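import Crest.Agent.R136.GW5_650

/-!
# R136, GEO-R in the W-chart (helper650), part 6: the fields `close`, `cell` of 627's `TSys`

Level flags as functions of the incidence: `fr n v x := mkS (Mk n class) (inc n x)`, precisions
`sizeW`.  `MarkW.closeT` : own flags against level flags, all 18 slots; `MarkW.classT` : level flags of
two incidences of one class (in particular of one line in one cell).
-/

set_option autoImplicit false
set_option linter.unusedVariables false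

open Finset Filter Topology

namespace Crest.Agent.R136.GW650

open Crest.Agent.R138.Ex926 (Base U)
open Crest.Agent.R138.Mk163 (zc zl rho alive)
open Crest.Agent.R138.MkRef627 (lc kc)
open Crest.Agent.R138.Dp76 (dpow_pos dpow_add dpow_le dpow_le_one)
open Crest.Agent.R138.ArgM163 (ev_const ev_const_mul)
open Crest.Agent.R136.Sh605
open Crest.Agent.R136.Net191
open Crest.Agent.R136.NetW191
open Crest.Agent.R136.GeoW778

theorem tr_neg (κ : ℝ) (g : Fin 4 → ℝ) (w : Fin 14 → ℝ) (k : Fin 14) :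
    tr κ g (-w) k = -tr κ g w k := by
  fin_cases k <;> simp only [tr, Matrix.cons_val, Fin.zero_eta, Fin.mk_one, Fin.reduceFinMk,
    Pi.neg_apply] <;> ring

/-- the two orders of an incidence and its mark -/
theorem coW_mkS_abs (κ : ℝ) (M : Fin 14 → ℝ) (i : FW) (k : Fin 18) :
    |coW κ i (mkS M i) k| = |coW κ (mkS M i) i k| := by
  refine Fin.addCases (m := 4) (n := 14) (fun j => ?_) (fun j => ?_) k
  · rw [coW_mkS_left, coW_left]
    show |rel κ i.g i.g j| = |(0 : ℝ)|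
    rw [rel_self]; rfl
  · rw [coW_mkS_right, coW_right]
    show |tr κ i.g (M - i.G) j| = _
    rw [show M - i.G = -(i.G - M) by rw [neg_sub], tr_neg, abs_neg]

section

variable {B : Base} {I : ℕ → Finset (ℕ × ℝ)} {lev : ℕ → ℚ → ℕ} {f : ℕ → ℚ → ℕ → ℤ → ℕ}
    {u : ℚ} {κ σ : ℕ → ℝ} {inc : ℕ → ℕ × ℝ → FW} {L : ℕ → ℕ → Ln4} {z0 : ℕ → ℤ → ℝ} {ρ : ℕ → ℝ}
    {Mk : ℕ → ℕ × ℤ → Fin 14 → ℝ} {E : ℕ → ℕ × ℤ → ℝ} {wA wB a : ℕ → ℝ} {pr : ℕ → Fin 14 → ℝ}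

/-- common facts of one level -/
theorem MarkW.base (h : MarkW B I lev f u κ σ inc L z0 ρ Mk E wA wB a pr)
    (hσ0 : ∀ᶠ n in (U : Filter ℕ), 0 < σ n)
    (hσ : ∀ M : ℝ, ∀ᶠ n in (U : Filter ℕ), σ n ≤ B.d n ^ M) :
    ∃ D : ℝ, 0 ≤ D ∧ ∀ᶠ n in (U : Filter ℕ), 0 < σ n ∧ 0 < ρ n ∧ ρ n ≤ B.d n ^ (-D) ∧
      1 ≤ B.d n ^ (-D) ∧ 0 < wA n ∧ 0 < wB n ∧ 0 < a n ∧
      σ n * (800 * (B.d n ^ (-D)) ^ 7) ≤ min 1 (a n) ∧
      σ n * (10 * (B.d n ^ (-D)) ^ 4) ≤ wB n ∧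
      (∀ x ∈ I n, BdW (κ n) (σ n) (B.d n ^ (-D)) (inc n x) (L n x.1)
        (z0 n (zc (lev n u) x.2)) (ρ n)) ∧
      ∀ x ∈ I n, ∀ k, |Mk n (kc (lev n u) (f n u) x) k| ≤ B.d n ^ (-D) := by
  obtain ⟨C1, h1⟩ := h.bd
  obtain ⟨C2, h2⟩ := h.Mbd
  obtain ⟨C3, h3⟩ := h.ρ1
  obtain ⟨C4, h4⟩ := h.low
  set D : ℝ := max (max C1 C2) (max C3 0) with hD
  have d1 : C1 ≤ D := (le_max_left _ _).trans (le_max_left _ _)
  have d2 : C2 ≤ D := (le_max_right _ _).trans (le_max_left _ _)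
  have d3 : C3 ≤ D := (le_max_left _ _).trans (le_max_right _ _)
  have d0 : 0 ≤ D := (le_max_right _ _).trans (le_max_right _ _)
  refine ⟨D, d0, ?_⟩
  have hsm : ∀ᶠ n in (U : Filter ℕ), σ n * (800 * (B.d n ^ (-D)) ^ 7) ≤
      B.d n ^ (max C4 0) := by
    filter_upwards [hσ (7 * D + max C4 0 + 1), ev_const_mul B (show (0 : ℝ) < 800 by norm_num)
      (η := 1) one_pos, hσ0] with n s1 s2 s3
    have e1 : (B.d n ^ (-D)) ^ 7 = B.d n ^ (-(7 * D)) := by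
      rw [← Real.rpow_natCast, ← Real.rpow_mul (B.pos n).le]
      congr 1; push_cast; ring
    rw [e1]
    calc σ n * (800 * B.d n ^ (-(7 * D))) ≤
          B.d n ^ (7 * D + max C4 0 + 1) * (800 * B.d n ^ (-(7 * D))) :=
          mul_le_mul_of_nonneg_right s1 (by have := dpow_pos B n (-(7 * D)); positivity)
      _ = (800 * B.d n ^ (1 : ℝ)) * B.d n ^ (max C4 0) := by
          have : B.d n ^ (7 * D + max C4 0 + 1) * B.d n ^ (-(7 * D)) =
              B.d n ^ (1 : ℝ) * B.d n ^ (max C4 0) := by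
            rw [← dpow_add, ← dpow_add]; congr 1; ring
          linear_combination 800 * this
      _ ≤ 1 * B.d n ^ (max C4 0) :=
          mul_le_mul_of_nonneg_right s2 (dpow_pos B n _).le
      _ = _ := one_mul _
  filter_upwards [h1, h2, h3, h4, hσ0, hsm, h.ρ0, h.A0] with n h1 h2 h3 h4 s0 sm r0 A0
  have dp := dpow_pos B n
  have g1 : 1 ≤ B.d n ^ (-D) := by
    have := dpow_le B n (show -D ≤ (0 : ℝ) by linarith)
    rwa [Real.rpow_zero] at this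
  have c1 : B.d n ^ (max C4 0) ≤ 1 := by
    have := dpow_le B n (show (0 : ℝ) ≤ max C4 0 from le_max_right _ _)
    rwa [Real.rpow_zero] at this
  have c4 : B.d n ^ (max C4 0) ≤ B.d n ^ C4 := dpow_le B n (le_max_left _ _)
  have g4 : (10 : ℝ) * (B.d n ^ (-D)) ^ 4 ≤ 800 * (B.d n ^ (-D)) ^ 7 := by
    have := pow_le_pow_right₀ g1 (show 4 ≤ 7 by norm_num)
    have : (0 : ℝ) ≤ (B.d n ^ (-D)) ^ 7 := by have := dp (-D); positivity
    linarith
  refine ⟨s0, r0, h3.trans (dpow_le B n (by linarith)), g1, A0, (dp _).trans_le h4.2,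
    (dp _).trans_le h4.1, le_min (sm.trans c1) (sm.trans (c4.trans h4.1)), ?_,
    fun x hx => (h1 x hx).mono (dpow_le B n (by linarith)),
    fun x hx k => (h2 x hx k).trans (dpow_le B n (by linarith))⟩
  exact (mul_le_mul_of_nonneg_left g4 s0.le).trans (sm.trans (c4.trans h4.2))

/-- **`TSys.close`, all 18 slots** -/
theorem MarkW.closeT (h : MarkW B I lev f u κ σ inc L z0 ρ Mk E wA wB a pr)
    (hσ0 : ∀ᶠ n in (U : Filter ℕ), 0 < σ n)
    (hσ : ∀ M : ℝ, ∀ᶠ n in (U : Filter ℕ), σ n ≤ B.d n ^ M) {ε : ℝ} (hε : 0 < ε) :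
    ∀ᶠ n in (U : Filter ℕ), ∀ x ∈ I n, ∀ k,
      |coW (κ n) (inc n x) (mkS (Mk n (kc (lev n u) (f n u) x)) (inc n x)) k| ≤
        sizeW (ρ n) (wA n) (wB n) (a n) (pr n) k * B.d n ^ (-ε) := by
  obtain ⟨D, D0, hb⟩ := h.base hσ0 hσ
  have e2 : 0 < ε / 2 := by positivity
  filter_upwards [hb, h.q _ e2, h.fl _ e2,
    ev_const B (show (0 : ℝ) < 48 by norm_num) e2, h.pr0] with n hb hq hf h48 hpr x hx k
  obtain ⟨s0, r0, r1, g1, A0, B0, a0, sm, sm', hb1, hb2⟩ := hb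
  have dp := dpow_pos B n
  have he : 1 ≤ B.d n ^ (-(ε / 2)) := by linarith
  have h5 := mark_inc (hb1 x hx) g1 s0 r0 r1 (hb2 x hx) he a0 sm (hq x hx) hpr
    (hf x hx) A0.le B0.le k
  rw [coW_mkS_abs]
  have h6 : 0 ≤ sizeW (ρ n) (wA n) (wB n) (a n) (pr n) k := by
    have h7 : 0 < 48 * B.d n ^ (-(ε / 2)) := by have := dp (-(ε / 2)); positivity
    exact nonneg_of_mul_nonneg_right ((abs_nonneg _).trans h5) h7
  calc _ ≤ 48 * B.d n ^ (-(ε / 2)) * sizeW (ρ n) (wA n) (wB n) (a n) (pr n) k := h5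
    _ ≤ (B.d n ^ (-(ε / 2)) * B.d n ^ (-(ε / 2))) *
        sizeW (ρ n) (wA n) (wB n) (a n) (pr n) k :=
        mul_le_mul_of_nonneg_right (mul_le_mul_of_nonneg_right h48 (dp _).le) h6
    _ = _ := by rw [← dpow_add, mul_comm]; congr 2; ring

/-- **`TSys.cell`, for a whole class** -/
theorem MarkW.classT (h : MarkW B I lev f u κ σ inc L z0 ρ Mk E wA wB a pr)
    (hσ0 : ∀ᶠ n in (U : Filter ℕ), 0 < σ n)
    (hσ : ∀ M : ℝ, ∀ᶠ n in (U : Filter ℕ), σ n ≤ B.d n ^ M) {ε : ℝ} (hε : 0 < ε) :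
    ∀ᶠ n in (U : Filter ℕ), ∀ x ∈ I n, ∀ y ∈ I n,
      kc (lev n u) (f n u) y = kc (lev n u) (f n u) x → ∀ k,
      |coW (κ n) (mkS (Mk n (kc (lev n u) (f n u) x)) (inc n x))
          (mkS (Mk n (kc (lev n u) (f n u) y)) (inc n y)) k| ≤
        sizeW (ρ n) (wA n) (wB n) (a n) (pr n) k * B.d n ^ (-ε) := by
  obtain ⟨D, D0, hb⟩ := h.base hσ0 hσ
  have e3 : 0 < ε / 3 := by positivity
  filter_upwards [hb, h.lat _ e3, h.ax _ e3,
    ev_const B (show (0 : ℝ) < 3 by norm_num) e3, h.pr0] with n hb hl hx' h3 hpr x hx y hy hxy k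
  obtain ⟨s0, r0, r1, g1, A0, B0, a0, sm, sm', hb1, hb2⟩ := hb
  have dp := dpow_pos B n
  have he : 1 ≤ B.d n ^ (-(ε / 3)) := by
    have := dpow_le B n (show -(ε / 3) ≤ (0 : ℝ) by linarith)
    rwa [Real.rpow_zero] at this
  have hz : zc (lev n u) y.2 = zc (lev n u) x.2 := congrArg Prod.snd hxy
  have by' := hb1 y hy
  rw [hz] at by'
  have h5 := mark_mark (hb1 x hx) by' g1 s0 r0 r1 (Mk n (kc (lev n u) (f n u) x)) he A0 B0 a0.le
    hpr (fun z z1 z2 => (hl x hx y hy hxy z z1 z2).1)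
    (fun z z1 z2 => (hl x hx y hy hxy z z1 z2).2) (hx' x hx) sm' k
  rw [hxy]
  have ee : (B.d n ^ (-(ε / 3))) ^ 2 = B.d n ^ (-(ε / 3)) * B.d n ^ (-(ε / 3)) := sq _
  rw [ee] at h5
  have h6 : 0 ≤ sizeW (ρ n) (wA n) (wB n) (a n) (pr n) k := by
    have h7 : 0 < 3 * (B.d n ^ (-(ε / 3)) * B.d n ^ (-(ε / 3))) := by
      have := dp (-(ε / 3)); positivity
    exact nonneg_of_mul_nonneg_right ((abs_nonneg _).trans h5) h7
  calc _ ≤ 3 * (B.d n ^ (-(ε / 3)) * B.d n ^ (-(ε / 3))) *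
        sizeW (ρ n) (wA n) (wB n) (a n) (pr n) k := h5
    _ ≤ (B.d n ^ (-(ε / 3)) * (B.d n ^ (-(ε / 3)) * B.d n ^ (-(ε / 3)))) *
        sizeW (ρ n) (wA n) (wB n) (a n) (pr n) k :=
        mul_le_mul_of_nonneg_right (mul_le_mul_of_nonneg_right h3 (by
          have := dp (-(ε / 3)); positivity)) h6
    _ = _ := by rw [← dpow_add, ← dpow_add, mul_comm]; congr 2; ring

end

end Crest.Agent.R136.GW650
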