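import Crest.Agent.R138.Dp1_76
import Crest.Agent.R138.Qf1_926
import Crest.Agent.R138.Fm_926

/-!
# R136, gauge stage, part 1 (helper66): from one class to all classes

`local_to_global` : if every half of a family contains a `d^ε`-part of one class with a property `Q`
(at tolerance `ε`), for every `ε > 0`, then there is ONE dense part of the family all of whose
classes have the property `Q` at tolerance `ε`, for every `ε > 0`.
-/

set_option autoImplicit false
set_option linter.unusedVariables false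

namespace Crest.Agent.R136.Gau66

open Finset Filter Topology
open Crest.Agent.R138.Ex926 Crest.Agent.R138.Dp76

variable {B : Base} {ι κ : ℕ → Type*} [∀ n, DecidableEq (ι n)] [∀ n, DecidableEq (κ n)]

open Classical in
/-- finite form: the good classes are not negligible -/
theorem finite_step {α β : Type*} [DecidableEq α] [DecidableEq β] (J : Finset α) (lab : α → β)
    {T d ε : ℝ} (hT : 0 < T) (hd : 0 < d)
    (hup : ∀ s ∈ J, ((cls J lab s).card : ℝ) ≤ T * d ^ (-ε))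
    (Q : Finset α → Prop) (hmono : ∀ G G', G' ⊆ G → Q G → Q G')
    (hgood : ¬ ((J.card : ℝ) ≤ 2 * ((J.filter fun s =>
      ¬ ∃ G' ⊆ cls J lab s, T * d ^ ε ≤ (G'.card : ℝ) ∧ Q G').card : ℝ))) :
    ∃ J1 ⊆ J, (J.card : ℝ) ≤ 2 * d ^ (-(2 * ε)) * (J1.card : ℝ) ∧
      ∀ s ∈ J1, Q (cls J1 lab s) := by
  set P : β → Finset α → Prop := fun c G' => G' ⊆ J.filter (fun y => lab y = c) ∧
    T * d ^ ε ≤ (G'.card : ℝ) ∧ Q G' with hP
  set pc : β → Finset α := fun c => if h : ∃ G', P c G' then h.choose else ∅ with hpc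
  have pcs : ∀ c, pc c ⊆ J.filter (fun y => lab y = c) := by
    intro c
    by_cases h : ∃ G', P c G'
    · have e : pc c = h.choose := dif_pos h
      rw [e]; exact h.choose_spec.1
    · have e : pc c = ∅ := dif_neg h
      rw [e]; exact empty_subset _
  have hpos : ∀ t : ℝ, 0 < d ^ t := fun t => Real.rpow_pos_of_pos hd t
  set J1 := (J.image lab).biUnion pc with hJ1
  have hsub : J1 ⊆ J := by
    intro y hy
    obtain ⟨c, -, hc⟩ := mem_biUnion.1 hy
    exact (mem_filter.1 (pcs c hc)).1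
  have hmem : ∀ s ∈ J1, s ∈ pc (lab s) := by
    intro s hs
    obtain ⟨c, -, hc⟩ := mem_biUnion.1 hs
    have := (mem_filter.1 (pcs c hc)).2
    rw [this]; exact hc
  refine ⟨J1, hsub, ?_, ?_⟩
  · set Gd := J.filter fun s => ∃ G' ⊆ cls J lab s, T * d ^ ε ≤ (G'.card : ℝ) ∧ Q G' with hGd
    have hcard : (J.card : ℝ) < 2 * (Gd.card : ℝ) := by
      have h1 := card_filter_add_card_filter_not (s := J)
        (fun s => ∃ G' ⊆ cls J lab s, T * d ^ ε ≤ (G'.card : ℝ) ∧ Q G')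
      have h2 : (Gd.card : ℝ) + ((J.filter fun s =>
          ¬ ∃ G' ⊆ cls J lab s, T * d ^ ε ≤ (G'.card : ℝ) ∧ Q G').card : ℝ) = J.card := by
        exact_mod_cast h1
      push Not at hgood
      have h3 : ((J.filter fun s =>
          ¬ ∃ G' ⊆ cls J lab s, T * d ^ ε ≤ (G'.card : ℝ) ∧ Q G').card : ℝ) =
          ((J.filter fun s => ∀ G' ⊆ cls J lab s, T * d ^ ε ≤ (G'.card : ℝ) → ¬ Q G').card : ℝ) := by
        congr 2
        refine filter_congr fun s _ => ?_
        push Not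
        rfl
      rw [h3] at h2
      linarith
    set Gl := Gd.image lab with hGl
    have c1 : (Gd.card : ℝ) ≤ T * d ^ (-ε) * (Gl.card : ℝ) := by
      have := le_count_mul Gd (fun _ => (1 : ℝ)) lab (m := T * d ^ (-ε)) (fun i hi => by
        rw [sum_const, nsmul_eq_mul, mul_one]
        refine le_trans ?_ (hup i (mem_filter.1 hi).1)
        exact_mod_cast card_le_card (cls_mono (filter_subset _ _) _ _))
      rwa [sum_const, nsmul_eq_mul, mul_one] at this
    have c2 : (Gl.card : ℝ) * (T * d ^ ε) ≤ (J1.card : ℝ) := by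
      have h1 : ∀ c ∈ Gl, T * d ^ ε ≤ ((pc c).card : ℝ) := by
        intro c hc
        obtain ⟨s, hs, rfl⟩ := mem_image.1 hc
        obtain ⟨G', hG1, hG2, hG3⟩ := (mem_filter.1 hs).2
        have h : ∃ G', P (lab s) G' := ⟨G', hG1, hG2, hG3⟩
        have e : pc (lab s) = h.choose := dif_pos h
        rw [e]; exact h.choose_spec.2.1
      have h2 : (Gl.biUnion pc).card = ∑ c ∈ Gl, (pc c).card := by
        refine card_biUnion ?_
        intro c _ c' _ hne
        show Disjoint (pc c) (pc c')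
        rw [Finset.disjoint_left]
        intro y hy hy'
        exact hne (((mem_filter.1 (pcs c hy)).2).symm.trans (mem_filter.1 (pcs c' hy')).2)
      have h3 : Gl.biUnion pc ⊆ J1 :=
        biUnion_subset_biUnion_of_subset_left _ (image_subset_image (filter_subset _ _))
      calc (Gl.card : ℝ) * (T * d ^ ε) = ∑ c ∈ Gl, T * d ^ ε := by
            rw [sum_const, nsmul_eq_mul]
        _ ≤ ∑ c ∈ Gl, ((pc c).card : ℝ) := sum_le_sum h1
        _ = ((Gl.biUnion pc).card : ℝ) := by rw [h2]; push_cast; rfl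
        _ ≤ (J1.card : ℝ) := by exact_mod_cast card_le_card h3
    have e1 : d ^ (-ε) = d ^ (-(2 * ε)) * d ^ ε := by
      rw [← Real.rpow_add hd]; congr 1; ring
    calc (J.card : ℝ) ≤ 2 * (Gd.card : ℝ) := hcard.le
      _ ≤ 2 * (T * d ^ (-ε) * (Gl.card : ℝ)) := by linarith
      _ = 2 * d ^ (-(2 * ε)) * ((Gl.card : ℝ) * (T * d ^ ε)) := by rw [e1]; ring
      _ ≤ 2 * d ^ (-(2 * ε)) * (J1.card : ℝ) :=
          mul_le_mul_of_nonneg_left c2 (by have := hpos (-(2 * ε)); linarith)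
  · intro s hs
    have h1 : cls J1 lab s ⊆ pc (lab s) := by
      intro y hy
      obtain ⟨hy1, hy2⟩ := mem_filter.1 hy
      have := hmem y hy1
      rwa [hy2] at this
    have h2 : ∃ G', P (lab s) G' := by
      by_contra hcon
      have e : pc (lab s) = ∅ := dif_neg hcon
      have := hmem s hs
      rw [e] at this
      exact absurd this (notMem_empty _)
    have e : pc (lab s) = h2.choose := dif_pos h2
    rw [e] at h1
    exact hmono _ _ h1 h2.choose_spec.2.2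

open Classical in
/-- **from one class to all classes** -/
theorem local_to_global {J : ∀ n, Finset (ι n)} (lab : ∀ n, ι n → κ n) {T : ℕ → ℝ}
    (hT : ∀ n, 0 < T n)
    (hup : ∀ ε : ℝ, 0 < ε → ∀ᶠ n in (U : Filter ℕ), ∀ s ∈ J n,
      ((cls (J n) (lab n) s).card : ℝ) ≤ T n * B.d n ^ (-ε))
    (Q : ∀ n, ℝ → Finset (ι n) → Prop)
    (hmono : ∀ n ε G G', G' ⊆ G → Q n ε G → Q n ε G')
    (hmonoε : ∀ n ε ε' G, ε ≤ ε' → Q n ε G → Q n ε' G)
    (hloc : ∀ Gd : ∀ n, Finset (ι n), (∀ n, Gd n ⊆ J n) →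
      (∀ n, ∀ s ∈ Gd n, ∀ y ∈ J n, lab n y = lab n s → y ∈ Gd n) →
      (∀ᶠ n in (U : Filter ℕ), ((J n).card : ℝ) ≤ 2 * ((Gd n).card : ℝ)) →
      ∀ ε : ℝ, 0 < ε → ∀ᶠ n in (U : Filter ℕ), ∃ s : ι n, ∃ G' ⊆ cls (Gd n) (lab n) s,
        T n * B.d n ^ ε ≤ (G'.card : ℝ) ∧ Q n ε G') :
    ∃ J1 : ∀ n, Finset (ι n), (∀ n, J1 n ⊆ J n) ∧ Dense B J1 J ∧
      ∀ ε : ℝ, 0 < ε → ∀ᶠ n in (U : Filter ℕ), ∀ s ∈ J1 n, Q n ε (cls (J1 n) (lab n) s) := by
  have step : ∀ ε : ℝ, 0 < ε → ∀ᶠ n in (U : Filter ℕ), ∃ J1 ⊆ J n,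
      ((J n).card : ℝ) ≤ 2 * B.d n ^ (-(2 * ε)) * (J1.card : ℝ) ∧
        ∀ s ∈ J1, Q n ε (cls J1 (lab n) s) := by
    intro ε hε
    set Bad : ∀ n, Finset (ι n) := fun n => (J n).filter fun s =>
      ¬ ∃ G' ⊆ cls (J n) (lab n) s, T n * B.d n ^ ε ≤ (G'.card : ℝ) ∧ Q n ε G' with hBad
    rcases ev_em (fun n => ((J n).card : ℝ) ≤ 2 * ((Bad n).card : ℝ)) with h | h
    · exfalso
      obtain ⟨n, hn⟩ := (hloc Bad (fun n => filter_subset _ _) (fun n s hs y hy hl => by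
        rw [hBad, mem_filter] at hs ⊢
        refine ⟨hy, ?_⟩
        rw [cls_congr hl]
        exact hs.2) h ε hε).exists
      obtain ⟨s, G', h1, h2, h3⟩ := hn
      have hpos : 0 < T n * B.d n ^ ε := mul_pos (hT n) (Real.rpow_pos_of_pos (B.pos n) _)
      have h4 : (0 : ℝ) < (G'.card : ℝ) := lt_of_lt_of_le hpos h2
      obtain ⟨y, hy⟩ := card_pos.1 (by exact_mod_cast h4 : 0 < G'.card)
      obtain ⟨hy1, hy2⟩ := mem_filter.1 (h1 hy)
      refine (mem_filter.1 hy1).2 ⟨G', ?_, h2, h3⟩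
      rw [cls_congr hy2]
      exact h1.trans (cls_mono (filter_subset _ _) _ _)
    · filter_upwards [h, hup ε hε] with n h1 h2
      exact finite_step (J n) (lab n) (hT n) (B.pos n) h2 (Q n ε) (hmono n ε) h1
  obtain ⟨k, hk, hk2⟩ := exists_diag (fun j n => ∃ J1 ⊆ J n,
      ((J n).card : ℝ) ≤ 2 * B.d n ^ (-(2 * (1 / ((j : ℝ) + 1)))) * (J1.card : ℝ) ∧
        ∀ s ∈ J1, Q n (1 / ((j : ℝ) + 1)) (cls J1 (lab n) s))
    (fun j => step (1 / ((j : ℝ) + 1)) (by positivity))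
  set P : ∀ n, Finset (ι n) → Prop := fun n J1 => J1 ⊆ J n ∧
      ((J n).card : ℝ) ≤ 2 * B.d n ^ (-(2 * (1 / ((k n : ℝ) + 1)))) * (J1.card : ℝ) ∧
        ∀ s ∈ J1, Q n (1 / ((k n : ℝ) + 1)) (cls J1 (lab n) s) with hP
  set J1 : ∀ n, Finset (ι n) := fun n => if h : ∃ J1, P n J1 then h.choose else ∅ with hJ1
  have hJ : ∀ᶠ n in (U : Filter ℕ), P n (J1 n) := by
    filter_upwards [hk2] with n hn
    have h : ∃ J1, P n J1 := hn (k n) le_rfl
    have e : J1 n = h.choose := dif_pos h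
    rw [e]; exact h.choose_spec
  have hks : ∀ η : ℝ, 0 < η → ∀ᶠ n in (U : Filter ℕ), 1 / ((k n : ℝ) + 1) ≤ η := by
    intro η hη
    have h3 : Tendsto (fun n => 1 / ((k n : ℝ) + 1)) U (𝓝 0) :=
      tendsto_one_div_add_atTop_nhds_zero_nat.comp hk
    exact (h3.eventually (ge_mem_nhds hη))
  refine ⟨J1, ?_, ⟨hJ.mono fun n hn => hn.1, ?_⟩, ?_⟩
  · intro n
    by_cases h : ∃ J1, P n J1
    · have e : J1 n = h.choose := dif_pos h
      rw [e]; exact h.choose_spec.1
    · have e : J1 n = ∅ := dif_neg h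
      rw [e]; exact empty_subset _
  · intro η hη
    filter_upwards [hJ, hks (η / 4) (by positivity),
      B.ev_rpow_small (η := η / 2) (c := 1 / 2) (by positivity) (by norm_num)] with n h1 h2 h3
    have e0 : (0 : ℝ) ≤ ((J1 n).card : ℝ) := Nat.cast_nonneg _
    have e1 : B.d n ^ (-(2 * (1 / ((k n : ℝ) + 1)))) ≤ B.d n ^ (-(η / 2)) :=
      Real.rpow_le_rpow_of_exponent_ge (B.pos n) (B.lt n).le (by linarith)
    have e2 : B.d n ^ η = B.d n ^ (η / 2) * B.d n ^ (η / 2) := by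
      rw [← Real.rpow_add (B.pos n)]; congr 1; ring
    have e3 : B.d n ^ (η / 2) * B.d n ^ (-(η / 2)) = 1 := by
      rw [← Real.rpow_add (B.pos n)]; simp
    have p1 : 0 < B.d n ^ (η / 2) := Real.rpow_pos_of_pos (B.pos n) _
    have p2 : 0 < B.d n ^ (-(η / 2)) := Real.rpow_pos_of_pos (B.pos n) _
    calc B.d n ^ η * ((J n).card : ℝ)
        ≤ B.d n ^ η * (2 * B.d n ^ (-(2 * (1 / ((k n : ℝ) + 1)))) * ((J1 n).card : ℝ)) :=
          mul_le_mul_of_nonneg_left h1.2.1 (Real.rpow_nonneg (B.pos n).le _)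
      _ ≤ B.d n ^ η * (2 * B.d n ^ (-(η / 2)) * ((J1 n).card : ℝ)) := by
          refine mul_le_mul_of_nonneg_left ?_ (Real.rpow_nonneg (B.pos n).le _)
          exact mul_le_mul_of_nonneg_right (by linarith) e0
      _ = (B.d n ^ (η / 2) * 2) * (B.d n ^ (η / 2) * B.d n ^ (-(η / 2))) * ((J1 n).card : ℝ) := by
          rw [e2]; ring
      _ ≤ ((J1 n).card : ℝ) := by
          rw [e3, mul_one]
          nlinarith
  · intro ε hε
    filter_upwards [hJ, hks ε hε] with n h1 h2 s hs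
    exact hmonoε n _ _ _ h2 (h1.2.2 s hs)

end Crest.Agent.R136.Gau66
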