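import Crest.Agent.R136.Gau1_66

/-!
# R136, gauge stage, part 3 (helper66): relations with an uncontrolled power loss

`strip_to_global` : if every half of a family contains a part of one class with the property
`Q n y` and mass `≥ T d^(η y)`, where `y ∈ [a, b]` may depend on everything, then there is ONE
`y₀ ∈ [a, b]` and a part `J1` of the family of mass `≥ d^(3 η y₀)` all of whose classes have the
property `Q n y₀`.
-/

set_option autoImplicit false
set_option linter.unusedVariables false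

namespace Crest.Agent.R136.Gau66

open Finset Filter Topology
open Crest.Agent.R138.Ex926 Crest.Agent.R138.Dp76

open Classical in
/-- finite form: choose one good part in every good class -/
theorem finite_part {α β : Type*} [DecidableEq α] [DecidableEq β] (J : Finset α) (lab : α → β)
    {T t u c : ℝ} (hT : 0 < T) (ht : 0 < t) (hu : 0 < u) (hc : 0 ≤ c)
    (hup : ∀ s ∈ J, ((cls J lab s).card : ℝ) ≤ T * u)
    (Q : Finset α → Prop) (hmono : ∀ G G', G' ⊆ G → Q G → Q G')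
    (hgood : (J.card : ℝ) ≤ c * ((J.filter fun s =>
      ∃ G' ⊆ cls J lab s, T * t ≤ (G'.card : ℝ) ∧ Q G').card : ℝ)) :
    ∃ J1 ⊆ J, (J.card : ℝ) ≤ c * (u / t) * (J1.card : ℝ) ∧ ∀ s ∈ J1, Q (cls J1 lab s) := by
  set P : β → Finset α → Prop := fun c G' => G' ⊆ J.filter (fun y => lab y = c) ∧
    T * t ≤ (G'.card : ℝ) ∧ Q G' with hP
  set pc : β → Finset α := fun c => if h : ∃ G', P c G' then h.choose else ∅ with hpc
  have pcs : ∀ c, pc c ⊆ J.filter (fun y => lab y = c) := by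
    intro c
    by_cases h : ∃ G', P c G'
    · have e : pc c = h.choose := dif_pos h
      rw [e]; exact h.choose_spec.1
    · have e : pc c = ∅ := dif_neg h
      rw [e]; exact empty_subset _
  set J1 := (J.image lab).biUnion pc with hJ1
  have hsub : J1 ⊆ J := by
    intro y hy
    obtain ⟨c, -, hc⟩ := mem_biUnion.1 hy
    exact (mem_filter.1 (pcs c hc)).1
  have hmem : ∀ s ∈ J1, s ∈ pc (lab s) := by
    intro s hs
    obtain ⟨c, -, hc⟩ := mem_biUnion.1 hs
    have := (mem_filter.1 (pcs c hc)).2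
    rw [this]; exact hc
  refine ⟨J1, hsub, ?_, ?_⟩
  · set Gd := J.filter fun s => ∃ G' ⊆ cls J lab s, T * t ≤ (G'.card : ℝ) ∧ Q G' with hGd
    set Gl := Gd.image lab with hGl
    have c1 : (Gd.card : ℝ) ≤ T * u * (Gl.card : ℝ) := by
      have := le_count_mul Gd (fun _ => (1 : ℝ)) lab (m := T * u) (fun i hi => by
        rw [sum_const, nsmul_eq_mul, mul_one]
        refine le_trans ?_ (hup i (mem_filter.1 hi).1)
        exact_mod_cast card_le_card (cls_mono (filter_subset _ _) _ _))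
      rwa [sum_const, nsmul_eq_mul, mul_one] at this
    have c2 : (Gl.card : ℝ) * (T * t) ≤ (J1.card : ℝ) := by
      have h1 : ∀ c ∈ Gl, T * t ≤ ((pc c).card : ℝ) := by
        intro c hc
        obtain ⟨s, hs, rfl⟩ := mem_image.1 hc
        obtain ⟨G', hG1, hG2, hG3⟩ := (mem_filter.1 hs).2
        have h : ∃ G', P (lab s) G' := ⟨G', hG1, hG2, hG3⟩
        have e : pc (lab s) = h.choose := dif_pos h
        rw [e]; exact h.choose_spec.2.1
      have h2 : (Gl.biUnion pc).card = ∑ c ∈ Gl, (pc c).card := by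
        refine card_biUnion ?_
        intro c _ c' _ hne
        show Disjoint (pc c) (pc c')
        rw [Finset.disjoint_left]
        intro y hy hy'
        exact hne (((mem_filter.1 (pcs c hy)).2).symm.trans (mem_filter.1 (pcs c' hy')).2)
      have h3 : Gl.biUnion pc ⊆ J1 :=
        biUnion_subset_biUnion_of_subset_left _ (image_subset_image (filter_subset _ _))
      calc (Gl.card : ℝ) * (T * t) = ∑ c ∈ Gl, T * t := by
            rw [sum_const, nsmul_eq_mul]
        _ ≤ ∑ c ∈ Gl, ((pc c).card : ℝ) := sum_le_sum h1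
        _ = ((Gl.biUnion pc).card : ℝ) := by rw [h2]; push_cast; rfl
        _ ≤ (J1.card : ℝ) := by exact_mod_cast card_le_card h3
    calc (J.card : ℝ) ≤ c * (Gd.card : ℝ) := hgood
      _ ≤ c * (T * u * (Gl.card : ℝ)) := mul_le_mul_of_nonneg_left c1 hc
      _ = c * (u / t) * ((Gl.card : ℝ) * (T * t)) := by field_simp
      _ ≤ c * (u / t) * (J1.card : ℝ) := mul_le_mul_of_nonneg_left c2 (by positivity)
  · intro s hs
    have h1 : cls J1 lab s ⊆ pc (lab s) := by
      intro y hy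
      obtain ⟨hy1, hy2⟩ := mem_filter.1 hy
      have := hmem y hy1
      rwa [hy2] at this
    have h2 : ∃ G', P (lab s) G' := by
      by_contra hcon
      have e : pc (lab s) = ∅ := dif_neg hcon
      have := hmem s hs
      rw [e] at this
      exact absurd this (notMem_empty _)
    have e : pc (lab s) = h2.choose := dif_pos h2
    rw [e] at h1
    exact hmono _ _ h1 h2.choose_spec.2.2

/-- bins -/
theorem exists_bin {a b δ : ℝ} (ha : 0 < a) (hab : a ≤ b) (hδ : 0 < δ) :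
    ∃ m : ℕ, 0 < m ∧ ∃ y : ℕ → ℝ, (∀ i, i < m → a ≤ y i ∧ y i ≤ b) ∧
      ∀ z, a ≤ z → z ≤ b → ∃ i < m, y i ≤ z ∧ z ≤ (1 + δ) * y i := by
  obtain ⟨m, hm⟩ := exists_nat_gt ((b - a) / (δ * a))
  have hda : 0 < δ * a := mul_pos hδ ha
  refine ⟨m + 1, Nat.succ_pos _, fun i => a + (b - a) * i / (m + 1), fun i hi => ?_, fun z hz1 hz2 => ?_⟩
  · have h1 : (i : ℝ) ≤ m + 1 := by exact_mod_cast hi.le
    have h2 : 0 ≤ (b - a) * i / (m + 1) := by
      have : 0 ≤ b - a := by linarith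
      positivity
    have h3 : (b - a) * i / (m + 1) ≤ b - a := by
      rw [div_le_iff₀ (by positivity)]
      exact mul_le_mul_of_nonneg_left h1 (by linarith)
    exact ⟨by linarith, by linarith⟩
  · have hm1 : (0 : ℝ) < (m : ℝ) + 1 := by positivity
    have hstep : (b - a) / (m + 1) ≤ δ * a := by
      rw [div_lt_iff₀ hda] at hm
      rw [div_le_iff₀ hm1]
      nlinarith
    rcases eq_or_lt_of_le hab with hab' | hab'
    · refine ⟨0, Nat.succ_pos _, ?_, ?_⟩
      · simpa using hz1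
      · simp only [Nat.cast_zero, mul_zero, zero_div, add_zero]
        have : z ≤ a := by linarith
        nlinarith
    · set r : ℝ := (z - a) / (b - a) * (m + 1) with hr
      have hba : 0 < b - a := by linarith
      have hr0 : 0 ≤ r := by
        have : 0 ≤ z - a := by linarith
        positivity
      have hr1 : r ≤ m + 1 := by
        rw [hr]
        have : (z - a) / (b - a) ≤ 1 := by rw [div_le_one hba]; linarith
        nlinarith
      have hz : z = a + (b - a) * r / (m + 1) := by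
        rw [hr]; field_simp; ring
      -- index: floor of r, at most m
      set i := min m ⌊r⌋₊ with hi
      have hif : (i : ℝ) ≤ r := by
        have h1 : (i : ℝ) ≤ ⌊r⌋₊ := by exact_mod_cast min_le_right _ _
        exact h1.trans (Nat.floor_le hr0)
      have hif2 : r ≤ i + 1 := by
        rcases le_total m ⌊r⌋₊ with h | h
        · rw [hi, min_eq_left h]; exact hr1
        · rw [hi, min_eq_right h]; exact (Nat.lt_floor_add_one r).le
      refine ⟨i, Nat.lt_succ_of_le (min_le_left _ _), ?_, ?_⟩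
      · rw [hz]
        have : (b - a) * i / (m + 1) ≤ (b - a) * r / (m + 1) := by
          apply div_le_div_of_nonneg_right _ hm1.le
          exact mul_le_mul_of_nonneg_left hif hba.le
        linarith
      · have h1 : (b - a) * r / (m + 1) ≤ (b - a) * i / (m + 1) + (b - a) / (m + 1) := by
          rw [← add_div]
          apply div_le_div_of_nonneg_right _ hm1.le
          have := mul_le_mul_of_nonneg_left hif2 hba.le
          linarith
        have h2 : 0 ≤ (b - a) * (i : ℝ) / (m + 1) := by positivity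
        rw [hz]
        nlinarith

variable {B : Base} {ι κ : ℕ → Type*} [∀ n, DecidableEq (ι n)] [∀ n, DecidableEq (κ n)]

open Classical in
/-- **from one class to all classes, power losses**; the relation may be weakened by a factor `1 + η` of
the exponent (bins) -/
theorem strip_to_global' {J : ∀ n, Finset (ι n)} (lab : ∀ n, ι n → κ n) {T : ℕ → ℝ}
    (hT : ∀ n, 0 < T n)
    (hup : ∀ ε : ℝ, 0 < ε → ∀ᶠ n in (U : Filter ℕ), ∀ s ∈ J n,
      ((cls (J n) (lab n) s).card : ℝ) ≤ T n * B.d n ^ (-ε))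
    {a b η : ℝ} (ha : 0 < a) (hab : a ≤ b) (hη : 0 < η) (hη1 : η ≤ 1)
    (Q Q' : ∀ n, ℝ → Finset (ι n) → Prop)
    (hmono : ∀ n y G G', G' ⊆ G → Q' n y G → Q' n y G')
    (hanti : ∀ n y y' G, a ≤ y' → y' ≤ y → y ≤ (1 + η) * y' → Q n y G → Q' n y' G)
    (hloc : ∀ Gd : ∀ n, Finset (ι n), (∀ n, Gd n ⊆ J n) →
      (∀ n, ∀ s ∈ Gd n, ∀ y ∈ J n, lab n y = lab n s → y ∈ Gd n) →
      (∀ᶠ n in (U : Filter ℕ), ((J n).card : ℝ) ≤ 2 * ((Gd n).card : ℝ)) →
      ∀ᶠ n in (U : Filter ℕ), ∃ s : ι n, ∃ G' ⊆ cls (Gd n) (lab n) s, ∃ y, a ≤ y ∧ y ≤ b ∧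
        T n * B.d n ^ (η * y) ≤ (G'.card : ℝ) ∧ 0 < (G'.card : ℝ) ∧ Q n y G') :
    ∃ y₀, a ≤ y₀ ∧ y₀ ≤ b ∧ ∃ J1 : ∀ n, Finset (ι n), (∀ n, J1 n ⊆ J n) ∧
      ∀ᶠ n in (U : Filter ℕ), B.d n ^ (3 * η * y₀) * ((J n).card : ℝ) ≤ ((J1 n).card : ℝ) ∧
        ∀ s ∈ J1 n, Q' n y₀ (cls (J1 n) (lab n) s) := by
  obtain ⟨m, hm, y, hy, hbin⟩ := exists_bin ha hab hη
  -- the good classes
  set G1 : ∀ n, Finset (ι n) := fun n => (J n).filter fun s =>
    ∃ G' ⊆ cls (J n) (lab n) s, ∃ z, a ≤ z ∧ z ≤ b ∧ T n * B.d n ^ (η * z) ≤ (G'.card : ℝ) ∧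
      Q n z G' with hG1
  set Bad : ∀ n, Finset (ι n) := fun n => (J n).filter fun s =>
    ¬ ∃ G' ⊆ cls (J n) (lab n) s, ∃ z, a ≤ z ∧ z ≤ b ∧ T n * B.d n ^ (η * z) ≤ (G'.card : ℝ) ∧
      Q n z G' with hBad
  have hgood : ∀ᶠ n in (U : Filter ℕ), ((J n).card : ℝ) ≤ 2 * ((G1 n).card : ℝ) := by
    rcases ev_em (fun n => ((J n).card : ℝ) ≤ 2 * ((Bad n).card : ℝ)) with h | h
    · exfalso
      obtain ⟨n, hn⟩ := (hloc Bad (fun n => filter_subset _ _) (fun n s hs z hz hl => by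
        rw [hBad, mem_filter] at hs ⊢
        refine ⟨hz, ?_⟩
        rw [cls_congr hl]
        exact hs.2) h).exists
      obtain ⟨s, G', h1, z, hz1, hz2, h2, h4, h3⟩ := hn
      obtain ⟨x, hx⟩ := card_pos.1 (by exact_mod_cast h4 : 0 < G'.card)
      obtain ⟨hx1, hx2⟩ := mem_filter.1 (h1 hx)
      refine (mem_filter.1 hx1).2 ⟨G', ?_, z, hz1, hz2, h2, h3⟩
      rw [cls_congr hx2]
      exact h1.trans (cls_mono (filter_subset _ _) _ _)
    · filter_upwards [h] with n hn
      have h1 := card_filter_add_card_filter_not (s := J n)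
        (fun s => ∃ G' ⊆ cls (J n) (lab n) s, ∃ z, a ≤ z ∧ z ≤ b ∧
          T n * B.d n ^ (η * z) ≤ (G'.card : ℝ) ∧ Q n z G')
      have h2 : ((G1 n).card : ℝ) + ((Bad n).card : ℝ) = (J n).card := by exact_mod_cast h1
      rw [not_le] at hn
      linarith
  -- one bin
  set Gi : ℕ → ∀ n, Finset (ι n) := fun i n => (J n).filter fun s =>
    ∃ G' ⊆ cls (J n) (lab n) s, T n * B.d n ^ (η * (1 + η) * y i) ≤ (G'.card : ℝ) ∧
      Q' n (y i) G' with hGi
  have hcov : ∀ n, G1 n ⊆ (range m).biUnion fun i => Gi i n := by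
    intro n s hs
    obtain ⟨hs1, G', h1, z, hz1, hz2, h2, h3⟩ := mem_filter.1 hs
    obtain ⟨i, hi, hi1, hi2⟩ := hbin z hz1 hz2
    refine mem_biUnion.2 ⟨i, mem_range.2 hi, mem_filter.2 ⟨hs1, G', h1, ?_,
      hanti n _ _ _ (hy i hi).1 hi1 hi2 h3⟩⟩
    refine le_trans (mul_le_mul_of_nonneg_left ?_ (hT n).le) h2
    refine Real.rpow_le_rpow_of_exponent_ge (B.pos n) (B.lt n).le ?_
    calc η * z ≤ η * ((1 + η) * y i) := mul_le_mul_of_nonneg_left hi2 hη.le
      _ = _ := by ring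
  have hpig : ∀ᶠ n in (U : Filter ℕ), ∃ i ∈ (range m : Set ℕ),
      ((J n).card : ℝ) ≤ 2 * m * ((Gi i n).card : ℝ) := by
    filter_upwards [hgood] with n hn
    by_contra hcon
    push Not at hcon
    have h1 : ((G1 n).card : ℝ) ≤ ∑ i ∈ range m, ((Gi i n).card : ℝ) := by
      have h2 := (card_le_card (hcov n)).trans card_biUnion_le
      exact_mod_cast h2
    have hne : (range m).Nonempty := ⟨0, mem_range.2 hm⟩
    have h3 : ∑ i ∈ range m, (2 * m * ((Gi i n).card : ℝ)) < ∑ i ∈ range m, ((J n).card : ℝ) :=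
      sum_lt_sum_of_nonempty hne fun i hi => hcon i (by simpa using hi)
    rw [← mul_sum, sum_const, card_range, nsmul_eq_mul] at h3
    have hm0 : (0 : ℝ) < m := by exact_mod_cast hm
    nlinarith
  obtain ⟨i, hi, hi2⟩ := (Ultrafilter.eventually_exists_mem_iff (Finset.finite_toSet _)).1 hpig
  have him : i < m := by simpa using hi
  have hyi := hy i him
  have hyi0 : 0 < y i := lt_of_lt_of_le ha hyi.1
  refine ⟨y i, hyi.1, hyi.2, ?_⟩
  -- the parts
  have step : ∀ᶠ n in (U : Filter ℕ), ∃ J1 ⊆ J n,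
      B.d n ^ (3 * η * y i) * ((J n).card : ℝ) ≤ (J1.card : ℝ) ∧
        ∀ s ∈ J1, Q' n (y i) (cls J1 (lab n) s) := by
    have hε : 0 < η * a / 4 := by positivity
    filter_upwards [hi2, hup (η * a / 4) hε,
      B.ev_rpow_small (η := η * a / 4) (c := 1 / (2 * m)) hε
        (by have : (0 : ℝ) < m := by exact_mod_cast hm
            positivity)] with n h1 h2 h3
    have hp : ∀ t : ℝ, 0 < B.d n ^ t := fun t => Real.rpow_pos_of_pos (B.pos n) t
    obtain ⟨J1, hJ1, hc, hQ⟩ := finite_part (J n) (lab n) (hT n)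
      (t := B.d n ^ (η * (1 + η) * y i)) (u := B.d n ^ (-(η * a / 4))) (c := 2 * m) (hp _) (hp _)
      (by positivity) h2 (Q' n (y i)) (hmono n (y i)) h1
    refine ⟨J1, hJ1, ?_, hQ⟩
    have hm0 : (0 : ℝ) < m := by exact_mod_cast hm
    have e0 : (0 : ℝ) ≤ (J1.card : ℝ) := Nat.cast_nonneg _
    have e1 : B.d n ^ (-(η * a / 4)) / B.d n ^ (η * (1 + η) * y i) =
        B.d n ^ (-(η * a / 4) - η * (1 + η) * y i) := by rw [Real.rpow_sub (B.pos n)]
    rw [e1] at hc
    have e2 : B.d n ^ (3 * η * y i) * B.d n ^ (-(η * a / 4) - η * (1 + η) * y i) ≤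
        B.d n ^ (η * a / 4) := by
      rw [← Real.rpow_add (B.pos n)]
      refine Real.rpow_le_rpow_of_exponent_ge (B.pos n) (B.lt n).le ?_
      have k1 : η * η * y i ≤ η * 1 * y i := by
        have : η * η ≤ η * 1 := mul_le_mul_of_nonneg_left hη1 hη.le
        exact mul_le_mul_of_nonneg_right this hyi0.le
      have k2 : η * a ≤ η * y i := mul_le_mul_of_nonneg_left hyi.1 hη.le
      nlinarith
    calc B.d n ^ (3 * η * y i) * ((J n).card : ℝ)
        ≤ B.d n ^ (3 * η * y i) *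
          (2 * m * B.d n ^ (-(η * a / 4) - η * (1 + η) * y i) * (J1.card : ℝ)) :=
          mul_le_mul_of_nonneg_left hc (hp _).le
      _ = 2 * m * (B.d n ^ (3 * η * y i) * B.d n ^ (-(η * a / 4) - η * (1 + η) * y i)) *
          (J1.card : ℝ) := by ring
      _ ≤ 2 * m * (1 / (2 * m)) * (J1.card : ℝ) := by
          refine mul_le_mul_of_nonneg_right ?_ e0
          exact mul_le_mul_of_nonneg_left (e2.trans h3) (by positivity)
      _ = (J1.card : ℝ) := by field_simp
  set P : ∀ n, Finset (ι n) → Prop := fun n J1 => J1 ⊆ J n ∧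
      B.d n ^ (3 * η * y i) * ((J n).card : ℝ) ≤ (J1.card : ℝ) ∧
        ∀ s ∈ J1, Q' n (y i) (cls J1 (lab n) s) with hP
  set J1 : ∀ n, Finset (ι n) := fun n => if h : ∃ J1, P n J1 then h.choose else ∅ with hJ1
  refine ⟨J1, fun n => ?_, ?_⟩
  · by_cases h : ∃ J1, P n J1
    · have e : J1 n = h.choose := dif_pos h
      rw [e]; exact h.choose_spec.1
    · have e : J1 n = ∅ := dif_neg h
      rw [e]; exact empty_subset _
  · filter_upwards [step] with n hn
    have h : ∃ J1, P n J1 := hn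
    have e : J1 n = h.choose := dif_pos h
    rw [e]; exact h.choose_spec.2

/-- **from one class to all classes, power losses** -/
theorem strip_to_global {J : ∀ n, Finset (ι n)} (lab : ∀ n, ι n → κ n) {T : ℕ → ℝ}
    (hT : ∀ n, 0 < T n)
    (hup : ∀ ε : ℝ, 0 < ε → ∀ᶠ n in (U : Filter ℕ), ∀ s ∈ J n,
      ((cls (J n) (lab n) s).card : ℝ) ≤ T n * B.d n ^ (-ε))
    {a b η : ℝ} (ha : 0 < a) (hab : a ≤ b) (hη : 0 < η) (hη1 : η ≤ 1)
    (Q : ∀ n, ℝ → Finset (ι n) → Prop)
    (hmono : ∀ n y G G', G' ⊆ G → Q n y G → Q n y G')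
    (hanti : ∀ n y y' G, y' ≤ y → Q n y G → Q n y' G)
    (hloc : ∀ Gd : ∀ n, Finset (ι n), (∀ n, Gd n ⊆ J n) →
      (∀ n, ∀ s ∈ Gd n, ∀ y ∈ J n, lab n y = lab n s → y ∈ Gd n) →
      (∀ᶠ n in (U : Filter ℕ), ((J n).card : ℝ) ≤ 2 * ((Gd n).card : ℝ)) →
      ∀ᶠ n in (U : Filter ℕ), ∃ s : ι n, ∃ G' ⊆ cls (Gd n) (lab n) s, ∃ y, a ≤ y ∧ y ≤ b ∧
        T n * B.d n ^ (η * y) ≤ (G'.card : ℝ) ∧ 0 < (G'.card : ℝ) ∧ Q n y G') :
    ∃ y₀, a ≤ y₀ ∧ y₀ ≤ b ∧ ∃ J1 : ∀ n, Finset (ι n), (∀ n, J1 n ⊆ J n) ∧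
      ∀ᶠ n in (U : Filter ℕ), B.d n ^ (3 * η * y₀) * ((J n).card : ℝ) ≤ ((J1 n).card : ℝ) ∧
        ∀ s ∈ J1 n, Q n y₀ (cls (J1 n) (lab n) s) :=
  strip_to_global' lab hT hup ha hab hη hη1 Q Q hmono
    (fun n y y' G _ h _ => hanti n y y' G h) hloc

end Crest.Agent.R136.Gau66
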