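import Crest.Agent.R136.Qg7_926
import Crest.Agent.R136.Gau3_66

/-!
# R136 (helper66): generic zoom lemmas for the chain of T.L

* `base_ext` : a base is determined by `d`.
* `zprof_refine` : a dense part has the same zoomed profile.
* `popular_fs` : one coarse label per fine class, after a dense refinement.
* `few_labels` : a fine class meets few coarse classes.
* `ZWin.zoomk` : `exists_zoom` without second profile; `exists_twin` : two base points, one unit.
* `exists_zoom_ref` : zoom with moving base points; the dense part depends on the index.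
-/

set_option autoImplicit false
set_option linter.unusedSectionVars false
set_option linter.unusedVariables false

open Filter Topology

namespace Crest.Agent.R136.Gau66

open Finset Crest.Agent.R138.Ex926 Crest.Agent.R136.Net191 Crest.Agent.R136.Qg926

/-- a base is determined by `d` -/
theorem base_ext {B B' : Base} (h : ∀ n, B.d n = B'.d n) : B = B' := by
  obtain ⟨d, p, l, m⟩ := B
  obtain ⟨d', p', l', m'⟩ := B'
  have : d = d' := funext h
  subst this
  rfl

/-- `B'.d = B.d ^ e` with `e → 0` is sub-polynomial -/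
theorem sub_rpow {B : Base} {e : ℕ → ℝ} (he : Tendsto e U (𝓝 0)) :
    B.Sub fun n => B.d n ^ (-(e n)) := by
  rw [Base.Sub.iff]
  refine ⟨Eventually.of_forall fun n => Real.rpow_pos_of_pos (B.pos n) _, ?_⟩
  have : B.lg (fun n => B.d n ^ (-(e n))) = e := by
    funext n
    have hL := (B.L_pos n).ne'
    unfold Base.lg
    rw [Real.log_rpow (B.pos n)]
    unfold Base.L at hL ⊢
    have hl : Real.log (B.d n) ≠ 0 := neg_ne_zero.1 hL
    rw [neg_mul, neg_div_neg_eq, mul_div_cancel_right₀ _ hl]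
  rw [this]
  exact he

section

variable {ι κ : ℕ → Type*} [∀ n, DecidableEq (ι n)] [∀ n, DecidableEq (κ n)]

/-- **a dense part has the same zoomed profile** -/
theorem zprof_refine {B : Base} {V : Type*} [LE V] [Norm V] {J J' : ∀ n, Finset (ι n)}
    {g : ∀ n, V → ι n → κ n} {D : Set V} {T : ℕ → ℝ} {lam : V → ℝ} (h : ZProf B J g D T lam)
    (hT : ∀ n, 0 < T n) (hsub : ∀ᶠ n in (U : Filter ℕ), J' n ⊆ J n) {S : ℕ → ℝ} (hS : B.Sub S)
    (hd : ∀ᶠ n in (U : Filter ℕ), ((J n).card : ℝ) ≤ S n * (J' n).card) :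
    ZProf B J' g D T lam where
  up := fun K ε hε => by
    filter_upwards [h.up K ε hε, hsub] with n h1 h2 p hp hpK i hi
    refine le_trans ?_ (h1 p hp hpK i (h2 hi))
    exact_mod_cast card_le_card (cls_mono h2 _ _)
  num := fun K ε hε => by
    filter_upwards [h.num K ε hε, hsub] with n h1 h2 q hq hqK p hp hpK hqp i hi
    refine le_trans ?_ (h1 q hq hqK p hp hpK hqp i (h2 hi))
    exact_mod_cast card_le_card (image_subset_image (cls_mono h2 _ _))
  root := fun K ε hε => by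
    filter_upwards [h.root K (ε / 2) (by positivity), hsub, hd,
      hS.ev_le (ε := ε / 2) (by positivity)] with n h1 h2 h3 h4 p hp hpK
    have e0 : 0 < B.d n ^ (lam p - ε / 2) := Real.rpow_pos_of_pos (B.pos n) _
    have h5 : S n ≤ B.d n ^ (-(ε / 2)) := by
      rw [← B.exp_eq, ← Real.log_le_iff_le_exp h4.1]
      exact h4.2
    calc (((J' n).image (g n p)).card : ℝ) * T n ≤ (((J n).image (g n p)).card : ℝ) * T n := by
          refine mul_le_mul_of_nonneg_right ?_ (hT n).le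
          exact_mod_cast card_le_card (image_subset_image h2)
      _ ≤ (J n).card * B.d n ^ (lam p - ε / 2) := h1 p hp hpK
      _ ≤ (S n * (J' n).card) * B.d n ^ (lam p - ε / 2) := mul_le_mul_of_nonneg_right h3 e0.le
      _ ≤ (B.d n ^ (-(ε / 2)) * (J' n).card) * B.d n ^ (lam p - ε / 2) := by
          refine mul_le_mul_of_nonneg_right ?_ e0.le
          exact mul_le_mul_of_nonneg_right h5 (Nat.cast_nonneg _)
      _ = (J' n).card * (B.d n ^ (-(ε / 2)) * B.d n ^ (lam p - ε / 2)) := by ring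
      _ = (J' n).card * B.d n ^ (lam p - ε) := by
          rw [← Real.rpow_add (B.pos n)]; congr 2; ring

end

/-- **one coarse label per fine class**, after a refinement which keeps the fraction `1/N` -/
theorem popular_fs {α β γ : Type*} [DecidableEq α] [DecidableEq β] [DecidableEq γ] (J : Finset α)
    (f : α → β) (g : α → γ) {N : ℝ}
    (hN : ∀ s ∈ J, (((cls J f s).image g).card : ℝ) ≤ N) :
    ∃ J' ⊆ J, (J.card : ℝ) ≤ N * (J'.card : ℝ) ∧ ∀ x ∈ J', ∀ y ∈ J', f x = f y → g x = g y := by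
  classical
  -- the most popular coarse label of a class
  have hex : ∀ b : β, ∃ c : Option γ, b ∈ J.image f → ∃ c0 : γ, c = some c0 ∧
      ∀ c' ∈ (J.filter fun x => f x = b).image g,
        ((J.filter fun x => f x = b).filter fun x => g x = c').card ≤
          ((J.filter fun x => f x = b).filter fun x => g x = c0).card := by
    intro b
    by_cases hb : b ∈ J.image f
    · obtain ⟨s, hs, hsb⟩ := mem_image.1 hb
      have hne : ((J.filter fun x => f x = b).image g).Nonempty :=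
        ⟨g s, mem_image_of_mem _ (mem_filter.2 ⟨hs, hsb⟩)⟩
      obtain ⟨c0, -, hc0⟩ := exists_max_image ((J.filter fun x => f x = b).image g)
        (fun c => ((J.filter fun x => f x = b).filter fun x => g x = c).card) hne
      exact ⟨some c0, fun _ => ⟨c0, rfl, hc0⟩⟩
    · exact ⟨none, fun h => absurd h hb⟩
  choose pop hpop using hex
  refine ⟨J.filter fun x => pop (f x) = some (g x), filter_subset _ _, ?_, ?_⟩
  · set J' := J.filter fun x => pop (f x) = some (g x) with hJ'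
    have h1 : (J.card : ℝ) = ∑ b ∈ J.image f, ((J.filter fun x => f x = b).card : ℝ) := by
      rw [card_eq_sum_card_image f J]; push_cast; rfl
    have h2 : ∀ b ∈ J.image f, ((J.filter fun x => f x = b).card : ℝ) ≤
        N * ((J'.filter fun x => f x = b).card : ℝ) := by
      intro b hb
      obtain ⟨c0, hc, hmax⟩ := hpop b hb
      have e1 : ((J.filter fun x => f x = b).filter fun x => g x = c0) ⊆
          J'.filter fun x => f x = b := by
        intro x hx
        obtain ⟨hx1, hx2⟩ := mem_filter.1 hx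
        obtain ⟨hx3, hx4⟩ := mem_filter.1 hx1
        refine mem_filter.2 ⟨mem_filter.2 ⟨hx3, ?_⟩, hx4⟩
        rw [hx4, hc, hx2]
      have e2 : (J.filter fun x => f x = b).card = ∑ c ∈ (J.filter fun x => f x = b).image g,
          ((J.filter fun x => f x = b).filter fun x => g x = c).card :=
        card_eq_sum_card_image g _
      have e3 : (J.filter fun x => f x = b).card ≤
          ((J.filter fun x => f x = b).image g).card *
            (J'.filter fun x => f x = b).card := by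
        rw [e2]
        calc _ ≤ ∑ _c ∈ (J.filter fun x => f x = b).image g,
              (J'.filter fun x => f x = b).card :=
              sum_le_sum fun c hcm => (hmax c hcm).trans (card_le_card e1)
          _ = _ := by rw [sum_const, smul_eq_mul]
      obtain ⟨s, hs, hsb⟩ := mem_image.1 hb
      have e4 : (((J.filter fun x => f x = b).image g).card : ℝ) ≤ N := by
        have := hN s hs
        have e5 : cls J f s = J.filter fun x => f x = b := by
          ext y; rw [mem_cls, mem_filter, hsb]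
        rwa [e5] at this
      calc ((J.filter fun x => f x = b).card : ℝ)
          ≤ (((J.filter fun x => f x = b).image g).card : ℝ) *
            ((J'.filter fun x => f x = b).card : ℝ) := by exact_mod_cast e3
        _ ≤ _ := mul_le_mul_of_nonneg_right e4 (Nat.cast_nonneg _)
    have h3 : ∑ b ∈ J.image f, ((J'.filter fun x => f x = b).card : ℝ) = (J'.card : ℝ) := by
      have : J'.card = ∑ b ∈ J.image f, (J'.filter fun x => f x = b).card :=
        card_eq_sum_card_fiberwise fun x hx =>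
          mem_image_of_mem _ (mem_filter.1 hx).1
      exact_mod_cast this.symm
    calc (J.card : ℝ) = ∑ b ∈ J.image f, ((J.filter fun x => f x = b).card : ℝ) := h1
      _ ≤ ∑ b ∈ J.image f, N * ((J'.filter fun x => f x = b).card : ℝ) := sum_le_sum h2
      _ = N * (J'.card : ℝ) := by rw [← mul_sum, h3]
  · intro x hx y hy hxy
    obtain ⟨-, h1⟩ := mem_filter.1 hx
    obtain ⟨-, h2⟩ := mem_filter.1 hy
    rw [hxy, h2] at h1
    exact (Option.some.inj h1).symm

section

variable {m : ℕ} {ι : ℕ → Type*} [∀ n, DecidableEq (ι n)]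

/-- a fine class meets few coarse classes -/
theorem few_labels {B : Base} {I : ∀ n, Finset (ι n)} {co : ∀ n, ι n → ι n → Fin m → ℝ}
    {M : Mons m} {C : ℝ} (h : ∀ n, Chart (I n) (co n) M C) {n : ℕ} {p q : Fin m → ℝ}
    (hp : Legal M p) (hq : Legal M q) (hpq : p ≤ q) {J : Finset (ι n)} (hJ : J ⊆ I n) {i : ι n}
    (hi : i ∈ J) :
    (((cls J (nlab B I co M C n q) i).image (nlab B I co M C n p)).card : ℝ) ≤
      cN M C (cK0 M C) := by
  classical
  have h1 := card_nlab_le (B := B) h hp hp le_rfl (K := cK0 M C) (cK0_one (h n).C0) (hJ hi)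
  simp only [sub_self, sum_const_zero, neg_zero, Real.rpow_zero, mul_one] at h1
  refine le_trans (Nat.cast_le.2 (card_le_card (image_subset_image fun j hj => ?_))) h1
  obtain ⟨h2, h3⟩ := mem_cls.1 hj
  refine mem_filter.2 ⟨hJ h2, ?_⟩
  have h4 := near_of_nlab h hq (hJ hi) (hJ h2) h3.symm
  exact h4.anti (B.pos n) (B.lt n).le (le_trans zero_le_one (cK0_one (h n).C0)) hpq

variable {B B₁ : Base} {I J : ∀ n, Finset (ι n)} {co : ∀ n, ι n → ι n → Fin m → ℝ}
  {M : Mons m} {C : ℝ} {X : ℕ → Fin m → ℝ} {w : ℕ → ℝ} {P : Set (Fin m → ℝ)} {T : ℕ → ℝ}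
  {ν : (Fin m → ℝ) → ℝ}

/-- zoom without second profile -/
theorem zoomk (hN : ZWin B B₁ I J co M C X w P T ν)
    {x : ℕ → Fin m → ℝ} {b : ℝ} (hx : ∀ l, ‖x l‖ ≤ b) {h : ℕ → ℝ} (hpos : ∀ l, 0 < h l)
    (hh : Tendsto h atTop (𝓝 0)) {D : Set (Fin m → ℝ)}
    (h0 : (0 : Fin m → ℝ) ∈ D) {lam : (Fin m → ℝ) → ℝ} (htan : IsTan P D ν x h lam)
    (s : ℕ → ℕ → ℝ) (hs : ∀ i, B₁.Sub (s i)) :
    ∃ k : ℕ → ℕ, Tendsto k U atTop ∧ ∀ k' : ℕ → ℕ, Tendsto k' U atTop →
      (∀ᶠ n in (U : Filter ℕ), k' n ≤ k n) → ∃ B' : Base,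
        (∀ n, B'.d n = B₁.d n ^ h (k' n)) ∧ (∀ n, B'.L n = h (k' n) * B₁.L n) ∧
        (∀ i, B'.Sub (s i)) ∧
        ZWin B B' I J co M C (fun n => X n + w n • x (k' n)) (fun n => w n * h (k' n)) D
          (fun n => T n * B₁.d n ^ (-(ν (x (k' n))))) lam := by
  obtain ⟨k, hk, hk2⟩ := hN.exists_zoom hx hpos hh h0 htan hN.T0 hN.prof h0 htan s hs
  refine ⟨k, hk, fun k' hk' hle => ?_⟩
  obtain ⟨B', b1, b2, b3, b4, -⟩ := hk2 k' hk' hle
  exact ⟨B', b1, b2, b3, b4⟩

/-- minimum of two speeds -/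
theorem tendsto_min {k1 k2 : ℕ → ℕ} (h1 : Tendsto k1 U atTop) (h2 : Tendsto k2 U atTop) :
    Tendsto (fun n => min (k1 n) (k2 n)) U atTop := by
  rw [tendsto_atTop] at h1 h2 ⊢
  intro b
  filter_upwards [h1 b, h2 b] with n a1 a2 using le_min a1 a2

/-- **twin zoom** : an interior base point `xI` and a record base point `xR` with own profile, the
same unit, the same base -/
theorem exists_twin (hN : ZWin B B₁ I J co M C X w P T ν)
    {xI xR : ℕ → Fin m → ℝ} {b : ℝ} (hxI : ∀ l, ‖xI l‖ ≤ b) (hxR : ∀ l, ‖xR l‖ ≤ b)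
    {h : ℕ → ℝ} (hpos : ∀ l, 0 < h l) (hh : Tendsto h atTop (𝓝 0)) {D : Set (Fin m → ℝ)}
    (h0 : (0 : Fin m → ℝ) ∈ D) {lamI lamR : (Fin m → ℝ) → ℝ} (htI : IsTan P D ν xI h lamI)
    (htR : IsTan P D ν xR h lamR)
    {κ : ℕ → Type*} [∀ n, DecidableEq (κ n)] {ol : ∀ n, (Fin m → ℝ) → ι n → κ n}
    {Po Do : Set (Fin m → ℝ)} {To : ℕ → ℝ} (hTo : ∀ n, 0 < To n) {own lo : (Fin m → ℝ) → ℝ}
    (hO : ZProf B₁ J ol Po To own)
    (h0o : (0 : Fin m → ℝ) ∈ Do) (htano : IsTan Po Do own xR h lo)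
    (s : ℕ → ℕ → ℝ) (hs : ∀ i, B₁.Sub (s i)) :
    ∃ k : ℕ → ℕ, Tendsto k U atTop ∧ ∀ k' : ℕ → ℕ, Tendsto k' U atTop →
      (∀ᶠ n in (U : Filter ℕ), k' n ≤ k n) → ∃ B' : Base,
        (∀ n, B'.d n = B₁.d n ^ h (k' n)) ∧ (∀ n, B'.L n = h (k' n) * B₁.L n) ∧
        (∀ i, B'.Sub (s i)) ∧
        ZWin B B' I J co M C (fun n => X n + w n • xI (k' n)) (fun n => w n * h (k' n)) D
          (fun n => T n * B₁.d n ^ (-(ν (xI (k' n))))) lamI ∧
        ZWin B B' I J co M C (fun n => X n + w n • xR (k' n)) (fun n => w n * h (k' n)) D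
          (fun n => T n * B₁.d n ^ (-(ν (xR (k' n))))) lamR ∧
        ZProf B' J (fun n c => ol n (xR (k' n) + h (k' n) • c)) Do
          (fun n => To n * B₁.d n ^ (-(own (xR (k' n))))) lo := by
  obtain ⟨k1, hk1, H1⟩ := zoomk hN hxI hpos hh h0 htI s hs
  obtain ⟨k2, hk2, H2⟩ := hN.exists_zoom hxR hpos hh h0 htR hTo hO h0o htano s hs
  refine ⟨fun n => min (k1 n) (k2 n), tendsto_min hk1 hk2, fun k' hk' hle => ?_⟩
  obtain ⟨B', b1, b2, b3, b4⟩ := H1 k' hk' (hle.mono fun n hn => hn.trans (min_le_left _ _))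
  obtain ⟨B'', c1, c2, c3, c4, c5⟩ := H2 k' hk'
    (hle.mono fun n hn => hn.trans (min_le_right _ _))
  have e : B'' = B' := base_ext fun n => by rw [b1, c1]
  subst e
  exact ⟨B'', b1, b2, b3, b4, c4, c5⟩

/-- **zoom with moving base points and index dependent dense parts** : `R l n J1` = property of the
dense part, loss `B₁.d ^ (e l * h l)`, `e → 0` -/
theorem exists_zoom_ref (hN : ZWin B B₁ I J co M C X w P T ν)
    {x : ℕ → Fin m → ℝ} {b : ℝ} (hx : ∀ l, ‖x l‖ ≤ b) {h : ℕ → ℝ} (hpos : ∀ l, 0 < h l)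
    (hh : Tendsto h atTop (𝓝 0)) {D : Set (Fin m → ℝ)}
    (h0 : (0 : Fin m → ℝ) ∈ D) {lam : (Fin m → ℝ) → ℝ} (htan : IsTan P D ν x h lam)
    {κ : ℕ → Type*} [∀ n, DecidableEq (κ n)] {ol : ∀ n, (Fin m → ℝ) → ι n → κ n}
    {Po Do : Set (Fin m → ℝ)} {To : ℕ → ℝ} (hTo : ∀ n, 0 < To n) {own lo : (Fin m → ℝ) → ℝ}
    (hO : ZProf B₁ J ol Po To own)
    (h0o : (0 : Fin m → ℝ) ∈ Do) (htano : IsTan Po Do own x h lo)
    (s : ℕ → ℕ → ℝ) (hs : ∀ i, B₁.Sub (s i))
    {e : ℕ → ℝ} (he : Tendsto e atTop (𝓝 0)) (R : ℕ → ∀ n, Finset (ι n) → Prop)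
    (hR : ∀ l, ∀ᶠ n in (U : Filter ℕ), ∃ J1 ⊆ J n,
      B₁.d n ^ (e l * h l) * ((J n).card : ℝ) ≤ (J1.card : ℝ) ∧ R l n J1) :
    ∃ k : ℕ → ℕ, Tendsto k U atTop ∧ ∃ B' : Base,
        (∀ n, B'.d n = B₁.d n ^ h (k n)) ∧ (∀ n, B'.L n = h (k n) * B₁.L n) ∧
        (∀ i, B'.Sub (s i)) ∧ ∃ J' : ∀ n, Finset (ι n), (∀ n, J' n ⊆ J n) ∧
        (∀ᶠ n in (U : Filter ℕ), R (k n) n (J' n)) ∧
        (∃ S : ℕ → ℝ, B'.Sub S ∧ ∀ᶠ n in (U : Filter ℕ),
          ((J n).card : ℝ) ≤ S n * ((J' n).card : ℝ)) ∧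
        ZWin B B' I J' co M C (fun n => X n + w n • x (k n)) (fun n => w n * h (k n)) D
          (fun n => T n * B₁.d n ^ (-(ν (x (k n))))) lam ∧
        ZProf B' J' (fun n c => ol n (x (k n) + h (k n) • c)) Do
          (fun n => To n * B₁.d n ^ (-(own (x (k n))))) lo := by
  classical
  obtain ⟨k1, hk1, H1⟩ := hN.exists_zoom hx hpos hh h0 htan hTo hO h0o htano s hs
  obtain ⟨k2, hk2, H2⟩ := exists_diag _ hR
  set k : ℕ → ℕ := fun n => min (k1 n) (k2 n) with hk
  have hkt : Tendsto k U atTop := tendsto_min hk1 hk2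
  obtain ⟨B', b1, b2, b3, b4, b5⟩ := H1 k hkt (Eventually.of_forall fun n => min_le_left _ _)
  set Q : ∀ n, Finset (ι n) → Prop := fun n J1 => J1 ⊆ J n ∧
    B₁.d n ^ (e (k n) * h (k n)) * ((J n).card : ℝ) ≤ (J1.card : ℝ) ∧ R (k n) n J1 with hQ
  set J' : ∀ n, Finset (ι n) := fun n => if h : ∃ J1, Q n J1 then h.choose else ∅ with hJ'
  have hJs : ∀ n, J' n ⊆ J n := by
    intro n
    by_cases hc : ∃ J1, Q n J1
    · have e1 : J' n = hc.choose := dif_pos hc
      rw [e1]; exact hc.choose_spec.1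
    · have e1 : J' n = ∅ := dif_neg hc
      rw [e1]; exact empty_subset _
  have hJ2 : ∀ᶠ n in (U : Filter ℕ), Q n (J' n) := by
    filter_upwards [H2] with n hn
    obtain ⟨J1, g1, g2, g3⟩ := hn (k n) (min_le_right _ _)
    have hc : ∃ J1, Q n J1 := ⟨J1, g1, g2, g3⟩
    have e1 : J' n = hc.choose := dif_pos hc
    rw [e1]; exact hc.choose_spec
  have hS : B'.Sub fun n => B'.d n ^ (-(e (k n))) := sub_rpow (he.comp hkt)
  have hd : ∀ᶠ n in (U : Filter ℕ), ((J n).card : ℝ) ≤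
      B'.d n ^ (-(e (k n))) * ((J' n).card : ℝ) := by
    filter_upwards [hJ2] with n hn
    have h1 := hn.2.1
    have e1 : B'.d n ^ (-(e (k n))) = (B₁.d n ^ (e (k n) * h (k n)))⁻¹ := by
      rw [b1, ← Real.rpow_mul (B₁.pos n).le, ← Real.rpow_neg (B₁.pos n).le]
      congr 1; ring
    have hp : 0 < B₁.d n ^ (e (k n) * h (k n)) := Real.rpow_pos_of_pos (B₁.pos n) _
    rw [e1, inv_mul_eq_div, le_div_iff₀ hp]
    linarith
  have hne : ∀ᶠ n in (U : Filter ℕ), (J' n).Nonempty := by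
    filter_upwards [hJ2, hN.ne] with n hn hn2
    have hp : 0 < B₁.d n ^ (e (k n) * h (k n)) := Real.rpow_pos_of_pos (B₁.pos n) _
    have h1 : (0 : ℝ) < (J n).card := by exact_mod_cast card_pos.2 hn2
    have h2 : (0 : ℝ) < (J' n).card := (mul_pos hp h1).trans_le hn.2.1
    exact card_pos.1 (by exact_mod_cast h2)
  refine ⟨k, hkt, B', b1, b2, b3, J', hJs, hJ2.mono fun n hn => hn.2.2, ⟨_, hS, hd⟩,
    b4.refine (Eventually.of_forall hJs) hne hS hd,
    zprof_refine b5 (fun n => mul_pos (hTo n) (Real.rpow_pos_of_pos (B₁.pos n) _))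
      (Eventually.of_forall hJs) hS hd⟩

end

end Crest.Agent.R136.Gau66
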