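import Mathlib
import Crest.Agent.R136.MkA_627
import Crest.Agent.R138.ArgM1_163
import Crest.Agent.R138.NatTw_76

/-!
# R136, seam GAU (sequence half), part A: restriction to one label (helper779)

`mk_class`: let `K` be a label of lines (constant on every line of `I n`) which takes `d^(-o(1))`
values on every marked class of every level.  Then every dense part contains a part on which `K` is
constant and which is again a marked sequence with the same data.
-/

set_option autoImplicit false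
set_option linter.unusedVariables false
set_option linter.unusedSectionVars false

open Finset Filter Topology

namespace Crest.Agent.R136.Gau779

open Crest.Agent.R138.Ex926 (Base U exists_diag)
open Crest.Agent.R138.Dp76
open Crest.Agent.R138.Ps627
open Crest.Agent.R138.Mk163 (zc zl rho alive own Negl)
open Crest.Agent.R138.MkRef627 (lc kc exists_num)
open Crest.Agent.R138.NatTw76 (exists_avoid)
open Crest.Agent.R136.MkA627

/-! ### unpopular labels -/

open Classical in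
/-- if the second label takes at most `N` values on every fibre of the first one, the elements
whose double fibre is smaller than `θ` times the fibre are at most `N θ` of the whole. -/
theorem card_unpop {α κ ℓ : Type*} (S : Finset α) (g : α → κ) (K : α → ℓ) {N θ : ℝ}
    (hθ : 0 ≤ θ) (hN : ∀ x ∈ S, ((((S.filter fun y => g y = g x).image K).card : ℕ) : ℝ) ≤ N) :
    (((S.filter fun x => ((S.filter fun y => g y = g x ∧ K y = K x).card : ℝ) <
      θ * (S.filter fun y => g y = g x).card).card : ℕ) : ℝ) ≤ N * θ * S.card := by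
  set bad := S.filter fun x => ((S.filter fun y => g y = g x ∧ K y = K x).card : ℝ) <
      θ * (S.filter fun y => g y = g x).card with hbad
  have e1 : (S.card : ℝ) = ∑ c ∈ S.image g, ((S.filter fun y => g y = c).card : ℝ) := by
    rw [card_eq_sum_card_image g S]; push_cast; rfl
  have e2 : (bad.card : ℝ) = ∑ c ∈ S.image g, ((bad.filter fun y => g y = c).card : ℝ) := by
    rw [card_eq_sum_card_fiberwise (f := g) (s := bad) (t := S.image g)]
    · push_cast; rfl
    · intro x hx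
      exact Finset.mem_coe.2 (mem_image_of_mem g (mem_filter.1 (Finset.mem_coe.1 hx)).1)
  rw [e1, e2, mul_sum]
  refine sum_le_sum fun c hc => ?_
  obtain ⟨x0, hx0, rfl⟩ := mem_image.1 hc
  set F := S.filter fun y => g y = g x0 with hF
  set bc := bad.filter fun y => g y = g x0 with hbc
  have hbF : bc ⊆ F := by
    intro y hy
    rw [hbc, mem_filter, hbad, mem_filter] at hy
    rw [hF, mem_filter]
    exact ⟨hy.1.1, hy.2⟩
  have e3 : (bc.card : ℝ) = ∑ k ∈ F.image K, ((bc.filter fun y => K y = k).card : ℝ) := by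
    rw [card_eq_sum_card_fiberwise (f := K) (s := bc) (t := F.image K)]
    · push_cast; rfl
    · intro x hx
      exact Finset.mem_coe.2 (mem_image_of_mem K (hbF (Finset.mem_coe.1 hx)))
  rw [e3]
  have h1 : ∑ k ∈ F.image K, ((bc.filter fun y => K y = k).card : ℝ) ≤
      ∑ k ∈ F.image K, θ * (F.card : ℝ) := by
    refine sum_le_sum fun k hk => ?_
    rcases (bc.filter fun y => K y = k).eq_empty_or_nonempty with h0 | ⟨y, hy⟩
    · rw [h0]
      simp only [card_empty, Nat.cast_zero]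
      positivity
    · rw [mem_filter] at hy
      obtain ⟨hy1, rfl⟩ := hy
      have hy2 := hy1
      rw [hbc, mem_filter, hbad, mem_filter] at hy2
      obtain ⟨⟨hyS, hylt⟩, hyg⟩ := hy2
      have e4 : (S.filter fun z => g z = g y) = F := by rw [hF, hyg]
      rw [e4] at hylt
      refine le_trans ?_ hylt.le
      refine Nat.cast_le.2 (card_le_card fun z hz => ?_)
      rw [mem_filter] at hz ⊢
      have hz2 := hbF hz.1
      rw [hF, mem_filter] at hz2
      exact ⟨hz2.1, hz2.2.trans hyg.symm, hz.2⟩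
  refine h1.trans ?_
  rw [sum_const, nsmul_eq_mul]
  have h2 := hN x0 hx0
  have h3 : (((F.image K).card : ℕ) : ℝ) ≤ N := by
    rw [hF]; exact h2
  calc ((F.image K).card : ℝ) * (θ * (F.card : ℝ)) ≤ N * (θ * (F.card : ℝ)) :=
        mul_le_mul_of_nonneg_right h3 (by positivity)
    _ = N * θ * (F.card : ℝ) := by ring

/-! ### the label maps -/

/-- (line, cell) labels and (class, cell, `K`) labels of all rational levels. -/
noncomputable def hK {ℓ : Type} (lev : ℕ → ℚ → ℕ) (f : ℕ → ℚ → ℕ → ℤ → ℕ)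
    (K : ℕ → ℕ × ℝ → ℓ) (j n : ℕ) (x : ℕ × ℝ) : (ℕ × ℤ) × Option ℓ :=
  if j % 2 = 0 then (lc (lev n (Denumerable.ofNat ℚ (j / 2))) x, none)
  else (kc (lev n (Denumerable.ofNat ℚ (j / 2))) (f n (Denumerable.ofNat ℚ (j / 2))) x,
    some (K n x))

theorem hK_even {ℓ : Type} (lev : ℕ → ℚ → ℕ) (f : ℕ → ℚ → ℕ → ℤ → ℕ) (K : ℕ → ℕ × ℝ → ℓ)
    (j n : ℕ) (x y : ℕ × ℝ) : hK lev f K (2 * j) n y = hK lev f K (2 * j) n x ↔
      lc (lev n (Denumerable.ofNat ℚ j)) y = lc (lev n (Denumerable.ofNat ℚ j)) x := by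
  unfold hK
  have h1 : (2 * j) / 2 = j := by omega
  have h2 : (2 * j) % 2 = 0 := by omega
  rw [if_pos h2, if_pos h2, h1]
  simp

theorem hK_odd {ℓ : Type} (lev : ℕ → ℚ → ℕ) (f : ℕ → ℚ → ℕ → ℤ → ℕ) (K : ℕ → ℕ × ℝ → ℓ)
    (j n : ℕ) (x y : ℕ × ℝ) : hK lev f K (2 * j + 1) n y = hK lev f K (2 * j + 1) n x ↔
      kc (lev n (Denumerable.ofNat ℚ j)) (f n (Denumerable.ofNat ℚ j)) y =
        kc (lev n (Denumerable.ofNat ℚ j)) (f n (Denumerable.ofNat ℚ j)) x ∧ K n y = K n x := by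
  unfold hK
  have h1 : (2 * j + 1) / 2 = j := by omega
  have h2 : ¬ (2 * j + 1) % 2 = 0 := by omega
  rw [if_neg h2, if_neg h2, h1]
  simp

section

variable {σ κ : Type*} {B : Base} {I : ℕ → Finset (ℕ × ℝ)} {G : Geo σ κ} {lev : ℕ → ℚ → ℕ}
    {A : ℕ → ℝ} {c Λ : ℝ → ℝ} {τ : κ → ℝ → ℝ} {f : ℕ → ℚ → ℕ → ℤ → ℕ} {b : ℕ → ℚ → ℕ → σ}
    {vm : ℕ → ℚ → ℝ} {w : κ → ℕ → ℚ → ℝ}

open Classical in
/-- the unpopular labels of one level are negligible -/
theorem negl_unpop {ℓ : Type} (K : ℕ → ℕ × ℝ → ℓ) (lv : ℕ → ℕ) (fv : ℕ → ℕ → ℤ → ℕ) {ε : ℝ}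
    (hε : 0 < ε)
    (hfew : ∀ᶠ n in (U : Filter ℕ), ∀ x ∈ I n,
      ((((I n).filter fun y => kc (lv n) (fv n) y = kc (lv n) (fv n) x).image (K n)).card : ℝ) ≤
        B.d n ^ (-ε)) :
    Negl B I fun n x =>
      (((I n).filter fun y => kc (lv n) (fv n) y = kc (lv n) (fv n) x ∧ K n y = K n x).card : ℝ) <
        B.d n ^ (2 * ε) * (((I n).filter fun y => kc (lv n) (fv n) y = kc (lv n) (fv n) x).card : ℝ) := by
  refine ⟨ε, hε, ?_⟩
  filter_upwards [hfew] with n hn
  have h1 := card_unpop (I n) (kc (lv n) (fv n)) (K n) (N := B.d n ^ (-ε))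
    (θ := B.d n ^ (2 * ε)) (dpow_pos B n _).le (fun x hx => by
      have := hn x hx
      convert this)
  have h2 : B.d n ^ (-ε) * B.d n ^ (2 * ε) = B.d n ^ ε := by
    rw [← dpow_add]; congr 1; ring
  rw [h2] at h1
  convert h1

open Classical in
/-- **restriction of a marked sequence to ONE label.** -/
theorem mk_class {ℓ : Type} (h : MkA B I G lev A c Λ τ f b vm w) {J : ℕ → Finset (ℕ × ℝ)}
    (hJ : Dense B J I) (K : ℕ → ℕ × ℝ → ℓ)
    (hline : ∀ᶠ n in (U : Filter ℕ), ∀ x ∈ I n, ∀ y ∈ I n, x.1 = y.1 → K n x = K n y)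
    (hfew : ∀ v : ℚ, 0 ≤ v → v ≤ 1 → ∀ ε : ℝ, 0 < ε → ∀ᶠ n in (U : Filter ℕ), ∀ x ∈ I n,
      ((((I n).filter fun y => kc (lev n v) (f n v) y = kc (lev n v) (f n v) x).image
        (K n)).card : ℝ) ≤ B.d n ^ (-ε)) :
    ∃ J' : ℕ → Finset (ℕ × ℝ), (∀ n, J' n ⊆ J n) ∧ (∀ n, J' n ⊆ I n) ∧
      (∀ n, ∀ x ∈ J' n, ∀ y ∈ J' n, K n x = K n y) ∧
      MkA B J' G lev A c Λ τ f b vm w := by
  -- avoid the unpopular labels
  have hN : ∀ j : ℕ, Negl B J fun n x =>
      (0 ≤ (Denumerable.ofNat ℚ (j.unpair.1) : ℚ) ∧ (Denumerable.ofNat ℚ (j.unpair.1) : ℚ) ≤ 1) ∧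
      (((I n).filter fun y => kc (lev n (Denumerable.ofNat ℚ (j.unpair.1)))
          (f n (Denumerable.ofNat ℚ (j.unpair.1))) y =
          kc (lev n (Denumerable.ofNat ℚ (j.unpair.1))) (f n (Denumerable.ofNat ℚ (j.unpair.1))) x ∧
          K n y = K n x).card : ℝ) <
        B.d n ^ (2 * (1 / ((j.unpair.2 : ℝ) + 1))) * (((I n).filter fun y =>
          kc (lev n (Denumerable.ofNat ℚ (j.unpair.1))) (f n (Denumerable.ofNat ℚ (j.unpair.1))) y =
          kc (lev n (Denumerable.ofNat ℚ (j.unpair.1)))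
            (f n (Denumerable.ofNat ℚ (j.unpair.1))) x).card : ℝ) := by
    intro j
    by_cases hv : (0 ≤ (Denumerable.ofNat ℚ (j.unpair.1) : ℚ) ∧
        (Denumerable.ofNat ℚ (j.unpair.1) : ℚ) ≤ 1)
    · have hε : (0 : ℝ) < 1 / ((j.unpair.2 : ℝ) + 1) := by positivity
      have h1 := negl_unpop (B := B) (I := I) K (fun n => lev n (Denumerable.ofNat ℚ (j.unpair.1)))
        (fun n => f n (Denumerable.ofNat ℚ (j.unpair.1))) hε (hfew _ hv.1 hv.2 _ hε)
      refine Negl.mono (h1.dense hJ) (Eventually.of_forall fun n x _ hx => hx.2)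
    · exact Negl.false.mono (Eventually.of_forall fun n x _ hx => hv hx.1)
  obtain ⟨J0, hJ0J, hJ0d, hJ0⟩ := exists_avoid _ hN
  have hJ0I : Dense B J0 I := hJ0d.trans hJ
  -- prune
  obtain ⟨J1, hsub, hhalf, hfib⟩ := prune_seq (η := fun _ _ => (ℕ × ℤ) × Option ℓ) hJ0I
    (hK lev f K)
  have hJ1ne : ∀ᶠ n in (U : Filter ℕ), (J1 n).Nonempty := by
    filter_upwards [hJ0I.nonempty h.ne, hhalf] with n a1 a2
    have h1 : (0 : ℝ) < ((J0 n).card : ℝ) := by exact_mod_cast card_pos.2 a1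
    have h2 : (0 : ℝ) < ((J1 n).card : ℝ) := by linarith
    exact card_pos.1 (by exact_mod_cast h2)
  -- one label
  have hch : ∀ n, ∃ J2 : Finset (ℕ × ℝ), J2 ⊆ J1 n ∧ (∀ x ∈ J2, ∀ y ∈ J2, K n x = K n y) ∧
      ((J1 n).Nonempty → J2.Nonempty) ∧ ∀ x ∈ J2, ∀ y ∈ J1 n, K n y = K n x → y ∈ J2 := by
    intro n
    rcases (J1 n).eq_empty_or_nonempty with h0 | ⟨x0, hx0⟩
    · refine ⟨∅, empty_subset _, by simp, fun h1 => ?_, by simp⟩
      rw [h0] at h1
      exact h1
    · refine ⟨(J1 n).filter fun y => K n y = K n x0, filter_subset _ _, ?_, fun _ =>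
        ⟨x0, mem_filter.2 ⟨hx0, rfl⟩⟩, ?_⟩
      · intro x hx y hy
        exact (mem_filter.1 hx).2.trans (mem_filter.1 hy).2.symm
      · intro x hx y hy hxy
        exact mem_filter.2 ⟨hy, hxy.trans (mem_filter.1 hx).2⟩
  choose J2 hJ21 hJ2K hJ2ne hJ2full using hch
  refine ⟨J2, fun n => (hJ21 n).trans ((hsub n).1.trans (hJ0J n)),
    fun n => (hJ21 n).trans (hsub n).2, hJ2K, ?_⟩
  refine MkA.of_fib h (fun n => (hJ21 n).trans (hsub n).2)
    (by filter_upwards [hJ1ne] with n hn using hJ2ne n hn) ?_ ?_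
  · -- lines
    intro v hv0 hv1 ε hε
    obtain ⟨j, rfl⟩ := exists_num v
    filter_upwards [hfib (2 * j) ε hε, hline] with n a1 a2 x hx
    have hx1 := hJ21 n hx
    have h1 := a1 x hx1
    simp only [hK_even] at h1
    refine h1.trans (Nat.cast_le.2 (card_le_card fun y hy => ?_))
    rw [mem_filter] at hy ⊢
    refine ⟨hJ2full n x hx y hy.1 ?_, hy.2⟩
    have h2 : (lc (lev n (Denumerable.ofNat ℚ j)) y).1 =
        (lc (lev n (Denumerable.ofNat ℚ j)) x).1 := congrArg Prod.fst hy.2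
    exact a2 y ((hsub n).2 hy.1) x ((hsub n).2 hx1) h2
  · -- classes
    intro v hv0 hv1 ε hε
    obtain ⟨m, hm⟩ := exists_nat_one_div_lt (show 0 < ε / 4 by positivity)
    obtain ⟨j, rfl⟩ := exists_num v
    have a3 := hJ0 (Nat.pair j m)
    simp only [Nat.unpair_pair] at a3
    filter_upwards [hfib (2 * j + 1) (ε / 2) (by positivity), a3] with n a1 a2 x hx
    have hx1 := hJ21 n hx
    have h1 := a1 x hx1
    simp only [hK_odd] at h1
    have h2 := a2 x ((hsub n).1 hx1)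
    have h3 : B.d n ^ (2 * (1 / ((m : ℝ) + 1))) * (((I n).filter fun y =>
          kc (lev n (Denumerable.ofNat ℚ j)) (f n (Denumerable.ofNat ℚ j)) y =
          kc (lev n (Denumerable.ofNat ℚ j)) (f n (Denumerable.ofNat ℚ j)) x).card : ℝ) ≤
        (((I n).filter fun y => kc (lev n (Denumerable.ofNat ℚ j))
          (f n (Denumerable.ofNat ℚ j)) y =
          kc (lev n (Denumerable.ofNat ℚ j)) (f n (Denumerable.ofNat ℚ j)) x ∧
          K n y = K n x).card : ℝ) := by
      by_contra hc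
      exact h2 ⟨⟨hv0, hv1⟩, not_le.1 hc⟩
    have h4 : B.d n ^ (ε / 2) ≤ B.d n ^ (2 * (1 / ((m : ℝ) + 1))) := dpow_le B n (by linarith)
    have h5 : (0 : ℝ) ≤ (((I n).filter fun y =>
          kc (lev n (Denumerable.ofNat ℚ j)) (f n (Denumerable.ofNat ℚ j)) y =
          kc (lev n (Denumerable.ofNat ℚ j)) (f n (Denumerable.ofNat ℚ j)) x).card : ℝ) :=
      Nat.cast_nonneg _
    have h6 : B.d n ^ ε = B.d n ^ (ε / 2) * B.d n ^ (ε / 2) := by
      rw [← dpow_add]; congr 1; ring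
    rw [h6, mul_assoc]
    refine (mul_le_mul_of_nonneg_left ((mul_le_mul_of_nonneg_right h4 h5).trans h3)
      (dpow_pos B n _).le).trans (h1.trans (Nat.cast_le.2 (card_le_card fun y hy => ?_)))
    rw [mem_filter] at hy ⊢
    exact ⟨hJ2full n x hx y hy.1 hy.2.2, hy.2.1⟩

end

end Crest.Agent.R136.Gau779
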