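import Crest.Agent.R136.LadG2_697

/-!
# R136: gauge with one correction per incidence (helper619)

`coW κ (gau κ e f) (gau κ e' f') = coW κ f f' + e' - tr (rel f f') e` on the flags; sizes; window
forms for the charts `coU u κ F`, `coU u κ (fG κ e F)` with general units `GrU (u n)`.
-/

set_option autoImplicit false
set_option linter.unusedVariables false

namespace Crest.Agent.R136.GauW619

open Finset Crest.Agent.R136.NetW191 Crest.Agent.R136.Net191 Crest.Agent.R136.EvW938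
open Crest.Agent.R136.Qg926
open Crest.Agent.R136.LadG697 (coU fG natX)
open Crest.Agent.R138.Ex926 (Base U)

/-! ### algebra -/

/-- frame slots -/
theorem coW_gau2_frame (κ : ℝ) (e e' : Fin 14 → ℝ) (f f' : FW) (i : Fin 4) :
    coW κ (gau κ e f) (gau κ e' f') (Fin.castAdd 14 i) = coW κ f f' (Fin.castAdd 14 i) := by
  rw [coW_left, coW_left, gau_g, gau_g]

/-- **flag slots**, one correction per incidence -/
theorem coW_gau2_flag (κ : ℝ) (e e' : Fin 14 → ℝ) (f f' : FW) (q : Fin 14) :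
    coW κ (gau κ e f) (gau κ e' f') (Fin.natAdd 4 q) =
      coW κ f f' (Fin.natAdd 4 q) + e' q - tr κ (rel κ f.g f'.g) e q := by
  rw [coW_right, coW_right, gau_g, gau_G, gau_G]
  have e1 : f'.G + tr κ (inv κ f'.g) e' - (f.G + tr κ (inv κ f.g) e) =
      (f'.G - f.G) + tr κ (inv κ f'.g) e' - tr κ (inv κ f.g) e := by
    abel
  have e2 : tr κ f'.g (tr κ (inv κ f.g) e) = tr κ (rel κ f.g f'.g) e := by
    rw [← tr_mul, ← rel_eq]
  rw [e1, tr_sub, tr_add, tr_inv, e2, Pi.sub_apply, Pi.add_apply]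

/-- difference of two gauges at the second incidence -/
theorem coW_gau2_sub (κ : ℝ) (e e' e'' : Fin 14 → ℝ) (f f' : FW) (q : Fin 14) :
    coW κ (gau κ e f) (gau κ e' f') (Fin.natAdd 4 q) -
      coW κ (gau κ e f) (gau κ e'' f') (Fin.natAdd 4 q) = e' q - e'' q := by
  rw [coW_gau2_flag, coW_gau2_flag]; ring

section size

variable {κ : ℝ} {e e' : Fin 14 → ℝ} {f f' : FW} {X : Fin 18 → ℝ} {K τ : ℝ}

/-- corrections of natural size do not change the sizes -/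
theorem gau2_le (hκ : |κ| ≤ 1) (hX : SidesW X) (hK : 1 ≤ K)
    (he : ∀ q : Fin 14, |e q| ≤ K * X (Fin.natAdd 4 q))
    (he' : ∀ q : Fin 14, |e' q| ≤ K * X (Fin.natAdd 4 q))
    (h : ∀ s, |coW κ f f' s| ≤ K * X s)
    (s : Fin 18) : |coW κ (gau κ e f) (gau κ e' f') s| ≤ 472 * K ^ 7 * X s := by
  have hK0 : 0 ≤ K := by linarith
  have hK7 : K ≤ K ^ 7 := by
    calc K = K ^ 1 := (pow_one K).symm
      _ ≤ K ^ 7 := pow_le_pow_right₀ hK (by norm_num)
  have hp : 0 ≤ K ^ 7 := by positivity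
  refine Fin.addCases (m := 4) (n := 14) (fun i => ?_) (fun q => ?_) s
  · rw [coW_gau2_frame]
    refine (h _).trans (mul_le_mul_of_nonneg_right ?_ (hX.pos _))
    linarith
  · rw [coW_gau2_flag]
    have h1 := tr_size (h := rel κ f.g f'.g) (w := e) hκ hX hK
      (fun i => by rw [← coW_left]; exact h _) he q
    have h2 := abs_sub (coW κ f f' (Fin.natAdd 4 q) + e' q) (tr κ (rel κ f.g f'.g) e q)
    have h3 := abs_add_le (coW κ f f' (Fin.natAdd 4 q)) (e' q)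
    have h4 := h (Fin.natAdd 4 q)
    have h5 := he' q
    have h6 : K * X (Fin.natAdd 4 q) ≤ K ^ 7 * X (Fin.natAdd 4 q) :=
      mul_le_mul_of_nonneg_right hK7 (hX.pos _)
    linarith

/-- the converse -/
theorem of_gau2_le (hκ : |κ| ≤ 1) (hX : SidesW X) (hK : 1 ≤ K)
    (he : ∀ q : Fin 14, |e q| ≤ K * X (Fin.natAdd 4 q))
    (he' : ∀ q : Fin 14, |e' q| ≤ K * X (Fin.natAdd 4 q))
    (h : ∀ s, |coW κ (gau κ e f) (gau κ e' f') s| ≤ K * X s)
    (s : Fin 18) : |coW κ f f' s| ≤ 472 * K ^ 7 * X s := by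
  have h1 := gau2_le (e := -e) (e' := -e') (f := gau κ e f) (f' := gau κ e' f') hκ hX hK
    (fun q => by rw [Pi.neg_apply, abs_neg]; exact he q)
    (fun q => by rw [Pi.neg_apply, abs_neg]; exact he' q) h s
  rwa [gau_neg, gau_neg] at h1

/-- **one slot**: if `coW f f' q` is `tr h' e q - e' q` up to `E` and the frame coordinates are `h'` up
to `τ` times the sides, the corrected coordinate is small -/
theorem own_gau2 (hκ : |κ| ≤ 1) (hX : SidesW X) (hK : 1 ≤ K) (hτ : 0 ≤ τ)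
    (he : ∀ q : Fin 14, |e q| ≤ K * X (Fin.natAdd 4 q)) {h' : Fin 4 → ℝ}
    (hh : ∀ i : Fin 4, |rel κ f.g f'.g i| ≤ K * X (Fin.castAdd 14 i))
    (hh' : ∀ i : Fin 4, |h' i| ≤ K * X (Fin.castAdd 14 i))
    (hhh : ∀ i : Fin 4, |rel κ f.g f'.g i - h' i| ≤ K * τ * X (Fin.castAdd 14 i)) {q : Fin 14}
    {E : ℝ} (hv : |coW κ f f' (Fin.natAdd 4 q) - (tr κ h' e q - e' q)| ≤ E) :
    |coW κ (gau κ e f) (gau κ e' f') (Fin.natAdd 4 q)| ≤
      E + 470 * K ^ 7 * τ * X (Fin.natAdd 4 q) := by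
  have h1 := tr_lip (h := rel κ f.g f'.g) (h' := h') (w := e) (w' := e) hκ hX hK hτ hh hh' hhh he
    (fun q => by
      rw [sub_self, abs_zero]
      have := hX.pos (Fin.natAdd 4 q)
      positivity) q
  rw [coW_gau2_flag]
  have e1 : coW κ f f' (Fin.natAdd 4 q) + e' q - tr κ (rel κ f.g f'.g) e q =
      (coW κ f f' (Fin.natAdd 4 q) - (tr κ h' e q - e' q)) -
        (tr κ (rel κ f.g f'.g) e q - tr κ h' e q) := by ring
  rw [e1]
  exact (abs_sub _ _).trans (add_le_add hv h1)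

/-- exact frame coordinates: `coW' = (coW - (tr h e - e'))` -/
theorem own_gau2_exact {q : Fin 14} {E : ℝ}
    (hv : |coW κ f f' (Fin.natAdd 4 q) - (tr κ (frm (coW κ f f')) e q - e' q)| ≤ E) :
    |coW κ (gau κ e f) (gau κ e' f') (Fin.natAdd 4 q)| ≤ E := by
  rw [coW_gau2_flag]
  rw [frm_coW] at hv
  have e1 : coW κ f f' (Fin.natAdd 4 q) + e' q - tr κ (rel κ f.g f'.g) e q =
      coW κ f f' (Fin.natAdd 4 q) - (tr κ (rel κ f.g f'.g) e q - e' q) := by ring
  rw [e1]; exact hv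

end size

/-! ### windows, general units -/

/-- the units are multiplicative along the monomials -/
theorem GrU.mon {u : Fin 18 → ℝ} (hu : GrU u) (k : Fin 18) (e : Fin 18 → ℕ)
    (he : e ∈ monW.mon k) : ∏ s, u s ^ e s = u k := by
  obtain ⟨l, hl, rfl⟩ := List.mem_map.1 (List.mem_toFinset.1 he)
  rw [← prod_count, hu.mul k l hl]

/-- **every labelling is a chart**, general units -/
theorem chart_coU {u : ℕ → Fin 18 → ℝ} {κ : ℕ → ℝ} (F : ℕ → ℕ × ℝ → FW) {n : ℕ}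
    (hκ : |κ n| ≤ 1) (hu : GrU (u n)) (E : Finset (ℕ × ℝ)) : Chart E (coU u κ F n) monW 67 :=
  PqG464.chart_scl (chartW E (F n) hκ) hu.pos fun k e he => (GrU.mon hu k e he).ge

/-- side of the box of window exponents `c`, in the units of `coW` -/
noncomputable def sdU (B B' : Base) (X : ℕ → Fin 18 → ℝ) (u : ℕ → Fin 18 → ℝ) (n : ℕ)
    (c : Fin 18 → ℝ) (s : Fin 18) : ℝ := B.d n ^ X n s * B'.d n ^ c s / u n s

section

variable {B B' : Base} {X : ℕ → Fin 18 → ℝ} {κ : ℕ → ℝ} {u : ℕ → Fin 18 → ℝ} {w : ℕ → ℝ}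
  {F : ℕ → ℕ × ℝ → FW} {e : ℕ → ℕ × ℝ → Fin 14 → ℝ} {n : ℕ} {c : Fin 18 → ℝ} {K : ℝ}
  {x y : ℕ × ℝ}

theorem sdU_pos (hu : GrU (u n)) (s : Fin 18) : 0 < sdU B B' X u n c s :=
  div_pos (mul_pos (Real.rpow_pos_of_pos (B.pos n) _) (Real.rpow_pos_of_pos (B'.pos n) _))
    (hu.pos s)

theorem sdU_sides (hu : GrU (u n)) (hB : B'.d n = B.d n ^ w n)
    (hL : Legal monW (X n + w n • c)) : SidesW (sdU B B' X u n c) := by
  have h := sidesW_of_legalG (B.pos n) (B.lt n).le hu hL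
  have e1 : (fun s => B.d n ^ (X n + w n • c) s / u n s) = sdU B B' X u n c := by
    funext s
    unfold sdU
    rw [hB, ← Real.rpow_mul (B.pos n).le, ← Real.rpow_add (B.pos n)]
    rfl
  rwa [e1] at h

theorem wboxU_iff (hu : GrU (u n)) :
    wbox B B' (coU u κ F) X n c K x y ↔
      ∀ s, |coW (κ n) (F n x) (F n y) s| ≤ K * sdU B B' X u n c s := by
  unfold wbox coU sdU
  refine forall_congr' fun s => ?_
  have hp := hu.pos s
  rw [abs_mul, abs_of_pos hp, mul_div_assoc', le_div_iff₀ hp, mul_comm]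

/-- size of a correction, window form -/
theorem sizeU_iff (hu : GrU (u n)) {v : Fin 14 → ℝ} :
    (∀ q : Fin 14, u n (Fin.natAdd 4 q) * |v q| ≤
      K * (B.d n ^ X n (Fin.natAdd 4 q) * B'.d n ^ c (Fin.natAdd 4 q))) ↔
      ∀ q : Fin 14, |v q| ≤ K * sdU B B' X u n c (Fin.natAdd 4 q) := by
  unfold sdU
  refine forall_congr' fun q => ?_
  have hp := hu.pos (Fin.natAdd 4 q)
  rw [mul_div_assoc', le_div_iff₀ hp, mul_comm]

/-- **old box ⊢ new box**, one correction per incidence -/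
theorem wbox_gauU (hκ : |κ n| ≤ 1) (hu : GrU (u n)) (hB : B'.d n = B.d n ^ w n)
    (hL : Legal monW (X n + w n • c)) (hK : 1 ≤ K)
    (hx : ∀ q : Fin 14, u n (Fin.natAdd 4 q) * |e n x q| ≤
      K * (B.d n ^ X n (Fin.natAdd 4 q) * B'.d n ^ c (Fin.natAdd 4 q)))
    (hy : ∀ q : Fin 14, u n (Fin.natAdd 4 q) * |e n y q| ≤
      K * (B.d n ^ X n (Fin.natAdd 4 q) * B'.d n ^ c (Fin.natAdd 4 q)))
    (h : wbox B B' (coU u κ F) X n c K x y) :
    wbox B B' (coU u κ (fG κ e F)) X n c (472 * K ^ 7) x y := by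
  rw [wboxU_iff hu] at h ⊢
  exact gau2_le hκ (sdU_sides hu hB hL) hK ((sizeU_iff hu).1 hx) ((sizeU_iff hu).1 hy) h

/-- **new box ⊢ old box**, one correction per incidence -/
theorem wbox_of_gauU (hκ : |κ n| ≤ 1) (hu : GrU (u n)) (hB : B'.d n = B.d n ^ w n)
    (hL : Legal monW (X n + w n • c)) (hK : 1 ≤ K)
    (hx : ∀ q : Fin 14, u n (Fin.natAdd 4 q) * |e n x q| ≤
      K * (B.d n ^ X n (Fin.natAdd 4 q) * B'.d n ^ c (Fin.natAdd 4 q)))
    (hy : ∀ q : Fin 14, u n (Fin.natAdd 4 q) * |e n y q| ≤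
      K * (B.d n ^ X n (Fin.natAdd 4 q) * B'.d n ^ c (Fin.natAdd 4 q)))
    (h : wbox B B' (coU u κ (fG κ e F)) X n c K x y) :
    wbox B B' (coU u κ F) X n c (472 * K ^ 7) x y := by
  rw [wboxU_iff hu] at h ⊢
  exact of_gau2_le hκ (sdU_sides hu hB hL) hK ((sizeU_iff hu).1 hx) ((sizeU_iff hu).1 hy) h

/-- frame slots of the gauged chart -/
theorem coU_fG_frame (i : Fin 4) : coU u κ (fG κ e F) n x y (Fin.castAdd 14 i) =
    coU u κ F n x y (Fin.castAdd 14 i) := by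
  unfold coU fG
  rw [coW_gau2_frame]

/-- flag slots of the gauged chart -/
theorem coU_fG_flag (q : Fin 14) : coU u κ (fG κ e F) n x y (Fin.natAdd 4 q) =
    coU u κ F n x y (Fin.natAdd 4 q) + u n (Fin.natAdd 4 q) * (e n y q -
      tr (κ n) (rel (κ n) (F n x).g (F n y).g) (e n x) q) := by
  unfold coU fG
  rw [coW_gau2_flag]
  ring

/-- the inverse gauge -/
theorem fG_neg (κ : ℕ → ℝ) (e : ℕ → ℕ × ℝ → Fin 14 → ℝ) (F : ℕ → ℕ × ℝ → FW) :
    fG κ (fun n i => -e n i) (fG κ e F) = F := by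
  funext n x
  exact gau_neg (κ n) (e n x) (F n x)

/-- two gauges -/
theorem fG_fG (κ : ℕ → ℝ) (e e' : ℕ → ℕ × ℝ → Fin 14 → ℝ) (F : ℕ → ℕ × ℝ → FW) :
    fG κ e' (fG κ e F) = fG κ (fun n i => e n i + e' n i) F := by
  funext n x
  exact gau_gau (κ n) (e n x) (e' n x) (F n x)

end

end Crest.Agent.R136.GauW619
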