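import Crest.Agent.R136.GauW_619
import Crest.Agent.R136.EvW3_938

/-!
# R136: gauge change of the labels in the W-chart, window form (helper619)

`coG κ lam f n x y s = lam ^ wtW s * coW (f x) (f y) s` (graded chart), `fE` = corrected labels
`gau (κ n) (e n) (f n x)`.  `chart_gauV` : exact chart; `wbox_gauV`, `wbox_of_gauV` : boxes of the
old and of the new chart, at every legal window exponent `c` at which the correction `e` has natural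
size; `own_gauV` : own motion; explicit rows for `AY`, `BY`, `Y²`.
-/

set_option autoImplicit false

namespace Crest.Agent.R136.GauW619

open Finset Crest.Agent.R136.NetW191 Crest.Agent.R136.Net191 Crest.Agent.R136.EvW938
open Crest.Agent.R136.Qg926
open Crest.Agent.R136.PqG464 (wtW chartW_gr)
open Crest.Agent.R138.Ex926 (Base U)

variable {ι : ℕ → Type*}

/-- the graded W-chart -/
def coG (κ lam : ℕ → ℝ) (f : ∀ n, ι n → FW) (n : ℕ) (x y : ι n) (s : Fin 18) : ℝ :=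
  lam n ^ wtW s * coW (κ n) (f n x) (f n y) s

/-- the corrected labels -/
def fE (κ : ℕ → ℝ) (e : ℕ → Fin 14 → ℝ) (f : ∀ n, ι n → FW) (n : ℕ) (x : ι n) : FW :=
  gau (κ n) (e n) (f n x)

/-- side of the box of window exponents `c` in original units -/
noncomputable def sdc (B B' : Base) (X : ℕ → Fin 18 → ℝ) (lam : ℕ → ℝ) (n : ℕ) (c : Fin 18 → ℝ)
    (s : Fin 18) : ℝ := B.d n ^ X n s * B'.d n ^ c s / lam n ^ wtW s

/-- **the corrected labels live in the same chart** -/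
theorem chart_gauV {κ lam : ℕ → ℝ} (f : ∀ n, ι n → FW) (e : ℕ → Fin 14 → ℝ)
    (hκ : ∀ n, |κ n| ≤ 1) (hl : ∀ n, 0 < lam n) (n : ℕ) (E : Finset (ι n)) :
    Chart E (coG κ lam (fE κ e f) n) monW 67 :=
  chartW_gr E (fE κ e f n) (hκ n) (hl n)

theorem fE_fE (κ : ℕ → ℝ) (e e' : ℕ → Fin 14 → ℝ) (f : ∀ n, ι n → FW) :
    fE κ e' (fE κ e f) = fE κ (fun n => e n + e' n) f := by
  funext n x
  exact gau_gau (κ n) (e n) (e' n) (f n x)

theorem fE_neg (κ : ℕ → ℝ) (e : ℕ → Fin 14 → ℝ) (f : ∀ n, ι n → FW) :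
    fE κ (fun n => -e n) (fE κ e f) = f := by
  funext n x
  exact gau_neg (κ n) (e n) (f n x)

section

variable {B B' : Base} {X : ℕ → Fin 18 → ℝ} {κ lam : ℕ → ℝ} {w : ℕ → ℝ} {f : ∀ n, ι n → FW}
  {e : ℕ → Fin 14 → ℝ} {n : ℕ} {c : Fin 18 → ℝ} {K : ℝ} {x y : ι n}

theorem sdc_sides (hl : 0 < lam n) (hB : B'.d n = B.d n ^ w n)
    (hL : Legal monW (X n + w n • c)) : SidesW (sdc B B' X lam n c) := by
  have h := sidesW_of_legal (B.pos n) (B.lt n).le hl hL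
  have e1 : (fun s => B.d n ^ (X n + w n • c) s / lam n ^ wtW s) = sdc B B' X lam n c := by
    funext s
    unfold sdc
    rw [hB, ← Real.rpow_mul (B.pos n).le, ← Real.rpow_add (B.pos n)]
    rfl
  rwa [e1] at h

theorem wbox_iff (hl : 0 < lam n) :
    wbox B B' (coG κ lam f) X n c K x y ↔
      ∀ s, |coW (κ n) (f n x) (f n y) s| ≤ K * sdc B B' X lam n c s := by
  unfold wbox coG sdc
  refine forall_congr' fun s => ?_
  have hp : 0 < lam n ^ wtW s := pow_pos hl _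
  rw [abs_mul, abs_of_pos hp, mul_div_assoc', le_div_iff₀ hp, mul_comm]

/-- **old box ⊢ new box** -/
theorem wbox_gauV (hκ : |κ n| ≤ 1) (hl : 0 < lam n) (hB : B'.d n = B.d n ^ w n)
    (hL : Legal monW (X n + w n • c)) (hK : 1 ≤ K)
    (he : ∀ q : Fin 14, |e n q| ≤ K * sdc B B' X lam n c (Fin.natAdd 4 q))
    (h : wbox B B' (coG κ lam f) X n c K x y) :
    wbox B B' (coG κ lam (fE κ e f)) X n c (472 * K ^ 7) x y := by
  rw [wbox_iff hl] at h ⊢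
  exact gau_le hκ (sdc_sides hl hB hL) hK he h

/-- **new box ⊢ old box** -/
theorem wbox_of_gauV (hκ : |κ n| ≤ 1) (hl : 0 < lam n) (hB : B'.d n = B.d n ^ w n)
    (hL : Legal monW (X n + w n • c)) (hK : 1 ≤ K)
    (he : ∀ q : Fin 14, |e n q| ≤ K * sdc B B' X lam n c (Fin.natAdd 4 q))
    (h : wbox B B' (coG κ lam (fE κ e f)) X n c K x y) :
    wbox B B' (coG κ lam f) X n c (472 * K ^ 7) x y := by
  rw [wbox_iff hl] at h ⊢
  exact of_gau_le hκ (sdc_sides hl hB hL) hK he h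

/-- **own motion of the corrected label**: `x, y` on one line, `hh` = the shift. -/
theorem own_gauV (hκ : |κ n| ≤ 1) (hl : 0 < lam n) (hB : B'.d n = B.d n ^ w n)
    (hL : Legal monW (X n + w n • c)) (hK : 1 ≤ K) {τ : ℝ} (hτ : 0 ≤ τ)
    (he : ∀ q : Fin 14, |e n q| ≤ K * sdc B B' X lam n c (Fin.natAdd 4 q)) {hh : Fin 4 → ℝ}
    (h1 : ∀ i : Fin 4, |rel (κ n) (f n x).g (f n y).g i| ≤ K * sdc B B' X lam n c (Fin.castAdd 14 i))
    (h2 : ∀ i : Fin 4, |hh i| ≤ K * sdc B B' X lam n c (Fin.castAdd 14 i))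
    (h3 : ∀ i : Fin 4, |rel (κ n) (f n x).g (f n y).g i - hh i| ≤
      K * τ * sdc B B' X lam n c (Fin.castAdd 14 i)) {q : Fin 14} {η : ℝ}
    (hv : |coW (κ n) (f n x) (f n y) (Fin.natAdd 4 q) - (tr (κ n) hh (e n) q - e n q)| ≤
      η * sdc B B' X lam n c (Fin.natAdd 4 q)) :
    |coG κ lam (fE κ e f) n x y (Fin.natAdd 4 q)| ≤
      (η + 470 * K ^ 7 * τ) * (B.d n ^ X n (Fin.natAdd 4 q) * B'.d n ^ c (Fin.natAdd 4 q)) := by
  have h4 := own_gau hκ (sdc_sides hl hB hL) hK hτ he h1 h2 h3 hv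
  have hp : 0 < lam n ^ wtW (Fin.natAdd 4 q) := pow_pos hl _
  unfold coG fE
  rw [abs_mul, abs_of_pos hp]
  have h5 := mul_le_mul_of_nonneg_left h4 hp.le
  refine h5.trans (le_of_eq ?_)
  unfold sdc
  field_simp

end

/-! ### explicit rows -/

/-- the recentring of `AY` -/
lemma tr_single2 (κ ψ : ℝ) (h : Fin 4 → ℝ) : tr κ h (Pi.single 2 ψ) =
    fun q => if q = 2 then ψ else if q = 4 then h 1 * ψ else if q = 5 then h 0 * ψ else
      if q = 6 then (3 * κ * h 2 - 2 * κ * h 0 * h 1) * ψ else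
      if q = 7 then (h 2 + h 0 * h 1) * ψ else
      if q = 8 then (4 * κ * h 1 * h 2 + h 3 - 3 * κ * h 0 * h 1 ^ 2) * ψ else
      if q = 9 then (2 * κ * h 1 ^ 2 * h 2 + h 1 * h 3 - κ * h 0 * h 1 ^ 3) * ψ else
      if q = 10 then h 0 * h 2 * ψ else
      if q = 11 then (3 * κ * h 2 ^ 2 - 2 * κ * h 0 * h 1 * h 2 + h 0 * h 3) * ψ else
      if q = 12 then (3 * κ * h 1 * h 2 ^ 2 + h 2 * h 3 - κ * h 0 * h 1 ^ 2 * h 2 +
        h 0 * h 1 * h 3) * ψ else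
      if q = 13 then (κ * h 2 ^ 3 + h 0 * h 2 * h 3) * ψ else 0 := by
  funext q
  fin_cases q
  · simp [tr0]
  · simp [tr1]
  · simp [tr2]
  · simp [tr3]
  · simp [tr4]
  · simp [tr5]
  · simp [tr6]; ring
  · simp [tr7]; ring
  · simp [tr8]; ring
  · simp [tr9]; ring
  · simp [tr10]
  · simp [tr11]; ring
  · simp [tr12]; ring
  · simp [tr13]; ring

/-- the recentring of `BY` -/
lemma tr_single1 (κ ψ : ℝ) (h : Fin 4 → ℝ) : tr κ h (Pi.single 1 ψ) =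
    fun q => if q = 1 then ψ else if q = 2 then -(2 * κ * h 1) * ψ else
      if q = 3 then h 0 * ψ else if q = 4 then -(κ * h 1 ^ 2) * ψ else
      if q = 5 then (2 * κ * h 2 - 4 * κ * h 0 * h 1) * ψ else
      if q = 6 then (κ * h 3 - 4 * κ ^ 2 * h 1 * h 2 + 4 * κ ^ 2 * h 0 * h 1 ^ 2) * ψ else
      if q = 7 then (2 * κ * h 1 * h 2 + 2 * h 3 - 2 * κ * h 0 * h 1 ^ 2) * ψ else
      if q = 8 then (4 * κ ^ 2 * h 0 * h 1 ^ 3 - 6 * κ ^ 2 * h 1 ^ 2 * h 2 -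
        2 * κ * h 1 * h 3) * ψ else
      if q = 9 then (κ ^ 2 * h 0 * h 1 ^ 4 - 2 * κ ^ 2 * h 1 ^ 3 * h 2 - κ * h 1 ^ 2 * h 3) * ψ else
      if q = 10 then (κ * h 2 ^ 2 + 2 * h 0 * h 3) * ψ else
      if q = 11 then (2 * κ * h 2 * h 3 - 2 * κ ^ 2 * h 1 * h 2 ^ 2 -
        4 * κ * h 0 * h 1 * h 3) * ψ else
      if q = 12 then (2 * κ * h 1 * h 2 * h 3 - κ ^ 2 * h 1 ^ 2 * h 2 ^ 2 + h 3 ^ 2 -
        2 * κ * h 0 * h 1 ^ 2 * h 3) * ψ else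
      if q = 13 then (κ * h 2 ^ 2 * h 3 + h 0 * h 3 ^ 2) * ψ else 0 := by
  funext q
  fin_cases q
  · simp [tr0]
  · simp [tr1]
  · simp [tr2]
  · simp [tr3]
  · simp [tr4]
  · simp [tr5]; ring
  · simp [tr6]; ring
  · simp [tr7]; ring
  · simp [tr8]; ring
  · simp [tr9]; ring
  · simp [tr10]; ring
  · simp [tr11]; ring
  · simp [tr12]; ring
  · simp [tr13]; ring

/-- the recentring of `Y²` -/
lemma tr_single0 (κ ψ : ℝ) (h : Fin 4 → ℝ) : tr κ h (Pi.single 0 ψ) =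
    fun q => if q = 0 then ψ else if q = 1 then 2 * h 0 * ψ else
      if q = 2 then (4 * κ * h 2 - 4 * κ * h 0 * h 1) * ψ else
      if q = 3 then h 0 ^ 2 * ψ else
      if q = 4 then (4 * κ * h 1 * h 2 + 2 * h 3 - 2 * κ * h 0 * h 1 ^ 2) * ψ else
      if q = 5 then (4 * κ * h 0 * h 2 - 4 * κ * h 0 ^ 2 * h 1) * ψ else
      if q = 6 then (6 * κ ^ 2 * h 2 ^ 2 - 8 * κ ^ 2 * h 0 * h 1 * h 2 + 2 * κ * h 0 * h 3 +
        4 * κ ^ 2 * h 0 ^ 2 * h 1 ^ 2) * ψ else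
      if q = 7 then (2 * κ * h 2 ^ 2 + 4 * κ * h 0 * h 1 * h 2 + 4 * h 0 * h 3 -
        2 * κ * h 0 ^ 2 * h 1 ^ 2) * ψ else
      if q = 8 then (8 * κ ^ 2 * h 1 * h 2 ^ 2 + 4 * κ * h 2 * h 3 -
        12 * κ ^ 2 * h 0 * h 1 ^ 2 * h 2 - 4 * κ * h 0 * h 1 * h 3 +
        4 * κ ^ 2 * h 0 ^ 2 * h 1 ^ 3) * ψ else
      if q = 9 then (4 * κ ^ 2 * h 1 ^ 2 * h 2 ^ 2 + 4 * κ * h 1 * h 2 * h 3 -
        4 * κ ^ 2 * h 0 * h 1 ^ 3 * h 2 + h 3 ^ 2 - 2 * κ * h 0 * h 1 ^ 2 * h 3 +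
        κ ^ 2 * h 0 ^ 2 * h 1 ^ 4) * ψ else
      if q = 10 then (2 * κ * h 0 * h 2 ^ 2 + 2 * h 0 ^ 2 * h 3) * ψ else
      if q = 11 then (4 * κ ^ 2 * h 2 ^ 3 - 4 * κ ^ 2 * h 0 * h 1 * h 2 ^ 2 +
        4 * κ * h 0 * h 2 * h 3 - 4 * κ * h 0 ^ 2 * h 1 * h 3) * ψ else
      if q = 12 then (4 * κ ^ 2 * h 1 * h 2 ^ 3 + 2 * κ * h 2 ^ 2 * h 3 -
        2 * κ ^ 2 * h 0 * h 1 ^ 2 * h 2 ^ 2 + 4 * κ * h 0 * h 1 * h 2 * h 3 +
        2 * h 0 * h 3 ^ 2 - 2 * κ * h 0 ^ 2 * h 1 ^ 2 * h 3) * ψ else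
      (κ ^ 2 * h 2 ^ 4 + 2 * κ * h 0 * h 2 ^ 2 * h 3 + h 0 ^ 2 * h 3 ^ 2) * ψ := by
  funext q
  fin_cases q
  · simp [tr0]
  · simp [tr1]
  · simp [tr2]; ring
  · simp [tr3]
  · simp [tr4]; ring
  · simp [tr5]; ring
  · simp [tr6]; ring
  · simp [tr7]; ring
  · simp [tr8]; ring
  · simp [tr9]; ring
  · simp [tr10]; ring
  · simp [tr11]; ring
  · simp [tr12]; ring
  · simp [tr13]; ring

end Crest.Agent.R136.GauW619
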