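import Crest.Agent.R136.Asm3_102
import Crest.Agent.R136.Pl2W_102

/-!
# R136 (S0187), PLAN 2 (3), block (B): capture of the common lines of an aligned pair (helper208)

* `Nr`, `Nv` : closeness of two lines at a height, closeness of velocities, in the frame of a sheet;
* `nrm_le` : offset of two lines of one sheet along the normal axis;
* `nr_change` : closeness in the frame of the second sheet gives closeness in the frame of the first;
* `cap_line` : capture for one base line, box in the frame of either sheet.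
-/

set_option autoImplicit false
set_option linter.unusedVariables false

open Finset

namespace Crest.Agent.R136.Hcp208

open Crest.Agent.R136.Sh605
open Crest.Agent.R136.K4 (Plk4)
open Crest.Agent.R136.Tlt51 (Shp InP CompC Agree)
open Crest.Agent.R136.Deep51 (CoinC CloseC dt_exp)
open Crest.Agent.R136.Tl102 (StP StP.of_shN IsExp exists_isExp angC hcap_curv')
open Crest.Agent.R136.KapP335 (kapP kapP_eq DetP)

/-- the lines `t`, `T` are within `c w k` (`k = 1, 2`) at the height `z`, in the frame of `S` -/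
def Nr (S : Plk4) (c z : ℝ) (t T : Ln4) : Prop :=
  |dt (S.e 1) (t.pos z - T.pos z)| ≤ c * S.w 1 ∧ |dt (S.e 2) (t.pos z - T.pos z)| ≤ c * S.w 2

/-- velocities within `b` in the frame of `S`, normalised (widths of `S`, length `ρ`) -/
def Nv (S : Plk4) (b ρ : ℝ) (v v' : V3) : Prop :=
  |dt (S.e 1) (v - v')| * ρ ≤ b * S.w 1 ∧ |dt (S.e 2) (v - v')| * ρ ≤ b * S.w 2

section

variable {S S' : Plk4} {t T : Ln4} {z0 ρ r : ℝ}

theorem Nr.symm {c z : ℝ} (h : Nr S c z t T) : Nr S c z T t := by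
  have e : T.pos z - t.pos z = -(t.pos z - T.pos z) := by abel
  have f : ∀ x : V3, dt x (T.pos z - t.pos z) = -dt x (t.pos z - T.pos z) := by
    intro x; simp only [dt, Pi.sub_apply]; ring
  exact ⟨by rw [f, abs_neg]; exact h.1, by rw [f, abs_neg]; exact h.2⟩

theorem Nr.mono {c c' z : ℝ} (h : Nr S c z t T) (hc : c ≤ c') (h1 : 0 ≤ S.w 1) (h2 : 0 ≤ S.w 2) :
    Nr S c' z t T :=
  ⟨h.1.trans (mul_le_mul_of_nonneg_right hc h1), h.2.trans (mul_le_mul_of_nonneg_right hc h2)⟩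

theorem Nr.trans {c c' z : ℝ} {u : Ln4} (h : Nr S c z t T) (h' : Nr S c' z T u) :
    Nr S (c + c') z t u := by
  have f : ∀ x : V3, dt x (t.pos z - u.pos z) =
      dt x (t.pos z - T.pos z) + dt x (T.pos z - u.pos z) := by
    intro x; simp only [dt, Pi.sub_apply]; ring
  constructor
  · rw [f]
    have := abs_add_le (dt (S.e 1) (t.pos z - T.pos z)) (dt (S.e 1) (T.pos z - u.pos z))
    have := h.1; have := h'.1; linarith
  · rw [f]
    have := abs_add_le (dt (S.e 2) (t.pos z - T.pos z)) (dt (S.e 2) (T.pos z - u.pos z))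
    have := h.2; have := h'.2; linarith

theorem Nv.mono {b b' : ℝ} {v v' : V3} (h : Nv S b ρ v v') (hb : b ≤ b') (h1 : 0 ≤ S.w 1)
    (h2 : 0 ≤ S.w 2) : Nv S b' ρ v v' :=
  ⟨h.1.trans (mul_le_mul_of_nonneg_right hb h1), h.2.trans (mul_le_mul_of_nonneg_right hb h2)⟩

theorem Nv.symm {b : ℝ} {v v' : V3} (h : Nv S b ρ v v') : Nv S b ρ v' v := by
  have f : ∀ x : V3, dt x (v' - v) = -dt x (v - v') := by
    intro x; simp only [dt, Pi.sub_apply]; ring
  exact ⟨by rw [f, abs_neg]; exact h.1, by rw [f, abs_neg]; exact h.2⟩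

theorem Nv.trans {b b' : ℝ} {v v' v'' : V3} (hρ : 0 ≤ ρ) (h : Nv S b ρ v v')
    (h' : Nv S b' ρ v' v'') : Nv S (b + b') ρ v v'' := by
  have f : ∀ x : V3, dt x (v - v'') = dt x (v - v') + dt x (v' - v'') := by
    intro x; simp only [dt, Pi.sub_apply]; ring
  constructor
  · rw [f]
    have := mul_le_mul_of_nonneg_right
      (abs_add_le (dt (S.e 1) (v - v')) (dt (S.e 1) (v' - v''))) hρ
    have := h.1; have := h'.1; linarith
  · rw [f]
    have := mul_le_mul_of_nonneg_right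
      (abs_add_le (dt (S.e 2) (v - v')) (dt (S.e 2) (v' - v''))) hρ
    have := h.2; have := h'.2; linarith

/-- **normal offset** of two lines of one sheet -/
theorem nrm_le (hr : 0 < r) (hS : Shp S z0 ρ r) (ht : InP t S z0 ρ) (hT : InP T S z0 ρ) {z c : ℝ}
    (h0 : z0 ≤ z) (h1 : z ≤ z0 + ρ) (h : Nr S c z t T) :
    |dt (S.e 0) (t.pos z - T.pos z)| ≤ 4 * S.a + 4 * (c * S.w 0) := by
  have hw0 : 0 < S.w 0 := hr.trans_le (hS.r0_le.trans hS.a_le0)
  have P := StP.of_shN hS hw0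
  have hw2 : 0 < S.w 2 := P.pos 2
  have hw1 : 0 < S.w 1 := P.pos 1
  have d : ∀ {l : Ln4}, InP l S z0 ρ → InK S.e S.c (dbl3 S.w) z (l.pos z) := by
    intro l hl i
    have := (hl z h0 h1).1 i
    have := P.pos i
    show _ ≤ 2 * S.w i
    linarith
  have := (P.path h0 h1 (d hT) (d ht)).2
  have h2 : |S.q z (t.pos z) - S.q z (T.pos z)| ≤ 2 * S.a := by
    have := abs_sub (S.q z (t.pos z)) (S.q z (T.pos z))
    have := (ht z h0 h1).2
    have := (hT z h0 h1).2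
    linarith
  have h3 : S.w 0 / S.w 1 * |dt (S.e 1) (t.pos z - T.pos z)| ≤ c * S.w 0 := by
    rw [div_mul_eq_mul_div, div_le_iff₀ hw1]
    nlinarith [h.1]
  have h4 : S.w 0 / S.w 2 * |dt (S.e 2) (t.pos z - T.pos z)| ≤ c * S.w 0 := by
    rw [div_mul_eq_mul_div, div_le_iff₀ hw2]
    nlinarith [h.2]
  linarith

/-- **change of frame** : closeness in the frame of `S'` gives closeness in the frame of `S` -/
theorem nr_change {B lam : ℝ} (hr : 0 < r) (hlam : 1 ≤ lam) (hB : 1 ≤ B) (hS : Shp S z0 ρ r)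
    (hS' : Shp S' z0 ρ r) (hC : CompC B lam S S') (ht' : InP t S' z0 ρ) (hT' : InP T S' z0 ρ)
    {z c d : ℝ} (hc : 0 ≤ c) (h0 : z0 ≤ z) (h1 : z ≤ z0 + ρ) (hd : 4 * lam * S'.a ≤ d * S.w 2)
    (h : Nr S' c z t T) : Nr S (d + 6 * lam * B * c) z t T := by
  have hw0 : 0 < S.w 0 := hr.trans_le (hS.r0_le.trans hS.a_le0)
  have hw2 : 0 < S.w 2 := hw0.trans_le hS.w0_le
  have hw1 : 0 < S.w 1 := hw2.trans_le hS.w_le
  have hw0' : 0 < S'.w 0 := hr.trans_le (hS'.r0_le.trans hS'.a_le0)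
  have hw2' : 0 < S'.w 2 := hw0'.trans_le hS'.w0_le
  have hw1' : 0 < S'.w 1 := hw2'.trans_le hS'.w_le
  have ha' : 0 < S'.a := hr.trans_le hS'.r0_le
  have hd0 : 0 ≤ d := by
    by_contra hcon
    have h5 : d * S.w 2 < 0 := mul_neg_of_neg_of_pos (not_le.1 hcon) hw2
    have h6 : 0 < 4 * lam * S'.a := by positivity
    linarith
  have hn := nrm_le hr hS' ht' hT' h0 h1 h
  obtain ⟨h2, h3⟩ := h
  set D : V3 := t.pos z - T.pos z with hD
  have hn' : |dt (S'.e 0) D| ≤ 4 * S'.a + 4 * (c * S'.w 2) := by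
    have : c * S'.w 0 ≤ c * S'.w 2 := mul_le_mul_of_nonneg_left hS'.w0_le hc
    linarith
  have b1 : S'.w 1 ≤ B * S.w 1 := (hC.w 1 (by decide)).2
  have b2 : S'.w 2 ≤ B * S.w 2 := (hC.w 2 (by decide)).2
  have hwle : S.w 2 ≤ S.w 1 := hS.w_le
  have u0 : ∀ i j, |dt (S.e i) (S'.e j)| ≤ 1 := by
    intro i j
    have := Tl102.parseval hS.ortho hS'.ortho i
    rw [← sq_le_one_iff_abs_le_one]
    have g0 := sq_nonneg (dt (S.e i) (S'.e 0))
    have g1 := sq_nonneg (dt (S.e i) (S'.e 1))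
    have g2 := sq_nonneg (dt (S.e i) (S'.e 2))
    fin_cases j <;> simp only [Fin.mk_zero, Fin.mk_one, Fin.reduceFinMk] <;> linarith
  -- products
  have m : ∀ (x y X Y : ℝ), |x| ≤ X → |y| ≤ Y → |x * y| ≤ X * Y := by
    intro x y X Y hx hy
    rw [abs_mul]
    exact mul_le_mul hx hy (abs_nonneg _) ((abs_nonneg _).trans hx)
  set X0 : ℝ := 4 * S'.a + 4 * (c * S'.w 2) with hX0
  have hX0n : 0 ≤ X0 := by positivity
  have ratio : ∀ i, i ≠ 1 → |dt (S.e 1) (S'.e i)| ≤ lam * S.w 2 / S.w 1 := fun i hi => by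
    rw [le_div_iff₀ hw1]; exact hC.g i hi
  have ratio' : ∀ i, i ≠ 1 → |dt (S.e i) (S'.e 1)| ≤ lam * S.w 2 / S.w 1 := fun i hi => by
    rw [le_div_iff₀ hw1]; exact hC.g' i hi
  have hrat : lam * S.w 2 / S.w 1 ≤ lam := by
    rw [div_le_iff₀ hw1]
    exact mul_le_mul_of_nonneg_left hwle (by linarith)
  have hcB1 : c * S'.w 1 ≤ c * (B * S.w 1) := mul_le_mul_of_nonneg_left b1 hc
  have hcB2 : c * S'.w 2 ≤ c * (B * S.w 2) := mul_le_mul_of_nonneg_left b2 hc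
  have hBc : 0 ≤ B * c := by positivity
  constructor
  · rw [dt_exp hS'.ortho (S.e 1) D]
    have p0 := m _ _ _ _ ((ratio 0 (by decide)).trans hrat) hn'
    have p1 := m _ _ _ _ (u0 1 1) h2
    have p2 := m _ _ _ _ ((ratio 2 (by decide)).trans hrat) h3
    have q := abs_add_three (dt (S.e 1) (S'.e 0) * dt (S'.e 0) D)
      (dt (S.e 1) (S'.e 1) * dt (S'.e 1) D) (dt (S.e 1) (S'.e 2) * dt (S'.e 2) D)
    have s1 : lam * X0 ≤ d * S.w 2 + 4 * (lam * (c * (B * S.w 2))) := by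
      rw [hX0]
      have : lam * (c * S'.w 2) ≤ lam * (c * (B * S.w 2)) :=
        mul_le_mul_of_nonneg_left hcB2 (by linarith)
      nlinarith
    have s2 : lam * (c * S'.w 2) ≤ lam * (c * (B * S.w 2)) :=
      mul_le_mul_of_nonneg_left hcB2 (by linarith)
    have s3 : lam * (c * (B * S.w 2)) ≤ lam * (c * (B * S.w 1)) := by
      have : B * c * S.w 2 ≤ B * c * S.w 1 := mul_le_mul_of_nonneg_left hwle hBc
      have := mul_le_mul_of_nonneg_left this (by linarith : 0 ≤ lam)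
      nlinarith
    have s4 : c * (B * S.w 1) ≤ lam * (c * (B * S.w 1)) :=
      le_mul_of_one_le_left (by positivity) hlam
    have s5 : d * S.w 2 ≤ d * S.w 1 := mul_le_mul_of_nonneg_left hwle hd0
    have e : (d + 6 * lam * B * c) * S.w 1 = d * S.w 1 + 6 * (lam * (c * (B * S.w 1))) := by ring
    rw [e]
    linarith
  · rw [dt_exp hS'.ortho (S.e 2) D]
    have p0 := m _ _ _ _ (u0 2 0) hn'
    have p1 := m _ _ _ _ (ratio' 2 (by decide)) h2
    have p2 := m _ _ _ _ (u0 2 2) h3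
    have q := abs_add_three (dt (S.e 2) (S'.e 0) * dt (S'.e 0) D)
      (dt (S.e 2) (S'.e 1) * dt (S'.e 1) D) (dt (S.e 2) (S'.e 2) * dt (S'.e 2) D)
    have s1 : X0 ≤ d * S.w 2 + 4 * (c * (B * S.w 2)) := by
      rw [hX0]
      have : 4 * S'.a ≤ 4 * lam * S'.a := by nlinarith
      linarith
    have s2 : lam * S.w 2 / S.w 1 * (c * S'.w 1) ≤ lam * (c * (B * S.w 2)) := by
      rw [div_mul_eq_mul_div, div_le_iff₀ hw1]
      have : lam * S.w 2 * (c * S'.w 1) ≤ lam * S.w 2 * (c * (B * S.w 1)) :=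
        mul_le_mul_of_nonneg_left hcB1 (by positivity)
      calc _ ≤ _ := this
        _ = _ := by ring
    have s4 : c * (B * S.w 2) ≤ lam * (c * (B * S.w 2)) :=
      le_mul_of_one_le_left (by positivity) hlam
    have e : (d + 6 * lam * B * c) * S.w 2 = d * S.w 2 + 6 * (lam * (c * (B * S.w 2))) := by ring
    rw [e]
    linarith

/-- curvature extent of a sheet along one of its lines -/
theorem kapP_le (hr : 0 < r) (hρ : 0 ≤ ρ) (hS : Shp S z0 ρ r) (hT : InP T S z0 ρ) :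
    kapP S z0 ρ T ≤ 13 * S.w 0 := by
  have hw0 : 0 < S.w 0 := hr.trans_le (hS.r0_le.trans hS.a_le0)
  have P := StP.of_shN hS hw0
  obtain ⟨b0, b1, G, hE⟩ := exists_isExp P.isQ S.e hw0.ne' T z0 ρ
  have N := hE.nrmC P hρ (fun z h1 h2 => (hT z h1 h2).1)
  rw [kapP_eq hw0.ne' hE]
  have := Tl102.kap_le N
  nlinarith

end

/-- **capture, one line**: the base sheet `S` is curved and nondegenerate along `T`, the sheets are
not close up to `E`; the box may be taken in the frame of `S` or of `S'`. -/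
theorem cap_line : ∃ C1 : ℝ, 1 ≤ C1 ∧ ∃ N : ℕ, 1 ≤ N ∧
    ∀ (θ lam E : ℝ) (S S' : Plk4) (T : Ln4) (z0 ρ r : ℝ),
    0 < θ → C1 * θ ≤ 1 → 1 ≤ lam → lam * θ ≤ 1 → 0 < r → 0 < ρ →
    Shp S z0 ρ r → Shp S' z0 ρ r → CompC θ⁻¹ lam S S' → InP T S z0 ρ → InP T S' z0 ρ →
    θ ^ (-C1) * (S.a + S'.a) ≤ kapP S z0 ρ T → DetP θ S z0 ρ T →
    θ ^ (-C1) * (S.a + S'.a) ≤ E →
    ¬ (CloseC S.e S.w S.q S.a S'.q E T z0 ρ ∧ CloseC S'.e S'.w S'.q S'.a S.q E T z0 ρ) →
    ∃ s : Fin 2 → ℝ, ∀ ζ, z0 ≤ ζ → ζ ≤ z0 + ρ → (∀ i, θ * ρ ≤ |ζ - s i|) →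
      ∃ V : Fin N → V3, ∀ t : Ln4, InP t S z0 ρ → InP t S' z0 ρ →
        (Nr S (θ ^ C1) ζ t T ∨ Nr S' (θ ^ C1) ζ t T) → ∃ l, Nv S θ ρ t.v (V l) := by
  obtain ⟨C0, hC0, N, hN, key⟩ := Tl102.capC
  refine ⟨C0 + 12, by linarith, N, hN, ?_⟩
  intro θ lam E S S' T z0 ρ r hθ hCθ hlam hlamθ hr hρ hS hS' hC hT hT' hkap hdet hE hnot
  have hθ12 : 12 * θ ≤ 1 := by nlinarith
  have hθ1 : θ ≤ 1 := by linarith
  have hw0 : 0 < S.w 0 := hr.trans_le (hS.r0_le.trans hS.a_le0)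
  have hw2 : 0 < S.w 2 := hw0.trans_le hS.w0_le
  have hw1 : 0 < S.w 1 := hw2.trans_le hS.w_le
  have ha : 0 < S.a := hr.trans_le hS.r0_le
  have ha' : 0 < S'.a := hr.trans_le hS'.r0_le
  have haa : 0 < S.a + S'.a := by linarith
  have hpow : θ ^ (-C0) ≤ θ ^ (-(C0 + 12)) :=
    Real.rpow_le_rpow_of_exponent_ge hθ hθ1 (by linarith)
  have hle : θ ^ (-C0) * (S.a + S'.a) ≤ θ ^ (-(C0 + 12)) * (S.a + S'.a) :=
    mul_le_mul_of_nonneg_right hpow haa.le
  have hnA : ¬ Agree (C0 * (S.a + S'.a)) (θ ^ (-C0) * (S.a + S'.a)) (θ ^ C0) lam S S' T z0 ρ :=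
    fun hA => hnot ⟨fun z h1 h2 x hx hq => (hA.close z h1 h2 x hx hq).trans (hle.trans hE),
      fun z h1 h2 x hx hq => (hA.close' z h1 h2 x hx hq).trans (hle.trans hE)⟩
  have hθρ : θ * ρ ≤ ρ := by nlinarith
  obtain ⟨s, hs⟩ := key θ lam (C0 * (S.a + S'.a)) S S' T z0 ρ z0 ρ z0 ρ r hθ (by nlinarith) hlam
    hlamθ hr hρ le_rfl le_rfl hθρ le_rfl le_rfl hθρ hS hS' hC hT hT' (hle.trans hkap) hdet le_rfl
    hnA
  refine ⟨s, fun ζ h0 h1 hoff => ?_⟩
  obtain ⟨V, hV⟩ := hs ζ h0 h1 hoff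
  refine ⟨V, fun t ht ht' hcl => ?_⟩
  have hθC0 : 0 < θ ^ C0 := Real.rpow_pos_of_pos hθ _
  have e12 : θ ^ (C0 + 12) = θ ^ C0 * θ ^ 12 := by
    rw [Real.rpow_add hθ]
    congr 1
    rw [← Real.rpow_natCast]; norm_num
  have h12 : θ ^ 12 ≤ 1 := pow_le_one₀ hθ.le hθ1
  have hfin : Nr S (θ ^ C0) ζ t T := by
    rcases hcl with h | h
    · exact h.mono (by rw [e12]; nlinarith) hw1.le hw2.le
    · have hB : 1 ≤ θ⁻¹ := (one_le_inv₀ hθ).2 hθ1
      have hk13 := kapP_le hr hρ.le hS hT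
      -- `S'.a ≤ 13 θ^(C0+12) w₂`
      have h5 : θ ^ (-(C0 + 12)) * S'.a ≤ 13 * S.w 2 := by
        have h6 : θ ^ (-(C0 + 12)) * S'.a ≤ θ ^ (-(C0 + 12)) * (S.a + S'.a) :=
          mul_le_mul_of_nonneg_left (by linarith) (Real.rpow_pos_of_pos hθ _).le
        have h7 : S.w 0 ≤ S.w 2 := hS.w0_le
        linarith
      have h8 : S'.a ≤ 13 * (θ ^ C0 * θ ^ 12) * S.w 2 := by
        have h9 : θ ^ (C0 + 12) * θ ^ (-(C0 + 12)) = 1 := by
          rw [← Real.rpow_add hθ, add_neg_cancel, Real.rpow_zero]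
        calc S'.a = θ ^ (C0 + 12) * (θ ^ (-(C0 + 12)) * S'.a) := by rw [← mul_assoc, h9, one_mul]
          _ ≤ θ ^ (C0 + 12) * (13 * S.w 2) :=
            mul_le_mul_of_nonneg_left h5 (Real.rpow_pos_of_pos hθ _).le
          _ = _ := by rw [e12]; ring
      have h10 : lam ≤ θ⁻¹ := by
        rw [← one_div, le_div_iff₀ hθ]; exact hlamθ
      have hlam0 : 0 ≤ lam := by linarith
      have hp11 : lam * θ ^ 12 ≤ θ ^ 11 := by
        have : lam * θ ^ 12 = (lam * θ) * θ ^ 11 := by ring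
        rw [this]
        exact mul_le_of_le_one_left (by positivity) hlamθ
      have hsm : θ ^ 10 ≤ (1 / 12) ^ 10 := pow_le_pow_left₀ hθ.le (by linarith) 10
      have hsm11 : θ ^ 11 ≤ θ ^ 10 := pow_le_pow_of_le_one hθ.le hθ1 (by norm_num)
      have hd : 4 * lam * S'.a ≤ (52 * θ ^ 11 * θ ^ C0) * S.w 2 := by
        calc 4 * lam * S'.a ≤ 4 * lam * (13 * (θ ^ C0 * θ ^ 12) * S.w 2) :=
              mul_le_mul_of_nonneg_left h8 (by positivity)
          _ = 52 * (lam * θ ^ 12) * (θ ^ C0 * S.w 2) := by ring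
          _ ≤ 52 * θ ^ 11 * (θ ^ C0 * S.w 2) := by
            have : 0 ≤ θ ^ C0 * S.w 2 := by positivity
            nlinarith
          _ = _ := by ring
      have := nr_change hr hlam hB hS hS' hC ht' hT' (c := θ ^ (C0 + 12))
        (Real.rpow_pos_of_pos hθ _).le h0 h1 hd h
      refine this.mono ?_ hw1.le hw2.le
      rw [e12]
      have h13 : 6 * lam * θ⁻¹ * (θ ^ C0 * θ ^ 12) = 6 * (lam * θ ^ 12 * θ⁻¹) * θ ^ C0 := by ring
      have h14 : lam * θ ^ 12 * θ⁻¹ ≤ θ ^ 10 := by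
        rw [← div_eq_mul_inv, div_le_iff₀ hθ]
        calc lam * θ ^ 12 ≤ θ ^ 11 := hp11
          _ = _ := by ring
      rw [h13]
      have h15 : 52 * θ ^ 11 + 6 * (lam * θ ^ 12 * θ⁻¹) ≤ 1 := by
        have : (1 / 12 : ℝ) ^ 10 ≤ 1 / 100 := by norm_num
        linarith
      calc 52 * θ ^ 11 * θ ^ C0 + 6 * (lam * θ ^ 12 * θ⁻¹) * θ ^ C0
          = (52 * θ ^ 11 + 6 * (lam * θ ^ 12 * θ⁻¹)) * θ ^ C0 := by ring
        _ ≤ 1 * θ ^ C0 := mul_le_mul_of_nonneg_right h15 hθC0.le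
        _ = _ := one_mul _
  exact hV t ht ht' hfin.1 hfin.2

end Crest.Agent.R136.Hcp208
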