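import Crest.Agent.R136.Ndc_876
import Crest.Agent.R136.Adj_214
import Crest.Agent.R136.Cod_501
import Crest.Agent.R136.Rft_877

/-!
# R136 (U4, PLAN 2 (AL), leaf (D)): count of the nondegenerate boxes, geometric form (helper876)

`nd_geo` : a sheet `S`, a line `T0` of it along which `S` is curved, `q'` close to `S` around `T0`
(size `Λ`): the boxes of `S` met by lines of `S` near `T0`, where `q'` is small and nondegenerate, are
at most `(C W / (l m))^C (1 + log H) H²`.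
-/

set_option autoImplicit false
set_option linter.unusedVariables false

namespace Crest.Agent.R136.Adp876

open Crest.Agent.R136.Rk601 Crest.Agent.R136.Sh605
open Crest.Agent.R136.Tl102 (cmb fr unsh StP NrmC kap_le kap_nonneg IsExp)
open Crest.Agent.R136.K4 (Plk4)
open Crest.Agent.R136.Gbx862 (zj gb lc)
open Crest.Agent.R136.AlD601
open Crest.Agent.R136.Tlt51 (Shp InP)
open Crest.Agent.R136.KapP335 (kapP expP expP_spec)
open Crest.Agent.R136.Deep51 (CloseC)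
open Crest.Agent.R136.Cod501 (kS chart_pt)
open Crest.Agent.R136.Adj214 (NJ JB KD KD_one KD_pos)
open Crest.Agent.R136.Rf877 (Tub)

/-- helper214's increment -/
theorem ev214 (J : Jt) (y : ℝ) (x : Fin 3 → ℝ) : Adj214.ev J y x = ev J y x := by
  rw [ev_eq]; rfl

section
variable {S : Plk4} {z0 ρ r : ℝ} {T0 : Ln4}

/-- the chart of record around `T0` -/
noncomputable def cT (S : Plk4) (z0 ρ : ℝ) (T0 : Ln4) (ζ y u v : ℝ) : V3 :=
  cg (fr S.e S.w) T0 z0 ρ (kS S z0 ρ T0 * (1 / 256)) ((expP S z0 ρ T0).1 1 / (expP S z0 ρ T0).1 0)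
    ((expP S z0 ρ T0).1 2 / (expP S z0 ρ T0).1 0) (1 / 256) ζ y u v

theorem cT_cod (ζ y u v : ℝ) : cT S z0 ρ T0 ζ y u v = Cod501.cx S z0 ρ T0 ζ y u v := by
  unfold cT cg Cod501.cx unsh
  congr 3
  ring

theorem cT_adj (ζ y u v : ℝ) : cT S z0 ρ T0 ζ y u v =
    Adj214.cx S.e S.w (expP S z0 ρ T0).1 (kS S z0 ρ T0) z0 ρ T0 ζ y u v := by
  unfold cT cg Adj214.cx unsh
  congr 3
  ring

theorem base (hr : 0 < r) (hρ : 0 < ρ) (hS : Shp S z0 ρ r) (hT : InP T0 S z0 ρ)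
    (hk : 10 ^ 6 * S.a ≤ kapP S z0 ρ T0) : 0 < S.a ∧ (∀ k, 0 < S.w k) ∧ 0 < kS S z0 ρ T0 ∧
      kS S z0 ρ T0 ≤ 13 ∧ kapP S z0 ρ T0 = S.w 0 * kS S z0 ρ T0 := by
  have ha : 0 < S.a := hr.trans_le hS.r0_le
  have hw0 : 0 < S.w 0 := ha.trans_le hS.a_le0
  have SP := StP.of_shN hS hw0
  have hE := expP_spec SP.isQ hw0.ne' z0 ρ T0
  have N := hE.nrmC SP hρ.le (fun z h1 h2 => (hT z h1 h2).1)
  have h13 : kS S z0 ρ T0 ≤ 13 := kap_le N
  have hkk : kapP S z0 ρ T0 = S.w 0 * kS S z0 ρ T0 := rfl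
  refine ⟨ha, SP.pos, ?_, h13, hkk⟩
  by_contra h
  push Not at h
  have h1 := mul_nonpos_of_nonneg_of_nonpos hw0.le h
  rw [hkk] at hk
  have h2 : 0 < 10 ^ 6 * S.a := by positivity
  linarith

/-- the sheet in the chart -/
theorem chart_q (hr : 0 < r) (hρ : 0 < ρ) (hS : Shp S z0 ρ r) (hT : InP T0 S z0 ρ)
    (hk : 10 ^ 6 * S.a ≤ kapP S z0 ρ T0) : ∃ (c0 : ℝ) (J : Jt), NJ c0 J ∧
      ∀ ζ y u v, S.q (z0 + ρ * ζ) (cT S z0 ρ T0 ζ y u v) =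
        kS S z0 ρ T0 * (1 / 256) * S.w 0 * (c0 + ev J y ![ζ, u, v]) := by
  obtain ⟨ha, hw, hκ, -, hkk⟩ := base hr hρ hS hT hk
  have SP := StP.of_shN hS (hw 0)
  have hE := expP_spec SP.isQ (hw 0).ne' z0 ρ T0
  obtain ⟨c0, J, h1, -, -, -, h2⟩ := Adj214.chart hS ha hρ.le hT hE (by rw [hkk] at hk; exact hk)
  refine ⟨c0, J, h1, fun ζ y u v => ?_⟩
  rw [cT_adj, ← ev214]
  exact h2 ζ y u v

/-- the division in the chart -/
theorem chart_div (hr : 0 < r) (hρ : 0 < ρ) (hS : Shp S z0 ρ r) (hT : InP T0 S z0 ρ)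
    (hk : 10 ^ 6 * S.a ≤ kapP S z0 ρ T0) {q' : ℝ → V3 → ℝ} (hq' : IsQ q') {Λ : ℝ} (hΛ : 0 < Λ)
    (hC : CloseC S.e S.w S.q S.a q' Λ T0 z0 ρ) : ∃ (μ cP : ℝ) (JP : Jt), Bd JP KD ∧
      ∀ ζ y u v, q' (z0 + ρ * ζ) (cT S z0 ρ T0 ζ y u v) -
        μ * S.q (z0 + ρ * ζ) (cT S z0 ρ T0 ζ y u v) = Λ * (cP + ev JP y ![ζ, u, v]) := by
  obtain ⟨ha, hw, hκ, -, hkk⟩ := base hr hρ hS hT hk
  have SP := StP.of_shN hS (hw 0)
  have hE := expP_spec SP.isQ (hw 0).ne' z0 ρ T0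
  obtain ⟨μ, c', D, h1, h2⟩ := Adj214.divide hS ha hρ.le hT hE (by rw [hkk] at hk; exact hk) hq' hC
  have hd : ∀ x : ℝ, |x| ≤ KD * Λ → |Λ⁻¹ * x| ≤ KD := fun x hx => by
    rw [abs_mul, abs_of_pos (inv_pos.2 hΛ), inv_mul_le_iff₀ hΛ]
    linarith
  refine ⟨μ, Λ⁻¹ * c', sm Λ⁻¹ D, ⟨hd _ h1.a0, fun i => hd _ (h1.a i), hd _ h1.h00,
    fun i => hd _ (h1.h0 i), fun i j => hd _ (h1.h i j), sm_sym h1.sym⟩, fun ζ y u v => ?_⟩
  rw [cT_adj, sm_ev]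
  have h3 := h2 ζ y u v
  rw [ev214] at h3
  refine h3.trans ?_
  field_simp

/-- points near `T0` -/
theorem chart_near (hr : 0 < r) (hρ : 0 < ρ) (hS : Shp S z0 ρ r) (hT : InP T0 S z0 ρ)
    (hk : 10 ^ 6 * S.a ≤ kapP S z0 ρ T0) {T : Ln4} (hTS : InP T S z0 ρ)
    (htub : Tub S (1 / 8192) T T0 z0 ρ) {H j : ℕ} (hH : 1 ≤ H) (hj : j ≤ H) :
    ∃ y u v : ℝ, T.pos (zj z0 ρ H j) = cT S z0 ρ T0 ((j : ℝ) / H) y u v ∧
      |y| ≤ 1 ∧ |u| ≤ 1 ∧ |v| ≤ 1 := by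
  obtain ⟨ha, hw, hκ, h13, hkk⟩ := base hr hρ hS hT hk
  have hHr : (0:ℝ) < H := by exact_mod_cast hH
  have hζ0 : 0 ≤ (j : ℝ) / H := by positivity
  have hζ1 : (j : ℝ) / H ≤ 1 := by rw [div_le_one hHr]; exact_mod_cast hj
  have e0 : zj z0 ρ H j = z0 + ρ * ((j : ℝ) / H) := rfl
  have z1 : z0 ≤ zj z0 ρ H j := by rw [e0]; nlinarith
  have z2 : zj z0 ρ H j ≤ z0 + ρ := by rw [e0]; nlinarith
  obtain ⟨t1, t2, t0⟩ := htub _ z1 z2
  have hK : 0 < kapP S z0 ρ T0 := by rw [hkk]; exact mul_pos (hw 0) hκ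
  have haw : 10 ^ 6 * S.a ≤ 13 * S.w 0 := by
    rw [hkk] at hk
    have := mul_le_mul_of_nonneg_left h13 (hw 0).le
    linarith
  have hw0 := hw 0
  obtain ⟨y, u, v, h1, h2, h3, h4⟩ := chart_pt (X := T.pos (zj z0 ρ H j)) (A := S.a)
    (s := 1 / 8192) hr hρ.le hS hT hK hζ0 hζ1 (by norm_num)
    (by rw [← e0]; linarith) (by rw [← e0]; exact t1) (by rw [← e0]; exact t2)
    (by rw [← e0]; exact (hTS _ z1 z2).2)
  refine ⟨y, u, v, ?_, ?_, h2.trans (by norm_num), h3.trans (by norm_num)⟩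
  · rw [h1, cT_cod]
  · refine h4.trans ?_
    have h5 : (S.a + S.a) / kapP S z0 ρ T0 ≤ 2 / 10 ^ 6 := by
      rw [div_le_div_iff₀ hK (by norm_num)]
      linarith
    linarith

end

section
variable {S : Plk4} {z0 ρ r : ℝ} {T0 : Ln4}

/-- the factor of the division is bounded -/
theorem mu_bound (hr : 0 < r) (hρ : 0 < ρ) (hS : Shp S z0 ρ r) (hT : InP T0 S z0 ρ)
    (hk : 10 ^ 6 * S.a ≤ kapP S z0 ρ T0) {q' : ℝ → V3 → ℝ} {Λ W : ℝ} (hΛ : 0 < Λ) (hW : 1 ≤ W)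
    (hΛW : Λ ≤ W * kapP S z0 ρ T0) {c0 μ cP : ℝ} {J JP : Jt} (NN : NJ c0 J) (bP : Bd JP KD)
    (hq : ∀ ζ y u v, S.q (z0 + ρ * ζ) (cT S z0 ρ T0 ζ y u v) =
        kS S z0 ρ T0 * (1 / 256) * S.w 0 * (c0 + ev J y ![ζ, u, v]))
    (hP : ∀ ζ y u v, q' (z0 + ρ * ζ) (cT S z0 ρ T0 ζ y u v) -
        μ * S.q (z0 + ρ * ζ) (cT S z0 ρ T0 ζ y u v) = Λ * (cP + ev JP y ![ζ, u, v]))
    {T1 : Ln4} {H j1 : ℕ} (hH : 1 ≤ H) (hj : j1 ≤ H) (h1S : InP T1 S z0 ρ)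
    (h1t : Tub S (1 / 8192) T1 T0 z0 ρ) (ha0 : |(jS S q' z0 ρ H j1 T1).a0| ≤ W * S.w 0) :
    |μ| ≤ 4000 * KD * W := by
  obtain ⟨ha, hw, hκ, h13, hkk⟩ := base hr hρ hS hT hk
  obtain ⟨y1, u1, v1, pt, hy, hu, hv⟩ := chart_near hr hρ hS hT hk h1S h1t hH hj
  have hHr : (0:ℝ) < H := by exact_mod_cast hH
  have hζ0 : 0 ≤ (j1 : ℝ) / H := by positivity
  have hζ1 : (j1 : ℝ) / H ≤ 1 := by rw [div_le_one hHr]; exact_mod_cast hj
  have hw0 := hw 0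
  have hKD := KD_one
  set κ := kS S z0 ρ T0 with hκd
  set k0 := κ * (1 / 256) * S.w 0 with hk0
  have hk0p : 0 < k0 := by rw [hk0]; positivity
  have hσ : κ * (1 / 256) ≠ 0 := by positivity
  have q2 : ∀ ζ y u v, q' (z0 + ρ * ζ) (cg (fr S.e S.w) T0 z0 ρ (κ * (1 / 256))
      ((expP S z0 ρ T0).1 1 / (expP S z0 ρ T0).1 0) ((expP S z0 ρ T0).1 2 / (expP S z0 ρ T0).1 0)
      (1 / 256) ζ y u v) =
      (Λ * cP + μ * (k0 * c0)) + ev ((sm Λ JP).addm μ (sm k0 J)) y ![ζ, u, v] := fun ζ y u v => by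
    have h1 := hP ζ y u v
    rw [hq] at h1
    rw [addm_ev, sm_ev, sm_ev]
    have h2 : q' (z0 + ρ * ζ) (cT S z0 ρ T0 ζ y u v) = q' (z0 + ρ * ζ) (cg (fr S.e S.w) T0 z0 ρ
      (κ * (1 / 256)) ((expP S z0 ρ T0).1 1 / (expP S z0 ρ T0).1 0)
      ((expP S z0 ρ T0).1 2 / (expP S z0 ρ T0).1 0) (1 / 256) ζ y u v) := rfl
    rw [← h2]
    linarith
  have j2 := jS_of hS.ortho hw hσ (by norm_num : (1 / 256 : ℝ) ≠ 0)
    (addm_sym (k := μ) (sm_sym (k := Λ) bP.s) (sm_sym (k := k0) NN.sym)) q2 pt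
  rw [sh_addm, sh_sm, sh_sm] at j2
  set x1 : Fin 3 → ℝ := ![(j1 : ℝ) / H, u1, v1] with hx1
  have hx : ∀ i, |x1 i| ≤ 1 := by
    intro i; fin_cases i
    · show |(j1 : ℝ) / H| ≤ 1
      rw [abs_of_nonneg hζ0]; exact hζ1
    · exact hu
    · exact hv
  have e0 : (jS S q' z0 ρ H j1 T1).a0 =
      1 / (κ * (1 / 256)) * (Λ * (sh JP y1 x1).a0 + μ * (k0 * (sh J y1 x1).a0)) := by
    rw [j2]; rfl
  have p0 : |(sh JP y1 x1).a0| ≤ 5 * KD := (bP.shift hy hx).a0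
  have q0 : 1 / 2 ≤ (sh J y1 x1).a0 := by
    have := (NN.st y1 x1 hy hζ0 hζ1 hu hv).1
    exact this
  have e1 : μ * (k0 * (sh J y1 x1).a0) =
      κ * (1 / 256) * (jS S q' z0 ρ H j1 T1).a0 - Λ * (sh JP y1 x1).a0 := by
    rw [e0]; field_simp; ring
  have e2 : |μ| * (k0 * (1 / 2)) ≤ κ * (1 / 256) * (W * S.w 0) + W * (S.w 0 * κ) * (5 * KD) := by
    calc |μ| * (k0 * (1 / 2)) ≤ |μ| * (k0 * (sh J y1 x1).a0) :=
          mul_le_mul_of_nonneg_left (mul_le_mul_of_nonneg_left q0 hk0p.le) (abs_nonneg _)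
      _ = |μ * (k0 * (sh J y1 x1).a0)| := by
          rw [abs_mul, abs_of_nonneg (a := k0 * (sh J y1 x1).a0)
            (mul_nonneg hk0p.le (by linarith))]
      _ ≤ |κ * (1 / 256) * (jS S q' z0 ρ H j1 T1).a0| + |Λ * (sh JP y1 x1).a0| := by
          rw [e1]; exact abs_sub _ _
      _ ≤ κ * (1 / 256) * (W * S.w 0) + W * (S.w 0 * κ) * (5 * KD) := by
          refine add_le_add ?_ ?_
          · rw [abs_mul, abs_of_pos (by positivity : 0 < κ * (1 / 256))]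
            exact mul_le_mul_of_nonneg_left ha0 (by positivity)
          · rw [abs_mul, abs_of_pos hΛ]
            rw [hkk] at hΛW
            exact mul_le_mul hΛW p0 (abs_nonneg _) (by positivity)
  have e3 : κ * (1 / 256) * (W * S.w 0) + W * (S.w 0 * κ) * (5 * KD) =
      (W + 1280 * KD * W) * k0 := by rw [hk0]; ring
  rw [e3] at e2
  have e4 : |μ| * (1 / 2) ≤ W + 1280 * KD * W := by
    have : |μ| * (1 / 2) * k0 ≤ (W + 1280 * KD * W) * k0 := by linarith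
    exact le_of_mul_le_mul_right this hk0p
  have e5 : W ≤ KD * W := le_mul_of_one_le_left (by linarith) hKD
  linarith

/-- relative velocity of two lines of a sheet -/
theorem gv_le (hρ : 0 < ρ) (hw : ∀ k, 0 < S.w k) (hT : InP T0 S z0 ρ) (k : Fin 3) :
    |gv S ρ T0 k| ≤ 2 := by
  have h1 := (hT z0 le_rfl (by linarith)).1 k
  have h2 := (hT (z0 + ρ) (by linarith) le_rfl).1 k
  have e : ρ * dt (S.e k) (T0.v - S.c.v) = dt (S.e k) (T0.pos (z0 + ρ) - S.c.pos (z0 + ρ)) -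
      dt (S.e k) (T0.pos z0 - S.c.pos z0) := by
    simp only [dt, Ln4.pos, Pi.sub_apply]; ring
  unfold gv
  rw [abs_div, abs_of_pos (hw k), div_le_iff₀ (hw k), e]
  refine (abs_sub _ _).trans ?_
  linarith

end

/-- number of dyadic scales -/
theorem exists_N {A : ℝ} (hA : 1 ≤ A) {H : ℕ} (hH : 1 ≤ H) {β : ℝ} (hβ : 1 / (H : ℝ) ≤ β) :
    ∃ N : ℕ, 1 ≤ N ∧ (N : ℝ) ≤ 3 * A * (1 + Real.log H) ∧ A ≤ 2 ^ N * √β := by
  have hHr : (1:ℝ) ≤ H := by exact_mod_cast hH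
  have hH0 : (0:ℝ) < H := by linarith
  have hlog : 0 ≤ Real.log H := Real.log_nonneg hHr
  refine ⟨⌈A⌉₊ + ⌈Real.log H⌉₊, ?_, ?_, ?_⟩
  · have : 0 < ⌈A⌉₊ := Nat.ceil_pos.2 (by linarith)
    omega
  · push_cast
    have h1 := Nat.ceil_lt_add_one (show 0 ≤ A by linarith)
    have h2 := Nat.ceil_lt_add_one hlog
    have h3 : Real.log H ≤ A * Real.log H := le_mul_of_one_le_left hlog hA
    have h4 : 3 * A * (1 + Real.log H) = 3 * A + 3 * (A * Real.log H) := by ring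
    rw [h4]
    linarith
  · have h1 : A ≤ 2 ^ ⌈A⌉₊ := by
      have h2 : (⌈A⌉₊ : ℝ) < 2 ^ ⌈A⌉₊ := by exact_mod_cast Nat.lt_two_pow_self
      exact (Nat.le_ceil A).trans h2.le
    have h3 : √(H : ℝ) ≤ 2 ^ ⌈Real.log H⌉₊ := by
      have h4 : (2:ℝ) ^ (Real.log H) ≤ 2 ^ ⌈Real.log H⌉₊ := by
        rw [← Real.rpow_natCast 2]
        exact Real.rpow_le_rpow_of_exponent_le (by norm_num) (Nat.le_ceil _)
      refine le_trans ?_ h4
      rw [Real.sqrt_eq_rpow, Real.rpow_def_of_pos hH0, Real.rpow_def_of_pos (by norm_num : (0:ℝ) < 2)]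
      refine Real.exp_le_exp.2 ?_
      rw [mul_comm (Real.log 2)]
      exact mul_le_mul_of_nonneg_left (by linarith [Real.log_two_gt_d9]) hlog
    have h5 : 1 / √(H : ℝ) ≤ √β := by
      have : 1 / √(H : ℝ) = √(1 / (H : ℝ)) := by rw [Real.sqrt_div zero_le_one, Real.sqrt_one]
      rw [this]; exact Real.sqrt_le_sqrt hβ
    have hs : 0 < √(H : ℝ) := Real.sqrt_pos.2 hH0
    rw [pow_add]
    calc A = A * √(H : ℝ) * (1 / √(H : ℝ)) := by field_simp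
      _ ≤ 2 ^ ⌈A⌉₊ * 2 ^ ⌈Real.log H⌉₊ * √β := by
          refine mul_le_mul (mul_le_mul h1 h3 hs.le (by positivity)) h5 (by positivity)
            (by positivity)

/-- final numbers -/
theorem fin_num {c4 : ℝ} (hc4 : 1 ≤ c4) {n : ℕ} (hn : 5 ≤ n) {W l m : ℝ} (hW : 1 ≤ W) (hl : 0 < l)
    (hl1 : l ≤ 1) (hm : 0 < m) (hm1 : m ≤ 1) {C : ℝ} (hC : C = max c4 n) :
    c4 * W ^ n / (l * m) ^ 5 ≤ (C * W / (l * m)) ^ C := by
  have hC1 : c4 ≤ C := by rw [hC]; exact le_max_left _ _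
  have hCn : (n : ℝ) ≤ C := by rw [hC]; exact le_max_right _ _
  have hC1' : 1 ≤ C := hc4.trans hC1
  have hW0 : (0:ℝ) < W := by linarith
  have hlm : 0 < l * m := mul_pos hl hm
  have hlm1 : l * m ≤ 1 := by
    calc l * m ≤ 1 * 1 := mul_le_mul hl1 hm1 hm.le zero_le_one
      _ = 1 := one_mul 1
  set x := W / (l * m) with hx
  have hx1 : 1 ≤ x := by rw [hx, le_div_iff₀ hlm]; linarith
  have e1 : C * W / (l * m) = C * x := by rw [hx]; ring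
  rw [e1, Real.mul_rpow (by linarith) (by linarith)]
  have h1 : c4 ≤ C ^ C := by
    calc c4 ≤ C := hC1
      _ = C ^ (1:ℝ) := (Real.rpow_one C).symm
      _ ≤ C ^ C := Real.rpow_le_rpow_of_exponent_le hC1' hC1'
  have h2 : x ^ n ≤ x ^ C := by
    rw [← Real.rpow_natCast x n]
    exact Real.rpow_le_rpow_of_exponent_le hx1 hCn
  have h3 : W ^ n / (l * m) ^ 5 ≤ x ^ n := by
    rw [hx, div_pow]
    refine div_le_div_of_nonneg_left (by positivity) (by positivity) ?_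
    exact pow_le_pow_of_le_one hlm.le hlm1 hn
  calc c4 * W ^ n / (l * m) ^ 5 = c4 * (W ^ n / (l * m) ^ 5) := by ring
    _ ≤ C ^ C * x ^ C := mul_le_mul h1 (h3.trans h2) (by positivity) (by positivity)

/-- **LEAF (D), geometric form** -/
theorem nd_geo : ∃ C : ℝ, 1 ≤ C ∧ ∀ (S : Plk4) (q' : ℝ → V3 → ℝ) (z0 ρ r Λ w1 w2 W l m : ℝ)
    (H : ℕ) (T0 : Ln4) (T : Finset ((ℤ × ℤ) × ℕ)), 0 < r → 0 < ρ → Shp S z0 ρ r →
    InP T0 S z0 ρ → 10 ^ 6 * S.a ≤ kapP S z0 ρ T0 → IsQ q' → 0 < Λ →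
    CloseC S.e S.w S.q S.a q' Λ T0 z0 ρ → 1 ≤ W → 1 ≤ H → 0 < w1 → 0 < w2 →
    (S.w 1 ≤ W * w1 ∧ w1 ≤ W * S.w 1) → (S.w 2 ≤ W * w2 ∧ w2 ≤ W * S.w 2) →
    (H : ℝ) * S.a ≤ W * Λ → Λ ≤ W * kapP S z0 ρ T0 →
    (∃ (T1 : Ln4) (j1 : ℕ), j1 ≤ H ∧ InP T1 S z0 ρ ∧ Tub S (1 / 8192) T1 T0 z0 ρ ∧
      |(jS S q' z0 ρ H j1 T1).a0| ≤ W * S.w 0) → 0 < l → l ≤ 1 → 0 < m → m ≤ 1 →
    (∀ b ∈ T, b.2 < H ∧ ∃ t : Ln4, InP t S z0 ρ ∧ Tub S (1 / 8192) t T0 z0 ρ ∧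
      gb S.e S.c w1 w2 z0 ρ H t b.2 = b.1 ∧
      (H : ℝ) * |q' (zj z0 ρ H b.2) (t.pos (zj z0 ρ H b.2))| ≤ W * Λ ∧
      Nd S q' z0 ρ H b.2 t l m Λ) →
    (T.card : ℝ) ≤ (C * W / (l * m)) ^ C * (1 + Real.log H) * (H : ℝ) ^ 2 := by
  have hKD := KD_one
  have hKD0 := KD_pos
  obtain ⟨c2, hc2⟩ : ∃ c2 : ℝ, c2 = 27 * 256 ^ 9 * 10 ^ 14 * (KD * 256) ^ 11 := ⟨_, rfl⟩
  have hc21 : 1 ≤ c2 := by
    rw [hc2]
    have : (1:ℝ) ≤ (KD * 256) ^ 11 := one_le_pow₀ (by linarith)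
    nlinarith
  obtain ⟨c4, hc4⟩ : ∃ c4 : ℝ, c4 = 10 ^ 52 * (3 * (5000 * c2 * 256 ^ 3)) * c2 ^ 10 * 256 ^ 33 *
    (2 * 256 ^ 20) * (8000 * KD) := ⟨_, rfl⟩
  have hc41 : 1 ≤ c4 := by
    rw [hc4]
    have h1 : (1:ℝ) ≤ c2 ^ 10 := one_le_pow₀ hc21
    have h2 : (1:ℝ) ≤ 10 ^ 52 * (3 * (5000 * c2 * 256 ^ 3)) := by nlinarith
    have h3 : (1:ℝ) ≤ 10 ^ 52 * (3 * (5000 * c2 * 256 ^ 3)) * c2 ^ 10 := by
      calc (1:ℝ) = 1 * 1 := (one_mul 1).symm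
        _ ≤ _ := mul_le_mul h2 h1 (by norm_num) (by linarith)
    have h4 : (1:ℝ) ≤ 10 ^ 52 * (3 * (5000 * c2 * 256 ^ 3)) * c2 ^ 10 * 256 ^ 33 := by
      calc (1:ℝ) = 1 * 1 := (one_mul 1).symm
        _ ≤ _ := mul_le_mul h3 (by norm_num) (by norm_num) (by linarith)
    have h5 : (1:ℝ) ≤ 10 ^ 52 * (3 * (5000 * c2 * 256 ^ 3)) * c2 ^ 10 * 256 ^ 33 *
        (2 * 256 ^ 20) := by
      calc (1:ℝ) = 1 * 1 := (one_mul 1).symm
        _ ≤ _ := mul_le_mul h4 (by norm_num) (by norm_num) (by linarith)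
    calc (1:ℝ) = 1 * 1 := (one_mul 1).symm
      _ ≤ _ := mul_le_mul h5 (by linarith) (by norm_num) (by linarith)
  refine ⟨max c4 ((399 : ℕ) : ℝ), hc41.trans (le_max_left _ _), ?_⟩
  intro S q' z0 ρ r Λ w1 w2 W l m H T0 T hr hρ hS hT hk hq' hΛ hC hW hH hw1 hw2 d1 d2 hHa hΛW hμ0
    hl hl1 hm hm1 hT'
  obtain ⟨ha, hw, hκ, h13, hkk⟩ := base hr hρ hS hT hk
  have hHr : (1:ℝ) ≤ H := by exact_mod_cast hH
  have hH0 : (0:ℝ) < H := by linarith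
  have hW0 : (0:ℝ) < W := by linarith
  have hlog : 0 ≤ Real.log H := Real.log_nonneg hHr
  obtain ⟨c0, J, NN, hq⟩ := chart_q hr hρ hS hT hk
  obtain ⟨μ, cP, JP, bP, hP⟩ := chart_div hr hρ hS hT hk hq' hΛ hC
  obtain ⟨T1, j1, hj1, hT1, hT1t, ha0⟩ := hμ0
  have hμ := mu_bound hr hρ hS hT hk hΛ hW hΛW NN bP hq hP hH hj1 hT1 hT1t ha0
  have hw0 := hw 0
  set κ := kS S z0 ρ T0 with hκd
  set k0 := κ * (1 / 256) * S.w 0 with hk0
  have hk0p : 0 < k0 := by rw [hk0]; positivity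
  have hW2 : (1:ℝ) ≤ W ^ 2 := one_le_pow₀ hW
  obtain ⟨K, hK⟩ : ∃ K, K = KD * 256 * W ^ 2 := ⟨_, rfl⟩
  have hKKD : KD ≤ K := by
    rw [hK]
    have : KD * 256 * 1 ≤ KD * 256 * W ^ 2 := mul_le_mul_of_nonneg_left hW2 (by positivity)
    linarith
  have hK2 : 2 ≤ K := by
    rw [hK]
    have : (1:ℝ) * 256 * 1 ≤ KD * 256 * W ^ 2 :=
      mul_le_mul (by linarith) hW2 (by norm_num) (by positivity)
    linarith
  have hK1 : 1 ≤ K := by linarith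
  have hWp : (256 * W) ≥ 256 := by linarith
  -- witnesses
  have hpt : ∀ b : (ℤ × ℤ) × ℕ, ∃ (t : Ln4) (y u v : ℝ), b ∈ T →
      (t.pos (zj z0 ρ H b.2) = cT S z0 ρ T0 ((b.2 : ℝ) / H) y u v ∧ |y| ≤ 1 ∧ |u| ≤ 1 ∧ |v| ≤ 1) ∧
      InP t S z0 ρ ∧ gb S.e S.c w1 w2 z0 ρ H t b.2 = b.1 ∧
      (H : ℝ) * |q' (zj z0 ρ H b.2) (t.pos (zj z0 ρ H b.2))| ≤ W * Λ ∧
      Nd S q' z0 ρ H b.2 t l m Λ := by
    intro b
    by_cases hb : b ∈ T
    · obtain ⟨h1, t, h2, h3, h4, h5, h6⟩ := hT' b hb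
      obtain ⟨y, u, v, g1, g2⟩ := chart_near hr hρ hS hT hk h2 h3 hH h1.le
      exact ⟨t, y, u, v, fun _ => ⟨⟨g1, g2⟩, h2, h4, h5, h6⟩⟩
    · exact ⟨T0, 0, 0, 0, fun h => absurd h hb⟩
  choose Tb yb ub vb hb using hpt
  have hzj : ∀ b ∈ T, z0 ≤ zj z0 ρ H b.2 ∧ zj z0 ρ H b.2 ≤ z0 + ρ := fun b hbT =>
    Gbx862.zj_mem hρ.le (hT' b hbT).1.le
  have hqS : ∀ b ∈ T, |S.q (zj z0 ρ H b.2) ((Tb b).pos (zj z0 ρ H b.2))| ≤ S.a := fun b hbT =>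
    ((hb b hbT).2.1 _ (hzj b hbT).1 (hzj b hbT).2).2
  obtain ⟨β, hβ⟩ : ∃ β : ℝ, β = 8000 * KD * W ^ 2 / H := ⟨_, rfl⟩
  have hβ1 : 1 / (H : ℝ) ≤ β := by
    rw [hβ]
    refine div_le_div_of_nonneg_right ?_ hH0.le
    have : (1:ℝ) * 1 ≤ KD * W ^ 2 := mul_le_mul hKD hW2 (by norm_num) hKD0.le
    linarith
  have hKC : KC K ((256 * W) ^ 3) = c2 * W ^ 31 := by
    unfold KC CK
    rw [hK, hc2]; ring
  have hA1 : 1 ≤ 5000 * (KC K ((256 * W) ^ 3) * (256 * W) ^ 3) := by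
    rw [hKC]
    have h1 : (1:ℝ) ≤ W ^ 31 := one_le_pow₀ hW
    have h2 : (1:ℝ) ≤ (256 * W) ^ 3 := one_le_pow₀ (by linarith)
    have h3 : (1:ℝ) ≤ c2 * W ^ 31 := by
      calc (1:ℝ) = 1 * 1 := (one_mul 1).symm
        _ ≤ _ := mul_le_mul hc21 h1 (by norm_num) (by linarith)
    have h4 : (1:ℝ) ≤ c2 * W ^ 31 * (256 * W) ^ 3 := by
      calc (1:ℝ) = 1 * 1 := (one_mul 1).symm
        _ ≤ _ := mul_le_mul h3 h2 (by norm_num) (by linarith)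
    linarith
  obtain ⟨N, hN1, hN2, hN3⟩ := exists_N hA1 hH hβ1
  have main := nd_count (S := S) (q' := q') (z0 := z0) (ρ := ρ) (T0 := T0) (K := K)
    (W := 256 * W) (w1 := w1) (w2 := w2) (l := l) (m := m) (β := β) (H := H) (N := N)
    (σ := κ * (1 / 256)) (s1 := (expP S z0 ρ T0).1 1 / (expP S z0 ρ T0).1 0)
    (s2 := (expP S z0 ρ T0).1 2 / (expP S z0 ρ T0).1 0) (r := 1 / 256) (k0 := k0) (μ := μ)
    (Λ := Λ) (cq := c0) (cP := cP) (Jq := J) (JP := JP) hS.ortho hw (by positivity) (by norm_num)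
    (by norm_num; linarith) (by linarith) hk0p.ne' hΛ hH hw1 hw2
    ⟨d1.1.trans (mul_le_mul_of_nonneg_right (by linarith) hw1.le),
      d1.2.trans (mul_le_mul_of_nonneg_right (by linarith) (hw 1).le)⟩
    ⟨d2.1.trans (mul_le_mul_of_nonneg_right (by linarith) hw2.le),
      d2.2.trans (mul_le_mul_of_nonneg_right (by linarith) (hw 2).le)⟩
    ((gv_le hρ hw hT 1).trans (by linarith)) ((gv_le hρ hw hT 2).trans (by linarith))
    hq hP hK1 ?_ ?_ ?_ T Tb yb ub vb (fun b hbT => (hT' b hbT).1.le)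
    (fun b hbT => (hb b hbT).1.1) (fun b hbT => (hb b hbT).1.2) ?_ ?_
    (fun b hbT => (hb b hbT).2.2.1) ?_ hl hm hm1 hβ1 hN1 hN3 (fun b hbT => (hb b hbT).2.2.2.2)
  · refine main.trans ?_
    rw [hKC] at main hN2 ⊢
    have g1 : 1 / (l / (256 * W)) ^ 2 + 1 / (m / (256 * W) ^ 4) ^ 5 ≤
        2 * 256 ^ 20 * W ^ 20 / (l * m) ^ 5 := by
      have hlm : 0 < l * m := mul_pos hl hm
      have e1 : 1 / (l / (256 * W)) ^ 2 = (256 * W) ^ 2 / l ^ 2 := by field_simp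
      have e2 : 1 / (m / (256 * W) ^ 4) ^ 5 = (256 * W) ^ 20 / m ^ 5 := by
        rw [div_pow, ← pow_mul, one_div_div]
      have e3 : (256 * W) ^ 2 / l ^ 2 ≤ (256 * W) ^ 20 / (l * m) ^ 5 := by
        refine div_le_div₀ (by positivity) (pow_le_pow_right₀ (by linarith) (by norm_num))
          (by positivity) ?_
        calc (l * m) ^ 5 = l ^ 5 * m ^ 5 := by ring
          _ ≤ l ^ 2 * 1 := mul_le_mul (pow_le_pow_of_le_one hl.le hl1 (by norm_num))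
              (pow_le_one₀ hm.le hm1) (by positivity) (by positivity)
          _ = l ^ 2 := mul_one _
      have e4 : (256 * W) ^ 20 / m ^ 5 ≤ (256 * W) ^ 20 / (l * m) ^ 5 := by
        refine div_le_div_of_nonneg_left (by positivity) (by positivity) ?_
        calc (l * m) ^ 5 = l ^ 5 * m ^ 5 := by ring
          _ ≤ 1 * m ^ 5 := mul_le_mul_of_nonneg_right (pow_le_one₀ hl.le hl1) (by positivity)
          _ = m ^ 5 := one_mul _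
      rw [e1, e2]
      calc (256 * W) ^ 2 / l ^ 2 + (256 * W) ^ 20 / m ^ 5 ≤
          (256 * W) ^ 20 / (l * m) ^ 5 + (256 * W) ^ 20 / (l * m) ^ 5 := add_le_add e3 e4
        _ = _ := by ring
    have g2 : (10:ℝ) ^ 52 * N * (c2 * W ^ 31) ^ 10 * (256 * W) ^ 33 *
        (1 / (l / (256 * W)) ^ 2 + 1 / (m / (256 * W) ^ 4) ^ 5) * β * (H : ℝ) ^ 3 ≤
        10 ^ 52 * (3 * (5000 * (c2 * W ^ 31 * (256 * W) ^ 3)) * (1 + Real.log H)) *
          (c2 * W ^ 31) ^ 10 * (256 * W) ^ 33 * (2 * 256 ^ 20 * W ^ 20 / (l * m) ^ 5) * β *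
          (H : ℝ) ^ 3 := by
      have hβ0 : 0 ≤ β := le_trans (by positivity) hβ1
      have hlm : 0 < l * m := mul_pos hl hm
      gcongr
    refine g2.trans ?_
    have e5 : 10 ^ 52 * (3 * (5000 * (c2 * W ^ 31 * (256 * W) ^ 3)) * (1 + Real.log H)) *
          (c2 * W ^ 31) ^ 10 * (256 * W) ^ 33 * (2 * 256 ^ 20 * W ^ 20 / (l * m) ^ 5) * β *
          (H : ℝ) ^ 3 = c4 * W ^ 399 / (l * m) ^ 5 * (1 + Real.log H) * (H : ℝ) ^ 2 := by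
      rw [hβ, hc4]
      have hlm : l * m ≠ 0 := (mul_pos hl hm).ne'
      field_simp
    rw [e5]
    refine mul_le_mul_of_nonneg_right (mul_le_mul_of_nonneg_right ?_ (by linarith))
      (by positivity)
    exact fin_num hc41 (by norm_num) hW hl hl1 hm hm1 rfl
  · -- bounds of the jet of the sheet
    have h00 := NN.st 0 0 (by norm_num) (by simp) (by simp) (by simp) (by simp)
    have e0 : J.a0 + J.h00 * 0 + dp J.h0 0 = J.a0 := by simp [dp]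
    rw [e0] at h00
    refine ⟨?_, ?_, ?_, ?_, ?_, NN.sym⟩
    · rw [abs_le]; constructor <;> linarith [h00.1, h00.2]
    · intro i
      fin_cases i
      · exact NN.a0.trans (by linarith)
      · show |J.a 1| ≤ K
        rw [NN.a1, abs_zero]; linarith
      · show |J.a 2| ≤ K
        rw [NN.a2, abs_zero]; linarith
    · exact NN.h00.trans hK2
    · intro i
      fin_cases i
      · exact NN.h0.trans (by linarith)
      · exact NN.h1.trans (by linarith)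
      · exact NN.h2.trans (by linarith)
    · exact fun i j => (NN.h i j).trans hK2
  · exact ⟨bP.a0.trans hKKD, fun i => (bP.a i).trans hKKD, bP.h00.trans hKKD,
      fun i => (bP.h0 i).trans hKKD, fun i j => (bP.h i j).trans hKKD, bP.s⟩
  · intro y x hy hx hx0
    have h1 := (NN.st y x hy hx0 (abs_le.1 (hx 0)).2 (hx 1) (hx 2)).1
    have h2 : 1 / 2 ≤ (sh J y x).a0 := h1
    have h3 : 1 / K ≤ 1 / 2 := one_div_le_one_div_of_le (by norm_num) hK2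
    rw [abs_of_pos (by linarith)]
    linarith
  · intro b hbT
    refine (hqS b hbT).trans ?_
    rw [abs_of_pos hk0p]
    have h1 : (H : ℝ) * S.a ≤ W * (W * (S.w 0 * κ)) := by
      rw [hkk] at hΛW
      exact hHa.trans (mul_le_mul_of_nonneg_left hΛW hW0.le)
    have h2 : W * (W * (S.w 0 * κ)) ≤ k0 * K := by
      rw [hk0, hK]
      have e : κ * (1 / 256) * S.w 0 * (KD * 256 * W ^ 2) = KD * (W * (W * (S.w 0 * κ))) := by ring
      rw [e]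
      exact le_mul_of_one_le_left (by positivity) hKD
    have h3 : k0 * (K * (1 / H)) = k0 * K / H := by ring
    rw [h3, le_div_iff₀ hH0]
    linarith
  · intro b hbT
    have h1 := (hb b hbT).2.2.2.1
    have h2 := hqS b hbT
    have h3 : |μ| * |S.q (zj z0 ρ H b.2) ((Tb b).pos (zj z0 ρ H b.2))| ≤
        4000 * KD * W * S.a := mul_le_mul hμ h2 (abs_nonneg _) (by positivity)
    have h4 : |q' (zj z0 ρ H b.2) ((Tb b).pos (zj z0 ρ H b.2))| ≤ W * Λ / H := by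
      rw [le_div_iff₀ hH0]; linarith
    have h5 : S.a ≤ W * Λ / H := by
      rw [le_div_iff₀ hH0]; linarith
    refine (abs_sub _ _).trans ?_
    rw [abs_mul]
    have h6 : 4000 * KD * W * S.a ≤ 4000 * KD * W * (W * Λ / H) :=
      mul_le_mul_of_nonneg_left h5 (by positivity)
    have h7 : W * Λ / H ≤ KD * W * (W * Λ / H) := by
      have h8 : (1:ℝ) * 1 ≤ KD * W := mul_le_mul hKD hW (by norm_num) hKD0.le
      exact le_mul_of_one_le_left (by positivity) (by linarith)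
    have h9 : Λ * β = 8000 * (KD * W * (W * Λ / H)) := by rw [hβ]; ring
    have h10 : 0 ≤ KD * W * (W * Λ / H) := by positivity
    rw [h9]
    linarith
  · intro b hbT k
    exact ((hb b hbT).2.1 _ (hzj b hbT).1 (hzj b hbT).2).1 k

end Crest.Agent.R136.Adp876
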