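import Crest.Agent.R136.AlK_500
import Crest.Agent.R136.Ndg_876
import Crest.Agent.R136.Cuu3_57
import Crest.Agent.R136.Hcp1_208

/-!
# R136 (S0187), PLAN 2 (AL), `LeafNd`, bookkeeping over `Cf` (helper208)

* `nd_scale` : change of the unit in `Nd`;
* `nd_use`   : `nd_geo` for a class of `Cf` and a function close to the sheet at all witnesses;
* `uu_of_cf` : `Cf` gives the configuration `Cuu57.Uu`.
-/

set_option autoImplicit false
set_option linter.unusedVariables false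

open Finset

namespace Crest.Agent.R136.Lnf208

open Crest.Agent.R136.Sh605
open Crest.Agent.R136.K4 (Plk4)
open Crest.Agent.R136.Tlt51 (Shp InP)
open Crest.Agent.R136.Deep51 (CloseC)
open Crest.Agent.R136.KapP335 (kapP)
open Crest.Agent.R136.Tl102 (angC)
open Crest.Agent.R136.Pl2W102 (Near)
open Crest.Agent.R136.Pl2 (kp)
open Crest.Agent.R136.Rf877 (Tub)
open Crest.Agent.R136.Alw500 (lbl)
open Crest.Agent.R136.Gbx862 (zj gb gb_close zj_mem)
open Crest.Agent.R136.AlD601 (Nd jS)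
open Crest.Agent.R136.Al500 (Cf Dm Cl2 LeafNd)
open Crest.Agent.R136.Cuu57 (Uu)
open Crest.Agent.R136.Adj214 (KD KD_pos KD_one)
open Crest.Agent.R136.Adp876 (nd_geo)

theorem nd_scale {S : Plk4} {q' : ℝ → V3 → ℝ} {z0 ρ : ℝ} {H j : ℕ} {T : Ln4} {l m s A : ℝ}
    (hA : 0 < A) (h : Nd S q' z0 ρ H j T l m s) :
    Nd S q' z0 ρ H j T (l / A) (m / A ^ 2) (A * s) := by
  have e1 : l / A * (A * s) = l * s := by field_simp
  have e2 : m / A ^ 2 * (A * s) ^ 2 = m * s ^ 2 := by field_simp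
  rcases h with ⟨i, h⟩ | ⟨i, j', k, k', h⟩
  · exact Or.inl ⟨i, by rw [e1]; exact h⟩
  · exact Or.inr ⟨i, j', k, k', by rw [e2]; exact h⟩

/-- `(c x^n / d)^C ≤ (c x / d)^(n C)` -/
theorem num_pow {c x d C : ℝ} {n : ℕ} (hc : 1 ≤ c) (hx : 1 ≤ x) (hd : 0 < d) (hd1 : d ≤ 1)
    (hC : 0 ≤ C) (hn : 1 ≤ n) : (c * x ^ n / d) ^ C ≤ (c * x / d) ^ ((n : ℝ) * C) := by
  have hc0 : 0 < c := by linarith
  have hx0 : 0 < x := by linarith
  have h1 : c * x ^ n / d ≤ (c * x / d) ^ n := by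
    rw [div_pow, mul_pow]
    have a1 : c ≤ c ^ n := le_self_pow₀ hc (by omega)
    have a2 : d ^ n ≤ d := pow_le_of_le_one hd.le hd1 (by omega)
    have a3 : c * x ^ n ≤ c ^ n * x ^ n := mul_le_mul_of_nonneg_right a1 (by positivity)
    exact div_le_div₀ (by positivity) a3 (by positivity) a2
  rw [Real.rpow_mul (by positivity), Real.rpow_natCast]
  exact Real.rpow_le_rpow (by positivity) h1 hC

theorem rpow_up {x C D : ℝ} (hx : 1 ≤ x) (h : C ≤ D) : x ^ C ≤ x ^ D :=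
  Real.rpow_le_rpow_of_exponent_le hx h

theorem tub_mono {S : Plk4} {κ κ' : ℝ} {s t : Ln4} {z0 ρ : ℝ} (h : Tub S κ s t z0 ρ) (hκ : κ ≤ κ')
    (hw : ∀ i, 0 ≤ S.w i) : Tub S κ' s t z0 ρ := by
  intro z h1 h2
  obtain ⟨a, b, c⟩ := h z h1 h2
  refine ⟨a.trans (mul_le_mul_of_nonneg_right hκ (hw 1)),
    b.trans (mul_le_mul_of_nonneg_right hκ (hw 2)), c.trans ?_⟩
  have := mul_le_mul_of_nonneg_right hκ (hw 0)
  linarith

theorem tub_self {S : Plk4} {κ : ℝ} {t : Ln4} {z0 ρ : ℝ} (hκ : 0 ≤ κ) (ha : 0 ≤ S.a)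
    (hw : ∀ i, 0 ≤ S.w i) : Tub S κ t t z0 ρ := by
  intro z _ _
  have e : ∀ x : V3, dt x (t.pos z - t.pos z) = 0 := by
    intro x; simp only [dt, Pi.sub_apply]; ring
  refine ⟨?_, ?_, ?_⟩
  · rw [e, abs_zero]; exact mul_nonneg hκ (hw 1)
  · rw [e, abs_zero]; exact mul_nonneg hκ (hw 2)
  · rw [e, abs_zero]
    have := mul_nonneg hκ (hw 0)
    linarith

set_option maxHeartbeats 1000000 in
/-- **`nd_geo` over `Cf`** -/
theorem nd_use : ∃ C : ℝ, 1 ≤ C ∧ ∀ (qm qp : Fin 3 → ℝ)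
    (L : ℕ → Ln4) (P : Finset ℕ) (cu cv : ℕ → ℕ) (Uf Vf : ℕ → Plk4)
    (W B M a w1 w2 z0 ρ zL ρL r κ E : ℝ) (H : ℕ),
    Cf qm qp L P cu cv Uf Vf W B M a w1 w2 z0 ρ zL ρL r κ E H → 10 ^ 4 * κ ≤ 1 →
    10 ^ 27 * KD ^ 2 * W ^ 8 ≤ (H : ℝ) → ∀ (l m A : ℝ) (c : ℕ) (q' : ℝ → V3 → ℝ)
    (T : Finset ((ℤ × ℤ) × ℕ)), 0 < l → l ≤ 1 → 0 < m → m ≤ 1 → 1 ≤ A → IsQ q' →
    (∀ y ∈ T, ∃ s ∈ P, y.2 < H ∧ cu s = c ∧ lbl Uf L w1 w2 z0 ρ H c s y.2 = y.1 ∧
      Nd (Uf c) q' z0 ρ H y.2 (L s) l m (E * a) ∧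
      CloseC (Uf c).e (Uf c).w (Uf c).q (Uf c).a q' (A * (E * a)) (L s) z0 ρ ∧
      |q' (zj z0 ρ H y.2) ((L s).pos (zj z0 ρ H y.2))| ≤ A * a ∧
      |(jS (Uf c) q' z0 ρ H y.2 (L s)).a0| ≤ A * (Uf c).w 0) →
    (T.card : ℝ) ≤ (C * (W * A) / (l * m)) ^ C * (1 + Real.log H) * (H : ℝ) ^ 2 := by
  obtain ⟨Cg, hCg, hg⟩ := nd_geo
  refine ⟨4 * Cg, by linarith, ?_⟩
  intro qm qp L P cu cv Uf Vf W B M a w1 w2 z0 ρ zL ρL r κ E H hc hκ hH l m A c q' T hl hl1 hm hm1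
    hA hq hT
  have h2 := hc.two.to1
  have hW1 := hc.W1
  have hW0 : 0 < W := by linarith
  have hA0 : 0 < A := by linarith
  have hE0 : 0 < E := by have := hc.E1; linarith
  have ha0 := h2.a0
  have hHpos : (0 : ℝ) < H := by have := hc.E1; have := hc.EH; linarith
  have hHn : 1 ≤ H := by
    have : 0 < H := by exact_mod_cast hHpos
    exact this
  have hlog : 0 ≤ 1 + Real.log H := by
    have : 0 ≤ Real.log (H : ℝ) := Real.log_nonneg (by exact_mod_cast hHn)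
    linarith
  have hlm : 0 < l * m := mul_pos hl hm
  have hlm1 : l * m ≤ 1 := by nlinarith
  have hWA : 1 ≤ W * A := by nlinarith
  have hx1 : 1 ≤ 4 * Cg * (W * A) / (l * m) := by
    rw [le_div_iff₀ hlm]
    nlinarith
  rcases T.eq_empty_or_nonempty with rfl | ⟨y0, hy0⟩
  · rw [Finset.card_empty]
    push_cast
    positivity
  obtain ⟨s0, hs0, hj0, hc0, -, -, hC0, -, ha00⟩ := hT y0 hy0
  have shU : Shp (Uf c) z0 ρ r := by have := h2.shU s0 hs0; rwa [hc0] at this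
  have inU : InP (L s0) (Uf c) z0 ρ := by have := h2.inU s0 hs0; rwa [hc0] at this
  have hr := h2.r0
  have hρ := h2.ρ0
  obtain ⟨pa, p0, p1, p2, pw, -⟩ := Cuu57.wpos hr shU
  have dm : Dm W a w1 w2 (Uf c) := by have := hc.dmU s0 hs0; rwa [hc0] at this
  obtain ⟨⟨da, da'⟩, ⟨d1, d1'⟩, ⟨d2, d2'⟩⟩ := dm
  have kE : E * a ≤ W * kapP (Uf c) z0 ρ (L s0) := by have := hc.kE s0 hs0; rwa [hc0] at this
  have hEbig : 10 ^ 26 * KD ^ 2 * W ^ 8 ≤ E := by
    have := hc.HE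
    have : 0 ≤ 10 ^ 26 * KD ^ 2 * W ^ 8 := by positivity
    linarith
  have KD1 := KD_one
  have hk6 : 10 ^ 6 * (Uf c).a ≤ kapP (Uf c) z0 ρ (L s0) := by
    have h1 : 10 ^ 6 * W ^ 2 ≤ E := by
      refine le_trans ?_ hEbig
      have a1 : (1:ℝ) ≤ KD ^ 2 := one_le_pow₀ KD1
      have a2 : W ^ 2 ≤ W ^ 8 := pow_le_pow_right₀ hW1 (by norm_num)
      have a3 : (0:ℝ) ≤ W ^ 8 := by positivity
      nlinarith
    have h3 : W * (10 ^ 6 * (Uf c).a) ≤ W * kapP (Uf c) z0 ρ (L s0) := by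
      refine le_trans ?_ kE
      calc W * (10 ^ 6 * (Uf c).a) ≤ W * (10 ^ 6 * (W * a)) := by gcongr
        _ = 10 ^ 6 * W ^ 2 * a := by ring
        _ ≤ E * a := mul_le_mul_of_nonneg_right h1 ha0.le
    exact le_of_mul_le_mul_left h3 hW0
  have hΛ : 0 < A * (E * a) := by positivity
  have hWg : W ≤ 2 * (W * A) := by nlinarith
  have hWg1 : 1 ≤ 2 * (W * A) := by linarith
  have hbound := hg (Uf c) q' z0 ρ r (A * (E * a)) w1 w2 (2 * (W * A)) (l / A) (m / A ^ 2) H (L s0) T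
    hr hρ shU inU hk6 hq hΛ hC0 hWg1 hHn h2.w10 h2.w20
    ⟨d1'.trans (mul_le_mul_of_nonneg_right hWg h2.w10.le),
      d1.trans (mul_le_mul_of_nonneg_right hWg p1.le)⟩
    ⟨d2'.trans (mul_le_mul_of_nonneg_right hWg h2.w20.le),
      d2.trans (mul_le_mul_of_nonneg_right hWg p2.le)⟩
    (by
      calc (H : ℝ) * (Uf c).a ≤ (2 * E) * (W * a) :=
            mul_le_mul hc.HE da' pa.le (by positivity)
        _ = 2 * W * 1 * (1 * (E * a)) := by ring
        _ ≤ 2 * W * A * (A * (E * a)) := by gcongr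
        _ = _ := by ring)
    (by
      calc A * (E * a) ≤ A * (W * kapP (Uf c) z0 ρ (L s0)) := by gcongr
        _ = 1 * (W * A) * kapP (Uf c) z0 ρ (L s0) := by ring
        _ ≤ 2 * (W * A) * kapP (Uf c) z0 ρ (L s0) := by
            have : 0 ≤ kapP (Uf c) z0 ρ (L s0) := le_trans (by positivity) hk6
            gcongr
            norm_num)
    ⟨L s0, y0.2, hj0.le, inU, tub_self (by norm_num) pa.le (fun i => (pw i).le), by
      refine ha00.trans ?_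
      have : A ≤ 2 * (W * A) := by nlinarith
      exact mul_le_mul_of_nonneg_right this p0.le⟩
    (by positivity) (by rw [div_le_one hA0]; linarith)
    (by positivity)
    (by
      rw [div_le_one (by positivity)]
      have : 1 ≤ A ^ 2 := one_le_pow₀ hA
      linarith)
    (by
      intro b hb
      obtain ⟨s, hs, hj, hcs, hlb, hnd, -, hv, -⟩ := hT b hb
      refine ⟨hj, L s, ?_, ?_, hlb, ?_, nd_scale hA0 hnd⟩
      · have := h2.inU s hs; rwa [hcs] at this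
      · have h5 := hc.tubU s hs s0 hs0 (hcs.trans hc0.symm)
        rw [hc0] at h5
        exact tub_mono h5 (by linarith) (fun i => (pw i).le)
      · calc (H : ℝ) * |q' (zj z0 ρ H b.2) ((L s).pos (zj z0 ρ H b.2))| ≤ (2 * E) * (A * a) :=
              mul_le_mul hc.HE hv (abs_nonneg _) (by positivity)
          _ = 2 * (1 * 1) * (A * (E * a)) := by ring
          _ ≤ 2 * (W * A) * (A * (E * a)) := by gcongr)
  refine hbound.trans ?_
  have e1 : Cg * (2 * (W * A)) / (l / A * (m / A ^ 2)) = 2 * Cg * (W * A ^ 4) / (l * m) := by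
    field_simp
    try ring
  have h5 : 2 * Cg * (W * A ^ 4) / (l * m) ≤ 4 * Cg * (W * A) ^ 4 / (l * m) := by
    apply div_le_div_of_nonneg_right _ hlm.le
    rw [mul_pow]
    have a1 : W ≤ W ^ 4 := le_self_pow₀ hW1 (by norm_num)
    have a2 : W * A ^ 4 ≤ W ^ 4 * A ^ 4 := mul_le_mul_of_nonneg_right a1 (by positivity)
    have a3 : 0 ≤ W ^ 4 * A ^ 4 := by positivity
    nlinarith
  have h6 : (2 * Cg * (W * A ^ 4) / (l * m)) ^ Cg ≤ (4 * Cg * (W * A) / (l * m)) ^ (4 * Cg) := by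
    have h7 := num_pow (c := 4 * Cg) (x := W * A) (d := l * m) (C := Cg) (n := 4) (by linarith) hWA
      hlm hlm1 (by linarith) (by norm_num)
    push_cast at h7
    exact (Real.rpow_le_rpow (by positivity) h5 (by linarith)).trans h7
  rw [e1]
  exact mul_le_mul_of_nonneg_right (mul_le_mul_of_nonneg_right h6 hlog) (by positivity)

section

variable {qm qp : Fin 3 → ℝ} {L : ℕ → Ln4} {P : Finset ℕ} {cu cv : ℕ → ℕ} {Uf Vf : ℕ → Plk4}
  {W B M a w1 w2 z0 ρ zL ρL r κ E : ℝ} {H : ℕ}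

theorem near2 {x y X : ℝ} (hW : 0 ≤ W) (h1 : y ≤ W * X) (h2 : X ≤ W * x) : y ≤ W ^ 2 * x := by
  have := mul_le_mul_of_nonneg_left h2 hW
  nlinarith

set_option maxHeartbeats 2000000 in
/-- **the configuration of 57's closeness lemmas from `Cf`** -/
theorem uu_of_cf (h : Cf qm qp L P cu cv Uf Vf W B M a w1 w2 z0 ρ zL ρL r κ E H)
    (hκ : 10 ^ 4 * κ ≤ 1) (hH : 10 ^ 27 * KD ^ 2 * W ^ 8 ≤ (H : ℝ)) {t t' : ℕ} (ht : t ∈ P)
    (ht' : t' ∈ P) (he : cv t' = cv t) :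
    Uu (Uf (cu t)) (Vf (cv t)) (Uf (cu t')) (L t) (L t') z0 ρ r W a (2 * E * a) κ := by
  have h2 := h.two.to1
  have hW1 := h.W1
  have hW0 : 0 < W := by linarith
  have hE1 := h.E1
  have ha0 := h2.a0
  have hr := h2.r0
  have hρ := h2.ρ0
  have KD1 := KD_one
  have hEbig : 10 ^ 26 * KD ^ 2 * W ^ 8 ≤ E := by
    have := h.HE
    have : 0 ≤ 10 ^ 26 * KD ^ 2 * W ^ 8 := by positivity
    linarith
  have shU := h2.shU t ht
  have shV := h2.shV t ht
  have shR := h2.shU t' ht'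
  have inV' : InP (L t') (Vf (cv t)) z0 ρ := by have := h2.inV t' ht'; rwa [he] at this
  obtain ⟨ua, u0, u1, u2, uw, -⟩ := Cuu57.wpos hr shU
  obtain ⟨va, v0, v1, v2, vw, -⟩ := Cuu57.wpos hr shV
  obtain ⟨⟨da, da'⟩, ⟨d1, d1'⟩, ⟨d2, d2'⟩⟩ := h.dmU t ht
  obtain ⟨⟨ea, ea'⟩, ⟨e1, e1'⟩, ⟨e2, e2'⟩⟩ := h.dmV t ht
  obtain ⟨⟨fa, fa'⟩, -, -⟩ := h.dmU t' ht'
  have kE : E * a ≤ W * kapP (Uf (cu t)) z0 ρ (L t) := h.kE t ht
  have kE' : E * a ≤ W * kapP (Vf (cv t)) z0 ρ (L t') := by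
    have := h.kE' t' ht'; rwa [he] at this
  have kUV : kapP (Uf (cu t)) z0 ρ (L t) ≤ W * kapP (Vf (cv t)) z0 ρ (L t) := h.kUV t ht
  have ang0 : 0 ≤ angC (Uf (cu t)) (Vf (cv t)) :=
    (abs_nonneg (dt ((Uf (cu t)).e 1) ((Vf (cv t)).e 0))).trans
      ((le_max_left _ _).trans (le_max_left _ _))
  have hbig : ∀ {S : Plk4} {k n : ℝ}, S.a ≤ W * a → E * a ≤ W * k → 0 ≤ n → n * W ^ 2 ≤ E →
      n * S.a ≤ k := by
    intro S k n hS hk hn hE
    have h3 : W * (n * S.a) ≤ W * k := by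
      refine le_trans ?_ hk
      calc W * (n * S.a) ≤ W * (n * (W * a)) := by gcongr
        _ = n * W ^ 2 * a := by ring
        _ ≤ E * a := mul_le_mul_of_nonneg_right hE ha0.le
    exact le_of_mul_le_mul_left h3 hW0
  have hKD2 : KD ≤ KD ^ 2 := le_self_pow₀ KD1 (by norm_num)
  have bV : 10 ^ 10 * KD * W ^ 3 * (Vf (cv t)).a ≤ kapP (Vf (cv t)) z0 ρ (L t') := by
    refine hbig ea' kE' (by positivity) ?_
    refine le_trans ?_ hEbig
    have a1 : W ^ 5 ≤ W ^ 8 := pow_le_pow_right₀ hW1 (by norm_num)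
    calc 10 ^ 10 * KD * W ^ 3 * W ^ 2 = 10 ^ 10 * KD * W ^ 5 := by ring
      _ ≤ 10 ^ 10 * KD ^ 2 * W ^ 8 := by gcongr
      _ ≤ 10 ^ 26 * KD ^ 2 * W ^ 8 := by gcongr; norm_num; norm_num
  have bw : 64 * (Vf (cv t)).a ≤ (Vf (cv t)).w 0 := by
    have h3 := Hcp208.kapP_le hr hρ.le shV inV'
    have h4 : (Vf (cv t)).a ≤ KD * W ^ 3 * (Vf (cv t)).a := by
      have : (1:ℝ) ≤ KD * W ^ 3 := by
        have : (1:ℝ) ≤ W ^ 3 := one_le_pow₀ hW1
        nlinarith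
      exact le_mul_of_one_le_left va.le this
    nlinarith
  exact
    { r0 := hr
      ρ0 := hρ
      W1 := hW1
      a0 := ha0
      hU := shU
      hV := shV
      hR := shR
      tU := h2.inU t ht
      tV := h2.inV t ht
      tV' := inV'
      tR := h2.inU t' ht'
      aU := da'
      aU' := da
      aV := ea'
      aV' := ea
      aR := fa'
      w1 := near2 hW0.le d1' e1
      w2 := near2 hW0.le d2' e2
      tl := by
        have a1 : |dt ((Vf (cv t)).e 2) ((Uf (cu t)).e 1)| ≤ angC (Uf (cu t)) (Vf (cv t)) := by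
          rw [dt_comm]; exact (le_max_right _ _).trans (le_max_left _ _)
        calc |dt ((Vf (cv t)).e 2) ((Uf (cu t)).e 1)| * (Uf (cu t)).w 1
            ≤ angC (Uf (cu t)) (Vf (cv t)) * (W * w1) :=
              mul_le_mul a1 d1' u1.le ang0
          _ = W * (angC (Uf (cu t)) (Vf (cv t)) * w1) := by ring
          _ ≤ W * (W * w2) := mul_le_mul_of_nonneg_left (h.ang t ht) hW0.le
          _ ≤ W * (W * (W * (Vf (cv t)).w 2)) := by gcongr
          _ = W ^ 3 * (Vf (cv t)).w 2 := by ring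
      c1 := (h.up t ht).1
      c2 := by have := (h.up t' ht').2; rwa [he] at this
      aΛ := by nlinarith
      ΛU := by nlinarith
      ΛV := by nlinarith
      kU := by
        have h3 := Hcp208.kapP_le hr hρ.le shV (h2.inV t ht)
        calc kapP (Uf (cu t)) z0 ρ (L t) ≤ W * kapP (Vf (cv t)) z0 ρ (L t) := kUV
          _ ≤ W * (13 * (Vf (cv t)).w 0) := mul_le_mul_of_nonneg_left h3 hW0.le
          _ = _ := by ring
      bU := by
        refine hbig da' kE (by positivity) ?_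
        calc 10 ^ 26 * KD ^ 2 * W ^ 6 * W ^ 2 = 10 ^ 26 * KD ^ 2 * W ^ 8 := by ring
          _ ≤ E := hEbig
      bV := bV
      bw := bw
      κ0 := h.κ0.le
      κ1 := hκ
      tub := by
        have h5 := h.tubV t ht t' ht' he.symm
        rw [he] at h5
        exact h5 }

end

end Crest.Agent.R136.Lnf208
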