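import Crest.Agent.R136.A0r_467
import Crest.Agent.R136.Chm5_862
import Crest.Agent.R136.Lnf0_208
import Crest.Agent.R136.Kpc_104

/-!
# R136 (S0187), PLAN 2 (AL), leaf V6: facts over `Cf` (helper57)

* `gb0` : the point of `t` in the boxes of `V`, `U t'`; normal derivative and slopes of `q_(U t')`
  in the chart of `U t`.
* `gtr` : `Tr` for all pairs; `gown` : own jets; `gk` : comparison of the curvature extents.
-/

set_option autoImplicit false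
set_option linter.unusedVariables false

namespace Crest.Agent.R136.Gb57

open Crest.Agent.R136.Sh605
open Crest.Agent.R136.K4 (Plk4)
open Crest.Agent.R136.Tlt51 (Shp InP)
open Crest.Agent.R136.Deep51 (CloseC)
open Crest.Agent.R136.KapP335 (kapP)
open Crest.Agent.R136.Tl102 (angC)
open Crest.Agent.R136.Pl2W102 (Near)
open Crest.Agent.R136.Pl2 (kp)
open Crest.Agent.R136.Rf877 (Tub)
open Crest.Agent.R136.Alw500 (lbl)
open Crest.Agent.R136.Gbx862 (zj gb gb_close zj_mem)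
open Crest.Agent.R136.AlD601 (Nd jS not_Nd)
open Crest.Agent.R136.Rk601 (sl tg)
open Crest.Agent.R136.Al500 (Cf Dm Cl2)
open Crest.Agent.R136.Hcp208 (Nr)
open Crest.Agent.R136.Chm862 (Tr Own own sl_of_tg)
open Crest.Agent.R136.Adj214 (KD KD_pos KD_one)

section

variable {qm qp : Fin 3 → ℝ} {L : ℕ → Ln4} {P : Finset ℕ} {cu cv : ℕ → ℕ} {Uf Vf : ℕ → Plk4}
  {W B M a w1 w2 z0 ρ zL ρL r κ E : ℝ} {H : ℕ}

theorem gtr (h : Cf qm qp L P cu cv Uf Vf W B M a w1 w2 z0 ρ zL ρL r κ E H) {t : ℕ} (ht : t ∈ P) :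
    Tr (W ^ 3) (Uf (cu t)) (Vf (cv t)) ∧ Tr (W ^ 3) (Vf (cv t)) (Uf (cu t)) := by
  have h2 := h.two.to1
  obtain ⟨-, ⟨d1, d1'⟩, ⟨d2, d2'⟩⟩ := h.dmU t ht
  obtain ⟨-, ⟨e1, e1'⟩, ⟨e2, e2'⟩⟩ := h.dmV t ht
  exact Tr.of_ang h.W1 h2.r0 (h2.shU t ht) (h2.shV t ht) ⟨d1, d1'⟩ ⟨d2, d2'⟩ ⟨e1, e1'⟩ ⟨e2, e2'⟩
    (h.ang t ht)

/-- `Tr` for the pairs of two lines of the same `V` -/
theorem gtr2 (h : Cf qm qp L P cu cv Uf Vf W B M a w1 w2 z0 ρ zL ρL r κ E H) {t t' : ℕ}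
    (ht : t ∈ P) (ht' : t' ∈ P) (he : cv t' = cv t) {K : ℝ} (hK : 3 * W ^ 6 ≤ K) :
    Tr K (Vf (cv t)) (Uf (cu t')) ∧ Tr K (Uf (cu t)) (Uf (cu t')) ∧
      Tr K (Uf (cu t')) (Uf (cu t)) ∧ Tr K (Vf (cv t)) (Uf (cu t)) ∧
      Tr K (Uf (cu t)) (Vf (cv t)) ∧ Tr K (Uf (cu t')) (Vf (cv t)) := by
  obtain ⟨a1, a2⟩ := gtr h ht
  obtain ⟨b1, b2⟩ := gtr h ht'
  rw [he] at b1 b2
  have hW := h.W1
  have h36 : W ^ 3 ≤ K := by
    have : W ^ 3 ≤ W ^ 6 := pow_le_pow_right₀ hW (by norm_num)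
    have : 0 ≤ W ^ 6 := by positivity
    linarith
  have e : 3 * W ^ 3 * W ^ 3 ≤ K := by
    have : 3 * W ^ 3 * W ^ 3 = 3 * W ^ 6 := by ring
    linarith
  exact ⟨b2.mono h36, (a1.trans b2).mono e, (b1.trans a2).mono e, a2.mono h36, a1.mono h36,
    b1.mono h36⟩

/-- bigness of the curvature extents -/
theorem gbig (h : Cf qm qp L P cu cv Uf Vf W B M a w1 w2 z0 ρ zL ρL r κ E H) {n : ℝ} (hn : 0 ≤ n)
    (hH : 2 * (n * W ^ 2) ≤ (H : ℝ)) {t : ℕ} (ht : t ∈ P) :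
    n * (Uf (cu t)).a ≤ kapP (Uf (cu t)) z0 ρ (L t) ∧
      n * (Vf (cv t)).a ≤ kapP (Vf (cv t)) z0 ρ (L t) := by
  have hW := h.W1
  have hW0 : 0 < W := by linarith
  have ha0 := h.two.to1.a0
  have hE : n * W ^ 2 ≤ E := by have := h.HE; linarith
  obtain ⟨⟨da, da'⟩, -, -⟩ := h.dmU t ht
  obtain ⟨⟨ea, ea'⟩, -, -⟩ := h.dmV t ht
  have hbig : ∀ {S : Plk4} {k : ℝ}, S.a ≤ W * a → E * a ≤ W * k → n * S.a ≤ k := by
    intro S k hS hk
    have h3 : W * (n * S.a) ≤ W * k := by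
      refine le_trans ?_ hk
      calc W * (n * S.a) ≤ W * (n * (W * a)) := by gcongr
        _ = n * W ^ 2 * a := by ring
        _ ≤ E * a := mul_le_mul_of_nonneg_right hE ha0.le
    exact le_of_mul_le_mul_left h3 hW0
  exact ⟨hbig da' (h.kE t ht), hbig ea' (h.kE' t ht)⟩

/-- comparison of the curvature extents -/
theorem gk (h : Cf qm qp L P cu cv Uf Vf W B M a w1 w2 z0 ρ zL ρL r κ E H)
    (hH : 2 * W ^ 2 ≤ (H : ℝ)) {t t' : ℕ} (ht : t ∈ P) (ht' : t' ∈ P) (he : cv t' = cv t) :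
    kapP (Vf (cv t)) z0 ρ (L t') ≤ 1200000 * W * kapP (Uf (cu t)) z0 ρ (L t) ∧
    kapP (Uf (cu t)) z0 ρ (L t) ≤ 1200000 * W ^ 2 * kapP (Uf (cu t')) z0 ρ (L t') ∧
    kapP (Uf (cu t')) z0 ρ (L t') ≤ 1200000 * W ^ 2 * kapP (Uf (cu t)) z0 ρ (L t) ∧
    kapP (Uf (cu t)) z0 ρ (L t) ≤ 13 * (Uf (cu t)).w 0 ∧
    kapP (Uf (cu t')) z0 ρ (L t') ≤ 13 * (Uf (cu t')).w 0 ∧
    kapP (Vf (cv t)) z0 ρ (L t') ≤ W * kapP (Uf (cu t')) z0 ρ (L t') ∧
    kapP (Uf (cu t')) z0 ρ (L t') ≤ W * kapP (Vf (cv t)) z0 ρ (L t') ∧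
    kapP (Vf (cv t)) z0 ρ (L t') ≤ 13 * (Vf (cv t)).w 0 := by
  have h2 := h.two.to1
  have hr := h2.r0
  have hρ := h2.ρ0
  have hW := h.W1
  have hW0 : 0 < W := by linarith
  obtain ⟨-, v1⟩ := gbig h (n := 1) (by norm_num) (by linarith) ht
  obtain ⟨-, v2⟩ := gbig h (n := 1) (by norm_num) (by linarith) ht'
  rw [he] at v2
  have inV' : InP (L t') (Vf (cv t)) z0 ρ := by have := h2.inV t' ht'; rwa [he] at this
  have c1 := Hcp208.kapP_le hr hρ.le (h2.shU t ht) (h2.inU t ht)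
  have c2 := Hcp208.kapP_le hr hρ.le (h2.shU t' ht') (h2.inU t' ht')
  have c3 := Hcp208.kapP_le hr hρ.le (h2.shV t ht) inV'
  have p1 := Kpc104.kapP_comp hρ hr (h2.shV t ht) (h2.inV t ht) inV'
  have p2 := Kpc104.kapP_comp hρ hr (h2.shV t ht) inV' (h2.inV t ht)
  have k1 : kapP (Uf (cu t)) z0 ρ (L t) ≤ W * kapP (Vf (cv t)) z0 ρ (L t) := h.kUV t ht
  have k2 : kapP (Vf (cv t)) z0 ρ (L t) ≤ W * kapP (Uf (cu t)) z0 ρ (L t) := h.kVU t ht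
  have k3 : kapP (Uf (cu t')) z0 ρ (L t') ≤ W * kapP (Vf (cv t)) z0 ρ (L t') := by
    have := h.kUV t' ht'; rwa [he] at this
  have k4 : kapP (Vf (cv t)) z0 ρ (L t') ≤ W * kapP (Uf (cu t')) z0 ρ (L t') := by
    have := h.kVU t' ht'; rwa [he] at this
  have q1 : kapP (Vf (cv t)) z0 ρ (L t') ≤ 1200000 * kapP (Vf (cv t)) z0 ρ (L t) := by linarith
  have q2 : kapP (Vf (cv t)) z0 ρ (L t) ≤ 1200000 * kapP (Vf (cv t)) z0 ρ (L t') := by linarith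
  refine ⟨?_, ?_, ?_, c1, c2, k4, k3, c3⟩
  · calc kapP (Vf (cv t)) z0 ρ (L t') ≤ 1200000 * kapP (Vf (cv t)) z0 ρ (L t) := q1
      _ ≤ 1200000 * (W * kapP (Uf (cu t)) z0 ρ (L t)) := by gcongr
      _ = _ := by ring
  · calc kapP (Uf (cu t)) z0 ρ (L t) ≤ W * kapP (Vf (cv t)) z0 ρ (L t) := k1
      _ ≤ W * (1200000 * kapP (Vf (cv t)) z0 ρ (L t')) := by gcongr
      _ ≤ W * (1200000 * (W * kapP (Uf (cu t')) z0 ρ (L t'))) := by gcongr
      _ = _ := by ring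
  · calc kapP (Uf (cu t')) z0 ρ (L t') ≤ W * kapP (Vf (cv t)) z0 ρ (L t') := k3
      _ ≤ W * (1200000 * kapP (Vf (cv t)) z0 ρ (L t)) := by gcongr
      _ ≤ W * (1200000 * (W * kapP (Uf (cu t)) z0 ρ (L t))) := by gcongr
      _ = _ := by ring

/-- own jets at `t'` -/
theorem gown (h : Cf qm qp L P cu cv Uf Vf W B M a w1 w2 z0 ρ zL ρL r κ E H)
    (hH : 2 * W ^ 2 ≤ (H : ℝ)) {t' : ℕ} (ht' : t' ∈ P) {j : ℕ} (hj : j ≤ H) :
    Own 3600000 ((Vf (cv t')).w 0) (kapP (Vf (cv t')) z0 ρ (L t'))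
      (jS (Vf (cv t')) (Vf (cv t')).q z0 ρ H j (L t')) ∧
    Own 3600000 ((Uf (cu t')).w 0) (kapP (Uf (cu t')) z0 ρ (L t'))
      (jS (Uf (cu t')) (Uf (cu t')).q z0 ρ H j (L t')) := by
  have h2 := h.two.to1
  obtain ⟨u, v⟩ := gbig h (n := 1) (by norm_num) (by linarith) ht'
  rw [one_mul] at u v
  exact ⟨own h2.r0 h2.ρ0.le (h2.shV t' ht') (h2.inV t' ht') hj v,
    own h2.r0 h2.ρ0.le (h2.shU t' ht') (h2.inU t' ht') hj u⟩

/-- **the end sheet at the point of `t`** -/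
theorem gb0 (h : Cf qm qp L P cu cv Uf Vf W B M a w1 w2 z0 ρ zL ρL r κ E H)
    (hH : 10 ^ 12 * KD * W ^ 8 ≤ (H : ℝ)) {t t' : ℕ} (ht : t ∈ P) (ht' : t' ∈ P)
    (he : cv t' = cv t) {j : ℕ} (hj : j < H)
    (lab : lbl Vf L w1 w2 z0 ρ H (cv t) t' j = lbl Vf L w1 w2 z0 ρ H (cv t) t j)
    {l m : ℝ} (l0 : 0 ≤ l) (hl : 1000 * W * l ≤ 1)
    (nd : ¬ Nd (Uf (cu t)) (Uf (cu t')).q z0 ρ H j (L t) l m (E * a)) :
    Nr (Vf (cv t)) (W / H) (zj z0 ρ H j) (L t) (L t') ∧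
    (∀ i, |dt ((Vf (cv t)).e i) ((L t).pos (zj z0 ρ H j) - (L t').pos (zj z0 ρ H j))| ≤
      173 * W ^ 2 / H * (Vf (cv t)).w i) ∧
    (∀ i, |dt ((Uf (cu t')).e i) ((L t).pos (zj z0 ρ H j) - (L t').pos (zj z0 ρ H j))| ≤
      1 / 2 * (Uf (cu t')).w i) ∧
    ((Uf (cu t)).w 0 / 32 ≤ |(jS (Uf (cu t)) (Uf (cu t')).q z0 ρ H j (L t)).a0| ∧
      |(jS (Uf (cu t)) (Uf (cu t')).q z0 ρ H j (L t)).a0| ≤ 4 * (Uf (cu t)).w 0) ∧
    ∀ i, |sl (jS (Uf (cu t)) (Uf (cu t')).q z0 ρ H j (L t)) i| ≤ 3600001 := by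
  have h2 := h.two.to1
  have hr := h2.r0
  have hρ := h2.ρ0
  have hW := h.W1
  have hW0 : 0 < W := by linarith
  have ha0 := h2.a0
  have KD1 := KD_one
  have KDp := KD_pos
  have hE1 := h.E1
  have hE0 : 0 < E := by linarith
  have hHE := h.HE
  have hEH := h.EH
  have hH0 : (0 : ℝ) < H := by linarith
  have hHn : 0 < H := by exact_mod_cast hH0
  have W8 : (1 : ℝ) ≤ W ^ 8 := one_le_pow₀ hW
  have shU := h2.shU t ht
  have shV := h2.shV t ht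
  have shR := h2.shU t' ht'
  have inU := h2.inU t ht
  have inV := h2.inV t ht
  have inR := h2.inU t' ht'
  have inV' : InP (L t') (Vf (cv t)) z0 ρ := by have := h2.inV t' ht'; rwa [he] at this
  obtain ⟨ua, u0, u1, u2, uw, -⟩ := Cuu57.wpos hr shU
  obtain ⟨va, v0, v1, v2, vw, -⟩ := Cuu57.wpos hr shV
  obtain ⟨-, r0', r1', r2', rw', -⟩ := Cuu57.wpos hr shR
  obtain ⟨⟨ea, ea'⟩, ⟨e1, e1'⟩, ⟨e2, e2'⟩⟩ := h.dmV t ht
  have W28 : W ^ 2 ≤ W ^ 8 := pow_le_pow_right₀ hW (by norm_num)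
  have hKW : W ^ 8 ≤ KD * W ^ 8 := le_mul_of_one_le_left (by positivity) KD1
  have hH2 : 2 * W ^ 2 ≤ (H : ℝ) := by linarith
  obtain ⟨-, g2⟩ := gbig h (n := 10 ^ 6) (by norm_num) (by linarith) ht'
  rw [he] at g2
  obtain ⟨g1, -⟩ := gbig h (n := 1) (by norm_num) (by linarith) ht
  rw [one_mul] at g1
  obtain ⟨k1, k2, k3, k4, k5, k6, k7, k8⟩ := gk h hH2 ht ht' he
  have W31 : (1 : ℝ) ≤ W ^ 3 := one_le_pow₀ hW
  have tVR : Tr (13 * W ^ 3) (Vf (cv t)) (Uf (cu t')) := by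
    obtain ⟨-, b2⟩ := gtr h ht'
    rw [he] at b2
    exact b2.mono (by linarith)
  have kE' : E * a ≤ W * kapP (Vf (cv t)) z0 ρ (L t') := by
    have := h.kE' t' ht'; rwa [he] at this
  have kE : E * a ≤ W * kapP (Uf (cu t)) z0 ρ (L t) := h.kE t ht
  -- labels
  obtain ⟨n1, n2⟩ := gb_close (e := (Vf (cv t)).e) (c := (Vf (cv t)).c) h2.w10 h2.w20 hHn
    (t := L t) (t' := L t') (j := j) lab.symm
  have nr : Nr (Vf (cv t)) (W / H) (zj z0 ρ H j) (L t) (L t') := by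
    refine ⟨n1.le.trans ?_, n2.le.trans ?_⟩
    · rw [div_mul_eq_mul_div]
      exact div_le_div_of_nonneg_right e1 hH0.le
    · rw [div_mul_eq_mul_div]
      exact div_le_div_of_nonneg_right e2 hH0.le
  -- smallness
  obtain ⟨x, hx⟩ : ∃ x, x = W ^ 2 / (H : ℝ) := ⟨_, rfl⟩
  have hxH : x * H = W ^ 2 := by rw [hx]; field_simp
  have x0 : 0 < x := by rw [hx]; positivity
  have hWx : W / (H : ℝ) ≤ x := by
    rw [hx]
    exact div_le_div_of_nonneg_right (le_self_pow₀ hW (by norm_num)) hH0.le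
  have hsm : 10 ^ 12 * KD * W ^ 6 * x ≤ 1 := by
    have h3 : 10 ^ 12 * KD * W ^ 6 * x * H ≤ 1 * H := by
      have e3 : 10 ^ 12 * KD * W ^ 6 * x * H = 10 ^ 12 * KD * W ^ 8 := by
        rw [mul_assoc, hxH]; ring
      rw [e3, one_mul]; exact hH
    exact le_of_mul_le_mul_right h3 hH0
  have W6 : (1 : ℝ) ≤ W ^ 6 := one_le_pow₀ hW
  have hKW6 : 1 ≤ KD * W ^ 6 := by nlinarith
  have hx12 : 10 ^ 12 * (W ^ 6 * x) ≤ 1 := by
    have h4 : W ^ 6 * x ≤ KD * (W ^ 6 * x) := le_mul_of_one_le_left (by positivity) KD1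
    linarith
  have hx13 : 10 ^ 12 * x ≤ 1 := by
    have h4 : x ≤ W ^ 6 * x := le_mul_of_one_le_left x0.le W6
    linarith
  -- `V.a` against `k`
  obtain ⟨k', hk'⟩ : ∃ k', k' = kapP (Vf (cv t)) z0 ρ (L t') := ⟨_, rfl⟩
  rw [← hk'] at g2 k1 k6 k7 k8 kE'
  have k'0 : 0 < k' := by linarith
  have hVa : (Vf (cv t)).a ≤ 2 * x * k' := by
    have h3 : E * (Vf (cv t)).a ≤ W ^ 2 * k' := by
      calc E * (Vf (cv t)).a ≤ E * (W * a) := by gcongr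
        _ = W * (E * a) := by ring
        _ ≤ W * (W * k') := by gcongr
        _ = _ := by ring
    have h4 : (H : ℝ) * (Vf (cv t)).a ≤ H * (2 * x * k') := by
      calc (H : ℝ) * (Vf (cv t)).a ≤ 2 * E * (Vf (cv t)).a := by gcongr
        _ = 2 * (E * (Vf (cv t)).a) := by ring
        _ ≤ 2 * (W ^ 2 * k') := by linarith
        _ = H * (2 * x * k') := by rw [← hxH]; ring
    exact le_of_mul_le_mul_left h4 hH0
  have hm : 4 * (Vf (cv t)).a + 69 * (W / H) * (Vf (cv t)).w 0 ≤ 173 * x * (Vf (cv t)).w 0 := by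
    have h3 : 2 * x * k' ≤ 2 * x * (13 * (Vf (cv t)).w 0) := by gcongr
    have h4 : 69 * (W / H) * (Vf (cv t)).w 0 ≤ 69 * x * (Vf (cv t)).w 0 := by gcongr
    linarith
  have hh : W / (H : ℝ) ≤ 1 / 8 := by linarith
  have hhm : W / (H : ℝ) ≤ 173 * x := by linarith
  have d1 := fun i => V6p467.disp_V hr hρ.le shV inV inV' hj.le hh nr hm hhm i
  have hC : CloseC (Vf (cv t)).e (Vf (cv t)).w (Vf (cv t)).q (Vf (cv t)).a (Uf (cu t')).q
      (2 * E * a) (L t') z0 ρ := by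
    have := (h.up t' ht').2; rwa [he] at this
  have hM : 512 * (((Vf (cv t)).a + (Vf (cv t)).a) / k') + 1280 * (W / H) ≤ 3328 * x := by
    have h3 : ((Vf (cv t)).a + (Vf (cv t)).a) / k' ≤ 4 * x := by
      rw [div_le_iff₀ k'0]; linarith
    linarith
  have W36 : W ≤ W ^ 3 := le_self_pow₀ hW (by norm_num)
  have nb := fun i => V6p467.near_box (K := 13 * W ^ 3) (m := 173 * x) (M := 3328 * x)
    (Λ := 2 * E * a) hr hρ (by linarith) shV shR inV inV' inR hj.le hh nr hm hhm tVR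
    (by rw [← hk']; exact g2) hC (by positivity) (by
      rw [← hk']
      have h3 : W * k' ≤ 13 * W ^ 3 * k' := by gcongr; linarith
      linarith) (by
      rw [← hk']
      calc k' ≤ W * kapP (Uf (cu t')) z0 ρ (L t') := k6
        _ ≤ W * (13 * (Uf (cu t')).w 0) := by gcongr
        _ ≤ W ^ 3 * (13 * (Uf (cu t')).w 0) := by gcongr
        _ = _ := by ring) (by rw [← hk']; exact hM) (by
      have : 10 ^ 5 * KD * (13 * W ^ 3) ^ 2 * (3328 * x) =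
        56243200000 * (KD * W ^ 6 * x) := by ring
      rw [this]
      have : 0 ≤ KD * W ^ 6 * x := by positivity
      linarith) (by
      have : 48 * (13 * W ^ 3) * (173 * x) = 107952 * (W ^ 3 * x) := by ring
      rw [this]
      have : W ^ 3 * x ≤ W ^ 6 * x :=
        mul_le_mul_of_nonneg_right (pow_le_pow_right₀ hW (by norm_num)) x0.le
      linarith) i
  have hT : ∀ i, |dt ((Uf (cu t')).e i) ((L t).pos (zj z0 ρ H j) -
      (Uf (cu t')).c.pos (zj z0 ρ H j))| ≤ 3 / 2 * (Uf (cu t')).w i := by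
    intro i
    obtain ⟨zm1, zm2⟩ := zj_mem (z0 := z0) (ρ := ρ) hρ.le hj.le
    have b1 := nb i
    have b2 := (inR _ zm1 zm2).1 i
    have e3 : dt ((Uf (cu t')).e i) ((L t).pos (zj z0 ρ H j) - (Uf (cu t')).c.pos (zj z0 ρ H j)) =
        dt ((Uf (cu t')).e i) ((L t).pos (zj z0 ρ H j) - (L t').pos (zj z0 ρ H j)) +
        dt ((Uf (cu t')).e i) ((L t').pos (zj z0 ρ H j) - (Uf (cu t')).c.pos (zj z0 ρ H j)) := by
      simp only [dt, Pi.sub_apply]; ring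
    rw [e3]
    refine (abs_add_le _ _).trans ?_
    linarith
  have hls : l * (E * a) ≤ (Uf (cu t)).w 0 / 64 := by
    calc l * (E * a) ≤ l * (W * (13 * (Uf (cu t)).w 0)) := by
          refine mul_le_mul_of_nonneg_left (kE.trans ?_) l0
          gcongr
      _ = (1000 * W * l) * (13 / 1000 * (Uf (cu t)).w 0) := by ring
      _ ≤ 1 * (13 / 1000 * (Uf (cu t)).w 0) := mul_le_mul_of_nonneg_right hl (by positivity)
      _ ≤ _ := by linarith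
  have ag := V6p467.a0_gen hr hρ.le shU shR inU hj.le hT nd hls
  have own0 := own hr hρ.le shU inU hj.le g1
  refine ⟨nr, fun i => ?_, nb, ag, fun i => ?_⟩
  · have := d1 i
    rw [hx, ← mul_div_assoc] at this
    exact this
  · have := sl_of_tg own0.s u0 ag.1 (not_Nd.1 nd).1 (by linarith) i
    linarith

end

end Crest.Agent.R136.Gb57
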