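import Crest.Agent.R136.PrW3_464
import Crest.Agent.R136.GauW_619
import Crest.Agent.R136.Lq6_196

/-!
# R136 (S0187): D-max for all gauges on the sample (helper893, plan of helper464)

* `gau_close` : one gauge `e` of size `d^(-1)` moves flags of two `d^R`-close incidences apart by at
  most `d^(R-1)`.
* `low` : the box lowered in the flag slots to the side of slot `17`.
* `gd_of_comb` : D-max for all gauges on the family and uniformity of the sample (`CombQ`) give
  D-max for all gauges on the sample.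
-/

set_option autoImplicit false
set_option linter.unusedVariables false

open Finset Filter Topology

namespace Crest.Agent.R136.GgB893

open Crest.Agent.R138.Ex926 (Base U)
open Crest.Agent.R138.Mk163 (zc zl rho alive)
open Crest.Agent.R138.Dp76 (dpow_pos dpow_add dpow_le)
open Crest.Agent.R138.ArgM163 (ev_const)
open Crest.Agent.R136.Net191
open Crest.Agent.R136.NetW191
open Crest.Agent.R136.PrW464
open Crest.Agent.R136.Lq196 (CombQ)
open Crest.Agent.R136.GauW619 (gau gau_g gau_G coW_gau_frame coW_gau_flag)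

/-! ### one gauge and two close incidences -/

lemma tms_ne : ∀ q, ∀ t ∈ tms q, t.hl ≠ [] := by decide

lemma list_scale (u : Fin 4 → ℝ) (hu : ∀ i, 0 < u i) (δ : ℝ) (l : List (Fin 4)) :
    (l.map fun i => δ / u i).prod * (l.map u).prod = δ ^ l.length := by
  induction l with
  | nil => simp
  | cons a l ih =>
    simp only [List.map_cons, List.prod_cons, List.length_cons, pow_succ]
    have := (hu a).ne'
    calc δ / u a * (l.map fun i => δ / u i).prod * (u a * (l.map u).prod)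
        = (δ / u a * u a) * ((l.map fun i => δ / u i).prod * (l.map u).prod) := by ring
      _ = δ ^ l.length * δ := by rw [ih, div_mul_cancel₀ _ this]; ring

/-- the correction term of a gauge -/
theorem gau_corr {κ uz uc un : ℝ} (hκ : |κ| ≤ 1) (hz : 0 < uz) (hc : 0 < uc) (hn : 0 < un)
    {h : Fin 4 → ℝ} {e : Fin 14 → ℝ} {δ E : ℝ} (hδ : 0 ≤ δ) (hδ1 : δ ≤ 1) (hE : 0 ≤ E)
    (hh : ∀ i : Fin 4, unW uz uc un (Fin.castAdd 14 i) * |h i| ≤ δ)
    (he : ∀ q : Fin 14, unW uz uc un (Fin.natAdd 4 q) * |e q| ≤ E) (q : Fin 14) :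
    unW uz uc un (Fin.natAdd 4 q) * |((tms q).map (Tm.ev κ h e)).sum| ≤ 67 * (δ * E) := by
  have up : ∀ k, 0 < unW uz uc un k := unW_pos hz hc hn
  set u := unW uz uc un with hu
  set X : Fin 18 → ℝ := Fin.append (m := 4) (n := 14) (fun i => δ / u (Fin.castAdd 14 i))
    (fun q => E / u (Fin.natAdd 4 q)) with hX
  have key := sum_ev_le hκ (X := X) (h := h) (w := e) (S := δ * E / u (Fin.natAdd 4 q))
    (fun i => by
      rw [hX, Fin.append_left, le_div_iff₀ (up _), mul_comm]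
      exact hh i)
    (fun i => by
      rw [hX, Fin.append_right, le_div_iff₀ (up _), mul_comm]
      exact he i)
    (tms q) (fun t ht => by
      have e1 : (t.idx.map X).prod =
          (t.hl.map fun i => δ / u (Fin.castAdd 14 i)).prod * (E / u (Fin.natAdd 4 t.s)) := by
        simp [Tm.idx, List.map_append, List.prod_append, Function.comp_def, hX, Fin.append_left,
          Fin.append_right]
      have e2 : (t.idx.map u).prod =
          (t.hl.map fun i => u (Fin.castAdd 14 i)).prod * u (Fin.natAdd 4 t.s) := by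
        simp [Tm.idx, List.map_append, List.prod_append, Function.comp_def]
      have e3 : (t.idx.map u).prod = u (Fin.natAdd 4 q) := by
        refine unW_list hz hc hn (Fin.natAdd 4 q) t.idx ?_
        rw [mlW_right]
        exact List.mem_map.2 ⟨t, ht, rfl⟩
      have e4 := list_scale (fun i => u (Fin.castAdd 14 i)) (fun i => up _) δ t.hl
      rw [le_div_iff₀ (up _), ← e3, e1, e2]
      have us := (up (Fin.natAdd 4 t.s)).ne'
      calc (t.hl.map fun i => δ / u (Fin.castAdd 14 i)).prod * (E / u (Fin.natAdd 4 t.s)) *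
            ((t.hl.map fun i => u (Fin.castAdd 14 i)).prod * u (Fin.natAdd 4 t.s))
          = ((t.hl.map fun i => δ / u (Fin.castAdd 14 i)).prod *
              (t.hl.map fun i => u (Fin.castAdd 14 i)).prod) *
              (E / u (Fin.natAdd 4 t.s) * u (Fin.natAdd 4 t.s)) := by ring
        _ = δ ^ t.hl.length * E := by rw [e4, div_mul_cancel₀ _ us]
        _ ≤ δ * E := by
            refine mul_le_mul_of_nonneg_right ?_ hE
            have hl : 1 ≤ t.hl.length :=
              List.length_pos_iff.2 (tms_ne q t ht)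
            calc δ ^ t.hl.length ≤ δ ^ 1 := pow_le_pow_of_le_one hδ hδ1 hl
              _ = δ := pow_one δ)
  have h67 : ((((tms q).map fun t => t.n.natAbs).sum : ℕ) : ℝ) ≤ 67 := by
    exact_mod_cast tms_sum q
  have hS : 0 ≤ δ * E / u (Fin.natAdd 4 q) := div_nonneg (mul_nonneg hδ hE) (up _).le
  have h1 := key.trans (mul_le_mul_of_nonneg_right h67 hS)
  calc u (Fin.natAdd 4 q) * |((tms q).map (Tm.ev κ h e)).sum|
      ≤ u (Fin.natAdd 4 q) * (67 * (δ * E / u (Fin.natAdd 4 q))) :=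
        mul_le_mul_of_nonneg_left h1 (up _).le
    _ = 67 * (δ * E) := by
        have := (up (Fin.natAdd 4 q)).ne'
        field_simp

/-- **one gauge and two close incidences** -/
theorem gau_close {κ uz uc un : ℝ} (hκ : |κ| ≤ 1) (hz : 0 < uz) (hc : 0 < uc) (hn : 0 < un)
    {f f' : FW} {e : Fin 14 → ℝ} {δ E : ℝ} (hδ : 0 ≤ δ) (hδ1 : δ ≤ 1) (hE : 0 ≤ E)
    (h : ∀ k, |unW uz uc un k * coW κ f f' k| ≤ δ)
    (he : ∀ q : Fin 14, unW uz uc un (Fin.natAdd 4 q) * |e q| ≤ E) :
    (∀ i : Fin 4, |unW uz uc un (Fin.castAdd 14 i) *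
      coW κ (gau κ e f) (gau κ e f') (Fin.castAdd 14 i)| ≤ δ) ∧
    ∀ q : Fin 14, |unW uz uc un (Fin.natAdd 4 q) *
      coW κ (gau κ e f) (gau κ e f') (Fin.natAdd 4 q)| ≤ δ + 67 * (δ * E) := by
  have up : ∀ k, 0 < unW uz uc un k := unW_pos hz hc hn
  refine ⟨fun i => by rw [coW_gau_frame]; exact h _, fun q => ?_⟩
  rw [coW_gau_flag, tr_tms]
  have hh : ∀ i : Fin 4, unW uz uc un (Fin.castAdd 14 i) * |rel κ f.g f'.g i| ≤ δ := fun i => by
    have := h (Fin.castAdd 14 i)
    rw [coW_left, abs_mul, abs_of_pos (up _)] at this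
    exact this
  have h1 := gau_corr hκ hz hc hn hδ hδ1 hE hh he q
  have e1 : coW κ f f' (Fin.natAdd 4 q) + e q -
      (e q + ((tms q).map (Tm.ev κ (rel κ f.g f'.g) e)).sum) =
      coW κ f f' (Fin.natAdd 4 q) - ((tms q).map (Tm.ev κ (rel κ f.g f'.g) e)).sum := by ring
  rw [e1, mul_sub]
  refine (abs_sub _ _).trans (add_le_add (h _) ?_)
  rw [abs_mul, abs_of_pos (up _)]
  exact h1

/-! ### triangle inequality for three flagged lines -/

theorem tri3 {κ uz uc un : ℝ} (hκ : |κ| ≤ 1) (hz : 0 < uz) (hc : 0 < uc) (hn : 0 < un)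
    {f1 f2 f3 : FW} {x : Fin 18 → ℝ} (hx : Legal monW x) {d K : ℝ} (hd : 0 < d) (hd1 : d ≤ 1)
    (hK : 1 ≤ K) (h1 : ∀ k, |unW uz uc un k * coW κ f1 f2 k| ≤ K * d ^ x k)
    (h2 : ∀ k, |unW uz uc un k * coW κ f2 f3 k| ≤ K * d ^ x k) (k : Fin 18) :
    |unW uz uc un k * coW κ f1 f3 k| ≤ triC monW 67 K * d ^ x k :=
  (chartW_un (Finset.univ : Finset (Fin 3)) ![f1, f2, f3] hκ hz hc hn).tri hx hd hd1 hK
    (i := 0) (j := 1) (l := 2) (mem_univ _) (mem_univ _) (mem_univ _) h1 h2 k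

/-! ### lowered boxes -/

/-- lower the flag slots to the side of slot `17` -/
def low (x : Fin 18 → ℝ) : Fin 18 → ℝ :=
  Fin.append (m := 4) (n := 14) (fun i => x (Fin.castAdd 14 i))
    (fun q => min (x (Fin.natAdd 4 q)) (x 17))

theorem low_left (x : Fin 18 → ℝ) (i : Fin 4) : low x (Fin.castAdd 14 i) = x (Fin.castAdd 14 i) :=
  Fin.append_left _ _ _

theorem low_right (x : Fin 18 → ℝ) (q : Fin 14) :
    low x (Fin.natAdd 4 q) = min (x (Fin.natAdd 4 q)) (x 17) := Fin.append_right _ _ _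

theorem low_le (x : Fin 18 → ℝ) (k : Fin 18) : low x k ≤ x k := by
  refine Fin.addCases (m := 4) (n := 14) (fun i => ?_) (fun q => ?_) k
  · rw [low_left]
  · rw [low_right]; exact min_le_left _ _

theorem low_0 (x : Fin 18 → ℝ) : low x 0 = x 0 := low_left x 0
theorem low_2 (x : Fin 18 → ℝ) : low x 2 = x 2 := low_left x 2
theorem low_3 (x : Fin 18 → ℝ) : low x 3 = x 3 := low_left x 3
theorem low_17 (x : Fin 18 → ℝ) : low x 17 = x 17 := by
  have h := low_right x 13
  have e : (Fin.natAdd 4 (13 : Fin 14) : Fin 18) = 17 := rfl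
  rw [e, min_self] at h
  exact h

theorem low_legal {x : Fin 18 → ℝ} (h : Legal monW x) : Legal monW (low x) := by
  have h1 := legal_ofLists.1 h
  refine legal_ofLists.2 ⟨fun k => ?_, fun k => ?_⟩
  · refine Fin.addCases (m := 4) (n := 14) (fun i => ?_) (fun q => ?_) k
    · rw [low_left]; exact h1.1 _
    · rw [low_right]; exact le_min (h1.1 _) (h1.1 _)
  · refine Fin.addCases (m := 4) (n := 14) (fun i => ?_) (fun q => ?_) k
    · intro l hl
      have h2 := h1.2 (Fin.castAdd 14 i) l hl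
      rw [low_left]
      refine h2.trans (le_of_eq ?_)
      congr 1
      refine List.map_congr_left fun s hs => ?_
      have h3 := mlW_low (Fin.castAdd 14 i) l hl s hs
      have h4 : s.val < 4 := by
        have h5 : s.val < (Fin.castAdd 14 i).val := h3
        have h6 : (Fin.castAdd 14 i).val = i.val := rfl
        have := i.isLt
        omega
      have e : s = Fin.castAdd 14 ⟨s.val, h4⟩ := by ext; rfl
      rw [e, low_left]
    · intro l hl
      have h2 := h1.2 (Fin.natAdd 4 q) l hl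
      have hl' := hl
      rw [mlW_right] at hl'
      obtain ⟨t, ht, rfl⟩ := List.mem_map.1 hl'
      have es : ∀ y : Fin 18 → ℝ, (t.idx.map y).sum =
          (t.hl.map fun i => y (Fin.castAdd 14 i)).sum + y (Fin.natAdd 4 t.s) := fun y => by
        simp [Tm.idx, List.map_append, List.sum_append, Function.comp_def]
      rw [es] at h2
      rw [es, low_right, low_right]
      have e0 : (t.hl.map fun i => low x (Fin.castAdd 14 i)) =
          t.hl.map fun i => x (Fin.castAdd 14 i) := List.map_congr_left fun i _ => low_left x i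
      rw [e0]
      have hA : 0 ≤ (t.hl.map fun i => x (Fin.castAdd 14 i)).sum := by
        refine List.sum_nonneg fun y hy => ?_
        obtain ⟨i, _, rfl⟩ := List.mem_map.1 hy
        exact h1.1 _
      rcases le_total (x (Fin.natAdd 4 t.s)) (x 17) with h3 | h3
      · rw [min_eq_left h3]
        exact (min_le_left _ _).trans h2
      · rw [min_eq_right h3]
        exact (min_le_right _ _).trans (by linarith)

theorem low_leg {x : Fin 18 → ℝ} {R : ℝ} (h : x ∈ Leg monW R) : low x ∈ Leg monW R :=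
  ⟨low_legal h.1, fun k => (low_le x k).trans (h.2 k)⟩

theorem const_legal {R : ℝ} (hR : 0 ≤ R) : Legal monW (fun _ => R) := by
  refine legal_ofLists.2 ⟨fun _ => hR, fun k l hl => ?_⟩
  obtain ⟨a, l', rfl⟩ := List.exists_cons_of_ne_nil (mlW_ne k l hl)
  rw [List.map_cons, List.sum_cons]
  have : 0 ≤ (l'.map fun _ : Fin 18 => R).sum :=
    List.sum_nonneg fun y hy => by
      obtain ⟨i, _, rfl⟩ := List.mem_map.1 hy
      exact hR
  linarith

/-! ### the sample -/

open Classical in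
/-- **D-max for all gauges on the sample** -/
theorem gd_of_comb {B : Base} {I0 I1 : ℕ → Finset (ℕ × ℝ)} {lev : ℕ → ℚ → ℕ}
    {kp uz uc un : ℕ → ℝ} {F : ℕ → ℕ × ℝ → FW} {R c₀ : ℝ} {N0 : ℕ → ℝ}
    {PD : Set (Fin 18 → ℝ)} {Dn : (Fin 18 → ℝ) → ℝ}
    (kp1 : ∀ n, |kp n| ≤ 1) (uz0 : ∀ n, 0 < uz n) (uc0 : ∀ n, 0 < uc n) (un0 : ∀ n, 0 < un n)
    (hC : CombQ B I0 I1 lev (couW kp uz uc un F) monW 67 R N0 c₀) (hsub : ∀ n, I1 n ⊆ I0 n)
    (hPD : PD ⊆ Leg monW R)
    (pdc : ∀ x ∈ PD, ∀ y ∈ Leg monW R, y 0 = x 0 → y 2 = x 2 → y 3 = x 3 → y 17 = x 17 → y ∈ PD)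
    (pdr : ∀ x ∈ PD, x 17 ≤ R - 1)
    (hD : ∀ x y : Fin 18 → ℝ, y 0 = x 0 → y 2 = x 2 → y 3 = x 3 → y 17 = x 17 → Dn y = Dn x)
    (gmax : ∀ x ∈ PD, ∀ C K : ℝ, 1 ≤ K → ∀ ε : ℝ, 0 < ε → ∀ᶠ n in (U : Filter ℕ),
      ∀ e : ℕ × ℝ → Fin 14 → ℝ,
      (∀ j ∈ I0 n, (e j 9 = 0 ∧ e j 12 = 0 ∧ e j 13 = 0) ∧
        ∀ k, unW (uz n) (uc n) (un n) (Fin.natAdd 4 k) * |e j k| ≤ B.d n ^ (-C)) →
      ∀ i ∈ I0 n, ∀ S ⊆ I0 n, (∀ j ∈ S, ∀ k, |unW (uz n) (uc n) (un n) k *
        coW (kp n) (gau (kp n) (e i) (F n i)) (gau (kp n) (e j) (F n j)) k| ≤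
          K * B.d n ^ x k) → (S.card : ℝ) ≤ N0 n * B.d n ^ (-(Dn x + ε))) :
    ∀ x ∈ PD, ∀ K : ℝ, 1 ≤ K → ∀ ε : ℝ, 0 < ε → ∀ᶠ n in (U : Filter ℕ),
      ∀ e : ℕ × ℝ → Fin 14 → ℝ,
      (∀ j ∈ I1 n, (e j 9 = 0 ∧ e j 12 = 0 ∧ e j 13 = 0) ∧
        ∀ k, unW (uz n) (uc n) (un n) (Fin.natAdd 4 k) * |e j k| ≤ B.d n ^ (-(1:ℝ))) →
      ∀ i ∈ I1 n, ∀ G ⊆ I1 n, (∀ j ∈ G, ∀ k, |unW (uz n) (uc n) (un n) k *
        coW (kp n) (gau (kp n) (e i) (F n i)) (gau (kp n) (e j) (F n j)) k| ≤
          K * B.d n ^ x k) →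
      (G.card : ℝ) ≤ B.d n ^ (-(c₀ + Dn x + ε)) := by
  intro x hx K hK ε hε
  obtain ⟨Kn, hK1, hK2, -⟩ := hC
  have hxL := hPD hx
  have hR1 : 1 ≤ R := by linarith [pdr x hx, hxL.1.nonneg 17]
  have hR0 : 0 ≤ R := by linarith
  have hlow : low x ∈ PD := pdc x hx (low x) (low_leg hxL) (low_0 x) (low_2 x) (low_3 x) (low_17 x)
  have hDl : Dn (low x) = Dn x := hD x (low x) (low_0 x) (low_2 x) (low_3 x) (low_17 x)
  have hc1 : 1 ≤ cK0 monW 67 := cK0_one (by norm_num)
  set c := cK0 monW 67 with hc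
  set K1 := max K (68 * c) with hK1'
  have hK1one : 1 ≤ K1 := hK.trans (le_max_left _ _)
  have hK'one : 1 ≤ triC monW 67 K1 := hK1one.trans (triC_ge (by norm_num) hK1one)
  have hch : ∀ n, Chart (I0 n) (couW kp uz uc un F n) monW 67 := fun n =>
    chart_couW F kp1 uz0 uc0 un0 n (I0 n)
  filter_upwards [hK1 (ε / 4) (by positivity), hK2,
    gmax (low x) hlow 1 (triC monW 67 K1) hK'one (ε / 2) (by positivity),
    ev_const B (C := c) (by linarith) (η := R) (by linarith),
    ev_const B (C := 16) (by norm_num) (η := ε / 4) (by positivity)]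
    with n n1 n2 n3 n4 n5 e he i hi G hG hbox
  have hd := B.pos n
  have hd1 := (B.lt n).le
  have hi0 := hsub n hi
  -- representatives
  set P : ℕ × ℝ → ℕ × ℝ → Prop := fun j r => r ∈ G ∧
    nlab B I0 (couW kp uz uc un F) monW 67 n (fun _ => R) j =
      nlab B I0 (couW kp uz uc un F) monW 67 n (fun _ => R) r with hP
  set e' : ℕ × ℝ → Fin 14 → ℝ := fun j =>
    if j = i then e i else if h : ∃ r, P j r then e h.choose else 0 with he'
  have dneg : 0 ≤ B.d n ^ (-(1:ℝ)) := (dpow_pos B n _).le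
  have he'ok : ∀ j ∈ I0 n, (e' j 9 = 0 ∧ e' j 12 = 0 ∧ e' j 13 = 0) ∧
      ∀ k, unW (uz n) (uc n) (un n) (Fin.natAdd 4 k) * |e' j k| ≤ B.d n ^ (-(1:ℝ)) := by
    intro j hj
    simp only [he']
    split_ifs with h1 h2
    · exact he i hi
    · exact he _ (hG h2.choose_spec.1)
    · refine ⟨⟨rfl, rfl, rfl⟩, fun k => ?_⟩
      show unW (uz n) (uc n) (un n) (Fin.natAdd 4 k) * |(0:ℝ)| ≤ _
      rw [abs_zero, mul_zero]; exact dneg
  have hei : e' i = e i := by simp only [he', if_true]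
  set F' := (I0 n).filter fun j => ∃ r, P j r with hF'
  have hδ1 : c * B.d n ^ R ≤ 1 := by
    calc c * B.d n ^ R ≤ B.d n ^ (-R) * B.d n ^ R :=
          mul_le_mul_of_nonneg_right n4 (dpow_pos B n _).le
      _ = 1 := by rw [← dpow_add]; simp
  have hδ0 : 0 ≤ c * B.d n ^ R := mul_nonneg (by linarith) (dpow_pos B n _).le
  have hsubF : ∀ j ∈ F', ∀ k, |unW (uz n) (uc n) (un n) k *
      coW (kp n) (gau (kp n) (e' i) (F n i)) (gau (kp n) (e' j) (F n j)) k| ≤
        triC monW 67 K1 * B.d n ^ low x k := by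
    intro j hj
    rw [hF', mem_filter] at hj
    obtain ⟨hj0, hex⟩ := hj
    by_cases hji : j = i
    · intro k
      rw [hji, coW_refl _ (kp1 n), mul_zero, abs_zero]
      exact mul_nonneg (by linarith) (dpow_pos B n _).le
    · have hej : e' j = e hex.choose := by simp only [he', if_neg hji, dif_pos hex]
      obtain ⟨hr, hlab⟩ := hex.choose_spec
      set r := hex.choose with hrdef
      have hr0 := hsub n (hG hr)
      rw [hei, hej]
      have hnear : ∀ k, |unW (uz n) (uc n) (un n) k * coW (kp n) (F n r) (F n j) k| ≤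
          c * B.d n ^ R := fun k =>
        near_of_nlab hch (const_legal hR0) hr0 hj0 hlab.symm k
      have hgc := gau_close (kp1 n) (uz0 n) (uc0 n) (un0 n) hδ0 hδ1 dneg hnear (he r (hG hr)).2
      have hE : c * B.d n ^ R + 67 * (c * B.d n ^ R * B.d n ^ (-(1:ℝ))) ≤
          68 * c * B.d n ^ (R - 1) := by
        have e1 : B.d n ^ R * B.d n ^ (-(1:ℝ)) = B.d n ^ (R - 1) := by
          rw [← dpow_add]; congr 1
        have e2 : B.d n ^ R ≤ B.d n ^ (R - 1) := dpow_le B n (by linarith)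
        have e3 : c * B.d n ^ R * B.d n ^ (-(1:ℝ)) = c * B.d n ^ (R - 1) := by
          rw [mul_assoc, e1]
        rw [e3]
        have e4 : c * B.d n ^ R ≤ c * B.d n ^ (R - 1) :=
          mul_le_mul_of_nonneg_left e2 (by linarith)
        linarith
      refine tri3 (kp1 n) (uz0 n) (uc0 n) (un0 n) (low_legal hxL.1) hd hd1 hK1one
        (f2 := gau (kp n) (e r) (F n r)) (fun k => ?_) (fun k => ?_)
      · refine (hbox r hr k).trans ?_
        refine mul_le_mul (le_max_left _ _) (dpow_le B n (low_le x k)) (dpow_pos B n _).le ?_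
        linarith
      · refine Fin.addCases (m := 4) (n := 14) (fun a => ?_) (fun q => ?_) k
        · refine (hgc.1 a).trans (mul_le_mul ?_ (dpow_le B n ?_) (dpow_pos B n _).le
            (by linarith))
          · exact le_trans (by linarith) (le_max_right K (68 * c))
          · exact (low_le x _).trans (hxL.2 _)
        · refine (hgc.2 q).trans (hE.trans (mul_le_mul (le_max_right _ _) (dpow_le B n ?_)
            (dpow_pos B n _).le (by linarith)))
          rw [low_right]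
          exact (min_le_right _ _).trans (pdr x hx)
  have c1 : (F'.card : ℝ) ≤ N0 n * B.d n ^ (-(Dn x + ε / 2)) := by
    have h1 := n3 e' he'ok i hi0 F' (filter_subset _ _) hsubF
    rwa [hDl] at h1
  have c2 : Kn n * G.card ≤ 16 * F'.card := by
    refine n2 G hG F' (filter_subset _ _) fun r hr j hj hl _ => ?_
    rw [hF', mem_filter]
    exact ⟨hj, r, hr, hl⟩
  obtain ⟨k0, k1, -⟩ := n1
  have k0' : (0:ℝ) < Kn n := by exact_mod_cast k0
  have c2' : (Kn n : ℝ) * G.card ≤ 16 * F'.card := by exact_mod_cast c2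
  have hp1 := dpow_pos B n (-(Dn x + ε / 2))
  have c3 : (Kn n : ℝ) * G.card ≤ Kn n * B.d n ^ (-(c₀ + Dn x + ε)) := by
    calc (Kn n : ℝ) * G.card ≤ 16 * F'.card := c2'
      _ ≤ B.d n ^ (-(ε / 4)) * ((Kn n * B.d n ^ (-(c₀ + ε / 4))) * B.d n ^ (-(Dn x + ε / 2))) := by
          refine mul_le_mul n5 (c1.trans (mul_le_mul_of_nonneg_right k1 hp1.le))
            (Nat.cast_nonneg _) (dpow_pos B n _).le
      _ = Kn n * (B.d n ^ (-(ε / 4)) * (B.d n ^ (-(c₀ + ε / 4)) * B.d n ^ (-(Dn x + ε / 2)))) := by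
          ring
      _ = Kn n * B.d n ^ (-(c₀ + Dn x + ε)) := by
          rw [← dpow_add, ← dpow_add]
          congr 2; ring
  exact le_of_mul_le_mul_left c3 k0'

end Crest.Agent.R136.GgB893
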