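import Crest.Agent.R136.NatW2_697
import Crest.Agent.R136.GgB_893

/-!
# R136 (S0187): D-max for all gauges over `Thin` (helper893)

`gd_thin` : the body of `ThO830.GdThin` for one `Thin`, from D-max for all gauges on the family
(`gmax`), closedness of the D-max set (`pdc`, `pdr`) and uniformity of the sample (`comb`).
-/

set_option autoImplicit false
set_option linter.unusedVariables false

open Finset Filter Topology

namespace Crest.Agent.R136.GgC893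

open Crest.Agent.R138.Ex926
open Crest.Agent.R136.Net191
open Crest.Agent.R136.NetW191
open Crest.Agent.R136.PrW464
open Crest.Agent.R136.NatW697
open Crest.Agent.R136.Lq196
open Crest.Agent.R136.Top484
open Crest.Agent.R136.Wq638 (N0Q)

/-- **D-max for all gauges on the sample of `Thin`** -/
theorem gd_thin {η : ℝ} {p : Par4} {D : Dat4} {I1 : ℕ → Finset (ℕ × ℝ)} {π : Equiv.Perm (Fin 3)}
    {kp uz uc un : ℕ → ℝ} {F : ℕ → ℕ × ℝ → FW} {V T : Fin 18 → Prop} {w0 R T0 : ℝ}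
    {PD : Set (Fin 18 → ℝ)} {ν own : (Fin 18 → ℝ) → ℝ} {c₀ : ℝ}
    (h : Thin η p D I1 π kp uz uc un F V T w0 R T0 PD ν own c₀)
    (comb : CombQ D.B D.I I1 D.lev (couW kp uz uc un F) monW 67 R (N0Q D.A D.vm) c₀)
    (pdc : ∀ x ∈ PD, ∀ y ∈ Leg monW R, y 0 = x 0 → y 2 = x 2 → y 3 = x 3 → y 17 = x 17 → y ∈ PD)
    (pdr : ∀ x ∈ PD, x 17 ≤ 9 * w0 + max 0 (1 - thW p π 0))
    (gmax : ∀ x ∈ PD, ∀ C K : ℝ, 1 ≤ K → ∀ ε : ℝ, 0 < ε → ∀ᶠ n in (U : Filter ℕ),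
      ∀ e : ℕ × ℝ → Fin 14 → ℝ,
      (∀ j ∈ D.I n, (e j 9 = 0 ∧ e j 12 = 0 ∧ e j 13 = 0) ∧
        ∀ k, unW (uz n) (uc n) (un n) (Fin.natAdd 4 k) * |e j k| ≤ D.B.d n ^ (-C)) →
      ∀ i ∈ D.I n, ∀ S ⊆ D.I n, (∀ j ∈ S, ∀ k, |unW (uz n) (uc n) (un n) k *
        coW (kp n) (GauW619.gau (kp n) (e i) (F n i)) (GauW619.gau (kp n) (e j) (F n j)) k| ≤
          K * D.B.d n ^ x k) →
        (S.card : ℝ) ≤ N0Q D.A D.vm n * D.B.d n ^ (-(DW p.g 0 (qW p π) w0 x + ε))) :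
    ∃ C : ℝ, 0 < C ∧ ∀ x ∈ PD, ∀ K : ℝ, 1 ≤ K → ∀ ε : ℝ, 0 < ε → ∀ᶠ n in (U : Filter ℕ),
      ∀ e : ℕ × ℝ → Fin 14 → ℝ,
        (∀ j ∈ I1 n, (e j 9 = 0 ∧ e j 12 = 0 ∧ e j 13 = 0) ∧
          ∀ k, unW (uz n) (uc n) (un n) (Fin.natAdd 4 k) * |e j k| ≤ D.B.d n ^ (-C)) →
        ∀ i ∈ I1 n, ∀ G ⊆ I1 n, (∀ j ∈ G, ∀ k, |unW (uz n) (uc n) (un n) k *
            coW (kp n) (GauW619.gau (kp n) (e i) (F n i)) (GauW619.gau (kp n) (e j) (F n j)) k| ≤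
              K * D.B.d n ^ x k) →
          (G.card : ℝ) ≤ D.B.d n ^ (-(c₀ + DW p.g 0 (qW p π) w0 x + ε)) := by
  refine ⟨1, one_pos, ?_⟩
  have hth := abs_le.1 (h.tp.big.th 0)
  have hR := h.tp.big.R0
  exact GgB893.gd_of_comb h.tp.kp1 h.tp.uz0 h.tp.uc0 h.tp.un0 comb h.ext.sub h.tp.pre.PDleg pdc
    (fun x hx => by
      have h1 := pdr x hx
      have h2 : max 0 (1 - thW p π 0) ≤ 1 + T0 := max_le (by linarith [h.tp.big.T0]) (by linarith)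
      linarith)
    (fun x y e0 e2 e3 e17 => by simp only [DW, e0, e2, e3, e17]) gmax

end Crest.Agent.R136.GgC893
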