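import Crest.Agent.R136.ThO_830
import Crest.Agent.R136.GgC_893

/-!
# R136, thin branch (helper778): D-max for all gauges over `Thin`

**`gdThin : ThO830.GdThin η`** (`gmax_W` 778, `wdata_gau` / `gd_thin` 893).
-/

set_option autoImplicit false

namespace Crest.Agent.R136.GeoN778

/-- **D-max for all gauges over `Thin`** -/
theorem gdThin {η : ℝ} : ThO830.GdThin η :=
  fun _p _D _I1 _π _kp _uz _uc _un _F _V _T _w0 _R _T0 _PD _ν _own _c₀ h =>
    GgC893.gd_thin h h.comb h.tp.pdc h.tp.pdr h.tp.gmax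

end Crest.Agent.R136.GeoN778
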