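import Crest.Agent.R136.LadG1_697

/-!
# R136, thin branch (helper830): `Thin` IS AN OBJECT

* `extZ_of_extQ` : `ExtQ` ⊢ `ExtZ` at the base `X = 0`, `w = 1`
* **`seamThinOb`** : `SeamThinOb η`
-/

set_option autoImplicit false
set_option linter.unusedVariables false

open Finset Filter Topology

namespace Crest.Agent.R136.ThO830

open Crest.Agent.R138.Ex926
open Crest.Agent.R136.Net191
open Crest.Agent.R136.NetW191
open Crest.Agent.R136.PrW464
open Crest.Agent.R136.NatW697
open Crest.Agent.R136.LadW697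
open Crest.Agent.R136.Lq196
open Crest.Agent.R136.Top484
open Crest.Agent.R136.NatT550
open Crest.Agent.R136.ThS830
open Crest.Agent.R136.Zpr779
open Crest.Agent.R136.EvW938
open Crest.Agent.R136.Qg926
open Crest.Agent.R136.Aw413
open Crest.Agent.R136.LadG697

section

variable {m : ℕ} {B : Base} {I0 I : ℕ → Finset (ℕ × ℝ)}
  {co : ∀ n : ℕ, ℕ × ℝ → ℕ × ℝ → Fin m → ℝ} {M : Mons m} {C R : ℝ} {kz : Fin m} {w0 s : ℝ}
  {PD : Set (Fin m → ℝ)} {D : (Fin m → ℝ) → ℝ} {r o : ℝ → Fin m → ℝ} {E : ℝ → ℝ}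
  {T : Fin m → Prop} {ν own : (Fin m → ℝ) → ℝ} {c₀ : ℝ}

/-- the labels of the window `X = 0`, `w = 1` -/
theorem zlab_one : zlab B I0 co M C (fun _ => 0) (fun _ => 1) = nlab B I0 co M C := by
  funext n c
  show nlab B I0 co M C n (0 + (1:ℝ) • c) = nlab B I0 co M C n c
  rw [zero_add, one_smul]

theorem zolb_one : zolb B I0 co M C (fun _ => 0) (fun _ => 1) = olb B I0 co M C := by
  funext n c x
  show (x.1, nlab B I0 co M C n (0 + (1:ℝ) • c) x) = (x.1, nlab B I0 co M C n c x)
  rw [zero_add, one_smul]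

/-- **`ExtQ` is an `ExtZ`** -/
theorem extZ_of_extQ (h : ExtQ B I0 I co M C R kz w0 s PD D r o E T ν own c₀) (hR : 0 ≤ R)
    (hr : ∀ v : ℝ, 0 ≤ v → v ≤ 1 → r v ∈ Leg M R) :
    ExtZ B B I0 I co M C (fun _ => 0) (fun _ => 1) M R (fun n => 1 * B.d n ^ (-(ν 0)))
      (fun _ => 1) kz w0 s PD D r o E T (fun p => ν p + -(ν 0)) own (c₀ + -(ν 0)) := by
  have oanti : ∀ p ∈ Leg M R, ∀ q ∈ Leg M R, p ≤ q → own q ≤ own p := fun p hp q hq hpq =>
    ThS830.qprof_anti h.oprof h.ne hq hp hpq
  have omono : ∀ p ∈ Leg M R, ∀ q ∈ Leg M R, p ≤ q → 0 ≤ own p - own q ∧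
      own p - own q ≤ ∑ k, (q k - p k) := fun p hp q hq hpq =>
    ⟨by linarith [oanti p hp q hq hpq], (h.own_le p hp q hq hpq).trans (h.lip p hp q hq hpq).2⟩
  have hT := TProf.ofQ h.prof
  have hTo := TProf.ofQ h.oprof
  have h0 : (0 : Fin m → ℝ) ∈ Leg M R :=
    ⟨⟨fun _ => le_rfl, fun k e _ => by simp⟩, fun _ => hR⟩
  refine
    { win := ?_
      R0 := hR
      s0 := h.s0
      s1 := h.s1
      oprof := by rw [zolb_one]; exact hTo
      olip := lip_of_mono omono
      oanti := oanti
      own_le := fun p hp q hq hpq => by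
        have := h.own_le p hp q hq hpq
        linarith
      osub := fun p hp q hq h1 => ?_
      dmax := fun p hp _ => by have := h.dmax p hp; linarith
      record := fun v v0 v1 => ⟨hr v v0 v1, by have := h.record v v0 v1; linarith⟩
      own_rot := h.own_rot
      own_up := h.own_up
      own_tw := h.own_tw }
  · exact
      { chart := h.chart
        sub := Eventually.of_forall h.sub
        ne := h.ne
        w0 := fun _ => one_pos
        base := fun n => (Real.rpow_one _).symm
        zero := h0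
        legal := fun K => Eventually.of_forall fun n c hc _ => by
          rw [zero_add, one_smul]; exact hc.1
        prof := by
          rw [zlab_one]
          exact (hT.shift (-(ν 0))).toZ
        lam0 := by ring
        T0 := fun n => by
          have := Real.rpow_pos_of_pos (B.pos n) (-(ν 0))
          linarith
        lip := fun p hp q hq => by
          have := lip_of_mono h.lip p hp q hq
          have e : ν p + -ν 0 - (ν q + -ν 0) = ν p - ν q := by ring
          rw [e]; exact this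
        anti := fun p hp q hq hpq => by
          have := (h.lip p hp q hq hpq).1
          linarith
        sharp := fun p hp q hq hpq => by
          have := (h.lip p hp q hq hpq).2
          linarith
        submod := fun p hp q hq h1 _ => by
          have := h.submod p hp q hq h1
          linarith }
  · have hJ : QJoin B I (olb B I0 co M C) (Leg M R) := by
      have h3 := net_QJoin (B := B) (C := C) h.chart (P := Leg M R) fun p hp => hp.1
      exact Zpr779.line_QJoin (h3.mono (Eventually.of_forall h.sub) (Set.Subset.refl _))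
        fun _ x => x.1
    exact hTo.submod hJ h.ne hp hq h1 (leg_sup hp hq)

end

/-- **D-max for all gauges over `Thin`** (778, 464): plain form, base `D.B`, boxes of `PD` -/
def GdThin (η : ℝ) : Prop :=
  ∀ (p : Par4) (D : Dat4) (I1 : ℕ → Finset (ℕ × ℝ)) (π : Equiv.Perm (Fin 3))
    (kp uz uc un : ℕ → ℝ) (F : ℕ → ℕ × ℝ → FW) (V T : Fin 18 → Prop) (w0 R T0 : ℝ)
    (PD : Set (Fin 18 → ℝ)) (ν own : (Fin 18 → ℝ) → ℝ) (c₀ : ℝ),
    Thin η p D I1 π kp uz uc un F V T w0 R T0 PD ν own c₀ →
    ∃ C : ℝ, 0 < C ∧ ∀ x ∈ PD, ∀ K : ℝ, 1 ≤ K → ∀ ε : ℝ, 0 < ε → ∀ᶠ n in (U : Filter ℕ),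
      ∀ e : ℕ × ℝ → Fin 14 → ℝ,
        (∀ j ∈ I1 n, (e j 9 = 0 ∧ e j 12 = 0 ∧ e j 13 = 0) ∧
          ∀ k, unW (uz n) (uc n) (un n) (Fin.natAdd 4 k) * |e j k| ≤ D.B.d n ^ (-C)) →
        ∀ i ∈ I1 n, ∀ G ⊆ I1 n, (∀ j ∈ G, ∀ k, |unW (uz n) (uc n) (un n) k *
            coW (kp n) (GauW619.gau (kp n) (e i) (F n i)) (GauW619.gau (kp n) (e j) (F n j)) k| ≤
              K * D.B.d n ^ x k) →
          (G.card : ℝ) ≤ D.B.d n ^ (-(c₀ + DW p.g 0 (qW p π) w0 x + ε))

/-- `log₂` of a polynomially bounded number (779's `log_card`) -/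
theorem log_cardO {B : Base} {c : ℝ} (hc : 0 ≤ c) {n m : ℕ} (h : (m : ℝ) ≤ B.d n ^ (-c)) :
    (Nat.log 2 m : ℝ) + 1 ≤ (2 * c + 1) * (1 + B.L n) := by
  have hL := B.L_pos n
  rcases Nat.eq_zero_or_pos m with rfl | hm
  · simp only [Nat.log_zero_right, Nat.cast_zero, zero_add]
    nlinarith
  have hm' : (0 : ℝ) < m := by exact_mod_cast hm
  have h1 : ((2 : ℝ) ^ (Nat.log 2 m)) ≤ m := by
    exact_mod_cast Nat.pow_log_le_self 2 hm.ne'
  have h2 : Real.log ((2 : ℝ) ^ (Nat.log 2 m)) ≤ Real.log (B.d n ^ (-c)) :=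
    Real.log_le_log (by positivity) (h1.trans h)
  rw [Real.log_pow, Real.log_rpow (B.pos n)] at h2
  have h3 : -c * Real.log (B.d n) = c * B.L n := by
    unfold Base.L; ring
  rw [h3] at h2
  have h4 : (1 : ℝ) / 2 ≤ Real.log 2 := by
    have := Real.log_two_gt_d9
    linarith
  have h5 : (Nat.log 2 m : ℝ) * (1 / 2) ≤ c * B.L n :=
    (mul_le_mul_of_nonneg_left h4 (Nat.cast_nonneg _)).trans h2
  nlinarith [mul_nonneg hc hL.le]

/-- **`Thin` is an object** -/
theorem seamThinOb {η : ℝ} (hη : 0 < η) (hη4 : η ≤ 1 / 8) (hg : GdThin η) : SeamThinOb η := by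
  intro p D I1 π kp uz uc un F V T w0 R T0 PD ν own c₀ h
  have C := ctx_thin h hη hη4 (v1 := 1 / 2) (by norm_num) (by norm_num)
  have hR : 0 ≤ R := by linarith [h.tp.big.wR, h.tp.big.w0pos]
  refine ⟨w0, R, T0, D.B, D.B, D.I, I1, kp, fun n => unW (uz n) (uc n) (un n), F, fun _ => 0,
    fun _ => 1, fun n => 1 * D.B.d n ^ (-(ν 0)), fun _ => 1, PD, fun q => ν q + -(ν 0), own,
    c₀ + -(ν 0), ?_, ?_⟩
  · exact
      { th1 := C.θ1
        q1 := C.q1
        q2 := C.q2
        q0 := C.q0
        qg := C.qg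
        qθ := C.qθ
        vis := fun k hk => h.tp.slots.vis k hk
        tied := fun k hk => h.tp.slots.tied k hk
        u0 := fun n => GrU.unW (h.tp.uz0 n) (h.tp.uc0 n) (h.tp.un0 n)
        κ1 := h.tp.kp1
        κ0 := by
          have hsub : D.B.Sub (fun n => |kp n|) := sub_of_bd h.tp.kp0 fun ε hε =>
            Eventually.of_forall fun n => (h.tp.kp1 n).trans
              (Real.one_le_rpow_of_pos_of_le_one_of_nonpos (D.B.pos n) (D.B.lt n).le (by linarith))
          exact hsub.inv
        big := h.tp.big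
        bas := ⟨fun k => Finset.Subset.refl _, fun k e _ n => by simp,
          fun k e he hn => absurd he hn⟩
        pdn := h.tp.pdn
        ext := by
          have hE : Wq638.EQ (thW p π) p.g 0 (qW p π) w0 R =
              fun v => DW p.g 0 (qW p π) w0 (pathW (thW p π) w0 v) := by
            funext v; exact EQ_path h.tp.th2 _ _ _ _
          have h1 := extZ_of_extQ h.ext hR fun v v0 v1 => h.tp.big.path_leg v0 v1
          rw [hE] at h1
          exact h1
        gd := by
          obtain ⟨C, hC, hg'⟩ := hg p D I1 π kp uz uc un F V T w0 R T0 PD ν own c₀ h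
          refine ⟨C, hC, fun x hx K hK ε hε => ?_⟩
          filter_upwards [hg' x hx K hK ε hε] with n hn e he i hi G hG hj
          have h2 := hn e he i hi G hG fun j hj' k => by
            have := hj j hj' k
            simpa only [Pi.zero_apply, Real.rpow_zero, one_mul] using this
          refine h2.trans (le_of_eq ?_)
          rw [one_mul, ← Real.rpow_add (D.B.pos n)]
          congr 1; ring
        card := by
          obtain ⟨c, hc, hcd⟩ := h.ext.card
          exact ⟨fun n => (2 * c + 1) * (1 + D.B.L n),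
            (Base.Sub.const (by positivity)).mul Base.Sub.one_add_L,
            hcd.mono fun n hn => log_cardO hc hn⟩ }
  · intro a _ b _ hab
    have : a = b := funext fun k => hab k (by simp)
    rw [this]; exact ⟨rfl, rfl⟩

end Crest.Agent.R136.ThO830
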