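import Crest.Agent.R136.GgC_893
import Crest.Agent.R136.ThO_830

/-!
# R136 (S0187): `GdThin` (helper1; the work is helper893's and helper778's)
-/

set_option autoImplicit false
set_option linter.unusedVariables false

open Filter Topology

namespace Crest.Agent.R136.Gdt1

/-- **D-max for all gauges on the sample** -/
theorem gdThin {η : ℝ} : ThO830.GdThin η :=
  fun p D I1 π kp uz uc un F V T w0 R T0 PD ν own c₀ h =>
    GgC893.gd_thin h h.comb h.tp.pdc h.tp.pdr fun x hx => h.tp.gmax x hx

end Crest.Agent.R136.Gdt1
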