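import Crest.Agent.R136.Gen_467
import Crest.Agent.R136.Wdg2_296
import Crest.Agent.R136.AlD_601

/-!
# R136, PLAN 2 (3) (aligned curved pairs): the wedge at one incidence (helper467)

* `ratio` : comparison of the two frames in the units of the sheets;
* `grad_jet` : the gradient of `q'` in the chart of `S`, from the jet;
* `two_balls` : from two small balls of velocities to the count;
* `wedge_at` : `Gen467.Wedge` at one good incidence, from `Wdg296.gen_ball` and `AlD601`.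
-/

set_option autoImplicit false
set_option linter.unusedVariables false

open Finset

namespace Crest.Agent.R136.Gen467

open Crest.Agent.R136.Sh605 Crest.Agent.R136.Hcp208 Crest.Agent.R136.Rk601 Crest.Agent.R136.AlD601
open Crest.Agent.R136.Tl102 (cmb fr StP StP.of_shN IsExp kap vel rp pc angC)
open Crest.Agent.R136.K4 (Plk4)
open Crest.Agent.R136.Tlt51 (Shp InP)
open Crest.Agent.R136.Pl2W102 (Near Two1)
open Crest.Agent.R136.KapP335 (kapP DetP expP expP_spec fanP)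
open Crest.Agent.R136.Gbx862 (zj dt_le_one)

/-- frames of two aligned sheets of comparable dimensions -/
theorem ratio {S S' : Plk4} {K a w1 w2 : ℝ} (hK : 1 ≤ K) (he : Ortho S.e) (he' : Ortho S'.e)
    (d : Dims K a w1 w2 S) (d' : Dims K a w1 w2 S') (hw2 : 0 ≤ w2)
    (o0 : S.w 0 ≤ S.w 2) (o2 : S.w 2 ≤ S.w 1) (p0 : S'.w 0 ≤ S'.w 2) (p2 : S'.w 2 ≤ S'.w 1)
    (q0 : 0 ≤ S'.w 0) (ang : angC S S' * w1 ≤ K * w2) (hw1 : 0 ≤ w1) :
    ∀ k, k ≠ 0 → ∀ l, S'.w l * |dt (S.e k) (S'.e l)| ≤ (K ^ 2) ^ 2 * S.w k := by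
  obtain ⟨_, ⟨a1, a2⟩, b1, b2⟩ := d
  obtain ⟨_, ⟨a1', a2'⟩, b1', b2'⟩ := d'
  have hK0 : 0 ≤ K := by linarith
  have n1 : ∀ i j, |dt (S.e i) (S'.e j)| ≤ 1 := fun i j =>
    dt_le_one (by simpa using he i i) (by simpa using he' j j)
  have hS1 : S'.w 1 ≤ K ^ 2 * S.w 1 := by nlinarith
  have hS2 : S'.w 2 ≤ K ^ 2 * S.w 2 := by nlinarith
  have s2 : 0 ≤ S.w 2 := by
    by_contra hcon
    nlinarith [not_le.1 hcon]
  have s1 : 0 ≤ S.w 1 := s2.trans o2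
  have hK2 : K ^ 2 ≤ (K ^ 2) ^ 2 := by
    have : 1 ≤ K ^ 2 := one_le_pow₀ hK
    nlinarith
  have hK3 : K ^ 3 ≤ (K ^ 2) ^ 2 := by
    have : K ^ 3 * 1 ≤ K ^ 3 * K := mul_le_mul_of_nonneg_left hK (by positivity)
    nlinarith
  have triv : ∀ {x d S : ℝ}, 0 ≤ x → d ≤ 1 → 0 ≤ S → x ≤ K ^ 2 * S → x * d ≤ (K ^ 2) ^ 2 * S := by
    intro x d S hx hd hS h
    calc x * d ≤ x * 1 := mul_le_mul_of_nonneg_left hd hx
      _ ≤ K ^ 2 * S := by linarith
      _ ≤ _ := mul_le_mul_of_nonneg_right hK2 hS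
  intro k hk l
  have hk' : k = 1 ∨ k = 2 := by
    fin_cases k
    · exact absurd rfl hk
    · exact Or.inl rfl
    · exact Or.inr rfl
  have q2 : 0 ≤ S'.w 2 := q0.trans p0
  have q1 : 0 ≤ S'.w 1 := q2.trans p2
  rcases hk' with rfl | rfl
  · have h2 : S'.w 2 ≤ K ^ 2 * S.w 1 := hS2.trans (mul_le_mul_of_nonneg_left o2 (by positivity))
    fin_cases l
    · exact triv q0 (n1 _ _) s1 (p0.trans h2)
    · exact triv q1 (n1 _ _) s1 hS1
    · exact triv q2 (n1 _ _) s1 h2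
  · fin_cases l
    · exact triv q0 (n1 _ _) s2 (p0.trans hS2)
    · have h1 : |dt (S.e 2) (S'.e 1)| ≤ angC S S' := by
        unfold Tl102.angC
        exact (le_max_right _ _).trans (le_max_right _ _)
      change S'.w 1 * |dt (S.e 2) (S'.e 1)| ≤ (K ^ 2) ^ 2 * S.w 2
      calc S'.w 1 * |dt (S.e 2) (S'.e 1)| ≤ K * w1 * |dt (S.e 2) (S'.e 1)| :=
            mul_le_mul_of_nonneg_right a2' (abs_nonneg _)
        _ ≤ K * w1 * angC S S' := mul_le_mul_of_nonneg_left h1 (by positivity)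
        _ = K * (angC S S' * w1) := by ring
        _ ≤ K * (K * w2) := mul_le_mul_of_nonneg_left ang hK0
        _ ≤ K * (K * (K * S.w 2)) := by gcongr
        _ = K ^ 3 * S.w 2 := by ring
        _ ≤ _ := mul_le_mul_of_nonneg_right hK3 s2
    · exact triv q2 (n1 _ _) s2 hS2

theorem ratio' {S S' : Plk4} {K a w1 w2 : ℝ} (hK : 1 ≤ K) (he : Ortho S.e) (he' : Ortho S'.e)
    (d : Dims K a w1 w2 S) (d' : Dims K a w1 w2 S') (hw2 : 0 ≤ w2)
    (o0 : S.w 0 ≤ S.w 2) (o2 : S.w 2 ≤ S.w 1) (p0 : S'.w 0 ≤ S'.w 2) (p2 : S'.w 2 ≤ S'.w 1)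
    (q0 : 0 ≤ S.w 0) (ang : angC S S' * w1 ≤ K * w2) (hw1 : 0 ≤ w1) :
    ∀ l, l ≠ 0 → ∀ k, S.w k * |dt (S'.e l) (S.e k)| ≤ (K ^ 2) ^ 2 * S'.w l := by
  refine ratio hK he' he d' d hw2 p0 p2 o0 o2 q0 ?_ hw1
  rw [angC_comm]; exact ang

/-- the central difference of `q'` in the chart of `S` -/
theorem grad_jet {q : ℝ → V3 → ℝ} (hq : IsQ q) (f : Fin 3 → V3) (V : V3) (z : ℝ) (X : V3) (ρ : ℝ)
    (τ : V3) : q z (X + cmb f τ) - q z (X - cmb f τ) =
      dt ![2 * (jt q f V z X ρ).a0, 2 * (jt q f V z X ρ).a 1, 2 * (jt q f V z X ρ).a 2] τ := by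
  obtain ⟨h, _⟩ := jt_jet hq f V z X ρ
  have h1 := h (τ 0) 0 (τ 1) (τ 2)
  have h2 := h (-τ 0) 0 (-τ 1) (-τ 2)
  have e1 : X + (ρ * 0) • V + cmb f ![τ 0, τ 1, τ 2] = X + cmb f τ := by
    have : (![τ 0, τ 1, τ 2] : V3) = τ := by funext i; fin_cases i <;> rfl
    rw [this]; simp
  have e2 : X + (ρ * 0) • V + cmb f ![-τ 0, -τ 1, -τ 2] = X - cmb f τ := by
    funext i
    simp only [cmb, Pi.add_apply, Pi.sub_apply, Pi.smul_apply, smul_eq_mul, Matrix.cons_val]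
    ring
  rw [e1, mul_zero, add_zero] at h1
  rw [e2, mul_zero, add_zero] at h2
  rw [h1, h2]
  simp only [dp, qf, dt, Fin.sum_univ_three, Matrix.cons_val]
  ring

open Classical in
/-- **two balls** -/
theorem two_balls {G : Finset ℕ} {Ball : Fin 2 → ℕ → Prop} {m : ℝ} (hm : 0 ≤ m)
    (h : ∀ y ∈ G, ∃ i, Ball i y)
    (hb : ∀ i, ∀ x ∈ G, Ball i x → (((G.filter fun y => Ball i y).card : ℕ) : ℝ) ≤ m) :
    (G.card : ℝ) ≤ 2 * m := by
  have h1 : G ⊆ (univ : Finset (Fin 2)).biUnion fun i => G.filter fun y => Ball i y := by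
    intro y hy
    obtain ⟨i, hi⟩ := h y hy
    exact mem_biUnion.2 ⟨i, mem_univ _, mem_filter.2 ⟨hy, hi⟩⟩
  have h2 : (G.card : ℝ) ≤ ∑ i : Fin 2, (((G.filter fun y => Ball i y).card : ℕ) : ℝ) := by
    exact_mod_cast (card_le_card h1).trans card_biUnion_le
  refine h2.trans ((sum_le_card_nsmul _ _ m fun i _ => ?_).trans (le_of_eq ?_))
  · by_cases hem : (G.filter fun y => Ball i y).Nonempty
    · obtain ⟨x, hx⟩ := hem
      rw [mem_filter] at hx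
      exact hb i x hx.1 hx.2
    · rw [not_nonempty_iff_eq_empty] at hem
      rw [hem]; simpa using hm
  · rw [nsmul_eq_mul, card_univ, Fintype.card_fin]; norm_num

/-- **the wedge at one incidence**.  `Gen p x := Nd1 p ∨ Gn ..`. -/
theorem wedge_at {L : ℕ → Ln4} {cu cv : ℕ → ℕ} {Uf Vf : ℕ → Plk4}
    {W K a w1 w2 z0 ρ r β k g s : ℝ} {H t j : ℕ} {Nd1 : ℕ × ℕ → Prop} (hH : 1 ≤ H) (hj : j < H)
    (hK : 1 ≤ K) (hW : 0 ≤ W) (hρ : 0 < ρ) (hr0 : 0 < r) (hw1 : 0 ≤ w1) (hw2 : 0 ≤ w2)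
    (shU : Shp (Uf (cu t)) z0 ρ r) (shV : Shp (Vf (cv t)) z0 ρ r)
    (inU : InP (L t) (Uf (cu t)) z0 ρ) (inV : InP (L t) (Vf (cv t)) z0 ρ)
    (dU : Dims K a w1 w2 (Uf (cu t))) (dV : Dims K a w1 w2 (Vf (cv t)))
    (ang : angC (Uf (cu t)) (Vf (cv t)) * w1 ≤ K * w2)
    (hkap : 0 < kapP (Vf (cv t)) z0 ρ (L t)) (hdet : DetP K⁻¹ (Vf (cv t)) z0 ρ (L t))
    (hβ : 0 < β) (hβ1 : β ≤ 1) (hs : 0 < s) (hk : 1 / K ≤ k) (hg : 0 ≤ g)
    (hsl : ¬ Nd1 (t, j) → (jS (Uf (cu t)) (Vf (cv t)).q z0 ρ H j (L t)).a0 ≠ 0 ∧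
      ∀ i, i ≠ 0 → |(jS (Uf (cu t)) (Vf (cv t)).q z0 ρ H j (L t)).a i| ≤
        K * |(jS (Uf (cu t)) (Vf (cv t)).q z0 ρ H j (L t)).a0|)
    (hth : ¬ Nd1 (t, j) → ∀ i j', |th (jS (Uf (cu t)) (Uf (cu t)).q z0 ρ H j (L t))
      (jS (Uf (cu t)) (Vf (cv t)).q z0 ρ H j (L t)) i j'| ≤ K * s)
    (hnum : 2 * 10 ^ 12 * (K ^ 2) ^ 7 * (W / H + (Vf (cv t)).a / kapP (Vf (cv t)) z0 ρ (L t)) +
      10 ^ 5 * (K ^ 2) ^ 4 * g ≤ (K⁻¹ * β ^ 2 / 216) ^ 3) :
    Wedge L cv Vf W z0 ρ (8 * β) H (fun p x => Nd1 p ∨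
      Gn (Uf (cu p.1)) (Vf (cv p.1)).q z0 ρ H p.2 (L p.1) (L x) k g s) t j := by
  classical
  set S := Uf (cu t) with hS
  set S' := Vf (cv t) with hS'
  have hH0 : (0 : ℝ) < H := by exact_mod_cast (show 0 < H by omega)
  intro G m hm hG hball
  -- trivial case
  by_cases hNd : Nd1 (t, j)
  · have hem : G = ∅ := by
      rw [eq_empty_iff_forall_notMem]
      intro y hy
      exact (hG y hy).2.2 (Or.inl hNd)
    rw [hem]; simp; exact hm
  obtain ⟨ha0, hak⟩ := hsl hNd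
  have hth := hth hNd
  have hK0 : 0 < K := by linarith
  have hKK : K ≤ K ^ 2 := by nlinarith
  have hK2 : 1 ≤ K ^ 2 := one_le_pow₀ hK
  -- the case of no line
  by_cases hemG : G = ∅
  · rw [hemG]; simp; exact hm
  obtain ⟨y0, hy0⟩ := nonempty_iff_ne_empty.2 hemG
  obtain ⟨_, _, hy0G⟩ := hG y0 hy0
  have hGn0 : ¬ Gn S S'.q z0 ρ H j (L t) (L y0) k g s := fun h => hy0G (Or.inr h)
  obtain ⟨hSm, _⟩ := not_Gn.1 hGn0
  unfold Sm at hSm
  push Not at hSm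
  obtain ⟨i0, l0, hil⟩ := hSm
  -- positivity of the widths
  have u0 : 0 < S.w 0 := hr0.trans_le (shU.r0_le.trans shU.a_le0)
  have u2 : 0 < S.w 2 := u0.trans_le shU.w0_le
  have u1 : 0 < S.w 1 := u2.trans_le shU.w_le
  have v0 : 0 < S'.w 0 := hr0.trans_le (shV.r0_le.trans shV.a_le0)
  have v2 : 0 < S'.w 2 := v0.trans_le shV.w0_le
  have v1 : 0 < S'.w 1 := v2.trans_le shV.w_le
  have upos : ∀ i, 0 < S.w i := by intro i; fin_cases i <;> assumption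
  have vpos : ∀ i, 0 < S'.w i := by intro i; fin_cases i <;> assumption
  have SP' := StP.of_shN shV v0
  have hexp := expP_spec (S := S') shV.isQ v0.ne' z0 ρ (L t)
  set b0 := (expP S' z0 ρ (L t)).1 with hb0
  set b1 := (expP S' z0 ρ (L t)).2.1 with hb1
  set GG := (expP S' z0 ρ (L t)).2.2 with hGG
  have hkap' : kapP S' z0 ρ (L t) = S'.w 0 * kap b0 b1 GG := rfl
  have hκ : 0 < kap b0 b1 GG := by
    rw [hkap'] at hkap
    exact pos_of_mul_pos_right hkap v0.le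
  have hj1 : (j : ℝ) / H ≤ 1 := by
    rw [div_le_one hH0]; exact_mod_cast hj.le
  have hj0 : (0 : ℝ) ≤ (j : ℝ) / H := by positivity
  have hz0 : z0 ≤ z0 + ρ * ((j : ℝ) / H) := by nlinarith
  have hz1 : z0 + ρ * ((j : ℝ) / H) ≤ z0 + ρ := by nlinarith
  set J := jS S S'.q z0 ρ H j (L t) with hJ
  set nn : Fin 3 → ℝ := fun l => th (jS S S.q z0 ρ H j (L t)) J i0 l / s with hnn
  have hnK : ∀ i, |nn i| ≤ K ^ 2 := by
    intro i
    rw [hnn]; simp only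
    rw [abs_div, abs_of_pos hs, div_le_iff₀ hs]
    exact (hth i0 i).trans (mul_le_mul_of_nonneg_right hKK hs.le)
  have hn1 : ∃ i, 1 / K ^ 2 ≤ |nn i| := by
    refine ⟨l0, ?_⟩
    rw [hnn]; simp only
    rw [abs_div, abs_of_pos hs, le_div_iff₀ hs]
    have h1 : 1 / K ^ 2 ≤ 1 / K := one_div_le_one_div_of_le hK0 hKK
    calc 1 / K ^ 2 * s ≤ k * s := mul_le_mul_of_nonneg_right (h1.trans hk) hs.le
      _ ≤ _ := hil.le
  obtain ⟨p, hp⟩ := Wdg296.gen_ball (e := S.e) (c := S.c) (w := S.w) shU.ortho upos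
    (e' := S'.e) (c' := S'.c) (w' := S'.w) (q' := S'.q) (z0 := z0) (ρ := ρ) (a' := S'.a) SP' hρ.le
    (T := L t) (fun z h1 h2 => (inU z h1 h2).1) inV (b0 := b0) (b1 := b1) (G := GG) hexp hκ
    (κd := K⁻¹) (β := β) (r := W / H) (t := g) (K := K ^ 2) (ζ := (j : ℝ) / H)
    (by positivity) (inv_le_one_of_one_le₀ hK) hβ hβ1 hj0 hj1 (hdet _ hj0 hj1) hK2
    (ratio hK shU.ortho shV.ortho dU dV hw2 shU.w0_le shU.w_le shV.w0_le shV.w_le v0.le ang hw1)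
    (ratio' hK shU.ortho shV.ortho dU dV hw2 shU.w0_le shU.w_le shV.w0_le shV.w_le u0.le ang hw1)
    (g := ![2 * J.a0, 2 * J.a 1, 2 * J.a 2])
    (fun τ => grad_jet shV.isQ (fr S.e S.w) S.c.v (z0 + ρ * ((j : ℝ) / H))
      ((L t).pos (z0 + ρ * ((j : ℝ) / H))) ρ τ)
    (by
      change 2 * J.a0 ≠ 0
      exact mul_ne_zero two_ne_zero ha0)
    (by
      intro i hi
      have h2 : |(![2 * J.a0, 2 * J.a 1, 2 * J.a 2] : V3) i| = 2 * |J.a i| := by
        fin_cases i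
        · exact absurd rfl hi
        · change |2 * J.a 1| = 2 * |J.a 1|
          rw [abs_mul, abs_two]
        · change |2 * J.a 2| = 2 * |J.a 2|
          rw [abs_mul, abs_two]
      rw [h2]
      change 2 * |J.a i| ≤ K ^ 2 * |2 * J.a0|
      rw [abs_mul, abs_two]
      have h3 := hak i hi
      have h4 : K * |J.a0| ≤ K ^ 2 * |J.a0| := mul_le_mul_of_nonneg_right hKK (abs_nonneg _)
      linarith)
    (by positivity) hg
    (by
      rw [← hkap']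
      exact hnum)
    hnK hn1
  -- the two balls
  refine two_balls (Ball := fun i y => dist (vel S'.e S'.w ρ (L t) (L y) 1,
    vel S'.e S'.w ρ (L t) (L y) 2) (p i) < 4 * β) hm (fun y hy => ?_) ?_
  · obtain ⟨k1, ⟨k2, k3⟩, k4⟩ := hG y hy
    have hGn : ¬ Gn S S'.q z0 ρ H j (L t) (L y) k g s := fun h => k4 (Or.inr h)
    obtain ⟨_, hrow⟩ := not_Gn.1 hGn
    refine hp (L y) k1 ?_ ?_ ?_
    · change |dt (S'.e 1) ((L y).pos _ - (L t).pos _) / S'.w 1| ≤ W / H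
      rw [abs_div, abs_of_pos v1, div_le_iff₀ v1]
      exact k2
    · change |dt (S'.e 2) ((L y).pos _ - (L t).pos _) / S'.w 2| ≤ W / H
      rw [abs_div, abs_of_pos v2, div_le_iff₀ v2]
      exact k3
    · have h1 := hrow i0
      have e1 : nn 0 + nn 1 * vel S.e S.w ρ S.c (L y) 1 + nn 2 * vel S.e S.w ρ S.c (L y) 2 =
          (∑ j', th (jS S S.q z0 ρ H j (L t)) J i0 j' * vS S ρ (L y) j') / s := by
        rw [hnn]
        simp only [Fin.sum_univ_three, vS, vel, Matrix.cons_val]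
        field_simp
      rw [e1, abs_div, abs_of_pos hs, div_le_iff₀ hs]
      exact h1
  · intro i x hx hxi
    refine hball x hx _ (filter_subset _ _) fun y hy => ?_
    obtain ⟨hyG, hyi⟩ := mem_filter.1 hy
    obtain ⟨_, kx, _⟩ := hG x hx
    obtain ⟨_, ky, _⟩ := hG y hyG
    constructor
    · have := ky.trans kx.symm
      rwa [← two_mul] at this
    · have hd : dist (vel S'.e S'.w ρ (L t) (L y) 1, vel S'.e S'.w ρ (L t) (L y) 2)
          (vel S'.e S'.w ρ (L t) (L x) 1, vel S'.e S'.w ρ (L t) (L x) 2) < 8 * β := by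
        have h1 := dist_triangle_right (vel S'.e S'.w ρ (L t) (L y) 1, vel S'.e S'.w ρ (L t) (L y) 2)
          (vel S'.e S'.w ρ (L t) (L x) 1, vel S'.e S'.w ρ (L t) (L x) 2) (p i)
        linarith
      rw [Prod.dist_eq, max_lt_iff, Real.dist_eq, Real.dist_eq] at hd
      have key : ∀ l, |vel S'.e S'.w ρ (L t) (L y) l - vel S'.e S'.w ρ (L t) (L x) l| < 8 * β →
          |dt (S'.e l) ((L y).v - (L x).v)| * ρ ≤ 8 * β * S'.w l := by
        intro l hl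
        have e2 : vel S'.e S'.w ρ (L t) (L y) l - vel S'.e S'.w ρ (L t) (L x) l =
            ρ * dt (S'.e l) ((L y).v - (L x).v) / S'.w l := by
          simp only [vel, dt, Pi.sub_apply]; ring
        rw [e2, abs_div, abs_of_pos (vpos l), div_lt_iff₀ (vpos l), abs_mul, abs_of_pos hρ] at hl
        linarith
      exact ⟨key 1 hd.1, key 2 hd.2⟩

end Crest.Agent.R136.Gen467
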