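import Crest.Agent.R136.Net4_186
import Crest.Agent.R136.Sh1_605

/-!
# R136: a legal box of the gauge chart is one sheet (helper186)

`gau g z a b` : quadratic gauge; `TrueLn g i t` : `t : Ln4` is the true line of the incidence `i` of
the gauge chart `Fq4` (coordinates of `ℝ³` in the order `(Y, A, B)`), i.e.
`Y = gauge (z, A, B) + height`.

`box_move` : relative coordinates at another height; `sheetQ` : the sheet of an incidence;
`box_inSheet` : a chart box around `i` is contained in the sheet of `i`.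
-/

set_option autoImplicit false
set_option linter.unusedVariables false

namespace Crest.Agent.R136.GeoQ186

open Crest.Agent.R136.NetQ186
open Crest.Agent.R136.Sh605

/-- the quadratic gauge -/
def gau (g : Fin 6 → ℝ) (z a b : ℝ) : ℝ :=
  g 0 * z ^ 2 + g 1 * (z * a) + g 2 * (z * b) + g 3 * a ^ 2 + g 4 * (a * b) + g 5 * b ^ 2

theorem gau_zero (z a b : ℝ) : gau 0 z a b = 0 := by simp [gau]

/-- `t` is the true line of the incidence `i` of the gauge chart -/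
def TrueLn (g : Fin 6 → ℝ) (i : Fq4) (t : Ln4) : Prop :=
  ∀ z, t.pos z 0 = i.py z + gau g z (i.pa z) (i.pb z) ∧ t.pos z 1 = i.pa z ∧ t.pos z 2 = i.pb z

/-- relative position at the height `z`, wide lateral -/
def ra (i j : Fq4) (z : ℝ) : ℝ := j.pa z - i.pa z
/-- relative position at the height `z`, narrow lateral -/
def rb (i j : Fq4) (z : ℝ) : ℝ := (j.pb z - i.pb z) - i.e * (j.pa z - i.pa z)
/-- relative position at the height `z`, normal -/
def rn (i j : Fq4) (z : ℝ) : ℝ :=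
  (j.py z - i.py z) - i.fa * (j.pa z - i.pa z) - i.fb * (j.pb z - i.pb z)

theorem ra_eq (i j : Fq4) (z : ℝ) : ra i j z = coQ i j 8 + (z - i.z) * coQ i j 5 := by
  simp only [ra, coQ, Fq4.pa, Matrix.cons_val]; ring

theorem rb_eq (i j : Fq4) (z : ℝ) : rb i j z = coQ i j 9 + (z - i.z) * coQ i j 6 := by
  simp only [rb, coQ, Fq4.pa, Fq4.pb, Matrix.cons_val]; ring

theorem rn_eq (i j : Fq4) (z : ℝ) :
    rn i j z = coQ i j 10 + (z - i.z) * coQ i j 7 + (z - i.z) ^ 2 * coQ i j 1 := by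
  simp only [rn, coQ, Fq4.pa, Fq4.pb, Fq4.py, Fq4.vy, Matrix.cons_val]; ring

theorem box_move {i j : Fq4} {s : Fin 11 → ℝ} (hs : ∀ k, |coQ i j k| ≤ s k) {z ρ : ℝ}
    (hz : |z - i.z| ≤ ρ) :
    |ra i j z| ≤ s 8 + ρ * s 5 ∧ |rb i j z| ≤ s 9 + ρ * s 6 ∧
      |rn i j z| ≤ s 10 + ρ * s 7 + ρ ^ 2 * s 1 := by
  have hρ : 0 ≤ ρ := (abs_nonneg _).trans hz
  refine ⟨?_, ?_, ?_⟩
  · rw [ra_eq]
    exact aux_a2 (hs 8) (aux_m2 hz (hs 5))
  · rw [rb_eq]
    exact aux_a2 (hs 9) (aux_m2 hz (hs 6))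
  · rw [rn_eq]
    refine aux_a2 (aux_a2 (hs 10) (aux_m2 hz (hs 7))) (aux_m2 ?_ (hs 1))
    rw [abs_pow]
    exact pow_le_pow_left₀ (abs_nonneg _) hz 2

/-! ### the frame -/

/-- `√(1 + e²)` -/
noncomputable def nu (e : ℝ) : ℝ := Real.sqrt (1 + e ^ 2)

theorem nu_sq (e : ℝ) : nu e ^ 2 = 1 + e ^ 2 := Real.sq_sqrt (by positivity)

theorem nu_ge (e : ℝ) : 1 ≤ nu e := by
  have h := nu_sq e
  have h0 : 0 ≤ nu e := Real.sqrt_nonneg _
  nlinarith [sq_nonneg e]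

theorem nu_pos (e : ℝ) : 0 < nu e := lt_of_lt_of_le one_pos (nu_ge e)

theorem nu_le {e : ℝ} (he : |e| ≤ 1) : nu e ≤ 3 / 2 := by
  have h := nu_sq e
  have h0 : 0 ≤ nu e := Real.sqrt_nonneg _
  have h1 : e ^ 2 ≤ 1 := by
    rw [← sq_abs]
    exact pow_le_one₀ (abs_nonneg _) he
  nlinarith

/-- the frame with `e 0` the `Y`-axis and `e 1` the axis `(1, e)` of the `(A, B)`-plane -/
noncomputable def frm (e : ℝ) : Fin 3 → V3 :=
  ![![1, 0, 0], ![0, 1 / nu e, e / nu e], ![0, -e / nu e, 1 / nu e]]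

theorem frm_ortho (e : ℝ) : Ortho (frm e) := by
  have h := nu_sq e
  have hp := (nu_pos e).ne'
  have h1 : 1 / nu e * (1 / nu e) + e / nu e * (e / nu e) = 1 := by
    field_simp
    linarith
  have h2 : -e / nu e * (-e / nu e) + 1 / nu e * (1 / nu e) = 1 := by
    field_simp
    linarith
  have h3 : 1 / nu e * (-e / nu e) + e / nu e * (1 / nu e) = 0 := by
    field_simp
    ring
  intro i j
  fin_cases i <;> fin_cases j <;>
    simp only [frm, dt, Fin.zero_eta, Fin.mk_one, Fin.reduceFinMk, Matrix.cons_val,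
      Fin.isValue, if_true, mul_zero, zero_mul, add_zero, zero_add, mul_one, Fin.reduceEq,
      if_false]
  · exact h1
  · exact h3
  · linarith
  · exact h2

theorem dt_frm0 (e : ℝ) (x : V3) : dt (frm e 0) x = x 0 := by
  simp [frm, dt]

theorem dt_frm1 (e : ℝ) (x : V3) : dt (frm e 1) x = (x 1 + e * x 2) / nu e := by
  simp only [frm, dt, Matrix.cons_val, zero_mul]
  ring

theorem dt_frm2 (e : ℝ) (x : V3) : dt (frm e 2) x = (x 2 - e * x 1) / nu e := by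
  simp only [frm, dt, Matrix.cons_val, zero_mul]
  ring

/-- from the frame back to the coordinates -/
theorem frm_bound {e : ℝ} (he : |e| ≤ 1) {x : V3} {W1 W2 : ℝ} (h1 : |dt (frm e 1) x| ≤ W1)
    (h2 : |dt (frm e 2) x| ≤ W2) : |x 1| ≤ W1 + W2 ∧ |x 2| ≤ W1 + W2 := by
  have ho := frm_ortho e
  have e1 := ho.expand x 1
  have e2 := ho.expand x 2
  have hn := nu_ge e
  have hp := nu_pos e
  have a1 : |1 / nu e| ≤ 1 := by
    rw [abs_of_pos (by positivity), div_le_one hp]; exact hn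
  have a2 : |e / nu e| ≤ 1 := by
    rw [abs_div, abs_of_pos hp, div_le_one hp]; linarith
  have a3 : |-e / nu e| ≤ 1 := by
    rw [abs_div, abs_neg, abs_of_pos hp, div_le_one hp]; linarith
  have f1 : x 1 = dt (frm e 1) x * (1 / nu e) + dt (frm e 2) x * (-e / nu e) := by
    have g0 : frm e 0 1 = 0 := rfl
    have g1 : frm e 1 1 = 1 / nu e := rfl
    have g2 : frm e 2 1 = -e / nu e := rfl
    rw [g0, g1, g2] at e1
    linarith
  have f2 : x 2 = dt (frm e 1) x * (e / nu e) + dt (frm e 2) x * (1 / nu e) := by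
    have g0 : frm e 0 2 = 0 := rfl
    have g1 : frm e 1 2 = e / nu e := rfl
    have g2 : frm e 2 2 = 1 / nu e := rfl
    rw [g0, g1, g2] at e2
    linarith
  constructor
  · rw [f1]
    have := aux_a2 (aux_m2 h1 a1) (aux_m2 h2 a3)
    simpa using this
  · rw [f2]
    have := aux_a2 (aux_m2 h1 a2) (aux_m2 h2 a1)
    simpa using this

/-! ### the quadratic function of an incidence -/

/-- the function vanishing on the flagged sheet of the incidence `i` -/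
def qf (g : Fin 6 → ℝ) (i : Fq4) (z : ℝ) (x : V3) : ℝ :=
  x 0 - gau g z (x 1) (x 2) - (i.py z + i.fa * (x 1 - i.pa z) + i.fb * (x 2 - i.pb z))

theorem qf_isQ (g : Fin 6 → ℝ) (i : Fq4) : IsQ (qf g i) := by
  refine ⟨-(i.y0 - i.fa * i.A - i.fb * i.B), -(i.y1 - i.fa * i.ca - i.fb * i.cb),
    -(g 0 + i.y2), ![1, -i.fa, -i.fb], ![0, -g 1, -g 2],
    ![![0, 0, 0], ![0, -g 3, -g 4], ![0, 0, -g 5]], ?_⟩
  intro z x
  simp only [qf, gau, Fq4.py, Fq4.pa, Fq4.pb, Fin.sum_univ_three, Matrix.cons_val]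
  ring

theorem qf_steep (g : Fin 6 → ℝ) (i : Fq4) (e : ℝ) (z : ℝ) (x : V3) (τ : ℝ) :
    qf g i z (x + τ • frm e 0) - qf g i z x = τ := by
  simp only [qf, frm, Pi.add_apply, Pi.smul_apply, smul_eq_mul, Matrix.cons_val]
  ring_nf

theorem qf_line {g : Fin 6 → ℝ} {i j : Fq4} {t : Ln4} (h : TrueLn g j t) (z : ℝ) :
    qf g i z (t.pos z) = rn i j z := by
  obtain ⟨h0, h1, h2⟩ := h z
  simp only [qf, rn, h0, h1, h2]
  ring

theorem qf_lip {g : Fin 6 → ℝ} {i : Fq4} {G R X : ℝ} (hG : ∀ k, |g k| ≤ G) (hfa : |i.fa| ≤ 1)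
    (hfb : |i.fb| ≤ 1) {z : ℝ} (hz : |z| ≤ R) {x x' : V3} (h1 : |x 1| ≤ X) (h2 : |x 2| ≤ X)
    (h1' : |x' 1| ≤ X) (h2' : |x' 2| ≤ X) :
    |qf g i z x - qf g i z x'| ≤
      (1 + G * (R + 3 * X)) * (|x 0 - x' 0| + |x 1 - x' 1| + |x 2 - x' 2|) := by
  have hG0 : 0 ≤ G := (abs_nonneg _).trans (hG 0)
  have hR0 : 0 ≤ R := (abs_nonneg _).trans hz
  have hX0 : 0 ≤ X := (abs_nonneg _).trans h1
  have e1 : qf g i z x - qf g i z x' = (x 0 - x' 0) +
      ((-(i.fa) - (g 1 * z + g 3 * (x 1 + x' 1) + g 4 * x 2)) * (x 1 - x' 1) +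
      (-(i.fb) - (g 2 * z + g 5 * (x 2 + x' 2) + g 4 * x' 1)) * (x 2 - x' 2)) := by
    simp only [qf, gau]; ring
  have b1 : |-(i.fa) - (g 1 * z + g 3 * (x 1 + x' 1) + g 4 * x 2)| ≤ 1 + G * (R + 3 * X) := by
    have := aux_s2 (aux_n hfa) (aux_a2 (aux_a2 (aux_m2 (hG 1) hz)
      (aux_m2 (hG 3) (aux_a2 h1 h1'))) (aux_m2 (hG 4) h2))
    linarith
  have b2 : |-(i.fb) - (g 2 * z + g 5 * (x 2 + x' 2) + g 4 * x' 1)| ≤ 1 + G * (R + 3 * X) := by
    have := aux_s2 (aux_n hfb) (aux_a2 (aux_a2 (aux_m2 (hG 2) hz)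
      (aux_m2 (hG 5) (aux_a2 h2 h2'))) (aux_m2 (hG 4) h1'))
    linarith
  have hL : 0 ≤ G * (R + 3 * X) := by positivity
  rw [e1]
  have := aux_a2 (le_refl |x 0 - x' 0|) (aux_a2 (aux_m2 b1 (le_refl |x 1 - x' 1|))
    (aux_m2 b2 (le_refl |x 2 - x' 2|)))
  nlinarith [abs_nonneg (x 0 - x' 0)]

/-! ### the sheet of an incidence -/

/-- **the sheet of an incidence** -/
theorem sheetQ {g : Fin 6 → ℝ} {i : Fq4} {t : Ln4} (ht : TrueLn g i t) (he : |i.e| ≤ 1)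
    (hfa : |i.fa| ≤ 1) (hfb : |i.fb| ≤ 1) {G R X : ℝ} (hG : ∀ k, |g k| ≤ G) {w : V3}
    {a z0 ρ r0 : ℝ} (hR : ∀ z, z0 ≤ z → z ≤ z0 + ρ → |z| ≤ R)
    (hX : ∀ z, z0 ≤ z → z ≤ z0 + ρ → |i.pa z| + (2 * w 1 + 2 * w 2) ≤ X ∧
      |i.pb z| + (2 * w 1 + 2 * w 2) ≤ X) (hX0 : 0 ≤ G * (R + 3 * X))
    (ha : a ≤ w 2) (hw : w 2 ≤ w 1) (hr : r0 ≤ a) (hres : r0 * (1 + G * (R + 3 * X)) ≤ a) :
    Sheet (frm i.e) t w (qf g i) a z0 ρ r0 where
  ortho := frm_ortho _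
  isQ := qf_isQ g i
  steep := by
    intro z _ _ x τ hτ _ _
    rw [qf_steep]
    constructor <;> linarith
  a_le := ha
  w_le := hw
  r0_le := hr
  res := by
    refine ⟨1 + G * (R + 3 * X), by linarith, ?_, hres⟩
    intro z hz0 hz1 x x' hx hx'
    obtain ⟨h0, h1, h2⟩ := ht z
    obtain ⟨hXa, hXb⟩ := hX z hz0 hz1
    have key : ∀ x : V3, InK (frm i.e) t (dbl w) z x → |x 1| ≤ X ∧ |x 2| ≤ X := by
      intro x hx
      have b1 := hx 1
      have b2 := hx 2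
      simp only [dbl, Matrix.cons_val] at b1 b2
      obtain ⟨c1, c2⟩ := frm_bound he b1 b2
      simp only [Pi.sub_apply, h1, h2] at c1 c2
      constructor
      · have := abs_add_le (x 1 - i.pa z) (i.pa z)
        rw [sub_add_cancel] at this
        linarith
      · have := abs_add_le (x 2 - i.pb z) (i.pb z)
        rw [sub_add_cancel] at this
        linarith
    exact qf_lip hG hfa hfb (hR z hz0 hz1) (key x hx).1 (key x hx).2 (key x' hx').1 (key x' hx').2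

/-- **a chart box around `i` is contained in the sheet of `i`** -/
theorem box_inSheet {g : Fin 6 → ℝ} {i j : Fq4} {t t' : Ln4} (ht : TrueLn g i t)
    (ht' : TrueLn g j t') (he : |i.e| ≤ 1) (hfa : |i.fa| ≤ 1) (hfb : |i.fb| ≤ 1) {G R X : ℝ}
    (hG : ∀ k, |g k| ≤ G) {s : Fin 11 → ℝ} (hs : ∀ k, |coQ i j k| ≤ s k) {w : V3}
    {a z0 ρ ρ' : ℝ} (hR : ∀ z, z0 ≤ z → z ≤ z0 + ρ → |z| ≤ R)
    (hX : ∀ z, z0 ≤ z → z ≤ z0 + ρ → |i.pa z| ≤ X ∧ |i.pb z| ≤ X ∧ |j.pa z| ≤ X ∧ |j.pb z| ≤ X)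
    (hρ : ∀ z, z0 ≤ z → z ≤ z0 + ρ → |z - i.z| ≤ ρ')
    (h1 : 2 * (s 8 + ρ' * s 5) + (s 9 + ρ' * s 6) ≤ w 1)
    (h2 : s 9 + ρ' * s 6 ≤ w 2)
    (h3 : s 10 + ρ' * s 7 + ρ' ^ 2 * s 1 ≤ a)
    (h0 : a + (1 + G * (R + 3 * X)) * (2 * (s 8 + ρ' * s 5) + (s 9 + ρ' * s 6)) ≤ w 0) :
    InSheet t' (frm i.e) t w (qf g i) a z0 ρ := by
  intro z hz0 hz1
  obtain ⟨ma, mb, mn⟩ := box_move hs (hρ z hz0 hz1)
  obtain ⟨y0, y1, y2⟩ := ht z
  obtain ⟨y0', y1', y2'⟩ := ht' z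
  obtain ⟨xa, xb, xa', xb'⟩ := hX z hz0 hz1
  have hR' := hR z hz0 hz1
  have hn := nu_ge i.e
  have hp := nu_pos i.e
  have hG0 : 0 ≤ G := (abs_nonneg _).trans (hG 0)
  have hR0 : 0 ≤ R := (abs_nonneg _).trans hR'
  have hX0 : 0 ≤ X := (abs_nonneg _).trans xa
  have hL : 0 ≤ G * (R + 3 * X) := by positivity
  set Ra := s 8 + ρ' * s 5 with hRa
  set Rb := s 9 + ρ' * s 6 with hRb
  have hq := qf_line (i := i) ht' z
  have hqi : qf g i z (t.pos z) = 0 := by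
    rw [qf_line (i := i) ht z]; simp [rn]
  -- lateral differences
  have d1 : (t'.pos z - t.pos z) 1 = ra i j z := by
    simp only [Pi.sub_apply, y1', y1, ra]
  have d2 : (t'.pos z - t.pos z) 2 = rb i j z + i.e * ra i j z := by
    simp only [Pi.sub_apply, y2', y2, ra, rb]; ring
  have a1 : |ra i j z| ≤ Ra := ma
  have a2 : |rb i j z + i.e * ra i j z| ≤ Rb + Ra := by
    have := aux_a2 mb (aux_m2 he ma)
    linarith
  have hRa0 : 0 ≤ Ra := (abs_nonneg _).trans ma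
  have hRb0 : 0 ≤ Rb := (abs_nonneg _).trans mb
  refine ⟨?_, ?_⟩
  · intro k
    fin_cases k
    · show |dt (frm i.e 0) _| ≤ w 0
      rw [dt_frm0]
      have e1 : (t'.pos z - t.pos z) 0 = rn i j z +
          ((i.fa + (g 1 * z + g 3 * (t'.pos z 1 + t.pos z 1) + g 4 * t'.pos z 2)) *
            (t'.pos z - t.pos z) 1 +
          (i.fb + (g 2 * z + g 5 * (t'.pos z 2 + t.pos z 2) + g 4 * t.pos z 1)) *
            (t'.pos z - t.pos z) 2) := by
        have : rn i j z = qf g i z (t'.pos z) - qf g i z (t.pos z) := by rw [hq, hqi, sub_zero]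
        rw [this]
        simp only [qf, gau, Pi.sub_apply]
        ring
      have b1 : |i.fa + (g 1 * z + g 3 * (t'.pos z 1 + t.pos z 1) + g 4 * t'.pos z 2)| ≤
          1 + G * (R + 3 * X) := by
        rw [y1', y1, y2']
        have := aux_a2 hfa (aux_a2 (aux_a2 (aux_m2 (hG 1) hR')
          (aux_m2 (hG 3) (aux_a2 xa' xa))) (aux_m2 (hG 4) xb'))
        linarith
      have b2 : |i.fb + (g 2 * z + g 5 * (t'.pos z 2 + t.pos z 2) + g 4 * t.pos z 1)| ≤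
          1 + G * (R + 3 * X) := by
        rw [y2', y2, y1]
        have := aux_a2 hfb (aux_a2 (aux_a2 (aux_m2 (hG 2) hR')
          (aux_m2 (hG 5) (aux_a2 xb' xb))) (aux_m2 (hG 4) xa))
        linarith
      rw [e1, d1, d2]
      have h5 := aux_a2 mn (aux_a2 (aux_m2 b1 a1) (aux_m2 b2 a2))
      refine h5.trans (le_trans ?_ h0)
      have h6 : (1 + G * (R + 3 * X)) * (2 * Ra + Rb) =
        (1 + G * (R + 3 * X)) * Ra + (1 + G * (R + 3 * X)) * (Rb + Ra) := by ring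
      rw [h6]
      exact add_le_add_left h3 _
    · show |dt (frm i.e 1) _| ≤ w 1
      rw [dt_frm1, d1, d2, abs_div, abs_of_pos hp, div_le_iff₀ hp]
      have : |ra i j z + i.e * (rb i j z + i.e * ra i j z)| ≤ 2 * Ra + Rb := by
        have := aux_a2 a1 (aux_m2 he a2)
        linarith
      refine this.trans (h1.trans ?_)
      have hw : 0 ≤ w 1 := le_trans (by positivity) h1
      exact le_mul_of_one_le_right hw hn
    · show |dt (frm i.e 2) _| ≤ w 2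
      rw [dt_frm2, d1, d2, abs_div, abs_of_pos hp, div_le_iff₀ hp]
      have e1 : rb i j z + i.e * ra i j z - i.e * ra i j z = rb i j z := by ring
      rw [e1]
      refine mb.trans (h2.trans ?_)
      have hw : 0 ≤ w 2 := le_trans hRb0 h2
      exact le_mul_of_one_le_right hw hn
  · rw [hq]
    exact mn.trans h3

end Crest.Agent.R136.GeoQ186
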