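import Crest.Agent.R136.GeoN4_778

/-!
# R136: sheets with free chart width close to the model quadric (helper778)

Gradient bounds in the frame for the class `ShN` with `w 0` free; only the physical slopes of the
frame have to be bounded, the unit coordinates of the line may be large.
-/

set_option autoImplicit false
set_option linter.unusedVariables false
set_option maxHeartbeats 400000

namespace Crest.Agent.R136.GeoN778

open Crest.Agent.R136.Sh605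

/-! ### the gradient in the frame -/

section core

variable {α β Fa Fb E E' κ η θ θ' p0 p1 p2 x1 z : ℝ}

/-- steepness; `θ`, `θ'` bound the turning in the original units -/
theorem core0' (hα : 0 ≤ α) (hα1 : α ≤ 1) (hβ : 0 ≤ β) (hβ1 : β ≤ 1)
    (h0 : |p0 - 1| ≤ η) (h1 : |p1 + 2 * κ * x1| ≤ η) (h2 : |p2 + z| ≤ η)
    (hz : |β * (z - Fb)| ≤ θ) (hx : |α * (2 * κ * x1 - Fa)| ≤ θ') :
    |dt ![p0 / nn (α * Fa) (β * Fb), α * p1 / nn (α * Fa) (β * Fb),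
      β * p2 / nn (α * Fa) (β * Fb)] (fr (α * Fa) (β * Fb) E' 0) - 1| ≤
      2 * η + (θ + θ') / 2 := by
  have hν := nn_sq (α * Fa) (β * Fb)
  have hp := nn_pos (α * Fa) (β * Fb)
  set ν := nn (α * Fa) (β * Fb) with hνdef
  have hν2 : 1 ≤ ν ^ 2 := by rw [hν]; nlinarith [sq_nonneg (α * Fa), sq_nonneg (β * Fb)]
  have hη : 0 ≤ η := (abs_nonneg _).trans h0
  have hθ : 0 ≤ θ := (abs_nonneg _).trans hz
  have hθ' : 0 ≤ θ' := (abs_nonneg _).trans hx
  have e1 : dt ![p0 / ν, α * p1 / ν, β * p2 / ν] (fr (α * Fa) (β * Fb) E' 0) - 1 =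
      ((p0 - 1) + ((α * Fa) * (α * (2 * κ * x1 - Fa) - α * (p1 + 2 * κ * x1)) +
        (β * Fb) * (β * (z - Fb) - β * (p2 + z)))) / ν ^ 2 := by
    simp only [dt, fr, ← hνdef, Matrix.cons_val]
    field_simp
    rw [hν]
    ring
  have hαa : |α| ≤ 1 := by rw [abs_of_nonneg hα]; exact hα1
  have hβa : |β| ≤ 1 := by rw [abs_of_nonneg hβ]; exact hβ1
  have b1 : |α * (2 * κ * x1 - Fa) - α * (p1 + 2 * κ * x1)| ≤ θ' + 1 * η := s2 hx (m2 hαa h1)
  have b2 : |β * (z - Fb) - β * (p2 + z)| ≤ θ + 1 * η := s2 hz (m2 hβa h2)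
  have c1 : |α * Fa| ≤ ν ^ 2 / 2 := by
    have := two_mul_le_sq (a := α * Fa) (b := β * Fb)
    rw [← hν] at this
    linarith
  have c2 : |β * Fb| ≤ ν ^ 2 / 2 := by
    have := two_mul_le_sq (a := β * Fb) (b := α * Fa)
    have h4 : 1 + (β * Fb) ^ 2 + (α * Fa) ^ 2 = ν ^ 2 := by rw [hν]; ring
    rw [h4] at this
    linarith
  rw [e1, abs_div, abs_of_pos (by positivity : 0 < ν ^ 2), div_le_iff₀ (by positivity)]
  refine (a2 h0 (a2 (m2 c1 b1) (m2 c2 b2))).trans ?_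
  nlinarith

/-- slope along the narrow axis -/
theorem core2' (hα : 0 ≤ α) (hβ : 0 ≤ β) (hαβ : α ≤ β)
    (h0 : |p0 - 1| ≤ η) (h1 : |p1 + 2 * κ * x1| ≤ η) (h2 : |p2 + z| ≤ η) (hz : |z - Fb| ≤ θ)
    (hx : |α * (2 * κ * x1 - Fa)| ≤ θ') {G0 : ℝ}
    (hf : |β * Fb - α * Fa * E'| ≤ β * G0) :
    |dt ![p0 / nn (α * Fa) (β * Fb), α * p1 / nn (α * Fa) (β * Fb),
      β * p2 / nn (α * Fa) (β * Fb)] (fr (α * Fa) (β * Fb) E' 2)| ≤
      β * (η * (G0 + 2) + θ) + θ' := by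
  have hp := nn_pos (α * Fa) (β * Fb)
  have hp1 := one_le_nn (α * Fa) (β * Fb)
  have hm := nm_pos (α * Fa) (β * Fb) E'
  have hm1 := one_le_nm (α * Fa) (β * Fb) E'
  have hη : 0 ≤ η := (abs_nonneg _).trans h0
  have hθ : 0 ≤ θ := (abs_nonneg _).trans hz
  have hθ' : 0 ≤ θ' := (abs_nonneg _).trans hx
  have ho := fr_ortho (α * Fa) (β * Fb) E'
  have h21 := ortho_le ho 2 1
  have h22 := ortho_le ho 2 2
  have hd := ho 0 2
  set ν := nn (α * Fa) (β * Fb) with hνdef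
  set μ := nm (α * Fa) (β * Fb) E' with hμdef
  have hid : fr (α * Fa) (β * Fb) E' 2 0 - α * Fa * fr (α * Fa) (β * Fb) E' 2 1 -
      β * Fb * fr (α * Fa) (β * Fb) E' 2 2 = 0 := by
    have e0 : fr (α * Fa) (β * Fb) E' 0 0 = 1 / ν := rfl
    have e1 : fr (α * Fa) (β * Fb) E' 0 1 = -(α * Fa) / ν := rfl
    have e2 : fr (α * Fa) (β * Fb) E' 0 2 = -(β * Fb) / ν := rfl
    simp only [dt, e0, e1, e2] at hd
    have hne : ν ≠ 0 := hp.ne'
    have h3 : (if (0 : Fin 3) = 2 then (1 : ℝ) else 0) = 0 := by simp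
    rw [h3] at hd
    field_simp at hd
    linarith
  have h20 : |fr (α * Fa) (β * Fb) E' 2 0| ≤ β * G0 := by
    have e : fr (α * Fa) (β * Fb) E' 2 0 = (β * Fb - α * Fa * E') / (ν * μ) := by
      show (-(α * Fa) * E' + β * Fb) / (nn (α * Fa) (β * Fb) * nm (α * Fa) (β * Fb) E') = _
      congr 1; ring
    have hνμ : 1 ≤ ν * μ := by nlinarith
    rw [e, abs_div, abs_of_pos (by positivity : 0 < ν * μ), div_le_iff₀ (by positivity)]
    have h4 : 0 ≤ β * G0 := (abs_nonneg _).trans hf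
    nlinarith
  set f := fr (α * Fa) (β * Fb) E' 2 with hfd
  have e1 : dt ![p0 / ν, α * p1 / ν, β * p2 / ν] f =
      ((p0 - 1) * f 0 + (α * (p1 + 2 * κ * x1) - α * (2 * κ * x1 - Fa)) * f 1 +
        β * ((p2 + z) - (z - Fb)) * f 2) / ν := by
    have : dt ![p0 / ν, α * p1 / ν, β * p2 / ν] f =
      ((p0 - 1) * f 0 + (α * (p1 + 2 * κ * x1) - α * (2 * κ * x1 - Fa)) * f 1 +
        β * ((p2 + z) - (z - Fb)) * f 2) / ν + (f 0 - α * Fa * f 1 - β * Fb * f 2) / ν := by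
      simp only [dt, Matrix.cons_val]
      field_simp
      ring
    rw [this, hid, zero_div, add_zero]
  have hαa : |α| ≤ β := by rw [abs_of_nonneg hα]; exact hαβ
  have hβa : |β| ≤ β := by rw [abs_of_nonneg hβ]
  have b := a2 (a2 (m2 h0 h20) (m2 (s2 (m2 hαa h1) hx) h21)) (m2 (m2 hβa (s2 h2 hz)) h22)
  rw [e1, abs_div, abs_of_pos hp, div_le_iff₀ hp]
  have h6 : 0 ≤ β * (η * (G0 + 2) + θ) + θ' := by
    refine le_trans (abs_nonneg _) (b.trans (le_of_eq ?_))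
    ring
  refine (b.trans (le_of_eq ?_)).trans (le_mul_of_one_le_right h6 hp1)
  ring

end core

/-- image of the doubled box in the unit coordinates, `w 0` free -/
theorem boxM_comp {u : Un} (h : u.Ok) {κ Am zm cA S : ℝ} {T : Ln4} {w : V3} {z : ℝ} {x : V3}
    (h00 : 0 ≤ w 0) (h02 : w 0 ≤ w 2) (hw : w 2 ≤ w 1)
    (hS : |2 * κ * cA| * (u.WB / u.WA) ≤ S)
    (hx : InK (u.fr κ Am zm cA) T (dbl3 w) z x) :
    |u.xh x 1 - u.xh (T.pos z) 1| ≤ 6 * (w 1 / u.WA) ∧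
    |u.xh x 2 - u.xh (T.pos z) 2| ≤ 4 * (w 2 / u.WB) + 2 * |2 * κ * cA| * (w 1 / u.WA) ∧
    |u.xh x 0 - u.xh (T.pos z) 0| ≤ 2 * (w 0 / u.WY) +
      2 * (|2 * κ * Am| + |zm| * |2 * κ * cA|) * (w 1 / u.WA) +
      2 * (|zm| + |2 * κ * Am| * S) * (w 2 / u.WB) := by
  have hY := h.Y0
  have hA := h.A0
  have hB := h.B0
  have hw2 : 0 ≤ w 2 := h00.trans h02
  set e := u.fr κ Am zm cA with he
  have ho : Ortho e := fr_ortho _ _ _
  have hm1 := one_le_nm (u.WY / u.WA * (2 * κ * Am)) (u.WY / u.WB * zm)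
    (-2 * κ * cA * (u.WB / u.WA))
  have hm0 := nm_pos (u.WY / u.WA * (2 * κ * Am)) (u.WY / u.WB * zm)
    (-2 * κ * cA * (u.WB / u.WA))
  have hn1 := one_le_nn (u.WY / u.WA * (2 * κ * Am)) (u.WY / u.WB * zm)
  have hn0 := nn_pos (u.WY / u.WA * (2 * κ * Am)) (u.WY / u.WB * zm)
  set μ := nm (u.WY / u.WA * (2 * κ * Am)) (u.WY / u.WB * zm) (-2 * κ * cA * (u.WB / u.WA))
    with hμ
  set ν := nn (u.WY / u.WA * (2 * κ * Am)) (u.WY / u.WB * zm) with hν
  have k0 : |dt (e 0) (x - T.pos z)| ≤ 2 * w 0 := hx 0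
  have k1 : |dt (e 1) (x - T.pos z)| ≤ 2 * w 1 := hx 1
  have k2 : |dt (e 2) (x - T.pos z)| ≤ 2 * w 2 := hx 2
  have hw1 : 0 ≤ w 1 := hw2.trans hw
  have ex := fun j => ho.expand (x - T.pos z) j
  have habs : |-2 * κ * cA * (u.WB / u.WA)| = |2 * κ * cA| * (u.WB / u.WA) := by
    rw [abs_mul, abs_of_pos (div_pos hB hA)]
    congr 1
    rw [← abs_neg]; congr 1; ring
  refine ⟨?_, ?_, ?_⟩
  · have e1 : u.xh x 1 - u.xh (T.pos z) 1 = (x - T.pos z) 1 / u.WA := by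
      show x 1 / u.WA - T.pos z 1 / u.WA = _
      rw [Pi.sub_apply]; ring
    rw [e1, abs_div, abs_of_pos hA, ex 1]
    have b := a2 (a2 (m2 k0 (ortho_le ho 0 1)) (m2 k1 (ortho_le ho 1 1)))
      (m2 k2 (ortho_le ho 2 1))
    rw [div_le_iff₀ hA]
    have e2 : 6 * (w 1 / u.WA) * u.WA = 6 * w 1 := by field_simp
    rw [e2]
    linarith
  · have e1 : u.xh x 2 - u.xh (T.pos z) 2 = (x - T.pos z) 2 / u.WB := by
      show x 2 / u.WB - T.pos z 2 / u.WB = _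
      rw [Pi.sub_apply]; ring
    have c1 : |e 1 2| ≤ |2 * κ * cA| * (u.WB / u.WA) := by
      have : e 1 2 = -2 * κ * cA * (u.WB / u.WA) / μ := rfl
      rw [this, abs_div, abs_of_pos hm0, div_le_iff₀ hm0, habs]
      have h4 : 0 ≤ |2 * κ * cA| * (u.WB / u.WA) := by positivity
      nlinarith
    rw [e1, abs_div, abs_of_pos hB, ex 2]
    have b := a2 (a2 (m2 k0 (ortho_le ho 0 2)) (m2 k1 c1)) (m2 k2 (ortho_le ho 2 2))
    rw [div_le_iff₀ hB]
    have e2 : (4 * (w 2 / u.WB) + 2 * |2 * κ * cA| * (w 1 / u.WA)) * u.WB =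
        4 * w 2 + 2 * w 1 * (|2 * κ * cA| * (u.WB / u.WA)) := by field_simp
    rw [e2]
    linarith
  · have e1 : u.xh x 0 - u.xh (T.pos z) 0 = (x - T.pos z) 0 / u.WY := by
      show x 0 / u.WY - T.pos z 0 / u.WY = _
      rw [Pi.sub_apply]; ring
    have c1 : |e 1 0| ≤ (|2 * κ * Am| + |zm| * |2 * κ * cA|) * (u.WY / u.WA) := by
      have h5 : e 1 0 = (u.WY / u.WA * (2 * κ * Am) +
          u.WY / u.WB * zm * (-2 * κ * cA * (u.WB / u.WA))) / μ := rfl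
      have h6 : u.WY / u.WA * (2 * κ * Am) +
          u.WY / u.WB * zm * (-2 * κ * cA * (u.WB / u.WA)) =
          (2 * κ * Am - zm * (2 * κ * cA)) * (u.WY / u.WA) := by
        field_simp
        ring
      have h7 : |(2 * κ * Am - zm * (2 * κ * cA)) * (u.WY / u.WA)| ≤
          (|2 * κ * Am| + |zm| * |2 * κ * cA|) * (u.WY / u.WA) :=
        m2 (s2 le_rfl (m2 le_rfl le_rfl)) (by rw [abs_of_pos (div_pos hY hA)])
      rw [h5, h6, abs_div, abs_of_pos hm0, div_le_iff₀ hm0]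
      refine h7.trans ?_
      have h8 : 0 ≤ (|2 * κ * Am| + |zm| * |2 * κ * cA|) * (u.WY / u.WA) := by positivity
      nlinarith
    have c2 : |e 2 0| ≤ (|zm| + |2 * κ * Am| * S) * (u.WY / u.WB) := by
      have h5 : e 2 0 = (-(u.WY / u.WA * (2 * κ * Am)) * (-2 * κ * cA * (u.WB / u.WA)) +
          u.WY / u.WB * zm) / (ν * μ) := rfl
      have hνμ : 1 ≤ ν * μ := by nlinarith
      have hγ : u.WY / u.WA ≤ u.WY / u.WB :=
        div_le_div_of_nonneg_left hY.le hB h.BA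
      have h6 : |-(u.WY / u.WA * (2 * κ * Am)) * (-2 * κ * cA * (u.WB / u.WA)) +
          u.WY / u.WB * zm| ≤ u.WY / u.WB * |2 * κ * Am| * S + u.WY / u.WB * |zm| := by
        refine a2 (m2 ?_ (habs.le.trans hS)) ?_
        · rw [abs_neg, abs_mul, abs_of_pos (div_pos hY hA)]
          exact mul_le_mul_of_nonneg_right hγ (abs_nonneg _)
        · rw [abs_mul, abs_of_pos (div_pos hY hB)]
      rw [h5, abs_div, abs_of_pos (by positivity : 0 < ν * μ), div_le_iff₀ (by positivity)]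
      have h8 : 0 ≤ (|zm| + |2 * κ * Am| * S) * (u.WY / u.WB) := by
        have := (abs_nonneg _).trans h6
        linarith
      have h9 : (|zm| + |2 * κ * Am| * S) * (u.WY / u.WB) ≤
          (|zm| + |2 * κ * Am| * S) * (u.WY / u.WB) * (ν * μ) :=
        le_mul_of_one_le_right h8 hνμ
      linarith
    rw [e1, abs_div, abs_of_pos hY, ex 0]
    have b := a2 (a2 (m2 k0 (ortho_le ho 0 0)) (m2 k1 c1)) (m2 k2 c2)
    rw [div_le_iff₀ hY]
    have e2 : (2 * (w 0 / u.WY) + 2 * (|2 * κ * Am| + |zm| * |2 * κ * cA|) * (w 1 / u.WA) +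
        2 * (|zm| + |2 * κ * Am| * S) * (w 2 / u.WB)) *
        u.WY = 2 * w 0 + 2 * w 1 * ((|2 * κ * Am| + |zm| * |2 * κ * cA|) *
        (u.WY / u.WA)) + 2 * w 2 * ((|zm| + |2 * κ * Am| * S) * (u.WY / u.WB)) := by field_simp
    rw [e2]
    linarith

end Crest.Agent.R136.GeoN778
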