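import Crest.Agent.R136.GeoM1_778

/-!
# R136: sheets with free chart width close to the model quadric, II (helper778)

`shM_near` : the sheet; `boxM_near` : lines in the sheet.
-/

set_option autoImplicit false
set_option linter.unusedVariables false
set_option maxHeartbeats 400000

namespace Crest.Agent.R136.GeoN778

open Crest.Agent.R136.Sh605

variable {u : Un}

theorem two_abs (κ : ℝ) : |2 * κ| = 2 * |κ| := by rw [abs_mul, abs_two]

/-- **a sheet close to the model quadric** -/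
theorem shM_near (h : u.Ok) {Q : Qd} {κ η Am zm cA S θ : ℝ} {T : Ln4} {w : V3}
    {a z0 ρ r0 : ℝ} (hT : ∀ z, u.xh (T.pos z) 1 = Am + cA * (u.zh z - zm))
    (ha0 : 0 < a) (ha : a ≤ w 0) (h02 : w 0 ≤ w 2) (hw : w 2 ≤ w 1) (hr : r0 ≤ a)
    (hη0 : 0 ≤ η) (hθ0 : 0 ≤ θ) (hS0 : 0 ≤ S)
    (hS : |2 * κ * cA| * (u.WB / u.WA) ≤ S)
    (hθ : ∀ z, z0 ≤ z → z ≤ z0 + ρ → |u.zh z - zm| ≤ θ)
    (hN : ∀ z, z0 ≤ z → z ≤ z0 + ρ → ∀ x : V3,
      |x 1 - u.xh (T.pos z) 1| ≤ 6 * (w 1 / u.WA) →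
      |x 2 - u.xh (T.pos z) 2| ≤ 4 * (w 2 / u.WB) + 2 * |2 * κ * cA| * (w 1 / u.WA) →
      |x 0 - u.xh (T.pos z) 0| ≤ 2 * (w 0 / u.WY) +
        2 * (|2 * κ * Am| + |zm| * |2 * κ * cA|) * (w 1 / u.WA) +
        2 * (|zm| + |2 * κ * Am| * S) * (w 2 / u.WB) → NearG Q κ η (u.zh z) x)
    (h2 : 2 * η + ((1 + S) * θ + w 0 / w 1) / 2 ≤ 1 / 2)
    (h4 : (12 * |κ| * (w 1 / u.WA) +
      η * (1 + |2 * κ * Am| + |2 * κ * cA| + |zm| * |2 * κ * cA|)) * (w 1 / u.WA) ≤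
        w 0 / u.WY)
    (h5 : (η * (|zm| + |2 * κ * Am| * S + 2) + (1 + S) * θ) * (w 2 / u.WB) +
      12 * |κ| * (w 1 / u.WA) ^ 2 ≤ w 0 / u.WY) :
    ShN (u.fr κ Am zm cA) T w (u.q κ Am zm Q).ev a z0 ρ r0 := by
  have hY := h.Y0
  have hA := h.A0
  have hB := h.B0
  have hα : 0 ≤ u.WY / u.WA := by positivity
  have hα1 : u.WY / u.WA ≤ 1 := (div_le_one hA).2 (h.YB.trans h.BA)
  have hβ : 0 ≤ u.WY / u.WB := by positivity
  have hβ1 : u.WY / u.WB ≤ 1 := (div_le_one hB).2 h.YB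
  have hαβ : u.WY / u.WA ≤ u.WY / u.WB := div_le_div_of_nonneg_left hY.le hB h.BA
  have hw0 : 0 < w 0 := ha0.trans_le ha
  have hw2 : 0 < w 2 := hw0.trans_le h02
  have hw1 : 0 < w 1 := hw2.trans_le hw
  have hk := abs_nonneg κ
  -- the turning of the `A`-slope
  have hαc : u.WY / u.WA * |2 * κ * cA| ≤ u.WY / u.WB * S := by
    have e1 : u.WY / u.WA * |2 * κ * cA| = u.WY / u.WB * (|2 * κ * cA| * (u.WB / u.WA)) := by
      field_simp
    rw [e1]
    exact mul_le_mul_of_nonneg_left hS hβ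
  -- `12 |κ| (WY / WA) ŵ1`
  obtain ⟨D, hD⟩ : ∃ D : ℝ, D = u.WY / u.WA * (12 * |κ| * (w 1 / u.WA)) := ⟨_, rfl⟩
  have hD0 : 0 ≤ D := by rw [hD]; positivity
  have key : ∀ z, z0 ≤ z → z ≤ z0 + ρ → ∀ x : V3, InK (u.fr κ Am zm cA) T (dbl3 w) z x →
      NearG Q κ η (u.zh z) (u.xh x) ∧
        |u.WY / u.WA * (2 * κ * u.xh x 1 - 2 * κ * Am)| ≤ u.WY / u.WB * (S * θ) + D ∧
        |(2 * κ * u.xh x 1 - 2 * κ * Am) + (-2 * κ * cA) * (u.zh z - zm)| ≤
          12 * |κ| * (w 1 / u.WA) := by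
    intro z hz hz' x hx
    obtain ⟨b1, b2, b0⟩ := boxM_comp h hw0.le h02 hw hS hx
    have hθz := hθ z hz hz'
    refine ⟨hN z hz hz' _ b1 b2 b0, ?_, ?_⟩
    · have e1 : u.WY / u.WA * (2 * κ * u.xh x 1 - 2 * κ * Am) =
          u.WY / u.WA * (2 * κ * cA) * (u.zh z - zm) +
            u.WY / u.WA * (2 * κ * (u.xh x 1 - u.xh (T.pos z) 1)) := by
        rw [hT]; ring
      have c1 : |u.WY / u.WA * (2 * κ * cA)| ≤ u.WY / u.WB * S := by
        rw [abs_mul, abs_of_nonneg hα]; exact hαc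
      have c2 : |u.WY / u.WA * (2 * κ * (u.xh x 1 - u.xh (T.pos z) 1))| ≤ D := by
        rw [abs_mul, abs_of_nonneg hα, hD]
        refine mul_le_mul_of_nonneg_left ?_ hα
        have := m2 (two_abs κ).le b1
        linarith
      rw [e1]
      have := a2 (m2 c1 hθz) c2
      linarith
    · have e1 : (2 * κ * u.xh x 1 - 2 * κ * Am) + (-2 * κ * cA) * (u.zh z - zm) =
          2 * κ * (u.xh x 1 - u.xh (T.pos z) 1) := by
        rw [hT]; ring
      rw [e1]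
      have := m2 (two_abs κ).le b1
      linarith
  -- comparison of `D` with the slopes
  have hP0 : 0 ≤ η * (1 + |2 * κ * Am| + |2 * κ * cA| + |zm| * |2 * κ * cA|) := by positivity
  have hw1A : 0 < w 1 / u.WA := div_pos hw1 hA
  have hDw1 : D ≤ w 0 / w 1 := by
    have i1 : 12 * |κ| * (w 1 / u.WA) ^ 2 ≤ w 0 / u.WY := by
      have := mul_nonneg hP0 hw1A.le
      nlinarith
    have e1 : D = 12 * |κ| * (w 1 / u.WA) ^ 2 * (u.WY / w 1) := by
      rw [hD]; field_simp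
    have e2 : w 0 / w 1 = w 0 / u.WY * (u.WY / w 1) := by field_simp
    rw [e1, e2]
    exact mul_le_mul_of_nonneg_right i1 (by positivity)
  refine shC_of_grad (fr_ortho _ _ _) ha h02 hw hr ?_ ?_ ?_
  · intro z hz hz' x hx
    obtain ⟨⟨n0, n1, n2⟩, hx', -⟩ := key z hz hz' x hx
    have hz2 : |u.WY / u.WB * (u.zh z - zm)| ≤ θ := by
      rw [abs_mul, abs_of_nonneg hβ]
      exact (mul_le_of_le_one_left (abs_nonneg _) hβ1).trans (hθ z hz hz')
    have hx2 : |u.WY / u.WA * (2 * κ * u.xh x 1 - 2 * κ * Am)| ≤ S * θ + w 0 / w 1 := by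
      refine hx'.trans (add_le_add ?_ hDw1)
      exact mul_le_of_le_one_left (mul_nonneg hS0 hθ0) hβ1
    have hc := core0' (E' := -2 * κ * cA * (u.WB / u.WA)) hα hα1 hβ hβ1 n0 n1 n2 hz2 hx2
    rw [Qd.D_eq, h.gr]
    have h5' : 2 * η + (θ + (S * θ + w 0 / w 1)) / 2 ≤ 1 / 2 := by linarith
    have h6 := abs_le.1 (hc.trans h5')
    constructor
    · have := h6.1
      show 1 / 2 ≤ dt _ (fr _ _ _ 0)
      simp only [Un.nu]
      linarith
    · have := h6.2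
      show dt _ (fr _ _ _ 0) ≤ 2
      simp only [Un.nu]
      linarith
  · intro z hz hz' x hx
    obtain ⟨⟨n0, n1, n2⟩, hx', hx''⟩ := key z hz hz' x hx
    have hE : u.WY / u.WB * (-2 * κ * cA * (u.WB / u.WA)) = u.WY / u.WA * (-2 * κ * cA) :=
      slope_id h _
    have hc := core1 (Fa := 2 * κ * Am) (Fb := zm) (E := -2 * κ * cA) hα hE n0 n1 n2
    rw [Qd.D_eq, h.gr]
    show |dt _ (fr _ _ _ 1)| ≤ _
    simp only [Un.nu]
    refine hc.trans ?_
    have e3 : |-2 * κ * cA| = |2 * κ * cA| := by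
      rw [← abs_neg]; congr 1; ring
    rw [e3]
    obtain ⟨X, hX⟩ : ∃ X : ℝ, X = 12 * |κ| * (w 1 / u.WA) +
      η * (1 + |2 * κ * Am| + |2 * κ * cA| + |zm| * |2 * κ * cA|) := ⟨_, rfl⟩
    rw [← hX] at h4
    have h7 : |2 * κ * u.xh x 1 - 2 * κ * Am + -2 * κ * cA * (u.zh z - zm)| +
        η * (1 + |2 * κ * Am| + |2 * κ * cA| + |zm| * |2 * κ * cA|) ≤ X := by
      rw [hX]; linarith
    calc u.WY / u.WA * _ ≤ u.WY / u.WA * X := mul_le_mul_of_nonneg_left h7 hα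
      _ = X * (w 1 / u.WA) * (u.WY / w 1) := by field_simp
      _ ≤ w 0 / u.WY * (u.WY / w 1) := mul_le_mul_of_nonneg_right h4 (by positivity)
      _ = w 0 / w 1 := by field_simp
  · intro z hz hz' x hx
    obtain ⟨⟨n0, n1, n2⟩, hx', -⟩ := key z hz hz' x hx
    have hG0 : |u.WY / u.WB * zm - u.WY / u.WA * (2 * κ * Am) * (-2 * κ * cA * (u.WB / u.WA))| ≤
        u.WY / u.WB * (|zm| + |2 * κ * Am| * S) := by
      have i1 : |u.WY / u.WA * (2 * κ * Am)| ≤ u.WY / u.WB * |2 * κ * Am| := by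
        rw [abs_mul, abs_of_nonneg hα]
        exact mul_le_mul_of_nonneg_right hαβ (abs_nonneg _)
      have i2 : |-2 * κ * cA * (u.WB / u.WA)| ≤ S := by
        refine le_trans (le_of_eq ?_) hS
        rw [abs_mul, abs_of_pos (div_pos hB hA)]
        congr 1
        rw [← abs_neg]; congr 1; ring
      have i3 : |u.WY / u.WB * zm| ≤ u.WY / u.WB * |zm| := by
        rw [abs_mul, abs_of_nonneg hβ]
      have := s2 i3 (m2 i1 i2)
      linarith
    have hc := core2' hα hβ hαβ n0 n1 n2 (hθ z hz hz') hx' hG0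
    rw [Qd.D_eq, h.gr]
    show |dt _ (fr _ _ _ 2)| ≤ _
    simp only [Un.nu]
    refine hc.trans ?_
    have hDb : D ≤ 12 * |κ| * (w 1 / u.WA) ^ 2 * (u.WY / w 2) := by
      have e1 : D = 12 * |κ| * (w 1 / u.WA) ^ 2 * (u.WY / w 1) := by
        rw [hD]; field_simp
      rw [e1]
      refine mul_le_mul_of_nonneg_left ?_ (by positivity)
      exact div_le_div_of_nonneg_left hY.le hw2 hw
    have e4 : u.WY / u.WB * (η * (|zm| + |2 * κ * Am| * S + 2) + θ) +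
        (u.WY / u.WB * (S * θ) + D) ≤
        ((η * (|zm| + |2 * κ * Am| * S + 2) + (1 + S) * θ) * (w 2 / u.WB) +
          12 * |κ| * (w 1 / u.WA) ^ 2) * (u.WY / w 2) := by
      have e5 : (η * (|zm| + |2 * κ * Am| * S + 2) + (1 + S) * θ) * (w 2 / u.WB) *
          (u.WY / w 2) = u.WY / u.WB * (η * (|zm| + |2 * κ * Am| * S + 2) + θ) +
          u.WY / u.WB * (S * θ) := by
        field_simp
        ring
      rw [add_mul, e5]
      linarith
    refine e4.trans ((mul_le_mul_of_nonneg_right h5 (by positivity)).trans (le_of_eq ?_))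
    field_simp

end Crest.Agent.R136.GeoN778
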