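import Crest.Agent.R136.GeoM2_778

/-!
# R136: sheets with free chart width close to the model quadric, III (helper778)

`boxM_near` : lines in the sheet; **`gdM`** : a legal box of `coW` is contained in one sheet
(original coordinates, `w 0` free, large unit coordinates).
-/

set_option autoImplicit false
set_option linter.unusedVariables false
set_option maxHeartbeats 400000

namespace Crest.Agent.R136.GeoN778

open Crest.Agent.R136.Sh605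
open Crest.Agent.R136.NetW191
open Crest.Agent.R136.GeoW778 (qS TrueW dB DW EW)

variable {u : Un}

/-- **a line in the sheet**, slopes bounded by `S` -/
theorem boxM_near (h : u.Ok) {Q : Qd} {κ η Am zm cA θ S : ℝ} {T t' : Ln4} {w : V3}
    {a z0 ρ Ra Rb An Rn : ℝ} (hT : ∀ z, u.xh (T.pos z) 1 = Am + cA * (u.zh z - zm))
    (hη : η ≤ 1 / 2)
    (hθ : ∀ z, z0 ≤ z → z ≤ z0 + ρ → |u.zh z - zm| ≤ θ)
    (hN : ∀ z, z0 ≤ z → z ≤ z0 + ρ →
      NearG Q κ η (u.zh z) fun k => (u.xh (T.pos z) k + u.xh (t'.pos z) k) / 2)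
    (hA : ∀ z, z0 ≤ z → z ≤ z0 + ρ → |u.xh (t'.pos z) 1 - u.xh (T.pos z) 1| ≤ Ra)
    (hB : ∀ z, z0 ≤ z → z ≤ z0 + ρ → |(u.xh (t'.pos z) 2 - u.xh (T.pos z) 2) -
      (-2 * κ * cA) * (u.xh (t'.pos z) 1 - u.xh (T.pos z) 1)| ≤ Rb)
    (hq : ∀ z, z0 ≤ z → z ≤ z0 + ρ → |Q.ev (u.zh z) (u.xh (t'.pos z))| ≤ An)
    (hq' : ∀ z, z0 ≤ z → z ≤ z0 + ρ → |Q.ev (u.zh z) (u.xh (T.pos z))| ≤ An)
    (hS0 : 0 ≤ S) (hSE : |2 * κ * cA| * (u.WB / u.WA) ≤ S)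
    (hSA : u.WY / u.WA * |2 * κ * Am| ≤ S)
    (hRn : 2 * (2 * An + θ * Rb + |κ| * Ra ^ 2 + η * ((1 + |2 * κ * Am|) * Ra +
      (1 + |zm|) * (Rb + |2 * κ * cA| * Ra))) ≤ Rn)
    (h0 : u.WY * Rn ≤ w 0)
    (h1 : u.WY * Rn + (1 + (S + |zm| * S) + S) * (u.WA * Ra) +
      (1 + |zm|) * (u.WB * Rb) ≤ w 1)
    (h2 : u.WY * Rn + (1 + S + |zm|) * (u.WB * Rb) ≤ w 2)
    (ha : u.WY * An ≤ a) :
    InSheet t' (u.fr κ Am zm cA) T w (u.q κ Am zm Q).ev a z0 ρ := by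
  intro z hz hz'
  have hY := h.Y0
  have hWA := h.A0
  have hWB := h.B0
  obtain ⟨n0, n1, n2⟩ := hN z hz hz'
  have hA' := hA z hz hz'
  have hB' := hB z hz hz'
  have hq1 := hq z hz hz'
  have hq2 := hq' z hz hz'
  have hθ' := hθ z hz hz'
  have hTz := hT z
  have hη0 : 0 ≤ η := (abs_nonneg _).trans n0
  have hAn : 0 ≤ An := (abs_nonneg _).trans hq1
  set X := u.xh (T.pos z) with hX
  set X' := u.xh (t'.pos z) with hX'
  set d : V3 := fun k => X' k - X k with hd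
  set G := Q.gr (u.zh z) fun k => (X k + X' k) / 2 with hG
  have hdiff : Q.ev (u.zh z) X' - Q.ev (u.zh z) X = dt G d := Q.ev_diff _ _ _
  set N := d 0 - 2 * κ * Am * d 1 - zm * d 2 with hNdef
  set ub := d 2 - (-2 * κ * cA) * d 1 with hub
  have dA : |d 1| ≤ Ra := hA'
  have dB : |ub| ≤ Rb := hB'
  have hd2 : |d 2| ≤ Rb + |2 * κ * cA| * Ra := by
    have e1 : d 2 = ub + -(2 * κ * cA) * d 1 := by rw [hub]; ring
    rw [e1]
    refine a2 dB (m2 ?_ dA)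
    rw [abs_neg]
  have hd0 : |d 0| ≤ |N| + |2 * κ * Am| * Ra + |zm| * (Rb + |2 * κ * cA| * Ra) := by
    have e1 : d 0 = N + 2 * κ * Am * d 1 + zm * d 2 := by rw [hNdef]; ring
    rw [e1]
    exact a2 (a2 le_rfl (m2 le_rfl dA)) (m2 le_rfl hd2)
  have hNid : N = (Q.ev (u.zh z) X' - Q.ev (u.zh z) X) + (u.zh z - zm) * ub + κ * (d 1 * d 1) -
      (G 0 - 1) * d 0 - (G 1 + 2 * κ * ((X 1 + X' 1) / 2)) * d 1 - (G 2 + u.zh z) * d 2 := by
    rw [hdiff]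
    have e1 : X' 1 = X 1 + d 1 := by simp [hd]
    rw [e1, hTz, hNdef, hub]
    simp only [dt]
    ring
  have hNb : |N| ≤ 2 * An + θ * Rb + |κ| * Ra ^ 2 + η * (|d 0| + |d 1| + |d 2|) := by
    have hκ2 : |d 1 * d 1| ≤ Ra ^ 2 := by rw [sq]; exact m2 dA dA
    have b := s2 (s2 (s2 (a2 (a2 (s2 hq1 hq2) (m2 hθ' dB)) (m2 (le_refl |κ|) hκ2))
      (m2 n0 (le_refl |d 0|))) (m2 n1 (le_refl |d 1|))) (m2 n2 (le_refl |d 2|))
    rw [← hNid] at b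
    linarith
  have hRa0 : 0 ≤ Ra := (abs_nonneg _).trans dA
  have hRb0 : 0 ≤ Rb := (abs_nonneg _).trans dB
  have hθ0 : 0 ≤ θ := (abs_nonneg _).trans hθ'
  have hNR : |N| ≤ Rn := by
    have i1 : η * (|d 0| + |d 1| + |d 2|) ≤ η * (|N| + ((1 + |2 * κ * Am|) * Ra +
        (1 + |zm|) * (Rb + |2 * κ * cA| * Ra))) := by
      refine mul_le_mul_of_nonneg_left ?_ hη0
      linarith
    have i2 : η * |N| ≤ 1 / 2 * |N| := mul_le_mul_of_nonneg_right hη (abs_nonneg _)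
    have i3 : η * (|N| + ((1 + |2 * κ * Am|) * Ra + (1 + |zm|) * (Rb + |2 * κ * cA| * Ra))) =
        η * |N| + η * ((1 + |2 * κ * Am|) * Ra + (1 + |zm|) * (Rb + |2 * κ * cA| * Ra)) := by
      ring
    linarith
  -- the displacement in the original units
  set U : V3 := t'.pos z - T.pos z with hU
  have U0 : U 0 = u.WY * d 0 := by
    show t'.pos z 0 - T.pos z 0 = u.WY * (t'.pos z 0 / u.WY - T.pos z 0 / u.WY)
    field_simp
  have U1 : U 1 = u.WA * d 1 := by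
    show t'.pos z 1 - T.pos z 1 = u.WA * (t'.pos z 1 / u.WA - T.pos z 1 / u.WA)
    field_simp
  have U2 : U 2 = u.WB * d 2 := by
    show t'.pos z 2 - T.pos z 2 = u.WB * (t'.pos z 2 / u.WB - T.pos z 2 / u.WB)
    field_simp
  have UN : U 0 - u.WY / u.WA * (2 * κ * Am) * U 1 - u.WY / u.WB * zm * U 2 = u.WY * N := by
    rw [U0, U1, U2, hNdef]
    field_simp
  have Ub : U 2 - -2 * κ * cA * (u.WB / u.WA) * U 1 = u.WB * ub := by
    rw [U1, U2, hub]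
    field_simp
  have bN : |U 0 - u.WY / u.WA * (2 * κ * Am) * U 1 - u.WY / u.WB * zm * U 2| ≤ u.WY * Rn := by
    rw [UN, abs_mul, abs_of_pos hY]
    exact mul_le_mul_of_nonneg_left hNR hY.le
  have bU1 : |U 1| ≤ u.WA * Ra := by
    rw [U1, abs_mul, abs_of_pos hWA]
    exact mul_le_mul_of_nonneg_left dA hWA.le
  have bUb : |U 2 - -2 * κ * cA * (u.WB / u.WA) * U 1| ≤ u.WB * Rb := by
    rw [Ub, abs_mul, abs_of_pos hWB]
    exact mul_le_mul_of_nonneg_left dB hWB.le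
  have hα : 0 ≤ u.WY / u.WA := by positivity
  have hβ : 0 ≤ u.WY / u.WB := by positivity
  have hβ1 : u.WY / u.WB ≤ 1 := (div_le_one hWB).2 h.YB
  have hγ : 0 ≤ u.WB / u.WA := by positivity
  have sFb : |u.WY / u.WB * zm| ≤ |zm| := by
    rw [abs_mul, abs_of_nonneg hβ]
    exact mul_le_of_le_one_left (abs_nonneg _) hβ1
  have sFa : |u.WY / u.WA * (2 * κ * Am)| ≤ S := by
    rw [abs_mul, abs_of_nonneg hα]
    exact hSA
  have sE : |-2 * κ * cA * (u.WB / u.WA)| ≤ S := by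
    rw [abs_mul, abs_of_nonneg hγ]
    have : |-2 * κ * cA| = |2 * κ * cA| := by rw [← abs_neg]; congr 1; ring
    rw [this]
    exact hSE
  have sg : |u.WY / u.WA * (2 * κ * Am) + u.WY / u.WB * zm * (-2 * κ * cA * (u.WB / u.WA))| ≤
      S + |zm| * S := a2 sFa (m2 sFb sE)
  refine ⟨?_, ?_⟩
  · intro k
    fin_cases k
    · exact (lat0 U).trans (bN.trans h0)
    · refine (lat1 U).trans (le_trans ?_ h1)
      have hm := nm_le sg sE
      have i1 : nm (u.WY / u.WA * (2 * κ * Am)) (u.WY / u.WB * zm)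
          (-2 * κ * cA * (u.WB / u.WA)) * |U 1| ≤
          (1 + (S + |zm| * S) + S) * (u.WA * Ra) :=
        mul_le_mul hm bU1 (abs_nonneg _) (by positivity)
      have i2 : (1 + |u.WY / u.WB * zm|) * |U 2 - -2 * κ * cA * (u.WB / u.WA) * U 1| ≤
          (1 + |zm|) * (u.WB * Rb) :=
        mul_le_mul (by linarith) bUb (abs_nonneg _) (by positivity)
      exact add_le_add (add_le_add bN i1) i2
    · refine (lat2 U).trans (le_trans ?_ h2)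
      have hn := nn_le sFa sFb
      have i2 : nn (u.WY / u.WA * (2 * κ * Am)) (u.WY / u.WB * zm) *
          |U 2 - -2 * κ * cA * (u.WB / u.WA) * U 1| ≤
          (1 + S + |zm|) * (u.WB * Rb) :=
        mul_le_mul hn bUb (abs_nonneg _) (by positivity)
      exact add_le_add bN i2
  · rw [h.ev]
    have hν : 0 < u.nu κ Am zm := nn_pos _ _
    have hν1 : 1 ≤ u.nu κ Am zm := one_le_nn _ _
    rw [abs_mul, abs_of_pos (div_pos hY hν)]
    have i1 : u.WY / u.nu κ Am zm ≤ u.WY := div_le_self hY.le hν1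
    exact (mul_le_mul i1 hq1 (abs_nonneg _) hY.le).trans ha

/-- position of the midpoint -/
theorem mid_pos {x y p : V3} {Y : ℝ} (k : Fin 3) (h : |y k - x k| ≤ Y) :
    |(x k + y k) / 2 - x k| ≤ Y := by
  have e1 : (x k + y k) / 2 - x k = (y k - x k) / 2 := by ring
  have h0 := abs_nonneg (y k - x k)
  rw [e1, abs_div, abs_two]
  linarith

/-- **[GEO-D] for the W-chart, finite form, original coordinates, `w 0` free** -/
theorem gdM {f : Fin 3 → V3} (hf : Ortho f) {c T M : Ln4} (hu : u.Ok) {Q : Qd}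
    {κ σ : ℝ} {i : FW} (hM : TrueW κ σ i M) (hκ : |κ| ≤ 1) (hσ : 0 ≤ σ)
    {Γ V R X ρ' G η η₁ η₂ Am zm cA θ z0 ρ r0 a w0 w1 w2 Ra Rb An Rn X0 X1 X2 S : ℝ}
    {s : Fin 18 → ℝ}
    (hGi : ∀ k, |i.G k| ≤ Γ) (hV : ∀ k, |M.v k| ≤ V) (hG : |i.g 1| ≤ G)
    (hc : |cA - i.g 1| ≤ η₂) (hη₁ : 0 ≤ η₁) (hη0 : 0 ≤ η) (hθ0 : 0 ≤ θ) (hρ : 0 ≤ ρ)
    (hT : ∀ z, u.xh ((rl f c T).pos z) 1 = Am + cA * (u.zh z - zm))
    (hb : ∀ z, z0 ≤ z → z ≤ z0 + ρ → Bent u Q κ σ i η₁ (rl f c T) M z)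
    (hz : ∀ z, z0 ≤ z → z ≤ z0 + ρ → |u.zh z| + η₁ ≤ R ∧ |u.zh z - zm| ≤ θ ∧
      |u.zh z - i.g 0| + η₁ ≤ ρ')
    (hMX : ∀ z', |z'| ≤ R → ∀ k, |M.pos z' k| ≤ X)
    (hsm : σ * DW Γ R X V ρ' ≤ 1)
    -- physical slopes
    (hS0 : 0 ≤ S) (hSE : |2 * κ * cA| * (u.WB / u.WA) ≤ S)
    (hSA : u.WY / u.WA * |2 * κ * Am| ≤ S)
    -- closeness to the model gradient
    (hN : ∀ z, z0 ≤ z → z ≤ z0 + ρ → ∀ x : V3, |x 1 - u.xh ((rl f c T).pos z) 1| ≤ X1 →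
      |x 2 - u.xh ((rl f c T).pos z) 2| ≤ X2 → |x 0 - u.xh ((rl f c T).pos z) 0| ≤ X0 →
      NearG Q κ η (u.zh z) x)
    (hX1 : 6 * (w1 / u.WA) ≤ X1) (hX1' : Ra ≤ X1)
    (hX2 : 4 * (w2 / u.WB) + 2 * |2 * κ * cA| * (w1 / u.WA) ≤ X2)
    (hX2' : Rb + |2 * κ * cA| * Ra ≤ X2)
    (hX0 : 2 * (w0 / u.WY) + 2 * (|2 * κ * Am| + |zm| * |2 * κ * cA|) * (w1 / u.WA) +
      2 * (|zm| + |2 * κ * Am| * S) * (w2 / u.WB) ≤ X0)
    (hX0' : 2 * (X + η₁) ≤ X0)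
    -- smallness
    (h2 : 2 * η + ((1 + S) * θ + w0 / w1) / 2 ≤ 1 / 2) (hη : η ≤ 1 / 2)
    (h4 : (12 * |κ| * (w1 / u.WA) +
      η * (1 + |2 * κ * Am| + |2 * κ * cA| + |zm| * |2 * κ * cA|)) * (w1 / u.WA) ≤
        w0 / u.WY)
    (h5 : (η * (|zm| + |2 * κ * Am| * S + 2) + (1 + S) * θ) * (w2 / u.WB) +
      12 * |κ| * (w1 / u.WA) ^ 2 ≤ w0 / u.WY)
    -- sizes
    (hRa : s 2 + ρ' * s 1 + 2 * η₁ * (1 + V) ≤ Ra)
    (hRb : s 3 + ρ' * s 1 ^ 2 + 2 * (σ * (Γ * (1 + 3 * V + 6 * V ^ 2)) * ρ') +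
      2 * η₁ * (1 + V) * (1 + 2 * G) + 2 * η₂ * Ra ≤ Rb)
    (hAn : 4 * (σ * (s 17 + ρ' * s 16 + ρ' ^ 2 * s 13 + σ * EW Γ R X V ρ')) ≤ An)
    (hRn : 2 * (2 * An + θ * Rb + |κ| * Ra ^ 2 + η * ((1 + |2 * κ * Am|) * Ra +
      (1 + |zm|) * (Rb + |2 * κ * cA| * Ra))) ≤ Rn)
    (k0 : u.WY * Rn ≤ w0)
    (k1 : u.WY * Rn + (1 + (S + |zm| * S) + S) * (u.WA * Ra) +
      (1 + |zm|) * (u.WB * Rb) ≤ w1)
    (k2 : u.WY * Rn + (1 + S + |zm|) * (u.WB * Rb) ≤ w2)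
    (hAn0 : 0 ≤ An) (ha : u.WY * An ≤ a) (ha0 : 0 < a) (haw : a ≤ w0) (h02 : w0 ≤ w2)
    (hw : w2 ≤ w1) (hr : r0 ≤ a) :
    ∃ (e : Fin 3 → V3) (w : V3) (q : ℝ → V3 → ℝ), w 0 = w0 ∧ w 1 = w1 ∧ w 2 = w2 ∧
      ShN e T w q a z0 ρ r0 ∧
      ∀ (t' M' : Ln4) (j : FW), TrueW κ σ j M' → (∀ k, |j.G k| ≤ Γ) → (∀ k, |M'.v k| ≤ V) →
        (∀ z, z0 ≤ z → z ≤ z0 + ρ → Bent u Q κ σ i η₁ (rl f c t') M' z ∧
          |u.zh z - j.g 0| + η₁ ≤ ρ') →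
        (∀ z', |z'| ≤ R → ∀ k, |M'.pos z' k| ≤ X) →
        (∀ k, |coW κ i j k| ≤ s k) → InSheet t' e T w q a z0 ρ := by
  refine ⟨fo f (u.fr κ Am zm cA), ![w0, w1, w2], qo f c (u.q κ Am zm Q).ev, rfl, rfl, rfl,
    ?_, ?_⟩
  · refine shN_move hf (shM_near (η := η) (θ := θ) (S := S) hu hT ha0 haw h02 hw hr hη0 hθ0 hS0 hSE
      (fun z h0 h1 => (hz z h0 h1).2.1) ?_ h2 h4 h5)
    intro z h0 h1 x b1 b2 b0
    exact hN z h0 h1 x (b1.trans hX1) (b2.trans hX2) (b0.trans hX0)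
  · intro t' M' j hM' hGj hV' hb' hMX' hs
    rw [inSheet_move]
    have hlat : ∀ z, z0 ≤ z → z ≤ z0 + ρ →
        |u.xh ((rl f c t').pos z) 1 - u.xh ((rl f c T).pos z) 1| ≤ Ra ∧
        |(u.xh ((rl f c t').pos z) 2 - u.xh ((rl f c T).pos z) 2) -
          (-2 * κ * cA) * (u.xh ((rl f c t').pos z) 1 - u.xh ((rl f c T).pos z) 1)| ≤ Rb :=
      fun z h0 h1 => lat_bent hM hM' hκ hσ hGi hGj hV hV' hc hG (hb z h0 h1) (hb' z h0 h1).1
        (hz z h0 h1).2.2 (hb' z h0 h1).2 hs hRa hRb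
    refine boxM_near (η := η) (θ := θ) (Ra := Ra) (Rb := Rb) (An := An) (Rn := Rn) (S := S) hu hT
      hη (fun z h0 h1 => (hz z h0 h1).2.1) ?_ (fun z h0 h1 => (hlat z h0 h1).1)
      (fun z h0 h1 => (hlat z h0 h1).2) ?_ ?_ hS0 hSE hSA hRn k0 k1 k2 ha
    · -- the midpoint
      intro z h0 h1
      obtain ⟨hA, hB⟩ := hlat z h0 h1
      obtain ⟨z1, b1, bb, -⟩ := hb z h0 h1
      obtain ⟨z2, c1, cc, -⟩ := (hb' z h0 h1).1
      have r1 : |z1| ≤ R := by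
        have := a2 b1 (le_refl |u.zh z|)
        rw [sub_add_cancel] at this
        linarith [(hz z h0 h1).1]
      have r2 : |z2| ≤ R := by
        have := a2 c1 (le_refl |u.zh z|)
        rw [sub_add_cancel] at this
        linarith [(hz z h0 h1).1]
      refine hN z h0 h1 _ ?_ ?_ ?_
      · exact mid_pos (p := 0) 1 (hA.trans hX1')
      · refine mid_pos (p := 0) 2 ?_
        have e1 : u.xh ((rl f c t').pos z) 2 - u.xh ((rl f c T).pos z) 2 =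
            ((u.xh ((rl f c t').pos z) 2 - u.xh ((rl f c T).pos z) 2) -
              (-2 * κ * cA) * (u.xh ((rl f c t').pos z) 1 - u.xh ((rl f c T).pos z) 1)) +
            -(2 * κ * cA) * (u.xh ((rl f c t').pos z) 1 - u.xh ((rl f c T).pos z) 1) := by
          ring
        rw [e1]
        exact (a2 hB (m2 (le_of_eq (abs_neg (2 * κ * cA))) hA)).trans hX2'
      · refine mid_pos (p := 0) 0 ?_
        have e1 : u.xh ((rl f c t').pos z) 0 - u.xh ((rl f c T).pos z) 0 =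
            ((u.xh ((rl f c t').pos z) 0 - M'.pos z2 0) - (u.xh ((rl f c T).pos z) 0 -
              M.pos z1 0)) + (M'.pos z2 0 - M.pos z1 0) := by ring
        rw [e1]
        have := a2 (s2 (cc 0) (bb 0)) (s2 (hMX' z2 r2 0) (hMX z1 r1 0))
        linarith
    · intro z h0 h1
      refine (val_bent hM' hσ hGi hGj hV' (hb' z h0 h1).1 (hz z h0 h1).1 (hb' z h0 h1).2 hs
        (fun z' hz' k => hMX' z' ?_ k) hsm).trans hAn
      have := a2 hz' (le_refl |u.zh z|)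
      rw [sub_add_cancel] at this
      linarith [(hz z h0 h1).1]
    · intro z h0 h1
      obtain ⟨z1, b1, bb, b4⟩ := hb z h0 h1
      rw [hM.on z1, abs_zero, mul_zero] at b4
      exact b4.trans hAn0

end Crest.Agent.R136.GeoN778
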