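import Crest.Agent.R136.Sh6_605

/-!
# R136: sheets of class C* from gradient bounds; moving frames (helper778)

* `Qd` : quadratic polynomials in `(z, x)` by their coefficients, `Qd.ev`, derivative `Qd.D`,
  midpoint rule `Qd.ev_line`.
* `shN_of_grad` : a sheet of class C* from bounds of the gradient on the doubled box.
* `phi`, `rl`, `fo` : coordinates in a moving orthonormal frame; `shN_move`, `inSheet_move`.
-/

set_option autoImplicit false
set_option linter.unusedVariables false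

namespace Crest.Agent.R136.GeoN778

open Crest.Agent.R136.Sh605

/-- quadratic polynomials in `(z, x)` -/
structure Qd where
  /-- constant -/
  c0 : ℝ
  /-- `z` -/
  c1 : ℝ
  /-- `z²` -/
  c2 : ℝ
  /-- `x i` -/
  b : V3
  /-- `z x i` -/
  d : V3
  /-- `x i x j` -/
  g : Fin 3 → Fin 3 → ℝ

/-- value -/
def Qd.ev (Q : Qd) (z : ℝ) (x : V3) : ℝ :=
  Q.c0 + Q.c1 * z + Q.c2 * z ^ 2 + ∑ i, (Q.b i + Q.d i * z) * x i +
    ∑ i, ∑ j, Q.g i j * (x i * x j)

/-- derivative in the direction `e` at the point `x` -/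
def Qd.D (Q : Qd) (z : ℝ) (x e : V3) : ℝ :=
  ∑ i, (Q.b i + Q.d i * z) * e i + ∑ i, ∑ j, Q.g i j * (x i * e j + e i * x j)

theorem Qd.isQ (Q : Qd) : IsQ Q.ev := ⟨Q.c0, Q.c1, Q.c2, Q.b, Q.d, Q.g, fun _ _ => rfl⟩

/-- a quadratic polynomial of `Sh605` is of this form -/
theorem exists_Qd {q : ℝ → V3 → ℝ} (h : IsQ q) : ∃ Q : Qd, q = Q.ev := by
  obtain ⟨c0, c1, c2, b, d, g, h⟩ := h
  exact ⟨⟨c0, c1, c2, b, d, g⟩, funext fun z => funext fun x => h z x⟩

/-- midpoint rule -/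
theorem Qd.ev_line (Q : Qd) (z : ℝ) (x e : V3) (τ : ℝ) :
    Q.ev z (x + τ • e) - Q.ev z x = τ * Q.D z (x + (τ / 2) • e) e := by
  simp only [Qd.ev, Qd.D, Fin.sum_univ_three, Pi.add_apply, Pi.smul_apply, smul_eq_mul]
  ring

theorem inK_mid {e : Fin 3 → V3} {c : Ln4} {w : V3} {z τ : ℝ} {x f : V3} (h : InK e c w z x)
    (h' : InK e c w z (x + τ • f)) : InK e c w z (x + (τ / 2) • f) := by
  intro i
  have h1 := h i
  have h2 := h' i
  have e1 : dt (e i) (x + (τ / 2) • f - c.pos z) =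
      1 / 2 * dt (e i) (x - c.pos z) + 1 / 2 * dt (e i) (x + τ • f - c.pos z) := by
    simp only [dt, Pi.sub_apply, Pi.add_apply, Pi.smul_apply, smul_eq_mul]
    ring
  rw [e1]
  rw [abs_le] at h1 h2 ⊢
  constructor <;> linarith [h1.1, h1.2, h2.1, h2.2]

/-- **the class `ShN` (`w 0` free) from gradient bounds** -/
theorem shC_of_grad {e : Fin 3 → V3} {c : Ln4} {w : V3} {Q : Qd} {a z0 ρ r0 : ℝ} (he : Ortho e)
    (ha : a ≤ w 0) (w0 : w 0 ≤ w 2) (hw : w 2 ≤ w 1) (hr : r0 ≤ a)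
    (h0 : ∀ z, z0 ≤ z → z ≤ z0 + ρ → ∀ x : V3, InK e c (dbl3 w) z x →
      1 / 2 ≤ Q.D z x (e 0) ∧ Q.D z x (e 0) ≤ 2)
    (h1 : ∀ z, z0 ≤ z → z ≤ z0 + ρ → ∀ x : V3, InK e c (dbl3 w) z x →
      |Q.D z x (e 1)| ≤ w 0 / w 1)
    (h2 : ∀ z, z0 ≤ z → z ≤ z0 + ρ → ∀ x : V3, InK e c (dbl3 w) z x →
      |Q.D z x (e 2)| ≤ w 0 / w 2) : ShN e c w Q.ev a z0 ρ r0 where
  ortho := he
  isQ := Q.isQ
  a_le0 := ha
  w0_le := w0
  w_le := hw
  r0_le := hr
  st0 := by
    intro z hz hz' x τ hτ hx hx'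
    have := h0 z hz hz' _ (inK_mid hx hx')
    rw [Q.ev_line]
    constructor <;> nlinarith [this.1, this.2]
  sl1 := by
    intro z hz hz' x τ hτ hx hx'
    have := h1 z hz hz' _ (inK_mid hx hx')
    rw [Q.ev_line, abs_mul, abs_of_nonneg hτ, mul_comm]
    exact mul_le_mul_of_nonneg_right this hτ
  sl2 := by
    intro z hz hz' x τ hτ hx hx'
    have := h2 z hz hz' _ (inK_mid hx hx')
    rw [Q.ev_line, abs_mul, abs_of_nonneg hτ, mul_comm]
    exact mul_le_mul_of_nonneg_right this hτ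

/-- **cigars from gradient bounds** -/
theorem shN0_of_grad {e : Fin 3 → V3} {c : Ln4} {w : V3} {Q : Qd} {a z0 ρ r0 : ℝ} (he : Ortho e)
    (w0 : w 0 = w 2) (ha : a ≤ w 2) (hw : w 2 ≤ w 1) (hr : r0 ≤ a)
    (h0 : ∀ z, z0 ≤ z → z ≤ z0 + ρ → ∀ x : V3, InK e c (dbl3 w) z x →
      1 / 2 ≤ Q.D z x (e 0) ∧ Q.D z x (e 0) ≤ 2)
    (h1 : ∀ z, z0 ≤ z → z ≤ z0 + ρ → ∀ x : V3, InK e c (dbl3 w) z x →
      |Q.D z x (e 1)| ≤ w 2 / w 1)
    (h2 : ∀ z, z0 ≤ z → z ≤ z0 + ρ → ∀ x : V3, InK e c (dbl3 w) z x →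
      |Q.D z x (e 2)| ≤ 1) : ShN0 e c w Q.ev a z0 ρ r0 where
  ortho := he
  isQ := Q.isQ
  w0_eq := w0
  a_le := ha
  w_le := hw
  r0_le := hr
  st0 := by
    intro z hz hz' x τ hτ hx hx'
    have := h0 z hz hz' _ (inK_mid hx hx')
    rw [Q.ev_line]
    constructor <;> nlinarith [this.1, this.2]
  st1 := by
    intro z hz hz' x τ hτ hx hx'
    have := h1 z hz hz' _ (inK_mid hx hx')
    rw [Q.ev_line, abs_mul, abs_of_nonneg hτ, mul_comm]
    exact mul_le_mul_of_nonneg_right this hτ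
  st2 := by
    intro z hz hz' x τ hτ hx hx'
    have := h2 z hz hz' _ (inK_mid hx hx')
    rw [Q.ev_line, abs_mul, abs_of_nonneg hτ]
    nlinarith

/-- **class C* from gradient bounds** (case `w 0 = w 2`) -/
theorem shN_of_grad {e : Fin 3 → V3} {c : Ln4} {w : V3} {Q : Qd} {a z0 ρ r0 : ℝ} (he : Ortho e)
    (w0 : w 0 = w 2) (ha : a ≤ w 2) (hw : w 2 ≤ w 1) (hr : r0 ≤ a)
    (h0 : ∀ z, z0 ≤ z → z ≤ z0 + ρ → ∀ x : V3, InK e c (dbl3 w) z x →
      1 / 2 ≤ Q.D z x (e 0) ∧ Q.D z x (e 0) ≤ 2)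
    (h1 : ∀ z, z0 ≤ z → z ≤ z0 + ρ → ∀ x : V3, InK e c (dbl3 w) z x →
      |Q.D z x (e 1)| ≤ w 2 / w 1)
    (h2 : ∀ z, z0 ≤ z → z ≤ z0 + ρ → ∀ x : V3, InK e c (dbl3 w) z x →
      |Q.D z x (e 2)| ≤ 1) : ShN e c w Q.ev a z0 ρ r0 :=
  (shN0_of_grad he w0 ha hw hr h0 h1 h2).toN

/-! ### moving frames -/

section move

variable (f : Fin 3 → V3) (c : Ln4)

/-- coordinates of `x` in the frame `f` moving along the line `c` -/
def phi (z : ℝ) (x : V3) : V3 := fun k => dt (f k) (x - c.pos z)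

/-- the line `t` in the moving frame -/
def rl (t : Ln4) : Ln4 := ⟨fun k => dt (f k) (t.p - c.p), fun k => dt (f k) (t.v - c.v)⟩

theorem rl_pos (t : Ln4) (z : ℝ) : (rl f c t).pos z = phi f c z (t.pos z) := by
  funext k
  simp only [rl, phi, Ln4.pos, dt, Pi.sub_apply]
  ring

/-- a frame with components `e` in the frame `f` -/
def fo (e : Fin 3 → V3) : Fin 3 → V3 :=
  fun k => e k 0 • f 0 + e k 1 • f 1 + e k 2 • f 2

/-- the function in the original coordinates -/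
def qo (q : ℝ → V3 → ℝ) : ℝ → V3 → ℝ := fun z x => q z (phi f c z x)

variable {f c}

theorem dt_fo (e : Fin 3 → V3) (k : Fin 3) (x : V3) :
    dt (fo f e k) x = dt (e k) (fun j => dt (f j) x) := by
  simp only [fo, dt, Pi.add_apply, Pi.smul_apply, smul_eq_mul]
  ring

theorem dt_f_fo (hf : Ortho f) (e : Fin 3 → V3) (j k : Fin 3) : dt (f j) (fo f e k) = e k j := by
  have h0 := hf j 0
  have h1 := hf j 1
  have h2 := hf j 2
  have e1 : dt (f j) (fo f e k) =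
      e k 0 * dt (f j) (f 0) + e k 1 * dt (f j) (f 1) + e k 2 * dt (f j) (f 2) := by
    simp only [fo, dt, Pi.add_apply, Pi.smul_apply, smul_eq_mul]
    ring
  rw [e1, h0, h1, h2]
  fin_cases j <;> simp

theorem fo_ortho (hf : Ortho f) {e : Fin 3 → V3} (he : Ortho e) : Ortho (fo f e) := by
  intro i j
  rw [dt_fo]
  have : (fun l => dt (f l) (fo f e j)) = e j := by
    funext l; exact dt_f_fo hf e l j
  rw [this]
  exact he i j

theorem dt_fo_sub (e : Fin 3 → V3) (t : Ln4) (k : Fin 3) (z : ℝ) (x : V3) :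
    dt (fo f e k) (x - t.pos z) = dt (e k) (phi f c z x - (rl f c t).pos z) := by
  rw [dt_fo]
  congr 1
  funext j
  rw [rl_pos]
  simp only [phi, dt, Pi.sub_apply]
  ring

theorem inK_move {e : Fin 3 → V3} {t : Ln4} {w : V3} {z : ℝ} {x : V3} :
    InK (fo f e) t w z x ↔ InK e (rl f c t) w z (phi f c z x) := by
  unfold InK
  simp only [dt_fo_sub (c := c)]

theorem phi_add (hf : Ortho f) (e : Fin 3 → V3) (k : Fin 3) (z τ : ℝ) (x : V3) :
    phi f c z (x + τ • fo f e k) = phi f c z x + τ • e k := by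
  funext j
  have h := dt_f_fo hf e j k
  simp only [dt] at h
  simp only [phi, dt, Pi.add_apply, Pi.smul_apply, Pi.sub_apply, smul_eq_mul]
  rw [← h]
  ring

/-- affine substitutions -/
theorem isQ_comp {q : ℝ → V3 → ℝ} (h : IsQ q) (α β : V3) (M : Fin 3 → V3) :
    IsQ fun z x => q z (fun k => α k + β k * z + (M k 0 * x 0 + M k 1 * x 1 + M k 2 * x 2)) := by
  obtain ⟨c0, c1, c2, b, d, g, hq⟩ := h
  refine ⟨c0 + ∑ k, b k * α k + ∑ k, ∑ l, g k l * (α k * α l),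
    c1 + ∑ k, (b k * β k + d k * α k) + ∑ k, ∑ l, g k l * (α k * β l + β k * α l),
    c2 + ∑ k, d k * β k + ∑ k, ∑ l, g k l * (β k * β l),
    fun j => ∑ k, b k * M k j + ∑ k, ∑ l, g k l * (α k * M l j + M k j * α l),
    fun j => ∑ k, d k * M k j + ∑ k, ∑ l, g k l * (β k * M l j + M k j * β l),
    fun i j => ∑ k, ∑ l, g k l * (M k i * M l j), ?_⟩
  intro z x
  show q z (fun k => α k + β k * z + (M k 0 * x 0 + M k 1 * x 1 + M k 2 * x 2)) = _
  rw [hq]
  simp only [Fin.sum_univ_three]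
  ring

theorem isQ_move {q : ℝ → V3 → ℝ} (h : IsQ q) : IsQ (qo f c q) := by
  have h1 := isQ_comp h (fun k => -dt (f k) c.p) (fun k => -dt (f k) c.v) f
  refine (congrArg IsQ ?_).mp h1
  funext z x
  simp only [qo]
  congr 1
  funext k
  simp only [phi, dt, Ln4.pos, Pi.sub_apply]
  ring

/-- **a sheet in a moving frame** -/
theorem shN_move (hf : Ortho f) {e : Fin 3 → V3} {t : Ln4} {w : V3} {q : ℝ → V3 → ℝ}
    {a z0 ρ r0 : ℝ} (h : ShN e (rl f c t) w q a z0 ρ r0) :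
    ShN (fo f e) t w (qo f c q) a z0 ρ r0 where
  ortho := fo_ortho hf h.ortho
  isQ := isQ_move h.isQ
  a_le0 := h.a_le0
  w0_le := h.w0_le
  w_le := h.w_le
  r0_le := h.r0_le
  st0 := by
    intro z hz hz' x τ hτ hx hx'
    have := h.st0 z hz hz' (phi f c z x) τ hτ (inK_move.1 hx)
      (by rw [← phi_add hf]; exact inK_move.1 hx')
    simp only [qo, phi_add hf]
    exact this
  sl1 := by
    intro z hz hz' x τ hτ hx hx'
    have := h.sl1 z hz hz' (phi f c z x) τ hτ (inK_move.1 hx)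
      (by rw [← phi_add hf]; exact inK_move.1 hx')
    simp only [qo, phi_add hf]
    exact this
  sl2 := by
    intro z hz hz' x τ hτ hx hx'
    have := h.sl2 z hz hz' (phi f c z x) τ hτ (inK_move.1 hx)
      (by rw [← phi_add hf]; exact inK_move.1 hx')
    simp only [qo, phi_add hf]
    exact this

theorem inSheet_move {e : Fin 3 → V3} {t t' : Ln4} {w : V3} {q : ℝ → V3 → ℝ} {a z0 ρ : ℝ} :
    InSheet t' (fo f e) t w (qo f c q) a z0 ρ ↔
      InSheet (rl f c t') e (rl f c t) w q a z0 ρ := by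
  unfold InSheet
  refine forall_congr' fun z => forall_congr' fun _ => forall_congr' fun _ => ?_
  rw [inK_move (c := c), rl_pos]
  rfl

end move

end Crest.Agent.R136.GeoN778
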