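import Crest.Agent.R136.GeoN1_778

/-!
# R136: class C* sheets close to the model quadric, in anisotropic units (helper778)

Coordinates `(Y, A, B)`, units `WY ≤ WB ≤ WA`, heights `ẑ = (z - zc) / H`.  `Qt : Qd` is a quadratic
function in the unit coordinates whose gradient is `(1, -2κ x₁, -ẑ)` up to `η`.

* `Qd.gr` : gradient; `Qd.scl` : the function in the original units.
* `fr`, `fr_ortho` : orthonormal frame with slopes `Fa, Fb, E` (as in `GeoQ186.fr`).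
* `shN_near` : the function is a sheet of class C* around a line `T`.
* `box_near` : lines in the box.
-/

set_option autoImplicit false
set_option linter.unusedVariables false

namespace Crest.Agent.R136.GeoN778

open Crest.Agent.R136.Sh605

theorem m2 {a b u w : ℝ} (ha : |a| ≤ u) (hb : |b| ≤ w) : |a * b| ≤ u * w := by
  rw [abs_mul]
  exact mul_le_mul ha hb (abs_nonneg _) ((abs_nonneg _).trans ha)

theorem a2 {a b u w : ℝ} (ha : |a| ≤ u) (hb : |b| ≤ w) : |a + b| ≤ u + w :=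
  (abs_add_le _ _).trans (add_le_add ha hb)

theorem s2 {a b u w : ℝ} (ha : |a| ≤ u) (hb : |b| ≤ w) : |a - b| ≤ u + w :=
  (abs_sub _ _).trans (add_le_add ha hb)

/-- gradient -/
def Qd.gr (Q : Qd) (z : ℝ) (x : V3) : V3 :=
  fun k => Q.b k + Q.d k * z + ∑ j, (Q.g k j + Q.g j k) * x j

theorem Qd.D_eq (Q : Qd) (z : ℝ) (x e : V3) : Q.D z x e = dt (Q.gr z x) e := by
  simp only [Qd.D, Qd.gr, dt, Fin.sum_univ_three]
  ring

/-- change of units: `m Q ((z - zc) / H) (x / W)` -/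
noncomputable def Qd.scl (Q : Qd) (m zc H : ℝ) (W : V3) : Qd where
  c0 := m * (Q.c0 - Q.c1 * (zc / H) + Q.c2 * (zc / H) ^ 2)
  c1 := m * (Q.c1 / H - 2 * Q.c2 * zc / H ^ 2)
  c2 := m * (Q.c2 / H ^ 2)
  b := fun i => m * ((Q.b i - Q.d i * (zc / H)) / W i)
  d := fun i => m * (Q.d i / (H * W i))
  g := fun i j => m * (Q.g i j / (W i * W j))

theorem Qd.scl_ev (Q : Qd) {m zc H : ℝ} {W : V3} (hH : H ≠ 0) (hW : ∀ i, W i ≠ 0) (z : ℝ)
    (x : V3) : (Q.scl m zc H W).ev z x = m * Q.ev ((z - zc) / H) (fun i => x i / W i) := by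
  have h0 := hW 0
  have h1 := hW 1
  have h2 := hW 2
  simp only [Qd.scl, Qd.ev, Fin.sum_univ_three]
  field_simp
  ring

theorem Qd.scl_gr (Q : Qd) {m zc H : ℝ} {W : V3} (hH : H ≠ 0) (hW : ∀ i, W i ≠ 0) (z : ℝ)
    (x : V3) (k : Fin 3) : (Q.scl m zc H W).gr z x k =
      m * (Q.gr ((z - zc) / H) (fun i => x i / W i) k / W k) := by
  have h0 := hW 0
  have h1 := hW 1
  have h2 := hW 2
  have hk := hW k
  simp only [Qd.scl, Qd.gr, Fin.sum_univ_three]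
  field_simp
  ring

/-! ### the frame -/

/-- norm of the normal -/
noncomputable def nn (Fa Fb : ℝ) : ℝ := Real.sqrt (1 + Fa ^ 2 + Fb ^ 2)
/-- norm of the wide axis -/
noncomputable def nm (Fa Fb E : ℝ) : ℝ := Real.sqrt ((Fa + Fb * E) ^ 2 + 1 + E ^ 2)

theorem nn_sq (Fa Fb : ℝ) : nn Fa Fb ^ 2 = 1 + Fa ^ 2 + Fb ^ 2 := Real.sq_sqrt (by positivity)
theorem nm_sq (Fa Fb E : ℝ) : nm Fa Fb E ^ 2 = (Fa + Fb * E) ^ 2 + 1 + E ^ 2 :=
  Real.sq_sqrt (by positivity)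
theorem nn_pos (Fa Fb : ℝ) : 0 < nn Fa Fb := Real.sqrt_pos.2 (by positivity)
theorem nm_pos (Fa Fb E : ℝ) : 0 < nm Fa Fb E := Real.sqrt_pos.2 (by positivity)

theorem one_le_nn (Fa Fb : ℝ) : 1 ≤ nn Fa Fb := by
  have h := nn_sq Fa Fb
  have h0 := nn_pos Fa Fb
  nlinarith [sq_nonneg Fa, sq_nonneg Fb]

theorem one_le_nm (Fa Fb E : ℝ) : 1 ≤ nm Fa Fb E := by
  have h := nm_sq Fa Fb E
  have h0 := nm_pos Fa Fb E
  nlinarith [sq_nonneg (Fa + Fb * E), sq_nonneg E]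

/-- the orthonormal frame with slopes `Fa, Fb, E` -/
noncomputable def fr (Fa Fb E : ℝ) : Fin 3 → V3 :=
  ![![1 / nn Fa Fb, -Fa / nn Fa Fb, -Fb / nn Fa Fb],
    ![(Fa + Fb * E) / nm Fa Fb E, 1 / nm Fa Fb E, E / nm Fa Fb E],
    ![(-Fa * E + Fb) / (nn Fa Fb * nm Fa Fb E),
      (-Fb * (Fa + Fb * E) - E) / (nn Fa Fb * nm Fa Fb E),
      (1 + Fa * (Fa + Fb * E)) / (nn Fa Fb * nm Fa Fb E)]]

theorem fr_ortho (Fa Fb E : ℝ) : Ortho (fr Fa Fb E) := by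
  have h1 := nn_sq Fa Fb
  have h2 := nm_sq Fa Fb E
  have p1 := (nn_pos Fa Fb).ne'
  have p2 := (nm_pos Fa Fb E).ne'
  set ν := nn Fa Fb with hν
  set μ := nm Fa Fb E with hμ
  have k00 : 1 / ν * (1 / ν) + -Fa / ν * (-Fa / ν) + -Fb / ν * (-Fb / ν) = 1 := by
    field_simp
    linarith
  have k01 : 1 / ν * ((Fa + Fb * E) / μ) + -Fa / ν * (1 / μ) + -Fb / ν * (E / μ) = 0 := by
    field_simp
    ring
  have k02 : 1 / ν * ((-Fa * E + Fb) / (ν * μ)) +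
      -Fa / ν * ((-Fb * (Fa + Fb * E) - E) / (ν * μ)) +
      -Fb / ν * ((1 + Fa * (Fa + Fb * E)) / (ν * μ)) = 0 := by
    field_simp
    ring
  have k11 : (Fa + Fb * E) / μ * ((Fa + Fb * E) / μ) + 1 / μ * (1 / μ) + E / μ * (E / μ) = 1 := by
    field_simp
    linarith
  have k12 : (Fa + Fb * E) / μ * ((-Fa * E + Fb) / (ν * μ)) +
      1 / μ * ((-Fb * (Fa + Fb * E) - E) / (ν * μ)) +
      E / μ * ((1 + Fa * (Fa + Fb * E)) / (ν * μ)) = 0 := by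
    field_simp
    ring
  have k22 : (-Fa * E + Fb) / (ν * μ) * ((-Fa * E + Fb) / (ν * μ)) +
      (-Fb * (Fa + Fb * E) - E) / (ν * μ) * ((-Fb * (Fa + Fb * E) - E) / (ν * μ)) +
      (1 + Fa * (Fa + Fb * E)) / (ν * μ) * ((1 + Fa * (Fa + Fb * E)) / (ν * μ)) = 1 := by
    have e1 : (-Fa * E + Fb) ^ 2 + (-Fb * (Fa + Fb * E) - E) ^ 2 + (1 + Fa * (Fa + Fb * E)) ^ 2 =
        ν ^ 2 * μ ^ 2 := by rw [h1, h2]; ring
    field_simp
    linarith
  intro i j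
  fin_cases i <;> fin_cases j <;>
    simp only [fr, dt, Fin.zero_eta, Fin.mk_one, Fin.reduceFinMk, Matrix.cons_val,
      Fin.isValue, if_true, Fin.reduceEq, if_false, ← hν, ← hμ]
  · exact k00
  · exact k01
  · exact k02
  · linarith
  · exact k11
  · exact k12
  · linarith
  · linarith
  · exact k22

/-- entries of an orthonormal frame -/
theorem ortho_le {e : Fin 3 → V3} (he : Ortho e) (i j : Fin 3) : |e i j| ≤ 1 := by
  have h := he i i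
  simp only [dt, if_true] at h
  rw [abs_le_one_iff_mul_self_le_one]
  fin_cases j
  · show e i 0 * e i 0 ≤ 1
    nlinarith [mul_self_nonneg (e i 1), mul_self_nonneg (e i 2)]
  · show e i 1 * e i 1 ≤ 1
    nlinarith [mul_self_nonneg (e i 0), mul_self_nonneg (e i 2)]
  · show e i 2 * e i 2 ≤ 1
    nlinarith [mul_self_nonneg (e i 0), mul_self_nonneg (e i 1)]

/-- components of a vector from its components in an orthonormal frame -/
theorem comp_le {e : Fin 3 → V3} (he : Ortho e) {u : V3} {W : V3} (h : ∀ i, |dt (e i) u| ≤ W i)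
    (j : Fin 3) : |u j| ≤ W 0 + W 1 + W 2 := by
  rw [he.expand u j]
  have := a2 (a2 (m2 (h 0) (ortho_le he 0 j)) (m2 (h 1) (ortho_le he 1 j)))
    (m2 (h 2) (ortho_le he 2 j))
  linarith

/-! ### the gradient in the frame -/

/-- the gradient is close to the model gradient -/
def NearG (Q : Qd) (κ η z : ℝ) (x : V3) : Prop :=
  |Q.gr z x 0 - 1| ≤ η ∧ |Q.gr z x 1 + 2 * κ * x 1| ≤ η ∧ |Q.gr z x 2 + z| ≤ η

theorem two_mul_le_sq {a b : ℝ} : 2 * |a| ≤ 1 + a ^ 2 + b ^ 2 := by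
  have h1 : 0 ≤ (|a| - 1) ^ 2 := sq_nonneg _
  have h2 : |a| ^ 2 = a ^ 2 := sq_abs a
  nlinarith [sq_nonneg b]

section core

variable {α β Fa Fb E E' κ η θ θ' p0 p1 p2 x1 z : ℝ}

theorem core0 (hα : 0 ≤ α) (hα1 : α ≤ 1) (hβ : 0 ≤ β) (hβ1 : β ≤ 1)
    (h0 : |p0 - 1| ≤ η) (h1 : |p1 + 2 * κ * x1| ≤ η) (h2 : |p2 + z| ≤ η) (hz : |z - Fb| ≤ θ)
    (hx : |2 * κ * x1 - Fa| ≤ θ') :
    |dt ![p0 / nn (α * Fa) (β * Fb), α * p1 / nn (α * Fa) (β * Fb),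
      β * p2 / nn (α * Fa) (β * Fb)] (fr (α * Fa) (β * Fb) E' 0) - 1| ≤
      2 * η + (θ + θ') / 2 := by
  have hν := nn_sq (α * Fa) (β * Fb)
  have hp := nn_pos (α * Fa) (β * Fb)
  set ν := nn (α * Fa) (β * Fb) with hνdef
  have hν2 : 1 ≤ ν ^ 2 := by rw [hν]; nlinarith [sq_nonneg (α * Fa), sq_nonneg (β * Fb)]
  have hη : 0 ≤ η := (abs_nonneg _).trans h0
  have hθ : 0 ≤ θ := (abs_nonneg _).trans hz
  have hθ' : 0 ≤ θ' := (abs_nonneg _).trans hx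
  have e1 : dt ![p0 / ν, α * p1 / ν, β * p2 / ν] (fr (α * Fa) (β * Fb) E' 0) - 1 =
      ((p0 - 1) + (α * (α * Fa) * ((2 * κ * x1 - Fa) - (p1 + 2 * κ * x1)) +
        β * (β * Fb) * ((z - Fb) - (p2 + z)))) / ν ^ 2 := by
    simp only [dt, fr, ← hνdef, Matrix.cons_val]
    field_simp
    rw [hν]
    ring
  have b1 : |(2 * κ * x1 - Fa) - (p1 + 2 * κ * x1)| ≤ θ' + η := s2 hx h1
  have b2 : |(z - Fb) - (p2 + z)| ≤ θ + η := s2 hz h2
  have c1 : |α * (α * Fa)| ≤ ν ^ 2 / 2 := by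
    have := two_mul_le_sq (a := α * Fa) (b := β * Fb)
    rw [← hν] at this
    rw [abs_mul, abs_of_nonneg hα]
    have h3 := abs_nonneg (α * Fa)
    nlinarith
  have c2 : |β * (β * Fb)| ≤ ν ^ 2 / 2 := by
    have := two_mul_le_sq (a := β * Fb) (b := α * Fa)
    have h4 : 1 + (β * Fb) ^ 2 + (α * Fa) ^ 2 = ν ^ 2 := by rw [hν]; ring
    rw [h4] at this
    rw [abs_mul, abs_of_nonneg hβ]
    have h3 := abs_nonneg (β * Fb)
    nlinarith
  rw [e1, abs_div, abs_of_pos (by positivity : 0 < ν ^ 2), div_le_iff₀ (by positivity)]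
  refine (a2 h0 (a2 (m2 c1 b1) (m2 c2 b2))).trans ?_
  nlinarith

theorem core1 (hα : 0 ≤ α) (hE : β * E' = α * E)
    (h0 : |p0 - 1| ≤ η) (h1 : |p1 + 2 * κ * x1| ≤ η) (h2 : |p2 + z| ≤ η) :
    |dt ![p0 / nn (α * Fa) (β * Fb), α * p1 / nn (α * Fa) (β * Fb),
      β * p2 / nn (α * Fa) (β * Fb)] (fr (α * Fa) (β * Fb) E' 1)| ≤
      α * (|(2 * κ * x1 - Fa) + E * (z - Fb)| + η * (1 + |Fa| + |E| + |Fb| * |E|)) := by
  have hp := nn_pos (α * Fa) (β * Fb)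
  have hp1 := one_le_nn (α * Fa) (β * Fb)
  have hm := nm_pos (α * Fa) (β * Fb) E'
  have hm1 := one_le_nm (α * Fa) (β * Fb) E'
  set ν := nn (α * Fa) (β * Fb) with hνdef
  set μ := nm (α * Fa) (β * Fb) E' with hμdef
  have e1 : dt ![p0 / ν, α * p1 / ν, β * p2 / ν] (fr (α * Fa) (β * Fb) E' 1) =
      α * (-((2 * κ * x1 - Fa) + E * (z - Fb)) +
        ((p0 - 1) * (Fa + Fb * E) + (p1 + 2 * κ * x1) + E * (p2 + z))) / (ν * μ) := by
    simp only [dt, fr, ← hνdef, ← hμdef, Matrix.cons_val]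
    have e2 : α * Fa + β * Fb * E' = α * (Fa + Fb * E) := by
      have : β * Fb * E' = Fb * (β * E') := by ring
      rw [this, hE]; ring
    rw [e2]
    have e3 : β * p2 / ν * (E' / μ) = (β * E') * p2 / (ν * μ) := by
      field_simp
    rw [e3, hE]
    field_simp
    ring
  have hνμ : 1 ≤ ν * μ := by nlinarith
  have hη : 0 ≤ η := (abs_nonneg _).trans h0
  have b1 : |(p0 - 1) * (Fa + Fb * E) + (p1 + 2 * κ * x1) + E * (p2 + z)| ≤
      η * (1 + |Fa| + |E| + |Fb| * |E|) := by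
    have h3 : |Fa + Fb * E| ≤ |Fa| + |Fb| * |E| := a2 le_rfl (m2 le_rfl le_rfl)
    have := a2 (a2 (m2 h0 h3) h1) (m2 (le_refl |E|) h2)
    linarith
  have b2 : |-((2 * κ * x1 - Fa) + E * (z - Fb))| ≤ |(2 * κ * x1 - Fa) + E * (z - Fb)| := by
    rw [abs_neg]
  rw [e1, abs_div, abs_of_pos (by positivity : 0 < ν * μ), abs_mul, abs_of_nonneg hα,
    div_le_iff₀ (by positivity)]
  have h5 := a2 b2 b1
  have h6 := mul_le_mul_of_nonneg_left h5 hα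
  have h7 : 0 ≤ α * (|(2 * κ * x1 - Fa) + E * (z - Fb)| + η * (1 + |Fa| + |E| + |Fb| * |E|)) :=
    (mul_nonneg hα (abs_nonneg _)).trans h6
  nlinarith

theorem core2 (hα : 0 ≤ α) (hα1 : α ≤ 1) (hβ : 0 ≤ β) (hβ1 : β ≤ 1)
    (h0 : |p0 - 1| ≤ η) (h1 : |p1 + 2 * κ * x1| ≤ η) (h2 : |p2 + z| ≤ η) (hz : |z - Fb| ≤ θ)
    (hx : |2 * κ * x1 - Fa| ≤ θ') :
    |dt ![p0 / nn (α * Fa) (β * Fb), α * p1 / nn (α * Fa) (β * Fb),
      β * p2 / nn (α * Fa) (β * Fb)] (fr (α * Fa) (β * Fb) E' 2)| ≤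
      3 * η + θ + θ' := by
  have hp := nn_pos (α * Fa) (β * Fb)
  have hp1 := one_le_nn (α * Fa) (β * Fb)
  have hη : 0 ≤ η := (abs_nonneg _).trans h0
  have hθ : 0 ≤ θ := (abs_nonneg _).trans hz
  have hθ' : 0 ≤ θ' := (abs_nonneg _).trans hx
  have ho := fr_ortho (α * Fa) (β * Fb) E'
  have h20 := ortho_le ho 2 0
  have h21 := ortho_le ho 2 1
  have h22 := ortho_le ho 2 2
  have hd := ho 0 2
  set ν := nn (α * Fa) (β * Fb) with hνdef
  have hid : fr (α * Fa) (β * Fb) E' 2 0 - α * Fa * fr (α * Fa) (β * Fb) E' 2 1 -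
      β * Fb * fr (α * Fa) (β * Fb) E' 2 2 = 0 := by
    have e0 : fr (α * Fa) (β * Fb) E' 0 0 = 1 / ν := rfl
    have e1 : fr (α * Fa) (β * Fb) E' 0 1 = -(α * Fa) / ν := rfl
    have e2 : fr (α * Fa) (β * Fb) E' 0 2 = -(β * Fb) / ν := rfl
    simp only [dt, e0, e1, e2] at hd
    have hne : ν ≠ 0 := hp.ne'
    have h3 : (if (0 : Fin 3) = 2 then (1 : ℝ) else 0) = 0 := by simp
    rw [h3] at hd
    field_simp at hd
    linarith
  set f := fr (α * Fa) (β * Fb) E' 2 with hf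
  have e1 : dt ![p0 / ν, α * p1 / ν, β * p2 / ν] f =
      ((p0 - 1) * f 0 + α * ((p1 + 2 * κ * x1) - (2 * κ * x1 - Fa)) * f 1 +
        β * ((p2 + z) - (z - Fb)) * f 2) / ν := by
    have : dt ![p0 / ν, α * p1 / ν, β * p2 / ν] f =
      ((p0 - 1) * f 0 + α * ((p1 + 2 * κ * x1) - (2 * κ * x1 - Fa)) * f 1 +
        β * ((p2 + z) - (z - Fb)) * f 2) / ν + (f 0 - α * Fa * f 1 - β * Fb * f 2) / ν := by
      simp only [dt, Matrix.cons_val]
      field_simp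
      ring
    rw [this, hid, zero_div, add_zero]
  have hαa : |α| ≤ 1 := by rw [abs_of_nonneg hα]; exact hα1
  have hβa : |β| ≤ 1 := by rw [abs_of_nonneg hβ]; exact hβ1
  have b := a2 (a2 (m2 h0 h20) (m2 (m2 hαa (s2 h1 hx)) h21)) (m2 (m2 hβa (s2 h2 hz)) h22)
  rw [e1, abs_div, abs_of_pos hp, div_le_iff₀ hp]
  nlinarith

end core

end Crest.Agent.R136.GeoN778
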