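import Crest.Agent.R136.GeoN2_778

/-!
# R136: test sheets of class C* for the W-chart (helper778)

`Un` : anisotropic units.  `shN_near` : a quadratic function whose gradient (in the unit coordinates)
is `(1, -2κ x₁, -ẑ)` up to `η` on the image of the doubled box defines a sheet of class C* around a
line `T` with `A`-coordinate `Am + cA (ẑ - zm)`.  `box_near` : lines in this sheet.
-/

set_option autoImplicit false
set_option linter.unusedVariables false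

namespace Crest.Agent.R136.GeoN778

open Crest.Agent.R136.Sh605

/-- units: `WY ≤ WB ≤ WA`, unit of height `H`, origin of height `zc` -/
structure Un where
  /-- unit of `Y` -/
  WY : ℝ
  /-- unit of `A` -/
  WA : ℝ
  /-- unit of `B` -/
  WB : ℝ
  /-- origin of the heights -/
  zc : ℝ
  /-- unit of the heights -/
  H : ℝ

/-- ordered positive units -/
structure Un.Ok (u : Un) : Prop where
  Y0 : 0 < u.WY
  YB : u.WY ≤ u.WB
  BA : u.WB ≤ u.WA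
  H0 : 0 < u.H

namespace Un

variable (u : Un)

/-- the units as a vector -/
def W : V3 := ![u.WY, u.WA, u.WB]

/-- unit height -/
noncomputable def zh (z : ℝ) : ℝ := (z - u.zc) / u.H

/-- unit position -/
noncomputable def xh (x : V3) : V3 := fun k => x k / u.W k

/-- the frame of a line with `A`-position `Am` at the unit height `zm` and slope `cA` -/
noncomputable def fr (κ Am zm cA : ℝ) : Fin 3 → V3 :=
  GeoN778.fr (u.WY / u.WA * (2 * κ * Am)) (u.WY / u.WB * zm) (-2 * κ * cA * (u.WB / u.WA))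

/-- norm of the normal -/
noncomputable def nu (κ Am zm : ℝ) : ℝ := nn (u.WY / u.WA * (2 * κ * Am)) (u.WY / u.WB * zm)

/-- the function in the original units -/
noncomputable def q (κ Am zm : ℝ) (Q : Qd) : Qd := Q.scl (u.WY / u.nu κ Am zm) u.zc u.H u.W

variable {u}

theorem Ok.B0 (h : u.Ok) : 0 < u.WB := lt_of_lt_of_le h.Y0 h.YB
theorem Ok.A0 (h : u.Ok) : 0 < u.WA := lt_of_lt_of_le h.B0 h.BA

theorem Ok.W0 (h : u.Ok) (k : Fin 3) : 0 < u.W k := by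
  fin_cases k
  · exact h.Y0
  · exact h.A0
  · exact h.B0

theorem Ok.ev (h : u.Ok) (κ Am zm : ℝ) (Q : Qd) (z : ℝ) (x : V3) :
    (u.q κ Am zm Q).ev z x = u.WY / u.nu κ Am zm * Q.ev (u.zh z) (u.xh x) :=
  Q.scl_ev h.H0.ne' (fun i => (h.W0 i).ne') z x

theorem Ok.gr (h : u.Ok) (κ Am zm : ℝ) (Q : Qd) (z : ℝ) (x : V3) :
    (u.q κ Am zm Q).gr z x = ![Q.gr (u.zh z) (u.xh x) 0 / u.nu κ Am zm,
      u.WY / u.WA * Q.gr (u.zh z) (u.xh x) 1 / u.nu κ Am zm,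
      u.WY / u.WB * Q.gr (u.zh z) (u.xh x) 2 / u.nu κ Am zm] := by
  have hY := h.Y0.ne'
  have hA := h.A0.ne'
  have hB := h.B0.ne'
  have hn : u.nu κ Am zm ≠ 0 := (nn_pos _ _).ne'
  funext k
  have e := Q.scl_gr (m := u.WY / u.nu κ Am zm) (zc := u.zc) h.H0.ne'
    (fun i => (h.W0 i).ne') z x k
  have e' : (u.q κ Am zm Q).gr z x k =
      u.WY / u.nu κ Am zm * (Q.gr (u.zh z) (u.xh x) k / u.W k) := e
  rw [e']
  fin_cases k
  · show u.WY / u.nu κ Am zm * (Q.gr (u.zh z) (u.xh x) 0 / u.WY) =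
      Q.gr (u.zh z) (u.xh x) 0 / u.nu κ Am zm
    field_simp
  · show u.WY / u.nu κ Am zm * (Q.gr (u.zh z) (u.xh x) 1 / u.WA) =
      u.WY / u.WA * Q.gr (u.zh z) (u.xh x) 1 / u.nu κ Am zm
    field_simp
  · show u.WY / u.nu κ Am zm * (Q.gr (u.zh z) (u.xh x) 2 / u.WB) =
      u.WY / u.WB * Q.gr (u.zh z) (u.xh x) 2 / u.nu κ Am zm
    field_simp

end Un

open Un

variable {u : Un}

/-- `(WY/WB) E' = (WY/WA) E` -/
theorem slope_id (h : u.Ok) (E : ℝ) :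
    u.WY / u.WB * (E * (u.WB / u.WA)) = u.WY / u.WA * E := by
  have hA := h.A0.ne'
  have hB := h.B0.ne'
  field_simp

/-- image of the doubled box in the unit coordinates -/
theorem box_comp (h : u.Ok) {κ Am zm cA : ℝ} {T : Ln4} {w : V3} {z : ℝ} {x : V3}
    (hw0 : w 0 = w 2) (hw : w 2 ≤ w 1) (hw2 : 0 ≤ w 2)
    (hx : InK (u.fr κ Am zm cA) T (dbl3 w) z x) :
    |u.xh x 1 - u.xh (T.pos z) 1| ≤ 6 * (w 1 / u.WA) ∧
    |u.xh x 2 - u.xh (T.pos z) 2| ≤ 4 * (w 2 / u.WB) + 2 * |2 * κ * cA| * (w 1 / u.WA) ∧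
    |u.xh x 0 - u.xh (T.pos z) 0| ≤ 4 * (w 2 / u.WY) +
      2 * (|2 * κ * Am| + |zm| * |2 * κ * cA|) * (w 1 / u.WA) := by
  have hY := h.Y0
  have hA := h.A0
  have hB := h.B0
  set e := u.fr κ Am zm cA with he
  have ho : Ortho e := fr_ortho _ _ _
  have hm1 := one_le_nm (u.WY / u.WA * (2 * κ * Am)) (u.WY / u.WB * zm)
    (-2 * κ * cA * (u.WB / u.WA))
  have hm0 := nm_pos (u.WY / u.WA * (2 * κ * Am)) (u.WY / u.WB * zm)
    (-2 * κ * cA * (u.WB / u.WA))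
  set μ := nm (u.WY / u.WA * (2 * κ * Am)) (u.WY / u.WB * zm) (-2 * κ * cA * (u.WB / u.WA))
    with hμ
  have k0 : |dt (e 0) (x - T.pos z)| ≤ 2 * w 2 := by have := hx 0; rwa [dbl3, hw0] at this
  have k1 : |dt (e 1) (x - T.pos z)| ≤ 2 * w 1 := hx 1
  have k2 : |dt (e 2) (x - T.pos z)| ≤ 2 * w 2 := hx 2
  have hw1 : 0 ≤ w 1 := hw2.trans hw
  have ex := fun j => ho.expand (x - T.pos z) j
  refine ⟨?_, ?_, ?_⟩
  · have e1 : u.xh x 1 - u.xh (T.pos z) 1 = (x - T.pos z) 1 / u.WA := by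
      show x 1 / u.WA - T.pos z 1 / u.WA = _
      rw [Pi.sub_apply]; ring
    rw [e1, abs_div, abs_of_pos hA, ex 1]
    have b := a2 (a2 (m2 k0 (ortho_le ho 0 1)) (m2 k1 (ortho_le ho 1 1)))
      (m2 k2 (ortho_le ho 2 1))
    rw [div_le_iff₀ hA]
    have e2 : 6 * (w 1 / u.WA) * u.WA = 6 * w 1 := by field_simp
    rw [e2]
    linarith
  · have e1 : u.xh x 2 - u.xh (T.pos z) 2 = (x - T.pos z) 2 / u.WB := by
      show x 2 / u.WB - T.pos z 2 / u.WB = _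
      rw [Pi.sub_apply]; ring
    have c1 : |e 1 2| ≤ |2 * κ * cA| * (u.WB / u.WA) := by
      have : e 1 2 = -2 * κ * cA * (u.WB / u.WA) / μ := rfl
      rw [this, abs_div, abs_of_pos hm0, div_le_iff₀ hm0]
      have h3 : |-2 * κ * cA * (u.WB / u.WA)| = |2 * κ * cA| * (u.WB / u.WA) := by
        rw [abs_mul, abs_of_pos (div_pos hB hA)]
        congr 1
        rw [← abs_neg]; congr 1; ring
      rw [h3]
      have h4 : 0 ≤ |2 * κ * cA| * (u.WB / u.WA) := by positivity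
      nlinarith
    rw [e1, abs_div, abs_of_pos hB, ex 2]
    have b := a2 (a2 (m2 k0 (ortho_le ho 0 2)) (m2 k1 c1)) (m2 k2 (ortho_le ho 2 2))
    rw [div_le_iff₀ hB]
    have e2 : (4 * (w 2 / u.WB) + 2 * |2 * κ * cA| * (w 1 / u.WA)) * u.WB =
        4 * w 2 + 2 * w 1 * (|2 * κ * cA| * (u.WB / u.WA)) := by field_simp
    rw [e2]
    linarith
  · have e1 : u.xh x 0 - u.xh (T.pos z) 0 = (x - T.pos z) 0 / u.WY := by
      show x 0 / u.WY - T.pos z 0 / u.WY = _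
      rw [Pi.sub_apply]; ring
    have c1 : |e 1 0| ≤ (|2 * κ * Am| + |zm| * |2 * κ * cA|) * (u.WY / u.WA) := by
      have h5 : e 1 0 = (u.WY / u.WA * (2 * κ * Am) +
          u.WY / u.WB * zm * (-2 * κ * cA * (u.WB / u.WA))) / μ := rfl
      have h6 : u.WY / u.WA * (2 * κ * Am) +
          u.WY / u.WB * zm * (-2 * κ * cA * (u.WB / u.WA)) =
          (2 * κ * Am - zm * (2 * κ * cA)) * (u.WY / u.WA) := by
        field_simp
        ring
      have h7 : |(2 * κ * Am - zm * (2 * κ * cA)) * (u.WY / u.WA)| ≤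
          (|2 * κ * Am| + |zm| * |2 * κ * cA|) * (u.WY / u.WA) :=
        m2 (s2 le_rfl (m2 le_rfl le_rfl)) (by rw [abs_of_pos (div_pos hY hA)])
      rw [h5, h6, abs_div, abs_of_pos hm0, div_le_iff₀ hm0]
      refine h7.trans ?_
      have h8 : 0 ≤ (|2 * κ * Am| + |zm| * |2 * κ * cA|) * (u.WY / u.WA) := by positivity
      nlinarith
    rw [e1, abs_div, abs_of_pos hY, ex 0]
    have b := a2 (a2 (m2 k0 (ortho_le ho 0 0)) (m2 k1 c1)) (m2 k2 (ortho_le ho 2 0))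
    rw [div_le_iff₀ hY]
    have e2 : (4 * (w 2 / u.WY) + 2 * (|2 * κ * Am| + |zm| * |2 * κ * cA|) * (w 1 / u.WA)) *
        u.WY = 4 * w 2 + 2 * w 1 * ((|2 * κ * Am| + |zm| * |2 * κ * cA|) *
        (u.WY / u.WA)) := by field_simp
    rw [e2]
    linarith

/-- **a sheet of class C* close to the model quadric** -/
theorem shN_near (h : u.Ok) {Q : Qd} {κ η Am zm cA θ θ' : ℝ} {T : Ln4} {w : V3}
    {a z0 ρ r0 : ℝ} (hT : ∀ z, u.xh (T.pos z) 1 = Am + cA * (u.zh z - zm))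
    (hw0 : w 0 = w 2) (ha0 : 0 < a) (ha : a ≤ w 2) (hw : w 2 ≤ w 1) (hr : r0 ≤ a)
    (hθ : ∀ z, z0 ≤ z → z ≤ z0 + ρ → |u.zh z - zm| ≤ θ)
    (hN : ∀ z, z0 ≤ z → z ≤ z0 + ρ → ∀ x : V3,
      |x 1 - u.xh (T.pos z) 1| ≤ 6 * (w 1 / u.WA) →
      |x 2 - u.xh (T.pos z) 2| ≤ 4 * (w 2 / u.WB) + 2 * |2 * κ * cA| * (w 1 / u.WA) →
      |x 0 - u.xh (T.pos z) 0| ≤ 4 * (w 2 / u.WY) +
        2 * (|2 * κ * Am| + |zm| * |2 * κ * cA|) * (w 1 / u.WA) → NearG Q κ η (u.zh z) x)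
    (h1 : |2 * κ * cA| * θ + 12 * |κ| * (w 1 / u.WA) ≤ θ')
    (h2 : 2 * η + (θ + θ') / 2 ≤ 1 / 2) (h3 : 3 * η + θ + θ' ≤ 1)
    (h4 : (12 * |κ| * (w 1 / u.WA) +
      η * (1 + |2 * κ * Am| + |2 * κ * cA| + |zm| * |2 * κ * cA|)) * (w 1 / u.WA) ≤
        w 2 / u.WB) :
    ShN (u.fr κ Am zm cA) T w (u.q κ Am zm Q).ev a z0 ρ r0 := by
  have hY := h.Y0
  have hA := h.A0
  have hB := h.B0
  have hα : 0 ≤ u.WY / u.WA := by positivity
  have hα1 : u.WY / u.WA ≤ 1 := (div_le_one hA).2 (h.YB.trans h.BA)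
  have hβ : 0 ≤ u.WY / u.WB := by positivity
  have hβ1 : u.WY / u.WB ≤ 1 := (div_le_one hB).2 h.YB
  have hw2 : 0 ≤ w 2 := ha0.le.trans ha
  have key : ∀ z, z0 ≤ z → z ≤ z0 + ρ → ∀ x : V3, InK (u.fr κ Am zm cA) T (dbl3 w) z x →
      NearG Q κ η (u.zh z) (u.xh x) ∧ |2 * κ * u.xh x 1 - 2 * κ * Am| ≤ θ' ∧
        |(2 * κ * u.xh x 1 - 2 * κ * Am) + (-2 * κ * cA) * (u.zh z - zm)| ≤
          12 * |κ| * (w 1 / u.WA) := by
    intro z hz hz' x hx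
    obtain ⟨b1, b2, b0⟩ := box_comp h hw0 hw hw2 hx
    refine ⟨hN z hz hz' _ b1 b2 b0, ?_, ?_⟩
    · have e1 : 2 * κ * u.xh x 1 - 2 * κ * Am =
          2 * κ * cA * (u.zh z - zm) + 2 * κ * (u.xh x 1 - u.xh (T.pos z) 1) := by
        rw [hT]; ring
      have e2 : |2 * κ| = 2 * |κ| := by rw [abs_mul, abs_two]
      rw [e1]
      have := a2 (m2 (le_refl |2 * κ * cA|) (hθ z hz hz')) (m2 (le_refl |2 * κ|) b1)
      rw [e2] at this
      linarith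
    · have e1 : (2 * κ * u.xh x 1 - 2 * κ * Am) + (-2 * κ * cA) * (u.zh z - zm) =
          2 * κ * (u.xh x 1 - u.xh (T.pos z) 1) := by
        rw [hT]; ring
      have e2 : |2 * κ| = 2 * |κ| := by rw [abs_mul, abs_two]
      rw [e1]
      have := m2 (le_refl |2 * κ|) b1
      rw [e2] at this
      linarith
  refine shN_of_grad (fr_ortho _ _ _) hw0 ha hw hr ?_ ?_ ?_
  · intro z hz hz' x hx
    obtain ⟨⟨n0, n1, n2⟩, hx', -⟩ := key z hz hz' x hx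
    have hc := core0 (E' := -2 * κ * cA * (u.WB / u.WA)) hα hα1 hβ hβ1 n0 n1 n2
      (hθ z hz hz') hx'
    rw [Qd.D_eq, h.gr]
    have h5 := abs_le.1 (hc.trans h2)
    constructor
    · have := h5.1
      show 1 / 2 ≤ dt _ (fr _ _ _ 0)
      simp only [Un.nu]
      linarith
    · have := h5.2
      show dt _ (fr _ _ _ 0) ≤ 2
      simp only [Un.nu]
      linarith
  · intro z hz hz' x hx
    obtain ⟨⟨n0, n1, n2⟩, hx', hx''⟩ := key z hz hz' x hx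
    have hE : u.WY / u.WB * (-2 * κ * cA * (u.WB / u.WA)) = u.WY / u.WA * (-2 * κ * cA) :=
      slope_id h _
    have hc := core1 (Fa := 2 * κ * Am) (Fb := zm) (E := -2 * κ * cA) hα hE n0 n1 n2
    rw [Qd.D_eq, h.gr]
    show |dt _ (fr _ _ _ 1)| ≤ _
    simp only [Un.nu]
    refine hc.trans ?_
    have h6 : 0 < w 1 := lt_of_lt_of_le (lt_of_lt_of_le ha0 ha) hw
    have e3 : |-2 * κ * cA| = |2 * κ * cA| := by
      rw [← abs_neg]; congr 1; ring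
    rw [e3]
    set X := 12 * |κ| * (w 1 / u.WA) +
      η * (1 + |2 * κ * Am| + |2 * κ * cA| + |zm| * |2 * κ * cA|) with hX
    have h7 : |2 * κ * u.xh x 1 - 2 * κ * Am + -2 * κ * cA * (u.zh z - zm)| +
        η * (1 + |2 * κ * Am| + |2 * κ * cA| + |zm| * |2 * κ * cA|) ≤ X := by
      rw [hX]; linarith
    have h8 : 0 ≤ X := by
      have hη0 : 0 ≤ η := (abs_nonneg _).trans n0
      positivity
    have h9 : X * (w 1 * u.WB) ≤ w 2 * u.WA := by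
      have := h4
      rw [← mul_div_assoc, div_le_div_iff₀ hA hB] at this
      linarith
    calc u.WY / u.WA * _ ≤ u.WY / u.WA * X := mul_le_mul_of_nonneg_left h7 hα
      _ ≤ u.WB / u.WA * X := by
        refine mul_le_mul_of_nonneg_right ?_ h8
        exact div_le_div_of_nonneg_right h.YB hA.le
      _ ≤ w 2 / w 1 := by
        rw [div_mul_eq_mul_div, div_le_div_iff₀ hA h6]
        linarith
  · intro z hz hz' x hx
    obtain ⟨⟨n0, n1, n2⟩, hx', -⟩ := key z hz hz' x hx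
    have hc := core2 (E' := -2 * κ * cA * (u.WB / u.WA)) hα hα1 hβ hβ1 n0 n1 n2
      (hθ z hz hz') hx'
    rw [Qd.D_eq, h.gr]
    show |dt _ (fr _ _ _ 2)| ≤ _
    simp only [Un.nu]
    exact hc.trans h3

/-! ### lines in the sheet -/

theorem Qd.ev_diff (Q : Qd) (z : ℝ) (x x' : V3) : Q.ev z x' - Q.ev z x =
    dt (Q.gr z fun k => (x k + x' k) / 2) fun k => x' k - x k := by
  simp only [Qd.ev, Qd.gr, dt, Fin.sum_univ_three]
  ring

section lat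

variable {Fa Fb E : ℝ}

theorem lat0 (u : V3) :
    |dt (GeoN778.fr Fa Fb E 0) u| ≤ |u 0 - Fa * u 1 - Fb * u 2| := by
  have hp := nn_pos Fa Fb
  have h1 := one_le_nn Fa Fb
  have e1 : dt (GeoN778.fr Fa Fb E 0) u = (u 0 - Fa * u 1 - Fb * u 2) / nn Fa Fb := by
    simp only [dt, GeoN778.fr, Matrix.cons_val]
    field_simp
    ring
  rw [e1, abs_div, abs_of_pos hp]
  exact div_le_self (abs_nonneg _) h1

theorem lat1 (u : V3) :
    |dt (GeoN778.fr Fa Fb E 1) u| ≤ |u 0 - Fa * u 1 - Fb * u 2| + nm Fa Fb E * |u 1| +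
      (1 + |Fb|) * |u 2 - E * u 1| := by
  have hp := nm_pos Fa Fb E
  have h1 := one_le_nm Fa Fb E
  have hs := nm_sq Fa Fb E
  set μ := nm Fa Fb E with hμ
  have e1 : dt (GeoN778.fr Fa Fb E 1) u = ((Fa + Fb * E) * (u 0 - Fa * u 1 - Fb * u 2) +
      μ ^ 2 * u 1 + ((Fa + Fb * E) * Fb + E) * (u 2 - E * u 1)) / μ := by
    rw [hs]
    simp only [dt, GeoN778.fr, Matrix.cons_val, ← hμ]
    field_simp
    ring
  have g1 : |Fa + Fb * E| ≤ μ := by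
    refine abs_le_of_sq_le_sq' ?_ hp.le |> abs_le.2
    nlinarith [sq_nonneg E]
  have g2 : |E| ≤ μ := by
    refine abs_le_of_sq_le_sq' ?_ hp.le |> abs_le.2
    nlinarith [sq_nonneg (Fa + Fb * E)]
  have g3 : |(Fa + Fb * E) * Fb + E| ≤ μ * (1 + |Fb|) := by
    have := a2 (m2 g1 (le_refl |Fb|)) g2
    linarith
  rw [e1, abs_div, abs_of_pos hp, div_le_iff₀ hp]
  have h2 : |μ ^ 2| ≤ μ ^ 2 := by rw [abs_of_pos (by positivity)]
  refine (a2 (a2 (m2 g1 (le_refl _)) (m2 h2 (le_refl |u 1|))) (m2 g3 (le_refl _))).trans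
    (le_of_eq ?_)
  ring

theorem lat2 (u : V3) :
    |dt (GeoN778.fr Fa Fb E 2) u| ≤ |u 0 - Fa * u 1 - Fb * u 2| +
      nn Fa Fb * |u 2 - E * u 1| := by
  have hp := nn_pos Fa Fb
  have h1 := one_le_nn Fa Fb
  have hs := nn_sq Fa Fb
  have hpm := nm_pos Fa Fb E
  have h1m := one_le_nm Fa Fb E
  have hsm := nm_sq Fa Fb E
  set ν := nn Fa Fb with hν
  set μ := nm Fa Fb E with hμ
  have e1 : dt (GeoN778.fr Fa Fb E 2) u = ((Fb - Fa * E) * (u 0 - Fa * u 1 - Fb * u 2) +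
      ν ^ 2 * (u 2 - E * u 1)) / (ν * μ) := by
    rw [hs]
    simp only [dt, GeoN778.fr, Matrix.cons_val, ← hμ, ← hν]
    field_simp
    ring
  have g1 : |Fb - Fa * E| ≤ ν * μ := by
    refine abs_le_of_sq_le_sq' ?_ (by positivity) |> abs_le.2
    rw [mul_pow, hs, hsm]
    have : (Fb - Fa * E) ^ 2 ≤ (Fa ^ 2 + Fb ^ 2) * (1 + E ^ 2) := by
      nlinarith [sq_nonneg (Fa + Fb * E)]
    nlinarith [sq_nonneg (Fa + Fb * E), sq_nonneg E, sq_nonneg Fa, sq_nonneg Fb,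
      mul_nonneg (add_nonneg (sq_nonneg Fa) (sq_nonneg Fb)) (sq_nonneg (Fa + Fb * E))]
  have hνμ : 0 < ν * μ := by positivity
  rw [e1, abs_div, abs_of_pos hνμ, div_le_iff₀ hνμ]
  have h2 : |ν ^ 2| ≤ ν ^ 2 := by rw [abs_of_pos (by positivity)]
  refine (a2 (m2 g1 (le_refl _)) (m2 h2 (le_refl |u 2 - E * u 1|))).trans ?_
  have h3 : 0 ≤ |u 2 - E * u 1| := abs_nonneg _
  have h4 : ν ^ 2 * |u 2 - E * u 1| ≤ ν ^ 2 * |u 2 - E * u 1| * μ := by
    have : 0 ≤ ν ^ 2 * |u 2 - E * u 1| := by positivity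
    nlinarith
  nlinarith

theorem nn_le {Ga Gb : ℝ} (ha : |Fa| ≤ Ga) (hb : |Fb| ≤ Gb) : nn Fa Fb ≤ 1 + Ga + Gb := by
  have hs := nn_sq Fa Fb
  have hp := nn_pos Fa Fb
  have h0 : 0 ≤ Ga := (abs_nonneg _).trans ha
  have h0' : 0 ≤ Gb := (abs_nonneg _).trans hb
  refine abs_le_of_sq_le_sq' (a := nn Fa Fb) ?_ (by positivity) |>.2
  rw [hs]
  have h1 : Fa ^ 2 ≤ Ga ^ 2 := by rw [← sq_abs]; exact pow_le_pow_left₀ (abs_nonneg _) ha 2
  have h2 : Fb ^ 2 ≤ Gb ^ 2 := by rw [← sq_abs Fb]; exact pow_le_pow_left₀ (abs_nonneg _) hb 2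
  nlinarith [mul_nonneg h0 h0']

theorem nm_le {G1 G2 : ℝ} (ha : |Fa + Fb * E| ≤ G1) (hb : |E| ≤ G2) :
    nm Fa Fb E ≤ 1 + G1 + G2 := by
  have hs := nm_sq Fa Fb E
  have hp := nm_pos Fa Fb E
  have h0 : 0 ≤ G1 := (abs_nonneg _).trans ha
  have h0' : 0 ≤ G2 := (abs_nonneg _).trans hb
  refine abs_le_of_sq_le_sq' (a := nm Fa Fb E) ?_ (by positivity) |>.2
  rw [hs]
  have h1 : (Fa + Fb * E) ^ 2 ≤ G1 ^ 2 := by
    rw [← sq_abs]; exact pow_le_pow_left₀ (abs_nonneg _) ha 2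
  have h2 : E ^ 2 ≤ G2 ^ 2 := by rw [← sq_abs E]; exact pow_le_pow_left₀ (abs_nonneg _) hb 2
  nlinarith [mul_nonneg h0 h0']

end lat

/-- **a line in the sheet** -/
theorem box_near (h : u.Ok) {Q : Qd} {κ η Am zm cA θ : ℝ} {T t' : Ln4} {w : V3}
    {a z0 ρ Ra Rb An Rn : ℝ} (hT : ∀ z, u.xh (T.pos z) 1 = Am + cA * (u.zh z - zm))
    (hη : η ≤ 1 / 2)
    (hθ : ∀ z, z0 ≤ z → z ≤ z0 + ρ → |u.zh z - zm| ≤ θ)
    (hN : ∀ z, z0 ≤ z → z ≤ z0 + ρ →
      NearG Q κ η (u.zh z) fun k => (u.xh (T.pos z) k + u.xh (t'.pos z) k) / 2)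
    (hA : ∀ z, z0 ≤ z → z ≤ z0 + ρ → |u.xh (t'.pos z) 1 - u.xh (T.pos z) 1| ≤ Ra)
    (hB : ∀ z, z0 ≤ z → z ≤ z0 + ρ → |(u.xh (t'.pos z) 2 - u.xh (T.pos z) 2) -
      (-2 * κ * cA) * (u.xh (t'.pos z) 1 - u.xh (T.pos z) 1)| ≤ Rb)
    (hq : ∀ z, z0 ≤ z → z ≤ z0 + ρ → |Q.ev (u.zh z) (u.xh (t'.pos z))| ≤ An)
    (hq' : ∀ z, z0 ≤ z → z ≤ z0 + ρ → |Q.ev (u.zh z) (u.xh (T.pos z))| ≤ An)
    (hRn : 2 * (2 * An + θ * Rb + |κ| * Ra ^ 2 + η * ((1 + |2 * κ * Am|) * Ra +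
      (1 + |zm|) * (Rb + |2 * κ * cA| * Ra))) ≤ Rn)
    (h0 : u.WY * Rn ≤ w 0)
    (h1 : u.WY * Rn + (1 + (|2 * κ * Am| + |zm| * |2 * κ * cA|) + |2 * κ * cA|) * (u.WA * Ra) +
      (1 + |zm|) * (u.WB * Rb) ≤ w 1)
    (h2 : u.WY * Rn + (1 + |2 * κ * Am| + |zm|) * (u.WB * Rb) ≤ w 2)
    (ha : u.WY * An ≤ a) :
    InSheet t' (u.fr κ Am zm cA) T w (u.q κ Am zm Q).ev a z0 ρ := by
  intro z hz hz'
  have hY := h.Y0
  have hWA := h.A0
  have hWB := h.B0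
  obtain ⟨n0, n1, n2⟩ := hN z hz hz'
  have hA' := hA z hz hz'
  have hB' := hB z hz hz'
  have hq1 := hq z hz hz'
  have hq2 := hq' z hz hz'
  have hθ' := hθ z hz hz'
  have hTz := hT z
  have hη0 : 0 ≤ η := (abs_nonneg _).trans n0
  have hAn : 0 ≤ An := (abs_nonneg _).trans hq1
  set X := u.xh (T.pos z) with hX
  set X' := u.xh (t'.pos z) with hX'
  set d : V3 := fun k => X' k - X k with hd
  set G := Q.gr (u.zh z) fun k => (X k + X' k) / 2 with hG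
  have hdiff : Q.ev (u.zh z) X' - Q.ev (u.zh z) X = dt G d := Q.ev_diff _ _ _
  set N := d 0 - 2 * κ * Am * d 1 - zm * d 2 with hNdef
  set ub := d 2 - (-2 * κ * cA) * d 1 with hub
  have dA : |d 1| ≤ Ra := hA'
  have dB : |ub| ≤ Rb := hB'
  have hd2 : |d 2| ≤ Rb + |2 * κ * cA| * Ra := by
    have e1 : d 2 = ub + -(2 * κ * cA) * d 1 := by rw [hub]; ring
    rw [e1]
    refine a2 dB (m2 ?_ dA)
    rw [abs_neg]
  have hd0 : |d 0| ≤ |N| + |2 * κ * Am| * Ra + |zm| * (Rb + |2 * κ * cA| * Ra) := by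
    have e1 : d 0 = N + 2 * κ * Am * d 1 + zm * d 2 := by rw [hNdef]; ring
    rw [e1]
    exact a2 (a2 le_rfl (m2 le_rfl dA)) (m2 le_rfl hd2)
  have hNid : N = (Q.ev (u.zh z) X' - Q.ev (u.zh z) X) + (u.zh z - zm) * ub + κ * (d 1 * d 1) -
      (G 0 - 1) * d 0 - (G 1 + 2 * κ * ((X 1 + X' 1) / 2)) * d 1 - (G 2 + u.zh z) * d 2 := by
    rw [hdiff]
    have e1 : X' 1 = X 1 + d 1 := by simp [hd]
    rw [e1, hTz, hNdef, hub]
    simp only [dt]
    ring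
  have hNb : |N| ≤ 2 * An + θ * Rb + |κ| * Ra ^ 2 + η * (|d 0| + |d 1| + |d 2|) := by
    have hκ2 : |d 1 * d 1| ≤ Ra ^ 2 := by rw [sq]; exact m2 dA dA
    have b := s2 (s2 (s2 (a2 (a2 (s2 hq1 hq2) (m2 hθ' dB)) (m2 (le_refl |κ|) hκ2))
      (m2 n0 (le_refl |d 0|))) (m2 n1 (le_refl |d 1|))) (m2 n2 (le_refl |d 2|))
    rw [← hNid] at b
    linarith
  have hRa0 : 0 ≤ Ra := (abs_nonneg _).trans dA
  have hRb0 : 0 ≤ Rb := (abs_nonneg _).trans dB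
  have hθ0 : 0 ≤ θ := (abs_nonneg _).trans hθ'
  have hNR : |N| ≤ Rn := by
    have i1 : η * (|d 0| + |d 1| + |d 2|) ≤ η * (|N| + ((1 + |2 * κ * Am|) * Ra +
        (1 + |zm|) * (Rb + |2 * κ * cA| * Ra))) := by
      refine mul_le_mul_of_nonneg_left ?_ hη0
      linarith
    have i2 : η * |N| ≤ 1 / 2 * |N| := mul_le_mul_of_nonneg_right hη (abs_nonneg _)
    have i3 : η * (|N| + ((1 + |2 * κ * Am|) * Ra + (1 + |zm|) * (Rb + |2 * κ * cA| * Ra))) =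
        η * |N| + η * ((1 + |2 * κ * Am|) * Ra + (1 + |zm|) * (Rb + |2 * κ * cA| * Ra)) := by
      ring
    linarith
  -- the displacement in the original units
  set U : V3 := t'.pos z - T.pos z with hU
  have U0 : U 0 = u.WY * d 0 := by
    show t'.pos z 0 - T.pos z 0 = u.WY * (t'.pos z 0 / u.WY - T.pos z 0 / u.WY)
    field_simp
  have U1 : U 1 = u.WA * d 1 := by
    show t'.pos z 1 - T.pos z 1 = u.WA * (t'.pos z 1 / u.WA - T.pos z 1 / u.WA)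
    field_simp
  have U2 : U 2 = u.WB * d 2 := by
    show t'.pos z 2 - T.pos z 2 = u.WB * (t'.pos z 2 / u.WB - T.pos z 2 / u.WB)
    field_simp
  have UN : U 0 - u.WY / u.WA * (2 * κ * Am) * U 1 - u.WY / u.WB * zm * U 2 = u.WY * N := by
    rw [U0, U1, U2, hNdef]
    field_simp
  have Ub : U 2 - -2 * κ * cA * (u.WB / u.WA) * U 1 = u.WB * ub := by
    rw [U1, U2, hub]
    field_simp
  have bN : |U 0 - u.WY / u.WA * (2 * κ * Am) * U 1 - u.WY / u.WB * zm * U 2| ≤ u.WY * Rn := by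
    rw [UN, abs_mul, abs_of_pos hY]
    exact mul_le_mul_of_nonneg_left hNR hY.le
  have bU1 : |U 1| ≤ u.WA * Ra := by
    rw [U1, abs_mul, abs_of_pos hWA]
    exact mul_le_mul_of_nonneg_left dA hWA.le
  have bUb : |U 2 - -2 * κ * cA * (u.WB / u.WA) * U 1| ≤ u.WB * Rb := by
    rw [Ub, abs_mul, abs_of_pos hWB]
    exact mul_le_mul_of_nonneg_left dB hWB.le
  have hα : 0 ≤ u.WY / u.WA := by positivity
  have hα1 : u.WY / u.WA ≤ 1 := (div_le_one hWA).2 (h.YB.trans h.BA)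
  have hβ : 0 ≤ u.WY / u.WB := by positivity
  have hβ1 : u.WY / u.WB ≤ 1 := (div_le_one hWB).2 h.YB
  have hγ : 0 ≤ u.WB / u.WA := by positivity
  have hγ1 : u.WB / u.WA ≤ 1 := (div_le_one hWA).2 h.BA
  have sFb : |u.WY / u.WB * zm| ≤ |zm| := by
    rw [abs_mul, abs_of_nonneg hβ]
    exact mul_le_of_le_one_left (abs_nonneg _) hβ1
  have sFa : |u.WY / u.WA * (2 * κ * Am)| ≤ |2 * κ * Am| := by
    rw [abs_mul, abs_of_nonneg hα]
    exact mul_le_of_le_one_left (abs_nonneg _) hα1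
  have sE : |-2 * κ * cA * (u.WB / u.WA)| ≤ |2 * κ * cA| := by
    rw [abs_mul, abs_of_nonneg hγ]
    have : |-2 * κ * cA| = |2 * κ * cA| := by rw [← abs_neg]; congr 1; ring
    rw [this]
    exact mul_le_of_le_one_right (abs_nonneg _) hγ1
  have sg : |u.WY / u.WA * (2 * κ * Am) + u.WY / u.WB * zm * (-2 * κ * cA * (u.WB / u.WA))| ≤
      |2 * κ * Am| + |zm| * |2 * κ * cA| := a2 sFa (m2 sFb sE)
  refine ⟨?_, ?_⟩
  · intro k
    fin_cases k
    · exact (lat0 U).trans (bN.trans h0)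
    · refine (lat1 U).trans (le_trans ?_ h1)
      have hm := nm_le sg sE
      have i1 : nm (u.WY / u.WA * (2 * κ * Am)) (u.WY / u.WB * zm)
          (-2 * κ * cA * (u.WB / u.WA)) * |U 1| ≤
          (1 + (|2 * κ * Am| + |zm| * |2 * κ * cA|) + |2 * κ * cA|) * (u.WA * Ra) :=
        mul_le_mul hm bU1 (abs_nonneg _) (by positivity)
      have i2 : (1 + |u.WY / u.WB * zm|) * |U 2 - -2 * κ * cA * (u.WB / u.WA) * U 1| ≤
          (1 + |zm|) * (u.WB * Rb) :=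
        mul_le_mul (by linarith) bUb (abs_nonneg _) (by positivity)
      exact add_le_add (add_le_add bN i1) i2
    · refine (lat2 U).trans (le_trans ?_ h2)
      have hn := nn_le sFa sFb
      have i2 : nn (u.WY / u.WA * (2 * κ * Am)) (u.WY / u.WB * zm) *
          |U 2 - -2 * κ * cA * (u.WB / u.WA) * U 1| ≤
          (1 + |2 * κ * Am| + |zm|) * (u.WB * Rb) :=
        mul_le_mul hn bUb (abs_nonneg _) (by positivity)
      exact add_le_add bN i2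
  · rw [h.ev]
    have hν : 0 < u.nu κ Am zm := nn_pos _ _
    have hν1 : 1 ≤ u.nu κ Am zm := one_le_nn _ _
    rw [abs_mul, abs_of_pos (div_pos hY hν)]
    have i1 : u.WY / u.nu κ Am zm ≤ u.WY := div_le_self hY.le hν1
    exact (mul_le_mul i1 hq1 (abs_nonneg _) hY.le).trans ha

end Crest.Agent.R136.GeoN778
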