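import Crest.Agent.R136.GeoN3_778
import Crest.Agent.R136.GeoWD_778

/-!
# R136, [GEO-D] for the W-chart in the original coordinates (helper778)

`Bent` : the point at height `z` of a true line `L` (moving-frame coordinates) corresponds to a point
of the model line `M` at a height `z'` close to `ẑ` (projective straightening of the container).
`boxM_inSheet`, **`gdW`** : a legal box of `coW` is contained in one sheet of class C*.
-/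

set_option autoImplicit false
set_option linter.unusedVariables false

namespace Crest.Agent.R136.GeoN778

open Crest.Agent.R136.Sh605
open Crest.Agent.R136.NetW191
open Crest.Agent.R136.GeoW778 (qS TrueW dB DW EW)

/-- the point of the line `L` at height `z` against the model line `M` -/
def Bent (u : Un) (Q : Qd) (κ σ : ℝ) (i : FW) (η₁ : ℝ) (L M : Ln4) (z : ℝ) : Prop :=
  ∃ z', |z' - u.zh z| ≤ η₁ ∧ (∀ k, |u.xh (L.pos z) k - M.pos z' k| ≤ η₁) ∧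
    |Q.ev (u.zh z) (u.xh (L.pos z))| ≤ 4 * |qS κ σ i z' (M.pos z')|

theorem pos_shift (M : Ln4) (z z' : ℝ) (k : Fin 3) :
    M.pos z' k = M.pos z k + (z' - z) * M.v k := by
  simp only [Ln4.pos]; ring

/-- lateral displacements of two bent lines -/
theorem lat_bent {u : Un} {Q : Qd} {κ σ : ℝ} {i j : FW} {η₁ η₂ : ℝ} {L L' M M' : Ln4}
    {z : ℝ} (hM : TrueW κ σ i M) (hM' : TrueW κ σ j M') (hκ : |κ| ≤ 1) (hσ : 0 ≤ σ)
    {Γ V ρ' cA G : ℝ} (hGi : ∀ k, |i.G k| ≤ Γ) (hGj : ∀ k, |j.G k| ≤ Γ)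
    (hV : ∀ k, |M.v k| ≤ V) (hV' : ∀ k, |M'.v k| ≤ V) (hc : |cA - i.g 1| ≤ η₂)
    (hG : |i.g 1| ≤ G)
    (hb : Bent u Q κ σ i η₁ L M z) (hb' : Bent u Q κ σ i η₁ L' M' z)
    (hzi : |u.zh z - i.g 0| + η₁ ≤ ρ') (hzj : |u.zh z - j.g 0| + η₁ ≤ ρ') {s : Fin 18 → ℝ}
    (hs : ∀ k, |coW κ i j k| ≤ s k) {Ra Rb : ℝ}
    (hRa : s 2 + ρ' * s 1 + 2 * η₁ * (1 + V) ≤ Ra)
    (hRb : s 3 + ρ' * s 1 ^ 2 + 2 * (σ * (Γ * (1 + 3 * V + 6 * V ^ 2)) * ρ') +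
      2 * η₁ * (1 + V) * (1 + 2 * G) + 2 * η₂ * Ra ≤ Rb) :
    |u.xh (L'.pos z) 1 - u.xh (L.pos z) 1| ≤ Ra ∧
    |(u.xh (L'.pos z) 2 - u.xh (L.pos z) 2) -
      (-2 * κ * cA) * (u.xh (L'.pos z) 1 - u.xh (L.pos z) 1)| ≤ Rb := by
  obtain ⟨z1, b1, bb, -⟩ := hb
  obtain ⟨z2, c1, cc, -⟩ := hb'
  have b2 := bb 1
  have b3 := bb 2
  have c2 := cc 1
  have c3 := cc 2
  have hη : 0 ≤ η₁ := (abs_nonneg _).trans b1
  have hV0 : 0 ≤ V := (abs_nonneg _).trans (hV 0)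
  have hG0 : 0 ≤ G := (abs_nonneg _).trans hG
  have t1 : |z1 - i.g 0| ≤ ρ' := by
    have := a2 b1 (le_refl |u.zh z - i.g 0|)
    rw [sub_add_sub_cancel] at this
    linarith
  have t2 : |z1 - j.g 0| ≤ ρ' := by
    have := a2 b1 (le_refl |u.zh z - j.g 0|)
    rw [sub_add_sub_cancel] at this
    linarith
  have t12 : |z2 - z1| ≤ 2 * η₁ := by
    have := s2 c1 b1
    rw [sub_sub_sub_cancel_right] at this
    linarith
  have hra := GeoW778.ra_bound hM hM' t2 hs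
  have hrb := GeoW778.rb_bound hM hM' hκ hσ hGi hGj hV hV' t1 t2 hs
  -- errors
  set eA := (u.xh (L'.pos z) 1 - u.xh (L.pos z) 1) - (M'.pos z1 1 - M.pos z1 1) with heA
  set eB := (u.xh (L'.pos z) 2 - u.xh (L.pos z) 2) - (M'.pos z1 2 - M.pos z1 2) with heB
  have hA : |eA| ≤ 2 * η₁ * (1 + V) := by
    have e1 : eA = (u.xh (L'.pos z) 1 - M'.pos z2 1) - (u.xh (L.pos z) 1 - M.pos z1 1) +
        (z2 - z1) * M'.v 1 := by
      rw [heA, pos_shift M' z1 z2 1]; ring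
    rw [e1]
    have := a2 (s2 c2 b2) (m2 t12 (hV' 1))
    linarith
  have hB : |eB| ≤ 2 * η₁ * (1 + V) := by
    have e1 : eB = (u.xh (L'.pos z) 2 - M'.pos z2 2) - (u.xh (L.pos z) 2 - M.pos z1 2) +
        (z2 - z1) * M'.v 2 := by
      rw [heB, pos_shift M' z1 z2 2]; ring
    rw [e1]
    have := a2 (s2 c3 b3) (m2 t12 (hV' 2))
    linarith
  have hA1 : |u.xh (L'.pos z) 1 - u.xh (L.pos z) 1| ≤ Ra := by
    have e1 : u.xh (L'.pos z) 1 - u.xh (L.pos z) 1 = (M'.pos z1 1 - M.pos z1 1) + eA := by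
      rw [heA]; ring
    rw [e1]
    exact (a2 hra hA).trans hRa
  refine ⟨hA1, ?_⟩
  have e1 : (u.xh (L'.pos z) 2 - u.xh (L.pos z) 2) -
      (-2 * κ * cA) * (u.xh (L'.pos z) 1 - u.xh (L.pos z) 1) =
      ((M'.pos z1 2 - M.pos z1 2) - (-2 * κ * i.g 1) * (M'.pos z1 1 - M.pos z1 1)) +
      (eB - (-2 * κ * i.g 1) * eA) + 2 * κ * (cA - i.g 1) *
        (u.xh (L'.pos z) 1 - u.xh (L.pos z) 1) := by
    rw [heA, heB]; ring
  have k1 : |-2 * κ * i.g 1| ≤ 2 * G := by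
    have : -2 * κ * i.g 1 = -(2 * κ * i.g 1) := by ring
    rw [this, abs_neg, abs_mul, abs_mul, abs_two]
    have := mul_le_mul hκ hG (abs_nonneg _) zero_le_one
    nlinarith [abs_nonneg κ, abs_nonneg (i.g 1)]
  have k2 : |2 * κ * (cA - i.g 1)| ≤ 2 * η₂ := by
    rw [abs_mul, abs_mul, abs_two]
    have := mul_le_mul hκ hc (abs_nonneg _) zero_le_one
    nlinarith
  rw [e1]
  have := a2 (a2 hrb (s2 hB (m2 k1 hA))) (m2 k2 hA1)
  refine this.trans (le_trans (le_of_eq ?_) hRb)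
  ring

/-- value of the sheet along a bent line -/
theorem val_bent {u : Un} {Q : Qd} {κ σ : ℝ} {i j : FW} {η₁ : ℝ} {L' M' : Ln4}
    {z : ℝ} (hM' : TrueW κ σ j M') (hσ : 0 ≤ σ)
    {Γ V R X ρ' : ℝ} (hGi : ∀ k, |i.G k| ≤ Γ) (hGj : ∀ k, |j.G k| ≤ Γ)
    (hV' : ∀ k, |M'.v k| ≤ V)
    (hb' : Bent u Q κ σ i η₁ L' M' z) (hz : |u.zh z| + η₁ ≤ R)
    (hzj : |u.zh z - j.g 0| + η₁ ≤ ρ') {s : Fin 18 → ℝ}
    (hs : ∀ k, |coW κ i j k| ≤ s k) (hX : ∀ z', |z' - u.zh z| ≤ η₁ → ∀ k, |M'.pos z' k| ≤ X)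
    (hsm : σ * DW Γ R X V ρ' ≤ 1) :
    |Q.ev (u.zh z) (u.xh (L'.pos z))| ≤
      4 * (σ * (s 17 + ρ' * s 16 + ρ' ^ 2 * s 13 + σ * EW Γ R X V ρ')) := by
  obtain ⟨z2, c1, -, c4⟩ := hb'
  have t1 : |z2| ≤ R := by
    have := a2 c1 (le_refl |u.zh z|)
    rw [sub_add_cancel] at this
    linarith
  have t2 : |z2 - j.g 0| ≤ ρ' := by
    have := a2 c1 (le_refl |u.zh z - j.g 0|)
    rw [sub_add_sub_cancel] at this
    linarith
  exact c4.trans (mul_le_mul_of_nonneg_left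
    (GeoW778.q_bound hM' hσ hGi hGj hV' t1 (hX z2 c1) t2 hs hsm) (by norm_num))

/-- **[GEO-D] for the W-chart, finite form, original coordinates**: a legal box around the flagged
line `i` (true line `T`) is contained in one sheet of class C* around `T`. -/
theorem gdW {f : Fin 3 → V3} (hf : Ortho f) {c T M : Ln4} {u : Un} (hu : u.Ok) {Q : Qd}
    {κ σ : ℝ} {i : FW} (hM : TrueW κ σ i M) (hκ : |κ| ≤ 1) (hσ : 0 ≤ σ)
    {Γ V R X ρ' G η η₁ η₂ Am zm cA θ θ' z0 ρ r0 a w1 w2 Ra Rb An Rn X0 X1 X2 : ℝ}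
    {s : Fin 18 → ℝ}
    (hGi : ∀ k, |i.G k| ≤ Γ) (hV : ∀ k, |M.v k| ≤ V) (hG : |i.g 1| ≤ G)
    (hc : |cA - i.g 1| ≤ η₂) (hη₁ : 0 ≤ η₁) (hρ : 0 ≤ ρ)
    (hT : ∀ z, u.xh ((rl f c T).pos z) 1 = Am + cA * (u.zh z - zm))
    (hb : ∀ z, z0 ≤ z → z ≤ z0 + ρ → Bent u Q κ σ i η₁ (rl f c T) M z)
    (hz : ∀ z, z0 ≤ z → z ≤ z0 + ρ → |u.zh z| + η₁ ≤ R ∧ |u.zh z - zm| ≤ θ ∧
      |u.zh z - i.g 0| + η₁ ≤ ρ')
    (hMX : ∀ z', |z'| ≤ R → ∀ k, |M.pos z' k| ≤ X)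
    (hsm : σ * DW Γ R X V ρ' ≤ 1)
    -- closeness to the model gradient
    (hN : ∀ z, z0 ≤ z → z ≤ z0 + ρ → ∀ x : V3, |x 1 - u.xh ((rl f c T).pos z) 1| ≤ X1 →
      |x 2 - u.xh ((rl f c T).pos z) 2| ≤ X2 → |x 0 - u.xh ((rl f c T).pos z) 0| ≤ X0 →
      NearG Q κ η (u.zh z) x)
    (hX1 : 6 * (w1 / u.WA) ≤ X1) (hX1' : Ra ≤ X1)
    (hX2 : 4 * (w2 / u.WB) + 2 * |2 * κ * cA| * (w1 / u.WA) ≤ X2)
    (hX2' : Rb + |2 * κ * cA| * Ra ≤ X2)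
    (hX0 : 4 * (w2 / u.WY) + 2 * (|2 * κ * Am| + |zm| * |2 * κ * cA|) * (w1 / u.WA) ≤ X0)
    (hX0' : X + η₁ ≤ X0)
    -- smallness
    (h1 : |2 * κ * cA| * θ + 12 * |κ| * (w1 / u.WA) ≤ θ')
    (h2 : 2 * η + (θ + θ') / 2 ≤ 1 / 2) (h3 : 3 * η + θ + θ' ≤ 1) (hη : η ≤ 1 / 2)
    (h4 : (12 * |κ| * (w1 / u.WA) +
      η * (1 + |2 * κ * Am| + |2 * κ * cA| + |zm| * |2 * κ * cA|)) * (w1 / u.WA) ≤
        w2 / u.WB)
    -- sizes
    (hRa : s 2 + ρ' * s 1 + 2 * η₁ * (1 + V) ≤ Ra)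
    (hRb : s 3 + ρ' * s 1 ^ 2 + 2 * (σ * (Γ * (1 + 3 * V + 6 * V ^ 2)) * ρ') +
      2 * η₁ * (1 + V) * (1 + 2 * G) + 2 * η₂ * Ra ≤ Rb)
    (hAn : 4 * (σ * (s 17 + ρ' * s 16 + ρ' ^ 2 * s 13 + σ * EW Γ R X V ρ')) ≤ An)
    (hRn : 2 * (2 * An + θ * Rb + |κ| * Ra ^ 2 + η * ((1 + |2 * κ * Am|) * Ra +
      (1 + |zm|) * (Rb + |2 * κ * cA| * Ra))) ≤ Rn)
    (k1 : u.WY * Rn + (1 + (|2 * κ * Am| + |zm| * |2 * κ * cA|) + |2 * κ * cA|) *
      (u.WA * Ra) + (1 + |zm|) * (u.WB * Rb) ≤ w1)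
    (k2 : u.WY * Rn + (1 + |2 * κ * Am| + |zm|) * (u.WB * Rb) ≤ w2)
    (hAn0 : 0 ≤ An) (ha : u.WY * An ≤ a) (ha0 : 0 < a) (haw : a ≤ w2) (hw : w2 ≤ w1)
    (hr : r0 ≤ a) :
    ∃ (e : Fin 3 → V3) (w : V3) (q : ℝ → V3 → ℝ), w 0 = w2 ∧ w 1 = w1 ∧ w 2 = w2 ∧
      ShN e T w q a z0 ρ r0 ∧
      ∀ (t' M' : Ln4) (j : FW), TrueW κ σ j M' → (∀ k, |j.G k| ≤ Γ) → (∀ k, |M'.v k| ≤ V) →
        (∀ z, z0 ≤ z → z ≤ z0 + ρ → Bent u Q κ σ i η₁ (rl f c t') M' z ∧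
          |u.zh z - j.g 0| + η₁ ≤ ρ') →
        (∀ z', |z'| ≤ R → ∀ k, |M'.pos z' k| ≤ X) →
        (∀ k, |coW κ i j k| ≤ s k) → InSheet t' e T w q a z0 ρ := by
  have hw0 : (![w2, w1, w2] : V3) 0 = (![w2, w1, w2] : V3) 2 := rfl
  refine ⟨fo f (u.fr κ Am zm cA), ![w2, w1, w2], qo f c (u.q κ Am zm Q).ev, rfl, rfl, rfl,
    ?_, ?_⟩
  · refine shN_move hf (shN_near (η := η) (θ := θ) (θ' := θ') hu hT hw0 ha0 haw hw hr
      (fun z h0 h1 => (hz z h0 h1).2.1) ?_ h1 h2 h3 h4)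
    intro z h0 h1 x b1 b2 b0
    exact hN z h0 h1 x (b1.trans hX1) (b2.trans hX2) (b0.trans hX0)
  · intro t' M' j hM' hGj hV' hb' hMX' hs
    rw [inSheet_move]
    have hlat : ∀ z, z0 ≤ z → z ≤ z0 + ρ →
        |u.xh ((rl f c t').pos z) 1 - u.xh ((rl f c T).pos z) 1| ≤ Ra ∧
        |(u.xh ((rl f c t').pos z) 2 - u.xh ((rl f c T).pos z) 2) -
          (-2 * κ * cA) * (u.xh ((rl f c t').pos z) 1 - u.xh ((rl f c T).pos z) 1)| ≤ Rb :=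
      fun z h0 h1 => lat_bent hM hM' hκ hσ hGi hGj hV hV' hc hG (hb z h0 h1) (hb' z h0 h1).1
        (hz z h0 h1).2.2 (hb' z h0 h1).2 hs hRa hRb
    refine box_near (η := η) (θ := θ) (Ra := Ra) (Rb := Rb) (An := An) (Rn := Rn) hu hT hη
      (fun z h0 h1 => (hz z h0 h1).2.1) ?_ (fun z h0 h1 => (hlat z h0 h1).1)
      (fun z h0 h1 => (hlat z h0 h1).2) ?_ ?_ hRn ?_ k1 k2 ha
    · -- the midpoint
      intro z h0 h1
      obtain ⟨hA, hB⟩ := hlat z h0 h1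
      obtain ⟨z1, b1, bb, -⟩ := hb z h0 h1
      obtain ⟨z2, c1, cc, -⟩ := (hb' z h0 h1).1
      have r1 : |z1| ≤ R := by
        have := a2 b1 (le_refl |u.zh z|)
        rw [sub_add_cancel] at this
        linarith [(hz z h0 h1).1]
      have r2 : |z2| ≤ R := by
        have := a2 c1 (le_refl |u.zh z|)
        rw [sub_add_cancel] at this
        linarith [(hz z h0 h1).1]
      have half : ∀ k, (u.xh ((rl f c T).pos z) k + u.xh ((rl f c t').pos z) k) / 2 -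
          u.xh ((rl f c T).pos z) k =
          (u.xh ((rl f c t').pos z) k - u.xh ((rl f c T).pos z) k) / 2 := by
        intro k; ring
      have hh : ∀ y : ℝ, |y / 2| = |y| / 2 := by
        intro y; rw [abs_div, abs_two]
      refine hN z h0 h1 _ ?_ ?_ ?_
      · rw [half, hh]
        have := abs_nonneg (u.xh ((rl f c t').pos z) 1 - u.xh ((rl f c T).pos z) 1)
        linarith
      · rw [half, hh]
        have e1 : u.xh ((rl f c t').pos z) 2 - u.xh ((rl f c T).pos z) 2 =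
            ((u.xh ((rl f c t').pos z) 2 - u.xh ((rl f c T).pos z) 2) -
              (-2 * κ * cA) * (u.xh ((rl f c t').pos z) 1 - u.xh ((rl f c T).pos z) 1)) +
            -(2 * κ * cA) * (u.xh ((rl f c t').pos z) 1 - u.xh ((rl f c T).pos z) 1) := by
          ring
        have := a2 hB (m2 (le_of_eq (abs_neg (2 * κ * cA))) hA)
        rw [← e1] at this
        have := abs_nonneg (u.xh ((rl f c t').pos z) 2 - u.xh ((rl f c T).pos z) 2)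
        linarith
      · rw [half, hh]
        have e1 : u.xh ((rl f c t').pos z) 0 - u.xh ((rl f c T).pos z) 0 =
            ((u.xh ((rl f c t').pos z) 0 - M'.pos z2 0) - (u.xh ((rl f c T).pos z) 0 -
              M.pos z1 0)) + (M'.pos z2 0 - M.pos z1 0) := by ring
        have := a2 (s2 (cc 0) (bb 0)) (s2 (hMX' z2 r2 0) (hMX z1 r1 0))
        rw [← e1] at this
        linarith
    · intro z h0 h1
      refine (val_bent hM' hσ hGi hGj hV' (hb' z h0 h1).1 (hz z h0 h1).1 (hb' z h0 h1).2 hs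
        (fun z' hz' k => hMX' z' ?_ k) hsm).trans hAn
      have := a2 hz' (le_refl |u.zh z|)
      rw [sub_add_cancel] at this
      linarith [(hz z h0 h1).1]
    · intro z h0 h1
      obtain ⟨z1, b1, bb, b4⟩ := hb z h0 h1
      rw [hM.on z1, abs_zero, mul_zero] at b4
      exact b4.trans hAn0
    · have hzm := abs_nonneg zm
      have n1 : 0 ≤ (1 + |2 * κ * Am| + |zm|) * (u.WB * Rb) := by
        have hRb0 : 0 ≤ Rb := (abs_nonneg _).trans (hlat z0 le_rfl (by linarith)).2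
        have := hu.B0
        positivity
      show u.WY * Rn ≤ w2
      linarith

end Crest.Agent.R136.GeoN778
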