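import Crest.Agent.R136.NetW5_191
import Crest.Agent.R136.Sh1_605

/-!
# R136: sheets over a fixed quadric (helper778)

Coordinates of `ℝ³` in the order `(Y, A, B)`.  `evW G z x` : quadratic polynomial with `14`
coefficients, in the order `YY, BY, AY, BB, zY, AB, AA, zB, zA, zz, B, A, z, 1`.
`qW κ G z x = Y - z B - κ A² - evW G z x`.

`qW_isQ`, `qW_steep`, `qW_lip`, `sheetW` : for small `G` the function `qW κ G` defines sheets around
any line with any base frame `frm e`.  `lines_inSheet` : when a line is contained in such a sheet.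
-/

set_option autoImplicit false
set_option linter.unusedVariables false

namespace Crest.Agent.R136.GeoW778

open Crest.Agent.R136.Sh605
open Crest.Agent.R136.NetW191

/-! ### absolute values -/

theorem m2 {a b u w : ℝ} (ha : |a| ≤ u) (hb : |b| ≤ w) : |a * b| ≤ u * w := by
  rw [abs_mul]
  exact mul_le_mul ha hb (abs_nonneg _) ((abs_nonneg _).trans ha)

theorem a2 {a b u w : ℝ} (ha : |a| ≤ u) (hb : |b| ≤ w) : |a + b| ≤ u + w :=
  (abs_add_le _ _).trans (add_le_add ha hb)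

theorem s2 {a b u w : ℝ} (ha : |a| ≤ u) (hb : |b| ≤ w) : |a - b| ≤ u + w :=
  (abs_sub _ _).trans (add_le_add ha hb)

theorem n1 {a u : ℝ} (ha : |a| ≤ u) : |-a| ≤ u := by rwa [abs_neg]

/-! ### the quadratic polynomials -/

/-- quadratic polynomial in `(z, Y, A, B)` without the monomial `Y`, `x = (Y, A, B)` -/
def evW (G : Fin 14 → ℝ) (z : ℝ) (x : V3) : ℝ :=
  G 0 * (x 0 * x 0) + G 1 * (x 2 * x 0) + G 2 * (x 1 * x 0) + G 3 * (x 2 * x 2) + G 4 * (z * x 0) +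
    G 5 * (x 1 * x 2) + G 6 * (x 1 * x 1) + G 7 * (z * x 2) + G 8 * (z * x 1) + G 9 * (z * z) +
    G 10 * x 2 + G 11 * x 1 + G 12 * z + G 13

/-- the function vanishing on the sheet -/
def qW (κ : ℝ) (G : Fin 14 → ℝ) (z : ℝ) (x : V3) : ℝ :=
  x 0 - z * x 2 - κ * (x 1) ^ 2 - evW G z x

theorem evW_eq (G : Fin 14 → ℝ) (z : ℝ) (x : V3) : evW G z x = evY G z (x 1) (x 2) (x 0) := by
  simp only [evW, evY]; ring

theorem evW_smul (σ : ℝ) (G : Fin 14 → ℝ) (z : ℝ) (x : V3) :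
    evW (fun k => σ * G k) z x = σ * evW G z x := by
  simp only [evW]; ring

theorem qW_eq (κ : ℝ) (G : Fin 14 → ℝ) (z : ℝ) (x : V3) :
    qW κ G z x = ht κ z (x 1) (x 2) (x 0) - evW G z x := rfl

theorem evW_sub (G G' : Fin 14 → ℝ) (z : ℝ) (x : V3) :
    evW (fun k => G k - G' k) z x = evW G z x - evW G' z x := by
  simp only [evW]; ring

theorem qW_isQ (κ : ℝ) (G : Fin 14 → ℝ) : IsQ (qW κ G) := by
  refine ⟨-G 13, -G 12, -G 9, ![1, -G 11, -G 10], ![-G 4, -G 8, -1 - G 7],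
    ![![-G 0, -G 2, -G 1], ![0, -κ - G 6, -G 5], ![0, 0, -G 3]], ?_⟩
  intro z x
  simp only [qW, evW, Fin.sum_univ_three, Matrix.cons_val]
  ring

/-- difference of the values at two points -/
theorem evW_diff (G : Fin 14 → ℝ) (z : ℝ) (x x' : V3) : evW G z x - evW G z x' =
    (G 0 * (x 0 + x' 0) + G 1 * x 2 + G 2 * x 1 + G 4 * z) * (x 0 - x' 0) +
    (G 2 * x' 0 + G 5 * x' 2 + G 6 * (x 1 + x' 1) + G 8 * z + G 11) * (x 1 - x' 1) +
    (G 1 * x' 0 + G 3 * (x 2 + x' 2) + G 5 * x 1 + G 7 * z + G 10) * (x 2 - x' 2) := by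
  simp only [evW]; ring

theorem evW_bound {G : Fin 14 → ℝ} {γ R X z : ℝ} {x : V3} (hG : ∀ k, |G k| ≤ γ) (hz : |z| ≤ R)
    (hx : ∀ k, |x k| ≤ X) : |evW G z x| ≤ γ * (1 + R + 2 * X + R ^ 2 + 3 * (R * X) + 6 * X ^ 2) := by
  have h := a2 (a2 (a2 (a2 (a2 (a2 (a2 (a2 (a2 (a2 (a2 (a2 (a2
    (m2 (hG 0) (m2 (hx 0) (hx 0))) (m2 (hG 1) (m2 (hx 2) (hx 0)))) (m2 (hG 2) (m2 (hx 1) (hx 0))))
    (m2 (hG 3) (m2 (hx 2) (hx 2)))) (m2 (hG 4) (m2 hz (hx 0)))) (m2 (hG 5) (m2 (hx 1) (hx 2))))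
    (m2 (hG 6) (m2 (hx 1) (hx 1)))) (m2 (hG 7) (m2 hz (hx 2)))) (m2 (hG 8) (m2 hz (hx 1))))
    (m2 (hG 9) (m2 hz hz))) (m2 (hG 10) (hx 2))) (m2 (hG 11) (hx 1))) (m2 (hG 12) hz)) (hG 13)
  have e : evW G z x = G 0 * (x 0 * x 0) + G 1 * (x 2 * x 0) + G 2 * (x 1 * x 0) +
    G 3 * (x 2 * x 2) + G 4 * (z * x 0) + G 5 * (x 1 * x 2) + G 6 * (x 1 * x 1) +
    G 7 * (z * x 2) + G 8 * (z * x 1) + G 9 * (z * z) + G 10 * x 2 + G 11 * x 1 + G 12 * z +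
    G 13 := rfl
  rw [e]
  refine h.trans (le_of_eq ?_)
  ring

/-- Lipschitz bound -/
theorem evW_lip {G : Fin 14 → ℝ} {γ R X z : ℝ} {x x' : V3} (hG : ∀ k, |G k| ≤ γ) (hz : |z| ≤ R)
    (hx : ∀ k, |x k| ≤ X) (hx' : ∀ k, |x' k| ≤ X) :
    |evW G z x - evW G z x'| ≤
      γ * (1 + R + 4 * X) * (|x 0 - x' 0| + |x 1 - x' 1| + |x 2 - x' 2|) := by
  have hγ : 0 ≤ γ := (abs_nonneg _).trans (hG 0)
  have c0 : |G 0 * (x 0 + x' 0) + G 1 * x 2 + G 2 * x 1 + G 4 * z| ≤ γ * (1 + R + 4 * X) := by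
    have := a2 (a2 (a2 (m2 (hG 0) (a2 (hx 0) (hx' 0))) (m2 (hG 1) (hx 2))) (m2 (hG 2) (hx 1)))
      (m2 (hG 4) hz)
    linarith
  have c1 : |G 2 * x' 0 + G 5 * x' 2 + G 6 * (x 1 + x' 1) + G 8 * z + G 11| ≤
      γ * (1 + R + 4 * X) := by
    have := a2 (a2 (a2 (a2 (m2 (hG 2) (hx' 0)) (m2 (hG 5) (hx' 2)))
      (m2 (hG 6) (a2 (hx 1) (hx' 1)))) (m2 (hG 8) hz)) (hG 11)
    linarith
  have c2 : |G 1 * x' 0 + G 3 * (x 2 + x' 2) + G 5 * x 1 + G 7 * z + G 10| ≤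
      γ * (1 + R + 4 * X) := by
    have := a2 (a2 (a2 (a2 (m2 (hG 1) (hx' 0)) (m2 (hG 3) (a2 (hx 2) (hx' 2))))
      (m2 (hG 5) (hx 1))) (m2 (hG 7) hz)) (hG 10)
    linarith
  rw [evW_diff]
  have := a2 (a2 (m2 c0 (le_refl |x 0 - x' 0|)) (m2 c1 (le_refl |x 1 - x' 1|)))
    (m2 c2 (le_refl |x 2 - x' 2|))
  refine this.trans (le_of_eq ?_)
  ring

theorem qW_lip {κ : ℝ} {G : Fin 14 → ℝ} {γ R X z : ℝ} {x x' : V3} (hκ : |κ| ≤ 1)
    (hG : ∀ k, |G k| ≤ γ) (hγ : γ * (1 + R + 4 * X) ≤ 1 / 2) (hz : |z| ≤ R) (hx : ∀ k, |x k| ≤ X)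
    (hx' : ∀ k, |x' k| ≤ X) :
    |qW κ G z x - qW κ G z x'| ≤
      (2 + R + 2 * X) * (|x 0 - x' 0| + |x 1 - x' 1| + |x 2 - x' 2|) := by
  have hX0 : 0 ≤ X := (abs_nonneg _).trans (hx 0)
  have hR0 : 0 ≤ R := (abs_nonneg _).trans hz
  have h := evW_lip hG hz hx hx'
  have e : qW κ G z x - qW κ G z x' = (x 0 - x' 0) - (z * (x 2 - x' 2)) -
      (κ * ((x 1 + x' 1) * (x 1 - x' 1))) - (evW G z x - evW G z x') := by
    simp only [qW]; ring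
  have b := s2 (s2 (s2 (le_refl |x 0 - x' 0|) (m2 hz (le_refl |x 2 - x' 2|)))
    (m2 hκ (m2 (a2 (hx 1) (hx' 1)) (le_refl |x 1 - x' 1|)))) h
  rw [e]
  refine b.trans ?_
  have n0 := abs_nonneg (x 0 - x' 0)
  have n1 := abs_nonneg (x 1 - x' 1)
  have n2 := abs_nonneg (x 2 - x' 2)
  have h2 : γ * (1 + R + 4 * X) * (|x 0 - x' 0| + |x 1 - x' 1| + |x 2 - x' 2|) ≤
      1 / 2 * (|x 0 - x' 0| + |x 1 - x' 1| + |x 2 - x' 2|) :=
    mul_le_mul_of_nonneg_right hγ (by positivity)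
  have h3 : 0 ≤ R * |x 0 - x' 0| := by positivity
  have h4 : 0 ≤ R * |x 1 - x' 1| := by positivity
  have h5 : 0 ≤ X * |x 0 - x' 0| := by positivity
  have h6 : 0 ≤ X * |x 2 - x' 2| := by positivity
  nlinarith

/-! ### the frame -/

/-- `√(1 + e²)` -/
noncomputable def nu (e : ℝ) : ℝ := Real.sqrt (1 + e ^ 2)

theorem nu_sq (e : ℝ) : nu e ^ 2 = 1 + e ^ 2 := Real.sq_sqrt (by positivity)

theorem nu_ge (e : ℝ) : 1 ≤ nu e := by
  have h := nu_sq e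
  have h0 : 0 ≤ nu e := Real.sqrt_nonneg _
  nlinarith [sq_nonneg e]

theorem nu_pos (e : ℝ) : 0 < nu e := lt_of_lt_of_le one_pos (nu_ge e)

theorem abs_le_nu (e : ℝ) : |e| ≤ nu e := by
  rw [nu]
  apply Real.le_sqrt_of_sq_le
  rw [sq_abs]
  linarith

/-- the frame with `e 0` the `Y`-axis and `e 1` the axis `(1, e)` of the `(A, B)`-plane -/
noncomputable def frm (e : ℝ) : Fin 3 → V3 :=
  ![![1, 0, 0], ![0, 1 / nu e, e / nu e], ![0, -e / nu e, 1 / nu e]]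

theorem frm_ortho (e : ℝ) : Ortho (frm e) := by
  have h := nu_sq e
  have hp := (nu_pos e).ne'
  have h1 : 1 / nu e * (1 / nu e) + e / nu e * (e / nu e) = 1 := by
    field_simp
    linarith
  have h2 : -e / nu e * (-e / nu e) + 1 / nu e * (1 / nu e) = 1 := by
    field_simp
    linarith
  have h3 : 1 / nu e * (-e / nu e) + e / nu e * (1 / nu e) = 0 := by
    field_simp
    ring
  intro i j
  fin_cases i <;> fin_cases j <;>
    simp only [frm, dt, Fin.zero_eta, Fin.mk_one, Fin.reduceFinMk, Matrix.cons_val,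
      Fin.isValue, if_true, mul_zero, zero_mul, add_zero, zero_add, mul_one, Fin.reduceEq,
      if_false]
  · exact h1
  · exact h3
  · linarith
  · exact h2

theorem dt_frm0 (e : ℝ) (x : V3) : dt (frm e 0) x = x 0 := by
  simp [frm, dt]

theorem dt_frm1 (e : ℝ) (x : V3) : dt (frm e 1) x = (x 1 + e * x 2) / nu e := by
  simp only [frm, dt, Matrix.cons_val, zero_mul]
  ring

theorem dt_frm2 (e : ℝ) (x : V3) : dt (frm e 2) x = (x 2 - e * x 1) / nu e := by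
  simp only [frm, dt, Matrix.cons_val, zero_mul]
  ring

/-- from the frame back to the coordinates -/
theorem frm_bound (e : ℝ) {x : V3} {W1 W2 : ℝ} (h1 : |dt (frm e 1) x| ≤ W1)
    (h2 : |dt (frm e 2) x| ≤ W2) : |x 1| ≤ W1 + W2 ∧ |x 2| ≤ W1 + W2 := by
  have ho := frm_ortho e
  have e1 := ho.expand x 1
  have e2 := ho.expand x 2
  have hn := nu_ge e
  have hp := nu_pos e
  have hne := abs_le_nu e
  have a1 : |1 / nu e| ≤ 1 := by
    rw [abs_of_pos (by positivity), div_le_one hp]; exact hn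
  have a2' : |e / nu e| ≤ 1 := by
    rw [abs_div, abs_of_pos hp, div_le_one hp]; exact hne
  have a3 : |-e / nu e| ≤ 1 := by
    rw [abs_div, abs_neg, abs_of_pos hp, div_le_one hp]; exact hne
  have f1 : x 1 = dt (frm e 1) x * (1 / nu e) + dt (frm e 2) x * (-e / nu e) := by
    have g0 : frm e 0 1 = 0 := rfl
    have g1 : frm e 1 1 = 1 / nu e := rfl
    have g2 : frm e 2 1 = -e / nu e := rfl
    rw [g0, g1, g2] at e1
    linarith
  have f2 : x 2 = dt (frm e 1) x * (e / nu e) + dt (frm e 2) x * (1 / nu e) := by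
    have g0 : frm e 0 2 = 0 := rfl
    have g1 : frm e 1 2 = e / nu e := rfl
    have g2 : frm e 2 2 = 1 / nu e := rfl
    rw [g0, g1, g2] at e2
    linarith
  constructor
  · rw [f1]
    have := a2 (m2 h1 a1) (m2 h2 a3)
    simpa using this
  · rw [f2]
    have := a2 (m2 h1 a2') (m2 h2 a1)
    simpa using this

/-! ### steepness -/

theorem qW_steep_eq (κ : ℝ) (G : Fin 14 → ℝ) (e z : ℝ) (x : V3) (τ : ℝ) :
    qW κ G z (x + τ • frm e 0) - qW κ G z x =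
      τ - (G 0 * ((x + τ • frm e 0) 0 + x 0) + G 1 * x 2 + G 2 * x 1 + G 4 * z) * τ := by
  simp only [qW, evW, frm, Pi.add_apply, Pi.smul_apply, smul_eq_mul, Matrix.cons_val]
  ring

theorem qW_steep {κ : ℝ} {G : Fin 14 → ℝ} {γ R X z : ℝ} (e : ℝ) {x : V3} {τ : ℝ}
    (hG : ∀ k, |G k| ≤ γ) (hγ : γ * (1 + R + 4 * X) ≤ 1 / 2) (hz : |z| ≤ R) (hx : ∀ k, |x k| ≤ X)
    (hx' : |(x + τ • frm e 0) 0| ≤ X) (hτ : 0 ≤ τ) :
    τ / 2 ≤ qW κ G z (x + τ • frm e 0) - qW κ G z x ∧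
      qW κ G z (x + τ • frm e 0) - qW κ G z x ≤ 2 * τ := by
  have hγ0 : 0 ≤ γ := (abs_nonneg _).trans (hG 0)
  have hb : |G 0 * ((x + τ • frm e 0) 0 + x 0) + G 1 * x 2 + G 2 * x 1 + G 4 * z| ≤ 1 / 2 := by
    have := a2 (a2 (a2 (m2 (hG 0) (a2 hx' (hx 0))) (m2 (hG 1) (hx 2))) (m2 (hG 2) (hx 1)))
      (m2 (hG 4) hz)
    linarith
  rw [qW_steep_eq]
  have := abs_le.1 hb
  constructor <;> nlinarith

/-! ### the sheet -/

/-- **the sheet of a small `G` around the line `t`** -/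
theorem sheetW {κ : ℝ} {G : Fin 14 → ℝ} {t : Ln4} {e : ℝ} {γ R X : ℝ} (hκ : |κ| ≤ 1)
    (hG : ∀ k, |G k| ≤ γ) (hγ : γ * (1 + R + 4 * X) ≤ 1 / 2) {w : V3} {a z0 ρ r0 : ℝ}
    (hR : ∀ z, z0 ≤ z → z ≤ z0 + ρ → |z| ≤ R) (hR0 : 0 ≤ R) (hX0 : 0 ≤ X)
    (hX : ∀ z, z0 ≤ z → z ≤ z0 + ρ → |t.pos z 0| + w 0 ≤ X ∧
      |t.pos z 1| + (2 * w 1 + 2 * w 2) ≤ X ∧ |t.pos z 2| + (2 * w 1 + 2 * w 2) ≤ X)
    (ha : a ≤ w 2) (hw : w 2 ≤ w 1) (hr : r0 ≤ a) (hres : r0 * (2 + R + 2 * X) ≤ a) :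
    Sheet (frm e) t w (qW κ G) a z0 ρ r0 := by
  have key : ∀ z, z0 ≤ z → z ≤ z0 + ρ → ∀ x : V3, InK (frm e) t (dbl w) z x →
      ∀ k, |x k| ≤ X := by
    intro z hz0 hz1 x hx
    obtain ⟨hX0, hX1, hX2⟩ := hX z hz0 hz1
    have b0 := hx 0
    have b1 := hx 1
    have b2 := hx 2
    rw [dt_frm0] at b0
    simp only [dbl, Matrix.cons_val] at b0 b1 b2
    obtain ⟨c1, c2⟩ := frm_bound e b1 b2
    simp only [Pi.sub_apply] at b0 c1 c2
    intro k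
    fin_cases k
    · show |x 0| ≤ X
      have := abs_add_le (x 0 - t.pos z 0) (t.pos z 0)
      rw [sub_add_cancel] at this
      linarith
    · show |x 1| ≤ X
      have := abs_add_le (x 1 - t.pos z 1) (t.pos z 1)
      rw [sub_add_cancel] at this
      linarith
    · show |x 2| ≤ X
      have := abs_add_le (x 2 - t.pos z 2) (t.pos z 2)
      rw [sub_add_cancel] at this
      linarith
  refine ⟨frm_ortho e, qW_isQ κ G, ?_, ha, hw, hr, 2 + R + 2 * X, by linarith, ?_, hres⟩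
  · intro z hz0 hz1 x τ hτ hx hx'
    exact qW_steep e hG hγ (hR z hz0 hz1) (key z hz0 hz1 x hx) (key z hz0 hz1 _ hx' 0) hτ
  · intro z hz0 hz1 x x' hx hx'
    exact qW_lip hκ hG hγ (hR z hz0 hz1) (key z hz0 hz1 x hx) (key z hz0 hz1 x' hx')

/-- **a line in the sheet of another one**: `t'` is laterally close to `t` over the window and
`|q (t')| ≤ a`, `|q (t)| ≤ a` -/
theorem lines_inSheet {κ : ℝ} {G : Fin 14 → ℝ} {t t' : Ln4} {e : ℝ} {γ R X : ℝ} (hκ : |κ| ≤ 1)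
    (hG : ∀ k, |G k| ≤ γ) (hγ : γ * (1 + R + 4 * X) ≤ 1 / 2) {w : V3} {a z0 ρ Ra Rb E : ℝ}
    (hR : ∀ z, z0 ≤ z → z ≤ z0 + ρ → |z| ≤ R) (he : |e| ≤ E)
    (hX : ∀ z, z0 ≤ z → z ≤ z0 + ρ → ∀ k, |t.pos z k| ≤ X ∧ |t'.pos z k| ≤ X)
    (hA : ∀ z, z0 ≤ z → z ≤ z0 + ρ → |t'.pos z 1 - t.pos z 1| ≤ Ra)
    (hB : ∀ z, z0 ≤ z → z ≤ z0 + ρ →
      |(t'.pos z 2 - t.pos z 2) - e * (t'.pos z 1 - t.pos z 1)| ≤ Rb)
    (hq : ∀ z, z0 ≤ z → z ≤ z0 + ρ → |qW κ G z (t'.pos z)| ≤ a)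
    (hq' : ∀ z, z0 ≤ z → z ≤ z0 + ρ → |qW κ G z (t.pos z)| ≤ a)
    (h1 : (1 + E ^ 2) * Ra + E * Rb ≤ w 1) (h2 : Rb ≤ w 2)
    (h0 : 4 * a + (4 + 2 * R + 4 * X) * ((1 + E) * Ra + Rb) ≤ w 0) (hρ : 0 ≤ ρ) :
    InSheet t' (frm e) t w (qW κ G) a z0 ρ := by
  intro z hz0 hz1
  have hR' := hR z hz0 hz1
  have hX' := hX z hz0 hz1
  have hA' := hA z hz0 hz1
  have hB' := hB z hz0 hz1
  have hq1 := hq z hz0 hz1
  have hq2 := hq' z hz0 hz1
  have hn := nu_ge e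
  have hp := nu_pos e
  have hE0 : 0 ≤ E := (abs_nonneg _).trans he
  have hRa0 : 0 ≤ Ra := (abs_nonneg _).trans hA'
  have hRb0 : 0 ≤ Rb := (abs_nonneg _).trans hB'
  have hR0 : 0 ≤ R := (abs_nonneg _).trans hR'
  have hX0 : 0 ≤ X := (abs_nonneg _).trans (hX' 0).1
  have ha0 : 0 ≤ a := (abs_nonneg _).trans hq1
  have hD2 : |t'.pos z 2 - t.pos z 2| ≤ Rb + E * Ra := by
    have := a2 hB' (m2 he hA')
    rw [sub_add_cancel] at this
    exact this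
  refine ⟨?_, hq1⟩
  intro k
  fin_cases k
  · show |dt (frm e 0) _| ≤ w 0
    rw [dt_frm0]
    simp only [Pi.sub_apply]
    -- the Y-difference from the steepness
    have e1 : qW κ G z (t'.pos z) - qW κ G z (t.pos z) = (t'.pos z 0 - t.pos z 0) -
        (z * (t'.pos z 2 - t.pos z 2)) -
        (κ * ((t'.pos z 1 + t.pos z 1) * (t'.pos z 1 - t.pos z 1))) -
        (evW G z (t'.pos z) - evW G z (t.pos z)) := by
      simp only [qW]; ring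
    have h := evW_lip (z := z) hG hR' (fun k => (hX' k).2) (fun k => (hX' k).1)
    have e2 : t'.pos z 0 - t.pos z 0 = (qW κ G z (t'.pos z) - qW κ G z (t.pos z)) +
        (z * (t'.pos z 2 - t.pos z 2)) +
        (κ * ((t'.pos z 1 + t.pos z 1) * (t'.pos z 1 - t.pos z 1))) +
        (evW G z (t'.pos z) - evW G z (t.pos z)) := by rw [e1]; ring
    have b := a2 (a2 (a2 (s2 hq1 hq2) (m2 hR' hD2))
      (m2 hκ (m2 (a2 (hX' 1).2 (hX' 1).1) hA'))) h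
    rw [← e2] at b
    have n0 := abs_nonneg (t'.pos z 0 - t.pos z 0)
    have h2 : γ * (1 + R + 4 * X) *
        (|t'.pos z 0 - t.pos z 0| + |t'.pos z 1 - t.pos z 1| + |t'.pos z 2 - t.pos z 2|) ≤
        1 / 2 * (|t'.pos z 0 - t.pos z 0| + |t'.pos z 1 - t.pos z 1| +
          |t'.pos z 2 - t.pos z 2|) :=
      mul_le_mul_of_nonneg_right hγ (by positivity)
    have h3 : |t'.pos z 0 - t.pos z 0| ≤
        2 * (2 * a + R * (Rb + E * Ra) + 2 * X * Ra) + (Ra + (Rb + E * Ra)) := by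
      linarith
    refine h3.trans (le_trans ?_ h0)
    have h4 : 0 ≤ R * Ra := by positivity
    have h5 : 0 ≤ X * (E * Ra) := by positivity
    have h6 : 0 ≤ X * Rb := by positivity
    have h7 : 0 ≤ E * Ra := by positivity
    nlinarith
  · show |dt (frm e 1) _| ≤ w 1
    rw [dt_frm1, abs_div, abs_of_pos hp, div_le_iff₀ hp]
    simp only [Pi.sub_apply]
    have e1 : t'.pos z 1 - t.pos z 1 + e * (t'.pos z 2 - t.pos z 2) =
        (1 + e ^ 2) * (t'.pos z 1 - t.pos z 1) +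
        e * ((t'.pos z 2 - t.pos z 2) - e * (t'.pos z 1 - t.pos z 1)) := by ring
    have e2 : |1 + e ^ 2| ≤ 1 + E ^ 2 := by
      rw [abs_of_pos (by positivity)]
      have : e ^ 2 ≤ E ^ 2 := by
        rw [← sq_abs]; exact pow_le_pow_left₀ (abs_nonneg _) he 2
      linarith
    rw [e1]
    have := a2 (m2 e2 hA') (m2 he hB')
    refine this.trans (h1.trans ?_)
    have hw : 0 ≤ w 1 := le_trans (by positivity) h1
    exact le_mul_of_one_le_right hw hn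
  · show |dt (frm e 2) _| ≤ w 2
    rw [dt_frm2, abs_div, abs_of_pos hp, div_le_iff₀ hp]
    simp only [Pi.sub_apply]
    refine hB'.trans (h2.trans ?_)
    have hw : 0 ≤ w 2 := le_trans hRb0 h2
    exact le_mul_of_one_le_right hw hn

end Crest.Agent.R136.GeoW778
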