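import Crest.Agent.R136.Gf1_356

/-!
# R136: chart-free F-models (helper356)

`GCfg κ` = finite data at one `n`: lines `L`, heights `Z`, incidences `I ⊆ L × Z`, coordinates
`co k i : κ → ℝ` of the line `i` at the height `k` (`κ` any finite index type, e.g. `Fin m`).
`GUnif` = uniform counts in boxes of arbitrary side exponents in `[0, R]`, `GModel` = `GUnif` +
alive at a `ρ^o(1)`-part of the heights + Frostman heights.
-/

set_option autoImplicit false
set_option linter.unusedVariables false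
set_option linter.unusedSectionVars false

open Filter Topology Finset

namespace Crest.Agent.R136.Gf356

open Crest.Agent.R138.Ex926 (Base U)

/-! ### finite counting -/

/-- covering a bounded set by cells -/
theorem cover_abs {κ : Type} [Fintype κ] {ι : Type*} [DecidableEq ι] (T : Finset ι)
    (co : ι → κ → ℝ) (c a r : κ → ℝ) (hr : ∀ j, 0 < r j) (har : ∀ j, r j ≤ a j)
    (hT : ∀ i ∈ T, ∀ j, |co i j - c j| ≤ a j) {Mx : ℝ} (hM0 : 0 ≤ Mx)
    (hM : ∀ i ∈ T, ∀ S ⊆ T, (∀ i' ∈ S, ∀ j, |co i' j - co i j| ≤ r j) → (S.card : ℝ) ≤ Mx) :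
    (T.card : ℝ) ≤ 4 ^ (Fintype.card κ) * (∏ j, a j / r j) * Mx := by
  classical
  set cell : ι → (κ → ℤ) := fun i j => ⌊co i j / r j⌋ with hcell
  have h1 : T.card = ∑ c ∈ T.image cell, (T.filter fun i => cell i = c).card :=
    Finset.card_eq_sum_card_fiberwise fun i hi => Finset.mem_image_of_mem _ hi
  have h2 : ∀ c ∈ T.image cell, ((T.filter fun i => cell i = c).card : ℝ) ≤ Mx := by
    intro c hc
    obtain ⟨i1, hi1, hi1c⟩ := Finset.mem_image.1 hc
    refine hM i1 hi1 _ (Finset.filter_subset _ _) ?_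
    intro i' hi' j
    obtain ⟨a1, a2⟩ := Finset.mem_filter.1 hi'
    have e1 : ⌊co i' j / r j⌋ = ⌊co i1 j / r j⌋ := by
      have := congrFun (a2.trans hi1c.symm) j
      simpa [hcell] using this
    have h5 := Int.abs_sub_lt_one_of_floor_eq_floor e1
    rw [← sub_div, abs_div, abs_of_pos (hr j), div_lt_one (hr j)] at h5
    exact h5.le
  have h3 : (T.card : ℝ) ≤ (T.image cell).card * Mx := by
    calc (T.card : ℝ) = ∑ c ∈ T.image cell, ((T.filter fun i => cell i = c).card : ℝ) := by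
          exact_mod_cast h1
      _ ≤ ∑ c ∈ T.image cell, Mx := Finset.sum_le_sum h2
      _ = _ := by simp
  have h4 : ((T.image cell).card : ℝ) ≤ 4 ^ (Fintype.card κ) * (∏ j, a j / r j) := by
    set D : Finset (κ → ℤ) := Fintype.piFinset fun j =>
      Finset.Icc ⌊(c j - a j) / r j⌋ ⌊(c j + a j) / r j⌋ with hD
    have hsub : T.image cell ⊆ D := by
      intro c hc
      obtain ⟨i1, hi1, rfl⟩ := Finset.mem_image.1 hc
      rw [hD, Fintype.mem_piFinset]
      intro j
      have h := hT i1 hi1 j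
      rw [abs_le] at h
      rw [Finset.mem_Icc]
      constructor
      · apply Int.floor_le_floor
        exact (div_le_div_iff_of_pos_right (hr j)).2 (by linarith [h.1])
      · apply Int.floor_le_floor
        exact (div_le_div_iff_of_pos_right (hr j)).2 (by linarith [h.2])
    have h5 : (D.card : ℝ) ≤ ∏ j, (4 * (a j / r j)) := by
      rw [hD, Fintype.card_piFinset, Nat.cast_prod]
      refine Finset.prod_le_prod (fun j _ => Nat.cast_nonneg _) fun j _ => ?_
      rw [Int.card_Icc]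
      set u := (c j - a j) / r j
      set v := (c j + a j) / r j
      have huv : v - u = 2 * (a j / r j) := by
        simp only [u, v]
        have := (hr j).ne'
        field_simp
        ring
      have h6 : (1 : ℝ) ≤ a j / r j := (one_le_div (hr j)).2 (har j)
      have h7 : ((⌊v⌋ + 1 - ⌊u⌋ : ℤ) : ℝ) ≤ v - u + 2 := by
        push_cast
        linarith [Int.floor_le v, Int.lt_floor_add_one u]
      have h8 : ((⌊v⌋ + 1 - ⌊u⌋).toNat : ℝ) ≤ 2 * (a j / r j) + 2 := by
        rcases le_total 0 (⌊v⌋ + 1 - ⌊u⌋) with h | h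
        · have h9 : ((⌊v⌋ + 1 - ⌊u⌋).toNat : ℝ) = ((⌊v⌋ + 1 - ⌊u⌋ : ℤ) : ℝ) := by
            have : (((⌊v⌋ + 1 - ⌊u⌋).toNat : ℤ) : ℝ) = ((⌊v⌋ + 1 - ⌊u⌋ : ℤ) : ℝ) := by
              rw [Int.toNat_of_nonneg h]
            rw [← this]; norm_cast
          rw [h9]; linarith
        · rw [Int.toNat_of_nonpos h]
          simp only [Nat.cast_zero]
          linarith
      linarith
    calc ((T.image cell).card : ℝ) ≤ D.card := by exact_mod_cast Finset.card_le_card hsub
      _ ≤ ∏ j, (4 * (a j / r j)) := h5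
      _ = 4 ^ (Fintype.card κ) * (∏ j, a j / r j) := by
          rw [Finset.prod_mul_distrib, Finset.prod_const, Finset.card_univ]
  exact h3.trans (mul_le_mul_of_nonneg_right h4 hM0)

theorem abs_floor_sub_le_one {x y : ℝ} (h : |x - y| ≤ 1) : |⌊x⌋ - ⌊y⌋| ≤ 1 := by
  rw [abs_le] at h ⊢
  have f1 := Int.floor_le x
  have f2 := Int.lt_floor_add_one x
  have f3 := Int.floor_le y
  have f4 := Int.lt_floor_add_one y
  constructor
  · by_contra hcon
    push Not at hcon
    have h1 : ⌊x⌋ - ⌊y⌋ ≤ -2 := by omega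
    have h2 : ((⌊x⌋ - ⌊y⌋ : ℤ) : ℝ) ≤ ((-2 : ℤ) : ℝ) := by exact_mod_cast h1
    push_cast at h2
    linarith [h.1]
  · by_contra hcon
    push Not at hcon
    have h1 : 2 ≤ ⌊x⌋ - ⌊y⌋ := by omega
    have h2 : ((2 : ℤ) : ℝ) ≤ ((⌊x⌋ - ⌊y⌋ : ℤ) : ℝ) := by exact_mod_cast h1
    push_cast at h2
    linarith [h.2]

/-- number of cells met by `T`, if every cell box contains at least `m0` points of `W` -/
theorem cells_le_abs {κ : Type} [Fintype κ] {ι : Type*} [DecidableEq ι] (T W : Finset ι)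
    (co : ι → κ → ℝ) (r : κ → ℝ) (hr : ∀ j, 0 < r j) {m0 : ℝ}
    (hm : ∀ i ∈ T, ∃ S ⊆ W, (∀ l ∈ S, ∀ j, |co l j - co i j| ≤ r j) ∧ m0 ≤ (S.card : ℝ)) :
    ((T.image fun i => fun j => ⌊co i j / r j⌋).card : ℝ) * m0
      ≤ 3 ^ (Fintype.card κ) * (W.card : ℝ) := by
  classical
  set lab : ι → (κ → ℤ) := fun i => fun j => ⌊co i j / r j⌋ with hlab
  have hbox : ∀ l ∈ T.image lab, m0 ≤
      ((W.filter fun i => ∀ j, |lab i j - l j| ≤ 1).card : ℝ) := by
    intro l hl
    obtain ⟨i, hi, rfl⟩ := Finset.mem_image.1 hl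
    obtain ⟨S, hS, hS1, hS2⟩ := hm i hi
    refine hS2.trans ?_
    have : S ⊆ W.filter fun i' => ∀ j, |lab i' j - lab i j| ≤ 1 := by
      intro l hl
      refine Finset.mem_filter.2 ⟨hS hl, fun j => ?_⟩
      refine abs_floor_sub_le_one ?_
      rw [← sub_div, abs_div, abs_of_pos (hr j), div_le_one (hr j)]
      exact hS1 l hl j
    exact_mod_cast Finset.card_le_card this
  have hsum : ∑ l ∈ T.image lab, ((W.filter fun i => ∀ j, |lab i j - l j| ≤ 1).card : ℝ)
      ≤ 3 ^ (Fintype.card κ) * W.card := by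
    have h1 : ∀ l ∈ T.image lab, ((W.filter fun i => ∀ j, |lab i j - l j| ≤ 1).card : ℝ) =
        ∑ i ∈ W, (if ∀ j, |lab i j - l j| ≤ 1 then (1 : ℝ) else 0) := by
      intro l _
      rw [card_filter]; push_cast; rfl
    rw [sum_congr rfl h1, sum_comm]
    calc ∑ i ∈ W, ∑ l ∈ T.image lab, (if ∀ j, |lab i j - l j| ≤ 1 then (1 : ℝ) else 0)
        ≤ ∑ i ∈ W, (3 ^ (Fintype.card κ) : ℝ) := by
          refine sum_le_sum fun i _ => ?_
          rw [← sum_filter, sum_const, nsmul_eq_mul, mul_one]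
          have h2 : ((T.image lab).filter fun l => ∀ j, |lab i j - l j| ≤ 1) ⊆
              Fintype.piFinset fun j : κ => Finset.Icc (lab i j - 1) (lab i j + 1) := by
            intro l hl
            rw [mem_filter] at hl
            rw [Fintype.mem_piFinset]
            intro j
            have := abs_le.1 (hl.2 j)
            rw [Finset.mem_Icc]
            constructor <;> linarith [this.1, this.2]
          have h3 := card_le_card h2
          rw [Fintype.card_piFinset] at h3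
          have h4 : ∀ j : κ, (Finset.Icc (lab i j - 1) (lab i j + 1)).card = 3 := by
            intro j
            rw [Int.card_Icc]
            omega
          simp only [h4, prod_const, card_univ] at h3
          exact_mod_cast h3
      _ = 3 ^ (Fintype.card κ) * W.card := by rw [sum_const, nsmul_eq_mul]; ring
  calc ((T.image lab).card : ℝ) * m0 = ∑ l ∈ T.image lab, m0 := by rw [sum_const, nsmul_eq_mul]
    _ ≤ _ := Finset.sum_le_sum hbox
    _ ≤ _ := hsum

/-! ### configurations -/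

/-- one finite configuration -/
structure GCfg (κ : Type) where
  ρ : ℝ
  L : Finset ℕ
  Z : Finset ℕ
  I : Finset (ℕ × ℕ)
  z : ℕ → ℝ
  co : ℕ → ℕ → κ → ℝ

namespace GCfg

variable {κ : Type} (G : GCfg κ)

/-- `i'` lies in the box of side exponents `p` around `i` at height `k` -/
def near (p : κ → ℝ) (k i i' : ℕ) : Prop := ∀ j, |G.co k i' j - G.co k i j| ≤ G.ρ ^ p j

/-- the lines alive at height `k` -/
def slice (k : ℕ) : Finset ℕ := G.L.filter fun i => (i, k) ∈ G.I

/-- the heights at which the line `i` is alive -/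
def hts (i : ℕ) : Finset ℕ := G.Z.filter fun k => (i, k) ∈ G.I

open Classical in
/-- the lines alive at height `k` in the box of side exponents `p` around `i` -/
noncomputable def box (p : κ → ℝ) (i k : ℕ) : Finset ℕ :=
  (G.slice k).filter fun i' => G.near p k i i'

open Classical in
/-- the heights near height `k` -/
noncomputable def hbox (x : ℝ) (k : ℕ) : Finset ℕ :=
  G.Z.filter fun k' => |G.z k' - G.z k| ≤ G.ρ ^ x

end GCfg

variable {κ : Type} [Fintype κ]

/-- uniform counts in boxes of arbitrary side exponents in `[0, R]` -/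
structure GUnif (B : Base) (G : ℕ → GCfg κ) (R : ℝ) (ν : (κ → ℝ) → ℝ) : Prop where
  base : ∀ n, (G n).ρ = B.d n
  sub : ∀ n, (G n).I ⊆ (G n).L ×ˢ (G n).Z
  nonempty : ∀ n, (G n).I.Nonempty
  bd : ∀ n i k, (i, k) ∈ (G n).I → ∀ j, |(G n).co k i j| ≤ 1 / 2
  R_pos : 0 < R
  unif : ∀ p : κ → ℝ, (∀ j, 0 ≤ p j ∧ p j ≤ R) → ∀ ε : ℝ, 0 < ε →
    ∀ᶠ n in (U : Filter ℕ), ∀ i k, (i, k) ∈ (G n).I →
      B.d n ^ (-ν p + ε) ≤ (((G n).box p i k).card : ℝ) ∧
      (((G n).box p i k).card : ℝ) ≤ B.d n ^ (-ν p - ε)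

/-- **chart-free F-model** (`FM_501.FModel` with arbitrary coordinates) -/
structure GModel (B : Base) (G : ℕ → GCfg κ) (σ R : ℝ) (ν : (κ → ℝ) → ℝ) : Prop
    extends GUnif B G R ν where
  σ_nonneg : 0 ≤ σ
  σ_le : σ ≤ 1
  line : ∀ ε : ℝ, 0 < ε → ∀ᶠ n in (U : Filter ℕ), ∀ i ∈ (G n).L,
    B.d n ^ ε * ((G n).Z.card : ℝ) ≤ (((G n).hts i).card : ℝ)
  slice : ∀ ε : ℝ, 0 < ε → ∀ᶠ n in (U : Filter ℕ), ∀ k ∈ (G n).Z,
    B.d n ^ ε * ((G n).L.card : ℝ) ≤ (((G n).slice k).card : ℝ)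
  frost : ∀ x : ℝ, 0 ≤ x → x ≤ R → ∀ ε : ℝ, 0 < ε → ∀ᶠ n in (U : Filter ℕ), ∀ k ∈ (G n).Z,
    (((G n).hbox x k).card : ℝ) ≤ B.d n ^ (σ * x - ε) * ((G n).Z.card : ℝ)

variable {B : Base} {G : ℕ → GCfg κ} {σ R : ℝ} {ν : (κ → ℝ) → ℝ}

omit [Fintype κ] in
theorem mem_slice {G : GCfg κ} {i k : ℕ} : i ∈ G.slice k ↔ i ∈ G.L ∧ (i, k) ∈ G.I := by
  simp [GCfg.slice]

omit [Fintype κ] in
theorem mem_hts {G : GCfg κ} {i k : ℕ} : k ∈ G.hts i ↔ k ∈ G.Z ∧ (i, k) ∈ G.I := by
  simp [GCfg.hts]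

omit [Fintype κ] in
theorem mem_box {G : GCfg κ} {p : κ → ℝ} {i i' k : ℕ} :
    i' ∈ G.box p i k ↔ i' ∈ G.slice k ∧ ∀ j, |G.co k i' j - G.co k i j| ≤ G.ρ ^ p j := by
  classical
  unfold GCfg.box
  rw [Finset.mem_filter]
  rfl

omit [Fintype κ] in
theorem box_subset_slice {G : GCfg κ} {p : κ → ℝ} {i k : ℕ} : G.box p i k ⊆ G.slice k :=
  fun _ h => (mem_box.1 h).1

namespace GUnif

variable (H : GUnif B G R ν)

include H

theorem ρpos (n : ℕ) : 0 < (G n).ρ := by rw [H.base]; exact B.pos n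

theorem memL {n i k : ℕ} (h : (i, k) ∈ (G n).I) : i ∈ (G n).L :=
  (Finset.mem_product.1 (H.sub n h)).1

theorem memZ {n i k : ℕ} (h : (i, k) ∈ (G n).I) : k ∈ (G n).Z :=
  (Finset.mem_product.1 (H.sub n h)).2

theorem memSlice {n i k : ℕ} : i ∈ (G n).slice k ↔ (i, k) ∈ (G n).I := by
  rw [mem_slice]
  exact ⟨fun h => h.2, fun h => ⟨H.memL h, h⟩⟩

theorem memHts {n i k : ℕ} : k ∈ (G n).hts i ↔ (i, k) ∈ (G n).I := by
  rw [mem_hts]
  exact ⟨fun h => h.2, fun h => ⟨H.memZ h, h⟩⟩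

theorem self_mem_box {n i k : ℕ} (h : (i, k) ∈ (G n).I) (p : κ → ℝ) : i ∈ (G n).box p i k := by
  rw [mem_box]
  refine ⟨H.memSlice.2 h, fun j => ?_⟩
  rw [sub_self, abs_zero, H.base]
  exact (rpos B n _).le

theorem co_sub_le {n i i' k : ℕ} (h : (i, k) ∈ (G n).I) (h' : (i', k) ∈ (G n).I) (j : κ) :
    |(G n).co k i' j - (G n).co k i j| ≤ 1 := by
  have h1 := H.bd n i k h j
  have h2 := H.bd n i' k h' j
  rw [abs_le] at *
  constructor <;> linarith [h1.1, h1.2, h2.1, h2.2]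

theorem box_anti (n : ℕ) {p p' : κ → ℝ} (hpp : ∀ j, p j ≤ p' j) (i k : ℕ) :
    (G n).box p' i k ⊆ (G n).box p i k := by
  intro i' hi'
  rw [mem_box] at hi' ⊢
  refine ⟨hi'.1, fun j => (hi'.2 j).trans ?_⟩
  rw [H.base]
  exact rpow_anti B n (hpp j)

theorem box_zero {n i k : ℕ} (h : (i, k) ∈ (G n).I) : (G n).box 0 i k = (G n).slice k := by
  apply Finset.Subset.antisymm box_subset_slice
  intro i' hi'
  rw [mem_box]
  refine ⟨hi', fun j => ?_⟩
  simp only [Pi.zero_apply, Real.rpow_zero]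
  exact H.co_sub_le h (H.memSlice.1 hi') j

/-- the exponents are antitone -/
theorem nu_anti {p p' : κ → ℝ} (hp : ∀ j, 0 ≤ p j) (hpp : ∀ j, p j ≤ p' j) (hp' : ∀ j, p' j ≤ R) :
    ν p' ≤ ν p := by
  have hp1 : ∀ j, 0 ≤ p j ∧ p j ≤ R := fun j => ⟨hp j, (hpp j).trans (hp' j)⟩
  have hp2 : ∀ j, 0 ≤ p' j ∧ p' j ≤ R := fun j => ⟨(hp j).trans (hpp j), hp' j⟩
  have h := le_of_ev B (- ν p') (- ν p) 1 1 (by
    intro ε hε
    filter_upwards [H.unif p hp1 ε hε, H.unif p' hp2 ε hε] with n h1 h2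
    obtain ⟨⟨i, k⟩, hik⟩ := H.nonempty n
    rw [one_mul, one_mul]
    calc B.d n ^ (-ν p' + ε) ≤ (((G n).box p' i k).card : ℝ) := (h2 i k hik).1
      _ ≤ (((G n).box p i k).card : ℝ) := by
          exact_mod_cast Finset.card_le_card (H.box_anti n hpp i k)
      _ ≤ _ := (h1 i k hik).2)
  linarith

/-- the exponents are Lipschitz -/
theorem nu_lip {p p' : κ → ℝ} (hp : ∀ j, 0 ≤ p j) (hpp : ∀ j, p j ≤ p' j) (hp' : ∀ j, p' j ≤ R) :
    ν p ≤ ν p' + ∑ j, (p' j - p j) := by
  classical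
  have hp1 : ∀ j, 0 ≤ p j ∧ p j ≤ R := fun j => ⟨hp j, (hpp j).trans (hp' j)⟩
  have hp2 : ∀ j, 0 ≤ p' j ∧ p' j ≤ R := fun j => ⟨(hp j).trans (hpp j), hp' j⟩
  have h := le_of_ev B (- ν p) (∑ j, (p j - p' j) - ν p') 1 (4 ^ (Fintype.card κ)) (by
    intro ε hε
    filter_upwards [H.unif p hp1 ε hε, H.unif p' hp2 ε hε] with n h1 h2
    obtain ⟨⟨i, k⟩, hik⟩ := H.nonempty n
    rw [one_mul]
    have hpow : ∀ t : ℝ, 0 < B.d n ^ t := fun t => rpos B n t
    calc B.d n ^ (-ν p + ε) ≤ (((G n).box p i k).card : ℝ) := (h1 i k hik).1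
      _ ≤ 4 ^ (Fintype.card κ) * (∏ j, B.d n ^ p j / B.d n ^ p' j) * B.d n ^ (-ν p' - ε) := by
          refine cover_abs ((G n).box p i k) (fun i' j => (G n).co k i' j)
            (fun j => (G n).co k i j) (fun j => B.d n ^ p j) (fun j => B.d n ^ p' j)
            (fun j => hpow _) (fun j => rpow_anti B n (hpp j)) ?_ (hpow _).le ?_
          · intro i' hi' j
            have := (mem_box.1 hi').2 j
            rwa [H.base n] at this
          · intro i1 hi1 S hS hS1
            have hI1 := H.memSlice.1 (box_subset_slice hi1)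
            refine le_trans ?_ (h2 i1 k hI1).2
            have : S ⊆ (G n).box p' i1 k := by
              intro l hl
              rw [mem_box]
              refine ⟨box_subset_slice (hS hl), fun j => ?_⟩
              rw [H.base n]
              exact hS1 l hl j
            exact_mod_cast Finset.card_le_card this
      _ = _ := by
          have : (∏ j, B.d n ^ p j / B.d n ^ p' j) = B.d n ^ (∑ j, (p j - p' j)) := by
            rw [Real.rpow_sum_of_pos (B.pos n)]
            exact Finset.prod_congr rfl fun j _ => (Real.rpow_sub (B.pos n) _ _).symm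
          rw [this, mul_assoc, ← rpow_add']
          congr 2
          ring)
  have h2 : ∑ j, (p' j - p j) = - ∑ j, (p j - p' j) := by
    rw [← Finset.sum_neg_distrib]
    exact Finset.sum_congr rfl fun j _ => by ring
  rw [h2]
  linarith

theorem slice_card_le {ε : ℝ} (hε : 0 < ε) :
    ∀ᶠ n in (U : Filter ℕ), ∀ k, (((G n).slice k).card : ℝ) ≤ B.d n ^ (-ν 0 - ε) := by
  filter_upwards [H.unif 0 (fun j => ⟨le_rfl, H.R_pos.le⟩) ε hε] with n h k
  rcases ((G n).slice k).eq_empty_or_nonempty with h0 | ⟨i, hi⟩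
  · rw [h0]
    simpa using (rpos B n _).le
  · have hI := H.memSlice.1 hi
    rw [← H.box_zero hI]
    exact (h i k hI).2

/-- **upper count with loss**: lines of the slice within `ρ^(p - ε)` of one alive line -/
theorem card_near_loss (p : κ → ℝ) (hp : ∀ j, 0 ≤ p j ∧ p j ≤ R) {ε : ℝ} (hε : 0 < ε) :
    ∀ᶠ n in (U : Filter ℕ), ∀ i k, (i, k) ∈ (G n).I → ∀ T ⊆ (G n).slice k,
      (∀ i' ∈ T, ∀ j, |(G n).co k i' j - (G n).co k i j| ≤ B.d n ^ (p j - ε)) →
      (T.card : ℝ) ≤ B.d n ^ (-ν p - (Fintype.card κ + 1) * ε) := by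
  classical
  set p' : κ → ℝ := fun j => max 0 (p j - ε) with hp'
  have hp'm : ∀ j, 0 ≤ p' j ∧ p' j ≤ R := fun j =>
    ⟨le_max_left _ _, max_le H.R_pos.le (by linarith [(hp j).2])⟩
  have hp'le : ∀ j, p' j ≤ p j := fun j => max_le (hp j).1 (by linarith)
  have hlip := H.nu_lip (fun j => (hp'm j).1) hp'le (fun j => (hp j).2)
  have hsum : ∑ j, (p j - p' j) ≤ Fintype.card κ * ε := by
    calc ∑ j : κ, (p j - p' j) ≤ ∑ j : κ, ε :=
          sum_le_sum fun j _ => by
            have : p j - ε ≤ p' j := le_max_right _ _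
            linarith
      _ = Fintype.card κ * ε := by simp
  filter_upwards [H.unif p' hp'm ε hε] with n hn i k hik T hT hclose
  have hsub : T ⊆ (G n).box p' i k := by
    intro i' hi'
    rw [mem_box]
    refine ⟨hT hi', fun j => ?_⟩
    rw [H.base n]
    rcases le_total 0 (p j - ε) with h3 | h3
    · have h4 : p' j = p j - ε := max_eq_right h3
      rw [h4]
      exact hclose i' hi' j
    · have h4 : p' j = 0 := max_eq_left h3
      rw [h4, Real.rpow_zero]
      exact H.co_sub_le hik (H.memSlice.1 (hT hi')) j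
  have h1 : (T.card : ℝ) ≤ B.d n ^ (-ν p' - ε) :=
    le_trans (by exact_mod_cast Finset.card_le_card hsub) (hn i k hik).2
  refine h1.trans (rpow_anti B n ?_)
  linarith

/-- **number of cells** of a set which is pairwise close at scale `ρ^(pT - ε)`:
at most `ρ^(-(ν pT - ν r))` cells of side exponents `≤ r` -/
theorem card_cells_loss (pT r : κ → ℝ) (hpT : ∀ j, 0 ≤ pT j ∧ pT j ≤ R)
    (hr : ∀ j, 0 ≤ r j ∧ r j ≤ R) (hTr : ∀ j, pT j ≤ r j) {ε : ℝ} (hε : 0 < ε) :
    ∀ᶠ n in (U : Filter ℕ), ∀ k, ∀ T ⊆ (G n).slice k,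
      (∀ i ∈ T, ∀ i' ∈ T, ∀ j, |(G n).co k i' j - (G n).co k i j| ≤ B.d n ^ (pT j - ε)) →
      ∀ w : κ → ℝ, (∀ j, B.d n ^ r j ≤ w j ∧ w j ≤ B.d n ^ (pT j - ε)) →
      ((T.image fun i => fun j => ⌊(G n).co k i j / w j⌋).card : ℝ) ≤
        B.d n ^ (-(ν pT - ν r) - (2 * Fintype.card κ + 4) * ε) := by
  classical
  filter_upwards [H.card_near_loss pT hpT (show 0 < 2 * ε by linarith), H.unif r hr ε hε,
    ev_const_le B hε 2, ev_const_le B hε (3 ^ (Fintype.card κ))] with n h1 h2 h3 h4 k T hT hTc w hw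
  have hpow : ∀ t : ℝ, 0 < B.d n ^ t := fun t => rpos B n t
  rcases T.eq_empty_or_nonempty with rfl | ⟨i0, hi0⟩
  · simpa using (hpow _).le
  have hw0 : ∀ j, 0 < w j := fun j => lt_of_lt_of_le (hpow _) (hw j).1
  set W := ((G n).slice k).filter fun l => ∀ j, |(G n).co k l j - (G n).co k i0 j| ≤
    B.d n ^ (pT j - 2 * ε) with hW
  have hWc : (W.card : ℝ) ≤ B.d n ^ (-ν pT - (Fintype.card κ + 1) * (2 * ε)) := by
    refine h1 i0 k (H.memSlice.1 (hT hi0)) W (Finset.filter_subset _ _) ?_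
    intro i' hi' j
    exact (Finset.mem_filter.1 hi').2 j
  have key := cells_le_abs T W (fun i j => (G n).co k i j) w hw0
    (m0 := B.d n ^ (-ν r + ε)) (by
      intro i hi
      have hI := H.memSlice.1 (hT hi)
      refine ⟨(G n).box r i k, ?_, ?_, (h2 i k hI).1⟩
      · intro l hl
        obtain ⟨l1, l2⟩ := mem_box.1 hl
        rw [hW, Finset.mem_filter]
        refine ⟨l1, fun j => ?_⟩
        have e1 := l2 j
        rw [H.base n] at e1
        have e2 := hTc i0 hi0 i hi j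
        have e3 : B.d n ^ r j ≤ B.d n ^ (pT j - ε) := (hw j).1.trans (hw j).2
        have e4 : |(G n).co k l j - (G n).co k i0 j| ≤ 2 * B.d n ^ (pT j - ε) := by
          have := abs_sub_le ((G n).co k l j) ((G n).co k i j) ((G n).co k i0 j)
          linarith
        refine e4.trans ?_
        have e5 : B.d n ^ (pT j - 2 * ε) = B.d n ^ (-ε) * B.d n ^ (pT j - ε) := by
          rw [← rpow_add']; congr 1; ring
        rw [e5]
        exact mul_le_mul_of_nonneg_right h3 (hpow _).le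
      · intro l hl j
        have e1 := (mem_box.1 hl).2 j
        rw [H.base n] at e1
        exact e1.trans (hw j).1)
  have e1 : B.d n ^ (-ν r + ε) * B.d n ^ (ν r - ε) = 1 := by
    rw [← rpow_add']
    have : -ν r + ε + (ν r - ε) = 0 := by ring
    rw [this, Real.rpow_zero]
  calc ((T.image fun i => fun j => ⌊(G n).co k i j / w j⌋).card : ℝ)
      = ((T.image fun i => fun j => ⌊(G n).co k i j / w j⌋).card : ℝ) * B.d n ^ (-ν r + ε) *
        B.d n ^ (ν r - ε) := by rw [mul_assoc, e1, mul_one]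
    _ ≤ 3 ^ (Fintype.card κ) * (W.card : ℝ) * B.d n ^ (ν r - ε) :=
        mul_le_mul_of_nonneg_right key (hpow _).le
    _ ≤ B.d n ^ (-ε) * B.d n ^ (-ν pT - (Fintype.card κ + 1) * (2 * ε)) * B.d n ^ (ν r - ε) := by
        refine mul_le_mul_of_nonneg_right ?_ (hpow _).le
        exact mul_le_mul h4 hWc (Nat.cast_nonneg _) (hpow _).le
    _ = _ := by
        rw [← rpow_add', ← rpow_add']
        congr 1
        ring

end GUnif

end Crest.Agent.R136.Gf356
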