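import Crest.Agent.R136.Gf2_356

/-!
# R136: transfer principle (visible shift) and Kaufman for chart-free F-models (helper356)

* `transfer_G`: `ν p - ν p' ≤ ν pT - ν r`;
* `kauf_G`: Kaufman on one fibre.
-/

set_option autoImplicit false
set_option linter.unusedVariables false
set_option linter.unusedSectionVars false

open Filter Topology Finset

namespace Crest.Agent.R136.Gf356

open Crest.Agent.R138.Ex926 (Base U)

variable {κ : Type} [Fintype κ] {B : Base} {G : ℕ → GCfg κ} {σ R : ℝ} {ν : (κ → ℝ) → ℝ}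

/-- powers: `C` constants are absorbed -/
theorem loss_mul (B : Base) {n : ℕ} {C s ε : ℝ} (h : C ≤ B.d n ^ (-ε)) :
    C * B.d n ^ s ≤ B.d n ^ (s - ε) := by
  have : B.d n ^ (s - ε) = B.d n ^ (-ε) * B.d n ^ s := by
    rw [← rpow_add']; congr 1; ring
  rw [this]
  exact mul_le_mul_of_nonneg_right h (rpos B n _).le

/-- **transfer principle = visible shift** (majority form).  `bad n ε k k'` is an arbitrary
predicate on pairs of heights which holds for at most half of the pairs of every line.  If, at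
non-bad pairs, two common lines which are `p`-near at `k` are `pT`-near at `k'`, and are even
`p'`-near at `k` as soon as they are `r`-near at `k'`, then `ν p - ν p' ≤ ν pT - ν r`. -/
theorem transfer_G (H : GModel B G σ R ν) (p p' pT r : κ → ℝ)
    (hp : ∀ j, 0 ≤ p j ∧ p j ≤ R) (hp' : ∀ j, 0 ≤ p' j ∧ p' j ≤ R)
    (hpT : ∀ j, 0 ≤ pT j ∧ pT j ≤ R) (hr : ∀ j, 0 ≤ r j ∧ r j ≤ R) (hTr : ∀ j, pT j ≤ r j)
    (bad : ℕ → ℝ → ℕ → ℕ → Prop) {C1 : ℝ} (hC1 : 0 < C1)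
    (hbad : ∀ ε : ℝ, 0 < ε → ∀ᶠ n in (U : Filter ℕ), ∀ i ∈ (G n).L,
      ∀ T ⊆ ((G n).hts i) ×ˢ ((G n).hts i), (∀ q ∈ T, bad n ε q.1 q.2) →
      2 * (T.card : ℝ) ≤ (((G n).hts i).card : ℝ) ^ 2)
    (hgeo : ∀ ε : ℝ, 0 < ε → ∀ᶠ n in (U : Filter ℕ), ∀ k ∈ (G n).Z, ∀ k' ∈ (G n).Z,
      ¬ bad n ε k k' → ∀ i i', (i, k) ∈ (G n).I → (i, k') ∈ (G n).I → (i', k) ∈ (G n).I →
      (i', k') ∈ (G n).I →
      (∀ j, |(G n).co k i' j - (G n).co k i j| ≤ B.d n ^ p j) →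
      (∀ j, |(G n).co k' i' j - (G n).co k' i j| ≤ B.d n ^ (pT j - C1 * ε)) ∧
      ((∀ j, |(G n).co k' i' j - (G n).co k' i j| ≤ B.d n ^ r j) →
        ∀ j, |(G n).co k i' j - (G n).co k i j| ≤ B.d n ^ (p' j - C1 * ε))) :
    ν p - ν p' ≤ ν pT - ν r := by
  classical
  set m : ℝ := (Fintype.card κ : ℝ) with hm
  have hm0 : 0 ≤ m := Nat.cast_nonneg _
  have key := le_of_ev B (-ν p) (-(ν pT - ν r) - ν p') ((2 * m + 4) * C1 + (m + 1) * C1 + 6) 1 (by
    intro ε hε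
    have hCε : 0 < C1 * ε := by positivity
    filter_upwards [H.line ε hε, hbad ε hε, hgeo ε hε, H.unif p hp ε hε,
      H.card_cells_loss pT r hpT hr hTr hCε, H.card_near_loss p' hp' hCε,
      ev_const_le B hε 2, ev_const_le B hε (3 ^ (Fintype.card κ))]
      with n hline hbadn hgeon hpn hcells hnear h2 h3
    have hpow : ∀ t : ℝ, 0 < B.d n ^ t := fun t => rpos B n t
    obtain ⟨⟨i1, k1⟩, hI1⟩ := H.nonempty n
    have hLne : (G n).L.Nonempty := ⟨i1, H.memL hI1⟩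
    have hZne : (G n).Z.Nonempty := ⟨k1, H.memZ hI1⟩
    have hL0 : (0 : ℝ) < (G n).L.card := by exact_mod_cast hLne.card_pos
    -- good pair
    obtain ⟨k, hk, k', hk', hnb, hcard⟩ := good_pair (G n).L (G n).Z (fun i k => (i, k) ∈ (G n).I)
      (fun k k' => bad n ε k k') (hpow ε) hLne hZne
      (by intro i hi; exact hline i hi)
      (by
        intro i hi
        refine hbadn i hi _ (Finset.filter_subset _ _) ?_
        intro q hq
        exact (Finset.mem_filter.1 hq).2)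
    set T0 := (G n).L.filter fun i => (i, k) ∈ (G n).I ∧ (i, k') ∈ (G n).I with hT0
    have hT0pos : (0 : ℝ) < T0.card := by
      have e1 := hpow ε
      exact lt_of_lt_of_le (by positivity) hcard
    have hT0ne : T0.Nonempty := by rw [← Finset.card_pos]; exact_mod_cast hT0pos
    -- cells at `k`
    have hcellk := cells_le_abs T0 ((G n).slice k) (fun i j => (G n).co k i j)
      (fun j => B.d n ^ p j) (fun j => hpow _) (m0 := B.d n ^ (-ν p + ε)) (by
        intro i hi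
        have hI := (Finset.mem_filter.1 hi).2.1
        refine ⟨(G n).box p i k, box_subset_slice, ?_, (hpn i k hI).1⟩
        intro l hl j
        have := (mem_box.1 hl).2 j
        rwa [H.base n] at this)
    have hsl : (((G n).slice k).card : ℝ) ≤ (G n).L.card := by
      exact_mod_cast card_le_card (filter_subset _ _)
    set lab : ℕ → (κ → ℤ) := fun i => fun j => ⌊(G n).co k i j / B.d n ^ p j⌋ with hlab
    have hMle : ((T0.image lab).card : ℝ) ≤ B.d n ^ (-ε) * (G n).L.card * B.d n ^ (ν p - ε) := by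
      have e1 : B.d n ^ (-ν p + ε) * B.d n ^ (ν p - ε) = 1 := by
        rw [← rpow_add']
        have : -ν p + ε + (ν p - ε) = 0 := by ring
        rw [this, Real.rpow_zero]
      calc ((T0.image lab).card : ℝ)
          = ((T0.image lab).card : ℝ) * B.d n ^ (-ν p + ε) * B.d n ^ (ν p - ε) := by
            rw [mul_assoc, e1, mul_one]
        _ ≤ 3 ^ (Fintype.card κ) * (((G n).slice k).card : ℝ) * B.d n ^ (ν p - ε) :=
            mul_le_mul_of_nonneg_right hcellk (hpow _).le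
        _ ≤ B.d n ^ (-ε) * (G n).L.card * B.d n ^ (ν p - ε) := by
            refine mul_le_mul_of_nonneg_right ?_ (hpow _).le
            exact mul_le_mul h3 hsl (Nat.cast_nonneg _) (hpow _).le
    obtain ⟨i0, hi0, hfib⟩ := exists_fibre T0 lab hT0ne hMle
    set S := T0.filter fun i => lab i = lab i0 with hS
    have hSI : ∀ i ∈ S, (i, k) ∈ (G n).I ∧ (i, k') ∈ (G n).I := by
      intro i hi
      exact (Finset.mem_filter.1 (Finset.mem_filter.1 hi).1).2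
    have hSnear : ∀ i ∈ S, ∀ i' ∈ S, ∀ j, |(G n).co k i' j - (G n).co k i j| ≤ B.d n ^ p j := by
      intro i hi i' hi' j
      have e1 : lab i' = lab i := by
        rw [(Finset.mem_filter.1 hi').2, (Finset.mem_filter.1 hi).2]
      have e2 : ⌊(G n).co k i' j / B.d n ^ p j⌋ = ⌊(G n).co k i j / B.d n ^ p j⌋ := by
        have := congrFun e1 j
        simpa [hlab] using this
      have h5 := Int.abs_sub_lt_one_of_floor_eq_floor e2
      rw [← sub_div, abs_div, abs_of_pos (hpow _), div_lt_one (hpow _)] at h5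
      exact h5.le
    -- lower bound of `S`
    have hSlow : B.d n ^ (-ν p + 5 * ε) ≤ (S.card : ℝ) := by
      have g1 : (B.d n ^ ε) ^ 2 / 2 * ((G n).L.card : ℝ) ≤
          B.d n ^ (-ε) * (G n).L.card * B.d n ^ (ν p - ε) * (S.card : ℝ) := hcard.trans hfib
      have g2 : (B.d n ^ ε) ^ 2 / 2 ≤ B.d n ^ (-ε) * B.d n ^ (ν p - ε) * (S.card : ℝ) := by
        have : (B.d n ^ ε) ^ 2 / 2 * ((G n).L.card : ℝ) ≤
            (B.d n ^ (-ε) * B.d n ^ (ν p - ε) * (S.card : ℝ)) * ((G n).L.card : ℝ) := by linarith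
        exact le_of_mul_le_mul_right this hL0
      have g3 : B.d n ^ (3 * ε) ≤ (B.d n ^ ε) ^ 2 / 2 := by
        have a1 : B.d n ^ (3 * ε) = (B.d n ^ ε) ^ 2 * B.d n ^ ε := by
          rw [sq, ← rpow_add', ← rpow_add']; congr 1; ring
        have a2 : B.d n ^ ε ≤ 1 / 2 := by
          have a3 : B.d n ^ ε * B.d n ^ (-ε) = 1 := by
            rw [← rpow_add', add_neg_cancel, Real.rpow_zero]
          have a4 := hpow ε
          nlinarith
        rw [a1]
        have := hpow ε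
        nlinarith [sq_nonneg (B.d n ^ ε)]
      have g4 : B.d n ^ (3 * ε) ≤ B.d n ^ (ν p - 2 * ε) * (S.card : ℝ) := by
        refine (g3.trans g2).trans (le_of_eq ?_)
        rw [← rpow_add']
        congr 2
        ring
      have g5 : B.d n ^ (-ν p + 5 * ε) * B.d n ^ (ν p - 2 * ε) = B.d n ^ (3 * ε) := by
        rw [← rpow_add']; congr 1; ring
      rw [← g5, mul_comm (B.d n ^ (ν p - 2 * ε))] at g4
      exact le_of_mul_le_mul_right g4 (hpow _)
    -- cells at `k'`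
    have hSsl : S ⊆ (G n).slice k' := fun i hi => H.memSlice.2 (hSI i hi).2
    have hgeoS : ∀ i ∈ S, ∀ i' ∈ S,
        (∀ j, |(G n).co k' i' j - (G n).co k' i j| ≤ B.d n ^ (pT j - C1 * ε)) ∧
        ((∀ j, |(G n).co k' i' j - (G n).co k' i j| ≤ B.d n ^ r j) →
          ∀ j, |(G n).co k i' j - (G n).co k i j| ≤ B.d n ^ (p' j - C1 * ε)) := by
      intro i hi i' hi'
      exact hgeon k hk k' hk' hnb i i' (hSI i hi).1 (hSI i hi).2 (hSI i' hi').1 (hSI i' hi').2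
        (hSnear i hi i' hi')
    have hc' := hcells k' S hSsl (fun i hi i' hi' => (hgeoS i hi i' hi').1)
      (fun j => B.d n ^ r j) (fun j => ⟨le_rfl, rpow_anti B n (by linarith [hTr j])⟩)
    set lab' : ℕ → (κ → ℤ) := fun i => fun j => ⌊(G n).co k' i j / B.d n ^ r j⌋ with hlab'
    have hSne : S.Nonempty := ⟨i0, Finset.mem_filter.2 ⟨hi0, rfl⟩⟩
    obtain ⟨i2, hi2, hfib2⟩ := exists_fibre S lab' hSne hc'
    have hfc : ((S.filter fun i => lab' i = lab' i2).card : ℝ) ≤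
        B.d n ^ (-ν p' - (Fintype.card κ + 1) * (C1 * ε)) := by
      refine hnear i2 k (hSI i2 hi2).1 _ ?_ ?_
      · intro i hi
        exact H.memSlice.2 (hSI i (Finset.mem_filter.1 hi).1).1
      · intro i' hi' j
        obtain ⟨b1, b2⟩ := Finset.mem_filter.1 hi'
        refine (hgeoS i2 hi2 i' b1).2 ?_ j
        intro j
        have e2 : ⌊(G n).co k' i' j / B.d n ^ r j⌋ = ⌊(G n).co k' i2 j / B.d n ^ r j⌋ := by
          have := congrFun b2 j
          simpa [hlab'] using this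
        have h5 := Int.abs_sub_lt_one_of_floor_eq_floor e2
        rw [← sub_div, abs_div, abs_of_pos (hpow _), div_lt_one (hpow _)] at h5
        exact h5.le
    calc B.d n ^ (-ν p + ((2 * m + 4) * C1 + (m + 1) * C1 + 6) * ε)
        ≤ B.d n ^ (-ν p + 5 * ε) := rpow_anti B n (by
          have : 0 ≤ ((2 * m + 4) * C1 + (m + 1) * C1) * ε := by positivity
          nlinarith)
      _ ≤ (S.card : ℝ) := hSlow
      _ ≤ _ := hfib2
      _ ≤ B.d n ^ (-(ν pT - ν r) - (2 * Fintype.card κ + 4) * (C1 * ε)) *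
            B.d n ^ (-ν p' - (Fintype.card κ + 1) * (C1 * ε)) :=
          mul_le_mul_of_nonneg_left hfc (hpow _).le
      _ = B.d n ^ (-(ν pT - ν r) - ν p' - ((2 * m + 4) * C1 + (m + 1) * C1) * ε) := by
          rw [← rpow_add']; congr 1; rw [hm]; ring
      _ ≤ B.d n ^ (-(ν pT - ν r) - ν p' - ((2 * m + 4) * C1 + (m + 1) * C1 + 6) * ε) :=
          rpow_anti B n (by nlinarith)
      _ = _ := by rw [one_mul])
  linarith

/-- **Kaufman on one fibre**, chart free.  Centre `(i0 n, k0 n)`, fibre = `box pS` around it;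
`V` = velocity (any function of the line), `φ` = multiplier (any function of the height), `Zg` =
good heights.  `Q j` = exponents of the box which contains two lines of the fibre with
`|ΔV| ≤ ρ^(x j/J)` and `|ΔF| ≤ ρ^(x j/J)`; `pT` = exponents of the box which contains the fibre
at the good heights. -/
theorem kauf_G [DecidableEq κ] (H : GUnif B G R ν) (i0 k0 : ℕ → ℕ)
    (h0 : ∀ᶠ n in (U : Filter ℕ), (i0 n, k0 n) ∈ (G n).I) (pS pT : κ → ℝ)
    (hpS : ∀ j, 0 ≤ pS j ∧ pS j ≤ R) (hpT : ∀ j, 0 ≤ pT j ∧ pT j ≤ R) (F : κ) {x τ : ℝ}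
    (hx : 0 < x) (hxR : x ≤ R) (hFx : pT F ≤ x) (hτ0 : 0 ≤ τ) (hτ1 : τ ≤ 1)
    (V : ℕ → ℕ → ℝ) (φ : ℕ → ℕ → ℝ) (Zg : ℕ → Finset ℕ)
    (hZg : ∀ᶠ n in (U : Filter ℕ), (Zg n).Nonempty) {J : ℕ} (hJ : 0 < J) (Q : ℕ → κ → ℝ)
    (hQm : ∀ j ≤ J, ∀ c, 0 ≤ Q j c ∧ Q j c ≤ R) {C1 : ℝ} (hC1 : 0 < C1)
    (hφ : ∀ᶠ n in (U : Filter ℕ), ∀ k ∈ Zg n, |φ n k| ≤ 2)
    (hV : ∀ᶠ n in (U : Filter ℕ), ∀ i ∈ (G n).box pS (i0 n) (k0 n),
      ∀ i' ∈ (G n).box pS (i0 n) (k0 n), |V n i - V n i'| ≤ 1)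
    (hF : ∀ ε : ℝ, 0 < ε → ∀ᶠ n in (U : Filter ℕ), ∀ k ∈ Zg n,
      ∀ i ∈ (G n).box pS (i0 n) (k0 n), ∀ i' ∈ (G n).box pS (i0 n) (k0 n),
      |(G n).co k i F - (G n).co k i' F - (((G n).co (k0 n) i F - (G n).co (k0 n) i' F) +
        φ n k * (V n i - V n i'))| ≤ B.d n ^ (x - ε))
    (hT : ∀ ε : ℝ, 0 < ε → ∀ᶠ n in (U : Filter ℕ), ∀ k ∈ Zg n,
      ∀ i ∈ (G n).box pS (i0 n) (k0 n), ∀ i' ∈ (G n).box pS (i0 n) (k0 n),
      (i, k) ∈ (G n).I → (i', k) ∈ (G n).I →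
      ∀ j, |(G n).co k i' j - (G n).co k i j| ≤ B.d n ^ (pT j - ε))
    (hal : ∀ ε : ℝ, 0 < ε → ∀ᶠ n in (U : Filter ℕ), ∀ i ∈ (G n).box pS (i0 n) (k0 n),
      ∀ T ⊆ Zg n, (∀ k ∈ Zg n, (i, k) ∈ (G n).I → k ∈ T) →
      B.d n ^ ε * ((Zg n).card : ℝ) ≤ (T.card : ℝ))
    (hQ : ∀ j ≤ J, ∀ ε : ℝ, 0 < ε → ∀ᶠ n in (U : Filter ℕ),
      ∀ i ∈ (G n).box pS (i0 n) (k0 n), ∀ i' ∈ (G n).box pS (i0 n) (k0 n),
      |V n i' - V n i| ≤ B.d n ^ sc x J j →
      |(G n).co (k0 n) i' F - (G n).co (k0 n) i F| ≤ B.d n ^ (sc x J j - ε) →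
      ∀ c, |(G n).co (k0 n) i' c - (G n).co (k0 n) i c| ≤ B.d n ^ (Q j c - C1 * ε))
    (hfr : ∀ y : ℝ, 0 ≤ y → y ≤ x → ∀ ε : ℝ, 0 < ε → ∀ᶠ n in (U : Filter ℕ), ∀ k ∈ Zg n,
      ∀ T ⊆ Zg n, (∀ k' ∈ T, |φ n k' - φ n k| ≤ B.d n ^ y) →
      (T.card : ℝ) ≤ B.d n ^ (τ * y - ε) * ((Zg n).card : ℝ)) :
    ∃ j ≤ J, ν pS - ν (Q j) + τ * (x - sc x J (j + 1)) ≤
      ν pT - ν (Function.update pT F x) := by
  classical
  set m : ℝ := (Fintype.card κ : ℝ) with hm
  have hm0 : 0 ≤ m := Nat.cast_nonneg _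
  set r : κ → ℝ := Function.update pT F x with hr
  have hrm : ∀ j, 0 ≤ r j ∧ r j ≤ R := by
    intro j
    by_cases hj : j = F
    · subst hj; rw [hr, Function.update_self]; exact ⟨hx.le, hxR⟩
    · rw [hr, Function.update_of_ne hj]; exact hpT j
  have hTr : ∀ j, pT j ≤ r j := by
    intro j
    by_cases hj : j = F
    · subst hj; rw [hr, Function.update_self]; exact hFx
    · rw [hr, Function.update_of_ne hj]
  set C : ℝ := 2 * m + 4 + (m + 1) * C1 + 1 with hC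
  have hC1' : 1 ≤ C := by
    have : 0 ≤ (m + 1) * C1 := by positivity
    rw [hC]; linarith
  refine kauf_ex B (ι := ℕ) (fun n => (G n).box pS (i0 n) (k0 n)) Zg φ
    (fun n i k => (i, k) ∈ (G n).I) (fun n i k => (G n).co k i F)
    (fun n i => (G n).co (k0 n) i F) V hx hτ0 hτ1 hC1' (C0 := 1) hJ (fun j => ν (Q j)) hZg hφ hF
    ?_ ?_ ?_ hV ?_ ?_
  · -- size of the fibre
    intro ε hε
    filter_upwards [H.unif pS hpS ε hε, h0] with n hn h0n
    refine le_trans (rpow_anti B n ?_) (hn _ _ h0n).1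
    nlinarith
  · -- cells
    intro ε hε
    filter_upwards [H.card_cells_loss pT r hpT hrm hTr hε, hT ε hε] with n h1 h2 k hk
    set T := ((G n).box pS (i0 n) (k0 n)).filter fun i => (i, k) ∈ (G n).I with hTdef
    set w : κ → ℝ := Function.update (fun j => B.d n ^ pT j) F (B.d n ^ (x - ε)) with hw
    have hwm : ∀ j, B.d n ^ r j ≤ w j ∧ w j ≤ B.d n ^ (pT j - ε) := by
      intro j
      by_cases hj : j = F
      · subst hj
        rw [hr, hw, Function.update_self, Function.update_self]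
        exact ⟨rpow_anti B n (by linarith), rpow_anti B n (by linarith)⟩
      · rw [hr, hw, Function.update_of_ne hj, Function.update_of_ne hj]
        exact ⟨le_rfl, rpow_anti B n (by linarith)⟩
    have h3 := h1 k T (by
      intro i hi
      exact H.memSlice.2 (Finset.mem_filter.1 hi).2) (by
      intro i hi i' hi' j
      obtain ⟨a1, a2⟩ := Finset.mem_filter.1 hi
      obtain ⟨b1, b2⟩ := Finset.mem_filter.1 hi'
      exact h2 k hk i a1 i' b1 a2 b2 j) w hwm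
    have h4 : (T.image fun i => ⌊(G n).co k i F / B.d n ^ (x - ε)⌋).card ≤
        (T.image fun i => fun j => ⌊(G n).co k i j / w j⌋).card := by
      have : (T.image fun i => ⌊(G n).co k i F / B.d n ^ (x - ε)⌋) =
          (T.image fun i => fun j => ⌊(G n).co k i j / w j⌋).image fun c => c F := by
        rw [Finset.image_image]
        apply Finset.image_congr
        intro i _
        simp only [Function.comp_apply, hw, Function.update_self]
      rw [this]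
      exact Finset.card_image_le
    have h5 : (((T.image fun i => ⌊(G n).co k i F / B.d n ^ (x - ε)⌋).card : ℕ) : ℝ) ≤
        B.d n ^ (-(ν pT - ν r) - (2 * Fintype.card κ + 4) * ε) :=
      le_trans (by exact_mod_cast h4) h3
    rw [one_mul]
    refine le_trans ?_ (h5.trans (rpow_anti B n ?_))
    · apply le_of_eq
      rw [hTdef]
    · have : 0 ≤ (m + 1) * C1 * ε := by positivity
      rw [hC, ← hm]; nlinarith
  · -- alive
    intro ε hε
    filter_upwards [hal ε hε] with n hn i hi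
    refine hn i hi _ (Finset.filter_subset _ _) ?_
    intro k hk hI
    exact Finset.mem_filter.2 ⟨hk, hI⟩
  · -- close pairs
    intro j hj ε hε
    have hCε : 0 < C1 * ε := by positivity
    filter_upwards [hQ j hj ε hε, H.card_near_loss (Q j) (hQm j hj) hCε] with n h1 h2 i hi
    have hI := H.memSlice.1 (box_subset_slice hi)
    refine (h2 i (k0 n) hI _ ((Finset.filter_subset _ _).trans box_subset_slice) ?_).trans
      (rpow_anti B n ?_)
    · intro i' hi' c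
      obtain ⟨a1, a2, a3⟩ := Finset.mem_filter.1 hi'
      exact h1 i hi i' a1 a2 a3 c
    · rw [hC, ← hm]
      have : 0 ≤ (2 * m + 4 + 1) * ε := by positivity
      nlinarith
  · -- Frostman
    intro y hy0 hyx ε hε
    filter_upwards [hfr y hy0 hyx ε hε] with n hn k hk
    refine (hn k hk _ (Finset.filter_subset _ _) ?_).trans ?_
    · intro k' hk'
      exact (Finset.mem_filter.1 hk').2
    · refine mul_le_mul_of_nonneg_right (rpow_anti B n ?_) (Nat.cast_nonneg _)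
      nlinarith

/-- **Kaufman, rate form.**  If the box exponents at the centre drop at rate `≥ f + g` in the pair
boxes `Q t`, `0 ≤ t ≤ x`, with `g > 0`, and the `F`-rate at the good heights is `≤ f`, then
`τ ≤ f` (full heights, `τ = 1`: the `F`-rate is full). -/
theorem kauf_rate [DecidableEq κ] (H : GUnif B G R ν) (i0 k0 : ℕ → ℕ)
    (h0 : ∀ᶠ n in (U : Filter ℕ), (i0 n, k0 n) ∈ (G n).I) (pS pT : κ → ℝ)
    (hpS : ∀ j, 0 ≤ pS j ∧ pS j ≤ R) (hpT : ∀ j, 0 ≤ pT j ∧ pT j ≤ R) (F : κ) {x τ : ℝ}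
    (hx : 0 < x) (hxR : x ≤ R) (hFx : pT F ≤ x) (hτ0 : 0 ≤ τ) (hτ1 : τ ≤ 1)
    (V : ℕ → ℕ → ℝ) (φ : ℕ → ℕ → ℝ) (Zg : ℕ → Finset ℕ)
    (hZg : ∀ᶠ n in (U : Filter ℕ), (Zg n).Nonempty) (Q : ℝ → κ → ℝ)
    (hQm : ∀ t : ℝ, 0 ≤ t → t ≤ x → ∀ c, 0 ≤ Q t c ∧ Q t c ≤ R) {C1 : ℝ} (hC1 : 0 < C1)
    (hφ : ∀ᶠ n in (U : Filter ℕ), ∀ k ∈ Zg n, |φ n k| ≤ 2)
    (hV : ∀ᶠ n in (U : Filter ℕ), ∀ i ∈ (G n).box pS (i0 n) (k0 n),
      ∀ i' ∈ (G n).box pS (i0 n) (k0 n), |V n i - V n i'| ≤ 1)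
    (hF : ∀ ε : ℝ, 0 < ε → ∀ᶠ n in (U : Filter ℕ), ∀ k ∈ Zg n,
      ∀ i ∈ (G n).box pS (i0 n) (k0 n), ∀ i' ∈ (G n).box pS (i0 n) (k0 n),
      |(G n).co k i F - (G n).co k i' F - (((G n).co (k0 n) i F - (G n).co (k0 n) i' F) +
        φ n k * (V n i - V n i'))| ≤ B.d n ^ (x - ε))
    (hT : ∀ ε : ℝ, 0 < ε → ∀ᶠ n in (U : Filter ℕ), ∀ k ∈ Zg n,
      ∀ i ∈ (G n).box pS (i0 n) (k0 n), ∀ i' ∈ (G n).box pS (i0 n) (k0 n),
      (i, k) ∈ (G n).I → (i', k) ∈ (G n).I →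
      ∀ j, |(G n).co k i' j - (G n).co k i j| ≤ B.d n ^ (pT j - ε))
    (hal : ∀ ε : ℝ, 0 < ε → ∀ᶠ n in (U : Filter ℕ), ∀ i ∈ (G n).box pS (i0 n) (k0 n),
      ∀ T ⊆ Zg n, (∀ k ∈ Zg n, (i, k) ∈ (G n).I → k ∈ T) →
      B.d n ^ ε * ((Zg n).card : ℝ) ≤ (T.card : ℝ))
    (hQ : ∀ t : ℝ, 0 ≤ t → t ≤ x → ∀ ε : ℝ, 0 < ε → ∀ᶠ n in (U : Filter ℕ),
      ∀ i ∈ (G n).box pS (i0 n) (k0 n), ∀ i' ∈ (G n).box pS (i0 n) (k0 n),
      |V n i' - V n i| ≤ B.d n ^ t →
      |(G n).co (k0 n) i' F - (G n).co (k0 n) i F| ≤ B.d n ^ (t - ε) →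
      ∀ c, |(G n).co (k0 n) i' c - (G n).co (k0 n) i c| ≤ B.d n ^ (Q t c - C1 * ε))
    (hfr : ∀ y : ℝ, 0 ≤ y → y ≤ x → ∀ ε : ℝ, 0 < ε → ∀ᶠ n in (U : Filter ℕ), ∀ k ∈ Zg n,
      ∀ T ⊆ Zg n, (∀ k' ∈ T, |φ n k' - φ n k| ≤ B.d n ^ y) →
      (T.card : ℝ) ≤ B.d n ^ (τ * y - ε) * ((Zg n).card : ℝ))
    {f g : ℝ} (hg : 0 < g) (hlow : ∀ t : ℝ, 0 ≤ t → t ≤ x → (f + g) * t ≤ ν pS - ν (Q t))
    (hup : ν pT - ν (Function.update pT F x) ≤ f * x) : τ ≤ f := by
  by_contra hcon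
  push Not at hcon
  set b := min (τ - f) g with hb
  have hb0 : 0 < b := lt_min (by linarith) hg
  obtain ⟨J, hJ⟩ := exists_nat_gt (τ / b)
  have hJ0 : 0 < J := by
    rcases Nat.eq_zero_or_pos J with h | h
    · rw [h] at hJ
      have : 0 ≤ τ / b := by positivity
      simp at hJ
      linarith
    · exact h
  have hJr : (0 : ℝ) < J := by exact_mod_cast hJ0
  obtain ⟨j, hj, h⟩ := kauf_G H i0 k0 h0 pS pT hpS hpT F hx hxR hFx hτ0 hτ1 V φ Zg hZg hJ0
    (fun j => Q (sc x J j)) (fun j hj => hQm _ (sc_nonneg hx.le J j) (sc_le hx.le hJ0 hj)) hC1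
    hφ hV hF hT hal (fun j hj => hQ _ (sc_nonneg hx.le J j) (sc_le hx.le hJ0 hj)) hfr
  have h1 := hlow _ (sc_nonneg hx.le J j) (sc_le hx.le hJ0 hj)
  rw [sc_succ x hJ0] at h
  set t := sc x J j with ht
  have ht0 : 0 ≤ t := sc_nonneg hx.le J j
  have htx : t ≤ x := sc_le hx.le hJ0 hj
  have h2 : (τ - f) * (x - t) + g * t ≤ τ * (x / J) := by nlinarith
  have h3 : b * x ≤ (τ - f) * (x - t) + g * t := by
    have e1 : b ≤ τ - f := min_le_left _ _
    have e2 : b ≤ g := min_le_right _ _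
    nlinarith
  have h4 : b * x ≤ τ * (x / J) := h3.trans h2
  have h5 : τ < b * J := by rwa [div_lt_iff₀ hb0, mul_comm] at hJ
  have h6 : τ * (x / J) < b * x := by
    rw [mul_div_assoc', div_lt_iff₀ hJr]
    nlinarith
  linarith

end Crest.Agent.R136.Gf356
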