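import Crest.Agent.R136.EvW1_938
import Crest.Agent.R136.NetW6_191

/-!
# R136: change of labels (gauge) in the W-chart (helper938)

`relab κ v f` : the flag of `f` (seen in its own frame) is changed by `v`; the frame is kept.
`coW_relab` : relative flags change by `w - tr (rel) v` (coboundary).  `relj κ ψ j` : `v = ψ e_j`,
`cob κ j h` = `e_j - tr κ h e_j` (the fake rotation of the slot `j`).
-/

set_option autoImplicit false
set_option linter.unusedSimpArgs false

namespace Crest.Agent.R136.EvW938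

open Crest.Agent.R136.NetW191

/-- the inverse frame -/
def ivf (κ : ℝ) (g : Fin 4 → ℝ) : Fin 4 → ℝ := rel κ g 0

lemma ivf_mul (κ : ℝ) (g h : Fin 4 → ℝ) : mul κ (ivf κ g) h = rel κ g h := by
  funext k
  fin_cases k <;> simp [mul, rel, ivf] <;> ring

lemma rel_self (κ : ℝ) (g : Fin 4 → ℝ) : rel κ g g = 0 := by
  funext k
  fin_cases k <;> simp [rel]

lemma tr_id (κ : ℝ) (w : Fin 14 → ℝ) : tr κ 0 w = w := by
  funext k
  fin_cases k <;> simp [tr]

lemma tr_ivf (κ : ℝ) (g h : Fin 4 → ℝ) (w : Fin 14 → ℝ) :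
    tr κ h (tr κ (ivf κ g) w) = tr κ (rel κ g h) w := by
  rw [← tr_mul, ivf_mul]

lemma tr_smul (κ : ℝ) (h : Fin 4 → ℝ) (c : ℝ) (w : Fin 14 → ℝ) :
    tr κ h (c • w) = c • tr κ h w := by
  funext q
  rw [Pi.smul_apply, tr_tms κ h (c • w) q, tr_tms κ h w q, smul_add, smul_eq_mul, smul_eq_mul,
    Pi.smul_apply, smul_eq_mul]
  congr 1
  rw [← List.sum_map_mul_left]
  congr 1
  refine List.map_congr_left fun t _ => ?_
  unfold Tm.ev
  rw [Pi.smul_apply, smul_eq_mul]
  ring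

/-- **change of the label** by the flag `v` (in the frame of `f`) -/
def relab (κ : ℝ) (v : Fin 14 → ℝ) (f : FW) : FW := ⟨f.g, f.G + tr κ (ivf κ f.g) v⟩

lemma relab_g (κ : ℝ) (v : Fin 14 → ℝ) (f : FW) : (relab κ v f).g = f.g := rfl

/-- the new flag in the frame of `f` -/
lemma relab_flag (κ : ℝ) (v : Fin 14 → ℝ) (f : FW) :
    tr κ f.g (relab κ v f).G = tr κ f.g f.G + v := by
  show tr κ f.g (f.G + tr κ (ivf κ f.g) v) = _
  rw [tr_add, tr_ivf, rel_self, tr_id]

/-- **relative coordinates after the change of labels** -/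
theorem coW_relab (κ : ℝ) (v w : Fin 14 → ℝ) (f f' : FW) (q : Fin 14) :
    coW κ (relab κ v f) (relab κ w f') (Fin.natAdd 4 q) =
      coW κ f f' (Fin.natAdd 4 q) + (w q - tr κ (rel κ f.g f'.g) v q) := by
  rw [coW_right, coW_right, relab_g, tr_sub, tr_sub, relab_flag]
  have e : tr κ f'.g (relab κ v f).G = tr κ f'.g f.G + tr κ (rel κ f.g f'.g) v := by
    show tr κ f'.g (f.G + tr κ (ivf κ f.g) v) = _
    rw [tr_add, tr_ivf]
  rw [e]
  simp only [Pi.sub_apply, Pi.add_apply]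
  ring

theorem coW_relab_left (κ : ℝ) (v w : Fin 14 → ℝ) (f f' : FW) (i : Fin 4) :
    coW κ (relab κ v f) (relab κ w f') (Fin.castAdd 14 i) = coW κ f f' (Fin.castAdd 14 i) := by
  rw [coW_left, coW_left, relab_g, relab_g]

/-- the fake rotation of the slot `j` -/
def cob (κ : ℝ) (j : Fin 14) (h : Fin 4 → ℝ) : Fin 14 → ℝ :=
  tr κ h (Pi.single j 1) - Pi.single j 1

/-- **gauge by a multiple of the slot `j`** -/
theorem coW_relj (κ ψ : ℝ) (j : Fin 14) (f f' : FW) (q : Fin 14) :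
    coW κ (relab κ (ψ • Pi.single j 1) f) (relab κ (ψ • Pi.single j 1) f') (Fin.natAdd 4 q) =
      coW κ f f' (Fin.natAdd 4 q) - ψ * cob κ j (rel κ f.g f'.g) q := by
  rw [coW_relab, tr_smul]
  unfold cob
  simp only [Pi.sub_apply, Pi.smul_apply, smul_eq_mul]
  ring

/-- cocycle of the fake rotation -/
theorem cob_mul (κ : ℝ) (j : Fin 14) (g h : Fin 4 → ℝ) :
    cob κ j (mul κ g h) = cob κ j h + tr κ h (cob κ j g) := by
  unfold cob
  rw [tr_mul, tr_sub]
  abel

/-- the fake rotation only has slots after `j` -/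
lemma cob_low : ∀ q j : Fin 14, q < j → ∀ t ∈ tms q, t.s ≠ j := by decide

lemma tms_lt : ∀ q : Fin 14, ∀ t ∈ tms q, t.s < q := by decide

theorem cob_zero (κ : ℝ) (h : Fin 4 → ℝ) {q j : Fin 14} (hq : q ≤ j) : cob κ j h q = 0 := by
  unfold cob
  rw [Pi.sub_apply, tr_tms κ h _ q]
  have : ((tms q).map (Tm.ev κ h (Pi.single j 1))).sum = 0 := by
    refine List.sum_eq_zero fun x hx => ?_
    obtain ⟨t, ht, rfl⟩ := List.mem_map.1 hx
    unfold Tm.ev
    have h1 : t.s ≠ j := fun he => absurd (he ▸ tms_lt q t ht) (not_lt.2 hq)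
    rw [Pi.single_eq_of_ne h1, mul_zero]
  rw [this]
  ring

/-- bound of the fake rotation: natural size -/
theorem cob_le {κ : ℝ} (hκ : |κ| ≤ 1) {h : Fin 4 → ℝ} {X : Fin 18 → ℝ} (hX : SidesW X) {K : ℝ}
    (hK : 1 ≤ K) (h1 : ∀ i : Fin 4, |h i| ≤ K * X (Fin.castAdd 14 i)) {ψ : ℝ} {j : Fin 14}
    (hψ : |ψ| ≤ K * X (Fin.natAdd 4 j)) (q : Fin 14) :
    |ψ * cob κ j h q| ≤ 471 * K ^ 7 * X (Fin.natAdd 4 q) := by
  have hK0 : 0 ≤ K := by linarith
  have e : ψ * cob κ j h q = tr κ h (ψ • Pi.single j 1) q - (ψ • Pi.single j (1 : ℝ)) q := by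
    rw [tr_smul]
    unfold cob
    simp only [Pi.sub_apply, Pi.smul_apply, smul_eq_mul]
    ring
  have hw : ∀ q : Fin 14, |(ψ • Pi.single j (1 : ℝ) : Fin 14 → ℝ) q| ≤
      K * X (Fin.natAdd 4 q) := by
    intro q
    by_cases hq : q = j
    · subst hq
      simpa using hψ
    · rw [Pi.smul_apply, Pi.single_eq_of_ne hq, smul_zero, abs_zero]
      exact mul_nonneg hK0 (hX.pos _)
  have g1 := tr_size hκ hX hK h1 hw q
  have g2 := hw q
  rw [e]
  refine (abs_sub _ _).trans ((add_le_add g1 g2).trans ?_)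
  have : K ≤ K ^ 7 := by
    calc K = K ^ 1 := (pow_one K).symm
      _ ≤ K ^ 7 := pow_le_pow_right₀ hK (by norm_num)
  have := mul_le_mul_of_nonneg_right this (hX.pos (Fin.natAdd 4 q))
  linarith

end Crest.Agent.R136.EvW938
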