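import Crest.Agent.R136.Pl2b_860

/-!
# R136 (S0187), PLAN 2 (C2): good incidences of a planar class (helper524)

For a class `S` of planar lines `z ↦ f s + z * g s` in a strip of half-width `w1` with the tube
bounds `#tube (δ w1) ≤ W M δ^(1+q)` (`w2 ≤ 8 δ w1`), every line `t` is `r`-rich only at few of the
`2^m` heights, for all `r ∈ [1/Λ, 1]` at once.
-/

set_option autoImplicit false
set_option linter.unusedVariables false

open Finset

namespace Crest.Agent.R136.Gin524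

open Crest.Agent.R136.Pl860 (Meet planar_bad)

open Classical in
/-- one scale -/
theorem bad_scale {α : Type*} (S : Finset α) {p v : α → ℝ} {W M q : ℝ} {k m : ℕ} {T : α}
    (hq : 0 < q) (hW : 0 ≤ W) (hM : 0 < M)
    (hD : ∀ i, i ≤ k → ((S.filter fun s => |p s - p T| ≤ 2 * (1/2) ^ i ∧
      |v s - v T| ≤ (1/2) ^ i).card : ℝ) ≤ W * ((1/2 : ℝ) ^ i) ^ (1 + q) * M)
    (hv : ∀ s ∈ S, |v s - v T| ≤ 1) (hkm : k ≤ m) {B : ℝ} (hB : 0 ≤ B) :
    (((range (2 ^ m)).filter fun i : ℕ => B * (1/2) ^ k * M <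
      ((S.filter fun s => |(p s + v s * ((i:ℝ) / 2 ^ m)) - (p T + v T * ((i:ℝ) / 2 ^ m))| ≤
        (1/2) ^ k).card : ℝ)).card : ℝ) * B ≤ 2 ^ m * (6 * (W / (1 - (1/2 : ℝ) ^ q))) := by
  have hD' : ∀ i, i ≤ k → ((S.filter fun s => |p s - p T| ≤ (1 + 1) * (1/2) ^ i ∧
      |v s - v T| ≤ (1/2) ^ i).card : ℝ) ≤ W * ((1/2 : ℝ) ^ i) ^ (1 + q) * M := by
    intro i hi
    have := hD i hi
    norm_num at this ⊢
    exact this
  have h1 := planar_bad S (p := p) (v := v) (K := 1) (B := B * (1/2) ^ k * M) (k := k) (T := T)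
    hq le_rfl hW hM.le hD' hv
  set F := (range (2 ^ m)).filter fun i : ℕ => B * (1/2) ^ k * M <
      ((S.filter fun s => |(p s + v s * ((i:ℝ) / 2 ^ m)) - (p T + v T * ((i:ℝ) / 2 ^ m))| ≤
        (1/2) ^ k).card : ℝ) with hF
  set G := (range (2 ^ k)).filter fun j =>
      B * (1/2) ^ k * M < ((S.filter fun T' => Meet p v 1 ((1/2) ^ k) j T T').card : ℝ) with hG
  have hmk : 2 ^ m = 2 ^ (m - k) * 2 ^ k := by rw [← pow_add]; congr 1; omega
  have hpos : 0 < 2 ^ (m - k) := by positivity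
  have hmap : ∀ i ∈ F, i / 2 ^ (m - k) ∈ G := by
    intro i hi
    obtain ⟨hi1, hi2⟩ := mem_filter.1 hi
    have hi3 := mem_range.1 hi1
    refine mem_filter.2 ⟨mem_range.2 ?_, lt_of_lt_of_le hi2 ?_⟩
    · rw [Nat.div_lt_iff_lt_mul hpos, mul_comm, ← hmk]; exact hi3
    · have hsub : (S.filter fun s => |(p s + v s * ((i:ℝ) / 2 ^ m)) -
          (p T + v T * ((i:ℝ) / 2 ^ m))| ≤ (1/2) ^ k) ⊆
          S.filter fun T' => Meet p v 1 ((1/2) ^ k) (i / 2 ^ (m - k)) T T' := by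
        intro s hs
        obtain ⟨hs1, hs2⟩ := mem_filter.1 hs
        refine mem_filter.2 ⟨hs1, (i:ℝ) / 2 ^ m, ?_, ?_, ?_⟩
        · rw [le_div_iff₀ (by positivity)]
          have h2 : i / 2 ^ (m - k) * 2 ^ (m - k) ≤ i := Nat.div_mul_le_self _ _
          have h3 : (((i / 2 ^ (m - k) : ℕ) : ℝ)) * 2 ^ (m - k) ≤ i := by exact_mod_cast h2
          have h4 : ((2:ℝ) ^ m) = 2 ^ (m - k) * 2 ^ k := by exact_mod_cast hmk
          have h5 : (1/2 : ℝ) ^ k * 2 ^ k = 1 := by rw [← mul_pow]; norm_num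
          calc ((i / 2 ^ (m - k) : ℕ) : ℝ) * (1/2) ^ k * 2 ^ m
              = ((i / 2 ^ (m - k) : ℕ) : ℝ) * 2 ^ (m - k) * ((1/2) ^ k * 2 ^ k) := by
                rw [h4]; ring
            _ ≤ i := by rw [h5, mul_one]; exact h3
        · rw [div_le_iff₀ (by positivity)]
          have h2 : i < (i / 2 ^ (m - k) + 1) * 2 ^ (m - k) := by
            have := Nat.lt_div_mul_add (a := i) hpos
            rw [add_mul, one_mul]; exact this
          have h3 : (i:ℝ) ≤ (((i / 2 ^ (m - k) : ℕ) : ℝ) + 1) * 2 ^ (m - k) := by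
            exact_mod_cast h2.le
          have h4 : ((2:ℝ) ^ m) = 2 ^ (m - k) * 2 ^ k := by exact_mod_cast hmk
          have h5 : (1/2 : ℝ) ^ k * 2 ^ k = 1 := by rw [← mul_pow]; norm_num
          calc (i:ℝ) ≤ (((i / 2 ^ (m - k) : ℕ) : ℝ) + 1) * 2 ^ (m - k) * ((1/2) ^ k * 2 ^ k) := by
                rw [h5, mul_one]; exact h3
            _ = _ := by rw [h4]; ring
        · rw [one_mul]; exact hs2
      exact_mod_cast card_le_card hsub
  have hcard : F.card ≤ G.card * 2 ^ (m - k) := by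
    rw [mul_comm]
    refine card_le_mul_card_image_of_maps_to hmap _ fun j _ => ?_
    have hsub : (F.filter fun i => i / 2 ^ (m - k) = j) ⊆
        (Finset.Ico (j * 2 ^ (m - k)) ((j + 1) * 2 ^ (m - k))) := by
      intro i hi
      obtain ⟨_, hi2⟩ := mem_filter.1 hi
      rw [Finset.mem_Ico]
      constructor
      · rw [← hi2]; exact Nat.div_mul_le_self _ _
      · rw [← hi2]
        have := Nat.lt_div_mul_add (a := i) hpos
        rw [add_mul, one_mul]; exact this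
    refine (card_le_card hsub).trans (le_of_eq ?_)
    rw [Nat.card_Ico]
    have : (j + 1) * 2 ^ (m - k) = j * 2 ^ (m - k) + 2 ^ (m - k) := by ring
    omega
  have hcard' : (F.card : ℝ) ≤ G.card * 2 ^ (m - k) := by exact_mod_cast hcard
  have h5 : (1/2 : ℝ) ^ k * 2 ^ k = 1 := by rw [← mul_pow]; norm_num
  have h4 : ((2:ℝ) ^ m) = 2 ^ (m - k) * 2 ^ k := by exact_mod_cast hmk
  -- `#G * B ≤ 2^k * 6 W / (1 - ..)`
  have h6 : (G.card : ℝ) * B ≤ 2 ^ k * (6 * (W / (1 - (1/2 : ℝ) ^ q))) := by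
    have h7 : ((G.card : ℝ) * B) * M ≤ (2 ^ k * (6 * (W / (1 - (1/2 : ℝ) ^ q)))) * M := by
      have h8 : (G.card : ℝ) * (B * (1/2) ^ k * M) * 2 ^ k ≤
          (4 * 1 + 2) * (W * M / (1 - (1/2 : ℝ) ^ q)) * 2 ^ k :=
        mul_le_mul_of_nonneg_right h1 (by positivity)
      calc ((G.card : ℝ) * B) * M = (G.card : ℝ) * (B * (1/2) ^ k * M) * 2 ^ k := by
            calc ((G.card : ℝ) * B) * M = (G.card : ℝ) * B * M * ((1/2) ^ k * 2 ^ k) := by
                  rw [h5, mul_one]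
              _ = _ := by ring
        _ ≤ _ := h8
        _ = _ := by ring
    exact le_of_mul_le_mul_right h7 hM
  calc (F.card : ℝ) * B ≤ (G.card * 2 ^ (m - k)) * B := mul_le_mul_of_nonneg_right hcard' hB
    _ = (G.card * B) * 2 ^ (m - k) := by ring
    _ ≤ (2 ^ k * (6 * (W / (1 - (1/2 : ℝ) ^ q)))) * 2 ^ (m - k) :=
        mul_le_mul_of_nonneg_right h6 (by positivity)
    _ = _ := by rw [h4]; ring

open Classical in
/-- all dyadic scales at once -/
theorem bad_scales {α : Type*} (S : Finset α) {p v : α → ℝ} {W M q : ℝ} {k0 m : ℕ} {T : α}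
    (hq : 0 < q) (hW : 0 ≤ W) (hM : 0 < M)
    (hD : ∀ i, i ≤ k0 → ((S.filter fun s => |p s - p T| ≤ 2 * (1/2) ^ i ∧
      |v s - v T| ≤ (1/2) ^ i).card : ℝ) ≤ W * ((1/2 : ℝ) ^ i) ^ (1 + q) * M)
    (hv : ∀ s ∈ S, |v s - v T| ≤ 1) (hkm : k0 ≤ m) {B : ℝ} (hB0 : 0 < B)
    (hB : 24 * ((k0 : ℝ) + 1) * (W / (1 - (1/2 : ℝ) ^ q)) ≤ B) :
    (((range (2 ^ m)).filter fun i : ℕ => ¬ ∀ k, k ≤ k0 →
      ((S.filter fun s => |(p s + v s * ((i:ℝ) / 2 ^ m)) - (p T + v T * ((i:ℝ) / 2 ^ m))| ≤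
        (1/2) ^ k).card : ℝ) ≤ B * (1/2) ^ k * M).card : ℝ) ≤ 2 ^ m / 4 := by
  set F := (range (2 ^ m)).filter fun i : ℕ => ¬ ∀ k, k ≤ k0 →
      ((S.filter fun s => |(p s + v s * ((i:ℝ) / 2 ^ m)) - (p T + v T * ((i:ℝ) / 2 ^ m))| ≤
        (1/2) ^ k).card : ℝ) ≤ B * (1/2) ^ k * M with hF
  set Fk : ℕ → Finset ℕ := fun k => (range (2 ^ m)).filter fun i : ℕ => B * (1/2) ^ k * M <
      ((S.filter fun s => |(p s + v s * ((i:ℝ) / 2 ^ m)) - (p T + v T * ((i:ℝ) / 2 ^ m))| ≤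
        (1/2) ^ k).card : ℝ) with hFk
  have hsub : F ⊆ (range (k0 + 1)).biUnion Fk := by
    intro i hi
    obtain ⟨hi1, hi2⟩ := mem_filter.1 hi
    push Not at hi2
    obtain ⟨k, hk, hk2⟩ := hi2
    exact mem_biUnion.2 ⟨k, mem_range.2 (by omega), mem_filter.2 ⟨hi1, hk2⟩⟩
  have h1 : (F.card : ℝ) ≤ ∑ k ∈ range (k0 + 1), ((Fk k).card : ℝ) := by
    have := (card_le_card hsub).trans card_biUnion_le
    exact_mod_cast this
  have h2 : (F.card : ℝ) * B ≤
      ((k0 : ℝ) + 1) * (2 ^ m * (6 * (W / (1 - (1/2 : ℝ) ^ q)))) := by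
    calc (F.card : ℝ) * B ≤ (∑ k ∈ range (k0 + 1), ((Fk k).card : ℝ)) * B :=
          mul_le_mul_of_nonneg_right h1 hB0.le
      _ = ∑ k ∈ range (k0 + 1), ((Fk k).card : ℝ) * B := sum_mul _ _ _
      _ ≤ ∑ k ∈ range (k0 + 1), 2 ^ m * (6 * (W / (1 - (1/2 : ℝ) ^ q))) := by
          refine sum_le_sum fun k hk => ?_
          have hk' : k ≤ k0 := by have := mem_range.1 hk; omega
          exact bad_scale S hq hW hM (fun i hi => hD i (hi.trans hk')) hv (hk'.trans hkm) hB0.le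
      _ = _ := by rw [sum_const, card_range, nsmul_eq_mul]; push_cast; ring
  have h3 : (F.card : ℝ) * B ≤ (2 ^ m / 4) * B := by
    refine h2.trans ?_
    have h4 : (2:ℝ) ^ m / 4 * (24 * ((k0 : ℝ) + 1) * (W / (1 - (1/2 : ℝ) ^ q))) ≤
        2 ^ m / 4 * B := mul_le_mul_of_nonneg_left hB (by positivity)
    refine le_trans (le_of_eq ?_) h4
    ring
  exact le_of_mul_le_mul_right h3 hB0

/-- an affine function which is small at both ends is small -/
theorem aff_le {a b z0 ρ D z : ℝ} (h0 : |a + z0 * b| ≤ D) (h1 : |a + (z0 + ρ) * b| ≤ D)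
    (hz0 : z0 ≤ z) (hz1 : z ≤ z0 + ρ) (hρ : 0 < ρ) : |a + z * b| ≤ D := by
  rw [abs_le] at h0 h1 ⊢
  have hx0 : 0 ≤ (z - z0) / ρ := div_nonneg (by linarith) hρ.le
  have hx1 : (z - z0) / ρ ≤ 1 := by rw [div_le_one hρ]; linarith
  have e : a + z * b = (1 - (z - z0) / ρ) * (a + z0 * b) + ((z - z0) / ρ) * (a + (z0 + ρ) * b) := by
    field_simp; ring
  rw [e]
  constructor <;> nlinarith

open Classical in
/-- **size of a class** from the tubes of width `w1` -/
theorem size_class {α : Type*} (S : Finset α) {f g : α → ℝ} {bf bg w1 z0 ρ N : ℝ} (hρ : 0 < ρ)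
    (hb : ∀ s ∈ S, ∀ z, z0 ≤ z → z ≤ z0 + ρ → |(f s + z * g s) - (bf + z * bg)| ≤ w1)
    (hN : 0 ≤ N) (htube : ∀ t ∈ S, ((S.filter fun s => ∀ z, z0 ≤ z → z ≤ z0 + ρ →
      |(f s + z * g s) - (f t + z * g t)| ≤ w1).card : ℝ) ≤ N) :
    (S.card : ℝ) ≤ 4 * N := by
  set F : α → Bool × Bool := fun s => (decide ((f s + z0 * g s) ≤ (bf + z0 * bg)),
    decide ((f s + (z0 + ρ) * g s) ≤ (bf + (z0 + ρ) * bg))) with hF
  have h1 : S.card = ∑ y ∈ (univ : Finset (Bool × Bool)), (S.filter fun s => F s = y).card :=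
    card_eq_sum_card_fiberwise fun s _ => mem_univ _
  rw [h1]
  push_cast
  have h2 : ∀ y ∈ (univ : Finset (Bool × Bool)), ((S.filter fun s => F s = y).card : ℝ) ≤ N := by
    intro y _
    rcases (S.filter fun s => F s = y).eq_empty_or_nonempty with h0 | ⟨t, ht⟩
    · rw [h0]; simpa using hN
    obtain ⟨ht1, ht2⟩ := mem_filter.1 ht
    refine le_trans ?_ (htube t ht1)
    have hsub : (S.filter fun s => F s = y) ⊆ S.filter fun s => ∀ z, z0 ≤ z → z ≤ z0 + ρ →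
      |(f s + z * g s) - (f t + z * g t)| ≤ w1 := by
      intro s hs
      obtain ⟨hs1, hs2⟩ := mem_filter.1 hs
      refine mem_filter.2 ⟨hs1, fun z hz0 hz1 => ?_⟩
      have hst : F s = F t := hs2.trans ht2.symm
      simp only [hF, Prod.mk.injEq, decide_eq_decide] at hst
      have a1 := abs_le.1 (hb s hs1 z0 le_rfl (by linarith))
      have a2 := abs_le.1 (hb t ht1 z0 le_rfl (by linarith))
      have b1 := abs_le.1 (hb s hs1 (z0 + ρ) (by linarith) le_rfl)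
      have b2 := abs_le.1 (hb t ht1 (z0 + ρ) (by linarith) le_rfl)
      have key0 : |(f s - f t) + z0 * (g s - g t)| ≤ w1 := by
        rw [abs_le]
        by_cases h : f s + z0 * g s ≤ bf + z0 * bg
        · have h' := hst.1.1 h
          constructor <;> linarith [a1.1, a1.2, a2.1, a2.2]
        · have h' : ¬ (f t + z0 * g t ≤ bf + z0 * bg) := fun h2 => h (hst.1.2 h2)
          push Not at h h'
          constructor <;> linarith [a1.1, a1.2, a2.1, a2.2]
      have key1 : |(f s - f t) + (z0 + ρ) * (g s - g t)| ≤ w1 := by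
        rw [abs_le]
        by_cases h : f s + (z0 + ρ) * g s ≤ bf + (z0 + ρ) * bg
        · have h' := hst.2.1 h
          constructor <;> linarith [b1.1, b1.2, b2.1, b2.2]
        · have h' : ¬ (f t + (z0 + ρ) * g t ≤ bf + (z0 + ρ) * bg) := fun h2 => h (hst.2.2 h2)
          push Not at h h'
          constructor <;> linarith [b1.1, b1.2, b2.1, b2.2]
      have := aff_le key0 key1 hz0 hz1 hρ
      have e : (f s + z * g s) - (f t + z * g t) = (f s - f t) + z * (g s - g t) := by ring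
      rw [e]; exact this
    exact_mod_cast card_le_card hsub
  refine (sum_le_sum h2).trans (le_of_eq ?_)
  rw [sum_const, card_univ, nsmul_eq_mul]
  norm_num

open Classical in
/-- **good heights of one line of a class**, all radii `r ∈ [1/Λ, 1]` at once. -/
theorem class_good {α : Type*} (S : Finset α) {f g : α → ℝ} {bf bg w1 w2 z0 ρ W M q : ℝ}
    {j m : ℕ} (hρ : 0 < ρ) (hw1 : 0 < w1) (hw2 : 0 < w2) (hw : w2 ≤ w1) (hq : 0 < q) (hW : 0 ≤ W)
    (hM : 0 < M)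
    (hb : ∀ s ∈ S, ∀ z, z0 ≤ z → z ≤ z0 + ρ → |(f s + z * g s) - (bf + z * bg)| ≤ w1)
    (htube : ∀ t ∈ S, ∀ δ : ℝ, w2 ≤ 8 * (δ * w1) → δ ≤ 1 →
      ((S.filter fun s => ∀ z, z0 ≤ z → z ≤ z0 + ρ →
      |(f s + z * g s) - (f t + z * g t)| ≤ δ * w1).card : ℝ) ≤ W * M * δ ^ (1 + q))
    (hj : (2:ℝ) ^ j * w2 ≤ 2 * w1) (hm : j ≤ m) {B : ℝ} (hB0 : 0 < B)
    (hB : 96 * 12 ^ (1 + q) * ((j : ℝ) + 1) * (W / (1 - (1/2 : ℝ) ^ q)) ≤ B) {t : α}
    (ht : t ∈ S) :
    (((range (2 ^ m)).filter fun i : ℕ => ¬ ∀ r : ℝ, 1 ≤ r * 2 ^ j → r ≤ 1 →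
      ((S.filter fun s => |(f s + (z0 + ρ * ((i:ℝ) / 2 ^ m)) * g s) -
        (f t + (z0 + ρ * ((i:ℝ) / 2 ^ m)) * g t)| ≤ r * w1).card : ℝ) ≤ B * r * M).card : ℝ) ≤
      2 ^ m / 4 := by
  have hD0 : 0 < 4 * w1 := by linarith
  set p : α → ℝ := fun s => (f s + z0 * g s) / (4 * w1) with hp
  set v : α → ℝ := fun s => ρ * g s / (4 * w1) with hv
  -- distances
  have hpv : ∀ (s : α) (x : ℝ), (p s + v s * x) - (p t + v t * x) =
      ((f s + (z0 + ρ * x) * g s) - (f t + (z0 + ρ * x) * g t)) / (4 * w1) := by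
    intro s x; simp only [hp, hv]; field_simp; ring
  have hsize : (S.card : ℝ) ≤ 4 * (W * M) := by
    refine size_class S hρ hb (mul_nonneg hW hM.le) fun t ht => ?_
    have := htube t ht 1 (by linarith) le_rfl
    rw [Real.one_rpow, mul_one] at this
    simpa only [one_mul] using this
  have hdiff : ∀ s ∈ S, ∀ z, z0 ≤ z → z ≤ z0 + ρ →
      |(f s + z * g s) - (f t + z * g t)| ≤ 2 * w1 := by
    intro s hs z h0 h1
    have a1 := abs_le.1 (hb s hs z h0 h1)
    have a2 := abs_le.1 (hb t ht z h0 h1)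
    rw [abs_le]; constructor <;> linarith [a1.1, a1.2, a2.1, a2.2]
  have hvv : ∀ s ∈ S, |v s - v t| ≤ 1 := by
    intro s hs
    have h0 := abs_le.1 (hdiff s hs z0 le_rfl (by linarith))
    have h1 := abs_le.1 (hdiff s hs (z0 + ρ) (by linarith) le_rfl)
    have e : v s - v t = (((f s + (z0 + ρ) * g s) - (f t + (z0 + ρ) * g t)) -
        ((f s + z0 * g s) - (f t + z0 * g t))) / (4 * w1) := by
      simp only [hv]; field_simp; ring
    rw [e, abs_div, abs_of_pos hD0, div_le_one hD0, abs_le]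
    constructor <;> linarith [h0.1, h0.2, h1.1, h1.2]
  have h12 : (0:ℝ) < 12 ^ (1 + q) := by positivity
  have hq1 : (0:ℝ) < 1 - (1/2 : ℝ) ^ q := by
    have := Real.rpow_lt_one (by norm_num : (0:ℝ) ≤ 1/2) (by norm_num) hq
    linarith
  -- tubes
  have hD : ∀ i, i ≤ j → ((S.filter fun s => |p s - p t| ≤ 2 * (1/2) ^ i ∧
      |v s - v t| ≤ (1/2) ^ i).card : ℝ) ≤
      (4 * 12 ^ (1 + q) * W) * ((1/2 : ℝ) ^ i) ^ (1 + q) * M := by
    intro i hi
    set δ : ℝ := 12 * (1/2) ^ i with hδ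
    have hδ0 : 0 < δ := by positivity
    have hδe : δ ^ (1 + q) = 12 ^ (1 + q) * ((1/2 : ℝ) ^ i) ^ (1 + q) := by
      rw [hδ, Real.mul_rpow (by norm_num) (by positivity)]
    have e1 : (4 * 12 ^ (1 + q) * W) * ((1/2 : ℝ) ^ i) ^ (1 + q) * M = 4 * (W * M) * δ ^ (1 + q) := by
      rw [hδe]; ring
    rw [e1]
    rcases le_or_gt δ 1 with h1 | h1
    · have hsub : (S.filter fun s => |p s - p t| ≤ 2 * (1/2) ^ i ∧ |v s - v t| ≤ (1/2) ^ i) ⊆
          S.filter fun s => ∀ z, z0 ≤ z → z ≤ z0 + ρ →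
            |(f s + z * g s) - (f t + z * g t)| ≤ δ * w1 := by
        intro s hs
        obtain ⟨hs1, hs2, hs3⟩ := mem_filter.1 hs
        refine mem_filter.2 ⟨hs1, fun z hz0 hz1 => ?_⟩
        have hx0 : 0 ≤ (z - z0) / ρ := div_nonneg (by linarith) hρ.le
        have hx1 : (z - z0) / ρ ≤ 1 := by rw [div_le_one hρ]; linarith
        have e2 := hpv s ((z - z0) / ρ)
        have e3 : z0 + ρ * ((z - z0) / ρ) = z := by field_simp; ring
        rw [e3] at e2
        have h5 : |(p s + v s * ((z - z0) / ρ)) - (p t + v t * ((z - z0) / ρ))| ≤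
            3 * (1/2) ^ i := by
          have e4 : (p s + v s * ((z - z0) / ρ)) - (p t + v t * ((z - z0) / ρ)) =
              (p s - p t) + (v s - v t) * ((z - z0) / ρ) := by ring
          rw [e4]
          refine (abs_add_le _ _).trans ?_
          rw [abs_mul, abs_of_nonneg hx0]
          have : |v s - v t| * ((z - z0) / ρ) ≤ (1/2) ^ i * 1 :=
            mul_le_mul hs3 hx1 hx0 (by positivity)
          linarith
        rw [e2, abs_div, abs_of_pos hD0, div_le_iff₀ hD0] at h5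
        refine h5.trans (le_of_eq ?_)
        rw [hδ]; ring
      have h3 : w2 ≤ 8 * (δ * w1) := by
        have h4 : (1/2 : ℝ) ^ j ≤ (1/2) ^ i :=
          pow_le_pow_of_le_one (by norm_num) (by norm_num) hi
        have h5 : (1/2 : ℝ) ^ j * 2 ^ j = 1 := by
          rw [← mul_pow]; norm_num
        have h6 : (1/2 : ℝ) ^ j * (2 ^ j * w2) ≤ (1/2) ^ j * (2 * w1) :=
          mul_le_mul_of_nonneg_left hj (by positivity)
        have h7 : (1/2 : ℝ) ^ j * (2 * w1) ≤ (1/2) ^ i * (2 * w1) :=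
          mul_le_mul_of_nonneg_right h4 (by positivity)
        have h8 : (1/2 : ℝ) ^ j * (2 ^ j * w2) = w2 := by rw [← mul_assoc, h5, one_mul]
        rw [h8] at h6
        have h9 : 0 ≤ (1/2 : ℝ) ^ i * w1 := by positivity
        rw [hδ]; linarith
      have h4 := htube t ht δ h3 h1
      have h5 : 0 ≤ W * M * δ ^ (1 + q) := by positivity
      refine (le_trans (by exact_mod_cast card_le_card hsub) h4).trans ?_
      nlinarith
    · have h5 : (1:ℝ) ≤ δ ^ (1 + q) := Real.one_le_rpow h1.le (by linarith)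
      have h6 : ((S.filter fun s => |p s - p t| ≤ 2 * (1/2) ^ i ∧
          |v s - v t| ≤ (1/2) ^ i).card : ℝ) ≤ S.card := by
        exact_mod_cast card_filter_le _ _
      have h7 : 0 ≤ 4 * (W * M) := by positivity
      calc _ ≤ (S.card : ℝ) := h6
        _ ≤ 4 * (W * M) := hsize
        _ ≤ 4 * (W * M) * δ ^ (1 + q) := le_mul_of_one_le_right h7 h5
  have hmain := bad_scales S (p := p) (v := v) (T := t) (k0 := j) (m := m) (B := B) hq
    (by positivity : (0:ℝ) ≤ 4 * 12 ^ (1 + q) * W) hM hD hvv hm hB0 (by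
      refine le_trans (le_of_eq ?_) hB
      ring)
  refine le_trans ?_ hmain
  have hsub : ((range (2 ^ m)).filter fun i : ℕ => ¬ ∀ r : ℝ, 1 ≤ r * 2 ^ j → r ≤ 1 →
      ((S.filter fun s => |(f s + (z0 + ρ * ((i:ℝ) / 2 ^ m)) * g s) -
        (f t + (z0 + ρ * ((i:ℝ) / 2 ^ m)) * g t)| ≤ r * w1).card : ℝ) ≤ B * r * M) ⊆
      (range (2 ^ m)).filter fun i : ℕ => ¬ ∀ k, k ≤ j →
      ((S.filter fun s => |(p s + v s * ((i:ℝ) / 2 ^ m)) - (p t + v t * ((i:ℝ) / 2 ^ m))| ≤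
        (1/2) ^ k).card : ℝ) ≤ B * (1/2) ^ k * M := by
    intro i hi
    obtain ⟨hi1, hi2⟩ := mem_filter.1 hi
    refine mem_filter.2 ⟨hi1, fun hall => hi2 fun r hr1 hr2 => ?_⟩
    have h2j : (0:ℝ) < 2 ^ j := by positivity
    have hr0 : 0 < r := by
      by_contra h
      push Not at h
      nlinarith
    -- dyadic `k` with `r/4 ≤ 2^-k ≤ r / 2`
    have hex : ∃ k, k ≤ j ∧ r / 4 ≤ (1/2 : ℝ) ^ k ∧ (1/2 : ℝ) ^ k ≤ r := by
      have hP : ∃ k, (1/2 : ℝ) ^ k ≤ r := by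
        obtain ⟨k, hk⟩ := exists_pow_lt_of_lt_one hr0 (by norm_num : (1/2 : ℝ) < 1)
        exact ⟨k, hk.le⟩
      refine ⟨Nat.find hP, ?_, ?_, Nat.find_spec hP⟩
      · refine Nat.find_min' hP (m := j) ?_
        have : (1/2 : ℝ) ^ j * 2 ^ j = 1 := by rw [← mul_pow]; norm_num
        have h5 : (1/2 : ℝ) ^ j * 2 ^ j ≤ r * 2 ^ j := by linarith
        exact le_of_mul_le_mul_right h5 h2j
      · rcases Nat.eq_zero_or_pos (Nat.find hP) with h | h
        · rw [h, pow_zero]; linarith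
        · have h1 := Nat.find_min hP (m := Nat.find hP - 1) (by omega)
          rw [not_le] at h1
          have h2 : (1/2 : ℝ) ^ (Nat.find hP) = 1/2 * (1/2) ^ (Nat.find hP - 1) := by
            rw [← pow_succ']; congr 1; omega
          rw [h2]; linarith
    obtain ⟨k, hk, hk1, hk2⟩ := hex
    have h5 := hall k hk
    have hsub2 : (S.filter fun s => |(f s + (z0 + ρ * ((i:ℝ) / 2 ^ m)) * g s) -
        (f t + (z0 + ρ * ((i:ℝ) / 2 ^ m)) * g t)| ≤ r * w1) ⊆
        S.filter fun s => |(p s + v s * ((i:ℝ) / 2 ^ m)) - (p t + v t * ((i:ℝ) / 2 ^ m))| ≤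
        (1/2) ^ k := by
      intro s hs
      obtain ⟨hs1, hs2⟩ := mem_filter.1 hs
      refine mem_filter.2 ⟨hs1, ?_⟩
      rw [hpv s, abs_div, abs_of_pos hD0, div_le_iff₀ hD0]
      have : r * w1 ≤ (1/2) ^ k * (4 * w1) := by nlinarith
      exact hs2.trans this
    calc _ ≤ ((S.filter fun s => |(p s + v s * ((i:ℝ) / 2 ^ m)) -
          (p t + v t * ((i:ℝ) / 2 ^ m))| ≤ (1/2) ^ k).card : ℝ) := by
          exact_mod_cast card_le_card hsub2
      _ ≤ B * (1/2) ^ k * M := h5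
      _ ≤ B * r * M := by
          refine mul_le_mul_of_nonneg_right ?_ hM.le
          exact mul_le_mul_of_nonneg_left hk2 hB0.le
  exact_mod_cast card_le_card hsub

end Crest.Agent.R136.Gin524
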