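import Crest.Agent.R136.Gin_524
import Crest.Agent.R136.CoreX_18

/-!
# R136 (S0187), PLAN 2 (C2), complete: good incidences in the form of `CoreX_18` (helper524)

* `good_most` : `GoodMost` of both systems, `B ≥ (2 W) ^ C`;
* `core_cross_full` : fields `crU`, `crV` of `Ndl372.Nd` over `TCore`, one exponent `C`:
  `B = (2 W) ^ C`, `θ = (2 W) ^ (-C)`, loss `(2 W) ^ (C + 12)`.
-/

set_option autoImplicit false
set_option linter.unusedVariables false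

open Finset

namespace Crest.Agent.R136.Gin524

open Crest.Agent.R136.Sh605 Crest.Agent.R136.Fl808
open Crest.Agent.R136.Pl2 (TCore)
open Crest.Agent.R136.Cmd113 (GoodI CrV)
open Crest.Agent.R136.Cx18 (GoodMost core_cross)

/-- `K W² ≤ (2 W) ^ C` -/
theorem exp_big {K : ℝ} (hK : 0 < K) : ∃ C : ℝ, 0 ≤ C ∧ ∀ W : ℝ, 1 ≤ W →
    K * W ^ 2 ≤ (2 * W) ^ C := by
  obtain ⟨n, hn⟩ := pow_unbounded_of_one_lt K (by norm_num : (1:ℝ) < 2)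
  refine ⟨n + 2, by positivity, fun W hW => ?_⟩
  have hW0 : 0 < 2 * W := by linarith
  have h1 : (2 * W) ^ ((n : ℝ) + 2) = (2 * W) ^ n * (2 * W) ^ 2 := by
    rw [Real.rpow_add hW0, Real.rpow_natCast]; norm_num
  rw [h1]
  have h2 : (2:ℝ) ^ n ≤ (2 * W) ^ n := pow_le_pow_left₀ (by norm_num) (by linarith) n
  have h3 : W ^ 2 ≤ (2 * W) ^ 2 := by nlinarith
  exact mul_le_mul (hn.le.trans h2) h3 (by positivity) (by positivity)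

theorem good_most {q : ℝ} (hq : 0 < q) : ∃ C : ℝ, 0 ≤ C ∧
    ∀ (qm qp : Fin 3 → ℝ) (L : ℕ → Ln4) (P : Finset ℕ) (u v : ℕ → ℕ) (bu bv : ℕ → Ln4)
      (eu ev : ℕ → Fin 3 → V3) (W M a Y w1 w2 z0 ρ B : ℝ) (j : ℕ), qm 1 = q →
      TCore qm qp L P u v bu bv eu ev W M a Y w1 w2 z0 ρ → 2 ^ j * w2 ≤ 2 * w1 →
      (2 * W) ^ C ≤ B →
      GoodMost L P u eu w1 M B z0 ρ j ∧ GoodMost L P v ev w1 M B z0 ρ j := by
  obtain ⟨C, hC, hCW⟩ := exp_big (Kq_pos hq)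
  refine ⟨C, hC, ?_⟩
  intro qm qp L P u v bu bv eu ev W M a Y w1 w2 z0 ρ B j hqm h hj hB
  subst hqm
  have hB' : Kq (qm 1) * W ^ 2 ≤ B := (hCW W h.W1).trans hB
  exact ⟨fun t ht => good_u h hq hj (Nat.le_succ j) hB' t ht,
    fun t ht => good_v h hq hj (Nat.le_succ j) hB' t ht⟩

theorem goodI_mono {L : ℕ → Ln4} {P : Finset ℕ} {u : ℕ → ℕ} {e : ℕ → Fin 3 → V3}
    {w1 M Λ B B' : ℝ} {t : ℕ} {z : ℝ} (hΛ : 0 < Λ) (hM : 0 ≤ M) (hB : B ≤ B')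
    (h : GoodI L P u e w1 M Λ B t z) : GoodI L P u e w1 M Λ B' t z := by
  intro r h1 h2
  have hr : 0 ≤ r := by
    by_contra h3
    push Not at h3
    nlinarith
  refine (h r h1 h2).trans ?_
  exact mul_le_mul_of_nonneg_right (mul_le_mul_of_nonneg_right hB hr) hM

theorem crV_mono {L : ℕ → Ln4} {P : Finset ℕ} {u v : ℕ → ℕ} {eu ev : ℕ → Fin 3 → V3}
    {w1 z0 ρ M Λ B B' θ θ' : ℝ} {s t : ℕ} (hΛ : 0 < Λ) (hM : 0 ≤ M) (hw1 : 0 ≤ w1) (hB : B ≤ B')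
    (hθ : θ' ≤ θ) (h : CrV L P u v eu ev w1 z0 ρ M Λ B θ s t) :
    CrV L P u v eu ev w1 z0 ρ M Λ B' θ' s t := by
  obtain ⟨h0, z, h1, h2, h3, h4, h5, h6⟩ := h
  exact ⟨h0, z, h1, h2, h3, (mul_le_mul_of_nonneg_right hθ hw1).trans h4,
    goodI_mono hΛ hM hB h5, goodI_mono hΛ hM hB h6⟩

open Classical in
/-- **(C2), complete.** -/
theorem core_cross_full {q : ℝ} (hq : 0 < q) : ∃ C : ℝ, 0 ≤ C ∧
    ∀ (qm qp : Fin 3 → ℝ) (L : ℕ → Ln4) (P : Finset ℕ) (u v : ℕ → ℕ) (bu bv : ℕ → Ln4)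
      (eu ev : ℕ → Fin 3 → V3) (W M a Y w1 w2 z0 ρ : ℝ) (j : ℕ), qm 1 = q →
      TCore qm qp L P u v bu bv eu ev W M a Y w1 w2 z0 ρ → 2 ^ j * w2 ≤ 2 * w1 →
      (2 * W) ^ C ≤ 2 ^ j →
      (∀ Q ⊆ P, P.card ≤ 4 * Q.card → (P.card : ℝ) * M ≤ (2 * W) ^ (C + 12) *
        (((Q ×ˢ Q).filter fun p => u p.1 = u p.2 ∧ CrV L P v u ev eu w1 z0 ρ M (2 ^ j)
          ((2 * W) ^ C) ((2 * W) ^ (-C)) p.1 p.2).card : ℝ)) ∧
      (∀ Q ⊆ P, P.card ≤ 4 * Q.card → (P.card : ℝ) * M ≤ (2 * W) ^ (C + 12) *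
        (((Q ×ˢ Q).filter fun p => v p.1 = v p.2 ∧ CrV L P u v eu ev w1 z0 ρ M (2 ^ j)
          ((2 * W) ^ C) ((2 * W) ^ (-C)) p.1 p.2).card : ℝ)) := by
  obtain ⟨C1, hC1, h1⟩ := good_most hq
  obtain ⟨C2, hC2, h2⟩ := core_cross hq
  refine ⟨max C1 C2, le_max_of_le_left hC1, ?_⟩
  intro qm qp L P u v bu bv eu ev W M a Y w1 w2 z0 ρ j hqm h hj hbig
  have hW2 : 1 ≤ 2 * W := by linarith [h.W1]
  have hW0 : 0 < 2 * W := by linarith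
  have e1 : (2 * W) ^ C1 ≤ (2 * W) ^ (max C1 C2) :=
    Real.rpow_le_rpow_of_exponent_le hW2 (le_max_left _ _)
  have e2 : (2 * W) ^ C2 ≤ (2 * W) ^ (max C1 C2) :=
    Real.rpow_le_rpow_of_exponent_le hW2 (le_max_right _ _)
  have e3 : (2 * W) ^ (-(max C1 C2)) ≤ (2 * W) ^ (-C2) :=
    Real.rpow_le_rpow_of_exponent_le hW2 (neg_le_neg (le_max_right _ _))
  have e4 : (2 * W) ^ (C2 + 12) ≤ (2 * W) ^ (max C1 C2 + 12) :=
    Real.rpow_le_rpow_of_exponent_le hW2 (by linarith [le_max_right C1 C2])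
  obtain ⟨gu, gv⟩ := h1 qm qp L P u v bu bv eu ev W M a Y w1 w2 z0 ρ ((2 * W) ^ (max C1 C2)) j
    hqm h hj e1
  obtain ⟨ku, kv⟩ := h2 qm qp L P u v bu bv eu ev W M a Y w1 w2 z0 ρ ((2 * W) ^ (max C1 C2)) j
    hqm h hj (e2.trans hbig) gu gv
  have hw1 : 0 ≤ w1 := h.w10.le
  constructor
  · intro Q hQ hc
    refine (ku Q hQ hc).trans (mul_le_mul e4 ?_ (by positivity) (by positivity))
    refine Nat.cast_le.2 (card_le_card fun p hp => ?_)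
    rw [mem_filter] at hp ⊢
    exact ⟨hp.1, hp.2.1, crV_mono (by positivity) h.M0.le hw1 le_rfl e3 hp.2.2⟩
  · intro Q hQ hc
    refine (kv Q hQ hc).trans (mul_le_mul e4 ?_ (by positivity) (by positivity))
    refine Nat.cast_le.2 (card_le_card fun p hp => ?_)
    rw [mem_filter] at hp ⊢
    exact ⟨hp.1, hp.2.1, crV_mono (by positivity) h.M0.le hw1 le_rfl e3 hp.2.2⟩

end Crest.Agent.R136.Gin524
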