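import Crest.Agent.R136.Gf1_356

/-!
# R136: Kaufman in exponent form with losses everywhere (helper356)

`kauf_exE`: as `kauf_ex`, but the fibre `S ε n` and the heights `Z ε n` may depend on `ε`, and all
hypotheses are asked with losses `ρ^(-C ε)`.
-/

set_option autoImplicit false
set_option linter.unusedVariables false

open Filter Topology Finset

namespace Crest.Agent.R136.Gf356

open Crest.Agent.R138.Ex926 (Base U)

/-- **Kaufman in exponent form, with losses everywhere.** -/
theorem kauf_exE (B : Base) {ι : Type*} [DecidableEq ι] (S : ℝ → ℕ → Finset ι)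
    (Z : ℝ → ℕ → Finset ℕ)
    (φ : ℕ → ℕ → ℝ) (al : ℕ → ι → ℕ → Prop) [∀ n i, DecidablePred (al n i)]
    (F : ℕ → ι → ℕ → ℝ) (A V : ℕ → ι → ℝ) {x σ α κ C C2 C0 : ℝ} (hx : 0 < x) (hσ0 : 0 ≤ σ)
    (hσ1 : σ ≤ 1) (hC : 1 ≤ C) (hC2 : 1 ≤ C2) {J : ℕ} (hJ : 0 < J) (π : ℕ → ℝ)
    (hZ : ∀ ε : ℝ, 0 < ε → ∀ᶠ n in (U : Filter ℕ), (Z ε n).Nonempty)
    (hφ : ∀ ε : ℝ, 0 < ε → ∀ᶠ n in (U : Filter ℕ), ∀ k ∈ Z ε n, |φ n k| ≤ B.d n ^ (-(C * ε)))
    (hF : ∀ ε : ℝ, 0 < ε → ∀ᶠ n in (U : Filter ℕ), ∀ k ∈ Z ε n, ∀ i ∈ S ε n, ∀ i' ∈ S ε n,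
      al n i k → al n i' k → |F n i k - F n i' k - ((A n i - A n i') + φ n k * (V n i - V n i'))|
        ≤ B.d n ^ (x - C * ε))
    (hS : ∀ ε : ℝ, 0 < ε → ∀ᶠ n in (U : Filter ℕ), B.d n ^ (-α + C * ε) ≤ ((S ε n).card : ℝ))
    (hcell : ∀ ε : ℝ, 0 < ε → ∀ᶠ n in (U : Filter ℕ), ∀ k ∈ Z ε n,
      ((((S ε n).filter fun i => al n i k).image fun i => ⌊F n i k / B.d n ^ (x - C * ε)⌋).card : ℝ)
        ≤ C0 * B.d n ^ (-κ - C2 * ε))
    (hal : ∀ ε : ℝ, 0 < ε → ∀ᶠ n in (U : Filter ℕ), ∀ i ∈ S ε n,
      B.d n ^ (C * ε) * ((Z ε n).card : ℝ) ≤ (((Z ε n).filter fun k => al n i k).card : ℝ))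
    (hV0 : ∀ ε : ℝ, 0 < ε → ∀ᶠ n in (U : Filter ℕ), ∀ i ∈ S ε n, ∀ i' ∈ S ε n,
      |V n i - V n i'| ≤ B.d n ^ (-(C * ε)))
    (hP : ∀ j ≤ J, ∀ ε : ℝ, 0 < ε → ∀ᶠ n in (U : Filter ℕ), ∀ i ∈ S ε n,
      (((S ε n).filter fun i' => |V n i' - V n i| ≤ B.d n ^ (sc x J j - C * ε) ∧
        |A n i' - A n i| ≤ B.d n ^ (sc x J j - (2 * C + 1) * ε)).card : ℝ)
          ≤ B.d n ^ (-π j - C2 * ε))
    (hQ : ∀ y : ℝ, 0 ≤ y → y ≤ x → ∀ ε : ℝ, 0 < ε → ∀ᶠ n in (U : Filter ℕ), ∀ k ∈ Z ε n,
      (((Z ε n).filter fun k' => |φ n k' - φ n k| ≤ B.d n ^ (y - ε)).card : ℝ)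
        ≤ B.d n ^ (σ * y - C2 * ε) * ((Z ε n).card : ℝ)) :
    ∃ j ≤ J, α - π j + σ * (x - sc x J (j + 1)) ≤ κ := by
  classical
  obtain ⟨j, hj, h⟩ := exists_le_of_ev B J
    (fun j => -κ - π j + σ * (x - sc x J (j + 1))) (- α) (3 * C + 3 * C2) (3 * |C0| + 1) (by
    intro ε hε
    have hCε : 0 ≤ C * ε := by positivity
    have ev1 : ∀ᶠ n in (U : Filter ℕ), ∀ j ∈ range (J + 1), ∀ i ∈ S ε n,
        (((S ε n).filter fun i' => |V n i' - V n i| ≤ B.d n ^ (sc x J j - C * ε) ∧
          |A n i' - A n i| ≤ B.d n ^ (sc x J j - (2 * C + 1) * ε)).card : ℝ)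
            ≤ B.d n ^ (-π j - C2 * ε) := by
      rw [Filter.eventually_all_finset]
      intro j hj
      exact hP j (by simpa [Nat.lt_succ_iff] using hj) ε hε
    have ev2 : ∀ᶠ n in (U : Filter ℕ), ∀ j ∈ range J, ∀ k ∈ Z ε n,
        (((Z ε n).filter fun k' =>
          |φ n k' - φ n k| ≤ B.d n ^ (x - sc x J (j + 1) - ε)).card : ℝ)
          ≤ B.d n ^ (σ * (x - sc x J (j + 1)) - C2 * ε) * ((Z ε n).card : ℝ) := by
      rw [Filter.eventually_all_finset]
      intro j hj
      have hj' : j + 1 ≤ J := by simpa using hj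
      exact hQ (x - sc x J (j + 1)) (by linarith [sc_le hx.le hJ hj'])
        (by linarith [sc_nonneg hx.le J (j + 1)]) ε hε
    filter_upwards [ev1, ev2, hZ ε hε, hφ ε hε, hF ε hε, hS ε hε, hcell ε hε, hal ε hε, hV0 ε hε,
      ev_const_le B hε 8] with n h1 h2 hZn hφn hFn hSn hcn haln hVn h7
    have hpow : ∀ t : ℝ, 0 < B.d n ^ t := fun t => rpos B n t
    have hSne : (S ε n).Nonempty := by
      rw [← Finset.card_pos]
      have : (0 : ℝ) < ((S ε n).card : ℝ) := lt_of_lt_of_le (hpow _) hSn
      exact_mod_cast this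
    -- rescaled multiplier and velocity
    set u := B.d n ^ (C * ε) with hu
    have hu0 : 0 < u := hpow _
    have huv : u * B.d n ^ (-(C * ε)) = 1 := by
      rw [hu, ← rpow_add', add_neg_cancel, Real.rpow_zero]
    set v := B.d n ^ (-(C * ε)) with hv
    have hv0 : 0 < v := hpow _
    set r := B.d n ^ (x - C * ε) with hr
    -- extension of `F` to the heights at which the line is not alive
    obtain ⟨ck, hck⟩ : ∃ ck : ℕ → ℝ, ∀ k ∈ Z ε n, ∀ i ∈ S ε n, al n i k →
        |F n i k - (A n i + φ n k * V n i + ck k)| ≤ r := by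
      have : ∀ k, ∃ c : ℝ, k ∈ Z ε n → ∀ i ∈ S ε n, al n i k →
          |F n i k - (A n i + φ n k * V n i + c)| ≤ r := by
        intro k
        by_cases hex : ∃ i ∈ S ε n, al n i k
        · obtain ⟨j, hj, hja⟩ := hex
          refine ⟨F n j k - A n j - φ n k * V n j, fun hk i hi hia => ?_⟩
          have := hFn k hk i hi j hj hia hja
          have e : F n i k - (A n i + φ n k * V n i + (F n j k - A n j - φ n k * V n j)) =
              F n i k - F n j k - ((A n i - A n j) + φ n k * (V n i - V n j)) := by ring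
          rw [e]
          exact this
        · exact ⟨0, fun _ i hi hia => absurd ⟨i, hi, hia⟩ hex⟩
      choose c hc using this
      exact ⟨c, fun k hk => hc k hk⟩
    set F' : ι → ℕ → ℝ := fun i k => if al n i k then F n i k else
      A n i + φ n k * V n i + ck k with hF'
    have hF'al : ∀ i k, al n i k → F' i k = F n i k := fun i k h => if_pos h
    have hF'1 : ∀ k ∈ Z ε n, ∀ i ∈ S ε n, |F' i k - (A n i + φ n k * V n i + ck k)| ≤ r := by
      intro k hk i hi
      by_cases hia : al n i k
      · rw [hF'al i k hia]; exact hck k hk i hi hia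
      · have : F' i k = A n i + φ n k * V n i + ck k := if_neg hia
        rw [this, sub_self, abs_zero]
        exact (hpow _).le
    have key := Crest.Agent.R138.Tw829.kaufman_abs (S ε n) (Z ε n) (fun k => u * φ n k) (al n)
      (fun i k => F' i k)
      (A n) (fun i => v * V n i) 0 r (2 * r) (|C0| * B.d n ^ (-κ - C2 * ε)) (B.d n ^ (C * ε)) J
      (fun j => B.d n ^ (sc x J j - 2 * (C * ε))) (fun j => B.d n ^ (-π j - C2 * ε))
      (fun j => B.d n ^ (σ * (x - sc x J (j + 1)) - C2 * ε))
      (hpow _) (by have := hpow (x - C * ε); positivity)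
      (mul_nonneg (abs_nonneg _) (hpow _).le) (hpow _).le hSne hZn
      (by
        intro k hk
        have := hφn k hk
        rw [sub_zero, abs_mul, abs_of_pos hu0]
        calc u * |φ n k| ≤ u * v := mul_le_mul_of_nonneg_left this hu0.le
          _ = 1 := huv
          _ ≤ 2 := by norm_num)
      (by
        intro k hk i hi i' hi'
        have h1 := hF'1 k hk i hi
        have h2 := hF'1 k hk i' hi'
        have e : (u * φ n k - 0) * (v * V n i - v * V n i') =
            φ n k * (V n i - V n i') := by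
          have : (u * φ n k - 0) * (v * V n i - v * V n i') =
            (u * v) * (φ n k * (V n i - V n i')) := by ring
          rw [this, huv, one_mul]
        simp only [e]
        have e2 : F' i k - F' i' k - ((A n i - A n i') + φ n k * (V n i - V n i')) =
            (F' i k - (A n i + φ n k * V n i + ck k)) -
              (F' i' k - (A n i' + φ n k * V n i' + ck k)) := by ring
        rw [e2]
        have h3 := abs_sub (F' i k - (A n i + φ n k * V n i + ck k))
          (F' i' k - (A n i' + φ n k * V n i' + ck k))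
        linarith)
      (by
        intro k hk
        have himg : (((S ε n).filter fun i => al n i k).image fun i => ⌊F' i k / r⌋) =
            (((S ε n).filter fun i => al n i k).image fun i => ⌊F n i k / r⌋) := by
          refine Finset.image_congr ?_
          intro i hi
          have := (Finset.mem_filter.1 hi).2
          simp only [hF'al i k this]
        rw [himg]
        refine (hcn k hk).trans ?_
        exact mul_le_mul_of_nonneg_right (le_abs_self _) (hpow _).le)
      (by
        calc B.d n ^ (C * ε) * (((S ε n).card : ℝ) * (Z ε n).card)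
            = ∑ i ∈ S ε n, B.d n ^ (C * ε) * ((Z ε n).card : ℝ) := by
              rw [Finset.sum_const, nsmul_eq_mul]; ring
          _ ≤ _ := Finset.sum_le_sum fun i hi => haln i hi)
      (fun j => hpow _)
      (by
        intro i hi i' hi'
        have := hVn i hi i' hi'
        simp only [sc_zero]
        rw [← mul_sub, abs_mul, abs_of_pos hv0]
        have e1 : B.d n ^ (0 - 2 * (C * ε)) = v * v := by
          rw [hv, ← rpow_add']; congr 1; ring
        rw [e1]
        exact mul_le_mul_of_nonneg_left this hv0.le)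
      (fun j => (hpow _).le) (fun j => (hpow _).le)
      (by
        intro j hj i hi
        have b1 := h1 j (Finset.mem_range.2 (by omega)) i hi
        refine le_trans ?_ b1
        have : ((S ε n).filter fun i' => |v * V n i' - v * V n i| ≤
              B.d n ^ (sc x J j - 2 * (C * ε)) ∧
            |A n i' - A n i| ≤ r + 2 * r + 2 * B.d n ^ (sc x J j - 2 * (C * ε))) ⊆
            (S ε n).filter fun i' => |V n i' - V n i| ≤ B.d n ^ (sc x J j - C * ε) ∧
              |A n i' - A n i| ≤ B.d n ^ (sc x J j - (2 * C + 1) * ε) := by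
          intro i' hi'
          obtain ⟨c1, c2, c3⟩ := Finset.mem_filter.1 hi'
          refine Finset.mem_filter.2 ⟨c1, ?_, c3.trans ?_⟩
          · rw [← mul_sub, abs_mul, abs_of_pos hv0] at c2
            have e1 : B.d n ^ (sc x J j - 2 * (C * ε)) = v * B.d n ^ (sc x J j - C * ε) := by
              rw [hv, ← rpow_add']; congr 1; ring
            rw [e1] at c2
            exact le_of_mul_le_mul_left c2 hv0
          · have e1 : r ≤ B.d n ^ (sc x J j - 2 * (C * ε)) :=
              rpow_anti B n (by linarith [sc_le hx.le hJ hj])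
            have e3 : B.d n ^ (sc x J j - (2 * C + 1) * ε) =
                B.d n ^ (sc x J j - 2 * (C * ε)) * B.d n ^ (-ε) := by
              rw [← rpow_add']; congr 1; ring
            rw [e3]
            have e4 := hpow (sc x J j - 2 * (C * ε))
            nlinarith
        exact_mod_cast Finset.card_le_card this)
      (by
        intro j hj k hk
        have b1 := h2 j (Finset.mem_range.2 hj) k hk
        refine le_trans ?_ b1
        have : ((Z ε n).filter fun k' => |u * φ n k' - u * φ n k| ≤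
            2 * (r + 2 * r) / B.d n ^ (sc x J (j + 1) - 2 * (C * ε))) ⊆
            (Z ε n).filter fun k' => |φ n k' - φ n k| ≤
              B.d n ^ (x - sc x J (j + 1) - ε) := by
          intro k' hk'
          obtain ⟨c1, c2⟩ := Finset.mem_filter.1 hk'
          refine Finset.mem_filter.2 ⟨c1, ?_⟩
          rw [← mul_sub, abs_mul, abs_of_pos hu0] at c2
          have e1 : 2 * (r + 2 * r) / B.d n ^ (sc x J (j + 1) - 2 * (C * ε)) =
              u * (6 * B.d n ^ (x - sc x J (j + 1))) := by
            have : B.d n ^ (x - C * ε) = u * B.d n ^ (x - sc x J (j + 1)) *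
                B.d n ^ (sc x J (j + 1) - 2 * (C * ε)) := by
              rw [hu, ← rpow_add', ← rpow_add']; congr 1; ring
            rw [hr, this]
            have e0 := (hpow (sc x J (j + 1) - 2 * (C * ε))).ne'
            rw [div_eq_iff e0]
            ring
          rw [e1] at c2
          have c3 := le_of_mul_le_mul_left c2 hu0
          refine c3.trans ?_
          have e3 : B.d n ^ (x - sc x J (j + 1) - ε) =
              B.d n ^ (x - sc x J (j + 1)) * B.d n ^ (-ε) := by
            rw [← rpow_add', ← sub_eq_add_neg]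
          rw [e3]
          nlinarith [hpow (x - sc x J (j + 1))]
        exact_mod_cast Finset.card_le_card this)
      (by
        apply Real.one_le_rpow_of_pos_of_le_one_of_nonpos (B.pos n) (B.lt n).le
        rw [sc_succ x hJ, sc_top x hJ]
        have : 0 ≤ σ * (x / J) := by positivity
        have : 0 ≤ C2 * ε := by positivity
        nlinarith)
    have k1 : B.d n ^ (-α + 3 * C * ε) ≤ (B.d n ^ (C * ε)) ^ 2 * ((S ε n).card : ℝ) := by
      have : B.d n ^ (-α + 3 * C * ε) = (B.d n ^ (C * ε)) ^ 2 * B.d n ^ (-α + C * ε) := by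
        rw [sq, ← rpow_add', ← rpow_add']; congr 1; ring
      rw [this]
      exact mul_le_mul_of_nonneg_left hSn (by positivity)
    calc B.d n ^ (-α + (3 * C + 3 * C2) * ε) ≤ B.d n ^ (-α + 3 * C * ε) :=
          rpow_anti B n (by nlinarith)
      _ ≤ _ := k1
      _ ≤ _ := key
      _ = |C0| * ∑ j ∈ range (J + 1), B.d n ^ (-κ - π j + σ * (x - sc x J (j + 1))
            - 3 * C2 * ε) := by
          rw [mul_assoc, Finset.mul_sum]
          congr 1
          refine Finset.sum_congr rfl fun j _ => ?_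
          rw [← rpow_add', ← rpow_add']
          congr 1
          ring
      _ ≤ (3 * |C0| + 1) * ∑ j ∈ range (J + 1), B.d n ^ (-κ - π j + σ * (x - sc x J (j + 1))
            - 3 * C2 * ε) := by
          refine mul_le_mul_of_nonneg_right (by linarith [abs_nonneg C0]) ?_
          exact Finset.sum_nonneg fun j _ => (hpow _).le
      _ ≤ _ := by
          refine mul_le_mul_of_nonneg_left ?_ (by positivity)
          refine Finset.sum_le_sum fun j _ => rpow_anti B n ?_
          nlinarith)
  refine ⟨j, hj, ?_⟩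
  linarith

end Crest.Agent.R136.Gf356
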