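import Crest.Agent.R136.Gr2_356
import Crest.Agent.R136.Net2_191

/-!
# R136: approximate triangular charts give `RUnif` (helper356)

`AChart B G M C R`: 191's cocycle inequality at equal heights, up to an additive error `ρ^R`.
-/

set_option autoImplicit false
set_option linter.unusedVariables false
set_option linter.unusedSectionVars false

open Filter Topology Finset

namespace Crest.Agent.R136.Gf356

open Crest.Agent.R138.Ex926 (Base U)
open Crest.Agent.R136.Net191 (Mons Legal)

variable {m : ℕ}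

/-- approximate triangular chart on the slices -/
structure AChart (B : Base) (G : ℕ → RCfg (Fin m)) (M : Mons m) (C R : ℝ) : Prop where
  C0 : 0 ≤ C
  base : ∀ n, (G n).ρ = B.d n
  refl : ∀ n k i, (i, k) ∈ (G n).I → ∀ j, (G n).rel k i i j = 0
  add : ∀ᶠ n in (U : Filter ℕ), ∀ k i l l', (i, k) ∈ (G n).I → (l, k) ∈ (G n).I →
    (l', k) ∈ (G n).I → ∀ j, |(G n).rel k i l' j - (G n).rel k i l j - (G n).rel k l l' j| ≤
      C * ∑ e ∈ M.mon j, ∏ s, (max |(G n).rel k i l s| |(G n).rel k l l' s|) ^ e s + B.d n ^ R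

variable {B : Base} {G : ℕ → RCfg (Fin m)} {M : Mons m} {C R : ℝ}

namespace AChart

variable (h : AChart B G M C R)

include h

theorem loose_iff {n : ℕ} {p : Fin m → ℝ} {ε : ℝ} {k i l : ℕ} :
    (G n).loose p ε k i l ↔ ∀ j, |(G n).rel k i l j| ≤ B.d n ^ (-ε) * B.d n ^ p j := by
  unfold RCfg.loose
  rw [h.base n]
  refine forall_congr' fun j => ?_
  have : B.d n ^ (p j - ε) = B.d n ^ (-ε) * B.d n ^ p j := by
    rw [← rpow_add']; congr 1; ring
  rw [this]

/-- quasi-triangle -/
theorem tri {p : Fin m → ℝ} (hp : Legal M p) (hpR : ∀ j, p j ≤ R) {ε : ℝ} (hε : 0 < ε) :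
    ∀ᶠ n in (U : Filter ℕ), ∀ k i l l', (i, k) ∈ (G n).I →
      (l, k) ∈ (G n).I → (l', k) ∈ (G n).I → (G n).loose p ε k i l → (G n).loose p ε k l l' →
      (G n).loose p ((M.deg + 2) * ε) k i l' := by
  have hcnt : (0 : ℝ) ≤ C * M.cnt := mul_nonneg h.C0 (Nat.cast_nonneg _)
  filter_upwards [h.add, ev_const_le B hε (3 + C * M.cnt)] with n hadd hK k i l l' hi hl hl' h1 h2
  set K := B.d n ^ (-ε) with hKdef
  have hK1 : 1 ≤ K := by linarith
  have hK0 : 0 < K := by linarith
  rw [h.loose_iff] at h1 h2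
  rw [h.loose_iff]
  intro j
  have h3 := hadd k i l l' hi hl hl' j
  have h4 := Net191.err_le hp (B.pos n) (B.lt n).le j h.C0 hK1
    (x := fun s => max |(G n).rel k i l s| |(G n).rel k l l' s|)
    (fun s => (abs_nonneg _).trans (le_max_left _ _)) (fun s _ => max_le (h1 s) (h2 s))
  have hdp : 0 < B.d n ^ p j := rpos B n _
  have hR : B.d n ^ R ≤ B.d n ^ p j := rpow_anti B n (hpR j)
  have e : (G n).rel k i l' j = ((G n).rel k i l' j - (G n).rel k i l j - (G n).rel k l l' j) +
      (G n).rel k i l j + (G n).rel k l l' j := by ring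
  have h5 : |(G n).rel k i l' j| ≤
      (C * M.cnt * K ^ M.deg * B.d n ^ p j + B.d n ^ p j) + K * B.d n ^ p j + K * B.d n ^ p j := by
    rw [e]
    have a1 := abs_add_le ((G n).rel k i l' j - (G n).rel k i l j - (G n).rel k l l' j +
      (G n).rel k i l j) ((G n).rel k l l' j)
    have a2 := abs_add_le ((G n).rel k i l' j - (G n).rel k i l j - (G n).rel k l l' j)
      ((G n).rel k i l j)
    linarith [h1 j, h2 j]
  have h6 : (C * M.cnt * K ^ M.deg + 1) + K + K ≤ K ^ (M.deg + 2) := by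
    have b1 : (1 : ℝ) ≤ K ^ M.deg := one_le_pow₀ hK1
    have b2 : K ^ M.deg * K = K ^ (M.deg + 1) := (pow_succ K M.deg).symm
    have b3 : K ^ (M.deg + 1) * K = K ^ (M.deg + 2) := (pow_succ K (M.deg + 1)).symm
    have b4 : K ^ M.deg ≤ K ^ (M.deg + 1) := pow_le_pow_right₀ hK1 (Nat.le_succ _)
    have b5 : K ≤ K ^ (M.deg + 1) := by
      calc K = 1 * K := (one_mul K).symm
        _ ≤ K ^ M.deg * K := mul_le_mul_of_nonneg_right b1 hK0.le
        _ = _ := b2
    have b6 : C * M.cnt * K ^ M.deg ≤ C * M.cnt * K ^ (M.deg + 1) :=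
      mul_le_mul_of_nonneg_left b4 hcnt
    have b7 : (3 + C * M.cnt) * K ^ (M.deg + 1) ≤ K ^ (M.deg + 2) := by
      rw [← b3, mul_comm (K ^ (M.deg + 1)) K]
      exact mul_le_mul_of_nonneg_right hK (by positivity)
    have b8 : (1 : ℝ) ≤ K ^ (M.deg + 1) := one_le_pow₀ hK1
    nlinarith
  calc |(G n).rel k i l' j| ≤ _ := h5
    _ = ((C * M.cnt * K ^ M.deg + 1) + K + K) * B.d n ^ p j := by ring
    _ ≤ K ^ (M.deg + 2) * B.d n ^ p j := mul_le_mul_of_nonneg_right h6 hdp.le
    _ = _ := by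
        rw [hKdef, ← Real.rpow_natCast, ← Real.rpow_mul (B.pos n).le]
        congr 2
        push_cast
        ring

/-- exponents of the symmetry -/
def symE (D : ℕ) : ℕ → ℕ
  | 0 => 1
  | n + 1 => symE D n * (D + 1) + 2

omit h in
theorem symE_pos (D n : ℕ) : 1 ≤ symE D n := by
  cases n with
  | zero => exact le_rfl
  | succ n => simp only [symE]; omega

omit h in
theorem symE_mono (D n : ℕ) : symE D n ≤ symE D (n + 1) := by
  simp only [symE]
  nlinarith [Nat.zero_le (symE D n * D)]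

/-- quasi-symmetry -/
theorem symm {p : Fin m → ℝ} (hp : Legal M p) (hpR : ∀ j, p j ≤ R) {ε : ℝ} (hε : 0 < ε) :
    ∀ᶠ n in (U : Filter ℕ), ∀ k i l, (i, k) ∈ (G n).I → (l, k) ∈ (G n).I →
      (G n).loose p ε k i l → (G n).loose p (symE M.deg m * ε) k l i := by
  have hcnt : (0 : ℝ) ≤ C * M.cnt := mul_nonneg h.C0 (Nat.cast_nonneg _)
  filter_upwards [h.add, ev_const_le B hε (3 + C * M.cnt)] with n hadd hK k i l hi hl h1
  set K := B.d n ^ (-ε) with hKdef
  have hK1 : 1 ≤ K := by linarith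
  have hK0 : 0 < K := by linarith
  rw [h.loose_iff] at h1
  rw [h.loose_iff]
  have hmono : ∀ {a b : ℕ}, a ≤ b → ∀ s : Fin m, K ^ a * B.d n ^ p s ≤ K ^ b * B.d n ^ p s :=
    fun hab s => mul_le_mul_of_nonneg_right (pow_le_pow_right₀ hK1 hab) (rpos B n _).le
  have key : ∀ N : ℕ, ∀ s : Fin m, s.val < N →
      |(G n).rel k l i s| ≤ K ^ (symE M.deg N) * B.d n ^ p s := by
    intro N
    induction N with
    | zero => intro s hs; exact absurd hs (Nat.not_lt_zero _)
    | succ N ih =>
      intro s hs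
      rcases Nat.lt_or_ge s.val N with hlt | hge
      · exact (ih s hlt).trans (hmono (symE_mono _ _) s)
      · have hsn : s.val = N := by omega
        have h3 := hadd k i l i hi hl hi s
        rw [h.refl n k i hi s] at h3
        have hK' : 1 ≤ K ^ symE M.deg N := one_le_pow₀ hK1
        have h4 := Net191.err_le hp (B.pos n) (B.lt n).le s h.C0 hK'
          (x := fun t => max |(G n).rel k i l t| |(G n).rel k l i t|)
          (fun t => (abs_nonneg _).trans (le_max_left _ _)) (fun t ht => by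
            refine max_le ?_ (ih t ?_)
            · refine (h1 t).trans ?_
              have := hmono (symE_pos M.deg N) t
              rwa [pow_one] at this
            · have : t.val < s.val := ht
              omega)
        have hdp : 0 < B.d n ^ p s := rpos B n _
        have hR : B.d n ^ R ≤ B.d n ^ p s := rpow_anti B n (hpR s)
        have e : (G n).rel k l i s = -(0 - (G n).rel k i l s - (G n).rel k l i s) -
          (G n).rel k i l s := by ring
        have h5 : |(G n).rel k l i s| ≤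
            (C * M.cnt * (K ^ symE M.deg N) ^ M.deg * B.d n ^ p s + B.d n ^ p s) +
              K * B.d n ^ p s := by
          rw [e]
          have a1 := abs_sub (-(0 - (G n).rel k i l s - (G n).rel k l i s)) ((G n).rel k i l s)
          rw [abs_neg] at a1
          linarith [h1 s]
        rw [← pow_mul] at h5
        set a := symE M.deg N * M.deg with ha
        have h6 : (C * M.cnt * K ^ a + 1) + K ≤ K ^ (a + 2) := by
          have b1 : (1 : ℝ) ≤ K ^ a := one_le_pow₀ hK1
          have b2 : K ^ a * K = K ^ (a + 1) := (pow_succ K a).symm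
          have b3 : K ^ (a + 1) * K = K ^ (a + 2) := (pow_succ K (a + 1)).symm
          have b5 : K ≤ K ^ (a + 1) := by
            calc K = 1 * K := (one_mul K).symm
              _ ≤ K ^ a * K := mul_le_mul_of_nonneg_right b1 hK0.le
              _ = _ := b2
          have b4 : K ^ a ≤ K ^ (a + 1) := pow_le_pow_right₀ hK1 (Nat.le_succ _)
          have b6 : C * M.cnt * K ^ a ≤ C * M.cnt * K ^ (a + 1) :=
            mul_le_mul_of_nonneg_left b4 hcnt
          have b7 : (3 + C * M.cnt) * K ^ (a + 1) ≤ K ^ (a + 2) := by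
            rw [← b3, mul_comm (K ^ (a + 1)) K]
            exact mul_le_mul_of_nonneg_right hK (by positivity)
          have b8 : (1 : ℝ) ≤ K ^ (a + 1) := one_le_pow₀ hK1
          nlinarith
        calc |(G n).rel k l i s| ≤ _ := h5
          _ = ((C * M.cnt * K ^ a + 1) + K) * B.d n ^ p s := by ring
          _ ≤ K ^ (a + 2) * B.d n ^ p s := mul_le_mul_of_nonneg_right h6 hdp.le
          _ ≤ _ := by
              refine hmono ?_ s
              simp only [symE, ha]
              nlinarith [symE_pos M.deg N]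
  intro j
  have := key m j j.isLt
  refine this.trans (le_of_eq ?_)
  rw [hKdef, ← Real.rpow_natCast, ← Real.rpow_mul (B.pos n).le]
  congr 2
  ring

end AChart

/-- looser boxes -/
theorem loose_of_le {n : ℕ} (hb : (G n).ρ = B.d n) {p : Fin m → ℝ} {ε ε' : ℝ} (hε : ε ≤ ε')
    {k i l : ℕ} (h : (G n).loose p ε k i l) : (G n).loose p ε' k i l := by
  intro j
  refine (h j).trans ?_
  rw [hb]
  exact rpow_anti B n (by linarith)

/-- the constant of `RUnif` -/
noncomputable def chD (M : Mons m) (Cν : ℝ) : ℝ :=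
  (M.deg + 2) + AChart.symE M.deg m + (Cν * ∑ j, Net191.wg M j + 1)

/-- **approximate triangular chart + uniform counts of the undilated boxes ⊢ `RUnif`** -/
theorem RUnif_of_achart (h : AChart B G M C R) {Leg : Set (Fin m → ℝ)} {ν : (Fin m → ℝ) → ℝ}
    {Cν : ℝ} (hCν : 0 ≤ Cν)
    (sub : ∀ n, (G n).I ⊆ (G n).L ×ˢ (G n).Z) (nonempty : ∀ n, (G n).I.Nonempty)
    (bd : ∀ n k i l, (i, k) ∈ (G n).I → (l, k) ∈ (G n).I → ∀ j, |(G n).rel k i l j| ≤ 1)
    (hLeg : ∀ p ∈ Leg, Legal M p ∧ ∀ j, p j ≤ R)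
    (hlow : ∀ p ∈ Leg, ∀ ε : ℝ, 0 < ε → Net191.lowp M ε p ∈ Leg)
    (hlip : ∀ p ∈ Leg, ∀ q ∈ Leg, (∀ j, q j ≤ p j) → ν q ≤ ν p + Cν * ∑ j, (p j - q j))
    (low : ∀ p ∈ Leg, ∀ ε : ℝ, 0 < ε → ∀ᶠ n in (U : Filter ℕ), ∀ i k, (i, k) ∈ (G n).I →
      B.d n ^ (-ν p + ε) ≤ (((G n).box p ε i k).card : ℝ))
    (up : ∀ p ∈ Leg, ∀ ε : ℝ, 0 < ε → ∀ᶠ n in (U : Filter ℕ), ∀ i k, (i, k) ∈ (G n).I →
      (((G n).box p 0 i k).card : ℝ) ≤ B.d n ^ (-ν p - ε)) :
    RUnif B G Leg ν (chD M Cν) := by
  have hw : 0 ≤ ∑ j, Net191.wg M j :=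
    Finset.sum_nonneg fun j _ => by linarith [Net191.wg_one M j]
  have hCw : 0 ≤ Cν * ∑ j, Net191.wg M j := mul_nonneg hCν hw
  have hdeg : (0 : ℝ) ≤ M.deg := Nat.cast_nonneg _
  have hsE : (0 : ℝ) ≤ AChart.symE M.deg m := Nat.cast_nonneg _
  refine ⟨?_, h.base, sub, nonempty, h.refl, ?_, ?_, low, ?_⟩
  · unfold chD; linarith
  · intro p hp ε hε
    filter_upwards [h.symm (hLeg p hp).1 (hLeg p hp).2 hε] with n hn k i l hi hl h1
    refine loose_of_le (h.base n) ?_ (hn k i l hi hl h1)
    refine mul_le_mul_of_nonneg_right ?_ hε.le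
    unfold chD; linarith
  · intro p hp ε hε
    filter_upwards [h.tri (hLeg p hp).1 (hLeg p hp).2 hε] with n hn k i l l' hi hl hl' h1 h2
    refine loose_of_le (h.base n) ?_ (hn k i l l' hi hl hl' h1 h2)
    refine mul_le_mul_of_nonneg_right ?_ hε.le
    unfold chD; linarith
  · intro p hp ε hε
    have hq := hlow p hp ε hε
    have hqle : ∀ j, Net191.lowp M ε p j ≤ p j := by
      intro j
      refine max_le ?_ ((hLeg p hp).1.nonneg j)
      have := mul_nonneg (by linarith [Net191.wg_one M j] : (0:ℝ) ≤ Net191.wg M j) hε.le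
      linarith
    have hnu := hlip p hp _ hq hqle
    have hsum : ∑ j, (p j - Net191.lowp M ε p j) ≤ (∑ j, Net191.wg M j) * ε := by
      rw [Finset.sum_mul]
      refine Finset.sum_le_sum fun j _ => ?_
      have : p j - Net191.wg M j * ε ≤ Net191.lowp M ε p j := le_max_left _ _
      linarith
    filter_upwards [up _ hq ε hε] with n hn i k hik
    have hsubset : (G n).box p ε i k ⊆ (G n).box (Net191.lowp M ε p) 0 i k := by
      intro l hl
      obtain ⟨l1, l2⟩ := RCfg.mem_box.1 hl
      refine RCfg.mem_box.2 ⟨l1, fun j => ?_⟩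
      have hlI : (l, k) ∈ (G n).I := (RCfg.mem_slice.1 l1).2
      have h1 := l2 j
      rw [h.base n] at h1 ⊢
      rw [sub_zero]
      rcases le_total (p j - Net191.wg M j * ε) 0 with h2 | h2
      · have h3 : Net191.lowp M ε p j = 0 := max_eq_right h2
        rw [h3, Real.rpow_zero]
        exact bd n k i l hik hlI j
      · have h3 : Net191.lowp M ε p j = p j - Net191.wg M j * ε := max_eq_left h2
        rw [h3]
        refine h1.trans (rpow_anti B n ?_)
        have := mul_le_mul_of_nonneg_right (Net191.wg_one M j) hε.le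
        linarith
    refine (mod_cast Finset.card_le_card hsubset : (((G n).box p ε i k).card : ℝ) ≤ _).trans
      ((hn i k hik).trans (rpow_anti B n ?_))
    have h4 : Cν * ∑ j, (p j - Net191.lowp M ε p j) ≤ Cν * ((∑ j, Net191.wg M j) * ε) :=
      mul_le_mul_of_nonneg_left hsum hCν
    have h5 : 0 ≤ ((M.deg + 2) + AChart.symE M.deg m : ℝ) * ε := by positivity
    unfold chD
    nlinarith

end Crest.Agent.R136.Gf356
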