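import Mathlib

/-!
# R136 (S0187), PLAN 2, B4 part (IV): greedy groups of the common lines of two sheets (helper639)

`Grp` is the data of the pair: every line `T` of `Z` has the lateral position `p T + ζ c T`
(strip units), a base height `b T ∈ {0, 1}`, a unit covector `g T` (the direction of `grad P` at
the base point), its size `M T`, the length `l T` and the gap `ts T` of the two velocity clusters.
`groups`: `#Z ≤ C (N+1) (R/m0+1)^4 (K^2 W)^2 K Q` when a flat plank of length `λ` has at most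
`Q λ^(1+q)` lines.
-/

set_option autoImplicit false
set_option linter.unusedVariables false

open Finset

namespace Crest.Agent.R136.Grp639

variable {ι : Type*}

/-- displacement at the base height -/
def dx (p c : ι → Fin 2 → ℝ) (b : ι → ℝ) (T T' : ι) (k : Fin 2) : ℝ :=
  (p T' k + b T * c T' k) - (p T k + b T * c T k)

/-- difference of the velocities -/
def dc (c : ι → Fin 2 → ℝ) (T T' : ι) (k : Fin 2) : ℝ := c T' k - c T k

/-- coordinate along the covector -/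
def al (g x : Fin 2 → ℝ) : ℝ := g 0 * x 0 + g 1 * x 1

/-- coordinate across the covector -/
def pe (g x : Fin 2 → ℝ) : ℝ := g 0 * x 1 - g 1 * x 0

/-- the data of one pair of sheets -/
structure Grp (Z : Finset ι) (p c : ι → Fin 2 → ℝ) (b : ι → ℝ) (g : ι → Fin 2 → ℝ)
    (y0 y1 : ι → ι → ℝ) (M l ts : ι → ℝ) (R m0 W K M0 : ℝ) (N : ℕ) : Prop where
  bb : ∀ T ∈ Z, b T = 0 ∨ b T = 1
  gn : ∀ T ∈ Z, g T 0 ^ 2 + g T 1 ^ 2 = 1
  rp : ∀ T ∈ Z, ∀ k, |p T k| ≤ R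
  rc : ∀ T ∈ Z, ∀ k, |c T k| ≤ R
  hR : 0 ≤ R
  hm : 0 < m0
  hm1 : m0 ≤ 1
  hW : 1 ≤ W
  hK : 1 ≤ K
  hM : 0 < M0
  MM : ∀ T ∈ Z, M0 ≤ M T
  l1 : ∀ T ∈ Z, l T ≤ 1
  lN : ∀ T ∈ Z, (1 / 2 : ℝ) ^ N ≤ l T
  lM : ∀ T ∈ Z, 1 ≤ W * (M T * l T)
  pr : ∀ T ∈ Z, ∀ T' ∈ Z, b T' = b T →
    (∀ k, |dx p c b T T' k| ≤ m0 ∧ |dc c T T' k| ≤ m0) →
    |al (g T) (dx p c b T T')| ≤ K / M T + |pe (g T) (dx p c b T T')| / 4 ∧
    (4 * K * |pe (g T) (dx p c b T T')| ≤ l T →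
      (|pe (g T) (dc c T T')| ≤ 4 * K * l T ∨ |pe (g T) (dc c T T') - ts T| ≤ 9 * K * l T) ∧
      ∀ z : ℝ, |z| ≤ 1 →
        |al (g T) (dx p c b T T') + z * al (g T) (dc c T T')| ≤ 10 * K / M T ∧
          |y0 T T' + z * y1 T T'| ≤ 10 * K)

open Classical in
/-- cells of one real label -/
theorem cells {Z : Finset ι} (u : ι → ℝ) {u0 A d B : ℝ} (hA : 0 ≤ A) (hd : 0 < d) (hB : 0 ≤ B)
    (hu : ∀ T ∈ Z, |u T - u0| ≤ A)
    (h : ∀ F ⊆ Z, (∀ T ∈ F, ∀ T' ∈ F, |u T - u T'| ≤ d) → (F.card : ℝ) ≤ B) :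
    (Z.card : ℝ) ≤ (2 * A / d + 1) * B := by
  set f : ι → ℤ := fun T => ⌊(u T - (u0 - A)) / d⌋ with hfdef
  have h2A : 0 ≤ 2 * A / d := by positivity
  have hf : ∀ T ∈ Z, f T ∈ Finset.Icc (0:ℤ) ⌊2 * A / d⌋ := by
    intro T hT
    have h1 := abs_le.1 (hu T hT)
    rw [Finset.mem_Icc]
    constructor
    · apply Int.floor_nonneg.2
      apply div_nonneg _ hd.le
      linarith
    · apply Int.floor_le_floor
      apply div_le_div_of_nonneg_right _ hd.le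
      linarith
  have hsum : (Z.card : ℝ)
      = ∑ i ∈ Finset.Icc (0:ℤ) ⌊2 * A / d⌋, ((Z.filter fun T => f T = i).card : ℝ) := by
    have := Finset.card_eq_sum_card_fiberwise (f := f) (s := Z)
      (t := Finset.Icc (0:ℤ) ⌊2 * A / d⌋) (fun T hT => by exact_mod_cast hf T hT)
    exact_mod_cast this
  have hone : ∀ i ∈ Finset.Icc (0:ℤ) ⌊2 * A / d⌋,
      ((Z.filter fun T => f T = i).card : ℝ) ≤ B := by
    intro i _
    apply h _ (Finset.filter_subset _ _)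
    intro T hT T' hT'
    rw [Finset.mem_filter] at hT hT'
    have e1 : ⌊(u T - (u0 - A)) / d⌋ = ⌊(u T' - (u0 - A)) / d⌋ := by
      have a1 := hT.2
      have a2 := hT'.2
      simp only [hfdef] at a1 a2
      rw [a1, a2]
    have e2 := Int.abs_sub_lt_one_of_floor_eq_floor e1
    rw [← sub_div, abs_div, abs_of_pos hd, div_lt_one hd] at e2
    have e3 : u T - (u0 - A) - (u T' - (u0 - A)) = u T - u T' := by ring
    rw [e3] at e2
    exact e2.le
  have hcard : ((Finset.Icc (0:ℤ) ⌊2 * A / d⌋).card : ℝ) ≤ 2 * A / d + 1 := by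
    rw [Int.card_Icc]
    have h0 : 0 ≤ ⌊2 * A / d⌋ := Int.floor_nonneg.2 h2A
    have h1 : (((⌊2 * A / d⌋ + 1 - 0).toNat : ℕ) : ℝ) = ((⌊2 * A / d⌋ + 1 - 0 : ℤ) : ℝ) := by
      have : (((⌊2 * A / d⌋ + 1 - 0).toNat : ℕ) : ℤ) = ⌊2 * A / d⌋ + 1 - 0 :=
        Int.toNat_of_nonneg (by omega)
      exact_mod_cast this
    rw [h1]
    push_cast
    have := Int.floor_le (2 * A / d)
    linarith
  rw [hsum]
  calc ∑ i ∈ Finset.Icc (0:ℤ) ⌊2 * A / d⌋, ((Z.filter fun T => f T = i).card : ℝ)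
      ≤ ∑ i ∈ Finset.Icc (0:ℤ) ⌊2 * A / d⌋, B := Finset.sum_le_sum hone
    _ = ((Finset.Icc (0:ℤ) ⌊2 * A / d⌋).card : ℝ) * B := by rw [Finset.sum_const, nsmul_eq_mul]
    _ ≤ (2 * A / d + 1) * B := mul_le_mul_of_nonneg_right hcard hB

open Classical in
/-- two values of the base height -/
theorem bases {Z : Finset ι} (b : ι → ℝ) {B : ℝ} (hb : ∀ T ∈ Z, b T = 0 ∨ b T = 1)
    (h : ∀ F ⊆ Z, (∀ T ∈ F, ∀ T' ∈ F, b T' = b T) → (F.card : ℝ) ≤ B) :
    (Z.card : ℝ) ≤ 2 * B := by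
  have h1 := h (Z.filter fun T => b T = 0) (Finset.filter_subset _ _) (by
    intro T hT T' hT'
    rw [Finset.mem_filter] at hT hT'
    rw [hT.2, hT'.2])
  have h2 := h (Z.filter fun T => b T = 1) (Finset.filter_subset _ _) (by
    intro T hT T' hT'
    rw [Finset.mem_filter] at hT hT'
    rw [hT.2, hT'.2])
  have hcov : Z ⊆ (Z.filter fun T => b T = 0) ∪ (Z.filter fun T => b T = 1) := by
    intro T hT
    rw [Finset.mem_union, Finset.mem_filter, Finset.mem_filter]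
    rcases hb T hT with h | h
    · exact Or.inl ⟨hT, h⟩
    · exact Or.inr ⟨hT, h⟩
  have h3 : (Z.card : ℝ) ≤ ((Z.filter fun T => b T = 0).card : ℝ)
      + (Z.filter fun T => b T = 1).card := by
    have := (Finset.card_le_card hcov).trans (Finset.card_union_le _ _)
    exact_mod_cast this
  linarith

open Classical in
/-- dyadic value of the length -/
theorem dyads {Z : Finset ι} (l : ι → ℝ) {N : ℕ} {B : ℝ} (h1 : ∀ T ∈ Z, l T ≤ 1)
    (hN : ∀ T ∈ Z, (1 / 2 : ℝ) ^ N ≤ l T)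
    (h : ∀ i : ℕ, ∀ F ⊆ Z, (∀ T ∈ F, (1 / 2 : ℝ) ^ (i + 1) < l T ∧ l T ≤ (1 / 2) ^ i) →
      (F.card : ℝ) ≤ B) :
    (Z.card : ℝ) ≤ (N + 1) * B := by
  have hex : ∀ T, T ∈ Z → ∃ i : ℕ, i ≤ N ∧ (1 / 2 : ℝ) ^ (i + 1) < l T ∧ l T ≤ (1 / 2) ^ i := by
    intro T hT
    have hpos : 0 < l T := lt_of_lt_of_le (by positivity) (hN T hT)
    obtain ⟨i, hi1, hi2⟩ := exists_nat_pow_near_of_lt_one hpos (h1 T hT)
      (by norm_num : (0:ℝ) < 1 / 2) (by norm_num)
    refine ⟨i, ?_, hi1, hi2⟩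
    by_contra hc
    push Not at hc
    have h3 : (1 / 2 : ℝ) ^ i < (1 / 2) ^ N :=
      pow_lt_pow_right_of_lt_one₀ (by norm_num) (by norm_num) hc
    have := (hN T hT).trans hi2
    linarith
  choose! f hf using hex
  have hsum : (Z.card : ℝ) = ∑ i ∈ Finset.range (N + 1), ((Z.filter fun T => f T = i).card : ℝ) := by
    have := Finset.card_eq_sum_card_fiberwise (f := f) (s := Z) (t := Finset.range (N + 1))
      (fun T hT => by
        rw [Finset.coe_range, Set.mem_Iio]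
        exact Nat.lt_succ_of_le (hf T hT).1)
    exact_mod_cast this
  rw [hsum]
  have hone : ∀ i ∈ Finset.range (N + 1), ((Z.filter fun T => f T = i).card : ℝ) ≤ B := by
    intro i _
    apply h i _ (Finset.filter_subset _ _)
    intro T hT
    rw [Finset.mem_filter] at hT
    have := (hf T hT.1).2
    rw [hT.2] at this
    exact this
  calc ∑ i ∈ Finset.range (N + 1), ((Z.filter fun T => f T = i).card : ℝ)
      ≤ ∑ i ∈ Finset.range (N + 1), B := Finset.sum_le_sum hone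
    _ = (N + 1) * B := by rw [Finset.sum_const, nsmul_eq_mul, Finset.card_range]; push_cast; ring

theorem g_le {g : Fin 2 → ℝ} (h : g 0 ^ 2 + g 1 ^ 2 = 1) : |g 0| ≤ 1 ∧ |g 1| ≤ 1 := by
  constructor
  · rw [abs_le]; constructor <;> nlinarith [sq_nonneg (g 1)]
  · rw [abs_le]; constructor <;> nlinarith [sq_nonneg (g 0)]

/-- the coordinates from `al`, `pe` -/
theorem from_alpe {g x : Fin 2 → ℝ} (h : g 0 ^ 2 + g 1 ^ 2 = 1) :
    |x 0| ≤ |al g x| + |pe g x| ∧ |x 1| ≤ |al g x| + |pe g x| := by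
  obtain ⟨h0, h1⟩ := g_le h
  have e0 : x 0 = g 0 * al g x - g 1 * pe g x := by
    simp only [al, pe]; linear_combination -(x 0) * h
  have e1 : x 1 = g 1 * al g x + g 0 * pe g x := by
    simp only [al, pe]; linear_combination -(x 1) * h
  have a : ∀ u v : ℝ, |u| ≤ 1 → |u * v| ≤ |v| := by
    intro u v hu
    rw [abs_mul]
    nlinarith [abs_nonneg v]
  constructor
  · calc |x 0| = |g 0 * al g x - g 1 * pe g x| := by rw [← e0]
      _ ≤ |g 0 * al g x| + |g 1 * pe g x| := abs_sub _ _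
      _ ≤ _ := add_le_add (a _ _ h0) (a _ _ h1)
  · calc |x 1| = |g 1 * al g x + g 0 * pe g x| := by rw [← e1]
      _ ≤ |g 1 * al g x| + |g 0 * pe g x| := abs_add_le _ _
      _ ≤ _ := add_le_add (a _ _ h1) (a _ _ h0)

/-- the two `pe` coordinates of close directions -/
theorem pe_close {g g' x : Fin 2 → ℝ} {δ : ℝ} (h0 : |g 0 - g' 0| ≤ δ) (h1 : |g 1 - g' 1| ≤ δ) :
    |pe g x| ≤ |pe g' x| + δ * (|x 0| + |x 1|) := by
  have e : pe g x = pe g' x + ((g 0 - g' 0) * x 1 - (g 1 - g' 1) * x 0) := by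
    simp only [pe]; ring
  rw [e]
  have a2 : |(g 0 - g' 0) * x 1 - (g 1 - g' 1) * x 0| ≤ δ * (|x 0| + |x 1|) := by
    refine (abs_sub _ _).trans ?_
    rw [abs_mul, abs_mul]
    have a0 := mul_le_mul_of_nonneg_right h0 (abs_nonneg (x 1))
    have a1 := mul_le_mul_of_nonneg_right h1 (abs_nonneg (x 0))
    linarith
  have a3 := abs_add_le (pe g' x) ((g 0 - g' 0) * x 1 - (g 1 - g' 1) * x 0)
  linarith

/-- inside one label class: close `s*` gives a small `pe` coordinate -/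
theorem small_pe {g g' x : Fin 2 → ℝ} {δ K W M l : ℝ} (hg : g 0 ^ 2 + g 1 ^ 2 = 1)
    (hK : 1 ≤ K) (hW : 1 ≤ W) (hM : 0 < M) (hl : 0 < l) (hl1 : l ≤ 1)
    (hδ0 : 0 ≤ δ) (hδ : 32 * K ^ 2 * W * δ ≤ 1) (lM : 1 ≤ W * (M * l))
    (h0 : |g 0 - g' 0| ≤ δ) (h1 : |g 1 - g' 1| ≤ δ)
    (ha : |al g x| ≤ K / M + |pe g x| / 4) (hs : 16 * K * |pe g' x| ≤ l) :
    4 * K * |pe g x| ≤ l := by
  have c1 := pe_close (x := x) h0 h1
  obtain ⟨c2, c3⟩ := from_alpe (x := x) hg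
  have hKM : K / M ≤ K * W * l := by
    rw [div_le_iff₀ hM]
    nlinarith
  have hKM0 : 0 ≤ K / M := by positivity
  have hKW : 1 ≤ K ^ 2 * W := by nlinarith
  have hδ2 : δ ≤ 1 / 32 := by nlinarith
  have c4 : |x 0| + |x 1| ≤ 2 * (K / M) + 5 / 2 * |pe g x| := by linarith
  have c5 : δ * (|x 0| + |x 1|) ≤ 2 * (δ * (K / M)) + 5 / 64 * |pe g x| := by
    have := mul_le_mul_of_nonneg_left c4 hδ0
    have d2 : δ * |pe g x| ≤ 1 / 32 * |pe g x| := mul_le_mul_of_nonneg_right hδ2 (abs_nonneg _)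
    nlinarith
  have c6 : |pe g x| ≤ 2 * |pe g' x| + 4 * (δ * (K / M)) := by
    have := abs_nonneg (pe g x)
    have := abs_nonneg (pe g' x)
    have : 0 ≤ δ * (K / M) := by positivity
    linarith
  have c7 : δ * (K / M) ≤ δ * (K * W * l) := mul_le_mul_of_nonneg_left hKM hδ0
  have c8 : 16 * K * (δ * (K * W * l)) ≤ l / 2 := by
    have : 16 * K * (δ * (K * W * l)) = (32 * K ^ 2 * W * δ) * (l / 2) := by ring
    rw [this]
    have := mul_le_mul_of_nonneg_right hδ (show 0 ≤ l / 2 by linarith)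
    linarith
  have c9 := mul_le_mul_of_nonneg_left c6 (show 0 ≤ 4 * K by linarith)
  have c10 := mul_le_mul_of_nonneg_left c7 (show 0 ≤ 16 * K by linarith)
  nlinarith

/-- the capacity of flat planks of length `lam ≥ lam0` (`lam0` = a lower bound of all `l T`).
The direction and the normal functional are those of the line `T0`. -/
def Cap (Z : Finset ι) (p c : ι → Fin 2 → ℝ) (b : ι → ℝ) (g : ι → Fin 2 → ℝ) (y0 y1 : ι → ι → ℝ)
    (K M0 lam0 q Q : ℝ) : Prop :=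
  ∀ T0 ∈ Z, ∀ T1 ∈ Z, ∀ lam : ℝ, 0 < lam → lam0 ≤ lam → lam ≤ 1 →
    ∀ F ⊆ Z, (∀ T' ∈ F, ∀ ζ : ℝ, 0 ≤ ζ → ζ ≤ 1 →
      |al (g T0) (fun k => (p T' k + ζ * c T' k) - (p T1 k + ζ * c T1 k))| ≤ 20 * K / M0 ∧
      |pe (g T0) (fun k => (p T' k + ζ * c T' k) - (p T1 k + ζ * c T1 k))| ≤ 40 * K * lam ∧
      |(y0 T0 T' - y0 T0 T1) + (ζ - b T0) * (y1 T0 T' - y1 T0 T1)| ≤ 20 * K) →
    (F.card : ℝ) ≤ Q * lam ^ (1 + q)

section
variable {Z : Finset ι} {p c : ι → Fin 2 → ℝ} {b : ι → ℝ} {g : ι → Fin 2 → ℝ}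
  {y0 y1 : ι → ι → ℝ} {M l ts : ι → ℝ} {R m0 W K M0 lam0 : ℝ} {N : ℕ}

/-- displacement at a height from the base displacement -/
theorem al_split (g : Fin 2 → ℝ) (T T' : ι) (hb : b T' = b T) (ζ : ℝ) :
    al g (fun k => (p T' k + ζ * c T' k) - (p T k + ζ * c T k))
      = al g (dx p c b T T') + (ζ - b T) * al g (dc c T T') := by
  simp only [al, dx, dc]; ring

theorem pe_split (g : Fin 2 → ℝ) (T T' : ι) (hb : b T' = b T) (ζ : ℝ) :
    pe g (fun k => (p T' k + ζ * c T' k) - (p T k + ζ * c T k))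
      = pe g (dx p c b T T') + (ζ - b T) * pe g (dc c T T') := by
  simp only [pe, dx, dc]; ring

open Classical in
/-- one cell: two clusters -/
theorem one_cell (h : Grp Z p c b g y0 y1 M l ts R m0 W K M0 N) {q Q : ℝ} (hq : 0 ≤ q) (hQ : 0 ≤ Q)
    (hl0 : ∀ T ∈ Z, lam0 ≤ l T)
    (hcap : Cap Z p c b g y0 y1 K M0 lam0 q Q) {F : Finset ι} (hF : F ⊆ Z) {i : ℕ} {δ : ℝ} (hδ0 : 0 ≤ δ)
    (hδ : 32 * K ^ 2 * W * δ ≤ 1)
    (hb : ∀ T ∈ F, ∀ T' ∈ F, b T' = b T)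
    (hl : ∀ T ∈ F, (1 / 2 : ℝ) ^ (i + 1) < l T ∧ l T ≤ (1 / 2) ^ i)
    (hg0 : ∀ T ∈ F, ∀ T' ∈ F, |g T 0 - g T' 0| ≤ δ)
    (hg1 : ∀ T ∈ F, ∀ T' ∈ F, |g T 1 - g T' 1| ≤ δ)
    (hx : ∀ T ∈ F, ∀ T' ∈ F, ∀ k, |dx p c b T T' k| ≤ m0 ∧ |dc c T T' k| ≤ m0)
    {gs : Fin 2 → ℝ} (hgs0 : ∀ T ∈ F, |g T 0 - gs 0| ≤ δ) (hgs1 : ∀ T ∈ F, |g T 1 - gs 1| ≤ δ)
    (hs : ∀ T ∈ F, ∀ T' ∈ F, 16 * K * |pe gs (dx p c b T T')| ≤ (1 / 2) ^ (i + 1)) :
    (F.card : ℝ) ≤ 2 * (Q * ((1 / 2 : ℝ) ^ i) ^ (1 + q)) := by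
  have hB : 0 ≤ Q * ((1 / 2 : ℝ) ^ i) ^ (1 + q) := by positivity
  rcases F.eq_empty_or_nonempty with hE | ⟨T, hT⟩
  · rw [hE, Finset.card_empty, Nat.cast_zero]; linarith
  have hK := h.hK
  have hlam : 0 < (1 / 2 : ℝ) ^ i := by positivity
  have hlam1 : (1 / 2 : ℝ) ^ i ≤ 1 := pow_le_one₀ (by norm_num) (by norm_num)
  have hTZ := hF hT
  have hMT : 0 < M T := h.hM.trans_le (h.MM T hTZ)
  have hlT := hl T hT
  have hlpos : 0 < l T := lt_trans (by positivity) hlT.1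
  have hKM : 10 * K / M T ≤ 10 * K / M0 :=
    div_le_div_of_nonneg_left (by linarith) h.hM (h.MM T hTZ)
  have key : ∀ T' ∈ F, 4 * K * |pe (g T) (dx p c b T T')| ≤ l T ∧
      (|pe (g T) (dc c T T')| ≤ 4 * K * l T ∨ |pe (g T) (dc c T T') - ts T| ≤ 9 * K * l T) ∧
      ∀ ζ : ℝ, 0 ≤ ζ → ζ ≤ 1 →
        |al (g T) (fun k => (p T' k + ζ * c T' k) - (p T k + ζ * c T k))| ≤ 10 * K / M0 ∧
          |y0 T T' + (ζ - b T) * y1 T T'| ≤ 10 * K := by
    intro T' hT'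
    obtain ⟨a1, a2⟩ := h.pr T hTZ T' (hF hT') (hb T hT T' hT') (hx T hT T' hT')
    have a3 : 4 * K * |pe (g T) (dx p c b T T')| ≤ l T :=
      small_pe (h.gn T hTZ) hK h.hW hMT hlpos (h.l1 T hTZ) hδ0 hδ (h.lM T hTZ)
        (hgs0 T hT) (hgs1 T hT) a1 ((hs T hT T' hT').trans hlT.1.le)
    obtain ⟨a4, a5⟩ := a2 a3
    refine ⟨a3, a4, ?_⟩
    intro ζ z0 z1
    rw [al_split (g T) T T' (hb T hT T' hT') ζ]
    have hzb : |ζ - b T| ≤ 1 := by
      rcases h.bb T hTZ with hb0 | hb0 <;> rw [hb0, abs_le] <;> constructor <;> linarith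
    exact ⟨(a5 (ζ - b T) hzb).1.trans hKM, (a5 (ζ - b T) hzb).2⟩
  have zb : ∀ ζ : ℝ, 0 ≤ ζ → ζ ≤ 1 → |ζ - b T| ≤ 1 := by
    intro ζ z0 z1
    rcases h.bb T hTZ with hb0 | hb0 <;> rw [hb0, abs_le] <;> constructor <;> linarith
  have hpe : ∀ T' ∈ F, 4 * |pe (g T) (dx p c b T T')| ≤ l T := by
    intro T' hT'
    have := (key T' hT').1
    have h2 := abs_nonneg (pe (g T) (dx p c b T T'))
    nlinarith
  set F1 := F.filter fun T' => |pe (g T) (dc c T T')| ≤ 4 * K * l T with hF1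
  set F2 := F.filter fun T' => |pe (g T) (dc c T T') - ts T| ≤ 9 * K * l T with hF2
  have hcov : F ⊆ F1 ∪ F2 := by
    intro T' hT'
    rw [Finset.mem_union]
    rcases (key T' hT').2.1 with h | h
    · exact Or.inl (Finset.mem_filter.2 ⟨hT', h⟩)
    · exact Or.inr (Finset.mem_filter.2 ⟨hT', h⟩)
  have hKl : l T ≤ K * l T := by nlinarith
  have hKlam : K * l T ≤ K * (1 / 2) ^ i := mul_le_mul_of_nonneg_left hlT.2 (by linarith)
  have hKM0 : 0 ≤ K / M0 := div_nonneg (by linarith) h.hM.le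
  have e10 : 10 * K / M0 = 10 * (K / M0) := by ring
  have e20 : 20 * K / M0 = 20 * (K / M0) := by ring
  have hy : ∀ T' ∈ F, ∀ T1 ∈ F, ∀ ζ : ℝ, 0 ≤ ζ → ζ ≤ 1 →
      |(y0 T T' - y0 T T1) + (ζ - b T) * (y1 T T' - y1 T T1)| ≤ 20 * K := by
    intro T' hT' T1 hT1 ζ z0 z1
    have k1 := ((key T' hT').2.2 ζ z0 z1).2
    have k2 := ((key T1 hT1).2.2 ζ z0 z1).2
    have e : (y0 T T' - y0 T T1) + (ζ - b T) * (y1 T T' - y1 T T1)
        = (y0 T T' + (ζ - b T) * y1 T T') - (y0 T T1 + (ζ - b T) * y1 T T1) := by ring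
    rw [e]
    refine (abs_sub _ _).trans ?_
    linarith
  have h1 : (F1.card : ℝ) ≤ Q * ((1 / 2 : ℝ) ^ i) ^ (1 + q) := by
    apply hcap T hTZ T hTZ _ hlam ((hl0 T hTZ).trans hlT.2) hlam1 F1
      ((Finset.filter_subset _ _).trans hF)
    intro T' hT' ζ z0 z1
    rw [hF1, Finset.mem_filter] at hT'
    refine ⟨?_, ?_, hy T' hT'.1 T hT ζ z0 z1⟩
    · have := ((key T' hT'.1).2.2 ζ z0 z1).1
      rw [e10] at this
      rw [e20]
      linarith
    · rw [pe_split (g T) T T' (hb T hT T' hT'.1) ζ]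
      refine (abs_add_le _ _).trans ?_
      rw [abs_mul]
      have b1 := hpe T' hT'.1
      have b2 : |ζ - b T| * |pe (g T) (dc c T T')| ≤ 4 * K * l T :=
        (mul_le_of_le_one_left (abs_nonneg _) (zb ζ z0 z1)).trans hT'.2
      nlinarith
  have h2 : (F2.card : ℝ) ≤ Q * ((1 / 2 : ℝ) ^ i) ^ (1 + q) := by
    rcases F2.eq_empty_or_nonempty with hE | ⟨T2, hT2⟩
    · rw [hE, Finset.card_empty, Nat.cast_zero]; exact hB
    have hT2' := hT2
    rw [hF2, Finset.mem_filter] at hT2'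
    apply hcap T hTZ T2 (hF hT2'.1) _ hlam ((hl0 T hTZ).trans hlT.2) hlam1 F2
      ((Finset.filter_subset _ _).trans hF)
    intro T' hT' ζ z0 z1
    rw [hF2, Finset.mem_filter] at hT'
    have k1 := ((key T' hT'.1).2.2 ζ z0 z1).1
    have k2 := ((key T2 hT2'.1).2.2 ζ z0 z1).1
    refine ⟨?_, ?_, hy T' hT'.1 T2 hT2'.1 ζ z0 z1⟩
    · have e : al (g T) (fun k => (p T' k + ζ * c T' k) - (p T2 k + ζ * c T2 k))
          = al (g T) (fun k => (p T' k + ζ * c T' k) - (p T k + ζ * c T k))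
            - al (g T) (fun k => (p T2 k + ζ * c T2 k) - (p T k + ζ * c T k)) := by
        simp only [al]; ring
      rw [e, e20]
      rw [e10] at k1 k2
      refine (abs_sub _ _).trans ?_
      linarith
    · have e : pe (g T) (fun k => (p T' k + ζ * c T' k) - (p T2 k + ζ * c T2 k))
          = pe (g T) (dx p c b T T') - pe (g T) (dx p c b T T2)
            + (ζ - b T) * ((pe (g T) (dc c T T') - ts T) - (pe (g T) (dc c T T2) - ts T)) := by
        have f1 := pe_split (p := p) (c := c) (g T) T T' (hb T hT T' hT'.1) ζ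
        have f2 := pe_split (p := p) (c := c) (g T) T T2 (hb T hT T2 hT2'.1) ζ
        have f3 : pe (g T) (fun k => (p T' k + ζ * c T' k) - (p T2 k + ζ * c T2 k))
            = pe (g T) (fun k => (p T' k + ζ * c T' k) - (p T k + ζ * c T k))
            - pe (g T) (fun k => (p T2 k + ζ * c T2 k) - (p T k + ζ * c T k)) := by
          simp only [pe]; ring
        rw [f3, f1, f2]; ring
      rw [e]
      refine (abs_add_le _ _).trans ?_
      rw [abs_mul]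
      have b1 := hpe T' hT'.1
      have b2 := hpe T2 hT2'.1
      have b3 := abs_sub (pe (g T) (dx p c b T T')) (pe (g T) (dx p c b T T2))
      have b4 := abs_sub (pe (g T) (dc c T T') - ts T) (pe (g T) (dc c T T2) - ts T)
      have b5 : |ζ - b T| * |(pe (g T) (dc c T T') - ts T) - (pe (g T) (dc c T T2) - ts T)|
          ≤ 18 * K * l T := by
        refine (mul_le_of_le_one_left (abs_nonneg _) (zb ζ z0 z1)).trans ?_
        have := hT'.2
        have := hT2'.2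
        linarith
      nlinarith
  have h3 : (F.card : ℝ) ≤ (F1.card : ℝ) + F2.card := by
    have := (Finset.card_le_card hcov).trans (Finset.card_union_le F1 F2)
    exact_mod_cast this
  linarith

open Classical in
/-- one label class -/
theorem one_class (h : Grp Z p c b g y0 y1 M l ts R m0 W K M0 N) {q Q : ℝ} (hq : 0 ≤ q) (hQ : 0 ≤ Q)
    (hl0 : ∀ T ∈ Z, lam0 ≤ l T)
    (hcap : Cap Z p c b g y0 y1 K M0 lam0 q Q) {F : Finset ι} (hF : F ⊆ Z) {i : ℕ} {δ : ℝ} (hδ0 : 0 ≤ δ)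
    (hδ : 32 * K ^ 2 * W * δ ≤ 1)
    (hb : ∀ T ∈ F, ∀ T' ∈ F, b T' = b T)
    (hl : ∀ T ∈ F, (1 / 2 : ℝ) ^ (i + 1) < l T ∧ l T ≤ (1 / 2) ^ i)
    (hg0 : ∀ T ∈ F, ∀ T' ∈ F, |g T 0 - g T' 0| ≤ δ)
    (hg1 : ∀ T ∈ F, ∀ T' ∈ F, |g T 1 - g T' 1| ≤ δ)
    (hx : ∀ T ∈ F, ∀ T' ∈ F, ∀ k, |dx p c b T T' k| ≤ m0 ∧ |dc c T T' k| ≤ m0) :
    (F.card : ℝ) ≤ 258 * K * Q := by
  have hK := h.hK
  rcases F.eq_empty_or_nonempty with hE | ⟨T0, hT0⟩
  · rw [hE]; simp; positivity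
  have hlam : 0 < (1 / 2 : ℝ) ^ i := by positivity
  have hlam1 : (1 / 2 : ℝ) ^ i ≤ 1 := pow_le_one₀ (by norm_num) (by norm_num)
  set lam : ℝ := (1 / 2 : ℝ) ^ i with hlamdef
  obtain ⟨n0, n1⟩ := g_le (h.gn T0 (hF hT0))
  have hd : 0 < lam / 2 / (16 * K) := by positivity
  have hB : 0 ≤ 2 * (Q * lam ^ (1 + q)) := by positivity
  have hpd : ∀ T T', b T' = b T → pe (g T0) (fun k => p T' k + b T' * c T' k)
      - pe (g T0) (fun k => p T k + b T * c T k) = pe (g T0) (dx p c b T T') := by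
    intro T T' e
    simp only [pe, dx, e]; ring
  have hcell := cells (Z := F) (fun T => pe (g T0) (fun k => p T k + b T * c T k))
    (u0 := pe (g T0) (fun k => p T0 k + b T0 * c T0 k)) (A := 2) (d := lam / 2 / (16 * K))
    (B := 2 * (Q * lam ^ (1 + q))) (by norm_num) hd hB (by
      intro T hT
      rw [hpd T0 T (hb T0 hT0 T hT)]
      have x0 := (hx T0 hT0 T hT 0).1
      have x1 := (hx T0 hT0 T hT 1).1
      have hm := h.hm1
      simp only [pe]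
      refine (abs_sub _ _).trans ?_
      rw [abs_mul, abs_mul]
      have y0 : |g T0 0| * |dx p c b T0 T 1| ≤ 1 * |dx p c b T0 T 1| :=
        mul_le_mul_of_nonneg_right n0 (abs_nonneg _)
      have y1 : |g T0 1| * |dx p c b T0 T 0| ≤ 1 * |dx p c b T0 T 0| :=
        mul_le_mul_of_nonneg_right n1 (abs_nonneg _)
      linarith) (by
      intro G hG hGs
      refine one_cell h hq hQ hl0 hcap (hG.trans hF) hδ0 hδ
        (fun T hT T' hT' => hb T (hG hT) T' (hG hT')) (fun T hT => hl T (hG hT))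
        (fun T hT T' hT' => hg0 T (hG hT) T' (hG hT'))
        (fun T hT T' hT' => hg1 T (hG hT) T' (hG hT'))
        (fun T hT T' hT' => hx T (hG hT) T' (hG hT'))
        (gs := g T0) (fun T hT => hg0 T (hG hT) T0 hT0) (fun T hT => hg1 T (hG hT) T0 hT0) ?_
      intro T hT T' hT'
      have := hGs T' hT' T hT
      rw [hpd T T' (hb T (hG hT) T' (hG hT'))] at this
      rw [le_div_iff₀ (by linarith)] at this
      rw [pow_succ, ← hlamdef]
      linarith)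
  refine hcell.trans ?_
  have e1 : lam ^ (1 + q) = lam * lam ^ q := by
    rw [Real.rpow_add hlam, Real.rpow_one]
  have e2 : lam ^ q ≤ 1 := Real.rpow_le_one hlam.le hlam1 hq
  have e3 : 2 * 2 / (lam / 2 / (16 * K)) + 1 ≤ 129 * K / lam := by
    rw [div_div, div_div_eq_mul_div, div_add_one (by positivity), div_le_div_iff₀ (by positivity) hlam]
    nlinarith
  rw [e1]
  calc (2 * 2 / (lam / 2 / (16 * K)) + 1) * (2 * (Q * (lam * lam ^ q)))
      ≤ (129 * K / lam) * (2 * (Q * (lam * lam ^ q))) :=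
        mul_le_mul_of_nonneg_right e3 (by positivity)
    _ = 258 * K * Q * lam ^ q := by field_simp; ring
    _ ≤ 258 * K * Q * 1 := mul_le_mul_of_nonneg_left e2 (by positivity)
    _ = 258 * K * Q := by ring

open Classical in
/-- **the greedy groups**: the common lines of a pair of sheets -/
theorem groups (h : Grp Z p c b g y0 y1 M l ts R m0 W K M0 N) {q Q : ℝ} (hq : 0 ≤ q) (hQ : 0 ≤ Q)
    (hl0 : ∀ T ∈ Z, lam0 ≤ l T)
    (hcap : Cap Z p c b g y0 y1 K M0 lam0 q Q) :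
    (Z.card : ℝ) ≤ 2 * 10 ^ 8 * (N + 1) * (R / m0 + 1) ^ 4 * (K ^ 2 * W) ^ 2 * K * Q := by
  have hK := h.hK
  have hW := h.hW
  have hm := h.hm
  have hR := h.hR
  set X : ℝ := K ^ 2 * W with hX
  have hX1 : 1 ≤ X := by rw [hX]; nlinarith
  set δ : ℝ := 1 / (32 * X) with hδdef
  have hδ0 : 0 < δ := by positivity
  have hδ : 32 * K ^ 2 * W * δ ≤ 1 := by
    have : 32 * K ^ 2 * W * δ = 1 := by
      rw [hδdef, hX]; field_simp
    rw [this]
  set Y : ℝ := R / m0 + 1 with hY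
  have hY0 : 0 ≤ R / m0 := by positivity
  have hY1 : 1 ≤ Y := by rw [hY]; linarith
  have cδ : 2 * 1 / δ + 1 ≤ 65 * X := by
    rw [hδdef]; field_simp; linarith
  have cx : 2 * (2 * R) / m0 + 1 ≤ 4 * Y := by
    have : 2 * (2 * R) / m0 = 4 * (R / m0) := by ring
    rw [this, hY]; linarith
  have cc : 2 * R / m0 + 1 ≤ 2 * Y := by
    have : 2 * R / m0 = 2 * (R / m0) := by ring
    rw [this, hY]; linarith
  set B0 : ℝ := 258 * K * Q with hB0
  have B0p : 0 ≤ B0 := by positivity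
  set B1 : ℝ := 2 * Y * B0 with hB1
  have B1p : 0 ≤ B1 := by positivity
  set B2 : ℝ := 2 * Y * B1 with hB2
  have B2p : 0 ≤ B2 := by positivity
  set B3 : ℝ := 4 * Y * B2 with hB3
  have B3p : 0 ≤ B3 := by positivity
  set B4 : ℝ := 4 * Y * B3 with hB4
  have B4p : 0 ≤ B4 := by positivity
  set B5 : ℝ := 65 * X * B4 with hB5
  have B5p : 0 ≤ B5 := by positivity
  set B6 : ℝ := 65 * X * B5 with hB6
  have B6p : 0 ≤ B6 := by positivity
  have xb : ∀ T ∈ Z, ∀ k, |p T k + b T * c T k - 0| ≤ 2 * R := by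
    intro T hT k
    have a1 := h.rp T hT k
    have a2 := h.rc T hT k
    rw [sub_zero]
    refine (abs_add_le _ _).trans ?_
    rcases h.bb T hT with e | e
    · rw [e]; simp; linarith
    · rw [e, one_mul]; linarith
  have main : (Z.card : ℝ) ≤ 2 * ((N + 1) * B6) := by
    refine bases b h.bb ?_
    intro F1 hF1 hb
    refine dyads l (fun T hT => h.l1 T (hF1 hT)) (fun T hT => h.lN T (hF1 hT)) ?_
    intro i F2 hF2 hl
    have s2 : F2 ⊆ Z := hF2.trans hF1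
    refine (cells (fun T => g T 0) (u0 := 0) (A := 1) (d := δ) (B := B5) (by norm_num) hδ0 B5p
      (fun T hT => by simp only [sub_zero]; exact (g_le (h.gn T (s2 hT))).1) ?_).trans
      (mul_le_mul_of_nonneg_right cδ B5p)
    intro F3 hF3 hg0
    have s3 : F3 ⊆ Z := hF3.trans s2
    refine (cells (fun T => g T 1) (u0 := 0) (A := 1) (d := δ) (B := B4) (by norm_num) hδ0 B4p
      (fun T hT => by simp only [sub_zero]; exact (g_le (h.gn T (s3 hT))).2) ?_).trans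
      (mul_le_mul_of_nonneg_right cδ B4p)
    intro F4 hF4 hg1
    have s4 : F4 ⊆ Z := hF4.trans s3
    refine (cells (fun T => p T 0 + b T * c T 0) (u0 := 0) (A := 2 * R) (d := m0) (B := B3)
      (by linarith) hm B3p (fun T hT => xb T (s4 hT) 0) ?_).trans
      (mul_le_mul_of_nonneg_right cx B3p)
    intro F5 hF5 hx0
    have s5 : F5 ⊆ Z := hF5.trans s4
    refine (cells (fun T => p T 1 + b T * c T 1) (u0 := 0) (A := 2 * R) (d := m0) (B := B2)
      (by linarith) hm B2p (fun T hT => xb T (s5 hT) 1) ?_).trans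
      (mul_le_mul_of_nonneg_right cx B2p)
    intro F6 hF6 hx1
    have s6 : F6 ⊆ Z := hF6.trans s5
    refine (cells (fun T => c T 0) (u0 := 0) (A := R) (d := m0) (B := B1)
      hR hm B1p (fun T hT => by simp only [sub_zero]; exact h.rc T (s6 hT) 0) ?_).trans
      (mul_le_mul_of_nonneg_right cc B1p)
    intro F7 hF7 hc0
    have s7 : F7 ⊆ Z := hF7.trans s6
    refine (cells (fun T => c T 1) (u0 := 0) (A := R) (d := m0) (B := B0)
      hR hm B0p (fun T hT => by simp only [sub_zero]; exact h.rc T (s7 hT) 1) ?_).trans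
      (mul_le_mul_of_nonneg_right cc B0p)
    intro F8 hF8 hc1
    have s8 : F8 ⊆ Z := hF8.trans s7
    have t7 : F8 ⊆ F7 := hF8
    have t6 : F8 ⊆ F6 := t7.trans hF7
    have t5 : F8 ⊆ F5 := t6.trans hF6
    have t4 : F8 ⊆ F4 := t5.trans hF5
    have t3 : F8 ⊆ F3 := t4.trans hF4
    have t2 : F8 ⊆ F2 := t3.trans hF3
    have t1 : F8 ⊆ F1 := t2.trans hF2
    refine one_class h hq hQ hl0 hcap s8 hδ0.le hδ (fun T hT T' hT' => hb T (t1 hT) T' (t1 hT'))
      (fun T hT => hl T (t2 hT)) (fun T hT T' hT' => hg0 T (t3 hT) T' (t3 hT'))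
      (fun T hT T' hT' => hg1 T (t4 hT) T' (t4 hT')) ?_
    intro T hT T' hT' k
    have k0 := hx0 T' (t5 hT') T (t5 hT)
    have k1 := hx1 T' (t6 hT') T (t6 hT)
    have k2 := hc0 T' (t7 hT') T (t7 hT)
    have k3 := hc1 T' hT' T hT
    have hbe : b T' = b T := hb T (t1 hT) T' (t1 hT')
    rw [hbe] at k0 k1
    fin_cases k
    · exact ⟨k0, k2⟩
    · exact ⟨k1, k3⟩
  refine main.trans (le_of_le_of_eq ?_ (rfl))
  have e : 2 * (((N:ℝ) + 1) * B6) = 139526400 * ((N + 1) * Y ^ 4 * X ^ 2 * K * Q) := by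
    simp only [hB6, hB5, hB4, hB3, hB2, hB1, hB0]; ring
  rw [e]
  have e2 : 2 * 10 ^ 8 * ((N:ℝ) + 1) * Y ^ 4 * X ^ 2 * K * Q
      = 2 * 10 ^ 8 * ((N + 1) * Y ^ 4 * X ^ 2 * K * Q) := by ring
  rw [e2]
  refine mul_le_mul_of_nonneg_right (by norm_num) (by positivity)

end

end Crest.Agent.R136.Grp639
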