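import Crest.Agent.R136.LWe_467
import Crest.Agent.R136.Kpc_104

/-!
# R136 (S0187), PLAN 2 (AL), leaf `LeafV6`, glue over `Al500.Cf` (helper296)

Fields `c1..c5`, `qa`, `qa'`, `s0`, `s1`, `dv`, `a0` of 862's `v6_move`, for `U := Uf (cu t)`,
`V := Vf (cv t)`, `R := Uf (cu t')`, `T := L t`, `T' := L t'`, `s := E * a`, `δ := 1 / H`.
-/

set_option autoImplicit false

namespace Crest.Agent.R136.Gvf296

open Crest.Agent.R136.Sh605
open Crest.Agent.R136.K4 (Plk4)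
open Crest.Agent.R136.Tlt51 (Shp InP)
open Crest.Agent.R136.Gbx862 (zj zj_mem)
open Crest.Agent.R136.Deep51 (CloseC)
open Crest.Agent.R136.KapP335 (kapP)
open Crest.Agent.R136.Tl102 (StP)
open Crest.Agent.R136.AlD601 (Nd jS)
open Crest.Agent.R136.Wdg296 (Dv)
open Crest.Agent.R136.Adj214 (KD KD_pos)
open Crest.Agent.R136.Al500 (Cf Dm Cl2)

/-- rescaling of the data `Dv` -/
theorem Dv.mono {S : Plk4} {q' : ℝ → V3 → ℝ} {z0 ρ : ℝ} {H j : ℕ} {T : Ln4} {K K' κ s s' : ℝ}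
    (h : Dv S q' z0 ρ H j T K κ s) (hk : K * s ≤ K' * s') : Dv S q' z0 ρ H j T K' κ s' :=
  ⟨fun i i' => (h.th i i').trans hk, fun i => (h.gm i).trans hk, h.h00.trans hk⟩

/-- the curvature extents and the smallness of the heights -/
structure Gf (U V R : Plk4) (T T' : Ln4) (z0 ρ K s δ : ℝ) (H j : ℕ) : Prop where
  c1 : kapP V z0 ρ T' ≤ K * kapP V z0 ρ T
  c2 : kapP V z0 ρ T ≤ K * kapP R z0 ρ T'
  c3 : kapP R z0 ρ T' ≤ 13 * R.w 0
  c4 : kapP V z0 ρ T ≤ K * U.w 0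
  c5 : kapP R z0 ρ T' ≤ K * kapP V z0 ρ T
  qa : |V.q (zj z0 ρ H j) (T.pos (zj z0 ρ H j))| ≤ K * kapP V z0 ρ T * δ
  qa' : |V.q (zj z0 ρ H j) (T'.pos (zj z0 ρ H j))| ≤ K * kapP V z0 ρ T * δ
  s0 : 0 < s
  s1 : s ≤ K * kapP V z0 ρ T
  dv : Dv R V.q z0 ρ H j T' K (kapP R z0 ρ T' / R.w 0) s
  a0 : ∀ l m : ℝ, 0 ≤ l → K * l ≤ 1 → ¬ Nd R V.q z0 ρ H j T' l m s →
    R.w 0 / 32 ≤ |(jS R V.q z0 ρ H j T').a0|

set_option maxHeartbeats 1000000 in
/-- **the fields over the configuration** -/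
theorem gf_of_cf {qm qp : Fin 3 → ℝ} {L : ℕ → Ln4} {P : Finset ℕ} {cu cv : ℕ → ℕ}
    {Uf Vf : ℕ → Plk4} {W B M a w1 w2 z0 ρ zL ρL r κ E K : ℝ} {H : ℕ}
    (hc : Cf qm qp L P cu cv Uf Vf W B M a w1 w2 z0 ρ zL ρL r κ E H) {t t' : ℕ} (ht : t ∈ P)
    (ht' : t' ∈ P) (hv : cv t' = cv t) {j : ℕ} (hj : j < H)
    (hK1 : 2 * 10 ^ 13 * KD ≤ K) (hK2 : 2000000 * W ^ 3 ≤ K) (hKH : K ≤ H) :
    Gf (Uf (cu t)) (Vf (cv t)) (Uf (cu t')) (L t) (L t') z0 ρ K (E * a) (1 / H) H j := by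
  have h2 := hc.two.to1
  have hW1 := hc.W1
  have hW0 : 0 < W := by linarith
  have hE1 := hc.E1
  have hE0 : 0 < E := by linarith
  have ha0 := h2.a0
  have hs : 0 < E * a := mul_pos hE0 ha0
  have hEH2 := hc.HE
  have hr0 := h2.r0
  have hρ := h2.ρ0
  have W12 : W ≤ W ^ 2 := by nlinarith
  have W23 : W ^ 2 ≤ W ^ 3 := by nlinarith [mul_le_mul_of_nonneg_right hW1 (sq_nonneg W)]
  have W13 : 1 ≤ W ^ 3 := by nlinarith
  have hK0 : 0 < K := by nlinarith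
  have hH0 : (0 : ℝ) < H := by linarith
  -- the sheets
  have shU := h2.shU t ht
  have shV := h2.shV t ht
  have shR := h2.shU t' ht'
  have inU := h2.inU t ht
  have inV := h2.inV t ht
  have inR := h2.inU t' ht'
  have inV' := h2.inV t' ht'
  rw [hv] at inV'
  have kEV : E * a ≤ W * kapP (Vf (cv t)) z0 ρ (L t) := hc.kE' t ht
  have kEV' : E * a ≤ W * kapP (Vf (cv t)) z0 ρ (L t') := by
    have := hc.kE' t' ht'
    rw [hv] at this
    exact this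
  have kER : E * a ≤ W * kapP (Uf (cu t')) z0 ρ (L t') := hc.kE t' ht'
  have kVR : kapP (Vf (cv t)) z0 ρ (L t') ≤ W * kapP (Uf (cu t')) z0 ρ (L t') := by
    have := hc.kVU t' ht'
    rw [hv] at this
    exact this
  have kRV : kapP (Uf (cu t')) z0 ρ (L t') ≤ W * kapP (Vf (cv t)) z0 ρ (L t') := by
    have := hc.kUV t' ht'
    rw [hv] at this
    exact this
  have kVU : kapP (Vf (cv t)) z0 ρ (L t) ≤ W * kapP (Uf (cu t)) z0 ρ (L t) := hc.kVU t ht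
  have uU : kapP (Uf (cu t)) z0 ρ (L t) ≤ 13 * (Uf (cu t)).w 0 :=
    Hcp208.kapP_le hr0 hρ.le shU inU
  have uR : kapP (Uf (cu t')) z0 ρ (L t') ≤ 13 * (Uf (cu t')).w 0 :=
    Hcp208.kapP_le hr0 hρ.le shR inR
  have e1 := Kpc104.kapP_comp hρ hr0 shV inV inV'
  have e2 := Kpc104.kapP_comp hρ hr0 shV inV' inV
  have dV : (Vf (cv t)).a ≤ W * a := (hc.dmV t ht).1.2
  have dR : (Uf (cu t')).a ≤ W * a := (hc.dmU t' ht').1.2
  have cl := (hc.up t' ht').1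
  rw [hv] at cl
  obtain ⟨U, hU⟩ : ∃ U, U = Uf (cu t) := ⟨_, rfl⟩
  obtain ⟨V, hV⟩ : ∃ V, V = Vf (cv t) := ⟨_, rfl⟩
  obtain ⟨R, hR⟩ : ∃ R, R = Uf (cu t') := ⟨_, rfl⟩
  rw [← hU] at shU inU kVU uU
  rw [← hV] at shV inV inV' kEV kEV' kVR kRV kVU e1 e2 dV cl
  rw [← hR] at shR inR kER kVR kRV uR dR cl
  rw [← hU, ← hV, ← hR]
  obtain ⟨kk, hkk⟩ : ∃ k, k = kapP V z0 ρ (L t) := ⟨_, rfl⟩
  obtain ⟨kV, hkV⟩ : ∃ k, k = kapP V z0 ρ (L t') := ⟨_, rfl⟩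
  obtain ⟨kR, hkR⟩ : ∃ k, k = kapP R z0 ρ (L t') := ⟨_, rfl⟩
  obtain ⟨kU, hkU⟩ : ∃ k, k = kapP U z0 ρ (L t) := ⟨_, rfl⟩
  rw [← hkk] at kEV e1 e2 kVU
  rw [← hkV] at kEV' kVR kRV e1 e2
  rw [← hkU] at kVU uU
  -- signs
  have kk0 : 0 < kk := by
    by_contra h
    push Not at h
    have := mul_nonpos_of_nonneg_of_nonpos hW0.le h
    linarith
  have kV0 : 0 < kV := by
    by_contra h
    push Not at h
    have := mul_nonpos_of_nonneg_of_nonpos hW0.le h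
    linarith
  have kR0 : 0 < kR := by
    rw [hkR]
    by_contra h
    push Not at h
    have := mul_nonpos_of_nonneg_of_nonpos hW0.le h
    linarith
  have haE : a ≤ E * a := le_mul_of_one_le_left ha0.le hE1
  have ak : V.a ≤ W ^ 2 * kk := by
    calc V.a ≤ W * a := dV
      _ ≤ W * (W * kk) := mul_le_mul_of_nonneg_left (haE.trans kEV) hW0.le
      _ = W ^ 2 * kk := by ring
  have akV : V.a ≤ W ^ 2 * kV := by
    calc V.a ≤ W * a := dV
      _ ≤ W * (W * kV) := mul_le_mul_of_nonneg_left (haE.trans kEV') hW0.le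
      _ = W ^ 2 * kV := by ring
  have W22 : 1 ≤ W ^ 2 := by nlinarith
  have f1 : kV ≤ 1200000 * W ^ 2 * kk := by
    have : kk ≤ W ^ 2 * kk := le_mul_of_one_le_left kk0.le W22
    linarith
  have f2 : kk ≤ 1200000 * W ^ 2 * kV := by
    have : kV ≤ W ^ 2 * kV := le_mul_of_one_le_left kV0.le W22
    linarith
  -- `δ`
  have hδ : ∀ x : ℝ, H * x ≤ 2 * W ^ 2 * kk → x ≤ K * kk * (1 / H) := by
    intro x hx
    rw [mul_one_div, le_div_iff₀ hH0]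
    have h1 : 2 * W ^ 2 * kk ≤ K * kk := mul_le_mul_of_nonneg_right (by linarith) kk0.le
    linarith
  have hVa : V.a ≤ K * kk * (1 / H) := by
    apply hδ
    have haV : 0 < V.a := hr0.trans_le shV.r0_le
    calc H * V.a ≤ (2 * E) * (W * a) := mul_le_mul hEH2 dV haV.le (by positivity)
      _ = 2 * W * (E * a) := by ring
      _ ≤ 2 * W * (W * kk) := mul_le_mul_of_nonneg_left kEV (by positivity)
      _ = 2 * W ^ 2 * kk := by ring
  obtain ⟨z1, z2⟩ := zj_mem (z0 := z0) hρ.le hj.le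
  have hw0U : 0 < U.w 0 := hr0.trans_le (shU.r0_le.trans shU.a_le0)
  have hw0R : 0 < R.w 0 := hr0.trans_le (shR.r0_le.trans shR.a_le0)
  have hw0V : 0 < V.w 0 := hr0.trans_le (shV.r0_le.trans shV.a_le0)
  rw [← hkR] at kER kVR kRV uR
  refine ⟨?_, ?_, ?_, ?_, ?_, ?_, ?_, hs, ?_, ?_, ?_⟩
  · rw [← hkV, ← hkk]
    refine f1.trans (mul_le_mul_of_nonneg_right ?_ kk0.le)
    linarith
  · rw [← hkR, ← hkk]
    calc kk ≤ 1200000 * W ^ 2 * kV := f2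
      _ ≤ 1200000 * W ^ 2 * (W * kR) := mul_le_mul_of_nonneg_left kVR (by positivity)
      _ = 1200000 * W ^ 3 * kR := by ring
      _ ≤ K * kR := mul_le_mul_of_nonneg_right (by linarith) kR0.le
  · rw [← hkR]
    exact uR
  · rw [← hkk]
    calc kk ≤ W * kU := kVU
      _ ≤ W * (13 * U.w 0) := mul_le_mul_of_nonneg_left uU hW0.le
      _ = 13 * W * U.w 0 := by ring
      _ ≤ K * U.w 0 := mul_le_mul_of_nonneg_right (by linarith) hw0U.le
  · rw [← hkR, ← hkk]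
    calc kR ≤ W * kV := kRV
      _ ≤ W * (1200000 * W ^ 2 * kk) := mul_le_mul_of_nonneg_left f1 hW0.le
      _ = 1200000 * W ^ 3 * kk := by ring
      _ ≤ K * kk := mul_le_mul_of_nonneg_right (by linarith) kk0.le
  · rw [← hkk]
    exact ((inV _ z1 z2).2).trans hVa
  · rw [← hkk]
    exact ((inV' _ z1 z2).2).trans hVa
  · rw [← hkk]
    exact kEV.trans (mul_le_mul_of_nonneg_right (by linarith) kk0.le)
  · have hk6 : 10 ^ 6 * R.a ≤ kapP R z0 ρ (L t') := by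
      rw [← hkR]
      have a2 : 2 * 10 ^ 6 * W ^ 2 ≤ H := by linarith
      have a3 : W * (10 ^ 6 * R.a) ≤ W * kR := by
        calc W * (10 ^ 6 * R.a) ≤ W * (10 ^ 6 * (W * a)) := by gcongr
          _ = 10 ^ 6 * W ^ 2 * a := by ring
          _ ≤ E * a := mul_le_mul_of_nonneg_right (by linarith) ha0.le
          _ ≤ _ := kER
      exact le_of_mul_le_mul_left a3 hW0
    have hd := Wdg296.dv_of shR (hr0.trans_le shR.r0_le) hρ.le inR hk6 shV.isQ cl hj.le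
    refine Dv.mono hd ?_
    calc 10 ^ 13 * KD * (2 * E * a) = 2 * 10 ^ 13 * KD * (E * a) := by ring
      _ ≤ K * (E * a) := mul_le_mul_of_nonneg_right hK1 hs.le
  · intro l m hl hKl hNd
    have hls : l * (E * a) ≤ R.w 0 / 64 := by
      have b1 : E * a ≤ W * (13 * R.w 0) := kER.trans (mul_le_mul_of_nonneg_left uR hW0.le)
      have b2 : l * (E * a) ≤ l * (W * (13 * R.w 0)) := mul_le_mul_of_nonneg_left b1 hl
      have b3 : 832 * W ≤ K := by linarith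
      have b4 : 832 * W * l ≤ 1 := (mul_le_mul_of_nonneg_right b3 hl).trans hKl
      have b5 : 832 * W * l * R.w 0 ≤ 1 * R.w 0 := mul_le_mul_of_nonneg_right b4 hw0R.le
      have e3 : l * (W * (13 * R.w 0)) = 832 * W * l * R.w 0 / 64 := by ring
      linarith
    exact (Wdg296.slopes_of_not_Nd (StP.of_shN shR hw0R) (StP.of_shN shV hw0V) hρ.le
      hj.le shR.w0_le shR.w_le shV.w0_le shV.w_le inR inV' hNd hls).1

end Crest.Agent.R136.Gvf296
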