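import Crest.Agent.R136.Chm5_862
import Crest.Agent.R136.AlK_500

/-!
# R136 (U4, PLAN 2 (3) = (AL), V6): fields `Own`, `Tr`, `InP` of `v6_move` over `Al500.Cf` (helper862)
-/

set_option autoImplicit false

namespace Crest.Agent.R136.Gvt862

open Crest.Agent.R136.Sh605
open Crest.Agent.R136.AlD601
open Crest.Agent.R136.K4 (Plk4)
open Crest.Agent.R136.Tlt51 (Shp InP)
open Crest.Agent.R136.KapP335 (kapP)
open Crest.Agent.R136.Al500 (Cf)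
open Crest.Agent.R136.Chm862

/-- the fields `oV oR VR UR RU VU i1 i2 i3 i4` of `Chm862.v6_move` -/
structure TrO (U V R : Plk4) (T T' : Ln4) (z0 ρ K : ℝ) (H j : ℕ) : Prop where
  oU : Own K (U.w 0) (kapP U z0 ρ T) (jS U U.q z0 ρ H j T)
  oV : Own K (V.w 0) (kapP V z0 ρ T') (jS V V.q z0 ρ H j T')
  oR : Own K (R.w 0) (kapP R z0 ρ T') (jS R R.q z0 ρ H j T')
  UV : Tr K U V
  VU : Tr K V U
  VR : Tr K V R
  RV : Tr K R V
  UR : Tr K U R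
  RU : Tr K R U
  i1 : InP T U z0 ρ
  i2 : InP T V z0 ρ
  i3 : InP T' V z0 ρ
  i4 : InP T' R z0 ρ

variable {qm qp : Fin 3 → ℝ} {L : ℕ → Ln4} {P : Finset ℕ} {cu cv : ℕ → ℕ} {Uf Vf : ℕ → Plk4}
  {W B M a w1 w2 z0 ρ zL ρL r κ E : ℝ} {H : ℕ}

theorem a_le_kp {S : Plk4} {k : ℝ} (W1 : 1 ≤ W) (ha : 0 < a) (hS : S.a ≤ W * a)
    (hk : E * a ≤ W * k) (hE : W ^ 2 ≤ E) : S.a ≤ k := by
  have hW0 : 0 < W := by linarith
  have h1 : W * S.a ≤ W * k := by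
    calc W * S.a ≤ W * (W * a) := mul_le_mul_of_nonneg_left hS hW0.le
      _ = W ^ 2 * a := by ring
      _ ≤ E * a := mul_le_mul_of_nonneg_right hE ha.le
      _ ≤ W * k := hk
  exact le_of_mul_le_mul_left h1 hW0

/-- the transition data between `U t` and `V t` -/
theorem tr_UV (h : Cf qm qp L P cu cv Uf Vf W B M a w1 w2 z0 ρ zL ρL r κ E H) {t : ℕ}
    (ht : t ∈ P) : Tr (W ^ 3) (Uf (cu t)) (Vf (cv t)) ∧ Tr (W ^ 3) (Vf (cv t)) (Uf (cu t)) := by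
  have h2 := h.two.to1
  obtain ⟨-, d1, d2⟩ := h.dmU t ht
  obtain ⟨-, e1, e2⟩ := h.dmV t ht
  exact Tr.of_ang h.W1 h2.r0 (h2.shU t ht) (h2.shV t ht) d1 d2 e1 e2 (h.ang t ht)

/-- **the fields `Own`, `Tr`, `InP` of `v6_move` over `Cf`** -/
theorem tro_of_cf (h : Cf qm qp L P cu cv Uf Vf W B M a w1 w2 z0 ρ zL ρL r κ E H) {t t' j : ℕ}
    (ht : t ∈ P) (ht' : t' ∈ P) (hv : cv t' = cv t) (hj : j ≤ H) (hE : W ^ 2 ≤ E) {K : ℝ}
    (hK : 3 * W ^ 6 ≤ K) (hK' : 3600000 ≤ K) :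
    TrO (Uf (cu t)) (Vf (cv t)) (Uf (cu t')) (L t) (L t') z0 ρ K H j := by
  have h2 := h.two.to1
  have hr := h2.r0
  have hρ := h2.ρ0.le
  have hW := h.W1
  have ha := h2.a0
  have inV' : InP (L t') (Vf (cv t)) z0 ρ := by have := h2.inV t' ht'; rwa [hv] at this
  obtain ⟨UV, VU⟩ := tr_UV h ht
  obtain ⟨RV, VR⟩ := tr_UV h ht'
  rw [hv] at RV VR
  have l3 : W ^ 3 ≤ K := by
    refine le_trans ?_ hK
    have : W ^ 3 ≤ W ^ 6 := pow_le_pow_right₀ hW (by norm_num)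
    have : 0 ≤ W ^ 6 := by positivity
    linarith
  have l6 : 3 * W ^ 3 * W ^ 3 ≤ K := by
    calc 3 * W ^ 3 * W ^ 3 = 3 * W ^ 6 := by ring
      _ ≤ K := hK
  have kE : ∀ s ∈ P, (Uf (cu s)).a ≤ kapP (Uf (cu s)) z0 ρ (L s) := fun s hs =>
    a_le_kp hW ha (h.dmU s hs).1.2 (h.kE s hs) hE
  have kE' : ∀ s ∈ P, (Vf (cv s)).a ≤ kapP (Vf (cv s)) z0 ρ (L s) := fun s hs =>
    a_le_kp hW ha (h.dmV s hs).1.2 (h.kE' s hs) hE
  have pw : ∀ {S : Plk4}, Shp S z0 ρ r → 0 ≤ S.w 0 := fun hS =>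
    ((hr.trans_le hS.r0_le).trans_le hS.a_le0).le
  have kp0 : ∀ {S : Plk4}, Shp S z0 ρ r → 0 ≤ S.a := fun hS => (hr.trans_le hS.r0_le).le
  have kV' := kE' t' ht'
  rw [hv] at kV'
  exact
    { oU := (own hr hρ (h2.shU t ht) (h2.inU t ht) hj (kE t ht)).mono hK' (pw (h2.shU t ht))
        ((kp0 (h2.shU t ht)).trans (kE t ht))
      oV := (own hr hρ (h2.shV t ht) inV' hj kV').mono hK' (pw (h2.shV t ht))
        ((kp0 (h2.shV t ht)).trans kV')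
      oR := (own hr hρ (h2.shU t' ht') (h2.inU t' ht') hj (kE t' ht')).mono hK'
        (pw (h2.shU t' ht')) ((kp0 (h2.shU t' ht')).trans (kE t' ht'))
      UV := UV.mono l3
      VU := VU.mono l3
      VR := VR.mono l3
      RV := RV.mono l3
      UR := (UV.trans VR).mono l6
      RU := (RV.trans VU).mono l6
      i1 := h2.inU t ht
      i2 := h2.inV t ht
      i3 := inV'
      i4 := h2.inU t' ht' }

end Crest.Agent.R136.Gvt862
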