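import Crest.Agent.R136.LmQ4_861

/-!
# R136, HRot4 part 0 (helper829): `lemmaQ_two` of helper861 with `η` as small as wanted

`lemmaQ_exp`, `lemmaQ_two`: for every `g > 0` there is no configuration of `C^{1,1}` curves in the
normalised cube of `R^4` with full shading, rich balls (density `2^(g M)`) and density at most
`2^(g (M - k))` for all straight planks of one intermediate length `2^(k - M)`, `η/2 M ≤ k ≤ η M`.
-/

set_option autoImplicit false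
set_option linter.unusedVariables false
set_option linter.unusedSectionVars false

namespace Crest.Agent.R136.HR829

open Finset
open Crest.Agent.R136.LmQ861 (C11 pt Plk SlabOne lemmaQ)

open Classical in
/-- **LEMMA A_Q, exponent form.** -/
theorem lemmaQ_exp (hSlab : SlabOne) {g : ℝ} (hg : 0 < g) {η₁ : ℝ} (hη₁ : 0 < η₁) :
    ∃ η ε₀ ℓ₀ : ℝ, 0 < η ∧ η ≤ η₁ ∧ η ≤ 1 / 2 ∧ 0 < ε₀ ∧ 0 < ℓ₀ ∧
    ∀ {ι : Type} [DecidableEq ι] (I : Finset (ι × ℤ)) (γ v : ι → ℝ → Fin 3 → ℝ) (H R' : ℕ)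
      (R ℓ n₀ h : ℝ), I.Nonempty → 0 < H → ℓ₀ ≤ ℓ → R = H * R' → R = Real.exp ℓ →
      (H : ℝ) = Real.exp h → η / 2 * ℓ ≤ h → h ≤ η * ℓ →
      (∀ x ∈ I, |(x.2 : ℝ)| ≤ R ∧ (∀ i, |pt γ R x i| ≤ 1) ∧ C11 γ v x.1) →
      (∀ x ∈ I, Real.exp (ℓ - ε₀ * ℓ) ≤ ((I.filter fun y => y.1 = x.1).card : ℝ)) →
      (∀ x ∈ I, Real.exp (h - ε₀ * ℓ) ≤
        ((I.filter fun y => y.1 = x.1 ∧ y.2 / (H : ℤ) = x.2 / (H : ℤ)).card : ℝ)) →
      (∀ x ∈ I, Real.exp (n₀ - 3 * ℓ + g * ℓ - ε₀ * ℓ) ≤ ((I.filter fun y => y.2 = x.2 ∧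
        ∀ i, |pt γ R y i - pt γ R x i| ≤ 1 / R).card : ℝ)) →
      (∀ x ∈ I, ∀ n : Fin 3 → ℝ, ∑ i, n i ^ 2 = 1 → ∀ E : Fin 2 → Fin 3 → ℝ,
        (∀ a b, ∑ i, E a i * E b i = if a = b then 1 else 0) →
        (∀ a, ∑ i, E a i * n i = 0) → ∀ w : Fin 2 → ℝ, (∀ a, 1 / (H : ℝ) ≤ w a ∧ w a ≤ 1) →
        (((I.filter fun y => |(y.2 : ℝ) - x.2| ≤ H ∧ Plk γ v R H n E w x y).image
          Prod.fst).card : ℝ) ≤
          Real.exp (n₀ - 3 * ℓ + g * (ℓ - h) + ε₀ * ℓ) * (w 0 * w 1) * (H : ℝ) ^ 2) →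
      ((I.image Prod.fst).card : ℝ) ≤ Real.exp (n₀ + ε₀ * ℓ) → False := by
  obtain ⟨C, hC, N, key⟩ := lemmaQ hSlab (g / 12) (by positivity)
  set η : ℝ := min η₁ (min (1 / 2) (g / (4 * (N + 1)))) with hη
  have hη0 : 0 < η := lt_min hη₁ (lt_min (by norm_num) (by positivity))
  have hηη : η ≤ η₁ := min_le_left _ _
  have hη1 : η ≤ 1 / 2 := (min_le_right _ _).trans (min_le_left _ _)
  have hηN : N * η ≤ g / 4 := by
    have h1 : η ≤ g / (4 * (N + 1)) := (min_le_right _ _).trans (min_le_right _ _)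
    calc N * η ≤ (N + 1) * (g / (4 * (N + 1))) := by
          refine mul_le_mul (by linarith) h1 hη0.le (by positivity)
      _ = g / 4 := by field_simp
  set ε₀ : ℝ := g * η / 32 with hε₀
  have hε0 : 0 < ε₀ := by positivity
  refine ⟨η, ε₀, (Real.log C ⊔ 0) / ε₀ + 1, hη0, hηη, hη1, hε0, by positivity, ?_⟩
  intro ι _ I γ v H R' R ℓ n₀ h hI hH hℓ hRH hR hHh hh1 hh2 hbd hown hw1 hrich hplank hL
  have hℓ0 : 0 < ℓ := lt_of_lt_of_le (by positivity) hℓ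
  have hCℓ : Real.log C ≤ ε₀ * ℓ := by
    have h1 : (Real.log C ⊔ 0) / ε₀ ≤ ℓ := by linarith
    rw [div_le_iff₀ hε0] at h1
    have h2 : Real.log C ≤ Real.log C ⊔ 0 := le_sup_left
    linarith
  have hCexp : C ≤ Real.exp (ε₀ * ℓ) := by
    rw [← Real.exp_log hC]
    exact Real.exp_le_exp.2 hCℓ
  have hH0 : (0 : ℝ) < H := by exact_mod_cast hH
  have hR'eq : (R' : ℝ) = Real.exp (ℓ - h) := by
    have e1 : (H : ℝ) * R' = Real.exp ℓ := by rw [← hRH, hR]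
    rw [hHh] at e1
    have e2 : Real.exp ℓ = Real.exp h * Real.exp (ℓ - h) := by
      rw [← Real.exp_add]; congr 1; ring
    rw [e2] at e1
    exact mul_left_cancel₀ (Real.exp_pos h).ne' e1
  have hHR' : H ≤ R' := by
    have : (H : ℝ) ≤ R' := by
      rw [hHh, hR'eq]
      refine Real.exp_le_exp.2 ?_
      nlinarith
    exact_mod_cast this
  have hh0 : 0 ≤ h := le_trans (by positivity) hh1
  rcases key I γ v H R' R (Real.exp (ℓ - ε₀ * ℓ)) (Real.exp (h - ε₀ * ℓ))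
    (Real.exp (n₀ - 3 * ℓ + g * ℓ - ε₀ * ℓ)) (Real.exp (n₀ - 3 * ℓ + g * (ℓ - h) + ε₀ * ℓ)) hI hH
    hHR' hRH (Real.exp_pos _) (Real.exp_pos _) (Real.exp_pos _) (Real.exp_pos _).le hbd hown hw1
    hrich hplank with hA | hB
  · have e1 : Real.exp (n₀ - 3 * ℓ + g * ℓ - ε₀ * ℓ) * Real.exp (ℓ - ε₀ * ℓ) ^ 3 =
        Real.exp (n₀ + g * ℓ - 4 * (ε₀ * ℓ)) := by
      rw [← Real.exp_nat_mul, ← Real.exp_add]
      congr 1; push_cast; ring
    have e2 : C * (H : ℝ) ^ N * ((R' : ℝ) ^ (g / 12)) ^ 3 * ((I.image Prod.fst).card : ℝ) ≤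
        Real.exp (ε₀ * ℓ) * Real.exp (N * h) * Real.exp (3 * ((ℓ - h) * (g / 12))) *
          Real.exp (n₀ + ε₀ * ℓ) := by
      have f1 : (H : ℝ) ^ N = Real.exp (N * h) := by
        rw [hHh, ← Real.exp_nat_mul]
      have f2 : ((R' : ℝ) ^ (g / 12)) ^ 3 = Real.exp (3 * ((ℓ - h) * (g / 12))) := by
        rw [hR'eq, ← Real.exp_mul, ← Real.exp_nat_mul]
        push_cast; rfl
      rw [f1, f2]
      have f3 := Real.exp_pos (N * h)
      have f4 := Real.exp_pos (3 * ((ℓ - h) * (g / 12)))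
      gcongr
    rw [e1] at hA
    have e3 := hA.trans e2
    rw [← Real.exp_add, ← Real.exp_add, ← Real.exp_add] at e3
    have e4 := Real.exp_le_exp.1 e3
    have e5 : N * h ≤ g / 4 * ℓ := by
      calc N * h ≤ N * (η * ℓ) := by gcongr
        _ = N * η * ℓ := by ring
        _ ≤ g / 4 * ℓ := by gcongr
    have e6 : ε₀ ≤ g / 64 := by
      rw [hε₀]
      nlinarith
    have e7 : ε₀ * ℓ ≤ g / 64 * ℓ := by gcongr
    have e8 : 0 < g * ℓ := by positivity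
    have e9 : 0 ≤ h * g := by positivity
    nlinarith
  · have e1 : Real.exp (n₀ - 3 * ℓ + g * ℓ - ε₀ * ℓ) * Real.exp (h - ε₀ * ℓ) ^ 5 =
        Real.exp (n₀ - 3 * ℓ + g * ℓ + 5 * h - 6 * (ε₀ * ℓ)) := by
      rw [← Real.exp_nat_mul, ← Real.exp_add]
      congr 1; push_cast; ring
    have e2 : C * (H : ℝ) ^ (5 + g / 12) * Real.exp (n₀ - 3 * ℓ + g * (ℓ - h) + ε₀ * ℓ) ≤
        Real.exp (ε₀ * ℓ) * Real.exp (h * (5 + g / 12)) *
          Real.exp (n₀ - 3 * ℓ + g * (ℓ - h) + ε₀ * ℓ) := by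
      have f1 : (H : ℝ) ^ (5 + g / 12) = Real.exp (h * (5 + g / 12)) := by
        rw [hHh, ← Real.exp_mul]
      rw [f1]
      have f3 := Real.exp_pos (h * (5 + g / 12))
      have f4 := Real.exp_pos (n₀ - 3 * ℓ + g * (ℓ - h) + ε₀ * ℓ)
      gcongr
    rw [e1] at hB
    have e3 := hB.trans e2
    rw [← Real.exp_add, ← Real.exp_add] at e3
    have e4 := Real.exp_le_exp.1 e3
    have e5 : g * h * (11 / 12) ≤ 8 * (ε₀ * ℓ) := by
      have f1 : h * (5 + g / 12) = 5 * h + g * h / 12 := by ring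
      have f2 : g * (ℓ - h) = g * ℓ - g * h := by ring
      rw [f1, f2] at e4
      linarith
    have e6 : g * (η / 2 * ℓ) * (11 / 12) ≤ g * h * (11 / 12) := by gcongr
    have e7 : 8 * (ε₀ * ℓ) = g * (η * ℓ) / 4 := by rw [hε₀]; ring
    have e8 : 0 < g * (η * ℓ) := by positivity
    have e9 : g * (η / 2 * ℓ) * (11 / 12) = 11 / 24 * (g * (η * ℓ)) := by ring
    linarith

open Classical in
/-- **LEMMA A_Q, dyadic form** (`H = 2^k`, `R = 2^M`). -/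
theorem lemmaQ_two (hSlab : SlabOne) {g : ℝ} (hg : 0 < g) {η₁ : ℝ} (hη₁ : 0 < η₁) :
    ∃ η ε₀ : ℝ, ∃ M₀ : ℕ, 0 < η ∧ η ≤ η₁ ∧ η ≤ 1 / 2 ∧ 0 < ε₀ ∧
    ∀ {ι : Type} [DecidableEq ι] (I : Finset (ι × ℤ)) (γ v : ι → ℝ → Fin 3 → ℝ) (M k : ℕ)
      (n₀ : ℝ), I.Nonempty → M₀ ≤ M → η / 2 * M ≤ k → (k : ℝ) ≤ η * M →
      (∀ x ∈ I, |(x.2 : ℝ)| ≤ 2 ^ M ∧ (∀ i, |pt γ (2 ^ M) x i| ≤ 1) ∧ C11 γ v x.1) →
      (∀ x ∈ I, (2 : ℝ) ^ ((M : ℝ) - ε₀ * M) ≤ ((I.filter fun y => y.1 = x.1).card : ℝ)) →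
      (∀ x ∈ I, (2 : ℝ) ^ ((k : ℝ) - ε₀ * M) ≤
        ((I.filter fun y => y.1 = x.1 ∧ y.2 / 2 ^ k = x.2 / 2 ^ k).card : ℝ)) →
      (∀ x ∈ I, (2 : ℝ) ^ (n₀ - 3 * M + g * M - ε₀ * M) ≤ ((I.filter fun y => y.2 = x.2 ∧
        ∀ i, |pt γ (2 ^ M) y i - pt γ (2 ^ M) x i| ≤ 1 / 2 ^ M).card : ℝ)) →
      (∀ x ∈ I, ∀ n : Fin 3 → ℝ, ∑ i, n i ^ 2 = 1 → ∀ E : Fin 2 → Fin 3 → ℝ,
        (∀ a b, ∑ i, E a i * E b i = if a = b then 1 else 0) →
        (∀ a, ∑ i, E a i * n i = 0) → ∀ w : Fin 2 → ℝ, (∀ a, 1 / (2 : ℝ) ^ k ≤ w a ∧ w a ≤ 1) →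
        (((I.filter fun y => |(y.2 : ℝ) - x.2| ≤ 2 ^ k ∧ Plk γ v (2 ^ M) (2 ^ k) n E w x y).image
          Prod.fst).card : ℝ) ≤
          (2 : ℝ) ^ (n₀ - 3 * M + g * (M - k) + ε₀ * M) * (w 0 * w 1) * (2 ^ k) ^ 2) →
      ((I.image Prod.fst).card : ℝ) ≤ (2 : ℝ) ^ (n₀ + ε₀ * M) → False := by
  obtain ⟨η, ε₀, ℓ₀, hη, hηη, hη1, hε, hℓ, key⟩ := lemmaQ_exp hSlab hg hη₁
  have hl2 : 0 < Real.log 2 := Real.log_pos (by norm_num)
  obtain ⟨M₀, hM₀⟩ := exists_nat_ge (ℓ₀ / Real.log 2)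
  refine ⟨η, ε₀, M₀, hη, hηη, hη1, hε, ?_⟩
  intro ι _ I γ v M k n₀ hI hM hk1 hk2 hbd hown hw1 hrich hplank hL
  have hpow : ∀ x : ℝ, (2 : ℝ) ^ x = Real.exp (x * Real.log 2) := by
    intro x
    rw [Real.rpow_def_of_pos (by norm_num : (0:ℝ) < 2)]
    congr 1; ring
  have hnat : ∀ j : ℕ, (2 : ℝ) ^ j = Real.exp (j * Real.log 2) := by
    intro j
    rw [← Real.rpow_natCast, hpow]
  have hkM : k ≤ M := by
    have : (k : ℝ) ≤ M := by
      have : η * M ≤ 1 * M := by gcongr; linarith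
      linarith
    exact_mod_cast this
  have hMR : (M₀ : ℝ) ≤ M := by exact_mod_cast hM
  have h1 : ℓ₀ ≤ M * Real.log 2 := by
    rw [div_le_iff₀ hl2] at hM₀
    calc ℓ₀ ≤ M₀ * Real.log 2 := hM₀
      _ ≤ M * Real.log 2 := by gcongr
  refine key I γ v (2 ^ k) (2 ^ (M - k)) (2 ^ M) (M * Real.log 2) (n₀ * Real.log 2)
    (k * Real.log 2) hI (by positivity) h1 (by
      push_cast
      rw [← pow_add, Nat.add_sub_cancel' hkM]) (hnat M) (by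
      push_cast
      exact hnat k)
    (by
      have := mul_le_mul_of_nonneg_right hk1 hl2.le
      linarith)
    (by
      have := mul_le_mul_of_nonneg_right hk2 hl2.le
      linarith) hbd ?_ ?_ ?_ ?_ ?_
  · intro x hx
    refine le_trans (le_of_eq ?_) (hown x hx)
    rw [hpow]; congr 1; ring
  · intro x hx
    refine le_trans (le_of_eq ?_) (le_trans (hw1 x hx) (le_of_eq ?_))
    · rw [hpow]; congr 1; ring
    · congr 2
  · intro x hx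
    refine le_trans (le_of_eq ?_) (hrich x hx)
    rw [hpow]; congr 1; ring
  · intro x hx n hn E hE hEn w hw
    have hw' : ∀ a, 1 / (2 : ℝ) ^ k ≤ w a ∧ w a ≤ 1 := by
      intro a
      have := hw a
      push_cast at this
      exact this
    have := hplank x hx n hn E hE hEn w hw'
    push_cast
    refine le_trans this (le_of_eq ?_)
    rw [hpow]
    congr 3
    ring
  · refine hL.trans (le_of_eq ?_)
    rw [hpow]; congr 1; ring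

end Crest.Agent.R136.HR829
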