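import Crest.Agent.R136.HR7_829

/-!
# R136 (helper829): finite form of the flat END (field `A` of the table of the thick branch)
-/

set_option autoImplicit false
set_option linter.unusedVariables false
set_option linter.unusedSectionVars false

namespace Crest.Agent.R136.HR829

open Finset
open Crest.Agent.R136.Sh605
open Crest.Agent.R138.Mk163 (zc zl rho alive own)
open Crest.Agent.R138.MkRef627 (lc kc mem_alive)

/-- rewards relative to the scale `ρ`; arguments thickness, narrow, wide -/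
noncomputable def Rq (q : Fin 3 → ℝ) (ρ x y z : ℝ) : ℝ :=
  (x / ρ) ^ q 0 * (z / ρ) ^ q 1 * (y / ρ) ^ q 2

theorem Rq_nonneg {q : Fin 3 → ℝ} {ρ : ℝ} (hρ : 0 < ρ) {x y z : ℝ} (hx : 0 ≤ x) (hy : 0 ≤ y)
    (hz : 0 ≤ z) : 0 ≤ Rq q ρ x y z := by
  unfold Rq
  have h1 := Real.rpow_nonneg (div_nonneg hx hρ.le) (q 0)
  have h2 := Real.rpow_nonneg (div_nonneg hz hρ.le) (q 1)
  have h3 := Real.rpow_nonneg (div_nonneg hy hρ.le) (q 2)
  positivity

theorem Rq_mono {q : Fin 3 → ℝ} (hq : ∀ i, 0 ≤ q i) {ρ : ℝ} (hρ : 0 < ρ) {x y z x' y' z' : ℝ}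
    (hx : 0 ≤ x) (hy : 0 ≤ y) (hz : 0 ≤ z) (hx' : x ≤ x') (hy' : y ≤ y') (hz' : z ≤ z') :
    Rq q ρ x y z ≤ Rq q ρ x' y' z' := by
  unfold Rq
  have d1 := div_nonneg hx hρ.le
  have d2 := div_nonneg hy hρ.le
  have d3 := div_nonneg hz hρ.le
  have h1 := Real.rpow_le_rpow d1 (div_le_div_of_nonneg_right hx' hρ.le) (hq 0)
  have h2 := Real.rpow_le_rpow d3 (div_le_div_of_nonneg_right hz' hρ.le) (hq 1)
  have h3 := Real.rpow_le_rpow d2 (div_le_div_of_nonneg_right hy' hρ.le) (hq 2)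
  have g1 := Real.rpow_nonneg d1 (q 0)
  have g2 := Real.rpow_nonneg d3 (q 1)
  have g3 := Real.rpow_nonneg d2 (q 2)
  exact mul_le_mul (mul_le_mul h1 h2 g2 (g1.trans h1)) h3 g3
    (mul_nonneg (g1.trans h1) (g2.trans h2))

theorem Rq_scale {q : Fin 3 → ℝ} {s ρ ρ' x y z X Y Z : ℝ} (hs : 0 < s) (hx : 0 ≤ x / ρ)
    (hy : 0 ≤ y / ρ) (hz : 0 ≤ z / ρ) (hX : X / ρ' = s * (x / ρ)) (hY : Y / ρ' = s * (y / ρ))
    (hZ : Z / ρ' = s * (z / ρ)) :
    Rq q ρ' X Y Z = s ^ (q 0 + q 1 + q 2) * Rq q ρ x y z := by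
  unfold Rq
  rw [hX, hY, hZ, Real.mul_rpow hs.le hx, Real.mul_rpow hs.le hy, Real.mul_rpow hs.le hz,
    Real.rpow_add hs, Real.rpow_add hs]
  ring

/-- widths of the container -/
def Wc (R : ℝ) (w : V3) : V3 := ![2 * (R * w 2), 2 * (R * w 1), 2 * (R * w 2)]

theorem flatQ_sub (n : V3) (c s t : Ln4) (z : ℝ) :
    flatQ n c z (t.pos z) - flatQ n c z (s.pos z) = dt n (t.pos z - s.pos z) := by
  unfold flatQ
  rw [← dt_sub]
  congr 1
  funext i
  simp only [Pi.sub_apply]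
  ring

open Classical in
theorem own_eq {J : Finset (ℕ × ℝ)} {iu : ℕ} {lab : ℕ × ℤ → ℕ × ℤ} {l : ℕ × ℤ} {i j : ℕ}
    (hi : iu ≤ i) {x : ℕ × ℝ} (hx : lab (lc iu x) = l) :
    own (J.filter fun x => lab (lc iu x) = l) i j x = own J i j x := by
  unfold own
  congr 1
  ext y
  simp only [mem_filter]
  constructor
  · rintro ⟨⟨h1, h2⟩, h3, h4⟩
    exact ⟨h1, h3, h4⟩
  · rintro ⟨h1, h3, h4⟩
    refine ⟨⟨h1, ?_⟩, h3, h4⟩
    have : lc iu y = lc iu x := by
      unfold lc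
      rw [h3, zc_nest hi h4]
    rw [this, hx]

open Classical in
/-- `DMaxW` for a subset -/
theorem dmaxW_sub {ι : Type} {A A' : Finset ι} (hA : A' ⊆ A) {L : ι → Ln4} {z0 ρ D : ℝ}
    {R : ℝ → ℝ → ℝ → ℝ} {r0 wmax : ℝ} {lo hi : Fin 3 → ℝ}
    (h : DMaxW A L z0 ρ D R r0 wmax lo hi) :
    DMaxW A' L z0 ρ D R r0 wmax lo hi := by
  intro e c w q a hs hw h1
  refine le_trans ?_ (h e c w q a hs hw h1)
  exact_mod_cast card_le_card (filter_subset_filter _ hA)

theorem alive_sub {I J : Finset (ℕ × ℝ)} (h : J ⊆ I) (i : ℕ) (c : ℤ) :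
    alive J i c ⊆ alive I i c := by
  unfold alive
  exact image_subset_image (filter_subset_filter _ h)

/-- the scales of the container against the window -/
theorem scale_win {iu iv M k : ℕ} (h : iu + M + 1 ≤ iv) (hk : k ≤ M) (x κ : ℝ) :
    κ * ((2 : ℝ) ^ k / 2 ^ M) * (2 * (2 ^ (iv - iu) * x)) / rho (iu + M + 1 - k) =
      4 * κ * (x / rho iv) := by
  unfold rho
  have h1 : (2 : ℝ) ^ k * 2 ^ (iv - iu) * 2 ^ (iu + M + 1 - k) = 2 * 2 ^ M * 2 ^ iv := by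
    rw [← pow_add, ← pow_add, ← pow_succ', ← pow_add]
    congr 1
    omega
  field_simp
  linear_combination (2 * κ * x) * h1

theorem scale_top {iu iv : ℕ} (h : iu ≤ iv) (x : ℝ) :
    2 * (2 ^ (iv - iu) * x) / rho iu = 2 * (x / rho iv) := by
  unfold rho
  have h1 : (2 : ℝ) ^ (iv - iu) * 2 ^ iu = 2 ^ iv := by
    rw [← pow_add]; congr 1; omega
  field_simp
  linear_combination x * h1

set_option maxHeartbeats 4000000 in
open Classical in
/-- **END for flat containers, finite form.** -/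
theorem fin_flat (hKM : ∀ V : ℝ, Crest.Agent.R138.Tub70.KM32 V) {g : ℝ} (hg : 0 < g)
    {η₁ : ℝ} (hη₁ : 0 < η₁) :
    ∃ η ε₀ : ℝ, ∃ M₀ : ℕ, 0 < η ∧ η ≤ η₁ ∧ η ≤ 1 / 4 ∧ 0 < ε₀ ∧
    ∀ (I J : Finset (ℕ × ℝ)) (L : ℕ → Ln4) (fv : ℕ → ℤ → ℕ) (fe : ℕ × ℝ → Fin 3 → V3) (w : V3)
      (lab : ℕ × ℤ → ℕ × ℤ) (q : Fin 3 → ℝ) (iu iv M k : ℕ) (K n₀ r0 : ℝ) (lo hi : Fin 3 → ℝ)
      (Du Da : ℝ),
      J ⊆ I → J.Nonempty → M₀ ≤ M → η / 2 * M ≤ k → (k : ℝ) ≤ η * M → iu + M + 1 ≤ iv →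
      (∀ i, 0 ≤ q i) → 0 < w 0 → w 0 ≤ w 2 → w 2 ≤ w 1 → r0 ≤ w 0 → (∀ i, lo i ≤ w i) →
      (∀ i, 54360 * (2 ^ (iv - iu) * w i) ≤ hi i) →
      65232 * w 1 ≤ rho iv →
      (∀ x ∈ I, Ortho (fe x)) → 1 ≤ K → FL1 I iv fv L fe w K → FL3 I iu fe w K →
      18 * K ^ 2 * 2 ^ M ≤ (2 : ℝ) ^ (iv - iu) →
      (∀ x ∈ I, ∃ y ∈ I, lc iu y = lab (lc iu x)) →
      (∀ x ∈ I, NKo I iu iv L fe w 2 (lc iu x) (lab (lc iu x))) →
      (∀ x ∈ J, ∀ y ∈ J, kc iv fv x = kc iv fv y → lab (lc iu x) = lab (lc iu y)) →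
      (∀ x ∈ J, (2 : ℝ) ^ ((M : ℝ) - ε₀ * M) ≤ ((own J iu (iu + M + 1) x).card : ℝ)) →
      (∀ x ∈ J, (2 : ℝ) ^ ((k : ℝ) - ε₀ * M) ≤
        ((own J (iu + M + 1 - k) (iu + M + 1) x).card : ℝ)) →
      (∀ x ∈ J, (2 : ℝ) ^ (n₀ - 3 * M + g * M - ε₀ * M) ≤
        (((alive J iv (zc iv x.2)).filter fun s =>
          fv s (zc iv x.2) = fv x.1 (zc iv x.2)).card : ℝ)) →
      0 ≤ Du → 0 ≤ Da →
      (∀ c : ℤ, DMaxW (alive I iu c) L (zl iu c) (rho iu) Du (Rq q (rho iu)) r0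
        (rho iu) lo hi) →
      (∀ c : ℤ, DMaxW (alive I (iu + M + 1 - k) c) L (zl (iu + M + 1 - k) c)
        (rho (iu + M + 1 - k)) Da (Rq q (rho (iu + M + 1 - k))) r0
        (rho (iu + M + 1 - k)) lo hi) →
      Du * (8 * 2 ^ (q 0 + q 1 + q 2) * (2 ^ (iv - iu)) ^ 3 *
        (w 0 * w 2 * w 1 * Rq q (rho iv) (w 0) (w 2) (w 1))) ≤ (2 : ℝ) ^ (n₀ + ε₀ * M) →
      6 * 2718 ^ 3 * Da / (2 ^ M) ^ 3 * (8 * 108720 ^ (q 0 + q 1 + q 2) * (2 ^ (iv - iu)) ^ 3 *
        (w 0 * w 2 * w 1 * Rq q (rho iv) (w 0) (w 2) (w 1))) ≤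
          (2 : ℝ) ^ (n₀ - 3 * M + g * (M - k) + ε₀ * M) → False := by
  obtain ⟨η, ε₀, M₀, hη, hη₁', hη4, hε₀, key⟩ := end_gam hKM hg hη₁ 1
  refine ⟨η, ε₀, M₀, hη, hη₁', hη4, hε₀, ?_⟩
  intro I J L fv fe w lab q iu iv M k K n₀ r0 lo hi Du Da hJI hJne hM hk1 hk2 hij hq hw0 hw02
    hw21 hr0 hlo hhi hw1 hO hK h1 h3 hKR lab1 lab2 lab3 own1 own2 rich hDu hDa hmU hmA hnum1 hnum2
  obtain ⟨x0, hx0⟩ := hJne
  set l := lab (lc iu x0) with hl
  set F := J.filter fun x => lab (lc iu x) = l with hF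
  have hFJ : F ⊆ J := filter_subset _ _
  have hFI : F ⊆ I := hFJ.trans hJI
  have hlabF : ∀ x ∈ F, lab (lc iu x) = l := fun x hx => (mem_filter.1 hx).2
  set e := fo I iu fe l with he
  obtain ⟨y0, hy0, hy0l⟩ := lab1 x0 (hJI hx0)
  have hOe : Ortho e := by
    rw [he, hl, ← hy0l]
    exact hO _ (rp_spec hy0).1
  have hw2' : 0 < w 2 := hw0.trans_le hw02
  have hw1' : 0 < w 1 := hw2'.trans_le hw21
  have hwp : ∀ i, 0 < w i := by
    intro i; fin_cases i
    · exact hw0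
    · exact hw1'
    · exact hw2'
  set R : ℝ := 2 ^ (iv - iu) with hR
  have hR0 : 0 < R := by positivity
  have hR1 : 1 ≤ R := one_le_pow₀ (by norm_num)
  have hMR : (2 : ℝ) ^ M ≤ R := pow_le_pow_right₀ (by norm_num) (by omega)
  set c := L l.1 with hc
  set a : ℝ := 2 * (R * w 0) with ha
  have ha0 : 0 < a := by positivity
  have W1 : Wc R w 1 = 2 * (R * w 1) := rfl
  have W2 : Wc R w 2 = 2 * (R * w 2) := rfl
  have W0 : Wc R w 0 = 2 * (R * w 2) := rfl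
  have hWk : ∀ k : Fin 3, ![a, Wc R w 1, Wc R w 2] k = 2 * (R * w k) := by
    intro k; fin_cases k <;> rfl
  have haW : a ≤ Wc R w 2 := by
    rw [W2, ha]; gcongr
  have hWW : Wc R w 2 ≤ Wc R w 1 := by
    rw [W1, W2]; gcongr
  have hkM : k ≤ M := by
    have hM0 : (0 : ℝ) ≤ M := Nat.cast_nonneg _
    have : (k : ℝ) ≤ M := by nlinarith
    exact_mod_cast this
  have hcell : ∀ x ∈ F, zc iu x.2 = l.2 := by
    intro x hx
    have := (lab2 x (hFI hx)).1
    rw [hlabF x hx] at this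
    exact this
  have hin : ∀ x ∈ F, InSheet (L x.1) e c (Wc R w) (flatQ (e 0) c) a (zl iu l.2) (rho iu) := by
    intro x hx z hz1 hz2
    have hcl := (lab2 x (hFI hx)).2.2.2.2
    rw [hlabF x hx] at hcl
    have e0 : zl iu (lc iu x).2 = zl iu l.2 := by
      show zl iu (zc iu x.2) = _
      rw [hcell x hx]
    change Cls 2 (R • w) e (L x.1) c (zl iu (lc iu x).2) (rho iu) at hcl
    rw [e0] at hcl
    have hb : ∀ m, |dt (e m) ((L x.1).pos z - c.pos z)| ≤ 2 * (R * w m) := by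
      intro m
      have := hcl z hz1 hz2 m
      have e1 : dt (e m) ((L x.1).pos z - c.pos z) = -dt (e m) (c.pos z - (L x.1).pos z) := by
        simp only [dt, Pi.sub_apply]; ring
      rw [e1, abs_neg]
      exact this
    refine ⟨fun m => ?_, hb 0⟩
    fin_cases m
    · exact (hb 0).trans haW
    · exact hb 1
    · exact hb 2
  have hMk : iu + M + 1 - k ≤ iu + M + 1 := Nat.sub_le _ _
  have hkR : (2 : ℝ) ^ k / 2 ^ M ≤ 1 := by
    rw [div_le_one (by positivity)]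
    exact pow_le_pow_right₀ (by norm_num) hkM
  have huk : iu ≤ iu + M + 1 - k := by omega
  set P : ℝ := 6 * 2718 ^ 3 * Da / (2 ^ M) ^ 3 * (a * Wc R w 2 * Wc R w 1 *
    Rq q (rho (iu + M + 1 - k)) (27180 * (((2 ^ k : ℕ) : ℝ) / 2 ^ M) * a)
      (27180 * (((2 ^ k : ℕ) : ℝ) / 2 ^ M) * Wc R w 2)
      (27180 * (((2 ^ k : ℕ) : ℝ) / 2 ^ M) * Wc R w 1)) with hP
  have hρv := rho_pos iv
  refine key F L e c (Wc R w) (flatQ (e 0) c) a iu iv M k l.2 n₀ P
    ⟨x0, mem_filter.2 ⟨hx0, rfl⟩⟩ hM hk1 hk2 hij hcell (flatQ_isQ _ _) ha0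
    (by rw [W1]; positivity) (by rw [W2]; positivity) hin ?_ ?_ ?_ ?_ ?_ ?_
  · intro x hx
    rw [hF, own_eq le_rfl (hlabF x hx)]
    exact own1 x (hFJ hx)
  · intro x hx
    rw [hF, own_eq huk (hlabF x hx)]
    exact own2 x (hFJ hx)
  · intro x hx
    refine ⟨x.2, rfl, (rich x (hFJ hx)).trans (Nat.cast_le.2 (card_le_card ?_))⟩
    intro s hs
    rw [mem_filter] at hs ⊢
    obtain ⟨hs1, hs2⟩ := hs
    obtain ⟨y, hy, hys, hyz⟩ := mem_alive.1 hs1
    have hk : kc iv fv x = kc iv fv y := by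
      unfold kc
      rw [hyz, hys, hs2]
    have hyF : y ∈ F := mem_filter.2 ⟨hy, by
      rw [← lab3 x (hFJ hx) y hy hk]; exact hlabF x hx⟩
    refine ⟨mem_alive.2 ⟨y, hyF, hys, hyz⟩, ?_⟩
    have hcl := rich_cls (by omega : iu ≤ iv) hwp hO hK h1 h3 (hFI hx) (hFI hyF) hk
      (lab2 x (hFI hx))
    rw [hlabF x hx] at hcl
    have hz := zc_mem iv x.2
    have hb := hcl x.2 hz.1 hz.2.le
    rw [hys] at hb
    have hsm : ∀ m, 18 * K ^ 2 * w m / (2 * (R * w m)) ≤ 1 / 2 / 2 ^ M := by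
      intro m
      have hm := hwp m
      rw [div_div, div_le_div_iff₀ (by positivity) (by positivity)]
      have := mul_le_mul_of_nonneg_right hKR hm.le
      nlinarith
    intro b
    fin_cases b
    · rw [show (⟨0, _⟩ : Fin 3) = 0 from rfl, nrm_zero, flatQ_sub, abs_div, abs_of_pos ha0]
      refine le_trans ?_ (hsm 0)
      rw [ha]
      exact div_le_div_of_nonneg_right (hb 0) (by positivity)
    · change |dt (e 1) ((L s).pos x.2 - (L x.1).pos x.2) / Wc R w 1| ≤ _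
      rw [W1, abs_div, abs_of_pos (by positivity : 0 < 2 * (R * w 1))]
      exact (div_le_div_of_nonneg_right (hb 1) (by positivity)).trans (hsm 1)
    · change |dt (e 2) ((L s).pos x.2 - (L x.1).pos x.2) / Wc R w 2| ≤ _
      rw [W2, abs_div, abs_of_pos (by positivity : 0 < 2 * (R * w 2))]
      exact (div_le_div_of_nonneg_right (hb 2) (by positivity)).trans (hsm 2)
  · intro x hx y hy hC hw1a hw1b hnear n hn E hE hEn wd hwd
    have hρi := rho_pos iu
    have hρa := rho_pos (iu + M + 1 - k)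
    have hzl0 : zl iu l.2 = zm iu l.2 - rho iu / 2 := by unfold zm; ring
    have hT : ∀ t ∈ alive F (iu + M + 1 - k) (zc (iu + M + 1 - k) y.2),
        InSheet (L t) e c (Wc R w) (flatQ (e 0) c) a (zl iu l.2) (rho iu) := by
      intro t ht
      obtain ⟨y', hy', rfl, -⟩ := mem_alive.1 ht
      exact hin y' hy'
    have h2k : (((2 ^ k : ℕ) : ℝ)) = 2 ^ k := by push_cast; rfl
    have := dmaxQ_flatW (alive F (iu + M + 1 - k) (zc (iu + M + 1 - k) y.2)) L (e := e) (c := c)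
      (w := Wc R w) (a := a) (z0 := zl iu l.2) (ρ := rho iu) (zc := zm iu l.2)
      (lam := rho iu / 2) (z1 := zl (iu + M + 1 - k) (zc (iu + M + 1 - k) y.2))
      (ρ1 := rho (iu + M + 1 - k)) (r0 := r0) (D := Da)
      (wmax := rho (iu + M + 1 - k))
      (Rw := Rq q (rho (iu + M + 1 - k))) (lo := lo) (hi := hi) hOe ha0 haW hWW hDa
      (fun x y z hx hy hz => Rq_nonneg hρa hx hy hz)
      (fun x y z x' y' z' a1 a2 a3 a4 a5 a6 => Rq_mono hq hρa a1 a2 a3 a4 a5 a6)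
      hzl0 (by ring) (by positivity) hw1a hw1b
      (dmaxW_sub (alive_sub hFI _ _) (hmA _)) hT
      (x := (x.1, ix M l.2 (zc (iu + M + 1) x.2))) (hin x hx) (R := 2 ^ M) (H := 2 ^ k)
      (by positivity) (by positivity) (by simpa using hC) hnear ?_ ?_ ?_ ?_ hn hE hEn
      (wd := wd) (fun b => by
        have := hwd b
        rw [h2k]; exact this)
    · refine (Eq.trans_le ?_ this).trans (le_of_eq ?_)
      · congr!
      · rw [hP, h2k]
    · calc (2 : ℝ) ^ M * r0 ≤ 2 ^ M * w 0 := mul_le_mul_of_nonneg_left hr0 (by positivity)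
        _ ≤ R * w 0 := mul_le_mul_of_nonneg_right hMR hw0.le
        _ ≤ 2718 * a := by rw [ha]; nlinarith [mul_pos hR0 hw0]
    · have e1 := scale_win (iu := iu) (iv := iv) (M := M) (k := k) hij hkM (w 1) 16308
      rw [W1, h2k]
      rw [div_eq_iff hρa.ne'] at e1
      rw [e1]
      have e2 : 4 * 16308 * (w 1 / rho iv) ≤ 1 := by
        rw [← mul_div_assoc, div_le_one hρv]; linarith
      nlinarith
    · intro i
      rw [hWk, h2k]
      have hp := mul_pos hR0 (hwp i)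
      have := mul_le_mul_of_nonneg_right hkR hp.le
      refine le_trans ?_ (hhi i)
      nlinarith
    · intro i
      rw [hWk]
      have hp := mul_pos hR0 (hwp i)
      calc (2 : ℝ) ^ M * lo i ≤ 2 ^ M * w i := mul_le_mul_of_nonneg_left (hlo i) (by positivity)
        _ ≤ R * w i := mul_le_mul_of_nonneg_right hMR (hwp i).le
        _ ≤ 1359 * (2 * (R * w i)) := by linarith
  · have h2k : (((2 ^ k : ℕ) : ℝ)) = 2 ^ k := by push_cast; rfl
    have s0 := scale_win (iu := iu) (iv := iv) (M := M) (k := k) hij hkM (w 0) 27180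
    have s1 := scale_win (iu := iu) (iv := iv) (M := M) (k := k) hij hkM (w 1) 27180
    have s2 := scale_win (iu := iu) (iv := iv) (M := M) (k := k) hij hkM (w 2) 27180
    rw [show (4 : ℝ) * 27180 = 108720 by norm_num] at s0 s1 s2
    have hsc := Rq_scale (q := q) (s := 108720) (ρ := rho iv) (ρ' := rho (iu + M + 1 - k))
      (x := w 0) (y := w 2) (z := w 1) (by norm_num) (by positivity) (by positivity)
      (by positivity) s0 s2 s1
    refine le_trans (le_of_eq ?_) hnum2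
    rw [hP, h2k, ha, W1, W2, hsc]
    ring
  · refine le_trans ?_ hnum1
    have hρi := rho_pos iu
    have s0 := scale_top (iu := iu) (iv := iv) (by omega) (w 0)
    have s1 := scale_top (iu := iu) (iv := iv) (by omega) (w 1)
    have s2 := scale_top (iu := iu) (iv := iv) (by omega) (w 2)
    have hsc := Rq_scale (q := q) (s := 2) (ρ := rho iv) (ρ' := rho iu)
      (x := w 0) (y := w 2) (z := w 1) (by norm_num) (by positivity) (by positivity)
      (by positivity) s0 s2 s1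
    have hW1 : Wc R w 1 ≤ rho iu := by
      rw [W1]
      rw [div_eq_iff hρi.ne'] at s1
      rw [s1]
      have e2 : 2 * (w 1 / rho iv) ≤ 1 := by
        rw [← mul_div_assoc, div_le_one hρv]; linarith
      nlinarith
    have := hmU l.2 e c (Wc R w) (flatQ (e 0) c) a
      (shN_flat hOe c (zl iu l.2) (rho iu) rfl haW hWW
        (hr0.trans (by rw [ha]; nlinarith [mul_pos hR0 hw0])) (by rw [W2]; positivity))
      hW1 (fun i => by
        have hp := mul_pos hR0 (hwp i)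
        have hp1 : w i ≤ R * w i := le_mul_of_one_le_left (hwp i).le hR1
        rw [hWk]
        exact ⟨(hlo i).trans (by linarith), le_trans (by linarith) (hhi i)⟩)
    have hcard : ((F.image Prod.fst).card : ℝ) ≤
        (((alive I iu l.2).filter fun t =>
          InSheet (L t) e c (Wc R w) (flatQ (e 0) c) a (zl iu l.2) (rho iu)).card : ℝ) := by
      refine Nat.cast_le.2 (card_le_card ?_)
      intro t ht
      rw [mem_image] at ht
      obtain ⟨y, hy, rfl⟩ := ht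
      exact mem_filter.2 ⟨mem_alive.2 ⟨y, hFI hy, rfl, hcell y hy⟩, hin y hy⟩
    refine hcard.trans ((Eq.trans_le ?_ this).trans (le_of_eq ?_))
    · congr!
    · rw [ha, W1, W2, hsc]
      ring

end Crest.Agent.R136.HR829
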