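import Crest.Agent.R136.HR6_829
import Crest.Agent.R136.HR2_829
import Crest.Agent.R138.MkRef_627
import Crest.Agent.R138.Ctn_829

/-!
# R136 (helper829): flat containers of the (line, cell) pairs, finite part
-/

set_option autoImplicit false
set_option linter.unusedVariables false
set_option linter.unusedSectionVars false

namespace Crest.Agent.R136.HR829

open Finset
open Crest.Agent.R136.Sh605
open Crest.Agent.R138.Mk163 (zc zl rho alive own)
open Crest.Agent.R138.MkRef627 (lc kc)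

section

variable (I : Finset (ℕ × ℝ)) (iu iv : ℕ) (fv : ℕ → ℤ → ℕ) (L : ℕ → Ln4)
  (fe : ℕ × ℝ → Fin 3 → V3) (w : V3)

/-- the classes of level `v` lie in boxes of frame `fe` and half-widths `K w` -/
def FL1 (K : ℝ) : Prop := ∀ x ∈ I, ∀ y ∈ I, kc iv fv x = kc iv fv y →
  Cls K w (fe x) (L x.1) (L y.1) (zl iv (zc iv x.2)) (rho iv)

/-- frames of one class are comparable -/
def FL2 (K : ℝ) : Prop := ∀ x ∈ I, ∀ y ∈ I, kc iv fv x = kc iv fv y → Cmp K w (fe x) (fe y)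

/-- frames of one line in one cell of level `u` are comparable -/
def FL3 (K : ℝ) : Prop := ∀ x ∈ I, ∀ y ∈ I, lc iu x = lc iu y → Cmp K w (fe x) (fe y)

variable {I iu iv fv L fe w}

open Classical in
/-- a chosen incidence of the object `o` -/
noncomputable def rp (I : Finset (ℕ × ℝ)) (iu : ℕ) (o : ℕ × ℤ) : ℕ × ℝ :=
  if h : ∃ x ∈ I, lc iu x = o then h.choose else (0, 0)

theorem rp_spec {x : ℕ × ℝ} (hx : x ∈ I) : rp I iu (lc iu x) ∈ I ∧ lc iu (rp I iu (lc iu x)) = lc iu x := by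
  have h : ∃ y ∈ I, lc iu y = lc iu x := ⟨x, hx, rfl⟩
  unfold rp
  rw [dif_pos h]
  exact h.choose_spec

/-- frame of an object -/
noncomputable def fo (I : Finset (ℕ × ℝ)) (iu : ℕ) (fe : ℕ × ℝ → Fin 3 → V3) (o : ℕ × ℤ) :
    Fin 3 → V3 := fe (rp I iu o)

/-- the relation of objects -/
def NKo (I : Finset (ℕ × ℝ)) (iu iv : ℕ) (L : ℕ → Ln4) (fe : ℕ × ℝ → Fin 3 → V3) (w : V3) (K : ℝ)
    (o o' : ℕ × ℤ) : Prop :=
  NK w (2 ^ (iv - iu)) (fo I iu fe) (fun o => L o.1) (fun o => o.2) (zl iu) (rho iu) K o o'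

theorem rho_ratio (huv : iu ≤ iv) : rho iu = 2 ^ (iv - iu) * rho iv := by
  unfold rho
  have : (2:ℝ) ^ iv = 2 ^ (iv - iu) * 2 ^ iu := by
    rw [← pow_add]; congr 1; omega
  rw [this]
  field_simp

/-- members of one class are comparable objects -/
theorem class_NK (huv : iu ≤ iv) (hw : ∀ i, 0 < w i) (hO : ∀ x ∈ I, Ortho (fe x)) {K : ℝ}
    (hK : 1 ≤ K) (h1 : FL1 I iv fv L fe w K) (h2 : FL2 I iv fv fe w K) (h3 : FL3 I iu fe w K)
    {x y : ℕ × ℝ} (hx : x ∈ I) (hy : y ∈ I) (hxy : kc iv fv x = kc iv fv y) :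
    NKo I iu iv L fe w (27 * K ^ 3) (lc iu x) (lc iu y) := by
  have hR : (0 : ℝ) < 2 ^ (iv - iu) := by positivity
  have hR1 : (1 : ℝ) ≤ 2 ^ (iv - iu) := one_le_pow₀ (by norm_num)
  have hK0 : 0 ≤ K := by linarith
  obtain ⟨rx, rx'⟩ := rp_spec (iu := iu) hx
  obtain ⟨ry, ry'⟩ := rp_spec (iu := iu) hy
  have hz : zc iv x.2 = zc iv y.2 := (Prod.ext_iff.1 hxy).2
  have hzu : zc iu x.2 = zc iu y.2 := zc_nest huv hz
  have c1 := h3 _ rx _ hx rx'
  have c1' := h3 _ hx _ rx rx'.symm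
  have c2 := h2 _ hx _ hy hxy
  have c2' := h2 _ hy _ hx hxy.symm
  have c3 := h3 _ hy _ ry ry'.symm
  have c3' := h3 _ ry _ hy ry'
  have d1 := (c1.trans hw hK0 hK0 (hO _ hx) c2).trans hw (by positivity) hK0 (hO _ hy) c3
  have d2 := (c3'.trans hw hK0 hK0 (hO _ hy) c2').trans hw (by positivity) hK0 (hO _ hx) c1'
  have hV : ∀ i, 0 ≤ ((2 : ℝ) ^ (iv - iu) • w) i := fun i => by
    have := hw i
    simp only [Pi.smul_apply, smul_eq_mul]; positivity
  have hsc := sub_cell huv x.2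
  have e1 : Cls (3 * K) ((2 : ℝ) ^ (iv - iu) • w) (fe x) (L x.1) (L y.1) (zl iu (zc iu x.2))
      (rho iu) :=
    Cls.ext hw hK0 (rho_pos iv) (rho_ratio huv) hR1 hsc.1 hsc.2 (h1 x hx y hy hxy)
  have e2 := Cls.conv hw (by positivity) (hO _ hx) c1 hR e1
  have e3 := Cls.conv hw (by positivity) (hO _ hx) (c3'.trans hw hK0 hK0 (hO _ hy) c2') hR e1
  have p1 : 3 * (3 * K * K) * K ≤ 27 * K ^ 3 := by nlinarith [pow_pos (by linarith : 0 < K) 3]
  have p2 : 3 * K * (3 * K) ≤ 27 * K ^ 3 := by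
    have : K ^ 2 ≤ K ^ 3 := pow_le_pow_right₀ hK (by norm_num)
    nlinarith [sq_nonneg K]
  have p3 : 3 * (3 * K * K) * (3 * K) ≤ 27 * K ^ 3 := by
    refine le_of_eq ?_; ring
  exact ⟨hzu, d1.mono hw p1, d2.mono hw p1, e2.mono hV p2, e3.mono hV p3⟩

open Classical in
/-- **flat containers**: labels of the (line, `u`-cell) pairs, popular label of every class. -/
theorem flat_labels (huv : iu ≤ iv) (hw : ∀ i, 0 < w i) (hO : ∀ x ∈ I, Ortho (fe x)) :
    ∃ (J : Finset (ℕ × ℝ)) (lab : ℕ × ℤ → ℕ × ℤ), J ⊆ I ∧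
      (∀ x ∈ I, ∃ y ∈ I, lc iu y = lab (lc iu x)) ∧
      (∀ x ∈ I, NKo I iu iv L fe w 2 (lc iu x) (lab (lc iu x))) ∧
      (∀ x ∈ J, ∀ y ∈ J, kc iv fv x = kc iv fv y → lab (lc iu x) = lab (lc iu y)) ∧
      ∀ K : ℝ, 1 ≤ K → FL1 I iv fv L fe w K → FL2 I iv fv fe w K → FL3 I iu fe w K →
        (I.card : ℝ) ≤ (11 * (216 * K ^ 3) ^ 2) ^ 15 * J.card := by
  have hR : (0 : ℝ) < 2 ^ (iv - iu) := by positivity
  set O : Finset (ℕ × ℤ) := I.image (lc iu) with hOdef
  have hfo : ∀ o ∈ O, Ortho (fo I iu fe o) := by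
    intro o ho
    rw [hOdef, mem_image] at ho
    obtain ⟨x, hx, rfl⟩ := ho
    exact hO _ (rp_spec hx).1
  obtain ⟨N, hN, hN1, hN2⟩ := exists_net O (NKo I iu iv L fe w 2)
    (fun o ho => NK.refl hw hR (hfo o ho) (by norm_num)) (fun o o' h => NK.symm h)
  have hch : ∀ o : ℕ × ℤ, ∃ l : ℕ × ℤ, o ∈ O → l ∈ N ∧ NKo I iu iv L fe w 2 o l := by
    intro o
    by_cases ho : o ∈ O
    · obtain ⟨l, hl, hr⟩ := hN1 o ho
      exact ⟨l, fun _ => ⟨hl, hr⟩⟩
    · exact ⟨o, fun h => absurd h ho⟩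
  choose lab hlab using hch
  have hmem : ∀ x ∈ I, lc iu x ∈ O := fun x hx => by rw [hOdef]; exact mem_image_of_mem _ hx
  set C0 : ℕ := I.sup fun x => ((I.filter fun y => kc iv fv y = kc iv fv x).image
    fun y => lab (lc iu y)).card with hC0
  obtain ⟨J, hJI, hJc, hJl, -⟩ := Crest.Agent.R138.Ctn829.popular I (kc iv fv)
    (fun y => lab (lc iu y)) C0 (fun x hx => le_trans (le_of_eq (by congr!))
      (Finset.le_sup (f := fun x => ((I.filter fun y => kc iv fv y = kc iv fv x).image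
        fun y => lab (lc iu y)).card) hx))
  refine ⟨J, lab, hJI, ?_, ?_, hJl, ?_⟩
  · intro x hx
    have h1 := hN (hlab _ (hmem x hx)).1
    rw [hOdef, mem_image] at h1
    exact h1
  · exact fun x hx => (hlab _ (hmem x hx)).2
  · intro K hK h1 h2 h3
    have hK0 : 0 < K := by linarith
    have hK27 : 1 ≤ 27 * K ^ 3 := by
      have : 1 ≤ K ^ 3 := one_le_pow₀ hK
      linarith
    have hC0le : (C0 : ℝ) ≤ (11 * (216 * K ^ 3) ^ 2) ^ 15 := by
      have hall : ∀ x ∈ I, (((I.filter fun y => kc iv fv y = kc iv fv x).image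
          fun y => lab (lc iu y)).card : ℝ) ≤ (11 * (216 * K ^ 3) ^ 2) ^ 15 := by
        intro x hx
        have hnearS : ∀ l ∈ (I.filter fun y => kc iv fv y = kc iv fv x).image
            (fun y => lab (lc iu y)), l ∈ N ∧ NKo I iu iv L fe w (216 * K ^ 3) (lc iu x) l := by
          intro l hl
          rw [mem_image] at hl
          obtain ⟨y, hy, rfl⟩ := hl
          rw [mem_filter] at hy
          obtain ⟨g1, g2⟩ := hlab _ (hmem y hy.1)
          refine ⟨g1, ?_⟩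
          have g3 := class_NK huv hw hO hK h1 h2 h3 hx hy.1 hy.2.symm
          have g4 := NK.trans hw hR hK27 (by norm_num : (1:ℝ) ≤ 2) (hfo _ (hmem x hx))
            (hfo _ (hmem y hy.1)) (hfo _ (hN g1)) g3 g2
          have e1 : 4 * (27 * K ^ 3) * 2 = 216 * K ^ 3 := by ring
          rw [e1] at g4
          exact g4
        have h216 : 1 ≤ 216 * K ^ 3 := by linarith
        have := labels_le (w := w) (R := 2 ^ (iv - iu)) (fr := fo I iu fe) (ln := fun o => L o.1)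
          (cell := fun o => o.2) (z0 := zl iu) (ρ := rho iu) hw hR (rho_pos iu) (N := N)
          (fun l hl => hfo l (hN hl)) hN2 (o := lc iu x) (hfo _ (hmem x hx)) h216
          (S := (I.filter fun y => kc iv fv y = kc iv fv x).image fun y => lab (lc iu y))
          (fun l hl => (hnearS l hl).1) (fun l hl => (hnearS l hl).2)
        exact this
      rcases I.eq_empty_or_nonempty with hI | hI
      · have : C0 = 0 := by rw [hC0, hI, Finset.sup_empty]; rfl
        rw [this, Nat.cast_zero]; positivity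
      · obtain ⟨x, hx, hxs⟩ := Finset.exists_mem_eq_sup I hI fun x =>
          ((I.filter fun y => kc iv fv y = kc iv fv x).image fun y => lab (lc iu y)).card
        rw [hC0, hxs]
        exact hall x hx
    have : (I.card : ℝ) ≤ (C0 : ℝ) * J.card := by exact_mod_cast hJc
    exact this.trans (mul_le_mul_of_nonneg_right hC0le (Nat.cast_nonneg _))

/-- normalised closeness of a class in its container -/
theorem rich_cls (huv : iu ≤ iv) (hw : ∀ i, 0 < w i) (hO : ∀ x ∈ I, Ortho (fe x)) {K : ℝ}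
    (hK : 1 ≤ K) (h1 : FL1 I iv fv L fe w K) (h3 : FL3 I iu fe w K)
    {x y : ℕ × ℝ} (hx : x ∈ I) (hy : y ∈ I) (hxy : kc iv fv x = kc iv fv y) {l : ℕ × ℤ}
    (hl : NKo I iu iv L fe w 2 (lc iu x) l) :
    Cls (18 * K ^ 2) w (fo I iu fe l) (L x.1) (L y.1) (zl iv (zc iv x.2)) (rho iv) := by
  have hK0 : 0 ≤ K := by linarith
  obtain ⟨rx, rx'⟩ := rp_spec (iu := iu) hx
  have c1 := h3 _ rx _ hx rx'
  have c2 : Cmp 2 w (fo I iu fe l) (fe (rp I iu (lc iu x))) := hl.2.2.1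
  have c3 := c2.trans hw (by norm_num) hK0 (hO _ rx) c1
  intro z hz hz' k
  have h4 := Cmp.vec hw hK0 (hO _ hx) c3 (h1 x hx y hy hxy z hz hz') k
  refine h4.trans (le_of_eq ?_)
  ring

end

end Crest.Agent.R136.HR829
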