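import Crest.Agent.R136.HR8_829
import Crest.Agent.R136.HR7_829
import Crest.Agent.R136.NatT_550
import Crest.Agent.R138.ArgM1_163

/-!
# R136 (helper829): the flat containers of the (line, cell) pairs in the thick branch, no visible tie

`fl_seq` : in the thick branch (`ThickPre`) without visible tie, the classes of level `v` lie in
flat boxes around their members, with comparable frames (`FL1`, `FL2`, `FL3` of `HR7_829`).
-/

set_option autoImplicit false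
set_option linter.unusedVariables false
set_option linter.unusedSectionVars false

open Finset Filter Topology

namespace Crest.Agent.R136.HR829

open Crest.Agent.R138.Ex926 (Base U)
open Crest.Agent.R138.Dp76 (dpow_pos dpow_add dpow_le dpow_le_one)
open Crest.Agent.R138.Mk163 (zc zl rho alive)
open Crest.Agent.R138.MkRef627 (lc kc mem_alive)
open Crest.Agent.R138.ArgM163 (ev_const)
open Crest.Agent.R136.MkA627
open Crest.Agent.R136.NetQ186
open Crest.Agent.R136.GeoQ186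
open Crest.Agent.R136.Wq638 (couQ pathQ ownQ incQ uH uA uB uY prQ prQ_pos btQ wtQ isSl sfac_slot pathQ_slot
  uH_pos uA_pos uB_pos uY_pos BigQ)
open Crest.Agent.R136.Top484
open Crest.Agent.R136.Sh605
open Crest.Agent.R136.NatT550
open Crest.Agent.R136.K4

section

variable {σ : Type*} {B : Base} {I : ℕ → Finset (ℕ × ℝ)} {G : Geo σ (Fin 3)} {lev : ℕ → ℚ → ℕ}
    {A : ℕ → ℝ} {c Λ : ℝ → ℝ} {θ : Fin 3 → ℝ} {f : ℕ → ℚ → ℕ → ℤ → ℕ} {b : ℕ → ℚ → ℕ → σ}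
    {vm : ℕ → ℚ → ℝ} {w : Fin 3 → ℕ → ℚ → ℝ}

theorem w_lim (h : MkA B I G lev A c Λ (fun j v => θ j * (1 - v)) f b vm w) (k : Fin 3) {v : ℚ}
    (h0 : 0 ≤ v) (h1 : v ≤ 1) :
    Tendsto (fun n => Real.log (w k n v / w k n 0) / B.L n) U (𝓝 (-((1 - θ k) * v))) := by
  have t0 := h.tau k 0 le_rfl zero_le_one
  have t1 := h.tau k v h0 h1
  have tl := h.lev_lim 0 v le_rfl h0 h1
  have := (t0.sub t1).sub tl
  have e1 : θ k * (1 - ((0 : ℚ) : ℝ)) - θ k * (1 - (v : ℝ)) - ((v : ℝ) - ((0 : ℚ) : ℝ)) =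
      -((1 - θ k) * v) := by push_cast; ring
  rw [e1] at this
  refine this.congr' ?_
  filter_upwards [h.wpos k 0 le_rfl zero_le_one, h.wpos k v h0 h1,
    h.wpos k 1 zero_le_one le_rfl] with n a0 a1 a2
  have r0 := rho_pos (lev n 0)
  have r1 := rho_pos (lev n 1)
  have rv := rho_pos (lev n v)
  rw [Real.log_div (div_pos r0 a0).ne' (div_pos r1 a2).ne',
    Real.log_div (div_pos rv a1).ne' (div_pos r1 a2).ne', Real.log_div r0.ne' a0.ne',
    Real.log_div rv.ne' a1.ne', Real.log_div a1.ne' a0.ne',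
    Crest.Agent.R136.ArgA163.log_rho, Crest.Agent.R136.ArgA163.log_rho]
  ring

theorem w_bd (h : MkA B I G lev A c Λ (fun j v => θ j * (1 - v)) f b vm w) (k : Fin 3) {v : ℚ}
    (h0 : 0 ≤ v) (h1 : v ≤ 1) {ε : ℝ} (hε : 0 < ε) : ∀ᶠ n in (U : Filter ℕ),
      w k n 0 * B.d n ^ ((1 - θ k) * v + ε) ≤ w k n v ∧
      w k n v ≤ w k n 0 * B.d n ^ ((1 - θ k) * v - ε) := by
  have hl := w_lim h k h0 h1
  filter_upwards [h.wpos k 0 le_rfl zero_le_one, h.wpos k v h0 h1,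
    hl.eventually_lt_const (show -((1 - θ k) * v) < -((1 - θ k) * v) + ε by linarith),
    hl.eventually_const_lt (show -((1 - θ k) * v) - ε < -((1 - θ k) * v) by linarith)]
    with n a0 a1 a2 a3
  have hL := B.L_pos n
  rw [div_lt_iff₀ hL, Real.log_div a1.ne' a0.ne'] at a2
  rw [lt_div_iff₀ hL, Real.log_div a1.ne' a0.ne'] at a3
  have d1 := dpow_pos B n ((1 - θ k) * v + ε)
  have d2 := dpow_pos B n ((1 - θ k) * v - ε)
  unfold Base.L at a2 a3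
  constructor
  · rw [← Real.log_le_log_iff (mul_pos a0 d1) a1, Real.log_mul a0.ne' d1.ne',
      Real.log_rpow (B.pos n)]
    linarith
  · rw [← Real.log_le_log_iff a1 (mul_pos a0 d2), Real.log_mul a0.ne' d2.ne',
      Real.log_rpow (B.pos n)]
    linarith

theorem ratio_bd {a a' b b' x y z : ℝ} {B : Base} {n : ℕ} (ha : 0 < a) (hb : 0 < b) (hb' : 0 < b')
    (h1 : a * B.d n ^ x ≤ a') (h2 : b' ≤ b * B.d n ^ y) (hz : z = x - y) :
    a / b * B.d n ^ z ≤ a' / b' := by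
  rw [le_div_iff₀ hb']
  have dx := dpow_pos B n x
  have dz := dpow_pos B n z
  calc a / b * B.d n ^ z * b' ≤ a / b * B.d n ^ z * (b * B.d n ^ y) :=
        mul_le_mul_of_nonneg_left h2 (by positivity)
    _ = a * (B.d n ^ z * B.d n ^ y) := by field_simp
    _ = a * B.d n ^ x := by rw [← dpow_add, hz]; congr 2; ring
    _ ≤ a' := h1

theorem pr_bd (h : MkA B I G lev A c Λ (fun j v => θ j * (1 - v)) f b vm w) {k : Fin 11}
    (hk : isSl k) {v : ℚ} (h0 : 0 ≤ v) (h1 : v ≤ 1) {ε : ℝ} (hε : 0 < ε) :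
    ∀ᶠ n in (U : Filter ℕ), prQ w k n 0 * B.d n ^ (btQ θ k * v + ε) ≤ prQ w k n v := by
  have hw : ∀ᶠ n in (U : Filter ℕ), ∀ k, 0 < w k n 0 :=
    Filter.eventually_all.2 fun k => h.wpos k 0 le_rfl zero_le_one
  have hw' : ∀ᶠ n in (U : Filter ℕ), ∀ k, 0 < w k n v :=
    Filter.eventually_all.2 fun k => h.wpos k v h0 h1
  filter_upwards [hw, hw', w_bd h 0 h0 h1 (half_pos hε), w_bd h 1 h0 h1 (half_pos hε),
    w_bd h 2 h0 h1 (half_pos hε)] with n a a' b0 b1 b2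
  rcases hk with rfl | rfl | rfl
  · simp only [prQ, btQ]
    exact ratio_bd (a 2) (a 1) (a' 1) b2.1 b1.2 (by simp; ring)
  · simp only [prQ, btQ]
    exact ratio_bd (a 0) (a 2) (a' 2) b0.1 b2.2 (by simp; ring)
  · simp only [prQ, btQ]
    exact ratio_bd (a 0) (a 1) (a' 1) b0.1 b1.2 (by simp; ring)

end

open Classical in
/-- order of the widths of the marks -/
theorem w_ord {B : Base} {I : ℕ → Finset (ℕ × ℝ)} {L : ℕ → ℕ → Ln4} {r0 : ℕ → ℝ}
    {wr cr : Fin 3 → ℕ → ℝ} {q : Fin 3 → ℝ}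
    {lev : ℕ → ℚ → ℕ} {A : ℕ → ℝ} {c Λ : ℝ → ℝ} {τ : Fin 3 → ℝ → ℝ}
    {f : ℕ → ℚ → ℕ → ℤ → ℕ} {b : ℕ → ℚ → ℕ → Plk4} {vm : ℕ → ℚ → ℝ} {w : Fin 3 → ℕ → ℚ → ℝ}
    (h : MkA B I (geo4 L r0 wr cr q) lev A c Λ τ f b vm w) {v : ℚ} (h0 : 0 ≤ v) (h1 : v ≤ 1) :
    ∀ᶠ n in (U : Filter ℕ), w 0 n v ≤ w 2 n v ∧ w 2 n v ≤ w 1 n v ∧ r0 n ≤ w 0 n v ∧
      w 1 n v ≤ rho (lev n v) ∧
      vm n v = w 0 n v * w 2 n v * w 1 n v * ((w 0 n v / rho (lev n v)) ^ q 0 *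
        (w 1 n v / rho (lev n v)) ^ q 1 * (w 2 n v / rho (lev n v)) ^ q 2) := by
  filter_upwards [h.mark v h0 h1, h.ne] with n hn hne
  obtain ⟨x, hx⟩ := hne
  have hal : x.1 ∈ alive (I n) (lev n v) (zc (lev n v) x.2) := mem_alive.2 ⟨x, hx, rfl, rfl⟩
  obtain ⟨h2, h3, h4, h5⟩ := hn _ _ hal
  have e0 := h5 0
  have e1 := h5 1
  have e2 := h5 2
  simp only [geo4, Matrix.cons_val] at e0 e1 e2
  have g1 := h3.1.a_le
  have g2 := h3.1.w_le
  have g3 := h3.1.r0_le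
  have g4 := h3.2.1
  rw [e0, e2] at g1
  rw [e1, e2] at g2
  rw [e0] at g3
  rw [e1] at g4
  refine ⟨g1, g2, g3, g4, ?_⟩
  rw [← h4]
  simp only [geo4]
  rw [e0, e1, e2]

section

variable {η : ℝ} {p : Par4} {D : Dat4} {π : Equiv.Perm (Fin 3)} {eE fA fB : ℕ → ℕ × ℝ → ℝ}
  {V T : Fin 11 → Prop} {w0 R T0 : ℝ} {PD : Set (Fin 11 → ℝ)}

/-- widths of level `v` as a vector -/
def wv (w : Fin 3 → ℕ → ℚ → ℝ) (v : ℚ) (n : ℕ) : V3 := fun k => w k n v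

/-- the frames of the flags -/
noncomputable def ffr (π : Equiv.Perm (Fin 3)) (eE fA fB : ℕ → ℕ × ℝ → ℝ) (n : ℕ) (x : ℕ × ℝ) :
    Fin 3 → V3 := fpv π (fr (fA n x) (fB n x) (eE n x))

theorem ffr_ortho (n : ℕ) (x : ℕ × ℝ) : Ortho (ffr π eE fA fB n x) := ortho_fpv (fr_ortho _ _ _)

/-- closeness in the slots gives comparable frames -/
theorem cmp_slots (h : ThickPre η p D π eE fA fB V T w0 R T0 PD) {v : ℚ} (h0 : 0 ≤ v)
    (h1 : v ≤ 1) {ε : ℝ} (hε : 0 < ε) : ∀ᶠ n in (U : Filter ℕ), ∀ x ∈ D.I n, ∀ y ∈ D.I n,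
      (∀ k, isSl k → |couQ D.B D.lev D.w w0 (incQ π D.L eE fA fB) n x y k| ≤
        D.B.d n ^ (wtQ k * w0 + btQ p.θ k * v - ε)) →
      Cmp (10 * (D.B.d n ^ (-(2 * ε))) ^ 2) (wv D.w v n) (ffr π eE fA fB n x)
        (ffr π eE fA fB n y) := by
  have hm := h.pre.mka
  have hw : ∀ᶠ n in (U : Filter ℕ), ∀ k, 0 < D.w k n 0 :=
    Filter.eventually_all.2 fun k => hm.wpos k 0 le_rfl zero_le_one
  have hw' : ∀ᶠ n in (U : Filter ℕ), ∀ k, 0 < D.w k n v :=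
    Filter.eventually_all.2 fun k => hm.wpos k v h0 h1
  filter_upwards [hw, hw', w_ord hm h0 h1, pr_bd hm (k := 2) (Or.inl rfl) h0 h1 hε,
    pr_bd hm (k := 3) (Or.inr (Or.inl rfl)) h0 h1 hε,
    pr_bd hm (k := 4) (Or.inr (Or.inr rfl)) h0 h1 hε] with n a a' ho b2 b3 b4 x hx y hy hs
  obtain ⟨f1, f2, f3⟩ := h.flag n x hx
  obtain ⟨g1, g2, g3⟩ := h.flag n y hy
  obtain ⟨o1, o2, -⟩ := ho
  have hK : 1 ≤ D.B.d n ^ (-(2 * ε)) := by
    have := dpow_le D.B n (a := -(2 * ε)) (b := 0) (by linarith)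
    rwa [Real.rpow_zero] at this
  have key : ∀ k, isSl k → |coQ (incQ π D.L eE fA fB n x) (incQ π D.L eE fA fB n y) k| ≤
      D.B.d n ^ (-(2 * ε)) * prQ D.w k n v := by
    intro k hk
    have h1 := hs k hk
    unfold couQ at h1
    have pp := prQ_pos (k := k) a
    have dd := dpow_pos D.B n (wtQ k * w0)
    rw [coQ_scl (uH_pos n).ne' (uA_pos (a 1)).ne' (uB_pos (a 2)).ne' (uY_pos (a 0)).ne',
      sfac_slot hk a, abs_mul, abs_of_pos (div_pos dd pp)] at h1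
    have h2 : |coQ (incQ π D.L eE fA fB n x) (incQ π D.L eE fA fB n y) k| ≤
        prQ D.w k n 0 * D.B.d n ^ (btQ p.θ k * v - ε) := by
      have e1 : D.B.d n ^ (wtQ k * w0 + btQ p.θ k * v - ε) =
          D.B.d n ^ (wtQ k * w0) * D.B.d n ^ (btQ p.θ k * v - ε) := by
        rw [← dpow_add]; congr 1; ring
      rw [e1, div_mul_eq_mul_div, div_le_iff₀ pp, mul_assoc] at h1
      have := le_of_mul_le_mul_left h1 dd
      linarith
    have h3 : prQ D.w k n 0 * D.B.d n ^ (btQ p.θ k * v + ε) ≤ prQ D.w k n v := by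
      rcases hk with rfl | rfl | rfl <;> assumption
    calc _ ≤ _ := h2
      _ = D.B.d n ^ (-(2 * ε)) * (prQ D.w k n 0 * D.B.d n ^ (btQ p.θ k * v + ε)) := by
         rw [show btQ p.θ k * (v : ℝ) - ε = -(2 * ε) + (btQ p.θ k * v + ε) by ring, dpow_add]
         ring
      _ ≤ _ := mul_le_mul_of_nonneg_left h3 (dpow_pos _ _ _).le
  have k2 := key 2 (Or.inl rfl)
  have k3 := key 3 (Or.inr (Or.inl rfl))
  have k4 := key 4 (Or.inr (Or.inr rfl))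
  simp only [coQ, incQ, mkT, prQ, Matrix.cons_val, Fin.reduceEq, if_true, if_false,
    Fin.isValue, mul_div_assoc'] at k2 k3 k4
  rw [le_div_iff₀ (a' 1)] at k2 k4
  rw [le_div_iff₀ (a' 2)] at k3
  exact cmp_fpv (cmp_fr0 a' o1 o2 hK f2 f3 f1 g2 g3 g1 k2 k3 k4)

theorem uH_rho (n : ℕ) (v : ℚ) (B : Base) (lev : ℕ → ℚ → ℕ) :
    uH B lev w0 n * rho (lev n v) = B.d n ^ w0 * ((2 : ℝ) ^ (lev n 0) / 2 ^ (lev n v)) := by
  unfold uH rho; ring

theorem unit_ratio {x r H d1 dw : ℝ} (hr : H * r = 1) (hdw : dw ≠ 0) :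
    x / r * (d1 * dw) / (dw * H) = x * d1 := by
  have hH : H ≠ 0 := by rintro rfl; simp at hr
  have hr0 : r ≠ 0 := by rintro rfl; simp at hr
  calc x / r * (d1 * dw) / (dw * H) = x * d1 / (H * r) := by field_simp
    _ = x * d1 := by rw [hr, div_one]

theorem size_le {B : Base} {n : ℕ} {x xv X c e ε m : ℝ} (hx : 0 < x) (hm : 0 ≤ m)
    (h : x * B.d n ^ (e + ε) ≤ xv) (hX : X ≤ m * B.d n ^ (c + e - 3 * ε)) :
    x * B.d n ^ (-c) * X ≤ m * B.d n ^ (-(4 * ε)) * xv := by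
  have d1 := dpow_pos B n (-c)
  have d2 := dpow_pos B n (-(4 * ε))
  calc x * B.d n ^ (-c) * X ≤ x * B.d n ^ (-c) * (m * B.d n ^ (c + e - 3 * ε)) :=
        mul_le_mul_of_nonneg_left hX (by positivity)
    _ = m * x * (B.d n ^ (-c) * B.d n ^ (c + e - 3 * ε)) := by ring
    _ = m * B.d n ^ (-(4 * ε)) * (x * B.d n ^ (e + ε)) := by
        rw [← dpow_add, show -c + (c + e - 3 * ε) = -(4 * ε) + (e + ε) by ring, dpow_add]; ring
    _ ≤ _ := mul_le_mul_of_nonneg_left h (by positivity)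

set_option maxHeartbeats 1000000 in
/-- **FL1** -/
theorem fl1_seq (h : ThickPre η p D π eE fA fB V T w0 R T0 PD) {v : ℚ} (h0 : 0 ≤ v)
    (h1 : v ≤ 1) {ε : ℝ} (hε : 0 < ε) : ∀ᶠ n in (U : Filter ℕ),
      FL1 (D.I n) (D.lev n v) (D.f n v) (D.L n) (ffr π eE fA fB n) (wv D.w v n)
        (12 * D.B.d n ^ (-(4 * ε))) := by
  have hm := h.pre.mka
  have hw : ∀ᶠ n in (U : Filter ℕ), ∀ k, 0 < D.w k n 0 :=
    Filter.eventually_all.2 fun k => hm.wpos k 0 le_rfl zero_le_one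
  have hw' : ∀ᶠ n in (U : Filter ℕ), ∀ k, 0 < D.w k n v :=
    Filter.eventually_all.2 fun k => hm.wpos k v h0 h1
  have hlev := (hm.lev_lim 0 v le_rfl h0 h1).eventually_const_lt
    (show (v : ℝ) - ((0 : ℚ) : ℝ) - ε < (v : ℝ) - ((0 : ℚ) : ℝ) by linarith)
  filter_upwards [hw, hw', w_ord hm h0 h1, h.pre.gR v h0 h1 ε hε, hlev, w_bd hm 0 h0 h1 hε,
    w_bd hm 1 h0 h1 hε, w_bd hm 2 h0 h1 hε] with n a a' ho hg al b0 b1 b2
  intro x hx y hy hxy z hz1 hz2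
  obtain ⟨f1, f2, f3⟩ := h.flag n x hx
  obtain ⟨o1, o2, -⟩ := ho
  have hcx := zc_mem (D.lev n v) x.2
  have hz : |z - x.2| ≤ rho (D.lev n v) := by
    rw [abs_le]; constructor <;> linarith [hcx.1, hcx.2]
  have hb := hg x hx y hy hxy.symm
  -- height factor
  have hHr : uH D.B D.lev w0 n * rho (D.lev n v) ≤ D.B.d n ^ (w0 + (v : ℝ) - ε) := by
    rw [uH_rho]
    have e1 : D.B.d n ^ (w0 + (v : ℝ) - ε) = D.B.d n ^ w0 * D.B.d n ^ ((v : ℝ) - ε) := by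
      rw [← dpow_add]; congr 1; ring
    rw [e1]
    refine mul_le_mul_of_nonneg_left ?_ (dpow_pos _ n _).le
    have p : (0 : ℝ) < 2 ^ (D.lev n v) := by positivity
    have p' : (0 : ℝ) < 2 ^ (D.lev n 0) := by positivity
    rw [← Real.log_le_log_iff (div_pos p' p) (dpow_pos D.B n _), Real.log_rpow (D.B.pos n),
      Real.log_div p'.ne' p.ne', Real.log_pow, Real.log_pow]
    have hL := D.B.L_pos n
    rw [lt_div_iff₀ hL] at al
    unfold Base.L at al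
    push_cast at al
    linarith
  have hH := uH_pos (B := D.B) (lev := D.lev) (w0 := w0) n
  have hA := uA_pos (B := D.B) (lev := D.lev) (w0 := w0) (a 1)
  have hB := uB_pos (B := D.B) (lev := D.lev) (w0 := w0) (a 2)
  have hY := uY_pos (B := D.B) (lev := D.lev) (w0 := w0) (a 0)
  have hr := rho_pos (D.lev n v)
  have hHρ0 : 0 < uH D.B D.lev w0 n * rho (D.lev n v) := mul_pos hH hr
  have r1 : (2 : ℝ) ^ (D.lev n 0) * rho (D.lev n 0) = 1 := by unfold rho; field_simp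
  have dw := dpow_pos D.B n w0
  -- ratios of the units
  have u1 : uA D.B D.lev D.w w0 n / uH D.B D.lev w0 n = D.w 1 n 0 * D.B.d n ^ (-(2 * w0)) := by
    unfold uA uH
    rw [show -w0 = -(2 * w0) + w0 by ring, dpow_add]
    exact unit_ratio r1 dw.ne'
  have u2 : uB D.B D.lev D.w w0 n / uH D.B D.lev w0 n = D.w 2 n 0 * D.B.d n ^ (-(3 * w0)) := by
    unfold uB uH
    rw [show -(2 * w0) = -(3 * w0) + w0 by ring, dpow_add]
    exact unit_ratio r1 dw.ne'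
  have u0 : uY D.B D.lev D.w w0 n / uH D.B D.lev w0 n = D.w 0 n 0 * D.B.d n ^ (-(4 * w0)) := by
    unfold uY uH
    rw [show -(3 * w0) = -(4 * w0) + w0 by ring, dpow_add]
    exact unit_ratio r1 dw.ne'
  -- sizes
  have hvr : (0 : ℝ) ≤ v := by exact_mod_cast h0
  have hv1 : (v : ℝ) ≤ 1 := by exact_mod_cast h1
  have hmul : ∀ e : ℝ, uH D.B D.lev w0 n * rho (D.lev n v) * D.B.d n ^ e ≤
      D.B.d n ^ (w0 + (v : ℝ) - ε + e) := by
    intro e
    rw [dpow_add]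
    exact mul_le_mul_of_nonneg_right hHr (dpow_pos _ n _).le
  have s1 : uA D.B D.lev D.w w0 n / uH D.B D.lev w0 n *
      (D.B.d n ^ (pathQ p.θ w0 R v 8 - ε) + uH D.B D.lev w0 n * rho (D.lev n v) *
        D.B.d n ^ (pathQ p.θ w0 R v 5 - ε)) ≤ 2 * D.B.d n ^ (-(4 * ε)) * D.w 1 n v := by
    rw [u1]
    refine size_le (a 1) (by norm_num) b1.1 ?_
    have q1 : D.B.d n ^ (pathQ p.θ w0 R v 8 - ε) ≤
        D.B.d n ^ (2 * w0 + (1 - p.θ 1) * v - 3 * ε) := dpow_le _ n (by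
      simp only [pathQ, Matrix.cons_val]; linarith)
    have q2 := (hmul (pathQ p.θ w0 R v 5 - ε)).trans (dpow_le D.B n
      (a := 2 * w0 + (1 - p.θ 1) * v - 3 * ε) (by simp only [pathQ, Matrix.cons_val]; linarith))
    linarith
  have s2 : uB D.B D.lev D.w w0 n / uH D.B D.lev w0 n *
      (D.B.d n ^ (pathQ p.θ w0 R v 9 - ε) + uH D.B D.lev w0 n * rho (D.lev n v) *
        D.B.d n ^ (pathQ p.θ w0 R v 6 - ε)) ≤ 2 * D.B.d n ^ (-(4 * ε)) * D.w 2 n v := by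
    rw [u2]
    refine size_le (a 2) (by norm_num) b2.1 ?_
    have q1 : D.B.d n ^ (pathQ p.θ w0 R v 9 - ε) ≤
        D.B.d n ^ (3 * w0 + (1 - p.θ 2) * v - 3 * ε) := dpow_le _ n (by
      simp only [pathQ, Matrix.cons_val]; linarith)
    have q2 := (hmul (pathQ p.θ w0 R v 6 - ε)).trans (dpow_le D.B n
      (a := 3 * w0 + (1 - p.θ 2) * v - 3 * ε) (by simp only [pathQ, Matrix.cons_val]; linarith))
    linarith
  have s0 : uY D.B D.lev D.w w0 n / uH D.B D.lev w0 n *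
      (D.B.d n ^ (pathQ p.θ w0 R v 10 - ε) + uH D.B D.lev w0 n * rho (D.lev n v) *
        D.B.d n ^ (pathQ p.θ w0 R v 7 - ε) + (uH D.B D.lev w0 n * rho (D.lev n v)) ^ 2 *
        D.B.d n ^ (pathQ p.θ w0 R v 1 - ε)) ≤ 3 * D.B.d n ^ (-(4 * ε)) * D.w 0 n v := by
    rw [u0]
    refine size_le (a 0) (by norm_num) b0.1 ?_
    have q1 : D.B.d n ^ (pathQ p.θ w0 R v 10 - ε) ≤
        D.B.d n ^ (4 * w0 + (1 - p.θ 0) * v - 3 * ε) := dpow_le _ n (by
      simp only [pathQ, Matrix.cons_val]; linarith)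
    have q2 := (hmul (pathQ p.θ w0 R v 7 - ε)).trans (dpow_le D.B n
      (a := 4 * w0 + (1 - p.θ 0) * v - 3 * ε) (by simp only [pathQ, Matrix.cons_val]; linarith))
    have q3 : (uH D.B D.lev w0 n * rho (D.lev n v)) ^ 2 * D.B.d n ^ (pathQ p.θ w0 R v 1 - ε) ≤
        D.B.d n ^ (4 * w0 + (1 - p.θ 0) * v - 3 * ε) := by
      have e1 := mul_le_mul_of_nonneg_left (hmul (pathQ p.θ w0 R v 1 - ε)) hHρ0.le
      have e2 := hmul (w0 + (v : ℝ) - ε + (pathQ p.θ w0 R v 1 - ε))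
      have e3 : (uH D.B D.lev w0 n * rho (D.lev n v)) ^ 2 *
        D.B.d n ^ (pathQ p.θ w0 R v 1 - ε) = uH D.B D.lev w0 n * rho (D.lev n v) *
          (uH D.B D.lev w0 n * rho (D.lev n v) * D.B.d n ^ (pathQ p.θ w0 R v 1 - ε)) := by ring
      rw [e3]
      refine (e1.trans e2).trans (dpow_le D.B n ?_)
      simp only [pathQ, Matrix.cons_val]
      have t1 := h.big.R0
      have t2 := h.big.T0
      have t3 := h.big.w0T
      have t4 := (h.big.bd hvr hv1 0).1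
      linarith
    linarith
  obtain ⟨g0, g1, g2⟩ := gd_flat (π := π) (c := D.L n x.1) (t := D.L n y.1) (zi := x.2)
    (b := fun k => D.B.d n ^ (pathQ p.θ w0 R v k - ε)) f1 f2 f3 hH hA hB hY hz hb s1 s2 s0
  have w0' := a' 0
  have w1' := a' 1
  have w2' := a' 2
  have dd := dpow_pos D.B n (-(4 * ε))
  have m1 := mul_le_mul_of_nonneg_left o1 dd.le
  have m2 := mul_le_mul_of_nonneg_left o2 dd.le
  have m0 := mul_pos dd w0'
  have n1 := mul_pos dd w1'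
  have n2 := mul_pos dd w2'
  intro k
  fin_cases k
  · refine g0.trans ?_
    simp only [wv]
    show _ ≤ 12 * D.B.d n ^ (-(4 * ε)) * D.w 0 n v
    linarith
  · refine g1.trans ?_
    simp only [wv]
    show _ ≤ 12 * D.B.d n ^ (-(4 * ε)) * D.w 1 n v
    linarith
  · refine g2.trans ?_
    simp only [wv]
    show _ ≤ 12 * D.B.d n ^ (-(4 * ε)) * D.w 2 n v
    linarith

/-- **FL2** -/
theorem fl2_seq (h : ThickPre η p D π eE fA fB V T w0 R T0 PD) {v : ℚ} (h0 : 0 ≤ v)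
    (h1 : v ≤ 1) {ε : ℝ} (hε : 0 < ε) : ∀ᶠ n in (U : Filter ℕ),
      FL2 (D.I n) (D.lev n v) (D.f n v) (ffr π eE fA fB n) (wv D.w v n)
        (10 * (D.B.d n ^ (-(2 * ε))) ^ 2) := by
  filter_upwards [cmp_slots h h0 h1 hε, h.pre.gR v h0 h1 ε hε] with n h2 h3 x hx y hy hxy
  refine h2 x hx y hy fun k hk => ?_
  have := h3 x hx y hy hxy.symm k
  rwa [pathQ_slot hk] at this

/-- **FL3**, no visible tie -/
theorem fl3_seq (h : ThickPre η p D π eE fA fB V T w0 R T0 PD) (hV : ¬ V 2 ∧ ¬ V 3 ∧ ¬ V 4)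
    {u v : ℚ} (hu : 0 ≤ u) (hu1 : u ≤ 1) (h0 : 0 ≤ v)
    (h1 : v ≤ 1) {ε : ℝ} (hε : 0 < ε) : ∀ᶠ n in (U : Filter ℕ),
      FL3 (D.I n) (D.lev n u) (ffr π eE fA fB n) (wv D.w v n)
        (10 * (D.B.d n ^ (-(2 * ε))) ^ 2) := by
  filter_upwards [cmp_slots h h0 h1 hε, h.pre.own_near u hu hu1 ε hε] with n h2 h3 x hx y hy hxy
  refine h2 x hx y hy fun k hk => ?_
  have h4 := h3 x hx y hy hxy.symm k
  have hvr : (0 : ℝ) ≤ v := by exact_mod_cast h0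
  have hv1 : (v : ℝ) ≤ 1 := by exact_mod_cast h1
  have t1 := h.big.R0
  have t2 := h.big.T0
  have t3 := h.big.w0T
  have b0 := h.big.bd hvr hv1 0
  have b1 := h.big.bd hvr hv1 1
  have b2 := h.big.bd hvr hv1 2
  refine h4.trans (dpow_le D.B n ?_)
  have hown : ownQ p.θ w0 R V u k = R := by
    unfold ownQ
    have hk0 : k ≠ 0 := by rintro rfl; rcases hk with h | h | h <;> exact absurd h (by decide)
    have hkV : ¬ V k := by
      rcases hk with rfl | rfl | rfl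
      · exact hV.1
      · exact hV.2.1
      · exact hV.2.2
    rw [if_neg hk0, if_neg hkV]
  rw [hown]
  rcases hk with rfl | rfl | rfl
  · simp only [wtQ, btQ, Fin.reduceEq, if_true, if_false, Fin.isValue]
    linarith [b1.1, b1.2, b2.1, b2.2]
  · simp only [wtQ, btQ, Fin.reduceEq, if_true, if_false, Fin.isValue]
    linarith [b0.1, b0.2, b2.1, b2.2]
  · simp only [wtQ, btQ, Fin.reduceEq, if_true, if_false, Fin.isValue]
    linarith [b1.1, b1.2, b0.1, b0.2]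

theorem FL1.mono {I : Finset (ℕ × ℝ)} {iv : ℕ} {fv : ℕ → ℤ → ℕ} {L : ℕ → Ln4}
    {fe : ℕ × ℝ → Fin 3 → V3} {w : V3} (hw : ∀ i, 0 < w i) {K K' : ℝ} (hK : K ≤ K')
    (h : FL1 I iv fv L fe w K) : FL1 I iv fv L fe w K' := fun x hx y hy hxy =>
  (h x hx y hy hxy).mono (fun i => (hw i).le) hK

theorem FL2.mono {I : Finset (ℕ × ℝ)} {iv : ℕ} {fv : ℕ → ℤ → ℕ}
    {fe : ℕ × ℝ → Fin 3 → V3} {w : V3} (hw : ∀ i, 0 < w i) {K K' : ℝ} (hK : K ≤ K')
    (h : FL2 I iv fv fe w K) : FL2 I iv fv fe w K' := fun x hx y hy hxy =>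
  (h x hx y hy hxy).mono hw hK

theorem FL3.mono {I : Finset (ℕ × ℝ)} {iu : ℕ}
    {fe : ℕ × ℝ → Fin 3 → V3} {w : V3} (hw : ∀ i, 0 < w i) {K K' : ℝ} (hK : K ≤ K')
    (h : FL3 I iu fe w K) : FL3 I iu fe w K' := fun x hx y hy hxy =>
  (h x hx y hy hxy).mono hw hK

/-- **the flat hypotheses in the thick branch without visible tie** -/
theorem fl_seq (h : ThickPre η p D π eE fA fB V T w0 R T0 PD) (hV : ¬ V 2 ∧ ¬ V 3 ∧ ¬ V 4)
    {u v : ℚ} (hu : 0 ≤ u) (hu1 : u ≤ 1) (h0 : 0 ≤ v) (h1 : v ≤ 1) {ε : ℝ} (hε : 0 < ε) :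
    ∀ᶠ n in (U : Filter ℕ),
      FL1 (D.I n) (D.lev n v) (D.f n v) (D.L n) (ffr π eE fA fB n) (wv D.w v n)
        (D.B.d n ^ (-ε)) ∧
      FL2 (D.I n) (D.lev n v) (D.f n v) (ffr π eE fA fB n) (wv D.w v n) (D.B.d n ^ (-ε)) ∧
      FL3 (D.I n) (D.lev n u) (ffr π eE fA fB n) (wv D.w v n) (D.B.d n ^ (-ε)) := by
  have hw' : ∀ᶠ n in (U : Filter ℕ), ∀ k, 0 < D.w k n v :=
    Filter.eventually_all.2 fun k => h.pre.mka.wpos k v h0 h1
  have hε8 : 0 < ε / 8 := by linarith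
  filter_upwards [hw', fl1_seq h h0 h1 hε8, fl2_seq h h0 h1 hε8, fl3_seq h hV hu hu1 h0 h1 hε8,
    ev_const D.B (show (0 : ℝ) < 12 by norm_num) (show (0 : ℝ) < ε / 2 by linarith)]
    with n a h1 h2 h3 h4
  have d1 := dpow_pos D.B n (-(ε / 2))
  have e1 : D.B.d n ^ (-ε) = D.B.d n ^ (-(ε / 2)) * D.B.d n ^ (-(ε / 2)) := by
    rw [← dpow_add]; congr 1; ring
  have e2 : D.B.d n ^ (-(4 * (ε / 8))) = D.B.d n ^ (-(ε / 2)) := by congr 1; ring
  have e3 : (D.B.d n ^ (-(2 * (ε / 8)))) ^ 2 = D.B.d n ^ (-(ε / 2)) := by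
    rw [sq, ← dpow_add]; congr 1; ring
  have k1 : 12 * D.B.d n ^ (-(4 * (ε / 8))) ≤ D.B.d n ^ (-ε) := by
    rw [e1, e2]; exact mul_le_mul_of_nonneg_right h4 d1.le
  have k2 : 10 * (D.B.d n ^ (-(2 * (ε / 8)))) ^ 2 ≤ D.B.d n ^ (-ε) := by
    rw [e1, e3]; exact mul_le_mul_of_nonneg_right (by linarith) d1.le
  exact ⟨h1.mono a k1, h2.mono a k2, h3.mono a k2⟩

end

end Crest.Agent.R136.HR829
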