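import Crest.Agent.R136.HR10_829
import Crest.Agent.R136.HR9_829
import Crest.Agent.R138.LmAN_57

/-!
# R136 (helper829): END for flat containers, marked sequences

`end_flat` : a marked sequence of sheets (`geo4`) whose classes lie in flat boxes with frames which
are constant on the (line, cell) pairs (`FL1`, `FL2`, `FL3`) does not exist.
-/

set_option autoImplicit false
set_option linter.unusedVariables false
set_option linter.unusedSectionVars false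

open Finset Filter Topology

namespace Crest.Agent.R136.HR829

open Crest.Agent.R138.Ex926 (Base U)
open Crest.Agent.R138.Dp76 (Dense dpow_pos dpow_add dpow_le dpow_le_one)
open Crest.Agent.R138.Mk163 (zc zl rho alive own)
open Crest.Agent.R138.MkRef627 (lc kc mem_alive)
open Crest.Agent.R138.ArgM163 (ev_const)
open Crest.Agent.R138.LmAN57 (two_le le_two comb)
open Crest.Agent.R136.MkA627
open Crest.Agent.R136.Top484
open Crest.Agent.R136.Sh605
open Crest.Agent.R136.K4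

open Classical in
/-- own counts at a coarser resolution -/
theorem own_coarse (I : Finset (ℕ × ℝ)) (i j d : ℕ) (x : ℕ × ℝ) :
    ((own I i (j + d) x).card : ℝ) ≤ 2 ^ d * ((own I i j x).card : ℝ) := by
  have hd : (0 : ℤ) < 2 ^ d := by positivity
  have hsub : (own I i (j + d) x).image (fun c => c / 2 ^ d) ⊆ own I i j x := by
    intro c hc
    rw [mem_image] at hc
    obtain ⟨c', hc', rfl⟩ := hc
    unfold own at hc' ⊢
    rw [mem_image] at hc' ⊢
    obtain ⟨y, hy, rfl⟩ := hc'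
    exact ⟨y, hy, (zc_div j d y.2).symm⟩
  have h := card_le_mul_card_image (f := fun c : ℤ => c / 2 ^ d) (own I i (j + d) x) (2 ^ d)
    (fun a _ => by
      have hs : (own I i (j + d) x).filter (fun c => c / 2 ^ d = a) ⊆
          Ico (a * 2 ^ d) (a * 2 ^ d + 2 ^ d) := by
        intro c hc
        rw [mem_filter] at hc
        rw [mem_Ico]
        have h1 := Int.ediv_mul_le c hd.ne'
        have h2 := Int.lt_ediv_add_one_mul_self c hd
        rw [hc.2] at h1 h2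
        constructor
        · exact h1
        · linarith
      refine (card_le_card hs).trans ?_
      rw [Int.card_Ico]
      have : a * 2 ^ d + 2 ^ d - a * 2 ^ d = ((2 ^ d : ℕ) : ℤ) := by push_cast; ring
      rw [this, Int.toNat_natCast])
  have h2 : (own I i (j + d) x).card ≤ 2 ^ d * (own I i j x).card :=
    h.trans (Nat.mul_le_mul_left _ (card_le_card hsub))
  exact_mod_cast h2

open Classical in
theorem dmaxW_of_mka {B : Base} {I : ℕ → Finset (ℕ × ℝ)} {L : ℕ → ℕ → Ln4} {r0 : ℕ → ℝ}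
    {wr cr : Fin 3 → ℕ → ℝ} {q : Fin 3 → ℝ} {lev : ℕ → ℚ → ℕ} {A : ℕ → ℝ} {c Λ : ℝ → ℝ}
    {τ : Fin 3 → ℝ → ℝ} {f : ℕ → ℚ → ℕ → ℤ → ℕ} {b : ℕ → ℚ → ℕ → Plk4} {vm : ℕ → ℚ → ℝ}
    {w : Fin 3 → ℕ → ℚ → ℝ}
    (h : MkA B I (geo4 L r0 wr cr q) lev A c Λ τ f b vm w) {v : ℚ} (h0 : 0 ≤ v) (h1 : v ≤ 1) {ε : ℝ}
    (hε : 0 < ε) : ∀ᶠ n in (U : Filter ℕ), ∀ J : ℤ,
      DMaxW (alive (I n) (lev n v) J) (L n) (zl (lev n v) J) (rho (lev n v))
        (B.d n ^ (-ε) * ampA B A c n v) (Rq q (rho (lev n v))) (r0 n)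
        (rho (lev n v)) (fun k => wr k n) (fun k => cr k n) := by
  filter_upwards [h.dmax v h0 h1 ε hε] with n hn J e cc w' q' a hs hw h1
  have := hn J ⟨J, e, cc, w', q', a⟩ ⟨hs, hw, h1⟩
  refine le_trans (le_of_eq ?_) this
  congr!

section lim

variable {B : Base}

theorem near_lim {X Y : ℕ → ℝ} {x C : ℝ}
    (hX : Tendsto (fun n => X n * Real.log 2 / B.L n) U (𝓝 x))
    (h : ∀ᶠ n in (U : Filter ℕ), |Y n - X n| ≤ C) :
    Tendsto (fun n => Y n * Real.log 2 / B.L n) U (𝓝 x) := by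
  have l2 : 0 < Real.log 2 := Real.log_pos (by norm_num)
  have h0 : Tendsto (fun n => (Y n - X n) * Real.log 2 / B.L n) U (𝓝 0) := by
    refine squeeze_zero_norm' (a := fun n => C * Real.log 2 / B.L n) ?_
      (tendsto_const_nhds.div_atTop B.L_tendsto)
    filter_upwards [h] with n hn
    have hL := B.L_pos n
    rw [Real.norm_eq_abs, abs_div, abs_mul, abs_of_pos l2, abs_of_pos hL]
    gcongr
  have := hX.add h0
  rw [add_zero] at this
  refine this.congr fun n => ?_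
  ring

theorem neg_of_lim {X : ℕ → ℝ} {x : ℝ}
    (hX : Tendsto (fun n => X n * Real.log 2 / B.L n) U (𝓝 x)) (hx : x < 0) :
    ∀ᶠ n in (U : Filter ℕ), X n < 0 := by
  filter_upwards [hX.eventually_lt_const hx] with n hn
  have hL := B.L_pos n
  have l2 : 0 < Real.log 2 := Real.log_pos (by norm_num)
  by_contra hc
  push Not at hc
  have : 0 ≤ X n * Real.log 2 / B.L n := by positivity
  linarith

theorem lin_lim {X Y : ℕ → ℝ} {x y : ℝ} (α β γ : ℝ)
    (hX : Tendsto (fun n => X n * Real.log 2 / B.L n) U (𝓝 x))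
    (hY : Tendsto (fun n => Y n * Real.log 2 / B.L n) U (𝓝 y)) :
    Tendsto (fun n => (α * X n + β * Y n + γ) * Real.log 2 / B.L n) U (𝓝 (α * x + β * y)) := by
  refine near_lim (C := |γ|) (comb α β hX hY) (Eventually.of_forall fun n => ?_)
  rw [add_sub_cancel_left]

end lim

/-! ### numerics at one `n` -/

theorem two_n0 {X : ℝ} (hX : 0 < X) {iu iv : ℕ} (h : iu ≤ iv) (Y : ℝ) :
    (2 : ℝ) ^ (Real.logb 2 X + 3 * ((iv : ℝ) - iu) + Y) =
      X * (2 ^ (iv - iu)) ^ 3 * (2 : ℝ) ^ Y := by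
  rw [Real.rpow_add two_pos, Real.rpow_add two_pos, Real.rpow_logb two_pos (by norm_num) hX]
  congr 2
  rw [← pow_mul, ← Real.rpow_natCast]
  push_cast [Nat.cast_sub h]
  congr 1
  ring

section num

variable {B : Base} {n : ℕ} {A₀ v₀ gu ga gv ε Q Y R M3 N : ℝ}

theorem num1 (hA : 0 < A₀) (hv : 0 < v₀) (hR : 0 < R) (hQ : 8 * Q ≤ B.d n ^ (-ε))
    (hY : B.d n ^ (-(2 * ε)) ≤ (2 : ℝ) ^ Y) :
    B.d n ^ (-ε) * (A₀ * B.d n ^ (-gu)) * (8 * Q * R ^ 3 * v₀) ≤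
      A₀ * B.d n ^ (-gu) * v₀ * R ^ 3 * (2 : ℝ) ^ Y := by
  have d1 := dpow_pos B n (-ε)
  have d2 := dpow_pos B n (-gu)
  have hX : 0 < A₀ * B.d n ^ (-gu) * v₀ * R ^ 3 := by positivity
  have e1 : B.d n ^ (-(2 * ε)) = B.d n ^ (-ε) * B.d n ^ (-ε) := by
    rw [← dpow_add]; congr 1; ring
  calc B.d n ^ (-ε) * (A₀ * B.d n ^ (-gu)) * (8 * Q * R ^ 3 * v₀) =
        (8 * Q) * (B.d n ^ (-ε) * (A₀ * B.d n ^ (-gu) * v₀ * R ^ 3)) := by ring
    _ ≤ B.d n ^ (-ε) * (B.d n ^ (-ε) * (A₀ * B.d n ^ (-gu) * v₀ * R ^ 3)) :=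
        mul_le_mul_of_nonneg_right hQ (by positivity)
    _ = A₀ * B.d n ^ (-gu) * v₀ * R ^ 3 * B.d n ^ (-(2 * ε)) := by rw [e1]; ring
    _ ≤ _ := mul_le_mul_of_nonneg_left hY hX.le

theorem num2 (hA : 0 < A₀) (hv : 0 < v₀) (hR : 0 < R) (hM : 0 < M3)
    (hQ : 6 * 2718 ^ 3 * (8 * Q) ≤ B.d n ^ (-ε))
    (hY : B.d n ^ (-((ga - gu) + 2 * ε)) ≤ (2 : ℝ) ^ Y) :
    6 * 2718 ^ 3 * (B.d n ^ (-ε) * (A₀ * B.d n ^ (-ga))) / M3 * (8 * Q * R ^ 3 * v₀) ≤
      A₀ * B.d n ^ (-gu) * v₀ * R ^ 3 * ((2 : ℝ) ^ Y / M3) := by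
  have d1 := dpow_pos B n (-ε)
  have d2 := dpow_pos B n (-gu)
  have d3 := dpow_pos B n (-ga)
  have e1 : B.d n ^ (-gu) * B.d n ^ (-((ga - gu) + 2 * ε)) =
      B.d n ^ (-ε) * (B.d n ^ (-ε) * B.d n ^ (-ga)) := by
    rw [← dpow_add, ← dpow_add, ← dpow_add]; congr 1; ring
  calc 6 * 2718 ^ 3 * (B.d n ^ (-ε) * (A₀ * B.d n ^ (-ga))) / M3 * (8 * Q * R ^ 3 * v₀) =
        (6 * 2718 ^ 3 * (8 * Q)) * (B.d n ^ (-ε) * B.d n ^ (-ga) * (A₀ * v₀ * R ^ 3 / M3)) := by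
        ring
    _ ≤ B.d n ^ (-ε) * (B.d n ^ (-ε) * B.d n ^ (-ga) * (A₀ * v₀ * R ^ 3 / M3)) :=
        mul_le_mul_of_nonneg_right hQ (by positivity)
    _ = (B.d n ^ (-gu) * B.d n ^ (-((ga - gu) + 2 * ε))) * (A₀ * v₀ * R ^ 3 / M3) := by
        rw [e1]; ring
    _ ≤ (B.d n ^ (-gu) * (2 : ℝ) ^ Y) * (A₀ * v₀ * R ^ 3 / M3) := by
        refine mul_le_mul_of_nonneg_right ?_ (by positivity)
        exact mul_le_mul_of_nonneg_left hY d2.le
    _ = _ := by ring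

theorem num3 (hA : 0 < A₀) (hv : 0 < v₀) (hY : (2 : ℝ) ^ Y ≤ B.d n ^ (-((gv - gu) - ε)))
    (hN : A₀ * B.d n ^ (-gv) * v₀ ≤ B.d n ^ (-ε) * N) :
    A₀ * B.d n ^ (-gu) * v₀ * (2 : ℝ) ^ Y ≤ N := by
  have d1 := dpow_pos B n (-ε)
  have d2 := dpow_pos B n (-gu)
  have d4 := dpow_pos B n ε
  have e1 : B.d n ^ (-gu) * B.d n ^ (-((gv - gu) - ε)) = B.d n ^ ε * B.d n ^ (-gv) := by
    rw [← dpow_add, ← dpow_add]; congr 1; ring
  have e2 : B.d n ^ ε * B.d n ^ (-ε) = 1 := by rw [← dpow_add]; simp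
  calc A₀ * B.d n ^ (-gu) * v₀ * (2 : ℝ) ^ Y ≤
        A₀ * B.d n ^ (-gu) * v₀ * B.d n ^ (-((gv - gu) - ε)) :=
        mul_le_mul_of_nonneg_left hY (by positivity)
    _ = (B.d n ^ (-gu) * B.d n ^ (-((gv - gu) - ε))) * (A₀ * v₀) := by ring
    _ = B.d n ^ ε * (A₀ * B.d n ^ (-gv) * v₀) := by rw [e1]; ring
    _ ≤ B.d n ^ ε * (B.d n ^ (-ε) * N) := mul_le_mul_of_nonneg_left hN d4.le
    _ = N := by rw [← mul_assoc, e2, one_mul]

theorem own_num {t c1 c2 : ℝ} {d' : ℕ} (h1 : c1 ≤ 2 ^ d' * c2) (h2 : B.d n ^ (-t + ε) ≤ c1)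
    (h3 : (2 : ℝ) ^ (Y + d') ≤ B.d n ^ (-(t - ε))) : (2 : ℝ) ^ Y ≤ c2 := by
  rw [Real.rpow_add two_pos, Real.rpow_natCast] at h3
  have h4 : B.d n ^ (-(t - ε)) = B.d n ^ (-t + ε) := by congr 1; ring
  rw [h4] at h3
  have h5 := (h3.trans h2).trans h1
  rw [mul_comm] at h5
  exact le_of_mul_le_mul_left h5 (by positivity)

end num

theorem sc_lim {B : Base} {X : ℕ → ℝ} {x : ℝ} (α : ℝ)
    (hX : Tendsto (fun n => X n * Real.log 2 / B.L n) U (𝓝 x)) :
    Tendsto (fun n => (α * X n) * Real.log 2 / B.L n) U (𝓝 (α * x)) := by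
  refine (hX.const_mul α).congr fun n => ?_
  ring

theorem d_one_le (B : Base) (n : ℕ) {ε : ℝ} (hε : 0 ≤ ε) : 1 ≤ B.d n ^ (-ε) := by
  have := dpow_le B n (a := -ε) (b := 0) (by linarith)
  rwa [Real.rpow_zero] at this

set_option maxHeartbeats 4000000 in
open Classical in
/-- **END for flat containers, marked sequences.** -/
theorem end_flat (hKM : ∀ V : ℝ, Crest.Agent.R138.Tub70.KM32 V) {B : Base}
    {I : ℕ → Finset (ℕ × ℝ)} {L : ℕ → ℕ → Ln4} {r0 : ℕ → ℝ} {wr cr : Fin 3 → ℕ → ℝ} {q : Fin 3 → ℝ}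
    {lev : ℕ → ℚ → ℕ} {A : ℕ → ℝ} {g : ℝ} {θ : Fin 3 → ℝ} {f : ℕ → ℚ → ℕ → ℤ → ℕ} {b : ℕ → ℚ → ℕ → Plk4}
    {vm : ℕ → ℚ → ℝ} {w : Fin 3 → ℕ → ℚ → ℝ}
    (h : MkA B I (geo4 L r0 wr cr q) lev A (fun v => g * v) (fun v => 0 * v)
      (fun j v => θ j * (1 - v)) f b vm w) (hwr : Rng B wr cr w) (hg : 0 < g) (hq : ∀ i, 0 ≤ q i) (hθ : 0 < θ 1)
    (fe : ℕ → ℕ × ℝ → Fin 3 → V3) (hO : ∀ n x, Ortho (fe n x)) {u v : ℚ} (hu : 0 ≤ u)
    (huv : u < v) (hv : v < 1)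
    (hFL : ∀ ε : ℝ, 0 < ε → ∀ᶠ n in (U : Filter ℕ),
      FL1 (I n) (lev n v) (f n v) (L n) (fe n) (wv w v n) (B.d n ^ (-ε)) ∧
      FL2 (I n) (lev n v) (f n v) (fe n) (wv w v n) (B.d n ^ (-ε)) ∧
      FL3 (I n) (lev n u) (fe n) (wv w v n) (B.d n ^ (-ε))) : False := by
  obtain ⟨η, ε₀, M₀, hη, hη1, hη4, hε₀, key⟩ := fin_flat hKM hg (η₁ := 1 / 4) (by norm_num)
  have hv0 : 0 ≤ v := hu.trans huv.le
  have hu1 : u ≤ 1 := huv.le.trans hv.le
  set T : ℝ := (v : ℝ) - u with hT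
  have huvR : (u : ℝ) < v := by exact_mod_cast huv
  have hT0 : 0 < T := by rw [hT]; linarith
  set κ : ℝ := min (1 / 2) (ε₀ / 12) with hκ
  have hκ0 : 0 < κ := lt_min (by norm_num) (by positivity)
  have hκ1 : κ ≤ 1 / 2 := min_le_left _ _
  have hκ2 : κ ≤ ε₀ / 12 := min_le_right _ _
  set ε : ℝ := min (ε₀ * T / 8) (κ * T / 4) with hε
  have hε0 : 0 < ε := lt_min (by positivity) (by positivity)
  have hε1 : ε ≤ ε₀ * T / 8 := min_le_left _ _
  have hε2 : ε ≤ κ * T / 4 := min_le_right _ _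
  have hS0 : 0 < (1 - κ) * T := mul_pos (by linarith) hT0
  have hS1 : 1 / 2 * T ≤ (1 - κ) * T := mul_le_mul_of_nonneg_right (by linarith) hT0.le
  have hSη : 0 < (1 - κ) * T * η := mul_pos hS0 hη
  have hεS : ε₀ * T / 2 ≤ ε₀ * ((1 - κ) * T) := by nlinarith
  have hκT : 3 * (κ * T) ≤ ε₀ * T / 4 := by nlinarith
  have hκT0 : 0 < κ * T := mul_pos hκ0 hT0
  have hεT0 : 0 < ε₀ * T := mul_pos hε₀ hT0
  obtain ⟨a, ha1, ha2⟩ := exists_rat_btwn
    (show (u : ℝ) + ((1 - κ) * T - (1 - κ) * T * η) < u + ((1 - κ) * T - (1 - κ) * T * η / 2) by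
      linarith)
  have hSη4 : (1 - κ) * T * η ≤ (1 - κ) * T * (1 / 4) := mul_le_mul_of_nonneg_left hη4 hS0.le
  have hauR : (u : ℝ) < a := by linarith
  have havR : (a : ℝ) < v := by
    have : (1 - κ) * T = T - κ * T := by ring
    linarith
  have hau : u ≤ a := by exact_mod_cast hauR.le
  have hav : a ≤ v := by exact_mod_cast havR.le
  have ha0 : 0 ≤ a := hu.trans hau
  have ha1' : a ≤ 1 := hav.trans hv.le
  -- the labels
  have hch : ∀ n, ∃ (J : Finset (ℕ × ℝ)) (lab : ℕ × ℤ → ℕ × ℤ),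
      (lev n u ≤ lev n v ∧ ∀ k, 0 < wv w v n k) →
      J ⊆ I n ∧ (∀ x ∈ I n, ∃ y ∈ I n, lc (lev n u) y = lab (lc (lev n u) x)) ∧
      (∀ x ∈ I n, NKo (I n) (lev n u) (lev n v) (L n) (fe n) (wv w v n) 2 (lc (lev n u) x)
        (lab (lc (lev n u) x))) ∧
      (∀ x ∈ J, ∀ y ∈ J, kc (lev n v) (f n v) x = kc (lev n v) (f n v) y →
        lab (lc (lev n u) x) = lab (lc (lev n u) y)) ∧
      ∀ K : ℝ, 1 ≤ K → FL1 (I n) (lev n v) (f n v) (L n) (fe n) (wv w v n) K →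
        FL2 (I n) (lev n v) (f n v) (fe n) (wv w v n) K →
        FL3 (I n) (lev n u) (fe n) (wv w v n) K →
        ((I n).card : ℝ) ≤ (11 * (216 * K ^ 3) ^ 2) ^ 15 * J.card := by
    intro n
    by_cases hh : lev n u ≤ lev n v ∧ ∀ k, 0 < wv w v n k
    · obtain ⟨J, lab, h1, h2, h3, h4, h5⟩ := flat_labels (I := I n) (iu := lev n u)
        (iv := lev n v) (fv := f n v) (L := L n) (fe := fe n) hh.1 hh.2 (fun x _ => hO n x)
      exact ⟨J, lab, fun _ => ⟨h1, h2, h3, h4, h5⟩⟩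
    · exact ⟨∅, id, fun h => absurd h hh⟩
  choose J lab hJ using hch
  have hgood : ∀ᶠ n in (U : Filter ℕ), lev n u ≤ lev n v ∧ ∀ k, 0 < wv w v n k := by
    filter_upwards [h.lev_mono u v hu huv.le hv.le,
      Filter.eventually_all.2 fun k => h.wpos k v hv0 hv.le] with n a1 a2
    exact ⟨a1, a2⟩
  have hdense : Dense B J I := by
    refine ⟨hgood.mono fun n hn => (hJ n hn).1, fun δ hδ => ?_⟩
    have hδ' : 0 < δ / 180 := by positivity
    filter_upwards [hgood, hFL (δ / 180) hδ',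
      ev_const B (C := 11 ^ 15 * 216 ^ 30) (by positivity) (half_pos hδ)] with n hn hfl hc
    have h1 := (hJ n hn).2.2.2.2 _ (d_one_le B n hδ'.le) hfl.1 hfl.2.1 hfl.2.2
    have e1 : (11 * (216 * (B.d n ^ (-(δ / 180))) ^ 3) ^ 2) ^ 15 =
        (11 ^ 15 * 216 ^ 30) * (B.d n ^ (-(δ / 180))) ^ 90 := by ring
    have e2 : (B.d n ^ (-(δ / 180))) ^ 90 = B.d n ^ (-(δ / 2)) := by
      rw [← Real.rpow_natCast, ← Real.rpow_mul (B.pos n).le]; congr 1; push_cast; ring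
    have e3 : B.d n ^ δ * (B.d n ^ (-(δ / 2)) * B.d n ^ (-(δ / 2))) = 1 := by
      rw [← dpow_add, ← dpow_add]
      rw [show δ + (-(δ / 2) + -(δ / 2)) = 0 by ring, Real.rpow_zero]
    have hd := dpow_pos B n δ
    have hd2 := dpow_pos B n (-(δ / 2))
    rw [e1, e2] at h1
    have hJc : (0 : ℝ) ≤ (J n).card := Nat.cast_nonneg _
    calc B.d n ^ δ * ((I n).card : ℝ) ≤
          B.d n ^ δ * ((11 ^ 15 * 216 ^ 30) * B.d n ^ (-(δ / 2)) * (J n).card) :=
          mul_le_mul_of_nonneg_left h1 hd.le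
      _ ≤ B.d n ^ δ * (B.d n ^ (-(δ / 2)) * B.d n ^ (-(δ / 2)) * (J n).card) := by
          refine mul_le_mul_of_nonneg_left ?_ hd.le
          refine mul_le_mul_of_nonneg_right ?_ hJc
          exact mul_le_mul_of_nonneg_right hc hd2.le
      _ = (J n).card := by rw [← mul_assoc, e3, one_mul]
  obtain ⟨J', hJ'sub, hJ'd, -, h'⟩ := h.refine' hdense
  -- limits
  obtain ⟨M, hM⟩ : ∃ M : ℕ → ℕ, ∀ n, M n = ⌊(1 - κ) * ((lev n v : ℝ) - lev n u)⌋₊ :=
    ⟨_, fun n => rfl⟩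
  have lD : Tendsto (fun n => ((lev n v : ℝ) - lev n u) * Real.log 2 / B.L n) U (𝓝 T) :=
    h.lev_lim u v hu huv.le hv.le
  have lA : Tendsto (fun n => ((lev n a : ℝ) - lev n u) * Real.log 2 / B.L n) U
      (𝓝 ((a : ℝ) - u)) := h.lev_lim u a hu hau ha1'
  have lM : Tendsto (fun n => (M n : ℝ) * Real.log 2 / B.L n) U (𝓝 ((1 - κ) * T)) := by
    refine near_lim (C := 1) (sc_lim (1 - κ) lD) ?_
    filter_upwards [h.lev_mono u v hu huv.le hv.le] with n hn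
    have h0 : (0 : ℝ) ≤ (lev n v : ℝ) - lev n u := by
      have : (lev n u : ℝ) ≤ lev n v := by exact_mod_cast hn
      linarith
    have h1 : 0 ≤ (1 - κ) * ((lev n v : ℝ) - lev n u) := mul_nonneg (by linarith) h0
    have h2 := Nat.floor_le h1
    have h3 := Nat.lt_floor_add_one ((1 - κ) * ((lev n v : ℝ) - lev n u))
    rw [hM n, abs_le]
    constructor <;> linarith
  obtain ⟨k, hk⟩ : ∃ k : ℕ → ℕ, ∀ n, k n = lev n u + M n + 1 - lev n a := ⟨_, fun n => rfl⟩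
  have hle : ∀ᶠ n in (U : Filter ℕ), lev n a ≤ lev n u + M n + 1 := by
    have := neg_of_lim (lin_lim 1 (-1) (-1) lA lM)
      (show 1 * ((a : ℝ) - u) + (-1) * ((1 - κ) * T) < 0 by linarith)
    filter_upwards [this] with n hn
    have : (lev n a : ℝ) ≤ lev n u + M n + 1 := by linarith
    exact_mod_cast this
  have lk : Tendsto (fun n => (k n : ℝ) * Real.log 2 / B.L n) U
      (𝓝 ((1 - κ) * T - ((a : ℝ) - u))) := by
    have h1 := lin_lim 1 (-1) 1 lM lA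
    have e1 : 1 * ((1 - κ) * T) + (-1) * ((a : ℝ) - u) = (1 - κ) * T - ((a : ℝ) - u) := by ring
    rw [e1] at h1
    refine near_lim (C := 0) h1 ?_
    filter_upwards [hle] with n hn
    rw [hk n]
    push_cast [Nat.cast_sub hn]
    rw [abs_le]
    constructor <;> linarith
  -- eventual inequalities
  have E1 := neg_of_lim (lin_lim (-1) 0 (M₀ : ℝ) lM lM) (by linarith)
  have E2 := neg_of_lim (lin_lim (η / 2) (-1) 0 lM lk) (by
    have : η / 2 * ((1 - κ) * T) = (1 - κ) * T * η / 2 := by ring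
    linarith)
  have E3 := neg_of_lim (lin_lim 1 (-η) 0 lk lM) (by
    have : -η * ((1 - κ) * T) = -((1 - κ) * T * η) := by ring
    linarith)
  have E4 := neg_of_lim (lin_lim 1 (-1) 1 lM lD) (by
    have : (1 - κ) * T = T - κ * T := by ring
    linarith)
  have E6 := le_two (sc_lim ε₀ lM) (show 2 * ε < ε₀ * ((1 - κ) * T) by linarith)
  have l7 := lin_lim 1 1 0 (sc_lim g (lin_lim 1 (-1) 0 lM lk)) (sc_lim ε₀ lM)
  have E7 := le_two l7 (show (g * a - g * u) + 2 * ε <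
      1 * (g * (1 * ((1 - κ) * T) + (-1) * ((1 - κ) * T - ((a : ℝ) - u)))) +
        1 * (ε₀ * ((1 - κ) * T)) by
    have : g * (1 * ((1 - κ) * T) + (-1) * ((1 - κ) * T - ((a : ℝ) - u))) = g * a - g * u := by
      ring
    linarith)
  have l8 := lin_lim 1 (g - ε₀) 0 (sc_lim 3 (lin_lim 1 (-1) 0 lD lM)) lM
  have E8 := two_le l8 (show 1 * (3 * (1 * T + (-1) * ((1 - κ) * T))) + (g - ε₀) * ((1 - κ) * T) <
      (g * v - g * u) - ε by
    have e1 : 1 * (3 * (1 * T + (-1) * ((1 - κ) * T))) = 3 * (κ * T) := by ring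
    have e2 : (g - ε₀) * ((1 - κ) * T) = g * T - g * (κ * T) - ε₀ * ((1 - κ) * T) := by ring
    have e3 : g * v - g * u = g * T := by rw [hT]; ring
    have e4 : 0 < g * (κ * T) := mul_pos hg hκT0
    linarith)
  have l9 := lin_lim 1 (-ε₀) (-1) lD lM
  have E9 := two_le l9 (show 1 * T + -ε₀ * ((1 - κ) * T) < ((v : ℝ) - u) - ε by
    rw [← hT]; linarith)
  have l10 := lin_lim 1 1 (-1) lk (lin_lim 1 (-(1 + ε₀)) 0 lD lM)
  have E10 := two_le l10 (show 1 * ((1 - κ) * T - ((a : ℝ) - u)) +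
      1 * (1 * T + -(1 + ε₀) * ((1 - κ) * T)) < ((v : ℝ) - a) - ε by
    have e1 : -(1 + ε₀) * ((1 - κ) * T) = -((1 - κ) * T) - ε₀ * ((1 - κ) * T) := by ring
    linarith)
  have E11 := le_two (lin_lim 1 (-1) 0 lD lM) (show 3 * ε < 1 * T + (-1) * ((1 - κ) * T) by
    have : (1 - κ) * T = T - κ * T := by ring
    linarith)
  have E5 : ∀ᶠ n in (U : Filter ℕ), 65232 * w 1 n v ≤ rho (lev n v) := by
    have hvR : (v : ℝ) < 1 := by exact_mod_cast hv
    have hx : 0 < θ 1 * (1 - (v : ℝ)) := mul_pos hθ (by linarith)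
    filter_upwards [(h.tau 1 v hv0 hv.le).eventually_const_lt
      (show θ 1 * (1 - (v : ℝ)) / 2 < θ 1 * (1 - (v : ℝ)) by linarith),
      ev_const B (C := 65232) (by norm_num) (half_pos hx), h.wpos 1 v hv0 hv.le,
      h.wpos 1 1 zero_le_one le_rfl, w_ord h zero_le_one le_rfl] with n a1 a2 a3 a4 a5
    have r1 := rho_pos (lev n 1)
    have rv := rho_pos (lev n v)
    have hL := B.L_pos n
    rw [lt_div_iff₀ hL] at a1
    have a6 : (1 : ℝ) ≤ rho (lev n 1) / w 1 n 1 := by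
      rw [one_le_div a4]; exact a5.2.2.2.1
    have h3 : B.d n ^ (-(θ 1 * (1 - (v : ℝ)) / 2)) ≤
        (rho (lev n v) / w 1 n v) / (rho (lev n 1) / w 1 n 1) := by
      rw [← Real.log_le_log_iff (dpow_pos B n _) (div_pos (div_pos rv a3) (div_pos r1 a4)),
        Real.log_rpow (B.pos n)]
      unfold Base.L at a1
      linarith
    have h4 : (rho (lev n v) / w 1 n v) / (rho (lev n 1) / w 1 n 1) ≤ rho (lev n v) / w 1 n v :=
      div_le_self (div_pos rv a3).le a6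
    have h5 := (a2.trans h3).trans h4
    rwa [le_div_iff₀ a3] at h5
  have E12 : ∀ᶠ n in (U : Filter ℕ), 8 * (2 : ℝ) ^ (q 0 + q 1 + q 2) ≤ B.d n ^ (-ε) :=
    ev_const B (by positivity) hε0
  have E13 : ∀ᶠ n in (U : Filter ℕ),
      6 * 2718 ^ 3 * (8 * (108720 : ℝ) ^ (q 0 + q 1 + q 2)) ≤ B.d n ^ (-ε) :=
    ev_const B (by positivity) hε0
  have E14 : ∀ᶠ n in (U : Filter ℕ), (18 : ℝ) ≤ B.d n ^ (-ε) := ev_const B (by norm_num) hε0
  have E15 : ∀ᶠ n in (U : Filter ℕ), ∀ k : Fin 3,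
      54360 * (2 ^ (lev n v - lev n u) * wv w v n k) ≤ cr k n := by
    refine Filter.eventually_all.2 fun k => ?_
    filter_upwards [hgood, hwr (T + 1) k v hv0 hv.le,
      two_le lD (show T < T + 1 / 2 by linarith),
      ev_const B (C := 54360) (by norm_num) (show (0 : ℝ) < 1 / 2 by norm_num)] with n a1 a2 a3 a4
    have hw := a1.2 k
    have e1 : (2 : ℝ) ^ (lev n v - lev n u) = (2 : ℝ) ^ ((lev n v : ℝ) - lev n u) := by
      rw [← Real.rpow_natCast]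
      push_cast [Nat.cast_sub a1.1]
      rfl
    have d1 := dpow_pos B n (-(1 / 2))
    have d2 := dpow_pos B n (-(T + 1 / 2))
    have e2 : B.d n ^ (-(1 / 2 : ℝ)) * (B.d n ^ (-(T + 1 / 2)) * B.d n ^ (T + 1)) = 1 := by
      rw [← dpow_add, ← dpow_add, show -(1 / 2 : ℝ) + (-(T + 1 / 2) + (T + 1)) = 0 by ring,
        Real.rpow_zero]
    rw [e1]
    calc 54360 * ((2 : ℝ) ^ ((lev n v : ℝ) - lev n u) * wv w v n k) ≤
          B.d n ^ (-(1 / 2 : ℝ)) * (B.d n ^ (-(T + 1 / 2)) * wv w v n k) := by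
          refine mul_le_mul a4 (mul_le_mul_of_nonneg_right a3 hw.le) (by positivity) d1.le
      _ ≤ B.d n ^ (-(1 / 2 : ℝ)) * (B.d n ^ (-(T + 1 / 2)) * (B.d n ^ (T + 1) * cr k n)) := by
          refine mul_le_mul_of_nonneg_left ?_ d1.le
          exact mul_le_mul_of_nonneg_left a2.2 d2.le
      _ = (B.d n ^ (-(1 / 2 : ℝ)) * (B.d n ^ (-(T + 1 / 2)) * B.d n ^ (T + 1))) * cr k n := by ring
      _ = cr k n := by rw [e2, one_mul]
  have hfin : ∀ᶠ n in (U : Filter ℕ), False := by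
    filter_upwards [hgood, hFL ε hε0, E1, E2, E3, E4, E5, E6, E7, E8, E9, E10, E11, E12, E13, E14,
      hle, h'.ne, w_ord h hv0 hv.le, dmaxW_of_mka h hu hu1 hε0, dmaxW_of_mka h ha0 ha1' hε0,
      h'.near v hv0 hv.le ε hε0, h'.own u v hu huv.le hv.le ε hε0,
      h'.own a v ha0 hav hv.le ε hε0, h.vpos v hv0 hv.le, hdense.1,
      Filter.eventually_all.2 fun i => hwr 0 i v hv0 hv.le, E15] with n
      g0 gFL g1 g2 g3 g4 g5 g6 g7 g8 g9 g10 g11 g12 g13 g14 gle gne gord gU gA gnear gown1 gown2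
      gvm gJI gw gc
    have hMD : lev n u + M n + 1 ≤ lev n v := by
      have : (lev n u : ℝ) + M n + 1 ≤ lev n v := by linarith
      exact_mod_cast this
    have hka : lev n u + M n + 1 - k n = lev n a := by rw [hk n]; omega
    have huvn : lev n u ≤ lev n v := g0.1
    have hA := h.Apos n
    have hdu := dpow_pos B n (-(g * u))
    have hX0 : 0 < A n * B.d n ^ (-(g * u)) * vm n v := mul_pos (mul_pos hA hdu) gvm
    have hR0 : (0 : ℝ) < 2 ^ (lev n v - lev n u) := by positivity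
    obtain ⟨d', hd'⟩ := Nat.exists_eq_add_of_le hMD
    have hd'R : (d' : ℝ) = (lev n v : ℝ) - lev n u - M n - 1 := by
      have : (lev n v : ℝ) = lev n u + M n + 1 + d' := by exact_mod_cast hd'
      linarith
    have hV : wv w v n 0 * wv w v n 2 * wv w v n 1 * Rq q (rho (lev n v)) (wv w v n 0)
        (wv w v n 2) (wv w v n 1) = vm n v := by
      rw [gord.2.2.2.2]; rfl
    have amp1 : ∀ x : ℚ, ampA B A (fun v => g * v) n x = A n * B.d n ^ (-(g * x)) := fun x => rfl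
    refine key (I n) (J' n) (L n) (f n v) (fe n) (wv w v n) (lab n) q (lev n u) (lev n v) (M n)
      (k n) (B.d n ^ (-ε)) (Real.logb 2 (A n * B.d n ^ (-(g * u)) * vm n v) +
        3 * ((lev n v : ℝ) - lev n u)) (r0 n) (fun i => wr i n)
      (fun i => cr i n) (B.d n ^ (-ε) * ampA B A (fun v => g * v) n u) (B.d n ^ (-ε) * ampA B A (fun v => g * v) n a)
      ((hJ'sub n).trans gJI) gne ?_ ?_ ?_ hMD hq (g0.2 0) gord.1 gord.2.1 gord.2.2.1
      (fun i => by simpa [wv] using (gw i).1) gc g5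
      (fun x _ => hO n x) (d_one_le B n hε0.le) gFL.1 gFL.2.2 ?_ (hJ n g0).2.1 (hJ n g0).2.2.1
      ?_ ?_ ?_ ?_ ?_ ?_ gU ?_ ?_ ?_
    · have : (M₀ : ℝ) ≤ M n := by linarith
      exact_mod_cast this
    · linarith
    · linarith
    · have e1 : B.d n ^ (-(3 * ε)) = B.d n ^ (-ε) * (B.d n ^ (-ε)) ^ 2 := by
        rw [sq, ← dpow_add, ← dpow_add]; congr 1; ring
      have e2 : (2 : ℝ) ^ (1 * ((lev n v : ℝ) - lev n u) + (-1) * (M n : ℝ) + 0) * 2 ^ (M n) =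
          2 ^ (lev n v - lev n u) := by
        rw [← Real.rpow_natCast, ← Real.rpow_natCast, ← Real.rpow_add two_pos]
        push_cast [Nat.cast_sub huvn]
        congr 1; ring
      rw [← e2]
      refine mul_le_mul_of_nonneg_right ?_ (by positivity)
      refine le_trans ?_ g11
      rw [e1]
      exact mul_le_mul_of_nonneg_right g14 (by positivity)
    · intro x hx y hy
      exact (hJ n g0).2.2.2.1 x (hJ'sub n hx) y (hJ'sub n hy)
    · intro x hx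
      have h1 := own_coarse (J' n) (lev n u) (lev n u + M n + 1) d' x
      rw [← hd'] at h1
      have h2 := (gown1 x hx).1
      rw [show -((v : ℝ) - u) + (0 * (v : ℝ) - 0 * (u : ℝ)) + ε = -((v : ℝ) - u) + ε by ring] at h2
      refine own_num h1 h2 ?_
      have e1 : (M n : ℝ) - ε₀ * M n + d' =
          1 * ((lev n v : ℝ) - lev n u) + -ε₀ * (M n : ℝ) + -1 := by rw [hd'R]; ring
      rw [e1]
      exact g9
    · intro x hx
      rw [hka]
      have h1 := own_coarse (J' n) (lev n a) (lev n u + M n + 1) d' x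
      rw [← hd'] at h1
      have h2 := (gown2 x hx).1
      rw [show -((v : ℝ) - a) + (0 * (v : ℝ) - 0 * (a : ℝ)) + ε = -((v : ℝ) - a) + ε by ring] at h2
      refine own_num h1 h2 ?_
      have e1 : (k n : ℝ) - ε₀ * M n + d' =
          1 * (k n : ℝ) + 1 * (1 * ((lev n v : ℝ) - lev n u) + -(1 + ε₀) * (M n : ℝ) + 0) + -1 := by
        rw [hd'R]; ring
      rw [e1]
      exact g10
    · intro x hx
      have h1 := gnear (zc (lev n v) x.2) x.1 (mem_alive.2 ⟨x, hx, rfl, rfl⟩)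
      rw [amp1] at h1
      have h2 := num3 (gu := g * u) (gv := g * v) hA gvm g8 h1
      refine le_trans (le_of_eq ?_) h2
      rw [← Real.rpow_logb two_pos (by norm_num) hX0, ← Real.rpow_add two_pos,
        Real.rpow_logb two_pos (by norm_num) hX0]
      congr 1
      ring
    · rw [amp1]
      exact (mul_pos (dpow_pos B n _) (mul_pos hA (dpow_pos B n _))).le
    · rw [amp1]
      exact (mul_pos (dpow_pos B n _) (mul_pos hA (dpow_pos B n _))).le
    · rw [hka]; exact gA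
    · rw [hV, two_n0 hX0 huvn, amp1]
      exact num1 hA gvm hR0 g12 g6
    · have e1 : Real.logb 2 (A n * B.d n ^ (-(g * u)) * vm n v) +
          3 * ((lev n v : ℝ) - lev n u) - 3 * (M n : ℝ) + g * ((M n : ℝ) - k n) + ε₀ * M n =
          Real.logb 2 (A n * B.d n ^ (-(g * u)) * vm n v) + 3 * ((lev n v : ℝ) - lev n u) +
          ((1 * (g * (1 * (M n : ℝ) + (-1) * (k n : ℝ) + 0)) + 1 * (ε₀ * (M n : ℝ)) + 0) -
            3 * (M n : ℝ)) := by ring
      have e2 : ∀ Y : ℝ, (2 : ℝ) ^ (Y - 3 * (M n : ℝ)) = 2 ^ Y / (2 ^ (M n)) ^ 3 := by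
        intro Y
        rw [Real.rpow_sub two_pos]
        congr 1
        rw [← pow_mul, ← Real.rpow_natCast]
        push_cast
        congr 1; ring
      rw [hV, e1, two_n0 hX0 huvn, e2, amp1]
      exact num2 hA gvm hR0 (by positivity) g13 g7
  exact (hfin.exists).elim fun _ h => h

end Crest.Agent.R136.HR829
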