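import Crest.Agent.R136.HR11_829
import Crest.Agent.R136.TopB_550

/-!
# R136 (helper829): field `A` of the table of the thick branch (no visible tie)
-/

set_option autoImplicit false
set_option linter.unusedVariables false

open Finset Filter Topology

namespace Crest.Agent.R136.HR829

open Crest.Agent.R138.Ex926 (Base U)
open Crest.Agent.R136.Top484
open Crest.Agent.R136.NatT550
open Crest.Agent.R136.TopB550

/-- no visible tie, from the input of L15 alone -/
theorem preA_false (hKM : ∀ V : ℝ, Crest.Agent.R138.Tub70.KM32 V) {η : ℝ} {p : Par4} {D : Dat4}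
    {π : Equiv.Perm (Fin 3)} {eE fA fB : ℕ → ℕ × ℝ → ℝ} {V T : Fin 11 → Prop} {w0 R T0 : ℝ}
    {PD : Set (Fin 11 → ℝ)} (h : ThickPre η p D π eE fA fB V T w0 R T0 PD)
    (hV : ¬ V 2 ∧ ¬ V 3 ∧ ¬ V 4) : False := by
  have hg := h.ok.g0
  have hq2 := h.ok.q2
  have hq1 : 0 ≤ p.q 1 := by
    first
      | exact hg.2.le
      | (have hη : 0 < η := by
           by_contra hc
           push Not at hc
           have := mul_nonpos_of_nonpos_of_nonneg hc hg.1.le
           linarith [hq2.1, hq2.2]
         by_contra hc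
         push Not at hc
         have := mul_nonpos_of_nonneg_of_nonpos hη.le hc.le
         linarith [hg.1, hg.2])
  have hq : ∀ i, 0 ≤ p.q i := by
    intro i
    fin_cases i
    · exact h.ok.q0.1
    · exact hq1
    · exact hq2.1.le
  exact end_flat hKM h.pre.mka h.wrs hg.1 hq h.ok.θ1 (ffr π eE fA fB) (fun n x => ffr_ortho n x)
    (u := 0) (v := 1 / 2) le_rfl (by norm_num) (by norm_num)
    (fun ε hε => fl_seq h hV le_rfl (by norm_num) (by norm_num) (by norm_num) hε)

/-- **field `A` of `ThickTable`** -/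
theorem caseA (hKM : ∀ V : ℝ, Crest.Agent.R138.Tub70.KM32 V) (η : ℝ) : Dead η pA := by
  intro p D I1 π eE fA fB V T w0 R T0 PD ν own c₀ h hV
  exact preA_false hKM h.tp hV

end Crest.Agent.R136.HR829
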