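import Crest.Agent.R136.HR0_829
import Crest.Agent.R138.MkDef_163

/-!
# R136, HRot4 part 1 (helper829): no container, finite form

`nc_fin`: LEMMA A_Q (`lemmaQ_two`) for a finite set of incidences (line, real height) inside one cell
`J0` of level `i`: heights are the left ends of the cells of level `i + M + 1`, windows are cells of
level `i + M + 1 - k`.
-/

set_option autoImplicit false
set_option linter.unusedVariables false
set_option linter.unusedSectionVars false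

namespace Crest.Agent.R136.HR829

open Finset
open Crest.Agent.R136.LmQ861 (C11 pt Plk SlabOne)
open Crest.Agent.R138.Mk163 (zc zl rho alive own)

/-- index of the cell `c` of level `i + M + 1` relative to the middle of the cell `J0` of level `i` -/
def ix (M : ℕ) (J0 c : ℤ) : ℤ := c - J0 * 2 ^ (M + 1) - 2 ^ M

/-- normalised height (in `[-1, 1]`) of the left end of the cell `c` -/
noncomputable def uh (M : ℕ) (J0 c : ℤ) : ℝ := (ix M J0 c : ℝ) / 2 ^ M

theorem zc_div (i k : ℕ) (z : ℝ) : zc (i + k) z / 2 ^ k = zc i z := by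
  unfold zc
  have h : (2 : ℝ) ^ (i + k) * z = (2 : ℝ) ^ k * ((2 : ℝ) ^ i * z) := by rw [pow_add]; ring
  rw [h]
  set y : ℝ := (2 : ℝ) ^ i * z
  have hK : (0 : ℤ) < 2 ^ k := by positivity
  have hKr : (0 : ℝ) < 2 ^ k := by positivity
  apply le_antisymm
  · rw [Int.le_floor]
    have h1 : ⌊(2 : ℝ) ^ k * y⌋ / 2 ^ k * 2 ^ k ≤ ⌊(2 : ℝ) ^ k * y⌋ := Int.ediv_mul_le _ hK.ne'
    have h2 : ((⌊(2 : ℝ) ^ k * y⌋ / 2 ^ k * 2 ^ k : ℤ) : ℝ) ≤ (2 : ℝ) ^ k * y :=
      (Int.cast_le.2 h1).trans (Int.floor_le _)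
    push_cast at h2
    rw [mul_comm] at h2
    exact le_of_mul_le_mul_left h2 hKr
  · rw [Int.le_ediv_iff_mul_le hK, Int.le_floor]
    push_cast
    rw [mul_comm]
    exact mul_le_mul_of_nonneg_left (Int.floor_le _) hKr.le

theorem ix_abs {i M : ℕ} {J0 : ℤ} {z : ℝ} (h : zc i z = J0) :
    |((ix M J0 (zc (i + M + 1) z) : ℤ) : ℝ)| ≤ 2 ^ M := by
  have h1 := zc_div i (M + 1) z
  rw [h, ← add_assoc] at h1
  have hK : (0 : ℤ) < 2 ^ (M + 1) := by positivity
  have h2 := Int.ediv_mul_le (zc (i + M + 1) z) hK.ne'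
  have h3 := Int.lt_ediv_add_one_mul_self (zc (i + M + 1) z) hK
  rw [h1] at h2 h3
  have h4 : |ix M J0 (zc (i + M + 1) z)| ≤ 2 ^ M := by
    unfold ix
    rw [abs_le]
    have h5 : (2 : ℤ) ^ (M + 1) = 2 * 2 ^ M := by ring
    rw [h5] at h2 h3 ⊢
    constructor <;> linarith
  have h6 : ((|ix M J0 (zc (i + M + 1) z)| : ℤ) : ℝ) ≤ ((2 ^ M : ℤ) : ℝ) := by exact_mod_cast h4
  push_cast at h6
  exact h6

/-- the windows of `ix` are cells of level `i + M + 1 - k` -/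
theorem ix_div {i M k : ℕ} (hk : k ≤ M) (J0 : ℤ) (z : ℝ) :
    ix M J0 (zc (i + M + 1) z) / 2 ^ k =
      zc (i + M + 1 - k) z - J0 * 2 ^ (M + 1 - k) - 2 ^ (M - k) := by
  have h1 := zc_div (i + M + 1 - k) k z
  rw [Nat.sub_add_cancel (by omega)] at h1
  have hK : (2 : ℤ) ^ k ≠ 0 := by positivity
  have e1 : (2 : ℤ) ^ (M + 1) = 2 ^ (M + 1 - k) * 2 ^ k := by
    rw [← pow_add]; congr 1; omega
  have e2 : (2 : ℤ) ^ M = 2 ^ (M - k) * 2 ^ k := by
    rw [← pow_add]; congr 1; omega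
  have e3 : ix M J0 (zc (i + M + 1) z) = zc (i + M + 1) z +
      (-(J0 * 2 ^ (M + 1 - k)) - 2 ^ (M - k)) * 2 ^ k := by
    unfold ix
    rw [e1, e2]; ring
  rw [e3, Int.add_mul_ediv_right _ _ hK, h1]
  ring

theorem ix_window {i M k : ℕ} (hk : k ≤ M) (J0 : ℤ) (z z' : ℝ) :
    ix M J0 (zc (i + M + 1) z) / 2 ^ k = ix M J0 (zc (i + M + 1) z') / 2 ^ k ↔
      zc (i + M + 1 - k) z = zc (i + M + 1 - k) z' := by
  rw [ix_div hk, ix_div hk]
  constructor
  · intro h; linarith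
  · intro h; rw [h]

/-- heights at distance `≤ 2^k` lie in neighbouring windows -/
theorem ix_near {i M k : ℕ} (hk : k ≤ M) (J0 : ℤ) (z z' : ℝ)
    (h : |((ix M J0 (zc (i + M + 1) z) : ℤ) : ℝ) - ((ix M J0 (zc (i + M + 1) z') : ℤ) : ℝ)| ≤ 2 ^ k) :
    |zc (i + M + 1 - k) z - zc (i + M + 1 - k) z'| ≤ 1 := by
  have hd := ix_div (i := i) hk J0 z
  have hd' := ix_div (i := i) hk J0 z'
  set a := ix M J0 (zc (i + M + 1) z)
  set b := ix M J0 (zc (i + M + 1) z')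
  have hK : (0 : ℤ) < 2 ^ k := by positivity
  have h1 : |a - b| ≤ 2 ^ k := by
    have : ((|a - b| : ℤ) : ℝ) ≤ ((2 ^ k : ℤ) : ℝ) := by push_cast; exact h
    exact_mod_cast this
  have h2 : |a / 2 ^ k - b / 2 ^ k| ≤ 1 := by
    rw [abs_le] at h1 ⊢
    have a1 := Int.ediv_mul_le a hK.ne'
    have a2 := Int.lt_ediv_add_one_mul_self a hK
    have b1 := Int.ediv_mul_le b hK.ne'
    have b2 := Int.lt_ediv_add_one_mul_self b hK
    constructor
    · by_contra hc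
      push Not at hc
      have : a / 2 ^ k + 1 + 1 ≤ b / 2 ^ k := by omega
      nlinarith
    · by_contra hc
      push Not at hc
      have : b / 2 ^ k + 1 + 1 ≤ a / 2 ^ k := by omega
      nlinarith
  have e : zc (i + M + 1 - k) z - zc (i + M + 1 - k) z' = a / 2 ^ k - b / 2 ^ k := by
    rw [hd, hd']; ring
  rw [e]; exact h2

/-- the discrete incidences -/
noncomputable def inc (F : Finset (ℕ × ℝ)) (i M : ℕ) (J0 : ℤ) : Finset (ℕ × ℤ) :=
  F.image fun x => (x.1, ix M J0 (zc (i + M + 1) x.2))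

theorem ix_inj (M : ℕ) (J0 : ℤ) {c c' : ℤ} (h : ix M J0 c = ix M J0 c') : c = c' := by
  unfold ix at h; linarith

open Classical in
/-- cells of the line of `x` in the window of `x` -/
theorem own_le {F : Finset (ℕ × ℝ)} {i M k : ℕ} (hk : k ≤ M) {J0 : ℤ}
    (hJ : ∀ x ∈ F, zc i x.2 = J0) (x : ℕ × ℝ) :
    ((own F (i + M + 1 - k) (i + M + 1) x).card : ℝ) ≤
      (((inc F i M J0).filter fun y => y.1 = x.1 ∧
        y.2 / 2 ^ k = ix M J0 (zc (i + M + 1) x.2) / 2 ^ k).card : ℝ) := by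
  have : own F (i + M + 1 - k) (i + M + 1) x ⊆
      ((inc F i M J0).filter fun y => y.1 = x.1 ∧
        y.2 / 2 ^ k = ix M J0 (zc (i + M + 1) x.2) / 2 ^ k).image
          fun y => y.2 + J0 * 2 ^ (M + 1) + 2 ^ M := by
    intro c hc
    unfold own at hc
    rw [mem_image] at hc
    obtain ⟨y, hy, rfl⟩ := hc
    rw [mem_filter] at hy
    rw [mem_image]
    refine ⟨(y.1, ix M J0 (zc (i + M + 1) y.2)), ?_, ?_⟩
    · rw [mem_filter]
      refine ⟨mem_image.2 ⟨y, hy.1, rfl⟩, hy.2.1, ?_⟩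
      exact (ix_window hk J0 _ _).2 hy.2.2
    · simp only [ix]; ring
  exact_mod_cast (card_le_card this).trans card_image_le

open Classical in
/-- all cells of the line of `x` -/
theorem own_le' {F : Finset (ℕ × ℝ)} {i M : ℕ} {J0 : ℤ}
    (hJ : ∀ x ∈ F, zc i x.2 = J0) (x : ℕ × ℝ) :
    ((own F i (i + M + 1) x).card : ℝ) ≤
      (((inc F i M J0).filter fun y => y.1 = x.1).card : ℝ) := by
  have : own F i (i + M + 1) x ⊆
      ((inc F i M J0).filter fun y => y.1 = x.1).image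
          fun y => y.2 + J0 * 2 ^ (M + 1) + 2 ^ M := by
    intro c hc
    unfold own at hc
    rw [mem_image] at hc
    obtain ⟨y, hy, rfl⟩ := hc
    rw [mem_filter] at hy
    rw [mem_image]
    refine ⟨(y.1, ix M J0 (zc (i + M + 1) y.2)), ?_, ?_⟩
    · rw [mem_filter]
      exact ⟨mem_image.2 ⟨y, hy.1, rfl⟩, hy.2.1⟩
    · simp only [ix]; ring
  exact_mod_cast (card_le_card this).trans card_image_le

open Classical in
/-- **no container, finite form.** -/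
theorem nc_fin (hSlab : SlabOne) {g : ℝ} (hg : 0 < g) {η₁ : ℝ} (hη₁ : 0 < η₁) :
    ∃ η ε₀ : ℝ, ∃ M₀ : ℕ, 0 < η ∧ η ≤ η₁ ∧ η ≤ 1 / 2 ∧ 0 < ε₀ ∧
    ∀ (F : Finset (ℕ × ℝ)) (γ v : ℕ → ℝ → Fin 3 → ℝ) (i M k : ℕ) (J0 : ℤ) (n₀ : ℝ),
      F.Nonempty → M₀ ≤ M → η / 2 * M ≤ k → (k : ℝ) ≤ η * M →
      (∀ x ∈ F, zc i x.2 = J0) →
      (∀ x ∈ F, C11 γ v x.1 ∧ ∀ z : ℝ, |z| ≤ 1 → ∀ a, |γ x.1 z a| ≤ 1) →
      (∀ x ∈ F, (2 : ℝ) ^ ((M : ℝ) - ε₀ * M) ≤ ((own F i (i + M + 1) x).card : ℝ)) →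
      (∀ x ∈ F, (2 : ℝ) ^ ((k : ℝ) - ε₀ * M) ≤
        ((own F (i + M + 1 - k) (i + M + 1) x).card : ℝ)) →
      (∀ x ∈ F, (2 : ℝ) ^ (n₀ - 3 * M + g * M - ε₀ * M) ≤
        (((alive F (i + M + 1) (zc (i + M + 1) x.2)).filter fun t =>
          ∀ a, |γ t (uh M J0 (zc (i + M + 1) x.2)) a - γ x.1 (uh M J0 (zc (i + M + 1) x.2)) a| ≤
            1 / 2 ^ M).card : ℝ)) →
      (∀ x ∈ F, ∀ J1 : ℤ, |J1 - zc (i + M + 1 - k) x.2| ≤ 1 →
        ∀ n : Fin 3 → ℝ, ∑ i, n i ^ 2 = 1 → ∀ E : Fin 2 → Fin 3 → ℝ,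
        (∀ a b, ∑ i, E a i * E b i = if a = b then 1 else 0) →
        (∀ a, ∑ i, E a i * n i = 0) → ∀ w : Fin 2 → ℝ, (∀ a, 1 / (2 : ℝ) ^ k ≤ w a ∧ w a ≤ 1) →
        (((alive F (i + M + 1 - k) J1).filter fun t =>
          Plk γ v (2 ^ M) (2 ^ k) n E w (x.1, ix M J0 (zc (i + M + 1) x.2)) (t, 0)).card : ℝ) ≤
          (2 : ℝ) ^ (n₀ - 3 * M + g * (M - k) + ε₀ * M) * (w 0 * w 1) * (2 ^ k) ^ 2) →
      ((F.image Prod.fst).card : ℝ) ≤ (2 : ℝ) ^ (n₀ + ε₀ * M) → False := by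
  obtain ⟨η, ε₀, M₀, hη, hηη, hη1, hε, key⟩ := lemmaQ_two hSlab hg hη₁
  obtain ⟨M₁, hM₁⟩ := exists_nat_ge (2 / (ε₀ / 2))
  refine ⟨η, ε₀ / 2, max M₀ M₁, hη, hηη, hη1, by positivity, ?_⟩
  intro F γ v i M k J0 n₀ hF hM hk1 hk2 hJ hcur hown hwin hrich hplank hL
  have hM0 : M₀ ≤ M := (le_max_left _ _).trans hM
  have hkM : k ≤ M := by
    have : (k : ℝ) ≤ M := by
      have : η * M ≤ 1 * M := by gcongr; linarith
      linarith
    exact_mod_cast this
  have h4 : (4 : ℝ) ≤ 2 ^ (ε₀ / 2 * M) := by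
    have h5 : (2 : ℝ) ≤ ε₀ / 2 * M := by
      have h6 : (M₁ : ℝ) ≤ M := by exact_mod_cast (le_max_right M₀ M₁).trans hM
      rw [div_le_iff₀ (by positivity)] at hM₁
      nlinarith
    calc (4 : ℝ) = 2 ^ (2 : ℝ) := by norm_num
      _ ≤ 2 ^ (ε₀ / 2 * M) := Real.rpow_le_rpow_of_exponent_le (by norm_num) h5
  have hmono : ∀ {a b : ℝ}, a ≤ b → (2 : ℝ) ^ a ≤ 2 ^ b := fun h =>
    Real.rpow_le_rpow_of_exponent_le (by norm_num) h
  have hε0 : 0 ≤ ε₀ * M := by positivity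
  -- membership
  have mem : ∀ y ∈ inc F i M J0, ∃ x ∈ F, x.1 = y.1 ∧ ix M J0 (zc (i + M + 1) x.2) = y.2 := by
    intro y hy
    unfold inc at hy
    rw [mem_image] at hy
    obtain ⟨x, hx, rfl⟩ := hy
    exact ⟨x, hx, rfl, rfl⟩
  refine key (inc F i M J0) γ v M k n₀ (hF.image _) hM0 hk1 hk2 ?_ ?_ ?_ ?_ ?_ ?_
  · intro y hy
    obtain ⟨x, hx, h1, h2⟩ := mem y hy
    have h3 : |((y.2 : ℤ) : ℝ)| ≤ 2 ^ M := by rw [← h2]; exact ix_abs (hJ x hx)
    refine ⟨h3, ?_, ?_⟩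
    · intro a
      unfold pt
      rw [← h1]
      refine (hcur x hx).2 _ ?_ a
      rw [abs_div, abs_of_pos (by positivity : (0:ℝ) < 2 ^ M), div_le_one (by positivity)]
      exact h3
    · rw [← h1]; exact (hcur x hx).1
  · intro y hy
    obtain ⟨x, hx, h1, h2⟩ := mem y hy
    have h3 := (hown x hx).trans (own_le' hJ x)
    rw [h1] at h3
    refine (hmono ?_).trans h3
    linarith
  · intro y hy
    obtain ⟨x, hx, h1, h2⟩ := mem y hy
    have h3 := (hwin x hx).trans (own_le hkM hJ x)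
    rw [h1, h2] at h3
    refine (hmono ?_).trans h3
    linarith
  · intro y hy
    obtain ⟨x, hx, h1, h2⟩ := mem y hy
    refine (hmono ?_).trans ((hrich x hx).trans ?_)
    · linarith
    · have hsub : ((alive F (i + M + 1) (zc (i + M + 1) x.2)).filter fun t =>
          ∀ a, |γ t (uh M J0 (zc (i + M + 1) x.2)) a - γ x.1 (uh M J0 (zc (i + M + 1) x.2)) a| ≤
            1 / 2 ^ M) ⊆ ((inc F i M J0).filter fun y' => y'.2 = y.2 ∧
          ∀ a, |pt γ (2 ^ M) y' a - pt γ (2 ^ M) y a| ≤ 1 / 2 ^ M).image Prod.fst := by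
        intro t ht
        rw [mem_filter] at ht
        obtain ⟨ht1, ht2⟩ := ht
        unfold alive at ht1
        rw [mem_image] at ht1
        obtain ⟨x', hx', rfl⟩ := ht1
        rw [mem_filter] at hx'
        rw [mem_image]
        refine ⟨(x'.1, ix M J0 (zc (i + M + 1) x'.2)), ?_, rfl⟩
        rw [mem_filter]
        refine ⟨mem_image.2 ⟨x', hx'.1, rfl⟩, ?_, ?_⟩
        · change ix M J0 (zc (i + M + 1) x'.2) = y.2
          rw [hx'.2, h2]
        · intro a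
          have := ht2 a
          unfold pt
          change |γ x'.1 ((ix M J0 (zc (i + M + 1) x'.2) : ℝ) / 2 ^ M) a -
            γ y.1 ((y.2 : ℝ) / 2 ^ M) a| ≤ 1 / 2 ^ M
          rw [hx'.2, ← h1, ← h2]
          exact this
      exact_mod_cast (card_le_card hsub).trans card_image_le
  · intro y hy n hn E hE hEn w hw
    obtain ⟨x, hx, h1, h2⟩ := mem y hy
    have hy' : y = (x.1, ix M J0 (zc (i + M + 1) x.2)) := by
      rw [h1, h2]
    set c := zc (i + M + 1 - k) x.2 with hc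
    have hsub : (((inc F i M J0).filter fun y' => |(y'.2 : ℝ) - y.2| ≤ 2 ^ k ∧
        Plk γ v (2 ^ M) (2 ^ k) n E w y y').image Prod.fst) ⊆
        (({c - 1, c, c + 1} : Finset ℤ).biUnion fun J1 =>
          (alive F (i + M + 1 - k) J1).filter fun t =>
          Plk γ v (2 ^ M) (2 ^ k) n E w (x.1, ix M J0 (zc (i + M + 1) x.2)) (t, 0)) := by
      intro t ht
      rw [mem_image] at ht
      obtain ⟨y', hy'1, rfl⟩ := ht
      rw [mem_filter] at hy'1
      obtain ⟨m1, m2, m3⟩ := hy'1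
      obtain ⟨x', hx', h1', h2'⟩ := mem y' m1
      rw [← h2', ← h2] at m2
      have m4 := ix_near hkM J0 _ _ m2
      rw [mem_biUnion]
      refine ⟨zc (i + M + 1 - k) x'.2, ?_, ?_⟩
      · rw [abs_le] at m4
        simp only [mem_insert, mem_singleton]
        rw [hc]
        omega
      · rw [mem_filter]
        refine ⟨?_, ?_⟩
        · unfold alive
          rw [mem_image]
          exact ⟨x', mem_filter.2 ⟨hx', rfl⟩, h1'⟩
        · rw [← hy']
          exact m3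
    have hb : ∀ J1 ∈ ({c - 1, c, c + 1} : Finset ℤ),
        (((alive F (i + M + 1 - k) J1).filter fun t =>
          Plk γ v (2 ^ M) (2 ^ k) n E w (x.1, ix M J0 (zc (i + M + 1) x.2)) (t, 0)).card : ℝ) ≤
          (2 : ℝ) ^ (n₀ - 3 * M + g * (M - k) + ε₀ / 2 * M) * (w 0 * w 1) * (2 ^ k) ^ 2 := by
      intro J1 hJ1
      refine hplank x hx J1 ?_ n hn E hE hEn w hw
      simp only [mem_insert, mem_singleton] at hJ1
      rw [abs_le]
      rw [hc] at hJ1
      omega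
    have hcard : ((({c - 1, c, c + 1} : Finset ℤ).biUnion fun J1 =>
          (alive F (i + M + 1 - k) J1).filter fun t =>
          Plk γ v (2 ^ M) (2 ^ k) n E w (x.1, ix M J0 (zc (i + M + 1) x.2)) (t, 0)).card : ℝ) ≤
        3 * ((2 : ℝ) ^ (n₀ - 3 * M + g * (M - k) + ε₀ / 2 * M) * (w 0 * w 1) * (2 ^ k) ^ 2) := by
      have c1 : ((({c - 1, c, c + 1} : Finset ℤ).biUnion fun J1 =>
          (alive F (i + M + 1 - k) J1).filter fun t =>
          Plk γ v (2 ^ M) (2 ^ k) n E w (x.1, ix M J0 (zc (i + M + 1) x.2)) (t, 0)).card : ℝ) ≤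
          ∑ J1 ∈ ({c - 1, c, c + 1} : Finset ℤ), (((alive F (i + M + 1 - k) J1).filter fun t =>
          Plk γ v (2 ^ M) (2 ^ k) n E w (x.1, ix M J0 (zc (i + M + 1) x.2)) (t, 0)).card : ℝ) := by
        exact_mod_cast card_biUnion_le
      refine c1.trans ((sum_le_sum hb).trans ?_)
      rw [sum_const, nsmul_eq_mul]
      refine mul_le_mul_of_nonneg_right ?_ ?_
      · have : ({c - 1, c, c + 1} : Finset ℤ).card ≤ 3 := card_le_three
        exact_mod_cast this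
      · have := (hw 0).1
        have := (hw 1).1
        have e0 : (0:ℝ) ≤ 1 / 2 ^ k := by positivity
        have : 0 ≤ w 0 := e0.trans (hw 0).1
        have : 0 ≤ w 1 := e0.trans (hw 1).1
        positivity
    have hsub' := card_le_card hsub
    refine (Nat.cast_le.2 hsub').trans (hcard.trans ?_)
    have e0 : (0:ℝ) ≤ 1 / 2 ^ k := by positivity
    have w0 : 0 ≤ w 0 := e0.trans (hw 0).1
    have w1 : 0 ≤ w 1 := e0.trans (hw 1).1
    have e1 : (2 : ℝ) ^ (n₀ - 3 * M + g * (M - k) + ε₀ * M) =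
        2 ^ (ε₀ / 2 * M) * 2 ^ (n₀ - 3 * M + g * (M - k) + ε₀ / 2 * M) := by
      rw [← Real.rpow_add (by norm_num)]; congr 1; ring
    rw [e1]
    have e2 : (0:ℝ) ≤ 2 ^ (n₀ - 3 * M + g * (M - k) + ε₀ / 2 * M) * (w 0 * w 1) * (2 ^ k) ^ 2 := by
      positivity
    nlinarith
  · refine le_trans ?_ (hL.trans (hmono ?_))
    · have : (inc F i M J0).image Prod.fst ⊆ F.image Prod.fst := by
        intro t ht
        rw [mem_image] at ht
        obtain ⟨y, hy, rfl⟩ := ht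
        obtain ⟨x, hx, h1, -⟩ := mem y hy
        exact mem_image.2 ⟨x, hx, h1⟩
      exact_mod_cast card_le_card this
    · linarith

end Crest.Agent.R136.HR829
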