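import Crest.Agent.R136.Sh4_605
import Crest.Agent.R136.Sh6_605
import Crest.Agent.R136.LmQ3_861

/-!
# R136 (helper829): D-max in the normalised space of a FLAT plank (no thinness)

A box of the normalised space of an orthonormal plank lies in one sorted orthonormal plank of
comparable volume (pivoted Gram-Schmidt), so D-max for the class `ShN` bounds the number of lines.
-/

set_option autoImplicit false
set_option linter.unusedVariables false
set_option linter.unusedSectionVars false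

namespace Crest.Agent.R136.HR829

open Finset
open Crest.Agent.R136.Sh605

/-- cross product -/
def crs (x y : V3) : V3 := ![x 1 * y 2 - x 2 * y 1, x 2 * y 0 - x 0 * y 2, x 0 * y 1 - x 1 * y 0]

theorem dt_nonneg (x : V3) : 0 ≤ dt x x := by
  unfold dt
  have := mul_self_nonneg (x 0)
  have := mul_self_nonneg (x 1)
  have := mul_self_nonneg (x 2)
  linarith

theorem cs (x y : V3) : (dt x y) ^ 2 ≤ dt x x * dt y y := by
  unfold dt
  nlinarith [sq_nonneg (x 0 * y 1 - x 1 * y 0), sq_nonneg (x 1 * y 2 - x 2 * y 1),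
    sq_nonneg (x 2 * y 0 - x 0 * y 2)]

theorem cs1 {x y : V3} (hx : dt x x = 1) : (dt x y) ^ 2 ≤ dt y y := by
  have := cs x y
  rwa [hx, one_mul] at this

theorem parseval {f : Fin 3 → V3} (hf : Ortho f) (u : V3) :
    dt u u = (dt (f 0) u) ^ 2 + (dt (f 1) u) ^ 2 + (dt (f 2) u) ^ 2 := by
  have h0 := hf.expand u 0
  have h1 := hf.expand u 1
  have h2 := hf.expand u 2
  have h00 := hf 0 0
  have h11 := hf 1 1
  have h22 := hf 2 2
  have h01 := hf 0 1
  have h02 := hf 0 2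
  have h12 := hf 1 2
  simp only [dt, if_true, Fin.reduceEq, if_false] at h00 h11 h22 h01 h02 h12
  set a := dt (f 0) u
  set b := dt (f 1) u
  set c := dt (f 2) u
  change u 0 * u 0 + u 1 * u 1 + u 2 * u 2 = _
  rw [h0, h1, h2]
  linear_combination a ^ 2 * h00 + b ^ 2 * h11 + c ^ 2 * h22 + 2 * a * b * h01 + 2 * a * c * h02 +
    2 * b * c * h12

theorem ortho3 {f1 f2 : V3} (h1 : dt f1 f1 = 1) (h2 : dt f2 f2 = 1) (h12 : dt f1 f2 = 0) :
    Ortho ![crs f1 f2, f1, f2] := by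
  have e : dt (crs f1 f2) (crs f1 f2) = dt f1 f1 * dt f2 f2 - (dt f1 f2) ^ 2 := by
    simp only [dt, crs, Matrix.cons_val_zero, Matrix.cons_val_one, Matrix.cons_val]; ring
  rw [h1, h2, h12] at e
  have e1 : dt (crs f1 f2) f1 = 0 := by
    simp only [dt, crs, Matrix.cons_val_zero, Matrix.cons_val_one, Matrix.cons_val]; ring
  have e2 : dt (crs f1 f2) f2 = 0 := by
    simp only [dt, crs, Matrix.cons_val_zero, Matrix.cons_val_one, Matrix.cons_val]; ring
  have h21 : dt f2 f1 = 0 := by rw [dt_comm]; exact h12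
  have e1' : dt f1 (crs f1 f2) = 0 := by rw [dt_comm]; exact e1
  have e2' : dt f2 (crs f1 f2) = 0 := by rw [dt_comm]; exact e2
  intro i j
  fin_cases i <;> fin_cases j <;> simp [e, e1, e2, e1', e2', h1, h2, h12, h21]

/-- **pivoted Gram-Schmidt** -/
theorem gs {x y z : V3} (hyx : dt y y ≤ dt x x) (hzx : dt z z ≤ dt x x)
    (hzy : dt z z * dt x x - (dt x z) ^ 2 ≤ dt y y * dt x x - (dt x y) ^ 2)
    (hdet : dt (crs x y) z ≠ 0) :
    ∃ (f : Fin 3 → V3) (nx ny ν0 μ ν1 ν2 : ℝ), Ortho f ∧ 0 < nx ∧ 0 < ny ∧ ν0 ≠ 0 ∧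
      x = nx • f 1 ∧ y = μ • f 1 + ny • f 2 ∧ z = ν1 • f 1 + ν2 • f 2 + ν0 • f 0 ∧
      |μ| ≤ nx ∧ |ν1| ≤ nx ∧ |ν2| ≤ ny ∧ |ν0| ≤ ny ∧ ny ≤ nx ∧
      nx * ny * |ν0| = |dt (crs x y) z| := by
  have hxx : 0 < dt x x := by
    rcases (dt_nonneg x).lt_or_eq with h | h
    · exact h
    · exfalso
      have h0 : x 0 = 0 ∧ x 1 = 0 ∧ x 2 = 0 := by
        unfold dt at h
        refine ⟨?_, ?_, ?_⟩ <;> nlinarith [sq_nonneg (x 0), sq_nonneg (x 1), sq_nonneg (x 2)]
      apply hdet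
      simp [dt, crs, h0.1, h0.2.1, h0.2.2]
  set nx := Real.sqrt (dt x x) with hnx
  have nx0 : 0 < nx := Real.sqrt_pos.2 hxx
  have nx2 : nx ^ 2 = dt x x := Real.sq_sqrt hxx.le
  set f1 : V3 := nx⁻¹ • x with hf1
  have hx : x = nx • f1 := by
    rw [hf1, smul_smul, mul_inv_cancel₀ nx0.ne', one_smul]
  have f11 : dt f1 f1 = 1 := by
    rw [hf1, dt_smul, smul_dt, ← nx2]; field_simp
  set μ := dt f1 y with hμ
  set y1 : V3 := y - μ • f1 with hy1
  have d1 : dt f1 y1 = 0 := by rw [hy1, dt_sub, dt_smul, f11]; ring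
  have dxy : dt x y = nx * μ := by rw [hx, smul_dt]
  have dy1 : dt y1 y1 = dt y y - μ ^ 2 := by
    have : dt y1 y1 = dt y y - 2 * μ * dt f1 y + μ ^ 2 * dt f1 f1 := by
      rw [hy1]; simp only [dt, Pi.sub_apply, Pi.smul_apply, smul_eq_mul]; ring
    rw [this, f11, ← hμ]; ring
  have hdet2 : dt (crs x y) z = nx * dt (crs f1 y1) z := by
    have : crs x y = nx • crs f1 y1 := by
      rw [hx, hy1]
      funext i
      fin_cases i <;> simp [crs] <;> ring
    rw [this, smul_dt]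
  have hy1y1 : 0 < dt y1 y1 := by
    rcases (dt_nonneg y1).lt_or_eq with h | h
    · exact h
    · exfalso
      have h0 : y1 0 = 0 ∧ y1 1 = 0 ∧ y1 2 = 0 := by
        unfold dt at h
        refine ⟨?_, ?_, ?_⟩ <;> nlinarith [sq_nonneg (y1 0), sq_nonneg (y1 1), sq_nonneg (y1 2)]
      apply hdet
      rw [hdet2]
      simp [dt, crs, h0.1, h0.2.1, h0.2.2]
  set ny := Real.sqrt (dt y1 y1) with hny
  have ny0 : 0 < ny := Real.sqrt_pos.2 hy1y1
  have ny2 : ny ^ 2 = dt y1 y1 := Real.sq_sqrt hy1y1.le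
  set f2 : V3 := ny⁻¹ • y1 with hf2
  have hy1' : y1 = ny • f2 := by
    rw [hf2, smul_smul, mul_inv_cancel₀ ny0.ne', one_smul]
  have f22 : dt f2 f2 = 1 := by
    rw [hf2, dt_smul, smul_dt, ← ny2]; field_simp
  have f12 : dt f1 f2 = 0 := by rw [hf2, dt_smul, d1, mul_zero]
  have hO := ortho3 f11 f22 f12
  set f : Fin 3 → V3 := ![crs f1 f2, f1, f2] with hf
  have hz := parseval hO z
  change dt z z = (dt (crs f1 f2) z) ^ 2 + (dt f1 z) ^ 2 + (dt f2 z) ^ 2 at hz
  set ν0 := dt (crs f1 f2) z with hν0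
  set ν1 := dt f1 z with hν1
  set ν2 := dt f2 z with hν2
  have hdet3 : dt (crs x y) z = nx * ny * ν0 := by
    rw [hdet2]
    have : crs f1 y1 = ny • crs f1 f2 := by
      rw [hy1']
      funext i
      fin_cases i <;> simp [crs] <;> ring
    rw [this, smul_dt, ← hν0]; ring
  have hν : ν0 ^ 2 + ν2 ^ 2 ≤ ny ^ 2 := by
    have dxz : dt x z = nx * ν1 := by rw [hx, smul_dt]
    rw [dxz, dxy, ← nx2] at hzy
    have h3 : (dt z z - ν1 ^ 2) * nx ^ 2 ≤ (dt y y - μ ^ 2) * nx ^ 2 := by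
      have e1 : dt z z * nx ^ 2 - (nx * ν1) ^ 2 = (dt z z - ν1 ^ 2) * nx ^ 2 := by ring
      have e2 : dt y y * nx ^ 2 - (nx * μ) ^ 2 = (dt y y - μ ^ 2) * nx ^ 2 := by ring
      rw [e1, e2] at hzy
      exact hzy
    have h4 : dt z z - ν1 ^ 2 ≤ dt y y - μ ^ 2 := le_of_mul_le_mul_right h3 (by positivity)
    rw [ny2, dy1]
    linarith
  refine ⟨f, nx, ny, ν0, μ, ν1, ν2, hO, nx0, ny0, ?_, hx, ?_, ?_, ?_, ?_, ?_, ?_, ?_, ?_⟩
  · intro h
    apply hdet
    rw [hdet3, h, mul_zero]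
  · change y = μ • f1 + ny • f2
    rw [← hy1', hy1]; abel
  · funext i
    have := hO.expand z i
    change z i = ν0 * crs f1 f2 i + ν1 * f1 i + ν2 * f2 i at this
    change z i = ν1 * f1 i + ν2 * f2 i + ν0 * crs f1 f2 i
    rw [this]; ring
  · refine abs_le_of_sq_le_sq ?_ nx0.le
    have := cs1 (y := y) f11
    rw [nx2]; exact this.trans hyx
  · refine abs_le_of_sq_le_sq ?_ nx0.le
    have := cs1 (y := z) f11
    rw [nx2]; exact this.trans hzx
  · have := sq_nonneg ν0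
    exact abs_le_of_sq_le_sq (by linarith) ny0.le
  · have := sq_nonneg ν2
    exact abs_le_of_sq_le_sq (by linarith) ny0.le
  · have h5 := sq_nonneg μ
    exact (le_abs_self _).trans (abs_le_of_sq_le_sq (by rw [ny2, nx2, dy1]; linarith) nx0.le)
  · rw [hdet3, abs_mul, abs_mul, abs_of_pos nx0, abs_of_pos ny0]

/-- order of the edges -/
theorem exists_order (c : Fin 3 → V3) : ∃ i j k : Fin 3, i ≠ j ∧ i ≠ k ∧ j ≠ k ∧
    dt (c j) (c j) ≤ dt (c i) (c i) ∧ dt (c k) (c k) ≤ dt (c i) (c i) ∧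
    dt (c k) (c k) * dt (c i) (c i) - (dt (c i) (c k)) ^ 2 ≤
      dt (c j) (c j) * dt (c i) (c i) - (dt (c i) (c j)) ^ 2 ∧
    |dt (crs (c i) (c j)) (c k)| = |dt (crs (c 0) (c 1)) (c 2)| := by
  have key : ∀ i j k : Fin 3, i ≠ j → i ≠ k → j ≠ k →
      |dt (crs (c i) (c j)) (c k)| = |dt (crs (c 0) (c 1)) (c 2)| := by
    intro i j k h1 h2 h3
    rw [abs_eq_abs]
    fin_cases i <;> fin_cases j <;> fin_cases k <;> first
      | exact absurd rfl h1
      | exact absurd rfl h2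
      | exact absurd rfl h3
      | (left; rfl)
      | (left; simp only [dt, crs, Fin.zero_eta, Fin.mk_one, Fin.reduceFinMk,
          Matrix.cons_val_zero, Matrix.cons_val_one, Matrix.cons_val]; ring1)
      | (right; simp only [dt, crs, Fin.zero_eta, Fin.mk_one, Fin.reduceFinMk,
          Matrix.cons_val_zero, Matrix.cons_val_one, Matrix.cons_val]; ring1)
  obtain ⟨i, hi⟩ := Finite.exists_max fun i => dt (c i) (c i)
  have hjk : ∃ j k : Fin 3, i ≠ j ∧ i ≠ k ∧ j ≠ k := by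
    fin_cases i
    · exact ⟨1, 2, by decide, by decide, by decide⟩
    · exact ⟨0, 2, by decide, by decide, by decide⟩
    · exact ⟨0, 1, by decide, by decide, by decide⟩
  obtain ⟨j, k, h1, h2, h3⟩ := hjk
  rcases le_total (dt (c k) (c k) * dt (c i) (c i) - (dt (c i) (c k)) ^ 2)
      (dt (c j) (c j) * dt (c i) (c i) - (dt (c i) (c j)) ^ 2) with h | h
  · exact ⟨i, j, k, h1, h2, h3, hi j, hi k, h, key _ _ _ h1 h2 h3⟩
  · exact ⟨i, k, j, h2, h1, h3.symm, hi k, hi j, h, key _ _ _ h2 h1 h3.symm⟩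

/-- **a parallelepiped lies in one sorted orthonormal box of comparable volume** -/
theorem cover3 {e : Fin 3 → V3} (he : Ortho e) {W : V3} (hW0 : 0 < W 0) (hW02 : W 0 ≤ W 2)
    (hW21 : W 2 ≤ W 1) (c : Fin 3 → V3) (hdet : dt (crs (c 0) (c 1)) (c 2) ≠ 0) {S : ℝ}
    (hS0 : 0 < S) (hS : ∀ i j, |dt (e i) (c j)| ≤ S * W i) :
    ∃ (f : Fin 3 → V3) (α β1 β2 : ℝ), Ortho f ∧ 0 < α ∧ α ≤ β2 ∧ β2 ≤ β1 ∧
      (∀ t : Fin 3 → ℝ, (∀ i, |t i| ≤ 1) →
        |dt (f 0) (t 0 • c 0 + t 1 • c 1 + t 2 • c 2)| ≤ α ∧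
        |dt (f 1) (t 0 • c 0 + t 1 • c 1 + t 2 • c 2)| ≤ β1 ∧
        |dt (f 2) (t 0 • c 0 + t 1 • c 1 + t 2 • c 2)| ≤ β2) ∧
      α * β2 * β1 = 6 * |dt (crs (c 0) (c 1)) (c 2)| ∧
      α ≤ 8 * S * W 0 ∧ β2 ≤ 10 * S * W 2 ∧ β1 ≤ 6 * S * W 1 := by
  obtain ⟨i, j, k, hij, hik, hjk, o1, o2, o3, hd⟩ := exists_order c
  have hd0 : dt (crs (c i) (c j)) (c k) ≠ 0 := by
    rw [← abs_pos, hd, abs_pos]; exact hdet
  obtain ⟨f, nx, ny, ν0, μ, ν1, ν2, hf, nx0, ny0, hν0, hx, hy, hz, hμ, h1, h2, h0, hyx, hvol⟩ :=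
    gs o1 o2 o3 hd0
  have hW1 : 0 < W 1 := by linarith
  have hW2 : 0 < W 2 := by linarith
  have f00 : dt (f 0) (f 0) = 1 := by simpa using hf 0 0
  have f11 : dt (f 1) (f 1) = 1 := by simpa using hf 1 1
  have f22 : dt (f 2) (f 2) = 1 := by simpa using hf 2 2
  have f01 : dt (f 0) (f 1) = 0 := by simpa using hf 0 1
  have f02 : dt (f 0) (f 2) = 0 := by simpa using hf 0 2
  have f10 : dt (f 1) (f 0) = 0 := by simpa using hf 1 0
  have f12 : dt (f 1) (f 2) = 0 := by simpa using hf 1 2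
  have f20 : dt (f 2) (f 0) = 0 := by simpa using hf 2 0
  have f21 : dt (f 2) (f 1) = 0 := by simpa using hf 2 1
  -- components of the edges
  have cx : ∀ u : V3, dt u (c i) = nx * dt u (f 1) := fun u => by rw [hx, dt_smul]
  have cy : ∀ u : V3, dt u (c j) = μ * dt u (f 1) + ny * dt u (f 2) := fun u => by
    rw [hy, dt_add, dt_smul, dt_smul]
  have cz : ∀ u : V3, dt u (c k) = ν1 * dt u (f 1) + ν2 * dt u (f 2) + ν0 * dt u (f 0) :=
    fun u => by rw [hz, dt_add, dt_add, dt_smul, dt_smul, dt_smul]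
  have hν : 0 < |ν0| := abs_pos.2 hν0
  -- the sum
  have hsum : ∀ (t : Fin 3 → ℝ) (u : V3), dt u (t 0 • c 0 + t 1 • c 1 + t 2 • c 2) =
      t i * dt u (c i) + t j * dt u (c j) + t k * dt u (c k) := by
    intro t u
    rw [dt_add, dt_add, dt_smul, dt_smul, dt_smul]
    clear hd hd0 hvol o1 o2 o3 cx cy cz hx hy hz
    fin_cases i <;> fin_cases j <;> fin_cases k <;> first
      | exact absurd rfl hij
      | exact absurd rfl hik
      | exact absurd rfl hjk
      | rfl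
      | (simp only [Fin.zero_eta, Fin.mk_one, Fin.reduceFinMk]; ring1)
  -- `β2`
  set h := S * W 2 with hh
  have hh0 : 0 < h := by positivity
  have hSW0 : S * W 0 ≤ h := by rw [hh]; gcongr
  have hnx2 : dt (c i) (c i) = nx ^ 2 := by
    rw [cx, dt_comm (c i) (f 1), cx, f11]; ring
  have hny5 : ny ≤ 5 * h := by
    have px := parseval he (c i)
    have py := parseval he (c j)
    have b0x := abs_le.1 ((hS 0 i).trans hSW0)
    have b2x := abs_le.1 (hS 2 i)
    have b0y := (hS 0 j).trans hSW0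
    have b2y := hS 2 j
    have q0 : (dt (e 0) (c i)) ^ 2 ≤ h ^ 2 := sq_le_sq' (by linarith [b0x.1]) b0x.2
    have q2 : (dt (e 2) (c i)) ^ 2 ≤ h ^ 2 := sq_le_sq' (by linarith [b2x.1]) b2x.2
    set X := dt (e 1) (c i) with hX
    set Y := dt (e 1) (c j) with hY
    by_cases hc : X ^ 2 ≤ nx ^ 2 / 2
    · rw [hnx2] at px
      have e1 : (2 * h) ^ 2 = 4 * h ^ 2 := by ring
      have : nx ^ 2 ≤ (2 * h) ^ 2 := by rw [e1]; linarith
      have h3 := abs_le_of_sq_le_sq this (by positivity)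
      have h4 := le_abs_self nx
      linarith
    · push Not at hc
      have hY2 : Y ^ 2 ≤ 2 * X ^ 2 := by
        have : Y ^ 2 ≤ dt (c j) (c j) := by
          have s1 := sq_nonneg (dt (e 0) (c j))
          have s2 := sq_nonneg (dt (e 2) (c j))
          linarith
        rw [hnx2] at o1
        linarith
      have hX2 : 0 < X ^ 2 := lt_of_le_of_lt (by positivity) hc
      have hX0 : 0 < |X| := abs_pos.2 ((pow_ne_zero_iff two_ne_zero).1 hX2.ne')
      have hYX : |Y| ≤ 2 * |X| := by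
        refine abs_le_of_sq_le_sq ?_ (by positivity)
        rw [mul_pow, sq_abs]
        linarith
      set v : V3 := Y • c i - X • c j with hv
      have v1 : dt (e 1) v = 0 := by rw [hv, dt_sub, dt_smul, dt_smul, ← hX, ← hY]; ring
      have vb : ∀ l : Fin 3, |dt (e l) (c i)| ≤ h → |dt (e l) (c j)| ≤ h →
          (dt (e l) v) ^ 2 ≤ (3 * (h * |X|)) ^ 2 := by
        intro l g1 g2
        have : |dt (e l) v| ≤ 3 * (h * |X|) := by
          rw [hv, dt_sub, dt_smul, dt_smul]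
          refine (abs_sub _ _).trans ?_
          rw [abs_mul, abs_mul]
          have g3 : |Y| * |dt (e l) (c i)| ≤ 2 * |X| * h :=
            mul_le_mul hYX g1 (abs_nonneg _) (by positivity)
          have g4 : |X| * |dt (e l) (c j)| ≤ |X| * h :=
            mul_le_mul_of_nonneg_left g2 (abs_nonneg _)
          linarith
        rw [← sq_abs]
        exact pow_le_pow_left₀ (abs_nonneg _) this 2
      have pv := parseval he v
      have w0 := vb 0 ((hS 0 i).trans hSW0) b0y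
      have w2 := vb 2 (hS 2 i) b2y
      have fv : dt (f 2) v = -(X * ny) := by
        rw [hv, dt_sub, dt_smul, dt_smul, cx, cy, f21, f22]; ring
      have h6 := cs1 (y := v) f22
      rw [fv, pv, v1] at h6
      have h7 : (|X| * ny) ^ 2 ≤ (|X| * (5 * h)) ^ 2 := by
        have e1 : (|X| * ny) ^ 2 = (-(X * ny)) ^ 2 := by rw [mul_pow, sq_abs]; ring
        have e2 : (|X| * (5 * h)) ^ 2 = 25 * (h * |X|) ^ 2 := by ring
        have e3 : (3 * (h * |X|)) ^ 2 = 9 * (h * |X|) ^ 2 := by ring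
        have e4 := sq_nonneg (h * |X|)
        rw [e3] at w0 w2
        rw [e1, e2]
        linarith
      have h8 := abs_le_of_sq_le_sq h7 (by positivity)
      rw [abs_mul, abs_abs, abs_of_pos ny0] at h8
      exact le_of_mul_le_mul_left h8 hX0
  -- `β1`
  have hnx3 : nx ≤ 2 * (S * W 1) := by
    have px := parseval he (c i)
    rw [hnx2] at px
    have g : ∀ l : Fin 3, W l ≤ W 1 → 0 < W l → (dt (e l) (c i)) ^ 2 ≤ (S * W 1) ^ 2 := by
      intro l hl hl0
      rw [← sq_abs]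
      refine pow_le_pow_left₀ (abs_nonneg _) ((hS l i).trans ?_) 2
      gcongr
    have g0 := g 0 (by linarith) hW0
    have g1 := g 1 le_rfl hW1
    have g2 := g 2 hW21 hW2
    have e1 : (2 * (S * W 1)) ^ 2 = 4 * (S * W 1) ^ 2 := by ring
    have e2 := sq_nonneg (S * W 1)
    have : nx ^ 2 ≤ (2 * (S * W 1)) ^ 2 := by rw [e1]; linarith
    have h3 := abs_le_of_sq_le_sq this (by positivity)
    exact (le_abs_self nx).trans h3
  -- `α`
  have hα : |ν0| ≤ 8 * (S * W 0) := by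
    set H := S * W 0 with hH
    have hH0 : 0 < H := by positivity
    have b1 := hS 0 i
    have b2 := hS 0 j
    have b3 := hS 0 k
    rw [cx] at b1
    rw [cy] at b2
    rw [cz] at b3
    have e00 : dt (e 0) (e 0) = 1 := by simpa using he 0 0
    have pf := parseval hf (e 0)
    rw [e00, dt_comm (f 0), dt_comm (f 1), dt_comm (f 2)] at pf
    set p0 := dt (e 0) (f 0)
    set p1 := dt (e 0) (f 1)
    set p2 := dt (e 0) (f 2)
    have c1 : nx * |p1| ≤ H := by rwa [abs_mul, abs_of_pos nx0] at b1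
    have c2 : ny * |p2| ≤ 2 * H := by
      have g1 : |μ * p1| ≤ H := by
        rw [abs_mul]
        exact (mul_le_mul_of_nonneg_right hμ (abs_nonneg _)).trans c1
      have g2 : |ny * p2| ≤ |μ * p1 + ny * p2| + |μ * p1| := by
        have : ny * p2 = (μ * p1 + ny * p2) - μ * p1 := by ring
        nth_rewrite 1 [this]
        exact abs_sub _ _
      rw [abs_mul, abs_of_pos ny0] at g2
      linarith
    have c3 : |ν0| * |p0| ≤ 4 * H := by
      have g1 : |ν1 * p1| ≤ H := by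
        rw [abs_mul]
        exact (mul_le_mul_of_nonneg_right h1 (abs_nonneg _)).trans c1
      have g2 : |ν2 * p2| ≤ 2 * H := by
        rw [abs_mul]
        exact (mul_le_mul_of_nonneg_right h2 (abs_nonneg _)).trans c2
      have g3 : |ν0 * p0| ≤ |ν1 * p1 + ν2 * p2 + ν0 * p0| + |ν1 * p1 + ν2 * p2| := by
        have : ν0 * p0 = (ν1 * p1 + ν2 * p2 + ν0 * p0) - (ν1 * p1 + ν2 * p2) := by ring
        nth_rewrite 1 [this]
        exact abs_sub _ _
      have g4 := abs_add_le (ν1 * p1) (ν2 * p2)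
      rw [abs_mul ν0] at g3
      linarith
    have hbig : 1 / 2 ≤ |p0| ∨ 1 / 2 ≤ |p1| ∨ 1 / 2 ≤ |p2| := by
      by_contra hcon
      push Not at hcon
      obtain ⟨g0, g1, g2⟩ := hcon
      have s0 : p0 ^ 2 < (1 / 2) ^ 2 := by rw [← sq_abs]; exact pow_lt_pow_left₀ g0 (abs_nonneg _) (by norm_num)
      have s1 : p1 ^ 2 < (1 / 2) ^ 2 := by rw [← sq_abs]; exact pow_lt_pow_left₀ g1 (abs_nonneg _) (by norm_num)
      have s2 : p2 ^ 2 < (1 / 2) ^ 2 := by rw [← sq_abs]; exact pow_lt_pow_left₀ g2 (abs_nonneg _) (by norm_num)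
      norm_num at s0 s1 s2
      linarith
    rcases hbig with g | g | g
    · have : |ν0| * (1 / 2) ≤ |ν0| * |p0| := mul_le_mul_of_nonneg_left g (abs_nonneg _)
      linarith
    · have : nx * (1 / 2) ≤ nx * |p1| := mul_le_mul_of_nonneg_left g nx0.le
      linarith
    · have : ny * (1 / 2) ≤ ny * |p2| := mul_le_mul_of_nonneg_left g ny0.le
      linarith
  refine ⟨f, |ν0|, 3 * nx, 2 * ny, hf, hν, by linarith, by linarith, ?_, ?_, by linarith,
    by linarith, by linarith⟩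
  · intro t ht
    have ti := ht i
    have tj := ht j
    have tk := ht k
    refine ⟨?_, ?_, ?_⟩
    · rw [hsum, cx, cy, cz, f00, f01, f02]
      have : t i * (nx * 0) + t j * (μ * 0 + ny * 0) + t k * (ν1 * 0 + ν2 * 0 + ν0 * 1) =
        t k * ν0 := by ring
      rw [this, abs_mul]
      exact mul_le_of_le_one_left (abs_nonneg _) tk
    · rw [hsum, cx, cy, cz, f10, f11, f12]
      have : t i * (nx * 1) + t j * (μ * 1 + ny * 0) + t k * (ν1 * 1 + ν2 * 0 + ν0 * 0) =
        t i * nx + t j * μ + t k * ν1 := by ring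
      rw [this]
      refine (abs_add_three _ _ _).trans ?_
      rw [abs_mul, abs_mul, abs_mul, abs_of_pos nx0]
      have g1 : |t i| * nx ≤ 1 * nx := mul_le_mul_of_nonneg_right ti nx0.le
      have g2 : |t j| * |μ| ≤ 1 * nx := mul_le_mul tj hμ (abs_nonneg _) zero_le_one
      have g3 : |t k| * |ν1| ≤ 1 * nx := mul_le_mul tk h1 (abs_nonneg _) zero_le_one
      linarith
    · rw [hsum, cx, cy, cz, f20, f21, f22]
      have : t i * (nx * 0) + t j * (μ * 0 + ny * 1) + t k * (ν1 * 0 + ν2 * 1 + ν0 * 0) =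
        t j * ny + t k * ν2 := by ring
      rw [this]
      refine (abs_add_le _ _).trans ?_
      rw [abs_mul, abs_mul, abs_of_pos ny0]
      have g2 : |t j| * ny ≤ 1 * ny := mul_le_mul_of_nonneg_right tj ny0.le
      have g3 : |t k| * |ν2| ≤ 1 * ny := mul_le_mul tk h2 (abs_nonneg _) zero_le_one
      linarith
  · rw [← hd, ← hvol]; ring

end Crest.Agent.R136.HR829
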