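import Crest.Agent.R136.HR3_829
import Crest.Agent.R136.Sh5_605

/-!
# R136 (helper829): `dmax_flat`, `dmaxQ_flat` = 605's `dmax_thin`, `dmaxQ` for FLAT planks of the
class `ShN`, without thinness
-/

set_option autoImplicit false
set_option linter.unusedVariables false
set_option linter.unusedSectionVars false

namespace Crest.Agent.R136.HR829

open Finset
open Crest.Agent.R136.Sh605
open Crest.Agent.R136.LmQ861 (Plk)

/-- the affine function of a flat plank -/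
def flatQ (n : V3) (c : Ln4) : ℝ → V3 → ℝ := fun z x => dt n (x - c.pos z)

theorem flatQ_isQ (n : V3) (c : Ln4) : IsQ (flatQ n c) := by
  refine ⟨-(dt n c.p), -(dt n c.v), 0, n, 0, 0, fun z x => ?_⟩
  simp only [flatQ, dt, Ln4.pos, Pi.sub_apply, Fin.sum_univ_three, Pi.zero_apply]
  ring

/-- flat planks are cigars of the class `ShN0` -/
theorem shN0_flat {e : Fin 3 → V3} (he : Ortho e) (c : Ln4) {w : V3} {a r0 : ℝ} (z0 ρ : ℝ)
    (h02 : w 0 = w 2) (ha : a ≤ w 2) (hw : w 2 ≤ w 1) (hr : r0 ≤ a) (hw2 : 0 < w 2) :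
    ShN0 e c w (flatQ (e 0) c) a z0 ρ r0 where
  ortho := he
  isQ := flatQ_isQ _ _
  w0_eq := h02
  a_le := ha
  w_le := hw
  r0_le := hr
  st0 := by
    intro z _ _ x τ hτ _ _
    have h00 : dt (e 0) (e 0) = 1 := by simpa using he 0 0
    have : flatQ (e 0) c z (x + τ • e 0) - flatQ (e 0) c z x = τ := by
      simp only [flatQ, dt_sub, dt_add, dt_smul, h00]; ring
    rw [this]
    constructor <;> linarith
  st1 := by
    intro z _ _ x τ hτ _ _
    have h01 : dt (e 0) (e 1) = 0 := by simpa using he 0 1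
    have : flatQ (e 0) c z (x + τ • e 1) - flatQ (e 0) c z x = 0 := by
      simp only [flatQ, dt_sub, dt_add, dt_smul, h01]; ring
    rw [this, abs_zero]
    have : 0 < w 1 := by linarith
    positivity
  st2 := by
    intro z _ _ x τ hτ _ _
    have h02 : dt (e 0) (e 2) = 0 := by simpa using he 0 2
    have : flatQ (e 0) c z (x + τ • e 2) - flatQ (e 0) c z x = 0 := by
      simp only [flatQ, dt_sub, dt_add, dt_smul, h02]; ring
    rw [this, abs_zero]
    exact hτ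

/-- flat planks are in the class `ShN` -/
theorem shN_flat {e : Fin 3 → V3} (he : Ortho e) (c : Ln4) {w : V3} {a r0 : ℝ} (z0 ρ : ℝ)
    (h02 : w 0 = w 2) (ha : a ≤ w 2) (hw : w 2 ≤ w 1) (hr : r0 ≤ a) (hw2 : 0 < w 2) :
    ShN e c w (flatQ (e 0) c) a z0 ρ r0 := (shN0_flat he c z0 ρ h02 ha hw hr hw2).toN

theorem det_sq {e : Fin 3 → V3} (he : Ortho e) : (dt (crs (e 0) (e 1)) (e 2)) ^ 2 = 1 := by
  have h00 : dt (e 0) (e 0) = 1 := by simpa using he 0 0
  have h11 : dt (e 1) (e 1) = 1 := by simpa using he 1 1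
  have h01 : dt (e 0) (e 1) = 0 := by simpa using he 0 1
  have h1 : dt (crs (e 0) (e 1)) (crs (e 0) (e 1)) =
      dt (e 0) (e 0) * dt (e 1) (e 1) - (dt (e 0) (e 1)) ^ 2 := by
    simp only [dt, crs, Matrix.cons_val_zero, Matrix.cons_val_one, Matrix.cons_val]; ring
  rw [h00, h11, h01] at h1
  have h2 := parseval he (crs (e 0) (e 1))
  have h3 : dt (e 0) (crs (e 0) (e 1)) = 0 := by
    simp only [dt, crs, Matrix.cons_val_zero, Matrix.cons_val_one, Matrix.cons_val]; ring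
  have h4 : dt (e 1) (crs (e 0) (e 1)) = 0 := by
    simp only [dt, crs, Matrix.cons_val_zero, Matrix.cons_val_one, Matrix.cons_val]; ring
  rw [h1, h3, h4, dt_comm (e 2)] at h2
  linarith

theorem det_abs {e : Fin 3 → V3} (he : Ortho e) : |dt (crs (e 0) (e 1)) (e 2)| = 1 := by
  have h := det_sq he
  rw [← sq_abs] at h
  exact (pow_eq_one_iff_of_nonneg (abs_nonneg _) two_ne_zero).1 h

/-- multiplicativity -/
theorem det_comb (e : Fin 3 → V3) (A : Fin 3 → V3) :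
    dt (crs (A 0 0 • e 0 + A 0 1 • e 1 + A 0 2 • e 2) (A 1 0 • e 0 + A 1 1 • e 1 + A 1 2 • e 2))
      (A 2 0 • e 0 + A 2 1 • e 1 + A 2 2 • e 2) =
      dt (crs (A 0) (A 1)) (A 2) * dt (crs (e 0) (e 1)) (e 2) := by
  simp only [dt, crs, Pi.add_apply, Pi.smul_apply, smul_eq_mul, Matrix.cons_val_zero,
    Matrix.cons_val_one, Matrix.cons_val]
  ring

section

variable {e : Fin 3 → V3} {w : V3} {a : ℝ}

/-- widths of the plank -/
def Wd (a : ℝ) (w : V3) : V3 := ![a, w 1, w 2]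

/-- edges of the test box -/
def edg (e : Fin 3 → V3) (a : ℝ) (w : V3) (n : Fin 3 → V3) (s : V3) (j : Fin 3) : V3 :=
  (s j * (n j 0 * a)) • e 0 + (s j * (n j 1 * w 1)) • e 1 + (s j * (n j 2 * w 2)) • e 2

/-- normalised coordinates -/
noncomputable def xi (e : Fin 3 → V3) (a : ℝ) (w : V3) (δ : V3) : V3 :=
  ![dt (e 0) δ / a, dt (e 1) δ / w 1, dt (e 2) δ / w 2]

theorem edg_dt (he : Ortho e) (n : Fin 3 → V3) (s : V3) (i j : Fin 3) :
    dt (e i) (edg e a w n s j) = s j * (n j i * Wd a w i) := by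
  have h00 : dt (e 0) (e 0) = 1 := by simpa using he 0 0
  have h11 : dt (e 1) (e 1) = 1 := by simpa using he 1 1
  have h22 : dt (e 2) (e 2) = 1 := by simpa using he 2 2
  have h01 : dt (e 0) (e 1) = 0 := by simpa using he 0 1
  have h02 : dt (e 0) (e 2) = 0 := by simpa using he 0 2
  have h10 : dt (e 1) (e 0) = 0 := by simpa using he 1 0
  have h12 : dt (e 1) (e 2) = 0 := by simpa using he 1 2
  have h20 : dt (e 2) (e 0) = 0 := by simpa using he 2 0
  have h21 : dt (e 2) (e 1) = 0 := by simpa using he 2 1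
  unfold edg
  simp only [dt_add, dt_smul]
  fin_cases i
  · simp only [Fin.zero_eta, h00, h01, h02]
    simp [Wd]
  · simp only [Fin.mk_one, h10, h11, h12]
    simp [Wd]
  · simp only [Fin.reduceFinMk, h20, h21, h22]
    simp [Wd]

/-- **expansion in the edges** -/
theorem edg_expand (he : Ortho e) {n : Fin 3 → V3} (hn : Ortho n) {s : V3} (hs : ∀ i, 0 < s i)
    (ha : 0 < a) (hw1 : 0 < w 1) (hw2 : 0 < w 2) (δ : V3) :
    (dt (n 0) (xi e a w δ) / s 0) • edg e a w n s 0 + (dt (n 1) (xi e a w δ) / s 1) • edg e a w n s 1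
      + (dt (n 2) (xi e a w δ) / s 2) • edg e a w n s 2 = δ := by
  have s0 := (hs 0).ne'
  have s1 := (hs 1).ne'
  have s2 := (hs 2).ne'
  have x0 := hn.expand (xi e a w δ) 0
  have x1 := hn.expand (xi e a w δ) 1
  have x2 := hn.expand (xi e a w δ) 2
  set T0 := dt (n 0) (xi e a w δ)
  set T1 := dt (n 1) (xi e a w δ)
  set T2 := dt (n 2) (xi e a w δ)
  have y0 : dt (e 0) δ = a * (T0 * n 0 0 + T1 * n 1 0 + T2 * n 2 0) := by
    rw [← x0]
    change dt (e 0) δ = a * (dt (e 0) δ / a)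
    field_simp
  have y1 : dt (e 1) δ = w 1 * (T0 * n 0 1 + T1 * n 1 1 + T2 * n 2 1) := by
    rw [← x1]
    change dt (e 1) δ = w 1 * (dt (e 1) δ / w 1)
    field_simp
  have y2 : dt (e 2) δ = w 2 * (T0 * n 0 2 + T1 * n 1 2 + T2 * n 2 2) := by
    rw [← x2]
    change dt (e 2) δ = w 2 * (dt (e 2) δ / w 2)
    field_simp
  funext j
  rw [he.expand δ j, y0, y1, y2]
  simp only [edg, Pi.add_apply, Pi.smul_apply, smul_eq_mul]
  field_simp
  ring

theorem edg_det (he : Ortho e) {n : Fin 3 → V3} (hn : Ortho n) {s : V3} (hs : ∀ i, 0 < s i)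
    (ha : 0 < a) (hw1 : 0 < w 1) (hw2 : 0 < w 2) :
    |dt (crs (edg e a w n s 0) (edg e a w n s 1)) (edg e a w n s 2)| =
      (s 0 * s 1 * s 2) * (a * w 2 * w 1) := by
  have h := det_comb e (fun j => ![s j * (n j 0 * a), s j * (n j 1 * w 1), s j * (n j 2 * w 2)])
  have h' : dt (crs (edg e a w n s 0) (edg e a w n s 1)) (edg e a w n s 2) =
      ((s 0 * s 1 * s 2) * (a * w 2 * w 1) * dt (crs (n 0) (n 1)) (n 2)) *
        dt (crs (e 0) (e 1)) (e 2) := by
    refine h.trans ?_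
    congr 1
    simp only [dt, crs, Matrix.cons_val_zero, Matrix.cons_val_one, Matrix.cons_val]
    ring
  have s0 := hs 0
  have s1 := hs 1
  have s2 := hs 2
  rw [h', abs_mul, abs_mul, det_abs he, det_abs hn, abs_of_pos (by positivity)]
  ring

theorem xi_le (he : Ortho e) {n : Fin 3 → V3} (hn : Ortho n) (ha : 0 < a) (h1 : a ≤ w 1)
    (h2 : a ≤ w 2) {δ : V3} {κ : ℝ} (hκ : 0 ≤ κ) (hδ : dt δ δ ≤ (κ * a) ^ 2) (i : Fin 3) :
    |dt (n i) (xi e a w δ)| ≤ κ := by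
  refine abs_le_of_sq_le_sq ?_ hκ
  have hni : dt (n i) (n i) = 1 := by simpa using hn i i
  refine (cs1 hni).trans ?_
  have hp := parseval he δ
  have e1 : dt (xi e a w δ) (xi e a w δ) = (dt (e 0) δ / a) ^ 2 + (dt (e 1) δ / w 1) ^ 2 +
      (dt (e 2) δ / w 2) ^ 2 := by
    simp only [dt, xi, Matrix.cons_val_zero, Matrix.cons_val_one, Matrix.cons_val]
    ring
  have g : ∀ x W : ℝ, a ≤ W → (x / W) ^ 2 ≤ x ^ 2 / a ^ 2 := by
    intro x W hW
    rw [div_pow]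
    gcongr
  have g0 := g (dt (e 0) δ) a le_rfl
  have g1 := g (dt (e 1) δ) (w 1) h1
  have g2 := g (dt (e 2) δ) (w 2) h2
  rw [e1]
  calc (dt (e 0) δ / a) ^ 2 + (dt (e 1) δ / w 1) ^ 2 + (dt (e 2) δ / w 2) ^ 2 ≤
      (dt (e 0) δ) ^ 2 / a ^ 2 + (dt (e 1) δ) ^ 2 / a ^ 2 + (dt (e 2) δ) ^ 2 / a ^ 2 := by
        linarith
    _ = dt δ δ / a ^ 2 := by rw [hp]; ring
    _ ≤ (κ * a) ^ 2 / a ^ 2 := by gcongr
    _ = κ ^ 2 := by field_simp

open Classical in
/-- D-max for the test sheets of the class `ShN` with `w 1 ≤ wmax` and all widths (thickness, wide,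
narrow) in the range `[lo k, hi k]` -/
def DMaxW {ι : Type} (A : Finset ι) (L : ι → Ln4) (z0 ρ D : ℝ) (R : ℝ → ℝ → ℝ → ℝ)
    (r0 wmax : ℝ) (lo hi : Fin 3 → ℝ) : Prop :=
  ∀ (e : Fin 3 → V3) (c : Ln4) (w : V3) (q : ℝ → V3 → ℝ) (a : ℝ), ShN e c w q a z0 ρ r0 →
    w 1 ≤ wmax → (∀ k : Fin 3, lo k ≤ ![a, w 1, w 2] k ∧ ![a, w 1, w 2] k ≤ hi k) →
    ((A.filter fun t => InSheet (L t) e c w q a z0 ρ).card : ℝ) ≤
      D * (a * w 2 * w 1 * R a (w 2) (w 1))

theorem DMaxN.toW {ι : Type} {A : Finset ι} {L : ι → Ln4} {z0 ρ D : ℝ} {R : ℝ → ℝ → ℝ → ℝ}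
    {r0 wmax : ℝ} (h : DMaxN A L z0 ρ D R r0 wmax) (lo hi : Fin 3 → ℝ) :
    DMaxW A L z0 ρ D R r0 wmax lo hi := fun e c w q a hs hw _ => h e c w q a hs hw

theorem abs_dt_of {n : V3} (hn : dt n n = 1) {ξ : V3} {κ : ℝ} (hκ : 0 ≤ κ)
    (h : dt ξ ξ ≤ κ ^ 2) : |dt n ξ| ≤ κ :=
  abs_le_of_sq_le_sq ((cs1 hn).trans h) hκ

theorem half_le {x y : ℝ} (hy : 0 ≤ y) (h : x ^ 2 ≤ 3 * y ^ 2) : x / 2 ≤ y := by
  by_contra hc
  push Not at hc
  nlinarith

/-- a unit vector of the plane `e 1, e 2`, orthogonal to `f` -/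
theorem exists_perp {e : Fin 3 → V3} (he : Ortho e) (f : V3) : ∃ r p : ℝ, r ^ 2 + p ^ 2 = 1 ∧
    dt f (r • e 1 + p • e 2) = 0 := by
  by_cases h : (dt f (e 1)) ^ 2 + (dt f (e 2)) ^ 2 = 0
  · refine ⟨0, 1, by norm_num, ?_⟩
    have h2 : dt f (e 2) = 0 := by
      have := sq_nonneg (dt f (e 1))
      have := sq_nonneg (dt f (e 2))
      have : (dt f (e 2)) ^ 2 = 0 := by linarith
      exact pow_eq_zero_iff (by norm_num) |>.1 this
    rw [dt_add, dt_smul, dt_smul, h2]; ring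
  · set N := Real.sqrt ((dt f (e 1)) ^ 2 + (dt f (e 2)) ^ 2) with hN
    have h0 : 0 ≤ (dt f (e 1)) ^ 2 + (dt f (e 2)) ^ 2 := by positivity
    have hN2 : N ^ 2 = (dt f (e 1)) ^ 2 + (dt f (e 2)) ^ 2 := Real.sq_sqrt h0
    have hN0 : N ≠ 0 := by
      rintro h1
      rw [h1] at hN2
      exact h (by rw [← hN2]; norm_num)
    refine ⟨dt f (e 2) / N, -(dt f (e 1)) / N, ?_, ?_⟩
    · rw [div_pow, div_pow, ← add_div, hN2, neg_sq, add_comm]
      exact div_self h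
    · rw [dt_add, dt_smul, dt_smul]; ring

set_option maxHeartbeats 2000000 in
open Classical in
/-- **D-max in the normalised space of a flat plank**, test sheets of bounded widths -/
theorem dmax_flatW {ι : Type} (T : Finset ι) (L : ι → Ln4) {c : Ln4}
    {z0 ρ r0 D wmax : ℝ} {R : ℝ → ℝ → ℝ → ℝ}
    (he : Ortho e) (ha : 0 < a) (haw : a ≤ w 2) (hw : w 2 ≤ w 1) (hD : 0 ≤ D)
    (hR0 : ∀ x y z, 0 ≤ x → 0 ≤ y → 0 ≤ z → 0 ≤ R x y z)
    (hRm : ∀ x y z x' y' z', 0 ≤ x → 0 ≤ y → 0 ≤ z → x ≤ x' → y ≤ y' → z ≤ z' →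
      R x y z ≤ R x' y' z')
    {lo hi : Fin 3 → ℝ} (hmax : DMaxW T L z0 ρ D R r0 wmax lo hi) {y : Ln4}
    {n : Fin 3 → V3} (hn : Ortho n) {s : V3} (hs : ∀ i, 0 < s i) {S σ : ℝ}
    (hsS : ∀ i, s i ≤ S) (hσs : ∀ i, σ ≤ s i) (hσ : 0 < σ) (hr1 : r0 ≤ σ * a)
    (hwm : 6 * S * w 1 ≤ wmax) (hhi : ∀ k : Fin 3, 10 * S * ![a, w 1, w 2] k ≤ hi k)
    (hlo : ∀ k : Fin 3, lo k ≤ σ * ![a, w 1, w 2] k / 2) :
    ((T.filter fun t => ∀ z, z0 ≤ z → z ≤ z0 + ρ → ∀ i,
      |dt (n i) (nrm e w (flatQ (e 0) c) a y (L t) z)| ≤ s i).card : ℝ) ≤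
      6 * D * (s 0 * s 1 * s 2) * (a * w 2 * w 1 * R (8 * S * a) (10 * S * w 2) (6 * S * w 1)) := by
  have hS0 : 0 < S := (hs 0).trans_le (hsS 0)
  have hw2 : 0 < w 2 := ha.trans_le haw
  have hw1 : 0 < w 1 := hw2.trans_le hw
  have hdet := edg_det he hn hs ha hw1 hw2
  have s0 := hs 0
  have s1 := hs 1
  have s2 := hs 2
  have hdet0 : dt (crs (edg e a w n s 0) (edg e a w n s 1)) (edg e a w n s 2) ≠ 0 := by
    rw [← abs_pos, hdet]; positivity
  have hWd : ∀ i, 0 < Wd a w i := by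
    intro i
    fin_cases i
    · exact ha
    · exact hw1
    · exact hw2
  obtain ⟨f, α, β1, β2, hf, hα, hαβ, hββ, hbox, hvol, bα, b2, b1⟩ := cover3 he (W := Wd a w) ha haw
    hw (edg e a w n s) hdet0 hS0 (by
      intro i j
      rw [edg_dt he, abs_mul, abs_mul, abs_of_pos (hs j), abs_of_pos (hWd i)]
      have h1 := hn.abs_le_one j i
      have h2 := hWd i
      have h3 := (hs j).le
      calc s j * (|n j i| * Wd a w i) ≤ S * (1 * Wd a w i) := by
            have := hsS j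
            gcongr
        _ = S * Wd a w i := by ring)
  rw [hdet] at hvol
  have hβ2 : 0 < β2 := hα.trans_le hαβ
  have hβ1 : 0 < β1 := hβ2.trans_le hββ
  -- resolution
  have hσα : σ * a ≤ α := by
    have hf0 : dt (f 0) (f 0) = 1 := by simpa using hf 0 0
    set δ : V3 := (σ * a) • f 0 with hδ
    have hδδ : dt δ δ ≤ (σ * a) ^ 2 := by
      rw [hδ, dt_smul, smul_dt, hf0]
      refine le_of_eq ?_; ring
    have ht : ∀ i, |(fun i => dt (n i) (xi e a w δ) / s i) i| ≤ 1 := by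
      intro i
      simp only
      rw [abs_div, abs_of_pos (hs i), div_le_one (hs i)]
      exact (xi_le he hn ha (haw.trans hw) haw hσ.le hδδ i).trans (hσs i)
    have h1 := (hbox _ ht).1
    rw [edg_expand he hn hs ha hw1 hw2 δ, hδ, dt_smul, hf0, mul_one,
      abs_of_pos (by positivity)] at h1
    exact h1
  have hShN : ShN f y ![β2, β1, β2] (flatQ (f 0) y) α z0 ρ r0 :=
    shN_flat hf y z0 ρ rfl hαβ hββ (hr1.trans hσα) hβ2
  -- lower bounds of the widths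
  have hni : ∀ i, dt (n i) (n i) = 1 := fun i => by simpa using hn i i
  have he11 : dt (e 1) (e 1) = 1 := by simpa using he 1 1
  have he22 : dt (e 2) (e 2) = 1 := by simpa using he 2 2
  have he01 : dt (e 0) (e 1) = 0 := by simpa using he 0 1
  have he02 : dt (e 0) (e 2) = 0 := by simpa using he 0 2
  have he12 : dt (e 1) (e 2) = 0 := by simpa using he 1 2
  have he21 : dt (e 2) (e 1) = 0 := by simpa using he 2 1
  have hin : ∀ δ : V3, dt (xi e a w δ) (xi e a w δ) ≤ σ ^ 2 →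
      |dt (f 0) δ| ≤ α ∧ |dt (f 1) δ| ≤ β1 ∧ |dt (f 2) δ| ≤ β2 := by
    intro δ hδ
    have ht : ∀ i, |(fun i => dt (n i) (xi e a w δ) / s i) i| ≤ 1 := by
      intro i
      simp only
      rw [abs_div, abs_of_pos (hs i), div_le_one (hs i)]
      exact (abs_dt_of (hni i) hσ.le hδ).trans (hσs i)
    have h1 := hbox _ ht
    rw [edg_expand he hn hs ha hw1 hw2 δ] at h1
    exact h1
  have hβ1w : σ * w 1 / 2 ≤ β1 := by
    refine half_le hβ1.le ?_
    obtain ⟨g0, g1, g2⟩ := hin ((σ * w 1) • e 1) (by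
      have e0 : xi e a w ((σ * w 1) • e 1) = ![0, σ, 0] := by
        unfold xi
        rw [dt_smul, dt_smul, dt_smul, he01, he11, he21]
        congr 1
        · simp
        · congr 1
          · field_simp
          · congr 1; simp
      rw [e0]
      simp only [dt, Matrix.cons_val_zero, Matrix.cons_val_one, Matrix.cons_val]
      nlinarith)
    have hp := parseval hf ((σ * w 1) • e 1)
    rw [dt_smul, smul_dt, he11] at hp
    have q0 := sq_le_sq' (by linarith [abs_nonneg (dt (f 0) ((σ * w 1) • e 1))]) (g0.trans (hαβ.trans hββ))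
    have q1 := sq_le_sq' (by linarith [abs_nonneg (dt (f 1) ((σ * w 1) • e 1))]) g1
    have q2 := sq_le_sq' (by linarith [abs_nonneg (dt (f 2) ((σ * w 1) • e 1))]) (g2.trans hββ)
    rw [sq_abs] at q0 q1 q2
    nlinarith
  have hβ2w : σ * w 2 / 2 ≤ β2 := by
    refine half_le hβ2.le ?_
    obtain ⟨r, p, hrp, hperp⟩ := exists_perp he (f 1)
    set u : V3 := r • e 1 + p • e 2 with hu
    have hu0 : dt (e 0) u = 0 := by rw [hu, dt_add, dt_smul, dt_smul, he01, he02]; ring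
    have hu1 : dt (e 1) u = r := by rw [hu, dt_add, dt_smul, dt_smul, he11, he12]; ring
    have hu2 : dt (e 2) u = p := by rw [hu, dt_add, dt_smul, dt_smul, he21, he22]; ring
    obtain ⟨g0, g1, g2⟩ := hin ((σ * w 2) • u) (by
      have e0 : xi e a w ((σ * w 2) • u) = ![0, σ * w 2 * r / w 1, σ * p] := by
        unfold xi
        rw [dt_smul, dt_smul, dt_smul, hu0, hu1, hu2]
        congr 1
        · simp
        · congr 1
          congr 1
          field_simp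
      rw [e0]
      simp only [dt, Matrix.cons_val_zero, Matrix.cons_val_one, Matrix.cons_val]
      have h1 : (σ * w 2 * r / w 1) * (σ * w 2 * r / w 1) ≤ σ ^ 2 * r ^ 2 := by
        have : w 2 / w 1 ≤ 1 := (div_le_one hw1).2 hw
        have h0 : 0 ≤ w 2 / w 1 := by positivity
        have : (w 2 / w 1) ^ 2 ≤ 1 := pow_le_one₀ h0 this
        calc (σ * w 2 * r / w 1) * (σ * w 2 * r / w 1) = (σ ^ 2 * r ^ 2) * (w 2 / w 1) ^ 2 := by ring
          _ ≤ (σ ^ 2 * r ^ 2) * 1 := by gcongr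
          _ = _ := by ring
      have h2 : σ ^ 2 * r ^ 2 + σ ^ 2 * p ^ 2 = σ ^ 2 := by rw [← mul_add, hrp, mul_one]
      nlinarith)
    have hp := parseval hf ((σ * w 2) • u)
    have huu : dt u u = 1 := by
      have := parseval he u
      rw [hu0, hu1, hu2] at this
      linarith
    rw [dt_smul, smul_dt, huu] at hp
    have q0 := sq_le_sq' (by linarith [abs_nonneg (dt (f 0) ((σ * w 2) • u))]) (g0.trans hαβ)
    have q2 := sq_le_sq' (by linarith [abs_nonneg (dt (f 2) ((σ * w 2) • u))]) g2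
    rw [sq_abs] at q0 q2
    have q1 : dt (f 1) ((σ * w 2) • u) = 0 := by rw [dt_smul, hperp, mul_zero]
    rw [q1] at hp
    nlinarith [sq_nonneg β2]
  have h1 := hmax _ _ _ _ _ hShN (b1.trans hwm) (fun k => by
    have m0 := mul_pos hS0 ha
    have m1 := mul_pos hS0 hw1
    have m2 := mul_pos hS0 hw2
    have l0 := mul_pos hσ ha
    fin_cases k
    · refine ⟨(hlo 0).trans ?_, le_trans ?_ (hhi 0)⟩
      · change σ * a / 2 ≤ α
        linarith
      · change α ≤ 10 * S * a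
        have : α ≤ 8 * S * a := bα
        nlinarith
    · refine ⟨(hlo 1).trans ?_, le_trans ?_ (hhi 1)⟩
      · change σ * w 1 / 2 ≤ β1
        exact hβ1w
      · change β1 ≤ 10 * S * w 1
        have : β1 ≤ 6 * S * w 1 := b1
        nlinarith
    · refine ⟨(hlo 2).trans ?_, le_trans ?_ (hhi 2)⟩
      · change σ * w 2 / 2 ≤ β2
        exact hβ2w
      · change β2 ≤ 10 * S * w 2
        exact b2)
  have h2 : (T.filter fun t => ∀ z, z0 ≤ z → z ≤ z0 + ρ → ∀ i,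
      |dt (n i) (nrm e w (flatQ (e 0) c) a y (L t) z)| ≤ s i) ⊆ T.filter fun t =>
      InSheet (L t) f y ![β2, β1, β2] (flatQ (f 0) y) α z0 ρ := by
    intro t ht
    rw [mem_filter] at ht ⊢
    refine ⟨ht.1, fun z hz hz' => ?_⟩
    have h3 := ht.2 z hz hz'
    set δ : V3 := (L t).pos z - y.pos z with hδ
    have hnx : nrm e w (flatQ (e 0) c) a y (L t) z = xi e a w δ := by
      unfold nrm xi flatQ
      congr 1
      simp only [hδ, dt_sub]
      congr 1
      ring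
    rw [hnx] at h3
    have htt : ∀ i, |(fun i => dt (n i) (xi e a w δ) / s i) i| ≤ 1 := by
      intro i
      simp only
      rw [abs_div, abs_of_pos (hs i), div_le_one (hs i)]
      exact h3 i
    obtain ⟨g0, g1, g2⟩ := hbox _ htt
    rw [edg_expand he hn hs ha hw1 hw2 δ] at g0 g1 g2
    refine ⟨fun i => ?_, g0⟩
    fin_cases i
    · exact g0.trans hαβ
    · exact g1
    · exact g2
  have h3 := (Nat.cast_le (α := ℝ)).2 (card_le_card h2)
  refine (h3.trans h1).trans ?_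
  change D * (α * β2 * β1 * R α β2 β1) ≤ _
  have h4 : R α β2 β1 ≤ R (8 * S * a) (10 * S * w 2) (6 * S * w 1) :=
    hRm _ _ _ _ _ _ hα.le hβ2.le hβ1.le bα b2 b1
  calc D * (α * β2 * β1 * R α β2 β1) ≤
      D * (6 * ((s 0 * s 1 * s 2) * (a * w 2 * w 1)) *
        R (8 * S * a) (10 * S * w 2) (6 * S * w 1)) := by
        rw [hvol]
        gcongr
    _ = _ := by ring

open Classical in
/-- **D-max in the normalised space of a flat plank** -/
theorem dmax_flat {ι : Type} (T : Finset ι) (L : ι → Ln4) {c : Ln4}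
    {z0 ρ r0 D wmax : ℝ} {R : ℝ → ℝ → ℝ → ℝ}
    (he : Ortho e) (ha : 0 < a) (haw : a ≤ w 2) (hw : w 2 ≤ w 1) (hD : 0 ≤ D)
    (hR0 : ∀ x y z, 0 ≤ x → 0 ≤ y → 0 ≤ z → 0 ≤ R x y z)
    (hRm : ∀ x y z x' y' z', 0 ≤ x → 0 ≤ y → 0 ≤ z → x ≤ x' → y ≤ y' → z ≤ z' →
      R x y z ≤ R x' y' z')
    (hmax : DMaxN T L z0 ρ D R r0 wmax) {y : Ln4}
    {n : Fin 3 → V3} (hn : Ortho n) {s : V3} (hs : ∀ i, 0 < s i) {S σ : ℝ}
    (hsS : ∀ i, s i ≤ S) (hσs : ∀ i, σ ≤ s i) (hσ : 0 < σ) (hr1 : r0 ≤ σ * a)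
    (hwm : 6 * S * w 1 ≤ wmax) :
    ((T.filter fun t => ∀ z, z0 ≤ z → z ≤ z0 + ρ → ∀ i,
      |dt (n i) (nrm e w (flatQ (e 0) c) a y (L t) z)| ≤ s i).card : ℝ) ≤
      6 * D * (s 0 * s 1 * s 2) * (a * w 2 * w 1 * R (8 * S * a) (10 * S * w 2) (6 * S * w 1)) :=
  dmax_flatW T L he ha haw hw hD hR0 hRm
    (DMaxN.toW hmax (fun k => σ * ![a, w 1, w 2] k / 2) (fun k => 10 * S * ![a, w 1, w 2] k))
    hn hs hsS hσs hσ hr1 hwm (fun _ => le_rfl) (fun _ => le_rfl)

end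

open Classical in
/-- **plank hypothesis of Lemma A_Q for flat planks (no thinness)**, test sheets of bounded widths -/
theorem dmaxQ_flatW {ι : Type} (T : Finset ι) (L : ι → Ln4) {e : Fin 3 → V3} {c : Ln4} {w : V3}
    {a z0 ρ zc lam z1 ρ1 r0 D wmax : ℝ} {Rw : ℝ → ℝ → ℝ → ℝ}
    (he : Ortho e) (ha : 0 < a) (haw : a ≤ w 2) (hww : w 2 ≤ w 1) (hD : 0 ≤ D)
    (hR0 : ∀ x y z, 0 ≤ x → 0 ≤ y → 0 ≤ z → 0 ≤ Rw x y z)
    (hRm : ∀ x y z x' y' z', 0 ≤ x → 0 ≤ y → 0 ≤ z → x ≤ x' → y ≤ y' → z ≤ z' →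
      Rw x y z ≤ Rw x' y' z')
    (hz0 : z0 = zc - lam) (hρ : ρ = 2 * lam) (hlam : 0 < lam) (h01 : z0 ≤ z1)
    (h11 : z1 + ρ1 ≤ z0 + ρ) {lo hi : Fin 3 → ℝ}
    (hmax : DMaxW T L z1 ρ1 D Rw r0 wmax lo hi)
    (hT : ∀ t ∈ T, InSheet (L t) e c w (flatQ (e 0) c) a z0 ρ) {x : ι × ℤ}
    (hx : InSheet (L x.1) e c w (flatQ (e 0) c) a z0 ρ) {R : ℝ} {H : ℕ} (hH : 0 < H) (hR : 0 < R)
    (hHR : (H : ℝ) ^ 2 ≤ R)
    (hnear : ∀ z, z1 ≤ z → z ≤ z1 + ρ1 → |z - (zc + lam * ((x.2 : ℝ) / R))| ≤ 2 * lam * H / R)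
    (hr1 : R * r0 ≤ 2718 * a)
    (hwm : 16308 * (H / R) * w 1 ≤ wmax)
    (hhi : ∀ k : Fin 3, 27180 * (H / R) * ![a, w 1, w 2] k ≤ hi k)
    (hlo : ∀ k : Fin 3, R * lo k ≤ 1359 * ![a, w 1, w 2] k)
    {n : V3} (hn : ∑ i, n i ^ 2 = 1) {E : Fin 2 → V3}
    (hE : ∀ a b, ∑ i, E a i * E b i = if a = b then 1 else 0) (hEn : ∀ a, ∑ i, E a i * n i = 0)
    {wd : Fin 2 → ℝ} (hw : ∀ a, 1 / (H : ℝ) ≤ wd a ∧ wd a ≤ 1) :
    ((T.filter fun t => Plk (fun l => gam e c w (flatQ (e 0) c) a zc lam (L l))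
      (fun l => vel e c w (flatQ (e 0) c) a zc lam (L l)) R H n E wd x (t, x.2)).card : ℝ) ≤
      6 * 2718 ^ 3 * D / R ^ 3 * (a * w 2 * w 1 * Rw (27180 * (H / R) * a)
        (27180 * (H / R) * w 2) (27180 * (H / R) * w 1)) * (wd 0 * wd 1) * (H : ℝ) ^ 2 := by
  have hH0 : (0 : ℝ) < H := by exact_mod_cast hH
  have hH1 : (1 : ℝ) ≤ H := by exact_mod_cast hH
  have hw2 : 0 < w 2 := ha.trans_le haw
  have hw1 : 0 < w 1 := hw2.trans_le hww
  set q := flatQ (e 0) c with hq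
  have hwd : ∀ k, 0 < wd k := fun k => lt_of_lt_of_le (by positivity) (hw k).1
  set σ : ℝ := 2718 / R with hσ
  set S : ℝ := 2718 * H / R with hSd
  set s : V3 := ![2718 / R, 2718 * wd 0 * H / R, 2718 * wd 1 * H / R] with hs
  have hs0 : ∀ i, 0 < s i := by
    intro i
    have := hwd 0
    have := hwd 1
    fin_cases i
    · change 0 < 2718 / R; positivity
    · change 0 < 2718 * wd 0 * H / R; positivity
    · change 0 < 2718 * wd 1 * H / R; positivity
  have hwdH : ∀ k, 1 ≤ wd k * H := fun k => by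
    have := (hw k).1
    rwa [div_le_iff₀ hH0] at this
  have hσs : ∀ i, σ ≤ s i := by
    intro i
    fin_cases i
    · exact le_rfl
    · change 2718 / R ≤ 2718 * wd 0 * H / R
      have := hwdH 0
      gcongr
      linarith
    · change 2718 / R ≤ 2718 * wd 1 * H / R
      have := hwdH 1
      gcongr
      linarith
  have hsS : ∀ i, s i ≤ S := by
    intro i
    fin_cases i
    · change 2718 / R ≤ 2718 * H / R
      gcongr
      linarith
    · change 2718 * wd 0 * H / R ≤ 2718 * H / R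
      have := (hw 0).2
      gcongr
      nlinarith
    · change 2718 * wd 1 * H / R ≤ 2718 * H / R
      have := (hw 1).2
      gcongr
      nlinarith
  have hmain := dmax_flatW T L he ha haw hww hD hR0 hRm hmax (c := c) (y := L x.1)
    (frm_ortho hn hE hEn) hs0 hsS hσs (by positivity)
    (by rw [hσ, div_mul_eq_mul_div, le_div_iff₀ hR]; linarith)
    (by
      refine le_trans (le_of_eq ?_) hwm
      rw [hSd]; ring)
    (fun k => by
      refine le_trans (le_of_eq ?_) (hhi k)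
      rw [hSd]; ring)
    (fun k => by
      have := hlo k
      rw [hσ, div_mul_eq_mul_div, div_div, le_div_iff₀ (by positivity)]; linarith)
  have hsub : (T.filter fun t => Plk (fun l => gam e c w q a zc lam (L l))
      (fun l => vel e c w q a zc lam (L l)) R H n E wd x (t, x.2)) ⊆
      T.filter fun t => ∀ z, z1 ≤ z → z ≤ z1 + ρ1 → ∀ i,
        |dt (frm n E i) (nrm e w q a (L x.1) (L t) z)| ≤ s i := by
    intro t ht
    rw [mem_filter] at ht ⊢
    obtain ⟨ht1, hp1, hp2, hp3⟩ := ht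
    refine ⟨ht1, fun z hz hz' => ?_⟩
    set u0 : ℝ := (x.2 : ℝ) / R with hu0
    obtain ⟨u, hu⟩ : ∃ u, z = zc + lam * u := ⟨(z - zc) / lam, by field_simp; ring⟩
    have hnz := hnear z hz hz'
    have hun : |u - u0| ≤ 2 * (H / R) := by
      have e1 : z - (zc + lam * u0) = lam * (u - u0) := by rw [hu]; ring
      rw [e1, abs_mul, abs_of_pos hlam] at hnz
      have e2 : 2 * lam * H / R = lam * (2 * (H / R)) := by ring
      rw [e2] at hnz
      exact le_of_mul_le_mul_left hnz hlam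
    have hO := frm_ortho hn hE hEn
    have hq4 : 4 * |u - u0| ^ 2 ≤ 16 / R := by
      have e1 : |u - u0| ^ 2 ≤ (2 * (H / R)) ^ 2 := by gcongr
      have e2 : (2 * ((H : ℝ) / R)) ^ 2 = 4 * (H ^ 2 / R ^ 2) := by ring
      have e3 : (H : ℝ) ^ 2 / R ^ 2 ≤ 1 / R := by
        rw [div_le_div_iff₀ (by positivity) hR]
        nlinarith
      have e4 : (16 : ℝ) / R = 16 * (1 / R) := by ring
      rw [e4]
      linarith
    have g0 : |dt n (nrm e w q a (L x.1) (L t) z)| ≤ 2718 / R := by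
      rw [hu]
      refine (nrm_near (flatQ_isQ _ _) ha hw1 hw2 hz0 hρ hlam.le hx (hT t ht1) (hO.abs_le_one 0 0)
        hp1 hp2).trans ?_
      have e1 : 9 * (100 / (H : ℝ)) * |u - u0| ≤ 9 * (100 / (H : ℝ)) * (2 * (H / R)) := by
        gcongr
      have e2 : 9 * (100 / (H : ℝ)) * (2 * (H / R)) = 1800 / R := by field_simp; norm_num
      have e3 : 9 * (100 / R) = 900 / R := by ring
      have e4 : (900 : ℝ) / R + 1800 / R + 16 / R ≤ 2718 / R := by
        rw [← add_div, ← add_div]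
        gcongr
        norm_num
      linarith
    have g1 : ∀ k, |dt (E k) (nrm e w q a (L x.1) (L t) z)| ≤ 2718 * wd k * H / R := by
      intro k
      have hk1 := (hp3 k).1
      have hk2 := (hp3 k).2
      have hE1 : |E k 0| ≤ 1 := by
        fin_cases k
        · exact hO.abs_le_one 1 0
        · exact hO.abs_le_one 2 0
      rw [hu]
      refine (nrm_near (flatQ_isQ _ _) ha hw1 hw2 hz0 hρ hlam.le hx (hT t ht1) hE1
        hk1 hk2).trans ?_
      have hwk := hwd k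
      have e1 : 9 * (100 * wd k) * |u - u0| ≤ 9 * (100 * wd k) * (2 * (H / R)) := by
        gcongr
      have e2 : (16 : ℝ) / R ≤ 16 * wd k * H / R := by
        have := hwdH k
        gcongr
        linarith
      have e4 : 9 * (100 * wd k * H / R) + 9 * (100 * wd k) * (2 * (H / R)) + 16 * wd k * H / R
          ≤ 2718 * wd k * H / R := by
        have e5 : 0 ≤ wd k * H / R := by positivity
        calc _ = 2716 * (wd k * H / R) := by ring
          _ ≤ 2718 * (wd k * H / R) := by gcongr; norm_num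
          _ = _ := by ring
      linarith
    intro i
    fin_cases i
    · exact g0
    · exact g1 0
    · exact g1 1
  have hcard : ((T.filter fun t => Plk (fun l => gam e c w q a zc lam (L l))
      (fun l => vel e c w q a zc lam (L l)) R H n E wd x (t, x.2)).card : ℝ) ≤
      ((T.filter fun t => ∀ z, z1 ≤ z → z ≤ z1 + ρ1 → ∀ i,
        |dt (frm n E i) (nrm e w q a (L x.1) (L t) z)| ≤ s i).card : ℝ) := by
    exact_mod_cast card_le_card hsub
  have e1 : s 0 * s 1 * s 2 = 2718 / R * (2718 * wd 0 * H / R) * (2718 * wd 1 * H / R) := rfl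
  have hHR0 : 0 < (H : ℝ) / R := by positivity
  have hS8 : 8 * S * a ≤ 27180 * (H / R) * a := by
    have : 8 * S = 21744 * (H / R) := by rw [hSd]; ring
    rw [this]; gcongr; norm_num
  have hS10 : 10 * S * w 2 ≤ 27180 * (H / R) * w 2 := by
    have : 10 * S = 27180 * (H / R) := by rw [hSd]; ring
    rw [this]
  have hS6 : 6 * S * w 1 ≤ 27180 * (H / R) * w 1 := by
    have : 6 * S = 16308 * (H / R) := by rw [hSd]; ring
    rw [this]; gcongr; norm_num
  have hSpos : 0 < S := by rw [hSd]; positivity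
  have hRle := hRm _ _ _ _ _ _ (by positivity) (by positivity) (by positivity) hS8 hS10 hS6
  have hsp : 0 ≤ 6 * D * (s 0 * s 1 * s 2) := by
    have := hs0 0
    have := hs0 1
    have := hs0 2
    positivity
  have hRle' : a * w 2 * w 1 * Rw (8 * S * a) (10 * S * w 2) (6 * S * w 1) ≤
      a * w 2 * w 1 * Rw (27180 * (H / R) * a) (27180 * (H / R) * w 2) (27180 * (H / R) * w 1) :=
    mul_le_mul_of_nonneg_left hRle (by positivity)
  refine ((hcard.trans hmain).trans (mul_le_mul_of_nonneg_left hRle' hsp)).trans (le_of_eq ?_)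
  rw [e1]
  field_simp


open Classical in
/-- **plank hypothesis of Lemma A_Q for flat planks (no thinness)** -/
theorem dmaxQ_flat {ι : Type} (T : Finset ι) (L : ι → Ln4) {e : Fin 3 → V3} {c : Ln4} {w : V3}
    {a z0 ρ zc lam z1 ρ1 r0 D wmax : ℝ} {Rw : ℝ → ℝ → ℝ → ℝ}
    (he : Ortho e) (ha : 0 < a) (haw : a ≤ w 2) (hww : w 2 ≤ w 1) (hD : 0 ≤ D)
    (hR0 : ∀ x y z, 0 ≤ x → 0 ≤ y → 0 ≤ z → 0 ≤ Rw x y z)
    (hRm : ∀ x y z x' y' z', 0 ≤ x → 0 ≤ y → 0 ≤ z → x ≤ x' → y ≤ y' → z ≤ z' →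
      Rw x y z ≤ Rw x' y' z')
    (hz0 : z0 = zc - lam) (hρ : ρ = 2 * lam) (hlam : 0 < lam) (h01 : z0 ≤ z1)
    (h11 : z1 + ρ1 ≤ z0 + ρ) (hmax : DMaxN T L z1 ρ1 D Rw r0 wmax)
    (hT : ∀ t ∈ T, InSheet (L t) e c w (flatQ (e 0) c) a z0 ρ) {x : ι × ℤ}
    (hx : InSheet (L x.1) e c w (flatQ (e 0) c) a z0 ρ) {R : ℝ} {H : ℕ} (hH : 0 < H) (hR : 0 < R)
    (hHR : (H : ℝ) ^ 2 ≤ R)
    (hnear : ∀ z, z1 ≤ z → z ≤ z1 + ρ1 → |z - (zc + lam * ((x.2 : ℝ) / R))| ≤ 2 * lam * H / R)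
    (hr1 : R * r0 ≤ 2718 * a)
    (hwm : 16308 * (H / R) * w 1 ≤ wmax) {n : V3} (hn : ∑ i, n i ^ 2 = 1) {E : Fin 2 → V3}
    (hE : ∀ a b, ∑ i, E a i * E b i = if a = b then 1 else 0) (hEn : ∀ a, ∑ i, E a i * n i = 0)
    {wd : Fin 2 → ℝ} (hw : ∀ a, 1 / (H : ℝ) ≤ wd a ∧ wd a ≤ 1) :
    ((T.filter fun t => Plk (fun l => gam e c w (flatQ (e 0) c) a zc lam (L l))
      (fun l => vel e c w (flatQ (e 0) c) a zc lam (L l)) R H n E wd x (t, x.2)).card : ℝ) ≤
      6 * 2718 ^ 3 * D / R ^ 3 * (a * w 2 * w 1 * Rw (27180 * (H / R) * a)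
        (27180 * (H / R) * w 2) (27180 * (H / R) * w 1)) * (wd 0 * wd 1) * (H : ℝ) ^ 2 :=
  dmaxQ_flatW T L he ha haw hww hD hR0 hRm hz0 hρ hlam h01 h11
    (DMaxN.toW hmax (fun k => 1359 * ![a, w 1, w 2] k / R)
      (fun k => 27180 * (H / R) * ![a, w 1, w 2] k)) hT hx hH hR hHR hnear hr1 hwm
    (fun _ => le_rfl) (fun k => le_of_eq (mul_div_cancel₀ _ hR.ne')) hn hE hEn hw

end Crest.Agent.R136.HR829
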