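import Crest.Agent.R136.HR4_829
import Crest.Agent.R138.MkDef_163

/-!
# R136 (helper829): labels of flat containers, finite part

Frames `e`, `e'` are comparable at the widths `w` if `|⟨e i, e' j⟩| w j ≤ K w i`.  Objects with a
frame and a centre line; a maximal family of pairwise non-comparable objects = labels; a family of
pairwise `K`-comparable objects meets at most `C K^N` labels.
-/

set_option autoImplicit false
set_option linter.unusedVariables false
set_option linter.unusedSectionVars false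

namespace Crest.Agent.R136.HR829

open Finset
open Crest.Agent.R136.Sh605

/-- comparable frames at the widths `w` -/
def Cmp (K : ℝ) (w : V3) (e e' : Fin 3 → V3) : Prop := ∀ i j, |dt (e i) (e' j)| * w j ≤ K * w i

/-- close lines in the frame `e`, widths `V`, over `[z0, z0 + ρ]` -/
def Cls (K : ℝ) (V : V3) (e : Fin 3 → V3) (s t : Ln4) (z0 ρ : ℝ) : Prop :=
  ∀ z, z0 ≤ z → z ≤ z0 + ρ → ∀ k, |dt (e k) (t.pos z - s.pos z)| ≤ K * V k

theorem Ortho.bil {e : Fin 3 → V3} (he : Ortho e) (x y : V3) :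
    dt x y = dt x (e 0) * dt (e 0) y + dt x (e 1) * dt (e 1) y + dt x (e 2) * dt (e 2) y := by
  have h0 := he.expand y 0
  have h1 := he.expand y 1
  have h2 := he.expand y 2
  have : dt x y = x 0 * y 0 + x 1 * y 1 + x 2 * y 2 := rfl
  rw [this, h0, h1, h2]
  simp only [dt]
  ring

theorem Cmp.refl {w : V3} (hw : ∀ i, 0 < w i) {e : Fin 3 → V3} (he : Ortho e) : Cmp 1 w e e := by
  intro i j
  rw [he i j]
  split_ifs with h
  · rw [h, abs_one]
  · rw [abs_zero]; have := hw i; linarith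

theorem Cmp.mono {w : V3} (hw : ∀ i, 0 < w i) {K K' : ℝ} (hK : K ≤ K') {e e' : Fin 3 → V3}
    (h : Cmp K w e e') : Cmp K' w e e' := fun i j =>
  (h i j).trans (mul_le_mul_of_nonneg_right hK (hw i).le)

theorem Cmp.trans {w : V3} (hw : ∀ i, 0 < w i) {K K' : ℝ} (hK : 0 ≤ K) (hK' : 0 ≤ K')
    {e e' e'' : Fin 3 → V3} (he' : Ortho e') (h : Cmp K w e e') (h' : Cmp K' w e' e'') :
    Cmp (3 * K * K') w e e'' := by
  intro i j
  have hm : ∀ m, |dt (e i) (e' m) * dt (e' m) (e'' j)| * w j ≤ K * K' * w i := by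
    intro m
    rw [abs_mul]
    have h1 := h i m
    have h2 := h' m j
    have hwm := hw m
    calc |dt (e i) (e' m)| * |dt (e' m) (e'' j)| * w j =
        |dt (e i) (e' m)| * (|dt (e' m) (e'' j)| * w j) := by ring
      _ ≤ |dt (e i) (e' m)| * (K' * w m) := mul_le_mul_of_nonneg_left h2 (abs_nonneg _)
      _ = K' * (|dt (e i) (e' m)| * w m) := by ring
      _ ≤ K' * (K * w i) := mul_le_mul_of_nonneg_left h1 hK'
      _ = K * K' * w i := by ring
  rw [Ortho.bil he']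
  have h3 : |dt (e i) (e' 0) * dt (e' 0) (e'' j) + dt (e i) (e' 1) * dt (e' 1) (e'' j) +
      dt (e i) (e' 2) * dt (e' 2) (e'' j)| ≤ |dt (e i) (e' 0) * dt (e' 0) (e'' j)| +
      |dt (e i) (e' 1) * dt (e' 1) (e'' j)| + |dt (e i) (e' 2) * dt (e' 2) (e'' j)| :=
    abs_add_three _ _ _
  calc _ ≤ (|dt (e i) (e' 0) * dt (e' 0) (e'' j)| +
      |dt (e i) (e' 1) * dt (e' 1) (e'' j)| + |dt (e i) (e' 2) * dt (e' 2) (e'' j)|) * w j :=
        mul_le_mul_of_nonneg_right h3 (hw j).le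
    _ ≤ 3 * K * K' * w i := by have := hm 0; have := hm 1; have := hm 2; linarith

/-- change of frame for a vector -/
theorem Cmp.vec {w : V3} (hw : ∀ i, 0 < w i) {K K' : ℝ} (hK' : 0 ≤ K')
    {e e' : Fin 3 → V3} (he' : Ortho e') (h : Cmp K w e e') {δ : V3}
    (hδ : ∀ m, |dt (e' m) δ| ≤ K' * w m) (k : Fin 3) : |dt (e k) δ| ≤ 3 * K * K' * w k := by
  have hm : ∀ m, |dt (e k) (e' m) * dt (e' m) δ| ≤ K * K' * w k := by
    intro m
    rw [abs_mul]
    calc |dt (e k) (e' m)| * |dt (e' m) δ| ≤ |dt (e k) (e' m)| * (K' * w m) :=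
          mul_le_mul_of_nonneg_left (hδ m) (abs_nonneg _)
      _ = K' * (|dt (e k) (e' m)| * w m) := by ring
      _ ≤ K' * (K * w k) := mul_le_mul_of_nonneg_left (h k m) hK'
      _ = _ := by ring
  rw [Ortho.bil he']
  refine (abs_add_three _ _ _).trans ?_
  have := hm 0
  have := hm 1
  have := hm 2
  linarith

theorem Cls.conv {w : V3} (hw : ∀ i, 0 < w i) {K K' : ℝ} (hK' : 0 ≤ K')
    {e e' : Fin 3 → V3} (he' : Ortho e') (h : Cmp K w e e') {s t : Ln4} {z0 ρ R : ℝ} (hR : 0 < R)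
    (hc : Cls K' (R • w) e' s t z0 ρ) : Cls (3 * K * K') (R • w) e s t z0 ρ := by
  intro z h1 h2 k
  have h3 := Cmp.vec hw (K' := K' * R) (by positivity) he' h
    (δ := t.pos z - s.pos z) (fun m => by
      refine (hc z h1 h2 m).trans (le_of_eq ?_)
      simp only [Pi.smul_apply, smul_eq_mul]; ring) k
  refine h3.trans (le_of_eq ?_)
  simp only [Pi.smul_apply, smul_eq_mul]; ring

theorem Cls.mono {V : V3} (hV : ∀ i, 0 ≤ V i) {K K' : ℝ} (hK : K ≤ K') {e : Fin 3 → V3}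
    {s t : Ln4} {z0 ρ : ℝ} (h : Cls K V e s t z0 ρ) : Cls K' V e s t z0 ρ := fun z h1 h2 k =>
  (h z h1 h2 k).trans (mul_le_mul_of_nonneg_right hK (hV k))

/-- convexity: the bound at the two ends is enough -/
theorem Cls.of_ends {V : V3} {K : ℝ} {e : Fin 3 → V3} {s t : Ln4} {z0 ρ : ℝ} (hρ : 0 < ρ)
    (h0 : ∀ k, |dt (e k) (t.pos z0 - s.pos z0)| ≤ K * V k)
    (h1 : ∀ k, |dt (e k) (t.pos (z0 + ρ) - s.pos (z0 + ρ))| ≤ K * V k) :
    Cls K V e s t z0 ρ := by
  intro z hz hz' k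
  have e1 : dt (e k) (t.pos z - s.pos z) = (1 - (z - z0) / ρ) * dt (e k) (t.pos z0 - s.pos z0) +
      (z - z0) / ρ * dt (e k) (t.pos (z0 + ρ) - s.pos (z0 + ρ)) := by
    simp only [dt_sub, dt_pos]; field_simp; ring
  have f0 : 0 ≤ (z - z0) / ρ := div_nonneg (by linarith) hρ.le
  have f1 : (z - z0) / ρ ≤ 1 := (div_le_one hρ).2 (by linarith)
  rw [e1]
  refine (abs_add_le _ _).trans ?_
  rw [abs_mul, abs_mul, abs_of_nonneg (by linarith : 0 ≤ 1 - (z - z0) / ρ), abs_of_nonneg f0]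
  have g0 := mul_le_mul_of_nonneg_left (h0 k) (by linarith : 0 ≤ 1 - (z - z0) / ρ)
  have g1 := mul_le_mul_of_nonneg_left (h1 k) f0
  linarith

/-- extension from a subinterval -/
theorem Cls.ext {w : V3} (hw : ∀ i, 0 < w i) {K : ℝ} (hK : 0 ≤ K) {e : Fin 3 → V3} {s t : Ln4}
    {z0 z1 ρ ρ1 R : ℝ} (hρ1 : 0 < ρ1) (hρ : ρ = R * ρ1) (hR : 1 ≤ R) (h0 : z0 ≤ z1)
    (h1 : z1 + ρ1 ≤ z0 + ρ) (h : Cls K w e s t z1 ρ1) : Cls (3 * K) (R • w) e s t z0 ρ := by
  intro z hz hz' k
  have a0 := h z1 le_rfl (by linarith) k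
  have a1 := h (z1 + ρ1) (by linarith) le_rfl k
  have e1 : dt (e k) (t.pos z - s.pos z) = dt (e k) (t.pos z1 - s.pos z1) +
      (z - z1) / ρ1 * (dt (e k) (t.pos (z1 + ρ1) - s.pos (z1 + ρ1)) -
        dt (e k) (t.pos z1 - s.pos z1)) := by
    simp only [dt_sub, dt_pos]; field_simp; ring
  have f1 : |(z - z1) / ρ1| ≤ R := by
    rw [abs_div, abs_of_pos hρ1, div_le_iff₀ hρ1, abs_le]
    constructor <;> linarith
  rw [e1]
  refine (abs_add_le _ _).trans ?_
  rw [abs_mul]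
  have g1 : |dt (e k) (t.pos (z1 + ρ1) - s.pos (z1 + ρ1)) - dt (e k) (t.pos z1 - s.pos z1)| ≤
      2 * (K * w k) := (abs_sub _ _).trans (by linarith)
  have hwk := hw k
  have g2 : |(z - z1) / ρ1| * |dt (e k) (t.pos (z1 + ρ1) - s.pos (z1 + ρ1)) -
      dt (e k) (t.pos z1 - s.pos z1)| ≤ R * (2 * (K * w k)) :=
    mul_le_mul f1 g1 (abs_nonneg _) (by linarith)
  simp only [Pi.smul_apply, smul_eq_mul]
  have g3 : K * w k ≤ R * (K * w k) := le_mul_of_one_le_left (by positivity) hR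
  calc _ ≤ K * w k + R * (2 * (K * w k)) := add_le_add a0 g2
    _ ≤ R * (K * w k) + R * (2 * (K * w k)) := by linarith
    _ = _ := by ring

/-! ### nets -/

/-- maximal separated families -/
theorem exists_net {Ω : Type*} [DecidableEq Ω] (O : Finset Ω) (r : Ω → Ω → Prop)
    (hrefl : ∀ o ∈ O, r o o) (hsymm : ∀ o o', r o o' → r o' o) :
    ∃ N ⊆ O, (∀ o ∈ O, ∃ l ∈ N, r o l) ∧ ∀ l ∈ N, ∀ l' ∈ N, r l l' → l = l' := by
  classical
  induction O using Finset.induction_on with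
  | empty => exact ⟨∅, subset_rfl, by simp, by simp⟩
  | insert a s ha ih =>
    obtain ⟨N, hN, h1, h2⟩ := ih fun o ho => hrefl o (mem_insert_of_mem ho)
    by_cases hc : ∃ l ∈ N, r a l
    · refine ⟨N, hN.trans (subset_insert _ _), ?_, h2⟩
      intro o ho
      rcases mem_insert.1 ho with rfl | ho
      · exact hc
      · exact h1 o ho
    · push Not at hc
      refine ⟨insert a N, insert_subset_insert _ hN, ?_, ?_⟩
      · intro o ho
        rcases mem_insert.1 ho with rfl | ho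
        · exact ⟨o, mem_insert_self _ _, hrefl _ (mem_insert_self _ _)⟩
        · obtain ⟨l, hl, hr⟩ := h1 o ho
          exact ⟨l, mem_insert_of_mem hl, hr⟩
      · intro l hl l' hl' hr
        rcases mem_insert.1 hl with h | hl
        · rcases mem_insert.1 hl' with h' | hl'
          · rw [h, h']
          · rw [h] at hr; exact absurd hr (hc l' hl')
        · rcases mem_insert.1 hl' with h' | hl'
          · rw [h'] at hr; exact absurd (hsymm _ _ hr) (hc l hl)
          · exact h2 l hl l' hl' hr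

end Crest.Agent.R136.HR829
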