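import Crest.Agent.R136.HR5_829

/-!
# R136 (helper829): labels of flat containers, number of labels
-/

set_option autoImplicit false
set_option linter.unusedVariables false
set_option linter.unusedSectionVars false

namespace Crest.Agent.R136.HR829

open Finset
open Crest.Agent.R136.Sh605

theorem Cls.swap {K : ℝ} {V : V3} {e : Fin 3 → V3} {s t : Ln4} {z0 ρ : ℝ}
    (h : Cls K V e s t z0 ρ) : Cls K V e t s z0 ρ := by
  intro z h1 h2 k
  have h3 := h z h1 h2 k
  have e1 : dt (e k) (s.pos z - t.pos z) = -dt (e k) (t.pos z - s.pos z) := by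
    simp only [dt_sub]; ring
  rw [e1, abs_neg]; exact h3

section

variable {Ω : Type*} (w : V3) (R : ℝ) (fr : Ω → Fin 3 → V3) (ln : Ω → Ln4) (cell : Ω → ℤ)
  (z0 : ℤ → ℝ) (ρ : ℝ)

/-- comparable objects -/
def NK (K : ℝ) (o o' : Ω) : Prop := cell o = cell o' ∧ Cmp K w (fr o) (fr o') ∧
  Cmp K w (fr o') (fr o) ∧ Cls K (R • w) (fr o) (ln o) (ln o') (z0 (cell o)) ρ ∧
  Cls K (R • w) (fr o') (ln o) (ln o') (z0 (cell o)) ρ

variable {w R fr ln cell z0 ρ}

theorem NK.symm {K : ℝ} {o o' : Ω} (h : NK w R fr ln cell z0 ρ K o o') :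
    NK w R fr ln cell z0 ρ K o' o := by
  obtain ⟨h1, h2, h3, h4, h5⟩ := h
  refine ⟨h1.symm, h3, h2, ?_, ?_⟩
  · rw [← h1]; exact h5.swap
  · rw [← h1]; exact h4.swap

theorem NK.refl (hw : ∀ i, 0 < w i) (hR : 0 < R) {o : Ω} (ho : Ortho (fr o)) {K : ℝ} (hK : 1 ≤ K) :
    NK w R fr ln cell z0 ρ K o o := by
  have h1 : Cls K (R • w) (fr o) (ln o) (ln o) (z0 (cell o)) ρ := by
    intro z _ _ k
    rw [sub_self]
    have : dt (fr o k) 0 = 0 := by simp [dt]
    rw [this, abs_zero]
    have := hw k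
    have : 0 ≤ (R • w) k := by simp only [Pi.smul_apply, smul_eq_mul]; positivity
    positivity
  exact ⟨rfl, (Cmp.refl hw ho).mono hw hK, (Cmp.refl hw ho).mono hw hK, h1, h1⟩

/-- **transitivity with loss** -/
theorem NK.trans (hw : ∀ i, 0 < w i) (hR : 0 < R) {K K' : ℝ} (hK : 1 ≤ K) (hK' : 1 ≤ K')
    {o o' o'' : Ω} (ho : Ortho (fr o)) (ho' : Ortho (fr o')) (ho'' : Ortho (fr o''))
    (h : NK w R fr ln cell z0 ρ K o o') (h' : NK w R fr ln cell z0 ρ K' o' o'') :
    NK w R fr ln cell z0 ρ (4 * K * K') o o'' := by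
  obtain ⟨h1, h2, h3, h4, h5⟩ := h
  obtain ⟨g1, g2, g3, g4, g5⟩ := h'
  have hV : ∀ i, 0 ≤ (R • w) i := fun i => by
    have := hw i
    simp only [Pi.smul_apply, smul_eq_mul]; positivity
  have hKK : K ≤ K * K' := le_mul_of_one_le_right (by linarith) hK'
  have hKK' : K' ≤ K * K' := le_mul_of_one_le_left (by linarith) hK
  have e1 : 3 * K * K' ≤ 4 * K * K' := by nlinarith
  refine ⟨h1.trans g1, (h2.trans hw (by linarith) (by linarith) ho' g2).mono hw e1,
    ((g3.trans hw (by linarith) (by linarith) ho' h3).mono hw (by nlinarith)), ?_, ?_⟩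
  · rw [← h1] at g4 g5
    have c1 := Cls.conv hw (by linarith) ho' h2 hR g4
    intro z hz hz' k
    have a1 := h4 z hz hz' k
    have a2 := c1 z hz hz' k
    have e2 : dt (fr o k) ((ln o'').pos z - (ln o).pos z) =
        dt (fr o k) ((ln o').pos z - (ln o).pos z) +
        dt (fr o k) ((ln o'').pos z - (ln o').pos z) := by simp only [dt_sub]; ring
    rw [e2]
    refine (abs_add_le _ _).trans ?_
    have hVk := hV k
    have : K * (R • w) k ≤ K * K' * (R • w) k := mul_le_mul_of_nonneg_right hKK hVk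
    linarith
  · rw [← h1] at g4 g5
    have c1 := Cls.conv hw (by linarith) ho' g3 hR h5
    intro z hz hz' k
    have a1 := g5 z hz hz' k
    have a2 := c1 z hz hz' k
    have e2 : dt (fr o'' k) ((ln o'').pos z - (ln o).pos z) =
        dt (fr o'' k) ((ln o').pos z - (ln o).pos z) +
        dt (fr o'' k) ((ln o'').pos z - (ln o').pos z) := by simp only [dt_sub]; ring
    rw [e2]
    refine (abs_add_le _ _).trans ?_
    have hVk := hV k
    have : K' * (R • w) k ≤ K * K' * (R • w) k := mul_le_mul_of_nonneg_right hKK' hVk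
    linarith

/-- integer coordinates of a label seen from `o` -/
noncomputable def qd (w : V3) (R : ℝ) (fr : Ω → Fin 3 → V3) (ln : Ω → Ln4) (cell : Ω → ℤ)
    (z0 : ℤ → ℝ) (ρ K : ℝ) (o l : Ω) :
    (Fin 3 → Fin 3 → ℤ) × (Fin 3 → ℤ) × (Fin 3 → ℤ) :=
  (fun k j => ⌊3 * K * (dt (fr o k) (fr l j) * w j / w k)⌋,
    fun k => ⌊3 * K * (dt (fr o k) ((ln l).pos (z0 (cell o)) - (ln o).pos (z0 (cell o))) /
      (R * w k))⌋,
    fun k => ⌊3 * K * (dt (fr o k) ((ln l).pos (z0 (cell o) + ρ) -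
      (ln o).pos (z0 (cell o) + ρ)) / (R * w k))⌋)

/-- same integer coordinates: close vectors -/
theorem near_of_qd (hw : ∀ i, 0 < w i) {K : ℝ} (hK : 1 ≤ K) {eo el : Fin 3 → V3} (hO : Ortho eo)
    (hc : Cmp K w el eo) {R : ℝ} (hR : 0 < R) {δ δ' : V3}
    (h : ∀ k, ⌊3 * K * (dt (eo k) δ / (R * w k))⌋ = ⌊3 * K * (dt (eo k) δ' / (R * w k))⌋) (m : Fin 3) :
    |dt (el m) (δ' - δ)| ≤ R * w m := by
  have h1 : ∀ k, |dt (eo k) (δ' - δ)| ≤ (R / (3 * K)) * w k := by
    intro k
    have h2 := Int.abs_sub_lt_one_of_floor_eq_floor (h k)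
    have hwk := hw k
    have e1 : 3 * K * (dt (eo k) δ / (R * w k)) - 3 * K * (dt (eo k) δ' / (R * w k)) =
        -(3 * K / (R * w k) * dt (eo k) (δ' - δ)) := by rw [dt_sub]; ring
    rw [e1, abs_neg, abs_mul, abs_of_pos (by positivity : 0 < 3 * K / (R * w k))] at h2
    have h3 : |dt (eo k) (δ' - δ)| = (R / (3 * K) * w k) *
        (3 * K / (R * w k) * |dt (eo k) (δ' - δ)|) := by field_simp
    rw [h3]
    exact mul_le_of_le_one_right (by positivity) h2.le
  have h4 := Cmp.vec hw (K' := R / (3 * K)) (by positivity) hO hc h1 m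
  refine h4.trans (le_of_eq ?_)
  field_simp

/-- **number of separated labels comparable to one object** -/
theorem labels_le (hw : ∀ i, 0 < w i) (hR : 0 < R) (hρ : 0 < ρ) {N : Finset Ω}
    (hN : ∀ l ∈ N, Ortho (fr l)) (hsep : ∀ l ∈ N, ∀ l' ∈ N, NK w R fr ln cell z0 ρ 2 l l' → l = l')
    {o : Ω} (ho : Ortho (fr o)) {K : ℝ} (hK : 1 ≤ K) {S : Finset Ω} (hS : S ⊆ N)
    (hnear : ∀ l ∈ S, NK w R fr ln cell z0 ρ K o l) :
    (S.card : ℝ) ≤ (11 * K ^ 2) ^ 15 := by
  classical
  set B : ℕ := ⌈4 * K ^ 2⌉₊ with hB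
  have hBr : 4 * K ^ 2 ≤ (B : ℝ) := Nat.le_ceil _
  have hB2 : (B : ℝ) ≤ 4 * K ^ 2 + 1 := (Nat.ceil_lt_add_one (by positivity)).le
  set I1 : Finset ℤ := Icc (-(B : ℤ)) B with hI1
  have hcard : I1.card = 2 * B + 1 := by
    rw [hI1, Int.card_Icc]; omega
  have hfl : ∀ x : ℝ, |x| ≤ K → ⌊3 * K * x⌋ ∈ I1 := by
    intro x hx
    rw [abs_le] at hx
    rw [hI1, mem_Icc]
    have hK2 : K ≤ K ^ 2 := by nlinarith
    have h1 : 3 * K * x ≤ 3 * K ^ 2 := by nlinarith
    have h2 : -(3 * K ^ 2) ≤ 3 * K * x := by nlinarith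
    constructor
    · rw [Int.le_floor]; push_cast; nlinarith
    · have : ((⌊3 * K * x⌋ : ℤ) : ℝ) ≤ ((B : ℤ) : ℝ) := by
        push_cast
        exact (Int.floor_le _).trans (by nlinarith)
      exact_mod_cast this
  set T : Finset ((Fin 3 → Fin 3 → ℤ) × (Fin 3 → ℤ) × (Fin 3 → ℤ)) :=
    (Fintype.piFinset fun _ => Fintype.piFinset fun _ => I1) ×ˢ
      ((Fintype.piFinset fun _ => I1) ×ˢ (Fintype.piFinset fun _ => I1)) with hT
  have hTc : T.card = (2 * B + 1) ^ 15 := by
    rw [hT, card_product, card_product, Fintype.card_piFinset, Fintype.card_piFinset]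
    simp only [Fintype.card_piFinset, prod_const, card_univ, Fintype.card_fin, hcard]
    ring
  have hmap : ∀ l ∈ S, qd w R fr ln cell z0 ρ K o l ∈ T := by
    intro l hl
    obtain ⟨h1, h2, h3, h4, h5⟩ := hnear l hl
    rw [hT, mem_product, mem_product, Fintype.mem_piFinset, Fintype.mem_piFinset,
      Fintype.mem_piFinset]
    refine ⟨fun k => Fintype.mem_piFinset.2 fun j => ?_, fun k => ?_, fun k => ?_⟩
    · refine hfl _ ?_
      have hwk := hw k
      rw [abs_div, abs_mul, abs_of_pos (hw j), abs_of_pos hwk, div_le_iff₀ hwk]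
      exact h2 k j
    · refine hfl _ ?_
      have hwk := hw k
      rw [abs_div, abs_of_pos (by positivity : 0 < R * w k), div_le_iff₀ (by positivity)]
      exact h4 _ le_rfl (by linarith) k
    · refine hfl _ ?_
      have hwk := hw k
      rw [abs_div, abs_of_pos (by positivity : 0 < R * w k), div_le_iff₀ (by positivity)]
      exact h4 _ (by linarith) le_rfl k
  have hinj : Set.InjOn (qd w R fr ln cell z0 ρ K o) (S : Set Ω) := by
    intro l hl l' hl' heq
    obtain ⟨h1, h2, h3, h4, h5⟩ := hnear l hl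
    obtain ⟨g1, g2, g3, g4, g5⟩ := hnear l' hl'
    have hOl := hN l (hS hl)
    have hOl' := hN l' (hS hl')
    unfold qd at heq
    simp only [Prod.mk.injEq] at heq
    obtain ⟨q1, q2, q3⟩ := heq
    -- frames
    have fra : ∀ (l l' : Ω), Ortho (fr l) → Cmp K w (fr l) (fr o) →
        (∀ k j, ⌊3 * K * (dt (fr o k) (fr l j) * w j / w k)⌋ =
          ⌊3 * K * (dt (fr o k) (fr l' j) * w j / w k)⌋) → Cmp 2 w (fr l) (fr l') := by
      intro l l' hO hC hq i j
      have hwj := hw j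
      have hwi := hw i
      have h6 := near_of_qd hw hK ho hC (R := 1 / w j) (by positivity) (δ := fr l j)
        (δ' := fr l' j) (fun k => by
          have hwk := hw k
          have e1 : ∀ y : ℝ, y / (1 / w j * w k) = y * w j / w k := fun y => by field_simp
          rw [e1, e1]
          exact hq k j) i
      rw [dt_sub] at h6
      have h7 : |dt (fr l i) (fr l' j)| ≤ |dt (fr l i) (fr l j)| + 1 / w j * w i := by
        have := abs_sub_abs_le_abs_sub (dt (fr l i) (fr l' j)) (dt (fr l i) (fr l j))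
        linarith
      have h8 := (Cmp.refl hw hO) i j
      calc |dt (fr l i) (fr l' j)| * w j ≤ (|dt (fr l i) (fr l j)| + 1 / w j * w i) * w j :=
            mul_le_mul_of_nonneg_right h7 hwj.le
        _ = |dt (fr l i) (fr l j)| * w j + w i := by field_simp
        _ ≤ 2 * w i := by linarith
    have q1' : ∀ k j, ⌊3 * K * (dt (fr o k) (fr l j) * w j / w k)⌋ =
        ⌊3 * K * (dt (fr o k) (fr l' j) * w j / w k)⌋ := fun k j => congrFun (congrFun q1 k) j
    have pos : ∀ (l l' : Ω), Cmp K w (fr l) (fr o) →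
        (∀ k, ⌊3 * K * (dt (fr o k) ((ln l).pos (z0 (cell o)) - (ln o).pos (z0 (cell o))) /
          (R * w k))⌋ = ⌊3 * K * (dt (fr o k) ((ln l').pos (z0 (cell o)) -
            (ln o).pos (z0 (cell o))) / (R * w k))⌋) →
        (∀ k, ⌊3 * K * (dt (fr o k) ((ln l).pos (z0 (cell o) + ρ) -
          (ln o).pos (z0 (cell o) + ρ)) / (R * w k))⌋ =
          ⌊3 * K * (dt (fr o k) ((ln l').pos (z0 (cell o) + ρ) -
          (ln o).pos (z0 (cell o) + ρ)) / (R * w k))⌋) →
        Cls 2 (R • w) (fr l) (ln l) (ln l') (z0 (cell o)) ρ := by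
      intro l l' hC p1 p2
      refine Cls.of_ends hρ (fun k => ?_) (fun k => ?_)
      · have h6 := near_of_qd hw hK ho hC hR p1 k
        rw [sub_sub_sub_cancel_right] at h6
        have hwk := hw k
        simp only [Pi.smul_apply, smul_eq_mul]
        have : 0 < R * w k := by positivity
        linarith
      · have h6 := near_of_qd hw hK ho hC hR p2 k
        rw [sub_sub_sub_cancel_right] at h6
        have hwk := hw k
        simp only [Pi.smul_apply, smul_eq_mul]
        have : 0 < R * w k := by positivity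
        linarith
    refine hsep l (hS hl) l' (hS hl') ⟨h1.symm.trans g1, fra l l' hOl h3 q1',
      fra l' l hOl' g3 (fun k j => (q1' k j).symm), ?_, ?_⟩
    · rw [← h1]
      exact pos l l' h3 (fun k => congrFun q2 k) (fun k => congrFun q3 k)
    · rw [← h1]
      exact (pos l' l g3 (fun k => (congrFun q2 k).symm) (fun k => (congrFun q3 k).symm)).swap
  have h9 : S.card ≤ T.card := card_le_card_of_injOn _ hmap hinj
  rw [hTc] at h9
  have h10 : (S.card : ℝ) ≤ ((2 * B + 1 : ℕ) : ℝ) ^ 15 := by exact_mod_cast h9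
  refine h10.trans ?_
  push_cast
  have hK2 : 1 ≤ K ^ 2 := one_le_pow₀ hK
  gcongr
  linarith

end

end Crest.Agent.R136.HR829
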