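import Crest.Agent.R136.HR5_829
import Crest.Agent.R136.GD2_186
import Crest.Agent.R136.Fl1_808

/-!
# R136 (helper829): comparable flags give comparable frames
-/

set_option autoImplicit false
set_option linter.unusedVariables false
set_option linter.unusedSectionVars false

namespace Crest.Agent.R136.HR829

open Crest.Agent.R136.Sh605
open Crest.Agent.R136.GeoQ186

theorem frn_one (Fa Fb : ℝ) : 1 ≤ frn Fa Fb := by
  unfold frn; rw [Real.one_le_sqrt]; nlinarith [sq_nonneg Fa, sq_nonneg Fb]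

theorem frm1_one (Fa Fb E : ℝ) : 1 ≤ frm1 Fa Fb E := by
  unfold frm1; rw [Real.one_le_sqrt]; nlinarith [sq_nonneg (Fa + Fb * E), sq_nonneg E]

/-- division by a number `≥ 1` -/
theorem div_le_aux {x y ν : ℝ} (hν : 1 ≤ ν) (h : |x| ≤ y) : |x / ν| ≤ y := by
  rw [abs_div, abs_of_pos (by linarith : 0 < ν)]
  exact (div_le_self (abs_nonneg _) hν).trans h

theorem mul_one_le {x y : ℝ} (hx : 1 ≤ x) (hy : 1 ≤ y) : 1 ≤ x * y := by nlinarith

set_option maxHeartbeats 2000000 in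
theorem cmp_fr0 {Fa Fb E Fa' Fb' E' K : ℝ} {w : V3} (hw : ∀ i, 0 < w i) (h02 : w 0 ≤ w 2)
    (h21 : w 2 ≤ w 1) (hK : 1 ≤ K) (hFa : |Fa| ≤ 1) (hFb : |Fb| ≤ 1) (hE1 : |E| ≤ 1)
    (hFa' : |Fa'| ≤ 1) (hFb' : |Fb'| ≤ 1) (hE1' : |E'| ≤ 1)
    (hE : |E' - E| * w 1 ≤ K * w 2) (hB : |Fb' - Fb| * w 2 ≤ K * w 0)
    (hA : |(Fa' - Fa) + E * (Fb' - Fb)| * w 1 ≤ K * w 0) :
    Cmp (10 * K ^ 2) w (fr Fa Fb E) (fr Fa' Fb' E') := by
  have w0 := hw 0
  have w1 := hw 1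
  have w2 := hw 2
  have hK2 : K ≤ K ^ 2 := by nlinarith
  have o1 := fr_ortho Fa Fb E
  have o2 := fr_ortho Fa' Fb' E'
  have k0 : 0 ≤ K := by linarith
  set ν := frn Fa Fb with hν
  set μ := frm1 Fa Fb E with hμ
  set ν' := frn Fa' Fb' with hν'
  set μ' := frm1 Fa' Fb' E' with hμ'
  have n1 : 1 ≤ ν := frn_one _ _
  have n2 : 1 ≤ μ := frm1_one _ _ _
  have n3 : 1 ≤ ν' := frn_one _ _
  have n4 : 1 ≤ μ' := frm1_one _ _ _
  have hm' : |Fa' + Fb' * E'| ≤ 2 := by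
    have : |Fb' * E'| ≤ 1 := by
      rw [abs_mul]; nlinarith [abs_nonneg Fb', abs_nonneg E']
    exact (abs_add_le _ _).trans (by linarith)
  have hm : |Fa + Fb * E| ≤ 2 := by
    have : |Fb * E| ≤ 1 := by
      rw [abs_mul]; nlinarith [abs_nonneg Fb, abs_nonneg E]
    exact (abs_add_le _ _).trans (by linarith)
  have hEB : |(E' - E) * (Fb' - Fb)| * w 1 ≤ K ^ 2 * w 0 := by
    rw [abs_mul]
    calc |E' - E| * |Fb' - Fb| * w 1 = |Fb' - Fb| * (|E' - E| * w 1) := by ring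
      _ ≤ |Fb' - Fb| * (K * w 2) := mul_le_mul_of_nonneg_left hE (abs_nonneg _)
      _ = K * (|Fb' - Fb| * w 2) := by ring
      _ ≤ K * (K * w 0) := mul_le_mul_of_nonneg_left hB k0
      _ = K ^ 2 * w 0 := by ring
  have hFF : |Fa' - Fa| * w 2 ≤ 2 * K * w 0 := by
    have e : Fa' - Fa = ((Fa' - Fa) + E * (Fb' - Fb)) - E * (Fb' - Fb) := by ring
    have a1 : |Fa' - Fa| ≤ |(Fa' - Fa) + E * (Fb' - Fb)| + |Fb' - Fb| := by
      rw [e]
      refine (abs_sub _ _).trans ?_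
      have : |E * (Fb' - Fb)| ≤ |Fb' - Fb| := by
        rw [abs_mul]; nlinarith [abs_nonneg (Fb' - Fb)]
      have e2 : (Fa' - Fa) + E * (Fb' - Fb) - E * (Fb' - Fb) + E * (Fb' - Fb) =
        (Fa' - Fa) + E * (Fb' - Fb) := by ring
      rw [e2]
      linarith
    have a2 : |(Fa' - Fa) + E * (Fb' - Fb)| * w 2 ≤ K * w 0 :=
      (mul_le_mul_of_nonneg_left h21 (abs_nonneg _)).trans hA
    calc |Fa' - Fa| * w 2 ≤ (|(Fa' - Fa) + E * (Fb' - Fb)| + |Fb' - Fb|) * w 2 :=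
          mul_le_mul_of_nonneg_right a1 w2.le
      _ ≤ 2 * K * w 0 := by linarith
  -- the three nontrivial entries
  have c01 : |dt (fr Fa Fb E 0) (fr Fa' Fb' E' 1)| * w 1 ≤ 10 * K ^ 2 * w 0 := by
    have e1 : dt (fr Fa Fb E 0) (fr Fa' Fb' E' 1) =
        (((Fa' - Fa) + E * (Fb' - Fb)) + (E' - E) * (Fb' - Fb)) / (ν * μ') := by
      simp only [fr, dt, Matrix.cons_val, ← hν, ← hμ']
      field_simp
      ring
    have e2 := div_le_aux (mul_one_le n1 n4)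
      (le_refl |((Fa' - Fa) + E * (Fb' - Fb)) + (E' - E) * (Fb' - Fb)|)
    rw [e1]
    refine (mul_le_mul_of_nonneg_right (e2.trans (abs_add_le _ _)) w1.le).trans ?_
    have : K * w 0 ≤ K ^ 2 * w 0 := mul_le_mul_of_nonneg_right hK2 w0.le
    nlinarith
  have c02 : |dt (fr Fa Fb E 0) (fr Fa' Fb' E' 2)| * w 2 ≤ 10 * K ^ 2 * w 0 := by
    have e1 : dt (fr Fa Fb E 0) (fr Fa' Fb' E' 2) =
        ((Fa' - Fa) * (-Fb' * (Fa' + Fb' * E') - E') +
          (Fb' - Fb) * (1 + Fa' * (Fa' + Fb' * E'))) / (ν * (ν' * μ')) := by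
      simp only [fr, dt, Matrix.cons_val, ← hν, ← hμ', ← hν']
      field_simp
      ring
    have b1 : |-Fb' * (Fa' + Fb' * E') - E'| ≤ 3 := by
      refine (abs_sub _ _).trans ?_
      rw [abs_mul, abs_neg]
      nlinarith [abs_nonneg Fb', abs_nonneg (Fa' + Fb' * E')]
    have b2 : |1 + Fa' * (Fa' + Fb' * E')| ≤ 3 := by
      refine (abs_add_le _ _).trans ?_
      rw [abs_mul, abs_one]
      nlinarith [abs_nonneg Fa', abs_nonneg (Fa' + Fb' * E')]
    have e2 := div_le_aux (mul_one_le n1 (mul_one_le n3 n4))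
      (le_refl |(Fa' - Fa) * (-Fb' * (Fa' + Fb' * E') - E') +
          (Fb' - Fb) * (1 + Fa' * (Fa' + Fb' * E'))|)
    have e3 : |(Fa' - Fa) * (-Fb' * (Fa' + Fb' * E') - E') +
          (Fb' - Fb) * (1 + Fa' * (Fa' + Fb' * E'))| ≤ 3 * |Fa' - Fa| + 3 * |Fb' - Fb| := by
      refine (abs_add_le _ _).trans ?_
      rw [abs_mul, abs_mul]
      nlinarith [abs_nonneg (Fa' - Fa), abs_nonneg (Fb' - Fb)]
    rw [e1]
    refine (mul_le_mul_of_nonneg_right (e2.trans e3) w2.le).trans ?_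
    have : K * w 0 ≤ K ^ 2 * w 0 := mul_le_mul_of_nonneg_right hK2 w0.le
    nlinarith
  have c21 : |dt (fr Fa Fb E 2) (fr Fa' Fb' E' 1)| * w 1 ≤ 10 * K ^ 2 * w 2 := by
    have e1 : dt (fr Fa Fb E 2) (fr Fa' Fb' E' 1) =
        ((-Fa * E + Fb) * (((Fa' - Fa) + E * (Fb' - Fb)) + Fb' * (E' - E)) +
          (1 + Fa * (Fa + Fb * E)) * (E' - E)) / (ν * μ * μ') := by
      simp only [fr, dt, Matrix.cons_val, ← hν, ← hμ', ← hμ]
      field_simp
      ring
    have b1 : |-Fa * E + Fb| ≤ 2 := by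
      refine (abs_add_le _ _).trans ?_
      rw [abs_mul, abs_neg]
      nlinarith [abs_nonneg Fa, abs_nonneg E]
    have b2 : |1 + Fa * (Fa + Fb * E)| ≤ 3 := by
      refine (abs_add_le _ _).trans ?_
      rw [abs_mul, abs_one]
      nlinarith [abs_nonneg Fa, abs_nonneg (Fa + Fb * E)]
    have b3 : |((Fa' - Fa) + E * (Fb' - Fb)) + Fb' * (E' - E)| ≤
        |(Fa' - Fa) + E * (Fb' - Fb)| + |E' - E| := by
      refine (abs_add_le _ _).trans ?_
      rw [abs_mul]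
      nlinarith [abs_nonneg (E' - E)]
    have e2 := div_le_aux (mul_one_le (mul_one_le n1 n2) n4)
      (le_refl |(-Fa * E + Fb) * (((Fa' - Fa) + E * (Fb' - Fb)) + Fb' * (E' - E)) +
          (1 + Fa * (Fa + Fb * E)) * (E' - E)|)
    have e3 : |(-Fa * E + Fb) * (((Fa' - Fa) + E * (Fb' - Fb)) + Fb' * (E' - E)) +
          (1 + Fa * (Fa + Fb * E)) * (E' - E)| ≤
        2 * (|(Fa' - Fa) + E * (Fb' - Fb)| + |E' - E|) + 3 * |E' - E| := by
      refine (abs_add_le _ _).trans ?_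
      rw [abs_mul, abs_mul]
      have := mul_le_mul b1 b3 (abs_nonneg _) (by norm_num)
      have := mul_le_mul_of_nonneg_right b2 (abs_nonneg (E' - E))
      linarith
    rw [e1]
    refine (mul_le_mul_of_nonneg_right (e2.trans e3) w1.le).trans ?_
    have h1 : K * w 2 ≤ K ^ 2 * w 2 := mul_le_mul_of_nonneg_right hK2 w2.le
    have h2 : K * w 0 ≤ K * w 2 := mul_le_mul_of_nonneg_left h02 k0
    nlinarith
  -- trivial entries
  have triv : ∀ i j, w j ≤ w i → |dt (fr Fa Fb E i) (fr Fa' Fb' E' j)| * w j ≤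
      10 * K ^ 2 * w i := by
    intro i j hij
    have h1 := Crest.Agent.R136.Fl808.abs_dt_le_one o2 o1 i j
    have hi := hw i
    have hj := hw j
    have : |dt (fr Fa Fb E i) (fr Fa' Fb' E' j)| * w j ≤ 1 * w i :=
      mul_le_mul h1 hij hj.le zero_le_one
    have h3 : 1 * w i ≤ 10 * K ^ 2 * w i := by
      refine mul_le_mul_of_nonneg_right ?_ hi.le
      nlinarith
    exact this.trans h3
  intro i j
  fin_cases i <;> fin_cases j
  · exact triv 0 0 le_rfl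
  · exact c01
  · exact c02
  · exact triv 1 0 (h02.trans h21)
  · exact triv 1 1 le_rfl
  · exact triv 1 2 h21
  · exact triv 2 0 h02
  · exact c21
  · exact triv 2 2 le_rfl

theorem cmp_fpv {π : Equiv.Perm (Fin 3)} {K : ℝ} {w : V3} {e e' : Fin 3 → V3}
    (h : Cmp K w e e') : Cmp K w (fpv π e) (fpv π e') := by
  intro i j
  have : dt (fpv π e i) (fpv π e' j) = dt (e i) (e' j) := dt_pv π.symm (e i) (e' j)
  rw [this]
  exact h i j

theorem ortho_fpv {π : Equiv.Perm (Fin 3)} {e : Fin 3 → V3} (h : Ortho e) : Ortho (fpv π e) := by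
  intro i j
  have : dt (fpv π e i) (fpv π e j) = dt (e i) (e j) := dt_pv π.symm (e i) (e j)
  rw [this]
  exact h i j

end Crest.Agent.R136.HR829
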