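import Crest.Agent.R136.Pl2W_102

/-!
# R136 (S0187), PLAN 2, (AL) (C): hull counts in one cell (helper792)

`hull_thick` : the lines near `T` with `|q| ≤ b` (`b ≤ λ w0`, a thicker copy of the sheet) are at most
`W M (b/a)^(1+qp 0)`.
`hull_card`  : the same with the lateral positions only.
`hull_flat`  : the lines in a flat box around `T`.
-/

set_option autoImplicit false
set_option linter.unusedVariables false
set_option linter.unusedSimpArgs false

open Finset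

namespace Crest.Agent.R136.Hc792

open Crest.Agent.R136.Sh605
open Crest.Agent.R136.K4 (Plk4)
open Crest.Agent.R136.Tlt51 (Shp InP)
open Crest.Agent.R136.Pl2W102 (Near Ex2 Two1)
open Crest.Agent.R136.Phc248

/-- **the scaled plank** with another thickness -/
theorem shN_thick {e : Fin 3 → V3} {c c' : Ln4} {w : V3} {q : ℝ → V3 → ℝ} {z0 ρ a r0 lam b : ℝ}
    (h : ShN e c w q a z0 ρ r0) (hw : ∀ k, 0 < w k) (hl : 0 < lam) (hl2 : lam ≤ 1 / 2)
    (hr : r0 ≤ b) (hb : b ≤ lam * w 0) (hc : ∀ z, z0 ≤ z → z ≤ z0 + ρ → InK e c w z (c'.pos z)) :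
    ShN e c' (fun k => lam * w k) q b z0 ρ r0 := by
  have hin : ∀ z, z0 ≤ z → z ≤ z0 + ρ → ∀ x, InK e c' (dbl3 (fun k => lam * w k)) z x →
      InK e c (dbl3 w) z x := by
    intro z h1 h2 x hx i
    have e1 : dt (e i) (x - c.pos z) = dt (e i) (x - c'.pos z) + dt (e i) (c'.pos z - c.pos z) := by
      simp only [dt, Pi.sub_apply]; ring
    have h3 : |dt (e i) (x - c'.pos z)| ≤ 2 * (lam * w i) := hx i
    have h4 := hc z h1 h2 i
    have h5 : lam * w i ≤ 1 / 2 * w i := mul_le_mul_of_nonneg_right hl2 (hw i).le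
    show |dt (e i) (x - c.pos z)| ≤ 2 * w i
    rw [e1]
    exact (abs_add_le _ _).trans (by linarith)
  have hdiv : ∀ i, lam * w 0 / (lam * w i) = w 0 / w i := fun i =>
    mul_div_mul_left _ _ hl.ne'
  refine ⟨h.ortho, h.isQ, hb, ?_, ?_, hr, ?_, ?_, ?_⟩
  · exact mul_le_mul_of_nonneg_left h.w0_le hl.le
  · exact mul_le_mul_of_nonneg_left h.w_le hl.le
  · intro z h1 h2 x t ht k1 k2
    exact h.st0 z h1 h2 x t ht (hin z h1 h2 _ k1) (hin z h1 h2 _ k2)
  · intro z h1 h2 x t ht k1 k2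
    have := h.sl1 z h1 h2 x t ht (hin z h1 h2 _ k1) (hin z h1 h2 _ k2)
    simp only [hdiv]
    exact this
  · intro z h1 h2 x t ht k1 k2
    have := h.sl2 z h1 h2 x t ht (hin z h1 h2 _ k1) (hin z h1 h2 _ k2)
    simp only [hdiv]
    exact this

/-- slopes for signed steps -/
theorem signed {D : V3 → Prop} {F : V3 → ℝ} {f : V3} {s : ℝ}
    (h : ∀ (x : V3) (τ : ℝ), 0 ≤ τ → D x → D (x + τ • f) → |F (x + τ • f) - F x| ≤ s * τ)
    {x : V3} {τ : ℝ} (h1 : D x) (h2 : D (x + τ • f)) : |F (x + τ • f) - F x| ≤ s * |τ| := by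
  rcases le_total 0 τ with ht | ht
  · rw [abs_of_nonneg ht]; exact h x τ ht h1 h2
  · have e1 : x + τ • f + (-τ) • f = x := by
      funext j; simp
    have := h (x + τ • f) (-τ) (by linarith) h2 (by rw [e1]; exact h1)
    rw [e1] at this
    rw [abs_sub_comm, abs_of_nonpos ht]
    exact this

/-- steepness for signed steps -/
theorem signed0 {D : V3 → Prop} {F : V3 → ℝ} {f : V3}
    (h : ∀ (x : V3) (τ : ℝ), 0 ≤ τ → D x → D (x + τ • f) →
      τ / 2 ≤ F (x + τ • f) - F x ∧ F (x + τ • f) - F x ≤ 2 * τ)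
    {x : V3} {τ : ℝ} (h1 : D x) (h2 : D (x + τ • f)) : |τ| ≤ 2 * |F (x + τ • f) - F x| := by
  rcases le_total 0 τ with ht | ht
  · have := (h x τ ht h1 h2).1
    rw [abs_of_nonneg ht]
    have h3 := le_abs_self (F (x + τ • f) - F x)
    linarith
  · have e1 : x + τ • f + (-τ) • f = x := by
      funext j; simp
    have := (h (x + τ • f) (-τ) (by linarith) h2 (by rw [e1]; exact h1)).1
    rw [e1] at this
    rw [abs_of_nonpos ht]
    have h3 := neg_abs_le (F (x + τ • f) - F x)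
    linarith

/-- **normal distance of two points near the sheet** -/
theorem normal_pt {e : Fin 3 → V3} {c : Ln4} {w : V3} {q : ℝ → V3 → ℝ} {a z0 ρ r0 : ℝ}
    (S : ShN e c w q a z0 ρ r0) {z : ℝ} (hz : z0 ≤ z) (hz' : z ≤ z0 + ρ) {x y : V3}
    (hx : InK e c w z x) {k b b' : ℝ} (hk : k ≤ 1) (h0 : |dt (e 0) (y - x)| ≤ w 0)
    (h1 : |dt (e 1) (y - x)| ≤ k * w 1) (h2 : |dt (e 2) (y - x)| ≤ k * w 2)
    (hqx : |q z x| ≤ b') (hqy : |q z y| ≤ b) (hw1 : 0 < w 1) (hw2 : 0 < w 2) (hw0 : 0 ≤ w 0) :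
    |dt (e 0) (y - x)| ≤ 2 * (b + b') + 4 * (k * w 0) := by
  have he := S.ortho
  have g00 : dt (e 0) (e 0) = 1 := by simpa using he 0 0
  have g11 : dt (e 1) (e 1) = 1 := by simpa using he 1 1
  have g22 : dt (e 2) (e 2) = 1 := by simpa using he 2 2
  have g01 : dt (e 0) (e 1) = 0 := by simpa using he 0 1
  have g02 : dt (e 0) (e 2) = 0 := by simpa using he 0 2
  have g10 : dt (e 1) (e 0) = 0 := by simpa using he 1 0
  have g12 : dt (e 1) (e 2) = 0 := by simpa using he 1 2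
  have g20 : dt (e 2) (e 0) = 0 := by simpa using he 2 0
  have g21 : dt (e 2) (e 1) = 0 := by simpa using he 2 1
  set τ0 := dt (e 0) (y - x) with hτ0
  set τ1 := dt (e 1) (y - x) with hτ1
  set τ2 := dt (e 2) (y - x) with hτ2
  have hyx : x + τ1 • e 1 + τ2 • e 2 + τ0 • e 0 = y := by
    funext j
    have h3 := he.expand (y - x) j
    rw [← hτ0, ← hτ1, ← hτ2] at h3
    simp only [Pi.add_apply, Pi.smul_apply, smul_eq_mul, Pi.sub_apply] at h3 ⊢
    linarith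
  have k1 : |τ1| ≤ w 1 := h1.trans (by nlinarith)
  have k2 : |τ2| ≤ w 2 := h2.trans (by nlinarith)
  have p0 : InK e c (dbl3 w) z x := by
    intro i
    have := hx i
    have h4 := (abs_nonneg _).trans this
    simp only [dbl3]; linarith
  have p1 : InK e c (dbl3 w) z (x + τ1 • e 1) := by
    intro i
    have e1 : dt (e i) (x + τ1 • e 1 - c.pos z) =
        dt (e i) (x - c.pos z) + τ1 * dt (e i) (e 1) := by
      simp only [dt, Pi.sub_apply, Pi.add_apply, Pi.smul_apply, smul_eq_mul]; ring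
    have h3 := hx i
    rw [e1]
    simp only [dbl3]
    fin_cases i
    · simp only [Fin.zero_eta, Fin.mk_one, Fin.reduceFinMk] at *
      rw [g01, mul_zero, add_zero]; linarith
    · simp only [Fin.zero_eta, Fin.mk_one, Fin.reduceFinMk] at *
      rw [g11, mul_one]; exact (abs_add_le _ _).trans (by linarith)
    · simp only [Fin.zero_eta, Fin.mk_one, Fin.reduceFinMk] at *
      rw [g21, mul_zero, add_zero]; linarith
  have p2 : InK e c (dbl3 w) z (x + τ1 • e 1 + τ2 • e 2) := by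
    intro i
    have e1 : dt (e i) (x + τ1 • e 1 + τ2 • e 2 - c.pos z) =
        dt (e i) (x - c.pos z) + τ1 * dt (e i) (e 1) + τ2 * dt (e i) (e 2) := by
      simp only [dt, Pi.sub_apply, Pi.add_apply, Pi.smul_apply, smul_eq_mul]; ring
    have h3 := hx i
    rw [e1]
    simp only [dbl3]
    fin_cases i
    · simp only [Fin.zero_eta, Fin.mk_one, Fin.reduceFinMk] at *
      rw [g01, g02, mul_zero, mul_zero, add_zero, add_zero]; linarith
    · simp only [Fin.zero_eta, Fin.mk_one, Fin.reduceFinMk] at *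
      rw [g11, g12, mul_one, mul_zero, add_zero]; exact (abs_add_le _ _).trans (by linarith)
    · simp only [Fin.zero_eta, Fin.mk_one, Fin.reduceFinMk] at *
      rw [g21, g22, mul_one, mul_zero, add_zero]; exact (abs_add_le _ _).trans (by linarith)
  have p3 : InK e c (dbl3 w) z (x + τ1 • e 1 + τ2 • e 2 + τ0 • e 0) := by
    intro i
    have e1 : dt (e i) (x + τ1 • e 1 + τ2 • e 2 + τ0 • e 0 - c.pos z) =
        dt (e i) (x - c.pos z) + τ1 * dt (e i) (e 1) + τ2 * dt (e i) (e 2) +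
          τ0 * dt (e i) (e 0) := by
      simp only [dt, Pi.sub_apply, Pi.add_apply, Pi.smul_apply, smul_eq_mul]; ring
    have h3 := hx i
    rw [e1]
    simp only [dbl3]
    fin_cases i
    · simp only [Fin.zero_eta, Fin.mk_one, Fin.reduceFinMk] at *
      rw [g00, g01, g02, mul_zero, mul_zero, add_zero, add_zero, mul_one]
      exact (abs_add_le _ _).trans (by linarith)
    · simp only [Fin.zero_eta, Fin.mk_one, Fin.reduceFinMk] at *
      rw [g10, g11, g12, mul_one, mul_zero, mul_zero, add_zero, add_zero]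
      exact (abs_add_le _ _).trans (by linarith)
    · simp only [Fin.zero_eta, Fin.mk_one, Fin.reduceFinMk] at *
      rw [g20, g21, g22, mul_one, mul_zero, mul_zero, add_zero, add_zero]
      exact (abs_add_le _ _).trans (by linarith)
  have q1 := signed (D := InK e c (dbl3 w) z) (F := q z) (f := e 1)
    (fun x τ ht k1 k2 => S.sl1 z hz hz' x τ ht k1 k2) p0 p1
  have q2 := signed (D := InK e c (dbl3 w) z) (F := q z) (f := e 2)
    (fun x τ ht k1 k2 => S.sl2 z hz hz' x τ ht k1 k2) p1 p2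
  have q3 := signed0 (D := InK e c (dbl3 w) z) (F := q z) (f := e 0)
    (fun x τ ht k1 k2 => S.st0 z hz hz' x τ ht k1 k2) p2 p3
  rw [hyx] at q3
  have s1 : w 0 / w 1 * |τ1| ≤ k * w 0 := by
    have : w 0 / w 1 * |τ1| ≤ w 0 / w 1 * (k * w 1) :=
      mul_le_mul_of_nonneg_left h1 (by positivity)
    refine this.trans (le_of_eq ?_)
    field_simp
  have s2 : w 0 / w 2 * |τ2| ≤ k * w 0 := by
    have : w 0 / w 2 * |τ2| ≤ w 0 / w 2 * (k * w 2) :=
      mul_le_mul_of_nonneg_left h2 (by positivity)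
    refine this.trans (le_of_eq ?_)
    field_simp
  have t0 := abs_le.1 hqx
  have t1 := abs_le.1 hqy
  have t2 := abs_le.1 (q1.trans s1)
  have t3 := abs_le.1 (q2.trans s2)
  have t4 : |q z y - q z (x + τ1 • e 1 + τ2 • e 2)| ≤ b + b' + 2 * (k * w 0) := by
    rw [abs_le]
    constructor <;> linarith [t0.1, t0.2, t1.1, t1.2, t2.1, t2.2, t3.1, t3.2]
  linarith

section
variable {qm qp : Fin 3 → ℝ} {L : ℕ → Ln4} {P : Finset ℕ} {cu cv : ℕ → ℕ} {Uf Vf : ℕ → Plk4}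
  {W M a w1 w2 z0 ρ r : ℝ}

open Classical in
/-- **hull count, thick copy of the sheet** -/
theorem hull_thick (h : Two1 qm qp L P cu cv Uf Vf W M a w1 w2 z0 ρ r)
    (hq : ∀ k, 0 ≤ qm k ∧ qm k ≤ qp k) {S : Plk4} (hS : Shp S z0 ρ r)
    (hd : Near W a S.a ∧ Near W w1 (S.w 1) ∧ Near W w2 (S.w 2)) {T : Ln4} (hT : InP T S z0 ρ)
    {lam b : ℝ} (hl : 0 < lam) (hlW : 2 * lam * W ^ 2 ≤ 1) (hb : r ≤ b) (hbw : b ≤ lam * S.w 0)
    {Q : Finset ℕ} (hQ : Q ⊆ P)
    (hQ' : ∀ s ∈ Q, ∀ z, z0 ≤ z → z ≤ z0 + ρ →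
      (∀ i, |dt (S.e i) ((L s).pos z - T.pos z)| ≤ lam * S.w i) ∧ |S.q z ((L s).pos z)| ≤ b) :
    (Q.card : ℝ) ≤ W * M * ph (qm 0) (qp 0) (b / a) := by
  have W1 := h.W1
  have W0 : 0 < W := by linarith
  have WW : 1 ≤ W ^ 2 := by nlinarith
  have hl2 : lam ≤ 1 / 2 := by nlinarith
  have hSw0 : 0 < S.w 0 := by
    have := hS.a_le0
    have h2 := hS.r0_le
    linarith [h.r0]
  have hSw2 : 0 < S.w 2 := hSw0.trans_le hS.w0_le
  have hSw1 : 0 < S.w 1 := hSw2.trans_le hS.w_le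
  have hw : ∀ k, 0 < S.w k := by
    intro k
    fin_cases k
    · exact hSw0
    · exact hSw1
    · exact hSw2
  have hleg : ShN S.e T (fun k => lam * S.w k) S.q b z0 ρ r :=
    shN_thick hS hw hl hl2 hb hbw (fun z h1 h2 => (hT z h1 h2).1)
  have hwρ : lam * S.w 1 ≤ ρ := by
    have h1 : S.w 1 ≤ W * w1 := hd.2.1.2
    have h2 := h.w1ρ
    have h3 : S.w 1 ≤ W ^ 2 * ρ := by
      calc S.w 1 ≤ W * w1 := h1
        _ ≤ W * (W * ρ) := mul_le_mul_of_nonneg_left h2 W0.le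
        _ = W ^ 2 * ρ := by ring
    calc lam * S.w 1 ≤ lam * (W ^ 2 * ρ) := mul_le_mul_of_nonneg_left h3 hl.le
      _ = (lam * W ^ 2) * ρ := by ring
      _ ≤ 1 * ρ := by
          apply mul_le_mul_of_nonneg_right _ h.ρ0.le
          nlinarith [mul_pos hl (by positivity : (0:ℝ) < W ^ 2)]
      _ = ρ := one_mul _
  have hdm := h.dmax ⟨S.j, S.e, T, fun k => lam * S.w k, S.q, b⟩ hleg hwρ
  have hsub : Q ⊆ P.filter fun t => InP (L t) ⟨S.j, S.e, T, fun k => lam * S.w k, S.q, b⟩ z0 ρ := by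
    intro s hs
    rw [Finset.mem_filter]
    refine ⟨hQ hs, fun z h1 h2 => ?_⟩
    obtain ⟨k1, k2⟩ := hQ' s hs z h1 h2
    exact ⟨fun i => k1 i, k2⟩
  have hc1 : (Q.card : ℝ) ≤ _ := (Nat.cast_le.2 (Finset.card_le_card hsub)).trans hdm
  refine hc1.trans ?_
  have hb0 : 0 < b := h.r0.trans_le hb
  have f1 : ph (qm 1) (qp 1) (lam * S.w 1 / w1) ≤ 1 := by
    refine (ph_le_narrow (hq 1).1 (hq 1).2 (by have := h.w10; positivity) ?_ le_rfl).trans
      (le_of_eq (Real.one_rpow _))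
    rw [div_le_one h.w10]
    have h1 : S.w 1 ≤ W * w1 := hd.2.1.2
    calc lam * S.w 1 ≤ lam * (W * w1) := mul_le_mul_of_nonneg_left h1 hl.le
      _ = (lam * W) * w1 := by ring
      _ ≤ 1 * w1 := by
          apply mul_le_mul_of_nonneg_right _ h.w10.le
          nlinarith [mul_pos hl W0]
      _ = w1 := one_mul _
  have f2 : ph (qm 2) (qp 2) (lam * S.w 2 / w2) ≤ 1 := by
    refine (ph_le_narrow (hq 2).1 (hq 2).2 (by have := h.w20; positivity) ?_ le_rfl).trans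
      (le_of_eq (Real.one_rpow _))
    rw [div_le_one h.w20]
    have h1 : S.w 2 ≤ W * w2 := hd.2.2.2
    calc lam * S.w 2 ≤ lam * (W * w2) := mul_le_mul_of_nonneg_left h1 hl.le
      _ = (lam * W) * w2 := by ring
      _ ≤ 1 * w2 := by
          apply mul_le_mul_of_nonneg_right _ h.w20.le
          nlinarith [mul_pos hl W0]
      _ = w2 := one_mul _
  have g0 : 0 ≤ ph (qm 0) (qp 0) (b / a) := ph_nonneg (div_nonneg hb0.le h.a0.le)
  have g1 : 0 ≤ ph (qm 1) (qp 1) (lam * S.w 1 / w1) := ph_nonneg (by have := h.w10; positivity)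
  have g2 : 0 ≤ ph (qm 2) (qp 2) (lam * S.w 2 / w2) := ph_nonneg (by have := h.w20; positivity)
  have hprod : phC qm qp a w1 w2 b (lam * S.w 1) (lam * S.w 2) ≤ ph (qm 0) (qp 0) (b / a) := by
    unfold phC
    calc _ ≤ ph (qm 0) (qp 0) (b / a) * 1 * 1 :=
          mul_le_mul (mul_le_mul_of_nonneg_left f1 g0) f2 g2 (by positivity)
      _ = _ := by ring
  exact mul_le_mul_of_nonneg_left hprod (mul_nonneg W0.le h.M0.le)

/-- **hull count**: lateral positions near `T`, `|q| ≤ b` with `b` small against `w 0` -/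
theorem hull_card (h : Two1 qm qp L P cu cv Uf Vf W M a w1 w2 z0 ρ r)
    (hq : ∀ k, 0 ≤ qm k ∧ qm k ≤ qp k) {S : Plk4} (hS : Shp S z0 ρ r)
    (hd : Near W a S.a ∧ Near W w1 (S.w 1) ∧ Near W w2 (S.w 2)) {T : Ln4} (hT : InP T S z0 ρ)
    {k b : ℝ} (hk : 0 < k) (hkW : 16 * k * W ^ 2 ≤ 1) (hb : S.a ≤ b) (hbw : b ≤ k * S.w 0)
    {Q : Finset ℕ} (hQ : Q ⊆ P)
    (hQ' : ∀ s ∈ Q, ∀ z, z0 ≤ z → z ≤ z0 + ρ →
      |dt (S.e 0) ((L s).pos z - T.pos z)| ≤ S.w 0 ∧
      |dt (S.e 1) ((L s).pos z - T.pos z)| ≤ k * S.w 1 ∧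
      |dt (S.e 2) ((L s).pos z - T.pos z)| ≤ k * S.w 2 ∧ |S.q z ((L s).pos z)| ≤ b) :
    (Q.card : ℝ) ≤ W * M * ph (qm 0) (qp 0) (b / a) := by
  have W1 := h.W1
  have WW : 1 ≤ W ^ 2 := by nlinarith
  have hk1 : k ≤ 1 := by nlinarith
  have hSw0 : 0 < S.w 0 := by
    have := hS.a_le0
    have h2 := hS.r0_le
    linarith [h.r0]
  have hSw2 : 0 < S.w 2 := hSw0.trans_le hS.w0_le
  have hSw1 : 0 < S.w 1 := hSw2.trans_le hS.w_le
  refine hull_thick h hq hS hd hT (lam := 8 * k) (by positivity) (by linarith)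
    (hS.r0_le.trans hb) (by nlinarith) hQ ?_
  intro s hs z h1 h2
  obtain ⟨k0, k1, k2, k3⟩ := hQ' s hs z h1 h2
  refine ⟨?_, k3⟩
  have hn := normal_pt hS h1 h2 (hT z h1 h2).1 hk1 k0 k1 k2 (hT z h1 h2).2 k3 hSw1 hSw2 hSw0.le
  intro i
  fin_cases i
  · show |dt (S.e 0) ((L s).pos z - T.pos z)| ≤ 8 * k * S.w 0
    linarith
  · show |dt (S.e 1) ((L s).pos z - T.pos z)| ≤ 8 * k * S.w 1
    nlinarith
  · show |dt (S.e 2) ((L s).pos z - T.pos z)| ≤ 8 * k * S.w 2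
    nlinarith

theorem isQ_flat (f : V3) (T : Ln4) : IsQ (fun z x => dt f (x - T.pos z)) := by
  refine ⟨-dt f T.p, -dt f T.v, 0, f, fun _ => 0, fun _ _ => 0, fun z x => ?_⟩
  simp only [dt, Ln4.pos, Fin.sum_univ_three, Pi.add_apply, Pi.smul_apply, Pi.sub_apply,
    smul_eq_mul, Pi.zero_apply]
  ring

/-- a flat box is a legal sheet -/
theorem shN_box {f : Fin 3 → V3} (hf : Ortho f) (T : Ln4) {x : V3} (hx : 0 ≤ x 0) (hr : r ≤ x 0)
    (h2 : x 0 ≤ x 2) (h1 : x 2 ≤ x 1) :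
    ShN f T x (fun z y => dt (f 0) (y - T.pos z)) (x 0) z0 ρ r := by
  have g00 : dt (f 0) (f 0) = 1 := by simpa using hf 0 0
  have g01 : dt (f 0) (f 1) = 0 := by simpa using hf 0 1
  have g02 : dt (f 0) (f 2) = 0 := by simpa using hf 0 2
  have e : ∀ (z : ℝ) (y g : V3) (τ : ℝ), dt (f 0) (y + τ • g - T.pos z) - dt (f 0) (y - T.pos z) =
      τ * dt (f 0) g := by
    intro z y g τ
    simp only [dt, Pi.add_apply, Pi.smul_apply, Pi.sub_apply, smul_eq_mul]; ring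
  refine ⟨hf, isQ_flat _ _, le_rfl, h2, h1, hr, ?_, ?_, ?_⟩
  · intro z _ _ y τ hτ _ _
    rw [e, g00, mul_one]; constructor <;> linarith
  · intro z _ _ y τ hτ _ _
    rw [e, g01, mul_zero, abs_zero]
    exact mul_nonneg (div_nonneg hx (by linarith)) hτ
  · intro z _ _ y τ hτ _ _
    rw [e, g02, mul_zero, abs_zero]
    exact mul_nonneg (div_nonneg hx (by linarith)) hτ

theorem seg_le {s t : Ln4} {g : V3} {x : ℝ} (h0 : |dt g (s.pos z0 - t.pos z0)| ≤ x)
    (h1 : |dt g (s.pos (z0 + ρ) - t.pos (z0 + ρ))| ≤ x) {z : ℝ} (hz : z0 ≤ z) (hz' : z ≤ z0 + ρ) :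
    |dt g (s.pos z - t.pos z)| ≤ x := by
  have e : ∀ z, dt g (s.pos z - t.pos z) = dt g (s.p - t.p) + z * dt g (s.v - t.v) := by
    intro z
    simp only [dt, Ln4.pos, Pi.add_apply, Pi.smul_apply, Pi.sub_apply, smul_eq_mul]; ring
  rw [e] at h0 h1 ⊢
  rw [abs_le] at h0 h1 ⊢
  rcases le_total 0 (dt g (s.v - t.v)) with h | h
  · have k1 := mul_le_mul_of_nonneg_right hz h
    have k2 := mul_le_mul_of_nonneg_right hz' h
    constructor <;> linarith [h0.1, h0.2, h1.1, h1.2]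
  · have k1 := mul_le_mul_of_nonpos_right hz h
    have k2 := mul_le_mul_of_nonpos_right hz' h
    constructor <;> linarith [h0.1, h0.2, h1.1, h1.2]

open Classical in
/-- **hull count, flat box** -/
theorem hull_flat (h : Two1 qm qp L P cu cv Uf Vf W M a w1 w2 z0 ρ r)
    {f : Fin 3 → V3} (hf : Ortho f) {T : Ln4} {x : V3} (hr : r ≤ x 0) (h02 : x 0 ≤ x 2)
    (h21 : x 2 ≤ x 1) (h1ρ : x 1 ≤ ρ) {Q : Finset ℕ} (hQ : Q ⊆ P)
    (hQ' : ∀ s ∈ Q, ∀ z, z0 ≤ z → z ≤ z0 + ρ → ∀ i, |dt (f i) ((L s).pos z - T.pos z)| ≤ x i) :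
    (Q.card : ℝ) ≤ W * M * phC qm qp a w1 w2 (x 0) (x 1) (x 2) := by
  have hx0 : 0 ≤ x 0 := h.r0.le.trans hr
  have hleg := shN_box (z0 := z0) (ρ := ρ) hf T hx0 hr h02 h21
  have hdm := h.dmax ⟨0, f, T, x, fun z y => dt (f 0) (y - T.pos z), x 0⟩ hleg h1ρ
  refine (Nat.cast_le.2 (Finset.card_le_card ?_)).trans hdm
  intro s hs
  rw [Finset.mem_filter]
  exact ⟨hQ hs, fun z h1 h2 => ⟨fun i => hQ' s hs z h1 h2 i, hQ' s hs z h1 h2 0⟩⟩

/-- cell of a line in the grid of the box `x` around `T` -/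
noncomputable def cdx (f : Fin 3 → V3) (x : V3) (T s : Ln4) (z : ℝ) (i : Fin 3) : ℤ :=
  ⌊dt (f i) (s.pos z - T.pos z) / x i⌋

theorem cdx_mem {f : Fin 3 → V3} {x : V3} {T s : Ln4} {z : ℝ} {i : Fin 3} {m : ℕ}
    (hx : 0 < x i) (h : |dt (f i) (s.pos z - T.pos z)| ≤ m * x i) :
    cdx f x T s z i ∈ Finset.Icc (-(m : ℤ)) (m : ℤ) := by
  have h1 : |dt (f i) (s.pos z - T.pos z) / x i| ≤ m := by
    rw [abs_div, abs_of_pos hx, div_le_iff₀ hx]; exact h
  rw [abs_le] at h1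
  rw [Finset.mem_Icc, cdx]
  constructor
  · rw [Int.le_floor]
    push_cast
    exact h1.1
  · have h2 := Int.floor_le_floor h1.2
    simpa using h2

theorem cdx_close {f : Fin 3 → V3} {x : V3} {T s t : Ln4} {z : ℝ} {i : Fin 3}
    (hx : 0 < x i) (h : cdx f x T s z i = cdx f x T t z i) :
    |dt (f i) (s.pos z - t.pos z)| ≤ x i := by
  have h1 := Int.abs_sub_lt_one_of_floor_eq_floor h
  have e1 : dt (f i) (s.pos z - T.pos z) / x i - dt (f i) (t.pos z - T.pos z) / x i =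
      dt (f i) (s.pos z - t.pos z) / x i := by
    simp only [dt, Pi.sub_apply]; ring
  rw [e1, abs_div, abs_of_pos hx, div_lt_one hx] at h1
  exact h1.le

open Classical in
/-- **hull count, wide flat box** (cover by `(2 m + 1)^6` small boxes) -/
theorem hull_wide (h : Two1 qm qp L P cu cv Uf Vf W M a w1 w2 z0 ρ r)
    {f : Fin 3 → V3} (hf : Ortho f) {T : Ln4} {x : V3} (hr : r ≤ x 0) (h02 : x 0 ≤ x 2)
    (h21 : x 2 ≤ x 1) (h1ρ : x 1 ≤ ρ) (m : ℕ) {Q : Finset ℕ} (hQ : Q ⊆ P)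
    (hQ' : ∀ s ∈ Q, ∀ z, z0 ≤ z → z ≤ z0 + ρ →
      ∀ i, |dt (f i) ((L s).pos z - T.pos z)| ≤ m * x i) :
    (Q.card : ℝ) ≤ (2 * m + 1) ^ 6 * (W * M * phC qm qp a w1 w2 (x 0) (x 1) (x 2)) := by
  have hx0 : 0 < x 0 := h.r0.trans_le hr
  have hx2 : 0 < x 2 := hx0.trans_le h02
  have hx1 : 0 < x 1 := hx2.trans_le h21
  have hx : ∀ i, 0 < x i := by
    intro i; fin_cases i
    · exact hx0
    · exact hx1
    · exact hx2
  set K : ℝ := W * M * phC qm qp a w1 w2 (x 0) (x 1) (x 2) with hK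
  have K0 : 0 ≤ K := by
    have := h.W1; have := h.M0
    have := phC_nonneg (qm := qm) (qp := qp) h.a0.le h.w10.le h.w20.le hx0.le hx1.le hx2.le
    positivity
  let cd : ℕ → (Fin 3 → ℤ) × (Fin 3 → ℤ) := fun s =>
    (fun i => cdx f x T (L s) z0 i, fun i => cdx f x T (L s) (z0 + ρ) i)
  have hfib : ∀ c ∈ Q.image cd, ((Q.filter fun s => cd s = c).card : ℕ) ≤ ⌊K⌋₊ := by
    intro c hc
    obtain ⟨s0, hs0, rfl⟩ := Finset.mem_image.1 hc
    refine Nat.le_floor ?_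
    refine hull_flat h hf (T := L s0) (x := x) hr h02 h21 h1ρ
      ((Finset.filter_subset _ _).trans hQ) ?_
    intro s hs z h1 h2 i
    obtain ⟨hs1, hs2⟩ := Finset.mem_filter.1 hs
    have k1 := congrFun (congrArg Prod.fst hs2) i
    have k2 := congrFun (congrArg Prod.snd hs2) i
    exact seg_le (cdx_close (hx i) k1) (cdx_close (hx i) k2) h1 h2
  have him : (Q.image cd).card ≤ (2 * m + 1) ^ 6 := by
    have hsub : Q.image cd ⊆ (Fintype.piFinset fun _ : Fin 3 => Finset.Icc (-(m : ℤ)) (m : ℤ)) ×ˢ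
        (Fintype.piFinset fun _ : Fin 3 => Finset.Icc (-(m : ℤ)) (m : ℤ)) := by
      intro c hc
      obtain ⟨s, hs, rfl⟩ := Finset.mem_image.1 hc
      rw [Finset.mem_product, Fintype.mem_piFinset, Fintype.mem_piFinset]
      have hρ := h.ρ0
      exact ⟨fun i => cdx_mem (hx i) (hQ' s hs z0 le_rfl (by linarith) i),
        fun i => cdx_mem (hx i) (hQ' s hs (z0 + ρ) (by linarith) le_rfl i)⟩
    refine (Finset.card_le_card hsub).trans (le_of_eq ?_)
    rw [Finset.card_product, Fintype.card_piFinset]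
    simp only [Int.card_Icc, Finset.prod_const, Finset.card_univ, Fintype.card_fin]
    have : ((m : ℤ) + 1 - -(m : ℤ)).toNat = 2 * m + 1 := by omega
    rw [this]; ring
  have h1 := Finset.card_le_mul_card_image Q ⌊K⌋₊ hfib
  have h2 : (Q.card : ℝ) ≤ (⌊K⌋₊ : ℝ) * ((Q.image cd).card : ℝ) := by exact_mod_cast h1
  have h3 : ((Q.image cd).card : ℝ) ≤ (2 * m + 1) ^ 6 := by exact_mod_cast him
  calc (Q.card : ℝ) ≤ (⌊K⌋₊ : ℝ) * ((Q.image cd).card : ℝ) := h2
    _ ≤ K * (2 * m + 1) ^ 6 := mul_le_mul (Nat.floor_le K0) h3 (Nat.cast_nonneg _) K0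
    _ = _ := by ring

end

end Crest.Agent.R136.Hc792
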