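import Crest.Agent.R136.Hcp3_208

/-!
# R136 (S0187), PLAN 2 (3), block (B): from `Two1` and closeness at the curvature extent to `Al`
(helper208)

* `al_of` : raw form; `cur` follows from the closeness at `K * kapP` and the failure at `E a`;
* `al_two` : over `Two1`, base sheet `U`; `al_two'` : base sheet `V`.
-/

set_option autoImplicit false
set_option linter.unusedVariables false

open Finset

namespace Crest.Agent.R136.Hcp208

open Crest.Agent.R136.Sh605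
open Crest.Agent.R136.K4 (Plk4)
open Crest.Agent.R136.Tlt51 (Shp InP)
open Crest.Agent.R136.Deep51 (CloseC)
open Crest.Agent.R136.Tl102 (angC)
open Crest.Agent.R136.KapP335 (kapP DetP)
open Crest.Agent.R136.Pl2W102 (Near Two1)

theorem closeC_mono {e : Fin 3 → V3} {w : V3} {q q' : ℝ → V3 → ℝ} {a E E' : ℝ} {T : Ln4}
    {z0 ρ : ℝ} (h : CloseC e w q a q' E T z0 ρ) (hE : E ≤ E') : CloseC e w q a q' E' T z0 ρ :=
  fun z h1 h2 x hx hq => (h z h1 h2 x hx hq).trans hE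

theorem near_mono {W K x y : ℝ} (h : Near W x y) (hK : W ≤ K) (hx : 0 ≤ x) (hy : 0 ≤ y) :
    Near K x y :=
  ⟨h.1.trans (mul_le_mul_of_nonneg_right hK hy), h.2.trans (mul_le_mul_of_nonneg_right hK hx)⟩

/-- **raw form** : `cl`, `cl'` = closeness up to `K * kapP S`, `far` = failure at `E a`. -/
theorem al_of {K E E' a w1 w2 z0 ρ r : ℝ} {S S' : Plk4} {T : Ln4} (hK : 1 ≤ K) (hr : 0 < r)
    (hρ : 0 < ρ) (ha : 0 < a) (hS : Shp S z0 ρ r) (hS' : Shp S' z0 ρ r) (hT : InP T S z0 ρ)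
    (hT' : InP T S' z0 ρ) (hd : Dims K a w1 w2 S) (hd' : Dims K a w1 w2 S')
    (hang : angC S S' * w1 ≤ K * w2) (hdet : DetP K⁻¹ S z0 ρ T)
    (cl : CloseC S.e S.w S.q S.a S'.q (K * kapP S z0 ρ T) T z0 ρ)
    (cl' : CloseC S'.e S'.w S'.q S'.a S.q (K * kapP S z0 ρ T) T z0 ρ)
    (hfar : ¬ (CloseC S.e S.w S.q S.a S'.q (E * a) T z0 ρ ∧
      CloseC S'.e S'.w S'.q S'.a S.q (E * a) T z0 ρ)) (hE : E' ≤ E) :
    Al K E' a w1 w2 z0 ρ r S S' T := by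
  have hcur : E * a ≤ K * kapP S z0 ρ T := by
    by_contra hcon
    have h1 := (not_le.1 hcon).le
    exact hfar ⟨closeC_mono cl h1, closeC_mono cl' h1⟩
  have hEa : E' * a ≤ E * a := mul_le_mul_of_nonneg_right hE ha.le
  exact
    { K1 := hK
      r0 := hr
      ρ0 := hρ
      a0 := ha
      sh := hS
      sh' := hS'
      mem := hT
      mem' := hT'
      dim := hd
      dim' := hd'
      ang := hang
      cur := hEa.trans hcur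
      det := hdet
      far := fun h => hfar ⟨closeC_mono h.1 hEa, closeC_mono h.2 hEa⟩ }

section

variable {qm qp : Fin 3 → ℝ} {L : ℕ → Ln4} {P : Finset ℕ} {cu cv : ℕ → ℕ} {Uf Vf : ℕ → Plk4}
  {W M a w1 w2 z0 ρ r : ℝ}

theorem dims_U (h : Two1 qm qp L P cu cv Uf Vf W M a w1 w2 z0 ρ r) {K : ℝ} (hK : W ≤ K) {t : ℕ}
    (ht : t ∈ P) : Dims K a w1 w2 (Uf (cu t)) := by
  obtain ⟨d0, d1, d2⟩ := h.dimU t ht
  have hS := h.shU t ht
  have hw0 : 0 < (Uf (cu t)).w 0 := h.r0.trans_le (hS.r0_le.trans hS.a_le0)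
  have hw2 : 0 < (Uf (cu t)).w 2 := hw0.trans_le hS.w0_le
  have hw1 : 0 < (Uf (cu t)).w 1 := hw2.trans_le hS.w_le
  exact ⟨near_mono d0 hK h.a0.le (h.r0.trans_le hS.r0_le).le, near_mono d1 hK h.w10.le hw1.le,
    near_mono d2 hK h.w20.le hw2.le⟩

theorem dims_V (h : Two1 qm qp L P cu cv Uf Vf W M a w1 w2 z0 ρ r) {K : ℝ} (hK : W ≤ K) {t : ℕ}
    (ht : t ∈ P) : Dims K a w1 w2 (Vf (cv t)) := by
  obtain ⟨d0, d1, d2⟩ := h.dimV t ht
  have hS := h.shV t ht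
  have hw0 : 0 < (Vf (cv t)).w 0 := h.r0.trans_le (hS.r0_le.trans hS.a_le0)
  have hw2 : 0 < (Vf (cv t)).w 2 := hw0.trans_le hS.w0_le
  have hw1 : 0 < (Vf (cv t)).w 1 := hw2.trans_le hS.w_le
  exact ⟨near_mono d0 hK h.a0.le (h.r0.trans_le hS.r0_le).le, near_mono d1 hK h.w10.le hw1.le,
    near_mono d2 hK h.w20.le hw2.le⟩

/-- over `Two1`, curved sheet = `U`, both closenesses at `K * kapP U` -/
theorem al_two (h : Two1 qm qp L P cu cv Uf Vf W M a w1 w2 z0 ρ r) {K E E' : ℝ} (hK : W ≤ K) {t : ℕ}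
    (ht : t ∈ P) (hang : angC (Uf (cu t)) (Vf (cv t)) * w1 ≤ K * w2)
    (hdet : DetP K⁻¹ (Uf (cu t)) z0 ρ (L t))
    (cl : CloseC (Uf (cu t)).e (Uf (cu t)).w (Uf (cu t)).q (Uf (cu t)).a (Vf (cv t)).q
      (K * kapP (Uf (cu t)) z0 ρ (L t)) (L t) z0 ρ)
    (cl' : CloseC (Vf (cv t)).e (Vf (cv t)).w (Vf (cv t)).q (Vf (cv t)).a (Uf (cu t)).q
      (K * kapP (Uf (cu t)) z0 ρ (L t)) (L t) z0 ρ)
    (hfar : ¬ (CloseC (Uf (cu t)).e (Uf (cu t)).w (Uf (cu t)).q (Uf (cu t)).a (Vf (cv t)).q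
      (E * a) (L t) z0 ρ ∧ CloseC (Vf (cv t)).e (Vf (cv t)).w (Vf (cv t)).q (Vf (cv t)).a
      (Uf (cu t)).q (E * a) (L t) z0 ρ)) (hE : E' ≤ E) :
    Al K E' a w1 w2 z0 ρ r (Uf (cu t)) (Vf (cv t)) (L t) :=
  al_of (h.W1.trans hK) h.r0 h.ρ0 h.a0 (h.shU t ht) (h.shV t ht) (h.inU t ht) (h.inV t ht)
    (dims_U h hK ht) (dims_V h hK ht) hang hdet cl cl' hfar hE

/-- over `Two1`, curved sheet = `V`, both closenesses at `K * kapP V` -/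
theorem al_two' (h : Two1 qm qp L P cu cv Uf Vf W M a w1 w2 z0 ρ r) {K E E' : ℝ} (hK : W ≤ K)
    {t : ℕ} (ht : t ∈ P) (hang : angC (Uf (cu t)) (Vf (cv t)) * w1 ≤ K * w2)
    (hdet : DetP K⁻¹ (Vf (cv t)) z0 ρ (L t))
    (cl : CloseC (Uf (cu t)).e (Uf (cu t)).w (Uf (cu t)).q (Uf (cu t)).a (Vf (cv t)).q
      (K * kapP (Vf (cv t)) z0 ρ (L t)) (L t) z0 ρ)
    (cl' : CloseC (Vf (cv t)).e (Vf (cv t)).w (Vf (cv t)).q (Vf (cv t)).a (Uf (cu t)).q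
      (K * kapP (Vf (cv t)) z0 ρ (L t)) (L t) z0 ρ)
    (hfar : ¬ (CloseC (Uf (cu t)).e (Uf (cu t)).w (Uf (cu t)).q (Uf (cu t)).a (Vf (cv t)).q
      (E * a) (L t) z0 ρ ∧ CloseC (Vf (cv t)).e (Vf (cv t)).w (Vf (cv t)).q (Vf (cv t)).a
      (Uf (cu t)).q (E * a) (L t) z0 ρ)) (hE : E' ≤ E) :
    Al K E' a w1 w2 z0 ρ r (Vf (cv t)) (Uf (cu t)) (L t) :=
  al_of (h.W1.trans hK) h.r0 h.ρ0 h.a0 (h.shV t ht) (h.shU t ht) (h.inV t ht) (h.inU t ht)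
    (dims_V h hK ht) (dims_U h hK ht) (by rw [angC_comm]; exact hang) hdet cl' cl
    (fun hh => hfar ⟨hh.2, hh.1⟩) hE

end

/-- **the case `E = H`** of `hcap_gb` needs only `1 ≤ H` : the two conditions on `H` are trivial. -/
theorem h_self (H : ℕ) : (H : ℝ) ≤ H ∧ (H : ℝ) ≤ 2 * (H : ℝ) :=
  ⟨le_rfl, by have : (0 : ℝ) ≤ H := Nat.cast_nonneg H; linarith⟩

end Crest.Agent.R136.Hcp208
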