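import Crest.Agent.R136.Hl2_706
import Crest.Agent.R136.Cbx2_140
import Crest.Agent.R136.Fl8_808

/-!
# R136 (S0187), U4 PLAN 2, leaf L5: the hull in the official uniform form `Dy` (helper706)

`Λ = 2^j`, `E = 2^k'`. Everything reachable from `S` (frame `e`) by a path `S - v - S''` all whose
determinants `det (e 1) (f0 1) (f 1)`, `det (e 1) (f 1) (g 1)` are at most `η Λ² E Y w2 / w1²` lies in
ONE box of half-widths `C (η + 1/Λ) Λ E Y`, `C w1`, `C Λ w2`.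
-/

set_option autoImplicit false
set_option linter.unusedVariables false

namespace Crest.Agent.R136.Hl706

open Finset Crest.Agent.R136.Sh605 Crest.Agent.R136.Fl808
open Crest.Agent.R136.Cbx140 (Tb Tw)

/-- length of the shadow of `u` on the plane of the axes `2, 0` of `e` -/
noncomputable def rr (e : Fin 3 → V3) (u : V3) : ℝ := Real.sqrt (dt (e 2) u ^ 2 + dt (e 0) u ^ 2)

theorem rr_nonneg (e : Fin 3 → V3) (u : V3) : 0 ≤ rr e u := Real.sqrt_nonneg _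
theorem rr_sq (e : Fin 3 → V3) (u : V3) : rr e u ^ 2 = dt (e 2) u ^ 2 + dt (e 0) u ^ 2 :=
  Real.sq_sqrt (by positivity)
theorem rr2 (e : Fin 3 → V3) (u : V3) : |dt (e 2) u| ≤ rr e u :=
  abs_le_of_sq_le_sq (by nlinarith [rr_sq e u, sq_nonneg (dt (e 0) u)]) (rr_nonneg _ _)
theorem rr0 (e : Fin 3 → V3) (u : V3) : |dt (e 0) u| ≤ rr e u :=
  abs_le_of_sq_le_sq (by nlinarith [rr_sq e u, sq_nonneg (dt (e 2) u)]) (rr_nonneg _ _)
theorem rr_le (e : Fin 3 → V3) (u : V3) : rr e u ≤ |dt (e 2) u| + |dt (e 0) u| := by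
  have h := rr_sq e u
  have h1 := rr_nonneg e u
  have h2 := abs_nonneg (dt (e 2) u)
  have h3 := abs_nonneg (dt (e 0) u)
  have h4 : rr e u ^ 2 ≤ (|dt (e 2) u| + |dt (e 0) u|) ^ 2 := by
    rw [h, ← sq_abs (dt (e 2) u), ← sq_abs (dt (e 0) u)]; nlinarith
  nlinarith [abs_le_of_sq_le_sq h4 (by positivity), abs_of_nonneg h1]

theorem rr_comm {e f : Fin 3 → V3} (he : Ortho e) (hf : Ortho f) : rr e (f 1) = rr f (e 1) := by
  unfold rr
  congr 1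
  have h1 := dt_expand he (f 1) (f 1)
  have h2 := dt_expand hf (e 1) (e 1)
  have u1 : dt (f 1) (f 1) = 1 := by have := hf 1 1; simpa using this
  have u2 : dt (e 1) (e 1) = 1 := by have := he 1 1; simpa using this
  rw [u1, dt_comm (f 1) (e 0), dt_comm (f 1) (e 1), dt_comm (f 1) (e 2)] at h1
  rw [u2, dt_comm (e 1) (f 0), dt_comm (e 1) (f 2), dt_comm (f 1) (e 1)] at h2
  nlinarith

/-- the wide axes make an angle `≥ Λ w2 / (2 w1)` (or `Λ = 1`) -/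
def SL (e f : Fin 3 → V3) (w1 w2 Λ : ℝ) : Prop := Λ = 1 ∨ Λ * w2 ≤ 2 * (w1 * rr e (f 1))

theorem SL.symm {e f : Fin 3 → V3} (he : Ortho e) (hf : Ortho f) {w1 w2 Λ : ℝ}
    (h : SL e f w1 w2 Λ) : SL f e w1 w2 Λ := by
  unfold SL at h ⊢
  rw [← rr_comm he hf]; exact h

theorem dy_SL {e f : Fin 3 → V3} {Y w1 w2 : ℝ} {j k' : ℕ} (h : Dy e f Y w1 w2 j k')
    (he : Ortho e) (hf : Ortho f) (hw1 : 0 ≤ w1) : SL e f w1 w2 (2 ^ j) ∧ SL f e w1 w2 (2 ^ j) := by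
  have key : SL f e w1 w2 (2 ^ j) := by
    rcases h.blo with h1 | h1 | h1
    · left; rw [h1, pow_zero]
    · right
      refine h1.trans ?_
      have := rr2 f (e 1)
      have : |dt (f 2) (e 1)| * w1 ≤ rr f (e 1) * w1 := by gcongr
      linarith
    · right
      refine h1.trans ?_
      have := rr0 f (e 1)
      have : |dt (f 0) (e 1)| * w1 ≤ rr f (e 1) * w1 := by gcongr
      linarith
  exact ⟨key.symm hf he, key⟩

/-- two steps: the shadow of the long axis -/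
theorem rr_two {e g : Fin 3 → V3} (he : Ortho e) (hg : Ortho g) {Y w1 w2 Λ E : ℝ} (hw1 : 0 < w1)
    (hΛ : 0 < Λ) (hw2 : 0 < w2) (h : Tw e g Y w1 w2 Λ E 10) :
    rr e (g 1) * w1 ≤ 15 * (Λ * w2) := by
  have h1 := h.a12
  have h2 := h.a10
  rw [rr_comm he hg]
  have h3 := rr_sq g (e 1)
  have h4 := rr_nonneg g (e 1)
  rw [dt_comm (g 2), dt_comm (g 0)] at h3
  have h5 : (rr g (e 1) * w1) ^ 2 ≤ (15 * (Λ * w2)) ^ 2 := by
    have a1 : (|dt (e 1) (g 2)| * w1) ^ 2 ≤ (10 * (Λ * w2)) ^ 2 := by gcongr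
    have a2 : (|dt (e 1) (g 0)| * w1) ^ 2 ≤ (10 * (Λ * w2)) ^ 2 := by gcongr
    rw [mul_pow, sq_abs] at a1 a2
    rw [mul_pow, h3]
    nlinarith [sq_nonneg (Λ * w2)]
  exact abs_le_of_sq_le_sq' h5 (by positivity) |>.2

/-- Cauchy-Schwarz for the shadows -/
theorem sh_le (e : Fin 3 → V3) (u v : V3) : |sh e u v| ≤ rr e u * rr e v := by
  have h1 := rr_sq e u
  have h2 := rr_sq e v
  refine abs_le_of_sq_le_sq ?_ (mul_nonneg (rr_nonneg _ _) (rr_nonneg _ _))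
  rw [mul_pow, h1, h2]
  unfold sh
  nlinarith [sq_nonneg (dt (e 2) u * dt (e 2) v + dt (e 0) u * dt (e 0) v)]

theorem tb_rr {e f : Fin 3 → V3} {Y w1 w2 Λ E : ℝ} (hw1 : 0 < w1) (hΛ : 0 < Λ) (hw2 : 0 < w2)
    (h : Tb e f Y w1 w2 Λ E) : rr e (f 1) * w1 ≤ 3 * (Λ * w2) := by
  have h1 := h.a21
  have h2 := h.a01
  have h3 := rr_sq e (f 1)
  have h4 := rr_nonneg e (f 1)
  have h5 : (rr e (f 1) * w1) ^ 2 ≤ (3 * (Λ * w2)) ^ 2 := by
    have a1 : (|dt (e 2) (f 1)| * w1) ^ 2 ≤ (2 * (Λ * w2)) ^ 2 := by gcongr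
    have a2 : (|dt (e 0) (f 1)| * w1) ^ 2 ≤ (2 * (Λ * w2)) ^ 2 := by gcongr
    rw [mul_pow, sq_abs] at a1 a2
    rw [mul_pow, h3]
    nlinarith [sq_nonneg (Λ * w2)]
  exact abs_le_of_sq_le_sq' h5 (by positivity) |>.2

set_option maxHeartbeats 1000000 in
/-- **the hull of the two-step star of `S`.** The box depends only on `e`, `f0`, `b`. -/
theorem hull_tb {e f0 : Fin 3 → V3} (he : Ortho e) (hf0 : Ortho f0) {Y w1 w2 Λ E z0 ρ : ℝ}
    (hY : 0 < Y) (hYw : Y ≤ w2) (hw : w2 ≤ w1) (hΛ : 1 ≤ Λ) (hE : 1 ≤ E)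
    (hlw : Λ * w2 ≤ 2 * w1) (h0 : Tb e f0 Y w1 w2 Λ E) (l0 : SL e f0 w1 w2 Λ) :
    ∃ c s : ℝ, c ^ 2 + s ^ 2 = 1 ∧
      ∀ (η : ℝ) (f g : Fin 3 → V3) (b b' b'' t1 t2 t : Ln4), 0 ≤ η → Ortho f → Ortho g →
        Tb e f Y w1 w2 Λ E → SL e f w1 w2 Λ → Tb f g Y w1 w2 Λ E →
        |det3 (e 1) (f0 1) (f 1)| * (w1 * w1) ≤ η * (Λ ^ 2 * E * (Y * w2)) →
        |det3 (e 1) (f 1) (g 1)| * (w1 * w1) ≤ η * (Λ ^ 2 * E * (Y * w2)) →
        InB t1 b e ![Y, w1, w2] z0 ρ → InB t1 b' f ![Y, w1, w2] z0 ρ →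
        InB t2 b' f ![Y, w1, w2] z0 ρ → InB t2 b'' g ![Y, w1, w2] z0 ρ →
        InB t b'' g ![Y, w1, w2] z0 ρ →
        InB t b (rotN e c s) ![2448 * ((η + 1 / Λ) * (Λ * E * Y)), 18 * w1, 270 * (Λ * w2)] z0 ρ := by
  have hw2 : 0 < w2 := hY.trans_le hYw
  have hw1 : 0 < w1 := hw2.trans_le hw
  have hΛ0 : 0 < Λ := by linarith
  have hE0 : 0 < E := by linarith
  have pB : 0 < Λ * w2 := by positivity
  have pE : 0 < E * Y := by positivity
  have hwP : w2 ≤ Λ * w2 := le_mul_of_one_le_left hw2.le hΛ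
  have hYE : Y ≤ E * Y := le_mul_of_one_le_left hY.le hE
  -- common end
  have fin : ∀ (c s η : ℝ), c ^ 2 + s ^ 2 = 1 → 0 ≤ η →
      |s| * w2 ≤ 136 * ((η + 1 / Λ) * (Λ * E * Y)) →
      ∀ (f g : Fin 3 → V3) (b b' b'' t1 t2 t : Ln4), Ortho f → Ortho g →
        Tb e f Y w1 w2 Λ E → Tw e g Y w1 w2 Λ E 10 →
        |c * dt (e 0) (f 1) - s * dt (e 2) (f 1)| * w1 ≤ 136 * ((η + 1 / Λ) * (Λ * E * Y)) →
        |c * dt (e 0) (g 1) - s * dt (e 2) (g 1)| * w1 ≤ 136 * ((η + 1 / Λ) * (Λ * E * Y)) →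
        InB t1 b e ![Y, w1, w2] z0 ρ → InB t1 b' f ![Y, w1, w2] z0 ρ →
        InB t2 b' f ![Y, w1, w2] z0 ρ → InB t2 b'' g ![Y, w1, w2] z0 ρ →
        InB t b'' g ![Y, w1, w2] z0 ρ →
        InB t b (rotN e c s) ![2448 * ((η + 1 / Λ) * (Λ * E * Y)), 18 * w1, 270 * (Λ * w2)] z0 ρ := by
    intro c s η hcs hη hs f g b b' b'' t1 t2 t hf hg hB hT hc1 hc2 i1 i1' i2' i2 it
    have hτ : (η + 1 / Λ) * (Λ * E * Y) = η * (Λ * E * Y) + E * Y := by field_simp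
    have hτ0 : 0 ≤ η * (Λ * E * Y) := by positivity
    have r1 := rr_two he hg hw1 hΛ0 hw2 hT
    have r2 : |dt (e 2) (g 1)| * w1 ≤ rr e (g 1) * w1 := by gcongr; exact rr2 _ _
    have r0 : |dt (e 0) (g 1)| * w1 ≤ rr e (g 1) * w1 := by gcongr; exact rr0 _ _
    have b1 := hB.t02
    have b2 := hB.a01
    have b3 := hB.a21
    have b4 := hT.t02
    have key := hull_box (e := e) (f := f) (g := g) he hf hg hcs (Y := Y) (w1 := w1) (w2 := w2)
      (τ := 136 * ((η + 1 / Λ) * (Λ * E * Y))) (P := 15 * (Λ * w2)) (z0 := z0) (ρ := ρ)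
      hY.le hYw hw (by rw [hτ]; linarith) (by linarith) hs hc1 (by rw [hτ]; linarith)
      (by linarith) (by linarith) hc2 (by rw [hτ]; linarith) (by linarith) (by linarith)
      i1 i1' i2' i2 it
    intro z hz hz' j
    have := key z hz hz' j
    fin_cases j
    · simp only [Fin.zero_eta, Matrix.cons_val_zero] at this ⊢
      linarith
    · simp only [Fin.mk_one, Matrix.cons_val_one, Matrix.cons_val_zero] at this ⊢
      linarith
    · simp only [Fin.reduceFinMk, Matrix.cons_val] at this ⊢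
      linarith
  by_cases hΛ1 : Λ = 1
  · -- `Λ = 1`
    refine ⟨1, 0, by norm_num, ?_⟩
    intro η f g b b' b'' t1 t2 t hη hf hg hB hL hB2 hd1 hd2 i1 i1' i2' i2 it
    have hτ : (η + 1 / Λ) * (Λ * E * Y) = η * (Λ * E * Y) + E * Y := by field_simp
    have hτ0 : 0 ≤ η * (Λ * E * Y) := by positivity
    have hT := Tb.comp he hf hg hw1 hw2 hY hΛ hE hlw hB hB2
    have b1 := hB.t01
    have b2 := hT.t01
    have e1 : Λ * E * Y = E * Y := by rw [hΛ1]; ring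
    rw [e1] at b1 b2
    refine fin 1 0 η (by norm_num) hη ?_ f g b b' b'' t1 t2 t hf hg hB hT ?_ ?_ i1 i1' i2' i2 it
    · rw [hτ, abs_zero, zero_mul]; linarith
    · rw [hτ, one_mul, zero_mul, sub_zero]; linarith
    · rw [hτ, one_mul, zero_mul, sub_zero]; linarith
  · have l0' : Λ * w2 ≤ 2 * (w1 * rr e (f0 1)) := l0.resolve_left hΛ1
    set r0 : ℝ := rr e (f0 1) with hr0
    have hr2 : r0 ^ 2 = dt (e 2) (f0 1) ^ 2 + dt (e 0) (f0 1) ^ 2 := rr_sq _ _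
    have hr00 : 0 ≤ r0 := rr_nonneg _ _
    have hr : 0 < r0 := by
      rcases hr00.lt_or_eq with h | h
      · exact h
      · exfalso; rw [← h] at l0'; linarith
    have hcs : (dt (e 2) (f0 1) / r0) ^ 2 + (dt (e 0) (f0 1) / r0) ^ 2 = 1 := by
      rw [div_pow, div_pow, ← add_div, ← hr2, div_self (by positivity)]
    refine ⟨dt (e 2) (f0 1) / r0, dt (e 0) (f0 1) / r0, hcs, ?_⟩
    intro η f g b b' b'' t1 t2 t hη hf hg hB hL hB2 hd1 hd2 i1 i1' i2' i2 it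
    have hL' : Λ * w2 ≤ 2 * (w1 * rr e (f 1)) := hL.resolve_left hΛ1
    have hτ : (η + 1 / Λ) * (Λ * E * Y) = η * (Λ * E * Y) + E * Y := by field_simp
    have hτ0 : 0 ≤ η * (Λ * E * Y) := by positivity
    have pD : 0 ≤ η * (Λ ^ 2 * E * (Y * w2)) := by positivity
    have hT := Tb.comp he hf hg hw1 hw2 hY hΛ hE hlw hB hB2
    have hrot : ∀ u : V3, |dt (e 2) (f0 1) / r0 * dt (e 0) u - dt (e 0) (f0 1) / r0 * dt (e 2) u| =
        |sh e (f0 1) u| / r0 := by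
      intro u
      have : dt (e 2) (f0 1) / r0 * dt (e 0) u - dt (e 0) (f0 1) / r0 * dt (e 2) u =
          sh e (f0 1) u / r0 := by unfold sh; ring
      rw [this, abs_div, abs_of_pos hr]
    have conv : ∀ {u : V3} {C : ℝ}, 0 ≤ C →
        |sh e (f0 1) u| * (w1 * w1) ≤ C * (η * (Λ ^ 2 * E * (Y * w2))) →
        |dt (e 2) (f0 1) / r0 * dt (e 0) u - dt (e 0) (f0 1) / r0 * dt (e 2) u| * w1 ≤
          2 * C * (η * (Λ * E * Y)) := by
      intro u C hC h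
      rw [hrot]
      have h1 : |sh e (f0 1) u| / r0 * w1 = |sh e (f0 1) u| * (w1 * w1) / (w1 * r0) := by
        field_simp
      rw [h1, div_le_iff₀ (by positivity)]
      calc |sh e (f0 1) u| * (w1 * w1) ≤ C * (η * (Λ ^ 2 * E * (Y * w2))) := h
        _ = C * (η * (Λ * E * Y)) * (Λ * w2) := by ring
        _ ≤ C * (η * (Λ * E * Y)) * (2 * (w1 * r0)) := by gcongr
        _ = _ := by ring
    have s1 : |sh e (f0 1) (f 1)| * (w1 * w1) ≤ 1 * (η * (Λ ^ 2 * E * (Y * w2))) := by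
      rw [← det3_frame he, one_mul]; exact hd1
    have s2 : |sh e (f 1) (g 1)| * (w1 * w1) ≤ η * (Λ ^ 2 * E * (Y * w2)) := by
      rw [← det3_frame he]; exact hd2
    -- the shadow of `g 1`
    have s3 : |sh e (f0 1) (g 1)| * (w1 * w1) ≤ 68 * (η * (Λ ^ 2 * E * (Y * w2))) := by
      have pl := sh_plucker e (f0 1) (f 1) (g 1)
      have a1 : (|dt (e 2) (f0 1)| + |dt (e 0) (f0 1)|) * w1 ≤ 4 * (Λ * w2) := by
        have := h0.a21; have := h0.a01; linarith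
      have r1 := rr_two he hg hw1 hΛ0 hw2 hT
      have r2' : |dt (e 2) (g 1)| * w1 ≤ rr e (g 1) * w1 := by gcongr; exact rr2 _ _
      have r0' : |dt (e 0) (g 1)| * w1 ≤ rr e (g 1) * w1 := by gcongr; exact rr0 _ _
      have a2 : (|dt (e 2) (g 1)| + |dt (e 0) (g 1)|) * w1 ≤ 30 * (Λ * w2) := by linarith
      have a3 : Λ * w2 ≤ 2 * ((|dt (e 2) (f 1)| + |dt (e 0) (f 1)|) * w1) := by
        have := rr_le e (f 1)
        calc Λ * w2 ≤ 2 * (w1 * rr e (f 1)) := hL'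
          _ ≤ 2 * (w1 * (|dt (e 2) (f 1)| + |dt (e 0) (f 1)|)) := by gcongr
          _ = _ := by ring
      have h1 : (Λ * w2) * (|sh e (f0 1) (g 1)| * (w1 * w1)) ≤
          (Λ * w2) * (68 * (η * (Λ ^ 2 * E * (Y * w2)))) := by
        calc (Λ * w2) * (|sh e (f0 1) (g 1)| * (w1 * w1)) ≤
            2 * ((|dt (e 2) (f 1)| + |dt (e 0) (f 1)|) * w1) * (|sh e (f0 1) (g 1)| * (w1 * w1)) := by
              gcongr
          _ = 2 * w1 * (w1 * w1) * ((|dt (e 2) (f 1)| + |dt (e 0) (f 1)|) * |sh e (f0 1) (g 1)|) := by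
              ring
          _ ≤ 2 * w1 * (w1 * w1) * ((|dt (e 2) (f0 1)| + |dt (e 0) (f0 1)|) * |sh e (f 1) (g 1)| +
              (|dt (e 2) (g 1)| + |dt (e 0) (g 1)|) * |sh e (f0 1) (f 1)|) := by gcongr
          _ = 2 * (((|dt (e 2) (f0 1)| + |dt (e 0) (f0 1)|) * w1) * (|sh e (f 1) (g 1)| * (w1 * w1)) +
              ((|dt (e 2) (g 1)| + |dt (e 0) (g 1)|) * w1) * (|sh e (f0 1) (f 1)| * (w1 * w1))) := by
              ring
          _ ≤ 2 * ((4 * (Λ * w2)) * (η * (Λ ^ 2 * E * (Y * w2))) +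
              (30 * (Λ * w2)) * (1 * (η * (Λ ^ 2 * E * (Y * w2))))) := by gcongr
          _ = _ := by ring
      exact le_of_mul_le_mul_left h1 pB
    have f1 := conv (u := f 1) (C := 1) (by norm_num) s1
    have g1 := conv (u := g 1) (C := 68) (by norm_num) s3
    have hs : |dt (e 0) (f0 1) / r0| * w2 ≤ 2 * (E * Y) := by
      rw [abs_div, abs_of_pos hr, div_mul_eq_mul_div, div_le_iff₀ hr]
      have h2 : |dt (e 0) (f0 1)| * w2 * w1 ≤ 2 * (E * Y) * r0 * w1 := by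
        calc |dt (e 0) (f0 1)| * w2 * w1 = (|dt (e 0) (f0 1)| * w1) * w2 := by ring
          _ ≤ (Λ * E * Y) * w2 := by have := h0.t01; gcongr
          _ = (E * Y) * (Λ * w2) := by ring
          _ ≤ (E * Y) * (2 * (w1 * r0)) := by gcongr
          _ = _ := by ring
      exact le_of_mul_le_mul_right h2 hw1
    refine fin _ _ η hcs hη ?_ f g b b' b'' t1 t2 t hf hg hB hT ?_ ?_ i1 i1' i2' i2 it
    · rw [hτ]; linarith
    · rw [hτ]; linarith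
    · rw [hτ]; linarith

/-- the thickness of the hull -/
noncomputable def tH (Y w2 Λ E η : ℝ) : ℝ :=
  min (2448 * ((η + 1 / Λ) * (Λ * E * Y))) (130000 * (Λ * w2))

theorem tH_le1 (Y w2 Λ E η : ℝ) : tH Y w2 Λ E η ≤ 2448 * ((η + 1 / Λ) * (Λ * E * Y)) :=
  min_le_left _ _
theorem tH_le2 (Y w2 Λ E η : ℝ) : tH Y w2 Λ E η ≤ 130000 * (Λ * w2) := min_le_right _ _
theorem tH_ge {Y w2 Λ E η : ℝ} (hY : 0 < Y) (hYw : Y ≤ w2) (hΛ : 1 ≤ Λ) (hE : 1 ≤ E)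
    (hη : 0 ≤ η) : Y ≤ tH Y w2 Λ E η := by
  have hΛ0 : 0 < Λ := by linarith
  have hE0 : 0 < E := by linarith
  have hw2 : 0 < w2 := hY.trans_le hYw
  have hτ : (η + 1 / Λ) * (Λ * E * Y) = η * (Λ * E * Y) + E * Y := by field_simp
  have hτ0 : 0 ≤ η * (Λ * E * Y) := by positivity
  have hwP : w2 ≤ Λ * w2 := le_mul_of_one_le_left hw2.le hΛ
  have hYE : Y ≤ E * Y := le_mul_of_one_le_left hY.le hE
  refine le_min ?_ ?_
  · rw [hτ]; linarith
  · linarith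

/-- **the hull of the two-step star of `S`, sorted** (`tH ≤ 130000 Λ w2 ≤ 260000 w1`), any `η ≥ 0`. -/
theorem hull_sorted {e f0 : Fin 3 → V3} (he : Ortho e) (hf0 : Ortho f0) {Y w1 w2 Λ E z0 ρ : ℝ}
    (hY : 0 < Y) (hYw : Y ≤ w2) (hw : w2 ≤ w1) (hΛ : 1 ≤ Λ) (hE : 1 ≤ E)
    (hlw : Λ * w2 ≤ 2 * w1) (hEY : E * Y ≤ 8 * w2) (h0 : Tb e f0 Y w1 w2 Λ E)
    (l0 : SL e f0 w1 w2 Λ) :
    ∃ n : Fin 3 → V3, Ortho n ∧
      ∀ (η : ℝ) (f g : Fin 3 → V3) (b b' b'' t1 t2 t : Ln4), 0 ≤ η → Ortho f → Ortho g →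
        Tb e f Y w1 w2 Λ E → SL e f w1 w2 Λ → Tb f g Y w1 w2 Λ E →
        |det3 (e 1) (f0 1) (f 1)| * (w1 * w1) ≤ η * (Λ ^ 2 * E * (Y * w2)) →
        |det3 (e 1) (f 1) (g 1)| * (w1 * w1) ≤ η * (Λ ^ 2 * E * (Y * w2)) →
        InB t1 b e ![Y, w1, w2] z0 ρ → InB t1 b' f ![Y, w1, w2] z0 ρ →
        InB t2 b' f ![Y, w1, w2] z0 ρ → InB t2 b'' g ![Y, w1, w2] z0 ρ →
        InB t b'' g ![Y, w1, w2] z0 ρ →
        InB t b n ![tH Y w2 Λ E η, 260000 * w1, 130000 * (Λ * w2)] z0 ρ := by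
  have hw2 : 0 < w2 := hY.trans_le hYw
  have hw1 : 0 < w1 := hw2.trans_le hw
  have hΛ0 : 0 < Λ := by linarith
  have hE0 : 0 < E := by linarith
  have pB : 0 < Λ * w2 := by positivity
  have pE : 0 < E * Y := by positivity
  have hwP : w2 ≤ Λ * w2 := le_mul_of_one_le_left hw2.le hΛ
  obtain ⟨c, s, hcs, H⟩ := hull_tb (z0 := z0) (ρ := ρ) he hf0 hY hYw hw hΛ hE hlw h0 l0
  refine ⟨rotN e c s, rotN_ortho he hcs, ?_⟩
  intro η f g b b' b'' t1 t2 t hη hf hg hB hL hB2 hd1 hd2 i1 i1' i2' i2 it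
  have k1 := H η f g b b' b'' t1 t2 t hη hf hg hB hL hB2 hd1 hd2 i1 i1' i2' i2 it
  have hT := Tb.comp he hf hg hw1 hw2 hY hΛ hE hlw hB hB2
  -- the trivial bound of the determinants
  have hη0 : 45 * w2 / (E * Y) * (Λ ^ 2 * E * (Y * w2)) = 45 * (Λ * w2) * (Λ * w2) := by
    field_simp
  have e1 : |det3 (e 1) (f0 1) (f 1)| * (w1 * w1) ≤
      45 * w2 / (E * Y) * (Λ ^ 2 * E * (Y * w2)) := by
    rw [hη0, det3_frame he]
    have a := sh_le e (f0 1) (f 1)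
    have b := tb_rr hw1 hΛ0 hw2 h0
    have c := tb_rr hw1 hΛ0 hw2 hB
    calc |sh e (f0 1) (f 1)| * (w1 * w1) ≤ rr e (f0 1) * rr e (f 1) * (w1 * w1) := by gcongr
      _ = (rr e (f0 1) * w1) * (rr e (f 1) * w1) := by ring
      _ ≤ (3 * (Λ * w2)) * (3 * (Λ * w2)) := by
        have := rr_nonneg e (f 1); gcongr
      _ ≤ _ := by nlinarith
  have e2 : |det3 (e 1) (f 1) (g 1)| * (w1 * w1) ≤
      45 * w2 / (E * Y) * (Λ ^ 2 * E * (Y * w2)) := by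
    rw [hη0, det3_frame he]
    have a := sh_le e (f 1) (g 1)
    have b := tb_rr hw1 hΛ0 hw2 hB
    have c := rr_two he hg hw1 hΛ0 hw2 hT
    calc |sh e (f 1) (g 1)| * (w1 * w1) ≤ rr e (f 1) * rr e (g 1) * (w1 * w1) := by gcongr
      _ = (rr e (f 1) * w1) * (rr e (g 1) * w1) := by ring
      _ ≤ (3 * (Λ * w2)) * (15 * (Λ * w2)) := by
        have := rr_nonneg e (g 1); gcongr
      _ = _ := by ring
  have k2 := H (45 * w2 / (E * Y)) f g b b' b'' t1 t2 t (by positivity) hf hg hB hL hB2 e1 e2 i1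
    i1' i2' i2 it
  have hτ : 2448 * ((45 * w2 / (E * Y) + 1 / Λ) * (Λ * E * Y)) ≤ 130000 * (Λ * w2) := by
    have : (45 * w2 / (E * Y) + 1 / Λ) * (Λ * E * Y) = 45 * (Λ * w2) + E * Y := by
      field_simp
    rw [this]; linarith
  intro z hz hz' i
  have a1 := k1 z hz hz' i
  have a2 := k2 z hz hz' i
  fin_cases i
  · simp only [Fin.zero_eta, Matrix.cons_val_zero] at a1 a2 ⊢
    exact le_min a1 (a2.trans hτ)
  · simp only [Fin.mk_one, Matrix.cons_val_one, Matrix.cons_val_zero] at a1 a2 ⊢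
    linarith
  · simp only [Fin.reduceFinMk, Matrix.cons_val] at a1 a2 ⊢
    linarith

end Crest.Agent.R136.Hl706
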