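import Crest.Agent.R136.Hl4_706

/-!
# R136 (S0187), U4 PLAN 2, leaf C4: the hull with 372's constants (helper706)
-/

set_option autoImplicit false
set_option linter.unusedVariables false

namespace Crest.Agent.R136.Hl706

open Finset Crest.Agent.R136.Sh605 Crest.Agent.R136.Fl808
open Crest.Agent.R136.Cbx140 (Tb Tw)

theorem rr_ge (e : Fin 3 → V3) (u : V3) : |dt (e 2) u| + |dt (e 0) u| ≤ 2 * rr e u := by
  have := rr2 e u
  have := rr0 e u
  linarith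

/-- trivial bound of the components of a segment -/
theorem triv {n g : Fin 3 → V3} (hn : Ortho n) (hg : Ortho g) {Y w1 w2 k : ℝ} (hk : 0 ≤ k)
    (hYw : Y ≤ w2) (hw : w2 ≤ w1) (hY : 0 ≤ Y) {x : V3}
    (hx : ∀ i, |dt (g i) x| ≤ k * (![Y, w1, w2] : V3) i) (i : Fin 3) :
    |dt (n i) x| ≤ 3 * (k * w1) := by
  have hx0 : |dt (g 0) x| ≤ k * Y := hx 0
  have hx1 : |dt (g 1) x| ≤ k * w1 := hx 1
  have hx2 : |dt (g 2) x| ≤ k * w2 := hx 2
  have h := comp_le hg (n i) hx0 hx1 hx2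
  have q0 := abs_dt_le_one hg hn i 0
  have q1 := abs_dt_le_one hg hn i 1
  have q2 := abs_dt_le_one hg hn i 2
  have w20 : 0 ≤ w2 := hY.trans hYw
  have w10 : 0 ≤ w1 := w20.trans hw
  have a0 : |dt (n i) (g 0)| * (k * Y) ≤ 1 * (k * w1) := by
    have : Y ≤ w1 := hYw.trans hw
    gcongr
  have a1 : |dt (n i) (g 1)| * (k * w1) ≤ 1 * (k * w1) := by gcongr
  have a2 : |dt (n i) (g 2)| * (k * w2) ≤ 1 * (k * w1) := by gcongr
  linarith

/-- narrow half-width of the hull -/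
noncomputable def xN (w1 w2 Λ : ℝ) : ℝ := min (2200000 * (Λ * w2)) (20 * w1)
/-- thickness of the hull -/
noncomputable def xT (Y w1 w2 Λ E η : ℝ) : ℝ :=
  min (40000 * ((η + 1 / Λ) * (Λ * E * Y))) (xN w1 w2 Λ)

theorem xT_le (Y w1 w2 Λ E η : ℝ) : xT Y w1 w2 Λ E η ≤ 40000 * ((η + 1 / Λ) * (Λ * E * Y)) :=
  min_le_left _ _
theorem xT_N (Y w1 w2 Λ E η : ℝ) : xT Y w1 w2 Λ E η ≤ xN w1 w2 Λ := min_le_right _ _
theorem xN_le (w1 w2 Λ : ℝ) : xN w1 w2 Λ ≤ 2200000 * (Λ * w2) := min_le_left _ _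
theorem xN_w1 {w1 w2 Λ : ℝ} (hw1 : 0 ≤ w1) : xN w1 w2 Λ ≤ 10 ^ 6 * w1 :=
  (min_le_right _ _).trans (by nlinarith)
theorem xN_ge {w1 w2 Λ : ℝ} (hw2 : 0 ≤ w2) (hw : w2 ≤ w1) (hΛ : 1 ≤ Λ) : w2 ≤ xN w1 w2 Λ := by
  refine le_min ?_ ?_
  · have : w2 ≤ Λ * w2 := le_mul_of_one_le_left hw2 hΛ
    linarith
  · linarith
theorem xT_ge {Y w1 w2 Λ E η : ℝ} (hY : 0 ≤ Y) (hYw : Y ≤ w2) (hw : w2 ≤ w1) (hΛ : 1 ≤ Λ)
    (hE : 1 ≤ E) (hη : 0 ≤ η) : Y ≤ xT Y w1 w2 Λ E η := by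
  refine le_min ?_ (hYw.trans (xN_ge (hY.trans hYw) hw hΛ))
  have hΛ0 : 0 < Λ := by linarith
  have hE0 : 0 < E := by linarith
  have hτ : (η + 1 / Λ) * (Λ * E * Y) = η * (Λ * E * Y) + E * Y := by field_simp
  have hτ0 : 0 ≤ η * (Λ * E * Y) := by positivity
  have hYE : Y ≤ E * Y := le_mul_of_one_le_left hY hE
  rw [hτ]; linarith

set_option maxHeartbeats 1600000 in
/-- **the hull of the two-step star of `S`**, lower bound of the tilt with the constant `8`. -/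
theorem hull8 {e f0 : Fin 3 → V3} (he : Ortho e) (hf0 : Ortho f0) {Y w1 w2 Λ E z0 ρ : ℝ}
    (hY : 0 < Y) (hYw : Y ≤ w2) (hw : w2 ≤ w1) (hΛ : 1 ≤ Λ) (hE : 1 ≤ E)
    (hlw : Λ * w2 ≤ 2 * w1) (hEY : E * Y ≤ 8 * w2) (h0 : Tb e f0 Y w1 w2 Λ E)
    (l0' : Λ * w2 ≤ 8 * (w1 * rr e (f0 1))) :
    ∃ n : Fin 3 → V3, Ortho n ∧
      ∀ (η : ℝ) (f g : Fin 3 → V3) (b b' b'' t1 t2 t : Ln4), 0 ≤ η → Ortho f → Ortho g →
        Tb e f Y w1 w2 Λ E → Λ * w2 ≤ 8 * (w1 * rr e (f 1)) → Tb f g Y w1 w2 Λ E →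
        |det3 (e 1) (f0 1) (f 1)| * (w1 * w1) ≤ η * (Λ ^ 2 * E * (Y * w2)) →
        |det3 (e 1) (f 1) (g 1)| * (w1 * w1) ≤ η * (Λ ^ 2 * E * (Y * w2)) →
        InB t1 b e ![Y, w1, w2] z0 ρ → InB t1 b' f ![Y, w1, w2] z0 ρ →
        InB t2 b' f ![Y, w1, w2] z0 ρ → InB t2 b'' g ![Y, w1, w2] z0 ρ →
        InB t b'' g ![Y, w1, w2] z0 ρ →
        InB t b n ![xT Y w1 w2 Λ E η, 10 ^ 6 * w1, xN w1 w2 Λ] z0 ρ := by
  have hw2 : 0 < w2 := hY.trans_le hYw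
  have hw1 : 0 < w1 := hw2.trans_le hw
  have hΛ0 : 0 < Λ := by linarith
  have hE0 : 0 < E := by linarith
  have pB : 0 < Λ * w2 := by positivity
  have pE : 0 < E * Y := by positivity
  have hwP : w2 ≤ Λ * w2 := le_mul_of_one_le_left hw2.le hΛ
  have hYE : Y ≤ E * Y := le_mul_of_one_le_left hY.le hE
  set r0 : ℝ := rr e (f0 1) with hr0
  have hr2 : r0 ^ 2 = dt (e 2) (f0 1) ^ 2 + dt (e 0) (f0 1) ^ 2 := rr_sq _ _
  have hr00 : 0 ≤ r0 := rr_nonneg _ _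
  have hr : 0 < r0 := by
    rcases hr00.lt_or_eq with h | h
    · exact h
    · exfalso; rw [← h] at l0'; linarith
  have hcs : (dt (e 2) (f0 1) / r0) ^ 2 + (dt (e 0) (f0 1) / r0) ^ 2 = 1 := by
    rw [div_pow, div_pow, ← add_div, ← hr2, div_self (by positivity)]
  set c : ℝ := dt (e 2) (f0 1) / r0 with hc
  set s : ℝ := dt (e 0) (f0 1) / r0 with hs'
  have hR := rotN_ortho he hcs
  have hrot : ∀ u : V3, |c * dt (e 0) u - s * dt (e 2) u| = |sh e (f0 1) u| / r0 := by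
    intro u
    have : c * dt (e 0) u - s * dt (e 2) u = sh e (f0 1) u / r0 := by
      rw [hc, hs']; unfold sh; ring
    rw [this, abs_div, abs_of_pos hr]
  have hs : |s| * w2 ≤ 8 * (E * Y) := by
    rw [hs', abs_div, abs_of_pos hr, div_mul_eq_mul_div, div_le_iff₀ hr]
    have h2 : |dt (e 0) (f0 1)| * w2 * w1 ≤ 8 * (E * Y) * r0 * w1 := by
      calc |dt (e 0) (f0 1)| * w2 * w1 = (|dt (e 0) (f0 1)| * w1) * w2 := by ring
        _ ≤ (Λ * E * Y) * w2 := by have := h0.t01; gcongr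
        _ = (E * Y) * (Λ * w2) := by ring
        _ ≤ (E * Y) * (8 * (w1 * r0)) := by gcongr
        _ = _ := by ring
    exact le_of_mul_le_mul_right h2 hw1
  -- the box with one `η`
  have H : ∀ (η : ℝ) (f g : Fin 3 → V3) (b b' b'' t1 t2 t : Ln4), 0 ≤ η → Ortho f → Ortho g →
        Tb e f Y w1 w2 Λ E → Λ * w2 ≤ 8 * (w1 * rr e (f 1)) → Tw e g Y w1 w2 Λ E 10 →
        |det3 (e 1) (f0 1) (f 1)| * (w1 * w1) ≤ η * (Λ ^ 2 * E * (Y * w2)) →
        |det3 (e 1) (f 1) (g 1)| * (w1 * w1) ≤ η * (Λ ^ 2 * E * (Y * w2)) →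
        InB t1 b e ![Y, w1, w2] z0 ρ → InB t1 b' f ![Y, w1, w2] z0 ρ →
        InB t2 b' f ![Y, w1, w2] z0 ρ → InB t2 b'' g ![Y, w1, w2] z0 ρ →
        InB t b'' g ![Y, w1, w2] z0 ρ →
        InB t b (rotN e c s) ![18 * (2176 * ((η + 1 / Λ) * (Λ * E * Y))), 18 * w1,
          18 * (15 * (Λ * w2))] z0 ρ := by
    intro η f g b b' b'' t1 t2 t hη hf hg hB hL' hT hd1 hd2 i1 i1' i2' i2 it
    have hτ : (η + 1 / Λ) * (Λ * E * Y) = η * (Λ * E * Y) + E * Y := by field_simp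
    have hτ0 : 0 ≤ η * (Λ * E * Y) := by positivity
    have pD : 0 ≤ η * (Λ ^ 2 * E * (Y * w2)) := by positivity
    have conv : ∀ {u : V3} {C : ℝ}, 0 ≤ C →
        |sh e (f0 1) u| * (w1 * w1) ≤ C * (η * (Λ ^ 2 * E * (Y * w2))) →
        |c * dt (e 0) u - s * dt (e 2) u| * w1 ≤ 8 * C * (η * (Λ * E * Y)) := by
      intro u C hC h
      rw [hrot]
      have h1 : |sh e (f0 1) u| / r0 * w1 = |sh e (f0 1) u| * (w1 * w1) / (w1 * r0) := by
        field_simp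
      rw [h1, div_le_iff₀ (by positivity)]
      calc |sh e (f0 1) u| * (w1 * w1) ≤ C * (η * (Λ ^ 2 * E * (Y * w2))) := h
        _ = C * (η * (Λ * E * Y)) * (Λ * w2) := by ring
        _ ≤ C * (η * (Λ * E * Y)) * (8 * (w1 * r0)) := by gcongr
        _ = _ := by ring
    have s1 : |sh e (f0 1) (f 1)| * (w1 * w1) ≤ 1 * (η * (Λ ^ 2 * E * (Y * w2))) := by
      rw [← det3_frame he, one_mul]; exact hd1
    have s2 : |sh e (f 1) (g 1)| * (w1 * w1) ≤ η * (Λ ^ 2 * E * (Y * w2)) := by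
      rw [← det3_frame he]; exact hd2
    have r1 := rr_two he hg hw1 hΛ0 hw2 hT
    have r2' : |dt (e 2) (g 1)| * w1 ≤ rr e (g 1) * w1 := by gcongr; exact rr2 _ _
    have r0' : |dt (e 0) (g 1)| * w1 ≤ rr e (g 1) * w1 := by gcongr; exact rr0 _ _
    have s3 : |sh e (f0 1) (g 1)| * (w1 * w1) ≤ 272 * (η * (Λ ^ 2 * E * (Y * w2))) := by
      have pl := sh_plucker e (f0 1) (f 1) (g 1)
      have a1 : (|dt (e 2) (f0 1)| + |dt (e 0) (f0 1)|) * w1 ≤ 4 * (Λ * w2) := by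
        have := h0.a21; have := h0.a01; linarith
      have a2 : (|dt (e 2) (g 1)| + |dt (e 0) (g 1)|) * w1 ≤ 30 * (Λ * w2) := by linarith
      have a3 : Λ * w2 ≤ 8 * ((|dt (e 2) (f 1)| + |dt (e 0) (f 1)|) * w1) := by
        have := rr_le e (f 1)
        calc Λ * w2 ≤ 8 * (w1 * rr e (f 1)) := hL'
          _ ≤ 8 * (w1 * (|dt (e 2) (f 1)| + |dt (e 0) (f 1)|)) := by gcongr
          _ = _ := by ring
      have h1 : (Λ * w2) * (|sh e (f0 1) (g 1)| * (w1 * w1)) ≤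
          (Λ * w2) * (272 * (η * (Λ ^ 2 * E * (Y * w2)))) := by
        calc (Λ * w2) * (|sh e (f0 1) (g 1)| * (w1 * w1)) ≤
            8 * ((|dt (e 2) (f 1)| + |dt (e 0) (f 1)|) * w1) * (|sh e (f0 1) (g 1)| * (w1 * w1)) := by
              gcongr
          _ = 8 * w1 * (w1 * w1) * ((|dt (e 2) (f 1)| + |dt (e 0) (f 1)|) * |sh e (f0 1) (g 1)|) := by
              ring
          _ ≤ 8 * w1 * (w1 * w1) * ((|dt (e 2) (f0 1)| + |dt (e 0) (f0 1)|) * |sh e (f 1) (g 1)| +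
              (|dt (e 2) (g 1)| + |dt (e 0) (g 1)|) * |sh e (f0 1) (f 1)|) := by gcongr
          _ = 8 * (((|dt (e 2) (f0 1)| + |dt (e 0) (f0 1)|) * w1) * (|sh e (f 1) (g 1)| * (w1 * w1)) +
              ((|dt (e 2) (g 1)| + |dt (e 0) (g 1)|) * w1) * (|sh e (f0 1) (f 1)| * (w1 * w1))) := by
              ring
          _ ≤ 8 * ((4 * (Λ * w2)) * (η * (Λ ^ 2 * E * (Y * w2))) +
              (30 * (Λ * w2)) * (1 * (η * (Λ ^ 2 * E * (Y * w2))))) := by gcongr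
          _ = _ := by ring
      exact le_of_mul_le_mul_left h1 pB
    have f1 := conv (u := f 1) (C := 1) (by norm_num) s1
    have g1 := conv (u := g 1) (C := 272) (by norm_num) s3
    have b1 := hB.t02
    have b2 := hB.a01
    have b3 := hB.a21
    have b4 := hT.t02
    exact hull_box (e := e) (f := f) (g := g) he hf hg hcs (Y := Y) (w1 := w1) (w2 := w2)
      (τ := 2176 * ((η + 1 / Λ) * (Λ * E * Y))) (P := 15 * (Λ * w2)) (z0 := z0) (ρ := ρ)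
      hY.le hYw hw (by rw [hτ]; linarith) (by linarith) (by rw [hτ]; linarith)
      (by rw [hτ]; linarith) (by rw [hτ]; linarith)
      (by linarith) (by linarith) (by rw [hτ]; linarith) (by rw [hτ]; linarith) (by linarith)
      (by linarith) i1 i1' i2' i2 it
  refine ⟨rotN e c s, hR, ?_⟩
  intro η f g b b' b'' t1 t2 t hη hf hg hB hL hB2 hd1 hd2 i1 i1' i2' i2 it
  have hT := Tb.comp he hf hg hw1 hw2 hY hΛ hE hlw hB hB2
  have k1 := H η f g b b' b'' t1 t2 t hη hf hg hB hL hT hd1 hd2 i1 i1' i2' i2 it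
  -- the trivial bound of the determinants
  have hη0 : 45 * w2 / (E * Y) * (Λ ^ 2 * E * (Y * w2)) = 45 * (Λ * w2) * (Λ * w2) := by
    field_simp
  have e1 : |det3 (e 1) (f0 1) (f 1)| * (w1 * w1) ≤
      45 * w2 / (E * Y) * (Λ ^ 2 * E * (Y * w2)) := by
    rw [hη0, det3_frame he]
    have a := sh_le e (f0 1) (f 1)
    have b := tb_rr hw1 hΛ0 hw2 h0
    have c := tb_rr hw1 hΛ0 hw2 hB
    calc |sh e (f0 1) (f 1)| * (w1 * w1) ≤ rr e (f0 1) * rr e (f 1) * (w1 * w1) := by gcongr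
      _ = (rr e (f0 1) * w1) * (rr e (f 1) * w1) := by ring
      _ ≤ (3 * (Λ * w2)) * (3 * (Λ * w2)) := by
        have := rr_nonneg e (f 1); gcongr
      _ ≤ _ := by nlinarith
  have e2 : |det3 (e 1) (f 1) (g 1)| * (w1 * w1) ≤
      45 * w2 / (E * Y) * (Λ ^ 2 * E * (Y * w2)) := by
    rw [hη0, det3_frame he]
    have a := sh_le e (f 1) (g 1)
    have b := tb_rr hw1 hΛ0 hw2 hB
    have c := rr_two he hg hw1 hΛ0 hw2 hT
    calc |sh e (f 1) (g 1)| * (w1 * w1) ≤ rr e (f 1) * rr e (g 1) * (w1 * w1) := by gcongr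
      _ = (rr e (f 1) * w1) * (rr e (g 1) * w1) := by ring
      _ ≤ (3 * (Λ * w2)) * (15 * (Λ * w2)) := by
        have := rr_nonneg e (g 1); gcongr
      _ = _ := by ring
  have k2 := H (45 * w2 / (E * Y)) f g b b' b'' t1 t2 t (by positivity) hf hg hB hL hT e1 e2 i1
    i1' i2' i2 it
  have hτ : 18 * (2176 * ((45 * w2 / (E * Y) + 1 / Λ) * (Λ * E * Y))) ≤ 2200000 * (Λ * w2) := by
    have : (45 * w2 / (E * Y) + 1 / Λ) * (Λ * E * Y) = 45 * (Λ * w2) + E * Y := by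
      field_simp
    rw [this]; linarith
  intro z hz hz' i
  have a1 := k1 z hz hz' i
  have a2 := k2 z hz hz' i
  -- the trivial bound
  have a3 : |dt (rotN e c s i) (t.pos z - b.pos z)| ≤ 20 * w1 := by
    have q1 := triv hR hg (k := 2) (by norm_num) hYw hw hY.le
      (x := t.pos z - t2.pos z) (fun i => diff2 it i2 hz hz' i) i
    have q2 := triv hR hf (k := 2) (by norm_num) hYw hw hY.le
      (x := t2.pos z - t1.pos z) (fun i => diff2 i2' i1' hz hz' i) i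
    have q3 := triv hR he (k := 1) (by norm_num) hYw hw hY.le
      (x := t1.pos z - b.pos z) (fun i => by rw [one_mul]; exact i1 z hz hz' i) i
    have : t.pos z - b.pos z = (t.pos z - t2.pos z) + (t2.pos z - t1.pos z) +
      (t1.pos z - b.pos z) := by abel
    rw [this, dt_add, dt_add]
    refine (abs_add_le _ _).trans ((add_le_add (abs_add_le _ _) le_rfl).trans ?_)
    linarith
  have hA0 : 0 ≤ (η + 1 / Λ) * (Λ * E * Y) := by positivity
  fin_cases i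
  · simp only [Fin.zero_eta, Matrix.cons_val_zero] at a1 a2 a3 ⊢
    exact le_min (a1.trans (by linarith)) (le_min (a2.trans hτ) a3)
  · simp only [Fin.mk_one, Matrix.cons_val_one, Matrix.cons_val_zero] at a1 a2 a3 ⊢
    linarith
  · simp only [Fin.reduceFinMk, Matrix.cons_val] at a1 a2 a3 ⊢
    exact le_min (a1.trans (by linarith)) a3

end Crest.Agent.R136.Hl706
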