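import Crest.Agent.R136.Amx3_325
import Crest.Agent.R136.Fh1_792
import Crest.Agent.R136.Fsm_104
import Crest.Agent.R136.Alr_877

/-!
# R136 (S0187), PLAN 2 (AL) (A): hull counts for mixed curvatures (helper104)

`hull_gen` : `Two1`, `Al1 W` and `kp U ~ Y` on `P` ⊢ the hull counts in one and two steps.
`hullMx : Amx325.HullMx`.
-/

set_option autoImplicit false
set_option linter.unusedVariables false

open Finset

namespace Crest.Agent.R136.Hmx104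

open Crest.Agent.R136.Sh605 Crest.Agent.R136.Fl808
open Crest.Agent.R136.K4 (Plk4)
open Crest.Agent.R136.Tlt51 (Shp InP)
open Crest.Agent.R136.Tl102 (angC)
open Crest.Agent.R136.Pl2W102 (Near Ex2 Two1)
open Crest.Agent.R136.Pl2 (FH FL kp Two7 Al1)
open Crest.Agent.R136.Hul412 (Aln)
open Crest.Agent.R136.Fh792 (FD Bh bh_num)

theorem fh_chg {C C' Y Y' z0 ρ : ℝ} {S : Plk4} {f : Fin 3 → V3} (h : FH C Y S f z0 ρ)
    (hC : C ≤ C') (hY : C * Y ≤ C' * Y') (hw1 : 0 ≤ S.w 1) (hw2 : 0 ≤ S.w 2) :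
    FH C' Y' S f z0 ρ := by
  have k1 : C * S.w 2 ≤ C' * S.w 2 := mul_le_mul_of_nonneg_right hC hw2
  have k2 : C * S.w 1 ≤ C' * S.w 1 := mul_le_mul_of_nonneg_right hC hw1
  refine ⟨h.ortho, h.e01.trans k1, h.e10.trans k1, h.e12.trans k1, h.e21.trans k1,
    h.e00.trans (mul_le_mul_of_nonneg_right hC (abs_nonneg _)), ?_, ?_⟩
  · intro t t' ht ht' z h0 h1 k
    refine (h.box t t' ht ht' z h0 h1 k).trans ?_
    fin_cases k
    · exact hY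
    · exact k2
    · exact k1
  · intro T hT z h0 h1 x hx hq
    exact (h.pt T hT z h0 h1 x hx hq).trans hY


/-- expansion through two frames: `p` near the axis `e 1`-free part, `q` near the `e' 1`-free part -/
theorem two_exp {e e' : Fin 3 → V3} (he : Ortho e) (he' : Ortho e') {p q : V3} (hp : dt p p = 1)
    (hq : dt q q = 1) {α β γ : ℝ}
    (h1 : |dt p (e 1)| ≤ α) (h2 : |dt q (e' 0)| ≤ β) (h3 : |dt q (e' 2)| ≤ β)
    (h4 : |dt (e 0) (e' 1)| ≤ γ) (h5 : |dt (e 2) (e' 1)| ≤ γ) :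
    |dt p q| ≤ α + 4 * β + 2 * γ := by
  have u : ∀ {f g : V3}, dt f f = 1 → dt g g = 1 → |dt f g| ≤ 1 := fun h h' => Fh792.unit_dt' h h'
  have oe : ∀ i, dt (e i) (e i) = 1 := fun i => by simpa using he i i
  have oe' : ∀ i, dt (e' i) (e' i) = 1 := fun i => by simpa using he' i i
  have k : ∀ i, |dt (e i) (e' 1)| ≤ γ → |dt (e i) q| ≤ 2 * β + γ := by
    intro i hi
    rw [dt_expand he' (e i) q, dt_comm (e' 0) q, dt_comm (e' 1) q, dt_comm (e' 2) q]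
    have a1 := abs_add_le (dt (e i) (e' 0) * dt q (e' 0) + dt (e i) (e' 1) * dt q (e' 1))
      (dt (e i) (e' 2) * dt q (e' 2))
    have a2 := abs_add_le (dt (e i) (e' 0) * dt q (e' 0)) (dt (e i) (e' 1) * dt q (e' 1))
    have b1 : |dt (e i) (e' 0) * dt q (e' 0)| ≤ 1 * β := by
      rw [abs_mul]; exact mul_le_mul (u (oe i) (oe' 0)) h2 (abs_nonneg _) zero_le_one
    have b2 : |dt (e i) (e' 1) * dt q (e' 1)| ≤ γ * 1 := by
      rw [abs_mul]; exact mul_le_mul hi (u hq (oe' 1)) (abs_nonneg _) ((abs_nonneg _).trans hi)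
    have b3 : |dt (e i) (e' 2) * dt q (e' 2)| ≤ 1 * β := by
      rw [abs_mul]; exact mul_le_mul (u (oe i) (oe' 2)) h3 (abs_nonneg _) zero_le_one
    linarith
  have k0 := k 0 h4
  have k2 := k 2 h5
  rw [dt_expand he p q]
  have a1 := abs_add_le (dt p (e 0) * dt (e 0) q + dt p (e 1) * dt (e 1) q)
    (dt p (e 2) * dt (e 2) q)
  have a2 := abs_add_le (dt p (e 0) * dt (e 0) q) (dt p (e 1) * dt (e 1) q)
  have b1 : |dt p (e 0) * dt (e 0) q| ≤ 1 * (2 * β + γ) := by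
    rw [abs_mul]; exact mul_le_mul (u hp (oe 0)) k0 (abs_nonneg _) zero_le_one
  have b2 : |dt p (e 1) * dt (e 1) q| ≤ α * 1 := by
    rw [abs_mul]; exact mul_le_mul h1 (u (oe 1) hq) (abs_nonneg _) ((abs_nonneg _).trans h1)
  have b3 : |dt p (e 2) * dt (e 2) q| ≤ 1 * (2 * β + γ) := by
    rw [abs_mul]; exact mul_le_mul (u hp (oe 2)) k2 (abs_nonneg _) zero_le_one
  linarith

section
variable {qm qp : Fin 3 → ℝ} {L : ℕ → Ln4} {P : Finset ℕ} {cu cv : ℕ → ℕ} {Uf Vf : ℕ → Plk4}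
  {W M a w1 w2 z0 ρ zL ρL r Y : ℝ}

/-- the constant -/
noncomputable def kk (W : ℝ) : ℝ := 4096 * W ^ 5

theorem kk_ge (hW : 1 ≤ W) : 4 * W ≤ kk W ∧ 1 ≤ kk W ∧ 7 * W ^ 3 ≤ kk W ∧ 52 * W ≤ kk W ∧
    W ^ 2 * (64 * (4 * W) ^ 3) = kk W ∧ W * (64 * (4 * W) ^ 3) ≤ kk W := by
  have h5 : W ≤ W ^ 5 := by
    simpa using pow_le_pow_right₀ hW (show 1 ≤ 5 by norm_num)
  have h3 : W ^ 3 ≤ W ^ 5 := pow_le_pow_right₀ hW (by norm_num)
  have h4 : W ^ 4 ≤ W ^ 5 := pow_le_pow_right₀ hW (by norm_num)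
  have h0 : 0 ≤ W ^ 5 := by positivity
  unfold kk
  refine ⟨by linarith, by linarith, by linarith, by linarith, by ring, ?_⟩
  have : W * (64 * (4 * W) ^ 3) = 4096 * W ^ 4 := by ring
  rw [this]; linarith

/-- `x ≤ W³ w2 / w1` from `x * S.w 1 ≤ W S.w 2` -/
theorem to_w {x : ℝ} {S : Plk4} (hx : 0 ≤ x) (hW : 1 ≤ W) (h : x * S.w 1 ≤ W * S.w 2)
    (h1 : w1 ≤ W * S.w 1) (h2 : S.w 2 ≤ W * w2) : x * w1 ≤ W ^ 3 * w2 := by
  have hW0 : 0 ≤ W := by linarith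
  calc x * w1 ≤ x * (W * S.w 1) := mul_le_mul_of_nonneg_left h1 hx
    _ = W * (x * S.w 1) := by ring
    _ ≤ W * (W * S.w 2) := mul_le_mul_of_nonneg_left h hW0
    _ ≤ W * (W * (W * w2)) := by gcongr
    _ = W ^ 3 * w2 := by ring

theorem aln_pair {f g : Fin 3 → V3} {S S' : Plk4} {k : ℝ} (hW : 1 ≤ W) (hw1 : 0 < w1)
    (hw2 : 0 < w2) (hY : 0 ≤ Y) (hk : k ≤ 4 * Y) (oS : Ortho S.e) (oS' : Ortho S'.e)
    (hf : FH W k S f z0 ρ) (hg : FH W k S' g z0 ρ)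
    (d1 : Near W w1 (S.w 1)) (d2 : Near W w2 (S.w 2)) (d1' : Near W w1 (S'.w 1))
    (d2' : Near W w2 (S'.w 2)) (ang : angC S S' * w1 ≤ W * w2)
    (t1 : |dt (f 0) (g 1)| * w1 ≤ W * k) (t2 : |dt (f 0) (g 2)| * w2 ≤ W * k)
    (t3 : |dt (g 0) (f 1)| * w1 ≤ W * k) (t4 : |dt (g 0) (f 2)| * w2 ≤ W * k) :
    Aln (kk W) Y w1 w2 f g := by
  obtain ⟨k4, k1, k7, -, -, -⟩ := kk_ge hW
  have hW0 : 0 ≤ W := by linarith
  have hk' : W * k ≤ kk W * Y := by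
    calc W * k ≤ W * (4 * Y) := mul_le_mul_of_nonneg_left hk hW0
      _ = (4 * W) * Y := by ring
      _ ≤ kk W * Y := mul_le_mul_of_nonneg_right k4 hY
  have of : ∀ i, dt (f i) (f i) = 1 := fun i => by simpa using hf.ortho i i
  have og : ∀ i, dt (g i) (g i) = 1 := fun i => by simpa using hg.ortho i i
  set A := angC S S' with hA
  have g01 : |dt (S.e 0) (S'.e 1)| ≤ A := (le_max_left _ _).trans (le_max_right _ _)
  have g21 : |dt (S.e 2) (S'.e 1)| ≤ A := (le_max_right _ _).trans (le_max_right _ _)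
  have g10 : |dt (S.e 1) (S'.e 0)| ≤ A := (le_max_left _ _).trans (le_max_left _ _)
  have g12 : |dt (S.e 1) (S'.e 2)| ≤ A := (le_max_right _ _).trans (le_max_left _ _)
  set η : ℝ := W ^ 3 * w2 / w1 with hη
  have hdiv : ∀ {x : ℝ}, x * w1 ≤ W ^ 3 * w2 → x ≤ η := by
    intro x hx; rw [hη, le_div_iff₀ hw1]; exact hx
  have hAη : A ≤ η := by
    apply hdiv
    refine ang.trans ?_
    have : W ≤ W ^ 3 := by simpa using pow_le_pow_right₀ hW (show 1 ≤ 3 by norm_num)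
    exact mul_le_mul_of_nonneg_right this hw2.le
  have fin : ∀ {x : ℝ}, x ≤ 7 * η → x * w1 ≤ kk W * w2 := by
    intro x hx
    calc x * w1 ≤ 7 * η * w1 := mul_le_mul_of_nonneg_right hx hw1.le
      _ = 7 * W ^ 3 * w2 := by rw [hη]; field_simp
      _ ≤ kk W * w2 := mul_le_mul_of_nonneg_right k7 hw2.le
  have f21 : |dt (f 2) (S.e 1)| ≤ η := hdiv (to_w (abs_nonneg _) hW hf.e21 d1.1 d2.2)
  have f10 : |dt (f 1) (S.e 0)| ≤ η := hdiv (to_w (abs_nonneg _) hW hf.e10 d1.1 d2.2)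
  have f12 : |dt (f 1) (S.e 2)| ≤ η := hdiv (to_w (abs_nonneg _) hW hf.e12 d1.1 d2.2)
  have g21' : |dt (g 2) (S'.e 1)| ≤ η := hdiv (to_w (abs_nonneg _) hW hg.e21 d1'.1 d2'.2)
  have g10' : |dt (g 1) (S'.e 0)| ≤ η := hdiv (to_w (abs_nonneg _) hW hg.e10 d1'.1 d2'.2)
  have g12' : |dt (g 1) (S'.e 2)| ≤ η := hdiv (to_w (abs_nonneg _) hW hg.e12 d1'.1 d2'.2)
  refine ⟨t1.trans hk', t2.trans hk', ?_, ?_, ?_, ?_⟩
  · rw [dt_comm]; exact t3.trans hk'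
  · rw [dt_comm]; exact t4.trans hk'
  · -- `f 1`, `g 2` : swap the roles
    apply fin
    rw [dt_comm]
    have h4 : |dt (S'.e 0) (S.e 1)| ≤ A := by rw [dt_comm]; exact g10
    have h5 : |dt (S'.e 2) (S.e 1)| ≤ A := by rw [dt_comm]; exact g12
    have := two_exp oS' oS (og 2) (of 1) g21' f10 f12 (h4.trans hAη) (h5.trans hAη)
    linarith
  · apply fin
    have := two_exp oS oS' (of 2) (og 1) f21 g10' g12' (g01.trans hAη) (g21.trans hAη)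
    linarith

/-- frames of one class -/
theorem aln_same {f g : Fin 3 → V3} {S : Plk4} {T : Ln4} {k k' : ℝ} (hr : 0 < r) (hρ : 0 ≤ ρ)
    (hW : 1 ≤ W) (hw1 : 0 < w1) (hw2 : 0 < w2) (hY : 0 ≤ Y) (hk : k ≤ 4 * Y) (hk' : k' ≤ 4 * Y)
    (hS : Shp S z0 ρ r) (hT : InP T S z0 ρ) (hf : FH W k S f z0 ρ) (hg : FH W k' S g z0 ρ)
    (d1 : Near W w1 (S.w 1)) (d2 : Near W w2 (S.w 2)) : Aln (kk W) Y w1 w2 f g := by
  obtain ⟨k4, k1, k7, -, k5, k6⟩ := kk_ge hW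
  have ha : 0 < S.a := hr.trans_le hS.r0_le
  have hw0 : 0 < S.w 0 := ha.trans_le hS.a_le0
  have hs2 : 0 < S.w 2 := hw0.trans_le hS.w0_le
  have hs1 : 0 < S.w 1 := hs2.trans_le hS.w_le
  have hW0 : 0 ≤ W := by linarith
  have e : ∀ {x : ℝ}, x ≤ 4 * Y → W * x ≤ 4 * W * Y := by
    intro x hx
    calc W * x ≤ W * (4 * Y) := mul_le_mul_of_nonneg_left hx hW0
      _ = _ := by ring
  have hf' := fh_chg hf (C' := 4 * W) (Y' := Y) (by linarith) (e hk) hs1.le hs2.le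
  have hg' := fh_chg hg (C' := 4 * W) (Y' := Y) (by linarith) (e hk') hs1.le hs2.le
  have h := Fsm104.fh_same hr hρ hS hT hf' hg' (by linarith) hY
  set C := 64 * (4 * W) ^ 3 with hC
  have hC0 : 0 ≤ C := by positivity
  have ya : ∀ {x w s : ℝ}, 0 ≤ x → w ≤ W * s → x * s ≤ C * Y → x * w ≤ kk W * Y := by
    intro x w s hx hw h0
    calc x * w ≤ x * (W * s) := mul_le_mul_of_nonneg_left hw hx
      _ = W * (x * s) := by ring
      _ ≤ W * (C * Y) := mul_le_mul_of_nonneg_left h0 hW0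
      _ = W * C * Y := by ring
      _ ≤ kk W * Y := mul_le_mul_of_nonneg_right k6 hY
  have yb : ∀ {x : ℝ}, 0 ≤ x → x * S.w 1 ≤ C * S.w 2 → x * w1 ≤ kk W * w2 := by
    intro x hx h0
    calc x * w1 ≤ x * (W * S.w 1) := mul_le_mul_of_nonneg_left d1.1 hx
      _ = W * (x * S.w 1) := by ring
      _ ≤ W * (C * S.w 2) := mul_le_mul_of_nonneg_left h0 hW0
      _ ≤ W * (C * (W * w2)) := by
          have := d2.2
          gcongr
      _ = W ^ 2 * C * w2 := by ring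
      _ = kk W * w2 := by rw [k5]
  exact ⟨ya (abs_nonneg _) d1.1 h.a01, ya (abs_nonneg _) d2.1 h.a02, ya (abs_nonneg _) d1.1 h.a10,
    ya (abs_nonneg _) d2.1 h.a20, yb (abs_nonneg _) h.b12, yb (abs_nonneg _) h.b21⟩

/-- **the data of the flat hull count** -/
theorem fd_of (h : Two1 qm qp L P cu cv Uf Vf W M a w1 w2 z0 ρ r) (hr : r ≤ ρ) (hne : P.Nonempty)
    (haY : a ≤ Y) (hk : ∀ t ∈ P, kp (Uf (cu t)) z0 ρ (L t) ≤ 4 * Y)
    (hk' : ∀ t ∈ P, Y ≤ 4 * kp (Uf (cu t)) z0 ρ (L t))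
    (hal : ∀ t ∈ P, Al1 W (Uf (cu t)) (Vf (cv t)) (L t) a w1 w2 z0 ρ) :
    ∃ fr gr : ℕ → Fin 3 → V3, FD qm qp L P cu cv Uf Vf fr gr W M a w1 w2 z0 ρ r (kk W) Y := by
  have hW := h.W1
  have hY : 0 < Y := h.a0.trans_le haY
  obtain ⟨k4, k1, k7, k52, k5, k6⟩ := kk_ge hW
  have hex : ∀ t, ∃ f g : Fin 3 → V3, t ∈ P →
      FH W (kp (Uf (cu t)) z0 ρ (L t)) (Uf (cu t)) f z0 ρ ∧
      FH W (kp (Uf (cu t)) z0 ρ (L t)) (Vf (cv t)) g z0 ρ ∧
      |dt (f 0) (g 1)| * w1 ≤ W * kp (Uf (cu t)) z0 ρ (L t) ∧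
      |dt (f 0) (g 2)| * w2 ≤ W * kp (Uf (cu t)) z0 ρ (L t) ∧
      |dt (g 0) (f 1)| * w1 ≤ W * kp (Uf (cu t)) z0 ρ (L t) ∧
      |dt (g 0) (f 2)| * w2 ≤ W * kp (Uf (cu t)) z0 ρ (L t) := by
    intro t
    by_cases ht : t ∈ P
    · obtain ⟨f, g, p1, -, p3, p4, p5, p6, p7⟩ := (hal t ht).fr
      exact ⟨f, g, fun _ => ⟨p1, p3, p4, p5, p6, p7⟩⟩
    · exact ⟨fun _ => 0, fun _ => 0, fun h => absurd h ht⟩
  choose fr gr hfg using hex
  have hpos : ∀ S : Plk4, Shp S z0 ρ r → 0 < S.w 1 ∧ 0 < S.w 2 := by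
    intro S hS
    have ha : 0 < S.a := h.r0.trans_le hS.r0_le
    have hs2 : 0 < S.w 2 := (ha.trans_le hS.a_le0).trans_le hS.w0_le
    exact ⟨hs2.trans_le hS.w_le, hs2⟩
  refine ⟨fr, gr, h, hr, k1, haY, ?_, ?_, ?_, ?_, ?_, ?_⟩
  · obtain ⟨t, ht⟩ := hne
    have h1 := Alr877.kapP_le h.r0 h.ρ0.le (h.shU t ht) (h.inU t ht)
    have h2 := (h.shU t ht).w0_le
    have h3 := (h.dimU t ht).2.2.2
    have h4 := hk' t ht
    change Y ≤ 4 * KapP335.kapP (Uf (cu t)) z0 ρ (L t) at h4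
    have hw2 := h.w20
    calc Y ≤ 52 * (W * w2) := by linarith
      _ = 52 * W * w2 := by ring
      _ ≤ kk W * w2 := mul_le_mul_of_nonneg_right k52 hw2.le
  · intro t ht
    obtain ⟨p1, p2⟩ := hpos _ (h.shU t ht)
    refine fh_chg (hfg t ht).1 (by linarith) ?_ p1.le p2.le
    calc W * kp (Uf (cu t)) z0 ρ (L t) ≤ W * (4 * Y) :=
          mul_le_mul_of_nonneg_left (hk t ht) (by linarith)
      _ = (4 * W) * Y := by ring
      _ ≤ kk W * Y := mul_le_mul_of_nonneg_right k4 hY.le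
  · intro t ht
    obtain ⟨p1, p2⟩ := hpos _ (h.shV t ht)
    refine fh_chg (hfg t ht).2.1 (by linarith) ?_ p1.le p2.le
    calc W * kp (Uf (cu t)) z0 ρ (L t) ≤ W * (4 * Y) :=
          mul_le_mul_of_nonneg_left (hk t ht) (by linarith)
      _ = (4 * W) * Y := by ring
      _ ≤ kk W * Y := mul_le_mul_of_nonneg_right k4 hY.le
  · intro t ht
    obtain ⟨p1, p3, p4, p5, p6, p7⟩ := hfg t ht
    exact aln_pair hW h.w10 h.w20 hY.le (hk t ht) (h.shU t ht).ortho (h.shV t ht).ortho p1 p3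
      (h.dimU t ht).2.1 (h.dimU t ht).2.2 (h.dimV t ht).2.1 (h.dimV t ht).2.2 (hal t ht).ang
      p4 p5 p6 p7
  · intro t ht t' ht' e
    have p1 := (hfg t ht).1
    have p2 := (hfg t' ht').1
    rw [← e] at p2
    refine aln_same h.r0 h.ρ0.le hW h.w10 h.w20 hY.le (hk t ht) ?_ (h.shU t ht) (h.inU t ht) p1 p2
      (h.dimU t ht).2.1 (h.dimU t ht).2.2
    have := hk t' ht'
    rw [← e] at this
    exact this
  · intro t ht t' ht' e
    have p1 := (hfg t ht).2.1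
    have p2 := (hfg t' ht').2.1
    rw [← e] at p2
    exact aln_same h.r0 h.ρ0.le hW h.w10 h.w20 hY.le (hk t ht) (hk t' ht') (h.shV t ht)
      (h.inV t ht) p1 p2 (h.dimV t ht).2.1 (h.dimV t ht).2.2

/-- the exponent -/
noncomputable def xx (qp : Fin 3 → ℝ) : ℝ := (14 + 6 * 12) * (25 + 2 * qp 0 + qp 1 + 2 * qp 2)

open Classical in
/-- **hull counts** : one and two steps -/
theorem hull_gen (hq : ∀ k, 0 ≤ qm k ∧ qm k ≤ qp k)
    (h : Two1 qm qp L P cu cv Uf Vf W M a w1 w2 z0 ρ r) (hr : r ≤ ρ) (hne : P.Nonempty)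
    (haY : a ≤ Y) (hk : ∀ t ∈ P, kp (Uf (cu t)) z0 ρ (L t) ≤ 4 * Y)
    (hk' : ∀ t ∈ P, Y ≤ 4 * kp (Uf (cu t)) z0 ρ (L t))
    (hal : ∀ t ∈ P, Al1 W (Uf (cu t)) (Vf (cv t)) (L t) a w1 w2 z0 ρ) :
    (∀ t0 ∈ P, ∀ T : Finset ℕ, (∀ c1 ∈ T, ∃ t ∈ P, ∃ t' ∈ P, cu t = cu t0 ∧ cu t' = c1 ∧
      cv t' = cv t) → (T.card : ℝ) ≤ (2 * W) ^ xx qp * (Y / a) ^ (1 + qp 0)) ∧
    (∀ c, (((P.filter fun t => cu t = c).image cv).card : ℝ) ≤
      (2 * W) ^ xx qp * (Y / a) ^ (1 + qp 0)) ∧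
    (∀ c, (((P.filter fun t => cv t = c).image cu).card : ℝ) ≤
      (2 * W) ^ xx qp * (Y / a) ^ (1 + qp 0)) := by
  obtain ⟨fr, gr, hF⟩ := fd_of h hr hne haY hk hk' hal
  obtain ⟨c1, c2, c3⟩ := hF.count hq
  have hW := h.W1
  obtain ⟨k4, k1, k7, k52, k5, k6⟩ := kk_ge hW
  have hKW : kk W ≤ (2 * W) ^ (12:ℝ) := by
    have e : (2 * W) ^ (12:ℝ) = (2 * W) ^ 12 := by
      rw [← Real.rpow_natCast]; norm_num
    rw [e]
    unfold kk
    have h1 : W ^ 5 ≤ W ^ 12 := pow_le_pow_right₀ hW (by norm_num)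
    have h2 : (2 * W) ^ 12 = 4096 * W ^ 12 := by ring
    rw [h2]; linarith
  have hb := bh_num qp (fun k => (hq k).1.trans (hq k).2) (C1 := 12) (by norm_num) k1 hW hKW h.a0
    haY
  exact ⟨fun t0 h0 T hT => (c1 t0 h0 T hT).trans hb, fun c => (c2 c).trans hb,
    fun c => (c3 c).trans hb⟩

end

/-- **[HULL]** 325's literal -/
theorem hullMx : Amx325.HullMx := by
  intro η qm qp hE
  refine ⟨0, max 0 (xx qp), le_rfl, le_max_left _ _, ?_⟩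
  intro L P cu cv Uf Vf W M a w1 w2 z0 ρ zL ρL r Y h c
  have hW := h.two.to1.W1
  have haY : a ≤ Y := by
    have := h.big
    rwa [Real.rpow_zero, one_mul] at this
  have hY : 0 < Y := h.two.to1.a0.trans_le haY
  have hk : ∀ t ∈ P, kp (Uf (cu t)) z0 ρ (L t) ≤ 4 * Y := fun t ht => by
    have := h.hi t ht; linarith
  have hk' : ∀ t ∈ P, Y ≤ 4 * kp (Uf (cu t)) z0 ρ (L t) := fun t ht => by
    have := h.lo t ht; linarith
  have hc := (hull_gen hE.le h.two.to1 h.two.rρ h.ne haY hk hk' h.al).2.2 c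
  refine hc.trans ?_
  have h1 : (2 * W) ^ xx qp ≤ (2 * W) ^ max 0 (xx qp) :=
    Real.rpow_le_rpow_of_exponent_le (by linarith) (le_max_right _ _)
  have h2 : 0 ≤ (Y / a) ^ (1 + qp 0) := Real.rpow_nonneg (div_pos hY h.two.to1.a0).le _
  exact mul_le_mul_of_nonneg_right h1 h2

end Crest.Agent.R136.Hmx104
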