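import Crest.Agent.R136.Pl2C_860
import Crest.Agent.R136.HulW_565
import Crest.Agent.R136.HulD_412
import Crest.Agent.R136.Asm3_102
import Crest.Agent.R136.Hc2_792
import Crest.Agent.R136.Fsm_104

/-!
# R136 (S0187), PLAN 2 (AL) case (A), leaf [HULL] mixed: class frames (helper719)

From `Al1` (frames at every line) to frames of the classes, aligned at the thickness `Y` (level of
the curvature extents of the first system).

* `fh_up`    : `FH` is monotone in `C` and `C Y`.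
* `aln_up`, `aln_comp`, `aln_comp3` : alignment of frames is transitive.
* `aln_base` : the frames of one line.
* `frames_of` : class frames.
* `hull_mx` : number of `U`-classes met by one `V`-class (84's literal `HullMx`).
-/

set_option autoImplicit false
set_option linter.unusedVariables false

open Finset

namespace Crest.Agent.R136.Hmx719

open Crest.Agent.R136.Sh605 Crest.Agent.R136.Pl2 Crest.Agent.R136.Fl808
open Crest.Agent.R136.K4 (Plk4)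
open Crest.Agent.R136.Tlt51 (Shp InP)
open Crest.Agent.R136.Tl102 (angC)
open Crest.Agent.R136.Pl2W102 (Near Ex2 Two1)
open Crest.Agent.R136.Hul412 (Aln)

/-- `FH` is monotone -/
theorem fh_up {C C' Y Y' : ℝ} {S : Plk4} {f : Fin 3 → V3} {z0 ρ : ℝ} (h : FH C Y S f z0 ρ)
    (hC : C ≤ C') (hY : C * Y ≤ C' * Y') (h1 : 0 ≤ S.w 1) (h2 : 0 ≤ S.w 2) :
    FH C' Y' S f z0 ρ where
  ortho := h.ortho
  e01 := h.e01.trans (mul_le_mul_of_nonneg_right hC h2)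
  e10 := h.e10.trans (mul_le_mul_of_nonneg_right hC h2)
  e12 := h.e12.trans (mul_le_mul_of_nonneg_right hC h2)
  e21 := h.e21.trans (mul_le_mul_of_nonneg_right hC h2)
  e00 := h.e00.trans (mul_le_mul_of_nonneg_right hC (abs_nonneg _))
  box := fun t t' ht ht' z hz hz' i => by
    refine (h.box t t' ht ht' z hz hz' i).trans ?_
    fin_cases i
    · exact hY
    · exact mul_le_mul_of_nonneg_right hC h1
    · exact mul_le_mul_of_nonneg_right hC h2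
  pt := fun T hT z hz hz' x hx hq => (h.pt T hT z hz hz' x hx hq).trans hY

/-! ### alignment of frames -/

section
variable {K K' Y Y' w1 w2 : ℝ} {f g h : Fin 3 → V3}

theorem aln_up (A : Aln K Y w1 w2 f g) (hK : K ≤ K') (hY : K * Y ≤ K' * Y') (h2 : 0 ≤ w2) :
    Aln K' Y' w1 w2 f g where
  a01 := A.a01.trans hY
  a02 := A.a02.trans hY
  a10 := A.a10.trans hY
  a20 := A.a20.trans hY
  b12 := A.b12.trans (mul_le_mul_of_nonneg_right hK h2)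
  b21 := A.b21.trans (mul_le_mul_of_nonneg_right hK h2)

theorem t1 {x y c A : ℝ} (hc0 : 0 ≤ c) (hx : |x| ≤ 1) (hc : |y| * c ≤ A) : |x * y| * c ≤ A := by
  rw [abs_mul]
  calc |x| * |y| * c = |x| * (|y| * c) := by ring
    _ ≤ 1 * (|y| * c) := mul_le_mul_of_nonneg_right hx (mul_nonneg (abs_nonneg _) hc0)
    _ = |y| * c := one_mul _
    _ ≤ A := hc

theorem t2 {x y c A : ℝ} (hc0 : 0 ≤ c) (hy : |y| ≤ 1) (hc : |x| * c ≤ A) : |x * y| * c ≤ A := by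
  rw [mul_comm x y]; exact t1 hc0 hy hc

theorem tri3 (hg : Ortho g) (i j : Fin 3) (c : ℝ) (hc : 0 ≤ c) {A B C : ℝ}
    (h0 : |dt (f i) (g 0) * dt (g 0) (h j)| * c ≤ A)
    (h1 : |dt (f i) (g 1) * dt (g 1) (h j)| * c ≤ B)
    (h2 : |dt (f i) (g 2) * dt (g 2) (h j)| * c ≤ C) : |dt (f i) (h j)| * c ≤ A + B + C := by
  rw [dt_expand hg (f i) (h j)]
  have := (abs_add_le (dt (f i) (g 0) * dt (g 0) (h j) + dt (f i) (g 1) * dt (g 1) (h j))
    (dt (f i) (g 2) * dt (g 2) (h j))).trans (add_le_add (abs_add_le _ _) le_rfl)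
  have := mul_le_mul_of_nonneg_right this hc
  linarith

/-- half of the composition -/
theorem comp_aux (hK : 1 ≤ K) (hY : 0 ≤ Y) (h1 : 0 ≤ w1) (h2 : 0 ≤ w2) (hY2 : Y ≤ K * w2)
    (h21 : w2 ≤ K * w1) (hf : Ortho f) (hg : Ortho g) (hh : Ortho h) (A : Aln K Y w1 w2 f g)
    (B : Aln K Y w1 w2 g h) :
    |dt (f 0) (h 1)| * w1 ≤ 3 * K ^ 2 * Y ∧ |dt (f 0) (h 2)| * w2 ≤ 3 * K ^ 2 * Y ∧
      |dt (f 1) (h 2)| * w1 ≤ 3 * K ^ 2 * w2 := by
  have K0 : 0 ≤ K := by linarith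
  have uf : ∀ i j, |dt (f i) (g j)| ≤ 1 := fun i j => abs_dt_le_one hg hf i j
  have ug : ∀ i j, |dt (g i) (h j)| ≤ 1 := fun i j => abs_dt_le_one hh hg i j
  have KK : K ≤ K ^ 2 := by nlinarith
  have kY : K * Y ≤ K ^ 2 * Y := mul_le_mul_of_nonneg_right KK hY
  have kw : K * w2 ≤ K ^ 2 * w2 := mul_le_mul_of_nonneg_right KK h2
  refine ⟨?_, ?_, ?_⟩
  · have e0 : |dt (f 0) (g 0) * dt (g 0) (h 1)| * w1 ≤ K * Y := t1 h1 (uf 0 0) B.a01
    have e1 : |dt (f 0) (g 1) * dt (g 1) (h 1)| * w1 ≤ K * Y := t2 h1 (ug 1 1) A.a01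
    have e2 : |dt (f 0) (g 2) * dt (g 2) (h 1)| * w1 ≤ K ^ 2 * Y := by
      rw [abs_mul]
      calc |dt (f 0) (g 2)| * |dt (g 2) (h 1)| * w1 =
            |dt (f 0) (g 2)| * (|dt (g 2) (h 1)| * w1) := by ring
        _ ≤ |dt (f 0) (g 2)| * (K * w2) := mul_le_mul_of_nonneg_left B.b21 (abs_nonneg _)
        _ = K * (|dt (f 0) (g 2)| * w2) := by ring
        _ ≤ K * (K * Y) := mul_le_mul_of_nonneg_left A.a02 K0
        _ = _ := by ring
    have := tri3 hg 0 1 w1 h1 e0 e1 e2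
    linarith
  · have e0 : |dt (f 0) (g 0) * dt (g 0) (h 2)| * w2 ≤ K * Y := t1 h2 (uf 0 0) B.a02
    have e1 : |dt (f 0) (g 1) * dt (g 1) (h 2)| * w2 ≤ K ^ 2 * Y := by
      refine t2 h2 (ug 1 2) ?_
      calc |dt (f 0) (g 1)| * w2 ≤ |dt (f 0) (g 1)| * (K * w1) :=
            mul_le_mul_of_nonneg_left h21 (abs_nonneg _)
        _ = K * (|dt (f 0) (g 1)| * w1) := by ring
        _ ≤ K * (K * Y) := mul_le_mul_of_nonneg_left A.a01 K0
        _ = _ := by ring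
    have e2 : |dt (f 0) (g 2) * dt (g 2) (h 2)| * w2 ≤ K * Y := t2 h2 (ug 2 2) A.a02
    have := tri3 hg 0 2 w2 h2 e0 e1 e2
    linarith
  · have e0 : |dt (f 1) (g 0) * dt (g 0) (h 2)| * w1 ≤ K ^ 2 * w2 := by
      refine t2 h1 (ug 0 2) (A.a10.trans ?_)
      calc K * Y ≤ K * (K * w2) := mul_le_mul_of_nonneg_left hY2 K0
        _ = _ := by ring
    have e1 : |dt (f 1) (g 1) * dt (g 1) (h 2)| * w1 ≤ K * w2 := t1 h1 (uf 1 1) B.b12
    have e2 : |dt (f 1) (g 2) * dt (g 2) (h 2)| * w1 ≤ K * w2 := t2 h1 (ug 2 2) A.b12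
    have := tri3 hg 1 2 w1 h1 e0 e1 e2
    linarith

/-- **alignment is transitive** -/
theorem aln_comp (hK : 1 ≤ K) (hY : 0 ≤ Y) (h1 : 0 ≤ w1) (h2 : 0 ≤ w2) (hY2 : Y ≤ K * w2)
    (h21 : w2 ≤ K * w1) (hf : Ortho f) (hg : Ortho g) (hh : Ortho h) (A : Aln K Y w1 w2 f g)
    (B : Aln K Y w1 w2 g h) : Aln (3 * K ^ 2) Y w1 w2 f h := by
  obtain ⟨c1, c2, c3⟩ := comp_aux hK hY h1 h2 hY2 h21 hf hg hh A B
  obtain ⟨d1, d2, d3⟩ := comp_aux hK hY h1 h2 hY2 h21 hh hg hf B.symm A.symm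
  exact ⟨c1, c2, by rw [dt_comm]; exact d1, by rw [dt_comm]; exact d2, c3,
    by rw [dt_comm]; exact d3⟩

end

/-- three steps -/
theorem aln_comp3 {K Y w1 w2 : ℝ} {f f' g' g : Fin 3 → V3} (hK : 1 ≤ K) (hY : 0 ≤ Y)
    (h1 : 0 ≤ w1) (h2 : 0 ≤ w2) (hY2 : Y ≤ K * w2) (h21 : w2 ≤ K * w1) (hf : Ortho f)
    (hf' : Ortho f') (hg' : Ortho g') (hg : Ortho g) (A : Aln K Y w1 w2 f f')
    (B : Aln K Y w1 w2 f' g') (C : Aln K Y w1 w2 g' g) : Aln (27 * K ^ 4) Y w1 w2 f g := by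
  have hK3 : K ≤ 3 * K ^ 2 := by nlinarith
  have A1 := aln_comp hK hY h1 h2 hY2 h21 hf hf' hg' A B
  have C1 := aln_up C hK3 (mul_le_mul_of_nonneg_right hK3 hY) h2
  have := aln_comp (hK.trans hK3) hY h1 h2 (hY2.trans (mul_le_mul_of_nonneg_right hK3 h2))
    (h21.trans (mul_le_mul_of_nonneg_right hK3 h1)) hf hg' hg A1 C1
  have e : 3 * (3 * K ^ 2) ^ 2 = 27 * K ^ 4 := by ring
  rwa [e] at this

/-! ### frames of one line -/

/-- the wide axes of the frames of two sheets with small base tilt are aligned -/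
theorem b_base {K w1 w2 : ℝ} {Y z0 ρ : ℝ} {S S' : Plk4} {f g : Fin 3 → V3} (hK : 1 ≤ K)
    (h1 : 0 ≤ w1) (h2 : 0 ≤ w2) (hS : Ortho S.e) (hS' : Ortho S'.e)
    (n1 : w1 ≤ K * S.w 1) (n2 : S.w 2 ≤ K * w2) (n1' : w1 ≤ K * S'.w 1) (n2' : S'.w 2 ≤ K * w2)
    (hang : angC S S' * w1 ≤ K * w2) (F : FH K Y S f z0 ρ) (G : FH K Y S' g z0 ρ) :
    |dt (f 1) (g 2)| * w1 ≤ 7 * K ^ 3 * w2 ∧ |dt (f 2) (g 1)| * w1 ≤ 7 * K ^ 3 * w2 := by
  have K0 : 0 ≤ K := by linarith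
  have hK3 : K ≤ K ^ 3 := by nlinarith [sq_nonneg K, mul_self_nonneg (K - 1)]
  have up : ∀ {x s1 s2 : ℝ}, w1 ≤ K * s1 → s2 ≤ K * w2 → |x| * s1 ≤ K * s2 →
      |x| * w1 ≤ K ^ 3 * w2 := by
    intro x s1 s2 m1 m2 hx
    calc |x| * w1 ≤ |x| * (K * s1) := mul_le_mul_of_nonneg_left m1 (abs_nonneg _)
      _ = K * (|x| * s1) := by ring
      _ ≤ K * (K * s2) := mul_le_mul_of_nonneg_left hx K0
      _ ≤ K * (K * (K * w2)) := by gcongr
      _ = _ := by ring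
  have f10 := up n1 n2 F.e10
  have f12 := up n1 n2 F.e12
  have f21 := up n1 n2 F.e21
  have g10 := up n1' n2' G.e10
  have g12 := up n1' n2' G.e12
  have g21 := up n1' n2' G.e21
  have hw : K * w2 ≤ K ^ 3 * w2 := mul_le_mul_of_nonneg_right hK3 h2
  have a10 : |dt (S.e 1) (S'.e 0)| * w1 ≤ K ^ 3 * w2 :=
    ((mul_le_mul_of_nonneg_right (Tl102.le_angC S S' (i := 0) (by decide)) h1).trans hang).trans hw
  have a12 : |dt (S.e 1) (S'.e 2)| * w1 ≤ K ^ 3 * w2 :=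
    ((mul_le_mul_of_nonneg_right (Tl102.le_angC S S' (i := 2) (by decide)) h1).trans hang).trans hw
  have a01 : |dt (S.e 0) (S'.e 1)| * w1 ≤ K ^ 3 * w2 :=
    ((mul_le_mul_of_nonneg_right (Tl102.le_angC' S S' (i := 0) (by decide)) h1).trans hang).trans hw
  have a21 : |dt (S.e 2) (S'.e 1)| * w1 ≤ K ^ 3 * w2 :=
    ((mul_le_mul_of_nonneg_right (Tl102.le_angC' S S' (i := 2) (by decide)) h1).trans hang).trans hw
  have u : ∀ {e e' : Fin 3 → V3}, Ortho e → Ortho e' → ∀ i j, |dt (e i) (e' j)| ≤ 1 :=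
    fun he he' i j => abs_dt_le_one he' he i j
  have hF := F.ortho
  have hG := G.ortho
  have c : ∀ {x y : V3}, |dt y x| * w1 ≤ K ^ 3 * w2 → |dt x y| * w1 ≤ K ^ 3 * w2 := by
    intro x y h
    rw [dt_comm]; exact h
  constructor
  · -- e1 · g2
    have k : |dt (S.e 1) (g 2)| * w1 ≤ K ^ 3 * w2 + K ^ 3 * w2 + K ^ 3 * w2 :=
      tri3 (f := S.e) (h := g) hS' 1 2 w1 h1 (t2 h1 (u hS' hG 0 2) a10)
        (t1 h1 (u hS hS' 1 1) (c g21)) (t2 h1 (u hS' hG 2 2) a12)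
    have := tri3 (f := f) (h := g) hS 1 2 w1 h1 (t2 h1 (u hS hG 0 2) f10)
      (t1 h1 (u hF hS 1 1) k) (t2 h1 (u hS hG 2 2) f12)
    have h0 : 0 ≤ K ^ 3 * w2 := by positivity
    linarith
  · have k : ∀ i, |dt (S.e i) (S'.e 1)| * w1 ≤ K ^ 3 * w2 →
        |dt (S.e i) (g 1)| * w1 ≤ K ^ 3 * w2 + K ^ 3 * w2 + K ^ 3 * w2 := fun i hi =>
      tri3 (f := S.e) (h := g) hS' i 1 w1 h1 (t1 h1 (u hS hS' i 0) (c g10))
        (t2 h1 (u hS' hG 1 1) hi) (t1 h1 (u hS hS' i 2) (c g12))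
    have := tri3 (f := f) (h := g) hS 2 1 w1 h1 (t1 h1 (u hF hS 2 0) (k 0 a01))
      (t2 h1 (u hS hG 1 1) f21) (t1 h1 (u hF hS 2 2) (k 2 a21))
    have h0 : 0 ≤ K ^ 3 * w2 := by positivity
    linarith

/-- alignment with other widths -/
theorem aln_dims {K W Y s1 s2 w1 w2 : ℝ} {f g : Fin 3 → V3} (A : Aln K Y s1 s2 f g) (hW : 1 ≤ W)
    (hK : 0 ≤ K) (hY : 0 ≤ Y) (n1 : w1 ≤ W * s1) (n2 : w2 ≤ W * s2) (m2 : s2 ≤ W * w2) :
    Aln (W ^ 2 * K) Y w1 w2 f g := by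
  have W0 : 0 ≤ W := by linarith
  have hWK : W * (K * Y) ≤ W ^ 2 * K * Y := by
    have : W ≤ W ^ 2 := by nlinarith
    calc W * (K * Y) ≤ W ^ 2 * (K * Y) := mul_le_mul_of_nonneg_right this (mul_nonneg hK hY)
      _ = _ := by ring
  have up : ∀ {x w s : ℝ}, w ≤ W * s → |x| * s ≤ K * Y → |x| * w ≤ W ^ 2 * K * Y := by
    intro x w s h h'
    calc |x| * w ≤ |x| * (W * s) := mul_le_mul_of_nonneg_left h (abs_nonneg _)
      _ = W * (|x| * s) := by ring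
      _ ≤ W * (K * Y) := mul_le_mul_of_nonneg_left h' W0
      _ ≤ _ := hWK
  have up2 : ∀ {x : ℝ}, |x| * s1 ≤ K * s2 → |x| * w1 ≤ W ^ 2 * K * w2 := by
    intro x h'
    calc |x| * w1 ≤ |x| * (W * s1) := mul_le_mul_of_nonneg_left n1 (abs_nonneg _)
      _ = W * (|x| * s1) := by ring
      _ ≤ W * (K * s2) := mul_le_mul_of_nonneg_left h' W0
      _ ≤ W * (K * (W * w2)) := by gcongr
      _ = _ := by ring
  exact ⟨up n1 A.a01, up n2 A.a02, up n1 A.a10, up n2 A.a20, up2 A.b12, up2 A.b21⟩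

/-- two frames of one sheet -/
theorem same_dims {W Y w1 w2 : ℝ} {S : Plk4} {f g : Fin 3 → V3} {T : Ln4} {z0 ρ r : ℝ}
    (hW : 1 ≤ W) (hr : 0 < r) (hρ : 0 ≤ ρ) (hS : Shp S z0 ρ r) (hT : InP T S z0 ρ)
    (hf : FH (4 * W) Y S f z0 ρ) (hg : FH (4 * W) Y S g z0 ρ) (hY : 0 ≤ Y)
    (n1 : Near W w1 (S.w 1)) (n2 : Near W w2 (S.w 2)) :
    Aln (4096 * W ^ 5) Y w1 w2 f g := by
  have := aln_dims (Fsm104.fh_same hr hρ hS hT hf hg (by linarith) hY) hW (by positivity) hY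
    n1.1 n2.1 n2.2
  have e : W ^ 2 * (64 * (4 * W) ^ 3) = 4096 * W ^ 5 := by ring
  rwa [e] at this

section
variable {qm qp : Fin 3 → ℝ} {L : ℕ → Ln4} {P : Finset ℕ} {cu cv : ℕ → ℕ} {Uf Vf : ℕ → Plk4}
  {W M a w1 w2 z0 ρ r : ℝ}

/-- **class frames** -/
theorem frames_of (h : Two1 qm qp L P cu cv Uf Vf W M a w1 w2 z0 ρ r) {Y : ℝ} (hY : 0 ≤ Y)
    (hYw : Y ≤ 4096 * W ^ 5 * w2) (hk : ∀ t ∈ P, kp (Uf (cu t)) z0 ρ (L t) ≤ 4 * Y)
    (hA : ∀ t ∈ P, Al1 W (Uf (cu t)) (Vf (cv t)) (L t) a w1 w2 z0 ρ) :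
    ∃ fu fv : ℕ → Fin 3 → V3, (∀ t ∈ P, FH (4 * W) Y (Uf (cu t)) (fu (cu t)) z0 ρ) ∧
      (∀ t ∈ P, FH (4 * W) Y (Vf (cv t)) (fv (cv t)) z0 ρ) ∧
      ∀ t ∈ P, Aln (27 * (4096 * W ^ 5) ^ 4) Y w1 w2 (fu (cu t)) (fv (cv t)) := by
  have W1 := h.W1
  have W0 : 0 ≤ W := by linarith
  have w10 := h.w10
  have w20 := h.w20
  have posS : ∀ {S : Plk4}, Shp S z0 ρ r → 0 ≤ S.w 1 ∧ 0 ≤ S.w 2 := by
    intro S hS
    have a0 : 0 < S.a := h.r0.trans_le hS.r0_le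
    have w0 : 0 < S.w 0 := a0.trans_le hS.a_le0
    have w2 : 0 < S.w 2 := w0.trans_le hS.w0_le
    exact ⟨(w2.trans_le hS.w_le).le, w2.le⟩
  have hw35 : W ^ 3 ≤ W ^ 5 := pow_le_pow_right₀ W1 (by norm_num)
  have hw15 : W ≤ W ^ 5 := by simpa using pow_le_pow_right₀ W1 (show 1 ≤ 5 by norm_num)
  have hfr : ∀ t ∈ P, ∃ f g : Fin 3 → V3, FH (4 * W) Y (Uf (cu t)) f z0 ρ ∧
      FH (4 * W) Y (Vf (cv t)) g z0 ρ ∧ Aln (4096 * W ^ 5) Y w1 w2 f g := by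
    intro t ht
    obtain ⟨f, g, h1, -, h3, h4, h5, h6, h7⟩ := (hA t ht).fr
    obtain ⟨u1, u2⟩ := posS (h.shU t ht)
    obtain ⟨v1, v2⟩ := posS (h.shV t ht)
    have hkY : W * kp (Uf (cu t)) z0 ρ (L t) ≤ 4 * W * Y := by
      have := mul_le_mul_of_nonneg_left (hk t ht) W0
      linarith
    have F := fh_up h1 (by linarith : W ≤ 4 * W) hkY u1 u2
    have G := fh_up h3 (by linarith : W ≤ 4 * W) hkY v1 v2
    have hKY : 4 * W * Y ≤ 4096 * W ^ 5 * Y := by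
      refine mul_le_mul_of_nonneg_right ?_ hY
      linarith
    obtain ⟨-, nU1, nU2⟩ := h.dimU t ht
    obtain ⟨-, nV1, nV2⟩ := h.dimV t ht
    have up4 : ∀ {s w : ℝ}, 0 ≤ s → w ≤ W * s → w ≤ 4 * W * s := by
      intro s w hs hw
      have := mul_nonneg W0 hs
      linarith
    obtain ⟨b1, b2⟩ := b_base (K := 4 * W) (w1 := w1) (w2 := w2) (by linarith) w10.le w20.le
      (h.shU t ht).ortho (h.shV t ht).ortho (up4 u1 nU1.1) (up4 w20.le nU2.2) (up4 v1 nV1.1)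
      (up4 w20.le nV2.2) ((hA t ht).ang.trans (by
        have := mul_nonneg W0 w20.le
        linarith)) F G
    have hb : 7 * (4 * W) ^ 3 * w2 ≤ 4096 * W ^ 5 * w2 := by
      refine mul_le_mul_of_nonneg_right ?_ w20.le
      have : 0 ≤ W ^ 5 := by positivity
      calc 7 * (4 * W) ^ 3 = 448 * W ^ 3 := by ring
        _ ≤ 448 * W ^ 5 := mul_le_mul_of_nonneg_left hw35 (by norm_num)
        _ ≤ _ := by linarith
    refine ⟨f, g, F, G, ⟨(h4.trans hkY).trans hKY, (h5.trans hkY).trans hKY, ?_, ?_, b1.trans hb,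
      b2.trans hb⟩⟩
    · rw [dt_comm]; exact (h6.trans hkY).trans hKY
    · rw [dt_comm]; exact (h7.trans hkY).trans hKY
  choose! f g hf hg hfg using hfr
  have hru : ∀ c ∈ P.image cu, ∃ t ∈ P, cu t = c := fun c hc => by simpa using hc
  have hrv : ∀ c ∈ P.image cv, ∃ t ∈ P, cv t = c := fun c hc => by simpa using hc
  choose! ru hru1 hru2 using hru
  choose! rv hrv1 hrv2 using hrv
  have hFu : ∀ t ∈ P, FH (4 * W) Y (Uf (cu t)) (f (ru (cu t))) z0 ρ := by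
    intro t ht
    have hc : cu t ∈ P.image cu := mem_image_of_mem _ ht
    have := hf _ (hru1 _ hc)
    rwa [hru2 _ hc] at this
  have hFv : ∀ t ∈ P, FH (4 * W) Y (Vf (cv t)) (g (rv (cv t))) z0 ρ := by
    intro t ht
    have hc : cv t ∈ P.image cv := mem_image_of_mem _ ht
    have := hg _ (hrv1 _ hc)
    rwa [hrv2 _ hc] at this
  refine ⟨fun c => f (ru c), fun c => g (rv c), hFu, hFv, ?_⟩
  intro t ht
  obtain ⟨-, nU1, nU2⟩ := h.dimU t ht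
  obtain ⟨-, nV1, nV2⟩ := h.dimV t ht
  have A1 : Aln (4096 * W ^ 5) Y w1 w2 (f (ru (cu t))) (f t) :=
    same_dims W1 h.r0 h.ρ0.le (h.shU t ht) (h.inU t ht) (hFu t ht) (hf t ht) hY nU1 nU2
  have A3 : Aln (4096 * W ^ 5) Y w1 w2 (g t) (g (rv (cv t))) :=
    same_dims W1 h.r0 h.ρ0.le (h.shV t ht) (h.inV t ht) (hg t ht) (hFv t ht) hY nV1 nV2
  have hK : 1 ≤ 4096 * W ^ 5 := by
    have : 1 ≤ W ^ 5 := one_le_pow₀ W1
    linarith
  have h21 : w2 ≤ 4096 * W ^ 5 * w1 := by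
    calc w2 ≤ W * (Uf (cu t)).w 2 := nU2.1
      _ ≤ W * (Uf (cu t)).w 1 := mul_le_mul_of_nonneg_left (h.shU t ht).w_le W0
      _ ≤ W * (W * w1) := mul_le_mul_of_nonneg_left nU1.2 W0
      _ = W ^ 2 * w1 := by ring
      _ ≤ 4096 * W ^ 5 * w1 := by
        refine mul_le_mul_of_nonneg_right ?_ w10.le
        have : W ^ 2 ≤ W ^ 5 := pow_le_pow_right₀ W1 (by norm_num)
        have : 0 ≤ W ^ 5 := by positivity
        linarith
  exact aln_comp3 hK hY w10.le w20.le hYw h21 (hFu t ht).ortho (hf t ht).ortho (hg t ht).ortho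
    (hFv t ht).ortho A1 (hfg t ht) A3

end

/-! ### the count -/

open Classical in
/-- **[HULL] mixed** (literal of helper84): `U`-classes met by one `V`-class -/
def HullMx : Prop := ∀ (η : ℝ) (qm qp : Fin 3 → ℝ), Ex2 η qm qp → ∃ C : ℝ, 0 ≤ C ∧
  ∀ (L : ℕ → Ln4) (P : Finset ℕ) (cu cv : ℕ → ℕ) (Uf Vf : ℕ → Plk4) (W M a w1 w2 z0 ρ r : ℝ),
    Two1 qm qp L P cu cv Uf Vf W M a w1 w2 z0 ρ r → r ≤ ρ → ∀ Y : ℝ, a ≤ Y →
    (∀ t ∈ P, Near 4 Y (kp (Uf (cu t)) z0 ρ (L t))) →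
    (∀ t ∈ P, Al1 W (Uf (cu t)) (Vf (cv t)) (L t) a w1 w2 z0 ρ) →
    ∀ c : ℕ, (((P.filter fun t => cv t = c).image cu).card : ℝ) ≤
      (2 * W) ^ C * (Y / a) ^ (1 + qp 0)

/-- size of the constants -/
theorem const_le {W : ℝ} (hW : 1 ≤ W) :
    52 * W ^ 3 * ((2 + 2 * (52 * W ^ 3 * (27 * (4096 * W ^ 5) ^ 4))) * (4 * W ^ 2)) ≤
      (2 * W) ^ 69 := by
  have W0 : 0 ≤ W := by linarith
  have h1 : 1 ≤ W ^ 23 := one_le_pow₀ hW
  have h2 : W ^ 28 ≤ W ^ 69 := pow_le_pow_right₀ hW (by norm_num)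
  have e1 : 52 * W ^ 3 * (27 * (4096 * W ^ 5) ^ 4) = 52 * 27 * 4096 ^ 4 * W ^ 23 := by ring
  have h3 : 2 + 2 * (52 * W ^ 3 * (27 * (4096 * W ^ 5) ^ 4)) ≤
      (2 + 2 * (52 * 27 * 4096 ^ 4)) * W ^ 23 := by
    rw [e1]
    nlinarith
  calc 52 * W ^ 3 * ((2 + 2 * (52 * W ^ 3 * (27 * (4096 * W ^ 5) ^ 4))) * (4 * W ^ 2)) ≤
        52 * W ^ 3 * (((2 + 2 * (52 * 27 * 4096 ^ 4)) * W ^ 23) * (4 * W ^ 2)) := by
          gcongr
    _ = (52 * (2 + 2 * (52 * 27 * 4096 ^ 4)) * 4) * W ^ 28 := by ring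
    _ ≤ 2 ^ 69 * W ^ 28 := mul_le_mul_of_nonneg_right (by norm_num) (by positivity)
    _ ≤ 2 ^ 69 * W ^ 69 := mul_le_mul_of_nonneg_left h2 (by positivity)
    _ = _ := by ring

theorem pw_le {W m C : ℝ} (hW : 1 ≤ W) (hm0 : 0 ≤ m) (hm : m ≤ (2 * W) ^ 69) (hC : 0 ≤ C) :
    m ^ C ≤ (2 * W) ^ (69 * C) := by
  calc m ^ C ≤ ((2 * W) ^ 69) ^ C := Real.rpow_le_rpow hm0 hm hC
    _ = (2 * W) ^ (69 * C) := by
      rw [← Real.rpow_natCast, ← Real.rpow_mul (by linarith)]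
      norm_num

theorem pw_le' {W m C : ℝ} (hW : 1 ≤ W) (hm0 : 0 ≤ m) (hm : m ≤ (2 * W) ^ 69) (hC : 0 ≤ C) :
    (2 * W * m) ^ C ≤ (2 * W) ^ (70 * C) := by
  have h : 2 * W * m ≤ (2 * W) ^ 70 := by
    calc 2 * W * m ≤ 2 * W * (2 * W) ^ 69 := mul_le_mul_of_nonneg_left hm (by linarith)
      _ = _ := by ring
  calc (2 * W * m) ^ C ≤ ((2 * W) ^ 70) ^ C :=
        Real.rpow_le_rpow (mul_nonneg (by linarith) hm0) h hC
    _ = (2 * W) ^ (70 * C) := by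
      rw [← Real.rpow_natCast, ← Real.rpow_mul (by linarith)]
      norm_num

theorem num_end {W N X m' C0 p0 p2 : ℝ} (W1 : 1 ≤ W) (N0 : 0 ≤ N) (hX : 0 ≤ X) (m'0 : 0 ≤ m')
    (hN : N ≤ (2 * W) ^ 69) (hN2 : 52 * W * N ≤ (2 * W) ^ 69) (hm' : m' ≤ (2 * W) ^ 69)
    (q0 : 0 ≤ p0) (q2 : 0 ≤ p2) (hC0 : 0 ≤ C0) :
    W * ((2 * W * m') ^ C0 * ((N * X) ^ (1 + p0) * (52 * W * N) ^ (1 + p2))) ≤
      (2 * W) ^ (1 + 70 * C0 + 69 * (1 + p0) + 69 * (1 + p2)) * X ^ (1 + p0) := by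
  have W0 : 0 < 2 * W := by linarith
  have r0 : N ^ (1 + p0) ≤ (2 * W) ^ (69 * (1 + p0)) := pw_le W1 N0 hN (by linarith)
  have r2 : (52 * W * N) ^ (1 + p2) ≤ (2 * W) ^ (69 * (1 + p2)) :=
    pw_le W1 (mul_nonneg (by linarith) N0) hN2 (by linarith)
  have r3 : (2 * W * m') ^ C0 ≤ (2 * W) ^ (70 * C0) := pw_le' W1 m'0 hm' hC0
  have r4 : W ≤ (2 * W) ^ (1 : ℝ) := by rw [Real.rpow_one]; linarith
  have s0 : 0 ≤ N ^ (1 + p0) := Real.rpow_nonneg N0 _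
  have s2 : 0 ≤ (52 * W * N) ^ (1 + p2) := Real.rpow_nonneg (mul_nonneg (by linarith) N0) _
  have s3 : 0 ≤ (2 * W * m') ^ C0 := Real.rpow_nonneg (mul_nonneg W0.le m'0) _
  have sX : 0 ≤ X ^ (1 + p0) := Real.rpow_nonneg hX _
  have b0 : 0 ≤ (2 * W) ^ (69 * (1 + p0)) := s0.trans r0
  have b3 : 0 ≤ (2 * W) ^ (70 * C0) := s3.trans r3
  have t0 : N ^ (1 + p0) * (52 * W * N) ^ (1 + p2) ≤
      (2 * W) ^ (69 * (1 + p0)) * (2 * W) ^ (69 * (1 + p2)) := mul_le_mul r0 r2 s2 b0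
  have t1 : (2 * W * m') ^ C0 * (N ^ (1 + p0) * (52 * W * N) ^ (1 + p2)) ≤
      (2 * W) ^ (70 * C0) * ((2 * W) ^ (69 * (1 + p0)) * (2 * W) ^ (69 * (1 + p2))) :=
    mul_le_mul r3 t0 (mul_nonneg s0 s2) b3
  have t2 : W * ((2 * W * m') ^ C0 * (N ^ (1 + p0) * (52 * W * N) ^ (1 + p2))) ≤
      (2 * W) ^ (1 : ℝ) * ((2 * W) ^ (70 * C0) *
        ((2 * W) ^ (69 * (1 + p0)) * (2 * W) ^ (69 * (1 + p2)))) :=
    mul_le_mul r4 t1 (mul_nonneg s3 (mul_nonneg s0 s2)) (Real.rpow_nonneg W0.le _)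
  rw [Real.mul_rpow N0 hX]
  calc W * ((2 * W * m') ^ C0 * (N ^ (1 + p0) * X ^ (1 + p0) * (52 * W * N) ^ (1 + p2))) =
        W * ((2 * W * m') ^ C0 * (N ^ (1 + p0) * (52 * W * N) ^ (1 + p2))) * X ^ (1 + p0) := by
          ring
    _ ≤ (2 * W) ^ (1 : ℝ) * ((2 * W) ^ (70 * C0) *
        ((2 * W) ^ (69 * (1 + p0)) * (2 * W) ^ (69 * (1 + p2)))) * X ^ (1 + p0) :=
          mul_le_mul_of_nonneg_right t2 sX
    _ = _ := by
      congr 1
      rw [← Real.rpow_add W0, ← Real.rpow_add W0, ← Real.rpow_add W0]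
      congr 1
      ring

/-- the lines of a `U`-class met by the `V`-class of `T0` : `X`, `T` in `U`, `T`, `T0` in `V` -/
theorem in_box {W K Y w1 w2 z0 ρ N : ℝ} {U V : Plk4} {X T T0 : Ln4} {f g : Fin 3 → V3}
    (W1 : 1 ≤ W) (K0 : 0 ≤ K) (Y0 : 0 < Y) (w10 : 0 ≤ w1) (w20 : 0 ≤ w2)
    (hYw : Y ≤ 52 * W * w2) (h21 : w2 ≤ W ^ 2 * w1) (hF : FH (4 * W) Y U f z0 ρ)
    (hG : FH (4 * W) Y V g z0 ρ) (A : Aln K Y w1 w2 f g) (nU1 : U.w 1 ≤ W * w1)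
    (nU2 : U.w 2 ≤ W * w2) (nV1 : V.w 1 ≤ W * w1) (nV2 : V.w 2 ≤ W * w2)
    (hX : InP X U z0 ρ) (hT : InP T U z0 ρ) (hT' : InP T V z0 ρ) (hT0 : InP T0 V z0 ρ)
    (hN : N = (2 + 2 * (52 * W ^ 3 * K)) * (4 * W ^ 2)) :
    InB X T0 g ![N * Y, 52 * W ^ 3 * N * w1, N * (52 * W * w2)] z0 ρ := by
  have W0 : 0 ≤ W := by linarith
  have c1 : 1 ≤ 52 * W ^ 3 := by
    have : 1 ≤ W ^ 3 := one_le_pow₀ W1
    linarith
  have c2 : 1 ≤ 52 * W := by linarith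
  have c12 : 52 * W ≤ 52 * W ^ 3 := by
    have : W ≤ W ^ 3 := by simpa using pow_le_pow_right₀ W1 (show 1 ≤ 3 by norm_num)
    linarith
  obtain ⟨w1', hw1'⟩ : ∃ x : ℝ, x = 52 * W ^ 3 * w1 := ⟨_, rfl⟩
  obtain ⟨w2', hw2'⟩ : ∃ x : ℝ, x = 52 * W * w2 := ⟨_, rfl⟩
  obtain ⟨K', hK'⟩ : ∃ x : ℝ, x = 52 * W ^ 3 * K := ⟨_, rfl⟩
  obtain ⟨m, hm⟩ : ∃ x : ℝ, x = 4 * W ^ 2 := ⟨_, rfl⟩
  have w21' : w2' ≤ w1' := by
    rw [hw1', hw2']
    calc 52 * W * w2 ≤ 52 * W * (W ^ 2 * w1) := mul_le_mul_of_nonneg_left h21 (by positivity)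
      _ = _ := by ring
  have w1le : w1 ≤ w1' := by rw [hw1']; exact le_mul_of_one_le_left w10 c1
  have w2le : w2 ≤ w2' := by rw [hw2']; exact le_mul_of_one_le_left w20 c2
  have K'0 : 0 ≤ K' := by rw [hK']; positivity
  have m0 : 0 ≤ m := by rw [hm]; positivity
  have hm4 : 4 * W ≤ m := by
    rw [hm]; nlinarith
  have A' : Aln K' Y w1' w2' g f := by
    have B := A.symm
    have e1 : ∀ {x : ℝ}, |x| * w1 ≤ K * Y → |x| * w1' ≤ K' * Y := by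
      intro x hx
      calc |x| * w1' = 52 * W ^ 3 * (|x| * w1) := by rw [hw1']; ring
        _ ≤ 52 * W ^ 3 * (K * Y) := mul_le_mul_of_nonneg_left hx (by positivity)
        _ = _ := by rw [hK']; ring
    have e2 : ∀ {x : ℝ}, |x| * w2 ≤ K * Y → |x| * w2' ≤ K' * Y := by
      intro x hx
      calc |x| * w2' = 52 * W * (|x| * w2) := by rw [hw2']; ring
        _ ≤ 52 * W * (K * Y) := mul_le_mul_of_nonneg_left hx (by positivity)
        _ ≤ 52 * W ^ 3 * (K * Y) := mul_le_mul_of_nonneg_right c12 (by positivity)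
        _ = _ := by rw [hK']; ring
    have e3 : ∀ {x : ℝ}, |x| * w1 ≤ K * w2 → |x| * w1' ≤ K' * w2' := by
      intro x hx
      calc |x| * w1' = 52 * W ^ 3 * (|x| * w1) := by rw [hw1']; ring
        _ ≤ 52 * W ^ 3 * (K * w2) := mul_le_mul_of_nonneg_left hx (by positivity)
        _ = K' * w2 := by rw [hK']; ring
        _ ≤ K' * w2' := mul_le_mul_of_nonneg_left w2le K'0
    exact ⟨e1 B.a01, e2 B.a02, e1 B.a10, e2 B.a20, e3 B.b12, e3 B.b21⟩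
  intro z hz hz'
  have b1 := hF.box X T hX hT z hz hz'
  have b2 := hG.box T T0 hT' hT0 z hz hz'
  obtain ⟨D1, hD1⟩ : ∃ D : V3, D = X.pos z - T.pos z := ⟨_, rfl⟩
  obtain ⟨D2, hD2⟩ : ∃ D : V3, D = T.pos z - T0.pos z := ⟨_, rfl⟩
  have hsum : X.pos z - T0.pos z = D1 + D2 := by
    rw [hD1, hD2]; abel
  rw [← hD1] at b1
  rw [← hD2] at b2
  have hmY : 4 * W * Y ≤ m * Y := mul_le_mul_of_nonneg_right hm4 Y0.le
  have wd : ∀ {x sw w w' : ℝ}, |x| ≤ 4 * W * sw → sw ≤ W * w → w ≤ w' → |x| ≤ m * w' := by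
    intro x sw w w' hx hsw hww
    calc |x| ≤ 4 * W * sw := hx
      _ ≤ 4 * W * (W * w) := mul_le_mul_of_nonneg_left hsw (by linarith)
      _ = m * w := by rw [hm]; ring
      _ ≤ m * w' := mul_le_mul_of_nonneg_left hww m0
  have d0 : |dt (f 0) D1| ≤ m * Y := by
    have := b1 0
    simp only [Matrix.cons_val_zero] at this
    exact this.trans hmY
  have d1 : |dt (f 1) D1| ≤ m * w1' := by
    have := b1 1
    simp only [Matrix.cons_val_one] at this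
    exact wd this nU1 w1le
  have d2 : |dt (f 2) D1| ≤ m * w2' := by
    have := b1 2
    simp only [Matrix.cons_val] at this
    exact wd this nU2 w2le
  have g0 : |dt (g 0) D2| ≤ m * Y := by
    have := b2 0
    simp only [Matrix.cons_val_zero] at this
    exact this.trans hmY
  have g1 : |dt (g 1) D2| ≤ m * w1' := by
    have := b2 1
    simp only [Matrix.cons_val_one] at this
    exact wd this nV1 w1le
  have g2 : |dt (g 2) D2| ≤ m * w2' := by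
    have := b2 2
    simp only [Matrix.cons_val] at this
    exact wd this nV2 w2le
  obtain ⟨k0, k1, k2⟩ := A'.box hF.ortho hG.ortho K'0 Y0 (by rw [hw2']; exact hYw) w21' m0 d0 d1
    d2 (fun i => abs_dt_le_one hF.ortho hG.ortho i i)
  have hNm : N = (2 + 2 * K') * m := by rw [hN, hK', hm]
  intro i
  rw [hsum, dt_add]
  refine (abs_add_le _ _).trans ?_
  fin_cases i
  · simp only [Fin.zero_eta, Matrix.cons_val_zero]
    calc |dt (g 0) D1| + |dt (g 0) D2| ≤ (1 + 2 * K') * m * Y + m * Y := add_le_add k0 g0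
      _ = N * Y := by rw [hNm]; ring
  · simp only [Fin.mk_one, Matrix.cons_val_one]
    calc |dt (g 1) D1| + |dt (g 1) D2| ≤ (1 + 2 * K') * m * w1' + m * w1' := add_le_add k1 g1
      _ = 52 * W ^ 3 * N * w1 := by rw [hNm, hw1']; ring
  · simp only [Fin.reduceFinMk, Matrix.cons_val]
    calc |dt (g 2) D1| + |dt (g 2) D2| ≤ (1 + 2 * K') * m * w2' + m * w2' := add_le_add k2 g2
      _ = N * (52 * W * w2) := by rw [hNm, hw2']; ring

/-- **(B2') [HULL] mixed** -/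
theorem hullMx : HullMx := by
  classical
  intro η qm qp hE
  obtain ⟨C0, hC0, hW⟩ := Hul565.wideHull η qm qp hE
  have q0 : 0 ≤ qp 0 := (hE.le 0).1.trans (hE.le 0).2
  have q2 : 0 ≤ qp 2 := (hE.le 2).1.trans (hE.le 2).2
  refine ⟨1 + 70 * C0 + 69 * (1 + qp 0) + 69 * (1 + qp 2), by positivity, ?_⟩
  intro L P cu cv Uf Vf W M a w1 w2 z0 ρ r h hr Y haY hN hA c
  have W1 := h.W1
  have W0 : 0 ≤ W := by linarith
  have a0 := h.a0
  have w10 := h.w10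
  have w20 := h.w20
  have M0 := h.M0
  have Y0 : 0 < Y := a0.trans_le haY
  by_cases hc : ∃ t0 ∈ P, cv t0 = c
  swap
  · have : (P.filter fun t => cv t = c) = ∅ := by
      rw [filter_eq_empty_iff]
      intro t ht htc
      exact hc ⟨t, ht, htc⟩
    rw [this, image_empty, card_empty, Nat.cast_zero]
    positivity
  obtain ⟨t0, ht0, rfl⟩ := hc
  -- levels
  have hYw52 : Y ≤ 52 * W * w2 := by
    have h1 := (hN t0 ht0).1
    have h2 := Hul565.kp_le13 h.r0 h.ρ0.le (h.shU t0 ht0) (h.inU t0 ht0)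
    have h3 := (h.shU t0 ht0).w0_le
    have h4 := (h.dimU t0 ht0).2.2.2
    linarith
  have hW5 : 1 ≤ W ^ 4 := one_le_pow₀ W1
  have hYw : Y ≤ 4096 * W ^ 5 * w2 := by
    refine hYw52.trans (mul_le_mul_of_nonneg_right ?_ w20.le)
    have : W * 1 ≤ W * W ^ 4 := mul_le_mul_of_nonneg_left hW5 W0
    have e : W * W ^ 4 = W ^ 5 := by ring
    nlinarith
  have h21 : w2 ≤ W ^ 2 * w1 := by
    obtain ⟨-, nU1, nU2⟩ := h.dimU t0 ht0
    calc w2 ≤ W * (Uf (cu t0)).w 2 := nU2.1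
      _ ≤ W * (Uf (cu t0)).w 1 := mul_le_mul_of_nonneg_left (h.shU t0 ht0).w_le W0
      _ ≤ W * (W * w1) := mul_le_mul_of_nonneg_left nU1.2 W0
      _ = W ^ 2 * w1 := by ring
  obtain ⟨fu, fv, hfu, hfv, hAl⟩ := frames_of h Y0.le hYw (fun t ht => (hN t ht).2) hA
  have hC := const_le W1
  obtain ⟨K, hK⟩ : ∃ x : ℝ, x = 27 * (4096 * W ^ 5) ^ 4 := ⟨_, rfl⟩
  rw [← hK] at hC
  rw [← hK] at hAl
  have K0 : 0 ≤ K := by rw [hK]; positivity
  obtain ⟨N, hNd⟩ : ∃ x : ℝ, x = (2 + 2 * (52 * W ^ 3 * K)) * (4 * W ^ 2) := ⟨_, rfl⟩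
  rw [← hNd] at hC
  obtain ⟨m', hm'⟩ : ∃ x : ℝ, x = 52 * W ^ 3 * N := ⟨_, rfl⟩
  rw [← hm'] at hC
  have c1 : 1 ≤ 52 * W ^ 3 := by
    have : 1 ≤ W ^ 3 := one_le_pow₀ W1
    linarith
  have c2 : 1 ≤ 52 * W := by linarith
  have c12 : 52 * W ≤ 52 * W ^ 3 := by
    have : W ≤ W ^ 3 := by simpa using pow_le_pow_right₀ W1 (show 1 ≤ 3 by norm_num)
    linarith
  have N1 : 1 ≤ N := by
    have h1 : 1 ≤ 4 * W ^ 2 := by nlinarith
    have h2 : 1 * (4 * W ^ 2) ≤ (2 + 2 * (52 * W ^ 3 * K)) * (4 * W ^ 2) := by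
      refine mul_le_mul_of_nonneg_right ?_ (by positivity)
      have : 0 ≤ 52 * W ^ 3 * K := by positivity
      linarith
    rw [hNd]
    linarith
  have N0 : 0 ≤ N := by linarith
  have Nm : N ≤ m' := by rw [hm']; exact le_mul_of_one_le_left N0 c1
  have N2 : 52 * W * N ≤ m' := by rw [hm']; exact mul_le_mul_of_nonneg_right c12 N0
  have m'1 : 1 ≤ m' := N1.trans Nm
  have m'0 : 0 ≤ m' := by linarith
  have key : ∀ t ∈ P, cv t = cv t0 → ∀ s ∈ P, cu s = cu t →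
      s ∈ P.filter fun s => InB (L s) (L t0) (fv (cv t0))
        ![N * Y, m' * w1, N * (52 * W * w2)] z0 ρ := by
    intro t ht htv s hs hsu
    rw [mem_filter]
    refine ⟨hs, ?_⟩
    have hi : InP (L s) (Uf (cu t)) z0 ρ := hsu ▸ h.inU s hs
    have hi' : InP (L t) (Vf (cv t0)) z0 ρ := htv ▸ h.inV t ht
    have A := hAl t ht
    rw [htv] at A
    rw [hm']
    exact in_box W1 K0 Y0 w10.le w20.le hYw52 h21 (hfu t ht) (hfv t0 ht0) A (h.dimU t ht).2.1.2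
      (h.dimU t ht).2.2.2 (h.dimV t0 ht0).2.1.2 (h.dimV t0 ht0).2.2.2 hi (h.inU t ht) hi'
      (h.inV t0 ht0) hNd
  have hw := hW L P cu cv Uf Vf W M a w1 w2 z0 ρ r h hr m' (L t0) (fv (cv t0)) (N * Y)
    (N * (52 * W * w2)) m'1 (hfv t0 ht0).ortho (haY.trans (le_mul_of_one_le_left Y0.le N1))
    ((le_mul_of_one_le_left w20.le c2).trans
      (le_mul_of_one_le_left (mul_nonneg (by linarith) w20.le) N1))
    (mul_le_mul_of_nonneg_left hYw52 N0) (by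
      calc N * (52 * W * w2) ≤ N * (52 * W * (W ^ 2 * w1)) := by gcongr
        _ = m' * w1 := by rw [hm']; ring)
  have hcard : (((P.filter fun t => cv t = cv t0).image cu).card : ℝ) ≤
      W * ((2 * W * m') ^ C0 * ((N * Y / a) ^ (1 + qp 0) *
        (N * (52 * W * w2) / w2) ^ (1 + qp 2))) := by
    have hfull : ∀ t ∈ P, M ≤ W * ((@Finset.filter ℕ (fun s => cu s = cu t)
        (fun s => Classical.propDecidable _) P).card : ℝ) := by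
      intro t ht
      convert h.fullU t ht
    have hB := hw.trans (le_of_eq (show _ = ((2 * W * m') ^ C0 * ((N * Y / a) ^ (1 + qp 0) *
      (N * (52 * W * w2) / w2) ^ (1 + qp 2))) * M by ring))
    have := Hc792.card_met (P := P) (u := cv) (v := cu) (c := cv t0) (by linarith : 0 < W) M0
      hfull key hB
    convert this
  refine hcard.trans ?_
  have e2 : N * (52 * W * w2) / w2 = 52 * W * N := by
    field_simp
  have e0 : N * Y / a = N * (Y / a) := by ring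
  rw [e2, e0]
  exact num_end W1 N0 (div_nonneg Y0.le a0.le) m'0 (Nm.trans hC) (N2.trans hC) hC q0 q2 hC0

end Crest.Agent.R136.Hmx719
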