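import Crest.Agent.R136.Asm4_102

/-!
# R136 (S0187), PLAN 2 (AL) (C): hull counts, one step (helper412)

`step` : a point near the common line `T`, in the second sheet fattened to `A`, lies in the first
sheet fattened to `S.a + 32 A + 16 E`, near `T` (base sheet curved, `PolyC E`).
-/

set_option autoImplicit false
set_option linter.unusedVariables false

namespace Crest.Agent.R136.Hul412

open Crest.Agent.R136.Sh605
open Crest.Agent.R136.Tl102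
open Crest.Agent.R136.K4 (Plk4)
open Crest.Agent.R136.Deep51 (CoinC CloseC dt_exp abs_dt_exp abs_dt_unit)
open Crest.Agent.R136.Tlt51 (CompC Shp InP)
open Crest.Agent.R136.KapP335

/-- offset along the normal axis of two points of the doubled box -/
theorem off0 {S : Plk4} {z0 ρ r : ℝ} (hr : 0 < r) (hS : Shp S z0 ρ r) {z : ℝ} (hz : z0 ≤ z)
    (hz' : z ≤ z0 + ρ) {x y : V3} (hx : InK S.e S.c (dbl3 S.w) z x)
    (hy : InK S.e S.c (dbl3 S.w) z y) {A κ : ℝ} (hκ : 0 ≤ κ) (hqx : |S.q z x| ≤ A) (hqy : |S.q z y| ≤ A)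
    (h1 : |dt (S.e 1) (y - x)| ≤ κ * S.w 1) (h2 : |dt (S.e 2) (y - x)| ≤ κ * S.w 2) :
    |dt (S.e 0) (y - x)| ≤ 4 * A + 4 * κ * S.w 0 := by
  have hw0 : 0 < S.w 0 := hr.trans_le (hS.r0_le.trans hS.a_le0)
  have P := StP.of_shN hS hw0
  have hw1 := P.pos 1
  have hw2 := P.pos 2
  have h := (P.path hz hz' hx hy).2
  have a1 : S.w 0 / S.w 1 * |dt (S.e 1) (y - x)| ≤ κ * S.w 0 := by
    calc S.w 0 / S.w 1 * |dt (S.e 1) (y - x)| ≤ S.w 0 / S.w 1 * (κ * S.w 1) :=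
          mul_le_mul_of_nonneg_left h1 (by positivity)
      _ = _ := by field_simp
  have a2 : S.w 0 / S.w 2 * |dt (S.e 2) (y - x)| ≤ κ * S.w 0 := by
    calc S.w 0 / S.w 2 * |dt (S.e 2) (y - x)| ≤ S.w 0 / S.w 2 * (κ * S.w 2) :=
          mul_le_mul_of_nonneg_left h2 (by positivity)
      _ = _ := by field_simp
  have a3 : |S.q z y - S.q z x| ≤ A + A := (abs_sub _ _).trans (add_le_add hqy hqx)
  linarith

/-- curvature extent at most `13 w 0` -/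
theorem kapP_le {S : Plk4} {z0 ρ r : ℝ} (hr : 0 < r) (hρ : 0 ≤ ρ) (hS : Shp S z0 ρ r) {T : Ln4}
    (hT : InP T S z0 ρ) : kapP S z0 ρ T ≤ 13 * S.w 0 := by
  have hw0 : 0 < S.w 0 := hr.trans_le (hS.r0_le.trans hS.a_le0)
  have P := StP.of_shN hS hw0
  obtain ⟨b0, b1, G, hE⟩ := exists_isExp P.isQ S.e hw0.ne' T z0 ρ
  have N := hE.nrmC P hρ (fun z h1 h2 => (hT z h1 h2).1)
  rw [kapP_eq hw0.ne' hE]
  have := mul_le_mul_of_nonneg_left (Tl102.kap_le N) hw0.le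
  linarith

/-- change of frame of an offset -/
theorem frame_loc {S S' : Plk4} {B lam δ κ : ℝ} {V : V3} (he : Ortho S.e) (he' : Ortho S'.e)
    (hB : 1 ≤ B) (hlam : 1 ≤ lam) (hC : CompC B lam S S') (hw0 : 0 ≤ S.w 0) (h02 : S.w 0 ≤ S.w 2)
    (h21 : S.w 2 ≤ S.w 1) (h02' : S'.w 0 ≤ S'.w 2) (hδ : 0 ≤ δ) (hκ0 : 0 ≤ κ)
    (h0 : |dt (S'.e 0) V| ≤ 52 * δ * S.w 0 + 4 * κ * S'.w 0)
    (h1 : |dt (S'.e 1) V| ≤ κ * S'.w 1) (h2 : |dt (S'.e 2) V| ≤ κ * S'.w 2) :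
    |dt (S.e 1) V| ≤ (52 * δ + 6 * (κ * (B * lam))) * S.w 1 ∧
      |dt (S.e 2) V| ≤ (52 * δ + 6 * (κ * (B * lam))) * S.w 2 := by
  have c2 := (hC.w 2 (by decide)).2
  have c1 := (hC.w 1 (by decide)).2
  have hw2 : 0 ≤ S.w 2 := hw0.trans h02
  have hw1 : 0 ≤ S.w 1 := hw2.trans h21
  have hBl : B ≤ B * lam := le_mul_of_one_le_right (by linarith) hlam
  have hκB : 0 ≤ κ * (B * lam) := mul_nonneg hκ0 (by linarith)
  have d2 : κ * S'.w 2 ≤ κ * (B * lam) * S.w 2 := by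
    calc κ * S'.w 2 ≤ κ * (B * S.w 2) := mul_le_mul_of_nonneg_left c2 hκ0
      _ ≤ κ * (B * lam * S.w 2) :=
          mul_le_mul_of_nonneg_left (mul_le_mul_of_nonneg_right hBl hw2) hκ0
      _ = _ := by ring
  have d1 : κ * S'.w 1 ≤ κ * (B * lam) * S.w 1 := by
    calc κ * S'.w 1 ≤ κ * (B * S.w 1) := mul_le_mul_of_nonneg_left c1 hκ0
      _ ≤ κ * (B * lam * S.w 1) :=
          mul_le_mul_of_nonneg_left (mul_le_mul_of_nonneg_right hBl hw1) hκ0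
      _ = _ := by ring
  have d0 : κ * S'.w 0 ≤ κ * (B * lam) * S.w 2 := (mul_le_mul_of_nonneg_left h02' hκ0).trans d2
  have m0 : δ * S.w 0 ≤ δ * S.w 2 := mul_le_mul_of_nonneg_left h02 hδ
  have e0 : |dt (S'.e 0) V| ≤ 52 * (δ * S.w 2) + 4 * (κ * (B * lam) * S.w 2) := by linarith
  have m1 : δ * S.w 2 ≤ δ * S.w 1 := mul_le_mul_of_nonneg_left h21 hδ
  have m2 : κ * (B * lam) * S.w 2 ≤ κ * (B * lam) * S.w 1 := mul_le_mul_of_nonneg_left h21 hκB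
  have hone : ∀ i j (x y : ℝ), |dt (S'.e j) V| ≤ y → |dt (S.e i) (S'.e j)| * |dt (S'.e j) V| ≤ y := by
    intro i j x y hy
    have := mul_le_mul (abs_dt_unit he he' i j) hy (abs_nonneg _) zero_le_one
    linarith
  constructor
  · have g := abs_dt_exp he he' 1 V
    have g0 := hone 1 0 0 _ e0
    have g1 := hone 1 1 0 _ (h1.trans d1)
    have g2 := hone 1 2 0 _ (h2.trans d2)
    refine (g.trans (add_le_add (add_le_add g0 g1) g2)).trans ?_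
    have e : (52 * δ + 6 * (κ * (B * lam))) * S.w 1 =
        52 * (δ * S.w 1) + 6 * (κ * (B * lam) * S.w 1) := by ring
    rw [e]
    linarith
  · have g := abs_dt_exp he he' 2 V
    have g0 := hone 2 0 0 _ e0
    have g2 := hone 2 2 0 _ (h2.trans d2)
    have g1 : |dt (S.e 2) (S'.e 1)| * |dt (S'.e 1) V| ≤ κ * (B * lam) * S.w 2 := by
      calc |dt (S.e 2) (S'.e 1)| * |dt (S'.e 1) V| ≤ |dt (S.e 2) (S'.e 1)| * (κ * (B * S.w 1)) :=
            mul_le_mul_of_nonneg_left (h1.trans (mul_le_mul_of_nonneg_left c1 hκ0)) (abs_nonneg _)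
        _ = κ * B * (|dt (S.e 2) (S'.e 1)| * S.w 1) := by ring
        _ ≤ κ * B * (lam * S.w 2) :=
            mul_le_mul_of_nonneg_left (hC.g' 2 (by decide)) (mul_nonneg hκ0 (by linarith))
        _ = _ := by ring
    refine (g.trans (add_le_add (add_le_add g0 g1) g2)).trans ?_
    have e : (52 * δ + 6 * (κ * (B * lam))) * S.w 2 =
        52 * (δ * S.w 2) + 6 * (κ * (B * lam) * S.w 2) := by ring
    rw [e]
    linarith

/-- **one step** of the hull -/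
theorem step {S S' : Plk4} {T : Ln4} {z0 ρ r B lam E A δ κ : ℝ} (hr : 0 < r) (hρ : 0 < ρ)
    (hS : Shp S z0 ρ r) (hS' : Shp S' z0 ρ r) (hB : 1 ≤ B) (hlam : 1 ≤ lam)
    (hC : CompC B lam S S') (hT : InP T S z0 ρ) (hT' : InP T S' z0 ρ)
    (hP : PolyC E S S' T z0 ρ) (hκ : 0 < kapP S z0 ρ T) (hE : 104 * E ≤ kapP S z0 ρ T)
    (hA : S'.a ≤ A) (hAδ : A ≤ δ * kapP S z0 ρ T) (hκ0 : 0 ≤ κ) (hκ8 : κ ≤ 1 / 8)
    (hε : 34 * (10 ^ 12 * (δ + κ * (B * lam) ^ 2)) ≤ 1) {z : ℝ} (hz : z0 ≤ z) (hz' : z ≤ z0 + ρ)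
    {p : V3} (hp : InK S'.e S'.c (dbl3 S'.w) z p) (hq : |S'.q z p| ≤ A)
    (h1 : |dt (S'.e 1) (p - T.pos z)| ≤ κ * S'.w 1)
    (h2 : |dt (S'.e 2) (p - T.pos z)| ≤ κ * S'.w 2) :
    |dt (S.e 0) (p - T.pos z)| ≤ 17 * (10 ^ 12 * (δ + κ * (B * lam) ^ 2)) * S.w 0 ∧
      |dt (S.e 1) (p - T.pos z)| ≤ (52 * δ + 6 * (κ * (B * lam))) * S.w 1 ∧
      |dt (S.e 2) (p - T.pos z)| ≤ (52 * δ + 6 * (κ * (B * lam))) * S.w 2 ∧
      |S.q z p| ≤ S.a + 32 * A + 16 * E := by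
  have hw0 : 0 < S.w 0 := hr.trans_le (hS.r0_le.trans hS.a_le0)
  have hw0' : 0 < S'.w 0 := hr.trans_le (hS'.r0_le.trans hS'.a_le0)
  have P := StP.of_shN hS hw0
  have P' := StP.of_shN hS' hw0'
  have hw1' := P'.pos 1
  have hw2' := P'.pos 2
  have ha' : 0 ≤ S'.a := (abs_nonneg _).trans (hT' z0 le_rfl (by linarith)).2
  have hA0 : 0 ≤ A := ha'.trans hA
  have hδ : 0 ≤ δ := by
    by_contra hc
    push Not at hc
    nlinarith
  have hk13 := kapP_le hr hρ.le hS hT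
  have hAw : A ≤ 13 * δ * S.w 0 := by
    have := mul_le_mul_of_nonneg_left hk13 hδ
    linarith
  -- own location
  have hTK : InK S'.e S'.c (dbl3 S'.w) z (T.pos z) := by
    intro i
    have := (hT' _ hz hz').1 i
    have hwi := (P'.pos i).le
    change _ ≤ 2 * S'.w i
    linarith
  have h0 := off0 hr hS' hz hz' hTK hp hκ0 ((hT' _ hz hz').2.trans hA) hq h1 h2
  have h0' : |dt (S'.e 0) (p - T.pos z)| ≤ 52 * δ * S.w 0 + 4 * κ * S'.w 0 := by linarith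
  obtain ⟨f1, f2⟩ := frame_loc hS.ortho hS'.ortho hB hlam hC hw0.le hS.w0_le hS.w_le hS'.w0_le hδ
    hκ0 h0' h1 h2
  obtain ⟨ζ, hζ, hζ', rfl⟩ := height_exists hρ hz hz'
  -- expansions
  obtain ⟨b0, b1, G, hE0⟩ := exists_isExp P.isQ S.e hw0.ne' T z0 ρ
  obtain ⟨b0', b1', G', hE'⟩ := exists_isExp P'.isQ S.e hw0.ne' T z0 ρ
  obtain ⟨d0, d1, H, hH⟩ := exists_isExp P'.isQ S'.e hw0'.ne' T z0 ρ
  have hkE := kapP_eq hw0.ne' hE0
  have D : Two S.e S.c S.w S.q S'.e S'.c S'.w S'.q T z0 ρ S.a A b0 b1 G b0' b1' G' d0 d1 H B lam :=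
    { S := P
      S' := P'
      hρ := hρ.le
      hT := hT
      hT' := fun z h h' => ⟨(hT' z h h').1, (hT' z h h').2.trans hA⟩
      hE := hE0
      hE' := hE'
      hH := hH
      w02 := hS.w0_le
      w21 := hS.w_le
      w02' := hS'.w0_le
      w21' := hS'.w_le
      B1 := hB
      lam1 := hlam
      wB1 := (hC.w 1 (by decide)).2
      wB2 := (hC.w 2 (by decide)).2
      wB1' := (hC.w 1 (by decide)).1
      wB2' := (hC.w 2 (by decide)).1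
      tilt := hC.g' 2 (by decide)
      tilt' := by rw [dt_comm]; exact hC.g 2 (by decide) }
  obtain ⟨-, -, X, hX, O⟩ := hP b0 b1 G b0' b1' G' hE0 hE'
  have hκ1 : kap b0 b1 G ≤ 13 := Tl102.kap_le D.nrm
  rw [hkE] at hκ hE hAδ hk13
  have hκp : 0 < kap b0 b1 G := (mul_pos_iff_of_pos_left hw0).1 hκ
  obtain ⟨X0, -, -⟩ := O.nonneg
  have hE0' : 0 ≤ E := (mul_nonneg X0 hκ.le).trans hX
  have hX1 : X ≤ 1 := by
    by_contra hc
    push Not at hc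
    nlinarith
  have hX8 : 8 * (X * (S.w 0 * kap b0 b1 G)) ≤ S.w 2 := by
    have := hS.w0_le
    linarith
  have hBl : 0 ≤ (B * lam) ^ 2 := sq_nonneg _
  have hε0 : 0 ≤ 10 ^ 12 * (δ + κ * (B * lam) ^ 2) :=
    mul_nonneg (by norm_num) (add_nonneg hδ (mul_nonneg hκ0 hBl))
  have hε1 : 10 ^ 12 * (δ + κ * (B * lam) ^ 2) ≤ 1 := by linarith
  have g1 : |pv S'.e S'.w (p - T.pos (z0 + ρ * ζ)) 1| ≤ κ := by
    change |dt (S'.e 1) (p - T.pos (z0 + ρ * ζ)) / S'.w 1| ≤ _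
    rw [abs_div, abs_of_pos hw1', div_le_iff₀ hw1']
    exact h1
  have g2 : |pv S'.e S'.w (p - T.pos (z0 + ρ * ζ)) 2| ≤ κ := by
    change |dt (S'.e 2) (p - T.pos (z0 + ρ * ζ)) / S'.w 2| ≤ _
    rw [abs_div, abs_of_pos hw2', div_le_iff₀ hw2']
    exact h2
  obtain ⟨k1, k2⟩ := D.coin hκp le_rfl hκ1 O hX8 hX1 hX hAδ hκ8 hε1 hζ hζ' hp hq g1 g2
  refine ⟨k1.trans (le_of_eq (mul_comm _ _)), f1, f2, k2.trans ?_⟩
  generalize 10 ^ 12 * (δ + κ * (B * lam) ^ 2) = ε at *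
  have h11 : 11 * ε * E ≤ E := mul_le_of_le_one_left hE0' (by linarith)
  linarith

end Crest.Agent.R136.Hul412
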