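import Crest.Agent.R136.Hul1_412
import Crest.Agent.R136.Hc1_792
import Crest.Agent.R136.Rft_877

/-!
# R136 (S0187), PLAN 2 (AL) (C): hull counts, curved sheets (helper412)

* `Par` : aligned pair with coefficient closeness `E`, both sheets with curvature `≥ 10^18 W^12 E`.
* `mem_one`, `mem_two` : lines of a class reached in one / two steps lie in the fattened base sheet.
* `hull_one`, `hull_two` : the counts.
-/

set_option autoImplicit false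
set_option linter.unusedVariables false

open Finset

namespace Crest.Agent.R136.Hul412

open Crest.Agent.R136.Sh605
open Crest.Agent.R136.Tl102
open Crest.Agent.R136.K4 (Plk4)
open Crest.Agent.R136.Deep51 (CoinC CloseC dt_exp abs_dt_exp abs_dt_unit)
open Crest.Agent.R136.Tlt51 (CompC Shp InP)
open Crest.Agent.R136.KapP335
open Crest.Agent.R136.Pl2W102 (Near Ex2 Two1)
open Crest.Agent.R136.Phc248 (ph phC ph_ge_one)
open Crest.Agent.R136.Rf877 (Tub)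

/-- dimensions of a sheet, `Near W` -/
def Dim (W a w1 w2 : ℝ) (S : Plk4) : Prop := Near W a S.a ∧ Near W w1 (S.w 1) ∧ Near W w2 (S.w 2)

/-- aligned pair `S`, `S'` through the line `T`, coefficients close up to `E`, curved -/
structure Par (W E w1 w2 : ℝ) (S S' : Plk4) (T : Ln4) (z0 ρ : ℝ) : Prop where
  ang : angC S S' * w1 ≤ W * w2
  p : PolyC E S S' T z0 ρ
  k : 10 ^ 18 * W ^ 12 * E ≤ kapP S z0 ρ T

theorem compC_near {W a w1 w2 : ℝ} {S S' : Plk4} (hW : 1 ≤ W) (ha : 0 < a) (h1 : 0 < w1)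
    (h2 : 0 < w2) (hS : Dim W a w1 w2 S) (hS' : Dim W a w1 w2 S') (hw1 : 0 ≤ S.w 1)
    (hang : angC S S' * w1 ≤ W * w2) : CompC (W ^ 2) (W ^ 3) S S' := by
  have W0 : 0 < W := by linarith
  have key : ∀ {x y z : ℝ}, Near W x y → Near W x z → y ≤ W ^ 2 * z := by
    intro x y z h h'
    calc y ≤ W * x := h.2
      _ ≤ W * (W * z) := mul_le_mul_of_nonneg_left h'.1 W0.le
      _ = _ := by ring
  have ang0 : 0 ≤ angC S S' := angC_nonneg S S'
  refine compC_of ?_ ⟨key hS.1 hS'.1, key hS'.1 hS.1⟩ hw1 ?_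
  · intro i hi
    fin_cases i
    · exact absurd rfl hi
    · exact ⟨key hS.2.1 hS'.2.1, key hS'.2.1 hS.2.1⟩
    · exact ⟨key hS.2.2 hS'.2.2, key hS'.2.2 hS.2.2⟩
  · calc angC S S' * S.w 1 ≤ angC S S' * (W * w1) := mul_le_mul_of_nonneg_left hS.2.1.2 ang0
      _ = W * (angC S S' * w1) := by ring
      _ ≤ W * (W * w2) := mul_le_mul_of_nonneg_left hang W0.le
      _ = W ^ 2 * w2 := by ring
      _ ≤ W ^ 2 * (W * S.w 2) := mul_le_mul_of_nonneg_left hS.2.2.1 (by positivity)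
      _ = _ := by ring

theorem num_a {W : ℝ} (hW : 1 ≤ W) : 17 * 10 ^ 12 * (1 / (2 * 10 ^ 16 * W ^ 12)) ≤
    1 / (10 * W ^ 2) := by
  rw [mul_one_div, div_le_div_iff₀ (by positivity) (by positivity)]
  have : W ^ 2 ≤ W ^ 12 := pow_le_pow_right₀ hW (by norm_num)
  have h0 : 0 ≤ W ^ 12 := by positivity
  linarith

theorem num_b {W : ℝ} (hW : 1 ≤ W) : 52 * (1 / (2 * 10 ^ 16 * W ^ 12)) ≤
    3 / (10 ^ 15 * W ^ 12) := by
  rw [mul_one_div, div_le_div_iff₀ (by positivity) (by positivity)]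
  have h0 : 0 ≤ W ^ 12 := by positivity
  linarith

theorem num_c {W : ℝ} (hW : 1 ≤ W) : 1 / (2 * 10 ^ 16 * W ^ 12) ≤ 1 / (2 * 10 ^ 16) := by
  apply one_div_le_one_div_of_le (by norm_num)
  have : 1 ≤ W ^ 12 := one_le_pow₀ hW
  linarith

/-- **one step, numbers done**: `A ≤ 49 E`, lateral distance `κ` -/
theorem step_num {W a w1 w2 E A κ z0 ρ r : ℝ} {S S' : Plk4} {T : Ln4} (hr : 0 < r) (hρ : 0 < ρ)
    (hW : 1 ≤ W) (ha : 0 < a) (h1 : 0 < w1) (h2 : 0 < w2) (hS : Shp S z0 ρ r) (hS' : Shp S' z0 ρ r)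
    (dS : Dim W a w1 w2 S) (dS' : Dim W a w1 w2 S') (hT : InP T S z0 ρ) (hT' : InP T S' z0 ρ)
    (hP : Par W E w1 w2 S S' T z0 ρ) (haE : W * a ≤ E) (hA : E ≤ A) (hA' : A ≤ 49 * E)
    (hκ0 : 0 ≤ κ) (hκ : κ * (10 ^ 14 * W ^ 10) ≤ 1) {z : ℝ} (hz : z0 ≤ z) (hz' : z ≤ z0 + ρ)
    {p : V3} (hp : InK S'.e S'.c (dbl3 S'.w) z p) (hq : |S'.q z p| ≤ A)
    (k1 : |dt (S'.e 1) (p - T.pos z)| ≤ κ * S'.w 1)
    (k2 : |dt (S'.e 2) (p - T.pos z)| ≤ κ * S'.w 2) :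
    |dt (S.e 0) (p - T.pos z)| ≤ (1 / (10 * W ^ 2) + 17 * 10 ^ 12 * (κ * W ^ 10)) * S.w 0 ∧
      |dt (S.e 1) (p - T.pos z)| ≤ (3 / (10 ^ 15 * W ^ 12) + 6 * (κ * W ^ 5)) * S.w 1 ∧
      |dt (S.e 2) (p - T.pos z)| ≤ (3 / (10 ^ 15 * W ^ 12) + 6 * (κ * W ^ 5)) * S.w 2 ∧
      |S.q z p| ≤ E + 32 * A + 16 * E := by
  have W0 : 0 < W := by linarith
  have hwp : 0 < S.w 0 := hr.trans_le (hS.r0_le.trans hS.a_le0)
  have hw2p : 0 < S.w 2 := hwp.trans_le hS.w0_le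
  have hw1p : 0 < S.w 1 := hw2p.trans_le hS.w_le
  have hE0 : 0 < E := by
    have : 0 < W * a := by positivity
    linarith
  have hSa : S.a ≤ E := dS.1.2.trans haE
  have hS'a : S'.a ≤ A := (dS'.1.2.trans haE).trans hA
  have W12 : 1 ≤ W ^ 12 := one_le_pow₀ hW
  have W10 : 1 ≤ W ^ 10 := one_le_pow₀ hW
  have hk := hP.k
  have hk0 : 0 < kapP S z0 ρ T := by
    have : 0 < 10 ^ 18 * W ^ 12 * E := by positivity
    linarith
  set δ : ℝ := 1 / (2 * 10 ^ 16 * W ^ 12) with hδ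
  have hδ0 : 0 < δ := by positivity
  have hδW : δ * (2 * 10 ^ 16 * W ^ 12) = 1 := by
    rw [hδ]; field_simp
  have hAδ : A ≤ δ * kapP S z0 ρ T := by
    have e1 : 49 * E ≤ δ * (10 ^ 18 * W ^ 12 * E) := by
      have : δ * (10 ^ 18 * W ^ 12 * E) = (δ * (2 * 10 ^ 16 * W ^ 12)) * (50 * E) := by ring
      rw [this, hδW]; linarith
    exact (hA'.trans e1).trans (mul_le_mul_of_nonneg_left hk hδ0.le)
  have hE104 : 104 * E ≤ kapP S z0 ρ T := by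
    refine le_trans ?_ hk
    have : 104 * E ≤ 10 ^ 18 * 1 * E := by
      have := mul_le_mul_of_nonneg_right (by norm_num : (104:ℝ) ≤ 10 ^ 18 * 1) hE0.le
      exact this
    exact this.trans
      (mul_le_mul_of_nonneg_right (mul_le_mul_of_nonneg_left W12 (by norm_num)) hE0.le)
  have hBl : (W ^ 2 * W ^ 3) ^ 2 = W ^ 10 := by ring
  have hB5 : W ^ 2 * W ^ 3 = W ^ 5 := by ring
  have hδ34 : δ ≤ 1 / (2 * 10 ^ 16) := by
    rw [hδ]; exact num_c hW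
  have hκW : κ * W ^ 10 ≤ 1 / 10 ^ 14 := by
    rw [le_div_iff₀ (by norm_num)]; linarith
  have hκ8 : κ ≤ 1 / 8 := by
    have : κ * 1 ≤ κ * W ^ 10 := mul_le_mul_of_nonneg_left W10 hκ0
    have h3 : (1:ℝ) / 10 ^ 14 ≤ 1 / 8 := by norm_num
    linarith
  obtain ⟨g0, g1, g2, g3⟩ := step (B := W ^ 2) (lam := W ^ 3) hr hρ hS hS' (one_le_pow₀ hW)
    (one_le_pow₀ hW) (compC_near hW ha h1 h2 dS dS' hw1p.le hP.ang) hT hT' hP.p hk0 hE104 hS'a hAδ
    hκ0 hκ8 (by rw [hBl]; norm_num at hδ34 hκW ⊢; linarith) hz hz' hp hq k1 k2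
  rw [hBl] at g0
  rw [hB5] at g1 g2
  refine ⟨g0.trans ?_, g1.trans ?_, g2.trans ?_, g3.trans (by linarith)⟩
  · apply mul_le_mul_of_nonneg_right _ hwp.le
    have e2 : 17 * 10 ^ 12 * δ ≤ 1 / (10 * W ^ 2) := by
      rw [hδ]; exact num_a hW
    have e3 : 17 * (10 ^ 12 * (δ + κ * W ^ 10)) = 17 * 10 ^ 12 * δ + 17 * 10 ^ 12 * (κ * W ^ 10) := by
      ring
    rw [e3]; exact add_le_add e2 le_rfl
  · apply mul_le_mul_of_nonneg_right _ hw1p.le
    have e2 : 52 * δ ≤ 3 / (10 ^ 15 * W ^ 12) := by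
      rw [hδ]; exact num_b hW
    exact add_le_add e2 le_rfl
  · apply mul_le_mul_of_nonneg_right _ hw2p.le
    have e2 : 52 * δ ≤ 3 / (10 ^ 15 * W ^ 12) := by
      rw [hδ]; exact num_b hW
    exact add_le_add e2 le_rfl

end Crest.Agent.R136.Hul412
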