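import Crest.Agent.R136.AdjB_214
import Crest.Agent.R136.Hul1_412

/-!
# R136 (S0187), PLAN 2 (AL) (B), `LeafHull`: one step (helper412)

`mem_div` : a point near the line `T` (common to the sheets `S`, `S'`), in `S` fattened to `A`, lies
near `T` in `S'` fattened to `S'.a + C A + C κ D` if `S'.q` is at most `D` on `S` near `T`.
-/

set_option autoImplicit false
set_option linter.unusedVariables false

namespace Crest.Agent.R136.Hul412

open Crest.Agent.R136.Sh605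
open Crest.Agent.R136.Tl102
open Crest.Agent.R136.K4 (Plk4)
open Crest.Agent.R136.Deep51 (CloseC)
open Crest.Agent.R136.Tlt51 (CompC Shp InP)
open Crest.Agent.R136.KapP335 (kapP)
open Crest.Agent.R136.Adj214 (ev JB cx abs2 divide chart KD KD_pos KD_one)
open Crest.Agent.R136.Rk601 (Jt dp qf)

/-- variation of a jet -/
theorem ev_diff {J : Jt} {N c η : ℝ} (h : JB N c J) (hη : 0 ≤ η) (hη1 : η ≤ 1) {ζ y u v : ℝ}
    (hζ : 0 ≤ ζ) (hζ' : ζ ≤ 1) (hy : |y| ≤ η) (hu : |u| ≤ η) (hv : |v| ≤ η) :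
    |ev J y ![ζ, u, v] - ev J 0 ![ζ, 0, 0]| ≤ 11 * (N * η) := by
  have hN : 0 ≤ N := (abs_nonneg _).trans h.a0
  have hz : |ζ| ≤ 1 := abs_le.2 ⟨by linarith, hζ'⟩
  have one : ∀ {x y : ℝ}, |x| ≤ 1 → |y| ≤ η → |x * y| ≤ η := fun hx hy =>
    (abs2 hx hy).trans (le_of_eq (one_mul _))
  have yy := one (hy.trans hη1) hy
  have zy := one hz hy
  have uy := one (hu.trans hη1) hy
  have vy := one (hv.trans hη1) hy
  have zu := one hz hu
  have zv := one hz hv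
  have uu := one (hu.trans hη1) hu
  have uv := one (hu.trans hη1) hv
  have vv := one (hv.trans hη1) hv
  have t1 := abs_le.1 (abs2 h.a0 hy)
  have t2 := abs_le.1 (abs2 (h.a 1) hu)
  have t3 := abs_le.1 (abs2 (h.a 2) hv)
  have t4 := abs_le.1 (abs2 h.h00 yy)
  have t5 := abs_le.1 (abs2 (h.h0 0) zy)
  have t6 := abs_le.1 (abs2 (h.h0 1) uy)
  have t7 := abs_le.1 (abs2 (h.h0 2) vy)
  have t8 := abs_le.1 (abs2 (h.h 0 1) zu)
  have t8' := abs_le.1 (abs2 (h.h 1 0) zu)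
  have t9 := abs_le.1 (abs2 (h.h 0 2) zv)
  have t9' := abs_le.1 (abs2 (h.h 2 0) zv)
  have s1 := abs_le.1 (abs2 (h.h 1 1) uu)
  have s2 := abs_le.1 (abs2 (h.h 1 2) uv)
  have s2' := abs_le.1 (abs2 (h.h 2 1) uv)
  have s3 := abs_le.1 (abs2 (h.h 2 2) vv)
  have hNη : 0 ≤ N * η := mul_nonneg hN hη
  have e : ev J y ![ζ, u, v] - ev J 0 ![ζ, 0, 0] = J.a0 * y + J.a 1 * u + J.a 2 * v +
      1 / 2 * (J.h00 * (y * y)) + J.h0 0 * (ζ * y) + J.h0 1 * (u * y) + J.h0 2 * (v * y) +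
      1 / 2 * (J.h 0 1 * (ζ * u)) + 1 / 2 * (J.h 1 0 * (ζ * u)) + 1 / 2 * (J.h 0 2 * (ζ * v)) +
      1 / 2 * (J.h 2 0 * (ζ * v)) + 1 / 2 * (J.h 1 1 * (u * u)) + 1 / 2 * (J.h 1 2 * (u * v)) +
      1 / 2 * (J.h 2 1 * (u * v)) + 1 / 2 * (J.h 2 2 * (v * v)) := by
    simp only [ev, dp, qf, Fin.sum_univ_three, Matrix.cons_val]
    ring
  rw [e]
  generalize N * η = X at *
  rw [abs_le]
  constructor
  · linarith [t1.1, t2.1, t3.1, t4.1, t5.1, t6.1, t7.1, t8.1, t8'.1, t9.1, t9'.1, s1.1, s2.1,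
      s2'.1, s3.1]
  · linarith [t1.2, t2.2, t3.2, t4.2, t5.2, t6.2, t7.2, t8.2, t8'.2, t9.2, t9'.2, s1.2, s2.2,
      s2'.2, s3.2]

/-- chart points on a segment which starts on the line -/
theorem cx_seg {e : Fin 3 → V3} (he : Ortho e) {w : V3} (hw : ∀ k, w k ≠ 0) {b0 : V3} {κ : ℝ}
    (hκ : κ ≠ 0) (z0 ρ ζ : ℝ) (T : Ln4) (p : V3) (τ : ℝ) :
    cx e w b0 κ z0 ρ T ζ (τ * (256 * yc b0 (pc e w T (z0 + ρ * ζ) p) / κ))
      (τ * (256 * pc e w T (z0 + ρ * ζ) p 1)) (τ * (256 * pc e w T (z0 + ρ * ζ) p 2)) =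
      T.pos (z0 + ρ * ζ) + τ • (p - T.pos (z0 + ρ * ζ)) := by
  set X := pc e w T (z0 + ρ * ζ) p with hX
  have h1 := cmb_pc he hw T (z0 + ρ * ζ) p
  rw [← hX] at h1
  have h2 : p - T.pos (z0 + ρ * ζ) = cmb (fr e w) X := by
    rw [← h1]; exact add_sub_cancel_left _ _
  rw [h2]
  unfold cx
  have e1 : κ * (1 / 256 * (τ * (256 * yc b0 X / κ))) = τ * yc b0 X := by
    field_simp
  have e2 : 1 / 256 * (τ * (256 * X 1)) = τ * X 1 := by ring
  have e3 : 1 / 256 * (τ * (256 * X 2)) = τ * X 2 := by ring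
  rw [e1, e2, e3]
  congr 1
  funext i
  simp only [cmb, unsh, yc, Pi.smul_apply, smul_eq_mul, Matrix.cons_val]
  ring

/-- numbers of the step -/
theorem md_num1 {A Sa kS κ δ h η : ℝ} (hkS : 0 < kS) (hA : Sa ≤ A) (hδ : 0 ≤ δ)
    (hAδ : A ≤ δ * kS) (hκ0 : 0 ≤ κ)
    (hy : kS * h ≤ 256 * (2 * (A + Sa) + 5 * κ * kS)) (hη : η = 1024 * (A / kS) + 1280 * κ) :
    h ≤ η ∧ η ≤ 1280 * (δ + κ) := by
  have h1 : A / kS ≤ δ := by rw [div_le_iff₀ hkS]; exact hAδ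
  constructor
  · rw [hη]
    have h2 : kS * h ≤ kS * (1024 * (A / kS) + 1280 * κ) := by
      have e : kS * (1024 * (A / kS) + 1280 * κ) = 1024 * A + 1280 * κ * kS := by field_simp
      rw [e]; linarith
    exact le_of_mul_le_mul_left h2 hkS
  · rw [hη]; linarith

theorem md_num2 {m τ k D K kS : ℝ} (hτ : 0 < τ) (hk : 1 ≤ k) (hK : 1 ≤ K)
    (hm : m * (τ / 2) ≤ 4 * τ + 11 * (k * D * (1 / K))) (hD : D ≤ 2 * K * kS)
    (hkS : kS = 256 * K * τ) : m ≤ 11272 * (k * K) := by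
  have hK0 : 0 < K := by linarith
  have h1 : k * D * (1 / K) ≤ 512 * (k * K) * τ := by
    calc k * D * (1 / K) ≤ k * (2 * K * kS) * (1 / K) := by gcongr
      _ = 512 * (k * K) * τ := by rw [hkS]; field_simp; ring
  have h2 : 1 ≤ k * K := one_le_mul_of_one_le_of_one_le hk hK
  have h3 : τ ≤ k * K * τ := le_mul_of_one_le_left hτ.le h2
  have h4 : m * (τ / 2) ≤ 11272 * (k * K) * (τ / 2) := by linarith
  exact le_of_mul_le_mul_right h4 (by positivity)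

theorem md_num3 {m k D K kS w η d : ℝ} (hk : 0 ≤ k) (hK : 0 ≤ K) (hη : 0 ≤ η) (hkS : 0 ≤ kS)
    (hm : m ≤ 11272 * (k * K)) (hd0 : 0 ≤ d)
    (hd : d ≤ kS / 256 * (11 * (2 * η))) (hD : D ≤ 2 * K * kS) (hw : kS ≤ 13 * K * w) :
    m * d + 11 * (k * D * η) ≤ 12900 * (k * K ^ 2 * η * w) := by
  have h1 : m * d ≤ 11272 * (k * K) * (kS / 256 * (11 * (2 * η))) :=
    mul_le_mul hm hd hd0 (by positivity)
  have h2 : k * D * η ≤ k * (2 * K * kS) * η := by gcongr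
  have h3 : k * K * η * kS ≤ k * K * η * (13 * K * w) := by gcongr
  have h0 : 0 ≤ k * K * η * kS := by positivity
  have e1 : 11272 * (k * K) * (kS / 256 * (11 * (2 * η))) = 30998 / 32 * (k * K * η * kS) := by ring
  have e2 : k * (2 * K * kS) * η = 2 * (k * K * η * kS) := by ring
  have e3 : k * K * η * (13 * K * w) = 13 * (k * K ^ 2 * η * w) := by ring
  rw [e1] at h1
  rw [e2] at h2
  rw [e3] at h3
  linarith

theorem md_num4 {x k K Bl δ κ η κ2 w : ℝ} (hk : 1 ≤ k) (hK : 1 ≤ K) (hB : 1 ≤ Bl) (hδ : 0 ≤ δ)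
    (hκ : 0 ≤ κ) (hw : 0 ≤ w) (hη : η ≤ 1280 * (δ + κ))
    (hκ2 : κ2 = 52 * (K * δ) + 6 * (κ * Bl))
    (hx : x ≤ 2 * (12900 * (k * K ^ 2 * η * w) + κ2 * w + κ2 * w)) :
    x ≤ 4 * 10 ^ 7 * (k * K ^ 2 * Bl * (δ + κ)) * w := by
  have hK0 : 0 ≤ K := by linarith
  have hk0 : 0 ≤ k := by linarith
  have hB0 : 0 ≤ Bl := by linarith
  have hs : 0 ≤ δ + κ := by linarith
  have h1 : k * K ^ 2 * η * w ≤ 1280 * (k * K ^ 2 * Bl * (δ + κ)) * w := by
    calc k * K ^ 2 * η * w ≤ k * K ^ 2 * (1280 * (δ + κ)) * w := by gcongr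
      _ = 1280 * (k * K ^ 2 * 1 * (δ + κ)) * w := by ring
      _ ≤ _ := by gcongr
  have hkK : 1 ≤ k * K := one_le_mul_of_one_le_of_one_le hk hK
  have a1 : K * δ ≤ k * K ^ 2 * Bl * (δ + κ) := by
    calc K * δ = 1 * K * 1 * δ := by ring
      _ ≤ (k * K) * K * Bl * (δ + κ) := by
          gcongr
          linarith
      _ = _ := by ring
  have a2 : κ * Bl ≤ k * K ^ 2 * Bl * (δ + κ) := by
    have h2 : 1 ≤ k * K ^ 2 := by
      calc (1:ℝ) = 1 * 1 := by ring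
        _ ≤ (k * K) * K := mul_le_mul hkK hK zero_le_one (by linarith)
        _ = _ := by ring
    calc κ * Bl = 1 * Bl * κ := by ring
      _ ≤ (k * K ^ 2) * Bl * (δ + κ) := by
          gcongr
          linarith
  have h2 : κ2 * w ≤ 58 * (k * K ^ 2 * Bl * (δ + κ)) * w := by
    apply mul_le_mul_of_nonneg_right _ hw
    rw [hκ2]
    linarith
  have h0 : 0 ≤ (k * K ^ 2 * Bl * (δ + κ)) * w := by positivity
  linarith

theorem md_num5 {m k D K kS κ A Sa η : ℝ} (hk : 0 ≤ k) (hK : 0 ≤ K) (hkS : 0 < kS) (hSa : 0 ≤ Sa)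
    (hA : Sa ≤ A) (hm : m ≤ 11272 * (k * K)) (hD : D ≤ 2 * K * kS)
    (hη : η = 1024 * (A / kS) + 1280 * κ) (hD0 : 0 ≤ k * D) (hκ : 0 ≤ κ) :
    m * (A + Sa) + 11 * (k * D * η) ≤ 50000 * (k * K) * A + 15000 * k * κ * D := by
  have hA0 : 0 ≤ A := hSa.trans hA
  have h1 : m * (A + Sa) ≤ 11272 * (k * K) * (2 * A) :=
    mul_le_mul hm (by linarith) (by linarith) (by positivity)
  have h2 : k * D * (A / kS) ≤ k * (2 * K * kS) * (A / kS) := by
    have : 0 ≤ A / kS := by positivity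
    gcongr
  have e2 : k * (2 * K * kS) * (A / kS) = 2 * (k * K) * A := by field_simp
  have h3 : 0 ≤ k * D * κ := mul_nonneg hD0 hκ
  have h4 : 0 ≤ k * K * A := by positivity
  rw [e2] at h2
  have e : k * D * η = 1024 * (k * D * (A / kS)) + 1280 * (k * D * κ) := by rw [hη]; ring
  rw [e]
  linarith

/-- **one step**, by division -/
theorem mem_div {S S' : Plk4} {T : Ln4} {z0 ρ r B lam K D A δ κ : ℝ} (hr : 0 < r) (hρ : 0 < ρ)
    (hS : Shp S z0 ρ r) (hS' : Shp S' z0 ρ r) (hB : 1 ≤ B) (hlam : 1 ≤ lam) (hK : 1 ≤ K)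
    (hC : CompC B lam S' S) (hT : InP T S z0 ρ) (hT' : InP T S' z0 ρ)
    (hcl : CloseC S.e S.w S.q S.a S'.q D T z0 ρ)
    (hka : 10 ^ 6 * S.a ≤ kapP S z0 ρ T) (hD : D ≤ 2 * K * kapP S z0 ρ T)
    (hkw : kapP S z0 ρ T ≤ 13 * K * S'.w 0)
    (hA : S.a ≤ A) (hδ : 0 ≤ δ) (hAδ : A ≤ δ * kapP S z0 ρ T) (hκ0 : 0 ≤ κ)
    (hε : 10 ^ 8 * (KD * K ^ 2 * (B * lam) * (δ + κ)) ≤ 1)
    {z : ℝ} (hz : z0 ≤ z) (hz' : z ≤ z0 + ρ) {p : V3}
    (hp : InK S.e S.c (dbl3 S.w) z p) (hq : |S.q z p| ≤ A)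
    (h1 : |dt (S.e 1) (p - T.pos z)| ≤ κ * S.w 1)
    (h2 : |dt (S.e 2) (p - T.pos z)| ≤ κ * S.w 2) :
    |dt (S'.e 0) (p - T.pos z)| ≤
        4 * 10 ^ 7 * (KD * K ^ 2 * (B * lam) * (δ + κ)) * S'.w 0 ∧
      |dt (S'.e 1) (p - T.pos z)| ≤ (52 * (K * δ) + 6 * (κ * (B * lam))) * S'.w 1 ∧
      |dt (S'.e 2) (p - T.pos z)| ≤ (52 * (K * δ) + 6 * (κ * (B * lam))) * S'.w 2 ∧
      |S'.q z p| ≤ S'.a + 50000 * (KD * K) * A + 15000 * KD * κ * D := by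
  have ha : 0 < S.a := hr.trans_le hS.r0_le
  have hw0 : 0 < S.w 0 := ha.trans_le hS.a_le0
  have hw0' : 0 < S'.w 0 := hr.trans_le (hS'.r0_le.trans hS'.a_le0)
  have P := StP.of_shN hS hw0
  have P' := StP.of_shN hS' hw0'
  have hKD : 1 ≤ KD := KD_one
  have hKD0 : 0 ≤ KD := by linarith
  have hK0 : 0 < K := by linarith
  have hBl : 1 ≤ B * lam := one_le_mul_of_one_le_of_one_le hB hlam
  -- own location
  have hTK : InK S.e S.c (dbl3 S.w) z (T.pos z) := by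
    intro i
    have := (hT _ hz hz').1 i
    have hwi := (P.pos i).le
    change _ ≤ 2 * S.w i
    linarith
  have hTK' : InK S'.e S'.c (dbl3 S'.w) z (T.pos z) := by
    intro i
    have := (hT' _ hz hz').1 i
    have hwi := (P'.pos i).le
    change _ ≤ 2 * S'.w i
    linarith
  have h0 := off0 hr hS hz hz' hTK hp hκ0 ((hT _ hz hz').2.trans hA) hq h1 h2
  have h0' : |dt (S.e 0) (p - T.pos z)| ≤ 52 * (K * δ) * S'.w 0 + 4 * κ * S.w 0 := by
    have := mul_le_mul_of_nonneg_left hkw hδ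
    linarith
  obtain ⟨f1, f2⟩ := frame_loc hS'.ortho hS.ortho hB hlam hC hw0'.le hS'.w0_le hS'.w_le hS.w0_le
    (by positivity : 0 ≤ K * δ) hκ0 h0' h1 h2
  set κ2 := 52 * (K * δ) + 6 * (κ * (B * lam)) with hκ2
  have hκ20 : 0 ≤ κ2 := by positivity
  have hX1 : κ ≤ 1 / 8 := by
    have h3 : κ ≤ KD * K ^ 2 * (B * lam) * (δ + κ) := by
      have h4 : 1 ≤ KD * K ^ 2 * (B * lam) :=
        one_le_mul_of_one_le_of_one_le (one_le_mul_of_one_le_of_one_le hKD (one_le_pow₀ hK)) hBl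
      calc κ = 1 * κ := by ring
        _ ≤ (KD * K ^ 2 * (B * lam)) * (δ + κ) := by
            apply mul_le_mul h4 (by linarith) hκ0 (by linarith)
    linarith
  obtain ⟨ζ, hζ, hζ', rfl⟩ := height_exists hρ hz hz'
  obtain ⟨b0, b1, G, hE⟩ := exists_isExp P.isQ S.e hw0.ne' T z0 ρ
  have hkE : kapP S z0 ρ T = S.w 0 * kap b0 b1 G := KapP335.kapP_eq hw0.ne' hE
  have N := hE.nrmC P hρ.le (fun z h1 h2 => (hT z h1 h2).1)
  have hk13 : kap b0 b1 G ≤ 13 := Tl102.kap_le N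
  rw [hkE] at hka hD hkw hAδ
  have hkp : 0 < kap b0 b1 G := Adj214.kap_pos_of hw0 ha hka
  obtain ⟨c0, J, NN, -, -, -, hqJ⟩ := chart hS ha hρ.le hT hE hka
  obtain ⟨μ, c', Dj, hJB, hdiv⟩ := divide hS ha hρ.le hT hE hka P'.isQ hcl
  have hKDD : 0 ≤ KD * D := (abs_nonneg _).trans hJB.c
  set k := kap b0 b1 G with hkdef
  have hkS : 0 < S.w 0 * k := mul_pos hw0 hkp
  set X := pc S.e S.w T (z0 + ρ * ζ) p with hX
  have hwne : ∀ i, S.w i ≠ 0 := fun i => (P.pos i).ne'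
  have x1 : |X 1| ≤ κ := by
    change |dt (S.e 1) (p - T.pos (z0 + ρ * ζ)) / S.w 1| ≤ _
    rw [abs_div, abs_of_pos (P.pos 1), div_le_iff₀ (P.pos 1)]
    exact h1
  have x2 : |X 2| ≤ κ := by
    change |dt (S.e 2) (p - T.pos (z0 + ρ * ζ)) / S.w 2| ≤ _
    rw [abs_div, abs_of_pos (P.pos 2), div_le_iff₀ (P.pos 2)]
    exact h2
  have hy := yc_le2 P hρ.le (fun z h1 h2 => (hT z h1 h2).1) hE hζ hζ' hp hX1 x1 x2
  have hqT : |S.q (z0 + ρ * ζ) (T.pos (z0 + ρ * ζ))| ≤ S.a := (hT _ hz hz').2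
  have hpt := cx_seg P.ortho hwne (b0 := b0) hkp.ne' z0 ρ ζ T p
  rw [← hX] at hpt hy
  set Y := 256 * yc b0 X / k with hY
  set η := 1024 * (A / (S.w 0 * k)) + 1280 * κ with hη
  have hYη : |Y| ≤ η ∧ η ≤ 1280 * (δ + κ) := by
    refine md_num1 hkS hA hδ hAδ hκ0 ?_ hη
    have e : S.w 0 * k * |Y| = 256 * (S.w 0 * |yc b0 X|) := by
      rw [hY, abs_div, abs_mul, abs_of_pos hkp, abs_of_pos (by norm_num : (0:ℝ) < 256)]
      field_simp
    rw [e]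
    have : 5 * κ * (S.w 0 * k) = 5 * κ * (S.w 0 * k) := rfl
    linarith
  obtain ⟨hYη, hηδ⟩ := hYη
  have hA0 : 0 ≤ A := ha.le.trans hA
  have hAk : 0 ≤ A / (S.w 0 * k) := div_nonneg hA0 hkS.le
  have hη0 : 0 ≤ η := by rw [hη]; positivity
  have hXbig : KD * K ^ 2 * (B * lam) * (δ + κ) ≥ δ + κ := by
    have h4 : 1 ≤ KD * K ^ 2 * (B * lam) :=
      one_le_mul_of_one_le_of_one_le (one_le_mul_of_one_le_of_one_le hKD (one_le_pow₀ hK)) hBl
    exact le_mul_of_one_le_left (by linarith) h4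
  have hη1 : η ≤ 1 := by linarith
  have hUη : |256 * X 1| ≤ η := by
    rw [abs_mul, abs_of_pos (by norm_num : (0:ℝ) < 256), hη]; linarith
  have hVη : |256 * X 2| ≤ η := by
    rw [abs_mul, abs_of_pos (by norm_num : (0:ℝ) < 256), hη]; linarith
  have sc : ∀ {τ x : ℝ}, 0 ≤ τ → τ ≤ 1 → |x| ≤ η → |τ * x| ≤ η := by
    intro τ x t0 t1 hx
    rw [abs_mul, abs_of_nonneg t0]
    calc τ * |x| ≤ 1 * |x| := mul_le_mul_of_nonneg_right t1 (abs_nonneg _)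
      _ ≤ η := by rw [one_mul]; exact hx
  have hJ0 := hpt 0
  simp only [zero_mul, zero_smul, add_zero] at hJ0
  -- values along the segment
  have vq : ∀ τ : ℝ, 0 ≤ τ → τ ≤ 1 →
      |S.q (z0 + ρ * ζ) (T.pos (z0 + ρ * ζ) + τ • (p - T.pos (z0 + ρ * ζ))) -
        S.q (z0 + ρ * ζ) (T.pos (z0 + ρ * ζ))| ≤ S.w 0 * k / 256 * (11 * (2 * η)) := by
    intro τ t0 t1
    have a1 := hqJ ζ (τ * Y) (τ * (256 * X 1)) (τ * (256 * X 2))
    have a0 := hqJ ζ 0 0 0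
    rw [hpt τ] at a1
    rw [hJ0] at a0
    have hd := ev_diff NN.jb hη0 hη1 hζ hζ' (sc t0 t1 hYη) (sc t0 t1 hUη) (sc t0 t1 hVη)
    have e : k * (1 / 256) * S.w 0 * (c0 + ev J (τ * Y) ![ζ, τ * (256 * X 1), τ * (256 * X 2)]) -
        k * (1 / 256) * S.w 0 * (c0 + ev J 0 ![ζ, 0, 0]) = (S.w 0 * k / 256) *
        (ev J (τ * Y) ![ζ, τ * (256 * X 1), τ * (256 * X 2)] - ev J 0 ![ζ, 0, 0]) := by ring
    rw [a1, a0, e, abs_mul, abs_of_pos (by positivity : 0 < S.w 0 * k / 256)]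
    exact mul_le_mul_of_nonneg_left hd (by positivity)
  have vq' : ∀ τ : ℝ, 0 ≤ τ → τ ≤ 1 →
      |S'.q (z0 + ρ * ζ) (T.pos (z0 + ρ * ζ) + τ • (p - T.pos (z0 + ρ * ζ))) -
        S'.q (z0 + ρ * ζ) (T.pos (z0 + ρ * ζ))| ≤
      |μ| * |S.q (z0 + ρ * ζ) (T.pos (z0 + ρ * ζ) + τ • (p - T.pos (z0 + ρ * ζ))) -
        S.q (z0 + ρ * ζ) (T.pos (z0 + ρ * ζ))| + 11 * (KD * D * η) := by
    intro τ t0 t1
    have a1 := hdiv ζ (τ * Y) (τ * (256 * X 1)) (τ * (256 * X 2))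
    have a0 := hdiv ζ 0 0 0
    rw [hpt τ] at a1
    rw [hJ0] at a0
    have hd := ev_diff hJB hη0 hη1 hζ hζ' (sc t0 t1 hYη) (sc t0 t1 hUη) (sc t0 t1 hVη)
    rw [← abs_mul]
    generalize S.q (z0 + ρ * ζ) (T.pos (z0 + ρ * ζ) + τ • (p - T.pos (z0 + ρ * ζ))) = q1 at *
    generalize S'.q (z0 + ρ * ζ) (T.pos (z0 + ρ * ζ) + τ • (p - T.pos (z0 + ρ * ζ))) = q1' at *
    generalize S.q (z0 + ρ * ζ) (T.pos (z0 + ρ * ζ)) = q0 at *
    generalize S'.q (z0 + ρ * ζ) (T.pos (z0 + ρ * ζ)) = q0' at *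
    generalize ev Dj (τ * Y) ![ζ, τ * (256 * X 1), τ * (256 * X 2)] = v1 at *
    generalize ev Dj 0 ![ζ, 0, 0] = v0 at *
    have e : q1' - q0' = μ * (q1 - q0) + (v1 - v0) := by linarith
    rw [e]
    exact (abs_add_le _ _).trans (add_le_add le_rfl hd)
  -- the multiplier
  have hμ : |μ| ≤ 11272 * (KD * K) := by
    set τ1 := S.w 0 * k / (256 * K) with hτ1
    have hτp : 0 < τ1 := by positivity
    have hkτ : S.w 0 * k = 256 * K * τ1 := by rw [hτ1]; field_simp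
    have hK1 : 0 ≤ 1 / K := by positivity
    have hK1' : 1 / K ≤ 1 := by rw [div_le_one hK0]; exact hK
    have a1 := hdiv ζ (1 / K) 0 0
    have a0 := hdiv ζ 0 0 0
    have hd := ev_diff hJB hK1 hK1' hζ hζ' (y := 1 / K) (u := 0) (v := 0)
      (by rw [abs_of_nonneg hK1]) (by rw [abs_zero]; exact hK1) (by rw [abs_zero]; exact hK1)
    have hPs : cx S.e S.w b0 k z0 ρ T ζ (1 / K) 0 0 =
        T.pos (z0 + ρ * ζ) + τ1 • S.e 0 := by
      unfold cx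
      congr 1
      funext i
      simp only [cmb, fr, unsh, Pi.smul_apply, smul_eq_mul, Matrix.cons_val, hτ1]
      field_simp
      ring
    rw [hPs] at a1
    rw [hJ0] at a0
    have hτw : τ1 ≤ S.w 0 := by
      have h3 : S.w 0 * k ≤ S.w 0 * 13 := mul_le_mul_of_nonneg_left hk13 hw0.le
      have h4 : S.w 0 ≤ K * S.w 0 := le_mul_of_one_le_left hw0.le hK
      rw [hτ1, div_le_iff₀ (by positivity)]
      linarith
    have hτw' : τ1 ≤ S'.w 0 := by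
      rw [hτ1, div_le_iff₀ (by positivity)]
      have : 0 ≤ K * S'.w 0 := by positivity
      linarith
    have kP : InK S.e S.c (dbl3 S.w) (z0 + ρ * ζ) (T.pos (z0 + ρ * ζ) + τ1 • S.e 0) := by
      intro i
      have h3 := (hT _ hz hz').1 i
      have e : dt (S.e i) (T.pos (z0 + ρ * ζ) + τ1 • S.e 0 - S.c.pos (z0 + ρ * ζ)) =
          dt (S.e i) (T.pos (z0 + ρ * ζ) - S.c.pos (z0 + ρ * ζ)) + τ1 * dt (S.e i) (S.e 0) := by
        simp only [dt, Pi.add_apply, Pi.sub_apply, Pi.smul_apply, smul_eq_mul]; ring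
      rw [e]
      change _ ≤ 2 * S.w i
      have h4 : |τ1 * dt (S.e i) (S.e 0)| ≤ S.w i := by
        have o : dt (S.e i) (S.e 0) = if i = 0 then 1 else 0 := P.ortho i 0
        rw [o]
        split_ifs with hi
        · rw [mul_one, abs_of_pos hτp, hi]; exact hτw
        · rw [mul_zero, abs_zero]; exact (P.pos i).le
      exact (abs_add_le _ _).trans (by linarith)
    have d1 : ∀ i, |dt (S'.e i) (τ1 • S.e 0)| ≤ τ1 := by
      intro i
      have e : dt (S'.e i) (τ1 • S.e 0) = τ1 * dt (S'.e i) (S.e 0) := by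
        simp only [dt, Pi.smul_apply, smul_eq_mul]; ring
      rw [e, abs_mul, abs_of_pos hτp]
      have := Deep51.abs_dt_unit hS'.ortho hS.ortho i 0
      calc τ1 * _ ≤ τ1 * 1 := mul_le_mul_of_nonneg_left this hτp.le
        _ = τ1 := mul_one _
    have hwle : ∀ i, S'.w 0 ≤ S'.w i := by
      intro i
      fin_cases i
      · exact le_rfl
      · exact hS'.w0_le.trans hS'.w_le
      · exact hS'.w0_le
    have kP' : InK S'.e S'.c (dbl3 S'.w) (z0 + ρ * ζ) (T.pos (z0 + ρ * ζ) + τ1 • S.e 0) := by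
      intro i
      have h3 := (hT' _ hz hz').1 i
      have e : dt (S'.e i) (T.pos (z0 + ρ * ζ) + τ1 • S.e 0 - S'.c.pos (z0 + ρ * ζ)) =
          dt (S'.e i) (T.pos (z0 + ρ * ζ) - S'.c.pos (z0 + ρ * ζ)) + dt (S'.e i) (τ1 • S.e 0) := by
        simp only [dt, Pi.add_apply, Pi.sub_apply, Pi.smul_apply, smul_eq_mul]; ring
      rw [e]
      change _ ≤ 2 * S'.w i
      have h4 := d1 i
      have h5 := hwle i
      exact (abs_add_le _ _).trans (by linarith)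
    have st := (P.st0 _ hz hz' _ τ1 hτp.le hTK kP).1
    have pa := (P'.path hz hz' hTK' kP').1
    rw [add_sub_cancel_left] at pa
    have r1 : S'.w 0 / S'.w 1 * |dt (S'.e 1) (τ1 • S.e 0)| ≤ τ1 := by
      have h5 : S'.w 0 / S'.w 1 ≤ 1 := (div_le_one (P'.pos 1)).2 (hwle 1)
      calc _ ≤ 1 * τ1 := mul_le_mul h5 (d1 1) (abs_nonneg _) zero_le_one
        _ = τ1 := one_mul _
    have r2 : S'.w 0 / S'.w 2 * |dt (S'.e 2) (τ1 • S.e 0)| ≤ τ1 := by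
      have h5 : S'.w 0 / S'.w 2 ≤ 1 := (div_le_one (P'.pos 2)).2 (hwle 2)
      calc _ ≤ 1 * τ1 := mul_le_mul h5 (d1 2) (abs_nonneg _) zero_le_one
        _ = τ1 := one_mul _
    have r0 := d1 0
    refine md_num2 (m := |μ|) hτp hKD hK ?_ hD hkτ
    generalize S.q (z0 + ρ * ζ) (T.pos (z0 + ρ * ζ) + τ1 • S.e 0) = q1 at *
    generalize S'.q (z0 + ρ * ζ) (T.pos (z0 + ρ * ζ) + τ1 • S.e 0) = q1' at *
    generalize S.q (z0 + ρ * ζ) (T.pos (z0 + ρ * ζ)) = q0 at *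
    generalize S'.q (z0 + ρ * ζ) (T.pos (z0 + ρ * ζ)) = q0' at *
    generalize ev Dj (1 / K) ![ζ, 0, 0] = v1 at *
    generalize ev Dj 0 ![ζ, 0, 0] = v0 at *
    have e : μ * (q1 - q0) = (q1' - q0') - (v1 - v0) := by linarith
    have h5 : |μ| * (τ1 / 2) ≤ |μ * (q1 - q0)| := by
      rw [abs_mul]
      exact mul_le_mul_of_nonneg_left (st.trans (le_abs_self _)) (abs_nonneg _)
    rw [e] at h5
    refine h5.trans ((abs_sub _ _).trans ?_)
    have h6 : |q1' - q0'| ≤ 4 * τ1 := by linarith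
    exact add_le_add h6 hd
  -- size of the difference
  have vv : ∀ τ : ℝ, 0 ≤ τ → τ ≤ 1 →
      |S'.q (z0 + ρ * ζ) (T.pos (z0 + ρ * ζ) + τ • (p - T.pos (z0 + ρ * ζ))) -
        S'.q (z0 + ρ * ζ) (T.pos (z0 + ρ * ζ))| ≤ 12900 * (KD * K ^ 2 * η * S'.w 0) := by
    intro τ t0 t1
    exact (vq' τ t0 t1).trans (md_num3 hKD0 hK0.le hη0 hkS.le hμ (abs_nonneg _) (vq τ t0 t1) hD hkw)
  set V := p - T.pos (z0 + ρ * ζ) with hV
  have dts : ∀ (i : Fin 3) (τ : ℝ), dt (S'.e i) (τ • V) = τ * dt (S'.e i) V := by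
    intro i τ; simp only [dt, Pi.smul_apply, smul_eq_mul]; ring
  have small : ∀ (i : Fin 3) (τ κ' : ℝ), 0 ≤ τ → τ ≤ 1 → |dt (S'.e i) V| ≤ κ' → |dt (S'.e i) (τ • V)| ≤ κ' := by
    intro i τ κ' t0 t1 h
    rw [dts, abs_mul, abs_of_nonneg t0]
    calc τ * |dt (S'.e i) V| ≤ 1 * |dt (S'.e i) V| := mul_le_mul_of_nonneg_right t1 (abs_nonneg _)
      _ ≤ κ' := by rw [one_mul]; exact h
  have hκ2X : κ2 ≤ 1 := by
    have hs := hXbig
    have a1 : K * δ ≤ KD * K ^ 2 * (B * lam) * (δ + κ) := by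
      calc K * δ = 1 * K * 1 * δ := by ring
        _ ≤ (KD * K) * K * (B * lam) * (δ + κ) := by
            gcongr
            · exact one_le_mul_of_one_le_of_one_le hKD hK
            · linarith
        _ = _ := by ring
    have a2 : κ * (B * lam) ≤ KD * K ^ 2 * (B * lam) * (δ + κ) := by
      calc κ * (B * lam) = 1 * (B * lam) * κ := by ring
        _ ≤ (KD * K ^ 2) * (B * lam) * (δ + κ) := by
            gcongr
            · exact one_le_mul_of_one_le_of_one_le hKD (one_le_pow₀ hK)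
            · linarith
    rw [hκ2]; linarith
  have key : ∀ τ : ℝ, 0 ≤ τ → τ ≤ 1 → |dt (S'.e 0) (τ • V)| ≤ S'.w 0 →
      |dt (S'.e 0) (τ • V)| ≤ 4 * 10 ^ 7 * (KD * K ^ 2 * (B * lam) * (δ + κ)) * S'.w 0 := by
    intro τ t0 t1 hbox
    have s1 := small 1 τ _ t0 t1 f1
    have s2 := small 2 τ _ t0 t1 f2
    have kx : InK S'.e S'.c (dbl3 S'.w) (z0 + ρ * ζ) (T.pos (z0 + ρ * ζ) + τ • V) := by
      intro i
      have h3 := (hT' _ hz hz').1 i
      have e : dt (S'.e i) (T.pos (z0 + ρ * ζ) + τ • V - S'.c.pos (z0 + ρ * ζ)) =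
          dt (S'.e i) (T.pos (z0 + ρ * ζ) - S'.c.pos (z0 + ρ * ζ)) + dt (S'.e i) (τ • V) := by
        simp only [dt, Pi.add_apply, Pi.sub_apply]; ring
      rw [e]
      change _ ≤ 2 * S'.w i
      have h4 : |dt (S'.e i) (τ • V)| ≤ S'.w i := by
        fin_cases i
        · exact hbox
        · refine s1.trans ?_
          calc κ2 * S'.w 1 ≤ 1 * S'.w 1 := mul_le_mul_of_nonneg_right hκ2X (P'.pos 1).le
            _ = _ := one_mul _
        · refine s2.trans ?_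
          calc κ2 * S'.w 2 ≤ 1 * S'.w 2 := mul_le_mul_of_nonneg_right hκ2X (P'.pos 2).le
            _ = _ := one_mul _
      exact (abs_add_le _ _).trans (by linarith)
    have pa := (P'.path hz hz' hTK' kx).2
    rw [add_sub_cancel_left] at pa
    have r1 : S'.w 0 / S'.w 1 * |dt (S'.e 1) (τ • V)| ≤ κ2 * S'.w 0 := by
      have hw1 := P'.pos 1
      calc _ ≤ S'.w 0 / S'.w 1 * (κ2 * S'.w 1) := mul_le_mul_of_nonneg_left s1 (by positivity)
        _ = κ2 * S'.w 0 := by field_simp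
    have r2 : S'.w 0 / S'.w 2 * |dt (S'.e 2) (τ • V)| ≤ κ2 * S'.w 0 := by
      have hw2 := P'.pos 2
      calc _ ≤ S'.w 0 / S'.w 2 * (κ2 * S'.w 2) := mul_le_mul_of_nonneg_left s2 (by positivity)
        _ = κ2 * S'.w 0 := by field_simp
    refine md_num4 (η := η) (κ2 := κ2) hKD hK hBl hδ hκ0 hw0'.le hηδ hκ2 (pa.trans ?_)
    have := vv τ t0 t1
    linarith
  have hX04 : 4 * 10 ^ 7 * (KD * K ^ 2 * (B * lam) * (δ + κ)) * S'.w 0 < S'.w 0 := by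
    have : 4 * 10 ^ 7 * (KD * K ^ 2 * (B * lam) * (δ + κ)) < 1 := by linarith
    calc _ < 1 * S'.w 0 := mul_lt_mul_of_pos_right this hw0'
      _ = _ := one_mul _
  have main : |dt (S'.e 0) V| ≤ S'.w 0 := by
    by_contra hc
    push Not at hc
    have hg : 0 < |dt (S'.e 0) V| := hw0'.trans hc
    have t0 : 0 ≤ S'.w 0 / |dt (S'.e 0) V| := by positivity
    have t1 : S'.w 0 / |dt (S'.e 0) V| ≤ 1 := by rw [div_le_one hg]; exact hc.le
    have e : |dt (S'.e 0) ((S'.w 0 / |dt (S'.e 0) V|) • V)| = S'.w 0 := by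
      rw [dts, abs_mul, abs_of_nonneg t0]
      field_simp
    have := key _ t0 t1 e.le
    rw [e] at this
    linarith
  have k1 := key 1 zero_le_one le_rfl (by rw [one_smul]; exact main)
  rw [one_smul] at k1
  refine ⟨k1, f1, f2, ?_⟩
  have v1 := vq' 1 zero_le_one le_rfl
  have epT : T.pos (z0 + ρ * ζ) + (1 : ℝ) • V = p := by
    rw [one_smul, hV]; exact add_sub_cancel _ _
  rw [epT] at v1
  have hqd : |S.q (z0 + ρ * ζ) p - S.q (z0 + ρ * ζ) (T.pos (z0 + ρ * ζ))| ≤ A + S.a :=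
    (abs_sub _ _).trans (add_le_add hq hqT)
  have v2 : |μ| * |S.q (z0 + ρ * ζ) p - S.q (z0 + ρ * ζ) (T.pos (z0 + ρ * ζ))| ≤
      |μ| * (A + S.a) := mul_le_mul_of_nonneg_left hqd (abs_nonneg _)
  have v3 := md_num5 hKD0 hK0.le hkS ha.le hA hμ hD hη hKDD hκ0
  have v4 := (hT' _ hz hz').2
  have v5 := abs_add_le (S'.q (z0 + ρ * ζ) p - S'.q (z0 + ρ * ζ) (T.pos (z0 + ρ * ζ)))
    (S'.q (z0 + ρ * ζ) (T.pos (z0 + ρ * ζ)))
  rw [sub_add_cancel] at v5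
  linarith

end Crest.Agent.R136.Hul412
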