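import Crest.Agent.R136.Hc1_792
import Crest.Agent.R136.Pl2H_417

/-!
# R136 (S0187), PLAN 2, (AL) (C): hull count for a thick copy of a sheet, any thickness (helper792)

`thick_cover` : the lines of `P` within `w / 4` of `T` with `|q| ≤ b`, `S.a ≤ b ≤ w 0`; the sheet has
the common dimensions up to `W`, `Two1` has the constant `B ≥ W`.
-/

set_option autoImplicit false
set_option linter.unusedVariables false

open Finset

namespace Crest.Agent.R136.Hc792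

open Crest.Agent.R136.Sh605 Crest.Agent.R136.Fl808
open Crest.Agent.R136.K4 (Plk4)
open Crest.Agent.R136.Tlt51 (Shp InP)
open Crest.Agent.R136.Pl2W102 (Near Ex2 Two1)
open Crest.Agent.R136.Phc248

/-- **the scaled plank** with another thickness, centre in the `5/4`-box -/
theorem shN_thick2 {e : Fin 3 → V3} {c c' : Ln4} {w : V3} {q : ℝ → V3 → ℝ} {z0 ρ a r0 lam b : ℝ}
    (h : ShN e c w q a z0 ρ r0) (hw : ∀ k, 0 < w k) (hl : 0 < lam) (hl2 : lam ≤ 3 / 8)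
    (hr : r0 ≤ b) (hb : b ≤ lam * w 0)
    (hc : ∀ z, z0 ≤ z → z ≤ z0 + ρ → ∀ i, |dt (e i) (c'.pos z - c.pos z)| ≤ 5 / 4 * w i) :
    ShN e c' (fun k => lam * w k) q b z0 ρ r0 := by
  have hin : ∀ z, z0 ≤ z → z ≤ z0 + ρ → ∀ x, InK e c' (dbl3 (fun k => lam * w k)) z x →
      InK e c (dbl3 w) z x := by
    intro z h1 h2 x hx i
    have e1 : dt (e i) (x - c.pos z) = dt (e i) (x - c'.pos z) + dt (e i) (c'.pos z - c.pos z) := by
      simp only [dt, Pi.sub_apply]; ring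
    have h3 : |dt (e i) (x - c'.pos z)| ≤ 2 * (lam * w i) := hx i
    have h4 := hc z h1 h2 i
    have h5 : lam * w i ≤ 3 / 8 * w i := mul_le_mul_of_nonneg_right hl2 (hw i).le
    show |dt (e i) (x - c.pos z)| ≤ 2 * w i
    rw [e1]
    exact (abs_add_le _ _).trans (by linarith)
  have hdiv : ∀ i, lam * w 0 / (lam * w i) = w 0 / w i := fun i =>
    mul_div_mul_left _ _ hl.ne'
  refine ⟨h.ortho, h.isQ, hb, ?_, ?_, hr, ?_, ?_, ?_⟩
  · exact mul_le_mul_of_nonneg_left h.w0_le hl.le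
  · exact mul_le_mul_of_nonneg_left h.w_le hl.le
  · intro z h1 h2 x t ht k1 k2
    exact h.st0 z h1 h2 x t ht (hin z h1 h2 _ k1) (hin z h1 h2 _ k2)
  · intro z h1 h2 x t ht k1 k2
    have := h.sl1 z h1 h2 x t ht (hin z h1 h2 _ k1) (hin z h1 h2 _ k2)
    simp only [hdiv]
    exact this
  · intro z h1 h2 x t ht k1 k2
    have := h.sl2 z h1 h2 x t ht (hin z h1 h2 _ k1) (hin z h1 h2 _ k2)
    simp only [hdiv]
    exact this

section
variable {qm qp : Fin 3 → ℝ} {L : ℕ → Ln4} {P : Finset ℕ} {cu cv : ℕ → ℕ} {Uf Vf : ℕ → Plk4}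
  {W B M a w1 w2 z0 ρ r : ℝ}

open Classical in
/-- count of one small cell -/
theorem cell_card (h : Two1 qm qp L P cu cv Uf Vf B M a w1 w2 z0 ρ r)
    (hq : ∀ k, 0 ≤ qm k ∧ qm k ≤ qp k) (hW : 1 ≤ W) {S : Plk4} (hS : Shp S z0 ρ r)
    (hd : Near W a S.a ∧ Near W w1 (S.w 1) ∧ Near W w2 (S.w 2)) {T : Ln4}
    {lam b : ℝ} (hl : 0 < lam) (hlW : 8 * lam * W * B ≤ 1) (hb : r ≤ b) (hbw : b ≤ lam * S.w 0)
    (hc : ∀ z, z0 ≤ z → z ≤ z0 + ρ → ∀ i, |dt (S.e i) (T.pos z - S.c.pos z)| ≤ 5 / 4 * S.w i)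
    {Q : Finset ℕ} (hQ : Q ⊆ P)
    (hQ' : ∀ s ∈ Q, ∀ z, z0 ≤ z → z ≤ z0 + ρ →
      (∀ i, |dt (S.e i) ((L s).pos z - T.pos z)| ≤ lam * S.w i) ∧ |S.q z ((L s).pos z)| ≤ b) :
    (Q.card : ℝ) ≤ B * M * ph (qm 0) (qp 0) (b / a) := by
  have B1 := h.W1
  have W0 : 0 < W := by linarith
  have B0 : 0 < B := by linarith
  have WB : 1 ≤ W * B := by nlinarith
  have hlWB : lam * (W * B) ≤ 1 / 8 := by linarith
  have hl8 : lam ≤ 1 / 8 := by nlinarith
  have hlW1 : lam * W ≤ 1 := by nlinarith [mul_pos hl W0]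
  have hSw0 : 0 < S.w 0 := by
    have := hS.a_le0
    have h2 := hS.r0_le
    linarith [h.r0]
  have hSw2 : 0 < S.w 2 := hSw0.trans_le hS.w0_le
  have hSw1 : 0 < S.w 1 := hSw2.trans_le hS.w_le
  have hw : ∀ k, 0 < S.w k := by
    intro k
    fin_cases k
    · exact hSw0
    · exact hSw1
    · exact hSw2
  have hleg : ShN S.e T (fun k => lam * S.w k) S.q b z0 ρ r :=
    shN_thick2 hS hw hl (by linarith) hb hbw hc
  have hwρ : lam * S.w 1 ≤ ρ := by
    have h1 : S.w 1 ≤ W * w1 := hd.2.1.2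
    have h2 := h.w1ρ
    have h3 : S.w 1 ≤ (W * B) * ρ := by
      calc S.w 1 ≤ W * w1 := h1
        _ ≤ W * (B * ρ) := mul_le_mul_of_nonneg_left h2 W0.le
        _ = (W * B) * ρ := by ring
    calc lam * S.w 1 ≤ lam * ((W * B) * ρ) := mul_le_mul_of_nonneg_left h3 hl.le
      _ = (lam * (W * B)) * ρ := by ring
      _ ≤ 1 * ρ := mul_le_mul_of_nonneg_right (by linarith) h.ρ0.le
      _ = ρ := one_mul _
  have hdm := h.dmax ⟨S.j, S.e, T, fun k => lam * S.w k, S.q, b⟩ hleg hwρ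
  have hsub : Q ⊆ P.filter fun t => InP (L t) ⟨S.j, S.e, T, fun k => lam * S.w k, S.q, b⟩ z0 ρ := by
    intro s hs
    rw [Finset.mem_filter]
    refine ⟨hQ hs, fun z h1 h2 => ?_⟩
    obtain ⟨k1, k2⟩ := hQ' s hs z h1 h2
    exact ⟨fun i => k1 i, k2⟩
  have hc1 : (Q.card : ℝ) ≤ _ := (Nat.cast_le.2 (Finset.card_le_card hsub)).trans hdm
  refine hc1.trans ?_
  have hb0 : 0 < b := h.r0.trans_le hb
  have f1 : ph (qm 1) (qp 1) (lam * S.w 1 / w1) ≤ 1 := by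
    refine (ph_le_narrow (hq 1).1 (hq 1).2 (by have := h.w10; positivity) ?_ le_rfl).trans
      (le_of_eq (Real.one_rpow _))
    rw [div_le_one h.w10]
    have h1 : S.w 1 ≤ W * w1 := hd.2.1.2
    calc lam * S.w 1 ≤ lam * (W * w1) := mul_le_mul_of_nonneg_left h1 hl.le
      _ = (lam * W) * w1 := by ring
      _ ≤ 1 * w1 := mul_le_mul_of_nonneg_right hlW1 h.w10.le
      _ = w1 := one_mul _
  have f2 : ph (qm 2) (qp 2) (lam * S.w 2 / w2) ≤ 1 := by
    refine (ph_le_narrow (hq 2).1 (hq 2).2 (by have := h.w20; positivity) ?_ le_rfl).trans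
      (le_of_eq (Real.one_rpow _))
    rw [div_le_one h.w20]
    have h1 : S.w 2 ≤ W * w2 := hd.2.2.2
    calc lam * S.w 2 ≤ lam * (W * w2) := mul_le_mul_of_nonneg_left h1 hl.le
      _ = (lam * W) * w2 := by ring
      _ ≤ 1 * w2 := mul_le_mul_of_nonneg_right hlW1 h.w20.le
      _ = w2 := one_mul _
  have g0 : 0 ≤ ph (qm 0) (qp 0) (b / a) := ph_nonneg (div_nonneg hb0.le h.a0.le)
  have g1 : 0 ≤ ph (qm 1) (qp 1) (lam * S.w 1 / w1) := ph_nonneg (by have := h.w10; positivity)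
  have g2 : 0 ≤ ph (qm 2) (qp 2) (lam * S.w 2 / w2) := ph_nonneg (by have := h.w20; positivity)
  have hprod : phC qm qp a w1 w2 b (lam * S.w 1) (lam * S.w 2) ≤ ph (qm 0) (qp 0) (b / a) := by
    unfold phC
    calc _ ≤ ph (qm 0) (qp 0) (b / a) * 1 * 1 :=
          mul_le_mul (mul_le_mul_of_nonneg_left f1 g0) f2 g2 (by positivity)
      _ = _ := by ring
  exact mul_le_mul_of_nonneg_left hprod (mul_nonneg B0.le h.M0.le)

open Classical in
/-- **thin case** : cover by cells of size `1 / (8 W B)` -/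
theorem cover_thin (h : Two1 qm qp L P cu cv Uf Vf B M a w1 w2 z0 ρ r)
    (hq : ∀ k, 0 ≤ qm k ∧ qm k ≤ qp k) (hW : 1 ≤ W) {S : Plk4} (hS : Shp S z0 ρ r)
    (hd : Near W a S.a ∧ Near W w1 (S.w 1) ∧ Near W w2 (S.w 2)) {T : Ln4} (hT : InP T S z0 ρ)
    {lam b : ℝ} (hl : lam ≤ 1 / 4) (hb : r ≤ b) (hbw : 8 * W * B * b ≤ S.w 0)
    {Q : Finset ℕ} (hQ : Q ⊆ P)
    (hQ' : ∀ s ∈ Q, ∀ z, z0 ≤ z → z ≤ z0 + ρ →
      (∀ i, |dt (S.e i) ((L s).pos z - T.pos z)| ≤ lam * S.w i) ∧ |S.q z ((L s).pos z)| ≤ b) :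
    (Q.card : ℝ) ≤ (7 * (W * B)) ^ 6 * (B * M * ph (qm 0) (qp 0) (b / a)) := by
  have B1 := h.W1
  have W0 : 0 < W := by linarith
  have B0 : 0 < B := by linarith
  have WB : 1 ≤ W * B := by nlinarith
  have WB0 : 0 < W * B := by positivity
  have hb0 : 0 < b := h.r0.trans_le hb
  have hSw0 : 0 < S.w 0 := by
    have := hS.a_le0
    have h2 := hS.r0_le
    linarith [h.r0]
  have hSw2 : 0 < S.w 2 := hSw0.trans_le hS.w0_le
  have hSw1 : 0 < S.w 1 := hSw2.trans_le hS.w_le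
  have hw : ∀ k, 0 < S.w k := by
    intro k
    fin_cases k
    · exact hSw0
    · exact hSw1
    · exact hSw2
  set d : ℝ := 1 / (8 * (W * B)) with hd'
  have hd0 : 0 < d := by positivity
  have hd1 : d * (8 * (W * B)) = 1 := by rw [hd']; field_simp
  obtain ⟨m, hm1, hm2⟩ : ∃ m : ℕ, 2 * (W * B) ≤ m ∧ (m : ℝ) ≤ 3 * (W * B) := by
    refine ⟨⌈2 * (W * B)⌉₊, Nat.le_ceil _, ?_⟩
    have := (Nat.ceil_lt_add_one (show 0 ≤ 2 * (W * B) by positivity)).le
    linarith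
  set K : ℝ := B * M * ph (qm 0) (qp 0) (b / a) with hK
  have K0 : 0 ≤ K := by
    have := h.M0
    have := ph_nonneg (m := qm 0) (p := qp 0) (div_nonneg hb0.le h.a0.le)
    positivity
  let x : V3 := fun i => d * S.w i
  have hx : ∀ i, 0 < x i := fun i => mul_pos hd0 (hw i)
  have hmx : ∀ i, lam * S.w i ≤ m * x i := by
    intro i
    have h1 : lam ≤ m * d := by
      have : 2 * (W * B) * d ≤ m * d := mul_le_mul_of_nonneg_right hm1 hd0.le
      nlinarith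
    have := mul_le_mul_of_nonneg_right h1 (hw i).le
    show lam * S.w i ≤ m * (d * S.w i)
    linarith
  let cd : ℕ → (Fin 3 → ℤ) × (Fin 3 → ℤ) := fun s =>
    (fun i => cdx S.e x T (L s) z0 i, fun i => cdx S.e x T (L s) (z0 + ρ) i)
  have hfib : ∀ c ∈ Q.image cd, ((Q.filter fun s => cd s = c).card : ℕ) ≤ ⌊K⌋₊ := by
    intro c hc
    obtain ⟨s0, hs0, rfl⟩ := Finset.mem_image.1 hc
    refine Nat.le_floor ?_
    refine cell_card h hq hW hS hd (T := L s0) (lam := d) (b := b) hd0 ?_ hb ?_ ?_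
      ((Finset.filter_subset _ _).trans hQ) ?_
    · calc 8 * d * W * B = d * (8 * (W * B)) := by ring
        _ = 1 := hd1
        _ ≤ 1 := le_rfl
    · rw [hd', div_mul_eq_mul_div, one_mul, le_div_iff₀ (by positivity)]
      linarith
    · intro z h1 h2 i
      have k1 := (hQ' s0 hs0 z h1 h2).1 i
      have k2 := (hT z h1 h2).1 i
      have e1 : dt (S.e i) ((L s0).pos z - S.c.pos z) =
          dt (S.e i) ((L s0).pos z - T.pos z) + dt (S.e i) (T.pos z - S.c.pos z) := by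
        simp only [dt, Pi.sub_apply]; ring
      rw [e1]
      have k3 : lam * S.w i ≤ 1 / 4 * S.w i := mul_le_mul_of_nonneg_right hl (hw i).le
      exact (abs_add_le _ _).trans (by linarith)
    · intro s hs z h1 h2
      obtain ⟨hs1, hs2⟩ := Finset.mem_filter.1 hs
      refine ⟨fun i => ?_, (hQ' s hs1 z h1 h2).2⟩
      have k1 := congrFun (congrArg Prod.fst hs2) i
      have k2 := congrFun (congrArg Prod.snd hs2) i
      exact seg_le (cdx_close (hx i) k1) (cdx_close (hx i) k2) h1 h2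
  have him : (Q.image cd).card ≤ (2 * m + 1) ^ 6 := by
    have hsub : Q.image cd ⊆ (Fintype.piFinset fun _ : Fin 3 => Finset.Icc (-(m : ℤ)) (m : ℤ)) ×ˢ
        (Fintype.piFinset fun _ : Fin 3 => Finset.Icc (-(m : ℤ)) (m : ℤ)) := by
      intro c hc
      obtain ⟨s, hs, rfl⟩ := Finset.mem_image.1 hc
      rw [Finset.mem_product, Fintype.mem_piFinset, Fintype.mem_piFinset]
      have hρ := h.ρ0
      exact ⟨fun i => cdx_mem (hx i)
          (((hQ' s hs z0 le_rfl (by linarith)).1 i).trans (hmx i)),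
        fun i => cdx_mem (hx i)
          (((hQ' s hs (z0 + ρ) (by linarith) le_rfl).1 i).trans (hmx i))⟩
    refine (Finset.card_le_card hsub).trans (le_of_eq ?_)
    rw [Finset.card_product, Fintype.card_piFinset]
    simp only [Int.card_Icc, Finset.prod_const, Finset.card_univ, Fintype.card_fin]
    have : ((m : ℤ) + 1 - -(m : ℤ)).toNat = 2 * m + 1 := by omega
    rw [this]; ring
  have h1 := Finset.card_le_mul_card_image Q ⌊K⌋₊ hfib
  have h2 : (Q.card : ℝ) ≤ (⌊K⌋₊ : ℝ) * ((Q.image cd).card : ℝ) := by exact_mod_cast h1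
  have h3 : ((Q.image cd).card : ℝ) ≤ (2 * m + 1) ^ 6 := by exact_mod_cast him
  have h4 : (2 * (m:ℝ) + 1) ^ 6 ≤ (7 * (W * B)) ^ 6 := by
    apply pow_le_pow_left₀ (by positivity)
    linarith
  calc (Q.card : ℝ) ≤ (⌊K⌋₊ : ℝ) * ((Q.image cd).card : ℝ) := h2
    _ ≤ K * (2 * m + 1) ^ 6 := mul_le_mul (Nat.floor_le K0) h3 (Nat.cast_nonneg _) K0
    _ ≤ K * (7 * (W * B)) ^ 6 := mul_le_mul_of_nonneg_left h4 K0
    _ = _ := by ring

open Classical in
/-- **fat case** : the plain box of the sheet -/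
theorem cover_fat (h : Two1 qm qp L P cu cv Uf Vf B M a w1 w2 z0 ρ r) (hr : r ≤ ρ)
    (hq : ∀ k, 0 ≤ qm k ∧ qm k ≤ qp k) (hW : 1 ≤ W) {S : Plk4} (hS : Shp S z0 ρ r)
    (hd : Near W a S.a ∧ Near W w1 (S.w 1) ∧ Near W w2 (S.w 2)) {T : Ln4}
    {lam b : ℝ} (hl : lam ≤ 1 / 4) (hb : S.a ≤ b) (hb2 : b ≤ S.w 0)
    (hbw : S.w 0 ≤ 8 * W * B * b) {Q : Finset ℕ} (hQ : Q ⊆ P)
    (hQ' : ∀ s ∈ Q, ∀ z, z0 ≤ z → z ≤ z0 + ρ →
      (∀ i, |dt (S.e i) ((L s).pos z - T.pos z)| ≤ lam * S.w i) ∧ |S.q z ((L s).pos z)| ≤ b) :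
    (Q.card : ℝ) ≤ (2 * B * (8 * W ^ 4 * B)) ^ (22 + qp 0 + qp 1 + qp 2) * M *
      ((8 * W * B * b / a) ^ (1 + qp 0) * (8 * W ^ 2 * B) ^ (1 + qp 2)) := by
  have B1 := h.W1
  have W0 : 0 < W := by linarith
  have B0 : 0 < B := by linarith
  have WB : 1 ≤ W * B := by nlinarith
  have W2 : 1 ≤ W ^ 2 := one_le_pow₀ hW
  have W4 : 1 ≤ W ^ 4 := one_le_pow₀ hW
  have hSw0 : 0 < S.w 0 := by
    have := hS.a_le0
    have h2 := hS.r0_le
    linarith [h.r0]
  have hSw2 : 0 < S.w 2 := hSw0.trans_le hS.w0_le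
  have hSw1 : 0 < S.w 1 := hSw2.trans_le hS.w_le
  have hw1 := h.w10
  have hw2 := h.w20
  have ha := h.a0
  have n1 : S.w 1 ≤ W * w1 := hd.2.1.2
  have n2 : S.w 2 ≤ W * w2 := hd.2.2.2
  have n2' : w2 ≤ W * S.w 2 := hd.2.2.1
  have n0 : a ≤ W * S.a := hd.1.1
  have hb0 : 0 < b := h.r0.trans_le (hS.r0_le.trans hb)
  have k1 : 1 ≤ 8 * W ^ 4 * B := by nlinarith
  have g0 : a ≤ 8 * W * B * b := by
    calc a ≤ W * S.a := n0
      _ ≤ W * b := mul_le_mul_of_nonneg_left hb W0.le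
      _ = 1 * (W * b) := (one_mul _).symm
      _ ≤ (8 * B) * (W * b) := mul_le_mul_of_nonneg_right (by linarith) (by positivity)
      _ = _ := by ring
  have g1 : w2 ≤ 8 * W ^ 2 * B * w2 := by
    have : 1 ≤ 8 * W ^ 2 * B := by nlinarith
    nlinarith
  have g2 : 8 * W * B * b ≤ 8 * W ^ 2 * B * w2 := by
    calc 8 * W * B * b ≤ 8 * W * B * (W * w2) :=
          mul_le_mul_of_nonneg_left (hb2.trans (hS.w0_le.trans n2)) (by positivity)
      _ = _ := by ring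
  have g3 : 8 * W ^ 2 * B * w2 ≤ 8 * W ^ 4 * B * w1 := by
    have h1 : w2 ≤ W ^ 2 * w1 := by
      calc w2 ≤ W * S.w 2 := n2'
        _ ≤ W * (W * w1) := mul_le_mul_of_nonneg_left (hS.w_le.trans n1) W0.le
        _ = _ := by ring
    calc 8 * W ^ 2 * B * w2 ≤ 8 * W ^ 2 * B * (W ^ 2 * w1) :=
          mul_le_mul_of_nonneg_left h1 (by positivity)
      _ = _ := by ring
  have hc := Pl2H417.hull_card hq h hr k1 T S.e (8 * W * B * b) (8 * W ^ 2 * B * w2) hS.ortho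
    g0 g1 g2 g3
  have hsub : Q ⊆ P.filter fun t => InB (L t) T S.e
      ![8 * W * B * b, 8 * W ^ 4 * B * w1, 8 * W ^ 2 * B * w2] z0 ρ := by
    intro s hs
    refine Finset.mem_filter.2 ⟨hQ hs, fun z hz hz' i => ?_⟩
    have hi := (hQ' s hs z hz hz').1 i
    fin_cases i
    · refine hi.trans ?_
      show lam * S.w 0 ≤ 8 * W * B * b
      nlinarith
    · refine hi.trans ?_
      show lam * S.w 1 ≤ 8 * W ^ 4 * B * w1
      have e1 : lam * S.w 1 ≤ S.w 1 := by nlinarith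
      have e2 : W * w1 ≤ 8 * W ^ 4 * B * w1 := by
        have e3 : W ≤ 8 * W ^ 4 * B := by
          have : W ^ 1 ≤ W ^ 4 := pow_le_pow_right₀ hW (by norm_num)
          nlinarith
        exact mul_le_mul_of_nonneg_right e3 hw1.le
      linarith
    · refine hi.trans ?_
      show lam * S.w 2 ≤ 8 * W ^ 2 * B * w2
      have e1 : lam * S.w 2 ≤ S.w 2 := by nlinarith
      have e2 : W * w2 ≤ 8 * W ^ 2 * B * w2 := by
        have e3 : W ≤ 8 * W ^ 2 * B := by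
          have : W ^ 1 ≤ W ^ 2 := pow_le_pow_right₀ hW (by norm_num)
          nlinarith
        exact mul_le_mul_of_nonneg_right e3 hw2.le
      linarith
  refine (Nat.cast_le.2 (Finset.card_le_card hsub)).trans (hc.trans (le_of_eq ?_))
  rw [mul_div_assoc (8 * W ^ 2 * B) w2 w2, div_self hw2.ne', mul_one]

open Classical in
/-- **hull count for a thick copy of a sheet, any thickness** -/
theorem thick_cover (h : Two1 qm qp L P cu cv Uf Vf B M a w1 w2 z0 ρ r) (hr : r ≤ ρ)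
    (hq : ∀ k, 0 ≤ qm k ∧ qm k ≤ qp k) (hW : 1 ≤ W) (hWB : W ≤ B) {S : Plk4}
    (hS : Shp S z0 ρ r) (hd : Near W a S.a ∧ Near W w1 (S.w 1) ∧ Near W w2 (S.w 2)) {T : Ln4}
    (hT : InP T S z0 ρ) {lam b : ℝ} (hl : lam ≤ 1 / 4) (hb : S.a ≤ b) (hb2 : b ≤ S.w 0)
    {Q : Finset ℕ} (hQ : Q ⊆ P)
    (hQ' : ∀ s ∈ Q, ∀ z, z0 ≤ z → z ≤ z0 + ρ →
      (∀ i, |dt (S.e i) ((L s).pos z - T.pos z)| ≤ lam * S.w i) ∧ |S.q z ((L s).pos z)| ≤ b) :
    (Q.card : ℝ) ≤ (64 * B) ^ (13 + 6 * (22 + qp 0 + qp 1 + qp 2) + 2 * (1 + qp 0) +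
      3 * (1 + qp 2)) * M * ph (qm 0) (qp 0) (b / a) := by
  have B1 := h.W1
  have W0 : 0 < W := by linarith
  have B0 : 0 < B := by linarith
  have ha := h.a0
  have hM := h.M0
  have hb0 : 0 < b := h.r0.trans_le (hS.r0_le.trans hb)
  have q0 : 0 ≤ qp 0 := (hq 0).1.trans (hq 0).2
  have q1 : 0 ≤ qp 1 := (hq 1).1.trans (hq 1).2
  have q2 : 0 ≤ qp 2 := (hq 2).1.trans (hq 2).2
  set X := 64 * B with hX
  have X1 : 1 ≤ X := by linarith
  have X0 : 0 < X := by linarith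
  have BX : B ≤ X := by linarith
  have hph : 0 ≤ ph (qm 0) (qp 0) (b / a) := ph_nonneg (div_nonneg hb0.le ha.le)
  have BB : B * B ≤ X * X := mul_le_mul BX BX B0.le X0.le
  have WB2 : W * B ≤ B * B := mul_le_mul_of_nonneg_right hWB B0.le
  rcases le_total (8 * W * B * b) (S.w 0) with hc | hc
  · refine (cover_thin h hq hW hS hd hT hl (hS.r0_le.trans hb) hc hQ hQ').trans ?_
    have e1 : 7 * (W * B) ≤ X ^ 2 := by
      have : X ^ 2 = 4096 * (B * B) := by rw [hX]; ring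
      rw [this]; nlinarith [mul_pos B0 B0]
    have e2 : (7 * (W * B)) ^ 6 * B ≤ X ^ (13:ℝ) := by
      have e3 : X ^ (13:ℝ) = (X ^ 2) ^ 6 * X := by
        have : X ^ (13:ℝ) = X ^ (13:ℕ) := by norm_cast
        rw [this]; ring
      rw [e3]
      exact mul_le_mul (pow_le_pow_left₀ (by positivity) e1 6) BX B0.le (by positivity)
    calc (7 * (W * B)) ^ 6 * (B * M * ph (qm 0) (qp 0) (b / a))
        = ((7 * (W * B)) ^ 6 * B) * (M * ph (qm 0) (qp 0) (b / a)) := by ring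
      _ ≤ X ^ (13:ℝ) * (M * ph (qm 0) (qp 0) (b / a)) :=
          mul_le_mul_of_nonneg_right e2 (by positivity)
      _ ≤ X ^ (13 + 6 * (22 + qp 0 + qp 1 + qp 2) + 2 * (1 + qp 0) + 3 * (1 + qp 2)) *
          (M * ph (qm 0) (qp 0) (b / a)) :=
          mul_le_mul_of_nonneg_right (Real.rpow_le_rpow_of_exponent_le X1 (by linarith))
            (by positivity)
      _ = _ := by ring
  · refine (cover_fat h hr hq hW hS hd hl hb hb2 hc hQ hQ').trans ?_
    have p6 : X ^ (6:ℝ) = X ^ 6 := by norm_cast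
    have p2 : X ^ (2:ℝ) = X ^ 2 := by norm_cast
    have p3 : X ^ (3:ℝ) = X ^ 3 := by norm_cast
    have W4 : W ^ 4 ≤ B ^ 4 := pow_le_pow_left₀ W0.le hWB 4
    have W2 : W ^ 2 ≤ B ^ 2 := pow_le_pow_left₀ W0.le hWB 2
    have f1 : 2 * B * (8 * W ^ 4 * B) ≤ X ^ (6:ℝ) := by
      rw [p6]
      calc 2 * B * (8 * W ^ 4 * B) = 16 * W ^ 4 * B ^ 2 := by ring
        _ ≤ 16 * B ^ 4 * B ^ 2 := by gcongr
        _ = 16 * B ^ 6 := by ring
        _ ≤ 64 ^ 6 * B ^ 6 := by gcongr; norm_num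
        _ = X ^ 6 := by rw [hX]; ring
    have f2 : 8 * W * B ≤ X ^ (2:ℝ) := by
      rw [p2]
      calc 8 * W * B = 8 * (W * B) := by ring
        _ ≤ 8 * (B * B) := by linarith
        _ ≤ 64 ^ 2 * (B * B) := by nlinarith [mul_pos B0 B0]
        _ = X ^ 2 := by rw [hX]; ring
    have f3 : 8 * W ^ 2 * B ≤ X ^ (3:ℝ) := by
      rw [p3]
      calc 8 * W ^ 2 * B ≤ 8 * B ^ 2 * B := by gcongr
        _ = 8 * B ^ 3 := by ring
        _ ≤ 64 ^ 3 * B ^ 3 := by gcongr; norm_num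
        _ = X ^ 3 := by rw [hX]; ring
    have e5 : 8 * W * B * b / a = 8 * W * B * (b / a) := by ring
    have hba : 0 ≤ b / a := div_nonneg hb0.le ha.le
    have g1 : (2 * B * (8 * W ^ 4 * B)) ^ (22 + qp 0 + qp 1 + qp 2) ≤
        X ^ (6 * (22 + qp 0 + qp 1 + qp 2)) := by
      rw [Real.rpow_mul X0.le]
      exact Real.rpow_le_rpow (by positivity) f1 (by linarith)
    have g2 : (8 * W * B * b / a) ^ (1 + qp 0) ≤
        X ^ (2 * (1 + qp 0)) * ph (qm 0) (qp 0) (b / a) := by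
      rw [e5, Real.mul_rpow (by positivity) hba, Real.rpow_mul X0.le]
      exact mul_le_mul (Real.rpow_le_rpow (by positivity) f2 (by linarith)) (ph_ge_p _ _ _)
        (by positivity) (by positivity)
    have g3 : (8 * W ^ 2 * B) ^ (1 + qp 2) ≤ X ^ (3 * (1 + qp 2)) := by
      rw [Real.rpow_mul X0.le]
      exact Real.rpow_le_rpow (by positivity) f3 (by linarith)
    calc (2 * B * (8 * W ^ 4 * B)) ^ (22 + qp 0 + qp 1 + qp 2) * M *
          ((8 * W * B * b / a) ^ (1 + qp 0) * (8 * W ^ 2 * B) ^ (1 + qp 2))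
        ≤ X ^ (6 * (22 + qp 0 + qp 1 + qp 2)) * M *
          ((X ^ (2 * (1 + qp 0)) * ph (qm 0) (qp 0) (b / a)) * X ^ (3 * (1 + qp 2))) := by
          refine mul_le_mul (mul_le_mul_of_nonneg_right g1 hM.le)
            (mul_le_mul g2 g3 (by positivity) (by positivity)) (by positivity) (by positivity)
      _ = X ^ (6 * (22 + qp 0 + qp 1 + qp 2)) * X ^ (2 * (1 + qp 0)) * X ^ (3 * (1 + qp 2)) *
          (M * ph (qm 0) (qp 0) (b / a)) := by ring
      _ = X ^ (6 * (22 + qp 0 + qp 1 + qp 2) + 2 * (1 + qp 0) + 3 * (1 + qp 2)) *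
          (M * ph (qm 0) (qp 0) (b / a)) := by
          rw [← Real.rpow_add X0, ← Real.rpow_add X0]
      _ ≤ X ^ (13 + 6 * (22 + qp 0 + qp 1 + qp 2) + 2 * (1 + qp 0) + 3 * (1 + qp 2)) *
          (M * ph (qm 0) (qp 0) (b / a)) :=
          mul_le_mul_of_nonneg_right (Real.rpow_le_rpow_of_exponent_le X1 (by linarith))
            (by positivity)
      _ = _ := by ring

end

end Crest.Agent.R136.Hc792
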