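import Crest.Agent.R136.Hul3_412
import Crest.Agent.R136.Hul2_412
import Crest.Agent.R136.Tc1_792
import Crest.Agent.R136.Fh1_792
import Crest.Agent.R136.Hcp2_208
import Crest.Agent.R136.AlK_500

/-!
# R136 (S0187), PLAN 2 (AL) (B), `LeafHull` (helper412)

`hop` : one step in normalised units, `Ctx` : numbers, `leafHull`.
-/

set_option autoImplicit false
set_option linter.unusedVariables false

open Finset

namespace Crest.Agent.R136.Hul412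

open Crest.Agent.R136.Sh605
open Crest.Agent.R136.Tl102
open Crest.Agent.R136.K4 (Plk4)
open Crest.Agent.R136.Deep51 (CloseC)
open Crest.Agent.R136.Tlt51 (CompC Shp InP)
open Crest.Agent.R136.KapP335 (kapP)
open Crest.Agent.R136.Adj214 (KD KD_pos KD_one)
open Crest.Agent.R136.Pl2W102 (Near Ex2 Two1)
open Crest.Agent.R136.Phc248 (ph phC ph_ge_one)
open Crest.Agent.R136.Rf877 (Tub)
open Crest.Agent.R136.Al500 (Dm Cl2 Cf LeafHull)

/-- data of one pair of sheets at a common line -/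
structure HP (W a w1 w2 E z0 ρ r : ℝ) (S S' : Plk4) (T : Ln4) : Prop where
  hS : Shp S z0 ρ r
  hS' : Shp S' z0 ρ r
  dS : Dm W a w1 w2 S
  dS' : Dm W a w1 w2 S'
  ang : angC S' S * w1 ≤ W * w2
  hT : InP T S z0 ρ
  hT' : InP T S' z0 ρ
  cl : CloseC S.e S.w S.q S.a S'.q (2 * E * a) T z0 ρ
  kE : E * a ≤ W * kapP S z0 ρ T
  kk : kapP S z0 ρ T ≤ W * kapP S' z0 ρ T

/-- **one step**, normalised: `A = α E a ε`, `κ = β ε`, `1 ≤ E ε` -/
theorem hop {W a w1 w2 E z0 ρ r ε α β : ℝ} {S S' : Plk4} {T : Ln4} (hr : 0 < r) (hρ : 0 < ρ)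
    (hW : 1 ≤ W) (ha : 0 < a) (h1 : 0 < w1) (h2 : 0 < w2) (h : HP W a w1 w2 E z0 ρ r S S' T)
    (hE : 1 ≤ E) (hε : 0 < ε) (hEε : 1 ≤ E * ε) (hα : W ≤ α) (hβ : 0 ≤ β)
    (hsm : 10 ^ 8 * (KD * W ^ 7 * (α * W + β)) * ε ≤ 1) (h6 : 10 ^ 6 * W ^ 2 ≤ E) {z : ℝ}
    (hz : z0 ≤ z) (hz' : z ≤ z0 + ρ) {p : V3} (hp : InK S.e S.c (dbl3 S.w) z p)
    (hq : |S.q z p| ≤ α * (E * a) * ε)
    (k1 : |dt (S.e 1) (p - T.pos z)| ≤ β * ε * S.w 1)
    (k2 : |dt (S.e 2) (p - T.pos z)| ≤ β * ε * S.w 2) :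
    |dt (S'.e 0) (p - T.pos z)| ≤ 4 * 10 ^ 7 * (KD * W ^ 7 * (α * W + β)) * ε * S'.w 0 ∧
      |dt (S'.e 1) (p - T.pos z)| ≤ (52 * (α * W ^ 2) + 6 * (β * W ^ 5)) * ε * S'.w 1 ∧
      |dt (S'.e 2) (p - T.pos z)| ≤ (52 * (α * W ^ 2) + 6 * (β * W ^ 5)) * ε * S'.w 2 ∧
      |S'.q z p| ≤ (W + 50000 * KD * W * α + 30000 * KD * β) * (E * a) * ε := by
  have W0 : 0 < W := by linarith
  have hE0 : 0 < E := by linarith
  have hEa : 0 < E * a := mul_pos hE0 ha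
  have hα0 : 0 ≤ α := by linarith
  have hKD := KD_one
  have hS := h.hS
  have hS' := h.hS'
  have hwp' : 0 < S'.w 0 := hr.trans_le (hS'.r0_le.trans hS'.a_le0)
  have hw1' : 0 ≤ S'.w 1 := (hwp'.le.trans hS'.w0_le).trans hS'.w_le
  have hC : CompC (W ^ 2) (W ^ 3) S' S := compC_near hW ha h1 h2 h.dS' h.dS hw1' h.ang
  have aEε : a ≤ (E * a) * ε := by
    calc a = 1 * a := by ring
      _ ≤ (E * ε) * a := mul_le_mul_of_nonneg_right hEε ha.le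
      _ = _ := by ring
  have hSa : S.a ≤ W * a := h.dS.1.2
  have hSa' : S'.a ≤ W * a := h.dS'.1.2
  have hka : 10 ^ 6 * S.a ≤ kapP S z0 ρ T := by
    have e1 : W * (10 ^ 6 * S.a) ≤ W * kapP S z0 ρ T := by
      calc W * (10 ^ 6 * S.a) ≤ W * (10 ^ 6 * (W * a)) := by gcongr
        _ = 10 ^ 6 * W ^ 2 * a := by ring
        _ ≤ E * a := mul_le_mul_of_nonneg_right h6 ha.le
        _ ≤ _ := h.kE
    exact le_of_mul_le_mul_left e1 W0
  have hk13 := kapP_le hr hρ.le hS' h.hT'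
  have hkw : kapP S z0 ρ T ≤ 13 * W * S'.w 0 := by
    have := mul_le_mul_of_nonneg_left hk13 W0.le
    linarith [h.kk]
  have hA : S.a ≤ α * (E * a) * ε := by
    calc S.a ≤ W * a := hSa
      _ ≤ α * ((E * a) * ε) := mul_le_mul hα aEε ha.le hα0
      _ = _ := by ring
  have hAδ : α * (E * a) * ε ≤ α * W * ε * kapP S z0 ρ T := by
    have := mul_le_mul_of_nonneg_left h.kE (mul_nonneg hα0 hε.le)
    linarith
  have hD : 2 * E * a ≤ 2 * W * kapP S z0 ρ T := by linarith [h.kE]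
  have hδ : 0 ≤ α * W * ε := by positivity
  have hκ : 0 ≤ β * ε := by positivity
  have e5 : KD * W ^ 2 * (W ^ 2 * W ^ 3) * (α * W * ε + β * ε) =
      (KD * W ^ 7 * (α * W + β)) * ε := by ring
  obtain ⟨g0, g1, g2, g3⟩ := mem_div hr hρ hS hS' (one_le_pow₀ hW) (one_le_pow₀ hW) hW hC h.hT h.hT'
    h.cl hka hD hkw hA hδ hAδ hκ (by rw [e5]; linarith) hz hz' hp hq k1 k2
  rw [e5] at g0
  refine ⟨g0.trans (le_of_eq (by ring)), g1.trans (le_of_eq (by ring)),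
    g2.trans (le_of_eq (by ring)), g3.trans ?_⟩
  have e6 : W * a ≤ W * ((E * a) * ε) := mul_le_mul_of_nonneg_left aEε W0.le
  have e7 : (W + 50000 * KD * W * α + 30000 * KD * β) * (E * a) * ε =
      W * ((E * a) * ε) + 50000 * (KD * W) * (α * (E * a) * ε) +
        15000 * KD * (β * ε) * (2 * E * a) := by ring
  rw [e7]
  linarith

/-! ### numbers -/

section num
variable {W ε : ℝ}

theorem mono_le (hW : 1 ≤ W) (i j : ℕ) (hi : i ≤ 2) (hj : j ≤ 12) :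
    KD ^ i * W ^ j ≤ KD ^ 2 * W ^ 12 :=
  mul_le_mul (pow_le_pow_right₀ KD_one hi) (pow_le_pow_right₀ hW hj)
    (pow_nonneg (by linarith) _) (pow_nonneg KD_pos.le _)

theorem n0 (hW : 1 ≤ W) : KD * W ^ 7 * ((10 ^ 5 * (KD * W ^ 2)) * W + 60 * W ^ 5) ≤
    100060 * (KD ^ 2 * W ^ 12) := by
  have h1 := mono_le hW 2 10 le_rfl (by norm_num)
  have h2 := mono_le hW 1 12 (by norm_num) le_rfl
  have e : KD * W ^ 7 * ((10 ^ 5 * (KD * W ^ 2)) * W + 60 * W ^ 5) =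
      100000 * (KD ^ 2 * W ^ 10) + 60 * (KD ^ 1 * W ^ 12) := by ring
  rw [e]; linarith

theorem n2 (hW : 1 ≤ W) : 52 * ((10 ^ 5 * (KD * W ^ 2)) * W ^ 2) + 6 * ((60 * W ^ 5) * W ^ 5) ≤
    5200360 * (KD ^ 2 * W ^ 12) := by
  have h1 := mono_le hW 1 4 (by norm_num) (by norm_num)
  have h2 := mono_le hW 0 10 (by norm_num) (by norm_num)
  have e : 52 * ((10 ^ 5 * (KD * W ^ 2)) * W ^ 2) + 6 * ((60 * W ^ 5) * W ^ 5) =
      5200000 * (KD ^ 1 * W ^ 4) + 360 * (KD ^ 0 * W ^ 10) := by ring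
  rw [e]; linarith

theorem n3 (hW : 1 ≤ W) : W + 50000 * KD * W * (10 ^ 5 * (KD * W ^ 2)) + 30000 * KD * (60 * W ^ 5) ≤
    10 ^ 10 * (KD ^ 2 * W ^ 5) := by
  have hK := KD_one
  have hK0 : 0 ≤ KD := by linarith
  have W0 : 0 ≤ W := by linarith
  have h1 : KD ^ 0 * W ^ 1 ≤ KD ^ 2 * W ^ 5 :=
    mul_le_mul (pow_le_pow_right₀ hK (by norm_num)) (pow_le_pow_right₀ hW (by norm_num))
      (by positivity) (by positivity)
  have h2 : KD ^ 2 * W ^ 3 ≤ KD ^ 2 * W ^ 5 :=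
    mul_le_mul (pow_le_pow_right₀ hK (by norm_num)) (pow_le_pow_right₀ hW (by norm_num))
      (by positivity) (by positivity)
  have h3 : KD ^ 1 * W ^ 5 ≤ KD ^ 2 * W ^ 5 :=
    mul_le_mul (pow_le_pow_right₀ hK (by norm_num)) (pow_le_pow_right₀ hW (by norm_num))
      (by positivity) (by positivity)
  have e : W + 50000 * KD * W * (10 ^ 5 * (KD * W ^ 2)) + 30000 * KD * (60 * W ^ 5) =
      KD ^ 0 * W ^ 1 + 5000000000 * (KD ^ 2 * W ^ 3) + 1800000 * (KD ^ 1 * W ^ 5) := by ring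
  have h0 : 0 ≤ KD ^ 2 * W ^ 5 := by positivity
  rw [e]; linarith

/-- first step -/
theorem m0 (hW : 1 ≤ W) : KD * W ^ 7 * (W * W + 1) ≤ 100060 * (KD ^ 2 * W ^ 12) := by
  have h1 := mono_le hW 1 9 (by norm_num) (by norm_num)
  have h2 := mono_le hW 1 7 (by norm_num) (by norm_num)
  have e : KD * W ^ 7 * (W * W + 1) = KD ^ 1 * W ^ 9 + KD ^ 1 * W ^ 7 := by ring
  have h0 : 0 ≤ KD ^ 2 * W ^ 12 := mul_nonneg (by positivity) (by positivity)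
  rw [e]; linarith

theorem m2 (hW : 1 ≤ W) : 52 * (W * W ^ 2) + 6 * (1 * W ^ 5) + 1 ≤ 60 * W ^ 5 := by
  have h1 : W ^ 3 ≤ W ^ 5 := pow_le_pow_right₀ hW (by norm_num)
  have h2 : 1 ≤ W ^ 5 := one_le_pow₀ hW
  have e : W * W ^ 2 = W ^ 3 := by ring
  rw [e]; linarith

theorem m3 (hW : 1 ≤ W) : W + 50000 * KD * W * W + 30000 * KD * 1 ≤ 10 ^ 5 * (KD * W ^ 2) := by
  have hK := KD_one
  have hK0 : 0 ≤ KD := by linarith
  have W0 : 0 ≤ W := by linarith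
  have h1 : W ≤ W ^ 2 := by nlinarith
  have h2 : 1 ≤ W ^ 2 := one_le_pow₀ hW
  have h3 : KD * 1 ≤ KD * W ^ 2 := mul_le_mul_of_nonneg_left h2 hK0
  have h4 : 1 * W ^ 2 ≤ KD * W ^ 2 := mul_le_mul_of_nonneg_right hK (by positivity)
  have e : W + 50000 * KD * W * W + 30000 * KD * 1 = W + 50000 * (KD * W ^ 2) + 30000 * KD := by
    ring
  rw [e]; linarith

end num

theorem dbl_near {e : Fin 3 → V3} {c T : Ln4} {w : V3} {z : ℝ} {p : V3}
    (hT : InK e c w z (T.pos z)) (h : ∀ i, |dt (e i) (p - T.pos z)| ≤ w i) :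
    InK e c (dbl3 w) z p := by
  intro i
  have e1 : dt (e i) (p - c.pos z) = dt (e i) (p - T.pos z) + dt (e i) (T.pos z - c.pos z) := by
    simp only [dt, Pi.sub_apply]; ring
  rw [e1]
  change _ ≤ 2 * w i
  have h1 := h i
  have h2 : |dt (e i) (T.pos z - c.pos z)| ≤ w i := hT i
  exact (abs_add_le _ _).trans (by linarith)

theorem dt_via (f p x y : V3) : |dt f (p - y)| ≤ |dt f (p - x)| + |dt f (x - y)| := by
  have e1 : dt f (p - y) = dt f (p - x) + dt f (x - y) := by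
    simp only [dt, Pi.sub_apply]; ring
  rw [e1]
  exact abs_add_le _ _

section leaf
variable {qm qp : Fin 3 → ℝ} {L : ℕ → Ln4} {P : Finset ℕ} {cu cv : ℕ → ℕ} {Uf Vf : ℕ → Plk4}
  {W B M a w1 w2 z0 ρ zL ρL r κ E ε : ℝ} {H : ℕ}

theorem hpVU (h : Cf qm qp L P cu cv Uf Vf W B M a w1 w2 z0 ρ zL ρL r κ E H) {t : ℕ}
    (ht : t ∈ P) : HP W a w1 w2 E z0 ρ r (Vf (cv t)) (Uf (cu t)) (L t) where
  hS := h.two.to1.shV t ht
  hS' := h.two.to1.shU t ht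
  dS := h.dmV t ht
  dS' := h.dmU t ht
  ang := h.ang t ht
  hT := h.two.to1.inV t ht
  hT' := h.two.to1.inU t ht
  cl := (h.up t ht).2
  kE := h.kE' t ht
  kk := h.kVU t ht

theorem hpUV (h : Cf qm qp L P cu cv Uf Vf W B M a w1 w2 z0 ρ zL ρL r κ E H) {t : ℕ}
    (ht : t ∈ P) : HP W a w1 w2 E z0 ρ r (Uf (cu t)) (Vf (cv t)) (L t) where
  hS := h.two.to1.shU t ht
  hS' := h.two.to1.shV t ht
  dS := h.dmU t ht
  dS' := h.dmV t ht
  ang := by rw [Hcp208.angC_comm]; exact h.ang t ht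
  hT := h.two.to1.inU t ht
  hT' := h.two.to1.inV t ht
  cl := (h.up t ht).1
  kE := h.kE t ht
  kk := h.kUV t ht

/-- numbers of the configuration -/
structure Sml (W κ E ε : ℝ) : Prop where
  W1 : 1 ≤ W
  E1 : 1 ≤ E
  κ0 : 0 ≤ κ
  κε : κ ≤ ε
  Eε : 1 ≤ E * ε
  ε0 : 0 < ε
  sm : 10 ^ 15 * (KD ^ 2 * W ^ 12 * ε) ≤ 1
  h6 : 10 ^ 6 * W ^ 2 ≤ E

theorem Sml.a_le (n : Sml W κ E ε) (ha : 0 < a) : a ≤ (E * a) * ε := by
  calc a = 1 * a := by ring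
    _ ≤ (E * ε) * a := mul_le_mul_of_nonneg_right n.Eε ha.le
    _ = _ := by ring

theorem Sml.ε_le (n : Sml W κ E ε) : ε ≤ KD ^ 2 * W ^ 12 * ε :=
  le_mul_of_one_le_left n.ε0.le
    (one_le_mul_of_one_le_of_one_le (one_le_pow₀ KD_one) (one_le_pow₀ n.W1))

/-- thickness against the width -/
theorem Ea_le (h : Cf qm qp L P cu cv Uf Vf W B M a w1 w2 z0 ρ zL ρL r κ E H) {t : ℕ}
    (ht : t ∈ P) : E * a ≤ 13 * W * (Uf (cu t)).w 0 := by
  have h1 := h.kE t ht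
  have h2 : Pl2.kp (Uf (cu t)) z0 ρ (L t) ≤ 13 * (Uf (cu t)).w 0 :=
    kapP_le h.two.to1.r0 h.two.to1.ρ0.le (h.two.to1.shU t ht) (h.two.to1.inU t ht)
  have W0 : 0 ≤ W := by linarith [h.W1]
  have := mul_le_mul_of_nonneg_left h2 W0
  linarith

/-- **last step**: from the sheet `V` at `t` to the sheet `U` and its line `t0` -/
theorem fin_step (h : Cf qm qp L P cu cv Uf Vf W B M a w1 w2 z0 ρ zL ρL r κ E H)
    (n : Sml W κ E ε) {t t0 : ℕ} (ht : t ∈ P) (ht0 : t0 ∈ P) (e : cu t = cu t0) {z : ℝ}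
    (hz : z0 ≤ z) (hz' : z ≤ z0 + ρ) {p : V3}
    (hp : InK (Vf (cv t)).e (Vf (cv t)).c (dbl3 (Vf (cv t)).w) z p)
    (hq : |(Vf (cv t)).q z p| ≤ (10 ^ 5 * (KD * W ^ 2)) * (E * a) * ε)
    (k1 : |dt ((Vf (cv t)).e 1) (p - (L t).pos z)| ≤ (60 * W ^ 5) * ε * (Vf (cv t)).w 1)
    (k2 : |dt ((Vf (cv t)).e 2) (p - (L t).pos z)| ≤ (60 * W ^ 5) * ε * (Vf (cv t)).w 2) :
    (∀ i, |dt ((Uf (cu t0)).e i) (p - (L t0).pos z)| ≤ 1 / 4 * (Uf (cu t0)).w i) ∧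
      |(Uf (cu t0)).q z p| ≤ 10 ^ 10 * (KD ^ 2 * W ^ 5) * (E * a) * ε := by
  have hr := h.two.to1.r0
  have ha := h.two.to1.a0
  have W0 : 0 ≤ W := by linarith [n.W1]
  have hKD := KD_one
  have hX := n.ε_le
  have hsm := n.sm
  have hEa : 0 ≤ E * a := mul_nonneg (by linarith [n.E1]) ha.le
  have hHP := hpVU h ht
  have b0 := n0 n.W1
  have b2 := n2 n.W1
  have b3 := n3 n.W1
  have c0 := mul_le_mul_of_nonneg_right b0 n.ε0.le
  have c2 := mul_le_mul_of_nonneg_right b2 n.ε0.le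
  rw [e] at hHP
  have hw0 : 0 < (Uf (cu t0)).w 0 := hr.trans_le (hHP.hS'.r0_le.trans hHP.hS'.a_le0)
  have hw2 : 0 < (Uf (cu t0)).w 2 := hw0.trans_le hHP.hS'.w0_le
  have hw1 : 0 < (Uf (cu t0)).w 1 := hw2.trans_le hHP.hS'.w_le
  have hWα : W ≤ 10 ^ 5 * (KD * W ^ 2) := by
    have h1 : W ≤ W ^ 2 := by nlinarith [n.W1]
    have h2 : 1 * W ^ 2 ≤ KD * W ^ 2 := mul_le_mul_of_nonneg_right hKD (by positivity)
    linarith
  obtain ⟨g0, g1, g2, g3⟩ := hop hr h.two.to1.ρ0 n.W1 ha h.two.to1.w10 h.two.to1.w20 hHP n.E1 n.ε0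
    n.Eε hWα (by positivity) (by linarith) n.h6 hz hz' hp hq k1 k2
  obtain ⟨t1, t2, t0'⟩ := h.tubU t ht t0 ht0 e z hz hz'
  have hκX : κ ≤ KD ^ 2 * W ^ 12 * ε := n.κε.trans hX
  set X := KD ^ 2 * W ^ 12 * ε with hXdef
  constructor
  · have kX1 : κ * (Uf (cu t0)).w 1 ≤ X * (Uf (cu t0)).w 1 := mul_le_mul_of_nonneg_right hκX hw1.le
    have kX2 : κ * (Uf (cu t0)).w 2 ≤ X * (Uf (cu t0)).w 2 := mul_le_mul_of_nonneg_right hκX hw2.le
    have kX0 : κ * (Uf (cu t0)).w 0 ≤ X * (Uf (cu t0)).w 0 := mul_le_mul_of_nonneg_right hκX hw0.le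
    have sX : ∀ w : ℝ, 0 ≤ w → 10 ^ 15 * (X * w) ≤ w := by
      intro w hw
      have := mul_le_mul_of_nonneg_right hsm hw
      linarith
    have aa : (Uf (cu t0)).a ≤ 13 * (X * (Uf (cu t0)).w 0) := by
      have h1 := Ea_le h ht0
      have h2 : (Uf (cu t0)).a ≤ W * a := (h.dmU t0 ht0).1.2
      have h3 := n.a_le ha
      have h4 : W ^ 2 * ε ≤ X := by
        have := mono_le n.W1 0 2 (by norm_num) (by norm_num)
        rw [pow_zero, one_mul] at this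
        exact mul_le_mul_of_nonneg_right this n.ε0.le
      calc (Uf (cu t0)).a ≤ W * a := h2
        _ ≤ W * ((E * a) * ε) := mul_le_mul_of_nonneg_left h3 W0
        _ = W * ε * (E * a) := by ring
        _ ≤ W * ε * (13 * W * (Uf (cu t0)).w 0) :=
            mul_le_mul_of_nonneg_left h1 (mul_nonneg W0 n.ε0.le)
        _ = 13 * ((W ^ 2 * ε) * (Uf (cu t0)).w 0) := by ring
        _ ≤ 13 * (X * (Uf (cu t0)).w 0) := by gcongr
    intro i
    have via := dt_via ((Uf (cu t0)).e i) p ((L t).pos z) ((L t0).pos z)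
    refine via.trans ?_
    fin_cases i
    · have s0 := sX _ hw0.le
      have d0 : 4 * 10 ^ 7 * (KD * W ^ 7 * (10 ^ 5 * (KD * W ^ 2) * W + 60 * W ^ 5)) * ε *
          (Uf (cu t0)).w 0 ≤ 4 * 10 ^ 7 * 100060 * (X * (Uf (cu t0)).w 0) := by
        have := mul_le_mul_of_nonneg_right c0 hw0.le
        calc _ = 4 * 10 ^ 7 * (KD * W ^ 7 * (10 ^ 5 * (KD * W ^ 2) * W + 60 * W ^ 5) * ε *
              (Uf (cu t0)).w 0) := by ring
          _ ≤ 4 * 10 ^ 7 * (100060 * (KD ^ 2 * W ^ 12) * ε * (Uf (cu t0)).w 0) := by linarith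
          _ = _ := by rw [hXdef]; ring
      have hX0 : 0 ≤ X * (Uf (cu t0)).w 0 := by
        have : 0 ≤ X := n.ε0.le.trans hX
        positivity
      show |dt ((Uf (cu t0)).e 0) (p - (L t).pos z)| +
        |dt ((Uf (cu t0)).e 0) ((L t).pos z - (L t0).pos z)| ≤ 1 / 4 * (Uf (cu t0)).w 0
      linarith
    · have s0 := sX _ hw1.le
      have d0 : (52 * (10 ^ 5 * (KD * W ^ 2) * W ^ 2) + 6 * (60 * W ^ 5 * W ^ 5)) * ε *
          (Uf (cu t0)).w 1 ≤ 5200360 * (X * (Uf (cu t0)).w 1) := by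
        have := mul_le_mul_of_nonneg_right c2 hw1.le
        refine this.trans (le_of_eq ?_)
        rw [hXdef]; ring
      have hX0 : 0 ≤ X * (Uf (cu t0)).w 1 := by
        have : 0 ≤ X := n.ε0.le.trans hX
        positivity
      show |dt ((Uf (cu t0)).e 1) (p - (L t).pos z)| +
        |dt ((Uf (cu t0)).e 1) ((L t).pos z - (L t0).pos z)| ≤ 1 / 4 * (Uf (cu t0)).w 1
      linarith
    · have s0 := sX _ hw2.le
      have d0 : (52 * (10 ^ 5 * (KD * W ^ 2) * W ^ 2) + 6 * (60 * W ^ 5 * W ^ 5)) * ε *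
          (Uf (cu t0)).w 2 ≤ 5200360 * (X * (Uf (cu t0)).w 2) := by
        have := mul_le_mul_of_nonneg_right c2 hw2.le
        refine this.trans (le_of_eq ?_)
        rw [hXdef]; ring
      have hX0 : 0 ≤ X * (Uf (cu t0)).w 2 := by
        have : 0 ≤ X := n.ε0.le.trans hX
        positivity
      show |dt ((Uf (cu t0)).e 2) (p - (L t).pos z)| +
        |dt ((Uf (cu t0)).e 2) ((L t).pos z - (L t0).pos z)| ≤ 1 / 4 * (Uf (cu t0)).w 2
      linarith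
  · refine g3.trans ?_
    have := mul_le_mul_of_nonneg_right (mul_le_mul_of_nonneg_right b3 hEa) n.ε0.le
    exact this

end leaf

end Crest.Agent.R136.Hul412
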