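import Crest.Agent.R136.Hul4_412

/-!
# R136 (S0187), PLAN 2 (AL) (B): `LeafHull` (helper412)
-/

set_option autoImplicit false
set_option linter.unusedVariables false

open Finset

namespace Crest.Agent.R136.Hul412

open Crest.Agent.R136.Sh605
open Crest.Agent.R136.Tl102
open Crest.Agent.R136.K4 (Plk4)
open Crest.Agent.R136.Tlt51 (Shp InP)
open Crest.Agent.R136.Adj214 (KD KD_pos KD_one)
open Crest.Agent.R136.Phc248 (ph ph_ge_one ph_mono)
open Crest.Agent.R136.Rf877 (Tub)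
open Crest.Agent.R136.Al500 (Dm Cl2 Cf LeafHull)
open Crest.Agent.R136.Hc792 (thick_cover)
open Crest.Agent.R136.Fh792 (card_met' card_met2')

section leaf
variable {qm qp : Fin 3 → ℝ} {L : ℕ → Ln4} {P : Finset ℕ} {cu cv : ℕ → ℕ} {Uf Vf : ℕ → Plk4}
  {W B M a w1 w2 z0 ρ zL ρL r κ E ε : ℝ} {H : ℕ}

/-- lines `s` of the sheet `V` of `t`: in the state of `fin_step` -/
theorem reach1 (h : Cf qm qp L P cu cv Uf Vf W B M a w1 w2 z0 ρ zL ρL r κ E H)
    (n : Sml W κ E ε) {t t0 s : ℕ} (ht : t ∈ P) (ht0 : t0 ∈ P) (hs : s ∈ P) (e : cu t = cu t0)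
    (e1 : cv s = cv t) {z : ℝ} (hz : z0 ≤ z) (hz' : z ≤ z0 + ρ) :
    (∀ i, |dt ((Uf (cu t0)).e i) ((L s).pos z - (L t0).pos z)| ≤ 1 / 4 * (Uf (cu t0)).w i) ∧
      |(Uf (cu t0)).q z ((L s).pos z)| ≤ 10 ^ 10 * (KD ^ 2 * W ^ 5) * (E * a) * ε := by
  have hr := h.two.to1.r0
  have ha := h.two.to1.a0
  have W0 : 0 ≤ W := by linarith [n.W1]
  have hKD := KD_one
  have hV := h.two.to1.inV s hs
  rw [e1] at hV
  have hSV := h.two.to1.shV t ht
  have hw0 : 0 < (Vf (cv t)).w 0 := hr.trans_le (hSV.r0_le.trans hSV.a_le0)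
  have hw2 : 0 < (Vf (cv t)).w 2 := hw0.trans_le hSV.w0_le
  have hw1 : 0 < (Vf (cv t)).w 1 := hw2.trans_le hSV.w_le
  obtain ⟨t1, t2, -⟩ := h.tubV s hs t ht e1 z hz hz'
  have hκ : κ ≤ (60 * W ^ 5) * ε := by
    have h1 : 1 ≤ 60 * W ^ 5 := by
      have := one_le_pow₀ n.W1 (n := 5)
      linarith
    exact n.κε.trans (le_mul_of_one_le_left n.ε0.le h1)
  refine fin_step h n ht ht0 e hz hz' ?_ ?_ (t1.trans (mul_le_mul_of_nonneg_right hκ hw1.le))
    (t2.trans (mul_le_mul_of_nonneg_right hκ hw2.le))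
  · intro i
    have h1 := (hV z hz hz').1 i
    have h2 : 0 ≤ (Vf (cv t)).w i := by
      fin_cases i
      · exact hw0.le
      · exact hw1.le
      · exact hw2.le
    change _ ≤ 2 * (Vf (cv t)).w i
    linarith
  · have h2 : (Vf (cv t)).a ≤ W * a := (h.dmV t ht).1.2
    have h3 := n.a_le ha
    have hWα : W ≤ 10 ^ 5 * (KD * W ^ 2) := by
      have h1 : W ≤ W ^ 2 := by nlinarith [n.W1]
      have h2 : 1 * W ^ 2 ≤ KD * W ^ 2 := mul_le_mul_of_nonneg_right hKD (by positivity)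
      linarith
    calc _ ≤ (Vf (cv t)).a := (hV z hz hz').2
      _ ≤ W * a := h2
      _ ≤ (10 ^ 5 * (KD * W ^ 2)) * ((E * a) * ε) := mul_le_mul hWα h3 ha.le (by positivity)
      _ = _ := by ring

/-- lines `s` of the sheet `U` of `t'`, `t'` in the sheet `V` of `t` -/
theorem reach2 (h : Cf qm qp L P cu cv Uf Vf W B M a w1 w2 z0 ρ zL ρL r κ E H)
    (n : Sml W κ E ε) {t t' t0 s : ℕ} (ht : t ∈ P) (ht' : t' ∈ P) (ht0 : t0 ∈ P) (hs : s ∈ P)
    (e : cu t = cu t0) (ev : cv t' = cv t) (e1 : cu s = cu t') {z : ℝ} (hz : z0 ≤ z)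
    (hz' : z ≤ z0 + ρ) :
    (∀ i, |dt ((Uf (cu t0)).e i) ((L s).pos z - (L t0).pos z)| ≤ 1 / 4 * (Uf (cu t0)).w i) ∧
      |(Uf (cu t0)).q z ((L s).pos z)| ≤ 10 ^ 10 * (KD ^ 2 * W ^ 5) * (E * a) * ε := by
  have hr := h.two.to1.r0
  have ha := h.two.to1.a0
  have W0 : 0 ≤ W := by linarith [n.W1]
  have hKD := KD_one
  have hEa : 0 ≤ E * a := mul_nonneg (by linarith [n.E1]) ha.le
  have hX := n.ε_le
  have hsm := n.sm
  have hU := h.two.to1.inU s hs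
  rw [e1] at hU
  have hSU := h.two.to1.shU t' ht'
  have hu0 : 0 < (Uf (cu t')).w 0 := hr.trans_le (hSU.r0_le.trans hSU.a_le0)
  have hu2 : 0 < (Uf (cu t')).w 2 := hu0.trans_le hSU.w0_le
  have hu1 : 0 < (Uf (cu t')).w 1 := hu2.trans_le hSU.w_le
  have hHP := hpUV h ht'
  rw [ev] at hHP
  have hSV := hHP.hS'
  have hw0 : 0 < (Vf (cv t)).w 0 := hr.trans_le (hSV.r0_le.trans hSV.a_le0)
  have hw2 : 0 < (Vf (cv t)).w 2 := hw0.trans_le hSV.w0_le
  have hw1 : 0 < (Vf (cv t)).w 1 := hw2.trans_le hSV.w_le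
  obtain ⟨t1, t2, -⟩ := h.tubU s hs t' ht' e1 z hz hz'
  obtain ⟨v1, v2, -⟩ := h.tubV t' ht' t ht ev z hz hz'
  have hκ1 : κ ≤ 1 * ε := by rw [one_mul]; exact n.κε
  have b0 := m0 n.W1
  have b2 := m2 n.W1
  have b3 := m3 n.W1
  have c0 := mul_le_mul_of_nonneg_right b0 n.ε0.le
  obtain ⟨g0, g1, g2, g3⟩ := hop hr h.two.to1.ρ0 n.W1 ha h.two.to1.w10 h.two.to1.w20 hHP n.E1 n.ε0
    n.Eε le_rfl zero_le_one (by linarith) n.h6 hz hz' (p := (L s).pos z) (by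
      intro i
      have h1 := (hU z hz hz').1 i
      have h2 : 0 ≤ (Uf (cu t')).w i := by
        fin_cases i
        · exact hu0.le
        · exact hu1.le
        · exact hu2.le
      change _ ≤ 2 * (Uf (cu t')).w i
      linarith) (by
      have h2 : (Uf (cu t')).a ≤ W * a := (h.dmU t' ht').1.2
      have h3 := n.a_le ha
      calc _ ≤ (Uf (cu t')).a := (hU z hz hz').2
        _ ≤ W * a := h2
        _ ≤ W * ((E * a) * ε) := mul_le_mul_of_nonneg_left h3 W0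
        _ = _ := by ring)
    (t1.trans (mul_le_mul_of_nonneg_right hκ1 hu1.le))
    (t2.trans (mul_le_mul_of_nonneg_right hκ1 hu2.le))
  have hε1 : (60 * W ^ 5) * ε ≤ 1 := by
    have h1 := mono_le n.W1 0 5 (by norm_num) (by norm_num)
    rw [pow_zero, one_mul] at h1
    have h2 := mul_le_mul_of_nonneg_right h1 n.ε0.le
    linarith
  have d2 : (52 * (W * W ^ 2) + 6 * (1 * W ^ 5)) * ε + κ ≤ (60 * W ^ 5) * ε := by
    have := mul_le_mul_of_nonneg_right b2 n.ε0.le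
    linarith [n.κε]
  have s0 : 4 * 10 ^ 7 * (KD * W ^ 7 * (W * W + 1)) * ε ≤ 1 := by linarith
  refine fin_step h n ht ht0 e hz hz' ?_ ?_ ?_ ?_
  · refine dbl_near ((hHP.hT' z hz hz').1) ?_
    have hκ0 := n.κ0
    intro i
    fin_cases i
    · refine g0.trans ?_
      calc _ ≤ 1 * (Vf (cv t)).w 0 := mul_le_mul_of_nonneg_right s0 hw0.le
        _ = _ := one_mul _
    · refine g1.trans ?_
      calc _ ≤ 1 * (Vf (cv t)).w 1 := mul_le_mul_of_nonneg_right (by linarith) hw1.le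
        _ = _ := one_mul _
    · refine g2.trans ?_
      calc _ ≤ 1 * (Vf (cv t)).w 2 := mul_le_mul_of_nonneg_right (by linarith) hw2.le
        _ = _ := one_mul _
  · refine g3.trans ?_
    exact mul_le_mul_of_nonneg_right (mul_le_mul_of_nonneg_right b3 hEa) n.ε0.le
  · refine (dt_via _ _ ((L t').pos z) _).trans ((add_le_add g1 v1).trans ?_)
    have := mul_le_mul_of_nonneg_right d2 hw1.le
    linarith
  · refine (dt_via _ _ ((L t').pos z) _).trans ((add_le_add g2 v2).trans ?_)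
    have := mul_le_mul_of_nonneg_right d2 hw2.le
    linarith

/-- exponent of the covering -/
noncomputable def Nx (qp : Fin 3 → ℝ) : ℝ :=
  13 + 6 * (22 + qp 0 + qp 1 + qp 2) + 2 * (1 + qp 0) + 3 * (1 + qp 2)

/-- **lines reached** -/
theorem q_card (h : Cf qm qp L P cu cv Uf Vf W B M a w1 w2 z0 ρ zL ρL r κ E H)
    (n : Sml W κ E ε) {t0 : ℕ} (ht0 : t0 ∈ P) {Q : Finset ℕ} (hQ : Q ⊆ P)
    (hQ' : ∀ s ∈ Q, ∀ z, z0 ≤ z → z ≤ z0 + ρ →
      (∀ i, |dt ((Uf (cu t0)).e i) ((L s).pos z - (L t0).pos z)| ≤ 1 / 4 * (Uf (cu t0)).w i) ∧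
        |(Uf (cu t0)).q z ((L s).pos z)| ≤ 10 ^ 10 * (KD ^ 2 * W ^ 5) * (E * a) * ε) :
    (Q.card : ℝ) ≤ ((64 * B) ^ Nx qp * E ^ (1 + qp 0)) * M := by
  have ha := h.two.to1.a0
  have hM := h.two.to1.M0
  have hB := h.two.to1.W1
  have W0 : 0 ≤ W := by linarith [n.W1]
  have hKD := KD_one
  have hEa : 0 ≤ E * a := mul_nonneg (by linarith [n.E1]) ha.le
  have hsm := n.sm
  have hS := h.two.to1.shU t0 ht0
  have hw0 : 0 < (Uf (cu t0)).w 0 := h.two.to1.r0.trans_le (hS.r0_le.trans hS.a_le0)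
  have h3 := n.a_le ha
  have p5 : 1 ≤ KD ^ 2 * W ^ 4 := one_le_mul_of_one_le_of_one_le (one_le_pow₀ hKD) (one_le_pow₀ n.W1)
  have hb : (Uf (cu t0)).a ≤ 10 ^ 10 * (KD ^ 2 * W ^ 5) * (E * a) * ε := by
    have hWα : W ≤ 10 ^ 10 * (KD ^ 2 * W ^ 5) := by
      have : W * 1 ≤ W * (KD ^ 2 * W ^ 4) := mul_le_mul_of_nonneg_left p5 W0
      have e : W * (KD ^ 2 * W ^ 4) = KD ^ 2 * W ^ 5 := by ring
      linarith
    calc (Uf (cu t0)).a ≤ W * a := (h.dmU t0 ht0).1.2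
      _ ≤ (10 ^ 10 * (KD ^ 2 * W ^ 5)) * ((E * a) * ε) := mul_le_mul hWα h3 ha.le (by positivity)
      _ = _ := by ring
  have hb2 : 10 ^ 10 * (KD ^ 2 * W ^ 5) * (E * a) * ε ≤ (Uf (cu t0)).w 0 := by
    have h1 := Ea_le h ht0
    have h4 := mono_le n.W1 2 6 le_rfl (by norm_num)
    have h5 := mul_le_mul_of_nonneg_right h4 n.ε0.le
    have h6 : 10 ^ 10 * 13 * (KD ^ 2 * W ^ 6 * ε) ≤ 1 := by linarith
    calc 10 ^ 10 * (KD ^ 2 * W ^ 5) * (E * a) * ε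
        = 10 ^ 10 * (KD ^ 2 * W ^ 5) * ε * (E * a) := by ring
      _ ≤ 10 ^ 10 * (KD ^ 2 * W ^ 5) * ε * (13 * W * (Uf (cu t0)).w 0) := by
          have : 0 ≤ 10 ^ 10 * (KD ^ 2 * W ^ 5) * ε := by have := n.ε0; positivity
          exact mul_le_mul_of_nonneg_left h1 this
      _ = (10 ^ 10 * 13 * (KD ^ 2 * W ^ 6 * ε)) * (Uf (cu t0)).w 0 := by ring
      _ ≤ 1 * (Uf (cu t0)).w 0 := mul_le_mul_of_nonneg_right h6 hw0.le
      _ = _ := one_mul _
  have hbE : 10 ^ 10 * (KD ^ 2 * W ^ 5) * (E * a) * ε / a ≤ E := by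
    rw [div_le_iff₀ ha]
    have h4 := mono_le n.W1 2 5 le_rfl (by norm_num)
    have h5 := mul_le_mul_of_nonneg_right h4 n.ε0.le
    have h6 : 10 ^ 10 * (KD ^ 2 * W ^ 5 * ε) ≤ 1 := by linarith
    calc 10 ^ 10 * (KD ^ 2 * W ^ 5) * (E * a) * ε
        = (10 ^ 10 * (KD ^ 2 * W ^ 5 * ε)) * (E * a) := by ring
      _ ≤ 1 * (E * a) := mul_le_mul_of_nonneg_right h6 hEa
      _ = _ := one_mul _
  have main := thick_cover h.two.to1 h.two.rρ h.qq n.W1 h.WB hS (h.dmU t0 ht0)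
    (h.two.to1.inU t0 ht0) (lam := 1 / 4) le_rfl hb hb2 hQ hQ'
  have hph : ph (qm 0) (qp 0) (10 ^ 10 * (KD ^ 2 * W ^ 5) * (E * a) * ε / a) ≤ E ^ (1 + qp 0) := by
    have hb0 : 0 ≤ 10 ^ 10 * (KD ^ 2 * W ^ 5) * (E * a) * ε / a := by
      have := n.ε0
      positivity
    rw [← ph_ge_one (h.qq 0).2 n.E1]
    exact ph_mono (h.qq 0).1 ((h.qq 0).1.trans (h.qq 0).2) hb0 hbE
  refine main.trans ?_
  have h0 : 0 ≤ (64 * B) ^ Nx qp * M := by
    have : 0 ≤ (64 * B) ^ Nx qp := Real.rpow_nonneg (by linarith) _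
    positivity
  calc (64 * B) ^ Nx qp * M * ph (qm 0) (qp 0) (10 ^ 10 * (KD ^ 2 * W ^ 5) * (E * a) * ε / a)
      ≤ (64 * B) ^ Nx qp * M * E ^ (1 + qp 0) := mul_le_mul_of_nonneg_left hph h0
    _ = _ := by ring

end leaf

/-- numbers -/
theorem sml_of {C W B κ E : ℝ} {H : ℕ} (hC : 4 * 10 ^ 15 * KD ^ 2 ≤ C) (hC2 : 100 ≤ C)
    (hW : 1 ≤ W) (hWB : W ≤ B) (hκ : C * W ^ C * κ ≤ 1) (κ0 : 0 < κ) (hH : (C * B) ^ C ≤ H)
    (hHE : (H : ℝ) ≤ 2 * E) (E1 : 1 ≤ E) : Sml W κ E (1 / E + κ) := by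
  have hE0 : 0 < E := by linarith
  have W0 : 0 < W := by linarith
  have hKD : 1 ≤ KD ^ 2 := one_le_pow₀ KD_one
  have hC0 : 0 < C := by linarith
  have w12 : W ^ 12 ≤ W ^ C := by
    rw [← Real.rpow_natCast W 12]
    exact Real.rpow_le_rpow_of_exponent_le hW (by norm_num; linarith)
  have hW12 : 0 < W ^ 12 := by positivity
  -- κ
  have a1 : 10 ^ 15 * (KD ^ 2 * W ^ 12 * κ) ≤ 1 / 4 := by
    have h1 : 4 * 10 ^ 15 * KD ^ 2 * W ^ 12 * κ ≤ C * W ^ C * κ :=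
      mul_le_mul_of_nonneg_right (mul_le_mul hC w12 hW12.le hC0.le) κ0.le
    linarith
  -- E
  have a2 : C * W ^ 12 ≤ 2 * E := by
    refine le_trans ?_ (hH.trans hHE)
    have hCB : 1 ≤ C * B := by nlinarith
    have h1 : (C * B) ^ 13 ≤ (C * B) ^ C := by
      rw [← Real.rpow_natCast (C * B) 13]
      exact Real.rpow_le_rpow_of_exponent_le hCB (by norm_num; linarith)
    refine le_trans ?_ h1
    have h2 : W ≤ C * B := by nlinarith
    have h3 : C ≤ C * B := by nlinarith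
    calc C * W ^ 12 ≤ (C * B) * (C * B) ^ 12 := by gcongr
      _ = _ := by ring
  have a3 : 10 ^ 15 * (KD ^ 2 * W ^ 12 * (1 / E)) ≤ 1 / 2 := by
    have h1 : 4 * 10 ^ 15 * KD ^ 2 * W ^ 12 ≤ 2 * E :=
      (mul_le_mul_of_nonneg_right hC hW12.le).trans a2
    have e : 10 ^ 15 * (KD ^ 2 * W ^ 12 * (1 / E)) = 10 ^ 15 * KD ^ 2 * W ^ 12 / E := by
      field_simp
    rw [e, div_le_iff₀ hE0]
    linarith
  have hE1 : 0 < 1 / E := by positivity
  refine ⟨hW, E1, κ0.le, by linarith, ?_, by linarith, ?_, ?_⟩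
  · have : E * (1 / E + κ) = 1 + E * κ := by field_simp
    rw [this]
    have : 0 ≤ E * κ := by positivity
    linarith
  · have e : 10 ^ 15 * (KD ^ 2 * W ^ 12 * (1 / E + κ)) =
        10 ^ 15 * (KD ^ 2 * W ^ 12 * (1 / E)) + 10 ^ 15 * (KD ^ 2 * W ^ 12 * κ) := by ring
    rw [e]; linarith
  · have h1 : W ^ 2 ≤ W ^ 12 := pow_le_pow_right₀ hW (by norm_num)
    have h2 : 4 * 10 ^ 15 * KD ^ 2 * W ^ 12 ≤ 2 * E :=
      (mul_le_mul_of_nonneg_right hC hW12.le).trans a2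
    have h3 : 1 * W ^ 12 ≤ KD ^ 2 * W ^ 12 := mul_le_mul_of_nonneg_right hKD hW12.le
    have h4 : 0 < W ^ 2 := by positivity
    linarith

theorem num_fin {C B N E p : ℝ} (hN : 0 ≤ N) (hB : 1 ≤ B) (hC : 64 + N + 1 ≤ C) (hE : 1 ≤ E) :
    B * ((64 * B) ^ N * E ^ p) ≤ (C * B) ^ C * E ^ p := by
  have h1 : 0 ≤ E ^ p := Real.rpow_nonneg (by linarith) _
  have hB0 : 0 < 64 * B := by linarith
  have h2 : B * (64 * B) ^ N ≤ (C * B) ^ C := by
    calc B * (64 * B) ^ N ≤ (64 * B) * (64 * B) ^ N :=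
          mul_le_mul_of_nonneg_right (by linarith) (Real.rpow_nonneg hB0.le _)
      _ = (64 * B) ^ (1 + N) := by rw [Real.rpow_add hB0, Real.rpow_one]
      _ ≤ (C * B) ^ (1 + N) :=
          Real.rpow_le_rpow hB0.le (mul_le_mul_of_nonneg_right (by linarith) (by linarith))
            (by linarith)
      _ ≤ (C * B) ^ C := Real.rpow_le_rpow_of_exponent_le (by nlinarith) (by linarith)
  calc B * ((64 * B) ^ N * E ^ p) = (B * (64 * B) ^ N) * E ^ p := by ring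
    _ ≤ _ := mul_le_mul_of_nonneg_right h2 h1

open Classical in
/-- **the leaf** -/
theorem leafHull : LeafHull := by
  intro qm qp hqq
  have q0 := fun k => (hqq k).1.trans (hqq k).2
  have hN : 0 ≤ Nx qp := by
    unfold Nx
    linarith [q0 0, q0 1, q0 2]
  have hKD2 : 1 ≤ KD ^ 2 := one_le_pow₀ KD_one
  refine ⟨4 * 10 ^ 15 * KD ^ 2 + 100 + Nx qp, by linarith, ?_⟩
  intro L P cu cv Uf Vf W B M a w1 w2 z0 ρ zL ρL r κ E H h hκ hH
  set C := 4 * 10 ^ 15 * KD ^ 2 + 100 + Nx qp with hC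
  have n : Sml W κ E (1 / E + κ) := sml_of (C := C) (by linarith) (by linarith) h.W1 h.WB hκ h.κ0
    hH h.HE h.E1
  have hB : 1 ≤ B := h.two.to1.W1
  have hB0 : 0 < B := by linarith
  have hnum := num_fin (C := C) (B := B) (N := Nx qp) (E := E) (p := 1 + qp 0) hN hB
    (by linarith) h.E1
  have hpos : 0 ≤ (C * B) ^ C * E ^ (1 + qp 0) := by
    have h1 : 0 ≤ (C * B) ^ C := Real.rpow_nonneg (mul_nonneg (by linarith) hB0.le) _
    have h2 : 0 ≤ E ^ (1 + qp 0) := Real.rpow_nonneg (by linarith [h.E1]) _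
    exact mul_nonneg h1 h2
  constructor
  · intro c
    by_cases hc : ∃ t0 ∈ P, cu t0 = c
    · obtain ⟨t0, ht0, rfl⟩ := hc
      set Q := P.filter fun s => ∃ t ∈ P, cu t = cu t0 ∧ cv s = cv t with hQdef
      have hQ := q_card h n ht0 (Q := Q) (Finset.filter_subset _ _) (by
        intro s hs z hz hz'
        obtain ⟨hs1, t, ht, e1, e2⟩ := Finset.mem_filter.1 hs
        exact reach1 h n ht ht0 hs1 e1 e2 hz hz')
      refine le_trans (card_met' (u := cu) (v := cv) (c := cu t0) hB0 h.two.to1.M0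
        h.two.to1.fullV (Q := Q) ?_ hQ) hnum
      intro t ht e1 s hs e2
      exact Finset.mem_filter.2 ⟨hs, t, ht, e1, e2⟩
    · have : (P.filter fun t => cu t = c) = ∅ := by
        rw [Finset.filter_eq_empty_iff]
        intro t ht e
        exact hc ⟨t, ht, e⟩
      rw [this, Finset.image_empty, Finset.card_empty, Nat.cast_zero]
      exact hpos
  · intro c T hT
    by_cases hc : ∃ t0 ∈ P, cu t0 = c
    · obtain ⟨t0, ht0, rfl⟩ := hc
      set Q := P.filter fun s => ∃ t ∈ P, ∃ t' ∈ P, cu t = cu t0 ∧ cv t' = cv t ∧ cu s = cu t'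
        with hQdef
      have hQ := q_card h n ht0 (Q := Q) (Finset.filter_subset _ _) (by
        intro s hs z hz hz'
        obtain ⟨hs1, t, ht, t', ht', e1, e2, e3⟩ := Finset.mem_filter.1 hs
        exact reach2 h n ht ht' ht0 hs1 e1 e2 e3 hz hz')
      refine le_trans (card_met2' (u := cu) (v := cv) (c := cu t0) hB0 h.two.to1.M0
        h.two.to1.fullU hT (Q := Q) ?_ hQ) hnum
      intro t ht e1 t' ht' e2 s hs e3
      exact Finset.mem_filter.2 ⟨hs, t, ht, t', ht', e1, e2, e3⟩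
    · have : T = ∅ := by
        rw [Finset.eq_empty_iff_forall_notMem]
        intro c1 hc1
        obtain ⟨t, ht, t', ht', e1, -, -⟩ := hT c1 hc1
        exact hc ⟨t, ht, e1⟩
      rw [this, Finset.card_empty, Nat.cast_zero]
      exact hpos

end Crest.Agent.R136.Hul412
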