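import Crest.Agent.R136.Pl7a_186

/-!
# R136 (S0187), g-free tilt (PLAN 2), leaf (L7): D-max of sub-boxes of a CURVED sheet (helper186)

`S = ShN e c w Q a z0 ρ r`, `T0` a line of `S`.

* `normal_le` : two lines of `S` differ by `≤ 4 a + 2 (w 0 / w 1) |A| + 2 (w 0 / w 2) |B|` in the
  direction `e 0`;
* `shN_sub`, `shN_sub'` : the box of half-widths `x` around `T0` is a sheet of the class (axes in the
  order of `S`, resp. swapped);
* `tube_count` : lines of `S` within `x` of `T0` in the direction `e 1`;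
* `sub_count` : lines of `S` within `s1 w 1`, `s2 w 2` of `T0` in the directions `e 1`, `e 2`.
-/

set_option autoImplicit false
set_option linter.unusedVariables false
set_option linter.unusedSectionVars false

namespace Crest.Agent.R136.Pl7186

open Finset
open Crest.Agent.R136.Sh605
open Crest.Agent.R136.HR829 (crs dt_nonneg cs cs1 parseval)

section

variable {e : Fin 3 → V3} {c : Ln4} {w : V3} {Q : ℝ → V3 → ℝ} {a z0 ρ r : ℝ}

/-- variation of `Q` along an axis, both signs -/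
theorem step_le {f : V3} {Λ z : ℝ} {K : V3 → Prop}
    (h : ∀ (x : V3) (τ : ℝ), 0 ≤ τ → K x → K (x + τ • f) → |Q z (x + τ • f) - Q z x| ≤ Λ * τ)
    (x : V3) (τ : ℝ) (h1 : K x) (h2 : K (x + τ • f)) :
    |Q z (x + τ • f) - Q z x| ≤ Λ * |τ| := by
  rcases le_total 0 τ with h0 | h0
  · rw [abs_of_nonneg h0]; exact h x τ h0 h1 h2
  · rw [abs_of_nonpos h0]
    have e1 : x + τ • f + (-τ) • f = x := by
      funext i; simp only [Pi.add_apply, Pi.smul_apply, smul_eq_mul]; ring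
    have := h (x + τ • f) (-τ) (by linarith) h2 (by rw [e1]; exact h1)
    rw [e1, abs_sub_comm] at this
    exact this

/-- `Q` is monotone along the steep axis -/
theorem steep_le {f : V3} {z : ℝ} {K : V3 → Prop}
    (h : ∀ (x : V3) (τ : ℝ), 0 ≤ τ → K x → K (x + τ • f) → τ / 2 ≤ Q z (x + τ • f) - Q z x)
    (x : V3) (τ : ℝ) (h1 : K x) (h2 : K (x + τ • f)) :
    |τ| / 2 ≤ |Q z (x + τ • f) - Q z x| := by
  rcases le_total 0 τ with h0 | h0
  · rw [abs_of_nonneg h0]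
    exact (h x τ h0 h1 h2).trans (le_abs_self _)
  · rw [abs_of_nonpos h0]
    have e1 : x + τ • f + (-τ) • f = x := by
      funext i; simp only [Pi.add_apply, Pi.smul_apply, smul_eq_mul]; ring
    have := h (x + τ • f) (-τ) (by linarith) h2 (by rw [e1]; exact h1)
    rw [e1] at this
    rw [abs_sub_comm]
    exact this.trans (le_abs_self _)

theorem ortho_dt {e : Fin 3 → V3} (he : Ortho e) (i j : Fin 3) :
    dt (e i) (e j) = if i = j then 1 else 0 := he i j

/-- **normal distance of two lines of a sheet** -/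
theorem normal_le (S : ShN e c w Q a z0 ρ r) (ha : 0 < a) {T T0 : Ln4}
    (hT : InSheet T e c w Q a z0 ρ) (hT0 : InSheet T0 e c w Q a z0 ρ) {z : ℝ} (hz : z0 ≤ z)
    (hz' : z ≤ z0 + ρ) :
    |dt (e 0) (T.pos z - T0.pos z)| ≤ 4 * a + 2 * (w 0 / w 1 * |dt (e 1) (T.pos z - T0.pos z)|) +
      2 * (w 0 / w 2 * |dt (e 2) (T.pos z - T0.pos z)|) := by
  have he := S.ortho
  have g00 : dt (e 0) (e 0) = 1 := by simpa using he 0 0
  have g11 : dt (e 1) (e 1) = 1 := by simpa using he 1 1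
  have g22 : dt (e 2) (e 2) = 1 := by simpa using he 2 2
  have g01 : dt (e 0) (e 1) = 0 := by simpa using he 0 1
  have g02 : dt (e 0) (e 2) = 0 := by simpa using he 0 2
  have g10 : dt (e 1) (e 0) = 0 := by simpa using he 1 0
  have g12 : dt (e 1) (e 2) = 0 := by simpa using he 1 2
  have g20 : dt (e 2) (e 0) = 0 := by simpa using he 2 0
  have g21 : dt (e 2) (e 1) = 0 := by simpa using he 2 1
  obtain ⟨hk, hq⟩ := hT z hz hz'
  obtain ⟨hk0, hq0⟩ := hT0 z hz hz'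
  set x := T0.pos z with hx
  set y := T.pos z with hy
  set τ0 := dt (e 0) (y - x) with hτ0
  set τ1 := dt (e 1) (y - x) with hτ1
  set τ2 := dt (e 2) (y - x) with hτ2
  have hw : ∀ i, 0 ≤ w i := fun i => (abs_nonneg _).trans (hk i)
  have hyx : x + τ1 • e 1 + τ2 • e 2 + τ0 • e 0 = y := by
    funext j
    have h1 := he.expand (y - x) j
    rw [← hτ0, ← hτ1, ← hτ2] at h1
    simp only [Pi.add_apply, Pi.smul_apply, smul_eq_mul, Pi.sub_apply] at h1 ⊢
    linarith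
  have hsub : ∀ i, dt (e i) (y - x) = dt (e i) (y - c.pos z) - dt (e i) (x - c.pos z) := fun i => by
    simp only [dt_sub]; ring
  have hd : ∀ i, w i ≤ dbl3 w i := fun i => by
    have := hw i
    simp only [dbl3]; linarith
  -- the four points are in the box
  have k0 : InK e c (dbl3 w) z x := fun i => (hk0 i).trans (hd i)
  have k1 : InK e c (dbl3 w) z (x + τ1 • e 1) := by
    intro i
    have e1 : dt (e i) (x + τ1 • e 1 - c.pos z) = dt (e i) (x - c.pos z) + τ1 * dt (e i) (e 1) := by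
      simp only [dt_sub, dt_add, dt_smul]; ring
    rw [e1]
    fin_cases i
    · simp only [Fin.zero_eta, g01, mul_zero, add_zero]; exact (hk0 0).trans (hd 0)
    · simp only [Fin.mk_one, g11, mul_one]
      rw [hτ1, hsub]
      have : dt (e 1) (x - c.pos z) + (dt (e 1) (y - c.pos z) - dt (e 1) (x - c.pos z)) =
        dt (e 1) (y - c.pos z) := by ring
      rw [this]; exact (hk 1).trans (hd 1)
    · simp only [Fin.reduceFinMk, g21, mul_zero, add_zero]; exact (hk0 2).trans (hd 2)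
  have k2 : InK e c (dbl3 w) z (x + τ1 • e 1 + τ2 • e 2) := by
    intro i
    have e1 : dt (e i) (x + τ1 • e 1 + τ2 • e 2 - c.pos z) =
        dt (e i) (x - c.pos z) + τ1 * dt (e i) (e 1) + τ2 * dt (e i) (e 2) := by
      simp only [dt_sub, dt_add, dt_smul]; ring
    rw [e1]
    fin_cases i
    · simp only [Fin.zero_eta, g01, g02, mul_zero, add_zero]; exact (hk0 0).trans (hd 0)
    · simp only [Fin.mk_one, g11, g12, mul_one, mul_zero, add_zero]
      rw [hτ1, hsub]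
      have : dt (e 1) (x - c.pos z) + (dt (e 1) (y - c.pos z) - dt (e 1) (x - c.pos z)) =
        dt (e 1) (y - c.pos z) := by ring
      rw [this]; exact (hk 1).trans (hd 1)
    · simp only [Fin.reduceFinMk, g21, g22, mul_zero, mul_one, add_zero]
      rw [hτ2, hsub]
      have : dt (e 2) (x - c.pos z) + (dt (e 2) (y - c.pos z) - dt (e 2) (x - c.pos z)) =
        dt (e 2) (y - c.pos z) := by ring
      rw [this]; exact (hk 2).trans (hd 2)
  have k3 : InK e c (dbl3 w) z (x + τ1 • e 1 + τ2 • e 2 + τ0 • e 0) := by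
    rw [hyx]; exact fun i => (hk i).trans (hd i)
  have s1 := step_le (K := InK e c (dbl3 w) z) (S.sl1 z hz hz') x τ1 k0 k1
  have s2 := step_le (K := InK e c (dbl3 w) z) (S.sl2 z hz hz') (x + τ1 • e 1) τ2 k1 k2
  have s0 := steep_le (K := InK e c (dbl3 w) z)
    (fun x τ h1 h2 h3 => (S.st0 z hz hz' x τ h1 h2 h3).1) (x + τ1 • e 1 + τ2 • e 2) τ0 k2 k3
  rw [hyx] at s0
  have t1 := abs_le.1 s1
  have t2 := abs_le.1 s2
  have t3 := abs_le.1 hq
  have t4 := abs_le.1 hq0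
  have s5 : |Q z y - Q z (x + τ1 • e 1 + τ2 • e 2)| ≤
      2 * a + w 0 / w 1 * |τ1| + w 0 / w 2 * |τ2| := by
    rw [abs_le]
    constructor <;> linarith [t1.1, t1.2, t2.1, t2.2, t3.1, t3.2, t4.1, t4.2]
  linarith

/-- the box of half-widths `x` around `T0` is in the doubled box of `S` -/
theorem box_sub (S : ShN e c w Q a z0 ρ r) {T0 : Ln4} (hT0 : InSheet T0 e c w Q a z0 ρ)
    {x : V3} (hx : ∀ i, 2 * x i ≤ w i) {z : ℝ} (hz : z0 ≤ z) (hz' : z ≤ z0 + ρ) {y : V3}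
    (hy : ∀ i, |dt (e i) (y - T0.pos z)| ≤ 2 * x i) : InK e c (dbl3 w) z y := by
  intro i
  have h1 := (hT0 z hz hz').1 i
  have e1 : dt (e i) (y - c.pos z) = dt (e i) (y - T0.pos z) + dt (e i) (T0.pos z - c.pos z) := by
    simp only [dt_sub]; ring
  rw [e1]
  refine (abs_add_le _ _).trans ?_
  have h2 := hy i
  have h3 := hx i
  simp only [dbl3]
  linarith

/-- **sub-box around `T0`**, axes in the order of `S` -/
theorem shN_sub (S : ShN e c w Q a z0 ρ r) {T0 : Ln4} (hT0 : InSheet T0 e c w Q a z0 ρ)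
    {x0 x1 x2 : ℝ} (hx0 : 2 * x0 ≤ w 0) (hx1 : 2 * x1 ≤ w 1) (hx2 : 2 * x2 ≤ w 2) (ha : 0 < a)
    (h0 : a ≤ x0) (h02 : x0 ≤ x2) (h21 : x2 ≤ x1) (hs1 : w 0 * x1 ≤ x0 * w 1)
    (hs2 : w 0 * x2 ≤ x0 * w 2) : ShN e T0 ![x0, x1, x2] Q a z0 ρ r := by
  have p0 : 0 < x0 := ha.trans_le h0
  have p2 : 0 < x2 := p0.trans_le h02
  have p1 : 0 < x1 := p2.trans_le h21
  have w1 : 0 < w 1 := by linarith
  have w2 : 0 < w 2 := by linarith
  have hx : ∀ i, 2 * (![x0, x1, x2] : V3) i ≤ w i := by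
    intro i
    fin_cases i
    · exact hx0
    · exact hx1
    · exact hx2
  have hsub : ∀ z, z0 ≤ z → z ≤ z0 + ρ → ∀ y, InK e T0 (dbl3 ![x0, x1, x2]) z y →
      InK e c (dbl3 w) z y := fun z hz hz' y hy => box_sub S hT0 hx hz hz' (fun i => hy i)
  refine ⟨S.ortho, S.isQ, h0, h02, h21, S.r0_le, ?_, ?_, ?_⟩
  · intro z hz hz' x τ hτ k1 k2
    exact S.st0 z hz hz' x τ hτ (hsub z hz hz' _ k1) (hsub z hz hz' _ k2)
  · intro z hz hz' x τ hτ k1 k2
    refine (S.sl1 z hz hz' x τ hτ (hsub z hz hz' _ k1) (hsub z hz hz' _ k2)).trans ?_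
    refine mul_le_mul_of_nonneg_right ?_ hτ
    change w 0 / w 1 ≤ x0 / x1
    rw [div_le_div_iff₀ w1 p1]; exact hs1
  · intro z hz hz' x τ hτ k1 k2
    refine (S.sl2 z hz hz' x τ hτ (hsub z hz hz' _ k1) (hsub z hz hz' _ k2)).trans ?_
    refine mul_le_mul_of_nonneg_right ?_ hτ
    change w 0 / w 2 ≤ x0 / x2
    rw [div_le_div_iff₀ w2 p2]; exact hs2

/-- swapped frame -/
theorem ortho_swap (he : Ortho e) : Ortho ![e 0, e 2, e 1] := by
  have g00 : dt (e 0) (e 0) = 1 := by simpa using he 0 0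
  have g11 : dt (e 1) (e 1) = 1 := by simpa using he 1 1
  have g22 : dt (e 2) (e 2) = 1 := by simpa using he 2 2
  have g01 : dt (e 0) (e 1) = 0 := by simpa using he 0 1
  have g02 : dt (e 0) (e 2) = 0 := by simpa using he 0 2
  have g10 : dt (e 1) (e 0) = 0 := by simpa using he 1 0
  have g12 : dt (e 1) (e 2) = 0 := by simpa using he 1 2
  have g20 : dt (e 2) (e 0) = 0 := by simpa using he 2 0
  have g21 : dt (e 2) (e 1) = 0 := by simpa using he 2 1
  intro i j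
  fin_cases i <;> fin_cases j <;> simp [g00, g11, g22, g01, g02, g10, g12, g20, g21]

/-- **sub-box around `T0`**, axes swapped: `e 2` is the wide direction -/
theorem shN_sub' (S : ShN e c w Q a z0 ρ r) {T0 : Ln4} (hT0 : InSheet T0 e c w Q a z0 ρ)
    {x0 x1 x2 : ℝ} (hx0 : 2 * x0 ≤ w 0) (hx1 : 2 * x1 ≤ w 1) (hx2 : 2 * x2 ≤ w 2) (ha : 0 < a)
    (h0 : a ≤ x0) (h01 : x0 ≤ x1) (h12 : x1 ≤ x2) (hs1 : w 0 * x1 ≤ x0 * w 1)
    (hs2 : w 0 * x2 ≤ x0 * w 2) : ShN ![e 0, e 2, e 1] T0 ![x0, x2, x1] Q a z0 ρ r := by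
  have p0 : 0 < x0 := ha.trans_le h0
  have p1 : 0 < x1 := p0.trans_le h01
  have p2 : 0 < x2 := p1.trans_le h12
  have w1 : 0 < w 1 := by linarith
  have w2 : 0 < w 2 := by linarith
  have hx : ∀ i, 2 * (![x0, x1, x2] : V3) i ≤ w i := by
    intro i
    fin_cases i
    · exact hx0
    · exact hx1
    · exact hx2
  have hsub : ∀ z, z0 ≤ z → z ≤ z0 + ρ → ∀ y, InK ![e 0, e 2, e 1] T0 (dbl3 ![x0, x2, x1]) z y →
      InK e c (dbl3 w) z y := fun z hz hz' y hy => box_sub S hT0 hx hz hz' (fun i => by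
        fin_cases i
        · exact hy 0
        · exact hy 2
        · exact hy 1)
  refine ⟨ortho_swap S.ortho, S.isQ, h0, h01, h12, S.r0_le, ?_, ?_, ?_⟩
  · intro z hz hz' x τ hτ k1 k2
    exact S.st0 z hz hz' x τ hτ (hsub z hz hz' _ k1) (hsub z hz hz' _ k2)
  · intro z hz hz' x τ hτ k1 k2
    refine (S.sl2 z hz hz' x τ hτ (hsub z hz hz' _ k1) (hsub z hz hz' _ k2)).trans ?_
    refine mul_le_mul_of_nonneg_right ?_ hτ
    change w 0 / w 2 ≤ x0 / x2
    rw [div_le_div_iff₀ w2 p2]; exact hs2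
  · intro z hz hz' x τ hτ k1 k2
    refine (S.sl1 z hz hz' x τ hτ (hsub z hz hz' _ k1) (hsub z hz hz' _ k2)).trans ?_
    refine mul_le_mul_of_nonneg_right ?_ hτ
    change w 0 / w 1 ≤ x0 / x1
    rw [div_le_div_iff₀ w1 p1]; exact hs1

/-! ### tubes -/

/-- centre of the narrowed box: wide coordinate of `T`, the others of `c` -/
def ctT (e : Fin 3 → V3) (c T : Ln4) : Ln4 where
  p := fun i => c.p i + dt (e 1) (T.p - c.p) * e 1 i
  v := fun i => c.v i + dt (e 1) (T.v - c.v) * e 1 i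

theorem ctT_pos (e : Fin 3 → V3) (c T : Ln4) (z : ℝ) :
    (ctT e c T).pos z = c.pos z + dt (e 1) (T.pos z - c.pos z) • e 1 := by
  funext i
  simp only [ctT, Ln4.pos, dt, Pi.add_apply, Pi.sub_apply, Pi.smul_apply, smul_eq_mul]; ring

theorem ctT_dt (he : Ortho e) (c T : Ln4) (z : ℝ) (x : V3) :
    dt (e 0) (x - (ctT e c T).pos z) = dt (e 0) (x - c.pos z) ∧
    dt (e 1) (x - (ctT e c T).pos z) = dt (e 1) (x - T.pos z) ∧
    dt (e 2) (x - (ctT e c T).pos z) = dt (e 2) (x - c.pos z) := by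
  have g11 : dt (e 1) (e 1) = 1 := by simpa using he 1 1
  have g01 : dt (e 0) (e 1) = 0 := by simpa using he 0 1
  have g21 : dt (e 2) (e 1) = 0 := by simpa using he 2 1
  have cpos : ∀ (i : Fin 3), dt (e i) (x - (ctT e c T).pos z) =
      dt (e i) (x - c.pos z) - dt (e 1) (T.pos z - c.pos z) * dt (e i) (e 1) := by
    intro i
    rw [ctT_pos]
    simp only [dt_sub, dt_add, dt_smul]; ring
  refine ⟨?_, ?_, ?_⟩
  · rw [cpos, g01, mul_zero, sub_zero]
  · rw [cpos, g11, mul_one, ← dt_sub]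
    congr 1
    abel
  · rw [cpos, g21, mul_zero, sub_zero]

/-- **tube in a sheet**: same frame, `q`, thickness, `w 0`, `w 2`; wide half-width `x` -/
theorem shN_tube (S : ShN e c w Q a z0 ρ r) {T0 : Ln4} (hT0 : InSheet T0 e c w Q a z0 ρ)
    {x : ℝ} (hx : 2 * x ≤ w 1) (hx2 : w 2 ≤ x) (ha : 0 < a) :
    ShN e (ctT e c T0) ![w 0, x, w 2] Q a z0 ρ r := by
  have hw0 : 0 < w 0 := ha.trans_le S.a_le0
  have hw2 : 0 < w 2 := hw0.trans_le S.w0_le
  have p1 : 0 < x := hw2.trans_le hx2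
  have hbox : ∀ z, z0 ≤ z → z ≤ z0 + ρ → ∀ y,
      InK e (ctT e c T0) (dbl3 ![w 0, x, w 2]) z y → InK e c (dbl3 w) z y := by
    intro z hz hz' y hy i
    obtain ⟨d0, d1, d2⟩ := ctT_dt S.ortho c T0 z y
    fin_cases i
    · have := hy 0
      rw [d0] at this; exact this
    · have h1 := hy 1
      rw [d1] at h1
      change |dt (e 1) (y - T0.pos z)| ≤ 2 * x at h1
      have h2 := (hT0 z hz hz').1 1
      have e1 : dt (e 1) (y - c.pos z) = dt (e 1) (y - T0.pos z) + dt (e 1) (T0.pos z - c.pos z) := by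
        simp only [dt_sub]; ring
      change |dt (e 1) (y - c.pos z)| ≤ 2 * w 1
      rw [e1]
      refine (abs_add_le _ _).trans ?_
      linarith
    · have := hy 2
      rw [d2] at this; exact this
  refine ⟨S.ortho, S.isQ, S.a_le0, S.w0_le, hx2, S.r0_le, ?_, ?_, ?_⟩
  · intro z hz hz' x τ hτ k1 k2
    exact S.st0 z hz hz' x τ hτ (hbox z hz hz' _ k1) (hbox z hz hz' _ k2)
  · intro z hz hz' y τ hτ k1 k2
    refine (S.sl1 z hz hz' y τ hτ (hbox z hz hz' _ k1) (hbox z hz hz' _ k2)).trans ?_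
    refine mul_le_mul_of_nonneg_right ?_ hτ
    change w 0 / w 1 ≤ w 0 / x
    exact div_le_div_of_nonneg_left hw0.le p1 (by linarith)
  · intro z hz hz' x τ hτ k1 k2
    exact S.sl2 z hz hz' x τ hτ (hbox z hz hz' _ k1) (hbox z hz hz' _ k2)

variable {ι : Type*} {P : Finset ι} {L : ι → Ln4} {Rg : ℝ → ℝ → ℝ → Prop}
  {cap : ℝ → ℝ → ℝ → ℝ}

open Classical in
/-- **tube count** (any sheet): lines of `S` within `x` of `T0` in the wide direction -/
theorem tube_count (hd : DMx P L z0 ρ r Rg cap) (S : ShN e c w Q a z0 ρ r) {T0 : Ln4}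
    (hT0 : InSheet T0 e c w Q a z0 ρ) {x : ℝ} (hx : 2 * x ≤ w 1) (hx2 : w 2 ≤ x) (ha : 0 < a)
    (hR : Rg a x (w 2)) (F : Finset ι) (hF : F ⊆ P)
    (hb : ∀ t ∈ F, InSheet (L t) e c w Q a z0 ρ ∧ ∀ z, z0 ≤ z → z ≤ z0 + ρ →
      |dt (e 1) ((L t).pos z - T0.pos z)| ≤ x) :
    (F.card : ℝ) ≤ cap a x (w 2) := by
  have h3 := hd _ _ _ _ _ (shN_tube S hT0 hx hx2 ha) hR
  refine le_trans ?_ h3
  have h4 : F ⊆ P.filter fun t => InSheet (L t) e (ctT e c T0) ![w 0, x, w 2] Q a z0 ρ := by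
    intro t ht
    rw [mem_filter]
    refine ⟨hF ht, fun z hz hz' => ?_⟩
    obtain ⟨h5, h6⟩ := hb t ht
    obtain ⟨hk, hq⟩ := h5 z hz hz'
    obtain ⟨d0, d1, d2⟩ := ctT_dt S.ortho c T0 z ((L t).pos z)
    refine ⟨fun i => ?_, hq⟩
    fin_cases i
    · change |dt (e 0) ((L t).pos z - (ctT e c T0).pos z)| ≤ w 0
      rw [d0]; exact hk 0
    · change |dt (e 1) ((L t).pos z - (ctT e c T0).pos z)| ≤ x
      rw [d1]; exact h6 z hz hz'
    · change |dt (e 2) ((L t).pos z - (ctT e c T0).pos z)| ≤ w 2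
      rw [d2]; exact hk 2
  exact_mod_cast card_le_card h4

open Classical in
/-- **sub-box count** (curved sheet, same frame): lines of `S` within `x1`, `x2` of `T0` in the base
directions; order of `x1, x2` free (`max`, `min`), `w0 x1 / w1`, `w0 x2 / w2`, `a` at most the narrow
side -/
theorem sub_count (hd : DMx P L z0 ρ r Rg cap) (S : ShN e c w Q a z0 ρ r) {T0 : Ln4}
    (hT0 : InSheet T0 e c w Q a z0 ρ) {x1 x2 : ℝ} (ha : 0 < a) (h1 : 0 < x1) (h2 : 0 < x2)
    {m : ℝ} (hm1 : w 0 * x1 ≤ m * w 1) (hm2 : w 0 * x2 ≤ m * w 2) (ham : a ≤ m)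
    (hmn : m ≤ min x1 x2) (hw0 : 16 * m ≤ w 0) (hw1 : 16 * x1 ≤ w 1) (hw2 : 16 * x2 ≤ w 2)
    (hR : Rg a (8 * max x1 x2) (8 * min x1 x2)) (F : Finset ι) (hF : F ⊆ P)
    (hb : ∀ t ∈ F, InSheet (L t) e c w Q a z0 ρ ∧ ∀ z, z0 ≤ z → z ≤ z0 + ρ →
      |dt (e 1) ((L t).pos z - T0.pos z)| ≤ x1 ∧ |dt (e 2) ((L t).pos z - T0.pos z)| ≤ x2) :
    (F.card : ℝ) ≤ cap a (8 * max x1 x2) (8 * min x1 x2) := by
  have hm0 : 0 < m := ha.trans_le ham
  have hmx1 : m ≤ x1 := hmn.trans (min_le_left _ _)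
  have hmx2 : m ≤ x2 := hmn.trans (min_le_right _ _)
  have p0 : 0 < w 0 := by linarith
  have p1 : 0 < w 1 := by linarith
  have p2 : 0 < w 2 := by linarith
  have hn : ∀ t ∈ F, ∀ z, z0 ≤ z → z ≤ z0 + ρ →
      |dt (e 0) ((L t).pos z - T0.pos z)| ≤ 8 * m := by
    intro t ht z hz hz'
    obtain ⟨h5, h6⟩ := hb t ht
    obtain ⟨b1, b2⟩ := h6 z hz hz'
    have h7 := normal_le S ha h5 hT0 hz hz'
    have g1 : w 0 / w 1 * |dt (e 1) ((L t).pos z - T0.pos z)| ≤ m := by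
      calc w 0 / w 1 * |dt (e 1) ((L t).pos z - T0.pos z)| ≤ w 0 / w 1 * x1 := by gcongr
        _ = w 0 * x1 / w 1 := by ring
        _ ≤ m := by rw [div_le_iff₀ p1]; exact hm1
    have g2 : w 0 / w 2 * |dt (e 2) ((L t).pos z - T0.pos z)| ≤ m := by
      calc w 0 / w 2 * |dt (e 2) ((L t).pos z - T0.pos z)| ≤ w 0 / w 2 * x2 := by gcongr
        _ = w 0 * x2 / w 2 := by ring
        _ ≤ m := by rw [div_le_iff₀ p2]; exact hm2
    linarith
  have i1 : w 0 * (8 * x1) ≤ 8 * m * w 1 := by linarith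
  have i2 : w 0 * (8 * x2) ≤ 8 * m * w 2 := by linarith
  rcases le_total x2 x1 with h21 | h12
  · rw [max_eq_left h21, min_eq_right h21] at hR ⊢
    have h3 := hd _ _ _ _ _ (shN_sub S hT0 (x0 := 8 * m) (x1 := 8 * x1) (x2 := 8 * x2)
      (by linarith) (by linarith) (by linarith) ha (by linarith) (by linarith) (by linarith)
      i1 i2) hR
    refine le_trans ?_ h3
    have h4 : F ⊆ P.filter fun t => InSheet (L t) e T0 ![8 * m, 8 * x1, 8 * x2] Q a z0 ρ := by
      intro t ht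
      rw [mem_filter]
      refine ⟨hF ht, fun z hz hz' => ?_⟩
      obtain ⟨h5, h6⟩ := hb t ht
      obtain ⟨b1, b2⟩ := h6 z hz hz'
      refine ⟨fun i => ?_, (h5 z hz hz').2⟩
      fin_cases i
      · exact hn t ht z hz hz'
      · change |dt (e 1) ((L t).pos z - T0.pos z)| ≤ 8 * x1
        linarith
      · change |dt (e 2) ((L t).pos z - T0.pos z)| ≤ 8 * x2
        linarith
    exact_mod_cast card_le_card h4
  · rw [max_eq_right h12, min_eq_left h12] at hR ⊢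
    have h3 := hd _ _ _ _ _ (shN_sub' S hT0 (x0 := 8 * m) (x1 := 8 * x1) (x2 := 8 * x2)
      (by linarith) (by linarith) (by linarith) ha (by linarith) (by linarith) (by linarith)
      i1 i2) hR
    refine le_trans ?_ h3
    have h4 : F ⊆ P.filter fun t =>
        InSheet (L t) ![e 0, e 2, e 1] T0 ![8 * m, 8 * x2, 8 * x1] Q a z0 ρ := by
      intro t ht
      rw [mem_filter]
      refine ⟨hF ht, fun z hz hz' => ?_⟩
      obtain ⟨h5, h6⟩ := hb t ht
      obtain ⟨b1, b2⟩ := h6 z hz hz'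
      refine ⟨fun i => ?_, (h5 z hz hz').2⟩
      fin_cases i
      · exact hn t ht z hz hz'
      · change |dt (e 2) ((L t).pos z - T0.pos z)| ≤ 8 * x2
        linarith
      · change |dt (e 1) ((L t).pos z - T0.pos z)| ≤ 8 * x1
        linarith
    exact_mod_cast card_le_card h4

end

end Crest.Agent.R136.Pl7186
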