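import Crest.Agent.R136.Sa7_214

/-!
# R136 (one-level crude tilt, Step A), helper214: sheets which are thin in two directions
It also serves the angle lemma (A) of 705: `strip_ShN`, `in_strip` (test sheets narrowed in the
direction `e 1` only).
-/

set_option autoImplicit false

namespace Crest.Agent.R136.Sa705

open Finset Crest.Agent.R136.Sh605 Crest.Agent.R136.Tl102 Crest.Agent.R136.Crd705

/-- a quadratic function along an affine path -/
theorem isQ_path {q : ℝ → V3 → ℝ} (hq : IsQ q) (z u : ℝ) (x y : V3) : ∃ α β γ : ℝ, ∀ s : ℝ,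
    q (z + s * u) (x + s • y) = α + β * s + γ * s ^ 2 := by
  obtain ⟨c0, c1, c2, b, d, g, h⟩ := hq
  refine ⟨c0 + c1 * z + c2 * z ^ 2 + ∑ i, (b i + d i * z) * x i + ∑ i, ∑ j, g i j * (x i * x j),
    c1 * u + 2 * c2 * z * u + ∑ i, ((b i + d i * z) * y i + d i * u * x i) +
      ∑ i, ∑ j, g i j * (x i * y j + y i * x j),
    c2 * u ^ 2 + ∑ i, d i * u * y i + ∑ i, ∑ j, g i j * (y i * y j), fun s => ?_⟩
  rw [h]
  simp only [Fin.sum_univ_three, Pi.add_apply, Pi.smul_apply, smul_eq_mul]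
  ring

/-- extrapolation of a quadratic polynomial -/
theorem quad_ext {α β γ l s : ℝ} (h0 : |α| ≤ l) (h1 : |α + β + γ| ≤ l) (h2 : |α - β + γ| ≤ l)
    (hs : 1 ≤ s) : |α + β * s + γ * s ^ 2| ≤ 4 * s ^ 2 * l := by
  have hl : 0 ≤ l := (abs_nonneg _).trans h0
  have hβ : |β| ≤ l := by
    rw [abs_le] at h1 h2 ⊢; constructor <;> linarith [h1.1, h1.2, h2.1, h2.2]
  have hγ : |γ| ≤ 2 * l := by
    rw [abs_le] at h0 h1 h2 ⊢; constructor <;> linarith [h0.1, h0.2, h1.1, h1.2, h2.1, h2.2]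
  have e1 : |β * s| ≤ l * s := by
    rw [abs_mul, abs_of_pos (by linarith : 0 < s)]
    exact mul_le_mul_of_nonneg_right hβ (by linarith)
  have e2 : |γ * s ^ 2| ≤ 2 * l * s ^ 2 := by
    rw [abs_mul, abs_of_pos (by positivity : 0 < s ^ 2)]
    exact mul_le_mul_of_nonneg_right hγ (by positivity)
  have e3 := abs_add_le (α + β * s) (γ * s ^ 2)
  have e4 := abs_add_le α (β * s)
  have hs2 : s ≤ s ^ 2 := by nlinarith
  have hs3 : 1 ≤ s ^ 2 := one_le_pow₀ hs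
  have e5 : l * s ≤ l * s ^ 2 := mul_le_mul_of_nonneg_left hs2 hl
  have e6 : l * 1 ≤ l * s ^ 2 := mul_le_mul_of_nonneg_left hs3 hl
  linarith

/-- **extrapolation around a line** -/
theorem ext_cube {e : Fin 3 → V3} {q₂ : ℝ → V3 → ℝ} (hq₂ : IsQ q₂) {z r l R K : ℝ} {P : V3}
    (hK : 1 ≤ K) (hR : R ≤ K * r)
    (h : ∀ y : V3, (∀ i, |dt (e i) y| ≤ r) → |q₂ z (P + y)| ≤ l) {y : V3}
    (hy : ∀ i, |dt (e i) y| ≤ R) : |q₂ z (P + y)| ≤ 4 * K ^ 2 * l := by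
  obtain ⟨α, β, γ, hs⟩ := isQ_path hq₂ z 0 P (K⁻¹ • y)
  simp only [mul_zero, add_zero] at hs
  have hK0 : 0 < K := by linarith
  have hsm : ∀ t : ℝ, |t| ≤ 1 → ∀ i, |dt (e i) (t • (K⁻¹ • y))| ≤ r := by
    intro t ht i
    rw [dt_smul, dt_smul, abs_mul, abs_mul, abs_of_pos (inv_pos.2 hK0)]
    have h1 : K⁻¹ * |dt (e i) y| ≤ r := by
      rw [inv_mul_le_iff₀ hK0]; exact (hy i).trans hR
    calc |t| * (K⁻¹ * |dt (e i) y|) ≤ 1 * r := mul_le_mul ht h1 (by positivity) (by norm_num)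
      _ = r := one_mul r
  have h0 := h ((0 : ℝ) • (K⁻¹ • y)) (hsm 0 (by norm_num))
  have h1 := h ((1 : ℝ) • (K⁻¹ • y)) (hsm 1 (by norm_num))
  have h2 := h ((-1 : ℝ) • (K⁻¹ • y)) (hsm (-1) (by norm_num))
  rw [hs] at h0 h1 h2
  have h3 := quad_ext (α := α) (β := β) (γ := γ) (l := l) (s := K) (by simpa using h0)
    (by simpa using h1) (by
      have e : α + β * -1 + γ * (-1) ^ 2 = α - β + γ := by ring
      rwa [e] at h2) hK
  have h4 : P + y = P + K • (K⁻¹ • y) := by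
    rw [smul_smul, mul_inv_cancel₀ hK0.ne', one_smul]
  rw [h4, hs]
  exact h3

/-- the centre line of a strip -/
def ctr (e : Fin 3 → V3) (c U : Ln4) : Ln4 where
  p := c.p + dt (e 1) (U.p - c.p) • e 1
  v := c.v + dt (e 1) (U.v - c.v) • e 1

theorem ctr_pos (e : Fin 3 → V3) (c U : Ln4) (z : ℝ) :
    (ctr e c U).pos z = c.pos z + dt (e 1) (U.pos z - c.pos z) • e 1 := by
  funext i
  simp only [ctr, Ln4.pos, dt, Pi.add_apply, Pi.sub_apply, Pi.smul_apply, smul_eq_mul]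
  ring

/-- half-widths of a strip -/
def wst (w : V3) (G : ℝ) : V3 := ![w 0, G * w 1, w 2]

theorem ctr_dt {e : Fin 3 → V3} (he : Ortho e) (c U : Ln4) (z : ℝ) (x : V3) (i : Fin 3) :
    dt (e i) (x - (ctr e c U).pos z) =
      dt (e i) (x - c.pos z) - (if i = 1 then dt (e 1) (U.pos z - c.pos z) else 0) := by
  rw [ctr_pos]
  have h1 : x - (c.pos z + dt (e 1) (U.pos z - c.pos z) • e 1) =
      (x - c.pos z) + (-(dt (e 1) (U.pos z - c.pos z))) • e 1 := by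
    funext j; simp only [Pi.sub_apply, Pi.add_apply, Pi.smul_apply, smul_eq_mul]; ring
  rw [h1, dt_add, dt_smul, he i 1]
  split_ifs <;> ring

/-- strips are sheets of the class -/
theorem strip_ShN {e : Fin 3 → V3} {c : Ln4} {w : V3} {q : ℝ → V3 → ℝ} {a z0 ρ r0 : ℝ}
    (S : ShN e c w q a z0 ρ r0) (ha : 0 < a) {U : Ln4} (hU : InSheet U e c w q a z0 ρ) {G : ℝ}
    (hG : 0 < G) (hG2 : 2 * G ≤ 1) (hw2 : w 2 ≤ G * w 1) :
    ShN e (ctr e c U) (wst w G) q a z0 ρ r0 := by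
  have hw0 : 0 < w 0 := ha.trans_le S.a_le0
  have hw2' : 0 < w 2 := hw0.trans_le S.w0_le
  have hw1 : 0 < w 1 := hw2'.trans_le S.w_le
  have sub : ∀ z, z0 ≤ z → z ≤ z0 + ρ → ∀ x, InK e (ctr e c U) (dbl3 (wst w G)) z x →
      InK e c (dbl3 w) z x := by
    intro z h1 h2 x hx i
    have g1 := hx i
    rw [ctr_dt S.ortho] at g1
    have g2 := (hU z h1 h2).1 1
    fin_cases i
    · simpa [dbl3, wst] using g1
    · simp only [dbl3, wst, Fin.mk_one, if_true, Matrix.cons_val] at g1 ⊢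
      have g3 : 2 * (G * w 1) ≤ w 1 := by nlinarith
      rw [abs_le] at g1 g2 ⊢
      constructor <;> linarith [g1.1, g1.2, g2.1, g2.2]
    · simpa [dbl3, wst] using g1
  have hq : w 0 / w 1 ≤ w 0 / (G * w 1) := by
    apply div_le_div_of_nonneg_left hw0.le (by positivity)
    nlinarith
  refine ⟨S.ortho, S.isQ, S.a_le0, S.w0_le, hw2, S.r0_le, ?_, ?_, ?_⟩
  · intro z h1 h2 x τ hτ g1 g2
    exact S.st0 z h1 h2 x τ hτ (sub z h1 h2 _ g1) (sub z h1 h2 _ g2)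
  · intro z h1 h2 x τ hτ g1 g2
    refine (S.sl1 z h1 h2 x τ hτ (sub z h1 h2 _ g1) (sub z h1 h2 _ g2)).trans ?_
    exact mul_le_mul_of_nonneg_right hq hτ
  · intro z h1 h2 x τ hτ g1 g2
    exact S.sl2 z h1 h2 x τ hτ (sub z h1 h2 _ g1) (sub z h1 h2 _ g2)

/-- lines of the sheet near `U` in the direction `e 1` lie in the strip -/
theorem in_strip {e : Fin 3 → V3} {c : Ln4} {w : V3} {q : ℝ → V3 → ℝ} {a z0 ρ : ℝ}
    (he : Ortho e) {U L : Ln4} (hL : InSheet L e c w q a z0 ρ) {G : ℝ}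
    (h : ∀ z, z0 ≤ z → z ≤ z0 + ρ → |dt (e 1) (L.pos z - U.pos z)| ≤ G * w 1) :
    InSheet L e (ctr e c U) (wst w G) q a z0 ρ := by
  intro z h1 h2
  refine ⟨fun i => ?_, (hL z h1 h2).2⟩
  have g1 := (hL z h1 h2).1 i
  rw [ctr_dt he]
  fin_cases i
  · simpa [wst] using g1
  · have g2 := h z h1 h2
    have e1 : dt (e 1) (L.pos z - U.pos z) =
        dt (e 1) (L.pos z - c.pos z) - dt (e 1) (U.pos z - c.pos z) := by
      simp only [dt, Pi.sub_apply]; ring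
    rw [e1] at g2
    simpa [wst] using g2
  · simpa [wst] using g1

/-- Lagrange interpolation of a quadratic polynomial -/
theorem lagr3 {α β γ x1 x2 x3 x l δ : ℝ} (hδ : 0 < δ) (h12 : δ ≤ |x1 - x2|) (h13 : δ ≤ |x1 - x3|)
    (h23 : δ ≤ |x2 - x3|) (h1 : |α + β * x1 + γ * x1 ^ 2| ≤ l)
    (h2 : |α + β * x2 + γ * x2 ^ 2| ≤ l) (h3 : |α + β * x3 + γ * x3 ^ 2| ≤ l)
    (d1 : |x - x1| ≤ 1) (d2 : |x - x2| ≤ 1) (d3 : |x - x3| ≤ 1) :
    |α + β * x + γ * x ^ 2| ≤ 3 * l / δ ^ 2 := by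
  have n12 : x1 - x2 ≠ 0 := by intro h; rw [h, abs_zero] at h12; linarith
  have n13 : x1 - x3 ≠ 0 := by intro h; rw [h, abs_zero] at h13; linarith
  have n23 : x2 - x3 ≠ 0 := by intro h; rw [h, abs_zero] at h23; linarith
  have n21 : x2 - x1 ≠ 0 := by intro h; apply n12; linarith
  have n31 : x3 - x1 ≠ 0 := by intro h; apply n13; linarith
  have n32 : x3 - x2 ≠ 0 := by intro h; apply n23; linarith
  have hl : 0 ≤ l := (abs_nonneg _).trans h1
  have e : α + β * x + γ * x ^ 2 =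
      (α + β * x1 + γ * x1 ^ 2) * ((x - x2) * (x - x3)) / ((x1 - x2) * (x1 - x3)) +
      (α + β * x2 + γ * x2 ^ 2) * ((x - x1) * (x - x3)) / ((x2 - x1) * (x2 - x3)) +
      (α + β * x3 + γ * x3 ^ 2) * ((x - x1) * (x - x2)) / ((x3 - x1) * (x3 - x2)) := by
    field_simp
    ring
  have key : ∀ {f u v p r : ℝ}, |f| ≤ l → |u| ≤ 1 → |v| ≤ 1 → δ ≤ |p| → δ ≤ |r| →
      |f * (u * v) / (p * r)| ≤ l / δ ^ 2 := by
    intro f u v p r hf hu hv hp hr
    rw [abs_div, abs_mul, abs_mul, abs_mul]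
    have h4 : δ ^ 2 ≤ |p| * |r| := by
      rw [sq]; exact mul_le_mul hp hr hδ.le (by linarith)
    have h5 : |f| * (|u| * |v|) ≤ l := by
      have : |u| * |v| ≤ 1 := by
        calc |u| * |v| ≤ 1 * 1 := mul_le_mul hu hv (abs_nonneg _) (by norm_num)
          _ = 1 := one_mul 1
      calc |f| * (|u| * |v|) ≤ l * 1 := mul_le_mul hf this (by positivity) hl
        _ = l := mul_one l
    exact div_le_div₀ hl h5 (by positivity) h4
  have h21 : δ ≤ |x2 - x1| := by rw [abs_sub_comm]; exact h12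
  have h31 : δ ≤ |x3 - x1| := by rw [abs_sub_comm]; exact h13
  have h32 : δ ≤ |x3 - x2| := by rw [abs_sub_comm]; exact h23
  have k1 := key h1 d2 d3 h12 h13
  have k2 := key h2 d1 d3 h21 h23
  have k3 := key h3 d1 d2 h31 h32
  rw [e]
  refine (abs_add_le _ _).trans ((add_le_add (abs_add_le _ _) le_rfl).trans ?_)
  have : 3 * l / δ ^ 2 = l / δ ^ 2 + l / δ ^ 2 + l / δ ^ 2 := by ring
  linarith

/-- a set of reals without three separated points is covered by two intervals -/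
theorem two_cover {E : Set ℝ} {δ : ℝ} (h : ∀ x1 ∈ E, ∀ x2 ∈ E, ∀ x3 ∈ E, δ ≤ |x1 - x2| →
    δ ≤ |x1 - x3| → δ ≤ |x2 - x3| → False) :
    ∃ s : Fin 2 → ℝ, ∀ x ∈ E, ∃ i, |x - s i| ≤ δ := by
  by_cases h1 : ∃ x1 ∈ E, ∃ x2 ∈ E, δ ≤ |x1 - x2|
  · obtain ⟨x1, hx1, x2, hx2, h12⟩ := h1
    refine ⟨![x1, x2], fun x hx => ?_⟩
    by_contra hcon
    push Not at hcon
    have a1 := hcon 0
    have a2 := hcon 1
    simp only [Matrix.cons_val_zero, Matrix.cons_val_one] at a1 a2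
    exact h x hx x1 hx1 x2 hx2 a1.le a2.le h12
  · push Not at h1
    by_cases h2 : ∃ x1, x1 ∈ E
    · obtain ⟨x1, hx1⟩ := h2
      exact ⟨fun _ => x1, fun x hx => ⟨0, (h1 x hx x1 hx1).le⟩⟩
    · push Not at h2
      exact ⟨fun _ => 0, fun x hx => absurd hx (h2 x)⟩

end Crest.Agent.R136.Sa705
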