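import Crest.Agent.R136.Hul_565
import Crest.Agent.R136.Pl7b_186
import Crest.Agent.R136.Sa8_214
import Crest.Agent.R136.Pl2Def_860

/-!
# R136 (S0187), PLAN 2: the trivial case of the base tilt theorem (helper565)

* `cube_le` : size of the sheet function in the cube of half-width `w 0` around a line of the sheet.
* `bt_triv` : all dimensions comparable ⊢ conclusion of `BT` at every line.
* `bt_r` : the case `ρ ≤ r`.
-/

set_option autoImplicit false
set_option linter.unusedVariables false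
set_option linter.unusedSectionVars false

namespace Crest.Agent.R136.Hul565

open Finset
open Crest.Agent.R136.Sh605 Crest.Agent.R136.Fl808
open Crest.Agent.R136.Pl7186 (step_le)
open Crest.Agent.R136.K4 (Plk4)
open Crest.Agent.R136.Tlt51 (Shp InP)
open Crest.Agent.R136.Phc248
open Crest.Agent.R136.Pl2W102 (Near Ex2 Two1)
open Crest.Agent.R136.Tl102 (angC)
open Crest.Agent.R136.Deep51 (CloseC)
open Crest.Agent.R136.Pl2 (kp)
open Crest.Agent.R136.Sa705 (ext_cube)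

/-- size of the sheet function in the cube of half-width `w 0` around a line of the sheet -/
theorem cube_le {e : Fin 3 → V3} {c : Ln4} {w : V3} {Q : ℝ → V3 → ℝ} {a z0 ρ r : ℝ}
    (S : ShN e c w Q a z0 ρ r) {T : Ln4} (hT : InSheet T e c w Q a z0 ρ) {z : ℝ} (hz : z0 ≤ z)
    (hz' : z ≤ z0 + ρ) (hw0 : 0 < w 0) {y : V3} (hy : ∀ i, |dt (e i) y| ≤ w 0) :
    |Q z (T.pos z + y)| ≤ 5 * w 0 := by
  have he := S.ortho
  have g00 : dt (e 0) (e 0) = 1 := by simpa using he 0 0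
  have g11 : dt (e 1) (e 1) = 1 := by simpa using he 1 1
  have g22 : dt (e 2) (e 2) = 1 := by simpa using he 2 2
  have g01 : dt (e 0) (e 1) = 0 := by simpa using he 0 1
  have g02 : dt (e 0) (e 2) = 0 := by simpa using he 0 2
  have g10 : dt (e 1) (e 0) = 0 := by simpa using he 1 0
  have g12 : dt (e 1) (e 2) = 0 := by simpa using he 1 2
  have g20 : dt (e 2) (e 0) = 0 := by simpa using he 2 0
  have g21 : dt (e 2) (e 1) = 0 := by simpa using he 2 1
  obtain ⟨hk0, hq0⟩ := hT z hz hz'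
  set x := T.pos z with hx
  set τ0 := dt (e 0) y with hτ0
  set τ1 := dt (e 1) y with hτ1
  set τ2 := dt (e 2) y with hτ2
  have h02 := S.w0_le
  have h21 := S.w_le
  have hyx : x + τ1 • e 1 + τ2 • e 2 + τ0 • e 0 = x + y := by
    funext j
    have h1 := he.expand y j
    rw [← hτ0, ← hτ1, ← hτ2] at h1
    simp only [Pi.add_apply, Pi.smul_apply, smul_eq_mul] at h1 ⊢
    linarith
  have k0 : InK e c (dbl3 w) z x := fun i => (hk0 i).trans (by
    have : 0 ≤ w i := (abs_nonneg _).trans (hk0 i)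
    simp only [dbl3]; linarith)
  have hwi : ∀ i, w 0 ≤ w i := by
    intro i
    fin_cases i
    · exact le_rfl
    · exact h02.trans h21
    · exact h02
  have hb : ∀ (s : ℝ) (i : Fin 3), |s| ≤ w 0 → |dt (e i) (x - c.pos z) + s| ≤ dbl3 w i := by
    intro s i hs
    refine (abs_add_le _ _).trans ?_
    have h1 := hk0 i
    have h2 := hwi i
    simp only [dbl3]; linarith
  have k1 : InK e c (dbl3 w) z (x + τ1 • e 1) := by
    intro i
    have e1 : dt (e i) (x + τ1 • e 1 - c.pos z) = dt (e i) (x - c.pos z) + τ1 * dt (e i) (e 1) := by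
      simp only [dt_sub, dt_add, dt_smul]; ring
    rw [e1]
    fin_cases i
    · simp only [Fin.zero_eta, g01, mul_zero]; exact hb 0 0 (by simpa using hw0.le)
    · simp only [Fin.mk_one, g11, mul_one]; exact hb _ 1 (hy 1)
    · simp only [Fin.reduceFinMk, g21, mul_zero]; exact hb 0 2 (by simpa using hw0.le)
  have k2 : InK e c (dbl3 w) z (x + τ1 • e 1 + τ2 • e 2) := by
    intro i
    have e1 : dt (e i) (x + τ1 • e 1 + τ2 • e 2 - c.pos z) =
        dt (e i) (x - c.pos z) + (τ1 * dt (e i) (e 1) + τ2 * dt (e i) (e 2)) := by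
      simp only [dt_sub, dt_add, dt_smul]; ring
    rw [e1]
    fin_cases i
    · simp only [Fin.zero_eta, g01, g02, mul_zero, add_zero]
      have := hb 0 0 (by simpa using hw0.le)
      rwa [add_zero] at this
    · simp only [Fin.mk_one, g11, g12, mul_one, mul_zero, add_zero]; exact hb _ 1 (hy 1)
    · simp only [Fin.reduceFinMk, g21, g22, mul_zero, mul_one, zero_add]; exact hb _ 2 (hy 2)
  have k3 : InK e c (dbl3 w) z (x + τ1 • e 1 + τ2 • e 2 + τ0 • e 0) := by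
    rw [hyx]
    intro i
    have e1 : dt (e i) (x + y - c.pos z) = dt (e i) (x - c.pos z) + dt (e i) y := by
      simp only [dt_sub, dt_add]; ring
    rw [e1]
    exact hb _ i (hy i)
  have s1 := step_le (K := InK e c (dbl3 w) z) (S.sl1 z hz hz') x τ1 k0 k1
  have s2 := step_le (K := InK e c (dbl3 w) z) (S.sl2 z hz hz') (x + τ1 • e 1) τ2 k1 k2
  have s0 := step_le (Λ := 2) (K := InK e c (dbl3 w) z) (fun x τ h1 h2 h3 => by
    obtain ⟨u1, u2⟩ := S.st0 z hz hz' x τ h1 h2 h3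
    rw [abs_le]; constructor <;> linarith) (x + τ1 • e 1 + τ2 • e 2) τ0 k2 k3
  rw [hyx] at s0
  have hw1p : 0 < w 1 := by linarith
  have hw2p : 0 < w 2 := by linarith
  have d1 : w 0 / w 1 ≤ 1 := div_le_one_of_le₀ (h02.trans h21) hw1p.le
  have d2 : w 0 / w 2 ≤ 1 := div_le_one_of_le₀ h02 hw2p.le
  have s1' : w 0 / w 1 * |τ1| ≤ w 0 := by
    calc w 0 / w 1 * |τ1| ≤ 1 * w 0 := mul_le_mul d1 (hy 1) (abs_nonneg _) (by norm_num)
      _ = _ := one_mul _
  have s2' : w 0 / w 2 * |τ2| ≤ w 0 := by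
    calc w 0 / w 2 * |τ2| ≤ 1 * w 0 := mul_le_mul d2 (hy 2) (abs_nonneg _) (by norm_num)
      _ = _ := one_mul _
  have s0' : 2 * |τ0| ≤ 2 * w 0 := by
    have := hy 0
    linarith
  have ha := S.a_le0
  have t0 := abs_le.1 (s0.trans s0')
  have t1 := abs_le.1 (s1.trans s1')
  have t2 := abs_le.1 (s2.trans s2')
  have t3 := abs_le.1 (hq0.trans ha)
  rw [abs_le]
  constructor <;> linarith [t0.1, t0.2, t1.1, t1.2, t2.1, t2.2, t3.1, t3.2]

/-- closeness of two sheets with comparable dimensions -/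
theorem close_triv {S V : Plk4} {z0 ρ r' X l : ℝ} {T : Ln4} (hS : Ortho S.e)
    (hV : Shp V z0 ρ r') (hT : InP T V z0 ρ) (hw0 : 0 < V.w 0) (hX : 1 ≤ X)
    (hSw : ∀ i, S.w i ≤ X * V.w 0) (hl : 20 * X ^ 2 * V.w 0 ≤ l) :
    CloseC S.e S.w S.q S.a V.q l T z0 ρ := by
  intro z hz hz' x hx _
  have h1 := ext_cube (e := V.e) (q₂ := V.q) (z := z) (P := T.pos z) (l := 5 * V.w 0)
    (r := V.w 0) (R := X * V.w 0) (K := X) hV.isQ hX le_rfl
    (fun y hy => cube_le hV hT hz hz' hw0 hy) (y := x - T.pos z) ?_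
  · have e1 : T.pos z + (x - T.pos z) = x := by abel
    rw [e1] at h1
    exact h1.trans (by linarith)
  · intro i
    have h2 := dt_expand hS (V.e i) (x - T.pos z)
    rw [h2]
    have hj : ∀ j, |dt (V.e i) (S.e j) * dt (S.e j) (x - T.pos z)| ≤ X * V.w 0 / 8 := by
      intro j
      rw [abs_mul]
      have b1 : |dt (V.e i) (S.e j)| ≤ 1 := abs_dt_le_one hS hV.ortho i j
      have b2 : |dt (S.e j) (x - T.pos z)| ≤ S.w j / 8 := hx j
      calc |dt (V.e i) (S.e j)| * |dt (S.e j) (x - T.pos z)| ≤ 1 * (S.w j / 8) :=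
            mul_le_mul b1 b2 (abs_nonneg _) (by norm_num)
        _ ≤ _ := by
            have := hSw j
            linarith
    have a0 := abs_le.1 (hj 0)
    have a1 := abs_le.1 (hj 1)
    have a2 := abs_le.1 (hj 2)
    have hp : 0 ≤ X * V.w 0 := by positivity
    rw [abs_le]
    constructor <;> linarith [a0.1, a0.2, a1.1, a1.2, a2.1, a2.2]

section

variable {qm qp : Fin 3 → ℝ} {L : ℕ → Ln4} {P : Finset ℕ} {cu cv : ℕ → ℕ} {Uf Vf : ℕ → Plk4}
  {W M a w1 w2 z0 ρ r K : ℝ}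

theorem angC_le {S S' : Plk4} (h : Ortho S.e) (h' : Ortho S'.e) : angC S S' ≤ 1 := by
  have b : ∀ i j, |dt (S.e i) (S'.e j)| ≤ 1 := fun i j => abs_dt_le_one h' h i j
  unfold angC
  exact max_le (max_le (b 1 0) (b 1 2)) (max_le (b 0 1) (b 2 1))

/-- sizes of the sheets when `w1 ≤ K a` -/
theorem size_triv {S V : Plk4} (hW : 1 ≤ W) (hK : 1 ≤ K) (ha : 0 < a) (hw : w1 ≤ K * a)
    (hS : Shp S z0 ρ r) (hV : Shp V z0 ρ r) (s1 : Near W w1 (S.w 1)) (v0 : Near W a V.a)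
    (v1 : Near W w1 (V.w 1)) :
    0 < V.w 0 ∧ (∀ i, S.w i ≤ (K * W ^ 2) * V.w 0) ∧ V.w 0 ≤ K * W * a := by
  have hW0 : 0 < W := by linarith
  have hK0 : 0 < K := by linarith
  have hva : a ≤ W * V.w 0 := v0.1.trans (mul_le_mul_of_nonneg_left hV.a_le0 hW0.le)
  have hv0 : 0 < V.w 0 := by
    by_contra hc
    push Not at hc
    have : W * V.w 0 ≤ 0 := mul_nonpos_of_nonneg_of_nonpos hW0.le hc
    linarith
  have h1 : S.w 1 ≤ (K * W ^ 2) * V.w 0 := by
    calc S.w 1 ≤ W * w1 := s1.2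
      _ ≤ W * (K * a) := mul_le_mul_of_nonneg_left hw hW0.le
      _ ≤ W * (K * (W * V.w 0)) :=
          mul_le_mul_of_nonneg_left (mul_le_mul_of_nonneg_left hva hK0.le) hW0.le
      _ = _ := by ring
  refine ⟨hv0, fun i => ?_, ?_⟩
  · fin_cases i
    · exact (hS.w0_le.trans hS.w_le).trans h1
    · exact h1
    · exact hS.w_le.trans h1
  · calc V.w 0 ≤ V.w 1 := hV.w0_le.trans hV.w_le
      _ ≤ W * w1 := v1.2
      _ ≤ W * (K * a) := mul_le_mul_of_nonneg_left hw hW0.le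
      _ = _ := by ring

/-- **BT, trivial case**: all dimensions comparable -/
theorem bt_triv (h : Two1 qm qp L P cu cv Uf Vf W M a w1 w2 z0 ρ r) (hK : 1 ≤ K)
    (hw : w1 ≤ K * a) {t : ℕ} (ht : t ∈ P) {E : ℝ} (hE : 20 * K ^ 3 * W ^ 5 * a ≤ E) :
    angC (Uf (cu t)) (Vf (cv t)) * w1 ≤ K * W ^ 2 * w2 ∧
      CloseC (Uf (cu t)).e (Uf (cu t)).w (Uf (cu t)).q (Uf (cu t)).a (Vf (cv t)).q E (L t) z0 ρ ∧
      CloseC (Vf (cv t)).e (Vf (cv t)).w (Vf (cv t)).q (Vf (cv t)).a (Uf (cu t)).q E (L t) z0 ρ := by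
  have hW := h.W1
  have hW0 : 0 < W := by linarith
  have hK0 : 0 < K := by linarith
  have ha := h.a0
  obtain ⟨u0, u1, u2⟩ := h.dimU t ht
  obtain ⟨v0, v1, v2⟩ := h.dimV t ht
  have sU := h.shU t ht
  have sV := h.shV t ht
  obtain ⟨a1, a2, a3⟩ := size_triv hW hK ha hw sU sV u1 v0 v1
  obtain ⟨b1, b2, b3⟩ := size_triv hW hK ha hw sV sU v1 u0 u1
  have hX : 1 ≤ K * W ^ 2 := one_le_mul_of_one_le_of_one_le hK (one_le_pow₀ hW)
  have key : ∀ x : ℝ, x ≤ K * W * a → 20 * (K * W ^ 2) ^ 2 * x ≤ E := by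
    intro x hx
    refine le_trans ?_ hE
    calc 20 * (K * W ^ 2) ^ 2 * x ≤ 20 * (K * W ^ 2) ^ 2 * (K * W * a) :=
          mul_le_mul_of_nonneg_left hx (by positivity)
      _ = _ := by ring
  refine ⟨?_, close_triv sU.ortho sV (h.inV t ht) a1 hX a2 (key _ a3),
    close_triv sV.ortho sU (h.inU t ht) b1 hX b2 (key _ b3)⟩
  have e1 : a ≤ W ^ 2 * w2 := by
    calc a ≤ W * (Uf (cu t)).a := u0.1
      _ ≤ W * ((Uf (cu t)).w 2) :=
          mul_le_mul_of_nonneg_left (sU.a_le0.trans sU.w0_le) hW0.le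
      _ ≤ W * (W * w2) := mul_le_mul_of_nonneg_left u2.2 hW0.le
      _ = _ := by ring
  calc angC (Uf (cu t)) (Vf (cv t)) * w1 ≤ 1 * w1 :=
        mul_le_mul_of_nonneg_right (angC_le sU.ortho sV.ortho) h.w10.le
    _ ≤ K * a := by rw [one_mul]; exact hw
    _ ≤ K * (W ^ 2 * w2) := mul_le_mul_of_nonneg_left e1 hK0.le
    _ = _ := by ring

/-- **BT, the case `ρ ≤ r`** in the shape of the conclusion of `BT`, `C = 16` -/
theorem bt_r (h : Two1 qm qp L P cu cv Uf Vf W M a w1 w2 z0 ρ r) (hr : ρ ≤ r) {t : ℕ}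
    (ht : t ∈ P) {C : ℝ} (hC : 16 ≤ C) :
    angC (Uf (cu t)) (Vf (cv t)) * w1 ≤ (2 * W) ^ C * w2 ∧
      CloseC (Uf (cu t)).e (Uf (cu t)).w (Uf (cu t)).q (Uf (cu t)).a (Vf (cv t)).q
        ((2 * W) ^ C * max a (max (kp (Uf (cu t)) z0 ρ (L t)) (kp (Vf (cv t)) z0 ρ (L t))))
        (L t) z0 ρ ∧
      CloseC (Vf (cv t)).e (Vf (cv t)).w (Vf (cv t)).q (Vf (cv t)).a (Uf (cu t)).q
        ((2 * W) ^ C * max a (max (kp (Uf (cu t)) z0 ρ (L t)) (kp (Vf (cv t)) z0 ρ (L t))))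
        (L t) z0 ρ := by
  have hW := h.W1
  have hW0 : 0 < W := by linarith
  have h2W : 1 ≤ 2 * W := by linarith
  have ha := h.a0
  have hpow : (2 * W) ^ (16 : ℕ) ≤ (2 * W) ^ C := by
    rw [← Real.rpow_natCast]
    exact Real.rpow_le_rpow_of_exponent_le h2W (by exact_mod_cast hC)
  have e16 : (2 * W) ^ (16 : ℕ) = 65536 * W ^ 16 := by ring
  have hWp : ∀ n : ℕ, n ≤ 16 → W ^ n ≤ W ^ 16 := fun n hn => pow_le_pow_right₀ hW hn
  have hP16 : 0 < W ^ 16 := by positivity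
  have h1 := bt_triv h (K := W ^ 2) (one_le_pow₀ hW) (two1_triv h ⟨t, ht⟩ hr) ht
    (E := (2 * W) ^ C * max a (max (kp (Uf (cu t)) z0 ρ (L t)) (kp (Vf (cv t)) z0 ρ (L t)))) (by
      calc 20 * (W ^ 2) ^ 3 * W ^ 5 * a = 20 * W ^ 11 * a := by ring
        _ ≤ (2 * W) ^ C * a := by
            refine mul_le_mul_of_nonneg_right ?_ ha.le
            have := hWp 11 (by norm_num)
            linarith
        _ ≤ _ := mul_le_mul_of_nonneg_left (le_max_left _ _) (by positivity))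
  refine ⟨h1.1.trans ?_, h1.2⟩
  refine mul_le_mul_of_nonneg_right ?_ h.w20.le
  have e4 : W ^ 2 * W ^ 2 = W ^ 4 := by ring
  have := hWp 4 (by norm_num)
  rw [e4]
  linarith

/-- **BT, the case `ρ ≤ r`**, literal of `Pl2Def_860` (curved first system) -/
theorem bt_r' (h : Two1 qm qp L P cu cv Uf Vf W M a w1 w2 z0 ρ r) (hr : ρ ≤ r) {t : ℕ}
    (ht : t ∈ P) (hk : a ≤ kp (Uf (cu t)) z0 ρ (L t)) {C : ℝ} (hC : 16 ≤ C) :
    angC (Uf (cu t)) (Vf (cv t)) * w1 ≤ (2 * W) ^ C * w2 ∧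
      CloseC (Vf (cv t)).e (Vf (cv t)).w (Vf (cv t)).q (Vf (cv t)).a (Uf (cu t)).q
        ((2 * W) ^ C * kp (Uf (cu t)) z0 ρ (L t)) (L t) z0 ρ := by
  have hW := h.W1
  have hW0 : 0 < W := by linarith
  have h2W : 1 ≤ 2 * W := by linarith
  have ha := h.a0
  have hpow : (2 * W) ^ (16 : ℕ) ≤ (2 * W) ^ C := by
    rw [← Real.rpow_natCast]
    exact Real.rpow_le_rpow_of_exponent_le h2W (by exact_mod_cast hC)
  have e16 : (2 * W) ^ (16 : ℕ) = 65536 * W ^ 16 := by ring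
  have hWp : ∀ n : ℕ, n ≤ 16 → W ^ n ≤ W ^ 16 := fun n hn => pow_le_pow_right₀ hW hn
  have hP16 : 0 < W ^ 16 := by positivity
  have h1 := bt_triv h (K := W ^ 2) (one_le_pow₀ hW) (two1_triv h ⟨t, ht⟩ hr) ht
    (E := (2 * W) ^ C * kp (Uf (cu t)) z0 ρ (L t)) (by
      calc 20 * (W ^ 2) ^ 3 * W ^ 5 * a = 20 * W ^ 11 * a := by ring
        _ ≤ (2 * W) ^ C * a := by
            refine mul_le_mul_of_nonneg_right ?_ ha.le
            have := hWp 11 (by norm_num)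
            linarith
        _ ≤ _ := mul_le_mul_of_nonneg_left hk (by positivity))
  refine ⟨h1.1.trans ?_, h1.2.2⟩
  refine mul_le_mul_of_nonneg_right ?_ h.w20.le
  have e4 : W ^ 2 * W ^ 2 = W ^ 4 := by ring
  have := hWp 4 (by norm_num)
  rw [e4]
  linarith

end

end Crest.Agent.R136.Hul565
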