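import Crest.Agent.R136.HR3_829

/-!
# R136 (S0187), g-free tilt (PLAN 2), leaf (L7): D-max of the test boxes of one cell (helper186)

* `DMx` : D-max for all sheets of the class `ShN` over one cell, widths in a range;
* `box_count` : flat orthonormal boxes, any order of the three sizes;
* `par_count` : flat parallelepipeds `|<G k, t - T0>| ≤ X k` with arbitrary rows `G`.
-/

set_option autoImplicit false
set_option linter.unusedVariables false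
set_option linter.unusedSectionVars false

namespace Crest.Agent.R136.Pl7186

open Finset
open Crest.Agent.R136.Sh605
open Crest.Agent.R136.HR829 (crs dt_nonneg cs cs1 parseval cover3)

open Classical in
/-- D-max for all sheets over one cell whose thickness, wide and narrow side satisfy `Rg`; `cap` =
bound as a function of the three sizes (thickness, wide, narrow) -/
def DMx {ι : Type*} (P : Finset ι) (L : ι → Ln4) (z0 ρ r : ℝ) (Rg : ℝ → ℝ → ℝ → Prop)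
    (cap : ℝ → ℝ → ℝ → ℝ) : Prop :=
  ∀ (e : Fin 3 → V3) (c : Ln4) (w : V3) (Q : ℝ → V3 → ℝ) (a : ℝ), ShN e c w Q a z0 ρ r →
    Rg a (w 1) (w 2) →
    ((P.filter fun t => InSheet (L t) e c w Q a z0 ρ).card : ℝ) ≤ cap a (w 1) (w 2)

/-! ### flat planks -/

/-- the affine function of a flat plank -/
def flQ (n : V3) (c : Ln4) : ℝ → V3 → ℝ := fun z x => dt n (x - c.pos z)

theorem flQ_isQ (n : V3) (c : Ln4) : IsQ (flQ n c) := by
  refine ⟨-(dt n c.p), -(dt n c.v), 0, n, 0, 0, fun z x => ?_⟩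
  simp only [flQ, dt, Ln4.pos, Pi.sub_apply, Fin.sum_univ_three, Pi.zero_apply]
  ring

theorem shN_fl {e : Fin 3 → V3} (he : Ortho e) (c : Ln4) {w : V3} {a r : ℝ} (z0 ρ : ℝ)
    (h0 : w 0 = w 2) (ha : a ≤ w 2) (hw : w 2 ≤ w 1) (hr : r ≤ a) (hw2 : 0 < w 2) :
    ShN e c w (flQ (e 0) c) a z0 ρ r where
  ortho := he
  isQ := flQ_isQ _ _
  a_le0 := by rw [h0]; exact ha
  w0_le := h0.le
  w_le := hw
  r0_le := hr
  st0 := by
    intro z _ _ x τ hτ _ _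
    have h00 : dt (e 0) (e 0) = 1 := by simpa using he 0 0
    have : flQ (e 0) c z (x + τ • e 0) - flQ (e 0) c z x = τ := by
      simp only [flQ, dt_sub, dt_add, dt_smul, h00]; ring
    rw [this]
    constructor <;> linarith
  sl1 := by
    intro z _ _ x τ hτ _ _
    have h01 : dt (e 0) (e 1) = 0 := by simpa using he 0 1
    have : flQ (e 0) c z (x + τ • e 1) - flQ (e 0) c z x = 0 := by
      simp only [flQ, dt_sub, dt_add, dt_smul, h01]; ring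
    rw [this, abs_zero, h0]
    have : 0 < w 1 := by linarith
    positivity
  sl2 := by
    intro z _ _ x τ hτ _ _
    have h02 : dt (e 0) (e 2) = 0 := by simpa using he 0 2
    have : flQ (e 0) c z (x + τ • e 2) - flQ (e 0) c z x = 0 := by
      simp only [flQ, dt_sub, dt_add, dt_smul, h02]; ring
    rw [this, abs_zero, h0, div_self hw2.ne', one_mul]
    exact hτ

section

variable {ι : Type*} {P : Finset ι} {L : ι → Ln4} {z0 ρ r : ℝ} {Rg : ℝ → ℝ → ℝ → Prop}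
  {cap : ℝ → ℝ → ℝ → ℝ}

open Classical in
/-- **flat orthonormal box**, sizes in order: `n 0` thin, `n 1` wide, `n 2` narrow -/
theorem box_count (hd : DMx P L z0 ρ r Rg cap) {n : Fin 3 → V3} (hn : Ortho n) (c : Ln4)
    {a w1 w2 : ℝ} (ha : 0 < a) (hr : r ≤ a) (h2 : a ≤ w2) (h1 : w2 ≤ w1) (hR : Rg a w1 w2)
    (F : Finset ι) (hF : F ⊆ P)
    (hb : ∀ t ∈ F, ∀ z, z0 ≤ z → z ≤ z0 + ρ →
      |dt (n 0) ((L t).pos z - c.pos z)| ≤ a ∧ |dt (n 1) ((L t).pos z - c.pos z)| ≤ w1 ∧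
        |dt (n 2) ((L t).pos z - c.pos z)| ≤ w2) :
    (F.card : ℝ) ≤ cap a w1 w2 := by
  have hw2 : 0 < w2 := ha.trans_le h2
  have hS : ShN n c ![w2, w1, w2] (flQ (n 0) c) a z0 ρ r := shN_fl hn c z0 ρ rfl h2 h1 hr hw2
  have h3 := hd n c ![w2, w1, w2] (flQ (n 0) c) a hS hR
  refine le_trans ?_ h3
  have h4 : F ⊆ P.filter fun t => InSheet (L t) n c ![w2, w1, w2] (flQ (n 0) c) a z0 ρ := by
    intro t ht
    rw [mem_filter]
    refine ⟨hF ht, fun z hz hz' => ?_⟩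
    obtain ⟨b0, b1, b2⟩ := hb t ht z hz hz'
    refine ⟨fun i => ?_, b0⟩
    fin_cases i
    · exact b0.trans h2
    · exact b1
    · exact b2
  exact_mod_cast card_le_card h4

/-! ### parallelepipeds -/

/-- edges of the parallelepiped `|<G k, δ>| ≤ X k` -/
noncomputable def edges (G : Fin 3 → V3) (X : Fin 3 → ℝ) : Fin 3 → V3 :=
  ![(X 0 / dt (crs (G 0) (G 1)) (G 2)) • crs (G 1) (G 2),
    (X 1 / dt (crs (G 0) (G 1)) (G 2)) • crs (G 2) (G 0),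
    (X 2 / dt (crs (G 0) (G 1)) (G 2)) • crs (G 0) (G 1)]

theorem edges_sum (G : Fin 3 → V3) {X : Fin 3 → ℝ} (hX : ∀ k, 0 < X k)
    (hG : dt (crs (G 0) (G 1)) (G 2) ≠ 0) (δ : V3) :
    (dt (G 0) δ / X 0) • edges G X 0 + (dt (G 1) δ / X 1) • edges G X 1 +
      (dt (G 2) δ / X 2) • edges G X 2 = δ := by
  have x0 := (hX 0).ne'
  have x1 := (hX 1).ne'
  have x2 := (hX 2).ne'
  set Δ := dt (crs (G 0) (G 1)) (G 2) with hΔ
  have key : ∀ j, Δ * δ j = dt (G 0) δ * crs (G 1) (G 2) j + dt (G 1) δ * crs (G 2) (G 0) j +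
      dt (G 2) δ * crs (G 0) (G 1) j := by
    intro j
    rw [hΔ]
    fin_cases j <;>
      simp only [dt, crs, Matrix.cons_val, Fin.zero_eta, Fin.mk_one, Fin.reduceFinMk] <;> ring
  funext j
  have hk := key j
  simp only [edges, Matrix.cons_val, Pi.add_apply, Pi.smul_apply, smul_eq_mul, ← hΔ]
  field_simp
  rw [mul_comm] at hk
  linarith

theorem edges_det (G : Fin 3 → V3) {X : Fin 3 → ℝ}
    (hG : dt (crs (G 0) (G 1)) (G 2) ≠ 0) :
    dt (crs (edges G X 0) (edges G X 1)) (edges G X 2) =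
      X 0 * X 1 * X 2 / dt (crs (G 0) (G 1)) (G 2) := by
  have key : dt (crs (crs (G 1) (G 2)) (crs (G 2) (G 0))) (crs (G 0) (G 1)) =
      dt (crs (G 0) (G 1)) (G 2) ^ 2 := by
    simp only [dt, crs, Matrix.cons_val]; ring
  set Δ := dt (crs (G 0) (G 1)) (G 2) with hΔ
  have h1 : dt (crs (edges G X 0) (edges G X 1)) (edges G X 2) =
      (X 0 / Δ) * (X 1 / Δ) * (X 2 / Δ) *
        dt (crs (crs (G 1) (G 2)) (crs (G 2) (G 0))) (crs (G 0) (G 1)) := by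
    simp only [edges, ← hΔ, Matrix.cons_val]
    generalize crs (G 1) (G 2) = u
    generalize crs (G 2) (G 0) = v
    generalize crs (G 0) (G 1) = x
    simp only [dt, crs, Matrix.cons_val, Pi.smul_apply, smul_eq_mul]
    ring
  rw [h1, key]
  field_simp

theorem edges_dt (G : Fin 3 → V3) (X : Fin 3 → ℝ)
    (hG : dt (crs (G 0) (G 1)) (G 2) ≠ 0) (k j : Fin 3) :
    dt (G k) (edges G X j) = if k = j then X j else 0 := by
  set Δ := dt (crs (G 0) (G 1)) (G 2) with hΔ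
  have e0 : dt (crs (G 0) (G 1)) (G 2) = Δ := hΔ.symm
  have hinv : ∀ x : ℝ, x / Δ * Δ = x := fun x => div_mul_cancel₀ x hG
  have f00 : dt (G 0) (crs (G 1) (G 2)) = Δ := by
    rw [hΔ]; simp only [dt, crs, Matrix.cons_val]; ring
  have f11 : dt (G 1) (crs (G 2) (G 0)) = Δ := by
    rw [hΔ]; simp only [dt, crs, Matrix.cons_val]; ring
  have f22 : dt (G 2) (crs (G 0) (G 1)) = Δ := by
    rw [hΔ]; simp only [dt, crs, Matrix.cons_val]; ring
  have z : ∀ x y : V3, dt x (crs x y) = 0 := fun x y => by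
    simp only [dt, crs, Matrix.cons_val]; ring
  have z' : ∀ x y : V3, dt y (crs x y) = 0 := fun x y => by
    simp only [dt, crs, Matrix.cons_val]; ring
  fin_cases k <;> fin_cases j <;>
    simp [edges, dt_smul, ← hΔ, f00, f11, f22, z, z', hinv]

/-- **a parallelepiped lies in one sorted orthonormal box of comparable volume** -/
theorem cover_par {e : Fin 3 → V3} (he : Ortho e) {W : V3} (hW0 : 0 < W 0) (hW02 : W 0 ≤ W 2)
    (hW21 : W 2 ≤ W 1) {S : ℝ} (hS0 : 0 < S) (G : Fin 3 → V3) {X : Fin 3 → ℝ}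
    (hX : ∀ k, 0 < X k) (hG : dt (crs (G 0) (G 1)) (G 2) ≠ 0)
    (hout : ∀ δ : V3, (∀ k, |dt (G k) δ| ≤ X k) → ∀ i, |dt (e i) δ| ≤ S * W i)
    {κ : ℝ} (hκ0 : 0 ≤ κ) (hκ : ∀ k, κ ^ 2 * dt (G k) (G k) ≤ X k ^ 2) :
    ∃ (f : Fin 3 → V3) (α β1 β2 : ℝ), Ortho f ∧ 0 < α ∧ α ≤ β2 ∧ β2 ≤ β1 ∧
      (∀ δ : V3, (∀ k, |dt (G k) δ| ≤ X k) →
        |dt (f 0) δ| ≤ α ∧ |dt (f 1) δ| ≤ β1 ∧ |dt (f 2) δ| ≤ β2) ∧
      α * β2 * β1 = 6 * (X 0 * X 1 * X 2 / |dt (crs (G 0) (G 1)) (G 2)|) ∧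
      κ ≤ α ∧ α ≤ 8 * S * W 0 ∧ β2 ≤ 10 * S * W 2 ∧ β1 ≤ 6 * S * W 1 := by
  have x0 := hX 0
  have x1 := hX 1
  have x2 := hX 2
  set c := edges G X with hc
  have hdetc : dt (crs (c 0) (c 1)) (c 2) = X 0 * X 1 * X 2 / dt (crs (G 0) (G 1)) (G 2) :=
    edges_det G hG
  have hdet0 : dt (crs (c 0) (c 1)) (c 2) ≠ 0 := by
    rw [hdetc]
    exact div_ne_zero (by positivity) hG
  obtain ⟨f, α, β1, β2, hf, hα, hαβ, hββ, hbox, hvol, b0, b2, b1⟩ :=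
    cover3 he hW0 hW02 hW21 c hdet0 hS0 (fun i j => hout (c j) (fun k => by
      have := edges_dt G X hG k j
      rw [← hc] at this
      rw [this]
      split_ifs with h
      · rw [h, abs_of_pos (hX j)]
      · rw [abs_zero]; exact (hX k).le) i)
  have hin : ∀ δ : V3, (∀ k, |dt (G k) δ| ≤ X k) →
      |dt (f 0) δ| ≤ α ∧ |dt (f 1) δ| ≤ β1 ∧ |dt (f 2) δ| ≤ β2 := by
    intro δ hδ
    have h1 := hbox (fun k => dt (G k) δ / X k) (fun k => by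
      rw [abs_div, abs_of_pos (hX k)]
      exact (div_le_one (hX k)).2 (hδ k))
    rw [edges_sum G hX hG δ] at h1
    exact h1
  refine ⟨f, α, β1, β2, hf, hα, hαβ, hββ, hin, ?_, ?_, b0, b2, b1⟩
  · rw [hvol, hdetc, abs_div, abs_of_pos (by positivity : 0 < X 0 * X 1 * X 2)]
  · have f00 : dt (f 0) (f 0) = 1 := by simpa using hf 0 0
    have h1 := (hin (κ • f 0) (fun k => by
      refine abs_le_of_sq_le_sq ?_ (hX k).le
      have e1 : dt (κ • f 0) (κ • f 0) = κ * κ := by rw [dt_smul, smul_dt, f00, mul_one]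
      have h2 := cs (G k) (κ • f 0)
      rw [e1] at h2
      refine h2.trans ?_
      have h3 := hκ k
      calc dt (G k) (G k) * (κ * κ) = κ ^ 2 * dt (G k) (G k) := by ring
        _ ≤ _ := h3)).1
    rw [dt_smul, f00, mul_one, abs_of_nonneg hκ0] at h1
    exact h1

open Classical in
/-- **D-max of an arbitrary flat plank** `|<G k, t - T0>| ≤ X k` -/
theorem par_count (hd : DMx P L z0 ρ r Rg cap) {e : Fin 3 → V3} (he : Ortho e) {W : V3}
    (hW0 : 0 < W 0) (hW02 : W 0 ≤ W 2)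
    (hW21 : W 2 ≤ W 1) {S : ℝ} (hS0 : 0 < S) (G : Fin 3 → V3) {X : Fin 3 → ℝ}
    (hX : ∀ k, 0 < X k) (hG : dt (crs (G 0) (G 1)) (G 2) ≠ 0)
    (hout : ∀ δ : V3, (∀ k, |dt (G k) δ| ≤ X k) → ∀ i, |dt (e i) δ| ≤ S * W i)
    {κ : ℝ} (hκ0 : 0 ≤ κ) (hκ : ∀ k, κ ^ 2 * dt (G k) (G k) ≤ X k ^ 2) (hr : r ≤ κ)
    (T0 : Ln4) (F : Finset ι) (hF : F ⊆ P)
    (hb : ∀ t ∈ F, ∀ z, z0 ≤ z → z ≤ z0 + ρ → ∀ k, |dt (G k) ((L t).pos z - T0.pos z)| ≤ X k)
    (hR : ∀ α β1 β2 : ℝ, 0 < α → α ≤ β2 → β2 ≤ β1 →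
      α * β2 * β1 = 6 * (X 0 * X 1 * X 2 / |dt (crs (G 0) (G 1)) (G 2)|) → κ ≤ α →
      α ≤ 8 * S * W 0 → β2 ≤ 10 * S * W 2 → β1 ≤ 6 * S * W 1 → Rg α β1 β2) :
    ∃ α β1 β2 : ℝ, 0 < α ∧ α ≤ β2 ∧ β2 ≤ β1 ∧
      α * β2 * β1 = 6 * (X 0 * X 1 * X 2 / |dt (crs (G 0) (G 1)) (G 2)|) ∧ κ ≤ α ∧
      α ≤ 8 * S * W 0 ∧ β2 ≤ 10 * S * W 2 ∧ β1 ≤ 6 * S * W 1 ∧ (F.card : ℝ) ≤ cap α β1 β2 := by
  obtain ⟨f, α, β1, β2, hf, hα, hαβ, hββ, hin, hvol, hκα, b0, b2, b1⟩ :=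
    cover_par he hW0 hW02 hW21 hS0 G hX hG hout hκ0 hκ
  refine ⟨α, β1, β2, hα, hαβ, hββ, hvol, hκα, b0, b2, b1, ?_⟩
  exact box_count hd hf T0 hα (hr.trans hκα) hαβ hββ
    (hR α β1 β2 hα hαβ hββ hvol hκα b0 b2 b1) F hF
    (fun t ht z hz hz' => hin _ (fun k => hb t ht z hz hz' k))

end

end Crest.Agent.R136.Pl7186
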