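import Crest.Agent.R136.Fl1_808
import Crest.Agent.R136.Pl7a_186
import Crest.Agent.R136.Pl2W_102

/-!
# R136 (S0187), PLAN 2, leaf (B2): wide hulls (helper565)

* `box_cover` : D-max of a flat orthonormal box which may be longer than the cell.
* `two1_hull` : `Two1` ⊢ the field `hull` of `TCore`.
-/

set_option autoImplicit false
set_option linter.unusedVariables false
set_option linter.unusedSectionVars false

namespace Crest.Agent.R136.Hul565

open Finset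
open Crest.Agent.R136.Sh605 Crest.Agent.R136.Fl808
open Crest.Agent.R136.Pl7186 (DMx box_count)
open Crest.Agent.R136.K4 (Plk4)
open Crest.Agent.R136.Tlt51 (Shp InP)
open Crest.Agent.R136.Phc248
open Crest.Agent.R136.Pl2W102 (Near Ex2 Two1)

open Classical in
/-- pigeonhole: a set covered by few cells -/
theorem card_le_cells {ι κ : Type*} (F : Finset ι) (g : ι → κ) (S : Finset κ)
    (hS : ∀ t ∈ F, g t ∈ S) {B : ℝ}
    (h : ∀ k ∈ S, ∀ Q ⊆ F, (∀ t ∈ Q, g t = k) → (Q.card : ℝ) ≤ B) :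
    (F.card : ℝ) ≤ S.card * B := by
  rw [card_eq_sum_card_fiberwise hS]
  push_cast
  calc ∑ k ∈ S, ((F.filter fun t => g t = k).card : ℝ) ≤ ∑ _k ∈ S, B :=
        sum_le_sum fun k hk => h k hk _ (filter_subset _ _) fun t ht => (mem_filter.1 ht).2
    _ = _ := by rw [sum_const, nsmul_eq_mul]

/-- affine function, bound at the two ends -/
theorem aff_bound {p v z0 ρ z B : ℝ} (hz : z0 ≤ z) (hz' : z ≤ z0 + ρ) (h0 : |p + z0 * v| ≤ B)
    (h1 : |p + (z0 + ρ) * v| ≤ B) : |p + z * v| ≤ B := by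
  rw [abs_le] at *
  rcases le_total 0 v with hv | hv
  · constructor
    · have := mul_le_mul_of_nonneg_right hz hv
      linarith [h0.1]
    · have := mul_le_mul_of_nonneg_right hz' hv
      linarith [h1.2]
  · constructor
    · have := mul_le_mul_of_nonpos_right hz' hv
      linarith [h1.1]
    · have := mul_le_mul_of_nonpos_right hz hv
      linarith [h0.2]

theorem abs_sub_of_floor {x y : ℝ} (h : ⌊x⌋ = ⌊y⌋) : |x - y| ≤ 1 := by
  have h1 := Int.floor_le x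
  have h2 := Int.lt_floor_add_one x
  have h3 := Int.floor_le y
  have h4 := Int.lt_floor_add_one y
  rw [h] at h1 h2
  rw [abs_le]
  constructor <;> linarith

theorem floor_mem {x X ρ : ℝ} (hρ : 0 < ρ) (h : |x| ≤ X) :
    ⌊x / ρ⌋ ∈ Icc (-⌈X / ρ⌉) ⌈X / ρ⌉ := by
  rw [abs_le] at h
  have h1 : -(X / ρ) ≤ x / ρ := by
    rw [← neg_div]
    exact div_le_div_of_nonneg_right h.1 hρ.le
  have h2 : x / ρ ≤ X / ρ := div_le_div_of_nonneg_right h.2 hρ.le
  rw [mem_Icc]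
  constructor
  · rw [Int.le_floor]
    push_cast
    have := Int.le_ceil (X / ρ)
    linarith
  · exact (Int.floor_le_ceil _).trans (Int.ceil_le_ceil h2)

section

variable {ι : Type*} {P : Finset ι} {L : ι → Ln4} {z0 ρ r : ℝ}
  {cap : ℝ → ℝ → ℝ → ℝ}

open Classical in
/-- **flat orthonormal box, possibly longer than the cell** -/
theorem box_cover (hρ : 0 < ρ) (hd : DMx P L z0 ρ r (fun _ w1 _ => w1 ≤ ρ) cap)
    {f : Fin 3 → V3} (hf : Ortho f) (b : Ln4) {X0 X1 X2 m B N : ℝ} (h02 : X0 ≤ X2) (h21 : X2 ≤ X1)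
    (hm : 1 ≤ m) (hX0 : 0 < X0) (hr : r ≤ 2 * (m * X0)) (hrρ : r ≤ ρ) (hN : 1 ≤ N)
    (hX1 : 2 * (X1 / ρ) + 3 ≤ N)
    (hB : cap (min (2 * (m * X0)) ρ) (min (2 * (m * X1)) ρ) (min (2 * (m * X2)) ρ) ≤ B)
    (hB0 : 0 ≤ B) :
    ((P.filter fun t => InB (L t) b f ![X0, X1, X2] z0 ρ).card : ℝ) ≤ N ^ 6 * B := by
  set F := P.filter fun t => InB (L t) b f ![X0, X1, X2] z0 ρ with hF
  set X : Fin 3 → ℝ := ![X0, X1, X2] with hX
  have hXle : ∀ i, X i ≤ X1 := by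
    intro i
    fin_cases i
    · exact h02.trans h21
    · exact le_rfl
    · exact h21
  set c0 : ι → Fin 3 → ℝ := fun t i => dt (f i) ((L t).pos z0 - b.pos z0) with hc0
  set c1 : ι → Fin 3 → ℝ := fun t i => dt (f i) ((L t).pos (z0 + ρ) - b.pos (z0 + ρ)) with hc1
  set g : ι → Fin 3 → ℤ × ℤ := fun t i => (⌊c0 t i / ρ⌋, ⌊c1 t i / ρ⌋) with hg
  set S : Finset (Fin 3 → ℤ × ℤ) := Fintype.piFinset fun _ =>
    (Icc (-⌈X1 / ρ⌉) ⌈X1 / ρ⌉) ×ˢ (Icc (-⌈X1 / ρ⌉) ⌈X1 / ρ⌉) with hS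
  have hin : ∀ t ∈ F, ∀ i, |c0 t i| ≤ X i ∧ |c1 t i| ≤ X i := by
    intro t ht i
    have := (mem_filter.1 ht).2
    exact ⟨this z0 le_rfl (by linarith) i, this (z0 + ρ) (by linarith) le_rfl i⟩
  have hgS : ∀ t ∈ F, g t ∈ S := by
    intro t ht
    rw [hS, Fintype.mem_piFinset]
    intro i
    rw [mem_product]
    exact ⟨floor_mem hρ ((hin t ht i).1.trans (hXle i)), floor_mem hρ ((hin t ht i).2.trans (hXle i))⟩
  have hcard : (S.card : ℝ) ≤ N ^ 6 := by
    have hX1' : 0 ≤ X1 / ρ := div_nonneg (by linarith) hρ.le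
    have hce : 0 ≤ ⌈X1 / ρ⌉ := Int.ceil_nonneg hX1'
    rw [hS, Fintype.card_piFinset_const, card_product, Int.card_Icc]
    have e1 : ((⌈X1 / ρ⌉ + 1 - -⌈X1 / ρ⌉).toNat : ℝ) ≤ N := by
      have e2 : (((⌈X1 / ρ⌉ + 1 - -⌈X1 / ρ⌉).toNat : ℤ) : ℝ) = (⌈X1 / ρ⌉ : ℝ) + 1 + ⌈X1 / ρ⌉ := by
        rw [Int.toNat_of_nonneg (by omega)]
        push_cast; ring
      have e3 := Int.ceil_lt_add_one (X1 / ρ)
      have e4 : ((⌈X1 / ρ⌉ + 1 - -⌈X1 / ρ⌉).toNat : ℝ) = (⌈X1 / ρ⌉ : ℝ) + 1 + ⌈X1 / ρ⌉ := by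
        rw [← e2]; norm_cast
      rw [e4]
      linarith
    have e0 : (0 : ℝ) ≤ ((⌈X1 / ρ⌉ + 1 - -⌈X1 / ρ⌉).toNat : ℝ) := by positivity
    push_cast
    calc (((⌈X1 / ρ⌉ + 1 - -⌈X1 / ρ⌉).toNat : ℝ) * ((⌈X1 / ρ⌉ + 1 - -⌈X1 / ρ⌉).toNat : ℝ)) ^ 3 =
          ((⌈X1 / ρ⌉ + 1 - -⌈X1 / ρ⌉).toNat : ℝ) ^ 6 := by ring
      _ ≤ N ^ 6 := by gcongr
  refine (card_le_cells F g S hgS (B := B) fun k _ Q hQF hQk => ?_).trans
    (mul_le_mul_of_nonneg_right hcard hB0)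
  rcases Q.eq_empty_or_nonempty with he | ⟨t1, ht1⟩
  · rw [he]; simpa using hB0
  have h1F := hQF ht1
  have hmX : ∀ i, 0 < X i := by
    intro i
    fin_cases i
    · exact hX0
    · exact hX0.trans_le (h02.trans h21)
    · exact hX0.trans_le h02
  refine le_trans (box_count hd hf (L t1) (a := min (2 * (m * X0)) ρ) (w1 := min (2 * (m * X1)) ρ)
    (w2 := min (2 * (m * X2)) ρ) ?_ (le_min hr hrρ) ?_ ?_ (min_le_right _ _) _
    (hQF.trans (filter_subset _ _)) ?_) hB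
  · exact lt_min (by positivity) hρ
  · exact min_le_min_right _ (by gcongr)
  · exact min_le_min_right _ (by gcongr)
  · intro t ht z hz hz'
    have htF := hQF ht
    have hgt : g t = g t1 := (hQk t ht).trans (hQk t1 ht1).symm
    have key : ∀ i, |dt (f i) ((L t).pos z - (L t1).pos z)| ≤ min (2 * (m * X i)) ρ := by
      intro i
      have hgi := congrFun hgt i
      simp only [hg, Prod.mk.injEq] at hgi
      have b0 : |c0 t i - c0 t1 i| ≤ min (2 * (m * X i)) ρ := by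
        refine le_min ?_ ?_
        · have h1 := (hin t htF i).1
          have h2 := (hin t1 h1F i).1
          have h3 := abs_sub (c0 t i) (c0 t1 i)
          have h4 : X i ≤ m * X i := le_mul_of_one_le_left (hmX i).le hm
          linarith
        · have h1 := abs_sub_of_floor hgi.1
          rw [← sub_div, abs_div, abs_of_pos hρ, div_le_one hρ] at h1
          exact h1
      have b1 : |c1 t i - c1 t1 i| ≤ min (2 * (m * X i)) ρ := by
        refine le_min ?_ ?_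
        · have h1 := (hin t htF i).2
          have h2 := (hin t1 h1F i).2
          have h3 := abs_sub (c1 t i) (c1 t1 i)
          have h4 : X i ≤ m * X i := le_mul_of_one_le_left (hmX i).le hm
          linarith
        · have h1 := abs_sub_of_floor hgi.2
          rw [← sub_div, abs_div, abs_of_pos hρ, div_le_one hρ] at h1
          exact h1
      have e : ∀ y, dt (f i) ((L t).pos y - (L t1).pos y) =
          (dt (f i) (L t).p - dt (f i) (L t1).p) + y * (dt (f i) (L t).v - dt (f i) (L t1).v) := by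
        intro y
        rw [dt_sub, dt_pos, dt_pos]; ring
      rw [e z]
      refine aff_bound hz hz' ?_ ?_
      · rw [← e z0]
        have : dt (f i) ((L t).pos z0 - (L t1).pos z0) = c0 t i - c0 t1 i := by
          simp only [hc0, dt_sub]; ring
        rw [this]; exact b0
      · rw [← e (z0 + ρ)]
        have : dt (f i) ((L t).pos (z0 + ρ) - (L t1).pos (z0 + ρ)) = c1 t i - c1 t1 i := by
          simp only [hc1, dt_sub]; ring
        rw [this]; exact b1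
    exact ⟨key 0, key 1, key 2⟩

end

/-! ### exponents -/

/-- capacity of a wider test -/
theorem phC_wide {qm qp : Fin 3 → ℝ} (hq : ∀ k, 0 ≤ qm k ∧ qm k ≤ qp k) {a w1 w2 a' w1' w2' : ℝ}
    {s0 s1 s2 : ℝ} (ha : 0 < a) (h1 : 0 < w1) (h2 : 0 < w2) (ha' : 0 ≤ a') (h1' : 0 ≤ w1')
    (h2' : 0 ≤ w2') (e0 : a' ≤ s0 * a) (e1 : w1' ≤ s1 * w1) (e2 : w2' ≤ s2 * w2) (g0 : 1 ≤ s0)
    (g1 : 1 ≤ s1) (g2 : 1 ≤ s2) :
    phC qm qp a w1 w2 a' w1' w2' ≤ s0 ^ (1 + qp 0) * s1 ^ (1 + qp 1) * s2 ^ (1 + qp 2) := by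
  unfold phC
  have b0 := ph_le_wide (hq 0).1 (hq 0).2 (div_nonneg ha' ha.le) ((div_le_iff₀ ha).2 e0) g0
  have b1 := ph_le_wide (hq 1).1 (hq 1).2 (div_nonneg h1' h1.le) ((div_le_iff₀ h1).2 e1) g1
  have b2 := ph_le_wide (hq 2).1 (hq 2).2 (div_nonneg h2' h2.le) ((div_le_iff₀ h2).2 e2) g2
  have n0 := ph_nonneg (m := qm 0) (p := qp 0) (div_nonneg ha' ha.le)
  have n1 := ph_nonneg (m := qm 1) (p := qp 1) (div_nonneg h1' h1.le)
  have n2 := ph_nonneg (m := qm 2) (p := qp 2) (div_nonneg h2' h2.le)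
  have p0 : 0 ≤ s0 ^ (1 + qp 0) := by positivity
  have p1 : 0 ≤ s1 ^ (1 + qp 1) := by positivity
  exact mul_le_mul (mul_le_mul b0 b1 n1 p0) b2 n2 (mul_nonneg p0 p1)

section

variable {qm qp : Fin 3 → ℝ} {L : ℕ → Ln4} {P : Finset ℕ} {cu cv : ℕ → ℕ} {Uf Vf : ℕ → Plk4}
  {W M a w1 w2 z0 ρ r : ℝ}

theorem two1_dmx (h : Two1 qm qp L P cu cv Uf Vf W M a w1 w2 z0 ρ r) :
    DMx P L z0 ρ r (fun _ x1 _ => x1 ≤ ρ) (fun x0 x1 x2 => W * M * phC qm qp a w1 w2 x0 x1 x2) := by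
  classical
  intro e c w Q b hS hR
  have := h.dmax ⟨0, e, c, w, Q, b⟩ hS hR
  refine le_trans (le_of_eq ?_) this
  congr!

theorem two1_r (h : Two1 qm qp L P cu cv Uf Vf W M a w1 w2 z0 ρ r) (hne : P.Nonempty) :
    r ≤ W * a := by
  obtain ⟨t, ht⟩ := hne
  exact (h.shU t ht).r0_le.trans (h.dimU t ht).1.2

open Classical in
/-- **(B2) wide hull.** `a', w1', w2'` = dimensions comparable with those of `Two1`. -/
theorem two1_hull (h : Two1 qm qp L P cu cv Uf Vf W M a w1 w2 z0 ρ r)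
    (hq : ∀ k, 0 ≤ qm k ∧ qm k ≤ qp k) (hrρ : r ≤ ρ) {K a' w1' w2' : ℝ} (hK : 1 ≤ K)
    (ha : a ≤ K * a') (ha' : a' ≤ K * a) (h1' : w1' ≤ K * w1) (h2 : w2 ≤ K * w2')
    (h2' : w2' ≤ K * w2) (a0' : 0 < a') (w0' : 0 < w2') {b : Ln4} {f : Fin 3 → V3} {X0 X2 : ℝ}
    (hf : Ortho f) (hX0 : a' ≤ X0) (hX2 : w2' ≤ X2) (h02 : X0 ≤ X2) (h21 : X2 ≤ 10 ^ 6 * w1') :
    ((P.filter fun t => InB (L t) b f ![X0, 10 ^ 6 * w1', X2] z0 ρ).card : ℝ) ≤
      (4 * 10 ^ 6 * K ^ 2 * W) ^ (10 + (qp 0 + qp 1 + qp 2)) * M *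
        ((X0 / a') ^ (1 + qp 0) * (X2 / w2') ^ (1 + qp 2)) := by
  have hW := h.W1
  have hρ := h.ρ0
  have hw1 := h.w10
  have hw2 := h.w20
  have ha0 := h.a0
  have hM := h.M0
  have hK0 : 0 < K := by linarith
  have hW0 : 0 < W := by linarith
  have p0 : 0 < X0 := a0'.trans_le hX0
  have p2 : 0 < X2 := w0'.trans_le hX2
  have hKW : 1 ≤ K * W := one_le_mul_of_one_le_of_one_le hK hW
  set B : ℝ := 4 * 10 ^ 6 * K ^ 2 * W with hB
  have hKK : K * W ≤ K ^ 2 * W := by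
    rw [pow_two]; exact mul_le_mul_of_nonneg_right (le_mul_of_one_le_left hK0.le hK) hW0.le
  have hB1 : 1 ≤ B := by rw [hB]; linarith
  have hB0 : 0 < B := by linarith
  rcases P.eq_empty_or_nonempty with he | hne
  · rw [he, filter_empty, card_empty, Nat.cast_zero]
    have q1 : 0 ≤ X0 / a' := (div_pos p0 a0').le
    have q2 : 0 ≤ X2 / w2' := (div_pos p2 w0').le
    positivity
  have hr := two1_r h hne
  have q0 : 1 ≤ X0 / a' := (one_le_div a0').2 hX0
  have q2 : 1 ≤ X2 / w2' := (one_le_div w0').2 hX2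
  -- ratios
  have e0 : min (2 * (K * W * X0)) ρ ≤ (B * (X0 / a')) * a := by
    refine (min_le_left _ _).trans ?_
    have : X0 ≤ X0 / a' * (K * a) := by
      calc X0 = X0 / a' * a' := by field_simp
        _ ≤ _ := mul_le_mul_of_nonneg_left ha' (by linarith)
    calc 2 * (K * W * X0) ≤ 2 * (K * W * (X0 / a' * (K * a))) := by gcongr
      _ = 2 * K ^ 2 * W * ((X0 / a') * a) := by ring
      _ ≤ B * ((X0 / a') * a) := by
          refine mul_le_mul_of_nonneg_right ?_ (mul_nonneg (by linarith) ha0.le)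
          rw [hB]
          have : 0 ≤ K ^ 2 * W := by positivity
          linarith
      _ = _ := by ring
  have e1 : min (2 * (K * W * (10 ^ 6 * w1'))) ρ ≤ B * w1 := by
    refine (min_le_left _ _).trans ?_
    calc 2 * (K * W * (10 ^ 6 * w1')) ≤ 2 * (K * W * (10 ^ 6 * (K * w1))) := by gcongr
      _ = 2 * 10 ^ 6 * K ^ 2 * W * w1 := by ring
      _ ≤ B * w1 := by
          refine mul_le_mul_of_nonneg_right ?_ hw1.le
          rw [hB]
          have : 0 ≤ K ^ 2 * W := by positivity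
          linarith
  have e2 : min (2 * (K * W * X2)) ρ ≤ (B * (X2 / w2')) * w2 := by
    refine (min_le_left _ _).trans ?_
    have : X2 ≤ X2 / w2' * (K * w2) := by
      calc X2 = X2 / w2' * w2' := by field_simp
        _ ≤ _ := mul_le_mul_of_nonneg_left h2' (by linarith)
    calc 2 * (K * W * X2) ≤ 2 * (K * W * (X2 / w2' * (K * w2))) := by gcongr
      _ = 2 * K ^ 2 * W * ((X2 / w2') * w2) := by ring
      _ ≤ B * ((X2 / w2') * w2) := by
          refine mul_le_mul_of_nonneg_right ?_ (mul_nonneg (by linarith) hw2.le)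
          rw [hB]
          have : 0 ≤ K ^ 2 * W := by positivity
          linarith
      _ = _ := by ring
  have hcap : W * M * phC qm qp a w1 w2 (min (2 * (K * W * X0)) ρ)
      (min (2 * (K * W * (10 ^ 6 * w1'))) ρ) (min (2 * (K * W * X2)) ρ) ≤
      W * M * ((B * (X0 / a')) ^ (1 + qp 0) * B ^ (1 + qp 1) * (B * (X2 / w2')) ^ (1 + qp 2)) := by
    refine mul_le_mul_of_nonneg_left ?_ (by positivity)
    have w1p : 0 < 10 ^ 6 * w1' := p2.trans_le h21
    refine phC_wide hq ha0 hw1 hw2 (le_min (by positivity) hρ.le)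
      (le_min (by positivity) hρ.le) (le_min (by positivity) hρ.le) e0 e1 e2 ?_ hB1 ?_
    · exact one_le_mul_of_one_le_of_one_le hB1 q0
    · exact one_le_mul_of_one_le_of_one_le hB1 q2
  have hcount := box_cover (N := B) hρ (two1_dmx h) hf b h02 h21 hKW p0 (by
      have : W * a ≤ W * (K * X0) := by
        have := mul_le_mul_of_nonneg_left hX0 hK0.le
        exact mul_le_mul_of_nonneg_left (ha.trans this) hW0.le
      have h3 : 0 ≤ K * W * X0 := by positivity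
      calc r ≤ W * (K * X0) := hr.trans this
        _ = K * W * X0 := by ring
        _ ≤ _ := by linarith) hrρ hB1 (by
      have h3 : 10 ^ 6 * w1' / ρ ≤ 10 ^ 6 * (K * W) := by
        rw [div_le_iff₀ hρ]
        calc 10 ^ 6 * w1' ≤ 10 ^ 6 * (K * (W * ρ)) := by
              have := h1'.trans (mul_le_mul_of_nonneg_left h.w1ρ hK0.le)
              linarith
          _ = _ := by ring
      rw [hB]
      have : 0 ≤ K ^ 2 * W := by positivity
      linarith) hcap (by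
      have := (div_pos p0 a0').le
      have := (div_pos p2 w0').le
      positivity)
  have e6 : B ^ 6 * (W * M * ((B * (X0 / a')) ^ (1 + qp 0) * B ^ (1 + qp 1) *
      (B * (X2 / w2')) ^ (1 + qp 2))) = B ^ (6 : ℝ) * W * M *
        (B ^ (1 + qp 0) * B ^ (1 + qp 1) * B ^ (1 + qp 2)) *
          ((X0 / a') ^ (1 + qp 0) * (X2 / w2') ^ (1 + qp 2)) := by
    rw [Real.mul_rpow hB0.le (by linarith), Real.mul_rpow hB0.le (by linarith)]
    have : B ^ (6 : ℝ) = B ^ 6 := by exact_mod_cast Real.rpow_natCast B 6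
    rw [this]; ring
  refine (hcount.trans (le_of_eq e6)).trans ?_
  have hWB : W ≤ B ^ (1 : ℝ) := by
    rw [Real.rpow_one, hB]
    have : W ≤ K * W := le_mul_of_one_le_left hW0.le hK
    have : 0 ≤ K ^ 2 * W := by positivity
    linarith
  have hq1 : 0 ≤ (X0 / a') ^ (1 + qp 0) * (X2 / w2') ^ (1 + qp 2) := by
    have := (div_pos p0 a0').le
    have := (div_pos p2 w0').le
    positivity
  refine mul_le_mul_of_nonneg_right ?_ hq1
  calc B ^ (6 : ℝ) * W * M * (B ^ (1 + qp 0) * B ^ (1 + qp 1) * B ^ (1 + qp 2)) ≤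
        B ^ (6 : ℝ) * B ^ (1 : ℝ) * M * (B ^ (1 + qp 0) * B ^ (1 + qp 1) * B ^ (1 + qp 2)) := by
        gcongr
    _ = B ^ (6 : ℝ) * B ^ (1 : ℝ) * B ^ (1 + qp 0) * B ^ (1 + qp 1) * B ^ (1 + qp 2) * M := by ring
    _ = _ := by
        rw [← Real.rpow_add hB0, ← Real.rpow_add hB0, ← Real.rpow_add hB0, ← Real.rpow_add hB0]
        congr 2; ring

open Classical in
/-- the same for a subset of the lines, in the shape of the field `hull` of `TCore` -/
theorem two1_hull' (h : Two1 qm qp L P cu cv Uf Vf W M a w1 w2 z0 ρ r)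
    (hq : ∀ k, 0 ≤ qm k ∧ qm k ≤ qp k) (hrρ : r ≤ ρ) {K a' w1' w2' : ℝ} (hK : 1 ≤ K)
    (ha : a ≤ K * a') (ha' : a' ≤ K * a) (h1' : w1' ≤ K * w1) (h2 : w2 ≤ K * w2')
    (h2' : w2' ≤ K * w2) (a0' : 0 < a') (w0' : 0 < w2') {P' : Finset ℕ} (hP : P' ⊆ P) {W' : ℝ}
    (hW' : (4 * 10 ^ 6 * K ^ 2 * W) ^ (10 + (qp 0 + qp 1 + qp 2)) ≤ W') :
    ∀ (b : Ln4) (f : Fin 3 → V3) (X0 X2 : ℝ), Ortho f → a' ≤ X0 → w2' ≤ X2 → X0 ≤ X2 →
      X2 ≤ 10 ^ 6 * w1' →
      ((P'.filter fun t => InB (L t) b f ![X0, 10 ^ 6 * w1', X2] z0 ρ).card : ℝ) ≤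
        W' * M * ((X0 / a') ^ (1 + qp 0) * (X2 / w2') ^ (1 + qp 2)) := by
  intro b f X0 X2 hf hX0 hX2 h02 h21
  have h3 := two1_hull h hq hrρ hK ha ha' h1' h2 h2' a0' w0' (b := b) hf hX0 hX2 h02 h21
  have h4 : ((P'.filter fun t => InB (L t) b f ![X0, 10 ^ 6 * w1', X2] z0 ρ).card : ℝ) ≤
      ((P.filter fun t => InB (L t) b f ![X0, 10 ^ 6 * w1', X2] z0 ρ).card : ℝ) := by
    exact_mod_cast card_le_card (filter_subset_filter _ hP)
  have q0 : 0 ≤ X0 / a' := (div_pos (a0'.trans_le hX0) a0').le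
  have q2 : 0 ≤ X2 / w2' := (div_pos (w0'.trans_le hX2) w0').le
  have hM := h.M0
  refine (h4.trans h3).trans ?_
  gcongr

/-- the trivial case `ρ ≤ r` -/
theorem two1_triv (h : Two1 qm qp L P cu cv Uf Vf W M a w1 w2 z0 ρ r) (hne : P.Nonempty)
    (hr : ρ ≤ r) : w1 ≤ W ^ 2 * a := by
  have h1 := two1_r h hne
  have hW : 0 ≤ W := by linarith [h.W1]
  calc w1 ≤ W * ρ := h.w1ρ
    _ ≤ W * (W * a) := mul_le_mul_of_nonneg_left (hr.trans h1) hW
    _ = _ := by ring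

end

end Crest.Agent.R136.Hul565
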