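import Crest.Agent.R136.Plw2_102
import Crest.Agent.R136.Asm4_102
import Crest.Agent.R136.Eng3_904

/-!
# R136 (S0187), PLAN 2 wrapper: the facts at one incidence (helper846)

`inc_J1c` : helper102's structure `Inc` for all incidences of `J1c`, losses `d ^ -(Cw (v - u) + ε)`.
-/

set_option autoImplicit false
set_option linter.unusedVariables false

open Finset Filter Topology

namespace Crest.Agent.R136.Inc846

open Crest.Agent.R138.Ex926 (Base U)
open Crest.Agent.R138.Dp76 (Dense dpow_pos dpow_add dpow_le dpow_le_one)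
open Crest.Agent.R138.Mk163 (zc zl rho Negl)
open Crest.Agent.R136.MkA627
open Crest.Agent.R136.Sh605
open Crest.Agent.R136.K4 (Plk4)
open Crest.Agent.R136.Top484
open Crest.Agent.R136.Tlt51 (Shp InP mk4 zx rh)
open Crest.Agent.R136.Pl2W102

/-- cells of one point are nested -/
theorem cell_sub {i j : ℕ} (h : i ≤ j) (z : ℝ) : zl i (zc i z) ≤ zl j (zc j z) ∧
    zl j (zc j z) + rho j ≤ zl i (zc i z) + rho i := by
  have := Deep51.anc_sub h (zc j z)
  rwa [Deep51.anc_zc h] at this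

/-- a cell of level `i + 7` in its cell of level `i` -/
theorem short_sub {i : ℕ} {j J : ℤ} (h : j / 2 ^ 7 = J) : zl i J ≤ zl (i + 7) j ∧
    zl (i + 7) j + rho (i + 7) ≤ zl i J + rho i := by
  have h1 : J * 128 ≤ j ∧ j + 1 ≤ J * 128 + 128 := by
    have e : (2:ℤ) ^ 7 = 128 := by norm_num
    rw [e] at h
    omega
  have h1r : (J:ℝ) * 128 ≤ j := by exact_mod_cast h1.1
  have h2r : (j:ℝ) + 1 ≤ J * 128 + 128 := by exact_mod_cast h1.2
  unfold zl rho
  have p : (0:ℝ) < 2 ^ i := by positivity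
  rw [pow_add]
  have e7 : (2:ℝ) ^ 7 = 128 := by norm_num
  rw [e7, ← add_div, ← add_div, div_le_div_iff₀ p (by positivity),
    div_le_div_iff₀ (by positivity) p]
  constructor <;> nlinarith

theorem rho_short (i : ℕ) : rho i = 128 * rho (i + 7) := by
  unfold rho
  rw [pow_add]
  have p : (0:ℝ) < 2 ^ i := by positivity
  field_simp
  norm_num

/-- **the facts at one incidence** -/
theorem inc_J1c {η : ℝ} {p : Par4} {D : Dat4} (hJ : J1c η p D) : ∃ Cw : ℝ, 0 ≤ Cw ∧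
    ∀ (u v : ℚ) (jx : ℕ → ℕ × ℝ → ℤ), 0 ≤ u → u < v → v ≤ 1 →
      (∀ᶠ n in (U : Filter ℕ), ∀ x ∈ D.I n, jx n x / 2 ^ 7 = zc (D.lev n v) x.2) →
      ∀ ε : ℝ, 0 < ε → ∀ᶠ n in (U : Filter ℕ), ∀ x ∈ D.I n,
        Inc D n u v jx (D.B.d n ^ (-(Cw * ((v:ℝ) - u) + ε))) x := by
  obtain ⟨Cw, hCw⟩ : ∃ C : ℝ, C = |1 - p.θ 0| + |1 - p.θ 1| + |1 - p.θ 2| + 1 := ⟨_, rfl⟩
  have h0 := abs_nonneg (1 - p.θ 0)
  have h1 := abs_nonneg (1 - p.θ 1)
  have h2 := abs_nonneg (1 - p.θ 2)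
  have hK : ∀ k : Fin 3, |1 - p.θ k| ≤ Cw := by
    intro k
    fin_cases k
    · show |1 - p.θ 0| ≤ _
      linarith
    · show |1 - p.θ 1| ≤ _
      linarith
    · show |1 - p.θ 2| ≤ _
      linarith
  refine ⟨Cw, by linarith, ?_⟩
  intro u v jx hu huv hv hjx ε hε
  have huv' : (u:ℝ) < v := by exact_mod_cast huv
  have hv0 : 0 ≤ v := hu.trans huv.le
  have hu1 : u ≤ 1 := huv.le.trans hv
  have ha : |(u:ℝ) - v| = v - u := by rw [abs_sub_comm]; exact abs_of_pos (by linarith)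
  have ha' : |(v:ℝ) - u| = v - u := abs_of_pos (by linarith)
  have hW : ∀ k : Fin 3, ∀ᶠ n in (U : Filter ℕ),
      D.w k n u ≤ D.B.d n ^ (-(Cw * ((v:ℝ) - u) + ε)) * D.w k n v ∧
      D.w k n v ≤ D.B.d n ^ (-(Cw * ((v:ℝ) - u) + ε)) * D.w k n u := by
    intro k
    filter_upwards [Eng904.w_ratio hJ.mka k hu hu1 hv0 hv (hK k) hε,
      Eng904.w_ratio hJ.mka k hv0 hv hu hu1 (hK k) hε] with n k1 k2
    rw [ha] at k1
    rw [ha'] at k2
    exact ⟨k1, k2⟩
  filter_upwards [Tl102.J1_mark hJ hu hu1, Tl102.J1_mark hJ hv0 hv, hW 0, hW 1, hW 2,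
    Tl102.J1_rho hJ hu huv.le hv hε, hJ.mka.lev_mono u v hu huv.le hv, hjx]
    with n k1 k2 k3 k4 k5 k6 k7 k8 x hx
  obtain ⟨a1, a2, a3⟩ := k1 x hx
  obtain ⟨b1, b2, b3⟩ := k2 x hx
  obtain ⟨c1, c2⟩ := cell_sub k7 x.2
  obtain ⟨s1, s2⟩ := short_sub (k8 x hx)
  have hrr : rho (D.lev n u) ≤ D.B.d n ^ (-(Cw * ((v:ℝ) - u) + ε)) * rho (D.lev n v) := by
    have hp := dpow_pos D.B n ((v:ℝ) - u + ε)
    have e1 : rho (D.lev n u) ≤ D.B.d n ^ (-((v:ℝ) - u + ε)) * rho (D.lev n v) := by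
      have := mul_le_mul_of_nonneg_left k6 (dpow_pos D.B n (-((v:ℝ) - u + ε))).le
      rwa [← mul_assoc, ← dpow_add, neg_add_cancel, Real.rpow_zero, one_mul] at this
    refine e1.trans (mul_le_mul_of_nonneg_right (dpow_le D.B n ?_) ?_)
    · have : 1 * ((v:ℝ) - u) ≤ Cw * (v - u) :=
        mul_le_mul_of_nonneg_right (by linarith) (by linarith)
      linarith
    · unfold rho; positivity
  exact ⟨a2, b2, a1, b1, a3, b3, c1, c2, hrr, s1, s2, rho_short _, fun k => by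
    fin_cases k
    · exact k3
    · exact k4
    · exact k5⟩

end Crest.Agent.R136.Inc846
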