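import Crest.Agent.R136.Plw1_102
import Crest.Agent.R136.Pl2Def_860

/-!
# R136 (S0187), PLAN 2 (tilt without deep levels): from finite theorems to negligible sets (helper102)

* `typU_sub` : the typical facts over a sub-cell;
* `TwoAt` : literal of helper904's `two1_seq`;
* `negl_ft` : a finite theorem over `Two1` gives a negligible set.
-/

set_option autoImplicit false
set_option linter.unusedVariables false

open Finset Filter Topology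

namespace Crest.Agent.R136.Pl2W102

open Crest.Agent.R138.Ex926 (Base U)
open Crest.Agent.R138.Dp76 (Dense dpow_pos dpow_add dpow_le dpow_le_one)
open Crest.Agent.R138.Mk163 (zc zl rho Negl)
open Crest.Agent.R138.ArgM163 (ev_const log_dpow)
open Crest.Agent.R136.MkA627
open Crest.Agent.R136.Sh605
open Crest.Agent.R136.Tl102
open Crest.Agent.R136.Deep51 (CloseC)
open Crest.Agent.R136.K4 (Plk4)
open Crest.Agent.R136.Top484
open Crest.Agent.R136.Tlt51 (Shp InP mk4 zx rh TiltOKC)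
open Crest.Agent.R136.KapP335
open Crest.Agent.R136.Cps605
open Crest.Agent.R136.Pl2 (TypU TypP kp rot2)

/-- the typical facts over a sub-cell -/
theorem typU_sub {K : ℝ} {S : Plk4} {T : Ln4} {z0 ρ z1 ρ1 r B δ W W0 a : ℝ} (hr : 0 < r)
    (hρ : 0 < ρ) (h1 : z1 ≤ z0) (h1' : z0 + ρ ≤ z1 + ρ1) (hS : Shp S z1 ρ1 r) (hT : InP T S z1 ρ1)
    (hB : 1 ≤ B) (hb1 : ρ1 ≤ B * ρ) (hδ : 0 < δ) (hδ1 : δ ≤ 1) (hW0 : 1 ≤ W0)
    (haa : S.a ≤ W0 * a)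
    (hdet : δ⁻¹ * S.a < kapP S z1 ρ1 T → DetP δ S z1 ρ1 T ∧ Ty δ S T z1 ρ1)
    (hW : 10 ^ 5 * (B ^ 2 * W0) ≤ δ * W) : TypU K W a S T z0 ρ := by
  have hw0 : 0 < S.w 0 := hr.trans_le (hS.r0_le.trans hS.a_le0)
  have ha : 0 < S.a := hr.trans_le hS.r0_le
  have hρ1 : 0 < ρ1 := by linarith
  have hB0 : 0 < B := by linarith
  have hW00 : 0 < W0 := by linarith
  have ha0 : 0 < a := by
    by_contra hc
    push Not at hc
    have := mul_nonpos_of_nonneg_of_nonpos hW00.le hc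
    linarith
  have hBW : B ≤ B ^ 2 * W0 := by
    have h2 : B * 1 ≤ B * B := mul_le_mul_of_nonneg_left hB hB0.le
    have h3 : B ^ 2 * 1 ≤ B ^ 2 * W0 := mul_le_mul_of_nonneg_left hW0 (by positivity)
    nlinarith
  have hB1 : 1 ≤ B ^ 2 * W0 := hB.trans hBW
  have hWBB : W0 ≤ B ^ 2 * W0 := by
    have : 1 * W0 ≤ B ^ 2 * W0 := mul_le_mul_of_nonneg_right (by nlinarith) hW00.le
    linarith
  have hWpos : 0 < W := by
    by_contra hc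
    push Not at hc
    have : δ * W ≤ 0 := mul_nonpos_of_nonneg_of_nonpos hδ.le hc
    linarith
  have r1 : B⁻¹ ≤ ρ / ρ1 := by
    rw [le_div_iff₀ hρ1, inv_mul_le_iff₀ hB0]; exact hb1
  -- curvature of the own cell
  have key : W * a ≤ kapP S z0 ρ T → DetP W⁻¹ S z0 ρ T ∧ Ty W⁻¹ S T z0 ρ := by
    intro hk
    have k4 : kapP S z0 ρ T ≤ 40 * kapP S z1 ρ1 T := kapP_le hr hρ h1 h1' hS hT
    have hbig : δ⁻¹ * S.a < kapP S z1 ρ1 T := by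
      rw [inv_mul_lt_iff₀ hδ]
      have e1 : 10 ^ 5 * (B ^ 2 * W0) * a ≤ δ * W * a := mul_le_mul_of_nonneg_right hW ha0.le
      have e2 : δ * (W * a) ≤ δ * (40 * kapP S z1 ρ1 T) :=
        mul_le_mul_of_nonneg_left (hk.trans k4) hδ.le
      have e3 : W0 * a ≤ B ^ 2 * W0 * a := mul_le_mul_of_nonneg_right hWBB ha0.le
      have e4 : 0 < W0 * a := mul_pos hW00 ha0
      nlinarith
    obtain ⟨hd, ht⟩ := hdet hbig
    have hκ : 0 < kapP S z1 ρ1 T := lt_of_le_of_lt (by positivity) hbig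
    obtain ⟨k1, k2, k3⟩ := kapP_sub hr hρ h1 h1' hS hT hκ hd
    have hWδ : 10 ^ 5 * (B ^ 2 * W0) / δ ≤ W := by
      rw [div_le_iff₀ hδ]; linarith
    have hB2 : B ^ 2 ≤ B ^ 2 * W0 := le_mul_of_one_le_right (by positivity) hW0
    have hWd : W⁻¹ ≤ (B⁻¹) ^ 2 / 40 ^ 3 * δ := by
      rw [inv_pow, inv_le_iff_one_le_mul₀ hWpos, div_mul_eq_mul_div, div_mul_eq_mul_div,
        le_div_iff₀ (by norm_num), mul_assoc, ← div_eq_inv_mul, le_div_iff₀ (by positivity)]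
      nlinarith
    have hWt : W⁻¹ ≤ B⁻¹ * δ / 160 := by
      rw [inv_le_iff_one_le_mul₀ hWpos, div_mul_eq_mul_div, le_div_iff₀ (by norm_num), mul_assoc,
        ← div_eq_inv_mul, le_div_iff₀ hB0]
      nlinarith
    constructor
    · refine k3.mono (hWd.trans ?_)
      have : (B⁻¹) ^ 2 ≤ (ρ / ρ1) ^ 2 := pow_le_pow_left₀ (by positivity) r1 2
      gcongr
    · refine (ty_sub hr hρ h1 h1' hS hT k1 hδ.le ht).mono (hWt.trans ?_)
      gcongr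
  refine ⟨fun h => (key h).1, fun h _ => ?_⟩
  have h2 := (key h).2 _ _ _ (expP_spec hS.isQ hw0.ne' z0 ρ T)
  unfold rot2
  rw [one_div]
  exact h2

/-! ### sequences -/

/-- linear functions of `log (1/d)` with a larger slope win -/
theorem ev_lin (B : Base) {x y K : ℝ} (h : y < x) :
    ∀ᶠ n in (U : Filter ℕ), K + y * B.L n < x * B.L n := by
  filter_upwards [B.ev_L_ge (K / (x - y) + 1)] with n hn
  have hxy : 0 < x - y := by linarith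
  have : K / (x - y) < B.L n := by linarith
  rw [div_lt_iff₀ hxy] at this
  linarith

/-- a constant times a smaller power -/
theorem ev_pow (B : Base) {x y K : ℝ} (hK : 0 < K) (h : y < x) :
    ∀ᶠ n in (U : Filter ℕ), K * B.d n ^ (-y) ≤ B.d n ^ (-x) := by
  filter_upwards [ev_lin B (K := Real.log K) h] with n hn
  rw [← Real.log_le_log_iff (mul_pos hK (dpow_pos _ _ _)) (dpow_pos _ _ _),
    Real.log_mul hK.ne' (dpow_pos _ _ _).ne', log_dpow, log_dpow]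
  linarith

/-- a part which is not negligible is dense -/
theorem dense_of_not_negl {B : Base} {I : ℕ → Finset (ℕ × ℝ)} {P : ℕ → ℕ × ℝ → Prop}
    (h : ¬ Negl B I P) : ∃ J : ℕ → Finset (ℕ × ℝ), Dense B J I ∧ ∀ n, ∀ x ∈ J n, P n x := by
  classical
  refine ⟨fun n => (I n).filter (P n), ⟨Eventually.of_forall fun n => filter_subset _ _, ?_⟩,
    fun n x hx => (mem_filter.1 hx).2⟩
  intro γ hγ
  by_contra hcon
  refine h ⟨γ, hγ, ?_⟩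
  rw [← Ultrafilter.eventually_not] at hcon
  filter_upwards [hcon] with n hn
  exact (not_le.1 hn).le.trans' (by exact_mod_cast card_le_card (fun x hx => by
    rw [mem_filter] at hx ⊢; exact hx))

theorem Dense.remove {B : Base} {I J : ℕ → Finset (ℕ × ℝ)} {P : ℕ → ℕ × ℝ → Prop}
    (h : Dense B J I) (hP : Negl B I P) : ∃ J' : ℕ → Finset (ℕ × ℝ), Dense B J' I ∧
      ∀ n, ∀ x ∈ J' n, x ∈ J n ∧ ¬ P n x := by
  classical
  have h1 := Crest.Agent.R138.Mk163.Negl.compl (Crest.Agent.R138.Mk163.Negl.dense hP h)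
  refine ⟨_, h1.trans h, fun n x hx => mem_filter.1 hx⟩

/-- curvature extent of the mark over its own cell -/
noncomputable def kpm (D : Dat4) (n : ℕ) (b : ℚ) (x : ℕ × ℝ) : ℝ :=
  kapP (mk4 D n b x) (zx D n b x) (rh D n b) (D.L n x.1)

/-- curved incidences which are degenerate (0) -/
def DegAt (D : Dat4) (ε : ℝ) (b : ℚ) (n : ℕ) (x : ℕ × ℝ) : Prop :=
  D.B.d n ^ (-ε) * (mk4 D n b x).a < kpm D n b x ∧
    ¬ DetP (D.B.d n ^ ε) (mk4 D n b x) (zx D n b x) (rh D n b) (D.L n x.1)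

/-- left end of the cell of level `lev m + 7` chosen for the incidence -/
noncomputable def zs (D : Dat4) (m : ℚ) (jx : ℕ → ℕ × ℝ → ℤ) (n : ℕ) (x : ℕ × ℝ) : ℝ :=
  zl (D.lev n m + 7) (jx n x)

/-- its length -/
noncomputable def rs (D : Dat4) (m : ℚ) (n : ℕ) : ℝ := rho (D.lev n m + 7)

/-- the marks of the levels `b` and `c` of one incidence and a common cell `[z, z + ρ]` -/
structure Pair (D : Dat4) (n : ℕ) (b c : ℚ) (B z ρ : ℝ) (x : ℕ × ℝ) : Prop where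
  shp : Shp (mk4 D n b x) (zx D n b x) (rh D n b) (D.r0 n)
  shp' : Shp (mk4 D n c x) (zx D n c x) (rh D n c) (D.r0 n)
  inp : InP (D.L n x.1) (mk4 D n b x) (zx D n b x) (rh D n b)
  inp' : InP (D.L n x.1) (mk4 D n c x) (zx D n c x) (rh D n c)
  z1 : zx D n b x ≤ z
  z1' : z + ρ ≤ zx D n b x + rh D n b
  z2 : zx D n c x ≤ z
  z2' : z + ρ ≤ zx D n c x + rh D n c
  rb : rh D n b ≤ B * ρ
  rc : rh D n c ≤ B * ρ
  a : (mk4 D n b x).a = D.w 0 n b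
  w1 : (mk4 D n b x).w 1 = D.w 1 n b
  w2 : (mk4 D n b x).w 2 = D.w 2 n b

theorem Pair.of_le {D : Dat4} {n : ℕ} {b c : ℚ} {B B' z ρ : ℝ} {x : ℕ × ℝ}
    (h : Pair D n b c B z ρ x) (hB : B ≤ B') (hρ : 0 ≤ ρ) : Pair D n b c B' z ρ x :=
  ⟨h.shp, h.shp', h.inp, h.inp', h.z1, h.z1', h.z2, h.z2',
    h.rb.trans (mul_le_mul_of_nonneg_right hB hρ), h.rc.trans (mul_le_mul_of_nonneg_right hB hρ),
    h.a, h.w1, h.w2⟩

/-- the marks of the levels `u < v` of an incidence, the cells and the short cell -/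
structure Inc (D : Dat4) (n : ℕ) (u v : ℚ) (jx : ℕ → ℕ × ℝ → ℤ) (B : ℝ) (x : ℕ × ℝ) : Prop where
  su : Shp (mk4 D n u x) (zx D n u x) (rh D n u) (D.r0 n)
  sv : Shp (mk4 D n v x) (zx D n v x) (rh D n v) (D.r0 n)
  iu : InP (D.L n x.1) (mk4 D n u x) (zx D n u x) (rh D n u)
  iv : InP (D.L n x.1) (mk4 D n v x) (zx D n v x) (rh D n v)
  au : (mk4 D n u x).a = D.w 0 n u ∧ (mk4 D n u x).w 1 = D.w 1 n u ∧ (mk4 D n u x).w 2 = D.w 2 n u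
  av : (mk4 D n v x).a = D.w 0 n v ∧ (mk4 D n v x).w 1 = D.w 1 n v ∧ (mk4 D n v x).w 2 = D.w 2 n v
  z1 : zx D n u x ≤ zx D n v x
  z2 : zx D n v x + rh D n v ≤ zx D n u x + rh D n u
  rr : rh D n u ≤ B * rh D n v
  s1 : zx D n v x ≤ zs D v jx n x
  s2 : zs D v jx n x + rs D v n ≤ zx D n v x + rh D n v
  s3 : rh D n v = 128 * rs D v n
  cw : ∀ k, D.w k n u ≤ B * D.w k n v ∧ D.w k n v ≤ B * D.w k n u

theorem rs_pos (D : Dat4) (m : ℚ) (n : ℕ) : 0 < rs D m n := by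
  unfold rs Crest.Agent.R138.Mk163.rho; positivity

/-- **literal of helper904's `two7_seq`**, `m` = finer one of the two levels -/
def TwoAt (qm qp : Fin 3 → ℝ) (C : ℝ) (D : Dat4) (m : ℚ) (jx : ℕ → ℕ × ℝ → ℤ) (b c : ℚ) : Prop :=
  ∀ ε : ℝ, 0 < ε → ∀ J : ℕ → Finset (ℕ × ℝ), Dense D.B J D.I → ∀ᶠ n in (U : Filter ℕ),
    ∃ (j : ℤ) (P : Finset ℕ) (cu cv : ℕ → ℕ) (M a w1 w2 : ℝ), P.Nonempty ∧
      Two7 qm qp (D.L n) P cu cv (D.b n b) (D.b n c) (D.B.d n ^ (-(C * |(b:ℝ) - c| + ε)))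
        M a w1 w2 (zl (D.lev n m + 7) j) (rho (D.lev n m + 7)) (zl (D.lev n m) (j / 2 ^ 7))
        (rho (D.lev n m)) (D.r0 n) ∧
      ∀ t ∈ P, ∃ x ∈ J n, x.1 = t ∧ jx n x = j ∧
        D.b n b (cu t) = mk4 D n b x ∧ D.b n c (cv t) = mk4 D n c x

/-- curved incidences of type II -/
def RotAt (D : Dat4) (ε : ℝ) (b : ℚ) (n : ℕ) (x : ℕ × ℝ) : Prop :=
  D.B.d n ^ (-ε) * (mk4 D n b x).a < kpm D n b x ∧
    ¬ Ty (D.B.d n ^ ε) (mk4 D n b x) (D.L n x.1) (zx D n b x) (rh D n b)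

/-- properties of two sheets, a line, dimensions and a cell, with a loss `E` -/
abbrev PropE := ℝ → Plk4 → Plk4 → Ln4 → ℝ → ℝ → ℝ → ℝ → ℝ → Prop

/-- stable under changes of the dimensions and of the loss -/
def Stab (H : PropE) : Prop := ∀ (E E' W : ℝ) (S S' : Plk4) (T : Ln4)
  (a w1 w2 a' w1' w2' z0 ρ r : ℝ), 1 ≤ W → 0 < E → E * W ^ 2 ≤ E' → 0 < a → 0 < w1 → 0 < w2 →
    0 < a' → 0 < w1' → 0 < w2' → Near W a a' → Near W w1 w1' → Near W w2 w2' →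
    0 < r → Shp S z0 ρ r → Shp S' z0 ρ r → H E S S' T a w1 w2 z0 ρ →
    H E' S S' T a' w1' w2' z0 ρ

/-- the property for the marks of levels `b`, `c` of an incidence, over the short cell -/
def At (H : PropE) (D : Dat4) (m : ℚ) (jx : ℕ → ℕ × ℝ → ℤ) (b c : ℚ) (E : ℝ) (n : ℕ)
    (x : ℕ × ℝ) : Prop :=
  H E (mk4 D n b x) (mk4 D n c x) (D.L n x.1) (D.w 0 n b) (D.w 1 n b) (D.w 2 n b)
    (zs D m jx n x) (rs D m n)

/-- over the short cell the mark of level `b` is curved, and more curved than the one of level `c` -/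
def Curv (D : Dat4) (m : ℚ) (jx : ℕ → ℕ × ℝ → ℤ) (b c : ℚ) (E : ℝ) (n : ℕ) (x : ℕ × ℝ) : Prop :=
  E * D.w 0 n b ≤ kp (mk4 D n b x) (zs D m jx n x) (rs D m n) (D.L n x.1) ∧
    kp (mk4 D n c x) (zs D m jx n x) (rs D m n) (D.L n x.1) ≤
      kp (mk4 D n b x) (zs D m jx n x) (rs D m n) (D.L n x.1)

/-- a finite theorem -/
def FT (H Q : PropE) (qm qp : Fin 3 → ℝ) (K0 C : ℝ) : Prop :=
  ∀ (L : ℕ → Ln4) (P : Finset ℕ) (cu cv : ℕ → ℕ) (Uf Vf : ℕ → Plk4)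
    (W M a w1 w2 z0 ρ zL ρL r : ℝ),
    Two7 qm qp L P cu cv Uf Vf W M a w1 w2 z0 ρ zL ρL r → ρL ≤ 128 * ρ → P.Nonempty →
    (∀ t ∈ P, TypP ((2 * W) ^ K0) W a (Uf (cu t)) (Vf (cv t)) (L t) z0 ρ) →
    (∀ t ∈ P, H W (Uf (cu t)) (Vf (cv t)) (L t) a w1 w2 z0 ρ) →
    ∃ t ∈ P, Q ((2 * W) ^ C) (Uf (cu t)) (Vf (cv t)) (L t) a w1 w2 z0 ρ

theorem dp_mul (B : Base) (n : ℕ) (a b : ℝ) : B.d n ^ (-a) * B.d n ^ (-b) = B.d n ^ (-(a + b)) := by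
  rw [← dpow_add]; congr 1; ring

set_option maxHeartbeats 1000000 in
/-- **a finite theorem gives a negligible set** -/
theorem negl_ft {H Q : PropE} {qm qp : Fin 3 → ℝ} {K0 C : ℝ} (hFT : FT H Q qm qp K0 C)
    (hC : 0 ≤ C) (hK0 : 0 ≤ K0) (sH : Stab H) (sQ : Stab Q) {D : Dat4} {m b c : ℚ}
    {jx : ℕ → ℕ × ℝ → ℤ} {Cw C2 ε yH yb y1 y : ℝ}
    (hε : 0 < ε) (hr0 : ∀ n, 0 < D.r0 n) (hCw : 0 ≤ Cw) (hC2 : 0 ≤ C2)
    (hw : ∀ k, ∀ᶠ n in (U : Filter ℕ), 0 < D.w k n b)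
    (hpair : ∀ᶠ n in (U : Filter ℕ), ∀ x ∈ D.I n,
      Pair D n b c (D.B.d n ^ (-(Cw * |(b:ℝ) - c| + ε))) (zs D m jx n x) (rs D m n) x)
    (hTwo : TwoAt qm qp C2 D m jx b c)
    (hnd : Negl D.B D.I (DegAt D ε b)) (hnd' : Negl D.B D.I (DegAt D ε c))
    (hro : Negl D.B D.I (RotAt D ε b)) (hro' : Negl D.B D.I (RotAt D ε c))
    (hyH : 0 ≤ yH)
    (hy1 : 2 * (Cw * |(b:ℝ) - c| + ε) + (C2 * |(b:ℝ) - c| + ε) + ε < y1)
    (hy1' : yH + 2 * (C2 * |(b:ℝ) - c| + ε) ≤ y1)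
    (hyb : K0 * y1 + (C2 * |(b:ℝ) - c| + ε) < yb)
    (hy : C * y1 + 2 * (C2 * |(b:ℝ) - c| + ε) < y) :
    Negl D.B D.I fun n x => Curv D m jx b c (D.B.d n ^ (-yb)) n x ∧
      At H D m jx b c (D.B.d n ^ (-yH)) n x ∧ ¬ At Q D m jx b c (D.B.d n ^ (-y)) n x := by
  have hδ : 0 ≤ |(b:ℝ) - c| := abs_nonneg _
  set δ := |(b:ℝ) - c| with hδd
  have hy10 : 0 < y1 := by
    have : 0 ≤ Cw * δ := by positivity
    have : 0 ≤ C2 * δ := by positivity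
    linarith
  have hy20 : 0 < C2 * δ + ε := by positivity
  have hyw0 : 0 < Cw * δ + ε := by positivity
  by_contra hcon
  obtain ⟨J0, hJ0, h0⟩ := dense_of_not_negl hcon
  obtain ⟨J1, hJ1, h1⟩ := Dense.remove hJ0 hnd
  obtain ⟨J2, hJ2, h2⟩ := Dense.remove hJ1 hnd'
  obtain ⟨J3, hJ3, h3⟩ := Dense.remove hJ2 hro
  obtain ⟨J4, hJ4, h4⟩ := Dense.remove hJ3 hro'
  have V1 : ∀ᶠ n in (U : Filter ℕ), 10 ^ 5 *
      D.B.d n ^ (-(2 * (Cw * δ + ε) + (C2 * δ + ε) + ε)) ≤ D.B.d n ^ (-y1) :=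
    ev_pow D.B (by norm_num) hy1
  have V2 : ∀ᶠ n in (U : Filter ℕ), (2:ℝ) ^ C *
      D.B.d n ^ (-(C * y1 + 2 * (C2 * δ + ε))) ≤ D.B.d n ^ (-y) :=
    ev_pow D.B (by positivity) hy
  have V3 : ∀ᶠ n in (U : Filter ℕ), (2:ℝ) ^ K0 *
      D.B.d n ^ (-(K0 * y1 + (C2 * δ + ε))) ≤ D.B.d n ^ (-yb) :=
    ev_pow D.B (by positivity) hyb
  obtain ⟨n, hpn, ⟨j, P, cu, cv, M, a, w1, w2, hP, hT, hx⟩, v1, v2, v3, hJI, hw0, hw1, hw2⟩ :=
    (hpair.and ((hTwo ε hε J4 hJ4).and (V1.and (V2.and (V3.and (hJ4.1.and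
      ((hw 0).and ((hw 1).and (hw 2))))))))).exists
  have dle1 : D.B.d n ^ ε ≤ 1 := dpow_le_one D.B n hε.le
  have dp := dpow_pos D.B n
  have e1 : ∀ {z : ℝ}, 0 ≤ z → 1 ≤ D.B.d n ^ (-z) := by
    intro z hz
    have := dpow_le D.B n (show -z ≤ 0 by linarith)
    rwa [Real.rpow_zero] at this
  -- the new `W`
  have hWW : D.B.d n ^ (-(C2 * δ + ε)) ≤ D.B.d n ^ (-y1) := by
    refine dpow_le D.B n ?_
    have : 0 ≤ Cw * δ := by positivity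
    linarith
  have hT' := hT.mono hWW
  have hT1 := hT.to1
  have hWn : 10 ^ 5 * ((D.B.d n ^ (-(Cw * δ + ε))) ^ 2 * D.B.d n ^ (-(C2 * δ + ε))) ≤
      D.B.d n ^ ε * D.B.d n ^ (-y1) := by
    have g1 : (D.B.d n ^ (-(Cw * δ + ε))) ^ 2 * D.B.d n ^ (-(C2 * δ + ε)) =
        D.B.d n ^ ε * D.B.d n ^ (-(2 * (Cw * δ + ε) + (C2 * δ + ε) + ε)) := by
      rw [sq, ← dpow_add, ← dpow_add, ← dpow_add]; congr 1; ring
    rw [g1]
    calc _ = D.B.d n ^ ε * (10 ^ 5 * D.B.d n ^ (-(2 * (Cw * δ + ε) + (C2 * δ + ε) + ε))) := by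
          ring
      _ ≤ _ := mul_le_mul_of_nonneg_left v1 (dp _).le
  -- facts at the lines of `P`
  have hρ : rs D m n = rho (D.lev n m + 7) := rfl
  have bad : ∀ t ∈ P, ∃ x ∈ J4 n, x.1 = t ∧ zs D m jx n x = zl (D.lev n m + 7) j ∧
      D.b n b (cu t) = mk4 D n b x ∧ D.b n c (cv t) = mk4 D n c x ∧
      Curv D m jx b c (D.B.d n ^ (-yb)) n x ∧
      At H D m jx b c (D.B.d n ^ (-yH)) n x ∧ ¬ At Q D m jx b c (D.B.d n ^ (-y)) n x := by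
    intro t ht
    obtain ⟨x, hxJ, x1, x2, x3, x4⟩ := hx t ht
    exact ⟨x, hxJ, x1, by unfold zs; rw [x2], x3, x4,
      h0 n x ((h1 n x (h2 n x (h3 n x (h4 n x hxJ).1).1).1).1)⟩
  have typ1 : ∀ t ∈ P, TypU ((2 * D.B.d n ^ (-y1)) ^ K0) (D.B.d n ^ (-y1)) a (D.b n b (cu t))
      (D.L n t) (zl (D.lev n m + 7) j) (rho (D.lev n m + 7)) := by
    intro t ht
    obtain ⟨x, hxJ, x1, x2, x3, x4, -⟩ := bad t ht
    obtain ⟨y3, n4⟩ := h4 n x hxJ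
    obtain ⟨y2, n3⟩ := h3 n x y3
    obtain ⟨yy1, n2⟩ := h2 n x y2
    obtain ⟨yy0, n1⟩ := h1 n x yy1
    have pr := hpn x (hJI hxJ)
    obtain ⟨d1, -, -⟩ := hT1.dimU t ht
    rw [x3] at d1 ⊢
    rw [← x2, ← hρ, ← x1]
    refine typU_sub (W0 := D.B.d n ^ (-(C2 * δ + ε))) (hr0 n) (by rw [hρ]; exact hT1.ρ0) pr.z1
      pr.z1' pr.shp pr.inp (e1 hyw0.le) pr.rb (dp ε) dle1 (e1 hy20.le) d1.2 ?_ hWn
    intro hk
    rw [show (D.B.d n ^ ε)⁻¹ = D.B.d n ^ (-ε) from (Real.rpow_neg (D.B.pos n).le _).symm] at hk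
    constructor
    · by_contra hc; exact n1 ⟨hk, hc⟩
    · by_contra hc; exact n3 ⟨hk, hc⟩
  have typ2 : ∀ t ∈ P, TypU ((2 * D.B.d n ^ (-y1)) ^ K0) (D.B.d n ^ (-y1)) a (D.b n c (cv t))
      (D.L n t) (zl (D.lev n m + 7) j) (rho (D.lev n m + 7)) := by
    intro t ht
    obtain ⟨x, hxJ, x1, x2, x3, x4, -⟩ := bad t ht
    obtain ⟨y3, n4⟩ := h4 n x hxJ
    obtain ⟨y2, n3⟩ := h3 n x y3
    obtain ⟨yy1, n2⟩ := h2 n x y2
    have pr := hpn x (hJI hxJ)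
    obtain ⟨d1, -, -⟩ := hT1.dimV t ht
    rw [x4] at d1 ⊢
    rw [← x2, ← hρ, ← x1]
    refine typU_sub (W0 := D.B.d n ^ (-(C2 * δ + ε))) (hr0 n) (by rw [hρ]; exact hT1.ρ0) pr.z2
      pr.z2' pr.shp' pr.inp' (e1 hyw0.le) pr.rc (dp ε) dle1 (e1 hy20.le) d1.2 ?_ hWn
    intro hk
    rw [show (D.B.d n ^ ε)⁻¹ = D.B.d n ^ (-ε) from (Real.rpow_neg (D.B.pos n).le _).symm] at hk
    constructor
    · by_contra hc; exact n2 ⟨hk, hc⟩
    · by_contra hc; exact n4 ⟨hk, hc⟩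
  have nr : ∀ t ∈ P, ∀ x ∈ J4 n, D.b n b (cu t) = mk4 D n b x →
      Near (D.B.d n ^ (-(C2 * δ + ε))) a (D.w 0 n b) ∧
      Near (D.B.d n ^ (-(C2 * δ + ε))) w1 (D.w 1 n b) ∧
      Near (D.B.d n ^ (-(C2 * δ + ε))) w2 (D.w 2 n b) := by
    intro t ht x hxJ x3
    have pr := hpn x (hJI hxJ)
    have := hT1.dimU t ht
    rw [x3, pr.a, pr.w1, pr.w2] at this
    exact this
  have typ : ∀ t ∈ P, TypP ((2 * D.B.d n ^ (-y1)) ^ K0) (D.B.d n ^ (-y1)) a (D.b n b (cu t))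
      (D.b n c (cv t)) (D.L n t) (zl (D.lev n m + 7) j) (rho (D.lev n m + 7)) := by
    intro t ht
    obtain ⟨x, hxJ, x1, x2, x3, x4, ⟨c1, c2⟩, -⟩ := bad t ht
    obtain ⟨k1, -, -⟩ := nr t ht x hxJ x3
    rw [x2, hρ, x1, ← x3] at c1
    rw [x2, hρ, x1, ← x3, ← x4] at c2
    refine ⟨le_trans ?_ c1, c2, typ1 t ht, typ2 t ht⟩
    calc (2 * D.B.d n ^ (-y1)) ^ K0 * a
        ≤ (2 * D.B.d n ^ (-y1)) ^ K0 * (D.B.d n ^ (-(C2 * δ + ε)) * D.w 0 n b) :=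
          mul_le_mul_of_nonneg_left k1.1 (Real.rpow_nonneg (by have := dp (-y1); linarith) _)
      _ = (2:ℝ) ^ K0 * D.B.d n ^ (-(K0 * y1 + (C2 * δ + ε))) * D.w 0 n b := by
          rw [Real.mul_rpow (by norm_num) (dp _).le, ← Real.rpow_mul (D.B.pos n).le]
          rw [show -(K0 * y1 + (C2 * δ + ε)) = -y1 * K0 + -(C2 * δ + ε) by ring, dpow_add]
          ring
      _ ≤ _ := mul_le_mul_of_nonneg_right v3 hw0.le
  have hyp : ∀ t ∈ P, H (D.B.d n ^ (-y1)) (D.b n b (cu t)) (D.b n c (cv t)) (D.L n t) a w1 w2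
      (zl (D.lev n m + 7) j) (rho (D.lev n m + 7)) := by
    intro t ht
    obtain ⟨x, hxJ, x1, x2, x3, x4, -, x5, -⟩ := bad t ht
    obtain ⟨k1, k2, k3⟩ := nr t ht x hxJ x3
    unfold At at x5
    rw [x2, hρ, x1, ← x3, ← x4] at x5
    refine sH _ _ _ _ _ _ _ _ _ _ _ _ _ _ _ hT1.W1 (dp _) ?_ hw0 hw1 hw2 hT1.a0 hT1.w10
      hT1.w20 k1.symm k2.symm k3.symm hT1.r0 (hT1.shU t ht) (hT1.shV t ht) x5
    rw [sq, ← dpow_add, ← dpow_add]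
    exact dpow_le D.B n (by linarith)
  have h128 : rho (D.lev n m) ≤ 128 * rho (D.lev n m + 7) := by
    unfold Crest.Agent.R138.Mk163.rho
    rw [pow_add]
    have : (0:ℝ) < 2 ^ D.lev n m := by positivity
    rw [← mul_div_assoc, div_le_div_iff₀ this (by positivity)]
    nlinarith
  obtain ⟨t, ht, hQ⟩ := hFT _ _ _ _ _ _ _ _ _ _ _ _ _ _ _ _ hT' h128 hP typ hyp
  obtain ⟨x, hxJ, x1, x2, x3, x4, -, -, x6⟩ := bad t ht
  obtain ⟨k1, k2, k3⟩ := nr t ht x hxJ x3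
  apply x6
  unfold At
  rw [x2, hρ, x1, ← x3, ← x4]
  have hd1 : 0 < 2 * D.B.d n ^ (-y1) := by have := dp (-y1); linarith
  refine sQ _ _ _ _ _ _ _ _ _ _ _ _ _ _ _ hT1.W1 (Real.rpow_pos_of_pos hd1 C) ?_ hT1.a0
    hT1.w10 hT1.w20 hw0 hw1 hw2 k1 k2 k3 hT1.r0 (hT1.shU t ht) (hT1.shV t ht) hQ
  refine le_trans (le_of_eq ?_) v2
  rw [Real.mul_rpow (by norm_num) (dp _).le, ← Real.rpow_mul (D.B.pos n).le, sq, ← dpow_add,
    mul_assoc, ← dpow_add]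
  congr 2; ring

end Crest.Agent.R136.Pl2W102
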