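import Mathlib

/-!
# R136 (U4, PLAN 2): pruning of fibres (helper904)
-/

set_option autoImplicit false
set_option linter.unusedVariables false
set_option maxHeartbeats 400000

open Finset

namespace Crest.Agent.R136.Eng904

/-- a large set contains a set all of whose fibres of two labels are large -/
theorem prune2 {ι α β : Type*} [DecidableEq α] [DecidableEq β] {P : Finset ι} (f : ι → α) (g : ι → β) {s t : ℝ}
    (hs : 0 ≤ s) (ht : 0 ≤ t)
    (h : ((P.image f).card : ℝ) * s + ((P.image g).card : ℝ) * t < P.card) :
    ∃ Q ⊆ P, Q.Nonempty ∧ (∀ o ∈ Q, s ≤ ((Q.filter fun y => f y = f o).card : ℝ)) ∧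
      (∀ o ∈ Q, t ≤ ((Q.filter fun y => g y = g o).card : ℝ)) := by
  set φ : Finset ι → ℝ := fun Q => (Q.card : ℝ) - ((Q.image f).card : ℝ) * s -
    ((Q.image g).card : ℝ) * t with hφ
  obtain ⟨Q, hQ, hmax⟩ := exists_max_image P.powerset φ ⟨P, mem_powerset_self P⟩
  rw [mem_powerset] at hQ
  have hpos : 0 < φ Q := by
    refine lt_of_lt_of_le ?_ (hmax P (mem_powerset_self P))
    simp only [hφ]; linarith
  have hne : Q.Nonempty := by
    rw [nonempty_iff_ne_empty]
    rintro rfl
    simp [hφ] at hpos
  refine ⟨Q, hQ, hne, fun o ho => ?_, fun o ho => ?_⟩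
  · by_contra hcon
    push Not at hcon
    have h1 := hmax (Q.filter fun y => ¬ f y = f o) (mem_powerset.2 ((filter_subset _ _).trans hQ))
    have h2 : ((Q.filter fun y => f y = f o).card : ℝ) + ((Q.filter fun y => ¬ f y = f o).card : ℝ)
        = Q.card := by exact_mod_cast card_filter_add_card_filter_not (s := Q) (fun y => f y = f o)
    have h3 : (((Q.filter fun y => ¬ f y = f o).image f).card : ℝ) + 1 ≤ ((Q.image f).card : ℝ) := by
      have h4 : ((Q.filter fun y => ¬ f y = f o).image f) ⊆ (Q.image f).erase (f o) := by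
        intro z hz
        obtain ⟨y, hy, rfl⟩ := mem_image.1 hz
        rw [mem_filter] at hy
        exact mem_erase.2 ⟨hy.2, mem_image_of_mem f hy.1⟩
      have h5 := card_le_card h4
      have h6 := card_erase_add_one (mem_image_of_mem f ho)
      have h7 : ((Q.filter fun y => ¬ f y = f o).image f).card + 1 ≤ (Q.image f).card := by omega
      exact_mod_cast h7
    have h4 : (((Q.filter fun y => ¬ f y = f o).image g).card : ℝ) ≤ ((Q.image g).card : ℝ) := by
      exact_mod_cast card_le_card (image_subset_image (filter_subset _ _))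
    simp only [hφ] at h1
    have h5 := mul_le_mul_of_nonneg_right h3 hs
    have h6 := mul_le_mul_of_nonneg_right h4 ht
    linarith
  · by_contra hcon
    push Not at hcon
    have h1 := hmax (Q.filter fun y => ¬ g y = g o) (mem_powerset.2 ((filter_subset _ _).trans hQ))
    have h2 : ((Q.filter fun y => g y = g o).card : ℝ) + ((Q.filter fun y => ¬ g y = g o).card : ℝ)
        = Q.card := by exact_mod_cast card_filter_add_card_filter_not (s := Q) (fun y => g y = g o)
    have h3 : (((Q.filter fun y => ¬ g y = g o).image g).card : ℝ) + 1 ≤ ((Q.image g).card : ℝ) := by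
      have h4 : ((Q.filter fun y => ¬ g y = g o).image g) ⊆ (Q.image g).erase (g o) := by
        intro z hz
        obtain ⟨y, hy, rfl⟩ := mem_image.1 hz
        rw [mem_filter] at hy
        exact mem_erase.2 ⟨hy.2, mem_image_of_mem g hy.1⟩
      have h5 := card_le_card h4
      have h6 := card_erase_add_one (mem_image_of_mem g ho)
      have h7 : ((Q.filter fun y => ¬ g y = g o).image g).card + 1 ≤ (Q.image g).card := by omega
      exact_mod_cast h7
    have h4 : (((Q.filter fun y => ¬ g y = g o).image f).card : ℝ) ≤ ((Q.image f).card : ℝ) := by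
      exact_mod_cast card_le_card (image_subset_image (filter_subset _ _))
    simp only [hφ] at h1
    have h5 := mul_le_mul_of_nonneg_right h3 ht
    have h6 := mul_le_mul_of_nonneg_right h4 hs
    linarith

/-- number of labels all of whose fibres are large -/
theorem labels_le {ι α : Type*} [DecidableEq α] {P : Finset ι} (f : ι → α) {s : ℝ}
    (h : ∀ o ∈ P, s ≤ ((P.filter fun y => f y = f o).card : ℝ)) :
    ((P.image f).card : ℝ) * s ≤ P.card := by
  have e : (P.card : ℝ) = ∑ z ∈ P.image f, ((P.filter fun y => f y = z).card : ℝ) := by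
    rw [card_eq_sum_card_image f P]; push_cast; rfl
  rw [e]
  calc ((P.image f).card : ℝ) * s = ∑ z ∈ P.image f, s := by rw [sum_const, nsmul_eq_mul]
    _ ≤ _ := by
        refine sum_le_sum fun z hz => ?_
        obtain ⟨o, ho, rfl⟩ := mem_image.1 hz
        exact h o ho

end Crest.Agent.R136.Eng904
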