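import Mathlib
import Crest.Agent.R136.Two1_904
import Crest.Agent.R136.Eng1_904

/-!
# R136 (U4, PLAN 2): one cell (helper904)
-/

set_option autoImplicit false
set_option linter.unusedVariables false
set_option maxHeartbeats 400000

open Finset

namespace Crest.Agent.R136.Eng904

open Crest.Agent.R136.Deep51

/-- number of pairs (class, cell) -/
theorem pairs_le {P : Finset (ℕ × ℤ)} {le lv : ℕ} (f : ℕ → ℤ → ℕ) :
    (P.image fun o => (clQ le lv f o, o.2)).card ≤ (P.image (clQ le lv f)).card * 2 ^ (lv - le) := by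
  have e := card_eq_sum_card_fiberwise (s := P.image fun o => (clQ le lv f o, o.2))
    (t := P.image (clQ le lv f)) (f := Prod.fst) (by
      intro x hx
      obtain ⟨o, ho, rfl⟩ := mem_image.1 hx
      exact mem_image_of_mem _ ho)
  rw [e]
  refine (Finset.sum_le_card_nsmul _ _ (2 ^ (lv - le)) fun r _ => ?_).trans
    (le_of_eq (by rw [smul_eq_mul]))
  set E := (P.image fun o => (clQ le lv f o, o.2)).filter fun x => x.1 = r with hE
  have h1 : E.card = (E.image Prod.snd).card := by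
    rw [card_image_of_injOn]
    intro a ha c hc hac
    rw [Finset.mem_coe, hE, mem_filter] at ha hc
    exact Prod.ext (ha.2.trans hc.2.symm) hac
  rw [h1]
  refine card_anc (i := le) (m := lv) _ r.1 fun k hk => ?_
  obtain ⟨y, hy, rfl⟩ := mem_image.1 hk
  rw [hE, mem_filter] at hy
  obtain ⟨o, ho, rfl⟩ := mem_image.1 hy.1
  have := hy.2
  simp only at this
  rw [← this]
  rfl

/-- **one cell with large classes of both systems** -/
theorem one_fin {P : Finset (ℕ × ℤ)} {lb lc lv : ℕ} (fb fc : ℕ → ℤ → ℕ) {Nb Nc K : ℝ}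
    (hNb : 0 ≤ Nb) (hNc : 0 ≤ Nc) (hK : 0 < K) (hP : P.Nonempty)
    (hb : ∀ o ∈ P, (2:ℝ) ^ (lv - lb) * Nb ≤ K *
      ((P.filter fun y => clQ lb lv fb y = clQ lb lv fb o).card : ℝ))
    (hc : ∀ o ∈ P, (2:ℝ) ^ (lv - lc) * Nc ≤ K *
      ((P.filter fun y => clQ lc lv fc y = clQ lc lv fc o).card : ℝ)) :
    ∃ (j : ℤ) (Q : Finset ℕ), Q.Nonempty ∧ (∀ t ∈ Q, (t, j) ∈ P) ∧
      (∀ t ∈ Q, Nb ≤ 4 * K *
        ((Q.filter fun s => fb s (anc lb lv j) = fb t (anc lb lv j)).card : ℝ)) ∧
      (∀ t ∈ Q, Nc ≤ 4 * K *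
        ((Q.filter fun s => fc s (anc lc lv j) = fc t (anc lc lv j)).card : ℝ)) := by
  have hPc : (0:ℝ) < P.card := by exact_mod_cast card_pos.2 hP
  have key : ∀ (f : ℕ → ℤ → ℕ) (le : ℕ) (N : ℝ), 0 ≤ N →
      (∀ o ∈ P, (2:ℝ) ^ (lv - le) * N ≤ K *
        ((P.filter fun y => clQ le lv f y = clQ le lv f o).card : ℝ)) →
      ((P.image fun o => (clQ le lv f o, o.2)).card : ℝ) * (N / (4 * K)) ≤ P.card / 4 := by
    intro f le N hN h
    have h1 : ((P.image (clQ le lv f)).card : ℝ) * ((2:ℝ) ^ (lv - le) * N / K) ≤ P.card := by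
      refine labels_le (clQ le lv f) fun o ho => ?_
      rw [div_le_iff₀ hK]
      have h0 := h o ho
      linarith
    have h2 : ((P.image fun o => (clQ le lv f o, o.2)).card : ℝ) ≤
        (P.image (clQ le lv f)).card * 2 ^ (lv - le) := by exact_mod_cast pairs_le f
    have h3 := mul_le_mul_of_nonneg_right h2 (show 0 ≤ N / (4 * K) by positivity)
    refine h3.trans ?_
    have e : ((P.image (clQ le lv f)).card : ℝ) * 2 ^ (lv - le) * (N / (4 * K)) =
        ((P.image (clQ le lv f)).card : ℝ) * ((2:ℝ) ^ (lv - le) * N / K) / 4 := by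
      field_simp
    rw [e]
    linarith
  have kb := key fb lb Nb hNb hb
  have kc := key fc lc Nc hNc hc
  obtain ⟨Q, hQP, ⟨o0, ho0⟩, q1, q2⟩ := prune2 (P := P) (fun o => (clQ lb lv fb o, o.2))
    (fun o => (clQ lc lv fc o, o.2)) (s := Nb / (4 * K)) (t := Nc / (4 * K)) (by positivity)
    (by positivity) (by linarith)
  have hcl : ∀ (f : ℕ → ℤ → ℕ) (le : ℕ) (N : ℝ),
      (∀ o ∈ Q, N / (4 * K) ≤ ((Q.filter fun y => ((clQ le lv f y, y.2) : (ℤ × ℕ) × ℤ) =
        (clQ le lv f o, o.2)).card : ℝ)) →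
      ∀ t ∈ (Q.filter fun o => o.2 = o0.2).image Prod.fst, N ≤ 4 * K *
        ((((Q.filter fun o => o.2 = o0.2).image Prod.fst).filter fun s =>
          f s (anc le lv o0.2) = f t (anc le lv o0.2)).card : ℝ) := by
    intro f le N h t ht
    obtain ⟨o, ho, rfl⟩ := mem_image.1 ht
    rw [mem_filter] at ho
    have h1 := h o ho.1
    rw [div_le_iff₀ (by positivity), mul_comm] at h1
    refine h1.trans (mul_le_mul_of_nonneg_left ?_ (by positivity))
    have h2 : (Q.filter fun y => ((clQ le lv f y, y.2) : (ℤ × ℕ) × ℤ) = (clQ le lv f o, o.2)).card =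
        ((Q.filter fun y => ((clQ le lv f y, y.2) : (ℤ × ℕ) × ℤ) =
          (clQ le lv f o, o.2)).image Prod.fst).card := by
      rw [card_image_of_injOn]
      intro a ha c hc hac
      rw [Finset.mem_coe, mem_filter] at ha hc
      have e1 := congrArg Prod.snd ha.2
      have e2 := congrArg Prod.snd hc.2
      simp only at e1 e2
      exact Prod.ext hac (e1.trans e2.symm)
    rw [h2]
    have h3 : ((Q.filter fun y => ((clQ le lv f y, y.2) : (ℤ × ℕ) × ℤ) =
          (clQ le lv f o, o.2)).image Prod.fst) ⊆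
        (((Q.filter fun o => o.2 = o0.2).image Prod.fst).filter fun s =>
          f s (anc le lv o0.2) = f o.1 (anc le lv o0.2)) := by
      intro s hs
      obtain ⟨y, hy, rfl⟩ := mem_image.1 hs
      rw [mem_filter] at hy
      have e1 := congrArg Prod.snd hy.2
      have e2 := congrArg Prod.fst hy.2
      simp only at e1 e2
      have e3 : y.2 = o0.2 := e1.trans ho.2
      refine mem_filter.2 ⟨mem_image_of_mem _ (mem_filter.2 ⟨hy.1, e3⟩), ?_⟩
      have e4 := congrArg Prod.snd e2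
      unfold clQ at e4
      simp only at e4
      rw [e3, ho.2] at e4
      exact e4
    exact_mod_cast card_le_card h3
  refine ⟨o0.2, (Q.filter fun o => o.2 = o0.2).image Prod.fst,
    ⟨o0.1, mem_image_of_mem _ (mem_filter.2 ⟨ho0, rfl⟩)⟩, fun t ht => ?_, hcl fb lb Nb q1,
    hcl fc lc Nc q2⟩
  obtain ⟨o, ho, rfl⟩ := mem_image.1 ht
  rw [mem_filter] at ho
  have : (o.1, o0.2) = o := Prod.ext rfl ho.2.symm
  rw [this]
  exact hQP ho.1

end Crest.Agent.R136.Eng904
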