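import Mathlib
import Crest.Agent.R136.Eng2_904
import Crest.Agent.R136.Two2_904

/-!
# R136 (U4, PLAN 2): one cell with large classes of both systems (helper904)
-/

set_option autoImplicit false
set_option linter.unusedVariables false
set_option maxHeartbeats 400000

open Finset Filter Topology

namespace Crest.Agent.R136.Eng904

open Crest.Agent.R138.Ex926 Crest.Agent.R138.Dp76
open Crest.Agent.R138.Mk163 (zc zl rho alive own)
open Crest.Agent.R138.MkRef627 (lc)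
open Crest.Agent.R136.MkA627 (Geo MkA ampA fib_bounds)
open Crest.Agent.R136.Dia770 (extO)
open Crest.Agent.R136.Deep51

variable {σ κ : Type*} {B : Base} {I : ℕ → Finset (ℕ × ℝ)} {G : Geo σ κ} {lev : ℕ → ℚ → ℕ}
    {A : ℕ → ℝ} {c Λ : ℝ → ℝ} {τ : κ → ℝ → ℝ} {f : ℕ → ℚ → ℕ → ℤ → ℕ} {b : ℕ → ℚ → ℕ → σ}
    {vm : ℕ → ℚ → ℝ} {w : κ → ℕ → ℚ → ℝ}

theorem par_self (l : ℕ) (o : ℕ × ℤ) : par l l o = o := by
  unfold par anc
  simp

open Classical in
/-- **ENGINE without deep levels** -/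
theorem engine0 (h : MkA B I G lev A c Λ τ f b vm w) (hΛ : ∀ v, Λ v = 0)
    {u v : ℚ} (hu : 0 ≤ u) (huv : u ≤ v) (hv : v ≤ 1)
    {J : ℕ → Finset (ℕ × ℝ)} (hJ : Dense B J I) {ε : ℝ} (hε : 0 < ε) :
    ∀ᶠ n in (U : Filter ℕ), ∃ P : Finset (ℕ × ℤ), P.Nonempty ∧
      (∀ o ∈ P, ∃ x ∈ J n, lc (lev n v) x = o ∧ lc (lev n u) x = par (lev n u) (lev n v) o) ∧
      (∀ o ∈ P, (2:ℝ) ^ (lev n v - lev n v) * (ampA B A c n v * vm n v) ≤ B.d n ^ (-ε) *
        ((P.filter fun y => clQ (lev n v) (lev n v) (f n v) y =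
          clQ (lev n v) (lev n v) (f n v) o).card : ℝ)) ∧
      (∀ o ∈ P, (2:ℝ) ^ (lev n v - lev n u) * (ampA B A c n u * vm n u) ≤ B.d n ^ (-ε) *
        ((P.filter fun y => clQ (lev n u) (lev n v) (f n u) y =
          clQ (lev n u) (lev n v) (f n u) o).card : ℝ)) := by
  have hv0 : 0 ≤ v := hu.trans huv
  have hu1 : u ≤ 1 := huv.trans hv
  have hmv : ∀ᶠ n in (U : Filter ℕ), lev n v ≤ lev n v := Eventually.of_forall fun n => le_rfl
  set e : ℝ := ε / 8 with he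
  have he0 : 0 < e := by positivity
  have he1 : e ≤ ε / 8 := le_rfl
  have hJne : ∀ᶠ n in (U : Filter ℕ), (J n).Nonempty := by
    filter_upwards [hJ.2 1 one_pos, h.ne] with n h1 h2
    rw [← card_pos]
    have h3 : (0:ℝ) < (I n).card := by exact_mod_cast card_pos.2 h2
    have h4 := mul_pos (dpow_pos B n 1) h3
    exact_mod_cast h4.trans_le h1
  filter_upwards [hJ.1, hJne, h.lev_mono u v hu huv hv, h.lev_mono v 1 hv0 hv le_rfl,
    h.one, hJ.2 e he0, own_topc h hΛ hv0 hv he0, own_topc h hΛ hu hu1 he0,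
    fib_any h hΛ hv0 hv hmv he0, h.near v hv0 hv e he0, h.near u hu hu1 e he0,
    ev_small B he0 (K := 1 / 12) (by norm_num)] with
    n a1 a2 a3 a4 a7 a9 a10 a11 a13 a14 a15 a19
  have hde := dpow_pos B n e
  have hde' := dpow_pos B n (-e)
  have hd1' : (1:ℝ) ≤ B.d n ^ (-e) :=
    Real.one_le_rpow_of_pos_of_le_one_of_nonpos (B.pos n) (B.lt n).le (by linarith)
  have hone : B.d n ^ e * B.d n ^ (-e) = 1 := by rw [← dpow_add]; simp
  obtain ⟨P, b1, b2, b3, b4, b5, b6⟩ := engine_fin (I := I n) (J := J n) (lu := lev n u)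
    (lv := lev n v) (l1 := lev n 1) (m2 := lev n v) (m := lev n v) a1 a2 a3 a4 le_rfl le_rfl a7
    (f n u) (f n v)
    (X := B.d n ^ (-e)) (Y := B.d n ^ (-e)) (Nu := B.d n ^ e * (ampA B A c n u * vm n u))
    (Nv := B.d n ^ e * (ampA B A c n v * vm n v)) (η := 0) hd1' hd1'
    le_rfl (by rw [zero_mul]; norm_num)
    (by
      have h5 := mul_le_mul_of_nonneg_left a9 hde'.le
      calc ((I n).card : ℝ) = B.d n ^ (-e) * (B.d n ^ e * ((I n).card : ℝ)) := by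
            rw [← mul_assoc, mul_comm (B.d n ^ (-e)), hone, one_mul]
        _ ≤ _ := h5)
    a10 a11 a13 a13
    (by
      intro J' t ht
      have h5 := mul_le_mul_of_nonneg_left (a14 J' t ht) hde.le
      refine h5.trans (le_of_eq ?_)
      rw [← mul_assoc, hone, one_mul])
    (by
      intro J' t ht
      have h5 := mul_le_mul_of_nonneg_left (a15 J' t ht) hde.le
      refine h5.trans (le_of_eq ?_)
      rw [← mul_assoc, hone, one_mul])
    (P1 := extO (J n) (lev n 1) (lev n v)) (P2 := extO (J n) (lev n 1) (lev n v)) subset_rfl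
    subset_rfl
    (by
      have : (0:ℝ) ≤ 1 / 4 * ((extO (J n) (lev n 1) (lev n v)).card : ℝ) := by positivity
      linarith)
    (by rw [zero_mul, add_zero])
  -- constants
  have hK : 12 * (B.d n ^ (-e)) ^ 2 * B.d n ^ (-e) ≤ B.d n ^ (-(4 * e)) := by
    have h5 : (12:ℝ) ≤ B.d n ^ (-e) := by
      rw [Real.rpow_neg (B.pos n).le, le_inv_comm₀ (by norm_num) hde]
      rw [one_div] at a19; exact a19
    have e1 : B.d n ^ (-(4 * e)) = B.d n ^ (-e) * (B.d n ^ (-e)) ^ 2 * B.d n ^ (-e) := by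
      rw [← Real.rpow_natCast (B.d n ^ (-e)) 2, ← Real.rpow_mul (B.pos n).le, ← dpow_add,
        ← dpow_add]
      congr 1; push_cast; ring
    rw [e1]
    gcongr
  have fin : ∀ {a p N : ℝ}, 0 ≤ p → a * (B.d n ^ e * N) ≤ 12 * (B.d n ^ (-e)) ^ 2 * B.d n ^ (-e) * p →
      a * N ≤ B.d n ^ (-ε) * p := by
    intro a p N hp hh
    have h5 := mul_le_mul_of_nonneg_left hh hde'.le
    have e2 : B.d n ^ (-e) * (a * (B.d n ^ e * N)) = a * N := by
      calc B.d n ^ (-e) * (a * (B.d n ^ e * N)) = (B.d n ^ e * B.d n ^ (-e)) * (a * N) := by ring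
        _ = _ := by rw [hone, one_mul]
    rw [e2] at h5
    refine h5.trans ?_
    rw [← mul_assoc]
    refine mul_le_mul_of_nonneg_right ?_ hp
    calc B.d n ^ (-e) * (12 * (B.d n ^ (-e)) ^ 2 * B.d n ^ (-e))
        ≤ B.d n ^ (-e) * B.d n ^ (-(4 * e)) := mul_le_mul_of_nonneg_left hK hde'.le
      _ = B.d n ^ (-(5 * e)) := by rw [← dpow_add]; congr 1; ring
      _ ≤ _ := Real.rpow_le_rpow_of_exponent_ge (B.pos n) (B.lt n).le (by linarith)
  refine ⟨P, b1, fun o ho => ?_, fun o ho => fin (Nat.cast_nonneg _) (b4 o ho),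
    fun o ho => fin (Nat.cast_nonneg _) (b5 o ho)⟩
  have h5 := b2 ho
  obtain ⟨x, hx, hx1⟩ := Dia770.extO_anc a4 le_rfl h5
  have h7 : lc (lev n v) x = o := by
    have : lc (lev n v) x = par (lev n v) (lev n v) o := hx1
    rw [this, par_self]
  refine ⟨x, hx, h7, ?_⟩
  have h6 : lc (lev n u) x = (x.1, anc (lev n u) (lev n v) (zc (lev n v) x.2)) := by
    rw [anc_zc a3]; rfl
  rw [h6, ← h7]
  rfl

/-- **one cell**: large classes of the marks of the levels `b`, `c` in a cell of level `max b c`. -/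
theorem cell0 (h : MkA B I G lev A c Λ τ f b vm w) (hΛ : ∀ v, Λ v = 0)
    {e1 e2 : ℚ} (h10 : 0 ≤ e1) (h11 : e1 ≤ 1) (h20 : 0 ≤ e2) (h21 : e2 ≤ 1)
    {J : ℕ → Finset (ℕ × ℝ)} (hJ : Dense B J I) {ε : ℝ} (hε : 0 < ε) :
    ∀ᶠ n in (U : Filter ℕ), ∃ (j : ℤ) (Q : Finset ℕ), Q.Nonempty ∧
      (∀ t ∈ Q, ∃ x ∈ J n, x.1 = t ∧ zc (lev n (max e1 e2)) x.2 = j ∧
        zc (lev n e1) x.2 = anc (lev n e1) (lev n (max e1 e2)) j ∧
        zc (lev n e2) x.2 = anc (lev n e2) (lev n (max e1 e2)) j) ∧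
      (∀ t ∈ Q, ampA B A c n e1 * vm n e1 ≤ B.d n ^ (-ε) * ((Q.filter fun s =>
        f n e1 s (anc (lev n e1) (lev n (max e1 e2)) j) =
          f n e1 t (anc (lev n e1) (lev n (max e1 e2)) j)).card : ℝ)) ∧
      (∀ t ∈ Q, ampA B A c n e2 * vm n e2 ≤ B.d n ^ (-ε) * ((Q.filter fun s =>
        f n e2 s (anc (lev n e2) (lev n (max e1 e2)) j) =
          f n e2 t (anc (lev n e2) (lev n (max e1 e2)) j)).card : ℝ)) := by
  classical
  have hu0 : 0 ≤ min e1 e2 := le_min h10 h20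
  have hv1 : max e1 e2 ≤ 1 := max_le h11 h21
  have huv : min e1 e2 ≤ max e1 e2 := min_le_max
  have hv0 : 0 ≤ max e1 e2 := hu0.trans huv
  filter_upwards [engine0 h hΛ hu0 huv hv1 hJ (show 0 < ε / 2 by positivity),
    h.lev_mono e1 _ h10 (le_max_left _ _) hv1, h.lev_mono e2 _ h20 (le_max_right _ _) hv1,
    h.vpos e1 h10 h11, h.vpos e2 h20 h21,
    ev_small B (show 0 < ε / 2 by positivity) (K := 1 / 4) (by norm_num)] with n z1 z2 z3 z4 z5 z6
  obtain ⟨P, p1, p2, p3, p4⟩ := z1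
  obtain ⟨q3, q4⟩ : (∀ o ∈ P, (2:ℝ) ^ (lev n (max e1 e2) - lev n e1) *
        (ampA B A c n e1 * vm n e1) ≤ B.d n ^ (-(ε / 2)) *
        ((P.filter fun y => clQ (lev n e1) (lev n (max e1 e2)) (f n e1) y =
          clQ (lev n e1) (lev n (max e1 e2)) (f n e1) o).card : ℝ)) ∧
      (∀ o ∈ P, (2:ℝ) ^ (lev n (max e1 e2) - lev n e2) *
        (ampA B A c n e2 * vm n e2) ≤ B.d n ^ (-(ε / 2)) *
        ((P.filter fun y => clQ (lev n e2) (lev n (max e1 e2)) (f n e2) y =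
          clQ (lev n e2) (lev n (max e1 e2)) (f n e2) o).card : ℝ)) := by
    rcases le_total e1 e2 with hle | hle
    · rw [max_eq_right hle] at *
      rw [min_eq_left hle] at *
      exact ⟨p4, p3⟩
    · rw [max_eq_left hle] at *
      rw [min_eq_right hle] at *
      exact ⟨p3, p4⟩
  have hamp : ∀ e : ℚ, 0 ≤ ampA B A c n e := by
    intro e
    unfold Crest.Agent.R136.MkA627.ampA
    exact mul_nonneg (h.Apos n).le (dpow_pos B n _).le
  obtain ⟨j, Q, r1, r2, r3, r4⟩ := one_fin (f n e1) (f n e2)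
    (mul_nonneg (hamp e1) z4.le) (mul_nonneg (hamp e2) z5.le) (dpow_pos B n (-(ε / 2))) p1 q3 q4
  have hde := dpow_pos B n (ε / 2)
  have hK : 4 * B.d n ^ (-(ε / 2)) ≤ B.d n ^ (-ε) := by
    have h5 : (4:ℝ) ≤ B.d n ^ (-(ε / 2)) := by
      rw [Real.rpow_neg (B.pos n).le, le_inv_comm₀ (by norm_num) hde]
      rw [one_div] at z6; exact z6
    have e1 : B.d n ^ (-ε) = B.d n ^ (-(ε / 2)) * B.d n ^ (-(ε / 2)) := by
      rw [← dpow_add]; congr 1; ring
    rw [e1]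
    exact mul_le_mul_of_nonneg_right h5 (dpow_pos B n _).le
  refine ⟨j, Q, r1, fun t ht => ?_, fun t ht => (r3 t ht).trans
    (mul_le_mul_of_nonneg_right hK (Nat.cast_nonneg _)), fun t ht => (r4 t ht).trans
    (mul_le_mul_of_nonneg_right hK (Nat.cast_nonneg _))⟩
  obtain ⟨x, hx, hx1, hx2⟩ := p2 _ (r2 t ht)
  simp only [lc, Prod.mk.injEq] at hx1
  refine ⟨x, hx, hx1.1, hx1.2, ?_, ?_⟩
  · rw [← hx1.2, anc_zc z2]
  · rw [← hx1.2, anc_zc z3]

end Crest.Agent.R136.Eng904
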