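import Mathlib
import Crest.Agent.R136.Two3_904
import Crest.Agent.R136.EngM_904
import Crest.Agent.R136.Pl2W_102
import Crest.Agent.R136.DAl_879

/-!
# R136 (U4, PLAN 2): two systems of marks in one cell (helper904)

`two1_seqM` : the data `Pl2W102.Two1` from a dense part of the incidences, D-max at the marked levels
only.
-/

set_option autoImplicit false
set_option linter.unusedVariables false
set_option maxHeartbeats 400000

open Finset Filter Topology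

namespace Crest.Agent.R136.Eng904

open Crest.Agent.R138.Ex926 Crest.Agent.R138.Dp76
open Crest.Agent.R138.Mk163 (zc zl rho alive own)
open Crest.Agent.R138.MkRef627 (lc)
open Crest.Agent.R136.MkA627 (Geo MkA ampA fib_bounds)
open Crest.Agent.R136.Deep51 Crest.Agent.R136.Tlt51 Crest.Agent.R136.Top484
open Crest.Agent.R136.Sh605 Crest.Agent.R136.K4
open Crest.Agent.R136.Pl2W102 (Near Two1)
open Crest.Agent.R136.Phc248 (phC phC_nonneg)
open Crest.Agent.R136.DAl879 (vmk DAll)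

/-- the sub-cell in its ancestor -/
theorem sub_cell {i m : ℕ} (h : i ≤ m) (j : ℤ) :
    zl i (anc i m j) ≤ zl m j ∧ zl m j + rho m ≤ zl i (anc i m j) + rho i := by
  obtain ⟨h1, h2⟩ := (anc_eq (i := i) (m := m) (j := j) (J := anc i m j)).1 rfl
  have e : (2:ℝ) ^ m = 2 ^ (m - i) * 2 ^ i := by rw [← pow_add]; congr 1; omega
  have p1 : (0:ℝ) < 2 ^ (m - i) := by positivity
  have p2 : (0:ℝ) < 2 ^ i := by positivity
  have h1' : (2:ℝ) ^ (m - i) * (anc i m j : ℝ) ≤ j := by exact_mod_cast h1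
  have h2' : (j : ℝ) + 1 ≤ (2:ℝ) ^ (m - i) * ((anc i m j : ℝ) + 1) := by
    have : j + 1 ≤ 2 ^ (m - i) * (anc i m j + 1) := h2
    exact_mod_cast this
  unfold Crest.Agent.R138.Mk163.zl Crest.Agent.R138.Mk163.rho
  constructor
  · rw [e, div_le_div_iff₀ p2 (by positivity)]
    have := mul_le_mul_of_nonneg_right h1' p2.le
    linarith
  · rw [← add_div, ← add_div, e, div_le_div_iff₀ (by positivity) p2]
    have := mul_le_mul_of_nonneg_right h2' p2.le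
    linarith

theorem shp_in {S : Plk4} {z0 ρ z1 ρ1 r : ℝ} (h : Shp S z1 ρ1 r) (h0 : z1 ≤ z0)
    (h1 : z0 + ρ ≤ z1 + ρ1) : Shp S z0 ρ r :=
  { ortho := h.ortho
    isQ := h.isQ
    a_le0 := h.a_le0
    w0_le := h.w0_le
    w_le := h.w_le
    r0_le := h.r0_le
    st0 := fun z a b => h.st0 z (h0.trans a) (b.trans h1)
    sl1 := fun z a b => h.sl1 z (h0.trans a) (b.trans h1)
    sl2 := fun z a b => h.sl2 z (h0.trans a) (b.trans h1) }

theorem inP_in {S : Plk4} {t : Ln4} {z0 ρ z1 ρ1 : ℝ} (h : InP t S z1 ρ1) (h0 : z1 ≤ z0)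
    (h1 : z0 + ρ ≤ z1 + ρ1) : InP t S z0 ρ :=
  fun z a b => h z (h0.trans a) (b.trans h1)

/-- size of the marks of two levels -/
theorem vmk_le {q : Fin 3 → ℝ} (hq : ∀ k, 0 ≤ q k) {ρ ρ' X : ℝ} {w w' : Fin 3 → ℝ} (hX : 1 ≤ X)
    (hρ : 0 < ρ) (hρ' : 0 < ρ') (hw : ∀ k, 0 < w k) (hw' : ∀ k, 0 < w' k)
    (h1 : ∀ k, w' k ≤ X * w k) (h2 : ρ ≤ X * ρ') :
    vmk q ρ' (w' 0) (w' 1) (w' 2) ≤ X ^ (3 + 2 * (q 0 + q 1 + q 2)) *
      vmk q ρ (w 0) (w 1) (w 2) := by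
  have hX0 : 0 < X := by linarith
  have hr : ∀ k, w' k / ρ' ≤ X ^ (2:ℝ) * (w k / ρ) := by
    intro k
    rw [div_le_iff₀ hρ']
    have h3 : w k / ρ * ρ ≤ w k / ρ * (X * ρ') :=
      mul_le_mul_of_nonneg_left h2 (div_pos (hw k) hρ).le
    rw [div_mul_cancel₀ _ hρ.ne'] at h3
    have h4 := mul_le_mul_of_nonneg_left h3 hX0.le
    have e : X ^ (2:ℝ) = X * X := by
      rw [show (2:ℝ) = ((2:ℕ):ℝ) by norm_num, Real.rpow_natCast]; ring
    rw [e]
    calc w' k ≤ X * w k := h1 k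
      _ ≤ X * (w k / ρ * (X * ρ')) := h4
      _ = _ := by ring
  have h := valr_le hq hρ hρ' (hw 0) (hw 1) (hw 2) (hw' 0).le (hw' 1).le (hw' 2).le hX0.le hX0.le
    hX0.le (Real.rpow_nonneg hX0.le _) (Real.rpow_nonneg hX0.le _) (Real.rpow_nonneg hX0.le _)
    (h1 0) (h1 1) (h1 2) (hr 0) (hr 1) (hr 2)
  have e : X * X * X * ((X ^ (2:ℝ)) ^ q 0 * (X ^ (2:ℝ)) ^ q 1 * (X ^ (2:ℝ)) ^ q 2) =
      X ^ (3 + 2 * (q 0 + q 1 + q 2)) := by
    have e3 : X * X * X = X ^ (3:ℝ) := by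
      rw [show (3:ℝ) = ((3:ℕ):ℝ) by norm_num, Real.rpow_natCast]; ring
    rw [e3, ← Real.rpow_mul hX0.le, ← Real.rpow_mul hX0.le, ← Real.rpow_mul hX0.le,
      ← Real.rpow_add hX0, ← Real.rpow_add hX0, ← Real.rpow_add hX0]
    congr 1; ring
  rw [e] at h
  exact h

variable {η : ℝ} {p : Par4} {D : Dat4}

/-- size of the classes at the level `v` -/
noncomputable def cls (p : Par4) (D : Dat4) (n : ℕ) (v : ℚ) : ℝ :=
  D.A n * D.B.d n ^ (-(p.g * v)) * vmk p.q (rho (D.lev n v)) (D.w 0 n v) (D.w 1 n v) (D.w 2 n v)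

open Classical in
/-- **two systems of marks in one cell** -/
theorem two1_seqE (hmka : MkD p D) (hq : ∀ k, 0 ≤ p.q k) (hg : 0 ≤ p.g) (hr0 : ∀ n, 0 < D.r0 n)
    (hlog : ∀ ε : ℝ, 0 < ε → ∀ᶠ n in (U : Filter ℕ), Real.log (1 / D.r0 n) ≤ D.B.d n ^ (-ε))
    (hvel : ∀ᶠ n in (U : Filter ℕ), ∀ x ∈ D.I n, ∀ i, |(D.L n x.1).v i| ≤ 1)
    {qm qp : Fin 3 → ℝ} (hD : DAll D.B D.I D.L D.lev D.A p.g p.q D.r0 D.w qm qp) :
    ∃ C : ℝ, 0 ≤ C ∧ ∀ b c : ℚ, 0 ≤ b → b ≤ 1 → 0 ≤ c → c ≤ 1 → ∀ ε : ℝ, 0 < ε →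
    ∀ J : ℕ → Finset (ℕ × ℝ), Dense D.B J D.I →
    ∀ᶠ n in (U : Filter ℕ), ∃ (j : ℤ) (Q : Finset ℕ) (cu cv : ℕ → ℕ), Q.Nonempty ∧
      Two1 qm qp (D.L n) Q cu cv (D.b n b) (D.b n c) (D.B.d n ^ (-(C * |(b:ℝ) - c| + ε)))
        (cls p D n (max b c)) (D.w 0 n (max b c)) (D.w 1 n (max b c)) (D.w 2 n (max b c)) (zl (D.lev n (max b c)) j)
        (rh D n (max b c)) (D.r0 n) ∧
      ∀ t ∈ Q, ∃ x ∈ J n, x.1 = t ∧ zc (D.lev n (max b c)) x.2 = j ∧
        zx D n (max b c) x = zl (D.lev n (max b c)) j ∧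
        D.b n b (cu t) = mk4 D n b x ∧ D.b n c (cv t) = mk4 D n c x := by
  obtain ⟨K, hK1, hK⟩ : ∃ K : ℝ, 1 ≤ K ∧ ∀ k : Fin 3, |1 - p.θ k| ≤ K := by
    have h0 := abs_nonneg (1 - p.θ 0)
    have h1 := abs_nonneg (1 - p.θ 1)
    have h2 := abs_nonneg (1 - p.θ 2)
    refine ⟨|1 - p.θ 0| + |1 - p.θ 1| + |1 - p.θ 2| + 1, by linarith, fun k => ?_⟩
    fin_cases k
    · show |1 - p.θ 0| ≤ _
      linarith
    · show |1 - p.θ 1| ≤ _
      linarith
    · show |1 - p.θ 2| ≤ _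
      linarith
  have hQ := add_nonneg (add_nonneg (hq 0) (hq 1)) (hq 2)
  set N : ℝ := 3 + 2 * (p.q 0 + p.q 1 + p.q 2) with hN
  have hN3 : 3 ≤ N := by rw [hN]; linarith
  have hNK : 0 ≤ N * K := mul_nonneg (by linarith) (by linarith)
  refine ⟨N * K + p.g + K, by linarith, ?_⟩
  intro b c hb0 hb1 hc0 hc1 ε hε J hJ
  set δ : ℝ := |(b:ℝ) - c| with hδ
  have hδ0 : 0 ≤ δ := abs_nonneg _
  set C : ℝ := N * K + p.g + K with hC
  have hv0 : 0 ≤ max b c := hb0.trans (le_max_left _ _)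
  have hv1 : max b c ≤ 1 := max_le hb1 hc1
  set v : ℚ := max b c with hv
  have hvb : |(v:ℝ) - b| ≤ δ := by
    rw [hδ, hv]; push_cast
    rcases le_total (b:ℝ) c with h | h
    · rw [max_eq_right h, abs_sub_comm]
    · rw [max_eq_left h]; simp
  have hvc : |(v:ℝ) - c| ≤ δ := by
    rw [hδ, hv]; push_cast
    rcases le_total (b:ℝ) c with h | h
    · rw [max_eq_right h]; simp
    · rw [max_eq_left h]
  have hbv : (b:ℝ) ≤ v := by exact_mod_cast le_max_left b c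
  have hcv : (c:ℝ) ≤ v := by exact_mod_cast le_max_right b c
  set ε1 : ℝ := ε / (N + 2) with hε1
  have hε1p : 0 < ε1 := by positivity
  have hε1e : (N + 2) * ε1 = ε := by rw [hε1]; field_simp
  have hNε : 0 ≤ N * ε1 := by positivity
  -- facts for one of the two levels
  have key : ∀ e : ℚ, 0 ≤ e → e ≤ 1 → e ≤ v → |(v:ℝ) - e| ≤ δ → ∀ᶠ n in (U : Filter ℕ),
      (∀ k : Fin 3, Near (D.B.d n ^ (-(C * δ + ε))) (D.w k n v) (D.w k n e)) ∧
      D.lev n e ≤ D.lev n v ∧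
      D.A n * D.B.d n ^ (-(p.g * v)) *
          vmk p.q (rho (D.lev n v)) (D.w 0 n v) (D.w 1 n v) (D.w 2 n v) ≤
        D.B.d n ^ (-(C * δ + ε)) * (D.B.d n ^ ε1 *
          (ampA D.B D.A (fun v => p.g * v) n e * D.vm n e)) := by
    intro e he0 he1 hev hd
    have hev' : (e:ℝ) ≤ v := by exact_mod_cast hev
    have hev2 : (v:ℝ) - e ≤ δ := (le_abs_self _).trans hd
    filter_upwards [ratio_rw hmka hK hv0 hv1 he0 he1 hε1p, hmka.lev_mono e v he0 hev hv1,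
      lev2 hmka he0 hev hv1 hε1p, mark_ofM hmka he0 he1, hmka.ne, hmka.vpos e he0 he1] with
      n h1 h2 h3 h4 h5 h6
    obtain ⟨x0, hx0⟩ := h5
    have hm := h4 x0 hx0
    have hKδ : K * |(v:ℝ) - e| ≤ K * δ := mul_le_mul_of_nonneg_left hd (by linarith)
    have hKδ0 : 0 ≤ K * δ := mul_nonneg (by linarith) hδ0
    have hgδ : p.g * ((v:ℝ) - e) ≤ p.g * δ := mul_le_mul_of_nonneg_left hev2 hg
    have hgδ0 : 0 ≤ p.g * δ := mul_nonneg hg hδ0
    have hNKδ : 0 ≤ N * K * δ := mul_nonneg hNK hδ0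
    have hCδ : C * δ = N * K * δ + p.g * δ + K * δ := by rw [hC]; ring
    set X : ℝ := D.B.d n ^ (-(K * δ + ε1)) with hX
    have hX1 : 1 ≤ X := Real.one_le_rpow_of_pos_of_le_one_of_nonpos (D.B.pos n) (D.B.lt n).le (by
      linarith)
    have hXW : X ≤ D.B.d n ^ (-(C * δ + ε)) := d_mono D.B n (by rw [hCδ]; linarith)
    have hrat : ∀ k : Fin 3, D.w k n v ≤ X * D.w k n e ∧ D.w k n e ≤ X * D.w k n v := by
      intro k
      obtain ⟨y1, y2, y3, y4⟩ := h1 k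
      have y5 : D.B.d n ^ (-(K * |(v:ℝ) - e| + ε1)) ≤ X := d_mono D.B n (by linarith)
      exact ⟨y3.trans (mul_le_mul_of_nonneg_right y5 y2.le),
        y4.trans (mul_le_mul_of_nonneg_right y5 y1.le)⟩
    refine ⟨fun k => ⟨(hrat k).1.trans (mul_le_mul_of_nonneg_right hXW (h1 k).2.1.le),
      (hrat k).2.trans (mul_le_mul_of_nonneg_right hXW (h1 k).1.le)⟩, h2, ?_⟩
    have hrho : rho (D.lev n e) ≤ X * rho (D.lev n v) := by
      have h7 : D.B.d n ^ (-((v:ℝ) - e + ε1)) ≤ X := d_mono D.B n (by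
        have : δ ≤ K * δ := le_mul_of_one_le_left hδ0 hK1
        linarith)
      have h8 : (2:ℝ) ^ D.lev n v ≤ X * 2 ^ D.lev n e :=
        h3.trans (mul_le_mul_of_nonneg_right h7 (by positivity))
      unfold Crest.Agent.R138.Mk163.rho
      rw [mul_one_div, div_le_div_iff₀ (by positivity) (by positivity), one_mul]
      exact h8
    have hvm := vmk_le (ρ := rho (D.lev n e)) (ρ' := rho (D.lev n v)) (w := fun k => D.w k n e)
      (w' := fun k => D.w k n v) hq hX1 (rho_pos _) (rho_pos _) (fun k => (h1 k).2.1)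
      (fun k => (h1 k).1) (fun k => (hrat k).1) hrho
    have hvme : D.vm n e = vmk p.q (rho (D.lev n e)) (D.w 0 n e) (D.w 1 n e) (D.w 2 n e) := hm.vm
    rw [← hvme] at hvm
    have hAp := hmka.Apos n
    have hpv := dpow_pos D.B n (-(p.g * v))
    refine (mul_le_mul_of_nonneg_left hvm (mul_pos hAp hpv).le).trans ?_
    unfold Crest.Agent.R136.MkA627.ampA
    have e1 : D.B.d n ^ (-(p.g * v)) * X ^ N ≤ D.B.d n ^ (-(C * δ + ε)) *
        (D.B.d n ^ ε1 * D.B.d n ^ (-(p.g * e))) := by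
      rw [hX, ← Real.rpow_mul (D.B.pos n).le, ← dpow_add, ← dpow_add, ← dpow_add]
      refine Real.rpow_le_rpow_of_exponent_ge (D.B.pos n) (D.B.lt n).le ?_
      have e2 : -(K * δ + ε1) * N = -(N * K * δ + N * ε1) := by ring
      have e3 : p.g * (v:ℝ) = p.g * ((v:ℝ) - e) + p.g * e := by ring
      have e4 : (N + 2) * ε1 = N * ε1 + 2 * ε1 := by ring
      rw [e2, hCδ]
      linarith
    calc D.A n * D.B.d n ^ (-(p.g * v)) * (X ^ N * D.vm n e)
        = (D.B.d n ^ (-(p.g * v)) * X ^ N) * (D.A n * D.vm n e) := by ring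
      _ ≤ (D.B.d n ^ (-(C * δ + ε)) * (D.B.d n ^ ε1 * D.B.d n ^ (-(p.g * e)))) *
          (D.A n * D.vm n e) := mul_le_mul_of_nonneg_right e1 (mul_pos hAp h6).le
      _ = _ := by ring
  filter_upwards [cell0 hmka (fun v => by simp) hb0 hb1 hc0 hc1 hJ hε1p,
    key b hb0 hb1 (le_max_left _ _) hvb, key c hc0 hc1 (le_max_right _ _) hvc,
    mark_ofM hmka hb0 hb1, mark_ofM hmka hc0 hc1, mark_ofM hmka hv0 hv1,
    hmka.wpos 0 v hv0 hv1, hmka.wpos 1 v hv0 hv1, hmka.wpos 2 v hv0 hv1, hlog ε hε, hvel,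
    hD v hv0 hv1 ε hε, hJ.1] with n z1 z2 z3 z4 z5 z6 z7 z8 z9 z10 z11 z12 z13
  obtain ⟨j, Q, ⟨t0, ht0⟩, q2, q3, q4⟩ := z1
  obtain ⟨y1, y2, y3⟩ := z2
  obtain ⟨y4, y5, y6⟩ := z3
  have hCδ : 0 ≤ C * δ := mul_nonneg (by rw [hC]; linarith) hδ0
  have hW1 : 1 ≤ D.B.d n ^ (-(C * δ + ε)) :=
    Real.one_le_rpow_of_pos_of_le_one_of_nonpos (D.B.pos n) (D.B.lt n).le (by linarith)
  have hW0 : D.B.d n ^ (-ε) ≤ D.B.d n ^ (-(C * δ + ε)) := d_mono D.B n (by linarith)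
  have hρ := rho_pos (D.lev n v)
  have hM0 : 0 < D.A n * D.B.d n ^ (-(p.g * v)) *
      vmk p.q (rho (D.lev n v)) (D.w 0 n v) (D.w 1 n v) (D.w 2 n v) := by
    have := hmka.Apos n
    have := dpow_pos D.B n (-(p.g * v))
    unfold vmk
    positivity
  -- the objects
  have obj : ∀ t ∈ Q, ∃ x ∈ J n, x.1 = t ∧ zc (D.lev n v) x.2 = j ∧
      zx D n v x = zl (D.lev n v) j ∧
      D.b n b (D.f n b t (anc (D.lev n b) (D.lev n v) j)) = mk4 D n b x ∧
      D.b n c (D.f n c t (anc (D.lev n c) (D.lev n v) j)) = mk4 D n c x ∧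
      zx D n b x = zl (D.lev n b) (anc (D.lev n b) (D.lev n v) j) ∧
      zx D n c x = zl (D.lev n c) (anc (D.lev n c) (D.lev n v) j) := by
    intro t ht
    obtain ⟨x, hx, hx1, hx2, hx3, hx4⟩ := q2 t ht
    refine ⟨x, hx, hx1, hx2, ?_, ?_, ?_, ?_, ?_⟩
    · unfold Crest.Agent.R136.Tlt51.zx; rw [hx2]
    · unfold Crest.Agent.R136.Tlt51.mk4; rw [hx3, hx1]
    · unfold Crest.Agent.R136.Tlt51.mk4; rw [hx4, hx1]
    · unfold Crest.Agent.R136.Tlt51.zx; rw [hx3]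
    · unfold Crest.Agent.R136.Tlt51.zx; rw [hx4]
  obtain ⟨sb1, sb2⟩ := sub_cell y2 j
  obtain ⟨sc1, sc2⟩ := sub_cell y5 j
  have hone : D.B.d n ^ ε1 * D.B.d n ^ (-ε1) = 1 := by rw [← dpow_add]; simp
  have full : ∀ {V a : ℝ} {k : ℕ}, V ≤ D.B.d n ^ (-ε1) * (k : ℝ) →
      a ≤ D.B.d n ^ (-(C * δ + ε)) * (D.B.d n ^ ε1 * V) →
      a ≤ D.B.d n ^ (-(C * δ + ε)) * (k : ℝ) := by
    intro V a k h1 h2
    refine h2.trans (mul_le_mul_of_nonneg_left ?_ (by linarith))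
    have := mul_le_mul_of_nonneg_left h1 (dpow_pos D.B n ε1).le
    rwa [← mul_assoc, hone, one_mul] at this
  refine ⟨j, Q, fun t => D.f n b t (anc (D.lev n b) (D.lev n v) j),
    fun t => D.f n c t (anc (D.lev n c) (D.lev n v) j), ⟨t0, ht0⟩, ?_, ?_⟩
  · refine
      { W1 := hW1
        M0 := hM0
        r0 := hr0 n
        ρ0 := hρ
        a0 := z7
        w10 := z8
        w20 := z9
        w1ρ := ?_
        lg := ?_
        vel := ?_
        shU := ?_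
        shV := ?_
        inU := ?_
        inV := ?_
        dimU := ?_
        dimV := ?_
        fullU := fun t ht => full (q3 t ht) y3
        fullV := fun t ht => full (q4 t ht) y6
        dmax := ?_ }
    · obtain ⟨x, hx, -⟩ := obj t0 ht0
      have hm := z6 x (z13 hx)
      have h1 : D.w 1 n v ≤ rh D n v := by rw [← hm.w1]; exact hm.w1r
      exact h1.trans (le_mul_of_one_le_left hρ.le hW1)
    · obtain ⟨x, hx, -⟩ := obj t0 ht0
      have hm := z6 x (z13 hx)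
      have h1 : D.w 1 n v ≤ rh D n v := by rw [← hm.w1]; exact hm.w1r
      have h2 : rh D n v ≤ 1 := by
        unfold Crest.Agent.R136.Tlt51.rh Crest.Agent.R138.Mk163.rho
        rw [div_le_one (by positivity)]
        exact one_le_pow₀ (by norm_num)
      have h3 : D.r0 n ≤ D.w 0 n v := by rw [← hm.a]; exact hm.shp.r0_le
      refine (Real.log_le_log (div_pos z8 z7) ?_).trans (z10.trans hW0)
      rw [div_le_div_iff₀ z7 (hr0 n), one_mul]
      calc D.w 1 n v * D.r0 n ≤ 1 * D.w 0 n v :=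
            mul_le_mul (h1.trans h2) h3 (hr0 n).le zero_le_one
        _ = _ := one_mul _
    · intro t ht
      obtain ⟨x, hx, rfl, -⟩ := obj t ht
      exact z11 x (z13 hx)
    · intro t ht
      obtain ⟨x, hx, hx1, hx2, hx3, hx4, hx5, hx6, hx7⟩ := obj t ht
      have hm := z4 x (z13 hx)
      show Shp (D.b n b (D.f n b t (anc (D.lev n b) (D.lev n v) j))) _ _ _
      rw [hx4]
      have := hm.shp
      rw [hx6] at this
      exact shp_in this sb1 sb2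
    · intro t ht
      obtain ⟨x, hx, hx1, hx2, hx3, hx4, hx5, hx6, hx7⟩ := obj t ht
      have hm := z5 x (z13 hx)
      show Shp (D.b n c (D.f n c t (anc (D.lev n c) (D.lev n v) j))) _ _ _
      rw [hx5]
      have := hm.shp
      rw [hx7] at this
      exact shp_in this sc1 sc2
    · intro t ht
      obtain ⟨x, hx, hx1, hx2, hx3, hx4, hx5, hx6, hx7⟩ := obj t ht
      have hm := z4 x (z13 hx)
      show InP (D.L n t) (D.b n b (D.f n b t (anc (D.lev n b) (D.lev n v) j))) _ _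
      rw [hx4, ← hx1]
      have := hm.inP
      rw [hx6] at this
      exact inP_in this sb1 sb2
    · intro t ht
      obtain ⟨x, hx, hx1, hx2, hx3, hx4, hx5, hx6, hx7⟩ := obj t ht
      have hm := z5 x (z13 hx)
      show InP (D.L n t) (D.b n c (D.f n c t (anc (D.lev n c) (D.lev n v) j))) _ _
      rw [hx5, ← hx1]
      have := hm.inP
      rw [hx7] at this
      exact inP_in this sc1 sc2
    · intro t ht
      obtain ⟨x, hx, hx1, hx2, hx3, hx4, hx5, hx6, hx7⟩ := obj t ht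
      have hm := z4 x (z13 hx)
      show Near _ _ (D.b n b (D.f n b t (anc (D.lev n b) (D.lev n v) j))).a ∧
        Near _ _ ((D.b n b (D.f n b t (anc (D.lev n b) (D.lev n v) j))).w 1) ∧
        Near _ _ ((D.b n b (D.f n b t (anc (D.lev n b) (D.lev n v) j))).w 2)
      rw [hx4, hm.a, hm.w1, hm.w2]
      exact ⟨y1 0, y1 1, y1 2⟩
    · intro t ht
      obtain ⟨x, hx, hx1, hx2, hx3, hx4, hx5, hx6, hx7⟩ := obj t ht
      have hm := z5 x (z13 hx)
      show Near _ _ (D.b n c (D.f n c t (anc (D.lev n c) (D.lev n v) j))).a ∧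
        Near _ _ ((D.b n c (D.f n c t (anc (D.lev n c) (D.lev n v) j))).w 1) ∧
        Near _ _ ((D.b n c (D.f n c t (anc (D.lev n c) (D.lev n v) j))).w 2)
      rw [hx5, hm.a, hm.w1, hm.w2]
      exact ⟨y4 0, y4 1, y4 2⟩
    · intro S hS hS1
      have h1 := z12 j S hS hS1
      have h2 : ((Q.filter fun t => InP (D.L n t) S (zl (D.lev n v) j) (rh D n v)).card : ℝ) ≤
          (((alive (D.I n) (D.lev n v) j).filter fun t =>
            InSheet (D.L n t) S.e S.c S.w S.q S.a (zl (D.lev n v) j) (rho (D.lev n v))).card : ℝ) := by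
        refine Nat.cast_le.2 (card_le_card fun t ht => ?_)
        rw [mem_filter] at ht ⊢
        refine ⟨?_, ht.2⟩
        obtain ⟨x, hx, hx1, hx2, -⟩ := obj t ht.1
        exact Crest.Agent.R138.TiltU51.mem_alive.2 ⟨x, z13 hx, hx2, hx1⟩
      have a0 : 0 < S.a := (hr0 n).trans_le hS.r0_le
      have a2 : 0 < S.w 2 := a0.trans_le (hS.a_le0.trans hS.w0_le)
      have a1 : 0 < S.w 1 := a2.trans_le hS.w_le
      refine h2.trans (h1.trans ?_)
      refine mul_le_mul_of_nonneg_right (mul_le_mul_of_nonneg_right hW0 hM0.le)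
        (phC_nonneg z7.le z8.le z9.le a0.le a1.le a2.le)
  · intro t ht
    obtain ⟨x, hx, hx1, hx2, hx3, hx4, hx5, hx6, hx7⟩ := obj t ht
    exact ⟨x, hx, hx1, hx2, hx3, hx4, hx5⟩

open Classical in
/-- **two systems of marks in one cell** -/
theorem two1_seqM (hmka : MkD p D) (hq : ∀ k, 0 ≤ p.q k) (hg : 0 ≤ p.g) (hr0 : ∀ n, 0 < D.r0 n)
    (hlog : ∀ ε : ℝ, 0 < ε → ∀ᶠ n in (U : Filter ℕ), Real.log (1 / D.r0 n) ≤ D.B.d n ^ (-ε))
    (hvel : ∀ᶠ n in (U : Filter ℕ), ∀ x ∈ D.I n, ∀ i, |(D.L n x.1).v i| ≤ 1)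
    {qm qp : Fin 3 → ℝ} (hD : DAll D.B D.I D.L D.lev D.A p.g p.q D.r0 D.w qm qp) :
    ∃ C : ℝ, 0 ≤ C ∧ ∀ b c : ℚ, 0 ≤ b → b ≤ 1 → 0 ≤ c → c ≤ 1 → ∀ ε : ℝ, 0 < ε →
    ∀ J : ℕ → Finset (ℕ × ℝ), Dense D.B J D.I →
    ∀ᶠ n in (U : Filter ℕ), ∃ (j : ℤ) (Q : Finset ℕ) (cu cv : ℕ → ℕ) (M : ℝ), Q.Nonempty ∧
      Two1 qm qp (D.L n) Q cu cv (D.b n b) (D.b n c) (D.B.d n ^ (-(C * |(b:ℝ) - c| + ε))) M
        (D.w 0 n (max b c)) (D.w 1 n (max b c)) (D.w 2 n (max b c)) (zl (D.lev n (max b c)) j)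
        (rh D n (max b c)) (D.r0 n) ∧
      ∀ t ∈ Q, ∃ x ∈ J n, x.1 = t ∧ zc (D.lev n (max b c)) x.2 = j ∧
        zx D n (max b c) x = zl (D.lev n (max b c)) j ∧
        D.b n b (cu t) = mk4 D n b x ∧ D.b n c (cv t) = mk4 D n c x := by
  obtain ⟨C, hC, h⟩ := two1_seqE hmka hq hg hr0 hlog hvel hD
  refine ⟨C, hC, fun b c hb0 hb1 hc0 hc1 ε hε J hJ => ?_⟩
  filter_upwards [h b c hb0 hb1 hc0 hc1 ε hε J hJ] with n hn
  obtain ⟨j, Q, cu, cv, h1, h2, h3⟩ := hn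
  exact ⟨j, Q, cu, cv, _, h1, h2, h3⟩

end Crest.Agent.R136.Eng904
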