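import Mathlib
import Crest.Agent.R136.Two4_904
import Crest.Agent.R136.Pl2C_860
import Crest.Agent.R136.DAl7_879

/-!
# R136 (U4, PLAN 2): two systems of marks in a sub-cell (helper904)

`two7_seqM` : the data `Pl2.Two7` from a dense part of the incidences.
`two_seq` : the same for `J1c`.
-/

set_option autoImplicit false
set_option linter.unusedVariables false
set_option maxHeartbeats 400000

open Finset Filter Topology

namespace Crest.Agent.R136.Eng904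

open Crest.Agent.R138.Ex926 Crest.Agent.R138.Dp76
open Crest.Agent.R138.Mk163 (zc zl rho alive own)
open Crest.Agent.R138.MkRef627 (lc)
open Crest.Agent.R136.MkA627 (Geo MkA ampA fib_bounds)
open Crest.Agent.R136.Deep51 Crest.Agent.R136.Tlt51 Crest.Agent.R136.Top484
open Crest.Agent.R136.Sh605 Crest.Agent.R136.K4
open Crest.Agent.R136.Pl2W102 (Near Two1)
open Crest.Agent.R136.Pl2 (Two7)
open Crest.Agent.R136.Phc248 (phC phC_nonneg)
open Crest.Agent.R136.DAl879 (vmk DAll DAllK)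

theorem near_mono {W W' x y : ℝ} (h : Near W x y) (hW : 1 ≤ W) (hWW : W ≤ W') (hx : 0 < x) :
    Near W' x y := by
  have hy : 0 < y := by
    by_contra hcon
    push Not at hcon
    have := mul_nonpos_of_nonneg_of_nonpos (show 0 ≤ W by linarith) hcon
    linarith [h.1]
  exact ⟨h.1.trans (mul_le_mul_of_nonneg_right hWW hy.le),
    h.2.trans (mul_le_mul_of_nonneg_right hWW hx.le)⟩

open Classical in
/-- **a popular sub-cell** -/
theorem two7_of {qm qp : Fin 3 → ℝ} {L : ℕ → Ln4} {Q : Finset ℕ} {cu cv : ℕ → ℕ} {Uf Vf : ℕ → Plk4}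
    {W M a w1 w2 r : ℝ} {lv : ℕ} {J : ℤ}
    (h : Two1 qm qp L Q cu cv Uf Vf W M a w1 w2 (zl lv J) (rho lv) r) (hQ : Q.Nonempty)
    {Pn : Finset (ℕ × ℤ)} {jt : ℕ → ℤ} (hjt : ∀ t ∈ Q, jt t / 2 ^ 7 = J)
    (hjP : ∀ t ∈ Q, (t, jt t) ∈ Pn)
    (hD : ∀ (j : ℤ) (s : Plk4),
      ShN s.e s.c s.w s.q s.a (zl (lv + 7) j) (rho (lv + 7)) r → s.w 1 ≤ rho (lv + 7) →
      ((Pn.filter fun o => o.2 = j ∧
          InSheet (L o.1) s.e s.c s.w s.q s.a (zl (lv + 7) j) (rho (lv + 7))).card : ℝ) ≤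
        W * M * phC qm qp a w1 w2 s.a (s.w 1) (s.w 2)) :
    ∃ (j : ℤ) (Q' : Finset ℕ), Q' ⊆ Q ∧ j / 2 ^ 7 = J ∧ Q'.Nonempty ∧ (∀ t ∈ Q', jt t = j) ∧
      Two1 qm qp L Q' cu cv Uf Vf (600 * W) M a w1 w2 (zl (lv + 7) j) (rho (lv + 7)) r := by
  have hW1 := h.W1
  have hM := h.M0
  have hW0 : 0 < W := by linarith
  have hQc : (0:ℝ) < Q.card := by exact_mod_cast card_pos.2 hQ
  have hlab : ∀ f : ℕ → ℕ, (∀ t ∈ Q, M ≤ W * ((Q.filter fun s => f s = f t).card : ℝ)) →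
      ((Q.image fun t => (f t, jt t)).card : ℝ) * (M / (600 * W)) ≤ Q.card / 4 := by
    intro f hf
    have h1 : ((Q.image f).card : ℝ) * (M / W) ≤ Q.card := by
      refine labels_le f fun o ho => ?_
      rw [div_le_iff₀ hW0]
      have := hf o ho
      linarith
    have h2 : (Q.image fun t => (f t, jt t)).card ≤ (Q.image f).card * 128 := by
      have e : (Q.image fun t => (f t, jt t)) ⊆ (Q.image f) ×ˢ (Ico (128 * J) (128 * J + 128)) := by
        intro x hx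
        obtain ⟨t, ht, rfl⟩ := mem_image.1 hx
        refine mem_product.2 ⟨mem_image_of_mem f ht, mem_Ico.2 ?_⟩
        have h3 := hjt t ht
        norm_num at h3
        constructor
        · show 128 * J ≤ jt t
          omega
        · show jt t < 128 * J + 128
          omega
      refine (card_le_card e).trans (le_of_eq ?_)
      rw [card_product, Int.card_Ico]
      congr 1
      omega
    have h3 : ((Q.image fun t => (f t, jt t)).card : ℝ) ≤ (Q.image f).card * 128 := by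
      exact_mod_cast h2
    refine (mul_le_mul_of_nonneg_right h3 (by positivity)).trans ?_
    have e : ((Q.image f).card : ℝ) * 128 * (M / (600 * W)) =
        ((Q.image f).card : ℝ) * (M / W) * (128 / 600) := by
      field_simp
    rw [e]
    have h4 : 0 ≤ ((Q.image f).card : ℝ) * (M / W) := by positivity
    linarith
  have k1 := hlab cu h.fullU
  have k2 := hlab cv h.fullV
  obtain ⟨Q1, hQ1, ⟨t0, ht0⟩, q1, q2⟩ := prune2 (P := Q) (fun t => (cu t, jt t))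
    (fun t => (cv t, jt t)) (s := M / (600 * W)) (t := M / (600 * W)) (by positivity)
    (by positivity) (by linarith)
  have hcell : jt t0 / 2 ^ 7 = J := hjt t0 (hQ1 ht0)
  have hanc : anc lv (lv + 7) (jt t0) = J := by
    unfold Crest.Agent.R136.Deep51.anc
    rw [Nat.add_sub_cancel_left]
    exact hcell
  obtain ⟨s1, s2⟩ := sub_cell (i := lv) (m := lv + 7) (by omega) (jt t0)
  rw [hanc] at s1 s2
  have hrho : rho lv = 128 * rho (lv + 7) := by
    unfold Crest.Agent.R138.Mk163.rho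
    rw [pow_add]; field_simp; norm_num
  have hρ7 := rho_pos (lv + 7)
  have hsub : (Q1.filter fun t => jt t = jt t0) ⊆ Q := (filter_subset _ _).trans hQ1
  have hWW : W ≤ 600 * W := by linarith
  have hfull : ∀ f : ℕ → ℕ, (∀ o ∈ Q1, M / (600 * W) ≤
      ((Q1.filter fun y => (f y, jt y) = (f o, jt o)).card : ℝ)) →
      ∀ t ∈ Q1.filter fun t => jt t = jt t0, M ≤ 600 * W *
        (((Q1.filter fun t => jt t = jt t0).filter fun s => f s = f t).card : ℝ) := by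
    intro f hf t ht
    rw [mem_filter] at ht
    have h1 := hf t ht.1
    rw [div_le_iff₀ (by positivity)] at h1
    have h2 : (Q1.filter fun y => (f y, jt y) = (f t, jt t)) ⊆
        ((Q1.filter fun t => jt t = jt t0).filter fun s => f s = f t) := by
      intro y hy
      rw [mem_filter, Prod.mk.injEq] at hy
      rw [mem_filter, mem_filter]
      exact ⟨⟨hy.1, hy.2.2.trans ht.2⟩, hy.2.1⟩
    have h3 : ((Q1.filter fun y => (f y, jt y) = (f t, jt t)).card : ℝ) ≤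
        (((Q1.filter fun t => jt t = jt t0).filter fun s => f s = f t).card : ℝ) := by
      exact_mod_cast card_le_card h2
    have h4 := mul_le_mul_of_nonneg_right h3 (show 0 ≤ 600 * W by positivity)
    linarith
  refine ⟨jt t0, Q1.filter fun t => jt t = jt t0, hsub, hcell, ⟨t0, mem_filter.2 ⟨ht0, rfl⟩⟩,
    fun t ht => (mem_filter.1 ht).2, ?_⟩
  refine
    { W1 := by linarith
      M0 := hM
      r0 := h.r0
      ρ0 := hρ7
      a0 := h.a0
      w10 := h.w10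
      w20 := h.w20
      w1ρ := ?_
      lg := h.lg.trans hWW
      vel := fun t ht => h.vel t (hsub ht)
      shU := fun t ht => shp_in (h.shU t (hsub ht)) s1 s2
      shV := fun t ht => shp_in (h.shV t (hsub ht)) s1 s2
      inU := fun t ht => inP_in (h.inU t (hsub ht)) s1 s2
      inV := fun t ht => inP_in (h.inV t (hsub ht)) s1 s2
      dimU := fun t ht => ?_
      dimV := fun t ht => ?_
      fullU := hfull cu q1
      fullV := hfull cv q2
      dmax := ?_ }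
  · have h1 := h.w1ρ
    rw [hrho] at h1
    have h2 : 0 ≤ W * rho (lv + 7) := by positivity
    linarith
  · obtain ⟨d1, d2, d3⟩ := h.dimU t (hsub ht)
    exact ⟨near_mono d1 hW1 hWW h.a0, near_mono d2 hW1 hWW h.w10, near_mono d3 hW1 hWW h.w20⟩
  · obtain ⟨d1, d2, d3⟩ := h.dimV t (hsub ht)
    exact ⟨near_mono d1 hW1 hWW h.a0, near_mono d2 hW1 hWW h.w10, near_mono d3 hW1 hWW h.w20⟩
  · intro S hS hS1
    have h1 := hD (jt t0) S hS hS1
    have h2 : (((Q1.filter fun t => jt t = jt t0).filter fun t =>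
        InP (L t) S (zl (lv + 7) (jt t0)) (rho (lv + 7))).card : ℝ) ≤
        ((Pn.filter fun o => o.2 = jt t0 ∧
          InSheet (L o.1) S.e S.c S.w S.q S.a (zl (lv + 7) (jt t0)) (rho (lv + 7))).card : ℝ) := by
      have h3 : (((Q1.filter fun t => jt t = jt t0).filter fun t =>
          InP (L t) S (zl (lv + 7) (jt t0)) (rho (lv + 7))).image fun t => (t, jt t0)) ⊆
          (Pn.filter fun o => o.2 = jt t0 ∧
            InSheet (L o.1) S.e S.c S.w S.q S.a (zl (lv + 7) (jt t0)) (rho (lv + 7))) := by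
        intro o ho
        obtain ⟨t, ht, rfl⟩ := mem_image.1 ho
        rw [mem_filter, mem_filter] at ht
        rw [mem_filter]
        refine ⟨?_, rfl, ht.2⟩
        have := hjP t (hQ1 ht.1.1)
        rw [ht.1.2] at this
        exact this
      have h4 := card_le_card h3
      rw [card_image_of_injOn (fun x _ y _ hxy => (Prod.mk.inj hxy).1)] at h4
      exact_mod_cast h4
    have a0 : 0 < S.a := h.r0.trans_le hS.r0_le
    have a2 : 0 < S.w 2 := a0.trans_le (hS.a_le0.trans hS.w0_le)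
    have a1 : 0 < S.w 1 := a2.trans_le hS.w_le
    refine h2.trans (h1.trans ?_)
    exact mul_le_mul_of_nonneg_right (mul_le_mul_of_nonneg_right hWW hM.le)
      (phC_nonneg h.a0.le h.w10.le h.w20.le a0.le a1.le a2.le)

/-- `Two1` is monotone in `W` -/
theorem two1_mono {qm qp : Fin 3 → ℝ} {L : ℕ → Ln4} {Q : Finset ℕ} {cu cv : ℕ → ℕ}
    {Uf Vf : ℕ → Plk4} {W W' M a w1 w2 z0 ρ r : ℝ}
    (t1 : Two1 qm qp L Q cu cv Uf Vf W M a w1 w2 z0 ρ r) (hWW : W ≤ W') :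
    Two1 qm qp L Q cu cv Uf Vf W' M a w1 w2 z0 ρ r :=
  { W1 := t1.W1.trans hWW
    M0 := t1.M0
    r0 := t1.r0
    ρ0 := t1.ρ0
    a0 := t1.a0
    w10 := t1.w10
    w20 := t1.w20
    w1ρ := t1.w1ρ.trans (mul_le_mul_of_nonneg_right hWW t1.ρ0.le)
    lg := t1.lg.trans hWW
    vel := t1.vel
    shU := t1.shU
    shV := t1.shV
    inU := t1.inU
    inV := t1.inV
    dimU := fun t ht => by
      obtain ⟨d1, d2, d3⟩ := t1.dimU t ht
      exact ⟨near_mono d1 t1.W1 hWW t1.a0, near_mono d2 t1.W1 hWW t1.w10,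
        near_mono d3 t1.W1 hWW t1.w20⟩
    dimV := fun t ht => by
      obtain ⟨d1, d2, d3⟩ := t1.dimV t ht
      exact ⟨near_mono d1 t1.W1 hWW t1.a0, near_mono d2 t1.W1 hWW t1.w10,
        near_mono d3 t1.W1 hWW t1.w20⟩
    fullU := fun t ht =>
      (t1.fullU t ht).trans (mul_le_mul_of_nonneg_right hWW (Nat.cast_nonneg _))
    fullV := fun t ht =>
      (t1.fullV t ht).trans (mul_le_mul_of_nonneg_right hWW (Nat.cast_nonneg _))
    dmax := fun S hS hS1 => by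
      have a0 : 0 < S.a := t1.r0.trans_le hS.r0_le
      have a2 : 0 < S.w 2 := a0.trans_le (hS.a_le0.trans hS.w0_le)
      have a1 : 0 < S.w 1 := a2.trans_le hS.w_le
      exact (t1.dmax S hS hS1).trans (mul_le_mul_of_nonneg_right
        (mul_le_mul_of_nonneg_right hWW t1.M0.le)
        (phC_nonneg t1.a0.le t1.w10.le t1.w20.le a0.le a1.le a2.le)) }

variable {η : ℝ} {p : Par4} {D : Dat4}

open Classical in
/-- **two systems of marks in a sub-cell** -/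
theorem two7_seqM (hmka : MkD p D) (hq : ∀ k, 0 ≤ p.q k) (hg : 0 ≤ p.g) (hr0 : ∀ n, 0 < D.r0 n)
    (hlog : ∀ ε : ℝ, 0 < ε → ∀ᶠ n in (U : Filter ℕ), Real.log (1 / D.r0 n) ≤ D.B.d n ^ (-ε))
    (hvel : ∀ᶠ n in (U : Filter ℕ), ∀ x ∈ D.I n, ∀ i, |(D.L n x.1).v i| ≤ 1)
    {qm qp : Fin 3 → ℝ} (hD : DAll D.B D.I D.L D.lev D.A p.g p.q D.r0 D.w qm qp)
    (hD7 : DAllK 7 D.B D.I D.L D.lev D.A p.g p.q D.r0 D.w qm qp) :
    ∃ C : ℝ, 0 ≤ C ∧ ∀ b c : ℚ, 0 ≤ b → b ≤ 1 → 0 ≤ c → c ≤ 1 → ∀ ε : ℝ, 0 < ε →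
    ∃ jx : ℕ → ℕ × ℝ → ℤ,
    (∀ᶠ n in (U : Filter ℕ), ∀ x ∈ D.I n, jx n x / 2 ^ 7 = zc (D.lev n (max b c)) x.2) ∧
    ∀ b' c' : ℚ, (b' = b ∧ c' = c ∨ b' = c ∧ c' = b) →
    ∀ J : ℕ → Finset (ℕ × ℝ), Dense D.B J D.I →
    ∀ᶠ n in (U : Filter ℕ), ∃ (j : ℤ) (P : Finset ℕ) (cu cv : ℕ → ℕ) (M a w1 w2 : ℝ), P.Nonempty ∧
      (D.r0 n ≤ rho (D.lev n (max b c) + 7) →
        Two7 qm qp (D.L n) P cu cv (D.b n b') (D.b n c') (D.B.d n ^ (-(C * |(b:ℝ) - c| + ε))) M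
          a w1 w2 (zl (D.lev n (max b c) + 7) j) (rho (D.lev n (max b c) + 7))
          (zl (D.lev n (max b c)) (j / 2 ^ 7)) (rho (D.lev n (max b c))) (D.r0 n)) ∧
      Pl2W102.Two7 qm qp (D.L n) P cu cv (D.b n b') (D.b n c')
          (D.B.d n ^ (-(C * |(b:ℝ) - c| + ε))) M a w1 w2 (zl (D.lev n (max b c) + 7) j)
          (rho (D.lev n (max b c) + 7)) (zl (D.lev n (max b c)) (j / 2 ^ 7))
          (rho (D.lev n (max b c))) (D.r0 n) ∧
      rho (D.lev n (max b c)) = 128 * rho (D.lev n (max b c) + 7) ∧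
      (rho (D.lev n (max b c) + 7) < D.r0 n → w1 ≤ 128 * a) ∧
      ∀ t ∈ P, ∃ x ∈ J n, x.1 = t ∧ jx n x = j ∧
        D.b n b' (cu t) = mk4 D n b' x ∧ D.b n c' (cv t) = mk4 D n c' x := by
  obtain ⟨C, hC, h⟩ := two1_seqE hmka hq hg hr0 hlog hvel hD
  refine ⟨C, hC, fun b c hb0 hb1 hc0 hc1 ε hε => ?_⟩
  have hv0 : 0 ≤ max b c := hb0.trans (le_max_left _ _)
  have hv1 : max b c ≤ 1 := max_le hb1 hc1
  obtain ⟨P, hP1, hP2⟩ := hD7 (max b c) hv0 hv1 (ε / 2) (by positivity)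
  set v : ℚ := max b c with hv
  set jx : ℕ → ℕ × ℝ → ℤ := fun n x =>
    if hx : ∃ j : ℤ, j / 2 ^ 7 = zc (D.lev n v) x.2 ∧ (x.1, j) ∈ P n then Classical.choose hx
    else 0 with hjx
  have hj : ∀ᶠ n in (U : Filter ℕ), ∀ x ∈ D.I n, jx n x / 2 ^ 7 = zc (D.lev n v) x.2 ∧
      (x.1, jx n x) ∈ P n := by
    filter_upwards [hP1] with n hn x hx
    have h1 := hn x hx
    have h2 := Classical.choose_spec h1
    have h3 : jx n x = Classical.choose h1 := by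
      simp only [hjx]
      rw [dif_pos h1]
    rw [h3]; exact h2
  refine ⟨jx, hj.mono fun n hn x hx => (hn x hx).1, ?_⟩
  have key : ∀ b' c' : ℚ, max b' c' = v → 0 ≤ b' → b' ≤ 1 → 0 ≤ c' → c' ≤ 1 →
      |(b':ℝ) - c'| = |(b:ℝ) - c| → ∀ J : ℕ → Finset (ℕ × ℝ), Dense D.B J D.I →
    ∀ᶠ n in (U : Filter ℕ), ∃ (j : ℤ) (P : Finset ℕ) (cu cv : ℕ → ℕ) (M a w1 w2 : ℝ), P.Nonempty ∧
      (D.r0 n ≤ rho (D.lev n v + 7) →
        Two7 qm qp (D.L n) P cu cv (D.b n b') (D.b n c') (D.B.d n ^ (-(C * |(b:ℝ) - c| + ε))) M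
          a w1 w2 (zl (D.lev n v + 7) j) (rho (D.lev n v + 7))
          (zl (D.lev n v) (j / 2 ^ 7)) (rho (D.lev n v)) (D.r0 n)) ∧
      Pl2W102.Two7 qm qp (D.L n) P cu cv (D.b n b') (D.b n c')
          (D.B.d n ^ (-(C * |(b:ℝ) - c| + ε))) M a w1 w2 (zl (D.lev n v + 7) j)
          (rho (D.lev n v + 7)) (zl (D.lev n v) (j / 2 ^ 7)) (rho (D.lev n v)) (D.r0 n) ∧
      rho (D.lev n v) = 128 * rho (D.lev n v + 7) ∧
      (rho (D.lev n v + 7) < D.r0 n → w1 ≤ 128 * a) ∧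
      ∀ t ∈ P, ∃ x ∈ J n, x.1 = t ∧ jx n x = j ∧
        D.b n b' (cu t) = mk4 D n b' x ∧ D.b n c' (cv t) = mk4 D n c' x := by
    intro b' c' hmax hb0 hb1 hc0 hc1 habs J hJ
    filter_upwards [h b' c' hb0 hb1 hc0 hc1 (ε / 2) (by positivity) J hJ, hj, hP2, hJ.1,
      ev_small D.B (show 0 < ε / 2 by positivity) (K := 1 / 600) (by norm_num),
      mark_ofM hmka hv0 hv1] with n z1 z2 z3 z4 z5 z6
    rw [hmax, habs] at z1
    obtain ⟨J0, Q, cu, cv, q1, q2, q3⟩ := z1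
    have hδ : 0 ≤ |(b:ℝ) - c| := abs_nonneg _
    have hCδ : 0 ≤ C * |(b:ℝ) - c| := mul_nonneg hC hδ
    have hM := q2.M0
    have hW1 := q2.W1
    choose! xt hxJ hx1 hx2 hx3 hx4 hx5 using q3
    obtain ⟨j, Q', r1, r2, r3, r5, r4⟩ := two7_of (lv := D.lev n v) (J := J0) (Pn := P n)
      (jt := fun t => jx n (xt t)) q2 q1
      (by
        intro t ht
        rw [← hx2 t ht]
        exact (z2 _ (z4 (hxJ t ht))).1)
      (by
        intro t ht
        have := (z2 _ (z4 (hxJ t ht))).2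
        rw [hx1 t ht] at this
        exact this)
      (by
        intro j s hs hs1
        have a0 : 0 < s.a := (hr0 n).trans_le hs.r0_le
        have a2 : 0 < s.w 2 := a0.trans_le (hs.a_le0.trans hs.w0_le)
        have a1 : 0 < s.w 1 := a2.trans_le hs.w_le
        refine (z3 j s hs hs1).trans ?_
        have hW0 : D.B.d n ^ (-(ε / 2)) ≤ D.B.d n ^ (-(C * |(b:ℝ) - c| + ε / 2)) :=
          d_mono D.B n (by linarith)
        exact mul_le_mul_of_nonneg_right (mul_le_mul_of_nonneg_right hW0 hM.le)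
          (phC_nonneg q2.a0.le q2.w10.le q2.w20.le a0.le a1.le a2.le))
    have hWW : 600 * D.B.d n ^ (-(C * |(b:ℝ) - c| + ε / 2)) ≤
        D.B.d n ^ (-(C * |(b:ℝ) - c| + ε)) := by
      have hde := dpow_pos D.B n (ε / 2)
      have h5 : (600:ℝ) ≤ D.B.d n ^ (-(ε / 2)) := by
        rw [Real.rpow_neg (D.B.pos n).le, le_inv_comm₀ (by norm_num) hde]
        rw [one_div] at z5; exact z5
      have e1 : D.B.d n ^ (-(C * |(b:ℝ) - c| + ε)) =
          D.B.d n ^ (-(ε / 2)) * D.B.d n ^ (-(C * |(b:ℝ) - c| + ε / 2)) := by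
        rw [← dpow_add]; congr 1; ring
      rw [e1]
      exact mul_le_mul_of_nonneg_right h5 (dpow_pos D.B n _).le
    have t1 := two1_mono r4 hWW
    have hrho : rho (D.lev n v) = 128 * rho (D.lev n v + 7) := by
      unfold Crest.Agent.R138.Mk163.rho
      rw [pow_add]; field_simp; norm_num
    have hanc : anc (D.lev n v) (D.lev n v + 7) j = j / 2 ^ 7 := by
      unfold Crest.Agent.R136.Deep51.anc
      rw [Nat.add_sub_cancel_left]
    obtain ⟨s1, s2⟩ := sub_cell (i := D.lev n v) (m := D.lev n v + 7) (by omega) j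
    rw [hanc] at s1 s2
    have hρ7 := rho_pos (D.lev n v + 7)
    have hW128 : 128 ≤ D.B.d n ^ (-(C * |(b:ℝ) - c| + ε)) := by linarith
    have t7 : Pl2W102.Two7 qm qp (D.L n) Q' cu cv (D.b n b') (D.b n c')
        (D.B.d n ^ (-(C * |(b:ℝ) - c| + ε))) (cls p D n v) (D.w 0 n v) (D.w 1 n v) (D.w 2 n v)
        (zl (D.lev n v + 7) j) (rho (D.lev n v + 7)) (zl (D.lev n v) (j / 2 ^ 7))
        (rho (D.lev n v)) (D.r0 n) :=
      { to1 := t1
        z1 := s1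
        z2 := s2
        l1 := hrho.symm.le
        l2 := by rw [hrho]; exact mul_le_mul_of_nonneg_right hW128 hρ7.le
        shU := fun t ht => by rw [r2]; exact q2.shU t (r1 ht)
        shV := fun t ht => by rw [r2]; exact q2.shV t (r1 ht)
        inU := fun t ht => by rw [r2]; exact q2.inU t (r1 ht)
        inV := fun t ht => by rw [r2]; exact q2.inV t (r1 ht) }
    refine ⟨j, Q', cu, cv, cls p D n v, D.w 0 n v, D.w 1 n v,
      D.w 2 n v, r3, fun hr => ?_, t7, hrho, fun hr => ?_, fun t ht => ?_⟩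
    · exact
        { to1 := t7.to1
          rρ := hr
          lo := t7.z1
          hi := t7.z2
          long := hrho.symm.le
          short := hrho.le
          shU := t7.shU
          shV := t7.shV
          inU := t7.inU
          inV := t7.inV }
    · obtain ⟨t, ht⟩ := q1
      have hm := z6 _ (z4 (hxJ t ht))
      have h1 : D.w 1 n v ≤ rho (D.lev n v) := by rw [← hm.w1]; exact hm.w1r
      have h3 : D.r0 n ≤ D.w 0 n v := by rw [← hm.a]; exact hm.shp.r0_le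
      rw [hrho] at h1
      linarith
    · exact ⟨xt t, hxJ t (r1 ht), hx1 t (r1 ht), r5 t ht, hx4 t (r1 ht), hx5 t (r1 ht)⟩
  rintro b' c' (⟨rfl, rfl⟩ | ⟨rfl, rfl⟩)
  · exact key _ _ rfl hb0 hb1 hc0 hc1 rfl
  · exact key _ _ (max_comm _ _) hc0 hc1 hb0 hb1 (abs_sub_comm _ _)

/-! ### the data of `J1c` -/

theorem J1c.qpos (h : J1c η p D) : ∀ k, 0 ≤ p.q k := by
  intro k
  fin_cases k
  exacts [h.q0.1, h.g0.2.le, h.q2.1.le]

open Classical in
/-- **two systems of marks in one cell and in a sub-cell**, `J1c` -/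
theorem two_seq (hJ1 : J1c η p D) : ∃ qm qp : Fin 3 → ℝ, DAl879.Ex2 η qm qp ∧
    (∃ C : ℝ, 0 ≤ C ∧ ∀ b c : ℚ, 0 ≤ b → b ≤ 1 → 0 ≤ c → c ≤ 1 → ∀ ε : ℝ, 0 < ε →
    ∀ J : ℕ → Finset (ℕ × ℝ), Dense D.B J D.I →
    ∀ᶠ n in (U : Filter ℕ), ∃ (j : ℤ) (P : Finset ℕ) (cu cv : ℕ → ℕ) (M a w1 w2 : ℝ), P.Nonempty ∧
      Two1 qm qp (D.L n) P cu cv (D.b n b) (D.b n c) (D.B.d n ^ (-(C * |(b:ℝ) - c| + ε))) M
        a w1 w2 (zl (D.lev n (max b c)) j) (rho (D.lev n (max b c))) (D.r0 n) ∧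
      ∀ t ∈ P, ∃ x ∈ J n, x.1 = t ∧ zc (D.lev n (max b c)) x.2 = j ∧
        D.b n b (cu t) = mk4 D n b x ∧ D.b n c (cv t) = mk4 D n c x) ∧
    (∃ C : ℝ, 0 ≤ C ∧ ∀ b c : ℚ, 0 ≤ b → b ≤ 1 → 0 ≤ c → c ≤ 1 → ∀ ε : ℝ, 0 < ε →
    ∃ jx : ℕ → ℕ × ℝ → ℤ,
    (∀ᶠ n in (U : Filter ℕ), ∀ x ∈ D.I n, jx n x / 2 ^ 7 = zc (D.lev n (max b c)) x.2) ∧
    ∀ b' c' : ℚ, (b' = b ∧ c' = c ∨ b' = c ∧ c' = b) →
    ∀ J : ℕ → Finset (ℕ × ℝ), Dense D.B J D.I →
    ∀ᶠ n in (U : Filter ℕ), ∃ (j : ℤ) (P : Finset ℕ) (cu cv : ℕ → ℕ) (M a w1 w2 : ℝ), P.Nonempty ∧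
      (D.r0 n ≤ rho (D.lev n (max b c) + 7) →
        Two7 qm qp (D.L n) P cu cv (D.b n b') (D.b n c') (D.B.d n ^ (-(C * |(b:ℝ) - c| + ε))) M
          a w1 w2 (zl (D.lev n (max b c) + 7) j) (rho (D.lev n (max b c) + 7))
          (zl (D.lev n (max b c)) (j / 2 ^ 7)) (rho (D.lev n (max b c))) (D.r0 n)) ∧
      Pl2W102.Two7 qm qp (D.L n) P cu cv (D.b n b') (D.b n c')
          (D.B.d n ^ (-(C * |(b:ℝ) - c| + ε))) M a w1 w2 (zl (D.lev n (max b c) + 7) j)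
          (rho (D.lev n (max b c) + 7)) (zl (D.lev n (max b c)) (j / 2 ^ 7))
          (rho (D.lev n (max b c))) (D.r0 n) ∧
      rho (D.lev n (max b c)) = 128 * rho (D.lev n (max b c) + 7) ∧
      (rho (D.lev n (max b c) + 7) < D.r0 n → w1 ≤ 128 * a) ∧
      ∀ t ∈ P, ∃ x ∈ J n, x.1 = t ∧ jx n x = j ∧
        D.b n b' (cu t) = mk4 D n b' x ∧ D.b n c' (cv t) = mk4 D n c' x) := by
  obtain ⟨qm, qp, hE, hD, hD7⟩ := hJ1.dall
  refine ⟨qm, qp, hE, ?_, two7_seqM hJ1.mka (J1c.qpos hJ1) hJ1.g0.1.le hJ1.r0pos hJ1.r0log hJ1.vel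
    hD hD7⟩
  obtain ⟨C, hC, h⟩ := two1_seqE hJ1.mka (J1c.qpos hJ1) hJ1.g0.1.le hJ1.r0pos hJ1.r0log hJ1.vel hD
  refine ⟨C, hC, fun b c hb0 hb1 hc0 hc1 ε hε J hJ => ?_⟩
  filter_upwards [h b c hb0 hb1 hc0 hc1 ε hε J hJ] with n hn
  obtain ⟨j, Q, cu, cv, h1, h2, h3⟩ := hn
  refine ⟨j, Q, cu, cv, _, _, _, _, h1, h2, fun t ht => ?_⟩
  obtain ⟨x, hx, hx1, hx2, hx3, hx4, hx5⟩ := h3 t ht
  exact ⟨x, hx, hx1, hx2, hx4, hx5⟩

end Crest.Agent.R136.Eng904
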