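import Mathlib
import Crest.Agent.R136.Two7_904
import Crest.Agent.R136.Plw2_102

/-!
# R136 (U4, PLAN 2): two systems of marks in a sub-cell, for helper102's wrapper (helper904)

`two7_at` : the literal `Pl2W102.TwoAt` over `J1c`; the sub-cell of an incidence does not depend on the
loss.
-/

set_option autoImplicit false
set_option linter.unusedVariables false
set_option maxHeartbeats 400000

open Finset Filter Topology

namespace Crest.Agent.R136.Eng904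

open Crest.Agent.R138.Ex926 Crest.Agent.R138.Dp76
open Crest.Agent.R138.Mk163 (zc zl rho alive own)
open Crest.Agent.R138.MkRef627 (lc)
open Crest.Agent.R136.MkA627 (Geo MkA ampA fib_bounds)
open Crest.Agent.R136.Deep51 Crest.Agent.R136.Tlt51 Crest.Agent.R136.Top484
open Crest.Agent.R136.Sh605 Crest.Agent.R136.K4
open Crest.Agent.R136.Pl2W102 (Near Two1 TwoAt)
open Crest.Agent.R136.Phc248 (phC phC_nonneg)
open Crest.Agent.R136.DAl879 (vmk DAll DAllK)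

open Classical in
/-- one family of sub-cells for all losses -/
theorem dallK_diag {k : ℕ} {B : Base} {I : ℕ → Finset (ℕ × ℝ)} {L : ℕ → ℕ → Ln4}
    {lev : ℕ → ℚ → ℕ} {A : ℕ → ℝ} {g : ℝ} {q : Fin 3 → ℝ} {r0 : ℕ → ℝ} {w : Fin 3 → ℕ → ℚ → ℝ}
    {qm qp : Fin 3 → ℝ} (hr0 : ∀ n, 0 < r0 n) (hA : ∀ n, 0 < A n)
    (h : DAllK k B I L lev A g q r0 w qm qp) {v : ℚ} (h0 : 0 ≤ v) (h1 : v ≤ 1)
    (hw : ∀ k : Fin 3, ∀ᶠ n in (U : Filter ℕ), 0 < w k n v) :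
    ∃ P : ℕ → Finset (ℕ × ℤ),
    (∀ᶠ n in (U : Filter ℕ), ∀ x ∈ I n, ∃ j : ℤ, j / 2 ^ k = zc (lev n v) x.2 ∧
      (x.1, j) ∈ P n) ∧
    ∀ ε : ℝ, 0 < ε → ∀ᶠ n in (U : Filter ℕ), ∀ (j : ℤ) (s : Plk4),
      ShN s.e s.c s.w s.q s.a (zl (lev n v + k) j) (rho (lev n v + k)) (r0 n) →
      s.w 1 ≤ rho (lev n v + k) →
      (((P n).filter fun o => o.2 = j ∧
          InSheet (L n o.1) s.e s.c s.w s.q s.a (zl (lev n v + k) j)
            (rho (lev n v + k))).card : ℝ) ≤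
        B.d n ^ (-ε) * (A n * B.d n ^ (-(g * v)) *
            vmk q (rho (lev n v)) (w 0 n v) (w 1 n v) (w 2 n v)) *
          phC qm qp (w 0 n v) (w 1 n v) (w 2 n v) s.a (s.w 1) (s.w 2) := by
  have hex : ∀ m : ℕ, ∃ P : ℕ → Finset (ℕ × ℤ),
      (∀ᶠ n in (U : Filter ℕ), ∀ x ∈ I n, ∃ j : ℤ, j / 2 ^ k = zc (lev n v) x.2 ∧
        (x.1, j) ∈ P n) ∧
      ∀ᶠ n in (U : Filter ℕ), ∀ (j : ℤ) (s : Plk4),
        ShN s.e s.c s.w s.q s.a (zl (lev n v + k) j) (rho (lev n v + k)) (r0 n) →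
        s.w 1 ≤ rho (lev n v + k) →
        (((P n).filter fun o => o.2 = j ∧
            InSheet (L n o.1) s.e s.c s.w s.q s.a (zl (lev n v + k) j)
              (rho (lev n v + k))).card : ℝ) ≤
          B.d n ^ (-(1 / ((m:ℝ) + 1))) * (A n * B.d n ^ (-(g * v)) *
              vmk q (rho (lev n v)) (w 0 n v) (w 1 n v) (w 2 n v)) *
            phC qm qp (w 0 n v) (w 1 n v) (w 2 n v) s.a (s.w 1) (s.w 2) := fun m =>
    h v h0 h1 (1 / ((m:ℝ) + 1)) (by positivity)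
  choose P hP1 hP2 using hex
  set Good : ℕ → ℕ → Prop := fun n m =>
    (∀ x ∈ I n, ∃ j : ℤ, j / 2 ^ k = zc (lev n v) x.2 ∧ (x.1, j) ∈ P m n) ∧
    ∀ (j : ℤ) (s : Plk4),
        ShN s.e s.c s.w s.q s.a (zl (lev n v + k) j) (rho (lev n v + k)) (r0 n) →
        s.w 1 ≤ rho (lev n v + k) →
        (((P m n).filter fun o => o.2 = j ∧
            InSheet (L n o.1) s.e s.c s.w s.q s.a (zl (lev n v + k) j)
              (rho (lev n v + k))).card : ℝ) ≤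
          B.d n ^ (-(1 / ((m:ℝ) + 1))) * (A n * B.d n ^ (-(g * v)) *
              vmk q (rho (lev n v)) (w 0 n v) (w 1 n v) (w 2 n v)) *
            phC qm qp (w 0 n v) (w 1 n v) (w 2 n v) s.a (s.w 1) (s.w 2) with hGood
  set kk : ℕ → ℕ := fun n => Nat.findGreatest (Good n) n with hkk
  have main : ∀ M : ℕ, ∀ᶠ n in (U : Filter ℕ), Good n (kk n) ∧ M ≤ kk n := by
    intro M
    filter_upwards [hP1 M, hP2 M, ev_ge M] with n a1 a2 a3
    have hg : Good n M := ⟨a1, a2⟩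
    exact ⟨Nat.findGreatest_spec a3 hg, Nat.le_findGreatest a3 hg⟩
  refine ⟨fun n => P (kk n) n, (main 0).mono fun n hn => hn.1.1, fun ε hε => ?_⟩
  obtain ⟨M, hM⟩ := exists_nat_one_div_lt hε
  filter_upwards [main M, hw 0, hw 1, hw 2] with n hn w0 w1 w2 j s hs hs1
  refine (hn.1.2 j s hs hs1).trans ?_
  have a0 : 0 < s.a := (hr0 n).trans_le hs.r0_le
  have a2 : 0 < s.w 2 := a0.trans_le (hs.a_le0.trans hs.w0_le)
  have a1 : 0 < s.w 1 := a2.trans_le hs.w_le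
  have hρ := rho_pos (lev n v)
  have hV : 0 < A n * B.d n ^ (-(g * v)) * vmk q (rho (lev n v)) (w 0 n v) (w 1 n v) (w 2 n v) := by
    have := hA n
    have := dpow_pos B n (-(g * v))
    unfold vmk
    positivity
  refine mul_le_mul_of_nonneg_right (mul_le_mul_of_nonneg_right ?_ hV.le)
    (phC_nonneg w0.le w1.le w2.le a0.le a1.le a2.le)
  refine d_mono B n ?_
  have h3 : (1:ℝ) / ((kk n : ℝ) + 1) ≤ 1 / ((M:ℝ) + 1) := by
    refine one_div_le_one_div_of_le (by positivity) ?_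
    have : (M:ℝ) ≤ kk n := by exact_mod_cast hn.2
    linarith
  linarith

variable {η : ℝ} {p : Par4} {D : Dat4}

open Classical in
/-- **two systems of marks in a sub-cell** -/
theorem two7_atM (hmka : MkD p D) (hq : ∀ k, 0 ≤ p.q k) (hg : 0 ≤ p.g) (hr0 : ∀ n, 0 < D.r0 n)
    (hlog : ∀ ε : ℝ, 0 < ε → ∀ᶠ n in (U : Filter ℕ), Real.log (1 / D.r0 n) ≤ D.B.d n ^ (-ε))
    (hvel : ∀ᶠ n in (U : Filter ℕ), ∀ x ∈ D.I n, ∀ i, |(D.L n x.1).v i| ≤ 1)
    {qm qp : Fin 3 → ℝ} (hD : DAll D.B D.I D.L D.lev D.A p.g p.q D.r0 D.w qm qp)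
    (hD7 : DAllK 7 D.B D.I D.L D.lev D.A p.g p.q D.r0 D.w qm qp) :
    ∃ C : ℝ, 0 ≤ C ∧ ∀ b c : ℚ, 0 ≤ b → b ≤ 1 → 0 ≤ c → c ≤ 1 →
    ∃ jx : ℕ → ℕ × ℝ → ℤ,
    (∀ᶠ n in (U : Filter ℕ), ∀ x ∈ D.I n, jx n x / 2 ^ 7 = zc (D.lev n (max b c)) x.2) ∧
    TwoAt qm qp C D (max b c) jx b c ∧ TwoAt qm qp C D (max b c) jx c b := by
  obtain ⟨C, hC, h⟩ := two1_seqE hmka hq hg hr0 hlog hvel hD
  refine ⟨C, hC, fun b c hb0 hb1 hc0 hc1 => ?_⟩
  have hv0 : 0 ≤ max b c := hb0.trans (le_max_left _ _)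
  have hv1 : max b c ≤ 1 := max_le hb1 hc1
  obtain ⟨P, hP1, hP2⟩ := dallK_diag hr0 hmka.Apos hD7 hv0 hv1 (fun k => hmka.wpos k _ hv0 hv1)
  set v : ℚ := max b c with hv
  set jx : ℕ → ℕ × ℝ → ℤ := fun n x =>
    if hx : ∃ j : ℤ, j / 2 ^ 7 = zc (D.lev n v) x.2 ∧ (x.1, j) ∈ P n then Classical.choose hx
    else 0 with hjx
  have hj : ∀ᶠ n in (U : Filter ℕ), ∀ x ∈ D.I n, jx n x / 2 ^ 7 = zc (D.lev n v) x.2 ∧
      (x.1, jx n x) ∈ P n := by
    filter_upwards [hP1] with n hn x hx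
    have h1 := hn x hx
    have h2 := Classical.choose_spec h1
    have h3 : jx n x = Classical.choose h1 := by
      simp only [hjx]
      rw [dif_pos h1]
    rw [h3]; exact h2
  refine ⟨jx, hj.mono fun n hn x hx => (hn x hx).1, ?_⟩
  have key : ∀ b' c' : ℚ, max b' c' = v → 0 ≤ b' → b' ≤ 1 → 0 ≤ c' → c' ≤ 1 →
      TwoAt qm qp C D v jx b' c' := by
    intro b' c' hmax hb0 hb1 hc0 hc1 ε hε J hJ
    filter_upwards [h b' c' hb0 hb1 hc0 hc1 (ε / 2) (by positivity) J hJ, hj,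
      hP2 (ε / 2) (by positivity), hJ.1,
      ev_small D.B (show 0 < ε / 2 by positivity) (K := 1 / 600) (by norm_num)] with
      n z1 z2 z3 z4 z5
    rw [hmax] at z1
    obtain ⟨J0, Q, cu, cv, q1, q2, q3⟩ := z1
    have hδ : 0 ≤ |(b':ℝ) - c'| := abs_nonneg _
    have hCδ : 0 ≤ C * |(b':ℝ) - c'| := mul_nonneg hC hδ
    have hM := q2.M0
    have hW1 := q2.W1
    choose! xt hxJ hx1 hx2 hx3 hx4 hx5 using q3
    obtain ⟨j, Q', r1, r2, r3, r5, r4⟩ := two7_of (lv := D.lev n v) (J := J0) (Pn := P n)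
      (jt := fun t => jx n (xt t)) q2 q1
      (by
        intro t ht
        rw [← hx2 t ht]
        exact (z2 _ (z4 (hxJ t ht))).1)
      (by
        intro t ht
        have := (z2 _ (z4 (hxJ t ht))).2
        rw [hx1 t ht] at this
        exact this)
      (by
        intro j s hs hs1
        have a0 : 0 < s.a := (hr0 n).trans_le hs.r0_le
        have a2 : 0 < s.w 2 := a0.trans_le (hs.a_le0.trans hs.w0_le)
        have a1 : 0 < s.w 1 := a2.trans_le hs.w_le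
        refine (z3 j s hs hs1).trans ?_
        have hW0 : D.B.d n ^ (-(ε / 2)) ≤ D.B.d n ^ (-(C * |(b':ℝ) - c'| + ε / 2)) :=
          d_mono D.B n (by linarith)
        exact mul_le_mul_of_nonneg_right (mul_le_mul_of_nonneg_right hW0 hM.le)
          (phC_nonneg q2.a0.le q2.w10.le q2.w20.le a0.le a1.le a2.le))
    have hWW : 600 * D.B.d n ^ (-(C * |(b':ℝ) - c'| + ε / 2)) ≤
        D.B.d n ^ (-(C * |(b':ℝ) - c'| + ε)) := by
      have hde := dpow_pos D.B n (ε / 2)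
      have h5 : (600:ℝ) ≤ D.B.d n ^ (-(ε / 2)) := by
        rw [Real.rpow_neg (D.B.pos n).le, le_inv_comm₀ (by norm_num) hde]
        rw [one_div] at z5; exact z5
      have e1 : D.B.d n ^ (-(C * |(b':ℝ) - c'| + ε)) =
          D.B.d n ^ (-(ε / 2)) * D.B.d n ^ (-(C * |(b':ℝ) - c'| + ε / 2)) := by
        rw [← dpow_add]; congr 1; ring
      rw [e1]
      exact mul_le_mul_of_nonneg_right h5 (dpow_pos D.B n _).le
    have t1 := two1_mono r4 hWW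
    have hrho : rho (D.lev n v) = 128 * rho (D.lev n v + 7) := by
      unfold Crest.Agent.R138.Mk163.rho
      rw [pow_add]; field_simp; norm_num
    have hanc : anc (D.lev n v) (D.lev n v + 7) j = j / 2 ^ 7 := by
      unfold Crest.Agent.R136.Deep51.anc
      rw [Nat.add_sub_cancel_left]
    obtain ⟨s1, s2⟩ := sub_cell (i := D.lev n v) (m := D.lev n v + 7) (by omega) j
    rw [hanc] at s1 s2
    have hρ7 := rho_pos (D.lev n v + 7)
    have hW128 : 128 ≤ D.B.d n ^ (-(C * |(b':ℝ) - c'| + ε)) := by linarith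
    have t7 : Pl2W102.Two7 qm qp (D.L n) Q' cu cv (D.b n b') (D.b n c')
        (D.B.d n ^ (-(C * |(b':ℝ) - c'| + ε))) (cls p D n v) (D.w 0 n v) (D.w 1 n v) (D.w 2 n v)
        (zl (D.lev n v + 7) j) (rho (D.lev n v + 7)) (zl (D.lev n v) (j / 2 ^ 7))
        (rho (D.lev n v)) (D.r0 n) :=
      { to1 := t1
        z1 := s1
        z2 := s2
        l1 := hrho.symm.le
        l2 := by rw [hrho]; exact mul_le_mul_of_nonneg_right hW128 hρ7.le
        shU := fun t ht => by rw [r2]; exact q2.shU t (r1 ht)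
        shV := fun t ht => by rw [r2]; exact q2.shV t (r1 ht)
        inU := fun t ht => by rw [r2]; exact q2.inU t (r1 ht)
        inV := fun t ht => by rw [r2]; exact q2.inV t (r1 ht) }
    exact ⟨j, Q', cu, cv, cls p D n v, D.w 0 n v, D.w 1 n v, D.w 2 n v, r3, t7,
      fun t ht => ⟨xt t, hxJ t (r1 ht), hx1 t (r1 ht), r5 t ht, hx4 t (r1 ht), hx5 t (r1 ht)⟩⟩
  exact ⟨key _ _ rfl hb0 hb1 hc0 hc1, key _ _ (max_comm _ _) hc0 hc1 hb0 hb1⟩

/-- **literal of helper102's wrapper** -/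
theorem two7_at (hJ1 : J1c η p D) : ∃ qm qp : Fin 3 → ℝ, DAl879.Ex2 η qm qp ∧
    ∃ C : ℝ, 0 ≤ C ∧ ∀ b c : ℚ, 0 ≤ b → b ≤ 1 → 0 ≤ c → c ≤ 1 →
    ∃ jx : ℕ → ℕ × ℝ → ℤ,
    (∀ᶠ n in (U : Filter ℕ), ∀ x ∈ D.I n, jx n x / 2 ^ 7 = zc (D.lev n (max b c)) x.2) ∧
    TwoAt qm qp C D (max b c) jx b c ∧ TwoAt qm qp C D (max b c) jx c b := by
  obtain ⟨qm, qp, hE, hD, hD7⟩ := hJ1.dall
  exact ⟨qm, qp, hE, two7_atM hJ1.mka (J1c.qpos hJ1) hJ1.g0.1.le hJ1.r0pos hJ1.r0log hJ1.vel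
    hD hD7⟩

end Crest.Agent.R136.Eng904
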