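import Mathlib
import Crest.Agent.R136.Two8_904

/-!
# R136 (U4, PLAN 2): the marks of two levels at one incidence (helper904)
-/

set_option autoImplicit false
set_option linter.unusedVariables false
set_option maxHeartbeats 400000

open Finset Filter Topology

namespace Crest.Agent.R136.Eng904

open Crest.Agent.R138.Ex926 Crest.Agent.R138.Dp76
open Crest.Agent.R138.Mk163 (zc zl rho alive own)
open Crest.Agent.R138.MkRef627 (lc)
open Crest.Agent.R136.MkA627 (Geo MkA ampA fib_bounds)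
open Crest.Agent.R136.Deep51 Crest.Agent.R136.Tlt51 Crest.Agent.R136.Top484
open Crest.Agent.R136.Sh605 Crest.Agent.R136.K4
open Crest.Agent.R136.Pl2W102 (Near Two1 TwoAt Inc zs rs)

variable {η : ℝ} {p : Par4} {D : Dat4}

theorem rho7' (D : Dat4) (v : ℚ) (n : ℕ) : rho (D.lev n v) = 128 * rs D v n := by
  unfold Crest.Agent.R136.Pl2W102.rs Crest.Agent.R138.Mk163.rho
  rw [pow_add]; field_simp; norm_num

/-- **the marks of two levels at one incidence** -/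
theorem inc_J1c (hJ : J1c η p D) : ∃ Cw : ℝ, 0 ≤ Cw ∧ ∀ (u v : ℚ) (jx : ℕ → ℕ × ℝ → ℤ), 0 ≤ u →
    u < v → v ≤ 1 →
    (∀ᶠ n in (U : Filter ℕ), ∀ x ∈ D.I n, jx n x / 2 ^ 7 = zc (D.lev n v) x.2) →
    ∀ ε : ℝ, 0 < ε → ∀ᶠ n in (U : Filter ℕ), ∀ x ∈ D.I n,
      Inc D n u v jx (D.B.d n ^ (-(Cw * ((v:ℝ) - u) + ε))) x := by
  obtain ⟨K, hK1, hK⟩ : ∃ K : ℝ, 1 ≤ K ∧ ∀ k : Fin 3, |1 - p.θ k| ≤ K := by
    have h0 := abs_nonneg (1 - p.θ 0)
    have h1 := abs_nonneg (1 - p.θ 1)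
    have h2 := abs_nonneg (1 - p.θ 2)
    refine ⟨|1 - p.θ 0| + |1 - p.θ 1| + |1 - p.θ 2| + 1, by linarith, fun k => ?_⟩
    fin_cases k
    · show |1 - p.θ 0| ≤ _
      linarith
    · show |1 - p.θ 1| ≤ _
      linarith
    · show |1 - p.θ 2| ≤ _
      linarith
  refine ⟨K, by linarith, fun u v jx hu huv hv hjx ε hε => ?_⟩
  have hv0 : 0 ≤ v := hu.trans huv.le
  have hu1 : u ≤ 1 := huv.le.trans hv
  have huv' : (u:ℝ) < v := by exact_mod_cast huv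
  have hδ : |(u:ℝ) - v| = v - u := by rw [abs_sub_comm, abs_of_pos (by linarith)]
  have hKδ : (v:ℝ) - u ≤ K * ((v:ℝ) - u) := le_mul_of_one_le_left (by linarith) hK1
  filter_upwards [hjx, hJ.mka.lev_mono u v hu huv.le hv, lev2 hJ.mka hu huv.le hv hε,
    mark_ofM hJ.mka hu hu1, mark_ofM hJ.mka hv0 hv, ratio_rw hJ.mka hK hu hu1 hv0 hv hε] with
    n h1 h2 h3 m1 m2 h4 x hx
  have M1 := m1 x hx
  have M2 := m2 x hx
  have e1 : anc (D.lev n v) (D.lev n v + 7) (jx n x) = zc (D.lev n v) x.2 := by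
    unfold Crest.Agent.R136.Deep51.anc
    rw [Nat.add_sub_cancel_left]
    exact h1 x hx
  obtain ⟨s1, s2⟩ := sub_cell (i := D.lev n v) (m := D.lev n v + 7) (by omega) (jx n x)
  rw [e1] at s1 s2
  obtain ⟨t1, t2⟩ := sub_cell (i := D.lev n u) (m := D.lev n v) h2 (zc (D.lev n v) x.2)
  rw [anc_zc h2] at t1 t2
  rw [hδ] at h4
  refine ⟨M1.shp, M2.shp, M1.inP, M2.inP, ⟨M1.a, M1.w1, M1.w2⟩, ⟨M2.a, M2.w1, M2.w2⟩, t1, t2, ?_,
    s1, s2, rho7' D v n, fun k => ⟨(h4 k).2.2.1, (h4 k).2.2.2⟩⟩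
  show rho (D.lev n u) ≤ _ * rho (D.lev n v)
  have h5 : D.B.d n ^ (-((v:ℝ) - u + ε)) ≤ D.B.d n ^ (-(K * ((v:ℝ) - u) + ε)) :=
    d_mono D.B n (by linarith)
  have h6 : (2:ℝ) ^ D.lev n v ≤ D.B.d n ^ (-(K * ((v:ℝ) - u) + ε)) * 2 ^ D.lev n u :=
    h3.trans (mul_le_mul_of_nonneg_right h5 (by positivity))
  unfold Crest.Agent.R138.Mk163.rho
  rw [mul_one_div, div_le_div_iff₀ (by positivity) (by positivity), one_mul]
  exact h6

end Crest.Agent.R136.Eng904
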