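import Mathlib.Analysis.SpecificLimits.Basic
import Mathlib.Tactic

/-!
# R136 U4, (A1): induction over the container ratio, FULL class (helper289)

Abstract configurations `α`, `rat F` = container ratio of `F` per unit length (any real),
`adm n F` = admissible with errors of stage `n` (`δ_n → 0`, `M_n → ∞`).

* `min_counter`  : a bad configuration whose ratio is minimal up to the factor `3/4`;
* `counter_seq`  : if the classes `rat ≤ C0` are good at some stage and the full class is bad at all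
  stages, then there are bad configurations of all late stages such that every admissible
  configuration of ratio `≤ 3/4` of theirs is good (= the input of the rebasing);
* `closure_full` : step (all deep windows have value `≤ g` ⊢ `val ≤ b + η`, uniformly in the ratio) and
  base class ⊢ the bound for the full class, `δ` and `M0` uniform.
-/

set_option autoImplicit false

namespace Crest.Agent.R136.Ind289

variable {α : Type*}

/-- **minimal counterexample up to the factor `3/4`** -/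
theorem min_counter (A Bad : α → Prop) (rat : α → ℝ) {C0 : ℝ} (hC0 : 0 < C0)
    (base : ∀ F, A F → rat F ≤ C0 → ¬ Bad F) {F : α} (hA : A F) (hB : Bad F) :
    ∃ G, A G ∧ Bad G ∧ C0 < rat G ∧ rat G ≤ rat F ∧
      ∀ G', A G' → rat G' ≤ 3 / 4 * rat G → ¬ Bad G' := by
  have key : ∀ n : ℕ, ∀ F : α, A F → Bad F → rat F ≤ (4 / 3 : ℝ) ^ n * C0 →
      ∃ G, A G ∧ Bad G ∧ C0 < rat G ∧ rat G ≤ rat F ∧
        ∀ G', A G' → rat G' ≤ 3 / 4 * rat G → ¬ Bad G' := by
    intro n
    induction n with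
    | zero =>
      intro F hA hB hF
      exact absurd hB (base F hA (by simpa using hF))
    | succ n ih =>
      intro F hA hB hF
      have hlt : C0 < rat F := by
        by_contra h
        exact base F hA (not_lt.1 h) hB
      by_cases h : ∀ G', A G' → rat G' ≤ 3 / 4 * rat F → ¬ Bad G'
      · exact ⟨F, hA, hB, hlt, le_rfl, h⟩
      · push Not at h
        obtain ⟨G', h1, h2, h3⟩ := h
        have h4 : rat G' ≤ (4 / 3 : ℝ) ^ n * C0 := by
          rw [pow_succ] at hF
          nlinarith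
        obtain ⟨G, k1, k2, k3, k4, k5⟩ := ih G' h1 h3 h4
        exact ⟨G, k1, k2, k3, k4.trans (by linarith), k5⟩
  obtain ⟨n, hn⟩ := pow_unbounded_of_one_lt (rat F / C0) (show (1:ℝ) < 4 / 3 by norm_num)
  exact key n F hA hB (by rw [div_lt_iff₀ hC0] at hn; exact hn.le)

/-- **sequence of counterexamples** : `adm n` decreasing in `n`; good base class from the stage
`n0` on; the full class is bad at every stage. -/
theorem counter_seq (adm : ℕ → α → Prop) (rat val : α → ℝ) {C0 b : ℝ} (hC0 : 0 < C0) {n0 : ℕ}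
    (hadm : ∀ n n' F, n ≤ n' → adm n' F → adm n F)
    (base : ∀ F, adm n0 F → rat F ≤ C0 → val F ≤ b)
    (bad : ∀ n, ∃ F, adm n F ∧ b < val F) :
    ∀ n, n0 ≤ n → ∃ F, adm n F ∧ b < val F ∧ C0 < rat F ∧
      ∀ G, adm n G → rat G ≤ 3 / 4 * rat F → val G ≤ b := by
  intro n hn
  obtain ⟨F, hF, hb⟩ := bad n
  obtain ⟨G, h1, h2, h3, -, h5⟩ := min_counter (adm n) (fun F => b < val F) rat hC0
    (fun F hF hr => not_lt.2 (base F (hadm _ _ _ hn hF) hr)) hF hb
  exact ⟨G, h1, h2, h3, fun G' hG' hr => not_lt.1 (h5 G' hG' hr)⟩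

/-- **closure of the full class from one uniform step.** -/
theorem closure_full (adm : ℝ → α → Prop) (len rat val : α → ℝ) (deep : α → α → Prop)
    {C0 b g : ℝ} (hC0 : 0 < C0) (hbg : b < g)
    (hadm : ∀ δ δ' F, δ ≤ δ' → adm δ F → adm δ' F)
    (hdlen : ∀ F F'', deep F F'' → len F ≤ len F'')
    (hdadm : ∀ δ F F'', deep F F'' → adm δ F → adm δ F'')
    (hdrat : ∀ F F'', C0 < rat F → deep F F'' → rat F'' ≤ max C0 (3 / 4 * rat F))
    (base : ∀ η : ℝ, 0 < η → ∃ δ : ℝ, 0 < δ ∧ ∃ M0 : ℝ, ∀ F, rat F ≤ C0 → adm δ F →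
      M0 ≤ len F → val F ≤ b + η)
    (step : ∀ η : ℝ, 0 < η → ∃ δ : ℝ, 0 < δ ∧ ∃ M0 : ℝ, ∀ F, C0 < rat F → adm δ F →
      M0 ≤ len F → (∀ F'', deep F F'' → val F'' ≤ g) → val F ≤ b + η) :
    ∀ η : ℝ, 0 < η → ∃ δ : ℝ, 0 < δ ∧ ∃ M0 : ℝ, ∀ F, adm δ F → M0 ≤ len F → val F ≤ b + η := by
  -- crude bound `g`
  have crude : ∃ δ : ℝ, 0 < δ ∧ ∃ M0 : ℝ, ∀ F, adm δ F → M0 ≤ len F → val F ≤ g := by
    obtain ⟨δ1, h1, M1, hb1⟩ := base (g - b) (by linarith)
    obtain ⟨δ2, h2, M2, hb2⟩ := step (g - b) (by linarith)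
    refine ⟨min δ1 δ2, lt_min h1 h2, max M1 M2, ?_⟩
    by_contra hcon
    push Not at hcon
    obtain ⟨F, hA, hM, hv⟩ := hcon
    obtain ⟨G, ⟨g1, g1'⟩, g2, g3, -, g5⟩ := min_counter
      (fun F => adm (min δ1 δ2) F ∧ max M1 M2 ≤ len F) (fun F => g < val F) rat hC0
      (fun F hF hr => by
        have := hb1 F hr (hadm _ _ F (min_le_left _ _) hF.1) ((le_max_left _ _).trans hF.2)
        linarith) ⟨hA, hM⟩ hv
    have := hb2 G g3 (hadm _ _ G (min_le_right _ _) g1) ((le_max_right _ _).trans g1')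
      fun F'' hd => by
        have hr := hdrat G F'' g3 hd
        have hA'' := hdadm _ G F'' hd g1
        have hM'' := g1'.trans (hdlen G F'' hd)
        rcases le_max_iff.1 hr with h | h
        · have := hb1 F'' h (hadm _ _ F'' (min_le_left _ _) hA'') ((le_max_left _ _).trans hM'')
          linarith
        · exact not_lt.1 (g5 F'' ⟨hA'', hM''⟩ h)
    linarith
  obtain ⟨δ0, h0, M0, hc⟩ := crude
  intro η hη
  obtain ⟨δ3, h3, M3, hb3⟩ := base η hη
  obtain ⟨δ4, h4, M4, hb4⟩ := step η hη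
  refine ⟨min δ0 (min δ3 δ4), by positivity, max M0 (max M3 M4), fun F hA hM => ?_⟩
  have hM0 : M0 ≤ len F := (le_max_left _ _).trans hM
  have hM34 := (le_max_right M0 (max M3 M4)).trans hM
  rcases le_or_gt (rat F) C0 with h | h
  · exact hb3 F h (hadm _ _ F ((min_le_right _ _).trans (min_le_left _ _)) hA)
      ((le_max_left _ _).trans hM34)
  · refine hb4 F h (hadm _ _ F ((min_le_right _ _).trans (min_le_right _ _)) hA)
      ((le_max_right _ _).trans hM34) fun F'' hd => ?_
    exact hc F'' (hdadm _ F F'' hd (hadm _ _ F (min_le_left _ _) hA)) (hM0.trans (hdlen F F'' hd))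

end Crest.Agent.R136.Ind289
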