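import Crest.Agent.R136.Res5_648

/-!
# R136: wall resonances of 5b (helper648), part 6: the four windows

* `AY_win` ((w, K) = (3, 3)), `BY_win` ((3, 4)), `YY_win` ((4, 4)), `zY_win` ((3, 2)):
  the own motion is `(ψ - β_j(line)) * fk` on a dense part, `ψ` one constant per class (`ResQ`).
-/

set_option autoImplicit false
set_option linter.unusedVariables false
set_option linter.unusedSectionVars false

open Filter Topology

namespace Crest.Agent.R136.Res2648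

open Finset Crest.Agent.R136.NetW191 Crest.Agent.R136.Net191 Crest.Agent.R136.Qg926
open Crest.Agent.R136.EvW938 Crest.Agent.R136.Gf356 Crest.Agent.R136.Res1648
open Crest.Agent.R138.Ex926 (Base U)

/-- quotient of powers -/
lemma quo {ρ A v a b e : ℝ} (hρ : 0 < ρ) (hρ1 : ρ ≤ 1) (hA : A ≤ ρ ^ (-e)) (hv : v ≤ A * ρ ^ a) :
    v / ρ ^ b ≤ ρ ^ (a - b - e) := by
  have hd : ∀ u : ℝ, 0 < ρ ^ u := fun u => Real.rpow_pos_of_pos hρ u
  rw [div_le_iff₀ (hd b), ← Real.rpow_add hρ]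
  refine hv.trans ((mul_le_mul_of_nonneg_right hA (hd a).le).trans (le_of_eq ?_))
  rw [← Real.rpow_add hρ]
  congr 1
  ring

section

variable {ι : ℕ → Type*} [∀ n, DecidableEq (ι n)]
variable {W : Wnd 18 ι} {κ : ℕ → ℝ} {lam : ℕ → Fin 18 → ℝ} {f : ∀ n, ι n → FW}
  {V : Finset (Fin 14)} {x σ : ℝ} {E E' : ∀ n, Finset (ι n)} {Mu g : ℕ → ℝ}
  {ex : ℕ → ∀ n, ι n → ℕ} {T : Finset (Fin 18)} {a : Fin 18} {s : ℝ}

/-- the model -/
theorem WinD.model (D : WinD W κ lam f V E x σ) (h : WWnd W κ lam f) (hE : Wnd.EOk W E Mu) :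
    ∃ (E' : ∀ n, Finset (ι n)) (g : ℕ → ℝ), Wnd.Pruned W E E' g (fun _ _ _ => 0) ∧
      RModel W.B' (W.cfg E') σ x W.legW W.nu W.Dc := by
  have hfr : ∀ y, 0 ≤ y → y ≤ x → W.lam (Pi.single W.kz y) ≤ -(σ * y) := by
    rw [h.kz]; exact D.frost
  obtain ⟨E', g, hP, -, H⟩ := Wnd.EOk.exists_model h.ok hE (fun _ _ _ => 0)
    (g₀ := fun n => W.B'.L n) W.B'.L_tendsto D.dens D.σ0.le D.σ1 (D.top _) hfr
  exact ⟨E', g, hP, H⟩

theorem Z_nonempty (H : RModel W.B' (W.cfg E') σ x W.legW W.nu W.Dc) (n : ℕ) :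
    (W.cfg E' n).Z.Nonempty := by
  obtain ⟨⟨i, k⟩, hI⟩ := H.nonempty n
  exact ⟨k, H.memZ hI⟩

/-- `two_many` without transfer -/
theorem two_many0 (h : WWnd W κ lam f) (hE : Wnd.EOk W E Mu) (hP : Wnd.Pruned W E E' g ex)
    (H : RModel W.B' (W.cfg E') σ x W.legW W.nu W.Dc) (hx : 0 < x) (Rt : Rate W T a x s) :
    ∃ C : ℝ, 0 < C ∧ ∀ ε : ℝ, 0 < ε → C * ε ≤ x → ∀ᶠ n in (U : Filter ℕ),
      ∃ k₀ i l : ℕ, ∃ P ⊆ (W.cfg E' n).Z ×ˢ (W.cfg E' n).Z,
        Two W κ lam f E' T a x (C * ε) n k₀ i l ∧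
        W.B'.d n ^ (C * ε) * ((W.cfg E' n).Z.card : ℝ) ^ 2 ≤ (P.card : ℝ) ∧
        ∀ q ∈ P, (i, q.1) ∈ (W.cfg E' n).I ∧ (l, q.1) ∈ (W.cfg E' n).I ∧
          (i, q.2) ∈ (W.cfg E' n).I ∧ (l, q.2) ∈ (W.cfg E' n).I ∧
          Pop W.B' (W.cfg E') (4 * ε) n k₀ q.1 ∧ Pop W.B' (W.cfg E') (4 * ε) n k₀ q.2 ∧
          Pop W.B' (W.cfg E') (4 * ε) n q.1 q.2 := by
  obtain ⟨C, hC, hm⟩ := two_many h hE hP H hx Rt 0 0 (zero_legW h.ok) (zero_legW h.ok)
    (fun _ => le_rfl) le_rfl one_pos (fun ε hε => by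
      filter_upwards [loose_zero h hE hP hε] with n g1 k k' i i' h1 h2 h3 h4 h5
      rw [one_mul]
      exact g1 k' i i' h2 h4)
  refine ⟨C, hC, fun ε hε hCx => ?_⟩
  filter_upwards [hm ε hε hCx] with n ⟨k₀, i, l, P, h1, h2, h3, h4⟩
  exact ⟨k₀, i, l, P, h1, h2, h3, fun q hq => ⟨(h4 q hq).1, (h4 q hq).2.1, (h4 q hq).2.2.1,
    (h4 q hq).2.2.2.1, (h4 q hq).2.2.2.2.2.2.1, (h4 q hq).2.2.2.2.2.2.2.1,
    (h4 q hq).2.2.2.2.2.2.2.2⟩⟩

/-! ### `AY`, (w, K) = (3, 3) -/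

/-- **the resonance `AY`** -/
theorem AY_win (h : WWnd W κ lam f) (hE : Wnd.EOk W E Mu) (D : WinD W κ lam f {5} E x σ)
    (s14 : (14 : Fin 18) ∈ W.S) (s6 : (6 : Fin 18) ∉ W.S) (s8 : (8 : Fin 18) ∉ W.S)
    (s11 : (11 : Fin 18) ∉ W.S)
    (t14 : ∀ᶠ n in (U : Filter ℕ), W.X n 14 = W.X n 2 + W.X n 9)
    (t11 : ∀ᶠ n in (U : Filter ℕ), W.X n 11 = W.X n 2 + W.X n 6)
    (Rt : Rate W {1, 8} 2 x s) :
    ∀ ε : ℝ, 0 < ε → ∀ᶠ n in (U : Filter ℕ), ∃ G ⊆ E n,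
      Mu n * W.B'.d n ^ (W.lam W.top + ε) ≤ (G.card : ℝ) ∧ ResQ W κ lam f 2 {5} x n ε G := by
  have hx := D.x_pos
  obtain ⟨E', g, hP, H⟩ := D.model h hE
  have s9 : (9 : Fin 18) ∈ W.S := D.hV 5 (by decide)
  obtain ⟨C, hC, hmany⟩ := two_many0 h hE hP H hx Rt
  have hKR := KR_one h.ok
  have hK0 : 0 ≤ KR W := by linarith
  have hCR := (CR_ge hKR).1
  refine resq_of D h hE hP adm_AY (Ch := 0) le_rfl ?_ (C := 2 * C + 2) (by positivity) ?_
  · intro ε hε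
    filter_upwards with n i hi i' hi' l hl e1 e2 q hq
    have := sh_AY (κ n) (coW (κ n) (f n i) (f n l)) s9 s6 (coW (κ n) (f n i) (f n i') 0) q hq
    rw [this]
    change |coW (κ n) (f n i) (f n l) 6 * _ - coW (κ n) (f n i) (f n l) 6 * _| ≤ _
    rw [sub_self, abs_zero, zero_mul, zero_mul]
  · intro ε hε hεx
    have hCε : 0 < C * ε := by positivity
    have hεx1 : ε ≤ x := by linarith
    filter_upwards [hmany ε hε (by linarith), D.raw h hE hP hε hεx1, t14, t11,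
      ev_const_le W.B' hε (CR (KR W) + KR W + 2 * KR W ^ 2)] with n g1 g2 g3 g4 g5
    obtain ⟨k₀, i, l, P, hPZ, hT, hcard, hq⟩ := g1
    obtain ⟨hg, hEC, hcfg, R⟩ := g2
    set ρ := W.B'.d n with hρ
    have hρ0 : 0 < ρ := W.B'.pos n
    have hρ1 : ρ ≤ 1 := (W.B'.lt n).le
    have hd : ∀ u : ℝ, 0 < ρ ^ u := fun u => rpos W.B' n u
    have hdn : ∀ {u v : ℝ}, u ≤ v → ρ ^ v ≤ ρ ^ u := fun {u v} h' => rpow_anti W.B' n h'
    have sp := h.sd_pos n
    have T14 := sd_mul h (n := n) (u := 2) (v := 9) (s := 14) (by decide) g3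
    have T11 := sd_mul h (n := n) (u := 2) (v := 6) (s := 11) (by decide) g4
    obtain ⟨xA, xl, xz⟩ := rep_Aset hEC hcfg hT.hi
    obtain ⟨yA, yl, yz⟩ := rep_Aset hEC hcfg hT.hl
    have hA5 : KR W ≤ ρ ^ (-ε) := by
      refine le_trans ?_ g5
      have : 0 ≤ 2 * KR W ^ 2 := by positivity
      linarith
    refine ⟨k₀, i, coW (κ n) (f n (W.rep n i k₀)) (f n (W.rep n l k₀)) 11 /
      coW (κ n) (f n (W.rep n i k₀)) (f n (W.rep n l k₀)) 2, P.image Prod.fst, ?_, ?_,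
      hT.hi, ?_, ?_, ?_⟩
    · intro k hk
      obtain ⟨q, hqP, rfl⟩ := mem_image.1 hk
      exact (mem_product.1 (hPZ hqP)).1
    · refine le_trans ?_ (card_fst hPZ hcard (Z_nonempty H n))
      exact mul_le_mul_of_nonneg_right (hdn (by linarith)) (Nat.cast_nonneg _)
    · intro k hk
      obtain ⟨q, hqP, rfl⟩ := mem_image.1 hk
      exact (hq q hqP).1
    · -- size of ψ
      have hb11 := R.bnd _ xA _ yA 11
      refine (divb (hd (C * ε)) (sp 2) (sp 6).le hK0 hb11 T11 hT.big).trans ?_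
      refine mul_le_mul_of_nonneg_right ?_ (sp _).le
      have h1 : KR W ≤ ρ ^ (-ε) * ρ ^ (0 : ℝ) := by rw [Real.rpow_zero, mul_one]; exact hA5
      have h2 := quo (v := KR W) (A := ρ ^ (-ε)) (a := 0) (b := C * ε) (e := ε) hρ0 hρ1
        le_rfl h1
      exact h2.trans (hdn (by linarith))
    · intro k hk q hqV
      obtain ⟨p, hpP, rfl⟩ := mem_image.1 hk
      obtain ⟨p1, p2, -⟩ := hq p hpP
      obtain ⟨xA', xl', xz'⟩ := rep_Aset hEC hcfg p1
      obtain ⟨yA', yl', yz'⟩ := rep_Aset hEC hcfg p2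
      have key := (AY_ratio R s14 s11 s8 T14 T11 xA xA' yA yA' (xl.trans xl'.symm)
        (yl.trans yl'.symm) (xz.trans yz.symm) (xz'.trans yz'.symm) (hd (x - C * ε)).le
        (hd (C * ε)) (hT.sm 1 (by decide)) (hT.sm 8 (by decide)) hT.big).1
      rw [mem_singleton] at hqV
      subst hqV
      rw [fk_AY]
      refine key.trans (mul_le_mul_of_nonneg_right ?_ (sp _).le)
      have h1 : (CR (KR W) + KR W) * ρ ^ (x - ε) + 2 * KR W ^ 2 * ρ ^ (x - C * ε) ≤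
          (CR (KR W) + KR W + 2 * KR W ^ 2) * ρ ^ (x - (C * ε + ε)) := by
        have a1 := mul_le_mul_of_nonneg_left (hdn (show x - (C * ε + ε) ≤ x - ε by linarith))
          (show 0 ≤ CR (KR W) + KR W by linarith)
        have a2 := mul_le_mul_of_nonneg_left (hdn (show x - (C * ε + ε) ≤ x - C * ε by linarith))
          (show 0 ≤ 2 * KR W ^ 2 by positivity)
        linarith
      refine (quo hρ0 hρ1 g5 h1 (b := C * ε)).trans (hdn ?_)
      linarith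

/-! ### `YY`, (w, K) = (4, 4) -/

/-- **the resonance `YY`** -/
theorem YY_win (h : WWnd W κ lam f) (hE : Wnd.EOk W E Mu) (D : WinD W κ lam f {1, 3} E x σ)
    (s9 : (9 : Fin 18) ∈ W.S) (s4 : (4 : Fin 18) ∉ W.S) (s6 : (6 : Fin 18) ∉ W.S)
    (t9 : ∀ᶠ n in (U : Filter ℕ), W.X n 9 = W.X n 2 + W.X n 5)
    (t9' : ∀ᶠ n in (U : Filter ℕ), W.X n 9 = W.X n 1 + W.X n 7)
    (t6 : ∀ᶠ n in (U : Filter ℕ), W.X n 6 = W.X n 2 + W.X n 4)
    (Rt : Rate W {1} 2 x s) {s' : ℝ} (Rt' : Rate W {2, 6} 1 x s') :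
    ∀ ε : ℝ, 0 < ε → ∀ᶠ n in (U : Filter ℕ), ∃ G ⊆ E n,
      Mu n * W.B'.d n ^ (W.lam W.top + ε) ≤ (G.card : ℝ) ∧
        ResQ W κ lam f 0 {1, 3} x n ε G := by
  have hx := D.x_pos
  obtain ⟨E', g, hP, H⟩ := D.model h hE
  have s5 : (5 : Fin 18) ∈ W.S := D.hV 1 (by decide)
  have s7 : (7 : Fin 18) ∈ W.S := D.hV 3 (by decide)
  obtain ⟨C, hC, hmany⟩ := two_many0 h hE hP H hx Rt
  obtain ⟨C', hC', hcell⟩ := two_cell (κ := κ) (lam := lam) (f := f) h hE hP H hx Rt'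
  have hKR := KR_one h.ok
  have hK0 : 0 ≤ KR W := by linarith
  have hCR := (CR_ge hKR).1
  refine resq_of D h hE hP adm_YY (Ch := 0) le_rfl ?_ (C := 2 * C + 2 * C' + 6)
    (by positivity) ?_
  · intro ε hε
    filter_upwards with n i hi i' hi' l hl e1 e2 q hq
    have := sh_YY (κ n) (coW (κ n) (f n i) (f n l)) s5 s7 s4 (coW (κ n) (f n i) (f n i') 0) q hq
    rw [this]
    change |coW (κ n) (f n i) (f n l) 4 * _ - coW (κ n) (f n i) (f n l) 4 * _| ≤ _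
    rw [sub_self, abs_zero, zero_mul, zero_mul]
  · intro ε hε hεx
    have hCε : 0 < C * ε := by positivity
    have hCε' : 0 < C' * ε := by positivity
    have hεx1 : ε ≤ x := by linarith
    have hK2 : 0 ≤ KR W ^ 2 := by positivity
    obtain ⟨A, hA⟩ : ∃ A : ℝ, A = (CR (KR W) + KR W + 6 * KR W ^ 2) +
      (CR (KR W) + KR W + 3 * KR W) + (CR (KR W) + KR W ^ 2 + KR W * CR (KR W)) +
      (3 + KR W) := ⟨_, rfl⟩
    filter_upwards [hmany ε hε (by linarith), hcell ε hε (by linarith), D.raw h hE hP hε hεx1,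
      t9, t9', t6, D.kap ε hε, ev_const_le W.B' hε A]
      with n g1 gc g2 g3 g3' g4 gκ g5
    obtain ⟨k₀, i, l, P, hPZ, hT, hcard, hq⟩ := g1
    obtain ⟨hg, hEC, hcfg, R⟩ := g2
    set ρ := W.B'.d n with hρ
    have hρ0 : 0 < ρ := W.B'.pos n
    have hρ1 : ρ ≤ 1 := (W.B'.lt n).le
    have hd : ∀ u : ℝ, 0 < ρ ^ u := fun u => rpos W.B' n u
    have hdn : ∀ {u v : ℝ}, u ≤ v → ρ ^ v ≤ ρ ^ u := fun {u v} h' => rpow_anti W.B' n h'
    have radd : ∀ u v : ℝ, ρ ^ (u + v) = ρ ^ u * ρ ^ v := fun u v => rpow_add' W.B' n u v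
    have sp := h.sd_pos n
    have T9 := sd_mul h (n := n) (u := 2) (v := 5) (s := 9) (by decide) g3
    have T9' := sd_mul h (n := n) (u := 1) (v := 7) (s := 9) (by decide) g3'
    have T6 := sd_mul h (n := n) (u := 2) (v := 4) (s := 6) (by decide) g4
    obtain ⟨xA, xl, xz⟩ := rep_Aset hEC hcfg hT.hi
    obtain ⟨yA, yl, yz⟩ := rep_Aset hEC hcfg hT.hl
    have nn1 : 0 ≤ CR (KR W) + KR W + 6 * KR W ^ 2 := by positivity
    have nn2 : 0 ≤ CR (KR W) + KR W + 3 * KR W := by positivity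
    have nn3 : 0 ≤ CR (KR W) + KR W ^ 2 + KR W * CR (KR W) := by positivity
    have A1 : CR (KR W) + KR W + 6 * KR W ^ 2 ≤ ρ ^ (-ε) := by
      refine le_trans ?_ g5
      rw [hA]; linarith
    have A2 : CR (KR W) + KR W + 3 * KR W ≤ ρ ^ (-ε) := by
      refine le_trans ?_ g5
      rw [hA]; linarith
    have A3 : CR (KR W) + KR W ^ 2 + KR W * CR (KR W) ≤ ρ ^ (-ε) := by
      refine le_trans ?_ g5
      rw [hA]; linarith
    have A4 : 3 + KR W ≤ ρ ^ (-ε) := by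
      refine le_trans ?_ g5
      rw [hA]; linarith
    have hA5 : KR W ≤ ρ ^ (-ε) := by linarith
    -- β of the two pairs
    have hbig : ∀ {c : ℝ} {v w : ℝ}, ρ ^ c * v ≤ |w| → 0 < v →
        ρ ^ (c + ε) * v ≤ |κ n| * |w| := by
      intro c v w h1 hv
      calc ρ ^ (c + ε) * v = ρ ^ ε * (ρ ^ c * v) := by rw [radd]; ring
        _ ≤ |κ n| * |w| := mul_le_mul gκ h1 (by have := hd c; positivity) (abs_nonneg _)
    refine ⟨k₀, i, coW (κ n) (f n (W.rep n i k₀)) (f n (W.rep n l k₀)) 6 /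
      (4 * κ n * coW (κ n) (f n (W.rep n i k₀)) (f n (W.rep n l k₀)) 2), P.image Prod.fst,
      ?_, ?_, hT.hi, ?_, ?_, ?_⟩
    · intro k hk
      obtain ⟨q, hqP, rfl⟩ := mem_image.1 hk
      exact (mem_product.1 (hPZ hqP)).1
    · refine le_trans ?_ (card_fst hPZ hcard (Z_nonempty H n))
      exact mul_le_mul_of_nonneg_right (hdn (by linarith)) (Nat.cast_nonneg _)
    · intro k hk
      obtain ⟨q, hqP, rfl⟩ := mem_image.1 hk
      exact (hq q hqP).1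
    · -- size of ψ
      have key := (YY_ratio R s9 s6 T9 T9' T6 xA xA yA yA rfl rfl (xz.trans yz.symm)
        (xz.trans yz.symm) (hd (x - C * ε)).le
        (hd (C * ε + ε)) (hT.sm 1 (by decide)) (hbig hT.big (sp 2))).2
      refine key.trans ?_
      refine mul_le_mul_of_nonneg_right ?_ (sp _).le
      have h1 : KR W ≤ ρ ^ (-ε) * ρ ^ (0 : ℝ) := by rw [Real.rpow_zero, mul_one]; exact hA5
      have h2 := quo (v := KR W) (A := ρ ^ (-ε)) (a := 0) (b := C * ε + ε) (e := ε) hρ0 hρ1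
        le_rfl h1
      exact h2.trans (hdn (by linarith))
    · intro k hk q hqV
      obtain ⟨p, hpP, rfl⟩ := mem_image.1 hk
      obtain ⟨p1, p2, p3, p4, p5, p6, p7⟩ := hq p hpP
      obtain ⟨xA', xl', xz'⟩ := rep_Aset hEC hcfg p1
      obtain ⟨yA', yl', yz'⟩ := rep_Aset hEC hcfg p2
      have r1 := (YY_ratio R s9 s6 T9 T9' T6 xA xA' yA yA' (xl.trans xl'.symm)
        (yl.trans yl'.symm) (xz.trans yz.symm) (xz'.trans yz'.symm) (hd (x - C * ε)).le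
        (hd (C * ε + ε)) (hT.sm 1 (by decide)) (hbig hT.big (sp 2))).1
      -- the second relation
      obtain ⟨i1, l1, c1, c2, hT'⟩ := gc k₀ p.1 p5
      obtain ⟨uA, ul, uz⟩ := rep_Aset hEC hcfg hT'.hi
      obtain ⟨vA, vl, vz⟩ := rep_Aset hEC hcfg hT'.hl
      obtain ⟨uA', ul', uz'⟩ := rep_Aset hEC hcfg c1
      obtain ⟨vA', vl', vz'⟩ := rep_Aset hEC hcfg c2
      have r2 := YY_r1 R s9 s6 T9 T9' uA uA' vA vA' (ul.trans ul'.symm) (vl.trans vl'.symm)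
        (uz.trans vz.symm) (uz'.trans vz'.symm) (hd (x - C' * ε)).le (hd (C' * ε + ε))
        (hT'.sm 2 (by decide)) (hT'.sm 6 (by decide)) (hbig hT'.big (sp 1))
      have r3 := YY_tr R s5 s7 s4 uA uA' xA xA' (ul.trans ul'.symm) (xl.trans xl'.symm)
        (uz.trans xz.symm) (uz'.trans xz'.symm) r2
      -- exponents
      have m1 : ((CR (KR W) + KR W) * ρ ^ (x - ε) + 6 * KR W ^ 2 * ρ ^ (x - C * ε)) /
          ρ ^ (C * ε + ε) ≤ ρ ^ (x - (2 * C + 2 * C' + 5) * ε) := by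
        have h1 : (CR (KR W) + KR W) * ρ ^ (x - ε) + 6 * KR W ^ 2 * ρ ^ (x - C * ε) ≤
            (CR (KR W) + KR W + 6 * KR W ^ 2) * ρ ^ (x - (C * ε + ε)) := by
          have a1 := mul_le_mul_of_nonneg_left (hdn (show x - (C * ε + ε) ≤ x - ε by linarith))
            (show 0 ≤ CR (KR W) + KR W by linarith)
          have a2 := mul_le_mul_of_nonneg_left
            (hdn (show x - (C * ε + ε) ≤ x - C * ε by linarith))
            (show 0 ≤ 6 * KR W ^ 2 by positivity)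
          linarith
        exact (quo hρ0 hρ1 A1 h1 (b := C * ε + ε)).trans (hdn (by linarith))
      have m2 : ((CR (KR W) + KR W) * ρ ^ (x - ε) + 3 * KR W * ρ ^ (x - C' * ε)) /
          ρ ^ (C' * ε + ε) ≤ ρ ^ (x - (2 * C + 2 * C' + 4) * ε) := by
        have h1 : (CR (KR W) + KR W) * ρ ^ (x - ε) + 3 * KR W * ρ ^ (x - C' * ε) ≤
            (CR (KR W) + KR W + 3 * KR W) * ρ ^ (x - (C' * ε + ε)) := by
          have a1 := mul_le_mul_of_nonneg_left (hdn (show x - (C' * ε + ε) ≤ x - ε by linarith))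
            (show 0 ≤ CR (KR W) + KR W by linarith)
          have a2 := mul_le_mul_of_nonneg_left
            (hdn (show x - (C' * ε + ε) ≤ x - C' * ε by linarith))
            (show 0 ≤ 3 * KR W by positivity)
          linarith
        exact (quo hρ0 hρ1 A2 h1 (b := C' * ε + ε)).trans (hdn (by linarith))
      have m3 : (CR (KR W) + KR W ^ 2 + KR W * CR (KR W)) * ρ ^ (x - ε) ≤
          ρ ^ (x - (2 * C + 2 * C' + 4) * ε) := by
        calc _ ≤ ρ ^ (-ε) * ρ ^ (x - ε) := mul_le_mul_of_nonneg_right A3 (hd _).le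
          _ = ρ ^ (-ε + (x - ε)) := (radd _ _).symm
          _ ≤ _ := hdn (by linarith)
      have m4 : ρ ^ (x - (2 * C + 2 * C' + 4) * ε) ≤ ρ ^ (x - (2 * C + 2 * C' + 5) * ε) :=
        hdn (by linarith)
      set e5 : ℝ := ρ ^ (x - (2 * C + 2 * C' + 5) * ε) with he5
      have r1' : |coW (κ n) (f n (W.rep n i k₀)) (f n (W.rep n i p.1)) 5 -
          coW (κ n) (f n (W.rep n i k₀)) (f n (W.rep n l k₀)) 6 /
          (4 * κ n * coW (κ n) (f n (W.rep n i k₀)) (f n (W.rep n l k₀)) 2) *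
          (2 * coW (κ n) (f n (W.rep n i k₀)) (f n (W.rep n i p.1)) 0)| ≤ e5 * sd W lam n 5 :=
        r1.trans (mul_le_mul_of_nonneg_right m1 (sp _).le)
      have r3' := r3.trans (mul_le_mul_of_nonneg_right
        (show _ ≤ e5 + e5 by linarith) (sp 7).le)
      have he0 : 0 < e5 := hd _
      have key := YY_fin R xA xA' he0.le (by linarith) r1' r3' q hqV
      refine key.trans (mul_le_mul_of_nonneg_right ?_ (sp _).le)
      calc e5 + KR W * e5 + (e5 + e5) = (3 + KR W) * e5 := by ring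
        _ ≤ ρ ^ (-ε) * e5 := mul_le_mul_of_nonneg_right A4 he0.le
        _ = ρ ^ (-ε + (x - (2 * C + 2 * C' + 5) * ε)) := (radd _ _).symm
        _ ≤ ρ ^ (x - (2 * C + 2 * C' + 6) * ε) := hdn (by linarith)

end

end Crest.Agent.R136.Res2648
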