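import Crest.Agent.R136.Inv1_599
import Crest.Agent.R136.Res6_648

/-!
# R136 (helper599): `WinD` of the wall resonances without the hypothesis `inv`

* `inv_of_const` : if a set of incidences has one `c`-label on every fat line, the own motion of the
  level slots resolved by `c` is `≤ ρ^(x - ε)`.
* `lowV W V` : resolution of a fat line with narrow level slots except `z` and the slots of `V`.
* **`exists_winD`** : any `E` with `EOk` contains a dense `E₁` with `WinD` (all fields), if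
  `lam top ≤ lam (lowV V) + lam (lev)`.
-/

set_option autoImplicit false
set_option linter.unusedSectionVars false
set_option linter.unusedVariables false

open Filter Topology

namespace Crest.Agent.R136.Inv599

open Finset Crest.Agent.R136.NetW191 Crest.Agent.R136.Net191 Crest.Agent.R136.Qg926
open Crest.Agent.R136.EvW938 Crest.Agent.R136.Gf356 Crest.Agent.R136.Res2648
open Crest.Agent.R138.Ex926 (Base U)

variable {ι : ℕ → Type*} [∀ n, DecidableEq (ι n)]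
variable {W : Wnd 18 ι} {κ : ℕ → ℝ} {lam : ℕ → Fin 18 → ℝ} {f : ∀ n, ι n → FW}
  {V : Finset (Fin 14)} {x σ : ℝ} {E E₁ : ∀ n, Finset (ι n)} {Mu : ℕ → ℝ}

/-- **own motion of the level slots resolved by `c`** -/
theorem inv_of_const (h : WWnd W κ lam f) (hE : Wnd.EOk W E Mu) {c : Fin 18 → ℝ}
    (hc : c ∈ Leg W.Mw W.R') (hx : 0 < x) (top : ∀ s, x ≤ W.top s)
    (hconst : ∀ n, ∀ i ∈ E n, ∀ j ∈ E n, W.lc n i = W.lc n j →
      enc (W.I n) (W.lab n c i) = enc (W.I n) (W.lab n c j)) {ε : ℝ} (hε : 0 < ε) :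
    ∀ᶠ n in (U : Filter ℕ), ∀ i k k', (i, k) ∈ (W.cfg E n).I → (i, k') ∈ (W.cfg E n).I →
      ∀ q : Fin 14, x ≤ c (Fin.natAdd 4 q) →
      |ownC W n i k k' (Fin.natAdd 4 q)| ≤ W.B'.d n ^ (x - ε) := by
  have hne : ∀ᶠ n in (U : Filter ℕ), (E n).Nonempty := by
    filter_upwards [hE.big 1 one_pos] with n h1
    rw [← card_pos]
    have h2 : (0 : ℝ) < (E n).card :=
      lt_of_lt_of_le (mul_pos (hE.pos n) (Real.rpow_pos_of_pos (W.B'.pos n) _)) h1
    exact_mod_cast h2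
  have hkap : ∀ᶠ n in (U : Filter ℕ), ∀ s : Fin 18,
      (W.K0 + (W.K0 + 940 * W.K0 ^ 7)) / W.kap s ≤ W.B'.d n ^ (-ε) := by
    rw [Filter.eventually_all]
    intro s
    exact ev_const_le W.B' hε _
  filter_upwards [h.ok.ev_good, hE.sub, hne, hkap] with n hg hEC hn hk i k k' hi hi' q hq
  have hK0 := h.ok.K0_one
  set ρ := W.B'.d n with hρ
  have hd : ∀ u : ℝ, 0 < ρ ^ u := fun u => rpos W.B' n u
  have hdn : ∀ {u v : ℝ}, u ≤ v → ρ ^ v ≤ ρ ^ u := fun {u v} h' => rpow_anti W.B' n h'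
  have hτ1 : ρ ^ x ≤ 1 := Real.rpow_le_one (W.B'.pos n).le (W.B'.lt n).le hx.le
  have sp := h.sd_pos n
  rw [Wnd.cfg_eq hEC hg.clI hn] at hi hi'
  obtain ⟨y, hy, e1, e2⟩ := Wnd.mem_I.1 hi
  obtain ⟨y', hy', e1', e2'⟩ := Wnd.mem_I.1 hi'
  have yC := hEC hy
  have yC' := hEC hy'
  obtain ⟨r1, r2, r3⟩ := W.rep_spec yC
  obtain ⟨r1', r2', r3'⟩ := W.rep_spec yC'
  rw [e1, e2] at r1 r2 r3
  rw [e1', e2'] at r1' r2' r3'
  have hbx : ∀ a ∈ W.Cl n, ∀ b ∈ W.Cl n, W.lc n a = W.lc n b → W.zc n a = W.zc n b →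
      ∀ s, |coW (κ n) (f n a) (f n b) s| ≤ W.K0 * ρ ^ x * sd W lam n s := by
    intro a ha b hb u1 u2 s
    by_cases hs : s ∈ W.S
    · exact h.lev_small hg ha hb u2 hs (top s)
    · exact h.own_small hg ha hb u1 hs (top s)
  have k1 := own_rep (h.hκ n) (h.sides hg) hK0 (hd x).le hτ1
    (hbx y yC _ r1 (e1.trans r2.symm) (e2.trans r3.symm))
    (hbx y' yC' _ r1' (e1'.trans r2'.symm) (e2'.trans r3'.symm))
    (h.bnd hg yC yC') (h.bnd hg r1 r1') q
  -- the motion between `y` and `y'`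
  have hlab : W.lab n c y = W.lab n c y' :=
    enc_inj (h.ok.lab_mem hg hc (hg.clI yC)) (h.ok.lab_mem hg hc (hg.clI yC'))
      (hconst n y hy y' hy' (e1.trans e1'.symm))
  have k2 := h.ok.near_lab hg hc (hg.clI yC) (hg.clI yC') hlab (Fin.natAdd 4 q)
  have k3 : |coW (κ n) (f n y) (f n y') (Fin.natAdd 4 q)| ≤
      W.K0 * ρ ^ x * sd W lam n (Fin.natAdd 4 q) := by
    refine h.abs_co hg yC yC' (k2.trans ?_)
    have h2 := mul_le_mul_of_nonneg_left (hdn hq)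
      (mul_pos (show (0 : ℝ) < W.K0 by linarith)
        (Real.rpow_pos_of_pos (W.B.pos n) (W.X n (Fin.natAdd 4 q)))).le
    calc _ = W.K0 * W.B.d n ^ W.X n (Fin.natAdd 4 q) * ρ ^ c (Fin.natAdd 4 q) := by ring
      _ ≤ _ := h2
      _ = _ := by ring
  have k4 := abs_add_le (coW (κ n) (f n (W.rep n i k)) (f n (W.rep n i k')) (Fin.natAdd 4 q) -
    coW (κ n) (f n y) (f n y') (Fin.natAdd 4 q)) (coW (κ n) (f n y) (f n y') (Fin.natAdd 4 q))
  rw [sub_add_cancel] at k4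
  have k5 : |coW (κ n) (f n (W.rep n i k)) (f n (W.rep n i k')) (Fin.natAdd 4 q)| ≤
      ((W.K0 + (W.K0 + 940 * W.K0 ^ 7)) * ρ ^ x) * sd W lam n (Fin.natAdd 4 q) := by
    refine k4.trans ((add_le_add k1 k3).trans (le_of_eq ?_))
    ring
  rw [h.crd_eq hg r1 r1'] at k5
  have k6 := h.norm_le k5
  rw [mul_div_cancel_left₀ _ (h.un_pos n _).ne'] at k6
  refine k6.trans ?_
  calc (W.K0 + (W.K0 + 940 * W.K0 ^ 7)) * ρ ^ x / W.kap (Fin.natAdd 4 q)
      = (W.K0 + (W.K0 + 940 * W.K0 ^ 7)) / W.kap (Fin.natAdd 4 q) * ρ ^ x := by ring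
    _ ≤ ρ ^ (-ε) * ρ ^ x := mul_le_mul_of_nonneg_right (hk _) (hd _).le
    _ = ρ ^ (-ε + x) := (Real.rpow_add (W.B'.pos n) _ _).symm
    _ = ρ ^ (x - ε) := by congr 1; ring

/-- resolution of a fat line with narrow level slots, except `z` and the slots of `V` -/
def lowV (W : Wnd 18 ι) (V : Finset (Fin 14)) : Fin 18 → ℝ := fun s =>
  if s = 0 ∨ ∃ q ∈ V, s = Fin.natAdd 4 q then 0 else W.top s

theorem lowV_of {s : Fin 18} (h0 : s ≠ 0) (hV : ∀ q ∈ V, s ≠ Fin.natAdd 4 q) :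
    lowV W V s = W.top s := by
  unfold lowV
  rw [if_neg]
  push Not
  exact ⟨h0, hV⟩

/-- **`WinD` for a dense part of any set of incidences** -/
theorem exists_winD (h : WWnd W κ lam f) (hE : Wnd.EOk W E Mu) (x_pos : 0 < x) (σ0 : 0 < σ)
    (σ1 : σ ≤ 1) (hV : ∀ q ∈ V, Fin.natAdd 4 q ∈ W.S) (top : ∀ s, x ≤ W.top s)
    (dens : W.lam W.top ≤ W.lam (cut W.S W.top 0) + W.lam (cut W.S 0 W.top))
    (frost : ∀ y : ℝ, 0 ≤ y → y ≤ x → W.lam (Pi.single 0 y) ≤ -(σ * y))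
    (kap : ∀ ε : ℝ, 0 < ε → ∀ᶠ n in (U : Filter ℕ), W.B'.d n ^ ε ≤ |κ n|)
    (lowl : lowV W V ∈ Leg W.Mw W.R')
    (own : W.lam W.top ≤ W.lam (lowV W V) + W.lam (cut W.S 0 W.top)) :
    ∃ E₁ : ∀ n, Finset (ι n), (∀ n, E₁ n ⊆ E n) ∧ Wnd.EOk W E₁ Mu ∧
      (∀ ε : ℝ, 0 < ε → ∀ᶠ n in (U : Filter ℕ),
        W.B'.d n ^ ε * ((E n).card : ℝ) ≤ ((E₁ n).card : ℝ)) ∧
      WinD W κ lam f V E₁ x σ := by
  have hle : cut W.S W.top 0 ≤ lowV W V := by
    intro s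
    by_cases hs : s ∈ W.S
    · rw [cut_of_mem hs]
      unfold lowV
      split_ifs
      · exact le_rfl
      · exact h.ok.top_leg.1.nonneg s
    · rw [cut_of_notMem hs, lowV_of]
      · rintro rfl; exact hs h.h0
      · rintro q hq rfl; exact hs (hV q hq)
  obtain ⟨E₁, h1, h2, h3, h4⟩ := exists_const h.ok hE lowl hle own
  refine ⟨E₁, h1, h2, h3,
    { x_pos := x_pos, σ0 := σ0, σ1 := σ1, hV := hV, top := top, dens := dens, frost := frost
      kap := kap, inv := fun ε hε => ?_ }⟩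
  filter_upwards [inv_of_const h h2 lowl x_pos top h4 hε] with n h5 i k k' hi hi' s hs hs0 hsV
  obtain ⟨q, rfl⟩ : ∃ q : Fin 14, s = Fin.natAdd 4 q := by
    induction s using Fin.addCases (m := 4) (n := 14) with
    | left p =>
      exfalso
      fin_cases p
      · exact hs0 rfl
      · exact h.n1 hs
      · exact h.n2 hs
      · exact h.n3 hs
    | right q => exact ⟨q, rfl⟩
  refine h5 i k k' hi hi' q ?_
  rw [lowV_of hs0 hsV]
  exact top _

end Crest.Agent.R136.Inv599
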