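import Crest.Agent.R136.RnL_648
import Crest.Agent.R136.Inv2_599
import Crest.Agent.R136.Bas2_938
import Crest.Agent.R136.Qg7_926

/-!
# R136 (helper599): the wall resonances in an interior window of a `ZWin`, part 1

* `OkD Dd n` : the integer vector `n` is a direction of the cone of the active walls (slots of `Dd`
  dropped), decidable.
* `iw` : the window of resolution `x` in every slot on the class of `s₀` in `Gd`.
* `iw_winD`, `iw_rate` : `WinD`, `Rate` of 648 from the numbers `NumW`, `NumR` (RnL_648).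
-/

set_option autoImplicit false
set_option linter.unusedVariables false
set_option linter.unusedSectionVars false

open Filter Topology

namespace Crest.Agent.R136.Int599

open Finset Crest.Agent.R136.NetW191 Crest.Agent.R136.Net191 Crest.Agent.R136.Qg926
open Crest.Agent.R136.EvW938 Crest.Agent.R136.Bas938 Crest.Agent.R136.Gf356
open Crest.Agent.R136.Aw413 Crest.Agent.R136.Dg219
open Crest.Agent.R136.Res2648 Crest.Agent.R136.Inv599
open Crest.Agent.R136.Rnl648 (S0 NumW NumR)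
open Crest.Agent.R138.Ex926 (Base U cls)

/-! ### boxes -/

/-- indicator -/
def ind (T : Finset (Fin 18)) : Fin 18 → ℕ := fun k => if k ∈ T then 1 else 0

theorem scV_ind (T : Finset (Fin 18)) (y : ℝ) : scV y (ind T) = bxs T y := by
  funext k
  unfold scV ind bxs
  split_ifs <;> simp

theorem scV_one (y : ℝ) : scV y (fun _ => 1) = fun _ => y := by
  funext k; simp [scV]

theorem scV_nil (y : ℝ) : scV y (fun _ => 0) = 0 := by
  funext k; simp [scV]

/-- direction of the cone of the walls without the slots `Dd` -/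
def OkD (Dd : Finset (Fin 18)) (n : Fin 18 → ℕ) : Prop :=
  ∀ k, ∀ l ∈ mlW k, k ∈ Dd ∨ (∃ s ∈ l, s ∈ Dd) ∨ n k ≤ (l.map n).sum

instance (Dd : Finset (Fin 18)) (n : Fin 18 → ℕ) : Decidable (OkD Dd n) := by
  unfold OkD; infer_instance

theorem cone_scV {Ma : Mons 18} {Dr : Set (Fin 18)} (hA : ActM Ma Dr) {Dd : Finset (Fin 18)}
    (hD : ∀ s ∈ Dd, s ∈ Dr) {n n' : Fin 18 → ℕ} (h : OkD Dd n) (h' : OkD Dd n') {α β : ℝ}
    (hα : 0 ≤ α) (hβ : 0 ≤ β) : scV α n + scV β n' ∈ coneM Ma := by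
  rw [hA.cone]
  intro k hk l hl hls
  rw [sum_add', sum_scV, sum_scV]
  have hn : ∀ n : Fin 18 → ℕ, OkD Dd n → (n k : ℝ) ≤ ((l.map n).sum : ℕ) := by
    intro n h
    rcases h k l hl with h1 | ⟨s, h1, h2⟩ | h1
    · exact absurd (hD k h1) hk
    · exact absurd (hD s h2) (hls s h1)
    · exact_mod_cast h1
  exact add_le_add (mul_le_mul_of_nonneg_left (hn n h) hα) (mul_le_mul_of_nonneg_left (hn n' h') hβ)

/-- `update` as a sum -/
theorem upd_scV {T : Finset (Fin 18)} {a : Fin 18} (ha : a ∉ T) (y t : ℝ) :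
    scV t (ind (insert a T)) + scV (y - t) (ind T) = Function.update (bxs T y) a t := by
  funext k
  rw [Pi.add_apply]
  by_cases hk : k = a
  · subst hk
    rw [Function.update_self]
    simp [scV, ind, ha]
  · rw [Function.update_of_ne hk]
    unfold scV ind bxs
    by_cases hT : k ∈ T
    · rw [if_pos (mem_insert_of_mem hT), if_pos hT, if_pos hT]; push_cast; ring
    · rw [if_neg (by simp [hk, hT]), if_neg hT, if_neg hT]; simp

theorem cut_bxs (S T : Finset (Fin 18)) (y : ℝ) : cut S (bxs T y) (fun _ => y) = bxs (S ∪ T) y := by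
  funext k
  by_cases hk : k ∈ S
  · rw [cut_of_mem hk]; exact (if_pos (mem_union_left _ hk)).symm
  · rw [cut_of_notMem hk]
    unfold bxs
    by_cases hT : k ∈ T
    · rw [if_pos hT, if_pos (mem_union_right _ hT)]
    · rw [if_neg hT, if_neg (by simp [hk, hT])]

theorem cut_upd {S T : Finset (Fin 18)} {a : Fin 18} (ha : a ∉ S) (y t : ℝ) :
    cut S (Function.update (bxs T y) a t) (fun _ => y) =
      Function.update (bxs (S ∪ T) y) a t := by
  rw [← cut_bxs]
  funext k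
  by_cases hk : k = a
  · subst hk
    rw [cut_of_notMem ha, Function.update_self, Function.update_self]
  · rw [Function.update_of_ne hk]
    by_cases hS : k ∈ S
    · rw [cut_of_mem hS, cut_of_mem hS]
    · rw [cut_of_notMem hS, cut_of_notMem hS, Function.update_of_ne hk]

/-! ### the window of a class -/

section

variable {B B' : Base} {I J : ℕ → Finset (ℕ × ℝ)} {co : ∀ n : ℕ, ℕ × ℝ → ℕ × ℝ → Fin 18 → ℝ}
  {kp : ℕ → ℝ} {u : ℕ → Fin 18 → ℝ} {f : ∀ n : ℕ, ℕ × ℝ → FW} {C : ℝ} {Y : ℕ → Fin 18 → ℝ}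
  {w : ℕ → ℝ} {Tz : ℕ → ℝ} {Ma : Mons 18} {Dr : Set (Fin 18)} {lam : (Fin 18 → ℝ) → ℝ}
  {S : Finset (Fin 18)} {V : Finset (Fin 14)} {x : ℝ} {Dd : Finset (Fin 18)}

/-- decidable conditions on `S`, `V` -/
structure SDat (S : Finset (Fin 18)) (V : Finset (Fin 14)) : Prop where
  wd : WDat (fun _ => 0) (fun _ => 1) 1 S
  low : OkD ∅ (ind (univ \ S0 V))
  hV : ∀ q ∈ V, Fin.natAdd 4 q ∈ S

instance (S : Finset (Fin 18)) (V : Finset (Fin 14)) : Decidable (SDat S V) :=
  decidable_of_iff (WDat (fun _ => 0) (fun _ => 1) 1 S ∧ OkD ∅ (ind (univ \ S0 V)) ∧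
    ∀ q ∈ V, Fin.natAdd 4 q ∈ S) ⟨fun ⟨a, b, c⟩ => ⟨a, b, c⟩, fun ⟨a, b, c⟩ => ⟨a, b, c⟩⟩

/-- **the window of resolution `x`** on the class of `s₀` in `Gd` -/
noncomputable abbrev iw (B B' : Base) (I J : ℕ → Finset (ℕ × ℝ))
    (co : ∀ n : ℕ, ℕ × ℝ → ℕ × ℝ → Fin 18 → ℝ) (C : ℝ) (Y : ℕ → Fin 18 → ℝ) (w : ℕ → ℝ)
    (Ma : Mons 18) (Tz : ℕ → ℝ) (lam : (Fin 18 → ℝ) → ℝ) (S : Finset (Fin 18)) (x : ℝ)
    (Gd : ℕ → Finset (ℕ × ℝ)) (s₀ : ℕ → ℕ × ℝ) : Wnd 18 fun _ => ℕ × ℝ :=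
  (wst Ma (fun _ => 0) (fun _ => 1) 1 S x).wnd B B' I J co monW C Y w (coneM Ma) Tz lam
    (fun n => cls (Gd n) (zlab B I co monW C Y w n 0) (s₀ n)) s₀

variable {Gd : ℕ → Finset (ℕ × ℝ)} {s₀ : ℕ → ℕ × ℝ}

theorem iw_st_ok (hA : ActM Ma Dr) (hd : WDat (fun _ => 0) (fun _ => 1) 1 S) (hx : 0 ≤ x) :
    (wst Ma (fun _ => 0) (fun _ => 1) 1 S x).Ok monW (coneM Ma) := by
  have h := wst_ok hA hd hx
  have e : {p | scV x (fun _ => 0) + p ∈ coneM Ma} = coneM Ma := by
    ext p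
    show scV x (fun _ => 0) + p ∈ coneM Ma ↔ _
    rw [scV_nil, zero_add]
  rwa [e] at h

theorem iw_top : (iw B B' I J co C Y w Ma Tz lam S x Gd s₀).top = fun _ => x := scV_one x

/-- legality in the window from the cone -/
theorem iw_leg {p : Fin 18 → ℝ} (hc : p ∈ coneM Ma) (h0 : ∀ k, 0 ≤ p k) (hp : ∀ k, p k ≤ x) :
    p ∈ Leg (iw B B' I J co C Y w Ma Tz lam S x Gd s₀).Mw
      (iw B B' I J co C Y w Ma Tz lam S x Gd s₀).R' := by
  refine ⟨⟨h0, fun k e he => hc k e (mem_offM.1 he).1⟩, fun k => ?_⟩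
  show p k ≤ x * ((1 : ℕ) : ℝ)
  rw [Nat.cast_one, mul_one]
  exact hp k

theorem bxs_nonneg {T : Finset (Fin 18)} (hx : 0 ≤ x) (k : Fin 18) : 0 ≤ bxs T x k := by
  unfold bxs; split_ifs
  · exact hx
  · exact le_rfl

theorem bxs_le {T : Finset (Fin 18)} (hx : 0 ≤ x) (k : Fin 18) : bxs T x k ≤ x := by
  unfold bxs; split_ifs
  · exact le_rfl
  · exact hx

theorem cone_bxs (hA : ActM Ma Dr) (hD : ∀ s ∈ Dd, s ∈ Dr) {T : Finset (Fin 18)}
    (h : OkD Dd (ind T)) (hx : 0 ≤ x) : bxs T x ∈ coneM Ma := by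
  have := cone_scV hA hD h h (α := x) (β := 0) hx le_rfl
  have e : scV x (ind T) + scV 0 (ind T) = bxs T x := by
    rw [← scV_ind]; funext k; simp [scV]
  rwa [e] at this

/-- legality of a box in the window -/
theorem iw_legW_bxs (hA : ActM Ma Dr) (hD : ∀ s ∈ Dd, s ∈ Dr) {T : Finset (Fin 18)}
    (h : OkD Dd (ind (S ∪ T))) (hx : 0 ≤ x) :
    bxs T x ∈ (iw B B' I J co C Y w Ma Tz lam S x Gd s₀).legW := by
  rw [WSt.mem_legW]
  refine ⟨?_, fun k _ => ?_⟩
  · show cut S (bxs T x) (scV x fun _ => 1) ∈ _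
    rw [scV_one, cut_bxs]
    exact iw_leg (Gd := Gd) (s₀ := s₀) (B := B) (B' := B') (I := I) (J := J) (co := co) (C := C)
      (Y := Y) (w := w) (Tz := Tz) (lam := lam) (S := S) (cone_bxs hA hD h hx) (bxs_nonneg hx)
      (bxs_le hx)
  · show bxs T x k ≤ scV x (fun _ => 1) k
    rw [scV_one]
    exact bxs_le hx k

theorem iw_legW_upd (hA : ActM Ma Dr) (hD : ∀ s ∈ Dd, s ∈ Dr) {T : Finset (Fin 18)} {a : Fin 18}
    (haT : a ∉ T) (haS : a ∉ S) (h : OkD Dd (ind (S ∪ T))) (h' : OkD Dd (ind (insert a (S ∪ T))))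
    {t : ℝ} (ht : 0 ≤ t) (htx : t ≤ x) :
    Function.update (bxs T x) a t ∈ (iw B B' I J co C Y w Ma Tz lam S x Gd s₀).legW := by
  have hx : 0 ≤ x := ht.trans htx
  rw [WSt.mem_legW]
  refine ⟨?_, fun k _ => ?_⟩
  · show cut S (Function.update (bxs T x) a t) (scV x fun _ => 1) ∈ _
    rw [scV_one, cut_upd haS]
    refine iw_leg (Gd := Gd) (s₀ := s₀) (B := B) (B' := B') (I := I) (J := J) (co := co) (C := C)
      (Y := Y) (w := w) (Tz := Tz) (lam := lam) (S := S) ?_ (fun k => ?_) (fun k => ?_)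
    · rw [← upd_scV (by simp [haT, haS])]
      exact cone_scV hA hD h' h ht (by linarith)
    · by_cases hk : k = a
      · subst hk; rw [Function.update_self]; exact ht
      · rw [Function.update_of_ne hk]; exact bxs_nonneg hx k
    · by_cases hk : k = a
      · subst hk; rw [Function.update_self]; exact htx
      · rw [Function.update_of_ne hk]; exact bxs_le hx k
  · show Function.update (bxs T x) a t k ≤ scV x (fun _ => 1) k
    rw [scV_one]
    by_cases hk : k = a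
    · subst hk; rw [Function.update_self]; exact htx
    · rw [Function.update_of_ne hk]; exact bxs_le hx k

/-- **the rates** -/
theorem iw_rate (hA : ActM Ma Dr) (hD : ∀ s ∈ Dd, s ∈ Dr) (hx : 0 ≤ x) {T : Finset (Fin 18)}
    {a : Fin 18} {s : ℝ} (haT : a ∉ T) (haS : a ∉ S) (hTS : ∀ b ∈ T, b ∉ S)
    (k1 : OkD Dd (ind (S ∪ T))) (k2 : OkD Dd (ind (insert a (S ∪ T))))
    (hR : NumR S T a s lam) : Rate (iw B B' I J co C Y w Ma Tz lam S x Gd s₀) T a x s where
  pos := hR.1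
  aT := haT
  aS := haS
  TS := hTS
  leg := fun t ht htx => iw_legW_upd hA hD haT haS k1 k2 ht htx
  rate := fun t ht htx => by
    rw [WSt.wnd_nu, WSt.wnd_nu]
    show s * t ≤ lam (cut S (bxs T x) (scV x fun _ => 1)) - lam (scV x fun _ => 1) -
      (lam (cut S (Function.update (bxs T x) a t) (scV x fun _ => 1)) - lam (scV x fun _ => 1))
    rw [scV_one]
    have := hR.2 x t ht htx
    linarith

theorem lowV_iw : lowV (iw B B' I J co C Y w Ma Tz lam S x Gd s₀) V =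
    cut (S0 V) (fun _ => x) 0 := by
  funext k
  unfold lowV
  rw [iw_top]
  by_cases hk : k = 0 ∨ ∃ q ∈ V, k = Fin.natAdd 4 q
  · rw [if_pos hk, cut_of_mem]
    · rfl
    · unfold S0
      refine mem_insert.2 ?_
      rcases hk with hk | ⟨q, hq, hk⟩
      · exact Or.inl hk
      · exact Or.inr (mem_image.2 ⟨q, hq, hk.symm⟩)
  · rw [if_neg hk, cut_of_notMem]
    intro hm
    refine hk ?_
    rcases mem_insert.1 hm with hm | hm
    · exact Or.inl hm
    · obtain ⟨q, hq, hk'⟩ := mem_image.1 hm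
      exact Or.inr ⟨q, hq, hk'.symm⟩

theorem cut_S0 : cut (S0 V) (fun _ => x) (0 : Fin 18 → ℝ) = bxs (univ \ S0 V) x := by
  funext k
  unfold bxs
  by_cases hk : k ∈ S0 V
  · rw [cut_of_mem hk, if_neg (by simp [hk])]; rfl
  · rw [cut_of_notMem hk, if_pos (by simp [hk])]

/-- **`WinD` for a dense part of any set of incidences** -/
theorem iw_winD (hA : ActM Ma Dr) (hd : SDat S V) (hx : 0 < x)
    (hw : WWnd (iw B B' I J co C Y w Ma Tz lam S x Gd s₀) kp u f)
    (hkp : B'.Sub fun n => |kp n|⁻¹) (hN : NumW S V lam) {E : ℕ → Finset (ℕ × ℝ)} {Mu : ℕ → ℝ}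
    (hE : Wnd.EOk (iw B B' I J co C Y w Ma Tz lam S x Gd s₀) E Mu) :
    ∃ E₁ : ℕ → Finset (ℕ × ℝ), (∀ n, E₁ n ⊆ E n) ∧
      Wnd.EOk (iw B B' I J co C Y w Ma Tz lam S x Gd s₀) E₁ Mu ∧
      WinD (iw B B' I J co C Y w Ma Tz lam S x Gd s₀) kp u f V E₁ x 1 := by
  obtain ⟨E₁, h1, h2, _, h3⟩ := exists_winD hw hE hx one_pos le_rfl hd.hV
    (fun s => by rw [iw_top]) (V := V) (x := x) (by
      rw [iw_top]
      exact hN.dens x hx.le) (fun y hy _ => by
      rw [one_mul]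
      exact hN.frost y hy) (by
      intro ε hε
      filter_upwards [hkp.ev_le hε, hkp.1.pos] with n hn hpos
      have h3 : 0 < |kp n| := inv_pos.1 hpos
      have h5 := hn.2
      rw [Real.log_inv] at h5
      show B'.d n ^ ε ≤ |kp n|
      rw [Real.rpow_def_of_pos (B'.pos n), ← Real.exp_log h3]
      refine Real.exp_le_exp.2 ?_
      unfold Base.L at h5
      linarith) (by
      rw [lowV_iw, cut_S0]
      exact iw_leg (cone_bxs hA (Dd := ∅) (fun s hs => absurd hs (notMem_empty s)) hd.low hx.le)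
        (bxs_nonneg hx.le) (bxs_le hx.le)) (by
      rw [lowV_iw, iw_top]
      have h1 := hN.dens x hx.le
      have h2 := hN.inv x hx.le
      show lam (fun _ => x) ≤ lam (cut (S0 V) (fun _ => x) 0) + lam (cut S 0 fun _ => x)
      linarith)
  exact ⟨E₁, h1, h2, h3⟩

end

end Crest.Agent.R136.Int599
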