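import Crest.Agent.R136.Int1_599
import Crest.Agent.R136.Gau1_66

/-!
# R136 (helper599): the wall resonances in an interior window of a `ZWin`, part 2

* `ResAy` : 648's `ResA` with labels at `x` and precision `y` (`ResAy .. x x = ResA .. x`).
* `resA_of` : from `ResQ` (window) to `ResAy` (absolute units).
* **`int_core`** : a resonance theorem of 648 (`ResQ` on a part of full size of every `E` with `WinD`)
  gives `ResAy` on all classes of a dense part of the family.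
-/

set_option autoImplicit false
set_option linter.unusedVariables false
set_option linter.unusedSectionVars false

open Filter Topology

namespace Crest.Agent.R136.Int599

open Finset Crest.Agent.R136.NetW191 Crest.Agent.R136.Net191 Crest.Agent.R136.Qg926
open Crest.Agent.R136.EvW938 Crest.Agent.R136.Bas938 Crest.Agent.R136.Gf356
open Crest.Agent.R136.Aw413 Crest.Agent.R136.Dg219
open Crest.Agent.R136.Res2648 Crest.Agent.R136.Inv599
open Crest.Agent.R136.Rnl648 (S0 NumW NumR ResA)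
open Crest.Agent.R136.LadG697 (coU)
open Crest.Agent.R136.Gau66 (local_to_global)
open Crest.Agent.R138.Ex926 (Base U cls)
open Crest.Agent.R138.Dp76 (Dense)

variable {B B' : Base} {I J : ℕ → Finset (ℕ × ℝ)}
  {kp : ℕ → ℝ} {u : ℕ → Fin 18 → ℝ} {f : ℕ → ℕ × ℝ → FW} {Y : ℕ → Fin 18 → ℝ}
  {w : ℕ → ℝ} {Tz : ℕ → ℝ} {Ma : Mons 18} {Dr : Set (Fin 18)} {lam : (Fin 18 → ℝ) → ℝ}
  {S : Finset (Fin 18)} {V : Finset (Fin 14)} {x : ℝ} {j : Fin 14}
  {Gd : ℕ → Finset (ℕ × ℝ)} {s₀ : ℕ → ℕ × ℝ}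

/-- **the relation of a resonance in absolute units** (class `G`, labels at the resolution `x`,
precision `y`, loss `ε`) -/
def ResAy (B B' : Base) (I : ℕ → Finset (ℕ × ℝ)) (u : ℕ → Fin 18 → ℝ) (κ : ℕ → ℝ)
    (F : ℕ → ℕ × ℝ → FW) (Y : ℕ → Fin 18 → ℝ) (w : ℕ → ℝ) (S : Finset (Fin 18)) (j : Fin 14)
    (V : Finset (Fin 14)) (x y : ℝ) (n : ℕ) (ε : ℝ) (G : Finset (ℕ × ℝ)) : Prop :=
  ∃ x0 ∈ I n, ∃ ψ : ℝ,
    u n (Fin.natAdd 4 j) * |ψ| ≤ B'.d n ^ (-ε) * B.d n ^ Y n (Fin.natAdd 4 j) ∧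
    (∀ i ∈ G, ∀ s, u n s * |coW (κ n) (F n x0) (F n i) s| ≤ B'.d n ^ (-ε) * B.d n ^ Y n s) ∧
    ∀ i ∈ G, ∀ i' ∈ G,
      zlab B I (coU u κ F) monW 67 Y w n (cut S (fun _ => x) 0) i =
        zlab B I (coU u κ F) monW 67 Y w n (cut S (fun _ => x) 0) i' → ∀ q ∈ V,
      u n (Fin.natAdd 4 q) * |coW (κ n) (F n i) (F n i') (Fin.natAdd 4 q) -
        (ψ - coW (κ n) (F n x0) (F n i) (Fin.natAdd 4 j)) *
          (tr (κ n) (sh (coW (κ n) (F n i) (F n i') 0)) (Pi.single j 1) q -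
            (Pi.single j 1 : Fin 14 → ℝ) q)| ≤
        B'.d n ^ (y - ε) * B.d n ^ Y n (Fin.natAdd 4 q)

theorem resAy_self {n : ℕ} {ε : ℝ} {G : Finset (ℕ × ℝ)} :
    ResAy B B' I u kp f Y w S j V x x n ε G ↔ ResA B B' I u kp f Y w S j V x n ε G := Iff.rfl

theorem ResAy.mono {y : ℝ} {n : ℕ} {ε : ℝ} {G G' : Finset (ℕ × ℝ)} (h : G' ⊆ G)
    (H : ResAy B B' I u kp f Y w S j V x y n ε G) : ResAy B B' I u kp f Y w S j V x y n ε G' := by
  obtain ⟨x0, h0, ψ, h1, h2, h3⟩ := H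
  exact ⟨x0, h0, ψ, h1, fun i hi => h2 i (h hi), fun i hi i' hi' => h3 i (h hi) i' (h hi')⟩

theorem ResAy.weak {y : ℝ} {n : ℕ} {ε ε' : ℝ} {G : Finset (ℕ × ℝ)} (hε : ε ≤ ε')
    (H : ResAy B B' I u kp f Y w S j V x y n ε G) :
    ResAy B B' I u kp f Y w S j V x y n ε' G := by
  obtain ⟨x0, h0, ψ, h1, h2, h3⟩ := H
  have hd : ∀ s, 0 ≤ B.d n ^ Y n s := fun s => (Real.rpow_pos_of_pos (B.pos n) _).le
  have e1 : B'.d n ^ (-ε) ≤ B'.d n ^ (-ε') :=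
    Real.rpow_le_rpow_of_exponent_ge (B'.pos n) (B'.lt n).le (by linarith)
  have e2 : B'.d n ^ (y - ε) ≤ B'.d n ^ (y - ε') :=
    Real.rpow_le_rpow_of_exponent_ge (B'.pos n) (B'.lt n).le (by linarith)
  exact ⟨x0, h0, ψ, h1.trans (mul_le_mul_of_nonneg_right e1 (hd _)),
    fun i hi s => (h2 i hi s).trans (mul_le_mul_of_nonneg_right e1 (hd _)),
    fun i hi i' hi' hl q hq => (h3 i hi i' hi' hl q hq).trans
      (mul_le_mul_of_nonneg_right e2 (hd _))⟩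

/-- **from the window to absolute units** -/
theorem resA_of (h : WWnd (iw B B' I J (coU u kp f) 67 Y w Ma Tz lam S x Gd s₀) kp u f) {n : ℕ}
    (g : (iw B B' I J (coU u kp f) 67 Y w Ma Tz lam S x Gd s₀).Good n) {y ε : ℝ}
    {G : Finset (ℕ × ℝ)}
    (hK : (iw B B' I J (coU u kp f) 67 Y w Ma Tz lam S x Gd s₀).K0 ≤ B'.d n ^ (-ε))
    (hG : G ⊆ (iw B B' I J (coU u kp f) 67 Y w Ma Tz lam S x Gd s₀).Cl n)
    (H : ResQ (iw B B' I J (coU u kp f) 67 Y w Ma Tz lam S x Gd s₀) kp u f j V y n ε G) :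
    ResAy B B' I u kp f Y w S j V x y n ε G := by
  obtain ⟨x0, hx0, ψ, h1, h2⟩ := H
  have hu : ∀ s, 0 < u n s := fun s => (h.hl n).pos s
  have hsd : ∀ (s : Fin 18) (a y : ℝ), |y| ≤ a * sd
      (iw B B' I J (coU u kp f) 67 Y w Ma Tz lam S x Gd s₀) u n s →
      u n s * |y| ≤ a * B.d n ^ Y n s := by
    intro s a y hy
    have h3 := mul_le_mul_of_nonneg_left hy (hu s).le
    refine h3.trans (le_of_eq ?_)
    show u n s * (a * (B.d n ^ Y n s / u n s)) = _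
    have := (hu s).ne'
    field_simp
  refine ⟨x0, g.clI hx0, ψ, hsd _ _ _ h1, fun i hi s => hsd _ _ _ ?_,
    fun i hi i' hi' hl q hq => hsd _ _ _ (h2 i hi i' hi' ?_ q hq)⟩
  · exact (h.bnd g hx0 (hG hi) s).trans (mul_le_mul_of_nonneg_right hK (h.sd_pos n s).le)
  · unfold Wnd.lc Wnd.lab
    rw [iw_top]
    exact congrArg _ hl

/-- **from one class to all classes** -/
theorem int_core (hZ : ZWin B B' I J (coU u kp f) monW 67 Y w (coneM Ma) Tz lam)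
    (hA : ActM Ma Dr) (hgr : ∀ n, GrU (u n)) (hk1 : ∀ n, |kp n| ≤ 1)
    (hkp : B'.Sub fun n => |kp n|⁻¹) (hd : SDat S V) (hN : NumW S V lam) (hx : 0 < x) {y : ℝ}
    (hres : ∀ (Gd : ℕ → Finset (ℕ × ℝ)) (s₀ : ℕ → ℕ × ℝ) (E : ℕ → Finset (ℕ × ℝ)) (Mu : ℕ → ℝ),
      WWnd (iw B B' I J (coU u kp f) 67 Y w Ma Tz lam S x Gd s₀) kp u f →
      Wnd.EOk (iw B B' I J (coU u kp f) 67 Y w Ma Tz lam S x Gd s₀) E Mu →
      WinD (iw B B' I J (coU u kp f) 67 Y w Ma Tz lam S x Gd s₀) kp u f V E x 1 →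
      ∀ ε : ℝ, 0 < ε → ∀ᶠ n in (U : Filter ℕ), ∃ G ⊆ E n,
        Mu n * (iw B B' I J (coU u kp f) 67 Y w Ma Tz lam S x Gd s₀).B'.d n ^
          ((iw B B' I J (coU u kp f) 67 Y w Ma Tz lam S x Gd s₀).lam
            (iw B B' I J (coU u kp f) 67 Y w Ma Tz lam S x Gd s₀).top + ε) ≤ (G.card : ℝ) ∧
        ResQ (iw B B' I J (coU u kp f) 67 Y w Ma Tz lam S x Gd s₀) kp u f j V y n ε G) :
    ∃ J1 : ℕ → Finset (ℕ × ℝ), (∀ n, J1 n ⊆ J n) ∧ Dense B' J1 J ∧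
      ∀ ε : ℝ, 0 < ε → ∀ᶠ n in (U : Filter ℕ), ∀ s ∈ J1 n,
        ResAy B B' I u kp f Y w S j V x y n ε
          (cls (J1 n) (zlab B I (coU u kp f) monW 67 Y w n 0) s) := by
  have hst := iw_st_ok hA hd.wd hx.le
  refine local_to_global (B := B') (J := J) (fun n => zlab B I (coU u kp f) monW 67 Y w n 0)
    hZ.T0 (fun ε hε => by
      filter_upwards [hZ.prof.up 0 ε hε] with n hn s hs
      have := hn 0 hZ.zero (by rw [norm_zero]) s hs
      rwa [hZ.lam0, zero_add] at this)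
    (fun n ε G => ResAy B B' I u kp f Y w S j V x y n ε G)
    (fun n ε G G' hG h => h.mono hG) (fun n ε ε' G hε h => h.weak hε) ?_
  intro Gd hGd _ hdens ε hε
  obtain ⟨s₀, hs₀, hok⟩ := hZ.exists_wnd hst (fun _ => (0, 0)) (Gd := Gd) (E := Gd)
    (Eventually.of_forall hGd) (Eventually.of_forall fun n => Subset.refl _)
    (Sd := fun _ => 2) (Base.Sub.const two_pos) hdens
  have hww : WWnd (iw B B' I J (coU u kp f) 67 Y w Ma Tz lam S x Gd s₀) kp u f :=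
    { ok := hok
      hκ := hk1
      hl := hgr
      hM := rfl
      hco := fun n i _ j _ s => rfl
      kz := rfl
      h0 := hd.wd.zS
      hS := hd.wd.hS }
  obtain ⟨E₁, e1, e2, e3⟩ := iw_winD hA hd hx hww hkp hN hok.eok_class
  filter_upwards [hres Gd s₀ E₁ _ hww e2 e3 ε hε, hok.ev_good,
    Gf356.ev_const_le B' hε (iw B B' I J (coU u kp f) 67 Y w Ma Tz lam S x Gd s₀).K0]
    with n hn g hc
  obtain ⟨G, hG1, hG2, hG3⟩ := hn
  have hGC : G ⊆ (iw B B' I J (coU u kp f) 67 Y w Ma Tz lam S x Gd s₀).Cl n :=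
    hG1.trans (e1 n)
  refine ⟨s₀ n, G, hGC, ?_, resA_of hww g hc hGC hG3⟩
  refine le_trans (le_of_eq ?_) hG2
  show Tz n * B'.d n ^ ε = Tz n * B'.d n ^ (-lam (scV x fun _ => 1)) *
    B'.d n ^ (lam (scV x fun _ => 1) + ε)
  rw [mul_assoc, ← Real.rpow_add (B'.pos n)]
  congr 2
  ring

end Crest.Agent.R136.Int599
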