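import Crest.Agent.R136.Res8_648

/-!
# R136: wall resonances of 5b (helper648), part 9: the window `BY` with a coarser slot `14`

At a point which is not dead the slot `14` costs nothing given `A : x` only up to `y ≤ c x`; the pair
of lines has `c, A, 8 : x` and `14 : y`; the precision of the output is `y`.
-/

set_option autoImplicit false
set_option linter.unusedVariables false
set_option linter.unusedSectionVars false

open Filter Topology

namespace Crest.Agent.R136.Res2648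

open Finset Crest.Agent.R136.NetW191 Crest.Agent.R136.Net191 Crest.Agent.R136.Qg926
open Crest.Agent.R136.EvW938 Crest.Agent.R136.Gf356 Crest.Agent.R136.Res1648
open Crest.Agent.R138.Ex926 (Base U)

/-- `c, A, 8 : x`, `14 : y` -/
def pBY (x y : ℝ) : Fin 18 → ℝ := Function.update (bxs {1, 2, 8} x) 14 y

theorem pBY_14 {x y : ℝ} : pBY x y 14 = y := Function.update_self _ _ _

theorem pBY_T {x y : ℝ} {s : Fin 18} (hs : s ∈ ({1, 2, 8} : Finset (Fin 18))) : pBY x y s = x := by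
  have h14 : s ≠ 14 := by rintro rfl; exact absurd hs (by decide)
  unfold pBY
  rw [Function.update_of_ne h14]
  exact if_pos hs

theorem pBY_o {x y : ℝ} {s : Fin 18} (hs : s ∉ ({1, 2, 8} : Finset (Fin 18))) (h14 : s ≠ 14) :
    pBY x y s = 0 := by
  unfold pBY
  rw [Function.update_of_ne h14]
  exact if_neg hs

theorem le_pBY {x y : ℝ} (hy : 0 ≤ y) (j : Fin 18) : bxs {1, 2, 8} x j ≤ pBY x y j := by
  by_cases h14 : j = 14
  · subst h14
    rw [pBY_14]
    exact (if_neg (by decide)).trans_le hy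
  · unfold pBY
    rw [Function.update_of_ne h14]

/-- **the slot `a` costs at the rate `s` in the box `p`**, `p ≥ y` on `T` -/
structure RateP {ι : ℕ → Type*} [∀ n, DecidableEq (ι n)] (W : Wnd 18 ι) (T : Finset (Fin 18))
    (a : Fin 18) (p : Fin 18 → ℝ) (y s : ℝ) : Prop where
  pos : 0 < s
  p0 : p a = 0
  aS : a ∉ W.S
  TS : ∀ b ∈ T, b ∉ W.S
  ge : ∀ b ∈ T, y ≤ p b
  leg : ∀ t, 0 ≤ t → t ≤ y → Function.update p a t ∈ W.legW
  rate : ∀ t, 0 ≤ t → t ≤ y → s * t ≤ W.nu p - W.nu (Function.update p a t)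

section

variable {ι : ℕ → Type*} [∀ n, DecidableEq (ι n)]
variable {W : Wnd 18 ι} {κ : ℕ → ℝ} {lam : ℕ → Fin 18 → ℝ} {f : ∀ n, ι n → FW}
  {V : Finset (Fin 14)} {x y σ : ℝ} {E E' : ∀ n, Finset (ι n)} {Mu g : ℕ → ℝ}
  {ex : ℕ → ∀ n, ι n → ℕ} {T : Finset (Fin 18)} {a : Fin 18} {p : Fin 18 → ℝ} {s : ℝ}

theorem RateP.leg0 (Rt : RateP W T a p y s) (hy : 0 ≤ y) : p ∈ W.legW := by
  have h1 := Rt.leg 0 le_rfl hy
  have e : Function.update p a 0 = p := by
    rw [Function.update_eq_self_iff]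
    exact Rt.p0.symm
  rwa [e] at h1

/-- smaller precision -/
theorem WinD.mono (D : WinD W κ lam f V E x σ) (hy : 0 < y) (hyx : y ≤ x) :
    WinD W κ lam f V E y σ where
  x_pos := hy
  σ0 := D.σ0
  σ1 := D.σ1
  hV := D.hV
  top := fun s => hyx.trans (D.top s)
  dens := D.dens
  frost := fun u hu huy => D.frost u hu (huy.trans hyx)
  kap := D.kap
  inv := fun ε hε => by
    filter_upwards [D.inv ε hε] with n g1 i k k' hi hi' s hs h0 hV'
    exact (g1 i k k' hi hi' s hs h0 hV').trans (rpow_anti W.B' n (by linarith))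

/-- from the configuration to raw coordinates -/
theorem ev_twoP (h : WWnd W κ lam f) (hE : Wnd.EOk W E Mu) (hP : Wnd.Pruned W E E' g ex)
    (Rt : RateP W T a p y s) {ε : ℝ} (hε : 0 < ε) :
    ∀ᶠ n in (U : Filter ℕ), ∀ (c t : ℝ) (k i l : ℕ), (i, k) ∈ (W.cfg E' n).I →
      (l, k) ∈ (W.cfg E' n).I → (W.cfg E' n).loose p c k i l →
      ¬ (W.cfg E' n).loose (Function.update p a t) c k i l → 0 ≤ c →
      ∀ c', t + ε ≤ c' → c + ε ≤ c' → Two W κ lam f E' T a y c' n k i l := by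
  filter_upwards [Wnd.ev_cfg h.ok hE hP, ev_const_le W.B' hε W.K2,
    ev_const_le W.B' hε (1 / W.kap a)] with n g1 g2 g3 c t k i l hi hl hlo hnl hc c' ht hc'
  obtain ⟨hg, hEC, hne, hcfg⟩ := g1
  have hE'C : E' n ⊆ W.Cl n := (hP.sub n).trans hEC
  have hρe : (W.cfg E' n).ρ = W.B'.d n := Wnd.cfg_ρ E' n
  set ρ := W.B'.d n with hρ
  have hd : ∀ u : ℝ, 0 < ρ ^ u := fun u => rpos W.B' n u
  have hdn : ∀ {u v : ℝ}, u ≤ v → ρ ^ v ≤ ρ ^ u := fun {u v} h' => rpow_anti W.B' n h'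
  have radd : ∀ u v : ℝ, ρ ^ (u + v) = ρ ^ u * ρ ^ v := fun u v => rpow_add' W.B' n u v
  have sp := h.sd_pos n
  refine ⟨hi, hl, fun b hb => ?_, ?_⟩
  · have h1 := hlo b
    rw [hρe] at h1
    have h1 := h1.trans (hdn (show y - c ≤ p b - c by linarith [Rt.ge b hb]))
    rw [co_rel h hg hE'C hcfg hi hl (Rt.TS b hb)]
    refine (h.raw_le h1).trans (mul_le_mul_of_nonneg_right ?_ (sp b).le)
    calc W.kap b * ρ ^ (y - c) ≤ ρ ^ (-ε) * ρ ^ (y - c) :=
          mul_le_mul_of_nonneg_right ((Wnd.kap_le_K2 h.ok b).trans g2) (hd _).le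
      _ = ρ ^ (-ε + (y - c)) := (radd _ _).symm
      _ ≤ ρ ^ (y - c') := hdn (by linarith)
  · have h1 := big_slot hlo hnl
    rw [hρe] at h1
    rw [co_rel h hg hE'C hcfg hi hl Rt.aS, abs_mul, abs_of_pos (h.un_pos n a)]
    have hk := h.ok.kap a
    have h2 : 1 ≤ W.kap a * ρ ^ (-ε) := by
      rw [div_le_iff₀ hk] at g3
      linarith
    have h3 : ρ ^ c' ≤ W.kap a * ρ ^ (t - c) := by
      calc ρ ^ c' ≤ 1 * ρ ^ c' := by rw [one_mul]
        _ ≤ (W.kap a * ρ ^ (-ε)) * ρ ^ c' := mul_le_mul_of_nonneg_right h2 (hd _).le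
        _ = W.kap a * ρ ^ (-ε + c') := by rw [radd]; ring
        _ ≤ W.kap a * ρ ^ (t - c) := mul_le_mul_of_nonneg_left (hdn (by linarith)) hk.le
    calc ρ ^ c' * sd W lam n a ≤ (W.kap a * ρ ^ (t - c)) * sd W lam n a :=
          mul_le_mul_of_nonneg_right h3 (sp a).le
      _ = un W lam n a * ρ ^ (t - c) := by unfold un; ring
      _ ≤ un W lam n a * |(W.cfg E' n).rel k i l a| :=
          mul_le_mul_of_nonneg_left h1.le (h.un_pos n a).le

open Classical in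
/-- **two lines in one cell which meet at many pairs of heights** -/
theorem two_manyP (h : WWnd W κ lam f) (hE : Wnd.EOk W E Mu) (hP : Wnd.Pruned W E E' g ex)
    (H : RModel W.B' (W.cfg E') σ y W.legW W.nu W.Dc) (hy : 0 < y) (Rt : RateP W T a p y s)
    (pT r : Fin 18 → ℝ) (hpT : pT ∈ W.legW)
    (hr : r ∈ W.legW) (hTr : ∀ j, pT j ≤ r j) (hz : W.nu pT ≤ W.nu r) {C1 : ℝ} (hC1 : 0 < C1)
    (inT : ∀ ε : ℝ, 0 < ε → ∀ᶠ n in (U : Filter ℕ), ∀ k k' i i', (i, k) ∈ (W.cfg E' n).I →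
      (i, k') ∈ (W.cfg E' n).I → (i', k) ∈ (W.cfg E' n).I → (i', k') ∈ (W.cfg E' n).I →
      (W.cfg E' n).loose p ε k i i' → (W.cfg E' n).loose pT (C1 * ε) k' i i') :
    ∃ C : ℝ, 0 < C ∧ ∀ ε : ℝ, 0 < ε → C * ε ≤ y → ∀ᶠ n in (U : Filter ℕ),
      ∃ k₀ i l : ℕ, ∃ P ⊆ (W.cfg E' n).Z ×ˢ (W.cfg E' n).Z,
        Two W κ lam f E' T a y (C * ε) n k₀ i l ∧
        W.B'.d n ^ (C * ε) * ((W.cfg E' n).Z.card : ℝ) ^ 2 ≤ (P.card : ℝ) ∧
        ∀ q ∈ P, (i, q.1) ∈ (W.cfg E' n).I ∧ (l, q.1) ∈ (W.cfg E' n).I ∧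
          (i, q.2) ∈ (W.cfg E' n).I ∧ (l, q.2) ∈ (W.cfg E' n).I ∧
          (W.cfg E' n).loose r (C * ε) q.1 i l ∧ (W.cfg E' n).loose r (C * ε) q.2 i l ∧
          Pop W.B' (W.cfg E') (4 * ε) n k₀ q.1 ∧ Pop W.B' (W.cfg E') (4 * ε) n k₀ q.2 ∧
          Pop W.B' (W.cfg E') (4 * ε) n q.1 q.2 := by
  have hD := H.D1
  have hD0 : 0 < W.Dc := by linarith
  have hD5 : 0 < W.Dc ^ 5 := by positivity
  obtain ⟨C0, hC0, hmain⟩ := pair_many H p pT r (Rt.leg0 hy.le) hpT hr hTr hz hC1 inT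
    (fun t => Function.update p a t) Rt.pos Rt.leg Rt.rate (C4 := W.Dc ^ 5) hD5
  refine ⟨C0 + W.Dc ^ 5 + 1, by positivity, fun ε hε hCx => ?_⟩
  have h1 : C0 * ε ≤ y := by nlinarith
  filter_upwards [hmain ε hε h1, ev_twoP (κ := κ) (lam := lam) (f := f) h hE hP Rt hε] with
    n ⟨k₀, i, l, P, hPZ, hi, hl, hlo, hnl, hcard, hq⟩ g2
  have hdn : ∀ {u v : ℝ}, u ≤ v → W.B'.d n ^ v ≤ W.B'.d n ^ u := fun {u v} h' =>
    rpow_anti W.B' n h'
  have hρe : (W.cfg E' n).ρ = W.B'.d n := Wnd.cfg_ρ E' n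
  refine ⟨k₀, i, l, P, hPZ, ?_, ?_, fun q hqP => ?_⟩
  · exact g2 (W.Dc ^ 5 * ε) (C0 * ε) k₀ i l hi hl hlo hnl (by positivity) _ (by nlinarith)
      (by nlinarith)
  · refine le_trans ?_ hcard
    exact mul_le_mul_of_nonneg_right (hdn (by nlinarith)) (by positivity)
  · obtain ⟨a1, a2, a3, a4, a5, a6, a7, a8, a9⟩ := hq q hqP
    refine ⟨a1, a2, a3, a4, fun s => ?_, fun s => ?_, a7, a8, a9⟩
    · refine (a5 s).trans ?_
      rw [hρe]
      exact hdn (by nlinarith)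
    · refine (a6 s).trans ?_
      rw [hρe]
      exact hdn (by nlinarith)

/-- transfer of `c, A, zY` -/
theorem BY_inTP (h : WWnd W κ lam f) (hE : Wnd.EOk W E Mu) (hP : Wnd.Pruned W E E' g ex)
    (D : WinD W κ lam f {3} E x σ) (s8 : (8 : Fin 18) ∉ W.S) {ε : ℝ} (hε : 0 < ε) :
    ∀ᶠ n in (U : Filter ℕ), ∀ k k' i i', (i, k) ∈ (W.cfg E' n).I →
      (i, k') ∈ (W.cfg E' n).I → (i', k) ∈ (W.cfg E' n).I → (i', k') ∈ (W.cfg E' n).I →
      (W.cfg E' n).loose (pBY x y) ε k i i' →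
      (W.cfg E' n).loose (bxs {1, 2, 8} x) (2 * ε) k' i i' := by
  have hx := D.x_pos
  rcases lt_or_ge x ε with hxε | hxε
  · filter_upwards [loose_zero h hE hP hε] with n g1 k k' i i' h1 h2 h3 h4 h5
    have g2 := g1 k' i i' h2 h4
    have hρe : (W.cfg E' n).ρ = W.B'.d n := Wnd.cfg_ρ E' n
    intro s
    refine (g2 s).trans ?_
    rw [hρe]
    refine rpow_anti W.B' n ?_
    rw [Pi.zero_apply]
    unfold bxs
    split_ifs <;> linarith
  · have hKR := KR_one h.ok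
    have hK0 : 0 ≤ KR W := by linarith
    have hCR := (CR_ge hKR).1
    have hK2 := Wnd.K2_one h.ok
    obtain ⟨A, hA⟩ : ∃ A : ℝ, A = CR (KR W) + W.K2 + KR W * W.K2 := ⟨_, rfl⟩
    have hb : ∀ᶠ n in (U : Filter ℕ), ∀ s : Fin 18, A / W.kap s ≤ W.B'.d n ^ (-ε) := by
      rw [Filter.eventually_all]
      intro s
      exact ev_const_le W.B' hε _
    filter_upwards [loose_zero h hE hP hε, D.raw h hE hP hε hxε, hb] with
      n g1 g2 g3 k k' i i' h1 h2 h3 h4 h5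
    obtain ⟨hg, hEC, hcfg, R⟩ := g2
    have hρe : (W.cfg E' n).ρ = W.B'.d n := Wnd.cfg_ρ E' n
    set ρ := W.B'.d n with hρ
    have hd : ∀ u : ℝ, 0 < ρ ^ u := fun u => rpos W.B' n u
    have hdn : ∀ {u v : ℝ}, u ≤ v → ρ ^ v ≤ ρ ^ u := fun {u v} h' => rpow_anti W.B' n h'
    have radd : ∀ u v : ℝ, ρ ^ (u + v) = ρ ^ u * ρ ^ v := fun u v => rpow_add' W.B' n u v
    have sp := h.sd_pos n
    obtain ⟨xA, xl, xz⟩ := rep_Aset hEC hcfg h1
    obtain ⟨xA', xl', xz'⟩ := rep_Aset hEC hcfg h2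
    obtain ⟨yA, yl, yz⟩ := rep_Aset hEC hcfg h3
    obtain ⟨yA', yl', yz'⟩ := rep_Aset hEC hcfg h4
    have e1 := xl.trans xl'.symm
    have e2 := yl.trans yl'.symm
    have e3 := xz.trans yz.symm
    have e4 := xz'.trans yz'.symm
    -- smallness at the first height
    have hsm : ∀ s : Fin 18, s ∈ ({1, 2, 8} : Finset (Fin 18)) → s ∉ W.S →
        |coW (κ n) (f n (W.rep n i k)) (f n (W.rep n i' k)) s| ≤
        W.K2 * ρ ^ (x - ε) * sd W lam n s := by
      intro s hs hsS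
      have h6 := h5 s
      rw [hρe, pBY_T hs] at h6
      rw [co_rel h hg hEC hcfg h1 h3 hsS]
      refine (h.raw_le h6).trans (mul_le_mul_of_nonneg_right ?_ (sp s).le)
      exact mul_le_mul_of_nonneg_right (Wnd.kap_le_K2 h.ok s) (hd _).le
    have b1 := hsm 1 (by decide) h.n1
    have b2 := hsm 2 (by decide) h.n2
    have b8 := hsm 8 (by decide) s8
    have f1 := R.frm_row xA xA' yA yA' e1 e2 e3 e4 (i := 1) h.n1
    have f2 := R.frm_row xA xA' yA yA' e1 e2 e3 e4 (i := 2) h.n2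
    have f8 := R.lin_row xA xA' yA yA' e1 e2 e3 e4 (q := 4) s8
    rw [row_BY8 (κ n) _ _ s8] at f8
    change |coW (κ n) _ _ 1 - coW (κ n) (f n (W.rep n i k)) (f n (W.rep n i' k)) 1| ≤
      _ * sd W lam n 1 at f1
    change |coW (κ n) _ _ 2 - (coW (κ n) (f n (W.rep n i k)) (f n (W.rep n i' k)) 2 +
      coW (κ n) (f n (W.rep n i k)) (f n (W.rep n i k')) 0 *
      coW (κ n) (f n (W.rep n i k)) (f n (W.rep n i' k)) 1)| ≤ _ * sd W lam n 2 at f2
    change |coW (κ n) _ _ 8 - coW (κ n) (f n (W.rep n i k)) (f n (W.rep n i' k)) 8| ≤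
      _ * sd W lam n 8 at f8
    have w2 : sd W lam n 1 * sd W lam n 0 ≤ sd W lam n 2 := (walls_frame R.hX).1
    have m2 : |coW (κ n) (f n (W.rep n i k)) (f n (W.rep n i' k)) 1 *
        coW (κ n) (f n (W.rep n i k)) (f n (W.rep n i k')) 0| ≤
        (W.K2 * ρ ^ (x - ε) * KR W) * sd W lam n 2 :=
      bm b1 (R.bnd _ xA _ xA' 0) (by have := hd (x - ε); positivity) hK0 (sp 1).le w2
    have hAn : 0 ≤ KR W * W.K2 := by positivity
    have hfin : ∀ s : Fin 18, s ∉ W.S →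
        |coW (κ n) (f n (W.rep n i k')) (f n (W.rep n i' k')) s| ≤
          A * ρ ^ (x - ε) * sd W lam n s → |(W.cfg E' n).rel k' i i' s| ≤ ρ ^ (x - 2 * ε) := by
      intro s hs h6
      rw [co_rel h hg hEC hcfg h2 h4 hs, abs_mul, abs_of_pos (h.un_pos n s)] at h6
      have hk := h.ok.kap s
      have h7 : |(W.cfg E' n).rel k' i i' s| ≤ A / W.kap s * ρ ^ (x - ε) := by
        have e5 : A * ρ ^ (x - ε) * sd W lam n s = un W lam n s * (A / W.kap s * ρ ^ (x - ε)) := by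
          unfold un
          field_simp
        rw [e5] at h6
        exact le_of_mul_le_mul_left h6 (h.un_pos n s)
      calc |(W.cfg E' n).rel k' i i' s| ≤ A / W.kap s * ρ ^ (x - ε) := h7
        _ ≤ ρ ^ (-ε) * ρ ^ (x - ε) := mul_le_mul_of_nonneg_right (g3 s) (hd _).le
        _ = ρ ^ (-ε + (x - ε)) := (radd _ _).symm
        _ ≤ _ := hdn (by linarith)
    have hsum : ∀ {s : Fin 18} {r v w : ℝ}, |r - v| ≤ CR (KR W) * ρ ^ (x - ε) * sd W lam n s →
        |v| ≤ w * sd W lam n s → w ≤ (W.K2 + KR W * W.K2) * ρ ^ (x - ε) →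
        |r| ≤ A * ρ ^ (x - ε) * sd W lam n s := by
      intro s r v w h6 h7 h8
      have h9 := mul_le_mul_of_nonneg_right h8 (sp s).le
      have e5 : A * ρ ^ (x - ε) * sd W lam n s = CR (KR W) * ρ ^ (x - ε) * sd W lam n s +
          (W.K2 + KR W * W.K2) * ρ ^ (x - ε) * sd W lam n s := by rw [hA]; ring
      rw [e5]
      have h10 := abs_add_le (r - v) v
      rw [sub_add_cancel] at h10
      linarith
    have hρx := hd (x - ε)
    have nn : 0 ≤ KR W * W.K2 * ρ ^ (x - ε) := by positivity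
    intro s
    rw [hρe]
    by_cases hs1 : s = 1
    · subst hs1
      rw [show bxs {1, 2, 8} x 1 = x from if_pos (by decide)]
      exact hfin 1 h.n1 (hsum f1 b1 (by linarith))
    by_cases hs2 : s = 2
    · subst hs2
      rw [show bxs {1, 2, 8} x 2 = x from if_pos (by decide)]
      refine hfin 2 h.n2 (hsum (w := W.K2 * ρ ^ (x - ε) + W.K2 * ρ ^ (x - ε) * KR W) f2 ?_
        (by linarith))
      have h10 := abs_add_le (coW (κ n) (f n (W.rep n i k)) (f n (W.rep n i' k)) 2)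
        (coW (κ n) (f n (W.rep n i k)) (f n (W.rep n i k')) 0 *
        coW (κ n) (f n (W.rep n i k)) (f n (W.rep n i' k)) 1)
      rw [mul_comm (coW (κ n) (f n (W.rep n i k)) (f n (W.rep n i k')) 0)] at h10 ⊢
      linarith
    by_cases hs8 : s = 8
    · subst hs8
      rw [show bxs {1, 2, 8} x 8 = x from if_pos (by decide)]
      exact hfin 8 s8 (hsum f8 b8 (by linarith))
    · have e6 : bxs {1, 2, 8} x s = 0 := if_neg (by simp [hs1, hs2, hs8])
      rw [e6]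
      have h6 := g1 k' i i' h2 h4 s
      rw [hρe, Pi.zero_apply] at h6
      exact h6.trans (hdn (by linarith))

/-- **the resonance `BY`**, slot `14` coarser -/
theorem BY_win' (h : WWnd W κ lam f) (hE : Wnd.EOk W E Mu) (D : WinD W κ lam f {3} E x σ)
    (hy : 0 < y) (hyx : y ≤ x)
    (s4 : (4 : Fin 18) ∈ W.S ∨
      ∀ᶠ n in (U : Filter ℕ), W.X n 7 + y * W.w n ≤ W.X n 0 + W.X n 0 + W.X n 4)
    (s5 : (5 : Fin 18) ∉ W.S) (s8 : (8 : Fin 18) ∉ W.S) (s11 : (11 : Fin 18) ∉ W.S)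
    (s14 : (14 : Fin 18) ∉ W.S)
    (t14 : ∀ᶠ n in (U : Filter ℕ), W.X n 14 = W.X n 3 + W.X n 7)
    (t11 : ∀ᶠ n in (U : Filter ℕ), W.X n 11 = W.X n 3 + W.X n 5)
    (Rt : RateP W {1, 2, 8, 14} 3 (pBY x y) y s) (lT : bxs {1, 2, 8} x ∈ W.legW)
    (free : W.nu (bxs {1, 2, 8} x) ≤ W.nu (pBY x y)) :
    ∀ ε : ℝ, 0 < ε → ∀ᶠ n in (U : Filter ℕ), ∃ G ⊆ E n,
      Mu n * W.B'.d n ^ (W.lam W.top + ε) ≤ (G.card : ℝ) ∧ ResQ W κ lam f 1 {3} y n ε G := by
  have D' := D.mono hy hyx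
  obtain ⟨E', g, hP, H⟩ := D'.model h hE
  have s7 : (7 : Fin 18) ∈ W.S := D.hV 3 (by decide)
  obtain ⟨C, hC, hmany⟩ := two_manyP h hE hP H hy Rt (bxs {1, 2, 8} x) (pBY x y) lT
    (Rt.leg0 hy.le) (le_pBY hy.le) free two_pos (fun ε hε => BY_inTP h hE hP D s8 hε)
  have hKR := KR_one h.ok
  have hK0 : 0 ≤ KR W := by linarith
  have hCR := (CR_ge hKR).1
  refine resq_of D' h hE hP adm_BY (Ch := KR W ^ 3) (by positivity) ?_ (C := 2 * C + 4)
    (by positivity) ?_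
  · intro ε hε
    by_cases h4 : (4 : Fin 18) ∈ W.S
    · filter_upwards with n i hi i' hi' l hl e1 e2 q hq
      have h1 := sh_BY (κ n) (coW (κ n) (f n i) (f n l)) s7 s5 (coW (κ n) (f n i) (f n i') 0) q hq
      rw [offS_on (q := 0) (s := 4) rfl h4, mul_zero] at h1
      change |tr (κ n) _ _ q - coW (κ n) (f n i) (f n l) 5 * _| ≤ _
      rw [h1, abs_zero]
      have := h.sd_pos n (Fin.natAdd 4 q)
      have := rpos W.B' n (y - ε)
      positivity
    · have s4' := s4.resolve_left h4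
      rcases lt_or_ge y ε with hyε | hyε
      all_goals
        filter_upwards [s4', h.ok.ev_good] with n hs hg i hi i' hi' l hl e1 e2 q hq
        have h1 := sh_BY (κ n) (coW (κ n) (f n i) (f n l)) s7 s5
          (coW (κ n) (f n i) (f n i') 0) q hq
        rw [offS_of (q := 0) (s := 4) rfl h4] at h1
        change |tr (κ n) _ _ q - coW (κ n) (f n i) (f n l) 5 * _| ≤ _
        rw [h1]
        have hKK : W.K0 ≤ KR W := by
          have := h.ok.K0_one
          have := Wnd.K2_one h.ok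
          unfold KR
          have : 0 ≤ W.K0 ^ 7 := by positivity
          linarith
        have sp := h.sd_pos n
        have bu := (h.bnd hg hi.1 hi'.1 0).trans (mul_le_mul_of_nonneg_right hKK (sp 0).le)
        have b4 := (h.bnd hg hi.1 hl.1 4).trans (mul_le_mul_of_nonneg_right hKK (sp 4).le)
        have m1 := bm bu (bm bu b4 hK0 hK0 (sp 0).le le_rfl) hK0 (by positivity) (sp 0).le
          (sd_slack h hs)
        have e3 : coW (κ n) (f n i) (f n i') 0 ^ 2 * coW (κ n) (f n i) (f n l) 4 =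
            coW (κ n) (f n i) (f n i') 0 * (coW (κ n) (f n i) (f n i') 0 *
              coW (κ n) (f n i) (f n l) 4) := by ring
        rw [e3]
        rw [mem_singleton] at hq
        subst hq
        change _ ≤ KR W ^ 3 * W.B'.d n ^ (y - ε) * sd W lam n 7
        refine m1.trans ?_
        have h2 : W.B'.d n ^ y ≤ W.B'.d n ^ (y - ε) := rpow_anti W.B' n (by linarith)
        have h3 := mul_le_mul_of_nonneg_right h2 (sp 7).le
        have h4 := mul_le_mul_of_nonneg_left h3 (show 0 ≤ KR W * (KR W * KR W) by positivity)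
        refine h4.trans (le_of_eq ?_)
        ring
  · intro ε hε hεy
    have hCε : 0 < C * ε := by positivity
    have hεy1 : ε ≤ y := by linarith
    have hK3 : 0 ≤ KR W ^ 3 := by positivity
    have hK2 := Wnd.K2_one h.ok
    filter_upwards [hmany ε hε (by linarith), D'.raw h hE hP hε hεy1, t14, t11,
      ev_const_le W.B' hε (CR (KR W) + (2 + 3 * KR W ^ 3) + W.K2 + KR W)] with n g1 g2 g3 g4 g5
    obtain ⟨k₀, i, l, P, hPZ, hT, hcard, hq⟩ := g1
    obtain ⟨hg, hEC, hcfg, R⟩ := g2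
    have hρe : (W.cfg E' n).ρ = W.B'.d n := Wnd.cfg_ρ E' n
    set ρ := W.B'.d n with hρ
    have hρ0 : 0 < ρ := W.B'.pos n
    have hρ1 : ρ ≤ 1 := (W.B'.lt n).le
    have hd : ∀ u : ℝ, 0 < ρ ^ u := fun u => rpos W.B' n u
    have hdn : ∀ {u v : ℝ}, u ≤ v → ρ ^ v ≤ ρ ^ u := fun {u v} h' => rpow_anti W.B' n h'
    have radd : ∀ u v : ℝ, ρ ^ (u + v) = ρ ^ u * ρ ^ v := fun u v => rpow_add' W.B' n u v
    have sp := h.sd_pos n
    have T14 := sd_mul h (n := n) (u := 3) (v := 7) (s := 14) (by decide) g3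
    have T11 := sd_mul h (n := n) (u := 3) (v := 5) (s := 11) (by decide) g4
    obtain ⟨xA, xl, xz⟩ := rep_Aset hEC hcfg hT.hi
    obtain ⟨yA, yl, yz⟩ := rep_Aset hEC hcfg hT.hl
    have A1 : CR (KR W) + (2 + 3 * KR W ^ 3) ≤ ρ ^ (-ε) := by linarith
    have A2 : W.K2 ≤ ρ ^ (-ε) := by linarith
    have A3 : KR W ≤ ρ ^ (-ε) := by linarith
    have hδ : ∀ b ∈ ({1, 2, 8, 14} : Finset (Fin 18)),
        |coW (κ n) (f n (W.rep n i k₀)) (f n (W.rep n l k₀)) b| ≤
        ρ ^ (y - (C * ε + ε)) * sd W lam n b := fun b hb =>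
      (hT.sm b hb).trans (mul_le_mul_of_nonneg_right (hdn (by linarith)) (sp b).le)
    refine ⟨k₀, i, coW (κ n) (f n (W.rep n i k₀)) (f n (W.rep n l k₀)) 11 /
      (2 * coW (κ n) (f n (W.rep n i k₀)) (f n (W.rep n l k₀)) 3), P.image Prod.fst, ?_, ?_,
      hT.hi, ?_, ?_, ?_⟩
    · intro k hk
      obtain ⟨q, hqP, rfl⟩ := mem_image.1 hk
      exact (mem_product.1 (hPZ hqP)).1
    · refine le_trans ?_ (card_fst hPZ hcard (Z_nonempty H n))
      exact mul_le_mul_of_nonneg_right (hdn (by linarith)) (Nat.cast_nonneg _)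
    · intro k hk
      obtain ⟨q, hqP, rfl⟩ := mem_image.1 hk
      exact (hq q hqP).1
    · -- size of ψ
      have hb11 := R.bnd _ xA _ yA 11
      have b3' : ρ ^ (C * ε) * sd W lam n 3 ≤
          |2 * coW (κ n) (f n (W.rep n i k₀)) (f n (W.rep n l k₀)) 3| := by
        rw [abs_mul, abs_two]
        have := hT.big
        linarith [abs_nonneg (coW (κ n) (f n (W.rep n i k₀)) (f n (W.rep n l k₀)) 3)]
      refine (divb (hd (C * ε)) (sp 3) (sp 5).le hK0 hb11 T11 b3').trans ?_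
      refine mul_le_mul_of_nonneg_right ?_ (sp _).le
      have h1 : KR W ≤ ρ ^ (-ε) * ρ ^ (0 : ℝ) := by rw [Real.rpow_zero, mul_one]; exact A3
      have h2 := quo (v := KR W) (A := ρ ^ (-ε)) (a := 0) (b := C * ε) (e := ε) hρ0 hρ1
        le_rfl h1
      exact h2.trans (hdn (by linarith))
    · intro k hk q hqV
      obtain ⟨p, hpP, rfl⟩ := mem_image.1 hk
      obtain ⟨p1, p2, p3, p4, p5, -⟩ := hq p hpP
      obtain ⟨xA', xl', xz'⟩ := rep_Aset hEC hcfg p1
      obtain ⟨yA', yl', yz'⟩ := rep_Aset hEC hcfg p2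
      have r14 : |coW (κ n) (f n (W.rep n i p.1)) (f n (W.rep n l p.1)) 14| ≤
          ρ ^ (y - (C * ε + ε)) * sd W lam n 14 := by
        have h6 := p5 14
        rw [hρe, pBY_14] at h6
        rw [co_rel h hg hEC hcfg p1 p2 s14]
        refine (h.raw_le h6).trans (mul_le_mul_of_nonneg_right ?_ (sp 14).le)
        calc W.kap 14 * ρ ^ (y - C * ε) ≤ ρ ^ (-ε) * ρ ^ (y - C * ε) :=
              mul_le_mul_of_nonneg_right ((Wnd.kap_le_K2 h.ok 14).trans A2) (hd _).le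
          _ = ρ ^ (-ε + (y - C * ε)) := (radd _ _).symm
          _ ≤ _ := hdn (by linarith)
      have key := (BY_ratio R s14 s11 s8 T14 T11 xA xA' yA yA' (xl.trans xl'.symm)
        (yl.trans yl'.symm) (xz.trans yz.symm) (xz'.trans yz'.symm)
        (hd (y - (C * ε + ε))).le (hd (C * ε)) (hδ 1 (by decide)) (hδ 8 (by decide))
        (hδ 14 (by decide)) r14 hT.big).1
      rw [mem_singleton] at hqV
      subst hqV
      rw [fk_BY]
      refine key.trans (mul_le_mul_of_nonneg_right ?_ (sp _).le)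
      have h1 : CR (KR W) * ρ ^ (y - ε) + (2 + 3 * KR W ^ 3) * ρ ^ (y - (C * ε + ε)) ≤
          (CR (KR W) + (2 + 3 * KR W ^ 3)) * ρ ^ (y - (C * ε + ε)) := by
        have a1 := mul_le_mul_of_nonneg_left (hdn (show y - (C * ε + ε) ≤ y - ε by linarith)) hCR
        linarith
      refine (quo hρ0 hρ1 A1 h1 (b := C * ε)).trans (hdn ?_)
      linarith

end

end Crest.Agent.R136.Res2648
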