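import Crest.Agent.R136.RnL_648
import Crest.Agent.R136.Res9_648

/-!
# R136, wall resonances (helper648): the numbers of `(3, 4)`

`NumB S c s lam` : `14 : y` is free given `{1, 2, 8} : x` for `y = c x`; the slot `3` costs at the
rate `s` in this box.
-/

set_option autoImplicit false
set_option linter.unusedVariables false

namespace Crest.Agent.R136.Rnl648

open Finset Crest.Agent.R136.Qg926 Crest.Agent.R136.Res2648 Crest.Agent.R136.EvW938
open Crest.Agent.R136.NetW191 Crest.Agent.R136.Net191

/-- **numbers of the window `BY`** (precision `c x`) -/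
structure NumB (S : Finset (Fin 18)) (c s : ℝ) (lam : (Fin 18 → ℝ) → ℝ) : Prop where
  c0 : 0 < c
  c1 : c ≤ 1
  s0 : 0 < s
  free : ∀ x : ℝ, 0 ≤ x → lam (cut S (bxs {1, 2, 8} x) fun _ => x) ≤
    lam (cut S (pBY x (c * x)) fun _ => x)
  rate : ∀ x t : ℝ, 0 ≤ t → t ≤ c * x →
    s * t ≤ lam (cut S (pBY x (c * x)) fun _ => x) -
      lam (cut S (Function.update (pBY x (c * x)) 3 t) fun _ => x)

end Crest.Agent.R136.Rnl648
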