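import Crest.Agent.R136.Int2_599
import Crest.Agent.R136.RnB_648

/-!
# R136 (helper599): the wall resonances in an interior window of a `ZWin`, part 3

**`int_AY`, `int_YY`, `int_zY`, `int_BY`** : the relation of the resonance (`ResA`, precision
`ρ^(x - ε)` for every `ε > 0`, `x > 0` given in advance) on all classes of one dense part of the
family of a zoom window, from the numbers `NumW`, `NumR`, `NumB` of the tangent (`BY`: labels at `x`,
precision `c x`).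
-/

set_option autoImplicit false
set_option linter.unusedVariables false
set_option linter.unusedSectionVars false

open Filter Topology

namespace Crest.Agent.R136.Int599

open Finset Crest.Agent.R136.NetW191 Crest.Agent.R136.Net191 Crest.Agent.R136.Qg926
open Crest.Agent.R136.EvW938 Crest.Agent.R136.Bas938 Crest.Agent.R136.Gf356
open Crest.Agent.R136.Aw413 Crest.Agent.R136.Dg219
open Crest.Agent.R136.Res2648 Crest.Agent.R136.Inv599
open Crest.Agent.R136.Rnl648 (S0 NumW NumR NumB ResA)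
open Crest.Agent.R136.LadG697 (coU)
open Crest.Agent.R138.Ex926 (Base U cls)
open Crest.Agent.R138.Dp76 (Dense)

/-! ### walls -/

/-- the active walls are tight -/
def TightM (Ma : Mons 18) (Y : ℕ → Fin 18 → ℝ) : Prop :=
  ∀ k, ∀ e ∈ Ma.mon k, ∀ᶠ n in (U : Filter ℕ), Y n k = ∑ s, (e s : ℝ) * Y n s

theorem TightM.eq {Ma : Mons 18} {Dr : Set (Fin 18)} {Y : ℕ → Fin 18 → ℝ} (h : TightM Ma Y)
    (hA : ActM Ma Dr) {k : Fin 18} (hk : k ∉ Dr) {l : List (Fin 18)} (hl : l ∈ mlW k)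
    (hls : ∀ s ∈ l, s ∉ Dr) : ∀ᶠ n in (U : Filter ℕ), Y n k = (l.map (Y n)).sum := by
  filter_upwards [h k _ ((hA.iff k _).2 ⟨hk, l, hl, hls, rfl⟩)] with n hn
  rw [sum_count]
  exact hn

theorem TightM.eq2 {Ma : Mons 18} {Dr : Set (Fin 18)} {Y : ℕ → Fin 18 → ℝ} (h : TightM Ma Y)
    (hA : ActM Ma Dr) {k a b : Fin 18} (hk : k ∉ Dr) (ha : a ∉ Dr) (hb : b ∉ Dr)
    (hl : [a, b] ∈ mlW k) : ∀ᶠ n in (U : Filter ℕ), Y n k = Y n a + Y n b := by
  filter_upwards [h.eq hA hk hl (by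
    intro s hs
    simp only [List.mem_cons, List.not_mem_nil, or_false] at hs
    rcases hs with rfl | rfl
    · exact ha
    · exact hb)] with n hn
  rw [hn]
  simp

variable {B B' : Base} {I J : ℕ → Finset (ℕ × ℝ)}
  {kp : ℕ → ℝ} {u : ℕ → Fin 18 → ℝ} {f : ℕ → ℕ × ℝ → FW} {Y : ℕ → Fin 18 → ℝ}
  {w : ℕ → ℝ} {Tz : ℕ → ℝ} {Ma : Mons 18} {Dr : Set (Fin 18)} {lam : (Fin 18 → ℝ) → ℝ} {x : ℝ}

/-- level slots of the window of `AY` -/
abbrev SAY : Finset (Fin 18) := {0, 5, 7, 9, 14}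
/-- level slots of the window of `YY` -/
abbrev SYY : Finset (Fin 18) := {0, 5, 7, 9}
/-- level slots of the window of `zY` -/
abbrev SzY : Finset (Fin 18) := {0, 4, 5, 6, 7, 9, 10, 11, 14, 15}
/-- level slots of the window of `BY` -/
abbrev SBY : Finset (Fin 18) := {0, 7}

theorem sdat_AY : SDat SAY {5} := by decide +kernel
theorem sdat_YY : SDat SYY {1, 3} := by decide +kernel
theorem sdat_zY : SDat SzY {6, 7, 10} := by decide +kernel
theorem sdat_BY : SDat SBY {3} := by decide +kernel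

/-- **the resonance `AY`**, wall `(3,3)` -/
theorem int_AY (hZ : ZWin B B' I J (coU u kp f) monW 67 Y w (coneM Ma) Tz lam)
    (hA : ActM Ma Dr) (h4 : (4 : Fin 18) ∈ Dr) (hgr : ∀ n, GrU (u n)) (hk1 : ∀ n, |kp n| ≤ 1)
    (hkp : B'.Sub fun n => |kp n|⁻¹)
    (t14 : ∀ᶠ n in (U : Filter ℕ), Y n 14 = Y n 2 + Y n 9)
    (t11 : ∀ᶠ n in (U : Filter ℕ), Y n 11 = Y n 2 + Y n 6)
    (hN : NumW SAY {5} lam) {r : ℝ} (hR : NumR SAY {1, 8} 2 r lam) (hx : 0 < x) :
    ∃ J1 : ℕ → Finset (ℕ × ℝ), (∀ n, J1 n ⊆ J n) ∧ Dense B' J1 J ∧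
      ∀ ε : ℝ, 0 < ε → ∀ᶠ n in (U : Filter ℕ), ∀ s ∈ J1 n,
        ResA B B' I u kp f Y w SAY 2 {5} x n ε
          (cls (J1 n) (zlab B I (coU u kp f) monW 67 Y w n 0) s) := by
  refine int_core hZ hA hgr hk1 hkp sdat_AY hN hx fun Gd s₀ E Mu hw hE D => ?_
  exact AY_win hw hE D (by show (14 : Fin 18) ∈ SAY; decide) (by show (6 : Fin 18) ∉ SAY; decide)
    (by show (8 : Fin 18) ∉ SAY; decide) (by show (11 : Fin 18) ∉ SAY; decide) t14 t11
    (iw_rate hA (Dd := {4}) (by simpa using h4) hx.le (by decide) (by decide) (by decide)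
      (by decide +kernel) (by decide +kernel) hR)

/-- **the resonance `YY`**, wall `(4,4)` -/
theorem int_YY (hZ : ZWin B B' I J (coU u kp f) monW 67 Y w (coneM Ma) Tz lam)
    (hA : ActM Ma Dr) (hgr : ∀ n, GrU (u n)) (hk1 : ∀ n, |kp n| ≤ 1)
    (hkp : B'.Sub fun n => |kp n|⁻¹)
    (t9 : ∀ᶠ n in (U : Filter ℕ), Y n 9 = Y n 2 + Y n 5)
    (t9' : ∀ᶠ n in (U : Filter ℕ), Y n 9 = Y n 1 + Y n 7)
    (t6 : ∀ᶠ n in (U : Filter ℕ), Y n 6 = Y n 2 + Y n 4)
    (hN : NumW SYY {1, 3} lam) {r r' : ℝ} (hR : NumR SYY {1} 2 r lam)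
    (hR' : NumR SYY {2, 6} 1 r' lam) (hx : 0 < x) :
    ∃ J1 : ℕ → Finset (ℕ × ℝ), (∀ n, J1 n ⊆ J n) ∧ Dense B' J1 J ∧
      ∀ ε : ℝ, 0 < ε → ∀ᶠ n in (U : Filter ℕ), ∀ s ∈ J1 n,
        ResA B B' I u kp f Y w SYY 0 {1, 3} x n ε
          (cls (J1 n) (zlab B I (coU u kp f) monW 67 Y w n 0) s) := by
  refine int_core hZ hA hgr hk1 hkp sdat_YY hN hx fun Gd s₀ E Mu hw hE D => ?_
  exact YY_win hw hE D (by show (9 : Fin 18) ∈ SYY; decide) (by show (4 : Fin 18) ∉ SYY; decide)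
    (by show (6 : Fin 18) ∉ SYY; decide) t9 t9' t6
    (iw_rate hA (Dd := ∅) (by simp) hx.le (by decide) (by decide) (by decide)
      (by decide +kernel) (by decide +kernel) hR)
    (iw_rate hA (Dd := ∅) (by simp) hx.le (by decide) (by decide) (by decide)
      (by decide +kernel) (by decide +kernel) hR')

/-- **the resonance `zY`**, wall `(3,2)` -/
theorem int_zY (hZ : ZWin B B' I J (coU u kp f) monW 67 Y w (coneM Ma) Tz lam)
    (hA : ActM Ma Dr) (hgr : ∀ n, GrU (u n)) (hk1 : ∀ n, |kp n| ≤ 1)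
    (hkp : B'.Sub fun n => |kp n|⁻¹)
    (t10 : ∀ᶠ n in (U : Filter ℕ), Y n 10 = Y n 0 + Y n 8)
    (t11 : ∀ᶠ n in (U : Filter ℕ), Y n 11 = Y n 0 + Y n 8)
    (t14 : ∀ᶠ n in (U : Filter ℕ), Y n 14 = Y n 0 + Y n 11)
    (t12 : ∀ᶠ n in (U : Filter ℕ), Y n 12 = Y n 2 + Y n 8)
    (t15 : ∀ᶠ n in (U : Filter ℕ), Y n 15 = Y n 2 + Y n 10)
    (t15' : ∀ᶠ n in (U : Filter ℕ), Y n 15 = Y n 1 + Y n 14)
    (hN : NumW SzY {6, 7, 10} lam) {r r' : ℝ} (hR : NumR SzY {1} 2 r lam)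
    (hR' : NumR SzY {2, 12} 1 r' lam) (hx : 0 < x) :
    ∃ J1 : ℕ → Finset (ℕ × ℝ), (∀ n, J1 n ⊆ J n) ∧ Dense B' J1 J ∧
      ∀ ε : ℝ, 0 < ε → ∀ᶠ n in (U : Filter ℕ), ∀ s ∈ J1 n,
        ResA B B' I u kp f Y w SzY 4 {6, 7, 10} x n ε
          (cls (J1 n) (zlab B I (coU u kp f) monW 67 Y w n 0) s) := by
  refine int_core hZ hA hgr hk1 hkp sdat_zY hN hx fun Gd s₀ E Mu hw hE D => ?_
  exact zY_win hw hE D (by show (15 : Fin 18) ∈ SzY; decide) (by show (8 : Fin 18) ∉ SzY; decide)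
    (by show (12 : Fin 18) ∉ SzY; decide) t10 t11 t14 t12 t15 t15'
    (iw_rate hA (Dd := ∅) (by simp) hx.le (by decide) (by decide) (by decide)
      (by decide +kernel) (by decide +kernel) hR)
    (iw_rate hA (Dd := ∅) (by simp) hx.le (by decide) (by decide) (by decide)
      (by decide +kernel) (by decide +kernel) hR')

/-- legality of a vector in the window -/
theorem iw_legW {B B' : Base} {I J : ℕ → Finset (ℕ × ℝ)}
    {co : ∀ n : ℕ, ℕ × ℝ → ℕ × ℝ → Fin 18 → ℝ} {C : ℝ} {S : Finset (Fin 18)}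
    {Gd : ℕ → Finset (ℕ × ℝ)} {s₀ : ℕ → ℕ × ℝ} {p : Fin 18 → ℝ}
    (hc : cut S p (fun _ => x) ∈ coneM Ma) (h0 : ∀ k, 0 ≤ p k) (hp : ∀ k, p k ≤ x) (hx : 0 ≤ x) :
    p ∈ (iw B B' I J co C Y w Ma Tz lam S x Gd s₀).legW := by
  rw [WSt.mem_legW]
  refine ⟨?_, fun k _ => ?_⟩
  · show cut S p (scV x fun _ => 1) ∈ _
    rw [scV_one]
    refine iw_leg (Gd := Gd) (s₀ := s₀) (B := B) (B' := B') (I := I) (J := J) (co := co) (C := C)
      (Y := Y) (w := w) (Tz := Tz) (lam := lam) (S := S) hc (fun k => ?_) (fun k => ?_)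
    · by_cases hk : k ∈ S
      · rw [cut_of_mem hk]; exact hx
      · rw [cut_of_notMem hk]; exact h0 k
    · by_cases hk : k ∈ S
      · rw [cut_of_mem hk]
      · rw [cut_of_notMem hk]; exact hp k
  · show p k ≤ scV x (fun _ => 1) k
    rw [scV_one]
    exact hp k

theorem cone_add (hA : ActM Ma Dr) {p q : Fin 18 → ℝ} (hp : p ∈ coneM Ma) (hq : q ∈ coneM Ma) :
    p + q ∈ coneM Ma := by
  rw [hA.cone] at hp hq ⊢
  intro k hk l hl hls
  rw [sum_add']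
  exact add_le_add (hp k hk l hl hls) (hq k hk l hl hls)

/-- the box of `BY` is legal -/
theorem cone_pBY (hA : ActM Ma Dr) (h4 : (4 : Fin 18) ∈ Dr) {y t : ℝ} (ht : 0 ≤ t) (hty : t ≤ y)
    (hyx : y ≤ x) :
    cut SBY (Function.update (pBY x y) 3 t) (fun _ => x) ∈ coneM Ma := by
  have hD : ∀ s ∈ ({4} : Finset (Fin 18)), s ∈ Dr := by simpa using h4
  have e : cut SBY (Function.update (pBY x y) 3 t) (fun _ => x) =
      (scV t (ind {0, 7, 1, 2, 8, 14, 3}) + scV (y - t) (ind {0, 7, 1, 2, 8, 14})) +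
        (scV (x - y) (ind {0, 7, 1, 2, 8}) + scV 0 (ind {0, 7, 1, 2, 8})) := by
    funext k
    simp only [Pi.add_apply, scV]
    unfold pBY bxs cut ind
    fin_cases k <;> simp [Function.update]
  rw [e]
  refine cone_add hA (cone_scV hA hD (by decide +kernel) (by decide +kernel) ht (by linarith))
    (cone_scV hA hD (by decide +kernel) (by decide +kernel) (by linarith) le_rfl)

/-- **the resonance `BY`**, wall `(3,4)`: labels at `x`, precision `c x` -/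
theorem int_BY (hZ : ZWin B B' I J (coU u kp f) monW 67 Y w (coneM Ma) Tz lam)
    (hA : ActM Ma Dr) (h4 : (4 : Fin 18) ∈ Dr) (hgr : ∀ n, GrU (u n)) (hk1 : ∀ n, |kp n| ≤ 1)
    (hkp : B'.Sub fun n => |kp n|⁻¹)
    (s4 : ∀ R : ℝ, ∀ᶠ n in (U : Filter ℕ), Y n 7 + R * w n ≤ Y n 0 + Y n 0 + Y n 4)
    (t14 : ∀ᶠ n in (U : Filter ℕ), Y n 14 = Y n 3 + Y n 7)
    (t11 : ∀ᶠ n in (U : Filter ℕ), Y n 11 = Y n 3 + Y n 5)
    (hN : NumW SBY {3} lam) {c r : ℝ} (hB : NumB SBY c r lam) (hx : 0 < x) :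
    ∃ J1 : ℕ → Finset (ℕ × ℝ), (∀ n, J1 n ⊆ J n) ∧ Dense B' J1 J ∧
      ∀ ε : ℝ, 0 < ε → ∀ᶠ n in (U : Filter ℕ), ∀ s ∈ J1 n,
        ResAy B B' I u kp f Y w SBY 1 {3} x (c * x) n ε
          (cls (J1 n) (zlab B I (coU u kp f) monW 67 Y w n 0) s) := by
  have hy : 0 < c * x := mul_pos hB.c0 hx
  have hyx : c * x ≤ x := by nlinarith [hB.c1]
  refine int_core hZ hA hgr hk1 hkp sdat_BY hN hx fun Gd s₀ E Mu hw hE D => ?_
  have pb : ∀ t, 0 ≤ t → t ≤ c * x → ∀ k, 0 ≤ Function.update (pBY x (c * x)) 3 t k ∧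
      Function.update (pBY x (c * x)) 3 t k ≤ x := by
    intro t ht hty k
    by_cases h3 : k = 3
    · subst h3
      rw [Function.update_self]
      exact ⟨ht, by linarith⟩
    · rw [Function.update_of_ne h3]
      by_cases h14 : k = 14
      · subst h14
        rw [pBY_14]
        exact ⟨hy.le, hyx⟩
      · by_cases hT : k ∈ ({1, 2, 8} : Finset (Fin 18))
        · rw [pBY_T hT]; exact ⟨hx.le, le_rfl⟩
        · rw [pBY_o hT h14]; exact ⟨le_rfl, hx.le⟩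
  refine BY_win' hw hE D hy hyx (Or.inr (s4 (c * x))) (by show (5 : Fin 18) ∉ SBY; decide)
    (by show (8 : Fin 18) ∉ SBY; decide) (by show (11 : Fin 18) ∉ SBY; decide)
    (by show (14 : Fin 18) ∉ SBY; decide) t14 t11 (s := r)
    { pos := hB.s0
      p0 := pBY_o (by decide) (by decide)
      aS := by show (3 : Fin 18) ∉ SBY; decide
      TS := by show ∀ b ∈ ({1, 2, 8, 14} : Finset (Fin 18)), b ∉ SBY; decide
      ge := ?_
      leg := fun t ht hty => iw_legW (cone_pBY hA h4 ht hty hyx) (fun k => (pb t ht hty k).1)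
        (fun k => (pb t ht hty k).2) hx.le
      rate := fun t ht hty => ?_ }
    (iw_legW_bxs hA (Dd := {4}) (by simpa using h4) (by decide +kernel) hx.le) ?_
  · intro b hb
    by_cases h14 : b = 14
    · subst h14; rw [pBY_14]
    · rw [pBY_T]
      · exact hyx
      · simp only [mem_insert, mem_singleton] at hb ⊢
        tauto
  · rw [WSt.wnd_nu, WSt.wnd_nu]
    show r * t ≤ lam (cut SBY (pBY x (c * x)) (scV x fun _ => 1)) - lam (scV x fun _ => 1) -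
      (lam (cut SBY (Function.update (pBY x (c * x)) 3 t) (scV x fun _ => 1)) -
        lam (scV x fun _ => 1))
    rw [scV_one]
    have := hB.rate x t ht hty
    linarith
  · rw [WSt.wnd_nu, WSt.wnd_nu]
    show lam (cut SBY (bxs {1, 2, 8} x) (scV x fun _ => 1)) - lam (scV x fun _ => 1) ≤
      lam (cut SBY (pBY x (c * x)) (scV x fun _ => 1)) - lam (scV x fun _ => 1)
    rw [scV_one]
    have := hB.free x hx.le
    linarith

end Crest.Agent.R136.Int599
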