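import Crest.Agent.R136.Int2_599

/-!
# R136 (helper599): from windows on classes to all classes of a zoom window, generic relation

**`int_gen`** : let `Rel n ε G` be monotone in `G`, `ε`.  If for every window `iw` (static data of
`S`, resolution `x`) on a class of any half of `J` a part of full size `T ρ^ε` of the class has
`Rel n ε`, then all classes of ONE dense part of `J` have it.  `int_gen'` : the same with the
hypothesis over any `EOk` set of the window (quad, lin: `S = {0}`).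
-/

set_option autoImplicit false
set_option linter.unusedVariables false
set_option linter.unusedSectionVars false

open Filter Topology

namespace Crest.Agent.R136.Int599

open Finset Crest.Agent.R136.NetW191 Crest.Agent.R136.Net191 Crest.Agent.R136.Qg926
open Crest.Agent.R136.EvW938 Crest.Agent.R136.Bas938 Crest.Agent.R136.Gf356
open Crest.Agent.R136.Aw413 Crest.Agent.R136.Dg219
open Crest.Agent.R136.LadG697 (coU)
open Crest.Agent.R136.Gau66 (local_to_global)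
open Crest.Agent.R138.Ex926 (Base U cls)
open Crest.Agent.R138.Dp76 (Dense)

variable {B B' : Base} {I J : ℕ → Finset (ℕ × ℝ)}
  {kp : ℕ → ℝ} {u : ℕ → Fin 18 → ℝ} {f : ℕ → ℕ × ℝ → FW} {Y : ℕ → Fin 18 → ℝ}
  {w : ℕ → ℝ} {Tz : ℕ → ℝ} {Ma : Mons 18} {Dr : Set (Fin 18)} {lam : (Fin 18 → ℝ) → ℝ}
  {S : Finset (Fin 18)} {x : ℝ}

/-- **from one class to all classes**, any relation -/
theorem int_gen (hZ : ZWin B B' I J (coU u kp f) monW 67 Y w (coneM Ma) Tz lam)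
    (hA : ActM Ma Dr) (hgr : ∀ n, GrU (u n)) (hk1 : ∀ n, |kp n| ≤ 1)
    (hd : WDat (fun _ => 0) (fun _ => 1) 1 S) (hx : 0 ≤ x)
    (Rel : ℕ → ℝ → Finset (ℕ × ℝ) → Prop)
    (hG : ∀ n ε G G', G' ⊆ G → Rel n ε G → Rel n ε G')
    (hε : ∀ n ε ε' G, ε ≤ ε' → Rel n ε G → Rel n ε' G)
    (hres : ∀ (Gd : ℕ → Finset (ℕ × ℝ)) (s₀ : ℕ → ℕ × ℝ), (∀ n, Gd n ⊆ J n) →
      WWnd (iw B B' I J (coU u kp f) 67 Y w Ma Tz lam S x Gd s₀) kp u f →
      ∀ ε : ℝ, 0 < ε → ∀ᶠ n in (U : Filter ℕ),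
        ∃ G ⊆ cls (Gd n) (zlab B I (coU u kp f) monW 67 Y w n 0) (s₀ n),
          Tz n * B'.d n ^ ε ≤ (G.card : ℝ) ∧ Rel n ε G) :
    ∃ J1 : ℕ → Finset (ℕ × ℝ), (∀ n, J1 n ⊆ J n) ∧ Dense B' J1 J ∧
      ∀ ε : ℝ, 0 < ε → ∀ᶠ n in (U : Filter ℕ), ∀ s ∈ J1 n,
        Rel n ε (cls (J1 n) (zlab B I (coU u kp f) monW 67 Y w n 0) s) := by
  have hst := iw_st_ok hA hd hx
  refine local_to_global (B := B') (J := J) (fun n => zlab B I (coU u kp f) monW 67 Y w n 0)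
    hZ.T0 (fun ε hε => by
      filter_upwards [hZ.prof.up 0 ε hε] with n hn s hs
      have := hn 0 hZ.zero (by rw [norm_zero]) s hs
      rwa [hZ.lam0, zero_add] at this)
    Rel hG hε ?_
  intro Gd hGd _ hdens ε hε0
  obtain ⟨s₀, hs₀, hok⟩ := hZ.exists_wnd hst (fun _ => (0, 0)) (Gd := Gd) (E := Gd)
    (Eventually.of_forall hGd) (Eventually.of_forall fun n => Subset.refl _)
    (Sd := fun _ => 2) (Base.Sub.const two_pos) hdens
  have hww : WWnd (iw B B' I J (coU u kp f) 67 Y w Ma Tz lam S x Gd s₀) kp u f :=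
    { ok := hok
      hκ := hk1
      hl := hgr
      hM := rfl
      hco := fun n i _ j _ s => rfl
      kz := rfl
      h0 := hd.zS
      hS := hd.hS }
  filter_upwards [hres Gd s₀ hGd hww ε hε0] with n hn
  obtain ⟨G, hG1, hG2, hG3⟩ := hn
  exact ⟨s₀ n, G, hG1, hG2, hG3⟩

/-- **from one class to all classes**, hypothesis over any `EOk` set: a `ρ^ε` part of it has the
relation -/
theorem int_gen' (hZ : ZWin B B' I J (coU u kp f) monW 67 Y w (coneM Ma) Tz lam)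
    (hA : ActM Ma Dr) (hgr : ∀ n, GrU (u n)) (hk1 : ∀ n, |kp n| ≤ 1)
    (hd : WDat (fun _ => 0) (fun _ => 1) 1 S) (hx : 0 ≤ x)
    (Rel : ℕ → ℝ → Finset (ℕ × ℝ) → Prop)
    (hG : ∀ n ε G G', G' ⊆ G → Rel n ε G → Rel n ε G')
    (hε : ∀ n ε ε' G, ε ≤ ε' → Rel n ε G → Rel n ε' G)
    (hres : ∀ (Gd : ℕ → Finset (ℕ × ℝ)) (s₀ : ℕ → ℕ × ℝ) (E : ℕ → Finset (ℕ × ℝ)) (Mu : ℕ → ℝ),
      (∀ n, Gd n ⊆ J n) →
      WWnd (iw B B' I J (coU u kp f) 67 Y w Ma Tz lam S x Gd s₀) kp u f →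
      Wnd.EOk (iw B B' I J (coU u kp f) 67 Y w Ma Tz lam S x Gd s₀) E Mu →
      ∀ ε : ℝ, 0 < ε → ∀ᶠ n in (U : Filter ℕ), ∃ G ⊆ E n,
        B'.d n ^ ε * ((E n).card : ℝ) ≤ (G.card : ℝ) ∧ Rel n ε G) :
    ∃ J1 : ℕ → Finset (ℕ × ℝ), (∀ n, J1 n ⊆ J n) ∧ Dense B' J1 J ∧
      ∀ ε : ℝ, 0 < ε → ∀ᶠ n in (U : Filter ℕ), ∀ s ∈ J1 n,
        Rel n ε (cls (J1 n) (zlab B I (coU u kp f) monW 67 Y w n 0) s) := by
  refine int_gen hZ hA hgr hk1 hd hx Rel hG hε fun Gd s₀ hGd hw ε hε0 => ?_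
  filter_upwards [hres Gd s₀ _ _ hGd hw hw.ok.eok_class (ε / 2) (by positivity),
    hw.ok.cls.big (ε / 2) (by positivity)] with n hn hb
  obtain ⟨G, hG1, hG2, hG3⟩ := hn
  refine ⟨G, hG1, ?_, hε n _ _ _ (by linarith) hG3⟩
  have hd0 : 0 < B'.d n ^ (ε / 2) := Real.rpow_pos_of_pos (B'.pos n) _
  have e : B'.d n ^ ε = B'.d n ^ (ε / 2) * B'.d n ^ (ε / 2) := by
    rw [← Real.rpow_add (B'.pos n)]; congr 1; ring
  have h1 : Tz n * B'.d n ^ (ε / 2) ≤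
      ((cls (Gd n) (zlab B I (coU u kp f) monW 67 Y w n 0) (s₀ n)).card : ℝ) := hb
  calc Tz n * B'.d n ^ ε = B'.d n ^ (ε / 2) * (Tz n * B'.d n ^ (ε / 2)) := by rw [e]; ring
    _ ≤ B'.d n ^ (ε / 2) *
        ((cls (Gd n) (zlab B I (coU u kp f) monW 67 Y w n 0) (s₀ n)).card : ℝ) :=
      mul_le_mul_of_nonneg_left h1 hd0.le
    _ ≤ (G.card : ℝ) := hG2

end Crest.Agent.R136.Int599
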