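import Crest.Agent.R136.Qg3b_926

/-!
# R136 (helper599): level slots which are constant along the fat lines

* `const_part` : finite lemma, the most popular code of every line.
* `EOk.exists_const` : in a window, if `lam top ≤ lam c + lam (lev)` (narrowing the box of a fat line
  from `cut S top 0` to `c` costs nothing), a dense part of `E` has one `c`-label on every fat line.
-/

set_option autoImplicit false
set_option linter.unusedSectionVars false
set_option linter.unusedVariables false

open Filter Topology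

namespace Crest.Agent.R136.Inv599

open Finset Crest.Agent.R138.Ex926 Crest.Agent.R136.Net191 Crest.Agent.R136.Gf356
open Crest.Agent.R136.Qg926

/-! ### finite lemma -/

/-- pairs in one fibre -/
theorem sq_pairs {α β : Type*} [DecidableEq α] [DecidableEq β] (T : Finset α) (f : α → β) :
    (T.card : ℝ) ^ 2 ≤ ((T.image f).card : ℝ) *
      (((T ×ˢ T).filter fun q => f q.1 = f q.2).card : ℝ) := by
  have h1 : (T.card : ℝ) = ∑ c ∈ T.image f, ((T.filter fun i => f i = c).card : ℝ) := by
    have : T.card = ∑ c ∈ T.image f, (T.filter fun i => f i = c).card :=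
      Finset.card_eq_sum_card_fiberwise fun i hi => Finset.mem_image_of_mem _ hi
    exact_mod_cast this
  have h2 := sq_sum_le_card_mul_sum_sq (s := T.image f)
    (f := fun c => ((T.filter fun i => f i = c).card : ℝ))
  rw [← h1] at h2
  refine h2.trans (mul_le_mul_of_nonneg_left ?_ (Nat.cast_nonneg _))
  have h3 : ((T ×ˢ T).filter fun q => f q.1 = f q.2).card =
      ∑ c ∈ T.image f, (((T ×ˢ T).filter fun q => f q.1 = f q.2).filter
        fun q => f q.1 = c).card :=
    Finset.card_eq_sum_card_fiberwise fun q hq =>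
      Finset.mem_image_of_mem _ (mem_product.1 (mem_filter.1 hq).1).1
  rw [h3]
  push_cast
  refine sum_le_sum fun c hc => ?_
  have h4 : (T.filter fun i => f i = c) ×ˢ (T.filter fun i => f i = c) ⊆
      ((T ×ˢ T).filter fun q => f q.1 = f q.2).filter fun q => f q.1 = c := by
    intro q hq
    obtain ⟨a, b⟩ := mem_product.1 hq
    obtain ⟨a1, a2⟩ := mem_filter.1 a
    obtain ⟨b1, b2⟩ := mem_filter.1 b
    exact mem_filter.2 ⟨mem_filter.2 ⟨mem_product.2 ⟨a1, b1⟩, a2.trans b2.symm⟩, a2⟩
  have h5 := card_le_card h4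
  rw [card_product] at h5
  have h6 : (((T.filter fun i => f i = c).card * (T.filter fun i => f i = c).card : ℕ) : ℝ) ≤
      ((((T ×ˢ T).filter fun q => f q.1 = f q.2).filter fun q => f q.1 = c).card : ℝ) := by
    exact_mod_cast h5
  rw [Nat.cast_mul] at h6
  rw [sq]
  exact h6

/-- **the most popular code on every line** -/
theorem const_part {α : Type*} [DecidableEq α] (E : Finset α) (l f : α → ℕ) {M : ℝ}
    (hM : ∀ i ∈ E, ((cls E l i).card : ℝ) ≤ M) :
    ∃ E₁ ⊆ E, (∀ i ∈ E₁, ∀ j ∈ E₁, l i = l j → f i = f j) ∧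
      (E.card : ℝ) ^ 2 ≤ ((E.image fun i => (l i, f i)).card : ℝ) * (M * E₁.card) := by
  classical
  rcases E.eq_empty_or_nonempty with rfl | hne
  · exact ⟨∅, Subset.refl _, by simp, by simp⟩
  obtain ⟨i₀, hi₀⟩ := hne
  have hb : ∀ a : ℕ, ∃ b : ℕ, ∀ b', (E.filter fun i => l i = a ∧ f i = b').card ≤
      (E.filter fun i => l i = a ∧ f i = b).card := by
    intro a
    obtain ⟨x, hx, hmax⟩ := exists_max_image E
      (fun x => (E.filter fun i => l i = a ∧ f i = f x).card) ⟨i₀, hi₀⟩
    refine ⟨f x, fun b' => ?_⟩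
    rcases (E.filter fun i => l i = a ∧ f i = b').eq_empty_or_nonempty with h0 | ⟨y, hy⟩
    · rw [h0]; exact Nat.zero_le _
    · obtain ⟨hyE, -, hyb⟩ := mem_filter.1 hy
      have := hmax y hyE
      rw [hyb] at this
      exact this
  choose b hb using hb
  refine ⟨E.filter fun i => f i = b (l i), filter_subset _ _, ?_, ?_⟩
  · intro i hi j hj hl
    rw [(mem_filter.1 hi).2, (mem_filter.1 hj).2, hl]
  · set E₁ := E.filter fun i => f i = b (l i) with hE₁
    refine (sq_pairs E fun i => (l i, f i)).trans (mul_le_mul_of_nonneg_left ?_ (Nat.cast_nonneg _))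
    -- the pairs, first for fixed first entry
    have h1 : ((E ×ˢ E).filter fun q => (l q.1, f q.1) = (l q.2, f q.2)).card ≤
        ((E ×ˢ E₁).filter fun q => l q.1 = l q.2).card := by
      have e1 : ((E ×ˢ E).filter fun q => (l q.1, f q.1) = (l q.2, f q.2)).card =
          ∑ i ∈ E, (E.filter fun j => l j = l i ∧ f j = f i).card := by
        rw [card_eq_sum_card_fiberwise (f := Prod.fst) (t := E) fun q hq =>
          (mem_product.1 (mem_filter.1 hq).1).1]
        refine sum_congr rfl fun i hi => ?_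
        refine card_bij (fun q _ => q.2) ?_ ?_ ?_
        · intro q hq
          obtain ⟨q1, q2⟩ := mem_filter.1 hq
          obtain ⟨q3, q4⟩ := mem_filter.1 q1
          have q5 := Prod.mk.inj q4
          refine mem_filter.2 ⟨(mem_product.1 q3).2, ?_, ?_⟩
          · rw [← q5.1, q2]
          · rw [← q5.2, q2]
        · intro q hq q' hq' he
          have h2 := (mem_filter.1 hq).2
          have h3 := (mem_filter.1 hq').2
          exact Prod.ext (h2.trans h3.symm) he
        · intro j hj
          obtain ⟨j1, j2, j3⟩ := mem_filter.1 hj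
          exact ⟨(i, j), mem_filter.2 ⟨mem_filter.2 ⟨mem_product.2 ⟨hi, j1⟩, by
            simp only [j2, j3]⟩, rfl⟩, rfl⟩
      have e2 : ((E ×ˢ E₁).filter fun q => l q.1 = l q.2).card =
          ∑ i ∈ E, (E.filter fun j => l j = l i ∧ f j = b (l i)).card := by
        rw [card_eq_sum_card_fiberwise (f := Prod.fst) (t := E) fun q hq =>
          (mem_product.1 (mem_filter.1 hq).1).1]
        refine sum_congr rfl fun i hi => ?_
        refine card_bij (fun q _ => q.2) ?_ ?_ ?_
        · intro q hq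
          obtain ⟨q1, q2⟩ := mem_filter.1 hq
          obtain ⟨q3, q4⟩ := mem_filter.1 q1
          obtain ⟨q5, q6⟩ := mem_filter.1 (mem_product.1 q3).2
          refine mem_filter.2 ⟨q5, ?_, ?_⟩
          · rw [← q4, q2]
          · rw [q6, ← q4, q2]
        · intro q hq q' hq' he
          have h2 := (mem_filter.1 hq).2
          have h3 := (mem_filter.1 hq').2
          exact Prod.ext (h2.trans h3.symm) he
        · intro j hj
          obtain ⟨j1, j2, j3⟩ := mem_filter.1 hj
          exact ⟨(i, j), mem_filter.2 ⟨mem_filter.2 ⟨mem_product.2 ⟨hi, mem_filter.2 ⟨j1, by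
            rw [j3, j2]⟩⟩, j2.symm⟩, rfl⟩, rfl⟩
      rw [e1, e2]
      exact sum_le_sum fun i hi => hb (l i) (f i)
    have h2 : (((E ×ˢ E₁).filter fun q => l q.1 = l q.2).card : ℝ) ≤ M * E₁.card := by
      have e1 : ((E ×ˢ E₁).filter fun q => l q.1 = l q.2).card =
          ∑ j ∈ E₁, (cls E l j).card := by
        rw [card_eq_sum_card_fiberwise (f := Prod.snd) (t := E₁) fun q hq =>
          (mem_product.1 (mem_filter.1 hq).1).2]
        refine sum_congr rfl fun j hj => ?_
        refine card_bij (fun q _ => q.1) ?_ ?_ ?_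
        · intro q hq
          obtain ⟨q1, q2⟩ := mem_filter.1 hq
          obtain ⟨q3, q4⟩ := mem_filter.1 q1
          exact mem_cls.2 ⟨(mem_product.1 q3).1, by rw [q4, q2]⟩
        · intro q hq q' hq' he
          have h2 := (mem_filter.1 hq).2
          have h3 := (mem_filter.1 hq').2
          exact Prod.ext he (h2.trans h3.symm)
        · intro i hi
          obtain ⟨i1, i2⟩ := mem_cls.1 hi
          exact ⟨(i, j), mem_filter.2 ⟨mem_filter.2 ⟨mem_product.2 ⟨i1, hj⟩, i2⟩, rfl⟩, rfl⟩
      rw [e1]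
      push_cast
      calc ∑ j ∈ E₁, ((cls E l j).card : ℝ) ≤ ∑ j ∈ E₁, M :=
            sum_le_sum fun j hj => hM j (filter_subset _ _ hj)
        _ = M * E₁.card := by rw [sum_const, nsmul_eq_mul]; ring
    have h3 : (((E ×ˢ E).filter fun q => (l q.1, f q.1) = (l q.2, f q.2)).card : ℝ) ≤
        (((E ×ˢ E₁).filter fun q => l q.1 = l q.2).card : ℝ) := by exact_mod_cast h1
    exact h3.trans h2

/-! ### in the window -/

section window

open Crest.Agent.R136.Qg926.Wnd

variable {m : ℕ} {ι : ℕ → Type*} [∀ n, DecidableEq (ι n)] {W : Wnd m ι}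
  {E : ∀ n, Finset (ι n)} {Mu : ℕ → ℝ}

/-- **one `c`-label on every fat line**: a dense part, if narrowing the box of a fat line from
`cut S top 0` to `c` costs nothing -/
theorem exists_const (h : W.Ok) (hE : EOk W E Mu) {c : Fin m → ℝ} (hc : c ∈ Leg W.Mw W.R')
    (hcl : cut W.S W.top 0 ≤ c)
    (H : W.lam W.top ≤ W.lam c + W.lam (cut W.S 0 W.top)) :
    ∃ E₁ : ∀ n, Finset (ι n), (∀ n, E₁ n ⊆ E n) ∧ EOk W E₁ Mu ∧
      (∀ ε : ℝ, 0 < ε → ∀ᶠ n in (U : Filter ℕ),
        W.B'.d n ^ ε * ((E n).card : ℝ) ≤ ((E₁ n).card : ℝ)) ∧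
      ∀ n, ∀ i ∈ E₁ n, ∀ j ∈ E₁ n, W.lc n i = W.lc n j →
        enc (W.I n) (W.lab n c i) = enc (W.I n) (W.lab n c j) := by
  classical
  have hN := h.N_pos h.K0_one
  -- the bound of the lines
  have hmain : ∀ n, ∃ E₁ ⊆ E n, (∀ i ∈ E₁, ∀ j ∈ E₁, W.lc n i = W.lc n j →
      enc (W.I n) (W.lab n c i) = enc (W.I n) (W.lab n c j)) ∧
      ∀ M : ℝ, (∀ i ∈ E n, ((cls (E n) (W.lc n) i).card : ℝ) ≤ M) → ((E n).card : ℝ) ^ 2 ≤
        (((E n).image fun i => (W.lc n i, enc (W.I n) (W.lab n c i))).card : ℝ) *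
          (M * E₁.card) := by
    intro n
    rcases (E n).eq_empty_or_nonempty with h0 | hne
    · refine ⟨∅, Finset.empty_subset _, by simp, fun M _ => ?_⟩
      rw [h0]; simp
    · obtain ⟨x, hx, hmax⟩ := exists_max_image (E n)
        (fun i => (cls (E n) (W.lc n) i).card) hne
      obtain ⟨E₁, h1, h2, h3⟩ := const_part (E n) (W.lc n)
        (fun i => enc (W.I n) (W.lab n c i)) (M := ((cls (E n) (W.lc n) x).card : ℝ))
        (fun i hi => by exact_mod_cast hmax i hi)
      refine ⟨E₁, h1, h2, fun M hM => h3.trans ?_⟩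
      exact mul_le_mul_of_nonneg_left (mul_le_mul_of_nonneg_right (hM x hx) (Nat.cast_nonneg _))
        (Nat.cast_nonneg _)
  choose E₁ hsub hconst hcard using hmain
  have hd : ∀ ε : ℝ, 0 < ε → ∀ᶠ n in (U : Filter ℕ),
      W.B'.d n ^ ε * ((E n).card : ℝ) ≤ ((E₁ n).card : ℝ) := by
    intro ε hε
    have hε8 : 0 < ε / 8 := by positivity
    filter_upwards [h.ev_good, hE.sub, h.card_lab_le hε8, h.card_zc_le hε8, hE.mult _ hε8,
      hE.big _ hε8, ev_const_le W.B' hN hε8] with n hg hEC h1 h2 h3 h4 h5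
    have hpos : ∀ t : ℝ, 0 < W.B'.d n ^ t := fun t => Real.rpow_pos_of_pos (W.B'.pos n) t
    have radd : ∀ u v : ℝ, W.B'.d n ^ (u + v) = W.B'.d n ^ u * W.B'.d n ^ v := fun u v =>
      Real.rpow_add (W.B'.pos n) u v
    have hMu := hE.pos n
    -- number of pairs (line, label)
    have c1 : (((E n).image fun i => (W.lc n i, enc (W.I n) (W.lab n c i))).card : ℝ) ≤
        W.N W.K0 * W.B'.d n ^ (W.lam c - ε / 8) := by
      have e1 : (((E n).image fun i => (W.lc n i, enc (W.I n) (W.lab n c i))).card : ℝ) ≤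
          W.N W.K0 * ((E n).image (W.lab n c)).card := by
        refine card_image_le_mul (E n) _ _ fun x hx => ?_
        set O := cls (E n) (W.lab n c) x with hO
        have hOI : O ⊆ W.I n := (cls_subset _ _ _).trans (hEC.trans hg.clI)
        have e2 : ((O.image (W.lab n (cut W.S W.top 0))).card : ℝ) ≤ W.N W.K0 :=
          h.card_lab_box hg h.lin_leg hcl h.K0_one hOI (hg.clI (hEC hx)) fun j hj =>
            h.near_lab hg hc (hg.clI (hEC hx)) (hOI hj) (mem_cls.1 hj).2.symm
        refine le_trans ?_ e2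
        have e3 : (O.image fun i => (W.lc n i, enc (W.I n) (W.lab n c i))) =
            (O.image (W.lc n)).image fun k => (k, enc (W.I n) (W.lab n c x)) := by
          rw [image_image]
          refine image_congr fun j hj => ?_
          have : W.lab n c j = W.lab n c x := (mem_cls.1 (Finset.mem_coe.1 hj)).2
          simp only [Function.comp, this]
        rw [e3]
        have e4 := card_enc_image (W.I n) (W.lab n (cut W.S W.top 0)) O
        exact_mod_cast card_image_le.trans e4
      exact e1.trans (mul_le_mul_of_nonneg_left (h1 c hc (E n) hEC) hN.le)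
    -- mass of a line
    have c2 : ∀ i ∈ E n, ((cls (E n) (W.lc n) i).card : ℝ) ≤
        Mu n * W.B'.d n ^ (-(ε / 8)) * W.B'.d n ^ (W.lam (cut W.S 0 W.top) - ε / 8) := by
      intro x hx
      set A := cls (E n) (W.lc n) x with hA
      have hAE : A ⊆ E n := cls_subset _ _ _
      have d1 : (A.card : ℝ) ≤ Mu n * W.B'.d n ^ (-(ε / 8)) * (A.image (W.zc n)).card := by
        refine card_le_mult (W := W) (fun i hi => ?_) _ (fun i hi j hj he => ?_)
        · refine le_trans ?_ (h3 i (hAE hi))
          exact_mod_cast card_le_card (cls_mono hAE _ _)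
        · have e1 := (mem_cls.1 hi).2.trans (mem_cls.1 hj).2.symm
          unfold pc
          rw [e1, he]
      refine d1.trans (mul_le_mul_of_nonneg_left (h2 A (hAE.trans hEC)) ?_)
      exact (mul_pos hMu (hpos _)).le
    have c3 := hcard n _ c2
    have hE0 : 0 < ((E n).card : ℝ) := lt_of_lt_of_le (mul_pos hMu (hpos _)) h4
    have hE1 : (0 : ℝ) ≤ (E₁ n).card := Nat.cast_nonneg _
    have c4 : ((E n).card : ℝ) ^ 2 ≤ (W.B'.d n ^ (-(ε / 8)) * W.B'.d n ^ (W.lam c - ε / 8)) *
        (Mu n * W.B'.d n ^ (-(ε / 8)) * W.B'.d n ^ (W.lam (cut W.S 0 W.top) - ε / 8) *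
          (E₁ n).card) := by
      refine c3.trans (mul_le_mul_of_nonneg_right (c1.trans ?_) ?_)
      · exact mul_le_mul_of_nonneg_right h5 (hpos _).le
      · have := hpos (-(ε / 8))
        have := hpos (W.lam (cut W.S 0 W.top) - ε / 8)
        positivity
    have c5 : W.B'.d n ^ ε * ((E n).card : ℝ) * (Mu n * W.B'.d n ^ (W.lam W.top + ε / 8)) ≤
        W.B'.d n ^ ε * ((E n).card : ℝ) ^ 2 := by
      have e1 : W.B'.d n ^ ε * ((E n).card : ℝ) ^ 2 =
          W.B'.d n ^ ε * ((E n).card : ℝ) * ((E n).card : ℝ) := by rw [sq]; ring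
      rw [e1]
      exact mul_le_mul_of_nonneg_left h4 (mul_pos (hpos _) hE0).le
    have c6 : W.B'.d n ^ ε * ((E n).card : ℝ) ^ 2 ≤
        (Mu n * W.B'.d n ^ (W.lam W.top + ε / 8)) * (E₁ n).card := by
      refine (mul_le_mul_of_nonneg_left c4 (hpos ε).le).trans ?_
      have e1 : W.B'.d n ^ ε * ((W.B'.d n ^ (-(ε / 8)) * W.B'.d n ^ (W.lam c - ε / 8)) *
          (Mu n * W.B'.d n ^ (-(ε / 8)) * W.B'.d n ^ (W.lam (cut W.S 0 W.top) - ε / 8) *
          (E₁ n).card)) = (Mu n * W.B'.d n ^ (ε + -(ε / 8) + (W.lam c - ε / 8) + -(ε / 8) +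
            (W.lam (cut W.S 0 W.top) - ε / 8))) * (E₁ n).card := by
        rw [radd, radd, radd, radd]; ring
      rw [e1]
      refine mul_le_mul_of_nonneg_right (mul_le_mul_of_nonneg_left ?_ hMu.le) hE1
      exact Real.rpow_le_rpow_of_exponent_ge (W.B'.pos n) (W.B'.lt n).le (by linarith)
    have c7 := c5.trans c6
    have hq : 0 < Mu n * W.B'.d n ^ (W.lam W.top + ε / 8) := mul_pos hMu (hpos _)
    have c8 : (Mu n * W.B'.d n ^ (W.lam W.top + ε / 8)) * (W.B'.d n ^ ε * ((E n).card : ℝ)) ≤
        (Mu n * W.B'.d n ^ (W.lam W.top + ε / 8)) * (E₁ n).card := by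
      rw [mul_comm]; exact c7
    exact le_of_mul_le_mul_left c8 hq
  exact ⟨E₁, hsub, hE.refine (Eventually.of_forall hsub) hd, hd, fun n => hconst n⟩

end window

end Crest.Agent.R136.Inv599
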