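import Mathlib

/-!
helper508, R136 / U4, branch (A): real analysis of the choice of `q1`.
* `usc_iInf` : an infimum of functions each continuous at `m` is upper semicontinuous at `m`.
* `ivt_usc`  : intermediate value theorem on `[q0, m)` with a one sided upper bound at `m`.
* `ind34`    : strong induction on a real class constant with ratio `3/4` (or any ratio `< 1`).
-/

set_option autoImplicit false

namespace Crest.Agent.R136.Ivt508

open Set Filter Topology

/-- Infimum of functions which are continuous at `m` (from the left is enough): usc at `m`. -/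
theorem usc_iInf {ι : Type*} {s : Set ι} {Φ : ι → ℝ → ℝ} {β : ℝ → ℝ} {m : ℝ}
    (hle : ∀ i ∈ s, ∀ q, β q ≤ Φ i q)
    (hinf : ∀ ε > 0, ∃ i ∈ s, Φ i m < β m + ε)
    (hc : ∀ i ∈ s, ContinuousWithinAt (Φ i) (Iic m) m) :
    ∀ ε > 0, ∃ δ > 0, ∀ q, m - δ < q → q ≤ m → β q < β m + ε := by
  intro ε hε
  obtain ⟨i, hi, hlt⟩ := hinf ε hε
  have h1 : ∀ᶠ q in 𝓝[Iic m] m, Φ i q < β m + ε := (hc i hi).eventually (gt_mem_nhds hlt)
  rw [eventually_nhdsWithin_iff, Metric.eventually_nhds_iff] at h1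
  obtain ⟨δ, hδ, h⟩ := h1
  refine ⟨δ, hδ, fun q h2 h3 => lt_of_le_of_lt (hle i hi q) (h ?_ h3)⟩
  rw [Real.dist_eq, abs_lt]
  constructor <;> linarith

/-- Intermediate value at a line `c q`: `f q0 > c q0`, `f` continuous on `[q0, m)`,
`limsup_(q -> m-) f <= f m <= 0 < c q0` gives `q` in `(q0, m)` with `f q = c q`. -/
theorem ivt_usc {f : ℝ → ℝ} {q0 m c : ℝ} (h0 : 0 < q0) (hm : q0 < m) (hc0 : 0 < c)
    (hf0 : c * q0 < f q0) (hc : ContinuousOn f (Ico q0 m))
    (hus : ∀ ε > 0, ∃ δ > 0, ∀ q, m - δ < q → q < m → f q < f m + ε) (hfm : f m ≤ 0) :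
    ∃ q ∈ Ioo q0 m, f q = c * q := by
  obtain ⟨δ, hδ, hδ'⟩ := hus (c * q0) (by positivity)
  set q' : ℝ := max ((q0 + m) / 2) (m - δ / 2) with hq'
  have hq1 : q0 < q' := lt_of_lt_of_le (by linarith) (le_max_left _ _)
  have hq2 : q' < m := max_lt (by linarith) (by linarith)
  have hq3 : m - δ < q' := lt_of_lt_of_le (by linarith) (le_max_right _ _)
  have hf' : f q' < c * q' := by
    have := hδ' q' hq3 hq2
    have h2 : c * q0 < c * q' := mul_lt_mul_of_pos_left hq1 hc0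
    linarith
  have hcont : ContinuousOn (fun q => f q - c * q) (Icc q0 q') :=
    (hc.mono (fun x hx => ⟨hx.1, lt_of_le_of_lt hx.2 hq2⟩)).sub
      (continuous_const.mul continuous_id).continuousOn
  have h3 : (0 : ℝ) ∈ Ioo ((fun q => f q - c * q) q') ((fun q => f q - c * q) q0) :=
    ⟨by simp only; linarith, by simp only; linarith⟩
  obtain ⟨q, hq, hq0⟩ := intermediate_value_Ioo' hq1.le hcont h3
  exact ⟨q, ⟨hq.1, hq.2.trans hq2⟩, by simpa [sub_eq_zero] using hq0⟩

/-- Local Lipschitz bound (with constants that may blow up at `m`) gives continuity on `[q0, m)`. -/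
theorem contOn_of_locLip {f : ℝ → ℝ} {q0 m : ℝ}
    (h : ∀ b, q0 ≤ b → b < m → ∃ L : ℝ, ∀ x y, q0 ≤ x → x ≤ y → y ≤ b → |f y - f x| ≤ L * (y - x)) :
    ContinuousOn f (Ico q0 m) := by
  intro a ha
  obtain ⟨b, hab, hbm⟩ := exists_between ha.2
  obtain ⟨L, hL⟩ := h b (ha.1.trans hab.le) hbm
  have hL0 : 0 ≤ L := by
    have := (abs_nonneg _).trans (hL a b ha.1 hab.le le_rfl)
    by_contra hneg
    rw [not_le] at hneg
    have h2 : L * (b - a) < 0 := mul_neg_of_neg_of_pos hneg (by linarith)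
    linarith
  have hlip : LipschitzOnWith ⟨L, hL0⟩ f (Icc q0 b) := by
    refine LipschitzOnWith.of_dist_le_mul fun x hx y hy => ?_
    rw [Real.dist_eq, Real.dist_eq]
    rcases le_total x y with hxy | hxy
    · have := hL x y hx.1 hxy hy.2
      rw [abs_sub_comm, abs_sub_comm x y, abs_of_nonneg (sub_nonneg.2 hxy)]
      exact this
    · have := hL y x hy.1 hxy hx.2
      rw [abs_of_nonneg (sub_nonneg.2 hxy)]
      exact this
  have hc : ContinuousWithinAt f (Icc q0 b) a := hlip.continuousOn a ⟨ha.1, hab.le⟩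
  refine hc.mono_of_mem_nhdsWithin ?_
  rw [mem_nhdsWithin]
  exact ⟨Iio b, isOpen_Iio, hab, fun x hx => ⟨hx.2.1, (le_of_lt hx.1)⟩⟩

/-- The choice of `q1` in branch (A), in one statement: `β` locally Lipschitz on `[q0, m)`,
an infimum of functions continuous at `m` from the left, `β q0 > c q0`, `β m ≤ 0`. -/
theorem choose_q1 {ι : Type*} {s : Set ι} {Φ : ι → ℝ → ℝ} {β : ℝ → ℝ} {q0 m c : ℝ}
    (h0 : 0 < q0) (hm : q0 < m) (hc0 : 0 < c) (hβ0 : c * q0 < β q0) (hβm : β m ≤ 0)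
    (hlip : ∀ b, q0 ≤ b → b < m → ∃ L : ℝ, ∀ x y, q0 ≤ x → x ≤ y → y ≤ b →
      |β y - β x| ≤ L * (y - x))
    (hle : ∀ i ∈ s, ∀ q, β q ≤ Φ i q)
    (hinf : ∀ ε > 0, ∃ i ∈ s, Φ i m < β m + ε)
    (hc : ∀ i ∈ s, ContinuousWithinAt (Φ i) (Iic m) m) :
    ∃ q ∈ Ioo q0 m, β q = c * q := by
  refine ivt_usc h0 hm hc0 hβ0 (contOn_of_locLip hlip) ?_ hβm
  intro ε hε
  obtain ⟨δ, hδ, h⟩ := usc_iInf hle hinf hc ε hε
  exact ⟨δ, hδ, fun q h1 h2 => h q h1 h2.le⟩

/-- Strong induction on a real constant with ratio `r < 1`. -/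
theorem ind_ratio {P : ℝ → Prop} {C0 r : ℝ} (hC0 : 0 < C0) (hr0 : 0 < r) (hr : r < 1)
    (hbase : ∀ C ≤ C0, P C) (hstep : ∀ C, C0 < C → (∀ C' ≤ r * C, P C') → P C) : ∀ C, P C := by
  have key : ∀ n : ℕ, ∀ C, r ^ n * C ≤ C0 → P C := by
    intro n
    induction n with
    | zero => intro C hC; exact hbase C (by simpa using hC)
    | succ n ih =>
      intro C hC
      rcases le_or_gt C C0 with h | h
      · exact hbase C h
      · refine hstep C h fun C' hC' => ih C' ?_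
        calc r ^ n * C' ≤ r ^ n * (r * C) := mul_le_mul_of_nonneg_left hC' (by positivity)
          _ = r ^ (n + 1) * C := by ring
          _ ≤ C0 := hC
  intro C
  rcases le_or_gt C C0 with h | h
  · exact hbase C h
  · have hCpos : 0 < C := hC0.trans h
    obtain ⟨n, hn⟩ := exists_pow_lt_of_lt_one (div_pos hC0 hCpos) hr
    refine key n C ?_
    have := (lt_div_iff₀ hCpos).1 hn
    exact this.le

/-- The case `r = 3/4` (deep windows start at level `m` and have class constant `≤ 3C/4`). -/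
theorem ind34 {P : ℝ → Prop} {C0 : ℝ} (hC0 : 0 < C0)
    (hbase : ∀ C ≤ C0, P C) (hstep : ∀ C, C0 < C → (∀ C' ≤ 3 / 4 * C, P C') → P C) : ∀ C, P C :=
  ind_ratio hC0 (by norm_num) (by norm_num) hbase hstep

end Crest.Agent.R136.Ivt508
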