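/-
R136 (S0187), U4 — `ivt_phase` (879's hand-out, msg 20842 (4)); pure real analysis.

Let `Φ x q` be the value of the class with margin `x` at the reward `q`, `f q` its infimum
over `x`.  On `[q0, m)` the function `f` is locally equal to one `Φ x0` (POP), it is above the
target curve `c` at `q0` (enemy) and some `Φ x` is below the target curve at `m` (not (B)).
Then the graph of `f` meets the target curve at an interior point `q`, near which `f = Φ x0`.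
-/
import Mathlib.Topology.Order.IntermediateValue
import Mathlib.Topology.ContinuousOn
import Mathlib.Analysis.SpecificLimits.Basic
import Mathlib.Order.ConditionallyCompleteLattice.Basic

open Set Filter Topology

namespace Crest.Agent.R136.Ivt706

/-- General local form. -/
theorem ivt_loc {ι : Type*} {Φ : ι → ℝ → ℝ} {f c : ℝ → ℝ} {q0 m : ℝ} (hq : q0 < m)
    (hcont : ∀ x, ContinuousOn (Φ x) (Icc q0 m))
    (hc : ContinuousOn c (Icc q0 m))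
    (hle : ∀ x, ∀ q ∈ Ico q0 m, f q ≤ Φ x q)
    (hm : ∃ x, Φ x m < c m)
    (hloc : ∀ q ∈ Ico q0 m, ∃ x0, ∀ᶠ q' in 𝓝[Icc q0 m] q, f q' = Φ x0 q')
    (h0 : c q0 < f q0) :
    ∃ q ∈ Ioo q0 m, f q = c q ∧ ∃ x0, ∀ᶠ q' in 𝓝 q, f q' = Φ x0 q' := by
  obtain ⟨x, hx⟩ := hm
  -- a point `m' < m` at which `Φ x < c`
  have hmm : m ∈ Icc q0 m := ⟨hq.le, le_rfl⟩
  have hev : ∀ᶠ q' in 𝓝[Icc q0 m] m, Φ x q' < c q' :=
    ((hcont x) m hmm).eventually_lt (hc m hmm) hx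
  have hev2 : ∀ᶠ q' in 𝓝[Ioo q0 m] m, Φ x q' < c q' :=
    hev.filter_mono (nhdsWithin_mono _ Ioo_subset_Icc_self)
  have : (𝓝[Ioo q0 m] m).NeBot := right_nhdsWithin_Ioo_neBot hq
  obtain ⟨m', hm'1, hm'2⟩ :=
    (hev2.and (self_mem_nhdsWithin : Ioo q0 m ∈ 𝓝[Ioo q0 m] m)).exists
  have hsub : Icc q0 m' ⊆ Icc q0 m := Icc_subset_Icc le_rfl hm'2.2.le
  -- continuity of `f` on `[q0, m']`
  have hfc : ContinuousOn f (Icc q0 m') := by
    intro q hq'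
    have hqI : q ∈ Ico q0 m := ⟨hq'.1, lt_of_le_of_lt hq'.2 hm'2.2⟩
    obtain ⟨x0, hx0⟩ := hloc q hqI
    have hqm : q ∈ Icc q0 m := ⟨hqI.1, hqI.2.le⟩
    have h1 : ContinuousWithinAt (Φ x0) (Icc q0 m) q := hcont x0 q hqm
    have h2 : ContinuousWithinAt f (Icc q0 m) q :=
      h1.congr_of_eventuallyEq hx0 (hx0.self_of_nhdsWithin hqm)
    exact h2.mono hsub
  have hcc : ContinuousOn c (Icc q0 m') := hc.mono hsub
  have hgc : ContinuousOn (fun q => f q - c q) (Icc q0 m') := hfc.sub hcc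
  have hlt0 : 0 < f q0 - c q0 := by linarith
  have hltm : f m' - c m' < 0 := by
    have := hle x m' ⟨hm'2.1.le, hm'2.2⟩
    linarith
  have hivt := intermediate_value_Ioo' hm'2.1.le hgc
  have h0mem : (0 : ℝ) ∈ Ioo (f m' - c m') (f q0 - c q0) := ⟨hltm, hlt0⟩
  obtain ⟨q, hqmem, hqz⟩ := hivt h0mem
  have hqI : q ∈ Ico q0 m := ⟨hqmem.1.le, hqmem.2.trans hm'2.2⟩
  obtain ⟨x0, hx0⟩ := hloc q hqI
  refine ⟨q, ⟨hqmem.1, hqI.2⟩, ?_, x0, ?_⟩
  · have : f q - c q = 0 := hqz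
    linarith
  · have hnh : Icc q0 m ∈ 𝓝 q := Icc_mem_nhds hqmem.1 hqI.2
    rwa [nhdsWithin_eq_nhds.2 hnh] at hx0

/-- 879's literal: `Φ : ℕ → ℝ → ℝ`, antitone in `x`, `f q = inf_x Φ x q`, uniform on compact
subintervals of `[q0, m)`; target `η q / 2`. -/
theorem ivt_phase {Φ : ℕ → ℝ → ℝ} {f : ℝ → ℝ} {q0 m η : ℝ} (hq : q0 < m)
    (hcont : ∀ x, ContinuousOn (Φ x) (Icc q0 m))
    (hf : ∀ q ∈ Icc q0 m, IsGLB (range fun x => Φ x q) (f q))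
    (hloc : ∀ m' ∈ Ico q0 m, ∃ x0, ∀ q ∈ Icc q0 m', f q = Φ x0 q)
    (h0 : η * q0 / 2 < f q0) (h1 : f m < η * m / 2) :
    ∃ q ∈ Ioo q0 m, f q = η * q / 2 ∧ ∃ x0, ∀ᶠ q' in 𝓝 q, f q' = Φ x0 q' := by
  refine ivt_loc (Φ := Φ) (f := f) (c := fun q => η * q / 2) hq hcont
    (by fun_prop) ?_ ?_ ?_ h0
  · intro x q hqI
    exact (hf q ⟨hqI.1, hqI.2.le⟩).1 ⟨x, rfl⟩
  · by_contra hcon
    push Not at hcon
    have : η * m / 2 ≤ f m := (hf m ⟨hq.le, le_rfl⟩).2 (by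
      rintro _ ⟨x, rfl⟩
      exact hcon x)
    linarith
  · intro q hqI
    obtain ⟨m', hm'1, hm'2⟩ := exists_between hqI.2
    obtain ⟨x0, hx0⟩ := hloc m' ⟨hqI.1.trans hm'1.le, hm'2⟩
    refine ⟨x0, ?_⟩
    have hev : ∀ᶠ q' in 𝓝[Icc q0 m] q, q' < m' :=
      (eventually_lt_nhds hm'1).filter_mono nhdsWithin_le_nhds
    filter_upwards [hev, self_mem_nhdsWithin] with q' h1' h2'
    exact hx0 q' ⟨h2'.1, h1'.le⟩

/-- The same with `f q = ⨅ x, Φ x q` and a uniform lower bound. -/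
theorem ivt_phase_iInf {Φ : ℕ → ℝ → ℝ} {q0 m η B : ℝ} (hq : q0 < m)
    (hcont : ∀ x, ContinuousOn (Φ x) (Icc q0 m))
    (hB : ∀ q ∈ Icc q0 m, ∀ x, B ≤ Φ x q)
    (hloc : ∀ m' ∈ Ico q0 m, ∃ x0, ∀ q ∈ Icc q0 m', (⨅ x, Φ x q) = Φ x0 q)
    (h0 : η * q0 / 2 < ⨅ x, Φ x q0) (h1 : (⨅ x, Φ x m) < η * m / 2) :
    ∃ q ∈ Ioo q0 m, (⨅ x, Φ x q) = η * q / 2 ∧
      ∃ x0, ∀ᶠ q' in 𝓝 q, (⨅ x, Φ x q') = Φ x0 q' :=
  ivt_phase (f := fun q => ⨅ x, Φ x q) hq hcont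
    (fun q hq' => isGLB_ciInf ⟨B, by rintro _ ⟨x, rfl⟩; exact hB q hq' x⟩) hloc h0 h1

/-- Uniformization: if `Φ` is antitone in `x`, `f = inf`, and `f` is locally equal to one
`Φ x0` at every point of `[q0, m)`, then on every `[q0, m']`, `m' < m`, it is equal to one
`Φ x0`. -/
theorem unif_of_loc {Φ : ℕ → ℝ → ℝ} {f : ℝ → ℝ} {q0 m : ℝ}
    (hanti : ∀ q ∈ Icc q0 m, Antitone fun x => Φ x q)
    (hle : ∀ x, ∀ q ∈ Icc q0 m, f q ≤ Φ x q)
    (hloc : ∀ q ∈ Ico q0 m, ∃ x0, ∀ᶠ q' in 𝓝[Icc q0 m] q, f q' = Φ x0 q') :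
    ∀ m' ∈ Ico q0 m, ∃ x0, ∀ x, x0 ≤ x → ∀ q ∈ Icc q0 m', f q = Φ x q := by
  intro m' hm'
  have hsub : Icc q0 m' ⊆ Icc q0 m := Icc_subset_Icc le_rfl hm'.2.le
  have key : ∃ x0 : ℕ, ∀ q ∈ Icc q0 m', f q = Φ x0 q := by
    refine isCompact_Icc.induction_on (s := Icc q0 m')
      (p := fun s => ∃ x0 : ℕ, ∀ q ∈ s ∩ Icc q0 m', f q = Φ x0 q) ?_ ?_ ?_ ?_ |>.imp ?_
    · exact ⟨0, by rintro q ⟨h, -⟩; exact h.elim⟩
    · rintro s t hst ⟨x0, h⟩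
      exact ⟨x0, fun q hq => h q ⟨hst hq.1, hq.2⟩⟩
    · rintro s t ⟨x1, h1⟩ ⟨x2, h2⟩
      refine ⟨max x1 x2, ?_⟩
      rintro q ⟨hq | hq, hq'⟩
      · refine le_antisymm (hle _ q (hsub hq')) ?_
        rw [h1 q ⟨hq, hq'⟩]
        exact hanti q (hsub hq') (le_max_left _ _)
      · refine le_antisymm (hle _ q (hsub hq')) ?_
        rw [h2 q ⟨hq, hq'⟩]
        exact hanti q (hsub hq') (le_max_right _ _)
    · intro q hq
      obtain ⟨x0, hx0⟩ := hloc q ⟨hq.1, hq.2.trans_lt hm'.2⟩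
      have hx1 : ∀ᶠ q' in 𝓝[Icc q0 m'] q, f q' = Φ x0 q' :=
        hx0.filter_mono (nhdsWithin_mono _ hsub)
      exact ⟨{q' | f q' = Φ x0 q'}, hx1, x0, fun q' hq' => hq'.1⟩
    · intro x0 h q hq
      exact h q ⟨hq, hq⟩
  obtain ⟨x0, hx0⟩ := key
  refine ⟨x0, fun x hx q hq => le_antisymm (hle _ q (hsub hq)) ?_⟩
  rw [hx0 q hq]
  exact hanti q (hsub hq) hx

/-- 253's `t`-version of "not (B)": if `inf_x Φ x m 0 < c` and every `t ↦ Φ x m t` is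
continuous at `0` from the right, then some `Φ x m t < c` for all small `t > 0`. -/
theorem small_t {ι : Type*} {φ : ι → ℝ → ℝ} {c a : ℝ}
    (hcont : ∀ x, ContinuousWithinAt (φ x) (Ioi 0) 0)
    (hf : IsGLB (range fun x => φ x 0) a) (ha : a < c) :
    ∃ x, ∃ t0 > 0, ∀ t ∈ Icc 0 t0, φ x t < c := by
  have : ∃ x, φ x 0 < c := by
    by_contra hcon
    push Not at hcon
    have : c ≤ a := hf.2 (by rintro _ ⟨x, rfl⟩; exact hcon x)
    linarith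
  obtain ⟨x, hx⟩ := this
  have hev : ∀ᶠ t in 𝓝[>] (0 : ℝ), φ x t < c := (hcont x).eventually_lt_const hx
  obtain ⟨u, hu, hu2⟩ := (mem_nhdsGT_iff_exists_Ioc_subset).1 hev
  refine ⟨x, u, hu, ?_⟩
  intro t ht
  rcases ht.1.eq_or_lt with h | h
  · rw [← h]; exact hx
  · exact hu2 ⟨h, ht.2⟩

/-- Closed-interval version (`f` locally equal to one `Φ x0` on all of `[q0, m]`, as POP gives
for `t > 0`). -/
theorem ivt_closed {ι : Type*} {Φ : ι → ℝ → ℝ} {f c : ℝ → ℝ} {q0 m : ℝ} (hq : q0 < m)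
    (hcont : ∀ x, ContinuousOn (Φ x) (Icc q0 m))
    (hc : ContinuousOn c (Icc q0 m))
    (hloc : ∀ q ∈ Icc q0 m, ∃ x0, ∀ᶠ q' in 𝓝[Icc q0 m] q, f q' = Φ x0 q')
    (h0 : c q0 < f q0) (h1 : f m < c m) :
    ∃ q ∈ Ioo q0 m, f q = c q ∧ ∃ x0, ∀ᶠ q' in 𝓝 q, f q' = Φ x0 q' := by
  have hfc : ContinuousOn f (Icc q0 m) := by
    intro q hqm
    obtain ⟨x0, hx0⟩ := hloc q hqm
    exact (hcont x0 q hqm).congr_of_eventuallyEq hx0 (hx0.self_of_nhdsWithin hqm)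
  have hivt := intermediate_value_Ioo' hq.le (hfc.sub hc)
  obtain ⟨q, hqmem, hqz⟩ := hivt
    (show (0 : ℝ) ∈ Ioo (f m - c m) (f q0 - c q0) from ⟨by linarith, by linarith⟩)
  obtain ⟨x0, hx0⟩ := hloc q (Ioo_subset_Icc_self hqmem)
  refine ⟨q, hqmem, ?_, x0, ?_⟩
  · have : f q - c q = 0 := hqz
    linarith
  · rwa [nhdsWithin_eq_nhds.2 (Icc_mem_nhds hqmem.1 hqmem.2)] at hx0

/-- Last meeting point: the same with `q` the LAST point of `[q0, m]` with `f q ≥ c q`, so that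
`f < c` on `(q, m]` (used when one needs information to the right of `q`); here `f` is
continuous on `[q0, m]`. -/
theorem ivt_last {f c : ℝ → ℝ} {q0 m : ℝ} (hq : q0 < m)
    (hfc : ContinuousOn f (Icc q0 m)) (hc : ContinuousOn c (Icc q0 m))
    (h0 : c q0 < f q0) (h1 : f m < c m) :
    ∃ q ∈ Ioo q0 m, f q = c q ∧ ∀ q' ∈ Ioc q m, f q' < c q' := by
  -- the set `{q ∈ [q0, m] | c q ≤ f q}` is compact
  have hclosed : IsCompact {q ∈ Icc q0 m | 0 ≤ f q - c q} := by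
    have h := (hfc.sub hc).preimage_isClosed_of_isClosed isClosed_Icc (isClosed_Ici (a := (0:ℝ)))
    exact isCompact_Icc.of_isClosed_subset h (fun q hq => hq.1)
  have hne : {q ∈ Icc q0 m | 0 ≤ f q - c q}.Nonempty :=
    ⟨q0, ⟨le_rfl, hq.le⟩, by linarith⟩
  obtain ⟨q, hqS, hqmax⟩ := hclosed.exists_isGreatest hne
  have hqm : q < m := by
    rcases hqS.1.2.eq_or_lt with h | h
    · exfalso
      have h2 := hqS.2
      rw [h] at h2
      linarith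
    · exact h
  have hright : ∀ q' ∈ Ioc q m, f q' < c q' := by
    intro q' hq'
    by_contra hcon
    push Not at hcon
    have : q' ≤ q := hqmax ⟨⟨hqS.1.1.trans hq'.1.le, hq'.2⟩, by linarith⟩
    exact absurd hq'.1 (not_lt.2 this)
  -- equality at `q`
  have heq : f q - c q = 0 := by
    refine le_antisymm ?_ hqS.2
    have hcw : ContinuousWithinAt (fun q => f q - c q) (Icc q0 m) q := (hfc.sub hc) q hqS.1
    have hcw2 : ContinuousWithinAt (fun q => f q - c q) (Ioo q m) q :=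
      hcw.mono (fun z hz => ⟨hqS.1.1.trans hz.1.le, hz.2.le⟩)
    have : (𝓝[Ioo q m] q).NeBot := left_nhdsWithin_Ioo_neBot hqm
    refine le_of_tendsto hcw2 ?_
    filter_upwards [self_mem_nhdsWithin] with z hz
    have := hright z ⟨hz.1, hz.2.le⟩
    linarith
  refine ⟨q, ⟨?_, hqm⟩, by linarith, hright⟩
  rcases hqS.1.1.eq_or_lt with h | h
  · exfalso; rw [← h] at heq; linarith
  · exact h

/-- 253's (2): the drop inequality in the penalty parameter is automatic in the interior phase.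
If `u t = inf_x φ x t`, the infimum at `t` is attained at `x0` and `φ x0` has Lipschitz constant
`R` to the right of `t`, then `u (t + δ) ≤ u t + δ R`. -/
theorem drop_of_attained {ι : Type*} {φ : ι → ℝ → ℝ} {u : ℝ → ℝ} {t δ0 R : ℝ} {x0 : ι}
    (hle : ∀ x, ∀ s, u s ≤ φ x s) (hat : u t = φ x0 t)
    (hR : ∀ δ ∈ Icc 0 δ0, φ x0 (t + δ) ≤ φ x0 t + δ * R) :
    ∀ δ ∈ Icc 0 δ0, u (t + δ) ≤ u t + δ * R := by
  intro δ hδ
  calc u (t + δ) ≤ φ x0 (t + δ) := hle x0 _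
    _ ≤ φ x0 t + δ * R := hR δ hδ
    _ = u t + δ * R := by rw [hat]

end Crest.Agent.R136.Ivt706
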