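import Mathlib

/-!
# R136, block U4, leaf (4) `ivt_phase` (helper886): the intermediate value step of branch (A)

Pure real analysis.  `Φ x q` = sup of the value over configurations of ONE container class with margin
`x` at the wide reward `q`; `f q` = its infimum over `x`.  `f = Φ x0` on compact subintervals of
`[q0, m)` (POP).  Target `τ` continuous (`τ q = η q / 2`).
-/

set_option autoImplicit false

open Set Filter Topology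

namespace Crest.Agent.R136.Ivt886

/-- **`ivt_phase`**, general target. -/
theorem ivt_phase_gen {X : Type*} {Φ : X → ℝ → ℝ} {f τ : ℝ → ℝ} {q0 m : ℝ} (hq : q0 < m)
    (hτ : ContinuousOn τ (Icc q0 m)) (hc : ∀ x, ContinuousOn (Φ x) (Icc q0 m))
    (hle : ∀ x, ∀ q ∈ Icc q0 m, f q ≤ Φ x q)
    (hloc : ∀ q1, q0 < q1 → q1 < m → ∃ x0, ∀ q ∈ Icc q0 q1, f q = Φ x0 q)
    (h0 : τ q0 < f q0) (hm : ∃ x, Φ x m < τ m) :
    ∃ q, q0 < q ∧ q < m ∧ f q = τ q ∧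
      ∃ (x0 : X) (r : ℝ), 0 < r ∧ q0 < q - r ∧ q + r < m ∧
        ∀ q', q0 ≤ q' → q' ≤ q + r → f q' = Φ x0 q' := by
  obtain ⟨x, hx⟩ := hm
  -- a point `q1 < m` with `Φ x q1 < τ q1`
  obtain ⟨q1, h1a, h1b, h1c⟩ : ∃ q1, q0 < q1 ∧ q1 < m ∧ Φ x q1 < τ q1 := by
    have hcm : ContinuousWithinAt (fun q => τ q - Φ x q) (Icc q0 m) m :=
      ((hτ.sub (hc x)) m ⟨hq.le, le_rfl⟩)
    have hev : ∀ᶠ q in 𝓝[Icc q0 m] m, 0 < τ q - Φ x q :=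
      hcm.eventually (lt_mem_nhds (by linarith))
    have hsub : 𝓝[Ioo q0 m] m ≤ 𝓝[Icc q0 m] m := nhdsWithin_mono _ Ioo_subset_Icc_self
    have hne : (𝓝[Ioo q0 m] m).NeBot := by
      rw [nhdsWithin_Ioo_eq_nhdsLT hq]
      infer_instance
    obtain ⟨q1, hq1, hq2⟩ := ((hev.filter_mono hsub).and self_mem_nhdsWithin).exists
    exact ⟨q1, hq2.1, hq2.2, by linarith⟩
  obtain ⟨q2, h2a, h2b⟩ := exists_between h1b
  obtain ⟨x0, hx0⟩ := hloc q2 (h1a.trans h2a) h2b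
  -- intermediate value on `[q0, q1]`
  have hcf : ContinuousOn (fun q => τ q - Φ x0 q) (Icc q0 q1) :=
    (hτ.sub (hc x0)).mono (Icc_subset_Icc_right h1b.le)
  have hmem : (0 : ℝ) ∈ Ioo (τ q0 - Φ x0 q0) (τ q1 - Φ x0 q1) := by
    constructor
    · have := hx0 q0 ⟨le_rfl, (h1a.trans h2a).le⟩
      linarith
    · have h3 := hx0 q1 ⟨h1a.le, h2a.le⟩
      have h4 := hle x q1 ⟨h1a.le, h1b.le⟩
      linarith
  obtain ⟨q, hqm, hq0⟩ := intermediate_value_Ioo h1a.le hcf hmem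
  simp only at hq0
  have hqq1 : q < q1 := hqm.2
  refine ⟨q, hqm.1, hqq1.trans h1b, ?_, x0, min (q2 - q) (q - q0) / 2, ?_, ?_, ?_, ?_⟩
  · have := hx0 q ⟨hqm.1.le, (hqq1.trans h2a).le⟩
    linarith
  · have : 0 < min (q2 - q) (q - q0) := lt_min (by linarith) (by linarith [hqm.1])
    linarith
  · have := min_le_right (q2 - q) (q - q0)
    have h5 := hqm.1
    linarith
  · have := min_le_left (q2 - q) (q - q0)
    linarith
  · intro q' h6 h7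
    refine hx0 q' ⟨h6, ?_⟩
    have := min_le_left (q2 - q) (q - q0)
    linarith

/-- **`ivt_phase`** (literal of 879's hand-out (4)). -/
theorem ivt_phase {Φ : ℕ → ℝ → ℝ} {f : ℝ → ℝ} {q0 m η : ℝ} (hq : q0 < m)
    (hc : ∀ x, ContinuousOn (Φ x) (Icc q0 m))
    (hle : ∀ x, ∀ q ∈ Icc q0 m, f q ≤ Φ x q)
    (hinf : ∀ q ∈ Icc q0 m, ∀ e : ℝ, 0 < e → ∃ x, Φ x q < f q + e)
    (hloc : ∀ q1, q0 < q1 → q1 < m → ∃ x0, ∀ q ∈ Icc q0 q1, f q = Φ x0 q)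
    (h0 : η * q0 / 2 < f q0) (hm : f m < η * m / 2) :
    ∃ q, q0 < q ∧ q < m ∧ f q = η * q / 2 ∧
      ∃ (x0 : ℕ) (r : ℝ), 0 < r ∧ q0 < q - r ∧ q + r < m ∧
        ∀ q', q0 ≤ q' → q' ≤ q + r → f q' = Φ x0 q' := by
  have hτ : ContinuousOn (fun q : ℝ => η * q / 2) (Icc q0 m) := by fun_prop
  refine ivt_phase_gen (τ := fun q => η * q / 2) hq hτ hc hle hloc h0 ?_
  obtain ⟨x, hx⟩ := hinf m ⟨hq.le, le_rfl⟩ (η * m / 2 - f m) (by linarith)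
  exact ⟨x, by linarith⟩

/-- the infimum form: `f = ⨅ x, Φ x` bounded below. -/
theorem ivt_phase_iInf {Φ : ℕ → ℝ → ℝ} {q0 m η : ℝ} (hq : q0 < m)
    (hc : ∀ x, ContinuousOn (Φ x) (Icc q0 m))
    (hbd : ∀ q ∈ Icc q0 m, BddBelow (range fun x => Φ x q))
    (hloc : ∀ q1, q0 < q1 → q1 < m → ∃ x0, ∀ x, x0 ≤ x → ∀ q ∈ Icc q0 q1, Φ x q = Φ x0 q)
    (hanti : ∀ q ∈ Icc q0 m, Antitone fun x => Φ x q)
    (h0 : η * q0 / 2 < ⨅ x, Φ x q0) (hm : (⨅ x, Φ x m) < η * m / 2) :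
    ∃ q, q0 < q ∧ q < m ∧ (⨅ x, Φ x q) = η * q / 2 ∧
      ∃ (x0 : ℕ) (r : ℝ), 0 < r ∧ q0 < q - r ∧ q + r < m ∧
        ∀ q', q0 ≤ q' → q' ≤ q + r → (⨅ x, Φ x q') = Φ x0 q' := by
  refine ivt_phase (f := fun q => ⨅ x, Φ x q) hq hc
    (fun x q hq' => ciInf_le (hbd q hq') x) (fun q hq' e he => ?_) (fun q1 h1 h2 => ?_) h0 hm
  · obtain ⟨x, hx⟩ := exists_lt_of_ciInf_lt (show (⨅ x, Φ x q) < (⨅ x, Φ x q) + e by linarith)
    exact ⟨x, hx⟩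
  · obtain ⟨x0, hx0⟩ := hloc q1 h1 h2
    refine ⟨x0, fun q hq' => ?_⟩
    have hqm : q ∈ Icc q0 m := ⟨hq'.1, hq'.2.trans h2.le⟩
    refine le_antisymm (ciInf_le (hbd q hqm) x0) (le_ciInf fun x => ?_)
    rcases le_total x0 x with h | h
    · exact (hx0 x h q hq').ge
    · exact hanti q hqm h

/-- closed version (`t > 0`, POP holds at `m` too): `f` continuous on `[q0, m]`. -/
theorem ivt_closed {f τ : ℝ → ℝ} {q0 m : ℝ} (hq : q0 < m) (hf : ContinuousOn f (Icc q0 m))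
    (hτ : ContinuousOn τ (Icc q0 m)) (h0 : τ q0 < f q0) (hm : f m < τ m) :
    ∃ q, q0 < q ∧ q < m ∧ f q = τ q := by
  obtain ⟨q, hqm, h⟩ := intermediate_value_Ioo hq.le (hτ.sub hf)
    (show (0 : ℝ) ∈ Ioo (τ q0 - f q0) (τ m - f m) from ⟨by linarith, by linarith⟩)
  exact ⟨q, hqm.1, hqm.2, by simp only [Pi.sub_apply] at h; linarith⟩

/-- 253's remark (1): `not-(B)` at `t = 0` passes to all small `t > 0` for ONE class `C0`: for a fixed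
`x` the value `Φ x t` at `q1 = m` tends to `Φ x 0` as `t → 0+`. -/
theorem small_t {X : Type*} {Φ : X → ℝ → ℝ} {u : ℝ → ℝ} {c e : ℝ}
    (hinf : ∃ x, Φ x 0 < c + e) (hcont : ∀ x, ContinuousWithinAt (Φ x) (Ici 0) 0)
    (hle : ∀ x, ∀ t, 0 ≤ t → u t ≤ Φ x t) :
    ∃ t0 : ℝ, 0 < t0 ∧ ∀ t, 0 ≤ t → t ≤ t0 → u t < c + e := by
  obtain ⟨x, hx⟩ := hinf
  have hev : ∀ᶠ t in 𝓝[Ici (0 : ℝ)] 0, Φ x t < c + e := (hcont x).eventually (gt_mem_nhds hx)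
  rw [Filter.Eventually, mem_nhdsWithin] at hev
  obtain ⟨O, hO, h0, hs⟩ := hev
  obtain ⟨r, hr, hb⟩ := Metric.isOpen_iff.1 hO 0 h0
  refine ⟨r / 2, by positivity, fun t ht0 ht1 => ?_⟩
  have h1 : t ∈ O := hb (by rw [Metric.mem_ball, Real.dist_eq, sub_zero, abs_of_nonneg ht0]; linarith)
  exact (hle x t ht0).trans_lt (hs ⟨h1, ht0⟩)

end Crest.Agent.R136.Ivt886
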