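import Crest.Agent.R136.TopD_484

/-!
# R136 (S0187): `J1c` is monotone in `η` (helper484)
-/

set_option autoImplicit false
set_option linter.unusedVariables false

namespace Crest.Agent.R136.Top484

/-- `J1c` is monotone in `η` -/
theorem J1c.mono {η η' : ℝ} {p : Par4} {D : Dat4} (h : J1c η p D) (hη : η ≤ η') : J1c η' p D := by
  have g0 := h.g0.1.le
  have q1 := h.g0.2.le
  have q2 := h.q2.1.le
  exact { mka := h.mka
          alld := h.alld
          sub7 := h.sub7
          dall := by
            obtain ⟨qm, qp, he, h1, h2⟩ := h.dall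
            exact ⟨qm, qp, he.mono hη, h1, h2⟩
          q0 := ⟨h.q0.1, h.q0.2.trans (mul_le_mul_of_nonneg_right hη q2)⟩
          q2 := ⟨h.q2.1, h.q2.2.trans (mul_le_mul_of_nonneg_right hη g0)⟩
          q21 := h.q21.trans (mul_le_mul_of_nonneg_right hη q1)
          g0 := h.g0
          θ1 := h.θ1
          θb := h.θb.trans (mul_le_mul_of_nonneg_right hη g0)
          θ1b := ⟨h.θ1b.1.trans (mul_le_mul_of_nonneg_right hη g0),
            h.θ1b.2.trans (mul_le_mul_of_nonneg_right hη g0)⟩
          wrs := h.wrs
          r0pos := h.r0pos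
          r0log := h.r0log
          vel := h.vel }

end Crest.Agent.R136.Top484
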