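import Mathlib
import Crest.Agent.R136.Slt3_627
import Crest.Agent.R136.ArgA1_163

/-!
# R136: J2 = linear marked sequence + tilt ⟹ tied / invisible slots (helper627)

Wiring of 163's Lemma 4 (`ArgA1_163`) and the second zoom (`Slt3_627`).
-/

set_option autoImplicit false
set_option linter.unusedVariables false
set_option linter.unusedSectionVars false

open Finset Filter Topology

namespace Crest.Agent.R136.Slt627

open Crest.Agent.R138.Ex926 (Base U exists_diag)
open Crest.Agent.R138.Dp76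
open Crest.Agent.R138.Mk163 (zc zl rho alive own Negl)
open Crest.Agent.R136.MkA627
open Crest.Agent.R136.ArgA163 (flA closeA flA_const PrLin)

variable {σ κ φ ι : Type*}

section

variable {P : PDist φ ι} {G : Geo σ κ} {g s : ℝ} {θ : κ → ℝ} {β C0 : ι → ℝ}
    {B : Base} {I : ℕ → Finset (ℕ × ℝ)} {lev : ℕ → ℚ → ℕ} {A : ℕ → ℝ}
    {f : ℕ → ℚ → ℕ → ℤ → ℕ} {b : ℕ → ℚ → ℕ → σ} {vm : ℕ → ℚ → ℝ} {w : κ → ℕ → ℚ → ℝ}
    {e : ℕ → ℚ → ℕ → φ} {pr : ι → ℕ → ℚ → ℝ} {fl : ι → ℕ → ℕ × ℝ → φ}

theorem NatOut.mono {J : ℕ → Finset (ℕ × ℝ)} (hJ : ∀ᶠ n in (U : Filter ℕ), J n ⊆ I n)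
    (h : NatOut P G g s θ β C0 fl B J lev f b vm w e pr) :
    NatOut P G g s θ β C0 fl B I lev f b vm w e pr :=
  NatOut.comp (H1 := fun _ => 1) (m1 := fun _ x => x) (fun _ => ⟨one_pos, le_rfl⟩)
    (fun n x h0 h1 => ⟨h0, h1⟩) (fun n x y => by ring) (fun n => by rw [Real.rpow_one]) hJ h

/-- **J2**: linear marked sequence with the tilt lemma in every slot: after a zoom every slot is tied
(rate `β j`) or invisible. -/
theorem j2 [Countable κ] [Finite ι] {C : ι → ℝ}
    (hM : MkA B I G lev A (fun v => g * v) (fun v => s * v) (fun j v => θ j * (1 - v)) f b vm w)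
    (hC : ∀ j, 0 ≤ C j) (hT : ∀ j, TiltTwoA P B I lev f e pr j (fun u v => C j * (v - u)))
    (hpr : ∀ j, PrLin B pr j (β j)) (hC0 : ∀ j, β j ≤ C0 j) :
    NatOut P G g s θ β C0 (flA lev f e β) B I lev f b vm w e pr := by
  classical
  set sc : ι → ℕ → ℝ := fun j n => if 0 < pr j n 0 then pr j n 0 else 1 with hsc
  have hscpos : ∀ j n, 0 < sc j n := by
    intro j n
    simp only [hsc]
    split_ifs with h
    · exact h
    · exact one_pos
  obtain ⟨J, hJI, hJd, hS⟩ := slotSys_of_negl (P := P) (β := β) (e := e) (pr := pr)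
    (fl := flA lev f e β) (sc := sc) hM hscpos (fun j => (hpr j).1)
    (fun j v h0 h1 => by
      refine ((hpr j).2 v h0 h1).congr' ?_
      filter_upwards [(hpr j).1 0 le_rfl zero_le_one] with n hn
      simp only [hsc, hn, if_true])
    (fun j v h0 h1 ε hε => closeA hC hT hpr j v h0 h1 ε hε)
  refine NatOut.mono (Eventually.of_forall hJI) (hS.exists_nat (fun j => ?_) hC0)
  by_cases hβ : 0 < β j
  · exact Or.inr hβ
  · left
    intro M
    filter_upwards [flA_const (f := f) (e := e) (not_lt.1 hβ) hS.mka.cell0] with n hn x hx y hy hxy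
    rw [hn x hx y hy hxy, P.self]
    exact (mul_pos (hscpos j n) (dpow_pos B n M)).le

end

end Crest.Agent.R136.Slt627
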