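import Crest.Agent.R136.Jet_818
import Crest.Agent.R136.Rk3_601
import Crest.Agent.R136.Deep4_51
import Crest.Agent.R136.Coi6_102

/-!
# R136, PLAN 2 (3), V7 : closing step (helper818)

* `XJ` : the `X`-part of the 2-jet of `Fq b0 b1 G` at the height `ζ` of the line.
* `jet_of` : small `tg`, `th` (helper601) at a height of the line give `Jet`.
* `close_line` : `Jet` at three heights gives `|V.q - ν S.q|` small near the line.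
-/

set_option autoImplicit false
set_option linter.unusedVariables false

namespace Crest.Agent.R136.Jet818

open Crest.Agent.R136.Sh605 Crest.Agent.R136.Tl102 Crest.Agent.R136.Rk601

/-- `X`-part of the 2-jet of `Fq b0 b1 G` at a point of the line, height `ζ` -/
structure XJ (b0 b1 : V3) (G : QF) (ζ : ℝ) (J : Jt) : Prop where
  a0 : J.a0 = b0 0 + ζ * b1 0
  a1 : J.a 1 = b0 1 + ζ * b1 1
  a2 : J.a 2 = b0 2 + ζ * b1 2
  h00 : J.h00 = 2 * G.yy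
  h01 : J.h0 1 = G.yu
  h02 : J.h0 2 = G.yv
  h11 : J.h 1 1 = 2 * G.uu
  h12 : J.h 1 2 = G.uv
  h22 : J.h 2 2 = 2 * G.vv

/-- linear part of the second function in the tangent coordinates of the first one -/
noncomputable def pS (κ : ℝ) (b0 b : V3) : V3 :=
  ![b 0, (b 1 - b0 1 / b0 0 * b 0) / κ, (b 2 - b0 2 / b0 0 * b 0) / κ]

theorem Fq_pS {b0 b0' b1' : V3} {G' : QF} {κ : ℝ} (hκ : κ ≠ 0) (ζ y u v : ℝ) :
    Fq b0' b1' G' ζ (unsh b0 (κ * y) u v) =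
      κ * Fq (pS κ b0 b0') (pS κ b0 b1') (scG κ b0 G') ζ ![y, u, v] := by
  simp only [Fq, dt, bz, QF.ev, unsh, pS, scG, shG, Matrix.cons_val]
  field_simp
  ring

theorem jet_of {b0 b1 b0' b1' : V3} {G G' : QF} {κ ζ ε : ℝ} {J J' : Jt} (hb : b0 0 ≠ 0)
    (hz : b0 0 + ζ * b1 0 ≠ 0) (hκ : 0 < κ) (hJ : XJ b0 b1 G ζ J) (hJ' : XJ b0' b1' G' ζ J')
    (g1 : |Rk601.tg J J' 1| ≤ κ * ε) (g2 : |Rk601.tg J J' 2| ≤ κ * ε) (h11 : |th J J' 1 1| ≤ κ * ε)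
    (h12 : |th J J' 1 2| ≤ κ * ε) (h22 : |th J J' 2 2| ≤ κ * ε) :
    Jet (shB0 b0) (scB1 κ b0 b1) (scG κ b0 G) (pS κ b0 b0') (pS κ b0 b1') (scG κ b0 G') ζ ε := by
  have hκ' : κ ≠ 0 := hκ.ne'
  have e0 : (shB0 b0) 0 + ζ * (scB1 κ b0 b1) 0 = b0 0 + ζ * b1 0 := by
    simp [shB0, scB1]
  have enu : nu (shB0 b0) (scB1 κ b0 b1) (pS κ b0 b0') (pS κ b0 b1') ζ =
      (b0' 0 + ζ * b1' 0) / (b0 0 + ζ * b1 0) := by
    unfold nu; rw [e0]; simp [pS]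
  have ett : tt (shB0 b0) (scB1 κ b0 b1) ζ = ζ / (b0 0 + ζ * b1 0) := by
    unfold tt; rw [e0]
  set N := b0 0 + ζ * b1 0 with hN
  have key : ∀ x y : ℝ, x = y / κ → |y| ≤ κ * ε → |x| ≤ ε := by
    intro x y hx hy
    rw [hx, abs_div, abs_of_pos hκ, div_le_iff₀ hκ]; linarith
  have key2 : ∀ x y : ℝ, x = y / (2 * κ) → |y| ≤ κ * ε → |x| ≤ ε := by
    intro x y hx hy
    have hε : 0 ≤ κ * ε := (abs_nonneg y).trans hy
    rw [hx, abs_div, abs_of_pos (by positivity : 0 < 2 * κ), div_le_iff₀ (by positivity)]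
    linarith
  refine ⟨?_, ?_, ?_, ?_, ?_⟩
  · refine key _ (Rk601.tg J J' 1) ?_ g1
    rw [enu]
    simp only [Rk601.tg, hJ.a0, hJ.a1, hJ'.a0, hJ'.a1, scB1, pS, shB1, Matrix.cons_val]
    rw [← hN]
    field_simp
    rw [hN]
    ring
  · refine key _ (Rk601.tg J J' 2) ?_ g2
    rw [enu]
    simp only [Rk601.tg, hJ.a0, hJ.a2, hJ'.a0, hJ'.a2, scB1, pS, shB1, Matrix.cons_val]
    rw [← hN]
    field_simp
    rw [hN]
    ring
  · refine key2 _ (th J J' 1 1) ?_ h11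
    rw [enu, ett]
    simp only [th, lf, sl, hJ.a0, hJ.a1, hJ'.a0, hJ.h00, hJ.h01, hJ.h11, hJ'.h00, hJ'.h01, hJ'.h11,
      tuu, msub, scB1, scG, shG, shB1, Matrix.cons_val]
    rw [← hN]
    field_simp
    rw [hN]
    ring
  · refine key _ (th J J' 1 2) ?_ h12
    rw [enu, ett]
    simp only [th, lf, sl, hJ.a0, hJ.a1, hJ.a2, hJ'.a0, hJ.h00, hJ.h01, hJ.h02, hJ.h12, hJ'.h00,
      hJ'.h01, hJ'.h02, hJ'.h12, tuv, msub, scB1, scG, shG, shB1, Matrix.cons_val]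
    rw [← hN]
    field_simp
    rw [hN]
    ring
  · refine key2 _ (th J J' 2 2) ?_ h22
    rw [enu, ett]
    simp only [th, lf, sl, hJ.a0, hJ.a2, hJ'.a0, hJ.h00, hJ.h02, hJ.h22, hJ'.h00, hJ'.h02, hJ'.h22,
      tvv, msub, scB1, scG, shG, shB1, Matrix.cons_val]
    rw [← hN]
    field_simp
    rw [hN]
    ring

/-- the coefficients of `q' - m q` -/
theorem omB_of_small {b0 b1 b0' b1' : V3} {G G' : QF} {κ A : ℝ} (hb : b0 0 ≠ 0)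
    (hS : Small (shB0 b0) (scB1 κ b0 b1) (scG κ b0 G) (pS κ b0 b0') (pS κ b0 b1') (scG κ b0 G')
      (b0' 0 / b0 0) A) (hA : 0 ≤ A) : OmB κ A A A b0 b1 G b0' b1' G' := by
  have e0 : om0 κ b0 b0' = ![0, (pS κ b0 b0') 1, (pS κ b0 b0') 2] := by
    ext k
    fin_cases k
    · exact om0_zero κ hb b0'
    · change (b0' 1 - b0' 0 / b0 0 * b0 1 - b0 1 / b0 0 * (b0' 0 - b0' 0 / b0 0 * b0 0)) / κ =
        (b0' 1 - b0 1 / b0 0 * b0' 0) / κ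
      congr 1
      field_simp
      ring
    · change (b0' 2 - b0' 0 / b0 0 * b0 2 - b0 2 / b0 0 * (b0' 0 - b0' 0 / b0 0 * b0 0)) / κ =
        (b0' 2 - b0 2 / b0 0 * b0' 0) / κ
      congr 1
      field_simp
      ring
  have e1 : ∀ k, om1 κ b0 b1 b0' b1' k =
      (pS κ b0 b1') k - b0' 0 / b0 0 * (scB1 κ b0 b1) k := by
    intro k
    fin_cases k
    · rfl
    · change (b1' 1 - b0' 0 / b0 0 * b1 1 - b0 1 / b0 0 * (b1' 0 - b0' 0 / b0 0 * b1 0)) / κ =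
        (b1' 1 - b0 1 / b0 0 * b1' 0) / κ - b0' 0 / b0 0 * ((b1 1 - b0 1 / b0 0 * b1 0) / κ)
      ring
    · change (b1' 2 - b0' 0 / b0 0 * b1 2 - b0 2 / b0 0 * (b1' 0 - b0' 0 / b0 0 * b1 0)) / κ =
        (b1' 2 - b0 2 / b0 0 * b1' 0) / κ - b0' 0 / b0 0 * ((b1 2 - b0 2 / b0 0 * b1 0) / κ)
      ring
  have eM : omM κ b0 G b0' G' = msub (scG κ b0 G') (scG κ b0 G) (b0' 0 / b0 0) := by
    unfold omM gM QF.comb msub scG shG
    congr 1 <;> ring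
  refine OmB.of_le ?_ ?_ ?_
  · intro k
    rw [e0]
    fin_cases k
    · change |(0:ℝ)| ≤ A
      rw [abs_zero]; exact hA
    · exact hS.p1
    · exact hS.p2
  · intro k
    rw [e1 k]
    fin_cases k
    · exact hS.s0
    · exact hS.s1
    · exact hS.s2
  · rw [eM]; exact hS.M

/-- **V7, coefficient form**: `tg`, `th` small at three separated heights of the line -/
theorem omB3 {b0 b1 b0' b1' : V3} {G G' : QF} (N : NrmC b0 b1 G) (hκ : 0 < kap b0 b1 G)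
    {δ h ε : ℝ} (hδ : 0 < δ) (hδ1 : δ ≤ 1) (hh : 0 < h) (hh1 : h ≤ 1) (hε : 0 ≤ ε)
    (htw : δ * kap b0 b1 G ≤ |shB1 b0 b1 1| ∨ δ * kap b0 b1 G ≤ |shB1 b0 b1 2|)
    {ζ : Fin 3 → ℝ} (hζ : ∀ i, 0 ≤ ζ i ∧ ζ i ≤ 1) (hd : ∀ i j, i ≠ j → h ≤ |ζ i - ζ j|)
    {J J' : Fin 3 → Jt} (hJ : ∀ i, XJ b0 b1 G (ζ i) (J i))
    (hJ' : ∀ i, XJ b0' b1' G' (ζ i) (J' i))
    (g1 : ∀ i, |Rk601.tg (J i) (J' i) 1| ≤ kap b0 b1 G * ε)
    (g2 : ∀ i, |Rk601.tg (J i) (J' i) 2| ≤ kap b0 b1 G * ε)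
    (h11 : ∀ i, |th (J i) (J' i) 1 1| ≤ kap b0 b1 G * ε)
    (h12 : ∀ i, |th (J i) (J' i) 1 2| ≤ kap b0 b1 G * ε)
    (h22 : ∀ i, |th (J i) (J' i) 2 2| ≤ kap b0 b1 G * ε) :
    OmB (kap b0 b1 G) (13 * 10 ^ 9 * ε / (h ^ 4 * δ ^ 3)) (13 * 10 ^ 9 * ε / (h ^ 4 * δ ^ 3))
      (13 * 10 ^ 9 * ε / (h ^ 4 * δ ^ 3)) b0 b1 G b0' b1' G' := by
  obtain ⟨g1', g2', -, -, g3, -, -, -, -⟩ := N.b1_le
  have hb0 : 0 < b0 0 := by linarith
  have hb : b0 0 ≠ 0 := hb0.ne'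
  set κ := kap b0 b1 G with hκd
  obtain ⟨c1, c2, c3, c4, c5, c6, c7, c8, c9, c10⟩ := N.sc_le hκ
  have a0 : |(0 : ℝ)| ≤ 1 := by norm_num
  have hn : ∀ x : ℝ, 0 ≤ x → x ≤ 1 → 1 / 2 ≤ b0 0 + x * b1 0 ∧ b0 0 + x * b1 0 ≤ 2 := by
    intro x hx hx1
    have := N.st x hx hx1 0 0 0 a0 a0 a0
    simpa using this
  have hn' : ∀ x : ℝ, 0 ≤ x → x ≤ 1 → 1 / 2 ≤ (shB0 b0) 0 + x * (scB1 κ b0 b1) 0 ∧
      (shB0 b0) 0 + x * (scB1 κ b0 b1) 0 ≤ 2 := hn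
  have hG : (scG κ b0 G).Le 13 :=
    ⟨c5, c6.trans (by norm_num), c7.trans (by norm_num), c8.trans (by norm_num),
      c9.trans (by norm_num), c10.trans (by norm_num)⟩
  have hr1 : δ ≤ |(scB1 κ b0 b1) 1| ∨ δ ≤ |(scB1 κ b0 b1) 2| := by
    rcases htw with h | h
    · left
      change δ ≤ |shB1 b0 b1 1 / κ|
      rw [abs_div, abs_of_pos hκ, le_div_iff₀ hκ]; exact h
    · right
      change δ ≤ |shB1 b0 b1 2 / κ|
      rw [abs_div, abs_of_pos hκ, le_div_iff₀ hκ]; exact h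
  have key := jet3 (n := shB0 b0) (r := scB1 κ b0 b1) (p := pS κ b0 b0') (s := pS κ b0 b1')
    (G := scG κ b0 G) (M := scG κ b0 G') (K := 13) (by norm_num) hδ hδ1 hh hh1 hε hn'
    (fun k => (c2 k).trans (by norm_num)) hG hr1 hζ hd
    (fun i => jet_of hb (by have := (hn (ζ i) (hζ i).1 (hζ i).2).1; linarith) hκ (hJ i) (hJ' i)
      (g1 i) (g2 i) (h11 i) (h12 i) (h22 i))
  have hA : 10 ^ 9 * 13 * ε / (h ^ 4 * δ ^ 3) = 13 * 10 ^ 9 * ε / (h ^ 4 * δ ^ 3) := by ring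
  rw [hA] at key
  exact omB_of_small hb key (by positivity)

end Crest.Agent.R136.Jet818
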