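import Crest.Agent.R136.Cap1_102

/-!
# R136, PLAN 2 (3), V7 : 2-jets at three heights of a common line (helper818)

In tangent coordinates of the sheet `S` at its line `T` (`y` in units of the curvature extent):
`F = n0 y + ζ (n1 y + r1 u + r2 v) + G`, `P = p y + s0·d + ζ (p' y + s1·d) + M`.
If at three separated heights the tangential gradient of `P` on `S` and the `(u,v)`-part of its
tangential Hessian are at most `ε`, then `P - ν F` has all its coefficients `≤ C ε / (h^4 δ^2)`.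
-/

set_option autoImplicit false
set_option linter.unusedVariables false

namespace Crest.Agent.R136.Jet818

open Crest.Agent.R136.Sh605 Crest.Agent.R136.Tl102

/-- three values of a polynomial of degree two -/
theorem quad3 {a b c h s X : ℝ} {x : Fin 3 → ℝ} (hh : 0 < h) (hh1 : h ≤ 1) (hs : 0 ≤ s)
    (hX : 1 ≤ X) (hx : ∀ i, 0 ≤ x i ∧ x i ≤ X) (hd : ∀ i j, i ≠ j → h ≤ |x i - x j|)
    (hv : ∀ i, |a + b * x i + c * x i ^ 2| ≤ s) :
    |c| ≤ 4 * s / h ^ 2 ∧ |b| ≤ 10 * X * s / h ^ 2 ∧ |a| ≤ 15 * X ^ 2 * s / h ^ 2 := by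
  have h01 := hd 0 1 (by decide)
  have h02 := hd 0 2 (by decide)
  have h12 := hd 1 2 (by decide)
  have slope : ∀ i j, h ≤ |x i - x j| → |b + c * (x i + x j)| ≤ 2 * s / h := by
    intro i j hij
    have e : (x i - x j) * (b + c * (x i + x j)) =
        (a + b * x i + c * x i ^ 2) - (a + b * x j + c * x j ^ 2) := by ring
    have h1 : |x i - x j| * |b + c * (x i + x j)| ≤ 2 * s := by
      rw [← abs_mul, e]
      have := abs_sub (a + b * x i + c * x i ^ 2) (a + b * x j + c * x j ^ 2)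
      linarith [hv i, hv j]
    rw [le_div_iff₀ hh]
    have := mul_le_mul_of_nonneg_right hij (abs_nonneg (b + c * (x i + x j)))
    linarith
  have s1 := slope 0 1 h01
  have s2 := slope 0 2 h02
  have hc : |c| ≤ 4 * s / h ^ 2 := by
    have e : (x 1 - x 2) * c = (b + c * (x 0 + x 1)) - (b + c * (x 0 + x 2)) := by ring
    have h1 : |x 1 - x 2| * |c| ≤ 4 * s / h := by
      rw [← abs_mul, e]
      have := abs_sub (b + c * (x 0 + x 1)) (b + c * (x 0 + x 2))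
      have e2 : 4 * s / h = 2 * s / h + 2 * s / h := by ring
      linarith
    have h2 : h * |c| ≤ 4 * s / h :=
      (mul_le_mul_of_nonneg_right h12 (abs_nonneg c)).trans h1
    rw [le_div_iff₀ (by positivity)]
    rw [le_div_iff₀ hh] at h2
    calc |c| * h ^ 2 = h * |c| * h := by ring
      _ ≤ _ := h2
  have hX0 : 0 ≤ X := by linarith
  have hh2 : 0 < h ^ 2 := by positivity
  have hsh : s / h ≤ s / h ^ 2 := by
    apply div_le_div_of_nonneg_left hs hh2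
    nlinarith
  have hs2 : 0 ≤ s / h ^ 2 := by positivity
  have hb : |b| ≤ 10 * X * s / h ^ 2 := by
    have e : b = (b + c * (x 0 + x 1)) - c * (x 0 + x 1) := by ring
    have h1 : |b| ≤ 2 * s / h + |c| * (2 * X) := by
      rw [e]
      refine (abs_sub _ _).trans (add_le_add s1 ?_)
      rw [abs_mul]
      apply mul_le_mul_of_nonneg_left _ (abs_nonneg c)
      rw [abs_of_nonneg (add_nonneg (hx 0).1 (hx 1).1)]
      linarith [(hx 0).2, (hx 1).2]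
    have h2 : |c| * (2 * X) ≤ 4 * s / h ^ 2 * (2 * X) :=
      mul_le_mul_of_nonneg_right hc (by positivity)
    have e3 : 4 * s / h ^ 2 * (2 * X) = 8 * X * (s / h ^ 2) := by ring
    have e4 : 10 * X * s / h ^ 2 = 8 * X * (s / h ^ 2) + 2 * X * (s / h ^ 2) := by ring
    have e5 : 2 * s / h = 2 * (s / h) := by ring
    have h6 : 2 * (s / h ^ 2) ≤ 2 * X * (s / h ^ 2) := by nlinarith
    rw [e4]; rw [e3] at h2; rw [e5] at h1
    linarith
  refine ⟨hc, hb, ?_⟩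
  have e : a = (a + b * x 0 + c * x 0 ^ 2) - (b * x 0 + c * x 0 ^ 2) := by ring
  have hx0 : |x 0| ≤ X := by rw [abs_of_nonneg (hx 0).1]; exact (hx 0).2
  have h1 : |a| ≤ s + (|b| * X + |c| * X ^ 2) := by
    rw [e]
    refine (abs_sub _ _).trans (add_le_add (hv 0) ?_)
    refine (abs_add_le _ _).trans (add_le_add ?_ ?_)
    · rw [abs_mul]; exact mul_le_mul_of_nonneg_left hx0 (abs_nonneg _)
    · rw [abs_mul, abs_pow]
      exact mul_le_mul_of_nonneg_left (pow_le_pow_left₀ (abs_nonneg _) hx0 2) (abs_nonneg _)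
  have h2 : |b| * X ≤ 10 * X * s / h ^ 2 * X := mul_le_mul_of_nonneg_right hb hX0
  have h3 : |c| * X ^ 2 ≤ 4 * s / h ^ 2 * X ^ 2 := mul_le_mul_of_nonneg_right hc (by positivity)
  have h4 : s ≤ X ^ 2 * (s / h ^ 2) := by
    have h5 : s ≤ s / h ^ 2 := by
      rw [le_div_iff₀ hh2]
      nlinarith [pow_le_one₀ (n := 2) hh.le hh1]
    have h6 : 1 ≤ X ^ 2 := one_le_pow₀ hX
    nlinarith
  have e5 : 15 * X ^ 2 * s / h ^ 2 =
      X ^ 2 * (s / h ^ 2) + (10 * X * s / h ^ 2 * X + 4 * s / h ^ 2 * X ^ 2) := by ring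
  rw [e5]
  linarith

/-- `t(ζ) = ζ / (n0 + ζ n1)` : slope factor of the tangent plane -/
noncomputable def tt (n r : V3) (ζ : ℝ) : ℝ := ζ / (n 0 + ζ * r 0)

/-- multiplier at the height `ζ` -/
noncomputable def nu (n r p s : V3) (ζ : ℝ) : ℝ := (p 0 + ζ * s 0) / (n 0 + ζ * r 0)

/-- coefficients of `M(-t (r·d), d)` -/
def tuu (t : ℝ) (r : V3) (M : QF) : ℝ := M.uu - t * (r 1 * M.yu) + t ^ 2 * (r 1 ^ 2 * M.yy)
def tuv (t : ℝ) (r : V3) (M : QF) : ℝ :=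
  M.uv - t * (r 1 * M.yv + r 2 * M.yu) + t ^ 2 * (2 * (r 1 * r 2) * M.yy)
def tvv (t : ℝ) (r : V3) (M : QF) : ℝ := M.vv - t * (r 2 * M.yv) + t ^ 2 * (r 2 ^ 2 * M.yy)

/-- `M - ν G` -/
def msub (M G : QF) (ν : ℝ) : QF where
  yy := M.yy - ν * G.yy
  yu := M.yu - ν * G.yu
  yv := M.yv - ν * G.yv
  uu := M.uu - ν * G.uu
  uv := M.uv - ν * G.uv
  vv := M.vv - ν * G.vv

/-- value on the tangent plane -/
theorem ev_tan (t : ℝ) (r : V3) (M : QF) (u v : ℝ) :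
    M.ev ![-(t * (r 1 * u + r 2 * v)), u, v] =
      tuu t r M * u ^ 2 + tuv t r M * (u * v) + tvv t r M * v ^ 2 := by
  simp only [QF.ev, tuu, tuv, tvv, Matrix.cons_val]
  ring

/-- the 2-jet of `P` along `S` at the height `ζ` of the line is at most `ε` -/
structure Jet (n r : V3) (G : QF) (p s : V3) (M : QF) (ζ ε : ℝ) : Prop where
  g1 : |p 1 + ζ * s 1 - nu n r p s ζ * (ζ * r 1)| ≤ ε
  g2 : |p 2 + ζ * s 2 - nu n r p s ζ * (ζ * r 2)| ≤ ε
  uu : |tuu (tt n r ζ) r (msub M G (nu n r p s ζ))| ≤ ε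
  uv : |tuv (tt n r ζ) r (msub M G (nu n r p s ζ))| ≤ ε
  vv : |tvv (tt n r ζ) r (msub M G (nu n r p s ζ))| ≤ ε

theorem aux_div {A B δ : ℝ} {r : ℝ} (hδ : 0 < δ) (hr : δ ≤ |r|) (h : |A * r| ≤ B) :
    |A| ≤ B / δ := by
  rw [le_div_iff₀ hδ]
  rw [abs_mul] at h
  exact (mul_le_mul_of_nonneg_left hr (abs_nonneg A)).trans h

/-- all coefficients of `P - ν F` are at most `A` (the coefficient of `y` is `0`) -/
structure Small (n r : V3) (G : QF) (p s : V3) (M : QF) (ν A : ℝ) : Prop where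
  p0 : p 0 = ν * n 0
  s0 : |s 0 - ν * r 0| ≤ A
  p1 : |p 1| ≤ A
  p2 : |p 2| ≤ A
  s1 : |s 1 - ν * r 1| ≤ A
  s2 : |s 2 - ν * r 2| ≤ A
  M : (msub M G ν).Le A

theorem tri2 {a b A B : ℝ} (ha : |a| ≤ A) (hb : |b| ≤ B) : |a + b| ≤ A + B :=
  (abs_add_le _ _).trans (add_le_add ha hb)

theorem mulb {a b A B : ℝ} (ha : |a| ≤ A) (hb : |b| ≤ B) : |a * b| ≤ A * B := by
  rw [abs_mul]
  exact mul_le_mul ha hb (abs_nonneg _) ((abs_nonneg _).trans ha)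

/-- the gradient part, one component -/
theorem grad3 {n0 r0 p0 s0 pk sk rk h ε : ℝ} (hh : 0 < h) (hh1 : h ≤ 1) (hε : 0 ≤ ε)
    (hn : ∀ ζ : ℝ, 0 ≤ ζ → ζ ≤ 1 → 1 / 2 ≤ n0 + ζ * r0 ∧ n0 + ζ * r0 ≤ 2) (hr0 : |r0| ≤ 2)
    {ζ : Fin 3 → ℝ} (hζ : ∀ i, 0 ≤ ζ i ∧ ζ i ≤ 1) (hd : ∀ i j, i ≠ j → h ≤ |ζ i - ζ j|)
    (hg : ∀ i, |pk + ζ i * sk - (p0 + ζ i * s0) / (n0 + ζ i * r0) * (ζ i * rk)| ≤ ε) :
    |pk| ≤ 60 * (ε / h ^ 2) ∧ |sk - p0 / n0 * rk| ≤ 280 * (ε / h ^ 2) ∧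
      |(s0 - p0 / n0 * r0) * rk| ≤ 568 * (ε / h ^ 2) := by
  have hn0 : 1 / 2 ≤ n0 := by have := (hn 0 le_rfl zero_le_one).1; linarith
  have hn0' : 0 < n0 := by linarith
  have key : ∀ i, |pk * n0 + (pk * r0 + sk * n0 - p0 * rk) * ζ i +
      (sk * r0 - s0 * rk) * ζ i ^ 2| ≤ 2 * ε := by
    intro i
    obtain ⟨a1, a2⟩ := hn (ζ i) (hζ i).1 (hζ i).2
    have hN : 0 < n0 + ζ i * r0 := by linarith
    have hne : n0 + ζ i * r0 ≠ 0 := hN.ne'
    have e : pk * n0 + (pk * r0 + sk * n0 - p0 * rk) * ζ i + (sk * r0 - s0 * rk) * ζ i ^ 2 =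
        (n0 + ζ i * r0) * (pk + ζ i * sk - (p0 + ζ i * s0) / (n0 + ζ i * r0) * (ζ i * rk)) := by
      have e1 : (n0 + ζ i * r0) * ((p0 + ζ i * s0) / (n0 + ζ i * r0)) = p0 + ζ i * s0 :=
        mul_div_cancel₀ _ hne
      have e2 : (n0 + ζ i * r0) * (pk + ζ i * sk - (p0 + ζ i * s0) / (n0 + ζ i * r0) * (ζ i * rk)) =
          (n0 + ζ i * r0) * (pk + ζ i * sk) -
            (n0 + ζ i * r0) * ((p0 + ζ i * s0) / (n0 + ζ i * r0)) * (ζ i * rk) := by ring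
      rw [e2, e1]
      ring
    rw [e, abs_mul, abs_of_pos hN]
    exact mul_le_mul a2 (hg i) (abs_nonneg _) (by norm_num)
  obtain ⟨c1, c2, c3⟩ := quad3 hh hh1 (by positivity : (0:ℝ) ≤ 2 * ε) le_rfl hζ hd key
  set A := ε / h ^ 2 with hA
  have hA0 : 0 ≤ A := by positivity
  have d1 : |sk * r0 - s0 * rk| ≤ 8 * A := c1.trans (le_of_eq (by rw [hA]; ring))
  have d2 : |pk * r0 + sk * n0 - p0 * rk| ≤ 20 * A := c2.trans (le_of_eq (by rw [hA]; ring))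
  have d3 : |pk * n0| ≤ 30 * A := c3.trans (le_of_eq (by rw [hA]; ring))
  have e1 : |pk| ≤ 60 * A := by
    rw [abs_mul, abs_of_pos hn0'] at d3
    nlinarith [abs_nonneg pk]
  have e2 : |sk - p0 / n0 * rk| ≤ 280 * A := by
    have h1 : n0 * (sk - p0 / n0 * rk) = (pk * r0 + sk * n0 - p0 * rk) - pk * r0 := by
      field_simp
      ring
    have h2 : |n0 * (sk - p0 / n0 * rk)| ≤ 140 * A := by
      rw [h1]
      have h3 := mulb e1 hr0
      have h4 := abs_sub (pk * r0 + sk * n0 - p0 * rk) (pk * r0)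
      linarith
    rw [abs_mul, abs_of_pos hn0'] at h2
    nlinarith [abs_nonneg (sk - p0 / n0 * rk)]
  refine ⟨e1, e2, ?_⟩
  have h1 : (s0 - p0 / n0 * r0) * rk = (sk - p0 / n0 * rk) * r0 - (sk * r0 - s0 * rk) := by ring
  rw [h1]
  have h3 := mulb e2 hr0
  have h4 := abs_sub ((sk - p0 / n0 * rk) * r0) (sk * r0 - s0 * rk)
  linarith

theorem tuu_sub (t : ℝ) (r : V3) (M G : QF) (ν μ : ℝ) :
    tuu t r (msub M G ν) = tuu t r (msub M G μ) + (ν - μ) * -tuu t r G := by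
  simp only [tuu, msub]; ring
theorem tuv_sub (t : ℝ) (r : V3) (M G : QF) (ν μ : ℝ) :
    tuv t r (msub M G ν) = tuv t r (msub M G μ) + (ν - μ) * -tuv t r G := by
  simp only [tuv, msub]; ring
theorem tvv_sub (t : ℝ) (r : V3) (M G : QF) (ν μ : ℝ) :
    tvv t r (msub M G ν) = tvv t r (msub M G μ) + (ν - μ) * -tvv t r G := by
  simp only [tvv, msub]; ring

theorem t_bd {t K : ℝ} {r : V3} {G : QF} (ht : 0 ≤ t) (ht2 : t ≤ 2) (hr : ∀ k, |r k| ≤ 2)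
    (hK : 0 ≤ K) (hG : G.Le K) :
    |tuu t r G| ≤ 41 * K ∧ |tuv t r G| ≤ 41 * K ∧ |tvv t r G| ≤ 41 * K := by
  obtain ⟨g1, g2, g3, g4, g5, g6⟩ := hG
  have at' : |t| ≤ 2 := by rw [abs_of_nonneg ht]; exact ht2
  have at2 : |t ^ 2| ≤ 4 := by rw [abs_of_nonneg (by positivity)]; nlinarith
  refine ⟨?_, ?_, ?_⟩
  · have h1 : |t * (r 1 * G.yu)| ≤ 2 * (2 * K) := mulb at' (mulb (hr 1) g2)
    have h2 : |t ^ 2 * (r 1 ^ 2 * G.yy)| ≤ 4 * (4 * K) := by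
      refine mulb at2 (mulb ?_ g1)
      rw [abs_pow]; have := hr 1; nlinarith [abs_nonneg (r 1)]
    unfold tuu
    have h3 := abs_add_le (G.uu - t * (r 1 * G.yu)) (t ^ 2 * (r 1 ^ 2 * G.yy))
    have h4 := abs_sub G.uu (t * (r 1 * G.yu))
    linarith
  · have h1 : |t * (r 1 * G.yv + r 2 * G.yu)| ≤ 2 * (2 * K + 2 * K) :=
      mulb at' (tri2 (mulb (hr 1) g3) (mulb (hr 2) g2))
    have h2 : |t ^ 2 * (2 * (r 1 * r 2) * G.yy)| ≤ 4 * (2 * (2 * 2) * K) :=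
      mulb at2 (mulb (mulb (by norm_num) (mulb (hr 1) (hr 2))) g1)
    unfold tuv
    have h3 := abs_add_le (G.uv - t * (r 1 * G.yv + r 2 * G.yu)) (t ^ 2 * (2 * (r 1 * r 2) * G.yy))
    have h4 := abs_sub G.uv (t * (r 1 * G.yv + r 2 * G.yu))
    linarith
  · have h1 : |t * (r 2 * G.yv)| ≤ 2 * (2 * K) := mulb at' (mulb (hr 2) g3)
    have h2 : |t ^ 2 * (r 2 ^ 2 * G.yy)| ≤ 4 * (4 * K) := by
      refine mulb at2 (mulb ?_ g1)
      rw [abs_pow]; have := hr 2; nlinarith [abs_nonneg (r 2)]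
    unfold tvv
    have h3 := abs_add_le (G.vv - t * (r 2 * G.yv)) (t ^ 2 * (r 2 ^ 2 * G.yy))
    have h4 := abs_sub G.vv (t * (r 2 * G.yv))
    linarith

set_option maxHeartbeats 1000000 in
/-- **V7**: small 2-jets of `P` along `S` at three separated heights of the line: `P` is a multiple of
`F` up to a small error -/
theorem jet3 {n r p s : V3} {G M : QF} {K δ h ε : ℝ} (hK : 1 ≤ K) (hδ : 0 < δ) (hδ1 : δ ≤ 1)
    (hh : 0 < h) (hh1 : h ≤ 1) (hε : 0 ≤ ε)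
    (hn : ∀ ζ : ℝ, 0 ≤ ζ → ζ ≤ 1 → 1 / 2 ≤ n 0 + ζ * r 0 ∧ n 0 + ζ * r 0 ≤ 2)
    (hr : ∀ k, |r k| ≤ 2) (hG : G.Le K) (hr1 : δ ≤ |r 1| ∨ δ ≤ |r 2|)
    {ζ : Fin 3 → ℝ} (hζ : ∀ i, 0 ≤ ζ i ∧ ζ i ≤ 1) (hd : ∀ i j, i ≠ j → h ≤ |ζ i - ζ j|)
    (hJ : ∀ i, Jet n r G p s M (ζ i) ε) :
    Small n r G p s M (p 0 / n 0) (10 ^ 9 * K * ε / (h ^ 4 * δ ^ 3)) := by
  have hn0 : 1 / 2 ≤ n 0 := by have := (hn 0 le_rfl zero_le_one).1; linarith
  have hn2 : n 0 ≤ 2 := by have := (hn 0 le_rfl zero_le_one).2; linarith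
  have hn0' : 0 < n 0 := by linarith
  obtain ⟨a1, a2, a3⟩ := grad3 hh hh1 hε hn (hr 0) hζ hd (fun i => (hJ i).g1)
  obtain ⟨b1, b2, b3⟩ := grad3 hh hh1 hε hn (hr 0) hζ hd (fun i => (hJ i).g2)
  set ν := p 0 / n 0 with hν
  set A := ε / h ^ 2 with hA
  have hA0 : 0 ≤ A := by positivity
  have hεA : ε ≤ A := by
    rw [hA, le_div_iff₀ (by positivity)]
    exact mul_le_of_le_one_right hε (pow_le_one₀ hh.le hh1)
  set B := 568 * A / δ with hB
  have hB0 : 0 ≤ B := by positivity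
  have hAB : 568 * A ≤ B := by
    rw [hB, le_div_iff₀ hδ]
    exact mul_le_of_le_one_right (by positivity) hδ1
  have hs0 : |s 0 - ν * r 0| ≤ B := by
    rcases hr1 with h1 | h1
    · exact aux_div hδ h1 a3
    · exact aux_div hδ h1 b3
  -- the Hessian part
  have hsep : ∀ i j, i ≠ j → h / 8 ≤ |tt n r (ζ i) - tt n r (ζ j)| := by
    intro i j hij
    obtain ⟨c1, c2⟩ := hn (ζ i) (hζ i).1 (hζ i).2
    obtain ⟨d1, d2⟩ := hn (ζ j) (hζ j).1 (hζ j).2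
    have hN : 0 < n 0 + ζ i * r 0 := by linarith
    have hN' : 0 < n 0 + ζ j * r 0 := by linarith
    have e : tt n r (ζ i) - tt n r (ζ j) =
        n 0 * (ζ i - ζ j) / ((n 0 + ζ i * r 0) * (n 0 + ζ j * r 0)) := by
      unfold tt
      rw [div_sub_div _ _ hN.ne' hN'.ne']
      congr 1
      ring
    rw [e, abs_div, abs_mul, abs_of_pos hn0', abs_of_pos (mul_pos hN hN'),
      le_div_iff₀ (mul_pos hN hN')]
    have h1 := hd i j hij
    have h2 : (n 0 + ζ i * r 0) * (n 0 + ζ j * r 0) ≤ 2 * 2 :=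
      mul_le_mul c2 d2 hN'.le (by norm_num)
    have h3 : h / 8 * ((n 0 + ζ i * r 0) * (n 0 + ζ j * r 0)) ≤ h / 8 * (2 * 2) :=
      mul_le_mul_of_nonneg_left h2 (by positivity)
    have h4 : 1 / 2 * h ≤ n 0 * |ζ i - ζ j| := mul_le_mul hn0 h1 hh.le hn0'.le
    linarith
  have htt : ∀ i, 0 ≤ tt n r (ζ i) ∧ tt n r (ζ i) ≤ 2 := by
    intro i
    obtain ⟨c1, c2⟩ := hn (ζ i) (hζ i).1 (hζ i).2
    have hN : 0 < n 0 + ζ i * r 0 := by linarith
    unfold tt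
    refine ⟨div_nonneg (hζ i).1 hN.le, ?_⟩
    rw [div_le_iff₀ hN]
    linarith [(hζ i).2]
  have hνi : ∀ i, |nu n r p s (ζ i) - ν| ≤ 2 * B := by
    intro i
    obtain ⟨c1, c2⟩ := hn (ζ i) (hζ i).1 (hζ i).2
    have hN : 0 < n 0 + ζ i * r 0 := by linarith
    have e : nu n r p s (ζ i) - ν = ζ i * (s 0 - ν * r 0) / (n 0 + ζ i * r 0) := by
      have hp : p 0 = ν * n 0 := by rw [hν]; field_simp
      unfold nu
      rw [eq_div_iff hN.ne', sub_mul, div_mul_cancel₀ _ hN.ne', hp]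
      ring
    rw [e, abs_div, abs_of_pos hN, div_le_iff₀ hN, abs_mul, abs_of_nonneg (hζ i).1]
    have h1 : ζ i * |s 0 - ν * r 0| ≤ 1 * B :=
      mul_le_mul (hζ i).2 hs0 (abs_nonneg _) (by norm_num)
    have h2 : 2 * B * (1 / 2) ≤ 2 * B * (n 0 + ζ i * r 0) :=
      mul_le_mul_of_nonneg_left c1 (by positivity)
    linarith
  set R := msub M G ν with hR
  have hK0 : 0 ≤ K := by linarith
  set s2 := 83 * K * B with hs2
  have hs20 : 0 ≤ s2 := by positivity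
  have hεB : ε ≤ K * B := by
    have h1 : ε ≤ 1 * B := by linarith
    exact h1.trans (mul_le_mul_of_nonneg_right hK hB0)
  have step : ∀ x y z : ℝ, |x| ≤ ε → |y| ≤ 2 * B → |z| ≤ 41 * K → |x - y * -z| ≤ s2 := by
    intro x y z hx hy hz
    have h1 : |y * -z| ≤ 2 * B * (41 * K) := mulb hy (by rw [abs_neg]; exact hz)
    have h2 := abs_sub x (y * -z)
    have e1 : 2 * B * (41 * K) = 82 * (K * B) := by ring
    have e2 : s2 = 83 * (K * B) := by rw [hs2]; ring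
    rw [e2]; rw [e1] at h1
    linarith
  have huu : ∀ i, |tuu (tt n r (ζ i)) r R| ≤ s2 := by
    intro i
    obtain ⟨t1, t2⟩ := htt i
    have h1 := (hJ i).uu
    have e := tuu_sub (tt n r (ζ i)) r M G (nu n r p s (ζ i)) ν
    have e2 : tuu (tt n r (ζ i)) r R = tuu (tt n r (ζ i)) r (msub M G (nu n r p s (ζ i))) -
        (nu n r p s (ζ i) - ν) * -tuu (tt n r (ζ i)) r G := by rw [e, hR]; ring
    rw [e2]
    exact step _ _ _ h1 (hνi i) (t_bd t1 t2 hr hK0 hG).1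
  have huv : ∀ i, |tuv (tt n r (ζ i)) r R| ≤ s2 := by
    intro i
    obtain ⟨t1, t2⟩ := htt i
    have h1 := (hJ i).uv
    have e := tuv_sub (tt n r (ζ i)) r M G (nu n r p s (ζ i)) ν
    have e2 : tuv (tt n r (ζ i)) r R = tuv (tt n r (ζ i)) r (msub M G (nu n r p s (ζ i))) -
        (nu n r p s (ζ i) - ν) * -tuv (tt n r (ζ i)) r G := by rw [e, hR]; ring
    rw [e2]
    exact step _ _ _ h1 (hνi i) (t_bd t1 t2 hr hK0 hG).2.1
  have hvv : ∀ i, |tvv (tt n r (ζ i)) r R| ≤ s2 := by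
    intro i
    obtain ⟨t1, t2⟩ := htt i
    have h1 := (hJ i).vv
    have e := tvv_sub (tt n r (ζ i)) r M G (nu n r p s (ζ i)) ν
    have e2 : tvv (tt n r (ζ i)) r R = tvv (tt n r (ζ i)) r (msub M G (nu n r p s (ζ i))) -
        (nu n r p s (ζ i) - ν) * -tvv (tt n r (ζ i)) r G := by rw [e, hR]; ring
    rw [e2]
    exact step _ _ _ h1 (hνi i) (t_bd t1 t2 hr hK0 hG).2.2
  have hh8 : (0:ℝ) < h / 8 := by positivity
  have hh81 : h / 8 ≤ 1 := by linarith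
  obtain ⟨u3, u2, u1⟩ := quad3 (a := R.uu) (b := -(r 1 * R.yu)) (c := r 1 ^ 2 * R.yy)
    hh8 hh81 hs20 (by norm_num : (1:ℝ) ≤ 2) htt hsep (fun i => by
      have := huu i
      unfold tuu at this
      rw [show R.uu + -(r 1 * R.yu) * tt n r (ζ i) + r 1 ^ 2 * R.yy * tt n r (ζ i) ^ 2 =
        R.uu - tt n r (ζ i) * (r 1 * R.yu) + tt n r (ζ i) ^ 2 * (r 1 ^ 2 * R.yy) by ring]
      exact this)
  obtain ⟨w3, w2, w1⟩ := quad3 (a := R.uv) (b := -(r 1 * R.yv + r 2 * R.yu))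
    (c := 2 * (r 1 * r 2) * R.yy) hh8 hh81 hs20 (by norm_num : (1:ℝ) ≤ 2) htt hsep (fun i => by
      have := huv i
      unfold tuv at this
      rw [show R.uv + -(r 1 * R.yv + r 2 * R.yu) * tt n r (ζ i) +
          2 * (r 1 * r 2) * R.yy * tt n r (ζ i) ^ 2 =
        R.uv - tt n r (ζ i) * (r 1 * R.yv + r 2 * R.yu) +
          tt n r (ζ i) ^ 2 * (2 * (r 1 * r 2) * R.yy) by ring]
      exact this)
  obtain ⟨v3, v2, v1⟩ := quad3 (a := R.vv) (b := -(r 2 * R.yv)) (c := r 2 ^ 2 * R.yy)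
    hh8 hh81 hs20 (by norm_num : (1:ℝ) ≤ 2) htt hsep (fun i => by
      have := hvv i
      unfold tvv at this
      rw [show R.vv + -(r 2 * R.yv) * tt n r (ζ i) + r 2 ^ 2 * R.yy * tt n r (ζ i) ^ 2 =
        R.vv - tt n r (ζ i) * (r 2 * R.yv) + tt n r (ζ i) ^ 2 * (r 2 ^ 2 * R.yy) by ring]
      exact this)
  set D := 3840 * (s2 / h ^ 2) with hD
  have hq0 : 0 ≤ s2 / h ^ 2 := by positivity
  have hD0 : 0 ≤ D := by positivity
  have f4 : 4 * s2 / (h / 8) ^ 2 ≤ D := by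
    have : 4 * s2 / (h / 8) ^ 2 = 256 * (s2 / h ^ 2) := by field_simp; ring
    rw [this, hD]; linarith
  have f10 : 10 * 2 * s2 / (h / 8) ^ 2 ≤ D := by
    have : 10 * 2 * s2 / (h / 8) ^ 2 = 1280 * (s2 / h ^ 2) := by field_simp; ring
    rw [this, hD]; linarith
  have f15 : 15 * 2 ^ 2 * s2 / (h / 8) ^ 2 ≤ D := by
    have : 15 * 2 ^ 2 * s2 / (h / 8) ^ 2 = 3840 * (s2 / h ^ 2) := by field_simp; ring
    rw [this, hD]
  have U1 := u1.trans f15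
  have W1 := w1.trans f15
  have V1 := v1.trans f15
  have U2 : |r 1 * R.yu| ≤ D := by have := u2.trans f10; rwa [abs_neg] at this
  have W2 : |r 1 * R.yv + r 2 * R.yu| ≤ D := by have := w2.trans f10; rwa [abs_neg] at this
  have V2 : |r 2 * R.yv| ≤ D := by have := v2.trans f10; rwa [abs_neg] at this
  have U3 := u3.trans f4
  have V3' := v3.trans f4
  have hδ2 : 0 < δ ^ 2 := by positivity
  have hδ21 : δ ^ 2 ≤ δ := by rw [pow_two]; exact mul_le_of_le_one_left hδ.le hδ1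
  have hδ22 : δ ^ 2 ≤ 1 := hδ21.trans hδ1
  have g1 : D ≤ 3 * D / δ ^ 2 := by
    rw [le_div_iff₀ hδ2]
    have := mul_le_of_le_one_right hD0 hδ22
    linarith
  have g2 : D / δ ≤ 3 * D / δ ^ 2 := by
    rw [div_le_div_iff₀ hδ hδ2]
    have h1 := mul_le_mul_of_nonneg_left hδ21 hD0
    have h2 : 0 ≤ D * δ := by positivity
    linarith
  have g3 : D / δ ^ 2 ≤ 3 * D / δ ^ 2 := by
    apply div_le_div_of_nonneg_right _ hδ2.le; linarith
  have g4 : (D + 2 * (D / δ)) / δ ≤ 3 * D / δ ^ 2 := by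
    rw [div_le_div_iff₀ hδ hδ2]
    have : (D + 2 * (D / δ)) * δ ^ 2 = D * δ ^ 2 + 2 * D * δ := by field_simp
    rw [this]
    have h1 := mul_le_mul_of_nonneg_left hδ21 hD0
    linarith
  have hyy : |R.yy| ≤ 3 * D / δ ^ 2 := by
    rcases hr1 with h1 | h1
    · refine le_trans ?_ g3
      rw [le_div_iff₀ hδ2]
      rw [abs_mul, abs_pow] at U3
      have h2 : δ ^ 2 ≤ |r 1| ^ 2 := pow_le_pow_left₀ hδ.le h1 2
      linarith [mul_le_mul_of_nonneg_right h2 (abs_nonneg R.yy)]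
    · refine le_trans ?_ g3
      rw [le_div_iff₀ hδ2]
      rw [abs_mul, abs_pow] at V3'
      have h2 : δ ^ 2 ≤ |r 2| ^ 2 := pow_le_pow_left₀ hδ.le h1 2
      linarith [mul_le_mul_of_nonneg_right h2 (abs_nonneg R.yy)]
  have hyuv : |R.yu| ≤ 3 * D / δ ^ 2 ∧ |R.yv| ≤ 3 * D / δ ^ 2 := by
    rcases hr1 with h1 | h1
    · have k1 : |R.yu| ≤ D / δ := aux_div hδ h1 (by rw [mul_comm]; exact U2)
      have k2 : |R.yv * r 1| ≤ D + 2 * (D / δ) := by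
        have e : R.yv * r 1 = (r 1 * R.yv + r 2 * R.yu) - r 2 * R.yu := by ring
        rw [e]
        have k3 := mulb (hr 2) k1
        have k4 := abs_sub (r 1 * R.yv + r 2 * R.yu) (r 2 * R.yu)
        linarith
      exact ⟨k1.trans g2, (aux_div hδ h1 k2).trans g4⟩
    · have k1 : |R.yv| ≤ D / δ := aux_div hδ h1 (by rw [mul_comm]; exact V2)
      have k2 : |R.yu * r 2| ≤ D + 2 * (D / δ) := by
        have e : R.yu * r 2 = (r 1 * R.yv + r 2 * R.yu) - r 1 * R.yv := by ring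
        rw [e]
        have k3 := mulb (hr 1) k1
        have k4 := abs_sub (r 1 * R.yv + r 2 * R.yu) (r 1 * R.yv)
        linarith
      exact ⟨(aux_div hδ h1 k2).trans g4, k1.trans g2⟩
  have fin : 3 * D / δ ^ 2 ≤ 10 ^ 9 * K * ε / (h ^ 4 * δ ^ 3) := by
    have e : 3 * D / δ ^ 2 = 543098880 * (K * ε / (h ^ 4 * δ ^ 3)) := by
      rw [hD, hs2, hB, hA]
      field_simp
      ring
    rw [e]
    have : 0 ≤ K * ε / (h ^ 4 * δ ^ 3) := by positivity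
    have e2 : 10 ^ 9 * K * ε / (h ^ 4 * δ ^ 3) = 10 ^ 9 * (K * ε / (h ^ 4 * δ ^ 3)) := by ring
    rw [e2]
    exact mul_le_mul_of_nonneg_right (by norm_num) this
  have finB : B ≤ 3 * D / δ ^ 2 := by
    refine le_trans ?_ g1
    rw [hD, hs2]
    have h1 : 1 * B ≤ 83 * K * B := mul_le_mul_of_nonneg_right (by linarith) hB0
    have h3 : 0 ≤ 83 * K * B := by positivity
    have h4 : h ^ 2 ≤ 1 := pow_le_one₀ hh.le hh1
    have h2 : 83 * K * B ≤ 83 * K * B / h ^ 2 := by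
      rw [le_div_iff₀ (by positivity)]
      exact mul_le_of_le_one_right h3 h4
    linarith
  exact
    { p0 := by rw [hν]; field_simp
      s0 := hs0.trans (finB.trans fin)
      p1 := (a1.trans (by linarith)).trans (finB.trans fin)
      p2 := (b1.trans (by linarith)).trans (finB.trans fin)
      s1 := (a2.trans (by linarith)).trans (finB.trans fin)
      s2 := (b2.trans (by linarith)).trans (finB.trans fin)
      M := ⟨hyy.trans fin, hyuv.1.trans fin, hyuv.2.trans fin, (U1.trans g1).trans fin,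
        (W1.trans g1).trans fin, (V1.trans g1).trans fin⟩ }

/-- values of `P - ν F` from its coefficients -/
theorem Small.val {n r p s : V3} {G M : QF} {ν A : ℝ} (h : Small n r G p s M ν A) (hA : 0 ≤ A)
    {ζ Y : ℝ} (hζ : 0 ≤ ζ) (hζ1 : ζ ≤ 1) (hY : 1 ≤ Y) {x : V3} (h0 : |x 0| ≤ Y) (h1 : |x 1| ≤ 1)
    (h2 : |x 2| ≤ 1) : |Fq p s M ζ x - ν * Fq n r G ζ x + ν * (n 1 * x 1 + n 2 * x 2)| ≤
      11 * Y ^ 2 * A := by
  obtain ⟨m1, m2, m3, m4, m5, m6⟩ := h.M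
  simp only [msub] at m1 m2 m3 m4 m5 m6
  have e : Fq p s M ζ x - ν * Fq n r G ζ x + ν * (n 1 * x 1 + n 2 * x 2) =
      (s 0 - ν * r 0) * (ζ * x 0) + p 1 * x 1 + p 2 * x 2 + (s 1 - ν * r 1) * (ζ * x 1) +
      (s 2 - ν * r 2) * (ζ * x 2) + (M.yy - ν * G.yy) * (x 0 ^ 2) +
      (M.yu - ν * G.yu) * (x 0 * x 1) + (M.yv - ν * G.yv) * (x 0 * x 2) +
      (M.uu - ν * G.uu) * (x 1 ^ 2) + (M.uv - ν * G.uv) * (x 1 * x 2) +
      (M.vv - ν * G.vv) * (x 2 ^ 2) := by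
    simp only [Fq, dt, bz, QF.ev]
    rw [h.p0]
    ring
  have hY0 : 0 ≤ Y := by linarith
  have hYY : Y ≤ Y ^ 2 := by nlinarith
  have az : |ζ| ≤ 1 := by rw [abs_of_nonneg hζ]; exact hζ1
  have hY2 : (1:ℝ) ≤ Y ^ 2 := by nlinarith
  have c : ∀ a b : ℝ, |a| ≤ A → |b| ≤ Y ^ 2 → |a * b| ≤ Y ^ 2 * A := fun a b ha hb => by
    have := mulb ha hb; linarith
  have sq : ∀ y : ℝ, |y| ≤ 1 → |y ^ 2| ≤ Y ^ 2 := fun y hy => by
    rw [abs_pow]; nlinarith [abs_nonneg y]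
  have t1 := c _ _ h.s0 (show |ζ * x 0| ≤ Y ^ 2 by have := mulb az h0; linarith)
  have t2 := c _ _ h.p1 (show |x 1| ≤ Y ^ 2 by linarith)
  have t3 := c _ _ h.p2 (show |x 2| ≤ Y ^ 2 by linarith)
  have t4 := c _ _ h.s1 (show |ζ * x 1| ≤ Y ^ 2 by have := mulb az h1; linarith)
  have t5 := c _ _ h.s2 (show |ζ * x 2| ≤ Y ^ 2 by have := mulb az h2; linarith)
  have t6 := c _ _ m1 (show |x 0 ^ 2| ≤ Y ^ 2 by
    rw [abs_pow]; exact pow_le_pow_left₀ (abs_nonneg _) h0 2)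
  have t7 := c _ _ m2 (show |x 0 * x 1| ≤ Y ^ 2 by have := mulb h0 h1; linarith)
  have t8 := c _ _ m3 (show |x 0 * x 2| ≤ Y ^ 2 by have := mulb h0 h2; linarith)
  have t9 := c _ _ m4 (sq _ h1)
  have t10 := c _ _ m5 (show |x 1 * x 2| ≤ Y ^ 2 by have := mulb h1 h2; linarith)
  have t11 := c _ _ m6 (sq _ h2)
  rw [e]
  refine (tri2 (tri2 (tri2 (tri2 (tri2 (tri2 (tri2 (tri2 (tri2 (tri2 t1 t2) t3) t4) t5) t6) t7)
    t8) t9) t10) t11).trans (le_of_eq ?_)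
  ring

end Crest.Agent.R136.Jet818
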