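import Crest.Agent.R136.Qg1_926
import Crest.Agent.R138.Dp1_76

/-!
# R136 (helper893): a far point in the class, on a dense part

`far_dense` : `J1` dense in `J`, labels `a ≤ c k ≤ c' k` of a zoom window with
`lam (c' k) < lam (c k)`.  There is ONE dense `J2 ⊆ J1` such that for every `k`, eventually, every
`i ∈ J2 n` has a partner `i' ∈ J1 n` with the `a`-label of `i`, in the `c k`-box but not in the
`c' k`-box around `i`.
-/

set_option autoImplicit false
set_option linter.unusedSectionVars false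
set_option linter.unusedVariables false

open Filter Topology

namespace Crest.Agent.R136.Js893

open Finset Crest.Agent.R138.Ex926 Crest.Agent.R136.Net191 Crest.Agent.R136.Qg926
open Crest.Agent.R138.Dp76 (Dense)

variable {m : ℕ} {ι : ℕ → Type*} [∀ n, DecidableEq (ι n)]

variable {B B' : Base} {I J J1 : ∀ n, Finset (ι n)} {co : ∀ n, ι n → ι n → Fin m → ℝ}
  {M : Mons m} {C : ℝ} {X : ℕ → Fin m → ℝ} {w : ℕ → ℝ} {D : Set (Fin m → ℝ)} {T : ℕ → ℝ}
  {lam : (Fin m → ℝ) → ℝ}

/-- the bad set of one pair of labels is small -/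
theorem far_one (h : ZWin B B' I J co M C X w D T lam) (hJ1 : Dense B' J1 J)
    {a c c' : Fin m → ℝ} (ha : a ∈ D) (hc : c ∈ D) (hc' : c' ∈ D) (hac : a ≤ c)
    (hlt : lam c' < lam c) :
    ∃ η : ℝ, 0 < η ∧ ∀ᶠ n in (U : Filter ℕ), ∃ Bd ⊆ J1 n,
      (Bd.card : ℝ) ≤ B'.d n ^ η * ((J1 n).card : ℝ) ∧
      ∀ i ∈ J1 n, i ∉ Bd → ∃ i' ∈ J1 n, zlab B I co M C X w n a i' = zlab B I co M C X w n a i ∧
        wbox B B' co X n c (cK0 M C) i i' ∧ ¬ wbox B B' co X n c' (cK0 M C) i i' := by
  classical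
  set g : ℝ := lam c - lam c' with hg
  have hg0 : 0 < g := by rw [hg]; linarith
  have hK : 1 ≤ cK0 M C := cK0_one (h.chart 0).C0
  have hcN : 0 < cN M C (cK0 M C) := cN_pos M (h.chart 0).C0 hK
  refine ⟨g / 8, by positivity, ?_⟩
  filter_upwards [h.sub, hJ1.1, hJ1.2 (g / 8) (by positivity),
    h.legal (max ‖a‖ (max ‖c‖ ‖c'‖)), h.near_up hK (max ‖c‖ ‖c'‖) (ε := g / 4) (by positivity),
    h.prof.root ‖c‖ (g / 8) (by positivity), ev_const_le B' hcN (ε := g / 8) (by positivity)]
    with n h1 h2 h3 h4 h5 h6 h7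
  have hp : ∀ t : ℝ, 0 < B'.d n ^ t := fun t => Real.rpow_pos_of_pos (B'.pos n) t
  have hTn := h.T0 n
  have la := h4 a ha (le_max_left _ _)
  have lc := h4 c hc ((le_max_left _ _).trans (le_max_right _ _))
  set f : ι n → ι n × ι n := fun i => (zlab B I co M C X w n a i, zlab B I co M C X w n c i)
    with hf
  set s : ℝ := T n * B'.d n ^ (-lam c + g / 2) with hs
  have hs0 : 0 < s := mul_pos hTn (hp _)
  refine ⟨(J1 n).filter fun i => ((cls (J1 n) f i).card : ℝ) < s, filter_subset _ _, ?_, ?_⟩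
  · -- few bad points
    have c1 := card_small_cls (J1 n) f hs0.le
    have c2 : (((J1 n).image f).card : ℝ) ≤ (((J n).image f).card : ℝ) := by
      exact_mod_cast card_le_card (image_subset_image h2)
    have c3 : (((J n).image f).card : ℝ) ≤ cN M C (cK0 M C) *
        (((J n).image (zlab B I co M C X w n c)).card : ℝ) := by
      refine card_image_le_mul (J n) f (zlab B I co M C X w n c) fun x hx => ?_
      have d1 := h.card_zlab_le (c := a) (c' := a) le_rfl la la hK (h1 hx)
      simp only [sub_self, sum_const_zero, neg_zero, Real.rpow_zero, mul_one] at d1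
      refine le_trans ?_ d1
      have d2 : ((cls (J n) (zlab B I co M C X w n c) x).image f) ⊆
          (((I n).filter fun j => wbox B B' co X n a (cK0 M C) x j).image
            (zlab B I co M C X w n a)).image
              (fun y => (y, zlab B I co M C X w n c x)) := by
        intro y hy
        obtain ⟨j, hj, rfl⟩ := mem_image.1 hy
        obtain ⟨j1, j2⟩ := mem_cls.1 hj
        refine mem_image.2 ⟨zlab B I co M C X w n a j, mem_image_of_mem _
          (mem_filter.2 ⟨h1 j1, ?_⟩), ?_⟩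
        · have e1 := h.near_of_zlab lc (h1 hx) (h1 j1) j2.symm
          intro s'
          refine (e1 s').trans ?_
          refine mul_le_mul_of_nonneg_left ?_ (zero_le_one.trans hK)
          refine mul_le_mul_of_nonneg_left ?_ (Real.rpow_pos_of_pos (B.pos n) _).le
          exact Real.rpow_le_rpow_of_exponent_ge (B'.pos n) (B'.lt n).le (hac s')
        · simp only [hf, j2]
      refine Nat.cast_le.2 ((card_le_card d2).trans ?_)
      exact card_image_le
    have c4 := h6 c hc le_rfl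
    have c5 : (((J n).image (zlab B I co M C X w n c)).card : ℝ) * s ≤
        (J n).card * B'.d n ^ (3 * g / 8) := by
      have e1 : (((J n).image (zlab B I co M C X w n c)).card : ℝ) * s =
          (((J n).image (zlab B I co M C X w n c)).card : ℝ) * T n *
            B'.d n ^ (-lam c + g / 2) := by rw [hs]; ring
      have e2 : B'.d n ^ (3 * g / 8) = B'.d n ^ (lam c - g / 8) * B'.d n ^ (-lam c + g / 2) := by
        rw [← Real.rpow_add (B'.pos n)]; congr 1; ring
      rw [e1, e2, ← mul_assoc]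
      exact mul_le_mul_of_nonneg_right c4 (hp _).le
    have hJ1n : (0 : ℝ) ≤ (J1 n).card := Nat.cast_nonneg _
    calc (((J1 n).filter fun i => ((cls (J1 n) f i).card : ℝ) < s).card : ℝ)
        ≤ s * (((J1 n).image f).card : ℝ) := c1
      _ ≤ s * (cN M C (cK0 M C) * (((J n).image (zlab B I co M C X w n c)).card : ℝ)) :=
          mul_le_mul_of_nonneg_left (c2.trans c3) hs0.le
      _ = cN M C (cK0 M C) *
          ((((J n).image (zlab B I co M C X w n c)).card : ℝ) * s) := by ring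
      _ ≤ cN M C (cK0 M C) * ((J n).card * B'.d n ^ (3 * g / 8)) :=
          mul_le_mul_of_nonneg_left c5 hcN.le
      _ ≤ B'.d n ^ (-(g / 8)) * ((J n).card * B'.d n ^ (3 * g / 8)) :=
          mul_le_mul_of_nonneg_right h7 (mul_nonneg (Nat.cast_nonneg _) (hp _).le)
      _ = B'.d n ^ (g / 8) * (B'.d n ^ (g / 8) * (J n).card) := by
          have e2 : B'.d n ^ (3 * g / 8) =
              B'.d n ^ (g / 8) * (B'.d n ^ (g / 8) * B'.d n ^ (g / 8)) := by
            rw [← Real.rpow_add (B'.pos n), ← Real.rpow_add (B'.pos n)]; congr 1; ring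
          have e3 : B'.d n ^ (-(g / 8)) * B'.d n ^ (g / 8) = 1 := by
            rw [← Real.rpow_add (B'.pos n)]; simp
          rw [e2]
          linear_combination ((J n).card : ℝ) * (B'.d n ^ (g / 8) * B'.d n ^ (g / 8)) * e3
      _ ≤ B'.d n ^ (g / 8) * ((J1 n).card : ℝ) := mul_le_mul_of_nonneg_left h3 (hp _).le
  · -- a far partner
    intro i hi hb
    have hbig : s ≤ ((cls (J1 n) f i).card : ℝ) := by
      by_contra hcon
      exact hb (mem_filter.2 ⟨hi, not_le.1 hcon⟩)
    by_contra hno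
    push Not at hno
    have hsub : cls (J1 n) f i ⊆ (J n).filter fun j => wbox B B' co X n c' (cK0 M C) i j := by
      intro j hj
      obtain ⟨j1, j2⟩ := mem_cls.1 hj
      have e1 : zlab B I co M C X w n a j = zlab B I co M C X w n a i := (Prod.mk.inj j2).1
      have e2 : zlab B I co M C X w n c j = zlab B I co M C X w n c i := (Prod.mk.inj j2).2
      exact mem_filter.2 ⟨h2 j1, hno j j1 e1 (h.near_of_zlab lc (h1 (h2 hi)) (h1 (h2 j1)) e2.symm)⟩
    have k1 : ((cls (J1 n) f i).card : ℝ) ≤ T n * B'.d n ^ (-(lam c' + g / 4)) := by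
      refine le_trans ?_ (h5 c' hc' (le_max_right _ _) i (h1 (h2 hi)))
      exact_mod_cast card_le_card hsub
    have k2 : T n * B'.d n ^ (-(lam c' + g / 4)) < s := by
      rw [hs]
      refine mul_lt_mul_of_pos_left ?_ hTn
      refine Real.rpow_lt_rpow_of_exponent_gt (B'.pos n) (B'.lt n) ?_
      rw [hg] at hg0 ⊢
      linarith
    linarith

/-- **a far partner in the class, for all pairs of labels on one dense part** -/
theorem far_dense (h : ZWin B B' I J co M C X w D T lam) (hJ1 : Dense B' J1 J)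
    {a : Fin m → ℝ} (ha : a ∈ D) (c c' : ℕ → Fin m → ℝ) (hc : ∀ k, c k ∈ D) (hc' : ∀ k, c' k ∈ D)
    (hac : ∀ k, a ≤ c k) (hlt : ∀ k, lam (c' k) < lam (c k)) :
    ∃ J2 : ∀ n, Finset (ι n), (∀ n, J2 n ⊆ J1 n) ∧ Dense B' J2 J ∧
      ∀ k, ∀ᶠ n in (U : Filter ℕ), ∀ i ∈ J2 n, ∃ i' ∈ J1 n,
        zlab B I co M C X w n a i' = zlab B I co M C X w n a i ∧
        wbox B B' co X n (c k) (cK0 M C) i i' ∧ ¬ wbox B B' co X n (c' k) (cK0 M C) i i' := by
  classical
  set Q : ℕ → ∀ n, ι n → Prop := fun k n i => ∃ i' ∈ J1 n,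
    zlab B I co M C X w n a i' = zlab B I co M C X w n a i ∧
    wbox B B' co X n (c k) (cK0 M C) i i' ∧ ¬ wbox B B' co X n (c' k) (cK0 M C) i i' with hQ
  have hbd : ∀ k, ∀ᶠ n in (U : Filter ℕ),
      (((J1 n).filter fun i => ¬ Q k n i).card : ℝ) ≤ (1 / 2) ^ (k + 2) * ((J1 n).card : ℝ) := by
    intro k
    obtain ⟨η, hη, h1⟩ := far_one h hJ1 ha (hc k) (hc' k) (hac k) (hlt k)
    filter_upwards [h1, B'.ev_rpow_small (η := η) (c := (1 / 2) ^ (k + 2)) hη (by positivity)]
      with n hn hn2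
    obtain ⟨Bd, b1, b2, b3⟩ := hn
    have e1 : ((J1 n).filter fun i => ¬ Q k n i) ⊆ Bd := by
      intro i hi
      obtain ⟨i1, i2⟩ := mem_filter.1 hi
      by_contra hb
      exact i2 (b3 i i1 hb)
    calc (((J1 n).filter fun i => ¬ Q k n i).card : ℝ) ≤ (Bd.card : ℝ) := by
          exact_mod_cast card_le_card e1
      _ ≤ B'.d n ^ η * ((J1 n).card : ℝ) := b2
      _ ≤ _ := mul_le_mul_of_nonneg_right hn2 (Nat.cast_nonneg _)
  obtain ⟨κ, hκ, hκ2⟩ := exists_diag _ hbd
  obtain ⟨R, hR⟩ : ∃ R : ∀ n, ι n → Prop, ∀ n i, R n i ↔ ∀ j ∈ range (κ n + 1), Q j n i :=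
    ⟨fun n i => ∀ j ∈ range (κ n + 1), Q j n i, fun n i => Iff.rfl⟩
  refine ⟨fun n => (J1 n).filter (R n), fun n => filter_subset _ _, ?_, ?_⟩
  · have hhalf : ∀ᶠ n in (U : Filter ℕ), ((J1 n).card : ℝ) ≤
        2 * (((J1 n).filter (R n)).card : ℝ) := by
      filter_upwards [hκ2] with n hn
      have e1 : (J1 n).filter (fun i => ¬ R n i) ⊆
          (range (κ n + 1)).biUnion fun j => (J1 n).filter fun i => ¬ Q j n i := by
        intro i hi
        obtain ⟨i1, i2⟩ := mem_filter.1 hi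
        rw [hR] at i2
        push Not at i2
        obtain ⟨j, j1, j2⟩ := i2
        exact mem_biUnion.2 ⟨j, j1, mem_filter.2 ⟨i1, j2⟩⟩
      have e2 : (((J1 n).filter (fun i => ¬ R n i)).card : ℝ) ≤
          ∑ j ∈ range (κ n + 1), (1 / 2 : ℝ) ^ (j + 2) * ((J1 n).card : ℝ) := by
        calc (((J1 n).filter (fun i => ¬ R n i)).card : ℝ)
            ≤ (((range (κ n + 1)).biUnion fun j => (J1 n).filter fun i => ¬ Q j n i).card : ℝ) := by
              exact_mod_cast card_le_card e1
          _ ≤ ∑ j ∈ range (κ n + 1), (((J1 n).filter fun i => ¬ Q j n i).card : ℝ) := by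
              exact_mod_cast card_biUnion_le
          _ ≤ _ := sum_le_sum fun j hj => hn j (Nat.lt_succ_iff.1 (mem_range.1 hj))
      have e3 : ∑ j ∈ range (κ n + 1), (1 / 2 : ℝ) ^ (j + 2) ≤ 1 / 2 := by
        have e4 : ∀ N : ℕ, ∑ j ∈ range N, (1 / 2 : ℝ) ^ (j + 2) = 1 / 2 - (1 / 2) ^ (N + 1) := by
          intro N
          induction N with
          | zero => norm_num
          | succ N ih => rw [sum_range_succ, ih]; ring
        rw [e4]
        have : (0 : ℝ) < (1 / 2) ^ (κ n + 1 + 1) := by positivity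
        linarith
      have e5 := card_filter_add_card_filter_not (s := J1 n) (R n)
      have e6 : (((J1 n).filter (R n)).card : ℝ) +
          (((J1 n).filter (fun i => ¬ R n i)).card : ℝ) = ((J1 n).card : ℝ) := by
        exact_mod_cast e5
      rw [← sum_mul] at e2
      have e7 : (∑ j ∈ range (κ n + 1), (1 / 2 : ℝ) ^ (j + 2)) * ((J1 n).card : ℝ) ≤
          1 / 2 * ((J1 n).card : ℝ) := mul_le_mul_of_nonneg_right e3 (Nat.cast_nonneg _)
      linarith
    refine ⟨hJ1.1.mono fun n hn => (filter_subset _ _).trans hn, fun η hη => ?_⟩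
    filter_upwards [hhalf, hJ1.2 (η / 2) (by positivity),
      B'.ev_rpow_small (η := η / 2) (c := 1 / 2) (by positivity) (by norm_num)] with n h1 h2 h3
    have hp : ∀ t : ℝ, 0 < B'.d n ^ t := fun t => Real.rpow_pos_of_pos (B'.pos n) t
    have e2 : B'.d n ^ η = B'.d n ^ (η / 2) * B'.d n ^ (η / 2) := by
      rw [← Real.rpow_add (B'.pos n)]; congr 1; ring
    calc B'.d n ^ η * ((J n).card : ℝ) = B'.d n ^ (η / 2) * (B'.d n ^ (η / 2) * (J n).card) := by
          rw [e2]; ring
      _ ≤ B'.d n ^ (η / 2) * ((J1 n).card : ℝ) := mul_le_mul_of_nonneg_left h2 (hp _).le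
      _ ≤ 1 / 2 * ((J1 n).card : ℝ) := mul_le_mul_of_nonneg_right h3 (Nat.cast_nonneg _)
      _ ≤ (((J1 n).filter (R n)).card : ℝ) := by linarith
  · intro k
    filter_upwards [hκ.eventually_ge_atTop k] with n hn i hi
    exact (hR n i).1 (mem_filter.1 hi).2 k (mem_range.2 (Nat.lt_succ_iff.2 hn))

end Crest.Agent.R136.Js893
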