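import Crest.Agent.R136.K2B_146

/-!
# R136 (helper146): zoom at infinity of a joint tangent

* `exists_scale` : a Lipschitz function on a cone has limits `f (g l • c) / g l` along a subsequence,
  for every sequence of scales `g l > 0` (in particular `g l → ∞`).
* `outA_scale` : `OutA` passes to such limits, with the same rates and slopes.
* `JT.inf` : a zoom at infinity of a joint tangent is again a joint tangent.
* `exists_inf`, `exists_hom_inf` : zoom at infinity; zoom at infinity followed by a zoom at `0`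
  (homogeneous groups; asymptotic inequalities along rays become exact inequalities).
-/

set_option autoImplicit false
set_option linter.unusedSectionVars false
set_option linter.unusedVariables false

open Set Filter Topology Metric MeasureTheory

namespace Crest.Agent.R136.K2C146

open Dg262 (X X_cont SupOn LegU)
open Dg219 (Tn BUp Walls OutS gC dhC nC gset mem_gset Geo DirS lf zz lf_zz pr phi_eq)
open Rc146 (OutA GF phi_uniq sum_loc_sep)
open K2S774 K2A146 K2B146 Lift146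
open Crest.Agent.R138

/-! ### limits of scalings exist -/

section scale

open Crest.Agent.R138.Ex926 Crest.Agent.R138.FM501 Crest.Agent.R138.Flg101

/-- **scaling limits exist** (501's `exists_tangent` for any sequence of scales) -/
theorem exists_scale {m : ℕ} {P D : Set (Fin m → ℝ)} (hDc : IsClosed D)
    {ν : (Fin m → ℝ) → ℝ} {K : ℝ} (hK : 0 ≤ K) (hν : ∀ p ∈ P, ∀ q ∈ P, |ν p - ν q| ≤ K * ‖p - q‖)
    {X : Fin m → ℝ} (hX : ∀ h : ℝ, 0 < h → ∀ c ∈ D, X + h • c ∈ P) {g : ℕ → ℝ} (hg : ∀ l, 0 < g l)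
    (h0D : (0 : Fin m → ℝ) ∈ D) :
    ∃ φ : ℕ → ℕ, StrictMono φ ∧ ∃ lam : (Fin m → ℝ) → ℝ,
      IsTan P D ν (fun _ => X) (fun l => g (φ l)) lam := by
  classical
  set ψ0 : ℕ → (Fin m → ℝ) → ℝ := fun l c => (ν (X + g l • c) - ν X) / g l with hψ0
  have hlip : ∀ l, ∀ c ∈ D, ∀ c' ∈ D, |ψ0 l c - ψ0 l c'| ≤ K * ‖c - c'‖ := by
    intro l c hc c' hc'
    have h1 := hν _ (hX _ (hg l) c hc) _ (hX _ (hg l) c' hc')
    have e1 : X + g l • c - (X + g l • c') = g l • (c - c') := by rw [smul_sub]; abel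
    rw [e1, norm_smul, Real.norm_of_nonneg (hg l).le] at h1
    have e2 : ψ0 l c - ψ0 l c' = (ν (X + g l • c) - ν (X + g l • c')) / g l := by
      simp only [hψ0]; rw [← sub_div]; congr 1; ring
    rw [e2, abs_div, abs_of_pos (hg l), div_le_iff₀ (hg l)]
    linarith
  have hψ00 : ∀ l, ψ0 l 0 = 0 := fun l => by simp [hψ0]
  have hlim : ∀ c : Fin m → ℝ, ∃ y : ℝ, c ∈ D → Tendsto (fun l => ψ0 l c) U (𝓝 y) := by
    intro c
    by_cases hc : c ∈ D
    · obtain ⟨y, hy, -⟩ := exists_tendsto (f := fun l => ψ0 l c) (C := K * ‖c‖)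
        (Eventually.of_forall fun l => by
          have := hlip l c hc 0 h0D
          rwa [hψ00, sub_zero, sub_zero] at this)
      exact ⟨y, fun _ => hy⟩
    · exact ⟨0, fun h => absurd h hc⟩
  choose lam hlam using hlim
  have hunif : ∀ C ε : ℝ, 0 < ε → ∀ᶠ l in (U : Filter ℕ), ∀ c ∈ D ∩ Metric.closedBall 0 C,
      |ψ0 l c - lam c| ≤ ε := by
    intro C ε hε
    have hcomp : IsCompact (D ∩ Metric.closedBall (0 : Fin m → ℝ) C) :=
      (isCompact_closedBall _ _).inter_left hDc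
    refine unif_of_lip hcomp hK (φ := fun l c => ψ0 l c) (ψ := lam) ?_ ?_ hε
    · intro δ hδ
      refine Eventually.of_forall fun l c hc c' hc' => ?_
      have h1 := hlip l c hc.1 c' hc'.1
      rw [dist_eq_norm]
      linarith
    · intro c hc
      exact hlam c hc.1
  obtain ⟨φ, hφ, hφ2⟩ := Filter.extraction_forall_of_frequently
    (P := fun j l => ∀ c ∈ D ∩ Metric.closedBall (0 : Fin m → ℝ) ((j : ℝ) + 1),
      |ψ0 l c - lam c| ≤ 1 / ((j : ℝ) + 1)) (fun j => by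
      have h1 := hunif ((j : ℝ) + 1) (1 / ((j : ℝ) + 1)) (by positivity)
      exact h1.frequently.filter_mono U_le_atTop)
  refine ⟨φ, hφ, lam, fun C ε hε => ?_⟩
  obtain ⟨N1, hN1⟩ := exists_nat_gt C
  obtain ⟨N2, hN2⟩ := exists_nat_gt (1 / ε)
  filter_upwards [eventually_ge_atTop (max N1 N2)] with j h2 c hc hcC
  refine ⟨hX _ (hg _) c hc, ?_⟩
  have hj1 : (N1 : ℝ) ≤ j := by exact_mod_cast (le_max_left _ _).trans h2
  have hj2 : (N2 : ℝ) ≤ j := by exact_mod_cast (le_max_right _ _).trans h2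
  have h3 := hφ2 j c ⟨hc, by
    rw [mem_closedBall_zero_iff]; linarith⟩
  have h4 : 1 / ((j : ℝ) + 1) ≤ ε := by
    rw [div_le_iff₀ (by positivity)]
    rw [div_lt_iff₀ hε] at hN2
    nlinarith
  have h5 : ψ0 (φ j) c - lam c = (ν (X + g (φ j) • c) - ν X - g (φ j) * lam c) / g (φ j) := by
    simp only [hψ0]; field_simp [(hg (φ j)).ne']
  rw [h5, abs_div, abs_of_pos (hg _), div_le_iff₀ (hg _)] at h3
  exact h3.trans (mul_le_mul_of_nonneg_right h4 (hg _).le)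

end scale

/-! ### `OutA` passes to scaling limits -/

section out

variable {ι κ : Type*} [Fintype ι] [DecidableEq ι] [DecidableEq κ] {W : Type*} [Fintype W]
  (Q : Walls ι W) {x0 a b : ι → ℝ}

/-- **`OutA` passes to scaling limits** -/
theorem outA_scale {grp : ι → κ} {n : κ → ℝ × ℝ} {dh : ι → ℝ}
    (hgeo : Geo grp (Q.D x0 a b) (Q.L x0 a b) (Q.rm grp) Q.rs) (hd : DirS grp a b n dh)
    {lam lam2 : (ι → ℝ) → ℝ} {φ : κ → (ι → ℝ) → ℝ} {r : κ → ℝ} {A : ℝ × ℝ}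
    (H : OutA grp (Q.L x0 a b) a b dh n lam A φ r) {t : ℕ → ℝ} (tpos : ∀ l, 0 < t l)
    (hlim : ∀ c ∈ Q.L x0 a b, Tendsto (fun l => lam (t l • c) / t l) atTop (𝓝 (lam2 c))) :
    ∃ φ2 : κ → (ι → ℝ) → ℝ, OutA grp (Q.L x0 a b) a b dh n lam2 A φ2 r ∧
      ∀ k, ∀ c ∈ Q.L x0 a b, Tendsto (fun l => φ k (t l • c) / t l) atTop (𝓝 (φ2 k c)) := by
  set L := Q.L x0 a b with hL
  have hcone := hgeo.cone
  have hnat : ∀ z, Tn a b z ∈ L := fun z => Walls.Tn_mem z
  have hsep := sum_loc_sep H.sum H.loc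
  have hnull : ∀ k, k ∉ gset grp → ∀ c, φ k c = 0 := fun k hk c =>
    H.zero k c fun i hi => absurd (by rw [← hi]; exact mem_gset i) hk
  have sm : ∀ c ∈ L, ∀ l, t l • c ∈ L := fun c hc l => hcone.smul _ hc _ (tpos l).le
  have hex : ∀ k, ∀ c ∈ L, ∃ y : ℝ, Tendsto (fun l => φ k (t l • c) / t l) atTop (𝓝 y) := by
    intro k c hc
    by_cases hk : k ∈ gset grp
    · obtain ⟨R, hR, h1⟩ := hgeo.room.ex k c hc
      have h2 : R • Q.rm grp k ∈ L := hcone.smul _ (hgeo.room.mem k) _ hR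
      refine ⟨lam2 (pr grp k c + R • Q.rm grp k) - lam2 (R • Q.rm grp k),
        ((hlim _ h1).sub (hlim _ h2)).congr fun l => ?_⟩
      have e1 : pr grp k (t l • c) + (t l * R) • Q.rm grp k =
          t l • (pr grp k c + R • Q.rm grp k) := by
        funext i
        simp only [pr, Pi.add_apply, Pi.smul_apply, smul_eq_mul]
        split_ifs <;> ring
      have e2 : (t l * R) • Q.rm grp k = t l • (R • Q.rm grp k) := by rw [smul_smul]
      have h3 := phi_eq hcone hgeo.room hsep (k := k) (sm c hc l) (R := t l * R)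
        (mul_nonneg (tpos l).le hR) (by rw [e1]; exact sm _ h1 l)
      rw [phi_uniq hgeo H.sum H.loc H.zero hk (sm c hc l), e1, e2] at h3
      rw [h3, sub_div]
    · exact ⟨0, tendsto_const_nhds.congr fun l => by rw [hnull k hk, zero_div]⟩
  set φ2 : κ → (ι → ℝ) → ℝ := fun k c => limUnder atTop (fun l => φ k (t l • c) / t l) with hφ2
  have hl2 : ∀ k, ∀ c ∈ L, Tendsto (fun l => φ k (t l • c) / t l) atTop (𝓝 (φ2 k c)) := by
    intro k c hc
    obtain ⟨y, hy⟩ := hex k c hc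
    have : φ2 k c = y := hy.limUnder_eq
    rw [this]; exact hy
  have hloc : ∀ k c c', (∀ i, grp i = k → c i = c' i) → φ2 k c = φ2 k c' := by
    intro k c c' h
    have e : (fun l => φ k (t l • c) / t l) = fun l => φ k (t l • c') / t l := by
      funext l
      rw [H.loc k (t l • c) (t l • c') fun i hi => by
        rw [Pi.smul_apply, Pi.smul_apply, h i hi]]
    simp only [hφ2, e]
  have hzero : ∀ k c, (∀ i, grp i = k → c i = 0) → φ2 k c = 0 := by
    intro k c h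
    have e : (fun l => φ k (t l • c) / t l) = fun _ => (0:ℝ) := by
      funext l
      rw [H.zero k (t l • c) fun i hi => by rw [Pi.smul_apply, h i hi, smul_zero], zero_div]
    simp only [hφ2, e]
    exact tendsto_const_nhds.limUnder_eq
  have hmono : ∀ k, ∀ c ∈ L, ∀ c' ∈ L, (∀ i, grp i = k → c i ≤ c' i) → 0 ≤ φ2 k c - φ2 k c' ∧
      φ2 k c - φ2 k c' ≤ ∑ i ∈ Finset.univ.filter (fun i => grp i = k), (c' i - c i) := by
    intro k c hc c' hc' h
    have h1 := (hl2 k c hc).sub (hl2 k c' hc')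
    have h2 : ∀ l, 0 ≤ φ k (t l • c) / t l - φ k (t l • c') / t l ∧
        φ k (t l • c) / t l - φ k (t l • c') / t l ≤
          ∑ i ∈ Finset.univ.filter (fun i => grp i = k), (c' i - c i) := by
      intro l
      have htl := tpos l
      have h3 := H.mono k (t l • c) (sm c hc l) (t l • c') (sm c' hc' l) fun i hi => by
        rw [Pi.smul_apply, Pi.smul_apply]
        exact mul_le_mul_of_nonneg_left (h i hi) htl.le
      rw [← sub_div]
      refine ⟨div_nonneg h3.1 htl.le, ?_⟩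
      rw [div_le_iff₀ htl, Finset.sum_mul]
      refine h3.2.trans (le_of_eq (Finset.sum_congr rfl fun i _ => ?_))
      rw [Pi.smul_apply, Pi.smul_apply, smul_eq_mul, smul_eq_mul]; ring
    exact ⟨ge_of_tendsto h1 (Eventually.of_forall fun l => (h2 l).1),
      le_of_tendsto h1 (Eventually.of_forall fun l => (h2 l).2)⟩
  have hsmods : ∀ k, ∀ p ∈ L, ∀ q ∈ L, ∀ s ∈ L, ∀ t' ∈ L,
      (∀ i, grp i = k → s i = min (p i) (q i)) → (∀ i, grp i = k → t' i = max (p i) (q i)) →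
      φ2 k p + φ2 k q ≤ φ2 k t' + φ2 k s := by
    intro k p hp q hq s hs t' ht' h1 h2
    refine le_of_tendsto_of_tendsto ((hl2 k p hp).add (hl2 k q hq))
      ((hl2 k t' ht').add (hl2 k s hs)) (Eventually.of_forall fun l => ?_)
    have htl := tpos l
    have h3 := H.smods k _ (sm p hp l) _ (sm q hq l) _ (sm s hs l) _ (sm t' ht' l)
      (fun i hi => by
        simp only [Pi.smul_apply, smul_eq_mul]
        rw [h1 i hi, mul_min_of_nonneg _ _ htl.le])
      (fun i hi => by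
        simp only [Pi.smul_apply, smul_eq_mul]
        rw [h2 i hi, mul_max_of_nonneg _ _ htl.le])
    show φ k (t l • p) / t l + φ k (t l • q) / t l ≤ φ k (t l • t') / t l + φ k (t l • s) / t l
    rw [← add_div, ← add_div]
    exact div_le_div_of_nonneg_right h3 htl.le
  have hrate : ∀ k, ∀ c ∈ L, ∀ u : ℝ, (∀ i, grp i = k → c i = u * dh i) →
      φ2 k c = -(r k * u) := by
    intro k c hc u h
    refine tendsto_nhds_unique (hl2 k c hc) (tendsto_const_nhds.congr fun l => ?_)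
    rw [H.rate k (t l • c) (sm c hc l) (t l * u) fun i hi => by
      rw [Pi.smul_apply, smul_eq_mul, h i hi]; ring]
    have := (tpos l).ne'
    field_simp
  have hadd : ∀ k, (∀ i, grp i = k → 0 < dh i) → ∀ z, ∀ c ∈ L,
      φ2 k (Tn a b z + c) = φ2 k (Tn a b z) + φ2 k c := by
    intro k hpos z c hc
    have h1 := hl2 k _ (hcone.add _ (hnat z) _ hc)
    have h2 := (hl2 k _ (hnat z)).add (hl2 k _ hc)
    refine tendsto_nhds_unique h1 (h2.congr fun l => ?_)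
    rw [smul_add, ← Rc146.Tn_smul, H.add k hpos _ _ (sm c hc l), add_div]
  refine ⟨φ2, ⟨⟨?_, hloc, hzero, hmono, ?_, hrate, H.r_nonneg, H.r_nonpos, H.total⟩, hadd,
    hsmods, ?_⟩, hl2⟩
  · intro c hc
    refine tendsto_nhds_unique (hlim c hc) ((tendsto_finsetSum _ fun k _ => hl2 k c hc).congr
      fun l => ?_)
    rw [H.sum _ (sm c hc l), Finset.sum_div]
  · intro k p hp q hq h1 h2
    exact hsmods k p hp q hq _ h1 _ h2 (fun i _ => rfl) fun i _ => rfl
  · intro k hpos c hc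
    by_cases hk : k ∈ gset grp
    · obtain ⟨i0, -, hi0⟩ := Finset.mem_image.1 hk
      have hgf : GF grp L a b dh n k (φ2 k) (r k) :=
        { cone := hcone
          sup := fun c hc d hd' w hw => by
            rw [Pi.sup_apply]
            exact sup_le ((hc w hw).trans (Walls.rhs_mono w le_sup_left))
              ((hd' w hw).trans (Walls.rhs_mono w le_sup_right))
          nat := hnat
          eq := fun z i hi => by rw [hd.Tn_eq, hi]
          nk := by rw [← hi0]; exact hd.ne i0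
          pos := hpos
          loc := hloc k
          zero := hzero k 0 fun i _ => rfl
          mono := hmono k
          smod := hsmods k
          rate := hrate k
          stat := fun c hc d hcd y _ z => by
            rw [hadd k hpos z c hc, hadd k hpos z (c + d) hcd]; ring }
      exact hgf.lim hc
    · refine ⟨0, tendsto_const_nhds.congr fun s => ?_⟩
      rw [hzero k (s • c) fun i hi => absurd (by rw [← hi]; exact mem_gset i) hk, zero_div]

end out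

/-! ### joint tangents -/

section joint

variable {m : ℕ} {W : Type*} [Fintype W] {Q : Walls (Fin m) W} {A : W → Prop}
  {P : Set (Fin m → ℝ)} {ν own : (Fin m → ℝ) → ℝ} {K : ℝ} {r0 : Fin m → ℝ} {Tie : Set (Fin m)}
  {kz : Fin m} {o T b : Fin m → ℝ} {x' : ℕ → Fin m → ℝ} {h' : ℕ → ℝ}
  {lam' lo' : (Fin m → ℝ) → ℝ}

/-- a tangent of a tangent at `0`, in scales `g l ≥ 1`, read in a sufficiently fine stage -/
theorem tan_inf {L : Set (Fin m → ℝ)} {f lam lam2 : (Fin m → ℝ) → ℝ} (h0 : (0 : Fin m → ℝ) ∈ L)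
    (hsm : ∀ c ∈ L, ∀ t : ℝ, 0 ≤ t → t • c ∈ L) (hlam0 : lam 0 = 0) {x : ℕ → Fin m → ℝ}
    {h g : ℕ → ℝ} (hpos : ∀ l, 0 < h l) (hg : ∀ l, 1 ≤ g l)
    (H1 : Ex926.IsTan L L lam (fun _ => 0) g lam2) {ψ : ℕ → ℕ}
    (hψ : ∀ n : ℕ, ∀ c ∈ L, ‖c‖ ≤ g n * n → x (ψ n) + h (ψ n) • c ∈ P ∧
      |f (x (ψ n) + h (ψ n) • c) - f (x (ψ n)) - h (ψ n) * lam c| ≤ 1 / ((n : ℝ) + 1) * h (ψ n)) :
    Ex926.IsTan P L f (fun l => x (ψ l)) (fun l => h (ψ l) * g l) lam2 := by
  intro C ε hε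
  obtain ⟨N1, hN1⟩ := exists_nat_gt C
  obtain ⟨N2, hN2⟩ := exists_nat_gt (2 / ε)
  filter_upwards [H1 C (ε / 2) (by positivity), eventually_ge_atTop (max N1 N2)]
    with l hl hlN c hc hcC
  have m1 : (N1 : ℝ) ≤ l := by exact_mod_cast (le_max_left _ _).trans hlN
  have m2 : (N2 : ℝ) ≤ l := by exact_mod_cast (le_max_right _ _).trans hlN
  have hgl : 0 < g l := one_pos.trans_le (hg l)
  have hh := hpos (ψ l)
  have hm : g l • c ∈ L := hsm c hc _ hgl.le
  have hn : ‖g l • c‖ ≤ g l * l := by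
    rw [norm_smul, Real.norm_of_nonneg hgl.le]
    exact mul_le_mul_of_nonneg_left (by linarith) hgl.le
  have a1 := hψ l _ hm hn
  have a2 := (hl c hc hcC).2
  rw [zero_add, hlam0, sub_zero] at a2
  have e1 : x (ψ l) + (h (ψ l) * g l) • c = x (ψ l) + h (ψ l) • (g l • c) := by rw [smul_smul]
  refine ⟨by rw [e1]; exact a1.1, ?_⟩
  rw [e1]
  have b1 := a1.2
  have b3 : |h (ψ l) * (lam (g l • c) - g l * lam2 c)| ≤ h (ψ l) * (ε / 2 * g l) := by
    rw [abs_mul, abs_of_pos hh]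
    exact mul_le_mul_of_nonneg_left a2 hh.le
  have b4 : 1 / ((l : ℝ) + 1) ≤ ε / 2 := by
    rw [div_le_iff₀ (by positivity)]
    rw [div_lt_iff₀ hε] at hN2
    nlinarith
  have b5 : 1 / ((l : ℝ) + 1) * h (ψ l) ≤ ε / 2 * (h (ψ l) * g l) := by
    have c1 : h (ψ l) ≤ h (ψ l) * g l := le_mul_of_one_le_right hh.le (hg l)
    have c2 : 1 / ((l : ℝ) + 1) * h (ψ l) ≤ ε / 2 * h (ψ l) := mul_le_mul_of_nonneg_right b4 hh.le
    have c3 : ε / 2 * h (ψ l) ≤ ε / 2 * (h (ψ l) * g l) :=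
      mul_le_mul_of_nonneg_left c1 (by positivity)
    linarith
  rw [abs_le] at b1 b3 ⊢
  constructor <;> nlinarith [b1.1, b1.2, b3.1, b3.2]

/-- **zoom at infinity of a joint tangent** -/
theorem jt_inf (HJ : JT Q A P ν own r0 x' h' lam' lo') (HB : BaseOk Tie kz o T r0 x' h')
    {g : ℕ → ℝ} (hg : ∀ l, 1 ≤ g l) {lam2 lo2 : (Fin m → ℝ) → ℝ}
    (H1 : Ex926.IsTan (cn Q A) (cn Q A) lam' (fun _ => 0) g lam2)
    (H2 : Ex926.IsTan (cn Q A) (cn Q A) lo' (fun _ => 0) g lo2) :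
    ∃ ψ : ℕ → ℕ, (∀ l, l ≤ ψ l) ∧ JT Q A P ν own r0 (fun l => x' (ψ l)) (fun l => h' (ψ l) * g l)
      lam2 lo2 ∧ BaseOk Tie kz o T r0 (fun l => x' (ψ l)) (fun l => h' (ψ l) * g l) := by
  have key : ∀ n : ℕ, ∃ l : ℕ, n ≤ l ∧ (∀ c ∈ cn Q A, ‖c‖ ≤ g n * n →
      x' l + h' l • c ∈ P ∧ |ν (x' l + h' l • c) - ν (x' l) - h' l * lam' c| ≤
        1 / ((n : ℝ) + 1) * h' l) ∧
      (∀ c ∈ cn Q A, ‖c‖ ≤ g n * n →
      x' l + h' l • c ∈ P ∧ |own (x' l + h' l • c) - own (x' l) - h' l * lo' c| ≤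
        1 / ((n : ℝ) + 1) * h' l) ∧
      h' l * g n ≤ 1 / ((n : ℝ) + 1) ∧
      (∀ w, ¬ A w → x' l (Q.hd w) + (n * g n) * h' l ≤ Q.rhs w (x' l) + Q.cst w) ∧
      (∀ i, i ∈ Tie → o i * T kz < T i →
        x' l i - r0 i + (n * g n) * h' l ≤ o i * (x' l kz - r0 kz)) := by
    intro n
    have hn : (0:ℝ) < 1 / ((n : ℝ) + 1) := by positivity
    have hgn : 0 < g n := one_pos.trans_le (hg n)
    have h1 := HJ.tan (g n * n) _ hn
    have h2 := HJ.tano (g n * n) _ hn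
    have h3 : ∀ᶠ l in atTop, h' l * g n ≤ 1 / ((n : ℝ) + 1) := by
      have := HJ.zero.mul_const (g n)
      rw [zero_mul] at this
      exact this.eventually (eventually_le_nhds hn)
    have h4 : ∀ᶠ l in atTop, ∀ w, ¬ A w →
        x' l (Q.hd w) + (n * g n) * h' l ≤ Q.rhs w (x' l) + Q.cst w := by
      refine eventually_all.2 fun w => ?_
      by_cases hw : A w
      · exact Eventually.of_forall fun l h => absurd hw h
      · exact (HJ.gap w hw (n * g n)).mono fun l hl _ => hl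
    have h5 : ∀ᶠ l in atTop, ∀ i, i ∈ Tie → o i * T kz < T i →
        x' l i - r0 i + (n * g n) * h' l ≤ o i * (x' l kz - r0 kz) := by
      refine eventually_all.2 fun i => ?_
      by_cases hi : i ∈ Tie ∧ o i * T kz < T i
      · exact (HB.slack i hi.1 hi.2 (n * g n)).mono fun l hl _ _ => hl
      · exact Eventually.of_forall fun l h h' => absurd ⟨h, h'⟩ hi
    obtain ⟨l, ⟨⟨⟨⟨a1, a2⟩, a3⟩, a4⟩, a5⟩, a6⟩ :=
      (((((h1.and h2).and h3).and h4).and h5).and (eventually_ge_atTop n)).exists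
    exact ⟨l, a6, a1, a2, a3, a4, a5⟩
  choose ψ hψ h1 h2 h3 h4 h5 using key
  have hψt : Tendsto ψ atTop atTop := tendsto_atTop_mono hψ tendsto_id
  have hgp : ∀ l, 0 < g l := fun l => one_pos.trans_le (hg l)
  have hbig : ∀ R : ℝ, ∀ᶠ l : ℕ in atTop, ∀ y : ℝ, 0 ≤ y →
      R * (y * g l) ≤ (l * g l) * y := by
    intro R
    obtain ⟨N, hN⟩ := exists_nat_gt R
    filter_upwards [eventually_ge_atTop N] with l hl y hy
    have : (N : ℝ) ≤ l := by exact_mod_cast hl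
    have h6 : R * (y * g l) ≤ l * (y * g l) :=
      mul_le_mul_of_nonneg_right (by linarith) (mul_nonneg hy (hgp l).le)
    linarith
  refine ⟨ψ, hψ, ⟨fun l => mul_pos (HJ.pos _) (hgp l), ?_, fun l w hw => HJ.nat _ w hw, ?_,
    HJ.base.comp hψt, ?_, ?_⟩, ?_, ?_, ?_⟩
  · exact squeeze_zero (fun l => (mul_pos (HJ.pos _) (hgp l)).le) h3
      tendsto_one_div_add_atTop_nhds_zero_nat
  · intro w hw R
    filter_upwards [hbig R] with l hl
    have := hl _ (HJ.pos (ψ l)).le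
    have := h4 l w hw
    linarith
  · exact tan_inf cn_zero (fun c hc t ht => cn_smul hc ht) (HJ.tan.zero HJ.pos cn_zero) HJ.pos hg
      H1 h1
  · exact tan_inf cn_zero (fun c hc t ht => cn_smul hc ht) (HJ.tano.zero HJ.pos cn_zero) HJ.pos hg
      H2 h2
  · exact fun l i hi hT => HB.eq _ i hi hT
  · exact fun l i hi hT => HB.le _ i hi hT
  · intro i hi hT R
    filter_upwards [hbig R] with l hl
    have := hl _ (HJ.pos (ψ l)).le
    have := h5 l i hi hT
    linarith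

/-- the scaling limit, pointwise -/
theorem lim_of_tan {L : Set (Fin m → ℝ)} {lam lam2 : (Fin m → ℝ) → ℝ} {g : ℕ → ℝ}
    (hg : ∀ l, 0 < g l) (hlam0 : lam 0 = 0) (H1 : Ex926.IsTan L L lam (fun _ => 0) g lam2)
    {c : Fin m → ℝ} (hc : c ∈ L) : Tendsto (fun l => lam (g l • c) / g l) atTop (𝓝 (lam2 c)) := by
  rw [Metric.tendsto_nhds]
  intro ε hε
  filter_upwards [H1 ‖c‖ (ε / 2) (by positivity)] with l hl
  have h1 := (hl c hc le_rfl).2
  rw [zero_add, hlam0, sub_zero] at h1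
  have h2 := hg l
  rw [Real.dist_eq]
  have e : lam (g l • c) / g l - lam2 c = (lam (g l • c) - g l * lam2 c) / g l := by
    field_simp
  rw [e, abs_div, abs_of_pos h2, div_lt_iff₀ h2]
  refine h1.trans_lt ?_
  nlinarith

/-- **zoom at infinity** of a joint tangent with additive groups -/
theorem exists_inf (hF : ∀ w, A w → ∃ s, Q.co w s ≠ 0) (hT0 : ∀ i, 0 ≤ T i)
    (hT : Nat Q A T) (hb : Nat Q A b) (HJ : JT Q A P ν own r0 x' h' lam' lo')
    (HP : Prf (cn Q A) lam' lo' K) (HB : BaseOk Tie kz o T r0 x' h') {A0 : ℝ × ℝ}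
    {φ : ℕ → (Fin m → ℝ) → ℝ} {rt : ℕ → ℝ}
    (HO : OutA (gC T b) (cn Q A) T b (dhC T b) (nC T b) lam' A0 φ rt) :
    ∃ (g : ℕ → ℝ) (lam2 lo2 : (Fin m → ℝ) → ℝ) (x2 : ℕ → Fin m → ℝ) (h2 : ℕ → ℝ)
      (φ2 : ℕ → (Fin m → ℝ) → ℝ), (∀ l, 1 ≤ g l) ∧ Tendsto g atTop atTop ∧
      (∀ c ∈ cn Q A, Tendsto (fun l => lam' (g l • c) / g l) atTop (𝓝 (lam2 c))) ∧
      (∀ c ∈ cn Q A, Tendsto (fun l => lo' (g l • c) / g l) atTop (𝓝 (lo2 c))) ∧
      JT Q A P ν own r0 x2 h2 lam2 lo2 ∧ BaseOk Tie kz o T r0 x2 h2 ∧ Prf (cn Q A) lam2 lo2 K ∧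
      OutA (gC T b) (cn Q A) T b (dhC T b) (nC T b) lam2 A0 φ2 rt ∧
      ∀ k, ∀ c ∈ cn Q A, Tendsto (fun l => φ k (g l • c) / g l) atTop (𝓝 (φ2 k c)) := by
  classical
  obtain ⟨ψ1, hψ1, lam2, H1⟩ := exists_scale (P := cn Q A) cn_closed HP.K0 HP.lip (X := 0)
    (fun h hh c hc => by rw [zero_add]; exact cn_smul hc hh.le) (g := fun l => (l : ℝ) + 1)
    (fun l => by positivity) cn_zero
  obtain ⟨ψ2, hψ2, lo2, H2⟩ := exists_scale (P := cn Q A) cn_closed HP.K0 HP.olip (X := 0)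
    (fun h hh c hc => by rw [zero_add]; exact cn_smul hc hh.le) (g := fun l => ((ψ1 l : ℕ) : ℝ) + 1)
    (fun l => by positivity) cn_zero
  set g : ℕ → ℝ := fun l => ((ψ1 (ψ2 l) : ℕ) : ℝ) + 1 with hgdef
  have H1' : Ex926.IsTan (cn Q A) (cn Q A) lam' (fun _ => 0) g lam2 :=
    tan_sub H1 hψ2.tendsto_atTop
  have hg1 : ∀ l, 1 ≤ g l := fun l => by
    have : (0:ℝ) ≤ ((ψ1 (ψ2 l) : ℕ) : ℝ) := Nat.cast_nonneg _
    simp only [hgdef]; linarith
  have hgp : ∀ l, 0 < g l := fun l => one_pos.trans_le (hg1 l)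
  have hgt : Tendsto g atTop atTop :=
    (tendsto_atTop_add_const_right _ _
      (tendsto_natCast_atTop_atTop.comp (hψ1.comp hψ2).tendsto_atTop))
  have l0 : lam' 0 = 0 := HJ.tan.zero HJ.pos cn_zero
  have lo0 : lo' 0 = 0 := HJ.tano.zero HJ.pos cn_zero
  obtain ⟨χ, hχ, hJ, hB⟩ := jt_inf HJ HB hg1 H1' H2
  obtain ⟨wv, hGr⟩ := Dg219.exists_grpC (b := b) hT0
  have hgeo := Walls.geoG (Q := wl Q A) (x0 := 0) hGr
    (Dg219.Walls.full_of_co fun w => hF w.1 w.2) (fun _ _ => Iff.rfl)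
  have hL := wl_L hT hb
  have key := outA_scale (wl Q A) (x0 := 0) (a := T) (b := b) hgeo Dg219.dirC
    (lam := lam') (lam2 := lam2) (φ := φ) (r := rt) (A := A0) (t := g)
  rw [hL] at key
  have hlim : ∀ c ∈ cn Q A, Tendsto (fun l => lam' (g l • c) / g l) atTop (𝓝 (lam2 c)) :=
    fun c hc => lim_of_tan hgp l0 H1' hc
  obtain ⟨φ2, hO, hφ⟩ := key HO hgp hlim
  exact ⟨g, lam2, lo2, _, _, φ2, hg1, hgt, hlim, fun c hc => lim_of_tan hgp lo0 H2 hc, hJ, hB,
    HP.tan (x := fun _ => 0) hgp H1' H2, hO, hφ⟩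

/-- an inequality along rays passes to a zoom at infinity, at every scale -/
theorem ray_inf {f f2 : (Fin m → ℝ) → ℝ} {L : Set (Fin m → ℝ)} {g : ℕ → ℝ}
    (hgt : Tendsto g atTop atTop) (hgp : ∀ l, 0 < g l)
    (hsm : ∀ c ∈ L, ∀ t : ℝ, 0 ≤ t → t • c ∈ L)
    (hlim : ∀ c ∈ L, Tendsto (fun l => f (g l • c) / g l) atTop (𝓝 (f2 c))) {c c' : Fin m → ℝ}
    (hc : c ∈ L) (hc' : c' ∈ L) {C e y0 : ℝ}
    (h : ∀ y, y0 ≤ y → C + f (y • c) ≤ f (y • c') + e * y) {s : ℝ} (hs : 0 < s) :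
    f2 (s • c) ≤ f2 (s • c') + e * s := by
  have h1 : Tendsto (fun l => C / g l + f (g l • (s • c)) / g l) atTop (𝓝 (0 + f2 (s • c))) :=
    ((tendsto_const_nhds (x := C)).div_atTop hgt).add (hlim _ (hsm c hc s hs.le))
  rw [zero_add] at h1
  have h2 : Tendsto (fun l => f (g l • (s • c')) / g l + e * s) atTop (𝓝 (f2 (s • c') + e * s)) :=
    (hlim _ (hsm c' hc' s hs.le)).add_const _
  refine le_of_tendsto_of_tendsto h1 h2 ?_
  filter_upwards [hgt.eventually (eventually_ge_atTop (y0 / s))] with l hl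
  have hgl := hgp l
  have h3 : y0 ≤ g l * s := by rwa [div_le_iff₀ hs] at hl
  have h4 := h (g l * s) h3
  rw [smul_smul, smul_smul, ← add_div, div_add' _ _ _ hgl.ne']
  refine div_le_div_of_nonneg_right ?_ hgl.le
  linarith

/-- **zoom at infinity followed by a zoom at `0`** -/
theorem exists_hom_inf (hF : ∀ w, A w → ∃ s, Q.co w s ≠ 0) (hT0 : ∀ i, 0 ≤ T i)
    (hT : Nat Q A T) (hb : Nat Q A b) (HJ : JT Q A P ν own r0 x' h' lam' lo')
    (HP : Prf (cn Q A) lam' lo' K) (HB : BaseOk Tie kz o T r0 x' h') {A0 : ℝ × ℝ}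
    {φ : ℕ → (Fin m → ℝ) → ℝ} {rt : ℕ → ℝ}
    (HO : OutA (gC T b) (cn Q A) T b (dhC T b) (nC T b) lam' A0 φ rt) :
    ∃ (lam2 lo2 : (Fin m → ℝ) → ℝ) (x2 : ℕ → Fin m → ℝ) (h2 : ℕ → ℝ)
      (φ2 : ℕ → (Fin m → ℝ) → ℝ), JT Q A P ν own r0 x2 h2 lam2 lo2 ∧
      BaseOk Tie kz o T r0 x2 h2 ∧ Prf (cn Q A) lam2 lo2 K ∧
      OutA (gC T b) (cn Q A) T b (dhC T b) (nC T b) lam2 A0 φ2 rt ∧
      (∀ k, (∀ i, gC T b i = k → 0 < dhC T b i) → ∀ c ∈ cn Q A, ∀ s : ℝ, 0 ≤ s →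
        φ2 k (s • c) = s * φ2 k c) ∧
      (∀ c ∈ cn Q A, ∀ c' ∈ cn Q A, ∀ C e y0 : ℝ,
        (∀ y, y0 ≤ y → C + lam' (y • c) ≤ lam' (y • c') + e * y) → lam2 c ≤ lam2 c' + e) ∧
      (∀ c ∈ cn Q A, ∀ c' ∈ cn Q A, ∀ C e y0 : ℝ,
        (∀ y, y0 ≤ y → C + lo' (y • c) ≤ lo' (y • c') + e * y) → lo2 c ≤ lo2 c' + e) ∧
      ∀ k ∈ gset (gC T b), ∀ c ∈ cn Q A, ∀ c' ∈ cn Q A, ∀ C e y0 : ℝ,
        (∀ y, y0 ≤ y → C + φ k (y • c) ≤ φ k (y • c') + e * y) → φ2 k c ≤ φ2 k c' + e := by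
  obtain ⟨g, lam1, lo1, x1, h1, φ1, hg1, hgt, hlim, hlimo, hJ1, hB1, hP1, hO1, hφ1⟩ :=
    exists_inf hF hT0 hT hb HJ HP HB HO
  obtain ⟨t, lam2, lo2, x2, h2, φ2, tpos, t0, H1, H2, hJ2, hB2, hP2, hO2, hhom, hφ2⟩ :=
    exists_hom hF hT0 hT hb hJ1 hP1 hB1 hO1
  have hgp : ∀ l, 0 < g l := fun l => one_pos.trans_le (hg1 l)
  have sm : ∀ c ∈ cn Q A, ∀ t : ℝ, 0 ≤ t → t • c ∈ cn Q A := fun c hc t ht => cn_smul hc ht
  have l0 : lam1 0 = 0 := hJ1.tan.zero hJ1.pos cn_zero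
  have lo0 : lo1 0 = 0 := hJ1.tano.zero hJ1.pos cn_zero
  -- second step
  have step : ∀ {f1 f2 : (Fin m → ℝ) → ℝ} {c c' : Fin m → ℝ} {e : ℝ},
      Tendsto (fun l => f1 (t l • c) / t l) atTop (𝓝 (f2 c)) →
      Tendsto (fun l => f1 (t l • c') / t l) atTop (𝓝 (f2 c')) →
      (∀ s, 0 < s → f1 (s • c) ≤ f1 (s • c') + e * s) → f2 c ≤ f2 c' + e := by
    intro f1 f2 c c' e h1 h2 h
    refine le_of_tendsto_of_tendsto h1 (h2.add_const e) (Eventually.of_forall fun l => ?_)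
    have htl := tpos l
    show f1 (t l • c) / t l ≤ f1 (t l • c') / t l + e
    rw [div_add' _ _ _ htl.ne']
    exact div_le_div_of_nonneg_right (h _ htl) htl.le
  refine ⟨lam2, lo2, x2, h2, φ2, hJ2, hB2, hP2, hO2, hhom, ?_, ?_, ?_⟩
  · intro c hc c' hc' C e y0 h
    exact step (lim_of_tan tpos l0 H1 hc) (lim_of_tan tpos l0 H1 hc') fun s hs =>
      ray_inf hgt hgp sm hlim hc hc' h hs
  · intro c hc c' hc' C e y0 h
    exact step (lim_of_tan tpos lo0 H2 hc) (lim_of_tan tpos lo0 H2 hc') fun s hs =>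
      ray_inf hgt hgp sm hlimo hc hc' h hs
  · intro k hk c hc c' hc' C e y0 h
    exact step (hφ2 k hk c hc) (hφ2 k hk c' hc') fun s hs =>
      ray_inf hgt hgp sm (hφ1 k) hc hc' h hs

end joint

/-! ### losses grow in the zoom at infinity -/

section grow

variable {ι κ : Type*} [Fintype ι] [DecidableEq ι] [DecidableEq κ] {grp : ι → κ}
  {L : Set (ι → ℝ)} {a b dh : ι → ℝ} {n : κ → ℝ × ℝ} {k : κ} {φ : (ι → ℝ) → ℝ} {r : ℝ}

/-- **the zoom at infinity bounds the loss from above at every scale** -/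
theorem GA.le_inf (H : GA grp L a b dh n k φ r) {S : Finset ι} (hS : uS dh S ∈ L) {g : ℕ → ℝ}
    (hg : ∀ l, 0 < g l) (hgt : Tendsto g atTop atTop) {e : ℝ}
    (hlim : Tendsto (fun l => φ (g l • uS dh S) / g l) atTop (𝓝 e)) {y : ℝ} (hy : 0 < y) :
    y * e ≤ φ (y • uS dh S) := by
  have h3 : 0 ≤ -φ (y • uS dh S) := by
    have := H.mono_y hS le_rfl hy.le
    rw [zero_smul, H.zero, neg_zero] at this
    exact this
  have h1 : ∀ l, (1 / y - 1 / g l) * -φ (y • uS dh S) ≤ -(φ (g l • uS dh S) / g l) := by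
    intro l
    have hgl := hg l
    set N := ⌊g l / y⌋₊ with hN
    have n1 : (N : ℝ) * y ≤ g l := by
      have := Nat.floor_le (div_nonneg hgl.le hy.le)
      rwa [le_div_iff₀ hy] at this
    have n2 : g l / y - 1 ≤ N := by
      have := Nat.lt_floor_add_one (g l / y)
      linarith
    have a1 := H.super_nat hS hy.le N
    have a2 := H.mono_y hS (by positivity) n1
    have a3 : (g l / y - 1) * -φ (y • uS dh S) ≤ -φ (g l • uS dh S) :=
      (mul_le_mul_of_nonneg_right n2 h3).trans (a1.trans a2)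
    rw [← neg_div, le_div_iff₀ hgl]
    refine le_trans (le_of_eq ?_) a3
    field_simp
  have h2 : Tendsto (fun l => (1 / y - 1 / g l) * -φ (y • uS dh S)) atTop
      (𝓝 ((1 / y - 0) * -φ (y • uS dh S))) :=
    (tendsto_const_nhds.sub (tendsto_const_nhds.div_atTop hgt)).mul tendsto_const_nhds
  have h4 := le_of_tendsto_of_tendsto h2 hlim.neg (Eventually.of_forall h1)
  rw [sub_zero] at h4
  have h5 := mul_le_mul_of_nonneg_left h4 hy.le
  have e1 : y * (1 / y * -φ (y • uS dh S)) = -φ (y • uS dh S) := by field_simp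
  rw [e1] at h5
  linarith

end grow

end Crest.Agent.R136.K2C146
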