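import Crest.Agent.R136.Dg7_219
import Crest.Agent.R138.Zoom_926

/-!
# R136 (helper774): one step of the LADDER — a slot which is constant along a ray costs nothing

`growth`     : a Lipschitz function with `f' ≥ g` a.e. grows by `g (b - a)`.
`zero_loss`  : `φ v s ≤ 0`, `φ v 0 ≥ 0`, `Λ v s h` monotone in `s`; if at a.e. point where `Λ` has
positive upper rate the `s`-derivative of `φ` is `≥ g > 0`, then for a.e. `v` and all `s` in a
wedge `Λ v s h = o(h)`.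
`zero_plane` : the form on a natural plane `X x0 a b` (record line `z00 + ξ r`, ray `- s e`).
`bup_zero`   : consequence for every blow-up at the record point: `lam (c + x e_j) = lam c`.
-/

set_option autoImplicit false
set_option linter.unusedSectionVars false
set_option linter.unusedVariables false

open Set Filter Topology Metric MeasureTheory
open scoped NNReal

namespace Crest.Agent.R136.K2S774

open Dg262 (X X_cont SupOn LegU)
open Dg219 (Tn BUp)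

/-- a Lipschitz function with derivative `≥ g` almost everywhere -/
theorem growth {f : ℝ → ℝ} {C g a b : ℝ} (hC : 0 ≤ C) (hab : a ≤ b)
    (hf : ∀ x ∈ Icc a b, ∀ y ∈ Icc a b, |f x - f y| ≤ C * |x - y|)
    (h : ∀ᵐ x, x ∈ Ioo a b → ∀ d, HasDerivAt f d x → g ≤ d) : f a + g * (b - a) ≤ f b := by
  have hl : LipschitzOnWith (max C.toNNReal (Real.toNNReal |g|)) (fun x => g * x) (Icc a b) := by
    refine LipschitzOnWith.weaken ?_ (le_max_right _ _)
    refine Crest.Agent.R138.Ex926.lip_of_abs (abs_nonneg g) fun x _ y _ => ?_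
    rw [← mul_sub, abs_mul]
  have hf' : LipschitzOnWith (max C.toNNReal (Real.toNNReal |g|)) f (Icc a b) :=
    (Crest.Agent.R138.Ex926.lip_of_abs hC hf).weaken (le_max_left _ _)
  have h1 := Crest.Agent.R138.Ex926.sub_le_sub_of_ae_deriv_le hab hl hf' (by
    filter_upwards [h] with x hx hxI _ hd
    have h2 : deriv (fun x => g * x) x = g := by simp
    rw [h2]
    exact hx hxI _ hd.hasDerivAt)
  have h3 : g * b - g * a ≤ f b - f a := h1
  linarith [mul_sub g b a]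

/-- **the core of one step of the ladder** -/
theorem zero_loss {φ : ℝ → ℝ → ℝ} {Λ : ℝ → ℝ → ℝ → ℝ} {V : Set ℝ} {S g C : ℝ} (hC : 0 ≤ C)
    (hg : 0 < g)
    (hφ : ∀ v ∈ V, φ v S ≤ 0) (hφ0 : ∀ v ∈ V, 0 ≤ φ v 0)
    (hlip : ∀ v ∈ V, ∀ s ∈ Icc 0 S, ∀ s' ∈ Icc 0 S, |φ v s - φ v s'| ≤ C * |s - s'|)
    (hmon : ∀ v ∈ V, ∀ s s', 0 ≤ s → s ≤ s' → s' < S → ∀ᶠ h in 𝓝[>] (0:ℝ), Λ v s h ≤ Λ v s' h)
    (hF : ∀ᵐ z : ℝ × ℝ, z.1 ∈ V → z.2 ∈ Ioo 0 S →
      (∃ c : ℝ, 0 < c ∧ ∃ᶠ h in 𝓝[>] (0:ℝ), c * h ≤ Λ z.1 z.2 h) →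
        ∀ d, HasDerivAt (φ z.1) d z.2 → g ≤ d) :
    ∀ᵐ v, v ∈ V → ∀ s, 0 ≤ s → (C + g) * s < g * S →
      ∀ c : ℝ, 0 < c → ∀ᶠ h in 𝓝[>] (0:ℝ), Λ v s h < c * h := by
  have hF' : ∀ᵐ v : ℝ, ∀ᵐ s : ℝ, v ∈ V → s ∈ Ioo 0 S →
      (∃ c : ℝ, 0 < c ∧ ∃ᶠ h in 𝓝[>] (0:ℝ), c * h ≤ Λ v s h) →
        ∀ d, HasDerivAt (φ v) d s → g ≤ d := by
    have := Measure.ae_ae_of_ae_prod (μ := (volume : Measure ℝ)) (ν := (volume : Measure ℝ))
      (p := fun z : ℝ × ℝ => z.1 ∈ V → z.2 ∈ Ioo 0 S →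
        (∃ c : ℝ, 0 < c ∧ ∃ᶠ h in 𝓝[>] (0:ℝ), c * h ≤ Λ z.1 z.2 h) →
        ∀ d, HasDerivAt (φ z.1) d z.2 → g ≤ d) hF
    exact this
  filter_upwards [hF'] with v hv hvV s0 hs0 hs c hc
  by_contra hcon
  have hfr : ∃ᶠ h in 𝓝[>] (0:ℝ), c * h ≤ Λ v s0 h := by
    rw [Filter.Frequently]
    intro hn
    apply hcon
    filter_upwards [hn] with h hh
    exact not_le.1 hh
  have hS : s0 < S := by
    by_contra hn
    push Not at hn
    have : g * S ≤ g * s0 := mul_le_mul_of_nonneg_left hn hg.le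
    nlinarith [mul_nonneg hC hs0]
  have hS0 : 0 ≤ S := hs0.trans hS.le
  have h1 : φ v s0 + g * (S - s0) ≤ φ v S := by
    refine growth hC hS.le ?_ ?_
    · intro x hx y hy
      exact hlip v hvV x ⟨hs0.trans hx.1, hx.2⟩ y ⟨hs0.trans hy.1, hy.2⟩
    · filter_upwards [hv] with s hs' hsI d hd
      refine hs' hvV ⟨hs0.trans_lt hsI.1, hsI.2⟩ ⟨c, hc, ?_⟩ d hd
      refine (hfr.and_eventually (hmon v hvV s0 s hs0 hsI.1.le hsI.2)).mono ?_
      rintro h ⟨h2, h3⟩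
      exact h2.trans h3
  have h2 := hlip v hvV 0 ⟨le_rfl, hS0⟩ s0 ⟨hs0, hS.le⟩
  rw [zero_sub, abs_neg, abs_of_nonneg hs0] at h2
  have h3 := (abs_le.1 h2).2
  have h4 := hφ0 v hvV
  have h5 := hφ v hvV
  nlinarith

/-- a.e. statements on the plane in the coordinates (record line, ray) -/
theorem ae_lin {p : ℝ × ℝ → Prop} (hp : ∀ᵐ z : ℝ × ℝ, p z) (z00 : ℝ × ℝ) {r e : ℝ × ℝ}
    (hdet : r.1 * e.2 - r.2 * e.1 ≠ 0) : ∀ᵐ q : ℝ × ℝ, p (z00 + q.1 • r - q.2 • e) := by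
  obtain ⟨L, hL⟩ : ∃ L : (ℝ × ℝ) →ₗ[ℝ] (ℝ × ℝ), ∀ q, L q = q.1 • r - q.2 • e := by
    refine ⟨(LinearMap.fst ℝ ℝ ℝ).smulRight r - (LinearMap.snd ℝ ℝ ℝ).smulRight e, fun q => ?_⟩
    simp
  have hinj : Function.Injective L := by
    rw [injective_iff_map_eq_zero]
    intro q hq
    rw [hL] at hq
    have h1 : q.1 * r.1 - q.2 * e.1 = 0 := by
      have := congrArg Prod.fst hq
      simpa using this
    have h2 : q.1 * r.2 - q.2 * e.2 = 0 := by
      have := congrArg Prod.snd hq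
      simpa using this
    have h3 : q.1 * (r.1 * e.2 - r.2 * e.1) = 0 := by linear_combination e.2 * h1 - e.1 * h2
    have h4 : q.2 * (r.1 * e.2 - r.2 * e.1) = 0 := by linear_combination r.2 * h1 - r.1 * h2
    exact Prod.ext ((mul_eq_zero.1 h3).resolve_right hdet) ((mul_eq_zero.1 h4).resolve_right hdet)
  set Le : (ℝ × ℝ) ≃ₗ[ℝ] (ℝ × ℝ) := LinearMap.linearEquivOfInjective L hinj rfl with hLe
  have hp' : ∀ᵐ z : ℝ × ℝ, p (z00 + z) := by
    rw [ae_iff] at hp ⊢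
    have h1 : {z : ℝ × ℝ | ¬ p (z00 + z)} = (fun z => z00 + z) ⁻¹' {z | ¬ p z} := rfl
    rw [h1, measure_preimage_add]
    exact hp
  rw [ae_iff] at hp' ⊢
  have h1 : {q : ℝ × ℝ | ¬ p (z00 + q.1 • r - q.2 • e)} = Le ⁻¹' {z | ¬ p (z00 + z)} := by
    ext q
    simp only [mem_setOf_eq, mem_preimage]
    rw [hLe, LinearMap.linearEquivOfInjective_apply, hL, add_sub_assoc]
  rw [h1, Measure.addHaar_preimage_linearEquiv, hp', mul_zero]

/-- point of the plane: record parameter `ξ`, distance `s` along the ray -/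
def pt (z00 r e : ℝ × ℝ) (ξ s : ℝ) : ℝ × ℝ := z00 + ξ • r - s • e

section plane

variable {ι : Type*} [Fintype ι] [DecidableEq ι] {P L : Set (ι → ℝ)} {ν : (ι → ℝ) → ℝ}
  {x0 a b : ι → ℝ} {z00 r e : ℝ × ℝ}

theorem X_pt (ξ s i) : X x0 a b (pt z00 r e ξ s) i =
    X x0 a b (pt z00 r e ξ 0) i - s * Tn a b e i := by
  simp only [X, pt, Tn, Prod.fst_add, Prod.fst_sub, Prod.snd_add, Prod.snd_sub, Prod.smul_fst,
    Prod.smul_snd, smul_eq_mul]
  ring

/-- legal set, plane, record line, ray.  `m0 ξ + μ s` = D-max exponent at the point `(ξ, s)`. -/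
structure Ray (P : Set (ι → ℝ)) (ν : (ι → ℝ) → ℝ) (x0 a b : ι → ℝ) (z00 r e : ℝ × ℝ)
    (m0 : ℝ → ℝ) (μ : ℝ) (V : Set ℝ) (S K : ℝ) : Prop where
  det : r.1 * e.2 - r.2 * e.1 ≠ 0
  K0 : 0 ≤ K
  lip : ∀ p ∈ P, ∀ q ∈ P, |ν p - ν q| ≤ K * dist p q
  leg : ∀ ξ ∈ V, ∀ s, 0 ≤ s → s ≤ S → X x0 a b (pt z00 r e ξ s) ∈ P
  dmax : ∀ ξ ∈ V, ν (X x0 a b (pt z00 r e ξ S)) ≤ m0 ξ + μ * S
  rcd : ∀ ξ ∈ V, m0 ξ ≤ ν (X x0 a b (pt z00 r e ξ 0))

/-- data of one step of the ladder: everything is coarser along the ray, the slot `j` is constant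
along the ray. -/
structure Step (P : Set (ι → ℝ)) (ν : (ι → ℝ) → ℝ) (x0 a b : ι → ℝ) (z00 r e : ℝ × ℝ)
    (m0 : ℝ → ℝ) (μ : ℝ) (V : Set ℝ) (S K : ℝ) (j : ι) : Prop
    extends Ray P ν x0 a b z00 r e m0 μ V S K where
  ray : ∀ i, 0 ≤ Tn a b e i
  slot : Tn a b e j = 0
  mono : ∀ p ∈ P, ∀ q ∈ P, p ≤ q → ν q ≤ ν p
  sup : SupOn ν P
  legj : ∀ ξ ∈ V, ∀ s, 0 ≤ s → s < S → ∃ h0 : ℝ, 0 < h0 ∧ ∀ h, 0 ≤ h → h ≤ h0 →
    X x0 a b (pt z00 r e ξ s) + h • Dg219.e j ∈ P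

/-- loss of the slot `j` at the point `z` -/
noncomputable def loss (ν : (ι → ℝ) → ℝ) (x0 a b : ι → ℝ) (j : ι) (z : ℝ × ℝ) (h : ℝ) : ℝ :=
  ν (X x0 a b z) - ν (X x0 a b z + h • Dg219.e j)

variable {m0 : ℝ → ℝ} {μ : ℝ} {V : Set ℝ} {S K g : ℝ} {j : ι}

theorem Ray.lip_pt (H : Ray P ν x0 a b z00 r e m0 μ V S K) {v : ℝ} (hv : v ∈ V) {s s' : ℝ}
    (hs : s ∈ Icc 0 S) (hs' : s' ∈ Icc 0 S) :
    |(ν (X x0 a b (pt z00 r e v s)) - m0 v - μ * s) -
      (ν (X x0 a b (pt z00 r e v s')) - m0 v - μ * s')| ≤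
        (K * ‖Tn a b e‖ + |μ|) * |s - s'| := by
  have h1 := H.lip _ (H.leg v hv s hs.1 hs.2) _ (H.leg v hv s' hs'.1 hs'.2)
  have h2 : dist (X x0 a b (pt z00 r e v s)) (X x0 a b (pt z00 r e v s')) ≤
      ‖Tn a b e‖ * |s - s'| := by
    rw [dist_pi_le_iff (by positivity)]
    intro i
    rw [Real.dist_eq, X_pt v s i, X_pt v s' i]
    have e1 : X x0 a b (pt z00 r e v 0) i - s * Tn a b e i -
        (X x0 a b (pt z00 r e v 0) i - s' * Tn a b e i) = - (Tn a b e i * (s - s')) := by ring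
    rw [e1, abs_neg, abs_mul]
    refine mul_le_mul_of_nonneg_right ?_ (abs_nonneg _)
    rw [← Real.norm_eq_abs]; exact norm_le_pi_norm (Tn a b e) i
  have h3 : K * dist (X x0 a b (pt z00 r e v s)) (X x0 a b (pt z00 r e v s')) ≤
      K * ‖Tn a b e‖ * |s - s'| := by
    rw [mul_assoc]; exact mul_le_mul_of_nonneg_left h2 H.K0
  have e2 : ν (X x0 a b (pt z00 r e v s)) - m0 v - μ * s -
      (ν (X x0 a b (pt z00 r e v s')) - m0 v - μ * s') =
      (ν (X x0 a b (pt z00 r e v s)) - ν (X x0 a b (pt z00 r e v s'))) - μ * (s - s') := by ring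
  rw [e2]
  refine (abs_sub _ _).trans ?_
  rw [abs_mul, add_mul]
  exact add_le_add (h1.trans h3) le_rfl

theorem deriv_pt {D : ℝ × ℝ →L[ℝ] ℝ} {v s : ℝ}
    (hD : HasFDerivAt (fun z => ν (X x0 a b z)) D (pt z00 r e v s)) (m0 : ℝ → ℝ) (μ : ℝ) :
    HasDerivAt (fun s => ν (X x0 a b (pt z00 r e v s)) - m0 v - μ * s) (- D e - μ) s := by
  have hc : HasDerivAt (fun s => pt z00 r e v s) (-e) s := by
    have h2 : HasDerivAt (fun s : ℝ => s • e) ((1:ℝ) • e) s := (hasDerivAt_id s).smul_const e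
    have h3 := h2.const_sub (z00 + v • r)
    rw [one_smul] at h3
    exact h3
  have h4 : HasDerivAt (fun s => ν (X x0 a b (pt z00 r e v s))) (D (-e)) s :=
    HasFDerivAt.comp_hasDerivAt s (f := fun s => pt z00 r e v s) hD hc
  have h6 := (h4.sub_const (m0 v)).sub ((hasDerivAt_id s).const_mul μ)
  rw [mul_one, map_neg] at h6
  exact h6

theorem Step.loss_mono (H : Step P ν x0 a b z00 r e m0 μ V S K j) {ξ : ℝ} (hξ : ξ ∈ V) {s s' : ℝ}
    (hs : 0 ≤ s) (hss : s ≤ s') (hs' : s' < S) :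
    ∃ h0 : ℝ, 0 < h0 ∧ ∀ h, 0 ≤ h → h ≤ h0 →
      loss ν x0 a b j (pt z00 r e ξ s) h ≤ loss ν x0 a b j (pt z00 r e ξ s') h := by
  obtain ⟨h1, h10, H1⟩ := H.legj ξ hξ s hs (hss.trans_lt hs')
  obtain ⟨h2, h20, H2⟩ := H.legj ξ hξ s' (hs.trans hss) hs'
  refine ⟨min h1 h2, lt_min h10 h20, fun h hh hhm => ?_⟩
  have m1 := H1 h hh (hhm.trans (min_le_left _ _))
  have m2 := H2 h hh (hhm.trans (min_le_right _ _))
  have m3 := H.leg ξ hξ s hs (hss.trans hs'.le)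
  have m4 := H.leg ξ hξ s' (hs.trans hss) hs'.le
  have e1 : (X x0 a b (pt z00 r e ξ s') + h • Dg219.e j) ⊓ X x0 a b (pt z00 r e ξ s) =
      X x0 a b (pt z00 r e ξ s') := by
    funext i
    simp only [Pi.inf_apply, Pi.add_apply, Pi.smul_apply, smul_eq_mul]
    rw [X_pt ξ s i, X_pt ξ s' i]
    by_cases hij : i = j
    · subst hij
      rw [Dg219.e_same, H.slot, mul_one, mul_zero, mul_zero]
      exact min_eq_right (by linarith)
    · rw [Dg219.e_ne hij, mul_zero, add_zero]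
      exact min_eq_left (by nlinarith [H.ray i])
  have e2 : (X x0 a b (pt z00 r e ξ s') + h • Dg219.e j) ⊔ X x0 a b (pt z00 r e ξ s) =
      X x0 a b (pt z00 r e ξ s) + h • Dg219.e j := by
    funext i
    simp only [Pi.sup_apply, Pi.add_apply, Pi.smul_apply, smul_eq_mul]
    rw [X_pt ξ s i, X_pt ξ s' i]
    by_cases hij : i = j
    · subst hij
      rw [Dg219.e_same, H.slot, mul_one, mul_zero, mul_zero]
      exact max_eq_left (by linarith)
    · rw [Dg219.e_ne hij, mul_zero, add_zero, add_zero]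
      exact max_eq_right (by nlinarith [H.ray i])
  have h5 := H.sup _ m2 _ m3 (by rw [e1]; exact m4) (by rw [e2]; exact m1)
  rw [e1, e2] at h5
  unfold loss
  linarith

/-- **one step of the ladder on a natural plane** -/
theorem Step.zero (H : Step P ν x0 a b z00 r e m0 μ V S K j) (hg : 0 < g) {O : Set (ℝ × ℝ)}
    (hO : ∀ ξ ∈ V, ∀ s, 0 < s → s < S → pt z00 r e ξ s ∈ O)
    (hF : ∀ᵐ z : ℝ × ℝ, z ∈ O → ∃ D : ℝ × ℝ →L[ℝ] ℝ,
      HasFDerivAt (fun z => ν (X x0 a b z)) D z ∧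
      ((∃ c : ℝ, 0 < c ∧ ∃ᶠ h in 𝓝[>] (0:ℝ), c * h ≤ loss ν x0 a b j z h) →
        g ≤ - D e - μ)) :
    ∀ᵐ ξ, ξ ∈ V → ∀ s, 0 ≤ s → (K * ‖Tn a b e‖ + |μ| + g) * s < g * S →
      ∀ c : ℝ, 0 < c → ∀ᶠ h in 𝓝[>] (0:ℝ), loss ν x0 a b j (pt z00 r e ξ s) h < c * h := by
  have hC : 0 ≤ K * ‖Tn a b e‖ + |μ| :=
    add_nonneg (mul_nonneg H.K0 (norm_nonneg _)) (abs_nonneg _)
  have hae := ae_lin hF z00 H.det
  refine zero_loss (φ := fun ξ s => ν (X x0 a b (pt z00 r e ξ s)) - m0 ξ - μ * s)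
    (Λ := fun ξ s h => loss ν x0 a b j (pt z00 r e ξ s) h) (V := V) (S := S) hC hg ?_ ?_ ?_ ?_ ?_
  · intro v hv
    have := H.dmax v hv
    show ν (X x0 a b (pt z00 r e v S)) - m0 v - μ * S ≤ 0
    linarith
  · intro v hv
    have := H.rcd v hv
    show 0 ≤ ν (X x0 a b (pt z00 r e v 0)) - m0 v - μ * 0
    linarith
  · intro v hv s hs s' hs'
    exact H.lip_pt hv hs hs'
  · intro v hv s s' hs hss hs'
    obtain ⟨h0, h00, H0⟩ := H.loss_mono hv hs hss hs'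
    have : ∀ᶠ h in 𝓝[>] (0:ℝ), h ∈ Ioo (0:ℝ) h0 := Ioo_mem_nhdsGT h00
    filter_upwards [this] with h hh
    exact H0 h hh.1.le hh.2.le
  · filter_upwards [hae] with z hz hzV hzS hfr d hd
    obtain ⟨D, hD, hD2⟩ := hz (hO z.1 hzV z.2 hzS.1 hzS.2)
    rw [hd.unique (deriv_pt hD m0 μ)]
    exact hD2 hfr

/-- **the last rung**: left slope `≥ g` almost everywhere is impossible -/
theorem Ray.dead (H : Ray P ν x0 a b z00 r e m0 μ V S K) (hg : 0 < g) (hS : 0 < S)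
    {O : Set (ℝ × ℝ)} (hO : ∀ ξ ∈ V, ∀ s, 0 < s → s < S → pt z00 r e ξ s ∈ O)
    (hF : ∀ᵐ z : ℝ × ℝ, z ∈ O → ∃ D : ℝ × ℝ →L[ℝ] ℝ,
      HasFDerivAt (fun z => ν (X x0 a b z)) D z ∧ g ≤ - D e - μ) :
    ∀ᵐ ξ, ξ ∉ V := by
  have hC : 0 ≤ K * ‖Tn a b e‖ + |μ| :=
    add_nonneg (mul_nonneg H.K0 (norm_nonneg _)) (abs_nonneg _)
  have hae := Measure.ae_ae_of_ae_prod (μ := (volume : Measure ℝ)) (ν := (volume : Measure ℝ))
    (ae_lin hF z00 H.det)
  filter_upwards [hae] with v hv hvV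
  have h1 := growth (f := fun s => ν (X x0 a b (pt z00 r e v s)) - m0 v - μ * s) (g := g) hC
    hS.le (fun x hx y hy => H.lip_pt hvV hx hy) (by
      filter_upwards [hv] with s hs hsI d hd
      obtain ⟨D, hD, hD2⟩ := hs (hO v hvV s hsI.1 hsI.2)
      rw [hd.unique (deriv_pt hD m0 μ)]
      exact hD2)
  have h2 := H.dmax v hvV
  have h3 := H.rcd v hvV
  simp only [mul_zero, sub_zero] at h1
  nlinarith [mul_pos hg hS]

/-- **consequence for blow-ups at the record point**: the slot `j` costs nothing, to every depth, in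
every box which is finer than a point of the ray -/
theorem Step.bup (H : Step P ν x0 a b z00 r e m0 μ V S K j) {ξ s0 : ℝ} (hξ : ξ ∈ V)
    (hs0 : 0 < s0) (hs0S : s0 < S)
    (hz : ∀ c : ℝ, 0 < c → ∀ᶠ h in 𝓝[>] (0:ℝ), loss ν x0 a b j (pt z00 r e ξ s0) h < c * h)
    {hl : ℕ → ℝ} {lam : (ι → ℝ) → ℝ} (hb : BUp P L ν (X x0 a b (pt z00 r e ξ 0)) hl lam)
    {c : ι → ℝ} {x s : ℝ} (hc : c ∈ L) (hcx : c + x • Dg219.e j ∈ L) (hx : 0 ≤ x) (hcj : 0 ≤ c j)
    (hs : 0 ≤ s) (hcs : ∀ i, -(s * Tn a b e i) ≤ c i) :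
    lam (c + x • Dg219.e j) = lam c := by
  have hlim := hb.sub hc hcx
  obtain ⟨h0, h00, H0⟩ := H.legj ξ hξ s0 hs0.le hs0S
  have hnh : Tendsto hl atTop (𝓝[>] 0) :=
    tendsto_nhdsWithin_iff.2 ⟨hb.zero, Eventually.of_forall fun l => hb.pos l⟩
  -- upper bound
  have hup : ∀ ε : ℝ, 0 < ε → lam c - lam (c + x • Dg219.e j) ≤ ε := by
    intro ε hε
    set y := c j + x with hy
    have hy0 : 0 ≤ y := by linarith
    have hev : ∀ᶠ l in atTop, loss ν x0 a b j (pt z00 r e ξ s0) (hl l * (y + 1)) <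
        ε / (y + 1) * (hl l * (y + 1)) := by
      have h1 := hz (ε / (y + 1)) (by positivity)
      have h2 : Tendsto (fun l => hl l * (y + 1)) atTop (𝓝[>] 0) := by
        refine tendsto_nhdsWithin_iff.2 ⟨?_, Eventually.of_forall fun l => ?_⟩
        · have := hb.zero.mul_const (y + 1)
          rwa [zero_mul] at this
        · exact mul_pos (hb.pos l) (by linarith)
      exact h2.eventually h1
    have hsm : ∀ᶠ l in atTop, hl l * s ≤ s0 ∧ hl l * (y + 1) ≤ h0 := by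
      have h1 : Tendsto (fun l => hl l * s) atTop (𝓝 0) := by
        have := hb.zero.mul_const s
        rwa [zero_mul] at this
      have h2 : Tendsto (fun l => hl l * (y + 1)) atTop (𝓝 0) := by
        have := hb.zero.mul_const (y + 1)
        rwa [zero_mul] at this
      exact (h1.eventually (eventually_le_nhds hs0)).and (h2.eventually (eventually_le_nhds h00))
    refine le_of_tendsto hlim ?_
    filter_upwards [hev, hsm, hb.mem c hc, hb.mem _ hcx] with l h1 h2 m1 m2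
    have hp := hb.pos l
    rw [div_le_iff₀ hp]
    set Z := X x0 a b (pt z00 r e ξ s0) with hZ
    set p0 := X x0 a b (pt z00 r e ξ 0) with hp0
    have hZi : ∀ i, Z i = p0 i - s0 * Tn a b e i := fun i => X_pt ξ s0 i
    have hb1 : hl l * c j ≤ hl l * (y + 1) := by
      apply mul_le_mul_of_nonneg_left _ hp.le; linarith
    have hb2 : hl l * y ≤ hl l * (y + 1) := by
      apply mul_le_mul_of_nonneg_left _ hp.le; linarith
    have m3 : Z + (hl l * c j) • Dg219.e j ∈ P :=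
      H0 _ (mul_nonneg hp.le hcj) (hb1.trans h2.2)
    have m4 : Z + (hl l * y) • Dg219.e j ∈ P :=
      H0 _ (mul_nonneg hp.le hy0) (hb2.trans h2.2)
    have m5 : Z + (hl l * (y + 1)) • Dg219.e j ∈ P :=
      H0 _ (mul_nonneg hp.le (by linarith)) h2.2
    have m6 : Z ∈ P := H.leg ξ hξ s0 hs0.le hs0S.le
    have hge : ∀ i, Z i ≤ p0 i + hl l * c i := by
      intro i
      rw [hZi i]
      have h3 := mul_le_mul_of_nonneg_left (hcs i) hp.le
      have h4 : hl l * s * Tn a b e i ≤ s0 * Tn a b e i :=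
        mul_le_mul_of_nonneg_right h2.1 (H.ray i)
      nlinarith
    have hZj : Z j = p0 j := by rw [hZi j, H.slot, mul_zero, sub_zero]
    have e1 : (Z + (hl l * y) • Dg219.e j) ⊓ (p0 + hl l • c) =
        Z + (hl l * c j) • Dg219.e j := by
      funext i
      simp only [Pi.inf_apply, Pi.add_apply, Pi.smul_apply, smul_eq_mul]
      by_cases hij : i = j
      · subst hij
        rw [Dg219.e_same, mul_one, mul_one, hZj]
        exact min_eq_right (by rw [hy]; nlinarith [mul_nonneg hp.le hx])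
      · rw [Dg219.e_ne hij, mul_zero, mul_zero, add_zero]
        exact min_eq_left (hge i)
    have e2 : (Z + (hl l * y) • Dg219.e j) ⊔ (p0 + hl l • c) =
        p0 + hl l • (c + x • Dg219.e j) := by
      funext i
      simp only [Pi.sup_apply, Pi.add_apply, Pi.smul_apply, smul_eq_mul]
      by_cases hij : i = j
      · subst hij
        rw [Dg219.e_same, mul_one, mul_one, hZj, ← hy]
        exact max_eq_left (by rw [hy]; nlinarith [mul_nonneg hp.le hx])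
      · rw [Dg219.e_ne hij, mul_zero, mul_zero, add_zero, add_zero]
        exact max_eq_right (hge i)
    have h5 := H.sup _ m4 _ m1 (by rw [e1]; exact m3) (by rw [e2]; exact m2)
    rw [e1, e2] at h5
    have h6 : ν (Z + (hl l * c j) • Dg219.e j) ≤ ν Z := by
      refine H.mono _ m6 _ m3 fun i => ?_
      simp only [Pi.add_apply, Pi.smul_apply, smul_eq_mul]
      have : 0 ≤ Dg219.e j i := by
        by_cases hij : i = j
        · subst hij; rw [Dg219.e_same]; exact zero_le_one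
        · rw [Dg219.e_ne hij]
      have := mul_nonneg (mul_nonneg hp.le hcj) this
      linarith
    have h7 : ν (Z + (hl l * (y + 1)) • Dg219.e j) ≤ ν (Z + (hl l * y) • Dg219.e j) := by
      refine H.mono _ m4 _ m5 fun i => ?_
      simp only [Pi.add_apply, Pi.smul_apply, smul_eq_mul]
      have : 0 ≤ Dg219.e j i := by
        by_cases hij : i = j
        · subst hij; rw [Dg219.e_same]; exact zero_le_one
        · rw [Dg219.e_ne hij]
      have := mul_le_mul_of_nonneg_right hb2 this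
      linarith
    have h8 : ε / (y + 1) * (hl l * (y + 1)) = ε * hl l := by
      have : y + 1 ≠ 0 := by linarith
      field_simp
    rw [h8] at h1
    unfold loss at h1
    rw [← hZ] at h1
    linarith
  have hlow : 0 ≤ lam c - lam (c + x • Dg219.e j) := by
    refine ge_of_tendsto hlim ?_
    filter_upwards [hb.mem c hc, hb.mem _ hcx] with l m1 m2
    refine div_nonneg ?_ (hb.pos l).le
    refine sub_nonneg.2 (H.mono _ m1 _ m2 fun i => ?_)
    simp only [Pi.add_apply, Pi.smul_apply, smul_eq_mul]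
    have : 0 ≤ Dg219.e j i := by
      by_cases hij : i = j
      · subst hij; rw [Dg219.e_same]; exact zero_le_one
      · rw [Dg219.e_ne hij]
    have := mul_nonneg (hb.pos l).le (mul_nonneg hx this)
    linarith
  have := le_of_forall_pos_le_add (a := lam c - lam (c + x • Dg219.e j)) (b := 0)
    (fun ε hε => by rw [zero_add]; exact hup ε hε)
  linarith

end plane

end Crest.Agent.R136.K2S774
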