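import Crest.Agent.R136.Net2b_191
import Crest.Agent.R138.Qf7_926

/-!
# R136: zoom windows of profiles on nets (helper926), part 1

* `NProf` : the profile of 191's nets in one structure (`exists_nprof'`, `NProf.refine`).
* `ZWin` : a zoomed profile (`exists_zwin`), counts in balls (`ZWin.near_up`, `ZWin.near_num`).
* `ZCls` : honest classes (`ZWin.exists_zcls`), numbers of labels inside (`ZCls.up_count`,
  `ZCls.low_count`, `ZCls.child_count`).
-/

set_option autoImplicit false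
set_option linter.unusedSectionVars false
set_option linter.unusedVariables false

open Filter Topology

namespace Crest.Agent.R136.Qg926

open Finset Crest.Agent.R138.Ex926 Crest.Agent.R136.Net191

variable {m : ℕ} {ι : ℕ → Type*} [∀ n, DecidableEq (ι n)]

/-! ### the profile -/

/-- the profile of `J ⊆ I` on the nets of the charts -/
structure NProf (B : Base) (I J : ∀ n, Finset (ι n)) (co : ∀ n, ι n → ι n → Fin m → ℝ)
    (M : Mons m) (C R : ℝ) (ν : (Fin m → ℝ) → ℝ) : Prop where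
  chart : ∀ n, Chart (I n) (co n) M C
  R0 : 0 ≤ R
  sub : ∀ᶠ n in (U : Filter ℕ), J n ⊆ I n
  ne : ∀ᶠ n in (U : Filter ℕ), (J n).Nonempty
  prof : QProf B J (nlab B I co M C) (Leg M R) ν
  lip : ∀ p ∈ Leg M R, ∀ q ∈ Leg M R, |ν p - ν q| ≤ m * ‖p - q‖
  anti : ∀ p ∈ Leg M R, ∀ q ∈ Leg M R, p ≤ q → ν q ≤ ν p
  sharp : ∀ p ∈ Leg M R, ∀ q ∈ Leg M R, p ≤ q → ν p - ν q ≤ ∑ s, (q s - p s)
  submod : ∀ p ∈ Leg M R, ∀ q ∈ Leg M R, p ⊓ q ∈ Leg M R →
    ν p + ν q ≤ ν (p ⊔ q) + ν (p ⊓ q)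

theorem exists_nprof' {B : Base} {I : ∀ n, Finset (ι n)} {co : ∀ n, ι n → ι n → Fin m → ℝ}
    {M : Mons m} {C : ℝ} (h : ∀ n, Chart (I n) (co n) M C) {R : ℝ} (hR : 0 ≤ R)
    (hI : ∀ᶠ n in (U : Filter ℕ), (I n).Nonempty) {c : ℝ} (hc : 0 ≤ c)
    (hcard : ∀ᶠ n in (U : Filter ℕ), ((I n).card : ℝ) ≤ B.d n ^ (-c)) :
    ∃ (J : ∀ n, Finset (ι n)) (S : ℕ → ℝ) (ν : (Fin m → ℝ) → ℝ), B.Sub S ∧
      (∀ᶠ n in (U : Filter ℕ), ((I n).card : ℝ) ≤ S n * (J n).card ∧ 1 ≤ S n) ∧
      NProf B I J co M C R ν := by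
  obtain ⟨J, S, hS, h1, ν, h2, h3, h4, h5⟩ := exists_nprof h hR hI hc hcard
  exact ⟨J, S, ν, hS, h1.mono fun n hn => ⟨hn.2.2.1, hn.2.2.2⟩,
    { chart := h, R0 := hR, sub := h1.mono fun n hn => hn.1, ne := h1.mono fun n hn => hn.2.1
      prof := h2, lip := h3, anti := fun p hp q hq hpq => (h4 p hp q hq hpq).1
      sharp := fun p hp q hq hpq => (h4 p hp q hq hpq).2, submod := h5 }⟩

/-- a dense subset has the same profile -/
theorem qprof_dense {B : Base} {κ : ℕ → Type*} [∀ n, DecidableEq (κ n)] {V : Type*} [LE V]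
    {J J' : ∀ n, Finset (ι n)} {f : ∀ n, V → ι n → κ n} {P : Set V} {ν : V → ℝ}
    (h : QProf B J f P ν) (hsub : ∀ᶠ n in (U : Filter ℕ), J' n ⊆ J n) {S : ℕ → ℝ} (hS : B.Sub S)
    (hd : ∀ᶠ n in (U : Filter ℕ), ((J n).card : ℝ) ≤ S n * (J' n).card) : QProf B J' f P ν where
  up := fun ε hε => by
    filter_upwards [h.up ε hε, hsub] with n h1 h2 p hp i hi
    refine le_trans ?_ (h1 p hp i (h2 hi))
    exact_mod_cast card_le_card (cls_mono h2 _ _)
  num := fun ε hε => by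
    filter_upwards [h.num ε hε, hsub] with n h1 h2 q hq p hp hqp i hi
    refine le_trans ?_ (h1 q hq p hp hqp i (h2 hi))
    exact_mod_cast card_le_card (image_subset_image (cls_mono h2 _ _))
  root := fun ε hε => by
    filter_upwards [h.root (ε / 2) (by positivity), hsub, hd, hS.ev_le (ε := ε / 2) (by positivity)]
      with n h1 h2 h3 h4 p hp
    have e0 : 0 < B.d n ^ (ν p - ε / 2) := Real.rpow_pos_of_pos (B.pos n) _
    have h5 : S n ≤ B.d n ^ (-(ε / 2)) := by
      rw [← B.exp_eq, ← Real.log_le_iff_le_exp h4.1]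
      exact h4.2
    calc (((J' n).image (f n p)).card : ℝ) ≤ (((J n).image (f n p)).card : ℝ) := by
          exact_mod_cast card_le_card (image_subset_image h2)
      _ ≤ (J n).card * B.d n ^ (ν p - ε / 2) := h1 p hp
      _ ≤ (S n * (J' n).card) * B.d n ^ (ν p - ε / 2) := mul_le_mul_of_nonneg_right h3 e0.le
      _ ≤ (B.d n ^ (-(ε / 2)) * (J' n).card) * B.d n ^ (ν p - ε / 2) := by
          refine mul_le_mul_of_nonneg_right ?_ e0.le
          exact mul_le_mul_of_nonneg_right h5 (Nat.cast_nonneg _)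
      _ = (J' n).card * (B.d n ^ (-(ε / 2)) * B.d n ^ (ν p - ε / 2)) := by ring
      _ = (J' n).card * B.d n ^ (ν p - ε) := by
          rw [← Real.rpow_add (B.pos n)]; congr 2; ring

theorem NProf.refine {B : Base} {I J J' : ∀ n, Finset (ι n)}
    {co : ∀ n, ι n → ι n → Fin m → ℝ} {M : Mons m} {C R : ℝ} {ν : (Fin m → ℝ) → ℝ}
    (h : NProf B I J co M C R ν) (hsub : ∀ᶠ n in (U : Filter ℕ), J' n ⊆ J n)
    (hne : ∀ᶠ n in (U : Filter ℕ), (J' n).Nonempty) {S : ℕ → ℝ} (hS : B.Sub S)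
    (hd : ∀ᶠ n in (U : Filter ℕ), ((J n).card : ℝ) ≤ S n * (J' n).card) :
    NProf B I J' co M C R ν :=
  { chart := h.chart, R0 := h.R0, sub := by filter_upwards [hsub, h.sub] with n a b using a.trans b
    ne := hne, prof := qprof_dense h.prof hsub hS hd, lip := h.lip, anti := h.anti
    sharp := h.sharp, submod := h.submod }

/-! ### zoom windows -/

/-- the label at the exponents `X n + w n • c` -/
noncomputable abbrev zlab (B : Base) (I : ∀ n, Finset (ι n)) (co : ∀ n, ι n → ι n → Fin m → ℝ)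
    (M : Mons m) (C : ℝ) (X : ℕ → Fin m → ℝ) (w : ℕ → ℝ) (n : ℕ) (c : Fin m → ℝ) : ι n → ι n :=
  nlab B I co M C n (X n + w n • c)

/-- **zoom window**: base points `X n`, scales `w n`, directions `D`; `T n` = size of the class at
`X n`, the class at `X n + w n • c` has size `T n * d' ^ (-lam c)`. -/
structure ZWin (B B' : Base) (I J : ∀ n, Finset (ι n)) (co : ∀ n, ι n → ι n → Fin m → ℝ)
    (M : Mons m) (C : ℝ) (X : ℕ → Fin m → ℝ) (w : ℕ → ℝ) (D : Set (Fin m → ℝ)) (T : ℕ → ℝ)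
    (lam : (Fin m → ℝ) → ℝ) : Prop where
  chart : ∀ n, Chart (I n) (co n) M C
  sub : ∀ᶠ n in (U : Filter ℕ), J n ⊆ I n
  ne : ∀ᶠ n in (U : Filter ℕ), (J n).Nonempty
  w0 : ∀ n, 0 < w n
  base : ∀ n, B'.d n = B.d n ^ w n
  zero : (0 : Fin m → ℝ) ∈ D
  legal : ∀ K : ℝ, ∀ᶠ n in (U : Filter ℕ), ∀ c ∈ D, ‖c‖ ≤ K → Legal M (X n + w n • c)
  prof : ZProf B' J (zlab B I co M C X w) D T lam
  lam0 : lam 0 = 0
  T0 : ∀ n, 0 < T n
  lip : ∀ c ∈ D, ∀ c' ∈ D, |lam c - lam c'| ≤ m * ‖c - c'‖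
  anti : ∀ c ∈ D, ∀ c' ∈ D, c ≤ c' → lam c' ≤ lam c
  sharp : ∀ c ∈ D, ∀ c' ∈ D, c ≤ c' → lam c - lam c' ≤ ∑ s, (c' s - c s)
  submod : ∀ c ∈ D, ∀ c' ∈ D, c ⊓ c' ∈ D → c ⊔ c' ∈ D → lam c + lam c' ≤ lam (c ⊔ c') + lam (c ⊓ c')

theorem add_smul_mono {X : Fin m → ℝ} {w : ℝ} (hw : 0 ≤ w) {c c' : Fin m → ℝ} (h : c ≤ c') :
    X + w • c ≤ X + w • c' := by
  intro s
  have := mul_le_mul_of_nonneg_left (h s) hw
  simp only [Pi.add_apply, Pi.smul_apply, smul_eq_mul]
  linarith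

theorem tan_sharp {P D : Set (Fin m → ℝ)} {ν lam : (Fin m → ℝ) → ℝ} {y : ℕ → Fin m → ℝ}
    {h : ℕ → ℝ} (ht : IsTan P D ν y h lam) (hpos : ∀ l, 0 < h l)
    (hν : ∀ p ∈ P, ∀ q ∈ P, p ≤ q → ν p - ν q ≤ ∑ s, (q s - p s)) :
    ∀ c ∈ D, ∀ c' ∈ D, c ≤ c' → lam c - lam c' ≤ ∑ s, (c' s - c s) := by
  intro c hc c' hc' hcc
  refine le_of_forall_pos_le_add fun ε hε => ?_
  obtain ⟨l, ⟨h1, h2⟩, ⟨h3, h4⟩⟩ := ((ht.ev hc (ε := ε / 2) (by positivity)).and
    (ht.ev hc' (ε := ε / 2) (by positivity))).exists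
  have h5 := hν _ h1 _ h3 (add_smul_mono (hpos l).le hcc)
  have e1 : ∑ s, ((y l + h l • c') s - (y l + h l • c) s) = h l * ∑ s, (c' s - c s) := by
    rw [mul_sum]
    refine sum_congr rfl fun s _ => ?_
    simp only [Pi.add_apply, Pi.smul_apply, smul_eq_mul]; ring
  rw [e1] at h5
  have hl := hpos l
  have key : h l * (lam c - lam c') ≤ h l * (∑ s, (c' s - c s) + ε) := by
    rw [abs_le] at h2 h4
    nlinarith
  exact le_of_mul_le_mul_left key hl

/-- **the zoom windows of a blow-up sequence** -/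
theorem exists_zwin {B : Base} {I J : ∀ n, Finset (ι n)} {co : ∀ n, ι n → ι n → Fin m → ℝ}
    {M : Mons m} {C R : ℝ} {ν : (Fin m → ℝ) → ℝ} (hN : NProf B I J co M C R ν)
    {x : ℕ → Fin m → ℝ} {h : ℕ → ℝ} (hpos : ∀ l, 0 < h l) {D : Set (Fin m → ℝ)}
    (h0 : (0 : Fin m → ℝ) ∈ D) {lam : (Fin m → ℝ) → ℝ} (htan : IsTan (Leg M R) D ν x h lam)
    (s : ℕ → ℕ → ℝ) (hs : ∀ i, B.Sub (s i)) :
    ∃ k : ℕ → ℕ, Tendsto k U atTop ∧ ∀ k' : ℕ → ℕ, Tendsto k' U atTop →
      (∀ᶠ n in (U : Filter ℕ), k' n ≤ k n) → ∃ B' : Base,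
        (∀ n, B'.d n = B.d n ^ h (k' n)) ∧ (∀ n, B'.L n = h (k' n) * B.L n) ∧
        (∀ i, B'.Sub (s i)) ∧
        ZWin B B' I J co M C (fun n => x (k' n)) (fun n => h (k' n)) D
          (fun n => B.d n ^ (-(ν (x (k' n))))) lam := by
  obtain ⟨k, hk, hk2⟩ := exists_qzoom B (J := Unit) (I := J) (κ := fun _ => ι)
    (f := fun _ => nlab B I co M C) (P := fun _ => Leg M R) (D := fun _ => D)
    (ν := fun _ => ν) (lam := fun _ => lam) (fun _ => hN.prof) (x := x) (h := h) hpos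
    (fun _ => h0) (fun _ => htan) s hs
  refine ⟨k, hk, fun k' hk' hle => ?_⟩
  obtain ⟨B', b1, b2, b3, b4⟩ := hk2 k' hk' hle
  exact ⟨B', b1, b2, b3,
    { chart := hN.chart, sub := hN.sub, ne := hN.ne, w0 := fun n => hpos _, base := b1, zero := h0
      legal := fun K => by
        filter_upwards [hk'.eventually (htan K 1 one_pos)] with n hn c hc hcK
        exact (hn c hc hcK).1.1
      prof := b4 ()
      lam0 := htan.zero hpos h0
      T0 := fun n => Real.rpow_pos_of_pos (B.pos n) _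
      lip := htan.lip hpos hN.lip
      anti := htan.anti hpos (fun l c c' hcc => add_smul_mono (hpos l).le hcc) hN.anti
      sharp := tan_sharp htan hpos hN.sharp
      submod := fun c hc c' hc' hi hsup => htan.submod hpos
        (fun p hp q hq hpq _ => hN.submod p hp q hq hpq) hc hc' hi hsup }⟩

section

variable {B B' : Base} {I J J' : ∀ n, Finset (ι n)} {co : ∀ n, ι n → ι n → Fin m → ℝ}
  {M : Mons m} {C : ℝ} {X : ℕ → Fin m → ℝ} {w : ℕ → ℝ} {D : Set (Fin m → ℝ)} {T : ℕ → ℝ}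
  {lam : (Fin m → ℝ) → ℝ}

/-- a dense subset gives the same window -/
theorem ZWin.refine (h : ZWin B B' I J co M C X w D T lam)
    (hsub : ∀ᶠ n in (U : Filter ℕ), J' n ⊆ J n)
    (hne : ∀ᶠ n in (U : Filter ℕ), (J' n).Nonempty) {S : ℕ → ℝ} (hS : B'.Sub S)
    (hd : ∀ᶠ n in (U : Filter ℕ), ((J n).card : ℝ) ≤ S n * (J' n).card) :
    ZWin B B' I J' co M C X w D T lam :=
  { chart := h.chart, sub := by filter_upwards [hsub, h.sub] with n a b using a.trans b
    ne := hne, w0 := h.w0, base := h.base, zero := h.zero, legal := h.legal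
    prof :=
      { up := fun K ε hε => by
          filter_upwards [h.prof.up K ε hε, hsub] with n h1 h2 p hp hpK i hi
          refine le_trans ?_ (h1 p hp hpK i (h2 hi))
          exact_mod_cast card_le_card (cls_mono h2 _ _)
        num := fun K ε hε => by
          filter_upwards [h.prof.num K ε hε, hsub] with n h1 h2 q hq hqK p hp hpK hqp i hi
          refine le_trans ?_ (h1 q hq hqK p hp hpK hqp i (h2 hi))
          exact_mod_cast card_le_card (image_subset_image (cls_mono h2 _ _))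
        root := fun K ε hε => by
          filter_upwards [h.prof.root K (ε / 2) (by positivity), hsub, hd,
            hS.ev_le (ε := ε / 2) (by positivity)] with n h1 h2 h3 h4 p hp hpK
          have e0 : 0 < B'.d n ^ (lam p - ε / 2) := Real.rpow_pos_of_pos (B'.pos n) _
          have h5 : S n ≤ B'.d n ^ (-(ε / 2)) := by
            rw [← B'.exp_eq, ← Real.log_le_iff_le_exp h4.1]
            exact h4.2
          calc (((J' n).image (zlab B I co M C X w n p)).card : ℝ) * T n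
              ≤ (((J n).image (zlab B I co M C X w n p)).card : ℝ) * T n := by
                refine mul_le_mul_of_nonneg_right ?_ (h.T0 n).le
                exact_mod_cast card_le_card (image_subset_image h2)
            _ ≤ (J n).card * B'.d n ^ (lam p - ε / 2) := h1 p hp hpK
            _ ≤ (S n * (J' n).card) * B'.d n ^ (lam p - ε / 2) :=
                mul_le_mul_of_nonneg_right h3 e0.le
            _ ≤ (B'.d n ^ (-(ε / 2)) * (J' n).card) * B'.d n ^ (lam p - ε / 2) := by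
                refine mul_le_mul_of_nonneg_right ?_ e0.le
                exact mul_le_mul_of_nonneg_right h5 (Nat.cast_nonneg _)
            _ = (J' n).card * (B'.d n ^ (-(ε / 2)) * B'.d n ^ (lam p - ε / 2)) := by ring
            _ = (J' n).card * B'.d n ^ (lam p - ε) := by
                rw [← Real.rpow_add (B'.pos n)]; congr 2; ring }
    lam0 := h.lam0, T0 := h.T0, lip := h.lip, anti := h.anti, sharp := h.sharp
    submod := h.submod }

theorem ZWin.d_eq (h : ZWin B B' I J co M C X w D T lam) (n : ℕ) (c : Fin m → ℝ) (s : Fin m) :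
    B.d n ^ (X n + w n • c) s = B.d n ^ X n s * B'.d n ^ c s := by
  rw [h.base n, ← Real.rpow_mul (B.pos n).le, ← Real.rpow_add (B.pos n)]
  rfl

/-- the box of window exponents `c` around `i`, constant `K` -/
def wbox (B B' : Base) (co : ∀ n, ι n → ι n → Fin m → ℝ) (X : ℕ → Fin m → ℝ) (n : ℕ)
    (c : Fin m → ℝ) (K : ℝ) (i j : ι n) : Prop :=
  ∀ s, |co n i j s| ≤ K * (B.d n ^ X n s * B'.d n ^ c s)

theorem ZWin.near_iff (h : ZWin B B' I J co M C X w D T lam) {n : ℕ} {c : Fin m → ℝ} {K : ℝ}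
    {i j : ι n} : Near (co n) (B.d n) (X n + w n • c) K i j ↔ wbox B B' co X n c K i j := by
  unfold Near wbox
  simp only [h.d_eq]

/-- equal labels are near -/
theorem ZWin.near_of_zlab (h : ZWin B B' I J co M C X w D T lam) {n : ℕ} {c : Fin m → ℝ}
    (hc : Legal M (X n + w n • c)) {i j : ι n} (hi : i ∈ I n) (hj : j ∈ I n)
    (hl : zlab B I co M C X w n c i = zlab B I co M C X w n c j) :
    wbox B B' co X n c (cK0 M C) i j :=
  h.near_iff.1 (near_of_nlab h.chart hc hi hj hl)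

open Classical in
/-- number of `c`-labels in a `c`-box -/
theorem ZWin.card_zlab_le (h : ZWin B B' I J co M C X w D T lam) {n : ℕ} {c c' : Fin m → ℝ}
    (hcc : c ≤ c') (hc : Legal M (X n + w n • c)) (hc' : Legal M (X n + w n • c')) {K : ℝ}
    (hK : 1 ≤ K) {i : ι n} (hi : i ∈ I n) :
    ((((I n).filter fun j => wbox B B' co X n c K i j).image (zlab B I co M C X w n c')).card : ℝ) ≤
      cN M C K * B'.d n ^ (-(∑ s, (c' s - c s))) := by
  have h1 := card_nlab_le (B := B) h.chart hc hc' (add_smul_mono (h.w0 n).le hcc) hK hi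
  have e1 : ((I n).filter fun j => wbox B B' co X n c K i j) =
      (I n).filter fun j => Near (co n) (B.d n) (X n + w n • c) K i j := by
    refine filter_congr fun j _ => ?_
    rw [h.near_iff]
  rw [e1]
  refine h1.trans (le_of_eq ?_)
  congr 1
  rw [h.base n, ← Real.rpow_mul (B.pos n).le]
  congr 1
  rw [mul_neg, mul_sum]
  congr 1
  refine sum_congr rfl fun s _ => ?_
  simp only [Pi.add_apply, Pi.smul_apply, smul_eq_mul]; ring

theorem ev_const_le (B : Base) {c : ℝ} (hc : 0 < c) {ε : ℝ} (hε : 0 < ε) :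
    ∀ᶠ n in (U : Filter ℕ), c ≤ B.d n ^ (-ε) := by
  filter_upwards [B.ev_const_log (Real.log c) hε] with n hn
  rw [← B.exp_eq, ← Real.log_le_iff_le_exp hc]
  exact hn

open Classical in
/-- number of points of `J` in a box -/
theorem ZWin.near_up (h : ZWin B B' I J co M C X w D T lam) {K : ℝ} (hK : 1 ≤ K) (R : ℝ) {ε : ℝ}
    (hε : 0 < ε) : ∀ᶠ n in (U : Filter ℕ), ∀ c ∈ D, ‖c‖ ≤ R → ∀ i ∈ I n,
      (((J n).filter fun j => wbox B B' co X n c K i j).card : ℝ) ≤
        T n * B'.d n ^ (-(lam c + ε)) := by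
  have hN : 0 < cN M C K := cN_pos M (h.chart 0).C0 hK
  filter_upwards [h.sub, h.prof.up R (ε / 2) (by positivity), h.legal R,
    ev_const_le B' hN (ε := ε / 2) (by positivity)] with n h1 h2 h3 h4 c hc hcR i hi
  set A := (J n).filter fun j => wbox B B' co X n c K i j with hA
  have hpos : ∀ t : ℝ, 0 < B'.d n ^ t := fun t => Real.rpow_pos_of_pos (B'.pos n) t
  have c1 := le_count_mul A (fun _ => (1 : ℝ)) (zlab B I co M C X w n c)
    (m := T n * B'.d n ^ (-(lam c + ε / 2))) (fun x hx => by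
      rw [sum_const, nsmul_eq_mul, mul_one]
      refine le_trans ?_ (h2 c hc hcR x (mem_filter.1 hx).1)
      exact_mod_cast card_le_card (cls_mono (filter_subset _ _) _ _))
  rw [sum_const, nsmul_eq_mul, mul_one] at c1
  have c2 : ((A.image (zlab B I co M C X w n c)).card : ℝ) ≤ cN M C K := by
    have h5 := h.card_zlab_le le_rfl (h3 c hc hcR) (h3 c hc hcR) hK hi
    simp only [sub_self, sum_const_zero, neg_zero, Real.rpow_zero, mul_one] at h5
    refine le_trans ?_ h5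
    exact_mod_cast card_le_card (image_subset_image (filter_subset_filter _ h1))
  have hT := h.T0 n
  calc (A.card : ℝ) ≤ T n * B'.d n ^ (-(lam c + ε / 2)) * cN M C K :=
        c1.trans (mul_le_mul_of_nonneg_left c2 (mul_pos hT (hpos _)).le)
    _ ≤ T n * B'.d n ^ (-(lam c + ε / 2)) * B'.d n ^ (-(ε / 2)) :=
        mul_le_mul_of_nonneg_left h4 (mul_pos hT (hpos _)).le
    _ = T n * B'.d n ^ (-(lam c + ε)) := by
        rw [mul_assoc, ← Real.rpow_add (B'.pos n)]; congr 2; ring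

open Classical in
/-- number of `c'`-labels of `J` in a `c`-box -/
theorem ZWin.near_num (h : ZWin B B' I J co M C X w D T lam) {K : ℝ} (hK : 1 ≤ K) (R : ℝ) {ε : ℝ}
    (hε : 0 < ε) : ∀ᶠ n in (U : Filter ℕ), ∀ c ∈ D, ‖c‖ ≤ R → ∀ c' ∈ D, ‖c'‖ ≤ R → c ≤ c' →
      ∀ i ∈ I n, ((((J n).filter fun j => wbox B B' co X n c K i j).image
        (zlab B I co M C X w n c')).card : ℝ) ≤ B'.d n ^ (-(lam c - lam c' + ε)) := by
  have hN : 0 < cN M C K := cN_pos M (h.chart 0).C0 hK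
  filter_upwards [h.sub, h.prof.num R (ε / 2) (by positivity), h.legal R,
    ev_const_le B' hN (ε := ε / 2) (by positivity)] with n h1 h2 h3 h4 c hc hcR c' hc' hcR' hcc i hi
  set A := (J n).filter fun j => wbox B B' co X n c K i j with hA
  have hpos : ∀ t : ℝ, 0 < B'.d n ^ t := fun t => Real.rpow_pos_of_pos (B'.pos n) t
  have c1 : ((A.image (zlab B I co M C X w n c')).card : ℝ) ≤
      B'.d n ^ (-(lam c - lam c' + ε / 2)) * (A.image (zlab B I co M C X w n c)).card := by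
    refine card_image_le_mul _ _ _ fun x hx => ?_
    refine le_trans ?_ (h2 c hc hcR c' hc' hcR' hcc x (mem_filter.1 hx).1)
    exact_mod_cast card_le_card (image_subset_image (cls_mono (filter_subset _ _) _ _))
  have c2 : ((A.image (zlab B I co M C X w n c)).card : ℝ) ≤ cN M C K := by
    have h5 := h.card_zlab_le le_rfl (h3 c hc hcR) (h3 c hc hcR) hK hi
    simp only [sub_self, sum_const_zero, neg_zero, Real.rpow_zero, mul_one] at h5
    refine le_trans ?_ h5
    exact_mod_cast card_le_card (image_subset_image (filter_subset_filter _ h1))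
  calc ((A.image (zlab B I co M C X w n c')).card : ℝ)
      ≤ B'.d n ^ (-(lam c - lam c' + ε / 2)) * cN M C K :=
        c1.trans (mul_le_mul_of_nonneg_left c2 (hpos _).le)
    _ ≤ B'.d n ^ (-(lam c - lam c' + ε / 2)) * B'.d n ^ (-(ε / 2)) :=
        mul_le_mul_of_nonneg_left h4 (hpos _).le
    _ = B'.d n ^ (-(lam c - lam c' + ε)) := by
        rw [← Real.rpow_add (B'.pos n)]; congr 1; ring

/-! ### classes -/

/-- **honest classes**: `Cl n ⊆ J n` has one label at the base point and (almost) the maximal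
size -/
structure ZCls (B B' : Base) (I J : ∀ n, Finset (ι n)) (co : ∀ n, ι n → ι n → Fin m → ℝ)
    (M : Mons m) (C : ℝ) (X : ℕ → Fin m → ℝ) (w : ℕ → ℝ) (D : Set (Fin m → ℝ)) (T : ℕ → ℝ)
    (lam : (Fin m → ℝ) → ℝ) (Cl : ∀ n, Finset (ι n)) (s₀ : ∀ n, ι n) : Prop
    extends ZWin B B' I J co M C X w D T lam where
  csub : ∀ᶠ n in (U : Filter ℕ), Cl n ⊆ J n
  mem : ∀ᶠ n in (U : Filter ℕ), s₀ n ∈ Cl n
  clab : ∀ᶠ n in (U : Filter ℕ), ∀ i ∈ Cl n, ∀ j ∈ Cl n,
    zlab B I co M C X w n 0 i = zlab B I co M C X w n 0 j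
  big : ∀ ε : ℝ, 0 < ε → ∀ᶠ n in (U : Filter ℕ), T n * B'.d n ^ ε ≤ ((Cl n).card : ℝ)

/-- **choice of the classes**: classes of points of `E` inside `Gd`, where `E ⊆ Gd ⊆ J` is dense in
`J` -/
theorem ZWin.exists_zcls (h : ZWin B B' I J co M C X w D T lam) (i₀ : ∀ n, ι n)
    {Gd E : ∀ n, Finset (ι n)}
    (hGd : ∀ᶠ n in (U : Filter ℕ), Gd n ⊆ J n) (hE : ∀ᶠ n in (U : Filter ℕ), E n ⊆ Gd n)
    {S : ℕ → ℝ} (hS : B'.Sub S)
    (hd : ∀ᶠ n in (U : Filter ℕ), ((J n).card : ℝ) ≤ S n * (E n).card) :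
    ∃ s₀ : ∀ n, ι n, (∀ᶠ n in (U : Filter ℕ), s₀ n ∈ E n) ∧
      ZCls B B' I J co M C X w D T lam
        (fun n => cls (Gd n) (zlab B I co M C X w n 0) (s₀ n)) s₀ := by
  classical
  have hbigk : ∀ l : ℕ, ∀ᶠ n in (U : Filter ℕ), ∃ s ∈ E n,
      T n * B'.d n ^ (1 / ((l : ℝ) + 1)) ≤
        ((cls (Gd n) (zlab B I co M C X w n 0) s).card : ℝ) := by
    intro l
    set ε : ℝ := 1 / ((l : ℝ) + 1) with hε
    have hε0 : 0 < ε := by positivity
    filter_upwards [hGd, hE, h.ne, hd, h.prof.root 0 (ε / 4) (by positivity),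
      hS.ev_le (ε := ε / 4) (by positivity),
      B'.ev_rpow_small (η := ε / 2) (c := 1 / 2) (by positivity) (by norm_num)] with
      n g1 g2 g3 g4 g5 g6 g7
    have hp : ∀ s : ℝ, 0 < B'.d n ^ s := fun s => Real.rpow_pos_of_pos (B'.pos n) s
    have hTn := h.T0 n
    have hSn : S n ≤ B'.d n ^ (-(ε / 4)) := by
      rw [← B'.exp_eq, ← Real.log_le_iff_le_exp g6.1]
      exact g6.2
    have hJ : (0 : ℝ) < (J n).card := by exact_mod_cast card_pos.2 g3
    have hE0 : (0 : ℝ) < (E n).card := by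
      rcases Nat.eq_zero_or_pos (E n).card with h0 | h0
      · rw [h0] at g4; simp at g4; exfalso; rw [g4] at hJ; simp at hJ
      · exact_mod_cast h0
    have h4 := g5 0 h.zero (by rw [norm_zero])
    rw [h.lam0] at h4
    by_contra hcon
    push Not at hcon
    have c1 := card_small_cls (Gd n) (zlab B I co M C X w n 0)
      (s := T n * B'.d n ^ ε) (mul_pos hTn (hp _)).le
    have c2 : ((E n).card : ℝ) ≤ ((Gd n).filter fun i =>
        ((cls (Gd n) (zlab B I co M C X w n 0) i).card : ℝ) < T n * B'.d n ^ ε).card := by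
      refine Nat.cast_le.2 (card_le_card fun i hi => mem_filter.2 ⟨g2 hi, hcon i hi⟩)
    have c3 : (((Gd n).image (zlab B I co M C X w n 0)).card : ℝ) ≤
        (((J n).image (zlab B I co M C X w n 0)).card : ℝ) := by
      exact_mod_cast card_le_card (image_subset_image g1)
    have e1 : B'.d n ^ ε * (B'.d n ^ (-(ε / 4)) * B'.d n ^ (0 - ε / 4)) = B'.d n ^ (ε / 2) := by
      rw [← Real.rpow_add (B'.pos n), ← Real.rpow_add (B'.pos n)]; congr 1; ring
    have c4 : ((E n).card : ℝ) ≤ (E n).card * (1 / 2) := by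
      calc ((E n).card : ℝ) ≤ T n * B'.d n ^ ε *
            (((J n).image (zlab B I co M C X w n 0)).card : ℝ) :=
            (c2.trans c1).trans (mul_le_mul_of_nonneg_left c3 (mul_pos hTn (hp _)).le)
        _ = B'.d n ^ ε * ((((J n).image (zlab B I co M C X w n 0)).card : ℝ) * T n) := by ring
        _ ≤ B'.d n ^ ε * ((J n).card * B'.d n ^ (0 - ε / 4)) :=
            mul_le_mul_of_nonneg_left h4 (hp _).le
        _ ≤ B'.d n ^ ε * ((B'.d n ^ (-(ε / 4)) * (E n).card) * B'.d n ^ (0 - ε / 4)) := by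
            refine mul_le_mul_of_nonneg_left ?_ (hp _).le
            refine mul_le_mul_of_nonneg_right ?_ (hp _).le
            exact g4.trans (mul_le_mul_of_nonneg_right hSn (Nat.cast_nonneg _))
        _ = (E n).card * (B'.d n ^ ε * (B'.d n ^ (-(ε / 4)) * B'.d n ^ (0 - ε / 4))) := by ring
        _ = (E n).card * B'.d n ^ (ε / 2) := by rw [e1]
        _ ≤ (E n).card * (1 / 2) := mul_le_mul_of_nonneg_left g7 (Nat.cast_nonneg _)
    linarith
  obtain ⟨k, hk, hk2⟩ := exists_diag _ hbigk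
  have hex : ∀ᶠ n in (U : Filter ℕ), ∃ s ∈ E n,
      T n * B'.d n ^ (1 / (((k n : ℕ) : ℝ) + 1)) ≤
        ((cls (Gd n) (zlab B I co M C X w n 0) s).card : ℝ) := hk2.mono fun n hn => hn _ le_rfl
  set s₀ : ∀ n, ι n := fun n => if h : ∃ s ∈ E n,
      T n * B'.d n ^ (1 / (((k n : ℕ) : ℝ) + 1)) ≤
        ((cls (Gd n) (zlab B I co M C X w n 0) s).card : ℝ) then h.choose else i₀ n with hs₀
  have hspec : ∀ᶠ n in (U : Filter ℕ), s₀ n ∈ E n ∧
      T n * B'.d n ^ (1 / (((k n : ℕ) : ℝ) + 1)) ≤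
        ((cls (Gd n) (zlab B I co M C X w n 0) (s₀ n)).card : ℝ) := by
    filter_upwards [hex] with n hn
    simp only [hs₀, dif_pos hn]
    exact hn.choose_spec
  refine ⟨s₀, hspec.mono fun n hn => hn.1,
    { h with
      csub := ?_
      mem := ?_
      clab := ?_
      big := fun ε hε => ?_ }⟩
  · filter_upwards [hGd] with n h1 using (cls_subset _ _ _).trans h1
  · filter_upwards [hspec, hE] with n h1 h2 using self_mem_cls (h2 h1.1)
  · exact Eventually.of_forall fun n i hi j hj => (mem_cls.1 hi).2.trans (mem_cls.1 hj).2.symm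
  · obtain ⟨N, hN⟩ := exists_nat_gt (1 / ε)
    filter_upwards [hspec, hk.eventually_ge_atTop N] with n h1 h2
    refine le_trans ?_ h1.2
    refine mul_le_mul_of_nonneg_left ?_ (h.T0 n).le
    refine Real.rpow_le_rpow_of_exponent_ge (B'.pos n) (B'.lt n).le ?_
    have h3 : (N : ℝ) ≤ k n := by exact_mod_cast h2
    rw [div_le_iff₀ (by positivity)]
    rw [div_lt_iff₀ hε] at hN
    nlinarith

variable {Cl : ∀ n, Finset (ι n)} {s₀ : ∀ n, ι n}

/-- all coordinates inside the class are bounded by the natural sides -/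
theorem ZCls.cls_near (h : ZCls B B' I J co M C X w D T lam Cl s₀) :
    ∀ᶠ n in (U : Filter ℕ), ∀ i ∈ Cl n, ∀ j ∈ Cl n, ∀ s,
      |co n i j s| ≤ cK0 M C * B.d n ^ X n s := by
  filter_upwards [h.sub, h.csub, h.clab, h.legal 0] with n h1 h2 h3 h4 i hi j hj s
  have h5 := h.near_of_zlab (h4 0 h.zero (by rw [norm_zero])) (h1 (h2 hi)) (h1 (h2 hj))
    (h3 i hi j hj) s
  simpa using h5

/-- number of labels: upper bound -/
theorem ZCls.up_count (h : ZCls B B' I J co M C X w D T lam Cl s₀) (R : ℝ) {ε : ℝ} (hε : 0 < ε) :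
    ∀ᶠ n in (U : Filter ℕ), ∀ c ∈ D, 0 ≤ c → ‖c‖ ≤ R →
      (((Cl n).image (zlab B I co M C X w n c)).card : ℝ) ≤ B'.d n ^ (lam c - ε) := by
  filter_upwards [h.csub, h.mem, h.clab, h.prof.num (max R 0) ε hε] with n h1 h2 h3 h4 c hc hc0 hcR
  have h5 := h4 0 h.zero (by rw [norm_zero]; exact le_max_right _ _) c hc
    (hcR.trans (le_max_left _ _)) hc0 (s₀ n) (h1 h2)
  rw [h.lam0] at h5
  refine le_trans ?_ (h5.trans (le_of_eq ?_))
  · refine Nat.cast_le.2 (card_le_card (image_subset_image fun i hi => ?_))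
    exact mem_cls.2 ⟨h1 hi, h3 i hi _ h2⟩
  · congr 1; ring

/-- number of labels: lower bound -/
theorem ZCls.low_count (h : ZCls B B' I J co M C X w D T lam Cl s₀) (R : ℝ) {ε : ℝ} (hε : 0 < ε) :
    ∀ᶠ n in (U : Filter ℕ), ∀ c ∈ D, ‖c‖ ≤ R →
      B'.d n ^ (lam c + ε) ≤ (((Cl n).image (zlab B I co M C X w n c)).card : ℝ) := by
  filter_upwards [h.csub, h.prof.up R (ε / 2) (by positivity), h.big (ε / 2) (by positivity)] with
    n h1 h2 h3 c hc hcR
  have h4 := le_count_mul (Cl n) (fun _ => (1 : ℝ))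
    (zlab B I co M C X w n c) (m := T n * B'.d n ^ (-(lam c + ε / 2)))
    (fun s hs => by
      rw [sum_const, nsmul_eq_mul, mul_one]
      refine le_trans ?_ (h2 c hc hcR s (h1 hs))
      exact_mod_cast card_le_card (cls_mono h1 _ _))
  rw [sum_const, nsmul_eq_mul, mul_one] at h4
  have hT := h.T0 n
  have hd := Real.rpow_pos_of_pos (B'.pos n) (lam c + ε / 2)
  have h5 : T n * B'.d n ^ (ε / 2) ≤ T n * (B'.d n ^ (-(lam c + ε / 2)) *
      (((Cl n).image (zlab B I co M C X w n c)).card : ℝ)) := by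
    rw [← mul_assoc]; exact h3.trans h4
  have h6 := le_of_mul_le_mul_left h5 hT
  have h7 := mul_le_mul_of_nonneg_left h6 hd.le
  have e1 : B'.d n ^ (lam c + ε / 2) * B'.d n ^ (ε / 2) = B'.d n ^ (lam c + ε) := by
    rw [← Real.rpow_add (B'.pos n)]; congr 1; ring
  have e2 : B'.d n ^ (lam c + ε / 2) * (B'.d n ^ (-(lam c + ε / 2)) *
      (((Cl n).image (zlab B I co M C X w n c)).card : ℝ)) =
      (((Cl n).image (zlab B I co M C X w n c)).card : ℝ) := by
    rw [← mul_assoc, ← Real.rpow_add (B'.pos n)]; simp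
  rw [e1, e2] at h7
  exact h7

open Classical in
/-- number of `c'`-labels of the class in a `c`-box -/
theorem ZCls.child_count (h : ZCls B B' I J co M C X w D T lam Cl s₀) {K : ℝ} (hK : 1 ≤ K)
    (R : ℝ) {ε : ℝ} (hε : 0 < ε) : ∀ᶠ n in (U : Filter ℕ), ∀ c ∈ D, ‖c‖ ≤ R → ∀ c' ∈ D,
      ‖c'‖ ≤ R → c ≤ c' → ∀ i ∈ I n,
      ((((Cl n).filter fun j => wbox B B' co X n c K i j).image
        (zlab B I co M C X w n c')).card : ℝ) ≤ B'.d n ^ (-(lam c - lam c' + ε)) := by
  filter_upwards [h.csub, h.near_num hK R hε] with n h1 h2 c hc hcR c' hc' hcR' hcc i hi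
  refine le_trans ?_ (h2 c hc hcR c' hc' hcR' hcc i hi)
  exact_mod_cast card_le_card (image_subset_image (filter_subset_filter _ h1))

end

end Crest.Agent.R136.Qg926
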