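import Crest.Agent.R136.K2U_774
import Crest.Agent.R136.Rbw3_219
import Crest.Agent.R136.Qg1_926

/-!
# R136 (helper774): STAGES OF THE LADDER

`cn Q A`    : cone of the walls `A`
`Prf`       : profile facts (pass to tangents)
`JT`        : joint tangent of `(ν, own)`, natural moving base points (926's `IsTan`, so
  `exists_zwin_ex` applies)
`Stage`     : a tangent `lam` of `ν` at record points, which does not depend on the dropped slots `Dr`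
`RungD`     : ray, plane, slots `J` to be dropped
`FLem`      : input of a rung = the F-lemma at the points of the open half plane
`Stage.rung`: `Stage` + F-lemma "J visible ⇒ left slope ≥ g" gives the next `Stage`
`Stage.dead`: `Stage` + F-lemma "left slope ≥ g" is contradictory
`stage_init`: the first stage
-/

set_option autoImplicit false
set_option linter.unusedSectionVars false
set_option linter.unusedVariables false

open Set Filter Topology Metric MeasureTheory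

namespace Crest.Agent.R136.K2S774

open Dg262 (X X_cont SupOn LegU)
open Dg219 (Tn BUp Walls OutS gC dhC nC)
open Crest.Agent.R138

variable {m : ℕ} {W : Type*} [Fintype W]

/-- cone of the walls `A` -/
def cn (Q : Walls (Fin m) W) (A : W → Prop) : Set (Fin m → ℝ) :=
  {c | ∀ w, A w → c (Q.hd w) ≤ Q.rhs w c}

/-- profile facts, they pass to tangents -/
structure Prf (P : Set (Fin m → ℝ)) (ν own : (Fin m → ℝ) → ℝ) (K : ℝ) : Prop where
  K0 : 0 ≤ K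
  lip : ∀ p ∈ P, ∀ q ∈ P, |ν p - ν q| ≤ K * ‖p - q‖
  olip : ∀ p ∈ P, ∀ q ∈ P, |own p - own q| ≤ K * ‖p - q‖
  mono : ∀ p ∈ P, ∀ q ∈ P, p ≤ q → ν q ≤ ν p
  sharp : ∀ p ∈ P, ∀ q ∈ P, p ≤ q → ν p - ν q ≤ ∑ i, (q i - p i)
  sup : SupOn ν P
  own_le : ∀ p ∈ P, ∀ q ∈ P, p ≤ q → own p - own q ≤ ν p - ν q

/-- `(lam, lo)` = joint tangent of `(ν, own)` at natural base points `x l → r0` -/
structure JT (Q : Walls (Fin m) W) (A : W → Prop) (P : Set (Fin m → ℝ))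
    (ν own : (Fin m → ℝ) → ℝ) (r0 : Fin m → ℝ) (x : ℕ → Fin m → ℝ) (h : ℕ → ℝ)
    (lam lo : (Fin m → ℝ) → ℝ) : Prop where
  pos : ∀ l, 0 < h l
  zero : Tendsto h atTop (𝓝 0)
  nat : ∀ l w, A w → x l (Q.hd w) = Q.rhs w (x l) + Q.cst w
  /-- the other walls are infinitely far -/
  gap : ∀ w, ¬ A w → ∀ R : ℝ, ∀ᶠ l in atTop,
    x l (Q.hd w) + R * h l ≤ Q.rhs w (x l) + Q.cst w
  base : Tendsto x atTop (𝓝 r0)
  tan : Ex926.IsTan P (cn Q A) ν x h lam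
  tano : Ex926.IsTan P (cn Q A) own x h lo

/-- the (moving) base points are record points of `ν` in the visible slots, with their values -/
def RecX (ν : (Fin m → ℝ) → ℝ) (r0 ρ : Fin m → ℝ) (Dl : (Fin m → ℝ) →ₗ[ℝ] ℝ) (Dr : Set (Fin m))
    (x : ℕ → Fin m → ℝ) (h : ℕ → ℝ) : Prop :=
  ∃ σ : ℕ → ℝ, (∀ l, ∀ i, i ∉ Dr → x l i = r0 i + σ l * ρ i) ∧
    Tendsto (fun l => (ν (x l) - ν r0 - σ l * Dl ρ) / h l) atTop (𝓝 0)

/-- **a stage of the ladder.**  `r0` = record point of `ν`, `ρ` = record direction, `Dl` = D-max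
functional on the cone `Qd`, `Z` = slots which are never dropped and may be constant on a surface,
`o i` (`i ∈ Tie`) = own slopes of the tied slots, `τ` = own rate of `z`, `A` = remaining active
walls, `Dr` = dropped slots. -/
structure Stage (Q : Walls (Fin m) W) (P : Set (Fin m → ℝ)) (ν own : (Fin m → ℝ) → ℝ) (K : ℝ)
    (r0 ρ : Fin m → ℝ) (Dl : (Fin m → ℝ) →ₗ[ℝ] ℝ) (Qd : Set (Fin m → ℝ)) (Z Tie : Set (Fin m))
    (kz : Fin m) (o : Fin m → ℝ) (τ : ℝ) (A : W → Prop) (Dr : Set (Fin m))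
    (lam lo : (Fin m → ℝ) → ℝ) : Prop where
  /-- the base points are on the own path in the tied slots -/
  jt : ∃ (x : ℕ → Fin m → ℝ) (h : ℕ → ℝ), JT Q A P ν own r0 x h lam lo ∧
    (∀ l, ∀ i ∈ Tie, x l i - r0 i = o i * (x l kz - r0 kz)) ∧ RecX ν r0 ρ Dl Dr x h
  prf : Prf (cn Q A) lam lo K
  noD : ∀ w, A w → Q.hd w ∉ Dr ∧ ∀ s ∈ Dr, Q.co w s = 0
  ZD : ∀ i ∈ Z, i ∉ Dr
  TD : ∀ i ∈ Tie, i ∉ Dr
  zD : kz ∉ Dr
  ind : ∀ c ∈ cn Q A, ∀ c' ∈ cn Q A, (∀ i, i ∉ Dr → c i = c' i) →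
    (∃ σ : ℝ, ∀ i ∈ Z, σ * ρ i ≤ c i) → lam c = lam c'
  rcd : ∀ σ : ℝ, lam (σ • ρ) = σ * Dl ρ
  dmx : ∀ c ∈ cn Q A, ∀ d ∈ Qd, (∀ i, i ∉ Dr → d i ≤ c i) → lam c ≤ Dl d
  ownr : ∀ c ∈ cn Q A, (∀ i ∈ Tie, c i ≤ o i * c kz) → lo c = -(τ * c kz)
  ownu : ∀ c ∈ cn Q A, lo c ≤ -(τ * c kz)

/-- facts about the record direction and the D-max cone (fixed for the whole ladder) -/
structure RecD (Q : Walls (Fin m) W) (A : W → Prop) (ρ : Fin m → ℝ) (Qd : Set (Fin m → ℝ))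
    (Tie : Set (Fin m)) (kz : Fin m) (o : Fin m → ℝ) : Prop where
  full : ∀ w, A w → ∃ s, Q.co w s ≠ 0
  nat : ∀ w, A w → ρ (Q.hd w) = Q.rhs w ρ
  qd : ∀ d ∈ Qd, ∀ ξ t : ℝ, 0 ≤ t → ξ • ρ + t • d ∈ Qd
  tie : ∀ i ∈ Tie, ρ i = o i * ρ kz

/-- **data of a rung**: `T` = ray (v-slopes on the surface, anything `> 0` on the dropped slots),
`T'` = natural ray, `b` = second direction of the plane (`= ρ` off the dropped slots), `J` = slots
to be dropped -/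
structure RungD (Q : Walls (Fin m) W) (A : W → Prop) (Dr Z Tie : Set (Fin m)) (kz : Fin m)
    (Qd : Set (Fin m → ℝ)) (ρ T T' b : Fin m → ℝ) (J : Finset (Fin m)) : Prop where
  T0 : ∀ i, 0 ≤ T i
  TJ : ∀ i ∈ J, T i = 0
  TZ : ∀ i, i ∉ J → i ∉ Z → 0 < T i
  natT : ∀ w, A w → T (Q.hd w) = Q.rhs w T
  bρ : ∀ i, i ∉ Dr → b i = ρ i
  TT : ∀ i, i ∉ Dr → T' i = T i
  qd : -T' ∈ Qd
  head : ∀ w, A w → Q.hd w ∈ J → ∃ s ∈ J, Q.co w s ≠ 0
  JZ : ∀ i ∈ J, i ∉ Z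
  JT : ∀ i ∈ J, i ∉ Tie
  Jz : kz ∉ J

/-- indicator -/
def ind1 (J : Finset (Fin m)) : Fin m → ℝ := fun i => if i ∈ J then 1 else 0

/-- position of the base points `x'` at a point `z.1 < 0` of the plane with respect to the own path -/
structure BaseOk (Tie : Set (Fin m)) (kz : Fin m) (o T r0 : Fin m → ℝ) (x' : ℕ → Fin m → ℝ)
    (h' : ℕ → ℝ) : Prop where
  eq : ∀ l, ∀ i ∈ Tie, T i = o i * T kz → x' l i - r0 i = o i * (x' l kz - r0 kz)
  le : ∀ l, ∀ i ∈ Tie, o i * T kz ≤ T i → x' l i - r0 i ≤ o i * (x' l kz - r0 kz)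
  /-- strictly inside the own path: infinitely far in the scales `h'` -/
  slack : ∀ i ∈ Tie, o i * T kz < T i → ∀ R : ℝ, ∀ᶠ l in atTop,
    x' l i - r0 i + R * h' l ≤ o i * (x' l kz - r0 kz)

/-- **input of a rung**: the F-lemma at the points `z.1 < 0` of the plane `z.1 T + z.2 b`; `V lam'` =
what is visible at the tangent -/
def FLem (Q : Walls (Fin m) W) (A : W → Prop) (P : Set (Fin m → ℝ)) (ν own : (Fin m → ℝ) → ℝ)
    (r0 : Fin m → ℝ) (Dl : (Fin m → ℝ) →ₗ[ℝ] ℝ) (Tie : Set (Fin m)) (kz : Fin m) (o : Fin m → ℝ)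
    (T T' b : Fin m → ℝ) (lam lo : (Fin m → ℝ) → ℝ) (V : ((Fin m → ℝ) → ℝ) → Prop) (g : ℝ) :
    Prop :=
  ∀ z : ℝ × ℝ, z.1 < 0 → ∀ D : ℝ × ℝ →L[ℝ] ℝ, HasFDerivAt (fun z => lam (X 0 T b z)) D z →
    ∀ (k : ℕ → ℝ) (lam' lo' : (Fin m → ℝ) → ℝ), (∀ l, 0 < k l) → Tendsto k atTop (𝓝 0) →
    Ex926.IsTan (cn Q A) (cn Q A) lam (fun _ => X 0 T b z) k lam' →
    Ex926.IsTan (cn Q A) (cn Q A) lo (fun _ => X 0 T b z) k lo' →
    ∀ (x' : ℕ → Fin m → ℝ) (h' : ℕ → ℝ), JT Q A P ν own r0 x' h' lam' lo' →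
    BaseOk Tie kz o T r0 x' h' →
    ∀ (φ : ℕ → (Fin m → ℝ) → ℝ) (rt : ℕ → ℝ),
      OutS (gC T b) (cn Q A) (dhC T b) (nC T b) lam' (D (1, 0), D (0, 1)) φ rt →
    V lam' → g ≤ -D (1, 0) + Dl T'

/-! ### cones of walls -/

section cone

variable {Q : Walls (Fin m) W} {A : W → Prop} {c d : Fin m → ℝ}

/-- natural for the walls `A` -/
def Nat (Q : Walls (Fin m) W) (A : W → Prop) (c : Fin m → ℝ) : Prop :=
  ∀ w, A w → c (Q.hd w) = Q.rhs w c

theorem rhs_zero (w : W) : Q.rhs w 0 = 0 := by unfold Walls.rhs; simp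

theorem rhs_mono (w : W) (h : c ≤ d) : Q.rhs w c ≤ Q.rhs w d :=
  Finset.sum_le_sum fun s _ => mul_le_mul_of_nonneg_left (h s) (Nat.cast_nonneg _)

theorem rhs_congr (w : W) (h : ∀ s, Q.co w s ≠ 0 → c s = d s) : Q.rhs w c = Q.rhs w d := by
  unfold Walls.rhs
  refine Finset.sum_congr rfl fun s _ => ?_
  by_cases hs : Q.co w s = 0
  · rw [hs]; simp
  · rw [h s hs]

/-- one tail is higher -/
theorem rhs_add_le (w : W) {n : Fin m → ℝ} {K : ℝ} (h : n ≤ c) {s : Fin m} (hs : Q.co w s ≠ 0)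
    (hK : n s + K ≤ c s) (hK0 : 0 ≤ K) : Q.rhs w n + K ≤ Q.rhs w c := by
  have h1 : Q.rhs w c = Q.rhs w n + Q.rhs w (c - n) := by
    rw [← Q.rhs_add]; congr 1; abel
  have h2 : (c - n) s ≤ Q.rhs w (c - n) :=
    Walls.le_rhs (fun i => by simpa using h i) hs
  have h3 : K ≤ (c - n) s := by simp only [Pi.sub_apply]; linarith
  linarith

theorem Nat.mem (h : Nat Q A c) : c ∈ cn Q A := fun w hw => (h w hw).le

theorem Nat.add (h : Nat Q A c) (h' : Nat Q A d) : Nat Q A (c + d) := fun w hw => by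
  rw [Q.rhs_add, Pi.add_apply, h w hw, h' w hw]

theorem Nat.smul (h : Nat Q A c) (t : ℝ) : Nat Q A (t • c) := fun w hw => by
  rw [Q.rhs_smul, Pi.smul_apply, smul_eq_mul, h w hw]

theorem Nat.sub (h : Nat Q A c) (h' : Nat Q A d) : Nat Q A (c - d) := by
  rw [sub_eq_add_neg, ← neg_one_smul ℝ d]
  exact h.add (h'.smul _)

theorem Nat.zero : Nat Q A 0 := fun w _ => by rw [rhs_zero]; rfl

theorem cn_zero : (0 : Fin m → ℝ) ∈ cn Q A := Nat.zero.mem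

theorem cn_add (h : c ∈ cn Q A) (h' : d ∈ cn Q A) : c + d ∈ cn Q A := fun w hw => by
  rw [Q.rhs_add, Pi.add_apply]; exact add_le_add (h w hw) (h' w hw)

theorem cn_smul (h : c ∈ cn Q A) {t : ℝ} (ht : 0 ≤ t) : t • c ∈ cn Q A := fun w hw => by
  rw [Q.rhs_smul, Pi.smul_apply, smul_eq_mul]; exact mul_le_mul_of_nonneg_left (h w hw) ht

theorem cn_nat_add (h : Nat Q A c) (h' : d ∈ cn Q A) {t : ℝ} (ht : 0 ≤ t) : c + t • d ∈ cn Q A :=
  cn_add h.mem (cn_smul h' ht)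

theorem cn_closed : IsClosed (cn Q A) := by
  have : cn Q A = ⋂ w, ⋂ (_ : A w), {c | c (Q.hd w) ≤ Q.rhs w c} := by
    ext c; simp [cn]
  rw [this]
  exact isClosed_iInter fun w => isClosed_iInter fun _ =>
    isClosed_le (continuous_apply _) (Q.rhs_cont w)

end cone

/-! ### tangents -/

section tan

variable {V : Type*} [NormedAddCommGroup V] [NormedSpace ℝ V]

theorem tan_sub {P D : Set V} {ν lam : V → ℝ} {x : ℕ → V} {h : ℕ → ℝ}
    (H : Ex926.IsTan P D ν x h lam) {φ : ℕ → ℕ} (hφ : Tendsto φ atTop atTop) :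
    Ex926.IsTan P D ν (fun l => x (φ l)) (fun l => h (φ l)) lam := by
  intro C ε hε
  exact hφ.eventually (H C ε hε)

/-- the estimate which gives the tangent of a tangent -/
theorem tan_of_psi {P L L' : Set V} {ν g lam : V → ℝ} {x : ℕ → V} {y : V} {h k : ℕ → ℝ}
    (hpos : ∀ l, 0 < h l) (kpos : ∀ l, 0 < k l) (hy : y ∈ L)
    (H2 : Ex926.IsTan L L' g (fun _ => y) k lam) {ψ : ℕ → ℕ}
    (hψ2 : ∀ m : ℕ, ∀ c ∈ L, ‖c‖ ≤ ‖y‖ + k m * m → x (ψ m) + h (ψ m) • c ∈ P ∧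
      |ν (x (ψ m) + h (ψ m) • c) - ν (x (ψ m)) - h (ψ m) * g c| ≤ k m / (m + 1) * h (ψ m)) :
    Ex926.IsTan P L' ν (fun m => x (ψ m) + h (ψ m) • y) (fun m => h (ψ m) * k m) lam := by
  intro C ε hε
  obtain ⟨N1, hN1⟩ := exists_nat_gt C
  obtain ⟨N2, hN2⟩ := exists_nat_gt (4 / ε)
  filter_upwards [H2 C (ε / 2) (by positivity), eventually_ge_atTop (max N1 N2)]
    with m hm hmN c hc hcC
  have m1 : (N1 : ℝ) ≤ m := by exact_mod_cast (le_max_left _ _).trans hmN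
  have m2 : (N2 : ℝ) ≤ m := by exact_mod_cast (le_max_right _ _).trans hmN
  have hk := kpos m
  have hh := hpos (ψ m)
  have hp : y + k m • c ∈ L := (hm c hc hcC).1
  have hpn : ‖y + k m • c‖ ≤ ‖y‖ + k m * m := by
    refine (norm_add_le _ _).trans ?_
    rw [norm_smul, Real.norm_of_nonneg hk.le]
    have : k m * ‖c‖ ≤ k m * m := mul_le_mul_of_nonneg_left (by linarith) hk.le
    linarith
  have hyn : ‖y‖ ≤ ‖y‖ + k m * m := by
    have : 0 ≤ k m * (m : ℝ) := by positivity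
    linarith
  have a1 := hψ2 m _ hp hpn
  have a2 := hψ2 m y hy hyn
  have a3 := (hm c hc hcC).2
  have e1 : x (ψ m) + h (ψ m) • y + (h (ψ m) * k m) • c =
      x (ψ m) + h (ψ m) • (y + k m • c) := by
    rw [smul_add, smul_smul, add_assoc]
  refine ⟨by rw [e1]; exact a1.1, ?_⟩
  rw [e1]
  have b1 := a1.2
  have b2 := a2.2
  have b3 : |h (ψ m) * (g (y + k m • c) - g y - k m * lam c)| ≤ h (ψ m) * (ε / 2 * k m) := by
    rw [abs_mul, abs_of_pos hh]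
    exact mul_le_mul_of_nonneg_left a3 hh.le
  have b4 : k m / (m + 1) ≤ ε / 4 * k m := by
    rw [div_le_iff₀ (by positivity)]
    have : 4 / ε < (m : ℝ) + 1 := by linarith
    rw [div_lt_iff₀ hε] at this
    nlinarith
  have b5 : k m / (m + 1) * h (ψ m) ≤ ε / 4 * k m * h (ψ m) :=
    mul_le_mul_of_nonneg_right b4 hh.le
  rw [abs_le] at b1 b2 b3 ⊢
  constructor <;> nlinarith [b1.1, b1.2, b2.1, b2.2, b3.1, b3.2]

end tan

/-- **joint tangent of a joint tangent**, with additional eventual predicates `Xp` -/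
theorem JT.compX {Q : Walls (Fin m) W} {A A' : W → Prop} {P : Set (Fin m → ℝ)}
    {ν own lam lo lam' lo' : (Fin m → ℝ) → ℝ} {r0 y : Fin m → ℝ} {x : ℕ → Fin m → ℝ} {h k : ℕ → ℝ}
    (H : JT Q A P ν own r0 x h lam lo) (hA : ∀ w, A' w → A w) (hy : y ∈ cn Q A)
    (hyn : Nat Q A' y) (hst : ∀ w, A w → ¬ A' w → y (Q.hd w) < Q.rhs w y)
    (kpos : ∀ l, 0 < k l) (k0 : Tendsto k atTop (𝓝 0))
    (H1 : Ex926.IsTan (cn Q A) (cn Q A') lam (fun _ => y) k lam')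
    (H2 : Ex926.IsTan (cn Q A) (cn Q A') lo (fun _ => y) k lo') (Xp : ℕ → ℕ → Prop)
    (hX : ∀ n, ∀ᶠ l in atTop, Xp n l) :
    ∃ ψ : ℕ → ℕ, (∀ m, m ≤ ψ m) ∧ JT Q A' P ν own r0 (fun m => x (ψ m) + h (ψ m) • y)
      (fun m => h (ψ m) * k m) lam' lo' ∧ ∀ m, Xp m (ψ m) := by
  have key : ∀ n : ℕ, ∃ l : ℕ, n ≤ l ∧ (∀ c ∈ cn Q A, ‖c‖ ≤ ‖y‖ + k n * n →
      x l + h l • c ∈ P ∧ |ν (x l + h l • c) - ν (x l) - h l * lam c| ≤ k n / (n + 1) * h l) ∧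
      (∀ c ∈ cn Q A, ‖c‖ ≤ ‖y‖ + k n * n →
      x l + h l • c ∈ P ∧ |own (x l + h l • c) - own (x l) - h l * lo c| ≤ k n / (n + 1) * h l) ∧
      Xp n l := by
    intro n
    have h1 := H.tan (‖y‖ + k n * n) (k n / (n + 1)) (div_pos (kpos n) (by positivity))
    have h2 := H.tano (‖y‖ + k n * n) (k n / (n + 1)) (div_pos (kpos n) (by positivity))
    obtain ⟨l, ⟨⟨hl1, hl3⟩, hl4⟩, hl2⟩ :=
      (((h1.and h2).and (hX n)).and (eventually_ge_atTop n)).exists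
    exact ⟨l, hl2, hl1, hl3, hl4⟩
  choose ψ hψ hψ2 hψ3 hψ4 using key
  have hψt : Tendsto ψ atTop atTop := tendsto_atTop_mono hψ tendsto_id
  have h0 : Tendsto (fun n => h (ψ n)) atTop (𝓝 0) := H.zero.comp hψt
  refine ⟨ψ, hψ, ⟨fun l => mul_pos (H.pos _) (kpos l), ?_, ?_, ?_, ?_,
    tan_of_psi H.pos kpos hy H1 hψ2, tan_of_psi H.pos kpos hy H2 hψ3⟩, hψ4⟩
  · have := h0.mul k0
    rwa [zero_mul] at this
  · intro l w hw
    have h1 := H.nat (ψ l) w (hA w hw)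
    have h2 := hyn w hw
    rw [Q.rhs_add, Q.rhs_smul, Pi.add_apply, Pi.smul_apply, smul_eq_mul, h1, h2]
    ring
  · intro w hw R
    by_cases hwA : A w
    · -- strict at `y`
      have hs := hst w hwA hw
      have hk1 : ∀ᶠ l in atTop, R * k l ≤ Q.rhs w y - y (Q.hd w) := by
        have h1 : Tendsto (fun l => R * k l) atTop (𝓝 0) := by
          have := k0.const_mul R
          rwa [mul_zero] at this
        exact (h1.eventually_lt_const (sub_pos.2 hs)).mono fun l hl => hl.le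
      filter_upwards [hk1] with l hl
      have h1 := H.nat (ψ l) w hwA
      have h2 := mul_le_mul_of_nonneg_left hl (H.pos (ψ l)).le
      rw [Q.rhs_add, Q.rhs_smul, Pi.add_apply, Pi.smul_apply, smul_eq_mul, h1]
      nlinarith
    · have hk1 : ∀ᶠ l in atTop, |k l| ≤ 1 := by
        have h1 := k0.abs
        rw [abs_zero] at h1
        exact (h1.eventually_lt_const one_pos).mono fun l hl => hl.le
      filter_upwards [hψt.eventually (H.gap w hwA (|y (Q.hd w)| + |Q.rhs w y| + |R|)), hk1]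
        with l hl hk
      rw [Q.rhs_add, Q.rhs_smul, Pi.add_apply, Pi.smul_apply, smul_eq_mul]
      have hh := (H.pos (ψ l)).le
      have b1 : h (ψ l) * y (Q.hd w) ≤ h (ψ l) * |y (Q.hd w)| :=
        mul_le_mul_of_nonneg_left (le_abs_self _) hh
      have b2 : h (ψ l) * -Q.rhs w y ≤ h (ψ l) * |Q.rhs w y| :=
        mul_le_mul_of_nonneg_left (neg_le_abs _) hh
      have b3 : R * k l ≤ |R| := by
        refine (le_abs_self _).trans ?_
        rw [abs_mul]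
        exact mul_le_of_le_one_right (abs_nonneg _) hk
      have b4 : h (ψ l) * (R * k l) ≤ h (ψ l) * |R| := mul_le_mul_of_nonneg_left b3 hh
      nlinarith
  · have h1 : Tendsto (fun n => x (ψ n)) atTop (𝓝 r0) := H.base.comp hψt
    have h2 : Tendsto (fun n => h (ψ n) • y) atTop (𝓝 0) := by
      have := h0.smul_const y
      rwa [zero_smul] at this
    have := h1.add h2
    rwa [add_zero] at this

/-- **joint tangent of a joint tangent** -/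
theorem JT.comp {Q : Walls (Fin m) W} {A A' : W → Prop} {P : Set (Fin m → ℝ)}
    {ν own lam lo lam' lo' : (Fin m → ℝ) → ℝ} {r0 y : Fin m → ℝ} {x : ℕ → Fin m → ℝ} {h k : ℕ → ℝ}
    (H : JT Q A P ν own r0 x h lam lo) (hA : ∀ w, A' w → A w) (hy : y ∈ cn Q A)
    (hyn : Nat Q A' y) (hst : ∀ w, A w → ¬ A' w → y (Q.hd w) < Q.rhs w y)
    (kpos : ∀ l, 0 < k l) (k0 : Tendsto k atTop (𝓝 0))
    (H1 : Ex926.IsTan (cn Q A) (cn Q A') lam (fun _ => y) k lam')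
    (H2 : Ex926.IsTan (cn Q A) (cn Q A') lo (fun _ => y) k lo') :
    ∃ ψ : ℕ → ℕ, (∀ m, m ≤ ψ m) ∧ JT Q A' P ν own r0 (fun m => x (ψ m) + h (ψ m) • y)
      (fun m => h (ψ m) * k m) lam' lo' := by
  obtain ⟨ψ, h1, h2, -⟩ := H.compX hA hy hyn hst kpos k0 H1 H2 (fun _ _ => True)
    fun _ => Eventually.of_forall fun _ => trivial
  exact ⟨ψ, h1, h2⟩

/-- the predicate which transports the record value -/
def XpR (ν lam : (Fin m → ℝ) → ℝ) (r0 ρ : Fin m → ℝ) (Dl : (Fin m → ℝ) →ₗ[ℝ] ℝ)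
    (x : ℕ → Fin m → ℝ) (h k σ : ℕ → ℝ) (y : ℕ → Fin m → ℝ) (n l : ℕ) : Prop :=
  |ν (x l) - ν r0 - σ l * Dl ρ| ≤ k n / (n + 1) * h l ∧
    |ν (x l + h l • y n) - ν (x l) - h l * lam (y n)| ≤ k n / (n + 1) * h l

theorem xpR_ev {P L : Set (Fin m → ℝ)} {ν lam : (Fin m → ℝ) → ℝ} {r0 ρ : Fin m → ℝ}
    {Dl : (Fin m → ℝ) →ₗ[ℝ] ℝ} {x : ℕ → Fin m → ℝ} {h k σ : ℕ → ℝ} {y : ℕ → Fin m → ℝ}
    (ht : Ex926.IsTan P L ν x h lam) (hpos : ∀ l, 0 < h l) (kpos : ∀ l, 0 < k l)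
    (hy : ∀ n, y n ∈ L)
    (hR : Tendsto (fun l => (ν (x l) - ν r0 - σ l * Dl ρ) / h l) atTop (𝓝 0)) (n : ℕ) :
    ∀ᶠ l in atTop, XpR ν lam r0 ρ Dl x h k σ y n l := by
  have hε : 0 < k n / (n + 1) := div_pos (kpos n) (by positivity)
  have h1 : ∀ᶠ l in atTop, |(ν (x l) - ν r0 - σ l * Dl ρ) / h l| < k n / (n + 1) := by
    have := hR.abs
    rw [abs_zero] at this
    exact this.eventually_lt_const hε
  filter_upwards [h1, ht.ev (hy n) hε] with l g1 g2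
  refine ⟨?_, g2.2⟩
  rw [abs_div, abs_of_pos (hpos l), div_lt_iff₀ (hpos l)] at g1
  exact g1.le

/-- the record value at the new base points -/
theorem recX_of {ν lam : (Fin m → ℝ) → ℝ} {r0 ρ : Fin m → ℝ} {Dl : (Fin m → ℝ) →ₗ[ℝ] ℝ}
    {x : ℕ → Fin m → ℝ} {h k σ ξ : ℕ → ℝ} {y : ℕ → Fin m → ℝ} {Dr Dr' : Set (Fin m)}
    (hpos : ∀ l, 0 < h l) (kpos : ∀ l, 0 < k l)
    (hσ : ∀ l, ∀ i, i ∉ Dr → x l i = r0 i + σ l * ρ i) (hD : Dr ⊆ Dr')
    (hy : ∀ l, ∀ i, i ∉ Dr' → y l i = ξ l * ρ i) (hlam : ∀ l, lam (y l) = ξ l * Dl ρ)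
    {ψ : ℕ → ℕ} (hψ : ∀ l, XpR ν lam r0 ρ Dl x h k σ y l (ψ l)) :
    RecX ν r0 ρ Dl Dr' (fun l => x (ψ l) + h (ψ l) • y l) (fun l => h (ψ l) * k l) := by
  refine ⟨fun l => σ (ψ l) + h (ψ l) * ξ l, fun l i hi => ?_, ?_⟩
  · simp only [Pi.add_apply, Pi.smul_apply, smul_eq_mul]
    rw [hσ _ i fun h => hi (hD h), hy l i hi]; ring
  · refine squeeze_zero_norm (a := fun l : ℕ => 2 * (1 / ((l : ℝ) + 1))) (fun l => ?_) ?_
    · obtain ⟨g1, g2⟩ := hψ l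
      rw [hlam] at g2
      have hhk : 0 < h (ψ l) * k l := mul_pos (hpos _) (kpos l)
      rw [Real.norm_eq_abs, abs_div, abs_of_pos hhk, div_le_iff₀ hhk]
      have e1 : 2 * (1 / ((l : ℝ) + 1)) * (h (ψ l) * k l) =
          k l / (l + 1) * h (ψ l) + k l / (l + 1) * h (ψ l) := by field_simp; ring
      rw [e1]
      rw [abs_le] at g1 g2 ⊢
      constructor <;> linarith [g1.1, g1.2, g2.1, g2.2]
    · have := (tendsto_one_div_add_atTop_nhds_zero_nat (𝕜 := ℝ)).const_mul 2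
      rwa [mul_zero] at this

/-- profile facts pass to tangents -/
theorem Prf.tan {P L : Set (Fin m → ℝ)} {ν own lam lo : (Fin m → ℝ) → ℝ} {K : ℝ}
    (H : Prf P ν own K) {x : ℕ → Fin m → ℝ} {h : ℕ → ℝ} (hpos : ∀ l, 0 < h l)
    (H1 : Ex926.IsTan P L ν x h lam) (H2 : Ex926.IsTan P L own x h lo) : Prf L lam lo K where
  K0 := H.K0
  lip := H1.lip hpos H.lip
  olip := H2.lip hpos H.olip
  mono := fun p hp q hq hpq => H1.anti hpos
    (fun l c c' hcc => Qg926.add_smul_mono (hpos l).le hcc) H.mono p hp q hq hpq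
  sharp := fun p hp q hq hpq => Qg926.tan_sharp H1 hpos H.sharp p hp q hq hpq
  sup := fun p hp q hq h1 h2 => H1.submod hpos H.sup hp hq h1 h2
  own_le := by
    intro p hp q hq hpq
    refine le_of_forall_pos_le_add fun ε hε => ?_
    have hε4 : 0 < ε / 4 := by positivity
    obtain ⟨l, ⟨h1, h2⟩, ⟨h3, h4⟩, ⟨h5, h6⟩, ⟨h7, h8⟩⟩ := ((H1.ev hp hε4).and
      ((H1.ev hq hε4).and ((H2.ev hp hε4).and (H2.ev hq hε4)))).exists
    have hl := hpos l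
    have h9 := H.own_le _ h1 _ h3 (Qg926.add_smul_mono hl.le hpq)
    have key : h l * (lo p - lo q) ≤ h l * (lam p - lam q + ε) := by
      rw [abs_le] at h2 h4 h6 h8
      nlinarith
    exact le_of_mul_le_mul_left key hl

/-- joint tangents exist -/
theorem exists_joint {P L : Set (Fin m → ℝ)} {ν own : (Fin m → ℝ) → ℝ} {K : ℝ}
    (H : Prf P ν own K) (hL : IsClosed L) (h0L : (0 : Fin m → ℝ) ∈ L) {y : Fin m → ℝ}
    (hy : ∀ C : ℝ, ∃ h0 : ℝ, 0 < h0 ∧ ∀ h : ℝ, 0 < h → h < h0 → ∀ c ∈ L, ‖c‖ ≤ C → y + h • c ∈ P)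
    {k : ℕ → ℝ} (kpos : ∀ l, 0 < k l) (k0 : Tendsto k atTop (𝓝 0)) :
    ∃ φ : ℕ → ℕ, StrictMono φ ∧ ∃ lam lo : (Fin m → ℝ) → ℝ,
      Ex926.IsTan P L ν (fun _ => y) (fun l => k (φ l)) lam ∧
      Ex926.IsTan P L own (fun _ => y) (fun l => k (φ l)) lo := by
  obtain ⟨φ1, h1, lam, hlam⟩ := AeT501.exists_tangent hL H.K0 H.lip hy kpos k0 h0L
  obtain ⟨φ2, h2, lo, hlo⟩ := AeT501.exists_tangent hL H.K0 H.olip hy (g := fun l => k (φ1 l))
    (fun l => kpos _) (k0.comp h1.tendsto_atTop) h0L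
  exact ⟨fun l => φ1 (φ2 l), h1.comp h2, lam, lo, tan_sub hlam h2.tendsto_atTop, hlo⟩

/-! ### decoupling on cones -/

section dec

variable {Q : Walls (Fin m) W} {A : W → Prop}

open Classical in
/-- the walls `A` without constants -/
noncomputable def wl (Q : Walls (Fin m) W) (A : W → Prop) : Walls (Fin m) {w // A w} where
  hd := fun w => Q.hd w.1
  co := fun w => Q.co w.1
  cst := fun _ => 0
  rk := Q.rk
  low := fun w s hs => Q.low w.1 s hs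

theorem wl_rhs (w : {w // A w}) (c : Fin m → ℝ) : (wl Q A).rhs w c = Q.rhs w.1 c := rfl

/-- **decoupling for `lam` on the cone `cn Q A`**, natural plane -/
theorem cn_outS {lam lo : (Fin m → ℝ) → ℝ} {K : ℝ} (H : Prf (cn Q A) lam lo K)
    (hF : ∀ w, A w → ∃ s, Q.co w s ≠ 0) {x0 a b : Fin m → ℝ} (ha : ∀ i, 0 ≤ a i)
    (n0 : Nat Q A x0) (na : Nat Q A a) (nb : Nat Q A b) :
    ∀ᵐ z : ℝ × ℝ, ∃ D : ℝ × ℝ →L[ℝ] ℝ, HasFDerivAt (fun z => lam (X x0 a b z)) D z ∧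
      ∀ (h : ℕ → ℝ) (lam' : (Fin m → ℝ) → ℝ),
        BUp (cn Q A) (cn Q A) lam (X x0 a b z) h lam' →
        ∃ (φ : ℕ → (Fin m → ℝ) → ℝ) (r : ℕ → ℝ),
          OutS (gC a b) (cn Q A) (dhC a b) (nC a b) lam' (D (1, 0), D (0, 1)) φ r := by
  classical
  obtain ⟨wv, hGr⟩ := Dg219.exists_grpC (b := b) ha
  set Q' := wl Q A with hQ'
  have hAct : ∀ w, Q'.Act x0 a b w := fun w => by
    refine ⟨?_, na w.1 w.2, nb w.1 w.2⟩
    show x0 (Q.hd w.1) = Q.rhs w.1 x0 + 0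
    rw [add_zero]; exact n0 w.1 w.2
  have hL : Q'.L x0 a b = cn Q A := by
    ext c
    exact ⟨fun h w hw => h ⟨w, hw⟩ (hAct _), fun h w _ => h w.1 w.2⟩
  have hP : ∀ n : ℕ, Q'.P (fun _ => -(n:ℝ)) (fun _ => n) ⊆ cn Q A := by
    intro n p hp w hw
    have := hp.2 ⟨w, hw⟩
    change p (Q.hd w) ≤ Q.rhs w p + 0 at this
    rwa [add_zero] at this
  have key : ∀ n : ℕ, ∀ᵐ z : ℝ × ℝ, z ∈ Q'.O (fun _ => -(n:ℝ)) (fun _ => n) x0 a b →
      ∃ D : ℝ × ℝ →L[ℝ] ℝ, HasFDerivAt (fun z => lam (X x0 a b z)) D z ∧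
      ∀ (h : ℕ → ℝ) (lam' : (Fin m → ℝ) → ℝ),
        BUp (Q'.P (fun _ => -(n:ℝ)) (fun _ => n)) (Q'.L x0 a b) lam (X x0 a b z) h lam' →
        ∃ (φ : ℕ → (Fin m → ℝ) → ℝ) (r : ℕ → ℝ),
          OutS (gC a b) (Q'.L x0 a b) (dhC a b) (nC a b) lam' (D (1, 0), D (0, 1)) φ r := by
    intro n
    refine Dg219.ae_outS Q' H.K0 ?_ ?_ ?_ hGr ?_ (fun _ _ => Iff.rfl) Dg219.dirC
    · intro p hp q hq
      rw [dist_eq_norm]; exact H.lip p (hP n hp) q (hP n hq)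
    · intro p hp q hq hpq
      exact ⟨sub_nonneg.2 (H.mono p (hP n hp) q (hP n hq) hpq),
        H.sharp p (hP n hp) q (hP n hq) hpq⟩
    · intro p hp q hq h1 h2
      exact H.sup p (hP n hp) q (hP n hq) (hP n h1) (hP n h2)
    · exact Dg219.Walls.full_of_co fun w => hF w.1 w.2
  filter_upwards [ae_all_iff.2 key] with z hz
  obtain ⟨n, hn⟩ := exists_nat_gt ‖X x0 a b z‖
  have hzO : z ∈ Q'.O (fun _ => -(n:ℝ)) (fun _ => n) x0 a b := by
    refine ⟨fun k => ?_, fun w => Or.inl (hAct w)⟩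
    have h1 : |X x0 a b z k| ≤ ‖X x0 a b z‖ := by
      rw [← Real.norm_eq_abs]; exact norm_le_pi_norm _ k
    have h2 := abs_le.1 h1
    exact ⟨by linarith [h2.1], by linarith [h2.2]⟩
  obtain ⟨D, hD, H2⟩ := hz n hzO
  rw [hL] at H2
  refine ⟨D, hD, fun h lam' hB => H2 h lam' ⟨hB.pos, hB.zero, fun c hc => ?_, hB.lim⟩⟩
  obtain ⟨ε, hε, hleg⟩ := Walls.legal hzO ‖c‖
  filter_upwards [hB.zero.eventually (eventually_lt_nhds hε)] with l hl
  exact hleg z (by rw [dist_self]; exact hε) _ (hB.pos l) hl c (by rw [hL]; exact hc) le_rfl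

end dec

end Crest.Agent.R136.K2S774
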