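import Crest.Agent.R136.K2S_774
import Mathlib.MeasureTheory.Covering.Besicovitch

/-!
# R136 (helper774): one step of the LADDER for a legal DIRECTION `u`, density form

`StepU`      : all slots of `u` are constant along the ray, everything else is coarser.
`StepU.zero` : a.e. record point, all `s` of a wedge: the loss in the direction `u` is `o(h)`.
`dens`       : hence, at a.e. record point, the same uniformly at the record points `ξ + h σ`.
`StepU.free` : every blow-up `lam` at such a point satisfies `lam (c + x u) = lam c` for all `c` above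
a point of the ray of ANY record point `σ` of `lam`.
-/

set_option autoImplicit false
set_option linter.unusedSectionVars false
set_option linter.unusedVariables false

open Set Filter Topology Metric MeasureTheory
open scoped NNReal

namespace Crest.Agent.R136.K2S774

open Dg262 (X X_cont SupOn LegU)
open Dg219 (Tn BUp)

/-- `P h ξ` for all small `h`, a.e. `ξ`: then for a.e. `ξ` and `h` small every point of
`[ξ - M h, ξ + M h]` has a good point at distance `≤ η h`. -/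
theorem dens {A : ℕ → Set ℝ} {V : Set ℝ} (hA : ∀ᵐ ξ : ℝ, ξ ∈ V → ∃ k, ξ ∈ A k) :
    ∀ᵐ ξ : ℝ, ξ ∈ V → ∃ k, ∀ M : ℝ, ∀ η : ℝ, 0 < η → ∀ᶠ h in 𝓝[>] (0:ℝ), ∀ σ : ℝ, |σ| ≤ M →
      ∃ ξ' ∈ A k, |ξ' - (ξ + h * σ)| ≤ η * h := by
  have h1 : ∀ᵐ ξ : ℝ, ∀ k, ξ ∈ A k → Tendsto (fun r => volume (A k ∩ closedBall ξ r) /
      volume (closedBall ξ r)) (𝓝[>] 0) (𝓝 1) := by
    rw [ae_all_iff]
    intro k
    exact ae_imp_of_ae_restrict (Besicovitch.ae_tendsto_measure_inter_div volume (A k))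
  filter_upwards [hA, h1] with ξ hξ hd hξV
  obtain ⟨k, hk⟩ := hξ hξV
  refine ⟨k, fun M η hη => ?_⟩
  have ht := hd k hk
  set M' := |M| + η + 1 with hM'
  have hM0 : 0 < M' := by positivity
  -- the quotient is `> 1 - η / (2 M')`
  set q : ENNReal := ENNReal.ofReal (1 - η / (2 * M')) with hq
  have hq1 : q < 1 := by
    rw [hq, ENNReal.ofReal_lt_one]
    have : 0 < η / (2 * M') := by positivity
    linarith
  have hev : ∀ᶠ r in 𝓝[>] (0:ℝ), q < volume (A k ∩ closedBall ξ r) / volume (closedBall ξ r) :=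
    (tendsto_order.1 ht).1 q hq1
  have hsc : Tendsto (fun h : ℝ => M' * h) (𝓝[>] 0) (𝓝[>] 0) := by
    refine tendsto_nhdsWithin_iff.2 ⟨?_, ?_⟩
    · have : Tendsto (fun h : ℝ => M' * h) (𝓝 0) (𝓝 (M' * 0)) := tendsto_id.const_mul M'
      rw [mul_zero] at this
      exact this.mono_left nhdsWithin_le_nhds
    · filter_upwards [self_mem_nhdsWithin] with h hh
      exact mul_pos hM0 hh
  filter_upwards [hsc.eventually hev, self_mem_nhdsWithin] with h hh hh0 σ hσ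
  have hh0' : (0:ℝ) < h := hh0
  by_contra hcon
  push Not at hcon
  -- the interval around `ξ + h σ` does not meet `A k`
  set J : Set ℝ := closedBall (ξ + h * σ) (η * h) with hJ
  have hJA : ∀ x ∈ J, x ∉ A k := by
    intro x hx hxA
    have h2 := hcon x hxA
    rw [hJ, mem_closedBall, Real.dist_eq] at hx
    linarith
  have hsub : J ⊆ closedBall ξ (M' * h) := by
    intro x hx
    rw [hJ, mem_closedBall, Real.dist_eq] at hx
    rw [mem_closedBall, Real.dist_eq]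
    have e1 : x - ξ = (x - (ξ + h * σ)) + h * σ := by ring
    rw [e1]
    refine (abs_add_le _ _).trans ?_
    rw [abs_mul, abs_of_pos hh0']
    have h3 : h * |σ| ≤ h * |M| := mul_le_mul_of_nonneg_left (hσ.trans (le_abs_self M)) hh0'.le
    rw [hM']
    nlinarith
  have h4 : A k ∩ closedBall ξ (M' * h) ⊆ closedBall ξ (M' * h) \ J := by
    rintro x ⟨hx1, hx2⟩
    exact ⟨hx2, fun hxJ => hJA x hxJ hx1⟩
  have hvJ : volume J = ENNReal.ofReal (2 * (η * h)) := by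
    rw [hJ, Real.volume_closedBall]
  have hvB : volume (closedBall ξ (M' * h)) = ENNReal.ofReal (2 * (M' * h)) := by
    rw [Real.volume_closedBall]
  have h5 : volume (A k ∩ closedBall ξ (M' * h)) ≤
      ENNReal.ofReal (2 * (M' * h)) - ENNReal.ofReal (2 * (η * h)) := by
    refine (measure_mono h4).trans ?_
    rw [measure_diff hsub measurableSet_closedBall.nullMeasurableSet (by
      rw [hvJ]; exact ENNReal.ofReal_ne_top), hvJ, hvB]
  have hB0 : (0:ℝ) < 2 * (M' * h) := by positivity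
  have h6 : ENNReal.ofReal (2 * (M' * h)) - ENNReal.ofReal (2 * (η * h)) =
      ENNReal.ofReal (2 * (M' * h) - 2 * (η * h)) :=
    (ENNReal.ofReal_sub _ (by positivity)).symm
  rw [h6] at h5
  have h7 : volume (A k ∩ closedBall ξ (M' * h)) / volume (closedBall ξ (M' * h)) ≤
      ENNReal.ofReal ((2 * (M' * h) - 2 * (η * h)) / (2 * (M' * h))) := by
    rw [hvB, ENNReal.ofReal_div_of_pos hB0]
    exact ENNReal.div_le_div_right h5 _
  have h8 : (2 * (M' * h) - 2 * (η * h)) / (2 * (M' * h)) = 1 - η / M' := by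
    field_simp
  have h9 : ENNReal.ofReal (1 - η / M') ≤ q := by
    rw [hq]
    apply ENNReal.ofReal_le_ofReal
    have h10 : η / (2 * M') ≤ η / M' := by
      apply div_le_div_of_nonneg_left hη.le hM0
      linarith
    linarith
  rw [h8] at h7
  exact absurd (hh.trans_le (h7.trans h9)) (lt_irrefl _)

section plane

variable {ι : Type*} [Fintype ι] [DecidableEq ι] {P L : Set (ι → ℝ)} {ν : (ι → ℝ) → ℝ}
  {x0 a b : ι → ℝ} {z00 r e : ℝ × ℝ}

/-- loss in the direction `u` at the point `z` -/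
noncomputable def lossU (ν : (ι → ℝ) → ℝ) (x0 a b u : ι → ℝ) (z : ℝ × ℝ) (h : ℝ) : ℝ :=
  ν (X x0 a b z) - ν (X x0 a b z + h • u)

/-- data of one step of the ladder: everything is coarser along the ray, the slots of `u` are
constant along the ray. -/
structure StepU (P : Set (ι → ℝ)) (ν : (ι → ℝ) → ℝ) (x0 a b : ι → ℝ) (z00 r e : ℝ × ℝ)
    (m0 : ℝ → ℝ) (μ : ℝ) (V : Set ℝ) (S K : ℝ) (u : ι → ℝ) : Prop
    extends Ray P ν x0 a b z00 r e m0 μ V S K where
  ray : ∀ i, 0 ≤ Tn a b e i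
  u0 : ∀ i, 0 ≤ u i
  slot : ∀ i, u i ≠ 0 → Tn a b e i = 0
  mono : ∀ p ∈ P, ∀ q ∈ P, p ≤ q → ν q ≤ ν p
  sup : SupOn ν P
  legu : ∃ h0 : ℝ, 0 < h0 ∧ ∀ ξ ∈ V, ∀ s, 0 ≤ s → s ≤ S → ∀ h, 0 ≤ h → h ≤ h0 →
    X x0 a b (pt z00 r e ξ s) + h • u ∈ P

variable {m0 : ℝ → ℝ} {μ : ℝ} {V : Set ℝ} {S K g : ℝ} {u : ι → ℝ}

theorem StepU.loss_mono (H : StepU P ν x0 a b z00 r e m0 μ V S K u) : ∃ h0 : ℝ, 0 < h0 ∧
    ∀ ξ ∈ V, ∀ s s' : ℝ, 0 ≤ s → s ≤ s' → s' ≤ S → ∀ h, 0 ≤ h → h ≤ h0 →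
      lossU ν x0 a b u (pt z00 r e ξ s) h ≤ lossU ν x0 a b u (pt z00 r e ξ s') h := by
  obtain ⟨h0, h00, H0⟩ := H.legu
  refine ⟨h0, h00, fun ξ hξ s s' hs hss hs' h hh hh0 => ?_⟩
  have m1 := H0 ξ hξ s hs (hss.trans hs') h hh hh0
  have m2 := H0 ξ hξ s' (hs.trans hss) hs' h hh hh0
  have m3 := H.leg ξ hξ s hs (hss.trans hs')
  have m4 := H.leg ξ hξ s' (hs.trans hss) hs'
  have e1 : (X x0 a b (pt z00 r e ξ s') + h • u) ⊓ X x0 a b (pt z00 r e ξ s) =
      X x0 a b (pt z00 r e ξ s') := by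
    funext i
    simp only [Pi.inf_apply, Pi.add_apply, Pi.smul_apply, smul_eq_mul]
    rw [X_pt ξ s i, X_pt ξ s' i]
    by_cases hij : u i = 0
    · rw [hij, mul_zero, add_zero]
      exact min_eq_left (by nlinarith [H.ray i])
    · rw [H.slot i hij, mul_zero, mul_zero]
      exact min_eq_right (by nlinarith [mul_nonneg hh (H.u0 i)])
  have e2 : (X x0 a b (pt z00 r e ξ s') + h • u) ⊔ X x0 a b (pt z00 r e ξ s) =
      X x0 a b (pt z00 r e ξ s) + h • u := by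
    funext i
    simp only [Pi.sup_apply, Pi.add_apply, Pi.smul_apply, smul_eq_mul]
    rw [X_pt ξ s i, X_pt ξ s' i]
    by_cases hij : u i = 0
    · rw [hij, mul_zero, add_zero, add_zero]
      exact max_eq_right (by nlinarith [H.ray i])
    · rw [H.slot i hij, mul_zero, mul_zero]
      exact max_eq_left (by nlinarith [mul_nonneg hh (H.u0 i)])
  have h5 := H.sup _ m2 _ m3 (by rw [e1]; exact m4) (by rw [e2]; exact m1)
  rw [e1, e2] at h5
  unfold lossU
  linarith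

/-- **one step of the ladder on a natural plane** -/
theorem StepU.zero (H : StepU P ν x0 a b z00 r e m0 μ V S K u) (hg : 0 < g) {O : Set (ℝ × ℝ)}
    (hO : ∀ ξ ∈ V, ∀ s, 0 < s → s < S → pt z00 r e ξ s ∈ O)
    (hF : ∀ᵐ z : ℝ × ℝ, z ∈ O → ∃ D : ℝ × ℝ →L[ℝ] ℝ,
      HasFDerivAt (fun z => ν (X x0 a b z)) D z ∧
      ((∃ c : ℝ, 0 < c ∧ ∃ᶠ h in 𝓝[>] (0:ℝ), c * h ≤ lossU ν x0 a b u z h) →
        g ≤ - D e - μ)) :
    ∀ᵐ ξ, ξ ∈ V → ∀ s, 0 ≤ s → (K * ‖Tn a b e‖ + |μ| + g) * s < g * S →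
      ∀ c : ℝ, 0 < c → ∀ᶠ h in 𝓝[>] (0:ℝ), lossU ν x0 a b u (pt z00 r e ξ s) h < c * h := by
  have hC : 0 ≤ K * ‖Tn a b e‖ + |μ| :=
    add_nonneg (mul_nonneg H.K0 (norm_nonneg _)) (abs_nonneg _)
  have hae := ae_lin hF z00 H.det
  obtain ⟨h0, h00, H0⟩ := H.loss_mono
  refine zero_loss (φ := fun ξ s => ν (X x0 a b (pt z00 r e ξ s)) - m0 ξ - μ * s)
    (Λ := fun ξ s h => lossU ν x0 a b u (pt z00 r e ξ s) h) (V := V) (S := S) hC hg ?_ ?_ ?_ ?_ ?_
  · intro v hv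
    have := H.dmax v hv
    show ν (X x0 a b (pt z00 r e v S)) - m0 v - μ * S ≤ 0
    linarith
  · intro v hv
    have := H.rcd v hv
    show 0 ≤ ν (X x0 a b (pt z00 r e v 0)) - m0 v - μ * 0
    linarith
  · intro v hv s hs s' hs'
    exact H.lip_pt hv hs hs'
  · intro v hv s s' hs hss hs'
    have : ∀ᶠ h in 𝓝[>] (0:ℝ), h ∈ Ioo (0:ℝ) h0 := Ioo_mem_nhdsGT h00
    filter_upwards [this] with h hh
    exact H0 v hv s s' hs hss hs'.le h hh.1.le hh.2.le
  · filter_upwards [hae] with z hz hzV hzS hfr d hd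
    obtain ⟨D, hD, hD2⟩ := hz (hO z.1 hzV z.2 hzS.1 hzS.2)
    rw [hd.unique (deriv_pt hD m0 μ)]
    exact hD2 hfr

theorem X_shift (ξ ξ' s i) : X x0 a b (pt z00 r e ξ' s) i =
    X x0 a b (pt z00 r e ξ s) i + (ξ' - ξ) * Tn a b r i := by
  simp only [X, pt, Tn, Prod.fst_add, Prod.fst_sub, Prod.snd_add, Prod.snd_sub, Prod.smul_fst,
    Prod.smul_snd, smul_eq_mul]
  ring

/-- density form: the loss is `o(h)` uniformly at the record points `ξ + h σ` -/
theorem StepU.unif (H : StepU P ν x0 a b z00 r e m0 μ V S K u) (hV : IsOpen V) {s0 : ℝ}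
    (hs0 : 0 ≤ s0) (hs0S : s0 ≤ S)
    (hz : ∀ᵐ ξ, ξ ∈ V → ∀ c : ℝ, 0 < c → ∀ᶠ h in 𝓝[>] (0:ℝ),
      lossU ν x0 a b u (pt z00 r e ξ s0) h < c * h) :
    ∀ᵐ ξ, ξ ∈ V → ∀ M : ℝ, ∀ ε : ℝ, 0 < ε → ∀ᶠ h in 𝓝[>] (0:ℝ), ∀ σ : ℝ, |σ| ≤ M →
      ξ + h * σ ∈ V ∧ lossU ν x0 a b u (pt z00 r e (ξ + h * σ) s0) h ≤ ε * h := by
  obtain ⟨h0, h00, H0⟩ := H.legu
  have key : ∀ n : ℕ, ∀ᵐ ξ, ξ ∈ V → ∀ M : ℝ, ∀ᶠ h in 𝓝[>] (0:ℝ), ∀ σ : ℝ, |σ| ≤ M →
      ξ + h * σ ∈ V ∧ lossU ν x0 a b u (pt z00 r e (ξ + h * σ) s0) h ≤ 2 / (n + 1) * h := by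
    intro n
    set A : ℕ → Set ℝ := fun k => {ξ | ξ ∈ V ∧ ∀ h : ℝ, 0 < h → h < 1 / (k + 1) →
      lossU ν x0 a b u (pt z00 r e ξ s0) h ≤ 1 / (n + 1) * h} with hA
    have hAe : ∀ᵐ ξ : ℝ, ξ ∈ V → ∃ k, ξ ∈ A k := by
      filter_upwards [hz] with ξ hξ hξV
      have h1 := hξ hξV (1 / (n + 1)) (by positivity)
      rw [eventually_nhdsWithin_iff, Metric.eventually_nhds_iff] at h1
      obtain ⟨δ, hδ, h1⟩ := h1
      obtain ⟨k, hk⟩ := exists_nat_one_div_lt hδ
      refine ⟨k, hξV, fun h hh hhk => (h1 ?_ hh).le⟩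
      rw [Real.dist_eq, sub_zero, abs_of_pos hh]
      exact hhk.trans hk
    filter_upwards [dens hAe] with ξ hξ hξV M
    obtain ⟨k, hk⟩ := hξ hξV
    have hK := H.K0
    set η : ℝ := 1 / (n + 1) / (2 * (K * ‖Tn a b r‖) + 1) with hη
    have hη0 : 0 < η := by positivity
    have hVn : ∀ᶠ h in 𝓝[>] (0:ℝ), ∀ σ : ℝ, |σ| ≤ M → ξ + h * σ ∈ V := by
      obtain ⟨δ, hδ, hb⟩ := Metric.isOpen_iff.1 hV ξ hξV
      have : ∀ᶠ h in 𝓝[>] (0:ℝ), h ∈ Ioo (0:ℝ) (δ / (|M| + 1)) := Ioo_mem_nhdsGT (by positivity)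
      filter_upwards [this] with h hh σ hσ
      apply hb
      rw [mem_ball, Real.dist_eq, add_sub_cancel_left, abs_mul, abs_of_pos hh.1]
      have h2 : h * |σ| ≤ h * (|M| + 1) :=
        mul_le_mul_of_nonneg_left (by linarith [le_abs_self M]) hh.1.le
      have h3 : h * (|M| + 1) < δ := by
        rw [← lt_div_iff₀ (by positivity)]; exact hh.2
      linarith
    have hsm : ∀ᶠ h in 𝓝[>] (0:ℝ), h ∈ Ioo (0:ℝ) (min h0 (1 / (k + 1))) :=
      Ioo_mem_nhdsGT (lt_min h00 (by positivity))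
    filter_upwards [hk M η hη0, hVn, hsm] with h h1 h2 h3 σ hσ
    refine ⟨h2 σ hσ, ?_⟩
    obtain ⟨ξ', ⟨hξ'V, hξ'⟩, hd⟩ := h1 σ hσ
    have h4 := hξ' h h3.1 (h3.2.trans_le (min_le_right _ _))
    have hh0 : h ≤ h0 := h3.2.le.trans (min_le_left _ _)
    have hV1 := h2 σ hσ
    have hhp : (0:ℝ) < h := h3.1
    have n1 := H.leg _ hV1 s0 hs0 hs0S
    have n2 := H.leg _ hξ'V s0 hs0 hs0S
    have n3 := H0 _ hV1 s0 hs0 hs0S h h3.1.le hh0
    have n4 := H0 _ hξ'V s0 hs0 hs0S h h3.1.le hh0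
    have hdd : ∀ w : ι → ℝ, dist (X x0 a b (pt z00 r e (ξ + h * σ) s0) + w)
        (X x0 a b (pt z00 r e ξ' s0) + w) ≤ ‖Tn a b r‖ * (η * h) := by
      intro w
      rw [dist_add_right, dist_pi_le_iff (by positivity)]
      intro i
      rw [Real.dist_eq, X_shift (ξ + h * σ) ξ' s0 i]
      have e1 : X x0 a b (pt z00 r e (ξ + h * σ) s0) i -
          (X x0 a b (pt z00 r e (ξ + h * σ) s0) i + (ξ' - (ξ + h * σ)) * Tn a b r i) =
          - (Tn a b r i * (ξ' - (ξ + h * σ))) := by ring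
      rw [e1, abs_neg, abs_mul]
      refine mul_le_mul ?_ hd (abs_nonneg _) (norm_nonneg _)
      rw [← Real.norm_eq_abs]; exact norm_le_pi_norm (Tn a b r) i
    have l1 := H.lip _ n1 _ n2
    have l2 := H.lip _ n3 _ n4
    have d1 := hdd 0
    rw [add_zero, add_zero] at d1
    have d2 := hdd (h • u)
    have l1' := (abs_le.1 l1)
    have l2' := (abs_le.1 l2)
    have k1 : K * dist (X x0 a b (pt z00 r e (ξ + h * σ) s0)) (X x0 a b (pt z00 r e ξ' s0)) ≤
        K * (‖Tn a b r‖ * (η * h)) := mul_le_mul_of_nonneg_left d1 hK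
    have k2 : K * dist (X x0 a b (pt z00 r e (ξ + h * σ) s0) + h • u)
        (X x0 a b (pt z00 r e ξ' s0) + h • u) ≤ K * (‖Tn a b r‖ * (η * h)) :=
      mul_le_mul_of_nonneg_left d2 hK
    have k3 : 2 * (K * (‖Tn a b r‖ * (η * h))) ≤ 1 / (n + 1) * h := by
      have e1 : η * (2 * (K * ‖Tn a b r‖) + 1) = 1 / (n + 1) := by
        rw [hη]; field_simp
      have e2 : 2 * (K * (‖Tn a b r‖ * (η * h))) = (η * (2 * (K * ‖Tn a b r‖) + 1) - η) * h := by
        ring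
      rw [e2, e1]
      nlinarith [mul_pos hη0 h3.1]
    have e3 : (2:ℝ) / (n + 1) * h = 1 / (n + 1) * h + 1 / (n + 1) * h := by ring
    unfold lossU at h4 ⊢
    rw [e3]
    linarith [l1'.1, l1'.2, l2'.1, l2'.2]
  filter_upwards [ae_all_iff.2 key] with ξ hξ hξV M ε hε
  obtain ⟨n, hn⟩ := exists_nat_one_div_lt (show 0 < ε / 2 by positivity)
  filter_upwards [hξ n hξV M, self_mem_nhdsWithin] with h h1 hh σ hσ
  obtain ⟨h2, h3⟩ := h1 σ hσ
  have hh' : (0:ℝ) < h := hh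
  refine ⟨h2, h3.trans ?_⟩
  have : (2:ℝ) / (n + 1) ≤ ε := by
    have e1 : (2:ℝ) / (n + 1) = 2 * (1 / (n + 1)) := by ring
    rw [e1]; linarith
  exact mul_le_mul_of_nonneg_right this hh'.le

/-- **blow-ups at a good record point are free in the direction `u`**, at all their record points -/
theorem StepU.free (H : StepU P ν x0 a b z00 r e m0 μ V S K u) {ξ s0 : ℝ} (hξ : ξ ∈ V)
    (hs0 : 0 < s0) (hs0S : s0 ≤ S)
    (hz : ∀ M : ℝ, ∀ ε : ℝ, 0 < ε → ∀ᶠ h in 𝓝[>] (0:ℝ), ∀ σ : ℝ, |σ| ≤ M →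
      ξ + h * σ ∈ V ∧ lossU ν x0 a b u (pt z00 r e (ξ + h * σ) s0) h ≤ ε * h)
    {hl : ℕ → ℝ} {lam : (ι → ℝ) → ℝ} (hb : BUp P L ν (X x0 a b (pt z00 r e ξ 0)) hl lam)
    {c : ι → ℝ} {x s σ κ : ℝ} (hc : c ∈ L) (hcx : c + x • u ∈ L) (hx : 0 ≤ x) (hκ : 0 ≤ κ)
    (hs : 0 ≤ s) (hcs : ∀ i, σ * Tn a b r i - s * Tn a b e i ≤ c i)
    (hcu : ∀ i, u i ≠ 0 → c i = σ * Tn a b r i + κ * u i) :
    lam (c + x • u) = lam c := by
  have hlim := hb.sub hc hcx
  obtain ⟨h0, h00, H0⟩ := H.legu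
  -- upper bound
  have hup : ∀ ε : ℝ, 0 < ε → lam c - lam (c + x • u) ≤ ε := by
    intro ε hε
    set y := κ + x + 1 with hy
    have hy0 : 0 < y := by linarith
    have hev : ∀ᶠ l in atTop, ξ + hl l * σ ∈ V ∧
        lossU ν x0 a b u (pt z00 r e (ξ + hl l * σ) s0) (hl l * y) ≤ ε / y * (hl l * y) := by
      have h1 := hz (|σ| / y) (ε / y) (by positivity)
      have h2 : Tendsto (fun l => hl l * y) atTop (𝓝[>] 0) := by
        refine tendsto_nhdsWithin_iff.2 ⟨?_, Eventually.of_forall fun l => ?_⟩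
        · have := hb.zero.mul_const y
          rwa [zero_mul] at this
        · exact mul_pos (hb.pos l) hy0
      filter_upwards [h2.eventually h1] with l hl'
      have h3 := hl' (σ / y) (by rw [abs_div, abs_of_pos hy0])
      have e1 : hl l * y * (σ / y) = hl l * σ := by field_simp
      rw [e1] at h3
      exact h3
    have hsm : ∀ᶠ l in atTop, hl l * s ≤ s0 ∧ hl l * y ≤ h0 := by
      have h1 : Tendsto (fun l => hl l * s) atTop (𝓝 0) := by
        have := hb.zero.mul_const s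
        rwa [zero_mul] at this
      have h2 : Tendsto (fun l => hl l * y) atTop (𝓝 0) := by
        have := hb.zero.mul_const y
        rwa [zero_mul] at this
      exact (h1.eventually (eventually_le_nhds hs0)).and (h2.eventually (eventually_le_nhds h00))
    refine le_of_tendsto hlim ?_
    filter_upwards [hev, hsm, hb.mem c hc, hb.mem _ hcx] with l h1 h2 m1 m2
    have hp := hb.pos l
    rw [div_le_iff₀ hp]
    obtain ⟨hV1, h1⟩ := h1
    set Z := X x0 a b (pt z00 r e (ξ + hl l * σ) s0) with hZ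
    set p0 := X x0 a b (pt z00 r e ξ 0) with hp0
    have hZi : ∀ i, Z i = p0 i + hl l * σ * Tn a b r i - s0 * Tn a b e i := by
      intro i
      rw [hZ, X_pt (ξ + hl l * σ) s0 i, X_shift ξ (ξ + hl l * σ) 0 i, hp0]
      ring
    have hb1 : hl l * κ ≤ hl l * y := by
      apply mul_le_mul_of_nonneg_left _ hp.le; linarith
    have hb2 : hl l * (κ + x) ≤ hl l * y := by
      apply mul_le_mul_of_nonneg_left _ hp.le; linarith
    have m3 : Z + (hl l * κ) • u ∈ P :=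
      H0 _ hV1 s0 hs0.le hs0S _ (mul_nonneg hp.le hκ) (hb1.trans h2.2)
    have m4 : Z + (hl l * (κ + x)) • u ∈ P :=
      H0 _ hV1 s0 hs0.le hs0S _ (mul_nonneg hp.le (by linarith)) (hb2.trans h2.2)
    have m5 : Z + (hl l * y) • u ∈ P :=
      H0 _ hV1 s0 hs0.le hs0S _ (mul_nonneg hp.le hy0.le) h2.2
    have m6 : Z ∈ P := H.leg _ hV1 s0 hs0.le hs0S
    have hge : ∀ i, Z i ≤ p0 i + hl l * c i := by
      intro i
      rw [hZi i]
      have h3 := mul_le_mul_of_nonneg_left (hcs i) hp.le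
      have h4 : hl l * s * Tn a b e i ≤ s0 * Tn a b e i :=
        mul_le_mul_of_nonneg_right h2.1 (H.ray i)
      nlinarith
    have e1 : (Z + (hl l * (κ + x)) • u) ⊓ (p0 + hl l • c) = Z + (hl l * κ) • u := by
      funext i
      simp only [Pi.inf_apply, Pi.add_apply, Pi.smul_apply, smul_eq_mul]
      by_cases hij : u i = 0
      · rw [hij, mul_zero, mul_zero, add_zero]
        exact min_eq_left (hge i)
      · rw [hZi i, H.slot i hij, hcu i hij]
        have h7 : 0 ≤ hl l * x * u i := mul_nonneg (mul_nonneg hp.le hx) (H.u0 i)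
        rw [min_eq_right (by nlinarith)]
        ring
    have e2 : (Z + (hl l * (κ + x)) • u) ⊔ (p0 + hl l • c) = p0 + hl l • (c + x • u) := by
      funext i
      simp only [Pi.sup_apply, Pi.add_apply, Pi.smul_apply, smul_eq_mul]
      by_cases hij : u i = 0
      · rw [hij, mul_zero, mul_zero, add_zero, add_zero]
        exact max_eq_right (hge i)
      · rw [hZi i, H.slot i hij, hcu i hij]
        have h7 : 0 ≤ hl l * x * u i := mul_nonneg (mul_nonneg hp.le hx) (H.u0 i)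
        rw [max_eq_left (by nlinarith)]
        ring
    have h5 := H.sup _ m4 _ m1 (by rw [e1]; exact m3) (by rw [e2]; exact m2)
    rw [e1, e2] at h5
    have h6 : ν (Z + (hl l * κ) • u) ≤ ν Z := by
      refine H.mono _ m6 _ m3 fun i => ?_
      simp only [Pi.add_apply, Pi.smul_apply, smul_eq_mul]
      have := mul_nonneg (mul_nonneg hp.le hκ) (H.u0 i)
      linarith
    have h7 : ν (Z + (hl l * y) • u) ≤ ν (Z + (hl l * (κ + x)) • u) := by
      refine H.mono _ m4 _ m5 fun i => ?_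
      simp only [Pi.add_apply, Pi.smul_apply, smul_eq_mul]
      have := mul_le_mul_of_nonneg_right hb2 (H.u0 i)
      linarith
    have h8 : ε / y * (hl l * y) = ε * hl l := by
      field_simp
    rw [h8] at h1
    unfold lossU at h1
    rw [← hZ] at h1
    linarith
  have hlow : 0 ≤ lam c - lam (c + x • u) := by
    refine ge_of_tendsto hlim ?_
    filter_upwards [hb.mem c hc, hb.mem _ hcx] with l m1 m2
    refine div_nonneg ?_ (hb.pos l).le
    refine sub_nonneg.2 (H.mono _ m1 _ m2 fun i => ?_)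
    simp only [Pi.add_apply, Pi.smul_apply, smul_eq_mul]
    have := mul_nonneg (hb.pos l).le (mul_nonneg hx (H.u0 i))
    linarith
  have := le_of_forall_pos_le_add (a := lam c - lam (c + x • u)) (b := 0)
    (fun ε hε => by rw [zero_add]; exact hup ε hε)
  linarith

end plane

end Crest.Agent.R136.K2S774
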