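import Crest.Agent.R136.K2T_774

/-!
# R136 (helper774): stages of the ladder, theorems

`free_ind`     : free along a natural point ⇒ independent of the slots `J` above this point
`Stage.at_rec` : a tangent at a record point is again a stage
`Stage.raise`  : dropping the slots `J`
`Stage.rung`, `Stage.dead`, `stage_init`
-/

set_option autoImplicit false
set_option linter.unusedSectionVars false
set_option linter.unusedVariables false

open Set Filter Topology Metric MeasureTheory

namespace Crest.Agent.R136.K2S774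

open Dg262 (X X_cont SupOn LegU)
open Dg219 (Tn BUp Walls OutS gC dhC nC)
open Crest.Agent.R138

variable {m : ℕ} {W : Type*} [Fintype W]

/-! ### independence of the slots `J` -/

section ind

variable {Q : Walls (Fin m) W} {A : W → Prop} {lam lo : (Fin m → ℝ) → ℝ} {K : ℝ}

/-- slots of `J` of rank `< t` raised to `n + K` -/
def rse (Q : Walls (Fin m) W) (J : Finset (Fin m)) (n : Fin m → ℝ) (K0 : ℝ) (t : ℕ)
    (c : Fin m → ℝ) : Fin m → ℝ := fun i => if i ∈ J ∧ Q.rk i < t then n i + K0 else c i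

theorem mem_of {n e c : Fin m → ℝ} {K0 : ℝ} (hK : 0 ≤ K0) (hn : Nat Q A n) (hne : n ≤ e)
    (hc : c ∈ cn Q A)
    (h : ∀ w, A w → e (Q.hd w) ≤ n (Q.hd w) ∨
      (e (Q.hd w) ≤ n (Q.hd w) + K0 ∧ ∃ s, Q.co w s ≠ 0 ∧ n s + K0 ≤ e s) ∨
      (c ≤ e ∧ e (Q.hd w) ≤ c (Q.hd w))) : e ∈ cn Q A := by
  intro w hw
  rcases h w hw with h1 | ⟨h1, s, hs, h2⟩ | ⟨h1, h2⟩
  · exact h1.trans ((hn w hw).le.trans (rhs_mono w hne))
  · have h3 := rhs_add_le w hne hs h2 hK
    rw [← hn w hw] at h3
    exact h1.trans h3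
  · exact h2.trans ((hc w hw).trans (rhs_mono w h1))

theorem rse_step (H : Prf (cn Q A) lam lo K) {J : Finset (Fin m)}
    (head : ∀ w, A w → Q.hd w ∈ J → ∃ s ∈ J, Q.co w s ≠ 0) {n : Fin m → ℝ} (hn : Nat Q A n)
    (hfree : ∀ x : ℝ, 0 ≤ x → lam (n + x • ind1 J) = lam n) {c : Fin m → ℝ} (hc : c ∈ cn Q A)
    (hnc : n ≤ c) {K0 : ℝ} (hK0 : 0 ≤ K0) (hcK : ∀ i ∈ J, c i ≤ n i + K0) (t : ℕ) :
    rse Q J n K0 t c ∈ cn Q A ∧ lam (rse Q J n K0 t c) = lam c := by
  induction t with
  | zero =>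
    have : rse Q J n K0 0 c = c := by
      funext i
      unfold rse
      rw [if_neg (fun h => absurd h.2 (Nat.not_lt_zero _))]
    rw [this]
    exact ⟨hc, rfl⟩
  | succ t ih =>
    obtain ⟨hq, ih⟩ := ih
    set q := rse Q J n K0 t c with hqd
    set q' := rse Q J n K0 (t + 1) c with hqd'
    set p : Fin m → ℝ := rse Q J n K0 (t + 1) n with hpd
    set u := n + K0 • ind1 J with hu
    have hnq : n ≤ q := by
      intro i
      rw [hqd]; unfold rse
      split_ifs
      · linarith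
      · exact hnc i
    have hqq' : q ≤ q' := by
      intro i
      rw [hqd, hqd']; unfold rse
      by_cases h1 : i ∈ J ∧ Q.rk i < t
      · rw [if_pos h1, if_pos ⟨h1.1, h1.2.trans (Nat.lt_succ_self t)⟩]
      · rw [if_neg h1]
        by_cases h2 : i ∈ J ∧ Q.rk i < t + 1
        · rw [if_pos h2]; exact hcK i h2.1
        · rw [if_neg h2]
    have hcq' : c ≤ q' := by
      intro i
      rw [hqd']; unfold rse
      by_cases h2 : i ∈ J ∧ Q.rk i < t + 1
      · rw [if_pos h2]; exact hcK i h2.1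
      · rw [if_neg h2]
    have hnp : n ≤ p := by
      intro i
      rw [hpd]; unfold rse
      split_ifs
      · linarith
      · exact le_rfl
    have hpu : p ≤ u := by
      intro i
      rw [hpd, hu]; unfold rse ind1
      simp only [Pi.add_apply, Pi.smul_apply, smul_eq_mul]
      by_cases h2 : i ∈ J
      · rw [if_pos h2, mul_one]
        split_ifs
        · exact le_rfl
        · linarith
      · rw [if_neg (fun h => h2 h.1), if_neg h2]; linarith
    have hjoin : p ⊔ q = q' := by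
      funext i
      rw [Pi.sup_apply, hpd, hqd, hqd']; unfold rse
      by_cases h2 : i ∈ J ∧ Q.rk i < t + 1
      · rw [if_pos h2, if_pos h2]
        refine max_eq_left ?_
        split_ifs
        · exact le_rfl
        · exact hcK i h2.1
      · rw [if_neg h2, if_neg h2, if_neg (fun h => h2 ⟨h.1, h.2.trans (Nat.lt_succ_self t)⟩)]
        exact max_eq_right (hnc i)
    -- membership
    have mp : p ∈ cn Q A := by
      refine mem_of hK0 hn hnp hn.mem fun w hw => ?_
      by_cases h : Q.hd w ∈ J ∧ Q.rk (Q.hd w) < t + 1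
      · right; left
        obtain ⟨s, hs, hs'⟩ := head w hw h.1
        refine ⟨?_, s, hs', ?_⟩
        · rw [hpd]; unfold rse; rw [if_pos h]
        · rw [hpd]; unfold rse
          rw [if_pos ⟨hs, (Q.low w s hs').trans h.2⟩]
      · left
        rw [hpd]; unfold rse; rw [if_neg h]
    have mu : u ∈ cn Q A := by
      refine mem_of hK0 hn (hnp.trans hpu) hn.mem fun w hw => ?_
      by_cases h : Q.hd w ∈ J
      · right; left
        obtain ⟨s, hs, hs'⟩ := head w hw h
        refine ⟨?_, s, hs', ?_⟩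
        · rw [hu]; unfold ind1
          simp only [Pi.add_apply, Pi.smul_apply, smul_eq_mul, if_pos h, mul_one]; exact le_rfl
        · rw [hu]; unfold ind1
          simp only [Pi.add_apply, Pi.smul_apply, smul_eq_mul, if_pos hs, mul_one]; exact le_rfl
      · left
        rw [hu]; unfold ind1
        simp only [Pi.add_apply, Pi.smul_apply, smul_eq_mul, if_neg h, mul_zero, add_zero]
        exact le_rfl
    have mq' : q' ∈ cn Q A := by
      refine mem_of hK0 hn (hnq.trans hqq') hc fun w hw => ?_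
      by_cases h : Q.hd w ∈ J ∧ Q.rk (Q.hd w) < t + 1
      · right; left
        obtain ⟨s, hs, hs'⟩ := head w hw h.1
        refine ⟨?_, s, hs', ?_⟩
        · rw [hqd']; unfold rse; rw [if_pos h]
        · rw [hqd']; unfold rse
          rw [if_pos ⟨hs, (Q.low w s hs').trans h.2⟩]
      · right; right
        refine ⟨hcq', ?_⟩
        rw [hqd']; unfold rse; rw [if_neg h]
    have hne : n ≤ p ⊓ q := le_inf hnp hnq
    have me : p ⊓ q ∈ cn Q A := by
      refine mem_of hK0 hn hne hn.mem fun w hw => ?_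
      by_cases h : Q.hd w ∈ J ∧ Q.rk (Q.hd w) < t + 1
      · right; left
        obtain ⟨s, hs, hs'⟩ := head w hw h.1
        refine ⟨?_, s, hs', ?_⟩
        · refine inf_le_left.trans ?_
          rw [hpd]; unfold rse; rw [if_pos h]
        · rw [Pi.inf_apply]
          refine le_inf ?_ ?_
          · rw [hpd]; unfold rse
            rw [if_pos ⟨hs, (Q.low w s hs').trans h.2⟩]
          · rw [hqd]; unfold rse
            rw [if_pos ⟨hs, by have := Q.low w s hs'; have := h.2; omega⟩]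
      · left
        refine (inf_le_left (a := p) (b := q) (Q.hd w)).trans ?_
        rw [hpd]; unfold rse; rw [if_neg h]
    have h5 := H.sup p mp q hq me (by rw [hjoin]; exact mq')
    rw [hjoin] at h5
    have h6 := H.mono n hn.mem _ me hne
    have h7 := H.mono p mp u mu hpu
    have h8 := hfree K0 hK0
    rw [← hu] at h8
    have h9 := H.mono q hq q' mq' hqq'
    exact ⟨mq', by linarith⟩

/-- **free along a natural point ⇒ independent of the slots `J` above this point** -/
theorem free_ind (H : Prf (cn Q A) lam lo K) {J : Finset (Fin m)}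
    (head : ∀ w, A w → Q.hd w ∈ J → ∃ s ∈ J, Q.co w s ≠ 0) {n : Fin m → ℝ} (hn : Nat Q A n)
    (hfree : ∀ x : ℝ, 0 ≤ x → lam (n + x • ind1 J) = lam n) {c c' : Fin m → ℝ} (hc : c ∈ cn Q A)
    (hc' : c' ∈ cn Q A) (hcc : ∀ i, i ∉ J → c i = c' i) (h1 : n ≤ c) (h2 : n ≤ c') :
    lam c = lam c' := by
  set K0 : ℝ := ‖c - n‖ + ‖c' - n‖ with hK0
  have hK : 0 ≤ K0 := by positivity
  have b1 : ∀ i ∈ J, c i ≤ n i + K0 := by
    intro i _
    have h3 : |(c - n) i| ≤ ‖c - n‖ := by rw [← Real.norm_eq_abs]; exact norm_le_pi_norm _ i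
    rw [Pi.sub_apply] at h3
    have := le_abs_self (c i - n i)
    have := norm_nonneg (c' - n)
    linarith
  have b2 : ∀ i ∈ J, c' i ≤ n i + K0 := by
    intro i _
    have h3 : |(c' - n) i| ≤ ‖c' - n‖ := by rw [← Real.norm_eq_abs]; exact norm_le_pi_norm _ i
    rw [Pi.sub_apply] at h3
    have := le_abs_self (c' i - n i)
    have := norm_nonneg (c - n)
    linarith
  obtain ⟨-, e1⟩ := rse_step H head hn hfree hc h1 hK b1 (Finset.univ.sup Q.rk + 1)
  obtain ⟨-, e2⟩ := rse_step H head hn hfree hc' h2 hK b2 (Finset.univ.sup Q.rk + 1)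
  rw [← e1, ← e2]
  congr 1
  funext i
  unfold rse
  by_cases h : i ∈ J
  · have : Q.rk i < Finset.univ.sup Q.rk + 1 :=
      Nat.lt_succ_of_le (Finset.le_sup (Finset.mem_univ i))
    rw [if_pos ⟨h, this⟩, if_pos ⟨h, this⟩]
  · rw [if_neg (fun h' => h h'.1), if_neg (fun h' => h h'.1)]
    exact hcc i h

end ind

/-! ### stages -/

section stage

variable {Q : Walls (Fin m) W} {P : Set (Fin m → ℝ)} {ν own : (Fin m → ℝ) → ℝ} {K : ℝ}
  {r0 ρ : Fin m → ℝ} {Dl : (Fin m → ℝ) →ₗ[ℝ] ℝ} {Qd : Set (Fin m → ℝ)} {Z Tie : Set (Fin m)}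
  {kz : Fin m} {o : Fin m → ℝ} {τ : ℝ} {A : W → Prop} {Dr : Set (Fin m)}
  {lam lo lam1 lo1 : (Fin m → ℝ) → ℝ}

theorem Stage.nat_b (H : Stage Q P ν own K r0 ρ Dl Qd Z Tie kz o τ A Dr lam lo)
    (hρ : Nat Q A ρ) {b : Fin m → ℝ} (hb : ∀ i, i ∉ Dr → b i = ρ i) : Nat Q A b := by
  intro w hw
  rw [hb _ (H.noD w hw).1, hρ w hw]
  refine rhs_congr w fun s hs => (hb s fun h => hs ((H.noD w hw).2 s h)).symm

theorem Stage.lam_b (H : Stage Q P ν own K r0 ρ Dl Qd Z Tie kz o τ A Dr lam lo)
    (hρ : Nat Q A ρ) {c : Fin m → ℝ} (hc : c ∈ cn Q A) {σ : ℝ}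
    (hb : ∀ i, i ∉ Dr → c i = σ * ρ i) : lam c = σ * Dl ρ := by
  rw [← H.rcd σ]
  refine H.ind c hc (σ • ρ) (hρ.smul σ).mem (fun i hi => ?_) ⟨σ, fun i hi => ?_⟩
  · rw [hb i hi, Pi.smul_apply, smul_eq_mul]
  · rw [hb i (H.ZD i hi)]

/-- a tangent at a record point is again a stage -/
theorem Stage.at_rec (H : Stage Q P ν own K r0 ρ Dl Qd Z Tie kz o τ A Dr lam lo)
    (R : RecD Q A ρ Qd Tie kz o) {b : Fin m → ℝ} (hb : ∀ i, i ∉ Dr → b i = ρ i) {ξ : ℝ}
    {k : ℕ → ℝ} (kpos : ∀ l, 0 < k l) (k0 : Tendsto k atTop (𝓝 0))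
    (H1 : Ex926.IsTan (cn Q A) (cn Q A) lam (fun _ => ξ • b) k lam1)
    (H2 : Ex926.IsTan (cn Q A) (cn Q A) lo (fun _ => ξ • b) k lo1) :
    Stage Q P ν own K r0 ρ Dl Qd Z Tie kz o τ A Dr lam1 lo1 := by
  have hnb := H.nat_b R.nat hb
  have hBU := Dg219.bup_of_tan kpos k0 H1
  have hBO := Dg219.bup_of_tan kpos k0 H2
  have mem : ∀ c ∈ cn Q A, ∀ l, ξ • b + k l • c ∈ cn Q A := fun c hc l =>
    cn_nat_add (hnb.smul ξ) hc (kpos l).le
  have hbase : lam (ξ • b) = ξ * Dl ρ := H.lam_b R.nat (hnb.smul ξ).mem fun i hi => by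
    rw [Pi.smul_apply, smul_eq_mul, hb i hi]
  obtain ⟨x, h, hJ, hxt, σx, hσx, hσν⟩ := H.jt
  obtain ⟨ψ, -, hJ', hψ⟩ := hJ.compX (fun w hw => hw) (hnb.smul ξ).mem (hnb.smul ξ)
    (fun w hw hn => absurd hw hn) kpos k0 H1 H2 _
    (xpR_ev hJ.tan hJ.pos kpos (y := fun _ => ξ • b) (fun _ => (hnb.smul ξ).mem) hσν)
  have hz : b kz = ρ kz := hb kz H.zD
  refine ⟨⟨_, _, hJ', fun l i hi => ?_, recX_of hJ.pos kpos (ξ := fun _ => ξ) hσx subset_rfl
    (fun l i hi => by rw [Pi.smul_apply, smul_eq_mul, hb i hi]) (fun _ => hbase) hψ⟩,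
    H.prf.tan kpos H1 H2, H.noD, H.ZD, H.TD, H.zD, ?_, ?_, ?_, ?_, ?_⟩
  · have h1 := hxt (ψ l) i hi
    simp only [Pi.add_apply, Pi.smul_apply, smul_eq_mul]
    rw [hb i (H.TD i hi), hz, R.tie i hi]
    linear_combination h1
  · rintro c hc c' hc' hcc ⟨σ, hσ⟩
    refine tendsto_nhds_unique (hBU.lim c hc) ((hBU.lim c' hc').congr fun l => ?_)
    rw [H.ind _ (mem c' hc' l) _ (mem c hc l) (fun i hi => ?_) ⟨ξ + k l * σ, fun i hi => ?_⟩]
    · simp only [Pi.add_apply, Pi.smul_apply, smul_eq_mul, hcc i hi]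
    · simp only [Pi.add_apply, Pi.smul_apply, smul_eq_mul]
      rw [hb i (H.ZD i hi), ← hcc i (H.ZD i hi)]
      have := mul_le_mul_of_nonneg_left (hσ i hi) (kpos l).le
      nlinarith
  · intro σ
    refine tendsto_nhds_unique (hBU.lim _ (Nat.mem (Nat.smul R.nat σ))) ?_
    refine tendsto_const_nhds.congr fun l => ?_
    rw [hbase, H.lam_b R.nat (σ := ξ + k l * σ) (mem _ (Nat.mem (Nat.smul R.nat σ)) l)]
    · have := (kpos l).ne'
      field_simp
      ring
    · intro i hi
      simp only [Pi.add_apply, Pi.smul_apply, smul_eq_mul]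
      rw [hb i hi]; ring
  · intro c hc d hd hdc
    refine le_of_tendsto (hBU.lim c hc) (Eventually.of_forall fun l => ?_)
    have h1 := H.dmx _ (mem c hc l) _ (R.qd d hd ξ (k l) (kpos l).le) fun i hi => by
      simp only [Pi.add_apply, Pi.smul_apply, smul_eq_mul]
      rw [hb i hi]
      have := mul_le_mul_of_nonneg_left (hdc i hi) (kpos l).le
      linarith
    rw [map_add, map_smul, map_smul, smul_eq_mul, smul_eq_mul] at h1
    rw [hbase, div_le_iff₀ (kpos l)]
    linarith
  · intro c hc hcT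
    have tie : ∀ t : ℝ, 0 ≤ t → lo (ξ • b + t • c) = -(τ * (ξ * ρ kz + t * c kz)) := by
      intro t ht
      rw [H.ownr _ (cn_nat_add (hnb.smul ξ) hc ht) fun i hi => ?_]
      · simp only [Pi.add_apply, Pi.smul_apply, smul_eq_mul, hz]
      · simp only [Pi.add_apply, Pi.smul_apply, smul_eq_mul, hz]
        rw [hb i (H.TD i hi), R.tie i hi]
        have := mul_le_mul_of_nonneg_left (hcT i hi) ht
        nlinarith
    refine tendsto_nhds_unique (hBO.lim c hc) (tendsto_const_nhds.congr fun l => ?_)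
    have h0 := tie 0 le_rfl
    rw [zero_smul, add_zero, zero_mul, add_zero] at h0
    rw [tie (k l) (kpos l).le, h0]
    have := (kpos l).ne'
    field_simp
    ring
  · intro c hc
    refine le_of_tendsto (hBO.lim c hc) (Eventually.of_forall fun l => ?_)
    have h0 : lo (ξ • b) = -(τ * (ξ * ρ kz)) := by
      rw [H.ownr _ (hnb.smul ξ).mem fun i hi => ?_]
      · simp only [Pi.smul_apply, smul_eq_mul, hz]
      · simp only [Pi.smul_apply, smul_eq_mul, hz]
        rw [hb i (H.TD i hi), R.tie i hi]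
        exact le_of_eq (by ring)
    have h1 := H.ownu _ (mem c hc l)
    simp only [Pi.add_apply, Pi.smul_apply, smul_eq_mul, hz] at h1
    rw [h0, div_le_iff₀ (kpos l)]
    linarith

/-- raise of the slots `J` -/
noncomputable def y0 (Q : Walls (Fin m) W) (J : Finset (Fin m)) : Fin m → ℝ :=
  fun i => if i ∈ J then Q.rs i else 0

/-- walls which do not contain slots of `J` -/
def A2 (Q : Walls (Fin m) W) (A : W → Prop) (J : Finset (Fin m)) (w : W) : Prop :=
  A w ∧ Q.hd w ∉ J ∧ ∀ s ∈ J, Q.co w s = 0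

theorem y0_nonneg (J : Finset (Fin m)) (i : Fin m) : 0 ≤ y0 Q J i := by
  unfold y0
  split_ifs
  · linarith [Q.one_le_rs i]
  · exact le_rfl

theorem y0_A2 {J : Finset (Fin m)} : Nat Q (A2 Q A J) (y0 Q J) := by
  rintro w ⟨-, h1, h2⟩
  have e1 : y0 Q J (Q.hd w) = 0 := by unfold y0; rw [if_neg h1]
  rw [e1]
  unfold Walls.rhs
  refine (Finset.sum_eq_zero fun s _ => ?_).symm
  by_cases hs : s ∈ J
  · rw [h2 s hs]; simp
  · unfold y0; rw [if_neg hs, mul_zero]

theorem y0_strict {J : Finset (Fin m)}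
    (head : ∀ w, A w → Q.hd w ∈ J → ∃ s ∈ J, Q.co w s ≠ 0) {w : W} (hw : A w)
    (hw2 : ¬ A2 Q A J w) : y0 Q J (Q.hd w) + 1 ≤ Q.rhs w (y0 Q J) := by
  by_cases h : Q.hd w ∈ J
  · obtain ⟨s, hs, hs'⟩ := head w hw h
    have h1 := Walls.le_rhs (Q := Q) (c := y0 Q J) (y0_nonneg J) hs'
    have h2 := Q.rs_lt hs'
    have e1 : y0 Q J (Q.hd w) = Q.rs (Q.hd w) := by unfold y0; rw [if_pos h]
    have e2 : y0 Q J s = Q.rs s := by unfold y0; rw [if_pos hs]
    rw [e1]; rw [e2] at h1
    linarith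
  · have : ∃ s ∈ J, Q.co w s ≠ 0 := by
      by_contra hcon
      push Not at hcon
      exact hw2 ⟨hw, h, hcon⟩
    obtain ⟨s, hs, hs'⟩ := this
    have h1 := Walls.le_rhs (Q := Q) (c := y0 Q J) (y0_nonneg J) hs'
    have e1 : y0 Q J (Q.hd w) = 0 := by unfold y0; rw [if_neg h]
    have e2 : y0 Q J s = Q.rs s := by unfold y0; rw [if_pos hs]
    rw [e1]; rw [e2] at h1
    linarith [Q.one_le_rs s]

/-- legality at the raised point -/
theorem y0_legal {J : Finset (Fin m)}
    (head : ∀ w, A w → Q.hd w ∈ J → ∃ s ∈ J, Q.co w s ≠ 0) (C : ℝ) :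
    ∃ h0 : ℝ, 0 < h0 ∧ ∀ h : ℝ, 0 < h → h < h0 → ∀ c ∈ cn Q (A2 Q A J), ‖c‖ ≤ C →
      y0 Q J + h • c ∈ cn Q A := by
  classical
  set S : ℝ := ∑ w, ∑ s, (Q.co w s : ℝ) with hS
  have hS0 : 0 ≤ S := Finset.sum_nonneg fun w _ => Finset.sum_nonneg fun s _ => Nat.cast_nonneg _
  refine ⟨1 / ((|C| + 1) * (1 + S)), by positivity, fun h hh hh0 c hc hcC w hw => ?_⟩
  rw [lt_div_iff₀ (by positivity)] at hh0
  have hcb : ∀ i, |c i| ≤ |C| := fun i => by
    rw [← Real.norm_eq_abs]
    exact (norm_le_pi_norm c i).trans (hcC.trans (le_abs_self C))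
  by_cases h2 : A2 Q A J w
  · have h3 := hc w h2
    have h4 := y0_A2 (Q := Q) (A := A) (J := J) w h2
    rw [Q.rhs_add, Q.rhs_smul, Pi.add_apply, Pi.smul_apply, smul_eq_mul, h4]
    have := mul_le_mul_of_nonneg_left h3 hh.le
    linarith
  · have h3 := y0_strict head hw h2
    rw [Q.rhs_add, Q.rhs_smul, Pi.add_apply, Pi.smul_apply, smul_eq_mul]
    have h4 : |Q.rhs w c| ≤ S * |C| := by
      have e1 : |Q.rhs w c| ≤ ∑ s, (Q.co w s : ℝ) * |C| := by
        unfold Walls.rhs
        refine (Finset.abs_sum_le_sum_abs _ _).trans (Finset.sum_le_sum fun s _ => ?_)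
        rw [abs_mul, Nat.abs_cast]
        exact mul_le_mul_of_nonneg_left (hcb s) (Nat.cast_nonneg _)
      rw [← Finset.sum_mul] at e1
      refine e1.trans (mul_le_mul_of_nonneg_right ?_ (abs_nonneg _))
      exact Finset.single_le_sum (f := fun w => ∑ s, (Q.co w s : ℝ))
        (fun w _ => Finset.sum_nonneg fun s _ => Nat.cast_nonneg _) (Finset.mem_univ w)
    have h5 := hcb (Q.hd w)
    have h6 := (abs_le.1 h4).1
    have h7 := (abs_le.1 h5).2
    have h8 : h * c (Q.hd w) ≤ h * |C| := mul_le_mul_of_nonneg_left h7 hh.le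
    have h9 : h * (-(S * |C|)) ≤ h * Q.rhs w c := mul_le_mul_of_nonneg_left h6 hh.le
    have h10 : h * ((|C| + 1) * (1 + S)) = h * |C| + h * (S * |C|) + h + h * S := by ring
    have h11 : 0 ≤ h * S := mul_nonneg hh.le hS0
    linarith

/-- **dropping the slots `J`** -/
theorem Stage.raise (H : Stage Q P ν own K r0 ρ Dl Qd Z Tie kz o τ A Dr lam lo)
    (R : RecD Q A ρ Qd Tie kz o) {T T' b : Fin m → ℝ} {J : Finset (Fin m)}
    (D : RungD Q A Dr Z Tie kz Qd ρ T T' b J)
    (hfree : ∀ σ s x : ℝ, 0 ≤ s → 0 ≤ x →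
      lam (σ • b - s • T + x • ind1 J) = lam (σ • b - s • T)) :
    ∃ lam2 lo2 : (Fin m → ℝ) → ℝ,
      Stage Q P ν own K r0 ρ Dl Qd Z Tie kz o τ (A2 Q A J) (Dr ∪ ↑J) lam2 lo2 := by
  have hnb := H.nat_b R.nat D.bρ
  have hρ : Nat Q A ρ := R.nat
  have hT : Nat Q A T := D.natT
  set k : ℕ → ℝ := fun l => 1 / ((l : ℝ) + 1) with hk
  have kpos : ∀ l, 0 < k l := fun l => by positivity
  have k0 : Tendsto k atTop (𝓝 0) := tendsto_one_div_add_atTop_nhds_zero_nat
  have my0 : y0 Q J ∈ cn Q A := fun w hw => by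
    by_cases h : A2 Q A J w
    · exact (y0_A2 w h).le
    · linarith [y0_strict D.head hw h]
  have hleg := y0_legal (Q := Q) (A := A) D.head
  obtain ⟨φ, hφ, lam2, lo2, H1, H2⟩ := exists_joint H.prf (cn_closed (Q := Q) (A := A2 Q A J))
    cn_zero hleg kpos k0
  set q : ℕ → ℝ := fun l => k (φ l) with hq
  have qpos : ∀ l, 0 < q l := fun l => kpos _
  have q0 : Tendsto q atTop (𝓝 0) := k0.comp hφ.tendsto_atTop
  have hBU := Dg219.bup_of_tan qpos q0 H1
  have hBO := Dg219.bup_of_tan qpos q0 H2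
  obtain ⟨x, h, hJ, hxt, σx, hσx, hσν⟩ := H.jt
  obtain ⟨ψ, -, hJ', hψ⟩ := hJ.compX (A' := A2 Q A J) (fun w hw => hw.1) my0 y0_A2
    (fun w hw hn => by linarith [y0_strict D.head hw hn]) qpos q0 H1 H2 _
    (xpR_ev hJ.tan hJ.pos qpos (y := fun _ => y0 Q J) (fun _ => my0) hσν)
  have y0off : ∀ i, i ∉ J → y0 Q J i = 0 := fun i hi => by unfold y0; rw [if_neg hi]
  have y0on : ∀ i ∈ J, 1 ≤ y0 Q J i := fun i hi => by
    unfold y0; rw [if_pos hi]; exact Q.one_le_rs i
  -- small steps
  have small : ∀ v : ℝ, ∀ᶠ l in atTop, q l * v ≤ 1 := by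
    intro v
    have h1 : Tendsto (fun l => q l * v) atTop (𝓝 0) := by
      have := q0.mul_const v
      rwa [zero_mul] at this
    exact (h1.eventually_lt_const one_pos).mono fun l hl => hl.le
  have smallJ : ∀ v w : Fin m → ℝ, ∀ᶠ l in atTop, ∀ i ∈ J, q l * v i ≤ y0 Q J i + q l * w i := by
    intro v w
    have h1 : ∀ᶠ l in atTop, ∀ i : Fin m, q l * (v i - w i) ≤ 1 :=
      eventually_all.2 fun i => small _
    filter_upwards [h1] with l hl i hi
    have := hl i
    have := y0on i hi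
    linarith
  -- values of `lam` over the raised points
  have indep : ∀ c ∈ cn Q A, ∀ c' ∈ cn Q A, (∀ i, i ∉ J → c i = c' i) → ∀ σ : ℝ,
      (∀ i ∈ Z, σ * ρ i ≤ c i) → (∀ i ∈ J, σ * b i ≤ c i) → (∀ i ∈ J, σ * b i ≤ c' i) →
      lam c = lam c' := by
    intro c hc c' hc' hcc σ hZ hJ1 hJ2
    -- `s` large
    set s : ℝ := ∑ i, |σ * b i - c i| / T i with hs
    have s0 : 0 ≤ s := Finset.sum_nonneg fun i _ => div_nonneg (abs_nonneg _) (D.T0 i)
    have hle : ∀ i, i ∉ J → σ * b i - s * T i ≤ c i := by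
      intro i hi
      by_cases hiZ : i ∈ Z
      · rw [D.bρ i (H.ZD i hiZ)]
        have := hZ i hiZ
        have := mul_nonneg s0 (D.T0 i)
        linarith
      · have hTi := D.TZ i hi hiZ
        have h1 : |σ * b i - c i| / T i ≤ s :=
          Finset.single_le_sum (f := fun i => |σ * b i - c i| / T i)
            (fun i _ => div_nonneg (abs_nonneg _) (D.T0 i)) (Finset.mem_univ i)
        rw [div_le_iff₀ hTi] at h1
        have := le_abs_self (σ * b i - c i)
        linarith
    have hn : Nat Q A (σ • b - s • T) := (hnb.smul σ).sub (hT.smul s)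
    refine free_ind H.prf D.head hn (fun x hx => hfree σ s x s0 hx) hc hc' hcc ?_ ?_
    · intro i
      simp only [Pi.sub_apply, Pi.smul_apply, smul_eq_mul]
      by_cases hi : i ∈ J
      · rw [D.TJ i hi, mul_zero, sub_zero]; exact hJ1 i hi
      · exact hle i hi
    · intro i
      simp only [Pi.sub_apply, Pi.smul_apply, smul_eq_mul]
      by_cases hi : i ∈ J
      · rw [D.TJ i hi, mul_zero, sub_zero]; exact hJ2 i hi
      · rw [← hcc i hi]; exact hle i hi
  have hy0 : lam (y0 Q J) = 0 := by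
    have h1 : lam (y0 Q J) = lam 0 := by
      refine indep _ my0 _ cn_zero (fun i hi => ?_) 0 (fun i hi => ?_) (fun i hi => ?_)
        (fun i hi => ?_)
      · rw [y0off i hi]; rfl
      · rw [zero_mul]; exact y0_nonneg J i
      · rw [zero_mul]; exact y0_nonneg J i
      · rw [zero_mul]; exact le_rfl
    have h2 := H.rcd 0
    rw [zero_smul, zero_mul] at h2
    rw [h1, h2]
  refine ⟨lam2, lo2, ⟨⟨_, _, hJ', fun l i hi => ?_, recX_of hJ.pos qpos (ξ := fun _ => 0) hσx
    subset_union_left (fun l i hi => by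
      rw [y0off i fun h => hi (Or.inr h), zero_mul]) (fun _ => by rw [hy0, zero_mul]) hψ⟩,
    H.prf.tan qpos H1 H2, ?_, ?_, ?_, ?_, ?_, ?_, ?_, ?_, ?_⟩⟩
  · have h1 := hxt (ψ l) i hi
    simp only [Pi.add_apply, Pi.smul_apply, smul_eq_mul]
    rw [y0off i (fun h => D.JT i h hi), y0off kz D.Jz]
    linear_combination h1
  · rintro w ⟨hw, h1, h2⟩
    refine ⟨fun h3 => ?_, fun s hs => ?_⟩
    · rcases h3 with h3 | h3
      · exact (H.noD w hw).1 h3
      · exact h1 h3
    · rcases hs with hs | hs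
      · exact (H.noD w hw).2 s hs
      · exact h2 s hs
  · rintro i hi (h1 | h1)
    · exact H.ZD i hi h1
    · exact D.JZ i h1 hi
  · rintro i hi (h1 | h1)
    · exact H.TD i hi h1
    · exact D.JT i h1 hi
  · rintro (h1 | h1)
    · exact H.zD h1
    · exact D.Jz h1
  · rintro c hc c' hc' hcc ⟨σ, hσ⟩
    classical
    set c'' : Fin m → ℝ := fun i => if i ∈ J then c i else c' i with hc''
    have mc'' : c'' ∈ cn Q (A2 Q A J) := by
      intro w hw
      have e1 : c'' (Q.hd w) = c' (Q.hd w) := by rw [hc'']; simp only; rw [if_neg hw.2.1]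
      have e2 : Q.rhs w c'' = Q.rhs w c' := by
        refine rhs_congr w fun s hs => ?_
        rw [hc'']; simp only
        rw [if_neg fun h => hs (hw.2.2 s h)]
      rw [e1, e2]; exact hc' w hw
    refine tendsto_nhds_unique (hBU.lim c hc) ((hBU.lim c' hc').congr' ?_)
    filter_upwards [hBU.mem c hc, hBU.mem c' hc', hBU.mem c'' mc'', smallJ (σ • b) c,
      smallJ (σ • b) c'] with l m1 m2 m3 s1 s2
    have e1 : lam (y0 Q J + q l • c) = lam (y0 Q J + q l • c'') := by
      refine H.ind _ m1 _ m3 (fun i hi => ?_) ⟨q l * σ, fun i hi => ?_⟩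
      · simp only [Pi.add_apply, Pi.smul_apply, smul_eq_mul, hc'']
        by_cases hiJ : i ∈ J
        · rw [if_pos hiJ]
        · rw [if_neg hiJ, hcc i (by rintro (h1 | h1); exacts [hi h1, hiJ h1])]
      · have hiJ : i ∉ J := fun h => D.JZ i h hi
        simp only [Pi.add_apply, Pi.smul_apply, smul_eq_mul]
        rw [y0off i hiJ, zero_add, mul_assoc]
        exact mul_le_mul_of_nonneg_left (hσ i hi) (qpos l).le
    have e2 : lam (y0 Q J + q l • c'') = lam (y0 Q J + q l • c') := by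
      refine indep _ m3 _ m2 (fun i hi => ?_) (q l * σ) (fun i hi => ?_) (fun i hi => ?_)
        (fun i hi => ?_)
      · simp only [Pi.add_apply, Pi.smul_apply, smul_eq_mul, hc'']
        rw [if_neg hi]
      · have hiJ : i ∉ J := fun h => D.JZ i h hi
        have hiD : i ∉ Dr ∪ ↑J := by rintro (h1 | h1); exacts [H.ZD i hi h1, hiJ h1]
        simp only [Pi.add_apply, Pi.smul_apply, smul_eq_mul, hc'']
        rw [if_neg hiJ, y0off i hiJ, zero_add, mul_assoc, ← hcc i hiD]
        exact mul_le_mul_of_nonneg_left (hσ i hi) (qpos l).le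
      · have := s1 i hi
        simp only [Pi.add_apply, Pi.smul_apply, smul_eq_mul, hc''] at this ⊢
        rw [if_pos hi]; linarith
      · have := s2 i hi
        simp only [Pi.add_apply, Pi.smul_apply, smul_eq_mul] at this ⊢
        linarith
    rw [e1, e2]
  · intro σ
    have mσ : Nat Q (A2 Q A J) (σ • ρ) := fun w hw => hρ.smul σ w hw.1
    refine tendsto_nhds_unique (hBU.lim _ mσ.mem) (tendsto_const_nhds.congr' ?_)
    filter_upwards [hBU.mem _ mσ.mem, smallJ (σ • b) (σ • ρ)] with l m1 s1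
    have e1 : lam (y0 Q J + q l • σ • ρ) = lam ((q l * σ) • b) := by
      -- first change the slots of `Dr`
      classical
      set d : Fin m → ℝ := fun i => if i ∈ J then (y0 Q J + q l • σ • ρ) i else q l * σ * b i
        with hd
      have md : d ∈ cn Q A := by
        intro w hw
        by_cases hwJ : A2 Q A J w
        · have e2 : d (Q.hd w) = q l * σ * b (Q.hd w) := by
            rw [hd]; simp only; rw [if_neg hwJ.2.1]
          have e3 : Q.rhs w d = Q.rhs w ((q l * σ) • b) := by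
            refine rhs_congr w fun s hs => ?_
            rw [hd]; simp only
            rw [if_neg fun h => hs (hwJ.2.2 s h)]; rfl
          rw [e2, e3]
          exact (hnb.smul (q l * σ) w hw).le
        · have h1 := m1 w hw
          have hle : d (Q.hd w) = (y0 Q J + q l • σ • ρ) (Q.hd w) := by
            rw [hd]; simp only
            by_cases hh : Q.hd w ∈ J
            · rw [if_pos hh]
            · rw [if_neg hh]
              simp only [Pi.add_apply, Pi.smul_apply, smul_eq_mul]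
              rw [y0off _ hh, D.bρ _ (H.noD w hw).1]; ring
          have hre : Q.rhs w d = Q.rhs w (y0 Q J + q l • σ • ρ) := by
            refine rhs_congr w fun s hs => ?_
            rw [hd]; simp only
            by_cases hh : s ∈ J
            · rw [if_pos hh]
            · rw [if_neg hh]
              simp only [Pi.add_apply, Pi.smul_apply, smul_eq_mul]
              rw [y0off _ hh, D.bρ _ fun h => hs ((H.noD w hw).2 s h)]; ring
          rw [hle, hre]; exact h1
      have e4 : lam (y0 Q J + q l • σ • ρ) = lam d := by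
        refine H.ind _ m1 _ md (fun i hi => ?_) ⟨q l * σ, fun i hi => ?_⟩
        · rw [hd]; simp only
          by_cases hh : i ∈ J
          · rw [if_pos hh]
          · rw [if_neg hh]
            simp only [Pi.add_apply, Pi.smul_apply, smul_eq_mul]
            rw [y0off _ hh, D.bρ _ hi]; ring
        · simp only [Pi.add_apply, Pi.smul_apply, smul_eq_mul]
          rw [y0off _ (fun h => D.JZ i h hi)]
          exact le_of_eq (by ring)
      rw [e4]
      refine indep _ md _ (hnb.smul _).mem (fun i hi => ?_) (q l * σ) (fun i hi => ?_)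
        (fun i hi => ?_) (fun i hi => ?_)
      · rw [hd]; simp only; rw [if_neg hi]; rfl
      · rw [hd]; simp only
        rw [if_neg (fun h => D.JZ i h hi), D.bρ _ (H.ZD i hi)]
      · rw [hd]; simp only
        rw [if_pos hi]
        have := s1 i hi
        simp only [Pi.add_apply, Pi.smul_apply, smul_eq_mul] at this ⊢
        linarith
      · simp only [Pi.smul_apply, smul_eq_mul]; exact le_rfl
    have e5 : lam ((q l * σ) • b) = q l * σ * Dl ρ := H.lam_b R.nat (hnb.smul _).mem fun i hi => by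
      rw [Pi.smul_apply, smul_eq_mul, D.bρ i hi]
    rw [e1, e5, hy0]
    have := (qpos l).ne'
    field_simp
    ring
  · intro c hc d hd hdc
    refine le_of_tendsto (hBU.lim c hc) ?_
    filter_upwards [hBU.mem c hc, smallJ d c] with l m1 s1
    have h1 := H.dmx _ m1 _ (R.qd d hd 0 (q l) (qpos l).le) fun i hi => by
      simp only [Pi.add_apply, Pi.smul_apply, smul_eq_mul, zero_mul, zero_add]
      by_cases hiJ : i ∈ J
      · exact s1 i hiJ
      · rw [y0off i hiJ, zero_add]
        exact mul_le_mul_of_nonneg_left (hdc i (by rintro (h1 | h1); exacts [hi h1, hiJ h1]))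
          (qpos l).le
    rw [map_add, map_smul, map_smul, smul_eq_mul, smul_eq_mul, zero_mul, zero_add] at h1
    rw [hy0, sub_zero, div_le_iff₀ (qpos l)]
    linarith
  · intro c hc hcT
    refine tendsto_nhds_unique (hBO.lim c hc) (tendsto_const_nhds.congr' ?_)
    filter_upwards [hBO.mem c hc] with l m1
    have h1 : lo (y0 Q J + q l • c) = -(τ * (q l * c kz)) := by
      rw [H.ownr _ m1 fun i hi => ?_]
      · simp only [Pi.add_apply, Pi.smul_apply, smul_eq_mul, y0off kz D.Jz, zero_add]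
      · simp only [Pi.add_apply, Pi.smul_apply, smul_eq_mul, y0off kz D.Jz,
          y0off i (fun h => D.JT i h hi), zero_add]
        have := mul_le_mul_of_nonneg_left (hcT i hi) (qpos l).le
        nlinarith
    have h2 : lo (y0 Q J) = 0 := by
      rw [H.ownr _ my0 fun i hi => ?_]
      · rw [y0off kz D.Jz]; ring
      · rw [y0off kz D.Jz, y0off i (fun h => D.JT i h hi)]; simp
    rw [h1, h2]
    have := (qpos l).ne'
    field_simp
    ring
  · intro c hc
    refine le_of_tendsto (hBO.lim c hc) ?_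
    filter_upwards [hBO.mem c hc] with l m1
    have h1 := H.ownu _ m1
    simp only [Pi.add_apply, Pi.smul_apply, smul_eq_mul, y0off kz D.Jz, zero_add] at h1
    have h2 : lo (y0 Q J) = 0 := by
      rw [H.ownr _ my0 fun i hi => ?_]
      · rw [y0off kz D.Jz]; ring
      · rw [y0off kz D.Jz, y0off i (fun h => D.JT i h hi)]; simp
    rw [h2, sub_zero, div_le_iff₀ (qpos l)]
    linarith

end stage

end Crest.Agent.R136.K2S774
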