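import Crest.Agent.R136.K2V_774

/-!
# R136 (helper774): THE LADDER: `Stage.rung`, `Stage.dead`, `stage_init`
-/

set_option autoImplicit false
set_option linter.unusedSectionVars false
set_option linter.unusedVariables false

open Set Filter Topology Metric MeasureTheory

namespace Crest.Agent.R136.K2S774

open Dg262 (X X_cont SupOn LegU)
open Dg219 (Tn BUp Walls OutS gC dhC nC)
open Crest.Agent.R138

variable {m : ℕ} {W : Type*} [Fintype W]

variable {Q : Walls (Fin m) W} {P : Set (Fin m → ℝ)} {ν own : (Fin m → ℝ) → ℝ} {K : ℝ}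
  {r0 ρ : Fin m → ℝ} {Dl : (Fin m → ℝ) →ₗ[ℝ] ℝ} {Qd : Set (Fin m → ℝ)} {Z Tie : Set (Fin m)}
  {kz : Fin m} {o : Fin m → ℝ} {τ : ℝ} {A : W → Prop} {Dr : Set (Fin m)}
  {lam lo : (Fin m → ℝ) → ℝ}

theorem X_pt0 (T b : Fin m → ℝ) (ξ s : ℝ) :
    X 0 T b (pt 0 (0, 1) (1, 0) ξ s) = ξ • b - s • T := by
  funext i
  simp only [X, pt, Prod.fst_add, Prod.fst_sub, Prod.snd_add, Prod.snd_sub, Prod.smul_fst,
    Prod.smul_snd, smul_eq_mul, Pi.sub_apply, Pi.smul_apply, Pi.zero_apply, Prod.fst_zero,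
    Prod.snd_zero]
  ring

theorem X_zero (T b : Fin m → ℝ) (z : ℝ × ℝ) : X 0 T b z = z.1 • T + z.2 • b := by
  funext i
  simp only [X, Pi.add_apply, Pi.smul_apply, smul_eq_mul, Pi.zero_apply]
  ring

theorem Tn_r (T b : Fin m → ℝ) : Tn T b (0, 1) = b := by
  funext i; simp [Tn]

theorem Tn_e (T b : Fin m → ℝ) : Tn T b (1, 0) = T := by
  funext i; simp [Tn]

theorem ind1_nonneg (J : Finset (Fin m)) (i : Fin m) : 0 ≤ ind1 J i := by
  unfold ind1; split_ifs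
  · exact zero_le_one
  · exact le_rfl

theorem ind1_mem {J : Finset (Fin m)} (head : ∀ w, A w → Q.hd w ∈ J → ∃ s ∈ J, Q.co w s ≠ 0) :
    ind1 J ∈ cn Q A := by
  intro w hw
  by_cases h : Q.hd w ∈ J
  · obtain ⟨s, hs, hs'⟩ := head w hw h
    have h1 := Walls.le_rhs (Q := Q) (c := ind1 J) (ind1_nonneg J) hs'
    have e1 : ind1 J s = 1 := by unfold ind1; rw [if_pos hs]
    have e2 : ind1 J (Q.hd w) = 1 := by unfold ind1; rw [if_pos h]
    rw [e2, ← e1]; exact h1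
  · have e2 : ind1 J (Q.hd w) = 0 := by unfold ind1; rw [if_neg h]
    rw [e2]; exact Walls.rhs_nonneg (ind1_nonneg J)

theorem Stage.ray (H : Stage Q P ν own K r0 ρ Dl Qd Z Tie kz o τ A Dr lam lo)
    (R : RecD Q A ρ Qd Tie kz o) {T T' b : Fin m → ℝ} {J : Finset (Fin m)}
    (D : RungD Q A Dr Z Tie kz Qd ρ T T' b J) :
    Ray (cn Q A) lam 0 T b 0 (0, 1) (1, 0) (fun ξ => ξ * Dl ρ) (-(Dl T')) univ 1 K := by
  have hnb := H.nat_b R.nat D.bρ
  have hT : Nat Q A T := D.natT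
  have hm : ∀ ξ s : ℝ, ξ • b - s • T ∈ cn Q A := fun ξ s =>
    ((hnb.smul ξ).sub (hT.smul s)).mem
  refine ⟨by norm_num, H.prf.K0, fun p hp q hq => ?_, fun ξ _ s _ _ => ?_, fun ξ _ => ?_,
    fun ξ _ => ?_⟩
  · rw [dist_eq_norm]; exact H.prf.lip p hp q hq
  · rw [X_pt0]; exact hm ξ s
  · rw [X_pt0]
    have h1 := H.dmx _ (hm ξ 1) _ (R.qd _ D.qd ξ 1 zero_le_one) fun i hi => by
      simp only [Pi.add_apply, Pi.smul_apply, Pi.neg_apply, Pi.sub_apply, smul_eq_mul]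
      rw [D.bρ i hi, D.TT i hi]
      linarith
    rw [map_add, map_smul, map_smul, map_neg, smul_eq_mul, smul_eq_mul] at h1
    linarith
  · rw [X_pt0, zero_smul, sub_zero]
    exact (H.lam_b R.nat (hnb.smul ξ).mem fun i hi => by
      rw [Pi.smul_apply, smul_eq_mul, D.bρ i hi]).ge

theorem Stage.stepU (H : Stage Q P ν own K r0 ρ Dl Qd Z Tie kz o τ A Dr lam lo)
    (R : RecD Q A ρ Qd Tie kz o) {T T' b : Fin m → ℝ} {J : Finset (Fin m)}
    (D : RungD Q A Dr Z Tie kz Qd ρ T T' b J) :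
    StepU (cn Q A) lam 0 T b 0 (0, 1) (1, 0) (fun ξ => ξ * Dl ρ) (-(Dl T')) univ 1 K
      (ind1 J) := by
  have hnb := H.nat_b R.nat D.bρ
  have hT : Nat Q A T := D.natT
  refine { toRay := H.ray R D, ray := fun i => ?_, u0 := ind1_nonneg J, slot := fun i hi => ?_
           mono := H.prf.mono, sup := H.prf.sup, legu := ⟨1, one_pos, ?_⟩ }
  · rw [Tn_e]; exact D.T0 i
  · rw [Tn_e]
    refine D.TJ i ?_
    by_contra h
    exact hi (by unfold ind1; rw [if_neg h])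
  · intro ξ _ s _ _ h hh _
    rw [X_pt0]
    exact cn_nat_add ((hnb.smul ξ).sub (hT.smul s)) (ind1_mem D.head) hh

/-- tangents at a point of the plane -/
theorem Stage.at_pt (H : Stage Q P ν own K r0 ρ Dl Qd Z Tie kz o τ A Dr lam lo)
    {y : Fin m → ℝ} (hy : Nat Q A y) {k : ℕ → ℝ} (kpos : ∀ l, 0 < k l)
    (k0 : Tendsto k atTop (𝓝 0)) :
    ∃ φ : ℕ → ℕ, StrictMono φ ∧ ∃ lam' lo' : (Fin m → ℝ) → ℝ,
      Ex926.IsTan (cn Q A) (cn Q A) lam (fun _ => y) (fun l => k (φ l)) lam' ∧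
      Ex926.IsTan (cn Q A) (cn Q A) lo (fun _ => y) (fun l => k (φ l)) lo' ∧
      ∃ (x' : ℕ → Fin m → ℝ) (h' : ℕ → ℝ), JT Q A P ν own r0 x' h' lam' lo' ∧
        (∀ l, ∀ i ∈ Tie, y i = o i * y kz → x' l i - r0 i = o i * (x' l kz - r0 kz)) ∧
        (∀ l, ∀ i ∈ Tie, y i ≤ o i * y kz → x' l i - r0 i ≤ o i * (x' l kz - r0 kz)) ∧
        ∀ i ∈ Tie, y i < o i * y kz → ∀ R : ℝ, ∀ᶠ l in atTop,
          x' l i - r0 i + R * h' l ≤ o i * (x' l kz - r0 kz) := by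
  obtain ⟨φ, hφ, lam', lo', H1, H2⟩ := exists_joint H.prf cn_closed cn_zero
    (fun C => ⟨1, one_pos, fun h hh _ c hc _ => cn_nat_add hy hc hh.le⟩) kpos k0
  obtain ⟨x, h, hJ, hxt, -⟩ := H.jt
  obtain ⟨ψ, -, hJ'⟩ := hJ.comp (fun w hw => hw) hy.mem hy (fun w hw hn => absurd hw hn)
    (fun l => kpos _) (k0.comp hφ.tendsto_atTop) H1 H2
  refine ⟨φ, hφ, lam', lo', H1, H2, _, _, hJ', fun l i hi hyi => ?_, fun l i hi hyi => ?_,
    fun i hi hyi R => ?_⟩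
  · have h1 := hxt (ψ l) i hi
    simp only [Pi.add_apply, Pi.smul_apply, smul_eq_mul]
    rw [hyi]
    linear_combination h1
  · have h1 := hxt (ψ l) i hi
    have h2 := mul_le_mul_of_nonneg_left hyi (hJ.pos (ψ l)).le
    simp only [Pi.add_apply, Pi.smul_apply, smul_eq_mul]
    nlinarith
  · have hs : 0 < o i * y kz - y i := sub_pos.2 hyi
    have h3 : Tendsto (fun l => R * k (φ l)) atTop (𝓝 0) := by
      have := (k0.comp hφ.tendsto_atTop).const_mul R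
      rwa [mul_zero] at this
    filter_upwards [h3.eventually_lt_const hs] with l hl
    have h1 := hxt (ψ l) i hi
    have h2 := mul_le_mul_of_nonneg_left hl.le (hJ.pos (ψ l)).le
    simp only [Pi.add_apply, Pi.smul_apply, smul_eq_mul]
    nlinarith

/-- the F-lemma as an a.e. statement -/
theorem Stage.flem_ae (H : Stage Q P ν own K r0 ρ Dl Qd Z Tie kz o τ A Dr lam lo)
    (R : RecD Q A ρ Qd Tie kz o) {T T' b : Fin m → ℝ} {J : Finset (Fin m)}
    (D : RungD Q A Dr Z Tie kz Qd ρ T T' b J) {g : ℝ} {V : ((Fin m → ℝ) → ℝ) → Prop}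
    (F : FLem Q A P ν own r0 Dl Tie kz o T T' b lam lo V g) (Vz : ℝ × ℝ → Prop)
    (hV : ∀ z, Vz z → ∃ k : ℕ → ℝ, (∀ l, 0 < k l) ∧ Tendsto k atTop (𝓝 0) ∧
      ∀ φ : ℕ → ℕ, StrictMono φ → ∀ lam' : (Fin m → ℝ) → ℝ,
        Ex926.IsTan (cn Q A) (cn Q A) lam (fun _ => X 0 T b z) (fun l => k (φ l)) lam' →
        V lam') :
    ∀ᵐ z : ℝ × ℝ, z ∈ {z : ℝ × ℝ | z.1 < 0} → ∃ D : ℝ × ℝ →L[ℝ] ℝ,
      HasFDerivAt (fun z => lam (X 0 T b z)) D z ∧ (Vz z → g ≤ -D (1, 0) - -(Dl T')) := by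
  have hnb := H.nat_b R.nat D.bρ
  have hT : Nat Q A T := D.natT
  filter_upwards [cn_outS H.prf R.full D.T0 Nat.zero hT hnb] with z hz hz1
  obtain ⟨E, hE, hout⟩ := hz
  refine ⟨E, hE, fun hv => ?_⟩
  have hy : Nat Q A (X 0 T b z) := by
    rw [X_zero]; exact (hT.smul _).add (hnb.smul _)
  obtain ⟨k, kpos, k0, hk⟩ := hV z hv
  obtain ⟨φ, hφ, lam', lo', H1, H2, x', h', hJ, hJt, hJl, hJs⟩ := H.at_pt hy kpos k0
  have k0' := k0.comp hφ.tendsto_atTop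
  obtain ⟨f, rt, hO⟩ := hout _ lam' (Dg219.bup_of_tan (fun l => kpos _) k0' H1)
  have hz : b kz = ρ kz := D.bρ kz H.zD
  have := F z hz1 E hE (fun l => k (φ l)) lam' lo' (fun l => kpos _) k0' H1 H2 x' h' hJ
    ⟨fun l i hi hT' => hJt l i hi (by
      rw [X_zero]
      simp only [Pi.add_apply, Pi.smul_apply, smul_eq_mul]
      rw [hT', D.bρ i (H.TD i hi), hz, R.tie i hi]; ring), fun l i hi hT' => hJl l i hi (by
      have h3 := mul_le_mul_of_nonneg_left hT' (neg_nonneg.2 (le_of_lt hz1))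
      rw [X_zero]
      simp only [Pi.add_apply, Pi.smul_apply, smul_eq_mul]
      rw [D.bρ i (H.TD i hi), hz, R.tie i hi]
      nlinarith), fun i hi hT' => hJs i hi (by
      have h3 := mul_lt_mul_of_pos_left hT' (neg_pos.2 hz1)
      rw [X_zero]
      simp only [Pi.add_apply, Pi.smul_apply, smul_eq_mul]
      rw [D.bρ i (H.TD i hi), hz, R.tie i hi]
      nlinarith)⟩ f rt hO
    (hk φ hφ lam' H1)
  linarith

/-- **ONE RUNG OF THE LADDER** -/
theorem Stage.rung (H : Stage Q P ν own K r0 ρ Dl Qd Z Tie kz o τ A Dr lam lo)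
    (R : RecD Q A ρ Qd Tie kz o) {T T' b : Fin m → ℝ} {J : Finset (Fin m)}
    (D : RungD Q A Dr Z Tie kz Qd ρ T T' b J) {g : ℝ} (hg : 0 < g)
    (F : FLem Q A P ν own r0 Dl Tie kz o T T' b lam lo (fun lam' => lam' (ind1 J) < 0) g) :
    ∃ lam2 lo2 : (Fin m → ℝ) → ℝ,
      Stage Q P ν own K r0 ρ Dl Qd Z Tie kz o τ (A2 Q A J) (Dr ∪ ↑J) lam2 lo2 := by
  have hnb := H.nat_b R.nat D.bρ
  have hT : Nat Q A T := D.natT
  have hU := H.stepU R D
  have hF := H.flem_ae R D F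
    (fun z => ∃ c : ℝ, 0 < c ∧ ∃ᶠ h in 𝓝[>] (0:ℝ), c * h ≤ lossU lam 0 T b (ind1 J) z h) (by
    rintro z ⟨c, hc, hfr⟩
    obtain ⟨k, hk, hk2⟩ := exists_seq_forall_of_frequently
      (hfr.and_eventually self_mem_nhdsWithin)
    have kpos : ∀ l, 0 < k l := fun l => (hk2 l).2
    have k0 : Tendsto k atTop (𝓝 0) := (tendsto_nhdsWithin_iff.1 hk).1
    refine ⟨k, kpos, k0, fun φ hφ lam' H1 => ?_⟩
    have hB := Dg219.bup_of_tan (fun l => kpos _) (k0.comp hφ.tendsto_atTop) H1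
    have h1 : lam' (ind1 J) ≤ -c := by
      refine le_of_tendsto (hB.lim _ (ind1_mem D.head)) (Eventually.of_forall fun l => ?_)
      rw [div_le_iff₀ (kpos _)]
      have := (hk2 (φ l)).1
      unfold lossU at this
      linarith
    show lam' (ind1 J) < 0
    linarith)
  have hz := hU.zero hg (O := {z : ℝ × ℝ | z.1 < 0}) (fun ξ _ s hs _ => by
    show (pt 0 (0, 1) (1, 0) ξ s).1 < 0
    simp [pt]; exact hs) hF
  set C : ℝ := K * ‖Tn T b (1, 0)‖ + |(-(Dl T'))| with hC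
  have hC0 : 0 ≤ C := add_nonneg (mul_nonneg H.prf.K0 (norm_nonneg _)) (abs_nonneg _)
  set s0 : ℝ := g / (2 * (C + g)) with hs0
  have s0pos : 0 < s0 := by positivity
  have s0lt : (C + g) * s0 < g * 1 := by
    rw [hs0]
    have : (C + g) * (g / (2 * (C + g))) = g / 2 := by field_simp
    rw [this]; linarith
  have s01 : s0 ≤ 1 := by
    by_contra hn
    push Not at hn
    nlinarith
  have hun := hU.unif isOpen_univ s0pos.le s01 (by
    filter_upwards [hz] with ξ hξ _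
    exact hξ (mem_univ _) s0 s0pos.le s0lt)
  obtain ⟨ξ, hξ⟩ := hun.exists
  have hξ' := hξ (mem_univ _)
  set k : ℕ → ℝ := fun l => 1 / ((l : ℝ) + 1) with hk
  have kpos : ∀ l, 0 < k l := fun l => by positivity
  have k0 : Tendsto k atTop (𝓝 0) := tendsto_one_div_add_atTop_nhds_zero_nat
  obtain ⟨φ, hφ, lam1, lo1, H1, H2, -⟩ := H.at_pt (hnb.smul ξ) kpos k0
  have k0' := k0.comp hφ.tendsto_atTop
  have S1 := H.at_rec R D.bρ (fun l => kpos _) k0' H1 H2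
  have hB := Dg219.bup_of_tan (fun l => kpos _) k0' H1
  have hX0 : X 0 T b (pt 0 (0, 1) (1, 0) ξ 0) = ξ • b := by
    rw [X_pt0, zero_smul, sub_zero]
  refine S1.raise R D fun σ s x hs hx => ?_
  refine hU.free (mem_univ ξ) s0pos s01 hξ' (L := cn Q A) (lam := lam1)
    (hl := fun l => k (φ l)) (by rw [hX0]; exact hB) (s := s) (σ := σ) (κ := 0)
    (((hnb.smul σ).sub (hT.smul s)).mem)
    (cn_nat_add ((hnb.smul σ).sub (hT.smul s)) (ind1_mem D.head) hx) hx le_rfl hs ?_ ?_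
  · intro i
    rw [Tn_r, Tn_e]
    simp only [Pi.sub_apply, Pi.smul_apply, smul_eq_mul]
    exact le_rfl
  · intro i hi
    have hiJ : i ∈ J := by
      by_contra h
      exact hi (by unfold ind1; rw [if_neg h])
    rw [Tn_r]
    simp only [Pi.sub_apply, Pi.smul_apply, smul_eq_mul]
    rw [D.TJ i hiJ]; ring

/-- **THE LAST RUNG** -/
theorem Stage.dead (H : Stage Q P ν own K r0 ρ Dl Qd Z Tie kz o τ A Dr lam lo)
    (R : RecD Q A ρ Qd Tie kz o) {T T' b : Fin m → ℝ} {J : Finset (Fin m)}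
    (D : RungD Q A Dr Z Tie kz Qd ρ T T' b J) {g : ℝ} (hg : 0 < g)
    (F : FLem Q A P ν own r0 Dl Tie kz o T T' b lam lo (fun _ => True) g) : False := by
  have hF := H.flem_ae R D F (fun _ => True) (fun z _ =>
    ⟨fun l => 1 / ((l : ℝ) + 1), fun l => by positivity, tendsto_one_div_add_atTop_nhds_zero_nat,
      fun _ _ _ _ => trivial⟩)
  have hd := (H.ray R D).dead hg one_pos (O := {z : ℝ × ℝ | z.1 < 0}) (fun ξ _ s hs _ => by
    show (pt 0 (0, 1) (1, 0) ξ s).1 < 0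
    simp [pt]; exact hs) (by
    filter_upwards [hF] with z hz hz1
    obtain ⟨E, h1, h2⟩ := hz hz1
    exact ⟨E, h1, h2 trivial⟩)
  obtain ⟨ξ, hξ⟩ := hd.exists
  exact hξ (mem_univ _)

/-- **THE FIRST STAGE** -/
theorem stage_init (hP : Prf P ν own K) (R : RecD Q A ρ Qd Tie kz o)
    (hr0 : ∀ w, A w → r0 (Q.hd w) = Q.rhs w r0 + Q.cst w)
    (hgap : ∀ w, ¬ A w → r0 (Q.hd w) < Q.rhs w r0 + Q.cst w)
    (hleg : ∀ C : ℝ, ∃ h0 : ℝ, 0 < h0 ∧ ∀ h : ℝ, 0 < h → h < h0 → ∀ c ∈ cn Q A, ‖c‖ ≤ C →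
      r0 + h • c ∈ P)
    (hrec : ∀ σ : ℝ, ∀ᶠ h in 𝓝[>] (0:ℝ), ν (r0 + h • σ • ρ) = ν r0 + h * (σ * Dl ρ))
    (hdm : ∀ d ∈ Qd, ∀ᶠ h in 𝓝[>] (0:ℝ), r0 + h • d ∈ P ∧ ν (r0 + h • d) ≤ ν r0 + h * Dl d)
    (hown : ∀ c ∈ cn Q A, (∀ i ∈ Tie, c i ≤ o i * c kz) →
      ∀ᶠ h in 𝓝[>] (0:ℝ), own (r0 + h • c) = own r0 - h * (τ * c kz))
    (hownu : ∀ c ∈ cn Q A, ∀ᶠ h in 𝓝[>] (0:ℝ), own (r0 + h • c) ≤ own r0 - h * (τ * c kz)) :
    ∃ lam lo : (Fin m → ℝ) → ℝ, Stage Q P ν own K r0 ρ Dl Qd Z Tie kz o τ A ∅ lam lo := by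
  set k : ℕ → ℝ := fun l => 1 / ((l : ℝ) + 1) with hk
  have kpos : ∀ l, 0 < k l := fun l => by positivity
  have k0 : Tendsto k atTop (𝓝 0) := tendsto_one_div_add_atTop_nhds_zero_nat
  obtain ⟨φ, hφ, lam, lo, H1, H2⟩ := exists_joint hP (cn_closed (Q := Q) (A := A)) cn_zero hleg
    kpos k0
  set q : ℕ → ℝ := fun l => k (φ l) with hq
  have qpos : ∀ l, 0 < q l := fun l => kpos _
  have q0 : Tendsto q atTop (𝓝 0) := k0.comp hφ.tendsto_atTop
  have q1 : Tendsto q atTop (𝓝[>] 0) :=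
    tendsto_nhdsWithin_iff.2 ⟨q0, Eventually.of_forall fun l => qpos l⟩
  have hBU := Dg219.bup_of_tan qpos q0 H1
  have hBO := Dg219.bup_of_tan qpos q0 H2
  have hρ : Nat Q A ρ := R.nat
  refine ⟨lam, lo, ⟨⟨fun _ => r0, q, ⟨qpos, q0, fun _ w hw => hr0 w hw, fun w hw R => ?_,
    tendsto_const_nhds, H1, H2⟩, fun l i hi => by ring, fun _ => 0, fun l i hi => by ring,
    tendsto_const_nhds.congr fun l => by simp⟩, hP.tan qpos H1 H2,
    fun w _ => ⟨notMem_empty _, fun s hs => absurd hs (notMem_empty s)⟩,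
    fun i _ => notMem_empty i, fun i _ => notMem_empty i, notMem_empty _, ?_, ?_, ?_, ?_, ?_⟩⟩
  · have h1 : Tendsto (fun l => r0 (Q.hd w) + R * q l) atTop (𝓝 (r0 (Q.hd w) + R * 0)) :=
      (q0.const_mul R).const_add _
    rw [mul_zero, add_zero] at h1
    exact (h1.eventually_lt_const (hgap w hw)).mono fun l hl => hl.le
  · intro c hc c' hc' hcc _
    have : c = c' := funext fun i => hcc i (notMem_empty i)
    rw [this]
  · intro σ
    refine tendsto_nhds_unique (hBU.lim _ (hρ.smul σ).mem) (tendsto_const_nhds.congr' ?_)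
    filter_upwards [q1.eventually (hrec σ)] with l hl
    rw [hl]
    have := (qpos l).ne'
    field_simp
    ring
  · intro c hc d hd hdc
    refine le_of_tendsto (hBU.lim c hc) ?_
    filter_upwards [hBU.mem c hc, q1.eventually (hdm d hd)] with l m1 hl
    have h1 := hP.mono _ hl.1 _ m1 (Qg926.add_smul_mono (qpos l).le
      (fun i => hdc i (notMem_empty i)))
    rw [div_le_iff₀ (qpos l)]
    linarith [hl.2]
  · intro c hc hcT
    refine tendsto_nhds_unique (hBO.lim c hc) (tendsto_const_nhds.congr' ?_)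
    filter_upwards [q1.eventually (hown c hc hcT)] with l hl
    rw [hl]
    have := (qpos l).ne'
    field_simp
    ring
  · intro c hc
    refine le_of_tendsto (hBO.lim c hc) ?_
    filter_upwards [q1.eventually (hownu c hc)] with l hl
    rw [div_le_iff₀ (qpos l)]
    linarith

end Crest.Agent.R136.K2S774
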