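import Mathlib

/-!
# R136 (S0187), Katz–Rogers for sheets: counting lemmas (helper877)

* `cells3` : a `δ`-separated family in `ℝ³` with successive fibre widths `2 W`, `A1`, `A0` has at
  most `36 W A1 A0 / δ³` points;
* `dyad`, `dyad2` : dyadic pigeonholing of one / two functions.
-/

set_option autoImplicit false
set_option linter.unusedVariables false

namespace Crest.Agent.R136.KC877

open Finset

/-- integers with bounded differences -/
theorem card_int_le (S : Finset ℤ) {D : ℝ} (hD : 0 ≤ D)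
    (h : ∀ k ∈ S, ∀ l ∈ S, ((k : ℝ) - l) ≤ D) : (S.card : ℝ) ≤ D + 1 := by
  rcases S.eq_empty_or_nonempty with rfl | hne
  · simp; linarith
  have hsub : S ⊆ Finset.Icc (S.min' hne) (S.min' hne + ⌊D⌋) := by
    intro k hk
    rw [Finset.mem_Icc]
    refine ⟨S.min'_le k hk, ?_⟩
    have := h k hk _ (S.min'_mem hne)
    have h2 : k - S.min' hne ≤ ⌊D⌋ := by
      rw [Int.le_floor]; push_cast; exact this
    linarith
  have hc := Finset.card_le_card hsub
  rw [Int.card_Icc] at hc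
  have hf : (0 : ℤ) ≤ ⌊D⌋ := Int.floor_nonneg.2 hD
  have e : (S.min' hne + ⌊D⌋ + 1 - S.min' hne).toNat = (⌊D⌋ + 1).toNat := by
    congr 1; ring
  rw [e] at hc
  have h3 : ((⌊D⌋ + 1).toNat : ℝ) = (⌊D⌋ : ℝ) + 1 := by
    have : (((⌊D⌋ + 1).toNat : ℤ) : ℝ) = ((⌊D⌋ + 1 : ℤ) : ℝ) := by
      rw [Int.toNat_of_nonneg (by linarith)]
    push_cast at this
    simpa using this
  calc (S.card : ℝ) ≤ ((⌊D⌋ + 1).toNat : ℝ) := by exact_mod_cast hc
    _ = (⌊D⌋ : ℝ) + 1 := h3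
    _ ≤ D + 1 := by linarith [Int.floor_le D]

/-- floors of reals with bounded differences -/
theorem card_floor_le {ι : Type*} (T : Finset ι) (x : ι → ℝ) {δ A : ℝ} (hδ : 0 < δ)
    (hA : 0 ≤ A) (h : ∀ i ∈ T, ∀ j ∈ T, |x i - x j| ≤ A) :
    ((T.image fun i => ⌊x i / δ⌋).card : ℝ) ≤ A / δ + 2 := by
  have := card_int_le (T.image fun i => ⌊x i / δ⌋) (D := A / δ + 1) (by positivity) (by
    intro k hk l hl
    obtain ⟨i, hi, rfl⟩ := Finset.mem_image.1 hk
    obtain ⟨j, hj, rfl⟩ := Finset.mem_image.1 hl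
    have h1 := Int.floor_le (x i / δ)
    have h2 := Int.lt_floor_add_one (x j / δ)
    have h3 : x i / δ - x j / δ ≤ A / δ := by
      rw [← sub_div]
      exact div_le_div_of_nonneg_right ((le_abs_self _).trans (h i hi j hj)) hδ.le
    linarith)
  linarith

/-- `|x - y| < δ` when the floors of `x / δ`, `y / δ` agree -/
theorem abs_lt_of_floor_eq {x y δ : ℝ} (hδ : 0 < δ) (h : ⌊x / δ⌋ = ⌊y / δ⌋) : |x - y| < δ := by
  have := Int.abs_sub_lt_one_of_floor_eq_floor h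
  rw [← sub_div, abs_div, abs_of_pos hδ, div_lt_one hδ] at this
  exact this

/-- real form of `Finset.card_le_mul_card_image` -/
theorem card_le_mul_image {ι κ : Type*} [DecidableEq κ] (T : Finset ι) (f : ι → κ) {m n : ℝ}
    (hm0 : 0 ≤ m) (hm : ∀ a ∈ T.image f, ((T.filter fun i => f i = a).card : ℝ) ≤ m)
    (hn : ((T.image f).card : ℝ) ≤ n) : (T.card : ℝ) ≤ m * n := by
  rw [Finset.card_eq_sum_card_image f T]
  push_cast
  calc (∑ b ∈ T.image f, ((T.filter fun i => f i = b).card : ℝ))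
      ≤ ∑ b ∈ T.image f, m := Finset.sum_le_sum hm
    _ = (T.image f).card * m := by simp
    _ ≤ n * m := mul_le_mul_of_nonneg_right hn hm0
    _ = m * n := mul_comm _ _

/-- **cell counting in `ℝ³`** : `c2` free in a window of half-width `W`, then `c1` free in `A1`,
then `c0` free in `A0`. -/
theorem cells3 {ι : Type*} (T : Finset ι) (b : ι → Fin 3 → ℝ) {δ W A1 A0 m : ℝ} (hδ : 0 < δ)
    (sep : ∀ i ∈ T, ∀ j ∈ T, i ≠ j → ∃ c, δ ≤ |b i c - b j c|)
    (c2 c1 c0 : Fin 3) (hc : ∀ c, c = c0 ∨ c = c1 ∨ c = c2)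
    (hW : δ ≤ W) (hA1 : δ ≤ A1) (hA0 : δ ≤ A0)
    (h2 : ∀ i ∈ T, |b i c2 - m| ≤ W)
    (h1 : ∀ i ∈ T, ∀ j ∈ T, |b i c2 - b j c2| < δ → |b i c1 - b j c1| ≤ A1)
    (h0 : ∀ i ∈ T, ∀ j ∈ T, |b i c2 - b j c2| < δ → |b i c1 - b j c1| < δ →
      |b i c0 - b j c0| ≤ A0) :
    (T.card : ℝ) ≤ 36 * (W * A1 * A0) / δ ^ 3 := by
  classical
  have hWp : 0 < W := hδ.trans_le hW
  have hA1p : 0 < A1 := hδ.trans_le hA1
  have hA0p : 0 < A0 := hδ.trans_le hA0
  -- innermost
  have key0 : ∀ a2 a1 : ℤ, (((T.filter fun i => ⌊b i c2 / δ⌋ = a2).filter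
      fun i => ⌊b i c1 / δ⌋ = a1).card : ℝ) ≤ A0 / δ + 2 := by
    intro a2 a1
    set T' := (T.filter fun i => ⌊b i c2 / δ⌋ = a2).filter fun i => ⌊b i c1 / δ⌋ = a1 with hT'
    have hmem : ∀ i ∈ T', i ∈ T ∧ ⌊b i c2 / δ⌋ = a2 ∧ ⌊b i c1 / δ⌋ = a1 := by
      intro i hi
      rw [hT', Finset.mem_filter, Finset.mem_filter] at hi
      exact ⟨hi.1.1, hi.1.2, hi.2⟩
    have hlt : ∀ i ∈ T', ∀ j ∈ T', |b i c2 - b j c2| < δ ∧ |b i c1 - b j c1| < δ := by
      intro i hi j hj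
      obtain ⟨_, e1, e2⟩ := hmem i hi
      obtain ⟨_, e3, e4⟩ := hmem j hj
      exact ⟨abs_lt_of_floor_eq hδ (e1.trans e3.symm), abs_lt_of_floor_eq hδ (e2.trans e4.symm)⟩
    have hinj : Set.InjOn (fun i => ⌊b i c0 / δ⌋) (T' : Set ι) := by
      intro i hi j hj hij
      by_contra hne
      obtain ⟨c, hcd⟩ := sep i (hmem i hi).1 j (hmem j hj).1 hne
      have hh := hlt i hi j hj
      have h3 : |b i c0 - b j c0| < δ := abs_lt_of_floor_eq hδ hij
      rcases hc c with rfl | rfl | rfl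
      · linarith
      · linarith [hh.2]
      · linarith [hh.1]
    rw [← Finset.card_image_of_injOn hinj]
    exact card_floor_le T' (fun i => b i c0) hδ hA0p.le (fun i hi j hj =>
      h0 i (hmem i hi).1 j (hmem j hj).1 (hlt i hi j hj).1 (hlt i hi j hj).2)
  have key1 : ∀ a2 : ℤ, ((T.filter fun i => ⌊b i c2 / δ⌋ = a2).card : ℝ) ≤
      (A0 / δ + 2) * (A1 / δ + 2) := by
    intro a2
    refine card_le_mul_image _ (fun i => ⌊b i c1 / δ⌋) (by positivity) (fun a1 _ => key0 a2 a1) ?_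
    refine card_floor_le _ (fun i => b i c1) hδ hA1p.le (fun i hi j hj => ?_)
    rw [Finset.mem_filter] at hi hj
    exact h1 i hi.1 j hj.1 (abs_lt_of_floor_eq hδ (hi.2.trans hj.2.symm))
  have key2 : (T.card : ℝ) ≤ ((A0 / δ + 2) * (A1 / δ + 2)) * (2 * W / δ + 2) := by
    refine card_le_mul_image _ (fun i => ⌊b i c2 / δ⌋) (by positivity) (fun a2 _ => key1 a2) ?_
    refine card_floor_le _ (fun i => b i c2) hδ (by linarith) (fun i hi j hj => ?_)
    have e1 := abs_le.1 (h2 i hi)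
    have e2 := abs_le.1 (h2 j hj)
    rw [abs_le]; constructor <;> linarith [e1.1, e1.2, e2.1, e2.2]
  refine key2.trans ?_
  have f0 : A0 / δ + 2 ≤ 3 * (A0 / δ) := by
    have : 1 ≤ A0 / δ := (one_le_div hδ).2 hA0
    linarith
  have f1 : A1 / δ + 2 ≤ 3 * (A1 / δ) := by
    have : 1 ≤ A1 / δ := (one_le_div hδ).2 hA1
    linarith
  have f2 : 2 * W / δ + 2 ≤ 4 * (W / δ) := by
    have : 1 ≤ W / δ := (one_le_div hδ).2 hW
    have e : 2 * W / δ = 2 * (W / δ) := by ring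
    linarith
  calc ((A0 / δ + 2) * (A1 / δ + 2)) * (2 * W / δ + 2)
      ≤ ((3 * (A0 / δ)) * (3 * (A1 / δ))) * (4 * (W / δ)) := by gcongr
    _ = 36 * (W * A1 * A0) / δ ^ 3 := by field_simp; ring

/-- **dyadic pigeonhole** -/
theorem dyad {ι : Type*} (T : Finset ι) (u : ι → ℝ) (U M : ℝ) (n : ℕ)
    (hu : ∀ i ∈ T, u i ≤ U)
    (hM : ∀ j < n, ∀ T' ⊆ T, (∀ i ∈ T', U / 2 ^ (j + 1) < u i ∧ u i ≤ U / 2 ^ j) →
      (T'.card : ℝ) ≤ M)
    (hlast : ∀ T' ⊆ T, (∀ i ∈ T', u i ≤ U / 2 ^ n) → (T'.card : ℝ) ≤ M) :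
    (T.card : ℝ) ≤ (n + 1) * M := by
  classical
  have key : ∀ k ≤ n, ((T.filter fun i => U / 2 ^ k < u i).card : ℝ) ≤ k * M := by
    intro k
    induction k with
    | zero =>
        intro _
        have : (T.filter fun i => U / 2 ^ 0 < u i) = ∅ := by
          apply Finset.filter_eq_empty_iff.2
          intro i hi
          have := hu i hi
          simpa using this
        rw [this]; simp
    | succ k ih =>
        intro hk
        have h1 := ih (by omega)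
        have hsub : (T.filter fun i => U / 2 ^ (k + 1) < u i) ⊆
            (T.filter fun i => U / 2 ^ k < u i) ∪
              (T.filter fun i => U / 2 ^ (k + 1) < u i ∧ u i ≤ U / 2 ^ k) := by
          intro i hi
          rw [Finset.mem_filter] at hi
          rw [Finset.mem_union, Finset.mem_filter, Finset.mem_filter]
          by_cases h : U / 2 ^ k < u i
          · exact Or.inl ⟨hi.1, h⟩
          · exact Or.inr ⟨hi.1, hi.2, not_lt.1 h⟩
        have h2 := hM k (by omega) (T.filter fun i => U / 2 ^ (k + 1) < u i ∧ u i ≤ U / 2 ^ k)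
          (Finset.filter_subset _ _) (fun i hi => (Finset.mem_filter.1 hi).2)
        have h3 : ((T.filter fun i => U / 2 ^ (k + 1) < u i).card : ℝ) ≤
            ((T.filter fun i => U / 2 ^ k < u i).card : ℝ) +
              ((T.filter fun i => U / 2 ^ (k + 1) < u i ∧ u i ≤ U / 2 ^ k).card : ℝ) := by
          exact_mod_cast (Finset.card_le_card hsub).trans (Finset.card_union_le _ _)
        push_cast
        linarith
  have h1 := key n le_rfl
  have hsub : T ⊆ (T.filter fun i => U / 2 ^ n < u i) ∪ (T.filter fun i => u i ≤ U / 2 ^ n) := by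
    intro i hi
    rw [Finset.mem_union, Finset.mem_filter, Finset.mem_filter]
    by_cases h : U / 2 ^ n < u i
    · exact Or.inl ⟨hi, h⟩
    · exact Or.inr ⟨hi, not_lt.1 h⟩
  have h2 := hlast (T.filter fun i => u i ≤ U / 2 ^ n) (Finset.filter_subset _ _)
    (fun i hi => (Finset.mem_filter.1 hi).2)
  have h3 : (T.card : ℝ) ≤ ((T.filter fun i => U / 2 ^ n < u i).card : ℝ) +
      ((T.filter fun i => u i ≤ U / 2 ^ n).card : ℝ) := by
    exact_mod_cast (Finset.card_le_card hsub).trans (Finset.card_union_le _ _)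
  linarith

/-- `x` lies in the `j`-th dyadic class below `U` (`j < n`), the class `n` being everything below
`U / 2 ^ n` -/
def Cls (U : ℝ) (n j : ℕ) (x : ℝ) : Prop :=
  x ≤ U / 2 ^ j ∧ (j < n → U / 2 ^ (j + 1) < x)

theorem dyad' {ι : Type*} (T : Finset ι) (u : ι → ℝ) (U M : ℝ) (n : ℕ)
    (hu : ∀ i ∈ T, u i ≤ U)
    (hM : ∀ j ≤ n, ∀ T' ⊆ T, (∀ i ∈ T', Cls U n j (u i)) → (T'.card : ℝ) ≤ M) :
    (T.card : ℝ) ≤ (n + 1) * M :=
  dyad T u U M n hu
    (fun j hj T' hT' h => hM j hj.le T' hT' (fun i hi => ⟨(h i hi).2, fun _ => (h i hi).1⟩))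
    (fun T' hT' h => hM n le_rfl T' hT' (fun i hi => ⟨h i hi, fun h => absurd h (lt_irrefl _)⟩))

/-- **dyadic pigeonhole for two functions** -/
theorem dyad2 {ι : Type*} (T : Finset ι) (u v : ι → ℝ) (U V M : ℝ) (n l : ℕ)
    (hu : ∀ i ∈ T, u i ≤ U) (hv : ∀ i ∈ T, v i ≤ V)
    (hM : ∀ j ≤ n, ∀ k ≤ l, ∀ T' ⊆ T, (∀ i ∈ T', Cls U n j (u i) ∧ Cls V l k (v i)) →
      (T'.card : ℝ) ≤ M) :
    (T.card : ℝ) ≤ (n + 1) * ((l + 1) * M) :=
  dyad' T u U _ n hu (fun j hj T1 hT1 h1 =>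
    dyad' T1 v V M l (fun i hi => hv i (hT1 hi)) (fun k hk T2 hT2 h2 =>
      hM j hj k hk T2 (hT2.trans hT1) (fun i hi => ⟨h1 i (hT2 hi), h2 i hi⟩)))

/-- splitting by finitely many predicates (signs) -/
theorem split_pred {ι : Type*} (T : Finset ι) (P : ι → Prop) {M : ℝ}
    (h1 : ∀ T' ⊆ T, (∀ i ∈ T', P i) → (T'.card : ℝ) ≤ M)
    (h2 : ∀ T' ⊆ T, (∀ i ∈ T', ¬ P i) → (T'.card : ℝ) ≤ M) :
    (T.card : ℝ) ≤ 2 * M := by
  classical
  have := Finset.card_filter_add_card_filter_not (s := T) (p := P)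
  have a1 := h1 (T.filter P) (Finset.filter_subset _ _) (fun i hi => (Finset.mem_filter.1 hi).2)
  have a2 := h2 (T.filter fun i => ¬ P i) (Finset.filter_subset _ _)
    (fun i hi => (Finset.mem_filter.1 hi).2)
  have h3 : (T.card : ℝ) = ((T.filter P).card : ℝ) + ((T.filter fun i => ¬ P i).card : ℝ) := by
    exact_mod_cast this.symm
  linarith

end Crest.Agent.R136.KC877
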