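import Crest.Agent.R136.KDef4_879
import Crest.Agent.R136.Sh6_605

/-!
# R136: literal configurations with a class PARAMETER and three rewards (helper879)

`Leg m r Λm K` = the sheet `K` (over the cell `K.j` of level `m`) belongs to the class at resolution
`r` with slope cap `Λm`.  `cap5 q m K = a w2 w1 (a 2^m)^(q 0) (w1 2^m)^(q 1) (w2 2^m)^(q 2)` (thickness, wide, narrow).
`Ok5 Leg q F`: validity of the configuration `F : Cf4`.
`ClsOK Leg κ`: what the enemy needs from the class.  `enemy5`: `¬ KS4` gives admissible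
configurations of value `≥ b0 - ∑ |q i|`.
-/

set_option autoImplicit false

open Finset

namespace Crest.Agent.R136.K4

open Sh605 KS879 En879

noncomputable section

/-- capacity with three rewards -/
def cap5 (q : Fin 3 → ℝ) (m : ℕ) (K : Plk4) : ℝ :=
  K.a * K.w 2 * K.w 1 *
    ((K.a * 2 ^ m) ^ q 0 * (K.w 1 * 2 ^ m) ^ q 1 * (K.w 2 * 2 ^ m) ^ q 2)

/-- validity of a configuration for the class `Leg` and the rewards `q` -/
structure Ok5 (Leg : ℕ → ℝ → ℝ → Plk4 → Prop) (q : Fin 3 → ℝ) (F : Cf4) : Prop where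
  M1 : 1 ≤ F.M
  r0 : 0 < F.r
  rle : F.r ≤ 1 / 2 ^ F.top
  Λ1 : 1 ≤ F.Λm
  ne : F.I.Nonempty
  cell : ∀ x ∈ F.I, ∀ y ∈ F.I, zc4 F.m x.2 = zc4 F.m y.2
  D1p : 0 < F.D1
  legal : ∀ x ∈ F.I, Leg F.top F.r F.Λm (F.K (F.cl (ob4 F.top x)))
  mem : ∀ x ∈ F.I, In4 F.top (F.K (F.cl (ob4 F.top x))) (ob4 F.top x)
  low : ∀ x ∈ F.I, F.D1 * cap5 q F.top (F.K (F.cl (ob4 F.top x))) ≤ ((F.cls x).card : ℝ)
  up : ∀ K, Leg F.m F.r F.Λm K → ((objs4 F.m F.I K).card : ℝ) ≤ F.D0 * cap5 q F.m K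

/-- what the enemy needs from the class: members over the cell `[0,1]` are sheets (resolution
loses `2^κ`), have `w 1 ≤ 2^κ`; cubes are members. -/
structure ClsOK (Leg : ℕ → ℝ → ℝ → Plk4 → Prop) (κ : ℕ) : Prop where
  sheet : ∀ r Λm K, 0 < r → Leg 0 r Λm K → K.j = 0 →
    Sheet K.e K.c K.w K.q K.a 0 1 (r / 2 ^ κ)
  width : ∀ r Λm K, 0 < r → Leg 0 r Λm K → r ≤ K.a ∧ K.a ≤ K.w 2 ∧ K.w 2 ≤ K.w 1 ∧ K.w 1 ≤ 2 ^ κ
  cube : ∀ m r Λm o, 0 < r → 1 ≤ Λm → r ≤ 1 / 2 ^ m → Leg m r Λm (cubeK r o)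

theorem clsOK_legal4 : ClsOK Legal4 0 where
  sheet := by
    intro r Λm K _ h hj
    have := h.sheet
    rw [hj] at this
    simpa using this
  width := by
    intro r Λm K _ h
    exact ⟨h.sheet.r0_le, h.sheet.a_le, h.sheet.w_le, by have := h.w1; simpa using this⟩
  cube := by
    intro m r Λm o _ hΛ hr
    exact cube_legal m hΛ hr o

open Classical in
/-- initial density with loss `κ` -/
theorem kr_grid' {N M κ : ℕ} (hN : 1 ≤ N) (hM : 16 * N ≤ 2 ^ M) (s : Finset GLine4)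
    (hinj : Set.InjOn Prod.snd (s : Set GLine4)) {e : Fin 3 → V3} {c : Ln4} {w : V3}
    {q : ℝ → V3 → ℝ} {a : ℝ} (hS : Sheet e c w q a 0 1 (1 / 2 ^ M / 2 ^ κ))
    (hw : w 1 ≤ 2 ^ κ) :
    ((s.filter fun l => InSheet (rl4 N l) e c w q a 0 1).card : ℝ) ≤
      128000000 * ((M : ℝ) + 2 * κ + 6) ^ 2 * 8 ^ (M + κ) * (a * w 2 * w 1) := by
  have hN0 : (0:ℝ) < N := by exact_mod_cast hN
  have hp : (0:ℝ) < 2 ^ M := by positivity
  have hMr : (16:ℝ) * N ≤ 2 ^ M := by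
    have : ((16 * N : ℕ) : ℝ) ≤ ((2 ^ M : ℕ) : ℝ) := by exact_mod_cast hM
    push_cast at this; exact this
  have hr : (0:ℝ) < 1 / 2 ^ M / 2 ^ κ := by positivity
  have h := KR879.kr_sheet (s.filter fun l => InSheet (rl4 N l) e c w q a 0 1) (rl4 N)
    (r0 := 1 / 2 ^ M / 2 ^ κ) hr (by norm_num) hS (fun t ht => (mem_filter.1 ht).2)
    (fun t ht t' ht' hne => by
      have h1 : t.2 ≠ t'.2 := fun h2 => hne (hinj (mem_filter.1 ht).1 (mem_filter.1 ht').1 h2)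
      obtain ⟨i, hi⟩ := vel_sep hN h1
      refine ⟨i, ?_⟩
      rw [one_mul]
      refine le_trans ?_ hi
      have h3 : (1:ℝ) / 2 ^ M / 2 ^ κ ≤ 1 / 2 ^ M :=
        div_le_self (by positivity) (one_le_pow₀ (by norm_num))
      exact h3.trans (one_div_le_one_div_of_le (by positivity) hMr))
    (M + 2 * κ + 4) (by
      have e1 : (10:ℝ) * w 1 / (1 / 2 ^ M / 2 ^ κ) = 10 * w 1 * (2 ^ M * 2 ^ κ) := by
        field_simp
      have e2 : (2:ℝ) ^ (M + 2 * κ + 4) = 16 * (2 ^ κ * (2 ^ M * 2 ^ κ)) := by ring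
      rw [e1, e2]
      have h3 : w 1 * (2 ^ M * 2 ^ κ) ≤ 2 ^ κ * (2 ^ M * 2 ^ κ) :=
        mul_le_mul_of_nonneg_right hw (by positivity)
      have h4 : (0:ℝ) ≤ 2 ^ κ * (2 ^ M * 2 ^ κ) := by positivity
      nlinarith)
  refine h.trans (le_of_eq ?_)
  have e1 : (8:ℝ) ^ (M + κ) = (2 ^ M * 2 ^ κ) ^ 3 := by
    rw [← pow_add, ← pow_mul, mul_comm, pow_mul]; norm_num
  rw [e1]
  push_cast
  field_simp
  ring

open Classical in
/-- **a raw grid configuration as incidences of real lines.** -/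
theorem grid_cf' {b0 η : ℝ} {N M : ℕ} {s : Finset GLine4} {I : Finset (GLine4 × ℤ)} {μ : ℝ}
    (h : Raw b0 η N M s I μ) :
    ∃ (J : Finset (Ln4 × ℝ)) (cl : Ln4 × ℤ → ℕ) (ctr : ℕ → Ln4 × ℤ),
      J.Nonempty ∧ J.card = I.card ∧ (J.card : ℝ) ≤ 2 ^ (5 * M) ∧
      (∀ x ∈ J, 1 / 4 ≤ x.2 ∧ x.2 ≤ 3 / 4) ∧ (∀ x ∈ J, zc4 0 x.2 = 0) ∧
      (∀ x ∈ J, ∀ y ∈ J, ob4 M x = ob4 M y → x = y) ∧
      (∀ x ∈ J, ∀ i, |x.1.v i| ≤ 1 / 16 ∧ |x.1.p i| ≤ 3 / 64) ∧
      -- classes of level `M`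
      (∀ x ∈ J, zc4 M x.2 = (ctr (cl (ob4 M x))).2 ∧
        InSheet x.1 stdE (ctr (cl (ob4 M x))).1 ![1 / 2 ^ M, 1 / 2 ^ M, 1 / 2 ^ M]
          (cubeQ (ctr (cl (ob4 M x))).1) (1 / 2 ^ M)
          (((ctr (cl (ob4 M x))).2 : ℝ) / 2 ^ M) (1 / 2 ^ M)) ∧
      (∀ x ∈ J, μ ≤ (((J.image (ob4 M)).filter fun o => cl o = cl (ob4 M x)).card : ℝ)) ∧
      -- own cells
      (∀ x ∈ J, (2:ℝ) ^ ((1 - η) * M) ≤
        32 * (((J.filter fun y => y.1 = x.1).image (ob4 M)).card : ℝ)) ∧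
      -- sheets of level `0`
      (∀ (κ : ℕ) (e : Fin 3 → V3) (c : Ln4) (w : V3) (q : ℝ → V3 → ℝ) (a : ℝ),
        Sheet e c w q a 0 1 (1 / 2 ^ M / 2 ^ κ) → w 1 ≤ 2 ^ κ →
        (((J.image fun x => x.1).filter fun t => InSheet t e c w q a 0 1).card : ℝ) ≤
          128000000 * ((M : ℝ) + 2 * κ + 6) ^ 2 * 8 ^ (M + κ) * (a * w 2 * w 1)) := by
  have hN := h.N1
  have hN0 : (0:ℝ) < N := by exact_mod_cast hN
  have hobi : ∀ x y : GLine4 × ℤ, ob4 M (phi4 N x) = ob4 M (phi4 N y) → x = y :=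
    fun x y => phi4_inj hN h.hM
  have hφi : Function.Injective (phi4 N) := fun x y hxy => hobi x y (by rw [hxy])
  -- classes
  set cl : Ln4 × ℤ → ℕ := fun o => if h : ∃ x : GLine4 × ℤ, ob4 M (phi4 N x) = o then
    Encodable.encode (key4 N h.choose) else 0 with hcl
  have hcl' : ∀ x, cl (ob4 M (phi4 N x)) = Encodable.encode (key4 N x) := by
    intro x
    have hex : ∃ x' : GLine4 × ℤ, ob4 M (phi4 N x') = ob4 M (phi4 N x) := ⟨x, rfl⟩
    simp only [hcl]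
    rw [dif_pos hex]
    rw [hobi _ _ hex.choose_spec]
  set ctr : ℕ → Ln4 × ℤ := fun c => if h : ∃ x ∈ I, Encodable.encode (key4 N x) = c then
    ob4 M (phi4 N h.choose) else (⟨0, 0⟩, 0) with hctr
  have hctr' : ∀ x ∈ I, ∃ y ∈ I, key4 N y = key4 N x ∧ ctr (cl (ob4 M (phi4 N x))) =
      ob4 M (phi4 N y) := by
    intro x hx
    rw [hcl']
    have hex : ∃ y ∈ I, Encodable.encode (key4 N y) = Encodable.encode (key4 N x) := ⟨x, hx, rfl⟩
    refine ⟨hex.choose, hex.choose_spec.1, Encodable.encode_injective hex.choose_spec.2, ?_⟩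
    simp only [hctr]
    rw [dif_pos hex]
  have hz0 : ∀ x ∈ I, zc4 0 (rh4 N x.2) = 0 := by
    intro x hx
    obtain ⟨a1, a2⟩ := rh4_mem hN (h.mem x hx).2
    unfold zc4
    rw [pow_zero, one_mul, Int.floor_eq_zero_iff]
    exact ⟨by linarith, by linarith⟩
  refine ⟨I.image (phi4 N), cl, ctr, h.Ine.image _, card_image_of_injective _ hφi, ?_, ?_, ?_, ?_,
    ?_, ?_, ?_, ?_, ?_⟩
  · -- cardinality
    rw [card_image_of_injective _ hφi]
    have hMr : (16:ℝ) * N ≤ 2 ^ M := by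
      have : ((16 * N : ℕ) : ℝ) ≤ ((2 ^ M : ℕ) : ℝ) := by exact_mod_cast h.hM
      push_cast at this; exact this
    have h1 : I ⊆ s ×ˢ Icc (-(N : ℤ)) N := by
      intro x hx
      obtain ⟨a1, a2⟩ := h.mem x hx
      rw [mem_product, mem_Icc]
      exact ⟨a1, abs_le.1 a2⟩
    have h2 := card_le_card h1
    rw [card_product, Int.card_Icc] at h2
    have h3 : ((N : ℤ) + 1 - -(N : ℤ)).toNat ≤ 3 * N := by omega
    have h4 := card_le_of_inj hN h.bd h.inj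
    have h5 : (I.card : ℝ) ≤ (s.card : ℝ) * (3 * N) := by
      have : I.card ≤ s.card * (3 * N) := h2.trans (Nat.mul_le_mul_left _ h3)
      exact_mod_cast this
    have hN1 : (1:ℝ) ≤ N := by exact_mod_cast hN
    calc (I.card : ℝ) ≤ (s.card : ℝ) * (3 * N) := h5
      _ ≤ (27 * (N : ℝ) ^ 3) * (3 * N) := by gcongr
      _ = 81 * (N:ℝ) ^ 4 := by ring
      _ ≤ 81 * ((N:ℝ) ^ 4 * N) := by
        have : (N:ℝ) ^ 4 ≤ (N:ℝ) ^ 4 * N := le_mul_of_one_le_right (by positivity) hN1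
        linarith
      _ ≤ (16 * (N : ℝ)) ^ 5 := by
        have : (0:ℝ) ≤ (N : ℝ) ^ 5 := by positivity
        nlinarith
      _ ≤ (2 ^ M) ^ 5 := by gcongr
      _ = 2 ^ (5 * M) := by rw [← pow_mul]; ring_nf
  · intro x hx
    obtain ⟨x', hx', rfl⟩ := mem_image.1 hx
    exact rh4_mem hN (h.mem x' hx').2
  · intro x hx
    obtain ⟨x', hx', rfl⟩ := mem_image.1 hx
    exact hz0 x' hx'
  · intro x hx y hy hxy
    obtain ⟨x', hx', rfl⟩ := mem_image.1 hx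
    obtain ⟨y', hy', rfl⟩ := mem_image.1 hy
    rw [hobi x' y' hxy]
  · intro x hx i
    obtain ⟨x', hx', rfl⟩ := mem_image.1 hx
    have hb := h.bd _ (h.mem x' hx').1 i
    have b1 : |((x'.1.1 i : ℤ) : ℝ)| ≤ N := by exact_mod_cast hb.1
    have b2 : |((x'.1.2 i : ℤ) : ℝ)| ≤ N := by exact_mod_cast hb.2
    have c1 : |((x'.1.1 i : ℤ) : ℝ) / N| ≤ 1 := by
      rw [abs_div, abs_of_pos hN0, div_le_one hN0]; exact b1
    have c2 : |((x'.1.2 i : ℤ) : ℝ) / N| ≤ 1 := by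
      rw [abs_div, abs_of_pos hN0, div_le_one hN0]; exact b2
    simp only [phi4, rl4]
    rw [abs_le] at c1 c2
    constructor
    · rw [abs_le]; constructor <;> linarith [c2.1, c2.2]
    · rw [abs_le]; constructor <;> linarith [c1.1, c1.2, c2.1, c2.2]
  · intro x hx
    obtain ⟨x', hx', rfl⟩ := mem_image.1 hx
    obtain ⟨y, hy, hxy, hK⟩ := hctr' x' hx'
    rw [hK]
    have h2 : x'.2 = y.2 := by
      have := congrArg Prod.snd hxy; simpa [key4] using this.symm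
    refine ⟨?_, ?_⟩
    · show zc4 M (rh4 N x'.2) = zc4 M (rh4 N y.2)
      rw [h2]
    · exact mates_in hN h.hM' (h.bd _ (h.mem x' hx').1) (h.bd _ (h.mem y hy).1) hxy.symm
  · intro x hx
    obtain ⟨x', hx', rfl⟩ := mem_image.1 hx
    rw [hcl']
    refine (h.mul x' hx').1.trans (Nat.cast_le.2 ?_)
    refine card_le_card_of_injOn (fun y => ob4 M (phi4 N y)) (fun y hy => ?_)
      (fun a _ b _ hab => hobi a b hab)
    rw [Finset.mem_coe, mem_filter] at hy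
    rw [Finset.mem_coe, mem_filter]
    refine ⟨mem_image_of_mem _ (mem_image_of_mem _ hy.1), ?_⟩
    rw [hcl', hy.2]
  · intro x hx
    obtain ⟨x', hx', rfl⟩ := mem_image.1 hx
    refine (h.own x'.1 (h.mem x' hx').1).trans ?_
    have : ((I.filter fun y => y.1 = x'.1).card : ℝ) ≤
        ((((I.image (phi4 N)).filter fun y => y.1 = (phi4 N x').1).image (ob4 M)).card : ℝ) := by
      refine Nat.cast_le.2 (card_le_card_of_injOn (fun y => ob4 M (phi4 N y)) (fun y hy => ?_)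
        (fun a _ b _ hab => hobi a b hab))
      rw [Finset.mem_coe, mem_filter] at hy
      rw [Finset.mem_coe]
      refine mem_image_of_mem _ (mem_filter.2 ⟨mem_image_of_mem _ hy.1, ?_⟩)
      show rl4 N y.1 = rl4 N x'.1
      rw [hy.2]
    linarith
  · intro κ e c w q a hS hw
    have h1 := kr_grid' hN h.hM s h.inj hS hw
    refine le_trans (Nat.cast_le.2 ?_) h1
    refine le_trans (card_le_card (t := (s.filter fun l => InSheet (rl4 N l) e c w q a 0 1).image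
      (rl4 N)) ?_) card_image_le
    intro t ht
    rw [mem_filter, mem_image] at ht
    obtain ⟨⟨x, hx, rfl⟩, ht2⟩ := ht
    obtain ⟨x', hx', rfl⟩ := mem_image.1 hx
    exact mem_image.2 ⟨x'.1, mem_filter.2 ⟨(h.mem x' hx').1, ht2⟩, rfl⟩


/-- a width between `2^-M` and `2^κ` -/
theorem width_rpow {M κ : ℕ} {w p : ℝ} (h1 : 1 / 2 ^ M ≤ w) (h2 : w ≤ 2 ^ κ) :
    1 ≤ (2:ℝ) ^ (|p| * (M + κ)) * w ^ p := by
  have hw : 0 < w := lt_of_lt_of_le (by positivity) h1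
  have hMk : (0:ℝ) ≤ (M:ℝ) + κ := by positivity
  have e : (2:ℝ) ^ (|p| * ((M:ℝ) + κ)) = ((2:ℝ) ^ (M + κ)) ^ |p| := by
    rw [← Real.rpow_natCast 2 (M + κ), ← Real.rpow_mul (by norm_num)]
    congr 1; push_cast; ring
  rw [e]
  have hp : (0:ℝ) < 2 ^ (M + κ) := by positivity
  have hp1 : (1:ℝ) ≤ 2 ^ κ := one_le_pow₀ (by norm_num)
  have hp2 : (1:ℝ) ≤ 2 ^ M := one_le_pow₀ (by norm_num)
  rcases le_total 0 p with h0 | h0
  · rw [abs_of_nonneg h0, ← Real.mul_rpow hp.le hw.le]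
    refine Real.one_le_rpow ?_ h0
    have h3 : (1:ℝ) ≤ 2 ^ M * w := by
      rw [div_le_iff₀ (by positivity)] at h1; linarith
    calc (1:ℝ) ≤ 2 ^ M * w := h3
      _ ≤ 2 ^ (M + κ) * w := by
        rw [pow_add]
        have : (2:ℝ) ^ M * w * 1 ≤ 2 ^ M * w * 2 ^ κ := by gcongr
        linarith
  · rw [abs_of_nonpos h0]
    have h3 : w ^ p = (w⁻¹) ^ (-p) := by
      rw [Real.inv_rpow hw.le, Real.rpow_neg hw.le, inv_inv]
    rw [h3, ← Real.mul_rpow hp.le (by positivity)]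
    refine Real.one_le_rpow ?_ (by linarith)
    rw [← div_eq_mul_inv, one_le_div hw]
    calc w ≤ 2 ^ κ := h2
      _ ≤ 2 ^ (M + κ) := pow_le_pow_right₀ (by norm_num) (by omega)

/-- the total reward exponent -/
def qs (q : Fin 3 → ℝ) : ℝ := |q 0| + |q 1| + |q 2|

theorem reward5 {q : Fin 3 → ℝ} {M κ : ℕ} {K : Plk4} (ha : 1 / 2 ^ M ≤ K.a)
    (h2 : K.a ≤ K.w 2) (h1 : K.w 2 ≤ K.w 1) (h0 : K.w 1 ≤ 2 ^ κ) :
    1 ≤ (2:ℝ) ^ (qs q * (M + κ)) *
      ((K.a * 2 ^ 0) ^ q 0 * (K.w 1 * 2 ^ 0) ^ q 1 * (K.w 2 * 2 ^ 0) ^ q 2) := by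
  have g0 := width_rpow (p := q 0) ha ((h2.trans h1).trans h0)
  have g1 := width_rpow (p := q 1) ((ha.trans h2).trans h1) h0
  have g2 := width_rpow (p := q 2) (ha.trans h2) (h1.trans h0)
  have e : (2:ℝ) ^ (qs q * ((M:ℝ) + κ)) = 2 ^ (|q 0| * ((M:ℝ) + κ)) * 2 ^ (|q 1| * ((M:ℝ) + κ)) *
      2 ^ (|q 2| * ((M:ℝ) + κ)) := by
    rw [← Real.rpow_add (by norm_num), ← Real.rpow_add (by norm_num)]
    congr 1; unfold qs; ring
  rw [e, pow_zero, mul_one, mul_one, mul_one]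
  calc (1:ℝ) ≤ (2 ^ (|q 0| * ((M:ℝ) + κ)) * K.a ^ q 0) *
        (2 ^ (|q 1| * ((M:ℝ) + κ)) * K.w 1 ^ q 1) * (2 ^ (|q 2| * ((M:ℝ) + κ)) * K.w 2 ^ q 2) :=
        one_le_mul_of_one_le_of_one_le (one_le_mul_of_one_le_of_one_le g0 g1) g2
    _ = _ := by ring

theorem cap5_cube {q : Fin 3 → ℝ} {M : ℕ} (o : Ln4 × ℤ) :
    cap5 q M (cubeK (1 / 2 ^ M) o) = 1 / 8 ^ M := by
  unfold cap5
  show (1:ℝ) / 2 ^ M * (1 / 2 ^ M) * (1 / 2 ^ M) * ((1 / 2 ^ M * 2 ^ M) ^ q 0 *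
    (1 / 2 ^ M * 2 ^ M) ^ q 1 * (1 / 2 ^ M * 2 ^ M) ^ q 2) = 1 / 8 ^ M
  have h1 : (1:ℝ) / 2 ^ M * 2 ^ M = 1 := by field_simp
  have e1 : (8:ℝ) ^ M = (2 ^ M) ^ 3 := by rw [← pow_mul, mul_comm, pow_mul]; norm_num
  rw [h1, Real.one_rpow, Real.one_rpow, Real.one_rpow, e1]
  field_simp

open Classical in
/-- **configuration of a raw grid family**, general class -/
theorem exists_cf5 {Leg : ℕ → ℝ → ℝ → Plk4 → Prop} {κ : ℕ} (hL : ClsOK Leg κ)
    {b0 η : ℝ} {N M : ℕ} {s : Finset GLine4} {I : Finset (GLine4 × ℤ)} {μ : ℝ}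
    (h : Raw b0 η N M s I μ) (q : Fin 3 → ℝ) {Λm : ℝ} (hΛ : 1 ≤ Λm) :
    ∃ F : Cf4, Ok5 Leg q F ∧ F.m = 0 ∧ F.M = M ∧ F.r = 1 / 2 ^ M ∧ F.Λm = Λm ∧
      (F.I.card : ℝ) ≤ 2 ^ (5 * M) ∧ F.D1 = μ * 8 ^ M ∧
      F.D0 = 128000000 * ((M : ℝ) + 2 * κ + 6) ^ 2 * 8 ^ (M + κ) * (2:ℝ) ^ (qs q * (M + κ)) ∧
      (∀ x ∈ F.I, (2:ℝ) ^ ((1 - η) * M) ≤ 32 * (ownc4 F.m F.top F.I x : ℝ)) ∧
      (∀ x ∈ F.I, 1 / 4 ≤ x.2 ∧ x.2 ≤ 3 / 4) ∧
      (∀ x ∈ F.I, ∀ y ∈ F.I, ob4 M x = ob4 M y → x = y) ∧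
      (∀ x ∈ F.I, ∀ i, |x.1.v i| ≤ 1 / 16 ∧ |x.1.p i| ≤ 3 / 64) := by
  have hN := h.N1
  have hN0 : (0:ℝ) < N := by exact_mod_cast hN
  obtain ⟨J, cl, ctr, hne, hcard, hcard5, hz, hz0, hinj, hvel, hmem, hmul, hown, hup⟩ := grid_cf' h
  have hμ : 0 < μ := lt_of_lt_of_le (by positivity) h.big
  have hp : (0:ℝ) < 2 ^ M := by positivity
  have hr : (0:ℝ) < 1 / 2 ^ M := by positivity
  refine ⟨⟨0, M, 1 / 2 ^ M, Λm, J, cl, fun n => cubeK (1 / 2 ^ M) (ctr n),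
    128000000 * ((M : ℝ) + 2 * κ + 6) ^ 2 * 8 ^ (M + κ) * (2:ℝ) ^ (qs q * (M + κ)),
    μ * 8 ^ M⟩, ?_, rfl, rfl, rfl, rfl, hcard5, rfl, rfl, ?_, hz, hinj, hvel⟩
  · have htop : (0 + M) = M := by omega
    constructor
    · exact h.M1
    · show (0:ℝ) < 1 / 2 ^ M; positivity
    · show (1:ℝ) / 2 ^ M ≤ 1 / 2 ^ (0 + M); rw [htop]
    · exact hΛ
    · exact hne
    · intro x hx y hy
      show zc4 0 x.2 = zc4 0 y.2
      rw [hz0 x hx, hz0 y hy]
    · show 0 < μ * 8 ^ M; positivity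
    · intro x hx
      exact hL.cube _ _ _ _ hr hΛ (by show (1:ℝ) / 2 ^ M ≤ 1 / 2 ^ (0 + M); rw [htop])
    · intro x hx
      show In4 (0 + M) (cubeK (1 / 2 ^ M) (ctr (cl (ob4 (0 + M) x)))) (ob4 (0 + M) x)
      rw [htop]
      exact hmem x hx
    · intro x hx
      show μ * 8 ^ M * cap5 q (0 + M) (cubeK (1 / 2 ^ M) (ctr (cl (ob4 (0 + M) x)))) ≤
        (((J.image (ob4 (0 + M))).filter fun o => cl o = cl (ob4 (0 + M) x)).card : ℝ)
      rw [htop, cap5_cube]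
      have e2 : μ * 8 ^ M * (1 / 8 ^ M) = μ := by field_simp
      rw [e2]
      exact hmul x hx
    · intro K hK
      show ((objs4 0 J K).card : ℝ) ≤
        128000000 * ((M : ℝ) + 2 * κ + 6) ^ 2 * 8 ^ (M + κ) * (2:ℝ) ^ (qs q * (M + κ)) *
          cap5 q 0 K
      have hK' : Leg 0 (1 / 2 ^ M) Λm K := hK
      obtain ⟨ha, h2, h1, hw⟩ := hL.width _ _ _ hr hK'
      have pa : 0 < K.a := hr.trans_le ha
      have p2 : 0 < K.w 2 := pa.trans_le h2
      have p1 : 0 < K.w 1 := p2.trans_le h1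
      have hrew := reward5 (q := q) ha h2 h1 hw
      by_cases hj : K.j = 0
      · have hS := hL.sheet _ _ _ hr hK' hj
        have h3 := hup κ K.e K.c K.w K.q K.a hS hw
        have h4 : ((objs4 0 J K).card : ℝ) ≤
            (((J.image fun x => x.1).filter fun t => InSheet t K.e K.c K.w K.q K.a 0 1).card
              : ℝ) := by
          refine Nat.cast_le.2 (card_le_card_of_injOn (fun o => o.1) (fun o ho => ?_) ?_)
          · unfold objs4 at ho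
            rw [Finset.mem_coe, mem_filter, mem_image] at ho
            obtain ⟨⟨x, hx, rfl⟩, ho1, ho2⟩ := ho
            rw [Finset.mem_coe, mem_filter]
            refine ⟨mem_image_of_mem _ hx, ?_⟩
            rw [hj] at ho2
            simpa using ho2
          · intro o ho o' ho' hoo
            unfold objs4 at ho ho'
            rw [Finset.mem_coe, mem_filter] at ho ho'
            exact Prod.ext hoo (ho.2.1.trans ho'.2.1.symm)
        refine h4.trans (h3.trans ?_)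
        unfold cap5
        have h5 : 0 ≤ 128000000 * ((M : ℝ) + 2 * κ + 6) ^ 2 * 8 ^ (M + κ) *
            (K.a * K.w 2 * K.w 1) := by positivity
        calc 128000000 * ((M : ℝ) + 2 * κ + 6) ^ 2 * 8 ^ (M + κ) * (K.a * K.w 2 * K.w 1)
            ≤ 128000000 * ((M : ℝ) + 2 * κ + 6) ^ 2 * 8 ^ (M + κ) * (K.a * K.w 2 * K.w 1) *
              ((2:ℝ) ^ (qs q * (M + κ)) * ((K.a * 2 ^ 0) ^ q 0 * (K.w 1 * 2 ^ 0) ^ q 1 *
                (K.w 2 * 2 ^ 0) ^ q 2)) := le_mul_of_one_le_right h5 hrew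
          _ = _ := by ring
      · have h3 : objs4 0 J K = ∅ := by
          unfold objs4
          rw [filter_eq_empty_iff]
          intro o ho
          obtain ⟨x, hx, rfl⟩ := mem_image.1 ho
          intro hin
          exact hj (by rw [← hin.1]; exact hz0 x hx)
        rw [h3, card_empty, Nat.cast_zero]
        unfold cap5
        positivity
  · intro x hx
    show (2:ℝ) ^ ((1 - η) * M) ≤ 32 * (ownc4 0 (0 + M) J x : ℝ)
    have htop : (0 + M) = M := by omega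
    rw [htop]
    refine (hown x hx).trans ?_
    unfold ownc4
    have hsub : (J.filter fun y => y.1 = x.1) ⊆ (J.filter fun y => ob4 0 y = ob4 0 x) := by
      intro y hy
      rw [mem_filter] at hy ⊢
      refine ⟨hy.1, ?_⟩
      unfold ob4
      rw [hy.2, hz0 y hy.1, hz0 x hx]
    have := card_le_card (image_subset_image (f := ob4 M) hsub)
    have h2 : (((J.filter fun y => y.1 = x.1).image (ob4 M)).card : ℝ) ≤
        (((J.filter fun y => ob4 0 y = ob4 0 x).image (ob4 M)).card : ℝ) := Nat.cast_le.2 this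
    linarith

/-- **ENEMY**, general class, three rewards of any sign. -/
theorem enemy5 (h : ¬ KS4) {Leg : ℕ → ℝ → ℝ → Plk4 → Prop} {κ : ℕ} (hL : ClsOK Leg κ) :
    ∃ b0 : ℝ, 0 < b0 ∧ ∀ q : Fin 3 → ℝ,
    ∀ δ : ℝ, 0 < δ → ∀ M0 : ℕ, ∃ F : Cf4, Ok5 Leg q F ∧ F.Adm δ ∧ M0 ≤ F.M ∧ F.m = 0 ∧
      F.r = 1 / 2 ^ F.M ∧ (F.I.card : ℝ) ≤ 2 ^ (5 * F.M) ∧
      (∀ x ∈ F.I, 1 / 4 ≤ x.2 ∧ x.2 ≤ 3 / 4) ∧
      (∀ x ∈ F.I, ∀ y ∈ F.I, ob4 F.M x = ob4 F.M y → x = y) ∧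
      (∀ x ∈ F.I, ∀ i, |x.1.v i| ≤ 1 / 16 ∧ |x.1.p i| ≤ 3 / 64) ∧
      b0 - qs q ≤ F.val := by
  obtain ⟨b0, hb0, hraw⟩ := enemy_raw h
  refine ⟨b0 / 2, by linarith, fun q δ hδ M0 => ?_⟩
  have hqs : 0 ≤ qs q := by unfold qs; positivity
  -- all constants
  set C : ℝ := 128000000 * (1 + 2 * (κ:ℝ)) ^ 2 * 8 ^ κ * (2:ℝ) ^ (qs q * κ) with hC
  have hCp : 0 < C := by positivity
  have ev := ((poly_small (32 + 5) (by norm_num) (by positivity : 0 < δ / 2)).and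
    ((poly_small C hCp (by positivity : 0 < b0 / 2)).and
      (Filter.eventually_ge_atTop M0))).exists_forall_of_atTop
  obtain ⟨M1, hM1⟩ := ev
  obtain ⟨N, M, s, I, μ, hMM, hR⟩ := hraw (δ / 2) (by positivity) M1
  obtain ⟨k1, k2, k3⟩ := hM1 M hMM
  have hMr : (1:ℝ) ≤ M := by exact_mod_cast hR.M1
  have hM0 : (0:ℝ) < M := by linarith
  have hΛ : (1:ℝ) ≤ (2:ℝ) ^ (δ * M) := Real.one_le_rpow (by norm_num) (by positivity)
  obtain ⟨F, hF, hm, hM, hr, hΛm, hcard, hD1, hD0, hown, hz, hinj, hvel⟩ :=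
    exists_cf5 hL hR q hΛ
  have hbig : (37:ℝ) * (M + 6) ≤ (2:ℝ) ^ (δ / 2 * M) := by
    refine le_trans ?_ k1
    have : (M:ℝ) + 6 ≤ (M + 6) ^ 2 := by nlinarith
    nlinarith
  have hpos1 : (1:ℝ) ≤ (2:ℝ) ^ (δ / 2 * M) := Real.one_le_rpow (by norm_num) (by positivity)
  have hmono : (2:ℝ) ^ (δ / 2 * M) ≤ (2:ℝ) ^ (δ * M) :=
    Real.rpow_le_rpow_of_exponent_le (by norm_num) (by nlinarith)
  have h5M : (5:ℝ) * M ≤ (2:ℝ) ^ (δ * M) := by
    refine le_trans ?_ (hbig.trans hmono); linarith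
  refine ⟨F, hF, ⟨?_, ?_, ?_, ?_, ?_⟩, by rw [hM]; exact k3, hm, by rw [hr, hM],
    by rw [hM]; exact hcard, hz, by rw [hM]; exact hinj, hvel, ?_⟩
  · -- own
    intro x hx
    have h1 := hown x hx
    rw [hM]
    have h2 : (2:ℝ) ^ ((1 - δ / 2) * M) = 2 ^ ((1 - δ) * M) * 2 ^ (δ / 2 * M) := by
      rw [← Real.rpow_add (by norm_num)]; congr 1; ring
    rw [h2] at h1
    have h3 : (32:ℝ) ≤ (2:ℝ) ^ (δ / 2 * M) := by linarith
    have h4 : (0:ℝ) < 2 ^ ((1 - δ) * M) := by positivity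
    nlinarith
  · -- size
    rw [hM]
    have hne : (0:ℝ) < F.I.card := by exact_mod_cast card_pos.2 hF.ne
    calc Real.logb 2 (F.I.card : ℝ) ≤ Real.logb 2 (2 ^ (5 * M)) :=
          Real.logb_le_logb_of_le one_lt_two hne hcard
      _ = 5 * M := by
        rw [Real.logb_pow, Real.logb_self_eq_one one_lt_two, mul_one]; push_cast; ring
      _ ≤ _ := h5M
  · -- resolution
    rw [hM, hr, hm, pow_zero, mul_one, one_div_one_div, Real.logb_pow,
      Real.logb_self_eq_one one_lt_two, mul_one]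
    linarith
  · rw [hM, hΛm]
  · intro x hx i
    have := (hvel x hx i).1
    linarith
  · -- value
    unfold Cf4.val
    rw [hD1, hD0, hM, le_div_iff₀ hM0]
    have hμ : (0:ℝ) < (2:ℝ) ^ (b0 * M) := by positivity
    have e1 : (2:ℝ) ^ ((b0 / 2 - qs q) * M) ≤
        μ * 8 ^ M / (128000000 * ((M : ℝ) + 2 * κ + 6) ^ 2 * 8 ^ (M + κ) *
          (2:ℝ) ^ (qs q * (M + κ))) := by
      rw [le_div_iff₀ (by positivity)]
      have h8 : (0:ℝ) < 8 ^ M := by positivity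
      have hκ : (M:ℝ) + 2 * κ + 6 ≤ (1 + 2 * κ) * (M + 6) := by
        have : (0:ℝ) ≤ κ := Nat.cast_nonneg κ
        nlinarith
      have h9 : 128000000 * ((M : ℝ) + 2 * κ + 6) ^ 2 * 8 ^ (M + κ) * (2:ℝ) ^ (qs q * (M + κ)) ≤
          (C * ((M:ℝ) + 6) ^ 2) * (8 ^ M * (2:ℝ) ^ (qs q * M)) := by
        have e3 : (2:ℝ) ^ (qs q * ((M:ℝ) + κ)) = 2 ^ (qs q * M) * 2 ^ (qs q * κ) := by
          rw [← Real.rpow_add (by norm_num)]; congr 1; ring
        rw [e3, pow_add]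
        have e4 : ((M : ℝ) + 2 * κ + 6) ^ 2 ≤ ((1 + 2 * κ) * (M + 6)) ^ 2 :=
          pow_le_pow_left₀ (by positivity) hκ 2
        calc 128000000 * ((M : ℝ) + 2 * κ + 6) ^ 2 * (8 ^ M * 8 ^ κ) *
              ((2:ℝ) ^ (qs q * M) * 2 ^ (qs q * κ))
            ≤ 128000000 * ((1 + 2 * κ) * ((M:ℝ) + 6)) ^ 2 * (8 ^ M * 8 ^ κ) *
              ((2:ℝ) ^ (qs q * M) * 2 ^ (qs q * κ)) := by gcongr
          _ = _ := by rw [hC]; ring
      calc (2:ℝ) ^ ((b0 / 2 - qs q) * M) *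
            (128000000 * ((M : ℝ) + 2 * κ + 6) ^ 2 * 8 ^ (M + κ) * (2:ℝ) ^ (qs q * (M + κ)))
          ≤ (2:ℝ) ^ ((b0 / 2 - qs q) * M) *
            ((C * ((M:ℝ) + 6) ^ 2) * (8 ^ M * (2:ℝ) ^ (qs q * M))) := by gcongr
        _ = (2:ℝ) ^ ((b0 / 2 - qs q) * M) * (2:ℝ) ^ (qs q * M) *
            (C * ((M : ℝ) + 6) ^ 2) * 8 ^ M := by ring
        _ = (2:ℝ) ^ (b0 / 2 * M) * (C * ((M : ℝ) + 6) ^ 2) * 8 ^ M := by
          rw [← Real.rpow_add (by norm_num)]; congr 3; ring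
        _ ≤ (2:ℝ) ^ (b0 / 2 * M) * (2:ℝ) ^ (b0 / 2 * M) * 8 ^ M := by gcongr
        _ = (2:ℝ) ^ (b0 * M) * 8 ^ M := by
          rw [← Real.rpow_add (by norm_num)]; congr 2; ring
        _ ≤ μ * 8 ^ M := by
          have := hR.big
          gcongr
    have e2 := Real.logb_le_logb_of_le one_lt_two (by positivity) e1
    rw [Real.logb_rpow (by norm_num) (by norm_num)] at e2
    linarith

/-! ### the official class `ShN` (605, class C*) -/

/-- legal C*-sheets of level `m` at resolution `r` (the slope cap is not used) -/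
def LegN (m : ℕ) (r _Λm : ℝ) (K : Plk4) : Prop :=
  ShN K.e K.c K.w K.q K.a ((K.j : ℝ) / 2 ^ m) (1 / 2 ^ m) r ∧ K.w 1 ≤ 1 / 2 ^ m

/-- one coordinate step in a box -/
theorem step_move {e : Fin 3 → V3} {q : ℝ → V3 → ℝ} {c : Ln4} {w : V3} {z : ℝ} {k : Fin 3}
    {Λ : ℝ} (hst : ∀ (x : V3) (τ : ℝ), 0 ≤ τ → InK e c w z x → InK e c w z (x + τ • e k) →
      |q z (x + τ • e k) - q z x| ≤ Λ * τ) {x : V3} {τ : ℝ} (h0 : InK e c w z x)
    (h1 : InK e c w z (x + τ • e k)) : |q z (x + τ • e k) - q z x| ≤ Λ * |τ| := by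
  rcases le_total 0 τ with h | h
  · rw [abs_of_nonneg h]; exact hst x τ h h0 h1
  · rw [abs_of_nonpos h, abs_sub_comm]
    have e1 : x + τ • e k + (-τ) • e k = x := by rw [add_assoc, ← add_smul]; simp
    have := hst (x + τ • e k) (-τ) (by linarith) h1 (by rw [e1]; exact h0)
    rwa [e1] at this

theorem abs_dt_le {e x : V3} (he : dt e e = 1) : |dt e x| ≤ |x 0| + |x 1| + |x 2| := by
  have h0 : |e 0| ≤ 1 := by
    rw [← abs_one, ← sq_le_sq]; unfold dt at he; nlinarith [sq_nonneg (e 1), sq_nonneg (e 2)]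
  have h1 : |e 1| ≤ 1 := by
    rw [← abs_one, ← sq_le_sq]; unfold dt at he; nlinarith [sq_nonneg (e 0), sq_nonneg (e 2)]
  have h2 : |e 2| ≤ 1 := by
    rw [← abs_one, ← sq_le_sq]; unfold dt at he; nlinarith [sq_nonneg (e 0), sq_nonneg (e 1)]
  unfold dt
  calc |e 0 * x 0 + e 1 * x 1 + e 2 * x 2| ≤ |e 0 * x 0| + |e 1 * x 1| + |e 2 * x 2| := by
        refine (abs_add_le _ _).trans ?_
        have := abs_add_le (e 0 * x 0) (e 1 * x 1)
        linarith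
    _ = |e 0| * |x 0| + |e 1| * |x 1| + |e 2| * |x 2| := by rw [abs_mul, abs_mul, abs_mul]
    _ ≤ 1 * |x 0| + 1 * |x 1| + 1 * |x 2| := by gcongr
    _ = _ := by ring

theorem shN_w2 {e : Fin 3 → V3} {c : Ln4} {w : V3} {q : ℝ → V3 → ℝ} {a z0 ρ r0 : ℝ}
    (hr : 0 < r0) (h : ShN e c w q a z0 ρ r0) : 0 < w 2 ∧ 0 < w 1 ∧ 0 < w 0 := by
  have h1 : 0 < w 2 := (hr.trans_le h.r0_le).trans_le h.a_le
  exact ⟨h1, h1.trans_le h.w_le, (hr.trans_le h.r0_le).trans_le h.a_le0⟩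

/-- `ShN` at resolution `r0` is a `Sheet` at resolution `r0 / 4` -/
theorem shN_toSheet {e : Fin 3 → V3} {c : Ln4} {w : V3} {q : ℝ → V3 → ℝ} {a z0 ρ r0 : ℝ}
    (hr : 0 < r0) (h : ShN e c w q a z0 ρ r0) : Sheet e c w q a z0 ρ (r0 / 2 ^ 2) := by
  obtain ⟨p2, p1, p0⟩ := shN_w2 hr h
  have hd : ∀ i, dbl w i ≤ dbl3 w i := by
    intro i
    fin_cases i
    · show w 0 ≤ 2 * w 0; linarith
    · exact le_rfl
    · exact le_rfl
  have hin : ∀ {z : ℝ} {x : V3}, InK e c (dbl w) z x → InK e c (dbl3 w) z x :=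
    fun hx i => (hx i).trans (hd i)
  refine ⟨h.ortho, h.isQ, ?_, h.a_le, h.w_le, ?_, ?_⟩
  · intro z hz0 hz1 x τ hτ hx hx'
    exact h.st0 z hz0 hz1 x τ hτ (hin hx) (hin hx')
  · have := h.r0_le
    have : r0 / 2 ^ 2 ≤ r0 := div_le_self hr.le (by norm_num)
    linarith [h.r0_le]
  · refine ⟨4, by norm_num, ?_, by
      have := h.r0_le
      have e1 : r0 / 2 ^ 2 * 4 = r0 := by ring
      rw [e1]; exact this⟩
    intro z hz0 hz1 x x' hx hx'
    -- move from `x'` to `x` along `e 0`, `e 1`, `e 2`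
    set t : Fin 3 → ℝ := fun i => dt (e i) (x - x') with ht
    have hxe : x = x' + t 0 • e 0 + t 1 • e 1 + t 2 • e 2 := by
      funext j
      have := h.ortho.expand (x - x') j
      simp only [Pi.sub_apply] at this
      simp only [Pi.add_apply, Pi.smul_apply, smul_eq_mul, ht]
      linarith
    set x1 : V3 := x' + t 0 • e 0 with hx1
    set x2 : V3 := x1 + t 1 • e 1 with hx2
    have hx3 : x = x2 + t 2 • e 2 := by rw [hx2, hx1]; exact hxe
    have c1 : InK e c (dbl3 w) z x1 := by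
      intro i
      rw [hx1, KR879.dt_move]
      fin_cases i
      · show |dt (e 0) (x' - c.pos z) + t 0 * dt (e 0) (e 0)| ≤ dbl3 w 0
        rw [KR879.dt_self h.ortho, mul_one, ht]
        have : dt (e 0) (x' - c.pos z) + dt (e 0) (x - x') = dt (e 0) (x - c.pos z) := by
          simp only [dt, Pi.sub_apply]; ring
        simp only [this]
        exact hin hx 0
      · show |dt (e 1) (x' - c.pos z) + t 0 * dt (e 1) (e 0)| ≤ dbl3 w 1
        rw [KR879.dt_ne h.ortho (by decide : (1 : Fin 3) ≠ 0), mul_zero, add_zero]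
        exact hin hx' 1
      · show |dt (e 2) (x' - c.pos z) + t 0 * dt (e 2) (e 0)| ≤ dbl3 w 2
        rw [KR879.dt_ne h.ortho (by decide : (2 : Fin 3) ≠ 0), mul_zero, add_zero]
        exact hin hx' 2
    have c2 : InK e c (dbl3 w) z x2 := by
      intro i
      rw [hx2, KR879.dt_move]
      fin_cases i
      · show |dt (e 0) (x1 - c.pos z) + t 1 * dt (e 0) (e 1)| ≤ dbl3 w 0
        rw [KR879.dt_ne h.ortho (by decide : (0 : Fin 3) ≠ 1), mul_zero, add_zero]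
        exact c1 0
      · show |dt (e 1) (x1 - c.pos z) + t 1 * dt (e 1) (e 1)| ≤ dbl3 w 1
        rw [KR879.dt_self h.ortho, mul_one, ht]
        have e2 : dt (e 1) (x1 - c.pos z) = dt (e 1) (x' - c.pos z) := by
          rw [hx1, KR879.dt_move, KR879.dt_ne h.ortho (by decide : (1 : Fin 3) ≠ 0), mul_zero,
            add_zero]
        have : dt (e 1) (x1 - c.pos z) + dt (e 1) (x - x') = dt (e 1) (x - c.pos z) := by
          rw [e2]; simp only [dt, Pi.sub_apply]; ring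
        simp only [this]
        exact hin hx 1
      · show |dt (e 2) (x1 - c.pos z) + t 1 * dt (e 2) (e 1)| ≤ dbl3 w 2
        rw [KR879.dt_ne h.ortho (by decide : (2 : Fin 3) ≠ 1), mul_zero, add_zero]
        exact c1 2
    have m0 := step_move (q := q) (k := 0) (Λ := 2) (fun y τ hτ hy hy' => by
      have := h.st0 z hz0 hz1 y τ hτ hy hy'
      rw [abs_le]; constructor <;> linarith [this.1, this.2]) (hin hx') c1
    have m1 := step_move (q := q) (k := 1) (Λ := 1) (fun y τ hτ hy hy' => by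
      refine (h.st1 z hz0 hz1 y τ hτ hy hy').trans ?_
      have : w 2 / w 1 ≤ 1 := (div_le_one p1).2 h.w_le
      nlinarith) c1 c2
    have m2 := step_move (q := q) (k := 2) (Λ := 1) (fun y τ hτ hy hy' => by
      refine (h.st2 z hz0 hz1 y τ hτ hy hy').trans ?_
      linarith) c2 (by rw [← hx3]; exact hin hx)
    rw [← hx1] at m0
    rw [← hx2] at m1
    rw [← hx3] at m2
    have d0 := abs_dt_le (e := e 0) (x := x - x') (KR879.dt_self h.ortho 0)
    have d1 := abs_dt_le (e := e 1) (x := x - x') (KR879.dt_self h.ortho 1)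
    have d2 := abs_dt_le (e := e 2) (x := x - x') (KR879.dt_self h.ortho 2)
    simp only [Pi.sub_apply] at d0 d1 d2
    have hsum : |q z x - q z x'| ≤ |q z x1 - q z x'| + |q z x2 - q z x1| + |q z x - q z x2| := by
      have e1 : q z x - q z x' = (q z x1 - q z x') + (q z x2 - q z x1) + (q z x - q z x2) := by
        ring
      rw [e1]
      refine (abs_add_le _ _).trans ?_
      have := abs_add_le (q z x1 - q z x') (q z x2 - q z x1)
      linarith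
    simp only [ht] at m0 m1 m2
    linarith

/-- the `r`-cube around a line is a cigar -/
theorem cubeN0 (c : Ln4) {r z0 ρ : ℝ} (hr : 0 < r) :
    ShN0 stdE c ![r, r, r] (cubeQ c) r z0 ρ r where
  ortho := ortho_std
  isQ := (cubeSheet c (r := r) (z0 := z0) (ρ := ρ)).isQ
  w0_eq := rfl
  a_le := le_rfl
  w_le := le_rfl
  r0_le := le_rfl
  st0 := by
    intro z _ _ x τ hτ _ _
    have : cubeQ c z (x + τ • stdE 0) - cubeQ c z x = τ := by
      simp only [cubeQ, stdE, Pi.add_apply, Pi.smul_apply, smul_eq_mul, Matrix.cons_val_zero]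
      ring
    rw [this]; constructor <;> linarith
  st1 := by
    intro z _ _ x τ hτ _ _
    have h1 : cubeQ c z (x + τ • stdE 1) - cubeQ c z x = 0 := by
      simp only [cubeQ, stdE, Pi.add_apply, Pi.smul_apply, smul_eq_mul, Matrix.cons_val_zero,
        Matrix.cons_val_one]
      ring
    rw [h1, abs_zero]
    have : (![r, r, r] : V3) 2 / (![r, r, r] : V3) 1 = 1 := by
      show r / r = 1
      exact div_self hr.ne'
    rw [this, one_mul]
    exact hτ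
  st2 := by
    intro z _ _ x τ hτ _ _
    have h1 : cubeQ c z (x + τ • stdE 2) - cubeQ c z x = 0 := by
      simp only [cubeQ, stdE, Pi.add_apply, Pi.smul_apply, smul_eq_mul, Matrix.cons_val_zero,
        Matrix.cons_val]
      ring
    rw [h1, abs_zero]
    exact hτ

/-- the `r`-cube around a line is a C*-sheet -/
theorem cubeN (c : Ln4) {r z0 ρ : ℝ} (hr : 0 < r) :
    ShN stdE c ![r, r, r] (cubeQ c) r z0 ρ r := (cubeN0 c hr).toN

/-- **the official class satisfies what the enemy needs** -/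
theorem clsOK_N : ClsOK LegN 2 where
  sheet := by
    intro r Λm K hr h hj
    have h1 := h.1
    rw [hj] at h1
    have h2 : ShN K.e K.c K.w K.q K.a 0 1 r := by simpa using h1
    exact shN_toSheet hr h2
  width := by
    intro r Λm K _ h
    refine ⟨h.1.r0_le, h.1.a_le, h.1.w_le, ?_⟩
    have := h.2
    simp only [pow_zero, div_one] at this
    linarith
  cube := by
    intro m r Λm o hr _ hrm
    exact ⟨cubeN o.1 hr, hrm⟩

end

end Crest.Agent.R136.K4
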