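import Crest.Agent.R136.KDef7_879

/-!
# R136: configurations with container over a longer cell and resolution (helper879; 289, 770)

`Cf8` = `Cf6` with a container sheet `KC` over the cell of a level `lc ≤ m` and a resolution vector
`wr`.  `Ok8` : `Ok6` for the class `LegR Leg wr (wd KC)` (members of `Leg` with widths in
`[wr k, wd KC k]`), all lines in the container.
`InX x C` : container `≤ T 2^(C M)`, lateral margin `≥ x M` below the top marks (thickness: no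
margin), range bounded.  `x` is fixed, `C` is variable; a window keeps its container.

* `Ok8.setWr`  : the resolution may be raised up to the top marks;
* `Ok8.raise`  : a margin `x` configuration is a margin `x' ≤ x` configuration;
* `lip8`       : Lipschitz in the rewards, for any bound `R` of the range;
* `enemy8`     : the enemy is in `InX x C` for every `x ≥ 0`, `C ≥ 1`.
-/

set_option autoImplicit false

open Finset

namespace Crest.Agent.R136.K4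

open Sh605 KS879 En879

noncomputable section

/-- configuration with container and resolution -/
structure Cf8 extends Cf6 where
  /-- container: a sheet over the cell of level `lc` -/
  KC : Plk4
  /-- level of the container -/
  lc : ℕ
  /-- resolution of the widths -/
  wr : Fin 3 → ℝ

/-- validity of a configuration with container and resolution -/
structure Ok8 (Leg : ℕ → ℝ → ℝ → Plk4 → Prop) (q : Fin 3 → ℝ) (F : Cf8) : Prop where
  ok : Ok6 (LegR Leg F.wr (wd F.KC)) q F.toCf6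
  lcm : F.lc ≤ F.m
  conL : Leg F.lc F.r F.Λm F.KC
  con : ∀ y ∈ F.I, In4 F.lc F.KC (ob4 F.lc y)
  wrp : ∀ k, 0 < F.wr k

/-- margin exponents: thickness `0`, lateral `x` -/
def xk (x : ℝ) (k : Fin 3) : ℝ := if k = 0 then 0 else x

@[simp] theorem xk_zero (x : ℝ) : xk x 0 = 0 := rfl
@[simp] theorem xk_one (x : ℝ) : xk x 1 = x := rfl
@[simp] theorem xk_two (x : ℝ) : xk x 2 = x := rfl

theorem xk_le {x : ℝ} (hx : 0 ≤ x) (k : Fin 3) : xk x k ≤ x := by
  unfold xk; split_ifs <;> linarith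

theorem xk_nonneg {x : ℝ} (hx : 0 ≤ x) (k : Fin 3) : 0 ≤ xk x k := by
  unfold xk; split_ifs <;> linarith

theorem xk_sub (x x' : ℝ) (k : Fin 3) : xk (x - x') k = xk x k - xk x' k := by
  unfold xk; split_ifs <;> ring

/-- **the class `P(x, C)`**: container `≤ T 2^(C M)`, lateral margin `≥ x M` -/
structure InX (x C : ℝ) (F : Cf8) : Prop where
  con : ∀ y ∈ F.I, ∀ k, wd F.KC k ≤ F.T y k * (2:ℝ) ^ (C * F.M)
  mar : ∀ y ∈ F.I, ∀ k, F.wr k * (2:ℝ) ^ (xk x k * F.M) ≤ F.T y k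
  low : ∀ y ∈ F.I, ∀ k, F.T y k ≤ F.wr k * (2:ℝ) ^ ((xk x k + 1) * F.M)

/-- the container is much thicker than the top marks, or not thin -/
def Thk8 (F : Cf8) : Prop :=
  ∀ y ∈ F.I, F.T y 0 * (2:ℝ) ^ (7 * (F.M : ℝ)) ≤ wd F.KC 0 ∨ wd F.KC 2 ≤ wd F.KC 0

variable {Leg : ℕ → ℝ → ℝ → Plk4 → Prop} {q : Fin 3 → ℝ}

theorem Ok8.wr_le {F : Cf8} (h : Ok8 Leg q F) {y : Ln4 × ℝ} (hy : y ∈ F.I) (k : Fin 3) :
    F.wr k ≤ F.T y k := ((h.ok.legal y hy).2 k).1

theorem Ok8.T_le {F : Cf8} (h : Ok8 Leg q F) {y : Ln4 × ℝ} (hy : y ∈ F.I) (k : Fin 3) :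
    F.T y k ≤ wd F.KC k := ((h.ok.legal y hy).2 k).2

theorem Ok8.T_pos {F : Cf8} (h : Ok8 Leg q F) {y : Ln4 × ℝ} (hy : y ∈ F.I) (k : Fin 3) :
    0 < F.T y k := (h.wrp k).trans_le (h.wr_le hy k)

/-- the class is increasing in `C` -/
theorem InX.mono_C {x C C' : ℝ} {F : Cf8} (h : InX x C F) (hF : Ok8 Leg q F) (hC : C ≤ C') :
    InX x C' F where
  con := fun y hy k => (h.con y hy k).trans <|
    mul_le_mul_of_nonneg_left (Real.rpow_le_rpow_of_exponent_le (by norm_num)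
      (mul_le_mul_of_nonneg_right hC (Nat.cast_nonneg _))) (hF.T_pos hy k).le
  mar := h.mar
  low := h.low

/-- the range of a configuration of the class `P(x, C)` -/
theorem InX.range {x C : ℝ} (hx : 0 ≤ x) {F : Cf8} (h : InX x C F) (hF : Ok8 Leg q F)
    (k : Fin 3) : wd F.KC k ≤ F.wr k * (2:ℝ) ^ ((x + 1 + C) * F.M) := by
  obtain ⟨y, hy⟩ := hF.ok.ne
  have hM0 : (0:ℝ) ≤ F.M := Nat.cast_nonneg _
  calc wd F.KC k ≤ F.T y k * (2:ℝ) ^ (C * F.M) := h.con y hy k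
    _ ≤ (F.wr k * (2:ℝ) ^ ((xk x k + 1) * F.M)) * (2:ℝ) ^ (C * F.M) := by
        gcongr; exact h.low y hy k
    _ = F.wr k * (2:ℝ) ^ ((xk x k + 1 + C) * F.M) := by
        rw [mul_assoc, ← Real.rpow_add (by norm_num)]; congr 2; ring
    _ ≤ _ := by
        refine mul_le_mul_of_nonneg_left ?_ (hF.wrp k).le
        refine Real.rpow_le_rpow_of_exponent_le (by norm_num) ?_
        have := xk_le hx k
        exact mul_le_mul_of_nonneg_right (by linarith) hM0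

/-! ### change of the resolution and of the densities -/

/-- the same configuration with another resolution -/
def Cf8.setWr (F : Cf8) (wr : Fin 3 → ℝ) : Cf8 := { F with wr := wr }

/-- the same configuration with other densities -/
def Cf8.setD (F : Cf8) (D0 D1 : ℝ) : Cf8 := { F with D0 := D0, D1 := D1 }

/-- the resolution may be raised up to the top marks -/
theorem Ok8.setWr {F : Cf8} (h : Ok8 Leg q F) {wr : Fin 3 → ℝ} (h1 : ∀ k, F.wr k ≤ wr k)
    (h2 : ∀ y ∈ F.I, ∀ k, wr k ≤ F.T y k) : Ok8 Leg q (F.setWr wr) where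
  ok := {
    M1 := h.ok.M1, r0 := h.ok.r0, rle := h.ok.rle, Λ1 := h.ok.Λ1, ne := h.ok.ne
    cell := h.ok.cell, D1p := h.ok.D1p
    legal := fun y hy => ⟨(h.ok.legal y hy).1, fun k => ⟨h2 y hy k, ((h.ok.legal y hy).2 k).2⟩⟩
    mem := h.ok.mem, low := h.ok.low
    up := fun K hK => h.ok.up K ⟨hK.1, fun k => ⟨(h1 k).trans (hK.2 k).1, (hK.2 k).2⟩⟩
    h20 := h.ok.h20, hM := h.ok.hM
    ups := fun i hi1 hi2 K hK => h.ok.ups i hi1 hi2 K
      ⟨hK.1, fun k => ⟨(h1 k).trans (hK.2 k).1, (hK.2 k).2⟩⟩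
    own := h.ok.own }
  lcm := h.lcm
  conL := h.conL
  con := h.con
  wrp := fun k => (h.wrp k).trans_le (h1 k)

/-- **a configuration of margin `x` is a configuration of margin `x' ≤ x`** (same value) -/
theorem Ok8.raise {F : Cf8} (h : Ok8 Leg q F) {x x' C : ℝ} (hI : InX x C F) (hx' : 0 ≤ x')
    (hx : x' ≤ x) : ∃ wr : Fin 3 → ℝ, Ok8 Leg q (F.setWr wr) ∧ InX x' C (F.setWr wr) ∧
      (Thk8 F → Thk8 (F.setWr wr)) := by
  have hM0 : (0:ℝ) ≤ F.M := Nat.cast_nonneg _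
  set wr : Fin 3 → ℝ := fun k => F.wr k * (2:ℝ) ^ (xk (x - x') k * F.M) with hwr
  have h1 : ∀ k, F.wr k ≤ wr k := fun k => le_mul_of_one_le_right (h.wrp k).le
    (Real.one_le_rpow (by norm_num) (mul_nonneg (xk_nonneg (by linarith) k) hM0))
  have e1 : ∀ k, wr k * (2:ℝ) ^ (xk x' k * F.M) = F.wr k * (2:ℝ) ^ (xk x k * F.M) := by
    intro k
    rw [hwr]
    simp only
    rw [mul_assoc, ← Real.rpow_add (by norm_num), xk_sub]
    congr 2; ring
  have e2 : ∀ k, wr k * (2:ℝ) ^ ((xk x' k + 1) * F.M) =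
      F.wr k * (2:ℝ) ^ ((xk x k + 1) * F.M) := by
    intro k
    rw [hwr]
    simp only
    rw [mul_assoc, ← Real.rpow_add (by norm_num), xk_sub]
    congr 2; ring
  have h2 : ∀ y ∈ F.I, ∀ k, wr k ≤ F.T y k := by
    intro y hy k
    refine le_trans ?_ ((e1 k).le.trans (hI.mar y hy k))
    exact le_mul_of_one_le_right ((h.wrp k).le.trans (h1 k))
      (Real.one_le_rpow (by norm_num) (mul_nonneg (xk_nonneg hx' k) hM0))
  exact ⟨wr, h.setWr h1 h2, ⟨hI.con, fun y hy k => (e1 k).le.trans (hI.mar y hy k),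
    fun y hy k => (hI.low y hy k).trans (e2 k).ge⟩, fun hT => hT⟩

/-! ### Lipschitz in the rewards -/

/-- **Lipschitz**: range of the configuration at most `2^(R M)` -/
theorem lip8 (hLeg : LegPos Leg) {q' : Fin 3 → ℝ} {F : Cf8}
    (hF : Ok8 Leg q F) {R : ℝ} (hR0 : 0 ≤ R)
    (hR : ∀ k, wd F.KC k ≤ F.wr k * (2:ℝ) ^ (R * F.M)) (h0 : 0 < F.D0) :
    ∃ D0 D1 : ℝ, 0 < D0 ∧ Ok8 Leg q' (F.setD D0 D1) ∧
      F.toCf4.val - 2 * ((R + 1) * dq q q') ≤ (F.setD D0 D1).toCf4.val := by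

  have hM0 : (0:ℝ) < F.M := by exact_mod_cast hF.ok.M1
  set S : Fin 3 → ℝ := fun k => F.wr k * 2 ^ F.m with hSdef
  have hS : ∀ k, 0 < S k := fun k => mul_pos (hF.wrp k) (by positivity)
  set A : ℝ := (R + 1) * F.M with hA
  have hch : ∀ i, F.m ≤ i → i ≤ F.top → ∀ K, LegR Leg F.wr (wd F.KC) i F.r F.Λm K →
      cap5 q i K ≤ cap5 q' i K * (∏ k, S k ^ (q k - q' k)) * (2:ℝ) ^ (A * dq q q') ∧
      cap5 q' i K * (∏ k, S k ^ (q k - q' k)) * (2:ℝ) ^ (-(A * dq q q')) ≤ cap5 q i K := by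
    intro i hi1 hi2 K hK
    obtain ⟨pa, p2, p1⟩ := hLeg _ _ _ _ hF.ok.r0 hK.1
    have hwp : ∀ k, 0 ≤ wd K k := fun k => (hF.wrp k).le.trans (hK.2 k).1
    refine cap5_change hS pa p2 p1 (fun k => ?_) (fun k => ?_)
    · have e1 : (2:ℝ) ^ F.m ≤ 2 ^ i := pow_le_pow_right₀ (by norm_num) hi1
      exact mul_le_mul (hK.2 k).1 e1 (by positivity) (hwp k)
    · have e1 : (2:ℝ) ^ i ≤ 2 ^ F.m * (2:ℝ) ^ (F.M : ℝ) := by
        rw [Real.rpow_natCast, ← pow_add]
        exact pow_le_pow_right₀ (by norm_num) hi2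
      calc wd K k * 2 ^ i ≤ (F.wr k * (2:ℝ) ^ (R * F.M)) *
            (2 ^ F.m * (2:ℝ) ^ (F.M : ℝ)) :=
            mul_le_mul ((hK.2 k).2.trans (hR k)) e1 (by positivity)
              ((hwp k).trans ((hK.2 k).2.trans (hR k)))
        _ = S k * ((2:ℝ) ^ (R * F.M) * (2:ℝ) ^ (F.M : ℝ)) := by rw [hSdef]; ring
        _ = S k * (2:ℝ) ^ A := by
          rw [← Real.rpow_add (by norm_num)]; congr 2; rw [hA]; ring
  set Q : ℝ := ∏ k, S k ^ (q k - q' k) with hQ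
  have hQp : 0 < Q := Finset.prod_pos fun k _ => Real.rpow_pos_of_pos (hS k) _
  set E : ℝ := (2:ℝ) ^ (A * dq q q') with hE
  have hEp : 0 < E := by positivity
  have hEn : (2:ℝ) ^ (-(A * dq q q')) = E⁻¹ := by rw [Real.rpow_neg (by norm_num)]
  have hD1 := hF.ok.D1p
  refine ⟨F.D0 * Q * E, F.D1 * Q * E⁻¹, by positivity, ⟨?_, hF.lcm, hF.conL, hF.con, hF.wrp⟩, ?_⟩
  · refine ⟨⟨hF.ok.M1, hF.ok.r0, hF.ok.rle, hF.ok.Λ1, hF.ok.ne, hF.ok.cell, ?_, hF.ok.legal,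
      hF.ok.mem, ?_, ?_⟩, hF.ok.h20, hF.ok.hM, ?_, hF.ok.own⟩
    · show 0 < F.D1 * Q * E⁻¹
      positivity
    · intro x hx
      show F.D1 * Q * E⁻¹ * cap5 q' F.top (F.K (F.cl (ob4 F.top x))) ≤ ((F.cls x).card : ℝ)
      have h1 := hF.ok.low x hx
      obtain ⟨-, h2⟩ := hch F.top (Nat.le_add_right _ _) le_rfl _ (hF.ok.legal x hx)
      rw [hEn] at h2
      refine le_trans ?_ h1
      calc F.D1 * Q * E⁻¹ * cap5 q' F.top (F.K (F.cl (ob4 F.top x)))
          = F.D1 * (cap5 q' F.top (F.K (F.cl (ob4 F.top x))) * Q * E⁻¹) := by ring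
        _ ≤ _ := mul_le_mul_of_nonneg_left h2 hD1.le
    · intro K hK
      show ((objs4 F.m F.I K).card : ℝ) ≤ F.D0 * Q * E * cap5 q' F.m K
      have h1 := hF.ok.up K hK
      obtain ⟨h2, -⟩ := hch F.m le_rfl (Nat.le_add_right _ _) _ hK
      calc ((objs4 F.m F.I K).card : ℝ) ≤ F.D0 * cap5 q F.m K := h1
        _ ≤ F.D0 * (cap5 q' F.m K * Q * E) := mul_le_mul_of_nonneg_left h2 h0.le
        _ = _ := by ring
    · intro i hi1 hi2 K hK
      show ((objs4 i F.I K).card : ℝ) ≤ F.D0 * Q * E * cap5 q' i K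
      have h1 := hF.ok.ups i hi1 hi2 K hK
      have hi3 : i ≤ F.top := by
        have := hF.ok.hM
        have hi2' : i ≤ F.m + F.h := hi2
        unfold Cf4.top
        omega
      obtain ⟨h2, -⟩ := hch i hi1 hi3 _ hK
      calc ((objs4 i F.I K).card : ℝ) ≤ F.D0 * cap5 q i K := h1
        _ ≤ F.D0 * (cap5 q' i K * Q * E) := mul_le_mul_of_nonneg_left h2 h0.le
        _ = _ := by ring
  · show Real.logb 2 (F.D1 / F.D0) / F.M - 2 * ((R + 1) * dq q q') ≤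
      Real.logb 2 ((F.D1 * Q * E⁻¹) / (F.D0 * Q * E)) / F.M
    have e1 : (F.D1 * Q * E⁻¹) / (F.D0 * Q * E) = (F.D1 / F.D0) * (E⁻¹ * E⁻¹) := by
      field_simp
    have e2 : Real.logb 2 (E⁻¹ * E⁻¹) = -(2 * (A * dq q q')) := by
      rw [← hEn, ← Real.rpow_add (by norm_num), Real.logb_rpow (by norm_num) (by norm_num)]
      ring
    rw [e1, Real.logb_mul (by positivity) (by positivity), e2, hA, add_div]
    have e3 : -(2 * (((R + 1) * F.M) * dq q q')) / (F.M : ℝ) = -(2 * ((R + 1) * dq q q')) := by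
      field_simp
    rw [e3]
    linarith

/-! ### the enemy -/

/-- a configuration with container over the bottom cell -/
def Cf7.to8 (F : Cf7) : Cf8 := { F with lc := F.m }

theorem Ok7.to8 {F : Cf7} (h : Ok7 Leg q F) : Ok8 Leg q F.to8 where
  ok := h.ok
  lcm := le_rfl
  conL := h.conL
  con := h.con
  wrp := h.wrp

set_option maxHeartbeats 800000 in
/-- **ENEMY** in the classes `InX x C`, `0 ≤ x`, `1 ≤ C` -/
theorem enemy8 (h : ¬ KS4) {Leg : ℕ → ℝ → ℝ → Plk4 → Prop} {κ : ℕ} (hL : ClsOK7 Leg κ) :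
    ∃ b0 : ℝ, 0 < b0 ∧ ∀ q : Fin 3 → ℝ,
    ∀ δ : ℝ, 0 < δ → ∀ (M0 : ℕ) (x C : ℝ), 0 ≤ x → 1 ≤ C →
    ∃ F : Cf8, Ok8 Leg q F ∧ InX x C F ∧ Thk8 F ∧ Adm6 δ F.toCf6 ∧ M0 ≤ F.M ∧ F.m = 0 ∧
      F.lc = 0 ∧ F.r = 1 / 2 ^ F.M ∧ (F.I.card : ℝ) ≤ 2 ^ (5 * F.M) ∧
      (∀ y ∈ F.I, 1 / 4 ≤ y.2 ∧ y.2 ≤ 3 / 4) ∧
      (∀ y ∈ F.I, ∀ z ∈ F.I, ob4 F.M y = ob4 F.M z → y = z) ∧
      (∀ y ∈ F.I, ∀ i, |y.1.v i| ≤ 1 / 16 ∧ |y.1.p i| ≤ 3 / 64) ∧
      b0 - qs q ≤ F.toCf4.val := by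
  obtain ⟨b0, hb0, hraw⟩ := enemy_raw h
  refine ⟨b0 / 4, by linarith, fun q δ0 hδ0 M0 x0 C' hx0 hC' => ?_⟩
  have hqs : 0 ≤ qs q := by unfold qs; positivity
  -- the effective `δ`
  obtain ⟨δ, hδ, hδδ, hδ1, hδb⟩ : ∃ δ : ℝ, 0 < δ ∧ δ ≤ δ0 ∧ δ ≤ 1 ∧ 3 * δ ≤ b0 / 4 :=
    ⟨min δ0 (min 1 (b0 / 12)), by positivity, min_le_left _ _,
      (min_le_right _ _).trans (min_le_left _ _), by
        have := (min_le_right δ0 (min 1 (b0 / 12))).trans (min_le_right _ _)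
        linarith⟩
  -- all constants
  set C : ℝ := 128000000 * (2 + 2 * (κ:ℝ)) ^ 2 * 8 ^ κ * (2:ℝ) ^ (qs q * κ) with hC
  have hCp : 0 < C := by positivity
  have ev := ((poly_small (32 + 5) (by norm_num) (by positivity : 0 < δ / 2)).and
    ((poly_small C hCp (by positivity : 0 < b0 / 2)).and
      ((Filter.eventually_ge_atTop M0).and
        (Filter.eventually_ge_atTop ⌈60 / δ⌉₊)))).exists_forall_of_atTop
  obtain ⟨M1, hM1⟩ := ev
  obtain ⟨N, M, s, I, μ, hMM, hR⟩ := hraw (δ / 2) (by positivity) M1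
  obtain ⟨k1, k2, k3, k4⟩ := hM1 M hMM
  have hMr : (1:ℝ) ≤ M := by exact_mod_cast hR.M1
  have hM0 : (0:ℝ) < M := by linarith
  have hΛ : (1:ℝ) ≤ (2:ℝ) ^ (δ * M) := Real.one_le_rpow (by norm_num) (by positivity)
  have hk4 : 60 ≤ δ * M := by
    have h1 : (60 / δ : ℝ) ≤ M := (Nat.le_ceil _).trans (by exact_mod_cast k4)
    rw [div_le_iff₀ hδ] at h1; linarith
  set g : ℕ := ⌊δ * M⌋₊ with hg
  have g1 : (g:ℝ) ≤ δ * M := Nat.floor_le (by positivity)
  have g2 : δ * M - 1 ≤ g := by have := Nat.lt_floor_add_one (δ * M); rw [← hg] at this; linarith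
  have g20 : 20 ≤ g := by
    have : (20:ℝ) ≤ g := by linarith
    exact_mod_cast this
  have gM : g ≤ M := by
    have : (g:ℝ) ≤ M := g1.trans (by
      calc δ * (M:ℝ) ≤ 1 * M := mul_le_mul_of_nonneg_right hδ1 hM0.le
        _ = M := one_mul _)
    exact_mod_cast this
  have hp2 : (0:ℝ) < 2 ^ M := by positivity
  obtain ⟨F, hF, hFwr, hFKC, hFT, hm, hM, hr, hΛm, hh, hcard, hD1, hD0, hz, hinj, hvel⟩ :=
    exists_cf7 hL hR q hΛ g20 gM (by linarith)
      (wr := fun k => if k = 0 then 1 / 2 ^ M else 1 / 2 ^ M * (2:ℝ) ^ (-(x0 * M)))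
      (fun k => by
        by_cases hk : k = 0
        · simp only [hk, if_true]; exact ⟨by positivity, le_rfl⟩
        · simp only [hk, if_false]
          refine ⟨by positivity, mul_le_of_le_one_right (by positivity) ?_⟩
          exact Real.rpow_le_one_of_one_le_of_nonpos (by norm_num) (by
            have : 0 ≤ x0 * M := by positivity
            linarith))
  have hinX : InX x0 C' F.to8 := by
    have hMC : (2:ℝ) ^ (M : ℝ) ≤ (2:ℝ) ^ (C' * M) :=
      Real.rpow_le_rpow_of_exponent_le (by norm_num) (by nlinarith)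
    have hxM : 0 ≤ x0 * M := by positivity
    refine ⟨?_, ?_, ?_⟩
    · intro y _ k
      show wd F.KC k ≤ F.T y k * (2:ℝ) ^ (C' * F.M)
      rw [hFKC, hFT, hM]
      rw [Real.rpow_natCast] at hMC
      rw [div_mul_eq_mul_div, one_mul, le_div_iff₀ hp2, one_mul]
      exact hMC
    · intro y _ k
      show F.wr k * (2:ℝ) ^ (xk x0 k * F.M) ≤ F.T y k
      rw [hFT, hFwr, hM]
      by_cases hk : k = 0
      · simp only [hk, if_true, xk_zero, zero_mul, Real.rpow_zero, mul_one]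
        exact le_rfl
      · have e1 : xk x0 k = x0 := by unfold xk; simp [hk]
        simp only [hk, if_false, e1]
        rw [mul_assoc, ← Real.rpow_add (by norm_num)]
        have e0 : -(x0 * (M:ℝ)) + x0 * M = 0 := by ring
        rw [e0, Real.rpow_zero, mul_one]
    · intro y _ k
      show F.T y k ≤ F.wr k * (2:ℝ) ^ ((xk x0 k + 1) * F.M)
      rw [hFT, hFwr, hM]
      by_cases hk : k = 0
      · simp only [hk, if_true, xk_zero]
        refine le_mul_of_one_le_right (by positivity) ?_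
        exact Real.one_le_rpow (by norm_num) (by positivity)
      · have e1 : xk x0 k = x0 := by unfold xk; simp [hk]
        simp only [hk, if_false, e1]
        rw [mul_assoc, ← Real.rpow_add (by norm_num)]
        refine le_mul_of_one_le_right (by positivity) ?_
        refine Real.one_le_rpow (by norm_num) ?_
        nlinarith
  have hthk : Thk8 F.to8 := by
    intro y _
    right
    show wd F.KC 2 ≤ wd F.KC 0
    rw [hFKC, hFKC]
  have hbig : (37:ℝ) * (M + 6) ≤ (2:ℝ) ^ (δ / 2 * M) := by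
    refine le_trans ?_ k1
    have : (M:ℝ) + 6 ≤ (M + 6) ^ 2 := by nlinarith
    nlinarith
  have hmono : (2:ℝ) ^ (δ / 2 * M) ≤ (2:ℝ) ^ (δ * M) :=
    Real.rpow_le_rpow_of_exponent_le (by norm_num) (by nlinarith)
  have h5M : (5:ℝ) * M ≤ (2:ℝ) ^ (δ * M) := by
    refine le_trans ?_ (hbig.trans hmono); linarith
  have hadm : Adm6 δ F.toCf6 := by
    refine ⟨?_, ?_, ?_, ?_, ?_⟩
    · rw [hh, hM]; exact g1
    · -- size
      rw [hM]
      have hne : (0:ℝ) < F.I.card := by exact_mod_cast card_pos.2 hF.ok.ne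
      calc Real.logb 2 (F.I.card : ℝ) ≤ Real.logb 2 (2 ^ (5 * M)) :=
            Real.logb_le_logb_of_le one_lt_two hne hcard
        _ = 5 * M := by
          rw [Real.logb_pow, Real.logb_self_eq_one one_lt_two, mul_one]; push_cast; ring
        _ ≤ _ := h5M
    · -- resolution
      rw [hM, hr, hm, pow_zero, mul_one, one_div_one_div, Real.logb_pow,
        Real.logb_self_eq_one one_lt_two, mul_one]
      linarith
    · rw [hM, hΛm]
    · intro x hx i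
      have := (hvel x hx i).1
      linarith
  refine ⟨F.to8, hF.to8, hinX, hthk, hadm.mono hδδ, by rw [show F.to8.M = F.M from rfl, hM]; exact k3,
    hm, hm, by rw [show F.to8.M = F.M from rfl, ← hM] at *; exact hr,
    by rw [show F.to8.M = F.M from rfl, hM]; exact hcard, hz,
    by rw [show F.to8.M = F.M from rfl, hM]; exact hinj, hvel, ?_⟩
  -- value
  show b0 / 4 - qs q ≤ F.toCf4.val
  unfold Cf4.val
  rw [hD1, hD0, hM, le_div_iff₀ hM0]
  have hμ : (0:ℝ) < (2:ℝ) ^ (b0 * M) := by positivity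
  have e1 : (2:ℝ) ^ ((b0 / 4 - qs q) * M) ≤
      μ * 8 ^ M / (128000000 * ((M : ℝ) + 2 * κ + g + 6) ^ 2 * 8 ^ (M + κ + g) *
        (2:ℝ) ^ (qs q * (M + κ))) := by
    rw [le_div_iff₀ (by positivity)]
    have h8 : (0:ℝ) < 8 ^ M := by positivity
    have hgr : (g:ℝ) ≤ M := by exact_mod_cast gM
    have hκ : (M:ℝ) + 2 * κ + g + 6 ≤ (2 + 2 * κ) * (M + 6) := by
      have h1 : (0:ℝ) ≤ κ := Nat.cast_nonneg κ
      have h2 : (0:ℝ) ≤ κ * M := by positivity
      have e : (2 + 2 * (κ:ℝ)) * (M + 6) = 2 * M + 12 + 2 * (κ * M) + 12 * κ := by ring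
      rw [e]; linarith
    have h8g : (8:ℝ) ^ g ≤ (2:ℝ) ^ (b0 / 4 * M) := by
      have e5 : (8:ℝ) ^ g = (2:ℝ) ^ (3 * (g:ℝ)) := by
        rw [Real.rpow_mul (by norm_num)]; norm_num
      rw [e5]
      refine Real.rpow_le_rpow_of_exponent_le (by norm_num) ?_
      calc 3 * (g:ℝ) ≤ 3 * (δ * M) := by linarith
        _ = (3 * δ) * M := by ring
        _ ≤ b0 / 4 * M := mul_le_mul_of_nonneg_right hδb hM0.le
    have h9 : 128000000 * ((M : ℝ) + 2 * κ + g + 6) ^ 2 * 8 ^ (M + κ + g) *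
        (2:ℝ) ^ (qs q * (M + κ)) ≤
        (C * ((M:ℝ) + 6) ^ 2) * ((2:ℝ) ^ (b0 / 4 * M) * 8 ^ M * (2:ℝ) ^ (qs q * M)) := by
      have e3 : (2:ℝ) ^ (qs q * ((M:ℝ) + κ)) = 2 ^ (qs q * M) * 2 ^ (qs q * κ) := by
        rw [← Real.rpow_add (by norm_num)]; congr 1; ring
      rw [e3, pow_add, pow_add]
      have e4 : ((M : ℝ) + 2 * κ + g + 6) ^ 2 ≤ ((2 + 2 * κ) * (M + 6)) ^ 2 :=
        pow_le_pow_left₀ (by positivity) hκ 2
      calc 128000000 * ((M : ℝ) + 2 * κ + g + 6) ^ 2 * (8 ^ M * 8 ^ κ * 8 ^ g) *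
            ((2:ℝ) ^ (qs q * M) * 2 ^ (qs q * κ))
          ≤ 128000000 * ((2 + 2 * κ) * ((M:ℝ) + 6)) ^ 2 *
            (8 ^ M * 8 ^ κ * (2:ℝ) ^ (b0 / 4 * M)) *
            ((2:ℝ) ^ (qs q * M) * 2 ^ (qs q * κ)) := by gcongr
        _ = _ := by rw [hC]; ring
    calc (2:ℝ) ^ ((b0 / 4 - qs q) * M) *
          (128000000 * ((M : ℝ) + 2 * κ + g + 6) ^ 2 * 8 ^ (M + κ + g) *
            (2:ℝ) ^ (qs q * (M + κ)))
        ≤ (2:ℝ) ^ ((b0 / 4 - qs q) * M) *
          ((C * ((M:ℝ) + 6) ^ 2) * ((2:ℝ) ^ (b0 / 4 * M) * 8 ^ M * (2:ℝ) ^ (qs q * M))) := by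
            gcongr
      _ = ((2:ℝ) ^ ((b0 / 4 - qs q) * M) * (2:ℝ) ^ (qs q * M)) * (2:ℝ) ^ (b0 / 4 * M) *
          (C * ((M : ℝ) + 6) ^ 2) * 8 ^ M := by ring
      _ = (2:ℝ) ^ (b0 / 2 * M) * (C * ((M : ℝ) + 6) ^ 2) * 8 ^ M := by
        rw [← Real.rpow_add (by norm_num), ← Real.rpow_add (by norm_num)]; congr 3; ring
      _ ≤ (2:ℝ) ^ (b0 / 2 * M) * (2:ℝ) ^ (b0 / 2 * M) * 8 ^ M := by gcongr
      _ = (2:ℝ) ^ (b0 * M) * 8 ^ M := by
        rw [← Real.rpow_add (by norm_num)]; congr 2; ring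
      _ ≤ μ * 8 ^ M := by
        have := hR.big
        gcongr
  have e2 := Real.logb_le_logb_of_le one_lt_two (by positivity) e1
  rw [Real.logb_rpow (by norm_num) (by norm_num)] at e2
  linarith

end

end Crest.Agent.R136.K4
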