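import Crest.Agent.R116.XcDef_794

/-!
# R136, block U4 (pure penalty): FULL configurations over an abstract class of test sets (helper879)

Over `XaDef_794` (`TS`) and `XcDef_794` (`Cfg`, `Cfg.Ok`, `capP`, `rel`).

* `CfgF` : `Cfg` with a number `h` of coarse levels;
* `OkF T Ψ F` : `Cfg.Ok`, bottom bound at all levels `m ≤ i ≤ m + h`, own counts
  `≥ 2^(M + 20 - h)`;
* `UBF 𝒯 Ψ b` : the gap `D1 / D0` of all full configurations is at most `2^(b M)` in the limit;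
* `EnemyF 𝒯` : the enemy.
-/

set_option autoImplicit false

open Finset

namespace Crest.Agent.R136.KF879

open Crest.Agent.R138.Mk163 (zc zl rho alive own)
open Crest.Agent.R116.Xa794 (TS)
open Crest.Agent.R116.Xc794

section

variable {Ln ι S : Type} [Fintype ι]

/-- finite configuration with `h` coarse levels -/
structure CfgF (Ln ι S : Type) extends Cfg Ln ι S where
  h : ℕ

open Classical in
/-- validity of a full configuration with the reward `Ψ` -/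
structure OkF (T : TS Ln ι S) (Ψ : ℝ → (ι → ℝ) → ℝ) (F : CfgF Ln ι S) : Prop
    extends F.toCfg.Ok T Ψ where
  h20 : 20 ≤ F.h
  hM : F.h ≤ F.M
  ups : ∀ i : ℕ, F.m ≤ i → i ≤ F.m + F.h → ∀ J : ℤ, ∀ s : (ι → ℕ) × S, T.adm i J s →
    (((alive F.I i J).filter fun t => T.mem i J s (F.L t)).card : ℝ) ≤
      F.D0 * capP T Ψ (F.m + F.M) F.a i s.1
  full : ∀ x ∈ F.I, 2 ^ (F.M + 20) ≤
    2 ^ F.h * (Crest.Agent.R138.Mk163.own F.I F.m (F.m + F.M) x).card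

/-- the gap of all full configurations with the reward `Ψ` is at most `b` in the limit -/
def UBF (𝒯 : Set (TS Ln ι S)) (Ψ : ℝ → (ι → ℝ) → ℝ) (b : ℝ) : Prop :=
  ∀ η : ℝ, 0 < η → ∃ δ : ℝ, 0 < δ ∧ ∃ M0 : ℕ, ∀ T ∈ 𝒯, ∀ F : CfgF Ln ι S, OkF T Ψ F →
    M0 ≤ F.M → Real.log (F.I.card : ℝ) ≤ (2 : ℝ) ^ (δ * F.M) →
      (F.N : ℝ) ≤ (2 : ℝ) ^ (δ * F.M) → (F.h : ℝ) ≤ δ * F.M →
        F.D1 ≤ (2 : ℝ) ^ ((b + η) * F.M) * F.D0

/-- **the enemy**: no reward, top marks = full boxes, resolution `m + M` -/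
def EnemyF (𝒯 : Set (TS Ln ι S)) : Prop :=
  ∃ b0 : ℝ, 0 < b0 ∧ ∀ δ : ℝ, 0 < δ → ∀ M0 : ℕ, ∃ T ∈ 𝒯, ∃ F : CfgF Ln ι S,
    OkF T (fun _ _ => 0) F ∧ M0 ≤ F.M ∧ Real.log (F.I.card : ℝ) ≤ (2 : ℝ) ^ (δ * F.M) ∧
      (F.N : ℝ) ≤ (2 : ℝ) ^ (δ * F.M) ∧ F.N ≤ F.m + F.M ∧ (F.h : ℝ) ≤ δ * F.M ∧
      (∀ j, F.a j = F.m + F.M) ∧ (2 : ℝ) ^ (b0 * F.M) * F.D0 < F.D1

/-- the test sets of level `i` are at most as wide as the cell -/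
def FitF (𝒯 : Set (TS Ln ι S)) : Prop :=
  ∀ T ∈ 𝒯, ∀ (i : ℕ) (J : ℤ) (s : (ι → ℕ) × S), T.adm i J s → ∀ j, i ≤ s.1 j

omit [Fintype ι] in
theorem UBF.mono {𝒯 : Set (TS Ln ι S)} {Ψ : ℝ → (ι → ℝ) → ℝ} {b b' : ℝ} (h : UBF 𝒯 Ψ b)
    (hb : b ≤ b') (hD : ∀ T ∈ 𝒯, ∀ F : CfgF Ln ι S, OkF T Ψ F → 0 ≤ F.D0) : UBF 𝒯 Ψ b' := by
  intro η hη
  obtain ⟨δ, hδ, M0, h1⟩ := h η hη
  refine ⟨δ, hδ, M0, fun T hT F hF hM h2 h3 h4 => (h1 T hT F hF hM h2 h3 h4).trans ?_⟩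
  refine mul_le_mul_of_nonneg_right ?_ (hD T hT F hF)
  refine Real.rpow_le_rpow_of_exponent_le (by norm_num) ?_
  exact mul_le_mul_of_nonneg_right (by linarith) (Nat.cast_nonneg _)

end

end Crest.Agent.R136.KF879
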