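import Crest.Agent.R136.PinX_851

/-!
# R136, thin pins (helper851): `PtC` ⊢ `Pin`

* `HTp` : decidable height links; `pin_of` : the structure `Pin` at a point of a rung where no
  visible slot touches; `grp_of` : the groups
* `exists_win` : the windows at this point
* `row_end` : `lam (u • T) ≤ -(3 + s) u + C` ⊢ the number of the row
-/

set_option autoImplicit false
set_option linter.unusedSectionVars false
set_option linter.unusedVariables false

open Filter Topology

namespace Crest.Agent.R136.Pin851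

open Finset Crest.Agent.R138.Ex926 Crest.Agent.R136.Net191 Crest.Agent.R136.Gf356
open Crest.Agent.R136.Qg926 Crest.Agent.R136.Dg219 Crest.Agent.R136.Aw413
open Crest.Agent.R136.NetW191 Crest.Agent.R136.EvW938 Crest.Agent.R136.PrW464
open Crest.Agent.R136.LadW697 Crest.Agent.R136.AwJ774 Crest.Agent.R136.Bas938
open Crest.Agent.R136.LfW619 Crest.Agent.R136.BaseW619 Crest.Agent.R136.Lf400
open Crest.Agent.R136.Ht887 Crest.Agent.R136.ThB830 Crest.Agent.R136.LadT830
open Crest.Agent.R136.NatW697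
open Crest.Agent.R136.Rc146 (OutA)
open Crest.Agent.R136.K2S774 (cn ind1)

/-- **height links**: `c → A` with base `z`; 887's links of the flag slots -/
def HTp (Dr V : Finset (Fin 18)) (f k : Fin 18) : Prop :=
  (V = {0} ∧ f = 1 ∧ k = 2) ∨ ∃ Ff q : Fin 14, f = Fin.natAdd 4 Ff ∧ k = Fin.natAdd 4 q ∧
    Fin.natAdd 4 Ff ∉ Dr ∧ Fin.natAdd 4 q ∉ Dr ∧ UpW Dr V ∧
    UpW Dr (insert (Fin.natAdd 4 q) V) ∧
    UpW Dr (insert (Fin.natAdd 4 Ff) (insert (Fin.natAdd 4 q) V)) ∧
    ∃ n ∈ ([1, 2] : List ℤ), ∃ e ∈ ([0, 1] : List ℕ),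
      HtDat (V ∪ Dr) O0 ((V ∪ Dr) \ {0, 1, 2, 3}) Ff q n e

instance (Dr V : Finset (Fin 18)) (f k : Fin 18) : Decidable (HTp Dr V f k) := by
  unfold HTp; infer_instance

section pin

variable {B Bo : Base} {I J : ℕ → Finset (ℕ × ℝ)} {co : ∀ n : ℕ, ℕ × ℝ → ℕ × ℝ → Fin 18 → ℝ}
  {C : ℝ} {κ : ℕ → ℝ} {u : ℕ → Fin 18 → ℝ} {f : ℕ → ℕ × ℝ → FW} {K : ℝ}
  {θ : Fin 3 → ℝ} {q : Fin 3 → ℝ} {V T : Set (Fin 18)} {s : ℝ}
  {lam lo : (Fin 18 → ℝ) → ℝ} {A : ℝ × ℝ} {φ : ℕ → (Fin 18 → ℝ) → ℝ} {r : ℕ → ℝ}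
  {Dr : Finset (Fin 18)}

theorem TW_mem (hs : 0 < s) (hDr : DrW s = ↑Dr) : TW s ∈ CL Dr := by
  rw [CL, mem_cnW, ← hDr]
  intro k hk l hl hD
  rw [TW_of_not hk]
  have h1 : (l.map (TW s)).sum = (l.map (saW s)).sum := by
    congr 1
    exact List.map_congr_left fun i hi => TW_of_not (hD i hi)
  rw [h1]
  obtain ⟨w, rfl, -, h3⟩ := list_wall hl
  rw [← h3]
  exact (nat_saW (fun _ => True) s w trivial).le

theorem frame_notMem (hDr : DrW s = ↑Dr) {k : Fin 18} (hk : k < 4) : k ∉ Dr := by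
  intro h
  have h2 : k ∈ DrW s := by rw [hDr]; exact Finset.mem_coe.2 h
  exact absurd h2.1 (not_le.2 hk)

/-- the windows at a point of a rung where no visible slot touches -/
theorem exists_win (h : PtC B Bo I J co C κ u f K θ q V T s lam lo A φ r) (hDr : DrW s = ↑Dr)
    (hV : ∀ k ∈ V, KW θ k < s) {x : ℝ} (hx : 0 < x) :
    ∃ (W : Wnd 18 fun _ => ℕ × ℝ) (E : ∀ n : ℕ, Finset (ℕ × ℝ)), PWin W E κ u f Dr lam x := by
  have ha := h.aew
  rw [hDr] at ha
  exact exists_pwin ha (fun k hk => absurd hk.2 (hV k hk.1).ne)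
    ⟨h.kp1, h.gru, fun n i _ j _ k => h.co_eq n i j k⟩ h.kp0 h.ne hx

/-- **the structure `Pin`** -/
theorem pin_of (h : PtC B Bo I J co C κ u f K θ q V T s lam lo A φ r) (hDr : DrW s = ↑Dr)
    (hV : ∀ k ∈ V, KW θ k < s) :
    Pin Dr (TW s) (gC (TW s) (btW θ)) (q 1 + 2 * q 2) (HTp Dr) lam := by
  have ha := h.aew
  have hout := h.out
  have hind := h.ind
  have hsw := h.sweep
  rw [hDr] at ha hout hind hsw
  have hVe : ∀ k, ¬ (k ∈ V ∧ KW θ k = s) := fun k hk => absurd hk.2 (hV k hk.1).ne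
  have hi : Ind Dr lam := fun c hc c' hc' hcc => hind c hc c' hc' fun i hi =>
    hcc i fun h' => hi (Finset.mem_coe.2 h')
  have hsh : ∀ c ∈ CL Dr, ∀ c' ∈ CL Dr, c ≤ c' → lam c - lam c' ≤ ∑ i, (c' i - c i) :=
    fun c hc c' hc' hcc => ha.sharp c (by rw [cone_eq]; exact hc) c' (by rw [cone_eq]; exact hc') hcc
  have d0 : (0 : Fin 18) ∉ Dr := frame_notMem hDr (by decide)
  have d1 : (1 : Fin 18) ∉ Dr := frame_notMem hDr (by decide)
  have d2 : (2 : Fin 18) ∉ Dr := frame_notMem hDr (by decide)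
  have d3 : (3 : Fin 18) ∉ Dr := frame_notMem hDr (by decide)
  have z0 : ∀ (U : Finset (Fin 18)), ind U (0:ℝ) = 0 := fun U => by funext k; simp [ind]
  refine
    { zero := ha.zero
      anti := fun c hc c' hc' hcc =>
        ha.anti c (by rw [cone_eq]; exact hc) c' (by rw [cone_eq]; exact hc') hcc
      sharp := hsh
      G0 := fun i => gC_zero
      T0 := TW_nonneg s h.s0
      T1 := ⟨TW_z s, TW_c s, TW_A s, TW_B s⟩
      nT := TW_mem h.s0 hDr
      dec := fun i y c c' hc hc1 hc' hc1' hG => ?_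
      zf := fun c hc y hy => aew_zf ha hVe hc hy
      m0 := by have := h.q1; have := h.q2; linarith
      sweep := fun t ht => ?_
      addT := fun v hv c hc => ?_
      leaf := fun U X F p n e hn hD hF hp hd u1 u2 u3 u4 j x hj hjx hX hv => ?_
      leafB := fun U hD u0 u1 u2 u3 hU j x hj hjx hX hv => ?_
      ht := fun U i k hH j x hj hjx hv => ?_ }
  · refine loss_slot hout.toOutS i hc hc1 hc' hc1' (fun j hj => (Function.update_of_ne hj _ _).symm)
      (fun j hj => (Function.update_of_ne hj _ _).symm) hG ?_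
    rw [Function.update_self, Function.update_self]
  · have h1 := hsw 0 K2S774.cn_zero rfl (fun _ _ _ => le_rfl) t ht
    rw [ha.zero, zero_add] at h1
    have e : t • e1W = Function.update (0 : Fin 18 → ℝ) 1 t := by
      funext i
      simp only [Pi.smul_apply, smul_eq_mul, e1W]
      by_cases hi : i = 1
      · subst hi; rw [Pi.single_eq_same, Function.update_self, mul_one]
      · rw [Pi.single_eq_of_ne hi, Function.update_of_ne hi, mul_zero]; rfl
    rw [e] at h1
    linarith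
  · have e : v • TW s = Tn (TW s) (btW θ) (v, 0) := by
      funext i; simp only [Tn, Pi.smul_apply, smul_eq_mul]; ring
    have m1 : v • TW s ∈ CL Dr := K2S774.cn_smul (TW_mem h.s0 hDr) hv
    have m2 : v • TW s + c ∈ CL Dr := K2S774.cn_add m1 hc
    rw [hout.sum _ m2, hout.sum _ m1, hout.sum _ hc, ← sum_add_distrib]
    refine sum_congr rfl fun k _ => ?_
    by_cases hk : k = 0
    · subst hk
      have a1 : φ 0 (v • TW s) = 0 := hout.zero 0 _ fun i hi => by
        rw [Pi.smul_apply, gC_zero.1 hi, smul_zero]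
      have a2 : φ 0 (v • TW s + c) = φ 0 c := hout.loc 0 _ _ fun i hi => by
        rw [Pi.add_apply, Pi.smul_apply, gC_zero.1 hi, smul_zero, zero_add]
      rw [a1, a2, zero_add]
    · rw [e]
      refine hout.add k (fun i hi => ?_) (v, 0) c hc
      have hT : TW s i ≠ 0 := fun hT => hk (by rw [← hi]; exact gC_zero.2 hT)
      rw [dhC, if_neg hT]
      exact lt_of_le_of_ne (TW_nonneg s h.s0 i) hT.symm
  · rcases (hj.trans hjx).eq_or_lt with h0 | hx
    · have hj0 : j = 0 := le_antisymm (by rw [h0]; exact hjx) hj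
      subst h0; subst hj0
      exfalso
      have e : Function.update (ind (insert (Fin.castAdd 14 X) (insert (Fin.natAdd 4 p) U)) (0:ℝ))
          (Fin.natAdd 4 F) 0 = ind (insert (Fin.castAdd 14 X) (insert (Fin.natAdd 4 p) U)) 0 := by
        rw [z0]; exact Function.update_eq_self_iff.2 rfl
      rw [e] at hv
      exact lt_irrefl _ hv
    · obtain ⟨W, E, hW⟩ := exists_win h hDr hV hx
      exact hW.leaf hi hsh hx hn d0 hD hF hp hd u1 u2 u3 u4 hj hjx hX hv
  · rcases (hj.trans hjx).eq_or_lt with h0 | hx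
    · have hj0 : j = 0 := le_antisymm (by rw [h0]; exact hjx) hj
      subst h0; subst hj0
      exfalso
      have e : Function.update (ind (insert 2 (insert 3 U)) (0:ℝ)) 1 0 =
          ind (insert 2 (insert 3 U)) 0 := by
        rw [z0]; exact Function.update_eq_self_iff.2 rfl
      rw [e] at hv
      exact lt_irrefl _ hv
    · obtain ⟨W, E, hW⟩ := exists_win h hDr hV hx
      exact hW.leafB hi hx hD d1 d2 d3 u0 u1 u2 u3 hU hj hjx hX hv
  · rcases (hj.trans hjx).eq_or_lt with h0 | hx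
    · have hj0 : j = 0 := le_antisymm (by rw [h0]; exact hjx) hj
      subst h0; subst hj0
      exfalso
      have e : Function.update (ind (insert k U) (0:ℝ)) i 0 = ind (insert k U) 0 := by
        rw [z0]; exact Function.update_eq_self_iff.2 rfl
      rw [e] at hv
      exact lt_irrefl _ hv
    · obtain ⟨W, E, hW⟩ := exists_win h hDr hV hx
      rcases hH with ⟨rfl, rfl, rfl⟩ | ⟨F, p, rfl, rfl, hF, hp, u1, u2, u3, n, hn, e, he, hd⟩
      · exact hW.htA hx d0 d1 d2 hj hjx hv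
      · refine hW.ht hi hx d0 (n := n) ?_ hF hp hd u1 u2 u3 hj hjx hv
        simp only [List.mem_cons, List.not_mem_nil, or_false] at hn
        rcases hn with rfl | rfl
        · exact one_ne_zero
        · exact two_ne_zero

/-- second slope of `N` on the rung `s` -/
noncomputable def bN (θ : Fin 3 → ℝ) (s : ℝ) : ℝ := (s - (1 - θ 0)) / θ 1

/-- **the groups** -/
theorem grp_of {j : ℤ} (h1 : 0 < θ 1) (hDr : DrW (j : ℝ) = ↑Dr) :
    Grp Dr (TW j) (gC (TW j) (btW θ)) j (bN θ j) := by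
  have hT : ∀ i, i ∉ Dr → TW (j : ℝ) i = sI j i := fun i hi => by
    rw [TW_of_not fun h => hi (Finset.mem_coe.1 (hDr ▸ h))]
    simp only [saW, sI]; push_cast; ring
  refine ⟨hT, fun i => gC_zero, fun i k hi hk hi0 hk0 hG => ?_⟩
  have h2 := (gC_eq hi0 hk0).1 hG
  rw [div_eq_div_iff hi0 hk0, hT i hi, hT k hk] at h2
  have hb : ∀ i : Fin 18, btW θ i = sI j i - θ 1 * (wc i + bN θ j * wn i) := by
    intro i
    simp only [btW, grW, sI, bN]
    push_cast
    field_simp
    ring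
  rw [hb i, hb k] at h2
  have h3 : θ 1 * (((sI j i : ℝ)) * (wc k + bN θ j * wn k) -
      sI j k * (wc i + bN θ j * wn i)) = 0 := by linear_combination h2
  have h4 := (mul_eq_zero.1 h3).resolve_left h1.ne'
  linarith

/-- `A` full, `B` full given `A` -/
theorem frames_of {T : Fin 18 → ℝ} {G : Fin 18 → ℕ} {m : ℝ} {j : ℤ} {b : ℝ}
    (H : Pin Dr T G m (HTp Dr) lam) (hG : Grp Dr T G j b) (d2 : 2 ∉ Dr) (d3 : 3 ∉ Dr)
    (e1 : UpW Dr {2, 0}) (e2 : Disjoint ({0} : Finset (Fin 18)) Dr) (e3 : UpW Dr {0})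
    (e4 : Up2 Dr {0} 2) (e5 : UpW Dr {2, 3, 0}) (e6 : Up2 Dr {1, 3, 0} 2) :
    XF lam {0} 2 ∧ XF lam {0, 2} 3 := by
  have hG0 : ∀ i, T i = 0 → i ≠ 1 → (i ∈ ({0} : Finset (Fin 18)) ↔ i ∈ (∅ : Finset (Fin 18))) := by
    intro i hi _
    constructor
    · intro h
      rw [Finset.mem_singleton.1 h, H.T1.1] at hi
      norm_num at hi
    · intro h; simp at h
  have hA : XF lam {0} 2 := H.Afull H.free_empty (Or.inl ⟨rfl, rfl, rfl⟩) e1 (by decide) hG0
  have t1 : G 1 = 0 := (H.G0 1).2 H.T1.2.1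
  have t2 : G 2 ≠ 0 := fun h => by
    have := (H.G0 2).1 h
    rw [H.T1.2.2.1] at this; norm_num at this
  have g32 : G 3 ≠ G 2 := hG.ne (bad := []) (by simp) d3 d2 (by
    refine Or.inr (Or.inr ⟨?_, ?_, Or.inl ⟨?_, ?_⟩⟩) <;>
    simp [sI, wz, wn, wc])
  have hB := H.Bfull H.free_empty e2 (by decide) (by decide) (by decide) (by decide) e3 e4 e5 hG0
    (H.tr_XF hA e4 e6 fun i hi hi2 => by
      have hi' : i = 1 ∨ i = 3 := by
        revert hi; clear hi2; revert i; decide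
      rcases hi' with rfl | rfl
      · rw [t1]; exact t2.symm
      · exact g32)
  have e : ({0, 2} : Finset (Fin 18)) = {2, 0} := by decide
  exact ⟨hA, by rw [e]; exact hB⟩

/-- **end of a row** -/
theorem row_end (h : PtC B Bo I J co C κ u f K θ q V T s lam lo A φ r) (hDr : DrW s = ↑Dr)
    (hC : ∃ C' : ℝ, ∀ v : ℝ, 0 ≤ v → lam (v • TW s) ≤ -((3 + s) * v) + C') : 3 + s ≤ -A.1 := by
  obtain ⟨C', hC⟩ := hC
  refine full_of_ray (C := C') h.out.toOutS
    (((eventually_ge_atTop (0:ℝ)).mono fun v hv => ⟨?_, hC v hv⟩).frequently)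
  have := K2S774.cn_smul (TW_mem h.s0 hDr) hv
  rw [hDr]; exact this

end pin

end Crest.Agent.R136.Pin851
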