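import Crest.Agent.R136.RowI3_938
import Crest.Agent.R136.PinY_851

/-!
# R136 (helper938): K-rungs of the thin ladder (row `deadhi2`), part 1: height links at one point

* `PtB.htZ` : height link `F → q` with level slot `z`, all other slots of the box outside the group
  of `z` and invisible
-/

set_option autoImplicit false
set_option linter.unusedSectionVars false
set_option linter.unusedVariables false

open Filter Topology

namespace Crest.Agent.R136.KHt938

open Finset Crest.Agent.R136.NetW191 Crest.Agent.R136.Net191 Crest.Agent.R136.Qg926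
open Crest.Agent.R136.EvW938 Crest.Agent.R136.RowW619 Crest.Agent.R136.Lf400
open Crest.Agent.R136.LfW619 Crest.Agent.R136.Ht887 Crest.Agent.R136.BaseW619
open Crest.Agent.R136.TrI938 Crest.Agent.R136.DLow619 Crest.Agent.R136.Bas938
open Crest.Agent.R136.LadW697 Crest.Agent.R136.NatW697 Crest.Agent.R136.PrW464
open Crest.Agent.R136.Dg219 Crest.Agent.R136.RowI938
open Crest.Agent.R136.AwJ774
open Crest.Agent.R136.ThB830 (PtC)
open Crest.Agent.R136.P0830 (ptB_of basG_of)
open Crest.Agent.R136.Aw413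
open Crest.Agent.R138.Ex926 (Base U)
open Crest.Agent.R136.Gf356
open Crest.Agent.R136.Pin851 (mem_max' upd_self0)

/-- indicator tops -/
def nI (N : Finset (Fin 18)) : Fin 18 → ℕ := fun k => if k ∈ N then 1 else 0

section pt

variable {B Bo : Base} {I J : ∀ n : ℕ, Finset (ℕ × ℝ)}
  {co : ∀ n : ℕ, ℕ × ℝ → ℕ × ℝ → Fin 18 → ℝ} {kp : ℕ → ℝ} {u : ℕ → Fin 18 → ℝ}
  {f : ∀ n : ℕ, ℕ × ℝ → FW} {C : ℝ}
  {lam : (Fin 18 → ℝ) → ℝ} {a b : Fin 18 → ℝ} {A : ℝ × ℝ} {φ : ℕ → (Fin 18 → ℝ) → ℝ}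
  {r : ℕ → ℝ} {Ma : Mons 18} {Dr : Set (Fin 18)} {κ' : Fin 18 → ℝ} {V' Tw : Fin 18 → Prop}

/-- the boxes of a height link -/
theorem b2_dom {V O P : Finset (Fin 18)} {F q : Fin 14} {m : ℤ} {e : ℕ}
    (hd : HtDat V O P F q m e) (u1 : UpW ∅ V) (u2 : UpW ∅ (insert (Fin.natAdd 4 q) V))
    (u3 : UpW ∅ (insert (Fin.natAdd 4 F) (insert (Fin.natAdd 4 q) V))) {x t w : ℝ}
    (ht : 0 ≤ t) (htw : t ≤ w) (hwx : w ≤ x) (hc : t = w ∨ w = x) (k : Fin 18) :
    ∀ l ∈ mlW k, b2 (ind V x) (Fin.natAdd 4 F) (Fin.natAdd 4 q) t w k ≤ 0 ∨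
      ∃ s ∈ l, b2 (ind V x) (Fin.natAdd 4 F) (Fin.natAdd 4 q) t w k ≤
        b2 (ind V x) (Fin.natAdd 4 F) (Fin.natAdd 4 q) t w s := by
  intro l hl
  set sF : Fin 18 := Fin.natAdd 4 F with hsF
  set sN : Fin 18 := Fin.natAdd 4 q with hsN
  have nF : sF ∉ V := hd.AF
  have nN : sN ∉ V := hd.Aq
  have hNF : sN ≠ sF := hd.ne
  have hx : 0 ≤ x := (ht.trans htw).trans hwx
  have vV : ∀ s ∈ V, b2 (ind V x) sF sN t w s = x := by
    intro s hs
    rw [b2_o (fun e : s = sF => nF (by rw [← e]; exact hs))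
      (fun e : s = sN => nN (by rw [← e]; exact hs)), ind_mem hs]
  have vF : b2 (ind V x) sF sN t w sF = t := b2_F
  have vN : b2 (ind V x) sF sN t w sN = w := b2_N hNF
  by_cases kV : k ∈ V
  · obtain ⟨s, hs, hsV⟩ := u1 k kV l hl (by simp)
    exact Or.inr ⟨s, hs, by rw [vV k kV, vV s hsV]⟩
  by_cases kN : k = sN
  · obtain ⟨s, hs, hsV⟩ := u2 k (by rw [kN]; exact mem_insert_self _ _) l hl (by simp)
    have hsk : s ≠ k := (mlW_low k l hl s hs).ne
    have hsV' : s ∈ V := mem_of_mem_insert_of_ne hsV (by rw [← kN]; exact hsk)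
    refine Or.inr ⟨s, hs, ?_⟩
    rw [kN, vN, vV s hsV']
    exact hwx
  by_cases kF : k = sF
  · obtain ⟨s, hs, hsV⟩ := u3 k (by rw [kF]; exact mem_insert_self _ _) l hl (by simp)
    have hsk : s ≠ k := (mlW_low k l hl s hs).ne
    have hsV' : s ∈ insert sN V := mem_of_mem_insert_of_ne hsV (by rw [← kF]; exact hsk)
    refine Or.inr ⟨s, hs, ?_⟩
    rw [kF, vF]
    by_cases hsN' : s = sN
    · rw [hsN', vN]; exact htw
    · rw [vV s (mem_of_mem_insert_of_ne hsV' hsN')]; exact htw.trans hwx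
  · left
    rw [b2_o kF kN, ind_notMem kV]

/-- **height link**, level slot `z`, the other slots of the group of `z` are unresolved -/
theorem PtB.htZ (h : PtB B Bo I J co kp u f Ma Dr C lam a b A φ r κ' V' Tw)
    {V O P N : Finset (Fin 18)} {F q : Fin 14} {m : ℤ} {e : ℕ}
    (hd : HtDat V O P F q m e) (hm : m ≠ 0) (hV : V ⊆ N) (hO : O ⊆ N) (h0O : (0 : Fin 18) ∉ O)
    (hF : Fin.natAdd 4 F ∈ N) (hq : Fin.natAdd 4 q ∈ N)
    (hP : ∀ q' : Fin 14, Fin.natAdd 4 q' ∈ V → Fin.natAdd 4 q' ∈ P)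
    (hN : WDat (fun _ => 0) (nI N) 1 {0}) (u1 : UpW ∅ V)
    (u2 : UpW ∅ (insert (Fin.natAdd 4 q) V))
    (u3 : UpW ∅ (insert (Fin.natAdd 4 F) (insert (Fin.natAdd 4 q) V)))
    (hD0 : (0 : Fin 18) ∉ Dr) (hDF : Fin.natAdd 4 F ∉ Dr) (hDq : Fin.natAdd 4 q ∉ Dr)
    (hden : ∀ j, gC a b 0 = gC a b j → j = 0 ∨ j ∉ N ∨ j ∈ Dr)
    (hVN : ∀ k, V' k → k ∉ N) {j x : ℝ} (hx : 0 < x) (hj : 0 ≤ j) (hjx : j ≤ x)
    (hv : lam (Function.update (ind (insert (Fin.natAdd 4 q) V) x) (Fin.natAdd 4 F) j) <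
      lam (ind (insert (Fin.natAdd 4 q) V) x)) :
    x - j ≤ lam (ind V x) - lam (ind (insert (Fin.natAdd 4 q) V) x) := by
  have hM := h.act
  obtain ⟨W, E, g⟩ := h.win hN (y := x) hx
    (fun i j' e hi => by
      have : i = 0 := by simpa using hi
      subst this
      rcases hden j' e with h1 | h1 | h1
      · exact Or.inl (by simp [h1])
      · exact Or.inr (Or.inl (by simp [nI, h1]))
      · exact Or.inr (Or.inr h1))
    (fun _ _ => rfl)
    (fun k hk => Or.inr (by simp [nI, hVN k hk]))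
  have nF : (Fin.natAdd 4 F : Fin 18) ∉ V := hd.AF
  have nN : (Fin.natAdd 4 q : Fin 18) ∉ V := hd.Aq
  have hNF : (Fin.natAdd 4 q : Fin 18) ≠ Fin.natAdd 4 F := hd.ne
  have h0V : (0 : Fin 18) ∈ V := hd.A0
  set sF : Fin 18 := Fin.natAdd 4 F with hsF
  set sN : Fin 18 := Fin.natAdd 4 q with hsN
  have h0F : (0 : Fin 18) ≠ sF := fun e' => nF (by rw [← e']; exact h0V)
  have h0N : (0 : Fin 18) ≠ sN := fun e' => nN (by rw [← e']; exact h0V)
  have topN : ∀ k, k ∈ N → W.top k = x := by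
    intro k hk
    rw [g.etop]
    simp [scV, nI, hk]
  have topn : ∀ k, 0 ≤ W.top k := by
    intro k
    rw [g.etop]
    simp only [scV]
    positivity
  have cutz : ∀ t w : ℝ, cut {0} (b2 (ind V x) sF sN t w) (scV x (nI N)) =
      b2 (ind V x) sF sN t w := by
    intro t w
    funext k
    by_cases h0 : k = 0
    · subst h0
      rw [cut_of_mem (by simp), b2_o h0F h0N, ind_mem h0V]
      simp [scV, nI, hV h0V]
    · rw [cut_of_notMem (by rw [mem_singleton]; exact h0)]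
  have nn : ∀ t w : ℝ, 0 ≤ t → 0 ≤ w → ∀ k, 0 ≤ b2 (ind V x) sF sN t w k := by
    intro t w ht hw k
    unfold b2
    split_ifs
    exacts [ht, hw, ind_nonneg hx.le k]
  have le : ∀ t w : ℝ, t ≤ x → w ≤ x → ∀ k, b2 (ind V x) sF sN t w k ≤ x := by
    intro t w ht hw k
    unfold b2
    split_ifs
    exacts [ht, hw, ind_le hx.le k]
  have leg : ∀ t w : ℝ, 0 ≤ t → t ≤ w → w ≤ x → (t = w ∨ w = x) →
      b2 (ind V x) sF sN t w ∈ W.legW := by
    intro t w ht htw hwx hc
    constructor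
    · rw [g.eS, g.etop, g.eMw, g.eR, cutz, Nat.cast_one, mul_one]
      exact leg_dom hM (nn t w ht (ht.trans htw)) (le t w (htw.trans hwx) hwx)
        (b2_dom hd u1 u2 u3 ht htw hwx hc)
    · intro k hk
      by_cases k1 : k = sF
      · rw [k1, topN sF hF, b2_F]; exact htw.trans hwx
      by_cases k2 : k = sN
      · rw [k2, topN sN hq, b2_N hNF]; exact hwx
      rw [b2_o k1 k2]
      by_cases k3 : k ∈ V
      · rw [ind_mem k3, topN k (hV k3)]
      · rw [ind_notMem k3]; exact topn k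
  have nuv : ∀ t w : ℝ, W.nu (b2 (ind V x) sF sN t w) =
      lam (b2 (ind V x) sF sN t w) - lam (scV x (nI N)) := by
    intro t w
    unfold Wnd.nu
    have e0 : scV x (fun _ => 0) = (0 : Fin 18 → ℝ) := by funext k; simp [scV]
    rw [g.eS, g.etop, g.elam, cutz, e0]
    simp only [zero_add]
    ring
  have e00 : b2 (ind V x) sF sN 0 0 = ind V x := by
    funext k
    by_cases k1 : k = sF
    · rw [k1, b2_F, ind_notMem nF]
    by_cases k2 : k = sN
    · rw [k2, b2_N hNF, ind_notMem nN]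
    rw [b2_o k1 k2]
  have nFN : sF ∉ insert sN V := by simp [hNF.symm, nF]
  have ejx : b2 (ind V x) sF sN j x = Function.update (ind (insert sN V) x) sF j := by
    funext k
    by_cases k1 : k = sF
    · rw [k1, b2_F, Function.update_self]
    rw [Function.update_of_ne k1]
    by_cases k2 : k = sN
    · rw [k2, b2_N hNF, ind_mem (mem_insert_self _ _)]
    rw [b2_o k1 k2]
    by_cases k3 : k ∈ V
    · rw [ind_mem k3, ind_mem (mem_insert_of_mem k3)]
    · rw [ind_notMem k3, ind_notMem (by simp [k2, k3])]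
  have e0x : b2 (ind V x) sF sN 0 x = ind (insert sN V) x := by
    funext k
    by_cases k1 : k = sF
    · rw [k1, b2_F, ind_notMem nFN]
    by_cases k2 : k = sN
    · rw [k2, b2_N hNF, ind_mem (mem_insert_self _ _)]
    rw [b2_o k1 k2]
    by_cases k3 : k ∈ V
    · rw [ind_mem k3, ind_mem (mem_insert_of_mem k3)]
    · rw [ind_notMem k3, ind_notMem (by simp [k2, k3])]
  have hb : HtBox W V O P F q (ind V x) (fun _ => 0) x := by
    refine ⟨?_, ?_, ?_, ?_, fun _ => le_rfl, rfl, ?_, ?_, ?_, ?_, ?_, ?_⟩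
    · rw [g.eS, mem_singleton]; exact h0N.symm
    · rw [g.eS, mem_singleton]; exact h0F.symm
    · exact ind_nonneg hx.le
    · exact topn
    · intro k hk _
      exact ind_mem hk
    · intro k hk _
      rw [topN k (hV hk)]
    · intro k hk _
      rw [topN k (hO hk)]
    · intro k hk hkS
      rw [g.eS, mem_singleton] at hkS
      subst hkS
      exact absurd hk h0O
    · intro k hk _ _ _
      exact ind_notMem hk
    · intro q' hq' _
      exact hP q' hq'
  have hcf := cHt_ok (e := e) g.ww hd.wall hm (fun _ => g.hk)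
    (Eventually.of_forall fun n => by
      have := g.tight sN hDq [0, sF] hd.wall (fun a ha => by
        rcases List.mem_cons.1 ha with h1 | h1
        · rw [h1]; exact hD0
        · rw [List.mem_singleton.1 h1]; exact hDF) (by simp) n
      simpa using this)
  have key := hd.pos g.ww g.ev g.mod hb (x := x) (j := j) hx le_rfl le_rfl hj hjx
    (fun t h0 h1 => leg t x h0 h1 le_rfl (Or.inr rfl))
    (fun t h0 h1 => leg t t h0 le_rfl h1 (Or.inl rfl)) (OwnV.zero W E fun _ _ => le_rfl) hcf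
    (by rw [nuv, nuv, ejx, e0x]; linarith)
  rw [nuv, nuv, e00, e0x] at key
  linarith

end pt

end Crest.Agent.R136.KHt938
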