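import Crest.Agent.R136.PinY_851

/-!
# R136, thin rows (helper648): the leaf links at EVERY point of EVERY rung

* `runif` : a pruned set of a window gives uniform counts `RUnif` (no density, no Frostman heights)
* `PZ`, `exists_pz` : window `S = {z}`, resolution `x` in all slots, at any point of a rung
  (visible slots allowed; no fullness of `z`)
* `LfZ` : the literal of the field `leaf` of 851's `Pin`; `lfZ_of`, `ptC_leafZ` : it holds at every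
  point `PtC`
-/

set_option autoImplicit false
set_option linter.unusedSectionVars false
set_option linter.unusedVariables false
set_option linter.style.longLine false

open Filter Topology

namespace Crest.Agent.R136.Lfz648

open Finset Crest.Agent.R138.Ex926 Crest.Agent.R136.Net191 Crest.Agent.R136.Gf356
open Crest.Agent.R136.Qg926 Crest.Agent.R136.Dg219 Crest.Agent.R136.Aw413
open Crest.Agent.R136.NetW191 Crest.Agent.R136.EvW938 Crest.Agent.R136.PrW464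
open Crest.Agent.R136.LadW697 Crest.Agent.R136.AwJ774 Crest.Agent.R136.Bas938
open Crest.Agent.R136.LfW619 Crest.Agent.R136.BaseW619 Crest.Agent.R136.Lf400
open Crest.Agent.R136.Ht887 Crest.Agent.R136.ThB830 Crest.Agent.R136.Pin851
open Crest.Agent.R136.Rc146 (OutA)
open Crest.Agent.R136.K2S774 (cn)

section unif

open Crest.Agent.R136.Qg926.Wnd

variable {m : ℕ} {ι : ℕ → Type*} [∀ n, DecidableEq (ι n)] {W : Wnd m ι} {E E' : ∀ n, Finset (ι n)}
  {Mu : ℕ → ℝ} {g : ℕ → ℝ} {ex : ℕ → ∀ n, ι n → ℕ}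

/-- **uniform counts** in the configurations of a pruned set -/
theorem runif (h : W.Ok) (hE : EOk W E Mu) (hP : Pruned W E E' g ex) :
    RUnif W.B' (W.cfg E') W.legW W.nu W.Dc where
  D1 := Dc_one W
  base := cfg_ρ E'
  sub := cfg_sub E'
  nonempty := cfg_nonempty E'
  refl := cfg_refl h E'
  symm := fun p hp ε hε => by
    have hc' : lowp W.Mw ε (cut W.S p W.top) ∈ Leg W.Mw W.R' := lowp_mem h.R0 hε.le hp.1
    have hK2 := K2_one h
    have hs1 : 0 ≤ symC W.M W.C W.K2 m := by linarith [symC_ge W.M h.C0 hK2 m]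
    filter_upwards [ev_cfg h hE hP, ev_kap h (symC W.M W.C W.K2 m) hε] with
      n ⟨hg, hsub, hne, heq⟩ hk k i l hi hl hil
    rw [heq] at hi hl hil ⊢
    have hE'Cl : E' n ⊆ W.Cl n := (hP.sub n).trans hsub
    obtain ⟨r1, r2, r3⟩ := rep_of_mem hE'Cl hi
    obtain ⟨t1, t2, t3⟩ := rep_of_mem hE'Cl hl
    have b1 := bx_of_loose h hg (q := cut W.S p W.top) (fun s hs => by rw [cut_of_mem hs]) hε r1 t1
      (r3.trans t3.symm) (fun s hs => by rw [cut_of_notMem hs]; exact cfg0_loose.1 hil s hs)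
    have b2 := h.symm hg hc' hK2 (hg.clI r1) (hg.clI t1) b1
    refine cfg0_loose.2 fun s hs => ?_
    have b3 := loose_of_bx h hε b2 hs1 s (hk s) (D := W.Dc) (by
      have := wg_le_W0 W s
      have := W0_one W
      have hm : (0 : ℝ) ≤ m := Nat.cast_nonneg m
      unfold Dc; nlinarith)
    rwa [cut_of_notMem hs] at b3
  tri := fun p hp ε hε => by
    have hc' : lowp W.Mw ε (cut W.S p W.top) ∈ Leg W.Mw W.R' := lowp_mem h.R0 hε.le hp.1
    have hK2 := K2_one h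
    have hs1 : 0 ≤ triC W.M W.C W.K2 := by linarith [triC_ge (M := W.M) h.C0 hK2]
    filter_upwards [ev_cfg h hE hP, ev_kap h (triC W.M W.C W.K2) hε] with
      n ⟨hg, hsub, hne, heq⟩ hk k i l j hi hl hj hil hlj
    rw [heq] at hi hl hj hil hlj ⊢
    have hE'Cl : E' n ⊆ W.Cl n := (hP.sub n).trans hsub
    obtain ⟨r1, r2, r3⟩ := rep_of_mem hE'Cl hi
    obtain ⟨t1, t2, t3⟩ := rep_of_mem hE'Cl hl
    obtain ⟨u1, u2, u3⟩ := rep_of_mem hE'Cl hj
    have b1 := bx_of_loose h hg (q := cut W.S p W.top) (fun s hs => by rw [cut_of_mem hs]) hε r1 t1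
      (r3.trans t3.symm) (fun s hs => by rw [cut_of_notMem hs]; exact cfg0_loose.1 hil s hs)
    have b1' := bx_of_loose h hg (q := cut W.S p W.top) (fun s hs => by rw [cut_of_mem hs]) hε t1 u1
      (t3.trans u3.symm) (fun s hs => by rw [cut_of_notMem hs]; exact cfg0_loose.1 hlj s hs)
    have b2 := h.tri hg hc' hK2 (hg.clI r1) (hg.clI t1) (hg.clI u1) b1 b1'
    refine cfg0_loose.2 fun s hs => ?_
    have b3 := loose_of_bx h hε b2 hs1 s (hk s) (D := W.Dc) (by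
      have := wg_le_W0 W s
      have := W0_one W
      have hm : (0 : ℝ) ≤ m := Nat.cast_nonneg m
      unfold Dc; nlinarith)
    rwa [cut_of_notMem hs] at b3
  low := fun p hp ε hε => by
    filter_upwards [ev_cfg h hE hP, ev_low h hE hP hp hε] with n ⟨hg, hsub, hne, heq⟩ h1 i k hik
    rw [heq] at hik ⊢
    exact h1 i k hik
  up := fun p hp ε hε => by
    filter_upwards [ev_cfg h hE hP, ev_up h hp hε] with n ⟨hg, hsub, hne, heq⟩ h1 i k hik
    rw [heq] at hik ⊢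
    exact h1 _ ((hP.sub n).trans hsub) i k hik

end unif

variable {ι : ℕ → Type*} [∀ n, DecidableEq (ι n)]

/-- **window**, level slot `z`, resolution `x` in all slots, uniform counts -/
structure PZ (W : Wnd 18 ι) (E : ∀ n, Finset (ι n)) (kp : ℕ → ℝ) (un : ℕ → Fin 18 → ℝ)
    (F : ∀ n, ι n → FW) (Dr : Finset (Fin 18)) (lam : (Fin 18 → ℝ) → ℝ) (x : ℝ) : Prop where
  ww : WWnd W kp un F
  ev : EvG W E
  mod : RUnif W.B' (W.cfg E) W.legW W.nu W.Dc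
  S : W.S = {0}
  top : ∀ s, W.top s = x
  leg : ∀ c : Fin 18 → ℝ, Function.update c 0 x ∈ CL Dr → (∀ k, 0 ≤ c k) → (∀ k, c k ≤ x) →
    c ∈ W.legW
  nu : ∀ c : Fin 18 → ℝ, W.nu c = lam (Function.update c 0 x) - lam (fun _ => x)
  tight : ∀ k, k ∉ Dr → ∀ l ∈ mlW k, (∀ s ∈ l, s ∉ Dr) → ∀ n, W.X n k = (l.map (W.X n)).sum
  kap : ∀ ε : ℝ, 0 < ε → ∀ᶠ n in (U : Filter ℕ), W.B'.d n ^ ε ≤ |kp n|

section win

variable {B Bo : Base} {I J : ∀ n, Finset (ι n)} {co : ∀ n, ι n → ι n → Fin 18 → ℝ}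
  {kp : ℕ → ℝ} {un : ℕ → Fin 18 → ℝ} {F : ∀ n, ι n → FW} {Dr : Finset (Fin 18)} {C : ℝ}
  {lam : (Fin 18 → ℝ) → ℝ} {a b : Fin 18 → ℝ} {A : ℝ × ℝ} {φ : ℕ → (Fin 18 → ℝ) → ℝ} {r : ℕ → ℝ}
  {σ : ℝ} {κ : Fin 18 → ℝ} {V Tw : Fin 18 → Prop}

/-- **the window** -/
theorem exists_pz (h : AeW B Bo I J co monW (mA monW (actW (Dr : Set (Fin 18)))) C lam a b A φ r
    0 σ κ V Tw) (hc : Cht I co kp un F) (hk0 : Bo.Sub (fun n => |kp n|⁻¹))
    (hJ : ∀ᶠ n in (U : Filter ℕ), (J n).Nonempty) {x : ℝ} (hx : 0 < x) :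
    ∃ (W : Wnd 18 ι) (E : ∀ n, Finset (ι n)), PZ W E kp un F Dr lam x := by
  have hst := stP_ok Dr hx.le
  obtain ⟨W, g1, g2, g3⟩ := h.wnd (stP Dr x) rfl hst (fun _ n => |kp n|⁻¹) (fun _ => hk0) J
    (fun _ => 1) (Eventually.of_forall fun n => Subset.refl _) hJ (Base.Sub.const one_pos)
    (Eventually.of_forall fun n => by rw [one_mul])
  obtain ⟨E, g, q1, q2⟩ := Wnd.exists_pruned W g1.ok.R0 W.sec (fun _ _ _ => 0)
    (g₀ := fun n => 1 + W.B'.L n)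
    (tendsto_atTop.2 fun b => (W.B'.ev_L_ge b).mono fun n hn => by linarith)
  have eT : W.top = fun _ => x := g1.etop
  have eS : W.S = {0} := g1.eS
  refine ⟨W, E, ?_, ?_, runif g1.ok g1.ok.eok_section q1, g1.eS, fun s => by rw [eT], ?_, ?_, ?_, ?_⟩
  · refine ⟨g1.ok, hc.hκ, hc.hU, g1.eM, ?_, g1.ekz, by rw [eS]; exact mem_singleton_self _, ?_⟩
    · intro n i hi j hj s
      rw [g1.eI] at hi hj
      rw [g1.eco]
      exact hc.hco n i hi j hj s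
    · intro s hs
      rw [eS, mem_singleton] at hs
      subst hs
      decide
  · filter_upwards [Wnd.ev_cfg g1.ok g1.ok.eok_section q1] with n hn
    exact ⟨hn.1, (q1.sub n).trans hn.2.1, hn.2.2.2⟩
  · intro c hc h0 hcx
    refine ⟨?_, fun s _ => by rw [eT]; exact hcx s⟩
    rw [eS, eT, cut0, g1.eMw, g1.eR]
    refine leg_iff (fun k => ?_) (fun k => ?_) hc
    · rw [Function.update_apply]; split_ifs; exacts [hx.le, h0 k]
    · rw [Function.update_apply]; split_ifs; exacts [le_rfl, hcx k]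
  · intro c
    show W.lam (cut W.S c W.top) - W.lam W.top = _
    rw [eS, eT, cut0, g1.elam]
  · intro k hk l hl hls n
    have := g1.act k _ (mem_mAW.2 ⟨hk, l, hl, hls, rfl⟩) n
    rw [this, sum_count]
  · intro ε hε
    filter_upwards [(g2 0).ev_le hε] with n h1
    obtain ⟨h2, h1⟩ := h1
    have h3 : 0 < |kp n| := inv_pos.1 h2
    have h5 : |kp n|⁻¹ ≤ W.B'.d n ^ (-ε) := by
      rw [← W.B'.exp_eq, ← Real.exp_log h2]
      exact Real.exp_le_exp.2 h1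
    have h4 : 0 < W.B'.d n ^ ε := Real.rpow_pos_of_pos (W.B'.pos n) _
    rw [Real.rpow_neg (W.B'.pos n).le] at h5
    exact (inv_le_inv₀ h3 h4).1 h5

end win

/-! ### the link -/

section use

variable {Dr V V1 V2 : Finset (Fin 18)} {lam : (Fin 18 → ℝ) → ℝ} {x y j : ℝ}
  {W : Wnd 18 ι} {E : ∀ n, Finset (ι n)} {kp : ℕ → ℝ} {un : ℕ → Fin 18 → ℝ} {F : ∀ n, ι n → FW}

theorem PZ.leg' (h : PZ W E kp un F Dr lam x) {c : Fin 18 → ℝ} (hc : c ∈ CL Dr)
    (h0 : ∀ k, 0 ≤ c k) (hx : ∀ k, c k ≤ x) (hz : c 0 = x) : c ∈ W.legW :=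
  h.leg c (by rw [upd_self0 hz]; exact hc) h0 hx

theorem PZ.nu' (h : PZ W E kp un F Dr lam x) {c : Fin 18 → ℝ} (hz : c 0 = x) :
    W.nu c = lam c - lam (fun _ => x) := by rw [h.nu, upd_self0 hz]

/-- **the leaf link** -/
theorem PZ.leaf (h : PZ W E kp un F Dr lam x) (hi : Ind Dr lam)
    (hsh : ∀ c ∈ CL Dr, ∀ c' ∈ CL Dr, c ≤ c' → lam c - lam c' ≤ ∑ i, (c' i - c i))
    (hx : 0 < x) {X : Fin 4} {Ff q : Fin 14} {n : ℤ} {e : ℕ} (hn : n ≠ 0) (hD0 : 0 ∉ Dr)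
    (hD : Disjoint V Dr) (hF : Fin.natAdd 4 Ff ∉ Dr) (hq : Fin.natAdd 4 q ∉ Dr)
    (hd : LeafDat {0} (V ∪ Dr) X Ff q n e) (u1 : UpW Dr V)
    (u2 : UpW Dr (insert (Fin.natAdd 4 Ff) (insert (Fin.natAdd 4 q) V)))
    (u3 : UpW Dr (insert (Fin.castAdd 14 X) (insert (Fin.natAdd 4 q) V)))
    (u4 : UpW Dr (insert (Fin.natAdd 4 Ff) (insert (Fin.castAdd 14 X)
      (insert (Fin.natAdd 4 q) V)))) (hj : 0 ≤ j) (hjx : j ≤ x)
    (hX : x ≤ lam (ind (insert (Fin.natAdd 4 Ff) (insert (Fin.natAdd 4 q) V)) x) -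
      lam (ind (insert (Fin.castAdd 14 X)
        (insert (Fin.natAdd 4 Ff) (insert (Fin.natAdd 4 q) V))) x))
    (hv : lam (Function.update (ind (insert (Fin.castAdd 14 X) (insert (Fin.natAdd 4 q) V)) x)
      (Fin.natAdd 4 Ff) j) < lam (ind (insert (Fin.castAdd 14 X) (insert (Fin.natAdd 4 q) V)) x)) :
    2 * x - j ≤ lam (ind V x) -
      lam (ind (insert (Fin.castAdd 14 X) (insert (Fin.natAdd 4 q) V)) x) := by
  obtain ⟨hmem, nX, nF⟩ := hd.mem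
  have nN := hd.hq
  have h0 : 0 ∈ V := (mem_union.1 (hd.hS hd.h0)).resolve_right hD0
  have hFX : (Fin.natAdd 4 Ff : Fin 18) ≠ Fin.castAdd 14 X := by
    intro he
    have := congrArg Fin.val he
    simp only [Fin.val_natAdd, Fin.val_castAdd] at this
    omega
  have hNX : (Fin.natAdd 4 q : Fin 18) ≠ Fin.castAdd 14 X := by
    intro he
    have := congrArg Fin.val he
    simp only [Fin.val_natAdd, Fin.val_castAdd] at this
    omega
  have hNF : (Fin.natAdd 4 q : Fin 18) ≠ Fin.natAdd 4 Ff := hd.lt.ne'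
  have hXD : Fin.castAdd 14 X ∉ Dr := fun h => nX (mem_union_right _ h)
  have hXV : Fin.castAdd 14 X ∉ V := fun h => nX (mem_union_left _ h)
  have hFV : Fin.natAdd 4 Ff ∉ V := fun h => nF (mem_union_left _ h)
  have hqV : Fin.natAdd 4 q ∉ V := fun h => nN (mem_union_left _ h)
  have hx0 := hx.le
  have hxj : 0 ≤ x - j := by linarith
  have hxj' : x - j ≤ x := by linarith
  set sX : Fin 18 := Fin.castAdd 14 X with hsX
  set sF : Fin 18 := Fin.natAdd 4 Ff with hsF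
  set sN : Fin 18 := Fin.natAdd 4 q with hsN
  -- values of the boxes
  have m1 : ∀ {cX cF cN y : ℝ} {V1 V2 : Finset (Fin 18)}, 0 ≤ y → y ≤ x → UpW Dr V1 → UpW Dr V2 →
      Val V1 V2 x y sX cX → Val V1 V2 x y sF cF → Val V1 V2 x y sN cN →
      (∀ i, i ≠ sX → i ≠ sF → i ≠ sN → (i ∈ V1 ↔ i ∈ V) ∧ (i ∈ V2 ↔ i ∈ V)) →
      bx (ind (V ∪ Dr) x) sX sF sN cX cF cN ∈ CL Dr ∧
      bx (ind (V ∪ Dr) x) sX sF sN cX cF cN ∈ W.legW := by
    intro cX cF cN y V1 V2 hy hyx hV1 hV2 vX vF vN hVV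
    have m := mem_bx nX nF nN hFX hNX hNF hx0 hy hyx hV1 hV2 vX vF vN hVV
    exact ⟨m, h.leg' m (bx_nonneg (vX.nonneg hx0 hy) (vF.nonneg hx0 hy) (vN.nonneg hx0 hy) hx0)
      (bx_le_x (vX.le hx0 hyx) (vF.le hx0 hyx) (vN.le hx0 hyx) hx0) (bx_V nX nF nN h0)⟩
  have o : ∀ i, i ≠ sX → i ≠ sF → i ≠ sN → (i ∈ V ↔ i ∈ V) := fun _ _ _ _ => Iff.rfl
  have oL : ∀ i, i ≠ sX → i ≠ sF → i ≠ sN → (i ∈ insert sF (insert sN V) ↔ i ∈ V) :=
    fun i _ h2 h3 => by simp [h2, h3]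
  have oQ : ∀ i, i ≠ sX → i ≠ sF → i ≠ sN → (i ∈ insert sX (insert sN V) ↔ i ∈ V) :=
    fun i h1 _ h3 => by simp [h1, h3]
  have oA : ∀ i, i ≠ sX → i ≠ sF → i ≠ sN → (i ∈ insert sF (insert sX (insert sN V)) ↔ i ∈ V) :=
    fun i h1 h2 h3 => by simp [h1, h2, h3]
  have hXL : sX ∉ insert sF (insert sN V) := by simp [hFX.symm, hNX.symm, hXV]
  have hFQ : sF ∉ insert sX (insert sN V) := by simp [hFX, hNF.symm, hFV]
  have a0 := m1 (cX := 0) (cF := 0) (cN := 0) (y := 0) le_rfl hx0 u1 u1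
    (Or.inr (Or.inr ⟨hXV, hXV, rfl⟩)) (Or.inr (Or.inr ⟨hFV, hFV, rfl⟩))
    (Or.inr (Or.inr ⟨hqV, hqV, rfl⟩)) (fun i h1 h2 h3 => ⟨o i h1 h2 h3, o i h1 h2 h3⟩)
  have aL := m1 (cX := 0) (cF := x) (cN := x) (y := 0) le_rfl hx0 u2 u2
    (Or.inr (Or.inr ⟨hXL, hXL, rfl⟩)) (Or.inl ⟨by simp, rfl⟩) (Or.inl ⟨by simp, rfl⟩)
    (fun i h1 h2 h3 => ⟨oL i h1 h2 h3, oL i h1 h2 h3⟩)
  have aQ' := m1 (cX := x) (cF := x) (cN := x) (y := 0) le_rfl hx0 u4 u4
    (Or.inl ⟨by simp, rfl⟩) (Or.inl ⟨by simp, rfl⟩) (Or.inl ⟨by simp, rfl⟩)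
    (fun i h1 h2 h3 => ⟨oA i h1 h2 h3, oA i h1 h2 h3⟩)
  have aQ := m1 (cX := x) (cF := 0) (cN := x) (y := 0) le_rfl hx0 u3 u3
    (Or.inl ⟨by simp, rfl⟩) (Or.inr (Or.inr ⟨hFQ, hFQ, rfl⟩)) (Or.inl ⟨by simp, rfl⟩)
    (fun i h1 h2 h3 => ⟨oQ i h1 h2 h3, oQ i h1 h2 h3⟩)
  have ajj := m1 (cX := 0) (cF := j) (cN := j) (y := j) hj hjx u1 u2
    (Or.inr (Or.inr ⟨hXV, hXL, rfl⟩)) (Or.inr (Or.inl ⟨hFV, by simp, rfl⟩))
    (Or.inr (Or.inl ⟨hqV, by simp, rfl⟩)) (fun i h1 h2 h3 => ⟨o i h1 h2 h3, oL i h1 h2 h3⟩)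
  have aQj := m1 (cX := x) (cF := j) (cN := x) (y := j) hj hjx u3 u4
    (Or.inl ⟨by simp, rfl⟩) (Or.inr (Or.inl ⟨hFQ, by simp, rfl⟩)) (Or.inl ⟨by simp, rfl⟩)
    (fun i h1 h2 h3 => ⟨oQ i h1 h2 h3, oA i h1 h2 h3⟩)
  have aR := m1 (cX := x - j) (cF := x) (cN := x) (y := x - j) hxj hxj' u2 u4
    (Or.inr (Or.inl ⟨hXL, by simp, rfl⟩)) (Or.inl ⟨by simp, rfl⟩) (Or.inl ⟨by simp, rfl⟩)
    (fun i h1 h2 h3 => ⟨oL i h1 h2 h3, oA i h1 h2 h3⟩)
  have mi : ∀ {V' : Finset (Fin 18)}, UpW Dr V' → ind V' x ∈ CL Dr := fun hV' => mem_ind hV' hx0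
  -- equality with the boxes of `Pin`
  have e0 : lam (bx (ind (V ∪ Dr) x) sX sF sN 0 0 0) = lam (ind V x) := by
    refine hi _ a0.1 _ (mi u1) fun i hi => ?_
    by_cases h1 : i = sX
    · subst h1; rw [bx_X, ind_notMem hXV]
    by_cases h2 : i = sF
    · subst h2; rw [bx_F hFX, ind_notMem hFV]
    by_cases h3 : i = sN
    · subst h3; rw [bx_N hNX hNF, ind_notMem hqV]
    by_cases hV : i ∈ V
    · rw [bx_V nX nF nN hV, ind_mem hV]
    · rw [bx_out h1 h2 h3 hV hi, ind_notMem hV]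
  have eL : lam (bx (ind (V ∪ Dr) x) sX sF sN 0 x x) = lam (ind (insert sF (insert sN V)) x) := by
    refine hi _ aL.1 _ (mi u2) fun i hi => ?_
    by_cases h1 : i = sX
    · subst h1; rw [bx_X, ind_notMem hXL]
    by_cases h2 : i = sF
    · subst h2; rw [bx_F hFX, ind_mem (by simp)]
    by_cases h3 : i = sN
    · subst h3; rw [bx_N hNX hNF, ind_mem (by simp)]
    by_cases hV : i ∈ V
    · rw [bx_V nX nF nN hV, ind_mem (by simp [hV])]
    · rw [bx_out h1 h2 h3 hV hi, ind_notMem (by simp [h2, h3, hV])]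
  have eQ' : lam (bx (ind (V ∪ Dr) x) sX sF sN x x x) =
      lam (ind (insert sX (insert sF (insert sN V))) x) := by
    have u5 : UpW Dr (insert sX (insert sF (insert sN V))) := by
      rw [Finset.insert_comm]; exact u4
    refine hi _ aQ'.1 _ (mi u5) fun i hi => ?_
    by_cases h1 : i = sX
    · subst h1; rw [bx_X, ind_mem (by simp)]
    by_cases h2 : i = sF
    · subst h2; rw [bx_F hFX, ind_mem (by simp)]
    by_cases h3 : i = sN
    · subst h3; rw [bx_N hNX hNF, ind_mem (by simp)]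
    by_cases hV : i ∈ V
    · rw [bx_V nX nF nN hV, ind_mem (by simp [hV])]
    · rw [bx_out h1 h2 h3 hV hi, ind_notMem (by simp [h1, h2, h3, hV])]
  have eQ : lam (bx (ind (V ∪ Dr) x) sX sF sN x 0 x) = lam (ind (insert sX (insert sN V)) x) := by
    refine hi _ aQ.1 _ (mi u3) fun i hi => ?_
    by_cases h1 : i = sX
    · subst h1; rw [bx_X, ind_mem (by simp)]
    by_cases h2 : i = sF
    · subst h2; rw [bx_F hFX, ind_notMem hFQ]
    by_cases h3 : i = sN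
    · subst h3; rw [bx_N hNX hNF, ind_mem (by simp)]
    by_cases hV : i ∈ V
    · rw [bx_V nX nF nN hV, ind_mem (by simp [hV])]
    · rw [bx_out h1 h2 h3 hV hi, ind_notMem (by simp [h1, h3, hV])]
  have eQj : lam (bx (ind (V ∪ Dr) x) sX sF sN x j x) =
      lam (Function.update (ind (insert sX (insert sN V)) x) sF j) := by
    refine hi _ aQj.1 _ (mem_upd u3 u4 hFQ hj hjx) fun i hi => ?_
    by_cases h1 : i = sX
    · subst h1; rw [bx_X, Function.update_of_ne hFX.symm, ind_mem (by simp)]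
    by_cases h2 : i = sF
    · subst h2; rw [bx_F hFX, Function.update_self]
    by_cases h3 : i = sN
    · subst h3; rw [bx_N hNX hNF, Function.update_of_ne hNF, ind_mem (by simp)]
    by_cases hV : i ∈ V
    · rw [bx_V nX nF nN hV, Function.update_of_ne h2, ind_mem (by simp [hV])]
    · rw [bx_out h1 h2 h3 hV hi, Function.update_of_ne h2, ind_notMem (by simp [h1, h3, hV])]
  have hz : ∀ cX cF cN : ℝ, bx (ind (V ∪ Dr) x) sX sF sN cX cF cN 0 = x := fun _ _ _ =>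
    bx_V nX nF nN h0
  have hd' : LeafDat W.S (V ∪ Dr) X Ff q n e := by rw [h.S]; exact hd
  have key := leafW_loss h.ww h.ev h.mod (b := ind (V ∪ Dr) x) hd' hj hjx
    (fun s _ => (h.top s).ge) (fun s hs _ => by rw [ind_mem hs])
    (cLf_ok h.ww hd' hn (fun _ => h.kap) (Eventually.of_forall fun m => by
      have := h.tight sN hq [sX, sF] hd.wall (fun s hs => by
        rcases List.mem_cons.1 hs with h1 | h1
        · rw [h1]; exact hXD
        · rw [List.mem_singleton.1 h1]; exact hF) m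
      rw [this, List.map_cons, List.map_cons, List.map_nil, List.sum_cons, List.sum_cons,
        List.sum_nil, add_zero]))
    ⟨a0.2, aL.2, aQ'.2, aQ.2, ajj.2, aQj.2, aR.2⟩
    (by rw [h.nu' (hz _ _ _), h.nu' (hz _ _ _), eL, eQ']; linarith)
    (by
      rw [h.nu' (hz _ _ _), h.nu' (hz _ _ _)]
      have h5 := hsh _ aR.1 _ aQ'.1 (bx_le hxj' le_rfl le_rfl)
      have h6 : ∑ i, (bx (ind (V ∪ Dr) x) sX sF sN x x x i -
          bx (ind (V ∪ Dr) x) sX sF sN (x - j) x x i) = j := by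
        rw [Finset.sum_eq_single sX]
        · rw [bx_X, bx_X]; ring
        · intro i _ h1
          unfold bx
          rw [if_neg h1, if_neg h1]
          split_ifs <;> ring
        · intro h; exact absurd (mem_univ _) h
      rw [h6] at h5
      linarith)
    (by rw [h.nu' (hz _ _ _), h.nu' (hz _ _ _), eQ, eQj]; linarith)
  rw [h.nu' (hz _ _ _), h.nu' (hz _ _ _), e0, eQ] at key
  linarith

end use

/-! ### the literal -/

/-- **the leaf links**: the literal of the field `leaf` of 851's `Pin` -/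
def LfZ (Dr : Finset (Fin 18)) (lam : (Fin 18 → ℝ) → ℝ) : Prop :=
  ∀ (V : Finset (Fin 18)) (X : Fin 4) (F q : Fin 14) (n : ℤ) (e : ℕ), n ≠ 0 →
    Disjoint V Dr → Fin.natAdd 4 F ∉ Dr → Fin.natAdd 4 q ∉ Dr →
    LeafDat {0} (V ∪ Dr) X F q n e →
    UpW Dr V → UpW Dr (insert (Fin.natAdd 4 F) (insert (Fin.natAdd 4 q) V)) →
    UpW Dr (insert (Fin.castAdd 14 X) (insert (Fin.natAdd 4 q) V)) →
    UpW Dr (insert (Fin.natAdd 4 F) (insert (Fin.castAdd 14 X) (insert (Fin.natAdd 4 q) V))) →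
    ∀ j x : ℝ, 0 ≤ j → j ≤ x →
    x ≤ lam (ind (insert (Fin.natAdd 4 F) (insert (Fin.natAdd 4 q) V)) x) -
      lam (ind (insert (Fin.castAdd 14 X)
        (insert (Fin.natAdd 4 F) (insert (Fin.natAdd 4 q) V))) x) →
    lam (Function.update (ind (insert (Fin.castAdd 14 X) (insert (Fin.natAdd 4 q) V)) x)
      (Fin.natAdd 4 F) j) < lam (ind (insert (Fin.castAdd 14 X) (insert (Fin.natAdd 4 q) V)) x) →
    2 * x - j ≤ lam (ind V x) - lam (ind (insert (Fin.castAdd 14 X) (insert (Fin.natAdd 4 q) V)) x)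

/-- at every point of a plane `AeW` with chart -/
theorem lfZ_of {B Bo : Base} {I J : ∀ n, Finset (ι n)} {co : ∀ n, ι n → ι n → Fin 18 → ℝ}
    {kp : ℕ → ℝ} {un : ℕ → Fin 18 → ℝ} {F : ∀ n, ι n → FW} {Dr : Finset (Fin 18)} {C : ℝ}
    {lam : (Fin 18 → ℝ) → ℝ} {a b : Fin 18 → ℝ} {A : ℝ × ℝ} {φ : ℕ → (Fin 18 → ℝ) → ℝ} {r : ℕ → ℝ}
    {σ : ℝ} {κ : Fin 18 → ℝ} {V Tw : Fin 18 → Prop}
    (h : AeW B Bo I J co monW (mA monW (actW (Dr : Set (Fin 18)))) C lam a b A φ r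
    0 σ κ V Tw) (hc : Cht I co kp un F) (hk0 : Bo.Sub (fun n => |kp n|⁻¹))
    (hJ : ∀ᶠ n in (U : Filter ℕ), (J n).Nonempty) (hi : Ind Dr lam) (hD0 : 0 ∉ Dr) :
    LfZ Dr lam := by
  have hsh : ∀ c ∈ CL Dr, ∀ c' ∈ CL Dr, c ≤ c' → lam c - lam c' ≤ ∑ i, (c' i - c i) :=
    fun c hc c' hc' hcc => h.sharp c (by rw [cone_eq]; exact hc) c' (by rw [cone_eq]; exact hc') hcc
  have z0 : ∀ (U : Finset (Fin 18)), ind U (0:ℝ) = 0 := fun U => by funext k; simp [ind]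
  intro V' X F' p n e hn hD hF hp hd u1 u2 u3 u4 j x hj hjx hX hv
  rcases hj.trans hjx |>.lt_or_eq with hx | hx
  · obtain ⟨W, E, hW⟩ := exists_pz h hc hk0 hJ hx
    exact hW.leaf hi hsh hx hn hD0 hD hF hp hd u1 u2 u3 u4 hj hjx hX hv
  · exfalso
    have hj0 : j = 0 := le_antisymm (by rw [hx]; exact hjx) hj
    rw [← hx, hj0, z0, show (0:ℝ) = (0 : Fin 18 → ℝ) (Fin.natAdd 4 F') from rfl,
      Function.update_eq_self] at hv
    exact lt_irrefl _ hv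

/-- **the leaf links at every point of every rung** -/
theorem ptC_leafZ {B Bo : Base} {I J : ℕ → Finset (ℕ × ℝ)}
    {co : ∀ n : ℕ, ℕ × ℝ → ℕ × ℝ → Fin 18 → ℝ}
    {C : ℝ} {κ : ℕ → ℝ} {u : ℕ → Fin 18 → ℝ} {f : ℕ → ℕ × ℝ → FW} {K : ℝ}
    {θ : Fin 3 → ℝ} {q : Fin 3 → ℝ} {V T : Set (Fin 18)} {s : ℝ}
    {lam lo : (Fin 18 → ℝ) → ℝ} {A : ℝ × ℝ} {φ : ℕ → (Fin 18 → ℝ) → ℝ} {r : ℕ → ℝ}
    {Dr : Finset (Fin 18)}
    (h : PtC B Bo I J co C κ u f K θ q V T s lam lo A φ r) (hDr : DrW s = ↑Dr) : LfZ Dr lam := by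
  have ha := h.aew
  have hind := h.ind
  rw [hDr] at ha hind
  exact lfZ_of (J := J) ha ⟨h.kp1, h.gru, fun n i _ j _ k => h.co_eq n i j k⟩ h.kp0 h.ne
    (fun c hc c' hc' hcc => hind c hc c' hc' fun i hi => hcc i fun h' => hi (Finset.mem_coe.2 h'))
    (frame_notMem hDr (by decide))

end Crest.Agent.R136.Lfz648
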