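import Crest.Agent.R136.KHt1_938
import Crest.Agent.R136.ChW_400
import Crest.Agent.R136.Lfz_648

/-!
# R136 (helper938): K-rungs of the thin ladder (row `deadhi2`), part 2: the chains at one point

* `pinD_of` : 400's `PinD` at every point of every rung
* `xf_of` : `A` full given `z`, `B` full given `z, A`
* `chain14`, `chain15`, `chain12`, `chain9`, `chain6` : a seen slot ⊢ `3 + s ≤ -A.1`
-/

set_option autoImplicit false
set_option linter.unusedSectionVars false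
set_option linter.unusedVariables false

open Filter Topology

namespace Crest.Agent.R136.KHt938

open Finset Crest.Agent.R136.NetW191 Crest.Agent.R136.Net191 Crest.Agent.R136.Qg926
open Crest.Agent.R136.EvW938 Crest.Agent.R136.RowW619 Crest.Agent.R136.Lf400
open Crest.Agent.R136.LfW619 Crest.Agent.R136.Ht887 Crest.Agent.R136.BaseW619
open Crest.Agent.R136.Bas938
open Crest.Agent.R136.LadW697 Crest.Agent.R136.NatW697 Crest.Agent.R136.PrW464
open Crest.Agent.R136.Dg219 Crest.Agent.R136.RowI938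
open Crest.Agent.R136.AwJ774
open Crest.Agent.R136.ThB830 (PtC)
open Crest.Agent.R136.P0830 (ptB_of basG_of)
open Crest.Agent.R136.Aw413
open Crest.Agent.R138.Ex926 (Base U)
open Crest.Agent.R136.Pin851 (CL Vis Full XF Up2 Same Ind le_upd mem_ind mem_upd frame_notMem
  TW_mem row_end ind_insert)
open Crest.Agent.R136.Ch400 (PinD LfQ HtQ EndP OkP OkH OkV NC regs regs' ch3 ch2A ch2z ch4B
  stepH' tauW par_of_G)
open Crest.Agent.R136.Lfz648 (LfZ ptC_leafZ)

variable {B Bo : Base} {I J : ℕ → Finset (ℕ × ℝ)} {co : ∀ n : ℕ, ℕ × ℝ → ℕ × ℝ → Fin 18 → ℝ}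
  {C : ℝ} {κ : ℕ → ℝ} {u : ℕ → Fin 18 → ℝ} {f : ℕ → ℕ × ℝ → FW} {K : ℝ}
  {θ : Fin 3 → ℝ} {q : Fin 3 → ℝ} {V T : Set (Fin 18)} {s : ℝ}
  {lam lo : (Fin 18 → ℝ) → ℝ} {A : ℝ × ℝ} {φ : ℕ → (Fin 18 → ℝ) → ℝ} {r : ℕ → ℝ}
  {Dr : Finset (Fin 18)}

theorem upW_mono {V : Finset (Fin 18)} (h : UpW ∅ V) : UpW Dr V :=
  fun k hk l hl _ => h k hk l hl (by simp)

/-- **`PinD` at every point of every rung** -/
theorem pinD_of (h : PtC B Bo I J co C κ u f K θ q V T s lam lo A φ r) (hDr : DrW s = ↑Dr) :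
    PinD Dr (TW s) (gC (TW s) (btW θ)) lam := by
  have ha := h.aew
  have hout := h.out
  rw [hDr] at ha hout
  refine
    { anti := fun c hc c' hc' hcc =>
        ha.anti c (by rw [Pin851.cone_eq]; exact hc) c' (by rw [Pin851.cone_eq]; exact hc') hcc
      sharp := fun c hc c' hc' hcc =>
        ha.sharp c (by rw [Pin851.cone_eq]; exact hc) c' (by rw [Pin851.cone_eq]; exact hc') hcc
      T0 := Bas938.TW_nonneg h.s0.le
      T1 := ⟨TW_z s, TW_A s, TW_B s⟩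
      nT := TW_mem h.s0 hDr
      dec := fun i y c c' hc hc1 hc' hc1' hG => ?_
      addT := fun v hv c hc => ?_
      zw := fun x y hx hxy => ?_ }
  · refine loss_slot hout.toOutS i hc hc1 hc' hc1' (fun j hj => (Function.update_of_ne hj _ _).symm)
      (fun j hj => (Function.update_of_ne hj _ _).symm) hG ?_
    rw [Function.update_self, Function.update_self]
  · have e : v • TW s = Tn (TW s) (btW θ) (v, 0) := by
      funext i; simp only [Tn, Pi.smul_apply, smul_eq_mul]; ring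
    have m1 : v • TW s ∈ CL Dr := K2S774.cn_smul (TW_mem h.s0 hDr) hv
    have m2 : v • TW s + c ∈ CL Dr := K2S774.cn_add m1 hc
    rw [hout.sum _ m2, hout.sum _ m1, hout.sum _ hc, ← sum_add_distrib]
    refine sum_congr rfl fun k _ => ?_
    by_cases hk : k = 0
    · subst hk
      have a1 : φ 0 (v • TW s) = 0 := hout.zero 0 _ fun i hi => by
        rw [Pi.smul_apply, gC_zero.1 hi, smul_zero]
      have a2 : φ 0 (v • TW s + c) = φ 0 c := hout.loc 0 _ _ fun i hi => by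
        rw [Pi.add_apply, Pi.smul_apply, gC_zero.1 hi, smul_zero, zero_add]
      rw [a1, a2, zero_add]
    · rw [e]
      refine hout.add k (fun i hi => ?_) (v, 0) c hc
      have hT : TW s i ≠ 0 := fun hT => hk (by rw [← hi]; exact gC_zero.2 hT)
      rw [dhC, if_neg hT]
      exact lt_of_le_of_ne (Bas938.TW_nonneg h.s0.le i) hT.symm
  · have m1 : ind ({0, 2, 3} : Finset (Fin 18)) x ∈ CL Dr := mem_ind (upW_mono (by decide)) hx
    have e0 : ind ({0, 2, 3} : Finset (Fin 18)) x 0 = x := ind_mem (by decide)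
    have hle := le_upd (c := ind ({0, 2, 3} : Finset (Fin 18)) x) (f := 0) (y := y)
      (by rw [e0]; exact hxy)
    have hm : Function.update (ind ({0, 2, 3} : Finset (Fin 18)) x) 0 y ∈ CL Dr := by
      refine mem_cn_of_head m1 hle fun w _ => ?_
      rw [Function.update_of_ne (no_wall_c w).1]
    have h1 := ha.own _ (by rw [Pin851.cone_eq]; exact m1) _ (by rw [Pin851.cone_eq]; exact hm) hle
      fun k hk => by
        obtain ⟨hk4, hk1, hk2⟩ := h.vis k hk.1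
        have hkn : k ∉ ({0, 2, 3} : Finset (Fin 18)) := by
          have : ∀ k : Fin 18, 4 ≤ k → k ∉ ({0, 2, 3} : Finset (Fin 18)) := by decide
          exact this k hk4
        rw [ind_notMem hkn, e0]
        have hb : 0 ≤ btW θ k := by
          have h3 : btW θ k = KW θ k - alW k := by
            simp only [KW, alW, if_pos hk4]; push_cast; ring
          rw [h3]; linarith
        exact mul_nonneg hb hx
    rw [Function.update_self, e0, one_mul] at h1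
    exact h1

/-- **`A` full given `z`, `B` full given `z, A`** -/
theorem xf_of (h : PtC B Bo I J co C κ u f K θ q V T s lam lo A φ r) (hDr : DrW s = ↑Dr) :
    XF lam {0} 2 ∧ XF lam {0, 2} 3 := by
  have H := pinD_of h hDr
  have ha := h.aew
  have z0 : ∀ (U : Finset (Fin 18)), ind U (0:ℝ) = 0 := fun U => by funext k; simp [ind]
  have e1 : ∀ x : ℝ, v4 x 0 0 0 = ind ({0} : Finset (Fin 18)) x := fun x => by
    funext k; fin_cases k <;> simp [v4, ind]
  have e2 : ∀ x : ℝ, v4 x 0 x 0 = ind (insert 2 ({0} : Finset (Fin 18))) x := fun x => by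
    funext k; fin_cases k <;> simp [v4, ind]
  have e3 : ∀ x : ℝ, v4 x 0 x x = ind (insert 3 ({0, 2} : Finset (Fin 18))) x := fun x => by
    funext k; fin_cases k <;> simp [v4, ind]
  constructor
  · intro x hx
    rcases hx.eq_or_lt with h0 | h0
    · rw [← h0, z0, z0]; linarith
    · have := (base_ptC h h.ne h.q1 h.q2 h0).2
      rw [e1, e2] at this
      exact this
  · intro x hx
    rcases hx.eq_or_lt with h0 | h0
    · rw [← h0, z0, z0]; linarith
    · have h1 := (base_ptC h h.ne h.q1 h.q2 h0).1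
      rw [e3] at h1
      have h2 := H.sharp 0 K2S774.cn_zero (ind ({0, 2} : Finset (Fin 18)) x)
        (mem_ind (upW_mono (by decide)) hx) (fun i => ind_nonneg hx i)
      rw [ha.zero] at h2
      have h3 : ∑ i, (ind ({0, 2} : Finset (Fin 18)) x i - (0 : Fin 18 → ℝ) i) = 2 * x := by
        simp only [Pi.zero_apply, sub_zero, ind]
        rw [Finset.sum_ite_mem, Finset.univ_inter]
        rw [Finset.sum_const, nsmul_eq_mul]
        have : (({0, 2} : Finset (Fin 18)).card : ℝ) = 2 := by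
          have : ({0, 2} : Finset (Fin 18)).card = 2 := by decide
          exact_mod_cast this
        rw [this]
      rw [h3] at h2
      linarith

/-- leaf links from 648's `LfZ` -/
theorem lfQ_z (hZ : LfZ Dr lam) {U : Finset (Fin 18)} {X : Fin 4} {F p : Fin 14} (n : ℤ) (e : ℕ)
    (ok : OkP Dr U X F p n e) : LfQ lam U X F p := by
  obtain ⟨h1, h2, h3, h4, h5, h6, h7, h8, h9⟩ := ok
  exact hZ U X F p n e h1 h2 h3 h4 h5 h6 h7 h8 h9

/-- the three sets of dropped slots -/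
theorem dr3 (hD : (Dr : Set (Fin 18)) = DrW s) (h2 : 2 < s) (h3 : s ≠ 3) :
    Dr = {4, 5, 6, 8} ∨ Dr = {4} ∨ Dr = ∅ := by
  rcases regs hD h2 h3 with ⟨h, -⟩ | ⟨h, -⟩ | ⟨h, -, -⟩ | ⟨h, -⟩
  exacts [Or.inl h, Or.inr (Or.inl h), Or.inr (Or.inr h), Or.inr (Or.inr h)]

theorem lf1 (hD : (Dr : Set (Fin 18)) = DrW s) (h2 : 2 < s) (h3 : s ≠ 3) (hZ : LfZ Dr lam) :
    LfQ lam {0, 2, 7} 3 10 13 := by
  rcases dr3 hD h2 h3 with rfl | rfl | rfl <;> exact lfQ_z hZ 1 0 (by decide +kernel)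

theorem lf2 (hD : (Dr : Set (Fin 18)) = DrW s) (h2 : 2 < s) (h3 : s ≠ 3) (hZ : LfZ Dr lam) :
    LfQ lam ({0, 1, 3, 4, 5, 6, 10} \ Dr) 2 11 13 := by
  rcases dr3 hD h2 h3 with rfl | rfl | rfl <;> exact lfQ_z hZ 1 0 (by decide +kernel)

theorem lf3 (hD : (Dr : Set (Fin 18)) = DrW s) (h2 : 2 < s) (h3 : s < 3) (hZ : LfZ Dr lam) :
    LfQ lam {0, 1, 11} 2 8 12 := by
  rcases regs hD h2 h3.ne with ⟨rfl, -⟩ | ⟨-, hr⟩ | ⟨-, h4, -⟩ | ⟨-, hr⟩
  · exact lfQ_z hZ 1 0 (by decide +kernel)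
  · obtain ⟨α, β, hα, hβ, e1, e2⟩ := hr
    push_cast at e1 e2
    linarith
  · linarith
  · obtain ⟨α, β, hα, hβ, e1, e2⟩ := hr
    push_cast at e1 e2
    linarith

theorem lf4 (hD : (Dr : Set (Fin 18)) = DrW s) (h3 : 3 < s) (hZ : LfZ Dr lam) :
    LfQ lam {0, 1, 3, 8} 2 8 12 := by
  rcases regs hD (by linarith) h3.ne' with ⟨-, hr⟩ | ⟨rfl, hr⟩ | ⟨rfl, h4, -⟩ | ⟨rfl, hr⟩
  · obtain ⟨α, β, hα, hβ, e1, e2⟩ := hr
    push_cast at e1 e2
    linarith
  all_goals exact lfQ_z hZ 1 0 (by decide +kernel)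

theorem lf5 (hD : (Dr : Set (Fin 18)) = DrW s) (h2 : 2 < s) (h3 : s ≠ 3) (hZ : LfZ Dr lam) :
    LfQ lam ({0, 5, 7} \ Dr) 2 5 10 := by
  rcases dr3 hD h2 h3 with rfl | rfl | rfl <;> exact lfQ_z hZ 1 0 (by decide +kernel)

/-! ### height links -/

/-- the group of `z` on a K-rung -/
theorem zgrp {w : ℤ} (hs : s = 1 - θ 0 + w * θ 1) (h1 : 0 < θ 1) (h0 : 0 ∉ DrW s) {j : Fin 18}
    (hj : j ∉ DrW s) (he : gC (TW s) (btW θ) 0 = gC (TW s) (btW θ) j) : tauW w j = 0 := by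
  have h2 := par_of_G hs h1 h0 hj he
  have e0 : tauW w 0 = 0 := by simp [tauW, wc, wn]
  rw [TW_z, e0, one_mul] at h2
  have h3 : (tauW w j : ℝ) = 0 := by rw [h2]; push_cast; ring
  exact_mod_cast h3

/-- visible slots of a K-rung -/
theorem vis_tau {w : ℤ} (hs : s = 1 - θ 0 + w * θ 1) (h1 : 0 < θ 1) {k : Fin 18} (hk : 4 ≤ k)
    (hK : KW θ k = s) : tauW w k = 0 := by
  rw [KW_flag θ hk, hs] at hK
  have e : wn k = 1 := by
    have : ∀ k : Fin 18, 4 ≤ k → wn k = 1 := by decide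
    exact this k hk
  have h2 : ((wc k : ℝ) + w) * θ 1 = 0 := by linarith
  have h3 : (wc k : ℝ) + w = 0 := (mul_eq_zero.1 h2).resolve_right h1.ne'
  unfold tauW
  rw [e, mul_one]
  exact_mod_cast h3

/-- **a height link on a K-rung** -/
theorem htQ_K (h : PtC B Bo I J co C κ u f K θ q V T s lam lo A φ r)
    {w : ℤ} (hs : s = 1 - θ 0 + w * θ 1) {U O P N : Finset (Fin 18)} {F p : Fin 14} {m : ℤ} {e : ℕ}
    (hd : HtDat U O P F p m e) (hm : m ≠ 0) (hV : U ⊆ N) (hO : O ⊆ N) (h0O : (0 : Fin 18) ∉ O)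
    (hF : Fin.natAdd 4 F ∈ N) (hq : Fin.natAdd 4 p ∈ N)
    (hP : ∀ q' : Fin 14, Fin.natAdd 4 q' ∈ U → Fin.natAdd 4 q' ∈ P)
    (hN : WDat (fun _ => 0) (nI N) 1 {0}) (u1 : UpW ∅ U)
    (u2 : UpW ∅ (insert (Fin.natAdd 4 p) U))
    (u3 : UpW ∅ (insert (Fin.natAdd 4 F) (insert (Fin.natAdd 4 p) U)))
    (hDF : Fin.natAdd 4 F ∉ DrW s) (hDq : Fin.natAdd 4 p ∉ DrW s)
    (hN0 : ∀ j ∈ N, j ≠ 0 → tauW w j ≠ 0) :
    HtQ lam U (Fin.natAdd 4 F) (Fin.natAdd 4 p) := by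
  intro j x hj hjx hv
  have hD0 : (0 : Fin 18) ∉ DrW s := fun h => absurd h.1 (by decide)
  rcases (hj.trans hjx).eq_or_lt with h0 | hx
  · exfalso
    have hj0 : j = 0 := le_antisymm (by rw [h0]; exact hjx) hj
    subst h0; subst hj0
    have z0 : ∀ (U : Finset (Fin 18)), ind U (0:ℝ) = 0 := fun U => by funext k; simp [ind]
    rw [z0] at hv
    have e' : Function.update (0 : Fin 18 → ℝ) (Fin.natAdd 4 F) 0 = 0 :=
      Function.update_eq_self_iff.2 rfl
    rw [e'] at hv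
    exact lt_irrefl _ hv
  · refine PtB.htZ (ptB_of h) hd hm hV hO h0O hF hq hP hN u1 u2 u3 hD0 hDF hDq (fun i hi => ?_)
      (fun k hk hkN => ?_) hx hj hjx hv
    · by_cases hiD : i ∈ DrW s
      · exact Or.inr (Or.inr hiD)
      by_cases hi0 : i = 0
      · exact Or.inl hi0
      · exact Or.inr (Or.inl fun hiN => hN0 i hiN hi0 (zgrp hs h.th1 hD0 hiD hi))
    · have h4 := (h.vis k hk.1).1
      refine hN0 k hkN ?_ (vis_tau hs h.th1 h4 hk.2)
      rintro rfl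
      exact absurd h4 (by decide)

/-- `P → N`, `w = 2` -/
theorem htPN (h : PtC B Bo I J co C κ u f K θ q V T s lam lo A φ r) (h2 : 2 < s)
    (hs : s = 1 - θ 0 + (2 : ℤ) * θ 1) : HtQ lam {0, 1, 2, 3, 13} 16 17 :=
  htQ_K h hs (F := 12) (p := 13) (N := {0, 1, 2, 3, 13, 16, 17}) ht_P_N_coarse one_ne_zero
    (by decide) (by decide) (by decide) (by decide) (by decide) (by decide) (by decide)
    (by decide) (by decide) (by decide) (not_Dr h2 (by decide)) (not_Dr h2 (by decide))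
    (by decide)

/-- `AY → AB`, `w = 4`, `3 < s` -/
theorem htYB (h : PtC B Bo I J co C κ u f K θ q V T s lam lo A φ r) (h3 : 3 < s)
    (hs : s = 1 - θ 0 + (4 : ℤ) * θ 1) : HtQ lam {0, 1, 2} 6 9 :=
  htQ_K h hs (F := 2) (p := 5) (N := {0, 1, 2, 3, 6, 9}) (O := {1, 2, 3, 9}) (P := ∅) (m := 1)
    (e := 0) (by decide) one_ne_zero
    (by decide) (by decide) (by decide) (by decide) (by decide) (by decide) (by decide)
    (by decide) (by decide) (by decide) (fun hm => by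
      have h4 := hm.2
      have h5 : alW (Fin.natAdd 4 (2 : Fin 14)) = 3 := by decide
      rw [h5] at h4
      push_cast at h4
      linarith) (not_Dr (by linarith) (by decide))
    (by decide)

/-! ### the chains at one point -/

section chains

variable (h : PtC B Bo I J co C κ u f K θ q V T s lam lo A φ r) (hDr : DrW s = ↑Dr)
  (h2 : 2 < s) (h3 : s ≠ 3)
include h hDr h2 h3

/-- `w = 3`, `w_B` seen -/
theorem chain14 (hs : s = 1 - θ 0 + (3 : ℤ) * θ 1) (hv : Vis lam ({0, 4, 5, 6, 7, 9} \ Dr) 14) :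
    3 + s ≤ -A.1 :=
  row_end h hDr (ch3 h.th1 hDr.symm h2 h3 (pinD_of h hDr) (xf_of h hDr).1 (xf_of h hDr).2 hs
    (lf1 hDr.symm h2 h3 (ptC_leafZ h hDr)) hv)

/-- `w = 2`, `w_A` seen -/
theorem chain15 (hs : s = 1 - θ 0 + (2 : ℤ) * θ 1)
    (hv : Vis lam ({0, 4, 5, 6, 7, 8, 9, 10, 11, 14} \ Dr) 15) : 3 + s ≤ -A.1 :=
  row_end h hDr (ch2A h.th1 hDr.symm h2 h3 (pinD_of h hDr) (xf_of h hDr).1 (xf_of h hDr).2 hs
    (lf2 hDr.symm h2 h3 (ptC_leafZ h hDr)) hv)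

/-- `w = 2`, `zA` seen -/
theorem chain12 (hs : s = 1 - θ 0 + (2 : ℤ) * θ 1)
    (hv : Vis lam ({0, 4, 5, 6, 7, 8, 9, 10, 11, 14} \ Dr) 12) : 3 + s ≤ -A.1 :=
  row_end h hDr (ch2z h.th1 hDr.symm h2 h3 (pinD_of h hDr) (xf_of h hDr).1 (xf_of h hDr).2 hs
    (fun h4 => lf3 hDr.symm h2 h4 (ptC_leafZ h hDr)) (fun h4 => lf4 hDr.symm h4 (ptC_leafZ h hDr))
    (htPN h h2 hs) hv)

/-- `w = 4`, `AB` seen -/
theorem chain9 (hs : s = 1 - θ 0 + (4 : ℤ) * θ 1) (h4 : s ≠ 4)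
    (hv : Vis lam ({0, 4, 5, 7} \ Dr) 9) : 3 + s ≤ -A.1 :=
  row_end h hDr (ch4B h.th1 hDr.symm h2 h3 (pinD_of h hDr) (xf_of h hDr).1 (xf_of h hDr).2 hs h4
    (lf5 hDr.symm h2 h3 (ptC_leafZ h hDr)) (lf1 hDr.symm h2 h3 (ptC_leafZ h hDr)) hv)

/-- `w = 4`, `3 < s`, `AY` seen -/
theorem chain6 (hs : s = 1 - θ 0 + (4 : ℤ) * θ 1) (h4 : s ≠ 4) (h3' : 3 < s)
    (hv : Vis lam ({0, 4, 5, 7} \ Dr) 6) : 3 + s ≤ -A.1 := by
  refine chain9 h hDr h2 h3 hs h4 ?_
  have H := pinD_of h hDr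
  have hYB := htYB h h3' hs
  have h1 := h.th1
  have hD := hDr.symm
  rcases regs hD h2 h3 with ⟨rfl, hr⟩ | ⟨rfl, hr⟩ | ⟨rfl, h5, hr⟩ | ⟨rfl, hr⟩
  · obtain ⟨α, β, hα, hβ, e1, e2⟩ := hr
    push_cast at e1 e2
    linarith
  · have hN := fun i j h => NC.ne (i := i) (j := j) hs h1 hD hr h
    have v9 := stepH' H hN hYB (by decide +kernel) hv
    have ok : OkV (NC {4} (1, 3) (1, 4) 4) {4} {0, 1, 2} ({0, 4, 5, 7} \ {4}) 9 := by
      decide +kernel
    exact H.tr_vis v9 ok.1 ok.2.1 (ok.2.2.same hN)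
  · exact absurd h5 h4
  · have hN := fun i j h => NC.ne (i := i) (j := j) hs h1 hD hr h
    have v9 := stepH' H hN hYB (by decide +kernel) hv
    have ok : OkV (NC ∅ (1, 4) (0, 1) 4) ∅ {0, 1, 2} ({0, 4, 5, 7} \ ∅) 9 := by
      decide +kernel
    exact H.tr_vis v9 ok.1 ok.2.1 (ok.2.2.same hN)

end chains

end Crest.Agent.R136.KHt938
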