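import Mathlib

/-!
# Katz-Rogers bound for quadric sheets in R^4, part 1: pairs of lines

Lines `(x, b)` (position at time 0, velocity) of a sheet `{|q| ≤ a}`, `q` a quadratic
polynomial with `1/2 ≤ ∂_0 q ≤ 2`.  All information used is `LD` (position, velocity,
gradient of `q` at the position, gradient of the top part at the velocity) and the four
pair relations `Rel`.
-/

namespace Crest.Agent.R136.KR879

structure LD where
  x0 : ℝ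
  x1 : ℝ
  x2 : ℝ
  b0 : ℝ
  b1 : ℝ
  b2 : ℝ
  n0 : ℝ
  n1 : ℝ
  n2 : ℝ
  R0 : ℝ
  R1 : ℝ
  R2 : ℝ

/-- the four relations between two lines of the same sheet -/
structure Rel (e : ℝ) (p p' : LD) : Prop where
  A : |(p.n0 + p'.n0) * (p'.x0 - p.x0) + (p.n1 + p'.n1) * (p'.x1 - p.x1)
        + (p.n2 + p'.n2) * (p'.x2 - p.x2)| ≤ e
  B : |(p'.n0 * (p'.b0 - p.b0) + p'.n1 * (p'.b1 - p.b1) + p'.n2 * (p'.b2 - p.b2))
        + (p.R0 * (p'.x0 - p.x0) + p.R1 * (p'.x1 - p.x1) + p.R2 * (p'.x2 - p.x2))| ≤ e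
  C : |(p.n0 * (p'.b0 - p.b0) + p.n1 * (p'.b1 - p.b1) + p.n2 * (p'.b2 - p.b2))
        + (p'.R0 * (p'.x0 - p.x0) + p'.R1 * (p'.x1 - p.x1) + p'.R2 * (p'.x2 - p.x2))| ≤ e
  D : |(p.R0 + p'.R0) * (p'.b0 - p.b0) + (p.R1 + p'.R1) * (p'.b1 - p.b1)
        + (p.R2 + p'.R2) * (p'.b2 - p.b2)| ≤ e

/-- one line -/
structure Ok (a δ w1 w2 : ℝ) (p : LD) : Prop where
  hx1 : |p.x1| ≤ w1
  hx2 : |p.x2| ≤ w2
  hb1 : |p.b1| ≤ 2 * w1
  hb2 : |p.b2| ≤ 2 * w2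
  hn0 : 1 / 2 ≤ p.n0
  hR0 : |p.R0| ≤ 3 / 2
  hn1 : |p.n1| * δ ≤ a
  hn2 : |p.n2| * δ ≤ a
  hR1 : |p.R1| * δ ≤ 2 * a
  hR2 : |p.R2| * δ ≤ 2 * a

noncomputable def LD.kap (p : LD) : ℝ := p.R0 / p.n0
noncomputable def LD.rho1 (p : LD) : ℝ := p.R1 - p.kap * p.n1
noncomputable def LD.rho2 (p : LD) : ℝ := p.R2 - p.kap * p.n2

lemma kap_mul {a δ w1 w2 : ℝ} {p : LD} (h : Ok a δ w1 w2 p) : p.kap * p.n0 = p.R0 := by
  have : p.n0 ≠ 0 := by have := h.hn0; linarith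
  unfold LD.kap; field_simp

lemma kap_abs {a δ w1 w2 : ℝ} {p : LD} (h : Ok a δ w1 w2 p) : |p.kap| ≤ 2 * |p.R0| := by
  have h0 := h.hn0
  have h1 := kap_mul h
  have h2 : |p.kap| * p.n0 = |p.R0| := by
    rw [← h1, abs_mul, abs_of_pos (by linarith : 0 < p.n0)]
  nlinarith [abs_nonneg p.kap]

lemma kap_abs3 {a δ w1 w2 : ℝ} {p : LD} (h : Ok a δ w1 w2 p) : |p.kap| ≤ 3 := by
  have := kap_abs h; have := h.hR0; linarith

lemma kap_nonneg {a δ w1 w2 : ℝ} {p : LD} (h : Ok a δ w1 w2 p) (hR : 0 ≤ p.R0) :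
    0 ≤ p.kap := by
  unfold LD.kap; exact div_nonneg hR (by have := h.hn0; linarith)

lemma kap_nonpos {a δ w1 w2 : ℝ} {p : LD} (h : Ok a δ w1 w2 p) (hR : p.R0 ≤ 0) :
    p.kap ≤ 0 := by
  unfold LD.kap; exact div_nonpos_of_nonpos_of_nonneg hR (by have := h.hn0; linarith)

lemma rho1_abs {a δ w1 w2 : ℝ} {p : LD} (hδ : 0 < δ) (h : Ok a δ w1 w2 p) :
    |p.rho1| * δ ≤ 5 * a := by
  have h1 : |p.rho1| ≤ |p.R1| + |p.kap| * |p.n1| := by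
    unfold LD.rho1; rw [← abs_mul]; exact abs_sub _ _
  have h2 := kap_abs3 h
  have h3 : |p.kap| * |p.n1| * δ ≤ 3 * a := by
    have : |p.kap| * (|p.n1| * δ) ≤ 3 * a :=
      mul_le_mul h2 h.hn1 (by positivity) (by norm_num)
    linarith
  have := h.hR1
  nlinarith

lemma rho2_abs {a δ w1 w2 : ℝ} {p : LD} (hδ : 0 < δ) (h : Ok a δ w1 w2 p) :
    |p.rho2| * δ ≤ 5 * a := by
  have h1 : |p.rho2| ≤ |p.R2| + |p.kap| * |p.n2| := by
    unfold LD.rho2; rw [← abs_mul]; exact abs_sub _ _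
  have h2 := kap_abs3 h
  have h3 : |p.kap| * |p.n2| * δ ≤ 3 * a := by
    have : |p.kap| * (|p.n2| * δ) ≤ 3 * a :=
      mul_le_mul h2 h.hn2 (by positivity) (by norm_num)
    linarith
  have := h.hR2
  nlinarith

/-- `ρ · Δx` -/
lemma rhox_abs {a δ w1 w2 : ℝ} {p p' q : LD} (_hw1 : 0 ≤ w1) (_hw2 : 0 ≤ w2)
    (h : Ok a δ w1 w2 p) (h' : Ok a δ w1 w2 p') :
    |q.rho1 * (p'.x1 - p.x1) + q.rho2 * (p'.x2 - p.x2)|
      ≤ 2 * (|q.rho1| * w1) + 2 * (|q.rho2| * w2) := by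
  have e1 : |p'.x1 - p.x1| ≤ 2 * w1 := by
    have := abs_sub p'.x1 p.x1; have := h.hx1; have := h'.hx1; linarith
  have e2 : |p'.x2 - p.x2| ≤ 2 * w2 := by
    have := abs_sub p'.x2 p.x2; have := h.hx2; have := h'.hx2; linarith
  calc |q.rho1 * (p'.x1 - p.x1) + q.rho2 * (p'.x2 - p.x2)|
      ≤ |q.rho1| * |p'.x1 - p.x1| + |q.rho2| * |p'.x2 - p.x2| := by
        rw [← abs_mul, ← abs_mul]; exact abs_add_le _ _
    _ ≤ |q.rho1| * (2 * w1) + |q.rho2| * (2 * w2) := by gcongr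
    _ = _ := by ring

lemma half_up {n d M : ℝ} (hn : 1 / 2 ≤ n) (hM : 0 ≤ M) (h : n * d ≤ M) : d ≤ 2 * M := by
  by_cases hd : d ≤ 0
  · linarith
  · push Not at hd
    nlinarith

lemma half_lo {n d M : ℝ} (hn : 1 / 2 ≤ n) (hM : 0 ≤ M) (h : -M ≤ n * d) : -(2 * M) ≤ d := by
  have := half_up (d := -d) hn hM (by linarith)
  linarith

lemma alpha_scalar {A A' κ κ' n n' d ε1 ε2 e m : ℝ} (he : 0 ≤ e) (hm : 0 ≤ m)
    (hn : 1 / 2 ≤ n) (hn' : 1 / 2 ≤ n')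
    (e1 : n' * d = -(κ * A) + ε1) (e2 : n * d = -(κ' * A') + ε2) (hAA : |A + A'| ≤ e)
    (h1 : |ε1| ≤ m) (h2 : |ε2| ≤ m) (hk : |κ'| ≤ 3)
    (hs : (0 ≤ κ ∧ 0 ≤ κ') ∨ (κ ≤ 0 ∧ κ' ≤ 0)) : |d| ≤ 2 * (m + 3 * e) := by
  have hM : 0 ≤ m + 3 * e := by positivity
  have a1 := abs_le.1 hAA
  have a2 := abs_le.1 h1
  have a3 := abs_le.1 h2
  have a4 := abs_le.1 hk
  obtain ⟨a11, a12⟩ := a1
  obtain ⟨a21, a22⟩ := a2
  obtain ⟨a31, a32⟩ := a3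
  obtain ⟨a41, a42⟩ := a4
  clear hAA h1 h2 hk
  rw [abs_le]
  rcases hs with ⟨q1, q2⟩ | ⟨q1, q2⟩
  · by_cases hA0 : 0 ≤ A
    · have u1 : 0 ≤ κ * A := mul_nonneg q1 hA0
      have u2 : κ' * A' ≤ 3 * e := by
        have h5 : κ' * A' ≤ κ' * e := mul_le_mul_of_nonneg_left (by linarith) q2
        have h6 : κ' * e ≤ 3 * e := mul_le_mul_of_nonneg_right a42 he
        linarith
      exact ⟨half_lo hn hM (by linarith), half_up hn' hM (by linarith)⟩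
    · push Not at hA0
      have u1 : κ * A ≤ 0 := mul_nonpos_of_nonneg_of_nonpos q1 hA0.le
      have u2 : -(3 * e) ≤ κ' * A' := by
        have h5 : κ' * (-e) ≤ κ' * A' := mul_le_mul_of_nonneg_left (by linarith) q2
        have h6 : κ' * e ≤ 3 * e := mul_le_mul_of_nonneg_right a42 he
        linarith
      exact ⟨half_lo hn' hM (by linarith), half_up hn hM (by linarith)⟩
  · by_cases hA0 : 0 ≤ A
    · have u1 : κ * A ≤ 0 := mul_nonpos_of_nonpos_of_nonneg q1 hA0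
      have u2 : -(3 * e) ≤ κ' * A' := by
        have h5 : κ' * e ≤ κ' * A' := mul_le_mul_of_nonpos_left (by linarith) q2
        have h6 : (-3) * e ≤ κ' * e := mul_le_mul_of_nonneg_right a41 he
        linarith
      exact ⟨half_lo hn' hM (by linarith), half_up hn hM (by linarith)⟩
    · push Not at hA0
      have u1 : 0 ≤ κ * A := mul_nonneg_of_nonpos_of_nonpos q1 hA0.le
      have u2 : κ' * A' ≤ 3 * e := by
        have h5 : κ' * A' ≤ κ' * (-e) := mul_le_mul_of_nonpos_left (by linarith) q2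
        have h6 : (-3) * e ≤ κ' * e := mul_le_mul_of_nonneg_right a41 he
        linarith
      exact ⟨half_lo hn hM (by linarith), half_up hn' hM (by linarith)⟩

/-- (i): two lines with the same `(b1, b2)` and the same sign of `R0` -/
lemma alpha {a δ w1 w2 e r : ℝ} {p p' : LD} (ha : 0 ≤ a) (he : 0 ≤ e)
    (hw1 : 0 ≤ w1) (hw2 : 0 ≤ w2) (h : Ok a δ w1 w2 p) (h' : Ok a δ w1 w2 p')
    (hr : Rel e p p') (h1 : |p'.b1 - p.b1| ≤ δ) (h2 : |p'.b2 - p.b2| ≤ δ)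
    (hs : (0 ≤ p.R0 ∧ 0 ≤ p'.R0) ∨ (p.R0 ≤ 0 ∧ p'.R0 ≤ 0))
    (hr1 : |p.rho1| * w1 ≤ r) (hr2 : |p.rho2| * w2 ≤ r)
    (hr1' : |p'.rho1| * w1 ≤ r) (hr2' : |p'.rho2| * w2 ≤ r) :
    |p'.b0 - p.b0| ≤ 8 * e + 4 * a + 8 * r := by
  have hk := kap_mul h
  have hk' := kap_mul h'
  obtain ⟨hA, hB, hC, -⟩ := hr
  have hAA : |(p.n0 * (p'.x0 - p.x0) + p.n1 * (p'.x1 - p.x1) + p.n2 * (p'.x2 - p.x2))
      + (p'.n0 * (p'.x0 - p.x0) + p'.n1 * (p'.x1 - p.x1) + p'.n2 * (p'.x2 - p.x2))| ≤ e := by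
    refine le_of_eq_of_le ?_ hA
    congr 1; ring
  have t1 : |p'.n1 * (p'.b1 - p.b1)| ≤ a := by
    rw [abs_mul]
    exact (mul_le_mul_of_nonneg_left h1 (abs_nonneg _)).trans h'.hn1
  have t2 : |p'.n2 * (p'.b2 - p.b2)| ≤ a := by
    rw [abs_mul]
    exact (mul_le_mul_of_nonneg_left h2 (abs_nonneg _)).trans h'.hn2
  have t3 : |p.n1 * (p'.b1 - p.b1)| ≤ a := by
    rw [abs_mul]
    exact (mul_le_mul_of_nonneg_left h1 (abs_nonneg _)).trans h.hn1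
  have t4 : |p.n2 * (p'.b2 - p.b2)| ≤ a := by
    rw [abs_mul]
    exact (mul_le_mul_of_nonneg_left h2 (abs_nonneg _)).trans h.hn2
  have t5 := (rhox_abs (q := p) hw1 hw2 h h').trans
    (by linarith : 2 * (|p.rho1| * w1) + 2 * (|p.rho2| * w2) ≤ 4 * r)
  have t6 := (rhox_abs (q := p') hw1 hw2 h h').trans
    (by linarith : 2 * (|p'.rho1| * w1) + 2 * (|p'.rho2| * w2) ≤ 4 * r)
  have m0 : 0 ≤ r := le_trans (by positivity) hr1
  have comb : ∀ X u v w : ℝ, |X| ≤ e → |u| ≤ a → |v| ≤ a → |w| ≤ 4 * r →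
      |X - u - v - w| ≤ e + 2 * a + 4 * r := by
    intro X u v w h1 h2 h3 h4
    rw [abs_le] at *
    constructor <;> linarith [h1.1, h1.2, h2.1, h2.2, h3.1, h3.2, h4.1, h4.2]
  have := alpha_scalar (d := p'.b0 - p.b0) (κ := p.kap) (κ' := p'.kap) (n := p.n0)
    (n' := p'.n0) he (by positivity : 0 ≤ e + 2 * a + 4 * r) h.hn0 h'.hn0
    (e1 := by rw [← hk]; unfold LD.rho1 LD.rho2; ring)
    (e2 := by rw [← hk']; unfold LD.rho1 LD.rho2; ring) hAA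
    (comb _ _ _ _ hB t1 t2 t5) (comb _ _ _ _ hC t3 t4 t6) (kap_abs3 h')
    (by
      rcases hs with ⟨s1, s2⟩ | ⟨s1, s2⟩
      · exact Or.inl ⟨kap_nonneg h s1, kap_nonneg h' s2⟩
      · exact Or.inr ⟨kap_nonpos h s1, kap_nonpos h' s2⟩)
  linarith

/-- (ii): two lines with the same `(b1, b2)` and `|R0| ≥ k`, same sign -/
lemma beta {a δ w1 w2 e k : ℝ} {p p' : LD} (h : Ok a δ w1 w2 p) (h' : Ok a δ w1 w2 p')
    (hr : Rel e p p') (h1 : |p'.b1 - p.b1| ≤ δ) (h2 : |p'.b2 - p.b2| ≤ δ)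
    (hk : k ≤ |p.R0|) (hk' : k ≤ |p'.R0|) (hk0 : 0 < k)
    (hs : (0 ≤ p.R0 ∧ 0 ≤ p'.R0) ∨ (p.R0 ≤ 0 ∧ p'.R0 ≤ 0)) :
    |p'.b0 - p.b0| ≤ (e + 8 * a) / (2 * k) := by
  have hD := hr.D
  have t : ∀ u v : ℝ, |u| * δ ≤ 2 * a → |v| ≤ δ → |u * v| ≤ 2 * a := by
    intro u v hu hv
    rw [abs_mul]
    exact (mul_le_mul_of_nonneg_left hv (abs_nonneg _)).trans hu
  have t1 := t _ _ h.hR1 h1
  have t2 := t _ _ h'.hR1 h1
  have t3 := t _ _ h.hR2 h2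
  have t4 := t _ _ h'.hR2 h2
  have g : |(p.R0 + p'.R0) * (p'.b0 - p.b0)| ≤ e + 8 * a := by
    rw [abs_le] at *
    constructor <;> linarith [hD.1, hD.2, t1.1, t1.2, t2.1, t2.2, t3.1, t3.2, t4.1, t4.2]
  have g2 : 2 * k ≤ |p.R0 + p'.R0| := by
    rcases hs with ⟨s1, s2⟩ | ⟨s1, s2⟩
    · rw [abs_of_nonneg s1] at hk; rw [abs_of_nonneg s2] at hk'
      rw [abs_of_nonneg (by linarith)]; linarith
    · rw [abs_of_nonpos s1] at hk; rw [abs_of_nonpos s2] at hk'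
      rw [abs_of_nonpos (by linarith)]; linarith
  rw [le_div_iff₀ (by linarith)]
  rw [abs_mul] at g
  nlinarith [abs_nonneg (p'.b0 - p.b0)]

/-- (iii): two lines with the same `b2`; `ρ₁` dominates -/
lemma gamma {a δ w1 w2 e K : ℝ} {p p' : LD} (hδ : 0 < δ)
    (hw1 : 0 ≤ w1) (hw2 : 0 ≤ w2) (h : Ok a δ w1 w2 p) (h' : Ok a δ w1 w2 p')
    (hr : Rel e p p') (h2 : |p'.b2 - p.b2| ≤ δ)
    (hd : |p.rho2| * w2 ≤ |p.rho1| * w1) (hd' : |p'.rho2| * w2 ≤ |p'.rho1| * w1)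
    (hK : |p.kap| ≤ K) (hK' : |p'.kap| ≤ K)
    (hs : (0 ≤ p.rho1 ∧ 0 ≤ p'.rho1) ∨ (p.rho1 ≤ 0 ∧ p'.rho1 ≤ 0)) :
    |p'.b1 - p.b1| * (|p.rho1| + |p'.rho1|)
      ≤ 16 * e + 10 * a + 4 * w1 * K * (|p.rho1| + |p'.rho1|) := by
  have hk := kap_mul h
  have hk' := kap_mul h'
  have k3 := kap_abs3 h
  have k3' := kap_abs3 h'
  obtain ⟨hA, hB, hC, hD⟩ := hr
  have id : (p.rho1 + p'.rho1) * (p'.b1 - p.b1) =
      ((p.R0 + p'.R0) * (p'.b0 - p.b0) + (p.R1 + p'.R1) * (p'.b1 - p.b1)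
        + (p.R2 + p'.R2) * (p'.b2 - p.b2))
      - p.kap * ((p.n0 * (p'.b0 - p.b0) + p.n1 * (p'.b1 - p.b1) + p.n2 * (p'.b2 - p.b2))
        + (p'.R0 * (p'.x0 - p.x0) + p'.R1 * (p'.x1 - p.x1) + p'.R2 * (p'.x2 - p.x2)))
      - p'.kap * ((p'.n0 * (p'.b0 - p.b0) + p'.n1 * (p'.b1 - p.b1) + p'.n2 * (p'.b2 - p.b2))
        + (p.R0 * (p'.x0 - p.x0) + p.R1 * (p'.x1 - p.x1) + p.R2 * (p'.x2 - p.x2)))
      + p.kap * p'.kap * ((p.n0 + p'.n0) * (p'.x0 - p.x0) + (p.n1 + p'.n1) * (p'.x1 - p.x1)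
        + (p.n2 + p'.n2) * (p'.x2 - p.x2))
      - (p.rho2 + p'.rho2) * (p'.b2 - p.b2)
      + p'.kap * (p.rho1 * (p'.x1 - p.x1) + p.rho2 * (p'.x2 - p.x2))
      + p.kap * (p'.rho1 * (p'.x1 - p.x1) + p'.rho2 * (p'.x2 - p.x2)) := by
    rw [← hk, ← hk']; unfold LD.rho1 LD.rho2; ring
  have t5 := rhox_abs (q := p) hw1 hw2 h h'
  have t6 := rhox_abs (q := p') hw1 hw2 h h'
  have K0 : 0 ≤ K := (abs_nonneg _).trans hK
  have b1 : |p.kap * ((p.n0 * (p'.b0 - p.b0) + p.n1 * (p'.b1 - p.b1) + p.n2 * (p'.b2 - p.b2))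
        + (p'.R0 * (p'.x0 - p.x0) + p'.R1 * (p'.x1 - p.x1) + p'.R2 * (p'.x2 - p.x2)))|
        ≤ 3 * e := by
    rw [abs_mul]; exact mul_le_mul k3 hC (abs_nonneg _) (by norm_num)
  have b2 : |p'.kap * ((p'.n0 * (p'.b0 - p.b0) + p'.n1 * (p'.b1 - p.b1)
        + p'.n2 * (p'.b2 - p.b2))
        + (p.R0 * (p'.x0 - p.x0) + p.R1 * (p'.x1 - p.x1) + p.R2 * (p'.x2 - p.x2)))|
        ≤ 3 * e := by
    rw [abs_mul]; exact mul_le_mul k3' hB (abs_nonneg _) (by norm_num)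
  have b3 : |p.kap * p'.kap * ((p.n0 + p'.n0) * (p'.x0 - p.x0)
        + (p.n1 + p'.n1) * (p'.x1 - p.x1) + (p.n2 + p'.n2) * (p'.x2 - p.x2))| ≤ 9 * e := by
    rw [abs_mul, abs_mul]
    have : |p.kap| * |p'.kap| ≤ 9 := by
      have := mul_le_mul k3 k3' (abs_nonneg _) (by norm_num : (0:ℝ) ≤ 3)
      linarith
    exact mul_le_mul this hA (abs_nonneg _) (by norm_num)
  have b4 : |(p.rho2 + p'.rho2) * (p'.b2 - p.b2)| ≤ 10 * a := by
    rw [abs_mul]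
    have c1 := rho2_abs hδ h
    have c2 := rho2_abs hδ h'
    calc |p.rho2 + p'.rho2| * |p'.b2 - p.b2| ≤ (|p.rho2| + |p'.rho2|) * δ := by
          gcongr; exact abs_add_le _ _
      _ ≤ 10 * a := by linarith
  have b5 : |p'.kap * (p.rho1 * (p'.x1 - p.x1) + p.rho2 * (p'.x2 - p.x2))|
      ≤ K * (4 * (|p.rho1| * w1)) := by
    rw [abs_mul]; exact mul_le_mul hK' (by linarith) (abs_nonneg _) K0
  have b6 : |p.kap * (p'.rho1 * (p'.x1 - p.x1) + p'.rho2 * (p'.x2 - p.x2))|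
      ≤ K * (4 * (|p'.rho1| * w1)) := by
    rw [abs_mul]; exact mul_le_mul hK (by linarith) (abs_nonneg _) K0
  have tot : |(p.rho1 + p'.rho1) * (p'.b1 - p.b1)|
      ≤ 16 * e + 10 * a + K * (4 * (|p.rho1| * w1)) + K * (4 * (|p'.rho1| * w1)) := by
    rw [id]
    rw [abs_le] at hD b1 b2 b3 b4 b5 b6 ⊢
    constructor <;> linarith [hD.1, hD.2, b1.1, b1.2, b2.1, b2.2, b3.1, b3.2, b4.1, b4.2,
      b5.1, b5.2, b6.1, b6.2]
  have hsum : |p.rho1 + p'.rho1| = |p.rho1| + |p'.rho1| := by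
    rcases hs with ⟨s1, s2⟩ | ⟨s1, s2⟩
    · rw [abs_of_nonneg s1, abs_of_nonneg s2, abs_of_nonneg (by linarith)]
    · rw [abs_of_nonpos s1, abs_of_nonpos s2, abs_of_nonpos (by linarith)]; ring
  rw [abs_mul, hsum] at tot
  linarith

/-! ### counting cells -/

lemma card_int_le {T : Finset ℤ} {M : ℝ} (hM : 0 ≤ M)
    (h : ∀ x ∈ T, ∀ y ∈ T, ((x : ℝ) - y) ≤ M) : (T.card : ℝ) ≤ M + 1 := by
  rcases T.eq_empty_or_nonempty with rfl | hT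
  · simp; linarith
  · have hsub : T ⊆ Finset.Icc (T.min' hT) (T.min' hT + ⌊M⌋) := by
      intro x hx
      rw [Finset.mem_Icc]
      refine ⟨Finset.min'_le _ _ hx, ?_⟩
      have := h x hx _ (T.min'_mem hT)
      have h2 : x - T.min' hT ≤ ⌊M⌋ := by
        apply Int.le_floor.2
        push_cast
        exact this
      linarith
    have := Finset.card_le_card hsub
    rw [Int.card_Icc] at this
    have h3 : (T.card : ℤ) ≤ ⌊M⌋ + 1 := by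
      have h0 : (0:ℤ) ≤ ⌊M⌋ := Int.floor_nonneg.2 hM
      omega
    have h4 : (T.card : ℝ) ≤ (⌊M⌋ : ℝ) + 1 := by exact_mod_cast h3
    linarith [Int.floor_le M]

lemma card_fib {α β : Type*} [DecidableEq β] (s : Finset α) (f : α → β) {c : ℝ}
    (h : ∀ y ∈ s.image f, ((s.filter fun x => f x = y).card : ℝ) ≤ c) :
    (s.card : ℝ) ≤ c * (s.image f).card := by
  classical
  rw [Finset.card_eq_sum_card_image f s]
  push_cast
  calc (∑ b ∈ s.image f, ((s.filter fun x => f x = b).card : ℝ))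
      ≤ ∑ _b ∈ s.image f, c := Finset.sum_le_sum h
    _ = c * (s.image f).card := by rw [Finset.sum_const, nsmul_eq_mul]; ring

lemma card3 {ι : Type*} (s : Finset ι) (j0 j1 j2 : ι → ℤ)
    (hinj : ∀ l ∈ s, ∀ l' ∈ s, j0 l = j0 l' → j1 l = j1 l' → j2 l = j2 l' → l = l')
    {M0 M1 M2 : ℝ} (h0 : 0 ≤ M0) (h1 : 0 ≤ M1) (h2 : 0 ≤ M2)
    (H0 : ∀ l ∈ s, ∀ l' ∈ s, j1 l = j1 l' → j2 l = j2 l' → (j0 l : ℝ) - j0 l' ≤ M0)
    (H1 : ∀ l ∈ s, ∀ l' ∈ s, j2 l = j2 l' → (j1 l : ℝ) - j1 l' ≤ M1)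
    (H2 : ∀ l ∈ s, ∀ l' ∈ s, (j2 l : ℝ) - j2 l' ≤ M2) :
    (s.card : ℝ) ≤ (M0 + 1) * (M1 + 1) * (M2 + 1) := by
  classical
  -- step 1
  have s1 : (s.card : ℝ) ≤ (M0 + 1) * (s.image fun l => (j1 l, j2 l)).card := by
    apply card_fib
    rintro ⟨u, v⟩ -
    set F := s.filter fun l => (j1 l, j2 l) = (u, v) with hF
    have hmem : ∀ l ∈ F, l ∈ s ∧ j1 l = u ∧ j2 l = v := by
      intro l hl
      rw [hF, Finset.mem_filter, Prod.mk.injEq] at hl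
      exact hl
    have hc : (F.image j0).card = F.card := by
      apply Finset.card_image_of_injOn
      intro l hl l' hl' hll
      obtain ⟨a1, a2, a3⟩ := hmem l hl
      obtain ⟨b1, b2, b3⟩ := hmem l' hl'
      exact hinj l a1 l' b1 hll (a2.trans b2.symm) (a3.trans b3.symm)
    rw [← hc]
    apply card_int_le h0
    intro x hx y hy
    obtain ⟨l, hl, rfl⟩ := Finset.mem_image.1 hx
    obtain ⟨l', hl', rfl⟩ := Finset.mem_image.1 hy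
    obtain ⟨a1, a2, a3⟩ := hmem l hl
    obtain ⟨b1, b2, b3⟩ := hmem l' hl'
    exact H0 l a1 l' b1 (a2.trans b2.symm) (a3.trans b3.symm)
  -- step 2
  have s2 : ((s.image fun l => (j1 l, j2 l)).card : ℝ) ≤ (M1 + 1) * (s.image j2).card := by
    have him : (s.image fun l => (j1 l, j2 l)).image Prod.snd = s.image j2 := by
      rw [Finset.image_image]; rfl
    rw [← him]
    apply card_fib
    intro v _
    set F := (s.image fun l => (j1 l, j2 l)).filter fun x => x.2 = v with hF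
    have hc : (F.image Prod.fst).card = F.card := by
      apply Finset.card_image_of_injOn
      rintro ⟨a1, a2⟩ ha ⟨b1, b2⟩ hb hab
      have ha' := Finset.mem_filter.1 ha
      have hb' := Finset.mem_filter.1 hb
      simp only at ha' hb' hab
      rw [hab, ha'.2, hb'.2]
    rw [← hc]
    apply card_int_le h1
    intro x hx y hy
    obtain ⟨⟨x1, x2⟩, hx', rfl⟩ := Finset.mem_image.1 hx
    obtain ⟨⟨y1, y2⟩, hy', rfl⟩ := Finset.mem_image.1 hy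
    obtain ⟨hx1, hx2⟩ := Finset.mem_filter.1 hx'
    obtain ⟨hy1, hy2⟩ := Finset.mem_filter.1 hy'
    obtain ⟨l, hl, hl2⟩ := Finset.mem_image.1 hx1
    obtain ⟨l', hl', hl2'⟩ := Finset.mem_image.1 hy1
    rw [Prod.mk.injEq] at hl2 hl2'
    simp only at hx2 hy2 ⊢
    rw [← hl2.1, ← hl2'.1]
    exact H1 l hl l' hl' (by rw [hl2.2, hl2'.2, hx2, hy2])
  -- step 3
  have s3 : ((s.image j2).card : ℝ) ≤ M2 + 1 := by
    apply card_int_le h2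
    intro x hx y hy
    obtain ⟨l, hl, rfl⟩ := Finset.mem_image.1 hx
    obtain ⟨l', hl', rfl⟩ := Finset.mem_image.1 hy
    exact H2 l hl l' hl'
  calc (s.card : ℝ) ≤ (M0 + 1) * (s.image fun l => (j1 l, j2 l)).card := s1
    _ ≤ (M0 + 1) * ((M1 + 1) * (s.image j2).card) := by gcongr
    _ ≤ (M0 + 1) * ((M1 + 1) * (M2 + 1)) := by gcongr
    _ = _ := by ring

lemma floor_close {u v δ : ℝ} (hδ : 0 < δ) (h : ⌊u / δ⌋ = ⌊v / δ⌋) : |v - u| ≤ δ := by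
  have h1 := Int.abs_sub_lt_one_of_floor_eq_floor h
  have h2 : |u / δ - v / δ| * δ = |v - u| := by
    rw [← sub_div, abs_div, abs_of_pos hδ, abs_sub_comm]; field_simp
  nlinarith

lemma floor_sub_le {u v δ D : ℝ} (hδ : 0 < δ) (h : |v - u| ≤ D) :
    ((⌊u / δ⌋ : ℝ)) - ⌊v / δ⌋ ≤ D / δ + 1 := by
  have h1 := Int.floor_le (u / δ)
  have h2 := Int.lt_floor_add_one (v / δ)
  have h3 : u / δ - v / δ ≤ D / δ := by
    rw [← sub_div]
    apply div_le_div_of_nonneg_right _ hδ.le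
    have := (abs_le.1 h).1
    linarith
  linarith

end Crest.Agent.R136.KR879
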