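import Crest.Agent.R136.KR1_879

/-!
# Katz-Rogers bound for quadric sheets in R^4, part 2: classes and the total count
-/

namespace Crest.Agent.R136.KR879

/-- cell injectivity -/
def CInj {ι : Type*} (s : Finset ι) (P : ι → LD) (δ : ℝ) : Prop :=
  ∀ l ∈ s, ∀ l' ∈ s, ⌊(P l).b0 / δ⌋ = ⌊(P l').b0 / δ⌋ → ⌊(P l).b1 / δ⌋ = ⌊(P l').b1 / δ⌋ →
    ⌊(P l).b2 / δ⌋ = ⌊(P l').b2 / δ⌋ → l = l'

/-- the common count of a class from the three ranges -/
lemma class_count {ι : Type*} (s : Finset ι) (P : ι → LD) {a δ w1 w2 D0 D1 : ℝ}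
    (hδ : 0 < δ) (hw2 : δ ≤ w2) (hD0 : 0 ≤ D0) (hD1 : 0 ≤ D1)
    (hok : ∀ l ∈ s, Ok a δ w1 w2 (P l)) (hinj : CInj s P δ)
    (H0 : ∀ l ∈ s, ∀ l' ∈ s, |(P l').b1 - (P l).b1| ≤ δ → |(P l').b2 - (P l).b2| ≤ δ →
      |(P l').b0 - (P l).b0| ≤ D0)
    (H1 : ∀ l ∈ s, ∀ l' ∈ s, |(P l').b2 - (P l).b2| ≤ δ → |(P l').b1 - (P l).b1| ≤ D1) :
    (s.card : ℝ) * δ ^ 3 ≤ (D0 + 2 * δ) * (D1 + 2 * δ) * (6 * w2) := by
  have hw0 : 0 ≤ w2 := hδ.le.trans hw2
  have h := card3 s (fun l => ⌊(P l).b0 / δ⌋) (fun l => ⌊(P l).b1 / δ⌋)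
    (fun l => ⌊(P l).b2 / δ⌋) hinj (M0 := D0 / δ + 1) (M1 := D1 / δ + 1)
    (M2 := 4 * w2 / δ + 1) (by positivity) (by positivity) (by positivity)
    (fun l hl l' hl' h1 h2 => floor_sub_le hδ (H0 l hl l' hl' (floor_close hδ h1)
      (floor_close hδ h2)))
    (fun l hl l' hl' h2 => floor_sub_le hδ (H1 l hl l' hl' (floor_close hδ h2)))
    (fun l hl l' hl' => floor_sub_le hδ (by
      have := abs_sub (P l').b2 (P l).b2
      have := (hok l hl).hb2
      have := (hok l' hl').hb2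
      linarith))
  have h2 : (D0 / δ + 1 + 1) * (D1 / δ + 1 + 1) * (4 * w2 / δ + 1 + 1) * δ ^ 3
      = (D0 + 2 * δ) * (D1 + 2 * δ) * (4 * w2 + 2 * δ) := by
    field_simp; ring
  calc (s.card : ℝ) * δ ^ 3
      ≤ (D0 / δ + 1 + 1) * (D1 / δ + 1 + 1) * (4 * w2 / δ + 1 + 1) * δ ^ 3 := by gcongr
    _ = (D0 + 2 * δ) * (D1 + 2 * δ) * (4 * w2 + 2 * δ) := h2
    _ ≤ (D0 + 2 * δ) * (D1 + 2 * δ) * (6 * w2) := by gcongr; linarith

/-- class with small `ρ` -/
lemma class_small {ι : Type*} (s : Finset ι) (P : ι → LD) {a δ w1 w2 : ℝ}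
    (hδ : 0 < δ) (hδa : δ ≤ a) (hw1 : δ ≤ w1) (hw2 : δ ≤ w2)
    (hok : ∀ l ∈ s, Ok a δ w1 w2 (P l)) (hinj : CInj s P δ)
    (hrel : ∀ l ∈ s, ∀ l' ∈ s, Rel (32 * a) (P l) (P l'))
    (hs : (∀ l ∈ s, 0 ≤ (P l).R0) ∨ (∀ l ∈ s, (P l).R0 ≤ 0))
    (hr : ∀ l ∈ s, |(P l).rho1| * w1 ≤ a ∧ |(P l).rho2| * w2 ≤ a) :
    (s.card : ℝ) * δ ^ 3 ≤ 2000000 * (a * w1 * w2) := by
  have ha : 0 ≤ a := hδ.le.trans hδa
  have h1 : 0 ≤ w1 := hδ.le.trans hw1
  have h2 : 0 ≤ w2 := hδ.le.trans hw2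
  have h := class_count s P (D0 := 268 * a) (D1 := 4 * w1) hδ hw2 (by positivity)
    (by positivity) hok hinj
    (fun l hl l' hl' u v => by
      have := alpha (e := 32 * a) (r := a) ha (by positivity) h1 h2 (hok l hl) (hok l' hl')
        (hrel l hl l' hl') u v
        (by rcases hs with hs | hs
            · exact Or.inl ⟨hs l hl, hs l' hl'⟩
            · exact Or.inr ⟨hs l hl, hs l' hl'⟩)
        (hr l hl).1 (hr l hl).2 (hr l' hl').1 (hr l' hl').2
      linarith)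
    (fun l hl l' hl' _ => by
      have := abs_sub (P l').b1 (P l).b1
      have := (hok l hl).hb1
      have := (hok l' hl').hb1
      linarith)
  calc (s.card : ℝ) * δ ^ 3 ≤ (268 * a + 2 * δ) * (4 * w1 + 2 * δ) * (6 * w2) := h
    _ ≤ (270 * a) * (6 * w1) * (6 * w2) := by gcongr <;> linarith
    _ = 9720 * (a * w1 * w2) := by ring
    _ ≤ 2000000 * (a * w1 * w2) := by
        have : 0 ≤ a * w1 * w2 := by positivity
        linarith

lemma div_bound {d S c w K r : ℝ} (hr : 0 < r) (hw : 0 < w) (hc : 0 ≤ c)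
    (hS : 2 * r / w ≤ S) (h : d * S ≤ c + 4 * w * K * S) :
    d ≤ 4 * w * K + c * w / (2 * r) := by
  have hS0 : 0 < S := lt_of_lt_of_le (by positivity) hS
  have h1 : (d - 4 * w * K) * S ≤ c := by linarith
  have h2 : d - 4 * w * K ≤ c / S := (le_div_iff₀ hS0).2 h1
  have h3 : c / S ≤ c / (2 * r / w) := div_le_div_of_nonneg_left hc (by positivity) hS
  have h4 : c / (2 * r / w) = c * w / (2 * r) := by field_simp
  linarith

/-- class with `ρ₁ w₁ ~ r ≥ a` dominating -/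
lemma class_le {ι : Type*} (s : Finset ι) (P : ι → LD) {a δ w1 w2 W r k : ℝ}
    (hδ : 0 < δ) (hδa : δ ≤ a) (hw1 : δ ≤ w1) (hw2 : δ ≤ w2) (hW : w1 ≤ W)
    (hok : ∀ l ∈ s, Ok a δ w1 w2 (P l)) (hinj : CInj s P δ)
    (hrel : ∀ l ∈ s, ∀ l' ∈ s, Rel (32 * a) (P l) (P l'))
    (hs : (∀ l ∈ s, 0 ≤ (P l).R0) ∨ (∀ l ∈ s, (P l).R0 ≤ 0))
    (hρ : (∀ l ∈ s, 0 ≤ (P l).rho1) ∨ (∀ l ∈ s, (P l).rho1 ≤ 0))
    (hdom : ∀ l ∈ s, |(P l).rho2| * w2 ≤ |(P l).rho1| * w1)
    (har : a ≤ r) (hr : ∀ l ∈ s, r ≤ |(P l).rho1| * w1 ∧ |(P l).rho1| * w1 ≤ 2 * r)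
    (hk : (0 < k ∧ ∀ l ∈ s, k ≤ |(P l).R0| ∧ |(P l).R0| ≤ 2 * k) ∨
      (0 ≤ k ∧ k * W ≤ δ ∧ ∀ l ∈ s, |(P l).R0| ≤ k)) :
    (s.card : ℝ) * δ ^ 3 ≤ 2000000 * (a * w1 * w2) := by
  classical
  have ha : 0 < a := hδ.trans_le hδa
  have h1 : 0 < w1 := hδ.trans_le hw1
  have h2 : 0 < w2 := hδ.trans_le hw2
  have hr0 : 0 < r := ha.trans_le har
  have hW0 : 0 < W := h1.trans_le hW
  rcases s.eq_empty_or_nonempty with rfl | hne
  · simp only [Finset.card_empty, Nat.cast_zero, zero_mul]; positivity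
  obtain ⟨l0, hl0⟩ := hne
  -- r δ ≤ 5 a w1
  have hrδ : r * δ ≤ 5 * a * w1 := by
    have q1 := (hr l0 hl0).1
    have q2 := rho1_abs hδ (hok l0 hl0)
    calc r * δ ≤ (|(P l0).rho1| * w1) * δ := by gcongr
      _ = (|(P l0).rho1| * δ) * w1 := by ring
      _ ≤ (5 * a) * w1 := by gcongr
  -- the first range
  have Ha : ∀ l ∈ s, ∀ l' ∈ s, |(P l').b1 - (P l).b1| ≤ δ → |(P l').b2 - (P l).b2| ≤ δ →
      |(P l').b0 - (P l).b0| ≤ 276 * r := by
    intro l hl l' hl' u v
    have := alpha (e := 32 * a) (r := 2 * r) ha.le (by positivity) h1.le h2.le (hok l hl)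
      (hok l' hl') (hrel l hl l' hl') u v
      (by rcases hs with hs | hs
          · exact Or.inl ⟨hs l hl, hs l' hl'⟩
          · exact Or.inr ⟨hs l hl, hs l' hl'⟩)
      (hr l hl).2 ((hdom l hl).trans (hr l hl).2) (hr l' hl').2
      ((hdom l' hl').trans (hr l' hl').2)
    linarith
  -- the second range
  have Hc : ∀ K : ℝ, (∀ l ∈ s, |(P l).R0| ≤ K) → ∀ l ∈ s, ∀ l' ∈ s,
      |(P l').b2 - (P l).b2| ≤ δ → |(P l').b1 - (P l).b1| ≤ 8 * w1 * K + 261 * a * w1 / r := by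
    intro K hK l hl l' hl' v
    have g := gamma (e := 32 * a) (K := 2 * K) hδ h1.le h2.le (hok l hl) (hok l' hl')
      (hrel l hl l' hl') v (hdom l hl) (hdom l' hl')
      ((kap_abs (hok l hl)).trans (by have := hK l hl; linarith))
      ((kap_abs (hok l' hl')).trans (by have := hK l' hl'; linarith))
      (by rcases hρ with hρ | hρ
          · exact Or.inl ⟨hρ l hl, hρ l' hl'⟩
          · exact Or.inr ⟨hρ l hl, hρ l' hl'⟩)
    have hS : 2 * r / w1 ≤ |(P l).rho1| + |(P l').rho1| := by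
      rw [div_le_iff₀ h1]
      have := (hr l hl).1
      have := (hr l' hl').1
      linarith
    have := div_bound (c := 522 * a) (K := 2 * K) (d := |(P l').b1 - (P l).b1|) hr0 h1
      (by positivity) hS (by linarith [g])
    calc |(P l').b1 - (P l).b1| ≤ 4 * w1 * (2 * K) + 522 * a * w1 / (2 * r) := this
      _ = 8 * w1 * K + 261 * a * w1 / r := by
          field_simp; ring
  have fin : ∀ D0 D1 : ℝ, 2 * δ ≤ D0 → D0 ≤ 276 * r → 0 ≤ D1 → D0 * D1 ≤ 84000 * (a * w1) →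
      (s.card : ℝ) * δ ^ 3 ≤ (D0 + 2 * δ) * (D1 + 2 * δ) * (6 * w2) →
      (s.card : ℝ) * δ ^ 3 ≤ 2000000 * (a * w1 * w2) := by
    intro D0 D1 q1 q2 q3 q4 q5
    have q6 : D0 * δ ≤ 1380 * (a * w1) := by
      calc D0 * δ ≤ 276 * r * δ := by gcongr
        _ = 276 * (r * δ) := by ring
        _ ≤ 276 * (5 * a * w1) := by gcongr
        _ = 1380 * (a * w1) := by ring
    calc (s.card : ℝ) * δ ^ 3 ≤ (D0 + 2 * δ) * (D1 + 2 * δ) * (6 * w2) := q5
      _ ≤ (2 * D0) * (D1 + 2 * δ) * (6 * w2) := by gcongr; linarith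
      _ = 12 * (D0 * D1 + 2 * (D0 * δ)) * w2 := by ring
      _ ≤ 12 * (84000 * (a * w1) + 2 * (1380 * (a * w1))) * w2 := by gcongr
      _ = 1041120 * (a * w1 * w2) := by ring
      _ ≤ 2000000 * (a * w1 * w2) := by
          have : 0 ≤ a * w1 * w2 := by positivity
          linarith
  rcases hk with ⟨hk0, hk⟩ | ⟨hk0, hkW, hk⟩
  · have hk32 : k ≤ 3 / 2 := ((hk l0 hl0).1).trans (hok l0 hl0).hR0
    set D0 : ℝ := min (20 * a / k) (276 * r) with hD0
    set D1 : ℝ := 8 * w1 * (2 * k) + 261 * a * w1 / r with hD1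
    have c1 : D0 * k ≤ 20 * a := by
      calc D0 * k ≤ (20 * a / k) * k := by gcongr; exact min_le_left _ _
        _ = 20 * a := by field_simp
    have c2 : D0 / r ≤ 276 := by
      rw [div_le_iff₀ hr0]; exact min_le_right _ _
    have hD0lo : 2 * δ ≤ D0 := by
      rw [hD0, le_min_iff]
      constructor
      · rw [le_div_iff₀ hk0]
        nlinarith
      · linarith
    refine fin D0 D1 hD0lo (min_le_right _ _) (by positivity) ?_ ?_
    · calc D0 * D1 = 16 * w1 * (D0 * k) + 261 * a * w1 * (D0 / r) := by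
            rw [hD1]; ring
        _ ≤ 16 * w1 * (20 * a) + 261 * a * w1 * 276 := by gcongr
        _ = 72356 * (a * w1) := by ring
        _ ≤ 84000 * (a * w1) := by
            have : 0 ≤ a * w1 := by positivity
            linarith
    · refine class_count s P hδ hw2 ((by positivity : (0:ℝ) ≤ 2 * δ).trans hD0lo)
        (by positivity) hok hinj ?_ ?_
      · intro l hl l' hl' u v
        rw [hD0, le_min_iff]
        refine ⟨?_, Ha l hl l' hl' u v⟩
        have := beta (e := 32 * a) (k := k) (hok l hl) (hok l' hl') (hrel l hl l' hl') u v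
          (hk l hl).1 (hk l' hl').1 hk0
          (by rcases hs with hs | hs
              · exact Or.inl ⟨hs l hl, hs l' hl'⟩
              · exact Or.inr ⟨hs l hl, hs l' hl'⟩)
        calc |(P l').b0 - (P l).b0| ≤ (32 * a + 8 * a) / (2 * k) := this
          _ = 20 * a / k := by field_simp; ring
      · exact Hc (2 * k) (fun l hl => (hk l hl).2)
  · set D0 : ℝ := 276 * r with hD0
    set D1 : ℝ := 8 * w1 * k + 261 * a * w1 / r with hD1
    have hkr : r * k ≤ 5 * a := by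
      have : r * k * W ≤ 5 * a * W := by
        calc r * k * W = r * (k * W) := by ring
          _ ≤ r * δ := by gcongr
          _ ≤ 5 * a * w1 := hrδ
          _ ≤ 5 * a * W := by gcongr
      exact le_of_mul_le_mul_right this hW0
    refine fin D0 D1 (by linarith) le_rfl (by positivity) ?_ ?_
    · calc D0 * D1 = 2208 * w1 * (r * k) + 72036 * (a * w1) * (r / r) := by
            rw [hD0, hD1]; ring
        _ = 2208 * w1 * (r * k) + 72036 * (a * w1) := by rw [div_self hr0.ne', mul_one]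
        _ ≤ 2208 * w1 * (5 * a) + 72036 * (a * w1) := by gcongr
        _ = 83076 * (a * w1) := by ring
        _ ≤ 84000 * (a * w1) := by
            have : 0 ≤ a * w1 := by positivity
            linarith
    · exact class_count s P hδ hw2 (by positivity) (by positivity) hok hinj Ha (Hc k hk)

/-! ### swapping the two lateral coordinates -/

def LD.swap (p : LD) : LD :=
  ⟨p.x0, p.x2, p.x1, p.b0, p.b2, p.b1, p.n0, p.n2, p.n1, p.R0, p.R2, p.R1⟩

lemma Ok.swap {a δ w1 w2 : ℝ} {p : LD} (h : Ok a δ w1 w2 p) : Ok a δ w2 w1 p.swap :=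
  ⟨h.hx2, h.hx1, h.hb2, h.hb1, h.hn0, h.hR0, h.hn2, h.hn1, h.hR2, h.hR1⟩

lemma Rel.swap {e : ℝ} {p p' : LD} (h : Rel e p p') : Rel e p.swap p'.swap := by
  obtain ⟨hA, hB, hC, hD⟩ := h
  refine ⟨le_of_eq_of_le (congrArg _ ?_) hA, le_of_eq_of_le (congrArg _ ?_) hB,
    le_of_eq_of_le (congrArg _ ?_) hC, le_of_eq_of_le (congrArg _ ?_) hD⟩ <;>
  · simp only [LD.swap]; ring

lemma CInj.swap {ι : Type*} {s : Finset ι} {P : ι → LD} {δ : ℝ} (h : CInj s P δ) :
    CInj s (fun l => (P l).swap) δ :=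
  fun l hl l' hl' h0 h1 h2 => h l hl l' hl' h0 h2 h1

lemma dyad {x t : ℝ} (ht : 0 < t) (N : ℕ) (hx : x ≤ 2 ^ N * t) :
    ∃ n ≤ N + 1, (n = 0 ∧ x ≤ t) ∨ (∃ m, n = m + 1 ∧ 2 ^ m * t ≤ x ∧ x ≤ 2 * (2 ^ m * t)) := by
  by_cases h : x ≤ t
  · exact ⟨0, by omega, Or.inl ⟨rfl, h⟩⟩
  · push Not at h
    obtain ⟨m, hm1, hm2⟩ := exists_nat_pow_near (x := x / t) (y := 2)
      ((one_le_div ht).2 h.le) (by norm_num)
    rw [le_div_iff₀ ht] at hm1
    rw [div_lt_iff₀ ht] at hm2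
    have hmN : m ≤ N := by
      by_contra hc
      push Not at hc
      have h3 : (2:ℝ) ^ (N + 1) ≤ 2 ^ m := pow_le_pow_right₀ (by norm_num) hc
      have h4 : (2:ℝ) ^ (N + 1) * t ≤ 2 ^ N * t := by
        calc (2:ℝ) ^ (N + 1) * t ≤ 2 ^ m * t := by gcongr
          _ ≤ x := hm1
          _ ≤ _ := hx
      have h5 : (0:ℝ) < 2 ^ N * t := by positivity
      rw [pow_succ] at h4
      nlinarith
    refine ⟨m + 1, by omega, Or.inr ⟨m, rfl, hm1, ?_⟩⟩
    rw [pow_succ] at hm2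
    linarith

/-- **Katz-Rogers for abstract sheet data.** -/
theorem kr_abs {ι : Type*} (s : Finset ι) (P : ι → LD) {a δ w1 w2 W : ℝ}
    (hδ : 0 < δ) (hδa : δ ≤ a) (hw1 : δ ≤ w1) (hw2 : δ ≤ w2) (hW1 : w1 ≤ W) (hW2 : w2 ≤ W)
    (hok : ∀ l ∈ s, Ok a δ w1 w2 (P l)) (hinj : CInj s P δ)
    (hrel : ∀ l ∈ s, ∀ l' ∈ s, Rel (32 * a) (P l) (P l'))
    (N : ℕ) (hN : 5 * W / δ ≤ 2 ^ N) :
    (s.card : ℝ) ≤ 16000000 * (N + 2) ^ 2 * (a * w1 * w2 / δ ^ 3) := by
  classical
  have ha : 0 < a := hδ.trans_le hδa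
  have h1 : 0 < w1 := hδ.trans_le hw1
  have h2 : 0 < w2 := hδ.trans_le hw2
  have hW0 : 0 < W := h1.trans_le hW1
  -- dyadic classes of ρ
  have hR : ∀ l : ι, ∃ n ≤ N + 1, l ∈ s →
      ((n = 0 ∧ max (|(P l).rho1| * w1) (|(P l).rho2| * w2) ≤ a) ∨
      (∃ m, n = m + 1 ∧ 2 ^ m * a ≤ max (|(P l).rho1| * w1) (|(P l).rho2| * w2) ∧
        max (|(P l).rho1| * w1) (|(P l).rho2| * w2) ≤ 2 * (2 ^ m * a))) := by
    intro l
    by_cases hl : l ∈ s
    · obtain ⟨n, hn, h⟩ := dyad (x := max (|(P l).rho1| * w1) (|(P l).rho2| * w2)) ha N (by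
        have q1 := rho1_abs hδ (hok l hl)
        have q2 := rho2_abs hδ (hok l hl)
        have q3 : 5 * W / δ * a ≤ 2 ^ N * a := by gcongr
        refine le_trans ?_ q3
        have q4 : 5 * W / δ * a = (5 * a) * W / δ := by ring
        rw [q4, max_le_iff, le_div_iff₀ hδ, le_div_iff₀ hδ]
        constructor
        · calc |(P l).rho1| * w1 * δ = (|(P l).rho1| * δ) * w1 := by ring
            _ ≤ (5 * a) * W := by gcongr
        · calc |(P l).rho2| * w2 * δ = (|(P l).rho2| * δ) * w2 := by ring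
            _ ≤ (5 * a) * W := by gcongr)
      exact ⟨n, hn, fun _ => h⟩
    · exact ⟨0, by omega, fun h => absurd h hl⟩
  choose fR hfR1 hfR2 using hR
  -- dyadic classes of R0
  have hK : ∀ l : ι, ∃ n ≤ N + 1, l ∈ s → ((n = 0 ∧ |(P l).R0| ≤ δ / W) ∨
      (∃ m, n = m + 1 ∧ 2 ^ m * (δ / W) ≤ |(P l).R0| ∧ |(P l).R0| ≤ 2 * (2 ^ m * (δ / W)))) := by
    intro l
    by_cases hl : l ∈ s
    · obtain ⟨n, hn, h⟩ := dyad (x := |(P l).R0|) (t := δ / W) (by positivity) N (by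
        have q1 := (hok l hl).hR0
        have q3 : 5 * W / δ * (δ / W) ≤ 2 ^ N * (δ / W) := by gcongr
        have q4 : 5 * W / δ * (δ / W) = 5 := by field_simp
        linarith)
      exact ⟨n, hn, fun _ => h⟩
    · exact ⟨0, by omega, fun h => absurd h hl⟩
  choose fK hfK1 hfK2 using hK
  let cls : ι → (Bool × Bool × Bool) × ℕ × ℕ := fun l =>
    ((decide (0 ≤ (P l).R0), decide (|(P l).rho2| * w2 ≤ |(P l).rho1| * w1),
      if |(P l).rho2| * w2 ≤ |(P l).rho1| * w1 then decide (0 ≤ (P l).rho1)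
      else decide (0 ≤ (P l).rho2)), fR l, fK l)
  have hcard : ((s.image cls).card : ℝ) ≤ 8 * (N + 2) ^ 2 := by
    have hsub : s.image cls ⊆ Finset.univ ×ˢ (Finset.range (N + 2) ×ˢ Finset.range (N + 2)) := by
      intro c hc
      obtain ⟨l, -, rfl⟩ := Finset.mem_image.1 hc
      simp only [Finset.mem_product, Finset.mem_univ, Finset.mem_range, true_and, cls]
      exact ⟨by have := hfR1 l; omega, by have := hfK1 l; omega⟩
    have h3 := Finset.card_le_card hsub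
    rw [Finset.card_product, Finset.card_product, Finset.card_range] at h3
    have h4 : (Finset.univ : Finset (Bool × Bool × Bool)).card = 8 := by decide
    rw [h4] at h3
    calc ((s.image cls).card : ℝ) ≤ ((8 * ((N + 2) * (N + 2)) : ℕ) : ℝ) := by exact_mod_cast h3
      _ = 8 * (N + 2) ^ 2 := by push_cast; ring
  have hcl : ∀ c ∈ s.image cls, ((s.filter fun l => cls l = c).card : ℝ)
      ≤ 2000000 * (a * w1 * w2 / δ ^ 3) := by
    intro c hc
    obtain ⟨l0, hl0, hl0c⟩ := Finset.mem_image.1 hc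
    set F := s.filter fun l => cls l = c with hF
    have hFs : ∀ l ∈ F, l ∈ s := fun l hl => (Finset.mem_filter.1 hl).1
    have hFc : ∀ l ∈ F, cls l = cls l0 := fun l hl => by
      rw [(Finset.mem_filter.1 hl).2, hl0c]
    have hokF : ∀ l ∈ F, Ok a δ w1 w2 (P l) := fun l hl => hok l (hFs l hl)
    have hinjF : CInj F P δ := fun l hl l' hl' => hinj l (hFs l hl) l' (hFs l' hl')
    have hrelF : ∀ l ∈ F, ∀ l' ∈ F, Rel (32 * a) (P l) (P l') :=
      fun l hl l' hl' => hrel l (hFs l hl) l' (hFs l' hl')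
    have hc1 : ∀ l ∈ F, decide (0 ≤ (P l).R0) = decide (0 ≤ (P l0).R0) := fun l hl =>
      congrArg (fun c => c.1.1) (hFc l hl)
    have hc2 : ∀ l ∈ F, decide (|(P l).rho2| * w2 ≤ |(P l).rho1| * w1)
        = decide (|(P l0).rho2| * w2 ≤ |(P l0).rho1| * w1) := fun l hl =>
      congrArg (fun c => c.1.2.1) (hFc l hl)
    have hc3 : ∀ l ∈ F, (if |(P l).rho2| * w2 ≤ |(P l).rho1| * w1 then decide (0 ≤ (P l).rho1)
        else decide (0 ≤ (P l).rho2)) = (if |(P l0).rho2| * w2 ≤ |(P l0).rho1| * w1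
          then decide (0 ≤ (P l0).rho1) else decide (0 ≤ (P l0).rho2)) := fun l hl =>
      congrArg (fun c => c.1.2.2) (hFc l hl)
    have hc4 : ∀ l ∈ F, fR l = fR l0 := fun l hl => congrArg (fun c => c.2.1) (hFc l hl)
    have hc5 : ∀ l ∈ F, fK l = fK l0 := fun l hl => congrArg (fun c => c.2.2) (hFc l hl)
    have hsg : (∀ l ∈ F, 0 ≤ (P l).R0) ∨ (∀ l ∈ F, (P l).R0 ≤ 0) := by
      by_cases h : 0 ≤ (P l0).R0
      · left; intro l hl
        have := hc1 l hl
        rw [decide_eq_true h] at this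
        exact of_decide_eq_true this
      · right; intro l hl
        have := hc1 l hl
        rw [decide_eq_false h] at this
        exact (not_le.1 (of_decide_eq_false this)).le
    suffices hmain : (F.card : ℝ) * δ ^ 3 ≤ 2000000 * (a * w1 * w2) by
      rw [← mul_div_assoc, le_div_iff₀ (by positivity)]
      exact hmain
    rcases hfR2 l0 hl0 with ⟨hz, hz2⟩ | ⟨m, hm, -, -⟩
    · -- small ρ
      refine class_small F P hδ hδa hw1 hw2 hokF hinjF hrelF hsg ?_
      intro l hl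
      rcases hfR2 l (hFs l hl) with ⟨-, hz'⟩ | ⟨m', hm', -⟩
      · exact max_le_iff.1 hz'
      · have := hc4 l hl; omega
    · -- ρ ~ 2^m a
      have hrr : ∀ l ∈ F, 2 ^ m * a ≤ max (|(P l).rho1| * w1) (|(P l).rho2| * w2) ∧
        max (|(P l).rho1| * w1) (|(P l).rho2| * w2) ≤ 2 * (2 ^ m * a) := by
        intro l hl
        rcases hfR2 l (hFs l hl) with ⟨hz', -⟩ | ⟨m', hm', h1', h2'⟩
        · have := hc4 l hl; omega
        · have : m' = m := by have := hc4 l hl; omega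
          subst this; exact ⟨h1', h2'⟩
      have har : a ≤ 2 ^ m * a := by
        have : (1:ℝ) ≤ 2 ^ m := one_le_pow₀ (by norm_num)
        nlinarith
      have hkk : ∃ k : ℝ, (0 < k ∧ ∀ l ∈ F, k ≤ |(P l).R0| ∧ |(P l).R0| ≤ 2 * k) ∨
          (0 ≤ k ∧ k * W ≤ δ ∧ ∀ l ∈ F, |(P l).R0| ≤ k) := by
        rcases hfK2 l0 hl0 with ⟨hz, -⟩ | ⟨n, hn, -, -⟩
        · refine ⟨δ / W, Or.inr ⟨by positivity, ?_, ?_⟩⟩
          · field_simp; exact le_rfl
          · intro l hl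
            rcases hfK2 l (hFs l hl) with ⟨-, hz'⟩ | ⟨m', hm', -⟩
            · exact hz'
            · have := hc5 l hl; omega
        · refine ⟨2 ^ n * (δ / W), Or.inl ⟨by positivity, ?_⟩⟩
          intro l hl
          rcases hfK2 l (hFs l hl) with ⟨hz', -⟩ | ⟨m', hm', h1', h2'⟩
          · have := hc5 l hl; omega
          · have : m' = n := by have := hc5 l hl; omega
            subst this; exact ⟨h1', h2'⟩
      obtain ⟨k, hkk⟩ := hkk
      by_cases hdom : |(P l0).rho2| * w2 ≤ |(P l0).rho1| * w1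
      · have hdF : ∀ l ∈ F, |(P l).rho2| * w2 ≤ |(P l).rho1| * w1 := by
          intro l hl
          have := hc2 l hl
          rw [decide_eq_true hdom] at this
          exact of_decide_eq_true this
        have hρF : (∀ l ∈ F, 0 ≤ (P l).rho1) ∨ (∀ l ∈ F, (P l).rho1 ≤ 0) := by
          by_cases h : 0 ≤ (P l0).rho1
          · left; intro l hl
            have := hc3 l hl
            rw [if_pos hdom, if_pos (hdF l hl), decide_eq_true h] at this
            exact of_decide_eq_true this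
          · right; intro l hl
            have := hc3 l hl
            rw [if_pos hdom, if_pos (hdF l hl), decide_eq_false h] at this
            exact (not_le.1 (of_decide_eq_false this)).le
        refine class_le F P hδ hδa hw1 hw2 hW1 hokF hinjF hrelF hsg hρF hdF har ?_ hkk
        intro l hl
        have := hrr l hl
        rwa [max_eq_left (hdF l hl)] at this
      · have hdF : ∀ l ∈ F, |(P l).rho1| * w1 ≤ |(P l).rho2| * w2 := by
          intro l hl
          have := hc2 l hl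
          rw [decide_eq_false hdom] at this
          exact (not_le.1 (of_decide_eq_false this)).le
        have hdF' : ∀ l ∈ F, ¬ |(P l).rho2| * w2 ≤ |(P l).rho1| * w1 := by
          intro l hl
          have := hc2 l hl
          rw [decide_eq_false hdom] at this
          exact of_decide_eq_false this
        have hρF : (∀ l ∈ F, 0 ≤ (P l).rho2) ∨ (∀ l ∈ F, (P l).rho2 ≤ 0) := by
          by_cases h : 0 ≤ (P l0).rho2
          · left; intro l hl
            have := hc3 l hl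
            rw [if_neg hdom, if_neg (hdF' l hl), decide_eq_true h] at this
            exact of_decide_eq_true this
          · right; intro l hl
            have := hc3 l hl
            rw [if_neg hdom, if_neg (hdF' l hl), decide_eq_false h] at this
            exact (not_le.1 (of_decide_eq_false this)).le
        have := class_le F (fun l => (P l).swap) hδ hδa hw2 hw1 hW2
          (fun l hl => (hokF l hl).swap) hinjF.swap
          (fun l hl l' hl' => (hrelF l hl l' hl').swap) hsg hρF hdF har ?_ hkk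
        · calc (F.card : ℝ) * δ ^ 3 ≤ 2000000 * (a * w2 * w1) := this
            _ = 2000000 * (a * w1 * w2) := by ring
        · intro l hl
          have := hrr l hl
          rwa [max_eq_right (hdF l hl)] at this
  have htot := card_fib s cls hcl
  have hpos : 0 ≤ 2000000 * (a * w1 * w2 / δ ^ 3) := by positivity
  calc (s.card : ℝ) ≤ 2000000 * (a * w1 * w2 / δ ^ 3) * (s.image cls).card := htot
    _ ≤ 2000000 * (a * w1 * w2 / δ ^ 3) * (8 * (N + 2) ^ 2) := by gcongr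
    _ = 16000000 * (N + 2) ^ 2 * (a * w1 * w2 / δ ^ 3) := by ring

end Crest.Agent.R136.KR879
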