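import Crest.Agent.R136.KR2_879
import Crest.Agent.R136.Sh1_605

/-!
# Katz-Rogers bound for quadric sheets in R^4, part 3: sheets of `Sh1_605`

`kr_sheet`: the lines of a sheet over `[z0, z0 + ρ]` whose velocities are `r0/ρ`-separated are
at most `C (N+2)² a w₁ w₂ / r0³`, `10 w₁ / r0 ≤ 2^N`.
-/

set_option autoImplicit false

namespace Crest.Agent.R136.KR879

open Sh605

/-- gradient of the quadratic function -/
def gam (b d : V3) (g : Fin 3 → Fin 3 → ℝ) (z : ℝ) (x : V3) : V3 :=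
  fun j => b j + d j * z + ∑ i, (g i j + g j i) * x i

/-- the quadratic function -/
def qf (c0 c1 c2 : ℝ) (b d : V3) (g : Fin 3 → Fin 3 → ℝ) (z : ℝ) (x : V3) : ℝ :=
  c0 + c1 * z + c2 * z ^ 2 + ∑ i, (b i + d i * z) * x i + ∑ i, ∑ j, g i j * (x i * x j)

lemma q_diff (c0 c1 c2 : ℝ) (b d : V3) (g : Fin 3 → Fin 3 → ℝ) (z : ℝ) (x x' : V3) :
    dt (gam b d g z x) (x' - x) + dt (gam b d g z x') (x' - x)
      = 2 * (qf c0 c1 c2 b d g z x' - qf c0 c1 c2 b d g z x) := by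
  simp only [dt, gam, qf, Fin.sum_univ_three, Pi.sub_apply]
  ring

lemma q_dir (c0 c1 c2 : ℝ) (b d : V3) (g : Fin 3 → Fin 3 → ℝ) (z τ : ℝ) (x u : V3) :
    qf c0 c1 c2 b d g z (x + τ • u) - qf c0 c1 c2 b d g z x
      = τ * dt (gam b d g z x) u + τ ^ 2 * ∑ i, ∑ j, g i j * (u i * u j) := by
  simp only [dt, gam, qf, Fin.sum_univ_three, Pi.add_apply, Pi.smul_apply, smul_eq_mul]
  ring

/-- values along a line over the interval -/
def val (c0 c1 c2 : ℝ) (b d : V3) (g : Fin 3 → Fin 3 → ℝ) (z0 ρ : ℝ) (t : Ln4) (s : ℝ) : ℝ :=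
  qf c0 c1 c2 b d g (z0 + s * ρ) (t.pos (z0 + s * ρ))

noncomputable def Gc (c0 c1 c2 : ℝ) (b d : V3) (g : Fin 3 → Fin 3 → ℝ) (z0 ρ : ℝ) (t : Ln4) : ℝ :=
  4 * val c0 c1 c2 b d g z0 ρ t (1 / 2) - val c0 c1 c2 b d g z0 ρ t 1
    - 3 * val c0 c1 c2 b d g z0 ρ t 0

noncomputable def Fc (c0 c1 c2 : ℝ) (b d : V3) (g : Fin 3 → Fin 3 → ℝ) (z0 ρ : ℝ) (t : Ln4) : ℝ :=
  2 * val c0 c1 c2 b d g z0 ρ t 1 + 2 * val c0 c1 c2 b d g z0 ρ t 0
    - 4 * val c0 c1 c2 b d g z0 ρ t (1 / 2)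

lemma rel_B (c0 c1 c2 : ℝ) (b d : V3) (g : Fin 3 → Fin 3 → ℝ) (z0 ρ : ℝ) (t t' : Ln4) :
    dt (gam b d g z0 (t'.pos z0)) (ρ • (t'.v - t.v))
      + dt (gam b d g (z0 + ρ) (t.pos (z0 + ρ)) - gam b d g z0 (t.pos z0))
          (t'.pos z0 - t.pos z0)
      = Gc c0 c1 c2 b d g z0 ρ t' - Gc c0 c1 c2 b d g z0 ρ t := by
  simp only [dt, gam, Gc, val, qf, Ln4.pos, Fin.sum_univ_three, Pi.sub_apply, Pi.smul_apply,
    smul_eq_mul]
  ring

lemma rel_C (c0 c1 c2 : ℝ) (b d : V3) (g : Fin 3 → Fin 3 → ℝ) (z0 ρ : ℝ) (t t' : Ln4) :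
    dt (gam b d g z0 (t.pos z0)) (ρ • (t'.v - t.v))
      + dt (gam b d g (z0 + ρ) (t'.pos (z0 + ρ)) - gam b d g z0 (t'.pos z0))
          (t'.pos z0 - t.pos z0)
      = Gc c0 c1 c2 b d g z0 ρ t' - Gc c0 c1 c2 b d g z0 ρ t := by
  simp only [dt, gam, Gc, val, qf, Ln4.pos, Fin.sum_univ_three, Pi.sub_apply, Pi.smul_apply,
    smul_eq_mul]
  ring

lemma rel_D (c0 c1 c2 : ℝ) (b d : V3) (g : Fin 3 → Fin 3 → ℝ) (z0 ρ : ℝ) (t t' : Ln4) :
    dt (gam b d g (z0 + ρ) (t.pos (z0 + ρ)) - gam b d g z0 (t.pos z0)) (ρ • (t'.v - t.v))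
      + dt (gam b d g (z0 + ρ) (t'.pos (z0 + ρ)) - gam b d g z0 (t'.pos z0))
          (ρ • (t'.v - t.v))
      = 2 * (Fc c0 c1 c2 b d g z0 ρ t' - Fc c0 c1 c2 b d g z0 ρ t) := by
  simp only [dt, gam, Fc, val, qf, Ln4.pos, Fin.sum_univ_three, Pi.sub_apply, Pi.smul_apply,
    smul_eq_mul]
  ring

/-- expansion of a scalar product in an orthonormal frame -/
lemma frame_sum {e : Fin 3 → V3} (h : Ortho e) (γ Δ : V3) :
    dt γ (e 0) * dt (e 0) Δ + dt γ (e 1) * dt (e 1) Δ + dt γ (e 2) * dt (e 2) Δ = dt γ Δ := by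
  have h0 := h.expand Δ 0
  have h1 := h.expand Δ 1
  have h2 := h.expand Δ 2
  calc dt γ (e 0) * dt (e 0) Δ + dt γ (e 1) * dt (e 1) Δ + dt γ (e 2) * dt (e 2) Δ
      = γ 0 * (dt (e 0) Δ * e 0 0 + dt (e 1) Δ * e 1 0 + dt (e 2) Δ * e 2 0)
        + γ 1 * (dt (e 0) Δ * e 0 1 + dt (e 1) Δ * e 1 1 + dt (e 2) Δ * e 2 1)
        + γ 2 * (dt (e 0) Δ * e 0 2 + dt (e 1) Δ * e 1 2 + dt (e 2) Δ * e 2 2) := by
        simp only [dt]; ring
    _ = γ 0 * Δ 0 + γ 1 * Δ 1 + γ 2 * Δ 2 := by rw [← h0, ← h1, ← h2]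
    _ = dt γ Δ := rfl

/-- the data of a line -/
def mkLD (e : Fin 3 → V3) (c : Ln4) (b d : V3) (g : Fin 3 → Fin 3 → ℝ) (z0 ρ : ℝ) (t : Ln4) :
    LD where
  x0 := dt (e 0) (t.pos z0 - c.pos z0)
  x1 := dt (e 1) (t.pos z0 - c.pos z0)
  x2 := dt (e 2) (t.pos z0 - c.pos z0)
  b0 := dt (e 0) (ρ • (t.v - c.v))
  b1 := dt (e 1) (ρ • (t.v - c.v))
  b2 := dt (e 2) (ρ • (t.v - c.v))
  n0 := dt (gam b d g z0 (t.pos z0)) (e 0)
  n1 := dt (gam b d g z0 (t.pos z0)) (e 1)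
  n2 := dt (gam b d g z0 (t.pos z0)) (e 2)
  R0 := dt (gam b d g (z0 + ρ) (t.pos (z0 + ρ)) - gam b d g z0 (t.pos z0)) (e 0)
  R1 := dt (gam b d g (z0 + ρ) (t.pos (z0 + ρ)) - gam b d g z0 (t.pos z0)) (e 1)
  R2 := dt (gam b d g (z0 + ρ) (t.pos (z0 + ρ)) - gam b d g z0 (t.pos z0)) (e 2)

lemma dx_eq (e : V3) (c t t' : Ln4) (z : ℝ) :
    dt e (t'.pos z - c.pos z) - dt e (t.pos z - c.pos z) = dt e (t'.pos z - t.pos z) := by
  simp only [dt, Pi.sub_apply]; ring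

lemma db_eq (e : V3) (c t t' : Ln4) (ρ : ℝ) :
    dt e (ρ • (t'.v - c.v)) - dt e (ρ • (t.v - c.v)) = dt e (ρ • (t'.v - t.v)) := by
  simp only [dt, Pi.sub_apply, Pi.smul_apply, smul_eq_mul]; ring

lemma b_eq (e : V3) (c t : Ln4) (z0 ρ : ℝ) :
    dt e (ρ • (t.v - c.v)) = dt e (t.pos (z0 + ρ) - c.pos (z0 + ρ))
      - dt e (t.pos z0 - c.pos z0) := by
  simp only [dt, Pi.sub_apply, Pi.smul_apply, smul_eq_mul, Ln4.pos]; ring

lemma abs4 {a u v w : ℝ} (hu : |u| ≤ a) (hv : |v| ≤ a) (hw : |w| ≤ a) :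
    |4 * u - v - 3 * w| ≤ 8 * a ∧ |2 * v + 2 * w - 4 * u| ≤ 8 * a := by
  have hu' := abs_le.1 hu
  have hv' := abs_le.1 hv
  have hw' := abs_le.1 hw
  constructor
  · rw [abs_le]; constructor <;> linarith [hu'.1, hu'.2, hv'.1, hv'.2, hw'.1, hw'.2]
  · rw [abs_le]; constructor <;> linarith [hu'.1, hu'.2, hv'.1, hv'.2, hw'.1, hw'.2]

lemma mk_rel {e : Fin 3 → V3} (he : Ortho e) (c : Ln4) (c0 c1 c2 : ℝ) (b d : V3)
    (g : Fin 3 → Fin 3 → ℝ) (z0 ρ a : ℝ) (ha : 0 ≤ a) (t t' : Ln4)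
    (h0 : |val c0 c1 c2 b d g z0 ρ t 0| ≤ a) (hh : |val c0 c1 c2 b d g z0 ρ t (1 / 2)| ≤ a)
    (h1 : |val c0 c1 c2 b d g z0 ρ t 1| ≤ a)
    (h0' : |val c0 c1 c2 b d g z0 ρ t' 0| ≤ a) (hh' : |val c0 c1 c2 b d g z0 ρ t' (1 / 2)| ≤ a)
    (h1' : |val c0 c1 c2 b d g z0 ρ t' 1| ≤ a) :
    Rel (32 * a) (mkLD e c b d g z0 ρ t) (mkLD e c b d g z0 ρ t') := by
  obtain ⟨G1, F1⟩ := abs4 hh h1 h0
  obtain ⟨G2, F2⟩ := abs4 hh' h1' h0'
  refine ⟨?_, ?_, ?_, ?_⟩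
  · simp only [mkLD]
    rw [dx_eq, dx_eq, dx_eq]
    have k1 := frame_sum he (gam b d g z0 (t.pos z0)) (t'.pos z0 - t.pos z0)
    have k2 := frame_sum he (gam b d g z0 (t'.pos z0)) (t'.pos z0 - t.pos z0)
    have k3 := q_diff c0 c1 c2 b d g z0 (t.pos z0) (t'.pos z0)
    have k4 : qf c0 c1 c2 b d g z0 (t.pos z0) = val c0 c1 c2 b d g z0 ρ t 0 := by
      simp only [val, zero_mul, add_zero]
    have k5 : qf c0 c1 c2 b d g z0 (t'.pos z0) = val c0 c1 c2 b d g z0 ρ t' 0 := by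
      simp only [val, zero_mul, add_zero]
    rw [k4, k5] at k3
    rw [show (dt (gam b d g z0 (t.pos z0)) (e 0) + dt (gam b d g z0 (t'.pos z0)) (e 0)) *
        dt (e 0) (t'.pos z0 - t.pos z0) +
        (dt (gam b d g z0 (t.pos z0)) (e 1) + dt (gam b d g z0 (t'.pos z0)) (e 1)) *
        dt (e 1) (t'.pos z0 - t.pos z0) +
        (dt (gam b d g z0 (t.pos z0)) (e 2) + dt (gam b d g z0 (t'.pos z0)) (e 2)) *
        dt (e 2) (t'.pos z0 - t.pos z0)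
        = 2 * (val c0 c1 c2 b d g z0 ρ t' 0 - val c0 c1 c2 b d g z0 ρ t 0) by
        rw [← k3, ← k1, ← k2]; ring]
    rw [abs_le] at *
    constructor <;> linarith [h0.1, h0.2, h0'.1, h0'.2]
  · simp only [mkLD]
    rw [dx_eq, dx_eq, dx_eq, db_eq, db_eq, db_eq, frame_sum he, frame_sum he,
      rel_B c0 c1 c2 b d g z0 ρ t t']
    unfold Gc
    rw [abs_le] at *
    constructor <;> linarith [G1.1, G1.2, G2.1, G2.2]
  · simp only [mkLD]
    rw [dx_eq, dx_eq, dx_eq, db_eq, db_eq, db_eq, frame_sum he, frame_sum he,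
      rel_C c0 c1 c2 b d g z0 ρ t t']
    unfold Gc
    rw [abs_le] at *
    constructor <;> linarith [G1.1, G1.2, G2.1, G2.2]
  · simp only [mkLD]
    rw [db_eq, db_eq, db_eq]
    have k1 := frame_sum he (gam b d g (z0 + ρ) (t.pos (z0 + ρ)) - gam b d g z0 (t.pos z0))
      (ρ • (t'.v - t.v))
    have k2 := frame_sum he (gam b d g (z0 + ρ) (t'.pos (z0 + ρ)) - gam b d g z0 (t'.pos z0))
      (ρ • (t'.v - t.v))
    have k3 := rel_D c0 c1 c2 b d g z0 ρ t t'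
    rw [← k1, ← k2] at k3
    have k4 : |2 * (Fc c0 c1 c2 b d g z0 ρ t' - Fc c0 c1 c2 b d g z0 ρ t)| ≤ 32 * a := by
      unfold Fc
      rw [abs_le] at *
      constructor <;> linarith [F1.1, F1.2, F2.1, F2.2]
    rw [← k3] at k4
    refine le_of_eq_of_le (congrArg _ ?_) k4
    ring

/-! ### derivative bounds from the difference quotients -/

lemma deriv_le {A B K T : ℝ} (hT : 0 < T)
    (h : ∀ τ : ℝ, 0 < τ → τ ≤ T → τ * A + τ ^ 2 * B ≤ K * τ) : A ≤ K := by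
  by_contra hc
  push Not at hc
  -- choose τ small
  set τ := min T ((A - K) / (2 * (|B| + 1))) with hτ
  have hB : 0 < 2 * (|B| + 1) := by positivity
  have hpos : 0 < τ := lt_min hT (div_pos (by linarith) hB)
  have h1 := h τ hpos (min_le_left _ _)
  have h2 : τ * (2 * (|B| + 1)) ≤ A - K := by
    have := min_le_right T ((A - K) / (2 * (|B| + 1)))
    rw [← hτ, le_div_iff₀ hB] at this
    exact this
  have h3 : A + τ * B ≤ K := by
    have : τ * (A + τ * B) ≤ τ * K := by nlinarith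
    exact le_of_mul_le_mul_left this hpos
  have h4 : -(τ * |B|) ≤ τ * B := by
    have := neg_abs_le B
    nlinarith
  nlinarith [abs_nonneg B]

lemma le_deriv {A B K T : ℝ} (hT : 0 < T)
    (h : ∀ τ : ℝ, 0 < τ → τ ≤ T → K * τ ≤ τ * A + τ ^ 2 * B) : K ≤ A := by
  have := deriv_le (A := -A) (B := -B) (K := -K) hT (fun τ h1 h2 => by
    have := h τ h1 h2; linarith)
  linarith

lemma dt_self {e : Fin 3 → V3} (he : Ortho e) (i : Fin 3) : dt (e i) (e i) = 1 := by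
  have := he i i; simpa using this

lemma dt_ne {e : Fin 3 → V3} (he : Ortho e) {i j : Fin 3} (hij : i ≠ j) :
    dt (e i) (e j) = 0 := by
  have := he i j; simpa [hij] using this

lemma dt_move {e : Fin 3 → V3} (i : Fin 3) (x y u : V3) (τ : ℝ) :
    dt (e i) (x + τ • u - y) = dt (e i) (x - y) + τ * dt (e i) u := by
  simp only [dt, Pi.sub_apply, Pi.add_apply, Pi.smul_apply, smul_eq_mul]; ring

lemma l1_le {u : V3} (h : dt u u = 1) : |u 0| + |u 1| + |u 2| ≤ 2 := by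
  have h1 : u 0 ^ 2 + u 1 ^ 2 + u 2 ^ 2 = 1 := by unfold dt at h; linarith
  have h2 : (|u 0| + |u 1| + |u 2|) ^ 2 ≤ 3 * (u 0 ^ 2 + u 1 ^ 2 + u 2 ^ 2) := by
    nlinarith [sq_nonneg (|u 0| - |u 1|), sq_nonneg (|u 0| - |u 2|), sq_nonneg (|u 1| - |u 2|),
      sq_abs (u 0), sq_abs (u 1), sq_abs (u 2)]
  nlinarith [abs_nonneg (u 0), abs_nonneg (u 1), abs_nonneg (u 2)]

/-- gradient in the steep direction at a point of the sheet -/
lemma steep_grad {e : Fin 3 → V3} (he : Ortho e) {c : Ln4} {w : V3} {q : ℝ → V3 → ℝ}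
    {z0 ρ : ℝ} (c0 c1 c2 : ℝ) (b d : V3) (g : Fin 3 → Fin 3 → ℝ)
    (hq : ∀ z x, q z x = qf c0 c1 c2 b d g z x)
    (hS : Steep q e c (dbl w) z0 ρ) (hw0 : 0 < w 0) (hw1 : 0 ≤ w 1) (hw2 : 0 ≤ w 2)
    {z : ℝ} (hz0 : z0 ≤ z) (hz1 : z ≤ z0 + ρ) {x : V3} (hx : InK e c w z x) :
    1 / 2 ≤ dt (gam b d g z x) (e 0) ∧ dt (gam b d g z x) (e 0) ≤ 2 := by
  have hx0 := abs_le.1 (hx 0)
  have hx1 := hx 1
  have hx2 := hx 2
  have hin : ∀ τ : ℝ, |dt (e 0) (x - c.pos z) + τ| ≤ w 0 → InK e c (dbl w) z (x + τ • e 0) := by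
    intro τ hτ i
    rw [dt_move]
    fin_cases i
    · simp only [Fin.zero_eta, dt_self he, mul_one]; exact hτ
    · simp only [Fin.mk_one, dt_ne he (by decide : (1 : Fin 3) ≠ 0), mul_zero, add_zero]
      show _ ≤ 2 * w 1
      linarith
    · have h20 : dt (e 2) (e 0) = 0 := dt_ne he (by decide : (2 : Fin 3) ≠ 0)
      show |dt (e 2) (x - c.pos z) + τ * dt (e 2) (e 0)| ≤ 2 * w 2
      rw [h20, mul_zero, add_zero]
      linarith
  have hx' : InK e c (dbl w) z x := by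
    have := hin 0 (by rw [add_zero]; exact hx 0)
    simpa using this
  by_cases hc : dt (e 0) (x - c.pos z) ≤ 0
  · -- move up
    have hmv : ∀ τ : ℝ, 0 < τ → τ ≤ w 0 →
        τ / 2 ≤ τ * dt (gam b d g z x) (e 0) + τ ^ 2 * ∑ i, ∑ j, g i j * (e 0 i * e 0 j) ∧
        τ * dt (gam b d g z x) (e 0) + τ ^ 2 * ∑ i, ∑ j, g i j * (e 0 i * e 0 j) ≤ 2 * τ := by
      intro τ h1 h2
      have := hS z hz0 hz1 x τ h1.le hx' (hin τ (by
        rw [abs_le]; constructor <;> linarith [hx0.1, hx0.2]))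
      rw [hq, hq, q_dir] at this
      exact this
    exact ⟨le_deriv (B := ∑ i, ∑ j, g i j * (e 0 i * e 0 j)) hw0
        (fun τ h1 h2 => by have := (hmv τ h1 h2).1; linarith),
      deriv_le (B := ∑ i, ∑ j, g i j * (e 0 i * e 0 j)) hw0
        (fun τ h1 h2 => (hmv τ h1 h2).2)⟩
  · push Not at hc
    have hmv : ∀ τ : ℝ, 0 < τ → τ ≤ w 0 →
        τ / 2 ≤ τ * dt (gam b d g z x) (e 0) - τ ^ 2 * ∑ i, ∑ j, g i j * (e 0 i * e 0 j) ∧
        τ * dt (gam b d g z x) (e 0) - τ ^ 2 * ∑ i, ∑ j, g i j * (e 0 i * e 0 j) ≤ 2 * τ := by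
      intro τ h1 h2
      have h3 := hin (-τ) (by rw [abs_le]; constructor <;> linarith [hx0.1, hx0.2])
      have h4 : x + (-τ) • e 0 + τ • e 0 = x := by
        rw [add_assoc, ← add_smul]; simp
      have := hS z hz0 hz1 (x + (-τ) • e 0) τ h1.le h3 (by rw [h4]; exact hx')
      rw [h4, hq, hq] at this
      have h5 := q_dir c0 c1 c2 b d g z (-τ) x (e 0)
      have h6 : qf c0 c1 c2 b d g z x - qf c0 c1 c2 b d g z (x + -τ • e 0)
          = τ * dt (gam b d g z x) (e 0) - τ ^ 2 * ∑ i, ∑ j, g i j * (e 0 i * e 0 j) := by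
        have : (-τ) ^ 2 = τ ^ 2 := by ring
        rw [this] at h5
        linarith
      rw [h6] at this
      exact this
    exact ⟨le_deriv (B := -∑ i, ∑ j, g i j * (e 0 i * e 0 j)) hw0
        (fun τ h1 h2 => by have := (hmv τ h1 h2).1; linarith),
      deriv_le (B := -∑ i, ∑ j, g i j * (e 0 i * e 0 j)) hw0
        (fun τ h1 h2 => by have := (hmv τ h1 h2).2; linarith)⟩

/-- gradient in the base directions at a point of the sheet -/
lemma lip_grad {e : Fin 3 → V3} (he : Ortho e) {c : Ln4} {w : V3} {q : ℝ → V3 → ℝ}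
    {z0 ρ Λ : ℝ} (c0 c1 c2 : ℝ) (b d : V3) (g : Fin 3 → Fin 3 → ℝ)
    (hq : ∀ z x, q z x = qf c0 c1 c2 b d g z x)
    (hL : LipK q e c (dbl w) z0 ρ Λ) (hΛ : 0 ≤ Λ) (hw1 : 0 < w 1) (hw2 : 0 < w 2)
    {z : ℝ} (hz0 : z0 ≤ z) (hz1 : z ≤ z0 + ρ) {x : V3} (hx : InK e c w z x) (k : Fin 3)
    (hk : k ≠ 0) :
    |dt (gam b d g z x) (e k)| ≤ 2 * Λ := by
  have hwk : 0 < w k := by
    fin_cases k
    · exact absurd rfl hk
    · exact hw1
    · exact hw2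
  have hdb : ∀ i, w i ≤ dbl w i := by
    intro i
    fin_cases i
    · exact le_rfl
    · show w 1 ≤ 2 * w 1; linarith
    · show w 2 ≤ 2 * w 2; linarith
  have hdk : w k + w k ≤ dbl w k := by
    fin_cases k
    · exact absurd rfl hk
    · show w 1 + w 1 ≤ 2 * w 1; linarith
    · show w 2 + w 2 ≤ 2 * w 2; linarith
  have hin : ∀ τ : ℝ, 0 < τ → τ ≤ w k → InK e c (dbl w) z (x + τ • e k) := by
    intro τ hτ0 hτ i
    rw [dt_move]
    by_cases hik : i = k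
    · subst hik
      rw [dt_self he, mul_one]
      have h1 := abs_le.1 (hx i)
      rw [abs_le]; constructor <;> linarith [h1.1, h1.2]
    · rw [dt_ne he hik, mul_zero, add_zero]
      exact (hx i).trans (hdb i)
  have hx' : InK e c (dbl w) z x := fun i => (hx i).trans (hdb i)
  have hl1 := l1_le (dt_self he k)
  have hmv : ∀ τ : ℝ, 0 < τ → τ ≤ w k →
      |τ * dt (gam b d g z x) (e k) + τ ^ 2 * ∑ i, ∑ j, g i j * (e k i * e k j)|
        ≤ 2 * Λ * τ := by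
    intro τ h1 h2
    have h3 := hL z hz0 hz1 (x + τ • e k) x (hin τ h1 h2) hx'
    rw [hq, hq, q_dir] at h3
    refine h3.trans ?_
    have h4 : ∀ i, (x + τ • e k) i - x i = τ * e k i := by
      intro i; simp only [Pi.add_apply, Pi.smul_apply, smul_eq_mul]; ring
    rw [h4, h4, h4, abs_mul, abs_mul, abs_mul, abs_of_pos h1]
    calc Λ * (τ * |e k 0| + τ * |e k 1| + τ * |e k 2|)
        = Λ * τ * (|e k 0| + |e k 1| + |e k 2|) := by ring
      _ ≤ Λ * τ * 2 := by gcongr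
      _ = 2 * Λ * τ := by ring
  rw [abs_le]
  constructor
  · exact le_deriv (B := ∑ i, ∑ j, g i j * (e k i * e k j)) hwk (fun τ h1 h2 => by
      have := (abs_le.1 (hmv τ h1 h2)).1; linarith)
  · exact deriv_le (B := ∑ i, ∑ j, g i j * (e k i * e k j)) hwk
      (fun τ h1 h2 => (abs_le.1 (hmv τ h1 h2)).2)

/-- **Katz-Rogers for sheets.**  The lines of `A` lie in one sheet over `[z0, z0 + ρ]`, the scaled
velocities `ρ v` are `r0`-separated. -/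
theorem kr_sheet {ι : Type*} (A : Finset ι) (L : ι → Ln4) {e : Fin 3 → V3} {c : Ln4} {w : V3}
    {q : ℝ → V3 → ℝ} {a z0 ρ r0 : ℝ} (hr0 : 0 < r0) (hρ : 0 ≤ ρ)
    (hS : Sheet e c w q a z0 ρ r0)
    (hin : ∀ t ∈ A, InSheet (L t) e c w q a z0 ρ)
    (hsep : ∀ t ∈ A, ∀ t' ∈ A, t ≠ t' → ∃ i, r0 ≤ ρ * |(L t).v i - (L t').v i|)
    (N : ℕ) (hN : 10 * w 1 / r0 ≤ 2 ^ N) :
    (A.card : ℝ) ≤ 128000000 * (N + 2) ^ 2 * (a * w 1 * w 2 / r0 ^ 3) := by
  classical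
  have ha : 0 < a := hr0.trans_le hS.r0_le
  have hw2 : 0 < w 2 := ha.trans_le hS.a_le
  have hw1 : 0 < w 1 := hw2.trans_le hS.w_le
  obtain ⟨c0, c1, c2, b, d, g, hq⟩ := hS.isQ
  have hq' : ∀ z x, q z x = qf c0 c1 c2 b d g z x := hq
  obtain ⟨Λ, hΛ, hLip, hΛa⟩ := hS.res
  set δ : ℝ := r0 / 2 with hδdef
  have hδ : 0 < δ := by positivity
  have hδa : δ ≤ a := by have := hS.r0_le; linarith
  have hδw2 : δ ≤ w 2 := by have := hS.a_le; linarith
  have hδw1 : δ ≤ w 1 := by have := hS.w_le; linarith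
  let P : ι → LD := fun t => mkLD e c b d g z0 ρ (L t)
  -- injectivity of the cells
  have hinj : CInj A P δ := by
    intro t ht t' ht' h0 h1 h2
    by_contra hne
    obtain ⟨i, hi⟩ := hsep t ht t' ht' hne
    have k0 := floor_close hδ h0
    have k1 := floor_close hδ h1
    have k2 := floor_close hδ h2
    simp only [P, mkLD] at k0 k1 k2
    rw [db_eq] at k0 k1 k2
    set Δ : V3 := ρ • ((L t').v - (L t).v) with hΔ
    have hex : dt Δ Δ = dt (e 0) Δ ^ 2 + dt (e 1) Δ ^ 2 + dt (e 2) Δ ^ 2 := by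
      rw [← frame_sum hS.ortho Δ Δ, dt_comm Δ (e 0), dt_comm Δ (e 1), dt_comm Δ (e 2)]; ring
    have hs0 : dt (e 0) Δ ^ 2 ≤ δ ^ 2 := sq_le_sq' (abs_le.1 k0).1 (abs_le.1 k0).2
    have hs1 : dt (e 1) Δ ^ 2 ≤ δ ^ 2 := sq_le_sq' (abs_le.1 k1).1 (abs_le.1 k1).2
    have hs2 : dt (e 2) Δ ^ 2 ≤ δ ^ 2 := sq_le_sq' (abs_le.1 k2).1 (abs_le.1 k2).2
    have hi2 : Δ i ^ 2 ≤ dt Δ Δ := by
      unfold dt
      fin_cases i
      · show Δ 0 ^ 2 ≤ _; nlinarith [mul_self_nonneg (Δ 1), mul_self_nonneg (Δ 2)]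
      · show Δ 1 ^ 2 ≤ _; nlinarith [mul_self_nonneg (Δ 0), mul_self_nonneg (Δ 2)]
      · show Δ 2 ^ 2 ≤ _; nlinarith [mul_self_nonneg (Δ 0), mul_self_nonneg (Δ 1)]
    have hΔi : |Δ i| = ρ * |(L t).v i - (L t').v i| := by
      rw [hΔ]
      simp only [Pi.smul_apply, Pi.sub_apply, smul_eq_mul]
      rw [abs_mul, abs_of_nonneg hρ, abs_sub_comm]
    have hri : r0 ^ 2 ≤ Δ i ^ 2 := by
      rw [← sq_abs (Δ i), hΔi]
      exact pow_le_pow_left₀ hr0.le hi 2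
    have : r0 ^ 2 ≤ 3 * δ ^ 2 := by linarith
    rw [hδdef] at this
    nlinarith
  -- membership at the two ends and the middle
  have hz1 : z0 ≤ z0 + ρ := by linarith
  have hInK0 : ∀ t ∈ A, InK e c w z0 ((L t).pos z0) := fun t ht => (hin t ht z0 le_rfl hz1).1
  have hInK1 : ∀ t ∈ A, InK e c w (z0 + ρ) ((L t).pos (z0 + ρ)) :=
    fun t ht => (hin t ht (z0 + ρ) hz1 le_rfl).1
  have hval : ∀ t ∈ A, ∀ s : ℝ, 0 ≤ s → s ≤ 1 → |val c0 c1 c2 b d g z0 ρ (L t) s| ≤ a := by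
    intro t ht s hs0 hs1
    have := (hin t ht (z0 + s * ρ) (by nlinarith) (by nlinarith)).2
    rw [hq'] at this
    exact this
  have hbase : ∀ t ∈ A, |(P t).x1| ≤ w 1 ∧ |(P t).x2| ≤ w 2 ∧ |(P t).b1| ≤ 2 * w 1 ∧
      |(P t).b2| ≤ 2 * w 2 ∧ |(P t).b0| ≤ 2 * w 0 := by
    intro t ht
    have hb : ∀ i, |dt (e i) (ρ • ((L t).v - c.v))| ≤ 2 * w i := by
      intro i
      rw [b_eq (e i) c (L t) z0 ρ]
      have h0 := hInK0 t ht i
      have h1 := hInK1 t ht i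
      have := abs_sub (dt (e i) ((L t).pos (z0 + ρ) - c.pos (z0 + ρ)))
        (dt (e i) ((L t).pos z0 - c.pos z0))
      linarith
    exact ⟨hInK0 t ht 1, hInK0 t ht 2, hb 1, hb 2, hb 0⟩
  have hpow : (a * w 1 * w 2 / δ ^ 3) = 8 * (a * w 1 * w 2 / r0 ^ 3) := by
    rw [hδdef]; field_simp; ring
  by_cases hw0 : w 0 ≤ a
  · -- the trivial case
    have htriv := card3 A (fun l => ⌊(P l).b0 / δ⌋) (fun l => ⌊(P l).b1 / δ⌋)
      (fun l => ⌊(P l).b2 / δ⌋) hinj (M0 := 4 * a / δ + 1) (M1 := 4 * w 1 / δ + 1)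
      (M2 := 4 * w 2 / δ + 1) (by positivity) (by positivity) (by positivity)
      (fun l hl l' hl' _ _ => floor_sub_le hδ (by
        have := abs_sub (P l').b0 (P l).b0
        have := (hbase l hl).2.2.2.2
        have := (hbase l' hl').2.2.2.2
        linarith))
      (fun l hl l' hl' _ => floor_sub_le hδ (by
        have := abs_sub (P l').b1 (P l).b1
        have := (hbase l hl).2.2.1
        have := (hbase l' hl').2.2.1
        linarith))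
      (fun l hl l' hl' => floor_sub_le hδ (by
        have := abs_sub (P l').b2 (P l).b2
        have := (hbase l hl).2.2.2.1
        have := (hbase l' hl').2.2.2.1
        linarith))
    have hfr : ∀ y : ℝ, δ ≤ y → 4 * y / δ + 1 + 1 ≤ 6 * y / δ := by
      intro y hy
      have : 1 ≤ y / δ := (one_le_div hδ).2 hy
      have e1 : 4 * y / δ = 4 * (y / δ) := by ring
      have e2 : 6 * y / δ = 6 * (y / δ) := by ring
      rw [e1, e2]; linarith
    calc (A.card : ℝ) ≤ (4 * a / δ + 1 + 1) * (4 * w 1 / δ + 1 + 1) * (4 * w 2 / δ + 1 + 1) :=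
          htriv
      _ ≤ (6 * a / δ) * (6 * w 1 / δ) * (6 * w 2 / δ) := by
          gcongr
          · exact hfr _ hδa
          · exact hfr _ hδw1
          · exact hfr _ hδw2
      _ = 216 * (a * w 1 * w 2 / δ ^ 3) := by field_simp; ring
      _ = 1728 * (a * w 1 * w 2 / r0 ^ 3) := by rw [hpow]; ring
      _ ≤ 128000000 * (N + 2) ^ 2 * (a * w 1 * w 2 / r0 ^ 3) := by
          have h1 : 0 ≤ a * w 1 * w 2 / r0 ^ 3 := by positivity
          have h2 : (1:ℝ) ≤ (N + 2) ^ 2 := by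
            have : (0:ℝ) ≤ N := Nat.cast_nonneg N
            nlinarith
          nlinarith
  · push Not at hw0
    have hw00 : 0 < w 0 := ha.trans hw0
    have hok : ∀ t ∈ A, Ok a δ (w 1) (w 2) (P t) := by
      intro t ht
      obtain ⟨k1, k2, k3, k4, -⟩ := hbase t ht
      have s0 := steep_grad hS.ortho c0 c1 c2 b d g hq' hS.steep hw00 hw1.le hw2.le le_rfl hz1
        (hInK0 t ht)
      have s1 := steep_grad hS.ortho c0 c1 c2 b d g hq' hS.steep hw00 hw1.le hw2.le hz1 le_rfl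
        (hInK1 t ht)
      have l0 := fun k hk => lip_grad hS.ortho c0 c1 c2 b d g hq' hLip hΛ hw1 hw2 le_rfl hz1
        (hInK0 t ht) k hk
      have l1 := fun k hk => lip_grad hS.ortho c0 c1 c2 b d g hq' hLip hΛ hw1 hw2 hz1 le_rfl
        (hInK1 t ht) k hk
      have hsubdt : ∀ (u v y : V3), dt (u - v) y = dt u y - dt v y := by
        intro u v y; simp only [dt, Pi.sub_apply]; ring
      have hΛδ : 2 * Λ * δ ≤ a := by rw [hδdef]; linarith
      have hgn : ∀ k : Fin 3, k ≠ 0 → |dt (gam b d g z0 ((L t).pos z0)) (e k)| * δ ≤ a := by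
        intro k hk
        exact (mul_le_mul_of_nonneg_right (l0 k hk) hδ.le).trans hΛδ
      have hgR : ∀ k : Fin 3, k ≠ 0 → |dt (gam b d g (z0 + ρ) ((L t).pos (z0 + ρ))
          - gam b d g z0 ((L t).pos z0)) (e k)| * δ ≤ 2 * a := by
        intro k hk
        rw [hsubdt]
        have := abs_sub (dt (gam b d g (z0 + ρ) ((L t).pos (z0 + ρ))) (e k))
          (dt (gam b d g z0 ((L t).pos z0)) (e k))
        have h3 := l0 k hk
        have h4 := l1 k hk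
        nlinarith
      exact ⟨k1, k2, k3, k4, s0.1, by
        show |dt (gam b d g (z0 + ρ) ((L t).pos (z0 + ρ))
          - gam b d g z0 ((L t).pos z0)) (e 0)| ≤ 3 / 2
        rw [hsubdt, abs_le]
        constructor <;> linarith [s0.1, s0.2, s1.1, s1.2],
        hgn 1 (by decide), hgn 2 (by decide), hgR 1 (by decide), hgR 2 (by decide)⟩
    have hrel : ∀ t ∈ A, ∀ t' ∈ A, Rel (32 * a) (P t) (P t') := by
      intro t ht t' ht'
      exact mk_rel hS.ortho c c0 c1 c2 b d g z0 ρ a ha.le (L t) (L t')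
        (hval t ht 0 le_rfl (by norm_num)) (hval t ht (1 / 2) (by norm_num) (by norm_num))
        (hval t ht 1 (by norm_num) le_rfl)
        (hval t' ht' 0 le_rfl (by norm_num)) (hval t' ht' (1 / 2) (by norm_num) (by norm_num))
        (hval t' ht' 1 (by norm_num) le_rfl)
    have hNN : 5 * w 1 / δ ≤ 2 ^ N := by
      have : 5 * w 1 / δ = 10 * w 1 / r0 := by rw [hδdef]; field_simp; ring
      rw [this]; exact hN
    have := kr_abs A P hδ hδa hδw1 hδw2 le_rfl hS.w_le hok hinj hrel N hNN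
    rw [hpow] at this
    calc (A.card : ℝ) ≤ 16000000 * (N + 2) ^ 2 * (8 * (a * w 1 * w 2 / r0 ^ 3)) := this
      _ = 128000000 * (N + 2) ^ 2 * (a * w 1 * w 2 / r0 ^ 3) := by ring

end Crest.Agent.R136.KR879
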