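import Crest.Agent.R136.Coi1_102
import Crest.Agent.R136.KapP_335

/-!
# R136 (S0187), PLAN 2, (AL)(A) mixed: curvature from one-sided closeness, algebra (helper44)

`core` : if the normalised quadratic function `Fq b0 b1 G` is small (up to `ε`) at the points
`s1 P1 + s2 P2 + θ Q`, `|θ| ≤ κ`, of a nearly flat piece which spans the tangent box, then its
curvature extent `kap b0 b1 G` is at most `C B^4 (ε + κ)`.
-/

set_option autoImplicit false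
set_option linter.unusedVariables false

namespace Crest.Agent.R136.Kcl44

open Crest.Agent.R136.Sh605 Crest.Agent.R136.Tl102

/-- symmetric bilinear form of `M` -/
noncomputable def bl (M : QF) (x y : V3) : ℝ :=
  M.yy * (x 0 * y 0) + M.yu * ((x 0 * y 1 + x 1 * y 0) / 2) + M.yv * ((x 0 * y 2 + x 2 * y 0) / 2) +
    (M.uu * (x 1 * y 1) + M.uv * ((x 1 * y 2 + x 2 * y 1) / 2) + M.vv * (x 2 * y 2))

/-- sum of the absolute values -/
def sm (x : V3) : ℝ := |x 0| + |x 1| + |x 2|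

theorem bl_le {M : QF} (hM : M.Le 1) {x y : V3} (hy : ∀ i, |y i| ≤ 1) :
    |bl M x y| ≤ 2 * sm x := by
  obtain ⟨m1, m2, m3, m4, m5, m6⟩ := hM
  have y0 := hy 0
  have y1 := hy 1
  have y2 := hy 2
  have p : ∀ i j : Fin 3, |x i * y j| ≤ |x i| := by
    intro i j
    rw [abs_mul]
    exact mul_le_of_le_one_right (abs_nonneg _) (hy j)
  have g : ∀ {m z X : ℝ}, |m| ≤ 1 → |z| ≤ X → |m * z| ≤ X := by
    intro m z X hm hz
    rw [abs_mul]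
    exact (mul_le_of_le_one_left (abs_nonneg _) hm).trans hz
  have h : ∀ {s t S T : ℝ}, |s| ≤ S → |t| ≤ T → |(s + t) / 2| ≤ (S + T) / 2 := by
    intro s t S T hs ht
    rw [abs_div, abs_of_pos (by norm_num : (0:ℝ) < 2)]
    have := abs_add_le s t
    linarith
  have a1 := g m1 (p 0 0)
  have a2 := g m2 (h (p 0 1) (p 1 0))
  have a3 := g m3 (h (p 0 2) (p 2 0))
  have a4 := g m4 (p 1 1)
  have a5 := g m5 (h (p 1 2) (p 2 1))
  have a6 := g m6 (p 2 2)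
  unfold bl sm
  rw [abs_le] at *
  constructor <;>
    linarith [a1.1, a1.2, a2.1, a2.2, a3.1, a3.2, a4.1, a4.2, a5.1, a5.2, a6.1, a6.2]

theorem ev_le {M : QF} (hM : M.Le 1) {y : V3} (hy : ∀ i, |y i| ≤ 1) : |M.ev y| ≤ 6 := by
  have h := bl_le hM (x := y) hy
  have e : bl M y y = M.ev y := by unfold bl QF.ev; ring
  rw [e] at h
  have := hy 0
  have := hy 1
  have := hy 2
  unfold sm at h
  linarith

/-- the linear part at the height `ζ` -/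
theorem lin_Q {b0 b1 : V3} {G : QF} (N : NrmC b0 b1 G) {ζ : ℝ} (h0 : 0 ≤ ζ) (h1 : ζ ≤ 1) {y : V3}
    (hy : ∀ i, |y i| ≤ 1) : |dt (bz b0 b1 ζ) y| ≤ 4 := by
  obtain ⟨g1, g2, g3, g4, -, -, -, -, -⟩ := N.b1_le
  have c0 : |bz b0 b1 ζ 0| ≤ 2 := by
    change |b0 0 + ζ * b1 0| ≤ 2
    rw [abs_le]
    constructor <;> nlinarith
  have cb : ∀ {x y : ℝ}, |x| ≤ 1 → |x + y| ≤ 1 → |x + ζ * y| ≤ 1 := by
    intro x y hx hxy
    rw [abs_le] at *
    have e : x + ζ * y = (1 - ζ) * x + ζ * (x + y) := by ring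
    rw [e]
    constructor
    · nlinarith [hx.1, hxy.1]
    · nlinarith [hx.2, hxy.2]
  have c1 : |bz b0 b1 ζ 1| ≤ 1 := cb N.b01 N.b11
  have c2 : |bz b0 b1 ζ 2| ≤ 1 := cb N.b02 N.b12
  unfold dt
  have a0 := mul_abs_le c0 (hy 0)
  have a1 := mul_abs_le c1 (hy 1)
  have a2 := mul_abs_le c2 (hy 2)
  exact (Arc880.abs_add2 (Arc880.abs_add2 a0 a1) a2).trans (by norm_num)

theorem lin_P {b0 b1 : V3} {G : QF} (N : NrmC b0 b1 G) {ζ : ℝ} (h0 : 0 ≤ ζ) (h1 : ζ ≤ 1) (x : V3) :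
    |x 0| / 2 ≤ |dt (bz b0 b1 ζ) x| + |x 1| + |x 2| := by
  obtain ⟨g1, g2, g3, g4, -, -, -, -, -⟩ := N.b1_le
  have c0 : 1 / 2 ≤ bz b0 b1 ζ 0 := by
    change 1 / 2 ≤ b0 0 + ζ * b1 0
    nlinarith
  have cb : ∀ {x y : ℝ}, |x| ≤ 1 → |x + y| ≤ 1 → |x + ζ * y| ≤ 1 := by
    intro x y hx hxy
    rw [abs_le] at *
    have e : x + ζ * y = (1 - ζ) * x + ζ * (x + y) := by ring
    rw [e]
    constructor
    · nlinarith [hx.1, hxy.1]
    · nlinarith [hx.2, hxy.2]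
  have c1 : |bz b0 b1 ζ 1| ≤ 1 := cb N.b01 N.b11
  have c2 : |bz b0 b1 ζ 2| ≤ 1 := cb N.b02 N.b12
  have e1 : bz b0 b1 ζ 0 * x 0 = dt (bz b0 b1 ζ) x - bz b0 b1 ζ 1 * x 1 - bz b0 b1 ζ 2 * x 2 := by
    unfold dt; ring
  have a1 : |bz b0 b1 ζ 1 * x 1| ≤ |x 1| := by
    rw [abs_mul]; exact mul_le_of_le_one_left (abs_nonneg _) c1
  have a2 : |bz b0 b1 ζ 2 * x 2| ≤ |x 2| := by
    rw [abs_mul]; exact mul_le_of_le_one_left (abs_nonneg _) c2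
  have a0 : |bz b0 b1 ζ 0 * x 0| ≤ |dt (bz b0 b1 ζ) x| + |x 1| + |x 2| := by
    rw [e1]
    exact Arc880.abs_sub2 (Arc880.abs_sub2 le_rfl a1) a2
  rw [abs_mul, abs_of_pos (by linarith : 0 < bz b0 b1 ζ 0)] at a0
  nlinarith [abs_nonneg (x 0)]

/-- odd and even part of the function along one direction -/
theorem odd_even {b0 b1 : V3} {G : QF} (N : NrmC b0 b1 G) {ζ : ℝ} (h0 : 0 ≤ ζ) (h1 : ζ ≤ 1)
    {P Q : V3} {t θ θ' κ ε B : ℝ} (ht : 0 < t) (ht1 : t ≤ 1) (hB : 1 ≤ B) (hQ : ∀ i, |Q i| ≤ 1)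
    (hθ : |θ| ≤ κ) (hθ' : |θ'| ≤ κ) (hκ : κ ≤ 1 / 16) (hεκ : ε + 7 * κ ≤ t)
    (p1 : |P 1| ≤ B) (p2 : |P 2| ≤ B)
    (f : |Fq b0 b1 G ζ (t • P + θ • Q)| ≤ ε) (f' : |Fq b0 b1 G ζ ((-t) • P + θ' • Q)| ≤ ε) :
    sm P ≤ 16 * B ∧ |dt (bz b0 b1 ζ) P| ≤ 74 * B * (ε + κ) / t ^ 2 ∧
      |G.ev P| ≤ 74 * B * (ε + κ) / t ^ 2 := by
  have hκ0 : 0 ≤ κ := (abs_nonneg _).trans hθ
  have hε0 : 0 ≤ ε := (abs_nonneg _).trans f
  have lQ := lin_Q N h0 h1 hQ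
  have gQ := ev_le N.G_le hQ
  have bQ := bl_le N.G_le (x := P) hQ
  have lP := lin_P N h0 h1 P
  set L := dt (bz b0 b1 ζ) P with hL
  set l := dt (bz b0 b1 ζ) Q with hl
  set b := bl G P Q with hb
  have e1 : Fq b0 b1 G ζ (t • P + θ • Q) = t * L + θ * l + t ^ 2 * G.ev P + 2 * (t * θ * b) +
      θ ^ 2 * G.ev Q := by
    rw [hL, hl, hb]
    simp only [Fq, dt, QF.ev, bl, Pi.add_apply, Pi.smul_apply, smul_eq_mul]
    ring
  have e2 : Fq b0 b1 G ζ ((-t) • P + θ' • Q) = -t * L + θ' * l + t ^ 2 * G.ev P -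
      2 * (t * θ' * b) + θ' ^ 2 * G.ev Q := by
    rw [hL, hl, hb]
    simp only [Fq, dt, QF.ev, bl, Pi.add_apply, Pi.smul_apply, smul_eq_mul]
    ring
  rw [e1] at f
  rw [e2] at f'
  have t1 : |θ * l| ≤ κ * 4 := mul_abs_le hθ lQ
  have t2 : |θ' * l| ≤ κ * 4 := mul_abs_le hθ' lQ
  have tb : ∀ {x : ℝ}, |x| ≤ κ → |t * x * b| ≤ t * κ * (2 * sm P) := by
    intro x hx
    exact mul_abs_le (mul_abs_le (by rw [abs_of_pos ht]) hx) bQ
  have t3 := tb hθ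
  have t4 := tb hθ'
  have tq : ∀ {x : ℝ}, |x| ≤ κ → |x ^ 2 * G.ev Q| ≤ κ * (1 / 16) * 6 := by
    intro x hx
    refine mul_abs_le ?_ gQ
    rw [sq]
    exact mul_abs_le hx (hx.trans hκ)
  have t5 := tq hθ
  have t6 := tq hθ'
  have hS0 : 0 ≤ sm P := by unfold sm; positivity
  have tκ : t * κ * (2 * sm P) ≤ κ * (2 * sm P) := by
    have h3 : t * κ ≤ 1 * κ := mul_le_mul_of_nonneg_right ht1 hκ0
    rw [one_mul] at h3
    exact mul_le_mul_of_nonneg_right h3 (by linarith)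
  -- odd part
  have o1 : t * |L| ≤ ε + 4 * κ + κ + 2 * (t * κ * (2 * sm P)) := by
    rw [← abs_of_pos ht, ← abs_mul, abs_of_pos ht]
    rw [abs_le] at f f' t1 t2 t3 t4 t5 t6 ⊢
    constructor <;> linarith [f.1, f.2, f'.1, f'.2, t1.1, t1.2, t2.1, t2.2, t3.1, t3.2, t4.1, t4.2,
      t5.1, t5.2, t6.1, t6.2]
  have v1 : t ^ 2 * |G.ev P| ≤ ε + 4 * κ + κ + 2 * (t * κ * (2 * sm P)) := by
    have ht2 : 0 < t ^ 2 := by positivity
    have e0 : t ^ 2 * |G.ev P| = |t ^ 2 * G.ev P| := by rw [abs_mul, abs_of_pos ht2]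
    rw [e0]
    rw [abs_le] at f f' t1 t2 t3 t4 t5 t6 ⊢
    constructor <;> linarith [f.1, f.2, f'.1, f'.2, t1.1, t1.2, t2.1, t2.2, t3.1, t3.2, t4.1, t4.2,
      t5.1, t5.2, t6.1, t6.2]
  -- size of `P 0`
  have o2 : |L| ≤ 1 + 4 * κ * sm P := by
    by_contra hc
    push Not at hc
    have h3 : t * (1 + 4 * κ * sm P) < t * |L| := mul_lt_mul_of_pos_left hc ht
    have h4 : t * (1 + 4 * κ * sm P) = t + 2 * (t * κ * (2 * sm P)) := by ring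
    linarith
  have hsm : sm P ≤ 16 * B := by
    have h4 : 4 * κ * sm P ≤ 1 / 4 * sm P := mul_le_mul_of_nonneg_right (by linarith) hS0
    have h5 : sm P = |P 0| + |P 1| + |P 2| := rfl
    linarith
  have o3 : t * |L| ≤ ε + 5 * κ + 64 * B * κ := by
    have h6 : κ * (2 * sm P) ≤ κ * (2 * (16 * B)) := by
      apply mul_le_mul_of_nonneg_left _ hκ0; linarith
    linarith
  have v3 : t ^ 2 * |G.ev P| ≤ ε + 5 * κ + 64 * B * κ := by
    have h6 : κ * (2 * sm P) ≤ κ * (2 * (16 * B)) := by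
      apply mul_le_mul_of_nonneg_left _ hκ0; linarith
    linarith
  have big : ε + 5 * κ + 64 * B * κ ≤ 74 * B * (ε + κ) := by
    have h7 : ε ≤ B * ε := le_mul_of_one_le_left hε0 hB
    have h8 : κ ≤ B * κ := le_mul_of_one_le_left hκ0 hB
    have h9 : 74 * B * (ε + κ) = 74 * (B * ε) + 74 * (B * κ) := by ring
    have h10 : 0 ≤ B * ε := mul_nonneg (by linarith) hε0
    have h11 : 0 ≤ B * κ := mul_nonneg (by linarith) hκ0
    have h12 : 64 * B * κ = 64 * (B * κ) := by ring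
    rw [h9, h12]
    linarith
  have ht2 : 0 < t ^ 2 := by positivity
  refine ⟨hsm, ?_, ?_⟩
  · rw [le_div_iff₀ ht2]
    have h9 : |L| * t ^ 2 ≤ t * |L| := by
      have h10 : t ^ 2 ≤ t := by nlinarith
      rw [mul_comm t]
      exact mul_le_mul_of_nonneg_left h10 (abs_nonneg L)
    linarith
  · rw [le_div_iff₀ ht2]
    linarith

/-- **curvature extent from smallness on a nearly flat piece** -/
theorem core {b0 b1 : V3} {G : QF} (N : NrmC b0 b1 G) {P₁ P₂ Q : V3} {t κ ε B : ℝ} (ht : 0 < t)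
    (ht1 : t ≤ 1) (hB : 1 ≤ B) (hε : 0 ≤ ε) (hκ : 0 ≤ κ) (hQ : ∀ i, |Q i| ≤ 1)
    (p11 : |P₁ 1| ≤ B) (p12 : |P₁ 2| ≤ B) (p21 : |P₂ 1| ≤ B) (p22 : |P₂ 2| ≤ B)
    (hF : ∀ ζ, 0 ≤ ζ → ζ ≤ 1 → ∀ s₁ s₂ : ℝ, |s₁| ≤ t → |s₂| ≤ t → ∃ θ, |θ| ≤ κ ∧
      |Fq b0 b1 G ζ (s₁ • P₁ + s₂ • P₂ + θ • Q)| ≤ ε)
    (h0 : ∃ α β h : ℝ, |α| ≤ B ∧ |β| ≤ B ∧ |h| ≤ 5 ∧
      (![1, 0, 0] : V3) = α • P₁ + β • P₂ + h • Q)
    (h1 : ∃ α β h : ℝ, |α| ≤ B ∧ |β| ≤ B ∧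
      (![-(b0 1 / b0 0), 1, 0] : V3) = α • P₁ + β • P₂ + h • Q)
    (h2 : ∃ α β h : ℝ, |α| ≤ B ∧ |β| ≤ B ∧
      (![-(b0 2 / b0 0), 0, 1] : V3) = α • P₁ + β • P₂ + h • Q) :
    kap b0 b1 G ≤ 2000000 * B ^ 4 * (ε + κ) / t ^ 2 := by
  have ht2 : 0 < t ^ 2 := by positivity
  have hs0 : 0 ≤ ε + κ := by linarith
  have hB2 : 1 ≤ B ^ 2 := one_le_pow₀ hB
  by_cases hsm : 1184 * B ^ 2 * (ε + κ) ≤ t ^ 2
  swap
  · -- trivial case
    push Not at hsm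
    refine (kap_le N).trans ?_
    rw [le_div_iff₀ ht2]
    have h3 : B ^ 2 * (ε + κ) ≤ B ^ 4 * (ε + κ) :=
      mul_le_mul_of_nonneg_right (pow_le_pow_right₀ hB (by norm_num)) hs0
    have h4 : 1184 * B ^ 2 * (ε + κ) = 1184 * (B ^ 2 * (ε + κ)) := by ring
    have h5 : 2000000 * B ^ 4 * (ε + κ) = 2000000 * (B ^ 4 * (ε + κ)) := by ring
    have h6 : 0 ≤ B ^ 2 * (ε + κ) := by positivity
    rw [h4] at hsm
    rw [h5]
    linarith
  -- small case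
  have hεκ' : 1184 * (ε + κ) ≤ t ^ 2 := by
    have h3 : ε + κ ≤ B ^ 2 * (ε + κ) := le_mul_of_one_le_left hs0 hB2
    have h4 : 1184 * B ^ 2 * (ε + κ) = 1184 * (B ^ 2 * (ε + κ)) := by ring
    linarith
  have htt : t ^ 2 ≤ t := by nlinarith
  have hκs : κ ≤ 1 / 16 := by linarith
  have hεκ : ε + 7 * κ ≤ t := by linarith
  have one_dir : ∀ (P : V3) (C : ℝ), 1 ≤ C → |P 1| ≤ C → |P 2| ≤ C →
      (∀ ζ, 0 ≤ ζ → ζ ≤ 1 → ∀ s : ℝ, |s| ≤ t → ∃ θ, |θ| ≤ κ ∧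
        |Fq b0 b1 G ζ (s • P + θ • Q)| ≤ ε) →
      sm P ≤ 16 * C ∧ (∀ ζ, 0 ≤ ζ → ζ ≤ 1 →
        |dt (bz b0 b1 ζ) P| ≤ 74 * C * (ε + κ) / t ^ 2) ∧
        |G.ev P| ≤ 74 * C * (ε + κ) / t ^ 2 := by
    intro P C hC q1 q2 hf
    have key : ∀ ζ, 0 ≤ ζ → ζ ≤ 1 → sm P ≤ 16 * C ∧
        |dt (bz b0 b1 ζ) P| ≤ 74 * C * (ε + κ) / t ^ 2 ∧
        |G.ev P| ≤ 74 * C * (ε + κ) / t ^ 2 := by
      intro ζ z0 z1
      obtain ⟨θ, a1, a2⟩ := hf ζ z0 z1 t (by rw [abs_of_pos ht])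
      obtain ⟨θ', a3, a4⟩ := hf ζ z0 z1 (-t) (by rw [abs_neg, abs_of_pos ht])
      exact odd_even N z0 z1 ht ht1 hC hQ a1 a3 hκs hεκ q1 q2 a2 a4
    obtain ⟨k1, -, k3⟩ := key 0 le_rfl zero_le_one
    exact ⟨k1, fun ζ z0 z1 => (key ζ z0 z1).2.1, k3⟩
  obtain ⟨u1, u2, u3⟩ := one_dir P₁ B hB p11 p12 (by
    intro ζ z0 z1 s hs
    obtain ⟨θ, a1, a2⟩ := hF ζ z0 z1 s 0 hs (by rw [abs_zero]; exact ht.le)
    rw [zero_smul, add_zero] at a2
    exact ⟨θ, a1, a2⟩)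
  obtain ⟨v1, v2, v3⟩ := one_dir P₂ B hB p21 p22 (by
    intro ζ z0 z1 s hs
    obtain ⟨θ, a1, a2⟩ := hF ζ z0 z1 0 s (by rw [abs_zero]; exact ht.le) hs
    rw [zero_smul, zero_add] at a2
    exact ⟨θ, a1, a2⟩)
  obtain ⟨-, -, x3⟩ := one_dir (P₁ + P₂) (2 * B) (by linarith)
    ((abs_add_le _ _).trans (by linarith)) ((abs_add_le _ _).trans (by linarith)) (by
    intro ζ z0 z1 s hs
    obtain ⟨θ, a1, a2⟩ := hF ζ z0 z1 s s hs hs
    rw [← smul_add] at a2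
    exact ⟨θ, a1, a2⟩)
  -- δ
  set δ := 148 * B * (ε + κ) / t ^ 2 with hδ
  have hδ0 : 0 ≤ δ := by rw [hδ]; positivity
  have e148 : 74 * (2 * B) * (ε + κ) / t ^ 2 = δ := by rw [hδ]; ring
  have e74 : 74 * B * (ε + κ) / t ^ 2 = δ / 2 := by rw [hδ]; ring
  rw [e74] at u2 u3 v2 v3
  rw [e148] at x3
  have hBδ : B * δ ≤ 1 / 8 := by
    have h3 : B * δ = 148 * B ^ 2 * (ε + κ) / t ^ 2 := by rw [hδ]; ring
    rw [h3, div_le_iff₀ ht2]
    linarith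
  have gP12 : |bl G P₁ P₂| ≤ δ := by
    have e1 : 2 * bl G P₁ P₂ = G.ev (P₁ + P₂) - G.ev P₁ - G.ev P₂ := by
      simp only [bl, QF.ev, Pi.add_apply]; ring
    have h3 : |2 * bl G P₁ P₂| ≤ δ + δ / 2 + δ / 2 := by
      rw [e1]; exact Arc880.abs_sub2 (Arc880.abs_sub2 x3 u3) v3
    rw [abs_mul, abs_of_pos (by norm_num : (0:ℝ) < 2)] at h3
    linarith
  have bP1 : |bl G P₁ Q| ≤ 32 * B := (bl_le N.G_le hQ).trans (by linarith)
  have bP2 : |bl G P₂ Q| ≤ 32 * B := (bl_le N.G_le hQ).trans (by linarith)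
  have gQ := ev_le N.G_le hQ
  -- values of `b0`, `b1`
  have L0 : ∀ x, dt (bz b0 b1 0) x = dt b0 x := by
    intro x; simp only [dt, bz]; ring
  have L1 : ∀ x, dt b1 x = dt (bz b0 b1 1) x - dt (bz b0 b1 0) x := by
    intro x; simp only [dt, bz]; ring
  have a1 : |dt b0 P₁| ≤ δ / 2 := by rw [← L0]; exact u2 0 le_rfl zero_le_one
  have a2 : |dt b0 P₂| ≤ δ / 2 := by rw [← L0]; exact v2 0 le_rfl zero_le_one
  have c1 : |dt b1 P₁| ≤ δ := by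
    rw [L1]
    have := Arc880.abs_sub2 (u2 1 zero_le_one le_rfl) (u2 0 le_rfl zero_le_one)
    linarith
  have c2 : |dt b1 P₂| ≤ δ := by
    rw [L1]
    have := Arc880.abs_sub2 (v2 1 zero_le_one le_rfl) (v2 0 le_rfl zero_le_one)
    linarith
  have cQ : |dt b1 Q| ≤ 8 := by
    rw [L1]
    have := Arc880.abs_sub2 (lin_Q N zero_le_one le_rfl hQ) (lin_Q N le_rfl zero_le_one hQ)
    linarith
  obtain ⟨g1, g2, -, -, -, -, -, -, -⟩ := N.b1_le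
  have hb0 : b0 0 ≠ 0 := by linarith
  -- `b0 · Q` is not small
  have bQ : 1 / 20 ≤ |dt b0 Q| := by
    obtain ⟨α, β, h, hα, hβ, hh, he⟩ := h0
    have e1 : b0 0 = α * dt b0 P₁ + β * dt b0 P₂ + h * dt b0 Q := by
      have e2 : dt b0 (![1, 0, 0] : V3) = b0 0 := by simp [dt]
      rw [← e2, he]
      simp only [dt, Pi.add_apply, Pi.smul_apply, smul_eq_mul]
      ring
    have h3 : |b0 0| ≤ B * (δ / 2) + B * (δ / 2) + 5 * |dt b0 Q| := by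
      conv_lhs => rw [e1]
      exact Arc880.abs_add2 (Arc880.abs_add2 (mul_abs_le hα a1) (mul_abs_le hβ a2))
        (mul_abs_le hh le_rfl)
    rw [abs_of_pos (by linarith : 0 < b0 0)] at h3
    have h4 : B * (δ / 2) = B * δ / 2 := by ring
    rw [h4] at h3
    linarith
  -- the third coordinate of the tangent vectors
  have hsize : ∀ {x : V3} {α β h : ℝ}, |α| ≤ B → |β| ≤ B → dt b0 x = 0 →
      x = α • P₁ + β • P₂ + h • Q → |h| ≤ 20 * (B * δ) := by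
    intro x α β h hα hβ hx he
    have e1 : h * dt b0 Q = -(α * dt b0 P₁) - β * dt b0 P₂ := by
      have e2 : dt b0 x = α * dt b0 P₁ + β * dt b0 P₂ + h * dt b0 Q := by
        rw [he]
        simp only [dt, Pi.add_apply, Pi.smul_apply, smul_eq_mul]
        ring
      linarith
    have h3 : |h * dt b0 Q| ≤ B * (δ / 2) + B * (δ / 2) := by
      rw [e1]
      refine Arc880.abs_sub2 ?_ (mul_abs_le hβ a2)
      rw [abs_neg]
      exact mul_abs_le hα a1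
    rw [abs_mul] at h3
    have h4 : |h| * (1 / 20) ≤ |h| * |dt b0 Q| := mul_le_mul_of_nonneg_left bQ (abs_nonneg h)
    linarith
  have hlin : ∀ {x : V3} {α β h : ℝ}, |α| ≤ B → |β| ≤ B → dt b0 x = 0 →
      x = α • P₁ + β • P₂ + h • Q → |dt b1 x| ≤ 162 * (B * δ) := by
    intro x α β h hα hβ hx he
    have hh := hsize hα hβ hx he
    have e2 : dt b1 x = α * dt b1 P₁ + β * dt b1 P₂ + h * dt b1 Q := by
      rw [he]
      simp only [dt, Pi.add_apply, Pi.smul_apply, smul_eq_mul]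
      ring
    rw [e2]
    refine (Arc880.abs_add2 (Arc880.abs_add2 (mul_abs_le hα c1) (mul_abs_le hβ c2))
      (mul_abs_le hh cQ)).trans ?_
    linarith
  have hbl : ∀ {x y : V3} {α β h α' β' h' : ℝ}, |α| ≤ B → |β| ≤ B → |α'| ≤ B → |β'| ≤ B →
      dt b0 x = 0 → dt b0 y = 0 → x = α • P₁ + β • P₂ + h • Q →
      y = α' • P₁ + β' • P₂ + h' • Q → |bl G x y| ≤ 3000 * (B ^ 3 * δ) := by
    intro x y α β h α' β' h' hα hβ hα' hβ' hx hy he he'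
    have hh := hsize hα hβ hx he
    have hh' := hsize hα' hβ' hy he'
    have e2 : bl G x y = α * α' * G.ev P₁ + β * β' * G.ev P₂ + (α * β' + β * α') * bl G P₁ P₂ +
        h' * (α * bl G P₁ Q + β * bl G P₂ Q) + h * (α' * bl G P₁ Q + β' * bl G P₂ Q) +
        h * h' * G.ev Q := by
      rw [he, he']
      simp only [bl, QF.ev, Pi.add_apply, Pi.smul_apply, smul_eq_mul]
      ring
    rw [e2]
    have s1 := mul_abs_le (mul_abs_le hα hα') u3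
    have s2 := mul_abs_le (mul_abs_le hβ hβ') v3
    have s3 := mul_abs_le (Arc880.abs_add2 (mul_abs_le hα hβ') (mul_abs_le hβ hα')) gP12
    have s4 := mul_abs_le hh' (Arc880.abs_add2 (mul_abs_le hα bP1) (mul_abs_le hβ bP2))
    have s5 := mul_abs_le hh (Arc880.abs_add2 (mul_abs_le hα' bP1) (mul_abs_le hβ' bP2))
    have s6 := mul_abs_le (mul_abs_le hh hh') gQ
    refine (Arc880.abs_add2 (Arc880.abs_add2 (Arc880.abs_add2 (Arc880.abs_add2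
      (Arc880.abs_add2 s1 s2) s3) s4) s5) s6).trans ?_
    have m1 : B * δ ≤ B ^ 3 * δ := by
      apply mul_le_mul_of_nonneg_right _ hδ0
      calc B = B ^ 1 := (pow_one B).symm
        _ ≤ B ^ 3 := pow_le_pow_right₀ hB (by norm_num)
    have m2 : B ^ 2 * δ ≤ B ^ 3 * δ :=
      mul_le_mul_of_nonneg_right (pow_le_pow_right₀ hB (by norm_num)) hδ0
    have m3 : B * δ * (B * δ) ≤ 1 / 8 * (B * δ) :=
      mul_le_mul_of_nonneg_right hBδ (by positivity)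
    have m4 : B * B * (δ / 2) + B * B * (δ / 2) + (B * B + B * B) * δ +
        20 * (B * δ) * (B * (32 * B) + B * (32 * B)) +
        20 * (B * δ) * (B * (32 * B) + B * (32 * B)) + 20 * (B * δ) * (20 * (B * δ)) * 6 =
        3 * (B ^ 2 * δ) + 2560 * (B ^ 3 * δ) + 2400 * (B * δ * (B * δ)) := by ring
    rw [m4]
    have m5 : 0 ≤ B ^ 3 * δ := by positivity
    linarith
  obtain ⟨α, β, h, hα, hβ, he⟩ := h1
  obtain ⟨α', β', h', hα', hβ', he'⟩ := h2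
  have z1 : dt b0 (![-(b0 1 / b0 0), 1, 0] : V3) = 0 := by
    simp only [dt, Matrix.cons_val]
    field_simp
    ring
  have z2 : dt b0 (![-(b0 2 / b0 0), 0, 1] : V3) = 0 := by
    simp only [dt, Matrix.cons_val]
    field_simp
    ring
  have r1 := hlin hα hβ z1 he
  have r2 := hlin hα' hβ' z2 he'
  have r3 := hbl hα hβ hα hβ z1 z1 he he
  have r4 := hbl hα hβ hα' hβ' z1 z2 he he'
  have r5 := hbl hα' hβ' hα' hβ' z2 z2 he' he'
  have w1 : shB1 b0 b1 1 = dt b1 (![-(b0 1 / b0 0), 1, 0] : V3) := by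
    simp only [shB1, dt, Matrix.cons_val]; ring
  have w2 : shB1 b0 b1 2 = dt b1 (![-(b0 2 / b0 0), 0, 1] : V3) := by
    simp only [shB1, dt, Matrix.cons_val]; ring
  have w3 : (shG b0 G).uu = bl G (![-(b0 1 / b0 0), 1, 0] : V3) (![-(b0 1 / b0 0), 1, 0] : V3) := by
    simp only [shG, bl, Matrix.cons_val]; ring
  have w4 : (shG b0 G).uv =
      2 * bl G (![-(b0 1 / b0 0), 1, 0] : V3) (![-(b0 2 / b0 0), 0, 1] : V3) := by
    simp only [shG, bl, Matrix.cons_val]; ring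
  have w5 : (shG b0 G).vv = bl G (![-(b0 2 / b0 0), 0, 1] : V3) (![-(b0 2 / b0 0), 0, 1] : V3) := by
    simp only [shG, bl, Matrix.cons_val]; ring
  have m1 : B * δ ≤ B ^ 3 * δ := by
    apply mul_le_mul_of_nonneg_right _ hδ0
    calc B = B ^ 1 := (pow_one B).symm
      _ ≤ B ^ 3 := pow_le_pow_right₀ hB (by norm_num)
  have m5 : 0 ≤ B ^ 3 * δ := by positivity
  have fin : kap b0 b1 G ≤ 6000 * (B ^ 3 * δ) := by
    unfold kap
    rw [w1, w2, w3, w4, w5, abs_mul, abs_of_pos (by norm_num : (0:ℝ) < 2)]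
    refine max_le (max_le ?_ ?_) (max_le (max_le ?_ ?_) ?_) <;> linarith
  refine fin.trans ?_
  have h3 : 6000 * (B ^ 3 * δ) = 888000 * B ^ 4 * (ε + κ) / t ^ 2 := by rw [hδ]; ring
  rw [h3]
  apply div_le_div_of_nonneg_right _ ht2.le
  have h4 : 0 ≤ B ^ 4 * (ε + κ) := by positivity
  nlinarith

end Crest.Agent.R136.Kcl44
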