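import Crest.Agent.R136.Kcl1_44
import Crest.Agent.R136.Asm1_102

/-!
# R136 (S0187), PLAN 2, (AL)(A) mixed: curvature from one-sided closeness (helper44)

`kap_of_close` : if the points of the sheet `V` near a common line `T` lie in the sheet `U` fattened
to `E`, then `kapP U ≤ C (E + U.a + kapP V)`.  (No assumption on `V.w 0`, no nondegeneracy.)
`not_close` : the contrapositive, for 208's capture lemma with a flatter sheet `V`.
-/

set_option autoImplicit false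
set_option linter.unusedVariables false

namespace Crest.Agent.R136.Kcl44

open Crest.Agent.R136.Sh605 Crest.Agent.R136.Tl102
open Crest.Agent.R136.K4 (Plk4)
open Crest.Agent.R136.Tlt51 (Shp InP)
open Crest.Agent.R136.Deep51 (CloseC)
open Crest.Agent.R136.KapP335 (kapP expP DetP expP_spec)

/-- size of the base of the points used -/
noncomputable def t0 : ℝ := 1 / 4000

/-- **height of the sheet over its tangent plane** -/
theorem solve {b0 b1 : V3} {G : QF} (N : NrmC b0 b1 G) {ζ u v : ℝ} (h0 : 0 ≤ ζ) (h1 : ζ ≤ 1)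
    (hu : |u| ≤ t0) (hv : |v| ≤ t0) :
    ∃ y : ℝ, |y| ≤ kap b0 b1 G ∧ |y| ≤ 1 / 16 ∧
      Fq (shB0 b0) (shB1 b0 b1) (shG b0 G) ζ ![y, u, v] = 0 := by
  obtain ⟨g1, g2, g3, g4, -, -, -, -, -⟩ := N.b1_le
  obtain ⟨-, -, m3, m4, -, -, -⟩ := N.sh_le
  obtain ⟨m1, -, -, -, -, -⟩ := N.G_le
  have k1 : |shB1 b0 b1 1| ≤ kap b0 b1 G := (le_max_left _ _).trans (le_max_left _ _)
  have k2 : |shB1 b0 b1 2| ≤ kap b0 b1 G := (le_max_right _ _).trans (le_max_left _ _)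
  have k3 : |(shG b0 G).uu| ≤ kap b0 b1 G :=
    (le_max_left _ _).trans ((le_max_left _ _).trans (le_max_right _ _))
  have k4 : |(shG b0 G).uv| ≤ kap b0 b1 G :=
    (le_max_right _ _).trans ((le_max_left _ _).trans (le_max_right _ _))
  have k5 : |(shG b0 G).vv| ≤ kap b0 b1 G := (le_max_right _ _).trans (le_max_right _ _)
  have k0 := kap_nonneg b0 b1 G
  have kM := kap_le N
  set κ := kap b0 b1 G with hκ
  have hζa : |ζ| ≤ 1 := by rw [abs_of_nonneg h0]; exact h1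
  set R : ℝ := ζ * shB1 b0 b1 1 * u + ζ * shB1 b0 b1 2 * v + ((shG b0 G).uu * (u * u) +
    (shG b0 G).uv * (u * v) + (shG b0 G).vv * (v * v)) with hR
  have t0v : t0 = 1 / 4000 := rfl
  have hRle : |R| ≤ κ / 1000 := by
    have a1 := mul_abs_le (mul_abs_le hζa k1) hu
    have a2 := mul_abs_le (mul_abs_le hζa k2) hv
    have a3 := mul_abs_le k3 (mul_abs_le hu hu)
    have a4 := mul_abs_le k4 (mul_abs_le hu hv)
    have a5 := mul_abs_le k5 (mul_abs_le hv hv)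
    refine (Arc880.abs_add2 (Arc880.abs_add2 a1 a2)
      (Arc880.abs_add2 (Arc880.abs_add2 a3 a4) a5)).trans ?_
    rw [t0v]
    linarith
  have eF : ∀ y, Fq (shB0 b0) (shB1 b0 b1) (shG b0 G) ζ ![y, u, v] =
      y * ((b0 0 + ζ * b1 0) + (shG b0 G).yu * u + (shG b0 G).yv * v + G.yy * y) + R := by
    intro y
    rw [hR]
    simp only [Fq, dt, bz, QF.ev, shB0, Matrix.cons_val]
    have e1 : (shG b0 G).yy = G.yy := rfl
    have e2 : shB1 b0 b1 0 = b1 0 := rfl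
    rw [e1, e2]
    ring
  have hsl : ∀ y, |y| ≤ 1 / 16 → 1 / 4 ≤ (b0 0 + ζ * b1 0) + (shG b0 G).yu * u +
      (shG b0 G).yv * v + G.yy * y := by
    intro y hy
    have a1 := mul_abs_le m3 hu
    have a2 := mul_abs_le m4 hv
    have a3 := mul_abs_le m1 hy
    rw [t0v] at a1 a2
    rw [abs_le] at a1 a2 a3
    have a4 : 1 / 2 ≤ b0 0 + ζ * b1 0 := by nlinarith
    linarith [a1.1, a2.1, a3.1]
  set y0 : ℝ := 4 * |R| with hy0
  have y00 : 0 ≤ y0 := by rw [hy0]; positivity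
  have y0k : y0 ≤ κ := by rw [hy0]; linarith
  have y01 : y0 ≤ 1 / 16 := by rw [hy0]; linarith
  have hc : Continuous fun y : ℝ => y * ((b0 0 + ζ * b1 0) + (shG b0 G).yu * u +
      (shG b0 G).yv * v + G.yy * y) + R := by fun_prop
  have hle : -y0 ≤ y0 := by linarith
  have hiv := intermediate_value_Icc hle hc.continuousOn
  have hmem : (0:ℝ) ∈ Set.Icc ((fun y : ℝ => y * ((b0 0 + ζ * b1 0) + (shG b0 G).yu * u +
      (shG b0 G).yv * v + G.yy * y) + R) (-y0)) ((fun y : ℝ => y * ((b0 0 + ζ * b1 0) +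
      (shG b0 G).yu * u + (shG b0 G).yv * v + G.yy * y) + R) y0) := by
    have s1 := hsl (-y0) (by rw [abs_neg, abs_of_nonneg y00]; exact y01)
    have s2 := hsl y0 (by rw [abs_of_nonneg y00]; exact y01)
    have r1 := neg_abs_le R
    have r2 := le_abs_self R
    constructor
    · change -y0 * ((b0 0 + ζ * b1 0) + (shG b0 G).yu * u + (shG b0 G).yv * v + G.yy * -y0) + R ≤ 0
      have := mul_le_mul_of_nonneg_left s1 y00
      have e1 : y0 * (1 / 4) = |R| := by rw [hy0]; ring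
      linarith
    · change 0 ≤ y0 * ((b0 0 + ζ * b1 0) + (shG b0 G).yu * u + (shG b0 G).yv * v + G.yy * y0) + R
      have := mul_le_mul_of_nonneg_left s2 y00
      have e1 : y0 * (1 / 4) = |R| := by rw [hy0]; ring
      linarith
  obtain ⟨y, hy, hy'⟩ := hiv hmem
  have hya : |y| ≤ y0 := abs_le.2 ⟨hy.1, hy.2⟩
  exact ⟨y, hya.trans y0k, hya.trans y01, by rw [eF]; exact hy'⟩

/-- a vector in an orthonormal frame -/
theorem vec_exp {e : Fin 3 → V3} (he : Ortho e) (X : V3) :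
    X = dt (e 0) X • e 0 + dt (e 1) X • e 1 + dt (e 2) X • e 2 := by
  funext j
  have := he.expand X j
  simp only [Pi.add_apply, Pi.smul_apply, smul_eq_mul]
  exact this

section
variable {U V : Plk4} {T : Ln4} {z0 ρ r r' E B lam : ℝ}

theorem pv_add (e : Fin 3 → V3) (w X Y : V3) : pv e w (X + Y) = pv e w X + pv e w Y := by
  funext k
  simp only [pv, Pi.add_apply, dt_add]
  ring

theorem pv_smul (e : Fin 3 → V3) (w X : V3) (c : ℝ) : pv e w (c • X) = c • pv e w X := by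
  funext k
  simp only [pv, Pi.smul_apply, smul_eq_mul, dt_smul]
  ring

/-- **curvature from one-sided closeness** -/
theorem kap_of_close (hr : 0 < r) (hr' : 0 < r') (hρ : 0 ≤ ρ) (hU : Shp U z0 ρ r)
    (hV : Shp V z0 ρ r') (hTU : InP T U z0 ρ) (hTV : InP T V z0 ρ) (hB : 1 ≤ B) (hlam : 1 ≤ lam)
    (v1 : V.w 1 ≤ B * U.w 1) (v2 : V.w 2 ≤ B * U.w 2) (u1 : U.w 1 ≤ B * V.w 1)
    (u2 : U.w 2 ≤ B * V.w 2) (hang : angC U V * U.w 1 ≤ lam * U.w 2)
    (hcl : CloseC V.e V.w V.q V.a U.q E T z0 ρ) :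
    kapP U z0 ρ T ≤ 10 ^ 16 * (B * lam) ^ 4 * (E + U.a + kapP V z0 ρ T) := by
  have hw0 : 0 < U.w 0 := hr.trans_le (hU.r0_le.trans hU.a_le0)
  have hw0' : 0 < V.w 0 := hr'.trans_le (hV.r0_le.trans hV.a_le0)
  have SU : StP U.e U.c U.w U.q z0 ρ := StP.of_shN hU hw0
  have SV : StP V.e V.c V.w V.q z0 ρ := StP.of_shN hV hw0'
  have hw1 := SU.pos 1
  have hw2 := SU.pos 2
  have hw1' := SV.pos 1
  have hw2' := SV.pos 2
  have w02 : U.w 0 ≤ U.w 2 := hU.w0_le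
  have w21 : U.w 2 ≤ U.w 1 := hU.w_le
  have w02' : V.w 0 ≤ V.w 2 := hV.w0_le
  have w21' : V.w 2 ≤ V.w 1 := hV.w_le
  have hwn : ∀ k, U.w k ≠ 0 := fun k => (SU.pos k).ne'
  have hwn' : ∀ k, V.w k ≠ 0 := fun k => (SV.pos k).ne'
  have he := SU.ortho
  have he' := SV.ortho
  obtain ⟨b0, b1, G, hE, hkU⟩ : ∃ b0 b1 G, IsExp U.q U.e U.w T z0 ρ b0 b1 G ∧
      kapP U z0 ρ T = U.w 0 * kap b0 b1 G := ⟨_, _, _, expP_spec SU.isQ hw0.ne' z0 ρ T, rfl⟩
  obtain ⟨b0', b1', G', hE', hkV⟩ : ∃ b0' b1' G', IsExp V.q V.e V.w T z0 ρ b0' b1' G' ∧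
      kapP V z0 ρ T = V.w 0 * kap b0' b1' G' := ⟨_, _, _, expP_spec SV.isQ hw0'.ne' z0 ρ T, rfl⟩
  have N : NrmC b0 b1 G := hE.nrmC SU hρ fun z h1 h2 => (hTU z h1 h2).1
  have N' : NrmC b0' b1' G' := hE'.nrmC SV hρ fun z h1 h2 => (hTV z h1 h2).1
  obtain ⟨g1, g2, -, -, -, -, -, s1, s2⟩ := N.b1_le
  obtain ⟨g1', g2', -, -, -, -, -, s1', s2'⟩ := N'.b1_le
  set σ₁ := b0' 1 / b0' 0 with hσ₁
  set σ₂ := b0' 2 / b0' 0 with hσ₂
  -- physical vectors
  set τ₁ : V3 := V.w 1 • V.e 1 - (σ₁ * V.w 0) • V.e 0 with hτ₁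
  set τ₂ : V3 := V.w 2 • V.e 2 - (σ₂ * V.w 0) • V.e 0 with hτ₂
  set ν : V3 := U.w 0 • V.e 0 with hν
  have ang21 : |dt (U.e 2) (V.e 1)| ≤ angC U V := (le_max_right _ _).trans (le_max_right _ _)
  have ang12 : |dt (U.e 1) (V.e 2)| ≤ angC U V := (le_max_right _ _).trans (le_max_left _ _)
  have d1 : ∀ i j, |dt (U.e i) (V.e j)| ≤ 1 := fun i j => dt_le_one he he' i j
  have d1' : ∀ i j, |dt (V.e i) (U.e j)| ≤ 1 := fun i j => dt_le_one he' he i j
  have hBl : 1 ≤ B * lam := one_le_mul_of_one_le_of_one_le hB hlam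
  have Bl1 : B ≤ B * lam := le_mul_of_one_le_right (by linarith) hlam
  have Bl2 : lam ≤ B * lam := le_mul_of_one_le_left (by linarith) hB
  -- sizes of the second sheet's slopes in physical units
  have q1 : |σ₁ * V.w 0| ≤ 2 * V.w 0 := by
    rw [abs_mul, abs_of_pos hw0']; exact mul_le_mul_of_nonneg_right s1' hw0'.le
  have q2 : |σ₂ * V.w 0| ≤ 2 * V.w 0 := by
    rw [abs_mul, abs_of_pos hw0']; exact mul_le_mul_of_nonneg_right s2' hw0'.le
  have dτ₁ : ∀ X : V3, dt X τ₁ = V.w 1 * dt X (V.e 1) - σ₁ * V.w 0 * dt X (V.e 0) := by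
    intro X; rw [hτ₁, dt_sub, dt_smul, dt_smul]
  have dτ₂ : ∀ X : V3, dt X τ₂ = V.w 2 * dt X (V.e 2) - σ₂ * V.w 0 * dt X (V.e 0) := by
    intro X; rw [hτ₂, dt_sub, dt_smul, dt_smul]
  have p11 : |pv U.e U.w τ₁ 1| ≤ 3 * (B * lam) := by
    change |dt (U.e 1) τ₁ / U.w 1| ≤ _
    rw [abs_div, abs_of_pos hw1, div_le_iff₀ hw1, dτ₁]
    refine (Arc880.abs_sub2 (mul_abs_le (by rw [abs_of_pos hw1'] : |V.w 1| ≤ V.w 1) (d1 1 1))
      (mul_abs_le q1 (d1 1 0))).trans ?_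
    linarith [mul_le_mul_of_nonneg_right Bl1 hw1.le]
  have p12 : |pv U.e U.w τ₁ 2| ≤ 3 * (B * lam) := by
    change |dt (U.e 2) τ₁ / U.w 2| ≤ _
    rw [abs_div, abs_of_pos hw2, div_le_iff₀ hw2, dτ₁]
    refine (Arc880.abs_sub2 (mul_abs_le (by rw [abs_of_pos hw1'] : |V.w 1| ≤ V.w 1) ang21)
      (mul_abs_le q1 (d1 2 0))).trans ?_
    have hang0 : 0 ≤ angC U V := (abs_nonneg _).trans ang21
    have h3 : V.w 1 * angC U V ≤ B * (lam * U.w 2) := by
      calc V.w 1 * angC U V ≤ B * U.w 1 * angC U V := mul_le_mul_of_nonneg_right v1 hang0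
        _ = B * (angC U V * U.w 1) := by ring
        _ ≤ B * (lam * U.w 2) := mul_le_mul_of_nonneg_left hang (by linarith)
    linarith [mul_le_mul_of_nonneg_right Bl1 hw2.le]
  have p21 : |pv U.e U.w τ₂ 1| ≤ 3 * (B * lam) := by
    change |dt (U.e 1) τ₂ / U.w 1| ≤ _
    rw [abs_div, abs_of_pos hw1, div_le_iff₀ hw1, dτ₂]
    refine (Arc880.abs_sub2 (mul_abs_le (by rw [abs_of_pos hw2'] : |V.w 2| ≤ V.w 2) (d1 1 2))
      (mul_abs_le q2 (d1 1 0))).trans ?_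
    linarith [mul_le_mul_of_nonneg_right Bl1 hw1.le]
  have p22 : |pv U.e U.w τ₂ 2| ≤ 3 * (B * lam) := by
    change |dt (U.e 2) τ₂ / U.w 2| ≤ _
    rw [abs_div, abs_of_pos hw2, div_le_iff₀ hw2, dτ₂]
    refine (Arc880.abs_sub2 (mul_abs_le (by rw [abs_of_pos hw2'] : |V.w 2| ≤ V.w 2) (d1 2 2))
      (mul_abs_le q2 (d1 2 0))).trans ?_
    linarith [mul_le_mul_of_nonneg_right Bl1 hw2.le]
  have hQ : ∀ i, |pv U.e U.w ν i| ≤ 1 := by
    intro i
    change |dt (U.e i) ν / U.w i| ≤ 1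
    have hi : U.w 0 ≤ U.w i := by
      fin_cases i
      · exact le_rfl
      · exact w02.trans w21
      · exact w02
    rw [abs_div, abs_of_pos (SU.pos i), div_le_one (SU.pos i), hν, dt_smul, abs_mul,
      abs_of_pos hw0]
    exact (mul_le_of_le_one_right hw0.le (d1 i 0)).trans hi
  -- decomposition of a vector
  have hdec : ∀ X : V3, pv U.e U.w X = (dt (V.e 1) X / V.w 1) • pv U.e U.w τ₁ +
      (dt (V.e 2) X / V.w 2) • pv U.e U.w τ₂ +
      ((dt (V.e 0) X + σ₁ * V.w 0 * (dt (V.e 1) X / V.w 1) +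
        σ₂ * V.w 0 * (dt (V.e 2) X / V.w 2)) / U.w 0) • pv U.e U.w ν := by
    intro X
    rw [← pv_smul, ← pv_smul, ← pv_smul, ← pv_add, ← pv_add]
    congr 1
    conv_lhs => rw [vec_exp he' X]
    rw [hτ₁, hτ₂, hν]
    funext j
    simp only [Pi.add_apply, Pi.sub_apply, Pi.smul_apply, smul_eq_mul]
    field_simp
    ring
  -- the base vectors of the first sheet
  have pvU : ∀ k : Fin 3, pv U.e U.w (U.w k • U.e k) = Pi.single k 1 := by
    intro k
    funext i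
    change dt (U.e i) (U.w k • U.e k) / U.w i = _
    rw [dt_smul, he i k]
    by_cases h : i = k
    · subst h
      rw [if_pos rfl, Pi.single_eq_same, mul_one, div_self (hwn i)]
    · rw [if_neg h, Pi.single_eq_of_ne h, mul_zero, zero_div]
  have x0 : pv U.e U.w (U.w 0 • U.e 0) = ![1, 0, 0] := by
    rw [pvU]; funext i; fin_cases i <;> simp
  have x1 : pv U.e U.w (U.w 1 • U.e 1 - (b0 1 / b0 0) • (U.w 0 • U.e 0)) =
      ![-(b0 1 / b0 0), 1, 0] := by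
    rw [sub_eq_add_neg, ← neg_smul, pv_add, pvU 1, pv_smul U.e U.w (U.w 0 • U.e 0), pvU 0]
    funext i; fin_cases i <;> simp
  have x2 : pv U.e U.w (U.w 2 • U.e 2 - (b0 2 / b0 0) • (U.w 0 • U.e 0)) =
      ![-(b0 2 / b0 0), 0, 1] := by
    rw [sub_eq_add_neg, ← neg_smul, pv_add, pvU 2, pv_smul U.e U.w (U.w 0 • U.e 0), pvU 0]
    funext i; fin_cases i <;> simp
  -- sizes
  have hB3 : (1:ℝ) ≤ 3 * (B * lam) := by linarith
  have a0 : ∀ i, |dt (V.e i) (U.w 0 • U.e 0)| ≤ U.w 0 := by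
    intro i
    rw [dt_smul, abs_mul, abs_of_pos hw0]
    exact mul_le_of_le_one_right hw0.le (d1' i 0)
  have aσ : ∀ {σ : ℝ}, |σ| ≤ 2 → ∀ i, |dt (V.e i) (σ • (U.w 0 • U.e 0))| ≤ 2 * U.w 0 := by
    intro σ hσ i
    rw [dt_smul]
    exact mul_abs_le hσ (a0 i)
  have h0 : ∃ α β h : ℝ, |α| ≤ 3 * (B * lam) ∧ |β| ≤ 3 * (B * lam) ∧ |h| ≤ 5 ∧
      (![1, 0, 0] : V3) = α • pv U.e U.w τ₁ + β • pv U.e U.w τ₂ + h • pv U.e U.w ν := by
    have α1 : |dt (V.e 1) (U.w 0 • U.e 0) / V.w 1| ≤ U.w 0 / V.w 1 := by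
      rw [abs_div, abs_of_pos hw1']; exact div_le_div_of_nonneg_right (a0 1) hw1'.le
    have β1 : |dt (V.e 2) (U.w 0 • U.e 0) / V.w 2| ≤ U.w 0 / V.w 2 := by
      rw [abs_div, abs_of_pos hw2']; exact div_le_div_of_nonneg_right (a0 2) hw2'.le
    have r1 : U.w 0 / V.w 1 ≤ 3 * (B * lam) := by
      rw [div_le_iff₀ hw1']; linarith [mul_le_mul_of_nonneg_right Bl1 hw1'.le]
    have r2 : U.w 0 / V.w 2 ≤ 3 * (B * lam) := by
      rw [div_le_iff₀ hw2']; linarith [mul_le_mul_of_nonneg_right Bl1 hw2'.le]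
    refine ⟨_, _, _, α1.trans r1, β1.trans r2, ?_, by rw [← x0]; exact hdec _⟩
    rw [abs_div, abs_of_pos hw0, div_le_iff₀ hw0]
    have m1 : 2 * V.w 0 * (U.w 0 / V.w 1) ≤ 2 * U.w 0 := by
      have : V.w 0 * (U.w 0 / V.w 1) ≤ U.w 0 := by
        rw [← mul_div_assoc, div_le_iff₀ hw1', mul_comm]
        exact mul_le_mul_of_nonneg_left (w02'.trans w21') hw0.le
      linarith
    have m2 : 2 * V.w 0 * (U.w 0 / V.w 2) ≤ 2 * U.w 0 := by
      have : V.w 0 * (U.w 0 / V.w 2) ≤ U.w 0 := by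
        rw [← mul_div_assoc, div_le_iff₀ hw2', mul_comm]
        exact mul_le_mul_of_nonneg_left w02' hw0.le
      linarith
    refine (Arc880.abs_add2 (Arc880.abs_add2 (a0 0) (mul_abs_le q1 α1)) (mul_abs_le q2 β1)).trans ?_
    linarith
  have h1 : ∃ α β h : ℝ, |α| ≤ 3 * (B * lam) ∧ |β| ≤ 3 * (B * lam) ∧
      (![-(b0 1 / b0 0), 1, 0] : V3) = α • pv U.e U.w τ₁ + β • pv U.e U.w τ₂ +
        h • pv U.e U.w ν := by
    refine ⟨_, _, _, ?_, ?_, by rw [← x1]; exact hdec _⟩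
    · rw [abs_div, abs_of_pos hw1', div_le_iff₀ hw1', dt_sub, dt_smul]
      refine (Arc880.abs_sub2 (mul_abs_le (by rw [abs_of_pos hw1] : |U.w 1| ≤ U.w 1) (d1' 1 1))
        (aσ s1 1)).trans ?_
      linarith [mul_le_mul_of_nonneg_right Bl1 hw1'.le]
    · rw [abs_div, abs_of_pos hw2', div_le_iff₀ hw2', dt_sub, dt_smul]
      have h3 : |U.w 1 * dt (V.e 2) (U.e 1)| ≤ lam * U.w 2 := by
        rw [abs_mul, abs_of_pos hw1, dt_comm]
        calc U.w 1 * |dt (U.e 1) (V.e 2)| ≤ U.w 1 * angC U V :=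
              mul_le_mul_of_nonneg_left ang12 hw1.le
          _ = angC U V * U.w 1 := by ring
          _ ≤ _ := hang
      refine (Arc880.abs_sub2 h3 (aσ s1 2)).trans ?_
      have h4 : lam * U.w 2 ≤ lam * (B * V.w 2) := mul_le_mul_of_nonneg_left u2 (by linarith)
      have h5 : U.w 0 ≤ lam * (B * V.w 2) := by
        calc U.w 0 ≤ U.w 2 := w02
          _ ≤ B * V.w 2 := u2
          _ ≤ lam * (B * V.w 2) := le_mul_of_one_le_left (by positivity) hlam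
      linarith
  have h2 : ∃ α β h : ℝ, |α| ≤ 3 * (B * lam) ∧ |β| ≤ 3 * (B * lam) ∧
      (![-(b0 2 / b0 0), 0, 1] : V3) = α • pv U.e U.w τ₁ + β • pv U.e U.w τ₂ +
        h • pv U.e U.w ν := by
    refine ⟨_, _, _, ?_, ?_, by rw [← x2]; exact hdec _⟩
    · rw [abs_div, abs_of_pos hw1', div_le_iff₀ hw1', dt_sub, dt_smul]
      refine (Arc880.abs_sub2 (mul_abs_le (by rw [abs_of_pos hw2] : |U.w 2| ≤ U.w 2) (d1' 1 2))
        (aσ s2 1)).trans ?_
      linarith [mul_le_mul_of_nonneg_right Bl1 hw1'.le]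
    · rw [abs_div, abs_of_pos hw2', div_le_iff₀ hw2', dt_sub, dt_smul]
      refine (Arc880.abs_sub2 (mul_abs_le (by rw [abs_of_pos hw2] : |U.w 2| ≤ U.w 2) (d1' 2 2))
        (aσ s2 2)).trans ?_
      linarith [mul_le_mul_of_nonneg_right Bl1 hw2'.le]
  -- values
  have hE0 : 0 ≤ E := by
    have h3 : InK V.e T (fun i => V.w i / 8) z0 (T.pos z0) := by
      intro i
      rw [sub_self]
      have : dt (V.e i) (0 : V3) = 0 := by simp [dt]
      rw [this, abs_zero]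
      have := SV.pos i
      positivity
    exact (abs_nonneg _).trans (hcl z0 le_rfl (by linarith) _ h3 (hTV z0 le_rfl (by linarith)).2)
  have hkV0 := kap_nonneg b0' b1' G'
  have ha0 : 0 ≤ U.a := (abs_nonneg _).trans (hTU z0 le_rfl (by linarith)).2
  have ht0 : (0:ℝ) < t0 := by unfold t0; norm_num
  have ht1 : t0 ≤ 1 := by unfold t0; norm_num
  have hF : ∀ ζ, 0 ≤ ζ → ζ ≤ 1 → ∀ s₁ s₂ : ℝ, |s₁| ≤ t0 → |s₂| ≤ t0 →
      ∃ θ, |θ| ≤ V.w 0 * kap b0' b1' G' / U.w 0 ∧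
        |Fq b0 b1 G ζ (s₁ • pv U.e U.w τ₁ + s₂ • pv U.e U.w τ₂ + θ • pv U.e U.w ν)| ≤
          (E + U.a) / U.w 0 := by
    intro ζ z1 z2 s₁ s₂ hs₁ hs₂
    obtain ⟨y, y1, y2, y3⟩ := solve N' z1 z2 hs₁ hs₂
    refine ⟨y * V.w 0 / U.w 0, ?_, ?_⟩
    · rw [abs_div, abs_of_pos hw0, abs_mul, abs_of_pos hw0']
      apply div_le_div_of_nonneg_right _ hw0.le
      rw [mul_comm]
      exact mul_le_mul_of_nonneg_left y1 hw0'.le
    · set z := z0 + ρ * ζ with hz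
      have hz0 : z0 ≤ z := by rw [hz]; nlinarith
      have hz1 : z ≤ z0 + ρ := by rw [hz]; nlinarith
      set D : V3 := cmb (fr V.e V.w) (unsh b0' y s₁ s₂) with hD
      have eD : s₁ • pv U.e U.w τ₁ + s₂ • pv U.e U.w τ₂ + (y * V.w 0 / U.w 0) • pv U.e U.w ν =
          pv U.e U.w D := by
        rw [← pv_smul, ← pv_smul, ← pv_smul, ← pv_add, ← pv_add]
        congr 1
        rw [hτ₁, hτ₂, hν, hD]
        funext j
        simp only [cmb, fr, unsh, Pi.add_apply, Pi.sub_apply, Pi.smul_apply, smul_eq_mul,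
          Matrix.cons_val]
        rw [← hσ₁, ← hσ₂]
        field_simp
        ring
      rw [eD]
      have v0 := hE ζ (pv U.e U.w D)
      rw [cmb_pv he hwn] at v0
      have v0' := hE' ζ (unsh b0' y s₁ s₂)
      rw [Fq_unsh (by linarith : b0' 0 ≠ 0), y3, mul_zero, add_zero] at v0'
      -- the point of the second sheet
      have hbox : InK V.e T (fun i => V.w i / 8) z (T.pos z + D) := by
        intro i
        have e1 : T.pos z + D - T.pos z = D := by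
          funext j; simp
        rw [e1, hD, dt_cmb_fr he', abs_mul, abs_of_pos (SV.pos i)]
        have t0v : t0 = 1 / 4000 := rfl
        have h3 : |unsh b0' y s₁ s₂ i| ≤ 1 / 8 := by
          fin_cases i
          · change |y - b0' 1 / b0' 0 * s₁ - b0' 2 / b0' 0 * s₂| ≤ 1 / 8
            refine (Arc880.abs_sub2 (Arc880.abs_sub2 y2 (mul_abs_le s1' hs₁))
              (mul_abs_le s2' hs₂)).trans ?_
            rw [t0v]; norm_num
          · change |s₁| ≤ 1 / 8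
            rw [t0v] at hs₁; linarith
          · change |s₂| ≤ 1 / 8
            rw [t0v] at hs₂; linarith
        have h4 := mul_le_mul_of_nonneg_left h3 (SV.pos i).le
        change V.w i * _ ≤ V.w i / 8
        linarith
      have hq' : |V.q z (T.pos z + D)| ≤ V.a := by
        rw [v0']
        exact (hTV z hz0 hz1).2
      have hval := hcl z hz0 hz1 _ hbox hq'
      rw [v0] at hval
      have hT0 := (hTU z hz0 hz1).2
      have h5 : |U.w 0 * Fq b0 b1 G ζ (pv U.e U.w D)| ≤ E + U.a := by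
        have e2 : U.w 0 * Fq b0 b1 G ζ (pv U.e U.w D) = (U.q z (T.pos z) +
            U.w 0 * Fq b0 b1 G ζ (pv U.e U.w D)) - U.q z (T.pos z) := by ring
        rw [e2]
        exact Arc880.abs_sub2 hval hT0
      rw [abs_mul, abs_of_pos hw0] at h5
      rw [le_div_iff₀ hw0, mul_comm]
      exact h5
  have main := core N ht0 ht1 hB3 (div_nonneg (by linarith) hw0.le)
    (div_nonneg (mul_nonneg hw0'.le hkV0) hw0.le) hQ p11 p12 p21 p22 hF h0 h1 h2
  rw [hkU, hkV]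
  have h6 := mul_le_mul_of_nonneg_left main hw0.le
  refine h6.trans ?_
  have e3 : U.w 0 * (2000000 * (3 * (B * lam)) ^ 4 * ((E + U.a) / U.w 0 +
      V.w 0 * kap b0' b1' G' / U.w 0) / t0 ^ 2) =
      (2000000 * 81 * 16000000) * ((B * lam) ^ 4 * (E + U.a + V.w 0 * kap b0' b1' G')) := by
    unfold t0
    field_simp
    ring
  rw [e3]
  have h7 : 0 ≤ (B * lam) ^ 4 * (E + U.a + V.w 0 * kap b0' b1' G') := by
    have := mul_nonneg hw0'.le hkV0
    positivity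
  have h8 : 10 ^ 16 * (B * lam) ^ 4 * (E + U.a + V.w 0 * kap b0' b1' G') =
      10 ^ 16 * ((B * lam) ^ 4 * (E + U.a + V.w 0 * kap b0' b1' G')) := by ring
  rw [h8]
  exact mul_le_mul_of_nonneg_right (by norm_num) h7

/-- **a much flatter sheet is not close** -/
theorem not_close (hr : 0 < r) (hr' : 0 < r') (hρ : 0 ≤ ρ) (hU : Shp U z0 ρ r)
    (hV : Shp V z0 ρ r') (hTU : InP T U z0 ρ) (hTV : InP T V z0 ρ) (hB : 1 ≤ B) (hlam : 1 ≤ lam)
    (v1 : V.w 1 ≤ B * U.w 1) (v2 : V.w 2 ≤ B * U.w 2) (u1 : U.w 1 ≤ B * V.w 1)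
    (u2 : U.w 2 ≤ B * V.w 2) (hang : angC U V * U.w 1 ≤ lam * U.w 2)
    (hk : 10 ^ 16 * (B * lam) ^ 4 * (E + U.a + kapP V z0 ρ T) < kapP U z0 ρ T) :
    ¬ CloseC V.e V.w V.q V.a U.q E T z0 ρ := fun h =>
  absurd (kap_of_close hr hr' hρ hU hV hTU hTV hB hlam v1 v2 u1 u2 hang h) (not_le.2 hk)

end

end Crest.Agent.R136.Kcl44
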