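import Crest.Agent.R136.Kcl2_44
import Crest.Agent.R136.Amx3_325

/-!
# R136 (S0187), PLAN 2 (AL) (A): closeness bounds the curvature extent, literal `KapClose`
(helper44)

* `kapClose : Amx325.KapClose` from `Kcl44.kap_of_close`.
-/

set_option autoImplicit false

namespace Crest.Agent.R136.Kcl44

open Crest.Agent.R136.Sh605 Crest.Agent.R136.Pl2
open Crest.Agent.R136.K4 (Plk4)
open Crest.Agent.R136.Tlt51 (Shp InP)
open Crest.Agent.R136.Deep51 (CloseC)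
open Crest.Agent.R136.Tl102 (angC)
open Crest.Agent.R136.KapP335 (kapP DetP)
open Crest.Agent.R136.Pl2W102 (Near)
open Crest.Agent.R136.Hcp208 (Dims)

theorem near_trans {K x y z : ℝ} (hK : 0 ≤ K) (h1 : Near K x y) (h2 : Near K x z) :
    y ≤ K ^ 2 * z := by
  have h3 := mul_le_mul_of_nonneg_left h2.1 hK
  have h4 := h1.2
  nlinarith

/-- **closeness bounds the curvature extent**, the literal of helper325 -/
theorem kapClose : Amx325.KapClose := by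
  refine ⟨200, by norm_num, ?_⟩
  intro U V T K E a w1 w2 z0 ρ r hK hr hρ ha hw1 hw2 hU hV hTU hTV hdU hdV hang hE hcl
  have K0 : 0 ≤ K := by linarith
  obtain ⟨dU0, dU1, dU2⟩ := hdU
  obtain ⟨dV0, dV1, dV2⟩ := hdV
  have hB : 1 ≤ K ^ 2 := one_le_pow₀ hK
  have hlam : 1 ≤ K ^ 3 := one_le_pow₀ hK
  have hang' : angC U V * U.w 1 ≤ K ^ 3 * U.w 2 := by
    have h0 : 0 ≤ angC U V := by
      unfold angC
      positivity
    have h1 : U.w 1 ≤ K * w1 := dU1.2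
    have h2 : w2 ≤ K * U.w 2 := dU2.1
    calc angC U V * U.w 1 ≤ angC U V * (K * w1) := mul_le_mul_of_nonneg_left h1 h0
      _ = K * (angC U V * w1) := by ring
      _ ≤ K * (K * w2) := mul_le_mul_of_nonneg_left hang K0
      _ ≤ K * (K * (K * U.w 2)) :=
          mul_le_mul_of_nonneg_left (mul_le_mul_of_nonneg_left h2 K0) K0
      _ = K ^ 3 * U.w 2 := by ring
  have h := kap_of_close hr hr hρ.le hU hV hTU hTV hB hlam (near_trans K0 dV1 dU1)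
    (near_trans K0 dV2 dU2) (near_trans K0 dU1 dV1) (near_trans K0 dU2 dV2) hang' hcl
  have hUa : U.a ≤ K * a := dU0.2
  have hkV : 0 ≤ kapP V z0 ρ T := Bl5667.kp_nonneg (hr.le.trans (hV.r0_le.trans hV.a_le0)) z0 ρ T
  have e1 : (2 * K) ^ (200 : ℝ) = (2 * K) ^ 200 := by
    exact_mod_cast Real.rpow_natCast (2 * K) 200
  rw [e1]
  have h2 : E + U.a + kapP V z0 ρ T ≤ K * (E + a + kapP V z0 ρ T) := by
    nlinarith [mul_nonneg (sub_nonneg.2 hK) hE, mul_nonneg (sub_nonneg.2 hK) hkV]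
  have h3 : 10 ^ 16 * (K ^ 2 * K ^ 3) ^ 4 * K ≤ (2 * K) ^ 200 := by
    have e2 : 10 ^ 16 * (K ^ 2 * K ^ 3) ^ 4 * K = 10 ^ 16 * K ^ 21 := by ring
    have e3 : (2 * K) ^ 200 = 2 ^ 200 * K ^ 200 := by rw [mul_pow]
    rw [e2, e3]
    have h4 : K ^ 21 ≤ K ^ 200 := pow_le_pow_right₀ hK (by norm_num)
    have h5 : (0:ℝ) ≤ K ^ 200 := by positivity
    have h6 : (10:ℝ) ^ 16 ≤ 2 ^ 200 := by norm_num
    calc 10 ^ 16 * K ^ 21 ≤ 10 ^ 16 * K ^ 200 := mul_le_mul_of_nonneg_left h4 (by norm_num)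
      _ ≤ 2 ^ 200 * K ^ 200 := mul_le_mul_of_nonneg_right h6 h5
  have h7 : 0 ≤ E + a + kapP V z0 ρ T := by positivity
  calc kapP U z0 ρ T ≤ 10 ^ 16 * (K ^ 2 * K ^ 3) ^ 4 * (E + U.a + kapP V z0 ρ T) := h
    _ ≤ 10 ^ 16 * (K ^ 2 * K ^ 3) ^ 4 * (K * (E + a + kapP V z0 ρ T)) :=
        mul_le_mul_of_nonneg_left h2 (by positivity)
    _ = 10 ^ 16 * (K ^ 2 * K ^ 3) ^ 4 * K * (E + a + kapP V z0 ρ T) := by ring
    _ ≤ (2 * K) ^ 200 * (E + a + kapP V z0 ρ T) := mul_le_mul_of_nonneg_right h3 h7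

end Crest.Agent.R136.Kcl44
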