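import Mathlib
import Crest.Agent.R136.Slb1_480

/-!
# R136: fullness and velocity balls for lines of `ℝ³` (helper605)

Consequences of the Kakeya maximal theorem `KM32` of `ℝ³` (core form `Slb480.km3_core`) for a
finite family `A` of lines `z ↦ p i + z • v i` satisfying the plank condition `Plk p v A H D`:

* `full` : incidences of density `lam` meet at least `lam ^ 3 * H * #A / (C * H ^ ε * D)` boxes.
* `mult_ball` : if every incidence of `I` has `m` lines of `A` through its box with velocities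
  `β`-close, and the plank condition holds with `D` for the lines with velocities in a given ball of
  radius `3 β`, then `m * #I ^ 2 ≤ C * H ^ (2 + ε) * D * #A ^ 2`.
-/

set_option autoImplicit false

open Finset

namespace Crest.Agent.R136.Kf605

open Crest.Agent.R138.Defs (E2)
open Crest.Agent.R136.Slb480 (ps km3_core)
open Crest.Agent.R138.Tub70 (InPl KM32)

open Classical in
/-- **plank condition** for the lines of `A` -/
def Plk {ι : Type} (p v : ι → E2) (A : Finset ι) (H : ℕ) (D : ℝ) : Prop :=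
  ∀ (b : OrthonormalBasis (Fin 2) ℝ E2) (s : Fin 2 → ℝ) (p0 v0 : E2),
    (∀ j, 1 / (H : ℝ) ≤ s j ∧ s j ≤ 1) →
    ((A.filter fun i => InPl b s p0 v0 (p i) (v i)).card : ℝ) ≤ D * (s 0 * s 1) * (H : ℝ) ^ 2

/-- incidences of the subtype -/
def emb {ι : Type} (A : Finset ι) (x : {i // i ∈ A} × ℤ) : ι × ℤ := (x.1.1, x.2)

theorem emb_inj {ι : Type} (A : Finset ι) : Function.Injective (emb A) := by
  intro x y hxy
  simp only [emb, Prod.mk.injEq] at hxy
  exact Prod.ext (Subtype.ext hxy.1) hxy.2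

open Classical in
/-- **core form for the lines of a finite set** -/
theorem core (hKM : ∀ V : ℝ, KM32 V) (V : ℝ) (hV : 0 ≤ V) (ε : ℝ) (hε : 0 < ε) :
    ∃ C : ℝ, 0 < C ∧ ∀ H : ℕ, 1 ≤ H → V + 2 ≤ (H : ℝ) → ∀ (ι : Type) (A : Finset ι)
      (p v : ι → E2) (I : Finset (ι × ℤ)) (m D : ℝ), 0 < m → 0 ≤ D →
      (∀ i ∈ A, ‖p i‖ ≤ V ∧ ‖v i‖ ≤ V) → (∀ x ∈ I, x.1 ∈ A) → (∀ x ∈ I, |x.2| ≤ (H : ℤ)) →
      (∀ x ∈ I, m ≤ ((A.filter fun i =>
        ‖ps p v i (x.2 / H) - ps p v x.1 (x.2 / H)‖ ≤ 1 / H).card : ℝ)) →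
      Plk p v A H D → m * (I.card : ℝ) ^ 2 ≤ C * (H : ℝ) ^ (2 + ε) * D * (A.card : ℝ) ^ 2 := by
  obtain ⟨C, hC, key⟩ := km3_core hKM V 1 hV zero_le_one ε hε
  refine ⟨C, hC, ?_⟩
  intro H hH hHV ι A p v I m D hm hD hpv hIA hI hmult hpl
  have h := key H hH (by linarith) {i // i ∈ A} (fun i => p i.1) (fun i => v i.1)
    (I.preimage (emb A) (emb_inj A).injOn) m D hm hD (fun i => hpv i.1 i.2)
    (by
      intro x hx
      rw [Finset.mem_preimage] at hx
      exact hI _ hx)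
    (by
      intro x hx
      rw [Finset.mem_preimage] at hx
      refine (hmult _ hx).trans ?_
      norm_cast
      rw [← Finset.card_map (Function.Embedding.subtype fun i => i ∈ A)]
      apply Finset.card_le_card
      intro i hi
      obtain ⟨h1, h2⟩ := Finset.mem_filter.1 hi
      rw [Finset.mem_map]
      exact ⟨⟨i, h1⟩, Finset.mem_filter.2 ⟨Finset.mem_univ _, h2⟩, rfl⟩)
    (by
      intro b s p0 v0 hs
      refine le_trans ?_ (hpl b s p0 v0 hs)
      norm_cast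
      rw [← Finset.card_map (Function.Embedding.subtype fun i => i ∈ A)]
      apply Finset.card_le_card
      intro i hi
      rw [Finset.mem_map] at hi
      obtain ⟨j, hj, rfl⟩ := hi
      exact Finset.mem_filter.2 ⟨j.2, (Finset.mem_filter.1 hj).2⟩)
  have e1 : (I.preimage (emb A) (emb_inj A).injOn).card = I.card := by
    apply Finset.card_bij (fun x _ => emb A x)
    · intro x hx
      exact Finset.mem_preimage.1 hx
    · intro x _ y _ hxy
      exact emb_inj A hxy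
    · intro y hy
      exact ⟨(⟨y.1, hIA y hy⟩, y.2), Finset.mem_preimage.2 hy, rfl⟩
  rw [e1, Fintype.card_coe] at h
  exact h

open Classical in
/-- **fullness**: dense incidences meet many boxes. -/
theorem full (hKM : ∀ V : ℝ, KM32 V) (V : ℝ) (hV : 0 ≤ V) (ε : ℝ) (hε : 0 < ε) :
    ∃ C : ℝ, 0 < C ∧ ∀ H : ℕ, 1 ≤ H → V + 2 ≤ (H : ℝ) → ∀ (ι : Type) (A : Finset ι)
      (p v : ι → E2) (I : Finset (ι × ℤ)) (lam D : ℝ) (B : Type) (bx : ι × ℤ → B),
      0 < lam → 0 ≤ D →
      (∀ i ∈ A, ‖p i‖ ≤ V ∧ ‖v i‖ ≤ V) → (∀ x ∈ I, x.1 ∈ A) → (∀ x ∈ I, |x.2| ≤ (H : ℤ)) →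
      (∀ x ∈ I, ∀ y ∈ I, bx y = bx x → y.2 = x.2 ∧
        ‖ps p v y.1 (x.2 / H) - ps p v x.1 (x.2 / H)‖ ≤ 1 / H) →
      lam * H * (A.card : ℝ) ≤ I.card → Plk p v A H D →
      lam ^ 3 * H * (A.card : ℝ) ≤ C * (H : ℝ) ^ ε * D * ((I.image bx).card : ℝ) := by
  obtain ⟨C, hC, key⟩ := core hKM V hV ε hε
  refine ⟨8 * C, by positivity, ?_⟩
  intro H hH hHV ι A p v I lam D B bx hlam hD hpv hIA hI hbx hden hpl
  have hH0 : (0 : ℝ) < H := by exact_mod_cast hH
  rcases A.eq_empty_or_nonempty with hA | hA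
  · subst hA
    simp only [Finset.card_empty, Nat.cast_zero, mul_zero]
    positivity
  have hA0 : (0 : ℝ) < A.card := by exact_mod_cast hA.card_pos
  have hI0 : (0 : ℝ) < I.card := lt_of_lt_of_le (by positivity) hden
  have hIne : I.Nonempty := by
    rw [← Finset.card_pos]; exact_mod_cast hI0
  set N : ℝ := ((I.image bx).card : ℝ) with hN
  have hN0 : 0 < N := by
    rw [hN]; exact_mod_cast (hIne.image bx).card_pos
  set m : ℝ := I.card / (2 * N) with hm
  have hm0 : 0 < m := by positivity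
  set J := I.filter fun x => m ≤ ((I.filter fun y => bx y = bx x).card : ℝ) with hJ
  have hJc : (I.card : ℝ) / 2 ≤ J.card := by
    have h1 : (I.card : ℝ) = J.card + ((I.filter fun x => ¬ m ≤
        ((I.filter fun y => bx y = bx x).card : ℝ)).card : ℝ) := by
      rw [hJ]; exact_mod_cast (Finset.card_filter_add_card_filter_not _).symm
    have h2 : ((I.filter fun x => ¬ m ≤ ((I.filter fun y => bx y = bx x).card : ℝ)).card : ℝ) ≤
        N * m := by
      set K := I.filter fun x => ¬ m ≤ ((I.filter fun y => bx y = bx x).card : ℝ) with hK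
      have h3 := Finset.card_eq_sum_card_fiberwise (s := K) (t := I.image bx) (f := bx)
        (fun y hy => by
          have := (Finset.mem_filter.1 (Finset.mem_coe.1 hy)).1
          exact Finset.mem_coe.2 (Finset.mem_image_of_mem bx this))
      rw [h3]
      push_cast
      have h4 : ∀ c ∈ I.image bx, ((K.filter fun y => bx y = c).card : ℝ) ≤ m := by
        intro c _
        rcases (K.filter fun y => bx y = c).eq_empty_or_nonempty with he | ⟨x, hx⟩
        · rw [he, Finset.card_empty, Nat.cast_zero]; exact hm0.le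
        · obtain ⟨hx1, hx2⟩ := Finset.mem_filter.1 hx
          obtain ⟨hx3, hx4⟩ := Finset.mem_filter.1 hx1
          push Not at hx4
          refine le_trans ?_ hx4.le
          rw [hx2]
          exact_mod_cast Finset.card_le_card
            (Finset.filter_subset_filter _ (Finset.filter_subset _ _))
      refine (Finset.sum_le_sum h4).trans ?_
      rw [Finset.sum_const, nsmul_eq_mul]
    have h5 : N * m = I.card / 2 := by
      have hN1 : N ≠ 0 := hN0.ne'
      calc N * m = N * (I.card / (2 * N)) := by rw [hm]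
        _ = I.card / 2 := by
          rw [mul_div_assoc', mul_comm 2 N, mul_div_mul_left _ _ hN1]
    rw [h5] at h2
    linarith
  have hJ2 := key H hH hHV ι A p v J m D hm0 hD hpv
    (fun x hx => hIA x (Finset.mem_filter.1 hx).1) (fun x hx => hI x (Finset.mem_filter.1 hx).1)
    (by
      intro x hx
      obtain ⟨hx1, hx2⟩ := Finset.mem_filter.1 hx
      refine hx2.trans ?_
      have hinj : Set.InjOn (fun y : ι × ℤ => y.1) (I.filter fun y => bx y = bx x) := by
        intro a ha a' ha' he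
        simp only [Finset.coe_filter, Set.mem_ofPred_eq] at ha ha'
        exact Prod.ext he ((hbx x hx1 a ha.1 ha.2).1.trans (hbx x hx1 a' ha'.1 ha'.2).1.symm)
      have h2 : (I.filter fun y => bx y = bx x).card =
        ((I.filter fun y => bx y = bx x).image fun y => y.1).card :=
          (Finset.card_image_of_injOn hinj).symm
      rw [h2]
      refine Nat.cast_le.2 (Finset.card_le_card ?_)
      intro i hi
      obtain ⟨y, hy, rfl⟩ := Finset.mem_image.1 hi
      obtain ⟨hy1, hy2⟩ := Finset.mem_filter.1 hy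
      exact Finset.mem_filter.2 ⟨hIA y hy1, (hbx x hx1 y hy1 hy2).2⟩) hpl
  have h6 : m * ((I.card : ℝ) / 2) ^ 2 ≤ C * (H : ℝ) ^ (2 + ε) * D * (A.card : ℝ) ^ 2 :=
    (mul_le_mul_of_nonneg_left (pow_le_pow_left₀ (by positivity) hJc 2) hm0.le).trans hJ2
  have h7 : (I.card : ℝ) ^ 3 ≤ 8 * N * (C * (H : ℝ) ^ (2 + ε) * D * (A.card : ℝ) ^ 2) := by
    have e : m * ((I.card : ℝ) / 2) ^ 2 = (I.card : ℝ) ^ 3 / (8 * N) := by
      rw [hm]; field_simp; ring
    rw [e, div_le_iff₀ (by positivity)] at h6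
    linarith
  have h8 : (lam * H * (A.card : ℝ)) ^ 3 ≤ (I.card : ℝ) ^ 3 :=
    pow_le_pow_left₀ (by positivity) hden 3
  have h9 : (H : ℝ) ^ (2 + ε) = (H : ℝ) ^ 2 * (H : ℝ) ^ ε := by
    rw [Real.rpow_add hH0]; norm_cast
  rw [h9] at h7
  have h10 : (lam ^ 3 * H * (A.card : ℝ)) * ((H : ℝ) ^ 2 * (A.card : ℝ) ^ 2) ≤
      (8 * C * (H : ℝ) ^ ε * D * N) * ((H : ℝ) ^ 2 * (A.card : ℝ) ^ 2) := by
    have := h8.trans h7
    calc _ = (lam * H * (A.card : ℝ)) ^ 3 := by ring
      _ ≤ _ := this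
      _ = _ := by ring
  exact le_of_mul_le_mul_right h10 (by positivity)

/-- velocity cell -/
noncomputable def vc (β : ℝ) (u : E2) : ℤ × ℤ := (⌊u 0 / β⌋, ⌊u 1 / β⌋)

/-- corner of a velocity cell -/
noncomputable def vp (β : ℝ) (c : ℤ × ℤ) : E2 := WithLp.toLp 2 ![c.1 * β, c.2 * β]

theorem norm_le_of (u : E2) {s : ℝ} (h0 : |u 0| ≤ s) (h1 : |u 1| ≤ s) : ‖u‖ ≤ 2 * s := by
  have hs : 0 ≤ s := (abs_nonneg _).trans h0
  have h : ‖u‖ ^ 2 = u 0 ^ 2 + u 1 ^ 2 := by
    rw [EuclideanSpace.norm_sq_eq]; simp [Fin.sum_univ_two]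
  have h2 : ‖u‖ ^ 2 ≤ (2 * s) ^ 2 := by
    rw [h, ← sq_abs (u 0), ← sq_abs (u 1)]
    nlinarith [abs_nonneg (u 0), abs_nonneg (u 1), pow_le_pow_left₀ (abs_nonneg (u 0)) h0 2,
      pow_le_pow_left₀ (abs_nonneg (u 1)) h1 2]
  exact (pow_le_pow_iff_left₀ (norm_nonneg _) (by positivity) (by norm_num)).1 h2

theorem abs_le_norm (u : E2) (k : Fin 2) : |u k| ≤ ‖u‖ := by
  rw [← Real.norm_eq_abs]; exact PiLp.norm_apply_le u k

theorem vc_near {β : ℝ} (hβ : 0 < β) (u : E2) : ‖u - vp β (vc β u)‖ ≤ 2 * β := by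
  have key : ∀ x : ℝ, |x - ⌊x / β⌋ * β| ≤ β := by
    intro x
    have h1 := Int.floor_le (x / β)
    have h2 := Int.lt_floor_add_one (x / β)
    rw [le_div_iff₀ hβ] at h1
    rw [div_lt_iff₀ hβ] at h2
    rw [abs_le]; constructor <;> linarith
  apply norm_le_of
  · simpa [vp, vc] using key (u 0)
  · simpa [vp, vc] using key (u 1)

theorem vc_count {β : ℝ} (hβ : 0 < β) (u : E2) (S : Finset (ℤ × ℤ)) 
    (hS : ∀ c ∈ S, ‖u - vp β c‖ ≤ 3 * β) : S.card ≤ 49 := by
  have key : ∀ (x : ℝ) (n : ℤ), |x - n * β| ≤ 3 * β → n ∈ Finset.Icc (⌊x / β⌋ - 3) (⌊x / β⌋ + 3) := by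
    intro x n h
    have h1 := Int.floor_le (x / β)
    have h2 := Int.lt_floor_add_one (x / β)
    rw [abs_le] at h
    rw [Finset.mem_Icc]
    have h3 : x / β ≤ n + 3 := by rw [div_le_iff₀ hβ]; linarith
    have h4 : (n : ℝ) - 3 ≤ x / β := by rw [le_div_iff₀ hβ]; linarith
    constructor
    · have h5 : ((⌊x / β⌋ : ℤ) : ℝ) ≤ ((n + 3 : ℤ) : ℝ) := by push_cast; linarith
      have h6 : ⌊x / β⌋ ≤ n + 3 := by exact_mod_cast h5
      omega
    · have h5 : ((n - 3 : ℤ) : ℝ) < ((⌊x / β⌋ + 1 : ℤ) : ℝ) := by push_cast; linarith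
      have h6 : n - 3 < ⌊x / β⌋ + 1 := by exact_mod_cast h5
      omega
  have hsub : S ⊆ Finset.Icc (⌊u 0 / β⌋ - 3) (⌊u 0 / β⌋ + 3) ×ˢ
      Finset.Icc (⌊u 1 / β⌋ - 3) (⌊u 1 / β⌋ + 3) := by
    intro c hc
    have h := hS c hc
    rw [Finset.mem_product]
    constructor
    · apply key
      have := abs_le_norm (u - vp β c) 0
      simp only [vp, PiLp.sub_apply, Matrix.cons_val_zero] at this
      exact this.trans h
    · apply key
      have := abs_le_norm (u - vp β c) 1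
      simp only [vp, PiLp.sub_apply, Matrix.cons_val_one] at this
      exact this.trans h
  refine (Finset.card_le_card hsub).trans ?_
  rw [Finset.card_product, Int.card_Icc, Int.card_Icc]
  have e : ∀ k : ℤ, (k + 3 + 1 - (k - 3)).toNat = 7 := by intro k; omega
  rw [e, e]

open Classical in
/-- **multiplicity in a velocity ball** -/
theorem mult_ball (hKM : ∀ V : ℝ, KM32 V) (V : ℝ) (hV : 0 ≤ V) (ε : ℝ) (hε : 0 < ε) :
    ∃ C : ℝ, 0 < C ∧ ∀ H : ℕ, 1 ≤ H → V + 2 ≤ (H : ℝ) → ∀ (ι : Type) (A : Finset ι)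
      (p v : ι → E2) (I : Finset (ι × ℤ)) (m D β : ℝ), 0 < m → 0 ≤ D → 0 < β →
      (∀ i ∈ A, ‖p i‖ ≤ V ∧ ‖v i‖ ≤ V) → (∀ x ∈ I, x.1 ∈ A) → (∀ x ∈ I, |x.2| ≤ (H : ℤ)) →
      (∀ x ∈ I, m ≤ ((A.filter fun i =>
        ‖ps p v i (x.2 / H) - ps p v x.1 (x.2 / H)‖ ≤ 1 / H ∧ ‖v i - v x.1‖ ≤ β).card : ℝ)) →
      (∀ u : E2, Plk p v (A.filter fun i => ‖v i - u‖ ≤ 3 * β) H D) →
      m * (I.card : ℝ) ^ 2 ≤ C * (H : ℝ) ^ (2 + ε) * D * (A.card : ℝ) ^ 2 := by
  obtain ⟨C, hC, key⟩ := core hKM V hV ε hε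
  refine ⟨49 ^ 2 * C, by positivity, ?_⟩
  intro H hH hHV ι A p v I m D β hm hD hβ hpv hIA hI hmult hpl
  set R : ℝ := C * (H : ℝ) ^ (2 + ε) * D with hR
  have hR0 : 0 ≤ R := by positivity
  set cl : ι × ℤ → ℤ × ℤ := fun x => vc β (v x.1) with hcl
  set AQ : ℤ × ℤ → Finset ι := fun c => A.filter fun i => ‖v i - vp β c‖ ≤ 3 * β with hAQ
  have h1 : ∀ c, Real.sqrt m * ((I.filter fun x => cl x = c).card : ℝ) ≤
      Real.sqrt R * ((AQ c).card : ℝ) := by
    intro c
    have h2 := key H hH hHV ι (AQ c) p v (I.filter fun x => cl x = c) m D hm hD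
      (fun i hi => hpv i (Finset.mem_filter.1 hi).1)
      (by
        intro x hx
        obtain ⟨hx1, hx2⟩ := Finset.mem_filter.1 hx
        refine Finset.mem_filter.2 ⟨hIA x hx1, ?_⟩
        have := vc_near hβ (v x.1)
        have e : vc β (v x.1) = c := hx2
        rw [e] at this
        linarith)
      (fun x hx => hI x (Finset.mem_filter.1 hx).1)
      (by
        intro x hx
        obtain ⟨hx1, hx2⟩ := Finset.mem_filter.1 hx
        refine (hmult x hx1).trans ?_
        norm_cast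
        apply Finset.card_le_card
        intro i hi
        obtain ⟨h3, h4, h5⟩ := Finset.mem_filter.1 hi
        refine Finset.mem_filter.2 ⟨Finset.mem_filter.2 ⟨h3, ?_⟩, h4⟩
        have h6 := vc_near hβ (v x.1)
        have e : vc β (v x.1) = c := hx2
        rw [e] at h6
        have h7 : v i - vp β c = (v i - v x.1) + (v x.1 - vp β c) := by abel
        rw [h7]
        refine (norm_add_le _ _).trans ?_
        linarith)
      (hpl _)
    have h3 : (Real.sqrt m * ((I.filter fun x => cl x = c).card : ℝ)) ^ 2 ≤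
        (Real.sqrt R * ((AQ c).card : ℝ)) ^ 2 := by
      rw [mul_pow, mul_pow, Real.sq_sqrt hm.le, Real.sq_sqrt hR0]
      exact h2
    exact (pow_le_pow_iff_left₀ (by positivity) (by positivity) (by norm_num)).1 h3
  set T := I.image cl with hT
  have h2 : (I.card : ℝ) = ∑ c ∈ T, ((I.filter fun x => cl x = c).card : ℝ) := by
    have := Finset.card_eq_sum_card_fiberwise (s := I) (t := T) (f := cl)
      (fun y hy => Finset.mem_coe.2 (Finset.mem_image_of_mem cl (Finset.mem_coe.1 hy)))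
    exact_mod_cast this
  have h3 : ∑ c ∈ T, ((AQ c).card : ℝ) ≤ 49 * (A.card : ℝ) := by
    have e1 : ∀ c, ((AQ c).card : ℝ) = ∑ i ∈ A, if ‖v i - vp β c‖ ≤ 3 * β then (1 : ℝ) else 0 := by
      intro c
      rw [hAQ, Finset.card_filter]; push_cast; rfl
    simp only [e1]
    rw [Finset.sum_comm]
    have h4 : ∀ i ∈ A, (∑ c ∈ T, if ‖v i - vp β c‖ ≤ 3 * β then (1 : ℝ) else 0) ≤ 49 := by
      intro i _
      rw [← Finset.sum_filter, Finset.sum_const, nsmul_eq_mul, mul_one]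
      have := vc_count hβ (v i) (T.filter fun c => ‖v i - vp β c‖ ≤ 3 * β)
        (fun c hc => (Finset.mem_filter.1 hc).2)
      exact_mod_cast this
    refine (Finset.sum_le_sum h4).trans ?_
    rw [Finset.sum_const, nsmul_eq_mul, mul_comm]
  have h4 : Real.sqrt m * (I.card : ℝ) ≤ Real.sqrt R * (49 * (A.card : ℝ)) := by
    rw [h2, Finset.mul_sum]
    refine (Finset.sum_le_sum fun c _ => h1 c).trans ?_
    rw [← Finset.mul_sum]
    exact mul_le_mul_of_nonneg_left h3 (Real.sqrt_nonneg _)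
  have h5 := pow_le_pow_left₀ (by positivity) h4 2
  rw [mul_pow, mul_pow, Real.sq_sqrt hm.le, Real.sq_sqrt hR0] at h5
  refine h5.trans (le_of_eq ?_)
  rw [hR]; ring

end Crest.Agent.R136.Kf605
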