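import Mathlib

/-!
# R136: the lines of a plank of a curved sheet lie in few short strips (helper605)

`plank_cells` : finite part of the plank condition (PL) for the lines of one sheet.
-/

set_option autoImplicit false

open Finset

namespace Crest.Agent.R136.Kf605

/-- number of cells met by points of an interval -/
theorem floor_image {ι : Type*} (A : Finset ι) (y : ι → ℝ) {ω r a : ℝ} (hω : 0 < ω) (hr : 0 ≤ r)
    (h : ∀ t ∈ A, |y t - a| ≤ r) :
    ((A.image fun t => ⌊y t / ω⌋).card : ℝ) ≤ 2 * r / ω + 2 := by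
  have hsub : (A.image fun t => ⌊y t / ω⌋) ⊆ Finset.Icc ⌊(a - r) / ω⌋ ⌊(a + r) / ω⌋ := by
    intro j hj
    obtain ⟨t, ht, rfl⟩ := Finset.mem_image.1 hj
    have h1 := abs_le.1 (h t ht)
    rw [Finset.mem_Icc]
    constructor
    · exact Int.floor_le_floor (div_le_div_of_nonneg_right (by linarith) hω.le)
    · exact Int.floor_le_floor (div_le_div_of_nonneg_right (by linarith) hω.le)
  have h1 : ((A.image fun t => ⌊y t / ω⌋).card : ℝ) ≤
      ((Finset.Icc ⌊(a - r) / ω⌋ ⌊(a + r) / ω⌋).card : ℝ) := by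
    exact_mod_cast Finset.card_le_card hsub
  refine h1.trans ?_
  rw [Int.card_Icc]
  have h2 : ⌊(a - r) / ω⌋ ≤ ⌊(a + r) / ω⌋ :=
    Int.floor_le_floor (div_le_div_of_nonneg_right (by linarith) hω.le)
  have h3 : ((⌊(a + r) / ω⌋ + 1 - ⌊(a - r) / ω⌋).toNat : ℝ) =
      (⌊(a + r) / ω⌋ : ℝ) + 1 - ⌊(a - r) / ω⌋ := by
    have : ((⌊(a + r) / ω⌋ + 1 - ⌊(a - r) / ω⌋).toNat : ℤ) =
        ⌊(a + r) / ω⌋ + 1 - ⌊(a - r) / ω⌋ := Int.toNat_of_nonneg (by omega)
    exact_mod_cast this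
  rw [h3]
  have h4 := Int.floor_le ((a + r) / ω)
  have h5 := Int.lt_floor_add_one ((a - r) / ω)
  have h6 : (a + r) / ω - (a - r) / ω = 2 * r / ω := by ring
  linarith

/-- counting by fibres -/
theorem card_fib {ι κ : Type*} [DecidableEq κ] (A : Finset ι) (f : ι → κ) {N B : ℝ} (hB0 : 0 ≤ B)
    (hN : ((A.image f).card : ℝ) ≤ N)
    (hB : ∀ t ∈ A, ((A.filter fun t' => f t' = f t).card : ℝ) ≤ B) : (A.card : ℝ) ≤ N * B := by
  have h := Finset.card_eq_sum_card_fiberwise (s := A) (t := A.image f) (f := f)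
    (fun y hy => Finset.mem_coe.2 (Finset.mem_image_of_mem f (Finset.mem_coe.1 hy)))
  rw [h]
  push_cast
  have h1 : ∀ c ∈ A.image f, ((A.filter fun y => f y = c).card : ℝ) ≤ B := by
    intro c hc
    obtain ⟨t, ht, rfl⟩ := Finset.mem_image.1 hc
    exact hB t ht
  refine (Finset.sum_le_sum h1).trans ?_
  rw [Finset.sum_const, nsmul_eq_mul]
  exact mul_le_mul_of_nonneg_right hN hB0

/-- tangential case -/
theorem pt_tan {K s1 σ ω L h x : ℝ} (hK : 1 ≤ K) (hσ : 0 < σ) (hσ2 : σ ^ 2 = s1)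
    (hω : K * ω ≤ σ) (hLσ : |L| ≤ σ) (hLh : 1 / K ≤ |L| + |h|) (hx1 : |x| ≤ 1)
    (RH : |L * x + h * x ^ 2| ≤ K * (2 * s1 + ω * |x|)) : |x| ≤ 8 * K * σ := by
  have hK0 : 0 < K := by linarith
  have hx0 := abs_nonneg x
  by_cases hh : 1 / (2 * K) ≤ |h|
  · by_contra hc'
    push Not at hc'
    have b1 : |h| * |x| ^ 2 ≤ |L| * |x| + K * (2 * s1 + ω * |x|) := by
      have e1 : |h * x ^ 2| = |h| * |x| ^ 2 := by rw [abs_mul, abs_pow]
      have e2 : h * x ^ 2 = (L * x + h * x ^ 2) - L * x := by ring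
      rw [← e1, e2]
      refine (abs_sub _ _).trans ?_
      rw [abs_mul L x]
      linarith
    have b2 : |x| ^ 2 ≤ 2 * K * (|L| * |x| + K * (2 * s1 + ω * |x|)) := by
      have := mul_le_mul_of_nonneg_right hh (sq_nonneg |x|)
      have h4 : 1 / (2 * K) * |x| ^ 2 ≤ |L| * |x| + K * (2 * s1 + ω * |x|) := this.trans b1
      rw [div_mul_eq_mul_div, one_mul, div_le_iff₀ (by positivity)] at h4
      linarith
    have b3 : |L| * |x| ≤ σ * |x| := mul_le_mul_of_nonneg_right hLσ hx0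
    have b4 : K * (ω * |x|) ≤ σ * |x| := by
      calc K * (ω * |x|) = (K * ω) * |x| := by ring
        _ ≤ σ * |x| := mul_le_mul_of_nonneg_right hω hx0
    have b5 : |x| ^ 2 ≤ 2 * K * (2 * (σ * |x|) + 2 * K * s1) := by
      refine b2.trans (mul_le_mul_of_nonneg_left ?_ (by positivity))
      linarith
    rw [← hσ2] at b5
    have hKσ : 0 < K * σ := mul_pos hK0 hσ
    have b6 : 8 * (K * σ) * |x| ≤ |x| ^ 2 := by
      rw [pow_two]
      refine mul_le_mul_of_nonneg_right ?_ hx0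
      linarith
    have b7 : (K * σ) * (8 * (K * σ)) < (K * σ) * |x| :=
      mul_lt_mul_of_pos_left (by linarith) hKσ
    have b8 : 2 * K * (2 * (σ * |x|) + 2 * K * σ ^ 2) = 4 * (K * σ * |x|) +
        4 * ((K * σ) * (K * σ)) := by ring
    rw [b8] at b5
    have b9 : 0 < (K * σ) * (K * σ) := mul_pos hKσ hKσ
    have b10 : 8 * (K * σ) * |x| = 8 * (K * σ * |x|) := by ring
    rw [b10] at b6
    have b11 : (K * σ) * (8 * (K * σ)) = 8 * ((K * σ) * (K * σ)) := by ring
    rw [b11] at b7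
    linarith
  · push Not at hh
    have b1 : 1 / (2 * K) ≤ σ := by
      have e : 1 / K = 1 / (2 * K) + 1 / (2 * K) := by field_simp; norm_num
      rw [e] at hLh
      linarith
    rw [div_le_iff₀ (by positivity)] at b1
    have : 0 < K * σ := mul_pos hK0 hσ
    have e : σ * (2 * K) = 2 * (K * σ) := by ring
    rw [e] at b1
    have e2 : 8 * K * σ = 8 * (K * σ) := by ring
    rw [e2]
    linarith

/-- transversal case -/
theorem pt_tra {K s1 θ ω L h x : ℝ} (hK : 1 ≤ K) (hs1 : 0 < s1) (hθ0 : 0 < θ)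
    (hω1 : 8 * K ^ 3 * ω ≤ s1 / θ) (hω2 : 32 * K ^ 3 * ω ≤ θ)
    (hθ2 : θ < 2 * |L|) (hLK : |L| ≤ K) (hLh : 1 / K ≤ |L| + |h|) (hhK : |h| ≤ K)
    (hx1 : |x| ≤ 1) (hω0 : 0 < ω)
    (RH : |L * x + h * x ^ 2| ≤ K * (2 * s1 + ω * |x|)) :
    |x| ≤ 96 * K ^ 3 * (s1 / θ) ∨ |x + L / h| ≤ 96 * K ^ 3 * (s1 / θ) := by
  have hK0 : 0 < K := by linarith
  have hK2 : 1 ≤ K ^ 2 := one_le_pow₀ hK
  have hK3 : 1 ≤ K ^ 3 := one_le_pow₀ hK
  have hx0 := abs_nonneg x
  set r := s1 / θ with hr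
  have hr0 : 0 < r := by positivity
  have hrθ : r * θ = s1 := by rw [hr]; field_simp
  by_cases hh : 1 / (4 * K) ≤ |h|
  · have hhp : 0 < |h| := lt_of_lt_of_le (by positivity) hh
    have hhne : h ≠ 0 := abs_pos.1 hhp
    set y := x + L / h with hy
    have hy0 := abs_nonneg y
    have e1 : L * x + h * x ^ 2 = h * (x * y) := by rw [hy]; field_simp; ring
    have b1 : |x| * |y| ≤ 8 * K ^ 2 * s1 + 4 * K ^ 2 * ω * |x| := by
      rw [e1, abs_mul, abs_mul] at RH
      have h1 : 1 / (4 * K) * (|x| * |y|) ≤ K * (2 * s1 + ω * |x|) :=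
        (mul_le_mul_of_nonneg_right hh (by positivity)).trans RH
      rw [div_mul_eq_mul_div, one_mul, div_le_iff₀ (by positivity)] at h1
      refine h1.trans (le_of_eq ?_)
      ring
    have b2 : θ / (2 * K) ≤ |x| + |y| := by
      have h1 : |L / h| ≤ |x| + |y| := by
        have : L / h = y - x := by rw [hy]; ring
        rw [this]
        have := abs_sub y x
        linarith
      refine le_trans ?_ h1
      rw [abs_div, div_le_div_iff₀ (by positivity) hhp]
      have h2 : θ * |h| ≤ θ * K := mul_le_mul_of_nonneg_left hhK hθ0.le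
      have h3 : θ * K ≤ 2 * |L| * K := mul_le_mul_of_nonneg_right hθ2.le hK0.le
      linarith
    have hθK : 0 < θ / K := by positivity
    have e2 : θ / (2 * K) = (θ / K) / 2 := by ring
    rw [e2] at b2
    have b3 : 32 * (K ^ 2 * ω) ≤ θ / K := by
      rw [le_div_iff₀ hK0]
      calc 32 * (K ^ 2 * ω) * K = 32 * K ^ 3 * ω := by ring
        _ ≤ θ := hω2
    have b4 : K ^ 2 * s1 = (θ / K) * (K ^ 3 * r) := by rw [← hrθ]; field_simp
    have hKr : 0 < K ^ 3 * r := by positivity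
    rcases le_total |x| |y| with hxy | hxy
    · left
      have c1 : (θ / K) / 4 ≤ |y| := by linarith
      have c2 : |x| * ((θ / K) / 4) ≤ |x| * |y| := mul_le_mul_of_nonneg_left c1 hx0
      have c3 : 4 * K ^ 2 * ω * |x| ≤ (θ / K) / 8 * |x| :=
        mul_le_mul_of_nonneg_right (by linarith) hx0
      have c4 : (θ / K) * |x| ≤ (θ / K) * (96 * K ^ 3 * r) := by
        have e3 : (θ / K) * (96 * K ^ 3 * r) = 96 * (K ^ 2 * s1) := by rw [b4]; ring
        rw [e3]
        have : 0 < K ^ 2 * s1 := by positivity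
        linarith
      exact le_of_mul_le_mul_left c4 hθK
    · right
      have c1 : (θ / K) / 4 ≤ |x| := by linarith
      have hxp : 0 < |x| := by linarith
      have c2 : 8 * K ^ 2 * s1 ≤ 32 * (K ^ 3 * r) * |x| := by
        have h1 := mul_le_mul_of_nonneg_right c1 (by positivity : 0 ≤ 32 * (K ^ 3 * r))
        have h2 : (θ / K) / 4 * (32 * (K ^ 3 * r)) = 8 * (K ^ 2 * s1) := by rw [b4]; ring
        rw [h2] at h1
        linarith
      have c3 : |y| * |x| ≤ (32 * (K ^ 3 * r) + 4 * K ^ 2 * ω) * |x| := by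
        rw [add_mul]
        have : |y| * |x| = |x| * |y| := mul_comm _ _
        linarith
      have c4 := le_of_mul_le_mul_right c3 hxp
      have c5 : 4 * K ^ 2 * ω ≤ K ^ 3 * r := by
        have h1 : K ^ 2 * ω ≤ K ^ 3 * ω := by
          refine mul_le_mul_of_nonneg_right ?_ hω0.le
          exact pow_le_pow_right₀ hK (by norm_num)
        have h2 : r ≤ K ^ 3 * r := by
          calc r = 1 * r := (one_mul _).symm
            _ ≤ K ^ 3 * r := mul_le_mul_of_nonneg_right hK3 hr0.le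
        have h3 : 8 * (K ^ 3 * ω) ≤ r := by linarith
        linarith
      linarith
  · left
    push Not at hh
    have b1 : 3 / (4 * K) ≤ |L| := by
      have e : 1 / K = 3 / (4 * K) + 1 / (4 * K) := by field_simp; norm_num
      rw [e] at hLh
      linarith
    have b2 : 1 / (2 * K) ≤ |L + h * x| := by
      have h1 : |h * x| ≤ 1 / (4 * K) := by
        rw [abs_mul]
        calc |h| * |x| ≤ 1 / (4 * K) * 1 := mul_le_mul hh.le hx1 hx0 (by positivity)
          _ = 1 / (4 * K) := mul_one _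
      have h2 : |L| ≤ |L + h * x| + |h * x| := by
        have : L = (L + h * x) - h * x := by ring
        conv_lhs => rw [this]
        exact abs_sub _ _
      have e : 3 / (4 * K) = 1 / (2 * K) + 1 / (4 * K) := by field_simp; norm_num
      linarith
    have e1 : L * x + h * x ^ 2 = x * (L + h * x) := by ring
    rw [e1, abs_mul] at RH
    have b3 : |x| * (1 / (2 * K)) ≤ K * (2 * s1 + ω * |x|) :=
      (mul_le_mul_of_nonneg_left b2 hx0).trans RH
    rw [mul_one_div, div_le_iff₀ (by positivity)] at b3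
    have b4 : θ ≤ 2 * K := by linarith
    have b5 : 4 * (K ^ 2 * ω) ≤ 1 / 4 := by
      have h1 : 32 * K ^ 3 * ω ≤ 2 * K := hω2.trans b4
      have h2 : K * (16 * (K ^ 2 * ω)) ≤ K * 1 := by
        calc K * (16 * (K ^ 2 * ω)) = (32 * K ^ 3 * ω) / 2 := by ring
          _ ≤ K * 1 := by linarith
      have := le_of_mul_le_mul_left h2 hK0
      linarith
    have b6 : 2 * (K ^ 2 * ω) * |x| ≤ 1 / 8 * |x| :=
      mul_le_mul_of_nonneg_right (by linarith) hx0
    have b7 : |x| ≤ 8 * (K ^ 2 * s1) := by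
      have e2 : K * (2 * s1 + ω * |x|) * (2 * K) = 4 * (K ^ 2 * s1) + 2 * (K ^ 2 * ω) * |x| := by
        ring
      rw [e2] at b3
      have : 0 < K ^ 2 * s1 := by positivity
      linarith
    have b8 : K ^ 2 * s1 ≤ 2 * (K ^ 3 * r) := by
      rw [← hrθ]
      have h1 : r * θ ≤ r * (2 * K) := mul_le_mul_of_nonneg_left b4 hr0.le
      have h2 := mul_le_mul_of_nonneg_left h1 (by positivity : 0 ≤ K ^ 2)
      calc K ^ 2 * (r * θ) ≤ K ^ 2 * (r * (2 * K)) := h2
        _ = 2 * (K ^ 3 * r) := by ring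
    have : 0 < K ^ 3 * r := by positivity
    linarith

/-- **the two point lemma** -/
theorem two_pt {K s1 σ θ ω L h x xP : ℝ} (hK : 1 ≤ K) (hs1 : 0 < s1)
    (hσ : 0 < σ) (hσ2 : σ ^ 2 = s1) (hω0 : 0 < ω) (hω : 8 * K ^ 3 * ω ≤ s1 / θ) (hLθ : |L| ≤ θ)
    (hθ : θ = σ ∨ (2 * σ ≤ θ ∧ θ < 2 * |L|)) (hLK : |L| ≤ K) (hhK : |h| ≤ K)
    (hLh : 1 / K ≤ |L| + |h|) (hx1 : |x| ≤ 1) (hxP : |xP| ≤ ω)
    (R : |L * x + h * x ^ 2| ≤ K * (|L| * |xP| + xP ^ 2 + |xP| * |x| + s1)) :
    |x| ≤ 96 * K ^ 3 * (s1 / θ) ∨ |x + L / h| ≤ 96 * K ^ 3 * (s1 / θ) := by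
  have hK0 : 0 < K := by linarith
  have hK3 : 1 ≤ K ^ 3 := one_le_pow₀ hK
  have hx0 := abs_nonneg x
  have hθσ : σ ≤ θ := by
    rcases hθ with h1 | h1
    · exact h1.ge
    · linarith [h1.1]
  have hθ0 : 0 < θ := lt_of_lt_of_le hσ hθσ
  have hω1 : 8 * ω ≤ s1 / θ := by
    refine le_trans ?_ hω
    have : 1 * ω ≤ K ^ 3 * ω := mul_le_mul_of_nonneg_right hK3 hω0.le
    linarith
  have hωθ : 8 * ω * θ ≤ s1 := by rwa [le_div_iff₀ hθ0] at hω1
  have hωσ : 8 * ω ≤ σ := by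
    have h1 : 8 * ω * σ ≤ σ * σ := by
      refine (mul_le_mul_of_nonneg_left hθσ (by positivity)).trans (hωθ.trans (le_of_eq ?_))
      rw [← hσ2]; ring
    exact le_of_mul_le_mul_right h1 hσ
  have hω2 : ω ^ 2 ≤ s1 / 8 := by
    have h1 : ω ^ 2 = ω * ω := by ring
    have h2 : ω * (8 * ω) ≤ ω * θ := mul_le_mul_of_nonneg_left (hωσ.trans hθσ) hω0.le
    rw [h1]
    linarith
  have RH : |L * x + h * x ^ 2| ≤ K * (2 * s1 + ω * |x|) := by
    refine R.trans (mul_le_mul_of_nonneg_left ?_ hK0.le)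
    have a1 : |L| * |xP| ≤ s1 / 8 := by
      calc |L| * |xP| ≤ θ * ω := mul_le_mul hLθ hxP (abs_nonneg _) hθ0.le
        _ = (8 * ω * θ) / 8 := by ring
        _ ≤ s1 / 8 := by linarith
    have a2 : xP ^ 2 ≤ s1 / 8 := by
      rw [← sq_abs]
      exact (pow_le_pow_left₀ (abs_nonneg _) hxP 2).trans hω2
    have a3 : |xP| * |x| ≤ ω * |x| := mul_le_mul_of_nonneg_right hxP hx0
    linarith
  rcases hθ with hθ | ⟨hθ1, hθ2⟩
  · left
    have e : s1 / θ = σ := by rw [hθ, ← hσ2]; field_simp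
    rw [e]
    have hKω : K * ω ≤ σ := by
      rw [e] at hω
      refine le_trans ?_ hω
      have h1 : K * 1 ≤ K * (8 * K ^ 2) := by
        refine mul_le_mul_of_nonneg_left ?_ hK0.le
        have : 1 ≤ K ^ 2 := one_le_pow₀ hK
        linarith
      have h2 := mul_le_mul_of_nonneg_right h1 hω0.le
      calc K * ω = K * 1 * ω := by ring
        _ ≤ K * (8 * K ^ 2) * ω := h2
        _ = 8 * K ^ 3 * ω := by ring
    have h1 := pt_tan hK hσ hσ2 hKω (hθ ▸ hLθ) hLh hx1 RH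
    refine h1.trans ?_
    refine mul_le_mul_of_nonneg_right ?_ hσ.le
    have : K * 1 ≤ K * K ^ 2 := mul_le_mul_of_nonneg_left (one_le_pow₀ hK) hK0.le
    have e2 : K * K ^ 2 = K ^ 3 := by ring
    rw [e2] at this
    linarith
  · refine pt_tra hK hs1 hθ0 hω ?_ hθ2 hLK hLh hhK hx1 hω0 RH
    have h1 : s1 / θ ≤ θ / 4 := by
      rw [div_le_div_iff₀ hθ0 (by norm_num)]
      have := pow_le_pow_left₀ (by positivity) hθ1 2
      rw [← hσ2]
      nlinarith
    linarith

theorem abs_of_floor {a b ω : ℝ} (hω : 0 < ω) (h : ⌊a / ω⌋ = ⌊b / ω⌋) : |a - b| ≤ ω := by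
  have h1 := Int.floor_le (a / ω)
  have h2 := Int.lt_floor_add_one (a / ω)
  have h3 := Int.floor_le (b / ω)
  have h4 := Int.lt_floor_add_one (b / ω)
  rw [h] at h1 h2
  rw [le_div_iff₀ hω] at h1 h3
  rw [div_lt_iff₀ hω] at h2 h4
  rw [abs_le]
  constructor <;> nlinarith

open Classical in
/-- relations between the lines of a plank -/
structure PlR {ι : Type*} (A : Finset ι) (xP xV L h : ι → ℝ) (s0 s1 K q Dm : ℝ) : Prop where
  hK : 1 ≤ K
  s1p : 0 < s1
  s10 : s1 ≤ s0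
  s01 : s0 ≤ 1
  q0 : 0 ≤ q
  D0 : 0 ≤ Dm
  hP : ∀ t ∈ A, ∀ t' ∈ A, |xP t' - xP t| ≤ s0
  hV : ∀ t ∈ A, ∀ t' ∈ A, |xV t' - xV t| ≤ s0
  hL : ∀ t ∈ A, |L t| ≤ K ∧ |h t| ≤ K ∧ 1 / K ≤ |L t| + |h t|
  hR : ∀ t ∈ A, ∀ t' ∈ A, |L t * (xV t' - xV t) + h t * (xV t' - xV t) ^ 2| ≤
    K * (|L t| * |xP t' - xP t| + (xP t' - xP t) ^ 2 + |xP t' - xP t| * |xV t' - xV t| + s1)
  hD : ∀ t ∈ A, ∀ om : ℝ, s1 / (16 * K ^ 4) ≤ om → om ≤ s0 → |L t| * om ≤ s1 → om ^ 2 ≤ s1 →
    ((A.filter fun t' => |xP t' - xP t| ≤ om ∧ |xV t' - xV t| ≤ om).card : ℝ) ≤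
      Dm * om ^ (1 + q) * s1

section

variable {ι : Type*} {A : Finset ι} {xP xV L h : ι → ℝ} {s0 s1 K q Dm : ℝ}

open Classical in
/-- lines with a given size of `L` -/
theorem class_bd (H : PlR A xP xV L h s0 s1 K q Dm) {σ θ : ℝ} (hσ : 0 < σ) (hσ2 : σ ^ 2 = s1)
    (hσθ : σ ≤ θ) (hθK : θ ≤ 2 * K) {B : Finset ι} (hB : B ⊆ A)
    (hLB : ∀ t ∈ B, |L t| ≤ θ ∧ (θ = σ ∨ (2 * σ ≤ θ ∧ θ < 2 * |L t|))) :
    (B.card : ℝ) ≤ 12304 * K ^ 6 * Dm * s0 ^ (1 + q) * s1 := by
  have hK := H.hK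
  have hK0 : 0 < K := by linarith
  have hK3 : 1 ≤ K ^ 3 := one_le_pow₀ hK
  have hK6 : 1 ≤ K ^ 6 := one_le_pow₀ hK
  have hs1 := H.s1p
  have hs0 : 0 < s0 := lt_of_lt_of_le hs1 H.s10
  have hθ0 : 0 < θ := lt_of_lt_of_le hσ hσθ
  set ω : ℝ := min s0 (s1 / θ) / (8 * K ^ 3) with hωd
  have hm0 : 0 < min s0 (s1 / θ) := lt_min hs0 (by positivity)
  have hω0 : 0 < ω := by positivity
  have hωe : 8 * K ^ 3 * ω = min s0 (s1 / θ) := by rw [hωd]; field_simp
  have hω1 : 8 * K ^ 3 * ω ≤ s1 / θ := hωe.le.trans (min_le_right _ _)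
  have hω2 : 8 * K ^ 3 * ω ≤ s0 := hωe.le.trans (min_le_left _ _)
  have hωK : ω ≤ 8 * K ^ 3 * ω := by
    have : 1 * ω ≤ (8 * K ^ 3) * ω := mul_le_mul_of_nonneg_right (by linarith) hω0.le
    linarith
  have hωs0 : ω ≤ s0 := hωK.trans hω2
  have hωθ : ω * θ ≤ s1 := by
    have := hωK.trans hω1
    rwa [le_div_iff₀ hθ0] at this
  have hωσ : ω ≤ σ := by
    have h1 : ω * σ ≤ σ * σ := by
      refine (mul_le_mul_of_nonneg_left hσθ hω0.le).trans (hωθ.trans (le_of_eq ?_))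
      rw [← hσ2]; ring
    exact le_of_mul_le_mul_right h1 hσ
  have hωsq : ω ^ 2 ≤ s1 := by
    rw [← hσ2]; exact pow_le_pow_left₀ hω0.le hωσ 2
  have hωlow : s1 / (16 * K ^ 4) ≤ ω := by
    have h1 : s1 / (2 * K) ≤ min s0 (s1 / θ) := by
      refine le_min ?_ ?_
      · refine le_trans ?_ H.s10
        exact div_le_self hs1.le (by linarith)
      · exact div_le_div_of_nonneg_left hs1.le hθ0 hθK
    rw [hωd, le_div_iff₀ (by positivity)]
    refine le_trans (le_of_eq ?_) h1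
    field_simp; ring
  set Q : ℝ := Dm * ω ^ (1 + q) * s1 with hQ
  have hQ0 : 0 ≤ Q := by
    have := H.D0
    positivity
  -- fibres
  have hfib : ∀ t0 ∈ B, ((B.filter fun t' => ⌊xP t' / ω⌋ = ⌊xP t0 / ω⌋).card : ℝ) ≤
      (3076 * K ^ 6) * Q := by
    intro t0 ht0
    set G := B.filter fun t' => ⌊xP t' / ω⌋ = ⌊xP t0 / ω⌋ with hG
    refine card_fib G (fun t => ⌊xV t / ω⌋) hQ0 ?_ ?_
    · -- number of velocity cells
      set R0 : ℝ := 768 * K ^ 6 * ω with hR0
      have hR00 : 0 ≤ R0 := by positivity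
      set c2 : ℝ := xV t0 - L t0 / h t0 with hc2
      have hsplit : ∀ t ∈ G, |xV t - xV t0| ≤ R0 ∨ |xV t - c2| ≤ R0 := by
        intro t ht
        obtain ⟨htB, htP⟩ := Finset.mem_filter.1 ht
        have hx := H.hV t0 (hB ht0) t (hB htB)
        obtain ⟨l1, l2, l3⟩ := H.hL t0 (hB ht0)
        obtain ⟨m1, m2⟩ := hLB t0 ht0
        rcases le_total (s1 / θ) s0 with hc | hc
        · have hωe' : 8 * K ^ 3 * ω = s1 / θ := by rw [hωe, min_eq_right hc]
          have h1 := two_pt hK hs1 hσ hσ2 hω0 hω1 m1 m2 l1 l2 l3 (hx.trans H.s01)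
            (abs_of_floor hω0 htP) (H.hR t0 (hB ht0) t (hB htB))
          have e1 : 96 * K ^ 3 * (s1 / θ) = R0 := by rw [← hωe', hR0]; ring
          rw [e1] at h1
          rcases h1 with h1 | h1
          · left; exact h1
          · right
            have e2 : xV t - c2 = xV t - xV t0 + L t0 / h t0 := by rw [hc2]; ring
            rw [e2]; exact h1
        · left
          refine hx.trans ?_
          have hωe' : 8 * K ^ 3 * ω = s0 := by rw [hωe, min_eq_left hc]
          rw [← hωe', hR0]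
          refine mul_le_mul_of_nonneg_right ?_ hω0.le
          have : K ^ 3 * 1 ≤ K ^ 3 * K ^ 3 := mul_le_mul_of_nonneg_left hK3 (by positivity)
          have e : K ^ 3 * K ^ 3 = K ^ 6 := by ring
          rw [e] at this
          linarith
      have hG12 : (G.image fun t => ⌊xV t / ω⌋) ⊆
          ((G.filter fun t => |xV t - xV t0| ≤ R0).image fun t => ⌊xV t / ω⌋) ∪
          ((G.filter fun t => |xV t - c2| ≤ R0).image fun t => ⌊xV t / ω⌋) := by
        intro j hj
        obtain ⟨t, ht, rfl⟩ := Finset.mem_image.1 hj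
        rcases hsplit t ht with h1 | h1
        · exact Finset.mem_union_left _ (Finset.mem_image_of_mem _ (Finset.mem_filter.2 ⟨ht, h1⟩))
        · exact Finset.mem_union_right _ (Finset.mem_image_of_mem _ (Finset.mem_filter.2 ⟨ht, h1⟩))
      have c1 := floor_image (G.filter fun t => |xV t - xV t0| ≤ R0) xV hω0 hR00
        (fun t ht => (Finset.mem_filter.1 ht).2)
      have c2' := floor_image (G.filter fun t => |xV t - c2| ≤ R0) xV hω0 hR00
        (fun t ht => (Finset.mem_filter.1 ht).2)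
      have c3 : ((G.image fun t => ⌊xV t / ω⌋).card : ℝ) ≤
          (((G.filter fun t => |xV t - xV t0| ≤ R0).image fun t => ⌊xV t / ω⌋).card : ℝ) +
          (((G.filter fun t => |xV t - c2| ≤ R0).image fun t => ⌊xV t / ω⌋).card : ℝ) := by
        exact_mod_cast (Finset.card_le_card hG12).trans (Finset.card_union_le _ _)
      have e1 : 2 * R0 / ω = 1536 * K ^ 6 := by rw [hR0]; field_simp; ring
      rw [e1] at c1 c2'
      linarith
    · intro t ht
      obtain ⟨htB, htP⟩ := Finset.mem_filter.1 ht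
      have h1 := H.hD t (hB htB) ω hωlow hωs0
        ((mul_le_mul_of_nonneg_right (hLB t htB).1 hω0.le).trans (by linarith)) hωsq
      refine le_trans ?_ h1
      refine Nat.cast_le.2 (Finset.card_le_card ?_)
      intro t' ht'
      obtain ⟨ht'G, ht'V⟩ := Finset.mem_filter.1 ht'
      obtain ⟨ht'B, ht'P⟩ := Finset.mem_filter.1 ht'G
      exact Finset.mem_filter.2 ⟨hB ht'B, abs_of_floor hω0 (ht'P.trans htP.symm),
        abs_of_floor hω0 ht'V⟩
  rcases B.eq_empty_or_nonempty with he | ⟨t0, ht0⟩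
  · rw [he, Finset.card_empty, Nat.cast_zero]
    have := H.D0
    positivity
  have hpos : ((B.image fun t => ⌊xP t / ω⌋).card : ℝ) ≤ 4 * (s0 / ω) := by
    refine (floor_image B xP hω0 hs0.le (a := xP t0)
      (fun t ht => H.hP t0 (hB ht0) t (hB ht))).trans ?_
    have : 1 ≤ s0 / ω := by rw [one_le_div hω0]; exact hωs0
    have e : 2 * s0 / ω = 2 * (s0 / ω) := by ring
    rw [e]; linarith
  have h1 := card_fib B (fun t => ⌊xP t / ω⌋) (B := 3076 * K ^ 6 * Q) (by positivity) hpos hfib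
  refine h1.trans ?_
  have e1 : ω ^ (1 + q) = ω * ω ^ q := by rw [Real.rpow_add hω0, Real.rpow_one]
  have e2 : s0 ^ (1 + q) = s0 * s0 ^ q := by rw [Real.rpow_add hs0, Real.rpow_one]
  have e3 : 4 * (s0 / ω) * (3076 * K ^ 6 * Q) = 12304 * K ^ 6 * Dm * s0 * s1 * ω ^ q := by
    rw [hQ, e1]; field_simp; ring
  rw [e3, e2]
  have h2 : ω ^ q ≤ s0 ^ q := Real.rpow_le_rpow hω0.le hωs0 H.q0
  have h3 : 0 ≤ 12304 * K ^ 6 * Dm * s0 * s1 := by
    have := H.D0
    positivity
  have h4 := mul_le_mul_of_nonneg_left h2 h3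
  linarith

open Classical in
/-- **the plank condition from short strips** -/
theorem plank_cells (H : PlR A xP xV L h s0 s1 K q Dm) :
    (A.card : ℝ) ≤ 40000 * K ^ 7 * (1 + Real.log (1 / s1)) * Dm * s0 ^ (1 + q) * s1 := by
  have hK := H.hK
  have hK0 : 0 < K := by linarith
  have hs1 := H.s1p
  have hs0 : 0 < s0 := lt_of_lt_of_le hs1 H.s10
  have hs11 : s1 ≤ 1 := H.s10.trans H.s01
  set σ := Real.sqrt s1 with hσd
  have hσ : 0 < σ := Real.sqrt_pos.2 hs1
  have hσ2 : σ ^ 2 = s1 := Real.sq_sqrt hs1.le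
  have hσ1 : σ ≤ 1 := by
    rw [hσd]; exact Real.sqrt_le_one.2 hs11
  have hex : ∀ t : ι, ∃ k : ℕ, |L t| ≤ 2 ^ k * σ ∧ (k = 0 ∨ (1 ≤ k ∧ 2 ^ k * σ < 2 * |L t|)) := by
    intro t
    have he : ∃ k : ℕ, |L t| ≤ 2 ^ k * σ := by
      obtain ⟨n, hn⟩ := pow_unbounded_of_one_lt (|L t| / σ) (by norm_num : (1 : ℝ) < 2)
      rw [div_lt_iff₀ hσ] at hn
      exact ⟨n, hn.le⟩
    refine ⟨Nat.find he, Nat.find_spec he, ?_⟩
    rcases Nat.eq_zero_or_pos (Nat.find he) with h0 | h0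
    · left; exact h0
    · right
      refine ⟨h0, ?_⟩
      have := Nat.find_min he (m := Nat.find he - 1) (by omega)
      push Not at this
      have e : (2 : ℝ) ^ (Nat.find he) = 2 * 2 ^ (Nat.find he - 1) := by
        rw [← pow_succ']; congr 1; omega
      rw [e]
      linarith
  choose k hk1 hk2 using hex
  set lam := Real.log (1 / s1) with hlam
  have hlam0 : 0 ≤ lam := by
    rw [hlam]; apply Real.log_nonneg; rw [le_div_iff₀ hs1]; linarith
  have hkb : ∀ t ∈ A, (k t : ℝ) ≤ 3 * K * (1 + lam) - 1 := by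
    intro t ht
    have hone : 0 ≤ 3 * K * (1 + lam) - 1 := by nlinarith
    rcases hk2 t with h0 | ⟨h0, h1⟩
    · rw [h0, Nat.cast_zero]; exact hone
    · have h2 : (2 : ℝ) ^ (k t) < 2 * K / σ := by
        rw [lt_div_iff₀ hσ]
        have := (H.hL t ht).1
        linarith
      have h3 : Real.log ((2 : ℝ) ^ (k t)) < Real.log (2 * K / σ) :=
        Real.log_lt_log (by positivity) h2
      rw [Real.log_pow, Real.log_div (by positivity) hσ.ne', Real.log_mul (by norm_num) hK0.ne']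
        at h3
      have h4 : Real.log K ≤ K - 1 := Real.log_le_sub_one_of_pos hK0
      have h5 : Real.log σ = - lam / 2 := by
        have : Real.log (σ ^ 2) = Real.log s1 := by rw [hσ2]
        rw [Real.log_pow] at this
        rw [hlam, one_div, Real.log_inv]
        push_cast at this
        linarith
      have h6 := Real.log_two_gt_d9
      have h7 := Real.log_two_lt_d9
      rw [h5] at h3
      have h8 : (k t : ℝ) * 0.6931471803 ≤ (k t : ℝ) * Real.log 2 :=
        mul_le_mul_of_nonneg_left h6.le (Nat.cast_nonneg _)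
      have h9 : (k t : ℝ) * 0.6931471803 ≤ 0.6931471808 + (K - 1) + lam / 2 := by linarith
      have h10 : lam ≤ K * lam := by
        have := mul_le_mul_of_nonneg_right hK hlam0
        linarith
      have e10 : 3 * K * (1 + lam) - 1 = 3 * K + 3 * (K * lam) - 1 := by ring
      rw [e10]
      linarith
  have hN : ((A.image k).card : ℝ) ≤ 3 * K * (1 + lam) := by
    rcases A.eq_empty_or_nonempty with he | hne
    · rw [he, Finset.image_empty, Finset.card_empty, Nat.cast_zero]; positivity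
    · obtain ⟨m, hm1, hm2⟩ := (A.image k).exists_max_image id (hne.image k)
      obtain ⟨t, ht, rfl⟩ := Finset.mem_image.1 hm1
      have hsub : A.image k ⊆ Finset.range (k t + 1) := by
        intro j hj
        have := hm2 j hj
        rw [Finset.mem_range]
        exact Nat.lt_succ_of_le this
      have h1 := Finset.card_le_card hsub
      rw [Finset.card_range] at h1
      have h2 : ((A.image k).card : ℝ) ≤ (k t : ℝ) + 1 := by exact_mod_cast h1
      have := hkb t ht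
      linarith
  have h1 := card_fib A k (N := 3 * K * (1 + lam)) (B := 12304 * K ^ 6 * Dm * s0 ^ (1 + q) * s1)
    (by have := H.D0; positivity) hN (by
      intro t0 ht0
      refine class_bd H (σ := σ) (θ := 2 ^ (k t0) * σ) hσ hσ2 ?_ ?_ (Finset.filter_subset _ _) ?_
      · have : (1 : ℝ) ≤ 2 ^ (k t0) := one_le_pow₀ (by norm_num)
        have := mul_le_mul_of_nonneg_right this hσ.le
        linarith
      · rcases hk2 t0 with h0 | ⟨h0, h1⟩
        · rw [h0, pow_zero, one_mul]; linarith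
        · have := (H.hL t0 ht0).1
          linarith
      · intro t ht
        obtain ⟨htA, htk⟩ := Finset.mem_filter.1 ht
        rw [← htk]
        refine ⟨hk1 t, ?_⟩
        rcases hk2 t with h0 | ⟨h0, h1⟩
        · left; rw [h0, pow_zero, one_mul]
        · right
          refine ⟨?_, h1⟩
          have : (2 : ℝ) ^ 1 ≤ 2 ^ (k t) := pow_le_pow_right₀ (by norm_num) h0
          rw [pow_one] at this
          exact mul_le_mul_of_nonneg_right this hσ.le)
  refine h1.trans ?_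
  have h2 : 0 ≤ K ^ 7 * (1 + lam) * Dm * s0 ^ (1 + q) * s1 := by
    have := H.D0
    positivity
  have e : 3 * K * (1 + lam) * (12304 * K ^ 6 * Dm * s0 ^ (1 + q) * s1) =
      36912 * (K ^ 7 * (1 + lam) * Dm * s0 ^ (1 + q) * s1) := by ring
  have e2 : 40000 * K ^ 7 * (1 + lam) * Dm * s0 ^ (1 + q) * s1 =
      40000 * (K ^ 7 * (1 + lam) * Dm * s0 ^ (1 + q) * s1) := by ring
  rw [e, e2]
  linarith

end

end Crest.Agent.R136.Kf605
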