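import Crest.Agent.R136.Lgt5_989
import Crest.Agent.R136.Kf2_605

/-!
# R136: the relation between two lines of a plank of a curved sheet (helper605)

`rel` : in tangent coordinates of `T`, the lateral velocity difference `x` along the long axis of a
thin strip satisfies `|L x + h x ^ 2| ≤ 2000 (|L| |xP| + xP ^ 2 + |xP| |x| + s)`.
`nondeg` : `|L| + |h| ≥ 50000 δ` (`δ` = determinant of the fan).
-/

set_option autoImplicit false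
set_option linter.unusedVariables false

namespace Crest.Agent.R136.Kf605

open Finset
open Crest.Agent.R136.Sh605 Crest.Agent.R136.K4
open Crest.Agent.R136.Tl102 (QF Fq bz shB0 shB1 shG scB1 scG kap NrmC IsExp StP fr fan slp)
open Crest.Agent.R136.Lgt989

theorem mul_ab {a b s t : ℝ} (ha : |a| ≤ s) (hb : |b| ≤ t) : |a * b| ≤ s * t := by
  rw [abs_mul]; exact mul_le_mul ha hb (abs_nonneg _) ((abs_nonneg _).trans ha)

/-- lateral part of the form -/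
def G2 (G : QF) (x y : ℝ) : ℝ := G.uu * x ^ 2 + G.uv * (x * y) + G.vv * y ^ 2

section

variable {N0 γ : V3} {G : QF} {ε s b1 b2 : ℝ} {p v : V3}

theorem G2_le (hG : G.Le 13) {x y r : ℝ} (hx : |x| ≤ r) (hy : |y| ≤ r) : |G2 G x y| ≤ 39 * r ^ 2 := by
  obtain ⟨-, -, -, g4, g5, g6⟩ := hG
  have a1 := mul_ab g4 (mul_ab hx hx)
  have a2 := mul_ab g5 (mul_ab hx hy)
  have a3 := mul_ab g6 (mul_ab hy hy)
  have e : G2 G x y = G.uu * (x * x) + G.uv * (x * y) + G.vv * (y * y) := by unfold G2; ring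
  rw [e]
  refine (abs_add_le _ _).trans ((add_le_add ((abs_add_le _ _).trans (add_le_add a1 a2)) a3).trans ?_)
  nlinarith

/-- decomposition of the lateral form along the axes of the strip -/
theorem G2_dec (G : QF) {b1 b2 x1 x2 : ℝ} (hb : b1 ^ 2 + b2 ^ 2 = 1) :
    G2 G x1 x2 = G2 G b1 b2 * (b1 * x1 + b2 * x2) ^ 2 +
      (2 * G.uu * (b1 * -b2) + G.uv * (b1 * b1 - b2 * b2) + 2 * G.vv * (b2 * b1)) *
        ((b1 * x1 + b2 * x2) * (-b2 * x1 + b1 * x2)) +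
      G2 G (-b2) b1 * (-b2 * x1 + b1 * x2) ^ 2 := by
  have e1 : x1 = b1 * (b1 * x1 + b2 * x2) - b2 * (-b2 * x1 + b1 * x2) := by
    linear_combination (-x1) * hb
  have e2 : x2 = b2 * (b1 * x1 + b2 * x2) + b1 * (-b2 * x1 + b1 * x2) := by
    linear_combination (-x2) * hb
  set X := b1 * x1 + b2 * x2 with hX
  set Y := -b2 * x1 + b1 * x2 with hY
  rw [e1, e2]
  unfold G2
  ring

theorem b_le (hb : b1 ^ 2 + b2 ^ 2 = 1) : |b1| ≤ 1 ∧ |b2| ≤ 1 := by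
  constructor
  · rw [← sq_le_one_iff_abs_le_one]; linarith [sq_nonneg b2]
  · rw [← sq_le_one_iff_abs_le_one]; linarith [sq_nonneg b1]

theorem cross_le (hG : G.Le 13) (hb : b1 ^ 2 + b2 ^ 2 = 1) :
    |2 * G.uu * (b1 * -b2) + G.uv * (b1 * b1 - b2 * b2) + 2 * G.vv * (b2 * b1)| ≤ 78 := by
  obtain ⟨-, -, -, g4, g5, g6⟩ := hG
  obtain ⟨h1, h2⟩ := b_le hb
  have c1 : |b1 * -b2| ≤ 1 * 1 := mul_ab h1 (by rwa [abs_neg])
  have c2 : |b2 * b1| ≤ 1 * 1 := mul_ab h2 h1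
  have c3 : |b1 * b1 - b2 * b2| ≤ 2 := by
    refine (abs_sub _ _).trans ?_
    have := mul_ab h1 h1
    have := mul_ab h2 h2
    linarith
  have t2 : |(2 : ℝ)| ≤ 2 := by norm_num
  have a1 := mul_ab (mul_ab t2 g4) c1
  have a2 := mul_ab g5 c3
  have a3 := mul_ab (mul_ab t2 g6) c2
  refine (abs_add_le _ _).trans ((add_le_add ((abs_add_le _ _).trans (add_le_add a1 a2)) a3).trans ?_)
  norm_num

/-- the components of a lateral vector -/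
theorem comp_le (hb : b1 ^ 2 + b2 ^ 2 = 1) (x1 x2 : ℝ) :
    |x1| ≤ |b1 * x1 + b2 * x2| + |-b2 * x1 + b1 * x2| ∧
    |x2| ≤ |b1 * x1 + b2 * x2| + |-b2 * x1 + b1 * x2| := by
  obtain ⟨h1, h2⟩ := b_le hb
  have e1 : x1 = b1 * (b1 * x1 + b2 * x2) - b2 * (-b2 * x1 + b1 * x2) := by
    linear_combination (-x1) * hb
  have e2 : x2 = b2 * (b1 * x1 + b2 * x2) + b1 * (-b2 * x1 + b1 * x2) := by
    linear_combination (-x2) * hb
  constructor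
  · conv_lhs => rw [e1]
    refine (abs_sub _ _).trans ?_
    rw [abs_mul, abs_mul]
    exact add_le_add (mul_le_of_le_one_left (abs_nonneg _) h1)
      (mul_le_of_le_one_left (abs_nonneg _) h2)
  · conv_lhs => rw [e2]
    refine (abs_add_le _ _).trans ?_
    rw [abs_mul, abs_mul]
    exact add_le_add (mul_le_of_le_one_left (abs_nonneg _) h2)
      (mul_le_of_le_one_left (abs_nonneg _) h1)

theorem abs3 {a b c x y z : ℝ} (h1 : |a| ≤ x) (h2 : |b| ≤ y) (h3 : |c| ≤ z) :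
    |a + b + c| ≤ x + y + z :=
  (abs_add_le _ _).trans (add_le_add ((abs_add_le _ _).trans (add_le_add h1 h2)) h3)

theorem abs2 {a b x y : ℝ} (h1 : |a| ≤ x) (h2 : |b| ≤ y) : |a + b| ≤ x + y :=
  (abs_add_le _ _).trans (add_le_add h1 h2)

/-- lateral form, thin second component -/
theorem G2_thin (hG : G.Le 13) (hb : b1 ^ 2 + b2 ^ 2 = 1) {x1 x2 : ℝ}
    (hX : |b1 * x1 + b2 * x2| ≤ 1) (hs : s ≤ 1) (hY : |-b2 * x1 + b1 * x2| ≤ s) :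
    |G2 G x1 x2 - G2 G b1 b2 * (b1 * x1 + b2 * x2) ^ 2| ≤ 117 * s := by
  obtain ⟨h1, h2⟩ := b_le hb
  have hs0 : 0 ≤ s := (abs_nonneg _).trans hY
  have e : G2 G x1 x2 - G2 G b1 b2 * (b1 * x1 + b2 * x2) ^ 2 =
      (2 * G.uu * (b1 * -b2) + G.uv * (b1 * b1 - b2 * b2) + 2 * G.vv * (b2 * b1)) *
        ((b1 * x1 + b2 * x2) * (-b2 * x1 + b1 * x2)) +
      G2 G (-b2) b1 * ((-b2 * x1 + b1 * x2) * (-b2 * x1 + b1 * x2)) := by
    rw [G2_dec G hb]; ring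
  rw [e]
  have a2 := mul_ab (cross_le hG hb) (mul_ab hX hY)
  have a3 := mul_ab (G2_le hG (x := -b2) (by rwa [abs_neg]) h1) (mul_ab hY hY)
  refine (abs2 a2 a3).trans ?_
  have : s * s ≤ 1 * s := mul_le_mul_of_nonneg_right hs hs0
  linarith

/-- thickness coordinate of the position -/
theorem rel_p0 (n0 : 1 / 2 ≤ N0 0) (n1 : N0 1 = 0) (n2 : N0 2 = 0) (hG : G.Le 13)
    (hp : ∀ k, |p k| ≤ 1 / 1000) (k0 : |dt N0 p + G.ev p| ≤ ε) {Q : ℝ}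
    (q1 : |G2 G (p 1) (p 2)| ≤ Q) : |p 0| ≤ 3 * (ε + Q) := by
  obtain ⟨g1, g2, g3, g4, g5, g6⟩ := id hG
  have e1 : N0 0 * p 0 = (dt N0 p + G.ev p) + (-G2 G (p 1) (p 2)) +
      (-(p 0 * (G.yy * p 0 + (G.yu * p 1 + G.yv * p 2)))) := by
    simp only [dt, QF.ev, G2, n1, n2]; ring
  have a1 : |G.yy * p 0 + (G.yu * p 1 + G.yv * p 2)| ≤ 39 / 1000 :=
    (abs2 (mul_ab g1 (hp 0)) (abs2 (mul_ab g2 (hp 1)) (mul_ab g3 (hp 2)))).trans (by norm_num)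
  have a2 := mul_ab (le_refl |p 0|) a1
  have a3 : |N0 0 * p 0| ≤ ε + Q + |p 0| * (39 / 1000) := by
    rw [e1]
    exact abs3 k0 (by rwa [abs_neg]) (by rwa [abs_neg])
  have a4 : 1 / 2 * |p 0| ≤ |N0 0 * p 0| := by
    rw [abs_mul, abs_of_pos (by linarith : 0 < N0 0)]
    exact mul_le_mul_of_nonneg_right n0 (abs_nonneg _)
  have hε0 : 0 ≤ ε := (abs_nonneg _).trans k0
  have hQ0 : 0 ≤ Q := (abs_nonneg _).trans q1
  linarith

/-- bilinear lateral form -/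
theorem rel_bil (hG : G.Le 13) {P V : ℝ} (hp1 : |p 1| ≤ P) (hp2 : |p 2| ≤ P) (hv1 : |v 1| ≤ V)
    (hv2 : |v 2| ≤ V) :
    |2 * G.uu * (p 1 * v 1) + G.uv * (p 1 * v 2 + p 2 * v 1) + 2 * G.vv * (p 2 * v 2)| ≤
      78 * (P * V) := by
  obtain ⟨g1, g2, g3, g4, g5, g6⟩ := hG
  have t2 : |(2 : ℝ)| ≤ 2 := by norm_num
  have a1 := mul_ab (mul_ab t2 g4) (mul_ab hp1 hv1)
  have a2 := mul_ab g5 (abs2 (mul_ab hp1 hv2) (mul_ab hp2 hv1))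
  have a3 := mul_ab (mul_ab t2 g6) (mul_ab hp2 hv2)
  refine (abs3 a1 a2 a3).trans (le_of_eq (by ring))

/-- thickness coordinate of the velocity -/
theorem rel_v0 (n0 : 1 / 2 ≤ N0 0) (n1 : N0 1 = 0) (n2 : N0 2 = 0) (hγ : ∀ k, |γ k| ≤ 3 / 2)
    (hG : G.Le 13) (hp : ∀ k, |p k| ≤ 1 / 1000) (hv : ∀ k, |v k| ≤ 1 / 1000)
    (k1 : |dt N0 v + dt γ p + G.pol p v| ≤ 8 * ε) {Q1 Q2 : ℝ}
    (h1 : |γ 1 * p 1 + γ 2 * p 2| ≤ Q1)
    (h2 : |2 * G.uu * (p 1 * v 1) + G.uv * (p 1 * v 2 + p 2 * v 1) + 2 * G.vv * (p 2 * v 2)| ≤ Q2) :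
    |v 0| ≤ 3 * (8 * ε + 2 * |p 0| + Q1 + Q2) := by
  obtain ⟨g1, g2, g3, g4, g5, g6⟩ := hG
  have e1 : N0 0 * v 0 = ((dt N0 v + dt γ p + G.pol p v) + (-(γ 0 * p 0)) +
      (-(γ 1 * p 1 + γ 2 * p 2))) +
      (-(2 * G.uu * (p 1 * v 1) + G.uv * (p 1 * v 2 + p 2 * v 1) + 2 * G.vv * (p 2 * v 2))) +
      (-(p 0 * (G.yu * v 1 + G.yv * v 2)) + -(v 0 * (2 * G.yy * p 0 + G.yu * p 1 + G.yv * p 2))) := by
    simp only [dt, QF.pol, n1, n2]; ring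
  have t2 : |(2 : ℝ)| ≤ 2 := by norm_num
  have a1 : |G.yu * v 1 + G.yv * v 2| ≤ 26 / 1000 :=
    (abs2 (mul_ab g2 (hv 1)) (mul_ab g3 (hv 2))).trans (by norm_num)
  have a2 : |2 * G.yy * p 0 + G.yu * p 1 + G.yv * p 2| ≤ 52 / 1000 :=
    (abs3 (mul_ab (mul_ab t2 g1) (hp 0)) (mul_ab g2 (hp 1)) (mul_ab g3 (hp 2))).trans
      (by norm_num)
  have a3 := mul_ab (le_refl |p 0|) a1
  have a4 := mul_ab (le_refl |v 0|) a2
  have a5 := mul_ab (hγ 0) (le_refl |p 0|)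
  have a7 : |N0 0 * v 0| ≤ (8 * ε + 3 / 2 * |p 0| + Q1) + Q2 + (|p 0| * (26 / 1000) +
      |v 0| * (52 / 1000)) := by
    rw [e1]
    exact abs3 (abs3 k1 (by rwa [abs_neg]) (by rwa [abs_neg])) (by rwa [abs_neg])
      (abs2 (by rwa [abs_neg]) (by rwa [abs_neg]))
  have a8 : 1 / 2 * |v 0| ≤ |N0 0 * v 0| := by
    rw [abs_mul, abs_of_pos (by linarith : 0 < N0 0)]
    exact mul_le_mul_of_nonneg_right n0 (abs_nonneg _)
  have hp00 := abs_nonneg (p 0)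
  have hv00 := abs_nonneg (v 0)
  have hQ1 : 0 ≤ Q1 := (abs_nonneg _).trans h1
  have hQ2 : 0 ≤ Q2 := (abs_nonneg _).trans h2
  have hε0 : 0 ≤ 8 * ε := (abs_nonneg _).trans k1
  linarith

/-- last coefficient -/
theorem rel_end (hγ : ∀ k, |γ k| ≤ 3 / 2) (hG : G.Le 13) (hv : ∀ k, |v k| ≤ 1 / 1000)
    (k2 : |dt γ v + G.ev v| ≤ 8 * ε) :
    |γ 1 * v 1 + γ 2 * v 2 + G2 G (v 1) (v 2)| ≤ 8 * ε + 2 * |v 0| := by
  obtain ⟨g1, g2, g3, g4, g5, g6⟩ := hG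
  have e1 : γ 1 * v 1 + γ 2 * v 2 + G2 G (v 1) (v 2) = (dt γ v + G.ev v) + (-(γ 0 * v 0)) +
      (-(v 0 * (G.yy * v 0 + (G.yu * v 1 + G.yv * v 2)))) := by
    simp only [dt, QF.ev, G2]; ring
  have a1 : |G.yy * v 0 + (G.yu * v 1 + G.yv * v 2)| ≤ 39 / 1000 :=
    (abs2 (mul_ab g1 (hv 0)) (abs2 (mul_ab g2 (hv 1)) (mul_ab g3 (hv 2)))).trans (by norm_num)
  have a2 := mul_ab (le_refl |v 0|) a1
  have a3 := mul_ab (hγ 0) (le_refl |v 0|)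
  rw [e1]
  refine (abs3 k2 ((abs_neg _).le.trans a3) ((abs_neg _).le.trans a2)).trans ?_
  linarith [abs_nonneg (v 0)]

set_option maxHeartbeats 1000000 in
/-- **the relation between two lines of a strip** -/
theorem rel (n0 : 1 / 2 ≤ N0 0) (n1 : N0 1 = 0) (n2 : N0 2 = 0) (hγ : ∀ k, |γ k| ≤ 3 / 2)
    (hG : G.Le 13) (hb : b1 ^ 2 + b2 ^ 2 = 1) (hp : ∀ k, |p k| ≤ 1 / 1000)
    (hv : ∀ k, |v k| ≤ 1 / 1000) (k0 : |dt N0 p + G.ev p| ≤ ε)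
    (k1 : |dt N0 v + dt γ p + G.pol p v| ≤ 8 * ε) (k2 : |dt γ v + G.ev v| ≤ 8 * ε) (hε : ε ≤ s)
    (hs : s ≤ 1) (hyp : |-b2 * p 1 + b1 * p 2| ≤ s) (hyv : |-b2 * v 1 + b1 * v 2| ≤ s) :
    |(γ 1 * b1 + γ 2 * b2) * (b1 * v 1 + b2 * v 2) + G2 G b1 b2 * (b1 * v 1 + b2 * v 2) ^ 2| ≤
      10000 * (|γ 1 * b1 + γ 2 * b2| * |b1 * p 1 + b2 * p 2| + (b1 * p 1 + b2 * p 2) ^ 2 +
        |b1 * p 1 + b2 * p 2| * |b1 * v 1 + b2 * v 2| + s) := by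
  obtain ⟨h1, h2⟩ := b_le hb
  have hs0 : 0 ≤ s := (abs_nonneg _).trans hyp
  obtain ⟨cp1, cp2⟩ := comp_le hb (p 1) (p 2)
  obtain ⟨cv1, cv2⟩ := comp_le hb (v 1) (v 2)
  have hLn3 : |-γ 1 * b2 + γ 2 * b1| ≤ 3 := by
    refine (abs2 (mul_ab (s := 3 / 2) (by rw [abs_neg]; exact hγ 1) h2) (mul_ab (hγ 2) h1)).trans ?_
    norm_num
  have hX1 : |b1 * v 1 + b2 * v 2| ≤ 1 :=
    (abs2 (mul_ab h1 (hv 1)) (mul_ab h2 (hv 2))).trans (by norm_num)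
  have hXP1 : |b1 * p 1 + b2 * p 2| ≤ 1 :=
    (abs2 (mul_ab h1 (hp 1)) (mul_ab h2 (hp 2))).trans (by norm_num)
  have q1 := G2_thin hG hb hXP1 hs hyp
  have q1' := G2_thin hG hb hX1 hs hyv
  have gb : |G2 G b1 b2| ≤ 39 := (G2_le hG h1 h2).trans (by norm_num)
  have ep : γ 1 * p 1 + γ 2 * p 2 = (γ 1 * b1 + γ 2 * b2) * (b1 * p 1 + b2 * p 2) +
      (-γ 1 * b2 + γ 2 * b1) * (-b2 * p 1 + b1 * p 2) := by
    linear_combination (-(γ 1 * p 1 + γ 2 * p 2)) * hb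
  have ev : γ 1 * v 1 + γ 2 * v 2 = (γ 1 * b1 + γ 2 * b2) * (b1 * v 1 + b2 * v 2) +
      (-γ 1 * b2 + γ 2 * b1) * (-b2 * v 1 + b1 * v 2) := by
    linear_combination (-(γ 1 * v 1 + γ 2 * v 2)) * hb
  generalize hX : b1 * v 1 + b2 * v 2 = X at *
  generalize hY : -b2 * v 1 + b1 * v 2 = Y at *
  generalize hXP : b1 * p 1 + b2 * p 2 = XP at *
  generalize hYP : -b2 * p 1 + b1 * p 2 = YP at *
  generalize hL : γ 1 * b1 + γ 2 * b2 = L at *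
  generalize hLn : -γ 1 * b2 + γ 2 * b1 = Ln at *
  have X0 := abs_nonneg X
  have XP0 := abs_nonneg XP
  have L0 := abs_nonneg L
  have XPX : 0 ≤ |XP| * |X| := mul_nonneg XP0 X0
  have LXP : 0 ≤ |L| * |XP| := mul_nonneg L0 XP0
  have XPsq : 0 ≤ XP ^ 2 := sq_nonneg _
  have hp0 := rel_p0 n0 n1 n2 hG hp k0 (Q := 39 * XP ^ 2 + 117 * s) (by
    have e : G2 G (p 1) (p 2) = G2 G b1 b2 * XP ^ 2 + (G2 G (p 1) (p 2) - G2 G b1 b2 * XP ^ 2) := by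
      ring
    rw [e]
    refine abs2 ?_ q1
    rw [abs_mul, abs_of_nonneg XPsq]
    exact mul_le_mul_of_nonneg_right gb XPsq)
  have hbil := rel_bil (p := p) (v := v) hG (P := |XP| + s) (V := |X| + s) (by linarith)
    (by linarith) (by linarith) (by linarith)
  have hprod : (|XP| + s) * (|X| + s) ≤ |XP| * |X| + 3 * s := by
    have a1 : s * |X| ≤ s * 1 := mul_le_mul_of_nonneg_left hX1 hs0
    have a2 : |XP| * s ≤ 1 * s := mul_le_mul_of_nonneg_right hXP1 hs0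
    have a3 : s * s ≤ 1 * s := mul_le_mul_of_nonneg_right hs hs0
    have e : (|XP| + s) * (|X| + s) = |XP| * |X| + s * |X| + |XP| * s + s * s := by ring
    rw [e]; linarith
  have hγp : |γ 1 * p 1 + γ 2 * p 2| ≤ |L| * |XP| + 3 * s := by
    rw [ep]
    exact abs2 (abs_mul _ _).le (mul_ab hLn3 hyp)
  have hv0 := rel_v0 n0 n1 n2 hγ hG hp hv k1 hγp hbil
  have hend := rel_end hγ hG hv k2
  have e1 : L * X + G2 G b1 b2 * X ^ 2 = (γ 1 * v 1 + γ 2 * v 2 + G2 G (v 1) (v 2)) +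
      (-(Ln * Y)) + (-(G2 G (v 1) (v 2) - G2 G b1 b2 * X ^ 2)) := by
    rw [ev]; ring
  have a4 := mul_ab hLn3 hyv
  rw [e1]
  refine (abs3 hend ((abs_neg _).le.trans a4) ((abs_neg _).le.trans q1')).trans ?_
  have hbil' : 78 * ((|XP| + s) * (|X| + s)) ≤ 78 * (|XP| * |X| + 3 * s) := by linarith
  linarith

/-- **non-degeneracy along every direction** -/
theorem nondeg (hγ : ∀ k, |γ k| ≤ 3 / 2) (hG : G.Le 13) (hb : b1 ^ 2 + b2 ^ 2 = 1) {δ : ℝ}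
    (hδ : 16777216 * δ ≤ |γ 1 * γ 2 * G.uv - γ 1 ^ 2 * G.vv - γ 2 ^ 2 * G.uu|) :
    40000 * δ ≤ |γ 1 * b1 + γ 2 * b2| + |G2 G b1 b2| := by
  obtain ⟨h1, h2⟩ := b_le hb
  have e0 : γ 1 * γ 2 * G.uv - γ 1 ^ 2 * G.vv - γ 2 ^ 2 * G.uu = -G2 G (γ 2) (-γ 1) := by
    unfold G2; ring
  rw [e0, abs_neg, G2_dec G hb] at hδ
  set A := b1 * γ 2 + b2 * -γ 1 with hA
  set B := -b2 * γ 2 + b1 * -γ 1 with hB
  have eB : |B| = |γ 1 * b1 + γ 2 * b2| := by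
    rw [hB, ← abs_neg]; congr 1; ring
  have hA3 : |A| ≤ 3 := by
    refine (abs2 (mul_ab h1 (hγ 2)) (mul_ab (t := 3 / 2) h2 (by rw [abs_neg]; exact hγ 1))).trans ?_
    norm_num
  have hB3 : |B| ≤ 3 := by
    refine (abs2 (mul_ab (s := 1) (by rwa [abs_neg]) (hγ 2))
      (mul_ab (t := 3 / 2) h1 (by rw [abs_neg]; exact hγ 1))).trans ?_
    norm_num
  have a1 : |G2 G b1 b2 * A ^ 2| ≤ |G2 G b1 b2| * 9 := by
    refine mul_ab le_rfl ?_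
    rw [abs_pow]
    calc |A| ^ 2 ≤ 3 ^ 2 := pow_le_pow_left₀ (abs_nonneg _) hA3 2
      _ = 9 := by norm_num
  have a2 := mul_ab (cross_le hG hb) (mul_ab hA3 (le_refl |B|))
  have a3 : |G2 G (-b2) b1 * B ^ 2| ≤ 39 * (3 * |B|) := by
    refine mul_ab ((G2_le hG (x := -b2) (by rwa [abs_neg]) h1).trans (by norm_num)) ?_
    rw [abs_pow, pow_two]
    exact mul_le_mul_of_nonneg_right hB3 (abs_nonneg _)
  have a4 := hδ.trans (abs3 a1 a2 a3)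
  rw [← eB]
  have := abs_nonneg B
  have := abs_nonneg (G2 G b1 b2)
  linarith

end

end Crest.Agent.R136.Kf605
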