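import Crest.Agent.R136.Nds_335
import Crest.Agent.R136.Cap1_102
import Crest.Agent.R136.Pl2W_102

/-!
# R136, PLAN 2 (AL), plank hypothesis of (KMb): the strip count (helper571, literal of helper685)

* `flat_of_exp` : the flatness of a strip in terms of the expansion of the sheet at the line gives
  `Nd565.FlatAt` (direction tangent to the sheet at the beginning of the long cell).
* `strip_hd` : number of lines of a sheet in a flat strip `(β, σ)` around one of its lines, from the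
  D-max of a sub-cell with two-sided exponents.
-/

set_option autoImplicit false
set_option linter.unusedVariables false

open Finset

namespace Crest.Agent.R136.Plh571

open Crest.Agent.R136.Sh605
open Crest.Agent.R136.K4 (Plk4)
open Crest.Agent.R136.Tlt51 (Shp InP)
open Crest.Agent.R136.Tl102
open Crest.Agent.R136.Nd565 (FlatAt Stp)
open Crest.Agent.R136.Phc248

theorem kap_mul_scB1 (b0 b1 : V3) (G : QF) :
    kap b0 b1 G * scB1 (kap b0 b1 G) b0 b1 1 = shB1 b0 b1 1 ∧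
    kap b0 b1 G * scB1 (kap b0 b1 G) b0 b1 2 = shB1 b0 b1 2 ∧
    kap b0 b1 G * (scG (kap b0 b1 G) b0 G).uu = (shG b0 G).uu ∧
    kap b0 b1 G * (scG (kap b0 b1 G) b0 G).uv = (shG b0 G).uv ∧
    kap b0 b1 G * (scG (kap b0 b1 G) b0 G).vv = (shG b0 G).vv := by
  have k1 : |shB1 b0 b1 1| ≤ kap b0 b1 G := (le_max_left _ _).trans (le_max_left _ _)
  have k2 : |shB1 b0 b1 2| ≤ kap b0 b1 G := (le_max_right _ _).trans (le_max_left _ _)
  have k3 : |(shG b0 G).uu| ≤ kap b0 b1 G :=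
    ((le_max_left _ _).trans (le_max_left _ _)).trans (le_max_right _ _)
  have k4 : |(shG b0 G).uv| ≤ kap b0 b1 G :=
    ((le_max_right _ _).trans (le_max_left _ _)).trans (le_max_right _ _)
  have k5 : |(shG b0 G).vv| ≤ kap b0 b1 G := (le_max_right _ _).trans (le_max_right _ _)
  have key : ∀ x : ℝ, |x| ≤ kap b0 b1 G → kap b0 b1 G * (x / kap b0 b1 G) = x := by
    intro x hx
    rcases eq_or_ne (kap b0 b1 G) 0 with h | h
    · rw [h] at hx ⊢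
      have : x = 0 := abs_nonpos_iff.1 hx
      rw [this]; simp
    · field_simp
  exact ⟨key _ k1, key _ k2, key _ k3, key _ k4, key _ k5⟩

theorem flat_of_exp {q : ℝ → V3 → ℝ} {e : Fin 3 → V3} {w : V3} {T : Ln4} {zL ρL : ℝ} {b0 b1 : V3}
    {G : QF} (hE : IsExp q e w T zL ρL b0 b1 G) (hb : b0 0 ≠ 0) (hw0 : 0 < w 0) (hw1 : w 1 ≠ 0)
    (hw2 : w 2 ≠ 0) (hρ : 0 < ρL) {nA nB β K σ : ℝ} (hβ : 0 ≤ β)
    (hfl : |kap b0 b1 G * (scB1 (kap b0 b1 G) b0 b1 1 * (-nB) +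
        scB1 (kap b0 b1 G) b0 b1 2 * nA)| * β +
      |kap b0 b1 G * ((scG (kap b0 b1 G) b0 G).uu * nB ^ 2 - (scG (kap b0 b1 G) b0 G).uv * nA * nB +
        (scG (kap b0 b1 G) b0 G).vv * nA ^ 2)| * β ^ 2 ≤ K * σ) :
    FlatAt q e w T zL ρL nA nB β (K * σ * w 0) := by
  obtain ⟨r1, r2, r3, r4, r5⟩ := kap_mul_scB1 b0 b1 G
  set y0 : ℝ := -(b0 1 / b0 0 * (-nB)) - b0 2 / b0 0 * nA with hy0
  refine ⟨w 0 * y0, fun z hz hz' α hα => ?_⟩
  set ζ : ℝ := (z - zL) / ρL with hζ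
  have hζz : zL + ρL * ζ = z := by rw [hζ]; field_simp; ring
  have hζ0 : 0 ≤ ζ := div_nonneg (by linarith) hρ.le
  have hζ1 : ζ ≤ 1 := by rw [hζ, div_le_one hρ]; linarith
  have e1 : α • ((w 0 * y0) • e 0 + (w 1 * -nB) • e 1 + (w 2 * nA) • e 2) =
      cmb (fr e w) (unsh b0 0 (α * (-nB)) (α * nA)) := by
    funext i
    simp only [cmb, fr, unsh, Pi.smul_apply, Pi.add_apply, smul_eq_mul, Matrix.cons_val_zero,
      Matrix.cons_val_one, Matrix.cons_val, hy0]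
    ring
  have h1 := hE ζ (unsh b0 0 (α * (-nB)) (α * nA))
  rw [hζz] at h1
  rw [e1, h1, Fq_unsh hb]
  have e2 : Fq (shB0 b0) (shB1 b0 b1) (shG b0 G) ζ ![0, α * (-nB), α * nA] =
      ζ * (α * (kap b0 b1 G * (scB1 (kap b0 b1 G) b0 b1 1 * (-nB) +
        scB1 (kap b0 b1 G) b0 b1 2 * nA))) +
      α ^ 2 * (kap b0 b1 G * ((scG (kap b0 b1 G) b0 G).uu * nB ^ 2 -
        (scG (kap b0 b1 G) b0 G).uv * nA * nB + (scG (kap b0 b1 G) b0 G).vv * nA ^ 2)) := by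
    have f1 : kap b0 b1 G * (scB1 (kap b0 b1 G) b0 b1 1 * (-nB) +
        scB1 (kap b0 b1 G) b0 b1 2 * nA) = shB1 b0 b1 1 * (-nB) + shB1 b0 b1 2 * nA := by
      rw [← r1, ← r2]; ring
    have f2 : kap b0 b1 G * ((scG (kap b0 b1 G) b0 G).uu * nB ^ 2 -
        (scG (kap b0 b1 G) b0 G).uv * nA * nB + (scG (kap b0 b1 G) b0 G).vv * nA ^ 2) =
        (shG b0 G).uu * nB ^ 2 - (shG b0 G).uv * nA * nB + (shG b0 G).vv * nA ^ 2 := by
      rw [← r3, ← r4, ← r5]; ring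
    rw [f1, f2]
    simp only [Fq, dt, bz, QF.ev, shB0, Matrix.cons_val_zero, Matrix.cons_val_one, Matrix.cons_val]
    ring
  rw [e2]
  set X := kap b0 b1 G * (scB1 (kap b0 b1 G) b0 b1 1 * (-nB) + scB1 (kap b0 b1 G) b0 b1 2 * nA)
  set Y := kap b0 b1 G * ((scG (kap b0 b1 G) b0 G).uu * nB ^ 2 -
        (scG (kap b0 b1 G) b0 G).uv * nA * nB + (scG (kap b0 b1 G) b0 G).vv * nA ^ 2)
  have g1 : |ζ * (α * X)| ≤ |X| * β := by
    rw [abs_mul, abs_mul, abs_of_nonneg hζ0]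
    calc ζ * (|α| * |X|) ≤ 1 * (β * |X|) := by gcongr
      _ = |X| * β := by ring
  have g2 : |α ^ 2 * Y| ≤ |Y| * β ^ 2 := by
    rw [abs_mul, abs_of_nonneg (sq_nonneg α), ← sq_abs α]
    calc |α| ^ 2 * |Y| ≤ β ^ 2 * |Y| := by gcongr
      _ = |Y| * β ^ 2 := by ring
  have g3 : |ζ * (α * X) + α ^ 2 * Y| ≤ K * σ := by
    refine (abs_add_le _ _).trans ?_
    linarith
  rw [add_sub_cancel_left, abs_mul, abs_of_pos hw0, mul_comm]
  exact mul_le_mul_of_nonneg_right g3 hw0.le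

/-- the capacity of a flat strip -/
theorem phC_strip {qm qp : Fin 3 → ℝ} (hq : ∀ k, 0 ≤ qm k ∧ qm k ≤ qp k)
    {a0 w10 w20 a' w1' w2' W β τ : ℝ} (ha0 : 0 < a0) (h10 : 0 < w10) (h20 : 0 < w20) (ha' : 0 < a')
    (h1' : 0 < w1') (h2' : 0 < w2') (hW : 1 ≤ W) (hβ : 0 < β) (hβ1 : β ≤ 1) (hτ : 0 ≤ τ)
    (ea : a' ≤ 3 * W * a0) (e1 : w1' ≤ 36 * W * β * w10) (e2 : w2' ≤ 36 * W * β * w20)
    (e12 : w2' * w1' ≤ (36 * W) ^ 2 * τ * (w20 * w10)) :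
    phC qm qp a0 w10 w20 a' w1' w2' ≤
      (3 * W) ^ (1 + qp 0) * (36 * W) ^ (2 + qp 1 + qp 2) * (τ * β ^ (qm 1 + qm 2)) := by
  have hW0 : 0 < W := by linarith
  have h36 : (0:ℝ) < 36 * W := by positivity
  have h361 : (1:ℝ) ≤ 36 * W := by linarith
  have p0 : ph (qm 0) (qp 0) (a' / a0) ≤ (3 * W) ^ (1 + qp 0) :=
    ph_le_wide (hq 0).1 (hq 0).2 (by positivity) (by rw [div_le_iff₀ ha0]; exact ea) (by linarith)
  -- normalised widths
  set y1 : ℝ := w1' / w10 / (36 * W) with hy1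
  set y2 : ℝ := w2' / w20 / (36 * W) with hy2
  have y1p : 0 < y1 := by positivity
  have y2p : 0 < y2 := by positivity
  have x1 : w1' / w10 = 36 * W * y1 := by rw [hy1]; field_simp
  have x2 : w2' / w20 = 36 * W * y2 := by rw [hy2]; field_simp
  have y1β : y1 ≤ β := by
    rw [hy1, div_le_iff₀ h36, div_le_iff₀ h10]
    linarith
  have y2β : y2 ≤ β := by
    rw [hy2, div_le_iff₀ h36, div_le_iff₀ h20]
    linarith
  have y12 : y1 * y2 ≤ τ := by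
    have e : y1 * y2 = w2' * w1' / ((36 * W) ^ 2 * (w20 * w10)) := by
      rw [hy1, hy2]; field_simp
    rw [e, div_le_iff₀ (by positivity)]
    calc w2' * w1' ≤ (36 * W) ^ 2 * τ * (w20 * w10) := e12
      _ = τ * ((36 * W) ^ 2 * (w20 * w10)) := by ring
  have p1 : ph (qm 1) (qp 1) (w1' / w10) ≤ (36 * W) ^ (1 + qp 1) * y1 ^ (1 + qm 1) := by
    rw [x1]
    refine (ph_mul (hq 1).1 (hq 1).2 y1p.le h361).trans (le_of_eq ?_)
    rw [ph_le_one (hq 1).1 (hq 1).2 y1p.le (y1β.trans hβ1)]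
  have p2 : ph (qm 2) (qp 2) (w2' / w20) ≤ (36 * W) ^ (1 + qp 2) * y2 ^ (1 + qm 2) := by
    rw [x2]
    refine (ph_mul (hq 2).1 (hq 2).2 y2p.le h361).trans (le_of_eq ?_)
    rw [ph_le_one (hq 2).1 (hq 2).2 y2p.le (y2β.trans hβ1)]
  have n0 : 0 ≤ ph (qm 0) (qp 0) (a' / a0) := ph_nonneg (by positivity)
  have n1 : 0 ≤ ph (qm 1) (qp 1) (w1' / w10) := ph_nonneg (by positivity)
  have n2 : 0 ≤ ph (qm 2) (qp 2) (w2' / w20) := ph_nonneg (by positivity)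
  have hy : y1 ^ (1 + qm 1) * y2 ^ (1 + qm 2) ≤ τ * β ^ (qm 1 + qm 2) := by
    rw [Real.rpow_add y1p, Real.rpow_add y2p, Real.rpow_one, Real.rpow_one, Real.rpow_add hβ]
    have a1 : y1 ^ qm 1 ≤ β ^ qm 1 := Real.rpow_le_rpow y1p.le y1β (hq 1).1
    have a2 : y2 ^ qm 2 ≤ β ^ qm 2 := Real.rpow_le_rpow y2p.le y2β (hq 2).1
    have b1 : 0 < y1 ^ qm 1 := Real.rpow_pos_of_pos y1p _
    have b2 : 0 < y2 ^ qm 2 := Real.rpow_pos_of_pos y2p _
    calc y1 * y1 ^ qm 1 * (y2 * y2 ^ qm 2) = (y1 * y2) * (y1 ^ qm 1 * y2 ^ qm 2) := by ring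
      _ ≤ τ * (β ^ qm 1 * β ^ qm 2) := by gcongr
  have e36 : (36 * W) ^ (2 + qp 1 + qp 2) = (36 * W) ^ (1 + qp 1) * (36 * W) ^ (1 + qp 2) := by
    rw [← Real.rpow_add h36]; congr 1; ring
  unfold phC
  calc ph (qm 0) (qp 0) (a' / a0) * ph (qm 1) (qp 1) (w1' / w10) * ph (qm 2) (qp 2) (w2' / w20)
      ≤ (3 * W) ^ (1 + qp 0) * ((36 * W) ^ (1 + qp 1) * y1 ^ (1 + qm 1)) *
          ((36 * W) ^ (1 + qp 2) * y2 ^ (1 + qm 2)) := by
        refine mul_le_mul (mul_le_mul p0 p1 n1 (by positivity)) p2 n2 (by positivity)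
    _ = (3 * W) ^ (1 + qp 0) * ((36 * W) ^ (1 + qp 1) * (36 * W) ^ (1 + qp 2)) *
          (y1 ^ (1 + qm 1) * y2 ^ (1 + qm 2)) := by ring
    _ ≤ (3 * W) ^ (1 + qp 0) * ((36 * W) ^ (1 + qp 1) * (36 * W) ^ (1 + qp 2)) *
          (τ * β ^ (qm 1 + qm 2)) := by gcongr
    _ = _ := by rw [e36]

open Classical in
/-- **strip count (hD)**: lines of the sheet `S` (over the long cell) in the flat strip `(β, σ)` around
the line `T'` of `S`, over the short cell. -/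
theorem strip_hd {ι : Type*} {qm qp : Fin 3 → ℝ} (hq : ∀ k, 0 ≤ qm k ∧ qm k ≤ qp k)
    {P : Finset ι} {L : ι → Ln4} {e : Fin 3 → V3} {c : Ln4} {w : V3} {q : ℝ → V3 → ℝ}
    {a zL ρL z0 ρ r a0 w10 w20 W M : ℝ} (S : ShN e c w q a zL ρL r) (hr : 0 < r) (hz : zL ≤ z0)
    (hz' : z0 + ρ ≤ zL + ρL) (hρ : 0 < ρ) (h128 : 128 * ρ ≤ ρL) (hW : 1 ≤ W) (hM : 0 ≤ M)
    (ha0 : 0 < a0) (h10 : 0 < w10) (h20 : 0 < w20) (na : a ≤ W * a0) (n1 : w 1 ≤ W * w10)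
    (n2 : w 2 ≤ W * w20)
    (hd : ∀ S' : Plk4, Shp S' z0 ρ r → S'.w 1 ≤ ρ →
      ((P.filter fun t => InP (L t) S' z0 ρ).card : ℝ) ≤
        W * M * phC qm qp a0 w10 w20 S'.a (S'.w 1) (S'.w 2))
    {T : Ln4} (hT : InSheet T e c w q a zL ρL) {b0 b1 : V3} {G : QF}
    (hE : IsExp q e w T zL ρL b0 b1 G) {nA nB : ℝ} (hn : nA ^ 2 + nB ^ 2 = 1) {K σ β : ℝ}
    (hK : 1 ≤ K) (hσ : 0 < σ) (hβ : 0 < β) (hβ1 : β ≤ 1 / 40000) (ha : a ≤ β * w 0)
    (ha' : a ≤ σ * w 0) (hβρ : 36 * β * w 1 ≤ ρ)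
    (hfl : |kap b0 b1 G * (scB1 (kap b0 b1 G) b0 b1 1 * (-nB) +
        scB1 (kap b0 b1 G) b0 b1 2 * nA)| * β +
      |kap b0 b1 G * ((scG (kap b0 b1 G) b0 G).uu * nB ^ 2 - (scG (kap b0 b1 G) b0 G).uv * nA * nB +
        (scG (kap b0 b1 G) b0 G).vv * nA ^ 2)| * β ^ 2 ≤ K * σ ∨ β ≤ 2 * σ)
    {B : Finset ι} (hB : B ⊆ P) (hBS : ∀ t ∈ B, InSheet (L t) e c w q a zL ρL)
    (hBs : ∀ t ∈ B, ∀ z, z0 ≤ z → z ≤ z0 + ρ → Stp e w T (L t) nA nB β σ z) :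
    (B.card : ℝ) ≤ 186 * K * W * (3 * W) ^ (1 + qp 0) * (36 * W) ^ (2 + qp 1 + qp 2) * M *
      (β * σ) * β ^ (qm 1 + qm 2) := by
  have hap : 0 < a := by linarith [S.r0_le]
  have hw0 : 0 < w 0 := by linarith [S.a_le0]
  have hw2 : 0 < w 2 := by linarith [S.w0_le]
  have hw1 : 0 < w 1 := by linarith [S.w_le]
  have hρL : 0 < ρL := by linarith
  have hb0 : b0 0 ≠ 0 := by
    have N := IsExp.nrmC (StP.of_shN S hw0) hρL.le (fun z h1 h2 => (hT z h1 h2).1) hE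
    have h := (N.st 0 le_rfl zero_le_one 0 0 0 (by simp) (by simp) (by simp)).1
    simp only [zero_mul, mul_zero, add_zero] at h
    linarith
  obtain ⟨e', w', q', a', S', s1, s2, s3, s4, s5, s6, s8, s9, s10, s7⟩ :=
    Ndc335.strip_sheetR S hr hT hz hz' hρ h128 hK hσ hβ hβ1 ha ha' hn
      (hfl.imp (fun h => flat_of_exp hE hb0 hw0 hw1.ne' hw2.ne' hρL hβ.le h) id)
  have h3 : (B.card : ℝ) ≤ ((P.filter fun t => InP (L t) ⟨0, e', T, w', q', a'⟩ z0 ρ).card : ℝ) := by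
    have : B ⊆ P.filter fun t => InP (L t) ⟨0, e', T, w', q', a'⟩ z0 ρ := by
      intro t ht
      rw [mem_filter]
      exact ⟨hB ht, s7 (L t) (hBS t ht) (hBs t ht)⟩
    exact_mod_cast card_le_card this
  have h4 := hd ⟨0, e', T, w', q', a'⟩ S' (by
    change w' 1 ≤ ρ
    linarith)
  have hw1' : 0 < w' 1 := by linarith
  have hW0 : 0 < W := by linarith
  have h5 := phC_strip (qm := qm) (qp := qp) hq (a0 := a0) (w10 := w10) (w20 := w20) (a' := a')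
    (w1' := w' 1) (w2' := w' 2) (W := W) (β := β) (τ := 186 * K * (β * σ)) ha0 h10 h20
    (by linarith) hw1' s3 hW hβ (by linarith) (by positivity)
    (by linarith)
    (by
      calc w' 1 ≤ 36 * β * w 1 := s5
        _ ≤ 36 * β * (W * w10) := by gcongr
        _ = 36 * W * β * w10 := by ring)
    (by
      calc w' 2 ≤ 36 * β * w 2 := s10
        _ ≤ 36 * β * (W * w20) := by gcongr
        _ = 36 * W * β * w20 := by ring)
    (by
      calc w' 2 * w' 1 ≤ 240000 * K * β * σ * (w 2 * w 1) := s6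
        _ ≤ 240000 * K * β * σ * ((W * w20) * (W * w10)) := by gcongr
        _ = 240000 * W ^ 2 * (K * (β * σ)) * (w20 * w10) := by ring
        _ ≤ 241056 * W ^ 2 * (K * (β * σ)) * (w20 * w10) := by gcongr; norm_num
        _ = (36 * W) ^ 2 * (186 * K * (β * σ)) * (w20 * w10) := by ring)
  calc (B.card : ℝ) ≤ W * M * phC qm qp a0 w10 w20 a' (w' 1) (w' 2) := h3.trans h4
    _ ≤ W * M * ((3 * W) ^ (1 + qp 0) * (36 * W) ^ (2 + qp 1 + qp 2) *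
        (186 * K * (β * σ) * β ^ (qm 1 + qm 2))) := by gcongr
    _ = _ := by ring

end Crest.Agent.R136.Plh571
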