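import Crest.Agent.R136.Kf3_605
import Crest.Agent.R136.Plh_571
import Crest.Agent.R136.Vq4_571

/-!
# R136: the plank condition for a curved sheet (helper605)
-/

set_option autoImplicit false
set_option linter.unusedVariables false

namespace Crest.Agent.R136.Kf605

open Finset
open Crest.Agent.R136.Sh605 Crest.Agent.R136.K4
open Crest.Agent.R136.Tl102 (QF Fq bz shB0 shB1 shG scB1 scG kap NrmC IsExp StP fr fan slp)
open Crest.Agent.R136.Lgt989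
open Crest.Agent.R136.Nd565 (Stp sA sB)
open Crest.Agent.R136.KapP335 (DetP kapP expP fanP expP_spec expP_eq)
open Crest.Agent.R136.Tlt51 (Shp InP)
open Crest.Agent.R136.Phc248

/-- lateral coordinate of a line -/
noncomputable def lk (e : Fin 3 → V3) (w : V3) (c : Ln4) (k : Fin 3) (z : ℝ) (T : Ln4) : ℝ :=
  dt (e k) (T.pos z - c.pos z) / w k

/-- lateral coordinate along the covector `(b1, b2)` -/
noncomputable def lx (e : Fin 3 → V3) (w : V3) (c : Ln4) (b1 b2 z : ℝ) (T : Ln4) : ℝ :=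
  b1 * lk e w c 1 z T + b2 * lk e w c 2 z T

/-- velocity over the cell -/
noncomputable def lv (e : Fin 3 → V3) (w : V3) (c : Ln4) (b1 b2 z ρ : ℝ) (T : Ln4) : ℝ :=
  lx e w c b1 b2 (z + ρ) T - lx e w c b1 b2 z T

variable {e : Fin 3 → V3} {c : Ln4} {w : V3} {q : ℝ → V3 → ℝ} {a z0 ρ r0 : ℝ}

theorem lk_sub (k : Fin 3) (z : ℝ) (T T' : Ln4) :
    lk e w c k z T' - lk e w c k z T = dt (e k) (T'.pos z - T.pos z) / w k := by
  simp only [lk, dt_sub]; ring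

theorem lx_sub (b1 b2 z : ℝ) (b0 : V3) (κ : ℝ) (T T' : Ln4) :
    lx e w c b1 b2 z T' - lx e w c b1 b2 z T =
      b1 * pp e w b0 κ T z T' 1 + b2 * pp e w b0 κ T z T' 2 := by
  have h1 := lk_sub (e := e) (w := w) (c := c) 1 z T T'
  have h2 := lk_sub (e := e) (w := w) (c := c) 2 z T T'
  have e1 : pp e w b0 κ T z T' 1 = dt (e 1) (T'.pos z - T.pos z) / w 1 := rfl
  have e2 : pp e w b0 κ T z T' 2 = dt (e 2) (T'.pos z - T.pos z) / w 2 := rfl
  rw [e1, e2, ← h1, ← h2]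
  unfold lx; ring

theorem lv_sub (b1 b2 z ρ : ℝ) (b0 : V3) (κ : ℝ) (T T' : Ln4) :
    lv e w c b1 b2 z ρ T' - lv e w c b1 b2 z ρ T =
      b1 * vv e w b0 κ T z ρ T' 1 + b2 * vv e w b0 κ T z ρ T' 2 := by
  have h1 := lx_sub (e := e) (w := w) (c := c) b1 b2 z b0 κ T T'
  have h2 := lx_sub (e := e) (w := w) (c := c) b1 b2 (z + ρ) b0 κ T T'
  unfold lv vv
  linear_combination h2 - h1

theorem pp_self (b0 : V3) (κ z : ℝ) (T : Ln4) : pp e w b0 κ T z T = fun _ => 0 := by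
  funext k
  have h : T.pos z - T.pos z = 0 := sub_self _
  unfold pp
  rw [h]
  fin_cases k <;> simp [crdS, Mdr535.ty, dt]

theorem gv_zero (G : QF) (k : Fin 3) : gv G (fun _ => 0) k = 0 := by
  fin_cases k <;> simp [gv]

theorem vv_self (b0 : V3) (κ z ρ : ℝ) (T : Ln4) : vv e w b0 κ T z ρ T = fun _ => 0 := by
  funext k
  unfold vv
  rw [pp_self, pp_self]; ring

set_option maxHeartbeats 1000000 in
/-- **(R)** for two lines of a sheet -/
theorem pair_rel (S : ShN e c w q a z0 ρ r0) (hr : 0 < r0) (hρ : 0 < ρ) {T T' : Ln4}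
    (hT : InSheet T e c w q a z0 ρ) (hT' : InSheet T' e c w q a z0 ρ) {b0 b1 : V3} {G : QF}
    (hE : IsExp q e w T z0 ρ b0 b1 G) (hκ : 0 < kap b0 b1 G) {μ0 : ℝ} (hμ : 20000 * μ0 ≤ 1)
    (ha : a ≤ μ0 * (w 0 * kap b0 b1 G))
    (hcl : ∀ z, z = z0 ∨ z = z0 + ρ → |dt (e 1) (T'.pos z - T.pos z)| ≤ μ0 * w 1 ∧
      |dt (e 2) (T'.pos z - T.pos z)| ≤ μ0 * w 2)
    {β1 β2 s : ℝ} (hb : β1 ^ 2 + β2 ^ 2 = 1) (hε : 2 * a / (w 0 * kap b0 b1 G) ≤ s) (hs : s ≤ 1)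
    (hyp : |lx e w c (-β2) β1 z0 T' - lx e w c (-β2) β1 z0 T| ≤ s)
    (hyv : |lv e w c (-β2) β1 z0 ρ T' - lv e w c (-β2) β1 z0 ρ T| ≤ s) :
    |(scB1 (kap b0 b1 G) b0 b1 1 * β1 + scB1 (kap b0 b1 G) b0 b1 2 * β2) *
        (lv e w c β1 β2 z0 ρ T' - lv e w c β1 β2 z0 ρ T) +
      G2 (scG (kap b0 b1 G) b0 G) β1 β2 *
        (lv e w c β1 β2 z0 ρ T' - lv e w c β1 β2 z0 ρ T) ^ 2| ≤
      10000 * (|scB1 (kap b0 b1 G) b0 b1 1 * β1 + scB1 (kap b0 b1 G) b0 b1 2 * β2| *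
          |lx e w c β1 β2 z0 T' - lx e w c β1 β2 z0 T| +
        (lx e w c β1 β2 z0 T' - lx e w c β1 β2 z0 T) ^ 2 +
        |lx e w c β1 β2 z0 T' - lx e w c β1 β2 z0 T| *
          |lv e w c β1 β2 z0 ρ T' - lv e w c β1 β2 z0 ρ T| + s) := by
  have hap : 0 < a := by linarith [S.r0_le]
  have hw0 : 0 < w 0 := by linarith [S.a_le0]
  have Q := StP.of_shN S hw0
  have hw := Q.pos
  have N := hE.nrmC Q hρ.le fun z hz hz' => (hT z hz hz').1
  obtain ⟨s1, s2, s3, s4, s5, s6, s7, s8, s9, s10⟩ := N.sc_le hκ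
  obtain ⟨g1', g2', -⟩ := N.b1_le
  set κ := kap b0 b1 G with hκd
  have hμ0 : 0 ≤ μ0 := by
    by_contra hc
    push Not at hc
    have : μ0 * (w 0 * κ) < 0 := mul_neg_of_neg_of_pos hc (mul_pos hw0 hκ)
    linarith
  have P := pair_of S hr hρ hT hT hT' hE hκ (μ0 := μ0) (by linarith) ha (by
    intro X hX z hz
    rcases hX with rfl | rfl
    · have h0 : ∀ k : Fin 3, dt (e k) (X.pos z - X.pos z) = 0 := by
        intro k
        rw [sub_self]; simp [dt]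
      rw [h0, h0, abs_zero]
      exact ⟨mul_nonneg hμ0 (hw 1).le, mul_nonneg hμ0 (hw 2).le⟩
    · exact hcl z hz)
  obtain ⟨k0, k1, k2⟩ := P.coef
  have hp' := P.hp'
  have hv' := P.hv'
  rw [pp_self] at k0 k1
  rw [vv_self] at k1 k2
  simp only [gv_zero, add_zero, sub_zero] at k0 k1 k2
  have e1 := lx_sub (e := e) (w := w) (c := c) β1 β2 z0 b0 κ T T'
  have e2 := lx_sub (e := e) (w := w) (c := c) (-β2) β1 z0 b0 κ T T'
  have e3 := lv_sub (e := e) (w := w) (c := c) β1 β2 z0 ρ b0 κ T T'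
  have e4 := lv_sub (e := e) (w := w) (c := c) (-β2) β1 z0 ρ b0 κ T T'
  rw [e2] at hyp
  rw [e4] at hyv
  rw [e1, e3]
  exact rel (N0 := shB0 b0) (γ := scB1 κ b0 b1) (G := scG κ b0 G) g1' rfl rfl s2
    ⟨s5, by linarith, by linarith, by linarith, by linarith, by linarith⟩ hb
    (fun k => (hp' k).trans (by linarith)) (fun k => (hv' k).trans (by linarith)) k0 k1 k2 hε hs
    hyp hyv

/-- non-degeneracy in terms of `DetP` -/
theorem nd_of {S : Plk4} {r0 : ℝ} (hS : ShN S.e S.c S.w S.q S.a z0 ρ r0) (hr : 0 < r0)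
    (hρ : 0 < ρ) {T : Ln4} (hT : InSheet T S.e S.c S.w S.q S.a z0 ρ) {δ : ℝ} (hδ : 0 < δ)
    (hD : DetP δ S z0 ρ T) (hκ : 0 < kapP S z0 ρ T) :
    ∃ b0 b1 G, IsExp S.q S.e S.w T z0 ρ b0 b1 G ∧ 0 < kap b0 b1 G ∧
      kapP S z0 ρ T = S.w 0 * kap b0 b1 G ∧ kap b0 b1 G ≤ 13 ∧
      ∀ β1 β2 : ℝ, β1 ^ 2 + β2 ^ 2 = 1 →
        |scB1 (kap b0 b1 G) b0 b1 1 * β1 + scB1 (kap b0 b1 G) b0 b1 2 * β2| ≤ 2 ∧
        |G2 (scG (kap b0 b1 G) b0 G) β1 β2| ≤ 39 ∧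
        40000 * δ ≤ |scB1 (kap b0 b1 G) b0 b1 1 * β1 + scB1 (kap b0 b1 G) b0 b1 2 * β2| +
          |G2 (scG (kap b0 b1 G) b0 G) β1 β2| := by
  have hap : 0 < S.a := by linarith [hS.r0_le]
  have hw0 : 0 < S.w 0 := by linarith [hS.a_le0]
  have hE := expP_spec hS.isQ hw0.ne' z0 ρ T
  have Q := StP.of_shN hS hw0
  have N := hE.nrmC Q hρ.le fun z hz hz' => (hT z hz hz').1
  have hκe : kapP S z0 ρ T = S.w 0 * kap (expP S z0 ρ T).1 (expP S z0 ρ T).2.1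
      (expP S z0 ρ T).2.2 := rfl
  have hD0 := hD 0 le_rfl zero_le_one
  unfold fanP at hD0
  generalize (expP S z0 ρ T).1 = b0 at *
  generalize (expP S z0 ρ T).2.1 = b1 at *
  generalize (expP S z0 ρ T).2.2 = G at *
  have hκ' : 0 < kap b0 b1 G := by
    rw [hκe] at hκ
    exact (mul_pos_iff_of_pos_left hw0).1 hκ
  refine ⟨b0, b1, G, hE, hκ', hκe, Tl102.kap_le N, ?_⟩
  intro β1 β2 hb
  obtain ⟨s1, s2, s3, s4, s5, s6, s7, s8, s9, s10⟩ := N.sc_le hκ'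
  set κ := kap b0 b1 G with hκd
  set γ := scB1 κ b0 b1 with hγ
  set M := scG κ b0 G with hM
  have hG : M.Le 13 := ⟨s5, by linarith, by linarith, by linarith, by linarith, by linarith⟩
  obtain ⟨l1, l2⟩ := b_le hb
  have c1 : slp (shB0 b0) γ 1 0 = 0 := by
    have : (shB0 b0) 1 = 0 := rfl
    simp only [slp, this, zero_mul, add_zero, neg_zero, zero_div]
  have c2 : slp (shB0 b0) γ 2 0 = 0 := by
    have : (shB0 b0) 2 = 0 := rfl
    simp only [slp, this, zero_mul, add_zero, neg_zero, zero_div]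
  have e1 : Arc880.det3 (fan (shB0 b0) γ M 0) =
      (γ 1 * γ 2 * M.uv - γ 1 ^ 2 * M.vv - γ 2 ^ 2 * M.uu) / 16777216 := by
    simp only [Arc880.det3, fan, c1, c2, Matrix.cons_val]
    ring
  rw [e1, abs_div, abs_of_pos (by norm_num : (0 : ℝ) < 16777216),
    le_div_iff₀ (by norm_num)] at hD0
  refine ⟨?_, (G2_le hG l1 l2).trans (by norm_num), nondeg s2 hG hb (by linarith)⟩
  refine (abs2 (mul_ab s3 l1) (mul_ab s4 l2)).trans (by norm_num)

/-! ### the chart -/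

open Crest.Agent.R138.Defs (E2)
open Crest.Agent.R138.Tub70 (InPl)
open Crest.Agent.R136.Vq571 (chp chv ch_zero ch_one)

theorem lx_aff (b1 b2 : ℝ) (T T' : Ln4) : ∃ α β : ℝ, ∀ z,
    lx e w c b1 b2 z T' - lx e w c b1 b2 z T = α + z * β := by
  refine ⟨b1 * (dt (e 1) (T'.p - T.p) / w 1) + b2 * (dt (e 2) (T'.p - T.p) / w 2),
    b1 * (dt (e 1) (T'.v - T.v) / w 1) + b2 * (dt (e 2) (T'.v - T.v) / w 2), fun z => ?_⟩
  simp only [lx, lk, dt, Ln4.pos, Pi.sub_apply]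
  ring

/-- an affine function bounded at the ends of the short cell -/
theorem aff_ext {α β z0 ρ zL ρL R s : ℝ} (hρ : 0 < ρ) (hz : zL ≤ z0) (hz' : z0 + ρ ≤ zL + ρL)
    (hR : ρL ≤ R * ρ) (hR1 : 1 ≤ R) (h0 : |α + z0 * β| ≤ s) (h1 : |α + (z0 + ρ) * β| ≤ s) :
    (∀ z, zL ≤ z → z ≤ zL + ρL → |α + z * β| ≤ 3 * R * s) ∧
      |(α + (zL + ρL) * β) - (α + zL * β)| ≤ 3 * R * s := by
  have hs : 0 ≤ s := (abs_nonneg _).trans h0
  have hβ : |ρ * β| ≤ 2 * s := by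
    have e : ρ * β = (α + (z0 + ρ) * β) - (α + z0 * β) := by ring
    rw [e]; refine (abs_sub _ _).trans ?_; linarith
  rw [abs_mul, abs_of_pos hρ] at hβ
  have hL : ρL * |β| ≤ R * (2 * s) := by
    have h2 : ρL * |β| ≤ R * ρ * |β| := mul_le_mul_of_nonneg_right hR (abs_nonneg _)
    have h3 : R * (ρ * |β|) ≤ R * (2 * s) := mul_le_mul_of_nonneg_left hβ (by linarith)
    linarith
  have hRs : s ≤ R * s := by
    have := mul_le_mul_of_nonneg_right hR1 hs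
    linarith
  constructor
  · intro z h2 h3
    have e : α + z * β = (α + z0 * β) + (z - z0) * β := by ring
    rw [e]
    have h4 : |(z - z0) * β| ≤ ρL * |β| := by
      rw [abs_mul]
      refine mul_le_mul_of_nonneg_right ?_ (abs_nonneg _)
      rw [abs_le]; constructor <;> linarith
    refine (abs_add_le _ _).trans ?_
    linarith
  · have e : (α + (zL + ρL) * β) - (α + zL * β) = ρL * β := by ring
    have hρL : 0 ≤ ρL := by linarith
    rw [e, abs_mul, abs_of_nonneg hρL]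
    linarith

/-- frames of the plane -/
theorem axis (f : OrthonormalBasis (Fin 2) ℝ E2) {j j' : Fin 2} (hj : j ≠ j') :
    (f j 0) ^ 2 + (f j 1) ^ 2 = 1 ∧
      (∀ x : E2, inner ℝ x (f j) = (f j 0) * x 0 + (f j 1) * x 1) ∧
      ∀ x : E2, |inner ℝ x (f j')| = |-(f j 1) * x 0 + (f j 0) * x 1| := by
  have hin : ∀ x y : E2, inner ℝ x y = x 0 * y 0 + x 1 * y 1 := by
    intro x y
    rw [PiLp.inner_apply, Fin.sum_univ_two]
    simp [mul_comm]
  have ho := f.orthonormal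
  rw [orthonormal_iff_ite] at ho
  have h1 := ho j j
  have h2 := ho j' j'
  have h3 := ho j j'
  rw [hin] at h1 h2 h3
  rw [if_pos rfl] at h1 h2
  rw [if_neg hj] at h3
  refine ⟨by linarith, fun x => by rw [hin]; ring, ?_⟩
  · intro x
    rw [hin]
    generalize f j 0 = a1 at *
    generalize f j 1 = a2 at *
    generalize f j' 0 = d1 at *
    generalize f j' 1 = d2 at *
    set t := a1 * d2 - a2 * d1 with ht
    have e1 : d1 = -a2 * t := by rw [ht]; linear_combination (-d1) * h1 + a1 * h3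
    have e2 : d2 = a1 * t := by rw [ht]; linear_combination (-d2) * h1 + a2 * h3
    have et : t ^ 2 = 1 := by
      have : t ^ 2 + (a1 * d1 + a2 * d2) ^ 2 = (a1 * a1 + a2 * a2) * (d1 * d1 + d2 * d2) := by
        rw [ht]; ring
      rw [h1, h2, h3] at this
      linarith
    have ea : |t| = 1 := by
      have : |t| ^ 2 = 1 := by rw [sq_abs]; exact et
      nlinarith [abs_nonneg t]
    have e3 : x 0 * d1 + x 1 * d2 = t * (-a2 * x 0 + a1 * x 1) := by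
      rw [e1, e2]
      have : -a2 * t = -a2 * t := rfl
      ring
    rw [e3, abs_mul, ea, one_mul]

/-! ### one group -/

/-- constant of the strip count -/
noncomputable def cD (W K : ℝ) (qm qp : Fin 3 → ℝ) : ℝ :=
  1860000 * W * (3 * W) ^ (1 + qp 0) * (36 * W) ^ (2 + qp 1 + qp 2) *
    (34 * K ^ 4) ^ (1 + (qm 1 + qm 2))

open Classical in
/-- short strips -/
theorem strip_om {ι : Type*} {qm qp : Fin 3 → ℝ} (hq : ∀ k, 0 ≤ qm k ∧ qm k ≤ qp k)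
    {P : Finset ι} {L : ι → Ln4} {S : Plk4} {zL ρL z0 ρ r a0 w10 w20 W M : ℝ}
    (hS : ShN S.e S.c S.w S.q S.a zL ρL r) (hr : 0 < r) (hz : zL ≤ z0)
    (hz' : z0 + ρ ≤ zL + ρL) (hρ : 0 < ρ) (h128 : 128 * ρ ≤ ρL) (hW : 1 ≤ W) (hM : 0 ≤ M)
    (ha0 : 0 < a0) (h10 : 0 < w10) (h20 : 0 < w20) (na : S.a ≤ W * a0) (n1 : S.w 1 ≤ W * w10)
    (n2 : S.w 2 ≤ W * w20)
    (hd : ∀ S' : Plk4, Shp S' z0 ρ r → S'.w 1 ≤ ρ →
      ((P.filter fun t => InP (L t) S' z0 ρ).card : ℝ) ≤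
        W * M * phC qm qp a0 w10 w20 S'.a (S'.w 1) (S'.w 2))
    (hwρ : S.w 1 ≤ 1000 * ρ) {B : Finset ι} (hB : B ⊆ P)
    (hBS : ∀ t ∈ B, InSheet (L t) S.e S.c S.w S.q S.a zL ρL) {T : ι} (hT : T ∈ B)
    {b0 b1 : V3} {G : QF} (hE : IsExp S.q S.e S.w (L T) zL ρL b0 b1 G)
    (hκ : 0 < kap b0 b1 G) (hκ13 : kap b0 b1 G ≤ 13) {β1 β2 : ℝ} (hb : β1 ^ 2 + β2 ^ 2 = 1)
    (hL2 : |scB1 (kap b0 b1 G) b0 b1 1 * β1 + scB1 (kap b0 b1 G) b0 b1 2 * β2| ≤ 2)
    (hh : |G2 (scG (kap b0 b1 G) b0 G) β1 β2| ≤ 39) {K s1 om : ℝ} (hK : 1 ≤ K) (hs1 : 0 < s1)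
    (hs1' : s1 ≤ 1 / 250000) (has : S.a ≤ 2 * s1 * S.w 0)
    (hom : s1 / (16 * K ^ 4) ≤ om) (hom' : om ≤ 1 / 250000)
    (hLo : |scB1 (kap b0 b1 G) b0 b1 1 * β1 + scB1 (kap b0 b1 G) b0 b1 2 * β2| * om ≤ s1)
    (hom2 : om ^ 2 ≤ s1)
    (hn : ∀ t ∈ B, ∀ z, zL ≤ z → z ≤ zL + ρL →
      |lx S.e S.w S.c (-β2) β1 z (L t) - lx S.e S.w S.c (-β2) β1 z (L T)| ≤ 2 * s1)
    (hx : ∀ t ∈ B, ∀ z, zL ≤ z → z ≤ zL + ρL →
      |lx S.e S.w S.c β1 β2 z (L t) - lx S.e S.w S.c β1 β2 z (L T)| ≤ 2 * om) :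
    (B.card : ℝ) ≤ cD W K qm qp * M * om ^ (1 + (qm 1 + qm 2)) * s1 := by
  have hap : 0 < S.a := by linarith [hS.r0_le]
  have hw0 : 0 < S.w 0 := by linarith [hS.a_le0]
  have hK4 : 1 ≤ K ^ 4 := one_le_pow₀ hK
  have hom0 : 0 < om := lt_of_lt_of_le (by positivity) hom
  have hs1om : s1 ≤ 16 * K ^ 4 * om := by
    rw [div_le_iff₀ (by positivity)] at hom
    linarith
  set β : ℝ := 2 * (om + s1) with hβ
  have hβ0 : 0 < β := by positivity
  have hβom : β ≤ 34 * K ^ 4 * om := by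
    have h1 : om ≤ K ^ 4 * om := by
      have := mul_le_mul_of_nonneg_right hK4 hom0.le
      linarith
    rw [hβ]; linarith
  obtain ⟨l1, l2⟩ := b_le hb
  have key := Plh571.strip_hd hq hS hr hz hz' hρ h128 hW hM ha0 h10 h20 na n1 n2 hd (hBS T hT) hE
    (nA := -β2) (nB := β1) (by rw [neg_sq]; linarith) (K := 5000) (σ := 2 * s1) (β := β)
    (by norm_num) (by positivity) hβ0 (by rw [hβ]; linarith)
    (by
      refine has.trans (mul_le_mul_of_nonneg_right ?_ hw0.le)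
      rw [hβ]; linarith) has
    (by
      have h1 : 36 * β * S.w 1 ≤ 36 * β * (1000 * ρ) :=
        mul_le_mul_of_nonneg_left hwρ (by positivity)
      have h2 : 36 * β * (1000 * ρ) ≤ 1 * ρ := by
        rw [← mul_assoc]
        refine mul_le_mul_of_nonneg_right ?_ hρ.le
        rw [hβ]; linarith
      linarith)
    (Or.inl (by
      have e1 : kap b0 b1 G * (scB1 (kap b0 b1 G) b0 b1 1 * (-β1) +
          scB1 (kap b0 b1 G) b0 b1 2 * -β2) = -(kap b0 b1 G *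
          (scB1 (kap b0 b1 G) b0 b1 1 * β1 + scB1 (kap b0 b1 G) b0 b1 2 * β2)) := by ring
      have e2 : kap b0 b1 G * ((scG (kap b0 b1 G) b0 G).uu * β1 ^ 2 -
          (scG (kap b0 b1 G) b0 G).uv * (-β2) * β1 + (scG (kap b0 b1 G) b0 G).vv * (-β2) ^ 2) =
          kap b0 b1 G * G2 (scG (kap b0 b1 G) b0 G) β1 β2 := by unfold G2; ring
      rw [e1, e2, abs_neg, abs_mul, abs_mul, abs_of_pos hκ]
      set Lb := |scB1 (kap b0 b1 G) b0 b1 1 * β1 + scB1 (kap b0 b1 G) b0 b1 2 * β2|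
      set hb' := |G2 (scG (kap b0 b1 G) b0 G) β1 β2|
      have hLb0 : 0 ≤ Lb := abs_nonneg _
      have hb0' : 0 ≤ hb' := abs_nonneg _
      have f1 : Lb * β ≤ 6 * s1 := by
        have : Lb * s1 ≤ 2 * s1 := mul_le_mul_of_nonneg_right hL2 hs1.le
        have e3 : Lb * β = 2 * (Lb * om) + 2 * (Lb * s1) := by rw [hβ]; ring
        rw [e3]; linarith
      have f2 : β ^ 2 ≤ 16 * s1 := by
        have : s1 ^ 2 ≤ s1 := by nlinarith
        have e3 : β ^ 2 = 4 * (om ^ 2 + 2 * (om * s1) + s1 ^ 2) := by rw [hβ]; ring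
        have : om * s1 ≤ 1 * s1 := mul_le_mul_of_nonneg_right (by linarith) hs1.le
        rw [e3]; linarith
      have f3 : hb' * β ^ 2 ≤ 39 * (16 * s1) := mul_le_mul hh f2 (sq_nonneg _) (by norm_num)
      have f4 : kap b0 b1 G * (Lb * β) ≤ 13 * (6 * s1) :=
        mul_le_mul hκ13 f1 (by positivity) (by norm_num)
      have f5 : kap b0 b1 G * (hb' * β ^ 2) ≤ 13 * (39 * (16 * s1)) :=
        mul_le_mul hκ13 f3 (by positivity) (by norm_num)
      have e4 : kap b0 b1 G * Lb * β + kap b0 b1 G * hb' * β ^ 2 =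
          kap b0 b1 G * (Lb * β) + kap b0 b1 G * (hb' * β ^ 2) := by ring
      rw [e4]; linarith)) hB hBS
    (by
      intro t ht z h1 h2
      have h3 := hx t ht z (by linarith) (by linarith)
      have h4 := hn t ht z (by linarith) (by linarith)
      have eA : sA S.e S.w (L T) (L t) z = lk S.e S.w S.c 1 z (L t) - lk S.e S.w S.c 1 z (L T) :=
        (lk_sub 1 z (L T) (L t)).symm
      have eB : sB S.e S.w (L T) (L t) z = lk S.e S.w S.c 2 z (L t) - lk S.e S.w S.c 2 z (L T) :=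
        (lk_sub 2 z (L T) (L t)).symm
      have e3 : lx S.e S.w S.c β1 β2 z (L t) - lx S.e S.w S.c β1 β2 z (L T) =
          β1 * sA S.e S.w (L T) (L t) z + β2 * sB S.e S.w (L T) (L t) z := by
        rw [eA, eB]; unfold lx; ring
      have e4 : lx S.e S.w S.c (-β2) β1 z (L t) - lx S.e S.w S.c (-β2) β1 z (L T) =
          -β2 * sA S.e S.w (L T) (L t) z + β1 * sB S.e S.w (L T) (L t) z := by
        rw [eA, eB]; unfold lx; ring
      rw [e3] at h3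
      rw [e4] at h4
      obtain ⟨c1, c2⟩ := comp_le hb (sA S.e S.w (L T) (L t) z) (sB S.e S.w (L T) (L t) z)
      refine ⟨?_, ?_, h4⟩
      · rw [hβ]; linarith
      · rw [hβ]; linarith)
  refine key.trans ?_
  have hq12 : 0 ≤ qm 1 + qm 2 := by linarith [(hq 1).1, (hq 2).1]
  have hW0 : 0 < W := by linarith
  have e1 : β * (2 * s1) * β ^ (qm 1 + qm 2) = 2 * s1 * β ^ (1 + (qm 1 + qm 2)) := by
    rw [Real.rpow_add hβ0 1, Real.rpow_one]; ring
  have e2 : β ^ (1 + (qm 1 + qm 2)) ≤ (34 * K ^ 4) ^ (1 + (qm 1 + qm 2)) *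
      om ^ (1 + (qm 1 + qm 2)) := by
    rw [← Real.mul_rpow (by positivity) hom0.le]
    exact Real.rpow_le_rpow hβ0.le hβom (by linarith)
  calc 186 * 5000 * W * (3 * W) ^ (1 + qp 0) * (36 * W) ^ (2 + qp 1 + qp 2) * M *
        (β * (2 * s1)) * β ^ (qm 1 + qm 2)
      = 186 * 5000 * W * (3 * W) ^ (1 + qp 0) * (36 * W) ^ (2 + qp 1 + qp 2) * M *
        (β * (2 * s1) * β ^ (qm 1 + qm 2)) := by ring
    _ = 186 * 5000 * W * (3 * W) ^ (1 + qp 0) * (36 * W) ^ (2 + qp 1 + qp 2) * M *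
        (2 * s1 * β ^ (1 + (qm 1 + qm 2))) := by rw [e1]
    _ ≤ 186 * 5000 * W * (3 * W) ^ (1 + qp 0) * (36 * W) ^ (2 + qp 1 + qp 2) * M *
        (2 * s1 * ((34 * K ^ 4) ^ (1 + (qm 1 + qm 2)) * om ^ (1 + (qm 1 + qm 2)))) := by
        gcongr
    _ = cD W K qm qp * M * om ^ (1 + (qm 1 + qm 2)) * s1 := by unfold cD; ring

theorem lx_close (hw : ∀ i, 0 < w i) {T T' : Ln4} {β1 β2 μ z : ℝ} (hb : β1 ^ 2 + β2 ^ 2 = 1)
    (h : |dt (e 1) (T'.pos z - T.pos z)| ≤ μ * w 1 ∧ |dt (e 2) (T'.pos z - T.pos z)| ≤ μ * w 2) :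
    |lx e w c β1 β2 z T' - lx e w c β1 β2 z T| ≤ 2 * μ := by
  obtain ⟨l1, l2⟩ := b_le hb
  have h1 : |lk e w c 1 z T' - lk e w c 1 z T| ≤ μ := by
    rw [lk_sub, abs_div, abs_of_pos (hw 1), div_le_iff₀ (hw 1)]; exact h.1
  have h2 : |lk e w c 2 z T' - lk e w c 2 z T| ≤ μ := by
    rw [lk_sub, abs_div, abs_of_pos (hw 2), div_le_iff₀ (hw 2)]; exact h.2
  have e1 : lx e w c β1 β2 z T' - lx e w c β1 β2 z T =
      β1 * (lk e w c 1 z T' - lk e w c 1 z T) + β2 * (lk e w c 2 z T' - lk e w c 2 z T) := by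
    unfold lx; ring
  rw [e1]
  refine (abs2 (mul_ab l1 h1) (mul_ab l2 h2)).trans (by linarith)

/-- positions between the two ends -/
theorem lx_mid {ρL zL : ℝ} (hρL : 0 < ρL) {T T' : Ln4} {β1 β2 m : ℝ}
    (h0 : |lx e w c β1 β2 zL T' - lx e w c β1 β2 zL T| ≤ m)
    (h1 : |lv e w c β1 β2 zL ρL T' - lv e w c β1 β2 zL ρL T| ≤ m) :
    ∀ z, zL ≤ z → z ≤ zL + ρL → |lx e w c β1 β2 z T' - lx e w c β1 β2 z T| ≤ 2 * m := by
  obtain ⟨α, β, hαβ⟩ := lx_aff (e := e) (w := w) (c := c) β1 β2 T T'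
  intro z h2 h3
  have hm : 0 ≤ m := (abs_nonneg _).trans h0
  have e1 : lv e w c β1 β2 zL ρL T' - lv e w c β1 β2 zL ρL T = ρL * β := by
    have a1 := hαβ zL
    have a2 := hαβ (zL + ρL)
    unfold lv
    linear_combination a2 - a1
  rw [e1] at h1
  rw [hαβ] at h0 ⊢
  have e2 : α + z * β = (α + zL * β) + (z - zL) / ρL * (ρL * β) := by field_simp; ring
  rw [e2]
  have h4 : |(z - zL) / ρL| ≤ 1 := by
    rw [abs_div, abs_of_pos hρL, div_le_one hρL, abs_of_nonneg (by linarith)]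
    linarith
  have h5 := mul_ab h4 h1
  refine (abs2 h0 h5).trans (by linarith)

open Classical in
set_option maxHeartbeats 1000000 in
/-- plank lines of one group -/
theorem grp_bd {ι : Type*} {qm qp : Fin 3 → ℝ} (hq : ∀ k, 0 ≤ qm k ∧ qm k ≤ qp k)
    {P : Finset ι} {L : ι → Ln4} {S : Plk4} {zL ρL z0 ρ r a0 w10 w20 W M : ℝ}
    (hS : ShN S.e S.c S.w S.q S.a zL ρL r) (hr : 0 < r) (hz : zL ≤ z0)
    (hz' : z0 + ρ ≤ zL + ρL) (hρ : 0 < ρ) (h128 : 128 * ρ ≤ ρL) (hW : 1 ≤ W) (hM : 0 ≤ M)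
    (ha0 : 0 < a0) (h10 : 0 < w10) (h20 : 0 < w20) (na : S.a ≤ W * a0) (n1 : S.w 1 ≤ W * w10)
    (n2 : S.w 2 ≤ W * w20)
    (hd : ∀ S' : Plk4, Shp S' z0 ρ r → S'.w 1 ≤ ρ →
      ((P.filter fun t => InP (L t) S' z0 ρ).card : ℝ) ≤
        W * M * phC qm qp a0 w10 w20 S'.a (S'.w 1) (S'.w 2))
    (hwρ : S.w 1 ≤ 1000 * ρ) {A : Finset ι} (hAP : A ⊆ P)
    (hA : ∀ t ∈ A, InSheet (L t) S.e S.c S.w S.q S.a zL ρL) {δ : ℝ} (hδ : 0 < δ) (hδ1 : δ ≤ 1)
    (hD : ∀ t ∈ A, DetP δ S zL ρL (L t)) {H : ℕ} (hH : 1 ≤ H) {K1 C1 : ℝ} (hK1 : 1 ≤ K1)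
    (hC1 : 13 * K1 ≤ C1) (hcur : ∀ t ∈ A, S.a * H ≤ K1 * kapP S zL ρL (L t))
    (hsm : ∀ t ∈ A, 10 ^ 8 * S.a ≤ kapP S zL ρL (L t)) {β1 β2 : ℝ} (hb : β1 ^ 2 + β2 ^ 2 = 1)
    {sl ss : ℝ} (hss : 1 / (H : ℝ) ≤ ss) (hsl : ss ≤ sl)
    (hcl : ∀ t ∈ A, ∀ t' ∈ A, ∀ z, z = zL ∨ z = zL + ρL →
      |dt (S.e 1) ((L t').pos z - (L t).pos z)| ≤ 1 / 1000000 * S.w 1 ∧
        |dt (S.e 2) ((L t').pos z - (L t).pos z)| ≤ 1 / 1000000 * S.w 2)
    (hbl : ∀ t ∈ A, ∀ t' ∈ A,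
      |lx S.e S.w S.c β1 β2 zL (L t') - lx S.e S.w S.c β1 β2 zL (L t)| ≤ C1 * sl ∧
        |lv S.e S.w S.c β1 β2 zL ρL (L t') - lv S.e S.w S.c β1 β2 zL ρL (L t)| ≤ C1 * sl)
    (hbs : ∀ t ∈ A, ∀ t' ∈ A,
      |lx S.e S.w S.c (-β2) β1 zL (L t') - lx S.e S.w S.c (-β2) β1 zL (L t)| ≤ C1 * ss ∧
        |lv S.e S.w S.c (-β2) β1 zL ρL (L t') - lv S.e S.w S.c (-β2) β1 zL ρL (L t)| ≤ C1 * ss) :
    (A.card : ℝ) ≤ 40000 * (10000 / δ) ^ 7 * (14 + Real.log H) *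
      (cD W (10000 / δ) qm qp * M) * C1 ^ (2 + (qm 1 + qm 2)) * sl ^ (1 + (qm 1 + qm 2)) * ss := by
  have hap : 0 < S.a := by linarith [hS.r0_le]
  have hw0 : 0 < S.w 0 := by linarith [hS.a_le0]
  have hρL : 0 < ρL := by linarith
  have Q := StP.of_shN hS hw0
  have hw := Q.pos
  have hHr : (1 : ℝ) ≤ H := by exact_mod_cast hH
  have hH0 : (0 : ℝ) < H := by linarith
  have hss0 : 0 < ss := lt_of_lt_of_le (by positivity) hss
  have hsl0 : 0 < sl := lt_of_lt_of_le hss0 hsl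
  have hC10 : 1 ≤ C1 := by linarith
  have hC1p : 0 < C1 := by linarith
  have hkp : ∀ t ∈ A, 0 < kapP S zL ρL (L t) := by
    intro t ht
    have := hsm t ht
    have h2 : 0 < 10 ^ 8 * S.a := by positivity
    linarith
  have hq12 : 0 ≤ qm 1 + qm 2 := by linarith [(hq 1).1, (hq 2).1]
  have hnb : (-β2) ^ 2 + β1 ^ 2 = 1 := by rw [neg_sq]; linarith
  set K : ℝ := 10000 / δ with hKd
  have hK : 10000 ≤ K := by rw [hKd, le_div_iff₀ hδ]; nlinarith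
  have hK0 : 0 < K := by linarith
  have hKinv : 1 / K ≤ 40000 * δ := by
    rw [hKd, one_div_div]; linarith
  set s1' : ℝ := min (C1 * ss) (4 * (1 / 1000000)) with hs1'
  set s0' : ℝ := min (C1 * sl) (4 * (1 / 1000000)) with hs0'
  have s1p : 0 < s1' := lt_min (by positivity) (by norm_num)
  have s0p : 0 < s0' := lt_min (by positivity) (by norm_num)
  have s1le : s1' ≤ 4 * (1 / 1000000) := min_le_right _ _
  have s0le : s0' ≤ 4 * (1 / 1000000) := min_le_right _ _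
  have s1le' : s1' ≤ C1 * ss := min_le_left _ _
  have s0le' : s0' ≤ C1 * sl := min_le_left _ _
  have h2 : ∀ t : ι, ∃ (b0 b1 : V3) (G : QF), t ∈ A →
      IsExp S.q S.e S.w (L t) zL ρL b0 b1 G ∧ 0 < kap b0 b1 G ∧
      kapP S zL ρL (L t) = S.w 0 * kap b0 b1 G ∧ kap b0 b1 G ≤ 13 ∧
      ∀ β1 β2 : ℝ, β1 ^ 2 + β2 ^ 2 = 1 →
        |scB1 (kap b0 b1 G) b0 b1 1 * β1 + scB1 (kap b0 b1 G) b0 b1 2 * β2| ≤ 2 ∧
        |G2 (scG (kap b0 b1 G) b0 G) β1 β2| ≤ 39 ∧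
        40000 * δ ≤ |scB1 (kap b0 b1 G) b0 b1 1 * β1 + scB1 (kap b0 b1 G) b0 b1 2 * β2| +
          |G2 (scG (kap b0 b1 G) b0 G) β1 β2| := by
    intro t
    by_cases ht : t ∈ A
    · obtain ⟨b0, b1, G, h⟩ := nd_of hS hr hρL (hA t ht) hδ (hD t ht) (hkp t ht)
      exact ⟨b0, b1, G, fun _ => h⟩
    · exact ⟨0, 0, ⟨0, 0, 0, 0, 0, 0⟩, fun h => absurd h ht⟩
  choose b0 b1 G hex using h2
  set Lf : ι → ℝ := fun t => scB1 (kap (b0 t) (b1 t) (G t)) (b0 t) (b1 t) 1 * β1 +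
    scB1 (kap (b0 t) (b1 t) (G t)) (b0 t) (b1 t) 2 * β2 with hLf
  set hf : ι → ℝ := fun t => G2 (scG (kap (b0 t) (b1 t) (G t)) (b0 t) (G t)) β1 β2 with hhf
  set xP : ι → ℝ := fun t => lx S.e S.w S.c β1 β2 zL (L t) with hxP
  set xV : ι → ℝ := fun t => lv S.e S.w S.c β1 β2 zL ρL (L t) with hxV
  have cP : ∀ γ1 γ2 : ℝ, γ1 ^ 2 + γ2 ^ 2 = 1 → ∀ t ∈ A, ∀ t' ∈ A,
      |lx S.e S.w S.c γ1 γ2 zL (L t') - lx S.e S.w S.c γ1 γ2 zL (L t)| ≤ 4 * (1 / 1000000) ∧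
      |lv S.e S.w S.c γ1 γ2 zL ρL (L t') - lv S.e S.w S.c γ1 γ2 zL ρL (L t)| ≤
        4 * (1 / 1000000) := by
    intro γ1 γ2 hγ t ht t' ht'
    have a1 := lx_close (c := S.c) hw hγ (hcl t ht t' ht' zL (Or.inl rfl))
    have a2 := lx_close (c := S.c) hw hγ (hcl t ht t' ht' _ (Or.inr rfl))
    refine ⟨a1.trans (by norm_num), ?_⟩
    have e1 : lv S.e S.w S.c γ1 γ2 zL ρL (L t') - lv S.e S.w S.c γ1 γ2 zL ρL (L t) =
        (lx S.e S.w S.c γ1 γ2 (zL + ρL) (L t') - lx S.e S.w S.c γ1 γ2 (zL + ρL) (L t)) -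
        (lx S.e S.w S.c γ1 γ2 zL (L t') - lx S.e S.w S.c γ1 γ2 zL (L t)) := by
      unfold lv; ring
    rw [e1]
    exact (abs_sub _ _).trans (by linarith)
  have nP : ∀ t ∈ A, ∀ t' ∈ A,
      |lx S.e S.w S.c (-β2) β1 zL (L t') - lx S.e S.w S.c (-β2) β1 zL (L t)| ≤ s1' ∧
      |lv S.e S.w S.c (-β2) β1 zL ρL (L t') - lv S.e S.w S.c (-β2) β1 zL ρL (L t)| ≤ s1' :=
    fun t ht t' ht' => ⟨le_min (hbs t ht t' ht').1 (cP _ _ hnb t ht t' ht').1,
      le_min (hbs t ht t' ht').2 (cP _ _ hnb t ht t' ht').2⟩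
  have bP : ∀ t ∈ A, ∀ t' ∈ A, |xP t' - xP t| ≤ s0' ∧ |xV t' - xV t| ≤ s0' :=
    fun t ht t' ht' => ⟨le_min (hbl t ht t' ht').1 (cP _ _ hb t ht t' ht').1,
      le_min (hbl t ht t' ht').2 (cP _ _ hb t ht t' ht').2⟩
  have hWp : 0 < W := by linarith
  have hcD : 0 ≤ cD W K qm qp * M := by unfold cD; positivity
  have HR : PlR A xP xV Lf hf s0' s1' K (qm 1 + qm 2) (cD W K qm qp * M) := by
    refine ⟨by linarith, s1p, min_le_min (mul_le_mul_of_nonneg_left hsl hC1p.le) le_rfl,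
      by linarith, hq12, hcD, fun t ht t' ht' => (bP t ht t' ht').1,
      fun t ht t' ht' => (bP t ht t' ht').2, ?_, ?_, ?_⟩
    · intro t ht
      obtain ⟨a1, a2, a3⟩ := (hex t ht).2.2.2.2 β1 β2 hb
      exact ⟨a1.trans (by linarith), a2.trans (by linarith), hKinv.trans a3⟩
    · intro t ht t' ht'
      obtain ⟨f1, f2, f3, f4, f5⟩ := hex t ht
      have hk1 := hsm t ht
      have hk2 := hcur t ht
      rw [f3] at hk1 hk2
      have hwk : 0 < S.w 0 * kap (b0 t) (b1 t) (G t) := mul_pos hw0 f2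
      have h3 := pair_rel hS hr hρL (hA t ht) (hA t' ht') f1 f2 (μ0 := 1 / 1000000) (by norm_num)
        (by
          have : (10 : ℝ) ^ 8 = 100000000 := by norm_num
          rw [this] at hk1
          linarith) (hcl t ht t' ht') hb (s := s1')
        (by
          refine le_min ?_ ?_
          · rw [div_le_iff₀ hwk]
            have h4 : S.a * 1 ≤ S.a * (H * ss) := by
              refine mul_le_mul_of_nonneg_left ?_ hap.le
              rw [div_le_iff₀ hH0] at hss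
              linarith
            have h5 : S.a * H * ss ≤ K1 * (S.w 0 * kap (b0 t) (b1 t) (G t)) * ss :=
              mul_le_mul_of_nonneg_right hk2 hss0.le
            have h6 : K1 * (S.w 0 * kap (b0 t) (b1 t) (G t)) * ss * 13 ≤
                C1 * ss * (S.w 0 * kap (b0 t) (b1 t) (G t)) := by
              have := mul_le_mul_of_nonneg_right hC1
                (by positivity : 0 ≤ ss * (S.w 0 * kap (b0 t) (b1 t) (G t)))
              linarith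
            have h7 : 0 ≤ K1 * (S.w 0 * kap (b0 t) (b1 t) (G t)) * ss := by positivity
            linarith
          · rw [div_le_iff₀ hwk]
            have : (10 : ℝ) ^ 8 = 100000000 := by norm_num
            rw [this] at hk1
            linarith) (by linarith) (nP t ht t' ht').1 (nP t ht t' ht').2
      refine h3.trans (mul_le_mul_of_nonneg_right hK ?_)
      have : 0 ≤ |Lf t| * |xP t' - xP t| := by positivity
      positivity
    · intro t ht om ho1 ho2 ho3 ho4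
      obtain ⟨f1, f2, f3, f4, f5⟩ := hex t ht
      obtain ⟨a1, a2, a3⟩ := f5 β1 β2 hb
      have hom0 : 0 ≤ om := le_trans (by positivity) ho1
      have htB : t ∈ A.filter fun t' => |xP t' - xP t| ≤ om ∧ |xV t' - xV t| ≤ om := by
        rw [mem_filter, sub_self, sub_self, abs_zero]
        exact ⟨ht, hom0, hom0⟩
      have hk1 := hsm t ht
      have hk2 := hcur t ht
      rw [f3] at hk1 hk2
      refine strip_om hq hS hr hz hz' hρ h128 hW hM ha0 h10 h20 na n1 n2 hd hwρ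
        ((filter_subset _ _).trans hAP) (fun t' ht' => hA t' (mem_filter.1 ht').1) htB f1 f2 f4
        hb a1 a2 (by linarith) s1p (s1le.trans (by norm_num)) ?_ ho1
        (ho2.trans (s0le.trans (by norm_num))) ho3 ho4 ?_ ?_
      · -- a ≤ 2 s1' w0
        have hkw : S.w 0 * kap (b0 t) (b1 t) (G t) ≤ 13 * S.w 0 := by
          have := mul_le_mul_of_nonneg_left f4 hw0.le
          linarith
        have b1' : S.a ≤ 2 * (C1 * ss) * S.w 0 := by
          have h4 : S.a * 1 ≤ S.a * (H * ss) := by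
            refine mul_le_mul_of_nonneg_left ?_ hap.le
            rw [div_le_iff₀ hH0] at hss
            linarith
          have h5 : S.a * H * ss ≤ K1 * (S.w 0 * kap (b0 t) (b1 t) (G t)) * ss :=
            mul_le_mul_of_nonneg_right hk2 hss0.le
          have h6 : K1 * (S.w 0 * kap (b0 t) (b1 t) (G t)) * ss ≤ K1 * (13 * S.w 0) * ss := by
            gcongr
          have h7 : K1 * (13 * S.w 0) * ss ≤ C1 * (S.w 0 * ss) := by
            have := mul_le_mul_of_nonneg_right hC1 (by positivity : 0 ≤ S.w 0 * ss)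
            linarith
          have h8 : 0 ≤ C1 * (S.w 0 * ss) := by positivity
          linarith
        have b2' : S.a ≤ 2 * (4 * (1 / 1000000)) * S.w 0 := by
          have : (10 : ℝ) ^ 8 = 100000000 := by norm_num
          rw [this] at hk1
          linarith
        rcases min_cases (C1 * ss) (4 * (1 / 1000000 : ℝ)) with h | h
        · rw [hs1', h.1]; exact b1'
        · rw [hs1', h.1]; exact b2'
      · intro t' ht' z h4 h5
        exact lx_mid hρL (nP t ht t' (mem_filter.1 ht').1).1 (nP t ht t' (mem_filter.1 ht').1).2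
          z h4 h5
      · intro t' ht' z h4 h5
        exact lx_mid hρL (mem_filter.1 ht').2.1 (mem_filter.1 ht').2.2 z h4 h5
  have key := plank_cells HR
  have hlog : 1 + Real.log (1 / s1') ≤ 14 + Real.log H := by
    have h3 : 1 / s1' ≤ 2 ^ 18 * H := by
      rw [div_le_iff₀ s1p]
      have h4 : 1 / (250000 * (H : ℝ)) ≤ s1' := by
        refine le_min ?_ ?_
        · have h5 : 1 / (250000 * (H : ℝ)) ≤ 1 / H := by
            apply one_div_le_one_div_of_le hH0; linarith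
          have h6 : ss ≤ C1 * ss := by
            have := mul_le_mul_of_nonneg_right hC10 hss0.le
            linarith
          linarith
        · rw [div_le_iff₀ (by positivity)]
          linarith
      have h5 : 2 ^ 18 * (H : ℝ) * (1 / (250000 * H)) ≤ 2 ^ 18 * H * s1' :=
        mul_le_mul_of_nonneg_left h4 (by positivity)
      have h6 : 2 ^ 18 * (H : ℝ) * (1 / (250000 * H)) = 2 ^ 18 / 250000 := by field_simp
      rw [h6] at h5
      norm_num at h5 ⊢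
      linarith
    have h4 := Real.log_le_log (by positivity) h3
    rw [Real.log_mul (by norm_num) hH0.ne', Real.log_pow] at h4
    have := Real.log_two_lt_d9
    push_cast at h4
    linarith
  have hlog0 : 0 ≤ 14 + Real.log H := by
    have := Real.log_nonneg hHr
    linarith
  refine key.trans ?_
  have e1 : (C1 * sl) ^ (1 + (qm 1 + qm 2)) = C1 ^ (1 + (qm 1 + qm 2)) *
      sl ^ (1 + (qm 1 + qm 2)) := Real.mul_rpow hC1p.le hsl0.le
  have e2 : s0' ^ (1 + (qm 1 + qm 2)) ≤ C1 ^ (1 + (qm 1 + qm 2)) *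
      sl ^ (1 + (qm 1 + qm 2)) := by
    rw [← e1]; exact Real.rpow_le_rpow s0p.le s0le' (by linarith)
  have e3 : C1 ^ (2 + (qm 1 + qm 2)) = C1 * C1 ^ (1 + (qm 1 + qm 2)) := by
    have : (2 : ℝ) + (qm 1 + qm 2) = 1 + (1 + (qm 1 + qm 2)) := by ring
    rw [this, Real.rpow_add hC1p, Real.rpow_one]
  calc 40000 * K ^ 7 * (1 + Real.log (1 / s1')) * (cD W K qm qp * M) *
        s0' ^ (1 + (qm 1 + qm 2)) * s1'
      ≤ 40000 * K ^ 7 * (14 + Real.log H) * (cD W K qm qp * M) *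
        (C1 ^ (1 + (qm 1 + qm 2)) * sl ^ (1 + (qm 1 + qm 2))) * (C1 * ss) := by
        gcongr
    _ = _ := by rw [e3]; ring

/-! ### the plank condition -/

/-- two lines in a plank of the chart -/
theorem pl_diff {S : Plk4} {T T' : Ln4} {f : OrthonormalBasis (Fin 2) ℝ E2} {s : Fin 2 → ℝ}
    {p0 v0 : E2} (h : InPl f s p0 v0 (chp S z0 ρ T) (chv S z0 ρ T))
    (h' : InPl f s p0 v0 (chp S z0 ρ T') (chv S z0 ρ T')) (ζ : ℝ) (hζ : |ζ| ≤ 1) (j : Fin 2) :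
    |inner ℝ ((chp S z0 ρ T' + ζ • chv S z0 ρ T') - (chp S z0 ρ T + ζ • chv S z0 ρ T)) (f j)| ≤
      2 * s j := by
  have g1 := h ζ hζ j
  have g2 := h' ζ hζ j
  have e : (chp S z0 ρ T' + ζ • chv S z0 ρ T') - (chp S z0 ρ T + ζ • chv S z0 ρ T) =
      (chp S z0 ρ T' - p0 + ζ • (chv S z0 ρ T' - v0)) -
        (chp S z0 ρ T - p0 + ζ • (chv S z0 ρ T - v0)) := by
    rw [smul_sub, smul_sub]; abel
  rw [e, inner_sub_left]
  exact (abs_sub _ _).trans (by linarith)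

theorem pl_ends {S : Plk4} {zL ρL R : ℝ} (hρ : 0 < ρ) (hz : zL ≤ z0) (hz' : z0 + ρ ≤ zL + ρL)
    (hR : ρL ≤ R * ρ) (hR1 : 1 ≤ R) {T T' : Ln4} {f : OrthonormalBasis (Fin 2) ℝ E2}
    {s : Fin 2 → ℝ} {p0 v0 : E2} (h : InPl f s p0 v0 (chp S z0 ρ T) (chv S z0 ρ T))
    (h' : InPl f s p0 v0 (chp S z0 ρ T') (chv S z0 ρ T')) {j j' : Fin 2} (hj : j ≠ j') :
    (|lx S.e S.w S.c (f j 0) (f j 1) zL T' - lx S.e S.w S.c (f j 0) (f j 1) zL T| ≤
        6 * R * s j ∧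
      |lv S.e S.w S.c (f j 0) (f j 1) zL ρL T' - lv S.e S.w S.c (f j 0) (f j 1) zL ρL T| ≤
        6 * R * s j) ∧
    (|lx S.e S.w S.c (-(f j 1)) (f j 0) zL T' - lx S.e S.w S.c (-(f j 1)) (f j 0) zL T| ≤
        6 * R * s j' ∧
      |lv S.e S.w S.c (-(f j 1)) (f j 0) zL ρL T' -
        lv S.e S.w S.c (-(f j 1)) (f j 0) zL ρL T| ≤ 6 * R * s j') := by
  obtain ⟨hb, ax1, ax2⟩ := axis f hj
  have d0 : ∀ ζ : ℝ, ∀ X : Ln4, (chp S z0 ρ X + ζ • chv S z0 ρ X) 0 =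
      lk S.e S.w S.c 1 (z0 + ρ / 2 + ρ / 2 * ζ) X := fun ζ X => ch_zero S z0 ρ ζ X
  have d1 : ∀ ζ : ℝ, ∀ X : Ln4, (chp S z0 ρ X + ζ • chv S z0 ρ X) 1 =
      lk S.e S.w S.c 2 (z0 + ρ / 2 + ρ / 2 * ζ) X := fun ζ X => ch_one S z0 ρ ζ X
  have long : ∀ ζ : ℝ, |ζ| ≤ 1 → ∀ z, z = z0 + ρ / 2 + ρ / 2 * ζ →
      |lx S.e S.w S.c (f j 0) (f j 1) z T' - lx S.e S.w S.c (f j 0) (f j 1) z T| ≤ 2 * s j := by
    intro ζ hζ z hz1
    have g := pl_diff h h' ζ hζ j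
    rw [ax1, PiLp.sub_apply, PiLp.sub_apply, d0, d0, d1, d1, ← hz1] at g
    refine le_trans (le_of_eq ?_) g
    congr 1
    unfold lx; ring
  have short : ∀ ζ : ℝ, |ζ| ≤ 1 → ∀ z, z = z0 + ρ / 2 + ρ / 2 * ζ →
      |lx S.e S.w S.c (-(f j 1)) (f j 0) z T' - lx S.e S.w S.c (-(f j 1)) (f j 0) z T| ≤
        2 * s j' := by
    intro ζ hζ z hz1
    have g := pl_diff h h' ζ hζ j'
    rw [ax2, PiLp.sub_apply, PiLp.sub_apply, d0, d0, d1, d1, ← hz1] at g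
    refine le_trans (le_of_eq ?_) g
    congr 1
    unfold lx; ring
  have fin : ∀ γ1 γ2 m : ℝ, (∀ ζ : ℝ, |ζ| ≤ 1 → ∀ z, z = z0 + ρ / 2 + ρ / 2 * ζ →
      |lx S.e S.w S.c γ1 γ2 z T' - lx S.e S.w S.c γ1 γ2 z T| ≤ 2 * m) →
      |lx S.e S.w S.c γ1 γ2 zL T' - lx S.e S.w S.c γ1 γ2 zL T| ≤ 6 * R * m ∧
      |lv S.e S.w S.c γ1 γ2 zL ρL T' - lv S.e S.w S.c γ1 γ2 zL ρL T| ≤ 6 * R * m := by
    intro γ1 γ2 m hm
    obtain ⟨α, β, hαβ⟩ := lx_aff (e := S.e) (w := S.w) (c := S.c) γ1 γ2 T T'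
    have h0 := hm (-1) (by norm_num) z0 (by ring)
    have h1 := hm 1 (by norm_num) (z0 + ρ) (by ring)
    rw [hαβ] at h0 h1
    obtain ⟨c1, c2⟩ := aff_ext hρ hz hz' hR hR1 h0 h1
    have hρL : 0 ≤ ρL := by linarith
    constructor
    · rw [hαβ]
      exact (c1 zL le_rfl (by linarith)).trans (by linarith)
    · have e1 : lv S.e S.w S.c γ1 γ2 zL ρL T' - lv S.e S.w S.c γ1 γ2 zL ρL T =
          (α + (zL + ρL) * β) - (α + zL * β) := by
        rw [← hαβ, ← hαβ]; unfold lv; ring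
      rw [e1]
      exact c2.trans (by linarith)
  exact ⟨fin _ _ _ long, fin _ _ _ short⟩

/-- the constant of the plank condition -/
noncomputable def bigP (δ R K1 W : ℝ) (qm qp : Fin 3 → ℝ) (H : ℕ) : ℝ :=
  10 ^ 26 * (40000 * (10000 / δ) ^ 7 * (14 + Real.log H) * cD W (10000 / δ) qm qp *
    (13 * (R * K1)) ^ (2 + (qm 1 + qm 2)))

open Classical in
set_option maxHeartbeats 1000000 in
/-- **the plank condition of a curved sheet** (chart of `Vq571`) -/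
theorem pl_curved {ι : Type*} {qm qp : Fin 3 → ℝ} (hq : ∀ k, 0 ≤ qm k ∧ qm k ≤ qp k)
    {P : Finset ι} {L : ι → Ln4} {S : Plk4} {zL ρL z0 ρ r a0 w10 w20 W M R : ℝ}
    (hS : ShN S.e S.c S.w S.q S.a zL ρL r) (hr : 0 < r) (hz : zL ≤ z0)
    (hz' : z0 + ρ ≤ zL + ρL) (hρ : 0 < ρ) (h128 : 128 * ρ ≤ ρL) (hR : ρL ≤ R * ρ)
    (hW : 1 ≤ W) (hM : 0 ≤ M)
    (ha0 : 0 < a0) (h10 : 0 < w10) (h20 : 0 < w20) (na : S.a ≤ W * a0) (n1 : S.w 1 ≤ W * w10)
    (n2 : S.w 2 ≤ W * w20)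
    (hd : ∀ S' : Plk4, Shp S' z0 ρ r → S'.w 1 ≤ ρ →
      ((P.filter fun t => InP (L t) S' z0 ρ).card : ℝ) ≤
        W * M * phC qm qp a0 w10 w20 S'.a (S'.w 1) (S'.w 2))
    (hwρ : S.w 1 ≤ 1000 * ρ) {A : Finset ι} (hAP : A ⊆ P)
    (hA : ∀ t ∈ A, InSheet (L t) S.e S.c S.w S.q S.a zL ρL) {δ : ℝ} (hδ : 0 < δ) (hδ1 : δ ≤ 1)
    (hD : ∀ t ∈ A, DetP δ S zL ρL (L t)) {H : ℕ} (hH : 1 ≤ H) {K1 : ℝ} (hK1 : 1 ≤ K1)
    (hcur : ∀ t ∈ A, S.a * H ≤ K1 * kapP S zL ρL (L t))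
    (hsm : ∀ t ∈ A, 10 ^ 8 * S.a ≤ kapP S zL ρL (L t)) :
    ∀ (f : OrthonormalBasis (Fin 2) ℝ E2) (s : Fin 2 → ℝ) (p0 v0 : E2),
      (∀ j, 1 / (H : ℝ) ≤ s j ∧ s j ≤ 1) →
      ((A.filter fun t => InPl f s p0 v0 (chp S z0 ρ (L t)) (chv S z0 ρ (L t))).card : ℝ) ≤
        bigP δ R K1 W qm qp H * (s 0 * s 1) * (max (s 0) (s 1)) ^ (qm 1 + qm 2) * M := by
  have hap : 0 < S.a := by linarith [hS.r0_le]
  have hw0 : 0 < S.w 0 := by linarith [hS.a_le0]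
  have hρL : 0 < ρL := by linarith
  have Q := StP.of_shN hS hw0
  have hw := Q.pos
  have hHr : (1 : ℝ) ≤ H := by exact_mod_cast hH
  have hH0 : (0 : ℝ) < H := by linarith
  have hR1 : 1 ≤ R := by
    by_contra hc
    push Not at hc
    have : R * ρ < 1 * ρ := mul_lt_mul_of_pos_right hc hρ
    linarith
  have hWp : 0 < W := by linarith
  have hRK : 1 ≤ R * K1 := by nlinarith
  -- one orientation
  have main : ∀ (f : OrthonormalBasis (Fin 2) ℝ E2) (s : Fin 2 → ℝ) (p0 v0 : E2) (j j' : Fin 2),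
      j ≠ j' → (∀ j, 1 / (H : ℝ) ≤ s j ∧ s j ≤ 1) → s j' ≤ s j →
      ((A.filter fun t => InPl f s p0 v0 (chp S z0 ρ (L t)) (chv S z0 ρ (L t))).card : ℝ) ≤
        bigP δ R K1 W qm qp H * (s j ^ (1 + (qm 1 + qm 2)) * s j') * M := by
    intro f s p0 v0 j j' hj hs hsj
    set B := A.filter fun t => InPl f s p0 v0 (chp S z0 ρ (L t)) (chv S z0 ρ (L t)) with hB
    have hBA : ∀ t ∈ B, t ∈ A := fun t ht => (mem_filter.1 ht).1
    obtain ⟨hb, -, -⟩ := axis f hj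
    have hlk : ∀ k z, z = zL ∨ z = zL + ρL → ∀ x ∈ B, |lk S.e S.w S.c k z (L x)| ≤ 1 := by
      intro k z hz1 x hx
      have hz2 : zL ≤ z ∧ z ≤ zL + ρL := by
        rcases hz1 with h | h <;> rw [h] <;> constructor <;> linarith
      have h1 := (hA x (hBA x hx) z hz2.1 hz2.2).1 k
      unfold lk
      rw [abs_div, abs_of_pos (hw k), div_le_one (hw k)]
      exact h1
    have hμ : (0 : ℝ) < 1 / 1000000 := by norm_num
    obtain ⟨l1, N1, h1, k1, j1⟩ := refine B (fun _ => 0) 1 (fun _ _ => Nat.one_pos)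
      (fun _ x => lk S.e S.w S.c 1 zL (L x)) hμ zero_le_one
      (fun x hx => hlk 1 zL (Or.inl rfl) x hx)
    obtain ⟨l2, N2, h2, k2, j2⟩ := refine B l1 N1 h1 (fun _ x => lk S.e S.w S.c 2 zL (L x)) hμ
      zero_le_one (fun x hx => hlk 2 zL (Or.inl rfl) x hx)
    obtain ⟨l3, N3, h3, k3, j3⟩ := refine B l2 N2 h2
      (fun _ x => lk S.e S.w S.c 1 (zL + ρL) (L x)) hμ zero_le_one
      (fun x hx => hlk 1 _ (Or.inr rfl) x hx)
    obtain ⟨l4, N4, h4, k4, j4⟩ := refine B l3 N3 h3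
      (fun _ x => lk S.e S.w S.c 2 (zL + ρL) (L x)) hμ zero_le_one
      (fun x hx => hlk 2 _ (Or.inr rfl) x hx)
    have hN4 : (N4 : ℝ) ≤ 10 ^ 26 := by
      have c : (2 * 1 / (1 / 1000000 : ℝ) + 1) = 2000001 := by norm_num
      rw [c] at k1 k2 k3 k4
      push_cast at k1
      have g2 : (N2 : ℝ) ≤ (1 * 2000001) * 2000001 := k2.trans (by gcongr)
      have g3 : (N3 : ℝ) ≤ (1 * 2000001) * 2000001 * 2000001 := k3.trans (by gcongr)
      have g4 : (N4 : ℝ) ≤ (1 * 2000001) * 2000001 * 2000001 * 2000001 := k4.trans (by gcongr)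
      refine g4.trans (by norm_num)
    set Z : ℝ := 40000 * (10000 / δ) ^ 7 * (14 + Real.log H) *
      (cD W (10000 / δ) qm qp * M) * (13 * (R * K1)) ^ (2 + (qm 1 + qm 2)) *
        s j ^ (1 + (qm 1 + qm 2)) * s j' with hZ
    have hsj0 : ∀ i, 0 < s i := fun i => lt_of_lt_of_le (by positivity) (hs i).1
    have hlog0 : 0 ≤ 14 + Real.log H := by
      have := Real.log_nonneg hHr
      linarith
    have hcD : 0 ≤ cD W (10000 / δ) qm qp * M := by unfold cD; positivity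
    have hZ0 : 0 ≤ Z := by
      have := hsj0 j
      have := hsj0 j'
      positivity
    have key := card_fib B l4 (N := 10 ^ 26) (B := Z) hZ0 (by
      refine le_trans ?_ hN4
      have hsub : B.image l4 ⊆ Finset.range N4 := by
        intro i hi
        obtain ⟨x, hx, rfl⟩ := mem_image.1 hi
        exact mem_range.2 (h4 x hx)
      have := card_le_card hsub
      rw [card_range] at this
      exact_mod_cast this) (by
      intro t0 ht0
      have hG : ∀ t ∈ B.filter (fun t' => l4 t' = l4 t0), t ∈ B := fun t ht => (mem_filter.1 ht).1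
      have hends : ∀ t ∈ B.filter (fun t' => l4 t' = l4 t0),
          ∀ t' ∈ B.filter (fun t' => l4 t' = l4 t0), _ := fun t ht t' ht' =>
        pl_ends hρ hz hz' hR hR1 (mem_filter.1 (hG t ht)).2 (mem_filter.1 (hG t' ht')).2 hj
      have hlt : ∀ x : ℝ, 0 ≤ x → 6 * R * x ≤ 13 * (R * K1) * x := by
        intro x hx
        refine mul_le_mul_of_nonneg_right ?_ hx
        nlinarith
      refine grp_bd hq hS hr hz hz' hρ h128 hW hM ha0 h10 h20 na n1 n2 hd hwρ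
        (fun t ht => hAP (hBA t (hG t ht))) (fun t ht => hA t (hBA t (hG t ht))) hδ hδ1
        (fun t ht => hD t (hBA t (hG t ht))) hH hK1 (C1 := 13 * (R * K1)) (by nlinarith)
        (fun t ht => hcur t (hBA t (hG t ht))) (fun t ht => hsm t (hBA t (hG t ht))) hb
        (hs j').1 hsj ?_ ?_ ?_
      · intro t ht t' ht' z hz1
        obtain ⟨m1, m2⟩ := mem_filter.1 ht
        obtain ⟨m1', m2'⟩ := mem_filter.1 ht'
        have m3 : l4 t' = l4 t := m2'.trans m2.symm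
        obtain ⟨e4, b4⟩ := j4 t' m1' t m1 m3
        obtain ⟨e3, b3⟩ := j3 t' m1' t m1 e4
        obtain ⟨e2, b2⟩ := j2 t' m1' t m1 e3
        obtain ⟨e1, b1⟩ := j1 t' m1' t m1 e2
        rw [lk_sub, abs_div, abs_of_pos (hw _), div_le_iff₀ (hw _)] at b1 b2 b3 b4
        rcases hz1 with h | h <;> rw [h]
        · exact ⟨b1, b2⟩
        · exact ⟨b3, b4⟩
      · intro t ht t' ht'
        obtain ⟨⟨c1, c2⟩, c3⟩ := hends t ht t' ht'
        exact ⟨c1.trans (hlt _ (hsj0 j).le), c2.trans (hlt _ (hsj0 j).le)⟩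
      · intro t ht t' ht'
        obtain ⟨c1, c2, c3⟩ := hends t ht t' ht'
        exact ⟨c2.trans (hlt _ (hsj0 j').le), c3.trans (hlt _ (hsj0 j').le)⟩)
    refine key.trans (le_of_eq ?_)
    rw [hZ]
    unfold bigP
    ring
  intro f s p0 v0 hs
  have hsp : ∀ i, 0 < s i := fun i => lt_of_lt_of_le (by positivity) (hs i).1
  rcases le_total (s 1) (s 0) with h | h
  · have h1 := main f s p0 v0 0 1 (by decide) hs h
    refine h1.trans (le_of_eq ?_)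
    rw [max_eq_left h, Real.rpow_add (hsp 0) 1, Real.rpow_one]
    ring
  · have h1 := main f s p0 v0 1 0 (by decide) hs h
    refine h1.trans (le_of_eq ?_)
    rw [max_eq_right h, Real.rpow_add (hsp 1) 1, Real.rpow_one]
    ring

end Crest.Agent.R136.Kf605
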