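import Crest.Agent.R136.Kf4_605

/-!
# R136: the plank condition for a curved sheet, groups of size `μ` (helper605)
-/

set_option autoImplicit false
set_option linter.unusedVariables false

namespace Crest.Agent.R136.Kf605

open Finset
open Crest.Agent.R136.Sh605 Crest.Agent.R136.K4
open Crest.Agent.R136.Tl102 (QF Fq bz shB0 shB1 shG scB1 scG kap NrmC IsExp StP fr fan slp)
open Crest.Agent.R136.Lgt989
open Crest.Agent.R136.Nd565 (Stp sA sB)
open Crest.Agent.R136.KapP335 (DetP kapP expP fanP expP_spec expP_eq)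
open Crest.Agent.R136.Tlt51 (Shp InP)
open Crest.Agent.R136.Phc248
open Crest.Agent.R138.Defs (E2)
open Crest.Agent.R138.Tub70 (InPl)
open Crest.Agent.R136.Vq571 (chp chv ch_zero ch_one)

variable {e : Fin 3 → V3} {c : Ln4} {w : V3} {q : ℝ → V3 → ℝ} {a z0 ρ r0 : ℝ}

open Classical in
/-- short strips -/
theorem strip_omM {ι : Type*} {qm qp : Fin 3 → ℝ} (hq : ∀ k, 0 ≤ qm k ∧ qm k ≤ qp k)
    {P : Finset ι} {L : ι → Ln4} {S : Plk4} {zL ρL z0 ρ r a0 w10 w20 W M : ℝ}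
    (hS : ShN S.e S.c S.w S.q S.a zL ρL r) (hr : 0 < r) (hz : zL ≤ z0)
    (hz' : z0 + ρ ≤ zL + ρL) (hρ : 0 < ρ) (h128 : 128 * ρ ≤ ρL) (hW : 1 ≤ W) (hM : 0 ≤ M)
    (ha0 : 0 < a0) (h10 : 0 < w10) (h20 : 0 < w20) (na : S.a ≤ W * a0) (n1 : S.w 1 ≤ W * w10)
    (n2 : S.w 2 ≤ W * w20)
    (hd : ∀ S' : Plk4, Shp S' z0 ρ r → S'.w 1 ≤ ρ →
      ((P.filter fun t => InP (L t) S' z0 ρ).card : ℝ) ≤
        W * M * phC qm qp a0 w10 w20 S'.a (S'.w 1) (S'.w 2))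
    {B : Finset ι} (hB : B ⊆ P)
    (hBS : ∀ t ∈ B, InSheet (L t) S.e S.c S.w S.q S.a zL ρL) {T : ι} (hT : T ∈ B)
    {b0 b1 : V3} {G : QF} (hE : IsExp S.q S.e S.w (L T) zL ρL b0 b1 G)
    (hκ : 0 < kap b0 b1 G) (hκ13 : kap b0 b1 G ≤ 13) {β1 β2 : ℝ} (hb : β1 ^ 2 + β2 ^ 2 = 1)
    (hL2 : |scB1 (kap b0 b1 G) b0 b1 1 * β1 + scB1 (kap b0 b1 G) b0 b1 2 * β2| ≤ 2)
    (hh : |G2 (scG (kap b0 b1 G) b0 G) β1 β2| ≤ 39) {K s1 om : ℝ} (hK : 1 ≤ K) (hs1 : 0 < s1)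
    (hs1' : s1 ≤ 1 / 250000) (has : S.a ≤ 2 * s1 * S.w 0)
    (hom : s1 / (16 * K ^ 4) ≤ om) (hom' : om ≤ 1 / 250000)
    (hβρ : 36 * (2 * (om + s1)) * S.w 1 ≤ ρ)
    (hLo : |scB1 (kap b0 b1 G) b0 b1 1 * β1 + scB1 (kap b0 b1 G) b0 b1 2 * β2| * om ≤ s1)
    (hom2 : om ^ 2 ≤ s1)
    (hn : ∀ t ∈ B, ∀ z, zL ≤ z → z ≤ zL + ρL →
      |lx S.e S.w S.c (-β2) β1 z (L t) - lx S.e S.w S.c (-β2) β1 z (L T)| ≤ 2 * s1)
    (hx : ∀ t ∈ B, ∀ z, zL ≤ z → z ≤ zL + ρL →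
      |lx S.e S.w S.c β1 β2 z (L t) - lx S.e S.w S.c β1 β2 z (L T)| ≤ 2 * om) :
    (B.card : ℝ) ≤ cD W K qm qp * M * om ^ (1 + (qm 1 + qm 2)) * s1 := by
  have hap : 0 < S.a := by linarith [hS.r0_le]
  have hw0 : 0 < S.w 0 := by linarith [hS.a_le0]
  have hK4 : 1 ≤ K ^ 4 := one_le_pow₀ hK
  have hom0 : 0 < om := lt_of_lt_of_le (by positivity) hom
  have hs1om : s1 ≤ 16 * K ^ 4 * om := by
    rw [div_le_iff₀ (by positivity)] at hom
    linarith
  set β : ℝ := 2 * (om + s1) with hβ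
  have hβ0 : 0 < β := by positivity
  have hβom : β ≤ 34 * K ^ 4 * om := by
    have h1 : om ≤ K ^ 4 * om := by
      have := mul_le_mul_of_nonneg_right hK4 hom0.le
      linarith
    rw [hβ]; linarith
  obtain ⟨l1, l2⟩ := b_le hb
  have key := Plh571.strip_hd hq hS hr hz hz' hρ h128 hW hM ha0 h10 h20 na n1 n2 hd (hBS T hT) hE
    (nA := -β2) (nB := β1) (by rw [neg_sq]; linarith) (K := 5000) (σ := 2 * s1) (β := β)
    (by norm_num) (by positivity) hβ0 (by rw [hβ]; linarith)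
    (by
      refine has.trans (mul_le_mul_of_nonneg_right ?_ hw0.le)
      rw [hβ]; linarith) has
    hβρ
    (Or.inl (by
      have e1 : kap b0 b1 G * (scB1 (kap b0 b1 G) b0 b1 1 * (-β1) +
          scB1 (kap b0 b1 G) b0 b1 2 * -β2) = -(kap b0 b1 G *
          (scB1 (kap b0 b1 G) b0 b1 1 * β1 + scB1 (kap b0 b1 G) b0 b1 2 * β2)) := by ring
      have e2 : kap b0 b1 G * ((scG (kap b0 b1 G) b0 G).uu * β1 ^ 2 -
          (scG (kap b0 b1 G) b0 G).uv * (-β2) * β1 + (scG (kap b0 b1 G) b0 G).vv * (-β2) ^ 2) =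
          kap b0 b1 G * G2 (scG (kap b0 b1 G) b0 G) β1 β2 := by unfold G2; ring
      rw [e1, e2, abs_neg, abs_mul, abs_mul, abs_of_pos hκ]
      set Lb := |scB1 (kap b0 b1 G) b0 b1 1 * β1 + scB1 (kap b0 b1 G) b0 b1 2 * β2|
      set hb' := |G2 (scG (kap b0 b1 G) b0 G) β1 β2|
      have hLb0 : 0 ≤ Lb := abs_nonneg _
      have hb0' : 0 ≤ hb' := abs_nonneg _
      have f1 : Lb * β ≤ 6 * s1 := by
        have : Lb * s1 ≤ 2 * s1 := mul_le_mul_of_nonneg_right hL2 hs1.le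
        have e3 : Lb * β = 2 * (Lb * om) + 2 * (Lb * s1) := by rw [hβ]; ring
        rw [e3]; linarith
      have f2 : β ^ 2 ≤ 16 * s1 := by
        have : s1 ^ 2 ≤ s1 := by nlinarith
        have e3 : β ^ 2 = 4 * (om ^ 2 + 2 * (om * s1) + s1 ^ 2) := by rw [hβ]; ring
        have : om * s1 ≤ 1 * s1 := mul_le_mul_of_nonneg_right (by linarith) hs1.le
        rw [e3]; linarith
      have f3 : hb' * β ^ 2 ≤ 39 * (16 * s1) := mul_le_mul hh f2 (sq_nonneg _) (by norm_num)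
      have f4 : kap b0 b1 G * (Lb * β) ≤ 13 * (6 * s1) :=
        mul_le_mul hκ13 f1 (by positivity) (by norm_num)
      have f5 : kap b0 b1 G * (hb' * β ^ 2) ≤ 13 * (39 * (16 * s1)) :=
        mul_le_mul hκ13 f3 (by positivity) (by norm_num)
      have e4 : kap b0 b1 G * Lb * β + kap b0 b1 G * hb' * β ^ 2 =
          kap b0 b1 G * (Lb * β) + kap b0 b1 G * (hb' * β ^ 2) := by ring
      rw [e4]; linarith)) hB hBS
    (by
      intro t ht z h1 h2
      have h3 := hx t ht z (by linarith) (by linarith)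
      have h4 := hn t ht z (by linarith) (by linarith)
      have eA : sA S.e S.w (L T) (L t) z = lk S.e S.w S.c 1 z (L t) - lk S.e S.w S.c 1 z (L T) :=
        (lk_sub 1 z (L T) (L t)).symm
      have eB : sB S.e S.w (L T) (L t) z = lk S.e S.w S.c 2 z (L t) - lk S.e S.w S.c 2 z (L T) :=
        (lk_sub 2 z (L T) (L t)).symm
      have e3 : lx S.e S.w S.c β1 β2 z (L t) - lx S.e S.w S.c β1 β2 z (L T) =
          β1 * sA S.e S.w (L T) (L t) z + β2 * sB S.e S.w (L T) (L t) z := by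
        rw [eA, eB]; unfold lx; ring
      have e4 : lx S.e S.w S.c (-β2) β1 z (L t) - lx S.e S.w S.c (-β2) β1 z (L T) =
          -β2 * sA S.e S.w (L T) (L t) z + β1 * sB S.e S.w (L T) (L t) z := by
        rw [eA, eB]; unfold lx; ring
      rw [e3] at h3
      rw [e4] at h4
      obtain ⟨c1, c2⟩ := comp_le hb (sA S.e S.w (L T) (L t) z) (sB S.e S.w (L T) (L t) z)
      refine ⟨?_, ?_, h4⟩
      · rw [hβ]; linarith
      · rw [hβ]; linarith)
  refine key.trans ?_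
  have hq12 : 0 ≤ qm 1 + qm 2 := by linarith [(hq 1).1, (hq 2).1]
  have hW0 : 0 < W := by linarith
  have e1 : β * (2 * s1) * β ^ (qm 1 + qm 2) = 2 * s1 * β ^ (1 + (qm 1 + qm 2)) := by
    rw [Real.rpow_add hβ0 1, Real.rpow_one]; ring
  have e2 : β ^ (1 + (qm 1 + qm 2)) ≤ (34 * K ^ 4) ^ (1 + (qm 1 + qm 2)) *
      om ^ (1 + (qm 1 + qm 2)) := by
    rw [← Real.mul_rpow (by positivity) hom0.le]
    exact Real.rpow_le_rpow hβ0.le hβom (by linarith)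
  calc 186 * 5000 * W * (3 * W) ^ (1 + qp 0) * (36 * W) ^ (2 + qp 1 + qp 2) * M *
        (β * (2 * s1)) * β ^ (qm 1 + qm 2)
      = 186 * 5000 * W * (3 * W) ^ (1 + qp 0) * (36 * W) ^ (2 + qp 1 + qp 2) * M *
        (β * (2 * s1) * β ^ (qm 1 + qm 2)) := by ring
    _ = 186 * 5000 * W * (3 * W) ^ (1 + qp 0) * (36 * W) ^ (2 + qp 1 + qp 2) * M *
        (2 * s1 * β ^ (1 + (qm 1 + qm 2))) := by rw [e1]
    _ ≤ 186 * 5000 * W * (3 * W) ^ (1 + qp 0) * (36 * W) ^ (2 + qp 1 + qp 2) * M *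
        (2 * s1 * ((34 * K ^ 4) ^ (1 + (qm 1 + qm 2)) * om ^ (1 + (qm 1 + qm 2)))) := by
        gcongr
    _ = cD W K qm qp * M * om ^ (1 + (qm 1 + qm 2)) * s1 := by unfold cD; ring


open Classical in
set_option maxHeartbeats 1000000 in
/-- plank lines of one group -/
theorem grp_bdM {ι : Type*} {qm qp : Fin 3 → ℝ} (hq : ∀ k, 0 ≤ qm k ∧ qm k ≤ qp k)
    {P : Finset ι} {L : ι → Ln4} {S : Plk4} {zL ρL z0 ρ r a0 w10 w20 W M : ℝ}
    (hS : ShN S.e S.c S.w S.q S.a zL ρL r) (hr : 0 < r) (hz : zL ≤ z0)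
    (hz' : z0 + ρ ≤ zL + ρL) (hρ : 0 < ρ) (h128 : 128 * ρ ≤ ρL) (hW : 1 ≤ W) (hM : 0 ≤ M)
    (ha0 : 0 < a0) (h10 : 0 < w10) (h20 : 0 < w20) (na : S.a ≤ W * a0) (n1 : S.w 1 ≤ W * w10)
    (n2 : S.w 2 ≤ W * w20)
    (hd : ∀ S' : Plk4, Shp S' z0 ρ r → S'.w 1 ≤ ρ →
      ((P.filter fun t => InP (L t) S' z0 ρ).card : ℝ) ≤
        W * M * phC qm qp a0 w10 w20 S'.a (S'.w 1) (S'.w 2))
    {μ : ℝ} (hμ0 : 0 < μ) (hμ1 : μ ≤ 1 / 1000000) (hwρ : 576 * μ * S.w 1 ≤ ρ) {A : Finset ι} (hAP : A ⊆ P)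
    (hA : ∀ t ∈ A, InSheet (L t) S.e S.c S.w S.q S.a zL ρL) {δ : ℝ} (hδ : 0 < δ) (hδ1 : δ ≤ 1)
    (hD : ∀ t ∈ A, DetP δ S zL ρL (L t)) {H : ℕ} (hH : 1 ≤ H) {K1 C1 : ℝ} (hK1 : 1 ≤ K1)
    (hC1 : 13 * K1 ≤ C1) (hcur : ∀ t ∈ A, S.a * H ≤ K1 * kapP S zL ρL (L t))
    (hsm : ∀ t ∈ A, 2 * S.a ≤ μ * kapP S zL ρL (L t)) {β1 β2 : ℝ} (hb : β1 ^ 2 + β2 ^ 2 = 1)
    {sl ss : ℝ} (hss : 1 / (H : ℝ) ≤ ss) (hsl : ss ≤ sl)
    (hcl : ∀ t ∈ A, ∀ t' ∈ A, ∀ z, z = zL ∨ z = zL + ρL →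
      |dt (S.e 1) ((L t').pos z - (L t).pos z)| ≤ μ * S.w 1 ∧
        |dt (S.e 2) ((L t').pos z - (L t).pos z)| ≤ μ * S.w 2)
    (hbl : ∀ t ∈ A, ∀ t' ∈ A,
      |lx S.e S.w S.c β1 β2 zL (L t') - lx S.e S.w S.c β1 β2 zL (L t)| ≤ C1 * sl ∧
        |lv S.e S.w S.c β1 β2 zL ρL (L t') - lv S.e S.w S.c β1 β2 zL ρL (L t)| ≤ C1 * sl)
    (hbs : ∀ t ∈ A, ∀ t' ∈ A,
      |lx S.e S.w S.c (-β2) β1 zL (L t') - lx S.e S.w S.c (-β2) β1 zL (L t)| ≤ C1 * ss ∧
        |lv S.e S.w S.c (-β2) β1 zL ρL (L t') - lv S.e S.w S.c (-β2) β1 zL ρL (L t)| ≤ C1 * ss) :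
    (A.card : ℝ) ≤ 40000 * (10000 / δ) ^ 7 * (2 / μ * (1 + Real.log H)) *
      (cD W (10000 / δ) qm qp * M) * C1 ^ (2 + (qm 1 + qm 2)) * sl ^ (1 + (qm 1 + qm 2)) * ss := by
  have hap : 0 < S.a := by linarith [hS.r0_le]
  have hw0 : 0 < S.w 0 := by linarith [hS.a_le0]
  have hρL : 0 < ρL := by linarith
  have Q := StP.of_shN hS hw0
  have hw := Q.pos
  have hHr : (1 : ℝ) ≤ H := by exact_mod_cast hH
  have hH0 : (0 : ℝ) < H := by linarith
  have hss0 : 0 < ss := lt_of_lt_of_le (by positivity) hss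
  have hsl0 : 0 < sl := lt_of_lt_of_le hss0 hsl
  have hC10 : 1 ≤ C1 := by linarith
  have hC1p : 0 < C1 := by linarith
  have hkp : ∀ t ∈ A, 0 < kapP S zL ρL (L t) := by
    intro t ht
    have := hsm t ht
    have h2 : 0 < μ * kapP S zL ρL (L t) := by linarith
    exact (mul_pos_iff_of_pos_left hμ0).1 h2
  have hq12 : 0 ≤ qm 1 + qm 2 := by linarith [(hq 1).1, (hq 2).1]
  have hnb : (-β2) ^ 2 + β1 ^ 2 = 1 := by rw [neg_sq]; linarith
  set K : ℝ := 10000 / δ with hKd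
  have hK : 10000 ≤ K := by rw [hKd, le_div_iff₀ hδ]; nlinarith
  have hK0 : 0 < K := by linarith
  have hKinv : 1 / K ≤ 40000 * δ := by
    rw [hKd, one_div_div]; linarith
  set s1' : ℝ := min (C1 * ss) (4 * μ) with hs1'
  set s0' : ℝ := min (C1 * sl) (4 * μ) with hs0'
  have s1p : 0 < s1' := lt_min (by positivity) (by positivity)
  have s0p : 0 < s0' := lt_min (by positivity) (by positivity)
  have s1le : s1' ≤ 4 * μ := min_le_right _ _
  have s0le : s0' ≤ 4 * μ := min_le_right _ _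
  have s1le' : s1' ≤ C1 * ss := min_le_left _ _
  have s0le' : s0' ≤ C1 * sl := min_le_left _ _
  have h2 : ∀ t : ι, ∃ (b0 b1 : V3) (G : QF), t ∈ A →
      IsExp S.q S.e S.w (L t) zL ρL b0 b1 G ∧ 0 < kap b0 b1 G ∧
      kapP S zL ρL (L t) = S.w 0 * kap b0 b1 G ∧ kap b0 b1 G ≤ 13 ∧
      ∀ β1 β2 : ℝ, β1 ^ 2 + β2 ^ 2 = 1 →
        |scB1 (kap b0 b1 G) b0 b1 1 * β1 + scB1 (kap b0 b1 G) b0 b1 2 * β2| ≤ 2 ∧
        |G2 (scG (kap b0 b1 G) b0 G) β1 β2| ≤ 39 ∧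
        40000 * δ ≤ |scB1 (kap b0 b1 G) b0 b1 1 * β1 + scB1 (kap b0 b1 G) b0 b1 2 * β2| +
          |G2 (scG (kap b0 b1 G) b0 G) β1 β2| := by
    intro t
    by_cases ht : t ∈ A
    · obtain ⟨b0, b1, G, h⟩ := nd_of hS hr hρL (hA t ht) hδ (hD t ht) (hkp t ht)
      exact ⟨b0, b1, G, fun _ => h⟩
    · exact ⟨0, 0, ⟨0, 0, 0, 0, 0, 0⟩, fun h => absurd h ht⟩
  choose b0 b1 G hex using h2
  set Lf : ι → ℝ := fun t => scB1 (kap (b0 t) (b1 t) (G t)) (b0 t) (b1 t) 1 * β1 +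
    scB1 (kap (b0 t) (b1 t) (G t)) (b0 t) (b1 t) 2 * β2 with hLf
  set hf : ι → ℝ := fun t => G2 (scG (kap (b0 t) (b1 t) (G t)) (b0 t) (G t)) β1 β2 with hhf
  set xP : ι → ℝ := fun t => lx S.e S.w S.c β1 β2 zL (L t) with hxP
  set xV : ι → ℝ := fun t => lv S.e S.w S.c β1 β2 zL ρL (L t) with hxV
  have cP : ∀ γ1 γ2 : ℝ, γ1 ^ 2 + γ2 ^ 2 = 1 → ∀ t ∈ A, ∀ t' ∈ A,
      |lx S.e S.w S.c γ1 γ2 zL (L t') - lx S.e S.w S.c γ1 γ2 zL (L t)| ≤ 4 * μ ∧
      |lv S.e S.w S.c γ1 γ2 zL ρL (L t') - lv S.e S.w S.c γ1 γ2 zL ρL (L t)| ≤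
        4 * μ := by
    intro γ1 γ2 hγ t ht t' ht'
    have a1 := lx_close (c := S.c) hw hγ (hcl t ht t' ht' zL (Or.inl rfl))
    have a2 := lx_close (c := S.c) hw hγ (hcl t ht t' ht' _ (Or.inr rfl))
    refine ⟨a1.trans (by linarith), ?_⟩
    have e1 : lv S.e S.w S.c γ1 γ2 zL ρL (L t') - lv S.e S.w S.c γ1 γ2 zL ρL (L t) =
        (lx S.e S.w S.c γ1 γ2 (zL + ρL) (L t') - lx S.e S.w S.c γ1 γ2 (zL + ρL) (L t)) -
        (lx S.e S.w S.c γ1 γ2 zL (L t') - lx S.e S.w S.c γ1 γ2 zL (L t)) := by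
      unfold lv; ring
    rw [e1]
    exact (abs_sub _ _).trans (by linarith)
  have nP : ∀ t ∈ A, ∀ t' ∈ A,
      |lx S.e S.w S.c (-β2) β1 zL (L t') - lx S.e S.w S.c (-β2) β1 zL (L t)| ≤ s1' ∧
      |lv S.e S.w S.c (-β2) β1 zL ρL (L t') - lv S.e S.w S.c (-β2) β1 zL ρL (L t)| ≤ s1' :=
    fun t ht t' ht' => ⟨le_min (hbs t ht t' ht').1 (cP _ _ hnb t ht t' ht').1,
      le_min (hbs t ht t' ht').2 (cP _ _ hnb t ht t' ht').2⟩
  have bP : ∀ t ∈ A, ∀ t' ∈ A, |xP t' - xP t| ≤ s0' ∧ |xV t' - xV t| ≤ s0' :=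
    fun t ht t' ht' => ⟨le_min (hbl t ht t' ht').1 (cP _ _ hb t ht t' ht').1,
      le_min (hbl t ht t' ht').2 (cP _ _ hb t ht t' ht').2⟩
  have hWp : 0 < W := by linarith
  have hcD : 0 ≤ cD W K qm qp * M := by unfold cD; positivity
  have HR : PlR A xP xV Lf hf s0' s1' K (qm 1 + qm 2) (cD W K qm qp * M) := by
    refine ⟨by linarith, s1p, min_le_min (mul_le_mul_of_nonneg_left hsl hC1p.le) le_rfl,
      by linarith, hq12, hcD, fun t ht t' ht' => (bP t ht t' ht').1,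
      fun t ht t' ht' => (bP t ht t' ht').2, ?_, ?_, ?_⟩
    · intro t ht
      obtain ⟨a1, a2, a3⟩ := (hex t ht).2.2.2.2 β1 β2 hb
      exact ⟨a1.trans (by linarith), a2.trans (by linarith), hKinv.trans a3⟩
    · intro t ht t' ht'
      obtain ⟨f1, f2, f3, f4, f5⟩ := hex t ht
      have hk1 := hsm t ht
      have hk2 := hcur t ht
      rw [f3] at hk1 hk2
      have hwk : 0 < S.w 0 * kap (b0 t) (b1 t) (G t) := mul_pos hw0 f2
      have h3 := pair_rel hS hr hρL (hA t ht) (hA t' ht') f1 f2 (μ0 := μ) (by linarith) (by linarith) (hcl t ht t' ht') hb (s := s1')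
        (by
          refine le_min ?_ ?_
          · rw [div_le_iff₀ hwk]
            have h4 : S.a * 1 ≤ S.a * (H * ss) := by
              refine mul_le_mul_of_nonneg_left ?_ hap.le
              rw [div_le_iff₀ hH0] at hss
              linarith
            have h5 : S.a * H * ss ≤ K1 * (S.w 0 * kap (b0 t) (b1 t) (G t)) * ss :=
              mul_le_mul_of_nonneg_right hk2 hss0.le
            have h6 : K1 * (S.w 0 * kap (b0 t) (b1 t) (G t)) * ss * 13 ≤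
                C1 * ss * (S.w 0 * kap (b0 t) (b1 t) (G t)) := by
              have := mul_le_mul_of_nonneg_right hC1
                (by positivity : 0 ≤ ss * (S.w 0 * kap (b0 t) (b1 t) (G t)))
              linarith
            have h7 : 0 ≤ K1 * (S.w 0 * kap (b0 t) (b1 t) (G t)) * ss := by positivity
            linarith
          · rw [div_le_iff₀ hwk]
            linarith [mul_pos hμ0 hwk]) (by linarith) (nP t ht t' ht').1 (nP t ht t' ht').2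
      refine h3.trans (mul_le_mul_of_nonneg_right hK ?_)
      have : 0 ≤ |Lf t| * |xP t' - xP t| := by positivity
      positivity
    · intro t ht om ho1 ho2 ho3 ho4
      obtain ⟨f1, f2, f3, f4, f5⟩ := hex t ht
      obtain ⟨a1, a2, a3⟩ := f5 β1 β2 hb
      have hom0 : 0 ≤ om := le_trans (by positivity) ho1
      have htB : t ∈ A.filter fun t' => |xP t' - xP t| ≤ om ∧ |xV t' - xV t| ≤ om := by
        rw [mem_filter, sub_self, sub_self, abs_zero]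
        exact ⟨ht, hom0, hom0⟩
      have hk1 := hsm t ht
      have hk2 := hcur t ht
      rw [f3] at hk1 hk2
      refine strip_omM hq hS hr hz hz' hρ h128 hW hM ha0 h10 h20 na n1 n2 hd
        ((filter_subset _ _).trans hAP) (fun t' ht' => hA t' (mem_filter.1 ht').1) htB f1 f2 f4
        hb a1 a2 (by linarith) s1p (s1le.trans (by linarith)) ?_ ho1
        (ho2.trans (s0le.trans (by linarith))) (by
          refine le_trans (mul_le_mul_of_nonneg_right ?_ (hw 1).le) hwρ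
          linarith) ho3 ho4 ?_ ?_
      · -- a ≤ 2 s1' w0
        have hkw : S.w 0 * kap (b0 t) (b1 t) (G t) ≤ 13 * S.w 0 := by
          have := mul_le_mul_of_nonneg_left f4 hw0.le
          linarith
        have b1' : S.a ≤ 2 * (C1 * ss) * S.w 0 := by
          have h4 : S.a * 1 ≤ S.a * (H * ss) := by
            refine mul_le_mul_of_nonneg_left ?_ hap.le
            rw [div_le_iff₀ hH0] at hss
            linarith
          have h5 : S.a * H * ss ≤ K1 * (S.w 0 * kap (b0 t) (b1 t) (G t)) * ss :=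
            mul_le_mul_of_nonneg_right hk2 hss0.le
          have h6 : K1 * (S.w 0 * kap (b0 t) (b1 t) (G t)) * ss ≤ K1 * (13 * S.w 0) * ss := by
            gcongr
          have h7 : K1 * (13 * S.w 0) * ss ≤ C1 * (S.w 0 * ss) := by
            have := mul_le_mul_of_nonneg_right hC1 (by positivity : 0 ≤ S.w 0 * ss)
            linarith
          have h8 : 0 ≤ C1 * (S.w 0 * ss) := by positivity
          linarith
        have b2' : S.a ≤ 2 * (4 * μ) * S.w 0 := by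
          have := mul_le_mul_of_nonneg_left hkw hμ0.le
          have h9 : 0 < μ * S.w 0 := mul_pos hμ0 hw0
          linarith
        rcases min_cases (C1 * ss) (4 * μ) with h | h
        · rw [hs1', h.1]; exact b1'
        · rw [hs1', h.1]; exact b2'
      · intro t' ht' z h4 h5
        exact lx_mid hρL (nP t ht t' (mem_filter.1 ht').1).1 (nP t ht t' (mem_filter.1 ht').1).2
          z h4 h5
      · intro t' ht' z h4 h5
        exact lx_mid hρL (mem_filter.1 ht').2.1 (mem_filter.1 ht').2.2 z h4 h5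
  have key := plank_cells HR
  have hlogH : 0 ≤ Real.log H := Real.log_nonneg hHr
  have hμi : 1 ≤ 1 / μ := by rw [le_div_iff₀ hμ0]; linarith
  have hlog : 1 + Real.log (1 / s1') ≤ 2 / μ * (1 + Real.log H) := by
    have h3 : 1 / s1' ≤ (1 / μ) * H := by
      rw [div_le_iff₀ s1p]
      have h4 : μ / (H : ℝ) ≤ s1' := by
        refine le_min ?_ ?_
        · have h5 : μ / (H : ℝ) ≤ 1 / H := by
            apply div_le_div_of_nonneg_right _ hH0.le; linarith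
          have h6 : ss ≤ C1 * ss := by
            have := mul_le_mul_of_nonneg_right hC10 hss0.le
            linarith
          linarith
        · rw [div_le_iff₀ (by positivity)]
          nlinarith
      have h5 : (1 / μ) * H * (μ / H) ≤ (1 / μ) * H * s1' :=
        mul_le_mul_of_nonneg_left h4 (by positivity)
      have h6 : (1 / μ) * (H : ℝ) * (μ / H) = 1 := by field_simp
      rw [h6] at h5
      exact h5
    have h4 := Real.log_le_log (by positivity) h3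
    rw [Real.log_mul (by positivity) hH0.ne'] at h4
    have h5 : Real.log (1 / μ) ≤ 1 / μ - 1 := Real.log_le_sub_one_of_pos (by positivity)
    have e : 2 / μ * (1 + Real.log H) = 2 * (1 / μ) + 2 * ((1 / μ) * Real.log H) := by ring
    have h6 : 1 * Real.log H ≤ (1 / μ) * Real.log H := mul_le_mul_of_nonneg_right hμi hlogH
    rw [e]
    linarith
  have hlog0 : 0 ≤ 2 / μ * (1 + Real.log H) := by positivity
  refine key.trans ?_
  have e1 : (C1 * sl) ^ (1 + (qm 1 + qm 2)) = C1 ^ (1 + (qm 1 + qm 2)) *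
      sl ^ (1 + (qm 1 + qm 2)) := Real.mul_rpow hC1p.le hsl0.le
  have e2 : s0' ^ (1 + (qm 1 + qm 2)) ≤ C1 ^ (1 + (qm 1 + qm 2)) *
      sl ^ (1 + (qm 1 + qm 2)) := by
    rw [← e1]; exact Real.rpow_le_rpow s0p.le s0le' (by linarith)
  have e3 : C1 ^ (2 + (qm 1 + qm 2)) = C1 * C1 ^ (1 + (qm 1 + qm 2)) := by
    have : (2 : ℝ) + (qm 1 + qm 2) = 1 + (1 + (qm 1 + qm 2)) := by ring
    rw [this, Real.rpow_add hC1p, Real.rpow_one]
  calc 40000 * K ^ 7 * (1 + Real.log (1 / s1')) * (cD W K qm qp * M) *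
        s0' ^ (1 + (qm 1 + qm 2)) * s1'
      ≤ 40000 * K ^ 7 * (2 / μ * (1 + Real.log H)) * (cD W K qm qp * M) *
        (C1 ^ (1 + (qm 1 + qm 2)) * sl ^ (1 + (qm 1 + qm 2))) * (C1 * ss) := by
        gcongr
    _ = _ := by rw [e3]; ring


/-- the constant of the plank condition -/
noncomputable def bigM (δ R K1 W μ : ℝ) (qm qp : Fin 3 → ℝ) : ℝ :=
  (3 / μ) ^ 4 * (40000 * (10000 / δ) ^ 7 * (2 / μ) * cD W (10000 / δ) qm qp *
    (13 * (R * K1)) ^ (2 + (qm 1 + qm 2)))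

open Classical in
set_option maxHeartbeats 1000000 in
/-- **the plank condition of a curved sheet** (chart of `Vq571`), groups of size `μ` -/
theorem pl_curvedM {ι : Type*} {qm qp : Fin 3 → ℝ} (hq : ∀ k, 0 ≤ qm k ∧ qm k ≤ qp k)
    {P : Finset ι} {L : ι → Ln4} {S : Plk4} {zL ρL z0 ρ r a0 w10 w20 W M R : ℝ}
    (hS : ShN S.e S.c S.w S.q S.a zL ρL r) (hr : 0 < r) (hz : zL ≤ z0)
    (hz' : z0 + ρ ≤ zL + ρL) (hρ : 0 < ρ) (h128 : 128 * ρ ≤ ρL) (hR : ρL ≤ R * ρ)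
    (hW : 1 ≤ W) (hM : 0 ≤ M)
    (ha0 : 0 < a0) (h10 : 0 < w10) (h20 : 0 < w20) (na : S.a ≤ W * a0) (n1 : S.w 1 ≤ W * w10)
    (n2 : S.w 2 ≤ W * w20)
    (hd : ∀ S' : Plk4, Shp S' z0 ρ r → S'.w 1 ≤ ρ →
      ((P.filter fun t => InP (L t) S' z0 ρ).card : ℝ) ≤
        W * M * phC qm qp a0 w10 w20 S'.a (S'.w 1) (S'.w 2))
    {μ : ℝ} (hμ0 : 0 < μ) (hμ1 : μ ≤ 1 / 1000000) (hwρ : 576 * μ * S.w 1 ≤ ρ) {A : Finset ι} (hAP : A ⊆ P)
    (hA : ∀ t ∈ A, InSheet (L t) S.e S.c S.w S.q S.a zL ρL) {δ : ℝ} (hδ : 0 < δ) (hδ1 : δ ≤ 1)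
    (hD : ∀ t ∈ A, DetP δ S zL ρL (L t)) {H : ℕ} (hH : 1 ≤ H) {K1 : ℝ} (hK1 : 1 ≤ K1)
    (hcur : ∀ t ∈ A, S.a * H ≤ K1 * kapP S zL ρL (L t))
    (hsm : ∀ t ∈ A, 2 * S.a ≤ μ * kapP S zL ρL (L t)) :
    ∀ (f : OrthonormalBasis (Fin 2) ℝ E2) (s : Fin 2 → ℝ) (p0 v0 : E2),
      (∀ j, 1 / (H : ℝ) ≤ s j ∧ s j ≤ 1) →
      ((A.filter fun t => InPl f s p0 v0 (chp S z0 ρ (L t)) (chv S z0 ρ (L t))).card : ℝ) ≤
        bigM δ R K1 W μ qm qp * (1 + Real.log H) * (s 0 * s 1) * (max (s 0) (s 1)) ^ (qm 1 + qm 2) * M := by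
  have hap : 0 < S.a := by linarith [hS.r0_le]
  have hw0 : 0 < S.w 0 := by linarith [hS.a_le0]
  have hρL : 0 < ρL := by linarith
  have Q := StP.of_shN hS hw0
  have hw := Q.pos
  have hHr : (1 : ℝ) ≤ H := by exact_mod_cast hH
  have hH0 : (0 : ℝ) < H := by linarith
  have hR1 : 1 ≤ R := by
    by_contra hc
    push Not at hc
    have : R * ρ < 1 * ρ := mul_lt_mul_of_pos_right hc hρ
    linarith
  have hWp : 0 < W := by linarith
  have hRK : 1 ≤ R * K1 := by nlinarith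
  -- one orientation
  have main : ∀ (f : OrthonormalBasis (Fin 2) ℝ E2) (s : Fin 2 → ℝ) (p0 v0 : E2) (j j' : Fin 2),
      j ≠ j' → (∀ j, 1 / (H : ℝ) ≤ s j ∧ s j ≤ 1) → s j' ≤ s j →
      ((A.filter fun t => InPl f s p0 v0 (chp S z0 ρ (L t)) (chv S z0 ρ (L t))).card : ℝ) ≤
        bigM δ R K1 W μ qm qp * (1 + Real.log H) * (s j ^ (1 + (qm 1 + qm 2)) * s j') * M := by
    intro f s p0 v0 j j' hj hs hsj
    set B := A.filter fun t => InPl f s p0 v0 (chp S z0 ρ (L t)) (chv S z0 ρ (L t)) with hB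
    have hBA : ∀ t ∈ B, t ∈ A := fun t ht => (mem_filter.1 ht).1
    obtain ⟨hb, -, -⟩ := axis f hj
    have hlk : ∀ k z, z = zL ∨ z = zL + ρL → ∀ x ∈ B, |lk S.e S.w S.c k z (L x)| ≤ 1 := by
      intro k z hz1 x hx
      have hz2 : zL ≤ z ∧ z ≤ zL + ρL := by
        rcases hz1 with h | h <;> rw [h] <;> constructor <;> linarith
      have h1 := (hA x (hBA x hx) z hz2.1 hz2.2).1 k
      unfold lk
      rw [abs_div, abs_of_pos (hw k), div_le_one (hw k)]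
      exact h1
    have hμ : (0 : ℝ) < μ := hμ0
    obtain ⟨l1, N1, h1, k1, j1⟩ := refine B (fun _ => 0) 1 (fun _ _ => Nat.one_pos)
      (fun _ x => lk S.e S.w S.c 1 zL (L x)) hμ zero_le_one
      (fun x hx => hlk 1 zL (Or.inl rfl) x hx)
    obtain ⟨l2, N2, h2, k2, j2⟩ := refine B l1 N1 h1 (fun _ x => lk S.e S.w S.c 2 zL (L x)) hμ
      zero_le_one (fun x hx => hlk 2 zL (Or.inl rfl) x hx)
    obtain ⟨l3, N3, h3, k3, j3⟩ := refine B l2 N2 h2
      (fun _ x => lk S.e S.w S.c 1 (zL + ρL) (L x)) hμ zero_le_one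
      (fun x hx => hlk 1 _ (Or.inr rfl) x hx)
    obtain ⟨l4, N4, h4, k4, j4⟩ := refine B l3 N3 h3
      (fun _ x => lk S.e S.w S.c 2 (zL + ρL) (L x)) hμ zero_le_one
      (fun x hx => hlk 2 _ (Or.inr rfl) x hx)
    have hμ3 : 0 ≤ 3 / μ := by positivity
    have hN4 : (N4 : ℝ) ≤ (3 / μ) ^ 4 := by
      have c : (2 * 1 / μ + 1) ≤ 3 / μ := by
        have h1 : 1 ≤ 1 / μ := by rw [le_div_iff₀ hμ0]; linarith
        have e : 3 / μ = 2 * 1 / μ + 1 / μ := by ring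
        rw [e]; linarith
      push_cast at k1
      have g1 : (N1 : ℝ) ≤ 3 / μ := k1.trans (by linarith)
      have g2 : (N2 : ℝ) ≤ (3 / μ) * (3 / μ) :=
        k2.trans (mul_le_mul g1 c (by positivity) hμ3)
      have g3 : (N3 : ℝ) ≤ (3 / μ) * (3 / μ) * (3 / μ) :=
        k3.trans (mul_le_mul g2 c (by positivity) (by positivity))
      have g4 : (N4 : ℝ) ≤ (3 / μ) * (3 / μ) * (3 / μ) * (3 / μ) :=
        k4.trans (mul_le_mul g3 c (by positivity) (by positivity))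
      refine g4.trans (le_of_eq (by ring))
    set Z : ℝ := 40000 * (10000 / δ) ^ 7 * (2 / μ * (1 + Real.log H)) *
      (cD W (10000 / δ) qm qp * M) * (13 * (R * K1)) ^ (2 + (qm 1 + qm 2)) *
        s j ^ (1 + (qm 1 + qm 2)) * s j' with hZ
    have hsj0 : ∀ i, 0 < s i := fun i => lt_of_lt_of_le (by positivity) (hs i).1
    have hlogH : 0 ≤ Real.log H := Real.log_nonneg hHr
    have hcD : 0 ≤ cD W (10000 / δ) qm qp * M := by unfold cD; positivity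
    have hZ0 : 0 ≤ Z := by
      have := hsj0 j
      have := hsj0 j'
      positivity
    have key := card_fib B l4 (N := (3 / μ) ^ 4) (B := Z) hZ0 (by
      refine le_trans ?_ hN4
      have hsub : B.image l4 ⊆ Finset.range N4 := by
        intro i hi
        obtain ⟨x, hx, rfl⟩ := mem_image.1 hi
        exact mem_range.2 (h4 x hx)
      have := card_le_card hsub
      rw [card_range] at this
      exact_mod_cast this) (by
      intro t0 ht0
      have hG : ∀ t ∈ B.filter (fun t' => l4 t' = l4 t0), t ∈ B := fun t ht => (mem_filter.1 ht).1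
      have hends : ∀ t ∈ B.filter (fun t' => l4 t' = l4 t0),
          ∀ t' ∈ B.filter (fun t' => l4 t' = l4 t0), _ := fun t ht t' ht' =>
        pl_ends hρ hz hz' hR hR1 (mem_filter.1 (hG t ht)).2 (mem_filter.1 (hG t' ht')).2 hj
      have hlt : ∀ x : ℝ, 0 ≤ x → 6 * R * x ≤ 13 * (R * K1) * x := by
        intro x hx
        refine mul_le_mul_of_nonneg_right ?_ hx
        nlinarith
      refine grp_bdM hq hS hr hz hz' hρ h128 hW hM ha0 h10 h20 na n1 n2 hd hμ0 hμ1 hwρ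
        (fun t ht => hAP (hBA t (hG t ht))) (fun t ht => hA t (hBA t (hG t ht))) hδ hδ1
        (fun t ht => hD t (hBA t (hG t ht))) hH hK1 (C1 := 13 * (R * K1)) (by nlinarith)
        (fun t ht => hcur t (hBA t (hG t ht))) (fun t ht => hsm t (hBA t (hG t ht))) hb
        (hs j').1 hsj ?_ ?_ ?_
      · intro t ht t' ht' z hz1
        obtain ⟨m1, m2⟩ := mem_filter.1 ht
        obtain ⟨m1', m2'⟩ := mem_filter.1 ht'
        have m3 : l4 t' = l4 t := m2'.trans m2.symm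
        obtain ⟨e4, b4⟩ := j4 t' m1' t m1 m3
        obtain ⟨e3, b3⟩ := j3 t' m1' t m1 e4
        obtain ⟨e2, b2⟩ := j2 t' m1' t m1 e3
        obtain ⟨e1, b1⟩ := j1 t' m1' t m1 e2
        rw [lk_sub, abs_div, abs_of_pos (hw _), div_le_iff₀ (hw _)] at b1 b2 b3 b4
        rcases hz1 with h | h <;> rw [h]
        · exact ⟨b1, b2⟩
        · exact ⟨b3, b4⟩
      · intro t ht t' ht'
        obtain ⟨⟨c1, c2⟩, c3⟩ := hends t ht t' ht'
        exact ⟨c1.trans (hlt _ (hsj0 j).le), c2.trans (hlt _ (hsj0 j).le)⟩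
      · intro t ht t' ht'
        obtain ⟨c1, c2, c3⟩ := hends t ht t' ht'
        exact ⟨c2.trans (hlt _ (hsj0 j').le), c3.trans (hlt _ (hsj0 j').le)⟩)
    refine key.trans (le_of_eq ?_)
    rw [hZ]
    unfold bigM
    ring
  intro f s p0 v0 hs
  have hsp : ∀ i, 0 < s i := fun i => lt_of_lt_of_le (by positivity) (hs i).1
  rcases le_total (s 1) (s 0) with h | h
  · have h1 := main f s p0 v0 0 1 (by decide) hs h
    refine h1.trans (le_of_eq ?_)
    rw [max_eq_left h, Real.rpow_add (hsp 0) 1, Real.rpow_one]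
    ring
  · have h1 := main f s p0 v0 1 0 (by decide) hs h
    refine h1.trans (le_of_eq ?_)
    rw [max_eq_right h, Real.rpow_add (hsp 1) 1, Real.rpow_one]
    ring

end Crest.Agent.R136.Kf605
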