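import Crest.Agent.R136.Cap2_102

/-!
# R136, U6 thin (helper327): the branch `θ1 = 2 θ2` is impossible, finite algebra

Scaled tangent coordinates of the sheet along a line `T`: normal covector `N = (n0, 0, 0)`, rotation
`R = (r0, l1, l2)`, second order part `H`.

* `adj`, `adj_id` : the Binet–Cauchy identity
  `H(Om, Om) H(V, V) = H(Om, V)² + Wᵗ adj(H) W`, `W = R (N·V) - N (R·V)`;
* **`rot_kill`** : if `r0`, `l2`, the three numbers `N adj N`, `N adj R`, `R adj R` and, at a second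
  line `T'` of the sheet of relative velocity `V`, the turning rate `R' 0` and the rotation along the
  second axis are at most `δ`, and `|H(Om, Om)| ≥ η`, then `|V 1| ≤ 10^5 δ / η²`.
-/

set_option autoImplicit false
set_option linter.unusedVariables false

namespace Crest.Agent.R136.Kil327

open Crest.Agent.R136.Sh605 Crest.Agent.R136.Tl102

/-- `xᵗ adj(M) y` -/
noncomputable def adj (M : QF) (x y : V3) : ℝ :=
  (M.uu * M.vv - M.uv ^ 2 / 4) * (x 0 * y 0) +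
    (M.uv * M.yv / 4 - M.yu * M.vv / 2) * (x 0 * y 1 + x 1 * y 0) +
    (M.yu * M.uv / 4 - M.uu * M.yv / 2) * (x 0 * y 2 + x 2 * y 0) +
    (M.yy * M.vv - M.yv ^ 2 / 4) * (x 1 * y 1) +
    (M.yu * M.yv / 4 - M.yy * M.uv / 2) * (x 1 * y 2 + x 2 * y 1) +
    (M.yy * M.uu - M.yu ^ 2 / 4) * (x 2 * y 2)

/-- the second form on the kernel of the rotation -/
def dd (M : QF) (R : V3) : ℝ := M.uu * R 2 ^ 2 - M.uv * (R 1 * R 2) + M.vv * R 1 ^ 2

/-- `2 H(Om, V)`, `Om = (0, R 2, -R 1)` -/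
def ho (M : QF) (R V : V3) : ℝ :=
  R 2 * (M.yu * V 0 + 2 * M.uu * V 1 + M.uv * V 2) -
    R 1 * (M.yv * V 0 + M.uv * V 1 + 2 * M.vv * V 2)

/-- **Binet–Cauchy** -/
theorem adj_id (M : QF) (N R V : V3) (h1 : N 1 = 0) (h2 : N 2 = 0) :
    N 0 ^ 2 * (4 * (dd M R * M.ev V) - ho M R V ^ 2) =
      4 * (adj M R R * (dt N V) ^ 2 - 2 * adj M N R * (dt N V) * (dt R V) +
        adj M N N * (dt R V) ^ 2) := by
  simp only [adj, dd, ho, QF.ev, dt, h1, h2]
  ring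

theorem a3 {x y z A B C : ℝ} (hx : |x| ≤ A) (hy : |y| ≤ B) (hz : |z| ≤ C) :
    |x + y + z| ≤ A + B + C :=
  (abs_add_le _ _).trans (add_le_add ((abs_add_le _ _).trans (add_le_add hx hy)) hz)

theorem mm {x y A B : ℝ} (hx : |x| ≤ A) (hy : |y| ≤ B) : |x * y| ≤ A * B := by
  rw [abs_mul]; exact mul_le_mul hx hy (abs_nonneg _) ((abs_nonneg _).trans hx)

/-- **small rotation along the second axis at two lines of the sheet forces a small velocity along the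
first axis** -/
theorem rot_kill {N R X V : V3} {M : QF} {δ η : ℝ} (hδ : 0 ≤ δ) (hδ1 : δ ≤ 1) (hη : 0 < η)
    (hδη : 4 * δ ≤ η)
    (h1 : N 1 = 0) (h2 : N 2 = 0) (n0 : 1 / 2 ≤ N 0) (n1 : N 0 ≤ 2) (r0 : |R 0| ≤ δ)
    (r1 : |R 1| ≤ 1) (r2 : |R 2| ≤ δ) (yy : |M.yy| ≤ 13) (yu : |M.yu| ≤ 5) (yv : |M.yv| ≤ 5)
    (uu : |M.uu| ≤ 1) (uv : |M.uv| ≤ 1) (vv : |M.vv| ≤ 1) (hX : ∀ k, |X k| ≤ 8)
    (hV : ∀ k, |V k| ≤ 8) (fan : |dt R V + M.ev V| ≤ δ)
    (n0' : 1 / 4 ≤ |N 0 + (2 * M.yy * X 0 + M.yu * X 1 + M.yv * X 2)|)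
    (r0' : |R 0 + (2 * M.yy * V 0 + M.yu * V 1 + M.yv * V 2)| ≤ δ)
    (r2' : |(R 2 + (M.yv * V 0 + M.uv * V 1 + 2 * M.vv * V 2)) -
      (M.yv * X 0 + M.uv * X 1 + 2 * M.vv * X 2) /
        (N 0 + (2 * M.yy * X 0 + M.yu * X 1 + M.yv * X 2)) *
        (R 0 + (2 * M.yy * V 0 + M.yu * V 1 + M.yv * V 2))| ≤ δ)
    (c1 : |adj M N N| ≤ δ) (c2 : |adj M N R| ≤ δ) (c3 : |adj M R R| ≤ δ)
    (hD : η ≤ |dd M R|) : |V 1| ≤ 10 ^ 5 * δ / η ^ 2 := by
  have two : |(2 : ℝ)| ≤ 2 := by norm_num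
  have dR0 := abs_nonneg (R 1)
  -- size of `dd`
  have d3 : |dd M R| ≤ δ * δ + δ * |R 1| + |R 1| * |R 1| := by
    have e : dd M R = M.uu * (R 2 * R 2) + -(M.uv * (R 2 * R 1)) + M.vv * (R 1 * R 1) := by
      simp only [dd]; ring
    rw [e]
    have q1 := mm uu (mm r2 r2)
    have q2 := mm uv (mm r2 (le_refl |R 1|))
    have q3 := mm vv (mm (le_refl |R 1|) (le_refl |R 1|))
    rw [← abs_neg] at q2
    exact (a3 q1 q2 q3).trans (le_of_eq (by ring))
  have q2 : δ * δ ≤ δ := mul_le_of_le_one_left hδ hδ1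
  have q3 : δ * |R 1| ≤ δ := mul_le_of_le_one_right hδ r1
  have q4 : |R 1| * |R 1| ≤ |R 1| := mul_le_of_le_one_left dR0 r1
  have hdd : |dd M R| ≤ 3 := d3.trans (by linarith)
  have hη3 : η ≤ 3 := hD.trans hdd
  have hR1 : η / 2 ≤ |R 1| := by linarith
  -- the rotation at `T'`
  set N0' := N 0 + (2 * M.yy * X 0 + M.yu * X 1 + M.yv * X 2) with hN0'
  set R0' := R 0 + (2 * M.yy * V 0 + M.yu * V 1 + M.yv * V 2) with hR0'
  set N2' := M.yv * X 0 + M.uv * X 1 + 2 * M.vv * X 2 with hN2'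
  set S2 := M.yv * V 0 + M.uv * V 1 + 2 * M.vv * V 2 with hS2
  have bN2 : |N2'| ≤ 64 :=
    (a3 (mm yv (hX 0)) (mm uv (hX 1)) (mm (mm two vv) (hX 2))).trans (by norm_num)
  have bq : |N2' / N0'| ≤ 256 := by
    rw [abs_div, div_le_iff₀ (by linarith)]
    linarith
  have bS2 : |S2| ≤ 258 * δ := by
    have e : S2 = (R 2 + S2 - N2' / N0' * R0') + N2' / N0' * R0' + -(R 2) := by ring
    rw [e]
    have q := mm bq r0'
    have r2n : |-(R 2)| ≤ δ := by rw [abs_neg]; exact r2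
    exact (a3 r2' q r2n).trans (by linarith)
  -- `H(Om, V)`
  have b64 : |M.yu * V 0 + 2 * M.uu * V 1 + M.uv * V 2| ≤ 64 :=
    (a3 (mm yu (hV 0)) (mm (mm two uu) (hV 1)) (mm uv (hV 2))).trans (by norm_num)
  have bho : |ho M R V| ≤ 322 * δ := by
    have e : ho M R V = R 2 * (M.yu * V 0 + 2 * M.uu * V 1 + M.uv * V 2) + -(R 1 * S2) + 0 := by
      simp only [ho, hS2]; ring
    rw [e]
    have q := mm r1 bS2
    rw [← abs_neg] at q
    have z : |(0 : ℝ)| ≤ 0 := by norm_num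
    exact (a3 (mm r2 b64) q z).trans (by linarith)
  have bho2 : ho M R V ^ 2 ≤ 103684 * δ := by
    have q := mm bho bho
    rw [← sq, abs_of_nonneg (sq_nonneg _)] at q
    have q2 : δ * δ ≤ δ := mul_le_of_le_one_left hδ hδ1
    linarith
  -- linear forms at `V`
  have bNV : |dt N V| ≤ 16 := by
    have e : dt N V = N 0 * V 0 := by simp only [dt, h1, h2]; ring
    rw [e]
    have n0a : |N 0| ≤ 2 := abs_le.2 ⟨by linarith, n1⟩
    exact (mm n0a (hV 0)).trans (by norm_num)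
  have bRV : |dt R V| ≤ 24 := by
    have e : dt R V = R 0 * V 0 + R 1 * V 1 + R 2 * V 2 := rfl
    rw [e]
    exact (a3 (mm r0 (hV 0)) (mm r1 (hV 1)) (mm r2 (hV 2))).trans (by linarith)
  -- Binet–Cauchy
  have id := adj_id M N R V h1 h2
  have bW : |adj M R R * (dt N V) ^ 2 - 2 * adj M N R * (dt N V) * (dt R V) +
      adj M N N * (dt R V) ^ 2| ≤ 1600 * δ := by
    have e : adj M R R * (dt N V) ^ 2 - 2 * adj M N R * (dt N V) * (dt R V) +
        adj M N N * (dt R V) ^ 2 = adj M R R * (dt N V * dt N V) +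
          -(2 * adj M N R * (dt N V * dt R V)) + adj M N N * (dt R V * dt R V) := by ring
    rw [e]
    have q := mm (mm two c2) (mm bNV bRV)
    rw [← abs_neg] at q
    exact (a3 (mm c3 (mm bNV bNV)) q (mm c1 (mm bRV bRV))).trans (by linarith)
  have hN2 : 1 / 4 ≤ N 0 ^ 2 := by
    have h := mul_self_le_mul_self (by norm_num : (0 : ℝ) ≤ 1 / 2) n0
    rw [← sq] at h
    linarith
  have b4 : |4 * (dd M R * M.ev V) - ho M R V ^ 2| ≤ 25600 * δ := by
    have e1 : |N 0 ^ 2 * (4 * (dd M R * M.ev V) - ho M R V ^ 2)| ≤ 6400 * δ := by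
      rw [id, abs_mul, abs_of_pos (by norm_num : (0 : ℝ) < 4)]
      linarith
    rw [abs_mul, abs_of_nonneg (sq_nonneg _)] at e1
    have e2 := mul_le_mul_of_nonneg_right hN2
      (abs_nonneg (4 * (dd M R * M.ev V) - ho M R V ^ 2))
    linarith
  have bDE : |dd M R * M.ev V| ≤ 32321 * δ := by
    have h0 := sq_nonneg (ho M R V)
    rw [abs_le] at b4 ⊢
    constructor <;> linarith [b4.1, b4.2]
  have bDR : |dd M R * dt R V| ≤ 32324 * δ := by
    have e : dd M R * dt R V = dd M R * (dt R V + M.ev V) + -(dd M R * M.ev V) + 0 := by ring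
    rw [e]
    have z : |(0 : ℝ)| ≤ 0 := by norm_num
    have q := bDE
    rw [← abs_neg] at q
    exact (a3 (mm hdd fan) q z).trans (by linarith)
  have bRV' : |dt R V| ≤ 32324 * δ / η := by
    rw [le_div_iff₀ hη]
    rw [abs_mul] at bDR
    have e1 := mul_le_mul_of_nonneg_right hD (abs_nonneg (dt R V))
    linarith
  have hδη' : δ ≤ 3 * δ / η := by
    rw [le_div_iff₀ hη]
    have := mul_le_mul_of_nonneg_left hη3 hδ
    linarith
  have bR1 : |R 1 * V 1| ≤ 32372 * δ / η := by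
    have e : R 1 * V 1 = dt R V + -(R 0 * V 0) + -(R 2 * V 2) := by simp only [dt]; ring
    rw [e]
    have q1 := mm r0 (hV 0)
    have q2 := mm r2 (hV 2)
    rw [← abs_neg] at q1 q2
    have e2 : 32372 * δ / η = 32324 * δ / η + 16 * (3 * δ / η) := by ring
    rw [e2]
    exact (a3 bRV' q1 q2).trans (by linarith)
  rw [abs_mul] at bR1
  have e3 : η / 2 * |V 1| ≤ 32372 * δ / η :=
    (mul_le_mul_of_nonneg_right hR1 (abs_nonneg _)).trans bR1
  rw [le_div_iff₀ hη] at e3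
  rw [le_div_iff₀ (by positivity)]
  have e4 : η / 2 * |V 1| * η = |V 1| * η ^ 2 / 2 := by ring
  rw [e4] at e3
  linarith

end Crest.Agent.R136.Kil327
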