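import Crest.Agent.R136.Kil1_327
import Crest.Agent.R136.KapP_335
import Crest.Agent.R136.Thn1_768

/-!
# R136, U6 thin (helper327): the branch `θ1 = 2 θ2` is impossible, two lines of one sheet

* `grd` : gradient of a quadratic form; `isExp_move` : the expansion along a second line;
* `kap_move` : the curvature extents along two nearby lines of a sheet are comparable;
* **`kill_sheet`** : two lines `T`, `T'` of the sheet, near each other (`1/8` of the base), small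
  turning rate and small rotation along the second axis at both lines, small invariants `P4` at `T`,
  nondegenerate at `T` ⊢ the relative velocity along the first axis is small.
-/

set_option autoImplicit false
set_option linter.unusedVariables false

namespace Crest.Agent.R136.Kil327

open Crest.Agent.R136.Sh605 Crest.Agent.R136.Tl102
open Crest.Agent.R136.Thn768 (P4)
open Crest.Agent.R136.Arc880 (det3)

/-- gradient of a quadratic form -/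
def grd (M : QF) (x : V3) : V3 :=
  ![2 * M.yy * x 0 + M.yu * x 1 + M.yv * x 2, M.yu * x 0 + 2 * M.uu * x 1 + M.uv * x 2,
    M.yv * x 0 + M.uv * x 1 + 2 * M.vv * x 2]

theorem Fq_add (b0 b1 : V3) (G : QF) (ζ : ℝ) (X V x : V3) :
    Fq b0 b1 G ζ ((fun k => X k + ζ * V k) + x) = Fq b0 b1 G ζ (fun k => X k + ζ * V k) +
      Fq (fun k => b0 k + grd G X k) (fun k => b1 k + grd G V k) G ζ x := by
  simp only [Fq, dt, bz, QF.ev, grd, Pi.add_apply, Matrix.cons_val]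
  ring

theorem adj_P4 (M : QF) (x y : V3) : P4 M x y = 4 * adj M x y := by
  simp only [P4, adj]; ring

theorem cmb_add (f : Fin 3 → V3) (x y : V3) : cmb f (x + y) = cmb f x + cmb f y := by
  ext i
  simp only [cmb, Pi.add_apply]
  ring

/-- **the expansion along a second line** -/
theorem isExp_move {q : ℝ → V3 → ℝ} {e : Fin 3 → V3} (he : Ortho e) {w : V3} (hw : ∀ k, w k ≠ 0)
    {T : Ln4} {z0 ρ : ℝ} {b0 b1 : V3} {G : QF} (hE : IsExp q e w T z0 ρ b0 b1 G) (T' : Ln4) :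
    IsExp q e w T' z0 ρ (fun k => b0 k + grd G (rp e w z0 ρ T T' 0) k)
      (fun k => b1 k + grd G (vel e w ρ T T') k) G := by
  intro ζ x
  have h1 : T.pos (z0 + ρ * ζ) + cmb (fr e w) (rp e w z0 ρ T T' ζ) = T'.pos (z0 + ρ * ζ) :=
    cmb_pc he hw T _ _
  have h2 : T'.pos (z0 + ρ * ζ) + cmb (fr e w) x =
      T.pos (z0 + ρ * ζ) + cmb (fr e w) (rp e w z0 ρ T T' ζ + x) := by
    rw [cmb_add, ← add_assoc, h1]
  have h3 : rp e w z0 ρ T T' ζ = fun k => rp e w z0 ρ T T' 0 k + ζ * vel e w ρ T T' k := by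
    funext k
    have := rp_affine e w z0 ρ T T' 0 ζ k
    rw [this]; ring
  have h4 : q (z0 + ρ * ζ) (T'.pos (z0 + ρ * ζ)) = q (z0 + ρ * ζ) (T.pos (z0 + ρ * ζ)) +
      w 0 * Fq b0 b1 G ζ (rp e w z0 ρ T T' ζ) := by
    rw [← hE ζ, h1]
  rw [h2, hE ζ, h4, h3, Fq_add]
  ring

/-- `gl` of a gradient -/
theorem gl_grd {κ s₁ s₂ : ℝ} (hκ : κ ≠ 0) (G : QF) (x : V3) :
    gl κ s₁ s₂ (grd G x) =
      grd (gM κ s₁ s₂ G) ![(x 0 + s₁ * x 1 + s₂ * x 2) / κ, x 1, x 2] := by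
  ext k
  fin_cases k
  · show (grd G x) 0 =
      grd (gM κ s₁ s₂ G) ![(x 0 + s₁ * x 1 + s₂ * x 2) / κ, x 1, x 2] 0
    simp only [grd, gM, Matrix.cons_val]
    field_simp
    ring
  · show ((grd G x) 1 - s₁ * (grd G x) 0) / κ =
      grd (gM κ s₁ s₂ G) ![(x 0 + s₁ * x 1 + s₂ * x 2) / κ, x 1, x 2] 1
    simp only [grd, gM, Matrix.cons_val]
    field_simp
    ring
  · show ((grd G x) 2 - s₂ * (grd G x) 0) / κ =
      grd (gM κ s₁ s₂ G) ![(x 0 + s₁ * x 1 + s₂ * x 2) / κ, x 1, x 2] 2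
    simp only [grd, gM, Matrix.cons_val]
    field_simp
    ring

theorem gl_add (κ s₁ s₂ : ℝ) (l l' : V3) :
    gl κ s₁ s₂ (fun k => l k + l' k) = fun k => gl κ s₁ s₂ l k + gl κ s₁ s₂ l' k := by
  ext k
  fin_cases k
  · rfl
  · show (l 1 + l' 1 - s₁ * (l 0 + l' 0)) / κ = (l 1 - s₁ * l 0) / κ + (l' 1 - s₁ * l' 0) / κ
    ring
  · show (l 2 + l' 2 - s₂ * (l 0 + l' 0)) / κ = (l 2 - s₂ * l 0) / κ + (l' 2 - s₂ * l' 0) / κ
    ring

/-- rotation along the axis `k` in the coordinates of another slope -/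
theorem shB1_gl {κ s₁ s₂ : ℝ} (hκ : κ ≠ 0) {b0 b1 : V3} (h : b0 0 ≠ 0) :
    shB1 b0 b1 1 / κ = gl κ s₁ s₂ b1 1 - gl κ s₁ s₂ b0 1 / b0 0 * b1 0 ∧
    shB1 b0 b1 2 / κ = gl κ s₁ s₂ b1 2 - gl κ s₁ s₂ b0 2 / b0 0 * b1 0 := by
  constructor
  · show (b1 1 - b0 1 / b0 0 * b1 0) / κ = (b1 1 - s₁ * b1 0) / κ -
      (b0 1 - s₁ * b0 0) / κ / b0 0 * b1 0
    field_simp
    ring
  · show (b1 2 - b0 2 / b0 0 * b1 0) / κ = (b1 2 - s₂ * b1 0) / κ -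
      (b0 2 - s₂ * b0 0) / κ / b0 0 * b1 0
    field_simp
    ring

/-- second order part in the coordinates of another slope -/
theorem shG_gM {κ s₁ s₂ : ℝ} (hκ : κ ≠ 0) {b0 : V3} (h : b0 0 ≠ 0) (G : QF) :
    (shG b0 G).uu / κ = (gM κ s₁ s₂ G).uu -
        gl κ s₁ s₂ b0 1 / b0 0 * (gM κ s₁ s₂ G).yu +
        (gl κ s₁ s₂ b0 1 / b0 0) ^ 2 * (gM κ s₁ s₂ G).yy ∧
    (shG b0 G).uv / κ = (gM κ s₁ s₂ G).uv -
        gl κ s₁ s₂ b0 2 / b0 0 * (gM κ s₁ s₂ G).yu - gl κ s₁ s₂ b0 1 / b0 0 * (gM κ s₁ s₂ G).yv +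
        2 * (gl κ s₁ s₂ b0 1 / b0 0 * (gl κ s₁ s₂ b0 2 / b0 0)) * (gM κ s₁ s₂ G).yy ∧
    (shG b0 G).vv / κ = (gM κ s₁ s₂ G).vv -
        gl κ s₁ s₂ b0 2 / b0 0 * (gM κ s₁ s₂ G).yv +
        (gl κ s₁ s₂ b0 2 / b0 0) ^ 2 * (gM κ s₁ s₂ G).yy := by
  refine ⟨?_, ?_, ?_⟩ <;>
  · simp only [shG, gl, gM, Matrix.cons_val]
    field_simp
    ring

/-- determinant of the fan at the height `0` in scaled tangent coordinates -/
theorem det3_fan0 {b0 b1 : V3} (h : b0 0 ≠ 0) (R : V3) (M : QF) :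
    det3 (fan (shB0 b0) R M 0) = -(dd M R) / 2 ^ 24 := by
  have s1 : slp (shB0 b0) R 1 0 = 0 := by
    show -((0 : ℝ) + 0 * R 1) / (b0 0 + 0 * R 0) = 0
    simp
  have s2 : slp (shB0 b0) R 2 0 = 0 := by
    show -((0 : ℝ) + 0 * R 2) / (b0 0 + 0 * R 0) = 0
    simp
  simp only [det3, fan, s1, s2, dd, Matrix.cons_val]
  ring

/-- data of two lines of a sheet near each other, scaled tangent coordinates of the first one -/
theorem two_lines {e : Fin 3 → V3} {c : Ln4} {w : V3} {q : ℝ → V3 → ℝ} {z0 ρ a : ℝ}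
    (S : StP e c w q z0 ρ) (hρ : 0 ≤ ρ) {T T' : Ln4} (hT : InSheet T e c w q a z0 ρ)
    (hT' : InSheet T' e c w q a z0 ρ) {b0 b1 : V3} {G : QF}
    (hE : IsExp q e w T z0 ρ b0 b1 G) (hκ : 0 < kap b0 b1 G)
    (hA : 16 * a ≤ w 0 * kap b0 b1 G)
    (hr : ∀ ζ : ℝ, 0 ≤ ζ → ζ ≤ 1 → |rp e w z0 ρ T T' ζ 1| ≤ 1 / 8 ∧
      |rp e w z0 ρ T T' ζ 2| ≤ 1 / 8) :
    (∀ k, |sD (kap b0 b1 G) b0 (rp e w z0 ρ T T' 0) k| ≤ 1) ∧
    (∀ k, |sD (kap b0 b1 G) b0 (vel e w ρ T T') k| ≤ 2) ∧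
    |dt (scB1 (kap b0 b1 G) b0 b1) (sD (kap b0 b1 G) b0 (vel e w ρ T T')) +
      (scG (kap b0 b1 G) b0 G).ev (sD (kap b0 b1 G) b0 (vel e w ρ T T'))| ≤
        16 * a / (w 0 * kap b0 b1 G) := by
  set κ := kap b0 b1 G with hκd
  have hw0 := S.pos 0
  have hwk : 0 < w 0 * κ := mul_pos hw0 hκ
  have N := hE.nrmC S hρ (fun z h1 h2 => (hT z h1 h2).1)
  obtain ⟨g1, g2, -⟩ := N.b1_le
  have hb0 : b0 0 ≠ 0 := by linarith
  have hz : ∀ ζ : ℝ, 0 ≤ ζ → ζ ≤ 1 → z0 ≤ z0 + ρ * ζ ∧ z0 + ρ * ζ ≤ z0 + ρ := by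
    intro ζ h1 h2
    constructor
    · nlinarith
    · nlinarith
  -- tangent height
  have hy : ∀ ζ : ℝ, 0 ≤ ζ → ζ ≤ 1 → |yc b0 (rp e w z0 ρ T T' ζ)| ≤ 7 / 8 * κ := by
    intro ζ hζ hζ'
    obtain ⟨z1, z2⟩ := hz ζ hζ hζ'
    have := yc_le S hρ (fun z h1 h2 => (hT z h1 h2).1) hE hζ hζ' (hT' _ z1 z2).1 le_rfl
      (hr ζ hζ hζ').1 (hr ζ hζ hζ').2
    have q1 := (hT' _ z1 z2).2
    have q2 := (hT _ z1 z2).2
    have h3 : w 0 * |yc b0 (rp e w z0 ρ T T' ζ)| ≤ w 0 * (7 / 8 * κ) := by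
      refine this.trans ?_
      rw [← hκd]
      linarith
    exact le_of_mul_le_mul_left h3 hw0
  have aff : ∀ k, rp e w z0 ρ T T' 1 k = rp e w z0 ρ T T' 0 k + vel e w ρ T T' k := by
    intro k
    rw [rp_affine e w z0 ρ T T' 0 1 k]; ring
  have h00 := hr 0 le_rfl zero_le_one
  have h01 := hr 1 zero_le_one le_rfl
  have y0 := hy 0 le_rfl zero_le_one
  have y1 := hy 1 zero_le_one le_rfl
  refine ⟨?_, ?_, ?_⟩
  · intro k
    fin_cases k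
    · change |yc b0 (rp e w z0 ρ T T' 0) / κ| ≤ 1
      rw [abs_div, abs_of_pos hκ, div_le_iff₀ hκ]
      linarith
    · change |rp e w z0 ρ T T' 0 1| ≤ 1
      linarith [h00.1]
    · change |rp e w z0 ρ T T' 0 2| ≤ 1
      linarith [h00.2]
  · intro k
    fin_cases k
    · change |yc b0 (vel e w ρ T T') / κ| ≤ 2
      rw [abs_div, abs_of_pos hκ, div_le_iff₀ hκ]
      have e1 : yc b0 (vel e w ρ T T') = yc b0 (rp e w z0 ρ T T' 1) -
          yc b0 (rp e w z0 ρ T T' 0) := by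
        unfold yc
        rw [aff 0, aff 1, aff 2]; ring
      rw [e1]
      exact (abs_sub _ _).trans (by linarith)
    · change |vel e w ρ T T' 1| ≤ 2
      have e1 : vel e w ρ T T' 1 = rp e w z0 ρ T T' 1 1 - rp e w z0 ρ T T' 0 1 := by
        rw [aff 1]; ring
      rw [e1]
      exact (abs_sub _ _).trans (by linarith [h00.1, h01.1])
    · change |vel e w ρ T T' 2| ≤ 2
      have e1 : vel e w ρ T T' 2 = rp e w z0 ρ T T' 1 2 - rp e w z0 ρ T T' 0 2 := by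
        rw [aff 2]; ring
      rw [e1]
      exact (abs_sub _ _).trans (by linarith [h00.2, h01.2])
  · -- values along `T'`
    have val : ∀ ζ : ℝ, 0 ≤ ζ → ζ ≤ 1 →
        |Fq (shB0 b0) (scB1 κ b0 b1) (scG κ b0 G) ζ
          (pos (sD κ b0 (rp e w z0 ρ T T' 0)) (sD κ b0 (vel e w ρ T T')) 0 ζ)| ≤
          2 * a / (w 0 * κ) := by
      intro ζ hζ hζ'
      obtain ⟨z1, z2⟩ := hz ζ hζ hζ'
      have q1 := (hT' _ z1 z2).2
      have q2 := (hT _ z1 z2).2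
      have h1 := hE.at S.ortho (fun k => (S.pos k).ne') hκ.ne' b0 ζ (T'.pos (z0 + ρ * ζ))
      rw [gl_own hb0, gl_own1, gM_own] at h1
      rw [sD_pos]
      have e1 : w 0 * κ * Fq (shB0 b0) (scB1 κ b0 b1) (scG κ b0 G) ζ
          (sD κ b0 (rp e w z0 ρ T T' ζ)) =
          q (z0 + ρ * ζ) (T'.pos (z0 + ρ * ζ)) - q (z0 + ρ * ζ) (T.pos (z0 + ρ * ζ)) := by
        rw [h1]
        unfold rp
        ring
      have e2 : ∀ y : ℝ, |y| * (w 0 * κ) = |w 0 * κ * y| := fun y => by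
        rw [abs_mul, abs_of_pos hwk, mul_comm]
      rw [le_div_iff₀ hwk, e2, e1]
      exact (abs_sub _ _).trans (by linarith)
    have v0 := val 0 le_rfl zero_le_one
    have v1 := val (1 / 2) (by norm_num) (by norm_num)
    have v2 := val 1 zero_le_one le_rfl
    rw [Fq_pos] at v0 v1 v2
    set α := dt (bz (shB0 b0) (scB1 κ b0 b1) 0) (sD κ b0 (rp e w z0 ρ T T' 0)) +
      (scG κ b0 G).ev (sD κ b0 (rp e w z0 ρ T T' 0)) with hα
    set β := dt (bz (shB0 b0) (scB1 κ b0 b1) 0) (sD κ b0 (vel e w ρ T T')) +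
      dt (scB1 κ b0 b1) (sD κ b0 (rp e w z0 ρ T T' 0)) +
      (scG κ b0 G).pol (sD κ b0 (rp e w z0 ρ T T' 0)) (sD κ b0 (vel e w ρ T T')) with hβ
    set γ := dt (scB1 κ b0 b1) (sD κ b0 (vel e w ρ T T')) +
      (scG κ b0 G).ev (sD κ b0 (vel e w ρ T T')) with hγ
    have e1 : 16 * a / (w 0 * κ) = 8 * (2 * a / (w 0 * κ)) := by ring
    rw [e1]
    rw [abs_le] at v0 v1 v2 ⊢
    constructor <;> nlinarith [v0.1, v0.2, v1.1, v1.2, v2.1, v2.2]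

/-- coefficients of the expansion along the second line, in the coordinates of the first one -/
theorem gl_move {κ : ℝ} (hκ : κ ≠ 0) {b0 : V3} (hb0 : b0 0 ≠ 0) (b1 : V3) (G : QF) (X V : V3) :
    gl κ (b0 1 / b0 0) (b0 2 / b0 0) (fun k => b0 k + grd G X k) =
      (fun k => shB0 b0 k + grd (scG κ b0 G) (sD κ b0 X) k) ∧
    gl κ (b0 1 / b0 0) (b0 2 / b0 0) (fun k => b1 k + grd G V k) =
      (fun k => scB1 κ b0 b1 k + grd (scG κ b0 G) (sD κ b0 V) k) := by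
  constructor
  · rw [gl_add, gl_own hb0, gl_grd hκ, gM_own]
    rfl
  · rw [gl_add, gl_own1, gl_grd hκ, gM_own]
    rfl

/-- **the curvature extents along two lines of the sheet are comparable** -/
theorem kap_move {e : Fin 3 → V3} {c : Ln4} {w : V3} {q : ℝ → V3 → ℝ} {z0 ρ a : ℝ}
    (S : StP e c w q z0 ρ) (hρ : 0 ≤ ρ) {T T' : Ln4} (hT : InSheet T e c w q a z0 ρ)
    (hT' : InSheet T' e c w q a z0 ρ) {b0 b1 b0' b1' : V3} {G G' : QF}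
    (hE : IsExp q e w T z0 ρ b0 b1 G) (hE' : IsExp q e w T' z0 ρ b0' b1' G')
    (hκ : 0 < kap b0 b1 G) (hA : 16 * a ≤ w 0 * kap b0 b1 G)
    (hr : ∀ ζ : ℝ, 0 ≤ ζ → ζ ≤ 1 → |rp e w z0 ρ T T' ζ 1| ≤ 1 / 8 ∧
      |rp e w z0 ρ T T' ζ 2| ≤ 1 / 8) :
    kap b0' b1' G' ≤ 60000 * kap b0 b1 G := by
  obtain ⟨bX, bV, -⟩ := two_lines S hρ hT hT' hE hκ hA hr
  set κ := kap b0 b1 G with hκd
  have N := hE.nrmC S hρ (fun z h1 h2 => (hT z h1 h2).1)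
  obtain ⟨g1, g2, -⟩ := N.b1_le
  have hb0 : b0 0 ≠ 0 := by linarith
  have hw : ∀ k, w k ≠ 0 := fun k => (S.pos k).ne'
  obtain ⟨e1, e2, e3⟩ := KapP335.isExp_unique (hw 0) hE' (isExp_move S.ortho hw hE T')
  subst e3
  have N' := hE'.nrmC S hρ (fun z h1 h2 => (hT' z h1 h2).1)
  obtain ⟨g1', g2', -, -, g3', -⟩ := N'.b1_le
  have hb0' : b0' 0 ≠ 0 := by linarith
  obtain ⟨m1, m2⟩ := gl_move hκ.ne' hb0 b1 G' (rp e w z0 ρ T T' 0) (vel e w ρ T T')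
  rw [← e1] at m1
  rw [← e2] at m2
  have sc := N.sc_le hκ
  rw [← hκd] at sc
  obtain ⟨c1, c2, c3, c4, yy, yu, yv, uu, uv, vv⟩ := sc
  set X := sD κ b0 (rp e w z0 ρ T T' 0) with hX
  set V := sD κ b0 (vel e w ρ T T') with hV
  set M := scG κ b0 G' with hM
  have two : |(2 : ℝ)| ≤ 2 := by norm_num
  have gX1 : |gl κ (b0 1 / b0 0) (b0 2 / b0 0) b0' 1| ≤ 8 := by
    rw [m1]
    show |0 + (M.yu * X 0 + 2 * M.uu * X 1 + M.uv * X 2)| ≤ 8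
    rw [zero_add]
    exact (a3 (mm yu (bX 0)) (mm (mm two uu) (bX 1)) (mm uv (bX 2))).trans (by norm_num)
  have gX2 : |gl κ (b0 1 / b0 0) (b0 2 / b0 0) b0' 2| ≤ 8 := by
    rw [m1]
    show |0 + (M.yv * X 0 + M.uv * X 1 + 2 * M.vv * X 2)| ≤ 8
    rw [zero_add]
    exact (a3 (mm yv (bX 0)) (mm uv (bX 1)) (mm (mm two vv) (bX 2))).trans (by norm_num)
  have gV1 : |gl κ (b0 1 / b0 0) (b0 2 / b0 0) b1' 1| ≤ 17 := by
    rw [m2]
    show |scB1 κ b0 b1 1 + (M.yu * V 0 + 2 * M.uu * V 1 + M.uv * V 2)| ≤ 17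
    refine (abs_add_le _ _).trans ?_
    have := (a3 (mm yu (bV 0)) (mm (mm two uu) (bV 1)) (mm uv (bV 2)))
    linarith
  have gV2 : |gl κ (b0 1 / b0 0) (b0 2 / b0 0) b1' 2| ≤ 17 := by
    rw [m2]
    show |scB1 κ b0 b1 2 + (M.yv * V 0 + M.uv * V 1 + 2 * M.vv * V 2)| ≤ 17
    refine (abs_add_le _ _).trans ?_
    have := (a3 (mm yv (bV 0)) (mm uv (bV 1)) (mm (mm two vv) (bV 2)))
    linarith
  have t1 : |gl κ (b0 1 / b0 0) (b0 2 / b0 0) b0' 1 / b0' 0| ≤ 16 := by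
    rw [abs_div, abs_of_pos (by linarith : 0 < b0' 0), div_le_iff₀ (by linarith)]
    linarith
  have t2 : |gl κ (b0 1 / b0 0) (b0 2 / b0 0) b0' 2 / b0' 0| ≤ 16 := by
    rw [abs_div, abs_of_pos (by linarith : 0 < b0' 0), div_le_iff₀ (by linarith)]
    linarith
  obtain ⟨r1, r2⟩ := shB1_gl (s₁ := b0 1 / b0 0) (s₂ := b0 2 / b0 0) hκ.ne' hb0' (b1 := b1')
  obtain ⟨u1, u2, u3⟩ := shG_gM (s₁ := b0 1 / b0 0) (s₂ := b0 2 / b0 0) hκ.ne' hb0' G'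
  rw [gM_own, ← hM] at u1 u2 u3
  have fin : ∀ y : ℝ, |y / κ| ≤ 60000 → |y| ≤ 60000 * κ := by
    intro y hy
    rw [abs_div, abs_of_pos hκ, div_le_iff₀ hκ] at hy
    exact hy
  have sq1 : |(gl κ (b0 1 / b0 0) (b0 2 / b0 0) b0' 1 / b0' 0) ^ 2| ≤ 16 * 16 := by
    rw [sq]; exact mm t1 t1
  have sq2 : |(gl κ (b0 1 / b0 0) (b0 2 / b0 0) b0' 2 / b0' 0) ^ 2| ≤ 16 * 16 := by
    rw [sq]; exact mm t2 t2
  unfold kap
  refine max_le (max_le (fin _ ?_) (fin _ ?_)) (max_le (max_le (fin _ ?_) (fin _ ?_)) (fin _ ?_))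
  · rw [r1]
    exact (abs_sub _ _).trans (by have := mm t1 g3'; linarith)
  · rw [r2]
    exact (abs_sub _ _).trans (by have := mm t2 g3'; linarith)
  · rw [u1, sub_eq_add_neg]
    have q1 := mm t1 yu
    rw [← abs_neg] at q1
    exact (a3 uu q1 (mm sq1 yy)).trans (by norm_num)
  · rw [u2]
    have q1 := mm t2 yu
    have q2 := mm t1 yv
    have q3 := mm (mm two (mm t1 t2)) yy
    refine (abs_add_le _ _).trans ?_
    refine (add_le_add ((abs_sub _ _).trans (add_le_add (abs_sub _ _) le_rfl)) le_rfl).trans ?_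
    linarith
  · rw [u3, sub_eq_add_neg]
    have q1 := mm t2 yv
    rw [← abs_neg] at q1
    exact (a3 vv q1 (mm sq2 yy)).trans (by norm_num)

set_option maxHeartbeats 800000 in
/-- **two lines of the sheet with small rotation along the second axis have close velocities along the
first axis** -/
theorem kill_sheet {e : Fin 3 → V3} {c : Ln4} {w : V3} {q : ℝ → V3 → ℝ} {z0 ρ a : ℝ}
    (S : StP e c w q z0 ρ) (hρ : 0 ≤ ρ) {T T' : Ln4} (hT : InSheet T e c w q a z0 ρ)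
    (hT' : InSheet T' e c w q a z0 ρ) {b0 b1 b0' b1' : V3} {G G' : QF}
    (hE : IsExp q e w T z0 ρ b0 b1 G) (hE' : IsExp q e w T' z0 ρ b0' b1' G')
    {δ η : ℝ} (hδ : 0 < δ) (hη : 0 < η) (hδη : 240000 * δ ≤ η) (hη1 : η ≤ 1)
    (hκ : 0 < kap b0 b1 G) (hA : 16 * a ≤ δ * (w 0 * kap b0 b1 G))
    (hr : ∀ ζ : ℝ, 0 ≤ ζ → ζ ≤ 1 → |rp e w z0 ρ T T' ζ 1| ≤ 1 / 8 ∧
      |rp e w z0 ρ T T' ζ 2| ≤ 1 / 8)
    (r0 : |b1 0| ≤ δ) (r0' : |b1' 0| ≤ δ) (l2 : |shB1 b0 b1 2| ≤ δ * kap b0 b1 G)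
    (l2' : |shB1 b0' b1' 2| ≤ δ * kap b0' b1' G')
    (c1 : |P4 (scG (kap b0 b1 G) b0 G) (shB0 b0) (shB0 b0)| ≤ δ)
    (c2 : |P4 (scG (kap b0 b1 G) b0 G) (shB0 b0) (scB1 (kap b0 b1 G) b0 b1)| ≤ δ)
    (c3 : |P4 (scG (kap b0 b1 G) b0 G) (scB1 (kap b0 b1 G) b0 b1)
      (scB1 (kap b0 b1 G) b0 b1)| ≤ δ)
    (hD : η ≤ |det3 (fan (shB0 b0) (scB1 (kap b0 b1 G) b0 b1) (scG (kap b0 b1 G) b0 G) 0)|) :
    |vel e w ρ T T' 1| ≤ 10 ^ 10 * δ / η ^ 2 := by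
  have hw0 := S.pos 0
  have hδ1 : δ ≤ 1 := by linarith
  have hA1 : 16 * a ≤ w 0 * kap b0 b1 G :=
    hA.trans (mul_le_of_le_one_left (mul_pos hw0 hκ).le hδ1)
  have hκκ := kap_move S hρ hT hT' hE hE' hκ hA1 hr
  obtain ⟨bX, bV, fn⟩ := two_lines S hρ hT hT' hE hκ hA1 hr
  set κ := kap b0 b1 G with hκd
  have N := hE.nrmC S hρ (fun z h1 h2 => (hT z h1 h2).1)
  obtain ⟨g1, g2, -⟩ := N.b1_le
  have hb0 : b0 0 ≠ 0 := by linarith
  have hw : ∀ k, w k ≠ 0 := fun k => (S.pos k).ne'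
  obtain ⟨e1, e2, e3⟩ := KapP335.isExp_unique (hw 0) hE' (isExp_move S.ortho hw hE T')
  have N' := hE'.nrmC S hρ (fun z h1 h2 => (hT' z h1 h2).1)
  obtain ⟨g1', g2', -, -, g3', -⟩ := N'.b1_le
  have hb0' : b0' 0 ≠ 0 := by linarith
  obtain ⟨m1, m2⟩ := gl_move hκ.ne' hb0 b1 G (rp e w z0 ρ T T' 0) (vel e w ρ T T')
  rw [← e1] at m1
  rw [← e2] at m2
  have sc := N.sc_le hκ
  rw [← hκd] at sc
  obtain ⟨-, -, c5, c4, yy, yu, yv, uu, uv, vv⟩ := sc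
  obtain ⟨-, q2⟩ := shB1_gl (s₁ := b0 1 / b0 0) (s₂ := b0 2 / b0 0) hκ.ne' hb0' (b1 := b1')
  have i1 : gl κ (b0 1 / b0 0) (b0 2 / b0 0) b1' 2 = scB1 κ b0 b1 2 +
      grd (scG κ b0 G) (sD κ b0 (vel e w ρ T T')) 2 := by rw [m2]
  have i2 : gl κ (b0 1 / b0 0) (b0 2 / b0 0) b0' 2 =
      grd (scG κ b0 G) (sD κ b0 (rp e w z0 ρ T T' 0)) 2 := by
    rw [m1]
    show 0 + grd (scG κ b0 G) (sD κ b0 (rp e w z0 ρ T T' 0)) 2 = _
    rw [zero_add]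
  have i3 : b0' 0 = shB0 b0 0 + grd (scG κ b0 G) (sD κ b0 (rp e w z0 ρ T T' 0)) 0 := by
    have : gl κ (b0 1 / b0 0) (b0 2 / b0 0) b0' 0 = b0' 0 := rfl
    rw [← this, m1]
  have i4 : b1' 0 = scB1 κ b0 b1 0 + grd (scG κ b0 G) (sD κ b0 (vel e w ρ T T')) 0 := by
    have : gl κ (b0 1 / b0 0) (b0 2 / b0 0) b1' 0 = b1' 0 := rfl
    rw [← this, m2]
  rw [i1, i2, i3, i4] at q2
  rw [i4] at r0'
  have n0' : 1 / 4 ≤ |shB0 b0 0 + grd (scG κ b0 G) (sD κ b0 (rp e w z0 ρ T T' 0)) 0| := by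
    rw [← i3, abs_of_pos (by linarith)]; linarith
  have l2s : |shB1 b0' b1' 2 / κ| ≤ 60000 * δ := by
    rw [abs_div, abs_of_pos hκ, div_le_iff₀ hκ]
    calc _ ≤ δ * kap b0' b1' G' := l2'
      _ ≤ δ * (60000 * κ) := mul_le_mul_of_nonneg_left hκκ hδ.le
      _ = _ := by ring
  rw [q2] at l2s
  have l2t : |scB1 κ b0 b1 2| ≤ δ := by
    change |shB1 b0 b1 2 / κ| ≤ δ
    rw [abs_div, abs_of_pos hκ, div_le_iff₀ hκ]
    exact l2
  have hdd : η ≤ |dd (scG κ b0 G) (scB1 κ b0 b1)| := by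
    rw [det3_fan0 hb0 _ _ (b1 := b1), abs_div, abs_neg] at hD
    have e5 : |(2 : ℝ) ^ 24| = 2 ^ 24 := abs_of_pos (by positivity)
    rw [e5, le_div_iff₀ (by positivity)] at hD
    refine le_trans ?_ hD
    have : (1 : ℝ) ≤ 2 ^ 24 := by norm_num
    exact le_mul_of_one_le_right hη.le this
  have fan : |dt (scB1 κ b0 b1) (sD κ b0 (vel e w ρ T T')) +
      (scG κ b0 G).ev (sD κ b0 (vel e w ρ T T'))| ≤ 60000 * δ := by
    refine fn.trans ?_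
    rw [div_le_iff₀ (mul_pos hw0 hκ)]
    refine hA.trans ?_
    have := mul_pos hδ (mul_pos hw0 hκ)
    linarith
  have key := rot_kill (N := shB0 b0) (R := scB1 κ b0 b1)
    (X := sD κ b0 (rp e w z0 ρ T T' 0)) (V := sD κ b0 (vel e w ρ T T')) (M := scG κ b0 G)
    (δ := 60000 * δ) (η := η) (by positivity) (by linarith) hη (by linarith) rfl rfl g1 g2
    (by
      change |b1 0| ≤ 60000 * δ
      linarith) c5 (by linarith) yy yu yv uu uv vv (fun k => (bX k).trans (by norm_num))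
    (fun k => (bV k).trans (by norm_num)) fan n0' (by
      exact r0'.trans (by linarith)) l2s
    (by
      rw [adj_P4, abs_mul, abs_of_pos (by norm_num : (0 : ℝ) < 4)] at c1
      linarith)
    (by
      rw [adj_P4, abs_mul, abs_of_pos (by norm_num : (0 : ℝ) < 4)] at c2
      linarith)
    (by
      rw [adj_P4, abs_mul, abs_of_pos (by norm_num : (0 : ℝ) < 4)] at c3
      linarith) hdd
  change |vel e w ρ T T' 1| ≤ _ at key
  refine key.trans ?_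
  gcongr ?_ / _
  linarith

end Crest.Agent.R136.Kil327
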