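import Crest.Agent.R136.TnA_327
import Crest.Agent.R136.TopD_484

/-!
# R136, U6 thin (helper327), part 2: non-concentration of the `e 1`-velocities, sequence form

`GeoS` : the geometry of sheets with the size `a w₂ w₁ · rewards`; `cls` : the class of an incidence;
`nonconc` : a part of a class whose `e 1`-velocities lie in an interval of length `(r / 2) w₁ / ρ` has at
most `d^-ε r^(q 1)` times the number of lines of the class.
-/

set_option autoImplicit false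
set_option linter.unusedVariables false

open Finset Filter Topology

namespace Crest.Agent.R136.Tn327

open Crest.Agent.R138.Ex926 (Base U)
open Crest.Agent.R138.Mk163 (zc zl rho alive own Negl)
open Crest.Agent.R138.Dp76 (dpow_pos dpow_add dpow_le)
open Crest.Agent.R138.Ps926 (dpow_small)
open Crest.Agent.R136.MkA627 Crest.Agent.R136.Sh605 Crest.Agent.R136.K4 Crest.Agent.R136.Sh321

/-- a geometry of sheets with rewards `q` -/
structure GeoS (G : Geo Plk4 (Fin 3)) (L : ℕ → ℕ → Ln4) (r0 : ℕ → ℝ) (q : Fin 3 → ℝ) : Prop where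
  mem : ∀ n i J s t, G.mem n i J s t ↔ InSheet (L n t) s.e s.c s.w s.q s.a (zl i J) (rho i)
  adm : ∀ n i J s, G.adm n i J s → ShN s.e s.c s.w s.q s.a (zl i J) (rho i) (r0 n)
  val : ∀ n i J s, G.val n i J s = s.a * s.w 2 * s.w 1 *
    ((s.a / rho i) ^ q 0 * (s.w 1 / rho i) ^ q 1 * (s.w 2 / rho i) ^ q 2)

open Classical in
/-- lines of the class of the incidence `x` at level `u` -/
noncomputable def cls (I : ℕ → Finset (ℕ × ℝ)) (lev : ℕ → ℚ → ℕ) (f : ℕ → ℚ → ℕ → ℤ → ℕ) (n : ℕ)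
    (u : ℚ) (x : ℕ × ℝ) : Finset ℕ :=
  (alive (I n) (lev n u) (zc (lev n u) x.2)).filter fun t =>
    f n u t (zc (lev n u) x.2) = f n u x.1 (zc (lev n u) x.2)

/-- the mark of the incidence `x` at level `u` -/
noncomputable def mk (lev : ℕ → ℚ → ℕ) (f : ℕ → ℚ → ℕ → ℤ → ℕ) (b : ℕ → ℚ → ℕ → Plk4) (n : ℕ) (u : ℚ)
    (x : ℕ × ℝ) : Plk4 := b n u (f n u x.1 (zc (lev n u) x.2))

/-- the piece of `s` of relative width `r` around `c'` -/
def pc (s : Plk4) (r : ℝ) (c' : Ln4) : Plk4 :=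
  { s with c := c', w := ![s.w 0, r * s.w 1, s.w 2] }

theorem rho_pos' (i : ℕ) : 0 < rho i := by unfold rho; positivity

theorem val_pc {G : Geo Plk4 (Fin 3)} {L : ℕ → ℕ → Ln4} {r0 : ℕ → ℝ} {q : Fin 3 → ℝ}
    (hG : GeoS G L r0 q) (n i : ℕ) (J : ℤ) (s : Plk4) {r : ℝ} (hr : 0 < r) (c' : Ln4)
    (h1 : 0 < s.w 1) : G.val n i J (pc s r c') = r * r ^ q 1 * G.val n i J s := by
  rw [hG.val, hG.val]
  have e1 : r * s.w 1 / rho i = r * (s.w 1 / rho i) := by ring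
  have h2 : 0 ≤ s.w 1 / rho i := div_nonneg h1.le (rho_pos' i).le
  show s.a * s.w 2 * (r * s.w 1) *
    ((s.a / rho i) ^ q 0 * (r * s.w 1 / rho i) ^ q 1 * (s.w 2 / rho i) ^ q 2) = _
  rw [e1, Real.mul_rpow hr.le h2]
  ring

theorem mem_alive_of {I : Finset (ℕ × ℝ)} {i : ℕ} {x : ℕ × ℝ} (hx : x ∈ I) :
    x.1 ∈ alive I i (zc i x.2) := by
  classical
  unfold alive
  exact mem_image.2 ⟨x, mem_filter.2 ⟨hx, rfl⟩, rfl⟩

open Classical in
/-- **non-concentration of the velocities along the wide axis.** -/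
theorem nonconc {B : Base} {I : ℕ → Finset (ℕ × ℝ)} {G : Geo Plk4 (Fin 3)} {lev : ℕ → ℚ → ℕ}
    {A : ℕ → ℝ} {c Λ : ℝ → ℝ} {τ : Fin 3 → ℝ → ℝ} {f : ℕ → ℚ → ℕ → ℤ → ℕ} {b : ℕ → ℚ → ℕ → Plk4}
    {vm : ℕ → ℚ → ℝ} {w : Fin 3 → ℕ → ℚ → ℝ} {L : ℕ → ℕ → Ln4} {r0 : ℕ → ℝ} {q : Fin 3 → ℝ}
    (hM : MkA B I G lev A c Λ τ f b vm w) (hG : GeoS G L r0 q) (hr0 : ∀ n, 0 < r0 n)
    {u : ℚ} (hu0 : 0 ≤ u) (hu1 : u ≤ 1) {ε : ℝ} (hε : 0 < ε) :
    ∀ᶠ n in (U : Filter ℕ), ∀ x ∈ I n, ∀ A' ⊆ cls I lev f n u x, ∀ r : ℝ, 0 < r → r ≤ 1 / 4 →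
      (mk lev f b n u x).w 2 ≤ r * (mk lev f b n u x).w 1 →
      (∀ c' : Ln4, ShN (mk lev f b n u x).e c'
          ![(mk lev f b n u x).w 0, r * (mk lev f b n u x).w 1, (mk lev f b n u x).w 2]
          (mk lev f b n u x).q (mk lev f b n u x).a (zl (lev n u) (zc (lev n u) x.2))
          (rho (lev n u)) (r0 n) →
        G.adm n (lev n u) (zc (lev n u) x.2) (pc (mk lev f b n u x) r c')) →
      (∀ t ∈ A', ∀ t' ∈ A', |dt ((mk lev f b n u x).e 1) ((L n t).v - (L n t').v)| *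
        rho (lev n u) ≤ r / 2 * (mk lev f b n u x).w 1) →
      (A'.card : ℝ) ≤ B.d n ^ (-ε) * r ^ q 1 * ((cls I lev f n u x).card : ℝ) := by
  have h4 : 0 < ε / 4 := by positivity
  filter_upwards [hM.dmax u hu0 hu1 (ε / 4) h4, hM.near u hu0 hu1 (ε / 4) h4,
    hM.mark u hu0 hu1, dpow_small B (show 0 < ε / 4 from h4) (show (0 : ℝ) < 1 / 7 by norm_num),
    hM.vpos u hu0 hu1]
    with n hd hn hm h7 hvp x hx A' hA' r h0 h1 hw hadm hv
  set i := lev n u with hi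
  set J := zc i x.2 with hJ
  set s := mk lev f b n u x with hs
  have hxa : x.1 ∈ alive (I n) i J := mem_alive_of hx
  have hmx := hm J x.1 hxa
  have hsb : b n u (f n u x.1 J) = s := rfl
  rw [hsb] at hmx
  have hS := hG.adm _ _ _ _ hmx.2.1
  obtain ⟨pa, p0, p2, p1⟩ := (ShN.toC (hr0 n) hS).pos (hr0 n)
  -- lines of the class
  have hcl : ∀ t ∈ A', t ∈ alive (I n) i J ∧ f n u t J = f n u x.1 J := by
    intro t ht
    have := hA' ht
    simp only [cls, mem_filter] at this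
    exact this
  have hin : ∀ t ∈ A', InSheet (L n t) s.e s.c s.w s.q s.a (zl i J) (rho i) := by
    intro t ht
    have h5 := (hm J t (hcl t ht).1).1
    rw [(hcl t ht).2, hsb] at h5
    exact (hG.mem _ _ _ _ _).1 h5
  -- bound of one piece
  set N : ℝ := B.d n ^ (-(ε / 4)) * ampA B A c n u * (r * r ^ q 1 * vm n u) with hN
  have key := chop1 (hr0 n) (rho_pos' i).le hS hin h0 h1 hw hv (N := N) (by
    intro c' hc'
    have h5 := hd J (pc s r c') (hadm c' hc')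
    rw [val_pc hG n i J s h0 c' p1, hmx.2.2.1] at h5
    refine le_trans ?_ h5
    refine Nat.cast_le.2 (card_le_card ?_)
    intro t ht
    rw [mem_filter] at ht ⊢
    exact ⟨(hcl t ht.1).1, (hG.mem _ _ _ _ _).2 ht.2⟩)
  have hnx := hn J x.1 hxa
  have hcard : (((alive (I n) i J).filter fun t => f n u t J = f n u x.1 J).card : ℝ) =
      ((cls I lev f n u x).card : ℝ) := rfl
  rw [hcard] at hnx
  -- arithmetic
  have dp := dpow_pos B n
  have hrq : 0 < r ^ q 1 := Real.rpow_pos_of_pos h0 _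
  have e1 : 7 / r * N = 7 * (B.d n ^ (-(ε / 4)) * r ^ q 1 * (ampA B A c n u * vm n u)) := by
    rw [hN]; field_simp
  rw [e1] at key
  have h8 : 7 ≤ B.d n ^ (-(ε / 4)) := by
    have h9 : B.d n ^ (ε / 4) * 7 ≤ 1 := by linarith
    have h10 : B.d n ^ (-(ε / 4)) * B.d n ^ (ε / 4) = 1 := by
      rw [← dpow_add]; simp
    calc (7 : ℝ) = B.d n ^ (-(ε / 4)) * (B.d n ^ (ε / 4) * 7) := by
          rw [← mul_assoc, h10, one_mul]
      _ ≤ B.d n ^ (-(ε / 4)) * 1 := mul_le_mul_of_nonneg_left h9 (dp _).le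
      _ = _ := mul_one _
  have c0 : (0 : ℝ) ≤ ((cls I lev f n u x).card : ℝ) := Nat.cast_nonneg _
  calc (A'.card : ℝ) ≤ 7 * (B.d n ^ (-(ε / 4)) * r ^ q 1 * (ampA B A c n u * vm n u)) := key
    _ ≤ 7 * (B.d n ^ (-(ε / 4)) * r ^ q 1 *
        (B.d n ^ (-(ε / 4)) * ((cls I lev f n u x).card : ℝ))) := by
        have := mul_le_mul_of_nonneg_left hnx (mul_nonneg (dp (-(ε / 4))).le hrq.le)
        linarith
    _ ≤ B.d n ^ (-(ε / 4)) * (B.d n ^ (-(ε / 4)) * r ^ q 1 *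
        (B.d n ^ (-(ε / 4)) * ((cls I lev f n u x).card : ℝ))) := by
        refine mul_le_mul_of_nonneg_right h8 ?_
        have := (dp (-(ε / 4))).le
        positivity
    _ = (B.d n ^ (-(ε / 4)) * B.d n ^ (-(ε / 4)) * B.d n ^ (-(ε / 4))) * r ^ q 1 *
        ((cls I lev f n u x).card : ℝ) := by ring
    _ ≤ B.d n ^ (-ε) * r ^ q 1 * ((cls I lev f n u x).card : ℝ) := by
        refine mul_le_mul_of_nonneg_right (mul_le_mul_of_nonneg_right ?_ hrq.le) c0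
        rw [← dpow_add, ← dpow_add]
        exact dpow_le B n (by linarith)

end Crest.Agent.R136.Tn327
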