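import Crest.Agent.R136.Kil2_327
import Crest.Agent.R136.TnB_327
import Crest.Agent.R138.ArgM1_163

/-!
# R136, U6 thin (helper327): the branch `θ1 = 2 θ2` is impossible, sequences

* `exists_near` : pigeonhole, a positive part of the lines of a sheet are pairwise near each other;
* `SmP` : smallness of the sheet along its line;
* **`kill`** : small rotation along the second axis at all lines of all classes of one level is
  impossible.
-/

set_option autoImplicit false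
set_option linter.unusedVariables false

open Finset Filter Topology

namespace Crest.Agent.R136.Kil327

open Crest.Agent.R138.Ex926 (Base U)
open Crest.Agent.R138.Mk163 (zc zl rho alive own Negl)
open Crest.Agent.R138.Dp76 (dpow_pos dpow_add dpow_le dpow_le_one)
open Crest.Agent.R138.ArgM163 (ev_const ev_const_mul)
open Crest.Agent.R136.MkA627 Crest.Agent.R136.K4
open Crest.Agent.R136.Sh605 Crest.Agent.R136.Tl102
open Crest.Agent.R136.Thn768 (P4)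
open Crest.Agent.R136.KapP335 (DetP detP_iff)
open Crest.Agent.R136.Tn327 (GeoS cls mk mem_alive_of nonconc)

/-- lateral coordinate of a line at a height -/
noncomputable def lc' (e : Fin 3 → V3) (c : Ln4) (w : V3) (z : ℝ) (t : Ln4) (k : Fin 3) : ℝ :=
  dt (e k) (t.pos z - c.pos z) / w k

theorem rp_eq_lc {e : Fin 3 → V3} {c : Ln4} {w : V3} (z0 ρ ζ : ℝ) (T T' : Ln4) (k : Fin 3) :
    rp e w z0 ρ T T' ζ k = lc' e c w (z0 + ρ * ζ) T' k - lc' e c w (z0 + ρ * ζ) T k := by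
  simp only [rp, pc, lc', dt, Pi.sub_apply]
  ring

open Classical in
/-- **pigeonhole** : a positive part of the lines are pairwise near each other -/
theorem exists_near {e : Fin 3 → V3} {c : Ln4} {w : V3} {q : ℝ → V3 → ℝ} {a z0 ρ : ℝ}
    (hw : ∀ i, 0 < w i) (hρ : 0 ≤ ρ) {L : ℕ → Ln4} {A : Finset ℕ}
    (hA : ∀ t ∈ A, InSheet (L t) e c w q a z0 ρ) :
    ∃ A' ⊆ A, (A.card : ℝ) ≤ 33 ^ 4 * (A'.card : ℝ) ∧
      ∀ t ∈ A', ∀ t' ∈ A', ∀ ζ : ℝ, 0 ≤ ζ → ζ ≤ 1 → |rp e w z0 ρ (L t) (L t') ζ 1| ≤ 1 / 8 ∧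
        |rp e w z0 ρ (L t) (L t') ζ 2| ≤ 1 / 8 := by
  obtain ⟨F, hF⟩ : ∃ F : ℕ → (ℤ × ℤ) × (ℤ × ℤ), F = fun t =>
    ((⌊16 * lc' e c w z0 (L t) 1⌋, ⌊16 * lc' e c w z0 (L t) 2⌋),
      (⌊16 * lc' e c w (z0 + ρ) (L t) 1⌋, ⌊16 * lc' e c w (z0 + ρ) (L t) 2⌋)) := ⟨_, rfl⟩
  obtain ⟨Z, hZ⟩ : ∃ Z : Finset ℤ, Z = Icc (-16) 16 := ⟨_, rfl⟩
  have hZc : Z.card = 33 := by
    rw [hZ, Int.card_Icc]; rfl
  have hmem : ∀ z, z0 ≤ z → z ≤ z0 + ρ → ∀ t ∈ A, ∀ k, ⌊16 * lc' e c w z (L t) k⌋ ∈ Z := by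
    intro z h1 h2 t ht k
    have h3 := (hA t ht z h1 h2).1 k
    have h4 : |lc' e c w z (L t) k| ≤ 1 := by
      unfold lc'
      rw [abs_div, abs_of_pos (hw k), div_le_one (hw k)]
      exact h3
    rw [abs_le] at h4
    rw [hZ, mem_Icc]
    constructor
    · rw [Int.le_floor]; push_cast; linarith
    · rw [← Int.lt_add_one_iff, Int.floor_lt]; push_cast; linarith
  have hmap : ∀ t ∈ A, F t ∈ (Z ×ˢ Z) ×ˢ (Z ×ˢ Z) := by
    intro t ht
    simp only [hF, mem_product]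
    exact ⟨⟨hmem z0 le_rfl (by linarith) t ht 1, hmem z0 le_rfl (by linarith) t ht 2⟩,
      ⟨hmem _ (by linarith) le_rfl t ht 1, hmem _ (by linarith) le_rfl t ht 2⟩⟩
  have hcard : (((Z ×ˢ Z) ×ˢ (Z ×ˢ Z)).card : ℝ) = 33 ^ 4 := by
    rw [card_product, card_product, hZc]
    push_cast
    ring
  have hne : ((Z ×ˢ Z) ×ˢ (Z ×ˢ Z)).Nonempty := by
    rw [← card_pos]
    have : (0 : ℝ) < (((Z ×ˢ Z) ×ˢ (Z ×ˢ Z)).card : ℝ) := by rw [hcard]; positivity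
    exact_mod_cast this
  have hb : ((Z ×ˢ Z) ×ˢ (Z ×ˢ Z)).card • ((A.card : ℝ) / 33 ^ 4) ≤ (A.card : ℝ) := by
    rw [nsmul_eq_mul, hcard]
    exact le_of_eq (mul_div_cancel₀ _ (by positivity))
  obtain ⟨y, -, hy⟩ := exists_le_card_fiber_of_nsmul_le_card_of_maps_to hmap hne hb
  refine ⟨A.filter fun t => F t = y, filter_subset _ _, ?_, ?_⟩
  · rw [div_le_iff₀ (by positivity)] at hy
    linarith
  · intro t ht t' ht'
    rw [mem_filter] at ht ht'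
    have hFF : F t = F t' := ht.2.trans ht'.2.symm
    have e1 := congrArg (fun p => p.1.1) hFF
    have e2 := congrArg (fun p => p.1.2) hFF
    have e3 := congrArg (fun p => p.2.1) hFF
    have e4 := congrArg (fun p => p.2.2) hFF
    simp only [hF] at e1 e2 e3 e4
    have near : ∀ {x y : ℝ}, ⌊16 * x⌋ = ⌊16 * y⌋ → |y - x| ≤ 1 / 8 := by
      intro x y h
      have := Int.abs_sub_lt_one_of_floor_eq_floor h
      have e : 16 * x - 16 * y = -(16 * (y - x)) := by ring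
      rw [e, abs_neg, abs_mul, abs_of_pos (by norm_num : (0 : ℝ) < 16)] at this
      linarith
    have key : ∀ k, ⌊16 * lc' e c w z0 (L t) k⌋ = ⌊16 * lc' e c w z0 (L t') k⌋ →
        ⌊16 * lc' e c w (z0 + ρ) (L t) k⌋ = ⌊16 * lc' e c w (z0 + ρ) (L t') k⌋ →
        ∀ ζ : ℝ, 0 ≤ ζ → ζ ≤ 1 → |rp e w z0 ρ (L t) (L t') ζ k| ≤ 1 / 8 := by
      intro k h0 h1 ζ hζ hζ'
      have r0 : |rp e w z0 ρ (L t) (L t') 0 k| ≤ 1 / 8 := by
        rw [rp_eq_lc (c := c), mul_zero, add_zero]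
        exact near h0
      have r1 : |rp e w z0 ρ (L t) (L t') 1 k| ≤ 1 / 8 := by
        rw [rp_eq_lc (c := c), mul_one]
        exact near h1
      have a0 := rp_affine e w z0 ρ (L t) (L t') 0 ζ k
      have a1 := rp_affine e w z0 ρ (L t) (L t') 0 1 k
      have e5 : rp e w z0 ρ (L t) (L t') ζ k = (1 - ζ) * rp e w z0 ρ (L t) (L t') 0 k +
          ζ * rp e w z0 ρ (L t) (L t') 1 k := by
        rw [a0, a1]; ring
      rw [e5]
      rw [abs_le] at r0 r1 ⊢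
      constructor <;> nlinarith [r0.1, r0.2, r1.1, r1.2]
    exact fun ζ hζ hζ' => ⟨key 1 e1 e3 ζ hζ hζ', key 2 e2 e4 ζ hζ hζ'⟩

/-- **smallness of the sheet along the line** -/
def SmP (δ : ℝ) (S : Plk4) (z0 ρ : ℝ) (T : Ln4) : Prop :=
  ∀ b0 b1 G, IsExp S.q S.e S.w T z0 ρ b0 b1 G →
    0 < kap b0 b1 G ∧ 16 * S.a ≤ δ * (S.w 0 * kap b0 b1 G) ∧ |b1 0| ≤ δ ∧
    |shB1 b0 b1 2| ≤ δ * kap b0 b1 G ∧
    |P4 (scG (kap b0 b1 G) b0 G) (shB0 b0) (shB0 b0)| ≤ δ ∧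
    |P4 (scG (kap b0 b1 G) b0 G) (shB0 b0) (scB1 (kap b0 b1 G) b0 b1)| ≤ δ ∧
    |P4 (scG (kap b0 b1 G) b0 G) (scB1 (kap b0 b1 G) b0 b1) (scB1 (kap b0 b1 G) b0 b1)| ≤ δ

/-- **kill of the branch (II)**: at one level all lines of all classes have a small rotation along the
second axis -/
theorem kill {B : Base} {I : ℕ → Finset (ℕ × ℝ)} {Γ : Geo Plk4 (Fin 3)} {lev : ℕ → ℚ → ℕ}
    {A : ℕ → ℝ} {c Λ : ℝ → ℝ} {τ : Fin 3 → ℝ → ℝ} {f : ℕ → ℚ → ℕ → ℤ → ℕ} {b : ℕ → ℚ → ℕ → Plk4}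
    {vm : ℕ → ℚ → ℝ} {w : Fin 3 → ℕ → ℚ → ℝ} {L : ℕ → ℕ → Ln4} {r0 : ℕ → ℝ} {q : Fin 3 → ℝ}
    (hM : MkA B I Γ lev A c Λ τ f b vm w) (hG : GeoS Γ L r0 q) (hr0 : ∀ n, 0 < r0 n)
    (hq : 0 < q 1) {v : ℚ} (hv0 : 0 ≤ v) (hv1 : v ≤ 1) {p : ℝ} (hp : 0 < p)
    (hadm : ∀ᶠ n in (U : Filter ℕ), ∀ x ∈ I n, ∀ r : ℝ, B.d n ^ p ≤ r → r ≤ 1 / 4 → ∀ c' : Ln4,
      ShN (mk lev f b n v x).e c'
          ![(mk lev f b n v x).w 0, r * (mk lev f b n v x).w 1, (mk lev f b n v x).w 2]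
          (mk lev f b n v x).q (mk lev f b n v x).a (zl (lev n v) (zc (lev n v) x.2))
          (rho (lev n v)) (r0 n) →
        Γ.adm n (lev n v) (zc (lev n v) x.2) (Tn327.pc (mk lev f b n v x) r c'))
    (hs : ∀ᶠ n in (U : Filter ℕ), ∀ x ∈ I n, SmP (B.d n ^ p) (mk lev f b n v x)
      (zl (lev n v) (zc (lev n v) x.2)) (rho (lev n v)) (L n x.1))
    (hd : ∀ ε : ℝ, 0 < ε → ∀ᶠ n in (U : Filter ℕ), ∀ x ∈ I n, DetP (B.d n ^ ε)
      (mk lev f b n v x) (zl (lev n v) (zc (lev n v) x.2)) (rho (lev n v)) (L n x.1))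
    (hw : ∀ᶠ n in (U : Filter ℕ), ∀ x ∈ I n,
      (mk lev f b n v x).w 2 ≤ B.d n ^ p * (mk lev f b n v x).w 1) : False := by
  have p8 : 0 < p / 8 := by positivity
  have p4 : 0 < p / 4 := by positivity
  have qp : 0 < q 1 * p / 4 := by positivity
  have hev := ((((((hM.ne.and hs).and (hd (p / 8) p8)).and hw).and
    (nonconc hM hG hr0 hv0 hv1 qp)).and (hM.mark v hv0 hv1)).and hadm).and
    ((ev_const_mul B (show (0 : ℝ) < 240000 by norm_num) p8).and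
      ((ev_const_mul B (show (0 : ℝ) < 2 * 10 ^ 10 by norm_num) p4).and
        ((ev_const_mul B (show (0 : ℝ) < 2 * 33 ^ 4 by positivity) qp).and
          (ev_const_mul B (show (0 : ℝ) < 4 by norm_num) (show 0 < p / 2 by positivity)))))
  obtain ⟨n, ⟨⟨⟨⟨⟨⟨hne, hs⟩, hd⟩, hw⟩, hN⟩, hm⟩, hadm⟩, c1, c2, c3, c4⟩ := hev.exists
  obtain ⟨x, hx⟩ := hne
  have dp := dpow_pos B n
  set i := lev n v with hi
  set J := zc i x.2 with hJ
  set S := mk lev f b n v x with hS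
  have hxa : x.1 ∈ alive (I n) i J := mem_alive_of hx
  -- lines of the class
  have hcl : ∀ t ∈ cls (I) lev f n v x, ∃ y ∈ I n, y.1 = t ∧ zc i y.2 = J ∧
      f n v t J = f n v x.1 J := by
    intro t ht
    simp only [cls, mem_filter, alive, mem_image] at ht
    obtain ⟨⟨y, hy, hyt⟩, hf⟩ := ht
    exact ⟨y, hy.1, hyt, hy.2, hf⟩
  have hmk : ∀ y : ℕ × ℝ, zc i y.2 = J → f n v y.1 J = f n v x.1 J → mk lev f b n v y = S := by
    intro y h1 h2
    show b n v (f n v y.1 (zc (lev n v) y.2)) = b n v (f n v x.1 (zc (lev n v) x.2))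
    rw [← hi, h1, h2]
  have hShN : ShN S.e S.c S.w S.q S.a (zl i J) (rho i) (r0 n) :=
    hG.adm _ _ _ _ (hm J x.1 hxa).2.1
  have hpos := (Sh321.ShN.toC (hr0 n) hShN).pos (hr0 n)
  have hw0 : 0 < S.w 0 := hpos.2.1
  have hSt : StP S.e S.c S.w S.q (zl i J) (rho i) := StP.of_shN hShN hw0
  have hρ : 0 < rho i := Tn327.rho_pos' i
  have hin : ∀ t ∈ cls I lev f n v x, InSheet (L n t) S.e S.c S.w S.q S.a (zl i J) (rho i) := by
    intro t ht
    obtain ⟨y, hy, hyt, hyz, hf⟩ := hcl t ht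
    have hya : t ∈ alive (I n) i J := by
      rw [← hyt, ← hyz]
      exact mem_alive_of hy
    have := (hm J t hya).1
    rw [hf] at this
    exact (hG.mem _ _ _ _ _).1 this
  obtain ⟨A', hA', hcard, hnear⟩ := exists_near hSt.pos hρ.le hin
  -- velocities of the lines of `A'`
  have hη : (0 : ℝ) < B.d n ^ (p / 8) := dp _
  have hη1 : B.d n ^ (p / 8) ≤ 1 := dpow_le_one B n p8.le
  have hδ : (0 : ℝ) < B.d n ^ p := dp _
  have hδη : 240000 * B.d n ^ p ≤ B.d n ^ (p / 8) := by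
    have h1 : B.d n ^ p ≤ B.d n ^ (p / 8) * B.d n ^ (p / 8) := by
      rw [← dpow_add]; exact dpow_le B n (by linarith)
    calc 240000 * B.d n ^ p ≤ 240000 * (B.d n ^ (p / 8) * B.d n ^ (p / 8)) := by linarith
      _ = (240000 * B.d n ^ (p / 8)) * B.d n ^ (p / 8) := by ring
      _ ≤ 1 * B.d n ^ (p / 8) := mul_le_mul_of_nonneg_right c1 hη.le
      _ = _ := one_mul _
  have hvel : ∀ t ∈ A', ∀ t' ∈ A', |dt (S.e 1) ((L n t).v - (L n t').v)| * rho i ≤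
      B.d n ^ (p / 2) / 2 * S.w 1 := by
    intro t' ht' t ht
    obtain ⟨y, hy, hyt, hyz, hf⟩ := hcl t (hA' ht)
    obtain ⟨y', hy', hyt', hyz', hf'⟩ := hcl t' (hA' ht')
    have sy := hs y hy
    have sy' := hs y' hy'
    have dy := hd y hy
    rw [hmk y hyz (by rw [hyt]; exact hf), hyz, hyt] at sy dy
    rw [hmk y' hyz' (by rw [hyt']; exact hf'), hyz', hyt'] at sy'
    obtain ⟨b0, b1, G, hE⟩ := exists_isExp hShN.isQ S.e hw0.ne' (L n t) (zl i J) (rho i)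
    obtain ⟨b0', b1', G', hE'⟩ := exists_isExp hShN.isQ S.e hw0.ne' (L n t') (zl i J) (rho i)
    obtain ⟨k0, ka, kr, kl, k1, k2, k3⟩ := sy b0 b1 G hE
    obtain ⟨k0', ka', kr', kl', -, -, -⟩ := sy' b0' b1' G' hE'
    have hdet := (detP_iff hw0.ne' hE _).1 dy 0 le_rfl zero_le_one
    have key := kill_sheet hSt hρ.le (hin t (hA' ht)) (hin t' (hA' ht')) hE hE' hδ hη hδη hη1 k0
      ka (fun ζ h0 h1 => hnear t ht t' ht' ζ h0 h1) kr kr' kl kl' k1 k2 k3 hdet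
    have e1 : vel S.e S.w (rho i) (L n t) (L n t') 1 =
      rho i * dt (S.e 1) ((L n t').v - (L n t).v) / S.w 1 := rfl
    rw [e1, abs_div, abs_of_pos (hSt.pos 1), div_le_iff₀ (hSt.pos 1), abs_mul,
      abs_of_pos hρ] at key
    have e2 : 10 ^ 10 * B.d n ^ p / (B.d n ^ (p / 8)) ^ 2 ≤ B.d n ^ (p / 2) / 2 := by
      rw [div_le_iff₀ (by positivity)]
      have e3 : (B.d n ^ (p / 8)) ^ 2 = B.d n ^ (p / 4) := by
        rw [sq, ← dpow_add]; congr 1; ring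
      have e4 : B.d n ^ p = B.d n ^ (p / 4) * (B.d n ^ (p / 2) * B.d n ^ (p / 4)) := by
        rw [← dpow_add, ← dpow_add]; congr 1; ring
      rw [e3, e4]
      have h5 := dp (p / 2)
      have h6 := dp (p / 4)
      have h7 : 0 < B.d n ^ (p / 2) * B.d n ^ (p / 4) := mul_pos h5 h6
      calc 10 ^ 10 * (B.d n ^ (p / 4) * (B.d n ^ (p / 2) * B.d n ^ (p / 4))) =
            (2 * 10 ^ 10 * B.d n ^ (p / 4)) * (B.d n ^ (p / 2) * B.d n ^ (p / 4) / 2) := by ring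
        _ ≤ 1 * (B.d n ^ (p / 2) * B.d n ^ (p / 4) / 2) :=
            mul_le_mul_of_nonneg_right c2 (by positivity)
        _ = _ := by ring
    calc |dt (S.e 1) ((L n t').v - (L n t).v)| * rho i = rho i *
          |dt (S.e 1) ((L n t').v - (L n t).v)| := mul_comm _ _
      _ ≤ _ := key
      _ ≤ _ := mul_le_mul_of_nonneg_right e2 (hSt.pos 1).le
  have hr4 : B.d n ^ (p / 2) ≤ 1 / 4 := by linarith
  have hwr : S.w 2 ≤ B.d n ^ (p / 2) * S.w 1 := by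
    refine (hw x hx).trans (mul_le_mul_of_nonneg_right ?_ (hSt.pos 1).le)
    exact dpow_le B n (by linarith)
  have hfin := hN x hx A' hA' (B.d n ^ (p / 2)) (dp _) hr4 hwr
    (hadm x hx _ (dpow_le B n (by linarith)) hr4) hvel
  have hxc : x.1 ∈ cls I lev f n v x := by
    simp only [cls, mem_filter]
    exact ⟨hxa, trivial⟩
  have hc1 : (1 : ℝ) ≤ ((cls I lev f n v x).card : ℝ) := by
    have : 0 < (cls I lev f n v x).card := card_pos.2 ⟨_, hxc⟩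
    exact_mod_cast this
  have e5 : B.d n ^ (-(q 1 * p / 4)) * (B.d n ^ (p / 2)) ^ q 1 = B.d n ^ (q 1 * p / 4) := by
    rw [← Real.rpow_mul (B.pos n).le, ← dpow_add]; congr 1; ring
  rw [e5] at hfin
  have h9 : ((cls I lev f n v x).card : ℝ) ≤
      33 ^ 4 * (B.d n ^ (q 1 * p / 4) * ((cls I lev f n v x).card : ℝ)) :=
    hcard.trans (mul_le_mul_of_nonneg_left hfin (by positivity))
  have h10 : 33 ^ 4 * (B.d n ^ (q 1 * p / 4) * ((cls I lev f n v x).card : ℝ)) =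
      (2 * 33 ^ 4 * B.d n ^ (q 1 * p / 4)) * ((cls I lev f n v x).card : ℝ) / 2 := by ring
  have h11 := mul_le_mul_of_nonneg_right c3 (by linarith : (0 : ℝ) ≤ (cls I lev f n v x).card)
  rw [h10] at h9
  linarith

end Crest.Agent.R136.Kil327
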