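import Crest.Agent.R136.Kil2_327
import Crest.Agent.R136.Cpp2_565

/-!
# R136, U6 thin (helper327): two bad lines of one sheet, no smallness of the sheet

A line `T` of a sheet is bad if its rotation along the second axis (scaled tangent coordinates) is at
most `μ`.

* **`clusters`** : a bad line `T'` which passes `T` at the height `0` within `μ` has its lateral
  velocity within `10^10 μ / η²` of `0` or of `(vB1, vB2)`, which depends on `T` only;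
* `kap_move'`, `two_lines'` : as in `Kil2_327`, for lines near each other at the height `0` only;
* **`two_cl`** : the sheet version.
-/

set_option autoImplicit false
set_option linter.unusedVariables false

namespace Crest.Agent.R136.Kil327

open Crest.Agent.R136.Sh605 Crest.Agent.R136.Tl102
open Crest.Agent.R136.Arc880 (det3)

/-- the second cluster, first axis -/
noncomputable def vB1 (M : QF) (R : V3) : ℝ := -(4 * M.vv * R 1) / (4 * M.uu * M.vv - M.uv ^ 2)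

/-- the second cluster, second axis -/
noncomputable def vB2 (M : QF) (R : V3) : ℝ := -(M.uv * vB1 M R) / (2 * M.vv)

/-- **two bad lines: the relative velocity is near one of two points** -/
theorem clusters {N R X V : V3} {M : QF} {μ η : ℝ} (hμ : 0 ≤ μ) (hμ1 : μ ≤ 1) (hη : 0 < η)
    (hμη : 4 * μ ≤ η) (h1 : N 1 = 0) (h2 : N 2 = 0) (n0 : 1 / 2 ≤ N 0) (r0 : |R 0| ≤ 3 / 2)
    (r1 : |R 1| ≤ 1) (r2 : |R 2| ≤ μ) (yy : |M.yy| ≤ 13) (yu : |M.yu| ≤ 5) (yv : |M.yv| ≤ 5)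
    (uu : |M.uu| ≤ 1) (uv : |M.uv| ≤ 1) (vv : |M.vv| ≤ 1) (hX : ∀ k, |X k| ≤ μ)
    (hV : ∀ k, |V k| ≤ 256) (f1 : |dt N V + dt R X + M.pol X V| ≤ μ)
    (f2 : |dt R V + M.ev V| ≤ μ) (n0' : 1 / 4 ≤ |N 0 + grd M X 0|)
    (r0' : |R 0 + grd M V 0| ≤ 3 / 2)
    (r2' : |(R 2 + grd M V 2) - grd M X 2 / (N 0 + grd M X 0) * (R 0 + grd M V 0)| ≤ μ)
    (hD : η ≤ |dd M R|) :
    (|V 1| ≤ 10 ^ 10 * μ / η ^ 2 ∧ |V 2| ≤ 10 ^ 10 * μ / η ^ 2) ∨
    (|V 1 - vB1 M R| ≤ 10 ^ 10 * μ / η ^ 2 ∧ |V 2 - vB2 M R| ≤ 10 ^ 10 * μ / η ^ 2) := by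
  have two : |(2 : ℝ)| ≤ 2 := by norm_num
  have neg : ∀ {x A : ℝ}, |x| ≤ A → |-x| ≤ A := fun h => by rw [abs_neg]; exact h
  have q1 : μ * μ ≤ μ := mul_le_of_le_one_left hμ hμ1
  -- size of `vv`, `R 1`
  have d3 : |dd M R| ≤ 2 * μ + |M.vv * R 1| := by
    have e : dd M R = M.uu * (R 2 * R 2) + -(M.uv * (R 1 * R 2)) + M.vv * R 1 * R 1 := by
      simp only [dd]; ring
    rw [e]
    refine (a3 (mm uu (mm r2 r2)) (neg (mm uv (mm r1 r2))) (mm (le_refl |M.vv * R 1|) r1)).trans ?_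
    linarith
  have hvr : η / 2 ≤ |M.vv * R 1| := by linarith
  have hvv : η / 2 ≤ |M.vv| := by
    refine hvr.trans ?_
    rw [abs_mul]
    exact mul_le_of_le_one_right (abs_nonneg _) r1
  have hη2 : η ≤ 2 := by linarith
  have hvv0 : M.vv ≠ 0 := by
    intro h
    rw [h, abs_zero] at hvv
    linarith
  -- the velocity along the normal
  have hV0 : |V 0| ≤ 27000 * μ := by
    have e : N 0 * V 0 = (dt N V + dt R X + M.pol X V) + -(dt R X) + -(M.pol X V) := by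
      simp only [dt, h1, h2]; ring
    have b1 : |dt R X| ≤ 3 / 2 * μ + 1 * μ + μ * μ :=
      a3 (mm r0 (hX 0)) (mm r1 (hX 1)) (mm r2 (hX 2))
    have b2 : |M.pol X V| ≤ 13312 * μ := by
      have e2 : M.pol X V = (2 * M.yy * (X 0 * V 0) + M.yu * (X 0 * V 1 + X 1 * V 0) +
          M.yv * (X 0 * V 2 + X 2 * V 0)) + 0 + (2 * M.uu * (X 1 * V 1) +
          M.uv * (X 1 * V 2 + X 2 * V 1) + 2 * M.vv * (X 2 * V 2)) := by
        simp only [QF.pol]; ring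
      have z : |(0 : ℝ)| ≤ 0 := by norm_num
      have p : ∀ i j k l, |X i * V j + X k * V l| ≤ μ * 256 + μ * 256 := fun i j k l =>
        (abs_add_le _ _).trans (add_le_add (mm (hX i) (hV j)) (mm (hX k) (hV l)))
      rw [e2]
      refine (a3 (a3 (mm (mm two yy) (mm (hX 0) (hV 0))) (mm yu (p 0 1 1 0)) (mm yv (p 0 2 2 0))) z
        (a3 (mm (mm two uu) (mm (hX 1) (hV 1))) (mm uv (p 1 2 2 1))
          (mm (mm two vv) (mm (hX 2) (hV 2))))).trans ?_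
      linarith
    have b3 : |N 0 * V 0| ≤ 13317 * μ := by
      rw [e]
      refine (a3 f1 (neg b1) (neg b2)).trans ?_
      linarith
    rw [abs_mul, abs_of_pos (by linarith : 0 < N 0)] at b3
    have b4 : 1 / 2 * |V 0| ≤ N 0 * |V 0| := mul_le_mul_of_nonneg_right n0 (abs_nonneg _)
    linarith
  -- the linear condition
  obtain ⟨W, hW⟩ : ∃ W, W = M.uv * V 1 + 2 * M.vv * V 2 := ⟨_, rfl⟩
  have bW' : |W| ≤ 768 := by
    rw [hW]
    refine (abs_add_le _ _).trans ((add_le_add (mm uv (hV 1)) (mm (mm two vv) (hV 2))).trans ?_)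
    norm_num
  have bN2 : |grd M X 2| ≤ 8 * μ := by
    show |M.yv * X 0 + M.uv * X 1 + 2 * M.vv * X 2| ≤ 8 * μ
    refine (a3 (mm yv (hX 0)) (mm uv (hX 1)) (mm (mm two vv) (hX 2))).trans ?_
    linarith
  have bq : |grd M X 2 / (N 0 + grd M X 0)| ≤ 32 * μ := by
    rw [abs_div, div_le_iff₀ (by linarith)]
    have := mul_le_mul_of_nonneg_left n0' (by linarith : 0 ≤ 32 * μ)
    linarith
  have bW : |W| ≤ 136000 * μ := by
    have e : W = ((R 2 + grd M V 2) - grd M X 2 / (N 0 + grd M X 0) * (R 0 + grd M V 0)) +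
        grd M X 2 / (N 0 + grd M X 0) * (R 0 + grd M V 0) + -(R 2 + M.yv * V 0) := by
      rw [hW]
      have : grd M V 2 = M.yv * V 0 + M.uv * V 1 + 2 * M.vv * V 2 := rfl
      rw [this]; ring
    rw [e]
    refine (a3 r2' (mm bq r0') (neg ((abs_add_le _ _).trans (add_le_add r2 (mm yv hV0))))).trans ?_
    linarith
  -- the conic
  obtain ⟨P, hP⟩ : ∃ P, P = R 1 * V 1 + (M.uu * V 1 ^ 2 + M.uv * (V 1 * V 2) + M.vv * V 2 ^ 2) :=
    ⟨_, rfl⟩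
  have bP : |P| ≤ 160000000 * μ := by
    have e : P = ((dt R V + M.ev V) + -(R 0 * V 0) + -(R 2 * V 2)) + -(M.yy * (V 0 * V 0)) +
        -(V 0 * (M.yu * V 1 + M.yv * V 2)) := by
      rw [hP]; simp only [dt, QF.ev]; ring
    rw [e]
    refine (a3 (a3 f2 (neg (mm r0 hV0)) (neg (mm r2 (hV 2)))) (neg (mm yy (mm hV0 (hV 0))))
      (neg (mm hV0 ((abs_add_le _ _).trans (add_le_add (mm yu (hV 1)) (mm yv (hV 2))))))).trans ?_
    linarith
  obtain ⟨D, hDd⟩ : ∃ D, D = 4 * M.uu * M.vv - M.uv ^ 2 := ⟨_, rfl⟩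
  obtain ⟨F, hF⟩ : ∃ F, F = 4 * (M.vv * R 1) + D * V 1 := ⟨_, rfl⟩
  have bE : |V 1| * |F| ≤ 10 ^ 9 * μ := by
    rw [← abs_mul]
    have e : V 1 * F = 4 * M.vv * P + -(W * W) + 0 := by
      rw [hF, hDd, hP, hW]; ring
    have z : |(0 : ℝ)| ≤ 0 := by norm_num
    have four : |(4 : ℝ)| ≤ 4 := by norm_num
    rw [e]
    refine (a3 (mm (mm four vv) bP) (neg (mm bW bW')) z).trans ?_
    linarith
  have h4 : 2 * η ≤ |4 * (M.vv * R 1)| := by
    rw [abs_mul, abs_of_pos (by norm_num : (0 : ℝ) < 4)]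
    linarith
  have hη' : 0 < η ^ 2 := by positivity
  -- from the first axis to the second one
  have fin : ∀ v1 v2 : ℝ, 2 * M.vv * v2 = -(M.uv * v1) → |V 1 - v1| * η ≤ 10 ^ 9 * μ →
      |V 1 - v1| ≤ 10 ^ 10 * μ / η ^ 2 ∧ |V 2 - v2| ≤ 10 ^ 10 * μ / η ^ 2 := by
    intro v1 v2 e1 hb
    constructor
    · rw [le_div_iff₀ hη']
      have e2 : |V 1 - v1| * η ^ 2 = (|V 1 - v1| * η) * η := by ring
      rw [e2]
      have := mul_le_mul hb hη2 hη.le (by positivity)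
      linarith
    · rw [le_div_iff₀ hη']
      have e2 : 2 * M.vv * (V 2 - v2) = W + -(M.uv * (V 1 - v1)) := by
        rw [hW]; linarith
      have b1 : |2 * M.vv * (V 2 - v2)| ≤ 136000 * μ + 1 * |V 1 - v1| := by
        rw [e2]
        exact (abs_add_le _ _).trans (add_le_add bW (neg (mm uv (le_refl _))))
      rw [abs_mul, abs_mul, abs_of_pos (by norm_num : (0 : ℝ) < 2)] at b1
      have b2 : η * |V 2 - v2| ≤ 2 * |M.vv| * |V 2 - v2| :=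
        mul_le_mul_of_nonneg_right (by linarith) (abs_nonneg _)
      have b3 : η * |V 2 - v2| * η ≤ (136000 * μ + 1 * |V 1 - v1|) * η :=
        mul_le_mul_of_nonneg_right (b2.trans b1) hη.le
      have b4 : 136000 * μ * η ≤ 136000 * μ * 2 := mul_le_mul_of_nonneg_left hη2 (by positivity)
      have e3 : |V 2 - v2| * η ^ 2 = η * |V 2 - v2| * η := by ring
      rw [e3]
      linarith
  rcases le_or_gt η |F| with hc | hc
  · left
    have h := fin 0 0 (by ring) (by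
      rw [sub_zero]
      exact (mul_le_mul_of_nonneg_left hc (abs_nonneg _)).trans bE)
    rw [sub_zero, sub_zero] at h
    exact h
  · right
    have hDV : η ≤ |D * V 1| := by
      have e : 4 * (M.vv * R 1) = F + -(D * V 1) := by rw [hF]; ring
      rw [e] at h4
      have := (abs_add_le F (-(D * V 1)))
      rw [abs_neg] at this
      linarith
    have hD0 : D ≠ 0 := by
      intro h
      rw [h, zero_mul, abs_zero] at hDV
      linarith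
    have e1 : vB1 M R * D = -(4 * (M.vv * R 1)) := by
      unfold vB1
      rw [← hDd, div_mul_cancel₀ _ hD0]; ring
    refine fin _ _ ?_ ?_
    · unfold vB2
      field_simp
    · have e2 : (V 1 - vB1 M R) * D = F := by rw [sub_mul, e1, hF]; ring
      have e3 : |V 1 - vB1 M R| * |D * V 1| = |V 1| * |F| := by
        rw [← e2, abs_mul, abs_mul]; ring
      calc |V 1 - vB1 M R| * η ≤ |V 1 - vB1 M R| * |D * V 1| :=
            mul_le_mul_of_nonneg_left hDV (abs_nonneg _)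
        _ = |V 1| * |F| := e3
        _ ≤ _ := bE

/-- data of two lines of a sheet near each other at the height `0` -/
theorem two_lines' {e : Fin 3 → V3} {c : Ln4} {w : V3} {q : ℝ → V3 → ℝ} {z0 ρ a : ℝ}
    (S : StP e c w q z0 ρ) (hρ : 0 ≤ ρ) {T T' : Ln4} (hT : InSheet T e c w q a z0 ρ)
    (hT' : InSheet T' e c w q a z0 ρ) {b0 b1 : V3} {G : QF}
    (hE : IsExp q e w T z0 ρ b0 b1 G) (hκ : 0 < kap b0 b1 G) :
    |dt (shB0 b0) (sD (kap b0 b1 G) b0 (vel e w ρ T T')) +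
      dt (scB1 (kap b0 b1 G) b0 b1) (sD (kap b0 b1 G) b0 (rp e w z0 ρ T T' 0)) +
      (scG (kap b0 b1 G) b0 G).pol (sD (kap b0 b1 G) b0 (rp e w z0 ρ T T' 0))
        (sD (kap b0 b1 G) b0 (vel e w ρ T T'))| ≤ 16 * (a / (w 0 * kap b0 b1 G)) ∧
    |dt (scB1 (kap b0 b1 G) b0 b1) (sD (kap b0 b1 G) b0 (vel e w ρ T T')) +
      (scG (kap b0 b1 G) b0 G).ev (sD (kap b0 b1 G) b0 (vel e w ρ T T'))| ≤
        16 * (a / (w 0 * kap b0 b1 G)) := by
  set κ := kap b0 b1 G with hκd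
  have hw0 := S.pos 0
  have hwk : 0 < w 0 * κ := mul_pos hw0 hκ
  have N := hE.nrmC S hρ (fun z h1 h2 => (hT z h1 h2).1)
  obtain ⟨g1, g2, -⟩ := N.b1_le
  have hb0 : b0 0 ≠ 0 := by linarith
  have hz : ∀ ζ : ℝ, 0 ≤ ζ → ζ ≤ 1 → z0 ≤ z0 + ρ * ζ ∧ z0 + ρ * ζ ≤ z0 + ρ := by
    intro ζ h1 h2
    constructor
    · nlinarith
    · nlinarith
  have val : ∀ ζ : ℝ, 0 ≤ ζ → ζ ≤ 1 →
      |Fq (shB0 b0) (scB1 κ b0 b1) (scG κ b0 G) ζ
        (pos (sD κ b0 (rp e w z0 ρ T T' 0)) (sD κ b0 (vel e w ρ T T')) 0 ζ)| ≤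
        2 * (a / (w 0 * κ)) := by
    intro ζ hζ hζ'
    obtain ⟨z1, z2⟩ := hz ζ hζ hζ'
    have q1 := (hT' _ z1 z2).2
    have q2 := (hT _ z1 z2).2
    have h1 := hE.at S.ortho (fun k => (S.pos k).ne') hκ.ne' b0 ζ (T'.pos (z0 + ρ * ζ))
    rw [gl_own hb0, gl_own1, gM_own] at h1
    rw [sD_pos]
    have e1 : w 0 * κ * Fq (shB0 b0) (scB1 κ b0 b1) (scG κ b0 G) ζ
        (sD κ b0 (rp e w z0 ρ T T' ζ)) =
        q (z0 + ρ * ζ) (T'.pos (z0 + ρ * ζ)) - q (z0 + ρ * ζ) (T.pos (z0 + ρ * ζ)) := by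
      rw [h1]
      unfold rp
      ring
    have e2 : ∀ y : ℝ, |y| * (w 0 * κ) = |w 0 * κ * y| := fun y => by
      rw [abs_mul, abs_of_pos hwk, mul_comm]
    have e3 : 2 * (a / (w 0 * κ)) = (2 * a) / (w 0 * κ) := by ring
    rw [e3, le_div_iff₀ hwk, e2, e1]
    exact (abs_sub _ _).trans (by linarith)
  have v0 := val 0 le_rfl zero_le_one
  have v1 := val (1 / 2) (by norm_num) (by norm_num)
  have v2 := val 1 zero_le_one le_rfl
  rw [Fq_pos] at v0 v1 v2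
  have e0 : bz (shB0 b0) (scB1 κ b0 b1) 0 = shB0 b0 := by
    funext k
    simp only [bz]
    ring
  rw [e0] at v0 v1 v2
  set α := dt (shB0 b0) (sD κ b0 (rp e w z0 ρ T T' 0)) +
    (scG κ b0 G).ev (sD κ b0 (rp e w z0 ρ T T' 0)) with hα
  set β := dt (shB0 b0) (sD κ b0 (vel e w ρ T T')) +
    dt (scB1 κ b0 b1) (sD κ b0 (rp e w z0 ρ T T' 0)) +
    (scG κ b0 G).pol (sD κ b0 (rp e w z0 ρ T T' 0)) (sD κ b0 (vel e w ρ T T')) with hβ
  set γ := dt (scB1 κ b0 b1) (sD κ b0 (vel e w ρ T T')) +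
    (scG κ b0 G).ev (sD κ b0 (vel e w ρ T T')) with hγ
  set A := a / (w 0 * κ) with hA
  constructor
  · rw [abs_le] at v0 v1 v2 ⊢
    constructor <;> nlinarith [v0.1, v0.2, v1.1, v1.2, v2.1, v2.2]
  · rw [abs_le] at v0 v1 v2 ⊢
    constructor <;> nlinarith [v0.1, v0.2, v1.1, v1.2, v2.1, v2.2]

/-- **the curvature extents along two lines of the sheet are comparable** -/
theorem kap_move' {b0 b1 b0' b1' : V3} {G : QF} (N : NrmC b0 b1 G) (N' : NrmC b0' b1' G)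
    {x v : V3} (hκ : 0 < kap b0 b1 G) (e1 : b0' = fun k => b0 k + grd G x k)
    (e2 : b1' = fun k => b1 k + grd G v k) (bX : ∀ k, |sD (kap b0 b1 G) b0 x k| ≤ 1)
    (bV : ∀ k, |sD (kap b0 b1 G) b0 v k| ≤ 256) :
    kap b0' b1' G ≤ 60000 * kap b0 b1 G := by
  set κ := kap b0 b1 G with hκd
  obtain ⟨g1, g2, -⟩ := N.b1_le
  have hb0 : b0 0 ≠ 0 := by linarith
  obtain ⟨g1', g2', -, -, g3', -⟩ := N'.b1_le
  have hb0' : b0' 0 ≠ 0 := by linarith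
  obtain ⟨m1, m2⟩ := gl_move hκ.ne' hb0 b1 G x v
  rw [← e1] at m1
  rw [← e2] at m2
  have sc := N.sc_le hκ
  rw [← hκd] at sc
  obtain ⟨c1, c2, c3, c4, yy, yu, yv, uu, uv, vv⟩ := sc
  set X := sD κ b0 x with hX
  set V := sD κ b0 v with hV
  set M := scG κ b0 G with hM
  have two : |(2 : ℝ)| ≤ 2 := by norm_num
  have gX1 : |gl κ (b0 1 / b0 0) (b0 2 / b0 0) b0' 1| ≤ 8 := by
    rw [m1]
    show |0 + (M.yu * X 0 + 2 * M.uu * X 1 + M.uv * X 2)| ≤ 8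
    rw [zero_add]
    exact (a3 (mm yu (bX 0)) (mm (mm two uu) (bX 1)) (mm uv (bX 2))).trans (by norm_num)
  have gX2 : |gl κ (b0 1 / b0 0) (b0 2 / b0 0) b0' 2| ≤ 8 := by
    rw [m1]
    show |0 + (M.yv * X 0 + M.uv * X 1 + 2 * M.vv * X 2)| ≤ 8
    rw [zero_add]
    exact (a3 (mm yv (bX 0)) (mm uv (bX 1)) (mm (mm two vv) (bX 2))).trans (by norm_num)
  have gV1 : |gl κ (b0 1 / b0 0) (b0 2 / b0 0) b1' 1| ≤ 2049 := by
    rw [m2]
    show |scB1 κ b0 b1 1 + (M.yu * V 0 + 2 * M.uu * V 1 + M.uv * V 2)| ≤ 2049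
    refine (abs_add_le _ _).trans ?_
    have := (a3 (mm yu (bV 0)) (mm (mm two uu) (bV 1)) (mm uv (bV 2)))
    linarith
  have gV2 : |gl κ (b0 1 / b0 0) (b0 2 / b0 0) b1' 2| ≤ 2049 := by
    rw [m2]
    show |scB1 κ b0 b1 2 + (M.yv * V 0 + M.uv * V 1 + 2 * M.vv * V 2)| ≤ 2049
    refine (abs_add_le _ _).trans ?_
    have := (a3 (mm yv (bV 0)) (mm uv (bV 1)) (mm (mm two vv) (bV 2)))
    linarith
  have t1 : |gl κ (b0 1 / b0 0) (b0 2 / b0 0) b0' 1 / b0' 0| ≤ 16 := by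
    rw [abs_div, abs_of_pos (by linarith : 0 < b0' 0), div_le_iff₀ (by linarith)]
    linarith
  have t2 : |gl κ (b0 1 / b0 0) (b0 2 / b0 0) b0' 2 / b0' 0| ≤ 16 := by
    rw [abs_div, abs_of_pos (by linarith : 0 < b0' 0), div_le_iff₀ (by linarith)]
    linarith
  obtain ⟨r1, r2⟩ := shB1_gl (s₁ := b0 1 / b0 0) (s₂ := b0 2 / b0 0) hκ.ne' hb0' (b1 := b1')
  obtain ⟨u1, u2, u3⟩ := shG_gM (s₁ := b0 1 / b0 0) (s₂ := b0 2 / b0 0) hκ.ne' hb0' G
  rw [gM_own, ← hM] at u1 u2 u3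
  have fin : ∀ y : ℝ, |y / κ| ≤ 60000 → |y| ≤ 60000 * κ := by
    intro y hy
    rw [abs_div, abs_of_pos hκ, div_le_iff₀ hκ] at hy
    exact hy
  have sq1 : |(gl κ (b0 1 / b0 0) (b0 2 / b0 0) b0' 1 / b0' 0) ^ 2| ≤ 16 * 16 := by
    rw [sq]; exact mm t1 t1
  have sq2 : |(gl κ (b0 1 / b0 0) (b0 2 / b0 0) b0' 2 / b0' 0) ^ 2| ≤ 16 * 16 := by
    rw [sq]; exact mm t2 t2
  show max (max |shB1 b0' b1' 1| |shB1 b0' b1' 2|)
    (max (max |(shG b0' G).uu| |(shG b0' G).uv|) |(shG b0' G).vv|) ≤ 60000 * κ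
  refine max_le (max_le (fin _ ?_) (fin _ ?_)) (max_le (max_le (fin _ ?_) (fin _ ?_)) (fin _ ?_))
  · rw [r1]
    exact (abs_sub _ _).trans (by have := mm t1 g3'; linarith)
  · rw [r2]
    exact (abs_sub _ _).trans (by have := mm t2 g3'; linarith)
  · rw [u1, sub_eq_add_neg]
    have q1 := mm t1 yu
    rw [← abs_neg] at q1
    exact (a3 uu q1 (mm sq1 yy)).trans (by norm_num)
  · rw [u2]
    have q1 := mm t2 yu
    have q2 := mm t1 yv
    have q3 := mm (mm two (mm t1 t2)) yy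
    refine (abs_add_le _ _).trans ?_
    refine (add_le_add ((abs_sub _ _).trans (add_le_add (abs_sub _ _) le_rfl)) le_rfl).trans ?_
    linarith
  · rw [u3, sub_eq_add_neg]
    have q1 := mm t2 yv
    rw [← abs_neg] at q1
    exact (a3 vv q1 (mm sq2 yy)).trans (by norm_num)

set_option maxHeartbeats 800000 in
/-- **two bad lines of the sheet which pass each other at the height `0`** -/
theorem two_cl {e : Fin 3 → V3} {c : Ln4} {w : V3} {q : ℝ → V3 → ℝ} {z0 ρ a : ℝ}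
    (S : StP e c w q z0 ρ) (hρ : 0 ≤ ρ) {T T' : Ln4} (hT : InSheet T e c w q a z0 ρ)
    (hT' : InSheet T' e c w q a z0 ρ) {b0 b1 b0' b1' : V3} {G G' : QF}
    (hE : IsExp q e w T z0 ρ b0 b1 G) (hE' : IsExp q e w T' z0 ρ b0' b1' G')
    {δ η : ℝ} (hδ : 0 < δ) (hη : 0 < η) (hδη : 240000 * δ ≤ η) (hη1 : η ≤ 1)
    (hκ : 0 < kap b0 b1 G) (hA : a ≤ δ * (w 0 * kap b0 b1 G))
    (x1 : |rp e w z0 ρ T T' 0 1| ≤ δ) (x2 : |rp e w z0 ρ T T' 0 2| ≤ δ)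
    (l2 : |shB1 b0 b1 2| ≤ δ * kap b0 b1 G) (l2' : |shB1 b0' b1' 2| ≤ δ * kap b0' b1' G')
    (hD : η ≤ |det3 (fan (shB0 b0) (scB1 (kap b0 b1 G) b0 b1) (scG (kap b0 b1 G) b0 G) 0)|) :
    (|vel e w ρ T T' 1| ≤ 10 ^ 15 * δ / η ^ 2 ∧ |vel e w ρ T T' 2| ≤ 10 ^ 15 * δ / η ^ 2) ∨
    (|vel e w ρ T T' 1 - vB1 (scG (kap b0 b1 G) b0 G) (scB1 (kap b0 b1 G) b0 b1)| ≤
        10 ^ 15 * δ / η ^ 2 ∧
      |vel e w ρ T T' 2 - vB2 (scG (kap b0 b1 G) b0 G) (scB1 (kap b0 b1 G) b0 b1)| ≤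
        10 ^ 15 * δ / η ^ 2) := by
  have hw0 := S.pos 0
  have hδ1 : δ ≤ 1 := by linarith
  have hwk : 0 < w 0 * kap b0 b1 G := mul_pos hw0 hκ
  have hA' : a / (w 0 * kap b0 b1 G) ≤ δ := (div_le_iff₀ hwk).2 hA
  obtain ⟨bX, bV⟩ := captured S hρ hT hT' hE hκ (by linarith) le_rfl zero_le_one
    (by linarith : δ ≤ 1 / 40) x1 x2
  obtain ⟨fn1, fn2⟩ := two_lines' S hρ hT hT' hE hκ
  set κ := kap b0 b1 G with hκd
  have N := hE.nrmC S hρ (fun z h1 h2 => (hT z h1 h2).1)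
  obtain ⟨g1, g2, -⟩ := N.b1_le
  have hb0 : b0 0 ≠ 0 := by linarith
  have hw : ∀ k, w k ≠ 0 := fun k => (S.pos k).ne'
  obtain ⟨e1, e2, e3⟩ := KapP335.isExp_unique (hw 0) hE' (isExp_move S.ortho hw hE T')
  subst e3
  have N' := hE'.nrmC S hρ (fun z h1 h2 => (hT' z h1 h2).1)
  obtain ⟨g1', g2', -, -, g3', -⟩ := N'.b1_le
  have hb0' : b0' 0 ≠ 0 := by linarith
  have hκκ : kap b0' b1' G' ≤ 60000 * κ := kap_move' N N' hκ e1 e2
    (fun k => (bX k).trans (by linarith)) bV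
  obtain ⟨m1, m2⟩ := gl_move hκ.ne' hb0 b1 G' (rp e w z0 ρ T T' 0) (vel e w ρ T T')
  rw [← e1] at m1
  rw [← e2] at m2
  have sc := N.sc_le hκ
  rw [← hκd] at sc
  obtain ⟨-, c2, c5, c4, yy, yu, yv, uu, uv, vv⟩ := sc
  obtain ⟨-, q2⟩ := shB1_gl (s₁ := b0 1 / b0 0) (s₂ := b0 2 / b0 0) hκ.ne' hb0' (b1 := b1')
  have i1 : gl κ (b0 1 / b0 0) (b0 2 / b0 0) b1' 2 = scB1 κ b0 b1 2 +
      grd (scG κ b0 G') (sD κ b0 (vel e w ρ T T')) 2 := by rw [m2]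
  have i2 : gl κ (b0 1 / b0 0) (b0 2 / b0 0) b0' 2 =
      grd (scG κ b0 G') (sD κ b0 (rp e w z0 ρ T T' 0)) 2 := by
    rw [m1]
    show 0 + grd (scG κ b0 G') (sD κ b0 (rp e w z0 ρ T T' 0)) 2 = _
    rw [zero_add]
  have i3 : b0' 0 = shB0 b0 0 + grd (scG κ b0 G') (sD κ b0 (rp e w z0 ρ T T' 0)) 0 := by
    have : gl κ (b0 1 / b0 0) (b0 2 / b0 0) b0' 0 = b0' 0 := rfl
    rw [← this, m1]
  have i4 : b1' 0 = scB1 κ b0 b1 0 + grd (scG κ b0 G') (sD κ b0 (vel e w ρ T T')) 0 := by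
    have : gl κ (b0 1 / b0 0) (b0 2 / b0 0) b1' 0 = b1' 0 := rfl
    rw [← this, m2]
  rw [i1, i2, i3, i4] at q2
  rw [i4] at g3'
  have n0' : 1 / 4 ≤ |shB0 b0 0 + grd (scG κ b0 G') (sD κ b0 (rp e w z0 ρ T T' 0)) 0| := by
    rw [← i3, abs_of_pos (by linarith)]; linarith
  have l2s : |shB1 b0' b1' 2 / κ| ≤ 60000 * δ := by
    rw [abs_div, abs_of_pos hκ, div_le_iff₀ hκ]
    calc _ ≤ δ * kap b0' b1' G' := l2'
      _ ≤ δ * (60000 * κ) := mul_le_mul_of_nonneg_left hκκ hδ.le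
      _ = _ := by ring
  rw [q2] at l2s
  have l2t : |scB1 κ b0 b1 2| ≤ δ := by
    change |shB1 b0 b1 2 / κ| ≤ δ
    rw [abs_div, abs_of_pos hκ, div_le_iff₀ hκ]
    exact l2
  have hdd : η ≤ |dd (scG κ b0 G') (scB1 κ b0 b1)| := by
    rw [det3_fan0 hb0 _ _ (b1 := b1), abs_div, abs_neg] at hD
    have e5 : |(2 : ℝ) ^ 24| = 2 ^ 24 := abs_of_pos (by positivity)
    rw [e5, le_div_iff₀ (by positivity)] at hD
    refine le_trans ?_ hD
    have : (1 : ℝ) ≤ 2 ^ 24 := by norm_num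
    exact le_mul_of_one_le_right hη.le this
  have key := clusters (N := shB0 b0) (R := scB1 κ b0 b1)
    (X := sD κ b0 (rp e w z0 ρ T T' 0)) (V := sD κ b0 (vel e w ρ T T')) (M := scG κ b0 G')
    (μ := 60000 * δ) (η := η) (by positivity) (by linarith) hη (by linarith) rfl rfl g1
    (c2 0) c5 (by linarith) yy yu yv uu uv vv (fun k => (bX k).trans (by linarith)) bV
    (fn1.trans (by linarith)) (fn2.trans (by linarith)) n0' g3' l2s hdd
  have hfin : 10 ^ 10 * (60000 * δ) / η ^ 2 ≤ 10 ^ 15 * δ / η ^ 2 := by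
    apply div_le_div_of_nonneg_right _ (by positivity)
    linarith
  rcases key with ⟨k1, k2⟩ | ⟨k1, k2⟩
  · exact Or.inl ⟨k1.trans hfin, k2.trans hfin⟩
  · exact Or.inr ⟨k1.trans hfin, k2.trans hfin⟩

end Crest.Agent.R136.Kil327
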