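import Crest.Agent.R136.Kil4_327
import Crest.Agent.R136.Kil3_327

/-!
# R136, U6 thin (helper327): the bad lines of one sheet are few

* `ShN.scale` : the plank scaled by `λ ≤ 1/2` around a line of the sheet is a sheet;
* `in_scaled` : two lines of the sheet which are `λ / 73`-near in lateral position and velocity;
* **`bad_card`** : number of the bad lines of one sheet;
* `negl_of_cls` : a power small part of the lines of every class is negligible.
-/

set_option autoImplicit false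
set_option linter.unusedVariables false

open Finset Filter Topology

namespace Crest.Agent.R136.Kil327

open Crest.Agent.R138.Ex926 (Base U)
open Crest.Agent.R138.Mk163 (zc zl rho alive own Negl)
open Crest.Agent.R138.Dp76 (dpow_pos dpow_add dpow_le dpow_le_one)
open Crest.Agent.R138.Ps627 (card_filter_le_mul mul_card_filter_le)
open Crest.Agent.R138.MkRef627 (lc kc card_class)
open Crest.Agent.R138.ArgM163 (ev_const ev_const_mul)
open Crest.Agent.R136.MkA627 Crest.Agent.R136.K4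
open Crest.Agent.R136.Sh605 Crest.Agent.R136.Tl102
open Crest.Agent.R136.Arc880 (det3)
open Crest.Agent.R136.Tn327 (cls mk)

/-- **the scaled plank** -/
theorem shN_scale {e : Fin 3 → V3} {c c' : Ln4} {w : V3} {q : ℝ → V3 → ℝ} {z0 ρ a r0 lam : ℝ}
    (h : ShN e c w q a z0 ρ r0) (hw : ∀ k, 0 < w k) (hl : 0 < lam) (hl2 : lam ≤ 1 / 2)
    (ha : a ≤ lam * w 0) (hc : ∀ z, z0 ≤ z → z ≤ z0 + ρ → InK e c w z (c'.pos z)) :
    ShN e c' (fun k => lam * w k) q a z0 ρ r0 := by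
  have hin : ∀ z, z0 ≤ z → z ≤ z0 + ρ → ∀ x, InK e c' (dbl3 (fun k => lam * w k)) z x →
      InK e c (dbl3 w) z x := by
    intro z h1 h2 x hx i
    have e1 : dt (e i) (x - c.pos z) = dt (e i) (x - c'.pos z) + dt (e i) (c'.pos z - c.pos z) := by
      simp only [dt, Pi.sub_apply]; ring
    have h3 : |dt (e i) (x - c'.pos z)| ≤ 2 * (lam * w i) := hx i
    have h4 := hc z h1 h2 i
    have h5 : lam * w i ≤ 1 / 2 * w i := mul_le_mul_of_nonneg_right hl2 (hw i).le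
    show |dt (e i) (x - c.pos z)| ≤ 2 * w i
    rw [e1]
    exact (abs_add_le _ _).trans (by linarith)
  have hdiv : ∀ i, lam * w 0 / (lam * w i) = w 0 / w i := fun i =>
    mul_div_mul_left _ _ hl.ne'
  refine ⟨h.ortho, h.isQ, ha, ?_, ?_, h.r0_le, ?_, ?_, ?_⟩
  · exact mul_le_mul_of_nonneg_left h.w0_le hl.le
  · exact mul_le_mul_of_nonneg_left h.w_le hl.le
  · intro z h1 h2 x t ht k1 k2
    exact h.st0 z h1 h2 x t ht (hin z h1 h2 _ k1) (hin z h1 h2 _ k2)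
  · intro z h1 h2 x t ht k1 k2
    have := h.sl1 z h1 h2 x t ht (hin z h1 h2 _ k1) (hin z h1 h2 _ k2)
    simp only [hdiv]
    exact this
  · intro z h1 h2 x t ht k1 k2
    have := h.sl2 z h1 h2 x t ht (hin z h1 h2 _ k1) (hin z h1 h2 _ k2)
    simp only [hdiv]
    exact this

/-- lines near each other lie in the scaled plank -/
theorem in_scaled {e : Fin 3 → V3} {c : Ln4} {w : V3} {q : ℝ → V3 → ℝ} {z0 ρ a : ℝ}
    (S : StP e c w q z0 ρ) (hρ : 0 < ρ) {T T' : Ln4} (hT : InSheet T e c w q a z0 ρ)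
    (hT' : InSheet T' e c w q a z0 ρ) {b0 b1 : V3} {G : QF}
    (hE : IsExp q e w T z0 ρ b0 b1 G) {r om lam : ℝ} (x1 : |rp e w z0 ρ T T' 0 1| ≤ r)
    (x2 : |rp e w z0 ρ T T' 0 2| ≤ r) (v1 : |vel e w ρ T T' 1| ≤ om)
    (v2 : |vel e w ρ T T' 2| ≤ om) (hr : r + om ≤ 1 / 8) (ha : a / w 0 ≤ r + om)
    (hl : 73 * (r + om) ≤ lam) : InSheet T' e T (fun k => lam * w k) q a z0 ρ := by
  intro z hz hz'
  refine ⟨?_, (hT' z hz hz').2⟩
  have hr0 : 0 ≤ r := (abs_nonneg _).trans x1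
  have ho0 : 0 ≤ om := (abs_nonneg _).trans v1
  obtain ⟨ζ, hζ⟩ : ∃ ζ, ζ = (z - z0) / ρ := ⟨_, rfl⟩
  have h0 : 0 ≤ ζ := by rw [hζ]; exact div_nonneg (by linarith) hρ.le
  have h1 : ζ ≤ 1 := by rw [hζ, div_le_one hρ]; linarith
  have hzz : z0 + ρ * ζ = z := by rw [hζ]; field_simp; ring
  have lat : ∀ k, |rp e w z0 ρ T T' 0 k| ≤ r → |vel e w ρ T T' k| ≤ om →
      |rp e w z0 ρ T T' ζ k| ≤ r + om := by
    intro k k1 k2
    rw [rp_affine e w z0 ρ T T' 0 ζ k, sub_zero]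
    refine (abs_add_le _ _).trans (add_le_add k1 ?_)
    rw [abs_mul, abs_of_nonneg h0]
    calc ζ * |vel e w ρ T T' k| ≤ 1 * |vel e w ρ T T' k| :=
          mul_le_mul_of_nonneg_right h1 (abs_nonneg _)
      _ ≤ om := by rw [one_mul]; exact k2
  have l1 := lat 1 x1 v1
  have l2 := lat 2 x2 v2
  have l0 := (Cpp565.near_cap S hρ.le hT hT' hE h0 h1 hr l1 l2).1
  have all : ∀ k, |rp e w z0 ρ T T' ζ k| ≤ lam := by
    intro k
    fin_cases k
    · exact l0.trans (by linarith)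
    · exact l1.trans (by linarith)
    · exact l2.trans (by linarith)
  intro i
  have h5 := all i
  have e1 : rp e w z0 ρ T T' ζ i = dt (e i) (T'.pos z - T.pos z) / w i := by
    simp only [rp, pc, hzz]
  rw [e1, abs_div, abs_of_pos (S.pos i), div_le_iff₀ (S.pos i)] at h5
  exact h5

open Classical in
/-- **the bad lines of a sheet are few** -/
theorem bad_card {e : Fin 3 → V3} {c : Ln4} {w : V3} {q : ℝ → V3 → ℝ} {z0 ρ a : ℝ}
    (S : StP e c w q z0 ρ) (hq : IsQ q) (hρ : 0 < ρ) {L : ℕ → Ln4} {A Bd : Finset ℕ}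
    (hBA : Bd ⊆ A) (hA : ∀ t ∈ A, InSheet (L t) e c w q a z0 ρ) {δ η lam N : ℝ}
    (hδ : 0 < δ) (hη : 0 < η) (hδη : 240000 * δ ≤ η) (hη1 : η ≤ 1)
    (hB : ∀ t ∈ Bd, ∀ b0 b1 G, IsExp q e w (L t) z0 ρ b0 b1 G → 0 < kap b0 b1 G ∧
      a ≤ δ * (w 0 * kap b0 b1 G) ∧ |shB1 b0 b1 2| ≤ δ * kap b0 b1 G ∧
      η ≤ |det3 (fan (shB0 b0) (scB1 (kap b0 b1 G) b0 b1) (scG (kap b0 b1 G) b0 G) 0)|)
    (hl : 73 * (δ + 2 * (10 ^ 15 * δ / η ^ 2)) ≤ lam) (hl1 : lam ≤ 1 / 2) (hN0 : 0 ≤ N)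
    (hN : ∀ t ∈ A, ((A.filter fun t' => InSheet (L t') e (L t) (fun k => lam * w k) q a z0 ρ).card :
      ℝ) ≤ N) : (Bd.card : ℝ) ≤ 18 / δ ^ 2 * N := by
  have hδ1 : δ ≤ 1 / 240000 := by linarith
  obtain ⟨om, hom⟩ : ∃ om, om = 10 ^ 15 * δ / η ^ 2 := ⟨_, rfl⟩
  rw [← hom] at hl
  have hom0 : 0 < om := by rw [hom]; positivity
  have hδom : 12 * δ ≤ om := by
    rw [hom, le_div_iff₀ (by positivity)]
    have h1 : η ^ 2 ≤ 1 := pow_le_one₀ hη.le hη1
    have h2 : 12 * δ * η ^ 2 ≤ 12 * δ * 1 := mul_le_mul_of_nonneg_left h1 (by positivity)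
    linarith
  -- lines of one cell and one cluster
  have clus : ∀ P ⊆ A, ∀ T : Ln4, ∀ m1 m2 : ℝ,
      (∀ t ∈ P, ∀ t' ∈ P, |rp e w z0 ρ (L t) (L t') 0 1| ≤ δ ∧ |rp e w z0 ρ (L t) (L t') 0 2| ≤ δ) →
      (∀ t ∈ P, a / w 0 ≤ 13 * δ) →
      (∀ t ∈ P, |vel e w ρ T (L t) 1 - m1| ≤ om ∧ |vel e w ρ T (L t) 2 - m2| ≤ om) →
      (P.card : ℝ) ≤ N := by
    intro P hP T m1 m2 hx ha hv
    rcases P.eq_empty_or_nonempty with rfl | ⟨t1, ht1⟩
    · simpa using hN0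
    refine le_trans ?_ (hN t1 (hP ht1))
    refine Nat.cast_le.2 (card_le_card fun t ht => ?_)
    rw [mem_filter]
    refine ⟨hP ht, ?_⟩
    obtain ⟨b0, b1, G, hE⟩ := exists_isExp hq e (S.pos 0).ne' (L t1) z0 ρ
    have hvv : ∀ k (m : ℝ), |vel e w ρ T (L t) k - m| ≤ om → |vel e w ρ T (L t1) k - m| ≤ om →
        |vel e w ρ (L t1) (L t) k| ≤ 2 * om := by
      intro k m k1 k2
      have e1 : vel e w ρ (L t1) (L t) k = (vel e w ρ T (L t) k - m) -
          (vel e w ρ T (L t1) k - m) := by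
        simp only [vel, dt, Pi.sub_apply]; ring
      rw [e1]
      exact (abs_sub _ _).trans (by linarith)
    have ha1 := ha t1 ht1
    exact in_scaled S hρ (hA t1 (hP ht1)) (hA t (hP ht)) hE (hx t1 ht1 t ht).1 (hx t1 ht1 t ht).2
      (hvv 1 m1 (hv t ht).1 (hv t1 ht1).1) (hvv 2 m2 (hv t ht).2 (hv t1 ht1).2)
      (by linarith) (by linarith) hl
  -- thickness
  have hthick : ∀ t ∈ Bd, a / w 0 ≤ 13 * δ := by
    intro t ht
    obtain ⟨b0, b1, G, hE⟩ := exists_isExp hq e (S.pos 0).ne' (L t) z0 ρ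
    obtain ⟨k0, ka, -, -⟩ := hB t ht b0 b1 G hE
    have Nn := hE.nrmC S hρ.le (fun z h1 h2 => (hA t (hBA ht) z h1 h2).1)
    have h13 := kap_le Nn
    rw [div_le_iff₀ (S.pos 0)]
    refine ka.trans ?_
    have h2 : w 0 * kap b0 b1 G ≤ w 0 * 13 := mul_le_mul_of_nonneg_left h13 (S.pos 0).le
    have h3 := mul_le_mul_of_nonneg_left h2 hδ.le
    linarith
  -- cells
  obtain ⟨F, hF⟩ : ∃ F : ℕ → ℤ × ℤ, F = fun t =>
    (⌊lc' e c w z0 (L t) 1 / δ⌋, ⌊lc' e c w z0 (L t) 2 / δ⌋) := ⟨_, rfl⟩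
  obtain ⟨Z, hZ⟩ : ∃ Z : Finset ℤ, Z = Icc (-⌈1 / δ⌉) ⌈1 / δ⌉ := ⟨_, rfl⟩
  have hδi : 3 ≤ 1 / δ := by
    rw [le_div_iff₀ hδ]; linarith
  have hZc : (Z.card : ℝ) ≤ 3 / δ := by
    have h1 := Int.ceil_lt_add_one (1 / δ)
    have h0 : (0 : ℤ) ≤ ⌈1 / δ⌉ := Int.ceil_nonneg (by linarith)
    have h2 : (Z.card : ℤ) = 2 * ⌈1 / δ⌉ + 1 := by
      rw [hZ, Int.card_Icc, Int.toNat_of_nonneg (by linarith)]; ring
    have h3 : (Z.card : ℝ) = 2 * (⌈1 / δ⌉ : ℝ) + 1 := by exact_mod_cast h2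
    have h4 : 3 / δ = 3 * (1 / δ) := by ring
    rw [h3, h4]
    linarith
  have hmem : ∀ t ∈ A, ∀ k, ⌊lc' e c w z0 (L t) k / δ⌋ ∈ Z := by
    intro t ht k
    have h3 := (hA t ht z0 le_rfl (by linarith)).1 k
    have h4 : |lc' e c w z0 (L t) k| ≤ 1 := by
      unfold lc'
      rw [abs_div, abs_of_pos (S.pos k), div_le_one (S.pos k)]
      exact h3
    rw [abs_le] at h4
    have h5 : lc' e c w z0 (L t) k / δ ≤ 1 / δ := div_le_div_of_nonneg_right h4.2 hδ.le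
    have h6 : -(1 / δ) ≤ lc' e c w z0 (L t) k / δ := by
      rw [← neg_div]; exact div_le_div_of_nonneg_right h4.1 hδ.le
    have h7 := Int.le_ceil (1 / δ)
    rw [hZ, mem_Icc]
    constructor
    · rw [Int.le_floor]; push_cast; linarith
    · exact Int.floor_le_iff.2 (by linarith)
  have hnear : ∀ t t' : ℕ, F t = F t' → |rp e w z0 ρ (L t) (L t') 0 1| ≤ δ ∧
      |rp e w z0 ρ (L t) (L t') 0 2| ≤ δ := by
    intro t t' hFF
    have e1 := congrArg (fun p => p.1) hFF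
    have e2 := congrArg (fun p => p.2) hFF
    simp only [hF] at e1 e2
    have near : ∀ {x y : ℝ}, ⌊x / δ⌋ = ⌊y / δ⌋ → |y - x| ≤ δ := by
      intro x y h
      have := Int.abs_sub_lt_one_of_floor_eq_floor h
      have e : x / δ - y / δ = -((y - x) / δ) := by ring
      rw [e, abs_neg, abs_div, abs_of_pos hδ, div_lt_one hδ] at this
      exact this.le
    constructor
    · rw [rp_eq_lc (c := c), mul_zero, add_zero]
      exact near e1
    · rw [rp_eq_lc (c := c), mul_zero, add_zero]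
      exact near e2
  -- one cell
  have hcell : ∀ y ∈ Bd.image F, ((Bd.filter fun t => F t = y).card : ℝ) ≤ 2 * N := by
    intro y hy
    obtain ⟨t0, ht0, hFt0⟩ := mem_image.1 hy
    obtain ⟨b0, b1, G, hE⟩ := exists_isExp hq e (S.pos 0).ne' (L t0) z0 ρ
    obtain ⟨k0, ka, kl, kd⟩ := hB t0 ht0 b0 b1 G hE
    obtain ⟨Y, hY⟩ : ∃ Y, Y = Bd.filter fun t => F t = y := ⟨_, rfl⟩
    rw [← hY]
    have hYB : ∀ t ∈ Y, t ∈ Bd ∧ F t = y := by
      intro t ht
      rw [hY, mem_filter] at ht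
      exact ht
    have hdich : ∀ t ∈ Y, (|vel e w ρ (L t0) (L t) 1| ≤ om ∧ |vel e w ρ (L t0) (L t) 2| ≤ om) ∨
        (|vel e w ρ (L t0) (L t) 1 - vB1 (scG (kap b0 b1 G) b0 G) (scB1 (kap b0 b1 G) b0 b1)| ≤ om ∧
          |vel e w ρ (L t0) (L t) 2 - vB2 (scG (kap b0 b1 G) b0 G)
            (scB1 (kap b0 b1 G) b0 b1)| ≤ om) := by
      intro t ht
      obtain ⟨h1, h2⟩ := hYB t ht
      obtain ⟨b0', b1', G', hE'⟩ := exists_isExp hq e (S.pos 0).ne' (L t) z0 ρ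
      obtain ⟨-, -, kl', -⟩ := hB t h1 b0' b1' G' hE'
      have hx := hnear t0 t (hFt0.trans h2.symm)
      have := two_cl S hρ.le (hA t0 (hBA ht0)) (hA t (hBA h1)) hE hE' hδ hη hδη hη1 k0 ka hx.1 hx.2
        kl kl' kd
      rw [← hom] at this
      exact this
    obtain ⟨p1, hp1⟩ : ∃ p1 : ℕ → Prop, ∀ t, p1 t ↔ (|vel e w ρ (L t0) (L t) 1 - 0| ≤ om ∧
        |vel e w ρ (L t0) (L t) 2 - 0| ≤ om) := ⟨_, fun _ => Iff.rfl⟩
    obtain ⟨p2, hp2⟩ : ∃ p2 : ℕ → Prop, ∀ t, p2 t ↔ (|vel e w ρ (L t0) (L t) 1 -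
        vB1 (scG (kap b0 b1 G) b0 G) (scB1 (kap b0 b1 G) b0 b1)| ≤ om ∧
        |vel e w ρ (L t0) (L t) 2 - vB2 (scG (kap b0 b1 G) b0 G)
          (scB1 (kap b0 b1 G) b0 b1)| ≤ om) := ⟨_, fun _ => Iff.rfl⟩
    have hsub : Y ⊆ Y.filter p1 ∪ Y.filter p2 := by
      intro t ht
      rw [mem_union, mem_filter, mem_filter, hp1, hp2]
      rcases hdich t ht with h | h
      · left
        rw [sub_zero, sub_zero]
        exact ⟨ht, h⟩
      · right
        exact ⟨ht, h⟩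
    have hYA : ∀ p : ℕ → Prop, Y.filter p ⊆ A := fun p t ht =>
      hBA (hYB t (mem_filter.1 ht).1).1
    have hYx : ∀ p : ℕ → Prop, ∀ t ∈ Y.filter p, ∀ t' ∈ Y.filter p,
        |rp e w z0 ρ (L t) (L t') 0 1| ≤ δ ∧ |rp e w z0 ρ (L t) (L t') 0 2| ≤ δ := by
      intro p t ht t' ht'
      exact hnear t t' ((hYB t (mem_filter.1 ht).1).2.trans (hYB t' (mem_filter.1 ht').1).2.symm)
    have hYt : ∀ p : ℕ → Prop, ∀ t ∈ Y.filter p, a / w 0 ≤ 13 * δ := fun p t ht =>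
      hthick t (hYB t (mem_filter.1 ht).1).1
    have c1 := clus _ (hYA p1) (L t0) 0 0 (hYx p1) (hYt p1)
      (fun t ht => (hp1 t).1 (mem_filter.1 ht).2)
    have c2 := clus _ (hYA p2) (L t0) (vB1 (scG (kap b0 b1 G) b0 G) (scB1 (kap b0 b1 G) b0 b1))
      (vB2 (scG (kap b0 b1 G) b0 G) (scB1 (kap b0 b1 G) b0 b1)) (hYx p2) (hYt p2)
      (fun t ht => (hp2 t).1 (mem_filter.1 ht).2)
    have h3 := (card_le_card hsub).trans (card_union_le _ _)
    have h4 : (Y.card : ℝ) ≤ ((Y.filter p1).card : ℝ) + ((Y.filter p2).card : ℝ) := by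
      exact_mod_cast h3
    linarith
  -- number of cells
  have hsub : Bd.image F ⊆ Z ×ˢ Z := by
    intro y hy
    obtain ⟨t, ht, rfl⟩ := mem_image.1 hy
    simp only [hF, mem_product]
    exact ⟨hmem t (hBA ht) 1, hmem t (hBA ht) 2⟩
  have hcells : ((Bd.image F).card : ℝ) ≤ 9 / δ ^ 2 := by
    have h1 : ((Bd.image F).card : ℝ) ≤ (Z.card : ℝ) * (Z.card : ℝ) := by
      have := card_le_card hsub
      rw [card_product] at this
      exact_mod_cast this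
    have h2 : (Z.card : ℝ) * (Z.card : ℝ) ≤ 3 / δ * (3 / δ) :=
      mul_le_mul hZc hZc (Nat.cast_nonneg _) (by positivity)
    have h3 : 3 / δ * (3 / δ) = 9 / δ ^ 2 := by field_simp; norm_num
    linarith
  calc (Bd.card : ℝ) = ((∑ y ∈ Bd.image F, (Bd.filter fun t => F t = y).card : ℕ) : ℝ) := by
        rw [card_eq_sum_card_image F Bd]
    _ = ∑ y ∈ Bd.image F, ((Bd.filter fun t => F t = y).card : ℝ) := by push_cast; rfl
    _ ≤ ∑ y ∈ Bd.image F, 2 * N := sum_le_sum hcell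
    _ = (Bd.image F).card * (2 * N) := by rw [sum_const, nsmul_eq_mul]
    _ ≤ 9 / δ ^ 2 * (2 * N) := mul_le_mul_of_nonneg_right hcells (by linarith)
    _ = 18 / δ ^ 2 * N := by ring

section negl

variable {σ κ : Type*} {B : Base} {I : ℕ → Finset (ℕ × ℝ)} {G : Geo σ κ} {lev : ℕ → ℚ → ℕ}
    {A : ℕ → ℝ} {c Λ : ℝ → ℝ} {τ : κ → ℝ → ℝ} {f : ℕ → ℚ → ℕ → ℤ → ℕ} {b : ℕ → ℚ → ℕ → σ}
    {vm : ℕ → ℚ → ℝ} {w : κ → ℕ → ℚ → ℝ}

open Classical in
/-- **a power small part of the lines of every class of one level is negligible** -/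
theorem negl_of_cls (h : MkA B I G lev A c Λ τ f b vm w) {v : ℚ} (hv0 : 0 ≤ v) (hv1 : v ≤ 1)
    (P : ℕ → ℤ → ℕ → Prop) {k : ℝ} (hk : 0 < k)
    (hP : ∀ᶠ n in (U : Filter ℕ), ∀ x ∈ I n,
      (((cls I lev f n v x).filter fun t => P n (zc (lev n v) x.2) t).card : ℝ) ≤
        B.d n ^ k * ((cls I lev f n v x).card : ℝ)) :
    Negl B I fun n x => P n (zc (lev n v) x.2) x.1 := by
  have k4 : 0 < k / 4 := by positivity
  refine ⟨k / 2, by positivity, ?_⟩
  filter_upwards [hP, fib_bounds h v hv0 hv1 k4] with n hP hfb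
  have dp := dpow_pos B n
  obtain ⟨i, hi⟩ : ∃ i, i = lev n v := ⟨_, rfl⟩
  obtain ⟨g, hg⟩ : ∃ g, g = kc i (f n v) := ⟨_, rfl⟩
  -- one class
  have one : ∀ o ∈ (I n).image g,
      ((((I n).filter fun x => P n (zc (lev n v) x.2) x.1).filter fun x => g x = o).card : ℝ) ≤
        B.d n ^ (k / 2) * (((I n).filter fun x => g x = o).card : ℝ) := by
    intro o ho
    obtain ⟨x, hx, rfl⟩ := mem_image.1 ho
    have h1 := hP x hx
    rw [← hi] at h1
    obtain ⟨J, hJ⟩ : ∃ J, J = zc i x.2 := ⟨_, rfl⟩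
    obtain ⟨a, ha⟩ : ∃ a, a = f n v x.1 J := ⟨_, rfl⟩
    rw [← hJ] at h1
    have hcls : cls I lev f n v x = (alive (I n) i J).filter fun t => f n v t J = a := by
      rw [ha, hJ, hi]; rfl
    rw [hcls] at h1
    -- incidences of the class
    have kI : ((I n).filter fun y => g y = g x) =
        (I n).filter fun y => (lc i y).2 = J ∧ f n v (lc i y).1 J = a := by
      ext y
      rw [mem_filter, mem_filter]
      simp only [hg, kc, lc, Prod.mk.injEq, ← hJ, ← ha]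
      constructor
      · rintro ⟨h5, h6, h7⟩
        exact ⟨h5, h7, by rw [← h7]; exact h6⟩
      · rintro ⟨h5, h7, h6⟩
        exact ⟨h5, by rw [h7]; exact h6, h7⟩
    obtain ⟨ψ, hψ⟩ : ∃ ψ : ℕ → ℕ, ∀ s, ψ s = 1 ↔ (f n v s J = a ∧ P n J s) := by
      refine ⟨fun s => if (f n v s J = a ∧ P n J s) then 1 else 0, fun s => ?_⟩
      by_cases hc : f n v s J = a ∧ P n J s
      · simp [hc]
      · simp only [if_neg hc]
        exact iff_of_false (by norm_num) hc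
    have kB : (((I n).filter fun x => P n (zc (lev n v) x.2) x.1).filter fun y => g y = g x) =
        (I n).filter fun y => (lc i y).2 = J ∧ ψ (lc i y).1 = 1 := by
      ext y
      rw [filter_filter, mem_filter, mem_filter, hψ]
      simp only [hg, kc, lc, Prod.mk.injEq, ← hJ, ← ha, ← hi]
      constructor
      · rintro ⟨h5, h8, h6, h7⟩
        exact ⟨h5, h7, by rw [← h7]; exact h6, by rw [← h7]; exact h8⟩
      · rintro ⟨h5, h7, h6, h8⟩
        exact ⟨h5, by rw [h7]; exact h8, by rw [h7]; exact h6, h7⟩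
    have l1 : B.d n ^ (-(1 - (v : ℝ)) + (Λ 1 - Λ v) + k / 4) *
        (((alive (I n) i J).filter fun t => f n v t J = a).card : ℝ) ≤
        (((I n).filter fun y => g y = g x).card : ℝ) := by
      rw [kI, card_class (I n) i J (fun s => f n v s J) a]
      have := mul_card_filter_le (n₁ := B.d n ^ (-(1 - (v : ℝ)) + (Λ 1 - Λ v) + k / 4)) (lc i)
        (I n) (fun o => o.2 = J ∧ f n v o.1 J = a) (fun y hy => by
          rw [hi]; convert (hfb y hy).1)
      convert this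
    have l2 : ((((I n).filter fun x => P n (zc (lev n v) x.2) x.1).filter
        fun y => g y = g x).card : ℝ) ≤ B.d n ^ (-(1 - (v : ℝ)) + (Λ 1 - Λ v) - k / 4) *
        (((alive (I n) i J).filter fun s => ψ s = 1).card : ℝ) := by
      rw [kB, card_class (I n) i J ψ 1]
      have := card_filter_le_mul (n₂ := B.d n ^ (-(1 - (v : ℝ)) + (Λ 1 - Λ v) - k / 4)) (lc i)
        (I n) (fun o => o.2 = J ∧ ψ o.1 = 1) (fun y hy => by
          rw [hi]; convert (hfb y hy).2)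
      convert this
    have c3 : ((alive (I n) i J).filter fun s => ψ s = 1) =
        ((alive (I n) i J).filter fun t => f n v t J = a).filter fun t => P n J t := by
      ext s
      rw [filter_filter, mem_filter, mem_filter, hψ]
    rw [c3] at l2
    refine l2.trans ?_
    obtain ⟨X, hX⟩ : ∃ X : ℝ, X = (((alive (I n) i J).filter fun t => f n v t J = a).card : ℝ) :=
      ⟨_, rfl⟩
    rw [← hX] at l1 h1
    have e3 : B.d n ^ (-(1 - (v : ℝ)) + (Λ 1 - Λ v) - k / 4) * B.d n ^ k =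
        B.d n ^ (k / 2) * B.d n ^ (-(1 - (v : ℝ)) + (Λ 1 - Λ v) + k / 4) := by
      rw [← dpow_add, ← dpow_add]; congr 1; ring
    calc _ ≤ B.d n ^ (-(1 - (v : ℝ)) + (Λ 1 - Λ v) - k / 4) * (B.d n ^ k * X) :=
          mul_le_mul_of_nonneg_left h1 (dp _).le
      _ = B.d n ^ (k / 2) * (B.d n ^ (-(1 - (v : ℝ)) + (Λ 1 - Λ v) + k / 4) * X) := by
          rw [← mul_assoc, e3, mul_assoc]
      _ ≤ _ := mul_le_mul_of_nonneg_left l1 (dp _).le
  have h1 : (((I n).filter fun x => P n (zc (lev n v) x.2) x.1).card : ℝ) =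
      ∑ o ∈ (I n).image g,
        ((((I n).filter fun x => P n (zc (lev n v) x.2) x.1).filter fun x => g x = o).card : ℝ) := by
    rw [card_eq_sum_card_fiberwise (f := g) (t := (I n).image g) (fun x hx => by
      simp only [coe_filter, Set.mem_ofPred_eq] at hx
      exact mem_coe.2 (mem_image_of_mem _ hx.1))]
    push_cast; rfl
  have h2 : ((I n).card : ℝ) = ∑ o ∈ (I n).image g, (((I n).filter fun x => g x = o).card : ℝ) := by
    rw [card_eq_sum_card_image g (I n)]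
    push_cast; rfl
  rw [h1, h2, mul_sum]
  exact sum_le_sum one

end negl

end Crest.Agent.R136.Kil327
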