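import Crest.Agent.R136.Kil5_327

/-!
# R136, U6 thin (helper327): typical lines rotate along the second axis

**`kilN`** : at one level, thin and nondegenerate along all lines: off a negligible set the rotation of
the sheet along the second axis (scaled tangent coordinates) is at least `d^ε`, for every `ε > 0`.
No smallness of the sheet, no tilt, no second level.
-/

set_option autoImplicit false
set_option linter.unusedVariables false

open Finset Filter Topology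

namespace Crest.Agent.R136.Kil327

open Crest.Agent.R138.Ex926 (Base U)
open Crest.Agent.R138.Mk163 (zc zl rho alive own Negl)
open Crest.Agent.R138.Dp76 (dpow_pos dpow_add dpow_le dpow_le_one)
open Crest.Agent.R138.ArgM163 (ev_const ev_const_mul)
open Crest.Agent.R136.MkA627 Crest.Agent.R136.K4
open Crest.Agent.R136.Sh605 Crest.Agent.R136.Tl102
open Crest.Agent.R136.Arc880 (det3)
open Crest.Agent.R136.KapP335 (DetP kapP detP_iff kapP_eq isExp_unique)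
open Crest.Agent.R136.Tn327 (GeoS cls mk mem_alive_of)

/-- the sheet `s` scaled by `r` around the line `c'` -/
noncomputable def scl (s : Plk4) (r : ℝ) (c' : Ln4) : Plk4 :=
  { s with c := c', w := fun k => r * s.w k }

theorem val_scl {Γ : Geo Plk4 (Fin 3)} {L : ℕ → ℕ → Ln4} {r0 : ℕ → ℝ} {q : Fin 3 → ℝ}
    (hG : GeoS Γ L r0 q) (n i : ℕ) (J : ℤ) (s : Plk4) {r : ℝ} (hr : 0 < r) (c' : Ln4)
    (h1 : 0 < s.w 1) (h2 : 0 < s.w 2) :
    Γ.val n i J (scl s r c') = r ^ (2 + (q 1 + q 2)) * Γ.val n i J s := by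
  rw [hG.val, hG.val]
  have hρ := Tn327.rho_pos' i
  have e1 : r * s.w 1 / rho i = r * (s.w 1 / rho i) := by ring
  have e2 : r * s.w 2 / rho i = r * (s.w 2 / rho i) := by ring
  have h3 : 0 ≤ s.w 1 / rho i := div_nonneg h1.le hρ.le
  have h4 : 0 ≤ s.w 2 / rho i := div_nonneg h2.le hρ.le
  have e3 : r ^ (2 + (q 1 + q 2)) = r * r * (r ^ q 1 * r ^ q 2) := by
    rw [Real.rpow_add hr, Real.rpow_add hr, Real.rpow_two, sq]
  show s.a * (r * s.w 2) * (r * s.w 1) *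
    ((s.a / rho i) ^ q 0 * (r * s.w 1 / rho i) ^ q 1 * (r * s.w 2 / rho i) ^ q 2) = _
  rw [e1, e2, Real.mul_rpow hr.le h3, Real.mul_rpow hr.le h4, e3]
  ring

theorem kap_pos_of_det {b0 b1 : V3} {G : QF} (h : b0 0 ≠ 0) {η : ℝ} (hη : 0 < η)
    (hD : η ≤ |det3 (fan (shB0 b0) (scB1 (kap b0 b1 G) b0 b1) (scG (kap b0 b1 G) b0 G) 0)|) :
    0 < kap b0 b1 G := by
  rcases (kap_nonneg b0 b1 G).lt_or_eq with h1 | h1
  · exact h1
  · exfalso
    rw [← h1, det3_fan0 h _ _ (b1 := b1)] at hD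
    have e1 : (scG 0 b0 G).uu = 0 := div_zero _
    have e2 : (scG 0 b0 G).uv = 0 := div_zero _
    have e3 : (scG 0 b0 G).vv = 0 := div_zero _
    have e4 : dd (scG 0 b0 G) (scB1 0 b0 b1) = 0 := by
      simp only [dd, e1, e2, e3]; ring
    rw [e4, neg_zero, zero_div, abs_zero] at hD
    linarith

set_option maxHeartbeats 1000000 in
open Classical in
/-- **typical lines rotate along the second axis** -/
theorem kilN {B : Base} {I : ℕ → Finset (ℕ × ℝ)} {Γ : Geo Plk4 (Fin 3)} {lev : ℕ → ℚ → ℕ}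
    {A : ℕ → ℝ} {c Λ : ℝ → ℝ} {τ : Fin 3 → ℝ → ℝ} {f : ℕ → ℚ → ℕ → ℤ → ℕ} {b : ℕ → ℚ → ℕ → Plk4}
    {vm : ℕ → ℚ → ℝ} {w : Fin 3 → ℕ → ℚ → ℝ} {L : ℕ → ℕ → Ln4} {r0 : ℕ → ℝ} {q : Fin 3 → ℝ}
    (hM : MkA B I Γ lev A c Λ τ f b vm w) (hG : GeoS Γ L r0 q) (hr0 : ∀ n, 0 < r0 n)
    (hq : 0 < q 1 + q 2) {v : ℚ} (hv0 : 0 ≤ v) (hv1 : v ≤ 1)
    (hadm : ∀ p : ℝ, 0 < p → ∀ᶠ n in (U : Filter ℕ), ∀ x ∈ I n, ∀ r : ℝ, B.d n ^ p ≤ r → r ≤ 1 →
      ∀ c' : Ln4, ShN (mk lev f b n v x).e c' (fun k => r * (mk lev f b n v x).w k)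
          (mk lev f b n v x).q (mk lev f b n v x).a (zl (lev n v) (zc (lev n v) x.2))
          (rho (lev n v)) (r0 n) →
        Γ.adm n (lev n v) (zc (lev n v) x.2) (scl (mk lev f b n v x) r c'))
    (hd : ∀ ε : ℝ, 0 < ε → ∀ᶠ n in (U : Filter ℕ), ∀ x ∈ I n, DetP (B.d n ^ ε)
      (mk lev f b n v x) (zl (lev n v) (zc (lev n v) x.2)) (rho (lev n v)) (L n x.1))
    {c0 : ℝ} (hc0 : 0 < c0) (ht : ∀ᶠ n in (U : Filter ℕ), ∀ x ∈ I n,
      (mk lev f b n v x).a ≤ B.d n ^ c0 * kapP (mk lev f b n v x)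
        (zl (lev n v) (zc (lev n v) x.2)) (rho (lev n v)) (L n x.1))
    {ε : ℝ} (hε : 0 < ε) :
    Negl B I fun n x => ¬ ∀ b0 b1 G, IsExp (mk lev f b n v x).q (mk lev f b n v x).e
      (mk lev f b n v x).w (L n x.1) (zl (lev n v) (zc (lev n v) x.2)) (rho (lev n v)) b0 b1 G →
        B.d n ^ ε ≤ |scB1 (kap b0 b1 G) b0 b1 2| := by
  obtain ⟨s, hs⟩ : ∃ s, s = q 1 + q 2 := ⟨_, rfl⟩
  rw [← hs] at hq
  obtain ⟨ε₁, hε₁⟩ : ∃ e, e = min ε c0 := ⟨_, rfl⟩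
  have he0 : 0 < ε₁ := by rw [hε₁]; exact lt_min hε hc0
  have heε : ε₁ ≤ ε := by rw [hε₁]; exact min_le_left _ _
  have hec : ε₁ ≤ c0 := by rw [hε₁]; exact min_le_right _ _
  obtain ⟨σ, hσ⟩ : ∃ σ, σ = s / (12 * (2 + s)) := ⟨_, rfl⟩
  have hσ0 : 0 < σ := by rw [hσ]; positivity
  have hσ1 : 3 * σ * (2 + s) = s / 4 := by
    rw [hσ]; field_simp; ring
  have hσ2 : σ ≤ 1 / 12 := by
    rw [hσ, div_le_div_iff₀ (by positivity) (by norm_num)]
    nlinarith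
  have p1 : 0 < (1 - σ) * ε₁ := mul_pos (by linarith) he0
  have p2 : 0 < σ * ε₁ := mul_pos hσ0 he0
  have p3 : 0 < (1 - 3 * σ) * ε₁ := mul_pos (by linarith) he0
  have p4 : 0 < ε₁ * s / 4 := by positivity
  have p8 : 0 < ε₁ * s / 8 := by positivity
  obtain ⟨P, hP⟩ : ∃ P : ℕ → ℤ → ℕ → Prop, ∀ n J t, P n J t ↔ ¬ ∀ b0 b1 G,
      IsExp (b n v (f n v t J)).q (b n v (f n v t J)).e (b n v (f n v t J)).w (L n t)
        (zl (lev n v) J) (rho (lev n v)) b0 b1 G → B.d n ^ ε ≤ |scB1 (kap b0 b1 G) b0 b1 2| :=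
    ⟨_, fun _ _ _ => Iff.rfl⟩
  have hPe : (fun (n : ℕ) (x : ℕ × ℝ) => ¬ ∀ b0 b1 G, IsExp (mk lev f b n v x).q
      (mk lev f b n v x).e (mk lev f b n v x).w (L n x.1) (zl (lev n v) (zc (lev n v) x.2))
        (rho (lev n v)) b0 b1 G → B.d n ^ ε ≤ |scB1 (kap b0 b1 G) b0 b1 2|) =
      fun n x => P n (zc (lev n v) x.2) x.1 := by
    funext n x
    exact propext (hP n _ _).symm
  rw [hPe]
  refine negl_of_cls hM hv0 hv1 P p4 ?_
  filter_upwards [hd (σ * ε₁) p2, ht, hM.dmax v hv0 hv1 _ p8, hM.near v hv0 hv1 _ p8,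
    hM.mark v hv0 hv1, hadm _ p3, ev_const_mul B (show (0 : ℝ) < 240000 by norm_num) p1,
    ev_const_mul B (show (0 : ℝ) < 10 ^ 18 by norm_num) p2,
    ev_const_mul B (show (0 : ℝ) < 2 by norm_num) p3,
    ev_const_mul B (show (0 : ℝ) < 18 by norm_num) p4, hM.vpos v hv0 hv1]
    with n hd ht hdm hnr hm hadm c1 c2 c3 c4 hvp x hx
  have dp := dpow_pos B n
  obtain ⟨i, hi⟩ : ∃ i, i = lev n v := ⟨_, rfl⟩
  obtain ⟨J, hJ⟩ : ∃ J, J = zc i x.2 := ⟨_, rfl⟩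
  obtain ⟨S, hS⟩ : ∃ S, S = mk lev f b n v x := ⟨_, rfl⟩
  rw [← hi, ← hJ]
  have hadm := hadm x hx
  simp only [← hi] at hd ht hdm hnr hm hadm
  simp only [← hJ, ← hS] at hadm
  have hxa : x.1 ∈ alive (I n) i J := by rw [hJ]; exact mem_alive_of hx
  have hSx : b n v (f n v x.1 J) = S := by rw [hS, hJ, hi]; rfl
  -- lines of the class
  have hcl : ∀ t ∈ cls (I) lev f n v x, t ∈ alive (I n) i J ∧ f n v t J = f n v x.1 J := by
    intro t ht
    simp only [cls, mem_filter, ← hi, ← hJ] at ht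
    exact ht
  have hbt : ∀ t ∈ cls I lev f n v x, b n v (f n v t J) = S := by
    intro t ht
    rw [(hcl t ht).2, hSx]
  have hinc : ∀ t ∈ cls (I) lev f n v x, ∃ y ∈ I n, y.1 = t ∧ zc i y.2 = J := by
    intro t ht
    have h1 := (hcl t ht).1
    simp only [alive, mem_image, mem_filter] at h1
    obtain ⟨y, ⟨h2, h3⟩, h4⟩ := h1
    exact ⟨y, h2, h4, h3⟩
  have hmk : ∀ y : ℕ × ℝ, y.1 ∈ cls I lev f n v x → zc i y.2 = J → mk lev f b n v y = S := by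
    intro y h1 h2
    rw [← hbt y.1 h1]
    show b n v (f n v y.1 (zc (lev n v) y.2)) = _
    rw [← hi, h2]
  have hmx := hm J x.1 hxa
  rw [hSx] at hmx
  have hShN : ShN S.e S.c S.w S.q S.a (zl i J) (rho i) (r0 n) := hG.adm _ _ _ _ hmx.2.1
  have hpos := (Sh321.ShN.toC (hr0 n) hShN).pos (hr0 n)
  have hw0 : 0 < S.w 0 := hpos.2.1
  have hSt : StP S.e S.c S.w S.q (zl i J) (rho i) := StP.of_shN hShN hw0
  have hρ : 0 < rho i := Tn327.rho_pos' i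
  have hin : ∀ t ∈ cls I lev f n v x, InSheet (L n t) S.e S.c S.w S.q S.a (zl i J) (rho i) := by
    intro t ht
    have h5 := (hm J t (hcl t ht).1).1
    rw [hbt t ht] at h5
    exact (hG.mem _ _ _ _ _).1 h5
  -- parameters
  obtain ⟨δ, hδ⟩ : ∃ δ, δ = B.d n ^ ε₁ := ⟨_, rfl⟩
  obtain ⟨η, hη⟩ : ∃ η, η = B.d n ^ (σ * ε₁) := ⟨_, rfl⟩
  obtain ⟨lam, hlam⟩ : ∃ l, l = B.d n ^ ((1 - 3 * σ) * ε₁) := ⟨_, rfl⟩
  rw [← hη] at hd
  have hδ0 : 0 < δ := by rw [hδ]; exact dp _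
  have hη0 : 0 < η := by rw [hη]; exact dp _
  have hl0 : 0 < lam := by rw [hlam]; exact dp _
  have hη1 : η ≤ 1 := by rw [hη]; exact dpow_le_one B n p2.le
  have hδη : 240000 * δ ≤ η := by
    have e1 : δ = B.d n ^ ((1 - σ) * ε₁) * η := by
      rw [hδ, hη, ← dpow_add]; congr 1; ring
    rw [e1]
    calc 240000 * (B.d n ^ ((1 - σ) * ε₁) * η) = (240000 * B.d n ^ ((1 - σ) * ε₁)) * η := by ring
      _ ≤ 1 * η := mul_le_mul_of_nonneg_right c1 hη0.le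
      _ = η := one_mul _
  have hη2 : η ^ 2 = B.d n ^ (2 * (σ * ε₁)) := by
    rw [hη, sq, ← dpow_add]; congr 1; ring
  have hl : 73 * (δ + 2 * (10 ^ 15 * δ / η ^ 2)) ≤ lam := by
    have e1 : δ / η ^ 2 = B.d n ^ (σ * ε₁) * lam := by
      rw [div_eq_iff (by positivity), hη2, hδ, hlam, ← dpow_add, ← dpow_add]; congr 1; ring
    have e2 : δ ≤ δ / η ^ 2 := by
      rw [le_div_iff₀ (by positivity)]
      have h1 : η ^ 2 ≤ 1 := pow_le_one₀ hη0.le hη1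
      calc δ * η ^ 2 ≤ δ * 1 := mul_le_mul_of_nonneg_left h1 hδ0.le
        _ = δ := mul_one _
    have e3 : 10 ^ 15 * δ / η ^ 2 = 10 ^ 15 * (δ / η ^ 2) := by ring
    rw [e3]
    have e4 : 73 * (δ + 2 * (10 ^ 15 * (δ / η ^ 2))) ≤ 10 ^ 18 * (δ / η ^ 2) := by
      have h1 : 0 ≤ δ / η ^ 2 := by positivity
      linarith
    refine e4.trans ?_
    rw [e1]
    calc 10 ^ 18 * (B.d n ^ (σ * ε₁) * lam) = (10 ^ 18 * B.d n ^ (σ * ε₁)) * lam := by ring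
      _ ≤ 1 * lam := mul_le_mul_of_nonneg_right c2 hl0.le
      _ = lam := one_mul _
  have hl1 : lam ≤ 1 / 2 := by rw [hlam]; linarith
  have hδl : 13 * δ ≤ lam := by
    have : 0 ≤ 10 ^ 15 * δ / η ^ 2 := by positivity
    linarith
  have hdε : B.d n ^ ε ≤ δ := by rw [hδ]; exact dpow_le B n heε
  have hdc : B.d n ^ c0 ≤ δ := by rw [hδ]; exact dpow_le B n hec
  -- expansions of the lines of the class
  have hex : ∀ t ∈ cls I lev f n v x, ∀ b0 b1 G, IsExp S.q S.e S.w (L n t) (zl i J) (rho i) b0 b1 G →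
      0 < kap b0 b1 G ∧ S.a ≤ δ * (S.w 0 * kap b0 b1 G) ∧
      η ≤ |det3 (fan (shB0 b0) (scB1 (kap b0 b1 G) b0 b1) (scG (kap b0 b1 G) b0 G) 0)| ∧
      kap b0 b1 G ≤ 13 := by
    intro t htc b0 b1 G hE
    obtain ⟨y, hy, hy1, hy2⟩ := hinc t htc
    have dy := hd y hy
    have ty := ht y hy
    rw [hmk y (by rw [hy1]; exact htc) hy2, hy2, hy1] at dy ty
    have hdet := (detP_iff hw0.ne' hE _).1 dy 0 le_rfl zero_le_one
    rw [kapP_eq hw0.ne' hE] at ty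
    have Nn := hE.nrmC hSt hρ.le (fun z h1 h2 => (hin t htc z h1 h2).1)
    have hb0 : b0 0 ≠ 0 := by
      have := Nn.b1_le.1
      linarith
    have hk := kap_pos_of_det hb0 hη0 hdet
    refine ⟨hk, ty.trans ?_, hdet, kap_le Nn⟩
    exact mul_le_mul_of_nonneg_right hdc (mul_pos hw0 hk).le
  have hal : S.a ≤ lam * S.w 0 := by
    obtain ⟨b0, b1, G, hE⟩ := exists_isExp hShN.isQ S.e hw0.ne' (L n x.1) (zl i J) (rho i)
    have hxc : x.1 ∈ cls I lev f n v x := by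
      simp only [cls, mem_filter, ← hi, ← hJ]
      exact ⟨hxa, trivial⟩
    obtain ⟨k1, k2, -, k4⟩ := hex x.1 hxc b0 b1 G hE
    refine k2.trans ?_
    calc δ * (S.w 0 * kap b0 b1 G) ≤ δ * (S.w 0 * 13) :=
          mul_le_mul_of_nonneg_left (mul_le_mul_of_nonneg_left k4 hw0.le) hδ0.le
      _ = 13 * δ * S.w 0 := by ring
      _ ≤ lam * S.w 0 := mul_le_mul_of_nonneg_right hδl hw0.le
  -- the count of one scaled plank
  obtain ⟨N, hNd⟩ : ∃ N, N = B.d n ^ (-(ε₁ * s / 8)) * ampA B A c n v *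
      (lam ^ (2 + s) * vm n v) := ⟨_, rfl⟩
  have hamp : 0 < ampA B A c n v := by
    unfold ampA
    exact mul_pos (hM.Apos n) (dp _)
  have hls : 0 < lam ^ (2 + s) := Real.rpow_pos_of_pos hl0 _
  have hN0 : 0 ≤ N := by
    rw [hNd]
    exact mul_nonneg (mul_nonneg (dp _).le hamp.le) (mul_nonneg hls.le hvp.le)
  have hN : ∀ t ∈ cls I lev f n v x, (((cls I lev f n v x).filter fun t' => InSheet (L n t') S.e
      (L n t) (fun k => lam * S.w k) S.q S.a (zl i J) (rho i)).card : ℝ) ≤ N := by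
    intro t htc
    have hsc := shN_scale (c' := L n t) hShN hSt.pos hl0 hl1 hal
      (fun z h1 h2 => (hin t htc z h1 h2).1)
    have h5 := hdm J (scl S lam (L n t)) (hadm lam hlam.ge (by linarith) _ hsc)
    rw [val_scl hG n i J S hl0 _ (hSt.pos 1) (hSt.pos 2), hmx.2.2.1, ← hs, ← hNd] at h5
    refine le_trans ?_ h5
    refine Nat.cast_le.2 (card_le_card ?_)
    intro t' ht'
    rw [mem_filter] at ht' ⊢
    exact ⟨(hcl t' ht'.1).1, (hG.mem _ _ _ _ _).2 ht'.2⟩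
  -- the bad lines
  have key := bad_card hSt hShN.isQ hρ (A := cls I lev f n v x)
    (Bd := (cls I lev f n v x).filter fun t => P n J t) (filter_subset _ _) hin hδ0 hη0 hδη hη1 (by
      intro t htB b0 b1 G hE
      rw [mem_filter, hP, ← hi] at htB
      obtain ⟨htc, hbad⟩ := htB
      obtain ⟨k1, k2, k3, k4⟩ := hex t htc b0 b1 G hE
      refine ⟨k1, k2, ?_, k3⟩
      rw [hbt t htc] at hbad
      push Not at hbad
      obtain ⟨b0', b1', G', hE', hlt⟩ := hbad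
      obtain ⟨e1, e2, e3⟩ := isExp_unique hw0.ne' hE' hE
      rw [e1, e2, e3] at hlt
      have h6 : |shB1 b0 b1 2 / kap b0 b1 G| ≤ δ := hlt.le.trans hdε
      rw [abs_div, abs_of_pos k1, div_le_iff₀ k1] at h6
      exact h6) hl hl1 hN0 hN
  -- arithmetic
  have hnx := hnr J x.1 hxa
  obtain ⟨X, hX⟩ : ∃ X : ℝ, X = ((cls I lev f n v x).card : ℝ) := ⟨_, rfl⟩
  have hcard : (((alive (I n) i J).filter fun t => f n v t J = f n v x.1 J).card : ℝ) = X := by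
    rw [hX]
    simp only [cls, ← hi, ← hJ]
  rw [hcard] at hnx
  rw [← hX]
  have hX0 : 0 ≤ X := by rw [hX]; exact Nat.cast_nonneg _
  have e1 : lam ^ (2 + s) = B.d n ^ ((1 - 3 * σ) * ε₁ * (2 + s)) := by
    rw [hlam, ← Real.rpow_mul (B.pos n).le]
  have e2 : 18 / δ ^ 2 * N = 18 * (B.d n ^ (-(2 * ε₁)) * B.d n ^ (-(ε₁ * s / 8)) * lam ^ (2 + s)) *
      (ampA B A c n v * vm n v) := by
    have h1 : 18 / δ ^ 2 = 18 * B.d n ^ (-(2 * ε₁)) := by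
      rw [div_eq_mul_inv]
      congr 1
      rw [hδ, Real.rpow_neg (B.pos n).le, sq, ← dpow_add]
      congr 2; ring
    rw [h1, hNd]; ring
  rw [e2] at key
  have e3 : B.d n ^ (-(2 * ε₁)) * B.d n ^ (-(ε₁ * s / 8)) * lam ^ (2 + s) *
      B.d n ^ (-(ε₁ * s / 8)) = B.d n ^ (ε₁ * s / 4) * B.d n ^ (ε₁ * s / 4) := by
    rw [e1, ← dpow_add, ← dpow_add, ← dpow_add, ← dpow_add]
    congr 1
    have : (1 - 3 * σ) * ε₁ * (2 + s) = ε₁ * (2 + s) - ε₁ * (3 * σ * (2 + s)) := by ring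
    rw [this, hσ1]; ring
  calc _ ≤ 18 * (B.d n ^ (-(2 * ε₁)) * B.d n ^ (-(ε₁ * s / 8)) * lam ^ (2 + s)) *
      (ampA B A c n v * vm n v) := key
    _ ≤ 18 * (B.d n ^ (-(2 * ε₁)) * B.d n ^ (-(ε₁ * s / 8)) * lam ^ (2 + s)) *
        (B.d n ^ (-(ε₁ * s / 8)) * X) :=
      mul_le_mul_of_nonneg_left hnx (mul_nonneg (by norm_num)
        (mul_nonneg (mul_nonneg (dp _).le (dp _).le) hls.le))
    _ = (18 * (B.d n ^ (-(2 * ε₁)) * B.d n ^ (-(ε₁ * s / 8)) * lam ^ (2 + s) *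
        B.d n ^ (-(ε₁ * s / 8)))) * X := by ring
    _ = (18 * B.d n ^ (ε₁ * s / 4)) * B.d n ^ (ε₁ * s / 4) * X := by rw [e3]; ring
    _ ≤ 1 * B.d n ^ (ε₁ * s / 4) * X :=
      mul_le_mul_of_nonneg_right (mul_le_mul_of_nonneg_right c4 (dp _).le) hX0
    _ = B.d n ^ (ε₁ * s / 4) * X := by rw [one_mul]

end Crest.Agent.R136.Kil327
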