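import Crest.Agent.R136.Kil6_327

/-!
# R136, U6 thin (helper327): `kilN` for the geometry `geo4` (range of the widths)

`hadm_geo4` : the scaled marks are admissible; **`kilN4`** : typical lines rotate along the second axis.
-/

set_option autoImplicit false
set_option linter.unusedVariables false

open Finset Filter Topology

namespace Crest.Agent.R136.Kil327

open Crest.Agent.R138.Ex926 (Base U)
open Crest.Agent.R138.Mk163 (zc zl rho alive own Negl)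
open Crest.Agent.R136.MkA627 Crest.Agent.R136.K4 Crest.Agent.R136.Top484
open Crest.Agent.R136.Sh605 Crest.Agent.R136.Tl102
open Crest.Agent.R136.KapP335 (DetP kapP)
open Crest.Agent.R136.Tn327 (GeoS cls mk mem_alive_of)

section

variable {B : Base} {I : ℕ → Finset (ℕ × ℝ)} {lev : ℕ → ℚ → ℕ}
    {A : ℕ → ℝ} {c Λ : ℝ → ℝ} {τ : Fin 3 → ℝ → ℝ} {f : ℕ → ℚ → ℕ → ℤ → ℕ} {b : ℕ → ℚ → ℕ → Plk4}
    {vm : ℕ → ℚ → ℝ} {w : Fin 3 → ℕ → ℚ → ℝ} {L : ℕ → ℕ → Ln4} {r0 : ℕ → ℝ}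
    {wr cr : Fin 3 → ℕ → ℝ} {q : Fin 3 → ℝ}

theorem geoS4 (L : ℕ → ℕ → Ln4) (r0 : ℕ → ℝ) (wr cr : Fin 3 → ℕ → ℝ) (q : Fin 3 → ℝ) :
    GeoS (geo4 L r0 wr cr q) L r0 q where
  mem := fun _ _ _ _ _ => Iff.rfl
  adm := fun _ _ _ _ h => h.1
  val := fun _ _ _ _ => rfl

/-- **the scaled marks are admissible** -/
theorem hadm_geo4 (hM : MkA B I (geo4 L r0 wr cr q) lev A c Λ τ f b vm w) (hr0 : ∀ n, 0 < r0 n)
    (hR : Rng B wr cr w) {v : ℚ} (hv0 : 0 ≤ v) (hv1 : v ≤ 1) :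
    ∀ p : ℝ, 0 < p → ∀ᶠ n in (U : Filter ℕ), ∀ x ∈ I n, ∀ r : ℝ, B.d n ^ p ≤ r → r ≤ 1 →
      ∀ c' : Ln4, ShN (mk lev f b n v x).e c' (fun k => r * (mk lev f b n v x).w k)
          (mk lev f b n v x).q (mk lev f b n v x).a (zl (lev n v) (zc (lev n v) x.2))
          (rho (lev n v)) (r0 n) →
        (geo4 L r0 wr cr q).adm n (lev n v) (zc (lev n v) x.2) (scl (mk lev f b n v x) r c') := by
  intro p hp
  filter_upwards [hR p 1 v hv0 hv1, hR p 2 v hv0 hv1, hM.mark v hv0 hv1] with n h1 h2 hm x hx r hr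
    hr1 c' hc'
  obtain ⟨-, ⟨m1, m2, m3⟩, -, m4⟩ := hm (zc (lev n v) x.2) x.1 (mem_alive_of hx)
  have hS : b n v (f n v x.1 (zc (lev n v) x.2)) = mk lev f b n v x := rfl
  rw [hS] at m1 m2 m3 m4
  have hpos := (Sh321.ShN.toC (hr0 n) m1).pos (hr0 n)
  have w1 : (mk lev f b n v x).w 1 = w 1 n v := m4 1
  have w2 : (mk lev f b n v x).w 2 = w 2 n v := m4 2
  have p1 : 0 < (mk lev f b n v x).w 1 := hpos.2.2.2
  have p2 : 0 < (mk lev f b n v x).w 2 := hpos.2.2.1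
  have k1 : r * (mk lev f b n v x).w 1 ≤ (mk lev f b n v x).w 1 :=
    mul_le_of_le_one_left p1.le hr1
  have k2 : r * (mk lev f b n v x).w 2 ≤ (mk lev f b n v x).w 2 :=
    mul_le_of_le_one_left p2.le hr1
  have l1 : B.d n ^ p * (mk lev f b n v x).w 1 ≤ r * (mk lev f b n v x).w 1 :=
    mul_le_mul_of_nonneg_right hr p1.le
  have l2 : B.d n ^ p * (mk lev f b n v x).w 2 ≤ r * (mk lev f b n v x).w 2 :=
    mul_le_mul_of_nonneg_right hr p2.le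
  rw [← w1] at h1
  rw [← w2] at h2
  refine ⟨hc', k1.trans m2, fun k => ?_⟩
  have m3k := m3 k
  fin_cases k
  · exact m3k
  · exact ⟨h1.1.trans l1, k1.trans m3k.2⟩
  · exact ⟨h2.1.trans l2, k2.trans m3k.2⟩

/-- **typical lines rotate along the second axis**, geometry `geo4` -/
theorem kilN4 (hM : MkA B I (geo4 L r0 wr cr q) lev A c Λ τ f b vm w) (hr0 : ∀ n, 0 < r0 n)
    (hR : Rng B wr cr w) (hq : 0 < q 1 + q 2) {v : ℚ} (hv0 : 0 ≤ v) (hv1 : v ≤ 1)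
    (hd : ∀ ε : ℝ, 0 < ε → ∀ᶠ n in (U : Filter ℕ), ∀ x ∈ I n, DetP (B.d n ^ ε)
      (mk lev f b n v x) (zl (lev n v) (zc (lev n v) x.2)) (rho (lev n v)) (L n x.1))
    {c0 : ℝ} (hc0 : 0 < c0) (ht : ∀ᶠ n in (U : Filter ℕ), ∀ x ∈ I n,
      (mk lev f b n v x).a ≤ B.d n ^ c0 * kapP (mk lev f b n v x)
        (zl (lev n v) (zc (lev n v) x.2)) (rho (lev n v)) (L n x.1))
    {ε : ℝ} (hε : 0 < ε) :
    Negl B I fun n x => ¬ ∀ b0 b1 G, IsExp (mk lev f b n v x).q (mk lev f b n v x).e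
      (mk lev f b n v x).w (L n x.1) (zl (lev n v) (zc (lev n v) x.2)) (rho (lev n v)) b0 b1 G →
        B.d n ^ ε ≤ |scB1 (kap b0 b1 G) b0 b1 2| :=
  kilN hM (geoS4 L r0 wr cr q) hr0 hq hv0 hv1 (hadm_geo4 hM hr0 hR hv0 hv1) hd hc0 ht hε

end

end Crest.Agent.R136.Kil327
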