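import Crest.Agent.R136.StM3_555

/-!
# R136 (S0187), U6 thin side (helper555): the interior levels

* `MPre.ratio` : `w₂ ≤ d^c w₁` at interior levels;
* `Kil D` : literal of helper327's lemma (the rotation is visible in the direction of the narrow
  axis for typical incidences);
* `MPre.exists_sc` : dense part where this holds for all incidences, all interior levels;
* `MPre.lowA` : lower bound of the rotation form by the wide width.
-/

set_option autoImplicit false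
set_option linter.unusedVariables false
set_option linter.unusedSectionVars false

open Finset Filter Topology

namespace Crest.Agent.R136.Us555

open Crest.Agent.R138.Ex926 (Base U exists_diag ev_em)
open Crest.Agent.R138.Dp76
open Crest.Agent.R138.Mk163 (zc zl rho alive own Negl)
open Crest.Agent.R138.MkRef627 (mem_alive)
open Crest.Agent.R138.NatTw76 (exists_avoid)
open Crest.Agent.R136.MkA627 Crest.Agent.R136.Sh605 Crest.Agent.R136.K4 Crest.Agent.R136.Top484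
open Crest.Agent.R136.Tlt51 (mk4 zx rh Close)
open Crest.Agent.R136.KapP335 (kapP DetP kapP_eq)
open Crest.Agent.R136.GeoN778 (Qd Un)
open Crest.Agent.R136.Tl102 (QF Fq bz kap IsExp NrmC scB1)
open Crest.Agent.R136.Thn768 (Tay cr Frm Cont ThinW Own Snd D3 nm exists_tay)

section

variable {p : Par4} {D : Dat4} {l r : ℚ}

/-- ratio of the lateral widths, from a coarser level -/
theorem MPre.ratio_up (h : MPre p D l r) {u v : ℚ} (h0 : 0 ≤ u) (huv : u ≤ v) (h1 : v ≤ 1) {k ε : ℝ}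
    (hε : 0 < ε) (hu : ∀ᶠ n in (U : Filter ℕ), D.w 2 n u ≤ D.B.d n ^ k * D.w 1 n u) :
    ∀ᶠ n in (U : Filter ℕ), D.w 2 n v ≤
      D.B.d n ^ (k + (p.θ 1 - p.θ 2) * ((v : ℝ) - u) - ε) * D.w 1 n v := by
  have e2 : 0 < ε / 2 := by positivity
  filter_upwards [hu, (pw_wid h.mka 2).le u v h0 huv h1 _ e2,
    (pw_wid h.mka 1).le u v h0 huv h1 _ e2] with n a1 a2 a3
  have hd := fun a : ℝ => dpow_pos D.B n a
  have c1 : D.w 1 n u ≤ D.B.d n ^ (-((1 - p.θ 1) * ((v : ℝ) - u) + ε / 2)) * D.w 1 n v := by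
    have := mul_le_mul_of_nonneg_left a3.1 (hd (-((1 - p.θ 1) * ((v : ℝ) - u) + ε / 2))).le
    rw [← mul_assoc, ← dpow_add, neg_add_cancel, Real.rpow_zero, one_mul] at this
    exact this
  calc D.w 2 n v ≤ D.B.d n ^ ((1 - p.θ 2) * ((v : ℝ) - u) - ε / 2) * D.w 2 n u := a2.2
    _ ≤ D.B.d n ^ ((1 - p.θ 2) * ((v : ℝ) - u) - ε / 2) * (D.B.d n ^ k * D.w 1 n u) :=
        mul_le_mul_of_nonneg_left a1 (hd _).le
    _ ≤ D.B.d n ^ ((1 - p.θ 2) * ((v : ℝ) - u) - ε / 2) * (D.B.d n ^ k *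
        (D.B.d n ^ (-((1 - p.θ 1) * ((v : ℝ) - u) + ε / 2)) * D.w 1 n v)) :=
        mul_le_mul_of_nonneg_left (mul_le_mul_of_nonneg_left c1 (hd _).le) (hd _).le
    _ = _ := by
        rw [← mul_assoc, ← mul_assoc, ← dpow_add, ← dpow_add]
        congr 2; ring

/-- ratio of the lateral widths, from a deeper level -/
theorem MPre.ratio_down (h : MPre p D l r) {u v : ℚ} (h0 : 0 ≤ u) (huv : u ≤ v) (h1 : v ≤ 1)
    {k ε : ℝ} (hε : 0 < ε)
    (hv : ∀ᶠ n in (U : Filter ℕ), D.w 2 n v ≤ D.B.d n ^ k * D.w 1 n v) :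
    ∀ᶠ n in (U : Filter ℕ), D.w 2 n u ≤
      D.B.d n ^ (k + (p.θ 2 - p.θ 1) * ((v : ℝ) - u) - ε) * D.w 1 n u := by
  have e2 : 0 < ε / 2 := by positivity
  filter_upwards [hv, (pw_wid h.mka 2).le u v h0 huv h1 _ e2,
    (pw_wid h.mka 1).le u v h0 huv h1 _ e2] with n a1 a2 a3
  have hd := fun a : ℝ => dpow_pos D.B n a
  have c1 : D.w 2 n u ≤ D.B.d n ^ (-((1 - p.θ 2) * ((v : ℝ) - u) + ε / 2)) * D.w 2 n v := by
    have := mul_le_mul_of_nonneg_left a2.1 (hd (-((1 - p.θ 2) * ((v : ℝ) - u) + ε / 2))).le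
    rw [← mul_assoc, ← dpow_add, neg_add_cancel, Real.rpow_zero, one_mul] at this
    exact this
  calc D.w 2 n u ≤ _ := c1
    _ ≤ D.B.d n ^ (-((1 - p.θ 2) * ((v : ℝ) - u) + ε / 2)) * (D.B.d n ^ k * D.w 1 n v) :=
        mul_le_mul_of_nonneg_left a1 (hd _).le
    _ ≤ D.B.d n ^ (-((1 - p.θ 2) * ((v : ℝ) - u) + ε / 2)) * (D.B.d n ^ k *
        (D.B.d n ^ ((1 - p.θ 1) * ((v : ℝ) - u) - ε / 2) * D.w 1 n u)) :=
        mul_le_mul_of_nonneg_left (mul_le_mul_of_nonneg_left a3.2 (hd _).le) (hd _).le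
    _ = _ := by
        rw [← mul_assoc, ← mul_assoc, ← dpow_add, ← dpow_add]
        congr 2; ring

theorem MPre.w21' (h : MPre p D l r) {v : ℚ} (h0 : 0 ≤ v) (h1 : v ≤ 1) :
    ∀ᶠ n in (U : Filter ℕ), D.w 2 n v ≤ D.B.d n ^ (0 : ℝ) * D.w 1 n v := by
  filter_upwards [h.w21 h0 h1] with n hn
  rwa [Real.rpow_zero, one_mul]

/-- **the narrow width is smaller by a power at all interior levels** -/
theorem MPre.ratio (h : MPre p D l r) {a b : ℚ} (ha : l < a) (hb : b < r) :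
    ∃ c : ℝ, 0 < c ∧ ∀ v : ℚ, a ≤ v → v ≤ b →
      ∀ᶠ n in (U : Filter ℕ), D.w 2 n v ≤ D.B.d n ^ c * D.w 1 n v := by
  obtain ⟨hl0, hlr, hr1⟩ := h.lr
  have ha' : (l : ℝ) < a := by exact_mod_cast ha
  have hb' : (b : ℝ) < r := by exact_mod_cast hb
  rcases lt_trichotomy (p.θ 1) (p.θ 2) with hθ | hθ | hθ
  · -- from the level `r`
    have hm : 0 < (p.θ 2 - p.θ 1) * ((r : ℝ) - b) := mul_pos (by linarith) (by linarith)
    refine ⟨(p.θ 2 - p.θ 1) * ((r : ℝ) - b) / 2, by positivity, fun v hv1 hv2 => ?_⟩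
    have hv2' : (v : ℝ) ≤ b := by exact_mod_cast hv2
    filter_upwards [h.ratio_down (hl0.trans (ha.le.trans hv1)) (hv2.trans hb.le) hr1
      (half_pos hm) (h.w21' (hl0.trans hlr.le) hr1), h.mka.wpos 1 v (hl0.trans (ha.le.trans hv1))
        (hv2.trans (hb.le.trans hr1))] with n hn hw
    refine hn.trans (mul_le_mul_of_nonneg_right (dpow_le D.B n ?_) hw.le)
    have : (p.θ 2 - p.θ 1) * ((r : ℝ) - b) ≤ (p.θ 2 - p.θ 1) * ((r : ℝ) - v) :=
      mul_le_mul_of_nonneg_left (by linarith) (by linarith)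
    linarith
  · -- equal slopes
    rcases em (∃ c : ℝ, 0 < c ∧ ∀ᶠ n in (U : Filter ℕ), D.w 2 n l ≤ D.B.d n ^ c * D.w 1 n l) with
      hc | hc
    · obtain ⟨c, hc, hn⟩ := hc
      refine ⟨c / 2, by positivity, fun v hv1 hv2 => ?_⟩
      filter_upwards [h.ratio_up hl0 (ha.le.trans hv1) (hv2.trans (hb.le.trans hr1))
        (half_pos hc) hn] with n hn
      rw [hθ, sub_self, zero_mul, add_zero, sub_half] at hn
      exact hn
    · exfalso
      push Not at hc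
      have hlow0 : ∀ ε : ℝ, 0 < ε → ∀ᶠ n in (U : Filter ℕ),
          D.B.d n ^ ε * D.w 1 n l ≤ D.w 2 n l := by
        intro ε hε
        exact (hc ε hε).mono fun n hn => hn.le
      have hL : ∀ v : ℚ, l < v → v ≤ r → LowA D l v := by
        intro v hlv hvr ε hε
        have hv1 : v ≤ 1 := hvr.trans hr1
        have e4 : 0 < ε / 4 := by positivity
        filter_upwards [hlow0 _ e4, (pw_wid h.mka 2).le l v hl0 hlv.le hv1 _ e4,
          (pw_wid h.mka 1).le l v hl0 hlv.le hv1 _ e4, h.refO hlv hvr e4, h.refD hlv hvr e4]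
          with n a1 a2 a3 a4 a5 x hx N R H hT
        have hd := fun a : ℝ => dpow_pos D.B n a
        have b1 := (a4 x hx N R H hT).1
        have hY := (a5.2 x hx).1
        have c1 : D.B.d n ^ (3 * ε / 4) * D.w 1 n v ≤ D.w 2 n v := by
          calc D.B.d n ^ (3 * ε / 4) * D.w 1 n v ≤ D.B.d n ^ (3 * ε / 4) *
                (D.B.d n ^ ((1 - p.θ 1) * ((v : ℝ) - l) - ε / 4) * D.w 1 n l) :=
                mul_le_mul_of_nonneg_left a3.2 (hd _).le
            _ = D.B.d n ^ ((1 - p.θ 2) * ((v : ℝ) - l) + ε / 4) *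
                  (D.B.d n ^ (ε / 4) * D.w 1 n l) := by
                rw [← mul_assoc, ← mul_assoc, ← dpow_add, ← dpow_add, hθ]
                congr 2; ring
            _ ≤ D.B.d n ^ ((1 - p.θ 2) * ((v : ℝ) - l) + ε / 4) * D.w 2 n l :=
                mul_le_mul_of_nonneg_left a1 (hd _).le
            _ ≤ D.w 2 n v := a2.1
        calc D.B.d n ^ ε * (Ye D n v x * D.w 1 n v) = D.B.d n ^ (ε / 4) * (Ye D n v x *
              (D.B.d n ^ (3 * ε / 4) * D.w 1 n v)) := by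
              have : D.B.d n ^ ε = D.B.d n ^ (ε / 4) * D.B.d n ^ (3 * ε / 4) := by
                rw [← dpow_add]; congr 1; ring
              rw [this]; ring
          _ ≤ D.B.d n ^ (ε / 4) * (Ye D n v x * D.w 2 n v) :=
              mul_le_mul_of_nonneg_left (mul_le_mul_of_nonneg_left c1 hY.le) (hd _).le
          _ ≤ _ := b1
      obtain ⟨m, hm1, hm2⟩ := exists_between hlr
      have hs := h.slope_ge hm1 hm2 le_rfl (hL r hlr le_rfl)
      have h1 := h.θ1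
      rw [← hθ] at hs
      linarith
  · have hm : 0 < (p.θ 1 - p.θ 2) * ((a : ℝ) - l) := mul_pos (by linarith) (by linarith)
    refine ⟨(p.θ 1 - p.θ 2) * ((a : ℝ) - l) / 2, by positivity, fun v hv1 hv2 => ?_⟩
    have hv1' : (a : ℝ) ≤ v := by exact_mod_cast hv1
    filter_upwards [h.ratio_up hl0 (ha.le.trans hv1) (hv2.trans (hb.le.trans hr1))
      (half_pos hm) (h.w21' hl0 (hlr.le.trans hr1)), h.mka.wpos 1 v (hl0.trans (ha.le.trans hv1))
        (hv2.trans (hb.le.trans hr1))] with n hn hw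
    refine hn.trans (mul_le_mul_of_nonneg_right (dpow_le D.B n ?_) hw.le)
    have : (p.θ 1 - p.θ 2) * ((a : ℝ) - l) ≤ (p.θ 1 - p.θ 2) * ((v : ℝ) - l) :=
      mul_le_mul_of_nonneg_left (by linarith) (by linarith)
    linarith

/-- visible rotation along the narrow axis -/
def ScB (D : Dat4) (n : ℕ) (v : ℚ) (ε : ℝ) (x : ℕ × ℝ) : Prop :=
  ∀ b0 b1 G, IsExp (mk4 D n v x).q (mk4 D n v x).e (mk4 D n v x).w (D.L n x.1) (zx D n v x)
    (rh D n v) b0 b1 G → D.B.d n ^ ε ≤ |scB1 (kap b0 b1 G) b0 b1 2|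

theorem ScB.mono {n : ℕ} {v : ℚ} {ε ε' : ℝ} {x : ℕ × ℝ} (hε : ε ≤ ε') (h : ScB D n v ε x) :
    ScB D n v ε' x := fun b0 b1 G hE => (dpow_le D.B n hε).trans (h b0 b1 G hE)

/-- **literal of helper327's `kilN`** : for typical incidences the rotation is visible in the
direction of the narrow axis, at every level where the marks are curved and nondegenerate -/
def Kil (D : Dat4) : Prop :=
  ∀ v : ℚ, 0 < v → v < 1 → ∀ c : ℝ, 0 < c →
    (∀ ε : ℝ, 0 < ε → ∀ᶠ n in (U : Filter ℕ), ∀ x ∈ D.I n,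
      DetP (D.B.d n ^ ε) (mk4 D n v x) (zx D n v x) (rh D n v) (D.L n x.1)) →
    (∀ᶠ n in (U : Filter ℕ), ∀ x ∈ D.I n,
      (mk4 D n v x).a ≤ D.B.d n ^ c * kapP (mk4 D n v x) (zx D n v x) (rh D n v) (D.L n x.1)) →
    ∀ ε : ℝ, 0 < ε → Negl D.B D.I fun n x => ¬ ScB D n v ε x

/-- `MPre` passes to dense marked parts -/
theorem MPre.sub (h : MPre p D l r) {J : ℕ → Finset (ℕ × ℝ)} (hJ : ∀ n, J n ⊆ D.I n)
    (hM : MkA D.B J (D.G p) D.lev D.A (fun v => p.g * v) (fun v => 0 * v)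
      (fun j v => p.θ j * (1 - v)) D.f D.b D.vm D.w) : MPre p { D with I := J } l r where
  lr := h.lr
  mka := hM
  vel := by
    filter_upwards [h.vel] with n hn x hx using hn x (hJ n hx)
  θ1 := h.θ1
  own := fun v h0 h1 ε hε => by
    filter_upwards [h.own v h0 h1 ε hε] with n hn x hx using hn x (hJ n hx)
  thin := by
    obtain ⟨c, hc, h1⟩ := h.thin
    exact ⟨c, hc, fun v h0 h2 => by
      filter_upwards [h1 v h0 h2] with n hn x hx using hn x (hJ n hx)⟩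
  tilt := by
    obtain ⟨C, hC, h1⟩ := h.tilt
    exact ⟨C, hC, fun u v h0 h2 h3 ε hε => by
      filter_upwards [h1 u v h0 h2 h3 ε hε] with n hn x hx using hn x (hJ n hx)⟩
  snd := by
    obtain ⟨c, hc, h1⟩ := h.snd
    exact ⟨c, hc, fun u v h0 h2 h3 => by
      filter_upwards [h1 u v h0 h2 h3] with n hn x hx using hn x (hJ n hx)⟩

/-- **dense part with visible rotation at all interior levels** -/
theorem MPre.exists_sc (h : MPre p D l r) (hK : Kil D) {a b : ℚ} (ha : l < a) (hb : b < r) :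
    ∃ J : ℕ → Finset (ℕ × ℝ), (∀ n, J n ⊆ D.I n) ∧ Dense D.B J D.I ∧
      MPre p { D with I := J } l r ∧ ∀ v : ℚ, a ≤ v → v ≤ b → ∀ ε : ℝ, 0 < ε →
        ∀ᶠ n in (U : Filter ℕ), ∀ x ∈ J n, ScB D n v ε x := by
  obtain ⟨hl0, hlr, hr1⟩ := h.lr
  obtain ⟨c2, hc2, hthin⟩ := h.thin
  have hN : ∀ v : ℚ, a ≤ v → v ≤ b → ∀ ε : ℝ, 0 < ε → Negl D.B D.I fun n x => ¬ ScB D n v ε x := by
    intro v hv1 hv2 ε hε
    have g0 : 0 < v := hl0.trans_lt (ha.trans_le hv1)
    have g1 : v < 1 := (hv2.trans_lt hb).trans_le hr1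
    refine hK v g0 g1 c2 hc2 (fun ε' hε' => ?_)
      (hthin v (ha.le.trans hv1) (hv2.trans hb.le)) ε hε
    filter_upwards [h.own v (ha.le.trans hv1) (hv2.trans hb.le) ε' hε'] with n hn x hx
    obtain ⟨b0, b1, G, O⟩ := hn x hx
    exact O.det
  obtain ⟨en, hen⟩ := exists_surjective_nat (ℚ × ℕ)
  obtain ⟨J0, h1, h2, h3⟩ := exists_avoid (B := D.B) (I := D.I)
    (fun k n x => (a ≤ (en k).1 ∧ (en k).1 ≤ b) ∧
      ¬ ScB D n (en k).1 (1 / (((en k).2 : ℝ) + 1)) x) (fun k => by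
      by_cases hc : a ≤ (en k).1 ∧ (en k).1 ≤ b
      · exact (hN (en k).1 hc.1 hc.2 (1 / (((en k).2 : ℝ) + 1)) (by positivity)).mono
          (Eventually.of_forall fun n x _ hx => hx.2)
      · exact Negl.false.mono (Eventually.of_forall fun n x _ hx => hc hx.1))
  obtain ⟨J, h4, h5, -, h6⟩ := MkA.refine' h.mka h2
  have hJI : ∀ n, J n ⊆ D.I n := fun n => (h4 n).trans (h1 n)
  refine ⟨J, hJI, h5.trans h2, h.sub hJI h6, fun v hv1 hv2 ε hε => ?_⟩
  obtain ⟨K, hKε⟩ := exists_nat_one_div_lt hε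
  obtain ⟨k, hk⟩ := hen (v, K)
  filter_upwards [h3 k] with n hn x hx
  have := hn x (h4 n hx)
  rw [hk] at this
  push Not at this
  exact (this ⟨hv1, hv2⟩).mono hKε.le

/-- lower bound of the rotation form by the wide width -/
theorem MPre.lowA (h : MPre p D l r) {v : ℚ} (hl : l < v) (hr : v ≤ r)
    (hsc : ∀ ε : ℝ, 0 < ε → ∀ᶠ n in (U : Filter ℕ), ∀ x ∈ D.I n, ScB D n v ε x) : LowA D l v := by
  intro ε hε
  obtain ⟨c, hc, hs⟩ := h.snd
  have hv0 : 0 ≤ v := h.lr.1.trans hl.le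
  have hv1 : v ≤ 1 := hr.trans h.lr.2.2
  set ε' : ℝ := min (ε / 2) (c / 2) with hε'
  have hp : 0 < ε' := lt_min (by positivity) (by positivity)
  have h1 : ε' ≤ ε / 2 := min_le_left _ _
  have h2 : ε' ≤ c / 2 := min_le_right _ _
  filter_upwards [h.own v hl.le hr ε' hp, hs l v le_rfl hl hr, h.mark hv0 hv1, hsc ε' hp,
    small_mul D.B (K := CM) (ε := c / 2) (by positivity),
    small_mul D.B (K := CM) (ε := ε / 2) (by positivity)]
    with n a1 a2 a3 a4 a5 a6 x hx N R H hT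
  obtain ⟨b0, b1, G, O⟩ := a1 x hx
  obtain ⟨s1, s2, s3, s4⟩ := a3.2 x hx
  have hY := Ye_eq h O
  have hYp : 0 < Ye D n v x := by rw [hY]; exact mul_pos (O.pos 0) O.k0
  have hCM : (0 : ℝ) < CM := CM_pos
  have hδ1 : D.B.d n ^ ε' ≤ 1 := Real.rpow_le_one (D.B.pos n).le (D.B.lt n).le hp.le
  have S := a2 x hx b0 b1 G N R H O.exp hT
  have hX : D.B.d n ^ c ≤ D.B.d n ^ ε' / CM := by
    rw [le_div_iff₀ hCM]
    calc D.B.d n ^ c * CM = (CM * D.B.d n ^ (c / 2)) * D.B.d n ^ (c / 2) := by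
          rw [mul_assoc, ← dpow_add, add_halves, mul_comm]
      _ ≤ 1 * D.B.d n ^ (c / 2) := mul_le_mul_of_nonneg_right a5 (dpow_pos D.B n _).le
      _ = D.B.d n ^ (c / 2) := one_mul _
      _ ≤ D.B.d n ^ ε' := dpow_le D.B n h2
  have k1 := snd_om_ge1 O S (dpow_pos D.B n ε') hδ1 (a4 x hx b0 b1 G O.exp) hX
  rw [← hY] at k1
  have eP : rh D n v * ((mk4 D n v x).w 1 * (mk4 D n v x).w 2) = PP D n v := by
    rw [s3, s4]; rfl
  rw [eP, s3] at k1
  refine le_trans ?_ k1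
  rw [mul_assoc]
  refine mul_le_mul_of_nonneg_right ?_ (mul_pos hYp a3.1.2.1).le
  rw [le_div_iff₀ hCM]
  calc D.B.d n ^ ε * CM = (CM * D.B.d n ^ (ε / 2)) * D.B.d n ^ (ε / 2) := by
        rw [mul_assoc, ← dpow_add, add_halves, mul_comm]
    _ ≤ 1 * D.B.d n ^ (ε / 2) := mul_le_mul_of_nonneg_right a6 (dpow_pos D.B n _).le
    _ = D.B.d n ^ (ε / 2) := one_mul _
    _ ≤ D.B.d n ^ ε' := dpow_le D.B n h1

end

end Crest.Agent.R136.Us555
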