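import Crest.Agent.R136.Kil7_327
import Crest.Agent.R136.StM4_555

/-!
# R136, U6 thin (helper327): the literal `Us555.Kil`
-/

set_option autoImplicit false
set_option linter.unusedVariables false

open Finset Filter Topology

namespace Crest.Agent.R136.Kil327

open Crest.Agent.R138.Ex926 (Base U)
open Crest.Agent.R136.MkA627 Crest.Agent.R136.K4 Crest.Agent.R136.Top484
open Crest.Agent.R136.Us555 (Kil)

variable {p : Par4} {D : Dat4}

/-- **typical lines rotate along the second axis**, primitive hypotheses -/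
theorem kil_of_mka {c Λ : ℝ → ℝ} {τ : Fin 3 → ℝ → ℝ}
    (hM : MkA D.B D.I (D.G p) D.lev D.A c Λ τ D.f D.b D.vm D.w) (hr0 : ∀ n, 0 < D.r0 n)
    (hR : Rng D.B D.wr D.cr D.w) (hq : 0 < p.q 1 + p.q 2) : Kil D :=
  fun v h0 h1 c hc hd ht ε hε => kilN4 hM hr0 hR hq h0.le h1.le hd hc ht hε

/-- **typical lines rotate along the second axis** -/
theorem kil_of {η : ℝ} (h : J1c η p D) : Kil D :=
  kil_of_mka h.mka h.r0pos h.wrs (add_pos h.g0.2 h.q2.1)

end Crest.Agent.R136.Kil327
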