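import Crest.Agent.R136.AlK_500
import Crest.Agent.R136.Gen2_467

/-!
# R136 (S0187), PLAN 2 (AL), leaf of record `LeafWedge` (helper467)

`wedge_core` : `LeafWedge` from the bound of the Hessian along the sheet (`hDv`) and the slopes at a
point which is not nondegenerate (`hSl`), by `Gen467.wedge_at`.
-/

set_option autoImplicit false

namespace Crest.Agent.R136.Gen467

open Crest.Agent.R136.Sh605
open Crest.Agent.R136.K4 (Plk4)
open Crest.Agent.R136.Tlt51 (Shp InP)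
open Crest.Agent.R136.Deep51 (CloseC)
open Crest.Agent.R136.KapP335 (DetP kapP)
open Crest.Agent.R136.Tl102 (angC)
open Crest.Agent.R136.Pl2W102 (Near)
open Crest.Agent.R136.Pl2 (kp)
open Crest.Agent.R136.Rk601 (th)
open Crest.Agent.R136.AlD601 (Nd Sm Gn jS)
open Crest.Agent.R136.Al500 (Cf Dm Cl2 LeafWedge)

theorem near_mono {W K x y : ℝ} (h : Near W x y) (hx : 0 ≤ x) (hy : 0 ≤ y) (hK : W ≤ K) :
    Near K x y :=
  ⟨h.1.trans (mul_le_mul_of_nonneg_right hK hy), h.2.trans (mul_le_mul_of_nonneg_right hK hx)⟩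

/-- `C x^n ≤ (C x)^C` -/
theorem pow_le_rpow {C x : ℝ} (hC : 1 ≤ C) (hx : 1 ≤ x) (n : ℕ) (hn : (n : ℝ) ≤ C) :
    C * x ^ n ≤ (C * x) ^ C := by
  have hC0 : 0 ≤ C := by linarith
  have hx0 : 0 ≤ x := by linarith
  rw [Real.mul_rpow hC0 hx0]
  have h1 : C ≤ C ^ C := by
    conv_lhs => rw [← Real.rpow_one C]
    exact Real.rpow_le_rpow_of_exponent_le hC hC
  have h2 : x ^ n ≤ x ^ C := by
    rw [← Real.rpow_natCast x n]
    exact Real.rpow_le_rpow_of_exponent_le hx hn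
  exact mul_le_mul h1 h2 (by positivity) (by positivity)

/-- the number condition of `wedge_at` -/
theorem num_wedge {K1 B k l g β h C X : ℝ} (hK1 : 1 ≤ K1) (hB : 1 ≤ B) (hk : 0 < k) (hk1 : k ≤ 1)
    (hl : 0 ≤ l) (hg : 0 ≤ g) (hh : 0 ≤ h) (hβ : 0 < β) (hβ1 : β ≤ 1)
    (hC : 2 * 10 ^ 25 * K1 ^ 17 + 19 ≤ C) (hX : X ≤ 3 * B ^ 2 * h)
    (hn : (C * B / k) ^ C * (l + g + h) ≤ β ^ C) :
    2 * 10 ^ 12 * ((K1 * (B / k)) ^ 2) ^ 7 * X + 10 ^ 5 * ((K1 * (B / k)) ^ 2) ^ 4 * g ≤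
      ((K1 * (B / k))⁻¹ * (β / 8) ^ 2 / 216) ^ 3 := by
  set x := B / k with hx
  have hx1 : 1 ≤ x := by rw [hx, le_div_iff₀ hk]; linarith
  have hx0 : 0 < x := by linarith
  have hBx : B ≤ x := by
    rw [hx, le_div_iff₀ hk]; nlinarith
  have hK10 : 0 < K1 := by linarith
  have hK17 : 1 ≤ K1 ^ 17 := one_le_pow₀ hK1
  have hC1 : 1 ≤ C := by nlinarith
  have hC19 : ((19 : ℕ) : ℝ) ≤ C := by push_cast; nlinarith
  have h1 := pow_le_rpow hC1 hx1 19 hC19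
  have e1 : C * B / k = C * x := by rw [hx]; ring
  rw [e1] at hn
  have h2 : β ^ C ≤ β ^ 6 := by
    rw [← Real.rpow_natCast β 6]
    exact Real.rpow_le_rpow_of_exponent_ge hβ hβ1 (by push_cast; nlinarith)
  have hs : 0 ≤ l + g + h := by linarith
  have h3 : 2 * 10 ^ 25 * K1 ^ 17 * x ^ 19 * (l + g + h) ≤ β ^ 6 := by
    have h4 : 2 * 10 ^ 25 * K1 ^ 17 * x ^ 19 ≤ C * x ^ 19 :=
      mul_le_mul_of_nonneg_right (by linarith) (by positivity)
    exact (mul_le_mul_of_nonneg_right (h4.trans h1) hs).trans (hn.trans h2)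
  have h5 : 2 * 10 ^ 25 * K1 ^ 17 * x ^ 19 * (g + h) ≤ β ^ 6 := by
    refine le_trans ?_ h3
    exact mul_le_mul_of_nonneg_left (by linarith) (by positivity)
  -- left side
  have hX2 : X ≤ 3 * x ^ 2 * h := by
    refine hX.trans ?_
    have : B ^ 2 ≤ x ^ 2 := pow_le_pow_left₀ (by linarith) hBx 2
    nlinarith
  have e2 : ((K1 * x)⁻¹ * (β / 8) ^ 2 / 216) ^ 3 = β ^ 6 / (13824 ^ 3 * K1 ^ 3 * x ^ 3) := by
    field_simp
    norm_num
  rw [e2, le_div_iff₀ (by positivity)]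
  refine le_trans ?_ h5
  have e3 : 2 * 10 ^ 12 * ((K1 * x) ^ 2) ^ 7 * X * (13824 ^ 3 * K1 ^ 3 * x ^ 3) =
      2 * 10 ^ 12 * 13824 ^ 3 * K1 ^ 17 * x ^ 17 * X := by ring
  have e4 : 10 ^ 5 * ((K1 * x) ^ 2) ^ 4 * g * (13824 ^ 3 * K1 ^ 3 * x ^ 3) =
      10 ^ 5 * 13824 ^ 3 * K1 ^ 11 * x ^ 11 * g := by ring
  rw [add_mul, e3, e4]
  have h6 : 2 * 10 ^ 12 * 13824 ^ 3 * K1 ^ 17 * x ^ 17 * X ≤
      2 * 10 ^ 12 * 13824 ^ 3 * K1 ^ 17 * x ^ 17 * (3 * x ^ 2 * h) :=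
    mul_le_mul_of_nonneg_left hX2 (by positivity)
  have h7 : 2 * 10 ^ 12 * 13824 ^ 3 * K1 ^ 17 * x ^ 17 * (3 * x ^ 2 * h) =
      6 * 10 ^ 12 * 13824 ^ 3 * (K1 ^ 17 * x ^ 19 * h) := by ring
  have h8 : (10 : ℝ) ^ 5 * 13824 ^ 3 * K1 ^ 11 * x ^ 11 * g ≤
      10 ^ 5 * 13824 ^ 3 * (K1 ^ 17 * x ^ 19 * g) := by
    have a1 : K1 ^ 11 ≤ K1 ^ 17 := pow_le_pow_right₀ hK1 (by norm_num)
    have a2 : x ^ 11 ≤ x ^ 19 := pow_le_pow_right₀ hx1 (by norm_num)
    have a3 : K1 ^ 11 * x ^ 11 ≤ K1 ^ 17 * x ^ 19 := mul_le_mul a1 a2 (by positivity) (by positivity)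
    have a4 := mul_le_mul_of_nonneg_right a3 hg
    nlinarith
  have p1 : 0 ≤ K1 ^ 17 * x ^ 19 * g := by positivity
  have p2 : 0 ≤ K1 ^ 17 * x ^ 19 * h := by positivity
  have e5 : 2 * 10 ^ 25 * K1 ^ 17 * x ^ 19 * (g + h) =
      2 * 10 ^ 25 * (K1 ^ 17 * x ^ 19 * g) + 2 * 10 ^ 25 * (K1 ^ 17 * x ^ 19 * h) := by ring
  rw [e5]
  nlinarith

set_option maxHeartbeats 2000000 in
/-- **`LeafWedge`** over the two pointwise facts -/
theorem wedge_core {K0 : ℝ}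
    (hDv : ∀ (S : Plk4) (q' : ℝ → V3 → ℝ) (T : Ln4) (z0 ρ r s : ℝ) (H j : ℕ), 0 < r → 0 < ρ →
      Shp S z0 ρ r → InP T S z0 ρ → 10 ^ 6 * S.a ≤ kapP S z0 ρ T → IsQ q' →
      CloseC S.e S.w S.q S.a q' s T z0 ρ → j < H →
      ∀ i j', |th (jS S S.q z0 ρ H j T) (jS S q' z0 ρ H j T) i j'| ≤ K0 * s)
    (hSl : ∀ (S S' : Plk4) (T : Ln4) (z0 ρ r l m s : ℝ) (H j : ℕ), 0 < r → 0 < ρ →
      Shp S z0 ρ r → Shp S' z0 ρ r → InP T S z0 ρ → InP T S' z0 ρ → j < H →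
      ¬ Nd S S'.q z0 ρ H j T l m s → l * s ≤ S.w 0 / 64 →
      S.w 0 / 32 ≤ |(jS S S'.q z0 ρ H j T).a0| ∧
        ∀ k, k ≠ 0 → |(jS S S'.q z0 ρ H j T).a k| ≤ 16 * |(jS S S'.q z0 ρ H j T).a0|) :
    LeafWedge := by
  set K1 : ℝ := 16 + 2 * |K0| with hK1
  have hK1' : 16 ≤ K1 := by have := abs_nonneg K0; linarith
  have hK11 : 1 ≤ K1 := by linarith
  refine ⟨2 * 10 ^ 25 * K1 ^ 17 + 19, ?_, ?_⟩
  · have : 0 ≤ K1 ^ 17 := by positivity
    nlinarith
  intro qm qp L P cu cv Uf Vf W B M a w1 w2 z0 ρ zL ρL r κ E H hc _ hCH l m k g β hl hm hk hk1 hg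
    hβ hβ1 hn t ht j hj
  set C : ℝ := 2 * 10 ^ 25 * K1 ^ 17 + 19 with hC
  have hK17 : 1 ≤ K1 ^ 17 := one_le_pow₀ hK11
  have hC1 : 1 ≤ C := by rw [hC]; nlinarith
  have hCbig : 2 * 10 ^ 25 ≤ C := by rw [hC]; nlinarith
  have h2 := hc.two.to1
  have hW1 := hc.W1
  have hB1 : 1 ≤ B := hW1.trans hc.WB
  have hB0 : 0 < B := by linarith
  have hE0 : 0 < E := by have := hc.E1; linarith
  have ha0 := h2.a0
  have hs : 0 < E * a := mul_pos hE0 ha0
  have hH0 : (0 : ℝ) < H := by have := hc.E1; have := hc.EH; linarith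
  have hH : 1 ≤ H := by
    have : 0 < H := by exact_mod_cast hH0
    exact this
  have hr0 := h2.r0
  have hρ := h2.ρ0
  have shU := h2.shU t ht
  have shV := h2.shV t ht
  have inU := h2.inU t ht
  have inV := h2.inV t ht
  have hx1 : 1 ≤ B / k := by rw [le_div_iff₀ hk]; linarith
  have hBx : B ≤ B / k := by rw [le_div_iff₀ hk]; nlinarith
  set K := K1 * (B / k) with hKdef
  have hBK : B ≤ K := hBx.trans (le_mul_of_one_le_left (by linarith) hK11)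
  have hWK : W ≤ K := hc.WB.trans hBK
  have hK1K : K1 ≤ K := le_mul_of_one_le_right (by linarith) hx1
  have hKK : 1 ≤ K := hK11.trans hK1K
  have hK0 : 0 < K := by linarith
  -- `H` is large
  have hHbig : 2 * 10 ^ 25 * B ^ 2 ≤ H := by
    have h3 := pow_le_rpow hC1 hB1 2 (by push_cast; linarith)
    have h4 : 2 * 10 ^ 25 * B ^ 2 ≤ C * B ^ 2 := mul_le_mul_of_nonneg_right hCbig (by positivity)
    exact (h4.trans h3).trans hCH
  -- `l` is small
  have hlsm : 2 * 10 ^ 25 * B * l ≤ 1 := by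
    have h3 := pow_le_rpow hC1 hx1 1 (by push_cast; linarith)
    have e1 : C * B / k = C * (B / k) := by ring
    have h4 : β ^ C ≤ 1 := Real.rpow_le_one hβ.le hβ1 (by linarith)
    rw [e1] at hn
    have h5 : C * (B / k) ^ 1 * l ≤ 1 := by
      have h6 : l ≤ l + g + 1 / H := by
        have : (0 : ℝ) ≤ 1 / H := by positivity
        linarith
      calc C * (B / k) ^ 1 * l ≤ (C * (B / k)) ^ C * (l + g + 1 / H) :=
            mul_le_mul h3 h6 hl.le (by positivity)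
        _ ≤ 1 := hn.trans h4
    have h7 : 2 * 10 ^ 25 * B * l ≤ C * (B / k) ^ 1 * l := by
      rw [pow_one]
      exact mul_le_mul_of_nonneg_right (mul_le_mul hCbig hBx hB0.le (by linarith)) hl.le
    exact h7.trans h5
  have kpU : kapP (Uf (cu t)) z0 ρ (L t) ≤ 13 * (Uf (cu t)).w 0 :=
    Hcp208.kapP_le hr0 hρ.le shU inU
  have kEU : E * a ≤ W * kapP (Uf (cu t)) z0 ρ (L t) := hc.kE t ht
  have kEV : E * a ≤ W * kapP (Vf (cv t)) z0 ρ (L t) := hc.kE' t ht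
  have hw0U : 0 < (Uf (cu t)).w 0 := hr0.trans_le (shU.r0_le.trans shU.a_le0)
  have haU : 0 < (Uf (cu t)).a := hr0.trans_le shU.r0_le
  have haV : 0 < (Vf (cv t)).a := hr0.trans_le shV.r0_le
  have hkapV : 0 < kapP (Vf (cv t)) z0 ρ (L t) := by
    by_contra h
    push Not at h
    have : W * kapP (Vf (cv t)) z0 ρ (L t) ≤ 0 :=
      mul_nonpos_of_nonneg_of_nonpos (by linarith) h
    linarith
  have hkapU : 0 < kapP (Uf (cu t)) z0 ρ (L t) := by
    by_contra h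
    push Not at h
    have : W * kapP (Uf (cu t)) z0 ρ (L t) ≤ 0 :=
      mul_nonpos_of_nonneg_of_nonpos (by linarith) h
    linarith
  obtain ⟨dU1, dU2, dU3⟩ := hc.dmU t ht
  obtain ⟨dV1, dV2, dV3⟩ := hc.dmV t ht
  have hEH2 := hc.HE
  -- `10^6 a ≤ kap U`
  have hk6 : 10 ^ 6 * (Uf (cu t)).a ≤ kapP (Uf (cu t)) z0 ρ (L t) := by
    have a1 : (Uf (cu t)).a ≤ W * a := dU1.2
    have a2 : 2 * 10 ^ 6 * W ^ 2 ≤ H := by
      have : W ^ 2 ≤ B ^ 2 := pow_le_pow_left₀ (by linarith) hc.WB 2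
      nlinarith
    have a3 : W * (10 ^ 6 * (Uf (cu t)).a) ≤ W * kapP (Uf (cu t)) z0 ρ (L t) := by
      calc W * (10 ^ 6 * (Uf (cu t)).a) ≤ W * (10 ^ 6 * (W * a)) := by gcongr
        _ = 10 ^ 6 * W ^ 2 * a := by ring
        _ ≤ E * a := mul_le_mul_of_nonneg_right (by linarith) ha0.le
        _ ≤ _ := kEU
    exact le_of_mul_le_mul_left a3 (by linarith)
  have hβ8 : 8 * (β / 8) = β := by ring
  rw [← hβ8]
  refine wedge_at (K := K) (a := a) (w1 := w1) (w2 := w2) (r := r) (k := k) (g := g) (s := E * a)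
    (Nd1 := fun p => Nd (Uf (cu p.1)) (Vf (cv p.1)).q z0 ρ H p.2 (L p.1) l m (E * a))
    hH hj hKK hB0.le hρ hr0 h2.w10.le h2.w20.le shU shV inU inV
    ⟨near_mono dU1 ha0.le haU.le hWK, near_mono dU2 h2.w10.le ?_ hWK,
      near_mono dU3 h2.w20.le ?_ hWK⟩
    ⟨near_mono dV1 ha0.le haV.le hWK, near_mono dV2 h2.w10.le ?_ hWK,
      near_mono dV3 h2.w20.le ?_ hWK⟩
    ((hc.ang t ht).trans (mul_le_mul_of_nonneg_right hWK h2.w20.le)) hkapV
    ((hc.detV t ht).mono (inv_anti₀ (by linarith) hWK)) (by positivity) (by linarith) hs ?_ hg.le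
    ?_ ?_ ?_
  · have := (shU.a_le0.trans shU.w0_le).trans shU.w_le
    linarith
  · have := shU.a_le0.trans shU.w0_le
    linarith
  · have := (shV.a_le0.trans shV.w0_le).trans shV.w_le
    linarith
  · have := shV.a_le0.trans shV.w0_le
    linarith
  · rw [div_le_iff₀ hK0, hKdef]
    have : k * (K1 * (B / k)) = K1 * B := by field_simp
    rw [this]
    nlinarith
  · intro hNd
    have hls : l * (E * a) ≤ (Uf (cu t)).w 0 / 64 := by
      have b1 : E * a ≤ W * (13 * (Uf (cu t)).w 0) :=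
        kEU.trans (mul_le_mul_of_nonneg_left kpU (by linarith))
      have b2 : l * (E * a) ≤ l * (W * (13 * (Uf (cu t)).w 0)) := mul_le_mul_of_nonneg_left b1 hl.le
      have b3 : l * (W * (13 * (Uf (cu t)).w 0)) ≤ l * (B * (13 * (Uf (cu t)).w 0)) := by
        have := hc.WB
        gcongr
      have b4 : l * (B * (13 * (Uf (cu t)).w 0)) = 13 * (B * l) * (Uf (cu t)).w 0 := by ring
      have b5 : 13 * (B * l) ≤ 1 / 64 := by nlinarith
      have b6 : 13 * (B * l) * (Uf (cu t)).w 0 ≤ 1 / 64 * (Uf (cu t)).w 0 :=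
        mul_le_mul_of_nonneg_right b5 hw0U.le
      linarith
    obtain ⟨c1, c2⟩ := hSl _ _ _ z0 ρ r l m (E * a) H j hr0 hρ shU shV inU inV hj hNd hls
    refine ⟨?_, fun i hi => (c2 i hi).trans ?_⟩
    · intro h0
      rw [h0, abs_zero] at c1
      linarith
    · exact mul_le_mul_of_nonneg_right (by linarith) (abs_nonneg _)
  · intro _ i j'
    have c1 := hDv (Uf (cu t)) (Vf (cv t)).q (L t) z0 ρ r (2 * E * a) H j hr0 hρ shU inU hk6
      shV.isQ (hc.up t ht).1 hj i j'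
    refine c1.trans ?_
    have c2 : K0 * (2 * E * a) ≤ |K0| * (2 * E * a) :=
      mul_le_mul_of_nonneg_right (le_abs_self _) (by positivity)
    have c3 : |K0| * (2 * E * a) = 2 * |K0| * (E * a) := by ring
    have c4 : 2 * |K0| * (E * a) ≤ K * (E * a) :=
      mul_le_mul_of_nonneg_right (by linarith) hs.le
    linarith
  · have hX : B / H + (Vf (cv t)).a / kapP (Vf (cv t)) z0 ρ (L t) ≤ 3 * B ^ 2 * (1 / H) := by
      have c1 : (Vf (cv t)).a / kapP (Vf (cv t)) z0 ρ (L t) ≤ 2 * B ^ 2 * (1 / H) := by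
        rw [div_le_iff₀ hkapV]
        have c2 : (Vf (cv t)).a ≤ W * a := dV1.2
        have c3 : H * (Vf (cv t)).a ≤ 2 * B ^ 2 * kapP (Vf (cv t)) z0 ρ (L t) := by
          calc H * (Vf (cv t)).a ≤ (2 * E) * (W * a) := mul_le_mul hEH2 c2 haV.le (by positivity)
            _ = 2 * W * (E * a) := by ring
            _ ≤ 2 * W * (W * kapP (Vf (cv t)) z0 ρ (L t)) :=
                mul_le_mul_of_nonneg_left kEV (by positivity)
            _ = 2 * W ^ 2 * kapP (Vf (cv t)) z0 ρ (L t) := by ring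
            _ ≤ 2 * B ^ 2 * kapP (Vf (cv t)) z0 ρ (L t) := by
                have : W ^ 2 ≤ B ^ 2 := pow_le_pow_left₀ (by linarith) hc.WB 2
                gcongr
        have c4 : 2 * B ^ 2 * (1 / H) * kapP (Vf (cv t)) z0 ρ (L t) =
            2 * B ^ 2 * kapP (Vf (cv t)) z0 ρ (L t) / H := by ring
        rw [c4, le_div_iff₀ hH0]
        linarith
      have c5 : B / H ≤ B ^ 2 * (1 / H) := by
        have : B / H = B * (1 / H) := by ring
        rw [this]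
        have : (0 : ℝ) ≤ 1 / H := by positivity
        exact mul_le_mul_of_nonneg_right (by nlinarith) this
      linarith
    exact num_wedge hK11 hB1 hk hk1 hl.le hg.le (by positivity) hβ hβ1 le_rfl hX hn

end Crest.Agent.R136.Gen467
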