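import Crest.Agent.R136.LWd_467
import Crest.Agent.R136.Sln_296
import Crest.Agent.R136.Dvb_296

/-!
# R136 (S0187), PLAN 2 (AL), leaf of record `LeafWedge` (helper467)

`leafWedge : Al500.LeafWedge`, no hypotheses.
-/

set_option autoImplicit false

namespace Crest.Agent.R136.Gen467

open Crest.Agent.R136.Sh605
open Crest.Agent.R136.Tl102 (StP)

/-- **`LeafWedge`** -/
theorem leafWedge : Al500.LeafWedge := by
  refine wedge_core (K0 := 10 ^ 13 * Adj214.KD) ?_ ?_
  · intro S q' T z0 ρ r s H j hr hρ hS hT hk hq hC hj i j'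
    exact (Wdg296.dv_of hS (hr.trans_le hS.r0_le) hρ.le hT hk hq hC hj.le).th i j'
  · intro S S' T z0 ρ r l m s H j hr hρ hS hS' hT hT' hj hNd hls
    have w0 : 0 < S.w 0 := hr.trans_le (hS.r0_le.trans hS.a_le0)
    have w0' : 0 < S'.w 0 := hr.trans_le (hS'.r0_le.trans hS'.a_le0)
    obtain ⟨c1, -, c3⟩ := Wdg296.slopes_of_not_Nd (StP.of_shN hS w0) (StP.of_shN hS' w0') hρ.le
      hj.le hS.w0_le hS.w_le hS'.w0_le hS'.w_le hT hT' hNd hls
    exact ⟨c1, c3⟩

end Crest.Agent.R136.Gen467
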