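import Crest.Agent.R136.Slb1_480

/-!
# R136, (RIG) for borderline lightlike windows, finite form, part 1 (helper418)

Lines of `ℝ³` `z ↦ p i + z • v i` (in the application `p = (A, F_a)`, `v = (c, -e)`), resolution
`1 / H`, full shading up to `lam`, multiplicity `≥ m` at every incidence, and the product type upper
bound `#{i' : ‖p i' - p i‖ ≤ r, |⟪v i' - v i, e⟫| ≤ w} ≤ K n r ^ a w ^ μ` with `a < 2`, `0 < μ`.
Kakeya in `ℝ³` (`km3_mult`) gives a plank which is as thin as the resolution, as wide as possible,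
and contains a power-small-loss part of one fan.
-/

set_option autoImplicit false

open Finset

namespace Crest.Agent.R136.Rig418

open Crest.Agent.R138.Defs (E2)
open Crest.Agent.R136.Slb480
open Crest.Agent.R138.Tub70 (InPl KM32)

open Classical in
/-- the family concentrates in a plank -/
theorem exists_plank (hKM : ∀ V : ℝ, KM32 V) (V : ℝ) (hV : 0 ≤ V) (ε : ℝ) (hε : 0 < ε) :
    ∃ C : ℝ, 0 < C ∧ ∀ H : ℕ, 1 ≤ H → V + 2 ≤ (H : ℝ) → ∀ (ι : Type) [Fintype ι] [Nonempty ι]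
      (p v : ι → E2) (I : Finset (ι × ℤ)) (m lam : ℝ), 0 < m → 0 < lam →
      (∀ i, ‖p i‖ ≤ V ∧ ‖v i‖ ≤ V) → (∀ x ∈ I, |x.2| ≤ (H : ℤ)) →
      (∀ i, lam * H ≤ ((I.filter fun x => x.1 = i).card : ℝ)) →
      (∀ x ∈ I, m ≤ ((I.filter fun y => y.2 = x.2 ∧
        ‖ps p v y.1 (x.2 / H) - ps p v x.1 (x.2 / H)‖ ≤ 1 / H).card : ℝ)) →
      ∃ (b : OrthonormalBasis (Fin 2) ℝ E2) (s : Fin 2 → ℝ) (p0 v0 : E2),
        (∀ j, 1 / (H : ℝ) ≤ s j ∧ s j ≤ 1) ∧
        m * lam ^ 2 / (C * (H : ℝ) ^ ε) * (s 0 * s 1) * (H : ℝ) ^ 2 <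
          ((Finset.univ.filter fun i => InPl b s p0 v0 (p i) (v i)).card : ℝ) := by
  obtain ⟨C, hC, key⟩ := km3_mult hKM V hV ε hε
  refine ⟨2 * C, by positivity, ?_⟩
  intro H hH hHV ι _ _ p v I m lam hm hlam hpv hI hline hmult
  have hH0 : (0 : ℝ) < H := by exact_mod_cast hH
  have hHε : 0 < (H : ℝ) ^ ε := Real.rpow_pos_of_pos hH0 ε
  by_contra hcon
  push Not at hcon
  have h1 := key H hH hHV ι p v I m lam (m * lam ^ 2 / (2 * C * (H : ℝ) ^ ε)) hm hlam
    (by positivity) hpv hI hline hmult (fun b s p0 v0 hs => hcon b s p0 v0 hs)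
  have h2 : C * (H : ℝ) ^ ε * (m * lam ^ 2 / (2 * C * (H : ℝ) ^ ε)) = m * lam ^ 2 / 2 := by
    field_simp
  rw [h2] at h1
  have : 0 < m * lam ^ 2 := by positivity
  linarith

/-- norm of a vector of `E2` from its coordinates in an orthonormal basis -/
lemma norm_le_of_coord (b : OrthonormalBasis (Fin 2) ℝ E2) (x : E2) {r : ℝ}
    (h : ∀ j, |inner ℝ x (b j)| ≤ r) : ‖x‖ ≤ 2 * r := by
  have h1 := b.sum_repr' x
  have h2 : x = ∑ j, (inner ℝ (b j) x : ℝ) • b j := h1.symm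
  rw [h2]
  refine (norm_sum_le _ _).trans ?_
  rw [Fin.sum_univ_two]
  have h3 : ∀ j, ‖(inner ℝ (b j) x : ℝ) • b j‖ ≤ r := by
    intro j
    rw [norm_smul, b.norm_eq_one, mul_one, Real.norm_eq_abs, real_inner_comm]
    exact h j
  linarith [h3 0, h3 1]

/-- projection to a unit vector in terms of coordinates -/
lemma inner_le_of_coord (b : OrthonormalBasis (Fin 2) ℝ E2) (x e : E2) {s : Fin 2 → ℝ}
    (h : ∀ j, |inner ℝ x (b j)| ≤ s j) :
    |inner ℝ x e| ≤ ∑ j, |inner ℝ e (b j)| * s j := by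
  have h1 := b.sum_inner_mul_inner x e
  rw [← h1]
  refine (Finset.abs_sum_le_sum_abs _ _).trans ?_
  refine Finset.sum_le_sum fun j _ => ?_
  rw [abs_mul, real_inner_comm (b j) e, mul_comm]
  rw [real_inner_comm e (b j)]
  exact mul_le_mul_of_nonneg_left (h j) (abs_nonneg _)

end Crest.Agent.R136.Rig418
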