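import Crest.Agent.R136.HR4_829
import Crest.Agent.R136.HR2_829
import Crest.Agent.R136.Rig1_418
import Crest.Agent.R136.Ful3_403

/-!
# R136, END-LAB part 1 (helper544): a class inside one slab, finite form

`lab_gam`: incidences (line, real height) over the cell `J0` of level `i`; two linear functionals
`ψ 0, ψ 1` of all lines stay in `[-1, 1]` (relative to a centre line `c`); full own shading up to
resolution `2 ^ -M`; at least `m` lines in the box `1 / 2 / 2 ^ M` around every incidence; at most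
`P s₀ s₁` lines in a plank.  Then `m 2 ^ (2 M) ≤ 2 ^ (ε M) P` (Kakeya in `ℝ³`).
-/

set_option autoImplicit false
set_option linter.unusedVariables false
set_option linter.unusedSectionVars false

namespace Crest.Agent.R136.Lab544

open Finset
open Crest.Agent.R138.Defs (E2)
open Crest.Agent.R138.Tub70 (InPl KM32)
open Crest.Agent.R138.Mk163 (zc zl rho alive own)
open Crest.Agent.R136.Sh605
open Crest.Agent.R136.HR829
open Crest.Agent.R136.Slb480 (ps)
open Crest.Agent.R136.Ful403 (mk2 mk2_apply inner2 basis_sq norm_le_two)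

/-- scaled base position at the middle of the cell -/
noncomputable def pp (ψ : Fin 2 → V3) (c : Ln4) (zm : ℝ) (t : Ln4) : E2 :=
  mk2 fun j => 1 / 8 * dt (ψ j) (t.pos zm - c.pos zm)

/-- scaled base velocity -/
noncomputable def vv (ψ : Fin 2 → V3) (c : Ln4) (lam : ℝ) (t : Ln4) : E2 :=
  mk2 fun j => 1 / 8 * (lam * dt (ψ j) (t.v - c.v))

theorem dt_pos' (ψ : V3) (c t : Ln4) (zm lam u : ℝ) :
    dt ψ (t.pos (zm + lam * u) - c.pos (zm + lam * u)) =
      dt ψ (t.pos zm - c.pos zm) + lam * dt ψ (t.v - c.v) * u := by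
  simp only [dt, Ln4.pos, Pi.sub_apply]; ring

theorem ps_apply {ι : Type} (ψ : Fin 2 → V3) (c : Ln4) (zm lam : ℝ) (L : ι → Ln4) (t : ι)
    (u : ℝ) (j : Fin 2) : ps (fun t => pp ψ c zm (L t)) (fun t => vv ψ c lam (L t)) t u j =
      1 / 8 * dt (ψ j) ((L t).pos (zm + lam * u) - c.pos (zm + lam * u)) := by
  unfold ps pp vv
  rw [dt_pos']
  simp only [PiLp.add_apply, PiLp.smul_apply, smul_eq_mul, mk2_apply]
  ring

/-- the second vector of an orthonormal basis of the plane -/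
theorem basis_rot (b : OrthonormalBasis (Fin 2) ℝ E2) (y : E2) :
    |inner ℝ y (b 1)| = |-((b 0) 1) * y 0 + (b 0) 0 * y 1| := by
  have h0 := basis_sq b 0
  have h1 := basis_sq b 1
  have h2 : inner ℝ (b 0) (b 1) = (0 : ℝ) := b.orthonormal.2 (by decide)
  rw [inner2] at h2
  rw [inner2]
  set α := (b 0) 0
  set β := (b 0) 1
  set γ := (b 1) 0
  set δ := (b 1) 1
  have hγ : γ = -β * (α * δ - β * γ) := by
    have : γ = (α ^ 2 + β ^ 2) * γ := by rw [h0, one_mul]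
    linear_combination this + α * h2
  have hδ : δ = α * (α * δ - β * γ) := by
    have : δ = (α ^ 2 + β ^ 2) * δ := by rw [h0, one_mul]
    linear_combination this + β * h2
  have hd : (α * δ - β * γ) ^ 2 = 1 := by
    have : (α * δ - β * γ) ^ 2 = (α ^ 2 + β ^ 2) * (γ ^ 2 + δ ^ 2) - (α * γ + β * δ) ^ 2 := by ring
    rw [this, h0, h1, h2]; ring
  have hd1 : |α * δ - β * γ| = 1 := by
    rw [← sq_abs] at hd
    exact (pow_eq_one_iff_of_nonneg (abs_nonneg _) two_ne_zero).1 hd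
  have e : y 0 * γ + y 1 * δ = (α * δ - β * γ) * (-β * y 0 + α * y 1) := by
    linear_combination (y 0) * hγ + (y 1) * hδ
  rw [e, abs_mul, hd1, one_mul]

/-- change of the height -/
theorem dt_move {ψ : V3} {c t : Ln4} {zm lam : ℝ}
    (h : ∀ u : ℝ, |u| ≤ 1 → |dt ψ (t.pos (zm + lam * u) - c.pos (zm + lam * u))| ≤ 1) :
    |lam * dt ψ (t.v - c.v)| ≤ 1 := by
  have h1 := h 1 (by norm_num)
  have h2 := h (-1) (by norm_num)
  rw [dt_pos'] at h1 h2
  rw [abs_le] at h1 h2 ⊢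
  constructor <;> linarith [h1.1, h1.2, h2.1, h2.2]

theorem dt_tri (ψ : V3) (t y c : Ln4) (z : ℝ) :
    dt ψ (t.pos z - y.pos z) = dt ψ (t.pos z - c.pos z) - dt ψ (y.pos z - c.pos z) := by
  simp only [dt, Pi.sub_apply]; ring

open Classical in
/-- **a class inside one slab, lines** -/
theorem lab_gam (hKM : ∀ V : ℝ, KM32 V) {ε : ℝ} (hε : 0 < ε) :
    ∃ κ : ℝ, ∃ M₀ : ℕ, 0 < κ ∧ ∀ (F : Finset (ℕ × ℝ)) (L : ℕ → Ln4) (ψ : Fin 2 → V3) (c : Ln4)
      (i M : ℕ) (J0 : ℤ) (m P : ℝ), F.Nonempty → M₀ ≤ M →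
      (∀ x ∈ F, zc i x.2 = J0) →
      (∀ x ∈ F, ∀ z, zl i J0 ≤ z → z ≤ zl i J0 + rho i → ∀ j,
        |dt (ψ j) ((L x.1).pos z - c.pos z)| ≤ 1) →
      (∀ x ∈ F, (2 : ℝ) ^ ((M : ℝ) - κ * M) ≤ ((own F i (i + M + 1) x).card : ℝ)) →
      (∀ x ∈ F, ∃ z, zc (i + M + 1) z = zc (i + M + 1) x.2 ∧
        m ≤ (((alive F (i + M + 1) (zc (i + M + 1) x.2)).filter fun t =>
          ∀ j, |dt (ψ j) ((L t).pos z - (L x.1).pos z)| ≤ 1 / 2 / 2 ^ M).card : ℝ)) →
      (∀ x ∈ F, ∀ α β : ℝ, α ^ 2 + β ^ 2 = 1 → ∀ s : Fin 2 → ℝ,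
        (∀ j, 1 / (2 : ℝ) ^ M ≤ s j ∧ s j ≤ 1) →
        (((F.image Prod.fst).filter fun t => ∀ z, zl i J0 ≤ z → z ≤ zl i J0 + rho i →
          |α * dt (ψ 0) ((L t).pos z - (L x.1).pos z) +
            β * dt (ψ 1) ((L t).pos z - (L x.1).pos z)| ≤ 16 * s 0 ∧
          |-β * dt (ψ 0) ((L t).pos z - (L x.1).pos z) +
            α * dt (ψ 1) ((L t).pos z - (L x.1).pos z)| ≤ 16 * s 1).card : ℝ) ≤
          P * (s 0 * s 1)) →
      m * 2 ^ (2 * M) ≤ (2 : ℝ) ^ (ε * M) * P := by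
  obtain ⟨C, hC, key⟩ := Rig418.exists_plank hKM 1 zero_le_one (ε / 4) (by positivity)
  obtain ⟨M₁, hM₁⟩ := exists_nat_ge (Real.logb 2 C / (ε / 4))
  refine ⟨ε / 8, max 2 M₁, by positivity, ?_⟩
  intro F L ψ c i M J0 m P hF hM' hJ hbd hown hrich hplank
  have hM2 : 2 ≤ M := (le_max_left _ _).trans hM'
  have hM1 : M₁ ≤ M := (le_max_right _ _).trans hM'
  -- the constant
  have hCM : C ≤ (2 : ℝ) ^ (ε / 4 * M) := by
    rw [← Real.rpow_logb (by norm_num : (0:ℝ) < 2) (by norm_num) hC]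
    refine Real.rpow_le_rpow_of_exponent_le (by norm_num) ?_
    rw [div_le_iff₀ (by positivity)] at hM₁
    have : (M₁ : ℝ) ≤ M := by exact_mod_cast hM1
    nlinarith
  by_cases hm : 0 < m
  swap
  · -- `P` is nonnegative
    obtain ⟨x, hx⟩ := hF
    have h1 := hplank x hx 1 0 (by norm_num) (fun _ => 1) (fun _ => ⟨by
      rw [div_le_one (by positivity)]; exact one_le_pow₀ (by norm_num), le_rfl⟩)
    have hP : 0 ≤ P := by
      have : (0:ℝ) ≤ P * (1 * 1) := (Nat.cast_nonneg _).trans h1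
      linarith
    push Not at hm
    calc m * 2 ^ (2 * M) ≤ 0 := mul_nonpos_of_nonpos_of_nonneg hm (by positivity)
      _ ≤ _ := by positivity
  -- the data
  set ι := {t : ℕ // t ∈ F.image Prod.fst} with hι
  obtain ⟨x₀, hx₀⟩ := hF
  have hιne : Nonempty ι := ⟨⟨x₀.1, mem_image_of_mem _ hx₀⟩⟩
  set zM := zm i J0 with hzM
  set lam := rho i / 2 with hlam
  have hlam0 : 0 < lam := by have := rho_pos i; positivity
  have hcell : ∀ u : ℝ, |u| ≤ 1 → zl i J0 ≤ zM + lam * u ∧ zM + lam * u ≤ zl i J0 + rho i := by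
    intro u hu
    have e : zM = zl i J0 + lam := rfl
    have e2 : rho i = 2 * lam := by rw [hlam]; ring
    rw [abs_le] at hu
    constructor
    · rw [e]; nlinarith
    · rw [e, e2]; nlinarith
  have hbu : ∀ x ∈ F, ∀ j, ∀ u : ℝ, |u| ≤ 1 →
      |dt (ψ j) ((L x.1).pos (zM + lam * u) - c.pos (zM + lam * u))| ≤ 1 :=
    fun x hx j u hu => hbd x hx _ (hcell u hu).1 (hcell u hu).2 j
  have hι' : ∀ t : ι, ∃ x ∈ F, x.1 = t.1 := fun t => by
    obtain ⟨x, hx, h⟩ := mem_image.1 t.2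
    exact ⟨x, hx, h⟩
  set p : ι → E2 := fun t => pp ψ c zM (L t.1) with hp
  set v : ι → E2 := fun t => vv ψ c lam (L t.1) with hv
  have hpsj : ∀ (t : ι) (u : ℝ) (j : Fin 2), ps p v t u j =
      1 / 8 * dt (ψ j) ((L t.1).pos (zM + lam * u) - c.pos (zM + lam * u)) :=
    fun t u j => ps_apply ψ c zM lam (fun t : ι => L t.1) t u j
  set H : ℕ := 2 ^ M with hH
  have hHr : (H : ℝ) = 2 ^ M := by rw [hH]; push_cast; ring
  have hH0 : (0 : ℝ) < H := by rw [hHr]; positivity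
  set I : Finset (ι × ℤ) := (univ ×ˢ ((inc F i M J0).image Prod.snd)).filter
    fun y => (y.1.1, y.2) ∈ inc F i M J0 with hI
  have hmemI : ∀ y : ι × ℤ, y ∈ I ↔ (y.1.1, y.2) ∈ inc F i M J0 := by
    intro y
    rw [hI, mem_filter, mem_product]
    exact ⟨fun h => h.2, fun h => ⟨⟨mem_univ _, mem_image.2 ⟨_, h, rfl⟩⟩, h⟩⟩
  have hinc : ∀ y : ι × ℤ, y ∈ I ↔ ∃ x ∈ F, x.1 = y.1.1 ∧
      ix M J0 (zc (i + M + 1) x.2) = y.2 := by
    intro y
    rw [hmemI]
    unfold inc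
    rw [mem_image]
    constructor
    · rintro ⟨x, hx, h⟩
      rw [Prod.mk.injEq] at h
      exact ⟨x, hx, h.1, h.2⟩
    · rintro ⟨x, hx, h1, h2⟩
      exact ⟨x, hx, by rw [h1, h2]⟩
  have hH3 : (1 : ℝ) + 2 ≤ (H : ℝ) := by
    rw [hHr]
    calc (1:ℝ) + 2 ≤ 2 ^ 2 := by norm_num
      _ ≤ 2 ^ M := pow_le_pow_right₀ (by norm_num) hM2
  have hb1 : ∀ t : ι, ‖p t‖ ≤ 1 ∧ ‖v t‖ ≤ 1 := by
    intro t
    obtain ⟨x, hx, hxt⟩ := hι' t
    constructor
    · refine (norm_le_two (M := 1 / 8) fun a => ?_).trans (by norm_num)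
      have h1 := hbu x hx a 0 (by norm_num)
      rw [mul_zero, add_zero, hxt] at h1
      change |1 / 8 * dt (ψ a) ((L t.1).pos zM - c.pos zM)| ≤ 1 / 8
      rw [abs_mul, abs_of_pos (by norm_num : (0:ℝ) < 1 / 8)]
      linarith
    · refine (norm_le_two (M := 1 / 8) fun a => ?_).trans (by norm_num)
      have h1 := dt_move (hbu x hx a)
      rw [hxt] at h1
      change |1 / 8 * (lam * dt (ψ a) ((L t.1).v - c.v))| ≤ 1 / 8
      rw [abs_mul, abs_of_pos (by norm_num : (0:ℝ) < 1 / 8)]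
      linarith
  have hb2 : ∀ y ∈ I, |y.2| ≤ (H : ℤ) := by
    intro y hy
    obtain ⟨x, hx, -, h2⟩ := (hinc y).1 hy
    have h3 := ix_abs (M := M) (hJ x hx)
    rw [← h2]
    have h4 : ((|ix M J0 (zc (i + M + 1) x.2)| : ℤ) : ℝ) ≤ ((H : ℤ) : ℝ) := by
      push_cast; rw [hHr]; exact h3
    exact_mod_cast h4
  have hb3 : ∀ t : ι, (2 : ℝ) ^ (-(ε / 8 * M)) * H ≤ ((I.filter fun y => y.1 = t).card : ℝ) := by
    intro t
    obtain ⟨x, hx, hxt⟩ := hι' t
    have h1 := (hown x hx).trans (own_le' hJ x)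
    have h2 : ((inc F i M J0).filter fun y => y.1 = x.1).card ≤
        (I.filter fun y => y.1 = t).card := by
      refine le_trans (card_le_card (t := (I.filter fun y => y.1 = t).image
        fun y => (y.1.1, y.2)) fun y hy => ?_) card_image_le
      rw [mem_filter] at hy
      rw [mem_image]
      refine ⟨(t, y.2), mem_filter.2 ⟨(hmemI _).2 ?_, rfl⟩, ?_⟩
      · change (t.1, y.2) ∈ _
        rw [← hxt, ← hy.2]; exact hy.1
      · change (t.1, y.2) = y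
        rw [← hxt, ← hy.2]
    have h3 : ((inc F i M J0).filter fun y => y.1 = x.1).card ≤
        (I.filter fun y => y.1 = t).card := h2
    refine le_trans (le_of_eq ?_) (h1.trans (Nat.cast_le.2 h3))
    rw [hHr, ← Real.rpow_natCast, ← Real.rpow_add (by norm_num)]
    congr 1; ring
  have hb4 : ∀ y ∈ I, m ≤ ((I.filter fun y' => y'.2 = y.2 ∧
      ‖ps p v y'.1 (y.2 / H) - ps p v y.1 (y.2 / H)‖ ≤ 1 / H).card : ℝ) := by
    intro y hy
    obtain ⟨x, hx, h1, h2⟩ := (hinc y).1 hy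
    obtain ⟨z, hz, hr⟩ := hrich x hx
    refine hr.trans (Nat.cast_le.2 ?_)
    refine le_trans (card_le_card (t := ((I.filter fun y' => y'.2 = y.2 ∧
      ‖ps p v y'.1 (y.2 / H) - ps p v y.1 (y.2 / H)‖ ≤ 1 / H).image fun y' => y'.1.1))
      fun t ht => ?_) card_image_le
    rw [mem_filter] at ht
    obtain ⟨ht1, ht2⟩ := ht
    unfold alive at ht1
    obtain ⟨x', hx', hxt⟩ := mem_image.1 ht1
    rw [mem_filter] at hx'
    have htm : t ∈ F.image Prod.fst := by rw [← hxt]; exact mem_image_of_mem _ hx'.1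
    rw [mem_image]
    refine ⟨(⟨t, htm⟩, y.2), mem_filter.2 ⟨(hinc _).2 ⟨x', hx'.1, hxt, ?_⟩, rfl, ?_⟩, rfl⟩
    · rw [hx'.2]; exact h2
    · have hy2 : ((y.2 : ℝ) / H) = uh M J0 (zc (i + M + 1) x.2) := by
        unfold uh; rw [h2, hHr]
      have hzi : zc i z = J0 := by
        rw [zc_nest (by omega : i ≤ i + M + 1) hz]; exact hJ x hx
      have hzc := zc_mem i z
      rw [hzi] at hzc
      have hu1 : |un i J0 z| ≤ 1 := un_abs hzc.1 hzc.2.le
      have hnear : |uh M J0 (zc (i + M + 1) x.2) - un i J0 z| ≤ 1 / 2 ^ M := by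
        rw [abs_sub_comm, ← hz]; exact un_near
      have hz1 : zM + lam * un i J0 z = z := un_spec i J0 z
      change ‖ps p v ⟨t, htm⟩ (y.2 / H) - ps p v y.1 (y.2 / H)‖ ≤ 1 / H
      rw [hy2, hHr]
      refine (norm_le_two (M := 1 / 2 / 2 ^ M) fun a => ?_).trans (le_of_eq (by ring))
      rw [PiLp.sub_apply, hpsj, hpsj]
      set u := uh M J0 (zc (i + M + 1) x.2) with hu
      have hv1 := dt_move (hbu x hx a)
      have hv2 := dt_move (hbu x' hx'.1 a)
      rw [hxt] at hv2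
      rw [h1] at hv1
      have h5 := ht2 a
      rw [h1, dt_tri (ψ a) (L t) (L y.1.1) c, ← hz1, dt_pos', dt_pos'] at h5
      change |1 / 8 * dt (ψ a) ((L t).pos (zM + lam * u) - c.pos (zM + lam * u)) -
        1 / 8 * dt (ψ a) ((L y.1.1).pos (zM + lam * u) - c.pos (zM + lam * u))| ≤ 1 / 2 / 2 ^ M
      rw [dt_pos', dt_pos']
      set A1 := dt (ψ a) ((L t).pos zM - c.pos zM)
      set A2 := dt (ψ a) ((L y.1.1).pos zM - c.pos zM)
      set B1 := lam * dt (ψ a) ((L t).v - c.v)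
      set B2 := lam * dt (ψ a) ((L y.1.1).v - c.v)
      have e : 1 / 8 * (A1 + B1 * u) - 1 / 8 * (A2 + B2 * u) =
          1 / 8 * ((A1 + B1 * un i J0 z) - (A2 + B2 * un i J0 z)) +
            1 / 8 * ((B1 - B2) * (u - un i J0 z)) := by ring
      rw [e]
      refine (abs_add_le _ _).trans ?_
      rw [abs_mul, abs_mul (1 / 8 : ℝ), abs_mul, abs_of_pos (by norm_num : (0:ℝ) < 1 / 8)]
      have hB : |B1 - B2| ≤ 2 := (abs_sub _ _).trans (by linarith)
      have hq : (0:ℝ) ≤ 1 / 2 ^ M := by positivity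
      have h6 : |B1 - B2| * |u - un i J0 z| ≤ 2 * (1 / 2 ^ M) := by gcongr
      have e5 : (1:ℝ) / 2 / 2 ^ M = 1 / 2 * (1 / 2 ^ M) := by ring
      rw [e5] at h5 ⊢
      linarith
  obtain ⟨b, s, p0, v0, hs, hcount⟩ := key H Nat.one_le_two_pow hH3 ι p v I m
    ((2 : ℝ) ^ (-(ε / 8 * M))) hm (Real.rpow_pos_of_pos (by norm_num) _) hb1 hb2
    (fun t => by convert hb3 t) (fun y hy => by convert hb4 y hy)
  set A := Finset.univ.filter fun t => InPl b s p0 v0 (p t) (v t) with hA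
  have hlow : (0 : ℝ) ≤ m * ((2 : ℝ) ^ (-(ε / 8 * M))) ^ 2 / (C * (H : ℝ) ^ (ε / 4)) *
      (s 0 * s 1) * (H : ℝ) ^ 2 := by
    have := (hs 0).1
    have := (hs 1).1
    have h1 : (0:ℝ) < 1 / H := by positivity
    have : 0 < s 0 := by linarith
    have : 0 < s 1 := by linarith
    have := hm.le
    positivity
  have hApos : (0 : ℝ) < A.card := hlow.trans_lt hcount
  obtain ⟨t0, ht0⟩ := card_pos.1 (by exact_mod_cast hApos : 0 < A.card)
  rw [hA, mem_filter] at ht0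
  obtain ⟨x, hx, hxt⟩ := hι' t0
  have hb0 := basis_sq b 0
  have hP := hplank x hx ((b 0) 0) ((b 0) 1) hb0 s (fun j => by rw [← hHr]; exact hs j)
  have hAle : (A.card : ℝ) ≤ P * (s 0 * s 1) := by
    refine le_trans (Nat.cast_le.2 ?_) hP
    rw [← card_map (Function.Embedding.subtype _)]
    refine card_le_card fun t ht => ?_
    rw [mem_map] at ht
    obtain ⟨t', ht', rfl⟩ := ht
    rw [hA, mem_filter] at ht'
    rw [mem_filter]
    refine ⟨t'.2, fun z hz hz' => ?_⟩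
    have hu := un_abs hz hz'
    have hz1 : zM + lam * un i J0 z = z := un_spec i J0 z
    have hd : ∀ j, |inner ℝ (ps p v t' (un i J0 z) - ps p v t0 (un i J0 z)) (b j)| ≤ 2 * s j := by
      intro j
      have g1 := ht'.2 (un i J0 z) hu j
      have g2 := ht0.2 (un i J0 z) hu j
      have e : ps p v t' (un i J0 z) - ps p v t0 (un i J0 z) =
          (p t' - p0 + un i J0 z • (v t' - v0)) - (p t0 - p0 + un i J0 z • (v t0 - v0)) := by
        unfold ps; module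
      rw [e, inner_sub_left]
      refine (abs_sub _ _).trans ?_
      linarith
    have hy : ∀ j, (ps p v t' (un i J0 z) - ps p v t0 (un i J0 z)) j =
        1 / 8 * dt (ψ j) ((L t'.1).pos z - (L x.1).pos z) := by
      intro j
      rw [PiLp.sub_apply, hpsj, hpsj, hz1, ← hxt, dt_tri (ψ j) (L t'.1) (L x.1) c]
      ring
    have h0 := hd 0
    have h1 := hd 1
    rw [basis_rot, hy, hy] at h1
    rw [inner2, hy, hy] at h0
    constructor
    · have e : (b 0) 0 * dt (ψ 0) ((L t'.1).pos z - (L x.1).pos z) +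
          (b 0) 1 * dt (ψ 1) ((L t'.1).pos z - (L x.1).pos z) =
          8 * (1 / 8 * dt (ψ 0) ((L t'.1).pos z - (L x.1).pos z) * (b 0) 0 +
          1 / 8 * dt (ψ 1) ((L t'.1).pos z - (L x.1).pos z) * (b 0) 1) := by ring
      change |(b 0) 0 * dt (ψ 0) ((L t'.1).pos z - (L x.1).pos z) +
          (b 0) 1 * dt (ψ 1) ((L t'.1).pos z - (L x.1).pos z)| ≤ 16 * s 0
      rw [e, abs_mul, abs_of_pos (by norm_num : (0:ℝ) < 8)]
      linarith
    · have e : -((b 0) 1) * dt (ψ 0) ((L t'.1).pos z - (L x.1).pos z) +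
          (b 0) 0 * dt (ψ 1) ((L t'.1).pos z - (L x.1).pos z) =
          8 * (-((b 0) 1) * (1 / 8 * dt (ψ 0) ((L t'.1).pos z - (L x.1).pos z)) +
          (b 0) 0 * (1 / 8 * dt (ψ 1) ((L t'.1).pos z - (L x.1).pos z))) := by ring
      change |-((b 0) 1) * dt (ψ 0) ((L t'.1).pos z - (L x.1).pos z) +
          (b 0) 0 * dt (ψ 1) ((L t'.1).pos z - (L x.1).pos z)| ≤ 16 * s 1
      rw [e, abs_mul, abs_of_pos (by norm_num : (0:ℝ) < 8)]
      linarith
  have hfin := hcount.trans_le hAle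
  have hs0 : 0 < s 0 := lt_of_lt_of_le (by positivity) (hs 0).1
  have hs1 : 0 < s 1 := lt_of_lt_of_le (by positivity) (hs 1).1
  have h3 : m * ((2 : ℝ) ^ (-(ε / 8 * M))) ^ 2 / (C * (H : ℝ) ^ (ε / 4)) * (H : ℝ) ^ 2 ≤ P := by
    have h4 : (m * ((2 : ℝ) ^ (-(ε / 8 * M))) ^ 2 / (C * (H : ℝ) ^ (ε / 4)) * (H : ℝ) ^ 2) *
        (s 0 * s 1) ≤ P * (s 0 * s 1) := by
      refine le_trans (le_of_eq ?_) hfin.le
      ring
    exact le_of_mul_le_mul_right h4 (by positivity)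
  have e1 : ((2 : ℝ) ^ (-(ε / 8 * M))) ^ 2 = (2 : ℝ) ^ (-(ε / 4 * M)) := by
    rw [← Real.rpow_natCast, ← Real.rpow_mul (by norm_num)]
    congr 1; push_cast; ring
  have e2 : (H : ℝ) ^ (ε / 4) = (2 : ℝ) ^ (ε / 4 * M) := by
    rw [hHr, ← Real.rpow_natCast, ← Real.rpow_mul (by norm_num)]
    congr 1; ring
  have e3 : (H : ℝ) ^ 2 = 2 ^ (2 * M) := by rw [hHr, ← pow_mul]; congr 1; ring
  rw [e1, e2, e3, div_mul_eq_mul_div, div_le_iff₀ (by positivity)] at h3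
  have hP0 : 0 ≤ P := by
    have : (0:ℝ) < P * (s 0 * s 1) := hApos.trans_le hAle
    exact (pos_of_mul_pos_left this (by positivity)).le
  have e4 : (2 : ℝ) ^ (ε / 4 * M) * (2 : ℝ) ^ (-(ε / 4 * M)) = 1 := by
    rw [← Real.rpow_add (by norm_num)]; simp
  calc m * 2 ^ (2 * M) = (2 : ℝ) ^ (ε / 4 * M) *
        (m * (2 : ℝ) ^ (-(ε / 4 * M)) * 2 ^ (2 * M)) := by
        calc m * 2 ^ (2 * M) = ((2 : ℝ) ^ (ε / 4 * M) * (2 : ℝ) ^ (-(ε / 4 * M))) *
              (m * 2 ^ (2 * M)) := by rw [e4, one_mul]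
          _ = _ := by ring
    _ ≤ (2 : ℝ) ^ (ε / 4 * M) * (P * (C * (2 : ℝ) ^ (ε / 4 * M))) := by gcongr
    _ ≤ (2 : ℝ) ^ (ε / 4 * M) * (P * ((2 : ℝ) ^ (ε / 4 * M) * (2 : ℝ) ^ (ε / 4 * M))) := by
        gcongr
    _ = ((2 : ℝ) ^ (ε / 4 * M) * (2 : ℝ) ^ (ε / 4 * M) * (2 : ℝ) ^ (ε / 4 * M)) * P := by ring
    _ = (2 : ℝ) ^ (3 * (ε / 4) * M) * P := by
        rw [← Real.rpow_add (by norm_num), ← Real.rpow_add (by norm_num)]
        congr 2; ring
    _ ≤ (2 : ℝ) ^ (ε * M) * P := by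
        refine mul_le_mul_of_nonneg_right (Real.rpow_le_rpow_of_exponent_le (by norm_num) ?_) hP0
        have : (0:ℝ) ≤ M := Nat.cast_nonneg _
        nlinarith

end Crest.Agent.R136.Lab544
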