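import Crest.Agent.R136.Lab1_544
import Crest.Agent.R136.End4_882

/-!
# R136, END-LAB part 2 (helper544): incidences, D-max for sheets

`lab_box`: D-max for the intersection of a slab with a rotated plank (any linear functionals);
`lab_fin`: counts of incidences: `m 2 ^ (3 M) ≤ 2 ^ (ε M) D (s a w₂ w₁ R)`.
-/

set_option autoImplicit false
set_option linter.unusedVariables false
set_option linter.unusedSectionVars false

namespace Crest.Agent.R136.Lab544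

open Finset
open Crest.Agent.R138.Defs (E2)
open Crest.Agent.R138.Tub70 (InPl KM32)
open Crest.Agent.R138.Mk163 (zc zl rho alive own)
open Crest.Agent.R136.Sh605
open Crest.Agent.R136.HR829

/-- `φ` is the dual basis of the functionals `χ, ψ 0, ψ 1` -/
def Dual (χ : V3) (ψ : Fin 2 → V3) (φ : Fin 3 → V3) : Prop :=
  ∀ δ : V3, dt χ δ • φ 0 + dt (ψ 0) δ • φ 1 + dt (ψ 1) δ • φ 2 = δ

theorem Dual.det_ne {χ : V3} {ψ : Fin 2 → V3} {φ : Fin 3 → V3} (h : Dual χ ψ φ) :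
    dt (crs (φ 0) (φ 1)) (φ 2) ≠ 0 := by
  have hE : ∀ i j : Fin 3, χ j * φ 0 i + ψ 0 j * φ 1 i + ψ 1 j * φ 2 i = if i = j then 1 else 0 := by
    intro i j
    have h1 := congrFun (h fun k => if k = j then 1 else 0) i
    simp only [Pi.add_apply, Pi.smul_apply, smul_eq_mul] at h1
    have h2 : ∀ x : V3, dt x (fun k => if k = j then 1 else 0) = x j := by
      intro x
      fin_cases j <;> simp [dt]
    rw [h2, h2, h2] at h1
    exact h1
  have key : dt (crs (φ 0) (φ 1)) (φ 2) * dt (crs χ (ψ 0)) (ψ 1) = 1 := by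
    have e00 := hE 0 0
    have e01 := hE 0 1
    have e02 := hE 0 2
    have e10 := hE 1 0
    have e11 := hE 1 1
    have e12 := hE 1 2
    have e20 := hE 2 0
    have e21 := hE 2 1
    have e22 := hE 2 2
    simp only [Fin.isValue, if_true, reduceIte, one_ne_zero, zero_ne_one, Fin.reduceEq] at e00 e01 e02 e10 e11 e12 e20 e21 e22
    have e : dt (crs (φ 0) (φ 1)) (φ 2) * dt (crs χ (ψ 0)) (ψ 1) =
        (χ 0 * φ 0 0 + ψ 0 0 * φ 1 0 + ψ 1 0 * φ 2 0) *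
          ((χ 1 * φ 0 1 + ψ 0 1 * φ 1 1 + ψ 1 1 * φ 2 1) *
            (χ 2 * φ 0 2 + ψ 0 2 * φ 1 2 + ψ 1 2 * φ 2 2) -
           (χ 2 * φ 0 1 + ψ 0 2 * φ 1 1 + ψ 1 2 * φ 2 1) *
            (χ 1 * φ 0 2 + ψ 0 1 * φ 1 2 + ψ 1 1 * φ 2 2)) -
        (χ 1 * φ 0 0 + ψ 0 1 * φ 1 0 + ψ 1 1 * φ 2 0) *
          ((χ 0 * φ 0 1 + ψ 0 0 * φ 1 1 + ψ 1 0 * φ 2 1) *
            (χ 2 * φ 0 2 + ψ 0 2 * φ 1 2 + ψ 1 2 * φ 2 2) -
           (χ 2 * φ 0 1 + ψ 0 2 * φ 1 1 + ψ 1 2 * φ 2 1) *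
            (χ 0 * φ 0 2 + ψ 0 0 * φ 1 2 + ψ 1 0 * φ 2 2)) +
        (χ 2 * φ 0 0 + ψ 0 2 * φ 1 0 + ψ 1 2 * φ 2 0) *
          ((χ 0 * φ 0 1 + ψ 0 0 * φ 1 1 + ψ 1 0 * φ 2 1) *
            (χ 1 * φ 0 2 + ψ 0 1 * φ 1 2 + ψ 1 1 * φ 2 2) -
           (χ 1 * φ 0 1 + ψ 0 1 * φ 1 1 + ψ 1 1 * φ 2 1) *
            (χ 0 * φ 0 2 + ψ 0 0 * φ 1 2 + ψ 1 0 * φ 2 2)) := by
      simp only [dt, crs, Matrix.cons_val_zero, Matrix.cons_val_one, Matrix.cons_val]
      ring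
    rw [e, e00, e01, e02, e10, e11, e12, e20, e21, e22]
    ring
  intro h0
  rw [h0, zero_mul] at key
  exact zero_ne_one key

/-- the determinant in an orthonormal frame -/
theorem det_le {e : Fin 3 → V3} (he : Ortho e) {φ : Fin 3 → V3} {K : ℝ} (hK : 0 < K) {W : V3}
    (hW : ∀ i, 0 < W i) (h : ∀ i k, |dt (e i) (φ k)| ≤ K * W i) :
    |dt (crs (φ 0) (φ 1)) (φ 2)| ≤ 6 * K ^ 3 * (W 0 * W 2 * W 1) := by
  have hφ : ∀ k, φ k = dt (e 0) (φ k) • e 0 + dt (e 1) (φ k) • e 1 + dt (e 2) (φ k) • e 2 := by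
    intro k
    funext j
    rw [he.expand (φ k) j]
    simp only [Pi.add_apply, Pi.smul_apply, smul_eq_mul]
  have h1 := det_comb e fun k => ![dt (e 0) (φ k), dt (e 1) (φ k), dt (e 2) (φ k)]
  have h2 : dt (crs (φ 0) (φ 1)) (φ 2) =
      dt (crs ![dt (e 0) (φ 0), dt (e 1) (φ 0), dt (e 2) (φ 0)]
        ![dt (e 0) (φ 1), dt (e 1) (φ 1), dt (e 2) (φ 1)])
        ![dt (e 0) (φ 2), dt (e 1) (φ 2), dt (e 2) (φ 2)] * dt (crs (e 0) (e 1)) (e 2) := by
    refine Eq.trans ?_ h1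
    simp only [Matrix.cons_val_zero, Matrix.cons_val_one, Matrix.cons_val]
    rw [← hφ 0, ← hφ 1, ← hφ 2]
  rw [h2, abs_mul, det_abs he, mul_one]
  have b : ∀ i k, |dt (e i) (φ k)| ≤ K * W i := h
  have t : ∀ i j k i' j' k' : Fin 3,
      |dt (e i) (φ i') * dt (e j) (φ j') * dt (e k) (φ k')| ≤ (K * W i) * (K * W j) * (K * W k) := by
    intro i j k i' j' k'
    rw [abs_mul, abs_mul]
    have := hW i
    have := hW j
    have := hW k
    have := b i i'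
    have := b j j'
    have := b k k'
    gcongr
  have e1 : dt (crs ![dt (e 0) (φ 0), dt (e 1) (φ 0), dt (e 2) (φ 0)]
        ![dt (e 0) (φ 1), dt (e 1) (φ 1), dt (e 2) (φ 1)])
        ![dt (e 0) (φ 2), dt (e 1) (φ 2), dt (e 2) (φ 2)] =
      dt (e 1) (φ 0) * dt (e 2) (φ 1) * dt (e 0) (φ 2) -
      dt (e 2) (φ 0) * dt (e 1) (φ 1) * dt (e 0) (φ 2) +
      dt (e 2) (φ 0) * dt (e 0) (φ 1) * dt (e 1) (φ 2) -
      dt (e 0) (φ 0) * dt (e 2) (φ 1) * dt (e 1) (φ 2) +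
      dt (e 0) (φ 0) * dt (e 1) (φ 1) * dt (e 2) (φ 2) -
      dt (e 1) (φ 0) * dt (e 0) (φ 1) * dt (e 2) (φ 2) := by
    rw [show ∀ x y z : V3, dt (crs x y) z = (x 1 * y 2 - x 2 * y 1) * z 0 +
      (x 2 * y 0 - x 0 * y 2) * z 1 + (x 0 * y 1 - x 1 * y 0) * z 2 from fun x y z => by
        simp only [dt, crs, Matrix.cons_val_zero, Matrix.cons_val_one, Matrix.cons_val]]
    simp only [Matrix.cons_val_zero, Matrix.cons_val_one, Matrix.cons_val]
    ring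
  rw [e1]
  have t1 := t 1 2 0 0 1 2
  have t2 := t 2 1 0 0 1 2
  have t3 := t 2 0 1 0 1 2
  have t4 := t 0 2 1 0 1 2
  have t5 := t 0 1 2 0 1 2
  have t6 := t 1 0 2 0 1 2
  rw [abs_le] at t1 t2 t3 t4 t5 t6 ⊢
  constructor
  · nlinarith [t1.1, t2.2, t3.1, t4.2, t5.1, t6.2]
  · nlinarith [t1.2, t2.1, t3.2, t4.1, t5.2, t6.1]

/-- Cauchy–Schwarz with a unit vector -/
theorem cs_unit {f χ : V3} (hf : dt f f = 1) {r B : ℝ} (hB : 0 ≤ B)
    (h : r ^ 2 * dt χ χ ≤ B ^ 2) : |dt χ (r • f)| ≤ B := by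
  refine abs_le_of_sq_le_sq ?_ hB
  have h1 := cs χ f
  rw [hf, mul_one] at h1
  rw [dt_smul]
  calc (r * dt χ f) ^ 2 = r ^ 2 * (dt χ f) ^ 2 := by ring
    _ ≤ r ^ 2 * dt χ χ := by gcongr
    _ ≤ B ^ 2 := h

open Classical in
/-- **D-max for a slab cut with a rotated plank** -/
theorem lab_box {ι : Type} (T : Finset ι) (L : ι → Ln4) {z0 ρ r0 D wmax : ℝ}
    {R : ℝ → ℝ → ℝ → ℝ} {e : Fin 3 → V3} (he : Ortho e) {w : V3} {a : ℝ} (ha : 0 < a)
    (haw : a ≤ w 2) (hw : w 2 ≤ w 1) (hD : 0 ≤ D)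
    (hR0 : ∀ x y z, 0 ≤ x → 0 ≤ y → 0 ≤ z → 0 ≤ R x y z)
    (hRm : ∀ x y z x' y' z', 0 ≤ x → 0 ≤ y → 0 ≤ z → x ≤ x' → y ≤ y' → z ≤ z' →
      R x y z ≤ R x' y' z')
    (hmax : DMaxN T L z0 ρ D R r0 wmax) {χ : V3} {ψ : Fin 2 → V3} {φ : Fin 3 → V3}
    (hd : Dual χ ψ φ) {K : ℝ} (hK : 0 < K) (hφ : ∀ i k, |dt (e i) (φ k)| ≤ K * Wd a w i)
    {s σ : ℝ} (hs : 0 < s) (hs1 : s ≤ 1) (hσ : 0 < σ) (hχ : r0 ^ 2 * dt χ χ ≤ (2 * s) ^ 2)
    (hψ : ∀ j, r0 ^ 2 * dt (ψ j) (ψ j) ≤ (8 * σ) ^ 2) (hwm : 192 * K * w 1 ≤ wmax)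
    {α β : ℝ} (hαβ : α ^ 2 + β ^ 2 = 1) {u : Fin 2 → ℝ} (hu : ∀ j, σ ≤ u j ∧ u j ≤ 1) (y : Ln4) :
    ((T.filter fun t => ∀ z, z0 ≤ z → z ≤ z0 + ρ →
      |dt χ ((L t).pos z - y.pos z)| ≤ 2 * s ∧
      |α * dt (ψ 0) ((L t).pos z - y.pos z) + β * dt (ψ 1) ((L t).pos z - y.pos z)| ≤ 16 * u 0 ∧
      |-β * dt (ψ 0) ((L t).pos z - y.pos z) + α * dt (ψ 1) ((L t).pos z - y.pos z)| ≤
        16 * u 1).card : ℝ) ≤
      18432 * K ^ 3 * D * (s * (u 0 * u 1)) *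
        (a * w 2 * w 1 * R (256 * K * a) (320 * K * w 2) (192 * K * w 1)) := by
  have hw2 : 0 < w 2 := ha.trans_le haw
  have hw1 : 0 < w 1 := hw2.trans_le hw
  have hu0 : 0 < u 0 := hσ.trans_le (hu 0).1
  have hu1 : 0 < u 1 := hσ.trans_le (hu 1).1
  have hα1 : |α| ≤ 1 := by
    refine abs_le_of_sq_le_sq ?_ zero_le_one
    nlinarith [sq_nonneg β]
  have hβ1 : |β| ≤ 1 := by
    refine abs_le_of_sq_le_sq ?_ zero_le_one
    nlinarith [sq_nonneg α]
  have hWd : ∀ i, 0 < Wd a w i := by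
    intro i
    fin_cases i
    · exact ha
    · exact hw1
    · exact hw2
  set E : Fin 3 → V3 := ![(2 * s) • φ 0, (16 * u 0) • (α • φ 1 + β • φ 2),
    (16 * u 1) • (-β • φ 1 + α • φ 2)] with hE
  have hE0 : E 0 = (2 * s) • φ 0 := rfl
  have hE1 : E 1 = (16 * u 0) • (α • φ 1 + β • φ 2) := rfl
  have hE2 : E 2 = (16 * u 1) • (-β • φ 1 + α • φ 2) := rfl
  have hdet : dt (crs (E 0) (E 1)) (E 2) = 512 * (s * (u 0 * u 1)) * dt (crs (φ 0) (φ 1)) (φ 2) := by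
    have : dt (crs (E 0) (E 1)) (E 2) = 512 * (s * (u 0 * u 1)) * (α ^ 2 + β ^ 2) *
        dt (crs (φ 0) (φ 1)) (φ 2) := by
      rw [hE0, hE1, hE2]
      simp only [dt, crs, Pi.add_apply, Pi.smul_apply, smul_eq_mul, Matrix.cons_val_zero,
        Matrix.cons_val_one, Matrix.cons_val]
      ring
    rw [this, hαβ, mul_one]
  have hφ0 := hd.det_ne
  have hdet0 : dt (crs (E 0) (E 1)) (E 2) ≠ 0 := by
    rw [hdet]
    exact mul_ne_zero (by positivity) hφ0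
  have hS : ∀ i j, |dt (e i) (E j)| ≤ 32 * K * Wd a w i := by
    intro i j
    have h0 := hφ i 0
    have h1 := hφ i 1
    have h2 := hφ i 2
    have hWi := hWd i
    have hKW : 0 < K * Wd a w i := by positivity
    fin_cases j
    · change |dt (e i) (E 0)| ≤ _
      rw [hE0, dt_smul, abs_mul, abs_of_pos (by positivity)]
      calc 2 * s * |dt (e i) (φ 0)| ≤ 2 * 1 * (K * Wd a w i) := by gcongr
        _ ≤ 32 * K * Wd a w i := by nlinarith
    · change |dt (e i) (E 1)| ≤ _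
      rw [hE1, dt_smul, dt_add, dt_smul, dt_smul, abs_mul, abs_of_pos (by positivity)]
      have : |α * dt (e i) (φ 1) + β * dt (e i) (φ 2)| ≤ 2 * (K * Wd a w i) := by
        refine (abs_add_le _ _).trans ?_
        rw [abs_mul, abs_mul]
        calc |α| * |dt (e i) (φ 1)| + |β| * |dt (e i) (φ 2)| ≤
            1 * (K * Wd a w i) + 1 * (K * Wd a w i) := by gcongr
          _ = _ := by ring
      calc 16 * u 0 * |α * dt (e i) (φ 1) + β * dt (e i) (φ 2)| ≤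
          16 * 1 * (2 * (K * Wd a w i)) := by
            have := (hu 0).2
            gcongr
        _ = _ := by ring
    · change |dt (e i) (E 2)| ≤ _
      rw [hE2, dt_smul, dt_add, dt_smul, dt_smul, abs_mul, abs_of_pos (by positivity)]
      have : |-β * dt (e i) (φ 1) + α * dt (e i) (φ 2)| ≤ 2 * (K * Wd a w i) := by
        refine (abs_add_le _ _).trans ?_
        rw [abs_mul, abs_mul, abs_neg]
        calc |β| * |dt (e i) (φ 1)| + |α| * |dt (e i) (φ 2)| ≤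
            1 * (K * Wd a w i) + 1 * (K * Wd a w i) := by gcongr
          _ = _ := by ring
      calc 16 * u 1 * |-β * dt (e i) (φ 1) + α * dt (e i) (φ 2)| ≤
          16 * 1 * (2 * (K * Wd a w i)) := by
            have := (hu 1).2
            gcongr
        _ = _ := by ring
  obtain ⟨f, A, B1, B2, hf, hA, hAB, hBB, hbox, hvol, bA, b2, b1⟩ := cover3 he (W := Wd a w) ha haw
    hw E hdet0 (by positivity) hS
  have hB2 : 0 < B2 := hA.trans_le hAB
  have hB1 : 0 < B1 := hB2.trans_le hBB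
  -- expansion
  have hexp : ∀ δ : V3, (dt χ δ / (2 * s)) • E 0 +
      ((α * dt (ψ 0) δ + β * dt (ψ 1) δ) / (16 * u 0)) • E 1 +
      ((-β * dt (ψ 0) δ + α * dt (ψ 1) δ) / (16 * u 1)) • E 2 = δ := by
    intro δ
    conv_rhs => rw [← hd δ]
    rw [hE0, hE1, hE2]
    funext j
    simp only [Pi.add_apply, Pi.smul_apply, smul_eq_mul]
    field_simp
    linear_combination (dt (ψ 0) δ * φ 1 j + dt (ψ 1) δ * φ 2 j) * hαβ
  have hbd : ∀ δ : V3, |dt χ δ| ≤ 2 * s → |α * dt (ψ 0) δ + β * dt (ψ 1) δ| ≤ 16 * u 0 →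
      |-β * dt (ψ 0) δ + α * dt (ψ 1) δ| ≤ 16 * u 1 →
      |dt (f 0) δ| ≤ A ∧ |dt (f 1) δ| ≤ B1 ∧ |dt (f 2) δ| ≤ B2 := by
    intro δ h0 h1 h2
    have h3 := hbox ![dt χ δ / (2 * s), (α * dt (ψ 0) δ + β * dt (ψ 1) δ) / (16 * u 0),
      (-β * dt (ψ 0) δ + α * dt (ψ 1) δ) / (16 * u 1)] (by
        intro i
        fin_cases i
        · change |dt χ δ / (2 * s)| ≤ 1
          rw [abs_div, abs_of_pos (by positivity : 0 < 2 * s), div_le_one (by positivity)]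
          exact h0
        · change |(α * dt (ψ 0) δ + β * dt (ψ 1) δ) / (16 * u 0)| ≤ 1
          rw [abs_div, abs_of_pos (by positivity : 0 < 16 * u 0), div_le_one (by positivity)]
          exact h1
        · change |(-β * dt (ψ 0) δ + α * dt (ψ 1) δ) / (16 * u 1)| ≤ 1
          rw [abs_div, abs_of_pos (by positivity : 0 < 16 * u 1), div_le_one (by positivity)]
          exact h2)
    simp only [Matrix.cons_val_zero, Matrix.cons_val_one, Matrix.cons_val] at h3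
    rw [hexp δ] at h3
    exact h3
  -- resolution
  have hrA : r0 ≤ A := by
    have hf0 : dt (f 0) (f 0) = 1 := by simpa using hf 0 0
    have c0 := cs_unit hf0 (by positivity : 0 ≤ 2 * s) hχ
    have c1 := cs_unit hf0 (by positivity : 0 ≤ 8 * σ) (hψ 0)
    have c2 := cs_unit hf0 (by positivity : 0 ≤ 8 * σ) (hψ 1)
    have h1 := (hbd (r0 • f 0) c0 (by
      refine (abs_add_le _ _).trans ?_
      rw [abs_mul, abs_mul]
      calc |α| * |dt (ψ 0) (r0 • f 0)| + |β| * |dt (ψ 1) (r0 • f 0)| ≤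
          1 * (8 * σ) + 1 * (8 * σ) := by gcongr
        _ ≤ 16 * u 0 := by linarith [(hu 0).1]) (by
      refine (abs_add_le _ _).trans ?_
      rw [abs_mul, abs_mul, abs_neg]
      calc |β| * |dt (ψ 0) (r0 • f 0)| + |α| * |dt (ψ 1) (r0 • f 0)| ≤
          1 * (8 * σ) + 1 * (8 * σ) := by gcongr
        _ ≤ 16 * u 1 := by linarith [(hu 1).1])).1
    rw [dt_smul, hf0, mul_one] at h1
    exact (le_abs_self _).trans h1
  have hShN : ShN f y ![B2, B1, B2] (flatQ (f 0) y) A z0 ρ r0 :=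
    shN_flat hf y z0 ρ rfl hAB hBB hrA hB2
  have h1 := hmax _ _ _ _ _ hShN (by
    refine b1.trans (le_trans (le_of_eq ?_) hwm)
    change 6 * (32 * K) * w 1 = _
    ring)
  have h2 : (T.filter fun t => ∀ z, z0 ≤ z → z ≤ z0 + ρ →
      |dt χ ((L t).pos z - y.pos z)| ≤ 2 * s ∧
      |α * dt (ψ 0) ((L t).pos z - y.pos z) + β * dt (ψ 1) ((L t).pos z - y.pos z)| ≤ 16 * u 0 ∧
      |-β * dt (ψ 0) ((L t).pos z - y.pos z) + α * dt (ψ 1) ((L t).pos z - y.pos z)| ≤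
        16 * u 1) ⊆ T.filter fun t =>
      InSheet (L t) f y ![B2, B1, B2] (flatQ (f 0) y) A z0 ρ := by
    intro t ht
    rw [mem_filter] at ht ⊢
    refine ⟨ht.1, fun z hz hz' => ?_⟩
    obtain ⟨k0, k1, k2⟩ := ht.2 z hz hz'
    obtain ⟨g0, g1, g2⟩ := hbd _ k0 k1 k2
    refine ⟨fun i => ?_, g0⟩
    fin_cases i
    · exact g0.trans hAB
    · exact g1
    · exact g2
  have h3 := (Nat.cast_le (α := ℝ)).2 (card_le_card h2)
  refine (h3.trans h1).trans ?_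
  change D * (A * B2 * B1 * R A B2 B1) ≤ _
  have bA' : A ≤ 256 * K * a := bA.trans (le_of_eq (by change 8 * (32 * K) * a = _; ring))
  have b2' : B2 ≤ 320 * K * w 2 := b2.trans (le_of_eq (by change 10 * (32 * K) * w 2 = _; ring))
  have b1' : B1 ≤ 192 * K * w 1 := b1.trans (le_of_eq (by change 6 * (32 * K) * w 1 = _; ring))
  have h4 : R A B2 B1 ≤ R (256 * K * a) (320 * K * w 2) (192 * K * w 1) :=
    hRm _ _ _ _ _ _ hA.le hB2.le hB1.le bA' b2' b1'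
  have hRn : 0 ≤ R A B2 B1 := hR0 _ _ _ hA.le hB2.le hB1.le
  have hdφ := det_le he hK hWd hφ
  change _ ≤ 6 * K ^ 3 * (a * w 2 * w 1) at hdφ
  have hvol2 : A * B2 * B1 ≤ 18432 * K ^ 3 * (s * (u 0 * u 1)) * (a * w 2 * w 1) := by
    rw [hvol, hdet, abs_mul, abs_of_pos (by positivity : 0 < 512 * (s * (u 0 * u 1)))]
    calc 6 * (512 * (s * (u 0 * u 1)) * |dt (crs (φ 0) (φ 1)) (φ 2)|) ≤
        6 * (512 * (s * (u 0 * u 1)) * (6 * K ^ 3 * (a * w 2 * w 1))) := by gcongr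
      _ = _ := by ring
  calc D * (A * B2 * B1 * R A B2 B1) ≤
      D * (18432 * K ^ 3 * (s * (u 0 * u 1)) * (a * w 2 * w 1) *
        R (256 * K * a) (320 * K * w 2) (192 * K * w 1)) := by gcongr
    _ = _ := by ring

open Classical in
/-- **END-LAB, finite form, counts of incidences** -/
theorem lab_fin (hKM : ∀ V : ℝ, KM32 V) {ε : ℝ} (hε : 0 < ε) :
    ∃ κ : ℝ, ∃ M₀ : ℕ, 0 < κ ∧ ∀ (F : Finset (ℕ × ℝ)) (L : ℕ → Ln4) (χ : V3) (ψ : Fin 2 → V3)
      (φ : Fin 3 → V3) (e : Fin 3 → V3) (w : V3) (a : ℝ) (c : Ln4) (i M : ℕ) (J0 : ℤ)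
      (K nn m s D r0 wmax : ℝ) (R : ℝ → ℝ → ℝ → ℝ), F.Nonempty → M₀ ≤ M →
      1 ≤ K → K ≤ (2 : ℝ) ^ (κ * M) → 0 < nn → 0 ≤ D → 0 < s → s ≤ 1 →
      (∀ x ∈ F, zc i x.2 = J0) →
      -- the slab and the base
      (∀ x ∈ F, ∀ z, zl i J0 ≤ z → z ≤ zl i J0 + rho i →
        |dt χ ((L x.1).pos z - c.pos z)| ≤ s ∧ ∀ j, |dt (ψ j) ((L x.1).pos z - c.pos z)| ≤ 1) →
      -- frame
      Dual χ ψ φ → Ortho e → 0 < a → a ≤ w 2 → w 2 ≤ w 1 →
      (∀ i k, |dt (e i) (φ k)| ≤ K * Wd a w i) →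
      r0 ^ 2 * dt χ χ ≤ (2 * s) ^ 2 → (∀ j, r0 ^ 2 * dt (ψ j) (ψ j) ≤ (8 / 2 ^ M) ^ 2) →
      192 * K * w 1 ≤ wmax →
      (∀ x y z, 0 ≤ x → 0 ≤ y → 0 ≤ z → 0 ≤ R x y z) →
      (∀ x y z x' y' z', 0 ≤ x → 0 ≤ y → 0 ≤ z → x ≤ x' → y ≤ y' → z ≤ z' →
        R x y z ≤ R x' y' z') →
      -- own counts
      (∀ x ∈ F, nn ≤ K * ((F.filter fun y => y.1 = x.1).card : ℝ)) →
      (∀ x ∈ F, ((F.filter fun y => y.1 = x.1 ∧ zc (i + M + 1) y.2 = zc (i + M + 1) x.2).card : ℝ)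
        ≤ K * (nn / 2 ^ (M + 1))) →
      -- rich
      (∀ x ∈ F, m ≤ K * ((F.filter fun y => zc (i + M + 1) y.2 = zc (i + M + 1) x.2 ∧
        ∀ j, |dt (ψ j) ((L y.1).pos x.2 - (L x.1).pos x.2)| ≤ 1 / 2 / 2 ^ M).card : ℝ)) →
      -- D-max
      (∀ (e' : Fin 3 → V3) (c' : Ln4) (w' : V3) (q' : ℝ → V3 → ℝ) (a' : ℝ),
        ShN e' c' w' q' a' (zl i J0) (rho i) r0 → w' 1 ≤ wmax →
        ((F.filter fun x => InSheet (L x.1) e' c' w' q' a' (zl i J0) (rho i)).card : ℝ) ≤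
          D * (a' * w' 2 * w' 1 * R a' (w' 2) (w' 1))) →
      m * 2 ^ (3 * M) ≤ (2 : ℝ) ^ (ε * M) * (D * (s * (a * w 2 * w 1 *
        R (256 * K * a) (320 * K * w 2) (192 * K * w 1)))) := by
  obtain ⟨κ, M₀, hκ, key⟩ := lab_gam hKM (half_pos hε)
  set κ' := min (κ / 2) (ε / 24) with hκ'
  have hκ'0 : 0 < κ' := by rw [hκ']; exact lt_min (by positivity) (by positivity)
  obtain ⟨M₁, hM₁⟩ := exists_nat_ge (56 / ε)
  refine ⟨κ', max M₀ M₁, hκ'0, ?_⟩
  intro F L χ ψ φ e w a c i M J0 K nn m s D r0 wmax R hF hM' hK1 hK hnn hD hs hs1 hJ hbd hdual he ha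
    haw hw hφ hχ hψ hwm hR0 hRm hown hup hrich hmax
  have hM : M₀ ≤ M := (le_max_left _ _).trans hM'
  have hM1 : 56 ≤ ε * M := by
    have : (M₁ : ℝ) ≤ M := by exact_mod_cast (le_max_right _ _).trans hM'
    have h2 := hM₁.trans this
    rw [div_le_iff₀ hε] at h2
    linarith
  have hK0 : 0 < K := by linarith
  have hM0 : (0 : ℝ) ≤ M := Nat.cast_nonneg _
  have hK2 : K ^ 2 ≤ (2 : ℝ) ^ (κ * M) := by
    calc K ^ 2 ≤ ((2 : ℝ) ^ (κ' * M)) ^ 2 := by gcongr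
      _ = (2 : ℝ) ^ (2 * κ' * M) := by
        rw [← Real.rpow_natCast, ← Real.rpow_mul (by norm_num)]
        congr 1; push_cast; ring
      _ ≤ (2 : ℝ) ^ (κ * M) := by
        refine Real.rpow_le_rpow_of_exponent_le (by norm_num) ?_
        have : κ' ≤ κ / 2 := min_le_left _ _
        nlinarith
  have hK6 : K ^ 6 ≤ (2 : ℝ) ^ (ε / 4 * M) := by
    calc K ^ 6 ≤ ((2 : ℝ) ^ (κ' * M)) ^ 6 := by gcongr
      _ = (2 : ℝ) ^ (6 * κ' * M) := by
        rw [← Real.rpow_natCast, ← Real.rpow_mul (by norm_num)]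
        congr 1; push_cast; ring
      _ ≤ (2 : ℝ) ^ (ε / 4 * M) := by
        refine Real.rpow_le_rpow_of_exponent_le (by norm_num) ?_
        have : κ' ≤ ε / 24 := min_le_right _ _
        nlinarith
  have h14 : (9216 : ℝ) ≤ (2 : ℝ) ^ (ε / 4 * M) := by
    calc (9216 : ℝ) ≤ (2 : ℝ) ^ ((14 : ℕ) : ℝ) := by rw [Real.rpow_natCast]; norm_num
      _ ≤ _ := Real.rpow_le_rpow_of_exponent_le (by norm_num) (by push_cast; linarith)
  -- own count of cells
  have hcellown : ∀ x ∈ F, (2 : ℝ) ^ ((M : ℝ) - κ * M) ≤ ((own F i (i + M + 1) x).card : ℝ) := by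
    intro x hx
    have hfil : (F.filter fun y => y.1 = x.1 ∧ zc i y.2 = zc i x.2) =
        F.filter fun y => y.1 = x.1 := by
      refine filter_congr fun y hy => ?_
      rw [hJ y hy, hJ x hx]; simp
    have h1 := End882.own_card F i (i + M + 1) x hK0 (s := nn) (t := nn / 2 ^ (M + 1))
      (by positivity) (by rw [hfil]; exact hown x hx) hup
    have h2 : (2 : ℝ) ^ (M + 1) ≤ K ^ 2 * ((own F i (i + M + 1) x).card : ℝ) := by
      have h3 : 0 < nn / 2 ^ (M + 1) := by positivity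
      refine le_of_mul_le_mul_left ?_ h3
      calc nn / 2 ^ (M + 1) * 2 ^ (M + 1) = nn := by field_simp
        _ ≤ K ^ 2 * (nn / 2 ^ (M + 1)) * ((own F i (i + M + 1) x).card : ℝ) := h1
        _ = _ := by ring
    have h3 : (2 : ℝ) ^ (M : ℝ) ≤ (2 : ℝ) ^ (κ * M) * ((own F i (i + M + 1) x).card : ℝ) := by
      calc (2 : ℝ) ^ (M : ℝ) = 2 ^ M := Real.rpow_natCast _ _
        _ ≤ 2 ^ (M + 1) := pow_le_pow_right₀ (by norm_num) (by omega)
        _ ≤ K ^ 2 * ((own F i (i + M + 1) x).card : ℝ) := h2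
        _ ≤ _ := by gcongr
    rw [Real.rpow_sub (by norm_num), div_le_iff₀ (by positivity), mul_comm]
    exact h3
  -- D-max for lines
  set T := F.image Prod.fst with hT
  have hmaxT : DMaxN T L (zl i J0) (rho i) (K * D / nn) R r0 wmax := by
    intro e' c' w' q' a' hS hw'
    have h1 := hmax e' c' w' q' a' hS hw'
    set G := F.filter fun x => InSheet (L x.1) e' c' w' q' a' (zl i J0) (rho i) with hG
    set TG := T.filter fun t => InSheet (L t) e' c' w' q' a' (zl i J0) (rho i) with hTG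
    have h2 : nn * (TG.card : ℝ) ≤ K * (G.card : ℝ) := by
      have h3 : G.card = ∑ t ∈ TG, (G.filter fun x => x.1 = t).card :=
        card_eq_sum_card_fiberwise (f := Prod.fst) (t := TG) fun x hx => by
          have hx' : x ∈ G := hx
          rw [hG, mem_filter] at hx'
          change x.1 ∈ TG
          rw [hTG, mem_filter]
          exact ⟨mem_image_of_mem _ hx'.1, hx'.2⟩
      have h4 : ∀ t ∈ TG, nn ≤ K * ((G.filter fun x => x.1 = t).card : ℝ) := by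
        intro t ht
        rw [hTG, mem_filter, hT, mem_image] at ht
        obtain ⟨⟨x, hx, hxt⟩, ht2⟩ := ht
        have h5 := hown x hx
        have h6 : (F.filter fun y => y.1 = x.1) ⊆ G.filter fun y => y.1 = t := by
          intro y hy
          rw [mem_filter] at hy
          rw [mem_filter, hG, mem_filter]
          refine ⟨⟨hy.1, ?_⟩, hy.2.trans hxt⟩
          rw [hy.2, hxt]; exact ht2
        refine h5.trans ?_
        have := (Nat.cast_le (α := ℝ)).2 (card_le_card h6)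
        gcongr
      calc nn * (TG.card : ℝ) = ∑ t ∈ TG, nn := by rw [sum_const, nsmul_eq_mul, mul_comm]
        _ ≤ ∑ t ∈ TG, K * ((G.filter fun x => x.1 = t).card : ℝ) := sum_le_sum h4
        _ = K * (G.card : ℝ) := by rw [← mul_sum, h3]; push_cast; rfl
    have h7 : (TG.card : ℝ) ≤ K * D / nn * (a' * w' 2 * w' 1 * R a' (w' 2) (w' 1)) := by
      rw [div_mul_eq_mul_div, le_div_iff₀ hnn]
      calc (TG.card : ℝ) * nn = nn * (TG.card : ℝ) := mul_comm _ _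
        _ ≤ K * (G.card : ℝ) := h2
        _ ≤ K * (D * (a' * w' 2 * w' 1 * R a' (w' 2) (w' 1))) := by gcongr
        _ = _ := by ring
    exact h7
  -- the multiplicity
  set m' : ℝ := m * 2 ^ (M + 1) / (K ^ 2 * nn) with hm'
  set Vol := a * w 2 * w 1 * R (256 * K * a) (320 * K * w 2) (192 * K * w 1) with hVol
  have hw2 : 0 < w 2 := ha.trans_le haw
  have hw1 : 0 < w 1 := hw2.trans_le hw
  have hVol0 : 0 ≤ Vol := by
    have := hR0 (256 * K * a) (320 * K * w 2) (192 * K * w 1) (by positivity) (by positivity)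
      (by positivity)
    positivity
  have hmain := key F L ψ c i M J0 m' (18432 * K ^ 3 * (K * D / nn) * s * Vol) hF hM hJ
    (fun x hx z hz hz' => (hbd x hx z hz hz').2) hcellown ?_ ?_
  · -- conclusion
    rw [hm', div_mul_eq_mul_div, div_le_iff₀ (by positivity)] at hmain
    have e1 : (2:ℝ) ^ (M + 1) * 2 ^ (2 * M) = 2 * 2 ^ (3 * M) := by
      rw [← pow_add, ← pow_succ']; congr 1; omega
    have h5 : m * 2 ^ (3 * M) * 2 ≤
        ((2:ℝ) ^ (ε / 2 * M) * (18432 * K ^ 3 * (K * D / nn) * s * Vol)) * (K ^ 2 * nn) := by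
      refine le_trans (le_of_eq ?_) hmain
      calc m * 2 ^ (3 * M) * 2 = m * (2 * 2 ^ (3 * M)) := by ring
        _ = m * (2 ^ (M + 1) * 2 ^ (2 * M)) := by rw [e1]
        _ = _ := by ring
    have e2 : ((2:ℝ) ^ (ε / 2 * M) * (18432 * K ^ 3 * (K * D / nn) * s * Vol)) * (K ^ 2 * nn) =
        ((2:ℝ) ^ (ε / 2 * M) * (9216 * K ^ 6 * (D * (s * Vol)))) * 2 := by
      field_simp; ring
    rw [e2] at h5
    have h6 := le_of_mul_le_mul_right h5 (by norm_num : (0:ℝ) < 2)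
    refine h6.trans ?_
    have h7 : 0 ≤ D * (s * Vol) := by positivity
    calc (2:ℝ) ^ (ε / 2 * M) * (9216 * K ^ 6 * (D * (s * Vol))) ≤
        (2:ℝ) ^ (ε / 2 * M) * ((2:ℝ) ^ (ε / 4 * M) * (2:ℝ) ^ (ε / 4 * M) * (D * (s * Vol))) := by
          gcongr
      _ = ((2:ℝ) ^ (ε / 2 * M) * (2:ℝ) ^ (ε / 4 * M) * (2:ℝ) ^ (ε / 4 * M)) * (D * (s * Vol)) := by
          ring
      _ = (2:ℝ) ^ (ε * M) * (D * (s * Vol)) := by
          rw [← Real.rpow_add (by norm_num), ← Real.rpow_add (by norm_num)]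
          congr 2; ring
  · -- rich
    intro x hx
    refine ⟨x.2, rfl, ?_⟩
    have h1 := hrich x hx
    set G := F.filter fun y => zc (i + M + 1) y.2 = zc (i + M + 1) x.2 ∧
        ∀ j, |dt (ψ j) ((L y.1).pos x.2 - (L x.1).pos x.2)| ≤ 1 / 2 / 2 ^ M with hG
    set A := (alive F (i + M + 1) (zc (i + M + 1) x.2)).filter fun t =>
          ∀ j, |dt (ψ j) ((L t).pos x.2 - (L x.1).pos x.2)| ≤ 1 / 2 / 2 ^ M with hA
    have h2 : (G.card : ℝ) ≤ A.card * (K * (nn / 2 ^ (M + 1))) := by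
      have h3 : G.card = ∑ t ∈ A, (G.filter fun y => y.1 = t).card :=
        card_eq_sum_card_fiberwise (f := Prod.fst) (t := A) fun y hy => by
          have hy' : y ∈ G := hy
          rw [hG, mem_filter] at hy'
          change y.1 ∈ A
          rw [hA, mem_filter]
          refine ⟨?_, hy'.2.2⟩
          unfold alive
          exact mem_image.2 ⟨y, mem_filter.2 ⟨hy'.1, hy'.2.1⟩, rfl⟩
      have h4 : ∀ t ∈ A, ((G.filter fun y => y.1 = t).card : ℝ) ≤ K * (nn / 2 ^ (M + 1)) := by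
        intro t ht
        rw [hA, mem_filter] at ht
        have ht1 := ht.1
        unfold alive at ht1
        obtain ⟨y, hy, hyt⟩ := mem_image.1 ht1
        rw [mem_filter] at hy
        refine le_trans (Nat.cast_le.2 (card_le_card fun y' hy' => ?_)) (hup y hy.1)
        rw [mem_filter, hG, mem_filter] at hy'
        rw [mem_filter]
        exact ⟨hy'.1.1, hy'.2.trans hyt.symm, hy'.1.2.1.trans hy.2.symm⟩
      rw [h3]; push_cast
      calc ∑ t ∈ A, ((G.filter fun y => y.1 = t).card : ℝ) ≤ ∑ t ∈ A, K * (nn / 2 ^ (M + 1)) :=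
            sum_le_sum h4
        _ = _ := by rw [sum_const, nsmul_eq_mul]
    rw [hm', div_le_iff₀ (by positivity)]
    have h5 : m * 2 ^ (M + 1) ≤ (K * (A.card * (K * (nn / 2 ^ (M + 1))))) * 2 ^ (M + 1) := by
      have : m ≤ K * (A.card * (K * (nn / 2 ^ (M + 1)))) := h1.trans (by gcongr)
      gcongr
    refine h5.trans (le_of_eq ?_)
    field_simp
  · -- planks
    intro x hx α β hαβ u hu
    have h1 := lab_box T L he ha haw hw (by positivity) hR0 hRm hmaxT hdual hK0 hφ hs hs1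
      (σ := 1 / 2 ^ M) (by positivity) hχ (fun j => by
        refine (hψ j).trans (le_of_eq ?_); ring) hwm hαβ hu (L x.1)
    refine le_trans (Nat.cast_le.2 (card_le_card fun t ht => ?_)) (h1.trans (le_of_eq ?_))
    · rw [mem_filter] at ht ⊢
      refine ⟨ht.1, fun z hz hz' => ⟨?_, ht.2 z hz hz'⟩⟩
      obtain ⟨x', hx', hxt⟩ := mem_image.1 ht.1
      have g1 := (hbd x hx z hz hz').1
      have g2 := (hbd x' hx' z hz hz').1
      rw [hxt] at g2
      rw [dt_tri χ (L t) (L x.1) c]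
      refine (abs_sub _ _).trans ?_
      linarith
    · ring

end Crest.Agent.R136.Lab544
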