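import Crest.Agent.R136.Lab2_544
import Crest.Agent.R136.End3_882

/-!
# R136, END-LAB part 3 (helper544): a class of incidences, several slabs

`exists_label`: pruning of two partitions inside one value of a label; `lab_class`: END-LAB for a
class `E` of incidences, pairwise hypotheses only.
-/

set_option autoImplicit false
set_option linter.unusedVariables false
set_option linter.unusedSectionVars false

namespace Crest.Agent.R136.Lab544

open Finset
open Crest.Agent.R138.Tub70 (InPl KM32)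
open Crest.Agent.R138.Mk163 (zc zl rho alive own)
open Crest.Agent.R136.Sh605
open Crest.Agent.R136.HR829

open Classical in
/-- number of pairs (class, label) -/
theorem card_pair {α β γ : Type} {E : Finset α} (lab : α → γ) (c : α → β) {N : ℝ}
    (hc : ∀ x ∈ E, (((E.filter fun y => c y = c x).image lab).card : ℝ) ≤ N) :
    ((E.image fun x => (c x, lab x)).card : ℝ) ≤ N * ((E.image c).card : ℝ) := by
  have h1 : (E.image fun x => (c x, lab x)).card ≤
      ∑ b ∈ E.image c, ((E.filter fun y => c y = b).image lab).card := by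
    have h2 : (E.image fun x => (c x, lab x)) ⊆
        (E.image c).biUnion fun b =>
          ((E.filter fun y => c y = b).image lab).image fun l => (b, l) := by
      intro q hq
      obtain ⟨x, hx, rfl⟩ := mem_image.1 hq
      refine mem_biUnion.2 ⟨c x, mem_image_of_mem _ hx, ?_⟩
      exact mem_image.2 ⟨lab x, mem_image_of_mem _ (mem_filter.2 ⟨hx, rfl⟩), rfl⟩
    exact (card_le_card h2).trans (card_biUnion_le.trans (sum_le_sum fun b _ => card_image_le))
  have h3 : ∀ b ∈ E.image c, (((E.filter fun y => c y = b).image lab).card : ℝ) ≤ N := by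
    intro b hb
    obtain ⟨x, hx, rfl⟩ := mem_image.1 hb
    exact hc x hx
  calc ((E.image fun x => (c x, lab x)).card : ℝ) ≤
      ∑ b ∈ E.image c, (((E.filter fun y => c y = b).image lab).card : ℝ) := by
        exact_mod_cast h1
    _ ≤ ∑ b ∈ E.image c, N := sum_le_sum h3
    _ = N * ((E.image c).card : ℝ) := by rw [sum_const, nsmul_eq_mul, mul_comm]

open Classical in
/-- **one value of a label**: every class stays almost full inside one label value. -/
theorem exists_label {α γ β₁ β₂ : Type} {E : Finset α} (hE : E.Nonempty) (lab : α → γ)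
    (c₁ : α → β₁) (c₂ : α → β₂) {μ₁ μ₂ N A : ℝ} (h1 : 0 ≤ μ₁) (h2 : 0 ≤ μ₂) (hN : 0 < N)
    (hA : 0 < A)
    (l1 : ∀ x ∈ E, (((E.filter fun y => c₁ y = c₁ x).image lab).card : ℝ) ≤ N)
    (l2 : ∀ x ∈ E, (((E.filter fun y => c₂ y = c₂ x).image lab).card : ℝ) ≤ N)
    (n1 : ((E.image c₁).card : ℝ) * μ₁ ≤ A * E.card)
    (n2 : ((E.image c₂).card : ℝ) * μ₂ ≤ A * E.card) :
    ∃ F ⊆ E, F.Nonempty ∧ (∀ x ∈ F, ∀ y ∈ F, lab x = lab y) ∧
      (∀ x ∈ F, μ₁ / (6 * N * A) ≤ ((F.filter fun y => c₁ y = c₁ x).card : ℝ)) ∧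
      (∀ x ∈ F, μ₂ / (6 * N * A) ≤ ((F.filter fun y => c₂ y = c₂ x).card : ℝ)) := by
  set cl : Fin 2 → α → (β₁ ⊕ β₂) × γ := fun s x =>
    (if s = 0 then Sum.inl (c₁ x) else Sum.inr (c₂ x), lab x) with hcl
  set δ : Fin 2 → ℝ := ![μ₁ / (6 * N * A), μ₂ / (6 * N * A)] with hδ
  have hden : 0 < 6 * N * A := by positivity
  have hδ0 : ∀ s, 0 ≤ δ s := by
    intro s
    fin_cases s
    · exact div_nonneg h1 hden.le
    · exact div_nonneg h2 hden.le
  obtain ⟨F₁, hF₁, hcard, hfull⟩ := End882.prune_classes (β := fun _ => (β₁ ⊕ β₂) × γ) E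
    cl δ hδ0
  have hc0 : (E.image (cl 0)).card ≤ (E.image fun x => (c₁ x, lab x)).card := by
    have : E.image (cl 0) ⊆ (E.image fun x => (c₁ x, lab x)).image
        fun p => ((Sum.inl p.1 : β₁ ⊕ β₂), p.2) := by
      intro q hq
      obtain ⟨x, hx, rfl⟩ := mem_image.1 hq
      exact mem_image.2 ⟨(c₁ x, lab x), mem_image_of_mem _ hx, rfl⟩
    exact (card_le_card this).trans card_image_le
  have hc1 : (E.image (cl 1)).card ≤ (E.image fun x => (c₂ x, lab x)).card := by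
    have : E.image (cl 1) ⊆ (E.image fun x => (c₂ x, lab x)).image
        fun p => ((Sum.inr p.1 : β₁ ⊕ β₂), p.2) := by
      intro q hq
      obtain ⟨x, hx, rfl⟩ := mem_image.1 hq
      exact mem_image.2 ⟨(c₂ x, lab x), mem_image_of_mem _ hx, rfl⟩
    exact (card_le_card this).trans card_image_le
  have key : ∀ μ n k : ℝ, 0 ≤ μ → n ≤ N * k → k * μ ≤ A * E.card →
      μ / (6 * N * A) * n ≤ E.card / 6 := by
    intro μ n k hμ hn hk
    rw [div_mul_eq_mul_div, div_le_div_iff₀ hden (by norm_num)]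
    calc μ * n * 6 ≤ μ * (N * k) * 6 := by gcongr
      _ = N * (k * μ) * 6 := by ring
      _ ≤ N * (A * E.card) * 6 := by gcongr
      _ = E.card * (6 * N * A) := by ring
  have hs0 : δ 0 * ((E.image (cl 0)).card : ℝ) ≤ E.card / 6 :=
    key μ₁ _ _ h1 ((Nat.cast_le.2 hc0).trans (card_pair lab c₁ l1)) n1
  have hs1 : δ 1 * ((E.image (cl 1)).card : ℝ) ≤ E.card / 6 :=
    key μ₂ _ _ h2 ((Nat.cast_le.2 hc1).trans (card_pair lab c₂ l2)) n2
  have hEpos : (0 : ℝ) < E.card := by exact_mod_cast card_pos.2 hE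
  have hcard' : (E.card : ℝ) ≤ F₁.card + (δ 0 * ((E.image (cl 0)).card : ℝ) +
      δ 1 * ((E.image (cl 1)).card : ℝ)) := by
    have : (E.card : ℝ) ≤ F₁.card + ∑ s, δ s * ((E.image (cl s)).card : ℝ) := by convert hcard
    rwa [Fin.sum_univ_two] at this
  have hF₁ne : F₁.Nonempty := by
    rw [← card_pos]
    have : (0 : ℝ) < F₁.card := by linarith
    exact_mod_cast this
  obtain ⟨x₀, hx₀⟩ := hF₁ne
  refine ⟨F₁.filter fun x => lab x = lab x₀, (filter_subset _ _).trans hF₁,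
    ⟨x₀, mem_filter.2 ⟨hx₀, rfl⟩⟩, ?_, ?_, ?_⟩
  · intro x hx y hy
    rw [mem_filter] at hx hy
    exact hx.2.trans hy.2.symm
  · intro x hx
    rw [mem_filter] at hx
    have hf : δ 0 ≤ ((F₁.filter fun y => cl 0 y = cl 0 x).card : ℝ) := by
      convert hfull 0 x hx.1
    refine hf.trans (Nat.cast_le.2 (card_le_card fun y hy => ?_))
    rw [mem_filter] at hy
    have h3 : cl 0 y = cl 0 x := hy.2
    simp only [hcl, if_true, Prod.mk.injEq, Sum.inl.injEq] at h3
    exact mem_filter.2 ⟨mem_filter.2 ⟨hy.1, h3.2.trans hx.2⟩, h3.1⟩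
  · intro x hx
    rw [mem_filter] at hx
    have hf : δ 1 ≤ ((F₁.filter fun y => cl 1 y = cl 1 x).card : ℝ) := by
      convert hfull 1 x hx.1
    refine hf.trans (Nat.cast_le.2 (card_le_card fun y hy => ?_))
    rw [mem_filter] at hy
    have h3 : cl 1 y = cl 1 x := hy.2
    simp only [hcl, one_ne_zero, if_false, Prod.mk.injEq, Sum.inr.injEq] at h3
    exact mem_filter.2 ⟨mem_filter.2 ⟨hy.1, h3.2.trans hx.2⟩, h3.1⟩

/-- integers in a window -/
theorem card_floor5 {α : Type*} (G : Finset α) (f : α → ℝ) {y : ℝ}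
    (h : ∀ x ∈ G, |f x - y| ≤ 2) : ((G.image fun x => ⌊f x⌋).card : ℝ) ≤ 6 := by
  classical
  have h1 : (G.image fun x => ⌊f x⌋) ⊆ Icc (⌊y⌋ - 2) (⌊y⌋ + 3) := by
    intro k hk
    obtain ⟨x, hx, rfl⟩ := mem_image.1 hk
    have h2 := abs_le.1 (h x hx)
    rw [mem_Icc]
    constructor
    · rw [Int.le_floor]
      push_cast
      have := Int.floor_le y
      linarith
    · have h3 : (⌊f x⌋ : ℝ) < (⌊y⌋ + 4 : ℤ) := by
        push_cast
        have := Int.floor_le (f x)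
        have := Int.lt_floor_add_one y
        linarith
      have h4 : ⌊f x⌋ < ⌊y⌋ + 4 := by exact_mod_cast h3
      omega
  have h2 := card_le_card h1
  rw [Int.card_Icc] at h2
  have h3 : (G.image fun x => ⌊f x⌋).card ≤ 6 := by omega
  exact_mod_cast h3

open Classical in
/-- **END-LAB for a class of incidences.** -/
theorem lab_class (hKM : ∀ V : ℝ, KM32 V) {ε : ℝ} (hε : 0 < ε) :
    ∃ κ : ℝ, ∃ M₀ : ℕ, 0 < κ ∧ ∀ {β : Type} (E : Finset (ℕ × ℝ)) (L : ℕ → Ln4) (lb : ℕ × ℝ → β)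
      (χ : V3) (ψ : Fin 2 → V3)
      (φ : Fin 3 → V3) (e : Fin 3 → V3) (w : V3) (a : ℝ) (i M : ℕ)
      (K A nn m s D r0 wmax : ℝ) (R : ℝ → ℝ → ℝ → ℝ), E.Nonempty → M₀ ≤ M →
      0 < A → 36 * A ≤ K → 1 ≤ K → K ≤ (2 : ℝ) ^ (κ * M) → 0 < nn → 0 ≤ m → 0 ≤ D → 0 < s →
      s ≤ 1 →
      -- the slab relation and the base, for lines of one cell
      (∀ x ∈ E, ∀ y ∈ E, zc i x.2 = zc i y.2 →
        rho i * |dt χ ((L x.1).v - (L y.1).v)| ≤ s / 4 ∧
        ∀ z, zl i (zc i x.2) ≤ z → z ≤ zl i (zc i x.2) + rho i → ∀ j,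
          |dt (ψ j) ((L x.1).pos z - (L y.1).pos z)| ≤ 1) →
      -- frame
      Dual χ ψ φ → Ortho e → 0 < a → a ≤ w 2 → w 2 ≤ w 1 →
      (∀ i k, |dt (e i) (φ k)| ≤ K * Wd a w i) →
      r0 ^ 2 * dt χ χ ≤ (2 * s) ^ 2 → (∀ j, r0 ^ 2 * dt (ψ j) (ψ j) ≤ (8 / 2 ^ M) ^ 2) →
      192 * K * w 1 ≤ wmax →
      (∀ x y z, 0 ≤ x → 0 ≤ y → 0 ≤ z → 0 ≤ R x y z) →
      (∀ x y z x' y' z', 0 ≤ x → 0 ≤ y → 0 ≤ z → x ≤ x' → y ≤ y' → z ≤ z' →
        R x y z ≤ R x' y' z') →
      -- own counts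
      ((E.image fun x => (x.1, zc i x.2)).card : ℝ) * nn ≤ A * E.card →
      (∀ x ∈ E, ((E.filter fun y => y.1 = x.1 ∧ zc (i + M + 1) y.2 = zc (i + M + 1) x.2).card : ℝ)
        ≤ K * (nn / 2 ^ (M + 1))) →
      -- rich
      (∀ x ∈ E, ∀ y ∈ E, lb x = lb y → zc (i + M + 1) x.2 = zc (i + M + 1) y.2 ∧
        |dt χ ((L y.1).pos x.2 - (L x.1).pos x.2)| ≤ s / 4 ∧
        ∀ j, |dt (ψ j) ((L y.1).pos x.2 - (L x.1).pos x.2)| ≤ 1 / 2 / 2 ^ M) →
      ((E.image lb).card : ℝ) * m ≤ A * E.card →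
      -- D-max
      (∀ (J : ℤ) (e' : Fin 3 → V3) (c' : Ln4) (w' : V3) (q' : ℝ → V3 → ℝ) (a' : ℝ),
        ShN e' c' w' q' a' (zl i J) (rho i) r0 → w' 1 ≤ wmax →
        ((E.filter fun x => zc i x.2 = J ∧
          InSheet (L x.1) e' c' w' q' a' (zl i J) (rho i)).card : ℝ) ≤
          D * (a' * w' 2 * w' 1 * R a' (w' 2) (w' 1))) →
      m * 2 ^ (3 * M) ≤ (2 : ℝ) ^ (ε * M) * (D * (s * (a * w 2 * w 1 *
        R (256 * K * a) (320 * K * w 2) (192 * K * w 1)))) := by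
  obtain ⟨κ, M₀, hκ, key⟩ := lab_fin hKM hε
  refine ⟨κ, M₀, hκ, ?_⟩
  intro β E L lb χ ψ φ e w a i M K A nn m s D r0 wmax R hE hM hA hAK hK1 hK hnn hm hD hs hs1 hpair
    hdual he ha haw hw hφ hχ hψ hwm hR0 hRm hown hup hlb hlbn hmax
  obtain ⟨b0, hb0⟩ := hE
  -- the slab label
  set hh : ℕ × ℝ → ℝ := fun x =>
    dt χ ((L x.1).pos (zl i (zc i x.2)) - (L b0.1).pos (zl i (zc i x.2))) / (s / 4) with hhh
  set lab : ℕ × ℝ → ℤ × ℤ := fun x => (zc i x.2, ⌊hh x⌋) with hlab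
  have hcellx : ∀ x : ℕ × ℝ, zl i (zc i x.2) ≤ x.2 ∧ x.2 ≤ zl i (zc i x.2) + rho i :=
    fun x => ⟨(zc_mem i x.2).1, (zc_mem i x.2).2.le⟩
  -- change of the height
  have hmove : ∀ x ∈ E, ∀ y ∈ E, zc i x.2 = zc i y.2 → ∀ z z', zl i (zc i x.2) ≤ z →
      z ≤ zl i (zc i x.2) + rho i → zl i (zc i x.2) ≤ z' → z' ≤ zl i (zc i x.2) + rho i →
      |dt χ ((L x.1).pos z - (L y.1).pos z)| ≤
        |dt χ ((L x.1).pos z' - (L y.1).pos z')| + s / 4 := by
    intro x hx y hy hxy z z' h1 h2 h3 h4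
    have h5 := (hpair x hx y hy hxy).1
    have e1 : dt χ ((L x.1).pos z - (L y.1).pos z) = dt χ ((L x.1).pos z' - (L y.1).pos z') +
        (z - z') * dt χ ((L x.1).v - (L y.1).v) := by
      simp only [dt, Ln4.pos, Pi.sub_apply]; ring
    rw [e1]
    refine (abs_add_le _ _).trans (add_le_add_right ?_ _)
    rw [abs_mul]
    refine le_trans ?_ h5
    refine mul_le_mul_of_nonneg_right ?_ (abs_nonneg _)
    rw [abs_le]
    constructor <;> linarith
  have hsub : ∀ x y : ℕ × ℝ, zc i x.2 = zc i y.2 → hh y - hh x =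
      dt χ ((L y.1).pos (zl i (zc i x.2)) - (L x.1).pos (zl i (zc i x.2))) / (s / 4) := by
    intro x y hxy
    simp only [hhh]
    rw [← hxy, ← sub_div]
    congr 1
    simp only [dt, Pi.sub_apply]; ring
  have hp := rho_pos i
  -- labels per class
  have hlabel : ∀ (G : Finset (ℕ × ℝ)), G ⊆ E → ∀ x ∈ E, (∀ y ∈ G, zc i y.2 = zc i x.2 ∧
      |dt χ ((L y.1).pos x.2 - (L x.1).pos x.2)| ≤ s / 4) → ((G.image lab).card : ℝ) ≤ 6 := by
    intro G hG x hx h
    have h1 : G.image lab ⊆ (G.image fun y => ⌊hh y⌋).image fun k => (zc i x.2, k) := by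
      intro p hp
      obtain ⟨y, hy, rfl⟩ := mem_image.1 hp
      refine mem_image.2 ⟨⌊hh y⌋, mem_image_of_mem _ hy, ?_⟩
      simp only [hlab]; rw [(h y hy).1]
    refine (Nat.cast_le.2 ((card_le_card h1).trans card_image_le)).trans ?_
    refine card_floor5 G hh (y := hh x) fun y hy => ?_
    obtain ⟨h2, h3⟩ := h y hy
    rw [hsub x y h2.symm, abs_div, abs_of_pos (by positivity : 0 < s / 4),
      div_le_iff₀ (by positivity)]
    have h4 := hmove y (hG hy) x hx h2 (zl i (zc i x.2)) x.2 (by rw [h2])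
      (by rw [h2]; linarith) (by rw [h2]; exact (hcellx x).1) (by rw [h2]; exact (hcellx x).2)
    linarith
  have hl1 : ∀ x ∈ E, (((E.filter fun y => (y.1, zc i y.2) = (x.1, zc i x.2)).image lab).card : ℝ)
      ≤ 6 := by
    intro x hx
    refine hlabel _ (filter_subset _ _) x hx fun y hy => ?_
    rw [mem_filter, Prod.mk.injEq] at hy
    refine ⟨hy.2.2, ?_⟩
    rw [hy.2.1]
    have : dt χ ((L x.1).pos x.2 - (L x.1).pos x.2) = 0 := by
      simp only [dt, Pi.sub_apply]; ring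
    rw [this, abs_zero]; positivity
  have hl2 : ∀ x ∈ E, (((E.filter fun y => lb y = lb x).image lab).card : ℝ) ≤ 6 := by
    intro x hx
    refine hlabel _ (filter_subset _ _) x hx fun y hy => ?_
    rw [mem_filter] at hy
    obtain ⟨g1, g2, -⟩ := hlb x hx y hy.1 hy.2.symm
    exact ⟨(zc_nest (by omega : i ≤ i + M + 1) g1).symm, g2⟩
  have hl : ∃ F ⊆ E, F.Nonempty ∧ (∀ x ∈ F, ∀ y ∈ F, lab x = lab y) ∧
      (∀ x ∈ F, nn / (36 * A) ≤
        ((F.filter fun y => (y.1, zc i y.2) = (x.1, zc i x.2)).card : ℝ)) ∧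
      (∀ x ∈ F, m / (36 * A) ≤ ((F.filter fun y => lb y = lb x).card : ℝ)) := by
    have h := exists_label (E := E) ⟨b0, hb0⟩ lab
      (fun x => (x.1, zc i x.2)) lb hnn.le hm (by norm_num : (0:ℝ) < 6) hA
      (fun x hx => by convert hl1 x hx) (fun x hx => by convert hl2 x hx)
      (by convert hown) (by convert hlbn)
    obtain ⟨F, h1, h2, h3, h4, h5⟩ := h
    have e36 : (6 * 6 * A : ℝ) = 36 * A := by ring
    rw [e36] at h4 h5
    exact ⟨F, h1, h2, h3, fun x hx => by convert h4 x hx, fun x hx => by convert h5 x hx⟩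
  obtain ⟨F, hFE, hFne, hFlab, hF1, hF2⟩ := hl
  obtain ⟨x₀, hx₀⟩ := hFne
  have hx₀E := hFE hx₀
  have hJ : ∀ x ∈ F, zc i x.2 = zc i x₀.2 := by
    intro x hx
    have h1 := hFlab x hx x₀ hx₀
    simp only [hlab, Prod.mk.injEq] at h1
    exact h1.1
  have hK0 : 0 < K := by linarith
  -- K-losses
  have hKA : ∀ μ n : ℝ, 0 ≤ μ → μ / (36 * A) ≤ n → μ ≤ K * n := by
    intro μ n hμ h
    have h36 : 0 < 36 * A := by positivity
    rw [div_le_iff₀ h36] at h
    have hn : 0 ≤ n := by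
      by_contra hc
      push Not at hc
      nlinarith
    calc μ ≤ n * (36 * A) := h
      _ ≤ n * K := by gcongr
      _ = K * n := mul_comm _ _
  refine key F L χ ψ φ e w a (L x₀.1) i M (zc i x₀.2) K nn m s D r0 wmax R ⟨x₀, hx₀⟩ hM hK1 hK hnn
    hD hs hs1 hJ ?_ hdual he ha haw hw hφ hχ hψ hwm hR0 hRm ?_ ?_ ?_ ?_
  · intro x hx z hz hz'
    have hxE := hFE hx
    have hxJ := hJ x hx
    refine ⟨?_, fun j => ?_⟩
    · have h1 := hmove x hxE x₀ hx₀E hxJ z (zl i (zc i x.2)) (by rw [hxJ]; exact hz)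
        (by rw [hxJ]; exact hz') le_rfl (by linarith)
      have h2 := hsub x₀ x hxJ.symm
      have h3 := hFlab x hx x₀ hx₀
      simp only [hlab, Prod.mk.injEq] at h3
      have h4 : |hh x - hh x₀| ≤ 1 := by
        have f1 := Int.floor_le (hh x)
        have f2 := Int.lt_floor_add_one (hh x)
        have f3 := Int.floor_le (hh x₀)
        have f4 := Int.lt_floor_add_one (hh x₀)
        rw [h3.2] at f1 f2
        rw [abs_le]
        constructor <;> linarith
      rw [h2, abs_div, abs_of_pos (by positivity : 0 < s / 4), div_le_iff₀ (by positivity),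
        ← hxJ] at h4
      linarith
    · exact (hpair x hxE x₀ hx₀E hxJ).2 z (by rw [hxJ]; exact hz) (by rw [hxJ]; exact hz') j
  · intro x hx
    refine hKA _ _ hnn.le ((hF1 x hx).trans (Nat.cast_le.2 (card_le_card fun y hy => ?_)))
    rw [mem_filter, Prod.mk.injEq] at hy
    exact mem_filter.2 ⟨hy.1, hy.2.1⟩
  · intro x hx
    refine le_trans (Nat.cast_le.2 (card_le_card ?_)) (hup x (hFE hx))
    exact filter_subset_filter _ hFE
  · intro x hx
    refine hKA _ _ hm ((hF2 x hx).trans (Nat.cast_le.2 (card_le_card fun y hy => ?_)))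
    rw [mem_filter] at hy
    obtain ⟨g1, -, g3⟩ := hlb x (hFE hx) y (hFE hy.1) hy.2.symm
    exact mem_filter.2 ⟨hy.1, g1.symm, g3⟩
  · intro e' c' w' q' a' hS hw'
    refine le_trans (Nat.cast_le.2 (card_le_card fun x hx => ?_)) (hmax (zc i x₀.2) e' c' w' q' a'
      hS hw')
    rw [mem_filter] at hx
    exact mem_filter.2 ⟨hFE hx.1, hJ x hx.1, hx.2⟩

end Crest.Agent.R136.Lab544
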