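import Crest.Agent.R136.Lab2_544

/-!
# R136: END-LAB, D-max for a slab cut with a rotated plank, two-sided ranges (helper926)

`lab_boxW` : 544's `lab_box` with test sheets in a range `m` of all three widths (J1 v3c).
-/

set_option autoImplicit false
set_option linter.unusedVariables false
set_option linter.unusedSectionVars false

namespace Crest.Agent.R136.Lab926

open Finset
open Crest.Agent.R138.Mk163 (zc zl rho alive own)
open Crest.Agent.R136.Sh605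
open Crest.Agent.R136.HR829
open Crest.Agent.R136.Lab544 (Dual det_le cs_unit)

open Classical in
/-- D-max for the sheets `ShN` of resolution `r`, with `a ≤ m0`, `ω1 ≤ w 1 ≤ m1`,
`ω2 ≤ w 2 ≤ m2` -/
def DMX {ι : Type} (A : Finset ι) (L : ι → Ln4) (z0 ρ D : ℝ) (R : ℝ → ℝ → ℝ → ℝ)
    (r m0 m1 m2 ω1 ω2 : ℝ) : Prop :=
  ∀ (e : Fin 3 → V3) (c : Ln4) (w : V3) (q : ℝ → V3 → ℝ) (a : ℝ), ShN e c w q a z0 ρ r →
    a ≤ m0 → w 1 ≤ m1 → w 2 ≤ m2 → ω1 ≤ w 1 → ω2 ≤ w 2 →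
      ((A.filter fun t => InSheet (L t) e c w q a z0 ρ).card : ℝ) ≤
        D * (a * w 2 * w 1 * R a (w 2) (w 1))

open Classical in
/-- **D-max for a slab cut with a rotated plank**, test sheets in a two-sided range -/
theorem lab_boxW {ι : Type} (T : Finset ι) (L : ι → Ln4) {z0 ρ r0 D m0 m1 m2 ω1 ω2 ρ1 ρ2 : ℝ}
    {R : ℝ → ℝ → ℝ → ℝ} {e : Fin 3 → V3} (he : Ortho e) {w : V3} {a : ℝ} (ha : 0 < a)
    (haw : a ≤ w 2) (hw : w 2 ≤ w 1) (hD : 0 ≤ D)
    (hR0 : ∀ x y z, 0 ≤ x → 0 ≤ y → 0 ≤ z → 0 ≤ R x y z)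
    (hRm : ∀ x y z x' y' z', 0 ≤ x → 0 ≤ y → 0 ≤ z → x ≤ x' → y ≤ y' → z ≤ z' →
      R x y z ≤ R x' y' z')
    (hmax : DMX T L z0 ρ D R r0 m0 m1 m2 ω1 ω2) {χ : V3} {ψ : Fin 2 → V3} {φ : Fin 3 → V3}
    (hd : Dual χ ψ φ) {K : ℝ} (hK : 0 < K) (hφ : ∀ i k, |dt (e i) (φ k)| ≤ K * Wd a w i)
    {s σ : ℝ} (hs : 0 < s) (hs1 : s ≤ 1) (hσ : 0 < σ) (hχ : r0 ^ 2 * dt χ χ ≤ (2 * s) ^ 2)
    (hψ : ∀ j, r0 ^ 2 * dt (ψ j) (ψ j) ≤ (8 * σ) ^ 2) (hm0 : 256 * K * a ≤ m0)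
    (hwm : 192 * K * w 1 ≤ m1) (hm2 : 320 * K * w 2 ≤ m2) (hρ1 : 0 ≤ ρ1) (hρ2 : 0 ≤ ρ2)
    (lo1 : |dt χ (e 1)| * ρ1 ≤ 2 * s) (lo1' : ∀ j, |dt (ψ j) (e 1)| * ρ1 ≤ 8 * σ)
    (lo2 : (|dt χ (e 1)| + |dt χ (e 2)|) * ρ2 ≤ 2 * s)
    (lo2' : ∀ j, (|dt (ψ j) (e 1)| + |dt (ψ j) (e 2)|) * ρ2 ≤ 8 * σ)
    (hω1 : ω1 ≤ ρ1 / 2) (hω2 : ω2 ≤ ρ2 / 2)
    {α β : ℝ} (hαβ : α ^ 2 + β ^ 2 = 1) {u : Fin 2 → ℝ} (hu : ∀ j, σ ≤ u j ∧ u j ≤ 1) (y : Ln4) :
    ((T.filter fun t => ∀ z, z0 ≤ z → z ≤ z0 + ρ →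
      |dt χ ((L t).pos z - y.pos z)| ≤ 2 * s ∧
      |α * dt (ψ 0) ((L t).pos z - y.pos z) + β * dt (ψ 1) ((L t).pos z - y.pos z)| ≤ 16 * u 0 ∧
      |-β * dt (ψ 0) ((L t).pos z - y.pos z) + α * dt (ψ 1) ((L t).pos z - y.pos z)| ≤
        16 * u 1).card : ℝ) ≤
      18432 * K ^ 3 * D * (s * (u 0 * u 1)) *
        (a * w 2 * w 1 * R (256 * K * a) (320 * K * w 2) (192 * K * w 1)) := by
  have hw2 : 0 < w 2 := ha.trans_le haw
  have hw1 : 0 < w 1 := hw2.trans_le hw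
  have hu0 : 0 < u 0 := hσ.trans_le (hu 0).1
  have hu1 : 0 < u 1 := hσ.trans_le (hu 1).1
  have hα1 : |α| ≤ 1 := by
    refine abs_le_of_sq_le_sq ?_ zero_le_one
    nlinarith [sq_nonneg β]
  have hβ1 : |β| ≤ 1 := by
    refine abs_le_of_sq_le_sq ?_ zero_le_one
    nlinarith [sq_nonneg α]
  have hWd : ∀ i, 0 < Wd a w i := by
    intro i
    fin_cases i
    · exact ha
    · exact hw1
    · exact hw2
  set E : Fin 3 → V3 := ![(2 * s) • φ 0, (16 * u 0) • (α • φ 1 + β • φ 2),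
    (16 * u 1) • (-β • φ 1 + α • φ 2)] with hE
  have hE0 : E 0 = (2 * s) • φ 0 := rfl
  have hE1 : E 1 = (16 * u 0) • (α • φ 1 + β • φ 2) := rfl
  have hE2 : E 2 = (16 * u 1) • (-β • φ 1 + α • φ 2) := rfl
  have hdet : dt (crs (E 0) (E 1)) (E 2) = 512 * (s * (u 0 * u 1)) * dt (crs (φ 0) (φ 1)) (φ 2) := by
    have : dt (crs (E 0) (E 1)) (E 2) = 512 * (s * (u 0 * u 1)) * (α ^ 2 + β ^ 2) *
        dt (crs (φ 0) (φ 1)) (φ 2) := by
      rw [hE0, hE1, hE2]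
      simp only [dt, crs, Pi.add_apply, Pi.smul_apply, smul_eq_mul, Matrix.cons_val_zero,
        Matrix.cons_val_one, Matrix.cons_val]
      ring
    rw [this, hαβ, mul_one]
  have hφ0 := hd.det_ne
  have hdet0 : dt (crs (E 0) (E 1)) (E 2) ≠ 0 := by
    rw [hdet]
    exact mul_ne_zero (by positivity) hφ0
  have hS : ∀ i j, |dt (e i) (E j)| ≤ 32 * K * Wd a w i := by
    intro i j
    have h0 := hφ i 0
    have h1 := hφ i 1
    have h2 := hφ i 2
    have hWi := hWd i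
    have hKW : 0 < K * Wd a w i := by positivity
    fin_cases j
    · change |dt (e i) (E 0)| ≤ _
      rw [hE0, dt_smul, abs_mul, abs_of_pos (by positivity)]
      calc 2 * s * |dt (e i) (φ 0)| ≤ 2 * 1 * (K * Wd a w i) := by gcongr
        _ ≤ 32 * K * Wd a w i := by nlinarith
    · change |dt (e i) (E 1)| ≤ _
      rw [hE1, dt_smul, dt_add, dt_smul, dt_smul, abs_mul, abs_of_pos (by positivity)]
      have : |α * dt (e i) (φ 1) + β * dt (e i) (φ 2)| ≤ 2 * (K * Wd a w i) := by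
        refine (abs_add_le _ _).trans ?_
        rw [abs_mul, abs_mul]
        calc |α| * |dt (e i) (φ 1)| + |β| * |dt (e i) (φ 2)| ≤
            1 * (K * Wd a w i) + 1 * (K * Wd a w i) := by gcongr
          _ = _ := by ring
      calc 16 * u 0 * |α * dt (e i) (φ 1) + β * dt (e i) (φ 2)| ≤
          16 * 1 * (2 * (K * Wd a w i)) := by
            have := (hu 0).2
            gcongr
        _ = _ := by ring
    · change |dt (e i) (E 2)| ≤ _
      rw [hE2, dt_smul, dt_add, dt_smul, dt_smul, abs_mul, abs_of_pos (by positivity)]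
      have : |-β * dt (e i) (φ 1) + α * dt (e i) (φ 2)| ≤ 2 * (K * Wd a w i) := by
        refine (abs_add_le _ _).trans ?_
        rw [abs_mul, abs_mul, abs_neg]
        calc |β| * |dt (e i) (φ 1)| + |α| * |dt (e i) (φ 2)| ≤
            1 * (K * Wd a w i) + 1 * (K * Wd a w i) := by gcongr
          _ = _ := by ring
      calc 16 * u 1 * |-β * dt (e i) (φ 1) + α * dt (e i) (φ 2)| ≤
          16 * 1 * (2 * (K * Wd a w i)) := by
            have := (hu 1).2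
            gcongr
        _ = _ := by ring
  obtain ⟨f, A, B1, B2, hf, hA, hAB, hBB, hbox, hvol, bA, b2, b1⟩ := cover3 he (W := Wd a w) ha haw
    hw E hdet0 (by positivity) hS
  have hB2 : 0 < B2 := hA.trans_le hAB
  have hB1 : 0 < B1 := hB2.trans_le hBB
  -- expansion
  have hexp : ∀ δ : V3, (dt χ δ / (2 * s)) • E 0 +
      ((α * dt (ψ 0) δ + β * dt (ψ 1) δ) / (16 * u 0)) • E 1 +
      ((-β * dt (ψ 0) δ + α * dt (ψ 1) δ) / (16 * u 1)) • E 2 = δ := by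
    intro δ
    conv_rhs => rw [← hd δ]
    rw [hE0, hE1, hE2]
    funext j
    simp only [Pi.add_apply, Pi.smul_apply, smul_eq_mul]
    field_simp
    linear_combination (dt (ψ 0) δ * φ 1 j + dt (ψ 1) δ * φ 2 j) * hαβ
  have hbd : ∀ δ : V3, |dt χ δ| ≤ 2 * s → |α * dt (ψ 0) δ + β * dt (ψ 1) δ| ≤ 16 * u 0 →
      |-β * dt (ψ 0) δ + α * dt (ψ 1) δ| ≤ 16 * u 1 →
      |dt (f 0) δ| ≤ A ∧ |dt (f 1) δ| ≤ B1 ∧ |dt (f 2) δ| ≤ B2 := by
    intro δ h0 h1 h2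
    have h3 := hbox ![dt χ δ / (2 * s), (α * dt (ψ 0) δ + β * dt (ψ 1) δ) / (16 * u 0),
      (-β * dt (ψ 0) δ + α * dt (ψ 1) δ) / (16 * u 1)] (by
        intro i
        fin_cases i
        · change |dt χ δ / (2 * s)| ≤ 1
          rw [abs_div, abs_of_pos (by positivity : 0 < 2 * s), div_le_one (by positivity)]
          exact h0
        · change |(α * dt (ψ 0) δ + β * dt (ψ 1) δ) / (16 * u 0)| ≤ 1
          rw [abs_div, abs_of_pos (by positivity : 0 < 16 * u 0), div_le_one (by positivity)]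
          exact h1
        · change |(-β * dt (ψ 0) δ + α * dt (ψ 1) δ) / (16 * u 1)| ≤ 1
          rw [abs_div, abs_of_pos (by positivity : 0 < 16 * u 1), div_le_one (by positivity)]
          exact h2)
    simp only [Matrix.cons_val_zero, Matrix.cons_val_one, Matrix.cons_val] at h3
    rw [hexp δ] at h3
    exact h3
  -- resolution
  have hrA : r0 ≤ A := by
    have hf0 : dt (f 0) (f 0) = 1 := by simpa using hf 0 0
    have c0 := cs_unit hf0 (by positivity : 0 ≤ 2 * s) hχ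
    have c1 := cs_unit hf0 (by positivity : 0 ≤ 8 * σ) (hψ 0)
    have c2 := cs_unit hf0 (by positivity : 0 ≤ 8 * σ) (hψ 1)
    have h1 := (hbd (r0 • f 0) c0 (by
      refine (abs_add_le _ _).trans ?_
      rw [abs_mul, abs_mul]
      calc |α| * |dt (ψ 0) (r0 • f 0)| + |β| * |dt (ψ 1) (r0 • f 0)| ≤
          1 * (8 * σ) + 1 * (8 * σ) := by gcongr
        _ ≤ 16 * u 0 := by linarith [(hu 0).1]) (by
      refine (abs_add_le _ _).trans ?_
      rw [abs_mul, abs_mul, abs_neg]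
      calc |β| * |dt (ψ 0) (r0 • f 0)| + |α| * |dt (ψ 1) (r0 • f 0)| ≤
          1 * (8 * σ) + 1 * (8 * σ) := by gcongr
        _ ≤ 16 * u 1 := by linarith [(hu 1).1])).1
    rw [dt_smul, hf0, mul_one] at h1
    exact (le_abs_self _).trans h1
  have hShN : ShN f y ![B2, B1, B2] (flatQ (f 0) y) A z0 ρ r0 :=
    shN_flat hf y z0 ρ rfl hAB hBB hrA hB2
  -- lower bounds of the widths
  have he11 : dt (e 1) (e 1) = 1 := by simpa using he 1 1
  have he22 : dt (e 2) (e 2) = 1 := by simpa using he 2 2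
  have he12 : dt (e 1) (e 2) = 0 := by simpa using he 1 2
  have he21 : dt (e 2) (e 1) = 0 := by simpa using he 2 1
  have hlin : ∀ δ : V3, |dt χ δ| ≤ 2 * s → (∀ j, |dt (ψ j) δ| ≤ 8 * σ) →
      |dt (f 0) δ| ≤ A ∧ |dt (f 1) δ| ≤ B1 ∧ |dt (f 2) δ| ≤ B2 := by
    intro δ c0 c1
    refine hbd δ c0 ?_ ?_
    · refine (abs_add_le _ _).trans ?_
      rw [abs_mul, abs_mul]
      calc |α| * |dt (ψ 0) δ| + |β| * |dt (ψ 1) δ| ≤ 1 * (8 * σ) + 1 * (8 * σ) := by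
            have := c1 0
            have := c1 1
            gcongr
        _ ≤ 16 * u 0 := by linarith [(hu 0).1]
    · refine (abs_add_le _ _).trans ?_
      rw [abs_mul, abs_mul, abs_neg]
      calc |β| * |dt (ψ 0) δ| + |α| * |dt (ψ 1) δ| ≤ 1 * (8 * σ) + 1 * (8 * σ) := by
            have := c1 0
            have := c1 1
            gcongr
        _ ≤ 16 * u 1 := by linarith [(hu 1).1]
  have hB1w : ρ1 / 2 ≤ B1 := by
    refine half_le hB1.le ?_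
    obtain ⟨g0, g1, g2⟩ := hlin (ρ1 • e 1) (by
      rw [dt_smul, abs_mul, abs_of_nonneg hρ1, mul_comm]; exact lo1) (fun j => by
      rw [dt_smul, abs_mul, abs_of_nonneg hρ1, mul_comm]; exact lo1' j)
    have hp := parseval hf (ρ1 • e 1)
    rw [dt_smul, smul_dt, he11] at hp
    have q0 := sq_le_sq' (by linarith [abs_nonneg (dt (f 0) (ρ1 • e 1))]) (g0.trans (hAB.trans hBB))
    have q1 := sq_le_sq' (by linarith [abs_nonneg (dt (f 1) (ρ1 • e 1))]) g1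
    have q2 := sq_le_sq' (by linarith [abs_nonneg (dt (f 2) (ρ1 • e 1))]) (g2.trans hBB)
    rw [sq_abs] at q0 q1 q2
    nlinarith
  have hB2w : ρ2 / 2 ≤ B2 := by
    refine half_le hB2.le ?_
    obtain ⟨r, p, hrp, hperp⟩ := exists_perp he (f 1)
    set v : V3 := r • e 1 + p • e 2 with hv
    have hr1 : |r| ≤ 1 := by
      refine abs_le_of_sq_le_sq ?_ zero_le_one
      nlinarith [sq_nonneg p]
    have hp1 : |p| ≤ 1 := by
      refine abs_le_of_sq_le_sq ?_ zero_le_one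
      nlinarith [sq_nonneg r]
    have hvv : dt v v = 1 := by
      rw [hv]
      simp only [dt_add, add_dt, dt_smul, smul_dt, he11, he22, he12, he21]
      linarith
    have hfun : ∀ ξ : V3, |dt ξ (ρ2 • v)| ≤ (|dt ξ (e 1)| + |dt ξ (e 2)|) * ρ2 := by
      intro ξ
      rw [dt_smul, abs_mul, abs_of_nonneg hρ2, hv, dt_add, dt_smul, dt_smul, mul_comm]
      refine mul_le_mul_of_nonneg_right ?_ hρ2
      refine (abs_add_le _ _).trans ?_
      rw [abs_mul, abs_mul]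
      have h1 := abs_nonneg (dt ξ (e 1))
      have h2 := abs_nonneg (dt ξ (e 2))
      nlinarith
    obtain ⟨g0, g1, g2⟩ := hlin (ρ2 • v) ((hfun _).trans lo2) (fun j => (hfun _).trans (lo2' j))
    have hp := parseval hf (ρ2 • v)
    rw [dt_smul, smul_dt, hvv] at hp
    have q0 := sq_le_sq' (by linarith [abs_nonneg (dt (f 0) (ρ2 • v))]) (g0.trans hAB)
    have q2 := sq_le_sq' (by linarith [abs_nonneg (dt (f 2) (ρ2 • v))]) g2
    rw [sq_abs] at q0 q2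
    have q1 : dt (f 1) (ρ2 • v) = 0 := by rw [dt_smul, hperp, mul_zero]
    rw [q1] at hp
    nlinarith [sq_nonneg B2]
  have bA' : A ≤ 256 * K * a := bA.trans (le_of_eq (by change 8 * (32 * K) * a = _; ring))
  have b2' : B2 ≤ 320 * K * w 2 := b2.trans (le_of_eq (by change 10 * (32 * K) * w 2 = _; ring))
  have b1' : B1 ≤ 192 * K * w 1 := b1.trans (le_of_eq (by change 6 * (32 * K) * w 1 = _; ring))
  have h1 := hmax _ _ _ _ _ hShN (bA'.trans hm0) (b1'.trans hwm) (b2'.trans hm2)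
    (hω1.trans hB1w) (hω2.trans hB2w)
  have h2 : (T.filter fun t => ∀ z, z0 ≤ z → z ≤ z0 + ρ →
      |dt χ ((L t).pos z - y.pos z)| ≤ 2 * s ∧
      |α * dt (ψ 0) ((L t).pos z - y.pos z) + β * dt (ψ 1) ((L t).pos z - y.pos z)| ≤ 16 * u 0 ∧
      |-β * dt (ψ 0) ((L t).pos z - y.pos z) + α * dt (ψ 1) ((L t).pos z - y.pos z)| ≤
        16 * u 1) ⊆ T.filter fun t =>
      InSheet (L t) f y ![B2, B1, B2] (flatQ (f 0) y) A z0 ρ := by
    intro t ht
    rw [mem_filter] at ht ⊢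
    refine ⟨ht.1, fun z hz hz' => ?_⟩
    obtain ⟨k0, k1, k2⟩ := ht.2 z hz hz'
    obtain ⟨g0, g1, g2⟩ := hbd _ k0 k1 k2
    refine ⟨fun i => ?_, g0⟩
    fin_cases i
    · exact g0.trans hAB
    · exact g1
    · exact g2
  have h3 := (Nat.cast_le (α := ℝ)).2 (card_le_card h2)
  refine (h3.trans h1).trans ?_
  change D * (A * B2 * B1 * R A B2 B1) ≤ _
  have h4 : R A B2 B1 ≤ R (256 * K * a) (320 * K * w 2) (192 * K * w 1) :=
    hRm _ _ _ _ _ _ hA.le hB2.le hB1.le bA' b2' b1'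
  have hRn : 0 ≤ R A B2 B1 := hR0 _ _ _ hA.le hB2.le hB1.le
  have hdφ := det_le he hK hWd hφ
  change _ ≤ 6 * K ^ 3 * (a * w 2 * w 1) at hdφ
  have hvol2 : A * B2 * B1 ≤ 18432 * K ^ 3 * (s * (u 0 * u 1)) * (a * w 2 * w 1) := by
    rw [hvol, hdet, abs_mul, abs_of_pos (by positivity : 0 < 512 * (s * (u 0 * u 1)))]
    calc 6 * (512 * (s * (u 0 * u 1)) * |dt (crs (φ 0) (φ 1)) (φ 2)|) ≤
        6 * (512 * (s * (u 0 * u 1)) * (6 * K ^ 3 * (a * w 2 * w 1))) := by gcongr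
      _ = _ := by ring
  calc D * (A * B2 * B1 * R A B2 B1) ≤
      D * (18432 * K ^ 3 * (s * (u 0 * u 1)) * (a * w 2 * w 1) *
        R (256 * K * a) (320 * K * w 2) (192 * K * w 1)) := by gcongr
    _ = _ := by ring


end Crest.Agent.R136.Lab926
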