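import Crest.Agent.R136.LabW4_926

/-!
# R136: END-LAB, `WinH` from eventual hypotheses (helper371)

`zwin_congr` : a zoom window only sees its base points eventually.
`WinE` : `WinH` with the pointwise hypotheses given eventually (field `ev`); `winH_of_ev` :
sequences which agree eventually and satisfy `WinH`.
-/

set_option autoImplicit false
set_option linter.unusedVariables false

open Filter Topology

namespace Crest.Agent.R136.LabC371

open Finset
open Crest.Agent.R138.Ex926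
open Crest.Agent.R138.Mk163 (zc zl rho alive)
open Crest.Agent.R136.Sh605
open Crest.Agent.R136.Net191
open Crest.Agent.R136.NetQ186
open Crest.Agent.R136.GeoQ186
open Crest.Agent.R136.MkA627
open Crest.Agent.R136.Wq638
open Crest.Agent.R136.Lq196
open Crest.Agent.R136.Qg926
open Crest.Agent.R136.Lab926 (natB pdB WinH)

/-- a zoom window only sees its base points eventually -/
theorem zwin_congr {ι : ℕ → Type*} [∀ n, DecidableEq (ι n)] {m : ℕ} {B B' : Base}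
    {I J : ∀ n, Finset (ι n)} {co : ∀ n, ι n → ι n → Fin m → ℝ} {M : Mons m} {C : ℝ}
    {X X' : ℕ → Fin m → ℝ} {w : ℕ → ℝ} {D : Set (Fin m → ℝ)} {T : ℕ → ℝ}
    {lam : (Fin m → ℝ) → ℝ} (h : ZWin B B' I J co M C X w D T lam)
    (hX : ∀ᶠ n in (U : Filter ℕ), X' n = X n) : ZWin B B' I J co M C X' w D T lam where
  chart := h.chart
  sub := h.sub
  ne := h.ne
  w0 := h.w0
  base := h.base
  zero := h.zero
  legal := fun K => by
    filter_upwards [h.legal K, hX] with n h1 h2 c hc hK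
    rw [h2]; exact h1 c hc hK
  prof :=
    { up := fun K ε hε => by
        filter_upwards [h.prof.up K ε hε, hX] with n h1 h2 c hc hK i hi
        have e1 : zlab B I co M C X' w n c = zlab B I co M C X w n c := by
          show nlab B I co M C n _ = nlab B I co M C n _
          rw [h2]
        rw [e1]; exact h1 c hc hK i hi
      num := fun K ε hε => by
        filter_upwards [h.prof.num K ε hε, hX] with n h1 h2 c hc hK c' hc' hK' hcc i hi
        have e1 : ∀ c, zlab B I co M C X' w n c = zlab B I co M C X w n c := fun c => by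
          show nlab B I co M C n _ = nlab B I co M C n _
          rw [h2]
        rw [e1, e1]; exact h1 c hc hK c' hc' hK' hcc i hi
      root := fun K ε hε => by
        filter_upwards [h.prof.root K ε hε, hX] with n h1 h2 c hc hK
        have e1 : zlab B I co M C X' w n c = zlab B I co M C X w n c := by
          show nlab B I co M C n _ = nlab B I co M C n _
          rw [h2]
        rw [e1]; exact h1 c hc hK }
  lam0 := h.lam0
  T0 := h.T0
  lip := h.lip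
  anti := h.anti
  sharp := h.sharp
  submod := h.submod

open Classical in
/-- `WinH` with eventual hypotheses -/
structure WinE (B B' : Base) (I I1 J : ℕ → Finset (ℕ × ℝ))
    (co : ℕ → ℕ × ℝ → ℕ × ℝ → Fin 11 → ℝ) (θ : Fin 3 → ℝ) (w0 R T0 : ℝ) (o : ℝ → Fin 11 → ℝ)
    (S SJ : ℕ → ℝ) (X : ℕ → Fin 11 → ℝ) (wn : ℕ → ℝ) (DD' : Set (Fin 11 → ℝ)) (TT : ℕ → ℝ)
    (lam : (Fin 11 → ℝ) → ℝ) (R1 v t1 t2 t3 : ℕ → ℝ) (kN k1 v1 γ : ℝ) : Prop where
  hz : ZWin B B' I J co monQ 2 X wn DD' TT lam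
  sub : ∀ᶠ n in (U : Filter ℕ), J n ⊆ I1 n
  dense : ∀ᶠ n in (U : Filter ℕ), ((I1 n).card : ℝ) ≤ SJ n * (J n).card
  hSJ : B'.Sub SJ
  hS : B'.Sub S
  S1 : ∀ n, 1 ≤ S n
  wlim : Tendsto wn U (𝓝 0)
  hv1 : v1 < 1
  hγ : 0 < γ
  /-- `leg, nat, nat3, v0, vv, tg, tab, tR` -/
  ev : ∀ᶠ n in (U : Filter ℕ), X n ∈ Leg monQ R ∧
    (∀ k, k ≠ 3 → X n k = natB w0 (R1 n) (v n) (t1 n) (t2 n) (t3 n) k) ∧
    natB w0 (R1 n) (v n) (t1 n) (t2 n) (t3 n) 3 ≤ X n 3 ∧ 0 ≤ v n ∧ v n ≤ v1 ∧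
    γ ≤ t1 n + θ 1 ∧ min 0 (θ 1 - θ 2) ≤ t2 n - t1 n ∧ v n + t3 n + γ ≤ 1 + T0
  tby : ∀ᶠ n in (U : Filter ℕ),
    min 0 (θ 2 - θ 0) ≤ (t3 n + wn n * kN) - (t2 n + wn n * k1)
  tres : ∀ᶠ n in (U : Filter ℕ), v n + t3 n + wn n * kN ≤ max 0 (1 - θ 0)
  own0 : ∀ᶠ n in (U : Filter ℕ), ∀ k, X n k ≤ o (v n) k
  own1 : ∀ᶠ n in (U : Filter ℕ), ∀ k, (X n + wn n • pdB k1 kN) k ≤ o (v n + wn n * k1) k
  pdD : pdB k1 kN ∈ DD'
  kN0 : 0 < kN
  kNk : kN ≤ k1
  /-- the relation of the velocities -/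
  rel : ∀ ε : ℝ, 0 < ε → ∀ᶠ n in (U : Filter ℕ), ∀ s ∈ J n, ∃ α β c : ℝ,
    |α| ≤ B'.d n ^ (-ε) ∧ |β| ≤ B'.d n ^ (-ε) ∧ ∀ y ∈ J n,
      zlab B I co monQ 2 X wn n 0 y = zlab B I co monQ 2 X wn n 0 s →
        |co n s y 7 / B.d n ^ X n 7 - α * (co n s y 5 / B.d n ^ X n 5) -
          β * (co n s y 6 / B.d n ^ X n 6) - c| ≤ B'.d n ^ (kN - ε)

section

variable {B B' : Base} {I I1 J : ℕ → Finset (ℕ × ℝ)}
    {co : ℕ → ℕ × ℝ → ℕ × ℝ → Fin 11 → ℝ} {θ : Fin 3 → ℝ} {w0 R T0 : ℝ} {o : ℝ → Fin 11 → ℝ}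
    {S SJ : ℕ → ℝ} {X : ℕ → Fin 11 → ℝ} {wn : ℕ → ℝ} {DD' : Set (Fin 11 → ℝ)} {TT : ℕ → ℝ}
    {lam : (Fin 11 → ℝ) → ℝ} {R1 v t1 t2 t3 : ℕ → ℝ} {kN k1 v1 γ : ℝ}

/-- a selection `π`, `π n = n` eventually -/
theorem WinE.sel (W : WinE B B' I I1 J co θ w0 R T0 o S SJ X wn DD' TT lam R1 v t1 t2 t3 kN k1
    v1 γ) : ∃ π : ℕ → ℕ, (∀ᶠ n in (U : Filter ℕ), π n = n) ∧
      WinH B B' I I1 J co θ w0 R T0 o S SJ (fun n => X (π n)) wn DD' TT lam (fun n => R1 (π n))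
        (fun n => v (π n)) (fun n => t1 (π n)) (fun n => t2 (π n)) (fun n => t3 (π n)) kN k1
        v1 γ := by
  classical
  have hP := W.ev
  obtain ⟨n0, h0⟩ := hP.exists
  set P : ℕ → Prop := fun n => X n ∈ Leg monQ R ∧
      (∀ k, k ≠ 3 → X n k = natB w0 (R1 n) (v n) (t1 n) (t2 n) (t3 n) k) ∧
      natB w0 (R1 n) (v n) (t1 n) (t2 n) (t3 n) 3 ≤ X n 3 ∧ 0 ≤ v n ∧ v n ≤ v1 ∧
      γ ≤ t1 n + θ 1 ∧ min 0 (θ 1 - θ 2) ≤ t2 n - t1 n ∧ v n + t3 n + γ ≤ 1 + T0 with hPd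
  set π : ℕ → ℕ := fun n => if P n then n else n0 with hπ
  have hπP : ∀ n, P (π n) := fun n => by
    by_cases h : P n
    · have : π n = n := if_pos h
      rw [this]; exact h
    · have : π n = n0 := if_neg h
      rw [this]; exact h0
  have hπe : ∀ᶠ n in (U : Filter ℕ), π n = n := hP.mono fun n hn => if_pos hn
  refine ⟨π, hπe, ?_⟩
  exact
    { hz := zwin_congr W.hz (hπe.mono fun n hn => by rw [hn])
      sub := W.sub
      dense := W.dense
      hSJ := W.hSJ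
      hS := W.hS
      S1 := W.S1
      wlim := W.wlim
      leg := fun n => (hπP n).1
      nat := fun n => (hπP n).2.1
      nat3 := fun n => (hπP n).2.2.1
      v0 := fun n => (hπP n).2.2.2.1
      vv := fun n => (hπP n).2.2.2.2.1
      hv1 := W.hv1
      hγ := W.hγ
      tg := fun n => (hπP n).2.2.2.2.2.1
      tab := fun n => (hπP n).2.2.2.2.2.2.1
      tby := by filter_upwards [W.tby, hπe] with n h1 h2; rw [h2]; exact h1
      tres := by filter_upwards [W.tres, hπe] with n h1 h2; rw [h2]; exact h1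
      tR := fun n => (hπP n).2.2.2.2.2.2.2
      own0 := by filter_upwards [W.own0, hπe] with n h1 h2; rw [h2]; exact h1
      own1 := by filter_upwards [W.own1, hπe] with n h1 h2; rw [h2]; exact h1
      pdD := W.pdD
      kN0 := W.kN0
      kNk := W.kNk
      rel := fun ε hε => by
        filter_upwards [W.rel ε hε, hπe] with n h1 h2 s hs
        obtain ⟨α, β, c, h3, h4, h5⟩ := h1 s hs
        refine ⟨α, β, c, h3, h4, fun y hy hy' => ?_⟩
        have e1 : zlab B I co monQ 2 (fun n => X (π n)) wn n 0 = zlab B I co monQ 2 X wn n 0 := by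
          show nlab B I co monQ 2 n _ = nlab B I co monQ 2 n _
          simp only [h2]
        rw [e1] at hy'
        simp only [h2]
        exact h5 y hy hy' }

/-- **eventual hypotheses are enough** -/
theorem winH_of_ev (W : WinE B B' I I1 J co θ w0 R T0 o S SJ X wn DD' TT lam R1 v t1 t2 t3 kN k1
    v1 γ) : ∃ (X' : ℕ → Fin 11 → ℝ) (R1' v' t1' t2' t3' : ℕ → ℝ),
      (∀ᶠ n in (U : Filter ℕ), X' n = X n ∧ R1' n = R1 n ∧ v' n = v n ∧ t1' n = t1 n ∧
        t2' n = t2 n ∧ t3' n = t3 n) ∧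
      WinH B B' I I1 J co θ w0 R T0 o S SJ X' wn DD' TT lam R1' v' t1' t2' t3' kN k1 v1 γ := by
  obtain ⟨π, h1, h2⟩ := W.sel
  exact ⟨_, _, _, _, _, _, h1.mono fun n hn => by simp only [hn, and_self], h2⟩

end

end Crest.Agent.R136.LabC371
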