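import Crest.Agent.R136.LabB_926
import Crest.Agent.R136.HR10_829
import Crest.Agent.R136.Lq4_196
import Crest.Agent.R136.Wq1_638
import Crest.Agent.R136.PqG_464
import Crest.Agent.R136.End4b_403
import Crest.Agent.R136.Qg1_926

/-!
# R136: END-LAB, D-max of the sample for slab x rotated plank (helper926)

`cell_count` : number of incidences of the family in a slab cut with a rotated plank, over a cell
of any level, from D-max at a finer level; `body_eps`, `exists_body` : the same for the sample,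
uniform in the real level `v ∈ [0, v1]`, one sub-polynomial constant.
-/

set_option autoImplicit false
set_option linter.unusedVariables false
set_option linter.unusedSectionVars false

open Filter Topology

namespace Crest.Agent.R136.Lab926

open Finset
open Crest.Agent.R138.Ex926 (Base U)
open Crest.Agent.R138.Dp76 (dpow_pos dpow_add dpow_le dpow_le_one)
open Crest.Agent.R138.Mk163 (zc zl rho alive)
open Crest.Agent.R138.MkRef627 (lc kc mem_alive)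
open Crest.Agent.R136.Sh605
open Crest.Agent.R136.HR829 (Wd Rq Rq_nonneg Rq_mono Rq_scale)
open Crest.Agent.R136.Lab544 (Dual)
open Crest.Agent.R136.End403 (zc_eq' zc_nest' exists_err)
open Crest.Agent.R136.Net191
open Crest.Agent.R136.MkA627
open Crest.Agent.R136.Wq638
open Crest.Agent.R136.Lq196

/-! ### one cell -/

theorem rho_pos' (i : ℕ) : 0 < rho i := by unfold rho; positivity

/-- a fine cell lies in its coarse cell -/
theorem cell_sub {lv lq : ℕ} (h : lv ≤ lq) {J J0 : ℤ} (hJ : J / ((2 ^ (lq - lv) : ℕ) : ℤ) = J0)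
    {z : ℝ} (h1 : zl lq J ≤ z) (h2 : z ≤ zl lq J + rho lq) :
    zl lv J0 ≤ z ∧ z ≤ zl lv J0 + rho lv := by
  obtain ⟨d, rfl⟩ := Nat.exists_eq_add_of_le h
  rw [Nat.add_sub_cancel_left] at hJ
  have hd : (0 : ℤ) < ((2 ^ d : ℕ) : ℤ) := by positivity
  have k1 : J0 * ((2 ^ d : ℕ) : ℤ) ≤ J := by
    rw [← hJ]; exact Int.ediv_mul_le _ hd.ne'
  have k2 : J + 1 ≤ (J0 + 1) * ((2 ^ d : ℕ) : ℤ) := by
    rw [← hJ]
    exact Int.lt_ediv_add_one_mul_self _ hd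
  have k1' : (J0 : ℝ) * 2 ^ d ≤ J := by exact_mod_cast k1
  have k2' : (J : ℝ) + 1 ≤ (J0 + 1) * 2 ^ d := by exact_mod_cast k2
  have p1 : (0 : ℝ) < 2 ^ lv := by positivity
  have p2 : (0 : ℝ) < 2 ^ d := by positivity
  simp only [zl, rho] at h1 h2 ⊢
  rw [pow_add] at h1 h2
  rw [← add_div, le_div_iff₀ (by positivity)] at h2
  rw [div_le_iff₀ (by positivity)] at h1
  rw [← add_div, div_le_iff₀ p1, le_div_iff₀ p1]
  constructor
  · have : (J0 : ℝ) * 2 ^ d ≤ (z * 2 ^ lv) * 2 ^ d := by nlinarith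
    exact le_of_mul_le_mul_right this p2
  · have : (z * 2 ^ lv) * 2 ^ d ≤ ((J0 : ℝ) + 1) * 2 ^ d := by nlinarith
    exact le_of_mul_le_mul_right this p2

/-- the body: slab cut with a rotated plank around the line `y` -/
def Bod (χ : V3) (ψ : Fin 2 → V3) (α β s : ℝ) (u : Fin 2 → ℝ) (y t : Ln4) (z : ℝ) : Prop :=
  |dt χ (t.pos z - y.pos z)| ≤ 2 * s ∧
  |α * dt (ψ 0) (t.pos z - y.pos z) + β * dt (ψ 1) (t.pos z - y.pos z)| ≤ 16 * u 0 ∧
  |-β * dt (ψ 0) (t.pos z - y.pos z) + α * dt (ψ 1) (t.pos z - y.pos z)| ≤ 16 * u 1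

/-- frame data of a body -/
structure FrOk (χ : V3) (ψ : Fin 2 → V3) (φ e : Fin 3 → V3) (w : V3) (a K r0 s σ ρ1 ρ2 : ℝ) :
    Prop where
  ortho : Ortho e
  a0 : 0 < a
  aw : a ≤ w 2
  ww : w 2 ≤ w 1
  dual : Dual χ ψ φ
  K1 : 1 ≤ K
  fr : ∀ i k, |dt (e i) (φ k)| ≤ K * Wd a w i
  s0 : 0 < s
  s1 : s ≤ 1
  σ0 : 0 < σ
  rχ : r0 ^ 2 * dt χ χ ≤ (2 * s) ^ 2
  rψ : ∀ j, r0 ^ 2 * dt (ψ j) (ψ j) ≤ (8 * σ) ^ 2
  ρ10 : 0 ≤ ρ1
  ρ20 : 0 ≤ ρ2
  lo1 : |dt χ (e 1)| * ρ1 ≤ 2 * s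
  lo1' : ∀ j, |dt (ψ j) (e 1)| * ρ1 ≤ 8 * σ
  lo2 : (|dt χ (e 1)| + |dt χ (e 2)|) * ρ2 ≤ 2 * s
  lo2' : ∀ j, (|dt (ψ j) (e 1)| + |dt (ψ j) (e 2)|) * ρ2 ≤ 8 * σ

/-- ranges of the test sheets -/
structure Rg where
  r : ℕ → ℝ
  m0 : ℕ → ℝ
  m1 : ℕ → ℝ
  m2 : ℕ → ℝ
  o1 : ℕ → ℝ
  o2 : ℕ → ℝ

open Classical in
/-- **number of incidences in a body over a cell**, from D-max at a finer level -/
theorem cell_count (I : Finset (ℕ × ℝ)) (L : ℕ → Ln4) {lv lq : ℕ} (hl : lv ≤ lq) (J0 : ℤ)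
    {oq Dq r0 m0 m1 m2 ω1 ω2 : ℝ} (hoq : 0 ≤ oq) (hDq : 0 ≤ Dq) {Rr : ℝ → ℝ → ℝ → ℝ}
    (hR0 : ∀ x y z, 0 ≤ x → 0 ≤ y → 0 ≤ z → 0 ≤ Rr x y z)
    (hRm : ∀ x y z x' y' z', 0 ≤ x → 0 ≤ y → 0 ≤ z → x ≤ x' → y ≤ y' → z ≤ z' →
      Rr x y z ≤ Rr x' y' z')
    (hown : ∀ x ∈ I, ((I.filter fun y => lc lq y = lc lq x).card : ℝ) ≤ oq)
    (hmax : ∀ J, DMX (alive I lq J) L (zl lq J) (rho lq) Dq Rr r0 m0 m1 m2 ω1 ω2)
    {χ : V3} {ψ : Fin 2 → V3} {φ e : Fin 3 → V3} {w : V3} {a K s σ ρ1 ρ2 : ℝ}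
    (hF : FrOk χ ψ φ e w a K r0 s σ ρ1 ρ2) (hm0 : 256 * K * a ≤ m0) (hwm : 192 * K * w 1 ≤ m1)
    (hwm2 : 320 * K * w 2 ≤ m2) (hω1 : ω1 ≤ ρ1 / 2) (hω2 : ω2 ≤ ρ2 / 2) {α β : ℝ}
    (hαβ : α ^ 2 + β ^ 2 = 1) {u : Fin 2 → ℝ} (hu : ∀ j, σ ≤ u j ∧ u j ≤ 1) (y : Ln4) :
    ((I.filter fun j => zc lv j.2 = J0 ∧ ∀ z, zl lv J0 ≤ z → z ≤ zl lv J0 + rho lv →
      Bod χ ψ α β s u y (L j.1) z).card : ℝ) ≤
      2 ^ (lq - lv) * (oq * (18432 * K ^ 3 * Dq * (s * (u 0 * u 1)) *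
        (a * w 2 * w 1 * Rr (256 * K * a) (320 * K * w 2) (192 * K * w 1)))) := by
  set G := I.filter fun j => zc lv j.2 = J0 ∧ ∀ z, zl lv J0 ≤ z → z ≤ zl lv J0 + rho lv →
      Bod χ ψ α β s u y (L j.1) z with hG
  set N : ℝ := 18432 * K ^ 3 * Dq * (s * (u 0 * u 1)) *
        (a * w 2 * w 1 * Rr (256 * K * a) (320 * K * w 2) (192 * K * w 1)) with hN
  have hK0 : 0 < K := lt_of_lt_of_le one_pos hF.K1
  have hw2 : 0 < w 2 := hF.a0.trans_le hF.aw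
  have hw1 : 0 < w 1 := hw2.trans_le hF.ww
  have hu0 := hF.σ0.trans_le (hu 0).1
  have hu1 := hF.σ0.trans_le (hu 1).1
  have hN0 : 0 ≤ N := by
    have h1 := hR0 (256 * K * a) (320 * K * w 2) (192 * K * w 1)
      (by have := hF.a0; positivity) (by positivity) (by positivity)
    have := hF.a0
    have := hF.s0
    positivity
  -- fine cells
  have hcells : ((G.image fun j => zc lq j.2).card : ℝ) ≤ 2 ^ (lq - lv) := by
    have hsub : (G.image fun j => zc lq j.2) ⊆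
        Finset.Ico (J0 * ((2 ^ (lq - lv) : ℕ) : ℤ)) ((J0 + 1) * ((2 ^ (lq - lv) : ℕ) : ℤ)) := by
      intro k hk
      obtain ⟨j, hj, rfl⟩ := mem_image.1 hk
      have h1 := (mem_filter.1 hj).2.1
      rw [zc_eq' hl] at h1
      have hd : (0 : ℤ) < ((2 ^ (lq - lv) : ℕ) : ℤ) := by positivity
      rw [mem_Ico, ← h1]
      exact ⟨Int.ediv_mul_le _ hd.ne', Int.lt_ediv_add_one_mul_self _ hd⟩
    have h1 := card_le_card hsub
    rw [Int.card_Ico] at h1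
    have e1 : ((J0 + 1) * ((2 ^ (lq - lv) : ℕ) : ℤ) - J0 * ((2 ^ (lq - lv) : ℕ) : ℤ)).toNat =
        2 ^ (lq - lv) := by
      have : (J0 + 1) * ((2 ^ (lq - lv) : ℕ) : ℤ) - J0 * ((2 ^ (lq - lv) : ℕ) : ℤ) =
          ((2 ^ (lq - lv) : ℕ) : ℤ) := by ring
      rw [this, Int.toNat_natCast]
    rw [e1] at h1
    exact_mod_cast h1
  -- one fine cell
  have hone : ∀ J ∈ G.image fun j => zc lq j.2,
      ((G.filter fun j => zc lq j.2 = J).card : ℝ) ≤ oq * N := by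
    intro J hJ
    obtain ⟨j0, hj0, hj0J⟩ := mem_image.1 hJ
    have hJJ : J / ((2 ^ (lq - lv) : ℕ) : ℤ) = J0 := by
      rw [← hj0J, ← zc_eq' hl]; exact (mem_filter.1 hj0).2.1
    set A := (alive I lq J).filter fun t => ∀ z, zl lq J ≤ z → z ≤ zl lq J + rho lq →
      |dt χ ((L t).pos z - y.pos z)| ≤ 2 * s ∧
      |α * dt (ψ 0) ((L t).pos z - y.pos z) + β * dt (ψ 1) ((L t).pos z - y.pos z)| ≤ 16 * u 0 ∧
      |-β * dt (ψ 0) ((L t).pos z - y.pos z) + α * dt (ψ 1) ((L t).pos z - y.pos z)| ≤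
        16 * u 1 with hA
    have h1 : (A.card : ℝ) ≤ N := lab_boxW (alive I lq J) L hF.ortho hF.a0 hF.aw hF.ww hDq hR0 hRm
      (hmax J) hF.dual hK0 hF.fr hF.s0 hF.s1 hF.σ0 hF.rχ hF.rψ hm0 hwm hwm2 hF.ρ10 hF.ρ20 hF.lo1
      hF.lo1' hF.lo2 hF.lo2' hω1 hω2 hαβ hu y
    have h3 : (G.filter fun j => zc lq j.2 = J).card =
        ∑ t ∈ A, ((G.filter fun j => zc lq j.2 = J).filter fun j => j.1 = t).card :=
      card_eq_sum_card_fiberwise (f := Prod.fst) (t := A) fun j hj => by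
        have hj' : j ∈ G.filter fun j => zc lq j.2 = J := hj
        rw [mem_filter, hG, mem_filter] at hj'
        obtain ⟨⟨hjI, hjz, hjb⟩, hjJ⟩ := hj'
        change j.1 ∈ A
        rw [hA, mem_filter]
        refine ⟨mem_alive.2 ⟨j, hjI, rfl, hjJ⟩, fun z hz1 hz2 => ?_⟩
        obtain ⟨c1, c2⟩ := cell_sub hl hJJ hz1 hz2
        exact hjb z c1 c2
    rw [h3]
    push_cast
    calc ∑ t ∈ A, (((G.filter fun j => zc lq j.2 = J).filter fun j => j.1 = t).card : ℝ)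
        ≤ ∑ t ∈ A, oq := by
          refine sum_le_sum fun t ht => ?_
          by_cases hne : ((G.filter fun j => zc lq j.2 = J).filter fun j => j.1 = t).Nonempty
          · obtain ⟨x, hx⟩ := hne
            rw [mem_filter, mem_filter, hG, mem_filter] at hx
            refine le_trans (Nat.cast_le.2 (card_le_card fun j hj => ?_)) (hown x hx.1.1.1)
            rw [mem_filter, mem_filter, hG, mem_filter] at hj
            rw [mem_filter]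
            refine ⟨hj.1.1.1, ?_⟩
            unfold lc
            exact Prod.ext (hj.2.trans hx.2.symm) (hj.1.2.trans hx.1.2.symm)
          · rw [not_nonempty_iff_eq_empty.1 hne, card_empty, Nat.cast_zero]
            exact hoq
      _ = A.card * oq := by rw [sum_const, nsmul_eq_mul]
      _ ≤ N * oq := mul_le_mul_of_nonneg_right h1 hoq
      _ = oq * N := mul_comm _ _
  have h3 : G.card = ∑ J ∈ G.image fun j => zc lq j.2, (G.filter fun j => zc lq j.2 = J).card :=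
    card_eq_sum_card_image _ _
  rw [h3]
  push_cast
  calc ∑ J ∈ G.image fun j => zc lq j.2, ((G.filter fun j => zc lq j.2 = J).card : ℝ)
      ≤ ∑ J ∈ G.image fun j => zc lq j.2, oq * N := sum_le_sum hone
    _ = (G.image fun j => zc lq j.2).card * (oq * N) := by rw [sum_const, nsmul_eq_mul]
    _ ≤ 2 ^ (lq - lv) * (oq * N) := mul_le_mul_of_nonneg_right hcells (mul_nonneg hoq hN0)

/-! ### the sample -/

section

variable {σ' κ' : Type*} {G : Geo σ' κ'} {B : Base} {I I1 : ℕ → Finset (ℕ × ℝ)}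
    {L : ℕ → ℕ → Ln4} {rg : Rg} {q : Fin 3 → ℝ}
    {lev : ℕ → ℚ → ℕ} {A : ℕ → ℝ} {g : ℝ} {τ : κ' → ℝ → ℝ}
    {f : ℕ → ℚ → ℕ → ℤ → ℕ} {b : ℕ → ℚ → ℕ → σ'} {vm : ℕ → ℚ → ℝ} {w : κ' → ℕ → ℚ → ℝ}
    {m : ℕ} {co : ∀ n : ℕ, ℕ × ℝ → ℕ × ℝ → Fin m → ℝ} {M : Mons m} {C R c₀ : ℝ}

/-- **D-max of the sample for bodies**, with the loss `E` -/
def BodyP (B : Base) (I I1 : ℕ → Finset (ℕ × ℝ)) (L : ℕ → ℕ → Ln4) (rg : Rg)
    (q : Fin 3 → ℝ)
    (lev : ℕ → ℚ → ℕ) (g : ℝ) (vm : ℕ → ℚ → ℝ) (co : ∀ n : ℕ, ℕ × ℝ → ℕ × ℝ → Fin m → ℝ)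
    (M : Mons m) (C R c₀ v1 γ E : ℝ) (n : ℕ) : Prop :=
  ∀ v : ℝ, 0 ≤ v → v ≤ v1 → ∀ (lv : ℕ) (J0 : ℤ),
    (2 : ℝ) ^ lev n 0 * B.d n ^ (-v) ≤ 2 * 2 ^ lv → (2 : ℝ) ^ lv ≤ 2 ^ lev n 0 * B.d n ^ (-v) →
    ∀ (χ : V3) (ψ : Fin 2 → V3) (φ e : Fin 3 → V3) (w : V3) (a K s σ ρ1 ρ2 : ℝ),
      FrOk χ ψ φ e w a K (rg.r n) s σ ρ1 ρ2 → 192 * K * w 1 ≤ B.d n ^ γ * rho lv →
      256 * K * a ≤ rg.m0 n → 192 * K * w 1 ≤ rg.m1 n → 320 * K * w 2 ≤ rg.m2 n →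
      rg.o1 n ≤ ρ1 / 2 → rg.o2 n ≤ ρ2 / 2 →
      ∀ α β : ℝ, α ^ 2 + β ^ 2 = 1 → ∀ u : Fin 2 → ℝ, (∀ j, σ ≤ u j ∧ u j ≤ 1) → ∀ y : Ln4,
      ∀ F ⊆ I1 n, (∀ i ∈ F, ∀ j ∈ I n,
        nlab B I co M C n (fun _ => R) j = nlab B I co M C n (fun _ => R) i →
        zc (lev n 1) j.2 = zc (lev n 1) i.2 → zc lv j.2 = J0 ∧
          ∀ z, zl lv J0 ≤ z → z ≤ zl lv J0 + rho lv → Bod χ ψ α β s u y (L n j.1) z) →
      (F.card : ℝ) ≤ E * (K ^ 3 * K ^ (q 0 + q 1 + q 2)) *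
        (B.d n ^ (-(c₀ + g * v + (1 - v))) / vm n 0) * (s * (u 0 * u 1)) *
        (a * w 2 * w 1 * Rq q (rho lv) a (w 2) (w 1))

theorem hexp_aux {c₀ g v qq δ ε Q t : ℝ} (hε : 0 < ε) (hQ0 : 0 ≤ Q) (ht : 0 < t) (hq1 : v + t ≤ qq)
    (hq2 : qq ≤ v + 2 * t) (hδN : δ ≤ t) (hδε : δ ≤ ε / 16)
    (hQN : (Q + |g| + 1) * (3 * t) ≤ 3 * (ε / 16)) :
    -(c₀ + g * v + (1 - v)) - 3 * (ε / 4) ≤
      -(c₀ + δ) + (-(qq + δ - v) + ((-(1 - qq) + (0 * 1 - 0 * qq) - δ) + (-δ +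
        (-(g * qq) + -(qq + δ - v) * Q)))) := by
  have h1 : g * (qq - v) ≤ |g| * (3 * t) :=
    mul_le_mul (le_abs_self g) (by linarith) (by linarith) (abs_nonneg g)
  have h2 : (qq + δ - v) * Q ≤ (3 * t) * Q := mul_le_mul_of_nonneg_right (by linarith) hQ0
  linarith

set_option maxHeartbeats 6400000 in
open Classical in
/-- **D-max of the sample for bodies**, uniform in the level -/
theorem body_eps (hM : MkA B I G lev A (fun v => g * v) (fun v => 0 * v) τ f b vm w)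
    (hD : ∀ v : ℚ, 0 ≤ v → v ≤ 1 → ∀ ε : ℝ, 0 < ε → ∀ᶠ n in (U : Filter ℕ), ∀ J : ℤ,
      DMX (alive (I n) (lev n v) J) (L n) (zl (lev n v) J) (rho (lev n v))
        (B.d n ^ (-ε) * ampA B A (fun v => g * v) n v) (Rq q (rho (lev n v))) (rg.r n) (rg.m0 n)
        (min (rho (lev n v)) (rg.m1 n)) (rg.m2 n) (rg.o1 n) (rg.o2 n))
    (hc : CombQ B I I1 lev co M C R (N0Q A vm) c₀) (hq : ∀ j, 0 ≤ q j) {v1 γ : ℝ} (hv1 : v1 < 1)
    (hγ : 0 < γ) {ε : ℝ} (hε : 0 < ε) : ∀ᶠ n in (U : Filter ℕ),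
      BodyP B I I1 L rg q lev g vm co M C R c₀ v1 γ (B.d n ^ (-ε)) n := by
  set Q : ℝ := q 0 + q 1 + q 2 with hQ
  have hQ0 : 0 ≤ Q := by have := hq 0; have := hq 1; have := hq 2; linarith
  -- the grid
  obtain ⟨N, hN⟩ := exists_nat_gt (max (max 2 (2 / (1 - v1))) (max (8 / γ)
    (16 * (Q + |g| + 1) / ε)))
  have hv1' : 0 < 1 - v1 := by linarith
  have hNa : (2 : ℝ) < N := lt_of_le_of_lt ((le_max_left _ _).trans (le_max_left _ _)) hN
  have hNb : 2 / (1 - v1) < N := lt_of_le_of_lt ((le_max_right _ _).trans (le_max_left _ _)) hN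
  have hNc : 8 / γ < N := lt_of_le_of_lt ((le_max_left _ _).trans (le_max_right _ _)) hN
  have hNd : 16 * (Q + |g| + 1) / ε < N :=
    lt_of_le_of_lt ((le_max_right _ _).trans (le_max_right _ _)) hN
  have hNp : (0 : ℝ) < N := by linarith
  have hNn : N ≠ 0 := by
    rintro rfl
    simp at hNp
  have hinv : (0 : ℝ) < 1 / N := by positivity
  set δ : ℝ := min (1 / N) (ε / 16) with hδ
  have hδ0 : 0 < δ := lt_min hinv (by positivity)
  have hδN : δ ≤ 1 / N := min_le_left _ _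
  have hδε : δ ≤ ε / 16 := min_le_right _ _
  have hQN : (Q + |g| + 1) * (3 / N) ≤ 3 * (ε / 16) := by
    rw [div_lt_iff₀ hε] at hNd
    rw [mul_div_assoc', div_le_iff₀ hNp]
    linarith
  have hNγ : 4 / N ≤ γ / 2 := by
    rw [div_lt_iff₀ hγ] at hNc
    rw [div_le_iff₀ hNp]; linarith
  have hNv : v1 + 2 / N ≤ 1 := by
    rw [div_lt_iff₀ hv1'] at hNb
    have : 2 / (N : ℝ) ≤ 1 - v1 := by rw [div_le_iff₀ hNp]; linarith
    linarith
  have hgrid : ∀ᶠ n in (U : Filter ℕ), ∀ j ∈ range (N + 1),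
      ((2 : ℝ) ^ lev n ((j : ℚ) / N) ≤ (2 : ℝ) ^ lev n 0 *
          B.d n ^ (-((((j : ℚ) / N : ℚ) : ℝ) + δ)) ∧
        (2 : ℝ) ^ lev n 0 * B.d n ^ (-((((j : ℚ) / N : ℚ) : ℝ) - δ)) ≤
          (2 : ℝ) ^ lev n ((j : ℚ) / N)) ∧
      (∀ J : ℤ, DMX (alive (I n) (lev n ((j : ℚ) / N)) J) (L n) (zl (lev n ((j : ℚ) / N)) J)
        (rho (lev n ((j : ℚ) / N)))
        (B.d n ^ (-δ) * ampA B A (fun v => g * v) n ((j : ℚ) / N))
        (Rq q (rho (lev n ((j : ℚ) / N)))) (rg.r n) (rg.m0 n)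
        (min (rho (lev n ((j : ℚ) / N))) (rg.m1 n)) (rg.m2 n) (rg.o1 n) (rg.o2 n)) ∧
      ∀ x ∈ I n, (((I n).filter fun y => lc (lev n ((j : ℚ) / N)) y =
        lc (lev n ((j : ℚ) / N)) x).card : ℝ) ≤
        B.d n ^ (-(1 - (((j : ℚ) / N : ℚ) : ℝ)) + (0 * 1 - 0 * (((j : ℚ) / N : ℚ) : ℝ)) - δ) := by
    rw [Filter.eventually_all_finset]
    intro j hj
    have hj1 : (j : ℚ) / N ≤ 1 := by
      rw [div_le_one (by exact_mod_cast Nat.pos_of_ne_zero hNn)]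
      exact_mod_cast Nat.lt_succ_iff.1 (mem_range.1 hj)
    have hj0 : (0 : ℚ) ≤ (j : ℚ) / N := by positivity
    refine (PqG464.pow_lev hM _ hj0 hj1 hδ0).and ((hD _ hj0 hj1 _ hδ0).and ?_)
    filter_upwards [fib_bounds hM _ hj0 hj1 hδ0] with n hn x hx
    convert (hn x hx).2
  obtain ⟨Kc, hK1, hK2, -⟩ := hc
  have hcst : (0 : ℝ) < 16 * (2 * (18432 * 640 ^ Q)) := by positivity
  filter_upwards [hgrid, hK1 δ hδ0, hK2, hM.vpos 0 le_rfl zero_le_one,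
    Qg926.ev_const_le B hcst (show 0 < ε / 4 by positivity),
    Qg926.ev_const_le B (show (0 : ℝ) < 2 by norm_num) (show 0 < γ / 2 by positivity)]
    with n hg hk hk2 hvm h16 h2γ v hv0 hvv1 lv J0 hl1 hl2 χ ψ φ e w' a K s σ ρ1 ρ2 hF hwm hc0 hc1 hc2 hd1' hd2' α β
      hαβ u hu y F hFI hFb
  have hd := B.pos n
  have hd1 := (B.lt n).le
  have hp : ∀ t : ℝ, 0 < B.d n ^ t := fun t => Real.rpow_pos_of_pos hd t
  have hanti : ∀ {s t : ℝ}, s ≤ t → B.d n ^ t ≤ B.d n ^ s := fun hst =>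
    Real.rpow_le_rpow_of_exponent_ge hd hd1 hst
  have hmul : ∀ s t : ℝ, B.d n ^ s * B.d n ^ t = B.d n ^ (s + t) := fun s t =>
    (Real.rpow_add hd s t).symm
  have hAp := hM.Apos n
  -- the grid point
  have hfl1 : (⌊v * N⌋₊ : ℝ) ≤ v * N := Nat.floor_le (by positivity)
  have hfl2 : v * N < ⌊v * N⌋₊ + 1 := Nat.lt_floor_add_one _
  set j : ℕ := ⌊v * N⌋₊ + 2 with hj
  have hjr : (j : ℝ) = (⌊v * N⌋₊ : ℝ) + 2 := by rw [hj]; push_cast; ring
  have hq1 : v + 1 / N ≤ (j : ℝ) / N := by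
    rw [le_div_iff₀ hNp, add_mul, one_div_mul_cancel hNp.ne', hjr]
    linarith
  have hq2 : (j : ℝ) / N ≤ v + 2 / N := by
    rw [div_le_iff₀ hNp, add_mul, div_mul_cancel₀ _ hNp.ne', hjr]
    linarith
  have hjN : j ≤ N := by
    have h1 : (j : ℝ) / N ≤ 1 := by linarith
    rw [div_le_one hNp] at h1
    exact_mod_cast h1
  obtain ⟨⟨g1, g2⟩, g3, g4⟩ := hg j (mem_range.2 (Nat.lt_succ_of_le hjN))
  have ecast : ((((j : ℚ) / N : ℚ)) : ℝ) = (j : ℝ) / N := by push_cast; rfl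
  rw [ecast] at g1 g2
  simp only [ecast] at g4
  set lq : ℕ := lev n ((j : ℚ) / N) with hlq
  set qq : ℝ := (j : ℝ) / N with hqq
  have p0 : (0 : ℝ) < 2 ^ lev n 0 := by positivity
  -- levels
  have hle : lv ≤ lq := by
    have h1 : (2 : ℝ) ^ lv ≤ 2 ^ lq := by
      refine hl2.trans (le_trans ?_ g2)
      exact mul_le_mul_of_nonneg_left (hanti (by linarith)) p0.le
    exact (pow_le_pow_iff_right₀ (by norm_num : (1 : ℝ) < 2)).1 h1
  have hpow : (2 : ℝ) ^ lq = 2 ^ lv * 2 ^ (lq - lv) := by rw [← pow_add, Nat.add_sub_cancel' hle]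
  have hX : (2 : ℝ) ^ (lq - lv) ≤ 2 * B.d n ^ (-(qq + δ - v)) := by
    have h1 : (2 : ℝ) ^ lv * 2 ^ (lq - lv) ≤ (2 : ℝ) ^ lv * (2 * B.d n ^ (-(qq + δ - v))) := by
      rw [← hpow]
      refine g1.trans ?_
      have e1 : B.d n ^ (-(qq + δ)) = B.d n ^ (-v) * B.d n ^ (-(qq + δ - v)) := by
        rw [hmul]; congr 1; ring
      rw [e1, ← mul_assoc, ← mul_assoc]
      exact mul_le_mul_of_nonneg_right (by linarith) (hp _).le
    exact le_of_mul_le_mul_left h1 (by positivity)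
  have hXpos : (0 : ℝ) < 2 ^ (lq - lv) := by positivity
  -- the cap
  have hwm' : 192 * K * w' 1 ≤ rho lq := by
    refine hwm.trans ?_
    have e1 : rho lv = rho lq * 2 ^ (lq - lv) := by
      unfold rho
      rw [hpow]
      field_simp
    rw [e1]
    have h1 : B.d n ^ γ * 2 ^ (lq - lv) ≤ 1 := by
      calc B.d n ^ γ * 2 ^ (lq - lv) ≤ B.d n ^ γ * (2 * B.d n ^ (-(qq + δ - v))) :=
            mul_le_mul_of_nonneg_left hX (hp _).le
        _ = 2 * B.d n ^ (γ - (qq + δ - v)) := by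
            rw [mul_left_comm, hmul]; congr 2
        _ ≤ B.d n ^ (-(γ / 2)) * B.d n ^ (γ / 2) := by
            refine mul_le_mul h2γ (hanti ?_) (hp _).le (hp _).le
            have : 4 / (N : ℝ) = 2 / N + 1 / N + 1 / N := by ring
            linarith
        _ = 1 := by rw [hmul, neg_add_cancel, Real.rpow_zero]
    have h2 := mul_le_mul_of_nonneg_left h1 (rho_pos' lq).le
    calc B.d n ^ γ * (rho lq * 2 ^ (lq - lv)) = rho lq * (B.d n ^ γ * 2 ^ (lq - lv)) := by ring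
      _ ≤ rho lq := by linarith
  -- counts on the family
  set oq : ℝ := B.d n ^ (-(1 - qq) + (0 * 1 - 0 * qq) - δ) with hoq
  have hcc := cell_count (I n) (L n) hle J0 (hp _).le (mul_pos (hp (-δ)) (by
      unfold ampA; exact mul_pos hAp (hp _))).le
    (fun x y z h1 h2 h3 => Rq_nonneg (q := q) (rho_pos' lq) h1 h2 h3)
    (fun x y z x' y' z' h1 h2 h3 h4 h5 h6 => Rq_mono hq (rho_pos' lq) h1 h2 h3 h4 h5 h6)
    (oq := oq) (fun x hx => g4 x hx) g3 hF hc0 (le_min hwm' hc1) hc2 hd1' hd2' hαβ hu y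
  set G := (I n).filter fun j => zc lv j.2 = J0 ∧ ∀ z, zl lv J0 ≤ z → z ≤ zl lv J0 + rho lv →
      Bod χ ψ α β s u y (L n j.1) z with hG
  -- the sample
  have hFG := hk2 F hFI G (filter_subset _ _) (fun i hi j hj h1 h2 =>
    mem_filter.2 ⟨hj, hFb i hi j hj h1 h2⟩)
  have hFG' : (Kc n : ℝ) * (F.card : ℝ) ≤ 16 * (G.card : ℝ) := by exact_mod_cast hFG
  have hKn : (0 : ℝ) < Kc n := by exact_mod_cast hk.1
  -- rewards
  have ha := hF.a0
  have hw2 : 0 < w' 2 := ha.trans_le hF.aw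
  have hw1 : 0 < w' 1 := hw2.trans_le hF.ww
  have hK0 : 0 < K := lt_of_lt_of_le one_pos hF.K1
  have hs := hF.s0
  have hu0 := hF.σ0.trans_le (hu 0).1
  have hu1 := hF.σ0.trans_le (hu 1).1
  have hρv := rho_pos' lv
  have hρq := rho_pos' lq
  have hRq0 : 0 ≤ Rq q (rho lv) a (w' 2) (w' 1) := Rq_nonneg hρv ha.le hw2.le hw1.le
  have hrew : Rq q (rho lq) (256 * K * a) (320 * K * w' 2) (192 * K * w' 1) ≤
      640 ^ Q * K ^ Q * B.d n ^ (-(qq + δ - v) * Q) * Rq q (rho lv) a (w' 2) (w' 1) := by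
    have h1 : Rq q (rho lq) (256 * K * a) (320 * K * w' 2) (192 * K * w' 1) ≤
        Rq q (rho lq) (320 * K * a) (320 * K * w' 2) (320 * K * w' 1) := by
      refine Rq_mono hq hρq (by positivity) (by positivity) (by positivity) ?_ le_rfl ?_
      · have : 0 < K * a := mul_pos hK0 ha
        linarith
      · have : 0 < K * w' 1 := mul_pos hK0 hw1
        linarith
    have e2 : ∀ x : ℝ, 320 * K * x / rho lq = (320 * K * 2 ^ (lq - lv)) * (x / rho lv) := by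
      intro x
      unfold rho
      rw [hpow]
      field_simp
    have h2 := Rq_scale (q := q) (s := 320 * K * 2 ^ (lq - lv)) (ρ := rho lv) (ρ' := rho lq)
      (x := a) (y := w' 2) (z := w' 1) (by positivity) (by positivity) (by positivity)
      (by positivity) (e2 a) (e2 (w' 2)) (e2 (w' 1))
    rw [h2] at h1
    refine h1.trans (mul_le_mul_of_nonneg_right ?_ hRq0)
    calc (320 * K * 2 ^ (lq - lv)) ^ (q 0 + q 1 + q 2)
        ≤ (640 * K * B.d n ^ (-(qq + δ - v))) ^ Q := by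
          refine Real.rpow_le_rpow (by positivity) ?_ hQ0
          have := mul_le_mul_of_nonneg_left hX (by positivity : 0 ≤ 320 * K)
          linarith
      _ = 640 ^ Q * K ^ Q * B.d n ^ (-(qq + δ - v) * Q) := by
          rw [Real.mul_rpow (by positivity) (hp _).le, Real.mul_rpow (by norm_num) hK0.le,
            ← Real.rpow_mul hd.le]
  -- normalisation
  have hN0 : N0Q A vm n ≤ Kc n * B.d n ^ (-(c₀ + δ)) := hk.2.1
  have hN0' : N0Q A vm n = A n * vm n 0 := rfl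
  rw [hN0'] at hN0
  set X : ℝ := (s * (u 0 * u 1)) * (a * w' 2 * w' 1 * Rq q (rho lv) a (w' 2) (w' 1)) with hXd
  have hX0 : 0 ≤ X := by positivity
  have hexp : -(c₀ + g * v + (1 - v)) - 3 * (ε / 4) ≤
      -(c₀ + δ) + (-(qq + δ - v) + ((-(1 - qq) + (0 * 1 - 0 * qq) - δ) + (-δ +
        (-(g * qq) + -(qq + δ - v) * Q)))) := by
    have e3 : 3 / (N : ℝ) = 3 * (1 / N) := by ring
    have e2 : 2 / (N : ℝ) = 2 * (1 / N) := by ring
    rw [e3] at hQN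
    rw [e2] at hq2
    exact hexp_aux hε hQ0 hinv hq1 hq2 hδN hδε hQN
  have hG1 : (G.card : ℝ) ≤ (2 * B.d n ^ (-(qq + δ - v))) * (oq * (18432 * K ^ 3 *
      (B.d n ^ (-δ) * (A n * B.d n ^ (-(g * qq)))) * (s * (u 0 * u 1)) *
      (a * w' 2 * w' 1 * (640 ^ Q * K ^ Q * B.d n ^ (-(qq + δ - v) * Q) *
        Rq q (rho lv) a (w' 2) (w' 1))))) := by
    refine hcc.trans ?_
    have e1 : ampA B A (fun v => g * v) n ((j : ℚ) / N) = A n * B.d n ^ (-(g * qq)) := by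
      unfold ampA; rw [ecast]
    rw [e1]
    have h1 := Rq_nonneg (q := q) hρq (x := 256 * K * a) (y := 320 * K * w' 2)
      (z := 192 * K * w' 1) (by positivity) (by positivity) (by positivity)
    have h2 := hp (-δ)
    have h3 := hp (-(g * qq))
    have h4 : 0 < oq := hp _
    gcongr
  have hfin : (Kc n : ℝ) * (F.card : ℝ) ≤ Kc n * (B.d n ^ (-ε) * (K ^ 3 * K ^ Q) *
        (B.d n ^ (-(c₀ + g * v + (1 - v))) / vm n 0) * X) := by
    refine hFG'.trans ((mul_le_mul_of_nonneg_left hG1 (by norm_num)).trans ?_)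
    have hQp : (0 : ℝ) < 640 ^ Q := by positivity
    have hKQ : 0 < K ^ Q := Real.rpow_pos_of_pos hK0 _
    -- collect the powers
    have e1 : 16 * ((2 * B.d n ^ (-(qq + δ - v))) * (oq * (18432 * K ^ 3 *
      (B.d n ^ (-δ) * (A n * B.d n ^ (-(g * qq)))) * (s * (u 0 * u 1)) *
      (a * w' 2 * w' 1 * (640 ^ Q * K ^ Q * B.d n ^ (-(qq + δ - v) * Q) *
        Rq q (rho lv) a (w' 2) (w' 1)))))) =
        (16 * (2 * (18432 * 640 ^ Q))) * (K ^ 3 * K ^ Q) * A n * X *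
          (B.d n ^ (-(qq + δ - v)) * (oq * (B.d n ^ (-δ) * (B.d n ^ (-(g * qq)) *
            B.d n ^ (-(qq + δ - v) * Q))))) := by
      rw [hXd]; ring
    rw [e1, hoq, hmul, hmul, hmul, hmul]
    set t1 : ℝ := -(qq + δ - v) + ((-(1 - qq) + (0 * 1 - 0 * qq) - δ) + (-δ +
        (-(g * qq) + -(qq + δ - v) * Q))) with ht1
    have h5 : A n ≤ Kc n * B.d n ^ (-(c₀ + δ)) / vm n 0 := by
      rw [le_div_iff₀ hvm]; exact hN0
    calc (16 * (2 * (18432 * 640 ^ Q))) * (K ^ 3 * K ^ Q) * A n * X * B.d n ^ t1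
        ≤ B.d n ^ (-(ε / 4)) * (K ^ 3 * K ^ Q) * (Kc n * B.d n ^ (-(c₀ + δ)) / vm n 0) * X *
            B.d n ^ t1 := by
          have := hp t1
          gcongr
      _ = Kc n * ((K ^ 3 * K ^ Q) * (1 / vm n 0) * X) *
            (B.d n ^ (-(ε / 4)) * (B.d n ^ (-(c₀ + δ)) * B.d n ^ t1)) := by ring
      _ ≤ Kc n * ((K ^ 3 * K ^ Q) * (1 / vm n 0) * X) *
            (B.d n ^ (-ε) * B.d n ^ (-(c₀ + g * v + (1 - v)))) := by
          refine mul_le_mul_of_nonneg_left ?_ (by positivity)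
          rw [hmul, hmul, hmul]
          exact hanti (by linarith)
      _ = _ := by ring
  have := le_of_mul_le_mul_left hfin hKn
  refine this.trans (le_of_eq ?_)
  rw [hXd]; ring

/-- **D-max of the sample for bodies**, one sub-polynomial constant -/
theorem exists_body (hM : MkA B I G lev A (fun v => g * v) (fun v => 0 * v) τ f b vm w)
    (hD : ∀ v : ℚ, 0 ≤ v → v ≤ 1 → ∀ ε : ℝ, 0 < ε → ∀ᶠ n in (U : Filter ℕ), ∀ J : ℤ,
      DMX (alive (I n) (lev n v) J) (L n) (zl (lev n v) J) (rho (lev n v))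
        (B.d n ^ (-ε) * ampA B A (fun v => g * v) n v) (Rq q (rho (lev n v))) (rg.r n) (rg.m0 n)
        (min (rho (lev n v)) (rg.m1 n)) (rg.m2 n) (rg.o1 n) (rg.o2 n))
    (hc : CombQ B I I1 lev co M C R (N0Q A vm) c₀) (hq : ∀ j, 0 ≤ q j) {v1 γ : ℝ} (hv1 : v1 < 1)
    (hγ : 0 < γ) : ∃ S : ℕ → ℝ, B.Sub S ∧ ∀ᶠ n in (U : Filter ℕ),
      BodyP B I I1 L rg q lev g vm co M C R c₀ v1 γ (S n) n := by
  obtain ⟨e, -, h1, h2⟩ := exists_err B (fun ε n =>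
    BodyP B I I1 L rg q lev g vm co M C R c₀ v1 γ (B.d n ^ (-ε)) n)
    (fun ε hε => body_eps hM hD hc hq hv1 hγ hε)
  exact ⟨_, h1, h2⟩

end

end Crest.Agent.R136.Lab926
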