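import Crest.Agent.R136.Lab2_544

/-!
# R136: END-LAB, counts of incidences, any bound for planks (helper926)

`lab_inc` : 544's `lab_gam` in terms of incidences (`lab_fin` with the number of incidences of the
family in a rotated plank as hypothesis).
-/

set_option autoImplicit false
set_option linter.unusedVariables false
set_option linter.unusedSectionVars false

namespace Crest.Agent.R136.Lab926

open Finset
open Crest.Agent.R138.Tub70 (KM32)
open Crest.Agent.R138.Mk163 (zc zl rho alive own)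
open Crest.Agent.R136.Sh605
open Crest.Agent.R136.Lab544 (lab_gam)

open Classical in
/-- **END-LAB, incidences, any bound `P` for planks** -/
theorem lab_inc (hKM : ∀ V : ℝ, KM32 V) {ε : ℝ} (hε : 0 < ε) :
    ∃ κ : ℝ, ∃ M₀ : ℕ, 0 < κ ∧ ∀ (F : Finset (ℕ × ℝ)) (L : ℕ → Ln4) (ψ : Fin 2 → V3) (c : Ln4)
      (i M : ℕ) (J0 : ℤ) (K nn m P : ℝ), F.Nonempty → M₀ ≤ M →
      1 ≤ K → K ≤ (2 : ℝ) ^ (κ * M) → 0 < nn → 0 ≤ P →
      (∀ x ∈ F, zc i x.2 = J0) →
      (∀ x ∈ F, ∀ z, zl i J0 ≤ z → z ≤ zl i J0 + rho i →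
        ∀ j, |dt (ψ j) ((L x.1).pos z - c.pos z)| ≤ 1) →
      -- own counts
      (∀ x ∈ F, nn ≤ K * ((F.filter fun y => y.1 = x.1).card : ℝ)) →
      (∀ x ∈ F, ((F.filter fun y => y.1 = x.1 ∧ zc (i + M + 1) y.2 = zc (i + M + 1) x.2).card : ℝ)
        ≤ K * (nn / 2 ^ (M + 1))) →
      -- rich
      (∀ x ∈ F, m ≤ K * ((F.filter fun y => zc (i + M + 1) y.2 = zc (i + M + 1) x.2 ∧
        ∀ j, |dt (ψ j) ((L y.1).pos x.2 - (L x.1).pos x.2)| ≤ 1 / 2 / 2 ^ M).card : ℝ)) →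
      -- planks
      (∀ x ∈ F, ∀ α β : ℝ, α ^ 2 + β ^ 2 = 1 → ∀ u : Fin 2 → ℝ,
        (∀ j, 1 / (2 : ℝ) ^ M ≤ u j ∧ u j ≤ 1) →
        ((F.filter fun y => ∀ z, zl i J0 ≤ z → z ≤ zl i J0 + rho i →
          |α * dt (ψ 0) ((L y.1).pos z - (L x.1).pos z) +
            β * dt (ψ 1) ((L y.1).pos z - (L x.1).pos z)| ≤ 16 * u 0 ∧
          |-β * dt (ψ 0) ((L y.1).pos z - (L x.1).pos z) +
            α * dt (ψ 1) ((L y.1).pos z - (L x.1).pos z)| ≤ 16 * u 1).card : ℝ) ≤
          P * (u 0 * u 1)) →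
      m * 2 ^ (3 * M) ≤ (2 : ℝ) ^ (ε * M) * P := by
  obtain ⟨κ, M₀, hκ, key⟩ := lab_gam hKM (half_pos hε)
  set κ' := min (κ / 2) (ε / 8) with hκ'
  have hκ'0 : 0 < κ' := by rw [hκ']; exact lt_min (by positivity) (by positivity)
  refine ⟨κ', M₀, hκ'0, ?_⟩
  intro F L ψ c i M J0 K nn m P hF hM hK1 hK hnn hP hJ hbd hown hup hrich hplank
  have hK0 : 0 < K := by linarith
  have hM0 : (0 : ℝ) ≤ M := Nat.cast_nonneg _
  have hK2 : K ^ 2 ≤ (2 : ℝ) ^ (κ * M) := by
    calc K ^ 2 ≤ ((2 : ℝ) ^ (κ' * M)) ^ 2 := by gcongr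
      _ = (2 : ℝ) ^ (2 * κ' * M) := by
        rw [← Real.rpow_natCast, ← Real.rpow_mul (by norm_num)]
        congr 1; push_cast; ring
      _ ≤ (2 : ℝ) ^ (κ * M) := by
        refine Real.rpow_le_rpow_of_exponent_le (by norm_num) ?_
        have : κ' ≤ κ / 2 := min_le_left _ _
        nlinarith
  have hK3 : K ^ 3 ≤ (2 : ℝ) ^ (ε / 2 * M) := by
    calc K ^ 3 ≤ ((2 : ℝ) ^ (κ' * M)) ^ 3 := by gcongr
      _ = (2 : ℝ) ^ (3 * κ' * M) := by
        rw [← Real.rpow_natCast, ← Real.rpow_mul (by norm_num)]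
        congr 1; push_cast; ring
      _ ≤ (2 : ℝ) ^ (ε / 2 * M) := by
        refine Real.rpow_le_rpow_of_exponent_le (by norm_num) ?_
        have : κ' ≤ ε / 8 := min_le_right _ _
        nlinarith
  -- own count of cells
  have hcellown : ∀ x ∈ F, (2 : ℝ) ^ ((M : ℝ) - κ * M) ≤ ((own F i (i + M + 1) x).card : ℝ) := by
    intro x hx
    have hfil : (F.filter fun y => y.1 = x.1 ∧ zc i y.2 = zc i x.2) =
        F.filter fun y => y.1 = x.1 := by
      refine filter_congr fun y hy => ?_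
      rw [hJ y hy, hJ x hx]; simp
    have h1 := End882.own_card F i (i + M + 1) x hK0 (s := nn) (t := nn / 2 ^ (M + 1))
      (by positivity) (by rw [hfil]; exact hown x hx) hup
    have h2 : (2 : ℝ) ^ (M + 1) ≤ K ^ 2 * ((own F i (i + M + 1) x).card : ℝ) := by
      have h3 : 0 < nn / 2 ^ (M + 1) := by positivity
      refine le_of_mul_le_mul_left ?_ h3
      calc nn / 2 ^ (M + 1) * 2 ^ (M + 1) = nn := by field_simp
        _ ≤ K ^ 2 * (nn / 2 ^ (M + 1)) * ((own F i (i + M + 1) x).card : ℝ) := h1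
        _ = _ := by ring
    have h3 : (2 : ℝ) ^ (M : ℝ) ≤ (2 : ℝ) ^ (κ * M) * ((own F i (i + M + 1) x).card : ℝ) := by
      calc (2 : ℝ) ^ (M : ℝ) = 2 ^ M := Real.rpow_natCast _ _
        _ ≤ 2 ^ (M + 1) := pow_le_pow_right₀ (by norm_num) (by omega)
        _ ≤ K ^ 2 * ((own F i (i + M + 1) x).card : ℝ) := h2
        _ ≤ _ := by gcongr
    rw [Real.rpow_sub (by norm_num), div_le_iff₀ (by positivity), mul_comm]
    exact h3
  -- the multiplicity
  set m' : ℝ := m * 2 ^ (M + 1) / (K ^ 2 * nn) with hm'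
  have hmain := key F L ψ c i M J0 m' (K * P / nn) hF hM hJ hbd hcellown ?_ ?_
  · -- conclusion
    rw [hm', div_mul_eq_mul_div, div_le_iff₀ (by positivity)] at hmain
    have e1 : (2:ℝ) ^ (M + 1) * 2 ^ (2 * M) = 2 * 2 ^ (3 * M) := by
      rw [← pow_add, ← pow_succ']; congr 1; omega
    have h5 : m * 2 ^ (3 * M) * 2 ≤
        ((2:ℝ) ^ (ε / 2 * M) * (K * P / nn)) * (K ^ 2 * nn) := by
      refine le_trans (le_of_eq ?_) hmain
      calc m * 2 ^ (3 * M) * 2 = m * (2 * 2 ^ (3 * M)) := by ring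
        _ = m * (2 ^ (M + 1) * 2 ^ (2 * M)) := by rw [e1]
        _ = _ := by ring
    have e2 : ((2:ℝ) ^ (ε / 2 * M) * (K * P / nn)) * (K ^ 2 * nn) =
        (2:ℝ) ^ (ε / 2 * M) * (K ^ 3 * P) := by
      field_simp
    rw [e2] at h5
    have h6 : (2:ℝ) ^ (ε / 2 * M) * (K ^ 3 * P) ≤ (2:ℝ) ^ (ε * M) * P := by
      calc (2:ℝ) ^ (ε / 2 * M) * (K ^ 3 * P) ≤
          (2:ℝ) ^ (ε / 2 * M) * ((2:ℝ) ^ (ε / 2 * M) * P) := by gcongr
        _ = ((2:ℝ) ^ (ε / 2 * M) * (2:ℝ) ^ (ε / 2 * M)) * P := by ring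
        _ = (2:ℝ) ^ (ε * M) * P := by
            rw [← Real.rpow_add (by norm_num)]
            congr 2; ring
    have h7 : 0 ≤ (2:ℝ) ^ (ε * M) * P := by positivity
    linarith
  · -- rich
    intro x hx
    refine ⟨x.2, rfl, ?_⟩
    have h1 := hrich x hx
    set G := F.filter fun y => zc (i + M + 1) y.2 = zc (i + M + 1) x.2 ∧
        ∀ j, |dt (ψ j) ((L y.1).pos x.2 - (L x.1).pos x.2)| ≤ 1 / 2 / 2 ^ M with hG
    set A := (alive F (i + M + 1) (zc (i + M + 1) x.2)).filter fun t =>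
          ∀ j, |dt (ψ j) ((L t).pos x.2 - (L x.1).pos x.2)| ≤ 1 / 2 / 2 ^ M with hA
    have h2 : (G.card : ℝ) ≤ A.card * (K * (nn / 2 ^ (M + 1))) := by
      have h3 : G.card = ∑ t ∈ A, (G.filter fun y => y.1 = t).card :=
        card_eq_sum_card_fiberwise (f := Prod.fst) (t := A) fun y hy => by
          have hy' : y ∈ G := hy
          rw [hG, mem_filter] at hy'
          change y.1 ∈ A
          rw [hA, mem_filter]
          refine ⟨?_, hy'.2.2⟩
          unfold alive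
          exact mem_image.2 ⟨y, mem_filter.2 ⟨hy'.1, hy'.2.1⟩, rfl⟩
      have h4 : ∀ t ∈ A, ((G.filter fun y => y.1 = t).card : ℝ) ≤ K * (nn / 2 ^ (M + 1)) := by
        intro t ht
        rw [hA, mem_filter] at ht
        have ht1 := ht.1
        unfold alive at ht1
        obtain ⟨y, hy, hyt⟩ := mem_image.1 ht1
        rw [mem_filter] at hy
        refine le_trans (Nat.cast_le.2 (card_le_card fun y' hy' => ?_)) (hup y hy.1)
        rw [mem_filter, hG, mem_filter] at hy'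
        rw [mem_filter]
        exact ⟨hy'.1.1, hy'.2.trans hyt.symm, hy'.1.2.1.trans hy.2.symm⟩
      rw [h3]; push_cast
      calc ∑ t ∈ A, ((G.filter fun y => y.1 = t).card : ℝ) ≤ ∑ t ∈ A, K * (nn / 2 ^ (M + 1)) :=
            sum_le_sum h4
        _ = _ := by rw [sum_const, nsmul_eq_mul]
    rw [hm', div_le_iff₀ (by positivity)]
    have h5 : m * 2 ^ (M + 1) ≤ (K * (A.card * (K * (nn / 2 ^ (M + 1))))) * 2 ^ (M + 1) := by
      have : m ≤ K * (A.card * (K * (nn / 2 ^ (M + 1)))) := h1.trans (by gcongr)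
      gcongr
    refine h5.trans (le_of_eq ?_)
    field_simp
  · -- planks
    intro x hx α β hαβ u hu
    have h1 := hplank x hx α β hαβ u hu
    set G := F.filter fun y => ∀ z, zl i J0 ≤ z → z ≤ zl i J0 + rho i →
          |α * dt (ψ 0) ((L y.1).pos z - (L x.1).pos z) +
            β * dt (ψ 1) ((L y.1).pos z - (L x.1).pos z)| ≤ 16 * u 0 ∧
          |-β * dt (ψ 0) ((L y.1).pos z - (L x.1).pos z) +
            α * dt (ψ 1) ((L y.1).pos z - (L x.1).pos z)| ≤ 16 * u 1 with hG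
    set TG := (F.image Prod.fst).filter fun t => ∀ z, zl i J0 ≤ z → z ≤ zl i J0 + rho i →
          |α * dt (ψ 0) ((L t).pos z - (L x.1).pos z) +
            β * dt (ψ 1) ((L t).pos z - (L x.1).pos z)| ≤ 16 * u 0 ∧
          |-β * dt (ψ 0) ((L t).pos z - (L x.1).pos z) +
            α * dt (ψ 1) ((L t).pos z - (L x.1).pos z)| ≤ 16 * u 1 with hTG
    have h2 : nn * (TG.card : ℝ) ≤ K * (G.card : ℝ) := by
      have h3 : G.card = ∑ t ∈ TG, (G.filter fun y => y.1 = t).card :=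
        card_eq_sum_card_fiberwise (f := Prod.fst) (t := TG) fun y hy => by
          have hy' : y ∈ G := hy
          rw [hG, mem_filter] at hy'
          change y.1 ∈ TG
          rw [hTG, mem_filter]
          exact ⟨mem_image_of_mem _ hy'.1, hy'.2⟩
      have h4 : ∀ t ∈ TG, nn ≤ K * ((G.filter fun y => y.1 = t).card : ℝ) := by
        intro t ht
        rw [hTG, mem_filter, mem_image] at ht
        obtain ⟨⟨y, hy, hyt⟩, ht2⟩ := ht
        have h5 := hown y hy
        have h6 : (F.filter fun y' => y'.1 = y.1) ⊆ G.filter fun y' => y'.1 = t := by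
          intro y' hy'
          rw [mem_filter] at hy'
          rw [mem_filter, hG, mem_filter]
          refine ⟨⟨hy'.1, ?_⟩, hy'.2.trans hyt⟩
          rw [hy'.2, hyt]; exact ht2
        refine h5.trans ?_
        have := (Nat.cast_le (α := ℝ)).2 (card_le_card h6)
        gcongr
      calc nn * (TG.card : ℝ) = ∑ t ∈ TG, nn := by rw [sum_const, nsmul_eq_mul, mul_comm]
        _ ≤ ∑ t ∈ TG, K * ((G.filter fun y => y.1 = t).card : ℝ) := sum_le_sum h4
        _ = K * (G.card : ℝ) := by rw [← mul_sum, h3]; push_cast; rfl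
    have h7 : (TG.card : ℝ) ≤ K * P / nn * (u 0 * u 1) := by
      rw [div_mul_eq_mul_div, le_div_iff₀ hnn]
      calc (TG.card : ℝ) * nn = nn * (TG.card : ℝ) := mul_comm _ _
        _ ≤ K * (G.card : ℝ) := h2
        _ ≤ K * (P * (u 0 * u 1)) := by gcongr
        _ = _ := by ring
    exact h7

end Crest.Agent.R136.Lab926
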