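import Crest.Agent.R136.LabD_926
import Crest.Agent.R136.GD2_186

/-!
# R136: END-LAB, geometry of one flag (helper371, literals of helper926)

`fn1 fn2 fn3` : the normalised functionals of a flag; `gχ gψ gφ` : slab, plank and dual basis of a
body; `frOk_of` : the frame data; `dt_fn`, `dt_fnv` : exact values on the difference of two lines in
terms of the relative coordinates of the scaled chart.
-/

set_option autoImplicit false
set_option linter.unusedVariables false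

namespace Crest.Agent.R136.Lab926

open Crest.Agent.R136.Sh605
open Crest.Agent.R136.NetQ186
open Crest.Agent.R136.GeoQ186
open Crest.Agent.R136.HR829 (Wd)
open Crest.Agent.R136.Lab544 (Dual)

noncomputable def fn1 (π : Equiv.Perm (Fin 3)) (W1 : ℝ) : V3 := pv π.symm ![0, 1 / W1, 0]
noncomputable def fn2 (π : Equiv.Perm (Fin 3)) (e W2 : ℝ) : V3 := pv π.symm ![0, -e / W2, 1 / W2]
noncomputable def fn3 (π : Equiv.Perm (Fin 3)) (fa fb a : ℝ) : V3 :=
  pv π.symm ![1 / a, -fa / a, -fb / a]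
noncomputable def gχ (π : Equiv.Perm (Fin 3)) (e fa fb W1 W2 a α β K : ℝ) : V3 :=
  (1 / K) • (fn3 π fa fb a - α • fn1 π W1 - β • fn2 π e W2)
noncomputable def gψ (π : Equiv.Perm (Fin 3)) (e W1 W2 K : ℝ) : Fin 2 → V3 :=
  ![(1 / K) • fn1 π W1, (1 / K) • fn2 π e W2]
noncomputable def gφ (π : Equiv.Perm (Fin 3)) (e fa fb W1 W2 a α β K : ℝ) : Fin 3 → V3 :=
  ![K • pv π.symm ![a, 0, 0],
    K • (pv π.symm ![W1 * (fa + fb * e), W1, W1 * e] + α • pv π.symm ![a, 0, 0]),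
    K • (pv π.symm ![W2 * fb, 0, W2] + β • pv π.symm ![a, 0, 0])]

/-! ### values -/

theorem pvs_apply (π : Equiv.Perm (Fin 3)) (x : V3) (k : Fin 3) : pv π.symm x (π k) = x k := by
  simp [pv]

theorem ext_perm (π : Equiv.Perm (Fin 3)) {x y : V3} (h : ∀ k, x (π k) = y (π k)) : x = y := by
  funext j
  obtain ⟨k, rfl⟩ := π.surjective j
  exact h k

theorem dt_fn1 (π : Equiv.Perm (Fin 3)) (W1 : ℝ) (x : V3) : dt (fn1 π W1) x = x (π 1) / W1 := by
  rw [fn1, dt_pvs]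
  simp only [dt, pv, Matrix.cons_val]
  ring

theorem dt_fn2 (π : Equiv.Perm (Fin 3)) (e W2 : ℝ) (x : V3) :
    dt (fn2 π e W2) x = (x (π 2) - e * x (π 1)) / W2 := by
  rw [fn2, dt_pvs]
  simp only [dt, pv, Matrix.cons_val]
  ring

theorem dt_fn3 (π : Equiv.Perm (Fin 3)) (fa fb a : ℝ) (x : V3) :
    dt (fn3 π fa fb a) x = (x (π 0) - fa * x (π 1) - fb * x (π 2)) / a := by
  rw [fn3, dt_pvs]
  simp only [dt, pv, Matrix.cons_val]
  ring

theorem sub_dt (x y z : V3) : dt (x - y) z = dt x z - dt y z := by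
  simp only [dt, Pi.sub_apply]; ring

theorem smul_dt' (x y : V3) (c : ℝ) : dt (c • x) y = c * dt x y := by
  simp only [dt, Pi.smul_apply, smul_eq_mul]; ring

theorem pv_smul (π : Equiv.Perm (Fin 3)) (c : ℝ) (x : V3) : pv π (c • x) = c • pv π x := rfl
theorem pv_add (π : Equiv.Perm (Fin 3)) (x y : V3) : pv π (x + y) = pv π x + pv π y := rfl

/-- the dual basis -/
theorem dual_g {π : Equiv.Perm (Fin 3)} {e fa fb W1 W2 a α β K : ℝ} (hW1 : 0 < W1) (hW2 : 0 < W2)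
    (ha : 0 < a) (hK : 0 < K) :
    Dual (gχ π e fa fb W1 W2 a α β K) (gψ π e W1 W2 K) (gφ π e fa fb W1 W2 a α β K) := by
  intro δ
  have hK' := hK.ne'
  have h1' := hW1.ne'
  have h2' := hW2.ne'
  have ha' := ha.ne'
  have e0 : dt (gχ π e fa fb W1 W2 a α β K) δ =
      1 / K * ((δ (π 0) - fa * δ (π 1) - fb * δ (π 2)) / a - α * (δ (π 1) / W1) -
        β * ((δ (π 2) - e * δ (π 1)) / W2)) := by
    rw [gχ, smul_dt', sub_dt, sub_dt, smul_dt', smul_dt', dt_fn1, dt_fn2, dt_fn3]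
  have e1 : dt (gψ π e W1 W2 K 0) δ = 1 / K * (δ (π 1) / W1) := by
    show dt ((1 / K) • fn1 π W1) δ = _
    rw [smul_dt', dt_fn1]
  have e2 : dt (gψ π e W1 W2 K 1) δ = 1 / K * ((δ (π 2) - e * δ (π 1)) / W2) := by
    show dt ((1 / K) • fn2 π e W2) δ = _
    rw [smul_dt', dt_fn2]
  rw [e0, e1, e2]
  refine ext_perm π fun k => ?_
  simp only [gφ, Matrix.cons_val, Pi.add_apply, Pi.smul_apply, smul_eq_mul, pvs_apply]
  fin_cases k
  · simp only [Fin.zero_eta, Fin.isValue, Matrix.cons_val]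
    field_simp
    ring
  · simp only [Fin.mk_one, Fin.isValue, Matrix.cons_val]
    field_simp
    ring
  · simp only [Fin.reduceFinMk, Fin.isValue, Matrix.cons_val]
    field_simp
    ring

/-- the frame against the dual basis -/
theorem fr_g {π : Equiv.Perm (Fin 3)} {e fa fb W1 W2 a α β K S : ℝ} (he : |e| ≤ 1)
    (hfa : |fa| ≤ 1) (hfb : |fb| ≤ 1) (hW1 : 0 < W1) (hW2 : 0 < W2) (ha : 0 < a) (hS : 1 ≤ S)
    (h1 : a ≤ S * W2) (h2 : W2 ≤ S * W1) (hK : 0 < K) (i k : Fin 3) :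
    |dt (fpv π (fr fa fb e) i) (gφ π e fa fb W1 W2 a α β K k)| ≤
      K * (5 + |α| + |β|) * Wd a ![0, S ^ 2 * W1, S * W2] i := by
  have hS0 : 0 < S := by linarith
  have hA := fr_adm (Fa := fa) (Fb := fb) (E := e) π hfa hfb he
  have hu : ∀ i k, |fr fa fb e i k| ≤ 1 := by
    intro i k
    have h := hA.le_one i (π k)
    have e1 : fpv π (fr fa fb e) i (π k) = fr fa fb e i k := by simp [fpv, pv]
    rwa [e1] at h
  have p1 := (frn_pos fa fb).ne'
  have p2 := (frm1_pos fa fb e).ne'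
  -- the products with the basis
  have b0 : ∀ i, |dt (fr fa fb e i) ![a, 0, 0]| ≤ a := by
    intro i
    have e1 : dt (fr fa fb e i) ![a, 0, 0] = fr fa fb e i 0 * a := by
      simp only [dt, Matrix.cons_val]; ring
    rw [e1, abs_mul, abs_of_pos ha]
    exact mul_le_of_le_one_left ha.le (hu i 0)
  have b1 : ∀ i, |dt (fr fa fb e i) ![W1 * (fa + fb * e), W1, W1 * e]| ≤ 4 * W1 := by
    intro i
    have e1 : dt (fr fa fb e i) ![W1 * (fa + fb * e), W1, W1 * e] =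
        W1 * (fr fa fb e i 0 * (fa + fb * e) + fr fa fb e i 1 + fr fa fb e i 2 * e) := by
      simp only [dt, Matrix.cons_val]; ring
    rw [e1, abs_mul, abs_of_pos hW1]
    have := aux_a2 (aux_a2 (aux_m2 (hu i 0) (aux_a2 hfa (aux_m2 hfb he))) (hu i 1))
      (aux_m2 (hu i 2) he)
    nlinarith
  have b2 : ∀ i, |dt (fr fa fb e i) ![W2 * fb, 0, W2]| ≤ 2 * W2 := by
    intro i
    have e1 : dt (fr fa fb e i) ![W2 * fb, 0, W2] =
        W2 * (fr fa fb e i 0 * fb + fr fa fb e i 2) := by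
      simp only [dt, Matrix.cons_val]; ring
    rw [e1, abs_mul, abs_of_pos hW2]
    have := aux_a2 (aux_m2 (hu i 0) hfb) (hu i 2)
    nlinarith
  have c01 : dt (fr fa fb e 0) ![W1 * (fa + fb * e), W1, W1 * e] = 0 := by
    simp only [dt, fr, Matrix.cons_val]
    field_simp
    ring
  have c02 : dt (fr fa fb e 0) ![W2 * fb, 0, W2] = 0 := by
    simp only [dt, fr, Matrix.cons_val]
    field_simp
    ring
  have c21 : dt (fr fa fb e 2) ![W1 * (fa + fb * e), W1, W1 * e] = 0 := by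
    simp only [dt, fr, Matrix.cons_val]
    field_simp
    ring
  -- the dual basis in the chart
  have g0 : dt (fpv π (fr fa fb e) i) (gφ π e fa fb W1 W2 a α β K 0) =
      K * dt (fr fa fb e i) ![a, 0, 0] := by
    show dt (pv π.symm (fr fa fb e i)) (K • pv π.symm ![a, 0, 0]) = _
    rw [dt_smul, dt_pvs, pv_symm]
  have g1 : dt (fpv π (fr fa fb e) i) (gφ π e fa fb W1 W2 a α β K 1) =
      K * (dt (fr fa fb e i) ![W1 * (fa + fb * e), W1, W1 * e] +
        α * dt (fr fa fb e i) ![a, 0, 0]) := by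
    show dt (pv π.symm (fr fa fb e i))
      (K • (pv π.symm ![W1 * (fa + fb * e), W1, W1 * e] + α • pv π.symm ![a, 0, 0])) = _
    rw [dt_smul, dt_add, dt_smul, dt_pvs, dt_pvs, pv_symm, pv_symm]
  have g2 : dt (fpv π (fr fa fb e) i) (gφ π e fa fb W1 W2 a α β K 2) =
      K * (dt (fr fa fb e i) ![W2 * fb, 0, W2] + β * dt (fr fa fb e i) ![a, 0, 0]) := by
    show dt (pv π.symm (fr fa fb e i))
      (K • (pv π.symm ![W2 * fb, 0, W2] + β • pv π.symm ![a, 0, 0])) = _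
    rw [dt_smul, dt_add, dt_smul, dt_pvs, dt_pvs, pv_symm, pv_symm]
  have hα := abs_nonneg α
  have hβ := abs_nonneg β
  -- widths
  have w1 : a ≤ S ^ 2 * W1 := by nlinarith
  have w2 : W1 ≤ S ^ 2 * W1 := by nlinarith [mul_pos hS0 hS0]
  have w3 : W2 ≤ S ^ 2 * W1 := by nlinarith [mul_pos hS0 hW1]
  have w4 : W2 ≤ S * W2 := by nlinarith
  -- a bound by pieces
  have key : ∀ {X P Q W c : ℝ}, |P| ≤ c * W → |Q| ≤ W → 0 ≤ W → 0 ≤ c → c ≤ 4 →
      ∀ γ : ℝ, |γ| ≤ |α| + |β| → |K * (P + γ * Q)| ≤ K * (5 + |α| + |β|) * W := by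
    intro X P Q W c hP hQ hW hc hc4 γ hγ
    rw [abs_mul, abs_of_pos hK, mul_assoc]
    refine mul_le_mul_of_nonneg_left ?_ hK.le
    have h3 := aux_a2 hP (aux_m2 (le_refl |γ|) hQ)
    have h4 : |γ| * W ≤ (|α| + |β|) * W := mul_le_mul_of_nonneg_right hγ hW
    nlinarith
  have key0 : ∀ {P W c : ℝ}, |P| ≤ c * W → 0 ≤ W → 0 ≤ c → c ≤ 4 →
      |K * P| ≤ K * (5 + |α| + |β|) * W := by
    intro P W c hP hW hc hc4
    have h := key (X := 0) (P := P) (Q := 0) (W := W) (c := c) hP (by simpa using hW) hW hc hc4 0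
      (by simpa using add_nonneg hα hβ)
    simpa using h
  have hγα : |α| ≤ |α| + |β| := by linarith
  have hγβ : |β| ≤ |α| + |β| := by linarith
  have q0 := b0 i
  have q1 := b1 i
  have q2 := b2 i
  have d0 : Wd a ![0, S ^ 2 * W1, S * W2] 0 = a := rfl
  have d1 : Wd a ![0, S ^ 2 * W1, S * W2] 1 = S ^ 2 * W1 := rfl
  have d2 : Wd a ![0, S ^ 2 * W1, S * W2] 2 = S * W2 := rfl
  fin_cases k
  · show |dt (fpv π (fr fa fb e) i) (gφ π e fa fb W1 W2 a α β K 0)| ≤ _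
    rw [g0]
    fin_cases i
    · show _ ≤ K * (5 + |α| + |β|) * Wd a ![0, S ^ 2 * W1, S * W2] 0
      rw [d0]
      exact key0 (c := 1) (by simpa using q0) ha.le zero_le_one (by norm_num)
    · show _ ≤ K * (5 + |α| + |β|) * Wd a ![0, S ^ 2 * W1, S * W2] 1
      rw [d1]
      exact key0 (c := 1) (by simpa using q0.trans w1) (by positivity) zero_le_one (by norm_num)
    · show _ ≤ K * (5 + |α| + |β|) * Wd a ![0, S ^ 2 * W1, S * W2] 2
      rw [d2]
      exact key0 (c := 1) (by simpa using q0.trans h1) (by positivity) zero_le_one (by norm_num)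
  · show |dt (fpv π (fr fa fb e) i) (gφ π e fa fb W1 W2 a α β K 1)| ≤ _
    rw [g1]
    fin_cases i
    · show _ ≤ K * (5 + |α| + |β|) * Wd a ![0, S ^ 2 * W1, S * W2] 0
      rw [d0]
      show |K * (dt (fr fa fb e 0) _ + _)| ≤ _
      rw [c01]
      exact key (X := 0) (c := 0) (by simp) q0 ha.le le_rfl (by norm_num) α hγα
    · show _ ≤ K * (5 + |α| + |β|) * Wd a ![0, S ^ 2 * W1, S * W2] 1
      rw [d1]
      exact key (X := 0) (c := 4) (q1.trans (by linarith)) (q0.trans w1) (by positivity)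
        (by norm_num) le_rfl α hγα
    · show _ ≤ K * (5 + |α| + |β|) * Wd a ![0, S ^ 2 * W1, S * W2] 2
      rw [d2]
      show |K * (dt (fr fa fb e 2) _ + _)| ≤ _
      rw [c21]
      exact key (X := 0) (c := 0) (by simp) (q0.trans h1) (by positivity) le_rfl (by norm_num) α hγα
  · show |dt (fpv π (fr fa fb e) i) (gφ π e fa fb W1 W2 a α β K 2)| ≤ _
    rw [g2]
    fin_cases i
    · show _ ≤ K * (5 + |α| + |β|) * Wd a ![0, S ^ 2 * W1, S * W2] 0
      rw [d0]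
      show |K * (dt (fr fa fb e 0) _ + _)| ≤ _
      rw [c02]
      exact key (X := 0) (c := 0) (by simp) q0 ha.le le_rfl (by norm_num) β hγβ
    · show _ ≤ K * (5 + |α| + |β|) * Wd a ![0, S ^ 2 * W1, S * W2] 1
      rw [d1]
      exact key (X := 0) (c := 2) (q2.trans (by linarith)) (q0.trans w1) (by positivity)
        (by norm_num) (by norm_num) β hγβ
    · show _ ≤ K * (5 + |α| + |β|) * Wd a ![0, S ^ 2 * W1, S * W2] 2
      rw [d2]
      exact key (X := 0) (c := 2) (q2.trans (by linarith)) (q0.trans h1) (by positivity)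
        (by norm_num) (by norm_num) β hγβ

/-- **(G3) the normalised functionals on the frame** -/
theorem fn_fr {π : Equiv.Perm (Fin 3)} {e fa fb W1 W2 a : ℝ} (he : |e| ≤ 1) (hfa : |fa| ≤ 1)
    (hfb : |fb| ≤ 1) (hW1 : 0 < W1) (hW2 : 0 < W2) (ha : 0 < a) :
    dt (fn3 π fa fb a) (fpv π (fr fa fb e) 1) = 0 ∧
    dt (fn3 π fa fb a) (fpv π (fr fa fb e) 2) = 0 ∧
    |dt (fn1 π W1) (fpv π (fr fa fb e) 1)| ≤ 1 / W1 ∧
    |dt (fn1 π W1) (fpv π (fr fa fb e) 2)| ≤ 3 / W1 ∧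
    dt (fn2 π e W2) (fpv π (fr fa fb e) 1) = 0 ∧
    |dt (fn2 π e W2) (fpv π (fr fa fb e) 2)| ≤ 3 / W2 := by
  have p1 := frn_pos fa fb
  have p2 := frm1_pos fa fb e
  have q1 := frn_sq fa fb
  have q2 := frm1_sq fa fb e
  have hv : ∀ i k, fpv π (fr fa fb e) i (π k) = fr fa fb e i k := by
    intro i k; simp [fpv, pv]
  have n1 : 1 ≤ frn fa fb := by
    by_contra h
    push Not at h
    have : frn fa fb ^ 2 < 1 := by nlinarith
    nlinarith [sq_nonneg fa, sq_nonneg fb]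
  have m1 : 1 ≤ frm1 fa fb e := by
    by_contra h
    push Not at h
    have : frm1 fa fb e ^ 2 < 1 := by nlinarith
    nlinarith [sq_nonneg (fa + fb * e), sq_nonneg e]
  have hs : |fa + fb * e| ≤ 2 := by
    have := aux_a2 hfa (aux_m2 hfb he)
    linarith
  have m3 : frm1 fa fb e ≤ 3 := by
    have h1 : (fa + fb * e) ^ 2 ≤ 4 := by
      have := sq_le_sq' (abs_le.1 hs).1 (abs_le.1 hs).2
      linarith
    have h2 : e ^ 2 ≤ 1 := by
      have := sq_le_sq' (abs_le.1 he).1 (abs_le.1 he).2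
      linarith
    by_contra h
    push Not at h
    nlinarith
  have nm : 1 ≤ frn fa fb * frm1 fa fb e := by nlinarith
  have nm0 : 0 < frn fa fb * frm1 fa fb e := by linarith
  refine ⟨?_, ?_, ?_, ?_, ?_, ?_⟩
  · rw [dt_fn3, hv, hv, hv]
    simp only [fr, Matrix.cons_val]
    field_simp
    ring
  · rw [dt_fn3, hv, hv, hv]
    simp only [fr, Matrix.cons_val]
    field_simp
    ring
  · rw [dt_fn1, hv]
    simp only [fr, Matrix.cons_val]
    rw [abs_of_pos (by positivity), div_le_div_iff_of_pos_right hW1, div_le_one p2]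
    exact m1
  · rw [dt_fn1, hv]
    simp only [fr, Matrix.cons_val]
    rw [abs_div, abs_div, abs_of_pos hW1, abs_of_pos nm0, div_le_div_iff_of_pos_right hW1,
      div_le_iff₀ nm0]
    have h1 : |-fb * (fa + fb * e) - e| ≤ 1 * 2 + 1 :=
      aux_s2 (aux_m2 (by rwa [abs_neg]) hs) he
    linarith
  · rw [dt_fn2, hv, hv]
    simp only [fr, Matrix.cons_val]
    field_simp
    ring
  · rw [dt_fn2, hv, hv]
    simp only [fr, Matrix.cons_val]
    have e1 : (1 + fa * (fa + fb * e)) / (frn fa fb * frm1 fa fb e) -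
        e * ((-fb * (fa + fb * e) - e) / (frn fa fb * frm1 fa fb e)) =
        frm1 fa fb e / frn fa fb := by
      have e2 : (1 + fa * (fa + fb * e)) - e * (-fb * (fa + fb * e) - e) =
          frm1 fa fb e ^ 2 := by rw [q2]; ring
      rw [← mul_div_assoc, ← sub_div, e2]
      field_simp
    rw [e1, abs_of_pos (by positivity), div_le_div_iff_of_pos_right hW2, div_le_iff₀ p1]
    linarith

/-- squares of a sum of three bounded numbers -/
theorem sq3_le {x y z b : ℝ} (h : |x| + |y| + |z| ≤ b) : x ^ 2 + y ^ 2 + z ^ 2 ≤ b ^ 2 := by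
  have hx := abs_nonneg x
  have hy := abs_nonneg y
  have hz := abs_nonneg z
  have h1 : (|x| + |y| + |z|) ^ 2 ≤ b ^ 2 := pow_le_pow_left₀ (by positivity) h 2
  have e1 : x ^ 2 + y ^ 2 + z ^ 2 = |x| ^ 2 + |y| ^ 2 + |z| ^ 2 := by simp only [sq_abs]
  rw [e1]
  nlinarith [mul_nonneg hx hy, mul_nonneg hx hz, mul_nonneg hy hz]

/-- **(G1) the frame data of a flag** -/
theorem frOk_of {π : Equiv.Perm (Fin 3)} {e fa fb W1 W2 a α β K S r0 s σ ρ1 ρ2 : ℝ}
    (he : |e| ≤ 1)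
    (hfa : |fa| ≤ 1) (hfb : |fb| ≤ 1) (hW1 : 0 < W1) (hW2 : 0 < W2) (ha : 0 < a) (hS : 1 ≤ S)
    (h1 : a ≤ S * W2) (h2 : W2 ≤ S * W1) (hs : 0 < s) (hs1 : s ≤ 1) (hσ : 0 < σ) (hr : 0 ≤ r0)
    (r1 : r0 ≤ S * a * s) (r2 : r0 ≤ S * W1 * σ) (r3 : r0 ≤ S * W2 * σ)
    (hK : (2 + |α| * S ^ 2 + 2 * |β| * S) * S ≤ K) (hρ1 : 0 ≤ ρ1) (hρ2 : 0 ≤ ρ2)
    (o1 : ρ1 ≤ s * W1) (o1' : ρ1 ≤ σ * W1) (o2 : 2 * ρ2 ≤ s * W2) (o2' : ρ2 ≤ σ * W2) :
    FrOk (gχ π e fa fb W1 W2 a α β K) (gψ π e W1 W2 K) (gφ π e fa fb W1 W2 a α β K)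
      (fpv π (fr fa fb e)) ![0, S ^ 2 * W1, S * W2] a (K * (5 + |α| + |β|)) r0 s σ ρ1 ρ2 := by
  have hS0 : 0 < S := by linarith
  have hα := abs_nonneg α
  have hβ := abs_nonneg β
  have hK2 : 2 * S ≤ K := by
    have : 0 ≤ (|α| * S ^ 2 + 2 * |β| * S) * S := by positivity
    nlinarith
  have hK0 : 0 < K := by linarith
  have hK1 : 1 ≤ K := by linarith
  have hαK : |α| ≤ K := by
    have u1 : 0 ≤ |β| * S * S := by positivity
    have u2 : |α| * 1 ≤ |α| * (S ^ 2 * S) :=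
      mul_le_mul_of_nonneg_left (by nlinarith [pow_le_pow_left₀ zero_le_one hS 2]) hα
    nlinarith
  have hαβK : |α| * S + |β| ≤ K := by
    have u1 : |β| * 1 ≤ |β| * (S * S) := mul_le_mul_of_nonneg_left (by nlinarith) hβ
    have u2 : |α| * S * 1 ≤ |α| * S * (S * S) :=
      mul_le_mul_of_nonneg_left (by nlinarith) (by positivity)
    nlinarith
  obtain ⟨f1, f2, f3, f4, f5, f6⟩ := fn_fr (π := π) he hfa hfb hW1 hW2 ha
  have i12 : 1 / W1 ≤ S / W2 := by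
    rw [div_le_div_iff₀ hW1 hW2]; linarith
  have k1 : |dt (gχ π e fa fb W1 W2 a α β K) (fpv π (fr fa fb e) 1)| ≤ |α| / K * (1 / W1) := by
    have e1 : dt (gχ π e fa fb W1 W2 a α β K) (fpv π (fr fa fb e) 1) =
        -(α / K * dt (fn1 π W1) (fpv π (fr fa fb e) 1)) := by
      rw [gχ, smul_dt', sub_dt, sub_dt, smul_dt', smul_dt', f1, f5]
      ring
    rw [e1, abs_neg, abs_mul, abs_div, abs_of_pos hK0]
    exact mul_le_mul_of_nonneg_left f3 (by positivity)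
  have k2 : |dt (gχ π e fa fb W1 W2 a α β K) (fpv π (fr fa fb e) 2)| ≤
      |α| / K * (3 / W1) + |β| / K * (3 / W2) := by
    have e1 : dt (gχ π e fa fb W1 W2 a α β K) (fpv π (fr fa fb e) 2) =
        -(α / K * dt (fn1 π W1) (fpv π (fr fa fb e) 2) +
          β / K * dt (fn2 π e W2) (fpv π (fr fa fb e) 2)) := by
      rw [gχ, smul_dt', sub_dt, sub_dt, smul_dt', smul_dt', f2]
      ring
    rw [e1, abs_neg]
    refine (abs_add_le _ _).trans ?_
    rw [abs_mul, abs_mul, abs_div, abs_div, abs_of_pos hK0]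
    exact add_le_add (mul_le_mul_of_nonneg_left f4 (by positivity))
      (mul_le_mul_of_nonneg_left f6 (by positivity))
  have k3 : |dt (gψ π e W1 W2 K 0) (fpv π (fr fa fb e) 1)| ≤ 1 / K * (1 / W1) := by
    show |dt ((1 / K) • fn1 π W1) _| ≤ _
    rw [smul_dt', abs_mul, abs_of_pos (by positivity : 0 < 1 / K)]
    exact mul_le_mul_of_nonneg_left f3 (by positivity)
  have k4 : |dt (gψ π e W1 W2 K 0) (fpv π (fr fa fb e) 2)| ≤ 1 / K * (3 / W1) := by
    show |dt ((1 / K) • fn1 π W1) _| ≤ _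
    rw [smul_dt', abs_mul, abs_of_pos (by positivity : 0 < 1 / K)]
    exact mul_le_mul_of_nonneg_left f4 (by positivity)
  have k5 : |dt (gψ π e W1 W2 K 1) (fpv π (fr fa fb e) 1)| ≤ 0 := by
    show |dt ((1 / K) • fn2 π e W2) _| ≤ _
    rw [smul_dt', f5, mul_zero, abs_zero]
  have k6 : |dt (gψ π e W1 W2 K 1) (fpv π (fr fa fb e) 2)| ≤ 1 / K * (3 / W2) := by
    show |dt ((1 / K) • fn2 π e W2) _| ≤ _
    rw [smul_dt', abs_mul, abs_of_pos (by positivity : 0 < 1 / K)]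
    exact mul_le_mul_of_nonneg_left f6 (by positivity)
  have hαK' : |α| / K ≤ 1 := (div_le_one hK0).2 hαK
  have hK1' : 1 / K ≤ 1 := (div_le_one hK0).2 hK1
  have p1 : 0 < 1 / W1 := by positivity
  have p2 : 0 < 1 / W2 := by positivity
  have n1 : |dt (gχ π e fa fb W1 W2 a α β K) (fpv π (fr fa fb e) 1)| ≤ 1 / W1 :=
    k1.trans (mul_le_of_le_one_left p1.le hαK')
  have n2 : |dt (gχ π e fa fb W1 W2 a α β K) (fpv π (fr fa fb e) 1)| +
      |dt (gχ π e fa fb W1 W2 a α β K) (fpv π (fr fa fb e) 2)| ≤ 4 / W2 := by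
    have q1 : |α| / K * (1 / W1) ≤ |α| / K * (S / W2) :=
      mul_le_mul_of_nonneg_left i12 (by positivity)
    have q2 : |α| / K * (1 / W1) + (|α| / K * (3 / W1) + |β| / K * (3 / W2)) =
        4 * (|α| / K * (1 / W1)) + 3 * (|β| / K * (1 / W2)) := by ring
    have q3 : 4 * (|α| / K * (S / W2)) + 4 * (|β| / K * (1 / W2)) =
        (|α| * S + |β|) / K * (4 / W2) := by
      field_simp
    have q4 : (|α| * S + |β|) / K ≤ 1 := (div_le_one hK0).2 hαβK
    have q5 : (|α| * S + |β|) / K * (4 / W2) ≤ 4 / W2 :=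
      mul_le_of_le_one_left (by positivity) q4
    have q6 : 0 ≤ |β| / K * (1 / W2) := by positivity
    linarith
  have n3 : |dt (gψ π e W1 W2 K 0) (fpv π (fr fa fb e) 1)| ≤ 1 / W1 :=
    k3.trans (mul_le_of_le_one_left p1.le hK1')
  have n4 : |dt (gψ π e W1 W2 K 0) (fpv π (fr fa fb e) 1)| +
      |dt (gψ π e W1 W2 K 0) (fpv π (fr fa fb e) 2)| ≤ 4 / W2 := by
    have q1 : 1 / K * (1 / W1) ≤ 1 / K * (S / W2) :=
      mul_le_mul_of_nonneg_left i12 (by positivity)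
    have q2 : 1 / K * (3 / W1) = 3 * (1 / K * (1 / W1)) := by ring
    have q3 : 4 * (1 / K * (S / W2)) = S / K * (4 / W2) := by field_simp
    have q4 : S / K ≤ 1 := (div_le_one hK0).2 (by linarith)
    have q5 : S / K * (4 / W2) ≤ 4 / W2 := mul_le_of_le_one_left (by positivity) q4
    linarith
  have n6 : |dt (gψ π e W1 W2 K 1) (fpv π (fr fa fb e) 2)| ≤ 3 / W2 :=
    k6.trans (mul_le_of_le_one_left (by positivity) hK1')
  have m1 : ∀ {x W ρ t : ℝ}, 0 < W → 0 ≤ ρ → x ≤ 1 / W → ρ ≤ t * W → x * ρ ≤ t := by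
    intro x W ρ t hW hρ hx h
    calc x * ρ ≤ 1 / W * ρ := mul_le_mul_of_nonneg_right hx hρ
      _ ≤ 1 / W * (t * W) := mul_le_mul_of_nonneg_left h (by positivity)
      _ = t := by field_simp
  have lo1 : |dt (gχ π e fa fb W1 W2 a α β K) (fpv π (fr fa fb e) 1)| * ρ1 ≤ 2 * s := by
    have := m1 hW1 hρ1 n1 o1
    linarith
  have lo1' : ∀ j, |dt (gψ π e W1 W2 K j) (fpv π (fr fa fb e) 1)| * ρ1 ≤ 8 * σ := by
    intro j
    fin_cases j
    · have := m1 hW1 hρ1 n3 o1'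
      show |dt (gψ π e W1 W2 K 0) _| * ρ1 ≤ 8 * σ
      linarith
    · have h0 : |dt (gψ π e W1 W2 K 1) (fpv π (fr fa fb e) 1)| * ρ1 ≤ 0 * ρ1 :=
        mul_le_mul_of_nonneg_right k5 hρ1
      show |dt (gψ π e W1 W2 K 1) _| * ρ1 ≤ 8 * σ
      linarith
  have m4 : ∀ {x : ℝ}, x ≤ 4 / W2 → x / 4 ≤ 1 / W2 := fun {x} hx => by
    have : 4 / W2 = 4 * (1 / W2) := by ring
    linarith
  have lo2 : (|dt (gχ π e fa fb W1 W2 a α β K) (fpv π (fr fa fb e) 1)| +
      |dt (gχ π e fa fb W1 W2 a α β K) (fpv π (fr fa fb e) 2)|) * ρ2 ≤ 2 * s := by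
    have := m1 hW2 (by linarith : (0 : ℝ) ≤ 2 * ρ2) (m4 n2) o2
    linarith
  have lo2' : ∀ j, (|dt (gψ π e W1 W2 K j) (fpv π (fr fa fb e) 1)| +
      |dt (gψ π e W1 W2 K j) (fpv π (fr fa fb e) 2)|) * ρ2 ≤ 8 * σ := by
    intro j
    fin_cases j
    · have := m1 hW2 hρ2 (m4 n4) o2'
      show (|dt (gψ π e W1 W2 K 0) _| + |dt (gψ π e W1 W2 K 0) _|) * ρ2 ≤ 8 * σ
      linarith
    · have q1 : |dt (gψ π e W1 W2 K 1) (fpv π (fr fa fb e) 1)| +
          |dt (gψ π e W1 W2 K 1) (fpv π (fr fa fb e) 2)| ≤ 4 / W2 := by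
        have : 3 / W2 ≤ 4 / W2 := div_le_div_of_nonneg_right (by norm_num) hW2.le
        linarith
      have := m1 hW2 hρ2 (m4 q1) o2'
      show (|dt (gψ π e W1 W2 K 1) _| + |dt (gψ π e W1 W2 K 1) _|) * ρ2 ≤ 8 * σ
      linarith
  refine ⟨?_, ha, h1, ?_, dual_g hW1 hW2 ha hK0, ?_,
    fun i k => fr_g he hfa hfb hW1 hW2 ha hS h1 h2 hK0 i k, hs, hs1, hσ, ?_, ?_, hρ1, hρ2,
    lo1, lo1', lo2, lo2'⟩
  · exact (fr_adm (Fa := fa) (Fb := fb) (E := e) π hfa hfb he).ortho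
  · show S * W2 ≤ S ^ 2 * W1
    nlinarith
  · nlinarith
  · -- the normal functional
    set A := r0 / a with hA
    set B1 := r0 / W1 with hB1
    set B2 := r0 / W2 with hB2
    have A0 : 0 ≤ A := by positivity
    have B10 : 0 ≤ B1 := by positivity
    have B20 : 0 ≤ B2 := by positivity
    have hA1 : A ≤ S * s := by
      rw [hA, div_le_iff₀ ha]; linarith
    have hB2' : B2 ≤ S ^ 2 * s := by
      rw [hB2, div_le_iff₀ hW2]
      calc r0 ≤ S * a * s := r1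
        _ ≤ S * (S * W2) * s := by gcongr
        _ = S ^ 2 * s * W2 := by ring
    have hB1' : B1 ≤ S ^ 3 * s := by
      rw [hB1, div_le_iff₀ hW1]
      calc r0 ≤ S * a * s := r1
        _ ≤ S * (S * (S * W1)) * s := by
          have : a ≤ S * (S * W1) := h1.trans (mul_le_mul_of_nonneg_left h2 hS0.le)
          gcongr
        _ = S ^ 3 * s * W1 := by ring
    have eχ : r0 ^ 2 * dt (gχ π e fa fb W1 W2 a α β K) (gχ π e fa fb W1 W2 a α β K) =
        ((A / K) ^ 2 + ((fa * A + α * B1 - β * (e * B2)) / K) ^ 2 +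
          ((fb * A + β * B2) / K) ^ 2) := by
      have e1 : gχ π e fa fb W1 W2 a α β K = pv π.symm
          ![1 / K * (1 / a), 1 / K * (-fa / a - α * (1 / W1) - β * (-e / W2)),
            1 / K * (-fb / a - β * (1 / W2))] := by
        refine ext_perm π fun k => ?_
        simp only [gχ, fn1, fn2, fn3, Pi.sub_apply, Pi.smul_apply, smul_eq_mul, pvs_apply]
        fin_cases k <;>
          simp only [Fin.zero_eta, Fin.mk_one, Fin.reduceFinMk, Fin.isValue, Matrix.cons_val] <;>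
          ring
      rw [e1, dt_pv]
      simp only [dt, Matrix.cons_val, hA, hB1, hB2]
      ring
    rw [eχ]
    refine sq3_le ?_
    have t0 : |A / K| = A / K := abs_of_nonneg (by positivity)
    have t1 : |(fa * A + α * B1 - β * (e * B2)) / K| ≤ (A + |α| * B1 + |β| * B2) / K := by
      rw [abs_div, abs_of_pos hK0]
      refine div_le_div_of_nonneg_right ?_ hK0.le
      have aA : |A| = A := abs_of_nonneg A0
      have aB1 : |B1| = B1 := abs_of_nonneg B10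
      have aB2 : |B2| = B2 := abs_of_nonneg B20
      have := aux_s2 (aux_a2 (aux_m2 hfa (le_of_eq aA)) (aux_m2 (le_refl |α|) (le_of_eq aB1)))
        (aux_m2 (le_refl |β|) (aux_m2 he (le_of_eq aB2)))
      linarith
    have t2 : |(fb * A + β * B2) / K| ≤ (A + |β| * B2) / K := by
      rw [abs_div, abs_of_pos hK0]
      refine div_le_div_of_nonneg_right ?_ hK0.le
      have aA : |A| = A := abs_of_nonneg A0
      have aB2 : |B2| = B2 := abs_of_nonneg B20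
      have := aux_a2 (aux_m2 hfb (le_of_eq aA)) (aux_m2 (le_refl |β|) (le_of_eq aB2))
      linarith
    rw [t0]
    have t3 : A / K + (A + |α| * B1 + |β| * B2) / K + (A + |β| * B2) / K ≤ 2 * s := by
      rw [← add_div, ← add_div, div_le_iff₀ hK0]
      have u1 : |α| * B1 ≤ |α| * (S ^ 3 * s) := mul_le_mul_of_nonneg_left hB1' hα
      have u2 : |β| * B2 ≤ |β| * (S ^ 2 * s) := mul_le_mul_of_nonneg_left hB2' hβ
      have u3 := mul_le_mul_of_nonneg_right hK hs.le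
      have u4 : 0 ≤ |α| * (S ^ 3 * s) := by positivity
      have u5 : 0 ≤ |β| * (S ^ 2 * s) := by positivity
      have u6 : 0 ≤ S * s := by positivity
      nlinarith
    linarith
  · -- the lateral functionals
    have hc : ∀ {x W : ℝ}, 0 < W → r0 ≤ S * W * σ → x ^ 2 ≤ 2 →
        r0 ^ 2 * (1 / K * (1 / K) * (x ^ 2 / W ^ 2)) ≤ (8 * σ) ^ 2 := by
      intro x W hW hrW hx
      have e1 : r0 ^ 2 * (1 / K * (1 / K) * (x ^ 2 / W ^ 2)) = (r0 / (K * W)) ^ 2 * x ^ 2 := by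
        field_simp
      have e2 : r0 / (K * W) ≤ σ := by
        rw [div_le_iff₀ (by positivity)]
        have : S * W * σ ≤ K * W * σ := by
          have : S ≤ K := by linarith
          gcongr
        linarith
      have e3 : 0 ≤ r0 / (K * W) := by positivity
      have e4 : (r0 / (K * W)) ^ 2 ≤ σ ^ 2 := pow_le_pow_left₀ e3 e2 2
      rw [e1]
      nlinarith [sq_nonneg x, sq_nonneg σ, sq_nonneg (r0 / (K * W))]
    intro j
    fin_cases j
    · show r0 ^ 2 * dt ((1 / K) • fn1 π W1) ((1 / K) • fn1 π W1) ≤ _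
      have e1 : dt ((1 / K) • fn1 π W1) ((1 / K) • fn1 π W1) =
          1 / K * (1 / K) * ((1 : ℝ) ^ 2 / W1 ^ 2) := by
        rw [smul_dt', dt_smul, fn1, dt_pv]
        simp only [dt, Matrix.cons_val]
        ring
      rw [e1]
      exact hc hW1 r2 (by norm_num)
    · show r0 ^ 2 * dt ((1 / K) • fn2 π e W2) ((1 / K) • fn2 π e W2) ≤ _
      have e0 : Real.sqrt (1 + e ^ 2) ^ 2 = 1 + e ^ 2 := Real.sq_sqrt (by positivity)
      have e1 : dt ((1 / K) • fn2 π e W2) ((1 / K) • fn2 π e W2) =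
          1 / K * (1 / K) * (Real.sqrt (1 + e ^ 2) ^ 2 / W2 ^ 2) := by
        rw [smul_dt', dt_smul, fn2, dt_pv, e0]
        simp only [dt, Matrix.cons_val]
        ring
      rw [e1]
      refine hc hW2 r3 ?_
      rw [e0]
      have : e ^ 2 ≤ 1 := by
        rw [← sq_abs]
        exact pow_le_one₀ (abs_nonneg _) he
      linarith

/-! ### relative coordinates -/

/-- natural box -/
structure NatX (X : Fin 11 → ℝ) : Prop where
  h8 : X 8 = X 0 + X 5
  h9 : X 9 = X 0 + X 6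
  h10 : X 10 = X 0 + X 7
  h2 : X 9 = X 8 + X 2
  h3 : X 10 = X 9 + X 3
  h4 : X 10 = X 8 + X 4

/-- relative coordinates of the scaled chart in the units of a box -/
noncomputable abbrev relG (H Wa Wb Wy d : ℝ) (X : Fin 11 → ℝ) (i j : Fq4) (k : Fin 11) : ℝ :=
  coQ (scl H Wa Wb Wy i) (scl H Wa Wb Wy j) k / d ^ X k

theorem relG_eq {H Wa Wb Wy d : ℝ} (hH : 0 < H) (ha : 0 < Wa) (hb : 0 < Wb) (hy : 0 < Wy)
    (X : Fin 11 → ℝ) (i j : Fq4) (k : Fin 11) :
    relG H Wa Wb Wy d X i j k = sfac H Wa Wb Wy k * coQ i j k / d ^ X k := by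
  rw [relG, coQ_scl hH.ne' ha.ne' hb.ne' hy.ne']

section

variable {π : Equiv.Perm (Fin 3)} {H Wa Wb Wy d : ℝ} {X : Fin 11 → ℝ} {tx ty tO : Ln4}
  {zx ex fax fbx zy ey fay fby zo eo fao fbo : ℝ}

/-- the pieces of `dt_fn` for any difference vector `δ` with coefficients `c8 + ζ c5`, .. -/
theorem pieces (hd : 0 < d) (hH : 0 < H) (ha : 0 < Wa) (hb : 0 < Wb) (hy : 0 < Wy) (hX : NatX X)
    (x y o : Fq4) (ζ : ℝ) :
    relG H Wa Wb Wy d X x y 8 + H * ζ / d ^ X 0 * relG H Wa Wb Wy d X x y 5 =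
      (coQ x y 8 + ζ * coQ x y 5) / (Wa / H * d ^ X 8) ∧
    relG H Wa Wb Wy d X x y 9 + H * ζ / d ^ X 0 * relG H Wa Wb Wy d X x y 6 =
      (coQ x y 9 + ζ * coQ x y 6) / (Wb / H * d ^ X 9) ∧
    relG H Wa Wb Wy d X x y 10 + H * ζ / d ^ X 0 * relG H Wa Wb Wy d X x y 7 =
      (coQ x y 10 + ζ * coQ x y 7) / (Wy / H * d ^ X 10) ∧
    (∀ Y, relG H Wa Wb Wy d X o x 2 * (Y / (Wa / H * d ^ X 8)) =
      coQ o x 2 * Y / (Wb / H * d ^ X 9)) ∧
    (∀ Y, relG H Wa Wb Wy d X o x 3 * (Y / (Wb / H * d ^ X 9)) =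
      coQ o x 3 * Y / (Wy / H * d ^ X 10)) ∧
    (∀ Y, relG H Wa Wb Wy d X o x 4 * (Y / (Wa / H * d ^ X 8)) =
      coQ o x 4 * Y / (Wy / H * d ^ X 10)) ∧
    d ^ X 0 / H * (1 / (Wa / H * d ^ X 8)) * coQ x y 5 = relG H Wa Wb Wy d X x y 5 ∧
    d ^ X 0 / H * (1 / (Wb / H * d ^ X 9)) * coQ x y 6 = relG H Wa Wb Wy d X x y 6 ∧
    d ^ X 0 / H * (1 / (Wy / H * d ^ X 10)) * coQ x y 7 = relG H Wa Wb Wy d X x y 7 := by
  have p0 : d ^ X 0 ≠ 0 := (Real.rpow_pos_of_pos hd _).ne'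
  have p2 : d ^ X 2 ≠ 0 := (Real.rpow_pos_of_pos hd _).ne'
  have p3 : d ^ X 3 ≠ 0 := (Real.rpow_pos_of_pos hd _).ne'
  have p4 : d ^ X 4 ≠ 0 := (Real.rpow_pos_of_pos hd _).ne'
  have p5 : d ^ X 5 ≠ 0 := (Real.rpow_pos_of_pos hd _).ne'
  have p6 : d ^ X 6 ≠ 0 := (Real.rpow_pos_of_pos hd _).ne'
  have p7 : d ^ X 7 ≠ 0 := (Real.rpow_pos_of_pos hd _).ne'
  have p8 : d ^ X 8 ≠ 0 := (Real.rpow_pos_of_pos hd _).ne'
  have p9 : d ^ X 9 ≠ 0 := (Real.rpow_pos_of_pos hd _).ne'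
  have p10 : d ^ X 10 ≠ 0 := (Real.rpow_pos_of_pos hd _).ne'
  have q8 : d ^ X 8 = d ^ X 0 * d ^ X 5 := by rw [hX.h8, Real.rpow_add hd]
  have q9 : d ^ X 9 = d ^ X 0 * d ^ X 6 := by rw [hX.h9, Real.rpow_add hd]
  have q10 : d ^ X 10 = d ^ X 0 * d ^ X 7 := by rw [hX.h10, Real.rpow_add hd]
  have q2 : d ^ X 9 = d ^ X 8 * d ^ X 2 := by rw [hX.h2, Real.rpow_add hd]
  have q3 : d ^ X 10 = d ^ X 9 * d ^ X 3 := by rw [hX.h3, Real.rpow_add hd]
  have q4 : d ^ X 10 = d ^ X 8 * d ^ X 4 := by rw [hX.h4, Real.rpow_add hd]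
  have hH' := hH.ne'
  have ha' := ha.ne'
  have hb' := hb.ne'
  have hy' := hy.ne'
  have r : ∀ (i j : Fq4) (k : Fin 11),
      relG H Wa Wb Wy d X i j k = sfac H Wa Wb Wy k * coQ i j k / d ^ X k := fun i j k =>
    relG_eq hH ha hb hy X i j k
  have s2 : sfac H Wa Wb Wy 2 = Wa / Wb := rfl
  have s3 : sfac H Wa Wb Wy 3 = Wb / Wy := rfl
  have s4 : sfac H Wa Wb Wy 4 = Wa / Wy := rfl
  have s5 : sfac H Wa Wb Wy 5 = 1 / Wa := rfl
  have s6 : sfac H Wa Wb Wy 6 = 1 / Wb := rfl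
  have s7 : sfac H Wa Wb Wy 7 = 1 / Wy := rfl
  have s8 : sfac H Wa Wb Wy 8 = H / Wa := rfl
  have s9 : sfac H Wa Wb Wy 9 = H / Wb := rfl
  have s10 : sfac H Wa Wb Wy 10 = H / Wy := rfl
  refine ⟨?_, ?_, ?_, fun Y => ?_, fun Y => ?_, fun Y => ?_, ?_, ?_, ?_⟩
  · rw [r, r, s8, s5, q8]; field_simp
  · rw [r, r, s9, s6, q9]; field_simp
  · rw [r, r, s10, s7, q10]; field_simp
  · rw [r, s2, q2]; field_simp
  · rw [r, s3, q3]; field_simp
  · rw [r, s4, q4]; field_simp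
  · rw [r, s5, q8]; field_simp
  · rw [r, s6, q9]; field_simp
  · rw [r, s7, q10]; field_simp

/-- **(G2) the functionals of the flag of `o` on the difference of two lines** -/
theorem dt_fn (hd : 0 < d) (hH : 0 < H) (ha : 0 < Wa) (hb : 0 < Wb) (hy : 0 < Wy) (hX : NatX X)
    {x y o : Fq4} (hx : x = mkT (cLn π tx) zx ex fax fbx) (hy' : y = mkT (cLn π ty) zy ey fay fby)
    (ho : o = mkT (cLn π tO) zo eo fao fbo) (z : ℝ) :
    dt (fn1 π (Wa / H * d ^ X 8)) (ty.pos z - tx.pos z) =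
      relG H Wa Wb Wy d X x y 8 + H * (z - zx) / d ^ X 0 * relG H Wa Wb Wy d X x y 5 ∧
    dt (fn2 π eo (Wb / H * d ^ X 9)) (ty.pos z - tx.pos z) =
      relG H Wa Wb Wy d X x y 9 + H * (z - zx) / d ^ X 0 * relG H Wa Wb Wy d X x y 6 +
        relG H Wa Wb Wy d X o x 2 * (relG H Wa Wb Wy d X x y 8 +
          H * (z - zx) / d ^ X 0 * relG H Wa Wb Wy d X x y 5) ∧
    dt (fn3 π fao fbo (Wy / H * d ^ X 10)) (ty.pos z - tx.pos z) =
      relG H Wa Wb Wy d X x y 10 + H * (z - zx) / d ^ X 0 * relG H Wa Wb Wy d X x y 7 +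
        relG H Wa Wb Wy d X o x 4 * (relG H Wa Wb Wy d X x y 8 +
          H * (z - zx) / d ^ X 0 * relG H Wa Wb Wy d X x y 5) +
        relG H Wa Wb Wy d X o x 3 * (relG H Wa Wb Wy d X x y 9 +
          H * (z - zx) / d ^ X 0 * relG H Wa Wb Wy d X x y 6 +
          relG H Wa Wb Wy d X o x 2 * (relG H Wa Wb Wy d X x y 8 +
            H * (z - zx) / d ^ X 0 * relG H Wa Wb Wy d X x y 5)) := by
  obtain ⟨g1, g2, g3, g4, g5, g6, -, -, -⟩ := pieces hd hH ha hb hy hX x y o (z - zx)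
  have hxz : x.z = zx := by rw [hx]; rfl
  set δ : V3 := ty.pos z - tx.pos z with hδ
  have d1 : δ (π 1) = coQ x y 8 + (z - zx) * coQ x y 5 := by
    rw [← hxz, ← ra_eq, hx, hy']; rfl
  have d2 : δ (π 2) - ex * δ (π 1) = coQ x y 9 + (z - zx) * coQ x y 6 := by
    rw [← hxz, ← rb_eq, hx, hy']; rfl
  have d3 : δ (π 0) - fax * δ (π 1) - fbx * δ (π 2) = coQ x y 10 + (z - zx) * coQ x y 7 := by
    have h1 := rn_eq x y z
    have h2 : coQ x y 1 = 0 := by rw [hx, hy']; simp [coQ, mkT]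
    rw [h2, mul_zero, add_zero, hxz] at h1
    rw [← h1, hx, hy']
    simp only [rn, mkT, cLn, Fq4.py, Fq4.pa, Fq4.pb, hδ, Ln4.pos, Pi.sub_apply]
    ring
  have c2 : coQ o x 2 = ex - eo := by rw [ho, hx]; rfl
  have c3 : coQ o x 3 = fbx - fbo := by rw [ho, hx]; rfl
  have c4 : coQ o x 4 = (fax - fao) + eo * (fbx - fbo) := by rw [ho, hx]; rfl
  rw [g1, g2, g3, ← d1, ← d2, ← d3, g4, g6, ← add_div, g5, ← add_div, ← add_div, dt_fn1, dt_fn2,
    dt_fn3, c2, c3, c4]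
  refine ⟨rfl, ?_, ?_⟩
  · congr 1; ring
  · congr 1; ring

/-- **(G2) the functionals of the flag of `o` on the difference of two velocities** -/
theorem dt_fnv (hd : 0 < d) (hH : 0 < H) (ha : 0 < Wa) (hb : 0 < Wb) (hy : 0 < Wy) (hX : NatX X)
    {x y o : Fq4} (hx : x = mkT (cLn π tx) zx ex fax fbx) (hy' : y = mkT (cLn π ty) zy ey fay fby)
    (ho : o = mkT (cLn π tO) zo eo fao fbo) :
    dt (fn1 π (Wa / H * d ^ X 8)) (ty.v - tx.v) * (d ^ X 0 / H) =
      relG H Wa Wb Wy d X x y 5 ∧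
    dt (fn2 π eo (Wb / H * d ^ X 9)) (ty.v - tx.v) * (d ^ X 0 / H) =
      relG H Wa Wb Wy d X x y 6 +
        relG H Wa Wb Wy d X o x 2 * relG H Wa Wb Wy d X x y 5 ∧
    dt (fn3 π fao fbo (Wy / H * d ^ X 10)) (ty.v - tx.v) * (d ^ X 0 / H) =
      relG H Wa Wb Wy d X x y 7 +
        relG H Wa Wb Wy d X o x 4 * relG H Wa Wb Wy d X x y 5 +
        relG H Wa Wb Wy d X o x 3 * (relG H Wa Wb Wy d X x y 6 +
          relG H Wa Wb Wy d X o x 2 * relG H Wa Wb Wy d X x y 5) := by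
  obtain ⟨-, -, -, g4, g5, g6, g7, g8, g9⟩ := pieces hd hH ha hb hy hX x y o 0
  set δ : V3 := ty.v - tx.v with hδ
  have d1 : δ (π 1) = coQ x y 5 := by rw [hx, hy']; rfl
  have d2 : δ (π 2) - ex * δ (π 1) = coQ x y 6 := by rw [hx, hy']; rfl
  have d3 : δ (π 0) - fax * δ (π 1) - fbx * δ (π 2) = coQ x y 7 := by
    rw [hx, hy']
    simp only [coQ, mkT, cLn, Fq4.vy, hδ, Pi.sub_apply, Matrix.cons_val]
    ring
  have c2 : coQ o x 2 = ex - eo := by rw [ho, hx]; rfl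
  have c3 : coQ o x 3 = fbx - fbo := by rw [ho, hx]; rfl
  have c4 : coQ o x 4 = (fax - fao) + eo * (fbx - fbo) := by rw [ho, hx]; rfl
  have k1 : relG H Wa Wb Wy d X x y 5 = d ^ X 0 / H * δ (π 1) / (Wa / H * d ^ X 8) := by
    rw [← g7, d1]; ring
  have k2 : relG H Wa Wb Wy d X x y 6 =
      d ^ X 0 / H * (δ (π 2) - ex * δ (π 1)) / (Wb / H * d ^ X 9) := by
    rw [← g8, d2]; ring
  have k3 : relG H Wa Wb Wy d X x y 7 =
      d ^ X 0 / H * (δ (π 0) - fax * δ (π 1) - fbx * δ (π 2)) / (Wy / H * d ^ X 10) := by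
    rw [← g9, d3]; ring
  rw [k1, k2, k3, g4, g6, ← add_div, g5, ← add_div, ← add_div, dt_fn1, dt_fn2, dt_fn3, c2, c3, c4]
  refine ⟨?_, ?_, ?_⟩
  · ring
  · ring
  · ring

end

end Crest.Agent.R136.Lab926
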