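import Crest.Agent.R136.PqG_464

/-!
# R136: END-LAB, the ambient sequence from `Thick`, part 1 (helper371)

Sizes of the marks of level `0` : the exponents `cAB, cBY, cRR` of `LabW3_926`.
-/

set_option autoImplicit false
set_option linter.unusedVariables false

open Finset Filter Topology

namespace Crest.Agent.R136.LabT371

open Crest.Agent.R138.Ex926 (Base U)
open Crest.Agent.R138.Dp76 (dpow_pos dpow_add dpow_le dpow_le_one)
open Crest.Agent.R138.Mk163 (zc zl rho alive)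
open Crest.Agent.R136.MkA627

section

variable {σ : Type*} {B : Base} {I : ℕ → Finset (ℕ × ℝ)} {G : Geo σ (Fin 3)} {lev : ℕ → ℚ → ℕ}
    {A : ℕ → ℝ} {g s : ℝ} {θ : Fin 3 → ℝ} {f : ℕ → ℚ → ℕ → ℤ → ℕ} {b : ℕ → ℚ → ℕ → σ}
    {vm : ℕ → ℚ → ℝ} {w : Fin 3 → ℕ → ℚ → ℝ}

theorem rho_pos' (m : ℕ) : 0 < rho m := by
  unfold rho; positivity

/-- angular widths at level `0` against level `1` -/
theorem ang_bd {c Λ : ℝ → ℝ} (h : MkA B I G lev A c Λ (fun j v => θ j * (1 - v)) f b vm w)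
    (k : Fin 3) {ε : ℝ} (hε : 0 < ε) : ∀ᶠ n in (U : Filter ℕ),
      B.d n ^ (θ k + ε) * (w k n 1 / rho (lev n 1)) ≤ w k n 0 / rho (lev n 0) ∧
      w k n 0 / rho (lev n 0) ≤ B.d n ^ (θ k - ε) * (w k n 1 / rho (lev n 1)) := by
  have h1 := (Metric.tendsto_nhds.1 (h.tau k 0 le_rfl zero_le_one)) ε hε
  filter_upwards [h1, h.wpos k 0 le_rfl zero_le_one, h.wpos k 1 zero_le_one le_rfl] with n hn a0 a1
  have r0 := rho_pos' (lev n 0)
  have r1 := rho_pos' (lev n 1)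
  have hL := B.L_pos n
  have hL2 : B.L n = -Real.log (B.d n) := rfl
  have e1 : θ k * (1 - ((0 : ℚ) : ℝ)) = θ k := by push_cast; ring
  rw [Real.dist_eq, e1, abs_lt] at hn
  have hlog : Real.log ((rho (lev n 0) / w k n 0) / (rho (lev n 1) / w k n 1)) =
      Real.log (w k n 1 / rho (lev n 1)) - Real.log (w k n 0 / rho (lev n 0)) := by
    rw [Real.log_div (div_pos r0 a0).ne' (div_pos r1 a1).ne', Real.log_div r0.ne' a0.ne',
      Real.log_div r1.ne' a1.ne', Real.log_div a1.ne' r1.ne', Real.log_div a0.ne' r0.ne']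
    ring
  rw [hlog] at hn
  have g1 : (Real.log (w k n 1 / rho (lev n 1)) - Real.log (w k n 0 / rho (lev n 0))) <
      (θ k + ε) * B.L n := by
    have := hn.2
    have h2 : (Real.log (w k n 1 / rho (lev n 1)) - Real.log (w k n 0 / rho (lev n 0))) / B.L n <
      θ k + ε := by linarith
    rwa [div_lt_iff₀ hL] at h2
  have g2 : (θ k - ε) * B.L n <
      (Real.log (w k n 1 / rho (lev n 1)) - Real.log (w k n 0 / rho (lev n 0))) := by
    have := hn.1
    have h2 : θ k - ε <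
      (Real.log (w k n 1 / rho (lev n 1)) - Real.log (w k n 0 / rho (lev n 0))) / B.L n := by
      linarith
    rwa [lt_div_iff₀ hL] at h2
  rw [hL2] at g1 g2
  have p0 := div_pos a0 r0
  have p1 := div_pos a1 r1
  constructor
  · rw [← Real.log_le_log_iff (mul_pos (dpow_pos B n _) p1) p0,
      Real.log_mul (dpow_pos B n _).ne' p1.ne', Real.log_rpow (B.pos n)]
    linarith
  · rw [← Real.log_le_log_iff p0 (mul_pos (dpow_pos B n _) p1),
      Real.log_mul (dpow_pos B n _).ne' p1.ne', Real.log_rpow (B.pos n)]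
    linarith

/-- comparison of two widths at level `0` -/
theorem cmp_bd {c Λ : ℝ → ℝ} (h : MkA B I G lev A c Λ (fun j v => θ j * (1 - v)) f b vm w)
    {i j : Fin 3} (h0 : ∀ᶠ n in (U : Filter ℕ), w i n 0 ≤ w j n 0)
    (h1 : ∀ᶠ n in (U : Filter ℕ), w i n 1 ≤ w j n 1) {ε : ℝ} (hε : 0 < ε) :
    ∀ᶠ n in (U : Filter ℕ), w i n 0 ≤ B.d n ^ (max 0 (θ i - θ j) - ε) * w j n 0 := by
  rcases le_total (θ i - θ j) 0 with hle | hge
  · rw [max_eq_left hle]
    filter_upwards [h0, h.wpos j 0 le_rfl zero_le_one] with n g0 g1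
    have h2 : (1 : ℝ) ≤ B.d n ^ (0 - ε) := by
      rw [zero_sub, Real.rpow_neg (B.pos n).le]
      rw [one_le_inv₀ (dpow_pos B n _)]
      exact dpow_le_one B n hε.le
    nlinarith
  · rw [max_eq_right hge]
    filter_upwards [ang_bd h i (half_pos hε), ang_bd h j (half_pos hε), h1,
      h.wpos j 0 le_rfl zero_le_one, h.wpos j 1 zero_le_one le_rfl] with n gi gj g1 g2 g3
    have r0 := rho_pos' (lev n 0)
    have r1 := rho_pos' (lev n 1)
    have e1 : B.d n ^ (θ i - ε / 2) = B.d n ^ (θ i - θ j - ε) * B.d n ^ (θ j + ε / 2) := by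
      rw [← dpow_add]; congr 1; ring
    have h3 : w i n 0 / rho (lev n 0) ≤ B.d n ^ (θ i - θ j - ε) * (w j n 0 / rho (lev n 0)) := by
      calc w i n 0 / rho (lev n 0) ≤ B.d n ^ (θ i - ε / 2) * (w i n 1 / rho (lev n 1)) := gi.2
        _ ≤ B.d n ^ (θ i - ε / 2) * (w j n 1 / rho (lev n 1)) :=
          mul_le_mul_of_nonneg_left (div_le_div_of_nonneg_right g1 r1.le) (dpow_pos B n _).le
        _ = B.d n ^ (θ i - θ j - ε) * (B.d n ^ (θ j + ε / 2) * (w j n 1 / rho (lev n 1))) := by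
          rw [e1]; ring
        _ ≤ B.d n ^ (θ i - θ j - ε) * (w j n 0 / rho (lev n 0)) :=
          mul_le_mul_of_nonneg_left gj.1 (dpow_pos B n _).le
    rw [← mul_div_assoc, div_le_div_iff_of_pos_right r0] at h3
    exact h3

/-- the ratio of the scales of the levels `1` and `0` -/
theorem rho_bd {τ : Fin 3 → ℝ → ℝ}
    (h : MkA B I G lev A (fun v => g * v) (fun v => s * v) τ f b vm w) {ε : ℝ} (hε : 0 < ε) :
    ∀ᶠ n in (U : Filter ℕ), rho (lev n 1) ≤ B.d n ^ (1 - ε) * rho (lev n 0) := by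
  filter_upwards [PqG464.pow_lev h 1 zero_le_one le_rfl hε] with n hn
  have h1 := hn.2
  have h2 : (0 : ℝ) < 2 ^ lev n 0 := by positivity
  have h3 : (0 : ℝ) < 2 ^ lev n 1 := by positivity
  have h4 := dpow_pos B n (1 - ε)
  unfold rho
  have e1 : B.d n ^ (-(((1 : ℚ) : ℝ) - ε)) = (B.d n ^ (1 - ε))⁻¹ := by
    rw [Real.rpow_neg (B.pos n).le]; norm_num
  rw [e1] at h1
  have h5 : (2 : ℝ) ^ lev n 0 ≤ B.d n ^ (1 - ε) * 2 ^ lev n 1 := by
    have h6 := mul_le_mul_of_nonneg_left h1 h4.le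
    have e2 : B.d n ^ (1 - ε) * ((2 : ℝ) ^ lev n 0 * (B.d n ^ (1 - ε))⁻¹) = 2 ^ lev n 0 := by
      field_simp
    linarith
  rw [mul_one_div, div_le_div_iff₀ h3 h2]
  linarith

/-- resolution -/
theorem res_bd (h : MkA B I G lev A (fun v => g * v) (fun v => s * v)
    (fun j v => θ j * (1 - v)) f b vm w) {k : Fin 3} {r : ℕ → ℝ}
    (h0 : ∀ᶠ n in (U : Filter ℕ), r n ≤ w k n 0) (h1 : ∀ᶠ n in (U : Filter ℕ), r n ≤ w k n 1)
    {ε : ℝ} (hε : 0 < ε) :
    ∀ᶠ n in (U : Filter ℕ), r n ≤ B.d n ^ (max 0 (1 - θ k) - ε) * w k n 0 := by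
  rcases le_total (1 - θ k) 0 with hle | hge
  · rw [max_eq_left hle]
    filter_upwards [h0, h.wpos k 0 le_rfl zero_le_one] with n g0 g1
    have h2 : (1 : ℝ) ≤ B.d n ^ (0 - ε) := by
      rw [zero_sub, Real.rpow_neg (B.pos n).le]
      rw [one_le_inv₀ (dpow_pos B n _)]
      exact dpow_le_one B n hε.le
    nlinarith
  · rw [max_eq_right hge]
    filter_upwards [ang_bd h k (half_pos hε), rho_bd h (half_pos hε), h1,
      h.wpos k 0 le_rfl zero_le_one, h.wpos k 1 zero_le_one le_rfl] with n gk gr g1 g2 g3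
    have r0 := rho_pos' (lev n 0)
    have r1 := rho_pos' (lev n 1)
    have dk := dpow_pos B n (θ k + ε / 2)
    have h3 : B.d n ^ (θ k + ε / 2) * w k n 1 * rho (lev n 0) ≤ w k n 0 * rho (lev n 1) := by
      have := gk.1
      rw [← mul_div_assoc, div_le_div_iff₀ r1 r0] at this
      exact this
    have h4 : w k n 0 * rho (lev n 1) ≤ w k n 0 * (B.d n ^ (1 - ε / 2) * rho (lev n 0)) :=
      mul_le_mul_of_nonneg_left gr g2.le
    have h5 : B.d n ^ (θ k + ε / 2) * w k n 1 ≤ w k n 0 * B.d n ^ (1 - ε / 2) := by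
      have h6 : B.d n ^ (θ k + ε / 2) * w k n 1 * rho (lev n 0) ≤
          w k n 0 * B.d n ^ (1 - ε / 2) * rho (lev n 0) := by linarith
      exact le_of_mul_le_mul_right h6 r0
    have e1 : B.d n ^ (1 - ε / 2) = B.d n ^ (θ k + ε / 2) * B.d n ^ (1 - θ k - ε) := by
      rw [← dpow_add]; congr 1; ring
    have h7 : w k n 1 ≤ B.d n ^ (1 - θ k - ε) * w k n 0 := by
      refine le_of_mul_le_mul_left ?_ dk
      calc B.d n ^ (θ k + ε / 2) * w k n 1 ≤ w k n 0 * B.d n ^ (1 - ε / 2) := h5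
        _ = B.d n ^ (θ k + ε / 2) * (B.d n ^ (1 - θ k - ε) * w k n 0) := by rw [e1]; ring
    exact g1.trans h7

/-- cap -/
theorem cap_bd {c Λ : ℝ → ℝ} (h : MkA B I G lev A c Λ (fun j v => θ j * (1 - v)) f b vm w)
    {k : Fin 3} (h1 : ∀ᶠ n in (U : Filter ℕ), w k n 1 ≤ rho (lev n 1)) {ε : ℝ} (hε : 0 < ε) :
    ∀ᶠ n in (U : Filter ℕ), w k n 0 ≤ B.d n ^ (θ k - ε) * rho (lev n 0) := by
  filter_upwards [ang_bd h k hε, h1] with n gk g1
  have r0 := rho_pos' (lev n 0)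
  have r1 := rho_pos' (lev n 1)
  have h2 : w k n 1 / rho (lev n 1) ≤ 1 := by rw [div_le_one r1]; exact g1
  have h3 := gk.2.trans (mul_le_mul_of_nonneg_left h2 (dpow_pos B n _).le)
  rw [mul_one, div_le_iff₀ r0] at h3
  exact h3

end

end Crest.Agent.R136.LabT371
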