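import Crest.Agent.R136.LabW1_926
import Crest.Agent.R136.LabF_926

/-!
# R136: END-LAB, window side, part 2 (helper926)

`BodyIn` : number of incidences of the family in a slab cut with a rotated plank;
`SlabIn.concl2` : the inequality of END-LAB for a family in slabs.
-/

set_option autoImplicit false
set_option linter.unusedSectionVars false
set_option linter.unusedVariables false

open Filter Topology

namespace Crest.Agent.R136.Lab926

open Finset Crest.Agent.R138.Ex926 Crest.Agent.R136.Qg926 Crest.Agent.R136.Sh605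
open Crest.Agent.R138.Mk163 (zc zl rho)

open Classical in
/-- **bodies** -/
structure BodyIn (B' : Base) (E : ℕ → Finset (ℕ × ℝ)) (L : ℕ → ℕ → Ln4) (χ : ℕ → V3)
    (ψ : ℕ → Fin 2 → V3) (i : ℕ → ℕ) (J0 : ℕ → ℤ) (kN k1 : ℝ) (P : ℕ → ℝ) : Prop where
  P0 : ∀ n, 0 ≤ P n
  body : ∀ ε : ℝ, 0 < ε → ∃ δ : ℝ, 0 < δ ∧ ∀ᶠ n in (U : Filter ℕ), ∀ K0 : ℝ, 1 ≤ K0 →
    K0 ≤ B'.d n ^ (-δ) → ∀ x ∈ E n, ∀ α β : ℝ, α ^ 2 + β ^ 2 = 1 → ∀ u : Fin 2 → ℝ,
    (∀ j, B'.d n ^ k1 ≤ u j ∧ u j ≤ 1) →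
      (((E n).filter fun y => ∀ z, zl (i n) (J0 n) ≤ z → z ≤ zl (i n) (J0 n) + rho (i n) →
        |dt (χ n) ((L n y.1).pos z - (L n x.1).pos z)| ≤ K0 * (2 * B'.d n ^ kN) ∧
        |α * dt (ψ n 0) ((L n y.1).pos z - (L n x.1).pos z) +
          β * dt (ψ n 1) ((L n y.1).pos z - (L n x.1).pos z)| ≤ K0 * (16 * u 0) ∧
        |-β * dt (ψ n 0) ((L n y.1).pos z - (L n x.1).pos z) +
          α * dt (ψ n 1) ((L n y.1).pos z - (L n x.1).pos z)| ≤ K0 * (16 * u 1)).card : ℝ) ≤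
        B'.d n ^ (-ε) * P n * (u 0 * u 1)

section

variable {γ : Type} {B' : Base} {E : ℕ → Finset (ℕ × ℝ)} {L : ℕ → ℕ → Ln4}
    {χ : ℕ → V3} {ψ : ℕ → Fin 2 → V3} {i M : ℕ → ℕ} {J0 : ℕ → ℤ} {T To P : ℕ → ℝ}
    {kN k1 l1 : ℝ} {dp : ℕ → ℕ × ℝ → γ}

set_option maxHeartbeats 1600000 in
open Classical in
/-- **the inequality of END-LAB** for a family in slabs, any bound for bodies -/
theorem SlabIn.concl2 (hKM : ∀ V : ℝ, Crest.Agent.R138.Tub70.KM32 V)
    (h : SlabIn B' E L χ ψ i M J0 T To kN k1 l1 dp) (g : BodyIn B' E L χ ψ i J0 kN k1 P) {ε : ℝ}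
    (hε : 0 < ε) :
    ∀ᶠ n in (U : Filter ℕ), T n * B'.d n ^ (-l1 - 3 * k1 + ε) ≤ P n := by
  have hk1 := h.k10
  have hkN := h.kN0
  obtain ⟨κ, M₀, hκ, key⟩ := lab_inc hKM (ε := ε / (8 * (k1 + 1))) (by positivity)
  obtain ⟨δb, hδb, hbody⟩ := g.body (ε / 8) (by positivity)
  -- small loss
  obtain ⟨δ, hδ0, hδ1, hδ2, hδ3, hδ4⟩ : ∃ δ : ℝ, 0 < δ ∧ 8 * δ ≤ ε / 2 ∧ 8 * δ ≤ κ * (k1 / 2) ∧
      8 * δ ≤ δb ∧ 8 * δ ≤ k1 := by
    refine ⟨min (min (ε / 2) (κ * (k1 / 2))) (min δb k1) / 8, by positivity, ?_, ?_, ?_, ?_⟩ <;>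
      rw [mul_div_cancel₀ _ (by norm_num : (8 : ℝ) ≠ 0)]
    · exact (min_le_left _ _).trans (min_le_left _ _)
    · exact (min_le_left _ _).trans (min_le_right _ _)
    · exact (min_le_right _ _).trans (min_le_left _ _)
    · exact (min_le_right _ _).trans (min_le_right _ _)
  filter_upwards [h.piece hδ0, hbody, h.Mlow δ hδ0, h.Mup,
    ev_const_le B' (show (0 : ℝ) < (2 : ℝ) ^ M₀ by positivity) (show 0 < k1 / 2 by positivity)] with
    n hpiece hbd hMl hMu hM0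
  have hd := B'.pos n
  have hd1 := (B'.lt n).le
  have hp : ∀ t : ℝ, 0 < B'.d n ^ t := fun t => Real.rpow_pos_of_pos hd t
  have hanti : ∀ {s t : ℝ}, s ≤ t → B'.d n ^ t ≤ B'.d n ^ s := fun hst =>
    Real.rpow_le_rpow_of_exponent_ge hd hd1 hst
  have hmul : ∀ s t : ℝ, B'.d n ^ s * B'.d n ^ t = B'.d n ^ (s + t) := fun s t =>
    (Real.rpow_add hd s t).symm
  have hT := h.T0 n
  have hTo := h.To0 n
  obtain ⟨F, hF, x₀, hx₀, f1, f2, f3, f4, f5⟩ := hpiece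
  set K0 : ℝ := B'.d n ^ (-δ) with hK0
  have hK00 : 0 < K0 := hp _
  have hK01 : 1 ≤ K0 := Real.one_le_rpow_of_pos_of_le_one_of_nonpos hd hd1 (by linarith)
  set K : ℝ := B'.d n ^ (-(4 * δ)) with hK
  have hK1 : 1 ≤ K := Real.one_le_rpow_of_pos_of_le_one_of_nonpos hd hd1 (by linarith)
  have hKpos : 0 < K := by linarith
  have h2M : (0 : ℝ) < (2 : ℝ) ^ M n := by positivity
  have hMbig : M₀ ≤ M n := by
    have h1 : (2 : ℝ) ^ M₀ ≤ (2 : ℝ) ^ M n := by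
      refine hM0.trans (le_trans (hanti ?_) hMl)
      linarith
    exact (Nat.pow_le_pow_iff_right (by norm_num : 1 < 2)).1 (by exact_mod_cast h1)
  have hKκ : K ≤ (2 : ℝ) ^ (κ * M n) := by
    have h1 : B'.d n ^ (-(k1 / 2)) ≤ (2 : ℝ) ^ M n := (hanti (by linarith)).trans hMl
    have h2 : (B'.d n ^ (-(k1 / 2))) ^ κ ≤ ((2 : ℝ) ^ M n) ^ κ :=
      Real.rpow_le_rpow (hp _).le h1 hκ.le
    rw [← Real.rpow_mul hd.le, ← Real.rpow_natCast, ← Real.rpow_mul (by norm_num)] at h2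
    rw [mul_comm κ]
    refine le_trans (hanti ?_) h2
    nlinarith
  have hKe : (2 : ℝ) ^ (ε / (8 * (k1 + 1)) * (M n : ℝ)) ≤ B'.d n ^ (-(ε / 8)) := by
    have h1 : (2 : ℝ) ^ M n ≤ B'.d n ^ (-k1) := by
      have := hp (-k1)
      linarith
    have h2 : ((2 : ℝ) ^ M n) ^ (ε / (8 * (k1 + 1))) ≤ (B'.d n ^ (-k1)) ^ (ε / (8 * (k1 + 1))) :=
      Real.rpow_le_rpow h2M.le h1 (by positivity)
    rw [← Real.rpow_mul hd.le, ← Real.rpow_natCast, ← Real.rpow_mul (by norm_num)] at h2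
    rw [mul_comm (ε / (8 * (k1 + 1)))]
    refine h2.trans (hanti ?_)
    have h3 : k1 * (ε / (8 * (k1 + 1))) ≤ ε / 8 := by
      rw [mul_div_assoc', div_le_div_iff₀ (by positivity) (by norm_num)]
      nlinarith
    linarith
  have hMup' : B'.d n ^ k1 ≤ 1 / 2 / 2 ^ M n := by
    rw [le_div_iff₀ h2M]
    have h1 := mul_le_mul_of_nonneg_left hMu (hp k1).le
    have e1 : B'.d n ^ k1 * (1 / 2 * B'.d n ^ (-k1)) = 1 / 2 := by
      rw [mul_left_comm, hmul, add_neg_cancel, Real.rpow_zero, mul_one]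
    linarith
  have hk1δ : B'.d n ^ (k1 - δ) / K0 = B'.d n ^ k1 := by
    rw [hK0, ← Real.rpow_sub hd]; congr 1; ring
  have hkNδ : B'.d n ^ (kN - δ) = K0 * B'.d n ^ kN := by
    rw [hK0, hmul]; congr 1; ring
  have hP0 := g.P0 n
  have hsc : ∀ t : ℝ, 1 / K0 * t = t / K0 := fun t => by ring
  have hmain := key F (L n) (fun j => (1 / K0) • ψ n j) (L n x₀.1) (i n) (M n) (J0 n) K (To n)
    (T n * B'.d n ^ (-l1)) (B'.d n ^ (-(ε / 8)) * P n) ⟨x₀, hx₀⟩ hMbig hK1 hKκ hTo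
    (mul_nonneg (hp _).le hP0) f1
    (fun x hx z hz1 hz2 j => by
      obtain ⟨b1, b2⟩ := f2 x hx z hz1 hz2
      show |dt ((1 / K0) • ψ n j) _| ≤ 1
      rw [abs_dt_scale _ _ hK00, div_le_one hK00]
      exact b2 j)
    (fun x hx => by
      refine le_trans ?_ (mul_le_mul_of_nonneg_left (f3 x hx) hKpos.le)
      calc To n = To n * (B'.d n ^ (-δ) * B'.d n ^ δ) := by
            rw [hmul, neg_add_cancel, Real.rpow_zero, mul_one]
        _ ≤ To n * (K * B'.d n ^ δ) := by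
            have : B'.d n ^ (-δ) ≤ K := hanti (by linarith)
            have := hp δ
            gcongr
        _ = K * (To n * B'.d n ^ δ) := by ring)
    (fun x hx => by
      refine (f4 x hx).trans ?_
      have h1 : B'.d n ^ (k1 - δ) * (2 : ℝ) ^ (M n + 1) ≤ K := by
        have h2 : (2 : ℝ) ^ (M n + 1) ≤ B'.d n ^ (-k1) := by
          rw [pow_succ]; linarith
        calc B'.d n ^ (k1 - δ) * (2 : ℝ) ^ (M n + 1) ≤ B'.d n ^ (k1 - δ) * B'.d n ^ (-k1) :=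
              mul_le_mul_of_nonneg_left h2 (hp _).le
          _ = B'.d n ^ (-δ) := by rw [hmul]; congr 1; ring
          _ ≤ K := hanti (by linarith)
      rw [mul_div_assoc', le_div_iff₀ (by positivity)]
      calc To n * B'.d n ^ (k1 - δ) * (2 : ℝ) ^ (M n + 1) =
            To n * (B'.d n ^ (k1 - δ) * (2 : ℝ) ^ (M n + 1)) := by ring
        _ ≤ To n * K := mul_le_mul_of_nonneg_left h1 hTo.le
        _ = K * To n := by ring)
    (fun x hx => by
      have h1 : T n * B'.d n ^ (-l1) ≤ K * (T n * B'.d n ^ (-l1 + δ)) := by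
        calc T n * B'.d n ^ (-l1) = B'.d n ^ (-δ) * (T n * B'.d n ^ (-l1 + δ)) := by
              rw [mul_left_comm, hmul]; congr 2; ring
          _ ≤ _ := by
              have : B'.d n ^ (-δ) ≤ K := hanti (by linarith)
              have := mul_pos hT (hp (-l1 + δ))
              gcongr
      refine h1.trans (mul_le_mul_of_nonneg_left ((f5 x hx).trans ?_) hKpos.le)
      refine Nat.cast_le.2 (card_le_card fun y hy => ?_)
      obtain ⟨hy1, hy2, hy3⟩ := mem_filter.1 hy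
      refine mem_filter.2 ⟨hy1, hy2, fun j => ?_⟩
      show |dt ((1 / K0) • ψ n j) _| ≤ _
      rw [abs_dt_scale _ _ hK00]
      refine le_trans ?_ hMup'
      rw [← hk1δ]
      exact div_le_div_of_nonneg_right (hy3 j) hK00.le)
    (fun x hx α β hαβ u hu => by
      have hu' : ∀ j, B'.d n ^ k1 ≤ u j ∧ u j ≤ 1 := fun j => by
        refine ⟨le_trans (hMup'.trans ?_) (hu j).1, (hu j).2⟩
        refine div_le_div_of_nonneg_right (by norm_num) h2M.le
      refine le_trans (Nat.cast_le.2 (card_le_card fun y hy => ?_))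
        (hbd K0 hK01 (hanti (by linarith)) x (hF hx) α β hαβ u hu')
      obtain ⟨hy1, hy2⟩ := mem_filter.1 hy
      refine mem_filter.2 ⟨hF hy1, fun z hz1 hz2 => ?_⟩
      obtain ⟨g1, g2⟩ := hy2 z hz1 hz2
      simp only [smul_dt, hsc] at g1 g2
      have e1 : (L n y.1).pos z - (L n x.1).pos z =
          ((L n y.1).pos z - (L n x₀.1).pos z) - ((L n x.1).pos z - (L n x₀.1).pos z) := by
        abel
      refine ⟨?_, ?_, ?_⟩
      · rw [e1, dt_sub]
        have b1 := (f2 y hy1 z hz1 hz2).1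
        have b2 := (f2 x hx z hz1 hz2).1
        rw [hkNδ] at b1 b2
        rw [abs_le] at b1 b2 ⊢
        constructor <;> linarith [b1.1, b1.2, b2.1, b2.2]
      · have e2 : ∀ s t : ℝ, α * (s / K0) + β * (t / K0) = (α * s + β * t) / K0 := fun s t => by
          ring
        rw [e2, abs_div, abs_of_pos hK00, div_le_iff₀ hK00] at g1
        linarith
      · have e2 : ∀ s t : ℝ, -β * (s / K0) + α * (t / K0) = (-β * s + α * t) / K0 := fun s t => by
          ring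
        rw [e2, abs_div, abs_of_pos hK00, div_le_iff₀ hK00] at g2
        linarith)
  -- numbers
  have c1 : T n * B'.d n ^ (-l1 - 3 * k1 + 3 * δ) ≤ T n * B'.d n ^ (-l1) * 2 ^ (3 * M n) := by
    have h1 : (B'.d n ^ (-(k1 - δ))) ^ 3 ≤ ((2 : ℝ) ^ M n) ^ 3 := pow_le_pow_left₀ (hp _).le hMl 3
    have e1 : (B'.d n ^ (-(k1 - δ))) ^ 3 = B'.d n ^ (-3 * k1 + 3 * δ) := by
      rw [← Real.rpow_natCast, ← Real.rpow_mul hd.le]; congr 1; push_cast; ring
    have e2 : ((2 : ℝ) ^ M n) ^ 3 = 2 ^ (3 * M n) := by rw [← pow_mul]; congr 1; ring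
    rw [e1, e2] at h1
    have e3 : T n * B'.d n ^ (-l1 - 3 * k1 + 3 * δ) =
        T n * B'.d n ^ (-l1) * B'.d n ^ (-3 * k1 + 3 * δ) := by
      rw [mul_assoc, hmul]; congr 2; ring
    rw [e3]
    exact mul_le_mul_of_nonneg_left h1 (mul_pos hT (hp _)).le
  have c3 : T n * B'.d n ^ (-l1 - 3 * k1 + 3 * δ) ≤
      B'.d n ^ (-(ε / 8)) * (B'.d n ^ (-(ε / 8)) * P n) := by
    refine c1.trans (hmain.trans ?_)
    exact mul_le_mul_of_nonneg_right hKe (mul_nonneg (hp _).le hP0)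
  have e4 : T n * B'.d n ^ (-l1 - 3 * k1 + ε) ≤
      B'.d n ^ (ε / 4) * (T n * B'.d n ^ (-l1 - 3 * k1 + 3 * δ)) := by
    rw [mul_left_comm, hmul]
    exact mul_le_mul_of_nonneg_left (hanti (by linarith)) hT.le
  refine e4.trans ((mul_le_mul_of_nonneg_left c3 (hp _).le).trans (le_of_eq ?_))
  rw [← mul_assoc, ← mul_assoc, hmul, hmul]
  have : ε / 4 + -(ε / 8) + -(ε / 8) = 0 := by ring
  rw [this, Real.rpow_zero, one_mul]

end

end Crest.Agent.R136.Lab926
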