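import Crest.Agent.R136.LabD_926
import Crest.Agent.R136.LabW2_926
import Crest.Agent.R136.Wq2_638

/-!
# R136: END-LAB, window side, part 3 (helper926)

`LabH` : the ambient sequence (chart `couQ`, sample, D-max in the form `DMX`, sizes of the marks of
level `0`); `GlobP` : all facts of the ambient sequence which are used in a window, with one loss
`S`; `exists_glob` : they hold with one sub-polynomial loss.
-/

set_option autoImplicit false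
set_option linter.unusedSectionVars false
set_option linter.unusedVariables false

open Filter Topology

namespace Crest.Agent.R136.Lab926

open Finset
open Crest.Agent.R138.Ex926 (Base U cls QProf)
open Crest.Agent.R138.Mk163 (zc zl rho alive)
open Crest.Agent.R138.MkRef627 (lc kc mem_alive)
open Crest.Agent.R136.Sh605
open Crest.Agent.R136.HR829 (Rq)
open Crest.Agent.R136.End403 (exists_err own_near_unif)
open Crest.Agent.R136.Net191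
open Crest.Agent.R136.NetQ186
open Crest.Agent.R136.GeoQ186
open Crest.Agent.R136.MkA627
open Crest.Agent.R136.Wq638
open Crest.Agent.R136.Lq196
open Crest.Agent.R136.Qg926 (ev_const_le)

section

variable {σ' : Type*}

/-- exponents of the sizes of the marks of level `0` -/
noncomputable def cAB (θ : Fin 3 → ℝ) : ℝ := max 0 (θ 2 - θ 1)
noncomputable def cBY (θ : Fin 3 → ℝ) : ℝ := max 0 (θ 0 - θ 2)
noncomputable def cRR (θ : Fin 3 → ℝ) : ℝ := max 0 (1 - θ 0)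

open Classical in
/-- **the ambient sequence** -/
structure LabH (B : Base) (I I1 : ℕ → Finset (ℕ × ℝ)) (G : Geo σ' (Fin 3)) (L : ℕ → ℕ → Ln4)
    (π : Equiv.Perm (Fin 3)) (eE fA fB : ℕ → ℕ × ℝ → ℝ) (lev : ℕ → ℚ → ℕ) (A : ℕ → ℝ) (g : ℝ)
    (τ : Fin 3 → ℝ → ℝ) (f : ℕ → ℚ → ℕ → ℤ → ℕ) (b : ℕ → ℚ → ℕ → σ') (vm : ℕ → ℚ → ℝ)
    (w : Fin 3 → ℕ → ℚ → ℝ) (q θ : Fin 3 → ℝ) (w0 R T0 : ℝ) (V T : Fin 11 → Prop)
    (PD : Set (Fin 11 → ℝ)) (DD : (Fin 11 → ℝ) → ℝ) (rp : ℝ → Fin 11 → ℝ) (EE : ℝ → ℝ)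
    (ν own : (Fin 11 → ℝ) → ℝ) (c₀ : ℝ) (rg : Rg) : Prop where
  pre : PreQ B I G lev A g 0 τ f b vm w (couQ B lev w w0 (incQ π L eE fA fB)) monQ 2 R 0 w0
    (N0Q A vm) PD DD rp (ownQ θ w0 R V) EE T
  ext : ExtQ B I I1 (couQ B lev w w0 (incQ π L eE fA fB)) monQ 2 R 0 w0 0 PD DD rp
    (ownQ θ w0 R V) EE T ν own c₀
  comb : CombQ B I I1 lev (couQ B lev w w0 (incQ π L eE fA fB)) monQ 2 R (N0Q A vm) c₀
  flag : ∀ n, ∀ x ∈ I n, |eE n x| ≤ 1 ∧ |fA n x| ≤ 1 ∧ |fB n x| ≤ 1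
  q0 : ∀ j, 0 ≤ q j
  big : BigQ θ w0 R T0
  oR : ∀ v : ℝ, 0 ≤ v → v ≤ 1 → ∀ k, ownQ θ w0 R V v k ≤ R
  θ1 : 0 < θ 1
  rr0 : ∀ n, 0 < rg.r n
  dmax : ∀ v : ℚ, 0 ≤ v → v ≤ 1 → ∀ ε : ℝ, 0 < ε → ∀ᶠ n in (U : Filter ℕ), ∀ J : ℤ,
      DMX (alive (I n) (lev n v) J) (L n) (zl (lev n v) J) (rho (lev n v))
        (B.d n ^ (-ε) * ampA B A (fun v => g * v) n v) (Rq q (rho (lev n v))) (rg.r n) (rg.m0 n)
        (min (rho (lev n v)) (rg.m1 n)) (rg.m2 n) (rg.o1 n) (rg.o2 n)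
  /-- sizes of the marks of level `0` -/
  wpos : ∀ᶠ n in (U : Filter ℕ), ∀ j, 0 < w j n 0
  wab : ∀ ε : ℝ, 0 < ε → ∀ᶠ n in (U : Filter ℕ), w 2 n 0 ≤ B.d n ^ (cAB θ - ε) * w 1 n 0
  wby : ∀ ε : ℝ, 0 < ε → ∀ᶠ n in (U : Filter ℕ), w 0 n 0 ≤ B.d n ^ (cBY θ - ε) * w 2 n 0
  wres : ∀ ε : ℝ, 0 < ε → ∀ᶠ n in (U : Filter ℕ), rg.r n ≤ B.d n ^ (cRR θ - ε) * w 0 n 0
  wcap : ∀ ε : ℝ, 0 < ε → ∀ᶠ n in (U : Filter ℕ), w 1 n 0 ≤ B.d n ^ (θ 1 - ε) * rho (lev n 0)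
  wvm : ∀ᶠ n in (U : Filter ℕ), vm n 0 = w 0 n 0 * w 2 n 0 * w 1 n 0 *
    Rq q (rho (lev n 0)) (w 0 n 0) (w 2 n 0) (w 1 n 0)
  wm0 : ∀ C : ℝ, ∀ᶠ n in (U : Filter ℕ), w 0 n 0 ≤ B.d n ^ C * rg.m0 n
  wm1 : ∀ C : ℝ, ∀ᶠ n in (U : Filter ℕ), w 1 n 0 ≤ B.d n ^ C * rg.m1 n
  wm2 : ∀ C : ℝ, ∀ᶠ n in (U : Filter ℕ), w 2 n 0 ≤ B.d n ^ C * rg.m2 n
  wo1 : ∀ C : ℝ, ∀ᶠ n in (U : Filter ℕ), rg.o1 n ≤ B.d n ^ C * w 1 n 0
  wo2 : ∀ C : ℝ, ∀ᶠ n in (U : Filter ℕ), rg.o2 n ≤ B.d n ^ C * w 2 n 0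

open Classical in
/-- **facts used in a window**, loss `S` -/
structure GlobP (B : Base) (I I1 : ℕ → Finset (ℕ × ℝ)) (L : ℕ → ℕ → Ln4)
    (co : ℕ → ℕ × ℝ → ℕ × ℝ → Fin 11 → ℝ) (lev : ℕ → ℚ → ℕ) (g : ℝ) (vm : ℕ → ℚ → ℝ)
    (w : Fin 3 → ℕ → ℚ → ℝ) (q θ : Fin 3 → ℝ) (R : ℝ) (o : ℝ → Fin 11 → ℝ)
    (ν own : (Fin 11 → ℝ) → ℝ) (c₀ : ℝ) (rg : Rg) (v1 γ S : ℝ) (n : ℕ) : Prop where
  near : ∀ v : ℝ, 0 ≤ v → v ≤ 1 → ∀ l : ℕ, (2 : ℝ) ^ lev n 0 * B.d n ^ (-v) ≤ 4 * 2 ^ l →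
    ∀ x ∈ I n, ∀ y ∈ I n, lc l y = lc l x → ∀ k, |co n x y k| ≤ S * B.d n ^ (o v k)
  ou : ∀ p ∈ Leg monQ R, ∀ i ∈ I1 n, ((cls (I1 n) (olb B I co monQ 2 n p) i).card : ℝ) ≤
    S * B.d n ^ (-(own p))
  on : ∀ q ∈ Leg monQ R, ∀ p ∈ Leg monQ R, q ≤ p → ∀ i ∈ I1 n,
    (((cls (I1 n) (olb B I co monQ 2 n q) i).image (olb B I co monQ 2 n p)).card : ℝ) ≤
      S * B.d n ^ (-(own q - own p))
  or : ∀ p ∈ Leg monQ R, (((I1 n).image (olb B I co monQ 2 n p)).card : ℝ) ≤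
    S * ((I1 n).card * B.d n ^ (own p))
  nr : ∀ p ∈ Leg monQ R, (((I1 n).image (nlab B I co monQ 2 n p)).card : ℝ) ≤
    S * ((I1 n).card * B.d n ^ (ν p))
  ab : w 2 n 0 ≤ S * (B.d n ^ cAB θ * w 1 n 0)
  by' : w 0 n 0 ≤ S * (B.d n ^ cBY θ * w 2 n 0)
  res : rg.r n ≤ S * (B.d n ^ cRR θ * w 0 n 0)
  cap : w 1 n 0 ≤ S * (B.d n ^ θ 1 * rho (lev n 0))
  body : BodyP B I I1 L rg q lev g vm co monQ 2 R c₀ v1 γ S n

end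

section

variable {σ' : Type*} {B : Base} {I I1 : ℕ → Finset (ℕ × ℝ)} {G : Geo σ' (Fin 3)}
    {L : ℕ → ℕ → Ln4} {π : Equiv.Perm (Fin 3)} {eE fA fB : ℕ → ℕ × ℝ → ℝ} {lev : ℕ → ℚ → ℕ}
    {A : ℕ → ℝ} {g : ℝ} {τ : Fin 3 → ℝ → ℝ} {f : ℕ → ℚ → ℕ → ℤ → ℕ} {b : ℕ → ℚ → ℕ → σ'}
    {vm : ℕ → ℚ → ℝ} {w : Fin 3 → ℕ → ℚ → ℝ} {q θ : Fin 3 → ℝ} {w0 R T0 : ℝ}
    {V T : Fin 11 → Prop} {PD : Set (Fin 11 → ℝ)} {DD : (Fin 11 → ℝ) → ℝ}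
    {rp : ℝ → Fin 11 → ℝ} {EE : ℝ → ℝ} {ν own : (Fin 11 → ℝ) → ℝ} {c₀ : ℝ} {rg : Rg}

open Classical in
theorem LabH.glob_ev (H : LabH B I I1 G L π eE fA fB lev A g τ f b vm w q θ w0 R T0 V T PD DD rp
    EE ν own c₀ rg) {v1 γ : ℝ} (hv1 : v1 < 1) (hγ : 0 < γ) {ε : ℝ} (hε : 0 < ε) :
    ∀ᶠ n in (U : Filter ℕ), GlobP B I I1 L (couQ B lev w w0 (incQ π L eE fA fB)) lev g vm w q θ R
      (ownQ θ w0 R V) ν own c₀ rg v1 γ (B.d n ^ (-ε)) n := by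
  obtain ⟨δ, hδ, h1⟩ := own_near_unif H.pre hε
  filter_upwards [h1, ev_const_le B (show (0 : ℝ) < 4 by norm_num) hδ, H.ext.oprof.up ε hε,
    H.ext.oprof.num ε hε, H.ext.oprof.root ε hε, H.ext.prof.root ε hε, H.wab ε hε, H.wby ε hε,
    H.wres ε hε, H.wcap ε hε, body_eps H.pre.mka H.dmax H.comb H.q0 hv1 hγ hε] with n g1 g2 g3 g4 g5 g6 g7 g8 g9 g10 g11
  have hmul : ∀ s t : ℝ, B.d n ^ s * B.d n ^ t = B.d n ^ (s + t) := fun s t =>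
    (Real.rpow_add (B.pos n) s t).symm
  have hsp : ∀ t : ℝ, B.d n ^ (t - ε) = B.d n ^ (-ε) * B.d n ^ t := fun t => by
    rw [hmul]; congr 1; ring
  have hsp' : ∀ t : ℝ, B.d n ^ (-(t + ε)) = B.d n ^ (-ε) * B.d n ^ (-t) := fun t => by
    rw [hmul]; congr 1; ring
  exact
    { near := fun v hv0 hv1 l hl x hx y hy hxy k => by
        rw [← hsp]
        exact g1 v hv0 hv1 l (hl.trans (mul_le_mul_of_nonneg_right g2 (by positivity))) x hx y hy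
          hxy k
      ou := fun p hp i hi => by rw [← hsp']; exact g3 p hp i hi
      on := fun q hq p hp hqp i hi => by rw [← hsp']; exact g4 q hq p hp hqp i hi
      or := fun p hp => by
        have := g5 p hp
        rw [hsp] at this
        linarith
      nr := fun p hp => by
        have := g6 p hp
        rw [hsp] at this
        linarith
      ab := by rw [hsp] at g7; linarith
      by' := by rw [hsp] at g8; linarith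
      res := by rw [hsp] at g9; linarith
      cap := by rw [hsp] at g10; linarith
      body := g11 }

/-- **one sub-polynomial loss** -/
theorem LabH.exists_glob (H : LabH B I I1 G L π eE fA fB lev A g τ f b vm w q θ w0 R T0 V T PD DD rp
    EE ν own c₀ rg) {v1 γ : ℝ} (hv1 : v1 < 1) (hγ : 0 < γ) :
    ∃ S : ℕ → ℝ, B.Sub S ∧ (∀ n, 1 ≤ S n) ∧ ∀ᶠ n in (U : Filter ℕ),
      GlobP B I I1 L (couQ B lev w w0 (incQ π L eE fA fB)) lev g vm w q θ R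
      (ownQ θ w0 R V) ν own c₀ rg v1 γ (S n) n := by
  obtain ⟨e, he, h1, h2⟩ := exists_err B (fun ε n =>
    GlobP B I I1 L (couQ B lev w w0 (incQ π L eE fA fB)) lev g vm w q θ R
      (ownQ θ w0 R V) ν own c₀ rg v1 γ (B.d n ^ (-ε)) n)
    (fun ε hε => H.glob_ev hv1 hγ hε)
  refine ⟨_, h1, fun n => ?_, h2⟩
  exact Real.one_le_rpow_of_pos_of_le_one_of_nonpos (B.pos n) (B.lt n).le (by
    have := he n
    linarith)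

end

end Crest.Agent.R136.Lab926
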