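import Crest.Agent.R136.NatT_550
import Crest.Agent.R136.LabT1_371
import Crest.Agent.R136.HR10_829
import Crest.Agent.R136.LabW3_926

/-!
# R136: END-LAB, the ambient sequence from `Thick`, part 2 (helper371)

`labH_of_thick` : `Lab926.LabH` for the data of `NatT550.Thick` (`J1` v3c).
-/

set_option autoImplicit false
set_option linter.unusedVariables false

open Finset Filter Topology

namespace Crest.Agent.R136.LabT371

open Crest.Agent.R138.Ex926 (Base U)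
open Crest.Agent.R138.Dp76 (dpow_pos dpow_add dpow_le dpow_le_one)
open Crest.Agent.R138.Mk163 (zc zl rho alive)
open Crest.Agent.R136.MkA627 Crest.Agent.R136.Sh605 Crest.Agent.R136.K4
open Crest.Agent.R136.HR829 (Rq)
open Crest.Agent.R136.Top484 Crest.Agent.R136.NatT550
open Crest.Agent.R136.Wq638

section

variable {B : Base} {I : ℕ → Finset (ℕ × ℝ)} {L : ℕ → ℕ → Ln4} {r0 : ℕ → ℝ}
    {wr cr : Fin 3 → ℕ → ℝ} {q : Fin 3 → ℝ} {lev : ℕ → ℚ → ℕ} {A : ℕ → ℝ} {c Λ : ℝ → ℝ}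
    {τ : Fin 3 → ℝ → ℝ} {f : ℕ → ℚ → ℕ → ℤ → ℕ} {b : ℕ → ℚ → ℕ → Plk4}
    {vm : ℕ → ℚ → ℝ} {w : Fin 3 → ℕ → ℚ → ℝ}

/-- one mark of level `v` -/
theorem mark_bd (h : MkA B I (geo4 L r0 wr cr q) lev A c Λ τ f b vm w) {v : ℚ} (h0 : 0 ≤ v)
    (h1 : v ≤ 1) : ∀ᶠ n in (U : Filter ℕ),
      r0 n ≤ w 0 n v ∧ w 0 n v ≤ w 2 n v ∧ w 2 n v ≤ w 1 n v ∧ w 1 n v ≤ rho (lev n v) ∧
      (∀ k : Fin 3, wr k n ≤ w k n v ∧ w k n v ≤ cr k n) ∧
      vm n v = w 0 n v * w 2 n v * w 1 n v *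
        Rq q (rho (lev n v)) (w 0 n v) (w 2 n v) (w 1 n v) := by
  filter_upwards [h.ne, h.mark v h0 h1] with n hne hm
  obtain ⟨x, hx⟩ := hne
  have hal : x.1 ∈ alive (I n) (lev n v) (zc (lev n v) x.2) :=
    Crest.Agent.R138.MkRef627.mem_alive.2 ⟨x, hx, rfl, rfl⟩
  obtain ⟨-, ⟨h2, h3, h4⟩, h5, h6⟩ := hm _ _ hal
  have e0 : (b n v (f n v x.1 (zc (lev n v) x.2))).a = w 0 n v := h6 0
  have e1 : (b n v (f n v x.1 (zc (lev n v) x.2))).w 1 = w 1 n v := h6 1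
  have e2 : (b n v (f n v x.1 (zc (lev n v) x.2))).w 2 = w 2 n v := h6 2
  refine ⟨by rw [← e0]; exact h2.r0_le, by rw [← e0, ← e2]; exact h2.a_le,
    by rw [← e1, ← e2]; exact h2.w_le, by rw [← e1]; exact h3, fun k => ?_, ?_⟩
  · rw [← h6 k]; exact h4 k
  · rw [← h5, ← e0, ← e1, ← e2]; rfl

open Classical in
/-- D-max, sheet by sheet -/
theorem count_le (h : MkA B I (geo4 L r0 wr cr q) lev A c Λ τ f b vm w) {v : ℚ} (h0 : 0 ≤ v)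
    (h1 : v ≤ 1) {ε : ℝ} (hε : 0 < ε) : ∀ᶠ n in (U : Filter ℕ), ∀ (J : ℤ) (e : Fin 3 → V3)
      (cc : Ln4) (ww : V3) (qq : ℝ → V3 → ℝ) (a : ℝ),
      ShN e cc ww qq a (zl (lev n v) J) (rho (lev n v)) (r0 n) → ww 1 ≤ rho (lev n v) →
      (∀ k : Fin 3, wr k n ≤ ![a, ww 1, ww 2] k ∧ ![a, ww 1, ww 2] k ≤ cr k n) →
      (((alive (I n) (lev n v) J).filter fun t =>
        InSheet (L n t) e cc ww qq a (zl (lev n v) J) (rho (lev n v))).card : ℝ) ≤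
        B.d n ^ (-ε) * ampA B A c n v *
          (a * ww 2 * ww 1 * Rq q (rho (lev n v)) a (ww 2) (ww 1)) := by
  filter_upwards [h.dmax v h0 h1 ε hε] with n hn J e cc ww qq a hs hw hk
  exact hn J ⟨J, e, cc, ww, qq, a⟩ ⟨hs, hw, hk⟩

end

section

variable {η : ℝ} {p : Par4} {D : Dat4} {π : Equiv.Perm (Fin 3)}
    {eE fA fB : ℕ → ℕ × ℝ → ℝ} {V T : Fin 11 → Prop} {w0 R T0 : ℝ} {PD : Set (Fin 11 → ℝ)}

/-- own path below `R` -/
theorem ownQ_le {θ : Fin 3 → ℝ} (h : BigQ θ w0 R T0) (V : Fin 11 → Prop) {v : ℝ} (h0 : 0 ≤ v)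
    (h1 : v ≤ 1) (k : Fin 11) : ownQ θ w0 R V v k ≤ R := by
  unfold ownQ
  by_cases hk : k = 0
  · rw [if_pos hk]
    have := h.wR
    linarith
  · rw [if_neg hk]
    by_cases hV : V k
    · rw [if_pos hV]; exact (h.path_bd h0 h1 k).2
    · rw [if_neg hV]

/-- a positive resolution -/
noncomputable def rrD (p : Par4) (D : Dat4) (n : ℕ) : ℝ :=
  max (max (D.r0 n) (D.wr 0 n))
    (if 0 < D.w 0 n 0 then D.B.d n ^ max 0 (1 - p.θ 0) * D.w 0 n 0 else 1)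

theorem rrD_pos (p : Par4) (D : Dat4) (n : ℕ) : 0 < rrD p D n := by
  refine lt_of_lt_of_le ?_ (le_max_right _ _)
  by_cases h : 0 < D.w 0 n 0
  · rw [if_pos h]; exact mul_pos (dpow_pos _ n _) h
  · rw [if_neg h]; exact one_pos

theorem r0_le_rrD (p : Par4) (D : Dat4) (n : ℕ) : D.r0 n ≤ rrD p D n :=
  (le_max_left _ _).trans (le_max_left _ _)
theorem wr0_le_rrD (p : Par4) (D : Dat4) (n : ℕ) : D.wr 0 n ≤ rrD p D n :=
  (le_max_right _ _).trans (le_max_left _ _)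

variable (h : ThickPre η p D π eE fA fB V T w0 R T0 PD)
include h

theorem tp_wpos : ∀ᶠ n in (U : Filter ℕ), ∀ j, 0 < D.w j n 0 :=
  Filter.eventually_all.2 fun j => h.pre.mka.wpos j 0 le_rfl zero_le_one

theorem tp_wab {ε : ℝ} (hε : 0 < ε) : ∀ᶠ n in (U : Filter ℕ),
    D.w 2 n 0 ≤ D.B.d n ^ (max 0 (p.θ 2 - p.θ 1) - ε) * D.w 1 n 0 :=
  cmp_bd h.pre.mka (by filter_upwards [mark_bd h.pre.mka le_rfl zero_le_one] with n a using a.2.2.1)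
    (by filter_upwards [mark_bd h.pre.mka zero_le_one le_rfl] with n a using a.2.2.1) hε

theorem tp_wby {ε : ℝ} (hε : 0 < ε) : ∀ᶠ n in (U : Filter ℕ),
    D.w 0 n 0 ≤ D.B.d n ^ (max 0 (p.θ 0 - p.θ 2) - ε) * D.w 2 n 0 :=
  cmp_bd h.pre.mka (by filter_upwards [mark_bd h.pre.mka le_rfl zero_le_one] with n a using a.2.1)
    (by filter_upwards [mark_bd h.pre.mka zero_le_one le_rfl] with n a using a.2.1) hε

theorem tp_wres {ε : ℝ} (hε : 0 < ε) : ∀ᶠ n in (U : Filter ℕ),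
    rrD p D n ≤ D.B.d n ^ (max 0 (1 - p.θ 0) - ε) * D.w 0 n 0 := by
  have h0 := mark_bd h.pre.mka le_rfl zero_le_one
  have h1 := mark_bd h.pre.mka zero_le_one le_rfl
  have a1 := res_bd (k := 0) h.pre.mka (r := D.r0) (h0.mono fun n a => a.1)
    (h1.mono fun n a => a.1) hε
  have a2 := res_bd (k := 0) h.pre.mka (r := D.wr 0) (h0.mono fun n a => (a.2.2.2.2.1 0).1)
    (h1.mono fun n a => (a.2.2.2.2.1 0).1) hε
  filter_upwards [a1, a2, tp_wpos h] with n b1 b2 b3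
  refine max_le (max_le b1 b2) ?_
  rw [if_pos (b3 0)]
  exact mul_le_mul_of_nonneg_right (dpow_le D.B n (by linarith)) (b3 0).le

theorem tp_wcap {ε : ℝ} (hε : 0 < ε) : ∀ᶠ n in (U : Filter ℕ),
    D.w 1 n 0 ≤ D.B.d n ^ (p.θ 1 - ε) * rho (D.lev n 0) :=
  cap_bd h.pre.mka (by filter_upwards [mark_bd h.pre.mka zero_le_one le_rfl] with n a
    using a.2.2.2.1) hε

theorem tp_wvm : ∀ᶠ n in (U : Filter ℕ), D.vm n 0 = D.w 0 n 0 * D.w 2 n 0 * D.w 1 n 0 *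
    Rq p.q (rho (D.lev n 0)) (D.w 0 n 0) (D.w 2 n 0) (D.w 1 n 0) := by
  filter_upwards [mark_bd h.pre.mka le_rfl zero_le_one] with n a using a.2.2.2.2.2

theorem tp_m (k : Fin 3) (C : ℝ) : ∀ᶠ n in (U : Filter ℕ),
    D.w k n 0 ≤ D.B.d n ^ C * D.cr k n := (h.wrs C k 0 le_rfl zero_le_one).mono fun n a => a.2

theorem tp_o (k : Fin 3) (C : ℝ) : ∀ᶠ n in (U : Filter ℕ),
    D.wr k n ≤ D.B.d n ^ C * D.w k n 0 := (h.wrs C k 0 le_rfl zero_le_one).mono fun n a => a.1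

theorem tp_q0 : ∀ j, 0 ≤ p.q j := by
  intro j
  fin_cases j
  · exact h.ok.q0.1
  · exact h.ok.g0.2.le
  · exact h.ok.q2.1.le

open Classical in
theorem tp_dmax {v : ℚ} (h0 : 0 ≤ v) (h1 : v ≤ 1) {ε : ℝ} (hε : 0 < ε) :
    ∀ᶠ n in (U : Filter ℕ), ∀ J : ℤ,
      Lab926.DMX (alive (D.I n) (D.lev n v) J) (D.L n) (zl (D.lev n v) J) (rho (D.lev n v))
        (D.B.d n ^ (-ε) * ampA D.B D.A (fun v => p.g * v) n v) (Rq p.q (rho (D.lev n v)))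
        (rrD p D n) (D.cr 0 n) (min (rho (D.lev n v)) (D.cr 1 n)) (D.cr 2 n) (D.wr 1 n)
        (D.wr 2 n) := by
  filter_upwards [count_le h.pre.mka h0 h1 hε] with n hn J e c w q a hs hm0 hm1 hm2 ho1 ho2
  exact hn J e c w q a { hs with r0_le := (r0_le_rrD p D n).trans hs.r0_le }
    (hm1.trans (min_le_left _ _)) fun k => by
      fin_cases k
      · exact ⟨(wr0_le_rrD p D n).trans hs.r0_le, hm0⟩
      · exact ⟨ho1, hm1.trans (min_le_right _ _)⟩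
      · exact ⟨ho2, hm2⟩

end

/-- **the ambient sequence of END-LAB from the thick branch** -/
theorem labH_of_thick {η : ℝ} {p : Par4} {D : Dat4} {I1 : ℕ → Finset (ℕ × ℝ)}
    {π : Equiv.Perm (Fin 3)} {eE fA fB : ℕ → ℕ × ℝ → ℝ} {V T : Fin 11 → Prop} {w0 R T0 : ℝ}
    {PD : Set (Fin 11 → ℝ)} {ν own : (Fin 11 → ℝ) → ℝ} {c₀ : ℝ}
    (h : Thick η p D I1 π eE fA fB V T w0 R T0 PD ν own c₀) :
    Lab926.LabH D.B D.I I1 (D.G p) D.L π eE fA fB D.lev D.A p.g (fun j v => p.θ j * (1 - v))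
      D.f D.b D.vm D.w p.q p.θ w0 R T0 V T PD (DQ p.g 0 p.q w0) (pathQ p.θ w0 R)
      (EQ p.θ p.g 0 p.q w0 R) ν own c₀
      ⟨rrD p D, D.cr 0, D.cr 1, D.cr 2, D.wr 1, D.wr 2⟩ where
  pre := h.tp.pre
  ext := h.ext
  comb := h.comb
  flag := h.tp.flag
  q0 := tp_q0 h.tp
  big := h.tp.big
  oR := fun v h0 h1 k => ownQ_le h.tp.big V h0 h1 k
  θ1 := h.tp.ok.θ1
  rr0 := rrD_pos p D
  dmax := fun v h0 h1 ε hε => tp_dmax h.tp h0 h1 hε
  wpos := tp_wpos h.tp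
  wab := fun ε hε => tp_wab h.tp hε
  wby := fun ε hε => tp_wby h.tp hε
  wres := fun ε hε => tp_wres h.tp hε
  wcap := fun ε hε => tp_wcap h.tp hε
  wvm := tp_wvm h.tp
  wm0 := tp_m h.tp 0
  wm1 := tp_m h.tp 1
  wm2 := tp_m h.tp 2
  wo1 := tp_o h.tp 1
  wo2 := tp_o h.tp 2

end Crest.Agent.R136.LabT371
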