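import Crest.Agent.R136.End3_882
import Crest.Agent.R136.End4_882

/-!
# R136: END-LAB, window side, part 0 (helper926): one piece

`exists_piece` : a nonempty part of a set of incidences with one label (e.g. one slab) in which all
classes of finitely many partitions are almost full.
-/

set_option autoImplicit false
set_option linter.unusedVariables false

namespace Crest.Agent.R136.Lab926

open Finset Crest.Agent.R136.End882

open Classical in
/-- **one piece**: `F ⊆ E` nonempty, one label, all classes almost full. -/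
theorem exists_piece {α γ : Type*} {E : Finset α} (lb : α → γ) {r : ℕ}
    {β : Fin r → Type*} (cl : ∀ s, α → β s) (μ : Fin r → ℝ) (hμ : ∀ s, 0 ≤ μ s) {N : ℝ}
    (hN : 0 < N) (few : ∀ s, ∀ x ∈ E,
      (((E.filter fun y => cl s y = cl s x).image lb).card : ℝ) ≤ N) (hE : E.Nonempty)
    {A : ℝ} (hA : 0 < A)
    (cnt : ∀ s, ((E.image (cl s)).card : ℝ) * μ s ≤ A * E.card) :
    ∃ F ⊆ E, F.Nonempty ∧ (∀ x ∈ F, ∀ y ∈ F, lb x = lb y) ∧
      ∀ s, ∀ x ∈ F, μ s / (2 * (r + 1) * N * A) ≤
        ((F.filter fun y => cl s y = cl s x).card : ℝ) := by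
  -- labels per class
  have hlab : ∀ s, ((E.image fun x => (cl s x, lb x)).card : ℝ) ≤
      N * ((E.image (cl s)).card : ℝ) := by
    intro s
    have h1 : (E.image fun x => (cl s x, lb x)).card ≤
        ∑ b ∈ E.image (cl s), ((E.filter fun y => cl s y = b).image lb).card := by
      have h2 : (E.image fun x => (cl s x, lb x)) ⊆
          (E.image (cl s)).biUnion fun b =>
            ((E.filter fun y => cl s y = b).image lb).image fun l => (b, l) := by
        intro q hq
        obtain ⟨x, hx, rfl⟩ := mem_image.1 hq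
        refine mem_biUnion.2 ⟨cl s x, mem_image_of_mem _ hx, ?_⟩
        exact mem_image.2 ⟨lb x, mem_image_of_mem _ (mem_filter.2 ⟨hx, rfl⟩), rfl⟩
      refine (card_le_card h2).trans (card_biUnion_le.trans (sum_le_sum fun b _ => card_image_le))
    have h3 : ∀ b ∈ E.image (cl s), (((E.filter fun y => cl s y = b).image lb).card : ℝ) ≤ N := by
      intro b hb
      obtain ⟨x, hx, rfl⟩ := mem_image.1 hb
      exact few s x hx
    calc ((E.image fun x => (cl s x, lb x)).card : ℝ) ≤
        ∑ b ∈ E.image (cl s), (((E.filter fun y => cl s y = b).image lb).card : ℝ) := by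
          exact_mod_cast h1
      _ ≤ ∑ b ∈ E.image (cl s), N := sum_le_sum h3
      _ = N * ((E.image (cl s)).card : ℝ) := by rw [sum_const, nsmul_eq_mul, mul_comm]
  set δ : Fin r → ℝ := fun s => μ s / (2 * (r + 1) * N * A) with hδ
  have hden : 0 < 2 * (r + 1) * N * A := by positivity
  have hδ0 : ∀ s, 0 ≤ δ s := fun s => div_nonneg (hμ s) hden.le
  obtain ⟨F₁, hF₁, hcard, hfull⟩ := prune_classes E
    (fun s x => (cl s x, lb x)) δ hδ0
  have hsum : ∑ s, δ s * ((E.image fun x => (cl s x, lb x)).card : ℝ) ≤ E.card / 2 := by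
    have h1 : ∀ s, δ s * ((E.image fun x => (cl s x, lb x)).card : ℝ) ≤
        E.card / (2 * (r + 1)) := by
      intro s
      calc δ s * ((E.image fun x => (cl s x, lb x)).card : ℝ) ≤
          δ s * (N * ((E.image (cl s)).card : ℝ)) :=
            mul_le_mul_of_nonneg_left (hlab s) (hδ0 s)
        _ = (((E.image (cl s)).card : ℝ) * μ s) / (2 * (r + 1) * A) := by
            simp only [hδ]; field_simp
        _ ≤ (A * E.card) / (2 * (r + 1) * A) := by
            have := cnt s
            gcongr
        _ = E.card / (2 * (r + 1)) := by field_simp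
    calc ∑ s, δ s * ((E.image fun x => (cl s x, lb x)).card : ℝ) ≤
        ∑ _s : Fin r, (E.card : ℝ) / (2 * (r + 1)) := sum_le_sum fun s _ => h1 s
      _ = r * ((E.card : ℝ) / (2 * (r + 1))) := by
          rw [sum_const, nsmul_eq_mul, card_univ, Fintype.card_fin]
      _ ≤ E.card / 2 := by
          rw [mul_div_assoc', div_le_div_iff₀ (by positivity) (by norm_num)]
          have : (0 : ℝ) ≤ E.card := Nat.cast_nonneg _
          nlinarith
  have hEpos : (0 : ℝ) < E.card := by exact_mod_cast card_pos.2 hE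
  have hcard' : (E.card : ℝ) ≤ F₁.card +
      ∑ s, δ s * ((E.image fun x => (cl s x, lb x)).card : ℝ) := by convert hcard
  have hF₁ne : F₁.Nonempty := by
    rw [← card_pos]
    have : (0 : ℝ) < F₁.card := by linarith
    exact_mod_cast this
  obtain ⟨x₀, hx₀⟩ := hF₁ne
  refine ⟨F₁.filter fun x => lb x = lb x₀, (filter_subset _ _).trans hF₁,
    ⟨x₀, mem_filter.2 ⟨hx₀, rfl⟩⟩, ?_, ?_⟩
  · intro x hx y hy
    rw [mem_filter] at hx hy
    exact hx.2.trans hy.2.symm
  · intro s x hx
    rw [mem_filter] at hx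
    refine (hfull s x hx.1).trans (Nat.cast_le.2 (card_le_card fun y hy => ?_))
    simp only [mem_filter, Prod.mk.injEq] at hy
    exact mem_filter.2 ⟨mem_filter.2 ⟨hy.1, hy.2.2.trans hx.2⟩, hy.2.1⟩

end Crest.Agent.R136.Lab926
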