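import Crest.Agent.R136.LabW9_926

/-!
# R136: END-LAB, window side, part 10 (helper926)

**`LabH.window`** : END-LAB in a window at a natural class.
-/

set_option autoImplicit false
set_option linter.unusedSectionVars false
set_option linter.unusedVariables false

open Filter Topology

namespace Crest.Agent.R136.Lab926

open Finset
open Crest.Agent.R138.Ex926
open Crest.Agent.R138.Mk163 (zc zl rho alive)
open Crest.Agent.R138.MkRef627 (lc kc mem_alive)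
open Crest.Agent.R136.Sh605
open Crest.Agent.R136.End403
open Crest.Agent.R136.Net191
open Crest.Agent.R136.NetQ186
open Crest.Agent.R136.GeoQ186
open Crest.Agent.R136.MkA627
open Crest.Agent.R136.Wq638
open Crest.Agent.R136.Lq196
open Crest.Agent.R136.Qg926

section

variable {σ' : Type*} {B B' : Base} {I I1 J : ℕ → Finset (ℕ × ℝ)} {G : Geo σ' (Fin 3)}
    {L : ℕ → ℕ → Ln4} {π : Equiv.Perm (Fin 3)} {eE fA fB : ℕ → ℕ × ℝ → ℝ} {lev : ℕ → ℚ → ℕ}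
    {A : ℕ → ℝ} {g : ℝ} {τ : Fin 3 → ℝ → ℝ} {f : ℕ → ℚ → ℕ → ℤ → ℕ} {b : ℕ → ℚ → ℕ → σ'}
    {vm : ℕ → ℚ → ℝ} {w : Fin 3 → ℕ → ℚ → ℝ} {q θ : Fin 3 → ℝ} {w0 R T0 : ℝ}
    {V T : Fin 11 → Prop} {PD : Set (Fin 11 → ℝ)} {DD : (Fin 11 → ℝ) → ℝ}
    {rp : ℝ → Fin 11 → ℝ} {EE : ℝ → ℝ} {ν own : (Fin 11 → ℝ) → ℝ} {c₀ : ℝ} {rg : Rg}
    {S SJ : ℕ → ℝ} {X : ℕ → Fin 11 → ℝ} {wn : ℕ → ℝ} {DD' : Set (Fin 11 → ℝ)} {TT : ℕ → ℝ}
    {lam : (Fin 11 → ℝ) → ℝ} {R1 v t1 t2 t3 : ℕ → ℝ} {kN k1 v1 γ : ℝ}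
    {co : ℕ → ℕ × ℝ → ℕ × ℝ → Fin 11 → ℝ} {o : ℝ → Fin 11 → ℝ} {i M : ℕ → ℕ} {J0 : ℕ → ℤ}
    {E : ℕ → Finset (ℕ × ℝ)} {s₀ : ℕ → ℕ × ℝ}

/-- a smaller margin -/
theorem WinH.half (W : WinH B B' I I1 J co θ w0 R T0 o S SJ X wn DD' TT lam R1 v t1 t2 t3 kN k1 v1
    γ) : WinH B B' I I1 J co θ w0 R T0 o S SJ X wn DD' TT lam R1 v t1 t2 t3 kN k1 v1 (γ / 2) :=
  { W with
    hγ := half_pos W.hγ
    tg := fun n => by have := W.tg n; have := W.hγ; linarith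
    tR := fun n => by have := W.tR n; have := W.hγ; linarith }

/-- own counts at the two boxes -/
theorem WinH.hown (W : WinH B B' I I1 J co θ w0 R T0 (ownQ θ w0 R V) S SJ X wn DD' TT lam R1 v t1
    t2 t3 kN k1 v1 γ)
    (ext : ExtQ B I I1 co monQ 2 R 0 w0 0 PD DD rp (ownQ θ w0 R V) EE T ν own c₀)
    (oR : ∀ v : ℝ, 0 ≤ v → v ≤ 1 → ∀ k, ownQ θ w0 R V v k ≤ R) :
    ∀ᶠ n in (U : Filter ℕ), ∀ c ∈ ({c | c = 0 ∨ c = pdB k1 kN} : Set (Fin 11 → ℝ)),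
      X n + wn n • c ∈ Leg monQ R ∧ own (X n + wn n • c) = 1 - v n - wn n * c 0 := by
  filter_upwards [W.hz.legal ‖pdB k1 kN‖, W.own0, W.own1, W.ev_w] with n h1 h2 h3 h4 c hc
  rcases hc with rfl | rfl
  · have e0 : X n + wn n • (0 : Fin 11 → ℝ) = X n := by simp
    rw [e0]
    refine ⟨W.leg n, ?_⟩
    have hv0 := W.v0 n
    have hv1 := W.vv n
    have hv2 := W.hv1
    rw [ext.own_rot (X n) (W.leg n) (v n) hv0 (by linarith) (W.X0 n) h2]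
    simp
  · have hl : X n + wn n • pdB k1 kN ∈ Leg monQ R :=
      ⟨h1 _ W.pdD le_rfl, fun k => (h3 k).trans (oR _ h4.1 h4.2 k)⟩
    refine ⟨hl, ?_⟩
    rw [ext.own_rot _ hl (v n + wn n * k1) h4.1 h4.2 (W.Xp0 n) h3]
    have e1 : pdB k1 kN 0 = k1 := rfl
    rw [e1]
    ring

set_option maxHeartbeats 1600000 in
/-- **END-LAB in a window at a natural class** -/
theorem LabH.window (H : LabH B I I1 G L π eE fA fB lev A g τ f b vm w q θ w0 R T0 V T PD DD rp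
    EE ν own c₀ rg) (hKM : ∀ V : ℝ, Crest.Agent.R138.Tub70.KM32 V) {v1 γ : ℝ} (hv1 : v1 < 1)
    (hγ : 0 < γ) :
    ∃ S : ℕ → ℝ, B.Sub S ∧ (∀ n, 1 ≤ S n) ∧ ∀ (B' : Base) (J : ℕ → Finset (ℕ × ℝ)) (SJ : ℕ → ℝ)
      (X : ℕ → Fin 11 → ℝ) (wn : ℕ → ℝ) (DD' : Set (Fin 11 → ℝ)) (TT : ℕ → ℝ)
      (lam : (Fin 11 → ℝ) → ℝ) (R1 v t1 t2 t3 : ℕ → ℝ) (kN k1 : ℝ),
      WinH B B' I I1 J (couQ B lev w w0 (incQ π L eE fA fB)) θ w0 R T0 (ownQ θ w0 R V) S SJ X wn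
        DD' TT lam R1 v t1 t2 t3 kN k1 v1 γ →
      ∀ ε : ℝ, 0 < ε → ∀ᶠ n in (U : Filter ℕ),
        ν (X n) + wn n * (lam (pdB k1 kN) + 3 * k1 + kN - ε) ≤
          c₀ + (g * v n + (1 - v n) - ((v n + t3 n) + (v n + t2 n) + (v n + t1 n)) -
            (q 0 * t3 n + q 1 * t1 n + q 2 * t2 n)) := by
  obtain ⟨S, hS, hS1, hG⟩ := H.exists_glob hv1 (half_pos hγ)
  refine ⟨S, hS, hS1, ?_⟩
  intro B' J SJ X wn DD' TT lam R1 v t1 t2 t3 kN k1 W ε hε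
  have W' := W.half
  have hown := W.hown H.ext H.oR
  obtain ⟨i, M, J0, E, s₀, hF⟩ := W'.exists_fam hG H.pre.zco hown
  -- the relation
  obtain ⟨e, he, hesub, hrele⟩ := exists_err B' (fun ε n => ∀ s ∈ J n, ∃ α β c : ℝ,
    |α| ≤ B'.d n ^ (-ε) ∧ |β| ≤ B'.d n ^ (-ε) ∧ ∀ y ∈ J n,
      zlab B I (couQ B lev w w0 (incQ π L eE fA fB)) monQ 2 X wn n 0 y =
        zlab B I (couQ B lev w w0 (incQ π L eE fA fB)) monQ 2 X wn n 0 s →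
        |couQ B lev w w0 (incQ π L eE fA fB) n s y 7 / B.d n ^ X n 7 -
          α * (couQ B lev w w0 (incQ π L eE fA fB) n s y 5 / B.d n ^ X n 5) -
          β * (couQ B lev w w0 (incQ π L eE fA fB) n s y 6 / B.d n ^ X n 6) - c| ≤
          B'.d n ^ (kN - ε)) W.rel
  have hch : ∀ n, ∃ ab : ℝ × ℝ, (s₀ n ∈ J n → ∃ α β c : ℝ,
      |α| ≤ B'.d n ^ (-(e n)) ∧ |β| ≤ B'.d n ^ (-(e n)) ∧ ∀ y ∈ J n,
      zlab B I (couQ B lev w w0 (incQ π L eE fA fB)) monQ 2 X wn n 0 y =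
        zlab B I (couQ B lev w w0 (incQ π L eE fA fB)) monQ 2 X wn n 0 (s₀ n) →
        |couQ B lev w w0 (incQ π L eE fA fB) n (s₀ n) y 7 / B.d n ^ X n 7 -
          α * (couQ B lev w w0 (incQ π L eE fA fB) n (s₀ n) y 5 / B.d n ^ X n 5) -
          β * (couQ B lev w w0 (incQ π L eE fA fB) n (s₀ n) y 6 / B.d n ^ X n 6) - c| ≤
          B'.d n ^ (kN - e n)) → s₀ n ∈ J n →
      (|ab.1| ≤ B'.d n ^ (-(e n)) ∧ |ab.2| ≤ B'.d n ^ (-(e n)) ∧ ∃ c : ℝ, ∀ y ∈ J n,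
      zlab B I (couQ B lev w w0 (incQ π L eE fA fB)) monQ 2 X wn n 0 y =
        zlab B I (couQ B lev w w0 (incQ π L eE fA fB)) monQ 2 X wn n 0 (s₀ n) →
        |couQ B lev w w0 (incQ π L eE fA fB) n (s₀ n) y 7 / B.d n ^ X n 7 -
          ab.1 * (couQ B lev w w0 (incQ π L eE fA fB) n (s₀ n) y 5 / B.d n ^ X n 5) -
          ab.2 * (couQ B lev w w0 (incQ π L eE fA fB) n (s₀ n) y 6 / B.d n ^ X n 6) - c| ≤
          B'.d n ^ (kN - e n)) := by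
    intro n
    by_cases h : s₀ n ∈ J n ∧ ∃ α β c : ℝ,
      |α| ≤ B'.d n ^ (-(e n)) ∧ |β| ≤ B'.d n ^ (-(e n)) ∧ ∀ y ∈ J n,
      zlab B I (couQ B lev w w0 (incQ π L eE fA fB)) monQ 2 X wn n 0 y =
        zlab B I (couQ B lev w w0 (incQ π L eE fA fB)) monQ 2 X wn n 0 (s₀ n) →
        |couQ B lev w w0 (incQ π L eE fA fB) n (s₀ n) y 7 / B.d n ^ X n 7 -
          α * (couQ B lev w w0 (incQ π L eE fA fB) n (s₀ n) y 5 / B.d n ^ X n 5) -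
          β * (couQ B lev w w0 (incQ π L eE fA fB) n (s₀ n) y 6 / B.d n ^ X n 6) - c| ≤
          B'.d n ^ (kN - e n)
    · obtain ⟨h1, a, b, c, h2, h3, h4⟩ := h
      exact ⟨(a, b), fun _ _ => ⟨h2, h3, c, h4⟩⟩
    · exact ⟨(0, 0), fun h1 h2 => absurd ⟨h2, h1 h2⟩ h⟩
  choose ab hab using hch
  have hgood : ∀ᶠ n in (U : Filter ℕ), |(ab n).1| ≤ B'.d n ^ (-(e n)) ∧
      |(ab n).2| ≤ B'.d n ^ (-(e n)) ∧ ∃ c : ℝ, ∀ y ∈ J n,
      zlab B I (couQ B lev w w0 (incQ π L eE fA fB)) monQ 2 X wn n 0 y =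
        zlab B I (couQ B lev w w0 (incQ π L eE fA fB)) monQ 2 X wn n 0 (s₀ n) →
        |couQ B lev w w0 (incQ π L eE fA fB) n (s₀ n) y 7 / B.d n ^ X n 7 -
          (ab n).1 * (couQ B lev w w0 (incQ π L eE fA fB) n (s₀ n) y 5 / B.d n ^ X n 5) -
          (ab n).2 * (couQ B lev w w0 (incQ π L eE fA fB) n (s₀ n) y 6 / B.d n ^ X n 6) - c| ≤
          B'.d n ^ (kN - e n) := by
    filter_upwards [hrele, hF.smem] with n h1 h2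
    exact hab n (fun h3 => h1 _ h3) h2
  have hα : ∀ ε : ℝ, 0 < ε → ∀ᶠ n in (U : Filter ℕ), |(ab n).1| ≤ B'.d n ^ (-ε) ∧
      |(ab n).2| ≤ B'.d n ^ (-ε) := by
    intro ε hε
    filter_upwards [hgood, sub_le_rpow hesub hε] with n h1 h2
    exact ⟨h1.1.trans h2.2, h1.2.1.trans h2.2⟩
  have hrel : ∀ ε : ℝ, 0 < ε → ∀ᶠ n in (U : Filter ℕ), ∃ c : ℝ, ∀ y ∈ J n,
      zlab B I (couQ B lev w w0 (incQ π L eE fA fB)) monQ 2 X wn n 0 y =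
        zlab B I (couQ B lev w w0 (incQ π L eE fA fB)) monQ 2 X wn n 0 (s₀ n) →
        |couQ B lev w w0 (incQ π L eE fA fB) n (s₀ n) y 7 / B.d n ^ X n 7 -
          (ab n).1 * (couQ B lev w w0 (incQ π L eE fA fB) n (s₀ n) y 5 / B.d n ^ X n 5) -
          (ab n).2 * (couQ B lev w w0 (incQ π L eE fA fB) n (s₀ n) y 6 / B.d n ^ X n 6) - c| ≤
          B'.d n ^ (kN - ε) := by
    intro ε hε
    filter_upwards [hgood, sub_le_rpow hesub hε] with n h1 h2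
    obtain ⟨-, -, c, hc⟩ := h1
    refine ⟨c, fun y hy hyl => (hc y hy hyl).trans ?_⟩
    rw [sub_eq_add_neg, Real.rpow_add (B'.pos n), sub_eq_add_neg, Real.rpow_add (B'.pos n)]
    exact mul_le_mul_of_nonneg_left h2.2 (Real.rpow_pos_of_pos (B'.pos n) _).le
  have hslab := W'.slabIn H.wpos hF hα hrel
  have hbody := W.bodyIn H hG hF hα
  filter_upwards [hslab.concl2 hKM hbody (half_pos hε), W'.T_low hG (half_pos hε)] with n h1 h2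
  have hd := B.pos n
  have hp' : ∀ t : ℝ, 0 < B'.d n ^ t := fun t => Real.rpow_pos_of_pos (B'.pos n) t
  have hdw : ∀ t : ℝ, B'.d n ^ t = B.d n ^ (wn n * t) := fun t => by
    rw [W.hz.base n, ← Real.rpow_mul hd.le]
  have h3 : B.d n ^ (-(ν (X n))) * B'.d n ^ (ε / 2) *
      B'.d n ^ (-lam (pdB k1 kN) - 3 * k1 + ε / 2) ≤
      B.d n ^ (-(c₀ + DN g q (v n) (t1 n) (t2 n) (t3 n))) * B'.d n ^ kN :=
    (mul_le_mul_of_nonneg_right h2 (hp' _).le).trans h1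
  rw [hdw, hdw, hdw, ← Real.rpow_add hd, ← Real.rpow_add hd, ← Real.rpow_add hd,
    Real.rpow_le_rpow_left_iff_of_base_lt_one hd (B.lt n)] at h3
  unfold DN at h3
  linarith

end

end Crest.Agent.R136.Lab926
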