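import Crest.Agent.R136.LabW0_926
import Crest.Agent.R136.End4a_403
import Crest.Agent.R136.Lab2_544

/-!
# R136: END-LAB, window side, part 1 (helper926)

`SlabIn` : a family of incidences over one cell whose lines have a common velocity for one functional
`χ` (sequences, all losses `d'^(-ε)`); `SlabIn.piece` : for every `ε` a nonempty piece of it inside
one slab, with full own counts and full classes of small boxes; `SlabIn.concl` : 544's `lab_fin`
applied to the piece.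
-/

set_option autoImplicit false
set_option linter.unusedSectionVars false
set_option linter.unusedVariables false

open Filter Topology

namespace Crest.Agent.R136.Lab926

open Finset Crest.Agent.R138.Ex926 Crest.Agent.R136.Qg926 Crest.Agent.R136.Sh605
open Crest.Agent.R138.Mk163 (zc zl rho)
open Crest.Agent.R136.End403 (cells_le)
open Crest.Agent.R136.HR829 (Wd)
open Crest.Agent.R136.Lab544 (Dual lab_fin)

open Classical in
/-- **a family of incidences in slabs**; `χ n` = slab functional, `ψ n 0, ψ n 1` = base functionals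
(normalised by the sizes of the family), `kN` = thickness exponent, `k1` = exponent of the small
boxes `dp`. -/
structure SlabIn {γ : Type} (B' : Base) (E : ℕ → Finset (ℕ × ℝ)) (L : ℕ → ℕ → Ln4)
    (χ : ℕ → V3) (ψ : ℕ → Fin 2 → V3) (i M : ℕ → ℕ) (J0 : ℕ → ℤ) (T To : ℕ → ℝ)
    (kN k1 l1 : ℝ) (dp : ℕ → ℕ × ℝ → γ) : Prop where
  ne : ∀ᶠ n in (U : Filter ℕ), (E n).Nonempty
  T0 : ∀ n, 0 < T n
  To0 : ∀ n, 0 < To n
  kN0 : 0 < kN
  k10 : 0 < k1
  cell : ∀ᶠ n in (U : Filter ℕ), ∀ x ∈ E n, zc (i n) x.2 = J0 n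
  /-- natural sizes -/
  wide : ∀ ε : ℝ, 0 < ε → ∀ᶠ n in (U : Filter ℕ), ∀ x ∈ E n, ∀ y ∈ E n, ∀ z : ℝ,
    zl (i n) (J0 n) ≤ z → z ≤ zl (i n) (J0 n) + rho (i n) →
      ∀ j, |dt (ψ n j) ((L n y.1).pos z - (L n x.1).pos z)| ≤ B'.d n ^ (-ε)
  /-- one velocity -/
  vel : ∀ ε : ℝ, 0 < ε → ∀ᶠ n in (U : Filter ℕ), ∀ x ∈ E n, ∀ y ∈ E n,
    |dt (χ n) ((L n y.1).v - (L n x.1).v)| * rho (i n) ≤ B'.d n ^ (kN - ε)
  /-- small boxes -/
  small : ∀ ε : ℝ, 0 < ε → ∀ᶠ n in (U : Filter ℕ), ∀ x ∈ E n, ∀ y ∈ E n, dp n x = dp n y →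
    zc (i n + M n + 1) y.2 = zc (i n + M n + 1) x.2 ∧
    |dt (χ n) ((L n y.1).pos x.2 - (L n x.1).pos x.2)| ≤ B'.d n ^ (kN - ε) ∧
    ∀ j, |dt (ψ n j) ((L n y.1).pos x.2 - (L n x.1).pos x.2)| ≤ B'.d n ^ (k1 - ε)
  /-- number of small boxes -/
  snum : ∀ ε : ℝ, 0 < ε → ∀ᶠ n in (U : Filter ℕ),
    (((E n).image (dp n)).card : ℝ) * (T n * B'.d n ^ (-l1)) ≤ B'.d n ^ (-ε) * (E n).card
  /-- own counts -/
  onum : ∀ ε : ℝ, 0 < ε → ∀ᶠ n in (U : Filter ℕ),
    (((E n).image fun x => (x.1, zc (i n) x.2)).card : ℝ) * To n ≤ B'.d n ^ (-ε) * (E n).card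
  oup : ∀ ε : ℝ, 0 < ε → ∀ᶠ n in (U : Filter ℕ), ∀ x ∈ E n,
    (((E n).filter fun y => y.1 = x.1 ∧ zc (i n + M n + 1) y.2 = zc (i n + M n + 1) x.2).card : ℝ) ≤
      To n * B'.d n ^ (k1 - ε)
  /-- resolution -/
  Mlow : ∀ ε : ℝ, 0 < ε → ∀ᶠ n in (U : Filter ℕ), B'.d n ^ (-(k1 - ε)) ≤ (2 : ℝ) ^ M n
  Mup : ∀ᶠ n in (U : Filter ℕ), (2 : ℝ) ^ M n ≤ 1 / 2 * B'.d n ^ (-k1)

section

variable {γ : Type} {B' : Base} {E : ℕ → Finset (ℕ × ℝ)} {L : ℕ → ℕ → Ln4}
    {χ : ℕ → V3} {ψ : ℕ → Fin 2 → V3} {i M : ℕ → ℕ} {J0 : ℕ → ℤ} {T To : ℕ → ℝ}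
    {kN k1 l1 : ℝ} {dp : ℕ → ℕ × ℝ → γ}

theorem rho_pos (i : ℕ) : 0 < rho i := by unfold rho; positivity

theorem in_cell {i : ℕ} {J : ℤ} {z : ℝ} (h : zc i z = J) : zl i J ≤ z ∧ z ≤ zl i J + rho i := by
  have h2 : (0 : ℝ) < 2 ^ i := by positivity
  have h1 := Int.floor_eq_iff.1 (show ⌊(2 : ℝ) ^ i * z⌋ = J from h)
  unfold zl rho
  rw [← add_div, div_le_iff₀ h2, le_div_iff₀ h2]
  constructor <;> linarith [h1.1, h1.2]

theorem pos_sub (t y : Ln4) (z z' : ℝ) :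
    t.pos z - y.pos z = (t.pos z' - y.pos z') + (z - z') • (t.v - y.v) := by
  funext k
  simp only [Ln4.pos, Pi.sub_apply, Pi.add_apply, Pi.smul_apply, smul_eq_mul]
  ring

open Classical in
/-- **one piece in one slab** -/
theorem SlabIn.piece (h : SlabIn B' E L χ ψ i M J0 T To kN k1 l1 dp) {ε : ℝ} (hε : 0 < ε) :
    ∀ᶠ n in (U : Filter ℕ), ∃ F ⊆ E n, ∃ x₀ ∈ F,
      -- one slab
      (∀ x ∈ F, zc (i n) x.2 = J0 n) ∧
      (∀ x ∈ F, ∀ z : ℝ, zl (i n) (J0 n) ≤ z → z ≤ zl (i n) (J0 n) + rho (i n) →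
        |dt (χ n) ((L n x.1).pos z - (L n x₀.1).pos z)| ≤ B'.d n ^ (kN - ε) ∧
        ∀ j, |dt (ψ n j) ((L n x.1).pos z - (L n x₀.1).pos z)| ≤ B'.d n ^ (-ε)) ∧
      -- own counts
      (∀ x ∈ F, To n * B'.d n ^ ε ≤ ((F.filter fun y => y.1 = x.1).card : ℝ)) ∧
      (∀ x ∈ F, ((F.filter fun y => y.1 = x.1 ∧
        zc (i n + M n + 1) y.2 = zc (i n + M n + 1) x.2).card : ℝ) ≤
          To n * B'.d n ^ (k1 - ε)) ∧
      -- small boxes
      ∀ x ∈ F, T n * B'.d n ^ (-l1 + ε) ≤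
        ((F.filter fun y => zc (i n + M n + 1) y.2 = zc (i n + M n + 1) x.2 ∧
          ∀ j, |dt (ψ n j) ((L n y.1).pos x.2 - (L n x.1).pos x.2)| ≤
            B'.d n ^ (k1 - ε)).card : ℝ) := by
  set δ : ℝ := ε / 8 with hδ
  have hδ0 : 0 < δ := by positivity
  filter_upwards [h.ne, h.cell, h.wide δ hδ0, h.vel δ hδ0, h.small δ hδ0, h.snum δ hδ0,
    h.onum δ hδ0, h.oup δ hδ0, ev_const_le B' (show (0 : ℝ) < 100 by norm_num) hδ0] with
    n hne hcell hwide hvel hsmall hsnum honum houp h100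
  have hd := B'.pos n
  have hd1 := (B'.lt n).le
  have hp : ∀ t : ℝ, 0 < B'.d n ^ t := fun t => Real.rpow_pos_of_pos hd t
  have hanti : ∀ {s t : ℝ}, s ≤ t → B'.d n ^ t ≤ B'.d n ^ s := fun hst =>
    Real.rpow_le_rpow_of_exponent_ge hd hd1 hst
  have hmul : ∀ s t : ℝ, B'.d n ^ s * B'.d n ^ t = B'.d n ^ (s + t) := fun s t =>
    (Real.rpow_add hd s t).symm
  have hT := h.T0 n
  have hTo := h.To0 n
  have hρ := rho_pos (i n)
  set z0 := zl (i n) (J0 n) with hz0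
  set A : ℝ := B'.d n ^ (-δ) with hA
  have hA0 : 0 < A := hp _
  set a : ℝ := B'.d n ^ kN with ha'
  have ha : 0 < a := hp _
  have hAa : ∀ t : ℝ, B'.d n ^ (kN - t) = B'.d n ^ (-t) * a := fun t => by
    rw [ha', hmul]; congr 1; ring
  -- slab label
  set lb : ℕ × ℝ → ℤ := fun x => ⌊dt (χ n) ((L n x.1).pos z0) / a⌋ with hlb
  set cl : ∀ s : Fin 2, ℕ × ℝ → (ℕ × ℤ) ⊕ γ := fun s x =>
    if s = 0 then Sum.inl (x.1, zc (i n) x.2) else Sum.inr (dp n x) with hcl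
  set μ : Fin 2 → ℝ := fun s => if s = 0 then To n else T n * B'.d n ^ (-l1) with hμ
  have hμ0 : ∀ s, 0 ≤ μ s := by
    intro s
    simp only [hμ]
    split_ifs
    · exact hTo.le
    · exact (mul_pos hT (hp _)).le
  have hN : (0 : ℝ) < B'.d n ^ (-(2 * δ)) := hp _
  -- few slabs per class
  have hfew : ∀ s, ∀ x ∈ E n,
      ((((E n).filter fun y => cl s y = cl s x).image lb).card : ℝ) ≤ B'.d n ^ (-(2 * δ)) := by
    intro s x hx
    have hone : (1 : ℝ) ≤ B'.d n ^ (-(2 * δ)) :=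
      Real.one_le_rpow_of_pos_of_le_one_of_nonpos hd hd1 (by linarith)
    by_cases hs : s = 0
    · have : (((E n).filter fun y => cl s y = cl s x).image lb) ⊆ {lb x} := by
        intro b hb
        obtain ⟨y, hy, rfl⟩ := mem_image.1 hb
        have h2 := (mem_filter.1 hy).2
        simp only [hcl, if_pos hs, Sum.inl.injEq, Prod.mk.injEq] at h2
        rw [mem_singleton, hlb]
        simp only [h2.1]
      have h3 := card_le_card this
      rw [card_singleton] at h3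
      refine le_trans ?_ hone
      exact_mod_cast h3
    · have h3 := cells_le ((E n).filter fun y => cl s y = cl s x)
        (fun y => dt (χ n) ((L n y.1).pos z0) / a) (dt (χ n) ((L n x.1).pos z0) / a)
        (t := 2 * A) (fun y hy => by
          obtain ⟨hy1, hy2⟩ := mem_filter.1 hy
          simp only [hcl, if_neg hs, Sum.inr.injEq] at hy2
          obtain ⟨-, h4, -⟩ := hsmall x hx y hy1 hy2.symm
          have h5 := hvel x hx y hy1
          rw [hAa] at h4 h5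
          obtain ⟨c1, c2⟩ := in_cell (hcell x hx)
          have e1 : dt (χ n) ((L n y.1).pos z0) / a - dt (χ n) ((L n x.1).pos z0) / a =
              (dt (χ n) ((L n y.1).pos x.2 - (L n x.1).pos x.2) +
                (z0 - x.2) * dt (χ n) ((L n y.1).v - (L n x.1).v)) / a := by
            rw [← sub_div, ← dt_sub, pos_sub _ _ z0 x.2, dt_add, dt_smul]
          rw [e1, abs_div, abs_of_pos ha, div_le_iff₀ ha]
          refine (abs_add_le _ _).trans ?_
          rw [abs_mul]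
          have h6 : |z0 - x.2| ≤ rho (i n) := by
            rw [abs_sub_comm, abs_of_nonneg (by linarith)]; linarith
          have h7 : |z0 - x.2| * |dt (χ n) ((L n y.1).v - (L n x.1).v)| ≤ A * a := by
            refine le_trans ?_ h5
            rw [mul_comm]
            exact mul_le_mul_of_nonneg_left h6 (abs_nonneg _)
          linarith) (by positivity)
      refine h3.trans ?_
      have h4 : (100 : ℝ) * A ≤ B'.d n ^ (-(2 * δ)) := by
        have : B'.d n ^ (-(2 * δ)) = B'.d n ^ (-δ) * B'.d n ^ (-δ) := by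
          rw [hmul]; congr 1; ring
        rw [this]
        exact mul_le_mul_of_nonneg_right h100 hA0.le
      have h5 : (1 : ℝ) ≤ A := Real.one_le_rpow_of_pos_of_le_one_of_nonpos hd hd1 (by linarith)
      linarith
  obtain ⟨F, hF, hFne, hFlb, hFc⟩ := exists_piece lb cl μ hμ0 hN
    (fun s x hx => by convert hfew s x hx) hne hA0 (by
    intro s
    by_cases hs : s = 0
    · have e1 : ((E n).image (cl s)).card ≤ ((E n).image fun x => (x.1, zc (i n) x.2)).card := by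
        have : (E n).image (cl s) = ((E n).image fun x => (x.1, zc (i n) x.2)).image
            (Sum.inl : ℕ × ℤ → (ℕ × ℤ) ⊕ γ) := by
          rw [image_image]
          refine image_congr fun x _ => ?_
          simp only [hcl, if_pos hs, Function.comp]
        rw [this]; exact card_image_le
      simp only [hμ, if_pos hs]
      refine le_trans ?_ honum
      refine mul_le_mul_of_nonneg_right (Nat.cast_le.2 ?_) hTo.le
      convert e1
    · have e1 : ((E n).image (cl s)).card ≤ ((E n).image (dp n)).card := by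
        have : (E n).image (cl s) = ((E n).image (dp n)).image
            (Sum.inr : γ → (ℕ × ℤ) ⊕ γ) := by
          rw [image_image]
          refine image_congr fun x _ => ?_
          simp only [hcl, if_neg hs, Function.comp]
        rw [this]; exact card_image_le
      simp only [hμ, if_neg hs]
      refine le_trans ?_ hsnum
      refine mul_le_mul_of_nonneg_right (Nat.cast_le.2 ?_) (mul_pos hT (hp _)).le
      convert e1)
  obtain ⟨x₀, hx₀⟩ := hFne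
  have hden : 2 * (((2 : ℕ) : ℝ) + 1) * B'.d n ^ (-(2 * δ)) * A ≤ B'.d n ^ (-(4 * δ)) := by
    have e1 : B'.d n ^ (-(4 * δ)) = B'.d n ^ (-δ) * (B'.d n ^ (-(2 * δ)) * A) := by
      rw [hA, hmul, hmul]; congr 1; ring
    rw [e1]
    have h1 : 0 < B'.d n ^ (-(2 * δ)) * A := mul_pos (hp _) hA0
    push_cast
    nlinarith
  have hlow : ∀ s, ∀ x ∈ F, μ s * B'.d n ^ (4 * δ) ≤
      ((F.filter fun y => cl s y = cl s x).card : ℝ) := by
    intro s x hx
    have h0 : μ s / (2 * (((2 : ℕ) : ℝ) + 1) * B'.d n ^ (-(2 * δ)) * A) ≤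
        ((F.filter fun y => cl s y = cl s x).card : ℝ) := by convert hFc s x hx
    refine le_trans ?_ h0
    rw [le_div_iff₀ (by positivity)]
    calc μ s * B'.d n ^ (4 * δ) * (2 * (((2 : ℕ) : ℝ) + 1) * B'.d n ^ (-(2 * δ)) * A)
        ≤ μ s * B'.d n ^ (4 * δ) * B'.d n ^ (-(4 * δ)) :=
          mul_le_mul_of_nonneg_left hden (mul_nonneg (hμ0 s) (hp _).le)
      _ = μ s := by
          rw [mul_assoc, hmul, add_neg_cancel, Real.rpow_zero, mul_one]
  refine ⟨F, hF, x₀, hx₀, fun x hx => hcell x (hF hx), ?_, ?_, ?_, ?_⟩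
  · intro x hx z hz1 hz2
    have w1 := hwide x₀ (hF hx₀) x (hF hx) z hz1 hz2
    have hle : A ≤ B'.d n ^ (-ε) := hanti (by rw [hδ]; linarith)
    refine ⟨?_, fun j => (w1 j).trans hle⟩
    -- position in the slab
    have h1 : |dt (χ n) ((L n x.1).pos z0 - (L n x₀.1).pos z0)| ≤ a := by
      have h2 : lb x = lb x₀ := hFlb x hx x₀ hx₀
      simp only [hlb] at h2
      have h3 := Int.abs_sub_lt_one_of_floor_eq_floor h2
      rw [← sub_div, ← dt_sub, abs_div, abs_of_pos ha, div_lt_one ha] at h3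
      exact h3.le
    have h2 := hvel x₀ (hF hx₀) x (hF hx)
    rw [hAa] at h2
    rw [pos_sub _ _ z z0, dt_add, dt_smul]
    refine (abs_add_le _ _).trans ?_
    rw [abs_mul]
    have h6 : |z - z0| ≤ rho (i n) := by
      rw [abs_of_nonneg (by linarith)]; linarith
    have h7 : |z - z0| * |dt (χ n) ((L n x.1).v - (L n x₀.1).v)| ≤ A * a := by
      refine le_trans ?_ h2
      rw [mul_comm]
      exact mul_le_mul_of_nonneg_left h6 (abs_nonneg _)
    have h8 : (1 : ℝ) ≤ A := Real.one_le_rpow_of_pos_of_le_one_of_nonpos hd hd1 (by linarith)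
    have h9 : 2 * A ≤ B'.d n ^ (-ε) := by
      have e1 : B'.d n ^ (-(2 * δ)) = B'.d n ^ (-δ) * A := by rw [hA, hmul]; congr 1; ring
      have e2 : B'.d n ^ (-(2 * δ)) ≤ B'.d n ^ (-ε) := hanti (by rw [hδ]; linarith)
      refine le_trans ?_ e2
      rw [e1]
      nlinarith
    rw [hAa]
    nlinarith
  · intro x hx
    have h1 := hlow 0 x hx
    simp only [hμ, if_pos] at h1
    refine le_trans (mul_le_mul_of_nonneg_left (hanti (by rw [hδ]; linarith)) hTo.le)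
      (h1.trans (Nat.cast_le.2 (card_le_card fun y hy => ?_)))
    obtain ⟨hy1, hy2⟩ := mem_filter.1 hy
    simp only [hcl, if_pos, Sum.inl.injEq, Prod.mk.injEq] at hy2
    exact mem_filter.2 ⟨hy1, hy2.1⟩
  · intro x hx
    refine le_trans (Nat.cast_le.2 (card_le_card fun y hy => ?_))
      ((houp x (hF hx)).trans (mul_le_mul_of_nonneg_left (hanti (by rw [hδ]; linarith)) hTo.le))
    obtain ⟨hy1, hy2⟩ := mem_filter.1 hy
    exact mem_filter.2 ⟨hF hy1, hy2⟩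
  · intro x hx
    have h10 : ¬ ((1 : Fin 2) = 0) := by decide
    have h1 := hlow 1 x hx
    simp only [hμ, if_neg h10] at h1
    have e1 : T n * B'.d n ^ (-l1 + ε) ≤ T n * B'.d n ^ (-l1) * B'.d n ^ (4 * δ) := by
      rw [mul_assoc, hmul]
      exact mul_le_mul_of_nonneg_left (hanti (by rw [hδ]; linarith)) hT.le
    refine e1.trans (h1.trans (Nat.cast_le.2 (card_le_card fun y hy => ?_)))
    obtain ⟨hy1, hy2⟩ := mem_filter.1 hy
    simp only [hcl, if_neg h10, Sum.inr.injEq] at hy2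
    obtain ⟨g1, -, g3⟩ := hsmall x (hF hx) y (hF hy1) hy2.symm
    exact mem_filter.2 ⟨hy1, g1, fun j => (g3 j).trans (hanti (by rw [hδ]; linarith))⟩

open Classical in
/-- **frame, resolution, cap and D-max** -/
structure FrameIn (B' : Base) (E : ℕ → Finset (ℕ × ℝ)) (L : ℕ → ℕ → Ln4) (χ : ℕ → V3)
    (ψ : ℕ → Fin 2 → V3) (i : ℕ → ℕ) (J0 : ℕ → ℤ) (kN k1 : ℝ) (φ e : ℕ → Fin 3 → V3) (a : ℕ → ℝ)
    (w : ℕ → V3) (r0 wmax Dn : ℕ → ℝ) (R : ℕ → ℝ → ℝ → ℝ → ℝ) : Prop where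
  dual : ∀ n, Dual (χ n) (ψ n) (φ n)
  ortho : ∀ n, Ortho (e n)
  a0 : ∀ n, 0 < a n
  aw : ∀ᶠ n in (U : Filter ℕ), a n ≤ w n 2
  w21 : ∀ᶠ n in (U : Filter ℕ), w n 2 ≤ w n 1
  fr : ∀ ε : ℝ, 0 < ε → ∀ᶠ n in (U : Filter ℕ), ∀ j k,
    |dt (e n j) (φ n k)| ≤ B'.d n ^ (-ε) * Wd (a n) (w n) j
  rχ : ∀ᶠ n in (U : Filter ℕ), r0 n ^ 2 * dt (χ n) (χ n) ≤ (B'.d n ^ kN) ^ 2
  rψ : ∀ᶠ n in (U : Filter ℕ), ∀ j, r0 n ^ 2 * dt (ψ n j) (ψ n j) ≤ (B'.d n ^ k1) ^ 2
  wm : ∃ ε : ℝ, 0 < ε ∧ ∀ᶠ n in (U : Filter ℕ), B'.d n ^ (-ε) * w n 1 ≤ wmax n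
  D0 : ∀ n, 0 ≤ Dn n
  R0 : ∀ n x y z, 0 ≤ x → 0 ≤ y → 0 ≤ z → 0 ≤ R n x y z
  Rm : ∀ n x y z x' y' z', 0 ≤ x → 0 ≤ y → 0 ≤ z → x ≤ x' → y ≤ y' → z ≤ z' →
    R n x y z ≤ R n x' y' z'
  dmax : ∀ᶠ n in (U : Filter ℕ), ∀ (e' : Fin 3 → V3) (c' : Ln4) (w' : V3)
    (q' : ℝ → V3 → ℝ) (a' : ℝ), ShN e' c' w' q' a' (zl (i n) (J0 n)) (rho (i n)) (r0 n) →
    w' 1 ≤ wmax n →
    (((E n).filter fun x : ℕ × ℝ => InSheet (L n x.1) e' c' w' q' a' (zl (i n) (J0 n))
      (rho (i n))).card : ℝ) ≤ Dn n * (a' * w' 2 * w' 1 * R n a' (w' 2) (w' 1))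

theorem dual_scale {χ : V3} {ψ : Fin 2 → V3} {φ : Fin 3 → V3} (h : Dual χ ψ φ) {K : ℝ}
    (hK : K ≠ 0) : Dual ((1 / K) • χ) (fun j => (1 / K) • ψ j) (fun j => K • φ j) := by
  intro δ
  conv_rhs => rw [← h δ]
  rw [smul_dt, smul_dt, smul_dt, smul_smul, smul_smul, smul_smul]
  have e1 : ∀ t : ℝ, 1 / K * t * K = t := fun t => by field_simp
  rw [e1, e1, e1]

theorem abs_dt_scale (χ δ : V3) {K : ℝ} (hK : 0 < K) : |dt ((1 / K) • χ) δ| = |dt χ δ| / K := by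
  rw [smul_dt, abs_mul, abs_of_pos (by positivity)]
  ring

theorem dt_scale_sq (χ : V3) {K : ℝ} (hK : 0 < K) :
    dt ((1 / K) • χ) ((1 / K) • χ) = dt χ χ / K ^ 2 := by
  rw [smul_dt, dt_smul]
  field_simp

theorem dt_self_nonneg (χ : V3) : 0 ≤ dt χ χ := by
  unfold dt
  have h1 := mul_self_nonneg (χ 0)
  have h2 := mul_self_nonneg (χ 1)
  have h3 := mul_self_nonneg (χ 2)
  linarith

set_option maxHeartbeats 3200000 in
open Classical in
/-- **the inequality of END-LAB** for a family in slabs -/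
theorem SlabIn.concl (hKM : ∀ V : ℝ, Crest.Agent.R138.Tub70.KM32 V)
    (h : SlabIn B' E L χ ψ i M J0 T To kN k1 l1 dp) {φ e : ℕ → Fin 3 → V3} {a : ℕ → ℝ}
    {w : ℕ → V3} {r0 wmax Dn : ℕ → ℝ} {R : ℕ → ℝ → ℝ → ℝ → ℝ}
    (g : FrameIn B' E L χ ψ i J0 kN k1 φ e a w r0 wmax Dn R) {ε : ℝ} (hε : 0 < ε) :
    ∀ᶠ n in (U : Filter ℕ), T n * B'.d n ^ (-l1 - 3 * k1 + ε) ≤
      Dn n * (B'.d n ^ kN * (a n * w n 2 * w n 1 *
        R n (B'.d n ^ (-ε) * a n) (B'.d n ^ (-ε) * w n 2) (B'.d n ^ (-ε) * w n 1))) := by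
  have hk1 := h.k10
  have hkN := h.kN0
  obtain ⟨κ, M₀, hκ, key⟩ := lab_fin hKM (ε := ε / (8 * (k1 + 1))) (by positivity)
  obtain ⟨ε₀, hε₀, hwm⟩ := g.wm
  -- small loss
  obtain ⟨δ, hδ0, hδ1, hδ2, hδ3, hδ4⟩ : ∃ δ : ℝ, 0 < δ ∧ 8 * δ ≤ ε / 2 ∧ 8 * δ ≤ κ * (k1 / 2) ∧
      8 * δ ≤ ε₀ ∧ 8 * δ ≤ k1 := by
    refine ⟨min (min (ε / 2) (κ * (k1 / 2))) (min ε₀ k1) / 8, by positivity, ?_, ?_, ?_, ?_⟩ <;>
      rw [mul_div_cancel₀ _ (by norm_num : (8 : ℝ) ≠ 0)]
    · exact (min_le_left _ _).trans (min_le_left _ _)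
    · exact (min_le_left _ _).trans (min_le_right _ _)
    · exact (min_le_right _ _).trans (min_le_left _ _)
    · exact (min_le_right _ _).trans (min_le_right _ _)
  obtain ⟨M₁, hM₁⟩ : ∃ M₁ : ℕ, (2 : ℝ) ^ M₀ ≤ M₁ := exists_nat_ge _
  filter_upwards [h.piece hδ0, g.aw, g.w21, g.fr δ hδ0, g.rχ, g.rψ, hwm, g.dmax,
    h.Mlow δ hδ0, h.Mup, ev_const_le B' (show (0 : ℝ) < 1000 by norm_num) hδ0,
    ev_const_le B' (show (0 : ℝ) < (2 : ℝ) ^ M₀ by positivity) (show 0 < k1 / 2 by positivity)] with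
    n hpiece haw hw21 hfr hrχ hrψ hwmn hdm hMl hMu h1000 hM0
  have hd := B'.pos n
  have hd1 := (B'.lt n).le
  have hp : ∀ t : ℝ, 0 < B'.d n ^ t := fun t => Real.rpow_pos_of_pos hd t
  have hanti : ∀ {s t : ℝ}, s ≤ t → B'.d n ^ t ≤ B'.d n ^ s := fun hst =>
    Real.rpow_le_rpow_of_exponent_ge hd hd1 hst
  have hmul : ∀ s t : ℝ, B'.d n ^ s * B'.d n ^ t = B'.d n ^ (s + t) := fun s t =>
    (Real.rpow_add hd s t).symm
  have hT := h.T0 n
  have hTo := h.To0 n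
  have ha := g.a0 n
  obtain ⟨F, hF, x₀, hx₀, f1, f2, f3, f4, f5⟩ := hpiece
  set K0 : ℝ := B'.d n ^ (-δ) with hK0
  have hK00 : 0 < K0 := hp _
  have hK01 : 1 ≤ K0 := Real.one_le_rpow_of_pos_of_le_one_of_nonpos hd hd1 (by linarith)
  set K : ℝ := B'.d n ^ (-(4 * δ)) with hK
  have hK1 : 1 ≤ K := Real.one_le_rpow_of_pos_of_le_one_of_nonpos hd hd1 (by linarith)
  have hKpos : 0 < K := by linarith
  have h1000K : 1000 * K ≤ B'.d n ^ (-(5 * δ)) := by
    have : B'.d n ^ (-(5 * δ)) = B'.d n ^ (-δ) * K := by rw [hK, hmul]; congr 1; ring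
    rw [this]
    exact mul_le_mul_of_nonneg_right h1000 hKpos.le
  have h2M : (0 : ℝ) < (2 : ℝ) ^ M n := by positivity
  have hMbig : M₀ ≤ M n := by
    have h1 : (2 : ℝ) ^ M₀ ≤ (2 : ℝ) ^ M n := by
      refine hM0.trans (le_trans (hanti ?_) hMl)
      linarith
    exact (Nat.pow_le_pow_iff_right (by norm_num : 1 < 2)).1 (by exact_mod_cast h1)
  have hKκ : K ≤ (2 : ℝ) ^ (κ * M n) := by
    have h1 : B'.d n ^ (-(k1 / 2)) ≤ (2 : ℝ) ^ M n := (hanti (by linarith)).trans hMl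
    have h2 : (B'.d n ^ (-(k1 / 2))) ^ κ ≤ ((2 : ℝ) ^ M n) ^ κ :=
      Real.rpow_le_rpow (hp _).le h1 hκ.le
    rw [← Real.rpow_mul hd.le, ← Real.rpow_natCast, ← Real.rpow_mul (by norm_num)] at h2
    rw [mul_comm κ]
    refine le_trans (hanti ?_) h2
    nlinarith
  have hsle : B'.d n ^ kN ≤ 1 := Real.rpow_le_one hd.le hd1 hkN.le
  have hKe : (2 : ℝ) ^ (ε / (8 * (k1 + 1)) * (M n : ℝ)) ≤ B'.d n ^ (-(ε / 8)) := by
    have h1 : (2 : ℝ) ^ M n ≤ B'.d n ^ (-k1) := by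
      have := hp (-k1)
      linarith
    have h2 : ((2 : ℝ) ^ M n) ^ (ε / (8 * (k1 + 1))) ≤ (B'.d n ^ (-k1)) ^ (ε / (8 * (k1 + 1))) :=
      Real.rpow_le_rpow h2M.le h1 (by positivity)
    rw [← Real.rpow_mul hd.le, ← Real.rpow_natCast, ← Real.rpow_mul (by norm_num)] at h2
    rw [mul_comm (ε / (8 * (k1 + 1)))]
    refine h2.trans (hanti ?_)
    have h3 : k1 * (ε / (8 * (k1 + 1))) ≤ ε / 8 := by
      rw [mul_div_assoc', div_le_div_iff₀ (by positivity) (by norm_num)]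
      nlinarith
    linarith
  have hMup' : B'.d n ^ k1 ≤ 1 / 2 / 2 ^ M n := by
    rw [le_div_iff₀ h2M]
    have h1 := mul_le_mul_of_nonneg_left hMu (hp k1).le
    have e1 : B'.d n ^ k1 * (1 / 2 * B'.d n ^ (-k1)) = 1 / 2 := by
      rw [mul_left_comm, hmul, add_neg_cancel, Real.rpow_zero, mul_one]
    linarith
  have hk1δ : B'.d n ^ (k1 - δ) / K0 = B'.d n ^ k1 := by
    rw [hK0, ← Real.rpow_sub hd]; congr 1; ring
  have hkNδ : B'.d n ^ (kN - δ) / K0 = B'.d n ^ kN := by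
    rw [hK0, ← Real.rpow_sub hd]; congr 1; ring
  have hmain := key F (L n) ((1 / K0) • χ n) (fun j => (1 / K0) • ψ n j) (fun j => K0 • φ n j)
    (e n) (w n) (a n) (L n x₀.1) (i n) (M n) (J0 n) K (To n) (T n * B'.d n ^ (-l1))
    (B'.d n ^ kN) (Dn n) (r0 n) (wmax n) (R n) ⟨x₀, hx₀⟩ hMbig hK1 hKκ hTo (g.D0 n) (hp _) hsle f1
    (fun x hx z hz1 hz2 => by
      obtain ⟨b1, b2⟩ := f2 x hx z hz1 hz2
      refine ⟨?_, fun j => ?_⟩
      · rw [abs_dt_scale _ _ hK00, ← hkNδ]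
        exact div_le_div_of_nonneg_right b1 hK00.le
      · show |dt ((1 / K0) • ψ n j) _| ≤ 1
        rw [abs_dt_scale _ _ hK00, div_le_one hK00]
        exact b2 j)
    (dual_scale (g.dual n) hK00.ne') (g.ortho n) ha haw hw21
    (fun j k => by
      show |dt (e n j) (K0 • φ n k)| ≤ _
      rw [dt_smul, abs_mul, abs_of_pos hK00]
      have h1 := hfr j k
      have hW : 0 ≤ Wd (a n) (w n) j := by
        by_contra hneg
        push Not at hneg
        have h2 := (abs_nonneg _).trans h1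
        have h3 : K0 * Wd (a n) (w n) j < 0 := mul_neg_of_pos_of_neg hK00 hneg
        linarith
      calc K0 * |dt (e n j) (φ n k)| ≤ K0 * (K0 * Wd (a n) (w n) j) :=
            mul_le_mul_of_nonneg_left h1 hK00.le
        _ = B'.d n ^ (-(2 * δ)) * Wd (a n) (w n) j := by
            rw [← mul_assoc, hK0, hmul]; congr 2; ring
        _ ≤ K * Wd (a n) (w n) j := mul_le_mul_of_nonneg_right (hanti (by linarith)) hW)
    (by
      rw [dt_scale_sq _ hK00]
      have h1 : r0 n ^ 2 * (dt (χ n) (χ n) / K0 ^ 2) ≤ r0 n ^ 2 * dt (χ n) (χ n) := by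
        refine mul_le_mul_of_nonneg_left ?_ (sq_nonneg _)
        exact div_le_self (dt_self_nonneg _) (one_le_pow₀ hK01)
      refine h1.trans (hrχ.trans ?_)
      have := hp kN
      nlinarith)
    (fun j => by
      show r0 n ^ 2 * dt ((1 / K0) • ψ n j) ((1 / K0) • ψ n j) ≤ _
      rw [dt_scale_sq _ hK00]
      have h1 : r0 n ^ 2 * (dt (ψ n j) (ψ n j) / K0 ^ 2) ≤ r0 n ^ 2 * dt (ψ n j) (ψ n j) := by
        refine mul_le_mul_of_nonneg_left ?_ (sq_nonneg _)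
        exact div_le_self (dt_self_nonneg _) (one_le_pow₀ hK01)
      refine h1.trans ((hrψ j).trans ?_)
      refine pow_le_pow_left₀ (hp _).le (hMup'.trans ?_) 2
      refine div_le_div_of_nonneg_right (by norm_num) h2M.le)
    (by
      have h1 : 192 * K ≤ B'.d n ^ (-ε₀) := by
        refine le_trans ?_ (h1000K.trans (hanti (by linarith)))
        nlinarith
      refine le_trans (mul_le_mul_of_nonneg_right h1 ?_) hwmn
      linarith)
    (g.R0 n) (g.Rm n)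
    (fun x hx => by
      refine le_trans ?_ (mul_le_mul_of_nonneg_left (f3 x hx) hKpos.le)
      calc To n = To n * (B'.d n ^ (-δ) * B'.d n ^ δ) := by
            rw [hmul, neg_add_cancel, Real.rpow_zero, mul_one]
        _ ≤ To n * (K * B'.d n ^ δ) := by
            have : B'.d n ^ (-δ) ≤ K := hanti (by linarith)
            have := hp δ
            gcongr
        _ = K * (To n * B'.d n ^ δ) := by ring)
    (fun x hx => by
      refine (f4 x hx).trans ?_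
      have h1 : B'.d n ^ (k1 - δ) * (2 : ℝ) ^ (M n + 1) ≤ K := by
        have h2 : (2 : ℝ) ^ (M n + 1) ≤ B'.d n ^ (-k1) := by
          rw [pow_succ]; linarith
        calc B'.d n ^ (k1 - δ) * (2 : ℝ) ^ (M n + 1) ≤ B'.d n ^ (k1 - δ) * B'.d n ^ (-k1) :=
              mul_le_mul_of_nonneg_left h2 (hp _).le
          _ = B'.d n ^ (-δ) := by rw [hmul]; congr 1; ring
          _ ≤ K := hanti (by linarith)
      rw [mul_div_assoc', le_div_iff₀ (by positivity)]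
      calc To n * B'.d n ^ (k1 - δ) * (2 : ℝ) ^ (M n + 1) =
            To n * (B'.d n ^ (k1 - δ) * (2 : ℝ) ^ (M n + 1)) := by ring
        _ ≤ To n * K := mul_le_mul_of_nonneg_left h1 hTo.le
        _ = K * To n := by ring)
    (fun x hx => by
      have h1 : T n * B'.d n ^ (-l1) ≤ K * (T n * B'.d n ^ (-l1 + δ)) := by
        calc T n * B'.d n ^ (-l1) = B'.d n ^ (-δ) * (T n * B'.d n ^ (-l1 + δ)) := by
              rw [mul_left_comm, hmul]; congr 2; ring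
          _ ≤ _ := by
              have : B'.d n ^ (-δ) ≤ K := hanti (by linarith)
              have := mul_pos hT (hp (-l1 + δ))
              gcongr
      refine h1.trans (mul_le_mul_of_nonneg_left ((f5 x hx).trans ?_) hKpos.le)
      refine Nat.cast_le.2 (card_le_card fun y hy => ?_)
      obtain ⟨hy1, hy2, hy3⟩ := mem_filter.1 hy
      refine mem_filter.2 ⟨hy1, hy2, fun j => ?_⟩
      show |dt ((1 / K0) • ψ n j) _| ≤ _
      rw [abs_dt_scale _ _ hK00]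
      refine le_trans ?_ hMup'
      rw [← hk1δ]
      exact div_le_div_of_nonneg_right (hy3 j) hK00.le)
    (fun e' c' w' q' a' hS hw' => by
      refine le_trans (Nat.cast_le.2 (card_le_card fun y hy => ?_)) (hdm e' c' w' q' a' hS hw')
      obtain ⟨hy1, hy2⟩ := mem_filter.1 hy
      exact mem_filter.2 ⟨hF hy1, hy2⟩)
  -- numbers
  have hw2 : 0 < w n 2 := ha.trans_le haw
  have hw1 : 0 < w n 1 := hw2.trans_le hw21
  have c1 : T n * B'.d n ^ (-l1 - 3 * k1 + 3 * δ) ≤ T n * B'.d n ^ (-l1) * 2 ^ (3 * M n) := by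
    have h1 : (B'.d n ^ (-(k1 - δ))) ^ 3 ≤ ((2 : ℝ) ^ M n) ^ 3 := pow_le_pow_left₀ (hp _).le hMl 3
    have e1 : (B'.d n ^ (-(k1 - δ))) ^ 3 = B'.d n ^ (-3 * k1 + 3 * δ) := by
      rw [← Real.rpow_natCast, ← Real.rpow_mul hd.le]; congr 1; push_cast; ring
    have e2 : ((2 : ℝ) ^ M n) ^ 3 = 2 ^ (3 * M n) := by rw [← pow_mul]; congr 1; ring
    rw [e1, e2] at h1
    have e3 : T n * B'.d n ^ (-l1 - 3 * k1 + 3 * δ) =
        T n * B'.d n ^ (-l1) * B'.d n ^ (-3 * k1 + 3 * δ) := by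
      rw [mul_assoc, hmul]; congr 2; ring
    rw [e3]
    exact mul_le_mul_of_nonneg_left h1 (mul_pos hT (hp _)).le
  have c2 : R n (256 * K * a n) (320 * K * w n 2) (192 * K * w n 1) ≤
      R n (B'.d n ^ (-ε) * a n) (B'.d n ^ (-ε) * w n 2) (B'.d n ^ (-ε) * w n 1) := by
    have h1 : 1000 * K ≤ B'.d n ^ (-ε) := h1000K.trans (hanti (by linarith))
    refine g.Rm n _ _ _ _ _ _ (by positivity) (by positivity) (by positivity) ?_ ?_ ?_
    · exact mul_le_mul_of_nonneg_right (by linarith) ha.le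
    · exact mul_le_mul_of_nonneg_right (by linarith) hw2.le
    · exact mul_le_mul_of_nonneg_right (by linarith) hw1.le
  set Q : ℝ := Dn n * (B'.d n ^ kN * (a n * w n 2 * w n 1 *
        R n (B'.d n ^ (-ε) * a n) (B'.d n ^ (-ε) * w n 2) (B'.d n ^ (-ε) * w n 1))) with hQ
  have c3 : T n * B'.d n ^ (-l1 - 3 * k1 + 3 * δ) ≤ B'.d n ^ (-(ε / 8)) * Q := by
    refine c1.trans (hmain.trans ?_)
    have hD0 := g.D0 n
    have hRR := g.R0 n (256 * K * a n) (320 * K * w n 2) (192 * K * w n 1) (by positivity)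
      (by positivity) (by positivity)
    have hpk := hp kN
    rw [hQ]
    gcongr
  have e4 : T n * B'.d n ^ (-l1 - 3 * k1 + ε) ≤
      B'.d n ^ (ε / 8) * (T n * B'.d n ^ (-l1 - 3 * k1 + 3 * δ)) := by
    rw [mul_left_comm, hmul]
    exact mul_le_mul_of_nonneg_left (hanti (by linarith)) hT.le
  refine e4.trans ((mul_le_mul_of_nonneg_left c3 (hp _).le).trans (le_of_eq ?_))
  rw [← mul_assoc, hmul, add_neg_cancel, Real.rpow_zero, one_mul]

end

end Crest.Agent.R136.Lab926
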