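import Crest.Agent.R136.LabW3_926

/-!
# R136: END-LAB, window side, part 4 (helper926)

`WinH` : the window at a natural class; `own_zprof` : own profile of the window at `0` and at the
small box; `T_low` : size of the class; `exists_fam` : the family `E` in one cell (class of the
window, most popular cell) with the right numbers of lines and of small boxes.
-/

set_option autoImplicit false
set_option linter.unusedSectionVars false
set_option linter.unusedVariables false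

open Filter Topology

namespace Crest.Agent.R136.Lab926

open Finset
open Crest.Agent.R138.Ex926
open Crest.Agent.R138.Mk163 (zc zl rho alive)
open Crest.Agent.R138.MkRef627 (lc kc mem_alive)
open Crest.Agent.R136.Sh605
open Crest.Agent.R136.End403
open Crest.Agent.R136.Net191
open Crest.Agent.R136.NetQ186
open Crest.Agent.R136.GeoQ186
open Crest.Agent.R136.MkA627
open Crest.Agent.R136.Wq638
open Crest.Agent.R136.Lq196
open Crest.Agent.R136.Qg926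

/-- natural box (`nat4` of `NatT_550`) -/
def natB (w0 R v t1 t2 t3 : ℝ) : Fin 11 → ℝ :=
  ![w0 + v, R, w0 + (t2 - t1), w0 + (t3 - t2), 2 * w0 + (t3 - t1), w0 + t1, 2 * w0 + t2,
    3 * w0 + t3, 2 * w0 + (v + t1), 3 * w0 + (v + t2), 4 * w0 + (v + t3)]

/-- the small box -/
def pdB (k1 kN : ℝ) : Fin 11 → ℝ := ![k1, 0, 0, 0, 0, 0, 0, 0, k1, k1, kN]

open Classical in
/-- **the window at a natural class** -/
structure WinH (B B' : Base) (I I1 J : ℕ → Finset (ℕ × ℝ))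
    (co : ℕ → ℕ × ℝ → ℕ × ℝ → Fin 11 → ℝ) (θ : Fin 3 → ℝ) (w0 R T0 : ℝ) (o : ℝ → Fin 11 → ℝ)
    (S SJ : ℕ → ℝ) (X : ℕ → Fin 11 → ℝ) (wn : ℕ → ℝ) (DD' : Set (Fin 11 → ℝ)) (TT : ℕ → ℝ)
    (lam : (Fin 11 → ℝ) → ℝ) (R1 v t1 t2 t3 : ℕ → ℝ) (kN k1 v1 γ : ℝ) : Prop where
  hz : ZWin B B' I J co monQ 2 X wn DD' TT lam
  sub : ∀ᶠ n in (U : Filter ℕ), J n ⊆ I1 n
  dense : ∀ᶠ n in (U : Filter ℕ), ((I1 n).card : ℝ) ≤ SJ n * (J n).card
  hSJ : B'.Sub SJ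
  hS : B'.Sub S
  S1 : ∀ n, 1 ≤ S n
  wlim : Tendsto wn U (𝓝 0)
  leg : ∀ n, X n ∈ Leg monQ R
  nat : ∀ n k, k ≠ 3 → X n k = natB w0 (R1 n) (v n) (t1 n) (t2 n) (t3 n) k
  nat3 : ∀ n, natB w0 (R1 n) (v n) (t1 n) (t2 n) (t3 n) 3 ≤ X n 3
  v0 : ∀ n, 0 ≤ v n
  vv : ∀ n, v n ≤ v1
  hv1 : v1 < 1
  hγ : 0 < γ
  tg : ∀ n, γ ≤ t1 n + θ 1
  tab : ∀ n, min 0 (θ 1 - θ 2) ≤ t2 n - t1 n
  tby : ∀ᶠ n in (U : Filter ℕ),
    min 0 (θ 2 - θ 0) ≤ (t3 n + wn n * kN) - (t2 n + wn n * k1)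
  tres : ∀ᶠ n in (U : Filter ℕ), v n + t3 n + wn n * kN ≤ max 0 (1 - θ 0)
  tR : ∀ n, v n + t3 n + γ ≤ 1 + T0
  own0 : ∀ᶠ n in (U : Filter ℕ), ∀ k, X n k ≤ o (v n) k
  own1 : ∀ᶠ n in (U : Filter ℕ), ∀ k, (X n + wn n • pdB k1 kN) k ≤ o (v n + wn n * k1) k
  pdD : pdB k1 kN ∈ DD'
  kN0 : 0 < kN
  kNk : kN ≤ k1
  /-- the relation of the velocities -/
  rel : ∀ ε : ℝ, 0 < ε → ∀ᶠ n in (U : Filter ℕ), ∀ s ∈ J n, ∃ α β c : ℝ,
    |α| ≤ B'.d n ^ (-ε) ∧ |β| ≤ B'.d n ^ (-ε) ∧ ∀ y ∈ J n,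
      zlab B I co monQ 2 X wn n 0 y = zlab B I co monQ 2 X wn n 0 s →
        |co n s y 7 / B.d n ^ X n 7 - α * (co n s y 5 / B.d n ^ X n 5) -
          β * (co n s y 6 / B.d n ^ X n 6) - c| ≤ B'.d n ^ (kN - ε)

section

variable {σ' : Type*} {B B' : Base} {I I1 J : ℕ → Finset (ℕ × ℝ)} {G : Geo σ' (Fin 3)}
    {L : ℕ → ℕ → Ln4} {π : Equiv.Perm (Fin 3)} {eE fA fB : ℕ → ℕ × ℝ → ℝ} {lev : ℕ → ℚ → ℕ}
    {A : ℕ → ℝ} {g : ℝ} {τ : Fin 3 → ℝ → ℝ} {f : ℕ → ℚ → ℕ → ℤ → ℕ} {b : ℕ → ℚ → ℕ → σ'}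
    {vm : ℕ → ℚ → ℝ} {w : Fin 3 → ℕ → ℚ → ℝ} {q θ : Fin 3 → ℝ} {w0 R T0 : ℝ}
    {V T : Fin 11 → Prop} {PD : Set (Fin 11 → ℝ)} {DD : (Fin 11 → ℝ) → ℝ}
    {rp : ℝ → Fin 11 → ℝ} {EE : ℝ → ℝ} {ν own : (Fin 11 → ℝ) → ℝ} {c₀ : ℝ} {rg : Rg}
    {S SJ : ℕ → ℝ} {X : ℕ → Fin 11 → ℝ} {wn : ℕ → ℝ} {DD' : Set (Fin 11 → ℝ)} {TT : ℕ → ℝ}
    {lam : (Fin 11 → ℝ) → ℝ} {R1 v t1 t2 t3 : ℕ → ℝ} {kN k1 v1 γ : ℝ}
    {co : ℕ → ℕ × ℝ → ℕ × ℝ → Fin 11 → ℝ} {o : ℝ → Fin 11 → ℝ}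

theorem WinH.k10 (W : WinH B B' I I1 J co θ w0 R T0 o S SJ X wn DD' TT lam R1 v t1 t2 t3 kN k1 v1
    γ) : 0 < k1 := W.kN0.trans_le W.kNk

theorem WinH.X0 (W : WinH B B' I I1 J co θ w0 R T0 o S SJ X wn DD' TT lam R1 v t1 t2 t3 kN k1 v1
    γ) (n : ℕ) : X n 0 = w0 + v n := by
  rw [W.nat n 0 (by decide)]
  simp [natB]

theorem WinH.Xp0 (W : WinH B B' I I1 J co θ w0 R T0 o S SJ X wn DD' TT lam R1 v t1 t2 t3 kN k1 v1
    γ) (n : ℕ) : (X n + wn n • pdB k1 kN) 0 = w0 + (v n + wn n * k1) := by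
  simp only [Pi.add_apply, Pi.smul_apply, smul_eq_mul, W.X0 n]
  simp [pdB]
  ring

theorem WinH.ev_w (W : WinH B B' I I1 J co θ w0 R T0 o S SJ X wn DD' TT lam R1 v t1 t2 t3 kN k1 v1
    γ) : ∀ᶠ n in (U : Filter ℕ), 0 ≤ v n + wn n * k1 ∧ v n + wn n * k1 ≤ 1 := by
  have hk1 := W.k10
  have h1 : Tendsto (fun n => wn n * k1) U (𝓝 0) := by
    have := W.wlim.mul_const k1
    simpa using this
  have h2 : (0 : ℝ) < 1 - v1 := by linarith [W.hv1]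
  filter_upwards [h1.eventually_lt_const h2] with n hn
  have h3 := W.v0 n
  have h4 := W.vv n
  have h5 := W.hz.w0 n
  have h6 : 0 < wn n * k1 := mul_pos h5 hk1
  constructor <;> linarith

/-- `S ≤ d'^(-ε)` -/
theorem WinH.ev_S (W : WinH B B' I I1 J co θ w0 R T0 o S SJ X wn DD' TT lam R1 v t1 t2 t3 kN k1 v1
    γ) {ε : ℝ} (hε : 0 < ε) : ∀ᶠ n in (U : Filter ℕ), S n ≤ B'.d n ^ (-ε) := by
  filter_upwards [sub_le_rpow W.hS hε] with n hn using hn.2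

theorem WinH.ev_SJ (W : WinH B B' I I1 J co θ w0 R T0 o S SJ X wn DD' TT lam R1 v t1 t2 t3 kN k1
    v1 γ) {ε : ℝ} (hε : 0 < ε) : ∀ᶠ n in (U : Filter ℕ), 0 < SJ n ∧ SJ n ≤ B'.d n ^ (-ε) :=
  sub_le_rpow W.hSJ hε

theorem pdB_nonneg {k1 kN : ℝ} (h1 : 0 ≤ k1) (hN : 0 ≤ kN) : 0 ≤ pdB k1 kN := by
  intro k
  fin_cases k <;> simp [pdB] <;> assumption

/-- **size of the class** -/
theorem WinH.T_low (W : WinH B B' I I1 J co θ w0 R T0 o S SJ X wn DD' TT lam R1 v t1 t2 t3 kN k1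
    v1 γ)
    (hG : ∀ᶠ n in (U : Filter ℕ), GlobP B I I1 L co lev g vm w q θ R o ν own c₀ rg v1 γ
      (S n) n) {ε : ℝ} (hε : 0 < ε) :
    ∀ᶠ n in (U : Filter ℕ), B.d n ^ (-(ν (X n))) * B'.d n ^ ε ≤ TT n := by
  have hδ : 0 < ε / 3 := by positivity
  filter_upwards [W.hz.prof.up 0 (ε / 3) hδ, W.sub, W.dense, W.ev_S hδ, W.ev_SJ hδ, hG, W.hz.ne]
    with n h1 h2 h3 h4 h5 h6 h7
  have hp : ∀ t : ℝ, 0 < B.d n ^ t := fun t => Real.rpow_pos_of_pos (B.pos n) t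
  have hp' : ∀ t : ℝ, 0 < B'.d n ^ t := fun t => Real.rpow_pos_of_pos (B'.pos n) t
  have hT := W.hz.T0 n
  have e0 : X n + wn n • (0 : Fin 11 → ℝ) = X n := by simp
  have c1 := le_count_mul (J n) (fun _ => (1 : ℝ)) (zlab B I co monQ 2 X wn n 0)
    (m := TT n * B'.d n ^ (-(ε / 3))) (fun x hx => by
      rw [sum_const, nsmul_eq_mul, mul_one]
      have := h1 0 W.hz.zero (by simp) x hx
      rw [W.hz.lam0, zero_add] at this
      exact this)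
  rw [sum_const, nsmul_eq_mul, mul_one] at c1
  have c2 : (((J n).image (zlab B I co monQ 2 X wn n 0)).card : ℝ) ≤
      S n * (((I1 n).card : ℝ) * B.d n ^ (ν (X n))) := by
    have h8 := h6.nr (X n) (W.leg n)
    refine le_trans ?_ h8
    refine Nat.cast_le.2 (card_le_card ?_)
    have e1 : zlab B I co monQ 2 X wn n 0 = nlab B I co monQ 2 n (X n) := by
      unfold zlab
      rw [e0]
    rw [e1]
    exact image_subset_image h2
  have hJ0 : (0 : ℝ) < (J n).card := by exact_mod_cast card_pos.2 h7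
  have hS0 : 0 < S n := lt_of_lt_of_le one_pos (W.S1 n)
  have key : ((J n).card : ℝ) * 1 ≤ (J n).card * (TT n * (B.d n ^ (ν (X n)) * B'.d n ^ (-ε))) := by
    calc ((J n).card : ℝ) * 1 = (J n).card := mul_one _
      _ ≤ TT n * B'.d n ^ (-(ε / 3)) * (S n * (((I1 n).card : ℝ) * B.d n ^ (ν (X n)))) :=
          c1.trans (mul_le_mul_of_nonneg_left c2 (mul_pos hT (hp' _)).le)
      _ ≤ TT n * B'.d n ^ (-(ε / 3)) * (B'.d n ^ (-(ε / 3)) *
            ((B'.d n ^ (-(ε / 3)) * (J n).card) * B.d n ^ (ν (X n)))) := by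
          refine mul_le_mul_of_nonneg_left ?_ (mul_pos hT (hp' _)).le
          have h9 : ((I1 n).card : ℝ) ≤ B'.d n ^ (-(ε / 3)) * (J n).card :=
            h3.trans (mul_le_mul_of_nonneg_right h5.2 hJ0.le)
          have := hp (ν (X n))
          have := hp' (-(ε / 3))
          gcongr
      _ = (J n).card * (TT n * (B.d n ^ (ν (X n)) * (B'.d n ^ (-(ε / 3)) *
            (B'.d n ^ (-(ε / 3)) * B'.d n ^ (-(ε / 3)))))) := by ring
      _ = _ := by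
          rw [← Real.rpow_add (B'.pos n), ← Real.rpow_add (B'.pos n)]
          congr 5; ring
  have key2 := le_of_mul_le_mul_left key hJ0
  calc B.d n ^ (-(ν (X n))) * B'.d n ^ ε = B.d n ^ (-(ν (X n))) * B'.d n ^ ε * 1 := (mul_one _).symm
    _ ≤ B.d n ^ (-(ν (X n))) * B'.d n ^ ε * (TT n * (B.d n ^ (ν (X n)) * B'.d n ^ (-ε))) :=
        mul_le_mul_of_nonneg_left key2 (mul_pos (hp _) (hp' _)).le
    _ = TT n * ((B.d n ^ (-(ν (X n))) * B.d n ^ (ν (X n))) * (B'.d n ^ ε * B'.d n ^ (-ε))) := by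
        ring
    _ = TT n := by
        rw [← Real.rpow_add (B.pos n), ← Real.rpow_add (B'.pos n), neg_add_cancel, add_neg_cancel,
          Real.rpow_zero, Real.rpow_zero, mul_one, mul_one]

/-- **own profile of the window at `0` and at the small box** -/
theorem WinH.own_zprof (W : WinH B B' I I1 J co θ w0 R T0 o S SJ X wn DD' TT lam R1 v t1 t2 t3 kN
    k1 v1 γ)
    (hG : ∀ᶠ n in (U : Filter ℕ), GlobP B I I1 L co lev g vm w q θ R o ν own c₀ rg v1 γ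
      (S n) n)
    (hown : ∀ᶠ n in (U : Filter ℕ), ∀ c ∈ ({c | c = 0 ∨ c = pdB k1 kN} : Set (Fin 11 → ℝ)),
      X n + wn n • c ∈ Leg monQ R ∧ own (X n + wn n • c) = 1 - v n - wn n * c 0) :
    ZProf B' J (fun n c => olb B I co monQ 2 n (X n + wn n • c))
      {c | c = 0 ∨ c = pdB k1 kN} (fun n => B.d n ^ (-(1 - v n))) (fun c => -c 0) where
  up := fun C ε hε => by
    filter_upwards [W.ev_S hε, hG, hown, W.sub] with n h1 h2 h3 h4 c hc hcK i hi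
    obtain ⟨l1, l2⟩ := h3 c hc
    have h5 := h2.ou _ l1 i (h4 hi)
    refine (Nat.cast_le.2 (card_le_card (cls_mono h4 _ _))).trans (h5.trans ?_)
    rw [l2]
    have e1 : B.d n ^ (-(1 - v n - wn n * c 0)) = B.d n ^ (-(1 - v n)) * B'.d n ^ (c 0) := by
      rw [W.hz.base n, ← Real.rpow_mul (B.pos n).le, ← Real.rpow_add (B.pos n)]
      congr 1; ring
    have e2 : B'.d n ^ (-(-c 0 + ε)) = B'.d n ^ (-ε) * B'.d n ^ (c 0) := by
      rw [← Real.rpow_add (B'.pos n)]; congr 1; ring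
    rw [e1, e2]
    have p1 : 0 < B.d n ^ (-(1 - v n)) := Real.rpow_pos_of_pos (B.pos n) _
    have p2 : 0 < B'.d n ^ (c 0) := Real.rpow_pos_of_pos (B'.pos n) _
    calc S n * (B.d n ^ (-(1 - v n)) * B'.d n ^ (c 0)) ≤
          B'.d n ^ (-ε) * (B.d n ^ (-(1 - v n)) * B'.d n ^ (c 0)) :=
          mul_le_mul_of_nonneg_right h1 (mul_pos p1 p2).le
      _ = _ := by ring
  num := fun C ε hε => by
    filter_upwards [W.ev_S hε, hG, hown, W.sub] with n h1 h2 h3 h4 c hc hcK c' hc' hcK' hcc i hi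
    obtain ⟨l1, l2⟩ := h3 c hc
    obtain ⟨l1', l2'⟩ := h3 c' hc'
    have h5 := h2.on _ l1 _ l1' (add_smul_mono (W.hz.w0 n).le hcc) i (h4 hi)
    refine (Nat.cast_le.2 (card_le_card (image_subset_image (cls_mono h4 _ _)))).trans
      (h5.trans ?_)
    rw [l2, l2']
    have e1 : B.d n ^ (-(1 - v n - wn n * c 0 - (1 - v n - wn n * c' 0))) =
        B'.d n ^ (c 0 - c' 0) := by
      rw [W.hz.base n, ← Real.rpow_mul (B.pos n).le]
      congr 1; ring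
    have e2 : B'.d n ^ (-(-c 0 - -c' 0 + ε)) = B'.d n ^ (-ε) * B'.d n ^ (c 0 - c' 0) := by
      rw [← Real.rpow_add (B'.pos n)]; congr 1; ring
    rw [e1, e2]
    exact mul_le_mul_of_nonneg_right h1 (Real.rpow_pos_of_pos (B'.pos n) _).le
  root := fun C ε hε => by
    filter_upwards [W.ev_S (half_pos hε), hG, hown, W.sub, W.dense, W.ev_SJ (half_pos hε)] with
      n h1 h2 h3 h4 h6 h7 c hc hcK
    obtain ⟨l1, l2⟩ := h3 c hc
    have h5 := h2.or _ l1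
    rw [l2] at h5
    have hp : ∀ t : ℝ, 0 < B.d n ^ t := fun t => Real.rpow_pos_of_pos (B.pos n) t
    have hp' : ∀ t : ℝ, 0 < B'.d n ^ t := fun t => Real.rpow_pos_of_pos (B'.pos n) t
    have e1 : B.d n ^ (1 - v n - wn n * c 0) * B.d n ^ (-(1 - v n)) = B'.d n ^ (-c 0) := by
      rw [W.hz.base n, ← Real.rpow_mul (B.pos n).le, ← Real.rpow_add (B.pos n)]
      congr 1; ring
    have e2 : B'.d n ^ (-c 0 - ε) = B'.d n ^ (-(ε / 2)) * (B'.d n ^ (-(ε / 2)) *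
        B'.d n ^ (-c 0)) := by
      rw [← Real.rpow_add (B'.pos n), ← Real.rpow_add (B'.pos n)]; congr 1; ring
    have h8 : (((J n).image (olb B I co monQ 2 n (X n + wn n • c))).card : ℝ) ≤
        ((I1 n).image (olb B I co monQ 2 n (X n + wn n • c))).card :=
      Nat.cast_le.2 (card_le_card (image_subset_image h4))
    have hS0 : 0 < S n := lt_of_lt_of_le one_pos (W.S1 n)
    calc (((J n).image (olb B I co monQ 2 n (X n + wn n • c))).card : ℝ) * B.d n ^ (-(1 - v n))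
        ≤ (S n * ((I1 n).card * B.d n ^ (1 - v n - wn n * c 0))) * B.d n ^ (-(1 - v n)) :=
          mul_le_mul_of_nonneg_right (h8.trans h5) (hp _).le
      _ = S n * ((I1 n).card * (B.d n ^ (1 - v n - wn n * c 0) * B.d n ^ (-(1 - v n)))) := by ring
      _ = S n * ((I1 n).card * B'.d n ^ (-c 0)) := by rw [e1]
      _ ≤ B'.d n ^ (-(ε / 2)) * ((B'.d n ^ (-(ε / 2)) * (J n).card) * B'.d n ^ (-c 0)) := by
          have h9 : ((I1 n).card : ℝ) ≤ B'.d n ^ (-(ε / 2)) * (J n).card :=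
            h6.trans (mul_le_mul_of_nonneg_right h7.2 (Nat.cast_nonneg _))
          have := hp' (-c 0)
          have := hp' (-(ε / 2))
          gcongr
      _ = (J n).card * B'.d n ^ (-c 0 - ε) := by rw [e2]; ring

end

end Crest.Agent.R136.Lab926
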