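import Crest.Agent.R136.LabW4_926

/-!
# R136: END-LAB, window side, part 5 (helper926)

`exists_fam` : the family `E` in one cell (class of the window, most popular cell) with the right
numbers of lines and of small boxes.
-/

set_option autoImplicit false
set_option linter.unusedSectionVars false
set_option linter.unusedVariables false

open Filter Topology

namespace Crest.Agent.R136.Lab926

open Finset
open Crest.Agent.R138.Ex926
open Crest.Agent.R138.Mk163 (zc zl rho alive)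
open Crest.Agent.R138.MkRef627 (lc kc mem_alive)
open Crest.Agent.R136.Sh605
open Crest.Agent.R136.End403
open Crest.Agent.R136.Net191
open Crest.Agent.R136.NetQ186
open Crest.Agent.R136.GeoQ186
open Crest.Agent.R136.MkA627
open Crest.Agent.R136.Wq638
open Crest.Agent.R136.Lq196
open Crest.Agent.R136.Qg926

/-- the most popular cell -/
theorem pop_cell {α β : Type*} [DecidableEq α] [DecidableEq β] (A : Finset α) (f : α → β)
    (hA : A.Nonempty) : ∃ b, (A.card : ℝ) ≤ (A.image f).card *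
      ((A.filter fun x => f x = b).card : ℝ) ∧ (A.filter fun x => f x = b).Nonempty := by
  obtain ⟨b, hb, hmax⟩ := exists_max_image (A.image f)
    (fun b => ((A.filter fun x => f x = b).card : ℝ)) (hA.image f)
  refine ⟨b, ?_, ?_⟩
  · have h1 : A.card = ∑ b ∈ A.image f, (A.filter fun x => f x = b).card :=
      card_eq_sum_card_image _ _
    calc (A.card : ℝ) = ∑ b ∈ A.image f, ((A.filter fun x => f x = b).card : ℝ) := by
          rw [h1]; push_cast; rfl
      _ ≤ ∑ b' ∈ A.image f, ((A.filter fun x => f x = b).card : ℝ) :=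
          sum_le_sum fun b' hb' => hmax b' hb'
      _ = _ := by rw [sum_const, nsmul_eq_mul]
  · obtain ⟨x, hx, rfl⟩ := mem_image.1 hb
    exact ⟨x, mem_filter.2 ⟨hx, rfl⟩⟩

theorem z_near {d w0 t c K x y : ℝ} {l0 lv : ℕ} (hd : 0 < d)
    (hz0 : c = d ^ w0 * ((y - x) * 2 ^ l0)) (h : |c| ≤ K * d ^ (w0 + t))
    (hlv : (2 : ℝ) ^ lv ≤ 2 ^ l0 * d ^ (-t)) : |(2 : ℝ) ^ lv * y - 2 ^ lv * x| ≤ K := by
  have p1 : 0 < d ^ w0 := Real.rpow_pos_of_pos hd _
  have p2 : 0 < d ^ t := Real.rpow_pos_of_pos hd _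
  have p3 : (0 : ℝ) < 2 ^ l0 := by positivity
  have p4 : (0 : ℝ) < 2 ^ lv := by positivity
  rw [hz0, abs_mul, abs_of_pos p1, abs_mul, abs_of_pos p3, Real.rpow_add hd] at h
  have h1 : |y - x| * 2 ^ l0 ≤ K * d ^ t := by
    have : d ^ w0 * (|y - x| * 2 ^ l0) ≤ d ^ w0 * (K * d ^ t) := by linarith
    exact le_of_mul_le_mul_left this p1
  rw [← mul_sub, abs_mul, abs_of_pos p4]
  have h0 := abs_nonneg (y - x)
  calc (2 : ℝ) ^ lv * |y - x| ≤ (2 ^ l0 * d ^ (-t)) * |y - x| :=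
        mul_le_mul_of_nonneg_right hlv h0
    _ = (|y - x| * 2 ^ l0) * d ^ (-t) := by ring
    _ ≤ (K * d ^ t) * d ^ (-t) :=
        mul_le_mul_of_nonneg_right h1 (Real.rpow_nonneg hd.le _)
    _ = K * (d ^ t * d ^ (-t)) := by ring
    _ = K := by rw [← Real.rpow_add hd, add_neg_cancel, Real.rpow_zero, mul_one]

section

variable {σ' : Type*} {B B' : Base} {I I1 J : ℕ → Finset (ℕ × ℝ)} {G : Geo σ' (Fin 3)}
    {L : ℕ → ℕ → Ln4} {π : Equiv.Perm (Fin 3)} {eE fA fB : ℕ → ℕ × ℝ → ℝ} {lev : ℕ → ℚ → ℕ}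
    {A : ℕ → ℝ} {g : ℝ} {τ : Fin 3 → ℝ → ℝ} {f : ℕ → ℚ → ℕ → ℤ → ℕ} {b : ℕ → ℚ → ℕ → σ'}
    {vm : ℕ → ℚ → ℝ} {w : Fin 3 → ℕ → ℚ → ℝ} {q θ : Fin 3 → ℝ} {w0 R T0 : ℝ}
    {V T : Fin 11 → Prop} {PD : Set (Fin 11 → ℝ)} {DD : (Fin 11 → ℝ) → ℝ}
    {rp : ℝ → Fin 11 → ℝ} {EE : ℝ → ℝ} {ν own : (Fin 11 → ℝ) → ℝ} {c₀ : ℝ} {rg : Rg}
    {S SJ : ℕ → ℝ} {X : ℕ → Fin 11 → ℝ} {wn : ℕ → ℝ} {DD' : Set (Fin 11 → ℝ)} {TT : ℕ → ℝ}
    {lam : (Fin 11 → ℝ) → ℝ} {R1 v t1 t2 t3 : ℕ → ℝ} {kN k1 v1 γ : ℝ}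
    {co : ℕ → ℕ × ℝ → ℕ × ℝ → Fin 11 → ℝ} {o : ℝ → Fin 11 → ℝ}

/-- **the family `E` in one cell** -/
structure FamOk (B B' : Base) (I J : ℕ → Finset (ℕ × ℝ)) (co : ℕ → ℕ × ℝ → ℕ × ℝ → Fin 11 → ℝ)
    (lev : ℕ → ℚ → ℕ) (X : ℕ → Fin 11 → ℝ) (wn : ℕ → ℝ) (TT : ℕ → ℝ)
    (lam : (Fin 11 → ℝ) → ℝ) (v : ℕ → ℝ) (kN k1 : ℝ) (i M : ℕ → ℕ) (J0 : ℕ → ℤ)
    (E : ℕ → Finset (ℕ × ℝ)) (s₀ : ℕ → ℕ × ℝ) : Prop where
  smem : ∀ᶠ n in (U : Filter ℕ), s₀ n ∈ J n
  ne : ∀ᶠ n in (U : Filter ℕ), (E n).Nonempty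
  sub : ∀ᶠ n in (U : Filter ℕ), E n ⊆ J n
  lab : ∀ᶠ n in (U : Filter ℕ), ∀ x ∈ E n,
    zlab B I co monQ 2 X wn n 0 x = zlab B I co monQ 2 X wn n 0 (s₀ n)
  cell : ∀ᶠ n in (U : Filter ℕ), ∀ x ∈ E n, zc (i n) x.2 = J0 n
  lev1 : ∀ᶠ n in (U : Filter ℕ), (2 : ℝ) ^ lev n 0 * B.d n ^ (-(v n)) ≤ 2 * 2 ^ i n
  lev2 : ∀ᶠ n in (U : Filter ℕ), (2 : ℝ) ^ i n ≤ 2 ^ lev n 0 * B.d n ^ (-(v n))
  snum : ∀ ε : ℝ, 0 < ε → ∀ᶠ n in (U : Filter ℕ),
    (((E n).image fun x => (zlab B I co monQ 2 X wn n (pdB k1 kN) x,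
      zc (i n + M n + 1) x.2)).card : ℝ) * (TT n * B'.d n ^ (-lam (pdB k1 kN))) ≤
      B'.d n ^ (-ε) * (E n).card
  onum : ∀ ε : ℝ, 0 < ε → ∀ᶠ n in (U : Filter ℕ),
    (((E n).image fun x => (x.1, zc (i n) x.2)).card : ℝ) * B.d n ^ (-(1 - v n)) ≤
      B'.d n ^ (-ε) * (E n).card
  oup : ∀ ε : ℝ, 0 < ε → ∀ᶠ n in (U : Filter ℕ), ∀ x ∈ E n,
    (((E n).filter fun y => y.1 = x.1 ∧
      zc (i n + M n + 1) y.2 = zc (i n + M n + 1) x.2).card : ℝ) ≤
      B.d n ^ (-(1 - v n)) * B'.d n ^ (k1 - ε)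
  Mlow : ∀ ε : ℝ, 0 < ε → ∀ᶠ n in (U : Filter ℕ), B'.d n ^ (-(k1 - ε)) ≤ (2 : ℝ) ^ M n
  Mup : ∀ᶠ n in (U : Filter ℕ), (2 : ℝ) ^ M n ≤ 1 / 2 * B'.d n ^ (-k1)

set_option maxHeartbeats 1600000 in
theorem WinH.exists_fam (W : WinH B B' I I1 J co θ w0 R T0 o S SJ X wn DD' TT lam R1 v t1 t2 t3 kN
    k1 v1 γ)
    (hG : ∀ᶠ n in (U : Filter ℕ), GlobP B I I1 L co lev g vm w q θ R o ν own c₀ rg v1 γ
      (S n) n)
    (hzco : ∀ n, ∀ x ∈ I n, ∀ y ∈ I n, co n x y 0 = B.d n ^ w0 * ((y.2 - x.2) * 2 ^ (lev n 0)))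
    (hown : ∀ᶠ n in (U : Filter ℕ), ∀ c ∈ ({c | c = 0 ∨ c = pdB k1 kN} : Set (Fin 11 → ℝ)),
      X n + wn n • c ∈ Leg monQ R ∧ own (X n + wn n • c) = 1 - v n - wn n * c 0) :
    ∃ (i M : ℕ → ℕ) (J0 : ℕ → ℤ) (E : ℕ → Finset (ℕ × ℝ)) (s₀ : ℕ → ℕ × ℝ),
      FamOk B B' I J co lev X wn TT lam v kN k1 i M J0 E s₀ := by
  have hk1 := W.k10
  have hpd0 : 0 ≤ pdB k1 kN := pdB_nonneg hk1.le W.kN0.le
  have hz := W.hz
  have hp' : ∀ n (t : ℝ), 0 < B'.d n ^ t := fun n t => Real.rpow_pos_of_pos (B'.pos n) t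
  have e0 : ∀ n, X n + wn n • (0 : Fin 11 → ℝ) = X n := fun n => by simp
  have ho := W.own_zprof hG hown
  -- levels
  obtain ⟨i, hi1, -, hi3⟩ := exists_lev (B := B) (B' := B') (lev := lev) (kz := (0 : Fin 11))
    (w0 := w0) (o := o) (X := X) (w := wn) (c := 0) (by
      refine Eventually.of_forall fun n => ?_
      rw [e0, W.X0]
      have h1 := W.v0 n
      have h2 := W.vv n
      have h3 := W.hv1
      constructor <;> linarith) (by
      filter_upwards [W.own0] with n h1 k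
      rw [e0, W.X0, add_sub_cancel_left]
      exact h1 k)
  have hlev1 : ∀ᶠ n in (U : Filter ℕ), (2 : ℝ) ^ lev n 0 * B.d n ^ (-(v n)) ≤ 2 * 2 ^ i n := by
    filter_upwards [hi1.ge] with n h1
    rw [e0, W.X0, add_sub_cancel_left] at h1
    exact h1
  have hlev2 : ∀ᶠ n in (U : Filter ℕ), (2 : ℝ) ^ i n ≤ 2 ^ lev n 0 * B.d n ^ (-(v n)) := by
    filter_upwards [hi3] with n h1
    rw [e0, W.X0, add_sub_cancel_left] at h1
    exact h1
  -- resolution
  have hMex : ∀ n, ∃ M : ℕ, 1 ≤ 1 / 2 * B'.d n ^ (-k1) →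
      (2 : ℝ) ^ M ≤ 1 / 2 * B'.d n ^ (-k1) ∧ 1 / 2 * B'.d n ^ (-k1) < 2 ^ (M + 1) := fun n => by
    by_cases h : 1 ≤ 1 / 2 * B'.d n ^ (-k1)
    · obtain ⟨M, h1, h2⟩ := exists_nat_pow_near h (by norm_num : (1 : ℝ) < 2)
      exact ⟨M, fun _ => ⟨h1, h2⟩⟩
    · exact ⟨0, fun h' => absurd h' h⟩
  choose M hM using hMex
  have hbig : ∀ᶠ n in (U : Filter ℕ), 1 ≤ 1 / 2 * B'.d n ^ (-k1) := by
    filter_upwards [ev_const_le B' (show (0 : ℝ) < 2 by norm_num) hk1] with n hn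
    linarith
  have hMup : ∀ᶠ n in (U : Filter ℕ), (2 : ℝ) ^ M n ≤ 1 / 2 * B'.d n ^ (-k1) := by
    filter_upwards [hbig] with n hn using (hM n hn).1
  have hMlow : ∀ ε : ℝ, 0 < ε → ∀ᶠ n in (U : Filter ℕ), B'.d n ^ (-(k1 - ε)) ≤ (2 : ℝ) ^ M n := by
    intro ε hε
    filter_upwards [hbig, ev_const_le B' (show (0 : ℝ) < 4 by norm_num) hε] with n hn h4
    have h1 := (hM n hn).2
    rw [pow_succ] at h1
    have e1 : B'.d n ^ (-(k1 - ε)) = B'.d n ^ ε * B'.d n ^ (-k1) := by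
      rw [← Real.rpow_add (B'.pos n)]; congr 1; ring
    have e2 : B'.d n ^ ε * B'.d n ^ (-ε) = 1 := by
      rw [← Real.rpow_add (B'.pos n), add_neg_cancel, Real.rpow_zero]
    have h2 : B'.d n ^ ε ≤ 1 / 4 := by
      have h3 := mul_le_mul_of_nonneg_left h4 (hp' n ε).le
      rw [e2] at h3
      linarith
    rw [e1]
    have h5 := hp' n (-k1)
    nlinarith
  -- levels of the two boxes
  set cc : ℕ → Fin 11 → ℝ := fun j => if j = 0 then 0 else pdB k1 kN with hcc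
  set lvv : ℕ → ℕ → ℕ := fun j n => if j = 0 then i n else i n + M n + 1 with hlvv
  have hccm : ∀ j, cc j ∈ ({c | c = 0 ∨ c = pdB k1 kN} : Set (Fin 11 → ℝ)) := by
    intro j
    show cc j = 0 ∨ cc j = pdB k1 kN
    simp only [hcc]
    split_ifs <;> simp
  have hcc0 : ∀ j, 0 ≤ cc j := by
    intro j
    simp only [hcc]
    split_ifs
    · exact le_rfl
    · exact hpd0
  have hccD : ∀ j, cc j ∈ DD' := by
    intro j
    simp only [hcc]
    split_ifs
    · exact hz.zero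
    · exact W.pdD
  have hdk : ∀ n, B.d n ^ (-(v n + wn n * k1)) = B.d n ^ (-(v n)) * B'.d n ^ (-k1) := fun n => by
    rw [hz.base n, ← Real.rpow_mul (B.pos n).le, ← Real.rpow_add (B.pos n)]
    congr 1; ring
  have hlev3 : ∀ᶠ n in (U : Filter ℕ), (2 : ℝ) ^ (i n + M n + 1) ≤
      2 ^ lev n 0 * B.d n ^ (-(v n + wn n * k1)) := by
    filter_upwards [hlev2, hMup] with n h1 h2
    have e1 : (2 : ℝ) ^ (i n + M n + 1) = 2 ^ i n * (2 * 2 ^ M n) := by
      rw [pow_succ, pow_add]; ring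
    rw [e1, hdk, ← mul_assoc (2 ^ lev n 0 : ℝ)]
    refine mul_le_mul h1 (by linarith) (by positivity) ?_
    exact mul_nonneg (by positivity) (Real.rpow_nonneg (B.pos n).le _)
  have hl : ∀ j, CellLev B B' lev (0 : Fin 11) w0 o X wn (fun _ => 4) (cc j) (lvv j) := by
    intro j
    by_cases hj : j = 0
    · simp only [hcc, hlvv, if_pos hj]
      exact
        { rng := hi1.rng
          le := hi1.le
          ge := by
            filter_upwards [hi1.ge] with n h1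
            refine h1.trans ?_
            have : (0 : ℝ) < 2 ^ i n := by positivity
            linarith
          own := hi1.own }
    · simp only [hcc, hlvv, if_neg hj]
      exact
        { rng := by
            filter_upwards [W.ev_w] with n h1
            rw [W.Xp0, add_sub_cancel_left]
            exact h1
          le := fun ε hε => by
            filter_upwards [hlev3] with n h1
            rw [W.Xp0, add_sub_cancel_left]
            refine h1.trans ?_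
            have h2 : (1 : ℝ) ≤ B'.d n ^ (-ε) :=
              Real.one_le_rpow_of_pos_of_le_one_of_nonpos (B'.pos n) (B'.lt n).le (by linarith)
            exact le_mul_of_one_le_left (mul_nonneg (by positivity)
              (Real.rpow_nonneg (B.pos n).le _)) h2
          ge := by
            filter_upwards [hlev1, hbig] with n h1 h2
            have h3 := (hM n h2).2
            rw [W.Xp0, add_sub_cancel_left, hdk]
            have e1 : (2 : ℝ) ^ (i n + M n + 1) = 2 ^ i n * 2 ^ (M n + 1) := by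
              rw [← pow_add]; congr 1
            have h4 : B'.d n ^ (-k1) ≤ 2 * 2 ^ (M n + 1) := by linarith
            rw [e1]
            calc (2 : ℝ) ^ lev n 0 * (B.d n ^ (-(v n)) * B'.d n ^ (-k1)) =
                  (2 ^ lev n 0 * B.d n ^ (-(v n))) * B'.d n ^ (-k1) := by ring
              _ ≤ (2 * 2 ^ i n) * (2 * 2 ^ (M n + 1)) :=
                  mul_le_mul h1 h4 (hp' n _).le (by positivity)
              _ = 4 * (2 ^ i n * 2 ^ (M n + 1)) := by ring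
          own := by
            filter_upwards [W.own1] with n h1 k
            rw [W.Xp0, add_sub_cancel_left]
            exact h1 k }
  have hnear : OwnNearS B I lev co o (fun _ => 4) S := by
    filter_upwards [hG] with n h1 v hv0 hv1 l hl x hx y hy hxy k
    exact h1.near v hv0 hv1 l hl x hx y hy hxy k
  obtain ⟨hup, s₀, hs₀, hZ, hnum⟩ := exists_zcls_cells (kz := (0 : Fin 11)) (w0 := w0)
    (lev := lev) hzco hz (fun _ => (0, 0)) (Gd := J) (E := J)
    (Eventually.of_forall fun n => Subset.rfl) (Eventually.of_forall fun n => Subset.rfl)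
    (S := fun _ => 1) (Base.Sub.const one_pos) (Eventually.of_forall fun n => by rw [one_mul])
    hnear W.hS ho (fun n => Real.rpow_pos_of_pos (B.pos n) _) hcc0 hccD hccm hl
  set Cl : ℕ → Finset (ℕ × ℝ) := fun n => cls (J n) (zlab B I co monQ 2 X wn n 0) (s₀ n) with hCl
  -- constants
  have hK0 : 1 ≤ cK0 monQ 2 := cK0_one (hz.chart 0).C0
  set K : ℝ := cK0 monQ 2 with hK
  have hK2 : 0 < 2 * K + 2 := by linarith
  -- cells in the class
  have hcells : ∀ᶠ n in (U : Filter ℕ), (((Cl n).image fun x => zc (i n) x.2).card : ℝ) ≤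
      2 * K + 2 := by
    filter_upwards [hz.sub, hlev2, hs₀] with n h1 h2 h3
    refine cells_le (Cl n) (fun x : ℕ × ℝ => (2 : ℝ) ^ i n * x.2) ((2 : ℝ) ^ i n * (s₀ n).2)
      (t := K) (fun x hx => ?_) (by linarith)
    obtain ⟨hx1, hx2⟩ := mem_cls.1 hx
    have h4 : Legal monQ (X n + wn n • (0 : Fin 11 → ℝ)) := by
      rw [e0]; exact (W.leg n).1
    have h5 := hz.near_of_zlab h4 (h1 h3) (h1 hx1) hx2.symm 0
    rw [Pi.zero_apply, Real.rpow_zero, mul_one, W.X0] at h5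
    exact z_near (B.pos n) (hzco n _ (h1 h3) _ (h1 hx1)) h5 h2
  -- small boxes in the class
  have hsCl : ∀ ε : ℝ, 0 < ε → ∀ᶠ n in (U : Filter ℕ),
      (((Cl n).image fun x => (zlab B I co monQ 2 X wn n (pdB k1 kN) x,
        zc (i n + M n + 1) x.2)).card : ℝ) * (TT n * B'.d n ^ (-lam (pdB k1 kN))) ≤
        TT n * B'.d n ^ (-ε) := by
    intro ε hε
    filter_upwards [hz.sub, hlev3, hs₀, hz.prof.num ‖pdB k1 kN‖ (ε / 2) (by positivity),
      hz.legal ‖pdB k1 kN‖, ev_const_le B' hK2 (half_pos hε)] with n h1 h2 h3 h4 h5 h6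
    have hT := hz.T0 n
    have c1 := card_image_le_mul (Cl n) (fun x => (zlab B I co monQ 2 X wn n (pdB k1 kN) x,
      zc (i n + M n + 1) x.2)) (zlab B I co monQ 2 X wn n (pdB k1 kN)) (N := 2 * K + 2)
      (fun x hx => by
        have hxJ : x ∈ J n := (mem_cls.1 hx).1
        have h7 := cells_le (cls (Cl n) (zlab B I co monQ 2 X wn n (pdB k1 kN)) x)
          (fun y : ℕ × ℝ => (2 : ℝ) ^ (i n + M n + 1) * y.2)
          ((2 : ℝ) ^ (i n + M n + 1) * x.2) (t := K) (fun y hy => by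
            obtain ⟨hy1, hy2⟩ := mem_cls.1 hy
            have hyJ : y ∈ J n := (mem_cls.1 hy1).1
            have h8 := hz.near_of_zlab (h5 _ W.pdD le_rfl) (h1 hxJ) (h1 hyJ) hy2.symm 0
            have e2 : B.d n ^ X n 0 * B'.d n ^ pdB k1 kN 0 = B.d n ^ (w0 + (v n + wn n * k1)) := by
              rw [hz.base n, ← Real.rpow_mul (B.pos n).le, ← Real.rpow_add (B.pos n), W.X0]
              congr 1
              simp [pdB]
              ring
            rw [e2] at h8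
            exact z_near (B.pos n) (hzco n _ (h1 hxJ) _ (h1 hyJ)) h8 h2) (by linarith)
        refine le_trans (Nat.cast_le.2 ?_) h7
        refine (Nat.cast_le (α := ℝ)).1 (card_image_le_of _ _ _ fun y hy z hz' he => ?_)
        have e1 := (mem_cls.1 hy).2
        have e2 := (mem_cls.1 hz').2
        exact Prod.ext (e1.trans e2.symm) he)
    have c2 := h4 0 hz.zero (by rw [norm_zero]; exact norm_nonneg _) _ W.pdD le_rfl hpd0 (s₀ n) h3
    rw [hz.lam0] at c2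
    calc (((Cl n).image fun x => (zlab B I co monQ 2 X wn n (pdB k1 kN) x,
          zc (i n + M n + 1) x.2)).card : ℝ) * (TT n * B'.d n ^ (-lam (pdB k1 kN)))
        ≤ ((2 * K + 2) * B'.d n ^ (-(0 - lam (pdB k1 kN) + ε / 2))) *
            (TT n * B'.d n ^ (-lam (pdB k1 kN))) := by
          refine mul_le_mul_of_nonneg_right (c1.trans ?_) (mul_pos hT (hp' n _)).le
          exact mul_le_mul_of_nonneg_left c2 hK2.le
      _ = (2 * K + 2) * (TT n * (B'.d n ^ (-(0 - lam (pdB k1 kN) + ε / 2)) *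
            B'.d n ^ (-lam (pdB k1 kN)))) := by ring
      _ = (2 * K + 2) * (TT n * B'.d n ^ (-(ε / 2))) := by
          rw [← Real.rpow_add (B'.pos n)]; congr 3; ring
      _ ≤ B'.d n ^ (-(ε / 2)) * (TT n * B'.d n ^ (-(ε / 2))) :=
          mul_le_mul_of_nonneg_right h6 (mul_pos hT (hp' n _)).le
      _ = TT n * B'.d n ^ (-ε) := by
          rw [mul_left_comm, ← Real.rpow_add (B'.pos n)]; congr 2; ring
  have hClne : ∀ᶠ n in (U : Filter ℕ), (Cl n).Nonempty := by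
    filter_upwards [hs₀] with n h1 using ⟨s₀ n, mem_cls.2 ⟨h1, rfl⟩⟩
  -- the most popular cell
  have hJex : ∀ n, ∃ J0 : ℤ, (Cl n).Nonempty → ((Cl n).card : ℝ) ≤
      ((Cl n).image fun x => zc (i n) x.2).card *
        (((Cl n).filter fun x => zc (i n) x.2 = J0).card : ℝ) ∧
      ((Cl n).filter fun x => zc (i n) x.2 = J0).Nonempty := fun n => by
    by_cases h : (Cl n).Nonempty
    · obtain ⟨b, hb⟩ := pop_cell (Cl n) (fun x => zc (i n) x.2) h
      exact ⟨b, fun _ => hb⟩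
    · exact ⟨0, fun h' => absurd h' h⟩
  choose J0 hJ0 using hJex
  set E : ℕ → Finset (ℕ × ℝ) := fun n => (Cl n).filter fun x => zc (i n) x.2 = J0 n with hE
  have hEsub : ∀ᶠ n in (U : Filter ℕ), E n ⊆ Cl n :=
    Eventually.of_forall fun n => filter_subset _ _
  have hdense : ∀ ε : ℝ, 0 < ε → ∀ᶠ n in (U : Filter ℕ),
      B'.d n ^ ε * ((Cl n).card : ℝ) ≤ ((E n).card : ℝ) := by
    intro ε hε
    filter_upwards [hClne, hcells, ev_const_le B' hK2 hε] with n h1 h2 h3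
    have h4 := (hJ0 n h1).1
    have h5 : ((Cl n).card : ℝ) ≤ B'.d n ^ (-ε) * (E n).card :=
      h4.trans (mul_le_mul_of_nonneg_right (h2.trans h3) (Nat.cast_nonneg _))
    calc B'.d n ^ ε * ((Cl n).card : ℝ) ≤ B'.d n ^ ε * (B'.d n ^ (-ε) * (E n).card) :=
          mul_le_mul_of_nonneg_left h5 (hp' n _).le
      _ = (E n).card := by
          rw [← mul_assoc, ← Real.rpow_add (B'.pos n), add_neg_cancel, Real.rpow_zero, one_mul]
  have hn0 := hnum 0
  have hu1 := hup 1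
  simp only [hcc, hlvv, if_true, one_ne_zero, if_false, Pi.zero_apply, neg_zero, Real.rpow_zero,
    mul_one] at hn0 hu1
  have e1 : pdB k1 kN 0 = k1 := rfl
  refine ⟨i, M, J0, E, s₀,
    { smem := hs₀
      ne := by filter_upwards [hClne] with n h1 using (hJ0 n h1).2
      sub := Eventually.of_forall fun n => (filter_subset _ _).trans (cls_subset _ _ _)
      lab := Eventually.of_forall fun n x hx => (mem_cls.1 (mem_filter.1 hx).1).2
      cell := Eventually.of_forall fun n x hx => (mem_filter.1 hx).2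
      lev1 := hlev1
      lev2 := hlev2
      snum := fun ε hε => counts_dense (T := TT)
        (fun n => mul_pos (hz.T0 n) (hp' n _)) hZ.big hEsub hdense hsCl hε
      onum := fun ε hε => counts_dense (T := TT)
        (fun n => Real.rpow_pos_of_pos (B.pos n) _) hZ.big hEsub hdense hn0 hε
      oup := fun ε hε => by
        filter_upwards [hu1 ε hε] with n h1 x hx
        have h2 := h1 x ((filter_subset _ _).trans (cls_subset _ _ _) hx)
        have e2 : -(-pdB k1 kN 0 + ε) = k1 - ε := by rw [e1]; ring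
        rw [e2] at h2
        refine le_trans (Nat.cast_le.2 (card_le_card fun y hy => ?_)) h2
        obtain ⟨hy1, hy2⟩ := mem_filter.1 hy
        exact mem_filter.2 ⟨(filter_subset _ _).trans (cls_subset _ _ _) hy1, hy2⟩
      Mlow := hMlow
      Mup := hMup }⟩

end

end Crest.Agent.R136.Lab926
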