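import Crest.Agent.R136.LabW5_926
import Crest.Agent.R136.LabG_371

/-!
# R136: END-LAB, window side, part 6 (helper926)

Geometry of the family `E`: the functionals of the flag of the popular point in the natural units,
`WinH.slabIn`.
-/

set_option autoImplicit false
set_option linter.unusedSectionVars false
set_option linter.unusedVariables false

open Filter Topology

namespace Crest.Agent.R136.Lab926

open Finset
open Crest.Agent.R138.Ex926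
open Crest.Agent.R138.Mk163 (zc zl rho alive)
open Crest.Agent.R138.MkRef627 (lc kc mem_alive)
open Crest.Agent.R136.Sh605
open Crest.Agent.R136.End403
open Crest.Agent.R136.Net191
open Crest.Agent.R136.NetQ186
open Crest.Agent.R136.GeoQ186
open Crest.Agent.R136.MkA627
open Crest.Agent.R136.Wq638
open Crest.Agent.R136.Lq196
open Crest.Agent.R136.Qg926

theorem natX_natB (w0 R1 v t1 t2 t3 : ℝ) : NatX (natB w0 R1 v t1 t2 t3) := by
  refine ⟨?_, ?_, ?_, ?_, ?_, ?_⟩ <;> simp only [natB, Matrix.cons_val] <;> ring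

/-- bounds from bounded coefficients -/
theorem abs3_bd {r8 r5 r9 r6 r10 r7 s2 s3 s4 ζ κ t : ℝ} (hκ : 1 ≤ κ) (ht : 0 ≤ t)
    (h8 : |r8| ≤ κ * t) (h5 : |r5| ≤ κ * t) (h9 : |r9| ≤ κ * t) (h6 : |r6| ≤ κ * t)
    (h10 : |r10| ≤ κ * t) (h7 : |r7| ≤ κ * t) (h2 : |s2| ≤ κ) (h3 : |s3| ≤ κ) (h4 : |s4| ≤ κ)
    (hζ : |ζ| ≤ 2) :
    |r8 + ζ * r5| ≤ 12 * κ ^ 3 * t ∧
    |r9 + ζ * r6 + s2 * (r8 + ζ * r5)| ≤ 12 * κ ^ 3 * t ∧
    |r10 + ζ * r7 + s4 * (r8 + ζ * r5) + s3 * (r9 + ζ * r6 + s2 * (r8 + ζ * r5))| ≤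
      12 * κ ^ 3 * t := by
  have hκ0 : 0 < κ := by linarith
  have m : ∀ {a b x y : ℝ}, |a| ≤ x → |b| ≤ y → |a * b| ≤ x * y := fun {a b x y} ha hb => by
    rw [abs_mul]
    exact mul_le_mul ha hb (abs_nonneg _) ((abs_nonneg _).trans ha)
  have ad : ∀ {a b x y : ℝ}, |a| ≤ x → |b| ≤ y → |a + b| ≤ x + y := fun {a b x y} ha hb =>
    (abs_add_le _ _).trans (add_le_add ha hb)
  have a1 : |r8 + ζ * r5| ≤ κ * t + 2 * (κ * t) := ad h8 (m hζ h5)
  have a2 : |r9 + ζ * r6 + s2 * (r8 + ζ * r5)| ≤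
      κ * t + 2 * (κ * t) + κ * (κ * t + 2 * (κ * t)) := ad (ad h9 (m hζ h6)) (m h2 a1)
  have a3 : |r10 + ζ * r7 + s4 * (r8 + ζ * r5) + s3 * (r9 + ζ * r6 + s2 * (r8 + ζ * r5))| ≤
      κ * t + 2 * (κ * t) + κ * (κ * t + 2 * (κ * t)) +
        κ * (κ * t + 2 * (κ * t) + κ * (κ * t + 2 * (κ * t))) :=
    ad (ad (ad h10 (m hζ h7)) (m h4 a1)) (m h3 a2)
  have k1 : κ ≤ κ ^ 3 := by
    calc κ = κ ^ 1 := (pow_one κ).symm
      _ ≤ κ ^ 3 := pow_le_pow_right₀ hκ (by norm_num)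
  have k2 : κ ^ 2 ≤ κ ^ 3 := pow_le_pow_right₀ hκ (by norm_num)
  have t1 : κ * t ≤ κ ^ 3 * t := mul_le_mul_of_nonneg_right k1 ht
  have t2 : κ ^ 2 * t ≤ κ ^ 3 * t := mul_le_mul_of_nonneg_right k2 ht
  have t3 : 0 ≤ κ ^ 3 * t := by positivity
  refine ⟨?_, ?_, ?_⟩
  · refine a1.trans ?_
    linarith
  · refine a2.trans ?_
    have e : κ * t + 2 * (κ * t) + κ * (κ * t + 2 * (κ * t)) = 3 * (κ * t) + 3 * (κ ^ 2 * t) := by
      ring
    rw [e]; linarith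
  · refine a3.trans ?_
    have e : κ * t + 2 * (κ * t) + κ * (κ * t + 2 * (κ * t)) +
        κ * (κ * t + 2 * (κ * t) + κ * (κ * t + 2 * (κ * t))) =
        3 * (κ * t) + 6 * (κ ^ 2 * t) + 3 * (κ ^ 3 * t) := by ring
    rw [e]; linarith

/-- bounds at the height of the incidence -/
theorem abs3_sm {r8 r9 r10 s2 s3 s4 κ t u : ℝ} (hκ : 1 ≤ κ) (hu : 0 ≤ u) (hut : u ≤ t)
    (h8 : |r8| ≤ κ * u) (h9 : |r9| ≤ κ * u)
    (h10 : |r10| ≤ κ * t) (h2 : |s2| ≤ κ) (h3 : |s3| ≤ κ) (h4 : |s4| ≤ κ) :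
    |r8| ≤ 12 * κ ^ 3 * u ∧
    |r9 + s2 * r8| ≤ 12 * κ ^ 3 * u ∧
    |r10 + s4 * r8 + s3 * (r9 + s2 * r8)| ≤ 12 * κ ^ 3 * t := by
  have hκ0 : 0 < κ := by linarith
  have ht : 0 ≤ t := hu.trans hut
  have m : ∀ {a b x y : ℝ}, |a| ≤ x → |b| ≤ y → |a * b| ≤ x * y := fun {a b x y} ha hb => by
    rw [abs_mul]
    exact mul_le_mul ha hb (abs_nonneg _) ((abs_nonneg _).trans ha)
  have ad : ∀ {a b x y : ℝ}, |a| ≤ x → |b| ≤ y → |a + b| ≤ x + y := fun {a b x y} ha hb =>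
    (abs_add_le _ _).trans (add_le_add ha hb)
  have a2 : |r9 + s2 * r8| ≤ κ * u + κ * (κ * u) := ad h9 (m h2 h8)
  have a3 : |r10 + s4 * r8 + s3 * (r9 + s2 * r8)| ≤
      κ * t + κ * (κ * u) + κ * (κ * u + κ * (κ * u)) := ad (ad h10 (m h4 h8)) (m h3 a2)
  have k1 : κ ≤ κ ^ 3 := by
    calc κ = κ ^ 1 := (pow_one κ).symm
      _ ≤ κ ^ 3 := pow_le_pow_right₀ hκ (by norm_num)
  have k2 : κ ^ 2 ≤ κ ^ 3 := pow_le_pow_right₀ hκ (by norm_num)
  have u1 : κ * u ≤ κ ^ 3 * u := mul_le_mul_of_nonneg_right k1 hu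
  have u2 : κ ^ 2 * u ≤ κ ^ 3 * u := mul_le_mul_of_nonneg_right k2 hu
  have t1 : κ * t ≤ κ ^ 3 * t := mul_le_mul_of_nonneg_right k1 ht
  have t3 : κ ^ 3 * u ≤ κ ^ 3 * t := mul_le_mul_of_nonneg_left hut (by positivity)
  have t4 : 0 ≤ κ ^ 3 * u := by positivity
  refine ⟨h8.trans (by linarith), ?_, ?_⟩
  · refine a2.trans ?_
    have e : κ * u + κ * (κ * u) = κ * u + κ ^ 2 * u := by ring
    rw [e]; linarith
  · refine a3.trans ?_
    have e : κ * t + κ * (κ * u) + κ * (κ * u + κ * (κ * u)) =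
        κ * t + 2 * (κ ^ 2 * u) + κ ^ 3 * u := by ring
    rw [e]; linarith

/-- size of the class -/
noncomputable def wS (B : Base) (w : Fin 3 → ℕ → ℚ → ℝ) (j : Fin 3) (n : ℕ) (t : ℝ) : ℝ :=
  w j n 0 * B.d n ^ t

section

variable {B : Base} {L : ℕ → ℕ → Ln4} {π : Equiv.Perm (Fin 3)} {eE fA fB : ℕ → ℕ × ℝ → ℝ}
    {lev : ℕ → ℚ → ℕ} {w : Fin 3 → ℕ → ℚ → ℝ} {w0 R1 v t1 t2 t3 : ℝ} {n : ℕ}

theorem uH_pos : 0 < uH B lev w0 n := by
  unfold uH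
  have := Real.rpow_pos_of_pos (B.pos n) w0
  positivity

theorem uA_pos (h : ∀ j, 0 < w j n 0) : 0 < uA B lev w w0 n := by
  unfold uA
  have h1 := h 1
  have h2 := rho_pos' (lev n 0)
  have := Real.rpow_pos_of_pos (B.pos n) (-w0)
  positivity

theorem uB_pos (h : ∀ j, 0 < w j n 0) : 0 < uB B lev w w0 n := by
  unfold uB
  have h1 := h 2
  have h2 := rho_pos' (lev n 0)
  have := Real.rpow_pos_of_pos (B.pos n) (-(2 * w0))
  positivity

theorem uY_pos (h : ∀ j, 0 < w j n 0) : 0 < uY B lev w w0 n := by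
  unfold uY
  have h1 := h 0
  have h2 := rho_pos' (lev n 0)
  have := Real.rpow_pos_of_pos (B.pos n) (-(3 * w0))
  positivity

theorem unit_aux {d x c w0 s : ℝ} (hd : 0 < d) {l : ℕ} (k : ℝ) :
    x / rho l * d ^ (-(k * w0)) / (d ^ w0 * 2 ^ l) * d ^ ((k + 1) * w0 + s) = x * d ^ s := by
  have p : 0 < d ^ w0 := Real.rpow_pos_of_pos hd _
  have p2 : (0 : ℝ) < 2 ^ l := by positivity
  have e1 : d ^ ((k + 1) * w0 + s) = d ^ (k * w0) * d ^ w0 * d ^ s := by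
    rw [← Real.rpow_add hd, ← Real.rpow_add hd]; congr 1; ring
  have e2 : d ^ (-(k * w0)) = (d ^ (k * w0))⁻¹ := Real.rpow_neg hd.le _
  have p3 : 0 < d ^ (k * w0) := Real.rpow_pos_of_pos hd _
  rw [e1, e2]
  unfold rho
  field_simp

theorem unit1 : uA B lev w w0 n / uH B lev w0 n * B.d n ^ natB w0 R1 v t1 t2 t3 8 =
    wS B w 1 n (v + t1) := by
  have h := unit_aux (x := w 1 n 0) (c := 0) (w0 := w0) (s := v + t1) (B.pos n) (l := lev n 0) 1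
  rw [one_mul] at h
  unfold wS
  rw [← h]
  unfold uA uH
  congr 2
  simp only [natB, Matrix.cons_val]
  ring

theorem unit2 : uB B lev w w0 n / uH B lev w0 n * B.d n ^ natB w0 R1 v t1 t2 t3 9 =
    wS B w 2 n (v + t2) := by
  have h := unit_aux (x := w 2 n 0) (c := 0) (w0 := w0) (s := v + t2) (B.pos n) (l := lev n 0) 2
  unfold wS
  rw [← h]
  unfold uB uH
  congr 2
  simp only [natB, Matrix.cons_val]
  ring

theorem unit3 : uY B lev w w0 n / uH B lev w0 n * B.d n ^ natB w0 R1 v t1 t2 t3 10 =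
    wS B w 0 n (v + t3) := by
  have h := unit_aux (x := w 0 n 0) (c := 0) (w0 := w0) (s := v + t3) (B.pos n) (l := lev n 0) 3
  unfold wS
  rw [← h]
  unfold uY uH
  congr 2
  simp only [natB, Matrix.cons_val]
  ring

/-- the functionals on the difference of two near lines -/
theorem fn_near (hw : ∀ j, 0 < w j n 0) {κ t : ℝ} (hκ : 1 ≤ κ) (ht : 0 ≤ t) {o x y : ℕ × ℝ}
    (hox : ∀ k, |couQ B lev w w0 (incQ π L eE fA fB) n o x k| ≤
      κ * B.d n ^ natB w0 R1 v t1 t2 t3 k)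
    (hxy : ∀ k : Fin 11, 5 ≤ k → |couQ B lev w w0 (incQ π L eE fA fB) n x y k| ≤
      κ * t * B.d n ^ natB w0 R1 v t1 t2 t3 k) {z : ℝ}
    (hz : uH B lev w0 n * |z - x.2| ≤ 2 * B.d n ^ natB w0 R1 v t1 t2 t3 0) :
    |dt (fn1 π (wS B w 1 n (v + t1))) ((L n y.1).pos z - (L n x.1).pos z)| ≤ 12 * κ ^ 3 * t ∧
    |dt (fn2 π (eE n o) (wS B w 2 n (v + t2))) ((L n y.1).pos z - (L n x.1).pos z)| ≤
      12 * κ ^ 3 * t ∧
    |dt (fn3 π (fA n o) (fB n o) (wS B w 0 n (v + t3))) ((L n y.1).pos z - (L n x.1).pos z)| ≤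
      12 * κ ^ 3 * t := by
  obtain ⟨g1, g2, g3⟩ := dt_fn (π := π) (B.pos n) (uH_pos (B := B) (lev := lev) (w0 := w0))
    (uA_pos (B := B) (lev := lev) (w0 := w0) hw) (uB_pos hw) (uY_pos hw)
    (natX_natB w0 R1 v t1 t2 t3) (x := incQ π L eE fA fB n x) (y := incQ π L eE fA fB n y)
    (o := incQ π L eE fA fB n o) rfl rfl rfl z
  rw [unit1] at g1
  rw [unit2] at g2
  rw [unit3] at g3
  rw [g1, g2, g3]
  have hp : ∀ k, 0 < B.d n ^ natB w0 R1 v t1 t2 t3 k := fun k => Real.rpow_pos_of_pos (B.pos n) _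
  have b1 : ∀ k : Fin 11, 5 ≤ k → |relG (uH B lev w0 n) (uA B lev w w0 n) (uB B lev w w0 n)
      (uY B lev w w0 n) (B.d n) (natB w0 R1 v t1 t2 t3) (incQ π L eE fA fB n x)
      (incQ π L eE fA fB n y) k| ≤ κ * t := fun k hk => by
    rw [relG, abs_div, abs_of_pos (hp k), div_le_iff₀ (hp k)]
    exact hxy k hk
  have b2 : ∀ k, |relG (uH B lev w0 n) (uA B lev w w0 n) (uB B lev w w0 n) (uY B lev w w0 n)
      (B.d n) (natB w0 R1 v t1 t2 t3) (incQ π L eE fA fB n o) (incQ π L eE fA fB n x) k| ≤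
      κ := fun k => by
    rw [relG, abs_div, abs_of_pos (hp k), div_le_iff₀ (hp k)]
    exact hox k
  have hζ : |uH B lev w0 n * (z - x.2) / B.d n ^ natB w0 R1 v t1 t2 t3 0| ≤ 2 := by
    rw [abs_div, abs_of_pos (hp 0), div_le_iff₀ (hp 0), abs_mul, abs_of_pos uH_pos]
    exact hz
  exact abs3_bd hκ ht (b1 8 (by decide)) (b1 5 (by decide)) (b1 9 (by decide))
    (b1 6 (by decide)) (b1 10 (by decide)) (b1 7 (by decide)) (b2 2) (b2 3) (b2 4) hζ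

/-- the functionals at the height of the incidence -/
theorem fn_small (hw : ∀ j, 0 < w j n 0) {κ t u : ℝ} (hκ : 1 ≤ κ) (hu : 0 ≤ u) (hut : u ≤ t)
    {o x y : ℕ × ℝ}
    (hox : ∀ k, |couQ B lev w w0 (incQ π L eE fA fB) n o x k| ≤
      κ * B.d n ^ natB w0 R1 v t1 t2 t3 k)
    (h8 : |couQ B lev w w0 (incQ π L eE fA fB) n x y 8| ≤
      κ * u * B.d n ^ natB w0 R1 v t1 t2 t3 8)
    (h9 : |couQ B lev w w0 (incQ π L eE fA fB) n x y 9| ≤
      κ * u * B.d n ^ natB w0 R1 v t1 t2 t3 9)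
    (h10 : |couQ B lev w w0 (incQ π L eE fA fB) n x y 10| ≤
      κ * t * B.d n ^ natB w0 R1 v t1 t2 t3 10) :
    |dt (fn1 π (wS B w 1 n (v + t1))) ((L n y.1).pos x.2 - (L n x.1).pos x.2)| ≤
      12 * κ ^ 3 * u ∧
    |dt (fn2 π (eE n o) (wS B w 2 n (v + t2))) ((L n y.1).pos x.2 - (L n x.1).pos x.2)| ≤
      12 * κ ^ 3 * u ∧
    |dt (fn3 π (fA n o) (fB n o) (wS B w 0 n (v + t3)))
      ((L n y.1).pos x.2 - (L n x.1).pos x.2)| ≤ 12 * κ ^ 3 * t := by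
  obtain ⟨g1, g2, g3⟩ := dt_fn (π := π) (B.pos n) (uH_pos (B := B) (lev := lev) (w0 := w0))
    (uA_pos (B := B) (lev := lev) (w0 := w0) hw) (uB_pos hw) (uY_pos hw)
    (natX_natB w0 R1 v t1 t2 t3) (x := incQ π L eE fA fB n x) (y := incQ π L eE fA fB n y)
    (o := incQ π L eE fA fB n o) rfl rfl rfl x.2
  rw [unit1] at g1
  rw [unit2] at g2
  rw [unit3] at g3
  simp only [sub_self, mul_zero, zero_div, zero_mul, add_zero] at g1 g2 g3
  rw [g1, g2, g3]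
  have hp : ∀ k, 0 < B.d n ^ natB w0 R1 v t1 t2 t3 k := fun k => Real.rpow_pos_of_pos (B.pos n) _
  have b1 : ∀ (k : Fin 11) (c : ℝ), |couQ B lev w w0 (incQ π L eE fA fB) n x y k| ≤
      c * B.d n ^ natB w0 R1 v t1 t2 t3 k →
      |relG (uH B lev w0 n) (uA B lev w w0 n) (uB B lev w w0 n) (uY B lev w w0 n)
      (B.d n) (natB w0 R1 v t1 t2 t3) (incQ π L eE fA fB n x) (incQ π L eE fA fB n y) k| ≤
      c := fun k c h => by
    rw [relG, abs_div, abs_of_pos (hp k), div_le_iff₀ (hp k)]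
    exact h
  have b2 : ∀ k, |relG (uH B lev w0 n) (uA B lev w w0 n) (uB B lev w w0 n) (uY B lev w w0 n)
      (B.d n) (natB w0 R1 v t1 t2 t3) (incQ π L eE fA fB n o) (incQ π L eE fA fB n x) k| ≤
      κ := fun k => by
    rw [relG, abs_div, abs_of_pos (hp k), div_le_iff₀ (hp k)]
    exact hox k
  exact abs3_sm hκ hu hut (b1 8 _ h8) (b1 9 _ h9) (b1 10 _ h10) (b2 2) (b2 3) (b2 4)

theorem coQ_self (i : Fq4) (k : Fin 11) : coQ i i k = 0 := by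
  fin_cases k <;> simp [coQ]

/-- the functionals on the difference of two velocities -/
theorem fn_vel (hw : ∀ j, 0 < w j n 0) {o y : ℕ × ℝ} :
    dt (fn1 π (wS B w 1 n (v + t1))) ((L n y.1).v - (L n o.1).v) *
      (B.d n ^ natB w0 R1 v t1 t2 t3 0 / uH B lev w0 n) =
      couQ B lev w w0 (incQ π L eE fA fB) n o y 5 / B.d n ^ natB w0 R1 v t1 t2 t3 5 ∧
    dt (fn2 π (eE n o) (wS B w 2 n (v + t2))) ((L n y.1).v - (L n o.1).v) *
      (B.d n ^ natB w0 R1 v t1 t2 t3 0 / uH B lev w0 n) =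
      couQ B lev w w0 (incQ π L eE fA fB) n o y 6 / B.d n ^ natB w0 R1 v t1 t2 t3 6 ∧
    dt (fn3 π (fA n o) (fB n o) (wS B w 0 n (v + t3))) ((L n y.1).v - (L n o.1).v) *
      (B.d n ^ natB w0 R1 v t1 t2 t3 0 / uH B lev w0 n) =
      couQ B lev w w0 (incQ π L eE fA fB) n o y 7 / B.d n ^ natB w0 R1 v t1 t2 t3 7 := by
  obtain ⟨g1, g2, g3⟩ := dt_fnv (π := π) (B.pos n) (uH_pos (B := B) (lev := lev) (w0 := w0))
    (uA_pos (B := B) (lev := lev) (w0 := w0) hw) (uB_pos hw) (uY_pos hw)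
    (natX_natB w0 R1 v t1 t2 t3) (x := incQ π L eE fA fB n o) (y := incQ π L eE fA fB n y)
    (o := incQ π L eE fA fB n o) rfl rfl rfl
  have h0 : ∀ k, relG (uH B lev w0 n) (uA B lev w w0 n) (uB B lev w w0 n) (uY B lev w w0 n)
      (B.d n) (natB w0 R1 v t1 t2 t3) (incQ π L eE fA fB n o) (incQ π L eE fA fB n o) k = 0 :=
    fun k => by
      rw [relG, coQ_self, zero_div]
  rw [unit1] at g1
  rw [unit2] at g2
  rw [unit3] at g3
  simp only [h0, zero_mul, add_zero] at g2 g3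
  exact ⟨g1, g2, g3⟩

end

/-- the slab of the family -/
noncomputable def chE (B : Base) (π : Equiv.Perm (Fin 3)) (eE fA fB : ℕ → ℕ × ℝ → ℝ)
    (w : Fin 3 → ℕ → ℚ → ℝ) (v t1 t2 t3 : ℕ → ℝ) (s₀ : ℕ → ℕ × ℝ) (α β : ℕ → ℝ) (n : ℕ) : V3 :=
  gχ π (eE n (s₀ n)) (fA n (s₀ n)) (fB n (s₀ n)) (wS B w 1 n (v n + t1 n))
    (wS B w 2 n (v n + t2 n)) (wS B w 0 n (v n + t3 n)) (α n) (β n) 1

/-- the two directions of the family -/
noncomputable def psE (B : Base) (π : Equiv.Perm (Fin 3)) (eE : ℕ → ℕ × ℝ → ℝ)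
    (w : Fin 3 → ℕ → ℚ → ℝ) (v t1 t2 : ℕ → ℝ) (s₀ : ℕ → ℕ × ℝ) (n : ℕ) : Fin 2 → V3 :=
  gψ π (eE n (s₀ n)) (wS B w 1 n (v n + t1 n)) (wS B w 2 n (v n + t2 n)) 1

theorem dt_gχ (π : Equiv.Perm (Fin 3)) (e fa fb W1 W2 a α β K : ℝ) (x : V3) :
    dt (gχ π e fa fb W1 W2 a α β K) x =
      1 / K * (dt (fn3 π fa fb a) x - α * dt (fn1 π W1) x - β * dt (fn2 π e W2) x) := by
  rw [gχ, smul_dt', sub_dt, sub_dt, smul_dt', smul_dt']

theorem dt_gψ0 (π : Equiv.Perm (Fin 3)) (e W1 W2 K : ℝ) (x : V3) :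
    dt (gψ π e W1 W2 K 0) x = 1 / K * dt (fn1 π W1) x := by
  show dt ((1 / K) • fn1 π W1) x = _
  rw [smul_dt']

theorem dt_gψ1 (π : Equiv.Perm (Fin 3)) (e W1 W2 K : ℝ) (x : V3) :
    dt (gψ π e W1 W2 K 1) x = 1 / K * dt (fn2 π e W2) x := by
  show dt ((1 / K) • fn2 π e W2) x = _
  rw [smul_dt']

section

variable {σ' : Type*} {B B' : Base} {I I1 J : ℕ → Finset (ℕ × ℝ)} {G : Geo σ' (Fin 3)}
    {L : ℕ → ℕ → Ln4} {π : Equiv.Perm (Fin 3)} {eE fA fB : ℕ → ℕ × ℝ → ℝ} {lev : ℕ → ℚ → ℕ}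
    {w : Fin 3 → ℕ → ℚ → ℝ} {θ : Fin 3 → ℝ} {w0 R T0 : ℝ}
    {S SJ : ℕ → ℝ} {X : ℕ → Fin 11 → ℝ} {wn : ℕ → ℝ} {DD' : Set (Fin 11 → ℝ)} {TT : ℕ → ℝ}
    {lam : (Fin 11 → ℝ) → ℝ} {R1 v t1 t2 t3 : ℕ → ℝ} {kN k1 v1 γ : ℝ}
    {o : ℝ → Fin 11 → ℝ} {i M : ℕ → ℕ} {J0 : ℕ → ℤ} {E : ℕ → Finset (ℕ × ℝ)} {s₀ : ℕ → ℕ × ℝ}
    {co : ℕ → ℕ × ℝ → ℕ × ℝ → Fin 11 → ℝ}

theorem WinH.natle (W : WinH B B' I I1 J co θ w0 R T0 o S SJ X wn DD' TT lam R1 v t1 t2 t3 kN k1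
    v1 γ) (n : ℕ) (k : Fin 11) : natB w0 (R1 n) (v n) (t1 n) (t2 n) (t3 n) k ≤ X n k := by
  by_cases hk : k = 3
  · subst hk; exact W.nat3 n
  · rw [W.nat n k hk]

/-- the class is bounded in the natural units -/
theorem WinH.near0 (W : WinH B B' I I1 J co θ w0 R T0 o S SJ X wn DD' TT lam R1 v t1 t2 t3 kN k1
    v1 γ) {n : ℕ} {x y : ℕ × ℝ} (hx : x ∈ I n) (hy : y ∈ I n)
    (h : zlab B I co monQ 2 X wn n 0 x = zlab B I co monQ 2 X wn n 0 y) (k : Fin 11) :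
    |co n x y k| ≤ cK0 monQ 2 * B.d n ^ natB w0 (R1 n) (v n) (t1 n) (t2 n) (t3 n) k := by
  have h4 : Legal monQ (X n + wn n • (0 : Fin 11 → ℝ)) := by
    have e0 : X n + wn n • (0 : Fin 11 → ℝ) = X n := by simp
    rw [e0]; exact (W.leg n).1
  have h5 := W.hz.near_of_zlab h4 hx hy h k
  rw [Pi.zero_apply, Real.rpow_zero, mul_one] at h5
  have h6 : 1 ≤ cK0 monQ 2 := cK0_one (W.hz.chart 0).C0
  refine h5.trans (mul_le_mul_of_nonneg_left ?_ (by linarith))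
  exact Real.rpow_le_rpow_of_exponent_ge (B.pos n) (B.lt n).le (W.natle n k)

/-- heights in a cell -/
theorem cell_z {n : ℕ} {w0 v z zx : ℝ} {l i : ℕ} {J0 : ℤ} (hl : lev n 0 = l)
    (h1 : (2 : ℝ) ^ l * B.d n ^ (-v) ≤ 2 * 2 ^ i) (hz1 : zl i J0 ≤ z) (hz2 : z ≤ zl i J0 + rho i)
    (hx : zc i zx = J0) : uH B lev w0 n * |z - zx| ≤ 2 * B.d n ^ (w0 + v) := by
  obtain ⟨x1, x2⟩ := in_cell hx
  have h2 : |z - zx| ≤ rho i := by
    rw [abs_le]; constructor <;> linarith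
  have hH := uH_pos (B := B) (lev := lev) (w0 := w0) (n := n)
  refine (mul_le_mul_of_nonneg_left h2 hH.le).trans ?_
  have p1 := Real.rpow_pos_of_pos (B.pos n) w0
  have p2 := Real.rpow_pos_of_pos (B.pos n) v
  have p3 : (0 : ℝ) < 2 ^ i := by positivity
  have e1 : B.d n ^ (-v) = (B.d n ^ v)⁻¹ := Real.rpow_neg (B.pos n).le _
  rw [e1, ← div_eq_mul_inv, div_le_iff₀ p2] at h1
  unfold uH rho
  rw [hl, Real.rpow_add (B.pos n), mul_one_div, div_le_iff₀ p3]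
  calc B.d n ^ w0 * 2 ^ l ≤ B.d n ^ w0 * (2 * 2 ^ i * B.d n ^ v) :=
        mul_le_mul_of_nonneg_left h1 p1.le
    _ = _ := by ring

theorem rho_le_unit {n : ℕ} {w0 v : ℝ} {i : ℕ}
    (h1 : (2 : ℝ) ^ lev n 0 * B.d n ^ (-v) ≤ 2 * 2 ^ i) :
    rho i ≤ 2 * (B.d n ^ (w0 + v) / uH B lev w0 n) := by
  have hH := uH_pos (B := B) (lev := lev) (w0 := w0) (n := n)
  have p1 := Real.rpow_pos_of_pos (B.pos n) w0
  have p2 := Real.rpow_pos_of_pos (B.pos n) v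
  have p3 : (0 : ℝ) < 2 ^ i := by positivity
  have e1 : B.d n ^ (-v) = (B.d n ^ v)⁻¹ := Real.rpow_neg (B.pos n).le _
  rw [e1, ← div_eq_mul_inv, div_le_iff₀ p2] at h1
  rw [mul_div_assoc', le_div_iff₀ hH]
  unfold uH rho
  rw [Real.rpow_add (B.pos n), one_div_mul_eq_div, div_le_iff₀ p3]
  calc B.d n ^ w0 * 2 ^ lev n 0 ≤ B.d n ^ w0 * (2 * 2 ^ i * B.d n ^ v) :=
        mul_le_mul_of_nonneg_left h1 p1.le
    _ = _ := by ring

set_option maxHeartbeats 1600000 in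
/-- **the family in slabs** -/
theorem WinH.slabIn (W : WinH B B' I I1 J (couQ B lev w w0 (incQ π L eE fA fB)) θ w0 R T0 o S SJ X
    wn DD' TT lam R1 v t1 t2 t3 kN k1 v1 γ) (hw : ∀ᶠ n in (U : Filter ℕ), ∀ j, 0 < w j n 0)
    (hF : FamOk B B' I J (couQ B lev w w0 (incQ π L eE fA fB)) lev X wn TT lam v kN k1 i M J0 E
      s₀) {α β : ℕ → ℝ}
    (hα : ∀ ε : ℝ, 0 < ε → ∀ᶠ n in (U : Filter ℕ), |α n| ≤ B'.d n ^ (-ε) ∧
      |β n| ≤ B'.d n ^ (-ε))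
    (hrel : ∀ ε : ℝ, 0 < ε → ∀ᶠ n in (U : Filter ℕ), ∃ c : ℝ, ∀ y ∈ J n,
      zlab B I (couQ B lev w w0 (incQ π L eE fA fB)) monQ 2 X wn n 0 y =
        zlab B I (couQ B lev w w0 (incQ π L eE fA fB)) monQ 2 X wn n 0 (s₀ n) →
        |couQ B lev w w0 (incQ π L eE fA fB) n (s₀ n) y 7 / B.d n ^ X n 7 -
          α n * (couQ B lev w w0 (incQ π L eE fA fB) n (s₀ n) y 5 / B.d n ^ X n 5) -
          β n * (couQ B lev w w0 (incQ π L eE fA fB) n (s₀ n) y 6 / B.d n ^ X n 6) - c| ≤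
          B'.d n ^ (kN - ε)) :
    SlabIn B' E L (chE B π eE fA fB w v t1 t2 t3 s₀ α β) (psE B π eE w v t1 t2 s₀) i M J0 TT
      (fun n => B.d n ^ (-(1 - v n))) kN k1 (lam (pdB k1 kN))
      (fun n x => (zlab B I (couQ B lev w w0 (incQ π L eE fA fB)) monQ 2 X wn n (pdB k1 kN) x,
        zc (i n + M n + 1) x.2)) := by
  set co := couQ B lev w w0 (incQ π L eE fA fB) with hco
  have hz := W.hz
  have hk1 := W.k10
  have hkN := W.kN0
  set κ : ℝ := cK0 monQ 2 with hκ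
  have hκ1 : 1 ≤ κ := cK0_one (hz.chart 0).C0
  have hκ0 : 0 < κ := by linarith
  have hp' : ∀ n (t : ℝ), 0 < B'.d n ^ t := fun n t => Real.rpow_pos_of_pos (B'.pos n) t
  have hX0 : ∀ n, natB w0 (R1 n) (v n) (t1 n) (t2 n) (t3 n) 0 = w0 + v n := fun n => rfl
  have hC12 : 0 < 12 * κ ^ 3 := by positivity
  have hcl : ∀ᶠ n in (U : Filter ℕ), ∀ x ∈ E n, x ∈ I n ∧ s₀ n ∈ I n ∧
      ∀ k, |co n (s₀ n) x k| ≤ κ * B.d n ^ natB w0 (R1 n) (v n) (t1 n) (t2 n) (t3 n) k := by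
    filter_upwards [hz.sub, hF.sub, hF.lab, hF.smem] with n h1 h2 h3 h4 x hx
    exact ⟨h1 (h2 hx), h1 h4, fun k => W.near0 (h1 h4) (h1 (h2 hx)) (h3 x hx).symm k⟩
  refine
    { ne := hF.ne
      T0 := hz.T0
      To0 := fun n => Real.rpow_pos_of_pos (B.pos n) _
      kN0 := W.kN0
      k10 := hk1
      cell := hF.cell
      wide := ?_
      vel := ?_
      small := ?_
      snum := fun ε hε => by
        filter_upwards [hF.snum ε hε] with n hn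
        convert hn
      onum := hF.onum
      oup := hF.oup
      Mlow := hF.Mlow
      Mup := hF.Mup }
  · intro ε hε
    filter_upwards [hcl, hF.lab, hw, hF.lev1, hF.cell, ev_const_le B' hC12 hε] with n h1 h2 h3 h4
      h5 h6 x hx y hy z hz1 hz2
    obtain ⟨hxI, hsI, hox⟩ := h1 x hx
    obtain ⟨hyI, -, -⟩ := h1 y hy
    have hxy := fun k => W.near0 hxI hyI ((h2 x hx).trans (h2 y hy).symm) k
    have hζ := cell_z (B := B) (lev := lev) (w0 := w0) (n := n) rfl h4 hz1 hz2 (h5 x hx)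
    obtain ⟨g1, g2, -⟩ := fn_near (R1 := R1 n) h3 hκ1 zero_le_one hox (fun k _ => by
      rw [mul_one]; exact hxy k) (z := z) hζ
    rw [mul_one] at g1 g2
    intro j
    fin_cases j
    · show |dt (gψ π _ _ _ 1 0) _| ≤ _
      rw [dt_gψ0, one_div_one, one_mul]
      exact g1.trans h6
    · show |dt (gψ π _ _ _ 1 1) _| ≤ _
      rw [dt_gψ1, one_div_one, one_mul]
      exact g2.trans h6
  · intro ε hε
    filter_upwards [hF.sub, hF.lab, hw, hF.lev1, hrel (ε / 2) (half_pos hε),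
      ev_const_le B' (show (0 : ℝ) < 4 by norm_num) (half_pos hε)] with n h1 h2 h3 h4 h5 h6 x hx
      y hy
    obtain ⟨c, hc⟩ := h5
    set χ := chE B π eE fA fB w v t1 t2 t3 s₀ α β n with hχ
    set P : ℝ := B.d n ^ (w0 + v n) / uH B lev w0 n with hP
    have hP0 : 0 < P := div_pos (Real.rpow_pos_of_pos (B.pos n) _) uH_pos
    have key : ∀ y ∈ E n, |dt χ ((L n y.1).v - (L n (s₀ n).1).v) * P - c| ≤
        B'.d n ^ (kN - ε / 2) := by
      intro y hy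
      obtain ⟨g1, g2, g3⟩ := fn_vel (B := B) (L := L) (π := π) (eE := eE) (fA := fA) (fB := fB)
        (lev := lev) (w0 := w0) (R1 := R1 n) (v := v n) (t1 := t1 n) (t2 := t2 n) (t3 := t3 n) h3
        (o := s₀ n) (y := y)
      have e5 := W.nat n 5 (by decide)
      have e6 := W.nat n 6 (by decide)
      have e7 := W.nat n 7 (by decide)
      have h7 := hc y (h1 hy) (h2 y hy)
      rw [e5, e6, e7, ← g1, ← g2, ← g3] at h7
      have e8 : dt χ ((L n y.1).v - (L n (s₀ n).1).v) =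
          dt (fn3 π (fA n (s₀ n)) (fB n (s₀ n)) (wS B w 0 n (v n + t3 n)))
            ((L n y.1).v - (L n (s₀ n).1).v) -
          α n * dt (fn1 π (wS B w 1 n (v n + t1 n))) ((L n y.1).v - (L n (s₀ n).1).v) -
          β n * dt (fn2 π (eE n (s₀ n)) (wS B w 2 n (v n + t2 n)))
            ((L n y.1).v - (L n (s₀ n).1).v) := by
        rw [hχ, chE, dt_gχ, one_div_one, one_mul]
      rw [e8]
      refine le_trans (le_of_eq ?_) h7
      congr 1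
      rw [hP, ← hX0 n]
      ring
    have k1' := key x hx
    have k2' := key y hy
    have e9 : dt χ ((L n y.1).v - (L n x.1).v) =
        dt χ ((L n y.1).v - (L n (s₀ n).1).v) - dt χ ((L n x.1).v - (L n (s₀ n).1).v) := by
      rw [← dt_sub]; congr 1; abel
    have k3 : |dt χ ((L n y.1).v - (L n x.1).v)| * P ≤ 2 * B'.d n ^ (kN - ε / 2) := by
      have e10 : ∀ a : ℝ, |a| * P = |a * P| := fun a => by rw [abs_mul, abs_of_pos hP0]
      rw [e9, e10, sub_mul]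
      rw [abs_le] at k1' k2' ⊢
      constructor <;> linarith [k1'.1, k1'.2, k2'.1, k2'.2]
    have k4 : rho (i n) ≤ 2 * P := rho_le_unit h4
    calc |dt χ ((L n y.1).v - (L n x.1).v)| * rho (i n) ≤
          |dt χ ((L n y.1).v - (L n x.1).v)| * (2 * P) :=
          mul_le_mul_of_nonneg_left k4 (abs_nonneg _)
      _ = 2 * (|dt χ ((L n y.1).v - (L n x.1).v)| * P) := by ring
      _ ≤ 4 * B'.d n ^ (kN - ε / 2) := by linarith
      _ ≤ B'.d n ^ (-(ε / 2)) * B'.d n ^ (kN - ε / 2) :=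
          mul_le_mul_of_nonneg_right h6 (hp' n _).le
      _ = B'.d n ^ (kN - ε) := by
          rw [← Real.rpow_add (B'.pos n)]; congr 1; ring
  · intro ε hε
    have hC36 : 0 < 12 * κ ^ 3 * 3 := by positivity
    filter_upwards [hcl, hF.lab, hw, hz.legal ‖pdB k1 kN‖, hα (ε / 2) (half_pos hε),
      ev_const_le B' hC36 (half_pos hε)] with n h1 h2 h3 h4 h5 h6 x hx y hy hxy
    obtain ⟨hxI, hsI, hox⟩ := h1 x hx
    obtain ⟨hyI, -, -⟩ := h1 y hy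
    have hz1 := (Prod.mk.injEq _ _ _ _ ▸ hxy : _ ∧ _)
    obtain ⟨hl1, hl2⟩ := hz1
    have hbox := hz.near_of_zlab (h4 _ W.pdD le_rfl) hxI hyI hl1
    have h8 : |co n x y 8| ≤
        κ * B'.d n ^ k1 * B.d n ^ natB w0 (R1 n) (v n) (t1 n) (t2 n) (t3 n) 8 := by
      have := hbox 8
      rw [W.nat n 8 (by decide)] at this
      refine this.trans (le_of_eq ?_)
      show κ * (_ * B'.d n ^ k1) = _
      ring
    have h9 : |co n x y 9| ≤
        κ * B'.d n ^ k1 * B.d n ^ natB w0 (R1 n) (v n) (t1 n) (t2 n) (t3 n) 9 := by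
      have := hbox 9
      rw [W.nat n 9 (by decide)] at this
      refine this.trans (le_of_eq ?_)
      show κ * (_ * B'.d n ^ k1) = _
      ring
    have h10 : |co n x y 10| ≤
        κ * B'.d n ^ kN * B.d n ^ natB w0 (R1 n) (v n) (t1 n) (t2 n) (t3 n) 10 := by
      have := hbox 10
      rw [W.nat n 10 (by decide)] at this
      refine this.trans (le_of_eq ?_)
      show κ * (_ * B'.d n ^ kN) = _
      ring
    have hut : B'.d n ^ k1 ≤ B'.d n ^ kN :=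
      Real.rpow_le_rpow_of_exponent_ge (B'.pos n) (B'.lt n).le W.kNk
    obtain ⟨g1, g2, g3⟩ := fn_small h3 hκ1 (hp' n k1).le hut hox h8 h9 h10
    have hY1 : (1 : ℝ) ≤ B'.d n ^ (-(ε / 2)) :=
      Real.one_le_rpow_of_pos_of_le_one_of_nonpos (B'.pos n) (B'.lt n).le (by linarith)
    have hfin : ∀ t : ℝ, 12 * κ ^ 3 * 3 * B'.d n ^ (-(ε / 2)) * B'.d n ^ t ≤ B'.d n ^ (t - ε) := by
      intro t
      calc 12 * κ ^ 3 * 3 * B'.d n ^ (-(ε / 2)) * B'.d n ^ t ≤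
            B'.d n ^ (-(ε / 2)) * B'.d n ^ (-(ε / 2)) * B'.d n ^ t := by
            have := hp' n (-(ε / 2))
            have := hp' n t
            gcongr
        _ = B'.d n ^ (t - ε) := by
            rw [← Real.rpow_add (B'.pos n), ← Real.rpow_add (B'.pos n)]; congr 1; ring
    have hψb : ∀ {r : ℝ}, r ≤ 12 * κ ^ 3 * B'.d n ^ k1 → r ≤ B'.d n ^ (k1 - ε) := fun {r} hr => by
      refine (hr.trans ?_).trans (hfin k1)
      have := hp' n k1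
      have h7 : 12 * κ ^ 3 * 1 ≤ 12 * κ ^ 3 * 3 * B'.d n ^ (-(ε / 2)) := by nlinarith
      rw [mul_one] at h7
      exact mul_le_mul_of_nonneg_right h7 this.le
    refine ⟨hl2.symm, ?_, ?_⟩
    · show |dt (gχ π _ _ _ _ _ _ _ _ 1) _| ≤ _
      rw [dt_gχ, one_div_one, one_mul]
      refine le_trans ?_ (hfin kN)
      have a1 : ∀ a b c : ℝ, |a - b - c| ≤ |a| + |b| + |c| := fun a b c => by
        refine (abs_sub _ _).trans (add_le_add_left (abs_sub _ _) _)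
      refine (a1 _ _ _).trans ?_
      rw [abs_mul, abs_mul]
      have b1 : |α n| * |dt (fn1 π (wS B w 1 n (v n + t1 n)))
          ((L n y.1).pos x.2 - (L n x.1).pos x.2)| ≤
          B'.d n ^ (-(ε / 2)) * (12 * κ ^ 3 * B'.d n ^ kN) :=
        mul_le_mul h5.1 (g1.trans (mul_le_mul_of_nonneg_left hut hC12.le)) (abs_nonneg _)
          (hp' n _).le
      have b2 : |β n| * |dt (fn2 π (eE n (s₀ n)) (wS B w 2 n (v n + t2 n)))
          ((L n y.1).pos x.2 - (L n x.1).pos x.2)| ≤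
          B'.d n ^ (-(ε / 2)) * (12 * κ ^ 3 * B'.d n ^ kN) :=
        mul_le_mul h5.2 (g2.trans (mul_le_mul_of_nonneg_left hut hC12.le)) (abs_nonneg _)
          (hp' n _).le
      have b3 : 12 * κ ^ 3 * B'.d n ^ kN ≤ B'.d n ^ (-(ε / 2)) * (12 * κ ^ 3 * B'.d n ^ kN) :=
        le_mul_of_one_le_left (mul_pos hC12 (hp' n _)).le hY1
      have b4 := g3.trans b3
      linarith
    · intro j
      fin_cases j
      · show |dt (gψ π _ _ _ 1 0) _| ≤ _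
        rw [dt_gψ0, one_div_one, one_mul]
        exact hψb g1
      · show |dt (gψ π _ _ _ 1 1) _| ≤ _
        rw [dt_gψ1, one_div_one, one_mul]
        exact hψb g2

end

end Crest.Agent.R136.Lab926
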