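import Crest.Agent.R136.LabW6_926

/-!
# R136: END-LAB, window side, part 7 (helper926)

Bodies: `WinH.bodyIn` = number of incidences of the family in a slab cut with a rotated plank.
-/

set_option autoImplicit false
set_option linter.unusedSectionVars false
set_option linter.unusedVariables false

open Filter Topology

namespace Crest.Agent.R136.Lab926

open Finset
open Crest.Agent.R138.Ex926
open Crest.Agent.R138.Mk163 (zc zl rho alive)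
open Crest.Agent.R138.MkRef627 (lc kc mem_alive)
open Crest.Agent.R136.Sh605
open Crest.Agent.R136.HR829 (Rq Rq_nonneg Rq_mono Rq_scale Wd)
open Crest.Agent.R136.End403
open Crest.Agent.R136.Net191
open Crest.Agent.R136.NetQ186
open Crest.Agent.R136.GeoQ186
open Crest.Agent.R136.MkA627
open Crest.Agent.R136.Wq638
open Crest.Agent.R136.Lq196
open Crest.Agent.R136.Qg926

/-- frame data with one loss `Y` -/
theorem frOk_inst {π : Equiv.Perm (Fin 3)} {e fa fb W1 W2 W3 α β S Y r s σ : ℝ} (he : |e| ≤ 1)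
    (hfa : |fa| ≤ 1) (hfb : |fb| ≤ 1) (hW1 : 0 < W1) (hW2 : 0 < W2) (hW3 : 0 < W3) (hS : 1 ≤ S)
    (hSY : S ≤ Y) (hY : 4 ≤ Y) (hα : |α| ≤ Y) (hβ : |β| ≤ Y) (h1 : W3 ≤ S * W2)
    (h2 : W2 ≤ S * W1) (hs1 : s ≤ 1) (hσ : 0 < σ) (hσs : σ ≤ s) (hr : 0 ≤ r)
    (r1 : r ≤ S * W3 * s) (r2 : W3 * s ≤ S * W2 * σ) :
    FrOk (gχ π e fa fb W1 W2 W3 α β (Y ^ 11)) (gψ π e W1 W2 (Y ^ 11))
      (gφ π e fa fb W1 W2 W3 α β (Y ^ 11)) (fpv π (fr fa fb e))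
      ![0, (S ^ 3) ^ 2 * W1, S ^ 3 * W2] W3 (Y ^ 11 * (5 + |α| + |β|)) r s σ (σ * W1)
      (σ * W2 / 2) := by
  have hS0 : 0 < S := by linarith
  have hY0 : 0 < Y := by linarith
  have hs : 0 < s := hσ.trans_le hσs
  have hS13 : S ≤ S ^ 3 := by
    calc S = S ^ 1 := (pow_one S).symm
      _ ≤ S ^ 3 := pow_le_pow_right₀ hS (by norm_num)
  have hS23 : S ^ 2 ≤ S ^ 3 := pow_le_pow_right₀ hS (by norm_num)
  have h3Y : S ^ 3 ≤ Y ^ 3 := pow_le_pow_left₀ hS0.le hSY 3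
  have q1 : r ≤ S ^ 2 * W2 * σ := by
    calc r ≤ S * W3 * s := r1
      _ = S * (W3 * s) := by ring
      _ ≤ S * (S * W2 * σ) := mul_le_mul_of_nonneg_left r2 hS0.le
      _ = _ := by ring
  have q2 : r ≤ S ^ 3 * W1 * σ := by
    calc r ≤ S ^ 2 * W2 * σ := q1
      _ ≤ S ^ 2 * (S * W1) * σ := by gcongr
      _ = _ := by ring
  refine frOk_of he hfa hfb hW1 hW2 hW3 (one_le_pow₀ hS) ?_ ?_ hs hs1 hσ hr ?_ q2 ?_ ?_
    (by positivity) (by positivity) ?_ le_rfl ?_ ?_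
  · exact h1.trans (mul_le_mul_of_nonneg_right hS13 hW2.le)
  · exact h2.trans (mul_le_mul_of_nonneg_right hS13 hW1.le)
  · exact r1.trans (by gcongr)
  · exact q1.trans (by gcongr)
  · have a1 : |α| * (S ^ 3) ^ 2 ≤ Y * (Y ^ 3) ^ 2 := by
      have := pow_le_pow_left₀ (by positivity) h3Y 2
      exact mul_le_mul hα this (by positivity) hY0.le
    have a2 : 2 * |β| * S ^ 3 ≤ 2 * Y * Y ^ 3 := by
      have := mul_le_mul hβ h3Y (by positivity) hY0.le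
      linarith
    have a3 : (2 : ℝ) ≤ Y ^ 7 := by
      calc (2 : ℝ) ≤ Y ^ 1 := by linarith
        _ ≤ Y ^ 7 := pow_le_pow_right₀ (by linarith) (by norm_num)
    have a4 : 2 * Y * Y ^ 3 ≤ Y ^ 7 := by
      have e1 : 2 * Y * Y ^ 3 = 2 * Y ^ 4 := by ring
      have e2 : Y ^ 7 = Y ^ 3 * Y ^ 4 := by ring
      have e3 : (2 : ℝ) ≤ Y ^ 3 := by
        calc (2 : ℝ) ≤ Y ^ 1 := by linarith
          _ ≤ Y ^ 3 := pow_le_pow_right₀ (by linarith) (by norm_num)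
      rw [e1, e2]
      exact mul_le_mul_of_nonneg_right e3 (by positivity)
    have a5 : Y * (Y ^ 3) ^ 2 = Y ^ 7 := by ring
    have a6 : 2 + |α| * (S ^ 3) ^ 2 + 2 * |β| * S ^ 3 ≤ 3 * Y ^ 7 := by linarith
    have a7 : 0 < Y ^ 10 := by positivity
    calc (2 + |α| * (S ^ 3) ^ 2 + 2 * |β| * S ^ 3) * S ^ 3 ≤ (3 * Y ^ 7) * Y ^ 3 :=
          mul_le_mul a6 h3Y (by positivity) (by positivity)
      _ = 3 * Y ^ 10 := by ring
      _ ≤ Y * Y ^ 10 := mul_le_mul_of_nonneg_right (by linarith) a7.le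
      _ = Y ^ 11 := by ring
  · exact mul_le_mul_of_nonneg_right hσs hW1.le
  · have := mul_le_mul_of_nonneg_right hσs hW2.le
    linarith
  · have : 0 < σ * W2 := by positivity
    linarith

/-- a neighbour of a point of the body lies in the body -/
theorem bod_near {π : Equiv.Perm (Fin 3)} {e fa fb W1 W2 W3 α β K K0 s η α' β' : ℝ}
    {u : Fin 2 → ℝ} (hK0 : 1 ≤ K0) (hK : 2 * K0 ≤ K) (hs : 0 < s) (hu : ∀ j, 0 < u j)
    (hα' : |α'| ≤ 1) (hβ' : |β'| ≤ 1) {x i j : Ln4} {z : ℝ}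
    (n1 : |dt (fn1 π W1) (j.pos z - i.pos z)| ≤ η) (n2 : |dt (fn2 π e W2) (j.pos z - i.pos z)| ≤ η)
    (n3 : |dt (fn3 π fa fb W3) (j.pos z - i.pos z)| ≤ η)
    (hη : (1 + |α| + |β|) * η ≤ 2 * s) (hηu : ∀ j, 2 * η ≤ 16 * u j)
    (g1 : |dt (gχ π e fa fb W1 W2 W3 α β 1) (i.pos z - x.pos z)| ≤ K0 * (2 * s))
    (g2 : |α' * dt (gψ π e W1 W2 1 0) (i.pos z - x.pos z) +
      β' * dt (gψ π e W1 W2 1 1) (i.pos z - x.pos z)| ≤ K0 * (16 * u 0))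
    (g3 : |-β' * dt (gψ π e W1 W2 1 0) (i.pos z - x.pos z) +
      α' * dt (gψ π e W1 W2 1 1) (i.pos z - x.pos z)| ≤ K0 * (16 * u 1)) :
    Bod (gχ π e fa fb W1 W2 W3 α β K) (gψ π e W1 W2 K) α' β' s u x j z := by
  have hKp : 0 < K := by linarith
  have hη0 : 0 ≤ η := (abs_nonneg _).trans n1
  have e0 : j.pos z - x.pos z = (j.pos z - i.pos z) + (i.pos z - x.pos z) := by abel
  have dadd : ∀ a b c : V3, dt a (b + c) = dt a b + dt a c := fun a b c => by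
    simp only [dt, Pi.add_apply]; ring
  rw [dt_gχ, one_div_one, one_mul] at g1
  rw [dt_gψ0, dt_gψ1, one_div_one, one_mul, one_mul] at g2 g3
  set P1 := dt (fn1 π W1) (j.pos z - i.pos z)
  set P2 := dt (fn2 π e W2) (j.pos z - i.pos z)
  set P3 := dt (fn3 π fa fb W3) (j.pos z - i.pos z)
  set Q1 := dt (fn1 π W1) (i.pos z - x.pos z)
  set Q2 := dt (fn2 π e W2) (i.pos z - x.pos z)
  set Q3 := dt (fn3 π fa fb W3) (i.pos z - x.pos z)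
  have fin : ∀ {a b : ℝ} {t : ℝ}, 0 < t → |a| ≤ t → |b| ≤ K0 * t →
      |1 / K * (a + b)| ≤ t := fun {a b t} ht ha hb => by
    rw [abs_mul, abs_of_pos (by positivity : 0 < 1 / K), one_div_mul_eq_div, div_le_iff₀ hKp]
    have h1 := (abs_add_le a b).trans (add_le_add ha hb)
    have h2 : t ≤ K0 * t := le_mul_of_one_le_left ht.le hK0
    have h3 : 2 * K0 * t ≤ K * t := mul_le_mul_of_nonneg_right hK ht.le
    linarith
  have m : ∀ {a b x y : ℝ}, |a| ≤ x → |b| ≤ y → |a * b| ≤ x * y := fun {a b x y} ha hb => by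
    rw [abs_mul]
    exact mul_le_mul ha hb (abs_nonneg _) ((abs_nonneg _).trans ha)
  have ad : ∀ {a b x y : ℝ}, |a| ≤ x → |b| ≤ y → |a + b| ≤ x + y := fun {a b x y} ha hb =>
    (abs_add_le _ _).trans (add_le_add ha hb)
  have sb : ∀ {a b x y : ℝ}, |a| ≤ x → |b| ≤ y → |a - b| ≤ x + y := fun {a b x y} ha hb =>
    (abs_sub _ _).trans (add_le_add ha hb)
  refine ⟨?_, ?_, ?_⟩
  · rw [dt_gχ, e0, dadd, dadd, dadd]
    have h1 : |P3 - α * P1 - β * P2| ≤ 2 * s := by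
      refine (sb (sb n3 (m (le_refl |α|) n1)) (m (le_refl |β|) n2)).trans ?_
      linarith
    have h2 := fin (by positivity : 0 < 2 * s) h1 g1
    refine le_trans (le_of_eq ?_) h2
    congr 1; ring
  · rw [dt_gψ0, dt_gψ1, e0, dadd, dadd]
    have h1 : |α' * P1 + β' * P2| ≤ 16 * u 0 := by
      refine (ad (m hα' n1) (m hβ' n2)).trans ?_
      have := hηu 0
      linarith
    have h2 := fin (by have := hu 0; positivity : 0 < 16 * u 0) h1 g2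
    refine le_trans (le_of_eq ?_) h2
    congr 1; ring
  · rw [dt_gψ0, dt_gψ1, e0, dadd, dadd]
    have h1 : |-β' * P1 + α' * P2| ≤ 16 * u 1 := by
      have hβn : |-β'| ≤ 1 := by rwa [abs_neg]
      refine (ad (m hβn n1) (m hα' n2)).trans ?_
      have := hηu 1
      linarith
    have h2 := fin (by have := hu 1; positivity : 0 < 16 * u 1) h1 g3
    refine le_trans (le_of_eq ?_) h2
    congr 1; ring

/-- volume of the class of level `v` -/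
theorem vol_bd {q : Fin 3 → ℝ} (hq : ∀ j, 0 ≤ q j) {d a0 a1 a2 ρ0 ρ v t1 t2 t3 : ℝ} (hd : 0 < d)
    (h0 : 0 < a0) (h1 : 0 < a1) (h2 : 0 < a2) (hρ0 : 0 < ρ0) (hρ : ρ0 * d ^ v ≤ ρ) :
    (a0 * d ^ (v + t3)) * (a2 * d ^ (v + t2)) * (a1 * d ^ (v + t1)) *
      Rq q ρ (a0 * d ^ (v + t3)) (a2 * d ^ (v + t2)) (a1 * d ^ (v + t1)) ≤
      (a0 * a2 * a1 * Rq q ρ0 a0 a2 a1) *
        d ^ ((v + t3) + (v + t2) + (v + t1) + (q 0 * t3 + q 1 * t1 + q 2 * t2)) := by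
  have hp : ∀ t : ℝ, 0 < d ^ t := fun t => Real.rpow_pos_of_pos hd t
  have hρp : 0 < ρ := (mul_pos hρ0 (hp v)).trans_le hρ
  have key : ∀ (a t : ℝ) (j : Fin 3), 0 < a → (a * d ^ (v + t) / ρ) ^ q j ≤
      (a / ρ0) ^ q j * d ^ (q j * t) := fun a t j ha => by
    have e1 : d ^ (q j * t) = (d ^ t) ^ q j := by
      rw [← Real.rpow_mul hd.le, mul_comm]
    rw [e1, ← Real.mul_rpow (by positivity) (hp t).le]
    refine Real.rpow_le_rpow (by have := hp (v + t); positivity) ?_ (hq j)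
    rw [Real.rpow_add hd, div_mul_eq_mul_div, div_le_div_iff₀ hρp hρ0]
    have := mul_le_mul_of_nonneg_left hρ (mul_pos ha (hp t)).le
    calc a * (d ^ v * d ^ t) * ρ0 = a * d ^ t * (ρ0 * d ^ v) := by ring
      _ ≤ a * d ^ t * ρ := this
  have k0 := key a0 t3 0 h0
  have k1 := key a1 t1 1 h1
  have k2 := key a2 t2 2 h2
  have e1 : d ^ ((v + t3) + (v + t2) + (v + t1) + (q 0 * t3 + q 1 * t1 + q 2 * t2)) =
      (d ^ (v + t3) * d ^ (v + t2) * d ^ (v + t1)) *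
        (d ^ (q 0 * t3) * d ^ (q 1 * t1) * d ^ (q 2 * t2)) := by
    rw [← Real.rpow_add hd, ← Real.rpow_add hd, ← Real.rpow_add hd, ← Real.rpow_add hd,
      ← Real.rpow_add hd]
  rw [e1]
  unfold Rq
  have n0 : 0 ≤ (a0 * d ^ (v + t3) / ρ) ^ q 0 := Real.rpow_nonneg (by
    have := hp (v + t3); positivity) _
  have n1 : 0 ≤ (a1 * d ^ (v + t1) / ρ) ^ q 1 := Real.rpow_nonneg (by
    have := hp (v + t1); positivity) _
  have n2 : 0 ≤ (a2 * d ^ (v + t2) / ρ) ^ q 2 := Real.rpow_nonneg (by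
    have := hp (v + t2); positivity) _
  have m0 : 0 ≤ (a0 / ρ0) ^ q 0 * d ^ (q 0 * t3) := n0.trans k0
  have m1 : 0 ≤ (a1 / ρ0) ^ q 1 * d ^ (q 1 * t1) := n1.trans k1
  have m2 : 0 ≤ (a2 / ρ0) ^ q 2 * d ^ (q 2 * t2) := n2.trans k2
  have c1 := mul_le_mul (mul_le_mul k0 k1 n1 m0) k2 n2 (mul_nonneg m0 m1)
  have V : 0 < (a0 * d ^ (v + t3)) * (a2 * d ^ (v + t2)) * (a1 * d ^ (v + t1)) := by
    have := hp (v + t3)
    have := hp (v + t2)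
    have := hp (v + t1)
    positivity
  refine (mul_le_mul_of_nonneg_left c1 V.le).trans (le_of_eq ?_)
  ring

/-- collecting the losses -/
theorem loss_bd {q : Fin 3 → ℝ} (hq : ∀ j, 0 ≤ q j) {S Y KB ρ W1 W2 W3 D s uu V : ℝ} (hS : 1 ≤ S)
    (hSY : S ≤ Y) (hY : 4 ≤ Y) (hKB0 : 0 < KB) (hKB : KB ≤ Y ^ 13) (hρ : 0 < ρ) (hW1 : 0 < W1)
    (hW2 : 0 < W2) (hW3 : 0 < W3) (hD : 0 ≤ D) (hs : 0 ≤ s) (huu : 0 ≤ uu)
    (hV : W3 * W2 * W1 * Rq q ρ W3 W2 W1 ≤ V) :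
    S * (KB ^ 3 * KB ^ (q 0 + q 1 + q 2)) * D * (s * uu) *
      (W3 * (S ^ 3 * W2) * ((S ^ 3) ^ 2 * W1) *
        Rq q ρ W3 (S ^ 3 * W2) ((S ^ 3) ^ 2 * W1)) ≤
      Y ^ (49 + 19 * (q 0 + q 1 + q 2)) * (D * V * s * uu) := by
  set Q : ℝ := q 0 + q 1 + q 2 with hQ
  have hQ0 : 0 ≤ Q := by have := hq 0; have := hq 1; have := hq 2; linarith
  have hS0 : 0 < S := by linarith
  have hY0 : 0 < Y := by linarith
  have hY1 : 1 ≤ Y := by linarith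
  have a1 : KB ^ 3 ≤ (Y ^ 13) ^ 3 := pow_le_pow_left₀ hKB0.le hKB 3
  have a2 : KB ^ Q ≤ (Y ^ 13) ^ Q := Real.rpow_le_rpow hKB0.le hKB hQ0
  have a3 : S ^ 3 ≤ Y ^ 3 := pow_le_pow_left₀ hS0.le hSY 3
  have a4 : (S ^ 3) ^ 2 ≤ Y ^ 6 := by
    calc (S ^ 3) ^ 2 ≤ (Y ^ 3) ^ 2 := pow_le_pow_left₀ (by positivity) a3 2
      _ = Y ^ 6 := by ring
  have a36 : Y ^ 3 ≤ Y ^ 6 := pow_le_pow_right₀ hY1 (by norm_num)
  have a5 : Rq q ρ W3 (S ^ 3 * W2) ((S ^ 3) ^ 2 * W1) ≤ (Y ^ 6) ^ Q * Rq q ρ W3 W2 W1 := by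
    have h1 : Rq q ρ W3 (S ^ 3 * W2) ((S ^ 3) ^ 2 * W1) ≤
        Rq q ρ (Y ^ 6 * W3) (Y ^ 6 * W2) (Y ^ 6 * W1) := by
      refine Rq_mono hq hρ hW3.le (by positivity) (by positivity) ?_ ?_ ?_
      · exact le_mul_of_one_le_left hW3.le (one_le_pow₀ hY1)
      · exact mul_le_mul_of_nonneg_right (a3.trans a36) hW2.le
      · exact mul_le_mul_of_nonneg_right a4 hW1.le
    have h2 := Rq_scale (q := q) (s := Y ^ 6) (ρ := ρ) (ρ' := ρ)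
      (x := W3) (y := W2) (z := W1) (X := Y ^ 6 * W3) (Y := Y ^ 6 * W2) (Z := Y ^ 6 * W1)
      (by positivity) (by positivity) (by positivity)
      (by positivity) (by ring) (by ring) (by ring)
    rw [h2] at h1
    exact h1
  have hR0 : 0 ≤ Rq q ρ W3 W2 W1 := Rq_nonneg hρ hW3.le hW2.le hW1.le
  have hR1 : 0 ≤ Rq q ρ W3 (S ^ 3 * W2) ((S ^ 3) ^ 2 * W1) :=
    Rq_nonneg hρ hW3.le (by positivity) (by positivity)
  have pQ : 0 ≤ (Y ^ 6 : ℝ) ^ Q := Real.rpow_nonneg (by positivity) _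
  have pQ2 : 0 ≤ (Y ^ 13 : ℝ) ^ Q := Real.rpow_nonneg (by positivity) _
  have pK : 0 ≤ KB ^ Q := Real.rpow_nonneg hKB0.le _
  have b1 : S * (KB ^ 3 * KB ^ Q) ≤ Y * ((Y ^ 13) ^ 3 * (Y ^ 13) ^ Q) :=
    mul_le_mul hSY (mul_le_mul a1 a2 pK (by positivity)) (by positivity) hY0.le
  have b2 : W3 * (S ^ 3 * W2) * ((S ^ 3) ^ 2 * W1) ≤ Y ^ 9 * (W3 * W2 * W1) := by
    calc W3 * (S ^ 3 * W2) * ((S ^ 3) ^ 2 * W1) = (S ^ 3 * (S ^ 3) ^ 2) * (W3 * W2 * W1) := by ring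
      _ ≤ (Y ^ 3 * Y ^ 6) * (W3 * W2 * W1) :=
          mul_le_mul_of_nonneg_right (mul_le_mul a3 a4 (by positivity) (by positivity))
            (by positivity)
      _ = _ := by ring
  have b3 : W3 * (S ^ 3 * W2) * ((S ^ 3) ^ 2 * W1) *
      Rq q ρ W3 (S ^ 3 * W2) ((S ^ 3) ^ 2 * W1) ≤ (Y ^ 9 * (Y ^ 6) ^ Q) * V := by
    calc _ ≤ Y ^ 9 * (W3 * W2 * W1) * ((Y ^ 6) ^ Q * Rq q ρ W3 W2 W1) :=
          mul_le_mul b2 a5 hR1 (by positivity)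
      _ = (Y ^ 9 * (Y ^ 6) ^ Q) * (W3 * W2 * W1 * Rq q ρ W3 W2 W1) := by ring
      _ ≤ _ := mul_le_mul_of_nonneg_left hV (mul_nonneg (by positivity) pQ)
  have hl : 0 ≤ W3 * (S ^ 3 * W2) * ((S ^ 3) ^ 2 * W1) *
      Rq q ρ W3 (S ^ 3 * W2) ((S ^ 3) ^ 2 * W1) := mul_nonneg (by positivity) hR1
  have hA : 0 ≤ Y * ((Y ^ 13) ^ 3 * (Y ^ 13) ^ Q) := by positivity
  have e1 : Y ^ (49 + 19 * Q) = Y * ((Y ^ 13) ^ 3 * (Y ^ 13) ^ Q) * (Y ^ 9 * (Y ^ 6) ^ Q) := by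
    have g1 : (Y ^ 13 : ℝ) ^ Q = Y ^ (13 * Q) := by
      rw [← Real.rpow_natCast, ← Real.rpow_mul hY0.le]; norm_num
    have g2 : (Y ^ 6 : ℝ) ^ Q = Y ^ (6 * Q) := by
      rw [← Real.rpow_natCast, ← Real.rpow_mul hY0.le]; norm_num
    have g3 : Y * ((Y ^ 13) ^ 3 * Y ^ (13 * Q)) * (Y ^ 9 * Y ^ (6 * Q)) =
        Y ^ 49 * (Y ^ (13 * Q) * Y ^ (6 * Q)) := by ring
    have g4 : (Y : ℝ) ^ 49 = Y ^ (49 : ℝ) := by
      rw [← Real.rpow_natCast]; norm_num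
    rw [g1, g2, g3, g4, ← Real.rpow_add hY0, ← Real.rpow_add hY0]
    congr 1; ring
  calc S * (KB ^ 3 * KB ^ Q) * D * (s * uu) *
      (W3 * (S ^ 3 * W2) * ((S ^ 3) ^ 2 * W1) *
        Rq q ρ W3 (S ^ 3 * W2) ((S ^ 3) ^ 2 * W1)) =
      (S * (KB ^ 3 * KB ^ Q)) * (W3 * (S ^ 3 * W2) * ((S ^ 3) ^ 2 * W1) *
        Rq q ρ W3 (S ^ 3 * W2) ((S ^ 3) ^ 2 * W1)) * (D * s * uu) := by ring
    _ ≤ (Y * ((Y ^ 13) ^ 3 * (Y ^ 13) ^ Q)) * ((Y ^ 9 * (Y ^ 6) ^ Q) * V) * (D * s * uu) :=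
        mul_le_mul_of_nonneg_right (mul_le_mul b1 b3 hl hA) (by positivity)
    _ = _ := by rw [e1]; ring

theorem const_legal {R : ℝ} (hR : 0 ≤ R) : Legal monQ (fun _ => R) :=
  ⟨fun _ => hR, fun k e he => by
    rw [← Finset.sum_mul]
    have h1 : (1 : ℝ) ≤ ∑ s, (e s : ℝ) := by exact_mod_cast monQ.one_le he
    exact le_mul_of_one_le_left hR h1⟩

/-- exponent of the number of incidences in a natural box -/
def DN (g : ℝ) (q : Fin 3 → ℝ) (v t1 t2 t3 : ℝ) : ℝ :=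
  g * v + (1 - v) - ((v + t3) + (v + t2) + (v + t1)) - (q 0 * t3 + q 1 * t1 + q 2 * t2)

end Crest.Agent.R136.Lab926
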