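import Crest.Agent.R136.LabW7_926

/-!
# R136: END-LAB, window side, part 8 (helper926)

`body_n` : number of incidences of the family in a body, at one index.
-/

set_option autoImplicit false
set_option linter.unusedSectionVars false
set_option linter.unusedVariables false

open Filter Topology

namespace Crest.Agent.R136.Lab926

open Finset
open Crest.Agent.R138.Ex926
open Crest.Agent.R138.Mk163 (zc zl rho alive)
open Crest.Agent.R138.MkRef627 (lc kc mem_alive)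
open Crest.Agent.R136.Sh605
open Crest.Agent.R136.HR829 (Rq Rq_nonneg Rq_mono Rq_scale Wd)
open Crest.Agent.R136.End403
open Crest.Agent.R136.Net191
open Crest.Agent.R136.NetQ186
open Crest.Agent.R136.GeoQ186
open Crest.Agent.R136.MkA627
open Crest.Agent.R136.Wq638
open Crest.Agent.R136.Lq196
open Crest.Agent.R136.Qg926

theorem abs_le_one_of_sq {a b : ℝ} (h : a ^ 2 + b ^ 2 = 1) : |a| ≤ 1 ∧ |b| ≤ 1 := by
  constructor
  · rw [← abs_one (α := ℝ), ← sq_le_sq]; nlinarith [sq_nonneg b]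
  · rw [← abs_one (α := ℝ), ← sq_le_sq]; nlinarith [sq_nonneg a]

section

variable {B : Base} {I I1 : ℕ → Finset (ℕ × ℝ)} {L : ℕ → ℕ → Ln4} {π : Equiv.Perm (Fin 3)}
    {eE fA fB : ℕ → ℕ × ℝ → ℝ} {lev : ℕ → ℚ → ℕ} {g : ℝ} {vm : ℕ → ℚ → ℝ}
    {w : Fin 3 → ℕ → ℚ → ℝ} {q : Fin 3 → ℝ} {w0 R c₀ : ℝ} {rg : Rg}

set_option maxHeartbeats 3200000 in
open Classical in
/-- **number of incidences of the family in a body**, at one index -/
theorem body_n {n : ℕ} {E : Finset (ℕ × ℝ)} {o : ℕ × ℝ} {i : ℕ} {J0 : ℤ}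
    {v t1 t2 t3 R1 Y S s σ α β γ v1 : ℝ}
    (hchart : ∀ n, Chart (I n) (couQ B lev w w0 (incQ π L eE fA fB) n) monQ 2)
    (hw : ∀ j, 0 < w j n 0) (hvm : vm n 0 = w 0 n 0 * w 2 n 0 * w 1 n 0 *
      Rq q (rho (lev n 0)) (w 0 n 0) (w 2 n 0) (w 1 n 0)) (hq : ∀ j, 0 ≤ q j) (hR : 0 ≤ R)
    (hflag : |eE n o| ≤ 1 ∧ |fA n o| ≤ 1 ∧ |fB n o| ≤ 1)
    (hbody : BodyP B I I1 L rg q lev g vm (couQ B lev w w0 (incQ π L eE fA fB)) monQ 2 R c₀ v1
      (γ / 2) S n) (hv0 : 0 ≤ v) (hvv : v ≤ v1)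
    (l1 : (2 : ℝ) ^ lev n 0 * B.d n ^ (-v) ≤ 2 * 2 ^ i)
    (l2 : (2 : ℝ) ^ i ≤ 2 ^ lev n 0 * B.d n ^ (-v)) (l3 : i ≤ lev n 1)
    (hEI1 : E ⊆ I1 n) (hEI : E ⊆ I n) (hcell : ∀ x ∈ E, zc i x.2 = J0)
    (hκ1 : 1 ≤ cK0 monQ 2)
    (hnear : ∀ x ∈ E, ∀ k, |couQ B lev w w0 (incQ π L eE fA fB) n o x k| ≤
      cK0 monQ 2 * B.d n ^ natB w0 R1 v t1 t2 t3 k)
    (hRk : ∀ k : Fin 11, 5 ≤ k → natB w0 R1 v t1 t2 t3 k + γ ≤ R)
    (hS : 1 ≤ S) (hSY : S ≤ Y) (hY : 4 ≤ Y) (hα : |α| ≤ Y) (hβ : |β| ≤ Y)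
    (hσ : 0 < σ) (hσs : σ ≤ s) (hs1 : s ≤ 1) (hr0 : 0 < rg.r n)
    (z1 : wS B w 0 n (v + t3) ≤ S * wS B w 2 n (v + t2))
    (z2 : wS B w 2 n (v + t2) ≤ S * wS B w 1 n (v + t1))
    (z3 : rg.r n ≤ S * wS B w 0 n (v + t3) * s)
    (z4 : wS B w 0 n (v + t3) * s ≤ S * wS B w 2 n (v + t2) * σ)
    (hcap : 192 * (Y ^ 13 * ((S ^ 3) ^ 2 * wS B w 1 n (v + t1))) ≤ B.d n ^ (γ / 2) * rho i)
    (hm0 : 256 * (Y ^ 13 * wS B w 0 n (v + t3)) ≤ rg.m0 n)
    (hm1 : 192 * (Y ^ 13 * ((S ^ 3) ^ 2 * wS B w 1 n (v + t1))) ≤ rg.m1 n)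
    (hm2 : 320 * (Y ^ 13 * (S ^ 3 * wS B w 2 n (v + t2))) ≤ rg.m2 n)
    (ho1 : rg.o1 n ≤ σ * wS B w 1 n (v + t1) / 2)
    (ho2 : rg.o2 n ≤ σ * wS B w 2 n (v + t2) / 2 / 2)
    (hη : 12 * cK0 monQ 2 ^ 3 * B.d n ^ γ * Y ^ 2 ≤ σ)
    {K0 : ℝ} (hK0 : 1 ≤ K0) (hK0Y : K0 ≤ Y) {x : ℕ × ℝ} {α' β' : ℝ}
    (hαβ : α' ^ 2 + β' ^ 2 = 1) {u : Fin 2 → ℝ} (hu : ∀ j, σ ≤ u j ∧ u j ≤ 1) :
    ((E.filter fun y => ∀ z, zl i J0 ≤ z → z ≤ zl i J0 + rho i →
        |dt (gχ π (eE n o) (fA n o) (fB n o) (wS B w 1 n (v + t1)) (wS B w 2 n (v + t2))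
          (wS B w 0 n (v + t3)) α β 1) ((L n y.1).pos z - (L n x.1).pos z)| ≤ K0 * (2 * s) ∧
        |α' * dt (gψ π (eE n o) (wS B w 1 n (v + t1)) (wS B w 2 n (v + t2)) 1 0)
            ((L n y.1).pos z - (L n x.1).pos z) +
          β' * dt (gψ π (eE n o) (wS B w 1 n (v + t1)) (wS B w 2 n (v + t2)) 1 1)
            ((L n y.1).pos z - (L n x.1).pos z)| ≤ K0 * (16 * u 0) ∧
        |-β' * dt (gψ π (eE n o) (wS B w 1 n (v + t1)) (wS B w 2 n (v + t2)) 1 0)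
            ((L n y.1).pos z - (L n x.1).pos z) +
          α' * dt (gψ π (eE n o) (wS B w 1 n (v + t1)) (wS B w 2 n (v + t2)) 1 1)
            ((L n y.1).pos z - (L n x.1).pos z)| ≤ K0 * (16 * u 1)).card : ℝ) ≤
      Y ^ (49 + 19 * (q 0 + q 1 + q 2)) *
        (B.d n ^ (-(c₀ + DN g q v t1 t2 t3)) * s * (u 0 * u 1)) := by
  have hd := B.pos n
  have hp : ∀ t : ℝ, 0 < B.d n ^ t := fun t => Real.rpow_pos_of_pos hd t
  set W1 : ℝ := wS B w 1 n (v + t1) with hW1d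
  set W2 : ℝ := wS B w 2 n (v + t2) with hW2d
  set W3 : ℝ := wS B w 0 n (v + t3) with hW3d
  have hW1 : 0 < W1 := mul_pos (hw 1) (hp _)
  have hW2 : 0 < W2 := mul_pos (hw 2) (hp _)
  have hW3 : 0 < W3 := mul_pos (hw 0) (hp _)
  have hS0 : 0 < S := by linarith
  have hY0 : 0 < Y := by linarith
  have hY1 : 1 ≤ Y := by linarith
  have hs : 0 < s := hσ.trans_le hσs
  have hρi := rho_pos' i
  obtain ⟨f1, f2, f3⟩ := hflag
  have hF := frOk_inst (π := π) f1 f2 f3 hW1 hW2 hW3 hS hSY hY hα hβ z1 z2 hs1 hσ hσs hr0.le z3 z4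
  set KB : ℝ := Y ^ 11 * (5 + |α| + |β|) with hKBd
  have hα0 := abs_nonneg α
  have hβ0 := abs_nonneg β
  have hKB0 : 0 < KB := by positivity
  have hKB : KB ≤ Y ^ 13 := by
    have h1 : 5 + |α| + |β| ≤ Y ^ 2 := by nlinarith
    calc KB ≤ Y ^ 11 * Y ^ 2 := mul_le_mul_of_nonneg_left h1 (by positivity)
      _ = Y ^ 13 := by ring
  have hKm : ∀ {c x : ℝ}, 0 ≤ c → 0 ≤ x → c * KB * x ≤ c * (Y ^ 13 * x) := fun {c x} hc hx => by
    rw [mul_assoc]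
    exact mul_le_mul_of_nonneg_left (mul_le_mul_of_nonneg_right hKB hx) hc
  set w' : V3 := ![0, (S ^ 3) ^ 2 * W1, S ^ 3 * W2] with hw'
  have ew1 : w' 1 = (S ^ 3) ^ 2 * W1 := rfl
  have ew2 : w' 2 = S ^ 3 * W2 := rfl
  obtain ⟨hα'1, hβ'1⟩ := abs_le_one_of_sq hαβ
  set F := E.filter fun y => ∀ z, zl i J0 ≤ z → z ≤ zl i J0 + rho i →
        |dt (gχ π (eE n o) (fA n o) (fB n o) W1 W2 W3 α β 1)
          ((L n y.1).pos z - (L n x.1).pos z)| ≤ K0 * (2 * s) ∧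
        |α' * dt (gψ π (eE n o) W1 W2 1 0) ((L n y.1).pos z - (L n x.1).pos z) +
          β' * dt (gψ π (eE n o) W1 W2 1 1) ((L n y.1).pos z - (L n x.1).pos z)| ≤
            K0 * (16 * u 0) ∧
        |-β' * dt (gψ π (eE n o) W1 W2 1 0) ((L n y.1).pos z - (L n x.1).pos z) +
          α' * dt (gψ π (eE n o) W1 W2 1 1) ((L n y.1).pos z - (L n x.1).pos z)| ≤
            K0 * (16 * u 1) with hFd
  have hFE : F ⊆ E := filter_subset _ _
  set κ : ℝ := cK0 monQ 2 with hκd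
  have hκ0 : 0 < κ := by linarith
  set η : ℝ := 12 * κ ^ 3 * B.d n ^ γ with hηd
  have hη0 : 0 < η := by have := hp γ; positivity
  have hη2 : 1 + |α| + |β| ≤ Y ^ 2 := by nlinarith
  have hησ : η ≤ σ := by
    refine le_trans ?_ hη
    exact le_mul_of_one_le_right hη0.le (one_le_pow₀ hY1)
  have hbnd := hbody v hv0 hvv i J0 l1 l2 _ _ _ _ w' W3 KB s σ (σ * W1) (σ * W2 / 2) hF
    (by rw [ew1]; exact (hKm (by norm_num) (by positivity)).trans hcap)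
    ((hKm (by norm_num) hW3.le).trans hm0)
    (by rw [ew1]; exact (hKm (by norm_num) (by positivity)).trans hm1)
    (by rw [ew2]; exact (hKm (by norm_num) (by positivity)).trans hm2)
    (ho1.trans (le_of_eq (by ring))) (ho2.trans (le_of_eq (by ring)))
    α' β' hαβ u hu (L n x.1) F (hFE.trans hEI1) (by
      intro a ha b hb hab hcab
      have haE := hFE ha
      have haF := (mem_filter.1 ha).2
      have haI := hEI haE
      have hbc : zc i b.2 = J0 := by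
        rw [zc_eq' l3, hcab, ← zc_eq' l3]
        exact hcell a haE
      refine ⟨hbc, fun z hz1 hz2 => ?_⟩
      obtain ⟨g1, g2, g3⟩ := haF z hz1 hz2
      have hζ := cell_z (B := B) (lev := lev) (w0 := w0) (n := n) rfl l1 hz1 hz2 (hcell a haE)
      have hnr := near_of_nlab (B := B) hchart (const_legal hR) haI hb hab.symm
      obtain ⟨n1, n2, n3⟩ := fn_near (R1 := R1) hw hκ1 (hp γ).le (hnear a haE)
        (fun k hk => by
          refine (hnr k).trans ?_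
          rw [mul_assoc, ← Real.rpow_add hd]
          refine mul_le_mul_of_nonneg_left ?_ hκ0.le
          refine Real.rpow_le_rpow_of_exponent_ge hd (B.lt n).le ?_
          have := hRk k hk
          linarith) (y := b) (z := z) hζ
      refine bod_near hK0 ?_ hs (fun j => hσ.trans_le (hu j).1) hα'1 hβ'1 n1 n2 n3 ?_ ?_ g1 g2 g3
      · calc 2 * K0 ≤ Y * Y := mul_le_mul (by linarith) hK0Y (by linarith) hY0.le
          _ = Y ^ 2 := by ring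
          _ ≤ Y ^ 11 := pow_le_pow_right₀ hY1 (by norm_num)
      · calc (1 + |α| + |β|) * (12 * κ ^ 3 * B.d n ^ γ) ≤ Y ^ 2 * (12 * κ ^ 3 * B.d n ^ γ) :=
              mul_le_mul_of_nonneg_right hη2 hη0.le
          _ = 12 * κ ^ 3 * B.d n ^ γ * Y ^ 2 := by ring
          _ ≤ σ := hη
          _ ≤ 2 * s := by linarith
      · intro j
        have h1 := (hu j).1
        have h2 : 12 * κ ^ 3 * B.d n ^ γ ≤ σ := hησ
        linarith)
  rw [ew1, ew2] at hbnd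
  -- volume
  have hρ : rho (lev n 0) * B.d n ^ v ≤ rho i := by
    have p1 := hp v
    have e1 : B.d n ^ (-v) = (B.d n ^ v)⁻¹ := Real.rpow_neg hd.le _
    rw [e1, ← div_eq_mul_inv, le_div_iff₀ p1] at l2
    unfold rho
    have p3 : (0 : ℝ) < 2 ^ i := by positivity
    have p4 : (0 : ℝ) < 2 ^ lev n 0 := by positivity
    rw [one_div_mul_eq_div, div_le_div_iff₀ p4 p3]
    linarith
  have hvol := vol_bd (t1 := t1) (t2 := t2) (t3 := t3) hq hd (hw 0) (hw 1) (hw 2)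
    (rho_pos' (lev n 0)) hρ
  rw [← hvm] at hvol
  have hvm0 : 0 < vm n 0 := by
    rw [hvm]
    have h0 := hw 0
    have h1 := hw 1
    have h2 := hw 2
    have h3 := rho_pos' (lev n 0)
    have : 0 < Rq q (rho (lev n 0)) (w 0 n 0) (w 2 n 0) (w 1 n 0) := by
      unfold Rq; positivity
    positivity
  have hu0 := hσ.trans_le (hu 0).1
  have hu1 := hσ.trans_le (hu 1).1
  have hlb := loss_bd (q := q) (D := B.d n ^ (-(c₀ + g * v + (1 - v))) / vm n 0) (s := s)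
    (uu := u 0 * u 1) hq hS hSY hY hKB0 hKB hρi hW1 hW2 hW3
    (div_nonneg (hp _).le hvm0.le) hs.le (mul_pos hu0 hu1).le hvol
  refine (hbnd.trans hlb).trans (le_of_eq ?_)
  congr 1
  have e1 : B.d n ^ (-(c₀ + g * v + (1 - v))) / vm n 0 * (vm n 0 *
      B.d n ^ ((v + t3) + (v + t2) + (v + t1) + (q 0 * t3 + q 1 * t1 + q 2 * t2))) =
      B.d n ^ (-(c₀ + DN g q v t1 t2 t3)) := by
    have e0 : ∀ a b c : ℝ, c ≠ 0 → a / c * (c * b) = a * b := fun a b c hc => by field_simp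
    rw [e0 _ _ _ hvm0.ne', ← Real.rpow_add hd]
    congr 1
    unfold DN
    ring
  rw [e1]

end

end Crest.Agent.R136.Lab926
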