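import Crest.Agent.R136.LabW8_926

/-!
# R136: END-LAB, window side, part 9 (helper926)

`WinH.bodyIn` : bodies of the family; `LabH.window` : END-LAB in a window at a natural class.
-/

set_option autoImplicit false
set_option linter.unusedSectionVars false
set_option linter.unusedVariables false

open Filter Topology

namespace Crest.Agent.R136.Lab926

open Finset
open Crest.Agent.R138.Ex926
open Crest.Agent.R138.Mk163 (zc zl rho alive)
open Crest.Agent.R138.MkRef627 (lc kc mem_alive)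
open Crest.Agent.R136.Sh605
open Crest.Agent.R136.HR829 (Rq Rq_nonneg Rq_mono Rq_scale Wd)
open Crest.Agent.R136.End403
open Crest.Agent.R136.Net191
open Crest.Agent.R136.NetQ186
open Crest.Agent.R136.GeoQ186
open Crest.Agent.R136.MkA627
open Crest.Agent.R136.Wq638
open Crest.Agent.R136.Lq196
open Crest.Agent.R136.Qg926

section

variable {σ' : Type*} {B B' : Base} {I I1 J : ℕ → Finset (ℕ × ℝ)} {G : Geo σ' (Fin 3)}
    {L : ℕ → ℕ → Ln4} {π : Equiv.Perm (Fin 3)} {eE fA fB : ℕ → ℕ × ℝ → ℝ} {lev : ℕ → ℚ → ℕ}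
    {A : ℕ → ℝ} {g : ℝ} {τ : Fin 3 → ℝ → ℝ} {f : ℕ → ℚ → ℕ → ℤ → ℕ} {b : ℕ → ℚ → ℕ → σ'}
    {vm : ℕ → ℚ → ℝ} {w : Fin 3 → ℕ → ℚ → ℝ} {q θ : Fin 3 → ℝ} {w0 R T0 : ℝ}
    {V T : Fin 11 → Prop} {PD : Set (Fin 11 → ℝ)} {DD : (Fin 11 → ℝ) → ℝ}
    {rp : ℝ → Fin 11 → ℝ} {EE : ℝ → ℝ} {ν own : (Fin 11 → ℝ) → ℝ} {c₀ : ℝ} {rg : Rg}
    {S SJ : ℕ → ℝ} {X : ℕ → Fin 11 → ℝ} {wn : ℕ → ℝ} {DD' : Set (Fin 11 → ℝ)} {TT : ℕ → ℝ}
    {lam : (Fin 11 → ℝ) → ℝ} {R1 v t1 t2 t3 : ℕ → ℝ} {kN k1 v1 γ : ℝ}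
    {co : ℕ → ℕ × ℝ → ℕ × ℝ → Fin 11 → ℝ} {o : ℝ → Fin 11 → ℝ} {i M : ℕ → ℕ} {J0 : ℕ → ℤ}
    {E : ℕ → Finset (ℕ × ℝ)} {s₀ : ℕ → ℕ × ℝ}

/-- bounds of the exponents -/
theorem WinH.exps (W : WinH B B' I I1 J co θ w0 R T0 o S SJ X wn DD' TT lam R1 v t1 t2 t3 kN k1 v1
    γ) (hb : BigQ θ w0 R T0) : ∀ᶠ n in (U : Filter ℕ),
      (-(5 * T0) ≤ v n + t1 n ∧ v n + t1 n ≤ 1 + 5 * T0) ∧
      (-(5 * T0) ≤ v n + t2 n ∧ v n + t2 n ≤ 1 + 5 * T0) ∧
      (-(5 * T0) ≤ v n + t3 n ∧ v n + t3 n ≤ 1 + 5 * T0) ∧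
      ∀ k : Fin 11, 5 ≤ k → natB w0 (R1 n) (v n) (t1 n) (t2 n) (t3 n) k + γ ≤ R := by
  filter_upwards [W.tby] with n h1
  have h2 := W.tab n
  have h3 := W.tg n
  have h4 := W.tR n
  have h5 := W.v0 n
  have h6 := W.vv n
  have h7 := W.hv1
  have h8 := W.hγ
  have h9 : wn n * kN ≤ wn n * k1 := mul_le_mul_of_nonneg_left W.kNk (W.hz.w0 n).le
  have a0 := abs_le.1 (hb.th 0)
  have a1 := abs_le.1 (hb.th 1)
  have a2 := abs_le.1 (hb.th 2)
  have hT := hb.T0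
  have hw := hb.w0T
  have hR := hb.R0
  have m1 : -(2 * T0) ≤ min 0 (θ 1 - θ 2) := le_min (by linarith) (by linarith [a1.1, a2.2])
  have m2 : -(2 * T0) ≤ min 0 (θ 2 - θ 0) := le_min (by linarith) (by linarith [a2.1, a0.2])
  have b1 : -T0 ≤ t1 n := by linarith [a1.2]
  have b2 : t1 n - 2 * T0 ≤ t2 n := by linarith
  have b3 : t2 n - 2 * T0 ≤ t3 n := by linarith
  refine ⟨⟨by linarith, by linarith⟩, ⟨by linarith, by linarith⟩, ⟨by linarith, by linarith⟩, ?_⟩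
  intro k hk
  have hk6 : ∀ k : Fin 11, 5 ≤ k → k = 5 ∨ k = 6 ∨ k = 7 ∨ k = 8 ∨ k = 9 ∨ k = 10 := by decide
  rcases hk6 k hk with rfl | rfl | rfl | rfl | rfl | rfl
  · show w0 + t1 n + γ ≤ R; linarith
  · show 2 * w0 + t2 n + γ ≤ R; linarith
  · show 3 * w0 + t3 n + γ ≤ R; linarith
  · show 2 * w0 + (v n + t1 n) + γ ≤ R; linarith
  · show 3 * w0 + (v n + t2 n) + γ ≤ R; linarith
  · show 4 * w0 + (v n + t3 n) + γ ≤ R; linarith

/-- powers of `d'` are sub-powers of `d` -/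
theorem WinH.ev_small (W : WinH B B' I I1 J co θ w0 R T0 o S SJ X wn DD' TT lam R1 v t1 t2 t3 kN
    k1 v1 γ) {η : ℝ} (hη : 0 < η) (C : ℝ) :
    ∀ᶠ n in (U : Filter ℕ), B.d n ^ η ≤ B'.d n ^ C := by
  have h1 : Tendsto (fun n => wn n * C) U (𝓝 0) := by
    have := W.wlim.mul_const C
    simpa using this
  filter_upwards [h1.eventually_lt_const hη] with n hn
  rw [W.hz.base n, ← Real.rpow_mul (B.pos n).le]
  exact Real.rpow_le_rpow_of_exponent_ge (B.pos n) (B.lt n).le hn.le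

/-- the level of the cells is below the finest level -/
theorem FamOk.lev_le (hF : FamOk B B' I J co lev X wn TT lam v kN k1 i M J0 E s₀)
    (hM : MkA B I G lev A (fun v => g * v) (fun v => 0 * v) τ f b vm w) {v1 : ℝ} (hv1 : v1 < 1)
    (hv : ∀ n, v n ≤ v1) : ∀ᶠ n in (U : Filter ℕ), i n ≤ lev n 1 := by
  have hδ : 0 < (1 - v1) / 2 := by linarith
  filter_upwards [hF.lev2, PqG464.pow_lev hM 1 zero_le_one le_rfl hδ] with n h1 h2
  have h3 := h2.2
  rw [Rat.cast_one] at h3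
  have h4 : (2 : ℝ) ^ i n ≤ 2 ^ lev n 1 := by
    refine h1.trans (le_trans (mul_le_mul_of_nonneg_left ?_ (by positivity)) h3)
    refine Real.rpow_le_rpow_of_exponent_ge (B.pos n) (B.lt n).le ?_
    have := hv n
    linarith
  exact (pow_le_pow_iff_right₀ (by norm_num : (1 : ℝ) < 2)).1 h4

theorem cmp_pow {d a b S c s t : ℝ} (hd : 0 < d) (hd1 : d ≤ 1) (hb : 0 < b) (hS : 0 < S)
    (h : a ≤ S * (d ^ c * b)) (hst : t ≤ c + s) : a * d ^ s ≤ S * (b * d ^ t) := by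
  have hp : ∀ t : ℝ, 0 < d ^ t := fun t => Real.rpow_pos_of_pos hd t
  calc a * d ^ s ≤ S * (d ^ c * b) * d ^ s := mul_le_mul_of_nonneg_right h (hp s).le
    _ = S * (b * (d ^ c * d ^ s)) := by ring
    _ = S * (b * d ^ (c + s)) := by rw [← Real.rpow_add hd]
    _ ≤ S * (b * d ^ t) := by
        have := Real.rpow_le_rpow_of_exponent_ge hd hd1 hst
        gcongr

set_option maxHeartbeats 3200000 in
/-- **bodies of the family** -/
theorem WinH.bodyIn (W : WinH B B' I I1 J (couQ B lev w w0 (incQ π L eE fA fB)) θ w0 R T0 o S SJ X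
    wn DD' TT lam R1 v t1 t2 t3 kN k1 v1 γ)
    (H : LabH B I I1 G L π eE fA fB lev A g τ f b vm w q θ w0 R T0 V T PD DD rp EE ν own c₀ rg)
    (hG : ∀ᶠ n in (U : Filter ℕ), GlobP B I I1 L (couQ B lev w w0 (incQ π L eE fA fB)) lev g vm w
      q θ R o ν own c₀ rg v1 (γ / 2) (S n) n)
    (hF : FamOk B B' I J (couQ B lev w w0 (incQ π L eE fA fB)) lev X wn TT lam v kN k1 i M J0 E
      s₀) {α β : ℕ → ℝ}
    (hα : ∀ ε : ℝ, 0 < ε → ∀ᶠ n in (U : Filter ℕ), |α n| ≤ B'.d n ^ (-ε) ∧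
      |β n| ≤ B'.d n ^ (-ε)) :
    BodyIn B' E L (chE B π eE fA fB w v t1 t2 t3 s₀ α β) (psE B π eE w v t1 t2 s₀) i J0 kN k1
      (fun n => B.d n ^ (-(c₀ + DN g q (v n) (t1 n) (t2 n) (t3 n))) * B'.d n ^ kN) where
  P0 := fun n => (mul_pos (Real.rpow_pos_of_pos (B.pos n) _)
    (Real.rpow_pos_of_pos (B'.pos n) _)).le
  body := by
    intro ε hε
    set co := couQ B lev w w0 (incQ π L eE fA fB) with hco
    have hz := W.hz
    have hk1 := W.k10
    have hkN := W.kN0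
    have hγ := W.hγ
    set Q : ℝ := q 0 + q 1 + q 2 with hQ
    have hQ0 : 0 ≤ Q := by have := H.q0 0; have := H.q0 1; have := H.q0 2; linarith
    set κ : ℝ := cK0 monQ 2 with hκ
    have hκ1 : 1 ≤ κ := cK0_one (hz.chart 0).C0
    have hκ0 : 0 < κ := by linarith
    have hT := H.big.T0
    have hR0 : 0 ≤ R := by
      have := H.big.R0
      have := H.big.w0T
      linarith
    obtain ⟨δ, hδ, hδQ⟩ : ∃ δ : ℝ, 0 < δ ∧ δ * (49 + 19 * Q) ≤ ε :=
      ⟨ε / (49 + 19 * Q), by positivity, le_of_eq (by field_simp)⟩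
    refine ⟨δ, hδ, ?_⟩
    have hC12 : 0 < 12 * κ ^ 3 := by positivity
    have hcl : ∀ᶠ n in (U : Filter ℕ), E n ⊆ I1 n ∧ E n ⊆ I n ∧ s₀ n ∈ I n ∧ ∀ x ∈ E n,
        ∀ k, |co n (s₀ n) x k| ≤ κ * B.d n ^ natB w0 (R1 n) (v n) (t1 n) (t2 n) (t3 n) k := by
      filter_upwards [hz.sub, hF.sub, hF.lab, hF.smem, W.sub] with n h1 h2 h3 h4 h5
      exact ⟨h2.trans h5, h2.trans h1, h1 h4, fun x hx k =>
        W.near0 (h1 h4) (h1 (h2 hx)) (h3 x hx).symm k⟩
    set Cm : ℝ := 5 * T0 + 2 with hCm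
    filter_upwards [hG, hcl, H.wpos, H.wvm, hF.lev1, hF.lev2,
      hF.lev_le H.pre.mka W.hv1 W.vv, hF.cell, W.exps H.big, hα δ hδ, W.ev_S hδ,
      ev_const_le B' (show (0 : ℝ) < 4 by norm_num) hδ, ev_const_le B' hC12 hδ,
      W.tby, W.tres, W.ev_small one_pos (24 * δ), W.ev_small one_pos (k1 + δ),
      W.ev_small hγ (k1 + 3 * δ), W.ev_small (half_pos hγ) (24 * δ),
      (H.wm0 Cm).and ((H.wm1 Cm).and ((H.wm2 Cm).and ((H.wo1 Cm).and (H.wo2 Cm))))] with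
      n e1 e2 e3 e4 e5 e6 e7 e8 e9 e10 e11 e12 e13 e14 e15 e16 e17 e18 e19 e20
      K0 hK01 hK0Y x hx α' β' hαβ u hu
    obtain ⟨hEI1, hEI, hsI, hnear⟩ := e2
    obtain ⟨⟨x1, y1⟩, ⟨x2, y2⟩, ⟨x3, y3⟩, hRk⟩ := e9
    obtain ⟨hm0, hm1, hm2, ho1, ho2⟩ := e20
    have hd := B.pos n
    have hd1 := (B.lt n).le
    have hd' := B'.pos n
    have hd1' := (B'.lt n).le
    have hp : ∀ t : ℝ, 0 < B.d n ^ t := fun t => Real.rpow_pos_of_pos hd t
    have hp' : ∀ t : ℝ, 0 < B'.d n ^ t := fun t => Real.rpow_pos_of_pos hd' t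
    have hS1 := W.S1 n
    have hS0 : 0 < S n := by linarith
    have hw0 := e3 0
    have hw1 := e3 1
    have hw2 := e3 2
    set Y : ℝ := B'.d n ^ (-δ) with hY
    have hY0 : 0 < Y := hp' _
    have hY1 : 1 ≤ Y := by linarith
    have hYp : ∀ k : ℕ, Y ^ k = B'.d n ^ (-(k * δ)) := fun k => by
      rw [hY, ← Real.rpow_natCast, ← Real.rpow_mul hd'.le]; congr 1; ring
    have hY24 : Y ^ 24 * B'.d n ^ (24 * δ) = 1 := by
      rw [hYp, ← Real.rpow_add hd']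
      have : -(((24 : ℕ) : ℝ) * δ) + 24 * δ = 0 := by push_cast; ring
      rw [this, Real.rpow_zero]
    have hYd : Y ^ 24 * B.d n ≤ 1 := by
      rw [Real.rpow_one] at e16
      calc Y ^ 24 * B.d n ≤ Y ^ 24 * B'.d n ^ (24 * δ) :=
            mul_le_mul_of_nonneg_left e16 (by positivity)
        _ = 1 := hY24
    have h4k : ∀ k : ℕ, (4 : ℝ) ^ k ≤ Y ^ k := fun k => pow_le_pow_left₀ (by norm_num) e12 k
    have hs : B'.d n ^ (wn n * 0) = 1 := by simp
    have hdkN : B'.d n ^ kN = B.d n ^ (wn n * kN) := by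
      rw [hz.base n, ← Real.rpow_mul hd.le]
    have hdk1 : B'.d n ^ k1 = B.d n ^ (wn n * k1) := by
      rw [hz.base n, ← Real.rpow_mul hd.le]
    have hwkk : wn n * kN ≤ wn n * k1 := mul_le_mul_of_nonneg_left W.kNk (hz.w0 n).le
    -- sizes
    have hmm : ∀ a b : ℝ, -max 0 (a - b) = min 0 (b - a) := fun a b => by
      rcases le_total 0 (a - b) with h | h
      · rw [max_eq_right h, min_eq_right (by linarith)]; ring
      · rw [max_eq_left h, min_eq_left (by linarith)]; ring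
    have z1 : wS B w 0 n (v n + t3 n) ≤ S n * wS B w 2 n (v n + t2 n) := by
      refine cmp_pow hd hd1 hw2 hS0 e1.by' ?_
      have h1 := hmm (θ 0) (θ 2)
      unfold cBY
      linarith
    have z2 : wS B w 2 n (v n + t2 n) ≤ S n * wS B w 1 n (v n + t1 n) := by
      refine cmp_pow hd hd1 hw1 hS0 e1.ab ?_
      have h1 := hmm (θ 2) (θ 1)
      have h2 := W.tab n
      unfold cAB
      linarith
    have z3 : rg.r n ≤ S n * wS B w 0 n (v n + t3 n) * B'.d n ^ kN := by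
      have h1 := cmp_pow (s := 0) (t := v n + t3 n + wn n * kN) hd hd1 hw0 hS0 e1.res (by
        unfold cRR
        linarith)
      rw [Real.rpow_zero, mul_one, Real.rpow_add hd, ← hdkN] at h1
      unfold wS
      linarith
    have z4 : wS B w 0 n (v n + t3 n) * B'.d n ^ kN ≤
        S n * wS B w 2 n (v n + t2 n) * B'.d n ^ k1 := by
      have h1 := cmp_pow (s := v n + t3 n + wn n * kN) (t := v n + t2 n + wn n * k1) hd hd1 hw2 hS0
        e1.by' (by
          have h1 := hmm (θ 0) (θ 2)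
          unfold cBY
          linarith)
      have q1 : B.d n ^ (v n + t3 n + wn n * kN) = B.d n ^ (v n + t3 n) * B'.d n ^ kN := by
        rw [Real.rpow_add hd, hdkN]
      have q2 : B.d n ^ (v n + t2 n + wn n * k1) = B.d n ^ (v n + t2 n) * B'.d n ^ k1 := by
        rw [Real.rpow_add hd, hdk1]
      rw [q1, q2] at h1
      unfold wS
      linarith
    -- the cap
    have hρ : rho (lev n 0) * B.d n ^ v n ≤ rho (i n) := by
      have p1 := hp (v n)
      have g1 : B.d n ^ (-(v n)) = (B.d n ^ v n)⁻¹ := Real.rpow_neg hd.le _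
      rw [g1, ← div_eq_mul_inv, le_div_iff₀ p1] at e6
      unfold rho
      have p3 : (0 : ℝ) < 2 ^ i n := by positivity
      have p4 : (0 : ℝ) < 2 ^ lev n 0 := by positivity
      rw [one_div_mul_eq_div, div_le_div_iff₀ p4 p3]
      linarith
    have hS6 : (S n ^ 3) ^ 2 ≤ Y ^ 6 := by
      calc (S n ^ 3) ^ 2 = S n ^ 6 := by ring
        _ ≤ Y ^ 6 := pow_le_pow_left₀ hS0.le e11 6
    have hS3 : S n ^ 3 ≤ Y ^ 3 := pow_le_pow_left₀ hS0.le e11 3
    have hcap : 192 * (Y ^ 13 * ((S n ^ 3) ^ 2 * wS B w 1 n (v n + t1 n))) ≤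
        B.d n ^ (γ / 2) * rho (i n) := by
      have h1 : wS B w 1 n (v n + t1 n) ≤ Y * (B.d n ^ γ * rho (i n)) := by
        have h2 := mul_le_mul_of_nonneg_right e1.cap (hp (v n + t1 n)).le
        have hρ0 := rho_pos' (lev n 0)
        calc wS B w 1 n (v n + t1 n) ≤ S n * (B.d n ^ θ 1 * rho (lev n 0)) *
              B.d n ^ (v n + t1 n) := h2
          _ = S n * (B.d n ^ (θ 1 + t1 n) * (rho (lev n 0) * B.d n ^ v n)) := by
              rw [Real.rpow_add hd, Real.rpow_add hd]; ring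
          _ ≤ Y * (B.d n ^ γ * rho (i n)) := by
              have h3 : B.d n ^ (θ 1 + t1 n) ≤ B.d n ^ γ :=
                Real.rpow_le_rpow_of_exponent_ge hd hd1 (by have := W.tg n; linarith)
              have h4 := hp (θ 1 + t1 n)
              have h5 := hp γ
              have h6 := hp (v n)
              gcongr
      have h2 : (192 : ℝ) ≤ Y ^ 4 := le_trans (by norm_num) (h4k 4)
      have h3 := rho_pos' (i n)
      have hwp : 0 < wS B w 1 n (v n + t1 n) := mul_pos hw1 (hp _)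
      have hYp0 := hp γ
      calc 192 * (Y ^ 13 * ((S n ^ 3) ^ 2 * wS B w 1 n (v n + t1 n))) ≤
            Y ^ 4 * (Y ^ 13 * (Y ^ 6 * (Y * (B.d n ^ γ * rho (i n))))) := by gcongr
        _ = Y ^ 24 * B.d n ^ (γ / 2) * (B.d n ^ (γ / 2) * rho (i n)) := by
            have : B.d n ^ γ = B.d n ^ (γ / 2) * B.d n ^ (γ / 2) := by
              rw [← Real.rpow_add hd]; congr 1; ring
            rw [this]; ring
        _ ≤ 1 * (B.d n ^ (γ / 2) * rho (i n)) := by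
            refine mul_le_mul_of_nonneg_right ?_ (mul_pos (hp _) h3).le
            calc Y ^ 24 * B.d n ^ (γ / 2) ≤ Y ^ 24 * B'.d n ^ (24 * δ) :=
                  mul_le_mul_of_nonneg_left e19 (by positivity)
              _ = 1 := hY24
        _ = _ := one_mul _
    -- power gaps
    have hgap : ∀ {a m t c K : ℝ}, 0 < a → a ≤ B.d n ^ Cm * m → -(5 * T0) ≤ t → 0 ≤ c →
        c * K ≤ Y ^ 24 → c * (K * (a * B.d n ^ t)) ≤ m := fun {a m t c K} ha ham ht hc hcK => by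
      have hm : 0 < m := by
        have h1 : 0 < B.d n ^ Cm * m := ha.trans_le ham
        exact (pos_iff_pos_of_mul_pos h1).1 (hp Cm)
      have h1 : B.d n ^ Cm * B.d n ^ t ≤ B.d n := by
        rw [← Real.rpow_add hd]
        calc B.d n ^ (Cm + t) ≤ B.d n ^ (1 : ℝ) :=
              Real.rpow_le_rpow_of_exponent_ge hd hd1 (by rw [hCm]; linarith)
          _ = B.d n := Real.rpow_one _
      have hat : 0 < a * B.d n ^ t := mul_pos ha (hp t)
      calc c * (K * (a * B.d n ^ t)) = (c * K) * (a * B.d n ^ t) := by ring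
        _ ≤ Y ^ 24 * (a * B.d n ^ t) := mul_le_mul_of_nonneg_right hcK hat.le
        _ ≤ Y ^ 24 * ((B.d n ^ Cm * m) * B.d n ^ t) := by
            have := hp t
            gcongr
        _ = Y ^ 24 * (B.d n ^ Cm * B.d n ^ t) * m := by ring
        _ ≤ Y ^ 24 * B.d n * m := by gcongr
        _ ≤ 1 * m := mul_le_mul_of_nonneg_right hYd hm.le
        _ = m := one_mul m
    have hY14 : ∀ {c : ℝ} {k : ℕ}, c ≤ 4 ^ (24 - k) → k ≤ 24 → c * Y ^ k ≤ Y ^ 24 :=
      fun {c k} hc hk => by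
        calc c * Y ^ k ≤ Y ^ (24 - k) * Y ^ k :=
              mul_le_mul_of_nonneg_right (hc.trans (h4k _)) (by positivity)
          _ = Y ^ 24 := by rw [← pow_add, Nat.sub_add_cancel hk]
    have hm0' : 256 * (Y ^ 13 * wS B w 0 n (v n + t3 n)) ≤ rg.m0 n :=
      hgap hw0 hm0 x3 (by norm_num) (hY14 (by norm_num) (by norm_num))
    have hm1' : 192 * (Y ^ 13 * ((S n ^ 3) ^ 2 * wS B w 1 n (v n + t1 n))) ≤ rg.m1 n := by
      have h1 := hgap (c := 192) (K := Y ^ 13 * (S n ^ 3) ^ 2) hw1 hm1 x1 (by norm_num) (by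
        refine le_trans ?_ (hY14 (c := 192) (k := 19) (by norm_num) (by norm_num))
        have : Y ^ 13 * (S n ^ 3) ^ 2 ≤ Y ^ 13 * Y ^ 6 := by gcongr
        have e : Y ^ 13 * Y ^ 6 = Y ^ 19 := by ring
        linarith)
      refine le_trans (le_of_eq ?_) h1
      unfold wS
      ring
    have hm2' : 320 * (Y ^ 13 * (S n ^ 3 * wS B w 2 n (v n + t2 n))) ≤ rg.m2 n := by
      have h1 := hgap (c := 320) (K := Y ^ 13 * S n ^ 3) hw2 hm2 x2 (by norm_num) (by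
        refine le_trans ?_ (hY14 (c := 320) (k := 16) (by norm_num) (by norm_num))
        have : Y ^ 13 * S n ^ 3 ≤ Y ^ 13 * Y ^ 3 := by gcongr
        have e : Y ^ 13 * Y ^ 3 = Y ^ 16 := by ring
        linarith)
      refine le_trans (le_of_eq ?_) h1
      unfold wS
      ring
    have hlow : ∀ {r a t : ℝ}, 0 < a → r ≤ B.d n ^ Cm * a → t ≤ 1 + 5 * T0 →
        r ≤ B'.d n ^ k1 * (a * B.d n ^ t) / 2 / 2 := fun {r a t} ha hra ht => by
      have h1 : B.d n ^ Cm ≤ B.d n ^ t * B.d n := by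
        calc B.d n ^ Cm ≤ B.d n ^ (t + 1) :=
              Real.rpow_le_rpow_of_exponent_ge hd hd1 (by rw [hCm]; linarith)
          _ = B.d n ^ t * B.d n := by rw [Real.rpow_add hd, Real.rpow_one]
      have h2 : B.d n ≤ B'.d n ^ k1 / 4 := by
        rw [Real.rpow_one] at e17
        refine e17.trans ?_
        rw [Real.rpow_add hd', le_div_iff₀ (by norm_num : (0 : ℝ) < 4), mul_assoc]
        have h3 : B'.d n ^ δ * 4 ≤ 1 := by
          calc B'.d n ^ δ * 4 ≤ B'.d n ^ δ * Y := mul_le_mul_of_nonneg_left e12 (hp' _).le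
            _ = 1 := by rw [hY, ← Real.rpow_add hd', add_neg_cancel, Real.rpow_zero]
        exact mul_le_of_le_one_right (hp' _).le h3
      calc r ≤ B.d n ^ Cm * a := hra
        _ ≤ (B.d n ^ t * B.d n) * a := mul_le_mul_of_nonneg_right h1 ha.le
        _ ≤ (B.d n ^ t * (B'.d n ^ k1 / 4)) * a := by
            have := hp t
            gcongr
        _ = _ := by ring
    have ho1' : rg.o1 n ≤ B'.d n ^ k1 * wS B w 1 n (v n + t1 n) / 2 := by
      refine (hlow hw1 ho1 y1).trans ?_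
      have : 0 < B'.d n ^ k1 * wS B w 1 n (v n + t1 n) := mul_pos (hp' _) (mul_pos hw1 (hp _))
      unfold wS at this ⊢
      linarith
    have ho2' : rg.o2 n ≤ B'.d n ^ k1 * wS B w 2 n (v n + t2 n) / 2 / 2 := hlow hw2 ho2 y2
    -- neighbours
    have hη : 12 * κ ^ 3 * B.d n ^ γ * Y ^ 2 ≤ B'.d n ^ k1 := by
      calc 12 * κ ^ 3 * B.d n ^ γ * Y ^ 2 ≤ Y * B'.d n ^ (k1 + 3 * δ) * Y ^ 2 := by gcongr
        _ = Y ^ 3 * B'.d n ^ (3 * δ) * B'.d n ^ k1 := by rw [Real.rpow_add hd']; ring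
        _ = B'.d n ^ k1 := by
            have : Y ^ 3 * B'.d n ^ (3 * δ) = 1 := by
              rw [hYp, ← Real.rpow_add hd']
              have : -(((3 : ℕ) : ℝ) * δ) + 3 * δ = 0 := by push_cast; ring
              rw [this, Real.rpow_zero]
            rw [this, one_mul]
    have hs1 : B'.d n ^ kN ≤ 1 := Real.rpow_le_one hd'.le hd1' hkN.le
    have hσs : B'.d n ^ k1 ≤ B'.d n ^ kN := Real.rpow_le_rpow_of_exponent_ge hd' hd1' W.kNk
    have hmain := body_n (B := B) (I := I) (I1 := I1) (L := L) (π := π) (eE := eE) (fA := fA)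
      (fB := fB) (lev := lev) (g := g) (vm := vm) (w := w) (q := q) (w0 := w0) (R := R)
      (c₀ := c₀) (rg := rg) (n := n) (E := E n) (o := s₀ n) (i := i n) (J0 := J0 n)
      (v := v n) (t1 := t1 n) (t2 := t2 n) (t3 := t3 n) (R1 := R1 n) (Y := Y) (S := S n)
      (s := B'.d n ^ kN) (σ := B'.d n ^ k1) (α := α n) (β := β n) (γ := γ) (v1 := v1)
      H.pre.chart e3 e4 H.q0 hR0 (H.flag n _ hsI) e1.body (W.v0 n) (W.vv n) e5 e6 e7 hEI1 hEI
      e8 hκ1 hnear hRk hS1 e11 e12 e10.1 e10.2 (hp' _) hσs hs1 (H.rr0 n) z1 z2 z3 z4 hcap hm0'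
      hm1' hm2' ho1' ho2' hη hK01 hK0Y (x := x) hαβ hu
    refine hmain.trans ?_
    have hfin : Y ^ (49 + 19 * (q 0 + q 1 + q 2)) ≤ B'.d n ^ (-ε) := by
      rw [hY, ← Real.rpow_mul hd'.le]
      refine Real.rpow_le_rpow_of_exponent_ge hd' hd1' ?_
      have : δ * (49 + 19 * (q 0 + q 1 + q 2)) ≤ ε := hδQ
      linarith
    have hu0 : 0 < u 0 := (hp' _).trans_le (hu 0).1
    have hu1 : 0 < u 1 := (hp' _).trans_le (hu 1).1
    calc Y ^ (49 + 19 * (q 0 + q 1 + q 2)) *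
        (B.d n ^ (-(c₀ + DN g q (v n) (t1 n) (t2 n) (t3 n))) * B'.d n ^ kN * (u 0 * u 1)) ≤
        B'.d n ^ (-ε) *
        (B.d n ^ (-(c₀ + DN g q (v n) (t1 n) (t2 n) (t3 n))) * B'.d n ^ kN * (u 0 * u 1)) := by
          refine mul_le_mul_of_nonneg_right hfin ?_
          have := hp (-(c₀ + DN g q (v n) (t1 n) (t2 n) (t3 n)))
          have := hp' kN
          positivity
      _ = _ := by ring

end

end Crest.Agent.R136.Lab926
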