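import Crest.Agent.R136.Aw0_413
import Crest.Agent.R136.Ev6_356

/-!
# R136: natural windows of 413's `AeW` in the chart of helper186 (helper400)

* `kapQ K`, `stQ S K T Ma` : static data, constant resolution `T`, multiplicative normalising
  constants (all coefficients of the tight monomials are `1`);
* `SOk`, `stQ_ok` : `WSt.Ok`;
* `MaQ Ma` : all walls are active except `P ≤ z + R`; `TightQ W` : the same for the base points;
* `qwnd_of_wat`, `tightQ_of_wat`, `hcQ` (356's hypothesis for the pruned sets);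
* `cfQ` : the coefficients are `1`, `cf01` : the coefficient of the slot `1` is small;
* `bdQ` : `|z|, |F| ≤ 1`.
-/

set_option autoImplicit false
set_option linter.unusedSectionVars false
set_option linter.unusedVariables false

open Filter Topology

namespace Crest.Agent.R136.Wq400

open Finset Crest.Agent.R136.NetQ186 Crest.Agent.R136.Net191 Crest.Agent.R136.Qg926
open Crest.Agent.R136.Gf356 Crest.Agent.R136.Ev356 Crest.Agent.R136.Aw413
open Crest.Agent.R138.Ex926 (Base U)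

/-- weights of the slots -/
def wtQ : Fin 11 → ℕ := ![1, 1, 1, 1, 2, 1, 2, 3, 2, 3, 4]

/-- normalising constants -/
noncomputable def kapQ (K : ℝ) : Fin 11 → ℝ := fun s => K ^ wtQ s

theorem kapQ_pos {K : ℝ} (hK : 0 < K) (s : Fin 11) : 0 < kapQ K s := pow_pos hK _

/-- **static data**: level slots `S`, resolution `T`, walls `Ma` -/
noncomputable def stQ (S : Finset (Fin 11)) (K T : ℝ) (Ma : Mons 11) : WSt 11 where
  S := S
  kz := 0
  top := fun _ => T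
  kap := kapQ K
  Mw := Ma
  R' := T

/-- admissible sets of level slots -/
structure SOk (S : Finset (Fin 11)) : Prop where
  h0 : (0 : Fin 11) ∈ S
  sub : ∀ s ∈ S, s = 0 ∨ s = 2 ∨ s = 3 ∨ s = 4
  a4 : (4 : Fin 11) ∈ S → (2 : Fin 11) ∈ S ∨ (3 : Fin 11) ∈ S
  a23 : (2 : Fin 11) ∈ S → (3 : Fin 11) ∈ S → (4 : Fin 11) ∈ S

theorem sok_z : SOk {0} := by constructor <;> decide
theorem sok_b : SOk {0, 3} := by constructor <;> decide
theorem sok_ba : SOk {0, 3, 4} := by constructor <;> decide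
theorem sok_eab : SOk {0, 2, 3, 4} := by constructor <;> decide
theorem sok_e : SOk {0, 2} := by constructor <;> decide

theorem SOk.notMem {S : Finset (Fin 11)} (h : SOk S) {s : Fin 11}
    (hs : s = 1 ∨ s = 5 ∨ s = 6 ∨ s = 7 ∨ s = 8 ∨ s = 9 ∨ s = 10) : s ∉ S := by
  intro hm
  have := h.sub s hm
  rcases hs with rfl | rfl | rfl | rfl | rfl | rfl | rfl <;> simp at this

/-- fewer walls -/
theorem legal_sub {m : ℕ} {M M' : Mons m} (h : ∀ k, M.mon k ⊆ M'.mon k) {p : Fin m → ℝ}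
    (hp : Legal M' p) : Legal M p :=
  ⟨hp.nonneg, fun k e he => hp.wall k e (h k he)⟩

theorem top_legal {T : ℝ} (hT : 0 ≤ T) : Legal monQ (fun _ => T) := by
  refine legalQ_iff.2 ⟨fun _ => hT, ?_, ?_, ?_, ?_, ?_, ?_, ?_, ?_, ?_, ?_, ?_⟩ <;> linarith

theorem lin_legal {S : Finset (Fin 11)} (hS : SOk S) {T : ℝ} (hT : 0 ≤ T) :
    Legal monQ (cut S (fun _ => T) 0) ∧ ∀ s, cut S (fun _ => T) (0 : Fin 11 → ℝ) s ≤ T := by
  have hv : ∀ s, 0 ≤ cut S (fun _ => T) (0 : Fin 11 → ℝ) s ∧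
      cut S (fun _ => T) (0 : Fin 11 → ℝ) s ≤ T := by
    intro s
    unfold cut
    split_ifs
    · exact ⟨le_rfl, hT⟩
    · exact ⟨hT, le_rfl⟩
  have hT' : ∀ s : Fin 11, s ∉ S → cut S (fun _ => T) (0 : Fin 11 → ℝ) s = T := fun s hs =>
    cut_of_notMem hs
  have e1 := hT' 1 (hS.notMem (by simp))
  have e5 := hT' 5 (hS.notMem (by simp))
  have e6 := hT' 6 (hS.notMem (by simp))
  have e7 := hT' 7 (hS.notMem (by simp))
  have e8 := hT' 8 (hS.notMem (by simp))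
  have e9 := hT' 9 (hS.notMem (by simp))
  have e4 : cut S (fun _ => T) (0 : Fin 11 → ℝ) 4 ≤ cut S (fun _ => T) (0 : Fin 11 → ℝ) 2 +
      cut S (fun _ => T) (0 : Fin 11 → ℝ) 3 := by
    by_cases h4 : (4 : Fin 11) ∈ S
    · rw [cut_of_mem h4]
      have := (hv 2).1
      have := (hv 3).1
      simp only [Pi.zero_apply]
      linarith
    · by_cases h2 : (2 : Fin 11) ∈ S
      · rw [hT' 3 (fun h3 => h4 (hS.a23 h2 h3))]
        linarith [(hv 4).2, (hv 2).1]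
      · rw [hT' 2 h2]
        linarith [(hv 4).2, (hv 3).1]
  refine ⟨legalQ_iff.2 ⟨fun s => (hv s).1, e4, ?_, ?_, ?_, ?_, ?_, ?_, ?_, ?_, ?_, ?_⟩,
    fun s => (hv s).2⟩
  · rw [e5]; linarith [(hv 6).2, (hv 2).1]
  · rw [e1]; linarith [(hv 7).2, (hv 0).1]
  · rw [e5]; linarith [(hv 7).2, (hv 4).1]
  · rw [e6]; linarith [(hv 7).2, (hv 3).1]
  · rw [e5]; linarith [(hv 8).2, (hv 0).1]
  · rw [e6]; linarith [(hv 9).2, (hv 0).1]
  · rw [e8]; linarith [(hv 9).2, (hv 2).1]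
  · rw [e7]; linarith [(hv 10).2, (hv 0).1]
  · rw [e8]; linarith [(hv 10).2, (hv 4).1]
  · rw [e9]; linarith [(hv 10).2, (hv 3).1]

theorem lev_legal {S : Finset (Fin 11)} (hS : SOk S) {T : ℝ} (hT : 0 ≤ T) :
    Legal monQ (cut S 0 (fun _ => T)) ∧ ∀ s, cut S (0 : Fin 11 → ℝ) (fun _ => T) s ≤ T := by
  have hv : ∀ s, 0 ≤ cut S (0 : Fin 11 → ℝ) (fun _ => T) s ∧
      cut S (0 : Fin 11 → ℝ) (fun _ => T) s ≤ T := by
    intro s
    unfold cut
    split_ifs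
    · exact ⟨hT, le_rfl⟩
    · exact ⟨le_rfl, hT⟩
  have hz : ∀ s : Fin 11, s ∉ S → cut S (0 : Fin 11 → ℝ) (fun _ => T) s = 0 := fun s hs =>
    cut_of_notMem hs
  have hT' : ∀ s : Fin 11, s ∈ S → cut S (0 : Fin 11 → ℝ) (fun _ => T) s = T := fun s hs =>
    cut_of_mem hs
  have e6 := hz 6 (hS.notMem (by simp))
  have e7 := hz 7 (hS.notMem (by simp))
  have e8 := hz 8 (hS.notMem (by simp))
  have e9 := hz 9 (hS.notMem (by simp))
  have e10 := hz 10 (hS.notMem (by simp))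
  have e4 : cut S (0 : Fin 11 → ℝ) (fun _ => T) 4 ≤ cut S (0 : Fin 11 → ℝ) (fun _ => T) 2 +
      cut S (0 : Fin 11 → ℝ) (fun _ => T) 3 := by
    by_cases h4 : (4 : Fin 11) ∈ S
    · rcases hS.a4 h4 with h | h
      · rw [hT' 2 h]; linarith [(hv 4).2, (hv 3).1]
      · rw [hT' 3 h]; linarith [(hv 4).2, (hv 2).1]
    · rw [hz 4 h4]; linarith [(hv 2).1, (hv 3).1]
  refine ⟨legalQ_iff.2 ⟨fun s => (hv s).1, e4, ?_, ?_, ?_, ?_, ?_, ?_, ?_, ?_, ?_, ?_⟩,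
    fun s => (hv s).2⟩
  · rw [e6]; linarith [(hv 5).1, (hv 2).1]
  · rw [e7]; linarith [(hv 0).1, (hv 1).1]
  · rw [e7]; linarith [(hv 4).1, (hv 5).1]
  · rw [e7]; linarith [(hv 3).1, (hv 6).1]
  · rw [e8]; linarith [(hv 0).1, (hv 5).1]
  · rw [e9]; linarith [(hv 0).1, (hv 6).1]
  · rw [e9]; linarith [(hv 2).1, (hv 8).1]
  · rw [e10]; linarith [(hv 0).1, (hv 7).1]
  · rw [e10]; linarith [(hv 4).1, (hv 8).1]
  · rw [e10]; linarith [(hv 3).1, (hv 9).1]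

/-- **the static data are admissible** -/
theorem stQ_ok {S : Finset (Fin 11)} (hS : SOk S) {K T : ℝ} (hK : 0 < K) (hT : 0 ≤ T)
    {Ma : Mons 11} (hsub : ∀ k, Ma.mon k ⊆ monQ.mon k) :
    (stQ S K T Ma).Ok monQ (coneM Ma) where
  R0 := hT
  leg := leg_cone fun k => Finset.Subset.refl _
  top_leg := ⟨legal_sub hsub (top_legal hT), fun s => le_rfl⟩
  lin_leg := ⟨legal_sub hsub (lin_legal hS hT).1, (lin_legal hS hT).2⟩
  lev_leg := ⟨legal_sub hsub (lev_legal hS hT).1, (lev_legal hS hT).2⟩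
  kzS := hS.h0
  kz0 := rfl
  kzw := by
    have := hsub 0
    exact Finset.subset_empty.1 this
  kap := kapQ_pos hK

/-- all walls are active, except `P ≤ z + R` -/
structure MaQ (Ma : Mons 11) : Prop where
  m423 : ![0, 0, 1, 1, 0, 0, 0, 0, 0, 0, 0] ∈ Ma.mon 4
  m625 : ![0, 0, 1, 0, 0, 1, 0, 0, 0, 0, 0] ∈ Ma.mon 6
  m745 : ![0, 0, 0, 0, 1, 1, 0, 0, 0, 0, 0] ∈ Ma.mon 7
  m736 : ![0, 0, 0, 1, 0, 0, 1, 0, 0, 0, 0] ∈ Ma.mon 7
  m805 : ![1, 0, 0, 0, 0, 1, 0, 0, 0, 0, 0] ∈ Ma.mon 8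
  m906 : ![1, 0, 0, 0, 0, 0, 1, 0, 0, 0, 0] ∈ Ma.mon 9
  m928 : ![0, 0, 1, 0, 0, 0, 0, 0, 1, 0, 0] ∈ Ma.mon 9
  m107 : ![1, 0, 0, 0, 0, 0, 0, 1, 0, 0, 0] ∈ Ma.mon 10
  m148 : ![0, 0, 0, 0, 1, 0, 0, 0, 1, 0, 0] ∈ Ma.mon 10
  m139 : ![0, 0, 0, 1, 0, 0, 0, 0, 0, 1, 0] ∈ Ma.mon 10
  m701 : ![1, 1, 0, 0, 0, 0, 0, 0, 0, 0, 0] ∉ Ma.mon 7

variable {ι : ℕ → Type*} [∀ n, DecidableEq (ι n)]

/-- tight walls at the base points -/
structure TightQ (W : Wnd 11 ι) : Prop where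
  t4 : ∀ n, W.X n 4 = W.X n 2 + W.X n 3
  t6 : ∀ n, W.X n 6 = W.X n 2 + W.X n 5
  t7a : ∀ n, W.X n 7 = W.X n 4 + W.X n 5
  t7b : ∀ n, W.X n 7 = W.X n 3 + W.X n 6
  t8 : ∀ n, W.X n 8 = W.X n 0 + W.X n 5
  t9a : ∀ n, W.X n 9 = W.X n 0 + W.X n 6
  t9b : ∀ n, W.X n 9 = W.X n 2 + W.X n 8
  t10a : ∀ n, W.X n 10 = W.X n 0 + W.X n 7
  t10b : ∀ n, W.X n 10 = W.X n 4 + W.X n 8
  t10c : ∀ n, W.X n 10 = W.X n 3 + W.X n 9
  gap : ∀ R : ℝ, ∀ᶠ n in (U : Filter ℕ), W.X n 7 + R * W.w n ≤ W.X n 0 + W.X n 1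

section wat

variable {B : Base} {I : ∀ n, Finset (ι n)} {co : ∀ n, ι n → ι n → Fin 11 → ℝ} {Ma : Mons 11}
  {C : ℝ} {lam : (Fin 11 → ℝ) → ℝ} {V Tw : Fin 11 → Prop} {st : WSt 11} {W : Wnd 11 ι}
  {f : ∀ n, ι n → Fq4}

theorem tightQ_of_wat (h : WAt B I co monQ Ma C lam V Tw st W) (hM : MaQ Ma) : TightQ W where
  t4 := fun n => by
    have := h.act 4 _ hM.m423 n
    simpa [Fin.sum_univ_succ] using this
  t6 := fun n => by
    have := h.act 6 _ hM.m625 n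
    simpa [Fin.sum_univ_succ] using this
  t7a := fun n => by
    have := h.act 7 _ hM.m745 n
    simpa [Fin.sum_univ_succ] using this
  t7b := fun n => by
    have := h.act 7 _ hM.m736 n
    simpa [Fin.sum_univ_succ] using this
  t8 := fun n => by
    have := h.act 8 _ hM.m805 n
    simpa [Fin.sum_univ_succ] using this
  t9a := fun n => by
    have := h.act 9 _ hM.m906 n
    simpa [Fin.sum_univ_succ] using this
  t9b := fun n => by
    have := h.act 9 _ hM.m928 n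
    simpa [Fin.sum_univ_succ] using this
  t10a := fun n => by
    have := h.act 10 _ hM.m107 n
    simpa [Fin.sum_univ_succ] using this
  t10b := fun n => by
    have := h.act 10 _ hM.m148 n
    simpa [Fin.sum_univ_succ] using this
  t10c := fun n => by
    have := h.act 10 _ hM.m139 n
    simpa [Fin.sum_univ_succ] using this
  gap := fun R => by
    have := h.gap 7 ![1, 1, 0, 0, 0, 0, 0, 0, 0, 0, 0] (by
      show _ ∈ mfQ 7
      simp [mfQ]) hM.m701 R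
    filter_upwards [this] with n hn
    simpa [Fin.sum_univ_succ] using hn

theorem qwnd_of_wat (h : WAt B I co monQ Ma C lam V Tw st W)
    (hco : ∀ n, ∀ i ∈ I n, ∀ j ∈ I n, co n i j = coQ (f n i) (f n j))
    (hS : ∀ s ∈ st.S, s = 0 ∨ s = 2 ∨ s = 3 ∨ s = 4) : QWnd W f where
  ok := h.ok
  hM := h.eM
  hco := fun n i hi j hj => by
    rw [h.eI] at hi hj
    rw [h.eco]
    exact hco n i hi j hj
  hS := by rw [h.eS]; exact hS

theorem hcQ (h : QWnd W f) {E' : ∀ n, Finset (ι n)} {g : ℕ → ℝ} {ex : ℕ → ∀ n, ι n → ℕ}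
    (hP : Wnd.Pruned W W.sec E' g ex) :
    ∀ᶠ n in (U : Filter ℕ), W.Good n ∧ E' n ⊆ W.Cl n ∧ W.cfg E' n = W.cfg0 n (E' n) :=
  h.ev_hc h.ok.eok_section hP

end wat

variable {W : Wnd 11 ι} {f : ∀ n, ι n → Fq4}

/-- **all coefficients of the tight monomials are `1`** -/
structure CfOne (W : Wnd 11 ι) (n : ℕ) : Prop where
  c234 : cf W n 2 3 4 = 1
  c256 : cf W n 2 5 6 = 1
  c457 : cf W n 4 5 7 = 1
  c367 : cf W n 3 6 7 = 1
  c058 : cf W n 0 5 8 = 1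
  c069 : cf W n 0 6 9 = 1
  c289 : cf W n 2 8 9 = 1
  c0710 : cf W n 0 7 10 = 1
  c4810 : cf W n 4 8 10 = 1
  c3910 : cf W n 3 9 10 = 1

theorem cfQ (h : QWnd W f) (ht : TightQ W) {K : ℝ} (hK : 0 < K) (hkap : W.kap = kapQ K) (n : ℕ) :
    CfOne W n where
  c234 := by rw [h.cf_eq (ht.t4 n), hkap]; simp [kapQ, wtQ]; field_simp
  c256 := by rw [h.cf_eq (ht.t6 n), hkap]; simp [kapQ, wtQ]; field_simp
  c457 := by rw [h.cf_eq (ht.t7a n), hkap]; simp [kapQ, wtQ]; field_simp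
  c367 := by rw [h.cf_eq (ht.t7b n), hkap]; simp [kapQ, wtQ]; field_simp
  c058 := by rw [h.cf_eq (ht.t8 n), hkap]; simp [kapQ, wtQ]; field_simp
  c069 := by rw [h.cf_eq (ht.t9a n), hkap]; simp [kapQ, wtQ]; field_simp
  c289 := by rw [h.cf_eq (ht.t9b n), hkap]; simp [kapQ, wtQ]; field_simp
  c0710 := by rw [h.cf_eq (ht.t10a n), hkap]; simp [kapQ, wtQ]; field_simp
  c4810 := by rw [h.cf_eq (ht.t10b n), hkap]; simp [kapQ, wtQ]; field_simp
  c3910 := by rw [h.cf_eq (ht.t10c n), hkap]; simp [kapQ, wtQ]; field_simp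

/-- the coefficient of the slot `1` -/
theorem cf01 (h : QWnd W f) (ht : TightQ W) (R : ℝ) : ∀ᶠ n in (U : Filter ℕ),
    |cf W n 0 1 7| ≤ W.kap 0 * W.kap 1 / W.kap 7 * W.B'.d n ^ R :=
  (ht.gap R).mono fun n hn => by
    rw [abs_of_nonneg (h.cf_pos n 0 1 7).le]
    exact h.cf_small hn

/-- bounds of the height and of the additive flags -/
theorem bdQ (h : QWnd W f) {E : ∀ n, Finset (ι n)}
    (hc : ∀ᶠ n in (U : Filter ℕ), W.Good n ∧ E n ⊆ W.Cl n ∧ W.cfg E n = W.cfg0 n (E n))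
    (hkz : W.kz = 0) {K : ℝ} (hKK : W.K0 ≤ K) (hkap : W.kap = kapQ K) :
    ∀ᶠ n in (U : Filter ℕ), ∀ k ∈ (W.cfg E n).Z,
      |(W.cfg E n).z k| ≤ 1 ∧ ∀ s, |flg W n k s| ≤ 1 := by
  have hK1 : 1 ≤ K := h.ok.K0_one.trans hKK
  have hK : 0 < K := by linarith
  filter_upwards [hc, h.z_eq hkz hc] with n hn hz k hk
  obtain ⟨g, hE, hcfg⟩ := hn
  rw [hz k]
  rw [hcfg] at hk
  obtain ⟨z1, z2⟩ := zrep_of_mem hE hk
  have key : ∀ s, |flg W n k s| ≤ 1 := by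
    intro s
    refine (h.crd_le g g.s0 z1 s).trans ?_
    rw [div_le_one (h.ok.kap s), hkap]
    unfold kapQ
    have : K ^ 1 ≤ K ^ wtQ s := by
      refine pow_le_pow_right₀ hK1 ?_
      fin_cases s <;> simp [wtQ]
    rw [pow_one] at this
    exact hKK.trans this
  exact ⟨key 0, key⟩

end Crest.Agent.R136.Wq400
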