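import Crest.Agent.R136.Ev13_356
import Crest.Agent.R136.Lf1_400
import Crest.Agent.R136.Wq0_400

/-!
# R136, case F: the leaf step of the ladder (helper115)

* `comp8`, `comp9`, `comp10` : composition law of `X_a`, `X_b`, `N` at one level of a window (only the
  level slots have to be resolved);
* **`leaf39`, `leaf48`** : 400's `leaf_R` for `(F, X) = (F_b, X_b)` and `(F_a, X_a)`;
* `ZW`, `zw_of_aew` : window with level slot `z` (own loss 1, no group condition), `E` unresolved;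
* `ZE`, `ze_of_aew` : window with level slots `z, E`;
* **`leafN`** : loss of `N`.
-/

set_option autoImplicit false
set_option linter.unusedSectionVars false
set_option linter.unusedVariables false

open Filter Topology

namespace Crest.Agent.R136.LadA115

open Finset Crest.Agent.R136.NetQ186 Crest.Agent.R136.Net191 Crest.Agent.R136.Qg926
open Crest.Agent.R136.Gf356 Crest.Agent.R136.Ev356 Crest.Agent.R136.Aw413
open Crest.Agent.R136.Wq400
open Crest.Agent.R138.Ex926 (Base U)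

variable {ι : ℕ → Type*} [∀ n, DecidableEq (ι n)] {W : Wnd 11 ι} {f : ∀ n, ι n → Fq4}
  {Ma : Mons 11} {E : ∀ n, Finset (ι n)} {T : ℝ}

/-- only the level slots are resolved -/
theorem pq_lev (h : QAt W f Ma) (hS : W.S ⊆ {0, 2}) (hT : 0 ≤ T) (htop : ∀ s ∈ W.S, T ≤ W.top s) :
    PQ W f W.S T (fun _ => chi Ma) := by
  have hn : ∀ s : Fin 11, s ≠ 0 → s ≠ 2 → s ∉ W.S := fun s h0 h2 hs => by
    have := hS hs
    simp only [Finset.mem_insert, Finset.mem_singleton] at this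
    rcases this with h | h <;> contradiction
  refine PQ.of_at h hT (Finset.Subset.refl _) htop ⟨?_, ?_, ?_, ?_, ?_, ?_, ?_, ?_, ?_, ?_⟩ <;>
    exact fun hs => absurd hs (hn _ (by decide) (by decide))

theorem rel_le (h : QAt W f Ma)
    (hc : ∀ᶠ n in (U : Filter ℕ), W.Good n ∧ E n ⊆ W.Cl n ∧ W.cfg E n = W.cfg0 n (E n)) :
    ∀ᶠ n in (U : Filter ℕ), ∀ k i l, (i, k) ∈ (W.cfg E n).I → (l, k) ∈ (W.cfg E n).I →
      ∀ s, |(W.cfg E n).rel k i l s| ≤ 1 := by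
  filter_upwards [hc] with n hn k i l h1 h2 s
  obtain ⟨g, hE, hcfg⟩ := hn
  rw [hcfg] at h1 h2 ⊢
  obtain ⟨a1, a2, a3⟩ := rep_of_mem hE h1
  obtain ⟨b1, b2, b3⟩ := rep_of_mem hE h2
  rw [rel_cfg0 k i l s]
  split_ifs
  · simp
  · exact (h.crd4 g a1 b1 s).trans (by norm_num)

theorem rel_lev (h : QAt W f Ma)
    (hc : ∀ᶠ n in (U : Filter ℕ), W.Good n ∧ E n ⊆ W.Cl n ∧ W.cfg E n = W.cfg0 n (E n)) :
    ∀ᶠ n in (U : Filter ℕ), ∀ k i l, ∀ s ∈ W.S, (W.cfg E n).rel k i l s = 0 := by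
  filter_upwards [hc] with n hn k i l s hs
  obtain ⟨g, hE, hcfg⟩ := hn
  rw [hcfg, rel_cfg0 k i l s, if_pos hs]

/-- constants are absorbed -/
theorem two_rpow {B : Base} {x ε : ℝ} (hε : 0 < ε) (c : ℝ) :
    ∀ᶠ n in (U : Filter ℕ), c * B.d n ^ (x - ε) ≤ B.d n ^ (x - 2 * ε) := by
  filter_upwards [ev_const_le B hε c] with n hn
  have e : B.d n ^ (x - 2 * ε) = B.d n ^ (-ε) * B.d n ^ (x - ε) := by
    rw [← Real.rpow_add (B.pos n)]; congr 1; ring
  rw [e]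
  exact mul_le_mul_of_nonneg_right hn (Real.rpow_nonneg (B.pos n).le _)

theorem chi_abs (i j s : Fin 11) : |chi Ma i j s| ≤ 1 := by
  unfold chi
  split_ifs <;> simp

theorem mul_le1 {x y c : ℝ} (hx : |x| ≤ 1) (hy : |y| ≤ c) : |x * y| ≤ c := by
  rw [abs_mul]
  have := mul_le_mul hx hy (abs_nonneg _) zero_le_one
  linarith

/-- the coefficient `1` -/
theorem one_c (B : Base) : ∀ ε : ℝ, 0 < ε → ∀ᶠ n in (U : Filter ℕ),
    B.d n ^ ε ≤ |(fun _ : ℕ => (1 : ℝ)) n| ∧ |(fun _ : ℕ => (1 : ℝ)) n| ≤ B.d n ^ (-ε) := by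
  intro ε hε
  refine Eventually.of_forall fun n => ?_
  rw [abs_one]
  exact ⟨Real.rpow_le_one (B.pos n).le (B.lt n).le hε.le,
    Real.one_le_rpow_of_pos_of_le_one_of_nonpos (B.pos n) (B.lt n).le (by linarith)⟩

section leaf

variable (h : QAt W f Ma) (hS : W.S ⊆ {0, 2})
  (hc : ∀ᶠ n in (U : Filter ℕ), W.Good n ∧ E n ⊆ W.Cl n ∧ W.cfg E n = W.cfg0 n (E n))
  (hT : 0 ≤ T) (htop : ∀ s ∈ W.S, T ≤ W.top s)

include h hS hc hT htop

/-- composition of `X_a` -/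
theorem comp8 {ε : ℝ} (hε : 0 < ε) : ∀ᶠ n in (U : Filter ℕ), ∀ k i l l',
    (i, k) ∈ (W.cfg E n).I → (l, k) ∈ (W.cfg E n).I → (l', k) ∈ (W.cfg E n).I →
    |(W.cfg E n).rel k i l' 8 - (W.cfg E n).rel k i l 8 - (W.cfg E n).rel k l l' 8| ≤
      W.B'.d n ^ (T - ε) := by
  filter_upwards [(pq_lev h hS hT htop).comp hc hε] with n hn k i l l' h1 h2 h3
  have := hn k i l l' h1 h2 h3 8 (h.q.notMem (by simp))
  simp only [compC, Matrix.cons_val] at this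
  rwa [sub_sub]

/-- composition of `X_b` -/
theorem comp9 {ε : ℝ} (hε : 0 < ε) : ∀ᶠ n in (U : Filter ℕ), ∀ k i l l',
    (i, k) ∈ (W.cfg E n).I → (l, k) ∈ (W.cfg E n).I → (l', k) ∈ (W.cfg E n).I →
    |(W.cfg E n).rel k i l' 9 - (W.cfg E n).rel k i l 9 - (W.cfg E n).rel k l l' 9 -
      chi Ma 2 8 9 * ((W.cfg E n).rel k i l 2 * (W.cfg E n).rel k l l' 8)| ≤
      W.B'.d n ^ (T - ε) := by
  filter_upwards [(pq_lev h hS hT htop).comp hc hε] with n hn k i l l' h1 h2 h3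
  have := hn k i l l' h1 h2 h3 9 (h.q.notMem (by simp))
  simp only [compC, Matrix.cons_val] at this
  have e : (W.cfg E n).rel k i l' 9 - (W.cfg E n).rel k i l 9 - (W.cfg E n).rel k l l' 9 -
      chi Ma 2 8 9 * ((W.cfg E n).rel k i l 2 * (W.cfg E n).rel k l l' 8) =
      (W.cfg E n).rel k i l' 9 - ((W.cfg E n).rel k i l 9 + (W.cfg E n).rel k l l' 9 +
      chi Ma 2 8 9 * ((W.cfg E n).rel k i l 2 * (W.cfg E n).rel k l l' 8)) := by ring
  rwa [e]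

/-- composition of `N` -/
theorem comp10 {ε : ℝ} (hε : 0 < ε) : ∀ᶠ n in (U : Filter ℕ), ∀ k i l l',
    (i, k) ∈ (W.cfg E n).I → (l, k) ∈ (W.cfg E n).I → (l', k) ∈ (W.cfg E n).I →
    |(W.cfg E n).rel k i l' 10 - (W.cfg E n).rel k i l 10 - (W.cfg E n).rel k l l' 10 -
      chi Ma 4 8 10 * ((W.cfg E n).rel k i l 4 * (W.cfg E n).rel k l l' 8) -
      chi Ma 4 8 10 * chi Ma 2 3 4 *
        ((W.cfg E n).rel k i l 2 * ((W.cfg E n).rel k i l 3 * (W.cfg E n).rel k l l' 8)) -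
      chi Ma 3 9 10 * ((W.cfg E n).rel k i l 3 * (W.cfg E n).rel k l l' 9)| ≤
      W.B'.d n ^ (T - ε) := by
  filter_upwards [(pq_lev h hS hT htop).comp hc hε] with n hn k i l l' h1 h2 h3
  have := hn k i l l' h1 h2 h3 10 (h.q.notMem (by simp))
  simp only [compC, Matrix.cons_val] at this
  refine le_of_eq_of_le ?_ this
  congr 1
  ring

/-- **leaf `(F_b, X_b)`**, `X_a` in the base -/
theorem leaf39 {D : ℝ} (H : RUnif W.B' (W.cfg E) W.legW W.nu D) (hm : mv 3 9 ∈ Ma.mon 10)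
    (b : Fin 11 → ℝ) {x j : ℝ} (hj : 0 ≤ j) (hjx : j ≤ x) (hxT : x ≤ T) (hb : x ≤ b 8)
    (h0 : Lf400.bx b 9 3 10 0 0 0 ∈ W.legW) (hL : Lf400.bx b 9 3 10 0 x x ∈ W.legW)
    (hQ' : Lf400.bx b 9 3 10 x x x ∈ W.legW) (hQ : Lf400.bx b 9 3 10 x 0 x ∈ W.legW)
    (hjj : Lf400.bx b 9 3 10 0 j j ∈ W.legW) (hQj : Lf400.bx b 9 3 10 x j x ∈ W.legW)
    (hR : Lf400.bx b 9 3 10 (x - j) x x ∈ W.legW) :
    W.nu (Lf400.bx b 9 3 10 0 x x) - W.nu (Lf400.bx b 9 3 10 x x x) +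
        W.nu (Lf400.bx b 9 3 10 x 0 x) ≤ x + W.nu (Lf400.bx b 9 3 10 x j x) ∨
    W.nu (Lf400.bx b 9 3 10 0 x x) - W.nu (Lf400.bx b 9 3 10 x x x) +
        W.nu (Lf400.bx b 9 3 10 x 0 x) ≤
      W.nu (Lf400.bx b 9 3 10 0 0 0) - W.nu (Lf400.bx b 9 3 10 0 x x) +
        W.nu (Lf400.bx b 9 3 10 (x - j) x x) := by
  have hx0 : 0 ≤ x := hj.trans hjx
  -- `X_a` of a pair in the base box
  have h8 : ∀ ε : ℝ, 0 < ε → ∀ᶠ n in (U : Filter ℕ), ∀ k i l l', (i, k) ∈ (W.cfg E n).I →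
      (l, k) ∈ (W.cfg E n).I → (l', k) ∈ (W.cfg E n).I →
      (W.cfg E n).loose (Lf400.bx b 9 3 10 0 0 0) ε k i l →
      (W.cfg E n).loose (Lf400.bx b 9 3 10 0 0 0) ε k i l' →
      |(W.cfg E n).rel k l l' 8| ≤ 3 * W.B'.d n ^ (x - ε) := by
    intro ε hε
    filter_upwards [comp8 h hS hc hT htop hε] with n hn k i l l' h1 h2 h3 l1 l2
    have e1 := hn k i l l' h1 h2 h3
    have d1 := l1 8
    have d2 := l2 8
    rw [H.base n, Lf400.bx_o (by decide) (by decide) (by decide)] at d1 d2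
    have a1 : W.B'.d n ^ (b 8 - ε) ≤ W.B'.d n ^ (x - ε) :=
      Real.rpow_le_rpow_of_exponent_ge (W.B'.pos n) (W.B'.lt n).le (by linarith)
    have a2 : W.B'.d n ^ (T - ε) ≤ W.B'.d n ^ (x - ε) :=
      Real.rpow_le_rpow_of_exponent_ge (W.B'.pos n) (W.B'.lt n).le (by linarith)
    rw [abs_le] at d1 d2 e1 ⊢
    constructor <;> linarith [d1.1, d1.2, d2.1, d2.2, e1.1, e1.2]
  refine Lf400.leaf_R H b (by decide) (by decide) (by decide) hj hjx h0 hL hQ' hQ hjj hQj hR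
    (fun _ => 1) (one_c _) (C1 := 2) (by norm_num) ?_ ?_
  · intro ε hε
    filter_upwards [comp9 h hS hc hT htop hε, h8 ε hε, rel_le h hc, two_rpow (B := W.B')
      (x := x) hε 4] with n hn h8n hr h2 k i l l' i1 i2 i3 l1 l2
    have e1 := hn k i l l' i1 i2 i3
    have e2 := mul_le1 (chi_abs (Ma := Ma) 2 8 9) (mul_le1 (hr k i l i1 i2 2)
      (h8n k i l l' i1 i2 i3 l1 l2))
    have a2 : W.B'.d n ^ (T - ε) ≤ W.B'.d n ^ (x - ε) :=
      Real.rpow_le_rpow_of_exponent_ge (W.B'.pos n) (W.B'.lt n).le (by linarith)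
    rw [abs_le] at e1 e2 ⊢
    constructor <;> linarith [e1.1, e1.2, e2.1, e2.2]
  · intro ε hε
    filter_upwards [comp10 h hS hc hT htop hε, h8 ε hε, rel_le h hc, two_rpow (B := W.B')
      (x := x) hε 7] with n hn h8n hr h2 k i l l' i1 i2 i3 l1 l2
    have e1 := hn k i l l' i1 i2 i3
    have h8' := h8n k i l l' i1 i2 i3 l1 l2
    have e2 := mul_le1 (chi_abs (Ma := Ma) 4 8 10) (mul_le1 (hr k i l i1 i2 4) h8')
    have e3 := mul_le1 (chi_abs (Ma := Ma) 4 8 10) (mul_le1 (chi_abs (Ma := Ma) 2 3 4)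
      (mul_le1 (hr k i l i1 i2 2) (mul_le1 (hr k i l i1 i2 3) h8')))
    have a2 : W.B'.d n ^ (T - ε) ≤ W.B'.d n ^ (x - ε) :=
      Real.rpow_le_rpow_of_exponent_ge (W.B'.pos n) (W.B'.lt n).le (by linarith)
    have e4 : chi Ma 3 9 10 = 1 := if_pos hm
    rw [e4, mul_assoc (chi Ma 4 8 10) (chi Ma 2 3 4)] at e1
    rw [one_mul] at e1
    rw [one_mul]
    rw [abs_le] at e1 e2 e3 ⊢
    constructor <;> linarith [e1.1, e1.2, e2.1, e2.2, e3.1, e3.2]

/-- **leaf `(F_a, X_a)`**, any base -/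
theorem leaf48 {D : ℝ} (H : RUnif W.B' (W.cfg E) W.legW W.nu D) (hm : mv 4 8 ∈ Ma.mon 10)
    (n2 : mv 2 3 ∉ Ma.mon 4 ∨ (2 : Fin 11) ∈ W.S) (n3 : mv 3 9 ∉ Ma.mon 10)
    (b : Fin 11 → ℝ) {x j : ℝ} (hj : 0 ≤ j) (hjx : j ≤ x) (hxT : x ≤ T)
    (h0 : Lf400.bx b 8 4 10 0 0 0 ∈ W.legW) (hL : Lf400.bx b 8 4 10 0 x x ∈ W.legW)
    (hQ' : Lf400.bx b 8 4 10 x x x ∈ W.legW) (hQ : Lf400.bx b 8 4 10 x 0 x ∈ W.legW)
    (hjj : Lf400.bx b 8 4 10 0 j j ∈ W.legW) (hQj : Lf400.bx b 8 4 10 x j x ∈ W.legW)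
    (hR : Lf400.bx b 8 4 10 (x - j) x x ∈ W.legW) :
    W.nu (Lf400.bx b 8 4 10 0 x x) - W.nu (Lf400.bx b 8 4 10 x x x) +
        W.nu (Lf400.bx b 8 4 10 x 0 x) ≤ x + W.nu (Lf400.bx b 8 4 10 x j x) ∨
    W.nu (Lf400.bx b 8 4 10 0 x x) - W.nu (Lf400.bx b 8 4 10 x x x) +
        W.nu (Lf400.bx b 8 4 10 x 0 x) ≤
      W.nu (Lf400.bx b 8 4 10 0 0 0) - W.nu (Lf400.bx b 8 4 10 0 x x) +
        W.nu (Lf400.bx b 8 4 10 (x - j) x x) := by
  have hx0 : 0 ≤ x := hj.trans hjx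
  refine Lf400.leaf_R H b (by decide) (by decide) (by decide) hj hjx h0 hL hQ' hQ hjj hQj hR
    (fun _ => 1) (one_c _) (C1 := 2) (by norm_num) ?_ ?_
  · intro ε hε
    filter_upwards [comp8 h hS hc hT htop hε, two_rpow (B := W.B')
      (x := x) hε 4] with n hn h2 k i l l' i1 i2 i3 l1 l2
    have e1 := hn k i l l' i1 i2 i3
    have a2 : W.B'.d n ^ (T - ε) ≤ W.B'.d n ^ (x - ε) :=
      Real.rpow_le_rpow_of_exponent_ge (W.B'.pos n) (W.B'.lt n).le (by linarith)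
    have a3 := Real.rpow_nonneg (W.B'.pos n).le (x - ε)
    linarith
  · intro ε hε
    filter_upwards [comp10 h hS hc hT htop hε, rel_lev h hc, two_rpow (B := W.B')
      (x := x) hε 7] with n hn hr h2 k i l l' i1 i2 i3 l1 l2
    have e1 := hn k i l l' i1 i2 i3
    have a2 : W.B'.d n ^ (T - ε) ≤ W.B'.d n ^ (x - ε) :=
      Real.rpow_le_rpow_of_exponent_ge (W.B'.pos n) (W.B'.lt n).le (by linarith)
    have a3 := Real.rpow_nonneg (W.B'.pos n).le (x - ε)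
    have e4 : chi Ma 4 8 10 = 1 := if_pos hm
    have e5 : chi Ma 3 9 10 = 0 := if_neg n3
    have e6 : chi Ma 2 3 4 * ((W.cfg E n).rel k i l 2 *
        ((W.cfg E n).rel k i l 3 * (W.cfg E n).rel k l l' 8)) = 0 := by
      rcases n2 with n2 | n2
      · have : chi Ma 2 3 4 = 0 := if_neg n2
        rw [this, zero_mul]
      · rw [hr k i l 2 n2]; ring
    rw [e4, e5, one_mul, one_mul, zero_mul, sub_zero, e6, sub_zero] at e1
    rw [one_mul]
    linarith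

end leaf

/-! ### windows with known level slots -/

/-- static data: level slots `S`, resolution `top` -/
noncomputable def stT (S : Finset (Fin 11)) (K : ℝ) (top : Fin 11 → ℝ) (Ma : Mons 11) (R' : ℝ) :
    WSt 11 where
  S := S
  kz := 0
  top := top
  kap := kapQ K
  Mw := Ma
  R' := R'

/-- window with level slots `S` and resolution `top` -/
structure LW (Ma : Mons 11) (f : ∀ n, ι n → Fq4) (lam : (Fin 11 → ℝ) → ℝ) (S : Finset (Fin 11))
    (top : Fin 11 → ℝ) (R' : ℝ) (W : Wnd 11 ι) (E : ∀ n, Finset (ι n)) : Prop where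
  lamE : W.lam = lam
  eS : W.S = S
  etop : W.top = top
  eMw : W.Mw = Ma
  eR : W.R' = R'
  ekz : W.kz = 0
  qa : QAt W f Ma
  hc : ∀ᶠ n in (U : Filter ℕ), W.Good n ∧ E n ⊆ W.Cl n ∧ W.cfg E n = W.cfg0 n (E n)
  H : RModel W.B' (W.cfg E) 1 (top 0) W.legW W.nu W.Dc

section aew

variable {B Bo : Base} {I J : ∀ n, Finset (ι n)} {co : ∀ n, ι n → ι n → Fin 11 → ℝ}
  {C : ℝ} {lam : (Fin 11 → ℝ) → ℝ} {a b' : Fin 11 → ℝ} {A : ℝ × ℝ}
  {φ : ℕ → (Fin 11 → ℝ) → ℝ} {r : ℕ → ℝ} {κ : Fin 11 → ℝ} {V Tw : Fin 11 → Prop}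

/-- **windows of `AeW`** with a density hypothesis -/
theorem lw_of_aew (h : AeW B Bo I J co monQ Ma C lam a b' A φ r 0 1 κ V Tw) (hC : 0 ≤ C)
    (hco : ∀ n, ∀ i ∈ I n, ∀ j ∈ I n, co n i j = coQ (f n i) (f n j))
    (hne : ∀ᶠ n in (U : Filter ℕ), (J n).Nonempty) (n017 : mv 0 1 ∉ Ma.mon 7)
    {S : Finset (Fin 11)} {top : Fin 11 → ℝ} {R' : ℝ}
    (hok : (stT S (4 * cK0 monQ C) top Ma R').Ok monQ (coneM Ma))
    (hS : ∀ s ∈ S, s = 0 ∨ s = 2 ∨ s = 3 ∨ s = 4)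
    (hV : ∀ k, V k → k ∈ S ∨ top k = 0)
    (hden : lam top ≤ lam (cut S top 0) + lam (cut S 0 top))
    (hone : ∀ y : ℝ, 0 ≤ y → y ≤ top 0 → Pi.single 0 y ∈ coneM Ma) :
    ∃ (W : Wnd 11 ι) (E : ∀ n, Finset (ι n)), LW Ma f lam S top R' W E := by
  set st : WSt 11 := stT S (4 * cK0 monQ C) top Ma R' with hst
  obtain ⟨W, hW, -, -⟩ := h.wnd st rfl hok (fun _ _ => 1)
    (fun _ => Crest.Agent.R138.Ex926.Base.Sub.const one_pos) J (fun _ => 1)
    (Eventually.of_forall fun n => Finset.Subset.refl _) hne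
    (Crest.Agent.R138.Ex926.Base.Sub.const one_pos)
    (Eventually.of_forall fun n => by rw [one_mul])
  have hden' : st.Dens lam 1 (top 0) :=
    ⟨hden, zero_le_one, le_rfl, le_rfl, fun y h0 h1 => by
      have := h.frostO (c0 := 0) zero_mem (fun k _ => by simp) h0
        (by rw [zero_add]; exact hone y h0 h1)
      rw [zero_add, h.zero, sub_zero] at this
      exact this⟩
  obtain ⟨E, g, hP, -, H, -⟩ := hW.model hden' (fun _ _ _ => 0) (g₀ := fun n => n)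
    (tendsto_natCast_atTop_atTop.mono_left Crest.Agent.R138.Ex926.U_le_atTop) hV
  have hq : QWnd W f := qwnd_of_wat hW hco hS
  have hc := hcQ hq hP
  have hqa : QAt W f Ma := QAt.of_wat hW hq hok.kzS (fun s => rfl) n017
  exact ⟨W, E, hW.elam, hW.eS, hW.etop, hW.eMw, hW.eR, hW.ekz, hqa, hc, H⟩

/-- resolution `x` off slot `2` -/
def topZ (x : ℝ) : Fin 11 → ℝ := fun s => if s = 2 then 0 else x

theorem cutZ (x : ℝ) (p q : Fin 11 → ℝ) (s : Fin 11) :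
    cut {0} p q s = if s = 0 then q 0 else p s := by
  by_cases hs : s = 0
  · subst hs
    rw [if_pos rfl, cut_of_mem (by simp)]
  · rw [if_neg hs, cut_of_notMem (by simpa using hs)]

theorem topZ_leg {x : ℝ} (hx : 0 ≤ x) (hsub : ∀ k, Ma.mon k ⊆ monQ.mon k) :
    topZ x ∈ Leg Ma x ∧ cut {0} (topZ x) 0 ∈ Leg Ma x ∧ cut {0} 0 (topZ x) ∈ Leg Ma x := by
  refine ⟨⟨legal_sub hsub ?_, fun s => ?_⟩, ⟨legal_sub hsub ?_, fun s => ?_⟩,
    ⟨legal_sub hsub ?_, fun s => ?_⟩⟩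
  · refine legalQ_iff.2 ⟨fun s => ?_, ?_, ?_, ?_, ?_, ?_, ?_, ?_, ?_, ?_, ?_, ?_⟩
    · unfold topZ; split_ifs <;> linarith
    all_goals (simp [topZ]; try linarith)
  · unfold topZ; split_ifs <;> linarith
  · refine legalQ_iff.2 ⟨fun s => ?_, ?_, ?_, ?_, ?_, ?_, ?_, ?_, ?_, ?_, ?_, ?_⟩
    · rw [cutZ x]; unfold topZ; simp only [Pi.zero_apply]; split_ifs <;> linarith
    all_goals (simp [topZ, cutZ x]; try linarith)
  · rw [cutZ x]; unfold topZ; simp only [Pi.zero_apply]; split_ifs <;> linarith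
  · refine legalQ_iff.2 ⟨fun s => ?_, ?_, ?_, ?_, ?_, ?_, ?_, ?_, ?_, ?_, ?_, ?_⟩
    · rw [cutZ x]; unfold topZ; simp only [Pi.zero_apply]; split_ifs <;> simp [hx]
    all_goals (simp [topZ, cutZ x]; try linarith)
  · rw [cutZ x]; unfold topZ; simp only [Pi.zero_apply]; split_ifs <;> simp_all

/-- **the window with the level slot `z`**, `E` unresolved; no group condition -/
theorem zw_of_aew (h : AeW B Bo I J co monQ Ma C lam a b' A φ r 0 1 κ V Tw) (hC : 0 ≤ C)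
    (hco : ∀ n, ∀ i ∈ I n, ∀ j ∈ I n, co n i j = coQ (f n i) (f n j))
    (hne : ∀ᶠ n in (U : Filter ℕ), (J n).Nonempty) (n017 : mv 0 1 ∉ Ma.mon 7)
    (hV : ∀ k, V k → k = 2) {x : ℝ} (hx : 0 ≤ x) :
    ∃ (W : Wnd 11 ι) (E : ∀ n, Finset (ι n)), LW Ma f lam {0} (topZ x) x W E := by
  have hK0 : 1 ≤ cK0 monQ C := cK0_one hC
  obtain ⟨g1, g2, g3⟩ := topZ_leg (Ma := Ma) hx h.sub
  have hcone : Leg Ma x ⊆ coneM Ma := leg_cone fun k => Finset.Subset.refl _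
  have hz0 : topZ x 0 = x := by simp [topZ]
  have hsing : ∀ y : ℝ, 0 ≤ y → Pi.single (0 : Fin 11) y ∈ coneM Ma := fun y hy k e he => by
    have hk : k ≠ 0 := by
      rintro rfl
      have := h.sub 0 he
      simpa [monQ, mfQ] using this
    rw [Pi.single_eq_of_ne hk]
    refine sum_nonneg fun s _ => mul_nonneg (Nat.cast_nonneg _) ?_
    by_cases hs : s = 0
    · subst hs; simpa using hy
    · rw [Pi.single_eq_of_ne hs]
  refine lw_of_aew h hC hco hne n017 (S := {0}) (top := topZ x) (R' := x)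
    ⟨hx, hcone, g1, g2, g3, by simp [stT], rfl, ?_, kapQ_pos (by linarith)⟩
    (by simp) (fun k hk => Or.inr (by rw [hV k hk]; simp [topZ])) ?_
    (fun y hy _ => hsing y hy)
  · show Ma.mon 0 = ∅
    exact Finset.subset_empty.1 (h.sub 0)
  · have h1 := h.own _ (hcone g2) _ (hcone g1) (fun s => by
      rw [cutZ x]
      split_ifs with hs
      · subst hs; rw [hz0]; simpa using hx
      · exact le_rfl) (fun k hk => by
        rw [hV k hk, cutZ x, cutZ x]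
        simp [topZ])
    have e3 : cut {0} (0 : Fin 11 → ℝ) (topZ x) = Pi.single 0 x := by
      funext s
      rw [cutZ x]
      by_cases hs : s = 0
      · subst hs; simp [hz0]
      · simp [hs]
    have h2 := h.sharp 0 zero_mem _ (hsing x hx) (fun s => by
      by_cases hs : s = 0
      · subst hs; simpa using hx
      · simp [hs])
    rw [h.zero] at h2
    have e4 : ∑ s : Fin 11, ((Pi.single (0 : Fin 11) x : Fin 11 → ℝ) s - (0 : Fin 11 → ℝ) s) = x := by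
      simp
    rw [e4] at h2
    rw [e3]
    have e5 : cut {0} (topZ x) (0 : Fin 11 → ℝ) 0 = 0 := by rw [cutZ x]; simp
    rw [hz0, e5, sub_zero, one_mul] at h1
    linarith

/-! ### the losses -/

/-- `z` resolved at `x` -/
def cz (x : ℝ) (p : Fin 11 → ℝ) : Fin 11 → ℝ := Function.update p 0 x

theorem cut_cz {x : ℝ} (p : Fin 11 → ℝ) : cut {0} p (topZ x) = cz x p := by
  funext s
  rw [cutZ x, cz]
  by_cases hs : s = 0
  · subst hs; simp [topZ]
  · simp [hs]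

theorem LW.nuZ {x : ℝ} {W : Wnd 11 ι} {E : ∀ n, Finset (ι n)}
    (h : LW Ma f lam {0} (topZ x) x W E) (p : Fin 11 → ℝ) :
    W.nu p = lam (cz x p) - lam (topZ x) := by
  unfold Wnd.nu
  rw [h.eS, h.etop, h.lamE, cut_cz]

theorem LW.legZ {x : ℝ} {W : Wnd 11 ι} {E : ∀ n, Finset (ι n)}
    (h : LW Ma f lam {0} (topZ x) x W E) {p : Fin 11 → ℝ} (hp : ∀ s, 0 ≤ p s ∧ p s ≤ x)
    (p2 : p 2 = 0) (hw : Legal Ma (cz x p)) : p ∈ W.legW := by
  have hx : 0 ≤ x := (hp 0).1.trans (hp 0).2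
  refine ⟨?_, fun s _ => ?_⟩
  · rw [h.eS, h.etop, h.eMw, h.eR, cut_cz]
    refine ⟨hw, fun s => ?_⟩
    unfold cz
    by_cases hs : s = 0
    · subst hs; simp
    · rw [Function.update_of_ne hs]; exact (hp s).2
  · rw [h.etop]
    unfold topZ
    split_ifs with hs
    · rw [hs, p2]
    · exact (hp s).2

theorem cz0 (x : ℝ) (p : Fin 11 → ℝ) : cz x p 0 = x := by simp [cz]
theorem czs (x : ℝ) (p : Fin 11 → ℝ) {s : Fin 11} (hs : s ≠ 0) : cz x p s = p s := by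
  simp [cz, hs]

open Lf400 in
/-- **the leaf `(F_b, X_b)` over `AeW`**, base box with `X_a : x`, window `z` -/
theorem leafR39 (h : AeW B Bo I J co monQ Ma C lam a b' A φ r 0 1 κ V Tw) (hC : 0 ≤ C)
    (hco : ∀ n, ∀ i ∈ I n, ∀ j ∈ I n, co n i j = coQ (f n i) (f n j))
    (hne : ∀ᶠ n in (U : Filter ℕ), (J n).Nonempty) (hV : ∀ k, V k → k = 2)
    (n017 : mv 0 1 ∉ Ma.mon 7) (hm : mv 3 9 ∈ Ma.mon 10) {b : Fin 11 → ℝ} {x j : ℝ}
    (hb : ∀ s, 0 ≤ b s ∧ b s ≤ x) (b2 : b 2 = 0) (b4 : b 4 = 0) (b6 : b 6 ≤ b 5)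
    (b7 : b 7 ≤ b 6) (b8 : b 8 = x) (hj : 0 ≤ j) (hjx : j ≤ x) :
    lam (cz x (bx b 9 3 10 0 x x)) - lam (cz x (bx b 9 3 10 x x x)) +
        lam (cz x (bx b 9 3 10 x 0 x)) ≤ x + lam (cz x (bx b 9 3 10 x j x)) ∨
    lam (cz x (bx b 9 3 10 0 x x)) - lam (cz x (bx b 9 3 10 x x x)) +
        lam (cz x (bx b 9 3 10 x 0 x)) ≤
      lam (cz x (bx b 9 3 10 0 0 0)) - lam (cz x (bx b 9 3 10 0 x x)) +
        lam (cz x (bx b 9 3 10 (x - j) x x)) := by
  have hx : 0 ≤ x := hj.trans hjx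
  obtain ⟨W, E, hW⟩ := zw_of_aew h hC hco hne n017 hV hx
  have hS : W.S ⊆ {0, 2} := by rw [hW.eS]; decide
  have leg : ∀ c9 c3 c10 : ℝ, 0 ≤ c9 → c9 ≤ x → 0 ≤ c3 → c3 ≤ x → 0 ≤ c10 → c10 ≤ x →
      c10 ≤ c3 + c9 → bx b 9 3 10 c9 c3 c10 ∈ W.legW := by
    intro c9 c3 c10 h1 h2 h3 h4 h5 h6 h7
    have e9 : bx b 9 3 10 c9 c3 c10 9 = c9 := bx_X
    have e3 : bx b 9 3 10 c9 c3 c10 3 = c3 := bx_F (by decide)
    have e10 : bx b 9 3 10 c9 c3 c10 10 = c10 := bx_N (by decide) (by decide)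
    have eo : ∀ s : Fin 11, s ≠ 9 → s ≠ 3 → s ≠ 10 → bx b 9 3 10 c9 c3 c10 s = b s :=
      fun s g1 g2 g3 => bx_o g1 g2 g3
    refine hW.legZ (fun s => ?_) (by rw [eo 2 (by decide) (by decide) (by decide), b2])
      (legal_sub h.sub (legalQ_iff.2 ⟨fun s => ?_, ?_, ?_, ?_, ?_, ?_, ?_, ?_, ?_, ?_, ?_, ?_⟩))
    · by_cases g1 : s = 9
      · subst g1; rw [e9]; exact ⟨h1, h2⟩
      by_cases g2 : s = 3
      · subst g2; rw [e3]; exact ⟨h3, h4⟩
      by_cases g3 : s = 10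
      · subst g3; rw [e10]; exact ⟨h5, h6⟩
      rw [eo s g1 g2 g3]; exact hb s
    · by_cases g0 : s = 0
      · subst g0; rw [cz0]; exact hx
      rw [czs _ _ g0]
      by_cases g1 : s = 9
      · subst g1; rw [e9]; exact h1
      by_cases g2 : s = 3
      · subst g2; rw [e3]; exact h3
      by_cases g3 : s = 10
      · subst g3; rw [e10]; exact h5
      rw [eo s g1 g2 g3]; exact (hb s).1
    all_goals
      (simp only [cz0, czs x (bx b 9 3 10 c9 c3 c10) (s := 4) (by decide),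
        czs x (bx b 9 3 10 c9 c3 c10) (s := 2) (by decide),
        czs x (bx b 9 3 10 c9 c3 c10) (s := 3) (by decide),
        czs x (bx b 9 3 10 c9 c3 c10) (s := 1) (by decide),
        czs x (bx b 9 3 10 c9 c3 c10) (s := 5) (by decide),
        czs x (bx b 9 3 10 c9 c3 c10) (s := 6) (by decide),
        czs x (bx b 9 3 10 c9 c3 c10) (s := 7) (by decide),
        czs x (bx b 9 3 10 c9 c3 c10) (s := 8) (by decide),
        czs x (bx b 9 3 10 c9 c3 c10) (s := 9) (by decide),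
        czs x (bx b 9 3 10 c9 c3 c10) (s := 10) (by decide), e9, e3, e10,
        eo 1 (by decide) (by decide) (by decide), eo 2 (by decide) (by decide) (by decide),
        eo 4 (by decide) (by decide) (by decide), eo 5 (by decide) (by decide) (by decide),
        eo 6 (by decide) (by decide) (by decide), eo 7 (by decide) (by decide) (by decide),
        eo 8 (by decide) (by decide) (by decide)]
       linarith [(hb 1).1, (hb 1).2, (hb 5).1, (hb 5).2, (hb 6).1, (hb 6).2, (hb 7).1, (hb 7).2])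
  have key := leaf39 hW.qa hS hW.hc hx (by
      intro s hs
      rw [hW.eS, Finset.mem_singleton] at hs
      rw [hW.etop, hs]
      simp [topZ]) hW.H.toRUnif hm b hj hjx le_rfl b8.ge
    (leg 0 0 0 le_rfl hx le_rfl hx le_rfl hx (by linarith))
    (leg 0 x x le_rfl hx hx le_rfl hx le_rfl (by linarith))
    (leg x x x hx le_rfl hx le_rfl hx le_rfl (by linarith))
    (leg x 0 x hx le_rfl le_rfl hx hx le_rfl (by linarith))
    (leg 0 j j le_rfl hx hj hjx hj hjx (by linarith))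
    (leg x j x hx le_rfl hj hjx hx le_rfl (by linarith))
    (leg (x - j) x x (by linarith) (by linarith) hx le_rfl hx le_rfl (by linarith))
  simp only [hW.nuZ] at key
  rcases key with key | key
  · exact Or.inl (by linarith)
  · exact Or.inr (by linarith)

open Lf400 in
/-- **loss of `X_b` and `N`**: if `F_b : j` is visible given `(X_b, N : x)`, and `X_b` is full and
decoupled, then `X_b, N` lose `2 x - j` given the base box -/
theorem leafN39 (h : AeW B Bo I J co monQ Ma C lam a b' A φ r 0 1 κ V Tw) (hC : 0 ≤ C)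
    (hco : ∀ n, ∀ i ∈ I n, ∀ j ∈ I n, co n i j = coQ (f n i) (f n j))
    (hne : ∀ᶠ n in (U : Filter ℕ), (J n).Nonempty) (hV : ∀ k, V k → k = 2)
    (n017 : mv 0 1 ∉ Ma.mon 7) (hm : mv 3 9 ∈ Ma.mon 10) {b : Fin 11 → ℝ} {x j : ℝ}
    (hb : ∀ s, 0 ≤ b s ∧ b s ≤ x) (b2 : b 2 = 0) (b4 : b 4 = 0) (b6 : b 6 ≤ b 5)
    (b7 : b 7 ≤ b 6) (b8 : b 8 = x) (hj : 0 ≤ j) (hjx : j ≤ x)
    (hX : lam (cz x (bx b 9 3 10 x x x)) ≤ lam (cz x (bx b 9 3 10 0 x x)) - x)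
    (hXj : lam (cz x (bx b 9 3 10 (x - j) x x)) ≤ lam (cz x (bx b 9 3 10 0 x x)) - (x - j))
    (hF : lam (cz x (bx b 9 3 10 x j x)) < lam (cz x (bx b 9 3 10 x 0 x))) :
    lam (cz x (bx b 9 3 10 x 0 x)) ≤ lam (cz x (bx b 9 3 10 0 0 0)) - (2 * x - j) := by
  rcases leafR39 h hC hco hne hV n017 hm hb b2 b4 b6 b7 b8 hj hjx with key | key <;> linarith

end aew

end Crest.Agent.R136.LadA115
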