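import Crest.Agent.R136.LadA_115

/-!
# R136, case F: the leaf `(F_a, X_a)` (helper115)

* **`leafN48`** : window with level slot `z`;
* **`leafN48E`** : window with level slots `z, E` (`X_b` may be in the base), density hypothesis.
-/

set_option autoImplicit false
set_option linter.unusedSectionVars false
set_option linter.unusedVariables false

open Filter Topology

namespace Crest.Agent.R136.LadA115

open Finset Crest.Agent.R136.NetQ186 Crest.Agent.R136.Net191 Crest.Agent.R136.Qg926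
open Crest.Agent.R136.Gf356 Crest.Agent.R136.Ev356 Crest.Agent.R136.Aw413
open Crest.Agent.R136.Wq400 Crest.Agent.R136.Lf400
open Crest.Agent.R138.Ex926 (Base U)

/-- the monomials of the chart without `F_b` -/
theorem monQ_cases3 : ∀ k : Fin 11, ∀ e ∈ monQ.mon k, e 3 = 0 →
    (k = 6 ∧ e = mv 2 5) ∨ (k = 7 ∧ e = mv 0 1) ∨ (k = 7 ∧ e = mv 4 5) ∨ (k = 8 ∧ e = mv 0 5) ∨
    (k = 9 ∧ e = mv 0 6) ∨ (k = 9 ∧ e = mv 2 8) ∨ (k = 9 ∧ e = ![1, 0, 1, 0, 0, 1, 0, 0, 0, 0, 0]) ∨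
    (k = 10 ∧ e = mv 0 7) ∨ (k = 10 ∧ e = ![2, 1, 0, 0, 0, 0, 0, 0, 0, 0, 0]) ∨
    (k = 10 ∧ e = mv 4 8) ∨ (k = 10 ∧ e = ![1, 0, 0, 0, 1, 1, 0, 0, 0, 0, 0]) := by decide

/-- legality in the chart without walls of `F_b` -/
theorem legal3 {Ma : Mons 11} (sub : ∀ k, Ma.mon k ⊆ monQ.mon k)
    (no3 : ∀ k, ∀ e ∈ Ma.mon k, e 3 = 0) {c : Fin 11 → ℝ} (h0 : ∀ s, 0 ≤ c s)
    (w625 : c 6 ≤ c 2 + c 5) (w701 : c 7 ≤ c 0 + c 1)
    (w745 : c 7 ≤ c 4 + c 5) (w805 : c 8 ≤ c 0 + c 5) (w906 : c 9 ≤ c 0 + c 6)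
    (w928 : c 9 ≤ c 2 + c 8) (w107 : c 10 ≤ c 0 + c 7) (w148 : c 10 ≤ c 4 + c 8) :
    Legal Ma c := by
  refine ⟨h0, fun k e he => ?_⟩
  rcases monQ_cases3 k e (sub k he) (no3 k e he) with ⟨rfl, rfl⟩ | ⟨rfl, rfl⟩ | ⟨rfl, rfl⟩ |
    ⟨rfl, rfl⟩ | ⟨rfl, rfl⟩ | ⟨rfl, rfl⟩ | ⟨rfl, rfl⟩ | ⟨rfl, rfl⟩ | ⟨rfl, rfl⟩ | ⟨rfl, rfl⟩ |
    ⟨rfl, rfl⟩
  · rw [sum_mv]; exact w625
  · rw [sum_mv]; exact w701
  · rw [sum_mv]; exact w745
  · rw [sum_mv]; exact w805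
  · rw [sum_mv]; exact w906
  · rw [sum_mv]; exact w928
  · simp [Fin.sum_univ_succ]; linarith
  · rw [sum_mv]; exact w107
  · simp [Fin.sum_univ_succ]; linarith
  · rw [sum_mv]; exact w148
  · simp [Fin.sum_univ_succ]; linarith

variable {ι : ℕ → Type*} [∀ n, DecidableEq (ι n)] {f : ∀ n, ι n → Fq4}
  {Ma : Mons 11} {T : ℝ}

section aew

variable {B Bo : Base} {I J : ∀ n, Finset (ι n)} {co : ∀ n, ι n → ι n → Fin 11 → ℝ}
  {C : ℝ} {lam : (Fin 11 → ℝ) → ℝ} {a b' : Fin 11 → ℝ} {A : ℝ × ℝ}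
  {φ : ℕ → (Fin 11 → ℝ) → ℝ} {r : ℕ → ℝ} {κ : Fin 11 → ℝ} {V Tw : Fin 11 → Prop}

/-- **loss of `X_a` and `N`**: if `F_a : j` is visible given `(X_a, N : x)`, and `X_a` is full and
decoupled, then `X_a, N` lose `2 x - j` given the base box -/
theorem leafN48 (h : AeW B Bo I J co monQ Ma C lam a b' A φ r 0 1 κ V Tw) (hC : 0 ≤ C)
    (hco : ∀ n, ∀ i ∈ I n, ∀ j ∈ I n, co n i j = coQ (f n i) (f n j))
    (hne : ∀ᶠ n in (U : Filter ℕ), (J n).Nonempty) (hV : ∀ k, V k → k = 2)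
    (n017 : mv 0 1 ∉ Ma.mon 7) (hm : mv 4 8 ∈ Ma.mon 10)
    (no3 : ∀ k, ∀ e ∈ Ma.mon k, e 3 = 0) {b : Fin 11 → ℝ} {x j : ℝ}
    (hb : ∀ s, 0 ≤ b s ∧ b s ≤ x) (b2 : b 2 = 0) (b9 : b 9 = 0) (b6 : b 6 ≤ b 5)
    (b7 : b 7 ≤ b 5) (hj : 0 ≤ j) (hjx : j ≤ x)
    (hX : lam (cz x (bx b 8 4 10 x x x)) ≤ lam (cz x (bx b 8 4 10 0 x x)) - x)
    (hXj : lam (cz x (bx b 8 4 10 (x - j) x x)) ≤ lam (cz x (bx b 8 4 10 0 x x)) - (x - j))
    (hF : lam (cz x (bx b 8 4 10 x j x)) < lam (cz x (bx b 8 4 10 x 0 x))) :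
    lam (cz x (bx b 8 4 10 x 0 x)) ≤ lam (cz x (bx b 8 4 10 0 0 0)) - (2 * x - j) := by
  have hx : 0 ≤ x := hj.trans hjx
  obtain ⟨W, E, hW⟩ := zw_of_aew h hC hco hne n017 hV hx
  have hS : W.S ⊆ {0, 2} := by rw [hW.eS]; decide
  have n2 : mv 2 3 ∉ Ma.mon 4 := fun hh => absurd (no3 4 _ hh) (by decide)
  have n3 : mv 3 9 ∉ Ma.mon 10 := fun hh => absurd (no3 10 _ hh) (by decide)
  have leg : ∀ c8 c4 c10 : ℝ, 0 ≤ c8 → c8 ≤ x → 0 ≤ c4 → c4 ≤ x → 0 ≤ c10 → c10 ≤ x →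
      c10 ≤ c4 + c8 → bx b 8 4 10 c8 c4 c10 ∈ W.legW := by
    intro c8 c4 c10 h1 h2 h3 h4 h5 h6 h7
    have e8 : bx b 8 4 10 c8 c4 c10 8 = c8 := bx_X
    have e4 : bx b 8 4 10 c8 c4 c10 4 = c4 := bx_F (by decide)
    have e10 : bx b 8 4 10 c8 c4 c10 10 = c10 := bx_N (by decide) (by decide)
    have eo : ∀ s : Fin 11, s ≠ 8 → s ≠ 4 → s ≠ 10 → bx b 8 4 10 c8 c4 c10 s = b s :=
      fun s g1 g2 g3 => bx_o g1 g2 g3
    refine hW.legZ (fun s => ?_) (by rw [eo 2 (by decide) (by decide) (by decide), b2])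
      (legal3 h.sub no3 (fun s => ?_) ?_ ?_ ?_ ?_ ?_ ?_ ?_ ?_)
    · by_cases g1 : s = 8
      · subst g1; rw [e8]; exact ⟨h1, h2⟩
      by_cases g2 : s = 4
      · subst g2; rw [e4]; exact ⟨h3, h4⟩
      by_cases g3 : s = 10
      · subst g3; rw [e10]; exact ⟨h5, h6⟩
      rw [eo s g1 g2 g3]; exact hb s
    · by_cases g0 : s = 0
      · subst g0; rw [cz0]; exact hx
      rw [czs _ _ g0]
      by_cases g1 : s = 8
      · subst g1; rw [e8]; exact h1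
      by_cases g2 : s = 4
      · subst g2; rw [e4]; exact h3
      by_cases g3 : s = 10
      · subst g3; rw [e10]; exact h5
      rw [eo s g1 g2 g3]; exact (hb s).1
    all_goals
      (simp only [cz0, czs x (bx b 8 4 10 c8 c4 c10) (s := 4) (by decide),
        czs x (bx b 8 4 10 c8 c4 c10) (s := 2) (by decide),
        czs x (bx b 8 4 10 c8 c4 c10) (s := 3) (by decide),
        czs x (bx b 8 4 10 c8 c4 c10) (s := 1) (by decide),
        czs x (bx b 8 4 10 c8 c4 c10) (s := 5) (by decide),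
        czs x (bx b 8 4 10 c8 c4 c10) (s := 6) (by decide),
        czs x (bx b 8 4 10 c8 c4 c10) (s := 7) (by decide),
        czs x (bx b 8 4 10 c8 c4 c10) (s := 8) (by decide),
        czs x (bx b 8 4 10 c8 c4 c10) (s := 9) (by decide),
        czs x (bx b 8 4 10 c8 c4 c10) (s := 10) (by decide), e8, e4, e10,
        eo 1 (by decide) (by decide) (by decide), eo 2 (by decide) (by decide) (by decide),
        eo 3 (by decide) (by decide) (by decide), eo 5 (by decide) (by decide) (by decide),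
        eo 6 (by decide) (by decide) (by decide), eo 7 (by decide) (by decide) (by decide),
        eo 9 (by decide) (by decide) (by decide)]
       linarith [(hb 1).1, (hb 1).2, (hb 5).1, (hb 5).2, (hb 6).1, (hb 6).2, (hb 7).1, (hb 7).2])
  have key := leaf48 hW.qa hS hW.hc hx (by
      intro s hs
      rw [hW.eS, Finset.mem_singleton] at hs
      rw [hW.etop, hs]
      simp [topZ]) hW.H.toRUnif hm (Or.inl n2) n3 b hj hjx le_rfl
    (leg 0 0 0 le_rfl hx le_rfl hx le_rfl hx (by linarith))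
    (leg 0 x x le_rfl hx hx le_rfl hx le_rfl (by linarith))
    (leg x x x hx le_rfl hx le_rfl hx le_rfl (by linarith))
    (leg x 0 x hx le_rfl le_rfl hx hx le_rfl (by linarith))
    (leg 0 j j le_rfl hx hj hjx hj hjx (by linarith))
    (leg x j x hx le_rfl hj hjx hx le_rfl (by linarith))
    (leg (x - j) x x (by linarith) (by linarith) hx le_rfl hx le_rfl (by linarith))
  simp only [hW.nuZ] at key
  rcases key with key | key <;> linarith

/-! ### level slots `z, E` -/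

/-- `z` and `E` resolved at `x` -/
def cze (x : ℝ) (p : Fin 11 → ℝ) : Fin 11 → ℝ := Function.update (Function.update p 0 x) 2 x

theorem cze0 (x : ℝ) (p : Fin 11 → ℝ) : cze x p 0 = x := by simp [cze]
theorem cze2 (x : ℝ) (p : Fin 11 → ℝ) : cze x p 2 = x := by simp [cze]
theorem czes (x : ℝ) (p : Fin 11 → ℝ) {s : Fin 11} (hs : s ≠ 0) (hs2 : s ≠ 2) :
    cze x p s = p s := by
  simp [cze, hs, hs2]

theorem cut_cze {x : ℝ} (p : Fin 11 → ℝ) : cut {0, 2} p (fun _ => x) = cze x p := by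
  funext s
  by_cases h0 : s = 0
  · subst h0; rw [cze0, cut_of_mem (by simp)]
  by_cases h2 : s = 2
  · subst h2; rw [cze2, cut_of_mem (by simp)]
  rw [czes _ _ h0 h2, cut_of_notMem (by simp [h0, h2])]

/-- **the window with the level slots `z, E`**, density as a hypothesis -/
theorem ze_of_aew (h : AeW B Bo I J co monQ Ma C lam a b' A φ r 0 1 κ V Tw) (hC : 0 ≤ C)
    (hco : ∀ n, ∀ i ∈ I n, ∀ j ∈ I n, co n i j = coQ (f n i) (f n j))
    (hne : ∀ᶠ n in (U : Filter ℕ), (J n).Nonempty) (n017 : mv 0 1 ∉ Ma.mon 7)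
    (hV : ∀ k, V k → k = 2) {x : ℝ} (hx : 0 ≤ x)
    (hden : lam (fun _ => x) ≤ lam (cut {0, 2} (fun _ => x) 0) + lam (cut {0, 2} 0 fun _ => x)) :
    ∃ (W : Wnd 11 ι) (E : ∀ n, Finset (ι n)), LW Ma f lam {0, 2} (fun _ => x) x W E := by
  have hK0 : 1 ≤ cK0 monQ C := cK0_one hC
  refine lw_of_aew h hC hco hne n017 (S := {0, 2}) (top := fun _ => x) (R' := x)
    (stQ_ok sok_e (by linarith) hx h.sub) (by decide)
    (fun k hk => Or.inl (by rw [hV k hk]; decide)) hden (fun y hy _ k e he => ?_)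
  have hk : k ≠ 0 := by
    rintro rfl
    have := h.sub 0 he
    simp [monQ, mfQ] at this
  rw [Pi.single_eq_of_ne hk]
  refine sum_nonneg fun s _ => mul_nonneg (Nat.cast_nonneg _) ?_
  by_cases hs : s = 0
  · subst hs; simpa using hy
  · rw [Pi.single_eq_of_ne hs]

/-- **loss of `X_a` and `N`**, `z, E` resolved, `X_b` may be in the base -/
theorem leafN48E (h : AeW B Bo I J co monQ Ma C lam a b' A φ r 0 1 κ V Tw) (hC : 0 ≤ C)
    (hco : ∀ n, ∀ i ∈ I n, ∀ j ∈ I n, co n i j = coQ (f n i) (f n j))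
    (hne : ∀ᶠ n in (U : Filter ℕ), (J n).Nonempty) (hV : ∀ k, V k → k = 2)
    (n017 : mv 0 1 ∉ Ma.mon 7) (hm : mv 4 8 ∈ Ma.mon 10)
    (no3 : ∀ k, ∀ e ∈ Ma.mon k, e 3 = 0) {b : Fin 11 → ℝ} {x j : ℝ}
    (hden : lam (fun _ => x) ≤ lam (cut {0, 2} (fun _ => x) 0) + lam (cut {0, 2} 0 fun _ => x))
    (hb : ∀ s, 0 ≤ b s ∧ b s ≤ x) (b7 : b 7 ≤ b 5) (hj : 0 ≤ j) (hjx : j ≤ x)
    (hX : lam (cze x (bx b 8 4 10 x x x)) ≤ lam (cze x (bx b 8 4 10 0 x x)) - x)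
    (hXj : lam (cze x (bx b 8 4 10 (x - j) x x)) ≤ lam (cze x (bx b 8 4 10 0 x x)) - (x - j))
    (hF : lam (cze x (bx b 8 4 10 x j x)) < lam (cze x (bx b 8 4 10 x 0 x))) :
    lam (cze x (bx b 8 4 10 x 0 x)) ≤ lam (cze x (bx b 8 4 10 0 0 0)) - (2 * x - j) := by
  have hx : 0 ≤ x := hj.trans hjx
  obtain ⟨W, E, hW⟩ := ze_of_aew h hC hco hne n017 hV hx hden
  have hS : W.S ⊆ {0, 2} := by rw [hW.eS]
  have n3 : mv 3 9 ∉ Ma.mon 10 := fun hh => absurd (no3 10 _ hh) (by decide)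
  have nu : ∀ p, W.nu p = lam (cze x p) - lam fun _ => x := fun p => by
    unfold Wnd.nu
    rw [hW.eS, hW.etop, hW.lamE, cut_cze]
  have leg : ∀ c8 c4 c10 : ℝ, 0 ≤ c8 → c8 ≤ x → 0 ≤ c4 → c4 ≤ x → 0 ≤ c10 → c10 ≤ x →
      c10 ≤ c4 + c8 → bx b 8 4 10 c8 c4 c10 ∈ W.legW := by
    intro c8 c4 c10 h1 h2 h3 h4 h5 h6 h7
    have e8 : bx b 8 4 10 c8 c4 c10 8 = c8 := bx_X
    have e4 : bx b 8 4 10 c8 c4 c10 4 = c4 := bx_F (by decide)
    have e10 : bx b 8 4 10 c8 c4 c10 10 = c10 := bx_N (by decide) (by decide)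
    have eo : ∀ s : Fin 11, s ≠ 8 → s ≠ 4 → s ≠ 10 → bx b 8 4 10 c8 c4 c10 s = b s :=
      fun s g1 g2 g3 => bx_o g1 g2 g3
    have hp : ∀ s, 0 ≤ bx b 8 4 10 c8 c4 c10 s ∧ bx b 8 4 10 c8 c4 c10 s ≤ x := by
      intro s
      by_cases g1 : s = 8
      · subst g1; rw [e8]; exact ⟨h1, h2⟩
      by_cases g2 : s = 4
      · subst g2; rw [e4]; exact ⟨h3, h4⟩
      by_cases g3 : s = 10
      · subst g3; rw [e10]; exact ⟨h5, h6⟩
      rw [eo s g1 g2 g3]; exact hb s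
    have hq : ∀ s, 0 ≤ cze x (bx b 8 4 10 c8 c4 c10) s ∧
        cze x (bx b 8 4 10 c8 c4 c10) s ≤ x := by
      intro s
      by_cases g0 : s = 0
      · subst g0; rw [cze0]; exact ⟨hx, le_rfl⟩
      by_cases g2 : s = 2
      · subst g2; rw [cze2]; exact ⟨hx, le_rfl⟩
      rw [czes _ _ g0 g2]; exact hp s
    refine ⟨?_, fun s _ => by rw [hW.etop]; exact (hp s).2⟩
    rw [hW.eS, hW.etop, hW.eMw, hW.eR, cut_cze]
    refine ⟨legal3 h.sub no3 (fun s => (hq s).1) ?_ ?_ ?_ ?_ ?_ ?_ ?_ ?_, fun s => (hq s).2⟩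
    all_goals
      (simp only [cze0, cze2,
        czes x (bx b 8 4 10 c8 c4 c10) (s := 4) (by decide) (by decide),
        czes x (bx b 8 4 10 c8 c4 c10) (s := 3) (by decide) (by decide),
        czes x (bx b 8 4 10 c8 c4 c10) (s := 1) (by decide) (by decide),
        czes x (bx b 8 4 10 c8 c4 c10) (s := 5) (by decide) (by decide),
        czes x (bx b 8 4 10 c8 c4 c10) (s := 6) (by decide) (by decide),
        czes x (bx b 8 4 10 c8 c4 c10) (s := 7) (by decide) (by decide),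
        czes x (bx b 8 4 10 c8 c4 c10) (s := 8) (by decide) (by decide),
        czes x (bx b 8 4 10 c8 c4 c10) (s := 9) (by decide) (by decide),
        czes x (bx b 8 4 10 c8 c4 c10) (s := 10) (by decide) (by decide), e8, e4, e10,
        eo 1 (by decide) (by decide) (by decide),
        eo 3 (by decide) (by decide) (by decide), eo 5 (by decide) (by decide) (by decide),
        eo 6 (by decide) (by decide) (by decide), eo 7 (by decide) (by decide) (by decide),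
        eo 9 (by decide) (by decide) (by decide)]
       linarith [(hb 1).1, (hb 1).2, (hb 5).1, (hb 5).2, (hb 6).1, (hb 6).2, (hb 7).1, (hb 7).2,
        (hb 9).1, (hb 9).2])
  have key := leaf48 hW.qa hS hW.hc hx (by
      intro s hs
      rw [hW.etop]) hW.H.toRUnif hm (Or.inr (by rw [hW.eS]; decide)) n3 b hj hjx le_rfl
    (leg 0 0 0 le_rfl hx le_rfl hx le_rfl hx (by linarith))
    (leg 0 x x le_rfl hx hx le_rfl hx le_rfl (by linarith))
    (leg x x x hx le_rfl hx le_rfl hx le_rfl (by linarith))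
    (leg x 0 x hx le_rfl le_rfl hx hx le_rfl (by linarith))
    (leg 0 j j le_rfl hx hj hjx hj hjx (by linarith))
    (leg x j x hx le_rfl hj hjx hx le_rfl (by linarith))
    (leg (x - j) x x (by linarith) (by linarith) hx le_rfl hx le_rfl (by linarith))
  simp only [nu] at key
  rcases key with key | key <;> linarith

end aew

end Crest.Agent.R136.LadA115
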