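import Crest.Agent.R136.LadT_830
import Crest.Agent.R136.CtxW_697
import Crest.Agent.R136.ExtZ_779
import Crest.Agent.R136.AwZ_146
import Crest.Agent.R136.GauV_619

/-!
# R136, thin branch (helper697): RESONANCES, objects, seams, assembly

* `ZW` : an extended window profile (`ExtZ`) of a W-chart in the frame `(w0, w0, 9 w0)`; `Thin` is a
  `ZW`, the gauge step maps `ZW` to `ZW`.
* `Ob θ g q V T Zs` : a `ZW` with visible slots `V`, tied slots `T`, zero slots `Zs` exists.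
* `RowsC` : the non-resonant rows, `PinZ` : rows with zero slots.
* `SeamWall`, `SeamOwnC`, `SeamQuad`, `SeamLin` : the gauge steps.
* `ob_false` : rows + seams are contradictory with every object; `thinTable_res`.
-/

set_option autoImplicit false
set_option linter.unusedVariables false

open Finset Filter Topology

namespace Crest.Agent.R136.LadG697

open Crest.Agent.R136.Net191
open Crest.Agent.R136.NetW191
open Crest.Agent.R136.PrW464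
open Crest.Agent.R136.NatW697
open Crest.Agent.R136.LadW697
open Crest.Agent.R136.Top484
open Crest.Agent.R136.NatT550
open Crest.Agent.R136.ThS830
open Crest.Agent.R136.LadT830
open Crest.Agent.R136.Zpr779
open Crest.Agent.R136.EvW938
open Crest.Agent.R138.Ex926

/-- the W-chart in the units `u` -/
def coU (u : ℕ → Fin 18 → ℝ) (κ : ℕ → ℝ) (F : ℕ → ℕ × ℝ → FW) (n : ℕ) (i j : ℕ × ℝ)
    (k : Fin 18) : ℝ := u n k * coW (κ n) (F n i) (F n j) k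

/-- **D-max for all gauges** (778): the boxes of every gauged chart `gau (e i)`, one correction per
incidence without components in `R, P, N`, uniformly in the gauge -/
def GdG (B B' : Base) (I : ℕ → Finset (ℕ × ℝ)) (κ : ℕ → ℝ) (u : ℕ → Fin 18 → ℝ)
    (F : ℕ → ℕ × ℝ → FW) (X : ℕ → Fin 18 → ℝ) (Tn : ℕ → ℝ) (PD : Set (Fin 18 → ℝ))
    (D : (Fin 18 → ℝ) → ℝ) (c₀ : ℝ) : Prop :=
  ∃ C : ℝ, 0 < C ∧ ∀ x ∈ PD, ∀ K : ℝ, 1 ≤ K → ∀ ε : ℝ, 0 < ε → ∀ᶠ n in (U : Filter ℕ),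
    ∀ e : ℕ × ℝ → Fin 14 → ℝ,
      (∀ j ∈ I n, (e j 9 = 0 ∧ e j 12 = 0 ∧ e j 13 = 0) ∧
        ∀ k, u n (Fin.natAdd 4 k) * |e j k| ≤ B.d n ^ (-C)) →
      ∀ i ∈ I n, ∀ G ⊆ I n, (∀ j ∈ G, ∀ k, |u n k * coW (κ n) (GauW619.gau (κ n) (e i) (F n i))
          (GauW619.gau (κ n) (e j) (F n j)) k| ≤ K * (B.d n ^ X n k * B'.d n ^ x k)) →
        (G.card : ℝ) ≤ Tn n * B'.d n ^ (-(c₀ + D x + ε))

/-- **the object of the resonance step** : a window profile of a W-chart -/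
structure ZW (θ : Fin 3 → ℝ) (g : ℝ) (q : Fin 3 → ℝ) (V T : Set (Fin 18)) (w0 R T0 : ℝ)
    (B B' : Base) (I0 I : ℕ → Finset (ℕ × ℝ)) (κ : ℕ → ℝ) (u : ℕ → Fin 18 → ℝ)
    (F : ℕ → ℕ × ℝ → FW) (X : ℕ → Fin 18 → ℝ) (w : ℕ → ℝ) (Tn To : ℕ → ℝ)
    (PD : Set (Fin 18 → ℝ)) (ν own : (Fin 18 → ℝ) → ℝ) (c₀ : ℝ) : Prop where
  th1 : 0 < θ 1
  q1 : 0 < q 1
  q2 : 0 < q 2
  q0 : 0 ≤ q 0
  qg : 4 * q 0 < g
  qθ : 8 * (q 0 * (max (-(θ 0)) 0 + |θ 1| + |θ 2|)) ≤ g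
  vis : ∀ k ∈ V, (4 ≤ k ∧ k ≠ 13 ∧ k ≠ 16 ∧ k ≠ 17) ∧ 0 < btW θ k
  tied : ∀ k ∈ T, k ∈ V
  u0 : ∀ n, GrU (u n)
  κ1 : ∀ n, |κ n| ≤ 1
  κ0 : B'.Sub fun n => |κ n|⁻¹
  big : BigW θ w0 R T0
  /-- the base is natural -/
  bas : AwZ146.BasX monW monW monW X w
  pdn : Pdn θ w0 R PD
  ext : ExtZ B B' I0 I (coU u κ F) monW 67 X w monW R Tn To 0 w0 0 PD (DW g 0 q w0)
    (pathW θ w0) (ownW θ w0 R fun k => k ∈ V) (fun v => DW g 0 q w0 (pathW θ w0 v))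
    (fun k => k ∈ T) ν own c₀
  gd : GdG B B' I κ u F X Tn PD (DW g 0 q w0) c₀
  /-- number of incidences -/
  card : ∃ Hc : ℕ → ℝ, B'.Sub Hc ∧ ∀ᶠ n in (U : Filter ℕ),
    (Nat.log 2 (I n).card : ℝ) + 1 ≤ Hc n

/-- the profiles do not see the slots `Zs` -/
def ZeroS (P : Set (Fin 18 → ℝ)) (ν own : (Fin 18 → ℝ) → ℝ) (Zs : Set (Fin 18)) : Prop :=
  ∀ a ∈ P, ∀ b ∈ P, (∀ k, k ∉ Zs → a k = b k) → ν a = ν b ∧ own a = own b

theorem ZeroS.mono {P : Set (Fin 18 → ℝ)} {ν own : (Fin 18 → ℝ) → ℝ} {Zs Zs' : Set (Fin 18)}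
    (h : ZeroS P ν own Zs) (hs : Zs' ⊆ Zs) : ZeroS P ν own Zs' :=
  fun a ha b hb hab => h a ha b hb fun k hk => hab k fun hk' => hk (hs hk')

/-- **an object with visible slots `V`, tied slots `T`, zero slots `Zs` exists** -/
def Ob (θ : Fin 3 → ℝ) (g : ℝ) (q : Fin 3 → ℝ) (V T Zs : Set (Fin 18)) : Prop :=
  ∃ (w0 R T0 : ℝ) (B B' : Base) (I0 I : ℕ → Finset (ℕ × ℝ)) (κ : ℕ → ℝ) (u : ℕ → Fin 18 → ℝ)
    (F : ℕ → ℕ × ℝ → FW) (X : ℕ → Fin 18 → ℝ) (w Tn To : ℕ → ℝ) (PD : Set (Fin 18 → ℝ))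
    (ν own : (Fin 18 → ℝ) → ℝ) (c₀ : ℝ),
    ZW θ g q V T w0 R T0 B B' I0 I κ u F X w Tn To PD ν own c₀ ∧ ZeroS (Leg monW R) ν own Zs

section

variable {θ : Fin 3 → ℝ} {g : ℝ} {q : Fin 3 → ℝ} {V T : Set (Fin 18)} {w0 R T0 : ℝ}
  {B B' : Base} {I0 I : ℕ → Finset (ℕ × ℝ)} {κ : ℕ → ℝ} {u : ℕ → Fin 18 → ℝ}
  {F : ℕ → ℕ × ℝ → FW} {X : ℕ → Fin 18 → ℝ} {w : ℕ → ℝ} {Tn To : ℕ → ℝ}
  {PD : Set (Fin 18 → ℝ)} {ν own : (Fin 18 → ℝ) → ℝ} {c₀ : ℝ}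

theorem ZW.fact (H : ZW θ g q V T w0 R T0 B B' I0 I κ u F X w Tn To PD ν own c₀) :
    FactW θ g q w0 R T0 V ν own c₀ :=
  FactW.ofZ H.big H.pdn (fun v => rfl) H.ext

/-- the first stage -/
theorem ZW.init (H : ZW θ g q V T w0 R T0 B B' I0 I κ u F X w Tn To PD ν own c₀) {v1 : ℝ}
    (h0 : 0 < v1) (h1 : v1 < 1) :
    ∃ lam lo, StW (Leg monW R) ν own 18 (pathW θ w0 v1) θ g q V 4 lam lo :=
  H.fact.init h0 h1

end

/-- **context of a `ZW`** (830, 146) -/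
def SeamCtx : Prop :=
  ∀ (θ : Fin 3 → ℝ) (g : ℝ) (q : Fin 3 → ℝ) (V T : Set (Fin 18)) (w0 R T0 : ℝ)
    (B B' : Base) (I0 I : ℕ → Finset (ℕ × ℝ)) (κ : ℕ → ℝ) (u : ℕ → Fin 18 → ℝ)
    (F : ℕ → ℕ × ℝ → FW) (X : ℕ → Fin 18 → ℝ) (w Tn To : ℕ → ℝ) (PD : Set (Fin 18 → ℝ))
    (ν own : (Fin 18 → ℝ) → ℝ) (c₀ : ℝ),
    ZW θ g q V T w0 R T0 B B' I0 I κ u F X w Tn To PD ν own c₀ →
    SlotOkW θ (fun k => k ∈ V) (fun k => k ∈ T) → ∀ v1 : ℝ, 0 < v1 → v1 < 1 →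
      CtxW (Leg monW R) ν own 18 (pathW θ w0 v1) θ g q V T

/-- **`Thin` is an object** -/
def SeamThinOb (η : ℝ) : Prop :=
  ∀ (p : Par4) (D : Dat4) (I1 : ℕ → Finset (ℕ × ℝ)) (π : Equiv.Perm (Fin 3))
    (kp uz uc un : ℕ → ℝ) (F : ℕ → ℕ × ℝ → FW) (V T : Fin 18 → Prop) (w0 R T0 : ℝ)
    (PD : Set (Fin 18 → ℝ)) (ν own : (Fin 18 → ℝ) → ℝ) (c₀ : ℝ),
    Thin η p D I1 π kp uz uc un F V T w0 R T0 PD ν own c₀ →
    Ob (thW p π) p.g (qW p π) {k | V k} {k | T k} ∅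

/-- a pin row with zero slots -/
def PinZ (j : ℕ) (Zs : Set (Fin 18)) (pat : (Fin 3 → ℝ) → Set (Fin 18) → Prop) : Prop :=
  ∀ (P : Set (Fin 18 → ℝ)) (ν own : (Fin 18 → ℝ) → ℝ) (K : ℝ) (r0 : Fin 18 → ℝ) (θ : Fin 3 → ℝ)
    (g : ℝ) (q : Fin 3 → ℝ) (V T : Set (Fin 18)), CtxW P ν own K r0 θ g q V T →
    ZeroS P ν own Zs → pat θ V → PinW P ν own K r0 θ g q V j

/-- **the non-resonant rows** -/
structure RowsC : Prop where
  /-- 851 -/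
  pin4 : PinC 4 fun θ V => ∀ k ∈ V, KW θ k < 4
  pin3 : PinC 3 fun θ V => ∀ k ∈ V, KW θ k < 3
  pin2 : PinC 2 fun θ V => (∀ k ∈ V, KW θ k < 2) ∧ ¬ Res2 θ
  /-- 830 -/
  pin1 : PinC 1 fun θ V => (∀ k, k ∉ V) ∧ ¬ Res1 θ
  dead0 : DeadC fun g θ V s => (∀ k, k ∉ V) ∧ 0 < s ∧ s ≤ g / 2 ∧ s < 1
  /-- 619 -/
  deadlow : DeadC fun g θ V s => Top θ (fun k => k ∈ V) s ∧ 1 < s ∧ s < 2
  /-- 938 -/
  deadhi1 : DeadC fun g θ V s => Top θ (fun k => k ∈ V) s ∧ 2 < s ∧ KW θ 15 = s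
  /-- 848 -/
  deadhi2 : DeadC fun g θ V s => Top θ (fun k => k ∈ V) s ∧ 2 < s ∧ KW θ 15 ≠ s ∧ ¬ Reso θ s
  /-- all slots of weight `2` resp. `1` are zero slots (830's `pinZ_of_zero`) -/
  pin2z : PinZ 2 (↑(JW 2)) fun θ V => True
  pin1z : PinZ 1 (↑(JW 1)) fun θ V => True

/-- closed under the caps -/
def CapCl (V : Set (Fin 18)) : Prop := ∀ k, (∃ l ∈ mlW k, ∀ t ∈ l, t = 0 ∨ t ∈ V) → k ∈ V

/-- **(W)** gauge of a resonant wall: the slots of the wall are invisible, the twist is lost -/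
def SeamWall : Prop :=
  ∀ (θ : Fin 3 → ℝ) (g : ℝ) (q : Fin 3 → ℝ) (V T : Set (Fin 18)) (s : ℝ),
    CapCl V → Ob θ g q V T ∅ → SlotOkW θ (fun k => k ∈ V) (fun k => k ∈ T) →
    Top θ (fun k => k ∈ V) s → 2 ≤ s → Reso θ s →
    Ob θ g q {k | k ∈ V ∧ KW θ k ≠ s} ∅ ∅

/-- **(O)** own dichotomy (831) -/
def SeamOwnC : Prop :=
  ∀ (θ : Fin 3 → ℝ) (g : ℝ) (q : Fin 3 → ℝ) (V Zs : Set (Fin 18)), CapCl V → Ob θ g q V ∅ Zs →
    ∃ V' : Set (Fin 18), V' ⊆ V ∧ CapCl V' ∧ SlotOkW θ (fun k => k ∈ V') (fun k => k ∈ V') ∧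
      Ob θ g q V' V' Zs

/-- closure under the caps (831) -/
def SeamClose : Prop :=
  ∀ (θ : Fin 3 → ℝ) (g : ℝ) (q : Fin 3 → ℝ) (V T Zs : Set (Fin 18)), Ob θ g q V T Zs →
    SlotOkW θ (fun k => k ∈ V) (fun k => k ∈ T) →
    ∃ V' : Set (Fin 18), V ⊆ V' ∧ CapCl V' ∧ SlotOkW θ (fun k => k ∈ V') (fun k => k ∈ T) ∧
      Ob θ g q V' T Zs

/-- the caps preserve the wall slope (831) -/
def SeamCap : Prop :=
  ∀ (θ : Fin 3 → ℝ) (V : Set (Fin 18)) (s : ℝ), CapCl V →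
    (∀ k ∈ V, (4 ≤ k ∧ k ≠ 13 ∧ k ≠ 16 ∧ k ≠ 17) ∧ 0 < btW θ k) →
    CapCl {k | k ∈ V ∧ KW θ k ≠ s}

/-- **(Q)** gauge of the resonances of the rung `2` without a wall: all slots of weight `2` are zero -/
def SeamQuad : Prop :=
  ∀ (θ : Fin 3 → ℝ) (g : ℝ) (q : Fin 3 → ℝ) (V T : Set (Fin 18)),
    CapCl V → Ob θ g q V T ∅ → SlotOkW θ (fun k => k ∈ V) (fun k => k ∈ T) →
    (∀ k ∈ V, KW θ k < 2) → Res2 θ → Ob θ g q V ∅ ↑(JW 2)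

/-- **(L)** linear gauge of the rung `1`, nothing visible -/
def SeamLin : Prop :=
  ∀ (θ : Fin 3 → ℝ) (g : ℝ) (q : Fin 3 → ℝ) (Zs : Set (Fin 18)), Ob θ g q ∅ ∅ Zs →
    Zs = ∅ ∧ ¬ Res2 θ ∨ Zs = ↑(JW 2) → Res1 θ → Ob θ g q ∅ ∅ (Zs ∪ ↑(JW 1))

/-- nothing visible -/
theorem slotOk_empty (θ : Fin 3 → ℝ) :
    SlotOkW θ (fun k => k ∈ (∅ : Set (Fin 18))) (fun k => k ∈ (∅ : Set (Fin 18))) :=
  ⟨fun k h => h, fun k h => absurd h (by simp), fun k h => absurd h (by simp)⟩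

theorem vis_al' {θ : Fin 3 → ℝ} {V T : Set (Fin 18)}
    (h : SlotOkW θ (fun k => k ∈ V) (fun k => k ∈ T)) {k : Fin 18} (hk : k ∈ V) :
    4 ≤ k ∧ (1 : ℝ) ≤ alW k ∧ (alW k : ℝ) < KW θ k := vis_al h hk

theorem nV {V : Set (Fin 18)} (h : V = ∅) : ∀ k, k ∉ V := fun k hk => by rw [h] at hk; simp at hk

/-- **one ladder of a `ZW`** : all pins + the last rung -/
theorem ladder (hC : SeamCtx) {θ : Fin 3 → ℝ} {g : ℝ} {q : Fin 3 → ℝ} {V T Zs : Set (Fin 18)}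
    (hS : SlotOkW θ (fun k => k ∈ V) (fun k => k ∈ T)) (h : Ob θ g q V T Zs) {s : ℝ}
    (s0 : 0 < s) (hs : ∀ k ∈ V, KW θ k ≤ s)
    (hp : ∀ (P : Set (Fin 18 → ℝ)) (ν own : (Fin 18 → ℝ) → ℝ) (r0 : Fin 18 → ℝ),
      CtxW P ν own 18 r0 θ g q V T → ZeroS P ν own Zs →
      (∀ j : ℕ, 1 ≤ j → j ≤ 4 → s < j → PinW P ν own 18 r0 θ g q V j) ∧
      DeadW P ν own 18 r0 θ g q V s) : False := by
  obtain ⟨w0, R, T0, B, B', I0, I, κ, u, F, X, w, Tn, To, PD, ν, own, c₀, H, hz⟩ := h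
  have hst := H.init (v1 := 1 / 2) (by norm_num) (by norm_num)
  have C := hC _ _ _ _ _ _ _ _ _ _ _ _ _ _ _ _ _ _ _ _ _ _ _ H hS (1 / 2)
    (by norm_num) (by norm_num)
  obtain ⟨h1, h2⟩ := hp _ _ _ _ C hz
  refine ladW (s := s) s0 (V := V) (fun k hk => ?_) hst h1 h2
  obtain ⟨h4, -, h5⟩ := vis_al' hS hk
  exact ⟨h4, h5.trans_le (hs k hk)⟩

theorem j4 {j : ℕ} (h1 : 1 ≤ j) (h4 : j ≤ 4) : j = 4 ∨ j = 3 ∨ j = 2 ∨ j = 1 := by omega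

/-- nothing visible, the rungs `2` and `1` are settled -/
theorem flat_false (hR : RowsC) (hC : SeamCtx) {θ : Fin 3 → ℝ} {g : ℝ} {q : Fin 3 → ℝ}
    {V T Zs : Set (Fin 18)} (hS : SlotOkW θ (fun k => k ∈ V) (fun k => k ∈ T))
    (h : Ob θ g q V T Zs) (hV : V = ∅) (h2 : ↑(JW 2) ⊆ Zs ∨ ¬ Res2 θ)
    (h1 : ↑(JW 1) ⊆ Zs ∨ ¬ Res1 θ) : False := by
  have hg : 0 < g := by
    obtain ⟨w0, R, T0, B, B', I0, I, κ, u, F, X, w, Tn, To, PD, ν, own, c₀, H, hz⟩ := h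
    have := H.qg; have := H.q0; linarith
  have hn := nV hV
  set s : ℝ := min (g / 2) (1 / 2) with hs
  have s0 : 0 < s := lt_min (by linarith) (by norm_num)
  have s1 : s ≤ 1 / 2 := min_le_right _ _
  refine ladder hC hS h s0 (fun k hk => absurd hk (hn k)) fun P ν own r0 C hz => ⟨?_, ?_⟩
  · intro j hj1 hj4 hsj
    rcases j4 hj1 hj4 with rfl | rfl | rfl | rfl
    · exact hR.pin4 _ _ _ _ _ _ _ _ _ _ C (fun k hk => absurd hk (hn k))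
    · exact hR.pin3 _ _ _ _ _ _ _ _ _ _ C (fun k hk => absurd hk (hn k))
    · rcases h2 with h2 | h2
      · exact hR.pin2z _ _ _ _ _ _ _ _ _ _ C (hz.mono h2) trivial
      · exact hR.pin2 _ _ _ _ _ _ _ _ _ _ C ⟨fun k hk => absurd hk (hn k), h2⟩
    · rcases h1 with h1 | h1
      · exact hR.pin1z _ _ _ _ _ _ _ _ _ _ C (hz.mono h1) trivial
      · exact hR.pin1 _ _ _ _ _ _ _ _ _ _ C ⟨hn, h1⟩
  · exact hR.dead0 _ _ _ _ _ _ _ _ _ _ s C ⟨hn, s0, min_le_left _ _, by linarith⟩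

/-- the rung `2` is settled, nothing visible -/
theorem empty_false (hR : RowsC) (hC : SeamCtx) (hL : SeamLin) {θ : Fin 3 → ℝ} {g : ℝ}
    {q : Fin 3 → ℝ} {V T Zs : Set (Fin 18)} (hS : SlotOkW θ (fun k => k ∈ V) (fun k => k ∈ T))
    (h : Ob θ g q V T Zs) (hV : V = ∅) (hZ : Zs = ∅ ∧ ¬ Res2 θ ∨ Zs = ↑(JW 2)) : False := by
  have h2 : ↑(JW 2) ⊆ Zs ∨ ¬ Res2 θ := by
    rcases hZ with ⟨h1, h2⟩ | h1
    · exact Or.inr h2
    · exact Or.inl (by rw [h1])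
  by_cases h1 : Res1 θ
  · have hT : T = ∅ := by
      ext k; simp only [Set.mem_empty_iff_false, iff_false]
      intro hk; exact nV hV k (hS.tied k hk)
    subst hV hT
    refine flat_false hR hC (slotOk_empty θ) (hL θ g q Zs h hZ h1) rfl ?_
      (Or.inl Set.subset_union_right)
    rcases h2 with h2 | h2
    · exact Or.inl (h2.trans Set.subset_union_left)
    · exact Or.inr h2
  · exact flat_false hR hC hS h hV h2 (Or.inr h1)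

/-- all walls below `2`, the rung `2` is settled -/
theorem low_false (hR : RowsC) (hC : SeamCtx) (hL : SeamLin) {θ : Fin 3 → ℝ} {g : ℝ}
    {q : Fin 3 → ℝ} {V T Zs : Set (Fin 18)} (hS : SlotOkW θ (fun k => k ∈ V) (fun k => k ∈ T))
    (h : Ob θ g q V T Zs) (hV2 : ∀ k ∈ V, KW θ k < 2)
    (hZ : Zs = ∅ ∧ ¬ Res2 θ ∨ Zs = ↑(JW 2)) : False := by
  by_cases hV : ∃ k, k ∈ V
  swap
  · refine empty_false hR hC hL hS h ?_ hZ
    ext k; simp only [Set.mem_empty_iff_false, iff_false]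
    intro hk; exact hV ⟨k, hk⟩
  obtain ⟨s, hs⟩ := exists_top (θ := θ) (V := fun k => k ∈ V) hV
  have hs1 : 1 < s := by
    obtain ⟨k, hk, hK⟩ := hs.1
    obtain ⟨-, h1, h2⟩ := vis_al' hS hk
    linarith
  have hs2 : s < 2 := by
    obtain ⟨k, hk, hK⟩ := hs.1
    rw [← hK]; exact hV2 k hk
  have hlt : ∀ {t : ℝ}, s < t → ∀ k ∈ V, KW θ k < t :=
    fun ht k hk => (hs.2 k hk).trans_lt ht
  refine ladder hC hS h (by linarith) hs.2 fun P ν own r0 C hz => ⟨?_, ?_⟩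
  · intro j hj1 hj4 hsj
    rcases j4 hj1 hj4 with rfl | rfl | rfl | rfl
    · exact hR.pin4 _ _ _ _ _ _ _ _ _ _ C (hlt (by exact_mod_cast hsj))
    · exact hR.pin3 _ _ _ _ _ _ _ _ _ _ C (hlt (by exact_mod_cast hsj))
    · rcases hZ with ⟨-, h2⟩ | h2
      · exact hR.pin2 _ _ _ _ _ _ _ _ _ _ C ⟨hV2, h2⟩
      · exact hR.pin2z _ _ _ _ _ _ _ _ _ _ C (hz.mono (by rw [h2])) trivial
    · rw [Nat.cast_one] at hsj; linarith
  · exact hR.deadlow _ _ _ _ _ _ _ _ _ _ s C ⟨hs, hs1, hs2⟩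

/-- all walls below `2` -/
theorem low_false' (hR : RowsC) (hC : SeamCtx) (hO : SeamOwnC) (hQ : SeamQuad) (hL : SeamLin)
    {θ : Fin 3 → ℝ} {g : ℝ} {q : Fin 3 → ℝ} {V T : Set (Fin 18)} (hc : CapCl V)
    (hS : SlotOkW θ (fun k => k ∈ V) (fun k => k ∈ T)) (h : Ob θ g q V T ∅)
    (hV2 : ∀ k ∈ V, KW θ k < 2) : False := by
  by_cases h2 : Res2 θ
  · obtain ⟨V', h1, h3, h4, h5⟩ := hO θ g q V _ hc (hQ θ g q V T hc h hS hV2 h2)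
    exact low_false hR hC hL h4 h5 (fun k hk => hV2 k (h1 hk)) (Or.inr rfl)
  · exact low_false hR hC hL hS h hV2 (Or.inl ⟨rfl, h2⟩)

/-- **no object exists** -/
theorem ob_false (hR : RowsC) (hC : SeamCtx) (hW : SeamWall) (hO : SeamOwnC) (hK : SeamCap)
    (hQ : SeamQuad) (hL : SeamLin) : ∀ (N : ℕ) (θ : Fin 3 → ℝ) (g : ℝ) (q : Fin 3 → ℝ)
      (V T : Set (Fin 18)), V.ncard ≤ N → CapCl V →
      SlotOkW θ (fun k => k ∈ V) (fun k => k ∈ T) → Ob θ g q V T ∅ → False := by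
  intro N
  induction N with
  | zero =>
    intro θ g q V T hN hc hS h
    have hV : V = ∅ := by
      have := Nat.le_zero.1 hN
      rwa [Set.ncard_eq_zero (Set.toFinite V)] at this
    exact low_false' hR hC hO hQ hL hc hS h (fun k hk => absurd hk (nV hV k))
  | succ N ih =>
    intro θ g q V T hN hc hS h
    by_cases hV : ∃ k, k ∈ V
    swap
    · exact low_false' hR hC hO hQ hL hc hS h (fun k hk => absurd ⟨k, hk⟩ hV)
    obtain ⟨s, hs⟩ := exists_top (θ := θ) (V := fun k => k ∈ V) hV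
    have hs1 : 1 < s := by
      obtain ⟨k, hk, hK⟩ := hs.1
      obtain ⟨-, h1, h2⟩ := vis_al' hS hk
      linarith
    have hlt : ∀ {t : ℝ}, s < t → ∀ k ∈ V, KW θ k < t :=
      fun ht k hk => (hs.2 k hk).trans_lt ht
    by_cases hs2 : s < 2
    · exact low_false' hR hC hO hQ hL hc hS h (hlt hs2)
    rw [not_lt] at hs2
    by_cases hres : Reso θ s
    · have hv := hS.vis
      obtain ⟨V', h1, h2, h3, h4⟩ := hO θ g q _ _ (hK θ V s hc hv)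
        (hW θ g q V T s hc h hS hs hs2 hres)
      refine ih θ g q V' V' ?_ h2 h3 h4
      have h5 : V' ⊂ V := by
        obtain ⟨k, hk, hK'⟩ := hs.1
        refine ⟨fun l hl => (h1 hl).1, fun hc' => ?_⟩
        exact (h1 (hc' hk)).2 hK'
      have := Set.ncard_lt_ncard h5 (Set.toFinite V)
      omega
    refine ladder hC hS h (by linarith) hs.2 fun P ν own r0 C hz => ⟨?_, ?_⟩
    · intro j hj1 hj4 hsj
      rcases j4 hj1 hj4 with rfl | rfl | rfl | rfl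
      · exact hR.pin4 _ _ _ _ _ _ _ _ _ _ C (hlt (by exact_mod_cast hsj))
      · exact hR.pin3 _ _ _ _ _ _ _ _ _ _ C (hlt (by exact_mod_cast hsj))
      · have h2 : s < 2 := by exact_mod_cast hsj
        linarith
      · rw [Nat.cast_one] at hsj; linarith
    · rcases hs2.lt_or_eq with h2 | h2
      · by_cases h15 : KW θ 15 = s
        · exact hR.deadhi1 _ _ _ _ _ _ _ _ _ _ s C ⟨hs, h2, h15⟩
        · exact hR.deadhi2 _ _ _ _ _ _ _ _ _ _ s C ⟨hs, h2, h15, hres⟩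
      · exact absurd (by rw [← h2] at hs ⊢; exact reso_two hS hs) hres

/-- **the thin table of 550 from the rows and the seams** -/
theorem thinTable_res {η : ℝ} (hT : SeamThinOb η) (hR : RowsC) (hC : SeamCtx) (hW : SeamWall)
    (hO : SeamOwnC) (hcl : SeamClose) (hK : SeamCap) (hQ : SeamQuad) (hL : SeamLin) :
    TopB550.ThinTable η := by
  have key : ∀ (p : Par4) (D : Dat4) (I1 : ℕ → Finset (ℕ × ℝ)) (π : Equiv.Perm (Fin 3))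
    (kp uz uc un : ℕ → ℝ) (F : ℕ → ℕ × ℝ → FW) (V T : Fin 18 → Prop) (w0 R T0 : ℝ)
    (PD : Set (Fin 18 → ℝ)) (ν own : (Fin 18 → ℝ) → ℝ) (c₀ : ℝ),
    Thin η p D I1 π kp uz uc un F V T w0 R T0 PD ν own c₀ → False := by
    intro p D I1 π kp uz uc un F V T w0 R T0 PD ν own c₀ h
    obtain ⟨V', -, h2, h3, h4⟩ := hcl _ _ _ _ _ _
      (hT p D I1 π kp uz uc un F V T w0 R T0 PD ν own c₀ h) h.tp.slots
    exact ob_false hR hC hW hO hK hQ hL _ _ _ _ _ _ le_rfl h2 h3 h4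
  exact ⟨fun p D I1 π kp uz uc un F V T w0 R T0 PD ν own c₀ h _ =>
      key p D I1 π kp uz uc un F V T w0 R T0 PD ν own c₀ h,
    fun p D I1 π kp uz uc un F V T w0 R T0 PD ν own c₀ h _ =>
      key p D I1 π kp uz uc un F V T w0 R T0 PD ν own c₀ h⟩

end Crest.Agent.R136.LadG697
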