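import Crest.Agent.R136.LadG1_697
import Crest.Agent.R136.GauV_619
import Crest.Agent.R136.K2Y_774
import Crest.Agent.R136.K2B_146

/-!
# R136, thin branch (helper697): RESONANCES, second level: windows, input of the gauge step

* `IW` : a window (interior or record) of a `ZW` with its own profile; `Dr` = dropped slots (their
  walls are infinitely far), all other walls are equalities at the base.
* `GauW` : a record window of a stage, an honest class, a dense part `E`, a gauge `e n i` per incidence.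
* `SeamGau` : `GauW ⊢ Ob` (gauge step); `SeamWallG`, `SeamQuadG`, `SeamLinG` : producers of `GauW`.
-/

set_option autoImplicit false
set_option linter.unusedVariables false

open Finset Filter Topology

namespace Crest.Agent.R136.LadG697

open Crest.Agent.R136.Net191
open Crest.Agent.R136.NetW191
open Crest.Agent.R136.PrW464
open Crest.Agent.R136.NatW697
open Crest.Agent.R136.LadW697
open Crest.Agent.R136.Top484
open Crest.Agent.R136.NatT550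
open Crest.Agent.R136.ThS830
open Crest.Agent.R136.LadT830
open Crest.Agent.R136.Zpr779
open Crest.Agent.R136.Qg926
open Crest.Agent.R136.EvW938
open Crest.Agent.R136.GauW619
open Crest.Agent.R136.AwJ774
open Crest.Agent.R136.K2S774
open Crest.Agent.R138.Ex926

/-- the gauged labels, one correction per incidence (own frame) -/
def fG (κ : ℕ → ℝ) (e : ℕ → ℕ × ℝ → Fin 14 → ℝ) (F : ℕ → ℕ × ℝ → FW) (n : ℕ) (i : ℕ × ℝ) : FW :=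
  gau (κ n) (e n i) (F n i)

/-- natural completion of the exponents of `z, c, N` -/
def natX (X : ℕ → Fin 18 → ℝ) (n : ℕ) (k : Fin 18) : ℝ := grW (X n 0) (X n 1) (X n 17) k

/-- **a window of a `ZW`**, the slots `Dr` are dropped -/
structure IW (B B' : Base) (I0 J : ℕ → Finset (ℕ × ℝ)) (κ : ℕ → ℝ) (u : ℕ → Fin 18 → ℝ)
    (F : ℕ → ℕ × ℝ → FW) (X : ℕ → Fin 18 → ℝ) (w : ℕ → ℝ) (Dr : Set (Fin 18)) (Tn To : ℕ → ℝ)
    (lam lo : (Fin 18 → ℝ) → ℝ) : Prop where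
  bas : AwZ146.BasX monW (mA monW (actW Dr)) (mA monW (actW Dr)) X w
  nat : ∀ n k, k ∉ Dr → X n k = natX X n k
  win : ZWin B B' I0 J (coU u κ F) monW 67 X w (cn QW (actW Dr)) Tn lam
  own : ZProf B' J (zolb B I0 (coU u κ F) monW 67 X w) (cn QW (actW Dr)) To lo
  To0 : ∀ n, 0 < To n
  kap : B'.Sub fun n => |κ n|⁻¹

/-- a stage with general dropped slots -/
def StD (P : Set (Fin 18 → ℝ)) (ν own : (Fin 18 → ℝ) → ℝ) (r0 : Fin 18 → ℝ)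
    (θ : Fin 3 → ℝ) (g : ℝ) (q : Fin 3 → ℝ) (V Dr : Set (Fin 18))
    (lam lo : (Fin 18 → ℝ) → ℝ) : Prop :=
  Stage QW P ν own 18 r0 (btW θ) (DlW g q) (QdW θ) {1} V 0 (btW θ) 1 (actW Dr) Dr lam lo

theorem StD.of_StW {P : Set (Fin 18 → ℝ)} {ν own : (Fin 18 → ℝ) → ℝ} {r0 : Fin 18 → ℝ}
    {θ : Fin 3 → ℝ} {g : ℝ} {q : Fin 3 → ℝ} {V : Set (Fin 18)} {s : ℝ}
    {lam lo : (Fin 18 → ℝ) → ℝ} (h : StW P ν own 18 r0 θ g q V s lam lo) :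
    StD P ν own r0 θ g q V (DrW s) lam lo := h

/-- exponents of the own box of level `0` of the record frame: `z` and `V` natural, the others
narrow -/
noncomputable def ob0 (V : Set (Fin 18)) (K : ℝ) (k : Fin 18) : ℝ :=
  open Classical in if k = 0 ∨ k ∈ V then 0 else K

/-- **INPUT OF THE GAUGE STEP.** `B, I0, κ, u, F` = chart; `B', J, X, w, Tn, To, lam, lo` = record
window of a stage, dropped slots `Dr`, visible slots `V`; `w1, R1, T1` = frame of the new object; `bC`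
= base of the honest class `Cl` in the record frame; `E` = dense part; `e n i` = gauge; `V'` = visible
slots after the gauge, `Zs` = zero slots after the gauge. -/
structure GauW (θ : Fin 3 → ℝ) (g : ℝ) (q : Fin 3 → ℝ) (V Dr : Set (Fin 18))
    (P : Set (Fin 18 → ℝ)) (ν own : (Fin 18 → ℝ) → ℝ) (r0 : Fin 18 → ℝ)
    (B B' : Base) (I0 J : ℕ → Finset (ℕ × ℝ)) (κ : ℕ → ℝ) (u : ℕ → Fin 18 → ℝ)
    (F : ℕ → ℕ × ℝ → FW) (X : ℕ → Fin 18 → ℝ) (w Tn To : ℕ → ℝ)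
    (lam lo : (Fin 18 → ℝ) → ℝ) (w1 R1 T1 : ℝ) (bC : Fin 18 → ℝ)
    (Cl E : ℕ → Finset (ℕ × ℝ)) (s₀ : ℕ → ℕ × ℝ) (e : ℕ → ℕ × ℝ → Fin 14 → ℝ)
    (V' Zs : Set (Fin 18)) : Prop where
  th1 : 0 < θ 1
  q1 : 0 < q 1
  q2 : 0 < q 2
  q0 : 0 ≤ q 0
  qg : 4 * q 0 < g
  qθ : 8 * (q 0 * (max (-(θ 0)) 0 + |θ 1| + |θ 2|)) ≤ g
  vis : ∀ k ∈ V, (4 ≤ k ∧ k ≠ 13 ∧ k ≠ 16 ∧ k ≠ 17) ∧ 0 < btW θ k
  u0 : ∀ n, GrU (u n)
  κ1 : ∀ n, |κ n| ≤ 1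
  dr4 : ∀ k ∈ Dr, 4 ≤ k ∧ k ≠ 17 ∧ k ∉ V
  /-- the record window -/
  iw : IW B B' I0 J κ u F X w Dr Tn To lam lo
  st : ∃ Z : Set (Fin 18), Stage QW P ν own 18 r0 (btW θ) (DlW g q) (QdW θ) Z V 0 (btW θ) 1
    (actW Dr) Dr lam lo
  /-- D-max for all gauges at the record window -/
  gd : ∃ C : ℝ, 0 < C ∧ ∀ d ∈ QdW θ, ∀ K : ℝ, 1 ≤ K → ∀ ε : ℝ, 0 < ε →
    ∀ᶠ n in (U : Filter ℕ),
    ∀ e' : ℕ × ℝ → Fin 14 → ℝ,
      (∀ j ∈ J n, (e' j 9 = 0 ∧ e' j 12 = 0 ∧ e' j 13 = 0) ∧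
        ∀ k, u n (Fin.natAdd 4 k) * |e' j k| ≤ B.d n ^ (-C)) →
      ∀ i ∈ J n, ∀ G ⊆ J n, (∀ j ∈ G, ∀ k, |u n k * coW (κ n) (gau (κ n) (e' i) (F n i))
          (gau (κ n) (e' j) (F n j)) k| ≤ K * (B.d n ^ natX X n k * B'.d n ^ d k)) →
        (G.card : ℝ) ≤ Tn n * B'.d n ^ (-(DlW g q d + ε))
  /-- the natural completion of the dropped slots is legal -/
  natpos : ∀ R : ℝ, ∀ᶠ n in (U : Filter ℕ), ∀ k, R * w n ≤ natX X n k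
  /-- number of incidences -/
  card : ∃ Hc : ℕ → ℝ, B'.Sub Hc ∧ ∀ᶠ n in (U : Filter ℕ),
    (Nat.log 2 (J n).card : ℝ) + 1 ≤ Hc n
  /-- frame -/
  big : BigW θ w1 R1 T1
  /-- `V` is closed under the caps -/
  capV : CapCl V
  /-- base of the class: natural, `z : 0`, `c : -w1`, between the frame and the record boxes -/
  bnat : Nat QW (actW Dr) bC
  bz : bC 0 = 0
  bc : bC 1 = -w1
  blo : ∀ k, k ∉ Dr → -(wtR k * w1) ≤ bC k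
  bhi : ∀ k, k ∉ Dr → ∀ v : ℝ, 0 ≤ v → v ≤ 1 → bC k ≤ v * btW θ k
  cls : ZCls B B' I0 J (coU u κ F) monW 67 (fun n => X n + w n • bC) w
    {a | bC + a ∈ cn QW (actW Dr)} (fun n => Tn n * B'.d n ^ (-lam bC))
    (fun a => lam (bC + a) - lam bC) Cl s₀
  esub : ∀ᶠ n in (U : Filter ℕ), E n ⊆ Cl n
  edens : ∀ ε : ℝ, 0 < ε → ∀ᶠ n in (U : Filter ℕ),
    ((Cl n).card : ℝ) ≤ B'.d n ^ (-ε) * (E n).card
  /-- output of `ZWin.exists_cls_own` -/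
  own : ∀ P ⊆ {a | bC + a ∈ cn QW (actW Dr)}, ∀ R : ℝ, (∀ p ∈ P, ‖p‖ ≤ R) → (∀ p ∈ P, 0 ≤ p) →
    TProf B' E (zolb B I0 (coU u κ F) monW 67 (fun n => X n + w n • bC) w) P
      (fun n => To n * B'.d n ^ (-lo bC)) (fun a => lo (bC + a) - lo bC)
  /-- the gauge has no component in `R, P, N` -/
  supp : ∀ n i, e n i 9 = 0 ∧ e n i 12 = 0 ∧ e n i 13 = 0
  /-- the gauge has natural size on every record level -/
  size : ∀ ε : ℝ, 0 < ε → ∀ᶠ n in (U : Filter ℕ), ∀ i ∈ E n, ∀ p : Fin 14,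
    u n (Fin.natAdd 4 p) * |e n i p| ≤ B.d n ^ natX X n (Fin.natAdd 4 p) *
      B'.d n ^ (max 0 (btW θ (Fin.natAdd 4 p)) - ε)
  sub' : V' ⊆ V
  /-- own box: the slots off `V` do not move along the lines -/
  ownc : ∀ ε : ℝ, 0 < ε → ∀ᶠ n in (U : Filter ℕ), ∀ i ∈ E n, ∀ j ∈ E n, i.1 = j.1 →
    ∀ k, |coU u κ F n i j k| ≤ B.d n ^ natX X n k * B'.d n ^ (ob0 V (20 * R1) k - ε)
  /-- the flag slots off `V'` do not move along the lines in the new chart -/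
  ownz : ∀ ε : ℝ, 0 < ε → ∀ᶠ n in (U : Filter ℕ), ∀ i ∈ E n, ∀ j ∈ E n, i.1 = j.1 →
    ∀ k, 4 ≤ k → k ∉ V' → |coU u κ (fG κ e F) n i j k| ≤ B.d n ^ natX X n k * B'.d n ^ (R1 - ε)
  zV : ∀ k ∈ Zs, k ∉ V' ∧ 4 ≤ k
  /-- the zero slots -/
  zero : ∀ k ∈ Zs, ∀ ε : ℝ, 0 < ε → ∀ᶠ n in (U : Filter ℕ), ∀ i ∈ E n, ∀ j ∈ E n,
    |coU u κ (fG κ e F) n i j k| ≤ B.d n ^ natX X n k * B'.d n ^ (R1 - ε)

/-- **(G) the gauge step** (779, 778, 619) -/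
def SeamGau : Prop :=
  ∀ (θ : Fin 3 → ℝ) (g : ℝ) (q : Fin 3 → ℝ) (V Dr : Set (Fin 18))
    (P : Set (Fin 18 → ℝ)) (ν own : (Fin 18 → ℝ) → ℝ) (r0 : Fin 18 → ℝ)
    (B B' : Base) (I0 J : ℕ → Finset (ℕ × ℝ)) (κ : ℕ → ℝ) (u : ℕ → Fin 18 → ℝ)
    (F : ℕ → ℕ × ℝ → FW) (X : ℕ → Fin 18 → ℝ) (w Tn To : ℕ → ℝ)
    (lam lo : (Fin 18 → ℝ) → ℝ) (w1 R1 T1 : ℝ) (bC : Fin 18 → ℝ)
    (Cl E : ℕ → Finset (ℕ × ℝ)) (s₀ : ℕ → ℕ × ℝ) (e : ℕ → ℕ × ℝ → Fin 14 → ℝ)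
    (V' Zs : Set (Fin 18)),
    GauW θ g q V Dr P ν own r0 B B' I0 J κ u F X w Tn To lam lo w1 R1 T1 bC Cl E s₀ e V' Zs →
    Ob θ g q V' ∅ Zs

/-- some gauge input exists -/
def HasGau (θ : Fin 3 → ℝ) (g : ℝ) (q : Fin 3 → ℝ) (V' Zs : Set (Fin 18)) : Prop :=
  ∃ (V Dr : Set (Fin 18)) (P : Set (Fin 18 → ℝ)) (ν own : (Fin 18 → ℝ) → ℝ) (r0 : Fin 18 → ℝ)
    (B B' : Base) (I0 J : ℕ → Finset (ℕ × ℝ)) (κ : ℕ → ℝ) (u : ℕ → Fin 18 → ℝ)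
    (F : ℕ → ℕ × ℝ → FW) (X : ℕ → Fin 18 → ℝ) (w Tn To : ℕ → ℝ)
    (lam lo : (Fin 18 → ℝ) → ℝ) (w1 R1 T1 : ℝ) (bC : Fin 18 → ℝ)
    (Cl E : ℕ → Finset (ℕ × ℝ)) (s₀ : ℕ → ℕ × ℝ) (e : ℕ → ℕ × ℝ → Fin 14 → ℝ),
    GauW θ g q V Dr P ν own r0 B B' I0 J κ u F X w Tn To lam lo w1 R1 T1 bC Cl E s₀ e V' Zs

theorem SeamGau.ob (h : SeamGau) {θ : Fin 3 → ℝ} {g : ℝ} {q : Fin 3 → ℝ} {V' Zs : Set (Fin 18)}
    (H : HasGau θ g q V' Zs) : Ob θ g q V' ∅ Zs := by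
  obtain ⟨V, Dr, P, ν, own, r0, B, B', I0, J, κ, u, F, X, w, Tn, To, lam, lo, w1, R1, T1, bC, Cl, E,
    s₀, e, h1⟩ := H
  exact h _ _ _ _ _ _ _ _ _ _ _ _ _ _ _ _ _ _ _ _ _ _ _ _ _ _ _ _ _ _ _ _ h1

/-- producer for a resonant wall -/
def SeamWallG : Prop :=
  ∀ (θ : Fin 3 → ℝ) (g : ℝ) (q : Fin 3 → ℝ) (V T : Set (Fin 18)) (s : ℝ),
    CapCl V → Ob θ g q V T ∅ → SlotOkW θ (fun k => k ∈ V) (fun k => k ∈ T) →
    Top θ (fun k => k ∈ V) s → 2 ≤ s → Reso θ s →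
    HasGau θ g q {k | k ∈ V ∧ KW θ k ≠ s} ∅

/-- producer for the resonances of the rung `2` without a wall -/
def SeamQuadG : Prop :=
  ∀ (θ : Fin 3 → ℝ) (g : ℝ) (q : Fin 3 → ℝ) (V T : Set (Fin 18)),
    CapCl V → Ob θ g q V T ∅ → SlotOkW θ (fun k => k ∈ V) (fun k => k ∈ T) →
    (∀ k ∈ V, KW θ k < 2) → Res2 θ → HasGau θ g q V ↑(JW 2)

/-- producer for the rung `1` -/
def SeamLinG : Prop :=
  ∀ (θ : Fin 3 → ℝ) (g : ℝ) (q : Fin 3 → ℝ) (Zs : Set (Fin 18)), Ob θ g q ∅ ∅ Zs →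
    Zs = ∅ ∧ ¬ Res2 θ ∨ Zs = ↑(JW 2) → Res1 θ → HasGau θ g q ∅ (Zs ∪ ↑(JW 1))

theorem seamWall_of (hG : SeamGau) (h : SeamWallG) : SeamWall :=
  fun θ g q V T s h0 h1 h2 h3 h4 h5 => hG.ob (h θ g q V T s h0 h1 h2 h3 h4 h5)

theorem seamQuad_of (hG : SeamGau) (h : SeamQuadG) : SeamQuad :=
  fun θ g q V T h0 h1 h2 h3 h4 => hG.ob (h θ g q V T h0 h1 h2 h3 h4)

theorem seamLin_of (hG : SeamGau) (h : SeamLinG) : SeamLin :=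
  fun θ g q Zs h1 h2 h3 => hG.ob (h θ g q Zs h1 h2 h3)

end Crest.Agent.R136.LadG697
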