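import Crest.Agent.R136.LadG2_697

/-!
# R136, thin branch (helper697): RESONANCES, stages with general dropped slots

* `StZ .. Dr Z` : stage with dropped slots `Dr` and constant slots `Z`
* `DOk s Dr` : `DrW s ⊆ Dr ⊆ {weight ≥ s}`
* `rungD` : data of a rung which drops `J ⊆ {weight s}`, the other slots of weight `s` are in `Z`
* `stZ_drop` : the slots `J` can be dropped if their visibility gives the full loss
* `exists_intD` : a homogeneous interior tangent which is not full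
-/

set_option autoImplicit false
set_option linter.unusedVariables false

open Finset Filter Topology

namespace Crest.Agent.R136.LadG697

open Crest.Agent.R136.Net191
open Crest.Agent.R136.NetW191
open Crest.Agent.R136.PrW464
open Crest.Agent.R136.NatW697
open Crest.Agent.R136.LadW697
open Crest.Agent.R136.K2S774
open Crest.Agent.R136.K2A146
open Crest.Agent.R136.K2B146
open Crest.Agent.R136.Dg219 (Walls mw gC dhC nC)
open Crest.Agent.R136.Dg262 (X)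
open Crest.Agent.R136.Rc146 (OutA)
open Crest.Agent.R138

/-- stage with dropped slots `Dr`, constant slots `Z` -/
def StZ (P : Set (Fin 18 → ℝ)) (ν own : (Fin 18 → ℝ) → ℝ) (r0 : Fin 18 → ℝ)
    (θ : Fin 3 → ℝ) (g : ℝ) (q : Fin 3 → ℝ) (V Dr Z : Set (Fin 18))
    (lam lo : (Fin 18 → ℝ) → ℝ) : Prop :=
  Stage QW P ν own 18 r0 (btW θ) (DlW g q) (QdW θ) Z V 0 (btW θ) 1 (actW Dr) Dr lam lo

theorem StZ.of_StW {P : Set (Fin 18 → ℝ)} {ν own : (Fin 18 → ℝ) → ℝ} {r0 : Fin 18 → ℝ}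
    {θ : Fin 3 → ℝ} {g : ℝ} {q : Fin 3 → ℝ} {V : Set (Fin 18)} {s : ℝ}
    {lam lo : (Fin 18 → ℝ) → ℝ} (h : StW P ν own 18 r0 θ g q V s lam lo) :
    StZ P ν own r0 θ g q V (DrW s) {1} lam lo := h

/-- more constant slots -/
theorem StZ.weaken {P : Set (Fin 18 → ℝ)} {ν own : (Fin 18 → ℝ) → ℝ} {r0 : Fin 18 → ℝ}
    {θ : Fin 3 → ℝ} {g : ℝ} {q : Fin 3 → ℝ} {V Dr Z Z' : Set (Fin 18)}
    {lam lo : (Fin 18 → ℝ) → ℝ} (h : StZ P ν own r0 θ g q V Dr Z lam lo) (hZ : Z ⊆ Z')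
    (hD : ∀ i ∈ Z', i ∉ Dr) : StZ P ν own r0 θ g q V Dr Z' lam lo where
  jt := h.jt
  prf := h.prf
  noD := h.noD
  ZD := hD
  TD := h.TD
  zD := h.zD
  ind := fun c hc c' hc' hcc ⟨σ, hσ⟩ => h.ind c hc c' hc' hcc ⟨σ, fun i hi => hσ i (hZ hi)⟩
  rcd := h.rcd
  dmx := h.dmx
  ownr := h.ownr
  ownu := h.ownu

/-- the dropped slots have weight `≥ s`, all slots of weight `> s` are dropped -/
structure DOk (s : ℝ) (Dr : Set (Fin 18)) : Prop where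
  sub : DrW s ⊆ Dr
  ge : ∀ k ∈ Dr, 4 ≤ k ∧ s ≤ alW k

open Classical in
/-- ray of slope `s` -/
noncomputable def TD (s : ℝ) (Dr : Set (Fin 18)) (k : Fin 18) : ℝ := if k ∈ Dr then 1 else saW s k

theorem TD_of_not {s : ℝ} {Dr : Set (Fin 18)} {k : Fin 18} (hk : k ∉ Dr) :
    TD s Dr k = saW s k := if_neg hk

theorem TD_of_mem {s : ℝ} {Dr : Set (Fin 18)} {k : Fin 18} (hk : k ∈ Dr) :
    TD s Dr k = 1 := if_pos hk

theorem TD_DrW (s : ℝ) : TD s (DrW s) = TW s := by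
  funext k; simp only [TD, TW]

/-- the slots of weight `s` which are neither dropped nor in `J`, and `c` -/
def ZJ (s : ℝ) (Dr : Set (Fin 18)) (J : Finset (Fin 18)) : Set (Fin 18) :=
  {k | k = 1 ∨ (4 ≤ k ∧ (alW k : ℝ) = s ∧ k ∉ Dr ∧ k ∉ J)}

theorem small4 : ∀ i : Fin 18, ¬ 4 ≤ i → i = 0 ∨ i = 1 ∨ i = 2 ∨ i = 3 := by decide

theorem TD_frame {s : ℝ} {Dr : Set (Fin 18)} (h : DOk s Dr) {i : Fin 18} (hi : ¬ 4 ≤ i) :
    TD s Dr i = if i = 1 then 0 else 1 := by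
  have hn : i ∉ Dr := fun hh => hi (h.ge i hh).1
  rw [TD_of_not hn]
  rcases small4 i hi with rfl | rfl | rfl | rfl <;> simp [saW, wz, wn]

theorem TD_nonneg {s : ℝ} {Dr : Set (Fin 18)} (h : DOk s Dr) (i : Fin 18) : 0 ≤ TD s Dr i := by
  by_cases hi : i ∈ Dr
  · rw [TD_of_mem hi]; exact zero_le_one
  · by_cases h4 : 4 ≤ i
    · rw [TD_of_not hi, saW_alW h4]
      by_contra hcon
      push Not at hcon
      exact hi (h.sub ⟨h4, by linarith⟩)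
    · rw [TD_frame h h4]
      split_ifs
      · exact le_rfl
      · exact zero_le_one

/-- natural for the active walls -/
theorem nat_TD {s : ℝ} (Dr : Set (Fin 18)) : Nat QW (actW Dr) (TD s Dr) := by
  intro w hw
  have h1 := nat_saW (fun _ => True) s w trivial
  rw [TD_of_not hw.1, h1]
  refine rhs_congr w fun i hi => ?_
  rw [TD_of_not]
  intro hiD
  exact hi (hw.2 i hiD)

/-- **rung which drops `J`** -/
theorem rungD {θ : Fin 3 → ℝ} {s : ℝ} (hs : 0 < s) {V Dr : Set (Fin 18)} (hD : DOk s Dr)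
    (hV : ∀ k ∈ V, 4 ≤ k ∧ (alW k : ℝ) < s) {b : Fin 18 → ℝ} (hb : ∀ k, k ∉ Dr → b k = btW θ k)
    {J : Finset (Fin 18)} (hJ : ∀ k ∈ J, 4 ≤ k ∧ (alW k : ℝ) = s ∧ k ∉ Dr)
    (hh : ∀ k ∈ J, ∀ l ∈ mlW k, (∀ t ∈ l, t ∉ Dr) → ∃ t ∈ l, t ∈ J) :
    RungD QW (actW Dr) Dr (ZJ s Dr J) V 0 (QdW θ) (btW θ) (TD s Dr) (saW s) b J where
  T0 := TD_nonneg hD
  TJ := fun i hi => by
    obtain ⟨h4, h5, h6⟩ := hJ i hi
    rw [TD_of_not h6, saW_alW h4, h5, sub_self]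
  TZ := fun i hi hZ => by
    by_cases hiD : i ∈ Dr
    · rw [TD_of_mem hiD]; exact one_pos
    · by_cases h4 : 4 ≤ i
      · rw [TD_of_not hiD, saW_alW h4]
        have h6 : (alW i : ℝ) ≠ s := fun h => hZ (Or.inr ⟨h4, h, hiD, hi⟩)
        have h7 : ¬ s < alW i := fun h => hiD (hD.sub ⟨h4, h⟩)
        rcases (not_lt.1 h7).lt_or_eq with h8 | h8
        · linarith
        · exact absurd h8 h6
      · rw [TD_frame hD h4, if_neg]
        · exact one_pos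
        · rintro rfl
          exact hZ (Or.inl rfl)
  natT := nat_TD Dr
  bρ := hb
  TT := fun i hi => (TD_of_not hi).symm
  qd := neg_saW_mem θ hs
  head := fun w hw hwJ => by
    obtain ⟨l, hl, h2, -⟩ := wall_list w
    obtain ⟨t, ht, htJ⟩ := hh w.1 hwJ l hl fun t ht htD => (co_ne h2 t).2 ht (hw.2 t htD)
    exact ⟨t, htJ, (co_ne h2 t).2 ht⟩
  JZ := fun i hi hZ => by
    rcases hZ with rfl | h
    · exact absurd (hJ 1 hi).1 (by decide)
    · exact h.2.2.2 hi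
  JT := fun i hi hiV => by
    have h1 := (hV i hiV).2
    rw [(hJ i hi).2.1] at h1
    exact lt_irrefl _ h1
  Jz := fun h => absurd (hJ 0 h).1 (by decide)

section

variable {P : Set (Fin 18 → ℝ)} {ν own : (Fin 18 → ℝ) → ℝ} {r0 : Fin 18 → ℝ}
    {θ : Fin 3 → ℝ} {g : ℝ} {q : Fin 3 → ℝ} {V Dr Z : Set (Fin 18)} {s : ℝ}
    {lam lo : (Fin 18 → ℝ) → ℝ}

/-- **the slots `J` can be dropped** -/
theorem stZ_drop (hs : 0 < s) (hD : DOk s Dr) (hV : ∀ k ∈ V, 4 ≤ k ∧ (alW k : ℝ) < s)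
    {J : Finset (Fin 18)} (hJ : ∀ k ∈ J, 4 ≤ k ∧ (alW k : ℝ) = s ∧ k ∉ Dr)
    (hh : ∀ k ∈ J, ∀ l ∈ mlW k, (∀ t ∈ l, t ∉ Dr) → ∃ t ∈ l, t ∈ J)
    (H : StZ P ν own r0 θ g q V Dr Z lam lo) (hZ : Z ⊆ ZJ s Dr J) {g' : ℝ} (hg' : 0 < g')
    (F : FLemA QW (actW Dr) P ν own r0 (DlW g q) V 0 (btW θ) (TD s Dr) (saW s) (btW θ) lam lo
      (fun lam' => lam' (ind1 J) < 0) g') :
    ∃ lam2 lo2, StZ P ν own r0 θ g q V (Dr ∪ ↑J) (ZJ s Dr J) lam2 lo2 := by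
  have hZD : ∀ i ∈ ZJ s Dr J, i ∉ Dr := by
    rintro i (rfl | h) hiD
    · exact absurd (hD.ge 1 hiD).1 (by decide)
    · exact h.2.2.1 hiD
  have H' : StZ P ν own r0 θ g q V Dr (ZJ s Dr J) lam lo := H.weaken hZ hZD
  obtain ⟨lam2, lo2, h3⟩ := rungA H' (recW θ _ _) (rungD hs hD hV (fun k _ => rfl) hJ hh) hg' F
  rw [A2_actW] at h3
  exact ⟨lam2, lo2, h3⟩

/-- after dropping `J` the dropped slots are again in order -/
theorem DOk.union (hD : DOk s Dr) {J : Finset (Fin 18)}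
    (hJ : ∀ k ∈ J, 4 ≤ k ∧ (alW k : ℝ) = s ∧ k ∉ Dr) : DOk s (Dr ∪ ↑J) where
  sub := hD.sub.trans Set.subset_union_left
  ge := by
    rintro k (hk | hk)
    · exact hD.ge k hk
    · exact ⟨(hJ k hk).1, (hJ k hk).2.1.ge⟩

end

end Crest.Agent.R136.LadG697
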