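import Crest.Agent.R136.NatW2_697
import Crest.Agent.R136.K2X_774
import Crest.Agent.R136.Dg8_219

/-!
# R136, thin branch (helper697): THE LADDER OF THE W-CHART, data of the rungs

* `QW = mw monW`, `actW Dr` : walls without the dropped slots `Dr`
* `DlW g q` : D-max functional (linear part of `DW g 0 q w0`)
* `alW k` : weight of the slot `k` (`0` for the frame slots), `DrW s` = slots of weight `> s`,
  `JW s` = slots of weight `s`
* `TW s` : ray of the rung of slope `s`; `rungW` = `RungD`, `recW` = `RecD`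
-/

set_option autoImplicit false
set_option linter.unusedVariables false

open Finset

namespace Crest.Agent.R136.LadW697

open Crest.Agent.R136.Net191
open Crest.Agent.R136.NetW191
open Crest.Agent.R136.PrW464
open Crest.Agent.R136.NatW697
open Crest.Agent.R136.K2S774
open Crest.Agent.R136.Dg219 (Walls mw)

/-- names of the walls of the W-chart -/
abbrev WW : Type := Σ k : Fin 18, {e // e ∈ monW.mon k}

/-- walls of the W-chart -/
abbrev QW : Walls (Fin 18) WW := mw monW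

/-- walls as lists -/
theorem wall_list (w : WW) : ∃ l ∈ mlW w.1, (∀ s, QW.co w s = l.count s) ∧
    ∀ c : Fin 18 → ℝ, QW.rhs w c = (l.map c).sum := by
  obtain ⟨k, e, he⟩ := w
  obtain ⟨l, hl, rfl⟩ := List.mem_map.1 (List.mem_toFinset.1 he)
  refine ⟨l, hl, fun s => rfl, fun c => ?_⟩
  rw [sum_count]
  rfl

theorem list_wall {k : Fin 18} {l : List (Fin 18)} (hl : l ∈ mlW k) : ∃ w : WW, QW.hd w = k ∧
    (∀ s, QW.co w s = l.count s) ∧ ∀ c : Fin 18 → ℝ, QW.rhs w c = (l.map c).sum := by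
  refine ⟨⟨k, fun s => l.count s, List.mem_toFinset.2 (List.mem_map.2 ⟨l, hl, rfl⟩)⟩, rfl,
    fun s => rfl, fun c => ?_⟩
  rw [sum_count]
  rfl

theorem co_ne {w : WW} {l : List (Fin 18)} (h : ∀ s, QW.co w s = l.count s) (s : Fin 18) :
    QW.co w s ≠ 0 ↔ s ∈ l := by
  rw [h]; exact Nat.pos_iff_ne_zero.symm.trans List.count_pos_iff

theorem cst_QW (w : WW) : QW.cst w = 0 := rfl

/-- walls which do not contain a slot of `Dr` -/
def actW (Dr : Set (Fin 18)) (w : WW) : Prop := QW.hd w ∉ Dr ∧ ∀ s ∈ Dr, QW.co w s = 0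

theorem actW_empty : actW ∅ = fun _ => True := by
  funext w; simp [actW]

theorem A2_actW (Dr : Set (Fin 18)) (J : Finset (Fin 18)) : A2 QW (actW Dr) J = actW (Dr ∪ ↑J) := by
  funext w
  simp only [A2, actW, eq_iff_iff, Set.mem_union, Finset.mem_coe]
  constructor
  · rintro ⟨⟨h1, h2⟩, h3, h4⟩
    exact ⟨fun h => h.elim h1 h3, fun s hs => hs.elim (h2 s) (h4 s)⟩
  · rintro ⟨h1, h2⟩
    exact ⟨⟨fun h => h1 (Or.inl h), fun s hs => h2 s (Or.inl hs)⟩, fun h => h1 (Or.inr h),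
      fun s hs => h2 s (Or.inr hs)⟩

/-- the cone of the active walls in list form -/
theorem mem_cnW {Dr : Set (Fin 18)} {c : Fin 18 → ℝ} : c ∈ cn QW (actW Dr) ↔
    ∀ k, k ∉ Dr → ∀ l ∈ mlW k, (∀ s ∈ l, s ∉ Dr) → c k ≤ (l.map c).sum := by
  constructor
  · intro h k hk l hl hs
    obtain ⟨w, rfl, h2, h3⟩ := list_wall hl
    rw [← h3]
    refine h w ⟨hk, fun s hsD => ?_⟩
    by_contra hne
    exact hs s ((co_ne h2 s).1 hne) hsD
  · intro h w hw
    obtain ⟨l, hl, h2, h3⟩ := wall_list w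
    rw [h3]
    refine h w.1 hw.1 l hl fun s hs hsD => ?_
    exact (co_ne h2 s).2 hs (hw.2 s hsD)

theorem mem_cnW0 {c : Fin 18 → ℝ} : c ∈ cn QW (fun _ => True) ↔
    ∀ k, ∀ l ∈ mlW k, c k ≤ (l.map c).sum := by
  rw [← actW_empty, mem_cnW]
  simp

/-- natural rays -/
theorem nat_grW (A : WW → Prop) (ζ χ ν : ℝ) : Nat QW A (grW ζ χ ν) := by
  intro w _
  obtain ⟨l, hl, -, h3⟩ := wall_list w
  rw [h3, grW_list ζ χ ν _ l hl]
  rfl

theorem saW_grW (s : ℝ) : saW s = grW 1 0 s := by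
  funext k; simp only [saW, grW]; ring

theorem btW_grW (θ : Fin 3 → ℝ) : btW θ = grW 1 (-θ 1) (1 - θ 0) := by
  funext k; simp only [btW, grW]

theorem nat_saW (A : WW → Prop) (s : ℝ) : Nat QW A (saW s) := by
  rw [saW_grW]; exact nat_grW A _ _ _

theorem nat_btW (A : WW → Prop) (θ : Fin 3 → ℝ) : Nat QW A (btW θ) := by
  rw [btW_grW]; exact nat_grW A _ _ _

/-! ### the D-max functional -/

/-- linear part of `DW g 0 q w0` -/
def DlW (g : ℝ) (q : Fin 3 → ℝ) : (Fin 18 → ℝ) →ₗ[ℝ] ℝ where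
  toFun := fun c => g * c 0 - c 0 - (c 17 + c 3 + c 2) - q 0 * (c 17 - c 0) - q 1 * (c 2 - c 0) -
    q 2 * (c 3 - c 0)
  map_add' := fun c d => by simp only [Pi.add_apply]; ring
  map_smul' := fun t c => by simp only [Pi.smul_apply, smul_eq_mul, RingHom.id_apply]; ring

theorem DlW_apply (g : ℝ) (q : Fin 3 → ℝ) (c : Fin 18 → ℝ) : DlW g q c =
    g * c 0 - c 0 - (c 17 + c 3 + c 2) - q 0 * (c 17 - c 0) - q 1 * (c 2 - c 0) -
    q 2 * (c 3 - c 0) := rfl

theorem DW_add (g : ℝ) (q : Fin 3 → ℝ) (w0 : ℝ) (p c : Fin 18 → ℝ) :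
    DW g 0 q w0 (p + c) = DW g 0 q w0 p + DlW g q c := by
  simp only [DW, DlW_apply, Pi.add_apply]; ring

theorem DlW_saW (g : ℝ) (q : Fin 3 → ℝ) (s : ℝ) :
    DlW g q (saW s) = -(3 + s) + (g - q 0 * (s - 1)) := by
  simp only [DlW_apply, saW, wz, wn]
  simp
  ring

/-- **D-max cone**: legal directions (thickness not smaller than the record if `θ 0 = 1`) -/
def QdW (θ : Fin 3 → ℝ) : Set (Fin 18 → ℝ) :=
  {d | d ∈ cn QW (fun _ => True) ∧ (θ 0 = 1 → d 17 ≤ 0)}

theorem btW17 (θ : Fin 3 → ℝ) : btW θ 17 = 1 - θ 0 := by simp [btW, grW, wz, wc, wn]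

theorem neg_saW_mem (θ : Fin 3 → ℝ) {s : ℝ} (hs : 0 < s) : -saW s ∈ QdW θ := by
  have h1 := (nat_saW (fun _ => True) s).smul (-1)
  rw [neg_one_smul] at h1
  refine ⟨h1.mem, fun _ => ?_⟩
  simp [saW, wz, wn]
  exact hs.le

theorem rec_add_mem {θ : Fin 3 → ℝ} {d : Fin 18 → ℝ} (hd : d ∈ QdW θ) (ξ : ℝ) {t : ℝ} (ht : 0 ≤ t) :
    ξ • btW θ + t • d ∈ QdW θ := by
  refine ⟨cn_nat_add ((nat_btW _ θ).smul ξ) hd.1 ht, fun h => ?_⟩
  simp only [Pi.add_apply, Pi.smul_apply, smul_eq_mul, btW17, h, sub_self, mul_zero, zero_add]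
  exact mul_nonpos_of_nonneg_of_nonpos ht (hd.2 h)

theorem sweep_mem (θ : Fin 3 → ℝ) (ξ t : ℝ) : ξ • btW θ + t • grW 0 1 0 ∈ QdW θ := by
  refine ⟨(((nat_btW _ θ).smul ξ).add ((nat_grW _ 0 1 0).smul t)).mem, fun h => ?_⟩
  have h2 : grW 0 1 0 17 = 0 := by simp [grW, wz, wc, wn]
  simp only [Pi.add_apply, Pi.smul_apply, smul_eq_mul, btW17, h, sub_self, mul_zero, zero_add, h2]
  exact le_rfl

/-! ### weights -/

/-- weight of a slot -/
def alW (k : Fin 18) : ℤ := if 4 ≤ k then -wz k else 0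

theorem saW_alW {s : ℝ} {k : Fin 18} (hk : 4 ≤ k) : saW s k = s - alW k := by
  have h1 : ∀ k : Fin 18, 4 ≤ k → wn k = 1 := by decide
  simp only [saW, h1 k hk, alW, if_pos hk]
  push_cast; ring

/-- slots of weight `> s` -/
def DrW (s : ℝ) : Set (Fin 18) := {k | 4 ≤ k ∧ s < alW k}

/-- flag slots of weight `s` -/
def JW (s : ℤ) : Finset (Fin 18) := univ.filter fun k => 4 ≤ k ∧ alW k = s

theorem mem_JW {s : ℤ} {k : Fin 18} : k ∈ JW s ↔ 4 ≤ k ∧ alW k = s := by simp [JW]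

theorem JW4 : JW 4 = {4} := by decide
theorem JW3 : JW 3 = {5, 6, 8} := by decide
theorem JW2 : JW 2 = {7, 9, 10, 11, 12, 13} := by decide
theorem JW1 : JW 1 = {14, 15, 16} := by decide

/-- dropping the slots of weight `s` -/
theorem DrW_union {s s' : ℝ} {j : ℤ} (hj : s = j) (h1 : s' < s) (h2 : s - 1 ≤ s') :
    DrW s ∪ ↑(JW j) = DrW s' := by
  ext k
  simp only [DrW, Set.mem_union, Set.mem_setOf_eq, Finset.mem_coe, mem_JW]
  constructor
  · rintro (⟨h3, h4⟩ | ⟨h3, h4⟩)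
    · exact ⟨h3, h1.trans h4⟩
    · refine ⟨h3, ?_⟩
      rw [h4, ← hj]; exact h1
  · rintro ⟨h3, h4⟩
    by_cases h5 : s < alW k
    · exact Or.inl ⟨h3, h5⟩
    · right
      refine ⟨h3, ?_⟩
      have h6 : ((alW k : ℤ) : ℝ) ≤ (j : ℝ) := by rw [← hj]; exact not_lt.1 h5
      have h7 : (j : ℝ) - 1 < ((alW k : ℤ) : ℝ) := by rw [← hj]; linarith
      have h8 : alW k ≤ j := by exact_mod_cast h6
      have h9 : j - 1 < alW k := by exact_mod_cast h7
      omega

theorem alW_le (k : Fin 18) : alW k ≤ 4 := by revert k; decide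

theorem DrW_four {s : ℝ} (h : 4 ≤ s) : DrW s = ∅ := by
  ext k
  simp only [DrW, Set.mem_setOf_eq, Set.mem_empty_iff_false, iff_false, not_and, not_lt]
  intro _
  have h1 : ((alW k : ℤ) : ℝ) ≤ 4 := by exact_mod_cast alW_le k
  linarith

/-! ### the rungs -/

open Classical in
/-- **ray of the rung of slope `s`** -/
noncomputable def TW (s : ℝ) (k : Fin 18) : ℝ := if k ∈ DrW s then 1 else saW s k

theorem TW_of_not {s : ℝ} {k : Fin 18} (hk : k ∉ DrW s) : TW s k = saW s k := if_neg hk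

theorem TW_z (s : ℝ) : TW s 0 = 1 := by
  have h : (0 : Fin 18) ∉ DrW s := by simp [DrW]
  rw [TW_of_not h]; simp [saW, wz, wn]
theorem TW_c (s : ℝ) : TW s 1 = 0 := by
  have h : (1 : Fin 18) ∉ DrW s := by simp only [DrW, Set.mem_setOf_eq, not_and]; intro h; exact absurd h (by decide)
  rw [TW_of_not h]; simp [saW, wz, wn]
theorem TW_A (s : ℝ) : TW s 2 = 1 := by
  have h : (2 : Fin 18) ∉ DrW s := by simp only [DrW, Set.mem_setOf_eq, not_and]; intro h; exact absurd h (by decide)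
  rw [TW_of_not h]; simp [saW, wz, wn]
theorem TW_B (s : ℝ) : TW s 3 = 1 := by
  have h : (3 : Fin 18) ∉ DrW s := by simp only [DrW, Set.mem_setOf_eq, not_and]; intro h; exact absurd h (by decide)
  rw [TW_of_not h]; simp [saW, wz, wn]
theorem TW_flag {s : ℝ} {k : Fin 18} (hk : 4 ≤ k) (h : k ∉ DrW s) : TW s k = s - alW k := by
  rw [TW_of_not h, saW_alW hk]

theorem alW_pos (k : Fin 18) (hk : 4 ≤ k) (h17 : k ≠ 17) : 1 ≤ alW k := by
  revert k; decide

/-- heads in `J`: integral rungs -/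
theorem head_J : ∀ j : Fin 5, ∀ k ∈ JW (j : ℕ), j ≠ 0 → ∀ l ∈ mlW k,
    (∀ s ∈ l, alW s ≤ (j : ℕ)) → ∃ s ∈ l, s ∈ JW (j : ℕ) := by
  decide

theorem recW (θ : Fin 3 → ℝ) (Dr : Set (Fin 18)) (Tie : Set (Fin 18)) :
    RecD QW (actW Dr) (btW θ) (QdW θ) Tie 0 (btW θ) where
  full := fun w _ => by
    obtain ⟨l, hl, h2, -⟩ := wall_list w
    obtain ⟨s, hs⟩ := List.exists_mem_of_ne_nil l (mlW_ne w.1 l hl)
    exact ⟨s, (co_ne h2 s).2 hs⟩
  nat := fun w hw => nat_btW _ θ w hw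
  qd := fun d hd ξ t ht => rec_add_mem hd ξ ht
  tie := fun i _ => by
    have : btW θ 0 = 1 := by simp [btW, grW, wz, wc, wn]
    rw [this, mul_one]

/-- **data of the rung of slope `s`** (`J` = the slots of weight `s`; `b` is free on the dropped
slots) -/
theorem rungW {θ : Fin 3 → ℝ} {s : ℝ} (hs : 0 < s) {V : Set (Fin 18)}
    (hV : ∀ k ∈ V, 4 ≤ k ∧ (alW k : ℝ) < s) {b : Fin 18 → ℝ} (hb : ∀ k, k ∉ DrW s → b k = btW θ k)
    {J : Finset (Fin 18)} (hJ : ∀ k, k ∈ J ↔ 4 ≤ k ∧ (alW k : ℝ) = s) :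
    RungD QW (actW (DrW s)) (DrW s) {1} V 0 (QdW θ) (btW θ) (TW s) (saW s) b J := by
  have hDJ : ∀ k ∈ J, k ∉ DrW s := fun k hk h => by
    have := ((hJ k).1 hk).2
    have h2 := h.2
    linarith
  refine ⟨?_, ?_, ?_, ?_, hb, ?_, ?_, ?_, ?_, ?_, ?_⟩
  · intro i
    by_cases hi : i ∈ DrW s
    · rw [TW, if_pos hi]; exact zero_le_one
    · by_cases h4 : 4 ≤ i
      · rw [TW_flag h4 hi]
        simp only [DrW, Set.mem_setOf_eq, not_and, not_lt] at hi
        linarith [hi h4]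
      · have : ∀ i : Fin 18, ¬ 4 ≤ i → i = 0 ∨ i = 1 ∨ i = 2 ∨ i = 3 := by decide
        rcases this i h4 with rfl | rfl | rfl | rfl
        · rw [TW_z]; exact zero_le_one
        · rw [TW_c]
        · rw [TW_A]; exact zero_le_one
        · rw [TW_B]; exact zero_le_one
  · intro i hi
    obtain ⟨h4, h5⟩ := (hJ i).1 hi
    rw [TW_flag h4 (hDJ i hi), h5, sub_self]
  · intro i hi hZ
    by_cases hi2 : i ∈ DrW s
    · rw [TW, if_pos hi2]; exact zero_lt_one
    · by_cases h4 : 4 ≤ i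
      · rw [TW_flag h4 hi2]
        simp only [DrW, Set.mem_setOf_eq, not_and, not_lt] at hi2
        have h5 := hi2 h4
        have h6 : (alW i : ℝ) ≠ s := fun h => hi ((hJ i).2 ⟨h4, h⟩)
        rcases h5.lt_or_eq with h7 | h7
        · linarith
        · exact absurd h7 h6
      · have : ∀ i : Fin 18, ¬ 4 ≤ i → i = 0 ∨ i = 1 ∨ i = 2 ∨ i = 3 := by decide
        rcases this i h4 with rfl | rfl | rfl | rfl
        · rw [TW_z]; exact zero_lt_one
        · exact absurd rfl hZ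
        · rw [TW_A]; exact zero_lt_one
        · rw [TW_B]; exact zero_lt_one
  · intro w hw
    have h1 := nat_saW (fun _ => True) s w trivial
    rw [TW_of_not hw.1, h1]
    refine rhs_congr w fun i hi => ?_
    rw [TW_of_not]
    intro hiD
    exact hi (hw.2 i hiD)
  · intro i hi
    rw [TW_of_not hi]
  · exact neg_saW_mem θ hs
  · intro w hw hwJ
    obtain ⟨h4, h5⟩ := (hJ _).1 hwJ
    obtain ⟨l, hl, h2, -⟩ := wall_list w
    -- `s` is one of 1, 2, 3, 4 or there is no wall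
    have h6 := alW_le w.1
    have hs0 : (0:ℝ) < (alW w.1 : ℤ) := by
      have : ((alW w.1 : ℤ) : ℝ) = s := h5
      linarith
    have h7 : 0 < alW w.1 := by exact_mod_cast hs0
    obtain ⟨j, hj⟩ : ∃ j : ℕ, alW w.1 = j := ⟨(alW w.1).toNat, by omega⟩
    have hj5 : j < 5 := by omega
    have hw1 : w.1 ∈ JW ((⟨j, hj5⟩ : Fin 5) : ℕ) := mem_JW.2 ⟨h4, hj⟩
    have hsj : s = (j : ℝ) := by
      rw [← h5]
      have : QW.hd w = w.1 := rfl
      rw [this, hj]; simp
    obtain ⟨i, hi, hiJ⟩ := head_J ⟨j, hj5⟩ w.1 hw1 (by intro h; have := congrArg Fin.val h; simp at this; omega)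
      l hl (fun i hi => by
        by_contra hcon
        have hne := (co_ne h2 i).2 hi
        refine hne (hw.2 i ⟨?_, ?_⟩)
        · by_contra h8
          simp only [alW, if_neg h8] at hcon
          exact hcon (by positivity)
        · rw [hsj]
          have : ((⟨j, hj5⟩ : Fin 5) : ℕ) = j := rfl
          rw [this] at hcon
          have h9 : (j : ℤ) < alW i := not_le.1 hcon
          exact_mod_cast h9)
    refine ⟨i, (hJ i).2 ⟨(mem_JW.1 hiJ).1, ?_⟩, (co_ne h2 i).2 hi⟩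
    rw [(mem_JW.1 hiJ).2, hsj]; simp
  · intro i hi hi1
    rw [Set.mem_singleton_iff.1 hi1] at hi
    exact absurd ((hJ 1).1 hi).1 (by decide)
  · intro i hi hiV
    have := (hV i hiV).2
    rw [((hJ i).1 hi).2] at this
    exact lt_irrefl _ this
  · intro h
    exact absurd ((hJ 0).1 h).1 (by decide)

end Crest.Agent.R136.LadW697
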