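import Crest.Agent.R136.LadW1_697
import Crest.Agent.R136.K2A_146

/-!
# R136, thin branch (helper697): THE LADDER OF THE W-CHART

* `StW .. s lam lo` : stage = the slots of weight `> s` are dropped
* `PinW .. j`  : F-lemma of the integral rung `j` ("a slot of weight `j` is visible ⊢ full loss")
* `DeadW .. s` : F-lemma of the last rung ("full loss")
* `ladW` : first stage + `PinW` for all `j > s` + `DeadW s` is contradictory
-/

set_option autoImplicit false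
set_option linter.unusedVariables false

open Finset

namespace Crest.Agent.R136.LadW697

open Crest.Agent.R136.Net191
open Crest.Agent.R136.NetW191
open Crest.Agent.R136.PrW464
open Crest.Agent.R136.NatW697
open Crest.Agent.R136.K2S774
open Crest.Agent.R136.K2A146
open Crest.Agent.R136.Dg219 (Walls mw)

/-- **stage of slope `s`** : all slots of weight `> s` are dropped -/
def StW (P : Set (Fin 18 → ℝ)) (ν own : (Fin 18 → ℝ) → ℝ) (K : ℝ) (r0 : Fin 18 → ℝ)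
    (θ : Fin 3 → ℝ) (g : ℝ) (q : Fin 3 → ℝ) (V : Set (Fin 18)) (s : ℝ)
    (lam lo : (Fin 18 → ℝ) → ℝ) : Prop :=
  Stage QW P ν own K r0 (btW θ) (DlW g q) (QdW θ) {1} V 0 (btW θ) 1
    (actW (DrW s)) (DrW s) lam lo

/-- **F-lemma on the surface of slope `s`**: `Vis lam'` ⊢ left slope `≥ 3 + s - (g - q 0 (s-1)) + g'`
-/
def FlW (P : Set (Fin 18 → ℝ)) (ν own : (Fin 18 → ℝ) → ℝ) (K : ℝ) (r0 : Fin 18 → ℝ)
    (θ : Fin 3 → ℝ) (g : ℝ) (q : Fin 3 → ℝ) (V : Set (Fin 18)) (s : ℝ)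
    (Vis : ((Fin 18 → ℝ) → ℝ) → Prop) (g' : ℝ) : Prop :=
  ∃ b : Fin 18 → ℝ, (∀ k, k ∉ DrW s → b k = btW θ k) ∧
    ∀ lam lo : (Fin 18 → ℝ) → ℝ, StW P ν own K r0 θ g q V s lam lo →
      FLemA QW (actW (DrW s)) P ν own r0 (DlW g q) V 0 (btW θ) (TW s) (saW s) b lam lo Vis g'

/-- the slots of weight `j` can be dropped -/
def PinW (P : Set (Fin 18 → ℝ)) (ν own : (Fin 18 → ℝ) → ℝ) (K : ℝ) (r0 : Fin 18 → ℝ)
    (θ : Fin 3 → ℝ) (g : ℝ) (q : Fin 3 → ℝ) (V : Set (Fin 18)) (j : ℕ) : Prop :=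
  ∃ g' : ℝ, 0 < g' ∧ FlW P ν own K r0 θ g q V j (fun lam' => lam' (ind1 (JW j)) < 0) g'

/-- the last rung -/
def DeadW (P : Set (Fin 18 → ℝ)) (ν own : (Fin 18 → ℝ) → ℝ) (K : ℝ) (r0 : Fin 18 → ℝ)
    (θ : Fin 3 → ℝ) (g : ℝ) (q : Fin 3 → ℝ) (V : Set (Fin 18)) (s : ℝ) : Prop :=
  ∃ g' : ℝ, 0 < g' ∧ FlW P ν own K r0 θ g q V s (fun _ => True) g'

variable {P : Set (Fin 18 → ℝ)} {ν own : (Fin 18 → ℝ) → ℝ} {K : ℝ} {r0 : Fin 18 → ℝ}
  {θ : Fin 3 → ℝ} {g : ℝ} {q : Fin 3 → ℝ} {V : Set (Fin 18)} {s : ℝ} {lam lo : (Fin 18 → ℝ) → ℝ}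

theorem StW.congr {s' : ℝ} (h : DrW s = DrW s') (H : StW P ν own K r0 θ g q V s lam lo) :
    StW P ν own K r0 θ g q V s' lam lo := by
  unfold StW at H ⊢
  rw [← h]; exact H

/-- **one rung** -/
theorem StW.pin {j : ℕ} (hj : 1 ≤ j) {s' : ℝ} (h1 : s' < j) (h2 : (j:ℝ) - 1 ≤ s')
    (hV : ∀ k ∈ V, 4 ≤ k ∧ (alW k : ℝ) < j) (H : StW P ν own K r0 θ g q V j lam lo)
    (F : PinW P ν own K r0 θ g q V j) : ∃ lam2 lo2, StW P ν own K r0 θ g q V s' lam2 lo2 := by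
  obtain ⟨g', hg', b, hb, hF⟩ := F
  have hj0 : (0:ℝ) < j := by exact_mod_cast hj
  have hJ : ∀ k, k ∈ JW j ↔ 4 ≤ k ∧ (alW k : ℝ) = (j : ℝ) := fun k => by
    rw [mem_JW]
    constructor
    · rintro ⟨h3, h4⟩; exact ⟨h3, by rw [h4]; simp⟩
    · rintro ⟨h3, h4⟩; exact ⟨h3, by exact_mod_cast h4⟩
  obtain ⟨lam2, lo2, h3⟩ := rungA H (recW θ _ _) (rungW hj0 hV hb hJ) hg' (hF lam lo H)
  rw [A2_actW, DrW_union (j := j) (by simp) h1 h2] at h3
  exact ⟨lam2, lo2, h3⟩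

/-- **the last rung** -/
theorem StW.dead (hs : 0 < s) (hV : ∀ k ∈ V, 4 ≤ k ∧ (alW k : ℝ) < s)
    (H : StW P ν own K r0 θ g q V s lam lo) (F : DeadW P ν own K r0 θ g q V s) : False := by
  classical
  obtain ⟨g', hg', b, hb, hF⟩ := F
  exact deadA H (recW θ _ _) (rungW (J := univ.filter fun k => 4 ≤ k ∧ (alW k : ℝ) = s)
    hs hV hb (fun k => by simp)) hg' (hF lam lo H)

/-- all rungs down to `j > s` -/
theorem StW.down {s : ℝ} (hs : 0 < s) (hV : ∀ k ∈ V, 4 ≤ k ∧ (alW k : ℝ) < s)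
    (hst : ∃ lam lo, StW P ν own K r0 θ g q V 4 lam lo)
    (pins : ∀ j : ℕ, 1 ≤ j → j ≤ 4 → s < j → PinW P ν own K r0 θ g q V j) :
    ∃ lam lo, StW P ν own K r0 θ g q V s lam lo := by
  have key : ∀ m : ℕ, m ≤ 4 → s < ((4 - m : ℕ) : ℝ) →
      ∃ lam lo, StW P ν own K r0 θ g q V ((4 - m : ℕ) : ℝ) lam lo := by
    intro m
    induction m with
    | zero => intro _ _; simpa using hst
    | succ m ih =>
      intro hm hsm
      have hm4 : 4 - m = (4 - (m + 1)) + 1 := by omega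
      have h1 : s < ((4 - m : ℕ) : ℝ) := by
        rw [hm4, Nat.cast_add, Nat.cast_one]; linarith
      obtain ⟨lam, lo, h2⟩ := ih (by omega) h1
      refine h2.pin (by omega) ?_ ?_ (fun k hk => ⟨(hV k hk).1, (hV k hk).2.trans h1⟩)
        (pins _ (by omega) (by omega) h1)
      · rw [hm4, Nat.cast_add, Nat.cast_one]; linarith
      · rw [hm4, Nat.cast_add, Nat.cast_one]; linarith
  rcases le_or_gt 4 s with h4 | h4
  · obtain ⟨lam, lo, h⟩ := hst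
    exact ⟨lam, lo, h.congr (by rw [DrW_four h4, DrW_four le_rfl])⟩
  · -- the smallest integer above `s`
    obtain ⟨j, hj1, hj2⟩ : ∃ j : ℕ, s < j ∧ (j:ℝ) - 1 ≤ s := by
      refine ⟨⌊s⌋₊ + 1, ?_, ?_⟩
      · push_cast; exact Nat.lt_floor_add_one s
      · push_cast
        have := Nat.floor_le hs.le
        linarith
    have hj4 : j ≤ 4 := by
      by_contra hcon
      have : (5:ℝ) ≤ j := by exact_mod_cast (by omega : 5 ≤ j)
      linarith
    have hj0 : 1 ≤ j := by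
      by_contra hcon
      have : j = 0 := by omega
      rw [this] at hj1; simp at hj1; linarith
    have e : 4 - (4 - j) = j := by omega
    obtain ⟨lam, lo, h⟩ := key (4 - j) (by omega) (by rw [e]; exact hj1)
    rw [e] at h
    exact h.pin hj0 hj1 hj2 (fun k hk => ⟨(hV k hk).1, (hV k hk).2.trans hj1⟩)
      (pins j hj0 hj4 hj1)

/-- **THE LADDER** -/
theorem ladW {s : ℝ} (hs : 0 < s) (hV : ∀ k ∈ V, 4 ≤ k ∧ (alW k : ℝ) < s)
    (hst : ∃ lam lo, StW P ν own K r0 θ g q V 4 lam lo)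
    (pins : ∀ j : ℕ, 1 ≤ j → j ≤ 4 → s < j → PinW P ν own K r0 θ g q V j)
    (dead : DeadW P ν own K r0 θ g q V s) : False := by
  obtain ⟨lam, lo, h⟩ := StW.down hs hV hst pins
  exact h.dead hs hV dead

end Crest.Agent.R136.LadW697
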