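import Crest.Agent.R136.LadW2_697

/-!
# R136, thin branch (helper697): facts at the points left of the record line

* `StW.ind_pt` : a tangent at a point of the surface does not depend on the dropped slots
* `StW.sweep`  : the slot `c` costs at least `q₁ + 2 q₂` per unit at every point of the surface left
  of the record line (supermodularity against the record box with the same `t`, D-max)
-/

set_option autoImplicit false
set_option linter.unusedVariables false

open Finset Filter Topology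

namespace Crest.Agent.R136.LadW697

open Crest.Agent.R136.Net191
open Crest.Agent.R136.NetW191
open Crest.Agent.R136.PrW464
open Crest.Agent.R136.NatW697
open Crest.Agent.R136.K2S774
open Crest.Agent.R136.K2A146
open Crest.Agent.R136.Dg219 (Walls mw)
open Crest.Agent.R136.Dg262 (X)
open Crest.Agent.R138

variable {P : Set (Fin 18 → ℝ)} {ν own : (Fin 18 → ℝ) → ℝ} {K : ℝ} {r0 : Fin 18 → ℝ}
  {θ : Fin 3 → ℝ} {g : ℝ} {q : Fin 3 → ℝ} {V : Set (Fin 18)} {s : ℝ} {lam lo : (Fin 18 → ℝ) → ℝ}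

/-- unit vector of the slot `c` -/
def e1W : Fin 18 → ℝ := Pi.single 1 1
/-- the sweep `c, A, B` by `1, 1, 2` -/
def swW : Fin 18 → ℝ := ![0, 1, 1, 2, 0, 0, 0, 0, 0, 0, 0, 0, 0, 0, 0, 0, 0, 0]

theorem e1W_nonneg (i : Fin 18) : 0 ≤ e1W i := by
  unfold e1W; by_cases h : i = 1
  · subst h; simp
  · rw [Pi.single_eq_of_ne h]

theorem swW_nonneg (i : Fin 18) : 0 ≤ swW i := by
  fin_cases i <;> simp [swW]

/-- raising slots without walls -/
theorem mem_cn_of_head {A : WW → Prop} {n c : Fin 18 → ℝ} (hn : c ∈ cn QW A) (hc : c ≤ n)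
    (hh : ∀ w, A w → n (QW.hd w) = c (QW.hd w)) : n ∈ cn QW A := fun w hw => by
  rw [hh w hw]
  exact (hn w hw).trans (rhs_mono w hc)

theorem no_wall_c (w : WW) : QW.hd w ≠ 0 ∧ QW.hd w ≠ 1 := by
  obtain ⟨l, hl, -, -⟩ := wall_list w
  have h0 : mlW 0 = [] := by decide
  have h1 : mlW 1 = [] := by decide
  constructor
  · intro h
    have h' : w.1 = 0 := h
    rw [h', h0] at hl; exact absurd hl (by simp)
  · intro h
    have h' : w.1 = 1 := h
    rw [h', h1] at hl; exact absurd hl (by simp)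

theorem add_e1_mem {A : WW → Prop} {c : Fin 18 → ℝ} (hc : c ∈ cn QW A) {t : ℝ} (ht : 0 ≤ t) :
    c + t • e1W ∈ cn QW A := by
  refine mem_cn_of_head hc (fun i => ?_) fun w _ => ?_
  · simp only [Pi.add_apply, Pi.smul_apply, smul_eq_mul]
    nlinarith [e1W_nonneg i]
  · have := (no_wall_c w).2
    simp only [Pi.add_apply, Pi.smul_apply, smul_eq_mul, e1W, Pi.single_eq_of_ne this]
    ring

theorem swW_mem (A : WW → Prop) : swW ∈ cn QW A := by
  intro w _
  obtain ⟨l, hl, -, h3⟩ := wall_list w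
  rw [h3]
  have key : ∀ k : Fin 18, ∀ l ∈ mlW k,
      (![0, 1, 1, 2, 0, 0, 0, 0, 0, 0, 0, 0, 0, 0, 0, 0, 0, 0] : Fin 18 → ℤ) k ≤
      (l.map (![0, 1, 1, 2, 0, 0, 0, 0, 0, 0, 0, 0, 0, 0, 0, 0, 0, 0] : Fin 18 → ℤ)).sum := by
    decide
  have e : swW = fun k => (((![0, 1, 1, 2, 0, 0, 0, 0, 0, 0, 0, 0, 0, 0, 0, 0, 0, 0] : Fin 18 → ℤ) k : ℤ) : ℝ) := by
    funext k; fin_cases k <;> simp [swW]
  have h4 := key _ l hl
  rw [e, list_sum_real]
  have h5 : ((((![0, 1, 1, 2, 0, 0, 0, 0, 0, 0, 0, 0, 0, 0, 0, 0, 0, 0] : Fin 18 → ℤ) w.1 : ℤ)) : ℝ) ≤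
      (((l.map (![0, 1, 1, 2, 0, 0, 0, 0, 0, 0, 0, 0, 0, 0, 0, 0, 0, 0] : Fin 18 → ℤ)).sum : ℤ) : ℝ) :=
    Int.cast_le.2 h4
  exact h5

theorem sum_swW : ∑ i, swW i = 4 := by
  simp [Fin.sum_univ_succ, swW]; norm_num

theorem DlW_grW010 (g : ℝ) (q : Fin 3 → ℝ) : DlW g q (grW 0 1 0) = -(3 + q 1 + 2 * q 2) := by
  simp only [DlW_apply, grW, wz, wc, wn]
  simp
  ring

/-- **the sweep at a record box** -/
theorem StW.sweep_rec (H : StW P ν own K r0 θ g q V s lam lo) {b : Fin 18 → ℝ}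
    (hb : ∀ k, k ∉ DrW s → b k = btW θ k) (hbn : Nat QW (actW (DrW s)) b) (ξ : ℝ) {t : ℝ}
    (ht : 0 ≤ t) : lam (ξ • b + t • e1W) ≤ lam (ξ • b) - (q 1 + 2 * q 2) * t := by
  have hξ : ξ • b ∈ cn QW (actW (DrW s)) := (hbn.smul ξ).mem
  have h1 : lam (ξ • b) = ξ * DlW g q (btW θ) :=
    H.lam_b (nat_btW _ θ) hξ fun i hi => by rw [Pi.smul_apply, smul_eq_mul, hb i hi]
  have m1 : ξ • b + t • e1W ∈ cn QW (actW (DrW s)) := add_e1_mem hξ ht
  have m2 : ξ • b + t • swW ∈ cn QW (actW (DrW s)) := cn_nat_add (hbn.smul ξ) (swW_mem _) ht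
  have h2 : lam (ξ • b + t • swW) ≤ DlW g q (ξ • btW θ + t • grW 0 1 0) := by
    refine H.dmx _ m2 _ (sweep_mem θ ξ t) fun i hi => ?_
    have key : ∀ i : Fin 18, wc i ≤ (![0, 1, 1, 2, 0, 0, 0, 0, 0, 0, 0, 0, 0, 0, 0, 0, 0, 0] : Fin 18 → ℤ) i := by
      decide
    have k2 : grW 0 1 0 i ≤ swW i := by
      have := key i
      have h5 : ((wc i : ℤ) : ℝ) ≤ (((![0, 1, 1, 2, 0, 0, 0, 0, 0, 0, 0, 0, 0, 0, 0, 0, 0, 0] : Fin 18 → ℤ) i : ℤ) : ℝ) := by
        exact_mod_cast this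
      have h6 : (((![0, 1, 1, 2, 0, 0, 0, 0, 0, 0, 0, 0, 0, 0, 0, 0, 0, 0] : Fin 18 → ℤ) i : ℤ) : ℝ) = swW i := by
        fin_cases i <;> simp [swW]
      simp only [grW]
      rw [← h6]
      linarith
    simp only [Pi.add_apply, Pi.smul_apply, smul_eq_mul, hb i hi]
    have := mul_le_mul_of_nonneg_left k2 ht
    linarith
  rw [map_add, map_smul, map_smul, smul_eq_mul, smul_eq_mul, DlW_grW010] at h2
  have h3 := H.prf.sharp _ m1 _ m2 (fun i => by
    simp only [Pi.add_apply, Pi.smul_apply, smul_eq_mul]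
    have : e1W i ≤ swW i := by
      by_cases h : i = 1
      · subst h; simp [e1W, swW]
      · unfold e1W; rw [Pi.single_eq_of_ne h]; exact swW_nonneg i
    nlinarith)
  have h4 : ∑ i, ((ξ • b + t • swW) i - (ξ • b + t • e1W) i) = 3 * t := by
    have : ∀ i, (ξ • b + t • swW) i - (ξ • b + t • e1W) i = t * swW i - t * e1W i := fun i => by
      simp only [Pi.add_apply, Pi.smul_apply, smul_eq_mul]; ring
    rw [Finset.sum_congr rfl fun i _ => this i, Finset.sum_sub_distrib, ← Finset.mul_sum,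
      ← Finset.mul_sum, sum_swW]
    have : ∑ i, e1W i = 1 := by simp [e1W]
    rw [this]; ring
  rw [h4] at h3
  linarith

/-- a box between a point and the record box with the same `t` -/
theorem StW.sweep_box (H : StW P ν own K r0 θ g q V s lam lo) {b : Fin 18 → ℝ}
    (hb : ∀ k, k ∉ DrW s → b k = btW θ k) (hbn : Nat QW (actW (DrW s)) b) {ξ t : ℝ} (ht : 0 ≤ t)
    {p : Fin 18 → ℝ} (hp : p ∈ cn QW (actW (DrW s))) (hle : p ≤ ξ • b) (h1 : p 1 = ξ * b 1) :
    lam (p + t • e1W) ≤ lam p - (q 1 + 2 * q 2) * t := by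
  have hξ : ξ • b ∈ cn QW (actW (DrW s)) := (hbn.smul ξ).mem
  have m1 : p + t • e1W ∈ cn QW (actW (DrW s)) := add_e1_mem hp ht
  have m2 : ξ • b + t • e1W ∈ cn QW (actW (DrW s)) := add_e1_mem hξ ht
  have e1 : (p + t • e1W) ⊔ (ξ • b) = ξ • b + t • e1W := by
    funext i
    simp only [Pi.sup_apply, Pi.add_apply, Pi.smul_apply, smul_eq_mul]
    by_cases h : i = 1
    · subst h
      rw [h1]
      have : e1W 1 = 1 := by simp [e1W]
      rw [this, max_eq_left (by nlinarith)]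
    · have h2 : e1W i = 0 := by unfold e1W; rw [Pi.single_eq_of_ne h]
      rw [h2, mul_zero, add_zero, add_zero]
      exact max_eq_right (by simpa using hle i)
  have e2 : (p + t • e1W) ⊓ (ξ • b) = p := by
    funext i
    simp only [Pi.inf_apply, Pi.add_apply, Pi.smul_apply, smul_eq_mul]
    by_cases h : i = 1
    · subst h
      rw [h1]
      have : e1W 1 = 1 := by simp [e1W]
      rw [this, min_eq_right (by nlinarith)]
    · have h2 : e1W i = 0 := by unfold e1W; rw [Pi.single_eq_of_ne h]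
      rw [h2, mul_zero, add_zero]
      exact min_eq_left (by simpa using hle i)
  have h3 := H.prf.sup _ m1 _ hξ (by rw [e2]; exact hp) (by rw [e1]; exact m2)
  rw [e1, e2] at h3
  have h4 := H.sweep_rec hb hbn ξ ht
  linarith

/-- **the slot `c` at a point left of the record line** (slots of slope `0` not narrowed) -/
theorem StW.sweep (H : StW P ν own K r0 θ g q V s lam lo) {b : Fin 18 → ℝ}
    (hb : ∀ k, k ∉ DrW s → b k = btW θ k) (hbn : Nat QW (actW (DrW s)) b)
    (hT0 : ∀ i, 0 ≤ TW s i) {z : ℝ × ℝ} (hz : z.1 < 0)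
    {k : ℕ → ℝ} {lam' : (Fin 18 → ℝ) → ℝ} (kpos : ∀ l, 0 < k l) (k0 : Tendsto k atTop (𝓝 0))
    (H1 : Ex926.IsTan (cn QW (actW (DrW s))) (cn QW (actW (DrW s))) lam
      (fun _ => X 0 (TW s) b z) k lam')
    {c : Fin 18 → ℝ} (hc : c ∈ cn QW (actW (DrW s))) (hc1 : c 1 = 0)
    (hcT : ∀ i, i ≠ 1 → TW s i = 0 → c i ≤ 0) {t : ℝ} (ht : 0 ≤ t) :
    lam' (c + t • e1W) ≤ lam' c - (q 1 + 2 * q 2) * t := by
  have hB := Dg219.bup_of_tan kpos k0 H1
  have m1 : c + t • e1W ∈ cn QW (actW (DrW s)) := add_e1_mem hc ht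
  have L1 := hB.lim _ m1
  have L2 := hB.lim _ hc
  have L3 := L1.sub L2
  have key : ∀ᶠ l in atTop, (lam (X 0 (TW s) b z + k l • (c + t • e1W)) -
      lam (X 0 (TW s) b z)) / k l - (lam (X 0 (TW s) b z + k l • c) - lam (X 0 (TW s) b z)) / k l ≤
      -((q 1 + 2 * q 2) * t) := by
    have hev : ∀ᶠ l in atTop, X 0 (TW s) b z + k l • c ≤ z.2 • b := by
      have h1 : ∀ i, ∀ᶠ l in atTop, (X 0 (TW s) b z + k l • c) i ≤ (z.2 • b) i := by
        intro i
        rcases (hT0 i).lt_or_eq with h2 | h2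
        · have h3 : Tendsto (fun l => k l * c i) atTop (𝓝 0) := by
            simpa using k0.mul_const (c i)
          have h4 : 0 < -(z.1 * TW s i) := by nlinarith
          filter_upwards [h3.eventually (eventually_lt_nhds h4)] with l hl
          simp only [X, Pi.add_apply, Pi.smul_apply, smul_eq_mul, Pi.zero_apply]
          linarith
        · have h5 : c i ≤ 0 := by
            by_cases h6 : i = 1
            · rw [h6, hc1]
            · exact hcT i h6 h2.symm
          refine Eventually.of_forall fun l => ?_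
          simp only [X, Pi.add_apply, Pi.smul_apply, smul_eq_mul, Pi.zero_apply, ← h2, mul_zero,
            zero_add]
          nlinarith [kpos l]
      exact eventually_all.2 h1
    filter_upwards [hev, hB.mem c hc] with l hl hm
    have hTc : TW s 1 = 0 := TW_c s
    have h6 := H.sweep_box hb hbn (t := k l * t) (mul_nonneg (kpos l).le ht) hm hl (by
      simp only [X, Pi.add_apply, Pi.smul_apply, smul_eq_mul, Pi.zero_apply, hTc, hc1]; ring)
    have e : X 0 (TW s) b z + k l • (c + t • e1W) =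
        X 0 (TW s) b z + k l • c + (k l * t) • e1W := by
      rw [smul_add, smul_smul, add_assoc]
    rw [e, ← sub_div, div_le_iff₀ (kpos l)]
    linarith
  have h7 := le_of_tendsto L3 key
  linarith

/-- **tangents on the surface do not depend on the dropped slots** -/
theorem StW.ind_pt (H : StW P ν own K r0 θ g q V s lam lo) (h1 : 0 < θ 1) {y : Fin 18 → ℝ}
    {k : ℕ → ℝ} {lam' : (Fin 18 → ℝ) → ℝ} (kpos : ∀ l, 0 < k l) (k0 : Tendsto k atTop (𝓝 0))
    (H1 : Ex926.IsTan (cn QW (actW (DrW s))) (cn QW (actW (DrW s))) lam (fun _ => y) k lam')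
    {c c' : Fin 18 → ℝ} (hc : c ∈ cn QW (actW (DrW s))) (hc' : c' ∈ cn QW (actW (DrW s)))
    (hcc : ∀ i, i ∉ DrW s → c i = c' i) : lam' c = lam' c' := by
  have hB := Dg219.bup_of_tan kpos k0 H1
  refine tendsto_nhds_unique (hB.lim c hc) ((hB.lim c' hc').congr' ?_)
  filter_upwards [hB.mem c hc, hB.mem c' hc'] with l a1 a2
  have : lam (y + k l • c) = lam (y + k l • c') := by
    refine H.ind _ a1 _ a2 (fun i hi => ?_) ?_
    · simp only [Pi.add_apply, Pi.smul_apply, smul_eq_mul, hcc i hi]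
    · refine ⟨-((y + k l • c) 1) / θ 1, fun i hi => ?_⟩
      rw [Set.mem_singleton_iff.1 hi]
      have h2 : btW θ 1 = -θ 1 := by simp [btW, grW, wz, wc, wn]
      rw [h2]
      have : -(y + k l • c) 1 / θ 1 * -θ 1 = (y + k l • c) 1 := by field_simp
      rw [this]
  rw [this]

end Crest.Agent.R136.LadW697
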