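import Crest.Agent.R136.Us2_555
import Crest.Agent.R136.Cap1_102

/-!
# R136 (S0187), U6 (helper555), part 3: curvature extent and flatness of the sheet

`fltS_of_kap` : a sheet of the class `ShN` whose curvature extent along ONE of its lines is at most
`X a` lies in a slab of thickness `288 X a` (the whole sheet in its box).
`kap_of_not_flat` : a non-flat mark has curvature extent `≥ d^(-ε/2) a` along each of its lines.
-/

set_option autoImplicit false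
set_option linter.unusedVariables false

open Finset Filter Topology

namespace Crest.Agent.R136.Us555

open Crest.Agent.R138.Ex926 Crest.Agent.R138.Dp76
open Crest.Agent.R138.Mk163 (zc zl rho alive own Negl)
open Crest.Agent.R138.MkRef627 (mem_alive)
open Crest.Agent.R136.MkA627 Crest.Agent.R136.Sh605 Crest.Agent.R136.K4 Crest.Agent.R136.Top484
open Crest.Agent.R136.Ut262 (mkS w_pos ortho_comp isQ_symm)
open Crest.Agent.R136.Tl102 (QF Fq bz IsExp StP cmb fr kap shB1 shG dt_cmb_fr)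

/-! ### the core inequality -/

/-- the factor `P` is not small (`t = |yy|`, `Y = |y|`) -/
theorem core_P {β g0 yy y P : ℝ} (hβ : 1 / 2 ≤ β) (hg0 : 1 / 2 ≤ g0) (hg : g0 = P + yy * y)
    (h2 : 2 * |yy| ≤ β - 1 / 2) (h3 : 2 * |yy| ≤ g0 - 1 / 2) (ub : β * |y| ≤ 13 / 4) :
    1 / 16 ≤ P := by
  by_contra hc
  push Not at hc
  have h1 : 7 / 8 * g0 ≤ |yy| * |y| := by
    rw [← abs_mul]
    exact le_trans (by linarith) (le_abs_self _)
  have h4 : 4 * |yy| ≤ β * g0 := by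
    calc 4 * |yy| ≤ (2 * |yy| + 1 / 2) * (2 * |yy| + 1 / 2) := by
          nlinarith [sq_nonneg (2 * |yy| - 1 / 2)]
      _ ≤ β * g0 := mul_le_mul (by linarith) (by linarith)
          (by have := abs_nonneg yy; linarith) (by linarith)
  have hyy : 0 < |yy| := by
    by_contra h0
    have : |yy| = 0 := le_antisymm (not_lt.1 h0) (abs_nonneg _)
    rw [this] at h1
    linarith
  have h5 : 7 / 2 * |yy| ≤ (β * |y|) * |yy| := by
    calc 7 / 2 * |yy| = 7 / 8 * (4 * |yy|) := by ring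
      _ ≤ 7 / 8 * (β * g0) := by linarith
      _ = β * (7 / 8 * g0) := by ring
      _ ≤ β * (|yy| * |y|) := mul_le_mul_of_nonneg_left h1 (by linarith)
      _ = _ := by ring
  have h6 := le_of_mul_le_mul_right h5 hyy
  linarith

theorem abs_mul_le2 {x y A B : ℝ} (hx : |x| ≤ A) (hy : |y| ≤ B) : |x * y| ≤ A * B := by
  rw [abs_mul]
  exact mul_le_mul hx hy (abs_nonneg _) ((abs_nonneg _).trans hx)

/-- **core**: on a box with `∂₀ ∈ [1/2, 2]`, `|∂₁|, |∂₂| ≤ 1` on the doubled box, a quadratic function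
`F` with `F 0 = 0` which is nearly `y * affine` (`y` = tangent coordinate) has all its small values
near `y = 0`. -/
theorem core {β γ1 γ2 yy yu yv uu uv vv p u v τ0 τ1 τ2 s1 s2 r yu' yv' Fv R κ : ℝ}
    (G0 : ∀ a b c : ℝ, |τ0 + a| ≤ 2 → |τ1 + b| ≤ 2 → |τ2 + c| ≤ 2 →
      1 / 2 ≤ β + 2 * yy * a + yu * b + yv * c ∧ β + 2 * yy * a + yu * b + yv * c ≤ 2)
    (G1 : ∀ a b c : ℝ, |τ0 + a| ≤ 2 → |τ1 + b| ≤ 2 → |τ2 + c| ≤ 2 →
      |γ1 + yu * a + 2 * uu * b + uv * c| ≤ 1)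
    (G2 : ∀ a b c : ℝ, |τ0 + a| ≤ 2 → |τ1 + b| ≤ 2 → |τ2 + c| ≤ 2 →
      |γ2 + yv * a + uv * b + 2 * vv * c| ≤ 1)
    (t0 : |τ0| ≤ 1) (t1 : |τ1| ≤ 1) (t2 : |τ2| ≤ 1) (x0 : |τ0 + p| ≤ 1) (x1 : |τ1 + u| ≤ 1)
    (x2 : |τ2 + v| ≤ 1)
    (hF : Fv = β * p + γ1 * u + γ2 * v + (yy * p ^ 2 + yu * p * u + yv * p * v + uu * u ^ 2 +
      uv * u * v + vv * v ^ 2))
    (hyu : yu' = yu - 2 * s1 * yy) (hyv : yv' = yv - 2 * s2 * yy)
    (hr : β * p + γ1 * u + γ2 * v = β * (p + s1 * u + s2 * v) + r)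
    (hR : Fv = (p + s1 * u + s2 * v) * (β + yy * (p + s1 * u + s2 * v) + yu' * u + yv' * v) + R)
    (hr' : |r| ≤ 4 * κ) (hR' : |R| ≤ 16 * κ) (hFv : |Fv| ≤ 1 / 4) (hκ : κ ≤ 1 / 16) :
    |p + s1 * u + s2 * v| ≤ 16 * |Fv| + 256 * κ := by
  have am : ∀ {τ q : ℝ}, |τ| ≤ 1 → |τ + q| ≤ 1 → |τ + -(q / 2)| ≤ 2 := by
    intro τ q h1 h2
    rw [abs_le] at h1 h2
    exact abs_le.2 ⟨by linarith, by linarith⟩
  have ap : ∀ {τ q : ℝ}, |τ| ≤ 1 → |τ + q| ≤ 1 → |τ + 3 * (q / 2)| ≤ 2 := by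
    intro τ q h1 h2
    rw [abs_le] at h1 h2
    exact abs_le.2 ⟨by linarith, by linarith⟩
  have a1 : ∀ {τ q : ℝ}, |τ + q| ≤ 1 → |τ + q| ≤ 2 := fun h => h.trans (by norm_num)
  have az : ∀ {τ : ℝ}, |τ| ≤ 1 → |τ + 0| ≤ 2 := by
    intro τ h; rw [add_zero]; exact h.trans (by norm_num)
  have aq : ∀ {τ s : ℝ}, |τ| ≤ 1 → |s| ≤ 1 → |τ + s| ≤ 2 := by
    intro τ s h h'; exact (abs_add_le _ _).trans (by linarith)
  have a2 : ∀ {τ q s : ℝ}, |τ + q| ≤ 1 → |s| ≤ 1 → |τ + (q + s)| ≤ 2 := by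
    intro τ q s h h'; rw [← add_assoc]; exact (abs_add_le _ _).trans (by linarith)
  have a3 : ∀ {τ q : ℝ}, |τ| ≤ 1 → |τ + q| ≤ 1 → |q| ≤ 2 := by
    intro τ q h h'
    have e1 : q = (τ + q) - τ := by ring
    rw [e1]
    exact (abs_sub _ _).trans (by linarith)
  have hp : |p| ≤ 2 := a3 t0 x0
  have hu : |u| ≤ 2 := a3 t1 x1
  have hv : |v| ≤ 2 := a3 t2 x2
  have o1 : |(1 : ℝ)| ≤ 1 := by simp
  have o2 : |(-1 : ℝ)| ≤ 1 := by simp
  have m0 := G0 _ _ _ (am t0 x0) (am t1 x1) (am t2 x2)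
  have m1 := abs_le.1 (G1 _ _ _ (am t0 x0) (am t1 x1) (am t2 x2))
  have m2 := abs_le.1 (G2 _ _ _ (am t0 x0) (am t1 x1) (am t2 x2))
  have n0 := G0 _ _ _ (ap t0 x0) (ap t1 x1) (ap t2 x2)
  have n1 := abs_le.1 (G1 _ _ _ (ap t0 x0) (ap t1 x1) (ap t2 x2))
  have n2 := abs_le.1 (G2 _ _ _ (ap t0 x0) (ap t1 x1) (ap t2 x2))
  have k0 := (G0 p u v (a1 x0) (a1 x1) (a1 x2)).1
  have e0 := (G0 0 0 0 (az t0) (az t1) (az t2)).1
  have ea := (G0 1 0 0 (aq t0 o1) (az t1) (az t2)).1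
  have eb := (G0 (-1) 0 0 (aq t0 o2) (az t1) (az t2)).1
  have ka := (G0 (p + 1) u v (a2 x0 o1) (a1 x1) (a1 x2)).1
  have kb := (G0 (p + -1) u v (a2 x0 o2) (a1 x1) (a1 x2)).1
  clear G0 G1 G2 am ap a1 az aq a2 a3 t0 t1 t2 x0 x1 x2 o1 o2
  -- the gradient at `x`
  obtain ⟨g0, hg0⟩ : ∃ g0, g0 = β + 2 * yy * p + yu * u + yv * v := ⟨_, rfl⟩
  obtain ⟨g1, hg1⟩ : ∃ g1, g1 = γ1 + yu * p + 2 * uu * u + uv * v := ⟨_, rfl⟩
  obtain ⟨g2, hg2⟩ : ∃ g2, g2 = γ2 + yv * p + uv * u + 2 * vv * v := ⟨_, rfl⟩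
  -- differences of the gradients
  have d0 : |g0 - β| ≤ 3 / 4 := by
    rw [abs_le, hg0]
    constructor
    · linarith only [m0.1, m0.2, n0.1, n0.2]
    · linarith only [m0.1, m0.2, n0.1, n0.2]
  have d1 : |g1 - γ1| ≤ 1 := by
    rw [abs_le, hg1]
    constructor
    · linarith only [m1.1, m1.2, n1.1, n1.2]
    · linarith only [m1.1, m1.2, n1.1, n1.2]
  have d2 : |g2 - γ2| ≤ 1 := by
    rw [abs_le, hg2]
    constructor
    · linarith only [m2.1, m2.2, n2.1, n2.2]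
    · linarith only [m2.1, m2.2, n2.1, n2.2]
  clear m0 m1 m2 n0 n1 n2
  -- trapezoid rule
  have tz : β * p + γ1 * u + γ2 * v =
      Fv - ((g0 - β) * p + (g1 - γ1) * u + (g2 - γ2) * v) / 2 := by
    rw [hF, hg0, hg1, hg2]; ring
  have q1 := abs_le.1 (abs_mul_le2 d0 hp)
  have q2 := abs_le.1 (abs_mul_le2 d1 hu)
  have q3 := abs_le.1 (abs_mul_le2 d2 hv)
  have hFv' := abs_le.1 hFv
  have hr2 := abs_le.1 hr'
  rw [← hg0] at k0
  have e1 : 1 / 2 ≤ β := by linarith only [e0]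
  obtain ⟨y, hy⟩ : ∃ y, y = p + s1 * u + s2 * v := ⟨_, rfl⟩
  rw [← hy] at hr hR ⊢
  have ub : β * |y| ≤ 13 / 4 := by
    have h1 : |β * y| ≤ 13 / 4 := by
      rw [abs_le]
      constructor
      · linarith only [tz, hr, hκ, q1.1, q1.2, q2.1, q2.2, q3.1, q3.2, hFv'.1, hFv'.2, hr2.1, hr2.2]
      · linarith only [tz, hr, hκ, q1.1, q1.2, q2.1, q2.2, q3.1, q3.2, hFv'.1, hFv'.2, hr2.1, hr2.2]
    rwa [abs_mul, abs_of_pos (by linarith only [e1] : (0 : ℝ) < β)] at h1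
  -- the factor
  obtain ⟨P, hP⟩ : ∃ P, P = β + yy * y + yu' * u + yv' * v := ⟨_, rfl⟩
  rw [← hP] at hR
  have hg : g0 = P + yy * y := by rw [hg0, hP, hyu, hyv, hy]; ring
  have h2 : 2 * |yy| ≤ β - 1 / 2 := by
    have : |yy| ≤ (β - 1 / 2) / 2 := abs_le.2 ⟨by linarith only [ea], by linarith only [eb]⟩
    linarith only [this]
  have h3 : 2 * |yy| ≤ g0 - 1 / 2 := by
    have : |yy| ≤ (g0 - 1 / 2) / 2 :=
      abs_le.2 ⟨by linarith only [ka, hg0], by linarith only [kb, hg0]⟩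
    linarith only [this]
  have hP2 := core_P e1 k0 hg h2 h3 ub
  have h7 : |y| * (1 / 16) ≤ |Fv| + 16 * κ := by
    calc |y| * (1 / 16) ≤ |y| * P := mul_le_mul_of_nonneg_left hP2 (abs_nonneg _)
      _ = |y * P| := by rw [abs_mul, abs_of_pos (by linarith only [hP2] : (0 : ℝ) < P)]
      _ = |Fv - R| := by congr 1; linarith only [hR]
      _ ≤ |Fv| + |R| := abs_sub _ _
      _ ≤ _ := by linarith only [hR']
  linarith only [h7]

/-! ### the gradient on the doubled box -/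

theorem lim_le {A B C : ℝ} (h : ∀ t : ℝ, 0 < t → t ≤ 1 → A + t * B ≤ C) : A ≤ C := by
  by_contra hc
  push Not at hc
  have hB : 0 < 2 * (|B| + 1) := by positivity
  have hp : 0 < (A - C) / (2 * (|B| + 1)) := div_pos (by linarith) hB
  set t := min 1 ((A - C) / (2 * (|B| + 1))) with ht
  have t0 : 0 < t := lt_min one_pos hp
  have t1 : t ≤ 1 := min_le_left _ _
  have t2 : t * (2 * (|B| + 1)) ≤ A - C := by
    rw [← le_div_iff₀ hB]; exact min_le_right _ _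
  have h1 := h t t0 t1
  have h2 : -(t * |B|) ≤ t * B := by
    have := neg_abs_le B
    nlinarith
  nlinarith

theorem lim_ge {A B C : ℝ} (h : ∀ t : ℝ, 0 < t → t ≤ 1 → C ≤ A + t * B) : C ≤ A := by
  have := lim_le (A := -A) (B := -B) (C := -C) fun t h0 h1 => by have := h t h0 h1; linarith
  linarith

section

variable {e : Fin 3 → V3} {c : Ln4} {w : V3} {q : ℝ → V3 → ℝ} {a z0 ρ r0 : ℝ} {T : Ln4}
  {b0 b1 : V3} {G : QF}

theorem inK_of {z : ℝ} (he : Ortho e) (hw : ∀ i, 0 < w i) {x : V3}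
    (hx : ∀ i, |dt (e i) (T.pos z - c.pos z) / w i + x i| ≤ 2) :
    InK e c (dbl3 w) z (T.pos z + cmb (fr e w) x) := by
  intro i
  have h1 := hw i
  have e1 : dt (e i) (T.pos z + cmb (fr e w) x - c.pos z) =
      w i * (dt (e i) (T.pos z - c.pos z) / w i + x i) := by
    have e2 : dt (e i) (T.pos z + cmb (fr e w) x - c.pos z) =
        dt (e i) (T.pos z - c.pos z) + dt (e i) (cmb (fr e w) x) := by
      simp only [dt, Pi.add_apply, Pi.sub_apply]; ring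
    rw [e2, dt_cmb_fr he]
    field_simp
  rw [e1, abs_mul, abs_of_pos h1]
  have := mul_le_mul_of_nonneg_left (hx i) h1.le
  change _ ≤ 2 * w i
  linarith

theorem vec3 {P : Fin 3 → ℝ → Prop} {x0 x1 x2 : ℝ} (h0 : P 0 x0) (h1 : P 1 x1) (h2 : P 2 x2) :
    ∀ i, P i ((![x0, x1, x2] : V3) i) := by
  intro i
  fin_cases i
  · exact h0
  · exact h1
  · exact h2

/-- **gradient on the (closed) doubled box** in the plank coordinates of the line `T`. -/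
theorem grad_box (S : StP e c w q z0 ρ) (hρ : 0 ≤ ρ) (hE : IsExp q e w T z0 ρ b0 b1 G) {ζ : ℝ}
    (h0 : 0 ≤ ζ) (h1 : ζ ≤ 1) {τ0 τ1 τ2 : ℝ}
    (hτ0 : τ0 = dt (e 0) (T.pos (z0 + ρ * ζ) - c.pos (z0 + ρ * ζ)) / w 0)
    (hτ1 : τ1 = dt (e 1) (T.pos (z0 + ρ * ζ) - c.pos (z0 + ρ * ζ)) / w 1)
    (hτ2 : τ2 = dt (e 2) (T.pos (z0 + ρ * ζ) - c.pos (z0 + ρ * ζ)) / w 2) (x y z : ℝ)
    (hx : |τ0 + x| ≤ 2) (hy : |τ1 + y| ≤ 2) (hz : |τ2 + z| ≤ 2) :
    (1 / 2 ≤ b0 0 + ζ * b1 0 + 2 * G.yy * x + G.yu * y + G.yv * z ∧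
      b0 0 + ζ * b1 0 + 2 * G.yy * x + G.yu * y + G.yv * z ≤ 2) ∧
    |b0 1 + ζ * b1 1 + G.yu * x + 2 * G.uu * y + G.uv * z| ≤ 1 ∧
    |b0 2 + ζ * b1 2 + G.yv * x + G.uv * y + 2 * G.vv * z| ≤ 1 := by
  have hw := S.pos
  have z1 : z0 ≤ z0 + ρ * ζ := by nlinarith
  have z2 : z0 + ρ * ζ ≤ z0 + ρ := by nlinarith
  -- points of the shrunk box
  have key : ∀ t : ℝ, 0 < t → t ≤ 1 → ∀ {τ x : ℝ}, |τ + x| ≤ 2 → ∀ s : ℝ, |s| ≤ 2 * t →
      |τ + (x - t * (τ + x) + s)| ≤ 2 := by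
    intro t t0 t1 τ x hx s hs
    have e1 : τ + (x - t * (τ + x) + s) = (1 - t) * (τ + x) + s := by ring
    rw [e1]
    refine (abs_add_le _ _).trans ?_
    rw [abs_mul, abs_of_nonneg (by linarith : 0 ≤ 1 - t)]
    nlinarith [abs_nonneg (τ + x)]
  have key0 : ∀ t : ℝ, 0 < t → t ≤ 1 → ∀ {τ x : ℝ}, |τ + x| ≤ 2 →
      |τ + (x - t * (τ + x))| ≤ 2 := by
    intro t t0 t1 τ x hx
    have := key t t0 t1 hx 0 (by rw [abs_zero]; linarith)
    rwa [add_zero] at this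
  -- inclusion
  have inn : ∀ x y z : ℝ, |τ0 + x| ≤ 2 → |τ1 + y| ≤ 2 → |τ2 + z| ≤ 2 →
      InK e c (dbl3 w) (z0 + ρ * ζ) (T.pos (z0 + ρ * ζ) + cmb (fr e w) ![x, y, z]) := by
    intro x y z hx hy hz
    refine inK_of S.ortho hw ?_
    rw [hτ0] at hx
    rw [hτ1] at hy
    rw [hτ2] at hz
    exact vec3 (P := fun i r => |dt (e i) (T.pos (z0 + ρ * ζ) - c.pos (z0 + ρ * ζ)) / w i + r| ≤ 2)
      hx hy hz
  have w0 := hw 0
  have w1 := hw 1
  have w2 := hw 2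
  have ev : ∀ x y z : ℝ, Fq b0 b1 G ζ ![x, y, z] = (b0 0 + ζ * b1 0) * x + (b0 1 + ζ * b1 1) * y +
      (b0 2 + ζ * b1 2) * z + (G.yy * x ^ 2 + G.yu * x * y + G.yv * x * z + G.uu * y ^ 2 +
        G.uv * y * z + G.vv * z ^ 2) := by
    intro x y z
    simp only [Fq, Tl102.bz, dt, QF.ev, Matrix.cons_val]
    ring
  -- bounds on the shrunk box
  have k0 : ∀ t : ℝ, 0 < t → t ≤ 1 →
      1 / 2 ≤ (b0 0 + ζ * b1 0 + 2 * G.yy * x + G.yu * y + G.yv * z) +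
        t * (-(2 * G.yy * (τ0 + x) + G.yu * (τ1 + y) + G.yv * (τ2 + z))) ∧
      (b0 0 + ζ * b1 0 + 2 * G.yy * x + G.yu * y + G.yv * z) +
        t * (-(2 * G.yy * (τ0 + x) + G.yu * (τ1 + y) + G.yv * (τ2 + z))) ≤ 2 := by
    intro t t0 t1
    have i1 := inn _ _ _ (key t t0 t1 hx (-(2 * t)) (by rw [abs_neg, abs_of_pos (by linarith)]))
      (key0 t t0 t1 hy) (key0 t t0 t1 hz)
    have i2 := inn _ _ _ (key t t0 t1 hx (-(2 * t) + 4 * t) (by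
      rw [abs_of_pos (by linarith)]; linarith)) (key0 t t0 t1 hy) (key0 t t0 t1 hz)
    have e1 : x - t * (τ0 + x) + (-(2 * t) + 4 * t) = x - t * (τ0 + x) + -(2 * t) + 4 * t := by ring
    rw [e1] at i2
    have i3 := i2
    rw [Tl102.cmb_add_zero] at i3
    have h5 := S.st0 _ z1 z2 _ (4 * t * w 0) (by positivity) i1 i3
    rw [← Tl102.cmb_add_zero, hE, hE] at h5
    have e2 : q (z0 + ρ * ζ) (T.pos (z0 + ρ * ζ)) + w 0 * Fq b0 b1 G ζ
        ![x - t * (τ0 + x) + -(2 * t) + 4 * t, y - t * (τ1 + y), z - t * (τ2 + z)] -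
        (q (z0 + ρ * ζ) (T.pos (z0 + ρ * ζ)) + w 0 * Fq b0 b1 G ζ
          ![x - t * (τ0 + x) + -(2 * t), y - t * (τ1 + y), z - t * (τ2 + z)]) =
        4 * t * w 0 * ((b0 0 + ζ * b1 0 + 2 * G.yy * x + G.yu * y + G.yv * z) +
        t * (-(2 * G.yy * (τ0 + x) + G.yu * (τ1 + y) + G.yv * (τ2 + z)))) := by
      rw [ev, ev]; ring
    rw [e2] at h5
    have hp : 0 < 4 * t * w 0 := by positivity
    constructor
    · by_contra hc
      push Not at hc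
      have := mul_lt_mul_of_pos_left hc hp
      linarith [h5.1]
    · by_contra hc
      push Not at hc
      have := mul_lt_mul_of_pos_left hc hp
      linarith [h5.2]
  have k1 : ∀ t : ℝ, 0 < t → t ≤ 1 →
      |(b0 1 + ζ * b1 1 + G.yu * x + 2 * G.uu * y + G.uv * z) +
        t * (-(G.yu * (τ0 + x) + 2 * G.uu * (τ1 + y) + G.uv * (τ2 + z)))| ≤ 1 := by
    intro t t0 t1
    have i1 := inn _ _ _ (key0 t t0 t1 hx)
      (key t t0 t1 hy (-(2 * t)) (by rw [abs_neg, abs_of_pos (by linarith)])) (key0 t t0 t1 hz)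
    have i2 := inn _ _ _ (key0 t t0 t1 hx) (key t t0 t1 hy (-(2 * t) + 4 * t) (by
      rw [abs_of_pos (by linarith)]; linarith)) (key0 t t0 t1 hz)
    have e1 : y - t * (τ1 + y) + (-(2 * t) + 4 * t) = y - t * (τ1 + y) + -(2 * t) + 4 * t := by ring
    rw [e1] at i2
    have i3 := i2
    rw [Tl102.cmb_add_one] at i3
    have h5 := S.st1 _ z1 z2 _ (4 * t * w 1) (by positivity) i1 i3
    rw [← Tl102.cmb_add_one, hE, hE] at h5
    have e2 : q (z0 + ρ * ζ) (T.pos (z0 + ρ * ζ)) + w 0 * Fq b0 b1 G ζ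
        ![x - t * (τ0 + x), y - t * (τ1 + y) + -(2 * t) + 4 * t, z - t * (τ2 + z)] -
        (q (z0 + ρ * ζ) (T.pos (z0 + ρ * ζ)) + w 0 * Fq b0 b1 G ζ
          ![x - t * (τ0 + x), y - t * (τ1 + y) + -(2 * t), z - t * (τ2 + z)]) =
        4 * t * w 0 * ((b0 1 + ζ * b1 1 + G.yu * x + 2 * G.uu * y + G.uv * z) +
        t * (-(G.yu * (τ0 + x) + 2 * G.uu * (τ1 + y) + G.uv * (τ2 + z)))) := by
      rw [ev, ev]; ring
    have e3 : w 0 / w 1 * (4 * t * w 1) = 4 * t * w 0 * 1 := by field_simp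
    have hp : 0 < 4 * t * w 0 := by positivity
    rw [e2, e3, abs_mul, abs_of_pos hp] at h5
    exact le_of_mul_le_mul_left h5 hp
  have k2 : ∀ t : ℝ, 0 < t → t ≤ 1 →
      |(b0 2 + ζ * b1 2 + G.yv * x + G.uv * y + 2 * G.vv * z) +
        t * (-(G.yv * (τ0 + x) + G.uv * (τ1 + y) + 2 * G.vv * (τ2 + z)))| ≤ 1 := by
    intro t t0 t1
    have i1 := inn _ _ _ (key0 t t0 t1 hx) (key0 t t0 t1 hy)
      (key t t0 t1 hz (-(2 * t)) (by rw [abs_neg, abs_of_pos (by linarith)]))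
    have i2 := inn _ _ _ (key0 t t0 t1 hx) (key0 t t0 t1 hy) (key t t0 t1 hz (-(2 * t) + 4 * t) (by
      rw [abs_of_pos (by linarith)]; linarith))
    have e1 : z - t * (τ2 + z) + (-(2 * t) + 4 * t) = z - t * (τ2 + z) + -(2 * t) + 4 * t := by ring
    rw [e1] at i2
    have i3 := i2
    rw [Tl102.cmb_add_two] at i3
    have h5 := S.st2 _ z1 z2 _ (4 * t * w 2) (by positivity) i1 i3
    rw [← Tl102.cmb_add_two, hE, hE] at h5
    have e2 : q (z0 + ρ * ζ) (T.pos (z0 + ρ * ζ)) + w 0 * Fq b0 b1 G ζ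
        ![x - t * (τ0 + x), y - t * (τ1 + y), z - t * (τ2 + z) + -(2 * t) + 4 * t] -
        (q (z0 + ρ * ζ) (T.pos (z0 + ρ * ζ)) + w 0 * Fq b0 b1 G ζ
          ![x - t * (τ0 + x), y - t * (τ1 + y), z - t * (τ2 + z) + -(2 * t)]) =
        4 * t * w 0 * ((b0 2 + ζ * b1 2 + G.yv * x + G.uv * y + 2 * G.vv * z) +
        t * (-(G.yv * (τ0 + x) + G.uv * (τ1 + y) + 2 * G.vv * (τ2 + z)))) := by
      rw [ev, ev]; ring
    have e3 : w 0 / w 2 * (4 * t * w 2) = 4 * t * w 0 * 1 := by field_simp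
    have hp : 0 < 4 * t * w 0 := by positivity
    rw [e2, e3, abs_mul, abs_of_pos hp] at h5
    exact le_of_mul_le_mul_left h5 hp
  refine ⟨⟨lim_ge fun t t0 t1 => (k0 t t0 t1).1, lim_le fun t t0 t1 => (k0 t t0 t1).2⟩, ?_, ?_⟩
  · rw [abs_le]
    exact ⟨lim_ge fun t t0 t1 => (abs_le.1 (k1 t t0 t1)).1,
      lim_le fun t t0 t1 => (abs_le.1 (k1 t t0 t1)).2⟩
  · rw [abs_le]
    exact ⟨lim_ge fun t t0 t1 => (abs_le.1 (k2 t t0 t1)).1,
      lim_le fun t t0 t1 => (abs_le.1 (k2 t t0 t1)).2⟩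

end

/-! ### flatness from a small curvature extent -/

section

variable {e : Fin 3 → V3} {c : Ln4} {w : V3} {q : ℝ → V3 → ℝ} {a z0 ρ r0 : ℝ} {T : Ln4}
  {b0 b1 : V3} {G : QF}

/-- a point in plank coordinates around a line -/
theorem point_eq_cmb (he : Ortho e) (hw : ∀ i, 0 < w i) (P x : V3) :
    x = P + cmb (fr e w) ![dt (e 0) (x - P) / w 0, dt (e 1) (x - P) / w 1,
      dt (e 2) (x - P) / w 2] := by
  funext j
  have h := he.expand (x - P) j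
  have h0 := (hw 0).ne'
  have h1 := (hw 1).ne'
  have h2 := (hw 2).ne'
  have e1 : (x - P) j = x j - P j := rfl
  rw [e1] at h
  simp only [Pi.add_apply, cmb, fr, Pi.smul_apply, smul_eq_mul, Matrix.cons_val]
  have e2 : dt (e 0) (x - P) / w 0 * (w 0 * e 0 j) = dt (e 0) (x - P) * e 0 j := by field_simp
  have e3 : dt (e 1) (x - P) / w 1 * (w 1 * e 1 j) = dt (e 1) (x - P) * e 1 j := by field_simp
  have e4 : dt (e 2) (x - P) / w 2 * (w 2 * e 2 j) = dt (e 2) (x - P) * e 2 j := by field_simp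
  rw [e2, e3, e4]
  linarith

/-- the curvature extent bounds its five entries -/
theorem kap_entries (b0 b1 : V3) (G : QF) :
    |shB1 b0 b1 1| ≤ kap b0 b1 G ∧ |shB1 b0 b1 2| ≤ kap b0 b1 G ∧ |(shG b0 G).uu| ≤ kap b0 b1 G ∧
      |(shG b0 G).uv| ≤ kap b0 b1 G ∧ |(shG b0 G).vv| ≤ kap b0 b1 G := by
  unfold kap
  refine ⟨?_, ?_, ?_, ?_, ?_⟩
  · exact (le_max_left _ _).trans (le_max_left _ _)
  · exact (le_max_right _ _).trans (le_max_left _ _)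
  · exact (le_max_left _ _).trans ((le_max_left _ _).trans (le_max_right _ _))
  · exact (le_max_right _ _).trans ((le_max_left _ _).trans (le_max_right _ _))
  · exact (le_max_right _ _).trans (le_max_right _ _)

/-- normalised position of a line of the box -/
theorem pos_norm {i : Fin 3} (hw : 0 < w i) {x P : V3} (h : |dt (e i) (x - P)| ≤ w i) :
    |dt (e i) (x - P) / w i| ≤ 1 := by
  rw [abs_div, abs_of_pos hw, div_le_one hw]; exact h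

/-- **the tangent coordinate of a point of the sheet** (in its box) -/
theorem tangent_le (S : StP e c w q z0 ρ) (hρ : 0 ≤ ρ) (hE : IsExp q e w T z0 ρ b0 b1 G)
    (hT : ∀ z, z0 ≤ z → z ≤ z0 + ρ → InK e c w z (T.pos z)) {ζ : ℝ} (h0 : 0 ≤ ζ) (h1 : ζ ≤ 1)
    {p u v : ℝ} (hx : InK e c w (z0 + ρ * ζ) (T.pos (z0 + ρ * ζ) + cmb (fr e w) ![p, u, v]))
    (hk : kap b0 b1 G ≤ 1 / 16) (hF : |Fq b0 b1 G ζ ![p, u, v]| ≤ 1 / 4) :
    1 / 2 ≤ b0 0 ∧ |p + b0 1 / b0 0 * u + b0 2 / b0 0 * v| ≤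
      16 * |Fq b0 b1 G ζ ![p, u, v]| + 256 * kap b0 b1 G := by
  have hw := S.pos
  have z1 : z0 ≤ z0 + ρ * ζ := by nlinarith
  have z2 : z0 + ρ * ζ ≤ z0 + ρ := by nlinarith
  have hn : ∀ z, z0 ≤ z → z ≤ z0 + ρ → ∀ i, |dt (e i) (T.pos z - c.pos z) / w i| ≤ 1 :=
    fun z h h' i => pos_norm (hw i) (hT z h h' i)
  have hb : 1 / 2 ≤ b0 0 := by
    have n0 : ∀ i, |dt (e i) (T.pos (z0 + ρ * 0) - c.pos (z0 + ρ * 0)) / w i + 0| ≤ 2 := by
      intro i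
      rw [add_zero]
      exact (hn _ (by simp) (by simpa using hρ) i).trans (by norm_num)
    have h5 := (grad_box S hρ hE (ζ := 0) le_rfl zero_le_one rfl rfl rfl 0 0 0 (n0 0) (n0 1)
      (n0 2)).1.1
    simpa using h5
  refine ⟨hb, ?_⟩
  have hb0 : b0 0 ≠ 0 := by linarith
  obtain ⟨k1, k2, k3, k4, k5⟩ := kap_entries b0 b1 G
  have t0 := hn _ z1 z2 0
  have t1 := hn _ z1 z2 1
  have t2 := hn _ z1 z2 2
  have hxi : ∀ i, |dt (e i) (T.pos (z0 + ρ * ζ) - c.pos (z0 + ρ * ζ)) / w i +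
      (![p, u, v] : V3) i| ≤ 1 := by
    intro i
    have h5 := hx i
    have e1 : dt (e i) (T.pos (z0 + ρ * ζ) + cmb (fr e w) ![p, u, v] - c.pos (z0 + ρ * ζ)) =
        w i * (dt (e i) (T.pos (z0 + ρ * ζ) - c.pos (z0 + ρ * ζ)) / w i + (![p, u, v] : V3) i) := by
      have e2 : dt (e i) (T.pos (z0 + ρ * ζ) + cmb (fr e w) ![p, u, v] - c.pos (z0 + ρ * ζ)) =
          dt (e i) (T.pos (z0 + ρ * ζ) - c.pos (z0 + ρ * ζ)) +
            dt (e i) (cmb (fr e w) ![p, u, v]) := by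
        simp only [dt, Pi.add_apply, Pi.sub_apply]; ring
      rw [e2, dt_cmb_fr S.ortho]
      have := (hw i).ne'
      field_simp
    rw [e1, abs_mul, abs_of_pos (hw i)] at h5
    exact le_of_mul_le_mul_left (by linarith) (hw i)
  have x0 : |dt (e 0) (T.pos (z0 + ρ * ζ) - c.pos (z0 + ρ * ζ)) / w 0 + p| ≤ 1 := hxi 0
  have x1 : |dt (e 1) (T.pos (z0 + ρ * ζ) - c.pos (z0 + ρ * ζ)) / w 1 + u| ≤ 1 := hxi 1
  have x2 : |dt (e 2) (T.pos (z0 + ρ * ζ) - c.pos (z0 + ρ * ζ)) / w 2 + v| ≤ 1 := hxi 2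
  have hGB := grad_box S hρ hE h0 h1 rfl rfl rfl
  have ev : Fq b0 b1 G ζ ![p, u, v] = (b0 0 + ζ * b1 0) * p + (b0 1 + ζ * b1 1) * u +
      (b0 2 + ζ * b1 2) * v + (G.yy * p ^ 2 + G.yu * p * u + G.yv * p * v + G.uu * u ^ 2 +
        G.uv * u * v + G.vv * v ^ 2) := by
    simp only [Fq, Tl102.bz, dt, QF.ev, Matrix.cons_val]
    ring
  have hu : |u| ≤ 2 := by
    have e1 : u = (dt (e 1) (T.pos (z0 + ρ * ζ) - c.pos (z0 + ρ * ζ)) / w 1 + u) -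
      dt (e 1) (T.pos (z0 + ρ * ζ) - c.pos (z0 + ρ * ζ)) / w 1 := by ring
    rw [e1]
    exact (abs_sub _ _).trans (by linarith)
  have hv : |v| ≤ 2 := by
    have e1 : v = (dt (e 2) (T.pos (z0 + ρ * ζ) - c.pos (z0 + ρ * ζ)) / w 2 + v) -
      dt (e 2) (T.pos (z0 + ρ * ζ) - c.pos (z0 + ρ * ζ)) / w 2 := by ring
    rw [e1]
    exact (abs_sub _ _).trans (by linarith)
  have r1 : |ζ * (shB1 b0 b1 1 * u + shB1 b0 b1 2 * v)| ≤ 4 * kap b0 b1 G := by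
    rw [abs_mul, abs_of_nonneg h0]
    have h5 := (abs_add_le (shB1 b0 b1 1 * u) (shB1 b0 b1 2 * v)).trans
      (add_le_add (abs_mul_le2 k1 hu) (abs_mul_le2 k2 hv))
    calc ζ * |shB1 b0 b1 1 * u + shB1 b0 b1 2 * v| ≤ 1 * |shB1 b0 b1 1 * u + shB1 b0 b1 2 * v| :=
          mul_le_mul_of_nonneg_right h1 (abs_nonneg _)
      _ ≤ _ := by linarith
  have r2 : |ζ * (shB1 b0 b1 1 * u + shB1 b0 b1 2 * v) + ((shG b0 G).uu * (u * u) +
      (shG b0 G).uv * (u * v) + (shG b0 G).vv * (v * v))| ≤ 16 * kap b0 b1 G := by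
    have huu := abs_mul_le2 hu hu
    have huv := abs_mul_le2 hu hv
    have hvv := abs_mul_le2 hv hv
    have j1 := abs_mul_le2 k3 huu
    have j2 := abs_mul_le2 k4 huv
    have j3 := abs_mul_le2 k5 hvv
    refine (abs_add_le _ _).trans ?_
    have j4 := (abs_add_le ((shG b0 G).uu * (u * u) + (shG b0 G).uv * (u * v))
      ((shG b0 G).vv * (v * v))).trans (add_le_add (abs_add_le _ _) le_rfl)
    linarith
  refine core (β := b0 0 + ζ * b1 0) (γ1 := b0 1 + ζ * b1 1) (γ2 := b0 2 + ζ * b1 2) (yy := G.yy)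
    (yu := G.yu) (yv := G.yv) (uu := G.uu) (uv := G.uv) (vv := G.vv)
    (yu' := G.yu - 2 * (b0 1 / b0 0) * G.yy) (yv' := G.yv - 2 * (b0 2 / b0 0) * G.yy)
    (fun x y z hx hy hz => (hGB x y z hx hy hz).1) (fun x y z hx hy hz => (hGB x y z hx hy hz).2.1)
    (fun x y z hx hy hz => (hGB x y z hx hy hz).2.2) t0 t1 t2 x0 x1 x2 ev rfl rfl ?_ ?_ r1 r2 hF hk
  · simp only [shB1, Matrix.cons_val]
    field_simp
    ring
  · rw [ev]
    simp only [shB1, shG, Matrix.cons_val]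
    field_simp
    ring

/-- **A SHEET WITH SMALL CURVATURE EXTENT ALONG ONE OF ITS LINES IS FLAT.** -/
theorem fltS_of_kap (h : ShN e c w q a z0 ρ r0) (ha : 0 < a) (hρ : 0 < ρ)
    (hT : InSheet T e c w q a z0 ρ) (hE : IsExp q e w T z0 ρ b0 b1 G) {X : ℝ} (hX : 1 ≤ X)
    (hk : w 0 * kap b0 b1 G ≤ X * a) : FltS e c w q a z0 ρ (288 * X) := by
  have hw := w_pos h ha
  by_cases hw0 : w 0 ≤ 16 * X * a
  · refine ⟨e 0, by rw [h.ortho 0 0]; simp, c, fun z _ _ x hx _ => (hx 0).trans ?_⟩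
    have : 0 ≤ X * a := by positivity
    linarith
  push Not at hw0
  have S : StP e c w q z0 ρ := StP.of_shN h (hw 0)
  have hTK : ∀ z, z0 ≤ z → z ≤ z0 + ρ → InK e c w z (T.pos z) := fun z h h' => (hT z h h').1
  have hXa : a ≤ X * a := by nlinarith
  have hk16 : kap b0 b1 G ≤ 1 / 16 := by
    by_contra hc
    push Not at hc
    have := mul_lt_mul_of_pos_left hc (hw 0)
    linarith
  -- the normal vector
  set s1 := b0 1 / b0 0 with hs1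
  set s2 := b0 2 / b0 0 with hs2
  set N : V3 := e 0 + (s1 * (w 0 / w 1)) • e 1 + (s2 * (w 0 / w 2)) • e 2 with hN
  have hNd : ∀ x, dt N x = dt (e 0) x + s1 * (w 0 / w 1) * dt (e 1) x +
      s2 * (w 0 / w 2) * dt (e 2) x := by
    intro x; rw [hN]; simp only [add_dt, smul_dt]
  have hNN : dt N N = 1 + (s1 * (w 0 / w 1)) ^ 2 + (s2 * (w 0 / w 2)) ^ 2 := by
    have o := h.ortho
    rw [hNd, hN]
    simp only [dt_add, dt_smul, o 0 0, o 0 1, o 0 2, o 1 0, o 1 1, o 1 2, o 2 0, o 2 1, o 2 2]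
    simp only [if_true, Fin.isValue, Fin.reduceEq, if_false]
    ring
  have hN1 : 1 ≤ dt N N := by
    rw [hNN]
    nlinarith [sq_nonneg (s1 * (w 0 / w 1)), sq_nonneg (s2 * (w 0 / w 2))]
  set M := Real.sqrt (dt N N) with hM
  have hM1 : 1 ≤ M := by rw [hM]; exact Real.one_le_sqrt.2 hN1
  have hMM : M * M = dt N N := Real.mul_self_sqrt (by linarith)
  refine ⟨(1 / M) • N, ?_, T, fun z hz0 hz1 x hx hq => ?_⟩
  · rw [smul_dt, dt_smul, ← hMM]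
    field_simp
  obtain ⟨ζ, hζ0, hζ1, rfl⟩ : ∃ ζ, 0 ≤ ζ ∧ ζ ≤ 1 ∧ z = z0 + ρ * ζ := by
    refine ⟨(z - z0) / ρ, div_nonneg (by linarith) hρ.le, (div_le_one hρ).2 (by linarith), ?_⟩
    field_simp
    ring
  have hxe := point_eq_cmb h.ortho hw (T.pos (z0 + ρ * ζ)) x
  set p := dt (e 0) (x - T.pos (z0 + ρ * ζ)) / w 0 with hp
  set u := dt (e 1) (x - T.pos (z0 + ρ * ζ)) / w 1 with hu
  set v := dt (e 2) (x - T.pos (z0 + ρ * ζ)) / w 2 with hv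
  -- the value
  have hval := hE ζ ![p, u, v]
  rw [← hxe] at hval
  have hqT := (hT _ hz0 hz1).2
  have hFa : w 0 * |Fq b0 b1 G ζ ![p, u, v]| ≤ 2 * a := by
    rw [show w 0 * |Fq b0 b1 G ζ ![p, u, v]| = |w 0 * Fq b0 b1 G ζ ![p, u, v]| by
      rw [abs_mul, abs_of_pos (hw 0)]]
    have e1 : w 0 * Fq b0 b1 G ζ ![p, u, v] = q (z0 + ρ * ζ) x -
      q (z0 + ρ * ζ) (T.pos (z0 + ρ * ζ)) := by linarith
    rw [e1]
    exact (abs_sub _ _).trans (by linarith)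
  have hF4 : |Fq b0 b1 G ζ ![p, u, v]| ≤ 1 / 4 := by
    by_contra hc
    push Not at hc
    have := mul_lt_mul_of_pos_left hc (hw 0)
    linarith
  have hx' : InK e c w (z0 + ρ * ζ) (T.pos (z0 + ρ * ζ) + cmb (fr e w) ![p, u, v]) := by
    rw [← hxe]; exact hx
  obtain ⟨-, ht⟩ := tangent_le S hρ.le hE hTK hζ0 hζ1 hx' hk16 hF4
  have hy : dt N (x - T.pos (z0 + ρ * ζ)) = w 0 * (p + s1 * u + s2 * v) := by
    rw [hNd, hp, hu, hv]
    have h0 := (hw 0).ne'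
    have h1 := (hw 1).ne'
    have h2 := (hw 2).ne'
    field_simp
  rw [smul_dt, hy, abs_mul, abs_mul, abs_of_pos (hw 0), abs_of_pos (by positivity : 0 < 1 / M)]
  have h5 : 1 / M ≤ 1 := by rw [div_le_one (by linarith)]; exact hM1
  have h6 : 0 ≤ w 0 * |p + s1 * u + s2 * v| := mul_nonneg (hw 0).le (abs_nonneg _)
  have h7 : w 0 * |p + s1 * u + s2 * v| ≤ 16 * (w 0 * |Fq b0 b1 G ζ ![p, u, v]|) +
      256 * (w 0 * kap b0 b1 G) := by
    have := mul_le_mul_of_nonneg_left ht (hw 0).le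
    linarith
  calc 1 / M * (w 0 * |p + s1 * u + s2 * v|) ≤ 1 * (w 0 * |p + s1 * u + s2 * v|) :=
        mul_le_mul_of_nonneg_right h5 h6
    _ ≤ 288 * X * a := by linarith

/-- contrapositive -/
theorem kap_of_not_fltS (h : ShN e c w q a z0 ρ r0) (ha : 0 < a) (hρ : 0 < ρ)
    (hT : InSheet T e c w q a z0 ρ) (hE : IsExp q e w T z0 ρ b0 b1 G) {X : ℝ} (hX : 1 ≤ X)
    (hf : ¬ FltS e c w q a z0 ρ (288 * X)) : X * a < w 0 * kap b0 b1 G := by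
  by_contra hc
  exact hf (fltS_of_kap h ha hρ hT hE hX (not_lt.1 hc))

end

/-- **a non-flat mark has a large curvature extent along every line of its class** -/
theorem J1c.kap_of_not_flat {η : ℝ} {p : Par4} {D : Dat4} (hJ : J1c η p D) (v : ℚ) (h0 : 0 ≤ v)
    (h1 : v ≤ 1) {ε : ℝ} (hε : 0 < ε) {J : ℕ → Finset (ℕ × ℝ)} (hJI : ∀ n, J n ⊆ D.I n)
    (hf : ∀ᶠ n in (U : Filter ℕ), ∀ x ∈ J n, ¬ FltSM D (D.B.d n ^ (-ε)) n v x) :
    ∀ᶠ n in (U : Filter ℕ), ∀ x ∈ J n, ∀ (T : Ln4) (b0 b1 : V3) (G : QF),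
      InSheet T (mkS D n v x).e (mkS D n v x).c (mkS D n v x).w (mkS D n v x).q (mkS D n v x).a
        (zl (D.lev n v) (zc (D.lev n v) x.2)) (rho (D.lev n v)) →
      IsExp (mkS D n v x).q (mkS D n v x).e (mkS D n v x).w T
        (zl (D.lev n v) (zc (D.lev n v) x.2)) (rho (D.lev n v)) b0 b1 G →
      D.B.d n ^ (-(ε / 2)) * (mkS D n v x).a < (mkS D n v x).w 0 * kap b0 b1 G := by
  filter_upwards [hf, hJ.mka.mark v h0 h1, Crest.Agent.R138.Ps926.dpow_small D.B (c := ε / 2)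
    (by positivity) (ε := 1 / 288) (by norm_num)] with n a1 a2 a3 x hx T b0 b1 G hT hE
  obtain ⟨m1, m2, m3, m4⟩ := a2 (zc (D.lev n v) x.2) x.1 (mem_alive.2 ⟨x, hJI n hx, rfl, rfl⟩)
  have ha : 0 < (mkS D n v x).a := J1c.mark_pos hJ m2
  have hp := dpow_pos D.B n (ε / 2)
  have hm := dpow_pos D.B n (-(ε / 2))
  have e1 : D.B.d n ^ (-(ε / 2)) * D.B.d n ^ (ε / 2) = 1 := by
    rw [← dpow_add, neg_add_cancel, Real.rpow_zero]
  have e2 : D.B.d n ^ (-ε) = D.B.d n ^ (-(ε / 2)) * D.B.d n ^ (-(ε / 2)) := by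
    rw [← dpow_add]; congr 1; ring
  set X := D.B.d n ^ (-(ε / 2)) with hX
  have hX2 : 288 ≤ X := by
    by_contra hc
    push Not at hc
    nlinarith
  refine kap_of_not_fltS m2.1 ha (rho_pos _) hT hE (by linarith) fun hc => a1 x hx ?_
  refine FltS.mono hc ha.le ?_
  rw [e2]
  nlinarith

/-- `J1` form -/
theorem kap_of_not_flat {η : ℝ} {p : Par4} {D : Dat4} (hJ : J1 η p D) (v : ℚ) (h0 : 0 ≤ v)
    (h1 : v ≤ 1) {ε : ℝ} (hε : 0 < ε) {J : ℕ → Finset (ℕ × ℝ)} (hJI : ∀ n, J n ⊆ D.I n)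
    (hf : ∀ᶠ n in (U : Filter ℕ), ∀ x ∈ J n, ¬ FltSM D (D.B.d n ^ (-ε)) n v x) :
    ∀ᶠ n in (U : Filter ℕ), ∀ x ∈ J n, ∀ (T : Ln4) (b0 b1 : V3) (G : QF),
      InSheet T (mkS D n v x).e (mkS D n v x).c (mkS D n v x).w (mkS D n v x).q (mkS D n v x).a
        (zl (D.lev n v) (zc (D.lev n v) x.2)) (rho (D.lev n v)) →
      IsExp (mkS D n v x).q (mkS D n v x).e (mkS D n v x).w T
        (zl (D.lev n v) (zc (D.lev n v) x.2)) (rho (D.lev n v)) b0 b1 G →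
      D.B.d n ^ (-(ε / 2)) * (mkS D n v x).a < (mkS D n v x).w 0 * kap b0 b1 G :=
  J1c.kap_of_not_flat hJ.toJ1c v h0 h1 hε hJI hf

end Crest.Agent.R136.Us555
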