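import Crest.Agent.R136.Stc7_321
import Crest.Agent.R136.Us3_555

/-!
# R136, U6 thin side, stage C (helper327): lateral extents of a class, part 1 (finite)

`tau_le` : relative position of two lines of a curved sheet in the adapted basis; `lat_hat` :
lateral position in container coordinates; `lat_nrm` : in normal coordinates.
-/

set_option autoImplicit false
set_option linter.unusedVariables false

namespace Crest.Agent.R136.Lat327

open Crest.Agent.R136.Sh605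
open Crest.Agent.R136.K4
open Crest.Agent.R136.NetW191
open Crest.Agent.R136.GeoN778
open Crest.Agent.R136.Wit321
open Crest.Agent.R136.Stc321
open Crest.Agent.R136.Tl102 (QF Fq bz fan shB0 scB1 scG shG shB1 kap NrmC IsExp fr cmb StP OmB om0
  om1 omM tv pv gl gM sD yc cmb_pv)
open Crest.Agent.R136.Thn768 (Own)
open Crest.Agent.R136.Us555 (tangent_le pos_norm)

/-- **relative position of two lines of a curved sheet** -/
theorem tau_le {S : Plk4} {T T2 : Ln4} {z0 ρ δ r : ℝ} {b0 b1 : V3} {G : QF}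
    (O : Own S T z0 ρ δ b0 b1 G) (hS : ShN S.e S.c S.w S.q S.a z0 ρ r)
    (h1 : InSheet T S.e S.c S.w S.q S.a z0 ρ) (h2 : InSheet T2 S.e S.c S.w S.q S.a z0 ρ)
    (hthin : 8 * S.a ≤ S.w 0 * kap b0 b1 G) {Z : ℝ} (hZ : z0 ≤ Z) (hZ' : Z ≤ z0 + ρ) :
    |tv (kap b0 b1 G) b0 S.e S.w (T2.pos Z - T.pos Z) 0| ≤ 300 ∧
      |tv (kap b0 b1 G) b0 S.e S.w (T2.pos Z - T.pos Z) 1| ≤ 2 ∧
      |tv (kap b0 b1 G) b0 S.e S.w (T2.pos Z - T.pos Z) 2| ≤ 2 := by
  have hρ := O.hρ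
  have hk := O.k0
  have hw := O.pos
  have P : StP S.e S.c S.w S.q z0 ρ := StP.of_shN hS (hw 0)
  obtain ⟨n1, n2, n3, n4, -, -, -⟩ := Stc321.NrmC.base O.nrm
  set κs := kap b0 b1 G with hκs
  -- the height
  obtain ⟨ζ, hζ0, hζ1, rfl⟩ : ∃ ζ, 0 ≤ ζ ∧ ζ ≤ 1 ∧ Z = z0 + ρ * ζ :=
    ⟨(Z - z0) / ρ, div_nonneg (by linarith) hρ.le, (div_le_one hρ).2 (by linarith), by
      field_simp; ring⟩
  set x := pv S.e S.w (T2.pos (z0 + ρ * ζ) - T.pos (z0 + ρ * ζ)) with hx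
  have hxX : T.pos (z0 + ρ * ζ) + cmb (fr S.e S.w) x = T2.pos (z0 + ρ * ζ) := by
    rw [hx, cmb_pv O.ortho fun k => (hw k).ne']
    abel
  have hxk : ∀ k, |x k| ≤ 2 := by
    intro k
    have a := pos_norm (hw k) ((h1 _ hZ hZ').1 k)
    have b := pos_norm (hw k) ((h2 _ hZ hZ').1 k)
    have e : x k = dt (S.e k) (T2.pos (z0 + ρ * ζ) - S.c.pos (z0 + ρ * ζ)) / S.w k -
        dt (S.e k) (T.pos (z0 + ρ * ζ) - S.c.pos (z0 + ρ * ζ)) / S.w k := by
      simp only [hx, pv, dt, Pi.sub_apply]; ring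
    rw [e]
    exact (abs_sub _ _).trans (by linarith)
  have e0 : tv κs b0 S.e S.w (T2.pos (z0 + ρ * ζ) - T.pos (z0 + ρ * ζ)) 0 = yc b0 x / κs := rfl
  refine ⟨?_, hxk 1, hxk 2⟩
  rw [e0, abs_div, abs_of_pos hk, div_le_iff₀ hk]
  rcases le_or_gt κs (1 / 16) with hc | hc
  · -- small curvature
    have hF : S.w 0 * |Fq b0 b1 G ζ x| ≤ 2 * S.a := by
      have e1 := O.exp ζ x
      rw [hxX] at e1
      have e2 : S.w 0 * Fq b0 b1 G ζ x = S.q (z0 + ρ * ζ) (T2.pos (z0 + ρ * ζ)) -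
        S.q (z0 + ρ * ζ) (T.pos (z0 + ρ * ζ)) := by linarith
      have e3 : S.w 0 * |Fq b0 b1 G ζ x| = |S.w 0 * Fq b0 b1 G ζ x| := by
        rw [abs_mul, abs_of_pos (hw 0)]
      rw [e3, e2]
      refine (abs_sub _ _).trans ?_
      linarith [(h2 _ hZ hZ').2, (h1 _ hZ hZ').2]
    have hF4 : |Fq b0 b1 G ζ x| ≤ κs / 4 := by
      have : S.w 0 * |Fq b0 b1 G ζ x| ≤ S.w 0 * (κs / 4) := by linarith
      exact le_of_mul_le_mul_left this (hw 0)
    have hxe : x = ![x 0, x 1, x 2] := by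
      funext k; fin_cases k <;> rfl
    have hin : InK S.e S.c S.w (z0 + ρ * ζ) (T.pos (z0 + ρ * ζ) + cmb (fr S.e S.w)
        ![x 0, x 1, x 2]) := by
      rw [← hxe, hxX]; exact (h2 _ hZ hZ').1
    have k := (tangent_le P hρ.le O.exp (fun z a b => (h1 z a b).1) hζ0 hζ1 hin hc
      (by rw [← hxe]; linarith)).2
    rw [← hxe] at k
    have e4 : yc b0 x = x 0 + b0 1 / b0 0 * x 1 + b0 2 / b0 0 * x 2 := rfl
    rw [e4]
    linarith
  · have k : |yc b0 x| ≤ 10 := by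
      have e4 : yc b0 x = x 0 + b0 1 / b0 0 * x 1 + b0 2 / b0 0 * x 2 := rfl
      rw [e4]
      exact (a2 (a2 (hxk 0) (m2 n3 (hxk 1))) (m2 n4 (hxk 2))).trans (by norm_num)
    linarith

/-- difference of two lines in container coordinates -/
theorem ul_rl_sub {f : Fin 3 → V3} {c : Ln4} {u : Un} (hu : u.Ok) (T T2 : Ln4) (Z : ℝ)
    (k : Fin 3) : (ul u (rl f c T2)).pos (u.zh Z) k - (ul u (rl f c T)).pos (u.zh Z) k =
      dt (f k) (T2.pos Z - T.pos Z) / u.W k := by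
  rw [ul_pos hu, ul_pos hu]
  simp only [Un.xh, rl, dt, Ln4.pos, Pi.sub_apply]
  ring

/-! ### in the adapted basis -/

section bas

variable {g g' : V3} {φ : Fin 3 → V3} {κ v1 R η rh Y X A1 A2 α δ : ℝ}

theorem bas_mono (h : Bas g g' φ κ v1 R η rh Y X A1 A2 α) {R' : ℝ} (hR : R ≤ R')
    (hη : 40 * (R' * η) ≤ 1) : Bas g g' φ κ v1 R' η rh Y X A1 A2 α :=
  { h with
    v := h.v.trans hR
    R1 := h.R1.trans hR
    ηR := hη
    g1 := h.g1.trans (by linarith)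
    g2 := h.g2.trans (by linarith) }

/-- sizes -/
theorem bas_sizes (h : Bas g g' φ κ v1 R η rh Y X A1 A2 α) (hδ : 0 < δ) (hδ1 : δ ≤ 1)
    (hY : δ * Y ≤ 8 * A1 ^ 2) (hRδ : 1 ≤ R * δ) (hA : A1 ≤ R) (hA' : 1 ≤ R * A1)
    (hrh : 1 ≤ R * rh) (hη : 10 ^ 24 * (η * R ^ 22) ≤ 1) {τ V : V3}
    (hV : ∀ k, V k = τ 0 * φ 0 k + τ 1 * φ 1 k + τ 2 * φ 2 k) (h0 : |τ 0| ≤ 300)
    (h1 : |τ 1| ≤ 2) (h2 : |τ 2| ≤ 2) :
    |V 1| ≤ 13 * A1 ∧ |V 2 + 2 * κ * v1 * V 1| ≤ 547 * (A1 ^ 2 / rh / δ) ∧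
      ∀ k, |V k| ≤ 10 ^ 6 * R ^ 5 := by
  have hR := h.R1
  have hη0 := h.η0
  have hY0 := h.Y0
  have hrh0 := h.rh0
  have hrh1 := h.rh1
  have hA0 : 0 < A1 := h.A1p
  have hR0 : 0 < R := by linarith
  have R2 : R ≤ R ^ 2 := by nlinarith
  have Rk : ∀ k : ℕ, 1 ≤ k → k ≤ 22 → R ^ k ≤ R ^ 22 := fun k _ h => pow_le_pow_right₀ hR h
  have Eη : ∀ k : ℕ, k ≤ 22 → 10 ^ 24 * (η * R ^ k) ≤ 1 := fun k hk => by
    refine le_trans ?_ hη
    exact mul_le_mul_of_nonneg_left (mul_le_mul_of_nonneg_left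
      (pow_le_pow_right₀ hR hk) hη0) (by norm_num)
  have η1 := Eη 1 (by norm_num)
  have η2 := Eη 2 (by norm_num)
  have η3 := Eη 3 (by norm_num)
  obtain ⟨l1, l2⟩ := h.lat hV h0 h1 h2
  -- Y
  have Yle : Y ≤ 8 * A1 ^ 2 / δ := by rw [le_div_iff₀ hδ]; linarith
  set W := A1 ^ 2 / rh / δ with hW
  have hW0 : 0 < W := by positivity
  have YW : Y / rh ≤ 8 * W := by
    rw [div_le_iff₀ hrh0]
    have : 8 * W * rh = 8 * A1 ^ 2 / δ := by rw [hW]; field_simp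
    rw [this]; exact Yle
  have Y8 : Y ≤ 8 * W := h.Y_rh.trans YW
  have AW : A1 ≤ R * W := by
    have e : R * W = (R * A1) * A1 / (rh * δ) := by rw [hW]; field_simp
    rw [e, le_div_iff₀ (by positivity)]
    have e1 : A1 * (rh * δ) ≤ A1 * 1 := mul_le_mul_of_nonneg_left
      (mul_le_one₀ hrh1 hδ.le hδ1) hA0.le
    have e2 : A1 * 1 ≤ (R * A1) * A1 := by
      rw [mul_comm]; exact mul_le_mul_of_nonneg_right hA' hA0.le
    linarith
  refine ⟨?_, ?_, ?_⟩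
  · refine l1.trans ?_
    -- Y η ≤ 8 A² η / δ ≤ 8 A R² η
    have e1 : δ * (Y * η) ≤ 8 * (A1 * A1 * η) := by
      have := mul_le_mul_of_nonneg_right hY hη0
      nlinarith
    have e2 : Y * η ≤ 8 * (A1 * (R ^ 2 * η)) := by
      have e3 : Y * η ≤ R * δ * (Y * η) := le_mul_of_one_le_left (by positivity) hRδ
      have e4 : R * (δ * (Y * η)) ≤ R * (8 * (A1 * A1 * η)) :=
        mul_le_mul_of_nonneg_left e1 hR0.le
      have e5 : A1 * A1 * η ≤ A1 * R * η :=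
        mul_le_mul_of_nonneg_right (mul_le_mul_of_nonneg_left hA hA0.le) hη0
      have e6 := mul_le_mul_of_nonneg_left e5 hR0.le
      nlinarith
    have e7 : 480000 * (A1 * (R ^ 2 * η)) ≤ A1 * 1 := by
      have : 480000 * (A1 * (R ^ 2 * η)) = A1 * (480000 * (η * R ^ 2)) := by ring
      rw [this]
      refine mul_le_mul_of_nonneg_left ?_ hA0.le
      have : 0 ≤ η * R ^ 2 := by positivity
      linarith
    nlinarith
  · refine l2.trans ?_
    have sz : Bas.sz R rh Y A1 ≤ 136 * (R * (8 * W)) + 78 * (R ^ 2 * (R * W)) := by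
      unfold Bas.sz
      have e1 : R * Y / rh = R * (Y / rh) := by ring
      rw [e1]
      have := mul_le_mul_of_nonneg_left YW hR0.le
      have := mul_le_mul_of_nonneg_left AW (sq_nonneg R)
      linarith
    have ηsz := mul_le_mul_of_nonneg_left sz hη0
    have e1 : R * (Y * η) ≤ R * (8 * W * η) :=
      mul_le_mul_of_nonneg_left (mul_le_mul_of_nonneg_right Y8 hη0) hR0.le
    have q1 : η * R * W ≤ 10⁻¹ ^ 20 * W := by
      refine mul_le_mul_of_nonneg_right ?_ hW0.le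
      rw [pow_one] at η1
      norm_num at η1 ⊢; linarith
    have q3 : η * R ^ 3 * W ≤ 10⁻¹ ^ 20 * W := by
      refine mul_le_mul_of_nonneg_right ?_ hW0.le
      norm_num at η3 ⊢; linarith
    unfold Bas.rt
    have n : (10⁻¹ : ℝ) ^ 20 ≤ 10⁻¹ ^ 10 := by norm_num
    have n2 : (10⁻¹ : ℝ) ^ 20 * W ≤ 10⁻¹ ^ 10 * W := mul_le_mul_of_nonneg_right n hW0.le
    have key : 600 * (300 * (R * (8 * W * η))) + 2 * (2 * (17 * (8 * W) + 3 *
        (η * (136 * (R * (8 * W)) + 78 * (R ^ 2 * (R * W)))))) =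
        1453056 * (η * R * W) + 544 * W + 936 * (η * R ^ 3 * W) := by ring
    have fin : 1453056 * (η * R * W) + 544 * W + 936 * (η * R ^ 3 * W) ≤ 547 * W := by
      have : 1453056 * ((10⁻¹ : ℝ) ^ 20 * W) ≤ W := by
        have : (1453056 : ℝ) * (10⁻¹ ^ 20) ≤ 1 := by norm_num
        nlinarith
      linarith
    linarith
  · intro k
    have sz : Bas.sz R rh Y A1 ≤ 1166 * R ^ 5 := by
      unfold Bas.sz
      have y1 : Y ≤ 8 * R ^ 3 := by
        have e3 : Y ≤ R * δ * Y := le_mul_of_one_le_left hY0.le hRδ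
        have e4 : R * (δ * Y) ≤ R * (8 * A1 ^ 2) := mul_le_mul_of_nonneg_left hY hR0.le
        have e5 : A1 ^ 2 ≤ R ^ 2 := pow_le_pow_left₀ hA0.le hA 2
        have e6 := mul_le_mul_of_nonneg_left e5 hR0.le
        nlinarith
      have y2 : Y / rh ≤ 8 * R ^ 4 := by
        rw [div_le_iff₀ hrh0]
        have : 8 * R ^ 4 * rh = 8 * R ^ 3 * (R * rh) := by ring
        rw [this]
        refine y1.trans ?_
        exact le_mul_of_one_le_right (by positivity) hrh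
      have e1 : R * Y / rh = R * (Y / rh) := by ring
      rw [e1]
      have y3 := mul_le_mul_of_nonneg_left y2 hR0.le
      have y4 := mul_le_mul_of_nonneg_left hA (sq_nonneg R)
      have y5 : R ^ 3 ≤ R ^ 5 := pow_le_pow_right₀ hR (by norm_num)
      have y6 : R * (8 * R ^ 4) = 8 * R ^ 5 := by ring
      have y7 : R ^ 2 * R = R ^ 3 := by ring
      rw [y6] at y3
      rw [y7] at y4
      linarith
    have y1 : Y ≤ 8 * R ^ 5 := by
      have e3 : Y ≤ R * δ * Y := le_mul_of_one_le_left hY0.le hRδ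
      have e4 : R * (δ * Y) ≤ R * (8 * A1 ^ 2) := mul_le_mul_of_nonneg_left hY hR0.le
      have e5 : A1 ^ 2 ≤ R ^ 2 := pow_le_pow_left₀ hA0.le hA 2
      have e6 := mul_le_mul_of_nonneg_left e5 hR0.le
      have e7 : R ^ 3 ≤ R ^ 5 := pow_le_pow_right₀ hR (by norm_num)
      nlinarith
    have E : ∀ i, |φ i k| ≤ 2766 * R ^ 5 := fun i => (h.ent i k).trans (by linarith)
    rw [hV k]
    refine (a2 (a2 (m2 h0 (E 0)) (m2 h1 (E 1))) (m2 h2 (E 2))).trans ?_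
    have : 0 < R ^ 5 := by positivity
    nlinarith

end bas

/-- **two lines of one sheet in container coordinates**: differences, size of the second line -/
theorem mate_fin {S : Plk4} {T T2 c : Ln4} {z0 ρ δ r κ R η Y X A A2 α : ℝ} {b0 b1 g g' : V3}
    {G : QF} {f : Fin 3 → V3} {u : Un} (O : Own S T z0 ρ δ b0 b1 G)
    (hS : ShN S.e S.c S.w S.q S.a z0 ρ r) (h1 : InSheet T S.e S.c S.w S.q S.a z0 ρ)
    (h2 : InSheet T2 S.e S.c S.w S.q S.a z0 ρ) (hthin : 8 * S.a ≤ S.w 0 * kap b0 b1 G)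
    (hu : u.Ok) (hB : Bas g g' (φb f u S.e S.w (kap b0 b1 G) b0) κ ((ul u (rl f c T)).v 1) R η
      (ρ / u.H) Y X A A2 α) (hY : δ * Y ≤ 8 * A ^ 2) (hδ1 : δ ≤ 1) (hRδ : 1 ≤ R * δ)
    (hA : A ≤ R) (hA' : 1 ≤ R * A) (hrh : 1 ≤ R * (ρ / u.H))
    (hp : ∀ k, |(ul u (rl f c T)).p k| ≤ R) (hv : ∀ k, |(ul u (rl f c T)).v k| ≤ R)
    (hz0 : |u.zh z0| ≤ 1) (hη : 10 ^ 24 * (η * R ^ 22) ≤ 1) :
    (∀ y, z0 ≤ y → y ≤ z0 + ρ →
      |(ul u (rl f c T2)).pos (u.zh y) 1 - (ul u (rl f c T)).pos (u.zh y) 1| ≤ 13 * A ∧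
      |((ul u (rl f c T2)).pos (u.zh y) 2 - (ul u (rl f c T)).pos (u.zh y) 2) +
        2 * κ * (ul u (rl f c T)).v 1 *
          ((ul u (rl f c T2)).pos (u.zh y) 1 - (ul u (rl f c T)).pos (u.zh y) 1)| ≤
        547 * (A ^ 2 / (ρ / u.H) / δ) ∧
      ∀ k, |(ul u (rl f c T2)).pos (u.zh y) k - (ul u (rl f c T)).pos (u.zh y) k| ≤
        10 ^ 6 * R ^ 5) ∧
    ∀ k, |(ul u (rl f c T2)).p k| ≤ 4 * 10 ^ 6 * R ^ 6 ∧
      |(ul u (rl f c T2)).v k| ≤ 4 * 10 ^ 6 * R ^ 6 := by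
  have hR := hB.R1
  have hη0 := hB.η0
  have hR0 : 0 < R := by linarith
  have hδ := O.δ0
  have hρ := O.hρ
  have hH := hu.H0
  have hrh0 := hB.rh0
  have hk := O.k0
  have hw := O.pos
  set t := ul u (rl f c T) with ht
  set t2 := ul u (rl f c T2) with ht2
  -- the difference in the basis
  have key : ∀ y, z0 ≤ y → y ≤ z0 + ρ →
      |t2.pos (u.zh y) 1 - t.pos (u.zh y) 1| ≤ 13 * A ∧
      |(t2.pos (u.zh y) 2 - t.pos (u.zh y) 2) + 2 * κ * t.v 1 *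
        (t2.pos (u.zh y) 1 - t.pos (u.zh y) 1)| ≤ 547 * (A ^ 2 / (ρ / u.H) / δ) ∧
      ∀ k, |t2.pos (u.zh y) k - t.pos (u.zh y) k| ≤ 10 ^ 6 * R ^ 5 := by
    intro y y1 y2
    obtain ⟨s0, s1, s2⟩ := tau_le O hS h1 h2 hthin y1 y2
    refine bas_sizes hB hδ hδ1 hY hRδ hA hA' hrh hη
      (V := fun k => t2.pos (u.zh y) k - t.pos (u.zh y) k) (fun k => ?_) s0 s1 s2
    rw [← tv_φ O.ortho (fun k => (hw k).ne') hk.ne', ← ul_rl_sub hu]
  refine ⟨key, fun k => ?_⟩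
  -- the second line is bounded
  have ezρ : u.zh (z0 + ρ) = u.zh z0 + ρ / u.H := by
    simp only [Un.zh]; ring
  set B := 10 ^ 6 * R ^ 5 with hBd
  have hB0 : 0 < B := by positivity
  have kA := (key z0 le_rfl (by linarith)).2.2
  have kB := (key (z0 + ρ) (by linarith) le_rfl).2.2
  rw [ezρ] at kB
  have dv : |t2.v k - t.v k| ≤ 2 * B * R := by
    have e : t2.v k - t.v k = ((t2.pos (u.zh z0 + ρ / u.H) k - t.pos (u.zh z0 + ρ / u.H) k) -
        (t2.pos (u.zh z0) k - t.pos (u.zh z0) k)) / (ρ / u.H) := by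
      simp only [Ln4.pos]; field_simp; ring
    rw [e, abs_div, abs_of_pos hrh0, div_le_iff₀ hrh0]
    refine (s2 (kB k) (kA k)).trans ?_
    have := mul_le_mul_of_nonneg_left hrh (show 0 ≤ 2 * B by positivity)
    linarith
  have dp : |t2.p k - t.p k| ≤ 3 * B * R := by
    have e : t2.p k - t.p k = (t2.pos (u.zh z0) k - t.pos (u.zh z0) k) -
        u.zh z0 * (t2.v k - t.v k) := by
      simp only [Ln4.pos]; ring
    rw [e]
    refine (s2 (kA k) (m2 hz0 dv)).trans ?_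
    have : B * 1 ≤ B * R := mul_le_mul_of_nonneg_left hR hB0.le
    linarith
  have hR6 : R ≤ R ^ 6 := le_self_pow₀ hR (by norm_num)
  have hBR : B * R = 10 ^ 6 * R ^ 6 := by rw [hBd]; ring
  have e1 : 2 * B * R = 2 * (B * R) := by ring
  have e2 : 3 * B * R = 3 * (B * R) := by ring
  rw [e1, hBR] at dv
  rw [e2, hBR] at dp
  constructor
  · have e : t2.p k = t.p k + (t2.p k - t.p k) := by ring
    rw [e]
    refine (a2 (hp k) dp).trans ?_
    linarith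
  · have e : t2.v k = t.v k + (t2.v k - t.v k) := by ring
    rw [e]
    refine (a2 (hv k) dv).trans ?_
    linarith

set_option maxHeartbeats 1000000 in
/-- **lateral extents in normal coordinates**, one class at one `n` -/
theorem lat_fin {S : Plk4} {T T2 c : Ln4} {z0 ρ δ r κ R η Y X A A2 α : ℝ} {b0 b1 g g' : V3}
    {G : QF} {f : Fin 3 → V3} {u : Un} {P : Pj} (O : Own S T z0 ρ δ b0 b1 G)
    (hS : ShN S.e S.c S.w S.q S.a z0 ρ r) (h1 : InSheet T S.e S.c S.w S.q S.a z0 ρ)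
    (h2 : InSheet T2 S.e S.c S.w S.q S.a z0 ρ) (hthin : 8 * S.a ≤ S.w 0 * kap b0 b1 G)
    (hu : u.Ok) (hB : Bas g g' (φb f u S.e S.w (kap b0 b1 G) b0) κ ((ul u (rl f c T)).v 1) R η
      (ρ / u.H) Y X A A2 α) (hY : δ * Y ≤ 8 * A ^ 2) (hδ1 : δ ≤ 1) (hRδ : 1 ≤ R * δ)
    (hA : A ≤ R) (hA' : 1 ≤ R * A) (hrh : 1 ≤ R * (ρ / u.H))
    (hp : ∀ k, |(ul u (rl f c T)).p k| ≤ R) (hv : ∀ k, |(ul u (rl f c T)).v k| ≤ R)
    (hz0 : |u.zh z0| ≤ 1) (hP : P.Sm η) (hη : 10 ^ 24 * (η * R ^ 22) ≤ 1) {Z : ℝ} (hZ : z0 ≤ Z)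
    (hZ' : Z ≤ z0 + ρ) (hz : |u.zh Z| ≤ 1) :
    |(P.line (ul u (rl f c T2))).pos (u.zh Z) 1 - (P.line (ul u (rl f c T))).pos (u.zh Z) 1| ≤
        14 * A ∧
      |((P.line (ul u (rl f c T2))).pos (u.zh Z) 2 - (P.line (ul u (rl f c T))).pos (u.zh Z) 2) +
        2 * κ * (P.line (ul u (rl f c T))).v 1 * ((P.line (ul u (rl f c T2))).pos (u.zh Z) 1 -
          (P.line (ul u (rl f c T))).pos (u.zh Z) 1)| ≤ 549 * (A ^ 2 / (ρ / u.H) / δ) := by
  have hR := hB.R1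
  have hη0 := hB.η0
  have hR0 : 0 < R := by linarith
  have hδ := O.δ0
  have hρ := O.hρ
  have hH := hu.H0
  have hrh0 := hB.rh0
  have hrh1 := hB.rh1
  have hA0 : 0 < A := hB.A1p
  have hk := O.k0
  have hw := O.pos
  set t := ul u (rl f c T) with ht
  set t2 := ul u (rl f c T2) with ht2
  obtain ⟨key, hpv⟩ := mate_fin O hS h1 h2 hthin hu hB hY hδ1 hRδ hA hA' hrh hp hv hz0 hη
  rw [← ht, ← ht2] at key
  rw [← ht2] at hpv
  set R2 := 4 * 10 ^ 6 * R ^ 6 with hR2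
  have hp2 := fun k => (hpv k).1
  have hv2 := fun k => (hpv k).2
  have hR6 : R ≤ R ^ 6 := le_self_pow₀ hR (by norm_num)
  have hR21 : 1 ≤ R2 := by
    have : 1 ≤ R ^ 6 := one_le_pow₀ hR
    rw [hR2]; linarith
  have hRR2 : R ≤ R2 := by rw [hR2]; nlinarith
  -- smallness
  have r21 : η * R ^ 6 * 10 ^ 24 ≤ 1 := by
    have : η * R ^ 6 ≤ η * R ^ 22 :=
      mul_le_mul_of_nonneg_left (pow_le_pow_right₀ hR (by norm_num)) hη0
    linarith
  have hηR2 : 20 * (η * R2) ≤ 1 := by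
    have : 20 * (η * R2) = 8 * 10 ^ 7 * (η * R ^ 6) := by rw [hR2]; ring
    rw [this]
    have : 0 ≤ η * R ^ 6 := by positivity
    linarith
  have hE : |-(2 * κ * t.v 1)| ≤ 2 * R := by
    rw [abs_neg]
    have two : |(2 : ℝ)| ≤ 2 := by norm_num
    exact (m2 (m2 two hB.κ1) (hv 1)).trans (le_of_eq (by ring))
  obtain ⟨q1, q2, -⟩ := key Z hZ hZ'
  set W := A ^ 2 / (ρ / u.H) / δ with hW
  have hW0 : 0 < W := by positivity
  -- A² ≤ W
  have hAW : A ^ 2 ≤ W := by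
    rw [hW, div_div, le_div_iff₀ (by positivity)]
    have : ρ / u.H * δ ≤ 1 := mul_le_one₀ hrh1 hδ.le hδ1
    exact mul_le_of_le_one_right (by positivity) this
  have hRW : 1 ≤ R ^ 2 * W := by
    have e1 : 1 ≤ (R * A) ^ 2 := one_le_pow₀ hA'
    have e2 : (R * A) ^ 2 = R ^ 2 * A ^ 2 := by ring
    rw [e2] at e1
    exact e1.trans (mul_le_mul_of_nonneg_left hAW (by positivity))
  have hRA2 : η * R2 ^ 3 = 64 * 10 ^ 18 * (η * R ^ 18) := by rw [hR2]; ring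
  have e18 : η * R ^ 18 * R ≤ 10⁻¹ ^ 24 := by
    have : η * R ^ 18 * R ≤ η * R ^ 22 := by
      have : η * R ^ 18 * R = η * R ^ 19 := by ring
      rw [this]
      exact mul_le_mul_of_nonneg_left (pow_le_pow_right₀ hR (by norm_num)) hη0
    norm_num at hη ⊢; linarith
  have e21 : η * R ^ 21 ≤ 10⁻¹ ^ 24 := by
    have : η * R ^ 21 ≤ η * R ^ 22 :=
      mul_le_mul_of_nonneg_left (pow_le_pow_right₀ hR (by norm_num)) hη0
    norm_num at hη ⊢; linarith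
  have cA : 160 * (η * R2 ^ 3) ≤ A := by
    have e1 : 160 * (η * R2 ^ 3) * R ≤ A * R := by
      rw [hRA2]
      have : 160 * (64 * 10 ^ 18 * (η * R ^ 18)) * R = 10240 * 10 ^ 18 * (η * R ^ 18 * R) := by
        ring
      rw [this]
      have : (10240 : ℝ) * 10 ^ 18 * (10⁻¹ ^ 24) ≤ 1 := by norm_num
      nlinarith
    exact le_of_mul_le_mul_right e1 hR0
  have cW : 480 * (η * R2 ^ 3 * R) ≤ W := by
    have e1 : R ^ 2 * (480 * (η * R2 ^ 3 * R)) ≤ R ^ 2 * W := by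
      rw [hRA2]
      have : R ^ 2 * (480 * (64 * 10 ^ 18 * (η * R ^ 18) * R)) =
          30720 * 10 ^ 18 * (η * R ^ 21) := by ring
      rw [this]
      have : (30720 : ℝ) * 10 ^ 18 * (10⁻¹ ^ 24) ≤ 1 := by norm_num
      nlinarith
    exact le_of_mul_le_mul_left e1 (by positivity)
  have cW2 : 1120 * (η * R2 ^ 2 * A) ≤ W := by
    have e2 : R2 ^ 2 ≤ R2 ^ 3 := pow_le_pow_right₀ hR21 (by norm_num)
    have e1 : R ^ 2 * (1120 * (η * R2 ^ 2 * A)) ≤ R ^ 2 * W := by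
      have e3 : η * R2 ^ 2 * A ≤ η * R2 ^ 3 * R :=
        mul_le_mul (mul_le_mul_of_nonneg_left e2 hη0) hA hA0.le (by positivity)
      have e4 : R ^ 2 * (1120 * (η * R2 ^ 2 * A)) ≤ R ^ 2 * (1120 * (η * R2 ^ 3 * R)) := by
        refine mul_le_mul_of_nonneg_left ?_ (by positivity)
        linarith
      refine e4.trans ?_
      rw [hRA2]
      have : R ^ 2 * (1120 * (64 * 10 ^ 18 * (η * R ^ 18) * R)) =
          71680 * 10 ^ 18 * (η * R ^ 21) := by ring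
      rw [this]
      have : (71680 : ℝ) * 10 ^ 18 * (10⁻¹ ^ 24) ≤ 1 := by norm_num
      nlinarith
    exact le_of_mul_le_mul_left e1 (by positivity)
  obtain ⟨n1, n2⟩ := nrm_lat hP hR21 hηR2 (t := t) (t' := t2) (fun k => (hp k).trans hRR2)
    (fun k => (hv k).trans hRR2) hp2 hv2 (z := u.zh Z) (hz.trans hR21)
    (E := -(2 * κ * t.v 1)) q1 (wB := 547 * W) (by
      have : t2.pos (u.zh Z) 2 - t.pos (u.zh Z) 2 - -(2 * κ * t.v 1) *
          (t2.pos (u.zh Z) 1 - t.pos (u.zh Z) 1) = (t2.pos (u.zh Z) 2 - t.pos (u.zh Z) 2) +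
          2 * κ * t.v 1 * (t2.pos (u.zh Z) 1 - t.pos (u.zh Z) 1) := by ring
      rw [this]; exact q2)
  have n1' : |(P.line t2).pos (u.zh Z) 1 - (P.line t).pos (u.zh Z) 1| ≤ 14 * A := by linarith
  refine ⟨n1', ?_⟩
  have hlv := Pj.line_v hP (fun k => (hp k).trans hRR2) (fun k => (hv k).trans hRR2) hR21 hηR2 1
  set d1 := (P.line t2).pos (u.zh Z) 1 - (P.line t).pos (u.zh Z) 1 with hd1
  set d2 := (P.line t2).pos (u.zh Z) 2 - (P.line t).pos (u.zh Z) 2 with hd2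
  have e : d2 + 2 * κ * (P.line t).v 1 * d1 = (d2 - -(2 * κ * t.v 1) * d1) +
      2 * κ * ((P.line t).v 1 - t.v 1) * d1 := by ring
  have two : |(2 : ℝ)| ≤ 2 := by norm_num
  rw [e]
  refine (a2 n2 (m2 (m2 (m2 two hB.κ1) hlv) n1')).trans ?_
  have m1 : 160 * (η * R2 ^ 3) * (1 + |-(2 * κ * t.v 1)|) ≤ 160 * (η * R2 ^ 3) * (3 * R) :=
    mul_le_mul_of_nonneg_left (by linarith) (by positivity)
  have m3 : 160 * (η * R2 ^ 3) * (3 * R) = 480 * (η * R2 ^ 3 * R) := by ring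
  have m4 : 2 * 1 * (40 * (η * R2 ^ 2)) * (14 * A) = 1120 * (η * R2 ^ 2 * A) := by ring
  linarith

end Crest.Agent.R136.Lat327
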