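import Crest.Agent.R136.NatR_550
import Crest.Agent.R136.Dgs1_413
import Crest.Agent.R136.K2U_774

/-!
# R136, case F (slot 21 tied, 31 and 32 not): slot arithmetic of the three planes (helper511)

Coordinates `(v, t)` of a plane, `κ = θ 1 - θ 2`, `s` = `v`-slope of `N`, `b` = `t`-slope of `N`:
`X (xF w0 R1) (aF κ s) (bF b) (v, t) = nat4 w0 R1 v t (κ v + t) ((s - 1) v + b t)`.
Record line `t = - θ 1 v`, it lies in the plane iff `b = bR θ s = (s - 1 + θ 0) / θ 1`.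
Slots: `0` z, `1` R, `2` E, `3` F_b, `4` F_a, `5` C_a, `6` C_b, `7` P, `8` X_a, `9` X_b, `10` N.

* `X_F`, `srf_F`, `path_F` : the plane, 550's `srf`, the record line
* `walls_F`, `W10`, `memL_F`, `memO_F` : the ten walls are equalities, the cone, the open set `O`
* `dropF`, `xD`, `memL_D`, `memO_D` : the same with a set of dropped slots (constant, slope `(0,0)`)
* `dirS_nonneg` : all planes with `v`-slopes `≥ 0` give `DirS` (group `none` = `v`-slope `0`)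
* `DQ_F`, `muF`, `DQ_ray` : density exponent along the ray
* `slots_pos`, `memPD_F` : room and membership in `PD` near the record line
-/

set_option autoImplicit false
set_option linter.unusedVariables false

open Finset Filter Topology

namespace Crest.Agent.R136.LdF511

open Crest.Agent.R136.Net191
open Crest.Agent.R136.NetQ186
open Crest.Agent.R136.Wq638
open Crest.Agent.R136.NatT550
open Crest.Agent.R136.NatR550 (nL coneN DN nat_dmax rec_ge)
open Crest.Agent.R136.Top484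
open Crest.Agent.R136.Dgs413
open Dg262 (X)
open Dg219 (mw mem_mwL mem_mwO Walls Tn det2)
open K2S774 (pt)

/-! ### the plane -/

/-- base point of the natural planes -/
def xF (w0 R1 : ℝ) : Fin 11 → ℝ :=
  ![w0, R1, w0, w0, 2 * w0, w0, 2 * w0, 3 * w0, 2 * w0, 3 * w0, 4 * w0]

/-- `v`-slopes -/
def aF (κ s : ℝ) : Fin 11 → ℝ :=
  ![1, 0, κ, s - 1 - κ, s - 1, 0, κ, s - 1, 1, 1 + κ, s]

/-- `t`-slopes -/
def bF (b : ℝ) : Fin 11 → ℝ := ![0, 0, 0, b - 1, b - 1, 1, 1, b, 1, 1, b]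

/-- `t`-slope of the normal exponent for which the record line lies in the plane -/
noncomputable def bR (θ : Fin 3 → ℝ) (s : ℝ) : ℝ := (s - 1 + θ 0) / θ 1

theorem X_F (κ s b w0 R1 v t : ℝ) : X (xF w0 R1) (aF κ s) (bF b) (v, t) =
    nat4 w0 R1 v t (κ * v + t) ((s - 1) * v + b * t) := by
  funext k
  fin_cases k <;>
    simp only [X, xF, aF, bF, nat4, Matrix.cons_val, Fin.zero_eta, Fin.mk_one, Fin.reduceFinMk,
      Fin.isValue] <;>
    ring

theorem srf_F (θ : Fin 3 → ℝ) (w0 R1 : ℝ) (T2t : Prop) [Decidable T2t] (hT : T2t)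
    (s b v t : ℝ) : srf θ w0 R1 T2t (s - 1) b v t =
      X (xF w0 R1) (aF (θ 1 - θ 2) s) (bF b) (v, t) := by
  rw [X_F, srf, T2, if_pos hT]

theorem bR_eq {θ : Fin 3 → ℝ} (h1 : 0 < θ 1) (s : ℝ) : (s - 1) - bR θ s * θ 1 = -θ 0 := by
  unfold bR
  field_simp
  ring

theorem path_F {θ : Fin 3 → ℝ} (h1 : 0 < θ 1) (s w0 R1 v : ℝ) :
    X (xF w0 R1) (aF (θ 1 - θ 2) s) (bF (bR θ s)) (v, -(θ 1 * v)) = pathQ θ w0 R1 v := by
  rw [X_F, pathQ_nat]
  have h := bR_eq h1 s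
  congr 1
  · ring
  · linear_combination v * h

/-- record direction and the ray -/
theorem Tn_rec {θ : Fin 3 → ℝ} (h1 : 0 < θ 1) (s : ℝ) :
    Tn (aF (θ 1 - θ 2) s) (bF (bR θ s)) (1, -θ 1) =
      ![1, 0, θ 1 - θ 2, θ 2 - θ 0, θ 1 - θ 0, -θ 1, -θ 2, -θ 0, 1 - θ 1, 1 - θ 2, 1 - θ 0] := by
  have h := bR_eq h1 s
  funext k
  fin_cases k <;>
    simp only [Tn, aF, bF, Matrix.cons_val, Fin.zero_eta, Fin.mk_one, Fin.reduceFinMk,
      Fin.isValue] <;>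
    linarith

theorem Tn_ray (κ s b : ℝ) : Tn (aF κ s) (bF b) (1, 0) = aF κ s := by
  funext k
  simp [Tn]

/-- all `v`-slopes are `≥ 0` on the plane `s ≥ 1 + κ` -/
theorem aF_nonneg {κ s : ℝ} (hκ : 0 ≤ κ) (hs : 1 + κ ≤ s) (k : Fin 11) : 0 ≤ aF κ s k := by
  fin_cases k <;>
    simp only [aF, Matrix.cons_val, Fin.zero_eta, Fin.mk_one, Fin.reduceFinMk, Fin.isValue] <;>
    linarith

/-- the slots with `v`-slope `0` on the plane `s = 1 + κ` -/
theorem aF_zero_i {κ : ℝ} (hκ : 0 < κ) (k : Fin 11) :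
    aF κ (1 + κ) k = 0 ↔ k = 1 ∨ k = 3 ∨ k = 5 := by
  fin_cases k <;>
    simp only [aF, Matrix.cons_val, Fin.zero_eta, Fin.mk_one, Fin.reduceFinMk, Fin.isValue] <;>
    first
    | (constructor
       · intro h; exfalso; linarith
       · intro h; exact absurd h (by decide))
    | (constructor
       · intro _; decide
       · intro _; first | rfl | ring | trivial)

/-! ### walls -/

/-- the ten walls without `P ≤ z + R`, on vectors of exponents -/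
def W10 : Set (Fin 11 → ℝ) := {c | c 4 ≤ c 2 + c 3 ∧ c 6 ≤ c 2 + c 5 ∧ c 7 ≤ c 4 + c 5 ∧
  c 7 ≤ c 3 + c 6 ∧ c 8 ≤ c 0 + c 5 ∧ c 9 ≤ c 0 + c 6 ∧ c 9 ≤ c 2 + c 8 ∧ c 10 ≤ c 0 + c 7 ∧
  c 10 ≤ c 4 + c 8 ∧ c 10 ≤ c 3 + c 9}

/-- the ten walls are equalities on the natural boxes -/
theorem walls_nat4 (w0 R1 v t1 t2 t3 : ℝ) : let p := nat4 w0 R1 v t1 t2 t3
    p 4 = p 2 + p 3 ∧ p 6 = p 2 + p 5 ∧ p 7 = p 4 + p 5 ∧ p 7 = p 3 + p 6 ∧ p 8 = p 0 + p 5 ∧
    p 9 = p 0 + p 6 ∧ p 9 = p 2 + p 8 ∧ p 10 = p 0 + p 7 ∧ p 10 = p 4 + p 8 ∧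
    p 10 = p 3 + p 9 := by
  simp only [nat4, Matrix.cons_val]
  refine ⟨?_, ?_, ?_, ?_, ?_, ?_, ?_, ?_, ?_, ?_⟩ <;> ring

/-! ### the walls of `monQ` one by one -/

theorem sm (e : Fin 11 → ℕ) (c : Fin 11 → ℝ) : ∑ s, (e s : ℝ) * c s = e 0 * c 0 + e 1 * c 1 +
    e 2 * c 2 + e 3 * c 3 + e 4 * c 4 + e 5 * c 5 + e 6 * c 6 + e 7 * c 7 + e 8 * c 8 +
    e 9 * c 9 + e 10 * c 10 := by
  simp [Fin.sum_univ_succ]
  ring

/-- all monomials of `monQ` -/
theorem monQ_all (φ : Fin 11 → (Fin 11 → ℕ) → Prop) : (∀ k, ∀ e ∈ monQ.mon k, φ k e) ↔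
    φ 4 ![0, 0, 1, 1, 0, 0, 0, 0, 0, 0, 0] ∧
    φ 6 ![0, 0, 1, 0, 0, 1, 0, 0, 0, 0, 0] ∧
    φ 7 ![1, 1, 0, 0, 0, 0, 0, 0, 0, 0, 0] ∧
    φ 7 ![0, 0, 0, 0, 1, 1, 0, 0, 0, 0, 0] ∧
    φ 7 ![0, 0, 1, 1, 0, 1, 0, 0, 0, 0, 0] ∧
    φ 7 ![0, 0, 0, 1, 0, 0, 1, 0, 0, 0, 0] ∧
    φ 8 ![1, 0, 0, 0, 0, 1, 0, 0, 0, 0, 0] ∧
    φ 9 ![1, 0, 0, 0, 0, 0, 1, 0, 0, 0, 0] ∧
    φ 9 ![0, 0, 1, 0, 0, 0, 0, 0, 1, 0, 0] ∧
    φ 9 ![1, 0, 1, 0, 0, 1, 0, 0, 0, 0, 0] ∧
    φ 10 ![1, 0, 0, 0, 0, 0, 0, 1, 0, 0, 0] ∧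
    φ 10 ![2, 1, 0, 0, 0, 0, 0, 0, 0, 0, 0] ∧
    φ 10 ![0, 0, 0, 0, 1, 0, 0, 0, 1, 0, 0] ∧
    φ 10 ![0, 0, 1, 1, 0, 0, 0, 0, 1, 0, 0] ∧
    φ 10 ![1, 0, 0, 0, 1, 1, 0, 0, 0, 0, 0] ∧
    φ 10 ![1, 0, 1, 1, 0, 1, 0, 0, 0, 0, 0] ∧
    φ 10 ![0, 0, 0, 1, 0, 0, 0, 0, 0, 1, 0] ∧
    φ 10 ![1, 0, 0, 1, 0, 0, 1, 0, 0, 0, 0] := by
  constructor
  · intro h
    refine ⟨h 4 _ ?_, h 6 _ ?_, h 7 _ ?_, h 7 _ ?_, h 7 _ ?_, h 7 _ ?_, h 8 _ ?_, h 9 _ ?_,
      h 9 _ ?_, h 9 _ ?_, h 10 _ ?_, h 10 _ ?_, h 10 _ ?_, h 10 _ ?_, h 10 _ ?_, h 10 _ ?_,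
      h 10 _ ?_, h 10 _ ?_⟩ <;> simp [monQ, mfQ]
  · rintro ⟨h1, h2, h3, h4, h5, h6, h7, h8, h9, h10, h11, h12, h13, h14, h15, h16, h17, h18⟩ k e he
    fin_cases k <;> simp only [monQ, mfQ, Matrix.cons_val, Fin.zero_eta, Fin.mk_one,
      Fin.reduceFinMk, Fin.isValue, Finset.notMem_empty, Finset.mem_insert,
      Finset.mem_singleton] at he
    · subst he; exact h1
    · subst he; exact h2
    · rcases he with rfl | rfl | rfl | rfl <;> assumption
    · subst he; exact h7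
    · rcases he with rfl | rfl | rfl <;> assumption
    · rcases he with rfl | rfl | rfl | rfl | rfl | rfl | rfl | rfl <;> assumption

/-- the ten walls imply all walls without the slot `1` -/
theorem W10_all {c : Fin 11 → ℝ} (h : c ∈ W10) (x : ℝ) :
    (c 4 ≤ c 2 + c 3 ∧ c 6 ≤ c 2 + c 5 ∧ c 7 ≤ c 4 + c 5 ∧ c 7 ≤ c 2 + c 3 + c 5 ∧
      c 7 ≤ c 3 + c 6 ∧ c 8 ≤ c 0 + c 5 ∧ c 9 ≤ c 0 + c 6 ∧ c 9 ≤ c 2 + c 8 ∧
      c 9 ≤ c 0 + c 2 + c 5) ∧ (c 10 ≤ c 0 + c 7 ∧ c 10 ≤ c 4 + c 8 ∧ c 10 ≤ c 2 + c 3 + c 8 ∧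
      c 10 ≤ c 0 + c 4 + c 5 ∧ c 10 ≤ c 0 + c 2 + c 3 + c 5 ∧ c 10 ≤ c 3 + c 9 ∧
      c 10 ≤ c 0 + c 3 + c 6) := by
  obtain ⟨h1, h2, h3, h4, h5, h6, h7, h8, h9, h10⟩ := h
  refine ⟨⟨?_, ?_, ?_, ?_, ?_, ?_, ?_, ?_, ?_⟩, ⟨?_, ?_, ?_, ?_, ?_, ?_, ?_⟩⟩ <;> linarith

/-- closes the equations of active walls -/
local macro "wl" : tactic => `(tactic|
  (rw [sm]; simp only [xF, aF, bF, Matrix.cons_val]; push_cast; ring))

/-- **the cone of the plane** -/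
theorem memL_F {κ s b w0 R1 : ℝ} (hR : 2 * w0 < R1) {c : Fin 11 → ℝ} :
    c ∈ (mw monQ).L (xF w0 R1) (aF κ s) (bF b) ↔ c ∈ W10 := by
  refine mem_mwL.trans ((monQ_all (fun k e => xF w0 R1 k = ∑ s, (e s : ℝ) * xF w0 R1 s →
    aF κ s k = ∑ j, (e j : ℝ) * aF κ s j → bF b k = ∑ s, (e s : ℝ) * bF b s →
      c k ≤ ∑ s, (e s : ℝ) * c s)).trans ?_)
  constructor
  · rintro ⟨h1, h2, h3, h4, h5, h6, h7, h8, h9, h10, h11, h12, h13, h14, h15, h16, h17, h18⟩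
    refine ⟨?_, ?_, ?_, ?_, ?_, ?_, ?_, ?_, ?_, ?_⟩
    · have := h1 (by wl) (by wl) (by wl)
      rw [sm] at this; simp only [Matrix.cons_val] at this; push_cast at this; linarith
    · have := h2 (by wl) (by wl) (by wl)
      rw [sm] at this; simp only [Matrix.cons_val] at this; push_cast at this; linarith
    · have := h4 (by wl) (by wl) (by wl)
      rw [sm] at this; simp only [Matrix.cons_val] at this; push_cast at this; linarith
    · have := h6 (by wl) (by wl) (by wl)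
      rw [sm] at this; simp only [Matrix.cons_val] at this; push_cast at this; linarith
    · have := h7 (by wl) (by wl) (by wl)
      rw [sm] at this; simp only [Matrix.cons_val] at this; push_cast at this; linarith
    · have := h8 (by wl) (by wl) (by wl)
      rw [sm] at this; simp only [Matrix.cons_val] at this; push_cast at this; linarith
    · have := h9 (by wl) (by wl) (by wl)
      rw [sm] at this; simp only [Matrix.cons_val] at this; push_cast at this; linarith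
    · have := h11 (by wl) (by wl) (by wl)
      rw [sm] at this; simp only [Matrix.cons_val] at this; push_cast at this; linarith
    · have := h13 (by wl) (by wl) (by wl)
      rw [sm] at this; simp only [Matrix.cons_val] at this; push_cast at this; linarith
    · have := h17 (by wl) (by wl) (by wl)
      rw [sm] at this; simp only [Matrix.cons_val] at this; push_cast at this; linarith
  · intro h
    obtain ⟨⟨a1, a2, a3, a4, a5, a6, a7, a8, a9⟩, b1, b2, b3, b4, b5, b6, b7⟩ := W10_all h 0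
    refine ⟨?_, ?_, ?_, ?_, ?_, ?_, ?_, ?_, ?_, ?_, ?_, ?_, ?_, ?_, ?_, ?_, ?_, ?_⟩ <;>
      intro e1 e2 e3 <;> rw [sm] <;> simp only [Matrix.cons_val] <;> push_cast
    · linarith
    · linarith
    · exfalso
      rw [sm] at e1; simp only [xF, Matrix.cons_val] at e1; push_cast at e1; linarith
    · linarith
    · linarith
    · linarith
    · linarith
    · linarith
    · linarith
    · linarith
    · linarith
    · exfalso
      rw [sm] at e1; simp only [xF, Matrix.cons_val] at e1; push_cast at e1; linarith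
    · linarith
    · linarith
    · linarith
    · linarith
    · linarith
    · linarith

/-- membership in `O` for arbitrary bounds -/
theorem mem_mwO' {m : ℕ} {M : Mons m} {lo hi x0 a b : Fin m → ℝ} {z : ℝ × ℝ} :
    z ∈ (mw M).O lo hi x0 a b ↔
    (∀ k, lo k < X x0 a b z k ∧ X x0 a b z k < hi k) ∧ ∀ k, ∀ e ∈ M.mon k,
      (x0 k = ∑ s, (e s : ℝ) * x0 s ∧ a k = ∑ s, (e s : ℝ) * a s ∧
        b k = ∑ s, (e s : ℝ) * b s) ∨ X x0 a b z k < ∑ s, (e s : ℝ) * X x0 a b z s := by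
  constructor
  · rintro ⟨h1, h2⟩
    refine ⟨h1, fun k e he => ?_⟩
    have := h2 ⟨k, e, he⟩
    simp only [Walls.Act, mw, Walls.rhs, add_zero] at this
    exact this
  · rintro ⟨h1, h2⟩
    refine ⟨h1, fun w => ?_⟩
    have := h2 w.1 w.2.1 w.2.2
    simp only [Walls.Act, mw, Walls.rhs, add_zero]
    exact this

/-- **the open set of the plane** -/
theorem memO_F {κ s b w0 R1 R : ℝ} {z : ℝ × ℝ}
    (h : ∀ k, 0 < X (xF w0 R1) (aF κ s) (bF b) z k ∧ X (xF w0 R1) (aF κ s) (bF b) z k < R)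
    (h7 : X (xF w0 R1) (aF κ s) (bF b) z 7 < X (xF w0 R1) (aF κ s) (bF b) z 0 + R1) :
    z ∈ (mw monQ).O (fun _ => 0) (fun _ => R) (xF w0 R1) (aF κ s) (bF b) := by
  rw [mem_mwO]
  refine ⟨h, (monQ_all (fun k e => (xF w0 R1 k = ∑ s, (e s : ℝ) * xF w0 R1 s ∧
    aF κ s k = ∑ j, (e j : ℝ) * aF κ s j ∧ bF b k = ∑ s, (e s : ℝ) * bF b s) ∨
      X (xF w0 R1) (aF κ s) (bF b) z k < ∑ j, (e j : ℝ) * X (xF w0 R1) (aF κ s) (bF b) z j)).2
      ⟨?_, ?_, ?_, ?_, ?_, ?_, ?_, ?_, ?_, ?_, ?_, ?_, ?_, ?_, ?_, ?_, ?_, ?_⟩⟩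
  · exact Or.inl ⟨by wl, by wl, by wl⟩
  · exact Or.inl ⟨by wl, by wl, by wl⟩
  · right
    rw [sm]
    have e1 : X (xF w0 R1) (aF κ s) (bF b) z 1 = R1 := by
      simp [X, xF, aF, bF]
    simp only [Matrix.cons_val]
    push_cast
    rw [e1]; linarith
  · exact Or.inl ⟨by wl, by wl, by wl⟩
  · exact Or.inl ⟨by wl, by wl, by wl⟩
  · exact Or.inl ⟨by wl, by wl, by wl⟩
  · exact Or.inl ⟨by wl, by wl, by wl⟩
  · exact Or.inl ⟨by wl, by wl, by wl⟩
  · exact Or.inl ⟨by wl, by wl, by wl⟩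
  · exact Or.inl ⟨by wl, by wl, by wl⟩
  · exact Or.inl ⟨by wl, by wl, by wl⟩
  · right
    rw [sm]
    have e1 : X (xF w0 R1) (aF κ s) (bF b) z 1 = R1 := by
      simp [X, xF, aF, bF]
    have e2 : X (xF w0 R1) (aF κ s) (bF b) z 10 =
        X (xF w0 R1) (aF κ s) (bF b) z 0 + X (xF w0 R1) (aF κ s) (bF b) z 7 := by
      simp only [X, xF, aF, bF, Matrix.cons_val]; ring
    simp only [Matrix.cons_val]
    push_cast
    rw [e1, e2]; linarith
  · exact Or.inl ⟨by wl, by wl, by wl⟩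
  · exact Or.inl ⟨by wl, by wl, by wl⟩
  · exact Or.inl ⟨by wl, by wl, by wl⟩
  · exact Or.inl ⟨by wl, by wl, by wl⟩
  · exact Or.inl ⟨by wl, by wl, by wl⟩
  · exact Or.inl ⟨by wl, by wl, by wl⟩

/-- legality of the boxes of the plane -/
theorem memLeg_F {κ s b w0 R1 R : ℝ} {z : ℝ × ℝ}
    (h : ∀ k, 0 ≤ X (xF w0 R1) (aF κ s) (bF b) z k ∧ X (xF w0 R1) (aF κ s) (bF b) z k ≤ R)
    (h7 : X (xF w0 R1) (aF κ s) (bF b) z 7 ≤ X (xF w0 R1) (aF κ s) (bF b) z 0 + R1) :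
    X (xF w0 R1) (aF κ s) (bF b) z ∈ Leg monQ R := by
  refine ⟨legalQ_iff.2 ⟨fun k => (h k).1, ?_⟩, fun k => (h k).2⟩
  have e1 : X (xF w0 R1) (aF κ s) (bF b) z 1 = R1 := by
    simp [X, xF, aF, bF]
  rw [e1]
  refine ⟨?_, ?_, h7, ?_, ?_, ?_, ?_, ?_, ?_, ?_, ?_⟩ <;>
    simp only [X, xF, aF, bF, Matrix.cons_val] <;> linarith

/-! ### decoupling data -/

section dir

variable {ι : Type*}

/-- groups by slope, `none` = `v`-slope `0` -/
noncomputable def grpS (a b : ι → ℝ) (i : ι) : Option ℝ :=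
  haveI := Classical.dec (a i = 0)
  if a i = 0 then none else some (b i / a i)

/-- directions of the groups -/
def nS : Option ℝ → ℝ × ℝ
  | none => (0, 1)
  | some ρ => (1, ρ)

/-- factors -/
noncomputable def dhS (a b : ι → ℝ) (i : ι) : ℝ :=
  haveI := Classical.dec (a i = 0)
  if a i = 0 then b i else a i

theorem grpS_zero {a b : ι → ℝ} {i : ι} (h : a i = 0) : grpS a b i = none := by
  unfold grpS; rw [if_pos h]

theorem grpS_ne {a b : ι → ℝ} {i : ι} (h : a i ≠ 0) : grpS a b i = some (b i / a i) := by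
  unfold grpS; rw [if_neg h]

theorem grpS_none {a b : ι → ℝ} {i : ι} : grpS a b i = none ↔ a i = 0 := by
  refine ⟨fun h => ?_, grpS_zero⟩
  by_contra hn
  rw [grpS_ne hn] at h
  exact Option.some_ne_none _ h

theorem dhS_zero {a b : ι → ℝ} {i : ι} (h : a i = 0) : dhS a b i = b i := by
  unfold dhS; rw [if_pos h]

theorem dhS_ne {a b : ι → ℝ} {i : ι} (h : a i ≠ 0) : dhS a b i = a i := by
  unfold dhS; rw [if_neg h]

/-- two slots are in the same group iff their slopes are parallel (`v`-slopes `≥ 0`, not `(0,0)`) -/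
theorem grpS_eq_iff {a b : ι → ℝ} {i j : ι} (hi : a i ≠ 0) (hj : a j ≠ 0) :
    grpS a b i = grpS a b j ↔ b i * a j = b j * a i := by
  rw [grpS_ne hi, grpS_ne hj, Option.some_inj, div_eq_div_iff hi hj]

/-- **every plane with `v`-slopes `≥ 0` has decoupling data**, the boundary group = the slots with
`v`-slope `0` (any `t`-slope, also `0`) -/
theorem dirS_nonneg {a b : ι → ℝ} (ha : ∀ i, 0 ≤ a i) :
    DirS (grpS a b) a b nS (dhS a b) none 1 0 where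
  pos := fun i hi => by
    have h : a i ≠ 0 := fun h => hi (grpS_zero h)
    rw [dhS_ne h]
    exact lt_of_le_of_ne (ha i) (Ne.symm h)
  fst := fun i => by
    by_cases h : a i = 0
    · rw [grpS_zero h, h]; simp [nS]
    · rw [grpS_ne h, dhS_ne h]; simp [nS]
  snd := fun i => by
    by_cases h : a i = 0
    · rw [grpS_zero h, dhS_zero h]; simp [nS]
    · rw [grpS_ne h, dhS_ne h]
      simp only [nS]
      field_simp
  ne := fun i => by
    by_cases h : a i = 0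
    · rw [grpS_zero h]
      intro e; have := congrArg Prod.snd e; simp [nS] at this
    · rw [grpS_ne h]
      intro e; have := congrArg Prod.fst e; simp [nS] at this
  det := fun i j hij => by
    by_cases hi : a i = 0 <;> by_cases hj : a j = 0
    · exact absurd (by rw [grpS_zero hi, grpS_zero hj]) hij
    · rw [grpS_zero hi, grpS_ne hj]; simp [nS, det2]
    · rw [grpS_ne hi, grpS_zero hj]; simp [nS, det2]
    · rw [grpS_ne hi, grpS_ne hj] at hij ⊢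
      simp only [nS, det2]
      intro e
      apply hij
      congr 1
      linarith
  bd := fun i hi => by
    rw [grpS_none.1 hi]; ring
  up := fun i hi => by
    have h : a i ≠ 0 := fun h => hi (grpS_zero h)
    have := lt_of_le_of_ne (ha i) (Ne.symm h)
    linarith

end dir

/-! ### the same slopes in 550's names -/

theorem xF_nat (w0 R1 : ℝ) : xF w0 R1 = nat4 w0 R1 0 0 0 0 := by
  funext k
  fin_cases k <;> simp [xF, nat4]

theorem aF_nL (κ s : ℝ) : aF κ s = nL 1 0 κ (s - 1) := by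
  funext k
  fin_cases k <;> simp [aF, nL]

theorem bF_nL (b : ℝ) : bF b = nL 0 1 1 b := by
  funext k
  fin_cases k <;> simp [bF, nL]

theorem W10_coneN : W10 = coneN := rfl

/-! ### dropped slots (cone planes): rung (ii) `{3}`, rung (iii) `{3, 4, 7}` -/

/-- base point of rung (ii): `F_b` at `8 M`, slot `1` at `M1` -/
def x2 (M M1 : ℝ) : Fin 11 → ℝ := ![0, M1, 0, 8 * M, 0, 0, 0, 0, 0, 0, 0]
/-- `v`-slopes of rung (ii), `s = 1` -/
def a2 (κ : ℝ) : Fin 11 → ℝ := ![1, 0, κ, 0, 0, 0, κ, 0, 1, 1 + κ, 1]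
/-- `t`-slopes of rung (ii) -/
def b2 (b : ℝ) : Fin 11 → ℝ := ![0, 0, 0, 0, b - 1, 1, 1, b, 1, 1, b]
/-- base point of rung (iii): `F_b`, `F_a`, `P` at `8 M`, `7 M`, `4 M`, slot `1` at `M1` -/
def x3 (M M1 : ℝ) : Fin 11 → ℝ := ![0, M1, 0, 8 * M, 7 * M, 0, 0, 4 * M, 0, 0, 0]
/-- `v`-slopes of rung (iii) -/
def a3 (κ s : ℝ) : Fin 11 → ℝ := ![1, 0, κ, 0, 0, 0, κ, 0, 1, 1 + κ, s]
/-- `t`-slopes of rung (iii) -/
def b3 (b : ℝ) : Fin 11 → ℝ := ![0, 0, 0, 0, 0, 1, 1, 0, 1, 1, b]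

theorem a2_eq (κ : ℝ) (k : Fin 11) (hk : k ≠ 3) : a2 κ k = aF κ 1 k := by
  fin_cases k <;> first | exact absurd rfl hk | simp [a2, aF]

theorem b2_eq (b : ℝ) (k : Fin 11) (hk : k ≠ 3) : b2 b k = bF b k := by
  fin_cases k <;> first | exact absurd rfl hk | simp [b2, bF]

theorem a3_eq (κ s : ℝ) (k : Fin 11) (h3 : k ≠ 3) (h4 : k ≠ 4) (h7 : k ≠ 7) :
    a3 κ s k = aF κ s k := by
  fin_cases k <;> first | exact absurd rfl h3 | exact absurd rfl h4 | exact absurd rfl h7 |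
    simp [a3, aF]

theorem b3_eq (b : ℝ) (k : Fin 11) (h3 : k ≠ 3) (h4 : k ≠ 4) (h7 : k ≠ 7) :
    b3 b k = bF b k := by
  fin_cases k <;> first | exact absurd rfl h3 | exact absurd rfl h4 | exact absurd rfl h7 |
    simp [b3, bF]

theorem a2_nonneg {κ : ℝ} (hκ : 0 ≤ κ) (k : Fin 11) : 0 ≤ a2 κ k := by
  fin_cases k <;>
    simp only [a2, Matrix.cons_val, Fin.zero_eta, Fin.mk_one, Fin.reduceFinMk, Fin.isValue] <;>
    linarith

theorem a3_nonneg {κ s : ℝ} (hκ : 0 ≤ κ) (hs : 0 ≤ s) (k : Fin 11) : 0 ≤ a3 κ s k := by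
  fin_cases k <;>
    simp only [a3, Matrix.cons_val, Fin.zero_eta, Fin.mk_one, Fin.reduceFinMk, Fin.isValue] <;>
    linarith

/-- the slots with `v`-slope `0` on rung (ii) -/
theorem a2_zero {κ : ℝ} (hκ : 0 < κ) (k : Fin 11) :
    a2 κ k = 0 ↔ k = 1 ∨ k = 3 ∨ k = 4 ∨ k = 5 ∨ k = 7 := by
  fin_cases k <;>
    simp only [a2, Matrix.cons_val, Fin.zero_eta, Fin.mk_one, Fin.reduceFinMk, Fin.isValue] <;>
    first
    | (constructor
       · intro h; exfalso; linarith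
       · intro h; exact absurd h (by decide))
    | (constructor
       · intro _; decide
       · intro _; first | rfl | ring | trivial)

/-- the slots with `v`-slope `0` on rung (iii) -/
theorem a3_zero {κ s : ℝ} (hκ : 0 < κ) (hs : 0 < s) (k : Fin 11) :
    a3 κ s k = 0 ↔ k = 1 ∨ k = 3 ∨ k = 4 ∨ k = 5 ∨ k = 7 := by
  fin_cases k <;>
    simp only [a3, Matrix.cons_val, Fin.zero_eta, Fin.mk_one, Fin.reduceFinMk, Fin.isValue] <;>
    first
    | (constructor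
       · intro h; exfalso; linarith
       · intro h; exact absurd h (by decide))
    | (constructor
       · intro _; decide
       · intro _; first | rfl | ring | trivial)

/-- the walls which are left on rung (ii) -/
def W7 : Set (Fin 11 → ℝ) := {c | c 6 ≤ c 2 + c 5 ∧ c 7 ≤ c 4 + c 5 ∧ c 8 ≤ c 0 + c 5 ∧
  c 9 ≤ c 0 + c 6 ∧ c 9 ≤ c 2 + c 8 ∧ c 10 ≤ c 0 + c 7 ∧ c 10 ≤ c 4 + c 8}

/-- the walls which are left on rung (iii) -/
def W4 : Set (Fin 11 → ℝ) := {c | c 6 ≤ c 2 + c 5 ∧ c 8 ≤ c 0 + c 5 ∧ c 9 ≤ c 0 + c 6 ∧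
  c 9 ≤ c 2 + c 8}

local macro "wl2" : tactic => `(tactic|
  (rw [sm]; simp only [x2, a2, b2, Matrix.cons_val]; push_cast; ring))

local macro "wn2" h:ident : tactic => `(tactic|
  (exfalso; rw [sm] at $h:ident; simp only [x2, Matrix.cons_val] at $h:ident; push_cast at $h:ident;
   linarith))

/-- **the cone of rung (ii)** -/
theorem memL_ii {κ b M M1 : ℝ} (hM : 0 < M) (hM1 : 0 < M1) {c : Fin 11 → ℝ} :
    c ∈ (mw monQ).L (x2 M M1) (a2 κ) (b2 b) ↔ c ∈ W7 := by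
  refine mem_mwL.trans ((monQ_all (fun k e => x2 M M1 k = ∑ s, (e s : ℝ) * x2 M M1 s →
    a2 κ k = ∑ j, (e j : ℝ) * a2 κ j → b2 b k = ∑ s, (e s : ℝ) * b2 b s →
      c k ≤ ∑ s, (e s : ℝ) * c s)).trans ?_)
  constructor
  · rintro ⟨h1, h2, h3, h4, h5, h6, h7, h8, h9, h10, h11, h12, h13, h14, h15, h16, h17, h18⟩
    refine ⟨?_, ?_, ?_, ?_, ?_, ?_, ?_⟩
    · have := h2 (by wl2) (by wl2) (by wl2)
      rw [sm] at this; simp only [Matrix.cons_val] at this; push_cast at this; linarith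
    · have := h4 (by wl2) (by wl2) (by wl2)
      rw [sm] at this; simp only [Matrix.cons_val] at this; push_cast at this; linarith
    · have := h7 (by wl2) (by wl2) (by wl2)
      rw [sm] at this; simp only [Matrix.cons_val] at this; push_cast at this; linarith
    · have := h8 (by wl2) (by wl2) (by wl2)
      rw [sm] at this; simp only [Matrix.cons_val] at this; push_cast at this; linarith
    · have := h9 (by wl2) (by wl2) (by wl2)
      rw [sm] at this; simp only [Matrix.cons_val] at this; push_cast at this; linarith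
    · have := h11 (by wl2) (by wl2) (by wl2)
      rw [sm] at this; simp only [Matrix.cons_val] at this; push_cast at this; linarith
    · have := h13 (by wl2) (by wl2) (by wl2)
      rw [sm] at this; simp only [Matrix.cons_val] at this; push_cast at this; linarith
  · rintro ⟨k1, k2, k3, k4, k5, k6, k7⟩
    refine ⟨?_, ?_, ?_, ?_, ?_, ?_, ?_, ?_, ?_, ?_, ?_, ?_, ?_, ?_, ?_, ?_, ?_, ?_⟩ <;>
      intro e1 e2 e3 <;> rw [sm] <;> simp only [Matrix.cons_val] <;> push_cast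
    · wn2 e1
    · linarith
    · wn2 e1
    · linarith
    · wn2 e1
    · wn2 e1
    · linarith
    · linarith
    · linarith
    · linarith
    · linarith
    · wn2 e1
    · linarith
    · wn2 e1
    · linarith
    · wn2 e1
    · wn2 e1
    · wn2 e1

local macro "wl3" : tactic => `(tactic|
  (rw [sm]; simp only [x3, a3, b3, Matrix.cons_val]; push_cast; ring))

local macro "wn3" h:ident : tactic => `(tactic|
  (exfalso; rw [sm] at $h:ident; simp only [x3, Matrix.cons_val] at $h:ident; push_cast at $h:ident;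
   linarith))

/-- **the cone of rung (iii)** -/
theorem memL_iii {κ s b M M1 : ℝ} (hM : 0 < M) (hM1 : 4 * M < M1) {c : Fin 11 → ℝ} :
    c ∈ (mw monQ).L (x3 M M1) (a3 κ s) (b3 b) ↔ c ∈ W4 := by
  refine mem_mwL.trans ((monQ_all (fun k e => x3 M M1 k = ∑ s, (e s : ℝ) * x3 M M1 s →
    a3 κ s k = ∑ j, (e j : ℝ) * a3 κ s j → b3 b k = ∑ s, (e s : ℝ) * b3 b s →
      c k ≤ ∑ s, (e s : ℝ) * c s)).trans ?_)
  constructor
  · rintro ⟨h1, h2, h3, h4, h5, h6, h7, h8, h9, h10, h11, h12, h13, h14, h15, h16, h17, h18⟩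
    refine ⟨?_, ?_, ?_, ?_⟩
    · have := h2 (by wl3) (by wl3) (by wl3)
      rw [sm] at this; simp only [Matrix.cons_val] at this; push_cast at this; linarith
    · have := h7 (by wl3) (by wl3) (by wl3)
      rw [sm] at this; simp only [Matrix.cons_val] at this; push_cast at this; linarith
    · have := h8 (by wl3) (by wl3) (by wl3)
      rw [sm] at this; simp only [Matrix.cons_val] at this; push_cast at this; linarith
    · have := h9 (by wl3) (by wl3) (by wl3)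
      rw [sm] at this; simp only [Matrix.cons_val] at this; push_cast at this; linarith
  · rintro ⟨k1, k2, k3, k4⟩
    refine ⟨?_, ?_, ?_, ?_, ?_, ?_, ?_, ?_, ?_, ?_, ?_, ?_, ?_, ?_, ?_, ?_, ?_, ?_⟩ <;>
      intro e1 e2 e3 <;> rw [sm] <;> simp only [Matrix.cons_val] <;> push_cast
    · wn3 e1
    · linarith
    · wn3 e1
    · wn3 e1
    · wn3 e1
    · wn3 e1
    · linarith
    · linarith
    · linarith
    · linarith
    · wn3 e1
    · wn3 e1
    · wn3 e1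
    · wn3 e1
    · wn3 e1
    · wn3 e1
    · wn3 e1
    · wn3 e1

/-- strict wall of a dropped plane -/
local macro "ws" : tactic => `(tactic|
  (right; rw [sm]; simp only [Matrix.cons_val]; push_cast; linarith))

/-- **the open set of rung (ii)** -/
theorem memO_ii {κ b M M1 : ℝ} {lo hi : Fin 11 → ℝ} {z : ℝ × ℝ} (hM1 : 3 * M ≤ M1)
    (hbox : ∀ k, lo k < X (x2 M M1) (a2 κ) (b2 b) z k ∧ X (x2 M M1) (a2 κ) (b2 b) z k < hi k)
    (hz : ∀ k, k ≠ 1 → k ≠ 3 → |X (x2 M M1) (a2 κ) (b2 b) z k| < M) :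
    z ∈ (mw monQ).O lo hi (x2 M M1) (a2 κ) (b2 b) := by
  rw [mem_mwO']
  have e1 : X (x2 M M1) (a2 κ) (b2 b) z 1 = M1 := by simp [X, x2, a2, b2]
  have e3 : X (x2 M M1) (a2 κ) (b2 b) z 3 = 8 * M := by simp [X, x2, a2, b2]
  have y0 := abs_lt.1 (hz 0 (by decide) (by decide))
  have y2 := abs_lt.1 (hz 2 (by decide) (by decide))
  have y4 := abs_lt.1 (hz 4 (by decide) (by decide))
  have y5 := abs_lt.1 (hz 5 (by decide) (by decide))
  have y6 := abs_lt.1 (hz 6 (by decide) (by decide))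
  have y7 := abs_lt.1 (hz 7 (by decide) (by decide))
  have y8 := abs_lt.1 (hz 8 (by decide) (by decide))
  have y9 := abs_lt.1 (hz 9 (by decide) (by decide))
  have y10 := abs_lt.1 (hz 10 (by decide) (by decide))
  refine ⟨hbox, (monQ_all (fun k e => (x2 M M1 k = ∑ s, (e s : ℝ) * x2 M M1 s ∧
    a2 κ k = ∑ j, (e j : ℝ) * a2 κ j ∧ b2 b k = ∑ s, (e s : ℝ) * b2 b s) ∨
      X (x2 M M1) (a2 κ) (b2 b) z k < ∑ j, (e j : ℝ) * X (x2 M M1) (a2 κ) (b2 b) z j)).2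
      ⟨?_, ?_, ?_, ?_, ?_, ?_, ?_, ?_, ?_, ?_, ?_, ?_, ?_, ?_, ?_, ?_, ?_, ?_⟩⟩
  · ws
  · exact Or.inl ⟨by wl2, by wl2, by wl2⟩
  · ws
  · exact Or.inl ⟨by wl2, by wl2, by wl2⟩
  · ws
  · ws
  · exact Or.inl ⟨by wl2, by wl2, by wl2⟩
  · exact Or.inl ⟨by wl2, by wl2, by wl2⟩
  · exact Or.inl ⟨by wl2, by wl2, by wl2⟩
  · exact Or.inl ⟨by wl2, by wl2, by wl2⟩
  · exact Or.inl ⟨by wl2, by wl2, by wl2⟩
  · ws
  · exact Or.inl ⟨by wl2, by wl2, by wl2⟩
  · ws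
  · exact Or.inl ⟨by wl2, by wl2, by wl2⟩
  · ws
  · ws
  · ws

/-- **the open set of rung (iii)** -/
theorem memO_iii {κ s b M M1 : ℝ} {lo hi : Fin 11 → ℝ} {z : ℝ × ℝ} (hM1 : 5 * M ≤ M1)
    (hbox : ∀ k, lo k < X (x3 M M1) (a3 κ s) (b3 b) z k ∧
      X (x3 M M1) (a3 κ s) (b3 b) z k < hi k)
    (hz : ∀ k, k ≠ 1 → k ≠ 3 → k ≠ 4 → k ≠ 7 → |X (x3 M M1) (a3 κ s) (b3 b) z k| < M) :
    z ∈ (mw monQ).O lo hi (x3 M M1) (a3 κ s) (b3 b) := by
  rw [mem_mwO']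
  have e1 : X (x3 M M1) (a3 κ s) (b3 b) z 1 = M1 := by simp [X, x3, a3, b3]
  have e3 : X (x3 M M1) (a3 κ s) (b3 b) z 3 = 8 * M := by simp [X, x3, a3, b3]
  have e4 : X (x3 M M1) (a3 κ s) (b3 b) z 4 = 7 * M := by simp [X, x3, a3, b3]
  have e7 : X (x3 M M1) (a3 κ s) (b3 b) z 7 = 4 * M := by simp [X, x3, a3, b3]
  have y0 := abs_lt.1 (hz 0 (by decide) (by decide) (by decide) (by decide))
  have y2 := abs_lt.1 (hz 2 (by decide) (by decide) (by decide) (by decide))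
  have y5 := abs_lt.1 (hz 5 (by decide) (by decide) (by decide) (by decide))
  have y6 := abs_lt.1 (hz 6 (by decide) (by decide) (by decide) (by decide))
  have y8 := abs_lt.1 (hz 8 (by decide) (by decide) (by decide) (by decide))
  have y9 := abs_lt.1 (hz 9 (by decide) (by decide) (by decide) (by decide))
  have y10 := abs_lt.1 (hz 10 (by decide) (by decide) (by decide) (by decide))
  refine ⟨hbox, (monQ_all (fun k e => (x3 M M1 k = ∑ s, (e s : ℝ) * x3 M M1 s ∧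
    a3 κ s k = ∑ j, (e j : ℝ) * a3 κ s j ∧ b3 b k = ∑ s, (e s : ℝ) * b3 b s) ∨
      X (x3 M M1) (a3 κ s) (b3 b) z k < ∑ j, (e j : ℝ) * X (x3 M M1) (a3 κ s) (b3 b) z j)).2
      ⟨?_, ?_, ?_, ?_, ?_, ?_, ?_, ?_, ?_, ?_, ?_, ?_, ?_, ?_, ?_, ?_, ?_, ?_⟩⟩
  · ws
  · exact Or.inl ⟨by wl3, by wl3, by wl3⟩
  · ws
  · ws
  · ws
  · ws
  · exact Or.inl ⟨by wl3, by wl3, by wl3⟩
  · exact Or.inl ⟨by wl3, by wl3, by wl3⟩
  · exact Or.inl ⟨by wl3, by wl3, by wl3⟩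
  · exact Or.inl ⟨by wl3, by wl3, by wl3⟩
  · ws
  · ws
  · ws
  · ws
  · ws
  · ws
  · ws
  · ws

end Crest.Agent.R136.LdF511
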