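import Crest.Agent.R136.Dg6_219

/-!
# R136 (helper904, piece P-F2 of case F): raising free slots everywhere above a free point

`LW Q A k` = `{c | ∀ w, A w → c (hd w) ≤ rhs w c + k w}` (`Q.L x0 a b` = `LW Q (Q.Act x0 a b) 0`,
`L_eq`).  `φ` antitone and supermodular on `LW`.
* `free_all` : `J` a set of slots such that every wall of `A` with head in `J` has a tail in `J`;
  if `φ (T + x 1_J) = φ T` for all `x ≥ 0` then `φ (c ⊔ (T + x 1_J)) = φ c` for all legal `c ≥ T`.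
* `free_eq`  : two legal points above `T` which agree off `J` have the same value.
* `free_all_L`, `free_eq_L` : the same for `Q.L x0 a b`.
-/

set_option autoImplicit false
set_option linter.unusedSectionVars false
set_option linter.unusedVariables false

open Set

namespace Crest.Agent.R136.LdF2904

open Dg219 (Walls)

variable {ι W : Type*} [Fintype ι] [DecidableEq ι] [Fintype W]

/-- legal set of the walls `A` with constants `k` -/
def LW (Q : Walls ι W) (A : W → Prop) (k : W → ℝ) : Set (ι → ℝ) :=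
  {c | ∀ w, A w → c (Q.hd w) ≤ Q.rhs w c + k w}

/-- indicator of a set of slots -/
def ind (J : Finset ι) : ι → ℝ := fun i => if i ∈ J then 1 else 0

theorem L_eq (Q : Walls ι W) (x0 a b : ι → ℝ) : Q.L x0 a b = LW Q (Q.Act x0 a b) 0 := by
  ext c
  simp [Walls.L, LW]

theorem rhs_mono (Q : Walls ι W) (w : W) {c d : ι → ℝ} (h : c ≤ d) : Q.rhs w c ≤ Q.rhs w d := by
  unfold Walls.rhs
  exact Finset.sum_le_sum fun s _ => mul_le_mul_of_nonneg_left (h s) (Nat.cast_nonneg _)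

theorem ind_nonneg (J : Finset ι) (i : ι) : 0 ≤ ind J i := by
  unfold ind; split_ifs <;> norm_num

theorem ind_mono {J J' : Finset ι} (h : J ⊆ J') (i : ι) : ind J i ≤ ind J' i := by
  unfold ind
  by_cases h1 : i ∈ J
  · rw [if_pos h1, if_pos (h h1)]
  · rw [if_neg h1]; split_ifs <;> norm_num

variable {Q : Walls ι W} {A : W → Prop} {k : W → ℝ}

theorem sup_mem {c d : ι → ℝ} (hc : c ∈ LW Q A k) (hd : d ∈ LW Q A k) : c ⊔ d ∈ LW Q A k := by
  intro w hw
  rw [Pi.sup_apply]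
  refine sup_le ?_ ?_
  · linarith [hc w hw, rhs_mono Q w (c := c) (d := c ⊔ d) le_sup_left]
  · linarith [hd w hw, rhs_mono Q w (c := d) (d := c ⊔ d) le_sup_right]

theorem rhs_ind {J : Finset ι} {w : W} {s : ι} (hs : s ∈ J) (h : Q.co w s ≠ 0) :
    1 ≤ Q.rhs w (ind J) := by
  have h1 : ind J s ≤ Q.rhs w (ind J) := Q.le_rhs (ind_nonneg J) h
  have h2 : ind J s = 1 := by unfold ind; rw [if_pos hs]
  linarith

/-- the slots of `J` of rank `< n` -/
def Jn (Q : Walls ι W) (J : Finset ι) (n : ℕ) : Finset ι := J.filter fun i => Q.rk i < n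

theorem Jn_sub (J : Finset ι) (n : ℕ) : Jn Q J n ⊆ J := Finset.filter_subset _ _

theorem Jn_mono (J : Finset ι) (n : ℕ) : Jn Q J n ⊆ Jn Q J (n + 1) := by
  intro i hi
  simp only [Jn, Finset.mem_filter] at hi ⊢
  exact ⟨hi.1, by omega⟩

theorem le_add_ind {T : ι → ℝ} {X : ℝ} (hX : 0 ≤ X) (J : Finset ι) : T ≤ T + X • ind J := by
  intro i
  simp only [Pi.add_apply, Pi.smul_apply, smul_eq_mul]
  nlinarith [ind_nonneg J i]

theorem add_ind_mono {T : ι → ℝ} {X : ℝ} (hX : 0 ≤ X) {J J' : Finset ι} (h : J ⊆ J') :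
    T + X • ind J ≤ T + X • ind J' := by
  intro i
  simp only [Pi.add_apply, Pi.smul_apply, smul_eq_mul]
  have := mul_le_mul_of_nonneg_left (ind_mono h i) hX
  linarith

/-- the basic estimate: a wall with head in `J` of rank `≤ n` is legal as soon as the point is above
`T + X 1_{J_n}` and the head is `≤ T + X` -/
theorem wall_in {J : Finset ι} (hJ : ∀ w, A w → Q.hd w ∈ J → ∃ s ∈ J, Q.co w s ≠ 0)
    {T m : ι → ℝ} (hT : T ∈ LW Q A k) {X : ℝ} (hX : 0 ≤ X) {n : ℕ}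
    (hm : T + X • ind (Jn Q J n) ≤ m) {w : W} (hw : A w) (hh : Q.hd w ∈ J)
    (hn : Q.rk (Q.hd w) ≤ n) : T (Q.hd w) + X ≤ Q.rhs w m + k w := by
  obtain ⟨s, hsJ, hs⟩ := hJ w hw hh
  have h1 : Q.rk s < Q.rk (Q.hd w) := Q.low w s hs
  have h2 : s ∈ Jn Q J n := by
    simp only [Jn, Finset.mem_filter]
    exact ⟨hsJ, by omega⟩
  have h3 : 1 ≤ Q.rhs w (ind (Jn Q J n)) := rhs_ind h2 hs
  have h4 := rhs_mono Q w hm
  rw [Q.rhs_add, Q.rhs_smul] at h4
  have h5 := hT w hw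
  nlinarith

/-- walls whose head is not raised -/
theorem wall_out {T m : ι → ℝ} (hT : T ∈ LW Q A k) (hm : T ≤ m) {w : W} (hw : A w) :
    T (Q.hd w) ≤ Q.rhs w m + k w := by
  linarith [hT w hw, rhs_mono Q w hm]

theorem up_mem {J : Finset ι} (hJ : ∀ w, A w → Q.hd w ∈ J → ∃ s ∈ J, Q.co w s ≠ 0)
    {T : ι → ℝ} (hT : T ∈ LW Q A k) {X : ℝ} (hX : 0 ≤ X) (n : ℕ) :
    T + X • ind (Jn Q J n) ∈ LW Q A k := by
  intro w hw
  by_cases hh : Q.hd w ∈ Jn Q J n
  · have h1 : Q.hd w ∈ J := Jn_sub J n hh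
    have h2 : Q.rk (Q.hd w) < n := by
      simp only [Jn, Finset.mem_filter] at hh
      exact hh.2
    have h3 := wall_in hJ hT hX (n := n) le_rfl hw h1 h2.le
    have h4 : (T + X • ind (Jn Q J n)) (Q.hd w) = T (Q.hd w) + X := by
      simp only [Pi.add_apply, Pi.smul_apply, smul_eq_mul, ind, if_pos hh, mul_one]
    rw [h4]; exact h3
  · have h4 : (T + X • ind (Jn Q J n)) (Q.hd w) = T (Q.hd w) := by
      simp only [Pi.add_apply, Pi.smul_apply, smul_eq_mul, ind, if_neg hh, mul_zero, add_zero]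
    rw [h4]
    exact wall_out hT (le_add_ind hX _) hw

theorem Jn_top (J : Finset ι) : Jn Q J (Finset.univ.sup Q.rk + 1) = J := by
  ext i
  simp only [Jn, Finset.mem_filter, and_iff_left_iff_imp]
  intro _
  have : Q.rk i ≤ Finset.univ.sup Q.rk := Finset.le_sup (Finset.mem_univ i)
  omega

theorem up_mem' {J : Finset ι} (hJ : ∀ w, A w → Q.hd w ∈ J → ∃ s ∈ J, Q.co w s ≠ 0)
    {T : ι → ℝ} (hT : T ∈ LW Q A k) {X : ℝ} (hX : 0 ≤ X) :
    T + X • ind J ∈ LW Q A k := by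
  have := up_mem hJ hT hX (Finset.univ.sup Q.rk + 1)
  rwa [Jn_top] at this

/-- **raising the free slots costs nothing above a free point** -/
theorem free_all {φ : (ι → ℝ) → ℝ}
    (hanti : ∀ p ∈ LW Q A k, ∀ q ∈ LW Q A k, p ≤ q → φ q ≤ φ p)
    (hs : ∀ p ∈ LW Q A k, ∀ q ∈ LW Q A k, p ⊓ q ∈ LW Q A k → p ⊔ q ∈ LW Q A k →
      φ p + φ q ≤ φ (p ⊔ q) + φ (p ⊓ q))
    {J : Finset ι} (hJ : ∀ w, A w → Q.hd w ∈ J → ∃ s ∈ J, Q.co w s ≠ 0)
    {T : ι → ℝ} (hT : T ∈ LW Q A k) (hfree : ∀ x : ℝ, 0 ≤ x → φ (T + x • ind J) = φ T)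
    {c : ι → ℝ} (hc : c ∈ LW Q A k) (hTc : T ≤ c) {X : ℝ} (hX : 0 ≤ X) :
    φ (c ⊔ (T + X • ind J)) = φ c := by
  have key : ∀ n : ℕ, φ (c ⊔ (T + X • ind (Jn Q J n))) = φ c := by
    intro n
    induction n with
    | zero =>
      have h0 : Jn Q J 0 = ∅ := by
        simp [Jn]
      have h1 : T + X • ind (Jn Q J 0) = T := by
        rw [h0]; funext i; simp [ind]
      rw [h1, sup_eq_left.2 hTc]
    | succ n ih =>
      set P : ι → ℝ := c ⊔ (T + X • ind (Jn Q J n)) with hP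
      set B : ι → ℝ := T + X • ind (Jn Q J (n + 1)) with hB
      have hPm : P ∈ LW Q A k := sup_mem hc (up_mem hJ hT hX n)
      have hBm : B ∈ LW Q A k := up_mem hJ hT hX (n + 1)
      have hmP : T + X • ind (Jn Q J n) ≤ P := le_sup_right
      have hmB : T + X • ind (Jn Q J n) ≤ B := add_ind_mono hX (Jn_mono J n)
      have hm : T + X • ind (Jn Q J n) ≤ P ⊓ B := le_inf hmP hmB
      have hTm : T ≤ P ⊓ B := (le_add_ind hX _).trans hm
      have hinf : P ⊓ B ∈ LW Q A k := by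
        intro w hw
        have h1 : (P ⊓ B) (Q.hd w) ≤ B (Q.hd w) := by
          rw [Pi.inf_apply]; exact inf_le_right
        by_cases hh : Q.hd w ∈ Jn Q J (n + 1)
        · have h2 : Q.hd w ∈ J := Jn_sub J _ hh
          have h3 : Q.rk (Q.hd w) ≤ n := by
            simp only [Jn, Finset.mem_filter] at hh
            omega
          have h4 : B (Q.hd w) = T (Q.hd w) + X := by
            rw [hB]
            simp only [Pi.add_apply, Pi.smul_apply, smul_eq_mul, ind, if_pos hh, mul_one]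
          have h5 := wall_in hJ hT hX hm hw h2 h3
          linarith
        · have h4 : B (Q.hd w) = T (Q.hd w) := by
            rw [hB]
            simp only [Pi.add_apply, Pi.smul_apply, smul_eq_mul, ind, if_neg hh, mul_zero,
              add_zero]
          have h5 := wall_out hT hTm hw (m := P ⊓ B)
          linarith
      have hsup : P ⊔ B ∈ LW Q A k := sup_mem hPm hBm
      have e1 : P ⊔ B = c ⊔ B := by
        rw [hP, sup_assoc, sup_eq_right.2 hmB]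
      have h1 := hs P hPm B hBm hinf hsup
      have h2 : φ (P ⊓ B) ≤ φ T := hanti T hT _ hinf hTm
      have h3 : φ T ≤ φ B := by
        rw [← hfree X hX]
        exact hanti B hBm _ (up_mem' hJ hT hX) (add_ind_mono hX (Jn_sub J _))
      have h4 : φ (P ⊔ B) ≤ φ c := by
        rw [e1]
        exact hanti c hc _ (sup_mem hc hBm) le_sup_left
      rw [← e1]
      linarith
  have := key (Finset.univ.sup Q.rk + 1)
  rwa [Jn_top] at this

/-- two legal points above `T` which agree off `J` have the same value -/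
theorem free_eq {φ : (ι → ℝ) → ℝ}
    (hanti : ∀ p ∈ LW Q A k, ∀ q ∈ LW Q A k, p ≤ q → φ q ≤ φ p)
    (hs : ∀ p ∈ LW Q A k, ∀ q ∈ LW Q A k, p ⊓ q ∈ LW Q A k → p ⊔ q ∈ LW Q A k →
      φ p + φ q ≤ φ (p ⊔ q) + φ (p ⊓ q))
    {J : Finset ι} (hJ : ∀ w, A w → Q.hd w ∈ J → ∃ s ∈ J, Q.co w s ≠ 0)
    {T : ι → ℝ} (hT : T ∈ LW Q A k) (hfree : ∀ x : ℝ, 0 ≤ x → φ (T + x • ind J) = φ T)
    {c d : ι → ℝ} (hc : c ∈ LW Q A k) (hd : d ∈ LW Q A k) (hTc : T ≤ c) (hTd : T ≤ d)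
    (hcd : ∀ i, i ∉ J → c i = d i) : φ c = φ d := by
  set X : ℝ := ∑ i, (|c i - T i| + |d i - T i|) with hX
  have hX0 : 0 ≤ X := Finset.sum_nonneg fun i _ => by positivity
  have hle : ∀ i, |c i - T i| + |d i - T i| ≤ X := fun i =>
    Finset.single_le_sum (f := fun i => |c i - T i| + |d i - T i|)
      (fun i _ => by positivity) (Finset.mem_univ i)
  rw [← free_all hanti hs hJ hT hfree hc hTc hX0, ← free_all hanti hs hJ hT hfree hd hTd hX0]
  congr 1
  funext i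
  simp only [Pi.sup_apply, Pi.add_apply, Pi.smul_apply, smul_eq_mul]
  by_cases hi : i ∈ J
  · have h1 : c i ≤ T i + X * ind J i := by
      simp only [ind, if_pos hi, mul_one]
      linarith [hle i, le_abs_self (c i - T i), abs_nonneg (d i - T i)]
    have h2 : d i ≤ T i + X * ind J i := by
      simp only [ind, if_pos hi, mul_one]
      linarith [hle i, le_abs_self (d i - T i), abs_nonneg (c i - T i)]
    rw [sup_eq_right.2 h1, sup_eq_right.2 h2]
  · rw [hcd i hi]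

section L

variable {x0 a b : ι → ℝ}

/-- `free_all` on the cone of the active walls -/
theorem free_all_L {φ : (ι → ℝ) → ℝ}
    (hanti : ∀ p ∈ Q.L x0 a b, ∀ q ∈ Q.L x0 a b, p ≤ q → φ q ≤ φ p)
    (hs : ∀ p ∈ Q.L x0 a b, ∀ q ∈ Q.L x0 a b, p ⊓ q ∈ Q.L x0 a b → p ⊔ q ∈ Q.L x0 a b →
      φ p + φ q ≤ φ (p ⊔ q) + φ (p ⊓ q))
    {J : Finset ι} (hJ : ∀ w, Q.Act x0 a b w → Q.hd w ∈ J → ∃ s ∈ J, Q.co w s ≠ 0)
    {T : ι → ℝ} (hT : T ∈ Q.L x0 a b) (hfree : ∀ x : ℝ, 0 ≤ x → φ (T + x • ind J) = φ T)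
    {c : ι → ℝ} (hc : c ∈ Q.L x0 a b) (hTc : T ≤ c) {X : ℝ} (hX : 0 ≤ X) :
    φ (c ⊔ (T + X • ind J)) = φ c := by
  rw [L_eq] at hanti hs hT hc
  exact free_all hanti hs hJ hT hfree hc hTc hX

/-- `free_eq` on the cone of the active walls -/
theorem free_eq_L {φ : (ι → ℝ) → ℝ}
    (hanti : ∀ p ∈ Q.L x0 a b, ∀ q ∈ Q.L x0 a b, p ≤ q → φ q ≤ φ p)
    (hs : ∀ p ∈ Q.L x0 a b, ∀ q ∈ Q.L x0 a b, p ⊓ q ∈ Q.L x0 a b → p ⊔ q ∈ Q.L x0 a b →
      φ p + φ q ≤ φ (p ⊔ q) + φ (p ⊓ q))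
    {J : Finset ι} (hJ : ∀ w, Q.Act x0 a b w → Q.hd w ∈ J → ∃ s ∈ J, Q.co w s ≠ 0)
    {T : ι → ℝ} (hT : T ∈ Q.L x0 a b) (hfree : ∀ x : ℝ, 0 ≤ x → φ (T + x • ind J) = φ T)
    {c d : ι → ℝ} (hc : c ∈ Q.L x0 a b) (hd : d ∈ Q.L x0 a b) (hTc : T ≤ c) (hTd : T ≤ d)
    (hcd : ∀ i, i ∉ J → c i = d i) : φ c = φ d := by
  rw [L_eq] at hanti hs hT hc hd
  exact free_eq hanti hs hJ hT hfree hc hd hTc hTd hcd

end L

end Crest.Agent.R136.LdF2904
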