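import Crest.Agent.R136.LdF1_511
import Crest.Agent.R136.K2X_774

/-!
# R136, case F (slot 21 tied, 31 and 32 not): instance of the ladder `K2T_774` (helper511)

`Q = mw monQ`, walls `AF J` = walls without the slot `1` and without the slots of `J` (neither as
head nor as coefficient), `J = ∅, {3}, {3, 4, 7}`; record direction `rhoF`, record point `recF`;
`DlF` linear functional of D-max, `QdF` cone of the boxes where it holds near the record;
`Z = {5, 1}`, `Tie = {2}`, `kz = 0`, `o 2 = θ 1 - θ 2`.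

* `cn_W10`, `cn_W7`, `cn_W4` : the cones of the three rungs
* `nat_AF`, `qd_rec`, `tie_rec` : `RecD`
* `TF1`, `TF2`, `TF3` : the three ray vectors (positive parameters on the dropped slots)
* `prfF`, `recF_leg`, `recF_rec`, `recF_dmax`, `recF_own` : facts at a record point `0 < v0 < 1`
-/

set_option autoImplicit false
set_option linter.unusedVariables false

open Finset Filter Topology

namespace Crest.Agent.R136.LdF3511

open Crest.Agent.R138.Ex926 (Base U QProf cls mem_cls)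
open Crest.Agent.R136.Net191
open Crest.Agent.R136.NetQ186
open Crest.Agent.R136.Wq638
open Crest.Agent.R136.Lq196
open Crest.Agent.R136.NatT550
open Crest.Agent.R136.NatR550 (nL coneN DN nat_dmax rec_ge rec_eq rec_leg)
open Crest.Agent.R136.Top484
open Crest.Agent.R136.LdF511
open Dg262 (X SupOn)
open Dg219 (mw mem_mwL Walls Tn)

/-- index set of the walls of the chart -/
abbrev WI : Type := Σ k : Fin 11, {e // e ∈ monQ.mon k}

/-! ### walls -/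

/-- walls without the slot `1` and without the slots of `J` -/
def AF (J : Finset (Fin 11)) (w : WI) : Prop :=
  (mw monQ).co w 1 = 0 ∧ (mw monQ).hd w ∉ J ∧ ∀ s ∈ J, (mw monQ).co w s = 0

theorem AF_step (J J' : Finset (Fin 11)) (w : WI) :
    AF (J ∪ J') w ↔ AF J w ∧ (mw monQ).hd w ∉ J' ∧ ∀ s ∈ J', (mw monQ).co w s = 0 := by
  unfold AF
  simp only [Finset.mem_union, not_or]
  constructor
  · rintro ⟨h1, ⟨h2, h3⟩, h4⟩
    exact ⟨⟨h1, h2, fun s hs => h4 s (Or.inl hs)⟩, h3, fun s hs => h4 s (Or.inr hs)⟩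
  · rintro ⟨⟨h1, h2, h3⟩, h4, h5⟩
    exact ⟨h1, ⟨h2, h4⟩, fun s hs => hs.elim (h3 s) (h5 s)⟩

/-- all walls of the chart, one by one -/
theorem forall_WI (φ : Fin 11 → (Fin 11 → ℕ) → Prop) :
    (∀ w : WI, φ w.1 w.2.1) ↔ ∀ k, ∀ e ∈ monQ.mon k, φ k e :=
  ⟨fun h k e he => h ⟨k, e, he⟩, fun h w => h w.1 w.2.1 w.2.2⟩

/-- cone of a set of walls = `K2T.cn (mw monQ) A` -/
def cnF (A : WI → Prop) : Set (Fin 11 → ℝ) :=
  {c | ∀ w, A w → c ((mw monQ).hd w) ≤ (mw monQ).rhs w c}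

theorem mem_cnF (J : Finset (Fin 11)) (c : Fin 11 → ℝ) : c ∈ cnF (AF J) ↔
    ∀ k, ∀ e ∈ monQ.mon k, (e 1 = 0 ∧ k ∉ J ∧ ∀ s ∈ J, e s = 0) → c k ≤ ∑ s, (e s : ℝ) * c s :=
  forall_WI fun k e => (e 1 = 0 ∧ k ∉ J ∧ ∀ s ∈ J, e s = 0) → c k ≤ ∑ s, (e s : ℝ) * c s

local macro "us" h:ident : tactic => `(tactic|
  (have hh := $h:ident ⟨by decide, by decide, by decide⟩
   rw [sm] at hh; simp only [Matrix.cons_val] at hh; push_cast at hh; linarith))

/-- **cone of the ten walls** -/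
theorem cn_W10 : cnF (AF ∅) = W10 := by
  ext c
  rw [mem_cnF, monQ_all (fun k e => (e 1 = 0 ∧ k ∉ (∅ : Finset (Fin 11)) ∧
    ∀ s ∈ (∅ : Finset (Fin 11)), e s = 0) → c k ≤ ∑ s, (e s : ℝ) * c s)]
  constructor
  · rintro ⟨h1, h2, h3, h4, h5, h6, h7, h8, h9, h10, h11, h12, h13, h14, h15, h16, h17, h18⟩
    refine ⟨?_, ?_, ?_, ?_, ?_, ?_, ?_, ?_, ?_, ?_⟩
    · us h1
    · us h2
    · us h4
    · us h6
    · us h7
    · us h8
    · us h9
    · us h11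
    · us h13
    · us h17
  · intro h
    obtain ⟨⟨a1, a2, a3, a4, a5, a6, a7, a8, a9⟩, b1, b2, b3, b4, b5, b6, b7⟩ := W10_all h 0
    refine ⟨?_, ?_, ?_, ?_, ?_, ?_, ?_, ?_, ?_, ?_, ?_, ?_, ?_, ?_, ?_, ?_, ?_, ?_⟩ <;>
      rintro ⟨e1, e2, e3⟩ <;> rw [sm] <;> simp only [Matrix.cons_val] <;> push_cast
    · linarith
    · linarith
    · exact absurd e1 (by decide)
    · linarith
    · linarith
    · linarith
    · linarith
    · linarith
    · linarith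
    · linarith
    · linarith
    · exact absurd e1 (by decide)
    · linarith
    · linarith
    · linarith
    · linarith
    · linarith
    · linarith

/-- **cone after dropping `F_b`** -/
theorem cn_W7 : cnF (AF {3}) = W7 := by
  ext c
  rw [mem_cnF, monQ_all (fun k e => (e 1 = 0 ∧ k ∉ ({3} : Finset (Fin 11)) ∧
    ∀ s ∈ ({3} : Finset (Fin 11)), e s = 0) → c k ≤ ∑ s, (e s : ℝ) * c s)]
  constructor
  · rintro ⟨h1, h2, h3, h4, h5, h6, h7, h8, h9, h10, h11, h12, h13, h14, h15, h16, h17, h18⟩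
    refine ⟨?_, ?_, ?_, ?_, ?_, ?_, ?_⟩
    · us h2
    · us h4
    · us h7
    · us h8
    · us h9
    · us h11
    · us h13
  · rintro ⟨k1, k2, k3, k4, k5, k6, k7⟩
    refine ⟨?_, ?_, ?_, ?_, ?_, ?_, ?_, ?_, ?_, ?_, ?_, ?_, ?_, ?_, ?_, ?_, ?_, ?_⟩ <;>
      rintro ⟨e1, e2, e3⟩ <;> first
      | exact absurd e1 (by decide)
      | exact absurd (e3 3 (by decide)) (by decide)
      | (rw [sm]; simp only [Matrix.cons_val]; push_cast; linarith)

/-- **cone after dropping `F_b, F_a, P`** -/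
theorem cn_W4 : cnF (AF {3, 4, 7}) = W4 := by
  ext c
  rw [mem_cnF, monQ_all (fun k e => (e 1 = 0 ∧ k ∉ ({3, 4, 7} : Finset (Fin 11)) ∧
    ∀ s ∈ ({3, 4, 7} : Finset (Fin 11)), e s = 0) → c k ≤ ∑ s, (e s : ℝ) * c s)]
  constructor
  · rintro ⟨h1, h2, h3, h4, h5, h6, h7, h8, h9, h10, h11, h12, h13, h14, h15, h16, h17, h18⟩
    refine ⟨?_, ?_, ?_, ?_⟩
    · us h2
    · us h7
    · us h8
    · us h9
  · rintro ⟨k1, k2, k3, k4⟩
    refine ⟨?_, ?_, ?_, ?_, ?_, ?_, ?_, ?_, ?_, ?_, ?_, ?_, ?_, ?_, ?_, ?_, ?_, ?_⟩ <;>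
      rintro ⟨e1, e2, e3⟩ <;> first
      | exact absurd e1 (by decide)
      | exact absurd e2 (by decide)
      | exact absurd (e3 3 (by decide)) (by decide)
      | exact absurd (e3 4 (by decide)) (by decide)
      | exact absurd (e3 7 (by decide)) (by decide)
      | (rw [sm]; simp only [Matrix.cons_val]; push_cast; linarith)

/-- a statement about all walls without slot `1` -/
theorem AF_all (J : Finset (Fin 11)) (φ : Fin 11 → (Fin 11 → ℕ) → Prop)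
    (h : ∀ k, ∀ e ∈ monQ.mon k, (e 1 = 0 ∧ k ∉ J ∧ ∀ s ∈ J, e s = 0) → φ k e) (w : WI)
    (hw : AF J w) : φ w.1 w.2.1 := h w.1 w.2.1 w.2.2 hw

/-- **natural vectors satisfy all walls without slot `1` with equality** -/
theorem nat_AF (v t1 t2 t3 : ℝ) {w : WI} (hw : AF ∅ w) :
    nL v t1 t2 t3 ((mw monQ).hd w) = (mw monQ).rhs w (nL v t1 t2 t3) := by
  refine AF_all ∅ (fun k e => nL v t1 t2 t3 k = ∑ s, (e s : ℝ) * nL v t1 t2 t3 s) ?_ w hw
  refine (monQ_all (fun k e => (e 1 = 0 ∧ k ∉ (∅ : Finset (Fin 11)) ∧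
    ∀ s ∈ (∅ : Finset (Fin 11)), e s = 0) → nL v t1 t2 t3 k = ∑ s, (e s : ℝ) * nL v t1 t2 t3 s)).2
    ⟨?_, ?_, ?_, ?_, ?_, ?_, ?_, ?_, ?_, ?_, ?_, ?_, ?_, ?_, ?_, ?_, ?_, ?_⟩ <;>
    rintro ⟨e1, -, -⟩ <;> first
    | exact absurd e1 (by decide)
    | (rw [sm]; simp only [nL, Matrix.cons_val]; push_cast; ring)

/-- equality on the walls only depends on the slots outside `J` -/
theorem nat_congr {J : Finset (Fin 11)} {c d : Fin 11 → ℝ} (hcd : ∀ i, i ∉ J → c i = d i) {w : WI}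
    (hw : AF J w) (hd : d ((mw monQ).hd w) = (mw monQ).rhs w d) :
    c ((mw monQ).hd w) = (mw monQ).rhs w c := by
  rw [hcd _ hw.2.1, hd]
  unfold Walls.rhs
  refine Finset.sum_congr rfl fun s _ => ?_
  by_cases hs : s ∈ J
  · rw [hw.2.2 s hs]; simp
  · rw [hcd s hs]

theorem AF_mono {J J' : Finset (Fin 11)} (h : J ⊆ J') {w : WI} (hw : AF J' w) : AF J w :=
  ⟨hw.1, fun h' => hw.2.1 (h h'), fun s hs => hw.2.2 s (h hs)⟩

theorem head3 {w : WI} (hw : AF ∅ w) (h : (mw monQ).hd w ∈ ({3} : Finset (Fin 11))) :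
    ∃ s ∈ ({3} : Finset (Fin 11)), (mw monQ).co w s ≠ 0 := by
  exfalso
  refine AF_all ∅ (fun k e => k ∉ ({3} : Finset (Fin 11))) ?_ w hw h
  refine (monQ_all (fun k e => (e 1 = 0 ∧ k ∉ (∅ : Finset (Fin 11)) ∧
    ∀ s ∈ (∅ : Finset (Fin 11)), e s = 0) → k ∉ ({3} : Finset (Fin 11)))).2
    ⟨?_, ?_, ?_, ?_, ?_, ?_, ?_, ?_, ?_, ?_, ?_, ?_, ?_, ?_, ?_, ?_, ?_, ?_⟩ <;>
    exact fun _ => by decide

theorem head47 {w : WI} (hw : AF {3} w) (h : (mw monQ).hd w ∈ ({4, 7} : Finset (Fin 11))) :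
    ∃ s ∈ ({4, 7} : Finset (Fin 11)), (mw monQ).co w s ≠ 0 := by
  refine AF_all {3} (fun k e => k ∈ ({4, 7} : Finset (Fin 11)) →
    ∃ s ∈ ({4, 7} : Finset (Fin 11)), e s ≠ 0) ?_ w hw h
  refine (monQ_all (fun k e => (e 1 = 0 ∧ k ∉ ({3} : Finset (Fin 11)) ∧
    ∀ s ∈ ({3} : Finset (Fin 11)), e s = 0) → k ∈ ({4, 7} : Finset (Fin 11)) →
      ∃ s ∈ ({4, 7} : Finset (Fin 11)), e s ≠ 0)).2
    ⟨?_, ?_, ?_, ?_, ?_, ?_, ?_, ?_, ?_, ?_, ?_, ?_, ?_, ?_, ?_, ?_, ?_, ?_⟩ <;>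
    rintro ⟨e1, e2, e3⟩ hk <;> first
      | exact absurd e1 (by decide)
      | exact absurd hk (by decide)
      | exact absurd (e3 3 (by decide)) (by decide)
      | exact ⟨4, by decide, by decide⟩

/-! ### natural vectors, D-max functional -/

theorem nL_add (v t1 t2 t3 v' t1' t2' t3' : ℝ) : nL v t1 t2 t3 + nL v' t1' t2' t3' =
    nL (v + v') (t1 + t1') (t2 + t2') (t3 + t3') := by
  funext k
  fin_cases k <;>
    simp only [nL, Pi.add_apply, Matrix.cons_val, Fin.zero_eta, Fin.mk_one, Fin.reduceFinMk,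
      Fin.isValue] <;> ring

theorem nL_smul (c v t1 t2 t3 : ℝ) : c • nL v t1 t2 t3 = nL (c * v) (c * t1) (c * t2) (c * t3) := by
  funext k
  fin_cases k <;>
    simp only [nL, Pi.smul_apply, smul_eq_mul, Matrix.cons_val, Fin.zero_eta, Fin.mk_one,
      Fin.reduceFinMk, Fin.isValue] <;> ring

theorem nL_neg (v t1 t2 t3 : ℝ) : -nL v t1 t2 t3 = nL (-v) (-t1) (-t2) (-t3) := by
  have := nL_smul (-1) v t1 t2 t3
  rw [neg_one_smul] at this
  rw [this]; simp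

theorem nat4_add (w0 R1 v t1 t2 t3 v' t1' t2' t3' : ℝ) :
    nat4 w0 R1 v t1 t2 t3 + nL v' t1' t2' t3' =
      nat4 w0 R1 (v + v') (t1 + t1') (t2 + t2') (t3 + t3') := by
  funext k
  fin_cases k <;>
    simp only [nL, nat4, Pi.add_apply, Matrix.cons_val, Fin.zero_eta, Fin.mk_one, Fin.reduceFinMk,
      Fin.isValue] <;> ring

/-- record direction -/
def rhoF (θ : Fin 3 → ℝ) : Fin 11 → ℝ := nL 1 (-θ 1) (-θ 2) (-θ 0)

/-- record point -/
def recF (θ : Fin 3 → ℝ) (w0 R1 v : ℝ) : Fin 11 → ℝ :=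
  nat4 w0 R1 v (-(θ 1 * v)) (-(θ 2 * v)) (-(θ 0 * v))

theorem recF_add (θ : Fin 3 → ℝ) (w0 R1 v x : ℝ) :
    recF θ w0 R1 v + x • rhoF θ = recF θ w0 R1 (v + x) := by
  unfold recF rhoF
  rw [nL_smul, nat4_add]
  congr 1 <;> ring

/-- linear functional of D-max (for all legal directions) -/
def DlF (p : Par4) (c : Fin 11 → ℝ) : ℝ :=
  p.g * c 0 - c 0 - (c 10 + c 9 + c 8) - p.q 0 * c 7 - p.q 1 * c 5 - p.q 2 * c 6

theorem DlF_add (p : Par4) (c d : Fin 11 → ℝ) : DlF p (c + d) = DlF p c + DlF p d := by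
  simp only [DlF, Pi.add_apply]; ring

theorem DlF_smul (p : Par4) (x : ℝ) (c : Fin 11 → ℝ) : DlF p (x • c) = x * DlF p c := by
  simp only [DlF, Pi.smul_apply, smul_eq_mul]; ring

theorem DlF_zero (p : Par4) : DlF p 0 = 0 := by
  simp [DlF]

/-- as a linear map -/
def DlFL (p : Par4) : (Fin 11 → ℝ) →ₗ[ℝ] ℝ where
  toFun := DlF p
  map_add' := DlF_add p
  map_smul' := fun x c => by simp [DlF_smul]

theorem DlF_nL (p : Par4) (v t1 t2 t3 : ℝ) : DlF p (nL v t1 t2 t3) = (p.g - 1) * v - (v + t3) -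
    (v + t2) - (v + t1) - p.q 0 * t3 - p.q 1 * t1 - p.q 2 * t2 := by
  simp only [DlF, nL, Matrix.cons_val]; ring

theorem DN_nat (p : Par4) (v t1 t2 t3 v' t1' t2' t3' : ℝ) :
    DN p (v + v') (t1 + t1') (t2 + t2') (t3 + t3') =
      DN p v t1 t2 t3 + DlF p (nL v' t1' t2' t3') := by
  rw [DlF_nL]; unfold DN; ring

/-- value on the ray of slope `s` -/
theorem DlF_ray (p : Par4) (κ s : ℝ) : DlF p (nL 1 0 κ (s - 1)) =
    p.g - 1 - s - (1 + κ) - 1 - p.q 0 * (s - 1) - p.q 2 * κ := by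
  rw [DlF_nL]; ring

theorem DlF_rho (p : Par4) : DlF p (rhoF p.θ) = (p.g - 1) - (1 - p.θ 0) - (1 - p.θ 2) -
    (1 - p.θ 1) + p.q 0 * p.θ 0 + p.q 1 * p.θ 1 + p.q 2 * p.θ 2 := by
  unfold rhoF
  rw [DlF_nL]; ring

/-- directions (relative to a record point) where D-max holds: **all legal ones** -/
def QdF (θ : Fin 3 → ℝ) : Set (Fin 11 → ℝ) :=
  {d | d ∈ W10 ∧ (θ 0 = 1 → d 0 + d 7 ≤ 0)}

theorem qd_W10 {θ : Fin 3 → ℝ} {d : Fin 11 → ℝ} (hd : d ∈ QdF θ) : d ∈ W10 := hd.1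

theorem nL_W10 (v t1 t2 t3 : ℝ) : nL v t1 t2 t3 ∈ W10 := by
  refine ⟨?_, ?_, ?_, ?_, ?_, ?_, ?_, ?_, ?_, ?_⟩ <;>
    simp only [nL, Matrix.cons_val] <;> linarith

theorem W10_add {c d : Fin 11 → ℝ} (hc : c ∈ W10) (hd : d ∈ W10) : c + d ∈ W10 := by
  obtain ⟨a1, a2, a3, a4, a5, a6, a7, a8, a9, a10⟩ := hc
  obtain ⟨b1, b2, b3, b4, b5, b6, b7, b8, b9, b10⟩ := hd
  refine ⟨?_, ?_, ?_, ?_, ?_, ?_, ?_, ?_, ?_, ?_⟩ <;> simp only [Pi.add_apply] <;> linarith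

theorem W10_smul {c : Fin 11 → ℝ} (hc : c ∈ W10) {t : ℝ} (ht : 0 ≤ t) : t • c ∈ W10 := by
  obtain ⟨a1, a2, a3, a4, a5, a6, a7, a8, a9, a10⟩ := hc
  refine ⟨?_, ?_, ?_, ?_, ?_, ?_, ?_, ?_, ?_, ?_⟩ <;>
    simp only [Pi.smul_apply, smul_eq_mul, ← mul_add] <;>
    exact mul_le_mul_of_nonneg_left (by assumption) ht

theorem qd_nL {θ : Fin 3 → ℝ} {v t1 t2 t3 : ℝ} (h : θ 0 = 1 → v + t3 ≤ 0) :
    nL v t1 t2 t3 ∈ QdF θ := ⟨nL_W10 _ _ _ _, fun h0 => by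
  have := h h0
  simp only [nL, Matrix.cons_val]; exact this⟩

theorem qd_rec {θ : Fin 3 → ℝ} {d : Fin 11 → ℝ} (hd : d ∈ QdF θ) (x : ℝ) {t : ℝ} (ht : 0 ≤ t) :
    x • rhoF θ + t • d ∈ QdF θ := by
  refine ⟨W10_add ?_ (W10_smul hd.1 ht), fun h0 => ?_⟩
  · unfold rhoF; rw [nL_smul]; exact nL_W10 _ _ _ _
  · have h1 := mul_nonneg ht (neg_nonneg.2 (hd.2 h0))
    simp only [rhoF, nL, Pi.add_apply, Pi.smul_apply, smul_eq_mul, Matrix.cons_val, h0]
    linarith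

/-- `-T'` is a D-max box for the ray of slope `s ≥ 0` -/
theorem qd_ray (θ : Fin 3 → ℝ) (κ : ℝ) {s : ℝ} (hs : 0 ≤ s) : -nL 1 0 κ (s - 1) ∈ QdF θ := by
  rw [nL_neg]
  exact qd_nL fun _ => by linarith

/-- the slot `C_a` alone is a D-max direction, its cost is `q 1` -/
theorem qd_ca (θ : Fin 3 → ℝ) : Pi.single 5 1 ∈ QdF θ := by
  refine ⟨⟨?_, ?_, ?_, ?_, ?_, ?_, ?_, ?_, ?_, ?_⟩, fun _ => ?_⟩ <;>
    simp [Pi.single_apply]

theorem DlF_ca (p : Par4) : DlF p (Pi.single 5 1) = -p.q 1 := by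
  simp [DlF, Pi.single_apply]

/-- ties: the slot `21` of the record direction -/
theorem tie_rec (θ : Fin 3 → ℝ) : ∀ i ∈ ({2} : Finset (Fin 11)),
    rhoF θ i = (θ 1 - θ 2) * rhoF θ 0 := by
  intro i hi
  rw [Finset.mem_singleton] at hi
  subst hi
  simp only [rhoF, nL, Matrix.cons_val]; ring

/-! ### rays of the three rungs (`x` = free positive numbers on the dropped slots) -/

/-- natural ray of the rung of slope `s` -/
def TpF (κ s : ℝ) : Fin 11 → ℝ := nL 1 0 κ (s - 1)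

/-- ray with the values `x` on the dropped slots -/
def TF (J : Finset (Fin 11)) (κ s : ℝ) (x : Fin 11 → ℝ) (i : Fin 11) : ℝ :=
  if i ∈ J then x i else TpF κ s i

theorem TF_off {J : Finset (Fin 11)} {κ s : ℝ} {x : Fin 11 → ℝ} {i : Fin 11} (h : i ∉ J) :
    TpF κ s i = TF J κ s x i := by
  unfold TF; rw [if_neg h]

theorem TF_on {J : Finset (Fin 11)} {κ s : ℝ} {x : Fin 11 → ℝ} {i : Fin 11} (h : i ∈ J) :
    TF J κ s x i = x i := by
  unfold TF; rw [if_pos h]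

theorem natTF {J : Finset (Fin 11)} (κ s : ℝ) (x : Fin 11 → ℝ) {w : WI} (hw : AF J w) :
    TF J κ s x ((mw monQ).hd w) = (mw monQ).rhs w (TF J κ s x) :=
  nat_congr (fun i hi => (TF_off hi).symm) hw
    (nat_AF 1 0 κ (s - 1) (AF_mono (Finset.empty_subset J) hw))

/-- the values of the natural ray -/
theorem TpF_val (κ s : ℝ) : TpF κ s = ![1, 0, κ, s - 1 - κ, s - 1, 0, κ, s - 1, 1, 1 + κ, s] := by
  funext k
  fin_cases k <;> simp [TpF, nL]

/-- **rung (i)**, `s = 1 + κ`, nothing dropped, `J = {3}` -/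
theorem TF_i {κ : ℝ} (hκ : 0 < κ) (x : Fin 11 → ℝ) : (∀ i, 0 ≤ TF ∅ κ (1 + κ) x i) ∧
    (∀ i ∈ ({3} : Finset (Fin 11)), TF ∅ κ (1 + κ) x i = 0) ∧
    (∀ i, i ∉ ({3} : Finset (Fin 11)) → i ∉ ({5, 1} : Finset (Fin 11)) →
      0 < TF ∅ κ (1 + κ) x i) := by
  have h : ∀ i, TF ∅ κ (1 + κ) x i = TpF κ (1 + κ) i := fun i => (TF_off (by simp)).symm
  simp only [h, TpF_val]
  refine ⟨fun i => ?_, fun i hi => ?_, fun i => ?_⟩
  · fin_cases i <;>
      simp only [Matrix.cons_val, Fin.zero_eta, Fin.mk_one, Fin.reduceFinMk, Fin.isValue] <;>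
      linarith
  · rw [Finset.mem_singleton] at hi
    subst hi
    simp only [Matrix.cons_val]; ring
  · fin_cases i <;> intro h1 h2 <;> first
      | exact absurd (by decide) h1
      | exact absurd (by decide) h2
      | (simp only [Matrix.cons_val, Fin.zero_eta, Fin.mk_one, Fin.reduceFinMk, Fin.isValue]
         linarith)

/-- **rung (ii)**, `s = 1`, `F_b` dropped, `J = {4, 7}` -/
theorem TF_ii {κ : ℝ} (hκ : 0 < κ) {x : Fin 11 → ℝ} (hx : 0 < x 3) : (∀ i, 0 ≤ TF {3} κ 1 x i) ∧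
    (∀ i ∈ ({4, 7} : Finset (Fin 11)), TF {3} κ 1 x i = 0) ∧
    (∀ i, i ∉ ({4, 7} : Finset (Fin 11)) → i ∉ ({5, 1} : Finset (Fin 11)) →
      0 < TF {3} κ 1 x i) := by
  have h : ∀ i, i ≠ 3 → TF {3} κ 1 x i = TpF κ 1 i := fun i hi => (TF_off (by simpa using hi)).symm
  have h3 : TF {3} κ 1 x 3 = x 3 := TF_on (by decide)
  refine ⟨fun i => ?_, fun i hi => ?_, fun i => ?_⟩
  · fin_cases i <;> first
      | (rw [h _ (by decide), TpF_val]
         simp only [Matrix.cons_val, Fin.zero_eta, Fin.mk_one, Fin.reduceFinMk, Fin.isValue]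
         linarith)
      | exact h3 ▸ hx.le
  · rw [Finset.mem_insert, Finset.mem_singleton] at hi
    rcases hi with rfl | rfl <;>
      (rw [h _ (by decide), TpF_val]; simp only [Matrix.cons_val]; ring)
  · fin_cases i <;> intro h1 h2 <;> first
      | exact absurd (by decide) h1
      | exact absurd (by decide) h2
      | exact h3 ▸ hx
      | (rw [h _ (by decide), TpF_val]
         simp only [Matrix.cons_val, Fin.zero_eta, Fin.mk_one, Fin.reduceFinMk, Fin.isValue]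
         linarith)

/-- **rung (iii)**, `0 < s`, `F_b, F_a, P` dropped, `J = ∅` -/
theorem TF_iii {κ s : ℝ} (hκ : 0 < κ) (hs : 0 < s) {x : Fin 11 → ℝ} (h3 : 0 < x 3) (h4 : 0 < x 4)
    (h7 : 0 < x 7) : (∀ i, 0 ≤ TF {3, 4, 7} κ s x i) ∧
    (∀ i, i ∉ ({5, 1} : Finset (Fin 11)) → 0 < TF {3, 4, 7} κ s x i) := by
  have h : ∀ i, i ≠ 3 → i ≠ 4 → i ≠ 7 → TF {3, 4, 7} κ s x i = TpF κ s i :=
    fun i h3 h4 h7 => (TF_off (by simp [h3, h4, h7])).symm
  have k3 : TF {3, 4, 7} κ s x 3 = x 3 := TF_on (by decide)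
  have k4 : TF {3, 4, 7} κ s x 4 = x 4 := TF_on (by decide)
  have k7 : TF {3, 4, 7} κ s x 7 = x 7 := TF_on (by decide)
  refine ⟨fun i => ?_, fun i => ?_⟩
  · fin_cases i <;> first
      | exact k3 ▸ h3.le
      | exact k4 ▸ h4.le
      | exact k7 ▸ h7.le
      | (rw [h _ (by decide) (by decide) (by decide), TpF_val]
         simp only [Matrix.cons_val, Fin.zero_eta, Fin.mk_one, Fin.reduceFinMk, Fin.isValue]
         linarith)
  · fin_cases i <;> intro h2 <;> first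
      | exact absurd (by decide) h2
      | exact k3 ▸ h3
      | exact k4 ▸ h4
      | exact k7 ▸ h7
      | (rw [h _ (by decide) (by decide) (by decide), TpF_val]
         simp only [Matrix.cons_val, Fin.zero_eta, Fin.mk_one, Fin.reduceFinMk, Fin.isValue]
         linarith)

/-! ### small steps from a record point -/

/-- strict affine inequalities hold for small steps -/
theorem ev_lt {a b : ℝ} (c : ℝ) (h : a < b) : ∀ᶠ t in 𝓝 (0:ℝ), a < b + t * c := by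
  have h1 : Tendsto (fun t : ℝ => b + t * c) (𝓝 0) (𝓝 (b + 0 * c)) := by
    exact Continuous.tendsto (by fun_prop) 0
  rw [zero_mul, add_zero] at h1
  exact h1.eventually (lt_mem_nhds h)

theorem ev_le_of {a b : ℝ} (c : ℝ) (h : a < b) : ∀ᶠ t in 𝓝[≥] (0:ℝ), a ≤ b + t * c :=
  nhdsWithin_le_nhds ((ev_lt c h).mono fun _ h => h.le)

/-- `∃ t0` form -/
theorem ev_ge {P : ℝ → Prop} (h : ∀ᶠ t in 𝓝[≥] (0:ℝ), P t) :
    ∃ t0 : ℝ, 0 < t0 ∧ ∀ t, 0 ≤ t → t ≤ t0 → P t := by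
  rw [eventually_nhdsWithin_iff, Metric.eventually_nhds_iff] at h
  obtain ⟨ε, hε, h⟩ := h
  refine ⟨ε / 2, half_pos hε, fun t h0 h1 => h ?_ h0⟩
  rw [Real.dist_eq, sub_zero, abs_of_nonneg h0]
  linarith

section val

variable {η : ℝ} {p : Par4} {D : Dat4} {I1 : ℕ → Finset (ℕ × ℝ)} {π : Equiv.Perm (Fin 3)}
  {eE fA fB : ℕ → ℕ × ℝ → ℝ} {V T : Fin 11 → Prop} {w0 R T0 : ℝ} {PD : Set (Fin 11 → ℝ)}
  {ν own : (Fin 11 → ℝ) → ℝ} {c₀ : ℝ}

/-- room for the slot `1` -/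
theorem R1_room {θ : Fin 3 → ℝ} (h : BigQ θ w0 R T0) : 2 * w0 + T0 < R - 1 ∧ R - 1 < R ∧
    0 < R - 1 := by
  have := h.T0
  have := h.w0T
  have := h.R0
  exact ⟨by linarith, by linarith, by linarith⟩

/-- **the record point is in the open box** -/
theorem recF_box {θ : Fin 3 → ℝ} (h : BigQ θ w0 R T0) {R1 v : ℝ} (hR : R1 < R)
    (hR1 : 2 * w0 + T0 < R1) (h0 : 0 < v) (h1 : v < 1) (k : Fin 11) :
    0 < recF θ w0 R1 v k ∧ recF θ w0 R1 v k < R := by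
  have hT := h.T0
  have hw := h.w0T
  have hR0 := h.R0
  have b0 := h.bd h0.le h1.le 0
  have b1 := h.bd h0.le h1.le 1
  have b2 := h.bd h0.le h1.le 2
  fin_cases k <;>
    simp only [recF, nat4, Matrix.cons_val, Fin.zero_eta, Fin.mk_one, Fin.reduceFinMk,
      Fin.isValue] <;>
    constructor <;> linarith

/-- the wall `P ≤ z + R` is strict -/
theorem recF_w7 {θ : Fin 3 → ℝ} (h : BigQ θ w0 R T0) {R1 v : ℝ}
    (hR1 : 2 * w0 + T0 < R1) (h0 : 0 < v) (h1 : v < 1) :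
    recF θ w0 R1 v 7 < recF θ w0 R1 v 0 + recF θ w0 R1 v 1 := by
  have b0 := h.bd h0.le h1.le 0
  simp only [recF, nat4, Matrix.cons_val]
  linarith

/-- **walls at the record point**: the walls without the slot `1` are equalities -/
theorem recF_nat (θ : Fin 3 → ℝ) (w0 R1 v : ℝ) {w : WI} (hw : AF ∅ w) :
    recF θ w0 R1 v ((mw monQ).hd w) = (mw monQ).rhs w (recF θ w0 R1 v) := by
  refine AF_all ∅ (fun k e => recF θ w0 R1 v k = ∑ s, (e s : ℝ) * recF θ w0 R1 v s) ?_ w hw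
  refine (monQ_all (fun k e => (e 1 = 0 ∧ k ∉ (∅ : Finset (Fin 11)) ∧
    ∀ s ∈ (∅ : Finset (Fin 11)), e s = 0) → recF θ w0 R1 v k =
      ∑ s, (e s : ℝ) * recF θ w0 R1 v s)).2
    ⟨?_, ?_, ?_, ?_, ?_, ?_, ?_, ?_, ?_, ?_, ?_, ?_, ?_, ?_, ?_, ?_, ?_, ?_⟩ <;>
    rintro ⟨e1, -, -⟩ <;> first
    | exact absurd e1 (by decide)
    | (rw [sm]; simp only [recF, nat4, Matrix.cons_val]; push_cast; ring)

/-- **the other walls are strict at the record point** -/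
theorem recF_strict {θ : Fin 3 → ℝ} (h : BigQ θ w0 R T0) {R1 v : ℝ}
    (hR1 : 2 * w0 + T0 < R1) (h0 : 0 < v) (h1 : v < 1) (w : WI) :
    AF ∅ w ∨ recF θ w0 R1 v ((mw monQ).hd w) < (mw monQ).rhs w (recF θ w0 R1 v) := by
  have hT := h.T0
  have hw := h.w0T
  have b0 := h.bd h0.le h1.le 0
  refine (forall_WI (fun k e => (e 1 = 0 ∧ k ∉ (∅ : Finset (Fin 11)) ∧
    ∀ s ∈ (∅ : Finset (Fin 11)), e s = 0) ∨ recF θ w0 R1 v k <
      ∑ s, (e s : ℝ) * recF θ w0 R1 v s)).2 ?_ w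
  refine (monQ_all (fun k e => (e 1 = 0 ∧ k ∉ (∅ : Finset (Fin 11)) ∧
    ∀ s ∈ (∅ : Finset (Fin 11)), e s = 0) ∨ recF θ w0 R1 v k <
      ∑ s, (e s : ℝ) * recF θ w0 R1 v s)).2
    ⟨?_, ?_, ?_, ?_, ?_, ?_, ?_, ?_, ?_, ?_, ?_, ?_, ?_, ?_, ?_, ?_, ?_, ?_⟩ <;>
    first
    | exact Or.inl (by decide)
    | (right; rw [sm]; simp only [recF, nat4, Matrix.cons_val]; push_cast; linarith)

/-- **local legality**: small steps in the cone of the ten walls -/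
theorem recF_leg {θ : Fin 3 → ℝ} (h : BigQ θ w0 R T0) {R1 v : ℝ} (hR : R1 < R)
    (hR1 : 2 * w0 + T0 < R1) (h0 : 0 < v) (h1 : v < 1) :
    ∃ δ : ℝ, 0 < δ ∧ ∀ c ∈ W10, (∀ k, |c k| ≤ δ) → recF θ w0 R1 v + c ∈ Leg monQ R := by
  have hbox := recF_box h hR hR1 h0 h1
  have h7 := recF_w7 h hR1 h0 h1
  set r := recF θ w0 R1 v with hr
  -- common room
  obtain ⟨δ, hδ, hb⟩ : ∃ δ : ℝ, 0 < δ ∧ ∀ k, δ ≤ r k ∧ δ ≤ R - r k := by
    have hne : (Finset.univ : Finset (Fin 11)).Nonempty := Finset.univ_nonempty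
    refine ⟨Finset.univ.inf' hne fun k => min (r k) (R - r k), ?_, fun k => ?_⟩
    · refine (Finset.lt_inf'_iff hne).2 ?_
      intro k _
      exact lt_min (hbox k).1 (sub_pos.2 (hbox k).2)
    · have := Finset.inf'_le (fun k => min (r k) (R - r k)) (Finset.mem_univ k)
      exact ⟨this.trans (min_le_left _ _), this.trans (min_le_right _ _)⟩
  refine ⟨min δ ((r 0 + r 1 - r 7) / 3), lt_min hδ (by linarith), fun c hc hcd => ?_⟩
  have k1 : ∀ k, |c k| ≤ δ := fun k => (hcd k).trans (min_le_left _ _)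
  have k2 : ∀ k, |c k| ≤ (r 0 + r 1 - r 7) / 3 := fun k => (hcd k).trans (min_le_right _ _)
  obtain ⟨a1, a2, a3, a4, a5, a6, a7, a8, a9, a10⟩ := hc
  have c0 := abs_le.1 (k2 0)
  have c1 := abs_le.1 (k2 1)
  have c7 := abs_le.1 (k2 7)
  refine ⟨legalQ_iff.2 ⟨fun k => ?_, ?_, ?_, ?_, ?_, ?_, ?_, ?_, ?_, ?_, ?_, ?_⟩, fun k => ?_⟩
  · have := abs_le.1 (k1 k)
    have := hb k
    rw [Pi.add_apply]; linarith
  · simp only [Pi.add_apply, hr, recF, nat4, Matrix.cons_val]; linarith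
  · simp only [Pi.add_apply, hr, recF, nat4, Matrix.cons_val]; linarith
  · simp only [Pi.add_apply]; linarith
  · simp only [Pi.add_apply, hr, recF, nat4, Matrix.cons_val]; linarith
  · simp only [Pi.add_apply, hr, recF, nat4, Matrix.cons_val]; linarith
  · simp only [Pi.add_apply, hr, recF, nat4, Matrix.cons_val]; linarith
  · simp only [Pi.add_apply, hr, recF, nat4, Matrix.cons_val]; linarith
  · simp only [Pi.add_apply, hr, recF, nat4, Matrix.cons_val]; linarith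
  · simp only [Pi.add_apply, hr, recF, nat4, Matrix.cons_val]; linarith
  · simp only [Pi.add_apply, hr, recF, nat4, Matrix.cons_val]; linarith
  · simp only [Pi.add_apply, hr, recF, nat4, Matrix.cons_val]; linarith
  · have := abs_le.1 (k1 k)
    have := hb k
    rw [Pi.add_apply]; linarith

/-- the same along a ray -/
theorem recF_leg_ev {θ : Fin 3 → ℝ} (h : BigQ θ w0 R T0) {R1 v : ℝ} (hR : R1 < R)
    (hR1 : 2 * w0 + T0 < R1) (h0 : 0 < v) (h1 : v < 1) {c : Fin 11 → ℝ} (hc : c ∈ W10) :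
    ∀ᶠ t in 𝓝[≥] (0:ℝ), recF θ w0 R1 v + t • c ∈ Leg monQ R := by
  obtain ⟨δ, hδ, hl⟩ := recF_leg h hR hR1 h0 h1
  have h2 : ∀ k, ∀ᶠ t in 𝓝 (0:ℝ), |t * c k| ≤ δ := fun k => by
    have h1 : Tendsto (fun t : ℝ => |t * c k|) (𝓝 0) (𝓝 |0 * c k|) :=
      Continuous.tendsto (by fun_prop) 0
    rw [zero_mul, abs_zero] at h1
    exact (h1.eventually (gt_mem_nhds hδ)).mono fun _ h => h.le
  have h3 := nhdsWithin_le_nhds (s := Set.Ici 0) (eventually_all.2 h2)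
  filter_upwards [h3, self_mem_nhdsWithin] with t ht ht0
  refine hl _ ?_ fun k => by simpa using ht k
  obtain ⟨a1, a2, a3, a4, a5, a6, a7, a8, a9, a10⟩ := hc
  have ht0' : (0:ℝ) ≤ t := ht0
  refine ⟨?_, ?_, ?_, ?_, ?_, ?_, ?_, ?_, ?_, ?_⟩ <;>
    simp only [Pi.smul_apply, smul_eq_mul, ← mul_add] <;>
    exact mul_le_mul_of_nonneg_left (by assumption) ht0'

/-- **record values along the record line** -/
theorem recF_rec (h : Thick η p D I1 π eE fA fB V T w0 R T0 PD ν own c₀) {R1 v x : ℝ}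
    (hR : R1 ≤ R) (hR1 : 2 * w0 + T0 ≤ R1) (h0 : 0 ≤ v) (h1 : v < 1) (h0' : 0 ≤ v + x)
    (h1' : v + x < 1) :
    ν (recF p.θ w0 R1 v + x • rhoF p.θ) = ν (recF p.θ w0 R1 v) + x * DlF p (rhoF p.θ) := by
  rw [recF_add]
  unfold recF
  rw [rec_eq h hR hR1 h0' h1', rec_eq h hR hR1 h0 h1]
  unfold rhoF
  rw [DlF_nL]
  unfold DN
  ring

/-- raise `X_a, X_b, N` to the walls -/
def upX (d : Fin 11 → ℝ) : Fin 11 → ℝ :=
  ![d 0, d 1, d 2, d 3, d 4, d 5, d 6, d 7, d 0 + d 5, d 0 + d 6, d 0 + d 7]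

theorem upX_W10 {d : Fin 11 → ℝ} (hd : d ∈ W10) : upX d ∈ W10 := by
  obtain ⟨a1, a2, a3, a4, a5, a6, a7, a8, a9, a10⟩ := hd
  refine ⟨?_, ?_, ?_, ?_, ?_, ?_, ?_, ?_, ?_, ?_⟩ <;> simp only [upX, Matrix.cons_val] <;> linarith

theorem le_upX {d : Fin 11 → ℝ} (hd : d ∈ W10) : d ≤ upX d := by
  obtain ⟨a1, a2, a3, a4, a5, a6, a7, a8, a9, a10⟩ := hd
  intro k
  fin_cases k <;>
    simp only [upX, Matrix.cons_val, Fin.zero_eta, Fin.mk_one, Fin.reduceFinMk, Fin.isValue] <;>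
    linarith

/-- **D-max near the record point**, all legal directions -/
theorem recF_dmax (h : Thick η p D I1 π eE fA fB V T w0 R T0 PD ν own c₀) {R1 v : ℝ}
    (hR : R1 < R) (hR1 : 2 * w0 + T0 < R1) (h0 : 0 < v) (h1 : v < 1) (hκ : 0 < p.θ 1 - p.θ 2)
    (h02 : p.θ 0 ≠ p.θ 2) {d : Fin 11 → ℝ} (hd : d ∈ QdF p.θ) :
    ∀ᶠ t in 𝓝[≥] (0:ℝ), ν (recF p.θ w0 R1 v + t • d) ≤ ν (recF p.θ w0 R1 v) + t * DlF p d := by
  have hleg0 := recF_leg_ev h.tp.big hR hR1 h0 h1 (qd_W10 hd)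
  have hleg := recF_leg_ev h.tp.big hR hR1 h0 h1 (upX_W10 hd.1)
  have hle := le_upX hd.1
  have hθ := h.tp.ok.θ1
  have e1 : ∀ᶠ t in 𝓝[≥] (0:ℝ), 0 ≤ v + t * d 0 := ev_le_of _ h0
  have e2 : ∀ᶠ t in 𝓝[≥] (0:ℝ), 0 ≤ (1 - v) + t * (-d 0) := ev_le_of _ (by linarith)
  have e3 : ∀ᶠ t in 𝓝[≥] (0:ℝ), -p.θ 1 < -(p.θ 1 * v) + t * d 5 :=
    nhdsWithin_le_nhds (ev_lt _ (by nlinarith))
  have e4 : ∀ᶠ t in 𝓝[≥] (0:ℝ), min 0 (p.θ 1 - p.θ 2) ≤
      (p.θ 1 - p.θ 2) * v + t * (d 6 - d 5) := by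
    refine ev_le_of _ ?_
    rw [min_eq_left hκ.le]; positivity
  have e5 : ∀ᶠ t in 𝓝[≥] (0:ℝ), min 0 (p.θ 2 - p.θ 0) ≤
      (p.θ 2 - p.θ 0) * v + t * (d 7 - d 6) := by
    refine ev_le_of _ ?_
    rcases lt_or_gt_of_ne h02 with hlt | hlt
    · rw [min_eq_left (by linarith)]
      have : 0 < p.θ 2 - p.θ 0 := by linarith
      positivity
    · rw [min_eq_right (by linarith)]
      have : 0 < p.θ 0 - p.θ 2 := by linarith
      nlinarith
  have e6 : ∀ᶠ t in 𝓝[≥] (0:ℝ), (1 - p.θ 0) * v + t * (d 0 + d 7) ≤ max 0 (1 - p.θ 0) := by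
    by_cases hc : p.θ 0 = 1
    · filter_upwards [self_mem_nhdsWithin] with t ht
      have ht' : (0:ℝ) ≤ t := ht
      have := mul_nonneg ht' (neg_nonneg.2 (hd.2 hc))
      rw [hc, sub_self, max_self]
      linarith
    · have hlt : (1 - p.θ 0) * v < max 0 (1 - p.θ 0) := by
        rcases lt_or_gt_of_ne hc with hlt | hlt
        · rw [max_eq_right (by linarith)]
          have : 0 < 1 - p.θ 0 := by linarith
          nlinarith
        · rw [max_eq_left (by linarith)]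
          have : 0 < p.θ 0 - 1 := by linarith
          nlinarith
      filter_upwards [ev_le_of (-(d 0 + d 7)) (a := 0)
        (b := max 0 (1 - p.θ 0) - (1 - p.θ 0) * v) (by linarith)] with t ht
      linarith
  filter_upwards [hleg0, hleg, e1, e2, e3, e4, e5, e6, self_mem_nhdsWithin] with
    t k00 k0 k1 k2 k3 k4 k5 k6 ht
  have ht' : (0:ℝ) ≤ t := ht
  have hval := rec_eq h hR.le hR1.le h0.le h1
  have hPD : recF p.θ w0 R1 v + t • upX d ∈ PDlin p.θ w0 R := by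
    refine ⟨k0, ?_, ?_, ?_, ?_, ?_, ?_⟩ <;>
      simp only [recF, nat4, upX, Pi.add_apply, Pi.smul_apply, smul_eq_mul, Matrix.cons_val] <;>
      linarith
  have hdm := h.ext.dmax _ (h.tp.pd hPD)
  have hsh := (h.ext.lip _ k00 _ k0 (by
    intro k
    have := mul_le_mul_of_nonneg_left (hle k) ht'
    simp only [Pi.add_apply, Pi.smul_apply, smul_eq_mul]
    linarith)).2
  have hsum : ∑ k, ((recF p.θ w0 R1 v + t • upX d) k - (recF p.θ w0 R1 v + t • d) k) =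
      t * ((d 0 + d 5 - d 8) + (d 0 + d 6 - d 9) + (d 0 + d 7 - d 10)) := by
    simp [Fin.sum_univ_succ, upX]
    ring
  rw [hsum] at hsh
  have hDQ : DQ p.g 0 p.q w0 (recF p.θ w0 R1 v + t • upX d) =
      DN p v (-(p.θ 1 * v)) (-(p.θ 2 * v)) (-(p.θ 0 * v)) + t * DlF p (upX d) := by
    simp only [DQ, DN, DlF, recF, nat4, upX, Pi.add_apply, Pi.smul_apply, smul_eq_mul,
      Matrix.cons_val]
    ring
  have hup : DlF p (upX d) = DlF p d - ((d 0 + d 5 - d 8) + (d 0 + d 6 - d 9) +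
      (d 0 + d 7 - d 10)) := by
    simp only [DlF, upX, Matrix.cons_val]; ring
  rw [hDQ, hup] at hdm
  unfold recF at hdm hsh ⊢
  rw [hval]
  nlinarith

/-- own path at the slots -/
theorem own_path {θ : Fin 3 → ℝ} (hS : SlotOk θ V T) (hV3 : ¬ V 3) (hV4 : ¬ V 4) {k : Fin 11}
    (hk : V k) : k = 2 := by
  rcases (hS.vis k hk).1 with rfl | rfl | rfl
  · rfl
  · exact absurd hk hV3
  · exact absurd hk hV4

/-- **own rate of `z`** -/
theorem recF_own (h : Thick η p D I1 π eE fA fB V T w0 R T0 PD ν own c₀) {R1 v : ℝ}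
    (hR : R1 < R) (hR1 : 2 * w0 + T0 < R1) (h0 : 0 < v) (h1 : v < 1) (hV3 : ¬ V 3) (hV4 : ¬ V 4)
    {c : Fin 11 → ℝ} (hc : c ∈ W10) (h2 : c 2 ≤ (p.θ 1 - p.θ 2) * c 0) :
    ∀ᶠ t in 𝓝[≥] (0:ℝ), own (recF p.θ w0 R1 v + t • c) = 1 - v - t * c 0 := by
  have hleg := recF_leg_ev h.tp.big hR hR1 h0 h1 hc
  have e1 : ∀ᶠ t in 𝓝[≥] (0:ℝ), 0 ≤ v + t * c 0 := ev_le_of _ h0
  have e2 : ∀ᶠ t in 𝓝[≥] (0:ℝ), 0 ≤ (1 - v) + t * (-c 0) := ev_le_of _ (by linarith)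
  filter_upwards [hleg, e1, e2, self_mem_nhdsWithin] with t k0 k1 k2 ht
  have ht' : (0:ℝ) ≤ t := ht
  have hkz : (recF p.θ w0 R1 v + t • c) 0 = w0 + (v + t * c 0) := by
    simp only [Pi.add_apply, Pi.smul_apply, smul_eq_mul, recF, nat4, Matrix.cons_val]; ring
  rw [h.ext.own_rot _ k0 (v + t * c 0) k1 (by linarith) hkz fun k => ?_]
  · ring
  · unfold ownQ
    by_cases hk0 : k = 0
    · subst hk0
      rw [if_pos rfl, hkz]
    · rw [if_neg hk0]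
      split_ifs with hk
      · have := own_path h.tp.slots hV3 hV4 hk
        subst this
        have := mul_le_mul_of_nonneg_left h2 ht'
        simp only [Pi.add_apply, Pi.smul_apply, smul_eq_mul, recF, nat4, pathQ, Matrix.cons_val]
        linarith
      · exact k0.2 k

/-- **upper bound of the own counts** -/
theorem recF_ownu (h : Thick η p D I1 π eE fA fB V T w0 R T0 PD ν own c₀) {R1 v : ℝ}
    (hR : R1 < R) (hR1 : 2 * w0 + T0 < R1) (h0 : 0 < v) (h1 : v < 1)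
    {c : Fin 11 → ℝ} (hc : c ∈ W10) :
    ∀ᶠ t in 𝓝[≥] (0:ℝ), own (recF p.θ w0 R1 v + t • c) ≤ 1 - v - t * c 0 := by
  have hleg := recF_leg_ev h.tp.big hR hR1 h0 h1 hc
  have e1 : ∀ᶠ t in 𝓝[≥] (0:ℝ), 0 ≤ v + t * c 0 := ev_le_of _ h0
  have e2 : ∀ᶠ t in 𝓝[≥] (0:ℝ), 0 ≤ (1 - v) + t * (-c 0) := ev_le_of _ (by linarith)
  filter_upwards [hleg, e1, e2] with t k0 k1 k2
  have hkz : (recF p.θ w0 R1 v + t • c) 0 = w0 + (v + t * c 0) := by
    simp only [Pi.add_apply, Pi.smul_apply, smul_eq_mul, recF, nat4, Matrix.cons_val]; ring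
  refine (h.ext.own_up _ k0 (v + t * c 0) k1 (by linarith) hkz).trans (le_of_eq ?_)
  ring

end val

/-! ### profile facts -/

/-- a profile is antitone -/
theorem qprof_anti {B : Base} {ι κ : ℕ → Type*} [∀ n, DecidableEq (ι n)]
    [∀ n, DecidableEq (κ n)] {m : ℕ} {I : ∀ n, Finset (ι n)} {f : ∀ n, (Fin m → ℝ) → ι n → κ n}
    {P : Set (Fin m → ℝ)} {ν : (Fin m → ℝ) → ℝ} (hν : QProf B I f P ν)
    (hne : ∀ᶠ n in (U : Filter ℕ), (I n).Nonempty) {x y : Fin m → ℝ} (hx : x ∈ P) (hy : y ∈ P)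
    (hxy : x ≤ y) : ν y ≤ ν x := by
  refine le_of_forall_pos_le_add fun ε hε => ?_
  obtain ⟨n, h1, h2⟩ := ((hν.num ε hε).and hne).exists
  obtain ⟨i, hi⟩ := h2
  have h3 := h1 x hx y hy hxy i hi
  have h4 : (1:ℝ) ≤ ((cls (I n) (f n x) i).image (f n y)).card := by
    exact_mod_cast card_pos.2 ⟨_, mem_image_of_mem _ (Crest.Agent.R138.Ex926.self_mem_cls hi)⟩
  have hL := B.L_pos n
  have h5 := Real.log_le_log one_pos (h4.trans h3)
  rw [Real.log_one, Real.log_rpow (B.pos n), B.log_d] at h5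
  have h6 : 0 ≤ (ν x - ν y + ε) * B.L n := by linarith
  have := nonneg_of_mul_nonneg_left h6 hL
  linarith

/-- **`Prf` from `ExtQ`** (any chart) -/
theorem prf_ext {m : ℕ} {B : Base} {I0 I : ℕ → Finset (ℕ × ℝ)}
    {co : ∀ n : ℕ, ℕ × ℝ → ℕ × ℝ → Fin m → ℝ} {M : Mons m} {C R : ℝ} {kz : Fin m} {w0 s : ℝ}
    {PD : Set (Fin m → ℝ)} {D : (Fin m → ℝ) → ℝ} {r o : ℝ → Fin m → ℝ} {E : ℝ → ℝ}
    {T : Fin m → Prop} {ν own : (Fin m → ℝ) → ℝ} {c₀ : ℝ}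
    (h : ExtQ B I0 I co M C R kz w0 s PD D r o E T ν own c₀) :
    K2S774.Prf (Leg M R) ν own m := by
  have hsum : ∀ p q : Fin m → ℝ, ∑ k, ((p ⊔ q) k - p k) ≤ m * ‖p - q‖ := by
    intro p q
    have : ∀ k ∈ (Finset.univ : Finset (Fin m)), (p ⊔ q) k - p k ≤ ‖p - q‖ := by
      intro k _
      have h1 := norm_le_pi_norm (p - q) k
      rw [Pi.sub_apply, Real.norm_eq_abs] at h1
      have h2 := abs_le.1 h1
      rw [Pi.sup_apply]
      rcases le_total (p k) (q k) with hk | hk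
      · rw [sup_eq_right.2 hk]; linarith
      · rw [sup_eq_left.2 hk, sub_self]; positivity
    have h3 := Finset.sum_le_sum this
    rw [Finset.sum_const, Finset.card_univ, Fintype.card_fin, nsmul_eq_mul] at h3
    exact h3
  have hmono : ∀ p ∈ Leg M R, ∀ q ∈ Leg M R, p ≤ q → ν q ≤ ν p := fun p hp q hq hpq => by
    have := (h.lip p hp q hq hpq).1
    linarith
  have ho : ∀ p ∈ Leg M R, ∀ q ∈ Leg M R, p ≤ q → own q ≤ own p := fun p hp q hq hpq =>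
    qprof_anti h.oprof h.ne hp hq hpq
  refine ⟨Nat.cast_nonneg m, ?_, ?_, hmono, fun p hp q hq hpq => (h.lip p hp q hq hpq).2,
    fun p hp q hq h1 h2 => h.submod p hp q hq h1, h.own_le⟩
  · intro p hp q hq
    have hr := Leg.sup hp hq
    have a1 := (h.lip p hp _ hr le_sup_left).2
    have a2 := (h.lip q hq _ hr le_sup_right).2
    have a3 := hmono p hp _ hr le_sup_left
    have a4 := hmono q hq _ hr le_sup_right
    have b1 := hsum p q
    have b2 := hsum q p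
    rw [sup_comm q p, norm_sub_rev] at b2
    rw [abs_le]
    constructor <;> linarith
  · intro p hp q hq
    have hr := Leg.sup hp hq
    have a1 := (h.lip p hp _ hr le_sup_left).2
    have a2 := (h.lip q hq _ hr le_sup_right).2
    have a3 := ho p hp _ hr le_sup_left
    have a4 := ho q hq _ hr le_sup_right
    have a5 := h.own_le p hp _ hr le_sup_left
    have a6 := h.own_le q hq _ hr le_sup_right
    have b1 := hsum p q
    have b2 := hsum q p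
    rw [sup_comm q p, norm_sub_rev] at b2
    rw [abs_le]
    constructor <;> linarith

/-! ### the ladder -/

open K2S774 (cn Prf Stage RecD RungD FLem ind1 A2 stage_init)

theorem cnF_cn (A : WI → Prop) : cnF A = cn (mw monQ) A := rfl

theorem A2_AF (J J' : Finset (Fin 11)) : A2 (mw monQ) (AF J) J' = AF (J ∪ J') := by
  funext w
  exact propext (AF_step J J' w).symm

theorem AF_full {J : Finset (Fin 11)} {w : WI} (hw : AF J w) : ∃ s, (mw monQ).co w s ≠ 0 := by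
  refine AF_all J (fun k e => ∃ s, e s ≠ 0) ?_ w hw
  refine (monQ_all (fun k e => (e 1 = 0 ∧ k ∉ J ∧ ∀ s ∈ J, e s = 0) → ∃ s, e s ≠ 0)).2
    ⟨?_, ?_, ?_, ?_, ?_, ?_, ?_, ?_, ?_, ?_, ?_, ?_, ?_, ?_, ?_, ?_, ?_, ?_⟩ <;>
    exact fun _ => by decide

/-- own slopes of the tied slots -/
def oF (θ : Fin 3 → ℝ) : Fin 11 → ℝ := fun _ => θ 1 - θ 2

/-- **record direction and D-max cone** -/
theorem recD_F (θ : Fin 3 → ℝ) (J : Finset (Fin 11)) :
    RecD (mw monQ) (AF J) (rhoF θ) (QdF θ) {2} 0 (oF θ) where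
  full := fun w hw => AF_full hw
  nat := fun w hw => nat_AF _ _ _ _ (AF_mono (Finset.empty_subset J) hw)
  qd := fun d hd ξ t ht => qd_rec hd ξ ht
  tie := fun i hi => tie_rec θ i (by simpa using hi)

/-- **rung (i)**: `s = 1 + κ`, drop `F_b` -/
theorem rungD_i {θ : Fin 3 → ℝ} (hκ : 0 < θ 1 - θ 2) {b : Fin 11 → ℝ}
    (hb : ∀ i, i ∉ (∅ : Finset (Fin 11)) → b i = rhoF θ i) :
    RungD (mw monQ) (AF ∅) ↑(∅ : Finset (Fin 11)) {5, 1} {2} 0 (QdF θ) (rhoF θ)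
      (TF ∅ (θ 1 - θ 2) (1 + (θ 1 - θ 2)) 0) (TpF (θ 1 - θ 2) (1 + (θ 1 - θ 2))) b {3} where
  T0 := (TF_i hκ 0).1
  TJ := (TF_i hκ 0).2.1
  TZ := fun i h1 h2 => (TF_i hκ 0).2.2 i h1 (by simpa using h2)
  natT := fun w hw => natTF _ _ _ hw
  bρ := fun i hi => hb i (by simp)
  TT := fun i hi => TF_off (by simp)
  qd := qd_ray θ _ (by linarith)
  head := fun w hw h => head3 hw h
  JZ := by simp
  JT := by simp
  Jz := by simp

/-- **rung (ii)**: `s = 1`, drop `F_a, P` -/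
theorem rungD_ii {θ : Fin 3 → ℝ} (hκ : 0 < θ 1 - θ 2) {b x : Fin 11 → ℝ} (hx : 0 < x 3)
    (hb : ∀ i, i ∉ ({3} : Finset (Fin 11)) → b i = rhoF θ i) :
    RungD (mw monQ) (AF {3}) ↑({3} : Finset (Fin 11)) {5, 1} {2} 0 (QdF θ) (rhoF θ)
      (TF {3} (θ 1 - θ 2) 1 x) (TpF (θ 1 - θ 2) 1) b {4, 7} where
  T0 := (TF_ii hκ hx).1
  TJ := (TF_ii hκ hx).2.1
  TZ := fun i h1 h2 => (TF_ii hκ hx).2.2 i h1 (by simpa using h2)
  natT := fun w hw => natTF _ _ _ hw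
  bρ := fun i hi => hb i (by simpa using hi)
  TT := fun i hi => TF_off (by simpa using hi)
  qd := qd_ray θ _ zero_le_one
  head := fun w hw h => head47 hw h
  JZ := by simp
  JT := by simp
  Jz := by simp

/-- **rung (iii)**: any `s > 0`, nothing to drop -/
theorem rungD_iii {θ : Fin 3 → ℝ} (hκ : 0 < θ 1 - θ 2) {s : ℝ} (hs : 0 < s) {b x : Fin 11 → ℝ}
    (h3 : 0 < x 3) (h4 : 0 < x 4) (h7 : 0 < x 7)
    (hb : ∀ i, i ∉ ({3, 4, 7} : Finset (Fin 11)) → b i = rhoF θ i) :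
    RungD (mw monQ) (AF {3, 4, 7}) ↑({3, 4, 7} : Finset (Fin 11)) {5, 1} {2} 0 (QdF θ) (rhoF θ)
      (TF {3, 4, 7} (θ 1 - θ 2) s x) (TpF (θ 1 - θ 2) s) b ∅ where
  T0 := (TF_iii hκ hs h3 h4 h7).1
  TJ := by simp
  TZ := fun i h1 h2 => (TF_iii hκ hs h3 h4 h7).2 i (by simpa using h2)
  natT := fun w hw => natTF _ _ _ hw
  bρ := fun i hi => hb i (by simpa using hi)
  TT := fun i hi => TF_off (by simpa using hi)
  qd := qd_ray θ _ hs.le
  head := by simp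
  JZ := by simp
  JT := by simp
  Jz := by simp

section ladder

variable {η : ℝ} {p : Par4} {D : Dat4} {I1 : ℕ → Finset (ℕ × ℝ)} {π : Equiv.Perm (Fin 3)}
  {eE fA fB : ℕ → ℕ × ℝ → ℝ} {V T : Fin 11 → Prop} {w0 R T0 : ℝ} {PD : Set (Fin 11 → ℝ)}
  {ν own : (Fin 11 → ℝ) → ℝ} {c₀ : ℝ}

/-- a stage of case F with the dropped slots `J` -/
abbrev StF (p : Par4) (ν own : (Fin 11 → ℝ) → ℝ) (w0 R v : ℝ) (J : Finset (Fin 11))
    (lam lo : (Fin 11 → ℝ) → ℝ) : Prop :=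
  Stage (mw monQ) (Leg monQ R) ν own (11 : ℕ) (recF p.θ w0 (R - 1) v) (rhoF p.θ) (DlFL p)
    (QdF p.θ) {5, 1} {2} 0 (oF p.θ) 1 (AF J) ↑J lam lo

/-- the F-lemma of case F with the dropped slots `J` on the plane of slope `s` -/
abbrev FlF (p : Par4) (ν own : (Fin 11 → ℝ) → ℝ) (w0 R v : ℝ) (J : Finset (Fin 11)) (s : ℝ)
    (x b : Fin 11 → ℝ) (lam lo : (Fin 11 → ℝ) → ℝ) (V : ((Fin 11 → ℝ) → ℝ) → Prop) (g : ℝ) :
    Prop :=
  FLem (mw monQ) (AF J) (Leg monQ R) ν own (recF p.θ w0 (R - 1) v) (DlFL p) {2} 0 (oF p.θ)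
    (TF J (p.θ 1 - p.θ 2) s x) (TpF (p.θ 1 - p.θ 2) s) b lam lo V g

/-- **the first stage** -/
theorem stage_F (h : Thick η p D I1 π eE fA fB V T w0 R T0 PD ν own c₀) {v : ℝ} (h0 : 0 < v)
    (h1 : v < 1) (hκ : 0 < p.θ 1 - p.θ 2) (h02 : p.θ 0 ≠ p.θ 2) (hV3 : ¬ V 3) (hV4 : ¬ V 4) :
    ∃ lam lo : (Fin 11 → ℝ) → ℝ, StF p ν own w0 R v ∅ lam lo := by
  obtain ⟨r1, r2, r3⟩ := R1_room h.tp.big
  have hge : 𝓝[>] (0:ℝ) ≤ 𝓝[≥] (0:ℝ) := nhdsWithin_mono _ Set.Ioi_subset_Ici_self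
  have hr0 : own (recF p.θ w0 (R - 1) v) = 1 - v := by
    obtain ⟨t0, ht0, ht⟩ := ev_ge (recF_own h r2 r1 h0 h1 hV3 hV4 (c := 0)
      (by refine ⟨?_, ?_, ?_, ?_, ?_, ?_, ?_, ?_, ?_, ?_⟩ <;> simp) (by simp))
    have := ht 0 le_rfl ht0.le
    simpa using this
  have key := stage_init (Q := mw monQ) (P := Leg monQ R) (ν := ν) (own := own) (K := (11 : ℕ))
    (r0 := recF p.θ w0 (R - 1) v) (ρ := rhoF p.θ) (Dl := DlFL p) (Qd := QdF p.θ)
    (Z := {5, 1}) (Tie := {2}) (kz := 0) (o := oF p.θ) (τ := 1) (A := AF ∅) (prf_ext h.ext)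
    (recD_F p.θ ∅) (fun w hw => by
      rw [recF_nat _ _ _ _ hw]; simp [mw]) (fun w hw => by
      have := (recF_strict h.tp.big r1 h0 h1 w).resolve_left hw
      simpa [mw] using this) ?_ ?_ ?_ ?_ ?_
  · obtain ⟨lam, lo, hS⟩ := key
    refine ⟨lam, lo, ?_⟩
    unfold StF
    rw [Finset.coe_empty]
    exact hS
  · intro C
    obtain ⟨δ, hδ, hl⟩ := recF_leg h.tp.big r2 r1 h0 h1
    refine ⟨δ / (|C| + 1), by positivity, fun t ht ht' c hc hcC => ?_⟩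
    have hc' : c ∈ W10 := by rw [← cn_W10]; exact hc
    refine hl _ ?_ fun k => ?_
    · rw [← cn_W10]
      exact K2S774.cn_smul hc ht.le
    · rw [Pi.smul_apply, smul_eq_mul, abs_mul, abs_of_pos ht]
      have h1 := norm_le_pi_norm c k
      rw [Real.norm_eq_abs] at h1
      have h2 : |c k| ≤ |C| + 1 := by linarith [le_abs_self C]
      rw [lt_div_iff₀ (by positivity)] at ht'
      have := mul_le_mul_of_nonneg_left h2 ht.le
      linarith
  · intro σ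
    have e1 : ∀ᶠ t in 𝓝[≥] (0:ℝ), 0 ≤ v + t * σ := ev_le_of _ h0
    have e2 : ∀ᶠ t in 𝓝[≥] (0:ℝ), 0 < (1 - v) + t * (-σ) :=
      nhdsWithin_le_nhds (ev_lt _ (by linarith))
    filter_upwards [hge e1, hge e2] with t k1 k2
    rw [smul_smul, recF_rec h r2.le r1.le h0.le h1 k1 (by linarith)]
    show _ = _ + t * (σ * DlF p (rhoF p.θ))
    ring
  · intro d hd
    filter_upwards [hge (recF_leg_ev h.tp.big r2 r1 h0 h1 (qd_W10 hd)),
      hge (recF_dmax h r2 r1 h0 h1 hκ h02 hd)] with t k1 k2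
    exact ⟨k1, k2⟩
  · intro c hc hcT
    have hc' : c ∈ W10 := by rw [← cn_W10]; exact hc
    filter_upwards [hge (recF_own h r2 r1 h0 h1 hV3 hV4 hc' (hcT 2 rfl))] with t k1
    rw [k1, hr0]; ring
  · intro c hc
    have hc' : c ∈ W10 := by rw [← cn_W10]; exact hc
    filter_upwards [hge (recF_ownu h r2 r1 h0 h1 hc')] with t k1
    rw [hr0]; linarith

/-- **the ladder of case F**: three F-lemmas give a contradiction.  The values `x2, x3` and the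
second direction `b2, b3` on the dropped slots are free. -/
theorem ladder_F (h : Thick η p D I1 π eE fA fB V T w0 R T0 PD ν own c₀) {v : ℝ} (h0 : 0 < v)
    (h1 : v < 1) (hκ : 0 < p.θ 1 - p.θ 2) (h02 : p.θ 0 ≠ p.θ 2) (hV3 : ¬ V 3) (hV4 : ¬ V 4)
    {x2 b2 x3 b3 : Fin 11 → ℝ} {s3 g1 g2 g3 : ℝ} (hx2 : 0 < x2 3)
    (hb2 : ∀ i, i ∉ ({3} : Finset (Fin 11)) → b2 i = rhoF p.θ i) (hs3 : 0 < s3)
    (hx33 : 0 < x3 3) (hx34 : 0 < x3 4) (hx37 : 0 < x3 7)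
    (hb3 : ∀ i, i ∉ ({3, 4, 7} : Finset (Fin 11)) → b3 i = rhoF p.θ i)
    (hg1 : 0 < g1) (hg2 : 0 < g2) (hg3 : 0 < g3)
    (F1 : ∀ lam lo, StF p ν own w0 R v ∅ lam lo →
      FlF p ν own w0 R v ∅ (1 + (p.θ 1 - p.θ 2)) 0 (rhoF p.θ) lam lo
        (fun lam' => lam' (ind1 {3}) < 0) g1)
    (F2 : ∀ lam lo, StF p ν own w0 R v {3} lam lo →
      FlF p ν own w0 R v {3} 1 x2 b2 lam lo (fun lam' => lam' (ind1 {4, 7}) < 0) g2)
    (F3 : ∀ lam lo, StF p ν own w0 R v {3, 4, 7} lam lo →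
      FlF p ν own w0 R v {3, 4, 7} s3 x3 b3 lam lo (fun _ => True) g3) : False := by
  obtain ⟨lam, lo, H⟩ := stage_F h h0 h1 hκ h02 hV3 hV4
  obtain ⟨lam2, lo2, H2⟩ := H.rung (recD_F p.θ ∅) (rungD_i hκ fun _ _ => rfl) hg1
    (F1 lam lo H)
  have H2' : StF p ν own w0 R v {3} lam2 lo2 := by
    have e1 := A2_AF ∅ {3}
    rw [Finset.empty_union] at e1
    rw [e1, ← Finset.coe_union, Finset.empty_union] at H2
    exact H2
  obtain ⟨lam3, lo3, H3⟩ := H2'.rung (recD_F p.θ {3}) (rungD_ii hκ hx2 hb2) hg2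
    (F2 lam2 lo2 H2')
  have H3' : StF p ν own w0 R v {3, 4, 7} lam3 lo3 := by
    have e1 := A2_AF {3} {4, 7}
    have e2 : ({3} : Finset (Fin 11)) ∪ {4, 7} = {3, 4, 7} := by decide
    rw [e2] at e1
    rw [e1, ← Finset.coe_union, e2] at H3
    exact H3
  exact H3'.dead (recD_F p.θ {3, 4, 7}) (rungD_iii hκ hs3 hx33 hx34 hx37 hb3) hg3
    (F3 lam3 lo3 H3')

end ladder

end Crest.Agent.R136.LdF3511
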