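import Crest.Agent.R136.LdF3_511
import Crest.Agent.R136.K2A_146

/-!
# R136, case F: totals of the rates over the groups of a plane (helper511)

* `tot_eq` : `-A.1 =` sum of the rates of all groups with positive slope
* `tot_ge`, `tot3`, `tot4` : lower bounds by any set of such groups
* `rt_ge` : the rate of a group is at least every loss of a box below the ray
-/

set_option autoImplicit false
set_option linter.unusedVariables false

open Finset Filter Topology

namespace Crest.Agent.R136.LdF4511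

open Crest.Agent.R136.Net191
open Crest.Agent.R136.NetQ186
open Crest.Agent.R136.Wq638
open Crest.Agent.R136.NatT550
open Crest.Agent.R136.NatR550 (nL)
open Crest.Agent.R136.Top484
open Crest.Agent.R136.LdF511
open Crest.Agent.R136.LdF3511
open Dg262 (X)
open Dg219 (mw Walls Tn OutS gC dhC nC gset lf mem_gset gC_zero gC_eq nC_zero nC_of)
open K2S774 (cn Prf Stage RecD RungD FLem ind1 A2)
open K2A146 (FLemA rungA deadA)

/-! ### totals -/

section tot

variable {ι : Type*} [Fintype ι] [DecidableEq ι] {a b : ι → ℝ} {L : Set (ι → ℝ)}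
  {lam : (ι → ℝ) → ℝ} {A : ℝ × ℝ} {φ : ℕ → (ι → ℝ) → ℝ} {r : ℕ → ℝ}

theorem dh_pos (ha : ∀ i, 0 ≤ a i) {k : ℕ} (hk : k ≠ 0) {i : ι} (hi : gC a b i = k) :
    0 < dhC a b i := by
  have h : a i ≠ 0 := fun h => hk (by rw [← hi, gC_zero.2 h])
  unfold dhC
  rw [if_neg h]
  exact lt_of_le_of_ne (ha i) (Ne.symm h)

/-- **the left slope is the sum of the rates of the groups with positive slope** -/
theorem tot_eq (h : OutS (gC a b) L (dhC a b) (nC a b) lam A φ r) :
    -A.1 = ∑ k ∈ (gset (gC a b)).erase 0, r k := by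
  have h1 := h.total (1, 0)
  simp only [lf, mul_one, mul_zero, add_zero] at h1
  have h2 : ∑ k ∈ gset (gC a b), r k * (nC a b k).1 = ∑ k ∈ (gset (gC a b)).erase 0, r k := by
    by_cases h0 : 0 ∈ gset (gC a b)
    · rw [← Finset.add_sum_erase _ _ h0, nC_zero, mul_zero, zero_add]
      refine Finset.sum_congr rfl fun k hk => ?_
      obtain ⟨hk0, hk⟩ := Finset.mem_erase.1 hk
      obtain ⟨i, -, rfl⟩ := Finset.mem_image.1 hk
      have hi : a i ≠ 0 := fun h => hk0 (gC_zero.2 h)
      rw [nC_of hi, mul_one]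
    · rw [Finset.erase_eq_of_notMem h0]
      refine Finset.sum_congr rfl fun k hk => ?_
      obtain ⟨i, -, rfl⟩ := Finset.mem_image.1 hk
      have hi : a i ≠ 0 := fun h => h0 (by rw [← gC_zero.2 h]; exact mem_gset i)
      rw [nC_of hi, mul_one]
  rw [← h2]
  linarith

theorem rt_nonneg (h : OutS (gC a b) L (dhC a b) (nC a b) lam A φ r) (ha : ∀ i, 0 ≤ a i) {k : ℕ}
    (hk : k ≠ 0) : 0 ≤ r k := h.r_nonneg k fun i hi => dh_pos ha hk hi

/-- lower bound of the total -/
theorem tot_ge (h : OutS (gC a b) L (dhC a b) (nC a b) lam A φ r) (ha : ∀ i, 0 ≤ a i)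
    {S : Finset ℕ} (hS : ∀ k ∈ S, k ∈ gset (gC a b) ∧ k ≠ 0) : ∑ k ∈ S, r k ≤ -A.1 := by
  rw [tot_eq h]
  refine Finset.sum_le_sum_of_subset_of_nonneg (fun k hk => ?_) fun k hk _ => ?_
  · exact Finset.mem_erase.2 ⟨(hS k hk).2, (hS k hk).1⟩
  · exact rt_nonneg h ha (Finset.mem_erase.1 hk).1

/-- three different groups -/
theorem tot3 (h : OutS (gC a b) L (dhC a b) (nC a b) lam A φ r) (ha : ∀ i, 0 ≤ a i)
    {i j l : ι} (hi : a i ≠ 0) (hj : a j ≠ 0) (hl : a l ≠ 0) (hij : gC a b i ≠ gC a b j)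
    (hil : gC a b i ≠ gC a b l) (hjl : gC a b j ≠ gC a b l) :
    r (gC a b i) + r (gC a b j) + r (gC a b l) ≤ -A.1 := by
  have := tot_ge h ha (S := {gC a b i, gC a b j, gC a b l}) (by
    intro k hk
    simp only [Finset.mem_insert, Finset.mem_singleton] at hk
    rcases hk with rfl | rfl | rfl
    · exact ⟨mem_gset i, fun h => hi (gC_zero.1 h)⟩
    · exact ⟨mem_gset j, fun h => hj (gC_zero.1 h)⟩
    · exact ⟨mem_gset l, fun h => hl (gC_zero.1 h)⟩)
  rw [Finset.sum_insert (by simp [hij, hil]), Finset.sum_insert (by simp [hjl]),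
    Finset.sum_singleton] at this
  linarith

/-- four different groups -/
theorem tot4 (h : OutS (gC a b) L (dhC a b) (nC a b) lam A φ r) (ha : ∀ i, 0 ≤ a i)
    {i j l m : ι} (hi : a i ≠ 0) (hj : a j ≠ 0) (hl : a l ≠ 0) (hm : a m ≠ 0)
    (hij : gC a b i ≠ gC a b j) (hil : gC a b i ≠ gC a b l) (hjl : gC a b j ≠ gC a b l)
    (him : gC a b i ≠ gC a b m) (hjm : gC a b j ≠ gC a b m) (hlm : gC a b l ≠ gC a b m) :
    r (gC a b i) + r (gC a b j) + r (gC a b l) + r (gC a b m) ≤ -A.1 := by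
  have := tot_ge h ha (S := {gC a b i, gC a b j, gC a b l, gC a b m}) (by
    intro k hk
    simp only [Finset.mem_insert, Finset.mem_singleton] at hk
    rcases hk with rfl | rfl | rfl | rfl
    · exact ⟨mem_gset i, fun h => hi (gC_zero.1 h)⟩
    · exact ⟨mem_gset j, fun h => hj (gC_zero.1 h)⟩
    · exact ⟨mem_gset l, fun h => hl (gC_zero.1 h)⟩
    · exact ⟨mem_gset m, fun h => hm (gC_zero.1 h)⟩)
  rw [Finset.sum_insert (by simp [hij, hil, him]), Finset.sum_insert (by simp [hjl, hjm]),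
    Finset.sum_insert (by simp [hlm]), Finset.sum_singleton] at this
  linarith

/-- the rate of a group is at least every loss of a box below the ray -/
theorem rt_ge (h : OutS (gC a b) L (dhC a b) (nC a b) lam A φ r) (ha : ∀ i, 0 ≤ a i) {k : ℕ}
    (hk : k ≠ 0) (haL : a ∈ L) {c : ι → ℝ} (hc : c ∈ L) {u : ℝ} (hu : u • a ∈ L)
    (hcu : ∀ i, gC a b i = k → c i ≤ u * a i) : -φ k c ≤ r k * u := by
  have h1 := h.rate k (u • a) hu u fun i hi => by
    have : a i ≠ 0 := fun h => hk (by rw [← hi, gC_zero.2 h])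
    unfold dhC
    rw [if_neg this]; rfl
  have h2 := (h.mono k c hc (u • a) hu fun i hi => hcu i hi).1
  linarith

end tot

end Crest.Agent.R136.LdF4511
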