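import Crest.Agent.R136.LdF4_511

/-!
# R136, case F (slot 21 tied, 31 and 32 not): rung (iii) from the rates of `z`, `X_a`, `X_b` (helper774)

On the plane of rung (iii) (`F_b, F_a, P` dropped, ray of slope `s`, record direction `ρ`) the three
groups of `z` (slope `1`), `X_a` (slope `1 - θ 1`) and `X_b` (slope `(1 - θ 2) / (1 + κ)`) are
different, so `rt z ≥ 1`, `rt X_a ≥ 1`, `rt X_b ≥ 1 + κ` give `3 + κ ≤ -D (1, 0)`; the D-max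
functional of the ray is `g - 3 - κ - s + q 0 (1 - s) - q 2 κ`, hence the F-lemma for small `s`.

* `grp_ne` : the three groups are different (any set `J` of dropped slots without `0, 8, 9`)
* `tot_rates` : `3 + κ ≤ -A.1`
* `sF`, `Dl_ge` : slope of the last ray (any `s` with `0 ≤ s ≤ sF p`), D-max functional of the ray
* `F3_num` : `g / 4 ≤ -A.1 + DlF p (TpF κ s)` from the three rates
* `F3_of_base` : F3 of `ladder_F` (`FlF`), `F3A_of_base` : the same for `FLemA`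
-/

set_option autoImplicit false
set_option linter.unusedVariables false

open Finset Filter Topology

namespace Crest.Agent.R136.LdF774

open Crest.Agent.R138.Ex926 (IsTan)
open Crest.Agent.R136.Net191
open Crest.Agent.R136.NetQ186
open Crest.Agent.R136.Wq638
open Crest.Agent.R136.Lq196
open Crest.Agent.R136.NatT550
open Crest.Agent.R136.NatR550 (nL)
open Crest.Agent.R136.Top484
open Crest.Agent.R136.LdF511
open Crest.Agent.R136.LdF3511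
open Dg262 (X)
open Dg219 (mw Walls OutS gC dhC nC gC_zero gC_eq)
open Rc146 (OutA)
open K2S774 (cn JT BaseOk FLem Stage)
open K2A146 (FLemA)

/-! ### the groups of `z`, `X_a`, `X_b` -/

section grp

variable {θ : Fin 3 → ℝ} {J : Finset (Fin 11)} {s : ℝ} {x b : Fin 11 → ℝ}

theorem rho_val (θ : Fin 3 → ℝ) : rhoF θ =
    ![1, 0, θ 1 - θ 2, θ 2 - θ 0, θ 1 - θ 0, -θ 1, -θ 2, -θ 0, 1 - θ 1, 1 - θ 2, 1 - θ 0] := by
  funext k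
  fin_cases k <;>
    simp only [rhoF, nL, Matrix.cons_val, Fin.zero_eta, Fin.mk_one, Fin.reduceFinMk,
      Fin.isValue] <;> ring

/-- the three slots are not dropped -/
theorem T_val (h0 : (0 : Fin 11) ∉ J) (h8 : (8 : Fin 11) ∉ J) (h9 : (9 : Fin 11) ∉ J) (κ s : ℝ)
    (x : Fin 11 → ℝ) : TF J κ s x 0 = 1 ∧ TF J κ s x 8 = 1 ∧ TF J κ s x 9 = 1 + κ := by
  refine ⟨?_, ?_, ?_⟩
  · rw [← TF_off h0, TpF_val]; simp only [Matrix.cons_val]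
  · rw [← TF_off h8, TpF_val]; simp only [Matrix.cons_val]
  · rw [← TF_off h9, TpF_val]; simp only [Matrix.cons_val]

theorem b_val (hb : ∀ i, i ∉ J → b i = rhoF θ i) (h0 : (0 : Fin 11) ∉ J) (h8 : (8 : Fin 11) ∉ J)
    (h9 : (9 : Fin 11) ∉ J) : b 0 = 1 ∧ b 8 = 1 - θ 1 ∧ b 9 = 1 - θ 2 := by
  refine ⟨?_, ?_, ?_⟩
  · rw [hb _ h0, rho_val]; simp only [Matrix.cons_val]
  · rw [hb _ h8, rho_val]; simp only [Matrix.cons_val]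
  · rw [hb _ h9, rho_val]; simp only [Matrix.cons_val]

/-- **the three groups are different** -/
theorem grp_ne (h1 : 0 < θ 1) (hκ : 0 < θ 1 - θ 2) (hb : ∀ i, i ∉ J → b i = rhoF θ i)
    (h0 : (0 : Fin 11) ∉ J) (h8 : (8 : Fin 11) ∉ J) (h9 : (9 : Fin 11) ∉ J) :
    gC (TF J (θ 1 - θ 2) s x) b 0 ≠ gC (TF J (θ 1 - θ 2) s x) b 8 ∧
    gC (TF J (θ 1 - θ 2) s x) b 0 ≠ gC (TF J (θ 1 - θ 2) s x) b 9 ∧
    gC (TF J (θ 1 - θ 2) s x) b 8 ≠ gC (TF J (θ 1 - θ 2) s x) b 9 := by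
  obtain ⟨t0, t8, t9⟩ := T_val h0 h8 h9 (θ 1 - θ 2) s x
  obtain ⟨b0, b8, b9⟩ := b_val hb h0 h8 h9
  have n0 : TF J (θ 1 - θ 2) s x 0 ≠ 0 := by rw [t0]; exact one_ne_zero
  have n8 : TF J (θ 1 - θ 2) s x 8 ≠ 0 := by rw [t8]; exact one_ne_zero
  have n9 : TF J (θ 1 - θ 2) s x 9 ≠ 0 := by rw [t9]; linarith
  have hk : (1:ℝ) + (θ 1 - θ 2) ≠ 0 := by linarith
  refine ⟨fun h => ?_, fun h => ?_, fun h => ?_⟩
  · rw [gC_eq n0 n8, t0, t8, b0, b8] at h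
    linarith
  · rw [gC_eq n0 n9, t0, t9, b0, b9, div_one, eq_div_iff hk] at h
    linarith
  · rw [gC_eq n8 n9, t8, t9, b8, b9, div_one, eq_div_iff hk] at h
    have : 0 < θ 1 * (θ 1 - θ 2) := mul_pos h1 hκ
    nlinarith

end grp

/-! ### the number -/

section num

variable {η : ℝ} {p : Par4} {J : Finset (Fin 11)} {s : ℝ} {x b : Fin 11 → ℝ}
  {L : Set (Fin 11 → ℝ)} {lam : (Fin 11 → ℝ) → ℝ} {A : ℝ × ℝ} {φ : ℕ → (Fin 11 → ℝ) → ℝ}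
  {rt : ℕ → ℝ}

/-- the three rates of the base, ray `T` -/
def RatesF (κ : ℝ) (T b : Fin 11 → ℝ) (rt : ℕ → ℝ) : Prop :=
  1 ≤ rt (gC T b 0) ∧ 1 ≤ rt (gC T b 8) ∧ 1 + κ ≤ rt (gC T b 9)

/-- **`3 + κ` from the three rates** -/
theorem tot_rates (h1 : 0 < p.θ 1) (hκ : 0 < p.θ 1 - p.θ 2)
    (hT : ∀ i, 0 ≤ TF J (p.θ 1 - p.θ 2) s x i)
    (hb : ∀ i, i ∉ J → b i = rhoF p.θ i) (h0 : (0 : Fin 11) ∉ J) (h8 : (8 : Fin 11) ∉ J)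
    (h9 : (9 : Fin 11) ∉ J)
    (O : OutS (gC (TF J (p.θ 1 - p.θ 2) s x) b) L (dhC (TF J (p.θ 1 - p.θ 2) s x) b)
      (nC (TF J (p.θ 1 - p.θ 2) s x) b) lam A φ rt)
    (hr : RatesF (p.θ 1 - p.θ 2) (TF J (p.θ 1 - p.θ 2) s x) b rt) :
    3 + (p.θ 1 - p.θ 2) ≤ -A.1 := by
  obtain ⟨e1, e2, e3⟩ := grp_ne (s := s) (x := x) h1 hκ hb h0 h8 h9
  obtain ⟨t0, t8, t9⟩ := T_val h0 h8 h9 (p.θ 1 - p.θ 2) s x
  obtain ⟨r0, r8, r9⟩ := hr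
  have := LdF4511.tot3 O hT (by rw [t0]; exact one_ne_zero) (by rw [t8]; exact one_ne_zero)
    (by rw [t9]; linarith) e1 e2 e3
  linarith

/-- the slope of the last ray -/
noncomputable def sF (p : Par4) : ℝ := min 1 (p.g / 4)

theorem sF_pos (hg : 0 < p.g) : 0 < sF p := lt_min one_pos (by linarith)

/-- **the D-max functional of the last ray** -/
theorem Dl_ge (hη : η ≤ 1 / 4) (hg : 0 < p.g) (hq0 : 0 ≤ p.q 0)
    (hθ : p.q 2 * (p.θ 1 - p.θ 2) ≤ 2 * (η * p.g)) (hs : s ≤ sF p) :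
    p.g / 4 ≤ 3 + (p.θ 1 - p.θ 2) + DlF p (TpF (p.θ 1 - p.θ 2) s) := by
  unfold TpF
  rw [DlF_ray]
  have h1 : s ≤ 1 := hs.trans (min_le_left _ _)
  have h2 : s ≤ p.g / 4 := hs.trans (min_le_right _ _)
  have h5 : η * p.g ≤ 1 / 4 * p.g := mul_le_mul_of_nonneg_right hη hg.le
  have h6 : 0 ≤ p.q 0 * (1 - s) := mul_nonneg hq0 (by linarith)
  nlinarith

/-- the only use of the field `θb` (strong and weak form) -/
theorem slack2 (ok : ParOk η p) : p.q 2 * (p.θ 1 - p.θ 2) ≤ 2 * (η * p.g) := by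
  have hq := ok.q2.1
  have h0 := ok.q0.1
  first
  | (have a1 := ok.θb 1
     have a2 := ok.θb 2
     have b1 : p.q 2 * p.θ 1 ≤ p.q 2 * |p.θ 1| :=
       mul_le_mul_of_nonneg_left (le_abs_self _) hq.le
     have b2 : p.q 2 * -p.θ 2 ≤ p.q 2 * |p.θ 2| :=
       mul_le_mul_of_nonneg_left (neg_le_abs _) hq.le
     have e1 : p.q 2 * (p.θ 1 - p.θ 2) = p.q 2 * p.θ 1 + p.q 2 * -p.θ 2 := by ring
     rw [e1]
     linarith)
  | (have a := ok.θb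
     have b1 : p.q 2 * (p.θ 1 - p.θ 2) ≤ p.q 2 * max (p.θ 1 - p.θ 2) 0 :=
       mul_le_mul_of_nonneg_left (le_max_left _ _) hq.le
     have b1' : 0 ≤ p.q 2 * max (p.θ 1 - p.θ 2) 0 := mul_nonneg hq.le (le_max_right _ _)
     have b2 : 0 ≤ p.q 0 * (max (-(p.θ 0)) 0 + |p.θ 1| + |p.θ 2|) := by positivity
     have b3 : p.q 2 * (p.θ 1 - p.θ 2) ≤ η * p.g := by linarith
     have b4 : 0 ≤ η * p.g := by linarith
     linarith)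

/-- **the inequality of rung (iii) from the three rates** (`ok : ParOk η p`) -/
theorem F3_num (ok : ParOk η p) (hη : η ≤ 1 / 4) (hκ : 0 < p.θ 1 - p.θ 2)
    (hT : ∀ i, 0 ≤ TF J (p.θ 1 - p.θ 2) s x i) (hs : s ≤ sF p)
    (hb : ∀ i, i ∉ J → b i = rhoF p.θ i) (h0 : (0 : Fin 11) ∉ J) (h8 : (8 : Fin 11) ∉ J)
    (h9 : (9 : Fin 11) ∉ J)
    (O : OutS (gC (TF J (p.θ 1 - p.θ 2) s x) b) L (dhC (TF J (p.θ 1 - p.θ 2) s x) b)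
      (nC (TF J (p.θ 1 - p.θ 2) s x) b) lam A φ rt)
    (hr : RatesF (p.θ 1 - p.θ 2) (TF J (p.θ 1 - p.θ 2) s x) b rt) :
    p.g / 4 ≤ -A.1 + DlF p (TpF (p.θ 1 - p.θ 2) s) := by
  have h3 := tot_rates ok.θ1 hκ hT hb h0 h8 h9 O hr
  have h4 := Dl_ge hη ok.g0.1 ok.q0.1 (slack2 ok) hs
  linarith

end num

/-! ### F3 of the ladder -/

section F3

variable {η : ℝ} {p : Par4} {D : Dat4} {I1 : ℕ → Finset (ℕ × ℝ)} {π : Equiv.Perm (Fin 3)}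
  {eE fA fB : ℕ → ℕ × ℝ → ℝ} {V T : Fin 11 → Prop} {w0 R T0 : ℝ} {PD : Set (Fin 11 → ℝ)}
  {ν own : (Fin 11 → ℝ) → ℝ} {c₀ : ℝ} {J : Finset (Fin 11)} {s v : ℝ} {x b : Fin 11 → ℝ}
  {lam lo : (Fin 11 → ℝ) → ℝ}

/-- **F3 of `ladder_F` from the three rates of the base** (`B` = the base at the points of the rung,
binders of `FLem`) -/
theorem F3_of_base (h : Thick η p D I1 π eE fA fB V T w0 R T0 PD ν own c₀) (hη : η ≤ 1 / 4)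
    (hκ : 0 < p.θ 1 - p.θ 2) (hs : s ≤ sF p) (hT : ∀ i, 0 ≤ TF J (p.θ 1 - p.θ 2) s x i)
    (hb : ∀ i, i ∉ J → b i = rhoF p.θ i) (h0 : (0 : Fin 11) ∉ J) (h8 : (8 : Fin 11) ∉ J)
    (h9 : (9 : Fin 11) ∉ J) (Vis : ((Fin 11 → ℝ) → ℝ) → Prop)
    (B : ∀ z : ℝ × ℝ, z.1 < 0 → ∀ E : ℝ × ℝ →L[ℝ] ℝ,
      HasFDerivAt (fun z => lam (X 0 (TF J (p.θ 1 - p.θ 2) s x) b z)) E z →
      ∀ (k : ℕ → ℝ) (lam' lo' : (Fin 11 → ℝ) → ℝ), (∀ l, 0 < k l) → Tendsto k atTop (𝓝 0) →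
      IsTan (cn (mw monQ) (AF J)) (cn (mw monQ) (AF J)) lam
        (fun _ => X 0 (TF J (p.θ 1 - p.θ 2) s x) b z) k lam' →
      IsTan (cn (mw monQ) (AF J)) (cn (mw monQ) (AF J)) lo
        (fun _ => X 0 (TF J (p.θ 1 - p.θ 2) s x) b z) k lo' →
      ∀ (x' : ℕ → Fin 11 → ℝ) (h' : ℕ → ℝ),
      JT (mw monQ) (AF J) (Leg monQ R) ν own (recF p.θ w0 (R - 1) v) x' h' lam' lo' →
      BaseOk {2} 0 (oF p.θ) (TF J (p.θ 1 - p.θ 2) s x) (recF p.θ w0 (R - 1) v) x' h' →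
      ∀ (φ : ℕ → (Fin 11 → ℝ) → ℝ) (rt : ℕ → ℝ),
      OutS (gC (TF J (p.θ 1 - p.θ 2) s x) b) (cn (mw monQ) (AF J))
        (dhC (TF J (p.θ 1 - p.θ 2) s x) b) (Dg219.nC (TF J (p.θ 1 - p.θ 2) s x) b) lam'
        (E (1, 0), E (0, 1)) φ rt → Vis lam' →
      RatesF (p.θ 1 - p.θ 2) (TF J (p.θ 1 - p.θ 2) s x) b rt) :
    FlF p ν own w0 R v J s x b lam lo Vis (p.g / 4) := by
  intro z hz E hE k lam' lo' kpos k0 H1 H2 x' h' hJ hB φ rt hO hV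
  exact F3_num h.tp.ok hη hκ hT hs hb h0 h8 h9 hO
    (B z hz E hE k lam' lo' kpos k0 H1 H2 x' h' hJ hB φ rt hO hV)

/-- **the same for `FLemA`**, any tied slots -/
theorem F3A_of_base (h : Thick η p D I1 π eE fA fB V T w0 R T0 PD ν own c₀) (hη : η ≤ 1 / 4)
    (hκ : 0 < p.θ 1 - p.θ 2) (hs : s ≤ sF p) (hT : ∀ i, 0 ≤ TF J (p.θ 1 - p.θ 2) s x i)
    (hb : ∀ i, i ∉ J → b i = rhoF p.θ i) (h0 : (0 : Fin 11) ∉ J) (h8 : (8 : Fin 11) ∉ J)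
    (h9 : (9 : Fin 11) ∉ J) {P : Set (Fin 11 → ℝ)} {r0 : Fin 11 → ℝ} {Tie : Set (Fin 11)}
    {o : Fin 11 → ℝ} (Vis : ((Fin 11 → ℝ) → ℝ) → Prop)
    (B : ∀ z : ℝ × ℝ, z.1 < 0 → ∀ E : ℝ × ℝ →L[ℝ] ℝ,
      HasFDerivAt (fun z => lam (X 0 (TF J (p.θ 1 - p.θ 2) s x) b z)) E z →
      ∀ (k : ℕ → ℝ) (lam' lo' : (Fin 11 → ℝ) → ℝ), (∀ l, 0 < k l) → Tendsto k atTop (𝓝 0) →
      IsTan (cn (mw monQ) (AF J)) (cn (mw monQ) (AF J)) lam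
        (fun _ => X 0 (TF J (p.θ 1 - p.θ 2) s x) b z) k lam' →
      IsTan (cn (mw monQ) (AF J)) (cn (mw monQ) (AF J)) lo
        (fun _ => X 0 (TF J (p.θ 1 - p.θ 2) s x) b z) k lo' →
      ∀ (x' : ℕ → Fin 11 → ℝ) (h' : ℕ → ℝ),
      JT (mw monQ) (AF J) P ν own r0 x' h' lam' lo' →
      BaseOk Tie 0 o (TF J (p.θ 1 - p.θ 2) s x) r0 x' h' →
      ∀ (φ : ℕ → (Fin 11 → ℝ) → ℝ) (rt : ℕ → ℝ),
      OutA (gC (TF J (p.θ 1 - p.θ 2) s x) b) (cn (mw monQ) (AF J)) (TF J (p.θ 1 - p.θ 2) s x) b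
        (dhC (TF J (p.θ 1 - p.θ 2) s x) b) (Dg219.nC (TF J (p.θ 1 - p.θ 2) s x) b) lam'
        (E (1, 0), E (0, 1)) φ rt → Vis lam' →
      RatesF (p.θ 1 - p.θ 2) (TF J (p.θ 1 - p.θ 2) s x) b rt) :
    FLemA (mw monQ) (AF J) P ν own r0 (DlFL p) Tie 0 o (TF J (p.θ 1 - p.θ 2) s x)
      (TpF (p.θ 1 - p.θ 2) s) b lam lo Vis (p.g / 4) := by
  intro z hz E hE k lam' lo' kpos k0 H1 H2 x' h' hJ hB φ rt hO hV
  exact F3_num h.tp.ok hη hκ hT hs hb h0 h8 h9 hO.toOutS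
    (B z hz E hE k lam' lo' kpos k0 H1 H2 x' h' hJ hB φ rt hO hV)

end F3

end Crest.Agent.R136.LdF774
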