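import Crest.Agent.R136.LdF7_774
import Crest.Agent.R136.Dl1_667

/-!
# R136, case F (slot 21 tied, 31 and 32 not): the ladder over `PtV` (helper774)

`ladder_FQ` : three rungs `J = ∅` (`s = 1 + κ`, drop `F_b`), `J = {3}` (`s = 1`, drop `F_a, P`),
`J = {3, 4, 7}` (`s = s3`, last rung), every rung from one statement about 667's `PtV`, any first
stage and any D-max cone with `QdOk` (so also `θ 0 = θ 2`);
`ladder_FQ3` : the same with the last rung from the three base rates `RatesF` and `s3 ≤ sF p`;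
`ladder_F3` : `θ 0 ≠ θ 2` (first stage = `stage_V`).
-/

set_option autoImplicit false
set_option linter.unusedVariables false

open Finset Filter Topology

namespace Crest.Agent.R136.LdF774

open Crest.Agent.R138.Ex926 (Base U IsTan)
open Crest.Agent.R136.Net191
open Crest.Agent.R136.NetQ186
open Crest.Agent.R136.Wq638
open Crest.Agent.R136.Lq196
open Crest.Agent.R136.NatT550
open Crest.Agent.R136.NatR550 (nL)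
open Crest.Agent.R136.Top484
open Crest.Agent.R136.LdF511
open Crest.Agent.R136.LdF3511
open Crest.Agent.R136.Dl667
open Crest.Agent.R136.Tb628 (oS oS_eq)
open Crest.Agent.R136.K2S774 (cn Prf JT Stage RecD RungD BaseOk ind1 A2 stage_init)
open Crest.Agent.R136.K2A146 (FLemA)
open Dg262 (X)
open Dg219 (mw Walls OutS gC dhC nC gC_zero gC_eq)
open Rc146 (OutA)

/-! ### the three rungs for any visible slots and any D-max cone -/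

/-- `-T'` of a ray of slope `0 ≤ s ≤ 1 + κ` -/
theorem ray_mem {θ : Fin 3 → ℝ} {Qd : Set (Fin 11 → ℝ)}
    (sub : ∀ d ∈ QdF θ, d 6 ≤ d 7 → d ∈ Qd) {κ s : ℝ} (h0 : 0 ≤ s) (h1 : s ≤ 1 + κ) :
    -TpF κ s ∈ Qd := by
  refine sub _ (qd_ray θ κ h0) ?_
  rw [TpF_val]
  simp only [Pi.neg_apply, Matrix.cons_val]
  linarith

/-- **rung (i)**: `s = 1 + κ`, drop `F_b` -/
theorem rungQ_i {θ : Fin 3 → ℝ} {V : Fin 11 → Prop} {Qd : Set (Fin 11 → ℝ)}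
    (sub : ∀ d ∈ QdF θ, d 6 ≤ d 7 → d ∈ Qd) (hV3 : ¬ V 3) (hκ : 0 < θ 1 - θ 2)
    {b : Fin 11 → ℝ} (hb : ∀ i, i ∉ (∅ : Finset (Fin 11)) → b i = rhoF θ i) :
    RungD (mw monQ) (AF ∅) ↑(∅ : Finset (Fin 11)) {5, 1} {k | V k} 0 Qd (rhoF θ)
      (TF ∅ (θ 1 - θ 2) (1 + (θ 1 - θ 2)) 0) (TpF (θ 1 - θ 2) (1 + (θ 1 - θ 2))) b {3} where
  T0 := (TF_i hκ 0).1
  TJ := (TF_i hκ 0).2.1
  TZ := fun i h1 h2 => (TF_i hκ 0).2.2 i h1 (by simpa using h2)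
  natT := fun w hw => natTF _ _ _ hw
  bρ := fun i hi => hb i (by simp)
  TT := fun i hi => TF_off (by simp)
  qd := ray_mem sub (by linarith) le_rfl
  head := fun w hw h => head3 hw h
  JZ := by simp
  JT := by
    intro i hi
    rw [Finset.mem_singleton] at hi
    subst hi
    exact hV3
  Jz := by simp

/-- **rung (ii)**: `s = 1`, drop `F_a, P` -/
theorem rungQ_ii {θ : Fin 3 → ℝ} {V T : Fin 11 → Prop} {Qd : Set (Fin 11 → ℝ)}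
    (sub : ∀ d ∈ QdF θ, d 6 ≤ d 7 → d ∈ Qd) (sl : SlotOk θ V T) (hV4 : ¬ V 4)
    (hκ : 0 < θ 1 - θ 2) {b x : Fin 11 → ℝ} (hx : 0 < x 3)
    (hb : ∀ i, i ∉ ({3} : Finset (Fin 11)) → b i = rhoF θ i) :
    RungD (mw monQ) (AF {3}) ↑({3} : Finset (Fin 11)) {5, 1} {k | V k} 0 Qd (rhoF θ)
      (TF {3} (θ 1 - θ 2) 1 x) (TpF (θ 1 - θ 2) 1) b {4, 7} where
  T0 := (TF_ii hκ hx).1
  TJ := (TF_ii hκ hx).2.1
  TZ := fun i h1 h2 => (TF_ii hκ hx).2.2 i h1 (by simpa using h2)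
  natT := fun w hw => natTF _ _ _ hw
  bρ := fun i hi => hb i (by simpa using hi)
  TT := fun i hi => TF_off (by simpa using hi)
  qd := ray_mem sub zero_le_one (by linarith)
  head := fun w hw h => head47 hw h
  JZ := by simp
  JT := by
    intro i hi hV
    rw [Finset.mem_insert, Finset.mem_singleton] at hi
    rcases hi with rfl | rfl
    · exact hV4 hV
    · rcases vis_ne sl hV with h | h | h <;> exact absurd h (by decide)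
  Jz := by simp

/-- **rung (iii)**: `0 < s ≤ 1 + κ`, nothing to drop -/
theorem rungQ_iii {θ : Fin 3 → ℝ} {V : Fin 11 → Prop} {Qd : Set (Fin 11 → ℝ)}
    (sub : ∀ d ∈ QdF θ, d 6 ≤ d 7 → d ∈ Qd) (hκ : 0 < θ 1 - θ 2) {s : ℝ} (hs : 0 < s)
    (hs1 : s ≤ 1 + (θ 1 - θ 2)) {b x : Fin 11 → ℝ} (h3 : 0 < x 3) (h4 : 0 < x 4) (h7 : 0 < x 7)
    (hb : ∀ i, i ∉ ({3, 4, 7} : Finset (Fin 11)) → b i = rhoF θ i) :
    RungD (mw monQ) (AF {3, 4, 7}) ↑({3, 4, 7} : Finset (Fin 11)) {5, 1} {k | V k} 0 Qd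
      (rhoF θ) (TF {3, 4, 7} (θ 1 - θ 2) s x) (TpF (θ 1 - θ 2) s) b ∅ where
  T0 := (TF_iii hκ hs h3 h4 h7).1
  TJ := by simp
  TZ := fun i h1 h2 => (TF_iii hκ hs h3 h4 h7).2 i (by simpa using h2)
  natT := fun w hw => natTF _ _ _ hw
  bρ := fun i hi => hb i (by simpa using hi)
  TT := fun i hi => TF_off (by simpa using hi)
  qd := ray_mem sub hs.le hs1
  head := by simp
  JZ := by simp
  JT := by simp
  Jz := by simp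

section ladder

variable {η : ℝ} {p : Par4} {D : Dat4} {I1 : ℕ → Finset (ℕ × ℝ)} {π : Equiv.Perm (Fin 3)}
  {eE fA fB : ℕ → ℕ × ℝ → ℝ} {V T : Fin 11 → Prop} {w0 R T0 : ℝ} {PD : Set (Fin 11 → ℝ)}
  {ν own : (Fin 11 → ℝ) → ℝ} {c₀ : ℝ}

/-- **the ladder of case F over `PtV`**, any first stage, any D-max cone (also `θ 0 = θ 2`) -/
theorem ladder_FQ (h : Thick η p D I1 π eE fA fB V T w0 R T0 PD ν own c₀)
    {Qd : Set (Fin 11 → ℝ)} (hQ : ∀ Jd, QdOk p.θ V Jd Qd) {v : ℝ} (h0 : 0 < v) (h1 : v < 1)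
    (hst : ∃ lam lo : (Fin 11 → ℝ) → ℝ, StVQ Qd p V ν own w0 R v ∅ lam lo)
    (hκ : 0 < p.θ 1 - p.θ 2) (hV3 : ¬ V 3) (hV4 : ¬ V 4)
    {s3 g1 g2 g3 : ℝ} {x2 b2 x3 b3 : Fin 11 → ℝ} (hx2 : 0 < x2 3)
    (hb2 : ∀ i, i ∉ ({3} : Finset (Fin 11)) → b2 i = rhoF p.θ i) (hs3 : 0 < s3)
    (hs3' : s3 ≤ 1 + (p.θ 1 - p.θ 2))
    (hx33 : 0 < x3 3) (hx34 : 0 < x3 4) (hx37 : 0 < x3 7)
    (hb3 : ∀ i, i ∉ ({3, 4, 7} : Finset (Fin 11)) → b3 i = rhoF p.θ i)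
    (hg1 : 0 < g1) (hg2 : 0 < g2) (hg3 : 0 < g3)
    (F1 : ∀ (lam lo : (Fin 11 → ℝ) → ℝ) (A : ℝ × ℝ) (φ : ℕ → (Fin 11 → ℝ) → ℝ) (r : ℕ → ℝ),
      PtV D.B D.I I1 (couQ D.B D.lev D.w w0 (incQ π D.L eE fA fB)) p V T ∅
        (TF ∅ (p.θ 1 - p.θ 2) (1 + (p.θ 1 - p.θ 2)) 0) (rhoF p.θ) lam lo A φ r →
      lam (ind1 {3}) < 0 → g1 ≤ -A.1 + DlF p (TpF (p.θ 1 - p.θ 2) (1 + (p.θ 1 - p.θ 2))))
    (F2 : ∀ (lam lo : (Fin 11 → ℝ) → ℝ) (A : ℝ × ℝ) (φ : ℕ → (Fin 11 → ℝ) → ℝ) (r : ℕ → ℝ),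
      PtV D.B D.I I1 (couQ D.B D.lev D.w w0 (incQ π D.L eE fA fB)) p V T {3}
        (TF {3} (p.θ 1 - p.θ 2) 1 x2) b2 lam lo A φ r →
      lam (ind1 {4, 7}) < 0 → g2 ≤ -A.1 + DlF p (TpF (p.θ 1 - p.θ 2) 1))
    (F3 : ∀ (lam lo : (Fin 11 → ℝ) → ℝ) (A : ℝ × ℝ) (φ : ℕ → (Fin 11 → ℝ) → ℝ) (r : ℕ → ℝ),
      PtV D.B D.I I1 (couQ D.B D.lev D.w w0 (incQ π D.L eE fA fB)) p V T {3, 4, 7}
        (TF {3, 4, 7} (p.θ 1 - p.θ 2) s3 x3) b3 lam lo A φ r →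
      HomV {3, 4, 7} (TF {3, 4, 7} (p.θ 1 - p.θ 2) s3 x3) b3 φ →
      g3 ≤ -A.1 + DlF p (TpF (p.θ 1 - p.θ 2) s3)) : False := by
  have tie : ∀ (J : Finset (Fin 11)), (0 : Fin 11) ∉ J → (2 : Fin 11) ∉ J →
      ∀ (s : ℝ) (x : Fin 11 → ℝ) (k : Fin 11), V k →
        oS p.θ k * TF J (p.θ 1 - p.θ 2) s x 0 ≤ TF J (p.θ 1 - p.θ 2) s x k := by
    intro J hJ0 hJ2 s x k hk
    rcases vis_ne h.tp.slots hk with rfl | rfl | rfl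
    · rw [← TF_off hJ0, ← TF_off hJ2, TpF_val]
      simp only [oS_eq, Matrix.cons_val, Fin.isValue]; linarith
    · exact absurd hk hV3
    · exact absurd hk hV4
  obtain ⟨lam, lo, H⟩ := hst
  have sub := (hQ ∅).sub
  obtain ⟨lam2, lo2, H2⟩ := K2A146.rungA H (hQ ∅).rd
    (rungQ_i sub hV3 hκ (b := rhoF p.θ) fun _ _ => rfl) hg1 (flA_of_pt h h0 h1
      (s := 1 + (p.θ 1 - p.θ 2)) (x := 0) (b := rhoF p.θ) (TF_i hκ 0).1 (fun _ _ => rfl)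
      (tie ∅ (by decide) (by decide) _ _) F1 (hQ ∅) H)
  have H2' : StVQ Qd p V ν own w0 R v {3} lam2 lo2 := by
    have e1 := A2_AF ∅ {3}
    rw [Finset.empty_union] at e1
    rw [e1, ← Finset.coe_union, Finset.empty_union] at H2
    exact H2
  obtain ⟨lam3, lo3, H3⟩ := K2A146.rungA H2' (hQ {3}).rd
    (rungQ_ii sub h.tp.slots hV4 hκ hx2 hb2) hg2 (flA_of_pt h h0 h1 (TF_ii hκ hx2).1 hb2
      (tie {3} (by decide) (by decide) _ _) F2 (hQ {3}) H2')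
  have H3' : StVQ Qd p V ν own w0 R v {3, 4, 7} lam3 lo3 := by
    have e1 := A2_AF {3} {4, 7}
    have e2 : ({3} : Finset (Fin 11)) ∪ {4, 7} = {3, 4, 7} := by decide
    rw [e2] at e1
    rw [e1, ← Finset.coe_union, e2] at H3
    exact H3
  exact K2A146.deadA H3' (hQ {3, 4, 7}).rd (rungQ_iii sub hκ hs3 hs3' hx33 hx34 hx37 hb3) hg3
    (flA_of_ptH h h0 h1 (TF_iii hκ hs3 hx33 hx34 hx37).1 hb3
      (tie {3, 4, 7} (by decide) (by decide) _ _) F3 (hQ {3, 4, 7}) H3' _)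

/-- **the ladder of case F over `PtV`, last rung from the three base rates**, any first stage -/
theorem ladder_FQ3 (h : Thick η p D I1 π eE fA fB V T w0 R T0 PD ν own c₀) (hη : η ≤ 1 / 4)
    {Qd : Set (Fin 11 → ℝ)} (hQ : ∀ Jd, QdOk p.θ V Jd Qd) {v : ℝ} (h0 : 0 < v) (h1 : v < 1)
    (hst : ∃ lam lo : (Fin 11 → ℝ) → ℝ, StVQ Qd p V ν own w0 R v ∅ lam lo)
    (hκ : 0 < p.θ 1 - p.θ 2) (hV3 : ¬ V 3) (hV4 : ¬ V 4)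
    {s3 g1 g2 : ℝ} {x2 b2 x3 b3 : Fin 11 → ℝ} (hx2 : 0 < x2 3)
    (hb2 : ∀ i, i ∉ ({3} : Finset (Fin 11)) → b2 i = rhoF p.θ i) (hs3 : 0 < s3) (hs3' : s3 ≤ sF p)
    (hx33 : 0 < x3 3) (hx34 : 0 < x3 4) (hx37 : 0 < x3 7)
    (hb3 : ∀ i, i ∉ ({3, 4, 7} : Finset (Fin 11)) → b3 i = rhoF p.θ i)
    (hg1 : 0 < g1) (hg2 : 0 < g2)
    (F1 : ∀ (lam lo : (Fin 11 → ℝ) → ℝ) (A : ℝ × ℝ) (φ : ℕ → (Fin 11 → ℝ) → ℝ) (r : ℕ → ℝ),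
      PtV D.B D.I I1 (couQ D.B D.lev D.w w0 (incQ π D.L eE fA fB)) p V T ∅
        (TF ∅ (p.θ 1 - p.θ 2) (1 + (p.θ 1 - p.θ 2)) 0) (rhoF p.θ) lam lo A φ r →
      lam (ind1 {3}) < 0 → g1 ≤ -A.1 + DlF p (TpF (p.θ 1 - p.θ 2) (1 + (p.θ 1 - p.θ 2))))
    (F2 : ∀ (lam lo : (Fin 11 → ℝ) → ℝ) (A : ℝ × ℝ) (φ : ℕ → (Fin 11 → ℝ) → ℝ) (r : ℕ → ℝ),
      PtV D.B D.I I1 (couQ D.B D.lev D.w w0 (incQ π D.L eE fA fB)) p V T {3}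
        (TF {3} (p.θ 1 - p.θ 2) 1 x2) b2 lam lo A φ r →
      lam (ind1 {4, 7}) < 0 → g2 ≤ -A.1 + DlF p (TpF (p.θ 1 - p.θ 2) 1))
    (F3 : ∀ (lam lo : (Fin 11 → ℝ) → ℝ) (A : ℝ × ℝ) (φ : ℕ → (Fin 11 → ℝ) → ℝ) (r : ℕ → ℝ),
      PtV D.B D.I I1 (couQ D.B D.lev D.w w0 (incQ π D.L eE fA fB)) p V T {3, 4, 7}
        (TF {3, 4, 7} (p.θ 1 - p.θ 2) s3 x3) b3 lam lo A φ r →
      HomV {3, 4, 7} (TF {3, 4, 7} (p.θ 1 - p.θ 2) s3 x3) b3 φ →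
      RatesF (p.θ 1 - p.θ 2) (TF {3, 4, 7} (p.θ 1 - p.θ 2) s3 x3) b3 r) : False :=
  ladder_FQ h hQ h0 h1 hst hκ hV3 hV4 hx2 hb2 hs3
    (hs3'.trans ((min_le_left _ _).trans (by linarith))) hx33 hx34 hx37 hb3 hg1 hg2
    (by have := h.tp.ok.g0.1; positivity : 0 < p.g / 4) F1 F2
    fun lam lo A φ r hP hH => F3_num h.tp.ok hη hκ (TF_iii hκ hs3 hx33 hx34 hx37).1 hs3' hb3
      (by decide) (by decide) (by decide) hP.out.toOutS (F3 lam lo A φ r hP hH)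

/-- **the ladder of case F, `θ 0 ≠ θ 2`** -/
theorem ladder_F3 (h : Thick η p D I1 π eE fA fB V T w0 R T0 PD ν own c₀) (hη : η ≤ 1 / 4)
    (hκ : 0 < p.θ 1 - p.θ 2) (h02 : p.θ 0 ≠ p.θ 2) (hV3 : ¬ V 3) (hV4 : ¬ V 4)
    {s3 g1 g2 : ℝ} {x2 b2 x3 b3 : Fin 11 → ℝ} (hx2 : 0 < x2 3)
    (hb2 : ∀ i, i ∉ ({3} : Finset (Fin 11)) → b2 i = rhoF p.θ i) (hs3 : 0 < s3) (hs3' : s3 ≤ sF p)
    (hx33 : 0 < x3 3) (hx34 : 0 < x3 4) (hx37 : 0 < x3 7)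
    (hb3 : ∀ i, i ∉ ({3, 4, 7} : Finset (Fin 11)) → b3 i = rhoF p.θ i)
    (hg1 : 0 < g1) (hg2 : 0 < g2)
    (F1 : ∀ (lam lo : (Fin 11 → ℝ) → ℝ) (A : ℝ × ℝ) (φ : ℕ → (Fin 11 → ℝ) → ℝ) (r : ℕ → ℝ),
      PtV D.B D.I I1 (couQ D.B D.lev D.w w0 (incQ π D.L eE fA fB)) p V T ∅
        (TF ∅ (p.θ 1 - p.θ 2) (1 + (p.θ 1 - p.θ 2)) 0) (rhoF p.θ) lam lo A φ r →
      lam (ind1 {3}) < 0 → g1 ≤ -A.1 + DlF p (TpF (p.θ 1 - p.θ 2) (1 + (p.θ 1 - p.θ 2))))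
    (F2 : ∀ (lam lo : (Fin 11 → ℝ) → ℝ) (A : ℝ × ℝ) (φ : ℕ → (Fin 11 → ℝ) → ℝ) (r : ℕ → ℝ),
      PtV D.B D.I I1 (couQ D.B D.lev D.w w0 (incQ π D.L eE fA fB)) p V T {3}
        (TF {3} (p.θ 1 - p.θ 2) 1 x2) b2 lam lo A φ r →
      lam (ind1 {4, 7}) < 0 → g2 ≤ -A.1 + DlF p (TpF (p.θ 1 - p.θ 2) 1))
    (F3 : ∀ (lam lo : (Fin 11 → ℝ) → ℝ) (A : ℝ × ℝ) (φ : ℕ → (Fin 11 → ℝ) → ℝ) (r : ℕ → ℝ),
      PtV D.B D.I I1 (couQ D.B D.lev D.w w0 (incQ π D.L eE fA fB)) p V T {3, 4, 7}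
        (TF {3, 4, 7} (p.θ 1 - p.θ 2) s3 x3) b3 lam lo A φ r →
      HomV {3, 4, 7} (TF {3, 4, 7} (p.θ 1 - p.θ 2) s3 x3) b3 φ →
      RatesF (p.θ 1 - p.θ 2) (TF {3, 4, 7} (p.θ 1 - p.θ 2) s3 x3) b3 r) : False :=
  ladder_FQ3 h hη (fun Jd => qdOk h.tp.slots Jd) (by norm_num : (0:ℝ) < 1 / 2) (by norm_num)
    (stage_V h (by norm_num) (by norm_num) hκ h02) hκ hV3 hV4 hx2 hb2 hs3 hs3' hx33 hx34 hx37 hb3
    hg1 hg2 F1 F2 F3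

end ladder

end Crest.Agent.R136.LdF774
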