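import Crest.Agent.R136.NetW4_191
import Crest.Agent.R136.Net2_191

/-!
# Legality of test boxes (helper191)

* cone: `legal_add`, `legal_smul`, `legal_zero`; `legal_of_max` : `p` is legal if every monomial of
  the wall of `k` has a factor `j` with `p k ≤ p j`;
* `ind V x` (value `x` on `V`, `0` elsewhere) for up-closed `V` (`UpM`);
* W-chart: `UpW Dr V` decidable; `monW` with the slots `Dr` dropped = any `Mw` with
  `SubW Dr Mw`; `leg_ind`, `legW_ind`, `legW_lv` (levels `lv : Fin 18 → ℕ`, values `X (lv k)`).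
-/

set_option autoImplicit false

namespace Crest.Agent.R136.NetW191

open Crest.Agent.R136.Net191

section generic

variable {m : ℕ} {M : Mons m}

theorem legal_zero' : Legal M (0 : Fin m → ℝ) where
  nonneg _ := le_rfl
  wall k e _ := by simp

theorem legal_add {p q : Fin m → ℝ} (hp : Legal M p) (hq : Legal M q) : Legal M (p + q) where
  nonneg k := add_nonneg (hp.nonneg k) (hq.nonneg k)
  wall k e he := by
    have h1 := hp.wall k e he
    have h2 := hq.wall k e he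
    have h3 : ∑ s, (e s : ℝ) * (p + q) s = (∑ s, (e s : ℝ) * p s) + ∑ s, (e s : ℝ) * q s := by
      rw [← Finset.sum_add_distrib]
      refine Finset.sum_congr rfl fun s _ => ?_
      rw [Pi.add_apply]; ring
    rw [h3, Pi.add_apply]
    exact add_le_add h1 h2

theorem legal_smul {p : Fin m → ℝ} {c : ℝ} (hc : 0 ≤ c) (hp : Legal M p) : Legal M (c • p) where
  nonneg k := mul_nonneg hc (hp.nonneg k)
  wall k e he := by
    have h1 := mul_le_mul_of_nonneg_left (hp.wall k e he) hc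
    have h3 : ∑ s, (e s : ℝ) * (c • p) s = c * ∑ s, (e s : ℝ) * p s := by
      rw [Finset.mul_sum]
      refine Finset.sum_congr rfl fun s _ => ?_
      rw [Pi.smul_apply, smul_eq_mul]; ring
    rw [h3, Pi.smul_apply, smul_eq_mul]
    exact h1

/-- every monomial of the wall of `k` has a factor with a larger exponent -/
theorem legal_of_max {p : Fin m → ℝ} (hp : ∀ k, 0 ≤ p k)
    (h : ∀ k, ∀ e ∈ M.mon k, ∃ j, e j ≠ 0 ∧ p k ≤ p j) : Legal M p where
  nonneg := hp
  wall k e he := by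
    obtain ⟨j, hj, hkj⟩ := h k e he
    have h1 : (e j : ℝ) * p j ≤ ∑ s, (e s : ℝ) * p s :=
      Finset.single_le_sum (f := fun s => (e s : ℝ) * p s)
        (fun s _ => mul_nonneg (Nat.cast_nonneg _) (hp s)) (Finset.mem_univ j)
    have h2 : (1 : ℝ) ≤ (e j : ℝ) := by exact_mod_cast Nat.one_le_iff_ne_zero.2 hj
    have h3 := mul_le_mul_of_nonneg_right h2 (hp j)
    linarith

/-- `V` is up-closed: every monomial of the wall of a slot of `V` has a factor in `V` -/
def UpM (M : Mons m) (V : Finset (Fin m)) : Prop := ∀ k ∈ V, ∀ e ∈ M.mon k, ∃ j ∈ V, e j ≠ 0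

/-- value `x` on `V`, `0` elsewhere -/
def ind (V : Finset (Fin m)) (x : ℝ) : Fin m → ℝ := fun k => if k ∈ V then x else 0

theorem ind_mem {V : Finset (Fin m)} {x : ℝ} {k : Fin m} (h : k ∈ V) : ind V x k = x := if_pos h

theorem ind_notMem {V : Finset (Fin m)} {x : ℝ} {k : Fin m} (h : k ∉ V) : ind V x k = 0 :=
  if_neg h

theorem ind_nonneg {V : Finset (Fin m)} {x : ℝ} (hx : 0 ≤ x) (k : Fin m) : 0 ≤ ind V x k := by
  unfold ind; split_ifs
  · exact hx
  · exact le_rfl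

theorem ind_le {V : Finset (Fin m)} {x : ℝ} (hx : 0 ≤ x) (k : Fin m) : ind V x k ≤ x := by
  unfold ind; split_ifs
  · exact le_rfl
  · exact hx

theorem ind_mono {V V' : Finset (Fin m)} (h : V ⊆ V') {x x' : ℝ} (hx : 0 ≤ x') (hxx : x ≤ x') :
    ind V x ≤ ind V' x' := by
  intro k
  unfold ind
  by_cases hk : k ∈ V
  · rw [if_pos hk, if_pos (h hk)]; exact hxx
  · rw [if_neg hk]; split_ifs
    · exact hx
    · exact le_rfl

theorem legal_ind {V : Finset (Fin m)} (h : UpM M V) {x : ℝ} (hx : 0 ≤ x) : Legal M (ind V x) := by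
  refine legal_of_max (ind_nonneg hx) fun k e he => ?_
  by_cases hk : k ∈ V
  · obtain ⟨j, hj, hej⟩ := h k hk e he
    exact ⟨j, hej, by rw [ind_mem hk, ind_mem hj]⟩
  · obtain ⟨s, hs⟩ := M.ne k e he
    exact ⟨s, hs, by rw [ind_notMem hk]; exact ind_nonneg hx s⟩

theorem leg_ind {V : Finset (Fin m)} (h : UpM M V) {x R : ℝ} (hx : 0 ≤ x) (hR : x ≤ R) :
    ind V x ∈ Leg M R := ⟨legal_ind h hx, fun k => (ind_le hx k).trans hR⟩

/-- three values `0, x, x + y` -/
theorem leg_ind2 {V V' : Finset (Fin m)} (h : UpM M V) (h' : UpM M V') {x y R : ℝ} (hx : 0 ≤ x)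
    (hy : 0 ≤ y) (hR : x + y ≤ R) : ind V x + ind V' y ∈ Leg M R :=
  ⟨legal_add (legal_ind h hx) (legal_ind h' hy), fun k =>
    (add_le_add (ind_le hx k) (ind_le hy k)).trans hR⟩

theorem leg_sup_ind {p : Fin m → ℝ} {R : ℝ} (hp : p ∈ Leg M R) {V : Finset (Fin m)} (h : UpM M V)
    {x : ℝ} (hx : 0 ≤ x) (hR : x ≤ R) : p ⊔ ind V x ∈ Leg M R := Leg.sup hp (leg_ind h hx hR)

end generic

section chartW

/-- the monomials of `Mw` are monomials of the W-chart without the dropped slots `Dr` -/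
def SubW (Dr : Finset (Fin 18)) (Mw : Mons 18) : Prop :=
  ∀ k, ∀ e ∈ Mw.mon k, e ∈ monW.mon k ∧ ∀ a ∈ Dr, e a = 0

theorem subW_monW : SubW ∅ monW := fun _ _ he => ⟨he, fun a ha => absurd ha (Finset.notMem_empty a)⟩

/-- **decidable form**: `V` is up-closed for the walls without the slots `Dr` -/
def UpW (Dr V : Finset (Fin 18)) : Prop :=
  ∀ k ∈ V, ∀ l ∈ mlW k, (∀ a ∈ l, a ∉ Dr) → ∃ j ∈ l, j ∈ V

instance (Dr V : Finset (Fin 18)) : Decidable (UpW Dr V) := by unfold UpW; infer_instance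

/-- **decidable form**: the levels `lv` are admissible for the walls without the slots `Dr` -/
def UpL (Dr : Finset (Fin 18)) (lv : Fin 18 → ℕ) : Prop :=
  ∀ k, ∀ l ∈ mlW k, (∀ a ∈ l, a ∉ Dr) → ∃ j ∈ l, lv k ≤ lv j

instance (Dr : Finset (Fin 18)) (lv : Fin 18 → ℕ) : Decidable (UpL Dr lv) := by
  unfold UpL; infer_instance

/-- a monomial of the W-chart comes from a list -/
theorem mem_monW {k : Fin 18} {e : Fin 18 → ℕ} (he : e ∈ monW.mon k) :
    ∃ l ∈ mlW k, ∀ j, e j ≠ 0 ↔ j ∈ l := by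
  obtain ⟨l, hl, rfl⟩ := by
    simpa [monW, ofLists] using he
  refine ⟨l, hl, fun j => ?_⟩
  simp [List.count_eq_zero]

theorem upM_of_upW {Dr V : Finset (Fin 18)} {Mw : Mons 18} (hM : SubW Dr Mw) (h : UpW Dr V) :
    UpM Mw V := by
  intro k hk e he
  obtain ⟨h1, h2⟩ := hM k e he
  obtain ⟨l, hl, hle⟩ := mem_monW h1
  obtain ⟨j, hjl, hjV⟩ := h k hk l hl fun a ha haD => (hle a).2 ha (h2 a haD)
  exact ⟨j, hjV, (hle j).2 hjl⟩

/-- **two-valued test boxes of the W-chart** -/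
theorem legW_ind {Dr V : Finset (Fin 18)} {Mw : Mons 18} (hM : SubW Dr Mw) (h : UpW Dr V)
    {x R : ℝ} (hx : 0 ≤ x) (hR : x ≤ R) : ind V x ∈ Leg Mw R := leg_ind (upM_of_upW hM h) hx hR

/-- **test boxes of the W-chart with any number of levels** -/
theorem legW_lv {Dr : Finset (Fin 18)} {lv : Fin 18 → ℕ} {Mw : Mons 18} (hM : SubW Dr Mw)
    (h : UpL Dr lv) {X : ℕ → ℝ} (hX : Monotone X) (h0 : 0 ≤ X 0) {R : ℝ}
    (hR : ∀ k, X (lv k) ≤ R) : (fun k => X (lv k)) ∈ Leg Mw R := by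
  refine ⟨legal_of_max (fun k => h0.trans (hX (Nat.zero_le _))) fun k e he => ?_, hR⟩
  obtain ⟨h1, h2⟩ := hM k e he
  obtain ⟨l, hl, hle⟩ := mem_monW h1
  obtain ⟨j, hjl, hj⟩ := h k l hl fun a ha haD => (hle a).2 ha (h2 a haD)
  exact ⟨j, (hle j).2 hjl, hX hj⟩

/-- a level vector from the list of its values, the walls without the slots `Dr` -/
theorem legW_vec {Dr : Finset (Fin 18)} {Mw : Mons 18} (hM : SubW Dr Mw) {p : Fin 18 → ℝ}
    (hp : ∀ k, 0 ≤ p k) (h : ∀ k, ∀ l ∈ mlW k, (∀ a ∈ l, a ∉ Dr) → ∃ j ∈ l, p k ≤ p j) {R : ℝ}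
    (hR : ∀ k, p k ≤ R) : p ∈ Leg Mw R := by
  refine ⟨legal_of_max hp fun k e he => ?_, hR⟩
  obtain ⟨h1, h2⟩ := hM k e he
  obtain ⟨l, hl, hle⟩ := mem_monW h1
  obtain ⟨j, hjl, hj⟩ := h k l hl fun a ha haD => (hle a).2 ha (h2 a haD)
  exact ⟨j, (hle j).2 hjl, hj⟩

/-! tests of `decide`: `A` narrow with the height and `c`; `N` narrow, `P`, `R` wide; flag slots of
weight `≥ 2` dropped -/
example : UpW ∅ {0, 1, 2, 3} := by decide
example : UpW ∅ (Finset.univ \ {16, 13}) := by decide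
example : UpW ∅ (Finset.univ.erase 13) := by decide
example : UpW {4, 5, 6, 7, 8, 9, 10} ({0, 11, 12, 14, 15, 2, 3} : Finset (Fin 18)) := by decide
example : UpL ∅ ![2, 1, 1, 1, 0, 0, 0, 0, 0, 0, 0, 0, 0, 0, 0, 0, 0, 0] := by decide

end chartW

end Crest.Agent.R136.NetW191
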