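import Crest.Agent.R136.Mir2_356

/-!
# R136: windows in which all flags `E, F_a` (and `F_b`, if resolved) are level slots (helper356)

* `lvm u e b a` : motion of the level slots;
* **`PQ.evoLev`** : evolution in terms of functions of the heights;
* `PQ.addLev` : additivity at one height;
* **`evoA`**, **`evoB`** : helper272's `EvoL` for `S = {0,2,3,4}`, resp. `S = {0,2,4}` (slot 3 dropped).
-/

set_option autoImplicit false
set_option linter.unusedSectionVars false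
set_option linter.unusedVariables false

open Filter Topology

namespace Crest.Agent.R136.Lev356

open Finset Crest.Agent.R136.NetQ186 Crest.Agent.R136.Net191 Crest.Agent.R136.Qg926
open Crest.Agent.R136.Gf356 Crest.Agent.R136.Ev356 Crest.Agent.R136.Ab356
open Crest.Agent.R136.Mir356 Crest.Agent.R136.Aw413 Crest.Agent.R136.Fe1355
open Crest.Agent.R138.Ex926 (Base U)

/-- motion of the level slots -/
def lvm (u e b a : ℝ) : Fin 11 → ℝ := ![u, 0, e, b, a, 0, 0, 0, 0, 0, 0]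

variable {ι : ℕ → Type*} [∀ n, DecidableEq (ι n)] {W : Wnd 11 ι} {f : ∀ n, ι n → Fq4}
  {E : ∀ n, Finset (ι n)} {Rs : Finset (Fin 11)} {x : ℝ}
  {q' : ℕ → Fin 11 → Fin 11 → Fin 11 → ℝ}

/-- motion of `F_b` -/
noncomputable def mob (W : Wnd 11 ι) (n k k' : ℕ) : ℝ :=
  if (3 : Fin 11) ∈ W.S then flg W n k' 3 - flg W n k 3 else 0

/-- motion of `F_a` (composite) -/
noncomputable def moa (W : Wnd 11 ι) (n k k' : ℕ) : ℝ :=
  flg W n k' 4 - flg W n k 4 + cf W n 2 3 4 * (flg W n k 2 * (flg W n k' 3 - flg W n k 3))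

theorem moa_eq (h : QWnd W f)
    (hc : ∀ᶠ n in (U : Filter ℕ), W.Good n ∧ E n ⊆ W.Cl n ∧ W.cfg E n = W.cfg0 n (E n)) :
    ∀ᶠ n in (U : Filter ℕ), ∀ k ∈ (W.cfg E n).Z, ∀ k' ∈ (W.cfg E n).Z,
      W.crd n (W.zrep n k) (W.zrep n k') 4 = moa W n k k' := by
  filter_upwards [h.mot_eq hc] with n hn k hk k' hk'
  exact (hn k hk k' hk').2

/-- the own motion -/
theorem ownC_lev (P : PQ W f Rs x q') (h2 : (2 : Fin 11) ∈ W.S) (h4 : (4 : Fin 11) ∈ W.S)
    (hkz : W.kz = 0)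
    (hc : ∀ᶠ n in (U : Filter ℕ), W.Good n ∧ E n ⊆ W.Cl n ∧ W.cfg E n = W.cfg0 n (E n)) :
    ∀ᶠ n in (U : Filter ℕ), ((3 : Fin 11) ∈ W.S ∨ q' n 2 3 4 = 0) → ∀ i,
      ∀ k ∈ (W.cfg E n).Z, ∀ k' ∈ (W.cfg E n).Z,
      ownC (q' n) W n k k' (fsl W n i k 2) (fsl W n i k 3) =
        lvm ((W.cfg E n).z k' - (W.cfg E n).z k) (flg W n k' 2 - flg W n k 2) (mob W n k k')
          (moa W n k k') := by
  filter_upwards [P.q.mot_eq hc, P.q.z_eq hkz hc, moa_eq P.q hc] with n hn hz ha h3 i k hk k' hk'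
  have m := (hn k hk k' hk').1
  have a4 := ha k hk k' hk'
  have s0 := P.S0
  have nm : ∀ s : Fin 11, s = 1 ∨ s = 5 ∨ s = 6 ∨ s = 7 ∨ s = 8 ∨ s = 9 ∨ s = 10 →
      mot W n k k' s = 0 := by
    intro s hs
    unfold mot
    rw [if_neg (P.q.notMem hs)]
  funext s
  unfold ownC
  rcases fin11 s with rfl | rfl | rfl | rfl | rfl | rfl | rfl | rfl | rfl | rfl | rfl
  · rw [if_neg (by decide)]
    simp only [lvm, Matrix.cons_val]
    unfold mot
    rw [if_pos s0, m 0 (by simp), hz k, hz k']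
  · rw [if_neg (by decide), nm 1 (by simp)]
    simp only [lvm, Matrix.cons_val]
  · rw [if_neg (by decide)]
    simp only [lvm, Matrix.cons_val]
    unfold mot
    rw [if_pos h2, m 2 (by simp)]
  · rw [if_neg (by decide)]
    simp only [lvm, Matrix.cons_val]
    unfold mot mob
    rw [m 3 (by simp)]
  · rw [if_pos rfl, if_pos h4]
    simp only [lvm, Matrix.cons_val]
    have e1 : q' n 2 3 4 * (fsl W n i k 2 * mot W n k k' 3 + (fsl W n i k 2 + mot W n k k' 2) *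
        (W.crd n (W.zrep n k) (W.zrep n k') 3 - fsl W n i k 3 - mot W n k k' 3)) = 0 := by
      rcases h3 with h3 | h3
      · have f2 : fsl W n i k 2 = 0 := by unfold fsl; rw [if_pos h2]
        have f3 : fsl W n i k 3 = 0 := by unfold fsl; rw [if_pos h3]
        have e3 : mot W n k k' 3 = W.crd n (W.zrep n k) (W.zrep n k') 3 := by
          unfold mot; rw [if_pos h3]
        rw [f2, f3, e3]; ring
      · rw [h3, zero_mul]
    rw [e1, add_zero, a4]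
  · rw [if_neg (by decide), nm 5 (by simp)]
    simp only [lvm, Matrix.cons_val]
  · rw [if_neg (by decide), nm 6 (by simp)]
    simp only [lvm, Matrix.cons_val]
  · rw [if_neg (by decide), nm 7 (by simp)]
    simp only [lvm, Matrix.cons_val]
  · rw [if_neg (by decide), nm 8 (by simp)]
    simp only [lvm, Matrix.cons_val]
  · rw [if_neg (by decide), nm 9 (by simp)]
    simp only [lvm, Matrix.cons_val]
  · rw [if_neg (by decide), nm 10 (by simp)]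
    simp only [lvm, Matrix.cons_val]

theorem Z_of_I (h : QWnd W f)
    (hc : ∀ᶠ n in (U : Filter ℕ), W.Good n ∧ E n ⊆ W.Cl n ∧ W.cfg E n = W.cfg0 n (E n)) :
    ∀ᶠ n in (U : Filter ℕ), ∀ i k, (i, k) ∈ (W.cfg E n).I → k ∈ (W.cfg E n).Z := by
  filter_upwards [hc] with n hn i k hik
  obtain ⟨g, hE, hcfg⟩ := hn
  rw [hcfg] at hik ⊢
  exact mem_image.2 (by obtain ⟨u, hu, -, h6⟩ := mem_cfg0 hik; exact ⟨u, hu, h6⟩)

/-- **evolution in terms of functions of the heights** -/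
theorem evoLev (P : PQ W f Rs x q') (h2 : (2 : Fin 11) ∈ W.S) (h4 : (4 : Fin 11) ∈ W.S)
    (h3 : ∀ᶠ n in (U : Filter ℕ), (3 : Fin 11) ∈ W.S ∨ q' n 2 3 4 = 0) (hkz : W.kz = 0)
    (hc : ∀ᶠ n in (U : Filter ℕ), W.Good n ∧ E n ⊆ W.Cl n ∧ W.cfg E n = W.cfg0 n (E n))
    {ε : ℝ} (hε : 0 < ε) :
    ∀ᶠ n in (U : Filter ℕ), ∀ i l k k', (i, k) ∈ (W.cfg E n).I → (l, k) ∈ (W.cfg E n).I →
      (i, k') ∈ (W.cfg E n).I → (l, k') ∈ (W.cfg E n).I → ∀ s ∈ Rs, s ∉ W.S →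
      |(W.cfg E n).rel k' i l s - evoC (q' n) (lvm ((W.cfg E n).z k' - (W.cfg E n).z k)
        (flg W n k' 2 - flg W n k 2) (mob W n k k') (moa W n k k'))
          ((W.cfg E n).rel k i l) s| ≤ W.B'.d n ^ (x - ε) := by
  filter_upwards [P.evo hc hε, ownC_lev P h2 h4 hkz hc, h3, Z_of_I P.q hc] with
    n hev how h3n hZ i l k k' a1 a2 a3 a4 s hs hsS
  have := hev k k' i l a1 a3 a2 a4 s hs hsS
  rwa [how h3n i k (hZ _ _ a1) k' (hZ _ _ a3)] at this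

/-- level slots do not contribute to relative coordinates -/
theorem rel_lev
    (hc : ∀ᶠ n in (U : Filter ℕ), W.Good n ∧ E n ⊆ W.Cl n ∧ W.cfg E n = W.cfg0 n (E n)) :
    ∀ᶠ n in (U : Filter ℕ), ∀ k i l, ∀ s ∈ W.S, (W.cfg E n).rel k i l s = 0 := by
  filter_upwards [hc] with n hn k i l s hs
  rw [hn.2.2, rel_cfg0, if_pos hs]

/-- bounds -/
theorem bd_lev (P : PQ W f Rs x q') (hkz : W.kz = 0)
    (hc : ∀ᶠ n in (U : Filter ℕ), W.Good n ∧ E n ⊆ W.Cl n ∧ W.cfg E n = W.cfg0 n (E n)) :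
    ∀ᶠ n in (U : Filter ℕ), (∀ k ∈ (W.cfg E n).Z, |(W.cfg E n).z k| ≤ 1 / 4 ∧
      ∀ s, |flg W n k s| ≤ 1 / 4) ∧
      ∀ k i l, (i, k) ∈ (W.cfg E n).I → (l, k) ∈ (W.cfg E n).I → ∀ s,
        |(W.cfg E n).rel k i l s| ≤ 1 / 4 := by
  filter_upwards [hc, P.q.z_eq hkz hc] with n hn hz
  obtain ⟨g, hE, hcfg⟩ := hn
  refine ⟨fun k hk => ?_, fun k i l h1 h2 s => ?_⟩
  · rw [hz k]
    rw [hcfg] at hk
    have a := (zrep_of_mem hE hk).1
    exact ⟨P.crd4 g g.s0 a 0, fun s => P.crd4 g g.s0 a s⟩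
  · rw [hcfg] at h1 h2 ⊢
    rw [rel_cfg0]
    split_ifs
    · rw [abs_zero]; norm_num
    · exact P.crd4 g (rep_of_mem hE h1).1 (rep_of_mem hE h2).1 s

/-- own motions of a line, level slots -/
theorem own_lev (P : PQ W f Rs x q') (h2 : (2 : Fin 11) ∈ W.S) (h4 : (4 : Fin 11) ∈ W.S)
    (h3 : ∀ᶠ n in (U : Filter ℕ), (3 : Fin 11) ∈ W.S ∨ q' n 2 3 4 = 0) (hkz : W.kz = 0)
    (hc : ∀ᶠ n in (U : Filter ℕ), W.Good n ∧ E n ⊆ W.Cl n ∧ W.cfg E n = W.cfg0 n (E n)) :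
    ∀ᶠ n in (U : Filter ℕ), ∀ l k k', (l, k) ∈ (W.cfg E n).I → (l, k') ∈ (W.cfg E n).I →
      ∀ s ∈ Rs, |W.crd n (W.rep n l k) (W.rep n l k') s -
        lvm ((W.cfg E n).z k' - (W.cfg E n).z k) (flg W n k' 2 - flg W n k 2) (mob W n k k')
          (moa W n k k') s| ≤ 8 * W.B'.d n ^ x := by
  filter_upwards [hc, P.capp, P.clo, ownC_lev P h2 h4 hkz hc, h3, Z_of_I P.q hc] with
    n hn hca hcl how h3n hZ l k k' a1 a2 s hs
  rw [← how h3n l k (hZ _ _ a1) k' (hZ _ _ a2)]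
  obtain ⟨g, hE, hcfg⟩ := hn
  rw [hcfg] at a1 a2
  exact (P.own_apP g hca hcl hE a1 a2).1 s hs

/-- **raw twist of `E`** -/
theorem rawTw_E (P : PQ W f Rs x q') (h2 : (2 : Fin 11) ∈ W.S) (h4 : (4 : Fin 11) ∈ W.S)
    (h3 : ∀ᶠ n in (U : Filter ℕ), (3 : Fin 11) ∈ W.S ∨ q' n 2 3 4 = 0) (hkz : W.kz = 0)
    (hc : ∀ᶠ n in (U : Filter ℕ), W.Good n ∧ E n ⊆ W.Cl n ∧ W.cfg E n = W.cfg0 n (E n))
    (hx : 0 < x) (hr : RawL W E 2) :
    RawTw W.B' (W.cfg E) (fun n k k' => flg W n k' 2 - flg W n k 2) := by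
  refine rawTw_of_near (C := 8) hx ?_ hr
  filter_upwards [own_lev P h2 h4 h3 hkz hc] with n hn l k k' a1 a2
  have := hn l k k' a1 a2 2 (P.sub h2)
  simp only [lvm, Matrix.cons_val] at this
  have e := abs_sub_abs_le_abs_sub (W.crd n (W.rep n l k) (W.rep n l k') 2)
    (flg W n k' 2 - flg W n k 2)
  linarith

/-- **raw twist of `F_b`** -/
theorem rawTw_B (P : PQ W f Rs x q') (h2 : (2 : Fin 11) ∈ W.S) (h4 : (4 : Fin 11) ∈ W.S)
    (h3 : (3 : Fin 11) ∈ W.S) (hkz : W.kz = 0)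
    (hc : ∀ᶠ n in (U : Filter ℕ), W.Good n ∧ E n ⊆ W.Cl n ∧ W.cfg E n = W.cfg0 n (E n))
    (hx : 0 < x) (hr : RawL W E 3) :
    RawTw W.B' (W.cfg E) (fun n k k' => flg W n k' 3 - flg W n k 3) := by
  refine rawTw_of_near (C := 8) hx ?_ hr
  filter_upwards [own_lev P h2 h4 (Eventually.of_forall fun _ => Or.inl h3) hkz hc] with
    n hn l k k' a1 a2
  have := hn l k k' a1 a2 3 (P.sub h3)
  simp only [lvm, Matrix.cons_val] at this
  unfold mob at this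
  rw [if_pos h3] at this
  have e := abs_sub_abs_le_abs_sub (W.crd n (W.rep n l k) (W.rep n l k') 3)
    (flg W n k' 3 - flg W n k 3)
  linarith

/-- **raw twist of `F_a`** (composite motion) -/
theorem rawTw_A (P : PQ W f Rs x q') (h2 : (2 : Fin 11) ∈ W.S) (h4 : (4 : Fin 11) ∈ W.S)
    (h3 : ∀ᶠ n in (U : Filter ℕ), (3 : Fin 11) ∈ W.S ∨ q' n 2 3 4 = 0) (hkz : W.kz = 0)
    (hc : ∀ᶠ n in (U : Filter ℕ), W.Good n ∧ E n ⊆ W.Cl n ∧ W.cfg E n = W.cfg0 n (E n))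
    (hx : 0 < x) (hr : RawL W E 4) :
    RawTw W.B' (W.cfg E) (fun n k k' => moa W n k k') := by
  refine rawTw_of_near (C := 8) hx ?_ hr
  filter_upwards [own_lev P h2 h4 h3 hkz hc] with n hn l k k' a1 a2
  have := hn l k k' a1 a2 4 (P.sub h4)
  simp only [lvm, Matrix.cons_val] at this
  have e := abs_sub_abs_le_abs_sub (W.crd n (W.rep n l k) (W.rep n l k') 4) (moa W n k k')
  linarith

/-! ### instances -/

/-- the evolution of the entries `C_a, C_b, P, X_a, X_b, N` with error `D` (= helper272's `EvoL`,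
definitionally) -/
def EvL (u δ b a D : ℝ) (v w : Fin 11 → ℝ) : Prop :=
  |w 5 - v 5| ≤ D ∧ |w 6 - (v 6 - δ * v 5)| ≤ D ∧ |w 7 - (v 7 - a * v 5 - b * v 6)| ≤ D ∧
  |w 8 - (v 8 + u * v 5)| ≤ D ∧ |w 9 - (v 9 + u * v 6 - δ * (v 8 + u * v 5))| ≤ D ∧
  |w 10 - (v 10 + u * v 7 - a * (v 8 + u * v 5) - b * (v 9 + u * v 6))| ≤ D

/-- coefficients of the window (A): everything is `1` but `017` -/
structure QA (q : Fin 11 → Fin 11 → Fin 11 → ℝ) : Prop where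
  a256 : q 2 5 6 = 1
  a289 : q 2 8 9 = 1
  a457 : q 4 5 7 = 1
  a4810 : q 4 8 10 = 1
  a058 : q 0 5 8 = 1
  a069 : q 0 6 9 = 1
  a0710 : q 0 7 10 = 1
  a234 : q 2 3 4 = 1
  a367 : q 3 6 7 = 1
  a3910 : q 3 9 10 = 1
  b017 : q 0 1 7 = 0

/-- helper272's evolution from `evoC`, window (A) -/
theorem evoL_A {q : Fin 11 → Fin 11 → Fin 11 → ℝ} (hq : QA q) {u e b a δ : ℝ}
    {v w : Fin 11 → ℝ}
    (h : ∀ s : Fin 11, s = 5 ∨ s = 6 ∨ s = 7 ∨ s = 8 ∨ s = 9 ∨ s = 10 →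
      |w s - evoC q (lvm u e b a) v s| ≤ δ) : EvL u e b a δ v w := by
  obtain ⟨a256, a289, a457, a4810, a058, a069, a0710, a234, a367, a3910, b017⟩ := hq
  have h5 := h 5 (by simp)
  have h6 := h 6 (by simp)
  have h7 := h 7 (by simp)
  have h8 := h 8 (by simp)
  have h9 := h 9 (by simp)
  have h10 := h 10 (by simp)
  simp only [evoC, lvm, Matrix.cons_val, a256, a289, a457, a4810, a058, a069, a0710, a234, a367,
    a3910, b017] at h5 h6 h7 h8 h9 h10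
  refine ⟨h5, ?_, ?_, ?_, ?_, ?_⟩
  · refine le_trans (le_of_eq ?_) h6; congr 1; ring
  · refine le_trans (le_of_eq ?_) h7; congr 1; ring
  · refine le_trans (le_of_eq ?_) h8; congr 1; ring
  · refine le_trans (le_of_eq ?_) h9; congr 1; ring
  · refine le_trans (le_of_eq ?_) h10; congr 1; ring

/-- helper272's evolution from `evoC`, window (B): `F_b` dropped -/
theorem evoL_B {q : Fin 11 → Fin 11 → Fin 11 → ℝ} (hq : Q1 q) {u e b a δ : ℝ}
    {v w : Fin 11 → ℝ}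
    (h : ∀ s : Fin 11, s = 5 ∨ s = 6 ∨ s = 7 ∨ s = 8 ∨ s = 9 ∨ s = 10 →
      |w s - evoC q (lvm u e b a) v s| ≤ δ) : EvL u e 0 a δ v w := by
  obtain ⟨a256, a289, a457, a4810, a058, a069, a0710, b234, b367, b3910, b017⟩ := hq
  have h5 := h 5 (by simp)
  have h6 := h 6 (by simp)
  have h7 := h 7 (by simp)
  have h8 := h 8 (by simp)
  have h9 := h 9 (by simp)
  have h10 := h 10 (by simp)
  simp only [evoC, lvm, Matrix.cons_val, a256, a289, a457, a4810, a058, a069, a0710, b234, b367,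
    b3910, b017] at h5 h6 h7 h8 h9 h10
  refine ⟨h5, ?_, ?_, ?_, ?_, ?_⟩
  · refine le_trans (le_of_eq ?_) h6; congr 1; ring
  · refine le_trans (le_of_eq ?_) h7; congr 1; ring
  · refine le_trans (le_of_eq ?_) h8; congr 1; ring
  · refine le_trans (le_of_eq ?_) h9; congr 1; ring
  · refine le_trans (le_of_eq ?_) h10; congr 1; ring

end Crest.Agent.R136.Lev356
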