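import Mathlib

/-!
# R136: the vector superadditivity step (text 163, msg 14491; typed by helper823)

`SS X k R M le`: a family `X` of (extremal) objects, `M u x` = the set of shapes (in `ℝ^k`) of the
near-maximal test sets of level `u`, in units of the window `[u,1]`.  The axioms are the window
lemmas `lower` (`[u,1]`), `super` (`[0,u]`) and monotonicity under refinements.

`SS.exists_linear` : there is ONE shape `T` such that for every `ε` and every finite grid of levels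
some object `x` has, for EVERY refinement `x'` of it and every level `u` of the grid, a shape in
`M u x'` which is `ε`-near `T`; moreover all shapes of `M u x` have first coordinate `≤ T 0 + ε`.
-/

set_option autoImplicit false

open Filter Topology

namespace Crest.Agent.R136.Lex823

universe u

/-- abstract superadditive system of shapes -/
structure SS (X : Type u) (k : ℕ) (R : ℝ) (M : ℚ → X → Set (Fin k → ℝ)) (le : X → X → Prop) :
    Prop where
  ne : ∀ x, (M 0 x).Nonempty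
  box : ∀ v : ℚ, 0 ≤ v → v < 1 → ∀ x, ∀ m ∈ M v x, ∀ j, |m j| ≤ R
  /-- window `[v,1]` -/
  lower : ∀ v : ℚ, 0 < v → v < 1 → ∀ x, ∀ ε : ℝ, 0 < ε → ∃ y, ∀ m ∈ M 0 y, ∃ m' ∈ M v x,
    ∀ j, |m j - m' j| ≤ ε
  /-- window `[0,v]`, end marks of shape `m'` -/
  super : ∀ v : ℚ, 0 < v → v < 1 → ∀ x, ∀ m' ∈ M v x, ∀ ε : ℝ, 0 < ε → ∃ z, ∀ m'' ∈ M 0 z,
    ∃ m ∈ M 0 x, ∀ j, |((1 - (v : ℝ)) * m' j + (v : ℝ) * m'' j) - m j| ≤ ε
  refl : ∀ x, le x x
  mono : ∀ x x', le x' x → ∀ v : ℚ, 0 ≤ v → v < 1 → ∀ ε : ℝ, 0 < ε → ∀ m ∈ M v x', ∃ m' ∈ M v x,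
    ∀ j, |m j - m' j| ≤ ε

/-- the ultrafilter -/
noncomputable abbrev U : Filter ℕ := (Filter.hyperfilter ℕ : Filter ℕ)

theorem U_le : U ≤ atTop := by
  have h := Filter.hyperfilter_le_cofinite (α := ℕ)
  rwa [Nat.cofinite_eq_atTop] at h

theorem inv_tend : Tendsto (fun i : ℕ => 1 / ((i : ℝ) + 1)) U (𝓝 0) :=
  (tendsto_one_div_add_atTop_nhds_zero_nat (𝕜 := ℝ)).mono_left U_le

theorem lim_exists {k : ℕ} {R : ℝ} (m : ℕ → Fin k → ℝ) (h : ∀ i j, |m i j| ≤ R) :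
    ∃ L : Fin k → ℝ, Tendsto m U (𝓝 L) := by
  have hK : IsCompact (Set.pi Set.univ fun _ : Fin k => Set.Icc (-R) R) :=
    isCompact_univ_pi fun _ => isCompact_Icc
  have h1 : ((Filter.hyperfilter ℕ).map m : Filter (Fin k → ℝ)) ≤
      𝓟 (Set.pi Set.univ fun _ : Fin k => Set.Icc (-R) R) := by
    rw [le_principal_iff]
    exact Filter.mem_map.2 (Filter.univ_mem' fun i => by
      intro j _
      exact abs_le.1 (h i j))
  obtain ⟨L, -, hL⟩ := hK.ultrafilter_le_nhds _ h1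
  exact ⟨L, hL⟩

theorem approx_lim {k : ℕ} {a b : ℕ → Fin k → ℝ} {L : Fin k → ℝ} (ha : Tendsto a U (𝓝 L))
    (hab : ∀ i j, |a i j - b i j| ≤ 1 / ((i : ℝ) + 1)) : Tendsto b U (𝓝 L) := by
  rw [tendsto_pi_nhds] at ha ⊢
  intro j
  have h1 : Tendsto (fun i => a i j - b i j) U (𝓝 0) :=
    squeeze_zero_norm (fun i => by simpa [Real.norm_eq_abs] using hab i j) inv_tend
  have h2 := (ha j).sub h1
  simpa using h2

/-- shapes of the ultraproduct -/
def Mh {X : Type u} {k : ℕ} (M : ℚ → X → Set (Fin k → ℝ)) (v : ℚ) (x : ℕ → X) :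
    Set (Fin k → ℝ) :=
  {L | ∃ m : ℕ → Fin k → ℝ, (∀ i, m i ∈ M v (x i)) ∧ Tendsto m U (𝓝 L)}

section

variable {X : Type u} {k : ℕ} {R : ℝ} {M : ℚ → X → Set (Fin k → ℝ)} {le : X → X → Prop}

theorem SS.nonempty (h : SS X k R M le) {v : ℚ} (hv : 0 ≤ v) (hv1 : v < 1) (x : X) :
    (M v x).Nonempty := by
  rcases hv.eq_or_lt with h0 | h0
  · rw [← h0]; exact h.ne x
  · obtain ⟨y, hy⟩ := h.lower v h0 hv1 x 1 one_pos
    obtain ⟨m, hm⟩ := h.ne y
    obtain ⟨m', hm', -⟩ := hy m hm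
    exact ⟨m', hm'⟩

theorem SS.boxh (h : SS X k R M le) {v : ℚ} (hv : 0 ≤ v) (hv1 : v < 1) (x : ℕ → X)
    {m : Fin k → ℝ} (hm : m ∈ Mh M v x) (j : Fin k) : |m j| ≤ R := by
  obtain ⟨a, ha, hl⟩ := hm
  rw [tendsto_pi_nhds] at hl
  exact le_of_tendsto (hl j).abs (Filter.Eventually.of_forall fun i => h.box v hv hv1 _ _ (ha i) j)

theorem SS.lowerh (h : SS X k R M le) {v : ℚ} (hv : 0 < v) (hv1 : v < 1) (x : ℕ → X) :
    ∃ y : ℕ → X, Mh M 0 y ⊆ Mh M v x := by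
  choose y hy using fun i : ℕ => h.lower v hv hv1 (x i) (1 / ((i : ℝ) + 1)) (by positivity)
  refine ⟨y, ?_⟩
  rintro L ⟨a, ha, hl⟩
  choose b hb hab using fun i => hy i (a i) (ha i)
  exact ⟨b, hb, approx_lim hl hab⟩

theorem SS.superh (h : SS X k R M le) {v : ℚ} (hv : 0 < v) (hv1 : v < 1) (x : ℕ → X)
    {m' : Fin k → ℝ} (hm' : m' ∈ Mh M v x) :
    ∃ z : ℕ → X, ∀ m'' ∈ Mh M 0 z,
      (fun j => (1 - (v : ℝ)) * m' j + (v : ℝ) * m'' j) ∈ Mh M 0 x := by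
  obtain ⟨a, ha, hl⟩ := hm'
  choose z hz using fun i : ℕ =>
    h.super v hv hv1 (x i) (a i) (ha i) (1 / ((i : ℝ) + 1)) (by positivity)
  refine ⟨z, ?_⟩
  rintro m'' ⟨c, hc, hlc⟩
  choose b hb hab using fun i => hz i (c i) (hc i)
  refine ⟨b, hb, approx_lim (a := fun i j => (1 - (v : ℝ)) * a i j + (v : ℝ) * c i j) ?_ hab⟩
  rw [tendsto_pi_nhds] at hl hlc ⊢
  intro j
  exact ((hl j).const_mul _).add ((hlc j).const_mul _)

theorem SS.monoh (h : SS X k R M le) {x x' : ℕ → X} (hx : ∀ i, le (x' i) (x i)) {v : ℚ}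
    (hv : 0 ≤ v) (hv1 : v < 1) : Mh M v x' ⊆ Mh M v x := by
  rintro L ⟨a, ha, hl⟩
  choose b hb hab using fun i : ℕ =>
    h.mono (x i) (x' i) (hx i) v hv hv1 (1 / ((i : ℝ) + 1)) (by positivity) (a i) (ha i)
  exact ⟨b, hb, approx_lim hl hab⟩

end

/-- the statement without the extra information on the first coordinate. -/
def Good (k : ℕ) : Prop :=
  ∀ (X : Type u) (R : ℝ) (M : ℚ → X → Set (Fin k → ℝ)) (le : X → X → Prop), Nonempty X →
    SS X k R M le → ∃ T : Fin k → ℝ, (∀ j, |T j| ≤ R) ∧ ∀ ε : ℝ, 0 < ε → ∀ G : Finset ℚ,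
      (∀ v ∈ G, 0 ≤ v ∧ v < 1) → ∃ x, ∀ x', le x' x → ∀ v ∈ G, ∃ m ∈ M v x', ∀ j, |m j - T j| ≤ ε

theorem good_zero : Good.{u} 0 := by
  intro X R M le hX h
  refine ⟨fun j => j.elim0, fun j => j.elim0, fun ε _ G hG => ?_⟩
  obtain ⟨x⟩ := hX
  refine ⟨x, fun x' _ v hv => ?_⟩
  obtain ⟨m, hm⟩ := h.nonempty (hG v hv).1 (hG v hv).2 x'
  exact ⟨m, hm, fun j => j.elim0⟩

/-- the main step, with the information on the first coordinate. -/
theorem step {k : ℕ} (IH : Good.{u} k) (X : Type u) (R : ℝ) (M : ℚ → X → Set (Fin (k + 1) → ℝ))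
    (le : X → X → Prop) (hX : Nonempty X) (h : SS X (k + 1) R M le) :
    ∃ T : Fin (k + 1) → ℝ, (∀ j, |T j| ≤ R) ∧
      (∀ κ : ℝ, (∀ x, ∃ m ∈ M 0 x, κ ≤ m 0) → κ ≤ T 0) ∧
      ∀ ε : ℝ, 0 < ε → ∀ G : Finset ℚ, (∀ v ∈ G, 0 ≤ v ∧ v < 1) → ∃ x,
        (∀ x', le x' x → ∀ v ∈ G, ∃ m ∈ M v x', ∀ j, |m j - T j| ≤ ε) ∧
        (∀ v ∈ G, ∀ m ∈ M v x, m 0 ≤ T 0 + ε) := by
  classical
  -- the infimum of the maximal first coordinates
  set S : X → Set ℝ := fun x => (fun m : Fin (k + 1) → ℝ => m 0) '' M 0 x with hS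
  have hSb : ∀ x, BddAbove (S x) := fun x => ⟨R, by
    rintro _ ⟨m, hm, rfl⟩
    exact (le_abs_self _).trans (h.box 0 le_rfl (by norm_num) x m hm 0)⟩
  have hSn : ∀ x, (S x).Nonempty := fun x => (h.ne x).image _
  set s : X → ℝ := fun x => sSup (S x) with hs
  have hsl : ∀ x, -R ≤ s x := fun x => by
    obtain ⟨m, hm⟩ := h.ne x
    have h1 := (abs_le.1 (h.box 0 le_rfl (by norm_num) x m hm 0)).1
    exact h1.trans (le_csSup (hSb x) ⟨m, hm, rfl⟩)
  have hsb : BddBelow (Set.range s) := ⟨-R, by rintro _ ⟨x, rfl⟩; exact hsl x⟩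
  set T0 : ℝ := ⨅ x, s x with hT0
  have hT0le : ∀ x, T0 ≤ s x := fun x => ciInf_le hsb x
  -- every ultraproduct has a shape with first coordinate `≥ T0`
  have hup : ∀ x : ℕ → X, ∃ m ∈ Mh M 0 x, T0 ≤ m 0 := by
    intro x
    have h1 : ∀ i : ℕ, ∃ m ∈ M 0 (x i), T0 - 1 / ((i : ℝ) + 1) < m 0 := by
      intro i
      have h2 : T0 - 1 / ((i : ℝ) + 1) < s (x i) := by
        have := hT0le (x i)
        have : (0 : ℝ) < 1 / ((i : ℝ) + 1) := by positivity
        linarith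
      obtain ⟨_, ⟨m, hm, rfl⟩, hlt⟩ := exists_lt_of_lt_csSup (hSn (x i)) h2
      exact ⟨m, hm, hlt⟩
    choose m hm hlt using h1
    obtain ⟨L, hL⟩ := lim_exists m fun i j => h.box 0 le_rfl (by norm_num) _ _ (hm i) j
    refine ⟨L, ⟨m, hm, hL⟩, ?_⟩
    have h3 := (tendsto_pi_nhds.1 hL) 0
    have h4 : Tendsto (fun i : ℕ => T0 - 1 / ((i : ℝ) + 1)) U (𝓝 T0) := by
      simpa using (tendsto_const_nhds (x := T0)).sub inv_tend
    exact le_of_tendsto_of_tendsto h4 h3 (Filter.Eventually.of_forall fun i => (hlt i).le)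
  -- members with all first coordinates `≤ T0`
  let X1 := {x : ℕ → X // ∀ m ∈ Mh M 0 x, m 0 ≤ T0}
  have hX1 : Nonempty X1 := by
    have h1 : ∀ i : ℕ, ∃ x, s x < T0 + 1 / ((i : ℝ) + 1) := by
      intro i
      have : (0 : ℝ) < 1 / ((i : ℝ) + 1) := by positivity
      exact exists_lt_of_ciInf_lt (by linarith : (⨅ x, s x) < T0 + 1 / ((i : ℝ) + 1))
    choose x hx using h1
    refine ⟨⟨x, ?_⟩⟩
    rintro L ⟨m, hm, hL⟩
    have h3 := (tendsto_pi_nhds.1 hL) 0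
    have h4 : Tendsto (fun i : ℕ => T0 + 1 / ((i : ℝ) + 1)) U (𝓝 T0) := by
      simpa using (tendsto_const_nhds (x := T0)).add inv_tend
    exact le_of_tendsto_of_tendsto h3 h4 (Filter.Eventually.of_forall fun i =>
      (le_csSup (hSb (x i)) ⟨m i, hm i, rfl⟩).trans (hx i).le)
  -- at every level all first coordinates are `≤ T0`
  have hle : ∀ x : X1, ∀ v : ℚ, 0 ≤ v → v < 1 → ∀ m ∈ Mh M v x.1, m 0 ≤ T0 := by
    intro x v hv hv1 m hm
    rcases hv.eq_or_lt with h0 | h0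
    · rw [← h0] at hm; exact x.2 m hm
    · obtain ⟨z, hz⟩ := h.superh h0 hv1 x.1 hm
      obtain ⟨m'', hm'', hge⟩ := hup z
      have h1 := x.2 _ (hz m'' hm'')
      have hvR : (0 : ℝ) < (v : ℝ) := by exact_mod_cast h0
      have hv1R : (v : ℝ) < 1 := by exact_mod_cast hv1
      have h2 : (1 - (v : ℝ)) * m 0 ≤ (1 - (v : ℝ)) * T0 := by
        have : (v : ℝ) * T0 ≤ (v : ℝ) * m'' 0 := mul_le_mul_of_nonneg_left hge hvR.le
        have h1' : (1 - (v : ℝ)) * m 0 + (v : ℝ) * m'' 0 ≤ T0 := h1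
        linarith
      exact le_of_mul_le_mul_left h2 (by linarith)
  let M1 : ℚ → X1 → Set (Fin k → ℝ) := fun v x => {t | Fin.cons (α := fun _ => ℝ) T0 t ∈ Mh M v x.1}
  let le1 : X1 → X1 → Prop := fun x' x => ∀ i, le (x'.1 i) (x.1 i)
  have hSS : SS X1 k R M1 le1 := by
    refine ⟨?_, ?_, ?_, ?_, ?_, ?_⟩
    · intro x
      obtain ⟨m, hm, hge⟩ := hup x.1
      have he : m 0 = T0 := le_antisymm (x.2 m hm) hge
      refine ⟨Fin.tail m, ?_⟩
      show Fin.cons (α := fun _ => ℝ) T0 (Fin.tail m) ∈ Mh M 0 x.1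
      have e1 : (Fin.cons (α := fun _ => ℝ) T0 (Fin.tail m) : Fin (k + 1) → ℝ) = m := by
        funext j
        refine Fin.cases ?_ (fun i => ?_) j
        · simp [he]
        · simp [Fin.tail]
      rw [e1]
      exact hm
    · intro v hv hv1 x t ht j
      have h1 := h.boxh hv hv1 x.1 ht (Fin.succ j)
      simpa using h1
    · intro v hv hv1 x ε hε
      obtain ⟨y, hy⟩ := h.lowerh hv hv1 x.1
      refine ⟨⟨y, fun m hm => hle x v hv.le hv1 m (hy hm)⟩, ?_⟩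
      intro t ht
      exact ⟨t, hy ht, fun j => by simpa using hε.le⟩
    · intro v hv hv1 x t ht ε hε
      obtain ⟨z, hz⟩ := h.superh hv hv1 x.1 ht
      refine ⟨⟨z, ?_⟩, ?_⟩
      · intro m hm
        have h1 := x.2 _ (hz m hm)
        have hvR : (0 : ℝ) < (v : ℝ) := by exact_mod_cast hv
        have h2 : (1 - (v : ℝ)) * T0 + (v : ℝ) * m 0 ≤ T0 := by simpa using h1
        have h3 : (v : ℝ) * m 0 ≤ (v : ℝ) * T0 := by linarith
        exact le_of_mul_le_mul_left h3 hvR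
      · intro t'' ht''
        refine ⟨fun j => (1 - (v : ℝ)) * t j + (v : ℝ) * t'' j, ?_, fun j => by simpa using hε.le⟩
        have h1 := hz _ ht''
        show Fin.cons (α := fun _ => ℝ) T0 (fun j => (1 - (v : ℝ)) * t j + (v : ℝ) * t'' j) ∈
          Mh M 0 x.1
        convert h1 using 1
        funext j
        refine Fin.cases ?_ (fun i => ?_) j
        · simp only [Fin.cons_zero]; ring
        · simp only [Fin.cons_succ]
    · intro x i
      exact h.refl _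
    · intro x x' hx v hv hv1 ε hε t ht
      exact ⟨t, h.monoh hx hv hv1 ht, fun j => by simpa using hε.le⟩
  obtain ⟨T', hT'R, hT'⟩ := IH X1 R M1 le1 hX1 hSS
  refine ⟨Fin.cons T0 T', ?_, ?_, ?_⟩
  · intro j
    refine Fin.cases ?_ (fun i => ?_) j
    · obtain ⟨x⟩ := hX1
      obtain ⟨m, hm, hge⟩ := hup x.1
      have he : m 0 = T0 := le_antisymm (x.2 m hm) hge
      have := h.boxh le_rfl (by norm_num) x.1 hm 0
      rw [he] at this
      simpa using this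
    · simpa using hT'R i
  · intro κ hκ
    have : κ ≤ T0 := by
      have := hX
      refine le_ciInf fun x => ?_
      obtain ⟨m, hm, hm0⟩ := hκ x
      exact hm0.trans (le_csSup (hSb x) ⟨m, hm, rfl⟩)
    simpa using this
  · intro ε hε G hG
    obtain ⟨x, hx⟩ := hT' (ε / 2) (by positivity) G hG
    -- transfer back
    by_contra hcon
    push Not at hcon
    -- first: for `U`-most `i` all first coordinates are `≤ T0 + ε`
    have hA : ∀ v ∈ G, ∀ᶠ i in U, ∀ m ∈ M v (x.1 i), m 0 ≤ T0 + ε := by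
      intro v hv
      by_contra hn
      have hn' : ∀ᶠ i in U, ∃ m ∈ M v (x.1 i), T0 + ε < m 0 := by
        have := (Ultrafilter.eventually_not (f := Filter.hyperfilter ℕ)
          (p := fun i => ∀ m ∈ M v (x.1 i), m 0 ≤ T0 + ε)).2 hn
        filter_upwards [this] with i hi
        push Not at hi
        exact hi
      have hch : ∀ i : ℕ, ∃ m ∈ M v (x.1 i), (∃ m' ∈ M v (x.1 i), T0 + ε < m' 0) →
          T0 + ε < m 0 := by
        intro i
        by_cases hi : ∃ m' ∈ M v (x.1 i), T0 + ε < m' 0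
        · obtain ⟨m', hm', hlt⟩ := hi
          exact ⟨m', hm', fun _ => hlt⟩
        · obtain ⟨m, hm⟩ := h.nonempty (hG v hv).1 (hG v hv).2 (x.1 i)
          exact ⟨m, hm, fun h' => absurd h' hi⟩
      choose m hm hmi using hch
      obtain ⟨L, hL⟩ := lim_exists m fun i j => h.box v (hG v hv).1 (hG v hv).2 _ _ (hm i) j
      have h1 := hle x v (hG v hv).1 (hG v hv).2 L ⟨m, hm, hL⟩
      have h2 : T0 + ε ≤ L 0 := by
        refine ge_of_tendsto ((tendsto_pi_nhds.1 hL) 0) ?_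
        filter_upwards [hn'] with i hi
        exact (hmi i hi).le
      linarith
    have hA' : ∀ᶠ i in U, ∀ v ∈ G, ∀ m ∈ M v (x.1 i), m 0 ≤ T0 + ε := by
      rw [Filter.eventually_all_finset]
      exact hA
    -- choose the bad refinements
    have hB : ∀ᶠ i in U, ∃ x', le x' (x.1 i) ∧ ∃ v ∈ G, ∀ m ∈ M v x', ∃ j,
        ε < |m j - (Fin.cons (α := fun _ => ℝ) T0 T' : Fin (k + 1) → ℝ) j| := by
      filter_upwards [hA'] with i hi
      by_contra hno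
      push Not at hno
      obtain ⟨v, hv, m, hm, hlt⟩ := hcon (x.1 i) (fun x' hx' v hv => hno x' hx' v hv)
      have := hi v hv m hm
      simp only [Fin.cons_zero] at hlt
      linarith
    have hB2 : ∀ i : ℕ, ∃ x', le x' (x.1 i) ∧ ((∃ x', le x' (x.1 i) ∧ ∃ v ∈ G, ∀ m ∈ M v x', ∃ j,
        ε < |m j - (Fin.cons (α := fun _ => ℝ) T0 T' : Fin (k + 1) → ℝ) j|) →
        ∃ v ∈ G, ∀ m ∈ M v x', ∃ j,
        ε < |m j - (Fin.cons (α := fun _ => ℝ) T0 T' : Fin (k + 1) → ℝ) j|) := by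
      intro i
      by_cases hi : ∃ x', le x' (x.1 i) ∧ ∃ v ∈ G, ∀ m ∈ M v x', ∃ j,
        ε < |m j - (Fin.cons (α := fun _ => ℝ) T0 T' : Fin (k + 1) → ℝ) j|
      · obtain ⟨x', hx', hbad⟩ := hi
        exact ⟨x', hx', fun _ => hbad⟩
      · exact ⟨x.1 i, h.refl _, fun h' => absurd h' hi⟩
    choose x' hx' hbad using hB2
    have hx'1 : ∀ m ∈ Mh M 0 x', m 0 ≤ T0 := fun m hm =>
      x.2 m (h.monoh hx' le_rfl (by norm_num) hm)
    have hgood := hx ⟨x', hx'1⟩ hx'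
    have hC : ∀ v ∈ G, ∀ᶠ i in U, ∃ m ∈ M v (x' i),
        ∀ j, |m j - (Fin.cons (α := fun _ => ℝ) T0 T' : Fin (k + 1) → ℝ) j| ≤ ε := by
      intro v hv
      obtain ⟨t, ⟨m, hm, hL⟩, htj⟩ := hgood v hv
      have h1 : ∀ j, ∀ᶠ i in U, |m i j - (Fin.cons (α := fun _ => ℝ) T0 t : Fin (k + 1) → ℝ) j| ≤
          ε / 2 := by
        intro j
        have h2 := (tendsto_pi_nhds.1 hL) j
        rw [Metric.tendsto_nhds] at h2
        filter_upwards [h2 (ε / 2) (by positivity)] with i hi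
        rw [Real.dist_eq] at hi
        exact hi.le
      have h1' : ∀ᶠ i in U, ∀ j, |m i j - (Fin.cons (α := fun _ => ℝ) T0 t : Fin (k + 1) → ℝ) j| ≤
          ε / 2 := by
        rw [Filter.eventually_all]
        exact h1
      filter_upwards [h1'] with i hi
      refine ⟨m i, hm i, fun j => ?_⟩
      have h3 : |(Fin.cons (α := fun _ => ℝ) T0 t : Fin (k + 1) → ℝ) j -
          (Fin.cons (α := fun _ => ℝ) T0 T' : Fin (k + 1) → ℝ) j| ≤ ε / 2 := by
        refine Fin.cases ?_ (fun l => ?_) j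
        · simp only [Fin.cons_zero, sub_self, abs_zero]; positivity
        · simpa using htj l
      calc |m i j - (Fin.cons (α := fun _ => ℝ) T0 T' : Fin (k + 1) → ℝ) j|
          ≤ |m i j - (Fin.cons (α := fun _ => ℝ) T0 t : Fin (k + 1) → ℝ) j| +
            |(Fin.cons (α := fun _ => ℝ) T0 t : Fin (k + 1) → ℝ) j -
              (Fin.cons (α := fun _ => ℝ) T0 T' : Fin (k + 1) → ℝ) j| := abs_sub_le _ _ _
        _ ≤ ε := by linarith [hi j]
    have hC' : ∀ᶠ i in U, ∀ v ∈ G, ∃ m ∈ M v (x' i),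
        ∀ j, |m j - (Fin.cons (α := fun _ => ℝ) T0 T' : Fin (k + 1) → ℝ) j| ≤ ε := by
      rw [Filter.eventually_all_finset]
      exact hC
    obtain ⟨i, hi1, hi2⟩ := (hB.and hC').exists
    obtain ⟨v, hv, hvb⟩ := hbad i hi1
    obtain ⟨m, hm, hmj⟩ := hi2 v hv
    obtain ⟨j, hj⟩ := hvb m hm
    linarith [hmj j]

theorem good (k : ℕ) : Good.{u} k := by
  induction k with
  | zero => exact good_zero
  | succ k IH =>
    intro X R M le hX h
    obtain ⟨T, hT, -, hT2⟩ := step IH X R M le hX h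
    refine ⟨T, hT, fun ε hε G hG => ?_⟩
    obtain ⟨x, hx, -⟩ := hT2 ε hε G hG
    exact ⟨x, hx⟩

/-- **vector superadditivity.** -/
theorem SS.exists_linear {X : Type u} {k : ℕ} {R : ℝ} {M : ℚ → X → Set (Fin (k + 1) → ℝ)}
    {le : X → X → Prop} (h : SS X (k + 1) R M le) (hX : Nonempty X) :
    ∃ T : Fin (k + 1) → ℝ, (∀ j, |T j| ≤ R) ∧
      (∀ κ : ℝ, (∀ x, ∃ m ∈ M 0 x, κ ≤ m 0) → κ ≤ T 0) ∧
      ∀ ε : ℝ, 0 < ε → ∀ G : Finset ℚ, (∀ v ∈ G, 0 ≤ v ∧ v < 1) → ∃ x,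
        (∀ x', le x' x → ∀ v ∈ G, ∃ m ∈ M v x', ∀ j, |m j - T j| ≤ ε) ∧
        (∀ v ∈ G, ∀ m ∈ M v x, m 0 ≤ T 0 + ε) :=
  step (good k) X R M le hX h

end Crest.Agent.R136.Lex823
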