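import Crest.Agent.R136.Cap1_102

/-!
# R136 (S0187), plateau phase: lightlike sub-planks of a sheet, core algebra (helper989)

Two lines of one sheet in scaled tangent coordinates of a third one: `x(ζ) = p + ζ v`.  If the
positions differ by at most `ω` and the velocities differ by at most `ω` in the direction of the
kernel of the turning covector, then the velocities differ by `O(ω)` (`core1`); if moreover
`R · Δp = O(ω²)` for a reference line, then `N · Δ`, `R · Δ` are `O(ω²)` (`core2`).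
-/

set_option autoImplicit false
set_option linter.unusedVariables false

namespace Crest.Agent.R136.Lgt989

open Crest.Agent.R136.Sh605 Crest.Agent.R136.Tl102

/-- gradient of a quadratic form -/
def gv (G : QF) (x : V3) : V3 :=
  ![2 * G.yy * x 0 + G.yu * x 1 + G.yv * x 2, G.yu * x 0 + 2 * G.uu * x 1 + G.uv * x 2,
    G.yv * x 0 + G.uv * x 1 + 2 * G.vv * x 2]

theorem dt_gv (G : QF) (x y : V3) : dt (gv G x) y = G.pol x y := by
  simp only [dt, gv, QF.pol, Matrix.cons_val]; ring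

theorem gv_sub (G : QF) (x y : V3) (k : Fin 3) : gv G (fun i => x i - y i) k = gv G x k - gv G y k := by
  fin_cases k <;> simp only [gv, Matrix.cons_val, Fin.zero_eta, Fin.mk_one, Fin.reduceFinMk] <;> ring

theorem dt_le3 {x y : V3} {s t : ℝ} (hx : ∀ k, |x k| ≤ s) (hy : ∀ k, |y k| ≤ t) :
    |dt x y| ≤ 3 * (s * t) := by
  have m0 := mul_abs_le (hx 0) (hy 0)
  have m1 := mul_abs_le (hx 1) (hy 1)
  have m2 := mul_abs_le (hx 2) (hy 2)
  unfold dt
  refine (abs_add_le _ _).trans ((add_le_add ((abs_add_le _ _).trans (add_le_add m0 m1)) m2).trans ?_)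
  linarith

theorem gv_le {G : QF} (hG : G.Le 13) {x : V3} {s : ℝ} (hx : ∀ k, |x k| ≤ s) (k : Fin 3) :
    |gv G x k| ≤ 52 * s := by
  obtain ⟨g1, g2, g3, g4, g5, g6⟩ := hG
  have t2 : |(2 : ℝ)| ≤ 2 := by norm_num
  fin_cases k
  · change |2 * G.yy * x 0 + G.yu * x 1 + G.yv * x 2| ≤ 52 * s
    have m0 := mul_abs_le (mul_abs_le t2 g1) (hx 0)
    have m1 := mul_abs_le g2 (hx 1)
    have m2 := mul_abs_le g3 (hx 2)
    refine (abs_add_le _ _).trans ((add_le_add ((abs_add_le _ _).trans (add_le_add m0 m1)) m2).trans ?_)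
    linarith
  · change |G.yu * x 0 + 2 * G.uu * x 1 + G.uv * x 2| ≤ 52 * s
    have m0 := mul_abs_le g2 (hx 0)
    have m1 := mul_abs_le (mul_abs_le t2 g4) (hx 1)
    have m2 := mul_abs_le g5 (hx 2)
    refine (abs_add_le _ _).trans ((add_le_add ((abs_add_le _ _).trans (add_le_add m0 m1)) m2).trans ?_)
    linarith
  · change |G.yv * x 0 + G.uv * x 1 + 2 * G.vv * x 2| ≤ 52 * s
    have m0 := mul_abs_le g3 (hx 0)
    have m1 := mul_abs_le g5 (hx 1)
    have m2 := mul_abs_le (mul_abs_le t2 g6) (hx 2)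
    refine (abs_add_le _ _).trans ((add_le_add ((abs_add_le _ _).trans (add_le_add m0 m1)) m2).trans ?_)
    linarith

theorem pol_le {G : QF} (hG : G.Le 13) {x y : V3} {s t : ℝ} (hx : ∀ k, |x k| ≤ s)
    (hy : ∀ k, |y k| ≤ t) : |G.pol x y| ≤ 156 * (s * t) := by
  rw [← dt_gv]
  refine (dt_le3 (gv_le hG hx) hy).trans (le_of_eq ?_)
  ring

theorem ev_le {G : QF} (hG : G.Le 13) {x : V3} {s t : ℝ} (hx : ∀ k, |x k| ≤ s)
    (hy : ∀ k, |x k| ≤ t) : |G.ev x| ≤ 78 * (s * t) := by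
  have h := pol_le hG hx hy
  have e : G.pol x x = 2 * G.ev x := by simp only [QF.pol, QF.ev]; ring
  rw [e, abs_mul, abs_of_pos (by norm_num : (0 : ℝ) < 2)] at h
  linarith

/-- difference of the values on two lines -/
theorem Fq_diff (N0 γ : V3) (G : QF) (ζ : ℝ) (p v p' v' : V3) :
    Fq N0 γ G ζ (bz p' v' ζ) - Fq N0 γ G ζ (bz p v ζ) =
      Fq (fun k => N0 k + gv G p k) (fun k => γ k + gv G v k) G ζ
        (bz (fun k => p' k - p k) (fun k => v' k - v k) ζ) := by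
  simp only [Fq, dt, bz, QF.ev, gv, Matrix.cons_val]; ring

/-- the polynomial along a line -/
theorem Fq_line (N R : V3) (G : QF) (ζ : ℝ) (D V : V3) :
    Fq N R G ζ (bz D V ζ) = (dt N D + G.ev D) + ζ * (dt N V + dt R D + G.pol D V) +
      ζ ^ 2 * (dt R V + G.ev V) := by
  simp only [Fq, dt, bz, QF.ev, QF.pol]; ring

theorem coef_le {c0 c1 c2 ε : ℝ} (h : ∀ ζ : ℝ, 0 ≤ ζ → ζ ≤ 1 → |c0 + ζ * c1 + ζ ^ 2 * c2| ≤ ε) :
    |c0| ≤ ε ∧ |c1| ≤ 8 * ε ∧ |c2| ≤ 8 * ε := by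
  have h0 := h 0 le_rfl zero_le_one
  have h1 := h (1 / 2) (by norm_num) (by norm_num)
  have h2 := h 1 zero_le_one le_rfl
  rw [abs_le] at h0 h1 h2
  refine ⟨?_, ?_, ?_⟩ <;> rw [abs_le] <;> constructor <;>
    linarith [h0.1, h0.2, h1.1, h1.2, h2.1, h2.2]

/-- coefficients of the sheet in scaled tangent coordinates of the base line -/
structure Bas (N0 γ : V3) (G : QF) (g : ℝ) : Prop where
  n0 : 1 / 2 ≤ N0 0
  n0' : N0 0 ≤ 2
  n1 : N0 1 = 0
  n2 : N0 2 = 0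
  γ_le : ∀ k, |γ k| ≤ 3 / 2
  G_le : G.Le 13
  g0 : 0 < g
  g1 : g ≤ 1
  turn : g ≤ γ 1 ^ 2 + γ 2 ^ 2

/-- two lines of the sheet near the base line -/
structure Pair (N0 γ : V3) (G : QF) (μ ε : ℝ) (p v p' v' : V3) : Prop where
  hp : ∀ k, |p k| ≤ μ
  hv : ∀ k, |v k| ≤ μ
  hp' : ∀ k, |p' k| ≤ μ
  hv' : ∀ k, |v' k| ≤ μ
  val : ∀ ζ, 0 ≤ ζ → ζ ≤ 1 → |Fq N0 γ G ζ (bz p' v' ζ) - Fq N0 γ G ζ (bz p v ζ)| ≤ ε

section

variable {N0 γ : V3} {G : QF} {g μ ε ω : ℝ} {p v p' v' : V3}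

theorem Pair.coef (P : Pair N0 γ G μ ε p v p' v') :
    |dt (fun k => N0 k + gv G p k) (fun k => p' k - p k) + G.ev (fun k => p' k - p k)| ≤ ε ∧
    |dt (fun k => N0 k + gv G p k) (fun k => v' k - v k) +
      dt (fun k => γ k + gv G v k) (fun k => p' k - p k) +
      G.pol (fun k => p' k - p k) (fun k => v' k - v k)| ≤ 8 * ε ∧
    |dt (fun k => γ k + gv G v k) (fun k => v' k - v k) + G.ev (fun k => v' k - v k)| ≤ 8 * ε := by
  apply coef_le
  intro ζ h0 h1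
  rw [← Fq_line, ← Fq_diff]
  exact P.val ζ h0 h1

/-- **velocity control** -/
theorem core1 (B : Bas N0 γ G g) (hμ0 : 0 ≤ μ) (hμ : 5304 * μ ≤ g) (P : Pair N0 γ G μ ε p v p' v')
    (hε : 8 * ε ≤ ω) (hd1 : |p' 1 - p 1| ≤ ω) (hd2 : |p' 2 - p 2| ≤ ω)
    (hc : |-γ 2 * (v' 1 - v 1) + γ 1 * (v' 2 - v 2)| ≤ ω) :
    (∀ k, |p' k - p k| ≤ ω) ∧ ∀ k, |v' k - v k| ≤ 188 * ω / g := by
  obtain ⟨k0, k1, k2⟩ := P.coef
  have g0 := B.g0
  have g1 := B.g1
  have hω : 0 ≤ ω := (abs_nonneg _).trans hd1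
  have hμ1 : μ ≤ 1 / 5304 := by linarith
  set D : V3 := fun k => p' k - p k with hD
  set V : V3 := fun k => v' k - v k with hV
  have D1 : |D 1| ≤ ω := hd1
  have D2 : |D 2| ≤ ω := hd2
  have Dm : ∀ k, |D k| ≤ 2 * μ := by
    intro k
    have := abs_sub (p' k) (p k)
    have h1 := P.hp k
    have h2 := P.hp' k
    change |p' k - p k| ≤ _
    linarith
  have Vm : ∀ k, |V k| ≤ 2 * μ := by
    intro k
    have := abs_sub (v' k) (v k)
    have h1 := P.hv k
    have h2 := P.hv' k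
    change |v' k - v k| ≤ _
    linarith
  have gp := gv_le B.G_le P.hp
  have gvv := gv_le B.G_le P.hv
  -- position
  have D0 : |D 0| ≤ ω := by
    have hm : ∀ k, |D k| ≤ |D 0| + ω := by
      intro k
      fin_cases k
      · change |D 0| ≤ |D 0| + ω
        linarith
      · change |D 1| ≤ |D 0| + ω
        linarith [abs_nonneg (D 0)]
      · change |D 2| ≤ |D 0| + ω
        linarith [abs_nonneg (D 0)]
    have e1 := ev_le B.G_le Dm hm
    have e2 := dt_le3 gp hm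
    have e3 : N0 0 * D 0 = (dt (fun k => N0 k + gv G p k) D + G.ev D) - dt (gv G p) D - G.ev D := by
      simp only [dt, B.n1, B.n2]; ring
    have e4 : |N0 0 * D 0| ≤ ε + 3 * (52 * μ * (|D 0| + ω)) + 78 * (2 * μ * (|D 0| + ω)) := by
      rw [e3]
      refine (abs_sub _ _).trans (add_le_add ((abs_sub _ _).trans (add_le_add k0 e2)) e1)
    rw [abs_mul, abs_of_pos (by linarith [B.n0] : 0 < N0 0)] at e4
    have e5 : 1 / 2 * |D 0| ≤ N0 0 * |D 0| := mul_le_mul_of_nonneg_right B.n0 (abs_nonneg _)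
    have e6 : 312 * (μ * (|D 0| + ω)) ≤ 312 * (1 / 5304 * (|D 0| + ω)) :=
      mul_le_mul_of_nonneg_left (mul_le_mul_of_nonneg_right hμ1 (by positivity)) (by norm_num)
    linarith [abs_nonneg (D 0)]
  have Dk : ∀ k, |D k| ≤ ω := by
    intro k
    fin_cases k
    · exact D0
    · exact D1
    · exact D2
  refine ⟨Dk, ?_⟩
  -- velocity
  set n := |V 0| + |V 1| + |V 2| with hn
  have hn0 : 0 ≤ n := by positivity
  have Vn : ∀ k, |V k| ≤ n := by
    intro k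
    have a0 := abs_nonneg (V 0)
    have a1 := abs_nonneg (V 1)
    have a2 := abs_nonneg (V 2)
    fin_cases k
    · change |V 0| ≤ n
      linarith
    · change |V 1| ≤ n
      linarith
    · change |V 2| ≤ n
      linarith
  have R_le : ∀ k, |γ k + gv G v k| ≤ 2 := by
    intro k
    have h1 := abs_add_le (γ k) (gv G v k)
    have h2 := B.γ_le k
    have h3 := gvv k
    linarith
  have f1 : |dt (fun k => γ k + gv G v k) D| ≤ 3 * (2 * ω) := dt_le3 R_le Dk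
  have f2 : |G.pol D V| ≤ 156 * (ω * (2 * μ)) := pol_le B.G_le Dk Vm
  have f3 : |dt (gv G p) V| ≤ 3 * (52 * μ * n) := dt_le3 gp Vn
  have f4 : |dt (gv G v) V| ≤ 3 * (52 * μ * n) := dt_le3 gvv Vn
  have f5 : |G.ev V| ≤ 78 * (2 * μ * n) := ev_le B.G_le Vm Vn
  have hωμ : ω * μ ≤ ω * (1 / 5304) := mul_le_mul_of_nonneg_left hμ1 hω
  -- V 0
  have v0 : |V 0| ≤ 16 * ω + 312 * (μ * n) := by
    have e3 : N0 0 * V 0 = (dt (fun k => N0 k + gv G p k) V + dt (fun k => γ k + gv G v k) D +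
        G.pol D V) - dt (fun k => γ k + gv G v k) D - G.pol D V - dt (gv G p) V := by
      simp only [dt, B.n1, B.n2]; ring
    have e4 : |N0 0 * V 0| ≤ 8 * ε + 3 * (2 * ω) + 156 * (ω * (2 * μ)) + 3 * (52 * μ * n) := by
      rw [e3]
      exact (abs_sub _ _).trans (add_le_add ((abs_sub _ _).trans (add_le_add
        ((abs_sub _ _).trans (add_le_add k1 f1)) f2)) f3)
    rw [abs_mul, abs_of_pos (by linarith [B.n0] : 0 < N0 0)] at e4
    have e5 : 1 / 2 * |V 0| ≤ N0 0 * |V 0| := mul_le_mul_of_nonneg_right B.n0 (abs_nonneg _)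
    linarith
  -- the turning covector
  have t1 : |γ 1 * V 1 + γ 2 * V 2| ≤ 25 * ω + 780 * (μ * n) := by
    have e3 : γ 1 * V 1 + γ 2 * V 2 = (dt (fun k => γ k + gv G v k) V + G.ev V) - dt (gv G v) V -
        G.ev V - γ 0 * V 0 := by
      simp only [dt]; ring
    have e5 : |γ 0 * V 0| ≤ 3 / 2 * (16 * ω + 312 * (μ * n)) := mul_abs_le (B.γ_le 0) v0
    rw [e3]
    refine ((abs_sub _ _).trans (add_le_add ((abs_sub _ _).trans (add_le_add
        ((abs_sub _ _).trans (add_le_add k2 f4)) f5)) e5)).trans ?_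
    linarith
  have t2 : |-γ 2 * V 1 + γ 1 * V 2| ≤ ω := hc
  have hμn : 0 ≤ μ * n := mul_nonneg hμ0 hn0
  have u1 : g * |V 1| ≤ 39 * ω + 1170 * (μ * n) := by
    have e : (γ 1 ^ 2 + γ 2 ^ 2) * V 1 = γ 1 * (γ 1 * V 1 + γ 2 * V 2) -
        γ 2 * (-γ 2 * V 1 + γ 1 * V 2) := by ring
    have h1 := mul_abs_le (B.γ_le 1) t1
    have h2 := mul_abs_le (B.γ_le 2) t2
    have h3 : |(γ 1 ^ 2 + γ 2 ^ 2) * V 1| ≤ 3 / 2 * (25 * ω + 780 * (μ * n)) + 3 / 2 * ω := by
      rw [e]; exact (abs_sub _ _).trans (add_le_add h1 h2)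
    rw [abs_mul, abs_of_nonneg (by positivity : 0 ≤ γ 1 ^ 2 + γ 2 ^ 2)] at h3
    have h4 := mul_le_mul_of_nonneg_right B.turn (abs_nonneg (V 1))
    linarith
  have u2 : g * |V 2| ≤ 39 * ω + 1170 * (μ * n) := by
    have e : (γ 1 ^ 2 + γ 2 ^ 2) * V 2 = γ 2 * (γ 1 * V 1 + γ 2 * V 2) +
        γ 1 * (-γ 2 * V 1 + γ 1 * V 2) := by ring
    have h1 := mul_abs_le (B.γ_le 2) t1
    have h2 := mul_abs_le (B.γ_le 1) t2
    have h3 : |(γ 1 ^ 2 + γ 2 ^ 2) * V 2| ≤ 3 / 2 * (25 * ω + 780 * (μ * n)) + 3 / 2 * ω := by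
      rw [e]; exact (abs_add_le _ _).trans (add_le_add h1 h2)
    rw [abs_mul, abs_of_nonneg (by positivity : 0 ≤ γ 1 ^ 2 + γ 2 ^ 2)] at h3
    have h4 := mul_le_mul_of_nonneg_right B.turn (abs_nonneg (V 2))
    linarith
  have u0 : g * |V 0| ≤ 16 * ω + 312 * (μ * n) := by
    have : g * |V 0| ≤ 1 * |V 0| := mul_le_mul_of_nonneg_right g1 (abs_nonneg _)
    linarith
  have hgn : g * n ≤ 94 * ω + 2652 * (μ * n) := by
    have : g * n = g * |V 0| + g * |V 1| + g * |V 2| := by rw [hn]; ring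
    linarith
  have h6 : 5304 * (μ * n) ≤ g * n := by
    have := mul_le_mul_of_nonneg_right hμ hn0
    linarith
  have h7 : n ≤ 188 * ω / g := by
    rw [le_div_iff₀ g0]; linarith
  intro k
  exact (Vn k).trans h7

/-- **second order control** -/
theorem core2 (B : Bas N0 γ G g) (hμ0 : 0 ≤ μ) (hμ : 5304 * μ ≤ g) (P : Pair N0 γ G μ ε p v p' v')
    (hω : 0 ≤ ω) (hε : 8 * ε ≤ ω ^ 2) (hD : ∀ k, |p' k - p k| ≤ ω)
    (hV : ∀ k, |v' k - v k| ≤ 188 * ω / g) {v1 : V3} (hv1 : ∀ k, |v k - v1 k| ≤ 188 * ω / g)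
    (hlab : |dt (fun k => γ k + gv G v1 k) (fun k => p' k - p k)| ≤ ω ^ 2) :
    ∀ ζ, 0 ≤ ζ → ζ ≤ 1 →
      |dt (fun k => N0 k + gv G p k) (bz (fun k => p' k - p k) (fun k => v' k - v k) ζ)| ≤
          60000 * ω ^ 2 / g ∧
      |dt (fun k => γ k + gv G v k) (bz (fun k => p' k - p k) (fun k => v' k - v k) ζ)| ≤
          2800000 * ω ^ 2 / g ^ 2 := by
  obtain ⟨k0, k1, k2⟩ := P.coef
  have g0 := B.g0
  have g1 := B.g1
  set D : V3 := fun k => p' k - p k with hDdef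
  set V : V3 := fun k => v' k - v k with hVdef
  have hω2 : 0 ≤ ω ^ 2 := sq_nonneg _
  set m := 188 * ω / g with hm
  have a1 : |dt (fun k => γ k + gv G v k) D| ≤ ω ^ 2 + 156 * (m * ω) := by
    have e : dt (fun k => γ k + gv G v k) D = dt (fun k => γ k + gv G v1 k) D +
        G.pol (fun k => v k - v1 k) D := by
      rw [← dt_gv]
      simp only [dt, gv_sub]; ring
    rw [e]
    exact (abs_add_le _ _).trans (add_le_add hlab (pol_le B.G_le hv1 hD))
  have a2 : |dt (fun k => N0 k + gv G p k) D| ≤ ε + 78 * (ω * ω) := by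
    have e : dt (fun k => N0 k + gv G p k) D =
        (dt (fun k => N0 k + gv G p k) D + G.ev D) - G.ev D := by ring
    rw [e]
    exact (abs_sub _ _).trans (add_le_add k0 (ev_le B.G_le hD hD))
  have a3 : |dt (fun k => N0 k + gv G p k) V| ≤ 8 * ε + (ω ^ 2 + 156 * (m * ω)) +
      156 * (ω * m) := by
    have e : dt (fun k => N0 k + gv G p k) V = (dt (fun k => N0 k + gv G p k) V +
        dt (fun k => γ k + gv G v k) D + G.pol D V) - dt (fun k => γ k + gv G v k) D -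
        G.pol D V := by ring
    rw [e]
    exact (abs_sub _ _).trans (add_le_add ((abs_sub _ _).trans (add_le_add k1 a1))
      (pol_le B.G_le hD hV))
  have a4 : |dt (fun k => γ k + gv G v k) V| ≤ 8 * ε + 78 * (m * m) := by
    have e : dt (fun k => γ k + gv G v k) V =
        (dt (fun k => γ k + gv G v k) V + G.ev V) - G.ev V := by ring
    rw [e]
    exact (abs_sub _ _).trans (add_le_add k2 (ev_le B.G_le hV hV))
  have hg' : 1 ≤ 1 / g := by rw [le_div_iff₀ g0]; linarith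
  have m1 : m * ω = 188 * (ω ^ 2 / g) := by rw [hm]; ring
  have m2 : m * m = 35344 * (ω ^ 2 / g ^ 2) := by rw [hm]; field_simp; ring
  have b1 : ω ^ 2 ≤ ω ^ 2 / g := by
    rw [le_div_iff₀ g0]
    calc ω ^ 2 * g ≤ ω ^ 2 * 1 := mul_le_mul_of_nonneg_left g1 hω2
      _ = ω ^ 2 := mul_one _
  have b2 : ω ^ 2 / g ≤ ω ^ 2 / g ^ 2 := by
    rw [div_le_div_iff₀ g0 (by positivity)]
    have : g ^ 2 ≤ g := by nlinarith
    exact mul_le_mul_of_nonneg_left this hω2
  have hε0 : 8 * ε ≤ ω ^ 2 := hε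
  have hε1 : 0 ≤ ε := (abs_nonneg _).trans k0
  intro ζ h0 h1
  have lin : ∀ N : V3, dt N (bz D V ζ) = dt N D + ζ * dt N V := by
    intro N; simp only [dt, bz]; ring
  have zl : ∀ x : ℝ, |ζ * x| ≤ |x| := by
    intro x
    rw [abs_mul, abs_of_nonneg h0]
    exact mul_le_of_le_one_left (abs_nonneg _) h1
  constructor
  · rw [lin]
    refine (abs_add_le _ _).trans ?_
    have h3 := zl (dt (fun k => N0 k + gv G p k) V)
    have e1 : ω * m = m * ω := mul_comm _ _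
    have e2 : 60000 * ω ^ 2 / g = 60000 * (ω ^ 2 / g) := by ring
    rw [e2]
    rw [e1, m1] at a3
    have e3 : ω * ω = ω ^ 2 := by ring
    rw [e3] at a2
    linarith
  · rw [lin]
    refine (abs_add_le _ _).trans ?_
    have h3 := zl (dt (fun k => γ k + gv G v k) V)
    have e2 : 2800000 * ω ^ 2 / g ^ 2 = 2800000 * (ω ^ 2 / g ^ 2) := by ring
    rw [e2]
    rw [m1] at a1
    rw [m2] at a4
    linarith

end

end Crest.Agent.R136.Lgt989
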