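import Crest.Agent.R136.Sh7_605

/-!
# R136 (S0187): test sheets of a sheet of class C* (helper605)
-/

set_option autoImplicit false
set_option linter.unusedVariables false

namespace Crest.Agent.R136.Sh605

open Finset

/-- frame adapted to a gradient `(G0, G1, G2)` (coordinates in the frame `e`): `f 0` = direction of
the gradient, `f 1` = tangent vector in the plane of `e 0, e 1`. -/
noncomputable def adF (e : Fin 3 → V3) (G0 G1 G2 m m1 : ℝ) : Fin 3 → V3 :=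
  ![(1 / m) • (G0 • e 0 + G1 • e 1 + G2 • e 2), (1 / m1) • ((-G1) • e 0 + G0 • e 1),
    (1 / (m * m1)) • ((-(G0 * G2)) • e 0 + (-(G1 * G2)) • e 1 + (m1 ^ 2) • e 2)]

section

variable {e : Fin 3 → V3} {G0 G1 G2 m m1 : ℝ}

theorem adF_zero (u : V3) : dt (adF e G0 G1 G2 m m1 0) u =
    (1 / m) * (G0 * dt (e 0) u + G1 * dt (e 1) u + G2 * dt (e 2) u) := by
  change dt ((1 / m) • (G0 • e 0 + G1 • e 1 + G2 • e 2)) u = _
  simp only [smul_dt, add_dt]

theorem adF_one (u : V3) : dt (adF e G0 G1 G2 m m1 1) u =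
    (1 / m1) * (-G1 * dt (e 0) u + G0 * dt (e 1) u) := by
  change dt ((1 / m1) • ((-G1) • e 0 + G0 • e 1)) u = _
  simp only [smul_dt, add_dt]

theorem adF_two (u : V3) : dt (adF e G0 G1 G2 m m1 2) u =
    (1 / (m * m1)) * (-(G0 * G2) * dt (e 0) u + -(G1 * G2) * dt (e 1) u +
      m1 ^ 2 * dt (e 2) u) := by
  change dt ((1 / (m * m1)) • ((-(G0 * G2)) • e 0 + (-(G1 * G2)) • e 1 + (m1 ^ 2) • e 2)) u = _
  simp only [smul_dt, add_dt]

/-- coordinates of the adapted frame in the frame `e` -/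
theorem dt_adF (he : Ortho e) (i : Fin 3) :
    dt (e i) (adF e G0 G1 G2 m m1 0) = (1 / m) * (![G0, G1, G2] i) ∧
    dt (e i) (adF e G0 G1 G2 m m1 1) = (1 / m1) * (![-G1, G0, 0] i) ∧
    dt (e i) (adF e G0 G1 G2 m m1 2) = (1 / (m * m1)) * (![-(G0 * G2), -(G1 * G2), m1 ^ 2] i) := by
  have h0 := he 0 i
  have h1 := he 1 i
  have h2 := he 2 i
  rw [dt_comm (e i), dt_comm (e i), dt_comm (e i), adF_zero, adF_one, adF_two, h0, h1, h2]
  fin_cases i <;> simp

theorem adF_ortho (he : Ortho e) (hm : 0 < m) (hm1 : 0 < m1)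
    (hmm : m ^ 2 = G0 ^ 2 + G1 ^ 2 + G2 ^ 2) (hmm1 : m1 ^ 2 = G0 ^ 2 + G1 ^ 2) :
    Ortho (adF e G0 G1 G2 m m1) := by
  have k0 := fun i => (dt_adF (G0 := G0) (G1 := G1) (G2 := G2) (m := m) (m1 := m1) he i).1
  have k1 := fun i => (dt_adF (G0 := G0) (G1 := G1) (G2 := G2) (m := m) (m1 := m1) he i).2.1
  have k2 := fun i => (dt_adF (G0 := G0) (G1 := G1) (G2 := G2) (m := m) (m1 := m1) he i).2.2
  have s1 : m ^ 2 = m1 ^ 2 + G2 ^ 2 := by rw [hmm, hmm1]
  have p00 : dt (adF e G0 G1 G2 m m1 0) (adF e G0 G1 G2 m m1 0) = 1 := by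
    rw [adF_zero, k0, k0, k0]
    simp only [Matrix.cons_val_zero, Matrix.cons_val_one, Matrix.cons_val]
    field_simp
    linarith
  have p11 : dt (adF e G0 G1 G2 m m1 1) (adF e G0 G1 G2 m m1 1) = 1 := by
    rw [adF_one, k1, k1]
    simp only [Matrix.cons_val_zero, Matrix.cons_val_one, Matrix.cons_val]
    field_simp
    linarith
  have p22 : dt (adF e G0 G1 G2 m m1 2) (adF e G0 G1 G2 m m1 2) = 1 := by
    rw [adF_two, k2, k2, k2]
    simp only [Matrix.cons_val_zero, Matrix.cons_val_one, Matrix.cons_val]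
    field_simp
    have : G2 ^ 2 * (G0 ^ 2 + G1 ^ 2) + m1 ^ 4 = m1 ^ 2 * m ^ 2 := by
      rw [← hmm1, s1]; ring
    linarith
  have p01 : dt (adF e G0 G1 G2 m m1 0) (adF e G0 G1 G2 m m1 1) = 0 := by
    rw [adF_zero, k1, k1, k1]
    simp only [Matrix.cons_val_zero, Matrix.cons_val_one, Matrix.cons_val]
    ring
  have p02 : dt (adF e G0 G1 G2 m m1 0) (adF e G0 G1 G2 m m1 2) = 0 := by
    rw [adF_zero, k2, k2, k2]
    simp only [Matrix.cons_val_zero, Matrix.cons_val_one, Matrix.cons_val]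
    have : G0 * (1 / (m * m1) * -(G0 * G2)) + G1 * (1 / (m * m1) * -(G1 * G2)) +
        G2 * (1 / (m * m1) * m1 ^ 2) = 1 / (m * m1) * G2 * (m1 ^ 2 - (G0 ^ 2 + G1 ^ 2)) := by ring
    rw [this, hmm1]
    ring
  have p12 : dt (adF e G0 G1 G2 m m1 1) (adF e G0 G1 G2 m m1 2) = 0 := by
    rw [adF_one, k2, k2]
    simp only [Matrix.cons_val_zero, Matrix.cons_val_one, Matrix.cons_val]
    ring
  intro i j
  fin_cases i <;> fin_cases j
  · exact p00
  · exact p01
  · exact p02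
  · change dt (adF e G0 G1 G2 m m1 1) (adF e G0 G1 G2 m m1 0) = 0
    rw [dt_comm]; exact p01
  · exact p11
  · exact p12
  · change dt (adF e G0 G1 G2 m m1 2) (adF e G0 G1 G2 m m1 0) = 0
    rw [dt_comm]; exact p02
  · change dt (adF e G0 G1 G2 m m1 2) (adF e G0 G1 G2 m m1 1) = 0
    rw [dt_comm]; exact p12
  · exact p22

end

/-- coordinates in the frame `e` from the coordinates in the rotated frame -/
theorem dt_of_rot {e : Fin 3 → V3} {α β : ℝ} (h : α ^ 2 + β ^ 2 = 1) (u : V3) :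
    dt (e 1) u = α * dt (rot e α β 1) u - β * dt (rot e α β 2) u ∧
    dt (e 2) u = β * dt (rot e α β 1) u + α * dt (rot e α β 2) u := by
  simp only [rot_one, rot_two, add_dt, smul_dt]
  constructor
  · linear_combination (-dt (e 1) u) * h
  · linear_combination (-dt (e 2) u) * h

/-- vectors of a box of the adapted frame, in the frame `e` -/
theorem box_bd {e : Fin 3 → V3} (he : Ortho e) {α β G0 G1 G2 m m1 b1 b2 : ℝ}
    (h : α ^ 2 + β ^ 2 = 1) (hG0 : 0 < G0) (hm : 0 < m) (hm1 : 0 < m1)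
    (hmm : m ^ 2 = G0 ^ 2 + G1 ^ 2 + G2 ^ 2) (hmm1 : m1 ^ 2 = G0 ^ 2 + G1 ^ 2) {u : V3}
    (h0 : |dt (adF (rot e α β) G0 G1 G2 m m1 0) u| ≤ b2)
    (h1 : |dt (adF (rot e α β) G0 G1 G2 m m1 1) u| ≤ b1)
    (h2 : |dt (adF (rot e α β) G0 G1 G2 m m1 2) u| ≤ b2) :
    |dt (e 0) u| ≤ 2 * b2 + b1 * |G1| / m1 ∧ |dt (e 1) u| ≤ b1 + 4 * b2 ∧
      |dt (e 2) u| ≤ |β| * b1 + 4 * b2 := by
  set E := rot e α β with hE
  have hEo : Ortho E := rot_ortho he h
  set f := adF E G0 G1 G2 m m1 with hf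
  have hfo : Ortho f := adF_ortho hEo hm hm1 hmm hmm1
  have hb2 : 0 ≤ b2 := (abs_nonneg _).trans h0
  have hb1 : 0 ≤ b1 := (abs_nonneg _).trans h1
  have hu : ∀ v : V3, dt v u = dt (f 0) u * dt v (f 0) + dt (f 1) u * dt v (f 1) +
      dt (f 2) u * dt v (f 2) := by
    intro v
    have h3 := hfo.expand u
    have e1 : dt v u = v 0 * u 0 + v 1 * u 1 + v 2 * u 2 := rfl
    rw [e1, h3 0, h3 1, h3 2]
    simp only [dt]
    ring
  have hα1 : |α| ≤ 1 := abs_le_one_iff_mul_self_le_one.2 (by nlinarith [sq_nonneg β])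
  have hβ1 : |β| ≤ 1 := abs_le_one_iff_mul_self_le_one.2 (by nlinarith [sq_nonneg α])
  have hle : ∀ v : V3, |dt v u| ≤ b2 * |dt v (f 0)| + b1 * |dt v (f 1)| + b2 * |dt v (f 2)| := by
    intro v
    rw [hu v]
    refine (abs_add_le _ _).trans ?_
    gcongr
    · refine (abs_add_le _ _).trans ?_
      rw [abs_mul, abs_mul]
      gcongr
    · rw [abs_mul]
      gcongr
  have hone : ∀ i k, |dt (E i) (f k)| ≤ 1 := by
    intro i k
    have e1 := hfo.expand (E i) 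
    have e2 : dt (E i) (E i) = 1 := by simpa using hEo i i
    have e3 : dt (E i) (E i) = dt (f 0) (E i) ^ 2 + dt (f 1) (E i) ^ 2 + dt (f 2) (E i) ^ 2 := by
      have e4 : dt (E i) (E i) = E i 0 * E i 0 + E i 1 * E i 1 + E i 2 * E i 2 := rfl
      have e5 : dt (E i) (E i) = dt (f 0) (E i) * dt (E i) (f 0) + dt (f 1) (E i) * dt (E i) (f 1)
          + dt (f 2) (E i) * dt (E i) (f 2) := by
        have a0 := e1 0
        have a1 := e1 1
        have a2 := e1 2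
        calc dt (E i) (E i) = E i 0 * E i 0 + E i 1 * E i 1 + E i 2 * E i 2 := rfl
          _ = E i 0 * (dt (f 0) (E i) * f 0 0 + dt (f 1) (E i) * f 1 0 + dt (f 2) (E i) * f 2 0) +
              E i 1 * (dt (f 0) (E i) * f 0 1 + dt (f 1) (E i) * f 1 1 + dt (f 2) (E i) * f 2 1) +
              E i 2 * (dt (f 0) (E i) * f 0 2 + dt (f 1) (E i) * f 1 2 + dt (f 2) (E i) * f 2 2) := by
              rw [← a0, ← a1, ← a2]
          _ = _ := by
              have c0 : dt (E i) (f 0) = E i 0 * f 0 0 + E i 1 * f 0 1 + E i 2 * f 0 2 := rfl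
              have c1 : dt (E i) (f 1) = E i 0 * f 1 0 + E i 1 * f 1 1 + E i 2 * f 1 2 := rfl
              have c2 : dt (E i) (f 2) = E i 0 * f 2 0 + E i 1 * f 2 1 + E i 2 * f 2 2 := rfl
              rw [c0, c1, c2]; ring
      rw [e5, dt_comm (E i) (f 0), dt_comm (E i) (f 1), dt_comm (E i) (f 2)]; ring
    rw [dt_comm, ← sq_le_one_iff_abs_le_one]
    fin_cases k
    · change dt (f 0) (E i) ^ 2 ≤ 1
      nlinarith [sq_nonneg (dt (f 1) (E i)), sq_nonneg (dt (f 2) (E i))]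
    · change dt (f 1) (E i) ^ 2 ≤ 1
      nlinarith [sq_nonneg (dt (f 0) (E i)), sq_nonneg (dt (f 2) (E i))]
    · change dt (f 2) (E i) ^ 2 ≤ 1
      nlinarith [sq_nonneg (dt (f 1) (E i)), sq_nonneg (dt (f 0) (E i))]
  have k01 : dt (E 0) (f 1) = (1 / m1) * (-G1) := (dt_adF hEo 0).2.1
  have k21 : dt (E 2) (f 1) = 0 := by
    have := (dt_adF (G0 := G0) (G1 := G1) (G2 := G2) (m := m) (m1 := m1) hEo 2).2.1
    rw [← hf] at this
    rw [this]; simp
  have u0 : |dt (E 0) u| ≤ 2 * b2 + b1 * |G1| / m1 := by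
    refine (hle (E 0)).trans ?_
    have e1 : |dt (E 0) (f 1)| = |G1| / m1 := by
      rw [k01, abs_mul, abs_neg, abs_div, abs_one, abs_of_pos hm1]; ring
    rw [e1]
    have a0 := hone 0 0
    have a2 := hone 0 2
    have : b1 * (|G1| / m1) = b1 * |G1| / m1 := by ring
    rw [this]
    nlinarith
  have u1 : |dt (E 1) u| ≤ b1 + 2 * b2 := by
    refine (hle (E 1)).trans ?_
    have a0 := hone 1 0
    have a1 := hone 1 1
    have a2 := hone 1 2
    nlinarith
  have u2 : |dt (E 2) u| ≤ 2 * b2 := by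
    refine (hle (E 2)).trans ?_
    rw [k21, abs_zero, mul_zero]
    have a0 := hone 2 0
    have a2 := hone 2 2
    nlinarith
  obtain ⟨r1, r2⟩ := dt_of_rot (e := e) h u
  rw [← hE] at r1 r2
  refine ⟨u0, ?_, ?_⟩
  · rw [r1]
    refine (abs_sub _ _).trans ?_
    rw [abs_mul, abs_mul]
    nlinarith [abs_nonneg (dt (E 1) u), abs_nonneg (dt (E 2) u)]
  · rw [r2]
    refine (abs_add_le _ _).trans ?_
    rw [abs_mul, abs_mul]
    have a1 : |β| * |dt (E 1) u| ≤ |β| * (b1 + 2 * b2) :=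
      mul_le_mul_of_nonneg_left u1 (abs_nonneg β)
    have a2 : |β| * (2 * b2) ≤ 1 * (2 * b2) := mul_le_mul_of_nonneg_right hβ1 (by linarith)
    nlinarith [abs_nonneg (dt (E 2) u)]

end Crest.Agent.R136.Sh605
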