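import Crest.Agent.R136.Cap1_102
import Crest.Agent.R136.Sh8_605
import Crest.Agent.R136.Fl1_808

/-!
# R136 (S0187), U5 TILT, `Mid`: a small part of a sheet of small curvature extent is a plank
(helper535)

* `y_bound` : distance of the points of the sheet near the line `T` from the tangent plane at `T`.
* `pf` : frame of the plank (normal = gradient of the sheet at the beginning of the line `T`).
* `plank_of_small` : the lines of the sheet which are close to `T` over a short cell lie in a plank.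
-/

set_option autoImplicit false
set_option linter.unusedVariables false

namespace Crest.Agent.R136.Mdr535

open Crest.Agent.R136.Sh605 Crest.Agent.R136.Tl102
open Crest.Agent.R136.Fl808 (InB)

variable {e : Fin 3 → V3} {c T t : Ln4} {w : V3} {q : ℝ → V3 → ℝ} {a z0 ρ : ℝ} {b0 b1 : V3}
  {G : QF}

/-- lateral components of the gradient -/
noncomputable def gr (b0 w : V3) (k : Fin 3) : ℝ := b0 k / b0 0 * (w 0 / w k)

/-- distance (vertical) from the tangent plane -/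
noncomputable def ty (e : Fin 3 → V3) (w b0 d : V3) : ℝ :=
  dt (e 0) d + gr b0 w 1 * dt (e 1) d + gr b0 w 2 * dt (e 2) d

/-- the unsheared function is at most `3 μ kap` on the tangent plane -/
theorem Fq_flat {μ ζ u v : ℝ} (hζ : 0 ≤ ζ) (hζ' : ζ ≤ 1) (hμ : 4 * μ ≤ 1) (hu : |u| ≤ μ)
    (hv : |v| ≤ μ) :
    |Fq (shB0 b0) (shB1 b0 b1) (shG b0 G) ζ ![0, u, v]| ≤ 3 * μ * kap b0 b1 G := by
  have k1 : |shB1 b0 b1 1| ≤ kap b0 b1 G := (le_max_left _ _).trans (le_max_left _ _)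
  have k2 : |shB1 b0 b1 2| ≤ kap b0 b1 G := (le_max_right _ _).trans (le_max_left _ _)
  have k3 : |(shG b0 G).uu| ≤ kap b0 b1 G :=
    (le_max_left _ _).trans ((le_max_left _ _).trans (le_max_right _ _))
  have k4 : |(shG b0 G).uv| ≤ kap b0 b1 G :=
    (le_max_right _ _).trans ((le_max_left _ _).trans (le_max_right _ _))
  have k5 : |(shG b0 G).vv| ≤ kap b0 b1 G := (le_max_right _ _).trans (le_max_right _ _)
  have hκ := kap_nonneg b0 b1 G
  generalize kap b0 b1 G = κ at *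
  have e1 : Fq (shB0 b0) (shB1 b0 b1) (shG b0 G) ζ ![0, u, v] =
      ζ * (shB1 b0 b1 1 * u) + ζ * (shB1 b0 b1 2 * v) + (shG b0 G).uu * (u * u) +
        (shG b0 G).uv * (u * v) + (shG b0 G).vv * (v * v) := by
    simp only [Fq, dt, bz, QF.ev, shB0, Matrix.cons_val]
    ring
  rw [e1]
  have hμ0 : 0 ≤ μ := (abs_nonneg _).trans hu
  have z1 : |ζ| ≤ 1 := by rw [abs_of_nonneg hζ]; exact hζ'
  have m1 := mul_abs_le z1 (mul_abs_le k1 hu)
  have m2 := mul_abs_le z1 (mul_abs_le k2 hv)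
  have m3 := mul_abs_le k3 (mul_abs_le hu hu)
  have m4 := mul_abs_le k4 (mul_abs_le hu hv)
  have m5 := mul_abs_le k5 (mul_abs_le hv hv)
  have m6 : κ * (μ * μ) ≤ κ * (μ * (1 / 4)) := by gcongr; linarith
  have m7 : 0 ≤ κ * μ := mul_nonneg hκ hμ0
  refine (abs_add_le _ _).trans ((add_le_add ((abs_add_le _ _).trans (add_le_add
    ((abs_add_le _ _).trans (add_le_add ((abs_add_le _ _).trans (add_le_add m1 m2)) m3)) m4)) m5).trans ?_)
  linarith

/-- decomposition of a point of the box: vertical step from the tangent plane -/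
theorem pt_decomp (he : Ortho e) (hw : ∀ i, 0 < w i) (P x : V3) :
    x = (P + cmb (fr e w) (unsh b0 0 (dt (e 1) (x - P) / w 1) (dt (e 2) (x - P) / w 2))) +
      ty e w b0 (x - P) • e 0 := by
  funext i
  have h := he.expand (x - P) i
  have hw1 := (hw 1).ne'
  have hw2 := (hw 2).ne'
  simp only [Pi.add_apply, Pi.smul_apply, smul_eq_mul, cmb, fr, unsh, ty, gr, Matrix.cons_val]
  rw [Pi.sub_apply] at h
  have h' : x i = P i + (dt (e 0) (x - P) * e 0 i + dt (e 1) (x - P) * e 1 i +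
      dt (e 2) (x - P) * e 2 i) := by linarith
  rw [h']
  field_simp
  ring

/-- **distance of the points of the sheet from the tangent plane** -/
theorem y_bound (S : StP e c w q z0 ρ) (hE : IsExp q e w T z0 ρ b0 b1 G) (N : NrmC b0 b1 G)
    (hρ : 0 ≤ ρ) {ζ μ : ℝ} (hζ : 0 ≤ ζ) (hζ' : ζ ≤ 1) (hμ : 4 * μ ≤ 1) {x : V3}
    (hT : InK e c w (z0 + ρ * ζ) (T.pos (z0 + ρ * ζ)))
    (hx : InK e c w (z0 + ρ * ζ) x)
    (hTa : |q (z0 + ρ * ζ) (T.pos (z0 + ρ * ζ))| ≤ a) (hxa : |q (z0 + ρ * ζ) x| ≤ a)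
    (h1 : |dt (e 1) (x - T.pos (z0 + ρ * ζ))| ≤ μ * w 1)
    (h2 : |dt (e 2) (x - T.pos (z0 + ρ * ζ))| ≤ μ * w 2) :
    |ty e w b0 (x - T.pos (z0 + ρ * ζ))| ≤ 4 * a + 6 * μ * (w 0 * kap b0 b1 G) := by
  have hw := S.pos
  have hw' : ∀ i, 0 ≤ w i := fun i => (hw i).le
  have hz1 : z0 ≤ z0 + ρ * ζ := by nlinarith
  have hz2 : z0 + ρ * ζ ≤ z0 + ρ := by nlinarith
  obtain ⟨g1, g2, -, -, -, -, -, s1, s2⟩ := N.b1_le
  have hb0 : b0 0 ≠ 0 := by linarith
  set u := dt (e 1) (x - T.pos (z0 + ρ * ζ)) / w 1 with hu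
  set v := dt (e 2) (x - T.pos (z0 + ρ * ζ)) / w 2 with hv
  have hu' : |u| ≤ μ := by
    rw [hu, abs_div, abs_of_pos (hw 1), div_le_iff₀ (hw 1)]; exact h1
  have hv' : |v| ≤ μ := by
    rw [hv, abs_div, abs_of_pos (hw 2), div_le_iff₀ (hw 2)]; exact h2
  have hμ0 : 0 ≤ μ := (abs_nonneg _).trans hu'
  have hdec := pt_decomp (b0 := b0) S.ortho hw (T.pos (z0 + ρ * ζ)) x
  rw [← hu, ← hv] at hdec
  set τ := ty e w b0 (x - T.pos (z0 + ρ * ζ)) with hτ
  set P' := T.pos (z0 + ρ * ζ) + cmb (fr e w) (unsh b0 0 u v) with hP'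
  -- `P'` is in the doubled box
  have hPin : InK e c (dbl3 w) (z0 + ρ * ζ) P' := by
    refine inK_cmb S.ortho hw' hT fun i => ?_
    fin_cases i
    · change |0 - b0 1 / b0 0 * u - b0 2 / b0 0 * v| ≤ 1
      have m1 := mul_abs_le s1 hu'
      have m2 := mul_abs_le s2 hv'
      rw [zero_sub]
      refine (abs_sub _ _).trans ?_
      rw [abs_neg]
      linarith
    · change |u| ≤ 1
      linarith
    · change |v| ≤ 1
      linarith
  have hxin : InK e c (dbl3 w) (z0 + ρ * ζ) x := by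
    intro i
    have := hx i
    change _ ≤ 2 * w i
    have := hw' i
    linarith
  -- value at `P'`
  have hval : q (z0 + ρ * ζ) P' = q (z0 + ρ * ζ) (T.pos (z0 + ρ * ζ)) +
      w 0 * Fq (shB0 b0) (shB1 b0 b1) (shG b0 G) ζ ![0, u, v] := by
    rw [hP', hE, Fq_unsh hb0]
  have hfl := Fq_flat (b0 := b0) (b1 := b1) (G := G) hζ hζ' hμ hu' hv'
  have hP'a : |q (z0 + ρ * ζ) P'| ≤ a + w 0 * (3 * μ * kap b0 b1 G) := by
    rw [hval]
    refine (abs_add_le _ _).trans (add_le_add hTa ?_)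
    rw [abs_mul, abs_of_pos (hw 0)]
    exact mul_le_mul_of_nonneg_left hfl (hw' 0)
  have hdiff : |q (z0 + ρ * ζ) x - q (z0 + ρ * ζ) P'| ≤ 2 * a + w 0 * (3 * μ * kap b0 b1 G) :=
    (abs_sub _ _).trans (by linarith)
  have hst : |τ| / 2 ≤ |q (z0 + ρ * ζ) x - q (z0 + ρ * ζ) P'| := by
    rcases le_total 0 τ with h | h
    · have h3 := (S.st0 _ hz1 hz2 P' τ h hPin (by rw [← hdec]; exact hxin)).1
      rw [← hdec] at h3
      rw [abs_of_nonneg h]
      exact h3.trans (le_abs_self _)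
    · have e2 : P' = x + (-τ) • e 0 := by
        rw [hdec]; module
      have h3 := (S.st0 _ hz1 hz2 x (-τ) (by linarith) hxin (by rw [← e2]; exact hPin)).1
      rw [← e2] at h3
      rw [abs_of_nonpos h, abs_sub_comm]
      exact h3.trans (le_abs_self _)
  have : |τ| ≤ 2 * (2 * a + w 0 * (3 * μ * kap b0 b1 G)) := by linarith
  refine this.trans (le_of_eq ?_)
  ring

/-! ### the frame of the plank -/

/-- canonical form of the constant part `b0` of the expansion -/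
noncomputable def cb0 (q : ℝ → V3 → ℝ) (e : Fin 3 → V3) (w : V3) (T : Ln4) (z0 : ℝ) : V3 :=
  fun k => (q z0 (T.pos z0 + w k • e k) - q z0 (T.pos z0 - w k • e k)) / (2 * w 0)

theorem cb0_eq (hE : IsExp q e w T z0 ρ b0 b1 G) (hw0 : w 0 ≠ 0) : cb0 q e w T z0 = b0 := by
  funext k
  have h := fun x => hE 0 x
  simp only [mul_zero, add_zero] at h
  have e1 : ∀ s : ℝ, cmb (fr e w) (Pi.single k s) = s • (w k • e k) := by
    intro s
    funext i
    fin_cases k <;> simp [cmb, fr] <;> ring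
  have h1 := h (Pi.single k 1)
  have h2 := h (Pi.single k (-1))
  rw [e1, one_smul] at h1
  rw [e1, neg_one_smul, ← sub_eq_add_neg] at h2
  have h3 : Fq b0 b1 G 0 (Pi.single k 1) - Fq b0 b1 G 0 (Pi.single k (-1)) = 2 * b0 k := by
    simp only [Fq, dt, bz, QF.ev]
    fin_cases k <;> simp <;> ring
  unfold cb0
  rw [h1, h2, div_eq_iff (by positivity)]
  linear_combination w 0 * h3

/-- frame adapted to a gradient `(1, g1, g2)` -/
noncomputable def pf (e : Fin 3 → V3) (g1 g2 : ℝ) : Fin 3 → V3 :=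
  adF e 1 g1 g2 (Real.sqrt (1 + g1 ^ 2 + g2 ^ 2)) (Real.sqrt (1 + g1 ^ 2))

/-- **frame of the plank**: adapted to the gradient of `q` at the beginning of the line `T` -/
noncomputable def pfr (q : ℝ → V3 → ℝ) (e : Fin 3 → V3) (w : V3) (T : Ln4) (z0 : ℝ) : Fin 3 → V3 :=
  pf e (gr (cb0 q e w T z0) w 1) (gr (cb0 q e w T z0) w 2)

theorem pf_sq (g1 g2 : ℝ) : Real.sqrt (1 + g1 ^ 2 + g2 ^ 2) ^ 2 = 1 ^ 2 + g1 ^ 2 + g2 ^ 2 := by
  rw [Real.sq_sqrt (by positivity)]; ring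

theorem pf_sq1 (g1 : ℝ) : Real.sqrt (1 + g1 ^ 2) ^ 2 = 1 ^ 2 + g1 ^ 2 := by
  rw [Real.sq_sqrt (by positivity)]; ring

theorem one_le_m (g1 g2 : ℝ) : 1 ≤ Real.sqrt (1 + g1 ^ 2 + g2 ^ 2) :=
  Real.one_le_sqrt.2 (by nlinarith [sq_nonneg g1, sq_nonneg g2])

theorem one_le_m1 (g1 : ℝ) : 1 ≤ Real.sqrt (1 + g1 ^ 2) :=
  Real.one_le_sqrt.2 (by nlinarith [sq_nonneg g1])

theorem pf_ortho (he : Ortho e) (g1 g2 : ℝ) : Ortho (pf e g1 g2) :=
  adF_ortho he (lt_of_lt_of_le one_pos (one_le_m g1 g2)) (lt_of_lt_of_le one_pos (one_le_m1 g1))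
    (pf_sq g1 g2) (pf_sq1 g1)

theorem pf_zero (g1 g2 : ℝ) (d : V3) :
    |dt (pf e g1 g2 0) d| ≤ |dt (e 0) d + g1 * dt (e 1) d + g2 * dt (e 2) d| := by
  have hm := one_le_m g1 g2
  have hm0 : 0 < Real.sqrt (1 + g1 ^ 2 + g2 ^ 2) := by linarith
  unfold pf
  rw [adF_zero, abs_mul, one_mul, abs_of_pos (by positivity)]
  have : 1 / Real.sqrt (1 + g1 ^ 2 + g2 ^ 2) ≤ 1 := (div_le_one hm0).2 hm
  exact mul_le_of_le_one_left (abs_nonneg _) this

theorem pf_one (g1 g2 : ℝ) (d : V3) :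
    |dt (pf e g1 g2 1) d| ≤ |g1| * |dt (e 0) d| + |dt (e 1) d| := by
  have hm := one_le_m1 g1
  have hm0 : 0 < Real.sqrt (1 + g1 ^ 2) := by linarith
  unfold pf
  rw [adF_one, abs_mul, one_mul, abs_of_pos (by positivity)]
  have : 1 / Real.sqrt (1 + g1 ^ 2) ≤ 1 := (div_le_one hm0).2 hm
  refine (mul_le_of_le_one_left (abs_nonneg _) this).trans ?_
  refine (abs_add_le _ _).trans (le_of_eq ?_)
  rw [abs_mul, abs_neg]

theorem pf_two (g1 g2 : ℝ) (d : V3) :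
    |dt (pf e g1 g2 2) d| ≤ |g2| * |dt (e 0) d| + |g2| * |g1 * dt (e 1) d| + |dt (e 2) d| := by
  have hm := one_le_m g1 g2
  have hm1 := one_le_m1 g1
  have hmm : Real.sqrt (1 + g1 ^ 2) ≤ Real.sqrt (1 + g1 ^ 2 + g2 ^ 2) :=
    Real.sqrt_le_sqrt (by nlinarith [sq_nonneg g2])
  unfold pf
  rw [adF_two]
  generalize Real.sqrt (1 + g1 ^ 2 + g2 ^ 2) = m at *
  generalize Real.sqrt (1 + g1 ^ 2) = m1 at *
  have hp : 0 < m * m1 := by positivity
  rw [abs_mul, abs_of_pos (by positivity), one_div, ← div_eq_inv_mul, div_le_iff₀ hp]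
  have h1 : 1 ≤ m * m1 := by nlinarith
  have h2 : m1 ^ 2 ≤ m * m1 := by nlinarith
  have a0 := abs_nonneg (dt (e 2) d)
  have a1 : 0 ≤ |g2| * |dt (e 0) d| := by positivity
  have a2 : 0 ≤ |g2| * |g1 * dt (e 1) d| := by positivity
  have h3 : |-(1 * g2) * dt (e 0) d + -(g1 * g2) * dt (e 1) d + m1 ^ 2 * dt (e 2) d| ≤
      |g2| * |dt (e 0) d| + |g2| * |g1 * dt (e 1) d| + m1 ^ 2 * |dt (e 2) d| := by
    refine (abs_add_le _ _).trans (add_le_add ((abs_add_le _ _).trans (add_le_add ?_ ?_)) ?_)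
    · rw [one_mul, abs_mul, abs_neg]
    · have : -(g1 * g2) * dt (e 1) d = -(g2 * (g1 * dt (e 1) d)) := by ring
      rw [this, abs_neg, abs_mul]
    · rw [abs_mul, abs_of_nonneg (sq_nonneg m1)]
  refine h3.trans ?_
  calc |g2| * |dt (e 0) d| + |g2| * |g1 * dt (e 1) d| + m1 ^ 2 * |dt (e 2) d| ≤
      |g2| * |dt (e 0) d| * (m * m1) + |g2| * |g1 * dt (e 1) d| * (m * m1) +
        m * m1 * |dt (e 2) d| := by
        have b1 := mul_le_mul_of_nonneg_left h1 a1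
        have b2 := mul_le_mul_of_nonneg_left h1 a2
        have b3 := mul_le_mul_of_nonneg_right h2 a0
        linarith
    _ = _ := by ring

theorem gr_le (N : NrmC b0 b1 G) (hw : ∀ i, 0 < w i) :
    |gr b0 w 1| ≤ 2 * (w 0 / w 1) ∧ |gr b0 w 2| ≤ 2 * (w 0 / w 2) := by
  obtain ⟨-, -, -, -, -, -, -, s1, s2⟩ := N.b1_le
  have h0 := hw 0
  have h1 := hw 1
  have h2 := hw 2
  constructor
  · unfold gr
    rw [abs_mul, abs_of_pos (div_pos h0 h1)]
    exact mul_le_mul_of_nonneg_right s1 (by positivity)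
  · unfold gr
    rw [abs_mul, abs_of_pos (div_pos h0 h2)]
    exact mul_le_mul_of_nonneg_right s2 (by positivity)

/-- **a small part of a sheet of small extent is a plank**: the lines of the sheet which are close to
`T` over a short cell lie in a plank around `T`, with frame depending on the sheet and `T` only. -/
theorem plank_of_small (S : StP e c w q z0 ρ) (hE : IsExp q e w T z0 ρ b0 b1 G) (hρ : 0 < ρ)
    (hTs : InSheet T e c w q a z0 ρ) (hts : InSheet t e c w q a z0 ρ) {B Λ W1 W2 z1 ρ1 : ℝ}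
    (hΛ : 0 < Λ) (hz1 : z0 ≤ z1) (hz1' : z1 + ρ1 ≤ z0 + ρ)
    (hΔ : ∀ z, z1 ≤ z → z ≤ z1 + ρ1 → |dt (e 1) (t.pos z - T.pos z)| ≤ 5 * (W1 / Λ) ∧
      |dt (e 2) (t.pos z - T.pos z)| ≤ 5 * (W2 / Λ))
    (hW1 : W1 ≤ B * w 1) (hW2 : W2 ≤ B * w 2) (hB1 : 1 ≤ B) (hB : 20 * B ≤ Λ)
    (hext : B * (w 0 * kap b0 b1 G) ≤ 26 * Λ * a) (ha : a * Λ ≤ W2) (h02 : w 0 ≤ w 2)
    (h21 : w 2 ≤ w 1) (hw2W : w 2 ≤ W2) (hW21 : W2 ≤ W1) :
    InB t T (pfr q e w T z0) ![800 * a, 2000 * B * (W1 / Λ), 2000 * B * (W2 / Λ)] z1 ρ1 := by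
  have hw := S.pos
  have hw' : ∀ i, 0 ≤ w i := fun i => (hw i).le
  have h0 := hw 0
  have h1 := hw 1
  have h2 := hw 2
  have N := hE.nrmC S hρ.le fun z hz hz' => (hTs z hz hz').1
  obtain ⟨r1, r2⟩ := gr_le N hw
  have hcb := cb0_eq hE h0.ne'
  unfold pfr
  rw [hcb]
  intro z hza hzb
  have hz : z0 ≤ z := hz1.trans hza
  have hz' : z ≤ z0 + ρ := hzb.trans hz1'
  obtain ⟨d1, d2⟩ := hΔ z hza hzb
  obtain ⟨ζ, hζ, hζ0, hζ1⟩ : ∃ ζ, z0 + ρ * ζ = z ∧ 0 ≤ ζ ∧ ζ ≤ 1 := by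
    refine ⟨(z - z0) / ρ, by field_simp; ring, div_nonneg (by linarith) hρ.le, ?_⟩
    rw [div_le_one hρ]; linarith
  subst hζ
  set μ : ℝ := 5 * B / Λ with hμ
  have hμ0 : 0 ≤ μ := by rw [hμ]; positivity
  have hμ4 : 4 * μ ≤ 1 := by
    rw [hμ, ← mul_div_assoc, div_le_one hΛ]; linarith
  have m1 : |dt (e 1) (t.pos (z0 + ρ * ζ) - T.pos (z0 + ρ * ζ))| ≤ μ * w 1 := by
    refine d1.trans ?_
    rw [hμ]
    calc 5 * (W1 / Λ) ≤ 5 * (B * w 1 / Λ) := by gcongr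
      _ = 5 * B / Λ * w 1 := by ring
  have m2 : |dt (e 2) (t.pos (z0 + ρ * ζ) - T.pos (z0 + ρ * ζ))| ≤ μ * w 2 := by
    refine d2.trans ?_
    rw [hμ]
    calc 5 * (W2 / Λ) ≤ 5 * (B * w 2 / Λ) := by gcongr
      _ = 5 * B / Λ * w 2 := by ring
  have hy := y_bound S hE N hρ.le hζ0 hζ1 hμ4 (hTs _ hz hz').1 (hts _ hz hz').1 (hTs _ hz hz').2
    (hts _ hz hz').2 m1 m2
  have hy' : |ty e w b0 (t.pos (z0 + ρ * ζ) - T.pos (z0 + ρ * ζ))| ≤ 784 * a := by
    refine hy.trans ?_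
    have : 6 * μ * (w 0 * kap b0 b1 G) ≤ 780 * a := by
      rw [hμ]
      calc 6 * (5 * B / Λ) * (w 0 * kap b0 b1 G) = 30 / Λ * (B * (w 0 * kap b0 b1 G)) := by ring
        _ ≤ 30 / Λ * (26 * Λ * a) := by gcongr
        _ = 780 * a := by field_simp; ring
    linarith
  have ha0 : 0 ≤ a := (abs_nonneg _).trans (hTs _ hz hz').2
  have haW2 : a ≤ W2 / Λ := by rw [le_div_iff₀ hΛ]; exact ha
  have hW12 : W2 / Λ ≤ W1 / Λ := by gcongr
  have hw0W : w 0 / Λ ≤ W2 / Λ := by gcongr; linarith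
  set d := t.pos (z0 + ρ * ζ) - T.pos (z0 + ρ * ζ) with hd
  set g1 := gr b0 w 1 with hg1
  set g2 := gr b0 w 2 with hg2
  have hg1' : |g1| ≤ 2 := by
    refine r1.trans ?_
    have : w 0 / w 1 ≤ 1 := (div_le_one h1).2 (h02.trans h21)
    linarith
  have hg2' : |g2| ≤ 2 := by
    refine r2.trans ?_
    have : w 0 / w 2 ≤ 1 := (div_le_one h2).2 h02
    linarith
  have p1 : |g1 * dt (e 1) d| ≤ 2 * μ * w 0 := by
    rw [abs_mul]
    calc |g1| * |dt (e 1) d| ≤ 2 * (w 0 / w 1) * (μ * w 1) := by gcongr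
      _ = _ := by field_simp
  have p2 : |g2 * dt (e 2) d| ≤ 2 * μ * w 0 := by
    rw [abs_mul]
    calc |g2| * |dt (e 2) d| ≤ 2 * (w 0 / w 2) * (μ * w 2) := by gcongr
      _ = _ := by field_simp
  have p0 : |dt (e 0) d| ≤ 784 * a + 4 * μ * w 0 := by
    have : dt (e 0) d = ty e w b0 d - g1 * dt (e 1) d - g2 * dt (e 2) d := by
      unfold ty; ring
    rw [this]
    refine (abs_sub _ _).trans ?_
    have := abs_sub (ty e w b0 d) (g1 * dt (e 1) d)
    linarith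
  have q0 : 2 * μ * w 0 = 10 * B * (w 0 / Λ) := by rw [hμ]; ring
  have q1 : B * (w 0 / Λ) ≤ B * (W2 / Λ) := by gcongr
  have q2 : a ≤ B * (W2 / Λ) := by nlinarith [ha0.trans haW2]
  have q3 : B * (W2 / Λ) ≤ B * (W1 / Λ) := by gcongr
  have q4 : W1 / Λ ≤ B * (W1 / Λ) := le_mul_of_one_le_left (by linarith) hB1
  have q5 : W2 / Λ ≤ B * (W2 / Λ) := le_mul_of_one_le_left (by linarith) hB1
  intro i
  fin_cases i
  · change |dt (pf e g1 g2 0) d| ≤ 800 * a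
    refine (pf_zero g1 g2 d).trans ?_
    have : dt (e 0) d + g1 * dt (e 1) d + g2 * dt (e 2) d = ty e w b0 d := rfl
    rw [this]
    linarith
  · change |dt (pf e g1 g2 1) d| ≤ 2000 * B * (W1 / Λ)
    refine (pf_one g1 g2 d).trans ?_
    have : |g1| * |dt (e 0) d| ≤ 2 * (784 * a + 4 * μ * w 0) := by gcongr
    linarith
  · change |dt (pf e g1 g2 2) d| ≤ 2000 * B * (W2 / Λ)
    refine (pf_two g1 g2 d).trans ?_
    have : |g2| * |dt (e 0) d| ≤ 2 * (784 * a + 4 * μ * w 0) := by gcongr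
    have : |g2| * |g1 * dt (e 1) d| ≤ 2 * (2 * μ * w 0) := by gcongr
    linarith

end Crest.Agent.R136.Mdr535
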