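import Crest.Agent.R136.Nd5_565

/-!
# R136 (S0187), U5: strips of a sheet of class `C*` are contained in one sheet of class `C*` (helper565)
-/

set_option autoImplicit false
set_option linter.unusedVariables false

namespace Crest.Agent.R136.Nd565

open Finset Sh605 UB683

/-- two lines of one sheet: the steep coordinate of the difference -/
theorem y_bound {e : Fin 3 → V3} {c : Ln4} {w : V3} {q : ℝ → V3 → ℝ} {a z0 ρ r0 : ℝ} {T T1 : Ln4}
    (S : ShN e c w q a z0 ρ r0) (hr : 0 < r0) (hT : InSheet T e c w q a z0 ρ)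
    (hT1 : InSheet T1 e c w q a z0 ρ) {z : ℝ} (h0 : z0 ≤ z) (h1 : z ≤ z0 + ρ) {V : V3} {M : ℝ}
    (hV0 : |V 0| ≤ w 0) (hV1 : V 1 = dt (e 1) (T1.pos z - T.pos z))
    (hV2 : V 2 = dt (e 2) (T1.pos z - T.pos z))
    (hM : |q z (T.pos z + cmb e V) - q z (T.pos z)| ≤ M) :
    |dt (e 0) (T1.pos z - T.pos z) - V 0| ≤ 2 * (2 * a + M) := by
  have he := S.ortho
  have hw0 : 0 < w 0 := by linarith [S.a_le0, S.r0_le]
  have hw2 : 0 < w 2 := by linarith [S.w0_le]
  have hw1 : 0 < w 1 := by linarith [S.w_le]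
  have bT := hT z h0 h1
  have bT1 := hT1 z h0 h1
  set τ := dt (e 0) (T1.pos z - T.pos z) - V 0 with hτ
  have eU : crd e (T1.pos z - T.pos z) = V + τ • bas 0 := by
    funext i
    fin_cases i
    · show dt (e 0) (T1.pos z - T.pos z) = V 0 + τ * 1
      rw [hτ]; ring
    · show dt (e 1) (T1.pos z - T.pos z) = V 1 + τ * 0
      rw [hV1]; ring
    · show dt (e 2) (T1.pos z - T.pos z) = V 2 + τ * 0
      rw [hV2]; ring
  have eT1 : T1.pos z = (T.pos z + cmb e V) + τ • e 0 := by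
    have h2 : T1.pos z - T.pos z = cmb e V + τ • e 0 := by
      rw [← cmb_crd he (T1.pos z - T.pos z), eU, cmb_add, cmb_smul, cmb_bas]
    rw [add_assoc, ← h2]; abel
  have i1 : InK e c (dbl3 w) z (T1.pos z) := by
    intro i
    refine (bT1.1 i).trans ?_
    simp only [dbl3]
    have : 0 ≤ w i := (abs_nonneg _).trans (bT1.1 i)
    linarith
  have i2 : InK e c (dbl3 w) z (T.pos z + cmb e V) := by
    intro i
    have e1 : T.pos z + cmb e V - c.pos z = (T.pos z - c.pos z) + cmb e V := by abel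
    have e2 : dt (e i) (cmb e V) = V i := congrFun (crd_cmb he V) i
    rw [e1, dt_add, e2]
    simp only [dbl3]
    have b1 := bT.1 i
    have b2 := bT1.1 i
    have hwi : 0 ≤ w i := (abs_nonneg _).trans b1
    fin_cases i
    · show |dt (e 0) (T.pos z - c.pos z) + V 0| ≤ 2 * w 0
      refine (abs_add_le _ _).trans ?_
      have b3 : |dt (e 0) (T.pos z - c.pos z)| ≤ w 0 := b1
      linarith
    · show |dt (e 1) (T.pos z - c.pos z) + V 1| ≤ 2 * w 1
      rw [hV1, ← dt_add]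
      have : T.pos z - c.pos z + (T1.pos z - T.pos z) = T1.pos z - c.pos z := by abel
      rw [this]
      have b3 : |dt (e 1) (T1.pos z - c.pos z)| ≤ w 1 := b2
      linarith
    · show |dt (e 2) (T.pos z - c.pos z) + V 2| ≤ 2 * w 2
      rw [hV2, ← dt_add]
      have : T.pos z - c.pos z + (T1.pos z - T.pos z) = T1.pos z - c.pos z := by abel
      rw [this]
      have b3 : |dt (e 2) (T1.pos z - c.pos z)| ≤ w 2 := b2
      linarith
  have hq : |q z (T1.pos z) - q z (T.pos z + cmb e V)| ≤ 2 * a + M := by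
    have k1 := bT.2
    have k2 := bT1.2
    rw [abs_le] at k1 k2 hM ⊢
    constructor <;> linarith [k1.1, k1.2, k2.1, k2.2, hM.1, hM.2]
  rcases le_total 0 τ with hp | hp
  · have h3 := (S.st0 z h0 h1 _ τ hp i2 (by rw [← eT1]; exact i1)).1
    rw [← eT1] at h3
    rw [abs_of_nonneg hp]
    linarith [le_abs_self (q z (T1.pos z) - q z (T.pos z + cmb e V))]
  · have e3 : T.pos z + cmb e V = T1.pos z + (-τ) • e 0 := by
      rw [eT1, neg_smul]; abel
    have h3 := (S.st0 z h0 h1 (T1.pos z) (-τ) (by linarith) i1 (by rw [← e3]; exact i2)).1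
    rw [← e3] at h3
    rw [abs_of_nonpos hp]
    linarith [neg_abs_le (q z (T1.pos z) - q z (T.pos z + cmb e V))]

/-- normalised base coordinates of the difference of two lines -/
noncomputable def sA (e : Fin 3 → V3) (w : V3) (T T1 : Ln4) (z : ℝ) : ℝ :=
  dt (e 1) (T1.pos z - T.pos z) / w 1

/-- normalised base coordinates of the difference of two lines -/
noncomputable def sB (e : Fin 3 → V3) (w : V3) (T T1 : Ln4) (z : ℝ) : ℝ :=
  dt (e 2) (T1.pos z - T.pos z) / w 2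

/-- strip around `T` at the height `z` -/
def Stp (e : Fin 3 → V3) (w : V3) (T T1 : Ln4) (nA nB β σ z : ℝ) : Prop :=
  |sA e w T T1 z| ≤ β ∧ |sB e w T T1 z| ≤ β ∧ |nA * sA e w T T1 z + nB * sB e w T T1 z| ≤ σ

/-- the strip is contained in the box with the same frame -/
theorem same_mem {e : Fin 3 → V3} {c : Ln4} {w : V3} {q : ℝ → V3 → ℝ} {a z0 ρ r0 : ℝ} {T T1 : Ln4}
    (S : ShN e c w q a z0 ρ r0) (hr : 0 < r0) (hρ : 0 ≤ ρ) (hT : InSheet T e c w q a z0 ρ)
    (hT1 : InSheet T1 e c w q a z0 ρ) {A1 β z1 ρ1 : ℝ} (hβ : 0 < β) (hβ1 : β ≤ 1 / 8)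
    (ha : a ≤ β * w 0) (h0 : z0 ≤ z1) (h1 : z1 + ρ1 ≤ z0 + ρ)
    (hs : ∀ z, z1 ≤ z → z ≤ z1 + ρ1 → |sA e w T T1 z| ≤ β ∧ |sA e w T T1 z| ≤ A1 ∧
      |sB e w T T1 z| ≤ β) :
    InSheet T1 e T ![12 * β * w 0, A1 * w 1, 12 * β * w 2] q a z1 ρ1 := by
  have he := S.ortho
  have hw0 : 0 < w 0 := by linarith [S.a_le0, S.r0_le]
  have hw2 : 0 < w 2 := by linarith [S.w0_le]
  have hw1 : 0 < w 1 := by linarith [S.w_le]
  have hwp : ∀ i, 0 < w i := by
    intro i; fin_cases i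
    · exact hw0
    · exact hw1
    · exact hw2
  obtain ⟨p, r, H, hG⟩ := exists_TD S.isQ e T
  have B := gb_of S hr hρ hT hG
  intro z hz hz'
  obtain ⟨s1, s2, s3⟩ := hs z hz hz'
  have hz0 : z0 ≤ z := by linarith
  have hz1 : z ≤ z0 + ρ := by linarith
  refine ⟨?_, (hT1 z hz0 hz1).2⟩
  have u1 : |dt (e 1) (T1.pos z - T.pos z)| = |sA e w T T1 z| * w 1 := by
    unfold sA; rw [abs_div, abs_of_pos hw1]; field_simp
  have u2 : |dt (e 2) (T1.pos z - T.pos z)| = |sB e w T T1 z| * w 2 := by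
    unfold sB; rw [abs_div, abs_of_pos hw2]; field_simp
  set V : V3 := ![0, dt (e 1) (T1.pos z - T.pos z), dt (e 2) (T1.pos z - T.pos z)] with hV
  have v1 : |V 1| ≤ β * w 1 := by
    show |dt (e 1) (T1.pos z - T.pos z)| ≤ _
    rw [u1]; exact mul_le_mul_of_nonneg_right s1 hw1.le
  have v2 : |V 2| ≤ β * w 2 := by
    show |dt (e 2) (T1.pos z - T.pos z)| ≤ _
    rw [u2]; exact mul_le_mul_of_nonneg_right s3 hw2.le
  have v0 : V 0 = 0 := rfl
  have hM : |q z (T.pos z + cmb e V) - q z (T.pos z)| ≤ 3 * β * w 0 := by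
    rw [hG.exp z V]
    have e1 : q z (T.pos z) + dt (gr p r z) V + bl H V V - q z (T.pos z) =
        gr p r z 1 * V 1 + gr p r z 2 * V 2 + bl H V V := by
      have : dt (gr p r z) V = gr p r z 1 * V 1 + gr p r z 2 * V 2 := by
        unfold dt; rw [v0]; ring
      rw [this]; ring
    rw [e1]
    have k1 : |gr p r z 1 * V 1| ≤ β * w 0 := by
      rw [abs_mul]
      calc |gr p r z 1| * |V 1| ≤ w 0 / w 1 * (β * w 1) :=
            mul_le_mul (B.g1 z hz0 hz1) v1 (abs_nonneg _) (by positivity)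
        _ = β * w 0 := by field_simp
    have k2 : |gr p r z 2 * V 2| ≤ β * w 0 := by
      rw [abs_mul]
      calc |gr p r z 2| * |V 2| ≤ w 0 / w 2 * (β * w 2) :=
            mul_le_mul (B.g2 z hz0 hz1) v2 (abs_nonneg _) (by positivity)
        _ = β * w 0 := by field_simp
    have k3 : |bl H V V| ≤ 4 * β * (β * w 0) := by
      have hx : ∀ i, |V i| ≤ (![0, β, β] : V3) i * w i := by
        intro i; fin_cases i
        · show |V 0| ≤ 0 * w 0
          rw [v0]; simp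
        · exact v1
        · exact v2
      have h00 : ∀ i, 0 ≤ (![0, β, β] : V3) i := by
        intro i; fin_cases i <;> simp [hβ.le]
      have := bl_le hwp B.hH ![0, β, β] ![0, β, β] h00 h00 hx hx
      refine this.trans (le_of_eq ?_)
      show w 0 * ((0 + β + β) * (0 + β + β)) = _
      ring
    have k4 : 4 * β * (β * w 0) ≤ 1 * (β * w 0) :=
      mul_le_mul_of_nonneg_right (by linarith) (by positivity)
    have t1 := abs_add_le (gr p r z 1 * V 1 + gr p r z 2 * V 2) (bl H V V)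
    have t2 := abs_add_le (gr p r z 1 * V 1) (gr p r z 2 * V 2)
    linarith
  have hy := y_bound S hr hT hT1 hz0 hz1 (V := V) (by rw [v0, abs_zero]; exact hw0.le) rfl rfl hM
  rw [v0, sub_zero] at hy
  intro i
  fin_cases i
  · show |dt (e 0) (T1.pos z - T.pos z)| ≤ 12 * β * w 0
    have : 0 < β * w 0 := by positivity
    linarith
  · show |dt (e 1) (T1.pos z - T.pos z)| ≤ A1 * w 1
    rw [u1]; exact mul_le_mul_of_nonneg_right s2 hw1.le
  · show |dt (e 2) (T1.pos z - T.pos z)| ≤ 12 * β * w 2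
    rw [u2]
    have := mul_le_mul_of_nonneg_right s3 hw2.le
    have h5 : 0 < β * w 2 := by positivity
    linarith

/-- transversal component of the transversal direction -/
theorem perp_bound {w : V3} {nA nB y L : ℝ} (hw2 : 0 < w 2) (hw : w 2 ≤ w 1)
    (hn : nA ^ 2 + nB ^ 2 = 1) (hy : |y| ≤ 5 * w 2) (hLp : 0 < L)
    (hL : dt (Ev w nA nB y) (Ev w nA nB y) = L ^ 2) {m : Fin 3 → V3} (hm : Ortho m)
    (hm1 : m 1 = (1 / L) • Ev w nA nB y) {j : Fin 3} (hj : j ≠ 1) :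
    |dt (m j) (Nv w nA nB)| ≤ 6 * (w 1 * w 2) / L := by
  have hw1 : 0 < w 1 := by linarith
  set E := Ev w nA nB y with hE
  set N := Nv w nA nB with hN
  have h1 : dt (m j) N ^ 2 + dt (m 1) N ^ 2 ≤ dt N N := by
    have e1 : N = cmb m (crd m N) := (cmb_crd hm N).symm
    have e2 : dt N N = dt (m 0) N ^ 2 + dt (m 1) N ^ 2 + dt (m 2) N ^ 2 := by
      have : dt N N = dt (cmb m (crd m N)) N := by rw [← e1]
      rw [this, dt_cmb]; simp only [dt, crd]; ring
    rw [e2]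
    have : j = 0 ∨ j = 2 := by
      fin_cases j
      · left; rfl
      · exact absurd rfl hj
      · right; rfl
    rcases this with h | h
    · rw [h]; nlinarith [sq_nonneg (dt (m 2) N)]
    · rw [h]; nlinarith [sq_nonneg (dt (m 0) N)]
  have h2 : dt (m 1) N * L = dt E N := by
    rw [hm1, smul_dt]; field_simp
  have h3 : (dt (m j) N * L) ^ 2 ≤ dt E E * dt N N - dt E N ^ 2 := by
    rw [← h2, hL]
    have : 0 ≤ L ^ 2 := by positivity
    nlinarith
  rw [← dt_cr_cr] at h3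
  have h4 : dt (cr E N) (cr E N) ≤ (6 * (w 1 * w 2)) ^ 2 := by
    have e3 : dt (cr E N) (cr E N) = (w 1 * w 2 * (nA ^ 2 + nB ^ 2)) ^ 2 +
        y ^ 2 * (w 2 ^ 2 * nB ^ 2 + w 1 ^ 2 * nA ^ 2) := by
      simp only [dt, cr, hE, hN, Ev, Nv, Matrix.cons_val_zero, Matrix.cons_val_one,
        Matrix.cons_val]
      ring
    rw [e3, hn, mul_one]
    have h5 : y ^ 2 ≤ 25 * w 2 ^ 2 := by
      rw [← sq_abs]
      have := pow_le_pow_left₀ (abs_nonneg y) hy 2
      nlinarith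
    have h6 : w 2 ^ 2 * nB ^ 2 + w 1 ^ 2 * nA ^ 2 ≤ w 1 ^ 2 := by
      have hsq : w 2 ^ 2 ≤ w 1 ^ 2 := by nlinarith
      have h2 : w 2 ^ 2 * nB ^ 2 ≤ w 1 ^ 2 * nB ^ 2 := mul_le_mul_of_nonneg_right hsq (sq_nonneg _)
      have h3 : w 1 ^ 2 * nA ^ 2 + w 1 ^ 2 * nB ^ 2 = w 1 ^ 2 := by rw [← mul_add, hn, mul_one]
      linarith
    have h7 : 0 ≤ w 2 ^ 2 * nB ^ 2 + w 1 ^ 2 * nA ^ 2 := by positivity
    have h8 : y ^ 2 * (w 2 ^ 2 * nB ^ 2 + w 1 ^ 2 * nA ^ 2) ≤ 25 * w 2 ^ 2 * w 1 ^ 2 :=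
      mul_le_mul h5 h6 h7 (by positivity)
    nlinarith [mul_pos (pow_pos hw1 2) (pow_pos hw2 2)]
  have h5 : |dt (m j) N * L| ≤ 6 * (w 1 * w 2) := by
    rw [← abs_of_pos (by positivity : 0 < 6 * (w 1 * w 2)), ← sq_le_sq]
    exact h3.trans h4
  rw [abs_mul, abs_of_pos hLp] at h5
  rw [le_div_iff₀ hLp]
  exact h5

end Crest.Agent.R136.Nd565
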