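import Crest.Agent.R136.Lgt1_989
import Crest.Agent.R136.Mdr1_535
import Crest.Agent.R136.Nd6_565

/-!
# R136 (S0187), plateau phase: lightlike sub-planks of a sheet, dictionary (helper989)

* `refine`, `exists_ref` : labels refined by one real function; reference elements.
* `crdS` : scaled tangent coordinates at the base line; `pair_of` : two lines of the sheet close to
  the base line.
* `own_cov` : the own covectors of a line in the scaled coordinates of the base line.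
-/

set_option autoImplicit false
set_option linter.unusedVariables false

namespace Crest.Agent.R136.Lgt989

open Finset
open Crest.Agent.R136.Sh605 Crest.Agent.R136.Tl102
open Crest.Agent.R136.Mdr535 (ty gr pt_decomp)

/-! ### labels -/

theorem refine {ι : Type*} (A : Finset ι) (lab : ι → ℕ) (N : ℕ) (hN : ∀ x ∈ A, lab x < N)
    (φ : ℕ → ι → ℝ) {R s : ℝ} (hs : 0 < s) (hR : 0 ≤ R) (hφ : ∀ x ∈ A, |φ (lab x) x| ≤ R) :
    ∃ (lab' : ι → ℕ) (N' : ℕ), (∀ x ∈ A, lab' x < N') ∧ (N' : ℝ) ≤ N * (2 * R / s + 1) ∧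
      ∀ x ∈ A, ∀ y ∈ A, lab' x = lab' y →
        lab x = lab y ∧ |φ (lab x) x - φ (lab x) y| ≤ s := by
  set K : ℕ := ⌊2 * R / s⌋₊ + 1 with hK
  have hK0 : 0 < K := Nat.succ_pos _
  set t : ι → ℕ := fun x => ⌊(φ (lab x) x + R) / s⌋₊ with ht
  have htK : ∀ x ∈ A, t x < K := by
    intro x hx
    have h1 := hφ x hx
    rw [abs_le] at h1
    have h2 : (φ (lab x) x + R) / s ≤ 2 * R / s := by
      apply div_le_div_of_nonneg_right _ hs.le
      linarith [h1.2]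
    exact Nat.lt_succ_of_le (Nat.floor_le_floor h2)
  have hval : ∀ x ∈ A, (t x : ℝ) ≤ (φ (lab x) x + R) / s ∧ (φ (lab x) x + R) / s < t x + 1 := by
    intro x hx
    have h1 := hφ x hx
    rw [abs_le] at h1
    exact ⟨Nat.floor_le (div_nonneg (by linarith [h1.1]) hs.le), Nat.lt_floor_add_one _⟩
  refine ⟨fun x => lab x * K + t x, N * K, ?_, ?_, ?_⟩
  · intro x hx
    have h1 := hN x hx
    have h2 := htK x hx
    calc lab x * K + t x < lab x * K + K := by omega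
      _ = (lab x + 1) * K := by ring
      _ ≤ N * K := Nat.mul_le_mul_right K h1
  · push_cast
    refine mul_le_mul_of_nonneg_left ?_ (Nat.cast_nonneg _)
    rw [hK]
    push_cast
    have := Nat.floor_le (div_nonneg (by linarith : 0 ≤ 2 * R) hs.le)
    linarith
  · intro x hx y hy hxy
    have hx1 := htK x hx
    have hy1 := htK y hy
    have hxy' : lab x * K + t x = lab y * K + t y := hxy
    have e1 : lab x = lab y := by
      have a1 : (lab x * K + t x) / K = lab x := by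
        rw [Nat.mul_comm, Nat.mul_add_div hK0, Nat.div_eq_of_lt hx1, Nat.add_zero]
      have a2 : (lab y * K + t y) / K = lab y := by
        rw [Nat.mul_comm, Nat.mul_add_div hK0, Nat.div_eq_of_lt hy1, Nat.add_zero]
      rw [← a1, ← a2, hxy']
    have e2 : t x = t y := by
      rw [e1] at hxy'
      omega
    refine ⟨e1, ?_⟩
    have h1 := hval x hx
    have h2 := hval y hy
    rw [← e1, ← e2] at h2
    have h3 : |(φ (lab x) x + R) / s - (φ (lab x) y + R) / s| ≤ 1 := by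
      rw [abs_le]; constructor <;> linarith [h1.1, h1.2, h2.1, h2.2]
    have h4 : (φ (lab x) x + R) / s - (φ (lab x) y + R) / s = (φ (lab x) x - φ (lab x) y) / s := by
      ring
    rw [h4, abs_div, abs_of_pos hs, div_le_iff₀ hs, one_mul] at h3
    exact h3

theorem exists_ref {ι : Type*} (A : Finset ι) (hA : A.Nonempty) (lab : ι → ℕ) :
    ∃ ref : ℕ → ι, ∀ x ∈ A, ref (lab x) ∈ A ∧ lab (ref (lab x)) = lab x := by
  classical
  obtain ⟨x0, hx0⟩ := hA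
  refine ⟨fun j => if h : ∃ y ∈ A, lab y = j then h.choose else x0, fun x hx => ?_⟩
  have h : ∃ y ∈ A, lab y = lab x := ⟨x, hx, rfl⟩
  simp only [dif_pos h]
  exact h.choose_spec

/-! ### scaled tangent coordinates -/

/-- scaled tangent coordinates of a displacement -/
noncomputable def crdS (e : Fin 3 → V3) (w b0 : V3) (κ : ℝ) (X : V3) : V3 :=
  ![ty e w b0 X / (κ * w 0), dt (e 1) X / w 1, dt (e 2) X / w 2]

/-- back to plank coordinates -/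
noncomputable def Phi (b0 : V3) (κ : ℝ) (x : V3) : V3 := unsh b0 (κ * x 0) (x 1) (x 2)

theorem Phi_one (b0 : V3) (κ : ℝ) (x : V3) : Phi b0 κ x 1 = x 1 := rfl
theorem Phi_two (b0 : V3) (κ : ℝ) (x : V3) : Phi b0 κ x 2 = x 2 := rfl

theorem crdS_lin (e : Fin 3 → V3) (w b0 : V3) (κ s t : ℝ) (X Y : V3) (k : Fin 3) :
    crdS e w b0 κ (s • X + t • Y) k = s * crdS e w b0 κ X k + t * crdS e w b0 κ Y k := by
  fin_cases k <;> simp only [crdS, ty, dt, Pi.add_apply, Pi.smul_apply, smul_eq_mul,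
    Matrix.cons_val, Fin.zero_eta, Fin.mk_one, Fin.reduceFinMk] <;> ring

theorem crdS_sub (e : Fin 3 → V3) (w b0 : V3) (κ : ℝ) (X Y : V3) (k : Fin 3) :
    crdS e w b0 κ (X - Y) k = crdS e w b0 κ X k - crdS e w b0 κ Y k := by
  have h := crdS_lin e w b0 κ 1 (-1) X Y k
  have e1 : (1 : ℝ) • X + (-1 : ℝ) • Y = X - Y := by
    rw [one_smul, neg_one_smul, sub_eq_add_neg]
  rw [e1] at h
  rw [h]; ring

theorem cmb_crdS {e : Fin 3 → V3} (he : Ortho e) {w : V3} (hw : ∀ i, 0 < w i) (b0 : V3) {κ : ℝ}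
    (hκ : 0 < κ) (X : V3) : cmb (fr e w) (Phi b0 κ (crdS e w b0 κ X)) = X := by
  have h := pt_decomp (b0 := b0) he hw 0 X
  rw [sub_zero, zero_add] at h
  conv_rhs => rw [h]
  have hw0 := (hw 0).ne'
  have e1 : κ * (ty e w b0 X / (κ * w 0)) * w 0 = ty e w b0 X := by field_simp
  funext i
  simp only [cmb, fr, Phi, unsh, crdS, Pi.add_apply, Pi.smul_apply, smul_eq_mul, Matrix.cons_val]
  linear_combination (e 0 i) * e1

theorem cmb_add (f : Fin 3 → V3) (x y : V3) : cmb f (fun k => x k + y k) = cmb f x + cmb f y := by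
  funext i; simp only [cmb, Pi.add_apply]; ring

theorem Phi_add (b0 : V3) (κ : ℝ) (x y : V3) :
    Phi b0 κ (fun k => x k + y k) = fun k => Phi b0 κ x k + Phi b0 κ y k := by
  funext k
  fin_cases k <;> simp only [Phi, unsh, Matrix.cons_val, Fin.zero_eta, Fin.mk_one,
    Fin.reduceFinMk] <;> ring

/-- position relative to the base line -/
noncomputable def pp (e : Fin 3 → V3) (w b0 : V3) (κ : ℝ) (Tc : Ln4) (z : ℝ) (T : Ln4) : V3 :=
  crdS e w b0 κ (T.pos z - Tc.pos z)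

/-- velocity relative to the base line -/
noncomputable def vv (e : Fin 3 → V3) (w b0 : V3) (κ : ℝ) (Tc : Ln4) (z0 ρ : ℝ) (T : Ln4) : V3 :=
  fun k => pp e w b0 κ Tc (z0 + ρ) T k - pp e w b0 κ Tc z0 T k

theorem bz_pp (e : Fin 3 → V3) (w b0 : V3) (κ : ℝ) (Tc T : Ln4) (z0 ρ ζ : ℝ) :
    bz (pp e w b0 κ Tc z0 T) (vv e w b0 κ Tc z0 ρ T) ζ = pp e w b0 κ Tc (z0 + ρ * ζ) T := by
  have e1 : T.pos (z0 + ρ * ζ) - Tc.pos (z0 + ρ * ζ) =
      (1 - ζ) • (T.pos z0 - Tc.pos z0) + ζ • (T.pos (z0 + ρ) - Tc.pos (z0 + ρ)) := by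
    funext i
    simp only [Ln4.pos, Pi.add_apply, Pi.sub_apply, Pi.smul_apply, smul_eq_mul]; ring
  funext k
  simp only [bz, vv]
  unfold pp
  rw [e1, crdS_lin]; ring

variable {e : Fin 3 → V3} {c : Ln4} {w : V3} {q : ℝ → V3 → ℝ} {a z0 ρ r0 : ℝ}

/-- value of `q` at a line in the coordinates of the base line -/
theorem q_at (he : Ortho e) (hw : ∀ i, 0 < w i) {Tc : Ln4} {b0 b1 : V3} {G : QF}
    (hE : IsExp q e w Tc z0 ρ b0 b1 G) (hb : b0 0 ≠ 0) {κ : ℝ} (hκ : 0 < κ) (T : Ln4) (ζ : ℝ)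
    (x : V3) :
    q (z0 + ρ * ζ) (T.pos (z0 + ρ * ζ) + cmb (fr e w) (Phi b0 κ x)) =
      q (z0 + ρ * ζ) (Tc.pos (z0 + ρ * ζ)) + w 0 * κ * Fq (shB0 b0) (scB1 κ b0 b1) (scG κ b0 G) ζ
        (fun k => pp e w b0 κ Tc (z0 + ρ * ζ) T k + x k) := by
  have e1 : T.pos (z0 + ρ * ζ) + cmb (fr e w) (Phi b0 κ x) = Tc.pos (z0 + ρ * ζ) +
      cmb (fr e w) (Phi b0 κ (fun k => pp e w b0 κ Tc (z0 + ρ * ζ) T k + x k)) := by
    rw [Phi_add, cmb_add, ← add_assoc]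
    congr 1
    unfold pp
    rw [cmb_crdS he hw b0 hκ]
    abel
  rw [e1, hE]
  unfold Phi
  rw [Fq_scaled hb hκ.ne']
  have e2 : (![(fun k => pp e w b0 κ Tc (z0 + ρ * ζ) T k + x k) 0,
      (fun k => pp e w b0 κ Tc (z0 + ρ * ζ) T k + x k) 1,
      (fun k => pp e w b0 κ Tc (z0 + ρ * ζ) T k + x k) 2] : V3) =
      fun k => pp e w b0 κ Tc (z0 + ρ * ζ) T k + x k := by
    funext k; fin_cases k <;> rfl
  rw [e2]; ring

theorem q_at0 (he : Ortho e) (hw : ∀ i, 0 < w i) {Tc : Ln4} {b0 b1 : V3} {G : QF}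
    (hE : IsExp q e w Tc z0 ρ b0 b1 G) (hb : b0 0 ≠ 0) {κ : ℝ} (hκ : 0 < κ) (T : Ln4) (ζ : ℝ) :
    q (z0 + ρ * ζ) (T.pos (z0 + ρ * ζ)) =
      q (z0 + ρ * ζ) (Tc.pos (z0 + ρ * ζ)) + w 0 * κ * Fq (shB0 b0) (scB1 κ b0 b1) (scG κ b0 G) ζ
        (bz (pp e w b0 κ Tc z0 T) (vv e w b0 κ Tc z0 ρ T) ζ) := by
  have h := q_at he hw hE hb hκ T ζ 0
  have e1 : cmb (fr e w) (Phi b0 κ 0) = 0 := by
    funext i; simp [cmb, fr, Phi, unsh]
  rw [e1, add_zero] at h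
  rw [h, bz_pp]
  simp

theorem Fq_shift (N0 γ : V3) (G : QF) (ζ : ℝ) (p v x : V3) :
    Fq N0 γ G ζ (fun k => bz p v ζ k + x k) - Fq N0 γ G ζ (bz p v ζ) =
      Fq (fun k => N0 k + gv G p k) (fun k => γ k + gv G v k) G ζ x := by
  simp only [Fq, dt, bz, QF.ev, gv, Matrix.cons_val]; ring

/-- the own covectors of `T` in the scaled coordinates of the base line -/
theorem own_cov (he : Ortho e) (hw : ∀ i, 0 < w i) {Tc : Ln4} {b0 b1 : V3} {G : QF}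
    (hE : IsExp q e w Tc z0 ρ b0 b1 G) (hb : b0 0 ≠ 0) {κ : ℝ} (hκ : 0 < κ) {T : Ln4}
    {b0' b1' : V3} {G' : QF} (hE' : IsExp q e w T z0 ρ b0' b1' G') (x : V3) :
    dt b0' (Phi b0 κ x) = κ * dt (fun k => shB0 b0 k +
        gv (scG κ b0 G) (pp e w b0 κ Tc z0 T) k) x ∧
    dt b1' (Phi b0 κ x) = κ * dt (fun k => scB1 κ b0 b1 k +
        gv (scG κ b0 G) (vv e w b0 κ Tc z0 ρ T) k) x := by
  set N : V3 := fun k => shB0 b0 k + gv (scG κ b0 G) (pp e w b0 κ Tc z0 T) k with hN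
  set R : V3 := fun k => scB1 κ b0 b1 k + gv (scG κ b0 G) (vv e w b0 κ Tc z0 ρ T) k with hR
  have hw0 := (hw 0).ne'
  have key : ∀ ζ x, Fq b0' b1' G' ζ (Phi b0 κ x) = κ * Fq N R (scG κ b0 G) ζ x := by
    intro ζ x
    have h1 := hE' ζ (Phi b0 κ x)
    have h2 := q_at he hw hE hb hκ T ζ x
    have h3 := q_at0 he hw hE hb hκ T ζ
    rw [h1, h3] at h2
    have h4 := Fq_shift (shB0 b0) (scB1 κ b0 b1) (scG κ b0 G) ζ (pp e w b0 κ Tc z0 T)
      (vv e w b0 κ Tc z0 ρ T) x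
    rw [bz_pp] at h4 h2
    have h5 : w 0 * Fq b0' b1' G' ζ (Phi b0 κ x) = w 0 * (κ * Fq N R (scG κ b0 G) ζ x) := by
      rw [← h4]; linear_combination h2
    exact mul_left_cancel₀ hw0 h5
  have odd : ∀ ζ, dt (bz b0' b1' ζ) (Phi b0 κ x) = κ * dt (bz N R ζ) x := by
    intro ζ
    have h1 := key ζ x
    have h2 := key ζ (-x)
    have e1 : Phi b0 κ (-x) = -Phi b0 κ x := by
      funext k
      fin_cases k <;> simp only [Phi, unsh, Matrix.cons_val, Pi.neg_apply, Fin.zero_eta,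
        Fin.mk_one, Fin.reduceFinMk] <;> ring
    rw [e1] at h2
    have o1 : ∀ (u v : V3) (M : QF) (y : V3), Fq u v M ζ y - Fq u v M ζ (-y) =
        2 * dt (bz u v ζ) y := by
      intro u v M y
      simp only [Fq, dt, QF.ev, Pi.neg_apply]; ring
    have h3 := o1 b0' b1' G' (Phi b0 κ x)
    have h4 := o1 N R (scG κ b0 G) x
    rw [h1, h2] at h3
    linear_combination (-1 / 2 : ℝ) * h3 + (κ / 2) * h4
  have o0 := odd 0
  have o1 := odd 1
  have b0e : ∀ u v : V3, bz u v 0 = u := by intro u v; funext k; simp [bz]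
  rw [b0e, b0e] at o0
  refine ⟨o0, ?_⟩
  have l1 : ∀ (u v y : V3), dt (bz u v 1) y = dt u y + dt v y := by
    intro u v y; simp only [dt, bz]; ring
  rw [l1, l1] at o1
  linear_combination o1 - o0

/-- lateral part of the turning covector -/
theorem sh_lat {b0 b1 : V3} (hb : b0 0 ≠ 0) (Y : V3) :
    shB1 b0 b1 1 * Y 1 + shB1 b0 b1 2 * Y 2 = dt b1 Y - b1 0 / b0 0 * dt b0 Y := by
  simp only [shB1, dt, Matrix.cons_val]
  field_simp
  ring

/-- the base line gives normalised coefficients -/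
theorem bas_of {b0 b1 : V3} {G : QF} (N : NrmC b0 b1 G) (hκ : 0 < kap b0 b1 G) {g : ℝ}
    (g0 : 0 < g) (g1 : g ≤ 1)
    (ht : g * kap b0 b1 G ^ 2 ≤ shB1 b0 b1 1 ^ 2 + shB1 b0 b1 2 ^ 2) :
    Bas (shB0 b0) (scB1 (kap b0 b1 G) b0 b1) (scG (kap b0 b1 G) b0 G) g := by
  obtain ⟨s1, s2, s3, s4, s5, s6, s7, s8, s9, s10⟩ := N.sc_le hκ
  obtain ⟨g1', g2', -⟩ := N.b1_le
  refine ⟨g1', g2', rfl, rfl, s2, ⟨s5, by linarith, by linarith, by linarith, by linarith,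
    by linarith⟩, g0, g1, ?_⟩
  change g ≤ (shB1 b0 b1 1 / kap b0 b1 G) ^ 2 + (shB1 b0 b1 2 / kap b0 b1 G) ^ 2
  rw [div_pow, div_pow, ← add_div, le_div_iff₀ (by positivity)]
  exact ht

/-- two lines of the sheet close to the base line -/
theorem pair_of (S : ShN e c w q a z0 ρ r0) (hr : 0 < r0) (hρ : 0 < ρ) {Tc T T' : Ln4}
    (hTc : InSheet Tc e c w q a z0 ρ) (hT : InSheet T e c w q a z0 ρ)
    (hT' : InSheet T' e c w q a z0 ρ) {b0 b1 : V3} {G : QF} (hE : IsExp q e w Tc z0 ρ b0 b1 G)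
    (hκ : 0 < kap b0 b1 G) {μ0 : ℝ} (hμ : 4 * μ0 ≤ 1) (ha : a ≤ μ0 * (w 0 * kap b0 b1 G))
    (h : ∀ X : Ln4, X = T ∨ X = T' → ∀ z, z = z0 ∨ z = z0 + ρ →
      |dt (e 1) (X.pos z - Tc.pos z)| ≤ μ0 * w 1 ∧ |dt (e 2) (X.pos z - Tc.pos z)| ≤ μ0 * w 2) :
    Pair (shB0 b0) (scB1 (kap b0 b1 G) b0 b1) (scG (kap b0 b1 G) b0 G) (20 * μ0)
      (2 * a / (w 0 * kap b0 b1 G)) (pp e w b0 (kap b0 b1 G) Tc z0 T)
      (vv e w b0 (kap b0 b1 G) Tc z0 ρ T) (pp e w b0 (kap b0 b1 G) Tc z0 T')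
      (vv e w b0 (kap b0 b1 G) Tc z0 ρ T') := by
  have hap : 0 < a := by linarith [S.r0_le]
  have hw0 : 0 < w 0 := by linarith [S.a_le0]
  have Q := StP.of_shN S hw0
  have hw := Q.pos
  have N := hE.nrmC Q hρ.le fun z hz hz' => (hTc z hz hz').1
  obtain ⟨g1', g2', -⟩ := N.b1_le
  have hb : b0 0 ≠ 0 := by linarith
  set κ := kap b0 b1 G with hκdef
  have hwκ : 0 < w 0 * κ := mul_pos hw0 hκ
  have hμ0 : 0 ≤ μ0 := by
    by_contra hc
    push Not at hc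
    have : μ0 * (w 0 * κ) < 0 := mul_neg_of_neg_of_pos hc hwκ
    linarith
  -- bound at the two ends
  have bd : ∀ X : Ln4, InSheet X e c w q a z0 ρ → (X = T ∨ X = T') → ∀ ζ : ℝ, ζ = 0 ∨ ζ = 1 →
      ∀ k, |pp e w b0 κ Tc (z0 + ρ * ζ) X k| ≤ 10 * μ0 := by
    intro X hX hXT ζ hζ
    have hζ0 : 0 ≤ ζ := by rcases hζ with h | h <;> rw [h] <;> norm_num
    have hζ1 : ζ ≤ 1 := by rcases hζ with h | h <;> rw [h] <;> norm_num
    have hz : z0 + ρ * ζ = z0 ∨ z0 + ρ * ζ = z0 + ρ := by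
      rcases hζ with h | h <;> rw [h]
      · left; ring
      · right; ring
    obtain ⟨l1, l2⟩ := h X hXT _ hz
    have hz1 : z0 ≤ z0 + ρ * ζ := by nlinarith
    have hz2 : z0 + ρ * ζ ≤ z0 + ρ := by nlinarith
    have hy := Mdr535.y_bound Q hE N hρ.le hζ0 hζ1 hμ (hTc _ hz1 hz2).1 (hX _ hz1 hz2).1
      (hTc _ hz1 hz2).2 (hX _ hz1 hz2).2 l1 l2
    intro k
    fin_cases k
    · change |ty e w b0 (X.pos (z0 + ρ * ζ) - Tc.pos (z0 + ρ * ζ)) / (κ * w 0)| ≤ 10 * μ0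
      have hk : 0 < κ * w 0 := mul_pos hκ hw0
      rw [abs_div, abs_of_pos hk, div_le_iff₀ hk]
      refine hy.trans ?_
      have : μ0 * (w 0 * κ) = μ0 * (κ * w 0) := by ring
      linarith
    · change |dt (e 1) (X.pos (z0 + ρ * ζ) - Tc.pos (z0 + ρ * ζ)) / w 1| ≤ 10 * μ0
      rw [abs_div, abs_of_pos (hw 1), div_le_iff₀ (hw 1)]
      have : 0 ≤ μ0 * w 1 := mul_nonneg hμ0 (hw 1).le
      linarith
    · change |dt (e 2) (X.pos (z0 + ρ * ζ) - Tc.pos (z0 + ρ * ζ)) / w 2| ≤ 10 * μ0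
      rw [abs_div, abs_of_pos (hw 2), div_le_iff₀ (hw 2)]
      have : 0 ≤ μ0 * w 2 := mul_nonneg hμ0 (hw 2).le
      linarith
  have pb : ∀ X : Ln4, InSheet X e c w q a z0 ρ → (X = T ∨ X = T') →
      (∀ k, |pp e w b0 κ Tc z0 X k| ≤ 20 * μ0) ∧ ∀ k, |vv e w b0 κ Tc z0 ρ X k| ≤ 20 * μ0 := by
    intro X hX hXT
    have h0 := bd X hX hXT 0 (Or.inl rfl)
    have h1 := bd X hX hXT 1 (Or.inr rfl)
    simp only [mul_zero, add_zero, mul_one] at h0 h1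
    refine ⟨fun k => (h0 k).trans (by linarith), fun k => ?_⟩
    have := abs_sub (pp e w b0 κ Tc (z0 + ρ) X k) (pp e w b0 κ Tc z0 X k)
    change |pp e w b0 κ Tc (z0 + ρ) X k - pp e w b0 κ Tc z0 X k| ≤ _
    linarith [h0 k, h1 k]
  obtain ⟨p1, p2⟩ := pb T hT (Or.inl rfl)
  obtain ⟨p3, p4⟩ := pb T' hT' (Or.inr rfl)
  refine ⟨p1, p2, p3, p4, fun ζ h0 h1 => ?_⟩
  have hz1 : z0 ≤ z0 + ρ * ζ := by nlinarith
  have hz2 : z0 + ρ * ζ ≤ z0 + ρ := by nlinarith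
  have v1 := q_at0 Q.ortho hw hE hb hκ T ζ
  have v2 := q_at0 Q.ortho hw hE hb hκ T' ζ
  have q1 := (hT _ hz1 hz2).2
  have q2 := (hT' _ hz1 hz2).2
  have h5 : |q (z0 + ρ * ζ) (T'.pos (z0 + ρ * ζ)) - q (z0 + ρ * ζ) (T.pos (z0 + ρ * ζ))| ≤ 2 * a :=
    (abs_sub _ _).trans (by linarith)
  rw [v1, v2] at h5
  have e5 : ∀ A B C : ℝ, A + w 0 * κ * B - (A + w 0 * κ * C) = w 0 * κ * (B - C) := by
    intro A B C; ring
  rw [e5, abs_mul, abs_of_pos hwκ] at h5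
  rw [le_div_iff₀ hwκ]
  linarith

end Crest.Agent.R136.Lgt989
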