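import Crest.Agent.R136.Lgt2_989

/-!
# R136 (S0187), plateau phase: lightlike sub-planks of a sheet, labels (helper989)

`labels` : the lines of one turning sheet are divided into at most `10^26 / (g^4 ω^4)` classes such
that two lines of one class are in a common lightlike strip: lateral coordinates `≤ 189 ω / g`,
turning coordinate `≤ 6·10^6 ω² / g³`.
-/

set_option autoImplicit false
set_option linter.unusedVariables false

namespace Crest.Agent.R136.Lgt989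

open Finset
open Crest.Agent.R136.Sh605 Crest.Agent.R136.Tl102
open Crest.Agent.R136.Nd565 (sA sB Stp)

/-- length of the lateral turning covector -/
noncomputable def mT (b0 b1 : V3) : ℝ := Real.sqrt (shB1 b0 b1 1 ^ 2 + shB1 b0 b1 2 ^ 2)

/-- direction of the lateral turning covector -/
noncomputable def nA (b0 b1 : V3) : ℝ := shB1 b0 b1 1 / mT b0 b1

/-- direction of the lateral turning covector -/
noncomputable def nB (b0 b1 : V3) : ℝ := shB1 b0 b1 2 / mT b0 b1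

/-- the own turning covector of a line near the base line -/
theorem turn_low {N0 γ : V3} {G : QF} {g μ : ℝ} (B : Bas N0 γ G g) (hμ0 : 0 ≤ μ)
    (hμ : 5304 * μ ≤ g) {p v : V3} (hp : ∀ k, |p k| ≤ μ) (hv : ∀ k, |v k| ≤ μ) {κ : ℝ}
    (hκ : 0 < κ) {b0 b0' b1' : V3} (hb : b0' 0 ≠ 0)
    (h : ∀ x, dt b0' (Phi b0 κ x) = κ * dt (fun k => N0 k + gv G p k) x ∧
      dt b1' (Phi b0 κ x) = κ * dt (fun k => γ k + gv G v k) x) :
    κ * g / 2 ≤ mT b0' b1' := by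
  have g0 := B.g0
  have g1 := B.g1
  have hμ1 : μ ≤ 1 / 5304 := by linarith
  have gp := gv_le B.G_le hp
  have gvv := gv_le B.G_le hv
  set N : V3 := fun k => N0 k + gv G p k with hN
  set R : V3 := fun k => γ k + gv G v k with hR
  have N0p : 1 / 4 ≤ N 0 := by
    have h1 := gp 0
    rw [abs_le] at h1
    have := B.n0
    change 1 / 4 ≤ N0 0 + gv G p 0
    linarith [h1.1]
  have N1 : |N 1| ≤ 52 * μ := by
    change |N0 1 + gv G p 1| ≤ _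
    rw [B.n1, zero_add]; exact gp 1
  have N2 : |N 2| ≤ 52 * μ := by
    change |N0 2 + gv G p 2| ≤ _
    rw [B.n2, zero_add]; exact gp 2
  have R0 : |R 0| ≤ 2 := by
    have h1 := abs_add_le (γ 0) (gv G v 0)
    have h2 := B.γ_le 0
    have h3 := gvv 0
    change |γ 0 + gv G v 0| ≤ 2
    linarith
  have hN0 : N 0 ≠ 0 := by linarith
  set x0 : ℝ := -(N 1 * γ 1 + N 2 * γ 2) / N 0 with hx0
  have x0b : |x0| ≤ 624 * μ := by
    rw [hx0, abs_div, abs_neg, abs_of_pos (by linarith : 0 < N 0), div_le_iff₀ (by linarith)]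
    have m1 := mul_abs_le N1 (B.γ_le 1)
    have m2 := mul_abs_le N2 (B.γ_le 2)
    refine (abs_add_le _ _).trans ?_
    have : 624 * μ * (1 / 4) ≤ 624 * μ * N 0 := mul_le_mul_of_nonneg_left N0p (by linarith)
    linarith
  set x : V3 := ![x0, γ 1, γ 2] with hx
  have e0 : dt N x = 0 := by
    simp only [dt, hx, Matrix.cons_val, hx0]; field_simp; ring
  set Γ : ℝ := γ 1 ^ 2 + γ 2 ^ 2 with hΓ
  have hΓg : g ≤ Γ := B.turn
  have e1 : Γ * 0.73 ≤ dt R x := by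
    have e2 : dt R x = Γ + (gv G v 1 * γ 1 + gv G v 2 * γ 2 + R 0 * x0) := by
      simp only [dt, hx, Matrix.cons_val, hΓ, hR]; ring
    have m1 := mul_abs_le (gvv 1) (B.γ_le 1)
    have m2 := mul_abs_le (gvv 2) (B.γ_le 2)
    have m3 := mul_abs_le R0 x0b
    have h4 : |gv G v 1 * γ 1 + gv G v 2 * γ 2 + R 0 * x0| ≤ 1404 * μ := by
      refine (abs_add_le _ _).trans ((add_le_add ((abs_add_le _ _).trans (add_le_add m1 m2))
        m3).trans ?_)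
      linarith
    rw [abs_le] at h4
    rw [e2]
    linarith [h4.1]
  obtain ⟨h1, h2⟩ := h x
  rw [e0, mul_zero] at h1
  have h3 := sh_lat (b0 := b0') (b1 := b1') hb (Phi b0 κ x)
  rw [Phi_one, Phi_two, h1, h2, mul_zero, sub_zero] at h3
  have x1 : x 1 = γ 1 := rfl
  have x2 : x 2 = γ 2 := rfl
  rw [x1, x2] at h3
  set s1 := shB1 b0' b1' 1 with hs1
  set s2 := shB1 b0' b1' 2 with hs2
  have hΓ0 : 0 < Γ := by linarith
  have h4 : κ * (Γ * 0.73) ≤ s1 * γ 1 + s2 * γ 2 := by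
    rw [h3]; exact mul_le_mul_of_nonneg_left e1 hκ.le
  have h5 : (s1 * γ 1 + s2 * γ 2) ^ 2 ≤ (s1 ^ 2 + s2 ^ 2) * Γ := by
    have : (s1 ^ 2 + s2 ^ 2) * Γ - (s1 * γ 1 + s2 * γ 2) ^ 2 = (s1 * γ 2 - s2 * γ 1) ^ 2 := by
      rw [hΓ]; ring
    linarith [sq_nonneg (s1 * γ 2 - s2 * γ 1)]
  have h6 : (κ * (Γ * 0.73)) ^ 2 ≤ (s1 ^ 2 + s2 ^ 2) * Γ :=
    (pow_le_pow_left₀ (by positivity) h4 2).trans h5
  have h7 : κ ^ 2 * Γ * 0.5 ≤ s1 ^ 2 + s2 ^ 2 := by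
    have h8 : (κ ^ 2 * Γ * 0.5) * Γ ≤ (s1 ^ 2 + s2 ^ 2) * Γ := by
      refine le_trans ?_ h6
      have : (κ * (Γ * 0.73)) ^ 2 = κ ^ 2 * Γ ^ 2 * 0.5329 := by ring
      rw [this]
      have h9 : 0 ≤ κ ^ 2 * Γ ^ 2 := by positivity
      nlinarith
    exact le_of_mul_le_mul_right h8 hΓ0
  unfold mT
  apply Real.le_sqrt_of_sq_le
  have h8 : (κ * g / 2) ^ 2 = κ ^ 2 * (g * g) * 0.25 := by ring
  rw [h8]
  have h9 : g * g ≤ Γ * 1 := mul_le_mul hΓg g1 g0.le hΓ0.le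
  have h10 : κ ^ 2 * (g * g) ≤ κ ^ 2 * Γ := by
    refine mul_le_mul_of_nonneg_left ?_ (sq_nonneg _)
    linarith
  have h11 : 0 ≤ κ ^ 2 * Γ := by positivity
  linarith

theorem Pair.self_left {N0 γ : V3} {G : QF} {μ ε : ℝ} {p v p' v' : V3}
    (P : Pair N0 γ G μ ε p v p' v') : (∀ k, |p k| ≤ μ) ∧ ∀ k, |v k| ≤ μ := ⟨P.hp, P.hv⟩

variable {e : Fin 3 → V3} {c : Ln4} {w : V3} {q : ℝ → V3 → ℝ} {a z0 ρ r0 : ℝ}

/-- two lines of one class are in a common strip -/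
theorem stp_of (S : ShN e c w q a z0 ρ r0) (hr : 0 < r0) (hρ : 0 < ρ) {Tc T T' : Ln4}
    (hTc : InSheet Tc e c w q a z0 ρ) (hT : InSheet T e c w q a z0 ρ)
    {b0 b1 : V3} {G : QF} (hE : IsExp q e w Tc z0 ρ b0 b1 G)
    (hκ : 0 < kap b0 b1 G) {g ω μ : ℝ} (B : Bas (shB0 b0) (scB1 (kap b0 b1 G) b0 b1)
      (scG (kap b0 b1 G) b0 G) g) (hμ0 : 0 ≤ μ) (hμ : 5304 * μ ≤ g) (hω : 0 ≤ ω)
    (hp : ∀ k, |pp e w b0 (kap b0 b1 G) Tc z0 T k| ≤ μ)
    (hv : ∀ k, |vv e w b0 (kap b0 b1 G) Tc z0 ρ T k| ≤ μ)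
    (hD : ∀ k, |pp e w b0 (kap b0 b1 G) Tc z0 T' k - pp e w b0 (kap b0 b1 G) Tc z0 T k| ≤ ω)
    (hV : ∀ k, |vv e w b0 (kap b0 b1 G) Tc z0 ρ T' k - vv e w b0 (kap b0 b1 G) Tc z0 ρ T k| ≤
      188 * ω / g)
    (h2 : ∀ ζ, 0 ≤ ζ → ζ ≤ 1 →
      |dt (fun k => shB0 b0 k + gv (scG (kap b0 b1 G) b0 G) (pp e w b0 (kap b0 b1 G) Tc z0 T) k)
        (bz (fun k => pp e w b0 (kap b0 b1 G) Tc z0 T' k - pp e w b0 (kap b0 b1 G) Tc z0 T k)
          (fun k => vv e w b0 (kap b0 b1 G) Tc z0 ρ T' k -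
            vv e w b0 (kap b0 b1 G) Tc z0 ρ T k) ζ)| ≤ 60000 * ω ^ 2 / g ∧
      |dt (fun k => scB1 (kap b0 b1 G) b0 b1 k +
          gv (scG (kap b0 b1 G) b0 G) (vv e w b0 (kap b0 b1 G) Tc z0 ρ T) k)
        (bz (fun k => pp e w b0 (kap b0 b1 G) Tc z0 T' k - pp e w b0 (kap b0 b1 G) Tc z0 T k)
          (fun k => vv e w b0 (kap b0 b1 G) Tc z0 ρ T' k -
            vv e w b0 (kap b0 b1 G) Tc z0 ρ T k) ζ)| ≤ 2800000 * ω ^ 2 / g ^ 2)
    {b0' b1' : V3} {G' : QF} (hE' : IsExp q e w T z0 ρ b0' b1' G') {z : ℝ} (hz : z0 ≤ z)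
    (hz' : z ≤ z0 + ρ) :
    0 < mT b0' b1' ∧
      Stp e w T T' (nA b0' b1') (nB b0' b1') (189 * ω / g) (6000000 * ω ^ 2 / g ^ 3) z := by
  have hap : 0 < a := by linarith [S.r0_le]
  have hw0 : 0 < w 0 := by linarith [S.a_le0]
  have Q := StP.of_shN S hw0
  have hw := Q.pos
  have Nc := hE.nrmC Q hρ.le fun z hz hz' => (hTc z hz hz').1
  have NT := hE'.nrmC Q hρ.le fun z hz hz' => (hT z hz hz').1
  have hb : b0 0 ≠ 0 := by
    have := Nc.b1_le.1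
    linarith
  obtain ⟨c1, c2, -, -, c5, -⟩ := NT.b1_le
  have hb' : b0' 0 ≠ 0 := by linarith
  have g0 := B.g0
  have g1 := B.g1
  set κ := kap b0 b1 G with hκdef
  have own := fun x => own_cov Q.ortho hw hE hb hκ hE' x
  have hm := turn_low B hμ0 hμ hp hv hκ hb' own
  have hm0 : 0 < mT b0' b1' := lt_of_lt_of_le (by positivity) hm
  refine ⟨hm0, ?_⟩
  obtain ⟨ζ, hζ, hζ0, hζ1⟩ : ∃ ζ, z0 + ρ * ζ = z ∧ 0 ≤ ζ ∧ ζ ≤ 1 := by
    refine ⟨(z - z0) / ρ, by field_simp; ring, div_nonneg (by linarith) hρ.le, ?_⟩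
    rw [div_le_one hρ]; linarith
  set X : V3 := bz (fun k => pp e w b0 κ Tc z0 T' k - pp e w b0 κ Tc z0 T k)
          (fun k => vv e w b0 κ Tc z0 ρ T' k - vv e w b0 κ Tc z0 ρ T k) ζ with hX
  have Xe : ∀ k, X k = pp e w b0 κ Tc z T' k - pp e w b0 κ Tc z T k := by
    intro k
    have h1 := congrFun (bz_pp e w b0 κ Tc T z0 ρ ζ) k
    have h3 := congrFun (bz_pp e w b0 κ Tc T' z0 ρ ζ) k
    rw [hζ] at h1 h3
    rw [← h1, ← h3, hX]
    simp only [bz]; ring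
  have X1 : X 1 = sA e w T T' z := by
    rw [Xe]
    change dt (e 1) (T'.pos z - Tc.pos z) / w 1 - dt (e 1) (T.pos z - Tc.pos z) / w 1 =
      dt (e 1) (T'.pos z - T.pos z) / w 1
    simp only [dt_sub]; ring
  have X2 : X 2 = sB e w T T' z := by
    rw [Xe]
    change dt (e 2) (T'.pos z - Tc.pos z) / w 2 - dt (e 2) (T.pos z - Tc.pos z) / w 2 =
      dt (e 2) (T'.pos z - T.pos z) / w 2
    simp only [dt_sub]; ring
  have Xb : ∀ k, |X k| ≤ 189 * ω / g := by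
    intro k
    have h1 := hD k
    have h3 := hV k
    have h4 : |X k| ≤ ω + 188 * ω / g := by
      rw [hX]
      simp only [bz]
      refine (abs_add_le _ _).trans (add_le_add h1 ?_)
      rw [abs_mul, abs_of_nonneg hζ0]
      exact (mul_le_of_le_one_left (abs_nonneg _) hζ1).trans h3
    have h5 : ω ≤ ω / g := by
      rw [le_div_iff₀ g0]; nlinarith
    have e5 : 189 * ω / g = ω / g + 188 * ω / g := by ring
    rw [e5]; linarith
  obtain ⟨u1, u2⟩ := h2 ζ hζ0 hζ1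
  obtain ⟨o1, o2⟩ := own X
  have hl := sh_lat (b0 := b0') (b1 := b1') hb' (Phi b0 κ X)
  rw [Phi_one, Phi_two, o1, o2] at hl
  have r1 : |b1' 0 / b0' 0| ≤ 3 := by
    rw [abs_div, abs_of_pos (by linarith : 0 < b0' 0), div_le_iff₀ (by linarith)]; linarith
  have ω2 : 0 ≤ ω ^ 2 := sq_nonneg _
  have i1 : ω ^ 2 / g ≤ ω ^ 2 / g ^ 2 := by
    rw [div_le_div_iff₀ g0 (by positivity)]
    have : g ^ 2 ≤ g := by nlinarith
    exact mul_le_mul_of_nonneg_left this ω2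
  have hlat : |shB1 b0' b1' 1 * X 1 + shB1 b0' b1' 2 * X 2| ≤ κ * (3000000 * (ω ^ 2 / g ^ 2)) := by
    rw [hl]
    have t1 : |κ * dt (fun k => scB1 κ b0 b1 k + gv (scG κ b0 G) (vv e w b0 κ Tc z0 ρ T) k) X| ≤
        κ * (2800000 * ω ^ 2 / g ^ 2) := by
      rw [abs_mul, abs_of_pos hκ]; exact mul_le_mul_of_nonneg_left u2 hκ.le
    have t2 : |κ * dt (fun k => shB0 b0 k + gv (scG κ b0 G) (pp e w b0 κ Tc z0 T) k) X| ≤
        κ * (60000 * ω ^ 2 / g) := by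
      rw [abs_mul, abs_of_pos hκ]; exact mul_le_mul_of_nonneg_left u1 hκ.le
    have t3 := mul_abs_le r1 t2
    refine (abs_sub _ _).trans ((add_le_add t1 t3).trans ?_)
    have e1 : κ * (2800000 * ω ^ 2 / g ^ 2) + 3 * (κ * (60000 * ω ^ 2 / g)) =
        κ * (2800000 * (ω ^ 2 / g ^ 2) + 180000 * (ω ^ 2 / g)) := by ring
    rw [e1]
    refine mul_le_mul_of_nonneg_left ?_ hκ.le
    have : 0 ≤ ω ^ 2 / g ^ 2 := by positivity
    linarith
  refine ⟨?_, ?_, ?_⟩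
  · rw [← X1]; exact Xb 1
  · rw [← X2]; exact Xb 2
  · rw [← X1, ← X2]
    have e1 : nA b0' b1' * X 1 + nB b0' b1' * X 2 =
        (shB1 b0' b1' 1 * X 1 + shB1 b0' b1' 2 * X 2) / mT b0' b1' := by
      unfold nA nB; ring
    rw [e1, abs_div, abs_of_pos hm0, div_le_iff₀ hm0]
    refine hlat.trans ?_
    calc κ * (3000000 * (ω ^ 2 / g ^ 2)) = 6000000 * ω ^ 2 / g ^ 3 * (κ * g / 2) := by
          field_simp; ring
      _ ≤ 6000000 * ω ^ 2 / g ^ 3 * mT b0' b1' := mul_le_mul_of_nonneg_left hm (by positivity)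

set_option maxHeartbeats 1000000 in
/-- **labels**: lightlike classes of the lines of a turning sheet -/
theorem labels {ι : Type*} (A : Finset ι) (L : ι → Ln4) (S : ShN e c w q a z0 ρ r0) (hr : 0 < r0)
    (hρ : 0 < ρ) (hA : ∀ t ∈ A, InSheet (L t) e c w q a z0 ρ) {g ω : ℝ} (g0 : 0 < g) (g1 : g ≤ 1)
    (ω0 : 0 < ω) (ω1 : ω ≤ 1)
    (hnd : ∀ t ∈ A, ∃ b0 b1 G, IsExp q e w (L t) z0 ρ b0 b1 G ∧ 0 < kap b0 b1 G ∧
      g * kap b0 b1 G ^ 2 ≤ shB1 b0 b1 1 ^ 2 + shB1 b0 b1 2 ^ 2 ∧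
      110000 * a ≤ g * (w 0 * kap b0 b1 G) ∧ 16 * a ≤ ω ^ 2 * (w 0 * kap b0 b1 G)) :
    ∃ (lab : ι → ℕ) (N : ℕ), (∀ t ∈ A, lab t < N) ∧ (N : ℝ) ≤ 10 ^ 26 / (g ^ 4 * ω ^ 4) ∧
      ∀ t ∈ A, ∀ t' ∈ A, lab t = lab t' → ∀ b0 b1 G, IsExp q e w (L t) z0 ρ b0 b1 G →
        0 < mT b0 b1 ∧ ∀ z, z0 ≤ z → z ≤ z0 + ρ →
          Stp e w (L t) (L t') (nA b0 b1) (nB b0 b1) (189 * ω / g) (6000000 * ω ^ 2 / g ^ 3) z := by
  classical
  rcases A.eq_empty_or_nonempty with hemp | hne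
  · subst hemp
    refine ⟨fun _ => 0, 0, by simp, ?_, by simp⟩
    rw [Nat.cast_zero]; positivity
  have hap : 0 < a := by linarith [S.r0_le]
  have hw0 : 0 < w 0 := by linarith [S.a_le0]
  have Q := StP.of_shN S hw0
  have hw := Q.pos
  have : Nonempty QF := ⟨⟨0, 0, 0, 0, 0, 0⟩⟩
  choose! b0 b1 G hE hκ ht ha1 ha2 using hnd
  set μ0 : ℝ := g / 110000 with hμ0
  have μp : 0 < μ0 := by positivity
  have μ4 : 4 * μ0 ≤ 1 := by rw [hμ0]; linarith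
  have μg : 5304 * (20 * μ0) ≤ g := by rw [hμ0]; linarith
  obtain ⟨x0, hx0⟩ := id hne
  -- lateral coordinates
  set lc : Fin 3 → ℝ → ι → ℝ := fun k z x =>
    dt (e k) ((L x).pos z - (L x0).pos z) / w k with hlc
  have hlc2 : ∀ k z, z = z0 ∨ z = z0 + ρ → ∀ x ∈ A, |lc k z x| ≤ 2 := by
    intro k z hz x hx
    have hz1 : z0 ≤ z ∧ z ≤ z0 + ρ := by
      rcases hz with h | h <;> rw [h] <;> constructor <;> linarith
    have h1 := (hA x hx z hz1.1 hz1.2).1 k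
    have h2 := (hA x0 hx0 z hz1.1 hz1.2).1 k
    simp only [hlc]
    rw [abs_div, abs_of_pos (hw k), div_le_iff₀ (hw k)]
    have e1 : dt (e k) ((L x).pos z - (L x0).pos z) =
        dt (e k) ((L x).pos z - c.pos z) - dt (e k) ((L x0).pos z - c.pos z) := by
      simp only [dt_sub]; ring
    rw [e1]
    refine (abs_sub _ _).trans ?_
    linarith
  have hR2 : (0 : ℝ) ≤ 2 := by norm_num
  -- stage 0
  obtain ⟨l1, N1, h1, k1, j1⟩ := refine A (fun _ => 0) 1 (fun _ _ => Nat.one_pos)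
    (fun _ x => lc 1 z0 x) μp hR2 (fun x hx => hlc2 1 z0 (Or.inl rfl) x hx)
  obtain ⟨l2, N2, h2, k2, j2⟩ := refine A l1 N1 h1 (fun _ x => lc 2 z0 x) μp hR2
    (fun x hx => hlc2 2 z0 (Or.inl rfl) x hx)
  obtain ⟨l3, N3, h3, k3, j3⟩ := refine A l2 N2 h2 (fun _ x => lc 1 (z0 + ρ) x) μp hR2
    (fun x hx => hlc2 1 _ (Or.inr rfl) x hx)
  obtain ⟨l4, N4, h4, k4, j4⟩ := refine A l3 N3 h3 (fun _ x => lc 2 (z0 + ρ) x) μp hR2
    (fun x hx => hlc2 2 _ (Or.inr rfl) x hx)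
  obtain ⟨l5, N5, h5, k5, j5⟩ := refine A l4 N4 h4 (fun _ x => lc 1 z0 x) ω0 hR2
    (fun x hx => hlc2 1 z0 (Or.inl rfl) x hx)
  obtain ⟨l6, N6, h6, k6, j6⟩ := refine A l5 N5 h5 (fun _ x => lc 2 z0 x) ω0 hR2
    (fun x hx => hlc2 2 z0 (Or.inl rfl) x hx)
  have dlc : ∀ k z x y, lc k z x - lc k z y = dt (e k) ((L x).pos z - (L y).pos z) / w k := by
    intro k z x y
    simp only [hlc, dt_sub]; ring
  -- closeness in a class of `l6`
  have cl : ∀ x ∈ A, ∀ y ∈ A, l6 x = l6 y →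
      (∀ z, z = z0 ∨ z = z0 + ρ → |dt (e 1) ((L x).pos z - (L y).pos z)| ≤ μ0 * w 1 ∧
        |dt (e 2) ((L x).pos z - (L y).pos z)| ≤ μ0 * w 2) ∧
      |dt (e 1) ((L x).pos z0 - (L y).pos z0)| ≤ ω * w 1 ∧
      |dt (e 2) ((L x).pos z0 - (L y).pos z0)| ≤ ω * w 2 := by
    intro x hx y hy hxy
    obtain ⟨e6, m6⟩ := j6 x hx y hy hxy
    obtain ⟨e5, m5⟩ := j5 x hx y hy e6
    obtain ⟨e4, m4⟩ := j4 x hx y hy e5
    obtain ⟨e3, m3⟩ := j3 x hx y hy e4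
    obtain ⟨e2, m2⟩ := j2 x hx y hy e3
    obtain ⟨e1, m1⟩ := j1 x hx y hy e2
    rw [dlc, abs_div, abs_of_pos (hw _), div_le_iff₀ (hw _)] at m1 m2 m3 m4 m5 m6
    refine ⟨?_, m5, m6⟩
    intro z hz
    rcases hz with h | h <;> rw [h]
    · exact ⟨m1, m2⟩
    · exact ⟨m3, m4⟩
  obtain ⟨ref, href⟩ := exists_ref A hne l6
  -- data at the base line
  set κ : ι → ℝ := fun t => kap (b0 t) (b1 t) (G t) with hκdef
  have hB : ∀ t ∈ A, Bas (shB0 (b0 t)) (scB1 (κ t) (b0 t) (b1 t)) (scG (κ t) (b0 t) (G t)) g := by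
    intro t htA
    exact bas_of ((hE t htA).nrmC Q hρ.le fun z hz hz' => (hA t htA z hz hz').1) (hκ t htA) g0 g1
      (ht t htA)
  have hP : ∀ t ∈ A, ∀ x ∈ A, ∀ y ∈ A, l6 x = l6 t → l6 y = l6 t →
      Pair (shB0 (b0 t)) (scB1 (κ t) (b0 t) (b1 t)) (scG (κ t) (b0 t) (G t)) (20 * μ0)
        (2 * a / (w 0 * κ t)) (pp e w (b0 t) (κ t) (L t) z0 (L x))
        (vv e w (b0 t) (κ t) (L t) z0 ρ (L x)) (pp e w (b0 t) (κ t) (L t) z0 (L y))
        (vv e w (b0 t) (κ t) (L t) z0 ρ (L y)) := by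
    intro t htA x hx y hy hxt hyt
    refine pair_of S hr hρ (hA t htA) (hA x hx) (hA y hy) (hE t htA) (hκ t htA) μ4 ?_ ?_
    · have := ha1 t htA
      rw [hμ0]; linarith
    · intro X hX z hz
      rcases hX with h | h <;> rw [h]
      · exact (cl x hx t htA hxt).1 z hz
      · exact (cl y hy t htA hyt).1 z hz
  have hεω : ∀ t ∈ A, 8 * (2 * a / (w 0 * κ t)) ≤ ω ^ 2 := by
    intro t htA
    have hp : 0 < w 0 * κ t := mul_pos hw0 (hκ t htA)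
    have e1 : 8 * (2 * a / (w 0 * κ t)) = 16 * a / (w 0 * κ t) := by ring
    rw [e1, div_le_iff₀ hp]
    exact ha2 t htA
  have ωsq : ω ^ 2 ≤ ω := by nlinarith
  -- stage 1c
  set φ7 : ℕ → ι → ℝ := fun j x =>
    -scB1 (κ (ref j)) (b0 (ref j)) (b1 (ref j)) 2 *
        vv e w (b0 (ref j)) (κ (ref j)) (L (ref j)) z0 ρ (L x) 1 +
      scB1 (κ (ref j)) (b0 (ref j)) (b1 (ref j)) 1 *
        vv e w (b0 (ref j)) (κ (ref j)) (L (ref j)) z0 ρ (L x) 2 with hφ7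
  have b7 : ∀ x ∈ A, |φ7 (l6 x) x| ≤ 1 := by
    intro x hx
    obtain ⟨r1, r2⟩ := href x hx
    have P := hP _ r1 x hx x hx r2.symm r2.symm
    have Bx := hB _ r1
    have m1 := mul_abs_le (Bx.γ_le 2) (P.hv 1)
    have m2 := mul_abs_le (Bx.γ_le 1) (P.hv 2)
    simp only [hφ7]
    refine (abs_add_le _ _).trans ?_
    rw [neg_mul, abs_neg]
    have : 60 * μ0 ≤ 1 := by rw [hμ0]; linarith
    linarith
  obtain ⟨l7, N7, h7, k7, j7⟩ := refine A l6 N6 h6 φ7 ω0 zero_le_one b7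
  obtain ⟨ref7, href7⟩ := exists_ref A hne l7
  -- velocity control
  have vc : ∀ x ∈ A, ∀ y ∈ A, l7 x = l7 y → ∀ t ∈ A, t = ref (l6 x) → l6 t = l6 x →
      (∀ k, |pp e w (b0 t) (κ t) (L t) z0 (L y) k - pp e w (b0 t) (κ t) (L t) z0 (L x) k| ≤ ω) ∧
      ∀ k, |vv e w (b0 t) (κ t) (L t) z0 ρ (L y) k - vv e w (b0 t) (κ t) (L t) z0 ρ (L x) k| ≤
        188 * ω / g := by
    intro x hx y hy hxy t htA htr ht6
    obtain ⟨e7, m7⟩ := j7 x hx y hy hxy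
    obtain ⟨-, c1, c2⟩ := cl y hy x hx e7.symm
    have P := hP t htA x hx y hy ht6.symm (e7.symm.trans ht6.symm)
    refine core1 (hB t htA) (by positivity) μg P ((hεω t htA).trans ωsq) ?_ ?_ ?_
    · change |dt (e 1) ((L y).pos z0 - (L t).pos z0) / w 1 -
        dt (e 1) ((L x).pos z0 - (L t).pos z0) / w 1| ≤ ω
      rw [← sub_div, ← dt_sub, abs_div, abs_of_pos (hw 1), div_le_iff₀ (hw 1)]
      have e1 : (L y).pos z0 - (L t).pos z0 - ((L x).pos z0 - (L t).pos z0) =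
          (L y).pos z0 - (L x).pos z0 := by abel
      rw [e1]; exact c1
    · change |dt (e 2) ((L y).pos z0 - (L t).pos z0) / w 2 -
        dt (e 2) ((L x).pos z0 - (L t).pos z0) / w 2| ≤ ω
      rw [← sub_div, ← dt_sub, abs_div, abs_of_pos (hw 2), div_le_iff₀ (hw 2)]
      have e1 : (L y).pos z0 - (L t).pos z0 - ((L x).pos z0 - (L t).pos z0) =
          (L y).pos z0 - (L x).pos z0 := by abel
      rw [e1]; exact c2
    · simp only [hφ7] at m7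
      rw [← htr] at m7
      rw [abs_sub_comm] at m7
      refine le_of_eq_of_le ?_ m7
      congr 1; ring
  -- stage 2
  set φ8 : ℕ → ι → ℝ := fun j x =>
    dt (fun k => scB1 (κ (ref (l6 (ref7 j)))) (b0 (ref (l6 (ref7 j)))) (b1 (ref (l6 (ref7 j)))) k +
        gv (scG (κ (ref (l6 (ref7 j)))) (b0 (ref (l6 (ref7 j)))) (G (ref (l6 (ref7 j)))))
          (vv e w (b0 (ref (l6 (ref7 j)))) (κ (ref (l6 (ref7 j)))) (L (ref (l6 (ref7 j)))) z0 ρ
            (L (ref7 j))) k)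
      (fun k => pp e w (b0 (ref (l6 (ref7 j)))) (κ (ref (l6 (ref7 j)))) (L (ref (l6 (ref7 j)))) z0
          (L x) k -
        pp e w (b0 (ref (l6 (ref7 j)))) (κ (ref (l6 (ref7 j)))) (L (ref (l6 (ref7 j)))) z0
          (L (ref7 j)) k) with hφ8
  have b8 : ∀ x ∈ A, |φ8 (l7 x) x| ≤ 6 * ω := by
    intro x hx
    obtain ⟨r1, r2⟩ := href7 x hx
    obtain ⟨s1, s2⟩ := href (ref7 (l7 x)) r1
    have hxr := (j7 _ r1 x hx r2).1
    have v1 := (vc _ r1 x hx r2 _ s1 rfl s2).1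
    have P := hP _ s1 _ r1 x hx s2.symm (hxr.symm.trans s2.symm)
    have Bx := hB _ s1
    have R_le : ∀ k, |scB1 (κ (ref (l6 (ref7 (l7 x))))) (b0 (ref (l6 (ref7 (l7 x)))))
        (b1 (ref (l6 (ref7 (l7 x))))) k + gv (scG (κ (ref (l6 (ref7 (l7 x)))))
          (b0 (ref (l6 (ref7 (l7 x))))) (G (ref (l6 (ref7 (l7 x))))))
          (vv e w (b0 (ref (l6 (ref7 (l7 x))))) (κ (ref (l6 (ref7 (l7 x)))))
            (L (ref (l6 (ref7 (l7 x))))) z0 ρ (L (ref7 (l7 x)))) k| ≤ 2 := by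
      intro k
      have h1 := Bx.γ_le k
      have h2 := gv_le Bx.G_le P.hv k
      refine (abs_add_le _ _).trans ?_
      have : 52 * (20 * μ0) ≤ 1 / 2 := by rw [hμ0]; linarith
      linarith
    simp only [hφ8]
    refine (dt_le3 R_le v1).trans (le_of_eq ?_)
    ring
  obtain ⟨l8, N8, h8, k8, j8⟩ := refine A l7 N7 h7 φ8 (s := ω ^ 2) (by positivity)
    (by positivity : (0 : ℝ) ≤ 6 * ω) b8
  refine ⟨l8, N8, h8, ?_, ?_⟩
  · -- the number of labels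
    have i0 : 2 * 2 / μ0 + 1 ≤ 5 / μ0 := by
      have : 1 ≤ 1 / μ0 := by rw [le_div_iff₀ μp]; linarith
      have e1 : 5 / μ0 = 2 * 2 / μ0 + 1 / μ0 := by ring
      linarith
    have i1 : 2 * 2 / ω + 1 ≤ 5 / ω := by
      have : 1 ≤ 1 / ω := by rw [le_div_iff₀ ω0]; linarith
      have e1 : 5 / ω = 2 * 2 / ω + 1 / ω := by ring
      linarith
    have i2 : 2 * 1 / ω + 1 ≤ 3 / ω := by
      have : 1 ≤ 1 / ω := by rw [le_div_iff₀ ω0]; linarith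
      have e1 : 3 / ω = 2 * 1 / ω + 1 / ω := by ring
      linarith
    have i3 : 2 * (6 * ω) / ω ^ 2 + 1 ≤ 13 / ω := by
      have : 1 ≤ 1 / ω := by rw [le_div_iff₀ ω0]; linarith
      have e1 : 13 / ω = 2 * (6 * ω) / ω ^ 2 + 1 / ω := by field_simp; ring
      linarith
    have hμi : 0 < 5 / μ0 := by positivity
    have c1 : (N1 : ℝ) ≤ 5 / μ0 := by
      refine k1.trans ?_
      rw [Nat.cast_one, one_mul]; exact i0
    have c2 : (N2 : ℝ) ≤ (5 / μ0) ^ 2 := by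
      refine k2.trans ?_
      rw [sq]; exact mul_le_mul c1 i0 (by positivity) (by positivity)
    have c3 : (N3 : ℝ) ≤ (5 / μ0) ^ 3 := by
      refine k3.trans ?_
      rw [pow_succ]; exact mul_le_mul c2 i0 (by positivity) (by positivity)
    have c4 : (N4 : ℝ) ≤ (5 / μ0) ^ 4 := by
      refine k4.trans ?_
      rw [pow_succ]; exact mul_le_mul c3 i0 (by positivity) (by positivity)
    have c5 : (N5 : ℝ) ≤ (5 / μ0) ^ 4 * (5 / ω) :=
      k5.trans (mul_le_mul c4 i1 (by positivity) (by positivity))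
    have c6 : (N6 : ℝ) ≤ (5 / μ0) ^ 4 * (5 / ω) * (5 / ω) :=
      k6.trans (mul_le_mul c5 i1 (by positivity) (by positivity))
    have c7 : (N7 : ℝ) ≤ (5 / μ0) ^ 4 * (5 / ω) * (5 / ω) * (3 / ω) :=
      k7.trans (mul_le_mul c6 i2 (by positivity) (by positivity))
    have c8 : (N8 : ℝ) ≤ (5 / μ0) ^ 4 * (5 / ω) * (5 / ω) * (3 / ω) * (13 / ω) :=
      k8.trans (mul_le_mul c7 i3 (by positivity) (by positivity))
    refine c8.trans ?_
    have e1 : (5 / μ0) ^ 4 * (5 / ω) * (5 / ω) * (3 / ω) * (13 / ω) =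
        (5 * 110000) ^ 4 * 975 / (g ^ 4 * ω ^ 4) := by
      rw [hμ0]; field_simp; ring
    rw [e1]
    exact div_le_div_of_nonneg_right (by norm_num) (by positivity)
  · -- two lines of one class
    intro t htA t' ht'A htt B0 B1 GG hEE
    obtain ⟨e8, m8⟩ := j8 t htA t' ht'A htt
    obtain ⟨r1, r2⟩ := href7 t htA
    set T1 := ref7 (l7 t) with hT1
    obtain ⟨s1, s2⟩ := href T1 r1
    set bt := ref (l6 T1) with hbt
    have e7 := (j7 t htA t' ht'A e8).1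
    have e7' := (j7 _ r1 t htA r2).1
    have hrt : ref (l6 t) = bt := by rw [hbt, e7']
    have sbt : l6 bt = l6 t := s2.trans e7'
    obtain ⟨hD, hV⟩ := vc t htA t' ht'A e8 bt s1 hrt.symm sbt
    obtain ⟨hD1, hV1⟩ := vc _ r1 t htA r2 bt s1 rfl s2
    have P := hP bt s1 t htA t' ht'A sbt.symm (e7.symm.trans sbt.symm)
    have hlab : |dt (fun k => scB1 (κ bt) (b0 bt) (b1 bt) k + gv (scG (κ bt) (b0 bt) (G bt))
        (vv e w (b0 bt) (κ bt) (L bt) z0 ρ (L T1)) k)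
        (fun k => pp e w (b0 bt) (κ bt) (L bt) z0 (L t') k -
          pp e w (b0 bt) (κ bt) (L bt) z0 (L t) k)| ≤ ω ^ 2 := by
      simp only [hφ8] at m8
      rw [← hT1, ← hbt] at m8
      rw [abs_sub_comm] at m8
      refine le_of_eq_of_le ?_ m8
      congr 1
      simp only [dt]; ring
    have h2 := core2 (hB bt s1) (by positivity) μg P ω0.le (hεω bt s1) hD hV hV1 hlab
    have key : ∀ z, z0 ≤ z → z ≤ z0 + ρ → 0 < mT B0 B1 ∧
        Stp e w (L t) (L t') (nA B0 B1) (nB B0 B1) (189 * ω / g) (6000000 * ω ^ 2 / g ^ 3) z :=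
      fun z hz hz' => stp_of S hr hρ (hA bt s1) (hA t htA) (hE bt s1) (hκ bt s1) (hB bt s1)
        (by positivity) μg ω0.le P.hp P.hv hD hV h2 hEE hz hz'
    exact ⟨(key z0 le_rfl (by linarith)).1, fun z hz hz' => (key z hz hz').2⟩

end Crest.Agent.R136.Lgt989
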