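import Crest.Agent.R136.Nd7_565

/-!
# R136 (S0187), U5: number of lines of a `C*` sheet in a strip around one of its lines (helper565)

* `strip_sheet` : the `(β, σ)`-strip around `T` lies in one sheet of class `C*` (over a cell 128 times
  shorter) of base area `≤ 240000 K β σ w1 w2`.
* `strip_count` : hence the number of lines in it.
* `FlatAt.scale`.
-/

set_option autoImplicit false
set_option linter.unusedVariables false

namespace Crest.Agent.R136.Nd565

open Finset Sh605 UB683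

theorem FlatAt.scale {q : ℝ → V3 → ℝ} {e : Fin 3 → V3} {w : V3} {T : Ln4}
    {z0 ρ nA nB β κ : ℝ} (hq : IsQ q) (hρ : 0 ≤ ρ) (hβ : 0 ≤ β)
    (hF : FlatAt q e w T z0 ρ nA nB β κ) : FlatAt q e w T z0 ρ nA nB (2 * β) (6 * κ) := by
  obtain ⟨p, r, H, hG⟩ := exists_TD hq e T
  obtain ⟨y, hF⟩ := hF
  refine ⟨y, fun z h0 h1 α hα => ?_⟩
  have e1 : y • e 0 + (w 1 * -nB) • e 1 + (w 2 * nA) • e 2 = cmb e (Ev w nA nB y) := rfl
  have v : ∀ α : ℝ, q z (T.pos z + α • cmb e (Ev w nA nB y)) - q z (T.pos z) =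
      α * dt (gr p r z) (Ev w nA nB y) + α ^ 2 * bl H (Ev w nA nB y) (Ev w nA nB y) := by
    intro α
    rw [← cmb_smul, hG.exp, dt_smul, bl_smul_left, bl_smul_right]; ring
  have f1 := hF z h0 h1 β (by rw [abs_of_nonneg hβ])
  have f2 := hF z h0 h1 (-β) (by rw [abs_neg, abs_of_nonneg hβ])
  rw [e1, v, abs_le] at f1 f2
  rw [e1, v]
  set G := dt (gr p r z) (Ev w nA nB y)
  set E := bl H (Ev w nA nB y) (Ev w nA nB y)
  have g1 : |β * G| ≤ κ := by
    rw [abs_le]; constructor <;> linarith [f1.1, f1.2, f2.1, f2.2]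
  have g2 : |β ^ 2 * E| ≤ κ := by
    rw [abs_le]; constructor <;> nlinarith [f1.1, f1.2, f2.1, f2.2]
  have g3 : |α * G| ≤ 2 * κ := by
    rw [abs_mul]
    calc |α| * |G| ≤ 2 * β * |G| := mul_le_mul_of_nonneg_right hα (abs_nonneg _)
      _ = 2 * |β * G| := by rw [abs_mul, abs_of_nonneg hβ]; ring
      _ ≤ 2 * κ := by linarith
  have g4 : |α ^ 2 * E| ≤ 4 * κ := by
    have : |α ^ 2| ≤ (2 * β) ^ 2 := by
      rw [abs_pow]; exact pow_le_pow_left₀ (abs_nonneg _) hα 2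
    rw [abs_mul]
    calc |α ^ 2| * |E| ≤ (2 * β) ^ 2 * |E| := mul_le_mul_of_nonneg_right this (abs_nonneg _)
      _ = 4 * |β ^ 2 * E| := by rw [abs_mul, abs_of_nonneg (by positivity : 0 ≤ β ^ 2)]; ring
      _ ≤ 4 * κ := by linarith
  refine (abs_add_le _ _).trans ?_
  linarith

set_option maxHeartbeats 1000000 in
theorem strip_sheet {e : Fin 3 → V3} {c : Ln4} {w : V3} {q : ℝ → V3 → ℝ} {a z0 ρ r0 : ℝ} {T : Ln4}
    (S : ShN e c w q a z0 ρ r0) (hr : 0 < r0) (hT : InSheet T e c w q a z0 ρ) {z1 ρ1 : ℝ}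
    (h0 : z0 ≤ z1) (h1 : z1 + ρ1 ≤ z0 + ρ) (hρ1 : 0 < ρ1) (h128 : 128 * ρ1 ≤ ρ) {K σ β : ℝ}
    (hK : 1 ≤ K) (hσ : 0 < σ) (hβ : 0 < β) (hβ1 : β ≤ 1 / 40000) (ha : a ≤ β * w 0)
    (ha' : a ≤ σ * w 0) {nA nB : ℝ} (hn : nA ^ 2 + nB ^ 2 = 1)
    (hF : FlatAt q e w T z0 ρ nA nB β (K * σ * w 0) ∨ β ≤ 2 * σ) :
    ∃ (e' : Fin 3 → V3) (w' : V3) (q' : ℝ → V3 → ℝ) (a' : ℝ), ShN e' T w' q' a' z1 ρ1 r0 ∧
      a ≤ a' ∧ a' ≤ 3 * a ∧ 0 < w' 2 ∧ w' 2 ≤ w' 1 ∧ w' 1 ≤ 36 * β * w 1 ∧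
      w' 2 * w' 1 ≤ 240000 * K * β * σ * (w 2 * w 1) ∧
      ∀ T1 : Ln4, InSheet T1 e c w q a z0 ρ →
        (∀ z, z1 ≤ z → z ≤ z1 + ρ1 → Stp e w T T1 nA nB β σ z) →
          InSheet T1 e' T w' q' a' z1 ρ1 := by
  have he := S.ortho
  have hap : 0 < a := by linarith [S.r0_le]
  have hw0 : 0 < w 0 := by linarith [S.a_le0]
  have hw02 := S.w0_le
  have hw2 : 0 < w 2 := by linarith
  have hw := S.w_le
  have hw1 : 0 < w 1 := by linarith
  have hρ : 0 ≤ ρ := by linarith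
  have hn' := n_le hn
  have hKσ : 0 < K * σ := by positivity
  have hσK : σ ≤ K * σ := by nlinarith
  obtain ⟨p, r, H, hG⟩ := exists_TD S.isQ e T
  have B := gb_of S hr hρ hT hG
  -- the sheet with the same frame
  have same : ∀ A1, 0 < A1 → A1 ≤ 12 * β → 12 * β * w 2 ≤ A1 * w 1 →
      A1 ≤ 12 * (1601 * (K * σ)) ∨ β ≤ 2 * σ →
      (∀ T1 : Ln4, (∀ z, z1 ≤ z → z ≤ z1 + ρ1 → Stp e w T T1 nA nB β σ z) →
        ∀ z, z1 ≤ z → z ≤ z1 + ρ1 → |sA e w T T1 z| ≤ A1) →
      ∃ (e' : Fin 3 → V3) (w' : V3) (q' : ℝ → V3 → ℝ) (a' : ℝ), ShN e' T w' q' a' z1 ρ1 r0 ∧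
      a ≤ a' ∧ a' ≤ 3 * a ∧ 0 < w' 2 ∧ w' 2 ≤ w' 1 ∧ w' 1 ≤ 36 * β * w 1 ∧
      w' 2 * w' 1 ≤ 240000 * K * β * σ * (w 2 * w 1) ∧
      ∀ T1 : Ln4, InSheet T1 e c w q a z0 ρ →
        (∀ z, z1 ≤ z → z ≤ z1 + ρ1 → Stp e w T T1 nA nB β σ z) →
          InSheet T1 e' T w' q' a' z1 ρ1 := by
    intro A1 hA1 hA1' hA2 hA3 hA4
    refine ⟨e, ![12 * β * w 0, A1 * w 1, 12 * β * w 2], q, a,
      same_frame S hr hT hA1 hA1' (by linarith) hA2 ?_ h0 h1, le_rfl, by linarith,
      ?_, hA2, ?_, ?_, ?_⟩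
    · have : 0 < β * w 0 := by positivity
      linarith
    · show 0 < 12 * β * w 2
      positivity
    · show A1 * w 1 ≤ 36 * β * w 1
      exact mul_le_mul_of_nonneg_right (by linarith) hw1.le
    · show 12 * β * w 2 * (A1 * w 1) ≤ 240000 * K * β * σ * (w 2 * w 1)
      have h2 : A1 ≤ 20000 * (K * σ) := by
        rcases hA3 with h | h
        · linarith
        · linarith
      have h3 : 12 * β * (w 2 * w 1) * A1 ≤ 12 * β * (w 2 * w 1) * (20000 * (K * σ)) :=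
        mul_le_mul_of_nonneg_left h2 (by positivity)
      calc 12 * β * w 2 * (A1 * w 1) = 12 * β * (w 2 * w 1) * A1 := by ring
        _ ≤ 12 * β * (w 2 * w 1) * (20000 * (K * σ)) := h3
        _ = _ := by ring
    · intro T1 hT1 hs
      exact same_mem S hr hρ hT hT1 hβ (by linarith) ha h0 h1 fun z hz hz' =>
        ⟨(hs z hz hz').1, hA4 T1 hs z hz hz', (hs z hz hz').2.1⟩
  by_cases hs : β ≤ 2 * σ
  · refine same (12 * β) (by positivity) le_rfl ?_ (Or.inr hs) ?_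
    · exact mul_le_mul_of_nonneg_left hw (by positivity)
    · intro T1 hT1 z hz hz'
      exact (hT1 z hz hz').1.trans (by linarith)
  · have hF' := hF.resolve_right hs
    push Not at hs
    obtain ⟨y, R0⟩ := rb_of_flat hG hρ hβ.le hF'
    have R := R0.two (by positivity)
    set L := Real.sqrt (dt (Ev w nA nB y) (Ev w nA nB y)) with hL
    have hL0 : 0 ≤ L := Real.sqrt_nonneg _
    have hL2 : dt (Ev w nA nB y) (Ev w nA nB y) = L ^ 2 := (Real.sq_sqrt (dt_self_nonneg _)).symm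
    have hLL : L ^ 2 = y ^ 2 + w 1 ^ 2 * nB ^ 2 + w 2 ^ 2 * nA ^ 2 := by
      rw [← hL2]; simp only [dt, Ev0, Ev1, Ev2]; ring
    have hR' : Rb w p r H z0 ρ nA nB y (2 * β) (4 * K * σ * w 0) := by
      have : 4 * K * σ * w 0 = 4 * (K * σ * w 0) := by ring
      rw [this]; exact R
    by_cases ht : 400 * (4 * K * σ) * w 1 ≤ 2 * β * L
    · -- the tilted cigar
      have hz : z1 + ρ1 ≤ z0 + ρ := h1
      obtain ⟨m, lam, C⟩ := exists_cig (ρ1 := ρ1) hw0 hw02 hw B h0 h1 hρ1.le h128 hG.symm hn hR'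
        (by positivity) (by linarith) hσ (by linarith) hL0 hL2 ht
      obtain ⟨p1, p2, p3, p4⟩ := tilt_pre hw0 hw02 hw B hρ hn hR' (by positivity) hσ (by linarith)
        hL0 hL2 ht
      have hLp : 0 < L := by linarith
      set W0 := 1200 * (4 * K * σ) * (w 1 * w 0) / L with hW0
      set W2 := 1200 * (4 * K * σ) * (w 1 * w 2) / L with hW2
      have hW0L : W0 * L = 1200 * (4 * K * σ) * (w 1 * w 0) := by rw [hW0]; field_simp
      have hW2L : W2 * L = 1200 * (4 * K * σ) * (w 1 * w 2) := by rw [hW2]; field_simp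
      have hW0p : 0 < W0 := by rw [hW0]; positivity
      have hW2p : 0 < W2 := by rw [hW2]; positivity
      have lam0 : 0 < lam := by linarith [C.lam_ge]
      have s02 : W0 ≤ W2 := by
        have h1 : W0 * L ≤ W2 * L := by
          rw [hW0L, hW2L]
          have := mul_le_mul_of_nonneg_left hw02 (by positivity : 0 ≤ 1200 * (4 * K * σ) * w 1)
          linarith
        exact le_of_mul_le_mul_right h1 hLp
      have s2 : 800 * (K * σ) * w 0 ≤ W0 := by
        have h1 : 800 * (K * σ) * w 0 * L ≤ W0 * L := by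
          rw [hW0L]
          have : 800 * (K * σ) * w 0 * L ≤ 800 * (K * σ) * w 0 * (6 * w 1) :=
            mul_le_mul_of_nonneg_left p3 (by positivity)
          linarith
        exact le_of_mul_le_mul_right h1 hLp
      have s3 : W2 ≤ 3 * (2 * β) * L := by
        have h1 : W2 * L ≤ 3 * (2 * β) * L * L := by
          rw [hW2L]
          have h2 := mul_le_mul_of_nonneg_right ht hw2.le
          have h3 : 2 * β * L * w 2 ≤ 2 * β * L * L := mul_le_mul_of_nonneg_left p1 (by positivity)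
          linarith
        exact le_of_mul_le_mul_right h1 hLp
      have s4 : 3 * a ≤ W0 := by
        have t1 : σ * w 0 ≤ K * σ * w 0 := mul_le_mul_of_nonneg_right hσK hw0.le
        have t2 : 0 < K * σ * w 0 := by positivity
        linarith
      refine ⟨fun j => cmb e (m j), ![W0, 3 * (2 * β) * L, W2], fun z x => q z x / lam, 3 * a,
        mk_sheet he S.isQ hG C.ortho lam0 (by positivity) hW2p s4 s02 s3 (by linarith [S.r0_le]) ?_,
        by linarith, le_rfl, hW2p, s3, ?_, ?_, ?_⟩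
      · intro z hz hz' U U' hU hU'
        exact C.bd z hz hz' U U' hU hU'
      · show 3 * (2 * β) * L ≤ 36 * β * w 1
        have : 6 * β * L ≤ 6 * β * (6 * w 1) := mul_le_mul_of_nonneg_left p3 (by positivity)
        linarith
      · show W2 * (3 * (2 * β) * L) ≤ 240000 * K * β * σ * (w 2 * w 1)
        have e1 : W2 * (3 * (2 * β) * L) = 28800 * K * β * σ * (w 2 * w 1) := by
          calc W2 * (3 * (2 * β) * L) = (W2 * L) * (6 * β) := by ring
            _ = _ := by rw [hW2L]; ring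
        rw [e1]
        have : 0 < K * β * σ * (w 2 * w 1) := by positivity
        linarith
      · intro T1 hT1 hst z hz hz'
        have hz0 : z0 ≤ z := by linarith
        have hz1 : z ≤ z0 + ρ := by linarith
        obtain ⟨g1, g2, g3⟩ := hst z hz hz'
        set sa := sA e w T T1 z with hsa
        set sb := sB e w T T1 z with hsb
        have ea : dt (e 1) (T1.pos z - T.pos z) = w 1 * sa := by
          rw [hsa]; unfold sA; field_simp
        have eb : dt (e 2) (T1.pos z - T.pos z) = w 2 * sb := by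
          rw [hsb]; unfold sB; field_simp
        have hα : |-nB * sa + nA * sb| ≤ 2 * β := by
          have t1 : |-nB * sa| ≤ 1 * β := abs_mul_le2 (by rw [abs_neg]; exact hn'.2) g1
          have t2 : |nA * sb| ≤ 1 * β := abs_mul_le2 hn'.1 g2
          refine (abs_add_le _ _).trans ?_
          linarith
        have key := cig_mem S hr hT hT1 hG B hn hR' (by positivity) (by linarith) hσ (by linarith)
          ha' hL0 hρ hL2 ht h0 (by linarith) C hz0 hz1 hα g3
          (by rw [ea]; linear_combination (-(w 1 * sa)) * hn)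
          (by rw [eb]; linear_combination (-(w 2 * sb)) * hn)
        constructor
        · intro i
          show |dt (cmb e (m i)) (T1.pos z - T.pos z)| ≤ _
          rw [dt_cmb]; exact key i
        · show |q z (T1.pos z) / lam| ≤ 3 * a
          rw [abs_div, abs_of_pos lam0, div_le_iff₀ lam0]
          have := (hT1 z hz0 hz1).2
          have h3 : 3 * a * 0.49 ≤ 3 * a * lam := mul_le_mul_of_nonneg_left C.lam_ge (by positivity)
          linarith
    · -- the box with the same frame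
      push Not at ht
      have g1 : w 2 ≤ L := by
        have h1 : w 2 ^ 2 ≤ L ^ 2 := by
          rw [hLL]
          have hsq : w 2 ^ 2 ≤ w 1 ^ 2 := by nlinarith
          have h2 : w 2 ^ 2 * nB ^ 2 ≤ w 1 ^ 2 * nB ^ 2 :=
            mul_le_mul_of_nonneg_right hsq (sq_nonneg _)
          have h3 : w 2 ^ 2 * nA ^ 2 + w 2 ^ 2 * nB ^ 2 = w 2 ^ 2 := by rw [← mul_add, hn, mul_one]
          nlinarith [sq_nonneg y]
        exact (pow_le_pow_iff_left₀ hw2.le hL0 (by norm_num)).1 h1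
      have g2 : w 1 * |nB| ≤ L := by
        have h1 : (w 1 * |nB|) ^ 2 ≤ L ^ 2 := by
          rw [hLL, mul_pow, sq_abs]
          nlinarith [sq_nonneg y, mul_nonneg (sq_nonneg (w 2)) (sq_nonneg nA)]
        exact (pow_le_pow_iff_left₀ (by positivity) hL0 (by norm_num)).1 h1
      have g3 : β * w 2 ≤ 800 * (K * σ) * w 1 := by
        have := mul_le_mul_of_nonneg_left g1 hβ.le
        linarith
      have g4 : β * |nB| ≤ 800 * (K * σ) := by
        have h2 := mul_le_mul_of_nonneg_left g2 hβ.le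
        have h3 : β * |nB| * w 1 ≤ 800 * (K * σ) * w 1 := by linarith
        exact le_of_mul_le_mul_right h3 hw1
      refine same (min (12 * (1601 * (K * σ))) (12 * β)) (lt_min (by positivity) (by positivity))
        (min_le_right _ _) ?_ (Or.inl (min_le_left _ _)) ?_
      · rcases min_choice (12 * (1601 * (K * σ))) (12 * β) with h | h
        · rw [h]
          have : 0 < K * σ * w 1 := by positivity
          linarith
        · rw [h]
          exact mul_le_mul_of_nonneg_left hw (by positivity)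
      · intro T1 hst z hz hz'
        obtain ⟨k1, k2, k3⟩ := hst z hz hz'
        set sa := sA e w T T1 z with hsa
        set sb := sB e w T T1 z with hsb
        refine le_min ?_ (k1.trans (by linarith))
        have e1 : sa = -nB * (-nB * sa + nA * sb) + nA * (nA * sa + nB * sb) := by
          linear_combination (-sa) * hn
        have hα : |-nB * sa + nA * sb| ≤ 2 * β := by
          have t1 : |-nB * sa| ≤ 1 * β := abs_mul_le2 (by rw [abs_neg]; exact hn'.2) k1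
          have t2 : |nA * sb| ≤ 1 * β := abs_mul_le2 hn'.1 k2
          refine (abs_add_le _ _).trans ?_
          linarith
        have t1 : |-nB * (-nB * sa + nA * sb)| ≤ |nB| * (2 * β) := by
          rw [abs_mul, abs_neg]; exact mul_le_mul_of_nonneg_left hα (abs_nonneg _)
        have t2 : |nA * (nA * sa + nB * sb)| ≤ 1 * σ := abs_mul_le2 hn'.1 k3
        have t3 : |sa| ≤ |-nB * (-nB * sa + nA * sb)| + |nA * (nA * sa + nB * sb)| := by
          conv_lhs => rw [e1]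
          exact abs_add_le _ _
        have t4 : |nB| * (2 * β) = 2 * (β * |nB|) := by ring
        linarith

theorem strip_count {ι : Type} (A : Finset ι) (L : ι → Ln4) {e : Fin 3 → V3} {c : Ln4} {w : V3}
    {q : ℝ → V3 → ℝ} {a z0 ρ r0 : ℝ} (S : ShN e c w q a z0 ρ r0) (hr : 0 < r0) {T : Ln4}
    (hT : InSheet T e c w q a z0 ρ) (hA : ∀ t ∈ A, InSheet (L t) e c w q a z0 ρ) {z1 ρ1 : ℝ}
    (h0 : z0 ≤ z1) (h1 : z1 + ρ1 ≤ z0 + ρ) (hρ1 : 0 < ρ1) (h128 : 128 * ρ1 ≤ ρ) {D wmax : ℝ}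
    {R : ℝ → ℝ → ℝ → ℝ} (hD0 : 0 ≤ D) (hD : DMaxN A L z1 ρ1 D R r0 wmax)
    (hwm : w 1 ≤ 128 * wmax) {K σ β q2 CR : ℝ} (hK : 1 ≤ K) (hσ : 0 < σ) (hβ : 0 < β)
    (hβ1 : β ≤ 1 / 40000) (ha : a ≤ β * w 0) (ha' : a ≤ σ * w 0) {nA nB : ℝ}
    (hn : nA ^ 2 + nB ^ 2 = 1)
    (hF : FlatAt q e w T z0 ρ nA nB β (K * σ * w 0) ∨ β ≤ 2 * σ) (hR0 : 0 ≤ R a (w 2) (w 1))
    (hCR : 0 ≤ CR)
    (hR : ∀ a' w2' w1' x, a ≤ a' → a' ≤ 3 * a → 0 < w2' → w2' ≤ w1' → w1' ≤ w 1 → 0 < x →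
      w2' * w1' ≤ x * (w 2 * w 1) → R a' w2' w1' ≤ CR * x ^ q2 * R a (w 2) (w 1))
    (B : Finset ι) (hB : B ⊆ A)
    (hBs : ∀ t ∈ B, ∀ z, z1 ≤ z → z ≤ z1 + ρ1 → Stp e w T (L t) nA nB β σ z) :
    (B.card : ℝ) ≤ 3 * CR * (D * (a * w 2 * w 1 * R a (w 2) (w 1))) *
      (240000 * K * β * σ) ^ (1 + q2) := by
  classical
  have hap : 0 < a := by linarith [S.r0_le]
  have hw2 : 0 < w 2 := by linarith [S.a_le0, S.w0_le]
  have hw := S.w_le
  have hw1 : 0 < w 1 := by linarith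
  obtain ⟨e', w', q', a', S', s1, s2, s3, s4, s5, s6, s7⟩ := strip_sheet S hr hT h0 h1 hρ1 h128 hK
    hσ hβ hβ1 ha ha' hn hF
  set x := 240000 * K * β * σ with hx
  have hxp : 0 < x := by positivity
  have hw1' : w' 1 ≤ w 1 := by nlinarith
  have hwm' : w' 1 ≤ wmax := by nlinarith
  have h2 := hD e' T w' q' a' S' hwm'
  have h3 : (B.card : ℝ) ≤ ((A.filter fun t => InSheet (L t) e' T w' q' a' z1 ρ1).card : ℝ) := by
    have : B ⊆ A.filter fun t => InSheet (L t) e' T w' q' a' z1 ρ1 := by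
      intro t ht
      rw [mem_filter]
      exact ⟨hB ht, s7 (L t) (hA t (hB ht)) (hBs t ht)⟩
    exact_mod_cast card_le_card this
  have h4 : R a' (w' 2) (w' 1) ≤ CR * x ^ q2 * R a (w 2) (w 1) :=
    hR a' (w' 2) (w' 1) x s1 s2 s3 s4 hw1' hxp s6
  have hxq : 0 ≤ x ^ q2 := Real.rpow_nonneg hxp.le _
  have h5 : a' * w' 2 * w' 1 * R a' (w' 2) (w' 1) ≤
      (3 * a) * (x * (w 2 * w 1)) * (CR * x ^ q2 * R a (w 2) (w 1)) := by
    have hp : 0 ≤ a' * w' 2 * w' 1 := by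
      have : 0 < a' := by linarith
      have : 0 < w' 1 := by linarith
      positivity
    calc a' * w' 2 * w' 1 * R a' (w' 2) (w' 1) ≤
          a' * w' 2 * w' 1 * (CR * x ^ q2 * R a (w 2) (w 1)) := mul_le_mul_of_nonneg_left h4 hp
      _ ≤ (3 * a) * (x * (w 2 * w 1)) * (CR * x ^ q2 * R a (w 2) (w 1)) := by
          refine mul_le_mul_of_nonneg_right ?_ (by positivity)
          rw [mul_assoc]
          refine mul_le_mul s2 s6 ?_ (by positivity)
          have : 0 < w' 1 := by linarith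
          positivity
  have e1 : x ^ (1 + q2) = x * x ^ q2 := by
    rw [Real.rpow_add hxp, Real.rpow_one]
  calc (B.card : ℝ) ≤ D * (a' * w' 2 * w' 1 * R a' (w' 2) (w' 1)) := h3.trans h2
    _ ≤ D * ((3 * a) * (x * (w 2 * w 1)) * (CR * x ^ q2 * R a (w 2) (w 1))) :=
        mul_le_mul_of_nonneg_left h5 hD0
    _ = _ := by rw [e1]; ring

/-- the reward of the class satisfies the comparison -/
theorem pow_reward {q0 q1 q2 s a w1 w2 : ℝ} (h0 : 0 ≤ q0) (h12 : q2 ≤ q1) (h2 : 0 ≤ q2)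
    (hs : 0 < s) (ha : 0 < a) (hw2 : 0 < w2) (hw1 : 0 < w1) :
    ∀ a' w2' w1' x, a ≤ a' → a' ≤ 3 * a → 0 < w2' → w2' ≤ w1' → w1' ≤ w1 → 0 < x →
      w2' * w1' ≤ x * (w2 * w1) →
      (a' * s) ^ q0 * (w1' * s) ^ q1 * (w2' * s) ^ q2 ≤
        (3 : ℝ) ^ q0 * x ^ q2 * ((a * s) ^ q0 * (w1 * s) ^ q1 * (w2 * s) ^ q2) := by
  intro a' w2' w1' x g1 g2 g3 g4 g5 g6 g7
  have hw1' : 0 < w1' := by linarith
  have ha' : 0 < a' := by linarith
  have t1 : (a' * s) ^ q0 ≤ 3 ^ q0 * (a * s) ^ q0 := by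
    rw [← Real.mul_rpow (by norm_num) (by positivity)]
    exact Real.rpow_le_rpow (by positivity) (by nlinarith) h0
  have t2 : (w1' * s) ^ q1 * (w2' * s) ^ q2 ≤ x ^ q2 * ((w1 * s) ^ q1 * (w2 * s) ^ q2) := by
    have e1 : ∀ u : ℝ, 0 < u → (u * s) ^ q1 = (u * s) ^ (q1 - q2) * (u * s) ^ q2 := by
      intro u hu
      rw [← Real.rpow_add (by positivity)]; congr 1; ring
    rw [e1 w1' hw1', e1 w1 hw1]
    have t3 : (w1' * s) ^ (q1 - q2) ≤ (w1 * s) ^ (q1 - q2) :=
      Real.rpow_le_rpow (by positivity) (mul_le_mul_of_nonneg_right g5 hs.le) (by linarith)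
    have t4 : (w1' * s) ^ q2 * (w2' * s) ^ q2 ≤ x ^ q2 * ((w1 * s) ^ q2 * (w2 * s) ^ q2) := by
      rw [← Real.mul_rpow (by positivity) (by positivity),
        ← Real.mul_rpow (by positivity) (by positivity),
        ← Real.mul_rpow (by positivity) (by positivity)]
      refine Real.rpow_le_rpow (by positivity) ?_ h2
      have := mul_le_mul_of_nonneg_right g7 (by positivity : 0 ≤ s * s)
      linarith
    have p1 : 0 ≤ (w1' * s) ^ (q1 - q2) := by positivity
    have p2 : 0 ≤ x ^ q2 * ((w1 * s) ^ q2 * (w2 * s) ^ q2) := by positivity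
    calc (w1' * s) ^ (q1 - q2) * (w1' * s) ^ q2 * (w2' * s) ^ q2
        = (w1' * s) ^ (q1 - q2) * ((w1' * s) ^ q2 * (w2' * s) ^ q2) := by ring
      _ ≤ (w1 * s) ^ (q1 - q2) * (x ^ q2 * ((w1 * s) ^ q2 * (w2 * s) ^ q2)) :=
          mul_le_mul t3 t4 (by positivity) (by positivity)
      _ = _ := by ring
  calc (a' * s) ^ q0 * (w1' * s) ^ q1 * (w2' * s) ^ q2
      = (a' * s) ^ q0 * ((w1' * s) ^ q1 * (w2' * s) ^ q2) := by ring
    _ ≤ (3 ^ q0 * (a * s) ^ q0) * (x ^ q2 * ((w1 * s) ^ q1 * (w2 * s) ^ q2)) :=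
        mul_le_mul t1 t2 (by positivity) (by positivity)
    _ = _ := by ring

end Crest.Agent.R136.Nd565
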