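import Crest.Agent.R136.Lgt3_989
import Crest.Agent.R136.Nd8_565
import Crest.Agent.R136.KapP_335

/-!
# R136 (S0187), plateau phase: lightlike sub-planks of a sheet (helper989)

* `sub_sheet` : a lightlike strip of a sheet around one of its lines is contained in a sheet of the
  class `C*` with prescribed widths (over a cell 128 times shorter).
* `cover` : **the lines of a turning sheet of type I are covered by `10^26 / (g^4 ω^4)` lightlike
  sub-sheets** with widths `∝ (ω w 1, ω² w 2)` and thickness `3 a`.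
-/

set_option autoImplicit false
set_option linter.unusedVariables false

namespace Crest.Agent.R136.Lgt989

open Finset
open Crest.Agent.R136.Sh605 Crest.Agent.R136.K4
open Crest.Agent.R136.Tl102 (QF Fq bz shB0 shB1 shG scB1 scG kap NrmC IsExp StP fr fan)
open Crest.Agent.R136.Nd565 (sA sB Stp TD GB Ev Rb Wn Cig exists_TD gb_of exists_cig cig_mem mk_sheet
  tilt_pre n_le abs_mul_le2 bl_le bl bl_smul_left bl_smul_right)

variable {e : Fin 3 → V3} {c : Ln4} {w : V3} {q : ℝ → V3 → ℝ} {a z0 ρ r0 : ℝ}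

/-- gradient in the two dictionaries -/
theorem td_exp {T : Ln4} {p r : V3} {H : Fin 3 → Fin 3 → ℝ} (hG : TD q e T p r H) {b0 b1 : V3}
    {G : QF} (hE : IsExp q e w T z0 ρ b0 b1 G) (ζ : ℝ) (x : V3) :
    dt (Nd565.gr p r (z0 + ρ * ζ)) (fun k => w k * x k) = w 0 * dt (bz b0 b1 ζ) x := by
  have key : ∀ x : V3, dt (Nd565.gr p r (z0 + ρ * ζ)) (fun k => w k * x k) +
      bl H (fun k => w k * x k) (fun k => w k * x k) = w 0 * Fq b0 b1 G ζ x := by
    intro x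
    have h1 := hG.exp (z0 + ρ * ζ) (fun k => w k * x k)
    have h2 := hE ζ x
    have e1 : Nd565.cmb e (fun k => w k * x k) = Tl102.cmb (fr e w) x := by
      funext i
      simp only [Nd565.cmb, Tl102.cmb, fr, Pi.add_apply, Pi.smul_apply, smul_eq_mul]; ring
    rw [e1, h2] at h1
    linarith
  have h1 := key x
  have h2 := key (-x)
  have e1 : (fun k => w k * (-x) k) = (-1 : ℝ) • (fun k => w k * x k) := by
    funext k; simp
  rw [e1, dt_smul, bl_smul_left, bl_smul_right] at h2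
  have e2 : Fq b0 b1 G ζ x - Fq b0 b1 G ζ (-x) = 2 * dt (bz b0 b1 ζ) x := by
    simp only [Fq, dt, QF.ev, Pi.neg_apply]; ring
  linear_combination (1 / 2 : ℝ) * h1 - (1 / 2 : ℝ) * h2 + (w 0 / 2) * e2

theorem nAB_sq {b0 b1 : V3} (hm : 0 < mT b0 b1) : nA b0 b1 ^ 2 + nB b0 b1 ^ 2 = 1 := by
  have h : mT b0 b1 ^ 2 = shB1 b0 b1 1 ^ 2 + shB1 b0 b1 2 ^ 2 := by
    unfold mT; exact Real.sq_sqrt (by positivity)
  unfold nA nB
  rw [div_pow, div_pow, ← add_div, ← h, div_self (by positivity)]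

/-- steep component of the direction of the sub-plank -/
noncomputable def yE (w b0 b1 : V3) : ℝ := w 0 * ((b0 1 * nB b0 b1 - b0 2 * nA b0 b1) / b0 0)

/-- the direction of the sub-plank is in the kernel of the gradient at all heights -/
theorem grad_E (hρ : ρ ≠ 0) {T : Ln4} {p r : V3} {H : Fin 3 → Fin 3 → ℝ} (hG : TD q e T p r H)
    {b0 b1 : V3} {G : QF} (hE : IsExp q e w T z0 ρ b0 b1 G) (hb : b0 0 ≠ 0)
    (hm : 0 < mT b0 b1) (z : ℝ) :
    dt (Nd565.gr p r z) (Ev w (nA b0 b1) (nB b0 b1) (yE w b0 b1)) = 0 := by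
  set x : V3 := ![(b0 1 * nB b0 b1 - b0 2 * nA b0 b1) / b0 0, -nB b0 b1, nA b0 b1] with hx
  have e1 : Ev w (nA b0 b1) (nB b0 b1) (yE w b0 b1) = fun k => w k * x k := by
    funext k
    fin_cases k <;> rfl
  have hζ : z0 + ρ * ((z - z0) / ρ) = z := by field_simp; ring
  have h := td_exp hG hE ((z - z0) / ρ) x
  rw [hζ, ← e1] at h
  rw [h]
  have e0 : dt b0 x = 0 := by
    simp only [dt, hx, Matrix.cons_val]; field_simp; ring
  have e2 : dt b1 x = 0 := by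
    have h1 := sh_lat (b0 := b0) (b1 := b1) hb x
    rw [e0, mul_zero, sub_zero] at h1
    rw [← h1]
    have x1 : x 1 = -nB b0 b1 := rfl
    have x2 : x 2 = nA b0 b1 := rfl
    rw [x1, x2]
    unfold nA nB
    field_simp
    ring
  have e3 : dt (bz b0 b1 ((z - z0) / ρ)) x = dt b0 x + (z - z0) / ρ * dt b1 x := by
    simp only [dt, bz]; ring
  rw [e3, e0, e2]; ring

set_option maxHeartbeats 1000000 in
/-- **the sub-sheet around a line** -/
theorem sub_sheet (S : ShN e c w q a z0 ρ r0) (hr : 0 < r0) (hρ : 0 < ρ) {T : Ln4}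
    (hT : InSheet T e c w q a z0 ρ) {b0 b1 : V3} {G : QF} (hE : IsExp q e w T z0 ρ b0 b1 G)
    (hm : 0 < mT b0 b1) {z1 ρ1 : ℝ} (h0 : z0 ≤ z1) (h1 : z1 + ρ1 ≤ z0 + ρ) (hρ1 : 0 < ρ1)
    (h128 : 128 * ρ1 ≤ ρ) {β σ δ K2 : ℝ} (hβ : 0 < β) (hσ : 0 < σ) (hδ : 0 < δ)
    (hnB : δ ≤ |nB b0 b1|) (hK2a : 6220800 * β ^ 2 ≤ K2 * δ ^ 3) (hK2b : 1200 * σ ≤ K2 * δ)
    (hK2c : K2 ≤ 6 * β) (hβ1 : 240000 * β ≤ δ) (ha : a ≤ σ * w 0) (ha3 : 3 * a ≤ K2 * w 0)
    (j : ℤ) :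
    ∃ P : Plk4, ShN P.e P.c P.w P.q P.a z1 ρ1 r0 ∧ P.j = j ∧ P.a = 3 * a ∧
      P.w = ![K2 * w 0, 36 * β * w 1, K2 * w 2] ∧ P.c = T ∧
      ∀ T1 : Ln4, InSheet T1 e c w q a z0 ρ →
        (∀ z, z1 ≤ z → z ≤ z1 + ρ1 → Stp e w T T1 (nA b0 b1) (nB b0 b1) β σ z) →
          InSheet T1 P.e P.c P.w P.q P.a z1 ρ1 := by
  have he := S.ortho
  have hap : 0 < a := by linarith [S.r0_le]
  have hw0 : 0 < w 0 := by linarith [S.a_le0]
  have hw02 := S.w0_le
  have hw2 : 0 < w 2 := by linarith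
  have hw := S.w_le
  have hw1 : 0 < w 1 := by linarith
  have Q := StP.of_shN S hw0
  have N := hE.nrmC Q hρ.le fun z hz hz' => (hT z hz hz').1
  obtain ⟨c1, c2, -⟩ := N.b1_le
  have hb : b0 0 ≠ 0 := by linarith
  obtain ⟨p, r, H, hG⟩ := exists_TD S.isQ e T
  have B := gb_of S hr hρ.le hT hG
  have hn := nAB_sq hm
  have hn' := n_le hn
  have hE0 := grad_E hρ.ne' hG hE hb hm
  set nA' := nA b0 b1 with hnA'
  set nB' := nB b0 b1 with hnB'
  set y := yE w b0 b1 with hy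
  have hy4 : |y| ≤ 4 * w 0 := by
    rw [hy]
    unfold yE
    rw [abs_mul, abs_of_pos hw0, abs_div, abs_of_pos (by linarith : 0 < b0 0)]
    have t1 : |b0 1 * nB'| ≤ 1 * 1 := abs_mul_le2 N.b01 hn'.2
    have t2 : |b0 2 * nA'| ≤ 1 * 1 := abs_mul_le2 N.b02 hn'.1
    have t3 : |b0 1 * nB' - b0 2 * nA'| / b0 0 ≤ 4 := by
      rw [div_le_iff₀ (by linarith)]
      refine (abs_sub _ _).trans ?_
      linarith
    calc w 0 * (|b0 1 * nB' - b0 2 * nA'| / b0 0) ≤ w 0 * 4 := mul_le_mul_of_nonneg_left t3 hw0.le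
      _ = 4 * w 0 := mul_comm _ _
  set E := Ev w nA' nB' y with hEdef
  set L := Real.sqrt (dt E E) with hL
  have hL0 : 0 ≤ L := Real.sqrt_nonneg _
  have hL2 : dt E E = L ^ 2 := (Real.sq_sqrt (Nd565.dt_self_nonneg _)).symm
  have hLL : L ^ 2 = y ^ 2 + w 1 ^ 2 * nB' ^ 2 + w 2 ^ 2 * nA' ^ 2 := by
    rw [← hL2]; simp only [dt, hEdef, Nd565.Ev0, Nd565.Ev1, Nd565.Ev2]; ring
  have L6 : L ≤ 6 * w 1 := by
    have h2 : L ^ 2 ≤ (6 * w 1) ^ 2 := by
      rw [hLL]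
      have a1 : y ^ 2 ≤ (4 * w 0) ^ 2 := by
        rw [← sq_abs]; exact pow_le_pow_left₀ (abs_nonneg _) hy4 2
      have a2 : w 0 ^ 2 ≤ w 1 ^ 2 := pow_le_pow_left₀ hw0.le (by linarith) 2
      have a3 : w 2 ^ 2 ≤ w 1 ^ 2 := pow_le_pow_left₀ hw2.le hw 2
      have a4 : w 2 ^ 2 * nA' ^ 2 ≤ w 1 ^ 2 * nA' ^ 2 := mul_le_mul_of_nonneg_right a3 (sq_nonneg _)
      have a5 : w 1 ^ 2 * nB' ^ 2 + w 1 ^ 2 * nA' ^ 2 = w 1 ^ 2 := by
        rw [← mul_add, add_comm, hn, mul_one]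
      nlinarith [sq_nonneg (w 1)]
    exact (pow_le_pow_iff_left₀ hL0 (by positivity) (by norm_num)).1 h2
  have Lδ : δ * w 1 ≤ L := by
    have h2 : (δ * w 1) ^ 2 ≤ L ^ 2 := by
      rw [hLL]
      have a1 : δ ^ 2 ≤ nB' ^ 2 := by
        rw [← sq_abs nB']; exact pow_le_pow_left₀ hδ.le hnB 2
      have a2 : w 1 ^ 2 * δ ^ 2 ≤ w 1 ^ 2 * nB' ^ 2 := mul_le_mul_of_nonneg_left a1 (sq_nonneg _)
      have a3 : 0 ≤ w 2 ^ 2 * nA' ^ 2 := by positivity
      nlinarith [sq_nonneg y]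
    exact (pow_le_pow_iff_left₀ (by positivity) hL0 (by norm_num)).1 h2
  have hLp : 0 < L := lt_of_lt_of_le (by positivity) Lδ
  have hK2 : 0 < K2 := by
    by_contra hc
    push Not at hc
    have : K2 * δ ≤ 0 := mul_nonpos_of_nonpos_of_nonneg hc hδ.le
    linarith
  -- parameters of the cigar
  set βc := 12 * β * w 1 / L with hβc
  set Kc := K2 * L / (1200 * w 1 * σ) with hKc
  have hβcL : βc * L = 12 * β * w 1 := by rw [hβc]; field_simp
  have hKσ : Kc * σ = K2 * L / (1200 * w 1) := by rw [hKc]; field_simp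
  have hβcp : 0 < βc := by rw [hβc]; positivity
  have hβc1 : βc ≤ 1 / 20000 := by
    rw [hβc, div_le_iff₀ hLp]
    have : 240000 * β * w 1 ≤ L := by
      refine le_trans ?_ Lδ
      exact mul_le_mul_of_nonneg_right hβ1 hw1.le
    linarith
  have hβc2 : 2 * β ≤ βc := by
    rw [hβc, le_div_iff₀ hLp]
    have := mul_le_mul_of_nonneg_left L6 (by positivity : 0 ≤ 2 * β)
    linarith
  have hKc1 : 1 ≤ Kc := by
    rw [hKc, le_div_iff₀ (by positivity), one_mul]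
    have a1 : K2 * (δ * w 1) ≤ K2 * L := mul_le_mul_of_nonneg_left Lδ hK2.le
    have a2 : 1200 * σ * w 1 ≤ K2 * δ * w 1 := mul_le_mul_of_nonneg_right hK2b hw1.le
    linarith
  have hwp : ∀ i, 0 < w i := Q.pos
  have hEE : |bl H E E| ≤ 36 * w 0 := by
    have hx : ∀ i, |E i| ≤ (![4, 1, 1] : V3) i * w i := by
      intro i; fin_cases i
      · exact hy4
      · change |w 1 * -nB'| ≤ 1 * w 1
        rw [abs_mul, abs_neg, abs_of_pos hw1, mul_comm]
        exact mul_le_mul_of_nonneg_right hn'.2 hw1.le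
      · change |w 2 * nA'| ≤ 1 * w 2
        rw [abs_mul, abs_of_pos hw2, mul_comm]
        exact mul_le_mul_of_nonneg_right hn'.1 hw2.le
    have h00 : ∀ i, 0 ≤ (![4, 1, 1] : V3) i := by
      intro i; fin_cases i
      · change (0 : ℝ) ≤ 4; norm_num
      · change (0 : ℝ) ≤ 1; norm_num
      · change (0 : ℝ) ≤ 1; norm_num
    refine (bl_le hwp B.hH ![4, 1, 1] ![4, 1, 1] h00 h00 hx hx).trans (le_of_eq ?_)
    change w 0 * ((4 + 1 + 1) * (4 + 1 + 1)) = 36 * w 0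
    ring
  have R : Rb w p r H z0 ρ nA' nB' y βc (Kc * σ * w 0) := by
    refine ⟨fun z hz hz' => ?_, ?_⟩
    · rw [hE0 z, abs_zero, zero_mul]
      have : 0 < Kc * σ := by rw [hKσ]; positivity
      positivity
    · have a1 : |bl H E E| * βc ^ 2 ≤ 36 * w 0 * βc ^ 2 :=
        mul_le_mul_of_nonneg_right hEE (sq_nonneg _)
      refine a1.trans ?_
      rw [hKσ]
      have a2 : 36 * βc ^ 2 ≤ K2 * L / (1200 * w 1) := by
        rw [le_div_iff₀ (by positivity), hβc, div_pow]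
        rw [mul_div_assoc', div_mul_eq_mul_div, div_le_iff₀ (by positivity)]
        have a3 : (δ * w 1) ^ 3 ≤ L ^ 3 := pow_le_pow_left₀ (by positivity) Lδ 3
        have a4 : 6220800 * β ^ 2 * w 1 ^ 3 ≤ K2 * δ ^ 3 * w 1 ^ 3 :=
          mul_le_mul_of_nonneg_right hK2a (by positivity)
        have a5 : K2 * (δ * w 1) ^ 3 ≤ K2 * L ^ 3 := mul_le_mul_of_nonneg_left a3 hK2.le
        calc 36 * (12 * β * w 1) ^ 2 * (1200 * w 1) = 6220800 * β ^ 2 * w 1 ^ 3 := by ring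
          _ ≤ K2 * δ ^ 3 * w 1 ^ 3 := a4
          _ = K2 * (δ * w 1) ^ 3 := by ring
          _ ≤ K2 * L ^ 3 := a5
          _ = K2 * L * L ^ 2 := by ring
      calc 36 * w 0 * βc ^ 2 = 36 * βc ^ 2 * w 0 := by ring
        _ ≤ K2 * L / (1200 * w 1) * w 0 := mul_le_mul_of_nonneg_right a2 hw0.le
  have ht : 400 * (Kc * σ) * w 1 ≤ βc * L := by
    rw [hKσ, hβcL]
    have e1 : 400 * (K2 * L / (1200 * w 1)) * w 1 = K2 * L / 3 := by field_simp; ring
    rw [e1]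
    have a1 : K2 * L ≤ K2 * (6 * w 1) := mul_le_mul_of_nonneg_left L6 hK2.le
    have a2 : K2 * (6 * w 1) ≤ 6 * β * (6 * w 1) := mul_le_mul_of_nonneg_right hK2c (by positivity)
    linarith
  obtain ⟨m, lam, C⟩ := exists_cig (ρ1 := ρ1) hw0 hw02 hw B h0 h1 hρ1.le h128 hG.symm hn R hβcp
    hβc1 hσ hKc1 hL0 hL2 ht
  have lam0 : 0 < lam := by linarith [C.lam_ge]
  -- widths
  have W0e : Wn w βc σ Kc L 0 = K2 * w 0 := by
    rw [Nd565.Wn0, hKσ]; field_simp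
  have W1e : Wn w βc σ Kc L 1 = 36 * β * w 1 := by
    rw [Nd565.Wn1]
    have : 3 * βc * L = 3 * (βc * L) := by ring
    rw [this, hβcL]; ring
  have W2e : Wn w βc σ Kc L 2 = K2 * w 2 := by
    rw [Nd565.Wn2, hKσ]; field_simp
  have Weq : Wn w βc σ Kc L = ![K2 * w 0, 36 * β * w 1, K2 * w 2] := by
    funext i; fin_cases i
    · exact W0e
    · exact W1e
    · exact W2e
  have hWW : K2 * w 2 ≤ 36 * β * w 1 := by
    have a1 : K2 * w 2 ≤ 6 * β * w 2 := mul_le_mul_of_nonneg_right hK2c hw2.le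
    have a2 : 6 * β * w 2 ≤ 6 * β * w 1 := mul_le_mul_of_nonneg_left hw (by positivity)
    have a3 : 0 < β * w 1 := by positivity
    linarith
  refine ⟨⟨j, fun i => Nd565.cmb e (m i), T, ![K2 * w 0, 36 * β * w 1, K2 * w 2],
    fun z x => q z x / lam, 3 * a⟩, ?_, rfl, rfl, rfl, rfl, ?_⟩
  · refine mk_sheet he S.isQ hG C.ortho lam0 (by positivity) (by positivity) ha3
      (mul_le_mul_of_nonneg_left hw02 hK2.le) hWW (by linarith [S.r0_le]) ?_
    intro z hz hz' U U' hU hU'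
    have := C.bd z hz hz' U U' (by rw [Weq]; exact hU) (by rw [Weq]; exact hU')
    rw [W0e, W1e, W2e] at this
    exact this
  · intro T1 hT1 hst z hz hz'
    have hz0 : z0 ≤ z := by linarith
    have hz1 : z ≤ z0 + ρ := by linarith
    obtain ⟨g1, g2, g3⟩ := hst z hz hz'
    set sa := sA e w T T1 z with hsa
    set sb := sB e w T T1 z with hsb
    have ea : dt (e 1) (T1.pos z - T.pos z) = w 1 * sa := by
      rw [hsa]; unfold sA; field_simp
    have eb : dt (e 2) (T1.pos z - T.pos z) = w 2 * sb := by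
      rw [hsb]; unfold sB; field_simp
    have hα : |-nB' * sa + nA' * sb| ≤ βc := by
      have t1 : |-nB' * sa| ≤ 1 * β := abs_mul_le2 (by rw [abs_neg]; exact hn'.2) g1
      have t2 : |nA' * sb| ≤ 1 * β := abs_mul_le2 hn'.1 g2
      refine (abs_add_le _ _).trans ?_
      linarith
    have key := cig_mem S hr hT hT1 hG B hn R hβcp hβc1 hσ hKc1 ha hL0 hρ.le hL2 ht h0
      (by linarith) C hz0 hz1 hα g3
      (by rw [ea]; linear_combination (-(w 1 * sa)) * hn)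
      (by rw [eb]; linear_combination (-(w 2 * sb)) * hn)
    rw [Weq] at key
    constructor
    · intro i
      change |dt (Nd565.cmb e (m i)) (T1.pos z - T.pos z)| ≤ _
      rw [Nd565.dt_cmb]; exact key i
    · change |q z (T1.pos z) / lam| ≤ 3 * a
      rw [abs_div, abs_of_pos lam0, div_le_iff₀ lam0]
      have := (hT1 z hz0 hz1).2
      have h3 : 3 * a * 0.49 ≤ 3 * a * lam := mul_le_mul_of_nonneg_left C.lam_ge (by positivity)
      linarith

/-- width constants of the sub-sheets -/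
noncomputable def cN (g δ ω : ℝ) : ℝ := 300000000000 * ω ^ 2 / (g ^ 3 * δ ^ 3)

/-- width constants of the sub-sheets -/
noncomputable def cW (g ω : ℝ) : ℝ := 6804 * ω / g

/-- **cover of a turning sheet of type I by lightlike sub-sheets.** -/
theorem cover {ι : Type*} (A : Finset ι) (L : ι → Ln4) (S : ShN e c w q a z0 ρ r0) (hr : 0 < r0)
    (hρ : 0 < ρ) (hA : ∀ t ∈ A, InSheet (L t) e c w q a z0 ρ) {g δ ω : ℝ} (g0 : 0 < g)
    (g1 : g ≤ 1) (δ0 : 0 < δ) (δ1 : δ ≤ 1) (ω0 : 0 < ω) (hω : 1000000000 * ω ≤ g ^ 2 * δ ^ 3)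
    (hnd : ∀ t ∈ A, ∃ b0 b1 G, IsExp q e w (L t) z0 ρ b0 b1 G ∧ 0 < kap b0 b1 G ∧
      g * kap b0 b1 G ^ 2 ≤ shB1 b0 b1 1 ^ 2 + shB1 b0 b1 2 ^ 2 ∧
      110000 * a ≤ g * (w 0 * kap b0 b1 G) ∧ 16 * a ≤ ω ^ 2 * (w 0 * kap b0 b1 G) ∧
      δ * mT b0 b1 ≤ |shB1 b0 b1 2|)
    {z1 ρ1 : ℝ} (h0 : z0 ≤ z1) (h1 : z1 + ρ1 ≤ z0 + ρ) (hρ1 : 0 < ρ1) (h128 : 128 * ρ1 ≤ ρ)
    (j : ℤ) :
    ∃ (lab : ι → ℕ) (N : ℕ) (P : ℕ → Plk4), (∀ t ∈ A, lab t < N) ∧
      (N : ℝ) ≤ 10 ^ 26 / (g ^ 4 * ω ^ 4) ∧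
      ∀ t ∈ A, InSheet (L t) (P (lab t)).e (P (lab t)).c (P (lab t)).w (P (lab t)).q (P (lab t)).a
          z1 ρ1 ∧
        ShN (P (lab t)).e (P (lab t)).c (P (lab t)).w (P (lab t)).q (P (lab t)).a z1 ρ1 r0 ∧
        (P (lab t)).j = j ∧ (P (lab t)).a = 3 * a ∧
        (P (lab t)).w = ![cN g δ ω * w 0, cW g ω * w 1, cN g δ ω * w 2] ∧
        ∃ t' ∈ A, lab t' = lab t ∧ (P (lab t)).c = L t' := by
  classical
  have hap : 0 < a := by linarith [S.r0_le]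
  have hw0 : 0 < w 0 := by linarith [S.a_le0]
  have Q := StP.of_shN S hw0
  have gd : g ^ 2 * δ ^ 3 ≤ 1 := by
    have a1 : g ^ 2 ≤ 1 := pow_le_one₀ g0.le g1
    have a2 : δ ^ 3 ≤ 1 := pow_le_one₀ δ0.le δ1
    calc g ^ 2 * δ ^ 3 ≤ 1 * 1 := mul_le_mul a1 a2 (by positivity) zero_le_one
      _ = 1 := one_mul _
  have ω1 : ω ≤ 1 := by linarith
  rcases A.eq_empty_or_nonempty with hemp | hne
  · subst hemp
    refine ⟨fun _ => 0, 0, fun _ => ⟨0, e, c, w, q, a⟩, by simp, ?_, by simp⟩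
    rw [Nat.cast_zero]; positivity
  obtain ⟨lab, N, hlab, hN, hst⟩ := labels A L S hr hρ hA g0 g1 ω0 ω1 fun t ht => by
    obtain ⟨b0, b1, G, k1, k2, k3, k4, k5, -⟩ := hnd t ht
    exact ⟨b0, b1, G, k1, k2, k3, k4, k5⟩
  obtain ⟨ref, href⟩ := exists_ref A hne lab
  have hβ : 0 < 189 * ω / g := by positivity
  have hσ : 0 < 6000000 * ω ^ 2 / g ^ 3 := by positivity
  have hsub : ∀ t ∈ A, ∃ P : Plk4, ShN P.e P.c P.w P.q P.a z1 ρ1 r0 ∧ P.j = j ∧ P.a = 3 * a ∧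
      P.w = ![cN g δ ω * w 0, cW g ω * w 1, cN g δ ω * w 2] ∧ P.c = L t ∧
      ∀ t' ∈ A, lab t = lab t' → InSheet (L t') P.e P.c P.w P.q P.a z1 ρ1 := by
    intro t ht
    obtain ⟨b0, b1, G, k1, k2, k3, k4, k5, k6⟩ := hnd t ht
    have hm : 0 < mT b0 b1 := (hst t ht t ht rfl b0 b1 G k1).1
    have hnB : δ ≤ |nB b0 b1| := by
      unfold nB
      rw [abs_div, abs_of_pos hm, le_div_iff₀ hm]; exact k6
    have Nn := k1.nrmC Q hρ.le fun z hz hz' => (hA t ht z hz hz').1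
    have hk13 := Tl102.kap_le Nn
    have ω2 : 0 < ω ^ 2 := by positivity
    have g3 : g ^ 3 ≤ 1 := pow_le_one₀ g0.le g1
    have δ3 : δ ^ 3 ≤ 1 := pow_le_one₀ δ0.le δ1
    have a16 : 16 * a ≤ 13 * (ω ^ 2 * w 0) := by
      calc 16 * a ≤ ω ^ 2 * (w 0 * kap b0 b1 G) := k5
        _ ≤ ω ^ 2 * (w 0 * 13) := by gcongr
        _ = 13 * (ω ^ 2 * w 0) := by ring
    have i1 : ω ^ 2 ≤ ω ^ 2 / g ^ 3 := by
      rw [le_div_iff₀ (by positivity)]
      calc ω ^ 2 * g ^ 3 ≤ ω ^ 2 * 1 := mul_le_mul_of_nonneg_left g3 ω2.le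
        _ = ω ^ 2 := mul_one _
    have i2 : ω ^ 2 ≤ ω ^ 2 / (g ^ 3 * δ ^ 3) := by
      rw [le_div_iff₀ (by positivity)]
      calc ω ^ 2 * (g ^ 3 * δ ^ 3) ≤ ω ^ 2 * (1 * 1) := by gcongr
        _ = ω ^ 2 := by ring
    obtain ⟨P, p1, p2, p3, p4, p5, p6⟩ := sub_sheet S hr hρ (hA t ht) k1 hm h0 h1 hρ1 h128
      (β := 189 * ω / g) (σ := 6000000 * ω ^ 2 / g ^ 3) (δ := δ) (K2 := cN g δ ω) hβ hσ δ0 hnB
      (by
        unfold cN
        have e1 : 300000000000 * ω ^ 2 / (g ^ 3 * δ ^ 3) * δ ^ 3 =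
            300000000000 * (ω ^ 2 / g ^ 3) := by field_simp
        have e2 : 6220800 * (189 * ω / g) ^ 2 = 222212556800 * (ω ^ 2 / g ^ 2) +
            640000 * (ω ^ 2 / g ^ 2) := by ring
        rw [e1, e2]
        have i3 : ω ^ 2 / g ^ 2 ≤ ω ^ 2 / g ^ 3 := by
          rw [div_le_div_iff₀ (by positivity) (by positivity)]
          have : g ^ 3 ≤ g ^ 2 := pow_le_pow_of_le_one g0.le g1 (by norm_num)
          exact mul_le_mul_of_nonneg_left this ω2.le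
        have i4 : 0 < ω ^ 2 / g ^ 3 := by positivity
        linarith)
      (by
        unfold cN
        have e1 : 300000000000 * ω ^ 2 / (g ^ 3 * δ ^ 3) * δ =
            300000000000 * (ω ^ 2 / (g ^ 3 * δ ^ 2)) := by field_simp
        have e2 : 1200 * (6000000 * ω ^ 2 / g ^ 3) = 7200000000 * (ω ^ 2 / g ^ 3) := by ring
        rw [e1, e2]
        have i3 : ω ^ 2 / g ^ 3 ≤ ω ^ 2 / (g ^ 3 * δ ^ 2) := by
          rw [div_le_div_iff₀ (by positivity) (by positivity)]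
          have : δ ^ 2 ≤ 1 := pow_le_one₀ δ0.le δ1
          have h5 : g ^ 3 * δ ^ 2 ≤ g ^ 3 := by
            calc g ^ 3 * δ ^ 2 ≤ g ^ 3 * 1 := mul_le_mul_of_nonneg_left this (by positivity)
              _ = g ^ 3 := mul_one _
          exact mul_le_mul_of_nonneg_left h5 ω2.le
        have i4 : 0 < ω ^ 2 / g ^ 3 := by positivity
        linarith)
      (by
        unfold cN
        rw [div_le_iff₀ (by positivity)]
        have e1 : 6 * (189 * ω / g) * (g ^ 3 * δ ^ 3) = 1134 * ω * (g ^ 2 * δ ^ 3) := by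
          field_simp; ring
        rw [e1]
        have h5 : 1134 * ω * (1000000000 * ω) ≤ 1134 * ω * (g ^ 2 * δ ^ 3) :=
          mul_le_mul_of_nonneg_left hω (by positivity)
        nlinarith)
      (by
        have e1 : 240000 * (189 * ω / g) = 45360000 * ω / g := by ring
        rw [e1, div_le_iff₀ g0]
        have a1 : g ^ 2 ≤ g := by nlinarith
        have a2 : δ ^ 3 ≤ δ := by
          calc δ ^ 3 = δ ^ 2 * δ := by ring
            _ ≤ 1 * δ := mul_le_mul_of_nonneg_right (pow_le_one₀ δ0.le δ1) δ0.le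
            _ = δ := one_mul _
        have a3 : g ^ 2 * δ ^ 3 ≤ g * δ := mul_le_mul a1 a2 (by positivity) g0.le
        nlinarith)
      (by
        have e1 : 6000000 * ω ^ 2 / g ^ 3 * w 0 = 6000000 * (ω ^ 2 / g ^ 3 * w 0) := by ring
        rw [e1]
        have i5 : ω ^ 2 * w 0 ≤ ω ^ 2 / g ^ 3 * w 0 := mul_le_mul_of_nonneg_right i1 hw0.le
        have : 0 < ω ^ 2 * w 0 := by positivity
        linarith)
      (by
        unfold cN
        have e1 : 300000000000 * ω ^ 2 / (g ^ 3 * δ ^ 3) * w 0 =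
            300000000000 * (ω ^ 2 / (g ^ 3 * δ ^ 3) * w 0) := by ring
        rw [e1]
        have i5 : ω ^ 2 * w 0 ≤ ω ^ 2 / (g ^ 3 * δ ^ 3) * w 0 :=
          mul_le_mul_of_nonneg_right i2 hw0.le
        have : 0 < ω ^ 2 * w 0 := by positivity
        linarith)
      j
    refine ⟨P, p1, p2, p3, ?_, p5, ?_⟩
    · rw [p4]
      have : 36 * (189 * ω / g) = cW g ω := by unfold cW; ring
      rw [this]
    · intro t' ht' htt
      refine p6 (L t') (hA t' ht') fun z hz hz' => ?_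
      exact (hst t ht t' ht' htt b0 b1 G k1).2 z (by linarith) (by linarith)
  have : Nonempty Plk4 := ⟨⟨0, e, c, w, q, a⟩⟩
  choose! Pf hPf using hsub
  refine ⟨lab, N, fun i => Pf (ref i), hlab, hN, fun t ht => ?_⟩
  obtain ⟨r1, r2⟩ := href t ht
  obtain ⟨s1, s2, s3, s4, s5, s6⟩ := hPf _ r1
  exact ⟨s6 t ht r2, s1, s2, s3, s4, ref (lab t), r1, r2, s5⟩

end Crest.Agent.R136.Lgt989
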