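import Crest.Agent.R136.Lgt4_989
import Crest.Agent.R136.Sh3_605

/-!
# R136 (S0187), plateau phase: types and flat narrowing (helper989)

* `turn_of_det` : non-degeneracy (`DetP`) gives the turning hypothesis of `cover`.
* `cover_bad` : the lines of a turning sheet whose turning covector is transversal to the wide
  direction up to `μ` are covered by `10^26 / (g^4 μ^4)` sub-sheets with the same frame and widths
  `∝ (μ² w 1, μ w 2)` (same cell).
* `flat_cover` : every sheet is covered by `(8 / ω)^2` sub-sheets with the same frame and widths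
  `(ω w 1, w 2)`.
-/

set_option autoImplicit false
set_option linter.unusedVariables false

namespace Crest.Agent.R136.Lgt989

open Finset
open Crest.Agent.R136.Sh605 Crest.Agent.R136.K4
open Crest.Agent.R136.Tl102 (QF Fq bz shB0 shB1 shG scB1 scG kap NrmC IsExp StP fr fan slp)
open Crest.Agent.R136.Nd565 (sA sB Stp same_frame same_mem abs_mul_le2)
open Crest.Agent.R136.KapP335 (DetP kapP detP_iff kapP_eq expP_spec)

variable {e : Fin 3 → V3} {c : Ln4} {w : V3} {q : ℝ → V3 → ℝ} {a z0 ρ r0 : ℝ}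

/-- the determinant of the fan at the beginning of the cell -/
theorem turn_of_det {b0 b1 : V3} {G : QF} (N : NrmC b0 b1 G) (hκ : 0 < kap b0 b1 G) {δ : ℝ}
    (h : δ ≤ |Arc880.det3 (fan (shB0 b0) (scB1 (kap b0 b1 G) b0 b1) (scG (kap b0 b1 G) b0 G) 0)|) :
    δ * kap b0 b1 G ^ 2 ≤ shB1 b0 b1 1 ^ 2 + shB1 b0 b1 2 ^ 2 := by
  obtain ⟨s1, s2, s3, s4, s5, s6, s7, s8, s9, s10⟩ := N.sc_le hκ
  set κ := kap b0 b1 G with hκd
  set γ := scB1 κ b0 b1 with hγ
  set M := scG κ b0 G with hM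
  have l1 : slp (shB0 b0) γ 1 0 = 0 := by
    have : (shB0 b0) 1 = 0 := rfl
    simp only [slp, this, zero_mul, add_zero, neg_zero, zero_div]
  have l2 : slp (shB0 b0) γ 2 0 = 0 := by
    have : (shB0 b0) 2 = 0 := rfl
    simp only [slp, this, zero_mul, add_zero, neg_zero, zero_div]
  have e1 : Arc880.det3 (fan (shB0 b0) γ M 0) =
      (γ 1 * γ 2 * M.uv - γ 1 ^ 2 * M.vv - γ 2 ^ 2 * M.uu) / 16777216 := by
    simp only [Arc880.det3, fan, l1, l2, Matrix.cons_val]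
    ring
  rw [e1] at h
  have h2 : |(γ 1 * γ 2 * M.uv - γ 1 ^ 2 * M.vv - γ 2 ^ 2 * M.uu) / 16777216| ≤
      γ 1 ^ 2 + γ 2 ^ 2 := by
    rw [abs_div, abs_of_pos (by norm_num : (0 : ℝ) < 16777216), div_le_iff₀ (by norm_num)]
    have t1 : |γ 1 * γ 2 * M.uv| ≤ (γ 1 ^ 2 + γ 2 ^ 2) * 1 := by
      refine abs_mul_le2 ?_ s9
      rw [abs_mul]
      nlinarith [sq_nonneg (|γ 1| - |γ 2|), sq_abs (γ 1), sq_abs (γ 2), sq_nonneg (γ 1),
        sq_nonneg (γ 2)]
    have t2 : |γ 1 ^ 2 * M.vv| ≤ γ 1 ^ 2 * 1 :=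
      abs_mul_le2 (by rw [abs_of_nonneg (sq_nonneg _)]) s10
    have t3 : |γ 2 ^ 2 * M.uu| ≤ γ 2 ^ 2 * 1 :=
      abs_mul_le2 (by rw [abs_of_nonneg (sq_nonneg _)]) s8
    have t4 := abs_sub (γ 1 * γ 2 * M.uv - γ 1 ^ 2 * M.vv) (γ 2 ^ 2 * M.uu)
    have t5 := abs_sub (γ 1 * γ 2 * M.uv) (γ 1 ^ 2 * M.vv)
    nlinarith [sq_nonneg (γ 1), sq_nonneg (γ 2)]
  have h3 : δ ≤ γ 1 ^ 2 + γ 2 ^ 2 := h.trans h2
  have e2 : γ 1 ^ 2 + γ 2 ^ 2 = (shB1 b0 b1 1 ^ 2 + shB1 b0 b1 2 ^ 2) / κ ^ 2 := by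
    change (shB1 b0 b1 1 / κ) ^ 2 + (shB1 b0 b1 2 / κ) ^ 2 = _
    rw [div_pow, div_pow, ← add_div]
  rw [e2, le_div_iff₀ (by positivity)] at h3
  exact h3

/-- `DetP` in the form used by `cover` -/
theorem exp_of_detP {S : Plk4} {r0 : ℝ} (hS : ShN S.e S.c S.w S.q S.a z0 ρ r0) (hr : 0 < r0)
    (hρ : 0 < ρ) {T : Ln4} (hT : InSheet T S.e S.c S.w S.q S.a z0 ρ) {δ : ℝ}
    (hd : DetP δ S z0 ρ T) (hk : 0 < kapP S z0 ρ T) :
    ∃ b0 b1 G, IsExp S.q S.e S.w T z0 ρ b0 b1 G ∧ 0 < kap b0 b1 G ∧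
      δ * kap b0 b1 G ^ 2 ≤ shB1 b0 b1 1 ^ 2 + shB1 b0 b1 2 ^ 2 ∧
      kapP S z0 ρ T = S.w 0 * kap b0 b1 G := by
  have hap : 0 < S.a := by linarith [hS.r0_le]
  have hw0 : 0 < S.w 0 := by linarith [hS.a_le0]
  have Q := StP.of_shN hS hw0
  have hE := expP_spec hS.isQ hw0.ne' z0 ρ T
  have N := hE.nrmC Q hρ.le fun z hz hz' => (hT z hz hz').1
  have hk' := kapP_eq hw0.ne' hE
  rw [hk'] at hk
  have hκ : 0 < kap (KapP335.expP S z0 ρ T).1 (KapP335.expP S z0 ρ T).2.1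
      (KapP335.expP S z0 ρ T).2.2 := by
    by_contra hc
    push Not at hc
    have := mul_nonpos_of_nonneg_of_nonpos hw0.le hc
    linarith
  exact ⟨_, _, _, hE, hκ, turn_of_det N hκ ((detP_iff hw0.ne' hE δ).1 hd 0 le_rfl zero_le_one), hk'⟩

/-- width constants -/
noncomputable def c1B (g μ : ℝ) : ℝ := 13000000 * μ ^ 2 / g ^ 3

/-- width constants -/
noncomputable def c2B (g μ : ℝ) : ℝ := 2268 * μ / g

/-- **lines of the wrong type** -/
theorem cover_bad {ι : Type*} (A : Finset ι) (L : ι → Ln4) (S : ShN e c w q a z0 ρ r0)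
    (hr : 0 < r0) (hρ : 0 < ρ) (hA : ∀ t ∈ A, InSheet (L t) e c w q a z0 ρ) {g μ : ℝ} (g0 : 0 < g)
    (g1 : g ≤ 1) (μ0 : 0 < μ) (hμ : 10000 * μ ≤ g ^ 2) (hww : w 2 ≤ μ * w 1)
    (hnd : ∀ t ∈ A, ∃ b0 b1 G, IsExp q e w (L t) z0 ρ b0 b1 G ∧ 0 < kap b0 b1 G ∧
      g * kap b0 b1 G ^ 2 ≤ shB1 b0 b1 1 ^ 2 + shB1 b0 b1 2 ^ 2 ∧
      110000 * a ≤ g * (w 0 * kap b0 b1 G) ∧ 16 * a ≤ μ ^ 2 * (w 0 * kap b0 b1 G) ∧
      g * |shB1 b0 b1 2| ≤ μ * mT b0 b1) (j : ℤ) :
    ∃ (lab : ι → ℕ) (N : ℕ) (P : ℕ → Plk4), (∀ t ∈ A, lab t < N) ∧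
      (N : ℝ) ≤ 10 ^ 26 / (g ^ 4 * μ ^ 4) ∧
      ∀ t ∈ A, InSheet (L t) (P (lab t)).e (P (lab t)).c (P (lab t)).w (P (lab t)).q (P (lab t)).a
          z0 ρ ∧
        ShN (P (lab t)).e (P (lab t)).c (P (lab t)).w (P (lab t)).q (P (lab t)).a z0 ρ r0 ∧
        (P (lab t)).j = j ∧ (P (lab t)).a = a ∧
        (P (lab t)).w = ![c2B g μ * w 0, c1B g μ * w 1, c2B g μ * w 2] := by
  classical
  have hap : 0 < a := by linarith [S.r0_le]
  have hw0 : 0 < w 0 := by linarith [S.a_le0]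
  have hw2 : 0 < w 2 := by linarith [S.w0_le]
  have hw1 : 0 < w 1 := by linarith [S.w_le]
  have Q := StP.of_shN S hw0
  have g2 : g ^ 2 ≤ g := by nlinarith
  have μg : 10000 * μ ≤ g := hμ.trans g2
  have μ1 : μ ≤ 1 := by linarith
  rcases A.eq_empty_or_nonempty with hemp | hne
  · subst hemp
    refine ⟨fun _ => 0, 0, fun _ => ⟨0, e, c, w, q, a⟩, by simp, ?_, by simp⟩
    rw [Nat.cast_zero]; positivity
  obtain ⟨lab, N, hlab, hN, hst⟩ := labels A L S hr hρ hA g0 g1 μ0 μ1 fun t ht => by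
    obtain ⟨b0, b1, G, k1, k2, k3, k4, k5, -⟩ := hnd t ht
    exact ⟨b0, b1, G, k1, k2, k3, k4, k5⟩
  obtain ⟨ref, href⟩ := exists_ref A hne lab
  set β : ℝ := 189 * μ / g with hβ
  have hβ0 : 0 < β := by positivity
  have hβ1 : 24 * β ≤ 1 := by
    rw [hβ]
    have e1 : 24 * (189 * μ / g) = 4536 * μ / g := by ring
    rw [e1, div_le_iff₀ g0]; linarith
  have hc2 : c2B g μ = 12 * β := by unfold c2B; rw [hβ]; ring
  have hc1 : 0 < c1B g μ := by unfold c1B; positivity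
  have hc12 : c1B g μ ≤ c2B g μ := by
    unfold c1B c2B
    rw [div_le_div_iff₀ (by positivity) g0]
    have h1 : 13000000 * μ ^ 2 * g = 1300 * μ * (10000 * μ) * g := by ring
    rw [h1]
    calc 1300 * μ * (10000 * μ) * g ≤ 1300 * μ * g ^ 2 * g := by gcongr
      _ ≤ 2268 * μ * g ^ 3 := by
        have : 0 < μ * g ^ 3 := by positivity
        have e2 : 1300 * μ * g ^ 2 * g = 1300 * (μ * g ^ 3) := by ring
        have e3 : 2268 * μ * g ^ 3 = 2268 * (μ * g ^ 3) := by ring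
        rw [e2, e3]; linarith
  have hcw : c2B g μ * w 2 ≤ c1B g μ * w 1 := by
    have h1 : c2B g μ * w 2 ≤ c2B g μ * (μ * w 1) :=
      mul_le_mul_of_nonneg_left hww (by rw [hc2]; positivity)
    refine h1.trans ?_
    unfold c1B c2B
    have i3 : μ ^ 2 / g ≤ μ ^ 2 / g ^ 3 := by
      rw [div_le_div_iff₀ g0 (by positivity)]
      have : g ^ 3 ≤ g := by nlinarith
      exact mul_le_mul_of_nonneg_left this (by positivity)
    have e1 : 2268 * μ / g * (μ * w 1) = 2268 * (μ ^ 2 / g) * w 1 := by ring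
    have e2 : 13000000 * μ ^ 2 / g ^ 3 * w 1 = 13000000 * (μ ^ 2 / g ^ 3) * w 1 := by ring
    rw [e1, e2]
    refine mul_le_mul_of_nonneg_right ?_ hw1.le
    have : 0 < μ ^ 2 / g := by positivity
    linarith
  refine ⟨lab, N, fun i => ⟨j, e, L (ref i), ![c2B g μ * w 0, c1B g μ * w 1, c2B g μ * w 2], q, a⟩,
    hlab, hN, fun t ht => ?_⟩
  obtain ⟨r1, r2⟩ := href t ht
  obtain ⟨b0, b1, G, k1, k2, k3, k4, k5, k6⟩ := hnd _ r1
  obtain ⟨hm, hstp⟩ := hst _ r1 t ht r2 b0 b1 G k1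
  have Nn := k1.nrmC Q hρ.le fun z hz hz' => (hA _ r1 z hz hz').1
  have hk13 := Tl102.kap_le Nn
  have ha' : a ≤ β * w 0 := by
    have a1 : 16 * a ≤ 13 * (μ ^ 2 * w 0) := by
      calc 16 * a ≤ μ ^ 2 * (w 0 * kap b0 b1 G) := k5
        _ ≤ μ ^ 2 * (w 0 * 13) := by gcongr
        _ = 13 * (μ ^ 2 * w 0) := by ring
    have a2 : μ ^ 2 ≤ β := by
      rw [hβ, le_div_iff₀ g0]
      nlinarith
    have a3 := mul_le_mul_of_nonneg_right a2 hw0.le
    linarith [mul_pos hβ0 hw0]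
  refine ⟨?_, ?_, rfl, rfl, rfl⟩
  · change InSheet (L t) e (L (ref (lab t))) ![c2B g μ * w 0, c1B g μ * w 1, c2B g μ * w 2] q a z0 ρ
    have := same_mem S hr hρ.le (hA _ r1) (hA t ht) (A1 := c1B g μ) (β := β) (z1 := z0) (ρ1 := ρ)
      hβ0 (by linarith) ha' le_rfl le_rfl ?_
    · rw [hc2]; exact this
    · intro z hz hz'
      obtain ⟨s1, s2, s3⟩ := hstp z hz hz'
      refine ⟨s1, ?_, s2⟩
      -- `|nB| ≤ μ / g`
      have hn := nAB_sq hm
      have hnB : |nB b0 b1| ≤ μ / g := by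
        unfold nB
        rw [abs_div, abs_of_pos hm, div_le_div_iff₀ hm g0]
        linarith
      have hμg : μ / g ≤ 1 / 2 := by
        rw [div_le_iff₀ g0]; linarith
      have hnA : 1 / 2 ≤ |nA b0 b1| := by
        have h1 : nB b0 b1 ^ 2 ≤ (1 / 2) ^ 2 := by
          rw [← sq_abs]; exact pow_le_pow_left₀ (abs_nonneg _) (hnB.trans hμg) 2
        have h2 : (1 / 2) ^ 2 ≤ |nA b0 b1| ^ 2 := by
          rw [sq_abs]; nlinarith
        exact (pow_le_pow_iff_left₀ (by norm_num) (abs_nonneg _) (by norm_num)).1 h2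
      set x := sA e w (L (ref (lab t))) (L t) z with hx
      set y := sB e w (L (ref (lab t))) (L t) z with hy
      have h3 : |nA b0 b1 * x| ≤ 6000000 * μ ^ 2 / g ^ 3 + μ / g * (189 * μ / g) := by
        have e1 : nA b0 b1 * x = (nA b0 b1 * x + nB b0 b1 * y) - nB b0 b1 * y := by ring
        rw [e1]
        exact (abs_sub _ _).trans (add_le_add s3 (abs_mul_le2 hnB s2))
      rw [abs_mul] at h3
      have h4 : 1 / 2 * |x| ≤ |nA b0 b1| * |x| := mul_le_mul_of_nonneg_right hnA (abs_nonneg _)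
      unfold c1B
      have i3 : μ ^ 2 / g ^ 2 ≤ μ ^ 2 / g ^ 3 := by
        rw [div_le_div_iff₀ (by positivity) (by positivity)]
        have : g ^ 3 ≤ g ^ 2 := pow_le_pow_of_le_one g0.le g1 (by norm_num)
        exact mul_le_mul_of_nonneg_left this (by positivity)
      have e5 : μ / g * (189 * μ / g) = 189 * (μ ^ 2 / g ^ 2) := by field_simp
      have e6 : 6000000 * μ ^ 2 / g ^ 3 = 6000000 * (μ ^ 2 / g ^ 3) := by ring
      have e7 : 13000000 * μ ^ 2 / g ^ 3 = 13000000 * (μ ^ 2 / g ^ 3) := by ring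
      rw [e5, e6] at h3
      rw [e7]
      have : 0 < μ ^ 2 / g ^ 3 := by positivity
      linarith
  · exact same_frame S hr (hA _ r1) hc1 hc12 (by rw [hc2]; linarith) hcw
      (by rw [hc2]; linarith [mul_pos hβ0 hw0]) le_rfl le_rfl

/-- centre of the narrowed box: wide coordinate of `T`, the others of `c` -/
def ctW (e : Fin 3 → V3) (c T : Ln4) : Ln4 where
  p := fun i => c.p i + dt (e 1) (T.p - c.p) * e 1 i
  v := fun i => c.v i + dt (e 1) (T.v - c.v) * e 1 i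

theorem ctW_pos (e : Fin 3 → V3) (c T : Ln4) (z : ℝ) :
    (ctW e c T).pos z = c.pos z + dt (e 1) (T.pos z - c.pos z) • e 1 := by
  funext i
  simp only [ctW, Ln4.pos, dt, Pi.add_apply, Pi.sub_apply, Pi.smul_apply, smul_eq_mul]; ring

/-- **narrowing in the wide direction** (any sheet, same frame, same cell, same thickness) -/
theorem flat_cover {ι : Type*} (A : Finset ι) (L : ι → Ln4) (S : ShN e c w q a z0 ρ r0)
    (hr : 0 < r0) (hρ : 0 < ρ) (hA : ∀ t ∈ A, InSheet (L t) e c w q a z0 ρ) {ω : ℝ} (ω0 : 0 < ω)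
    (ω1 : 2 * ω ≤ 1) (hww : w 2 ≤ ω * w 1) (j : ℤ) :
    ∃ (lab : ι → ℕ) (N : ℕ) (P : ℕ → Plk4), (∀ t ∈ A, lab t < N) ∧
      (N : ℝ) ≤ (5 / ω) ^ 2 ∧
      ∀ t ∈ A, InSheet (L t) (P (lab t)).e (P (lab t)).c (P (lab t)).w (P (lab t)).q (P (lab t)).a
          z0 ρ ∧
        ShN (P (lab t)).e (P (lab t)).c (P (lab t)).w (P (lab t)).q (P (lab t)).a z0 ρ r0 ∧
        (P (lab t)).j = j ∧ (P (lab t)).a = a ∧ (P (lab t)).w = ![w 0, ω * w 1, w 2] ∧
        (P (lab t)).q = q ∧ (P (lab t)).e = e := by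
  classical
  have hap : 0 < a := by linarith [S.r0_le]
  have hw0 : 0 < w 0 := by linarith [S.a_le0]
  have Q := StP.of_shN S hw0
  have hw := Q.pos
  rcases A.eq_empty_or_nonempty with hemp | hne
  · subst hemp
    refine ⟨fun _ => 0, 0, fun _ => ⟨0, e, c, w, q, a⟩, by simp, ?_, by simp⟩
    rw [Nat.cast_zero]; positivity
  obtain ⟨x0, hx0⟩ := id hne
  set lc : ℝ → ι → ℝ := fun z x => dt (e 1) ((L x).pos z - (L x0).pos z) / w 1 with hlc
  have hlc2 : ∀ z, z = z0 ∨ z = z0 + ρ → ∀ x ∈ A, |lc z x| ≤ 2 := by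
    intro z hz x hx
    have hz1 : z0 ≤ z ∧ z ≤ z0 + ρ := by
      rcases hz with h | h <;> rw [h] <;> constructor <;> linarith
    have h1 := (hA x hx z hz1.1 hz1.2).1 1
    have h2 := (hA x0 hx0 z hz1.1 hz1.2).1 1
    simp only [hlc]
    rw [abs_div, abs_of_pos (hw 1), div_le_iff₀ (hw 1)]
    have e1 : dt (e 1) ((L x).pos z - (L x0).pos z) =
        dt (e 1) ((L x).pos z - c.pos z) - dt (e 1) ((L x0).pos z - c.pos z) := by
      simp only [dt_sub]; ring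
    rw [e1]
    refine (abs_sub _ _).trans ?_
    linarith
  obtain ⟨l1, N1, h1, k1, j1⟩ := refine A (fun _ => 0) 1 (fun _ _ => Nat.one_pos)
    (fun _ x => lc z0 x) ω0 (by norm_num : (0 : ℝ) ≤ 2) (fun x hx => hlc2 z0 (Or.inl rfl) x hx)
  obtain ⟨l2, N2, h2, k2, j2⟩ := refine A l1 N1 h1 (fun _ x => lc (z0 + ρ) x) ω0
    (by norm_num : (0 : ℝ) ≤ 2) (fun x hx => hlc2 _ (Or.inr rfl) x hx)
  obtain ⟨ref, href⟩ := exists_ref A hne l2
  refine ⟨l2, N2, fun i => ⟨j, e, ctW e c (L (ref i)), ![w 0, ω * w 1, w 2], q, a⟩, h2, ?_,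
    fun t ht => ?_⟩
  · have i1 : 2 * 2 / ω + 1 ≤ 5 / ω := by
      have : 1 ≤ 1 / ω := by rw [le_div_iff₀ ω0]; linarith
      have e1 : 5 / ω = 2 * 2 / ω + 1 / ω := by ring
      linarith
    have c1 : (N1 : ℝ) ≤ 5 / ω := by
      refine k1.trans ?_
      rw [Nat.cast_one, one_mul]; exact i1
    refine k2.trans ?_
    rw [sq]; exact mul_le_mul c1 i1 (by positivity) (by positivity)
  · obtain ⟨r1, r2⟩ := href t ht
    set T := L (ref (l2 t)) with hT
    -- the ends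
    have dlc : ∀ z x y, lc z x - lc z y = dt (e 1) ((L x).pos z - (L y).pos z) / w 1 := by
      intro z x y
      simp only [hlc, dt_sub]; ring
    obtain ⟨e2, m2⟩ := j2 _ r1 t ht r2
    obtain ⟨e1, m1⟩ := j1 _ r1 t ht e2
    rw [dlc, abs_div, abs_of_pos (hw _), div_le_iff₀ (hw _)] at m1 m2
    have he := S.ortho
    have h11 : dt (e 1) (e 1) = 1 := ortho_self_aux he 1
    have h01 : dt (e 0) (e 1) = 0 := by have := he 0 1; simpa using this
    have h21 : dt (e 2) (e 1) = 0 := by have := he 2 1; simpa using this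
    have cpos : ∀ (i : Fin 3) (z : ℝ) (x : V3), dt (e i) (x - (ctW e c T).pos z) =
        dt (e i) (x - c.pos z) - dt (e 1) (T.pos z - c.pos z) * dt (e i) (e 1) := by
      intro i z x
      rw [ctW_pos]
      simp only [dt_sub, dt_add, dt_smul]; ring
    have mid : ∀ z, z0 ≤ z → z ≤ z0 + ρ → |dt (e 1) ((L t).pos z - T.pos z)| ≤ ω * w 1 := by
      intro z hz hz'
      obtain ⟨ζ, hζ, hζ0, hζ1⟩ : ∃ ζ, z0 + ρ * ζ = z ∧ 0 ≤ ζ ∧ ζ ≤ 1 := by
        refine ⟨(z - z0) / ρ, by field_simp; ring, div_nonneg (by linarith) hρ.le, ?_⟩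
        rw [div_le_one hρ]; linarith
      have e5 : dt (e 1) ((L t).pos z - T.pos z) = (1 - ζ) * dt (e 1) ((L t).pos z0 - T.pos z0) +
          ζ * dt (e 1) ((L t).pos (z0 + ρ) - T.pos (z0 + ρ)) := by
        rw [← hζ]
        simp only [dt, Ln4.pos, Pi.sub_apply]; ring
      have m1' : |dt (e 1) ((L t).pos z0 - T.pos z0)| ≤ ω * w 1 := by
        have e6 : (L t).pos z0 - T.pos z0 = -(T.pos z0 - (L t).pos z0) := by abel
        have e7 : dt (e 1) (-(T.pos z0 - (L t).pos z0)) = -dt (e 1) (T.pos z0 - (L t).pos z0) := by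
          simp only [dt, Pi.neg_apply]; ring
        rw [e6, e7, abs_neg]; exact m1
      have m2' : |dt (e 1) ((L t).pos (z0 + ρ) - T.pos (z0 + ρ))| ≤ ω * w 1 := by
        have e6 : (L t).pos (z0 + ρ) - T.pos (z0 + ρ) = -(T.pos (z0 + ρ) - (L t).pos (z0 + ρ)) := by
          abel
        have e7 : dt (e 1) (-(T.pos (z0 + ρ) - (L t).pos (z0 + ρ))) =
            -dt (e 1) (T.pos (z0 + ρ) - (L t).pos (z0 + ρ)) := by
          simp only [dt, Pi.neg_apply]; ring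
        rw [e6, e7, abs_neg]; exact m2
      rw [e5]
      refine (abs_add_le _ _).trans ?_
      rw [abs_mul, abs_mul, abs_of_nonneg (by linarith : 0 ≤ 1 - ζ), abs_of_nonneg hζ0]
      have f1 := mul_le_mul_of_nonneg_left m1' (by linarith : 0 ≤ 1 - ζ)
      have f2 := mul_le_mul_of_nonneg_left m2' hζ0
      linarith
    have hωw : 0 < ω * w 1 := mul_pos ω0 (hw 1)
    refine ⟨?_, ?_, rfl, rfl, rfl, rfl, rfl⟩
    · intro z hz hz'
      refine ⟨?_, (hA t ht z hz hz').2⟩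
      have hb := (hA t ht z hz hz').1
      intro i
      change |dt (e i) ((L t).pos z - (ctW e c T).pos z)| ≤ (![w 0, ω * w 1, w 2] : V3) i
      fin_cases i
      · change |dt (e 0) ((L t).pos z - (ctW e c T).pos z)| ≤ w 0
        rw [cpos, h01, mul_zero, sub_zero]; exact hb 0
      · change |dt (e 1) ((L t).pos z - (ctW e c T).pos z)| ≤ ω * w 1
        rw [cpos, h11, mul_one, ← dt_sub]
        have e6 : (L t).pos z - c.pos z - (T.pos z - c.pos z) = (L t).pos z - T.pos z := by abel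
        rw [e6]; exact mid z hz hz'
      · change |dt (e 2) ((L t).pos z - (ctW e c T).pos z)| ≤ w 2
        rw [cpos, h21, mul_zero, sub_zero]; exact hb 2
    · change ShN e (ctW e c T) ![w 0, ω * w 1, w 2] q a z0 ρ r0
      have hbox : ∀ z, z0 ≤ z → z ≤ z0 + ρ → ∀ x,
          InK e (ctW e c T) (dbl3 ![w 0, ω * w 1, w 2]) z x → InK e c (dbl3 w) z x := by
        intro z hz hz' x hx i
        have hx' := hx i
        rw [cpos] at hx'
        have hb := (hA _ r1 z hz hz').1 1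
        fin_cases i
        · change |dt (e 0) (x - c.pos z)| ≤ 2 * w 0
          change |dt (e 0) (x - c.pos z) - dt (e 1) (T.pos z - c.pos z) * dt (e 0) (e 1)| ≤
            2 * w 0 at hx'
          rw [h01, mul_zero, sub_zero] at hx'; exact hx'
        · change |dt (e 1) (x - c.pos z)| ≤ 2 * w 1
          change |dt (e 1) (x - c.pos z) - dt (e 1) (T.pos z - c.pos z) * dt (e 1) (e 1)| ≤
            2 * (ω * w 1) at hx'
          rw [h11, mul_one] at hx'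
          have e6 : dt (e 1) (x - c.pos z) = (dt (e 1) (x - c.pos z) -
            dt (e 1) (T.pos z - c.pos z)) + dt (e 1) (T.pos z - c.pos z) := by ring
          rw [e6]
          refine (abs_add_le _ _).trans ?_
          have f1 : 2 * ω * w 1 ≤ 1 * w 1 := mul_le_mul_of_nonneg_right ω1 (hw 1).le
          linarith
        · change |dt (e 2) (x - c.pos z)| ≤ 2 * w 2
          change |dt (e 2) (x - c.pos z) - dt (e 1) (T.pos z - c.pos z) * dt (e 2) (e 1)| ≤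
            2 * w 2 at hx'
          rw [h21, mul_zero, sub_zero] at hx'; exact hx'
      refine ⟨he, S.isQ, S.a_le0, S.w0_le, hww, S.r0_le, ?_, ?_, ?_⟩
      · intro z hz hz' x τ hτ hx hx'
        exact S.st0 z hz hz' x τ hτ (hbox z hz hz' x hx) (hbox z hz hz' _ hx')
      · intro z hz hz' x τ hτ hx hx'
        refine (S.sl1 z hz hz' x τ hτ (hbox z hz hz' x hx) (hbox z hz hz' _ hx')).trans ?_
        refine mul_le_mul_of_nonneg_right ?_ hτ
        change w 0 / w 1 ≤ w 0 / (ω * w 1)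
        refine div_le_div_of_nonneg_left hw0.le hωw ?_
        have : ω * w 1 ≤ 1 * w 1 := mul_le_mul_of_nonneg_right (by linarith) (hw 1).le
        linarith
      · intro z hz hz' x τ hτ hx hx'
        exact S.sl2 z hz hz' x τ hτ (hbox z hz hz' x hx) (hbox z hz hz' _ hx')

end Crest.Agent.R136.Lgt989
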