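import Crest.Agent.R136.Lin9_560

/-!
# R136, thin branch, `lin` (helper560), part 10: the relation of the lines gives `LinRel`
-/

set_option autoImplicit false
set_option linter.unusedSectionVars false
set_option linter.unusedVariables false

open Filter Topology

namespace Crest.Agent.R136.Lin560

open Finset Crest.Agent.R138.Ex926 Crest.Agent.R136.Net191 Crest.Agent.R136.Gf356
open Crest.Agent.R136.Qg926 Crest.Agent.R136.NetW191 Crest.Agent.R136.EvW938
open Crest.Agent.R136.QdH887 (bv)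

variable {Dq Uq : Finset (Fin 18)} {W : Wnd 18 fun _ => ℕ × ℝ} {κ : ℕ → ℝ}
  {u : ℕ → Fin 18 → ℝ} {f : ∀ n : ℕ, ℕ × ℝ → FW} {mm σ x : ℝ}

/-- weaker in `ε` -/
theorem LinRel.weak {Qj : Finset (Fin 14)} {n : ℕ} {s t s' t' : ℝ} {G' : Finset (ℕ × ℝ)}
    (hu : ∀ k, 0 < sd W u n k) (hs : s ≤ s') (ht : t' ≤ t) (h : LinRel Qj W κ u f n s t G') :
    LinRel Qj W κ u f n s' t' G' := by
  obtain ⟨j, h1, h2, h3⟩ := h
  refine ⟨j, h1, fun y hy q hq => (h2 y hy q hq).trans ?_, fun y hy y' hy' q hq =>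
    (h3 y hy y' hy' q hq).trans ?_⟩
  · exact mul_le_mul_of_nonneg_right (Real.rpow_le_rpow_of_exponent_ge (W.B'.pos n)
      (W.B'.lt n).le (by linarith)) (hu _).le
  · exact mul_le_mul_of_nonneg_right (Real.rpow_le_rpow_of_exponent_ge (W.B'.pos n)
      (W.B'.lt n).le ht) (hu _).le

section

variable (g : LnW Dq Uq W κ u f mm σ x)

include g

theorem LnW.wm10 (h14 : (14 : Fin 18) ∈ Dq) (n : ℕ) (y : ℕ × ℝ) :
    wm Dq W κ f n y 10 = 0 := by
  unfold wm
  exact if_pos h14

set_option maxHeartbeats 2000000 in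
/-- **the relation of the lines gives the relation of the incidences** -/
theorem LnW.rel_core (hD : DOk Dq) {δ t : ℝ} (hδ : 0 < δ) (htx : t < x) :
    ∀ᶠ n in (U : Filter ℕ), W.Good n → ∀ mu la : ℝ, |mu| ≤ W.B'.d n ^ (-δ) →
      |la| ≤ W.B'.d n ^ (-δ) → ((14 : Fin 18) ∈ Dq → la = 0) → ∀ l1 : ℕ, ∀ G' ⊆ W.Cl n,
      (∀ y ∈ G', |(tyW W n (W.lc n y) 1 - tyW W n l1 1) -
        mu * (tyW W n (W.lc n y) 0 - tyW W n l1 0) -
        la * (-(κ n * tyW W n (W.lc n y) 0 ^ 2) - -(κ n * tyW W n l1 0 ^ 2))| ≤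
        W.B'.d n ^ (t - δ)) → ∀ Qj : Finset (Fin 14),
      (Qj = {11} ∧ (14 : Fin 18) ∈ Dq ∨ Qj = {10, 11} ∧ (14 : Fin 18) ∉ Dq) →
      LinRel Qj W κ u f n (4 * δ) (t - 4 * δ) G' := by
  filter_upwards [g.coc_main x, g.line_dev hD,
    Crest.Agent.R136.Gf356.ev_const_le W.B' hδ (300 * W.K0 ^ 8)] with n hcoc hdev hcst gd mu la
      hmu hla hla0 l1 G' hG hrel Qj hQj
  have hK := g.K1
  have hK0 : 0 ≤ W.K0 := by linarith
  have hK8 : W.K0 ≤ W.K0 ^ 8 := le_self_pow₀ hK (by norm_num)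
  have hK28 : W.K0 ^ 2 ≤ W.K0 ^ 8 := pow_le_pow_right₀ hK (by norm_num)
  have hK81 : 1 ≤ W.K0 ^ 8 := one_le_pow₀ hK
  have dp := W.B'.pos n
  have pp : ∀ s : ℝ, 0 < W.B'.d n ^ s := fun s => Real.rpow_pos_of_pos dp s
  have pm : ∀ a b : ℝ, W.B'.d n ^ a * W.B'.d n ^ b = W.B'.d n ^ (a + b) := fun a b =>
    (Real.rpow_add dp a b).symm
  have pw : ∀ {a b : ℝ}, b ≤ a → W.B'.d n ^ a ≤ W.B'.d n ^ b := fun h =>
    Real.rpow_le_rpow_of_exponent_ge dp (W.B'.lt n).le h
  have hk := g.ww.hκ n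
  have s1 := g.sd0 n 1
  have s14 := g.sd0 n 14
  have s15 := g.sd0 n 15
  have s16 := g.sd0 n 16
  have h0 := gd.s0
  set P := W.s₀ n with hP
  set C : ℕ × ℝ → ℝ := fun y => coW (κ n) (f n P) (f n y) 1 with hC
  have hCle : ∀ y ∈ W.Cl n, |C y| ≤ W.K0 * sd W u n 1 := fun y hy => g.co_le gd h0 hy 1
  have one_d : 1 ≤ W.B'.d n ^ (-δ) := by
    have := pw (a := 0) (b := -δ) (by linarith)
    rwa [Real.rpow_zero] at this
  refine ⟨jj Dq W κ u f mu la n, ?_, ?_, ?_⟩
  · intro y q hq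
    unfold jj
    rcases hQj with ⟨rfl, h14⟩ | ⟨rfl, h14⟩
    · split_ifs with h1 h2
      · rw [g.wm10 h14, hla0 h14]; ring
      · exact absurd (by rw [h2]; simp) hq
      · rfl
    · split_ifs with h1 h2
      · exact absurd (by rw [h1]; simp) hq
      · exact absurd (by rw [h2]; simp) hq
      · rfl
  · -- sizes
    intro y hy q hq
    have hyC := hG hy
    have big : 4 * W.K0 * W.B'.d n ^ (-δ) ≤ W.B'.d n ^ (-(4 * δ)) := by
      calc 4 * W.K0 * W.B'.d n ^ (-δ) ≤ W.B'.d n ^ (-δ) * W.B'.d n ^ (-δ) :=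
            mul_le_mul_of_nonneg_right (by linarith) (pp _).le
        _ = W.B'.d n ^ (-δ + -δ) := pm _ _
        _ ≤ _ := pw (by linarith)
    have w10 : |wm Dq W κ f n y 10| ≤ W.K0 * sd W u n 14 := g.wm_le gd hyC 10
    have w11 : |wm Dq W κ f n y 11| ≤ W.K0 * sd W u n 15 := g.wm_le gd hyC 11
    have hq2 : q = 10 ∧ Qj = {10, 11} ∧ (14 : Fin 18) ∉ Dq ∨ q = 11 := by
      rcases hQj with ⟨rfl, h14⟩ | ⟨rfl, h14⟩
      · exact Or.inr (mem_singleton.1 hq)
      · rcases mem_insert.1 hq with h | h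
        · exact Or.inl ⟨h, rfl, h14⟩
        · exact Or.inr (mem_singleton.1 h)
    rcases hq2 with ⟨rfl, -, h14⟩ | rfl
    · have e : jj Dq W κ u f mu la n y 10 = wm Dq W κ f n y 10 - la * sd W u n 14 := by
        unfold jj; simp
      rw [e]
      show _ ≤ _ * sd W u n 14
      calc |wm Dq W κ f n y 10 - la * sd W u n 14| ≤ |wm Dq W κ f n y 10| +
            |la * sd W u n 14| := abs_sub _ _
        _ ≤ W.K0 * sd W u n 14 + W.B'.d n ^ (-δ) * sd W u n 14 := by
            refine add_le_add w10 ?_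
            rw [abs_mul, abs_of_pos s14]
            exact mul_le_mul_of_nonneg_right hla s14.le
        _ = (W.K0 + W.B'.d n ^ (-δ)) * sd W u n 14 := by ring
        _ ≤ (4 * W.K0 * W.B'.d n ^ (-δ)) * sd W u n 14 := by
            refine mul_le_mul_of_nonneg_right ?_ s14.le
            have : W.K0 * 1 ≤ W.K0 * W.B'.d n ^ (-δ) := mul_le_mul_of_nonneg_left one_d hK0
            have : 1 * W.B'.d n ^ (-δ) ≤ W.K0 * W.B'.d n ^ (-δ) :=
              mul_le_mul_of_nonneg_right hK (pp _).le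
            have := pp (-δ)
            nlinarith
        _ ≤ _ := mul_le_mul_of_nonneg_right big s14.le
    · have e : jj Dq W κ u f mu la n y 11 = wm Dq W κ f n y 11 - mu * sd W u n 15 +
          2 * κ n * C y * (la * sd W u n 14) := by
        unfold jj; rw [if_neg (by decide), if_pos rfl]
      rw [e]
      show _ ≤ _ * sd W u n 15
      have e3 : |2 * κ n * C y * (la * sd W u n 14)| ≤ 2 * W.K0 * W.B'.d n ^ (-δ) *
          sd W u n 15 := by
        by_cases h14 : (14 : Fin 18) ∈ Dq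
        · rw [hla0 h14, zero_mul, mul_zero, abs_zero]
          have := pp (-δ)
          positivity
        · rw [abs_mul, abs_mul, abs_mul, abs_mul, abs_of_pos s14, abs_two]
          have a1 : 2 * |κ n| * |C y| ≤ 2 * 1 * (W.K0 * sd W u n 1) :=
            mul_le_mul (by linarith) (hCle y hyC) (abs_nonneg _) (by norm_num)
          have a2 : |la| * sd W u n 14 ≤ W.B'.d n ^ (-δ) * sd W u n 14 :=
            mul_le_mul_of_nonneg_right hla s14.le
          calc 2 * |κ n| * |C y| * (|la| * sd W u n 14) ≤ 2 * 1 * (W.K0 * sd W u n 1) *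
                (W.B'.d n ^ (-δ) * sd W u n 14) := mul_le_mul a1 a2 (by positivity)
                  (by positivity)
            _ = 2 * W.K0 * W.B'.d n ^ (-δ) * (sd W u n 1 * sd W u n 14) := by ring
            _ = _ := by rw [← g.sd15 hD h14 n]
      calc |wm Dq W κ f n y 11 - mu * sd W u n 15 + 2 * κ n * C y * (la * sd W u n 14)| ≤
          |wm Dq W κ f n y 11 - mu * sd W u n 15| + |2 * κ n * C y * (la * sd W u n 14)| :=
            abs_add_le _ _
        _ ≤ (W.K0 * sd W u n 15 + W.B'.d n ^ (-δ) * sd W u n 15) +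
            2 * W.K0 * W.B'.d n ^ (-δ) * sd W u n 15 := by
            refine add_le_add ((abs_sub _ _).trans (add_le_add w11 ?_)) e3
            rw [abs_mul, abs_of_pos s15]
            exact mul_le_mul_of_nonneg_right hmu s15.le
        _ = (W.K0 + W.B'.d n ^ (-δ) + 2 * W.K0 * W.B'.d n ^ (-δ)) * sd W u n 15 := by ring
        _ ≤ (4 * W.K0 * W.B'.d n ^ (-δ)) * sd W u n 15 := by
            refine mul_le_mul_of_nonneg_right ?_ s15.le
            have : W.K0 * 1 ≤ W.K0 * W.B'.d n ^ (-δ) := mul_le_mul_of_nonneg_left one_d hK0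
            have : 1 * W.B'.d n ^ (-δ) ≤ W.K0 * W.B'.d n ^ (-δ) :=
              mul_le_mul_of_nonneg_right hK (pp _).le
            nlinarith
        _ ≤ _ := mul_le_mul_of_nonneg_right big s15.le
  · -- pairs
    intro y hy y' hy' q hq
    have hyC := hG hy
    have hyC' := hG hy'
    have hxt : W.B'.d n ^ x ≤ W.B'.d n ^ (t - δ) := pw (by linarith)
    have big : (300 * W.K0 ^ 8) * W.B'.d n ^ (t - δ) ≤ W.B'.d n ^ (t - 4 * δ) := by
      calc (300 * W.K0 ^ 8) * W.B'.d n ^ (t - δ) ≤ W.B'.d n ^ (-δ) * W.B'.d n ^ (t - δ) :=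
            mul_le_mul_of_nonneg_right hcst (pp _).le
        _ = W.B'.d n ^ (-δ + (t - δ)) := pm _ _
        _ ≤ _ := pw (by linarith)
    have cb : ∀ (X s : ℝ), 0 < s → X ≤ 67 * (W.K0 ^ 8 * (W.B'.d n ^ x * s)) →
        X ≤ W.B'.d n ^ (t - 4 * δ) * s := by
      intro X s hs hX
      refine hX.trans ?_
      have : 67 * (W.K0 ^ 8 * (W.B'.d n ^ x * s)) = (67 * W.K0 ^ 8 * W.B'.d n ^ x) * s := by ring
      rw [this]
      refine mul_le_mul_of_nonneg_right (le_trans ?_ big) hs.le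
      refine mul_le_mul (by nlinarith) hxt (pp _).le (by positivity)
    set h := rel (κ n) (f n y).g (f n y').g with hh
    have eh : h 1 = C y' - C y := by
      have h1 := c_coc (κ n) (f n P) (f n y) (f n y')
      have h2 : h 1 = coW (κ n) (f n y) (f n y') 1 := (coW_left _ _ _ 1).symm
      rw [h2]
      simp only [hC]
      linarith
    have jz : ∀ y, ∀ s : Fin 14, s < 10 → jj Dq W κ u f mu la n y s = 0 := by
      intro y s hs
      unfold jj
      rw [if_neg (by rintro rfl; exact absurd hs (by decide)),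
        if_neg (by rintro rfl; exact absurd hs (by decide))]
    have j10 : ∀ y, jj Dq W κ u f mu la n y 10 = wm Dq W κ f n y 10 - la * sd W u n 14 := by
      intro y; unfold jj; simp
    have j11 : ∀ y, jj Dq W κ u f mu la n y 11 = wm Dq W κ f n y 11 - mu * sd W u n 15 +
          2 * κ n * C y * (la * sd W u n 14) := by
      intro y; unfold jj; rw [if_neg (by decide), if_pos rfl]
    have j12 : ∀ y, jj Dq W κ u f mu la n y 12 = 0 := by
      intro y; unfold jj; simp
    have wz : ∀ s : Fin 14, s < 10 → wm Dq W κ f n y s = 0 := fun s hs => g.wm0 hD n y s hs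
    have hq2 : (q = 10 ∧ (14 : Fin 18) ∉ Dq) ∨ q = 11 ∨ q = 12 := by
      rcases hQj with ⟨rfl, h14⟩ | ⟨rfl, h14⟩
      · simp only [mem_union, mem_singleton] at hq
        exact Or.inr hq
      · simp only [mem_union, mem_insert, mem_singleton] at hq
        rcases hq with (h | h) | h
        · exact Or.inl ⟨h, h14⟩
        · exact Or.inr (Or.inl h)
        · exact Or.inr (Or.inr h)
    rcases hq2 with ⟨rfl, h14⟩ | rfl | rfl
    · have h1 := hcoc gd y hyC y' hyC' 10 h14
      rw [← hh, tr_10 _ _ _ wz] at h1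
      have e10 : coW (κ n) (f n P) (f n y') (Fin.natAdd 4 (10 : Fin 14)) =
          wm Dq W κ f n y' 10 := by
        unfold wm
        exact (if_neg h14).symm
      rw [e10] at h1
      refine cb _ _ s14 ?_
      rw [tr_10 _ _ _ (jz y), j10, j10]
      have e : coW (κ n) (f n y) (f n y') (Fin.natAdd 4 (10 : Fin 14)) -
          (wm Dq W κ f n y' 10 - la * sd W u n 14 - (wm Dq W κ f n y 10 - la * sd W u n 14)) =
          -(wm Dq W κ f n y' 10 - coW (κ n) (f n y) (f n y') (Fin.natAdd 4 (10 : Fin 14)) -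
            wm Dq W κ f n y 10) := by ring
      rw [e, abs_neg]
      exact h1
    · have h1 := hcoc gd y hyC y' hyC' 11 hD.2.1
      rw [← hh, tr_11 _ _ _ wz] at h1
      have e11 : coW (κ n) (f n P) (f n y') (Fin.natAdd 4 (11 : Fin 14)) =
          wm Dq W κ f n y' 11 := by
        unfold wm
        exact (if_neg hD.2.1).symm
      rw [e11] at h1
      refine cb _ _ s15 ?_
      rw [tr_11 _ _ _ (jz y), j11, j11, j10]
      have e : coW (κ n) (f n y) (f n y') (Fin.natAdd 4 (11 : Fin 14)) -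
          (wm Dq W κ f n y' 11 - mu * sd W u n 15 + 2 * κ n * C y' * (la * sd W u n 14) -
            (wm Dq W κ f n y 11 - mu * sd W u n 15 + 2 * κ n * C y * (la * sd W u n 14) -
              2 * κ n * h 1 * (wm Dq W κ f n y 10 - la * sd W u n 14))) =
          -(wm Dq W κ f n y' 11 - coW (κ n) (f n y) (f n y') (Fin.natAdd 4 (11 : Fin 14)) -
            (wm Dq W κ f n y 11 - 2 * κ n * h 1 * wm Dq W κ f n y 10)) := by
        rw [eh]; ring
      rw [e, abs_neg]
      exact h1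
    · have h1 := hcoc gd y hyC y' hyC' 12 hD.2.2.1
      rw [← hh, tr_12 _ _ _ wz] at h1
      have w12 : ∀ z, wm Dq W κ f n z 12 = coW (κ n) (f n P) (f n z) 16 := by
        intro z
        unfold wm
        exact if_neg hD.2.2.1
      have n12 : (Fin.natAdd 4 (12 : Fin 14) : Fin 18) = 16 := rfl
      rw [w12, n12] at h1
      rw [tr_12 _ _ _ (jz y), j12, j12, j11, j10, n12]
      set c : ℕ × ℝ → ℝ := fun z => W.crd n P z 1 with hc
      set p : ℕ × ℝ → ℝ := fun z => W.crd n P z 16 with hp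
      have hCc : ∀ z ∈ W.Cl n, C z = sd W u n 1 * c z := fun z hz => g.crd_eq gd h0 hz 1
      have hPp : ∀ z ∈ W.Cl n, coW (κ n) (f n P) (f n z) 16 = sd W u n 16 * p z :=
        fun z hz => g.crd_eq gd h0 hz 16
      have hcK : ∀ z ∈ W.Cl n, |c z| ≤ W.K0 := fun z hz => g.crd_le gd h0 hz 1
      have htK : ∀ z ∈ W.Cl n, |tyW W n (W.lc n z) 0| ≤ W.K0 := fun z hz =>
        g.crd_le gd h0 (g.lrp_mem hz).1 1
      -- the gauge part
      have hE : coW (κ n) (f n y) (f n y') 16 - (0 - (0 + h 1 * (wm Dq W κ f n y 11 -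
          mu * sd W u n 15 + 2 * κ n * C y * (la * sd W u n 14)) - κ n * h 1 ^ 2 *
          (wm Dq W κ f n y 10 - la * sd W u n 14))) =
          -(coW (κ n) (f n P) (f n y') 16 - coW (κ n) (f n y) (f n y') 16 -
            (coW (κ n) (f n P) (f n y) 16 + h 1 * wm Dq W κ f n y 11 -
              κ n * h 1 ^ 2 * wm Dq W κ f n y 10)) +
          (coW (κ n) (f n P) (f n y') 16 - coW (κ n) (f n P) (f n y) 16 -
            mu * sd W u n 15 * (C y' - C y) +
            κ n * (la * sd W u n 14) * (C y' ^ 2 - C y ^ 2)) := by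
        rw [eh]; ring
      have hla14 : la * sd W u n 1 ^ 2 * sd W u n 14 = la * sd W u n 16 := by
        by_cases h14 : (14 : Fin 18) ∈ Dq
        · rw [hla0 h14]; ring
        · rw [g.sd16 hD n, g.sd15 hD h14 n]; ring
      have hF : coW (κ n) (f n P) (f n y') 16 - coW (κ n) (f n P) (f n y) 16 -
            mu * sd W u n 15 * (C y' - C y) +
            κ n * (la * sd W u n 14) * (C y' ^ 2 - C y ^ 2) =
          sd W u n 16 * (p y' - p y - mu * (c y' - c y) + la * κ n * (c y' ^ 2 - c y ^ 2)) := by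
        rw [hPp y' hyC', hPp y hyC, hCc y' hyC', hCc y hyC]
        have a1 : κ n * (la * sd W u n 14) * ((sd W u n 1 * c y') ^ 2 -
            (sd W u n 1 * c y) ^ 2) = κ n * (la * sd W u n 1 ^ 2 * sd W u n 14) *
            (c y' ^ 2 - c y ^ 2) := by ring
        have a2 : mu * sd W u n 15 * (sd W u n 1 * c y' - sd W u n 1 * c y) =
            mu * (sd W u n 1 * sd W u n 15) * (c y' - c y) := by ring
        rw [a1, a2, hla14, ← g.sd16 hD n]
        ring
      -- the lines
      set a : ℕ × ℝ → ℝ := fun z => tyW W n (W.lc n z) 0 with ha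
      set b : ℕ × ℝ → ℝ := fun z => tyW W n (W.lc n z) 1 with hb
      have d1 : ∀ z ∈ W.Cl n, |c z - a z| ≤ W.K0 * W.B'.d n ^ x := fun z hz => (hdev gd z hz).1
      have d2 : ∀ z ∈ W.Cl n, |p z - b z| ≤ 70 * W.K0 ^ 8 * W.B'.d n ^ x :=
        fun z hz => (hdev gd z hz).2
      have d3 : ∀ z ∈ W.Cl n, |c z ^ 2 - a z ^ 2| ≤ 2 * W.K0 ^ 2 * W.B'.d n ^ x := by
        intro z hz
        have e : c z ^ 2 - a z ^ 2 = (c z - a z) * (c z + a z) := by ring
        rw [e, abs_mul]
        calc |c z - a z| * |c z + a z| ≤ (W.K0 * W.B'.d n ^ x) * (W.K0 + W.K0) :=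
              mul_le_mul (d1 z hz) ((abs_add_le _ _).trans (add_le_add (hcK z hz) (htK z hz)))
                (abs_nonneg _) (by have := pp x; positivity)
          _ = _ := by ring
      have r1 := hrel y hy
      have r2 := hrel y' hy'
      set R : ℕ × ℝ → ℝ := fun z => (b z - tyW W n l1 1) - mu * (a z - tyW W n l1 0) -
        la * (-(κ n * a z ^ 2) - -(κ n * tyW W n l1 0 ^ 2)) with hR
      have r1' : |R y| ≤ W.B'.d n ^ (t - δ) := r1
      have r2' : |R y'| ≤ W.B'.d n ^ (t - δ) := r2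
      have eR : p y' - p y - mu * (c y' - c y) + la * κ n * (c y' ^ 2 - c y ^ 2) =
          (R y' - R y) + ((p y' - b y') - (p y - b y)) -
          mu * ((c y' - a y') - (c y - a y)) +
          la * κ n * ((c y' ^ 2 - a y' ^ 2) - (c y ^ 2 - a y ^ 2)) := by
        simp only [hR]; ring
      have dx := pp x
      have dt := pp (t - δ)
      have m1 : W.B'.d n ^ (-δ) * W.B'.d n ^ x ≤ W.B'.d n ^ (t - δ) := by
        rw [pm]; exact pw (by linarith)
      have q1 : |(R y' - R y)| ≤ 2 * W.B'.d n ^ (t - δ) := by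
        refine (abs_sub _ _).trans ?_; linarith
      have q2 : |(p y' - b y') - (p y - b y)| ≤ 140 * W.K0 ^ 8 * W.B'.d n ^ (t - δ) := by
        refine (abs_sub _ _).trans ?_
        have h2 := d2 y hyC
        have h3 := d2 y' hyC'
        have h4 : 70 * W.K0 ^ 8 * W.B'.d n ^ x ≤ 70 * W.K0 ^ 8 * W.B'.d n ^ (t - δ) :=
          mul_le_mul_of_nonneg_left hxt (by positivity)
        linarith
      have q3 : |mu * ((c y' - a y') - (c y - a y))| ≤ 2 * W.K0 ^ 8 * W.B'.d n ^ (t - δ) := by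
        rw [abs_mul]
        have h2 := d1 y hyC
        have h3 := d1 y' hyC'
        have h4 : |(c y' - a y') - (c y - a y)| ≤ 2 * W.K0 * W.B'.d n ^ x := by
          refine (abs_sub _ _).trans ?_; linarith
        calc |mu| * |(c y' - a y') - (c y - a y)| ≤ W.B'.d n ^ (-δ) *
              (2 * W.K0 * W.B'.d n ^ x) := mul_le_mul hmu h4 (abs_nonneg _) (pp _).le
          _ = 2 * W.K0 * (W.B'.d n ^ (-δ) * W.B'.d n ^ x) := by ring
          _ ≤ 2 * W.K0 ^ 8 * W.B'.d n ^ (t - δ) :=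
              mul_le_mul (by linarith) m1 (mul_pos (pp _) dx).le (by positivity)
      have q4 : |la * κ n * ((c y' ^ 2 - a y' ^ 2) - (c y ^ 2 - a y ^ 2))| ≤
          4 * W.K0 ^ 8 * W.B'.d n ^ (t - δ) := by
        rw [abs_mul, abs_mul]
        have h2 := d3 y hyC
        have h3 := d3 y' hyC'
        have h4 : |(c y' ^ 2 - a y' ^ 2) - (c y ^ 2 - a y ^ 2)| ≤
            4 * W.K0 ^ 2 * W.B'.d n ^ x := by
          refine (abs_sub _ _).trans ?_; linarith
        have h5 : |la| * |κ n| ≤ W.B'.d n ^ (-δ) * 1 :=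
          mul_le_mul hla hk (abs_nonneg _) (pp _).le
        calc |la| * |κ n| * |(c y' ^ 2 - a y' ^ 2) - (c y ^ 2 - a y ^ 2)| ≤
              (W.B'.d n ^ (-δ) * 1) * (4 * W.K0 ^ 2 * W.B'.d n ^ x) :=
              mul_le_mul h5 h4 (abs_nonneg _) (by have := pp (-δ); positivity)
          _ = 4 * W.K0 ^ 2 * (W.B'.d n ^ (-δ) * W.B'.d n ^ x) := by ring
          _ ≤ 4 * W.K0 ^ 8 * W.B'.d n ^ (t - δ) :=
              mul_le_mul (by linarith) m1 (mul_pos (pp _) dx).le (by positivity)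
      have q5 : |p y' - p y - mu * (c y' - c y) + la * κ n * (c y' ^ 2 - c y ^ 2)| ≤
          148 * W.K0 ^ 8 * W.B'.d n ^ (t - δ) := by
        rw [eR]
        have t1 := abs_add_le ((R y' - R y) + ((p y' - b y') - (p y - b y)) -
          mu * ((c y' - a y') - (c y - a y)))
          (la * κ n * ((c y' ^ 2 - a y' ^ 2) - (c y ^ 2 - a y ^ 2)))
        have t2 := abs_sub ((R y' - R y) + ((p y' - b y') - (p y - b y)))
          (mu * ((c y' - a y') - (c y - a y)))
        have t3 := abs_add_le (R y' - R y) ((p y' - b y') - (p y - b y))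
        have t4 : 2 * W.B'.d n ^ (t - δ) ≤ 2 * W.K0 ^ 8 * W.B'.d n ^ (t - δ) := by
          have := mul_le_mul_of_nonneg_right hK81 dt.le
          linarith
        linarith
      rw [hE, hF]
      have q6 : |sd W u n 16 * (p y' - p y - mu * (c y' - c y) +
          la * κ n * (c y' ^ 2 - c y ^ 2))| ≤
          sd W u n 16 * (148 * W.K0 ^ 8 * W.B'.d n ^ (t - δ)) := by
        rw [abs_mul, abs_of_pos s16]
        exact mul_le_mul_of_nonneg_left q5 s16.le
      have q7 : 67 * (W.K0 ^ 8 * (W.B'.d n ^ x * sd W u n 16)) ≤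
          sd W u n 16 * (67 * W.K0 ^ 8 * W.B'.d n ^ (t - δ)) := by
        have : 67 * (W.K0 ^ 8 * (W.B'.d n ^ x * sd W u n 16)) =
          sd W u n 16 * (67 * W.K0 ^ 8 * W.B'.d n ^ x) := by ring
        rw [this]
        exact mul_le_mul_of_nonneg_left (mul_le_mul_of_nonneg_left hxt (by positivity)) s16.le
      have q8 : sd W u n 16 * (67 * W.K0 ^ 8 * W.B'.d n ^ (t - δ)) +
          sd W u n 16 * (148 * W.K0 ^ 8 * W.B'.d n ^ (t - δ)) =
          (215 * W.K0 ^ 8 * W.B'.d n ^ (t - δ)) * sd W u n 16 := by ring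
      have q9 : (215 * W.K0 ^ 8 * W.B'.d n ^ (t - δ)) * sd W u n 16 ≤
          W.B'.d n ^ (t - 4 * δ) * sd W u n 16 := by
        refine mul_le_mul_of_nonneg_right (le_trans ?_ big) s16.le
        have : 0 ≤ W.K0 ^ 8 * W.B'.d n ^ (t - δ) := by positivity
        nlinarith
      have q10 := h1.trans q7
      rw [← abs_neg] at q10
      refine (abs_add_le _ _).trans ?_
      exact (add_le_add q10 q6).trans (q8.le.trans q9)

end

end Crest.Agent.R136.Lin560
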