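import Crest.Agent.R136.Lin5_560

/-!
# R136, thin branch, `lin` (helper560), part 6: `lin_model2`, `lin_model3`
-/

set_option autoImplicit false
set_option linter.unusedSectionVars false
set_option linter.unusedVariables false

open Filter Topology

namespace Crest.Agent.R136.Lin560

open Finset
open Crest.Agent.R138.Ex926 (Base U)
open Crest.Agent.R136.Gf356

section

variable {κ : Type} {B : Base} {G : ℕ → RCfg κ} {Leg : Set (κ → ℝ)} {ν : (κ → ℝ) → ℝ}
  {D x M C m : ℝ} {p0 r Qc Qf : κ → ℝ} {pc : ℝ → κ → ℝ} {φ : ℕ → ℕ → ℝ}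
  {ty : ℕ → ℕ → Fin 2 → ℝ}


set_option maxHeartbeats 4000000 in
/-- **rigidity in the plane** -/
theorem lin_model2 {vel : ℕ → ℕ → Fin 2 → ℝ} {pos : ℕ → ℕ → ℕ → Fin 2 → ℝ}
    (H : RModel B G 1 x Leg ν D)
    (Q : LRow 2 B G x M C p0 r Qc Qf pc φ ty vel pos) (P : LProf Leg ν x m p0 r Qc Qf pc)
    (hv : ∀ n l i, vel n l i = ty n l i) {t : ℝ} (ht : 0 ≤ t) (htx : t < x)
    (hn : ν p0 - ν r < 2 * (x - t)) {δ : ℝ} (hδ : 0 < δ) :
    ∀ᶠ n in (U : Filter ℕ), ∃ mu : ℝ, ∃ l1, |mu| ≤ B.d n ^ (-δ) ∧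
      ∃ T ⊆ (G n).L, B.d n ^ δ * ((G n).L.card : ℝ) ≤ (T.card : ℝ) ∧
      ∀ l ∈ T, |(ty n l 1 - ty n l1 1) - mu * (ty n l 0 - ty n l1 0)| ≤ B.d n ^ (t - δ) := by
  have hD := H.D1
  have hD0 : 0 < D := by linarith
  have hC := Q.C1
  have hC0 : 0 < C := by linarith
  have hM := Q.M1
  have hD3 : 1 ≤ D ^ 3 := one_le_pow₀ hD
  have hD5 : 1 ≤ D ^ 5 := one_le_pow₀ hD
  set K : ℝ := 20 * (C * D ^ 5 + C * D ^ 3 + C + D + 2) with hK
  have hCD3 : 0 < C * D ^ 3 := by positivity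
  have hCD5 : 0 < C * D ^ 5 := by positivity
  have hK0 : 0 < K := by rw [hK]; positivity
  obtain ⟨y, e, hy, he, q1, q2, q3, q4, q5⟩ := params (x := x) (t := t) P.m0 hδ
    (g := 2 * (x - t) - (ν p0 - ν r)) (by linarith) htx hC hD K hK0
  have hKe : ∀ s : ℝ, s ≤ K → s * e ≤ K * e := fun s hs => mul_le_mul_of_nonneg_right hs he.le
  filter_upwards [setup H Q P he hy.le (by linarith) ht
    ((hKe _ (by rw [hK]; linarith)).trans q5) ((hKe _ (by rw [hK]; linarith)).trans q2)] with n hn1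
  obtain ⟨cell, S⟩ := hn1
  classical
  obtain ⟨⟨y0, k0⟩, h0⟩ := H.nonempty n
  have memI : ∀ {l k : ℕ}, k ∈ (G n).hts l ↔ (l, k) ∈ (G n).I := fun {l k} => H.memHts
  have hLm : ∀ l k, (l, k) ∈ (G n).I → l ∈ (G n).L := fun l k h => H.memL h
  have pw : ∀ {s t : ℝ}, t ≤ s → B.d n ^ s ≤ B.d n ^ t := fun h => rpow_anti B n h
  have pa : ∀ s t : ℝ, B.d n ^ s * B.d n ^ t = B.d n ^ (s + t) := fun s t => (rpow_add' B n s t).symm
  have pos' : ∀ s : ℝ, 0 < B.d n ^ s := fun s => rpos B n s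
  have pk : ∀ (s : ℝ) (k : ℕ), (B.d n ^ s) ^ k = B.d n ^ ((k : ℝ) * s) := fun s k => by
    rw [← Real.rpow_natCast, ← Real.rpow_mul (B.pos n).le, mul_comm]
  have hCe : 0 < C * e := by positivity
  have e0 : 1 ≤ B.d n ^ (-e) := by linarith [S.c24]
  have hMC : 600 * M ^ 3 * C ≤ B.d n ^ (-e) := S.cM
  have hM2 : 76 * M ^ 2 * C ≤ B.d n ^ (-e) := by
    refine le_trans ?_ hMC
    have : M ^ 2 ≤ M ^ 3 := pow_le_pow_right₀ hM (by norm_num)
    have h2 : M ^ 2 * C ≤ M ^ 3 * C := mul_le_mul_of_nonneg_right this hC0.le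
    have h3 : 0 ≤ M ^ 3 * C := by positivity
    linarith
  have key := alt2 (θ := B.d n ^ t) (δ := B.d n ^ (y + 2 * e))
    (nS := B.d n ^ (ν Qf - ν r + (C * D ^ 3 + 1) * e)) (b := B.d n ^ e * (G n).Z.card)
    (N := B.d n ^ (x - t - (C * D ^ 5 + 3) * e) * (G n).Z.card)
    (NC := B.d n ^ (ν r - ν p0 - (D + 1) * e)) S.flow (memI.2 h0)
    (St := fun k y => (G n).box r e y k) S.st S.NT S.hT (pos' _).le S.NC (pos' t) (pos' _).le
    (mul_pos (pos' _) S.Zc).le S.hS ?_ S.hH (mul_pos (pos' _) S.Zc).le ?_ ?_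
  · obtain ⟨y1, y2, k2, g1, g2, g3, g4⟩ := key
    obtain ⟨k1, hk1⟩ := g1
    have I1 := memI.1 hk1
    have I2 := memI.1 g2
    rw [hv, hv] at g3
    set c1 := ty n y1 0 with hc1
    set c2 := ty n y2 0 with hc2
    set P1 := ty n y1 1 with hP1
    set P2 := ty n y2 1 with hP2
    set dl := B.d n ^ (y + 2 * e) with hdl
    have hdl0 : 0 < dl := pos' _
    have hcne : c1 - c2 ≠ 0 := by
      intro h
      have : c2 - c1 = 0 := by linarith
      rw [this, abs_zero] at g3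
      linarith
    have hc12 : dl < |c1 - c2| := by rw [abs_sub_comm]; exact g3
    have b1 := S.bd k1 y1 I1
    have b2 := S.bd k2 y2 I2
    refine ⟨(P1 - P2) / (c1 - c2), y2, ?_, (G n).L.filter fun l =>
      |(ty n l 1 - ty n y2 1) - (P1 - P2) / (c1 - c2) * (ty n l 0 - ty n y2 0)| ≤ B.d n ^ (t - δ),
      filter_subset _ _, ?_, fun l hl => (mem_filter.1 hl).2⟩
    · have h1 : |P1 - P2| ≤ 2 * M := (abs_sub _ _).trans (by linarith [b1 1, b2 1])
      rw [abs_div, div_le_iff₀ (by linarith)]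
      have h2 : 2 * M ≤ B.d n ^ (-e) := by
        refine le_trans ?_ hMC
        have : M ≤ M ^ 3 := le_self_pow₀ hM (by norm_num)
        have h3 : M ^ 3 ≤ M ^ 3 * C := le_mul_of_one_le_right (by positivity) hC
        linarith
      calc |P1 - P2| ≤ B.d n ^ (-e) := h1.trans h2
        _ ≤ B.d n ^ (-δ + (y + 2 * e)) := pw (by
          have := hKe 3 (by rw [hK]; linarith)
          linarith)
        _ = B.d n ^ (-δ) * dl := rpow_add' _ _ _ _
        _ ≤ _ := mul_le_mul_of_nonneg_left hc12.le (pos' _).le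
    · refine rel_part he S P.hprod ((hKe _ (by rw [hK]; linarith)).trans (by linarith))
        ((((G n).box r e y2 k2).filter fun l => |det2 (fun i => vel n y1 i - vel n y2 i)
        (fun i => vel n y2 i - vel n l i)| < B.d n ^ t)) k2
        (fun l hl => memI.1 (S.st _ _ _ (mem_filter.1 hl).1).2) ?_ _ ?_ hLm
      · convert g4
      · intro l hl l' hl' hd
        have f1 := (mem_filter.1 hl).2
        unfold det2 at f1
        simp only [hv] at f1
        have h3 : |(P1 - P2) / (c1 - c2)| ≤ B.d n ^ (-(y + 3 * e)) := by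
          rw [abs_div, div_le_iff₀ (by linarith)]
          have h1 : |P1 - P2| ≤ 2 * M := (abs_sub _ _).trans (by linarith [b1 1, b2 1])
          have h2 : 2 * M ≤ B.d n ^ (-e) := by
            refine le_trans ?_ hMC
            have : M ≤ M ^ 3 := le_self_pow₀ hM (by norm_num)
            have h3 : M ^ 3 ≤ M ^ 3 * C := le_mul_of_one_le_right (by positivity) hC
            linarith
          calc |P1 - P2| ≤ B.d n ^ (-e) := h1.trans h2
            _ = B.d n ^ (-(y + 3 * e)) * dl := by rw [hdl, pa]; congr 1; ring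
            _ ≤ _ := mul_le_mul_of_nonneg_left hc12.le (pos' _).le
        have h4 : |(ty n l 1 - P2) - (P1 - P2) / (c1 - c2) * (ty n l 0 - c2)| ≤
            B.d n ^ (t - y - 2 * e) := by
          have e1 : (ty n l 1 - P2) - (P1 - P2) / (c1 - c2) * (ty n l 0 - c2) =
              -((c1 - c2) * (P2 - ty n l 1) - (P1 - P2) * (c2 - ty n l 0)) / (c1 - c2) := by
            field_simp
            ring
          rw [e1, abs_div, abs_neg, div_le_iff₀ (by linarith)]
          refine f1.le.trans ?_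
          calc B.d n ^ t = B.d n ^ (t - y - 2 * e) * dl := by rw [hdl, pa]; congr 1; ring
            _ ≤ _ := mul_le_mul_of_nonneg_left hc12.le (pos' _).le
        have e2 : (ty n l' 1 - ty n y2 1) - (P1 - P2) / (c1 - c2) * (ty n l' 0 - ty n y2 0) =
            ((ty n l 1 - P2) - (P1 - P2) / (c1 - c2) * (ty n l 0 - c2)) +
            ((ty n l' 1 - ty n l 1) - (P1 - P2) / (c1 - c2) * (ty n l' 0 - ty n l 0)) := by
          rw [hc2, hP2]; ring
        rw [e2]
        refine (abs_add_le _ _).trans ?_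
        have h5 : |(ty n l' 1 - ty n l 1) - (P1 - P2) / (c1 - c2) * (ty n l' 0 - ty n l 0)| ≤
            2 * B.d n ^ (t - y - (C + 3) * e) := by
          refine (abs_sub _ _).trans ?_
          rw [abs_mul]
          have r1 : B.d n ^ (x - C * e) ≤ B.d n ^ (t - y - (C + 3) * e) := pw (by linarith)
          have r2 : |(P1 - P2) / (c1 - c2)| * |ty n l' 0 - ty n l 0| ≤
              B.d n ^ (t - y - (C + 3) * e) := by
            calc _ ≤ B.d n ^ (-(y + 3 * e)) * B.d n ^ (x - C * e) :=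
                  mul_le_mul h3 (hd 0) (abs_nonneg _) (pos' _).le
              _ = B.d n ^ (-(y + 3 * e) + (x - C * e)) := pa _ _
              _ ≤ _ := pw (by linarith)
          linarith [hd 1]
        have r3 : B.d n ^ (t - y - 2 * e) ≤ B.d n ^ (t - y - (C + 3) * e) := pw (by linarith)
        calc _ ≤ 3 * B.d n ^ (t - y - (C + 3) * e) := by linarith
          _ ≤ B.d n ^ (-e) * B.d n ^ (t - y - (C + 3) * e) :=
            mul_le_mul_of_nonneg_right (by linarith [S.c24]) (pos' _).le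
          _ = B.d n ^ (t - y - (C + 4) * e) := by rw [pa]; congr 1; ring
          _ ≤ _ := pw (by
            have := hKe (C + 4) (by rw [hK]; linarith)
            linarith)
  · -- hc
    intro c0 l k hk
    refine le_trans (le_of_eq ?_) (S.hc c0 (((G n).box r e l k).filter fun l => |vel n l 0 - c0| ≤
      B.d n ^ (y + 2 * e)) (fun l' hl' => hLm l' k (memI.1 (S.st _ _ _ (mem_filter.1 hl').1).2))
      (fun l' hl' => by rw [← hv]; exact (mem_filter.1 hl').2))
    congr!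
  · -- hN
    intro k hk
    refine le_trans (le_of_eq ?_) (S.hN k hk (76 * M ^ 2 * B.d n ^ (x - (C * D ^ 5 + 1) * e) /
      B.d n ^ t) ?_)
    · congr!
    · have e1 : B.d n ^ (x - (C * D ^ 5 + 1) * e) / B.d n ^ t =
        B.d n ^ (x - t - (C * D ^ 5 + 1) * e) := by
        rw [div_eq_iff (pos' t).ne', pa]; congr 1; ring
      rw [mul_div_assoc, e1]
      calc C * (76 * M ^ 2 * B.d n ^ (x - t - (C * D ^ 5 + 1) * e)) =
          (76 * M ^ 2 * C) * B.d n ^ (x - t - (C * D ^ 5 + 1) * e) := by ring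
        _ ≤ B.d n ^ (-e) * B.d n ^ (x - t - (C * D ^ 5 + 1) * e) :=
          mul_le_mul_of_nonneg_right hM2 (pos' _).le
        _ = _ := by rw [pa]; congr 1; ring
  · -- hlt
    have Z0 := S.Zc
    set Z : ℝ := ((G n).Z.card : ℝ) with hZ
    have e1 : (B.d n ^ (ν Qc - ν p0 - (2 * C + D + 4) * e)) ^ 3 *
        (Z * B.d n ^ (ν r - ν p0 - (D + 1) * e)) *
        (B.d n ^ (x - t - (C * D ^ 5 + 3) * e) * Z) ^ 2 =
        B.d n ^ (3 * (ν Qc - ν p0 - (2 * C + D + 4) * e) + (ν r - ν p0 - (D + 1) * e) +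
          2 * (x - t - (C * D ^ 5 + 3) * e)) * Z ^ 3 := by
      have a1 : B.d n ^ (3 * (ν Qc - ν p0 - (2 * C + D + 4) * e) + (ν r - ν p0 - (D + 1) * e) +
          2 * (x - t - (C * D ^ 5 + 3) * e)) =
          (B.d n ^ (ν Qc - ν p0 - (2 * C + D + 4) * e)) ^ 3 *
          B.d n ^ (ν r - ν p0 - (D + 1) * e) * (B.d n ^ (x - t - (C * D ^ 5 + 3) * e)) ^ 2 := by
        rw [pk, pk, pa, pa]; norm_num
      rw [a1]; ring
    have e2 : (B.d n ^ (ν Qf - ν r + (C * D ^ 3 + 1) * e) / 2 * (B.d n ^ e * Z)) ^ 3 =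
        B.d n ^ (3 * (ν Qf - ν r + (C * D ^ 3 + 2) * e)) * Z ^ 3 / 8 := by
      have a1 : B.d n ^ (3 * (ν Qf - ν r + (C * D ^ 3 + 2) * e)) =
          (B.d n ^ (ν Qf - ν r + (C * D ^ 3 + 1) * e) * B.d n ^ e) ^ 3 := by
        rw [pa, pk]; congr 1; push_cast; ring
      rw [a1]; ring
    rw [e1, e2, lt_div_iff₀ (by norm_num)]
    have e3 : B.d n ^ (3 * (ν Qc - ν p0 - (2 * C + D + 4) * e) + (ν r - ν p0 - (D + 1) * e) +
          2 * (x - t - (C * D ^ 5 + 3) * e)) * 8 <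
        B.d n ^ (3 * (ν Qf - ν r + (C * D ^ 3 + 2) * e)) := by
      have a2 : 3 * (ν Qf - ν r + (C * D ^ 3 + 2) * e) + e ≤
          3 * (ν Qc - ν p0 - (2 * C + D + 4) * e) + (ν r - ν p0 - (D + 1) * e) +
          2 * (x - t - (C * D ^ 5 + 3) * e) := by
        have a3 := hKe (3 * (C * D ^ 3 + 2) + 1 + 3 * (2 * C + D + 4) + (D + 1) +
          2 * (C * D ^ 5 + 3)) (by rw [hK]; linarith)
        have a4 := P.hprod
        linarith
      calc _ < B.d n ^ (3 * (ν Qc - ν p0 - (2 * C + D + 4) * e) + (ν r - ν p0 - (D + 1) * e) +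
          2 * (x - t - (C * D ^ 5 + 3) * e)) * B.d n ^ (-e) :=
            mul_lt_mul_of_pos_left (by linarith [S.c24]) (pos' _)
        _ = B.d n ^ (3 * (ν Qc - ν p0 - (2 * C + D + 4) * e) + (ν r - ν p0 - (D + 1) * e) +
          2 * (x - t - (C * D ^ 5 + 3) * e) + (-e)) := pa _ _
        _ ≤ _ := pw (by linarith)
    calc _ = (B.d n ^ (3 * (ν Qc - ν p0 - (2 * C + D + 4) * e) + (ν r - ν p0 - (D + 1) * e) +
          2 * (x - t - (C * D ^ 5 + 3) * e)) * 8) * Z ^ 3 := by ring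
      _ < _ := mul_lt_mul_of_pos_right e3 (by positivity)

end

end Crest.Agent.R136.Lin560
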