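import Crest.Agent.R136.LinU_938

/-!
# R136, thin branch, `lin` (helper938): rows of the window of `lin`

* `lRow3` : `LRow 3` for `Db`, `Ub` (positions `A, B, N`)
* `lRow2` : `LRow 2` for `Da`, `Ua` (positions `A, N`)
-/

set_option autoImplicit false
set_option linter.unusedSectionVars false
set_option linter.unusedVariables false

open Filter Topology

namespace Crest.Agent.R136.Lin938

open Finset Crest.Agent.R138.Ex926 Crest.Agent.R136.Net191 Crest.Agent.R136.Gf356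
open Crest.Agent.R136.Qg926 Crest.Agent.R136.NetW191 Crest.Agent.R136.EvW938
open Crest.Agent.R136.QdH887 (bv bv_in bv_out)
open Crest.Agent.R136.Lin560

section

variable {Dq Uq : Finset (Fin 18)} {W : Wnd 18 fun _ => ℕ × ℝ} {κ : ℕ → ℝ}
  {u : ℕ → Fin 18 → ℝ} {f : ∀ n : ℕ, ℕ × ℝ → FW} {mm σ x χ : ℝ}
  {E : ∀ n : ℕ, Finset (ℕ × ℝ)}

theorem rel_crd (g : LnW Dq Uq W κ u f mm σ x) (n : ℕ) (F : Finset (ℕ × ℝ)) (k i l : ℕ)
    {s : Fin 18} (hs : s ≠ 0) :
    (W.cfg0 n F).rel k i l s = W.crd n (W.rep n i k) (W.rep n l k) s := by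
  have hs' : s ∉ W.S := by rw [g.eS]; simpa using hs
  exact if_neg hs'

theorem rel_zero (g : LnW Dq Uq W κ u f mm σ x) (n : ℕ) (F : Finset (ℕ × ℝ)) (k i l : ℕ) :
    (W.cfg0 n F).rel k i l 0 = 0 := by
  have hs' : (0 : Fin 18) ∈ W.S := by rw [g.eS]; simp
  exact if_pos hs'

/-- constants are absorbed -/
theorem absorb (B : Base) {c : ℝ} {n : ℕ} {x ε C : ℝ} (hε : 0 < ε) (hC : 2 ≤ C)
    (hc : c ≤ B.d n ^ (-ε)) : c * B.d n ^ (x - ε) ≤ B.d n ^ (x - C * ε) := by
  refine (mul_le_mul_of_nonneg_right hc (Real.rpow_pos_of_pos (B.pos n) _).le).trans ?_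
  rw [← Real.rpow_add (B.pos n)]
  exact Real.rpow_le_rpow_of_exponent_ge (B.pos n) (B.lt n).le (by nlinarith)

theorem le_eps (B : Base) {n : ℕ} {x ε : ℝ} (hε : 0 ≤ ε) : B.d n ^ x ≤ B.d n ^ (x - ε) :=
  Real.rpow_le_rpow_of_exponent_ge (B.pos n) (B.lt n).le (by linarith)

/-- **rows of `lin`, `b1 = 2`** -/
theorem lRow3 (g : LnW Db Ub W κ u f mm σ x) (hE : EvG W E)
    (H : RModel W.B' (W.cfg E) 1 x W.legW W.nu W.Dc) :
    ∃ M C : ℝ, LRow 3 W.B' (W.cfg E) x M C 0 (bv x Ub) (bv x {1, 16}) (bv x (Ub ∪ {1, 16}))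
      (fun y => Pi.single 1 y) (phW W) (tyW W) (vel3 W κ) (pos3 W) := by
  have hK := g.ww.ok.K0_one
  have hK0 : 0 ≤ W.K0 := by linarith
  have hK2 : W.K0 ≤ W.K0 ^ 2 := by nlinarith
  have hCm := cmpB g
  have h1χ : |(1 : ℝ)| ≤ 1 := by simp
  refine ⟨4 * W.K0 ^ 2, 4 * W.K0 ^ 2, g.x0, by nlinarith, by nlinarith, ?_, ?_, fun ε hε => ?_,
    fun ε hε => ?_, fun ε hε => ?_, fun ε hε => ?_, fun y hy hyx ε hε => ?_, fun ε hε => ?_, ?_⟩
  · -- bd
    filter_upwards [hE] with n hn k l hkl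
    obtain ⟨gd, hsub, heq⟩ := hn
    rw [heq] at hkl
    obtain ⟨e1, e2⟩ := lrp_spec hsub hkl
    obtain ⟨z1, z2⟩ := zrp_spec hsub hkl
    have c0 : |tyW W n l 0| ≤ W.K0 := crdK g gd gd.s0 e1 1
    have c1 : |tyW W n l 1| ≤ W.K0 := crdK g gd gd.s0 e1 16
    have cφ : |phW W n k| ≤ W.K0 := crdK g gd gd.s0 z1 0
    refine ⟨fun i => ?_, fun i => ?_, by nlinarith⟩
    · fin_cases i
      · exact c0.trans (by nlinarith)
      · exact c1.trans (by nlinarith)
    · fin_cases i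
      · exact c0.trans (by nlinarith)
      · show |-(κ n * tyW W n l 0 ^ 2)| ≤ 4 * W.K0 ^ 2
        rw [abs_neg]
        have h2 : |tyW W n l 0 ^ 2| ≤ W.K0 ^ 2 := by rw [abs_pow]; gcongr
        have h3 := am (g.ww.hκ n) h2
        nlinarith
      · exact c1.trans (by nlinarith)
  · -- vt
    filter_upwards [hE] with n hn k l k' l' hkl hkl' s hs
    obtain ⟨gd, hsub, heq⟩ := hn
    rw [heq] at hkl hkl'
    obtain ⟨e1, e2⟩ := lrp_spec hsub hkl
    obtain ⟨e1', e2'⟩ := lrp_spec hsub hkl'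
    have c0 : |tyW W n l 0| ≤ W.K0 := crdK g gd gd.s0 e1 1
    have c0' : |tyW W n l' 0| ≤ W.K0 := crdK g gd gd.s0 e1' 1
    have s0 := hs 0
    have s1 := hs 1
    have hs0 : 0 ≤ s := (abs_nonneg _).trans s0
    have hC1 : s ≤ 4 * W.K0 ^ 2 * s := by nlinarith
    intro i
    fin_cases i
    · exact s0.trans hC1
    · show |-(κ n * tyW W n l 0 ^ 2) - -(κ n * tyW W n l' 0 ^ 2)| ≤ 4 * W.K0 ^ 2 * s
      have e : -(κ n * tyW W n l 0 ^ 2) - -(κ n * tyW W n l' 0 ^ 2) =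
          -(κ n * ((tyW W n l 0 - tyW W n l' 0) * (tyW W n l 0 + tyW W n l' 0))) := by ring
      rw [e, abs_neg]
      have h2 : |tyW W n l 0 + tyW W n l' 0| ≤ 2 * W.K0 := (abs_add_le _ _).trans (by linarith)
      have h3 := am (g.ww.hκ n) (am s0 h2)
      have h4 : W.K0 * s ≤ W.K0 ^ 2 * s := mul_le_mul_of_nonneg_right hK2 hs0
      nlinarith
    · exact s1.trans hC1
  · -- evo
    filter_upwards [hE, hCm, ev_const_le W.B' hε (10 * W.K0 ^ 4)] with n hn hc hcc l k k' hkl hkl'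
    obtain ⟨gd, hsub, heq⟩ := hn
    rw [heq] at hkl hkl'
    obtain ⟨r1, r2, r3⟩ := line_evo g gd (hc gd) h1χ hsub hkl hkl'
    have hle : 10 * W.K0 ^ 4 * W.B'.d n ^ x ≤ W.B'.d n ^ (x - 4 * W.K0 ^ 2 * ε) :=
      (mul_le_mul_of_nonneg_left (le_eps W.B' hε.le) (by positivity)).trans
        (absorb W.B' hε (by nlinarith) hcc)
    intro i
    fin_cases i
    · exact r1.trans hle
    · exact r2.trans hle
    · exact r3.trans hle
  · -- rcl
    filter_upwards [hE, hCm, ev_const_le W.B' hε (10 * W.K0 ^ 4)] with n hn hc hcc k l l' hkl hkl'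
    obtain ⟨gd, hsub, heq⟩ := hn
    rw [heq] at hkl hkl' ⊢
    intro hlo
    have key : ∀ s ∈ Ub, |W.crd n (W.rep n l k) (W.rep n l' k) s| ≤ W.B'.d n ^ (x - ε) := by
      intro s hs
      have h := hlo s
      rw [bv_in hs, rel_crd g n _ k l l' (by rintro rfl; revert hs; decide)] at h
      exact h
    obtain ⟨r1, r2, r3⟩ := pos_r g gd (hc gd) h1χ hsub hkl hkl' (le_eps W.B' hε.le)
      (key 2 (by decide)) (key 17 (by decide))
    have k3 := key 3 (by decide)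
    have hle := absorb W.B' (x := x) hε (show (2 : ℝ) ≤ 4 * W.K0 ^ 2 by nlinarith) hcc
    intro i
    fin_cases i
    · exact r1.trans hle
    · exact (r2 k3).trans hle
    · exact (r3 (Or.inr k3)).trans hle
  · -- qcl
    filter_upwards [hE, hCm, ev_const_le W.B' hε (20 * W.K0 ^ 4)] with n hn hc hcc k l l' hkl hkl'
    obtain ⟨gd, hsub, heq⟩ := hn
    rw [heq] at hkl hkl' ⊢
    intro hlo i
    have key : ∀ s ∈ ({1, 16} : Finset (Fin 18)),
        |W.crd n (W.rep n l k) (W.rep n l' k) s| ≤ W.B'.d n ^ (x - ε) := by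
      intro s hs
      have h := hlo s
      rw [bv_in hs, rel_crd g n _ k l l' (by rintro rfl; revert hs; decide)] at h
      exact h
    exact (ty_q g gd (hc gd) h1χ hsub hkl hkl' (le_eps W.B' hε.le) (key 1 (by decide))
      (key 16 (by decide)) i).trans
      (absorb W.B' (x := x) hε (show (2 : ℝ) ≤ 4 * W.K0 ^ 2 by nlinarith) hcc)
  · -- qfl
    filter_upwards [hE, hCm, ev_const_le W.B' hε (20 * W.K0 ^ 4)] with n hn hc hcc k l l' hkl hkl'
    obtain ⟨gd, hsub, heq⟩ := hn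
    rw [heq] at hkl hkl' ⊢
    intro hlo hty s
    have hle := absorb W.B' (x := x) hε (show (2 : ℝ) ≤ 4 * W.K0 ^ 2 by nlinarith) hcc
    have hp : 0 < W.B'.d n ^ (x - ε) := Real.rpow_pos_of_pos (W.B'.pos n) _
    have hK4 : 1 ≤ W.K0 ^ 4 := one_le_pow₀ hK
    have hle1 : W.B'.d n ^ (x - ε) ≤ W.B'.d n ^ (x - 4 * W.K0 ^ 2 * ε) := by
      refine le_trans ?_ hle
      nlinarith
    obtain ⟨f1, f16⟩ := q_ty g gd (hc gd) h1χ hsub hkl hkl' (le_eps W.B' hε.le) (hty 0)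
    have f16' := f16 (hty 1)
    by_cases hs0 : s = 0
    · subst hs0
      rw [rel_zero g, abs_zero]
      exact (Real.rpow_pos_of_pos (W.B'.pos n) _).le
    rw [rel_crd g n _ k l l' hs0]
    by_cases hsU : s ∈ Ub ∪ {1, 16}
    · rw [bv_in hsU]
      rcases Finset.mem_union.1 hsU with h | h
      · have h2 := hlo s
        rw [bv_in h, rel_crd g n _ k l l' hs0] at h2
        exact h2.trans hle1
      · have h3 : s = 1 ∨ s = 16 := by simpa using h
        rcases h3 with rfl | rfl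
        · refine f1.trans (le_trans ?_ hle)
          refine mul_le_mul_of_nonneg_right ?_ hp.le
          have : W.K0 ≤ W.K0 ^ 4 := by simpa using pow_le_pow_right₀ hK (show 1 ≤ 4 by norm_num)
          nlinarith
        · exact f16'.trans hle
    · rw [bv_out hsU]
      obtain ⟨a1, _, _⟩ := Wnd.rep_of_mem hsub hkl
      obtain ⟨b1, _, _⟩ := Wnd.rep_of_mem hsub hkl'
      refine (crdK g gd a1 b1 s).trans ?_
      have h4 : W.K0 ≤ W.B'.d n ^ (-ε) := by
        refine le_trans ?_ hcc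
        have : W.K0 ≤ W.K0 ^ 4 := by simpa using pow_le_pow_right₀ hK (show 1 ≤ 4 by norm_num)
        nlinarith
      refine h4.trans (Real.rpow_le_rpow_of_exponent_ge (W.B'.pos n) (W.B'.lt n).le ?_)
      nlinarith
  · -- ccl
    filter_upwards [hE, hCm, ev_const_le W.B' hε (20 * W.K0 ^ 4)] with n hn hc hcc k l l' hkl hkl'
    obtain ⟨gd, hsub, heq⟩ := hn
    rw [heq] at hkl hkl' ⊢
    intro hcl s
    have hp : 0 < W.B'.d n ^ y := Real.rpow_pos_of_pos (W.B'.pos n) _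
    have hK4 : W.K0 ≤ W.K0 ^ 4 := by simpa using pow_le_pow_right₀ hK (show 1 ≤ 4 by norm_num)
    obtain ⟨a1, _, _⟩ := Wnd.rep_of_mem hsub hkl
    obtain ⟨b1, _, _⟩ := Wnd.rep_of_mem hsub hkl'
    have hy1 : W.B'.d n ^ x ≤ W.B'.d n ^ y :=
      Real.rpow_le_rpow_of_exponent_ge (W.B'.pos n) (W.B'.lt n).le hyx
    obtain ⟨f1, _⟩ := q_ty g gd (hc gd) h1χ hsub hkl hkl' hy1 hcl
    by_cases hs0 : s = 0
    · subst hs0
      rw [rel_zero g, abs_zero]
      exact (Real.rpow_pos_of_pos (W.B'.pos n) _).le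
    rw [rel_crd g n _ k l l' hs0]
    by_cases hs1 : s = 1
    · subst hs1
      rw [Pi.single_eq_same]
      refine f1.trans ?_
      refine (mul_le_mul_of_nonneg_right ?_ hp.le).trans
        ((mul_le_mul_of_nonneg_right hcc hp.le).trans (le_of_eq ?_))
      · nlinarith
      · rw [← Real.rpow_add (W.B'.pos n)]; congr 1; ring
    · rw [Pi.single_eq_of_ne hs1, zero_sub]
      refine (crdK g gd a1 b1 s).trans (le_trans ?_ hcc)
      nlinarith
  · -- all
    filter_upwards [hE, ev_const_le W.B' hε W.K0] with n hn hcc k l l' hkl hkl'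
    obtain ⟨gd, hsub, heq⟩ := hn
    rw [heq] at hkl hkl' ⊢
    intro s
    obtain ⟨a1, _, _⟩ := Wnd.rep_of_mem hsub hkl
    obtain ⟨b1, _, _⟩ := Wnd.rep_of_mem hsub hkl'
    rw [Pi.zero_apply, zero_sub]
    by_cases hs0 : s = 0
    · subst hs0
      rw [rel_zero g, abs_zero]
      exact (Real.rpow_pos_of_pos (W.B'.pos n) _).le
    rw [rel_crd g n _ k l l' hs0]
    exact (crdK g gd a1 b1 s).trans hcc
  · -- zφ
    filter_upwards [hE] with n hn k hk k' hk'
    obtain ⟨gd, hsub, heq⟩ := hn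
    rw [heq]
    have e : ∀ k, (W.cfg0 n (E n)).z k = phW W n k := fun k => by
      show W.crd n (W.s₀ n) (W.zrep n k) W.kz = _
      rw [g.ww.kz]
      rfl
    rw [e, e]
    have h1 : (1 : ℝ) ≤ 4 * W.K0 ^ 2 := by nlinarith
    have := mul_le_mul_of_nonneg_right h1 (abs_nonneg (phW W n k' - phW W n k))
    linarith

/-- **rows of `lin`, `b1 = 1`** -/
theorem lRow2 (g : LnW Da Ua W κ u f mm σ x) (hE : EvG W E)
    (H : RModel W.B' (W.cfg E) 1 x W.legW W.nu W.Dc) :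
    ∃ M C : ℝ, LRow 2 W.B' (W.cfg E) x M C 0 (bv x Ua) (bv x {1, 16}) (bv x (Ua ∪ {1, 16}))
      (fun y => Pi.single 1 y) (phW W) (tyW W) (vel2 W) (pos2 W) := by
  have hK := g.ww.ok.K0_one
  have hK0 : 0 ≤ W.K0 := by linarith
  have hK2 : W.K0 ≤ W.K0 ^ 2 := by nlinarith
  have hCm := cmpA g
  have h1χ : |(0 : ℝ)| ≤ 1 := by simp
  refine ⟨4 * W.K0 ^ 2, 4 * W.K0 ^ 2, g.x0, by nlinarith, by nlinarith, ?_, ?_, fun ε hε => ?_,
    fun ε hε => ?_, fun ε hε => ?_, fun ε hε => ?_, fun y hy hyx ε hε => ?_, fun ε hε => ?_, ?_⟩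
  · -- bd
    filter_upwards [hE] with n hn k l hkl
    obtain ⟨gd, hsub, heq⟩ := hn
    rw [heq] at hkl
    obtain ⟨e1, e2⟩ := lrp_spec hsub hkl
    obtain ⟨z1, z2⟩ := zrp_spec hsub hkl
    have c0 : |tyW W n l 0| ≤ W.K0 := crdK g gd gd.s0 e1 1
    have c1 : |tyW W n l 1| ≤ W.K0 := crdK g gd gd.s0 e1 16
    have cφ : |phW W n k| ≤ W.K0 := crdK g gd gd.s0 z1 0
    refine ⟨fun i => ?_, fun i => ?_, by nlinarith⟩
    · fin_cases i
      · exact c0.trans (by nlinarith)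
      · exact c1.trans (by nlinarith)
    · fin_cases i
      · exact c0.trans (by nlinarith)
      · exact c1.trans (by nlinarith)
  · -- vt
    filter_upwards [hE] with n hn k l k' l' hkl hkl' s hs
    obtain ⟨gd, hsub, heq⟩ := hn
    rw [heq] at hkl hkl'
    obtain ⟨e1, e2⟩ := lrp_spec hsub hkl
    obtain ⟨e1', e2'⟩ := lrp_spec hsub hkl'
    have c0 : |tyW W n l 0| ≤ W.K0 := crdK g gd gd.s0 e1 1
    have c0' : |tyW W n l' 0| ≤ W.K0 := crdK g gd gd.s0 e1' 1
    have s0 := hs 0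
    have s1 := hs 1
    have hs0 : 0 ≤ s := (abs_nonneg _).trans s0
    have hC1 : s ≤ 4 * W.K0 ^ 2 * s := by nlinarith
    intro i
    fin_cases i
    · exact s0.trans hC1
    · exact s1.trans hC1
  · -- evo
    filter_upwards [hE, hCm, ev_const_le W.B' hε (10 * W.K0 ^ 4)] with n hn hc hcc l k k' hkl hkl'
    obtain ⟨gd, hsub, heq⟩ := hn
    rw [heq] at hkl hkl'
    obtain ⟨r1, r2, r3⟩ := line_evo g gd (hc gd) h1χ hsub hkl hkl'
    have hle : 10 * W.K0 ^ 4 * W.B'.d n ^ x ≤ W.B'.d n ^ (x - 4 * W.K0 ^ 2 * ε) :=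
      (mul_le_mul_of_nonneg_left (le_eps W.B' hε.le) (by positivity)).trans
        (absorb W.B' hε (by nlinarith) hcc)
    intro i
    fin_cases i
    · exact r1.trans hle
    · exact r3.trans hle
  · -- rcl
    filter_upwards [hE, hCm, ev_const_le W.B' hε (10 * W.K0 ^ 4)] with n hn hc hcc k l l' hkl hkl'
    obtain ⟨gd, hsub, heq⟩ := hn
    rw [heq] at hkl hkl' ⊢
    intro hlo
    have key : ∀ s ∈ Ua, |W.crd n (W.rep n l k) (W.rep n l' k) s| ≤ W.B'.d n ^ (x - ε) := by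
      intro s hs
      have h := hlo s
      rw [bv_in hs, rel_crd g n _ k l l' (by rintro rfl; revert hs; decide)] at h
      exact h
    obtain ⟨r1, r2, r3⟩ := pos_r g gd (hc gd) h1χ hsub hkl hkl' (le_eps W.B' hε.le)
      (key 2 (by decide)) (key 17 (by decide))
    have hle := absorb W.B' (x := x) hε (show (2 : ℝ) ≤ 4 * W.K0 ^ 2 by nlinarith) hcc
    intro i
    fin_cases i
    · exact r1.trans hle
    · exact (r3 (Or.inl rfl)).trans hle
  · -- qcl
    filter_upwards [hE, hCm, ev_const_le W.B' hε (20 * W.K0 ^ 4)] with n hn hc hcc k l l' hkl hkl'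
    obtain ⟨gd, hsub, heq⟩ := hn
    rw [heq] at hkl hkl' ⊢
    intro hlo i
    have key : ∀ s ∈ ({1, 16} : Finset (Fin 18)),
        |W.crd n (W.rep n l k) (W.rep n l' k) s| ≤ W.B'.d n ^ (x - ε) := by
      intro s hs
      have h := hlo s
      rw [bv_in hs, rel_crd g n _ k l l' (by rintro rfl; revert hs; decide)] at h
      exact h
    exact (ty_q g gd (hc gd) h1χ hsub hkl hkl' (le_eps W.B' hε.le) (key 1 (by decide))
      (key 16 (by decide)) i).trans
      (absorb W.B' (x := x) hε (show (2 : ℝ) ≤ 4 * W.K0 ^ 2 by nlinarith) hcc)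
  · -- qfl
    filter_upwards [hE, hCm, ev_const_le W.B' hε (20 * W.K0 ^ 4)] with n hn hc hcc k l l' hkl hkl'
    obtain ⟨gd, hsub, heq⟩ := hn
    rw [heq] at hkl hkl' ⊢
    intro hlo hty s
    have hle := absorb W.B' (x := x) hε (show (2 : ℝ) ≤ 4 * W.K0 ^ 2 by nlinarith) hcc
    have hp : 0 < W.B'.d n ^ (x - ε) := Real.rpow_pos_of_pos (W.B'.pos n) _
    have hK4 : 1 ≤ W.K0 ^ 4 := one_le_pow₀ hK
    have hle1 : W.B'.d n ^ (x - ε) ≤ W.B'.d n ^ (x - 4 * W.K0 ^ 2 * ε) := by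
      refine le_trans ?_ hle
      nlinarith
    obtain ⟨f1, f16⟩ := q_ty g gd (hc gd) h1χ hsub hkl hkl' (le_eps W.B' hε.le) (hty 0)
    have f16' := f16 (hty 1)
    by_cases hs0 : s = 0
    · subst hs0
      rw [rel_zero g, abs_zero]
      exact (Real.rpow_pos_of_pos (W.B'.pos n) _).le
    rw [rel_crd g n _ k l l' hs0]
    by_cases hsU : s ∈ Ua ∪ {1, 16}
    · rw [bv_in hsU]
      rcases Finset.mem_union.1 hsU with h | h
      · have h2 := hlo s
        rw [bv_in h, rel_crd g n _ k l l' hs0] at h2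
        exact h2.trans hle1
      · have h3 : s = 1 ∨ s = 16 := by simpa using h
        rcases h3 with rfl | rfl
        · refine f1.trans (le_trans ?_ hle)
          refine mul_le_mul_of_nonneg_right ?_ hp.le
          have : W.K0 ≤ W.K0 ^ 4 := by simpa using pow_le_pow_right₀ hK (show 1 ≤ 4 by norm_num)
          nlinarith
        · exact f16'.trans hle
    · rw [bv_out hsU]
      obtain ⟨a1, _, _⟩ := Wnd.rep_of_mem hsub hkl
      obtain ⟨b1, _, _⟩ := Wnd.rep_of_mem hsub hkl'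
      refine (crdK g gd a1 b1 s).trans ?_
      have h4 : W.K0 ≤ W.B'.d n ^ (-ε) := by
        refine le_trans ?_ hcc
        have : W.K0 ≤ W.K0 ^ 4 := by simpa using pow_le_pow_right₀ hK (show 1 ≤ 4 by norm_num)
        nlinarith
      refine h4.trans (Real.rpow_le_rpow_of_exponent_ge (W.B'.pos n) (W.B'.lt n).le ?_)
      nlinarith
  · -- ccl
    filter_upwards [hE, hCm, ev_const_le W.B' hε (20 * W.K0 ^ 4)] with n hn hc hcc k l l' hkl hkl'
    obtain ⟨gd, hsub, heq⟩ := hn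
    rw [heq] at hkl hkl' ⊢
    intro hcl s
    have hp : 0 < W.B'.d n ^ y := Real.rpow_pos_of_pos (W.B'.pos n) _
    have hK4 : W.K0 ≤ W.K0 ^ 4 := by simpa using pow_le_pow_right₀ hK (show 1 ≤ 4 by norm_num)
    obtain ⟨a1, _, _⟩ := Wnd.rep_of_mem hsub hkl
    obtain ⟨b1, _, _⟩ := Wnd.rep_of_mem hsub hkl'
    have hy1 : W.B'.d n ^ x ≤ W.B'.d n ^ y :=
      Real.rpow_le_rpow_of_exponent_ge (W.B'.pos n) (W.B'.lt n).le hyx
    obtain ⟨f1, _⟩ := q_ty g gd (hc gd) h1χ hsub hkl hkl' hy1 hcl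
    by_cases hs0 : s = 0
    · subst hs0
      rw [rel_zero g, abs_zero]
      exact (Real.rpow_pos_of_pos (W.B'.pos n) _).le
    rw [rel_crd g n _ k l l' hs0]
    by_cases hs1 : s = 1
    · subst hs1
      rw [Pi.single_eq_same]
      refine f1.trans ?_
      refine (mul_le_mul_of_nonneg_right ?_ hp.le).trans
        ((mul_le_mul_of_nonneg_right hcc hp.le).trans (le_of_eq ?_))
      · nlinarith
      · rw [← Real.rpow_add (W.B'.pos n)]; congr 1; ring
    · rw [Pi.single_eq_of_ne hs1, zero_sub]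
      refine (crdK g gd a1 b1 s).trans (le_trans ?_ hcc)
      nlinarith
  · -- all
    filter_upwards [hE, ev_const_le W.B' hε W.K0] with n hn hcc k l l' hkl hkl'
    obtain ⟨gd, hsub, heq⟩ := hn
    rw [heq] at hkl hkl' ⊢
    intro s
    obtain ⟨a1, _, _⟩ := Wnd.rep_of_mem hsub hkl
    obtain ⟨b1, _, _⟩ := Wnd.rep_of_mem hsub hkl'
    rw [Pi.zero_apply, zero_sub]
    by_cases hs0 : s = 0
    · subst hs0
      rw [rel_zero g, abs_zero]
      exact (Real.rpow_pos_of_pos (W.B'.pos n) _).le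
    rw [rel_crd g n _ k l l' hs0]
    exact (crdK g gd a1 b1 s).trans hcc
  · -- zφ
    filter_upwards [hE] with n hn k hk k' hk'
    obtain ⟨gd, hsub, heq⟩ := hn
    rw [heq]
    have e : ∀ k, (W.cfg0 n (E n)).z k = phW W n k := fun k => by
      show W.crd n (W.s₀ n) (W.zrep n k) W.kz = _
      rw [g.ww.kz]
      rfl
    rw [e, e]
    have h1 : (1 : ℝ) ≤ 4 * W.K0 ^ 2 := by nlinarith
    have := mul_le_mul_of_nonneg_right h1 (abs_nonneg (phW W n k' - phW W n k))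
    linarith

end

end Crest.Agent.R136.Lin938
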