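import Crest.Agent.R136.QdH_887

/-!
# R136, thin branch, `lin` (helper560): definitions

* `LnW` : window of `lin`; `Dq` = dropped slots, `Uq` = positions.  `b1 = 2` (`N ∥ B`) :
  `Dq = Db`, `Uq = Ub`; `b1 = 1` (`N ∥ A`, slot `14` dropped) : `Dq = Da`, `Uq = Ua`.
* `tyW, phW, vel2, vel3, pos2, pos3` : velocities, heights, positions of the lines of the window,
  in the frame of the base incidence `s₀`.
* `LinRel` : output, gauge `j y` per incidence (`e = -j` kills the slots `14, 15, 16`).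
-/

set_option autoImplicit false

open Filter Topology

namespace Crest.Agent.R136.Lin560

open Finset Crest.Agent.R138.Ex926 Crest.Agent.R136.Net191 Crest.Agent.R136.Gf356
open Crest.Agent.R136.Qg926 Crest.Agent.R136.NetW191 Crest.Agent.R136.EvW938
open Crest.Agent.R136.QdH887 (bv)

/-- dropped slots, `b1 = 1` -/
def Da : Finset (Fin 18) := {4, 5, 6, 7, 8, 9, 10, 11, 12, 13, 14}
/-- dropped slots, `b1 = 2` -/
def Db : Finset (Fin 18) := {4, 5, 6, 7, 8, 9, 10, 11, 12, 13}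
/-- positions, `b1 = 1` -/
def Ua : Finset (Fin 18) := {2, 17}
/-- positions, `b1 = 2` -/
def Ub : Finset (Fin 18) := {2, 3, 17}

/-- **the window of `lin`** -/
structure LnW (Dq Uq : Finset (Fin 18)) (W : Wnd 18 fun _ => ℕ × ℝ) (κ : ℕ → ℝ)
    (u : ℕ → Fin 18 → ℝ) (f : ∀ n : ℕ, ℕ × ℝ → FW) (mm σ x : ℝ) : Prop where
  x0 : 0 < x
  m0 : 0 < mm
  s0 : 0 < σ
  ww : WWnd W κ u f
  eS : W.S = {0}
  etop : W.top = fun _ => x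
  ekap : W.kap = fun _ => 1
  dw : ∀ n, W.B'.d n = W.B.d n ^ W.w n
  hk : ∀ ε : ℝ, 0 < ε → ∀ᶠ n in (U : Filter ℕ), W.B'.d n ^ ε ≤ |κ n|
  /-- walls between slots which are not dropped -/
  tight : ∀ k, k ∉ Dq → ∀ l ∈ mlW k, (∀ s ∈ l, s ∉ Dq) → ∀ n, W.X n k = (l.map (W.X n)).sum
  /-- the other walls are at infinite distance -/
  gap : ∀ k, ∀ l ∈ mlW k, (k ∈ Dq ∨ ∃ s ∈ l, s ∈ Dq) → ∀ R : ℝ, ∀ᶠ n in (U : Filter ℕ),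
    W.X n k + R * W.w n ≤ (l.map (W.X n)).sum
  room : ∀ s, ∀ R : ℝ, ∀ᶠ n in (U : Filter ℕ), R * W.w n ≤ W.X n s
  dens : W.lam W.top ≤ W.lam (cut W.S W.top 0) + W.lam (cut W.S 0 W.top)
  frost : ∀ y : ℝ, 0 ≤ y → y ≤ x → W.lam (Pi.single 0 y) ≤ -(1 * y)
  /-- legal boxes -/
  leg : ∀ p : Fin 18 → ℝ, (∀ s, 0 ≤ p s) → (∀ s, p s ≤ x) →
    (∀ k, k ∉ Dq → ∀ l ∈ mlW k, (∀ s ∈ l, s ∉ Dq) →
      cut {0} p (fun _ => x) k ≤ (l.map (cut {0} p (fun _ => x))).sum) → p ∈ W.legW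
  n3 : W.nu 0 + W.nu (bv x (Uq ∪ {1, 16})) ≤ W.nu (bv x Uq) + W.nu (bv x {1, 16})
  n4 : W.nu 0 - ((Uq.card : ℝ) - σ) * x ≤ W.nu (bv x Uq)
  n5 : ∀ y, 0 ≤ y → W.nu (Pi.single 1 y) ≤ W.nu 0 - mm * y

open Classical in
/-- a representative of the fat line `l` -/
noncomputable def lrpW (W : Wnd 18 fun _ => ℕ × ℝ) (n l : ℕ) : ℕ × ℝ :=
  if h : ∃ i ∈ W.Cl n, W.lc n i = l then h.choose else W.s₀ n

/-- `c` and `P` of a line, seen from `s₀` -/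
noncomputable def tyW (W : Wnd 18 fun _ => ℕ × ℝ) (n l : ℕ) : Fin 2 → ℝ :=
  ![W.crd n (W.s₀ n) (lrpW W n l) 1, W.crd n (W.s₀ n) (lrpW W n l) 16]

/-- heights -/
noncomputable def phW (W : Wnd 18 fun _ => ℕ × ℝ) (n k : ℕ) : ℝ :=
  W.crd n (W.s₀ n) (W.zrep n k) 0

/-- velocities `(c, P)` of `(A, N)` -/
noncomputable def vel2 (W : Wnd 18 fun _ => ℕ × ℝ) (n l : ℕ) : Fin 2 → ℝ := tyW W n l

/-- velocities `(c, -κ c², P)` of `(A, B, N)` -/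
noncomputable def vel3 (W : Wnd 18 fun _ => ℕ × ℝ) (κ : ℕ → ℝ) (n l : ℕ) : Fin 3 → ℝ :=
  ![tyW W n l 0, -(κ n * tyW W n l 0 ^ 2), tyW W n l 1]

/-- positions `(A, N)` -/
noncomputable def pos2 (W : Wnd 18 fun _ => ℕ × ℝ) (n k l : ℕ) : Fin 2 → ℝ :=
  ![W.crd n (W.s₀ n) (W.rep n l k) 2, W.crd n (W.s₀ n) (W.rep n l k) 17]

/-- positions `(A, B, N)` -/
noncomputable def pos3 (W : Wnd 18 fun _ => ℕ × ℝ) (n k l : ℕ) : Fin 3 → ℝ :=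
  ![W.crd n (W.s₀ n) (W.rep n l k) 2, W.crd n (W.s₀ n) (W.rep n l k) 3,
    W.crd n (W.s₀ n) (W.rep n l k) 17]

/-- **output of `lin`** : `Qj = {11}` (`b1 = 1`), `Qj = {10, 11}` (`b1 = 2`); loss `s` in the size of
the gauge, precision `t` -/
def LinRel (Qj : Finset (Fin 14)) (W : Wnd 18 fun _ => ℕ × ℝ) (κ : ℕ → ℝ) (u : ℕ → Fin 18 → ℝ)
    (f : ∀ n : ℕ, ℕ × ℝ → FW) (n : ℕ) (s t : ℝ) (G' : Finset (ℕ × ℝ)) : Prop :=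
  ∃ j : ℕ × ℝ → Fin 14 → ℝ, (∀ y, ∀ q, q ∉ Qj → j y q = 0) ∧
    (∀ y ∈ G', ∀ q ∈ Qj, |j y q| ≤ W.B'.d n ^ (-s) * sd W u n (Fin.natAdd 4 q)) ∧
    ∀ y ∈ G', ∀ y' ∈ G', ∀ q ∈ Qj ∪ {12},
      |coW (κ n) (f n y) (f n y') (Fin.natAdd 4 q) -
        (j y' q - tr (κ n) (rel (κ n) (f n y).g (f n y').g) (j y) q)| ≤
        W.B'.d n ^ t * sd W u n (Fin.natAdd 4 q)

theorem LinRel.mono {Qj : Finset (Fin 14)} {W : Wnd 18 fun _ => ℕ × ℝ} {κ : ℕ → ℝ}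
    {u : ℕ → Fin 18 → ℝ} {f : ∀ n : ℕ, ℕ × ℝ → FW} {n : ℕ} {s t : ℝ} {G' G'' : Finset (ℕ × ℝ)}
    (h : LinRel Qj W κ u f n s t G') (hG : G'' ⊆ G') : LinRel Qj W κ u f n s t G'' := by
  obtain ⟨j, h1, h2, h3⟩ := h
  exact ⟨j, h1, fun y hy => h2 y (hG hy), fun y hy y' hy' => h3 y (hG hy) y' (hG hy')⟩

end Crest.Agent.R136.Lin560
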