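import Crest.Agent.R136.LnT_619
import Crest.Agent.R136.LinD_560

/-!
# R136, thin branch (helper619): adapter to helper560's window of `lin`

* `LnW.to560 : LnW .. → Lin560.LnW ..`; `D11 = Lin560.Db`, `D12 = Lin560.Da`
* **`lin_core`** : `ln_core` over `Lin560.LnW`
* **`sweepS`** : `c` costs at every box on the record line or left of it
-/

set_option autoImplicit false
set_option linter.unusedSectionVars false
set_option linter.unusedVariables false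

open Filter Topology

namespace Crest.Agent.R136.Ln619

open Finset Crest.Agent.R138.Ex926 Crest.Agent.R136.Net191 Crest.Agent.R136.Gf356
open Crest.Agent.R136.Qg926 Crest.Agent.R136.Dg219 Crest.Agent.R136.Aw413
open Crest.Agent.R136.NetW191 Crest.Agent.R136.EvW938 Crest.Agent.R136.PrW464
open Crest.Agent.R136.LadW697 Crest.Agent.R136.AwJ774 Crest.Agent.R136.Bas938
open Crest.Agent.R136.Ht887 Crest.Agent.R136.Win887
open Crest.Agent.R136.Qgn887 (PtN TDs TDs_not TDs_nonneg natTDs StgOk rungN flemN sweep_recN)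
open Crest.Agent.R136.QdH887 (bv bv_in bv_out wdatA)
open Crest.Agent.R136.K2S774 Crest.Agent.R136.K2A146 Crest.Agent.R136.NatW697
open Crest.Agent.R136.LadT830 Crest.Agent.R136.ThB830 Crest.Agent.R136.Top484
open Crest.Agent.R136.Dg262 (X)
open Crest.Agent.R136.Rc146 (OutA X_eq)
open Crest.Agent.R136.LadG697 (coU)
open Crest.Agent.R136.Int599 (iw iw_st_ok iw_top iw_leg)
open Crest.Agent.R138.Dp76 (Dense)

theorem D11_eq : D11 = Lin560.Db := rfl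
theorem D12_eq : D12 = Lin560.Da := rfl
theorem Ub_eq : ({2, 3, 17} : Finset (Fin 18)) = Lin560.Ub := rfl
theorem Ua_eq : ({2, 17} : Finset (Fin 18)) = Lin560.Ua := rfl

/-- the same structure -/
theorem LnW.to560 {Dq Uq : Finset (Fin 18)} {W : Wnd 18 fun _ => ℕ × ℝ} {κ : ℕ → ℝ}
    {u : ℕ → Fin 18 → ℝ} {f : ∀ n : ℕ, ℕ × ℝ → FW} {mm σ x : ℝ}
    (h : LnW Dq Uq W κ u f mm σ x) : Lin560.LnW Dq Uq W κ u f mm σ x where
  x0 := h.x0
  m0 := h.m0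
  s0 := h.s0
  ww := h.ww
  eS := h.eS
  etop := h.etop
  ekap := h.ekap
  dw := h.dw
  hk := h.hk
  tight := h.tight
  gap := h.gap
  room := h.room
  dens := h.dens
  frost := h.frost
  leg := h.leg
  n3 := h.n3
  n4 := h.n4
  n5 := h.n5

section zw

variable {B B' : Base} {I J : ℕ → Finset (ℕ × ℝ)}
  {kp : ℕ → ℝ} {u : ℕ → Fin 18 → ℝ} {f : ℕ → ℕ × ℝ → FW} {Y : ℕ → Fin 18 → ℝ}
  {w : ℕ → ℝ} {Tz : ℕ → ℝ} {Ma : Mons 18} {Dr : Set (Fin 18)} {lam : (Fin 18 → ℝ) → ℝ}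
  {x mm σ : ℝ} {Dq Uq : Finset (Fin 18)}

/-- **from helper560's windows to all classes of a dense part** -/
theorem lin_core (hZ : ZWin B B' I J (coU u kp f) monW 67 Y w (coneM Ma) Tz lam)
    (hX : AwZ146.BasX monW Ma Ma Y w) (hA : ActM Ma Dr) (hDq : ∀ k, k ∈ Dr ↔ k ∈ Dq)
    (hgr : ∀ n, GrU (u n)) (hk1 : ∀ n, |kp n| ≤ 1) (hkp : B'.Sub fun n => |kp n|⁻¹)
    (hx : 0 < x) (hm : 0 < mm) (hσ : 0 < σ) (hD : LnD lam x) (hN : LnL Uq lam mm σ x)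
    (Rel : ℕ → ℝ → Finset (ℕ × ℝ) → Prop)
    (hmono : ∀ n ε G G', G' ⊆ G → Rel n ε G → Rel n ε G')
    (hweak : ∀ n ε ε' G, ε ≤ ε' → Rel n ε G → Rel n ε' G)
    (hres : ∀ (Gd : ℕ → Finset (ℕ × ℝ)) (s₀ : ℕ → ℕ × ℝ),
      Lin560.LnW Dq Uq (iw B B' I J (coU u kp f) 67 Y w Ma Tz lam {0} x Gd s₀) kp u f mm σ x →
      ∀ ε : ℝ, 0 < ε → ∀ᶠ n in (U : Filter ℕ),
        ∃ G ⊆ (iw B B' I J (coU u kp f) 67 Y w Ma Tz lam {0} x Gd s₀).Cl n,
          B'.d n ^ ε * (((iw B B' I J (coU u kp f) 67 Y w Ma Tz lam {0} x Gd s₀).Cl n).card : ℝ) ≤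
            (G.card : ℝ) ∧ Rel n ε G) :
    ∃ J1 : ℕ → Finset (ℕ × ℝ), (∀ n, J1 n ⊆ J n) ∧ Dense B' J1 J ∧
      ∀ ε : ℝ, 0 < ε → ∀ᶠ n in (U : Filter ℕ), ∀ s ∈ J1 n,
        Rel n ε (cls (J1 n) (zlab B I (coU u kp f) monW 67 Y w n 0) s) :=
  ln_core hZ hX hA hDq hgr hk1 hkp hx hm hσ hD hN Rel hmono hweak fun Gd s₀ hW =>
    hres Gd s₀ hW.to560

end zw

section sw

variable {P : Set (Fin 18 → ℝ)} {ν own : (Fin 18 → ℝ) → ℝ} {K : ℝ} {r0 : Fin 18 → ℝ}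
  {θ : Fin 3 → ℝ} {g : ℝ} {q : Fin 3 → ℝ} {V Z Dr : Set (Fin 18)}
  {lam lo lam' : (Fin 18 → ℝ) → ℝ}

/-- **`c` costs at every box on the record line or left of it** -/
theorem sweepS {s : ℝ} (hs : 0 < s) (hD : StgOk s Dr Z)
    (H : Stage QW P ν own K r0 (btW θ) (DlW g q) (QdW θ) Z V 0 (btW θ) 1 (actW Dr) Dr lam lo)
    {z : ℝ × ℝ} (hz : z.1 < 0) {k : ℕ → ℝ} (kpos : ∀ l, 0 < k l) (k0 : Tendsto k atTop (𝓝 0))
    (H1 : IsTan (cn QW (actW Dr)) (cn QW (actW Dr)) lam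
      (fun _ => X 0 (TDs s Dr) (btW θ) z) k lam') (σ : ℝ) {t : ℝ} (ht : 0 ≤ t)
    {c : Fin 18 → ℝ} (hc : c ∈ cn QW (actW Dr)) (hc1 : c 1 = σ * btW θ 1)
    (hcT : ∀ i, i ∉ Dr → TDs s Dr i = 0 → c i ≤ σ * btW θ i) :
    lam' (c + t • e1W) ≤ lam' c - (q 1 + 2 * q 2) * t := by
  have key := H.sweepR (nat_btW _ θ) (TDs_nonneg hs Dr) (natTDs hD) (fun i _ => rfl) hz kpos
    k0 H1 (u := e1W) (c' := c) (mm := q 1 + 2 * q 2) (σ := σ) (h := t) e1W_nonneg ht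
    (fun σ h hh _ => by
      have := sweep_recN H σ hh
      linarith) hc (add_e1_mem hc ht) hcT (fun i _ hu => by
      have h1 : i = 1 := by
        by_contra hne
        exact hu (by unfold e1W; rw [Pi.single_eq_of_ne hne])
      subst h1
      rw [hD.TDs1, hc1]
      exact ⟨rfl, rfl⟩)
  linarith

end sw

end Crest.Agent.R136.Ln619
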