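import Crest.Agent.R136.WkH3_626
import Crest.Agent.R136.Qg7_926

/-!
# R136 (S0187): RIG wrapper: from a zoom window to incidences (helper626)

* `stR`, `stR_ok` : static data of the RIG window (level slots `{0, 3}`, resolution `x`).
* `lwin_of_ok` : 926's window with these data is an `LWin`.
* `lines_pull` : a `ρ^ε`-part of the fat lines gives a `ρ^(4ε)`-part of the incidences.
* `LWin.rig_inc` : **conclusion of `RigWin` on incidences of the class** (the relation which 66's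
  gauge stage consumes).
-/

set_option autoImplicit false
set_option linter.unusedSectionVars false
set_option linter.unusedVariables false

open Filter Topology

namespace Crest.Agent.R136.Wk323

open Finset
open Crest.Agent.R136.Sh605
open Crest.Agent.R136.Net186
open Crest.Agent.R136.NetQ186
open Crest.Agent.R136.Qg926
open Crest.Agent.R136.Net191
open Crest.Agent.R138.Ex926 (Base U cls)
open Crest.Agent.R136.Gf356

/-! ### static data -/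

/-- weights of the constants: multiplicative on the tight walls -/
def wtR : Fin 11 → ℕ := ![1, 2, 1, 1, 2, 1, 2, 3, 2, 3, 4]

theorem wtR_ne (s : Fin 11) : wtR s ≠ 0 := by fin_cases s <;> decide

/-- static data of the RIG window -/
noncomputable def stR (κ x R' : ℝ) (Mw : Mons 11) : WSt 11 where
  S := {0, 3}
  kz := 0
  top := fun _ => x
  kap := fun s => κ ^ wtR s
  Mw := Mw
  R' := R'

theorem stR_ok {κ x R' : ℝ} {Mw M : Mons 11} {D : Set (Fin 11 → ℝ)} (hκ : 0 < κ) (hx : 0 ≤ x)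
    (hxR : x ≤ R') (hMw : ∀ k, Mw.mon k ⊆ mfQ k) (hM0 : M.mon 0 = ∅) (hD : Leg Mw R' ⊆ D) :
    (stR κ x R' Mw).Ok M D where
  R0 := hx.trans hxR
  leg := hD
  top_leg := by
    refine ⟨⟨fun _ => hx, fun k e he => ?_⟩, fun _ => hxR⟩
    exact (show Legal monQ (fun _ => x) from by
      rw [legalQ_iff]
      refine ⟨fun _ => hx, ?_, ?_, ?_, ?_, ?_, ?_, ?_, ?_, ?_, ?_, ?_⟩ <;> linarith).wall k e
        (hMw k he)
  lin_leg := by
    have hleg : Legal monQ (cut ({0, 3} : Finset (Fin 11)) (fun _ => x) 0) := by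
      rw [legalQ_iff]
      have hc : ∀ s : Fin 11, cut ({0, 3} : Finset (Fin 11)) (fun _ => x) (0 : Fin 11 → ℝ) s =
          if s ∈ ({0, 3} : Finset (Fin 11)) then 0 else x := fun s => by
        unfold cut; split_ifs <;> simp
      have h0 : ∀ s : Fin 11, 0 ≤ cut ({0, 3} : Finset (Fin 11)) (fun _ => x) (0 : Fin 11 → ℝ) s :=
        fun s => by rw [hc]; split_ifs <;> linarith
      simp only [hc] at h0 ⊢
      refine ⟨h0, ?_, ?_, ?_, ?_, ?_, ?_, ?_, ?_, ?_, ?_, ?_⟩ <;> simp [hx]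
    refine ⟨⟨hleg.nonneg, fun k e he => hleg.wall k e (hMw k he)⟩, fun s => ?_⟩
    unfold cut stR
    split_ifs
    · exact hx.trans hxR
    · exact hxR
  lev_leg := by
    have hleg : Legal monQ (cut ({0, 3} : Finset (Fin 11)) 0 (fun _ => x)) := by
      rw [legalQ_iff]
      have hc : ∀ s : Fin 11, cut ({0, 3} : Finset (Fin 11)) (0 : Fin 11 → ℝ) (fun _ => x) s =
          if s ∈ ({0, 3} : Finset (Fin 11)) then x else 0 := fun s => by
        unfold cut; split_ifs <;> simp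
      have h0 : ∀ s : Fin 11, 0 ≤ cut ({0, 3} : Finset (Fin 11)) (0 : Fin 11 → ℝ) (fun _ => x) s :=
        fun s => by rw [hc]; split_ifs <;> linarith
      simp only [hc] at h0 ⊢
      refine ⟨h0, ?_, ?_, ?_, ?_, ?_, ?_, ?_, ?_, ?_, ?_, ?_⟩ <;> simp [hx]
    refine ⟨⟨hleg.nonneg, fun k e he => hleg.wall k e (hMw k he)⟩, fun s => ?_⟩
    unfold cut stR
    split_ifs
    · exact hxR
    · exact hx.trans hxR
  kzS := by simp [stR]
  kz0 := hM0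
  kzw := by
    have h1 := hMw 0
    have h2 : mfQ 0 = ∅ := by decide
    rw [h2] at h1
    exact subset_empty.1 h1
  kap := fun s => pow_pos hκ _

/-- tight exponents -/
structure TightX (X : Fin 11 → ℝ) : Prop where
  w4 : X 4 = X 2 + X 3
  w6 : X 6 = X 2 + X 5
  w7 : X 7 = X 2 + X 3 + X 5
  w8 : X 8 = X 0 + X 5
  w9 : X 9 = X 0 + X 2 + X 5
  w10 : X 10 = X 0 + X 2 + X 3 + X 5

/-- tight exponents give tight units -/
theorem tight_units {κ d : ℝ} (hκ : 0 < κ) (hd : 0 < d) {X : Fin 11 → ℝ} (h : TightX X) :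
    Tight (fun s : Fin 10 => κ ^ wtR (tq s) * d ^ X (tq s)) where
  pos := fun s => mul_pos (pow_pos hκ _) (Real.rpow_pos_of_pos hd _)
  w3 := by
    show κ ^ wtR 4 * d ^ X 4 = (κ ^ wtR 2 * d ^ X 2) * (κ ^ wtR 3 * d ^ X 3)
    rw [h.w4, Real.rpow_add hd]
    simp only [wtR, Matrix.cons_val]
    ring
  w5 := by
    show κ ^ wtR 6 * d ^ X 6 = (κ ^ wtR 2 * d ^ X 2) * (κ ^ wtR 5 * d ^ X 5)
    rw [h.w6, Real.rpow_add hd]
    simp only [wtR, Matrix.cons_val]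
    ring
  w6 := by
    show κ ^ wtR 7 * d ^ X 7 = (κ ^ wtR 2 * d ^ X 2) * (κ ^ wtR 3 * d ^ X 3) *
      (κ ^ wtR 5 * d ^ X 5)
    rw [h.w7, Real.rpow_add hd, Real.rpow_add hd]
    simp only [wtR, Matrix.cons_val]
    ring
  w7 := by
    show κ ^ wtR 8 * d ^ X 8 = (κ ^ wtR 0 * d ^ X 0) * (κ ^ wtR 5 * d ^ X 5)
    rw [h.w8, Real.rpow_add hd]
    simp only [wtR, Matrix.cons_val]
    ring
  w8 := by
    show κ ^ wtR 9 * d ^ X 9 = (κ ^ wtR 0 * d ^ X 0) * (κ ^ wtR 2 * d ^ X 2) *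
      (κ ^ wtR 5 * d ^ X 5)
    rw [h.w9, Real.rpow_add hd, Real.rpow_add hd]
    simp only [wtR, Matrix.cons_val]
    ring
  w9 := by
    show κ ^ wtR 10 * d ^ X 10 = (κ ^ wtR 0 * d ^ X 0) * (κ ^ wtR 2 * d ^ X 2) *
      (κ ^ wtR 3 * d ^ X 3) * (κ ^ wtR 5 * d ^ X 5)
    rw [h.w10, Real.rpow_add hd, Real.rpow_add hd, Real.rpow_add hd]
    simp only [wtR, Matrix.cons_val]
    ring

section

variable {ι : ℕ → Type*} [∀ n, DecidableEq (ι n)] {B B' : Base} {I J : ∀ n, Finset (ι n)}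
  {co : ∀ n, ι n → ι n → Fin 11 → ℝ} {M : Mons 11} {C : ℝ} {X : ℕ → Fin 11 → ℝ} {w : ℕ → ℝ}
  {D : Set (Fin 11 → ℝ)} {T : ℕ → ℝ} {lam : (Fin 11 → ℝ) → ℝ} {Cl : ∀ n, Finset (ι n)}
  {s₀ : ∀ n, ι n} {κ x R' : ℝ} {Mw : Mons 11}

/-- **926's window with the data `stR` is an `LWin`** -/
theorem lwin_of_ok {F : ∀ n, ι n → Fq4}
    (hok : ((stR κ x R' Mw).wnd B B' I J co M C X w D T lam Cl s₀).Ok)
    (hco : ∀ n i j, co n i j = coQ (F n i) (F n j)) (hstr : ∀ n i, (F n i).y2 = 0)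
    (hκ1 : 1 ≤ κ) (hκ : 2 * cK0 M C ≤ κ) (hx : 0 ≤ x)
    (htX : ∀ᶠ n in (U : Filter ℕ), TightX (X n)) :
    LWin ((stR κ x R' Mw).wnd B B' I J co M C X w D T lam Cl s₀) F x where
  ok := hok
  co := hco
  str := hstr
  S := rfl
  kz := rfl
  tight := by
    filter_upwards [htX] with n hn
    exact tight_units (lt_of_lt_of_le one_pos hκ1) (B.pos n) hn
  kap := by
    intro s
    show 2 * cK0 M C ≤ κ ^ wtR s
    exact hκ.trans (le_self_pow₀ hκ1 (wtR_ne s))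
  x0 := hx
  top := fun s _ => le_rfl

end

/-! ### from fat lines to incidences -/

section

open Wnd

variable {ι : ℕ → Type*} [∀ n, DecidableEq (ι n)] {m : ℕ} {W : Wnd m ι}
  {E E' : ∀ n, Finset (ι n)} {Mu g : ℕ → ℝ} {ex : ℕ → ∀ n, ι n → ℕ}

/-- **popular fat lines carry many incidences** -/
theorem lines_pull (h : W.Ok) (hE : EOk W E Mu) (hP : Pruned W E E' g ex)
    (hdens : W.lam W.top ≤ W.lam (cut W.S W.top 0) + W.lam (cut W.S 0 W.top)) {ε : ℝ}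
    (hε : 0 < ε) : ∀ᶠ n in (U : Filter ℕ), ∀ L' ⊆ (W.cfg E' n).L,
      W.B'.d n ^ ε * ((W.cfg E' n).L.card : ℝ) ≤ (L'.card : ℝ) →
      W.B'.d n ^ (4 * ε) * ((E n).card : ℝ) ≤
        (((E' n).filter fun i => W.lc n i ∈ L').card : ℝ) := by
  filter_upwards [ev_cfg h hE hP, ev_slice h hE hP hdens hε, h.card_lc_le hε, hP.gsub ε hε] with
    n ⟨g1, h1, h2, h3⟩ h4 h5 h6 L' hL' hcard
  rw [h3] at hL' hcard
  have hpos : ∀ t : ℝ, 0 < W.B'.d n ^ t := fun t => Real.rpow_pos_of_pos (W.B'.pos n) t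
  obtain ⟨i0, hi0⟩ := h2
  set a := W.lam (cut W.S W.top 0) with ha
  -- number of fat lines, from below
  have c1 : W.B'.d n ^ (a + ε) ≤ (((W.cfg0 n (E' n)).L).card : ℝ) := by
    refine (h4 (W.zc n i0) (mem_image_of_mem _ hi0)).trans ?_
    refine Nat.cast_le.2 (card_le_card fun l hl => ?_)
    obtain ⟨y, hy, rfl, -⟩ := cfg0_slice.1 hl
    exact mem_image_of_mem _ hy
  -- incidences of one fat line, from below
  have c2 : ∀ l ∈ L', ((E n).card : ℝ) * W.B'.d n ^ (2 * ε - a) ≤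
      ((((E' n).filter fun i => W.lc n i ∈ L').filter fun i => W.lc n i = l).card : ℝ) := by
    intro l hl
    obtain ⟨y, hy, rfl⟩ := mem_image.1 (hL' hl)
    have d1 := hP.lines n y hy
    have d2 := h5 (E n) h1
    have e : ((E' n).filter fun i => W.lc n i ∈ L').filter (fun i => W.lc n i = W.lc n y) =
        Crest.Agent.R138.Ex926.cls (E' n) (W.lc n) y := by
      ext i
      rw [mem_filter, mem_filter, Crest.Agent.R138.Ex926.mem_cls]
      constructor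
      · rintro ⟨⟨a1, a2⟩, a3⟩; exact ⟨a1, a3⟩
      · rintro ⟨a1, a3⟩; exact ⟨⟨a1, by rw [a3]; exact hl⟩, a3⟩
    rw [e]
    set H : ℝ := ((Crest.Agent.R138.Ex926.cls (E' n) (W.lc n) y).card : ℝ) with hH
    have hH0 : 0 ≤ H := Nat.cast_nonneg _
    have d3 : ((E n).card : ℝ) ≤ W.B'.d n ^ (a - 2 * ε) * H := by
      refine d1.trans ?_
      have e1 : W.B'.d n ^ (a - 2 * ε) = W.B'.d n ^ (-ε) * W.B'.d n ^ (a - ε) := by
        rw [← Real.rpow_add (W.B'.pos n)]; congr 1; ring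
      rw [e1]
      refine mul_le_mul_of_nonneg_right ?_ hH0
      exact mul_le_mul h6 d2 (Nat.cast_nonneg _) (hpos _).le
    calc ((E n).card : ℝ) * W.B'.d n ^ (2 * ε - a)
        ≤ (W.B'.d n ^ (a - 2 * ε) * H) * W.B'.d n ^ (2 * ε - a) :=
          mul_le_mul_of_nonneg_right d3 (hpos _).le
      _ = (W.B'.d n ^ (a - 2 * ε) * W.B'.d n ^ (2 * ε - a)) * H := by ring
      _ = H := by
          rw [← Real.rpow_add (W.B'.pos n)]
          simp
  have c3 : (L'.card : ℝ) * (((E n).card : ℝ) * W.B'.d n ^ (2 * ε - a)) ≤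
      (((E' n).filter fun i => W.lc n i ∈ L').card : ℝ) := by
    have d1 : ((E' n).filter fun i => W.lc n i ∈ L').card =
        ∑ l ∈ L', (((E' n).filter fun i => W.lc n i ∈ L').filter fun i => W.lc n i = l).card :=
      card_eq_sum_card_fiberwise fun i hi => (mem_filter.1 hi).2
    rw [d1, Nat.cast_sum, ← nsmul_eq_mul, ← sum_const]
    exact sum_le_sum c2
  refine le_trans ?_ c3
  have hE0 : (0 : ℝ) ≤ (E n).card := Nat.cast_nonneg _
  calc W.B'.d n ^ (4 * ε) * ((E n).card : ℝ)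
      = (W.B'.d n ^ ε * W.B'.d n ^ (a + ε)) * (((E n).card : ℝ) * W.B'.d n ^ (2 * ε - a)) := by
        have e1 : W.B'.d n ^ (4 * ε) = W.B'.d n ^ ε * W.B'.d n ^ (a + ε) *
            W.B'.d n ^ (2 * ε - a) := by
          rw [← Real.rpow_add (W.B'.pos n), ← Real.rpow_add (W.B'.pos n)]; congr 1; ring
        rw [e1]; ring
    _ ≤ (W.B'.d n ^ ε * ((W.cfg0 n (E' n)).L.card : ℝ)) *
        (((E n).card : ℝ) * W.B'.d n ^ (2 * ε - a)) := by
        have := hpos ε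
        have := hpos (2 * ε - a)
        gcongr
    _ ≤ (L'.card : ℝ) * (((E n).card : ℝ) * W.B'.d n ^ (2 * ε - a)) :=
        mul_le_mul_of_nonneg_right hcard (mul_nonneg hE0 (hpos _).le)

end

/-! ### rigidity on incidences -/

section

open Wnd

variable {ι : ℕ → Type*} [∀ n, DecidableEq (ι n)]

/-- the relation of a rigid lightlike class: the axis slope (slot `2`) and the direction `C_b`
(slot `6`) are an affine and a quadratic function of `C_a` (slot `5`), up to `ρ^(x-ε)` -/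
def RigRel (W : Wnd 11 ι) (n : ℕ) (x ε : ℝ) (G' : Finset (ι n)) : Prop :=
  ∃ s0 c0 C0 E0 : ℝ, |s0| ≤ W.B'.d n ^ (-ε) ∧ |c0| ≤ 1 ∧ |C0| ≤ 1 ∧ |E0| ≤ 1 ∧ ∀ y ∈ G',
    |W.crd n (W.s₀ n) y 2 - (E0 - s0 * (W.crd n (W.s₀ n) y 5 - c0))| ≤ W.B'.d n ^ (x - ε) ∧
    |W.crd n (W.s₀ n) y 6 - (C0 + E0 * (W.crd n (W.s₀ n) y 5 - c0) -
      s0 * (W.crd n (W.s₀ n) y 5 - c0) ^ 2 / 2)| ≤ W.B'.d n ^ (x - ε)

theorem RigRel.mono {W : Wnd 11 ι} {n : ℕ} {x ε : ℝ} {G G' : Finset (ι n)} (h : G' ⊆ G)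
    (hG : RigRel W n x ε G) : RigRel W n x ε G' := by
  obtain ⟨s0, c0, C0, E0, h1, h2, h3, h4, h5⟩ := hG
  exact ⟨s0, c0, C0, E0, h1, h2, h3, h4, fun y hy => h5 y (h hy)⟩

theorem RigRel.mono_eps {W : Wnd 11 ι} {n : ℕ} {x ε ε' : ℝ} {G : Finset (ι n)} (h : ε ≤ ε')
    (hG : RigRel W n x ε G) : RigRel W n x ε' G := by
  obtain ⟨s0, c0, C0, E0, h1, h2, h3, h4, h5⟩ := hG
  have e1 : W.B'.d n ^ (x - ε) ≤ W.B'.d n ^ (x - ε') :=
    Real.rpow_le_rpow_of_exponent_ge (W.B'.pos n) (W.B'.lt n).le (by linarith)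
  have e2 : W.B'.d n ^ (-ε) ≤ W.B'.d n ^ (-ε') :=
    Real.rpow_le_rpow_of_exponent_ge (W.B'.pos n) (W.B'.lt n).le (by linarith)
  exact ⟨s0, c0, C0, E0, h1.trans e2, h2, h3, h4, fun y hy =>
    ⟨(h5 y hy).1.trans e1, (h5 y hy).2.trans e1⟩⟩

namespace LWin

variable {W : Wnd 11 ι} {F : ∀ n, ι n → Fq4} {x : ℝ} (H : LWin W F x)

include H

/-- coordinates in the frame of the base incidence -/
theorem crd_eq {n : ℕ} (y : ι n) (s : Fin 10) :
    W.crd n (W.s₀ n) y (tq s) = co4 (st (F n (W.s₀ n))) (st (F n y)) s / uu W n s := by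
  unfold Wnd.crd
  rw [H.co, coQ_st (H.str n _) (H.str n y) (tq_ne s), s4_tq]
  rfl

theorem nI_z {n : ℕ} (y : ι n) : (nI W F n y).z = W.crd n (W.s₀ n) y 0 := (H.crd_eq y 0).symm
theorem nI_e {n : ℕ} (y : ι n) : (nI W F n y).e = W.crd n (W.s₀ n) y 2 := (H.crd_eq y 1).symm
theorem nI_fb {n : ℕ} (y : ι n) : (nI W F n y).fb = W.crd n (W.s₀ n) y 3 := (H.crd_eq y 2).symm
theorem nI_v1 {n : ℕ} (y : ι n) : (nI W F n y).t.v 1 = W.crd n (W.s₀ n) y 5 :=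
  (H.crd_eq y 4).symm
theorem nI_v2 {n : ℕ} (y : ι n) : (nI W F n y).t.v 2 = W.crd n (W.s₀ n) y 6 :=
  (H.crd_eq y 5).symm

/-- an affine relation for the flags `F_b` on the class, in the frame of `s₀`, is the field `aff` -/
theorem aff_of {E E' : ∀ n, Finset (ι n)} (hsub : ∀ n, E' n ⊆ E n)
    (hE : ∀ᶠ n in (U : Filter ℕ), E' n ⊆ W.Cl n ∧ W.cfg E' n = W.cfg0 n (E' n)) {mu be : ℕ → ℝ}
    (hmu : ∀ ε : ℝ, 0 < ε → ∀ᶠ n in (U : Filter ℕ), |mu n| ≤ W.B'.d n ^ (-ε))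
    (haff : ∀ ε : ℝ, 0 < ε → ∀ᶠ n in (U : Filter ℕ), ∀ y ∈ E n,
      |W.crd n (W.s₀ n) y 3 - be n - mu n * W.crd n (W.s₀ n) y 0| ≤ W.B'.d n ^ (x - ε)) :
    ∀ ε : ℝ, 0 < ε → ∀ᶠ n in (U : Filter ℕ), ∀ l k, (l, k) ∈ (W.cfg E' n).I →
      |lfb W F n k - be n - mu n * (W.cfg E' n).z k| ≤ W.B'.d n ^ (x - ε) := by
  intro ε hε
  have hε2 : 0 < ε / 2 := by positivity
  filter_upwards [hE, H.ok.ev_good, H.tight, hmu _ hε2, haff _ hε2, ev_const_le W.B' hε2 3] with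
    n ⟨h1, h2⟩ g hu h3 h4 hc l k hI
  rw [h2] at hI ⊢
  obtain ⟨y, hy, rfl, rfl⟩ := mem_I.1 hI
  have hpos : ∀ t : ℝ, 0 < W.B'.d n ^ t := fun t => Real.rpow_pos_of_pos (W.B'.pos n) t
  have hyc := h1 hy
  obtain ⟨b1, b2⟩ := mem_zrep hyc rfl
  obtain ⟨d1, d2⟩ := H.levC g hu hyc b1 b2.symm
  have h5 := h4 y (hsub n hy)
  rw [← H.nI_fb, ← H.nI_z] at h5
  have hz : (W.cfg0 n (E' n)).z (W.zc n y) = (nI W F n (W.zrep n (W.zc n y))).z := H.z_eq _
  rw [hz]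
  have hm := abs_mul_le h3 d1
  have e : lfb W F n (W.zc n y) - be n - mu n * (nI W F n (W.zrep n (W.zc n y))).z =
      ((nI W F n y).fb - be n - mu n * (nI W F n y).z) +
      ((nI W F n (W.zrep n (W.zc n y))).fb - (nI W F n y).fb) -
      mu n * ((nI W F n (W.zrep n (W.zc n y))).z - (nI W F n y).z) := by
    unfold lfb; ring
  rw [e]
  have k1 := abs_sub ((((nI W F n y).fb - be n - mu n * (nI W F n y).z) +
      ((nI W F n (W.zrep n (W.zc n y))).fb - (nI W F n y).fb)))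
      (mu n * ((nI W F n (W.zrep n (W.zc n y))).z - (nI W F n y).z))
  have k2 := abs_add_le ((nI W F n y).fb - be n - mu n * (nI W F n y).z)
      ((nI W F n (W.zrep n (W.zc n y))).fb - (nI W F n y).fb)
  have e2 : W.B'.d n ^ (x - ε / 2) = W.B'.d n ^ (-(ε / 2)) * W.B'.d n ^ x := by
    rw [← Real.rpow_add (W.B'.pos n)]; congr 1; ring
  have e3 : W.B'.d n ^ (x - ε) = W.B'.d n ^ (-(ε / 2)) * W.B'.d n ^ (x - ε / 2) := by
    rw [← Real.rpow_add (W.B'.pos n)]; congr 1; ring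
  have e4 : W.B'.d n ^ x ≤ W.B'.d n ^ (x - ε / 2) :=
    Real.rpow_le_rpow_of_exponent_ge (W.B'.pos n) (W.B'.lt n).le (by linarith)
  have e5 := mul_le_mul_of_nonneg_right hc (hpos (x - ε / 2)).le
  rw [e3]
  rw [← e2] at hm
  linarith

/-- **rigidity on incidences** of a lightlike window -/
theorem rig_inc (hRig : RigWin) (hMw : ∀ k, W.Mw.mon k ⊆ mfQ k) (hx : 0 < x) {a m : ℝ}
    (a0 : 0 ≤ a) (a1 : a < 1) (m0 : 0 < m)
    (dec : W.nu 0 + W.nu (vec fAll x) ≤ W.nu (vec fPos x) + W.nu (vec fDir x))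
    (fib : ∀ y, 0 ≤ y → y ≤ x → W.nu (qv x y) - W.nu (qv x x) ≤ a * (x - y))
    (conc : ∀ y, 0 ≤ y → y ≤ x → m * y ≤ W.nu 0 - W.nu (vec {5} y))
    (hdens : W.lam W.top ≤ W.lam (cut W.S W.top 0) + W.lam (cut W.S 0 W.top))
    (hfrost : ∀ y, 0 ≤ y → y ≤ x → W.lam (Pi.single W.kz y) ≤ -y)
    {E : ∀ n, Finset (ι n)} {Mu : ℕ → ℝ} (hE : EOk W E Mu) (mu be : ℕ → ℝ)
    (hmu : ∀ ε : ℝ, 0 < ε → ∀ᶠ n in (U : Filter ℕ),
      W.B'.d n ^ ε ≤ |mu n| ∧ |mu n| ≤ W.B'.d n ^ (-ε))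
    (haff : ∀ ε : ℝ, 0 < ε → ∀ᶠ n in (U : Filter ℕ), ∀ y ∈ E n,
      |W.crd n (W.s₀ n) y 3 - be n - mu n * W.crd n (W.s₀ n) y 0| ≤ W.B'.d n ^ (x - ε)) :
    ∀ ε : ℝ, 0 < ε → ∀ᶠ n in (U : Filter ℕ), ∃ G' ⊆ E n,
      W.B'.d n ^ ε * ((E n).card : ℝ) ≤ (G'.card : ℝ) ∧ RigRel W n x ε G' := by
  obtain ⟨E', g, hP, -, hM⟩ := hE.exists_model H.ok (fun _ _ _ => 0) (g₀ := fun n => (n : ℝ))
    (tendsto_natCast_atTop_atTop.mono_left Crest.Agent.R138.Ex926.U_le_atTop) hdens (σ := 1) (R := x) zero_le_one le_rfl (by rw [H.kz]; exact H.top 0 (by decide))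
    (fun y hy hyx => by rw [one_mul]; exact hfrost y hy hyx)
  have hcfg := ev_cfg H.ok hE hP
  have hE2 : ∀ᶠ n in (U : Filter ℕ), E' n ⊆ W.Cl n ∧ W.cfg E' n = W.cfg0 n (E' n) := by
    filter_upwards [hcfg] with n ⟨g1, h1, h2, h3⟩
    exact ⟨(hP.sub n).trans h1, h3⟩
  have hA := H.absWin hE2 mu be (H.aff_of hP.sub hE2 (fun ε hε => (hmu ε hε).mono fun _ h => h.2)
    haff)
  have hR := hRig W.B' (W.cfg E') W.legW W.nu W.Dc x x a m _ _ _ _ mu be hM le_rfl hA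
    (H.rigProf hMw hx a0 a1 m0 dec fib conc) hmu
  intro ε hε
  have hε4 : 0 < ε / 4 := by positivity
  filter_upwards [hR _ hε4, lines_pull H.ok hE hP hdens hε4, hE2, H.ok.ev_good, H.tight,
    ev_const_le W.B' hε4 100] with n ⟨s0, c0, C0, E0, hs0, hc0, hC0, hE0, L', hL', hcard, hrel⟩
    h1 ⟨h2, h3⟩ gd hu hc
  refine ⟨(E' n).filter fun i => W.lc n i ∈ L', (filter_subset _ _).trans (hP.sub n), ?_, ?_⟩
  · have := h1 L' hL' hcard
    rwa [show 4 * (ε / 4) = ε by ring] at this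
  have hpos : ∀ t : ℝ, 0 < W.B'.d n ^ t := fun t => Real.rpow_pos_of_pos (W.B'.pos n) t
  have hs1 : |s0| ≤ W.B'.d n ^ (-ε) := hs0.trans
    (Real.rpow_le_rpow_of_exponent_ge (W.B'.pos n) (W.B'.lt n).le (by linarith))
  refine ⟨s0, c0, C0, E0, hs1, hc0, hC0, hE0, fun y hy => ?_⟩
  obtain ⟨hy1, hy2⟩ := mem_filter.1 hy
  have hyc := h2 hy1
  obtain ⟨a1', a2'⟩ := mem_lrep hyc rfl
  have uy := H.unit gd hu hyc
  have ul := H.unit gd hu a1'
  obtain ⟨k1, k2, -⟩ := line_close uy fun s q0 q2 => H.lineC gd hu hyc a1' a2'.symm s q0 q2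
  obtain ⟨r1, r2⟩ := hrel _ hy2
  rw [← H.nI_e, ← H.nI_v1, ← H.nI_v2]
  have k3 := k2 1
  have k4 := k2 2
  change |lE W F n (W.lc n y) - (nI W F n y).e| ≤ W.B'.d n ^ x at k1
  change |(lT W F n (W.lc n y)).v 1 - (nI W F n y).t.v 1| ≤ _ at k3
  change |(lT W F n (W.lc n y)).v 2 - (nI W F n y).t.v 2| ≤ _ at k4
  have u1 : |(lT W F n (W.lc n y)).v 1| ≤ 1 := ul.v 1
  have u2 := uy.v 1
  set P := (nI W F n y).e
  set P' := lE W F n (W.lc n y)
  set V1 := (nI W F n y).t.v 1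
  set V1' := (lT W F n (W.lc n y)).v 1
  set V2 := (nI W F n y).t.v 2
  set V2' := (lT W F n (W.lc n y)).v 2
  set δ := W.B'.d n ^ x with hδ
  have e2 : W.B'.d n ^ (x - ε / 4) = W.B'.d n ^ (-(ε / 4)) * δ := by
    rw [hδ, ← Real.rpow_add (W.B'.pos n)]; congr 1; ring
  have e4 : δ ≤ W.B'.d n ^ (x - ε / 4) :=
    Real.rpow_le_rpow_of_exponent_ge (W.B'.pos n) (W.B'.lt n).le (by linarith)
  have e5 : 100 * W.B'.d n ^ (x - ε / 4) ≤ W.B'.d n ^ (x - ε) := by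
    have h1 := mul_le_mul_of_nonneg_right hc (hpos (x - ε / 4)).le
    refine h1.trans ?_
    rw [← Real.rpow_add (W.B'.pos n)]
    exact Real.rpow_le_rpow_of_exponent_ge (W.B'.pos n) (W.B'.lt n).le (by linarith)
  have hδ0 : 0 < δ := hpos x
  have q1 : |s0 * (V1' - V1)| ≤ 4 * W.B'.d n ^ (x - ε / 4) := by
    rw [e2]
    have := abs_mul_le hs0 k3
    linarith
  have q2 : |(V1' - V1) * (V1' + V1 - 2 * c0)| ≤ 4 * δ * 4 := by
    refine abs_mul_le k3 ?_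
    have h1 := abs_le.1 u1
    have h2 := abs_le.1 u2
    have h3 := abs_le.1 hc0
    rw [abs_le]
    constructor <;> linarith
  have q3 : |s0 * ((V1' - V1) * (V1' + V1 - 2 * c0))| ≤ 16 * W.B'.d n ^ (x - ε / 4) := by
    rw [e2]
    have := abs_mul_le hs0 q2
    linarith
  have q4 : |E0 * (V1' - V1)| ≤ 4 * W.B'.d n ^ (x - ε / 4) := by
    have := abs_mul_le hE0 k3
    linarith
  have hp4 := hpos (x - ε / 4)
  constructor
  · have e : P - (E0 - s0 * (V1 - c0)) = (P' - (E0 - s0 * (V1' - c0))) - (P' - P) -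
        s0 * (V1' - V1) := by ring
    rw [e]
    have t1 := abs_sub ((P' - (E0 - s0 * (V1' - c0))) - (P' - P)) (s0 * (V1' - V1))
    have t2 := abs_sub (P' - (E0 - s0 * (V1' - c0))) (P' - P)
    linarith
  · have e : V2 - (C0 + E0 * (V1 - c0) - s0 * (V1 - c0) ^ 2 / 2) =
        (V2' - (C0 + E0 * (V1' - c0) - s0 * (V1' - c0) ^ 2 / 2)) - (V2' - V2) +
        (E0 * (V1' - V1) - s0 * ((V1' - V1) * (V1' + V1 - 2 * c0)) / 2) := by ring
    rw [e]
    have t1 := abs_add_le ((V2' - (C0 + E0 * (V1' - c0) - s0 * (V1' - c0) ^ 2 / 2)) - (V2' - V2))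
      (E0 * (V1' - V1) - s0 * ((V1' - V1) * (V1' + V1 - 2 * c0)) / 2)
    have t2 := abs_sub (V2' - (C0 + E0 * (V1' - c0) - s0 * (V1' - c0) ^ 2 / 2)) (V2' - V2)
    have t3 := abs_sub (E0 * (V1' - V1)) (s0 * ((V1' - V1) * (V1' + V1 - 2 * c0)) / 2)
    have t4 : |s0 * ((V1' - V1) * (V1' + V1 - 2 * c0)) / 2| ≤ 8 * W.B'.d n ^ (x - ε / 4) := by
      rw [abs_div, abs_of_pos (two_pos : (0 : ℝ) < 2), div_le_iff₀ two_pos]
      linarith
    linarith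

end LWin

end

end Crest.Agent.R136.Wk323
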