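import Crest.Agent.R136.Lin10_560
import Crest.Agent.R136.Lin6_560
import Crest.Agent.R136.LinW_938
import Crest.Agent.R136.LnX_619
import Crest.Agent.R136.WkH4_626

/-!
# R136, thin branch (helper478): `lin_rel`, the relation on every window of `lin`

* `back` : 560's window is 619's window
* `lProf` : the numbers of `lin` as `LProf`
* **`lin_rel2`, `lin_rel3`** : `ρ^ε`-part of every honest set of incidences with `LinRel`
* **`lin_rel`** : precision `K > 0` depending on `σ`, `x` only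
-/

set_option autoImplicit false
set_option linter.unusedSectionVars false
set_option linter.unusedVariables false

open Filter Topology

namespace Crest.Agent.R136.Lin478

open Finset Crest.Agent.R138.Ex926 Crest.Agent.R136.Net191 Crest.Agent.R136.Gf356
open Crest.Agent.R136.Qg926 Crest.Agent.R136.NetW191 Crest.Agent.R136.EvW938
open Crest.Agent.R136.QdH887 (bv bv_in bv_out bv_eq ind)
open Crest.Agent.R136.Lin560

variable {Dq Uq : Finset (Fin 18)} {W : Wnd 18 fun _ => ℕ × ℝ} {κ : ℕ → ℝ}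
  {u : ℕ → Fin 18 → ℝ} {f : ∀ n : ℕ, ℕ × ℝ → FW} {mm σ x : ℝ}

theorem back (g : LnW Dq Uq W κ u f mm σ x) : Ln619.LnW Dq Uq W κ u f mm σ x :=
  { x0 := g.x0
    m0 := g.m0
    s0 := g.s0
    ww := g.ww
    eS := g.eS
    etop := g.etop
    ekap := g.ekap
    dw := g.dw
    hk := g.hk
    tight := g.tight
    gap := g.gap
    room := g.room
    dens := g.dens
    frost := g.frost
    leg := g.leg
    n3 := g.n3
    n4 := g.n4
    n5 := g.n5 }

/-- the numbers -/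
theorem lProf (g : LnW Dq Uq W κ u f mm σ x) (h0 : Ln619.OkQ Dq (ind {0}))
    (h1 : Ln619.OkQ Dq (ind (insert 0 Uq))) (h2 : Ln619.OkQ Dq (ind (insert 0 {1, 16})))
    (h3 : Ln619.OkQ Dq (ind (insert 0 (Uq ∪ {1, 16})))) :
    LProf W.legW W.nu x mm 0 (bv x Uq) (bv x {1, 16}) (bv x (Uq ∪ {1, 16}))
      (fun y => Pi.single 1 y) :=
  { m0 := g.m0
    l0 := (back g).leg0 h0
    lr := (back g).legb h1
    lQc := (back g).legb h2
    lQf := (back g).legb h3
    lc := fun y hy hyx => by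
      have hx := g.x0
      have hc : ∀ s, 0 ≤ cut {0} (Pi.single (1 : Fin 18) y) (fun _ => x) s := by
        intro s
        unfold cut
        split_ifs
        · exact hx.le
        · by_cases hs : s = 1
          · subst hs; rwa [Pi.single_eq_same]
          · rw [Pi.single_eq_of_ne hs]
      refine g.leg _ (fun s => ?_) (fun s => ?_) fun k hk l hl hs => ?_
      · by_cases hs : s = 1
        · subst hs; rwa [Pi.single_eq_same]
        · rw [Pi.single_eq_of_ne hs]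
      · by_cases hs : s = 1
        · subst hs; rwa [Pi.single_eq_same]
        · rw [Pi.single_eq_of_ne hs]; exact hx.le
      · have h01 : k ≠ 0 ∧ k ≠ 1 := by
          constructor
          · rintro rfl; exact absurd hl (by have : mlW 0 = [] := by decide
                                            rw [this]; simp)
          · rintro rfl; exact absurd hl (by have : mlW 1 = [] := by decide
                                            rw [this]; simp)
        have e : cut {0} (Pi.single (1 : Fin 18) y) (fun _ => x) k = 0 := by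
          rw [cut_of_notMem (by rw [mem_singleton]; exact h01.1), Pi.single_eq_of_ne h01.2]
        rw [e]
        exact List.sum_nonneg fun a ha => by
          obtain ⟨s, -, rfl⟩ := List.mem_map.1 ha
          exact hc s
    hprod := g.n3
    H5 := fun y hy hyx => by have := g.n5 y hy; linarith }

/-- **from the rigidity of the lines to the incidences** -/
theorem rel_of_lines (g : LnW Dq Uq W κ u f mm σ x) (hD : DOk Dq) {Qj : Finset (Fin 14)}
    (hQ : Qj = {11} ∧ (14 : Fin 18) ∈ Dq ∨ Qj = {10, 11} ∧ (14 : Fin 18) ∉ Dq) {t : ℝ}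
    (htx : t < x)
    (hmod : ∀ E : ∀ n : ℕ, Finset (ℕ × ℝ), EvG W E →
      RModel W.B' (W.cfg E) 1 x W.legW W.nu W.Dc → ∀ δ : ℝ, 0 < δ →
      ∀ᶠ n in (U : Filter ℕ), ∃ mu la : ℝ, ∃ l1, |mu| ≤ W.B'.d n ^ (-δ) ∧
        |la| ≤ W.B'.d n ^ (-δ) ∧ ((14 : Fin 18) ∈ Dq → la = 0) ∧
        ∃ T ⊆ (W.cfg E n).L, W.B'.d n ^ δ * ((W.cfg E n).L.card : ℝ) ≤ (T.card : ℝ) ∧
        ∀ l ∈ T, |(tyW W n l 1 - tyW W n l1 1) - mu * (tyW W n l 0 - tyW W n l1 0) -
          la * (-(κ n * tyW W n l 0 ^ 2) - -(κ n * tyW W n l1 0 ^ 2))| ≤ W.B'.d n ^ (t - δ))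
    {E : ∀ n : ℕ, Finset (ℕ × ℝ)} {Mu : ℕ → ℝ} (hE : Wnd.EOk W E Mu) {ε : ℝ} (hε : 0 < ε) :
    ∀ᶠ n in (U : Filter ℕ), ∃ G ⊆ E n, W.B'.d n ^ ε * ((E n).card : ℝ) ≤ (G.card : ℝ) ∧
      LinRel Qj W κ u f n ε (t - ε) G := by
  classical
  have hz : W.kz = 0 := g.ww.kz
  obtain ⟨E', gg, hP, -, hM⟩ := Wnd.EOk.exists_model (σ := 1) (R := x) g.ww.ok hE
    (fun _ _ _ => 0) (g₀ := fun n => 1 + W.B'.L n)
    (tendsto_atTop.2 fun b => (W.B'.ev_L_ge b).mono fun n hn => by linarith) g.dens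
    zero_le_one le_rfl (by rw [g.etop]) (fun y h0 h1 => by rw [hz]; exact g.frost y h0 h1)
  have hEv : EvG W E' := by
    filter_upwards [Wnd.ev_cfg g.ww.ok hE hP] with n hn
    exact ⟨hn.1, (hP.sub n).trans hn.2.1, hn.2.2.2⟩
  have he : 0 < ε / 4 := by positivity
  filter_upwards [hmod E' hEv hM (ε / 4) he,
    Crest.Agent.R136.Wk323.lines_pull g.ww.ok hE hP g.dens he, hEv,
    g.rel_core hD (δ := ε / 4) he htx] with n ⟨mu, la, l1, hmu, hla, hla0, T, hT, hTc, hTr⟩ hpull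
      ⟨gd, hsub, heq⟩ hcore
  refine ⟨(E' n).filter fun i => W.lc n i ∈ T, (filter_subset _ _).trans (hP.sub n), ?_, ?_⟩
  · have := hpull T hT hTc
    rwa [show 4 * (ε / 4) = ε by ring] at this
  · have := hcore gd mu la hmu hla hla0 l1 ((E' n).filter fun i => W.lc n i ∈ T)
      ((filter_subset _ _).trans hsub) (fun y hy => hTr _ (mem_filter.1 hy).2) Qj hQ
    rwa [show 4 * (ε / 4) = ε by ring] at this

/-- **`lin` in the window, `b1 = 1`** -/
theorem lin_rel2 (g : LnW Da Ua W κ u f mm σ x) {t : ℝ} (ht : 0 ≤ t) (htx : t < x)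
    (htσ : 2 * t < σ * x) {E : ∀ n : ℕ, Finset (ℕ × ℝ)} {Mu : ℕ → ℝ} (hE : Wnd.EOk W E Mu)
    {ε : ℝ} (hε : 0 < ε) :
    ∀ᶠ n in (U : Filter ℕ), ∃ G ⊆ E n, W.B'.d n ^ ε * ((E n).card : ℝ) ≤ (G.card : ℝ) ∧
      LinRel {11} W κ u f n ε (t - ε) G := by
  refine rel_of_lines g dOk_a (Or.inl ⟨rfl, by decide⟩) htx (fun E' hEv hM δ hδ => ?_) hE hε
  obtain ⟨M, C, hRow⟩ := Lin938.lRow2 g hEv hM
  have hn4 := g.n4
  have hcard : ((Ua.card : ℕ) : ℝ) = 2 := by
    have : Ua.card = 2 := by decide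
    rw [this]; norm_num
  rw [hcard] at hn4
  filter_upwards [lin_model2 hM hRow (lProf g (by decide) (by decide) (by decide) (by decide))
    (fun n l i => rfl) ht htx (by nlinarith) hδ] with n ⟨mu, l1, h1, T, hT, hc, hr⟩
  refine ⟨mu, 0, l1, h1, ?_, fun _ => rfl, T, hT, hc, fun l hl => ?_⟩
  · rw [abs_zero]; exact (Real.rpow_pos_of_pos (W.B'.pos n) _).le
  · rw [zero_mul, sub_zero]; exact hr l hl

/-- **`lin` in the window, `b1 = 2`** -/
theorem lin_rel3 (g : LnW Db Ub W κ u f mm σ x) {t : ℝ} (ht : 0 ≤ t) (htx : t < x)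
    (htσ : 3 * t < σ * x) {E : ∀ n : ℕ, Finset (ℕ × ℝ)} {Mu : ℕ → ℝ} (hE : Wnd.EOk W E Mu)
    {ε : ℝ} (hε : 0 < ε) :
    ∀ᶠ n in (U : Filter ℕ), ∃ G ⊆ E n, W.B'.d n ^ ε * ((E n).card : ℝ) ≤ (G.card : ℝ) ∧
      LinRel {10, 11} W κ u f n ε (t - ε) G := by
  refine rel_of_lines g dOk_b (Or.inr ⟨rfl, by decide⟩) htx (fun E' hEv hM δ hδ => ?_) hE hε
  obtain ⟨M, C, hRow⟩ := Lin938.lRow3 g hEv hM
  have hn4 := g.n4
  have hcard : ((Ub.card : ℕ) : ℝ) = 3 := by
    have : Ub.card = 3 := by decide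
    rw [this]; norm_num
  rw [hcard] at hn4
  filter_upwards [lin_model3 hM hRow (lProf g (by decide) (by decide) (by decide) (by decide))
    (kp := κ) (fun n l => rfl) (fun n l => rfl) (fun n l => rfl) g.ww.hκ g.hk ht htx
    (by nlinarith) hδ] with n ⟨mu, la, l1, h1, h2, T, hT, hc, hr⟩
  exact ⟨mu, la, l1, h1, h2, fun h => absurd h (by decide), T, hT, hc, hr⟩

/-- **the relation on every window**, `b1 = 1` -/
theorem lin_relA {σ x : ℝ} (hσ : 0 < σ) (hx : 0 < x) : ∃ K : ℝ, 0 < K ∧ K < x ∧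
    ∀ (kp : ℕ → ℝ) (u : ℕ → Fin 18 → ℝ) (f : ℕ → ℕ × ℝ → FW) (mm : ℝ)
      (W : Wnd 18 fun _ => ℕ × ℝ), LnW Da Ua W kp u f mm σ x → ∀ ε : ℝ, 0 < ε →
      ∀ᶠ n in (U : Filter ℕ), ∃ G ⊆ W.Cl n,
        W.B'.d n ^ ε * ((W.Cl n).card : ℝ) ≤ (G.card : ℝ) ∧
        LinRel {11} W kp u f n ε (K - ε) G := by
  have h1 : 0 < σ * x := mul_pos hσ hx
  refine ⟨min (x / 2) (σ * x / 4), lt_min (by linarith) (by linarith), ?_, fun kp u f mm W g ε hε =>
    lin_rel2 g ?_ ?_ ?_ g.ww.ok.eok_class hε⟩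
  · exact (min_le_left _ _).trans_lt (by linarith)
  · exact le_min (by linarith) (by linarith)
  · exact (min_le_left _ _).trans_lt (by linarith)
  · have := min_le_right (x / 2) (σ * x / 4)
    linarith

/-- **the relation on every window**, `b1 = 2` -/
theorem lin_relB {σ x : ℝ} (hσ : 0 < σ) (hx : 0 < x) : ∃ K : ℝ, 0 < K ∧ K < x ∧
    ∀ (kp : ℕ → ℝ) (u : ℕ → Fin 18 → ℝ) (f : ℕ → ℕ × ℝ → FW) (mm : ℝ)
      (W : Wnd 18 fun _ => ℕ × ℝ), LnW Db Ub W kp u f mm σ x → ∀ ε : ℝ, 0 < ε →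
      ∀ᶠ n in (U : Filter ℕ), ∃ G ⊆ W.Cl n,
        W.B'.d n ^ ε * ((W.Cl n).card : ℝ) ≤ (G.card : ℝ) ∧
        LinRel {10, 11} W kp u f n ε (K - ε) G := by
  have h1 : 0 < σ * x := mul_pos hσ hx
  refine ⟨min (x / 2) (σ * x / 4), lt_min (by linarith) (by linarith), ?_, fun kp u f mm W g ε hε =>
    lin_rel3 g ?_ ?_ ?_ g.ww.ok.eok_class hε⟩
  · exact (min_le_left _ _).trans_lt (by linarith)
  · exact le_min (by linarith) (by linarith)
  · exact (min_le_left _ _).trans_lt (by linarith)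
  · have := min_le_right (x / 2) (σ * x / 4)
    linarith

end Crest.Agent.R136.Lin478
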