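import Crest.Agent.R136.Lin5_560

/-!
# R136, thin branch, `lin` (helper560), part 7: `lin_model3`
-/

set_option autoImplicit false
set_option linter.unusedSectionVars false
set_option linter.unusedVariables false

open Filter Topology

namespace Crest.Agent.R136.Lin560

open Finset
open Crest.Agent.R138.Ex926 (Base U)
open Crest.Agent.R136.Gf356

section

variable {κ : Type} {B : Base} {G : ℕ → RCfg κ} {Leg : Set (κ → ℝ)} {ν : (κ → ℝ) → ℝ}
  {D x M C m : ℝ} {p0 r Qc Qf : κ → ℝ} {pc : ℝ → κ → ℝ} {φ : ℕ → ℕ → ℝ}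
  {ty : ℕ → ℕ → Fin 2 → ℝ}

/-- the minor of two differences on the parabola -/
theorem minor_eq (k c1 c2 c3 : ℝ) :
    (c1 - c2) * (-(k * c2 ^ 2) - -(k * c3 ^ 2)) - (-(k * c1 ^ 2) - -(k * c2 ^ 2)) * (c2 - c3) =
      -(k * ((c2 - c1) * (c3 - c2) * (c3 - c1))) := by ring

/-- size of a coefficient -/
theorem coef_le {a b c d M m E : ℝ} (ha : |a| ≤ 2 * M) (hb : |b| ≤ 2 * M) (hc : |c| ≤ 2 * M)
    (hd : |d| ≤ 2 * M) (hm : 0 < |m|) (hE : 8 * M ^ 2 ≤ E * |m|) (hM : 0 ≤ M) :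
    |(a * b - c * d) / m| ≤ E := by
  rw [abs_div, div_le_iff₀ hm]
  refine le_trans ?_ hE
  refine (abs_sub _ _).trans ?_
  rw [abs_mul, abs_mul]
  have h1 : |a| * |b| ≤ (2 * M) * (2 * M) := mul_le_mul ha hb (abs_nonneg _) (by positivity)
  have h2 : |c| * |d| ≤ (2 * M) * (2 * M) := mul_le_mul hc hd (abs_nonneg _) (by positivity)
  linarith

set_option maxHeartbeats 4000000 in
/-- **rigidity in space** -/
theorem lin_model3 {vel : ℕ → ℕ → Fin 3 → ℝ} {pos : ℕ → ℕ → ℕ → Fin 3 → ℝ}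
    (H : RModel B G 1 x Leg ν D)
    (Q : LRow 3 B G x M C p0 r Qc Qf pc φ ty vel pos) (P : LProf Leg ν x m p0 r Qc Qf pc)
    {kp : ℕ → ℝ} (hv0 : ∀ n l, vel n l 0 = ty n l 0)
    (hv1 : ∀ n l, vel n l 1 = -(kp n * ty n l 0 ^ 2)) (hv2 : ∀ n l, vel n l 2 = ty n l 1)
    (hk1 : ∀ n, |kp n| ≤ 1)
    (hkp : ∀ ε : ℝ, 0 < ε → ∀ᶠ n in (U : Filter ℕ), B.d n ^ ε ≤ |kp n|) {t : ℝ} (ht : 0 ≤ t)
    (htx : t < x) (hn : ν p0 - ν r < 3 * (x - t)) {δ : ℝ} (hδ : 0 < δ) :
    ∀ᶠ n in (U : Filter ℕ), ∃ mu la : ℝ, ∃ l1, |mu| ≤ B.d n ^ (-δ) ∧ |la| ≤ B.d n ^ (-δ) ∧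
      ∃ T ⊆ (G n).L, B.d n ^ δ * ((G n).L.card : ℝ) ≤ (T.card : ℝ) ∧
      ∀ l ∈ T, |(ty n l 1 - ty n l1 1) - mu * (ty n l 0 - ty n l1 0) -
        la * (-(kp n * ty n l 0 ^ 2) - -(kp n * ty n l1 0 ^ 2))| ≤ B.d n ^ (t - δ) := by
  have hD := H.D1
  have hD0 : 0 < D := by linarith
  have hC := Q.C1
  have hC0 : 0 < C := by linarith
  have hM := Q.M1
  have hM0 : 0 ≤ M := by linarith
  have hD3 : 1 ≤ D ^ 3 := one_le_pow₀ hD
  have hD5 : 1 ≤ D ^ 5 := one_le_pow₀ hD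
  set K : ℝ := 20 * (C * D ^ 5 + C * D ^ 3 + C + D + 2) with hK
  have hCD3 : 0 < C * D ^ 3 := by positivity
  have hCD5 : 0 < C * D ^ 5 := by positivity
  have hK0 : 0 < K := by rw [hK]; positivity
  obtain ⟨y, e, hy, he, q1, q2, q3, q4, q5⟩ := params (x := x) (t := t) P.m0 hδ
    (g := 3 * (x - t) - (ν p0 - ν r)) (by linarith) htx hC hD K hK0
  have hKe : ∀ s : ℝ, s ≤ K → s * e ≤ K * e := fun s hs => mul_le_mul_of_nonneg_right hs he.le
  filter_upwards [setup H Q P he hy.le (by linarith) ht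
    ((hKe _ (by rw [hK]; linarith)).trans q5) ((hKe _ (by rw [hK]; linarith)).trans q2),
    hkp e he] with n hn1 hkn
  obtain ⟨cell, S⟩ := hn1
  classical
  obtain ⟨⟨y0, k0⟩, h0⟩ := H.nonempty n
  have memI : ∀ {l k : ℕ}, k ∈ (G n).hts l ↔ (l, k) ∈ (G n).I := fun {l k} => H.memHts
  have hLm : ∀ l k, (l, k) ∈ (G n).I → l ∈ (G n).L := fun l k h => H.memL h
  have pw : ∀ {s t : ℝ}, t ≤ s → B.d n ^ s ≤ B.d n ^ t := fun h => rpow_anti B n h
  have pa : ∀ s t : ℝ, B.d n ^ s * B.d n ^ t = B.d n ^ (s + t) := fun s t => (rpow_add' B n s t).symm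
  have pos' : ∀ s : ℝ, 0 < B.d n ^ s := fun s => rpos B n s
  have pk : ∀ (s : ℝ) (k : ℕ), (B.d n ^ s) ^ k = B.d n ^ ((k : ℝ) * s) := fun s k => by
    rw [← Real.rpow_natCast, ← Real.rpow_mul (B.pos n).le, mul_comm]
  have hCe : 0 < C * e := by positivity
  have e0 : 1 ≤ B.d n ^ (-e) := by linarith [S.c24]
  have hMC : 600 * M ^ 3 * C ≤ B.d n ^ (-e) := S.cM
  have hM1' : M ≤ M ^ 3 := le_self_pow₀ hM (by norm_num)
  have hM2' : M ^ 2 ≤ M ^ 3 := pow_le_pow_right₀ hM (by norm_num)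
  have hM3' : M ^ 3 ≤ M ^ 3 * C := le_mul_of_one_le_right (by positivity) hC
  have h8M : 8 * M ^ 2 ≤ B.d n ^ (-e) := by
    have : 0 ≤ M ^ 3 * C := by positivity
    linarith
  have h2M : 2 * M ≤ B.d n ^ (-e) := by
    have : 0 ≤ M ^ 3 * C := by positivity
    linarith
  have key := alt3 (θ := B.d n ^ t) (δ := B.d n ^ (y + 2 * e))
    (nS := B.d n ^ (ν Qf - ν r + (C * D ^ 3 + 1) * e)) (b := B.d n ^ e * (G n).Z.card)
    (N := B.d n ^ (x - t - (C * D ^ 5 + 3) * e) * (G n).Z.card)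
    (NC := B.d n ^ (ν r - ν p0 - (D + 1) * e)) S.flow (memI.2 h0)
    (St := fun k y => (G n).box r e y k) S.st S.NT S.hT (pos' _).le S.NC (pos' t) (pos' _).le
    (mul_pos (pos' _) S.Zc).le S.hS ?_ S.hH (mul_pos (pos' _) S.Zc).le ?_ ?_
  · obtain ⟨y1, y2, y3, k3, g1, g1', g2, g31, g32, g33, g4⟩ := key
    obtain ⟨k1, hk1'⟩ := g1
    obtain ⟨k2, hk2'⟩ := g1'
    have I1 := memI.1 hk1'
    have I2 := memI.1 hk2'
    have I3 := memI.1 g2
    rw [hv0, hv0] at g31 g32 g33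
    have vM1 := S.flow.vM y1 ⟨k1, hk1'⟩
    have vM2 := S.flow.vM y2 ⟨k2, hk2'⟩
    have vM3 := S.flow.vM y3 ⟨k3, g2⟩
    have d2M : ∀ {u v : Fin 3 → ℝ}, (∀ i, |u i| ≤ M) → (∀ i, |v i| ≤ M) → ∀ i,
      |u i - v i| ≤ 2 * M := fun hu hv i => (abs_sub _ _).trans (by linarith [hu i, hv i])
    have a12 := d2M vM1 vM2
    have a23 := d2M vM2 vM3
    set dl := B.d n ^ (y + 2 * e) with hdl
    have hdl0 : 0 < dl := pos' _
    set mn := (vel n y1 0 - vel n y2 0) * (vel n y2 1 - vel n y3 1) -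
      (vel n y1 1 - vel n y2 1) * (vel n y2 0 - vel n y3 0) with hmn
    have hmn_ge : B.d n ^ (3 * y + 7 * e) ≤ |mn| := by
      rw [hmn]
      simp only [hv0, hv1]
      rw [minor_eq, abs_neg, abs_mul, abs_mul, abs_mul]
      calc B.d n ^ (3 * y + 7 * e) = B.d n ^ e * (dl * dl * dl) := by
            rw [hdl, pa, pa, pa]; congr 1; ring
        _ ≤ _ := mul_le_mul hkn (mul_le_mul (mul_le_mul g31.le g33.le hdl0.le (abs_nonneg _))
            g32.le hdl0.le (by positivity)) (by positivity) (abs_nonneg _)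
    have hmn0 : 0 < |mn| := (pos' _).trans_le hmn_ge
    have hmne : mn ≠ 0 := abs_pos.1 hmn0
    set la := ((vel n y1 0 - vel n y2 0) * (vel n y2 2 - vel n y3 2) -
      (vel n y1 2 - vel n y2 2) * (vel n y2 0 - vel n y3 0)) / mn with hla
    set mu := ((vel n y1 2 - vel n y2 2) * (vel n y2 1 - vel n y3 1) -
      (vel n y1 1 - vel n y2 1) * (vel n y2 2 - vel n y3 2)) / mn with hmu
    have hE8 : 8 * M ^ 2 ≤ B.d n ^ (-(3 * y + 8 * e)) * |mn| := by
      calc 8 * M ^ 2 ≤ B.d n ^ (-e) := h8M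
        _ = B.d n ^ (-(3 * y + 8 * e)) * B.d n ^ (3 * y + 7 * e) := by rw [pa]; congr 1; ring
        _ ≤ _ := mul_le_mul_of_nonneg_left hmn_ge (pos' _).le
    have hla1 : |la| ≤ B.d n ^ (-(3 * y + 8 * e)) :=
      coef_le (a12 0) (a23 2) (a12 2) (a23 0) hmn0 hE8 hM0
    have hmu1 : |mu| ≤ B.d n ^ (-(3 * y + 8 * e)) :=
      coef_le (a12 2) (a23 1) (a12 1) (a23 2) hmn0 hE8 hM0
    have hK10 := hKe (C + 10) (by rw [hK]; linarith)
    have hdel : B.d n ^ (-(3 * y + 8 * e)) ≤ B.d n ^ (-δ) := pw (by linarith)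
    refine ⟨mu, la, y3, hmu1.trans hdel, hla1.trans hdel, (G n).L.filter fun l =>
      |(ty n l 1 - ty n y3 1) - mu * (ty n l 0 - ty n y3 0) -
        la * (-(kp n * ty n l 0 ^ 2) - -(kp n * ty n y3 0 ^ 2))| ≤ B.d n ^ (t - δ),
      filter_subset _ _, ?_, fun l hl => (mem_filter.1 hl).2⟩
    refine rel_part he S P.hprod ((hKe _ (by rw [hK]; linarith)).trans (by linarith))
        ((((G n).box r e y3 k3).filter fun l => |det3 (fun i => vel n y1 i - vel n y2 i)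
        (fun i => vel n y2 i - vel n y3 i) (fun i => vel n y3 i - vel n l i)| < B.d n ^ t)) k3
        (fun l hl => memI.1 (S.st _ _ _ (mem_filter.1 hl).1).2) ?_ _ ?_ hLm
    · convert g4
    · intro l hl l' hl' hd
      have f1 := (mem_filter.1 hl).2
      have hIl := memI.1 (S.st _ _ _ (mem_filter.1 hl).1).2
      unfold det3 at f1
      have h4 : |(vel n l 2 - vel n y3 2) - mu * (vel n l 0 - vel n y3 0) -
          la * (vel n l 1 - vel n y3 1)| ≤ B.d n ^ (t - 3 * y - 7 * e) := by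
        have e1 : (vel n l 2 - vel n y3 2) - mu * (vel n l 0 - vel n y3 0) -
          la * (vel n l 1 - vel n y3 1) = -((vel n y1 0 - vel n y2 0) *
            ((vel n y2 1 - vel n y3 1) * (vel n y3 2 - vel n l 2) -
              (vel n y2 2 - vel n y3 2) * (vel n y3 1 - vel n l 1)) -
            (vel n y1 1 - vel n y2 1) * ((vel n y2 0 - vel n y3 0) * (vel n y3 2 - vel n l 2) -
              (vel n y2 2 - vel n y3 2) * (vel n y3 0 - vel n l 0)) +
            (vel n y1 2 - vel n y2 2) * ((vel n y2 0 - vel n y3 0) * (vel n y3 1 - vel n l 1) -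
              (vel n y2 1 - vel n y3 1) * (vel n y3 0 - vel n l 0))) / mn := by
          rw [hmu, hla, eq_div_iff hmne]
          have e2 : ∀ a b w1 w2 w3 : ℝ, (w1 - a / mn * w2 - b / mn * w3) * mn =
              w1 * mn - a * w2 - b * w3 := by
            intro a b w1 w2 w3
            field_simp
          rw [e2, hmn]
          ring
        rw [e1, abs_div, abs_neg, div_le_iff₀ hmn0]
        refine f1.le.trans ?_
        calc B.d n ^ t = B.d n ^ (t - 3 * y - 7 * e) * B.d n ^ (3 * y + 7 * e) := by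
              rw [pa]; congr 1; ring
          _ ≤ _ := mul_le_mul_of_nonneg_left hmn_ge (pos' _).le
      rw [hv0, hv0, hv1, hv1, hv2, hv2] at h4
      have e2 : (ty n l' 1 - ty n y3 1) - mu * (ty n l' 0 - ty n y3 0) -
          la * (-(kp n * ty n l' 0 ^ 2) - -(kp n * ty n y3 0 ^ 2)) =
          ((ty n l 1 - ty n y3 1) - mu * (ty n l 0 - ty n y3 0) -
          la * (-(kp n * ty n l 0 ^ 2) - -(kp n * ty n y3 0 ^ 2))) +
          ((ty n l' 1 - ty n l 1) - mu * (ty n l' 0 - ty n l 0) -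
            la * (-(kp n * ty n l' 0 ^ 2) - -(kp n * ty n l 0 ^ 2))) := by ring
      rw [e2]
      refine (abs_add_le _ _).trans ?_
      have bl := S.bd k3 l hIl 0
      have bl' := S.bd k3 l' hl' 0
      have hbe : |-(kp n * ty n l' 0 ^ 2) - -(kp n * ty n l 0 ^ 2)| ≤
          B.d n ^ (x - (C + 1) * e) := by
        have e3 : -(kp n * ty n l' 0 ^ 2) - -(kp n * ty n l 0 ^ 2) =
          -(kp n * ((ty n l' 0 + ty n l 0) * (ty n l' 0 - ty n l 0))) := by ring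
        rw [e3, abs_neg, abs_mul, abs_mul]
        have s1 : |ty n l' 0 + ty n l 0| ≤ 2 * M := (abs_add_le _ _).trans (by linarith)
        calc |kp n| * (|ty n l' 0 + ty n l 0| * |ty n l' 0 - ty n l 0|) ≤
            1 * (2 * M * B.d n ^ (x - C * e)) := mul_le_mul (hk1 n)
              (mul_le_mul s1 (hd 0) (abs_nonneg _) (by positivity)) (by positivity) zero_le_one
          _ ≤ B.d n ^ (-e) * B.d n ^ (x - C * e) := by
            rw [one_mul]; exact mul_le_mul_of_nonneg_right h2M (pos' _).le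
          _ = _ := by rw [pa]; congr 1; ring
      have h5 : |(ty n l' 1 - ty n l 1) - mu * (ty n l' 0 - ty n l 0) -
            la * (-(kp n * ty n l' 0 ^ 2) - -(kp n * ty n l 0 ^ 2))| ≤
          3 * B.d n ^ (t - 3 * y - (C + 9) * e) := by
        refine (abs_sub _ _).trans ((add_le_add_left (abs_sub _ _) _).trans ?_)
        rw [abs_mul, abs_mul]
        have r1 : B.d n ^ (x - C * e) ≤ B.d n ^ (t - 3 * y - (C + 9) * e) := pw (by linarith)
        have r2 : |mu| * |ty n l' 0 - ty n l 0| ≤ B.d n ^ (t - 3 * y - (C + 9) * e) := by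
          calc _ ≤ B.d n ^ (-(3 * y + 8 * e)) * B.d n ^ (x - C * e) :=
                mul_le_mul hmu1 (hd 0) (abs_nonneg _) (pos' _).le
            _ = B.d n ^ (-(3 * y + 8 * e) + (x - C * e)) := pa _ _
            _ ≤ _ := pw (by linarith)
        have r3 : |la| * |-(kp n * ty n l' 0 ^ 2) - -(kp n * ty n l 0 ^ 2)| ≤
            B.d n ^ (t - 3 * y - (C + 9) * e) := by
          calc _ ≤ B.d n ^ (-(3 * y + 8 * e)) * B.d n ^ (x - (C + 1) * e) :=
                mul_le_mul hla1 hbe (abs_nonneg _) (pos' _).le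
            _ = B.d n ^ (-(3 * y + 8 * e) + (x - (C + 1) * e)) := pa _ _
            _ ≤ _ := pw (by linarith)
        have := hd 1
        linarith
      have r4 : B.d n ^ (t - 3 * y - 7 * e) ≤ B.d n ^ (t - 3 * y - (C + 9) * e) :=
        pw (by linarith)
      calc _ ≤ 4 * B.d n ^ (t - 3 * y - (C + 9) * e) := by linarith
        _ ≤ B.d n ^ (-e) * B.d n ^ (t - 3 * y - (C + 9) * e) :=
          mul_le_mul_of_nonneg_right (by linarith [S.c24]) (pos' _).le
        _ = B.d n ^ (t - 3 * y - (C + 10) * e) := by rw [pa]; congr 1; ring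
        _ ≤ _ := pw (by linarith)
  · -- hc
    intro c0 l k hk
    refine le_trans (le_of_eq ?_) (S.hc c0 (((G n).box r e l k).filter fun l => |vel n l 0 - c0| ≤
      B.d n ^ (y + 2 * e)) (fun l' hl' => hLm l' k (memI.1 (S.st _ _ _ (mem_filter.1 hl').1).2))
      (fun l' hl' => by rw [← hv0]; exact (mem_filter.1 hl').2))
    congr!
  · -- hN
    intro k hk
    refine le_trans (le_of_eq ?_) (S.hN k hk (600 * M ^ 3 * B.d n ^ (x - (C * D ^ 5 + 1) * e) /
      B.d n ^ t) ?_)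
    · congr!
    · have e1 : B.d n ^ (x - (C * D ^ 5 + 1) * e) / B.d n ^ t =
        B.d n ^ (x - t - (C * D ^ 5 + 1) * e) := by
        rw [div_eq_iff (pos' t).ne', pa]; congr 1; ring
      rw [mul_div_assoc, e1]
      calc C * (600 * M ^ 3 * B.d n ^ (x - t - (C * D ^ 5 + 1) * e)) =
          (600 * M ^ 3 * C) * B.d n ^ (x - t - (C * D ^ 5 + 1) * e) := by ring
        _ ≤ B.d n ^ (-e) * B.d n ^ (x - t - (C * D ^ 5 + 1) * e) :=
          mul_le_mul_of_nonneg_right hMC (pos' _).le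
        _ = _ := by rw [pa]; congr 1; ring
  · -- hlt
    have Z0 := S.Zc
    set Z : ℝ := ((G n).Z.card : ℝ) with hZ
    have e1 : (B.d n ^ (ν Qc - ν p0 - (2 * C + D + 4) * e)) ^ 4 *
        (Z * B.d n ^ (ν r - ν p0 - (D + 1) * e)) *
        (B.d n ^ (x - t - (C * D ^ 5 + 3) * e) * Z) ^ 3 =
        B.d n ^ (4 * (ν Qc - ν p0 - (2 * C + D + 4) * e) + (ν r - ν p0 - (D + 1) * e) +
          3 * (x - t - (C * D ^ 5 + 3) * e)) * Z ^ 4 := by
      have a1 : B.d n ^ (4 * (ν Qc - ν p0 - (2 * C + D + 4) * e) + (ν r - ν p0 - (D + 1) * e) +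
          3 * (x - t - (C * D ^ 5 + 3) * e)) =
          (B.d n ^ (ν Qc - ν p0 - (2 * C + D + 4) * e)) ^ 4 *
          B.d n ^ (ν r - ν p0 - (D + 1) * e) * (B.d n ^ (x - t - (C * D ^ 5 + 3) * e)) ^ 3 := by
        rw [pk, pk, pa, pa]; norm_num
      rw [a1]; ring
    have e2 : (B.d n ^ (ν Qf - ν r + (C * D ^ 3 + 1) * e) / 2 * (B.d n ^ e * Z)) ^ 4 =
        B.d n ^ (4 * (ν Qf - ν r + (C * D ^ 3 + 2) * e)) * Z ^ 4 / 16 := by
      have a1 : B.d n ^ (4 * (ν Qf - ν r + (C * D ^ 3 + 2) * e)) =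
          (B.d n ^ (ν Qf - ν r + (C * D ^ 3 + 1) * e) * B.d n ^ e) ^ 4 := by
        rw [pa, pk]; congr 1; push_cast; ring
      rw [a1]; ring
    rw [e1, e2, lt_div_iff₀ (by norm_num)]
    have e3 : B.d n ^ (4 * (ν Qc - ν p0 - (2 * C + D + 4) * e) + (ν r - ν p0 - (D + 1) * e) +
          3 * (x - t - (C * D ^ 5 + 3) * e)) * 16 <
        B.d n ^ (4 * (ν Qf - ν r + (C * D ^ 3 + 2) * e)) := by
      have a2 : 4 * (ν Qf - ν r + (C * D ^ 3 + 2) * e) + e ≤
          4 * (ν Qc - ν p0 - (2 * C + D + 4) * e) + (ν r - ν p0 - (D + 1) * e) +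
          3 * (x - t - (C * D ^ 5 + 3) * e) := by
        have a3 := hKe (4 * (C * D ^ 3 + 2) + 1 + 4 * (2 * C + D + 4) + (D + 1) +
          3 * (C * D ^ 5 + 3)) (by rw [hK]; linarith)
        have a4 := P.hprod
        linarith
      calc _ < B.d n ^ (4 * (ν Qc - ν p0 - (2 * C + D + 4) * e) + (ν r - ν p0 - (D + 1) * e) +
          3 * (x - t - (C * D ^ 5 + 3) * e)) * B.d n ^ (-e) :=
            mul_lt_mul_of_pos_left (by linarith [S.c24]) (pos' _)
        _ = B.d n ^ (4 * (ν Qc - ν p0 - (2 * C + D + 4) * e) + (ν r - ν p0 - (D + 1) * e) +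
          3 * (x - t - (C * D ^ 5 + 3) * e) + (-e)) := pa _ _
        _ ≤ _ := pw (by linarith)
    calc _ = (B.d n ^ (4 * (ν Qc - ν p0 - (2 * C + D + 4) * e) + (ν r - ν p0 - (D + 1) * e) +
          3 * (x - t - (C * D ^ 5 + 3) * e)) * 16) * Z ^ 4 := by ring
      _ < _ := mul_lt_mul_of_pos_right e3 (by positivity)

end

end Crest.Agent.R136.Lin560
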