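import Crest.Agent.R136.Lin10_560
import Crest.Agent.R136.Lin6_560
import Crest.Agent.R136.Lin7_560

/-!
# R136, thin branch, `lin` (helper560), part 11: the relation on a dense part of the class

* `OkL`, `LnW.legb`, `LnW.leg1`, `LnW.prof` : legality and numbers
* `LnW.modelE` : model
* **`lin_out`**, **`lin_rel2_of`**, **`lin_rel3_of`** : `LinRel` on a `ρ^ε`-part of the class
-/

set_option autoImplicit false
set_option linter.unusedSectionVars false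
set_option linter.unusedVariables false

open Filter Topology

namespace Crest.Agent.R136.Lin560

open Finset Crest.Agent.R138.Ex926 Crest.Agent.R136.Net191 Crest.Agent.R136.Gf356
open Crest.Agent.R136.Qg926 Crest.Agent.R136.NetW191 Crest.Agent.R136.EvW938
open Crest.Agent.R136.QdH887 (bv bv_in bv_out)

/-- integral boxes which respect the walls -/
def OkL (Dq Q : Finset (Fin 18)) : Prop := ∀ k : Fin 18, k ∉ Dq → ∀ l ∈ mlW k,
  (∀ s ∈ l, s ∉ Dq) → k ∈ Q → ∃ s ∈ l, s ∈ Q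

instance (Dq Q : Finset (Fin 18)) : Decidable (OkL Dq Q) := by
  unfold OkL; infer_instance

variable {Dq Uq : Finset (Fin 18)} {W : Wnd 18 fun _ => ℕ × ℝ} {κ : ℕ → ℝ}
  {u : ℕ → Fin 18 → ℝ} {f : ∀ n : ℕ, ℕ × ℝ → FW} {mm σ x : ℝ}

section

variable (g : LnW Dq Uq W κ u f mm σ x)

include g

theorem LnW.legb {Q : Finset (Fin 18)} (hQ : OkL Dq (insert 0 Q)) : bv x Q ∈ W.legW := by
  have hx := g.x0
  refine g.leg _ (fun s => by unfold bv; split_ifs; exacts [hx.le, le_rfl])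
    (fun s => by unfold bv; split_ifs; exacts [le_rfl, hx.le]) fun k hk l hl hs => ?_
  have e : cut {0} (bv x Q) (fun _ => x) = bv x (insert 0 Q) := by
    funext s
    by_cases h0 : s = 0
    · subst h0; rw [cut_of_mem (mem_singleton_self 0), bv_in (mem_insert_self _ _)]
    · rw [cut_of_notMem (by rw [mem_singleton]; exact h0)]
      unfold bv
      simp only [mem_insert, h0, false_or]
  rw [e]
  have nn : ∀ a ∈ l.map (bv x (insert 0 Q)), (0 : ℝ) ≤ a := by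
    intro a ha
    obtain ⟨s, -, rfl⟩ := List.mem_map.1 ha
    unfold bv; split_ifs; exacts [hx.le, le_rfl]
  by_cases hkQ : k ∈ insert 0 Q
  · obtain ⟨s, hs1, hs2⟩ := hQ k hk l hl hs hkQ
    rw [bv_in hkQ]
    have := List.single_le_sum nn _ (List.mem_map_of_mem hs1)
    rwa [bv_in hs2] at this
  · rw [bv_out hkQ]; exact List.sum_nonneg nn

theorem LnW.leg1 {y : ℝ} (h0 : 0 ≤ y) (hy : y ≤ x) :
    (Pi.single 1 y : Fin 18 → ℝ) ∈ W.legW := by
  have hx := g.x0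
  have n1 : ∀ s : Fin 18, 0 ≤ (Pi.single 1 y : Fin 18 → ℝ) s := by
    intro s
    by_cases h : s = 1
    · subst h; simpa using h0
    · rw [Pi.single_eq_of_ne h]
  refine g.leg _ n1 (fun s => ?_) fun k hk l hl hs => ?_
  · by_cases h : s = 1
    · subst h; simpa using hy
    · rw [Pi.single_eq_of_ne h]; exact hx.le
  · have h1 : k ≠ 0 := by
      rintro rfl
      rw [show mlW 0 = [] from by decide] at hl
      exact absurd hl List.not_mem_nil
    have h2 : k ≠ 1 := by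
      rintro rfl
      rw [show mlW 1 = [] from by decide] at hl
      exact absurd hl List.not_mem_nil
    rw [cut_of_notMem (by rw [mem_singleton]; exact h1), Pi.single_eq_of_ne h2]
    refine List.sum_nonneg fun a ha => ?_
    obtain ⟨s, -, rfl⟩ := List.mem_map.1 ha
    by_cases h : s = 0
    · subst h; rw [cut_of_mem (mem_singleton_self 0)]; exact hx.le
    · rw [cut_of_notMem (by rw [mem_singleton]; exact h)]; exact n1 s

theorem LnW.leg0 (h0 : OkL Dq {0}) : (0 : Fin 18 → ℝ) ∈ W.legW := by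
  have := g.legb (Q := ∅) (by simpa using h0)
  have e : bv x ∅ = 0 := by funext s; simp [bv]
  rwa [e] at this

theorem LnW.prof (h0 : OkL Dq {0}) (h1 : OkL Dq (insert 0 Uq)) (h2 : OkL Dq (insert 0 {1, 16}))
    (h3 : OkL Dq (insert 0 (Uq ∪ {1, 16}))) :
    LProf W.legW W.nu x mm 0 (bv x Uq) (bv x {1, 16}) (bv x (Uq ∪ {1, 16}))
      (fun y => Pi.single 1 y) where
  m0 := g.m0
  l0 := g.leg0 h0
  lr := g.legb h1
  lQc := g.legb h2
  lQf := g.legb h3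
  lc := fun y h0 hy => g.leg1 h0 hy
  hprod := g.n3
  H5 := fun y h0 hy => by
    have := g.n5 y h0
    linarith

/-- **pruned set and model** -/
theorem LnW.modelE {E : ∀ n : ℕ, Finset (ℕ × ℝ)} {Mu : ℕ → ℝ}
    (hE : Wnd.EOk W E Mu) (ex : ℕ → ∀ n : ℕ, ℕ × ℝ → ℕ) {g₀ : ℕ → ℝ}
    (hg₀ : Tendsto g₀ U atTop) :
    ∃ (E' : ∀ n : ℕ, Finset (ℕ × ℝ)) (gg : ℕ → ℝ), Wnd.Pruned W E E' gg ex ∧
      (∀ᶠ n in (U : Filter ℕ), gg n ≤ g₀ n) ∧ EvG W E' ∧
      RModel W.B' (W.cfg E') 1 x W.legW W.nu W.Dc := by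
  have hz : W.kz = 0 := g.ww.kz
  obtain ⟨E', gg, h1, h2, h3⟩ := Wnd.EOk.exists_model (σ := 1) (R := x) g.ww.ok hE ex hg₀ g.dens
    zero_le_one le_rfl (by rw [g.etop]) (fun y h0 h1 => by rw [hz]; exact g.frost y h0 h1)
  refine ⟨E', gg, h1, h2, ?_, h3⟩
  filter_upwards [Wnd.ev_cfg g.ww.ok hE h1] with n hn
  exact ⟨hn.1, (h1.sub n).trans hn.2.1, hn.2.2.2⟩

set_option maxHeartbeats 1000000 in
/-- **`LinRel` on a dense part of the class**, from the relation of the lines of a model -/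
theorem lin_out (hD : DOk Dq) (l0 : (0 : Fin 18 → ℝ) ∈ W.legW) {Qj : Finset (Fin 14)}
    (hQj : Qj = {11} ∧ (14 : Fin 18) ∈ Dq ∨ Qj = {10, 11} ∧ (14 : Fin 18) ∉ Dq) {t : ℝ}
    (htx : t < x)
    (hmod : ∀ E : ∀ n : ℕ, Finset (ℕ × ℝ), EvG W E →
      RModel W.B' (W.cfg E) 1 x W.legW W.nu W.Dc → ∀ δ : ℝ, 0 < δ → ∀ᶠ n in (U : Filter ℕ),
      ∃ mu la : ℝ, ∃ l1 : ℕ, |mu| ≤ W.B'.d n ^ (-δ) ∧ |la| ≤ W.B'.d n ^ (-δ) ∧
        ((14 : Fin 18) ∈ Dq → la = 0) ∧ ∃ T ⊆ (W.cfg E n).L,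
        W.B'.d n ^ δ * ((W.cfg E n).L.card : ℝ) ≤ (T.card : ℝ) ∧
        ∀ l ∈ T, |(tyW W n l 1 - tyW W n l1 1) - mu * (tyW W n l 0 - tyW W n l1 0) -
          la * (-(κ n * tyW W n l 0 ^ 2) - -(κ n * tyW W n l1 0 ^ 2))| ≤ W.B'.d n ^ (t - δ))
    {ε : ℝ} (hε : 0 < ε) : ∀ᶠ n in (U : Filter ℕ), ∃ G ⊆ W.Cl n,
      W.B'.d n ^ ε * ((W.Cl n).card : ℝ) ≤ (G.card : ℝ) ∧ LinRel Qj W κ u f n ε (t - ε) G := by
  have hg₀ : Tendsto (fun n : ℕ => (n : ℝ)) U atTop :=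
    tendsto_natCast_atTop_atTop.mono_left U_le_atTop
  obtain ⟨E, gg, hP, -, hEv, H⟩ := g.modelE g.ww.ok.eok_class (fun _ _ _ => 0) hg₀
  set δ : ℝ := ε / 8 with hδd
  have hδ : 0 < δ := by positivity
  filter_upwards [hEv, hmod E hEv H δ hδ, H.low 0 l0 δ hδ, g.ww.ok.card_lc_le hδ, hP.gsub δ hδ,
    g.rel_core hD hδ htx] with n hG hm hlow hlc hg hcore
  obtain ⟨gd, hsub, hcfg⟩ := hG
  obtain ⟨mu, la, l1, hmu, hla, hla0, T, hT, hTc, hrel⟩ := hm
  have hpos : ∀ s : ℝ, 0 < W.B'.d n ^ s := fun s => Real.rpow_pos_of_pos (W.B'.pos n) s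
  have hgpos : 0 ≤ gg n := le_trans zero_le_one (hP.g1 n)
  refine ⟨(E n).filter fun y => W.lc n y ∈ T, (filter_subset _ _).trans hsub, ?_, ?_⟩
  · -- the count
    classical
    set M : ℝ := gg n * (((W.Cl n).image (W.lc n)).card : ℝ) with hMd
    have hM : 0 ≤ M := mul_nonneg hgpos (Nat.cast_nonneg _)
    have hTE : ∀ l ∈ T, ∃ y ∈ E n, W.lc n y = l := by
      intro l hl
      have h2 := hT hl
      rw [hcfg] at h2
      exact mem_image.1 h2
    have hfib : ∀ l ∈ T, ((W.Cl n).card : ℝ) ≤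
        M * (((E n).filter fun y => W.lc n y = l).card : ℝ) := by
      intro l hl
      obtain ⟨y, hy, hyl⟩ := hTE l hl
      have h3 := hP.lines n y hy
      refine h3.trans (le_of_eq ?_)
      rw [hMd]
      congr 2
      rw [← hyl]
      rfl
    have hsum : (((E n).filter fun y => W.lc n y ∈ T).card : ℝ) =
        ∑ l ∈ T, ((E n).filter fun y => W.lc n y = l).card := by
      have e2 := card_eq_sum_card_fiberwise (f := W.lc n)
        (s := (E n).filter fun y => W.lc n y ∈ T) (t := T) (fun y hy => (mem_filter.1 hy).2)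
      rw [e2]
      push_cast
      refine sum_congr rfl fun l hl => ?_
      congr 2
      ext y
      simp only [mem_filter]
      constructor
      · rintro ⟨⟨h1, -⟩, h2⟩; exact ⟨h1, h2⟩
      · rintro ⟨h1, h2⟩; exact ⟨⟨h1, h2 ▸ hl⟩, h2⟩
    have h1 : (T.card : ℝ) * ((W.Cl n).card : ℝ) ≤
        M * (((E n).filter fun y => W.lc n y ∈ T).card : ℝ) := by
      rw [hsum]
      push_cast
      rw [mul_sum]
      calc (T.card : ℝ) * ((W.Cl n).card : ℝ) = ∑ l ∈ T, ((W.Cl n).card : ℝ) := by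
            rw [sum_const, nsmul_eq_mul]
        _ ≤ _ := sum_le_sum hfib
    obtain ⟨⟨i0, k0⟩, hik⟩ := H.nonempty n
    have h4 : W.B'.d n ^ (-W.nu 0 + δ) ≤ (((W.cfg E n).box 0 δ i0 k0).card : ℝ) :=
      hlow _ _ hik
    have h4' : (((W.cfg E n).box 0 δ i0 k0).card : ℝ) ≤ ((W.cfg E n).L.card : ℝ) := by
      have : (W.cfg E n).box 0 δ i0 k0 ⊆ (W.cfg E n).L := fun l hl =>
        (RCfg.mem_slice.1 (RCfg.mem_box.1 hl).1).1
      exact_mod_cast card_le_card this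
    have h5 : W.B'.d n ^ δ * W.B'.d n ^ (-W.nu 0 + δ) ≤ (T.card : ℝ) :=
      (mul_le_mul_of_nonneg_left (h4.trans h4') (hpos _).le).trans hTc
    have h6 : M ≤ W.B'.d n ^ (-δ) * W.B'.d n ^ (W.lam (cut W.S W.top 0) - δ) :=
      mul_le_mul hg (hlc (W.Cl n) (Subset.refl _)) (Nat.cast_nonneg _) (hpos _).le
    set Gc : ℝ := (((E n).filter fun y => W.lc n y ∈ T).card : ℝ) with hGc
    have hGc0 : 0 ≤ Gc := Nat.cast_nonneg _
    have hCl0 : (0 : ℝ) ≤ ((W.Cl n).card : ℝ) := Nat.cast_nonneg _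
    have h7 : W.B'.d n ^ δ * W.B'.d n ^ (-W.nu 0 + δ) * ((W.Cl n).card : ℝ) ≤
        W.B'.d n ^ (-δ) * W.B'.d n ^ (W.lam (cut W.S W.top 0) - δ) * Gc := by
      calc _ ≤ (T.card : ℝ) * ((W.Cl n).card : ℝ) := mul_le_mul_of_nonneg_right h5 hCl0
        _ ≤ M * Gc := h1
        _ ≤ _ := mul_le_mul_of_nonneg_right h6 hGc0
    have hnu : W.nu 0 = W.lam (cut W.S 0 W.top) - W.lam W.top := rfl
    set a1 : ℝ := W.lam (cut W.S W.top 0) with ha1
    have e1 : W.B'.d n ^ δ * W.B'.d n ^ (-W.nu 0 + δ) = W.B'.d n ^ (-W.nu 0 + 2 * δ) := by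
      rw [← Real.rpow_add (W.B'.pos n)]; congr 1; ring
    have e2 : W.B'.d n ^ (-δ) * W.B'.d n ^ (a1 - δ) = W.B'.d n ^ (a1 - 2 * δ) := by
      rw [← Real.rpow_add (W.B'.pos n)]; congr 1; ring
    rw [e1, e2] at h7
    have h8 : W.B'.d n ^ (-W.nu 0 + 2 * δ) * ((W.Cl n).card : ℝ) *
        W.B'.d n ^ (-(a1 - 2 * δ)) ≤ Gc := by
      have := mul_le_mul_of_nonneg_right h7 (hpos (-(a1 - 2 * δ))).le
      refine this.trans (le_of_eq ?_)
      rw [mul_comm (W.B'.d n ^ (a1 - 2 * δ)) Gc, mul_assoc, ← Real.rpow_add (W.B'.pos n),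
        add_neg_cancel, Real.rpow_zero, mul_one]
    refine le_trans ?_ h8
    have e3 : W.B'.d n ^ (-W.nu 0 + 2 * δ) * ((W.Cl n).card : ℝ) * W.B'.d n ^ (-(a1 - 2 * δ)) =
        W.B'.d n ^ (-W.nu 0 + 2 * δ + -(a1 - 2 * δ)) * ((W.Cl n).card : ℝ) := by
      rw [Real.rpow_add (W.B'.pos n) (-W.nu 0 + 2 * δ) (-(a1 - 2 * δ))]; ring
    rw [e3]
    refine mul_le_mul_of_nonneg_right ?_ hCl0
    refine Real.rpow_le_rpow_of_exponent_ge (W.B'.pos n) (W.B'.lt n).le ?_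
    have hd := g.dens
    rw [hnu]
    linarith
  · -- the relation
    have h := hcore gd mu la hmu hla hla0 l1 ((E n).filter fun y => W.lc n y ∈ T)
      ((filter_subset _ _).trans hsub) (fun y hy => hrel _ (mem_filter.1 hy).2) Qj hQj
    exact LinRel.weak (g.sd0 n) (by linarith) (by linarith) h

end

/-- `b1 = 1` -/
theorem lin_rel2_of (g : LnW Da Ua W κ u f mm σ x)
    (hrow : ∀ E : ∀ n : ℕ, Finset (ℕ × ℝ), EvG W E →
      RModel W.B' (W.cfg E) 1 x W.legW W.nu W.Dc → ∃ M C : ℝ,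
      LRow 2 W.B' (W.cfg E) x M C 0 (bv x Ua) (bv x {1, 16}) (bv x (Ua ∪ {1, 16}))
        (fun y => Pi.single 1 y) (phW W) (tyW W) (vel2 W) (pos2 W)) {t : ℝ} (ht : 0 ≤ t)
    (htx : t < x) (ht2 : 2 * t < σ * x) {ε : ℝ} (hε : 0 < ε) :
    ∀ᶠ n in (U : Filter ℕ), ∃ G ⊆ W.Cl n,
      W.B'.d n ^ ε * ((W.Cl n).card : ℝ) ≤ (G.card : ℝ) ∧ LinRel {11} W κ u f n ε (t - ε) G := by
  have hP := g.prof (by decide) (by decide) (by decide) (by decide)
  refine lin_out g dOk_a hP.l0 (Or.inl ⟨rfl, by decide⟩) htx (fun E hE H δ hδ => ?_) hε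
  obtain ⟨M, C, Q⟩ := hrow E hE H
  have hc : ((Ua.card : ℕ) : ℝ) = 2 := by
    have : Ua.card = 2 := by decide
    rw [this]; norm_num
  have h4 := g.n4
  rw [hc] at h4
  filter_upwards [lin_model2 H Q hP (fun n l i => rfl) ht htx (by nlinarith) hδ] with n hn
  obtain ⟨mu, l1, h1, T, h2, h3, h5⟩ := hn
  refine ⟨mu, 0, l1, h1, ?_, fun _ => rfl, T, h2, h3, fun l hl => ?_⟩
  · rw [abs_zero]; exact (Real.rpow_pos_of_pos (W.B'.pos n) _).le
  · rw [zero_mul, sub_zero]; exact h5 l hl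

/-- `b1 = 2` -/
theorem lin_rel3_of (g : LnW Db Ub W κ u f mm σ x)
    (hrow : ∀ E : ∀ n : ℕ, Finset (ℕ × ℝ), EvG W E →
      RModel W.B' (W.cfg E) 1 x W.legW W.nu W.Dc → ∃ M C : ℝ,
      LRow 3 W.B' (W.cfg E) x M C 0 (bv x Ub) (bv x {1, 16}) (bv x (Ub ∪ {1, 16}))
        (fun y => Pi.single 1 y) (phW W) (tyW W) (vel3 W κ) (pos3 W)) {t : ℝ} (ht : 0 ≤ t)
    (htx : t < x) (ht3 : 3 * t < σ * x) {ε : ℝ} (hε : 0 < ε) :
    ∀ᶠ n in (U : Filter ℕ), ∃ G ⊆ W.Cl n,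
      W.B'.d n ^ ε * ((W.Cl n).card : ℝ) ≤ (G.card : ℝ) ∧
        LinRel {10, 11} W κ u f n ε (t - ε) G := by
  have hP := g.prof (by decide) (by decide) (by decide) (by decide)
  refine lin_out g dOk_b hP.l0 (Or.inr ⟨rfl, by decide⟩) htx (fun E hE H δ hδ => ?_) hε
  obtain ⟨M, C, Q⟩ := hrow E hE H
  have hc : ((Ub.card : ℕ) : ℝ) = 3 := by
    have : Ub.card = 3 := by decide
    rw [this]; norm_num
  have h4 := g.n4
  rw [hc] at h4
  filter_upwards [lin_model3 H Q hP (kp := κ) (fun n l => rfl) (fun n l => rfl) (fun n l => rfl)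
    g.ww.hκ g.hk ht htx (by nlinarith) hδ] with n hn
  obtain ⟨mu, la, l1, h1, h1', T, h2, h3, h5⟩ := hn
  exact ⟨mu, la, l1, h1, h1', fun h => absurd h (by decide), T, h2, h3, fun l hl => h5 l hl⟩

end Crest.Agent.R136.Lin560
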