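import Crest.Agent.R136.Lin11_560
import Crest.Agent.R136.LinW_938

/-!
# R136, thin branch, `lin` (helper560), part 12: **`lin_rel2`**, **`lin_rel3`**

The relation of the stage `lin` on a dense part of the class of every window `LnW`.
-/

set_option autoImplicit false

open Filter Topology

namespace Crest.Agent.R136.Lin560

open Finset Crest.Agent.R138.Ex926 Crest.Agent.R136.Net191 Crest.Agent.R136.Gf356
open Crest.Agent.R136.Qg926 Crest.Agent.R136.NetW191 Crest.Agent.R136.EvW938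

variable {W : Wnd 18 fun _ => ℕ × ℝ} {κ : ℕ → ℝ} {u : ℕ → Fin 18 → ℝ}
  {f : ∀ n : ℕ, ℕ × ℝ → FW} {mm σ x : ℝ}

/-- **`b1 = 1`** (`btW θ 15 = 0`) -/
theorem lin_rel2 (g : LnW Da Ua W κ u f mm σ x) {t : ℝ} (ht : 0 ≤ t) (htx : t < x)
    (ht2 : 2 * t < σ * x) {ε : ℝ} (hε : 0 < ε) : ∀ᶠ n in (U : Filter ℕ), ∃ G ⊆ W.Cl n,
      W.B'.d n ^ ε * ((W.Cl n).card : ℝ) ≤ (G.card : ℝ) ∧ LinRel {11} W κ u f n ε (t - ε) G :=
  lin_rel2_of g (fun _ hE H => Lin938.lRow2 g hE H) ht htx ht2 hε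

/-- **`b1 = 2`** (`btW θ 14 = 0`) -/
theorem lin_rel3 (g : LnW Db Ub W κ u f mm σ x) {t : ℝ} (ht : 0 ≤ t) (htx : t < x)
    (ht3 : 3 * t < σ * x) {ε : ℝ} (hε : 0 < ε) : ∀ᶠ n in (U : Filter ℕ), ∃ G ⊆ W.Cl n,
      W.B'.d n ^ ε * ((W.Cl n).card : ℝ) ≤ (G.card : ℝ) ∧
        LinRel {10, 11} W κ u f n ε (t - ε) G :=
  lin_rel3_of g (fun _ hE H => Lin938.lRow3 g hE H) ht htx ht3 hε

end Crest.Agent.R136.Lin560
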