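import Mathlib

/-!
# R136, thin branch, `lin` (helper560), part 1: walks of lines and heights, finite pigeonhole

A walk is a list of steps `(line, height)`, newest step first.  `Y w` = the lines offered after the
walk `w`, `H y` = the heights of the line `y`.
-/

set_option autoImplicit false
set_option linter.unusedSectionVars false

namespace Crest.Agent.R136.Lin560

open Finset

section walks

variable (H : ℕ → Finset ℕ) (Y : List (ℕ × ℕ) → Finset ℕ)

/-- walks with `m` steps -/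
def walks : ℕ → Finset (List (ℕ × ℕ))
  | 0 => {[]}
  | m + 1 => (walks m).biUnion fun w => (Y w).biUnion fun y => (H y).image fun k => (y, k) :: w

theorem mem_walks_succ {m : ℕ} {w : List (ℕ × ℕ)} : w ∈ walks H Y (m + 1) ↔
    ∃ w0 ∈ walks H Y m, ∃ y ∈ Y w0, ∃ k ∈ H y, w = (y, k) :: w0 := by
  simp only [walks, mem_biUnion, mem_image]
  constructor
  · rintro ⟨w0, h0, y, hy, k, hk, rfl⟩; exact ⟨w0, h0, y, hy, k, hk, rfl⟩
  · rintro ⟨w0, h0, y, hy, k, hk, rfl⟩; exact ⟨w0, h0, y, hy, k, hk, rfl⟩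

theorem cons_mem_walks {m : ℕ} {w : List (ℕ × ℕ)} {y k : ℕ} : (y, k) :: w ∈ walks H Y (m + 1) ↔
    w ∈ walks H Y m ∧ y ∈ Y w ∧ k ∈ H y := by
  rw [mem_walks_succ]
  constructor
  · rintro ⟨w0, h0, y', hy, k', hk, he⟩
    obtain ⟨h1, rfl⟩ := List.cons.inj he
    obtain ⟨rfl, rfl⟩ := Prod.mk.inj h1
    exact ⟨h0, hy, hk⟩
  · rintro ⟨h0, hy, hk⟩; exact ⟨w, h0, y, hy, k, hk, rfl⟩

theorem mem_walks_zero {w : List (ℕ × ℕ)} : w ∈ walks H Y 0 ↔ w = [] := by simp [walks]

theorem walks_length {m : ℕ} {w : List (ℕ × ℕ)} (h : w ∈ walks H Y m) : w.length = m := by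
  induction m generalizing w with
  | zero => rw [(mem_walks_zero H Y).1 h]; rfl
  | succ m ih =>
    obtain ⟨w0, h0, y, _, k, _, rfl⟩ := (mem_walks_succ H Y).1 h
    rw [List.length_cons, ih h0]

/-- **number of walks** -/
theorem walks_card {a b : ℝ} (ha : 0 ≤ a) (hb : 0 ≤ b) (m : ℕ)
    (hY : ∀ j < m, ∀ w ∈ walks H Y j, a ≤ ((Y w).card : ℝ))
    (hH : ∀ j < m, ∀ w ∈ walks H Y j, ∀ y ∈ Y w, b ≤ ((H y).card : ℝ)) :
    (a * b) ^ m ≤ ((walks H Y m).card : ℝ) := by
  induction m with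
  | zero => simp [walks]
  | succ m ih =>
    have ih' := ih (fun j hj => hY j (by omega)) (fun j hj => hH j (by omega))
    have h1 : (walks H Y (m + 1)).card =
        ∑ w ∈ walks H Y m, ((Y w).biUnion fun y => (H y).image fun k => (y, k) :: w).card := by
      rw [walks, card_biUnion]
      intro w _ w' _ hne
      refine disjoint_left.2 ?_
      intro v hv hv'
      simp only [mem_biUnion, mem_image] at hv hv'
      obtain ⟨y, -, k, -, rfl⟩ := hv
      obtain ⟨y', -, k', -, he⟩ := hv'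
      exact hne (List.cons.inj he).2.symm
    have h2 : ∀ w ∈ walks H Y m, a * b ≤
        ((((Y w).biUnion fun y => (H y).image fun k => (y, k) :: w).card : ℕ) : ℝ) := by
      intro w hw
      have h3 : ((Y w).biUnion fun y => (H y).image fun k => (y, k) :: w).card =
          ∑ y ∈ Y w, (H y).card := by
        rw [card_biUnion]
        · refine sum_congr rfl fun y _ => card_image_of_injective _ fun k k' he => ?_
          exact (Prod.mk.inj (List.cons.inj he).1).2
        · intro y _ y' _ hne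
          refine disjoint_left.2 ?_
          intro v hv hv'
          simp only [mem_image] at hv hv'
          obtain ⟨k, -, rfl⟩ := hv
          obtain ⟨k', -, he⟩ := hv'
          exact hne (Prod.mk.inj (List.cons.inj he).1).1.symm
      rw [h3]
      push_cast
      calc a * b ≤ (Y w).card * b := mul_le_mul_of_nonneg_right (hY m (by omega) w hw) hb
        _ = ∑ _y ∈ Y w, b := by rw [sum_const, nsmul_eq_mul]
        _ ≤ _ := sum_le_sum fun y hy => hH m (by omega) w hw y hy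
    rw [h1]
    push_cast
    calc (a * b) ^ (m + 1) = (a * b) ^ m * (a * b) := pow_succ _ _
      _ ≤ (walks H Y m).card * (a * b) :=
        mul_le_mul_of_nonneg_right ih' (mul_nonneg ha hb)
      _ = ∑ _w ∈ walks H Y m, a * b := by rw [sum_const, nsmul_eq_mul]
      _ ≤ _ := sum_le_sum h2

variable {β : Type*} [DecidableEq β] (lab : ℕ → β)

/-- types of a walk -/
def tys (w : List (ℕ × ℕ)) : List β := w.map fun s => lab s.1

/-- heights of a walk -/
def hgs (w : List (ℕ × ℕ)) : List ℕ := w.map fun s => s.2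

/-- a walk is determined by its types and its heights -/
theorem walk_inj {m : ℕ} (hinj : ∀ j < m, ∀ w ∈ walks H Y j, ∀ y ∈ Y w, ∀ y' ∈ Y w,
    lab y = lab y' → y = y') {w w' : List (ℕ × ℕ)} (hw : w ∈ walks H Y m)
    (hw' : w' ∈ walks H Y m) (h1 : tys lab w = tys lab w') (h2 : hgs w = hgs w') : w = w' := by
  induction m generalizing w w' with
  | zero => rw [(mem_walks_zero H Y).1 hw, (mem_walks_zero H Y).1 hw']
  | succ m ih =>
    obtain ⟨v, hv, y, hy, k, hk, rfl⟩ := (mem_walks_succ H Y).1 hw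
    obtain ⟨v', hv', y', hy', k', hk', rfl⟩ := (mem_walks_succ H Y).1 hw'
    obtain ⟨e1, e2⟩ := List.cons.inj h1
    obtain ⟨e3, e4⟩ := List.cons.inj h2
    obtain rfl := ih (fun j hj => hinj j (by omega)) hv hv' e2 e4
    have e5 := hinj m (by omega) v hv y hy y' hy' e1
    simp only at e3
    rw [e5, e3]

theorem tys_image_card {T : Finset β} {NT : ℝ} (hNT : (T.card : ℝ) ≤ NT) {m : ℕ}
    (hT : ∀ j < m, ∀ w ∈ walks H Y j, ∀ y ∈ Y w, lab y ∈ T) :
    ((((walks H Y m).image (tys lab)).card : ℕ) : ℝ) ≤ NT ^ m := by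
  have hNT0 : 0 ≤ NT := (Nat.cast_nonneg _).trans hNT
  induction m with
  | zero => simp [walks]
  | succ m ih =>
    have ih' := ih (fun j hj => hT j (by omega))
    have h1 : (walks H Y (m + 1)).image (tys lab) ⊆
        (T ×ˢ (walks H Y m).image (tys lab)).image fun p => p.1 :: p.2 := by
      intro t ht
      obtain ⟨w, hw, rfl⟩ := mem_image.1 ht
      obtain ⟨v, hv, y, hy, k, hk, rfl⟩ := (mem_walks_succ H Y).1 hw
      refine mem_image.2 ⟨(lab y, tys lab v), mem_product.2 ⟨hT m (by omega) v hv y hy,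
        mem_image_of_mem _ hv⟩, rfl⟩
    have h2 := (card_le_card h1).trans card_image_le
    rw [card_product] at h2
    calc ((((walks H Y (m + 1)).image (tys lab)).card : ℕ) : ℝ) ≤
        ((T.card * ((walks H Y m).image (tys lab)).card : ℕ) : ℝ) := Nat.cast_le.2 h2
      _ = (T.card : ℝ) * (((walks H Y m).image (tys lab)).card : ℝ) := by push_cast; rfl
      _ ≤ NT * NT ^ m := mul_le_mul hNT ih' (Nat.cast_nonneg _) hNT0
      _ = _ := by rw [pow_succ]; ring

end walks

/-- most popular value -/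
theorem popv {α β : Type*} [DecidableEq β] (S : Finset α) (f : α → β) {N : ℝ}
    (hN : ((S.image f).card : ℝ) ≤ N) (hS : S.Nonempty) :
    ∃ v ∈ S.image f, (S.card : ℝ) ≤ N * ((S.filter fun t => f t = v).card : ℝ) := by
  classical
  obtain ⟨v, hv0, hv⟩ := exists_max_image (S.image f)
    (fun v => (S.filter fun t => f t = v).card) (hS.image f)
  refine ⟨v, hv0, ?_⟩
  have h1 : S.card = ∑ u ∈ S.image f, (S.filter fun t => f t = u).card :=
    card_eq_sum_card_fiberwise fun t ht => mem_coe.2 (mem_image_of_mem f (mem_coe.1 ht))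
  have h2 : (S.card : ℝ) ≤ (S.image f).card * ((S.filter fun t => f t = v).card : ℝ) := by
    have h3 : ∑ u ∈ S.image f, (S.filter fun t => f t = u).card ≤
        ∑ _u ∈ S.image f, (S.filter fun t => f t = v).card := sum_le_sum hv
    rw [sum_const, smul_eq_mul, ← h1] at h3
    exact_mod_cast h3
  exact h2.trans (mul_le_mul_of_nonneg_right hN (Nat.cast_nonneg _))

/-- last step of a walk -/
def hd (w : List (ℕ × ℕ)) : ℕ × ℕ := w.headI

/-- **popular key**: types, last height, last cell -/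
theorem walk_pop (H : ℕ → Finset ℕ) (Y : List (ℕ × ℕ) → Finset ℕ) {β : Type*} [DecidableEq β]
    (lab : ℕ → β) {T : Finset β} {NT : ℝ} (hNT : (T.card : ℝ) ≤ NT) {m : ℕ}
    (hT : ∀ j < m + 1, ∀ w ∈ walks H Y j, ∀ y ∈ Y w, lab y ∈ T)
    {Z : Finset ℕ} (hZ : ∀ y, H y ⊆ Z) (cell : ℕ → ℕ → ℕ) {NC : ℝ} (hNC0 : 0 ≤ NC)
    (hNC : ∀ k ∈ Z, ∀ S : Finset ℕ, (∀ y ∈ S, k ∈ H y) → (((S.image (cell k)).card : ℕ) : ℝ) ≤ NC)
    (hne : (walks H Y (m + 1)).Nonempty) :
    ∃ w0 ∈ walks H Y (m + 1), ((walks H Y (m + 1)).card : ℝ) ≤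
      NT ^ (m + 1) * (Z.card * NC) * (((walks H Y (m + 1)).filter fun w =>
        tys lab w = tys lab w0 ∧ (hd w).2 = (hd w0).2 ∧
        cell (hd w).2 (hd w).1 = cell (hd w0).2 (hd w0).1).card : ℝ) := by
  classical
  have hNT0 : 0 ≤ NT := (Nat.cast_nonneg _).trans hNT
  obtain ⟨t, ht, h1⟩ := popv (walks H Y (m + 1)) (tys lab)
    (tys_image_card H Y lab hNT hT) hne
  obtain ⟨w1, hw1, hw1t⟩ := mem_image.1 ht
  set S1 := (walks H Y (m + 1)).filter fun w => tys lab w = t with hS1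
  have hS1ne : S1.Nonempty := ⟨w1, mem_filter.2 ⟨hw1, hw1t⟩⟩
  have him : ((S1.image fun w => (hd w).2).card : ℝ) ≤ (Z.card : ℝ) := by
    refine Nat.cast_le.2 (card_le_card fun k hk => ?_)
    obtain ⟨w, hw, rfl⟩ := mem_image.1 hk
    obtain ⟨v, hv, y, hy, k', hk', rfl⟩ := (mem_walks_succ H Y).1 (mem_filter.1 hw).1
    exact hZ y hk'
  obtain ⟨k, hk, h2⟩ := popv S1 (fun w => (hd w).2) him hS1ne
  obtain ⟨w2, hw2, hw2k⟩ := mem_image.1 hk
  set S2 := S1.filter fun w => (hd w).2 = k with hS2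
  have hS2ne : S2.Nonempty := ⟨w2, mem_filter.2 ⟨hw2, hw2k⟩⟩
  have him2 : ((S2.image fun w => cell k (hd w).1).card : ℝ) ≤ NC := by
    have e : (S2.image fun w => cell k (hd w).1) =
        ((S2.image fun w => (hd w).1).image (cell k)) := by
      rw [image_image]; rfl
    rw [e]
    have hkH : ∀ y ∈ S2.image fun w => (hd w).1, k ∈ H y := by
      intro y hy
      obtain ⟨w, hw, rfl⟩ := mem_image.1 hy
      obtain ⟨h3, h4⟩ := mem_filter.1 hw
      obtain ⟨v, hv, y, hy, k', hk', rfl⟩ := (mem_walks_succ H Y).1 (mem_filter.1 h3).1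
      have h5 : k' = k := h4
      rw [← h5]; exact hk'
    have hkZ : k ∈ Z := by
      obtain ⟨w, hw⟩ := hS2ne
      exact hZ _ (hkH _ (mem_image_of_mem _ hw))
    exact hNC k hkZ _ hkH
  obtain ⟨u, hu, h3⟩ := popv S2 (fun w => cell k (hd w).1) him2 hS2ne
  obtain ⟨w0, hw0, hw0u⟩ := mem_image.1 hu
  have hw0k : (hd w0).2 = k := (mem_filter.1 hw0).2
  have hw0t : tys lab w0 = t := (mem_filter.1 (mem_filter.1 hw0).1).2
  refine ⟨w0, (mem_filter.1 (mem_filter.1 hw0).1).1, ?_⟩
  have e1 : (S2.filter fun w => cell k (hd w).1 = u) ⊆ ((walks H Y (m + 1)).filter fun w =>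
        tys lab w = tys lab w0 ∧ (hd w).2 = (hd w0).2 ∧
        cell (hd w).2 (hd w).1 = cell (hd w0).2 (hd w0).1) := by
    intro w hw
    obtain ⟨a1, a2⟩ := mem_filter.1 hw
    obtain ⟨a3, a4⟩ := mem_filter.1 a1
    obtain ⟨a5, a6⟩ := mem_filter.1 a3
    have a2' : cell k (hd w).1 = u := a2
    have hw0u' : cell k (hd w0).1 = u := hw0u
    refine mem_filter.2 ⟨a5, a6.trans hw0t.symm, a4.trans hw0k.symm, ?_⟩
    rw [a4, hw0k, a2', hw0u']
  have h4 : ((S2.filter fun w => cell k (hd w).1 = u).card : ℝ) ≤ _ :=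
    Nat.cast_le.2 (card_le_card e1)
  have hZ0 : (0:ℝ) ≤ Z.card := Nat.cast_nonneg _
  calc ((walks H Y (m + 1)).card : ℝ) ≤ NT ^ (m + 1) * S1.card := h1
    _ ≤ NT ^ (m + 1) * (Z.card * S2.card) := mul_le_mul_of_nonneg_left h2 (by positivity)
    _ ≤ NT ^ (m + 1) * (Z.card * (NC * (S2.filter fun w => cell k (hd w).1 = u).card)) :=
        mul_le_mul_of_nonneg_left (mul_le_mul_of_nonneg_left h3 hZ0) (by positivity)
    _ = NT ^ (m + 1) * (Z.card * NC) * (S2.filter fun w => cell k (hd w).1 = u).card := by ring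
    _ ≤ _ := mul_le_mul_of_nonneg_left h4 (by positivity)

end Crest.Agent.R136.Lin560
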