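import Crest.Agent.R136.Lin1_560

/-!
# R136, thin branch, `lin` (helper560), part 2: rigidity of velocities, finite form

`Flow` : lines which move with constant velocity in `ℝ^d`.  `core2`, `core3` : many walks whose
velocity differences are independent need many cells.  `alt2`, `alt3` : the alternative.
-/

set_option autoImplicit false
set_option linter.unusedSectionVars false
set_option linter.unusedVariables false

namespace Crest.Agent.R136.Lin560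

open Finset

/-- moving lines -/
structure Flow (d : ℕ) {β : Type*} (H : ℕ → Finset ℕ) (Z : Finset ℕ) (φ : ℕ → ℝ)
    (vel : ℕ → Fin d → ℝ) (pos : ℕ → ℕ → Fin d → ℝ) (near : ℕ → ℕ → ℕ → Prop) (lab : ℕ → β)
    (cell : ℕ → ℕ → ℕ) (η M : ℝ) : Prop where
  hZ : ∀ y, H y ⊆ Z
  η0 : 0 < η
  M1 : 1 ≤ M
  evo : ∀ y, ∀ k ∈ H y, ∀ k' ∈ H y, ∀ i,
    |pos k' y i - pos k y i - (φ k' - φ k) * vel y i| ≤ η
  nr : ∀ k y l, near k y l → k ∈ H y → k ∈ H l → ∀ i, |pos k l i - pos k y i| ≤ η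
  cl : ∀ k y l, k ∈ H y → k ∈ H l → cell k y = cell k l → ∀ i, |pos k l i - pos k y i| ≤ η
  lb : ∀ y l, (H y).Nonempty → (H l).Nonempty → lab y = lab l → ∀ i, |vel y i - vel l i| ≤ η
  vM : ∀ y, (H y).Nonempty → ∀ i, |vel y i| ≤ M
  φM : ∀ k ∈ Z, |φ k| ≤ M

/-- last state -/
def st (y0 k0 : ℕ) : List (ℕ × ℕ) → ℕ × ℕ
  | [] => (y0, k0)
  | s :: _ => s

/-- displacement of a walk -/
def dsp {d : ℕ} (φ : ℕ → ℝ) (vel : ℕ → Fin d → ℝ) (y0 k0 : ℕ) : List (ℕ × ℕ) → Fin d → ℝ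
  | [] => fun _ => 0
  | (y, k) :: w => fun i => dsp φ vel y0 k0 w i + (φ k - φ (st y0 k0 w).2) * vel y i

variable {d : ℕ} {β : Type*} [DecidableEq β] {H : ℕ → Finset ℕ} {Z : Finset ℕ} {φ : ℕ → ℝ}
  {vel : ℕ → Fin d → ℝ} {pos : ℕ → ℕ → Fin d → ℝ} {near : ℕ → ℕ → ℕ → Prop} {lab : ℕ → β}
  {cell : ℕ → ℕ → ℕ} {η M : ℝ} {Y : List (ℕ × ℕ) → Finset ℕ} {y0 k0 : ℕ}

/-- every step starts at the last point -/
def Steps (near : ℕ → ℕ → ℕ → Prop) (H : ℕ → Finset ℕ) (Y : List (ℕ × ℕ) → Finset ℕ)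
    (y0 k0 m : ℕ) : Prop :=
  ∀ j < m, ∀ w ∈ walks H Y j, ∀ y ∈ Y w,
    near (st y0 k0 w).2 (st y0 k0 w).1 y ∧ (st y0 k0 w).2 ∈ H y

theorem st_mem {m : ℕ} (h0 : k0 ∈ H y0) {w : List (ℕ × ℕ)} (hw : w ∈ walks H Y m) :
    (st y0 k0 w).2 ∈ H (st y0 k0 w).1 := by
  cases m with
  | zero => rw [(mem_walks_zero H Y).1 hw]; exact h0
  | succ m =>
    obtain ⟨v, hv, y, hy, k, hk, rfl⟩ := (mem_walks_succ H Y).1 hw
    exact hk

/-- the endpoint of a walk -/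
theorem Flow.endpt (F : Flow d H Z φ vel pos near lab cell η M) (h0 : k0 ∈ H y0) {m : ℕ}
    (hs : Steps near H Y y0 k0 m) {w : List (ℕ × ℕ)} (hw : w ∈ walks H Y m) (i : Fin d) :
    |pos (st y0 k0 w).2 (st y0 k0 w).1 i - pos k0 y0 i - dsp φ vel y0 k0 w i| ≤ 2 * m * η := by
  induction m generalizing w with
  | zero =>
    rw [(mem_walks_zero H Y).1 hw]
    simp [st, dsp]
  | succ m ih =>
    obtain ⟨v, hv, y, hy, k, hk, rfl⟩ := (mem_walks_succ H Y).1 hw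
    have h1 := ih (fun j hj => hs j (by omega)) hv
    obtain ⟨h2, h3⟩ := hs m (by omega) v hv y hy
    have h4 := F.evo y _ h3 k hk i
    have h5 := F.nr _ _ _ h2 (st_mem h0 hv) h3 i
    have e : pos (st y0 k0 ((y, k) :: v)).2 (st y0 k0 ((y, k) :: v)).1 i - pos k0 y0 i -
        dsp φ vel y0 k0 ((y, k) :: v) i =
        (pos k y i - pos (st y0 k0 v).2 y i - (φ k - φ (st y0 k0 v).2) * vel y i) +
        (pos (st y0 k0 v).2 y i - pos (st y0 k0 v).2 (st y0 k0 v).1 i) +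
        (pos (st y0 k0 v).2 (st y0 k0 v).1 i - pos k0 y0 i - dsp φ vel y0 k0 v i) := by
      simp only [st, dsp]; ring
    rw [e]
    have h6 := abs_add_le ((pos k y i - pos (st y0 k0 v).2 y i -
      (φ k - φ (st y0 k0 v).2) * vel y i) + (pos (st y0 k0 v).2 y i -
      pos (st y0 k0 v).2 (st y0 k0 v).1 i))
      (pos (st y0 k0 v).2 (st y0 k0 v).1 i - pos k0 y0 i - dsp φ vel y0 k0 v i)
    have h7 := abs_add_le (pos k y i - pos (st y0 k0 v).2 y i -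
      (φ k - φ (st y0 k0 v).2) * vel y i) (pos (st y0 k0 v).2 y i -
      pos (st y0 k0 v).2 (st y0 k0 v).1 i)
    push_cast
    linarith

/-- two walks with the same key -/
theorem Flow.pair (F : Flow d H Z φ vel pos near lab cell η M) (h0 : k0 ∈ H y0) {m : ℕ}
    (hs : Steps near H Y y0 k0 m) {w w' : List (ℕ × ℕ)} (hw : w ∈ walks H Y m)
    (hw' : w' ∈ walks H Y m) (h1 : (st y0 k0 w).2 = (st y0 k0 w').2)
    (h2 : cell (st y0 k0 w).2 (st y0 k0 w).1 = cell (st y0 k0 w').2 (st y0 k0 w').1)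
    (i : Fin d) : |dsp φ vel y0 k0 w i - dsp φ vel y0 k0 w' i| ≤ (4 * m + 1) * η := by
  have a1 := F.endpt h0 hs hw i
  have a2 := F.endpt h0 hs hw' i
  have m1 := st_mem (y0 := y0) (k0 := k0) h0 hw
  have m2 := st_mem (y0 := y0) (k0 := k0) h0 hw'
  rw [h1] at m1 h2 a1
  have a3 := F.cl _ _ _ m1 m2 h2 i
  rw [abs_le] at a1 a2 a3 ⊢
  constructor <;> nlinarith [a1.1, a1.2, a2.1, a2.2, a3.1, a3.2]

theorem mul_near {a b c e M : ℝ} (ha : |a| ≤ M) (hb : |b| ≤ M) (h : |c| ≤ e) (hM : 0 ≤ M) :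
    |(a - b) * c| ≤ 2 * M * e := by
  rw [abs_mul]
  have h1 : |a - b| ≤ 2 * M := (abs_sub _ _).trans (by linarith)
  exact mul_le_mul h1 h (abs_nonneg _) (by positivity)

/-! ### dimension two -/

/-- determinant -/
def det2 (a b : Fin 2 → ℝ) : ℝ := a 0 * b 1 - a 1 * b 0

theorem cramer2 {a b : Fin 2 → ℝ} {s t E K θ : ℝ} (h : ∀ i, |s * a i + t * b i| ≤ E)
    (ha : ∀ i, |a i| ≤ K) (hb : ∀ i, |b i| ≤ K) (hθ : 0 < θ) (hd : θ ≤ |det2 a b|) :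
    |s| ≤ 2 * K * E / θ ∧ |t| ≤ 2 * K * E / θ := by
  have hK : 0 ≤ K := (abs_nonneg _).trans (ha 0)
  have hE : 0 ≤ E := (abs_nonneg _).trans (h 0)
  have e1 : s * det2 a b = (s * a 0 + t * b 0) * b 1 - (s * a 1 + t * b 1) * b 0 := by
    unfold det2; ring
  have e2 : t * det2 a b = (s * a 1 + t * b 1) * a 0 - (s * a 0 + t * b 0) * a 1 := by
    unfold det2; ring
  have p : ∀ {x y : ℝ}, |x| ≤ E → |y| ≤ K → |x * y| ≤ K * E := fun hx hy => by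
    rw [abs_mul, mul_comm K E]
    exact mul_le_mul hx hy (abs_nonneg _) hE
  constructor
  · rw [le_div_iff₀ hθ]
    have h1 : |s * det2 a b| ≤ 2 * K * E := by
      rw [e1]
      refine (abs_sub _ _).trans ?_
      have := p (h 0) (hb 1)
      have := p (h 1) (hb 0)
      linarith
    rw [abs_mul] at h1
    exact (mul_le_mul_of_nonneg_left hd (abs_nonneg _)).trans h1
  · rw [le_div_iff₀ hθ]
    have h1 : |t * det2 a b| ≤ 2 * K * E := by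
      rw [e2]
      refine (abs_sub _ _).trans ?_
      have := p (h 1) (ha 0)
      have := p (h 0) (ha 1)
      linarith
    rw [abs_mul] at h1
    exact (mul_le_mul_of_nonneg_left hd (abs_nonneg _)).trans h1

/-- **three lines in the plane** -/
theorem core2 {vel : ℕ → Fin 2 → ℝ} {pos : ℕ → ℕ → Fin 2 → ℝ}
    (F : Flow 2 H Z φ vel pos near lab cell η M) (h0 : k0 ∈ H y0)
    (hs : Steps near H Y y0 k0 3)
    (hinj : ∀ j < 3, ∀ w ∈ walks H Y j, ∀ y ∈ Y w, ∀ y' ∈ Y w, lab y = lab y' → y = y')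
    {T : Finset β} {NT : ℝ} (hNT : (T.card : ℝ) ≤ NT)
    (hT : ∀ j < 3, ∀ w ∈ walks H Y j, ∀ y ∈ Y w, lab y ∈ T) {NC : ℝ} (hNC0 : 0 ≤ NC)
    (hNC : ∀ k ∈ Z, ∀ S : Finset ℕ, (∀ y ∈ S, k ∈ H y) → (((S.image (cell k)).card : ℕ) : ℝ) ≤ NC)
    {θ : ℝ} (hθ : 0 < θ) (hdet : ∀ y1 k1 y2 k2, [(y2, k2), (y1, k1)] ∈ walks H Y 2 →
      ∀ y3 ∈ Y [(y2, k2), (y1, k1)],
      θ ≤ |det2 (fun i => vel y1 i - vel y2 i) (fun i => vel y2 i - vel y3 i)|)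
    {a b : ℝ} (ha : 0 ≤ a) (hb : 0 ≤ b)
    (hY : ∀ j < 3, ∀ w ∈ walks H Y j, a ≤ ((Y w).card : ℝ))
    (hH : ∀ j < 3, ∀ w ∈ walks H Y j, ∀ y ∈ Y w, b ≤ ((H y).card : ℝ))
    {N : ℝ} (hN0 : 0 ≤ N) (hN : ∀ k ∈ Z,
      ((Z.filter fun k' => |φ k' - φ k| ≤ 76 * M ^ 2 * η / θ).card : ℝ) ≤ N) :
    (a * b) ^ 3 ≤ NT ^ 3 * (Z.card * NC) * N ^ 2 := by
  classical
  have hM := F.M1
  have hη := F.η0
  have hNT0 : 0 ≤ NT := (Nat.cast_nonneg _).trans hNT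
  have h1 := walks_card H Y ha hb 3 hY hH
  rcases (walks H Y 3).eq_empty_or_nonempty with he | hne
  · rw [he] at h1
    simp only [card_empty, Nat.cast_zero] at h1
    exact h1.trans (by positivity)
  obtain ⟨w0, hw0, h2⟩ := walk_pop H Y lab hNT (m := 2) hT F.hZ cell hNC0 hNC hne
  refine h1.trans (h2.trans (mul_le_mul_of_nonneg_left ?_ (by positivity)))
  have ex : ∀ w ∈ walks H Y 3, ∃ y3 k3 y2 k2 y1 k1, w = [(y3, k3), (y2, k2), (y1, k1)] ∧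
      k3 ∈ H y3 ∧ k2 ∈ H y2 ∧ k1 ∈ H y1 ∧ y3 ∈ Y [(y2, k2), (y1, k1)] ∧
      [(y2, k2), (y1, k1)] ∈ walks H Y 2 := by
    intro w hw
    obtain ⟨v, hv, y3, hy3, k3, hk3, rfl⟩ := (mem_walks_succ H Y).1 hw
    obtain ⟨v, hv', y2, hy2, k2, hk2, rfl⟩ := (mem_walks_succ H Y).1 hv
    obtain ⟨v, hv'', y1, hy1, k1, hk1, rfl⟩ := (mem_walks_succ H Y).1 hv'
    have hv0 := (mem_walks_zero H Y).1 hv''
    subst hv0
    exact ⟨y3, k3, y2, k2, y1, k1, rfl, hk3, hk2, hk1, hy3, hv⟩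
  obtain ⟨y3, k3, y2, k2, y1, k1, rfl, hk3, hk2, hk1, hy3, hv⟩ := ex w0 hw0
  have hθ' := hdet _ _ _ _ hv y3 hy3
  set S := (walks H Y 3).filter fun w => tys lab w = tys lab [(y3, k3), (y2, k2), (y1, k1)] ∧
        (hd w).2 = (hd [(y3, k3), (y2, k2), (y1, k1)]).2 ∧
        cell (hd w).2 (hd w).1 = cell (hd [(y3, k3), (y2, k2), (y1, k1)]).2
          (hd [(y3, k3), (y2, k2), (y1, k1)]).1 with hS
  set R := 76 * M ^ 2 * η / θ with hR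
  have key : ∀ w ∈ S, ∃ a1 a2, hgs w = [k3, a2, a1] ∧
      a1 ∈ Z.filter (fun k' => |φ k' - φ k1| ≤ R) ∧ a2 ∈ Z.filter (fun k' => |φ k' - φ k2| ≤ R) := by
    intro w hw
    obtain ⟨hw1, ht, hh, hc⟩ := mem_filter.1 hw
    obtain ⟨z3, l3, z2, l2, z1, l1, rfl, hl3, hl2, hl1, hz3, hv'⟩ := ex w hw1
    simp only [tys, List.map_cons, List.map_nil, List.cons.injEq, and_true] at ht
    obtain ⟨t3, t2, t1⟩ := ht
    have hh' : l3 = k3 := hh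
    subst hh'
    have hc' : cell l3 z3 = cell l3 y3 := hc
    refine ⟨l1, l2, rfl, ?_⟩
    have n1 := F.lb _ _ ⟨_, hl1⟩ ⟨_, hk1⟩ t1
    have n2 := F.lb _ _ ⟨_, hl2⟩ ⟨_, hk2⟩ t2
    have n3 := F.lb _ _ ⟨_, hl3⟩ ⟨_, hk3⟩ t3
    have b1 := F.φM _ (F.hZ _ hl1)
    have b2 := F.φM _ (F.hZ _ hl2)
    have b3 := F.φM _ (F.hZ _ hl3)
    have b0 := F.φM _ (F.hZ _ h0)
    have e := fun i => F.pair h0 hs (w := [(z3, l3), (z2, l2), (z1, l1)])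
      (w' := [(y3, l3), (y2, k2), (y1, k1)]) hw1 hw0 rfl hc' i
    have hM0 : (0:ℝ) ≤ M := by linarith
    have e2 : ∀ i, |(φ l1 - φ k1) * (vel y1 i - vel y2 i) + (φ l2 - φ k2) * (vel y2 i - vel y3 i)|
        ≤ 19 * M * η := by
      intro i
      have e3 := e i
      simp only [dsp, st] at e3
      have m1 := mul_near b1 b0 (n1 i) hM0
      have m2 := mul_near b2 b1 (n2 i) hM0
      have m3 := mul_near b3 b2 (n3 i) hM0
      have id : (φ l1 - φ k1) * (vel y1 i - vel y2 i) + (φ l2 - φ k2) * (vel y2 i - vel y3 i) =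
        (0 + (φ l1 - φ k0) * vel z1 i + (φ l2 - φ l1) * vel z2 i + (φ l3 - φ l2) * vel z3 i -
          (0 + (φ k1 - φ k0) * vel y1 i + (φ k2 - φ k1) * vel y2 i + (φ l3 - φ k2) * vel y3 i)) -
        (φ l1 - φ k0) * (vel z1 i - vel y1 i) - (φ l2 - φ l1) * (vel z2 i - vel y2 i) -
        (φ l3 - φ l2) * (vel z3 i - vel y3 i) := by ring
      rw [id]
      rw [abs_le] at e3 m1 m2 m3 ⊢
      have hMη : η ≤ M * η := le_mul_of_one_le_left hη.le hM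
      push_cast at e3
      constructor <;> linarith [e3.1, e3.2, m1.1, m1.2, m2.1, m2.2, m3.1, m3.2]
    have v1 := F.vM _ ⟨_, hk1⟩
    have v2 := F.vM _ ⟨_, hk2⟩
    have v3 := F.vM _ ⟨_, hk3⟩
    have hK : ∀ {u v : Fin 2 → ℝ}, (∀ i, |u i| ≤ M) → (∀ i, |v i| ≤ M) → ∀ i, |u i - v i| ≤ 2 * M :=
      fun hu hv i => (abs_sub _ _).trans (by linarith [hu i, hv i])
    obtain ⟨c1, c2⟩ := cramer2 e2 (hK v1 v2) (hK v2 v3) hθ hθ'
    have e5 : 2 * (2 * M) * (19 * M * η) / θ = R := by rw [hR]; ring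
    rw [e5] at c1 c2
    exact ⟨mem_filter.2 ⟨F.hZ _ hl1, c1⟩, mem_filter.2 ⟨F.hZ _ hl2, c2⟩⟩
  choose! a1 a2 hg h11 h22 using key
  have hcard : S.card ≤ ((Z.filter (fun k' => |φ k' - φ k1| ≤ R)) ×ˢ
      (Z.filter (fun k' => |φ k' - φ k2| ≤ R))).card := by
    refine card_le_card_of_injOn (fun w => (a1 w, a2 w))
      (fun w hw => mem_coe.2 (mem_product.2 ⟨h11 w hw, h22 w hw⟩)) ?_
    intro w hw w' hw' he
    obtain ⟨q1, q2⟩ := Prod.mk.inj he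
    refine walk_inj H Y lab hinj (mem_filter.1 (mem_coe.1 hw)).1 (mem_filter.1 (mem_coe.1 hw')).1
      ((mem_filter.1 (mem_coe.1 hw)).2.1.trans (mem_filter.1 (mem_coe.1 hw')).2.1.symm) ?_
    rw [hg w hw, hg w' hw', q1, q2]
  rw [card_product] at hcard
  calc (S.card : ℝ) ≤ ((Z.filter (fun k' => |φ k' - φ k1| ≤ R)).card : ℝ) *
      ((Z.filter (fun k' => |φ k' - φ k2| ≤ R)).card : ℝ) := by exact_mod_cast hcard
    _ ≤ N * N := mul_le_mul (hN _ (F.hZ _ hk1)) (hN _ (F.hZ _ hk2)) (Nat.cast_nonneg _) hN0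
    _ = N ^ 2 := by ring

/-! ### dimension three -/

/-- determinant -/
def det3 (a b c : Fin 3 → ℝ) : ℝ := a 0 * (b 1 * c 2 - b 2 * c 1) -
  a 1 * (b 0 * c 2 - b 2 * c 0) + a 2 * (b 0 * c 1 - b 1 * c 0)

theorem det3_le {x b c : Fin 3 → ℝ} {E K : ℝ} (h : ∀ i, |x i| ≤ E)
    (hb : ∀ i, |b i| ≤ K) (hc : ∀ i, |c i| ≤ K) : |det3 x b c| ≤ 6 * K ^ 2 * E := by
  have hK : 0 ≤ K := (abs_nonneg _).trans (hb 0)
  have hE : 0 ≤ E := (abs_nonneg _).trans (h 0)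
  have p : ∀ i j, |b i * c j| ≤ K * K := fun i j => by
    rw [abs_mul]; exact mul_le_mul (hb i) (hc j) (abs_nonneg _) hK
  have q : ∀ k i j i' j', |x k * (b i * c j - b i' * c j')| ≤ E * (2 * (K * K)) := by
    intro k i j i' j'
    rw [abs_mul]
    refine mul_le_mul (h k) ((abs_sub _ _).trans ?_) (abs_nonneg _) hE
    linarith [p i j, p i' j']
  unfold det3
  refine (abs_add_le _ _).trans ?_
  refine (add_le_add_left (abs_sub _ _) _).trans ?_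
  have q1 := q 0 1 2 2 1
  have q2 := q 1 0 2 2 0
  have q3 := q 2 0 1 1 0
  have : 6 * K ^ 2 * E = 3 * (E * (2 * (K * K))) := by ring
  rw [this]
  linarith

theorem cramer3 {a b c : Fin 3 → ℝ} {s t r E K θ : ℝ}
    (h : ∀ i, |s * a i + t * b i + r * c i| ≤ E)
    (ha : ∀ i, |a i| ≤ K) (hb : ∀ i, |b i| ≤ K) (hc : ∀ i, |c i| ≤ K) (hθ : 0 < θ)
    (hd : θ ≤ |det3 a b c|) :
    |s| ≤ 6 * K ^ 2 * E / θ ∧ |t| ≤ 6 * K ^ 2 * E / θ ∧ |r| ≤ 6 * K ^ 2 * E / θ := by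
  have e1 : s * det3 a b c = det3 (fun i => s * a i + t * b i + r * c i) b c := by
    unfold det3; ring
  have e2 : t * det3 a b c = -det3 (fun i => s * a i + t * b i + r * c i) a c := by
    unfold det3; ring
  have e3 : r * det3 a b c = det3 (fun i => s * a i + t * b i + r * c i) a b := by
    unfold det3; ring
  have fin : ∀ {x D : ℝ}, x * det3 a b c = D → |D| ≤ 6 * K ^ 2 * E → |x| ≤ 6 * K ^ 2 * E / θ := by
    intro x D h1 h2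
    rw [le_div_iff₀ hθ]
    rw [← h1, abs_mul] at h2
    exact (mul_le_mul_of_nonneg_left hd (abs_nonneg _)).trans h2
  exact ⟨fin e1 (det3_le h hb hc), fin e2 (by rw [abs_neg]; exact det3_le h ha hc),
    fin e3 (det3_le h ha hb)⟩

/-- **four lines in space** -/
theorem core3 {vel : ℕ → Fin 3 → ℝ} {pos : ℕ → ℕ → Fin 3 → ℝ}
    (F : Flow 3 H Z φ vel pos near lab cell η M) (h0 : k0 ∈ H y0)
    (hs : Steps near H Y y0 k0 4)
    (hinj : ∀ j < 4, ∀ w ∈ walks H Y j, ∀ y ∈ Y w, ∀ y' ∈ Y w, lab y = lab y' → y = y')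
    {T : Finset β} {NT : ℝ} (hNT : (T.card : ℝ) ≤ NT)
    (hT : ∀ j < 4, ∀ w ∈ walks H Y j, ∀ y ∈ Y w, lab y ∈ T) {NC : ℝ} (hNC0 : 0 ≤ NC)
    (hNC : ∀ k ∈ Z, ∀ S : Finset ℕ, (∀ y ∈ S, k ∈ H y) → (((S.image (cell k)).card : ℕ) : ℝ) ≤ NC)
    {θ : ℝ} (hθ : 0 < θ) (hdet : ∀ y1 k1 y2 k2 y3 k3,
      [(y3, k3), (y2, k2), (y1, k1)] ∈ walks H Y 3 →
      ∀ y4 ∈ Y [(y3, k3), (y2, k2), (y1, k1)],
      θ ≤ |det3 (fun i => vel y1 i - vel y2 i) (fun i => vel y2 i - vel y3 i)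
        (fun i => vel y3 i - vel y4 i)|)
    {a b : ℝ} (ha : 0 ≤ a) (hb : 0 ≤ b)
    (hY : ∀ j < 4, ∀ w ∈ walks H Y j, a ≤ ((Y w).card : ℝ))
    (hH : ∀ j < 4, ∀ w ∈ walks H Y j, ∀ y ∈ Y w, b ≤ ((H y).card : ℝ))
    {N : ℝ} (hN0 : 0 ≤ N) (hN : ∀ k ∈ Z,
      ((Z.filter fun k' => |φ k' - φ k| ≤ 600 * M ^ 3 * η / θ).card : ℝ) ≤ N) :
    (a * b) ^ 4 ≤ NT ^ 4 * (Z.card * NC) * N ^ 3 := by
  classical
  have hM := F.M1
  have hη := F.η0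
  have hNT0 : 0 ≤ NT := (Nat.cast_nonneg _).trans hNT
  have h1 := walks_card H Y ha hb 4 hY hH
  rcases (walks H Y 4).eq_empty_or_nonempty with he | hne
  · rw [he] at h1
    simp only [card_empty, Nat.cast_zero] at h1
    exact h1.trans (by positivity)
  obtain ⟨w0, hw0, h2⟩ := walk_pop H Y lab hNT (m := 3) hT F.hZ cell hNC0 hNC hne
  refine h1.trans (h2.trans (mul_le_mul_of_nonneg_left ?_ (by positivity)))
  have ex : ∀ w ∈ walks H Y 4, ∃ y4 k4 y3 k3 y2 k2 y1 k1,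
      w = [(y4, k4), (y3, k3), (y2, k2), (y1, k1)] ∧
      k4 ∈ H y4 ∧ k3 ∈ H y3 ∧ k2 ∈ H y2 ∧ k1 ∈ H y1 ∧ y4 ∈ Y [(y3, k3), (y2, k2), (y1, k1)] ∧
      [(y3, k3), (y2, k2), (y1, k1)] ∈ walks H Y 3 := by
    intro w hw
    obtain ⟨v, hv0, y4, hy4, k4, hk4, rfl⟩ := (mem_walks_succ H Y).1 hw
    obtain ⟨v, hv, y3, hy3, k3, hk3, rfl⟩ := (mem_walks_succ H Y).1 hv0
    obtain ⟨v, hv', y2, hy2, k2, hk2, rfl⟩ := (mem_walks_succ H Y).1 hv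
    obtain ⟨v, hv'', y1, hy1, k1, hk1, rfl⟩ := (mem_walks_succ H Y).1 hv'
    have hv00 := (mem_walks_zero H Y).1 hv''
    subst hv00
    exact ⟨y4, k4, y3, k3, y2, k2, y1, k1, rfl, hk4, hk3, hk2, hk1, hy4, hv0⟩
  obtain ⟨y4, k4, y3, k3, y2, k2, y1, k1, rfl, hk4, hk3, hk2, hk1, hy4, hv⟩ := ex w0 hw0
  have hθ' := hdet _ _ _ _ _ _ hv y4 hy4
  set S := (walks H Y 4).filter fun w =>
        tys lab w = tys lab [(y4, k4), (y3, k3), (y2, k2), (y1, k1)] ∧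
        (hd w).2 = (hd [(y4, k4), (y3, k3), (y2, k2), (y1, k1)]).2 ∧
        cell (hd w).2 (hd w).1 = cell (hd [(y4, k4), (y3, k3), (y2, k2), (y1, k1)]).2
          (hd [(y4, k4), (y3, k3), (y2, k2), (y1, k1)]).1 with hS
  set R := 600 * M ^ 3 * η / θ with hR
  have key : ∀ w ∈ S, ∃ a1 a2 a3, hgs w = [k4, a3, a2, a1] ∧
      a1 ∈ Z.filter (fun k' => |φ k' - φ k1| ≤ R) ∧ a2 ∈ Z.filter (fun k' => |φ k' - φ k2| ≤ R) ∧
      a3 ∈ Z.filter (fun k' => |φ k' - φ k3| ≤ R) := by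
    intro w hw
    obtain ⟨hw1, ht, hh, hc⟩ := mem_filter.1 hw
    obtain ⟨z4, l4, z3, l3, z2, l2, z1, l1, rfl, hl4, hl3, hl2, hl1, hz4, hv'⟩ := ex w hw1
    simp only [tys, List.map_cons, List.map_nil, List.cons.injEq, and_true] at ht
    obtain ⟨t4, t3, t2, t1⟩ := ht
    have hh' : l4 = k4 := hh
    subst hh'
    have hc' : cell l4 z4 = cell l4 y4 := hc
    refine ⟨l1, l2, l3, rfl, ?_⟩
    have n1 := F.lb _ _ ⟨_, hl1⟩ ⟨_, hk1⟩ t1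
    have n2 := F.lb _ _ ⟨_, hl2⟩ ⟨_, hk2⟩ t2
    have n3 := F.lb _ _ ⟨_, hl3⟩ ⟨_, hk3⟩ t3
    have n4 := F.lb _ _ ⟨_, hl4⟩ ⟨_, hk4⟩ t4
    have b1 := F.φM _ (F.hZ _ hl1)
    have b2 := F.φM _ (F.hZ _ hl2)
    have b3 := F.φM _ (F.hZ _ hl3)
    have b4 := F.φM _ (F.hZ _ hl4)
    have b0 := F.φM _ (F.hZ _ h0)
    have e := fun i => F.pair h0 hs (w := [(z4, l4), (z3, l3), (z2, l2), (z1, l1)])
      (w' := [(y4, l4), (y3, k3), (y2, k2), (y1, k1)]) hw1 hw0 rfl hc' i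
    have hM0 : (0:ℝ) ≤ M := by linarith
    have e2 : ∀ i, |(φ l1 - φ k1) * (vel y1 i - vel y2 i) + (φ l2 - φ k2) * (vel y2 i - vel y3 i)
        + (φ l3 - φ k3) * (vel y3 i - vel y4 i)| ≤ 25 * M * η := by
      intro i
      have e3 := e i
      simp only [dsp, st] at e3
      have m1 := mul_near b1 b0 (n1 i) hM0
      have m2 := mul_near b2 b1 (n2 i) hM0
      have m3 := mul_near b3 b2 (n3 i) hM0
      have m4 := mul_near b4 b3 (n4 i) hM0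
      have id : (φ l1 - φ k1) * (vel y1 i - vel y2 i) + (φ l2 - φ k2) * (vel y2 i - vel y3 i)
        + (φ l3 - φ k3) * (vel y3 i - vel y4 i) =
        (0 + (φ l1 - φ k0) * vel z1 i + (φ l2 - φ l1) * vel z2 i + (φ l3 - φ l2) * vel z3 i +
          (φ l4 - φ l3) * vel z4 i -
          (0 + (φ k1 - φ k0) * vel y1 i + (φ k2 - φ k1) * vel y2 i + (φ k3 - φ k2) * vel y3 i +
          (φ l4 - φ k3) * vel y4 i)) -
        (φ l1 - φ k0) * (vel z1 i - vel y1 i) - (φ l2 - φ l1) * (vel z2 i - vel y2 i) -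
        (φ l3 - φ l2) * (vel z3 i - vel y3 i) - (φ l4 - φ l3) * (vel z4 i - vel y4 i) := by ring
      rw [id]
      rw [abs_le] at e3 m1 m2 m3 m4 ⊢
      have hMη : η ≤ M * η := le_mul_of_one_le_left hη.le hM
      push_cast at e3
      constructor <;> linarith [e3.1, e3.2, m1.1, m1.2, m2.1, m2.2, m3.1, m3.2, m4.1, m4.2]
    have v1 := F.vM _ ⟨_, hk1⟩
    have v2 := F.vM _ ⟨_, hk2⟩
    have v3 := F.vM _ ⟨_, hk3⟩
    have v4 := F.vM _ ⟨_, hk4⟩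
    have hK : ∀ {u v : Fin 3 → ℝ}, (∀ i, |u i| ≤ M) → (∀ i, |v i| ≤ M) → ∀ i, |u i - v i| ≤ 2 * M :=
      fun hu hv i => (abs_sub _ _).trans (by linarith [hu i, hv i])
    obtain ⟨c1, c2, c3⟩ := cramer3 e2 (hK v1 v2) (hK v2 v3) (hK v3 v4) hθ hθ'
    have e5 : 6 * (2 * M) ^ 2 * (25 * M * η) / θ = R := by rw [hR]; ring
    rw [e5] at c1 c2 c3
    exact ⟨mem_filter.2 ⟨F.hZ _ hl1, c1⟩, mem_filter.2 ⟨F.hZ _ hl2, c2⟩,
      mem_filter.2 ⟨F.hZ _ hl3, c3⟩⟩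
  choose! a1 a2 a3 hg h11 h22 h33 using key
  have hcard : S.card ≤ ((Z.filter (fun k' => |φ k' - φ k1| ≤ R)) ×ˢ
      ((Z.filter (fun k' => |φ k' - φ k2| ≤ R)) ×ˢ
      (Z.filter (fun k' => |φ k' - φ k3| ≤ R)))).card := by
    refine card_le_card_of_injOn (fun w => (a1 w, a2 w, a3 w))
      (fun w hw => mem_coe.2 (mem_product.2 ⟨h11 w hw, mem_product.2 ⟨h22 w hw, h33 w hw⟩⟩)) ?_
    intro w hw w' hw' he
    obtain ⟨q1, q23⟩ := Prod.mk.inj he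
    obtain ⟨q2, q3⟩ := Prod.mk.inj q23
    refine walk_inj H Y lab hinj (mem_filter.1 (mem_coe.1 hw)).1 (mem_filter.1 (mem_coe.1 hw')).1
      ((mem_filter.1 (mem_coe.1 hw)).2.1.trans (mem_filter.1 (mem_coe.1 hw')).2.1.symm) ?_
    rw [hg w hw, hg w' hw', q1, q2, q3]
  rw [card_product, card_product] at hcard
  calc (S.card : ℝ) ≤ ((Z.filter (fun k' => |φ k' - φ k1| ≤ R)).card : ℝ) *
      (((Z.filter (fun k' => |φ k' - φ k2| ≤ R)).card : ℝ) *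
      ((Z.filter (fun k' => |φ k' - φ k3| ≤ R)).card : ℝ)) := by exact_mod_cast hcard
    _ ≤ N * (N * N) := mul_le_mul (hN _ (F.hZ _ hk1)) (mul_le_mul (hN _ (F.hZ _ hk2))
        (hN _ (F.hZ _ hk3)) (Nat.cast_nonneg _) hN0) (by positivity) hN0
    _ = N ^ 3 := by ring

end Crest.Agent.R136.Lin560
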