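import Crest.Agent.R136.Lin2_560

/-!
# R136, thin branch, `lin` (helper560), part 3: the alternative, finite form

`alt2`, `alt3` : if the number of cells is small, a popular set of types at one point has dependent
velocity differences.
-/

set_option autoImplicit false
set_option linter.unusedSectionVars false
set_option linter.unusedVariables false

namespace Crest.Agent.R136.Lin560

open Finset

variable {β : Type*} [DecidableEq β]

/-- representatives of the types -/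
theorem reps (S : Finset ℕ) (lab : ℕ → β) : ∃ S' ⊆ S,
    (∀ y ∈ S', ∀ y' ∈ S', lab y = lab y' → y = y') ∧ S'.card = (S.image lab).card := by
  classical
  have h : ∀ v ∈ S.image lab, ∃ y ∈ S, lab y = v := fun v hv => mem_image.1 hv
  choose! g hg1 hg2 using h
  refine ⟨(S.image lab).image g, ?_, ?_, ?_⟩
  · intro y hy
    obtain ⟨v, hv, rfl⟩ := mem_image.1 hy
    exact hg1 v hv
  · intro y hy y' hy' he
    obtain ⟨v, hv, rfl⟩ := mem_image.1 hy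
    obtain ⟨v', hv', rfl⟩ := mem_image.1 hy'
    rw [hg2 v hv, hg2 v' hv'] at he
    rw [he]
  · refine card_image_of_injOn fun v hv v' hv' he => ?_
    rw [← hg2 v hv, ← hg2 v' hv', he]

theorem img_split (S : Finset ℕ) (lab : ℕ → β) (p : ℕ → Prop) [DecidablePred p] :
    ((S.image lab).card : ℝ) ≤ (((S.filter p).image lab).card : ℝ) +
      (((S.filter fun l => ¬ p l).image lab).card : ℝ) := by
  have h : S.image lab ⊆ (S.filter p).image lab ∪ (S.filter fun l => ¬ p l).image lab := by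
    intro v hv
    obtain ⟨y, hy, rfl⟩ := mem_image.1 hv
    by_cases hp : p y
    · exact mem_union_left _ (mem_image_of_mem _ (mem_filter.2 ⟨hy, hp⟩))
    · exact mem_union_right _ (mem_image_of_mem _ (mem_filter.2 ⟨hy, hp⟩))
  have := (card_le_card h).trans (card_union_le _ _)
  exact_mod_cast this

theorem filt_ge {S : Finset ℕ} {lab : ℕ → β} {p q : ℕ → Prop} [DecidablePred p] [DecidablePred q]
    {n m : ℝ} (h1 : n ≤ ((S.image lab).card : ℝ)) (h2 : (((S.filter q).image lab).card : ℝ) ≤ m)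
    (hpq : ∀ l, ¬ p l → q l) : n - m ≤ (((S.filter p).image lab).card : ℝ) := by
  have h3 := img_split S lab p
  have h4 : (((S.filter fun l => ¬ p l).image lab).card : ℝ) ≤
      (((S.filter q).image lab).card : ℝ) := by
    refine Nat.cast_le.2 (card_le_card (image_subset_image fun l hl => ?_))
    obtain ⟨a, b⟩ := mem_filter.1 hl
    exact mem_filter.2 ⟨a, hpq l b⟩
  linarith

variable {H : ℕ → Finset ℕ} {Z : Finset ℕ} {φ : ℕ → ℝ} {near : ℕ → ℕ → ℕ → Prop} {lab : ℕ → β}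
  {cell : ℕ → ℕ → ℕ} {η M : ℝ} {y0 k0 : ℕ}

open Classical in
/-- **alternative in the plane** -/
theorem alt2 {vel : ℕ → Fin 2 → ℝ} {pos : ℕ → ℕ → Fin 2 → ℝ}
    (F : Flow 2 H Z φ vel pos near lab cell η M) (h0 : k0 ∈ H y0)
    {St : ℕ → ℕ → Finset ℕ} (hSt : ∀ k y l, l ∈ St k y → near k y l ∧ k ∈ H l)
    {T : Finset β} {NT : ℝ} (hNT : (T.card : ℝ) ≤ NT)
    (hT : ∀ y, (H y).Nonempty → lab y ∈ T) {NC : ℝ} (hNC0 : 0 ≤ NC)
    (hNC : ∀ k ∈ Z, ∀ S : Finset ℕ, (∀ y ∈ S, k ∈ H y) → (((S.image (cell k)).card : ℕ) : ℝ) ≤ NC)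
    {θ δ nS b : ℝ} (hθ : 0 < θ) (hnS : 0 ≤ nS) (hb : 0 ≤ b)
    (hS : ∀ y, ∀ k ∈ H y, nS ≤ (((St k y).image lab).card : ℝ))
    (hc : ∀ c0 : ℝ, ∀ y, ∀ k ∈ H y,
      ((((St k y).filter fun l => |vel l 0 - c0| ≤ δ).image lab).card : ℝ) ≤ nS / 4)
    (hH : ∀ y, (H y).Nonempty → b ≤ ((H y).card : ℝ))
    {N : ℝ} (hN0 : 0 ≤ N) (hN : ∀ k ∈ Z,
      ((Z.filter fun k' => |φ k' - φ k| ≤ 76 * M ^ 2 * η / θ).card : ℝ) ≤ N)
    (hlt : NT ^ 3 * (Z.card * NC) * N ^ 2 < (nS / 2 * b) ^ 3) :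
    ∃ y1 y2 k2, (H y1).Nonempty ∧ k2 ∈ H y2 ∧ δ < |vel y2 0 - vel y1 0| ∧
      nS / 2 ≤ ((((St k2 y2).filter fun l => |det2 (fun i => vel y1 i - vel y2 i)
        (fun i => vel y2 i - vel l i)| < θ).image lab).card : ℝ) := by
  by_contra hcon
  push Not at hcon
  choose R hR1 hR2 hR3 using fun S : Finset ℕ => reps S lab
  obtain ⟨Y, hY⟩ : ∃ Y : List (ℕ × ℕ) → Finset ℕ, Y = fun w => match w with
    | [] => R (St k0 y0)
    | [(y1, k1)] => R ((St k1 y1).filter fun l => δ < |vel l 0 - vel y1 0|)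
    | [(y2, k2), (y1, k1)] => R ((St k2 y2).filter fun l =>
        θ ≤ |det2 (fun i => vel y1 i - vel y2 i) (fun i => vel y2 i - vel l i)|)
    | _ => ∅ := ⟨_, rfl⟩
  have Y0 : Y [] = R (St k0 y0) := by rw [hY]
  have Y1 : ∀ y1 k1, Y [(y1, k1)] = R ((St k1 y1).filter fun l => δ < |vel l 0 - vel y1 0|) :=
    fun _ _ => by rw [hY]
  have Y2 : ∀ y1 k1 y2 k2, Y [(y2, k2), (y1, k1)] = R ((St k2 y2).filter fun l =>
        θ ≤ |det2 (fun i => vel y1 i - vel y2 i) (fun i => vel y2 i - vel l i)|) :=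
    fun _ _ _ _ => by rw [hY]
  have w0 : ∀ w ∈ walks H Y 0, w = [] := fun w hw => (mem_walks_zero H Y).1 hw
  have w1 : ∀ w ∈ walks H Y 1, ∃ y1 k1, w = [(y1, k1)] ∧ k1 ∈ H y1 := by
    intro w hw
    obtain ⟨v, hv, y, hy, k, hk, rfl⟩ := (mem_walks_succ H Y).1 hw
    rw [w0 v hv]
    exact ⟨y, k, rfl, hk⟩
  have w2 : ∀ w ∈ walks H Y 2, ∃ y2 k2 y1 k1, w = [(y2, k2), (y1, k1)] ∧ k1 ∈ H y1 ∧ k2 ∈ H y2 ∧
      y2 ∈ Y [(y1, k1)] := by
    intro w hw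
    obtain ⟨v, hv, y, hy, k, hk, rfl⟩ := (mem_walks_succ H Y).1 hw
    obtain ⟨y1, k1, rfl, h⟩ := w1 v hv
    exact ⟨y, k, y1, k1, rfl, h, hk, hy⟩
  have cases : ∀ j < 3, ∀ w ∈ walks H Y j, Y w ⊆ St (st y0 k0 w).2 (st y0 k0 w).1 ∧
      (∀ y ∈ Y w, ∀ y' ∈ Y w, lab y = lab y' → y = y') ∧ nS / 2 ≤ ((Y w).card : ℝ) := by
    intro j hj w hw
    rcases (by omega : j = 0 ∨ j = 1 ∨ j = 2) with rfl | rfl | rfl
    · rw [w0 w hw, Y0]
      refine ⟨hR1 _, hR2 _, ?_⟩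
      rw [hR3]
      have := hS y0 k0 h0
      linarith
    · obtain ⟨y1, k1, rfl, hk1⟩ := w1 w hw
      rw [Y1]
      refine ⟨(hR1 _).trans (filter_subset _ _), hR2 _, ?_⟩
      rw [hR3]
      have := filt_ge (p := fun l => δ < |vel l 0 - vel y1 0|) (hS y1 k1 hk1)
        (hc (vel y1 0) y1 k1 hk1) (fun l hl => not_lt.1 hl)
      linarith
    · obtain ⟨y2, k2, y1, k1, rfl, hk1, hk2, hy2⟩ := w2 w hw
      rw [Y2]
      refine ⟨(hR1 _).trans (filter_subset _ _), hR2 _, ?_⟩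
      rw [hR3]
      rw [Y1] at hy2
      have h1 := (mem_filter.1 (hR1 _ hy2)).2
      have h2 := hcon y1 y2 k2 ⟨k1, hk1⟩ hk2 h1
      have := filt_ge (p := fun l => θ ≤ |det2 (fun i => vel y1 i - vel y2 i)
        (fun i => vel y2 i - vel l i)|) (hS y2 k2 hk2) h2.le (fun l hl => not_le.1 hl)
      linarith
  have hall : ∀ j < 3, ∀ w ∈ walks H Y j, ∀ y ∈ Y w,
      near (st y0 k0 w).2 (st y0 k0 w).1 y ∧ (st y0 k0 w).2 ∈ H y := by
    intro j hj w hw y hy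
    exact hSt _ _ _ ((cases j hj w hw).1 hy)
  have := core2 F h0 (Y := Y) hall (fun j hj w hw => (cases j hj w hw).2.1) hNT
    (fun j hj w hw y hy => hT y ⟨_, (hall j hj w hw y hy).2⟩) hNC0 hNC hθ ?_
    (a := nS / 2) (b := b) (by positivity) hb (fun j hj w hw => (cases j hj w hw).2.2)
    (fun j hj w hw y hy => hH y ⟨_, (hall j hj w hw y hy).2⟩) hN0 hN
  · exact absurd this (not_le.2 hlt)
  · intro y1 k1 y2 k2 hw y3 hy3
    rw [Y2] at hy3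
    exact (mem_filter.1 (hR1 _ hy3)).2

open Classical in
/-- **alternative in space** -/
theorem alt3 {vel : ℕ → Fin 3 → ℝ} {pos : ℕ → ℕ → Fin 3 → ℝ}
    (F : Flow 3 H Z φ vel pos near lab cell η M) (h0 : k0 ∈ H y0)
    {St : ℕ → ℕ → Finset ℕ} (hSt : ∀ k y l, l ∈ St k y → near k y l ∧ k ∈ H l)
    {T : Finset β} {NT : ℝ} (hNT : (T.card : ℝ) ≤ NT)
    (hT : ∀ y, (H y).Nonempty → lab y ∈ T) {NC : ℝ} (hNC0 : 0 ≤ NC)
    (hNC : ∀ k ∈ Z, ∀ S : Finset ℕ, (∀ y ∈ S, k ∈ H y) → (((S.image (cell k)).card : ℕ) : ℝ) ≤ NC)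
    {θ δ nS b : ℝ} (hθ : 0 < θ) (hnS : 0 ≤ nS) (hb : 0 ≤ b)
    (hS : ∀ y, ∀ k ∈ H y, nS ≤ (((St k y).image lab).card : ℝ))
    (hc : ∀ c0 : ℝ, ∀ y, ∀ k ∈ H y,
      ((((St k y).filter fun l => |vel l 0 - c0| ≤ δ).image lab).card : ℝ) ≤ nS / 4)
    (hH : ∀ y, (H y).Nonempty → b ≤ ((H y).card : ℝ))
    {N : ℝ} (hN0 : 0 ≤ N) (hN : ∀ k ∈ Z,
      ((Z.filter fun k' => |φ k' - φ k| ≤ 600 * M ^ 3 * η / θ).card : ℝ) ≤ N)
    (hlt : NT ^ 4 * (Z.card * NC) * N ^ 3 < (nS / 2 * b) ^ 4) :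
    ∃ y1 y2 y3 k3, (H y1).Nonempty ∧ (H y2).Nonempty ∧ k3 ∈ H y3 ∧ δ < |vel y2 0 - vel y1 0| ∧
      δ < |vel y3 0 - vel y1 0| ∧ δ < |vel y3 0 - vel y2 0| ∧
      nS / 2 ≤ ((((St k3 y3).filter fun l => |det3 (fun i => vel y1 i - vel y2 i)
        (fun i => vel y2 i - vel y3 i) (fun i => vel y3 i - vel l i)| < θ).image lab).card : ℝ) := by
  by_contra hcon
  push Not at hcon
  choose R hR1 hR2 hR3 using fun S : Finset ℕ => reps S lab
  obtain ⟨Y, hY⟩ : ∃ Y : List (ℕ × ℕ) → Finset ℕ, Y = fun w => match w with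
    | [] => R (St k0 y0)
    | [(y1, k1)] => R ((St k1 y1).filter fun l => δ < |vel l 0 - vel y1 0|)
    | [(y2, k2), (y1, k1)] => R (((St k2 y2).filter fun l => δ < |vel l 0 - vel y1 0|).filter
        fun l => δ < |vel l 0 - vel y2 0|)
    | [(y3, k3), (y2, k2), (y1, k1)] => R ((St k3 y3).filter fun l =>
        θ ≤ |det3 (fun i => vel y1 i - vel y2 i) (fun i => vel y2 i - vel y3 i)
          (fun i => vel y3 i - vel l i)|)
    | _ => ∅ := ⟨_, rfl⟩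
  have Y0 : Y [] = R (St k0 y0) := by rw [hY]
  have Y1 : ∀ y1 k1, Y [(y1, k1)] = R ((St k1 y1).filter fun l => δ < |vel l 0 - vel y1 0|) :=
    fun _ _ => by rw [hY]
  have Y2 : ∀ y1 k1 y2 k2, Y [(y2, k2), (y1, k1)] =
      R (((St k2 y2).filter fun l => δ < |vel l 0 - vel y1 0|).filter
        fun l => δ < |vel l 0 - vel y2 0|) := fun _ _ _ _ => by rw [hY]
  have Y3 : ∀ y1 k1 y2 k2 y3 k3, Y [(y3, k3), (y2, k2), (y1, k1)] =
      R ((St k3 y3).filter fun l =>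
        θ ≤ |det3 (fun i => vel y1 i - vel y2 i) (fun i => vel y2 i - vel y3 i)
          (fun i => vel y3 i - vel l i)|) := fun _ _ _ _ _ _ => by rw [hY]
  have w0 : ∀ w ∈ walks H Y 0, w = [] := fun w hw => (mem_walks_zero H Y).1 hw
  have w1 : ∀ w ∈ walks H Y 1, ∃ y1 k1, w = [(y1, k1)] ∧ k1 ∈ H y1 := by
    intro w hw
    obtain ⟨v, hv, y, hy, k, hk, rfl⟩ := (mem_walks_succ H Y).1 hw
    rw [w0 v hv]
    exact ⟨y, k, rfl, hk⟩
  have w2 : ∀ w ∈ walks H Y 2, ∃ y2 k2 y1 k1, w = [(y2, k2), (y1, k1)] ∧ k1 ∈ H y1 ∧ k2 ∈ H y2 ∧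
      y2 ∈ Y [(y1, k1)] := by
    intro w hw
    obtain ⟨v, hv, y, hy, k, hk, rfl⟩ := (mem_walks_succ H Y).1 hw
    obtain ⟨y1, k1, rfl, h⟩ := w1 v hv
    exact ⟨y, k, y1, k1, rfl, h, hk, hy⟩
  have w3 : ∀ w ∈ walks H Y 3, ∃ y3 k3 y2 k2 y1 k1, w = [(y3, k3), (y2, k2), (y1, k1)] ∧
      k1 ∈ H y1 ∧ k2 ∈ H y2 ∧ k3 ∈ H y3 ∧ y2 ∈ Y [(y1, k1)] ∧ y3 ∈ Y [(y2, k2), (y1, k1)] := by
    intro w hw
    obtain ⟨v, hv, y, hy, k, hk, rfl⟩ := (mem_walks_succ H Y).1 hw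
    obtain ⟨y2, k2, y1, k1, rfl, h, h', h''⟩ := w2 v hv
    exact ⟨y, k, y2, k2, y1, k1, rfl, h, h', hk, h'', hy⟩
  have cases : ∀ j < 4, ∀ w ∈ walks H Y j, Y w ⊆ St (st y0 k0 w).2 (st y0 k0 w).1 ∧
      (∀ y ∈ Y w, ∀ y' ∈ Y w, lab y = lab y' → y = y') ∧ nS / 2 ≤ ((Y w).card : ℝ) := by
    intro j hj w hw
    rcases (by omega : j = 0 ∨ j = 1 ∨ j = 2 ∨ j = 3) with rfl | rfl | rfl | rfl
    · rw [w0 w hw, Y0]
      refine ⟨hR1 _, hR2 _, ?_⟩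
      rw [hR3]
      have := hS y0 k0 h0
      linarith
    · obtain ⟨y1, k1, rfl, hk1⟩ := w1 w hw
      rw [Y1]
      refine ⟨(hR1 _).trans (filter_subset _ _), hR2 _, ?_⟩
      rw [hR3]
      have := filt_ge (p := fun l => δ < |vel l 0 - vel y1 0|) (hS y1 k1 hk1)
        (hc (vel y1 0) y1 k1 hk1) (fun l hl => not_lt.1 hl)
      linarith
    · obtain ⟨y2, k2, y1, k1, rfl, hk1, hk2, hy2⟩ := w2 w hw
      rw [Y2]
      refine ⟨(hR1 _).trans ((filter_subset _ _).trans (filter_subset _ _)), hR2 _, ?_⟩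
      rw [hR3]
      have t1 := filt_ge (p := fun l => δ < |vel l 0 - vel y1 0|) (hS y2 k2 hk2)
        (hc (vel y1 0) y2 k2 hk2) (fun l hl => not_lt.1 hl)
      have t2 : (((((St k2 y2).filter fun l => δ < |vel l 0 - vel y1 0|).filter
          fun l => |vel l 0 - vel y2 0| ≤ δ).image lab).card : ℝ) ≤ nS / 4 := by
        refine le_trans (Nat.cast_le.2 (card_le_card (image_subset_image fun l hl => ?_)))
          (hc (vel y2 0) y2 k2 hk2)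
        obtain ⟨a1, a2⟩ := mem_filter.1 hl
        exact mem_filter.2 ⟨(mem_filter.1 a1).1, a2⟩
      have t3 := filt_ge (p := fun l => δ < |vel l 0 - vel y2 0|) t1 t2
        (fun l hl => not_lt.1 hl)
      linarith
    · obtain ⟨y3, k3, y2, k2, y1, k1, rfl, hk1, hk2, hk3, hy2, hy3⟩ := w3 w hw
      rw [Y3]
      refine ⟨(hR1 _).trans (filter_subset _ _), hR2 _, ?_⟩
      rw [hR3]
      rw [Y1] at hy2
      rw [Y2] at hy3
      have h1 := (mem_filter.1 (hR1 _ hy2)).2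
      obtain ⟨g1, g2⟩ := mem_filter.1 (hR1 _ hy3)
      have h2 := hcon y1 y2 y3 k3 ⟨k1, hk1⟩ ⟨k2, hk2⟩ hk3 h1 (mem_filter.1 g1).2 g2
      have := filt_ge (p := fun l => θ ≤ |det3 (fun i => vel y1 i - vel y2 i)
        (fun i => vel y2 i - vel y3 i) (fun i => vel y3 i - vel l i)|) (hS y3 k3 hk3) h2.le
        (fun l hl => not_le.1 hl)
      linarith
  have hall : ∀ j < 4, ∀ w ∈ walks H Y j, ∀ y ∈ Y w,
      near (st y0 k0 w).2 (st y0 k0 w).1 y ∧ (st y0 k0 w).2 ∈ H y := by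
    intro j hj w hw y hy
    exact hSt _ _ _ ((cases j hj w hw).1 hy)
  have := core3 F h0 (Y := Y) hall (fun j hj w hw => (cases j hj w hw).2.1) hNT
    (fun j hj w hw y hy => hT y ⟨_, (hall j hj w hw y hy).2⟩) hNC0 hNC hθ ?_
    (a := nS / 2) (b := b) (by positivity) hb (fun j hj w hw => (cases j hj w hw).2.2)
    (fun j hj w hw y hy => hH y ⟨_, (hall j hj w hw y hy).2⟩) hN0 hN
  · exact absurd this (not_le.2 hlt)
  · intro y1 k1 y2 k2 y3 k3 hw y4 hy4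
    rw [Y3] at hy4
    exact (mem_filter.1 (hR1 _ hy4)).2

end Crest.Agent.R136.Lin560
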