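import Crest.Agent.R136.Qd4_329
import Crest.Agent.R136.Gr1_356

/-!
# R136: the bilinear rigidity (helper329), part 5: nets and popular cells of an `RUnif`
-/

set_option autoImplicit false

open Filter Topology

namespace Crest.Agent.R136.Qd329

open Finset
open Crest.Agent.R138.Ex926 (Base U)
open Crest.Agent.R136.Gf356

/-- most popular value -/
theorem pop1 {α : Type*} (S : Finset α) (f : α → ℕ) {N : ℝ}
    (hN : ((S.image f).card : ℝ) ≤ N) :
    ∃ v, (S.card : ℝ) ≤ N * ((S.filter fun t => f t = v).card : ℝ) := by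
  classical
  rcases S.eq_empty_or_nonempty with rfl | hS
  · exact ⟨0, by simp⟩
  obtain ⟨v, -, hv⟩ := exists_max_image (S.image f)
    (fun v => (S.filter fun t => f t = v).card) (hS.image f)
  refine ⟨v, ?_⟩
  have h1 : S.card = ∑ u ∈ S.image f, (S.filter fun t => f t = u).card :=
    card_eq_sum_card_fiberwise fun t ht => mem_coe.2 (mem_image_of_mem f (mem_coe.1 ht))
  have h2 : (S.card : ℝ) ≤ (S.image f).card * ((S.filter fun t => f t = v).card : ℝ) := by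
    have h3 : ∑ u ∈ S.image f, (S.filter fun t => f t = u).card ≤
        ∑ _u ∈ S.image f, (S.filter fun t => f t = v).card := sum_le_sum hv
    rw [sum_const, smul_eq_mul, ← h1] at h3
    exact_mod_cast h3
  exact h2.trans (mul_le_mul_of_nonneg_right hN (Nat.cast_nonneg _))

/-- popular values in all fibres -/
theorem pop2 {α : Type*} (S : Finset α) (lab : α → ℕ) (f : ℕ → α → ℕ) {N : ℝ}
    (hN : ∀ e, (((S.filter fun t => lab t = e).image (f e)).card : ℝ) ≤ N) :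
    ∃ v : ℕ → ℕ, (S.card : ℝ) ≤
      N * ((S.filter fun t => f (lab t) t = v (lab t)).card : ℝ) := by
  classical
  have h := fun e => pop1 (S.filter fun t => lab t = e) (f e) (hN e)
  choose v hv using h
  refine ⟨v, ?_⟩
  have h1 : S.card = ∑ u ∈ S.image lab, (S.filter fun t => lab t = u).card :=
    card_eq_sum_card_fiberwise fun t ht => mem_coe.2 (mem_image_of_mem lab (mem_coe.1 ht))
  have h2 : (S.filter fun t => f (lab t) t = v (lab t)).card =
      ∑ u ∈ S.image lab, ((S.filter fun t => f (lab t) t = v (lab t)).filter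
        fun t => lab t = u).card :=
    card_eq_sum_card_fiberwise fun t ht => by
      have := (mem_filter.1 (mem_coe.1 ht)).1
      exact mem_coe.2 (mem_image_of_mem lab this)
  rw [h1, h2]
  push_cast
  rw [mul_sum]
  refine sum_le_sum fun u _ => (hv u).trans (le_of_eq ?_)
  congr 2
  congr 1
  ext t
  simp only [mem_filter]
  constructor
  · rintro ⟨⟨a1, a2⟩, a3⟩
    exact ⟨⟨a1, by rw [a2]; exact a3⟩, a2⟩
  · rintro ⟨⟨a1, a2⟩, a3⟩
    exact ⟨⟨a1, a3⟩, by rw [a3] at a2; exact a2⟩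

/-- fibrewise count -/
theorem card_le_img {β : Type*} [DecidableEq β] (S : Finset ℕ) (f : ℕ → β) {N W : ℝ}
    (hN : ((S.image f).card : ℝ) ≤ N) (hW0 : 0 ≤ W)
    (hW : ∀ v ∈ S.image f, ((S.filter fun t => f t = v).card : ℝ) ≤ W) :
    (S.card : ℝ) ≤ N * W := by
  have h1 : S.card = ∑ u ∈ S.image f, (S.filter fun t => f t = u).card :=
    card_eq_sum_card_fiberwise fun t ht => mem_coe.2 (mem_image_of_mem f (mem_coe.1 ht))
  rw [h1]
  push_cast
  calc ∑ u ∈ S.image f, ((S.filter fun t => f t = u).card : ℝ) ≤ ∑ _u ∈ S.image f, W :=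
        sum_le_sum hW
    _ = (S.image f).card * W := by rw [sum_const, nsmul_eq_mul]
    _ ≤ _ := mul_le_mul_of_nonneg_right hN hW0

section

variable {κ : Type} {B : Base} {G : ℕ → RCfg κ} {Leg : Set (κ → ℝ)} {ν : (κ → ℝ) → ℝ} {D : ℝ}

/-- **nets with disjoint small boxes** -/
theorem voronoi (H : RUnif B G Leg ν D) (r : κ → ℝ) (hr : r ∈ Leg) {ε : ℝ} (hε : 0 < ε) :
    ∀ᶠ n in (U : Filter ℕ), ∀ k, ∃ lab : ℕ → ℕ,
      (∀ t ∈ (G n).slice k, lab t ∈ (G n).slice k ∧ (G n).loose r (D ^ 3 * ε) k (lab t) t) ∧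
      (∀ t ∈ (G n).slice k, ∀ t' ∈ (G n).slice k, lab t = lab t' →
        (G n).loose r (D ^ 5 * ε) k t t') ∧
      ∀ A ⊆ ((G n).slice k).image lab, (A.card : ℝ) * B.d n ^ (-ν r + ε) ≤
        (((A.biUnion fun e => (G n).box r ε e k)).card : ℝ) := by
  classical
  have hD := H.D1
  have hD0 : 0 < D := by linarith
  filter_upwards [H.symm r hr ε hε, H.symm r hr (D ^ 2 * ε) (by positivity),
    H.symm r hr (D ^ 3 * ε) (by positivity), H.tri r hr (D * ε) (by positivity),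
    H.tri r hr (D ^ 4 * ε) (by positivity), H.low r hr ε hε] with n s1 s2 s3 t1 t4 hlow k
  have hpow : ∀ t : ℝ, 0 < B.d n ^ t := fun t => rpos B n t
  obtain ⟨E, hET, hE1, hE2⟩ := exists_indep ((G n).slice k)
    (fun e t => (G n).loose r (D ^ 2 * ε) k e t)
  have hI : ∀ t ∈ (G n).slice k, (t, k) ∈ (G n).I := fun t ht => H.memSlice.1 ht
  have hlab : ∀ t ∈ (G n).slice k, ∃ e ∈ E, (G n).loose r (D ^ 3 * ε) k e t := by
    intro t ht
    by_cases htE : t ∈ E
    · exact ⟨t, htE, H.loose_self _ _ (hI t ht)⟩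
    · obtain ⟨e, he, h | h⟩ := hE2 t ht htE
      · refine ⟨e, he, H.loose_mono (fun _ => le_rfl) ?_ h⟩
        have : D ^ 2 ≤ D ^ 3 := pow_le_pow_right₀ hD (by norm_num)
        exact mul_le_mul_of_nonneg_right this hε.le
      · refine ⟨e, he, ?_⟩
        have := s2 k t e (hI t ht) (hI e (hET he)) h
        have e1 : D * (D ^ 2 * ε) = D ^ 3 * ε := by ring
        rwa [e1] at this
  choose! lab hlab1 hlab2 using hlab
  refine ⟨lab, fun t ht => ⟨hET (hlab1 t ht), hlab2 t ht⟩, ?_, ?_⟩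
  · intro t ht t' ht' heq
    have a1 := hlab2 t ht
    have a2 := hlab2 t' ht'
    rw [← heq] at a2
    have hIe := hI _ (hET (hlab1 t ht))
    have a3 := s3 k _ t hIe (hI t ht) a1
    have e1 : D * (D ^ 3 * ε) = D ^ 4 * ε := by ring
    rw [e1] at a3
    have a4 : (G n).loose r (D ^ 4 * ε) k (lab t) t' := H.loose_mono (fun _ => le_rfl) (by
      have : D ^ 3 ≤ D ^ 4 := pow_le_pow_right₀ hD (by norm_num)
      exact mul_le_mul_of_nonneg_right this hε.le) a2
    have a5 := t4 k t (lab t) t' (hI t ht) hIe (hI t' ht') a3 a4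
    have e2 : D * (D ^ 4 * ε) = D ^ 5 * ε := by ring
    rwa [e2] at a5
  · intro A hA
    have hAE : A ⊆ E := by
      intro e he
      obtain ⟨t, ht, rfl⟩ := mem_image.1 (hA he)
      exact hlab1 t ht
    have hdisj : ∀ e ∈ A, ∀ e' ∈ A, e ≠ e' →
        Disjoint ((G n).box r ε e k) ((G n).box r ε e' k) := by
      intro e he e' he' hne
      rw [disjoint_left]
      intro l hl hl'
      obtain ⟨l1, l2⟩ := RCfg.mem_box.1 hl
      obtain ⟨m1, m2⟩ := RCfg.mem_box.1 hl'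
      have hIl := H.memSlice.1 l1
      have b2 := s1 k e' l (hI e' (hET (hAE he'))) hIl m2
      have b3 : (G n).loose r (D * ε) k e l := H.loose_mono (fun _ => le_rfl) (by nlinarith) l2
      have b4 := t1 k e l e' (hI e (hET (hAE he))) hIl (hI e' (hET (hAE he'))) b3 b2
      have e1 : D * (D * ε) = D ^ 2 * ε := by ring
      rw [e1] at b4
      exact hE1 e (hAE he) e' (hAE he') hne b4
    rw [card_biUnion hdisj]
    calc (A.card : ℝ) * B.d n ^ (-ν r + ε) = ∑ e ∈ A, B.d n ^ (-ν r + ε) := by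
          rw [sum_const, nsmul_eq_mul]
      _ ≤ ∑ e ∈ A, (((G n).box r ε e k).card : ℝ) :=
          sum_le_sum fun e he => hlow e k (hI e (hET (hAE he)))
      _ = _ := by push_cast; rfl

/-- **popular subcells** -/
theorem popular (H : RUnif B G Leg ν D) (r r' : κ → ℝ) (hr : r ∈ Leg) (hr' : r' ∈ Leg)
    (hrr : ∀ j, r j ≤ r' j) {ε : ℝ} (hε : 0 < ε) :
    ∀ᶠ n in (U : Filter ℕ), ∀ k, ∀ T ⊆ (G n).slice k, ∀ lab : ℕ → ℕ,
      (∀ t ∈ T, ∀ t' ∈ T, lab t = lab t' → (G n).loose r ε k t t') →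
      ∃ T' ⊆ T, B.d n ^ ((ν r - ν r') + (D ^ 2 + 1) * ε) * (T.card : ℝ) ≤ T'.card ∧
        ∀ t ∈ T', ∀ t' ∈ T', lab t = lab t' → (G n).loose r' (D ^ 5 * ε) k t t' := by
  classical
  filter_upwards [H.exists_lab_loose r r' hr hr' hrr hε] with n h1 k T hT lab hlab
  have h2 : ∀ e, ∃ lab' : ℕ → ℕ, (∀ t ∈ T.filter fun t => lab t = e,
      ∀ t' ∈ T.filter fun t => lab t = e, lab' t = lab' t' →
        (G n).loose r' (D ^ 5 * ε) k t t') ∧
      (((T.filter fun t => lab t = e).image lab').card : ℝ) ≤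
        B.d n ^ (-(ν r - ν r') - (D ^ 2 + 1) * ε) := by
    intro e
    refine h1 k _ ((filter_subset _ _).trans hT) ?_
    intro i hi i' hi'
    obtain ⟨a1, a2⟩ := mem_filter.1 hi
    obtain ⟨b1, b2⟩ := mem_filter.1 hi'
    exact hlab i a1 i' b1 (a2.trans b2.symm)
  choose f hf1 hf2 using h2
  obtain ⟨v, hv⟩ := pop2 T lab f hf2
  refine ⟨T.filter fun t => f (lab t) t = v (lab t), filter_subset _ _, ?_, ?_⟩
  · have hpos := rpos B n ((ν r - ν r') + (D ^ 2 + 1) * ε)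
    have h3 := mul_le_mul_of_nonneg_left hv hpos.le
    refine h3.trans (le_of_eq ?_)
    rw [← mul_assoc, ← rpow_add']
    have : ν r - ν r' + (D ^ 2 + 1) * ε + (-(ν r - ν r') - (D ^ 2 + 1) * ε) = 0 := by ring
    rw [this, Real.rpow_zero, one_mul]
  · intro t ht t' ht' he
    obtain ⟨a1, a2⟩ := mem_filter.1 ht
    obtain ⟨b1, b2⟩ := mem_filter.1 ht'
    refine hf1 (lab t) t (mem_filter.2 ⟨a1, rfl⟩) t' (mem_filter.2 ⟨b1, he.symm⟩) ?_
    rw [a2, he, b2]

/-- **nets, with counts** -/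
theorem net_facts (H : RUnif B G Leg ν D) (p0 r : κ → ℝ) (h0 : p0 ∈ Leg) (hr : r ∈ Leg)
    (hall : ∀ ε : ℝ, 0 < ε → ∀ᶠ n in (U : Filter ℕ), ∀ k l l', (l, k) ∈ (G n).I →
      (l', k) ∈ (G n).I → (G n).loose p0 ε k l l') {ε : ℝ} (hε : 0 < ε) :
    ∀ᶠ n in (U : Filter ℕ), ∀ k, ((G n).slice k).Nonempty → ∃ lab : ℕ → ℕ,
      (∀ t ∈ (G n).slice k, lab t ∈ (G n).slice k ∧ (G n).loose r (D ^ 3 * ε) k (lab t) t) ∧
      (∀ t ∈ (G n).slice k, ∀ t' ∈ (G n).slice k, lab t = lab t' →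
        (G n).loose r (D ^ 5 * ε) k t t') ∧
      (∀ A ⊆ ((G n).slice k).image lab, (A.card : ℝ) * B.d n ^ (-ν r + ε) ≤
        (((A.biUnion fun e => (G n).box r ε e k)).card : ℝ)) ∧
      ((((G n).slice k).image lab).card : ℝ) ≤ B.d n ^ (ν r - ε) * ((G n).slice k).card ∧
      B.d n ^ (-ν p0 + ν r + (D ^ 6 + 1) * ε) ≤ ((((G n).slice k).image lab).card : ℝ) := by
  classical
  have hD := H.D1
  have hD0 : 0 < D := by linarith
  filter_upwards [voronoi H r hr hε, hall ε hε, H.low p0 h0 ε hε,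
    H.up r hr (D ^ 5 * ε) (by positivity)] with n h1 h2 h3 h4 k hne
  obtain ⟨lab, a1, a2, a3⟩ := h1 k
  have hpos : ∀ t : ℝ, 0 < B.d n ^ t := fun t => rpos B n t
  refine ⟨lab, a1, a2, a3, ?_, ?_⟩
  · have b1 := a3 _ (Subset.refl _)
    have b2 : (((((G n).slice k).image lab).biUnion fun e => (G n).box r ε e k).card : ℝ) ≤
        ((G n).slice k).card := by
      refine Nat.cast_le.2 (card_le_card fun l hl => ?_)
      obtain ⟨e, -, he⟩ := mem_biUnion.1 hl
      exact (RCfg.mem_box.1 he).1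
    have b3 := b1.trans b2
    have e1 : B.d n ^ (ν r - ε) * B.d n ^ (-ν r + ε) = 1 := by
      rw [← rpow_add']
      have : ν r - ε + (-ν r + ε) = 0 := by ring
      rw [this, Real.rpow_zero]
    calc ((((G n).slice k).image lab).card : ℝ) =
        B.d n ^ (ν r - ε) * (((((G n).slice k).image lab).card : ℝ) * B.d n ^ (-ν r + ε)) := by
          rw [mul_left_comm, e1, mul_one]
      _ ≤ _ := mul_le_mul_of_nonneg_left b3 (hpos _).le
  · obtain ⟨l0, hl0⟩ := hne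
    have hl0I := H.memSlice.1 hl0
    have b1 : B.d n ^ (-ν p0 + ε) ≤ (((G n).slice k).card : ℝ) := by
      refine (h3 l0 k hl0I).trans (Nat.cast_le.2 (card_le_card fun l hl => ?_))
      exact (RCfg.mem_box.1 hl).1
    have b2 := card_le_img ((G n).slice k) lab (le_refl _) (hpos (-ν r - D * (D ^ 5 * ε))).le
      fun v hv => by
        obtain ⟨t0, ht0, hv0⟩ := mem_image.1 hv
        refine le_trans (Nat.cast_le.2 (card_le_card ?_)) (h4 t0 k (H.memSlice.1 ht0))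
        intro l hl
        obtain ⟨c1, c2⟩ := mem_filter.1 hl
        exact RCfg.mem_box.2 ⟨c1, a2 t0 ht0 l c1 (hv0.trans c2.symm)⟩
    have b3 := b1.trans b2
    have e1 : B.d n ^ (-ν r - D * (D ^ 5 * ε)) * B.d n ^ (ν r + D ^ 6 * ε) = 1 := by
      rw [← rpow_add']
      have : -ν r - D * (D ^ 5 * ε) + (ν r + D ^ 6 * ε) = 0 := by ring
      rw [this, Real.rpow_zero]
    calc B.d n ^ (-ν p0 + ν r + (D ^ 6 + 1) * ε) =
        B.d n ^ (-ν p0 + ε) * B.d n ^ (ν r + D ^ 6 * ε) := by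
          rw [← rpow_add']; congr 1; ring
      _ ≤ ((((G n).slice k).image lab).card : ℝ) * B.d n ^ (-ν r - D * (D ^ 5 * ε)) *
          B.d n ^ (ν r + D ^ 6 * ε) := mul_le_mul_of_nonneg_right b3 (hpos _).le
      _ = _ := by rw [mul_assoc, e1, mul_one]

end

/-! ### strips -/

/-- number of integer parts -/
theorem int_img (S : Finset ℕ) (g : ℕ → ℝ) {w x0 x1 : ℝ} (hw : 0 < w) (h01 : x0 ≤ x1)
    (h : ∀ l ∈ S, x0 ≤ g l ∧ g l ≤ x1) :
    ((S.image fun l => ⌊g l / w⌋).card : ℝ) ≤ (x1 - x0) / w + 2 := by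
  have h1 : (S.image fun l => ⌊g l / w⌋) ⊆ Icc ⌊x0 / w⌋ ⌊x1 / w⌋ := by
    intro z hz
    obtain ⟨l, hl, rfl⟩ := mem_image.1 hz
    obtain ⟨a1, a2⟩ := h l hl
    exact mem_Icc.2 ⟨Int.floor_le_floor (div_le_div_of_nonneg_right a1 hw.le),
      Int.floor_le_floor (div_le_div_of_nonneg_right a2 hw.le)⟩
  have h2 := card_le_card h1
  rw [Int.card_Icc] at h2
  have h3 : ⌊x0 / w⌋ ≤ ⌊x1 / w⌋ := Int.floor_le_floor (div_le_div_of_nonneg_right h01 hw.le)
  have h4 : (((⌊x1 / w⌋ + 1 - ⌊x0 / w⌋).toNat : ℕ) : ℝ) = (⌊x1 / w⌋ : ℝ) + 1 - ⌊x0 / w⌋ := by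
    have : (((⌊x1 / w⌋ + 1 - ⌊x0 / w⌋).toNat : ℤ) : ℝ) =
        ((⌊x1 / w⌋ + 1 - ⌊x0 / w⌋ : ℤ) : ℝ) := by
      rw [Int.toNat_of_nonneg (by omega)]
    push_cast at this
    exact_mod_cast this
  have h5 := Int.floor_le (x1 / w)
  have h6 := Int.lt_floor_add_one (x0 / w)
  calc ((S.image fun l => ⌊g l / w⌋).card : ℝ) ≤ (((⌊x1 / w⌋ + 1 - ⌊x0 / w⌋).toNat : ℕ) : ℝ) :=
        Nat.cast_le.2 h2
    _ = (⌊x1 / w⌋ : ℝ) + 1 - ⌊x0 / w⌋ := h4
    _ ≤ x1 / w - x0 / w + 2 := by linarith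
    _ = _ := by ring

theorem floor_close {x y w : ℝ} (hw : 0 < w) (h : ⌊x / w⌋ = ⌊y / w⌋) : |x - y| ≤ w := by
  have h1 := Int.abs_sub_lt_one_of_floor_eq_floor h
  have h2 : x / w - y / w = (x - y) / w := by ring
  rw [h2, abs_div, abs_of_pos hw, div_lt_one hw] at h1
  exact h1.le

/-- **lines in a strip**, slope at most one -/
theorem strip_core (T : Finset ℕ) (a b : ℕ → ℝ) {M w q Wc : ℝ} (hM : 1 ≤ M) (hw : 0 < w)
    (hwq : w ≤ q) (hq : q ≤ 1) (ha : ∀ l ∈ T, |a l| ≤ M) (hW : 0 ≤ Wc)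
    (hcell : ∀ l0 ∈ T, ((T.filter fun l => |a l - a l0| ≤ w ∧ |b l - b l0| ≤ w).card : ℝ) ≤ Wc)
    {n t : ℝ} (hn : |n| ≤ 1) (hs : ∀ l ∈ T, |b l + n * a l - t| ≤ q) :
    (T.card : ℝ) ≤ 24 * M * q / w ^ 2 * Wc := by
  classical
  have hq0 : 0 < q := lt_of_lt_of_le hw hwq
  have h1 : ((T.image fun l => ⌊a l / w⌋).card : ℝ) ≤ 4 * M / w := by
    refine (int_img T a (x0 := -M) (x1 := M) hw (by linarith) fun l hl =>
      abs_le.1 (ha l hl)).trans ?_
    rw [div_add' _ _ _ hw.ne', div_le_div_iff_of_pos_right hw]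
    linarith
  have h2 : ∀ v ∈ T.image fun l => ⌊a l / w⌋,
      ((T.filter fun l => ⌊a l / w⌋ = v).card : ℝ) ≤ 6 * q / w * Wc := by
    intro v hv
    obtain ⟨l0, hl0, hv0⟩ := mem_image.1 hv
    have hcl : ∀ l ∈ T.filter fun l => ⌊a l / w⌋ = v, |a l - a l0| ≤ w := fun l hl =>
      floor_close hw ((mem_filter.1 hl).2.trans hv0.symm)
    have h3 : (((T.filter fun l => ⌊a l / w⌋ = v).image fun l => ⌊b l / w⌋).card : ℝ) ≤
        (t - n * a l0 + q + w - (t - n * a l0 - q - w)) / w + 2 := by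
      refine int_img _ b hw (by linarith) fun l hl => ?_
      have k1 := hcl l hl
      have k2 := hs l (mem_filter.1 hl).1
      have k3 : |n * (a l - a l0)| ≤ w := by
        rw [abs_mul]
        calc |n| * |a l - a l0| ≤ 1 * w := mul_le_mul hn k1 (abs_nonneg _) zero_le_one
          _ = w := one_mul _
      have k4 := abs_le.1 k3
      have k5 := abs_le.1 k2
      constructor <;> nlinarith [k4.1, k4.2, k5.1, k5.2]
    have h4 : (t - n * a l0 + q + w - (t - n * a l0 - q - w)) / w + 2 ≤ 6 * q / w := by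
      rw [div_add' _ _ _ hw.ne', div_le_div_iff_of_pos_right hw]
      linarith
    refine card_le_img _ (fun l => ⌊b l / w⌋) (h3.trans h4) hW ?_
    intro v' hv'
    obtain ⟨l1, hl1, hv1⟩ := mem_image.1 hv'
    obtain ⟨e1, e2⟩ := mem_filter.1 hl1
    refine le_trans (Nat.cast_le.2 (card_le_card ?_)) (hcell l1 e1)
    intro l hl
    obtain ⟨f1, f2⟩ := mem_filter.1 hl
    obtain ⟨g1, g2⟩ := mem_filter.1 f1
    exact mem_filter.2 ⟨g1, floor_close hw (g2.trans e2.symm), floor_close hw (f2.trans hv1.symm)⟩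
  have h5 := card_le_img T (fun l => ⌊a l / w⌋) h1 (by positivity) h2
  refine h5.trans (le_of_eq ?_)
  field_simp
  ring

/-- **lines in a strip** -/
theorem strip_lines (T : Finset ℕ) (a b : ℕ → ℝ) {M w q Wc : ℝ} (hM : 1 ≤ M) (hw : 0 < w)
    (hwq : w ≤ q) (hq : q ≤ 1) (ha : ∀ l ∈ T, |a l| ≤ M) (hb : ∀ l ∈ T, |b l| ≤ M) (hW : 0 ≤ Wc)
    (hcell : ∀ l0 ∈ T, ((T.filter fun l => |a l - a l0| ≤ w ∧ |b l - b l0| ≤ w).card : ℝ) ≤ Wc)
    {n1 n2 t : ℝ} (hn : 1 ≤ |n1| ∨ 1 ≤ |n2|) (hs : ∀ l ∈ T, |n1 * b l + n2 * a l - t| ≤ q) :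
    (T.card : ℝ) ≤ 24 * M * q / w ^ 2 * Wc := by
  have hq0 : 0 < q := lt_of_lt_of_le hw hwq
  rcases le_total |n2| |n1| with h | h
  · have h1 : 1 ≤ |n1| := by rcases hn with h' | h' <;> linarith
    have h10 : n1 ≠ 0 := by
      intro h0; rw [h0, abs_zero] at h1; linarith
    refine strip_core T a b hM hw hwq hq ha hW hcell (n := n2 / n1) (t := t / n1) ?_ fun l hl => ?_
    · rw [abs_div]; exact (div_le_one (by linarith)).2 h
    · have e : b l + n2 / n1 * a l - t / n1 = (n1 * b l + n2 * a l - t) / n1 := by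
        field_simp
      rw [e, abs_div, div_le_iff₀ (by linarith)]
      refine (hs l hl).trans ?_
      nlinarith
  · have h1 : 1 ≤ |n2| := by rcases hn with h' | h' <;> linarith
    have h10 : n2 ≠ 0 := by
      intro h0; rw [h0, abs_zero] at h1; linarith
    refine strip_core T b a hM hw hwq hq hb hW ?_ (n := n1 / n2) (t := t / n2) ?_ fun l hl => ?_
    · intro l0 hl0
      refine le_trans (le_of_eq ?_) (hcell l0 hl0)
      congr 2
      ext l
      simp only [and_comm]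
    · rw [abs_div]; exact (div_le_one (by linarith)).2 h
    · have e : a l + n1 / n2 * b l - t / n2 = (n1 * b l + n2 * a l - t) / n2 := by
        field_simp
        ring
      rw [e, abs_div, div_le_iff₀ (by linarith)]
      refine (hs l hl).trans ?_
      nlinarith

end Crest.Agent.R136.Qd329
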