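import Crest.Agent.R136.Lin3_560
import Crest.Agent.R136.Qd5_329

/-!
# R136, thin branch, `lin` (helper560), part 4: counts over an `RModel`

`LRow`, `LProf` : hypotheses; `cnt_types` .. : the numbers of types.
-/

set_option autoImplicit false
set_option linter.unusedSectionVars false
set_option linter.unusedVariables false

open Filter Topology

namespace Crest.Agent.R136.Lin560

open Finset
open Crest.Agent.R138.Ex926 (Base U)
open Crest.Agent.R136.Gf356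
open Crest.Agent.R136.Qd329 (int_img floor_close card_le_img voronoi net_facts)

/-! ### overlap of boxes -/

/-- cell of a velocity -/
noncomputable def tyl (w : ℝ) (ty : ℕ → Fin 2 → ℝ) (l : ℕ) : ℤ × ℤ :=
  (⌊ty l 0 / w⌋, ⌊ty l 1 / w⌋)

theorem tyl_close {w : ℝ} (hw : 0 < w) {ty : ℕ → Fin 2 → ℝ} {l l' : ℕ}
    (h : tyl w ty l = tyl w ty l') (i : Fin 2) : |ty l i - ty l' i| ≤ w := by
  obtain ⟨h0, h1⟩ := Prod.mk.inj h
  fin_cases i
  · exact floor_close hw h0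
  · exact floor_close hw h1

theorem overlap_one {w r0 : ℝ} (hw : 0 < w) (hr : 0 ≤ r0) {ty : ℕ → Fin 2 → ℝ} (S : Finset ℕ)
    (hS : ∀ l ∈ S, ∀ l' ∈ S, tyl w ty l = tyl w ty l' → l = l') (v : Fin 2 → ℝ)
    (hv : ∀ l ∈ S, ∀ i, |v i - ty l i| ≤ r0) : (S.card : ℝ) ≤ (2 * r0 / w + 2) ^ 2 := by
  classical
  have h1 : S.card = (S.image (tyl w ty)).card :=
    (card_image_of_injOn fun l hl l' hl' he => hS l hl l' hl' he).symm
  have h2 : S.image (tyl w ty) ⊆ (S.image fun l => ⌊ty l 0 / w⌋) ×ˢ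
      (S.image fun l => ⌊ty l 1 / w⌋) := by
    intro p hp
    obtain ⟨l, hl, rfl⟩ := mem_image.1 hp
    exact mem_product.2 ⟨mem_image_of_mem _ hl, mem_image_of_mem _ hl⟩
  have h3 : ∀ i : Fin 2, ((S.image fun l => ⌊ty l i / w⌋).card : ℝ) ≤ 2 * r0 / w + 2 := by
    intro i
    have := int_img S (fun l => ty l i) (x0 := v i - r0) (x1 := v i + r0) hw (by linarith)
      fun l hl => by
        have := abs_le.1 (hv l hl i)
        constructor <;> linarith [this.1, this.2]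
    have e : (v i + r0 - (v i - r0)) / w + 2 = 2 * r0 / w + 2 := by ring
    rwa [e] at this
  have h4 := card_le_card h2
  rw [card_product, ← h1] at h4
  calc (S.card : ℝ) ≤ ((S.image fun l => ⌊ty l 0 / w⌋).card : ℝ) *
      ((S.image fun l => ⌊ty l 1 / w⌋).card : ℝ) := by exact_mod_cast h4
    _ ≤ (2 * r0 / w + 2) * (2 * r0 / w + 2) := mul_le_mul (h3 0) (h3 1) (Nat.cast_nonneg _)
        (by positivity)
    _ = _ := by ring

/-- double counting -/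
theorem overlap_count {w r0 β : ℝ} (hw : 0 < w) (hr : 0 ≤ r0) {ty : ℕ → Fin 2 → ℝ} (S W : Finset ℕ)
    (hS : ∀ l ∈ S, ∀ l' ∈ S, tyl w ty l = tyl w ty l' → l = l') (Bx : ℕ → Finset ℕ)
    (hB : ∀ l ∈ S, Bx l ⊆ W) (hBr : ∀ l ∈ S, ∀ l' ∈ Bx l, ∀ i, |ty l' i - ty l i| ≤ r0)
    (hβ : ∀ l ∈ S, β ≤ ((Bx l).card : ℝ)) :
    (S.card : ℝ) * β ≤ (2 * r0 / w + 2) ^ 2 * (W.card : ℝ) := by
  classical
  have h1 : ∑ l ∈ S, (Bx l).card = ∑ l' ∈ W, (S.filter fun l => l' ∈ Bx l).card := by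
    have e1 : ∀ l ∈ S, (Bx l).card = ∑ l' ∈ W, if l' ∈ Bx l then 1 else 0 := by
      intro l hl
      rw [← sum_filter, sum_const, smul_eq_mul, mul_one]
      congr 1
      ext l'
      rw [mem_filter]
      exact ⟨fun h => ⟨hB l hl h, h⟩, fun h => h.2⟩
    rw [sum_congr rfl e1, sum_comm]
    refine sum_congr rfl fun l' _ => ?_
    rw [← sum_filter, sum_const, smul_eq_mul, mul_one]
  have h2 : ∀ l' ∈ W, ((S.filter fun l => l' ∈ Bx l).card : ℝ) ≤ (2 * r0 / w + 2) ^ 2 := by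
    intro l' _
    refine overlap_one hw hr _ (fun l hl l1 hl1 => hS l (mem_filter.1 hl).1 l1 (mem_filter.1 hl1).1)
      (ty l') fun l hl i => ?_
    obtain ⟨a, b⟩ := mem_filter.1 hl
    exact hBr l a l' b i
  calc (S.card : ℝ) * β = ∑ _l ∈ S, β := by rw [sum_const, nsmul_eq_mul]
    _ ≤ ∑ l ∈ S, ((Bx l).card : ℝ) := sum_le_sum hβ
    _ = ∑ l' ∈ W, ((S.filter fun l => l' ∈ Bx l).card : ℝ) := by exact_mod_cast h1
    _ ≤ ∑ _l' ∈ W, (2 * r0 / w + 2) ^ 2 := sum_le_sum h2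
    _ = _ := by rw [sum_const, nsmul_eq_mul]; ring

/-! ### hypotheses -/

variable {κ : Type}

/-- the configuration of lines -/
structure LRow (d : ℕ) (B : Base) (G : ℕ → RCfg κ) (x M C : ℝ) (p0 r Qc Qf : κ → ℝ)
    (pc : ℝ → κ → ℝ) (φ : ℕ → ℕ → ℝ) (ty : ℕ → ℕ → Fin 2 → ℝ) (vel : ℕ → ℕ → Fin d → ℝ)
    (pos : ℕ → ℕ → ℕ → Fin d → ℝ) : Prop where
  x0 : 0 < x
  M1 : 1 ≤ M
  C1 : 1 ≤ C
  bd : ∀ᶠ n in (U : Filter ℕ), ∀ k l, (l, k) ∈ (G n).I →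
    (∀ i, |ty n l i| ≤ M) ∧ (∀ i, |vel n l i| ≤ M) ∧ |φ n k| ≤ M
  vt : ∀ᶠ n in (U : Filter ℕ), ∀ k l k' l', (l, k) ∈ (G n).I → (l', k') ∈ (G n).I → ∀ s : ℝ,
    (∀ i, |ty n l i - ty n l' i| ≤ s) → ∀ i, |vel n l i - vel n l' i| ≤ C * s
  evo : ∀ ε : ℝ, 0 < ε → ∀ᶠ n in (U : Filter ℕ), ∀ l k k', (l, k) ∈ (G n).I →
    (l, k') ∈ (G n).I → ∀ i,
    |pos n k' l i - pos n k l i - (φ n k' - φ n k) * vel n l i| ≤ B.d n ^ (x - C * ε)
  rcl : ∀ ε : ℝ, 0 < ε → ∀ᶠ n in (U : Filter ℕ), ∀ k l l', (l, k) ∈ (G n).I →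
    (l', k) ∈ (G n).I → (G n).loose r ε k l l' → ∀ i,
    |pos n k l' i - pos n k l i| ≤ B.d n ^ (x - C * ε)
  qcl : ∀ ε : ℝ, 0 < ε → ∀ᶠ n in (U : Filter ℕ), ∀ k l l', (l, k) ∈ (G n).I →
    (l', k) ∈ (G n).I → (G n).loose Qc ε k l l' → ∀ i,
    |ty n l' i - ty n l i| ≤ B.d n ^ (x - C * ε)
  qfl : ∀ ε : ℝ, 0 < ε → ∀ᶠ n in (U : Filter ℕ), ∀ k l l', (l, k) ∈ (G n).I →
    (l', k) ∈ (G n).I → (G n).loose r ε k l l' →
    (∀ i, |ty n l' i - ty n l i| ≤ B.d n ^ (x - ε)) → (G n).loose Qf (C * ε) k l l'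
  ccl : ∀ y : ℝ, 0 ≤ y → y ≤ x → ∀ ε : ℝ, 0 < ε → ∀ᶠ n in (U : Filter ℕ), ∀ k l l',
    (l, k) ∈ (G n).I → (l', k) ∈ (G n).I → |ty n l' 0 - ty n l 0| ≤ B.d n ^ y →
    (G n).loose (pc y) ε k l l'
  all : ∀ ε : ℝ, 0 < ε → ∀ᶠ n in (U : Filter ℕ), ∀ k l l', (l, k) ∈ (G n).I →
    (l', k) ∈ (G n).I → (G n).loose p0 ε k l l'
  zφ : ∀ᶠ n in (U : Filter ℕ), ∀ k ∈ (G n).Z, ∀ k' ∈ (G n).Z,
    |(G n).z k' - (G n).z k| ≤ C * |φ n k' - φ n k|

/-- the numbers -/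
structure LProf (Leg : Set (κ → ℝ)) (ν : (κ → ℝ) → ℝ) (x m : ℝ)
    (p0 r Qc Qf : κ → ℝ) (pc : ℝ → κ → ℝ) : Prop where
  m0 : 0 < m
  l0 : p0 ∈ Leg
  lr : r ∈ Leg
  lQc : Qc ∈ Leg
  lQf : Qf ∈ Leg
  lc : ∀ y, 0 ≤ y → y ≤ x → pc y ∈ Leg
  hprod : ν p0 + ν Qf ≤ ν r + ν Qc
  H5 : ∀ y, 0 ≤ y → y ≤ x → m * y ≤ ν p0 - ν (pc y)

section

variable {B : Base} {G : ℕ → RCfg κ} {Leg : Set (κ → ℝ)} {ν : (κ → ℝ) → ℝ} {D x M C m : ℝ}
  {p0 r Qc Qf : κ → ℝ} {pc : ℝ → κ → ℝ} {d : ℕ} {φ : ℕ → ℕ → ℝ} {ty : ℕ → ℕ → Fin 2 → ℝ}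
  {vel : ℕ → ℕ → Fin d → ℝ} {pos : ℕ → ℕ → ℕ → Fin d → ℝ}

/-- overlap of `Qc`-boxes -/
theorem ov_le (B : Base) {x C e : ℝ} (hC : 1 ≤ C) (he : 0 < e) : ∀ᶠ n in (U : Filter ℕ),
    (2 * B.d n ^ (x - C * e) / B.d n ^ x + 2) ^ 2 ≤ B.d n ^ (-(2 * (C + 1) * e)) := by
  filter_upwards [ev_const_le B he 4] with n hn
  have h1 : B.d n ^ (x - C * e) / B.d n ^ x = B.d n ^ (-(C * e)) := by
    rw [div_eq_iff (rpos B n x).ne', ← rpow_add']; congr 1; ring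
  have h2 : 1 ≤ B.d n ^ (-(C * e)) := by
    have := rpow_anti B n (s := -(C * e)) (t := 0) (by nlinarith)
    rwa [Real.rpow_zero] at this
  have h3 : 2 * B.d n ^ (x - C * e) / B.d n ^ x + 2 ≤ B.d n ^ (-((C + 1) * e)) := by
    rw [mul_div_assoc, h1]
    calc 2 * B.d n ^ (-(C * e)) + 2 ≤ 4 * B.d n ^ (-(C * e)) := by linarith
      _ ≤ B.d n ^ (-e) * B.d n ^ (-(C * e)) := mul_le_mul_of_nonneg_right hn (rpos B n _).le
      _ = _ := by rw [← rpow_add']; congr 1; ring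
  have h4 : 0 ≤ 2 * B.d n ^ (x - C * e) / B.d n ^ x + 2 := by
    have := rpos B n (x - C * e); have := rpos B n x; positivity
  calc (2 * B.d n ^ (x - C * e) / B.d n ^ x + 2) ^ 2 ≤ (B.d n ^ (-((C + 1) * e))) ^ 2 :=
        pow_le_pow_left₀ h4 h3 2
    _ = _ := by rw [pow_two, ← rpow_add']; congr 1; ring

/-- lines and slices -/
theorem cnt_lines (H : RModel B G 1 x Leg ν D)
    (Q : LRow d B G x M C p0 r Qc Qf pc φ ty vel pos) (P : LProf Leg ν x m p0 r Qc Qf pc)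
    {e : ℝ} (he : 0 < e) : ∀ᶠ n in (U : Filter ℕ), ∀ k ∈ (G n).Z,
      ((G n).slice k).Nonempty ∧ (((G n).slice k).card : ℝ) ≤ B.d n ^ (-ν p0 - D * e) ∧
      ((G n).L.card : ℝ) ≤ B.d n ^ (-ν p0 - (D + 1) * e) := by
  filter_upwards [H.slice e he, Q.all e he, H.up p0 P.l0 e he] with n h1 h2 h3 k hk
  have hLne : (G n).L.Nonempty := by
    obtain ⟨⟨i, k'⟩, hik⟩ := H.nonempty n
    exact ⟨i, H.memL hik⟩
  have h4 := h1 k hk
  have hpos : (0:ℝ) < B.d n ^ e * (G n).L.card :=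
    mul_pos (rpos B n e) (by exact_mod_cast hLne.card_pos)
  have h5 : ((G n).slice k).Nonempty := by
    rw [← card_pos]
    exact_mod_cast hpos.trans_le h4
  obtain ⟨l0, hl0⟩ := h5
  have h6 : (((G n).slice k).card : ℝ) ≤ B.d n ^ (-ν p0 - D * e) := by
    refine le_trans (Nat.cast_le.2 (card_le_card ?_)) (h3 l0 k (H.memSlice.1 hl0))
    intro l hl
    exact RCfg.mem_box.2 ⟨hl, h2 k l0 l (H.memSlice.1 hl0) (H.memSlice.1 hl)⟩
  refine ⟨⟨l0, hl0⟩, h6, ?_⟩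
  have h7 := h4.trans h6
  have e1 : B.d n ^ (-e) * B.d n ^ e = 1 := by
    rw [← rpow_add', neg_add_cancel, Real.rpow_zero]
  calc ((G n).L.card : ℝ) = B.d n ^ (-e) * (B.d n ^ e * (G n).L.card) := by
        rw [← mul_assoc, e1, one_mul]
    _ ≤ B.d n ^ (-e) * B.d n ^ (-ν p0 - D * e) := mul_le_mul_of_nonneg_left h7 (rpos B n _).le
    _ = _ := by rw [← rpow_add']; congr 1; ring

theorem alive (H : RModel B G 1 x Leg ν D) : ∀ᶠ n in (U : Filter ℕ), ∀ l ∈ (G n).L,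
    ∃ k, (l, k) ∈ (G n).I := by
  filter_upwards [H.line 1 one_pos] with n h1 l hl
  have hZne : (G n).Z.Nonempty := by
    obtain ⟨⟨i, k'⟩, hik⟩ := H.nonempty n
    exact ⟨k', H.memZ hik⟩
  have h2 := h1 l hl
  have hpos : (0:ℝ) < B.d n ^ (1:ℝ) * (G n).Z.card :=
    mul_pos (rpos B n 1) (by exact_mod_cast hZne.card_pos)
  have h5 : ((G n).hts l).Nonempty := by
    rw [← card_pos]
    exact_mod_cast hpos.trans_le h2
  obtain ⟨k, hk⟩ := h5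
  exact ⟨k, H.memHts.1 hk⟩

/-- **types in a set of lines**: controlled by any set which contains the `Qc`-boxes -/
theorem cnt_types (H : RModel B G 1 x Leg ν D)
    (Q : LRow d B G x M C p0 r Qc Qf pc φ ty vel pos) (P : LProf Leg ν x m p0 r Qc Qf pc)
    {e : ℝ} (he : 0 < e) : ∀ᶠ n in (U : Filter ℕ), ∀ S : Finset ℕ, ∀ K : ℕ → ℕ,
      (∀ l ∈ S, (l, K l) ∈ (G n).I) → ∀ W : Finset ℕ,
      (∀ l ∈ S, ∀ l', (l', K l) ∈ (G n).I → (∀ i, |ty n l' i - ty n l i| ≤ B.d n ^ (x - C * e)) →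
        l' ∈ W) →
      (∀ l ∈ S, ∀ l' ∈ S, tyl (B.d n ^ x) (ty n) l = tyl (B.d n ^ x) (ty n) l' → l = l') →
      (S.card : ℝ) ≤ B.d n ^ (ν Qc - (2 * C + 3) * e) * (W.card : ℝ) := by
  filter_upwards [ov_le B (x := x) Q.C1 he, Q.qcl e he, H.low Qc P.lQc e he] with n h1 h2 h3 S K hK
    W hW hinj
  have h4 := overlap_count (rpos B n x) (rpos B n (x - C * e)).le (ty := ty n) S W hinj
    (fun l => (G n).box Qc e l (K l)) (fun l hl l' hl' => ?_) (fun l hl l' hl' => ?_)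
    (fun l hl => h3 l (K l) (hK l hl))
  · have h5 := h4.trans (mul_le_mul_of_nonneg_right h1 (Nat.cast_nonneg _))
    have e1 : B.d n ^ (ν Qc - e) * B.d n ^ (-ν Qc + e) = 1 := by
      rw [← rpow_add']
      have : ν Qc - e + (-ν Qc + e) = 0 := by ring
      rw [this, Real.rpow_zero]
    calc (S.card : ℝ) = B.d n ^ (ν Qc - e) * ((S.card : ℝ) * B.d n ^ (-ν Qc + e)) := by
          rw [mul_left_comm, e1, mul_one]
      _ ≤ B.d n ^ (ν Qc - e) * (B.d n ^ (-(2 * (C + 1) * e)) * (W.card : ℝ)) :=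
          mul_le_mul_of_nonneg_left h5 (rpos B n _).le
      _ = _ := by rw [← mul_assoc, ← rpow_add']; congr 2; ring
  · obtain ⟨a1, a2⟩ := RCfg.mem_box.1 hl'
    exact hW l hl l' (H.memSlice.1 a1) (h2 _ _ _ (hK l hl) (H.memSlice.1 a1) a2)
  · obtain ⟨a1, a2⟩ := RCfg.mem_box.1 hl'
    exact h2 _ _ _ (hK l hl) (H.memSlice.1 a1) a2

/-- number of all types -/
theorem cnt_all (H : RModel B G 1 x Leg ν D)
    (Q : LRow d B G x M C p0 r Qc Qf pc φ ty vel pos) (P : LProf Leg ν x m p0 r Qc Qf pc)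
    {e : ℝ} (he : 0 < e) : ∀ᶠ n in (U : Filter ℕ),
      (((G n).L.image (tyl (B.d n ^ x) (ty n))).card : ℝ) ≤
        B.d n ^ (ν Qc - ν p0 - (2 * C + D + 4) * e) := by
  filter_upwards [cnt_types H Q P he, cnt_lines H Q P he, alive H] with n h1 h2 h3
  classical
  obtain ⟨S, hS, hinj, hcard⟩ := reps (G n).L (tyl (B.d n ^ x) (ty n))
  choose! K hK using h3
  have hZne : (G n).Z.Nonempty := by
    obtain ⟨⟨i, k'⟩, hik⟩ := H.nonempty n
    exact ⟨k', H.memZ hik⟩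
  obtain ⟨k0, hk0⟩ := hZne
  rw [← hcard]
  have h4 := h1 S K (fun l hl => hK l (hS hl)) (G n).L (fun l hl l' hl' _ => H.memL hl') hinj
  calc (S.card : ℝ) ≤ B.d n ^ (ν Qc - (2 * C + 3) * e) * ((G n).L.card : ℝ) := h4
    _ ≤ B.d n ^ (ν Qc - (2 * C + 3) * e) * B.d n ^ (-ν p0 - (D + 1) * e) :=
        mul_le_mul_of_nonneg_left (h2 k0 hk0).2.2 (rpos B n _).le
    _ = _ := by rw [← rpow_add']; congr 1; ring

/-- lines with given first velocity -/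
theorem cnt_c (H : RModel B G 1 x Leg ν D)
    (Q : LRow d B G x M C p0 r Qc Qf pc φ ty vel pos) (P : LProf Leg ν x m p0 r Qc Qf pc)
    {e y : ℝ} (he : 0 < e) (hy : 0 ≤ y) (hyx : y ≤ x) : ∀ᶠ n in (U : Filter ℕ), ∀ c0 : ℝ,
      ∀ L' ⊆ (G n).L, (∀ l ∈ L', |ty n l 0 - c0| ≤ B.d n ^ y / 2) →
      (L'.card : ℝ) ≤ B.d n ^ (-ν p0 + m * y - (D + 1) * e) := by
  filter_upwards [H.line e he, Q.ccl y hy hyx e he, H.up (pc y) (P.lc y hy hyx) e he] with n h1 h2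
    h3 c0 L' hL' hc
  classical
  have hZne : (G n).Z.Nonempty := by
    obtain ⟨⟨i, k'⟩, hik⟩ := H.nonempty n
    exact ⟨k', H.memZ hik⟩
  -- average over the heights
  have hsum : ∑ l ∈ L', ((G n).hts l).card = ∑ k ∈ (G n).Z, (L'.filter fun l => (l, k) ∈ (G n).I).card := by
    have e1 : ∀ l ∈ L', ((G n).hts l).card = ∑ k ∈ (G n).Z, if (l, k) ∈ (G n).I then 1 else 0 := by
      intro l _
      rw [← sum_filter, sum_const, smul_eq_mul, mul_one]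
      rfl
    rw [sum_congr rfl e1, sum_comm]
    refine sum_congr rfl fun k _ => ?_
    rw [← sum_filter, sum_const, smul_eq_mul, mul_one]
  have hk : ∀ k ∈ (G n).Z, ((L'.filter fun l => (l, k) ∈ (G n).I).card : ℝ) ≤
      B.d n ^ (-ν (pc y) - D * e) := by
    intro k _
    rcases (L'.filter fun l => (l, k) ∈ (G n).I).eq_empty_or_nonempty with h0 | ⟨l0, hl0⟩
    · rw [h0, card_empty, Nat.cast_zero]; exact (rpos B n _).le
    · obtain ⟨a1, a2⟩ := mem_filter.1 hl0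
      refine le_trans (Nat.cast_le.2 (card_le_card ?_)) (h3 l0 k a2)
      intro l hl
      obtain ⟨b1, b2⟩ := mem_filter.1 hl
      refine RCfg.mem_box.2 ⟨H.memSlice.2 b2, h2 k l0 l a2 b2 ?_⟩
      have c1 := abs_le.1 (hc l0 a1)
      have c2 := abs_le.1 (hc l b1)
      rw [abs_le]
      constructor <;> linarith [c1.1, c1.2, c2.1, c2.2]
  have h4 : (L'.card : ℝ) * (B.d n ^ e * (G n).Z.card) ≤
      (G n).Z.card * B.d n ^ (-ν (pc y) - D * e) := by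
    calc (L'.card : ℝ) * (B.d n ^ e * (G n).Z.card) = ∑ _l ∈ L', B.d n ^ e * (G n).Z.card := by
          rw [sum_const, nsmul_eq_mul]
      _ ≤ ∑ l ∈ L', (((G n).hts l).card : ℝ) := sum_le_sum fun l hl => h1 l (hL' hl)
      _ = ∑ k ∈ (G n).Z, ((L'.filter fun l => (l, k) ∈ (G n).I).card : ℝ) := by
          exact_mod_cast hsum
      _ ≤ ∑ _k ∈ (G n).Z, B.d n ^ (-ν (pc y) - D * e) := sum_le_sum hk
      _ = _ := by rw [sum_const, nsmul_eq_mul]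
  have hZ0 : (0:ℝ) < (G n).Z.card := by exact_mod_cast hZne.card_pos
  have h5 : (L'.card : ℝ) * B.d n ^ e ≤ B.d n ^ (-ν (pc y) - D * e) := by
    have : ((L'.card : ℝ) * B.d n ^ e) * (G n).Z.card ≤
        B.d n ^ (-ν (pc y) - D * e) * (G n).Z.card := by linarith [h4]
    exact le_of_mul_le_mul_right this hZ0
  have e1 : B.d n ^ (-e) * B.d n ^ e = 1 := by
    rw [← rpow_add', neg_add_cancel, Real.rpow_zero]
  calc (L'.card : ℝ) = B.d n ^ (-e) * ((L'.card : ℝ) * B.d n ^ e) := by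
        rw [mul_left_comm, e1, mul_one]
    _ ≤ B.d n ^ (-e) * B.d n ^ (-ν (pc y) - D * e) := mul_le_mul_of_nonneg_left h5 (rpos B n _).le
    _ = B.d n ^ (-ν (pc y) - (D + 1) * e) := by rw [← rpow_add']; congr 1; ring
    _ ≤ _ := rpow_anti B n (by linarith [P.H5 y hy hyx])

/-- types with given first velocity -/
theorem cnt_ctypes (H : RModel B G 1 x Leg ν D)
    (Q : LRow d B G x M C p0 r Qc Qf pc φ ty vel pos) (P : LProf Leg ν x m p0 r Qc Qf pc)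
    {e y : ℝ} (he : 0 < e) (hy : 0 ≤ y) (hyx : y + 2 * e ≤ x - C * e) :
    ∀ᶠ n in (U : Filter ℕ), ∀ c0 : ℝ,
      ∀ S : Finset ℕ, (∀ l ∈ S, l ∈ (G n).L) → (∀ l ∈ S, |ty n l 0 - c0| ≤ B.d n ^ (y + 2 * e)) →
      (((S.image (tyl (B.d n ^ x) (ty n))).card : ℕ) : ℝ) ≤
        B.d n ^ (ν Qc - ν p0 + m * y - (2 * C + D + 4) * e) := by
  filter_upwards [cnt_types H Q P he, cnt_c H Q P he hy (by nlinarith [Q.C1]), alive H,
    ev_const_le B he 4] with n h1 h2 h3 h4 c0 S hSL hSc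
  classical
  obtain ⟨S', hS', hinj, hcard⟩ := reps S (tyl (B.d n ^ x) (ty n))
  choose! K hK using h3
  rw [← hcard]
  set L' := (G n).L.filter fun l => |ty n l 0 - c0| ≤ B.d n ^ y / 2 with hL'
  have e2 : B.d n ^ (y + 2 * e) + B.d n ^ (x - C * e) ≤ B.d n ^ y / 2 := by
    have a1 : B.d n ^ (x - C * e) ≤ B.d n ^ (y + 2 * e) := rpow_anti B n hyx
    have a2 : B.d n ^ (y + 2 * e) ≤ B.d n ^ (y + e) := rpow_anti B n (by linarith)
    have a3 : 4 * B.d n ^ (y + e) ≤ B.d n ^ y := by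
      calc 4 * B.d n ^ (y + e) ≤ B.d n ^ (-e) * B.d n ^ (y + e) :=
            mul_le_mul_of_nonneg_right h4 (rpos B n _).le
        _ = _ := by rw [← rpow_add']; congr 1; ring
    linarith
  have h5 := h1 S' K (fun l hl => hK l (hSL l (hS' hl))) L' (fun l hl l' hl' hd => by
    refine mem_filter.2 ⟨H.memL hl', ?_⟩
    have b1 := hSc l (hS' hl)
    have b2 := hd 0
    have e3 : ty n l' 0 - c0 = (ty n l' 0 - ty n l 0) + (ty n l 0 - c0) := by ring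
    rw [e3]
    refine (abs_add_le _ _).trans ?_
    linarith) hinj
  have h6 := h2 c0 L' (filter_subset _ _) (fun l hl => (mem_filter.1 hl).2)
  calc (S'.card : ℝ) ≤ B.d n ^ (ν Qc - (2 * C + 3) * e) * (L'.card : ℝ) := h5
    _ ≤ B.d n ^ (ν Qc - (2 * C + 3) * e) * B.d n ^ (-ν p0 + m * y - (D + 1) * e) :=
        mul_le_mul_of_nonneg_left h6 (rpos B n _).le
    _ = _ := by rw [← rpow_add']; congr 1; ring

/-- **types through a point** -/
theorem cnt_pt (H : RModel B G 1 x Leg ν D)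
    (Q : LRow d B G x M C p0 r Qc Qf pc φ ty vel pos) (P : LProf Leg ν x m p0 r Qc Qf pc)
    {e : ℝ} (he : 0 < e) : ∀ᶠ n in (U : Filter ℕ), ∀ l k, (l, k) ∈ (G n).I →
      B.d n ^ (ν Qf - ν r + (C * D ^ 3 + 1) * e) ≤
        (((((G n).box r e l k).image (tyl (B.d n ^ x) (ty n))).card : ℕ) : ℝ) := by
  have hD := H.D1
  have hD0 : 0 < D := by linarith
  have hC := Q.C1
  have hDD : 0 < D ^ 2 * e := by positivity
  filter_upwards [H.symm r P.lr e he, H.tri r P.lr (D * e) (by positivity), H.low r P.lr e he,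
    Q.qfl (D ^ 2 * e) hDD, H.up Qf P.lQf (C * (D ^ 2 * e)) (by positivity)] with n h1 h2 h3 h4 h5
    l k hlk
  classical
  have h6 := card_le_img ((G n).box r e l k) (tyl (B.d n ^ x) (ty n)) (le_refl _)
    (rpos B n (-ν Qf - D * (C * (D ^ 2 * e)))).le fun v hv => by
      obtain ⟨l0, hl0, hv0⟩ := mem_image.1 hv
      obtain ⟨a1, a2⟩ := RCfg.mem_box.1 hl0
      have a3 := H.memSlice.1 a1
      refine le_trans (Nat.cast_le.2 (card_le_card ?_)) (h5 l0 k a3)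
      intro l1 hl1
      obtain ⟨b1, b2⟩ := mem_filter.1 hl1
      obtain ⟨c1, c2⟩ := RCfg.mem_box.1 b1
      have c3 := H.memSlice.1 c1
      refine RCfg.mem_box.2 ⟨c1, h4 k l0 l1 a3 c3 ?_ fun i => ?_⟩
      · have d1 := h1 k l l0 hlk a3 a2
        have d2 : (G n).loose r (D * e) k l l1 := H.loose_mono (fun _ => le_rfl) (by nlinarith) c2
        have d3 := h2 k l0 l l1 a3 hlk c3 d1 d2
        have e1 : D * (D * e) = D ^ 2 * e := by ring
        rwa [e1] at d3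
      · have d4 := tyl_close (rpos B n x) (b2.trans hv0.symm) i
        exact d4.trans (rpow_anti B n (by linarith))
  have h7 := (h3 l k hlk).trans h6
  have e1 : B.d n ^ (-ν Qf - D * (C * (D ^ 2 * e))) * B.d n ^ (ν Qf + C * D ^ 3 * e) = 1 := by
    rw [← rpow_add']
    have : -ν Qf - D * (C * (D ^ 2 * e)) + (ν Qf + C * D ^ 3 * e) = 0 := by ring
    rw [this, Real.rpow_zero]
  calc B.d n ^ (ν Qf - ν r + (C * D ^ 3 + 1) * e) =
      B.d n ^ (-ν r + e) * B.d n ^ (ν Qf + C * D ^ 3 * e) := by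
        rw [← rpow_add']; congr 1; ring
    _ ≤ ((((G n).box r e l k).image (tyl (B.d n ^ x) (ty n))).card : ℝ) *
        B.d n ^ (-ν Qf - D * (C * (D ^ 2 * e))) * B.d n ^ (ν Qf + C * D ^ 3 * e) :=
        mul_le_mul_of_nonneg_right h7 (rpos B n _).le
    _ = _ := by rw [mul_assoc, e1, mul_one]

end

end Crest.Agent.R136.Lin560
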