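import Crest.Agent.R136.Lin4_560

/-!
# R136, thin branch, `lin` (helper560), part 5: rigidity of velocities over an `RModel`

`lin_model2`, `lin_model3` : if a level carries fewer than `ρ^(-d (x - t))` points, the velocities of a
`ρ^δ`-part of all lines lie in one hyperplane, up to `ρ^(t - δ)`.
-/

set_option autoImplicit false
set_option linter.unusedSectionVars false
set_option linter.unusedVariables false

open Filter Topology

namespace Crest.Agent.R136.Lin560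

open Finset
open Crest.Agent.R138.Ex926 (Base U)
open Crest.Agent.R136.Gf356
open Crest.Agent.R136.Qd329 (int_img floor_close card_le_img voronoi net_facts)

section

variable {κ : Type} {B : Base} {G : ℕ → RCfg κ} {Leg : Set (κ → ℝ)} {ν : (κ → ℝ) → ℝ}
  {D x M C m : ℝ} {p0 r Qc Qf : κ → ℝ} {pc : ℝ → κ → ℝ} {d : ℕ} {φ : ℕ → ℕ → ℝ}
  {ty : ℕ → ℕ → Fin 2 → ℝ} {vel : ℕ → ℕ → Fin d → ℝ} {pos : ℕ → ℕ → ℕ → Fin d → ℝ}

/-- all facts for one `n` -/
structure SetN (d : ℕ) (B : Base) (G : ℕ → RCfg κ) (ν : (κ → ℝ) → ℝ) (D x M C m : ℝ)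
    (p0 r Qc Qf : κ → ℝ) (φ : ℕ → ℕ → ℝ) (ty : ℕ → ℕ → Fin 2 → ℝ) (vel : ℕ → ℕ → Fin d → ℝ)
    (pos : ℕ → ℕ → ℕ → Fin d → ℝ) (e y t : ℝ) (n : ℕ) (cell : ℕ → ℕ → ℕ) : Prop where
  flow : Flow d (G n).hts (G n).Z (φ n) (vel n) (pos n) (fun k y l => (G n).loose r e k y l)
    (tyl (B.d n ^ x) (ty n)) cell (B.d n ^ (x - (C * D ^ 5 + 1) * e)) M
  st : ∀ k y l, l ∈ (G n).box r e y k → (G n).loose r e k y l ∧ k ∈ (G n).hts l
  NT : (((G n).L.image (tyl (B.d n ^ x) (ty n))).card : ℝ) ≤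
    B.d n ^ (ν Qc - ν p0 - (2 * C + D + 4) * e)
  hT : ∀ y, ((G n).hts y).Nonempty →
    tyl (B.d n ^ x) (ty n) y ∈ (G n).L.image (tyl (B.d n ^ x) (ty n))
  NC : ∀ k ∈ (G n).Z, ∀ S : Finset ℕ, (∀ y ∈ S, k ∈ (G n).hts y) →
    (((S.image (cell k)).card : ℕ) : ℝ) ≤ B.d n ^ (ν r - ν p0 - (D + 1) * e)
  hS : ∀ y, ∀ k ∈ (G n).hts y, B.d n ^ (ν Qf - ν r + (C * D ^ 3 + 1) * e) ≤
    (((((G n).box r e y k).image (tyl (B.d n ^ x) (ty n))).card : ℕ) : ℝ)
  hc : ∀ c0 : ℝ, ∀ S : Finset ℕ, (∀ l ∈ S, l ∈ (G n).L) →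
    (∀ l ∈ S, |ty n l 0 - c0| ≤ B.d n ^ (y + 2 * e)) →
    (((S.image (tyl (B.d n ^ x) (ty n))).card : ℕ) : ℝ) ≤
      B.d n ^ (ν Qf - ν r + (C * D ^ 3 + 1) * e) / 4
  hH : ∀ y, ((G n).hts y).Nonempty → B.d n ^ e * (G n).Z.card ≤ (((G n).hts y).card : ℝ)
  hN : ∀ k ∈ (G n).Z, ∀ R : ℝ, C * R ≤ B.d n ^ (x - t - (C * D ^ 5 + 2) * e) →
    (((G n).Z.filter fun k' => |φ n k' - φ n k| ≤ R).card : ℝ) ≤
      B.d n ^ (x - t - (C * D ^ 5 + 3) * e) * (G n).Z.card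
  ty1 : ∀ S : Finset ℕ, ∀ K : ℕ → ℕ, (∀ l ∈ S, (l, K l) ∈ (G n).I) → ∀ W : Finset ℕ,
      (∀ l ∈ S, ∀ l', (l', K l) ∈ (G n).I → (∀ i, |ty n l' i - ty n l i| ≤ B.d n ^ (x - C * e)) →
        l' ∈ W) →
      (∀ l ∈ S, ∀ l' ∈ S, tyl (B.d n ^ x) (ty n) l = tyl (B.d n ^ x) (ty n) l' → l = l') →
      (S.card : ℝ) ≤ B.d n ^ (ν Qc - (2 * C + 3) * e) * (W.card : ℝ)
  Lc : ((G n).L.card : ℝ) ≤ B.d n ^ (-ν p0 - (D + 1) * e)
  bd : ∀ k l, (l, k) ∈ (G n).I → (∀ i, |ty n l i| ≤ M)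
  c24 : (24 : ℝ) ≤ B.d n ^ (-e)
  cM : 600 * M ^ 3 * C ≤ B.d n ^ (-e)
  Zc : (0 : ℝ) < (G n).Z.card

theorem setup (H : RModel B G 1 x Leg ν D)
    (Q : LRow d B G x M C p0 r Qc Qf pc φ ty vel pos) (P : LProf Leg ν x m p0 r Qc Qf pc)
    {e y t : ℝ} (he : 0 < e) (hy : 0 ≤ y) (hyx : y + 2 * e ≤ x - C * e) (ht : 0 ≤ t)
    (hte : (C * D ^ 5 + 2) * e ≤ x - t) (hmy : (2 * C + D + C * D ^ 3 + 6) * e ≤ m * y) :
    ∀ᶠ n in (U : Filter ℕ), ∃ cell, SetN d B G ν D x M C m p0 r Qc Qf φ ty vel pos e y t n cell := by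
  have hD := H.D1
  have hD0 : 0 < D := by linarith
  have hC := Q.C1
  have hC0 : 0 < C := by linarith
  have hM := Q.M1
  have hD3 : 1 ≤ D ^ 3 := one_le_pow₀ hD
  have hD5 : 1 ≤ D ^ 5 := one_le_pow₀ hD
  have hCD5 : C ≤ C * D ^ 5 := le_mul_of_one_le_right hC0.le hD5
  have hx1 : 0 ≤ x - t - (C * D ^ 5 + 2) * e := by linarith
  filter_upwards [Q.bd, Q.vt, Q.evo e he, Q.rcl e he, Q.rcl (D ^ 5 * e) (by positivity),
    net_facts H.toRUnif p0 r P.l0 P.lr Q.all he, cnt_lines H Q P he, cnt_all H Q P he, cnt_pt H Q P he,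
    cnt_ctypes H Q P he hy hyx, cnt_types H Q P he, H.line e he,
    H.frost (x - t - (C * D ^ 5 + 2) * e) hx1 (by
      have : 0 ≤ (C * D ^ 5 + 2) * e := by positivity
      linarith) e he, Q.zφ, ev_const_le B he 24, ev_const_le B he (600 * M ^ 3 * C),
    ev_const_le B he C] with n h1 h2 h3 h4 h5 h6
    h7 h8 h9 h10 h11 h12 h13 h14 h15 h16 h17
  classical
  have hZne : (G n).Z.Nonempty := by
    obtain ⟨⟨i, k'⟩, hik⟩ := H.nonempty n
    exact ⟨k', H.memZ hik⟩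
  have hcell : ∀ k, ∃ lab : ℕ → ℕ, ((G n).slice k).Nonempty →
      (∀ t ∈ (G n).slice k, ∀ t' ∈ (G n).slice k, lab t = lab t' →
        (G n).loose r (D ^ 5 * e) k t t') ∧
      ((((G n).slice k).image lab).card : ℝ) ≤ B.d n ^ (ν r - e) * ((G n).slice k).card := by
    intro k
    by_cases hne : ((G n).slice k).Nonempty
    · obtain ⟨lab, -, a2, -, a4, -⟩ := h6 k hne
      exact ⟨lab, fun _ => ⟨a2, a4⟩⟩
    · exact ⟨fun _ => 0, fun h => absurd h hne⟩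
  choose cell hcell using hcell
  have memI : ∀ {l k : ℕ}, k ∈ (G n).hts l ↔ (l, k) ∈ (G n).I := fun {l k} => H.memHts
  have hLne : ∀ {l : ℕ}, ((G n).hts l).Nonempty → l ∈ (G n).L := fun {l} hl => by
    obtain ⟨k, hk⟩ := hl
    exact H.memL (memI.1 hk)
  have pw : ∀ {s t : ℝ}, t ≤ s → B.d n ^ s ≤ B.d n ^ t := fun h => rpow_anti B n h
  refine ⟨cell, ?_⟩
  refine
    { flow := ?_
      st := ?_
      NT := h8
      hT := fun y hy' => mem_image_of_mem _ (hLne hy')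
      NC := ?_
      hS := fun y k hk => h9 y k (memI.1 hk)
      hc := ?_
      hH := fun y hy' => h12 y (hLne hy')
      hN := ?_
      ty1 := h11
      Lc := ?_
      bd := fun k l hl => (h1 k l hl).1
      c24 := h15
      cM := h16
      Zc := by exact_mod_cast hZne.card_pos }
  · refine
      { hZ := fun y => filter_subset _ _
        η0 := rpos B n _
        M1 := hM
        evo := ?_
        nr := ?_
        cl := ?_
        lb := ?_
        vM := ?_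
        φM := ?_ }
    · intro l k hk k' hk' i
      exact (h3 l k k' (memI.1 hk) (memI.1 hk') i).trans (pw (by nlinarith))
    · intro k l l' hn hk hk' i
      exact (h4 k l l' (memI.1 hk) (memI.1 hk') hn i).trans (pw (by nlinarith))
    · intro k l l' hk hk' hce i
      have a1 := H.memSlice.2 (memI.1 hk)
      have a2 := H.memSlice.2 (memI.1 hk')
      have a3 := (hcell k ⟨l, a1⟩).1 l a1 l' a2 hce
      refine (h5 k l l' (memI.1 hk) (memI.1 hk') a3 i).trans (pw ?_)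
      have : C * (D ^ 5 * e) = C * D ^ 5 * e := by ring
      nlinarith
    · intro l l' ⟨k, hk⟩ ⟨k', hk'⟩ hlab i
      have a1 := h2 k l k' l' (memI.1 hk) (memI.1 hk') (B.d n ^ x)
        (fun j => tyl_close (rpos B n x) hlab j) i
      refine a1.trans ?_
      calc C * B.d n ^ x ≤ B.d n ^ (-e) * B.d n ^ x :=
            mul_le_mul_of_nonneg_right h17 (rpos B n x).le
        _ = B.d n ^ (x - e) := by rw [← rpow_add']; congr 1; ring
        _ ≤ _ := pw (by nlinarith)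
    · intro l ⟨k, hk⟩ i
      exact (h1 k l (memI.1 hk)).2.1 i
    · intro k hk
      obtain ⟨⟨l, hl⟩, -, -⟩ := h7 k hk
      exact (h1 k l (H.memSlice.1 hl)).2.2
  · intro k y' l hl
    obtain ⟨a1, a2⟩ := RCfg.mem_box.1 hl
    exact ⟨a2, memI.2 (H.memSlice.1 a1)⟩
  · intro k hk S hS
    obtain ⟨hne, h7b, -⟩ := h7 k hk
    have a1 : S.image (cell k) ⊆ ((G n).slice k).image (cell k) :=
      image_subset_image fun l hl => H.memSlice.2 (memI.1 (hS l hl))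
    calc (((S.image (cell k)).card : ℕ) : ℝ) ≤ ((((G n).slice k).image (cell k)).card : ℝ) :=
          Nat.cast_le.2 (card_le_card a1)
      _ ≤ B.d n ^ (ν r - e) * ((G n).slice k).card := (hcell k hne).2
      _ ≤ B.d n ^ (ν r - e) * B.d n ^ (-ν p0 - D * e) :=
          mul_le_mul_of_nonneg_left h7b (rpos B n _).le
      _ = _ := by rw [← rpow_add']; congr 1; ring
  · intro c0 S hSL hSc
    refine (h10 c0 S hSL hSc).trans ?_
    rw [le_div_iff₀ (by norm_num)]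
    calc B.d n ^ (ν Qc - ν p0 + m * y - (2 * C + D + 4) * e) * 4 ≤
        B.d n ^ (ν Qc - ν p0 + m * y - (2 * C + D + 4) * e) * B.d n ^ (-e) :=
          mul_le_mul_of_nonneg_left (by linarith) (rpos B n _).le
      _ = B.d n ^ (ν Qc - ν p0 + m * y - (2 * C + D + 5) * e) := by
          rw [← rpow_add']; congr 1; ring
      _ ≤ _ := pw (by nlinarith [P.hprod])
  · intro k hk R hR
    have a1 : ((G n).Z.filter fun k' => |φ n k' - φ n k| ≤ R) ⊆
        (G n).hbox (x - t - (C * D ^ 5 + 2) * e) k := by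
      intro k' hk'
      obtain ⟨b1, b2⟩ := mem_filter.1 hk'
      unfold RCfg.hbox
      refine mem_filter.2 ⟨b1, ?_⟩
      rw [H.base n]
      refine (h14 k hk k' b1).trans (le_trans ?_ hR)
      exact mul_le_mul_of_nonneg_left b2 hC0.le
    refine (Nat.cast_le.2 (card_le_card a1)).trans ((h13 k hk).trans ?_)
    refine mul_le_mul_of_nonneg_right (le_of_eq ?_) (Nat.cast_nonneg _)
    congr 1; ring
  · obtain ⟨k, hk⟩ := hZne
    exact (h7 k hk).2.2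

/-- part with the relation -/
theorem rel_part {e y t δ : ℝ} {n : ℕ} {cell : ℕ → ℕ → ℕ} (he : 0 < e)
    (S : SetN d B G ν D x M C m p0 r Qc Qf φ ty vel pos e y t n cell)
    (hprod : ν p0 + ν Qf ≤ ν r + ν Qc) (hδ : (D + 2 * C + C * D ^ 3 + 6) * e ≤ δ)
    (S0 : Finset ℕ) (k : ℕ) (hS0 : ∀ l ∈ S0, (l, k) ∈ (G n).I)
    (hcard : B.d n ^ (ν Qf - ν r + (C * D ^ 3 + 1) * e) / 2 ≤
      ((S0.image (tyl (B.d n ^ x) (ty n))).card : ℝ)) (Pr : ℕ → Prop) [DecidablePred Pr]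
    (hPr : ∀ l ∈ S0, ∀ l', (l', k) ∈ (G n).I →
      (∀ i, |ty n l' i - ty n l i| ≤ B.d n ^ (x - C * e)) → Pr l')
    (hL : ∀ l k, (l, k) ∈ (G n).I → l ∈ (G n).L) :
    B.d n ^ δ * ((G n).L.card : ℝ) ≤ (((G n).L.filter Pr).card : ℝ) := by
  obtain ⟨S', hS', hinj, hc⟩ := reps S0 (tyl (B.d n ^ x) (ty n))
  rw [← hc] at hcard
  have h1 := S.ty1 S' (fun _ => k) (fun l hl => hS0 l (hS' hl)) ((G n).L.filter Pr)
    (fun l hl l' hl' hd => mem_filter.2 ⟨hL _ _ hl', hPr l (hS' hl) l' hl' hd⟩) hinj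
  have h2 : (2:ℝ) ≤ B.d n ^ (-e) := by linarith [S.c24]
  have h3 : B.d n ^ (ν Qf - ν r + (C * D ^ 3 + 2) * e) ≤ (S'.card : ℝ) := by
    refine le_trans ?_ hcard
    rw [le_div_iff₀ (by norm_num)]
    calc B.d n ^ (ν Qf - ν r + (C * D ^ 3 + 2) * e) * 2 ≤
        B.d n ^ (ν Qf - ν r + (C * D ^ 3 + 2) * e) * B.d n ^ (-e) :=
          mul_le_mul_of_nonneg_left h2 (rpos B n _).le
      _ = _ := by rw [← rpow_add']; congr 1; ring
  have h4 := h3.trans h1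
  have e1 : B.d n ^ (-(ν Qc - (2 * C + 3) * e)) * B.d n ^ (ν Qc - (2 * C + 3) * e) = 1 := by
    rw [← rpow_add', neg_add_cancel, Real.rpow_zero]
  have h5 := mul_le_mul_of_nonneg_left h4 (rpos B n (-(ν Qc - (2 * C + 3) * e))).le
  rw [← mul_assoc, e1, one_mul, ← rpow_add'] at h5
  refine le_trans ?_ h5
  calc B.d n ^ δ * ((G n).L.card : ℝ) ≤ B.d n ^ δ * B.d n ^ (-ν p0 - (D + 1) * e) :=
        mul_le_mul_of_nonneg_left S.Lc (rpos B n _).le
    _ = B.d n ^ (δ + (-ν p0 - (D + 1) * e)) := by rw [← rpow_add']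
    _ ≤ _ := rpow_anti B n (by nlinarith)

/-- choice of the small parameters -/
theorem params {x t m δ g C D : ℝ} (hm : 0 < m) (hδ : 0 < δ) (hg : 0 < g) (htx : t < x)
    (hC : 1 ≤ C) (hD : 1 ≤ D) (K : ℝ) (hK : 0 < K) : ∃ y e : ℝ, 0 < y ∧ 0 < e ∧
      y + 2 * e ≤ x - t - C * e ∧ K * e ≤ m * y ∧ K * e ≤ g ∧ 8 * y + K * e ≤ δ ∧
      K * e ≤ x - t := by
  have hx : 0 < x - t := by linarith
  obtain ⟨y, hy, hy1, hy2⟩ : ∃ y : ℝ, 0 < y ∧ y ≤ (x - t) / 2 ∧ 8 * y ≤ δ / 2 := by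
    refine ⟨min ((x - t) / 2) (δ / 16), lt_min (by linarith) (by linarith), min_le_left _ _, ?_⟩
    have := min_le_right ((x - t) / 2) (δ / 16)
    linarith
  obtain ⟨e, he, he1⟩ : ∃ e : ℝ, 0 < e ∧
      e ≤ min (min ((x - t) / (2 * (C + 2))) (m * y / K)) (min (g / K) (min (δ / (2 * K))
        ((x - t) / K))) := ⟨_, by positivity, le_rfl⟩
  have a1 := he1.trans ((min_le_left _ _).trans (min_le_left _ _))
  have a2 := he1.trans ((min_le_left _ _).trans (min_le_right _ _))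
  have a3 := he1.trans ((min_le_right _ _).trans (min_le_left _ _))
  have a4 := he1.trans ((min_le_right _ _).trans ((min_le_right _ _).trans (min_le_left _ _)))
  have a5 := he1.trans ((min_le_right _ _).trans ((min_le_right _ _).trans (min_le_right _ _)))
  rw [le_div_iff₀ (by positivity)] at a1 a2 a3 a4 a5
  exact ⟨y, e, hy, he, by nlinarith, by linarith, by linarith, by linarith, by linarith⟩

end

end Crest.Agent.R136.Lin560
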