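import Crest.Agent.R136.LinD_560
import Crest.Agent.R136.Lin7_560

/-!
# R136, thin branch, `lin` (helper560), part 8: algebra of the slots `14, 15, 16` in the window
-/

set_option autoImplicit false
set_option linter.unusedSectionVars false
set_option linter.unusedVariables false

open Filter Topology

namespace Crest.Agent.R136.Lin560

open Finset Crest.Agent.R138.Ex926 Crest.Agent.R136.Net191 Crest.Agent.R136.Gf356
open Crest.Agent.R136.Qg926 Crest.Agent.R136.NetW191 Crest.Agent.R136.EvW938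
open Crest.Agent.R136.QdH887 (bv)

/-! ### the dropped part of a flag -/

theorem prod_const_mul (K : ℝ) (X : Fin 18 → ℝ) (l : List (Fin 18)) :
    (l.map fun s => K * X s).prod = K ^ l.length * (l.map X).prod := by
  induction l with
  | nil => simp
  | cons a l ih =>
    simp only [List.map_cons, List.prod_cons, ih, List.length_cons, pow_succ]
    ring

theorem idx_len : ∀ q, ∀ t ∈ tms q, (Tm.idx t).length ≤ 8 := by decide

theorem sum_abs_le {L : List Tm} {F : Tm → ℝ} {S : ℝ} (hL : ∀ t ∈ L, |F t| ≤ |(t.n : ℝ)| * S) :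
    |(L.map F).sum| ≤ (((L.map fun t => t.n.natAbs).sum : ℕ) : ℝ) * S := by
  induction L with
  | nil => simp
  | cons a L ih =>
    simp only [List.map_cons, List.sum_cons, Nat.cast_add]
    have h1 := ih fun t ht => hL t (List.mem_cons_of_mem _ ht)
    have h2 := hL a List.mem_cons_self
    have h4 : ((a.n.natAbs : ℕ) : ℝ) = |(a.n : ℝ)| := by
      rw [Nat.cast_natAbs, Int.cast_abs]
    rw [h4, add_mul]
    exact (abs_add_le _ _).trans (add_le_add h2 h1)

variable {Dq Uq : Finset (Fin 18)} {W : Wnd 18 fun _ => ℕ × ℝ} {κ : ℕ → ℝ}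
  {u : ℕ → Fin 18 → ℝ} {f : ∀ n : ℕ, ℕ × ℝ → FW} {mm σ x : ℝ}

/-- all walls with a dropped slot at once -/
theorem LnW.gaps (g : LnW Dq Uq W κ u f mm σ x) (R : ℝ) : ∀ᶠ n in (U : Filter ℕ), ∀ k, ∀ l ∈ mlW k,
    (k ∈ Dq ∨ ∃ s ∈ l, s ∈ Dq) → W.X n k + R * W.w n ≤ (l.map (W.X n)).sum := by
  rw [eventually_all]
  intro k
  have := (eventually_all_finite (List.finite_toSet (mlW k)) (l := (U : Filter ℕ))
    (p := fun l n => (k ∈ Dq ∨ ∃ s ∈ l, s ∈ Dq) → W.X n k + R * W.w n ≤ (l.map (W.X n)).sum)).2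
    (fun l hl => by
      by_cases h : k ∈ Dq ∨ ∃ s ∈ l, s ∈ Dq
      · filter_upwards [g.gap k l hl h R] with n hn _ using hn
      · exact Eventually.of_forall fun n h' => absurd h' h)
  exact this

theorem LnW.prod_sd (g : LnW Dq Uq W κ u f mm σ x) (n : ℕ) {k : Fin 18} {l : List (Fin 18)}
    (hl : l ∈ mlW k) : (l.map (sd W u n)).prod = W.B.d n ^ (l.map (W.X n)).sum / u n k := by
  rw [← (g.ww.hl n).mul k l hl]
  clear hl
  induction l with
  | nil => simp
  | cons s l ih =>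
    simp only [List.map_cons, List.prod_cons, List.sum_cons, ih]
    rw [Real.rpow_add (W.B.pos n)]
    unfold sd
    field_simp

theorem LnW.sd0 (g : LnW Dq Uq W κ u f mm σ x) (n : ℕ) (s : Fin 18) : 0 < sd W u n s :=
  g.ww.sd_pos n s

/-- **the dropped part is negligible** -/
theorem LnW.drop (g : LnW Dq Uq W κ u f mm σ x) (R : ℝ) : ∀ᶠ n in (U : Filter ℕ),
    ∀ (h : Fin 4 → ℝ) (v : Fin 14 → ℝ) (K : ℝ), 1 ≤ K →
    (∀ i, |h i| ≤ K * sd W u n (Fin.castAdd 14 i)) →
    (∀ s, |v s| ≤ K * sd W u n (Fin.natAdd 4 s)) → (∀ s : Fin 14, Fin.natAdd 4 s ∉ Dq → v s = 0) →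
    ∀ q : Fin 14, Fin.natAdd 4 q ∉ Dq →
      |tr (κ n) h v q| ≤ 67 * (K ^ 8 * (W.B'.d n ^ R * sd W u n (Fin.natAdd 4 q))) := by
  filter_upwards [g.gaps R] with n hn h v K hK hh hv hv0 q hq
  have hK0 : 0 ≤ K := by linarith
  rw [tr_tms, hv0 q hq, zero_add]
  have hS : 0 ≤ K ^ 8 * (W.B'.d n ^ R * sd W u n (Fin.natAdd 4 q)) := by
    have := g.sd0 n (Fin.natAdd 4 q)
    have := Real.rpow_pos_of_pos (W.B'.pos n) R
    positivity
  have h1 := sum_abs_le (L := tms q) (F := Tm.ev (κ n) h v)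
    (S := K ^ 8 * (W.B'.d n ^ R * sd W u n (Fin.natAdd 4 q))) ?_
  · refine h1.trans (mul_le_mul_of_nonneg_right ?_ hS)
    exact_mod_cast tms_sum q
  · intro t ht
    by_cases hs : Fin.natAdd 4 t.s ∈ Dq
    · have h2 := ev_le (g.ww.hκ n) (X := fun s => K * sd W u n s) hh hv t
      refine h2.trans (mul_le_mul_of_nonneg_left ?_ (abs_nonneg _))
      rw [prod_const_mul]
      have hmem : t.idx ∈ mlW (Fin.natAdd 4 q) := by
        rw [mlW_right]; exact List.mem_map_of_mem ht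
      have h3 := hn (Fin.natAdd 4 q) t.idx hmem (Or.inr ⟨Fin.natAdd 4 t.s, by simp [Tm.idx], hs⟩)
      have h4 : (t.idx.map (sd W u n)).prod ≤ W.B'.d n ^ R * sd W u n (Fin.natAdd 4 q) := by
        rw [g.prod_sd n hmem]
        unfold sd
        rw [← mul_div_assoc, g.dw n, ← Real.rpow_mul (W.B.pos n).le,
          ← Real.rpow_add (W.B.pos n)]
        refine div_le_div_of_nonneg_right ?_ ((g.ww.hl n).pos _).le
        exact Real.rpow_le_rpow_of_exponent_ge (W.B.pos n) (W.B.lt n).le (by linarith)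
      refine mul_le_mul (pow_le_pow_right₀ hK (idx_len q t ht)) h4 ?_ (by positivity)
      exact List.prod_nonneg (by
        intro a ha
        obtain ⟨s, -, rfl⟩ := List.mem_map.1 ha
        exact (g.sd0 n s).le)
    · have h5 : Tm.ev (κ n) h v t = 0 := by
        unfold Tm.ev
        rw [hv0 _ hs, mul_zero]
      rw [h5, abs_zero]
      exact mul_nonneg (abs_nonneg _) hS

/-! ### the main part -/

theorem tr_10 (κ : ℝ) (h : Fin 4 → ℝ) (w : Fin 14 → ℝ) (hw : ∀ s : Fin 14, s < 10 → w s = 0) :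
    tr κ h w 10 = w 10 := by
  rw [tr_tms]
  have e0 := hw 0 (by decide)
  have e1 := hw 1 (by decide)
  have e2 := hw 2 (by decide)
  have e3 := hw 3 (by decide)
  have e4 := hw 4 (by decide)
  have e5 := hw 5 (by decide)
  have e7 := hw 7 (by decide)
  simp [tms, Tm.ev, e0, e1, e2, e3, e4, e5, e7]

theorem tr_11 (κ : ℝ) (h : Fin 4 → ℝ) (w : Fin 14 → ℝ) (hw : ∀ s : Fin 14, s < 10 → w s = 0) :
    tr κ h w 11 = w 11 - 2 * κ * h 1 * w 10 := by
  rw [tr_tms]
  have e0 := hw 0 (by decide)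
  have e1 := hw 1 (by decide)
  have e2 := hw 2 (by decide)
  have e3 := hw 3 (by decide)
  have e4 := hw 4 (by decide)
  have e5 := hw 5 (by decide)
  have e6 := hw 6 (by decide)
  have e7 := hw 7 (by decide)
  have e8 := hw 8 (by decide)
  simp [tms, Tm.ev, e0, e1, e2, e3, e4, e5, e6, e7, e8]
  ring

theorem tr_12 (κ : ℝ) (h : Fin 4 → ℝ) (w : Fin 14 → ℝ) (hw : ∀ s : Fin 14, s < 10 → w s = 0) :
    tr κ h w 12 = w 12 + h 1 * w 11 - κ * h 1 ^ 2 * w 10 := by
  rw [tr_tms]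
  have e0 := hw 0 (by decide)
  have e1 := hw 1 (by decide)
  have e2 := hw 2 (by decide)
  have e3 := hw 3 (by decide)
  have e4 := hw 4 (by decide)
  have e5 := hw 5 (by decide)
  have e6 := hw 6 (by decide)
  have e7 := hw 7 (by decide)
  have e8 := hw 8 (by decide)
  have e9 := hw 9 (by decide)
  simp [tms, Tm.ev, e0, e1, e2, e3, e4, e5, e6, e7, e8, e9]
  ring

/-- the cocycle, flag part -/
theorem flag_coc (κ : ℝ) (a b c : FW) (q : Fin 14) :
    coW κ a c (Fin.natAdd 4 q) = coW κ b c (Fin.natAdd 4 q) +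
      tr κ (rel κ b.g c.g) (fun s => coW κ a b (Fin.natAdd 4 s)) q := by
  have h := congrFun (cocycle κ a b c) q
  rw [Pi.add_apply] at h
  rw [coW_right, coW_right, h]
  congr 2
  funext s
  rw [coW_right]

/-- the cocycle, slot `c` -/
theorem c_coc (κ : ℝ) (a b c : FW) : coW κ a c 1 = coW κ a b 1 + coW κ b c 1 := by
  have e : (1 : Fin 18) = Fin.castAdd 14 (1 : Fin 4) := rfl
  rw [e, coW_left, coW_left, coW_left]
  simp [rel]

end Crest.Agent.R136.Lin560
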