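import Crest.Agent.R136.Lin8_560

/-!
# R136, thin branch, `lin` (helper560), part 9: the relation of the lines gives `LinRel`
-/

set_option autoImplicit false
set_option linter.unusedSectionVars false
set_option linter.unusedVariables false

open Filter Topology

namespace Crest.Agent.R136.Lin560

open Finset Crest.Agent.R138.Ex926 Crest.Agent.R136.Net191 Crest.Agent.R136.Gf356
open Crest.Agent.R136.Qg926 Crest.Agent.R136.NetW191 Crest.Agent.R136.EvW938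
open Crest.Agent.R136.QdH887 (bv)

variable {Dq Uq : Finset (Fin 18)} {W : Wnd 18 fun _ => ℕ × ℝ} {κ : ℕ → ℝ}
  {u : ℕ → Fin 18 → ℝ} {f : ∀ n : ℕ, ℕ × ℝ → FW} {mm σ x : ℝ}

/-- flag of `y` seen from `s₀`, without the dropped slots -/
noncomputable def wm (Dq : Finset (Fin 18)) (W : Wnd 18 fun _ => ℕ × ℝ) (κ : ℕ → ℝ)
    (f : ∀ n : ℕ, ℕ × ℝ → FW) (n : ℕ) (y : ℕ × ℝ) : Fin 14 → ℝ := fun s =>
  if Fin.natAdd 4 s ∈ Dq then 0 else coW (κ n) (f n (W.s₀ n)) (f n y) (Fin.natAdd 4 s)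

/-- the dropped slots contain all flags of weight `≥ 2` -/
def DOk (Dq : Finset (Fin 18)) : Prop :=
  (∀ s : Fin 14, s < 10 → Fin.natAdd 4 s ∈ Dq) ∧ (15 : Fin 18) ∉ Dq ∧ (16 : Fin 18) ∉ Dq ∧
    (1 : Fin 18) ∉ Dq

theorem dOk_a : DOk Da := by unfold DOk; decide
theorem dOk_b : DOk Db := by unfold DOk; decide

section

variable (g : LnW Dq Uq W κ u f mm σ x)

include g

theorem LnW.K1 : 1 ≤ W.K0 := g.ww.ok.K0_one

theorem LnW.un_sd (n : ℕ) (s : Fin 18) : un W u n s = sd W u n s := by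
  unfold un
  rw [g.ekap, one_mul]

theorem LnW.crd_eq {n : ℕ} (gd : W.Good n) {a b : ℕ × ℝ} (ha : a ∈ W.Cl n) (hb : b ∈ W.Cl n)
    (s : Fin 18) : coW (κ n) (f n a) (f n b) s = sd W u n s * W.crd n a b s := by
  rw [← g.un_sd]; exact g.ww.crd_eq gd ha hb s

theorem LnW.crd_le {n : ℕ} (gd : W.Good n) {a b : ℕ × ℝ} (ha : a ∈ W.Cl n) (hb : b ∈ W.Cl n)
    (s : Fin 18) : |W.crd n a b s| ≤ W.K0 := by
  have := g.ww.crd_le gd ha hb s
  rwa [g.ekap, div_one] at this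

theorem LnW.co_le {n : ℕ} (gd : W.Good n) {a b : ℕ × ℝ} (ha : a ∈ W.Cl n) (hb : b ∈ W.Cl n)
    (s : Fin 18) : |coW (κ n) (f n a) (f n b) s| ≤ W.K0 * sd W u n s := by
  rw [g.crd_eq gd ha hb, abs_mul, abs_of_pos (g.sd0 n s), mul_comm]
  exact mul_le_mul_of_nonneg_right (g.crd_le gd ha hb s) (g.sd0 n s).le

theorem LnW.crd_own {n : ℕ} (gd : W.Good n) {a b : ℕ × ℝ} (ha : a ∈ W.Cl n) (hb : b ∈ W.Cl n)
    (hl : W.lc n a = W.lc n b) {s : Fin 18} (hs : s ≠ 0) :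
    |W.crd n a b s| ≤ W.K0 * W.B'.d n ^ x := by
  have := g.ww.crd_own gd ha hb hl (s := s) (t := x)
    (by rw [g.eS, Finset.mem_singleton]; exact hs) (by rw [g.etop])
  rwa [g.ekap, div_one] at this

/-- products of sides -/
theorem LnW.sd_mul (n : ℕ) {k : Fin 18} {l : List (Fin 18)} (hl : l ∈ mlW k) (hk : k ∉ Dq)
    (hs : ∀ s ∈ l, s ∉ Dq) : (l.map (sd W u n)).prod = sd W u n k := by
  rw [g.prod_sd n hl, ← g.tight k hk l hl hs n]
  rfl

theorem LnW.c_add {n : ℕ} (gd : W.Good n) {a b c : ℕ × ℝ} (ha : a ∈ W.Cl n) (hb : b ∈ W.Cl n)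
    (hc : c ∈ W.Cl n) : W.crd n a c 1 = W.crd n a b 1 + W.crd n b c 1 := by
  have h := c_coc (κ n) (f n a) (f n b) (f n c)
  rw [g.crd_eq gd ha hc, g.crd_eq gd ha hb, g.crd_eq gd hb hc, ← mul_add] at h
  exact mul_left_cancel₀ (g.sd0 n 1).ne' h

/-- **the cocycle up to dropped slots** -/
theorem LnW.coc_main (R : ℝ) : ∀ᶠ n in (U : Filter ℕ), W.Good n → ∀ y ∈ W.Cl n, ∀ y' ∈ W.Cl n,
    ∀ q : Fin 14, Fin.natAdd 4 q ∉ Dq →
    |coW (κ n) (f n (W.s₀ n)) (f n y') (Fin.natAdd 4 q) - coW (κ n) (f n y) (f n y')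
      (Fin.natAdd 4 q) - tr (κ n) (rel (κ n) (f n y).g (f n y').g) (wm Dq W κ f n y) q| ≤
      67 * (W.K0 ^ 8 * (W.B'.d n ^ R * sd W u n (Fin.natAdd 4 q))) := by
  filter_upwards [g.drop R] with n hn gd y hy y' hy' q hq
  have h0 := gd.s0
  set w : Fin 14 → ℝ := fun s => coW (κ n) (f n (W.s₀ n)) (f n y) (Fin.natAdd 4 s) with hw
  set h : Fin 4 → ℝ := rel (κ n) (f n y).g (f n y').g with hh
  have h1 := hn h (w - wm Dq W κ f n y) W.K0 g.K1 (fun i => by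
      rw [hh, ← coW_left]; exact g.co_le gd hy hy' _) (fun s => by
      have a := g.co_le gd h0 hy (Fin.natAdd 4 s)
      show |w s - wm Dq W κ f n y s| ≤ _
      unfold wm
      split_ifs with hs
      · rw [sub_zero]; exact a
      · rw [hw]
        simp only [sub_self, abs_zero]
        exact mul_nonneg (by linarith [g.K1]) (g.sd0 n _).le) (fun s hs => by
      show w s - wm Dq W κ f n y s = 0
      unfold wm
      rw [if_neg hs, sub_self]) q hq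
  have h2 := flag_coc (κ n) (f n (W.s₀ n)) (f n y) (f n y') q
  have h3 : tr (κ n) h w q = tr (κ n) h (w - wm Dq W κ f n y) q +
      tr (κ n) h (wm Dq W κ f n y) q := by
    have := congrFun (tr_add (κ n) h (w - wm Dq W κ f n y) (wm Dq W κ f n y)) q
    rw [sub_add_cancel] at this
    exact this
  rw [h2]
  have e : coW (κ n) (f n y) (f n y') (Fin.natAdd 4 q) + tr (κ n) h w q -
      coW (κ n) (f n y) (f n y') (Fin.natAdd 4 q) - tr (κ n) h (wm Dq W κ f n y) q =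
      tr (κ n) h (w - wm Dq W κ f n y) q := by rw [h3]; ring
  rw [e]
  exact h1

theorem LnW.wm0 (hD : DOk Dq) (n : ℕ) (y : ℕ × ℝ) (s : Fin 14) (hs : s < 10) :
    wm Dq W κ f n y s = 0 := by
  unfold wm
  rw [if_pos (hD.1 s hs)]

theorem LnW.wm_le {n : ℕ} (gd : W.Good n) {y : ℕ × ℝ} (hy : y ∈ W.Cl n) (s : Fin 14) :
    |wm Dq W κ f n y s| ≤ W.K0 * sd W u n (Fin.natAdd 4 s) := by
  unfold wm
  split_ifs
  · rw [abs_zero]; exact mul_nonneg (by linarith [g.K1]) (g.sd0 n _).le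
  · exact g.co_le gd gd.s0 hy _

/-- sides of `14, 15, 16` -/
theorem LnW.sd16 (hD : DOk Dq) (n : ℕ) : sd W u n 16 = sd W u n 1 * sd W u n 15 := by
  have h := g.sd_mul n (k := 16) (l := [1, 15]) (by decide) hD.2.2.1 (by
    intro s hs
    rcases List.mem_cons.1 hs with rfl | hs
    · exact hD.2.2.2
    · rw [List.mem_singleton.1 hs]; exact hD.2.1)
  simpa using h.symm

theorem LnW.sd15 (hD : DOk Dq) (h14 : (14 : Fin 18) ∉ Dq) (n : ℕ) :
    sd W u n 15 = sd W u n 1 * sd W u n 14 := by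
  have h := g.sd_mul n (k := 15) (l := [1, 14]) (by decide) hD.2.1 (by
    intro s hs
    rcases List.mem_cons.1 hs with rfl | hs
    · exact hD.2.2.2
    · rw [List.mem_singleton.1 hs]; exact h14)
  simpa using h.symm

theorem LnW.lrp_mem {n : ℕ} {y : ℕ × ℝ} (hy : y ∈ W.Cl n) :
    lrpW W n (W.lc n y) ∈ W.Cl n ∧ W.lc n (lrpW W n (W.lc n y)) = W.lc n y := by
  have h : ∃ i ∈ W.Cl n, W.lc n i = W.lc n y := ⟨y, hy, rfl⟩
  unfold lrpW
  rw [dif_pos h]
  exact h.choose_spec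

/-- **own line, slots `c` and `P`** -/
theorem LnW.line_dev (hD : DOk Dq) : ∀ᶠ n in (U : Filter ℕ), W.Good n → ∀ y ∈ W.Cl n,
    |W.crd n (W.s₀ n) y 1 - tyW W n (W.lc n y) 0| ≤ W.K0 * W.B'.d n ^ x ∧
    |W.crd n (W.s₀ n) y 16 - tyW W n (W.lc n y) 1| ≤ 70 * W.K0 ^ 8 * W.B'.d n ^ x := by
  filter_upwards [g.coc_main x] with n hn gd y hy
  obtain ⟨hr, hl⟩ := g.lrp_mem hy
  set r := lrpW W n (W.lc n y) with hrd
  have h0 := gd.s0
  have hK := g.K1
  have hK0 : 0 ≤ W.K0 := by linarith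
  have hx : 0 ≤ W.B'.d n ^ x := (Real.rpow_pos_of_pos (W.B'.pos n) x).le
  have hx1 : W.B'.d n ^ x ≤ 1 := Real.rpow_le_one (W.B'.pos n).le (W.B'.lt n).le g.x0.le
  have t0 : tyW W n (W.lc n y) 0 = W.crd n (W.s₀ n) r 1 := rfl
  have t1 : tyW W n (W.lc n y) 1 = W.crd n (W.s₀ n) r 16 := rfl
  rw [t0, t1]
  have hc : |W.crd n r y 1| ≤ W.K0 * W.B'.d n ^ x := g.crd_own gd hr hy hl (by decide)
  refine ⟨?_, ?_⟩
  · rw [g.c_add gd h0 hr hy]
    simpa using hc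
  · have h1 := hn gd r hr y hy 12 hD.2.2.1
    have hs : ∀ s, wm Dq W κ f n r s = wm Dq W κ f n r s := fun _ => rfl
    rw [tr_12 _ _ _ (fun s hs => g.wm0 hD n r s hs)] at h1
    have e12 : wm Dq W κ f n r 12 = coW (κ n) (f n (W.s₀ n)) (f n r) 16 := by
      unfold wm
      exact if_neg hD.2.2.1
    have eh1 : rel (κ n) (f n r).g (f n y).g 1 = coW (κ n) (f n r) (f n y) 1 :=
      (coW_left _ _ _ 1).symm
    have n12 : (Fin.natAdd 4 (12 : Fin 14) : Fin 18) = 16 := rfl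
    rw [n12, e12, eh1] at h1
    set D16 := sd W u n 16 with hD16
    have hS16 : 0 < D16 := g.sd0 n 16
    have a1 : |coW (κ n) (f n r) (f n y) 16| ≤ W.K0 * W.B'.d n ^ x * D16 := by
      rw [g.crd_eq gd hr hy, abs_mul, abs_of_pos (g.sd0 n 16), mul_comm]
      exact mul_le_mul_of_nonneg_right (g.crd_own gd hr hy hl (by decide)) hS16.le
    have a2 : |coW (κ n) (f n r) (f n y) 1| ≤ W.K0 * W.B'.d n ^ x * sd W u n 1 := by
      rw [g.crd_eq gd hr hy, abs_mul, abs_of_pos (g.sd0 n 1), mul_comm]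
      exact mul_le_mul_of_nonneg_right hc (g.sd0 n 1).le
    have w11 : |wm Dq W κ f n r 11| ≤ W.K0 * sd W u n 15 := g.wm_le gd hr 11
    have w10 : |wm Dq W κ f n r 10| ≤ W.K0 * sd W u n 14 := g.wm_le gd hr 10
    set h := coW (κ n) (f n r) (f n y) 1 with hh
    have s1 := g.sd0 n 1
    have s15 := g.sd0 n 15
    have s14 := g.sd0 n 14
    have a3 : |h * wm Dq W κ f n r 11| ≤ W.K0 ^ 2 * W.B'.d n ^ x * D16 := by
      rw [abs_mul]
      calc |h| * |wm Dq W κ f n r 11| ≤ (W.K0 * W.B'.d n ^ x * sd W u n 1) *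
            (W.K0 * sd W u n 15) := mul_le_mul a2 w11 (abs_nonneg _) (by positivity)
        _ = W.K0 ^ 2 * W.B'.d n ^ x * (sd W u n 1 * sd W u n 15) := by ring
        _ = _ := by rw [← g.sd16 hD n]
    have a4 : |κ n * h ^ 2 * wm Dq W κ f n r 10| ≤ W.K0 ^ 3 * W.B'.d n ^ x * D16 := by
      by_cases h14 : (14 : Fin 18) ∈ Dq
      · have : wm Dq W κ f n r 10 = 0 := by
          unfold wm
          exact if_pos h14
        rw [this, mul_zero, abs_zero]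
        positivity
      · rw [abs_mul, abs_mul, abs_pow]
        have hk := g.ww.hκ n
        have b1 : |κ n| * |h| ^ 2 ≤ 1 * (W.K0 * W.B'.d n ^ x * sd W u n 1) ^ 2 :=
          mul_le_mul hk (pow_le_pow_left₀ (abs_nonneg _) a2 2) (by positivity) zero_le_one
        calc |κ n| * |h| ^ 2 * |wm Dq W κ f n r 10| ≤
            (1 * (W.K0 * W.B'.d n ^ x * sd W u n 1) ^ 2) * (W.K0 * sd W u n 14) :=
              mul_le_mul b1 w10 (abs_nonneg _) (by positivity)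
          _ = W.B'.d n ^ x * (W.K0 ^ 3 * W.B'.d n ^ x * (sd W u n 1 *
              (sd W u n 1 * sd W u n 14))) := by ring
          _ = W.B'.d n ^ x * (W.K0 ^ 3 * W.B'.d n ^ x * D16) := by
              rw [← g.sd15 hD h14 n, ← g.sd16 hD n]
          _ ≤ 1 * (W.K0 ^ 3 * W.B'.d n ^ x * D16) :=
              mul_le_mul_of_nonneg_right hx1 (by positivity)
          _ = _ := one_mul _
    have hA : |coW (κ n) (f n (W.s₀ n)) (f n y) 16 - coW (κ n) (f n (W.s₀ n)) (f n r) 16| ≤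
        (70 * W.K0 ^ 8 * W.B'.d n ^ x) * D16 := by
      have e : coW (κ n) (f n (W.s₀ n)) (f n y) 16 - coW (κ n) (f n (W.s₀ n)) (f n r) 16 =
          (coW (κ n) (f n (W.s₀ n)) (f n y) 16 - coW (κ n) (f n r) (f n y) 16 -
            (coW (κ n) (f n (W.s₀ n)) (f n r) 16 + h * wm Dq W κ f n r 11 -
              κ n * h ^ 2 * wm Dq W κ f n r 10)) + coW (κ n) (f n r) (f n y) 16 +
          h * wm Dq W κ f n r 11 - κ n * h ^ 2 * wm Dq W κ f n r 10 := by ring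
      rw [e]
      have p1 : W.K0 ≤ W.K0 ^ 8 := le_self_pow₀ hK (by norm_num)
      have p2 : W.K0 ^ 2 ≤ W.K0 ^ 8 := pow_le_pow_right₀ hK (by norm_num)
      have p3 : W.K0 ^ 3 ≤ W.K0 ^ 8 := pow_le_pow_right₀ hK (by norm_num)
      have hxD : 0 ≤ W.B'.d n ^ x * D16 := by positivity
      have q1 : W.K0 * W.B'.d n ^ x * D16 ≤ W.K0 ^ 8 * W.B'.d n ^ x * D16 := by
        rw [mul_assoc, mul_assoc]; exact mul_le_mul_of_nonneg_right p1 hxD
      have q2 : W.K0 ^ 2 * W.B'.d n ^ x * D16 ≤ W.K0 ^ 8 * W.B'.d n ^ x * D16 := by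
        rw [mul_assoc, mul_assoc]; exact mul_le_mul_of_nonneg_right p2 hxD
      have q3 : W.K0 ^ 3 * W.B'.d n ^ x * D16 ≤ W.K0 ^ 8 * W.B'.d n ^ x * D16 := by
        rw [mul_assoc, mul_assoc]; exact mul_le_mul_of_nonneg_right p3 hxD
      have t1 := abs_sub ((coW (κ n) (f n (W.s₀ n)) (f n y) 16 - coW (κ n) (f n r) (f n y) 16 -
            (coW (κ n) (f n (W.s₀ n)) (f n r) 16 + h * wm Dq W κ f n r 11 -
              κ n * h ^ 2 * wm Dq W κ f n r 10)) + coW (κ n) (f n r) (f n y) 16 +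
          h * wm Dq W κ f n r 11) (κ n * h ^ 2 * wm Dq W κ f n r 10)
      have t2 := abs_add_le ((coW (κ n) (f n (W.s₀ n)) (f n y) 16 -
            coW (κ n) (f n r) (f n y) 16 -
            (coW (κ n) (f n (W.s₀ n)) (f n r) 16 + h * wm Dq W κ f n r 11 -
              κ n * h ^ 2 * wm Dq W κ f n r 10)) + coW (κ n) (f n r) (f n y) 16)
          (h * wm Dq W κ f n r 11)
      have t3 := abs_add_le (coW (κ n) (f n (W.s₀ n)) (f n y) 16 -
            coW (κ n) (f n r) (f n y) 16 -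
            (coW (κ n) (f n (W.s₀ n)) (f n r) 16 + h * wm Dq W κ f n r 11 -
              κ n * h ^ 2 * wm Dq W κ f n r 10)) (coW (κ n) (f n r) (f n y) 16)
      have e5 : (70 * W.K0 ^ 8 * W.B'.d n ^ x) * D16 = 67 * (W.K0 ^ 8 * (W.B'.d n ^ x * D16)) +
        3 * (W.K0 ^ 8 * W.B'.d n ^ x * D16) := by ring
      rw [e5]
      linarith
    rw [g.crd_eq gd h0 hy, g.crd_eq gd h0 hr, ← mul_sub, abs_mul, abs_of_pos hS16,
      mul_comm] at hA
    exact le_of_mul_le_mul_right hA hS16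

end

/-- the gauge -/
noncomputable def jj (Dq : Finset (Fin 18)) (W : Wnd 18 fun _ => ℕ × ℝ) (κ : ℕ → ℝ)
    (u : ℕ → Fin 18 → ℝ) (f : ∀ n : ℕ, ℕ × ℝ → FW) (mu la : ℝ) (n : ℕ) (y : ℕ × ℝ) :
    Fin 14 → ℝ := fun q =>
  if q = 10 then wm Dq W κ f n y 10 - la * sd W u n 14
  else if q = 11 then wm Dq W κ f n y 11 - mu * sd W u n 15 +
    2 * κ n * coW (κ n) (f n (W.s₀ n)) (f n y) 1 * (la * sd W u n 14)
  else 0

end Crest.Agent.R136.Lin560
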