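import Crest.Agent.R136.RLa_66
import Crest.Agent.R136.Gau4_66
import Crest.Agent.R136.OwC_779

/-!
# R136, thin branch, resonant walls (helper66): class and dense part

* `popular_sub` : one coarse label per fine class, with a sub-polynomial loss.
* `iw_refine`, `iw_exists_cls` : dense part of a window, honest class of a natural base.
* **`exists_part`** : own pairs of the class have one label and are in the own box.
* `RecLaw.exists_part` : the same for `RecLaw`.
-/

set_option autoImplicit false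
set_option linter.unusedVariables false

open Finset Filter Topology

namespace Crest.Agent.R136.RL66

open Crest.Agent.R136.Net191
open Crest.Agent.R136.NetW191
open Crest.Agent.R136.PrW464
open Crest.Agent.R136.NatW697
open Crest.Agent.R136.LadW697
open Crest.Agent.R136.LadG697
open Crest.Agent.R136.Top484
open Crest.Agent.R136.NatT550
open Crest.Agent.R136.ThS830
open Crest.Agent.R136.LadT830
open Crest.Agent.R136.Zpr779
open Crest.Agent.R136.Qg926
open Crest.Agent.R136.EvW938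
open Crest.Agent.R136.GauW619
open Crest.Agent.R136.AwJ774
open Crest.Agent.R136.K2S774
open Crest.Agent.R138.Ex926
open Crest.Agent.R136.Gau66 (popular_fs few_labels sub_rpow zprof_refine)

/-! ### finite and sequence lemmas -/

/-- number of labels of a pair -/
theorem card_image_pair {α β γ : Type*} [DecidableEq α] [DecidableEq β] [DecidableEq γ]
    (A : Finset α) (f : α → β) (g : α → γ) {M : ℝ}
    (hM : ∀ s ∈ A, (((A.filter fun y => f y = f s).image g).card : ℝ) ≤ M) :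
    ((A.image fun y => (f y, g y)).card : ℝ) ≤ ((A.image f).card : ℝ) * M := by
  classical
  have h1 : A.image (fun y => (f y, g y)) ⊆ (A.image f).biUnion fun b =>
      ((A.filter fun y => f y = b).image g).image fun c => (b, c) := by
    intro p hp
    obtain ⟨y, hy, rfl⟩ := mem_image.1 hp
    exact mem_biUnion.2 ⟨f y, mem_image_of_mem _ hy, mem_image_of_mem _
      (mem_image_of_mem _ (mem_filter.2 ⟨hy, rfl⟩))⟩
  have h2 : ((A.image fun y => (f y, g y)).card : ℝ) ≤
      ∑ b ∈ A.image f, (((A.filter fun y => f y = b).image g).card : ℝ) := by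
    have h3 := (card_le_card h1).trans card_biUnion_le
    have h4 : ∑ b ∈ A.image f, (((A.filter fun y => f y = b).image g).image
        fun c => (b, c)).card ≤ ∑ b ∈ A.image f, ((A.filter fun y => f y = b).image g).card :=
      sum_le_sum fun b _ => card_image_le
    exact_mod_cast h3.trans h4
  refine h2.trans ?_
  calc ∑ b ∈ A.image f, (((A.filter fun y => f y = b).image g).card : ℝ)
      ≤ ∑ _b ∈ A.image f, M := sum_le_sum fun b hb => by
        obtain ⟨s, hs, rfl⟩ := mem_image.1 hb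
        exact hM s hs
    _ = _ := by rw [sum_const, nsmul_eq_mul]

/-- number of labels through intermediate labels -/
theorem card_image_thru {α β γ : Type*} [DecidableEq α] [DecidableEq β] [DecidableEq γ]
    (A : Finset α) (f : α → β) (g : α → γ) {M : ℝ}
    (hM : ∀ s ∈ A, (((A.filter fun y => f y = f s).image g).card : ℝ) ≤ M) :
    ((A.image g).card : ℝ) ≤ ((A.image f).card : ℝ) * M := by
  refine le_trans ?_ (card_image_pair A f g hM)
  have : A.image g = (A.image fun y => (f y, g y)).image Prod.snd := by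
    rw [image_image]; rfl
  rw [this]
  exact_mod_cast card_image_le

/-- one sequence `e → 0` for all `ε` -/
theorem diag_eps (P : ℝ → ℕ → Prop) (h : ∀ ε : ℝ, 0 < ε → ∀ᶠ n in (U : Filter ℕ), P ε n) :
    ∃ e : ℕ → ℝ, (∀ n, 0 < e n) ∧ Tendsto e U (𝓝 0) ∧ ∀ᶠ n in (U : Filter ℕ), P (e n) n := by
  obtain ⟨k, hk, hk2⟩ := exists_diag (fun j n => P (1 / ((j : ℝ) + 1)) n)
    (fun j => h _ (by positivity))
  exact ⟨fun n => 1 / ((k n : ℝ) + 1), fun n => by positivity,
    tendsto_one_div_add_atTop_nhds_zero_nat.comp hk, hk2.mono fun n hn => hn _ le_rfl⟩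

/-- **one coarse label per fine class**, sub-polynomial loss -/
theorem popular_sub {B : Base} {α β γ : Type*} [DecidableEq α] [DecidableEq β] [DecidableEq γ]
    {J : ℕ → Finset α} {f : ℕ → α → β} {g : ℕ → α → γ}
    (h : ∀ ε : ℝ, 0 < ε → ∀ᶠ n in (U : Filter ℕ), ∀ s ∈ J n,
      (((cls (J n) (f n) s).image (g n)).card : ℝ) ≤ B.d n ^ (-ε)) :
    ∃ (J' : ℕ → Finset α) (S : ℕ → ℝ), B.Sub S ∧ (∀ n, J' n ⊆ J n) ∧
      ∀ᶠ n in (U : Filter ℕ), ((J n).card : ℝ) ≤ S n * ((J' n).card : ℝ) ∧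
        ∀ x ∈ J' n, ∀ y ∈ J' n, f n x = f n y → g n x = g n y := by
  classical
  obtain ⟨e, -, he, h2⟩ := diag_eps _ h
  set J2 : ℕ → Finset α := fun n =>
    if h : ∀ s ∈ J n, (((cls (J n) (f n) s).image (g n)).card : ℝ) ≤ B.d n ^ (-(e n)) then
      (popular_fs (J n) (f n) (g n) h).choose else ∅ with hJ2
  refine ⟨J2, fun n => B.d n ^ (-(e n)), sub_rpow he, fun n => ?_, ?_⟩
  · by_cases h : ∀ s ∈ J n, (((cls (J n) (f n) s).image (g n)).card : ℝ) ≤ B.d n ^ (-(e n))
    · have e1 : J2 n = (popular_fs (J n) (f n) (g n) h).choose := dif_pos h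
      rw [e1]; exact (popular_fs (J n) (f n) (g n) h).choose_spec.1
    · have e1 : J2 n = ∅ := dif_neg h
      rw [e1]; exact empty_subset _
  · filter_upwards [h2] with n h
    have e1 : J2 n = (popular_fs (J n) (f n) (g n) h).choose := dif_pos h
    rw [e1]; exact (popular_fs (J n) (f n) (g n) h).choose_spec.2

/-- a dense part of a nonempty set is nonempty -/
theorem dense_ne {α : Type*} {J J' : ℕ → Finset α} {S : ℕ → ℝ}
    (hne : ∀ᶠ n in (U : Filter ℕ), (J n).Nonempty)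
    (hd : ∀ᶠ n in (U : Filter ℕ), ((J n).card : ℝ) ≤ S n * ((J' n).card : ℝ)) :
    ∀ᶠ n in (U : Filter ℕ), (J' n).Nonempty := by
  filter_upwards [hne, hd] with n h1 h2
  have h3 : (0 : ℝ) < (J n).card := by exact_mod_cast card_pos.2 h1
  rw [← card_pos]
  rcases Nat.eq_zero_or_pos (J' n).card with h0 | h0
  · rw [h0] at h2
    simp only [Nat.cast_zero, mul_zero] at h2
    linarith
  · exact h0

/-! ### windows -/

section win

variable {θ : Fin 3 → ℝ} {g : ℝ} {q : Fin 3 → ℝ} {V Dr : Set (Fin 18)}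
  {P : Set (Fin 18 → ℝ)} {ν own : (Fin 18 → ℝ) → ℝ} {r0 : Fin 18 → ℝ}
  {B B' : Base} {I0 J : ℕ → Finset (ℕ × ℝ)} {κ : ℕ → ℝ} {u : ℕ → Fin 18 → ℝ}
  {F : ℕ → ℕ × ℝ → FW} {X : ℕ → Fin 18 → ℝ} {w Tn To : ℕ → ℝ}
  {lam lo : (Fin 18 → ℝ) → ℝ}

/-- a dense part of a window -/
theorem iw_refine (H : IW B B' I0 J κ u F X w Dr Tn To lam lo) {J' : ℕ → Finset (ℕ × ℝ)}
    (hsub : ∀ n, J' n ⊆ J n) {S : ℕ → ℝ} (hS : B'.Sub S)
    (hd : ∀ᶠ n in (U : Filter ℕ), ((J n).card : ℝ) ≤ S n * ((J' n).card : ℝ)) :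
    IW B B' I0 J' κ u F X w Dr Tn To lam lo where
  bas := H.bas
  nat := H.nat
  win := H.win.refine (Eventually.of_forall hsub) (dense_ne H.win.ne hd) hS hd
  own := zprof_refine H.own H.To0 (Eventually.of_forall hsub) hS hd
  To0 := H.To0
  kap := H.kap

/-- the own profile at a shifted base -/
theorem iw_own_shift (H : IW B B' I0 J κ u F X w Dr Tn To lam lo) (bC : Fin 18 → ℝ) :
    ZProf B' J (zolb B I0 (coU u κ F) monW 67 (fun n => X n + w n • bC) w)
      {a | bC + a ∈ cn QW (actW Dr)} (fun n => To n * B'.d n ^ (-lo bC))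
      (fun a => lo (bC + a) - lo bC) := by
  have h1 := zprof_shift H.own bC
  have e1 : (fun n a => zolb B I0 (coU u κ F) monW 67 X w n (bC + a)) =
      zolb B I0 (coU u κ F) monW 67 (fun n => X n + w n • bC) w := by
    funext n a x
    unfold zolb zlab
    rw [add_smul_shift]
  rw [e1] at h1
  exact h1

theorem wtR_one (k : Fin 18) : 1 ≤ wtR k := by
  fin_cases k <;> simp [wtR, grW, wz, wc, wn] <;> norm_num

/-- **honest class of a natural base** -/
theorem iw_exists_cls (H : IW B B' I0 J κ u F X w Dr Tn To lam lo) {Z : Set (Fin 18)}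
    (st : Stage QW P ν own 18 r0 (btW θ) (DlW g q) (QdW θ) Z V 0 (btW θ) 1 (actW Dr) Dr lam lo)
    {bC : Fin 18 → ℝ} (hb : Nat QW (actW Dr) bC) :
    ∃ s₀ : ℕ → ℕ × ℝ, (∀ᶠ n in (U : Filter ℕ), s₀ n ∈ J n) ∧
      ZCls B B' I0 J (coU u κ F) monW 67 (fun n => X n + w n • bC) w
        {a | bC + a ∈ cn QW (actW Dr)} (fun n => Tn n * B'.d n ^ (-lam bC))
        (fun a => lam (bC + a) - lam bC)
        (fun n => cls (J n) (zlab B I0 (coU u κ F) monW 67 (fun n => X n + w n • bC) w n 0)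
          (s₀ n)) s₀ ∧
      ∀ P ⊆ {a | bC + a ∈ cn QW (actW Dr)}, ∀ R : ℝ, (∀ p ∈ P, ‖p‖ ≤ R) → (∀ p ∈ P, 0 ≤ p) →
        TProf B' (fun n => cls (J n)
            (zlab B I0 (coU u κ F) monW 67 (fun n => X n + w n • bC) w n 0) (s₀ n))
          (zolb B I0 (coU u κ F) monW 67 (fun n => X n + w n • bC) w) P
          (fun n => To n * B'.d n ^ (-lo bC)) (fun a => lo (bC + a) - lo bC) := by
  obtain ⟨s₀, h1, h2, h3⟩ := Zpr779.ZWin.exists_cls_own (H.win.shift hb.mem)
    (fun _ => (0, 0)) (Gd := J) (E := J)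
    (Eventually.of_forall fun n => Subset.refl _) (Eventually.of_forall fun n => Subset.refl _)
    (S := fun _ => 1) (Base.Sub.const one_pos) (Eventually.of_forall fun n => by rw [one_mul])
    (line := fun _ x => x.1) (iw_own_shift H bC)
    (fun n => mul_pos (H.To0 n) (Real.rpow_pos_of_pos (B'.pos n) _))
    subset_rfl (by show bC + 0 ∈ cn QW (actW Dr); rw [add_zero]; exact hb.mem) (by
      intro p hp p' hp'
      have h1 := st.prf.olip _ hp _ hp'
      have e1 : bC + p - (bC + p') = p - p' := by abel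
      rw [e1] at h1
      have e2 : lo (bC + p) - lo bC - (lo (bC + p') - lo bC) = lo (bC + p) - lo (bC + p') := by
        ring
      rw [e2]
      have e3 : (((18 : ℕ) : ℝ)) = 18 := by norm_num
      rw [e3]
      exact h1) (a := wtR) wtR_one (by
      intro p hp t ht
      show bC + (p + t • wtR) ∈ cn QW (actW Dr)
      have h1 : Nat QW (actW Dr) wtR := nat_grW _ 1 1 9
      rw [← add_assoc, add_comm (bC + p)]
      have := cn_nat_add (h1.smul t) hp zero_le_one
      rwa [one_smul] at this)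
  refine ⟨s₀, h1, h2, h3 _ (Eventually.of_forall fun n => Subset.refl _) fun ε hε => ?_⟩
  filter_upwards with n
  refine le_mul_of_one_le_left (Nat.cast_nonneg _) ?_
  exact Real.one_le_rpow_of_pos_of_le_one_of_nonpos (B'.pos n) (B'.lt n).le (by linarith)

/-- the own box is legal -/
theorem ob0_mem (hcap : CapCl V) {K : ℝ} (hK : 0 ≤ K) : ob0 V K ∈ cn QW (actW Dr) := by
  classical
  rw [mem_cnW]
  intro k _ l hl _
  have h0 : ∀ t, 0 ≤ ob0 V K t := fun t => by unfold ob0; split_ifs <;> [exact le_rfl; exact hK]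
  have hs : ∀ l : List (Fin 18), 0 ≤ (l.map (ob0 V K)).sum := fun l => by
    refine List.sum_nonneg fun x hx => ?_
    obtain ⟨t, -, rfl⟩ := List.mem_map.1 hx
    exact h0 t
  by_cases hk : k = 0 ∨ k ∈ V
  · have e : ob0 V K k = 0 := by unfold ob0; exact if_pos hk
    rw [e]; exact hs l
  · have e : ob0 V K k = K := by unfold ob0; exact if_neg hk
    rw [e]
    have hkV : k ∉ V := fun h => hk (Or.inr h)
    have h1 : ¬ ∀ t ∈ l, t = 0 ∨ t ∈ V := fun h => hkV (hcap k ⟨l, hl, h⟩)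
    push Not at h1
    obtain ⟨t, ht, ht0, htV⟩ := h1
    have e2 : ob0 V K t = K := by
      unfold ob0; exact if_neg fun h => h.elim ht0 htV
    have h2 : ob0 V K t ≤ (l.map (ob0 V K)).sum :=
      List.single_le_sum (fun x hx => by
        obtain ⟨t, -, rfl⟩ := List.mem_map.1 hx
        exact h0 t) _ (List.mem_map_of_mem ht)
    rwa [e2] at h2

/-- **class and dense part**: own pairs have one label `gl` and lie in the own box -/
theorem exists_part {γ : Type} [DecidableEq γ] {gl : ℕ → ℕ × ℝ → γ}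
    (iw : IW B B' I0 J κ u F X w Dr Tn To lam lo) {Z : Set (Fin 18)}
    (st : Stage QW P ν own 18 r0 (btW θ) (DlW g q) (QdW θ) Z V 0 (btW θ) 1 (actW Dr) Dr lam lo)
    (few : ∀ ε : ℝ, 0 < ε → ∀ᶠ n in (U : Filter ℕ), ∀ i ∈ J n,
      (((cls (J n) (zolb B I0 (coU u κ F) monW 67 X w n 0) i).image (gl n)).card : ℝ) ≤
        B'.d n ^ (-ε))
    (hcap : CapCl V) {bC : Fin 18 → ℝ} (hb : Nat QW (actW Dr) bC) (b0 : bC 0 = 0)
    (hb0 : ∀ k, bC k ≤ 0) {K1 : ℝ} (hK1 : 0 ≤ K1) :
    ∃ (J' : ℕ → Finset (ℕ × ℝ)) (s₀ : ℕ → ℕ × ℝ), (∀ n, J' n ⊆ J n) ∧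
      IW B B' I0 J' κ u F X w Dr Tn To lam lo ∧
      ZCls B B' I0 J' (coU u κ F) monW 67 (fun n => X n + w n • bC) w
        {a | bC + a ∈ cn QW (actW Dr)} (fun n => Tn n * B'.d n ^ (-lam bC))
        (fun a => lam (bC + a) - lam bC)
        (fun n => cls (J' n) (zlab B I0 (coU u κ F) monW 67 (fun n => X n + w n • bC) w n 0)
          (s₀ n)) s₀ ∧
      (∀ P ⊆ {a | bC + a ∈ cn QW (actW Dr)}, ∀ R : ℝ, (∀ p ∈ P, ‖p‖ ≤ R) → (∀ p ∈ P, 0 ≤ p) →
        TProf B' (fun n => cls (J' n)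
            (zlab B I0 (coU u κ F) monW 67 (fun n => X n + w n • bC) w n 0) (s₀ n))
          (zolb B I0 (coU u κ F) monW 67 (fun n => X n + w n • bC) w) P
          (fun n => To n * B'.d n ^ (-lo bC)) (fun a => lo (bC + a) - lo bC)) ∧
      ∀ᶠ n in (U : Filter ℕ), ∀ i ∈ cls (J' n)
          (zlab B I0 (coU u κ F) monW 67 (fun n => X n + w n • bC) w n 0) (s₀ n),
        ∀ i' ∈ cls (J' n)
          (zlab B I0 (coU u κ F) monW 67 (fun n => X n + w n • bC) w n 0) (s₀ n),
        i.1 = i'.1 → gl n i = gl n i' ∧ ∀ k, |coU u κ F n i i' k| ≤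
          cK0 monW 67 * (B.d n ^ X n k * B'.d n ^ ob0 V K1 k) := by
  classical
  set aK : Fin 18 → ℝ := ob0 V K1 with haK
  have haKm : aK ∈ cn QW (actW Dr) := ob0_mem hcap hK1
  have aK0 : aK 0 = 0 := by rw [haK]; unfold ob0; exact if_pos (Or.inl rfl)
  have aKV : ∀ k ∈ V, aK k = 0 := fun k hk => by rw [haK]; unfold ob0; exact if_pos (Or.inr hk)
  have aKn : ∀ k, 0 ≤ aK k := fun k => by
    rw [haK]; unfold ob0; split_ifs <;> [exact le_rfl; exact hK1]
  -- own values at the two boxes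
  have lob : lo bC = 0 := by
    have := st.ownr bC hb.mem fun i hi => by rw [b0, mul_zero]; exact hb0 i
    rw [this, b0]; simp
  have loK : lo aK = 0 := by
    have := st.ownr aK haKm fun i hi => by rw [aK0, mul_zero, aKV i hi]
    rw [this, aK0]; simp
  set fb : ℕ → ℕ × ℝ → ℕ × (ℕ × ℝ) := fun n =>
    zolb B I0 (coU u κ F) monW 67 (fun n => X n + w n • bC) w n 0 with hfb
  set fK : ℕ → ℕ × ℝ → ℕ × (ℕ × ℝ) := fun n => zolb B I0 (coU u κ F) monW 67 X w n aK with hfK
  set f0 : ℕ → ℕ × ℝ → ℕ × (ℕ × ℝ) := fun n => zolb B I0 (coU u κ F) monW 67 X w n 0 with hf0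
  have hfbe : ∀ n, fb n = zolb B I0 (coU u κ F) monW 67 X w n bC := fun n => by
    funext x
    show (x.1, nlab B I0 (coU u κ F) monW 67 n (X n + w n • bC + w n • (0 : Fin 18 → ℝ)) x) =
      (x.1, nlab B I0 (coU u κ F) monW 67 n (X n + w n • bC) x)
    rw [smul_zero, add_zero]
  -- count of the labels
  have hcount : ∀ ε : ℝ, 0 < ε → ∀ᶠ n in (U : Filter ℕ), ∀ s ∈ J n,
      (((cls (J n) (fb n) s).image fun i => (fK n i, gl n i)).card : ℝ) ≤ B'.d n ^ (-ε) := by
    intro ε hε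
    have hε3 : 0 < ε / 3 := by positivity
    have hcN : 0 < 1 / max 1 (cN monW 67 (cK0 monW 67)) := by
      have : (0 : ℝ) < max 1 (cN monW 67 (cK0 monW 67)) := lt_of_lt_of_le one_pos (le_max_left _ _)
      positivity
    filter_upwards [iw.own.num (max ‖bC‖ ‖aK‖) (ε / 3) hε3, few (ε / 3) hε3,
      iw.win.legal ‖aK‖, iw.win.sub, B'.ev_rpow_small (η := ε / 3)
        (c := 1 / max 1 (cN monW 67 (cK0 monW 67))) hε3 hcN] with n n1 n2 n3 n4 n5 s hs
    set M : ℝ := max 1 (cN monW 67 (cK0 monW 67)) with hM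
    have hM0 : 0 < M := lt_of_lt_of_le one_pos (le_max_left _ _)
    have hp : ∀ t : ℝ, 0 < B'.d n ^ t := fun t => Real.rpow_pos_of_pos (B'.pos n) t
    -- labels at `aK` on an own class of `bC`
    have c1 : (((cls (J n) (fb n) s).image (fK n)).card : ℝ) ≤ B'.d n ^ (-(ε / 3)) := by
      have h1 := n1 bC hb.mem (le_max_left _ _) aK haKm (le_max_right _ _)
        (fun k => (hb0 k).trans (aKn k)) s hs
      rw [lob, loK, sub_zero, zero_add] at h1
      rw [hfbe]
      exact h1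
    -- interior labels on an own class of `aK`
    have c2 : ∀ s ∈ J n, (((cls (J n) (fK n) s).image (gl n)).card : ℝ) ≤
        M * B'.d n ^ (-(ε / 3)) := by
      intro s hs
      have h1 : (((cls (J n) (fK n) s).image (f0 n)).card : ℝ) ≤ M := by
        have l1 := n3 0 iw.win.zero (by rw [norm_zero]; exact norm_nonneg _)
        have l2 := n3 aK haKm le_rfl
        have l3 : X n + w n • (0 : Fin 18 → ℝ) ≤ X n + w n • aK := fun k => by
          simp only [Pi.add_apply, Pi.smul_apply, smul_eq_mul, Pi.zero_apply, mul_zero, add_zero]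
          have := mul_nonneg (iw.win.w0 n).le (aKn k)
          linarith
        have h2 := few_labels (B := B) iw.win.chart l1 l2 l3 n4 hs
        refine le_trans ?_ (h2.trans (le_max_right _ _))
        have h3 : (cls (J n) (fK n) s).image (f0 n) ⊆
            ((cls (J n) (nlab B I0 (coU u κ F) monW 67 n (X n + w n • aK)) s).image
              (nlab B I0 (coU u κ F) monW 67 n (X n + w n • (0 : Fin 18 → ℝ)))).image
              fun c => (s.1, c) := by
          intro c hc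
          obtain ⟨y, hy, rfl⟩ := mem_image.1 hc
          obtain ⟨a1, a2⟩ := mem_cls.1 hy
          obtain ⟨a3, a4⟩ := Prod.mk.inj a2
          refine mem_image.2 ⟨_, mem_image_of_mem _ (mem_cls.2 ⟨a1, a4⟩), ?_⟩
          rw [← a3]; rfl
        exact_mod_cast (card_le_card h3).trans card_image_le
      refine (card_image_thru (cls (J n) (fK n) s) (f0 n) (gl n) (M := B'.d n ^ (-(ε / 3)))
        fun y hy => ?_).trans (mul_le_mul_of_nonneg_right h1 (hp _).le)
      have hyJ := (mem_cls.1 hy).1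
      refine le_trans ?_ (n2 y hyJ)
      refine Nat.cast_le.2 (card_le_card (image_subset_image fun x hx => ?_))
      obtain ⟨b1, b2⟩ := mem_filter.1 hx
      exact mem_cls.2 ⟨(mem_cls.1 b1).1, b2⟩
    have c3 := card_image_pair (cls (J n) (fb n) s) (fK n) (gl n)
      (M := M * B'.d n ^ (-(ε / 3))) fun y hy => by
        have hyJ := (mem_cls.1 hy).1
        refine le_trans ?_ (c2 y hyJ)
        refine Nat.cast_le.2 (card_le_card (image_subset_image fun x hx => ?_))
        obtain ⟨b1, b2⟩ := mem_filter.1 hx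
        exact mem_cls.2 ⟨(mem_cls.1 b1).1, b2⟩
    refine c3.trans ?_
    calc (((cls (J n) (fb n) s).image (fK n)).card : ℝ) * (M * B'.d n ^ (-(ε / 3)))
        ≤ B'.d n ^ (-(ε / 3)) * (M * B'.d n ^ (-(ε / 3))) :=
          mul_le_mul_of_nonneg_right c1 (mul_nonneg hM0.le (hp _).le)
      _ ≤ B'.d n ^ (-(ε / 3)) * (B'.d n ^ (-(ε / 3)) * B'.d n ^ (-(ε / 3))) := by
          refine mul_le_mul_of_nonneg_left (mul_le_mul_of_nonneg_right ?_ (hp _).le) (hp _).le
          have h6 : B'.d n ^ (ε / 3) * M ≤ 1 := by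
            have := mul_le_mul_of_nonneg_right n5 hM0.le
            rwa [one_div, inv_mul_cancel₀ hM0.ne'] at this
          rw [Real.rpow_neg (B'.pos n).le, ← one_div, le_div_iff₀ (hp _)]
          linarith
      _ = B'.d n ^ (-ε) := by
          rw [← Real.rpow_add (B'.pos n), ← Real.rpow_add (B'.pos n)]; congr 1; ring
  obtain ⟨J', S, hS, hsub, hpop⟩ := popular_sub (B := B') hcount
  have H' : IW B B' I0 J' κ u F X w Dr Tn To lam lo :=
    iw_refine iw hsub hS (hpop.mono fun n hn => hn.1)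
  obtain ⟨s₀, h1, h2, h3⟩ := iw_exists_cls H' st hb
  refine ⟨J', s₀, hsub, H', h2, h3, ?_⟩
  filter_upwards [hpop, iw.win.legal ‖aK‖, H'.win.sub] with n n1 n2 n3 i hi i' hi' hl
  obtain ⟨a1, a2⟩ := mem_cls.1 hi
  obtain ⟨b1, b2⟩ := mem_cls.1 hi'
  have h4 : fb n i = fb n i' := by
    show (i.1, _) = (i'.1, _)
    rw [hl]
    exact congrArg _ (a2.trans b2.symm)
  have h5 := n1.2 i a1 i' b1 h4
  obtain ⟨h6, h7⟩ := Prod.mk.inj h5
  refine ⟨h7, fun k => ?_⟩
  obtain ⟨-, h8⟩ := Prod.mk.inj h6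
  have h9 := near_of_nlab iw.win.chart (n2 aK haKm le_rfl) (n3 a1) (n3 b1) h8 k
  refine h9.trans (le_of_eq ?_)
  have e1 : (X n + w n • aK) k = X n k + w n * aK k := rfl
  rw [e1, Real.rpow_add (B.pos n), Real.rpow_mul (B.pos n).le, ← iw.win.base n]

variable {j : Fin 14} {Tj : Finset (Fin 14)} {γ : Type} [DecidableEq γ] {gl : ℕ → ℕ × ℝ → γ}
  {ψ : ℕ → γ → ℝ} {K : ℝ}

/-- **class and dense part** of the hand-over -/
theorem RecLaw.exists_part
    (H : RecLaw θ g q V Dr P ν own r0 B B' I0 J κ u F X w Tn To lam lo j Tj γ gl ψ K)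
    (hcap : CapCl V) {bC : Fin 18 → ℝ} (hb : Nat QW (actW Dr) bC) (b0 : bC 0 = 0)
    (hb0 : ∀ k, bC k ≤ 0) {K1 : ℝ} (hK1 : 0 ≤ K1) :
    ∃ (J' : ℕ → Finset (ℕ × ℝ)) (s₀ : ℕ → ℕ × ℝ), (∀ n, J' n ⊆ J n) ∧
      IW B B' I0 J' κ u F X w Dr Tn To lam lo ∧
      ZCls B B' I0 J' (coU u κ F) monW 67 (fun n => X n + w n • bC) w
        {a | bC + a ∈ cn QW (actW Dr)} (fun n => Tn n * B'.d n ^ (-lam bC))
        (fun a => lam (bC + a) - lam bC)
        (fun n => cls (J' n) (zlab B I0 (coU u κ F) monW 67 (fun n => X n + w n • bC) w n 0)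
          (s₀ n)) s₀ ∧
      (∀ P ⊆ {a | bC + a ∈ cn QW (actW Dr)}, ∀ R : ℝ, (∀ p ∈ P, ‖p‖ ≤ R) → (∀ p ∈ P, 0 ≤ p) →
        TProf B' (fun n => cls (J' n)
            (zlab B I0 (coU u κ F) monW 67 (fun n => X n + w n • bC) w n 0) (s₀ n))
          (zolb B I0 (coU u κ F) monW 67 (fun n => X n + w n • bC) w) P
          (fun n => To n * B'.d n ^ (-lo bC)) (fun a => lo (bC + a) - lo bC)) ∧
      ∀ᶠ n in (U : Filter ℕ), ∀ i ∈ cls (J' n)
          (zlab B I0 (coU u κ F) monW 67 (fun n => X n + w n • bC) w n 0) (s₀ n),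
        ∀ i' ∈ cls (J' n)
          (zlab B I0 (coU u κ F) monW 67 (fun n => X n + w n • bC) w n 0) (s₀ n),
        i.1 = i'.1 → gl n i = gl n i' ∧ ∀ k, |coU u κ F n i i' k| ≤
          cK0 monW 67 * (B.d n ^ X n k * B'.d n ^ ob0 V K1 k) :=
  RL66.exists_part H.iw H.st H.few hcap hb b0 hb0 hK1

end win

end Crest.Agent.R136.RL66
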