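import Crest.Agent.R136.LnI_619
import Crest.Agent.R136.LinD_560
import Crest.Agent.R136.RLb_66

/-!
# R136, thin branch (helper403): `lin`, from the windows to one gauge on a dense part

* `LRel` : 560's `LinRel` in absolute units
* **`lin_front`** : an interior `ZWin` with the numbers of `lin` and 560's relation on every window
  give a dense part `J1` and ONE gauge `j` (all losses), supported on `Qj`, of natural size at the base
  of the window, with the relation of precision `K` for all pairs of every class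
-/

set_option autoImplicit false
set_option linter.unusedSectionVars false
set_option linter.unusedVariables false

open Filter Topology

namespace Crest.Agent.R136.LinF403

open Finset Crest.Agent.R138.Ex926 Crest.Agent.R136.Net191 Crest.Agent.R136.Gf356
open Crest.Agent.R136.Qg926 Crest.Agent.R136.Dg219 Crest.Agent.R136.Aw413
open Crest.Agent.R136.NetW191 Crest.Agent.R136.EvW938 Crest.Agent.R136.PrW464
open Crest.Agent.R136.LadW697 Crest.Agent.R136.AwJ774 Crest.Agent.R136.Bas938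
open Crest.Agent.R136.LadG697 (coU)
open Crest.Agent.R136.Int599 (iw)
open Crest.Agent.R136.Ln619 (LnL LnD ln_core)
open Crest.Agent.R138.Dp76 (Dense)

/-- the windows of 619 are windows of 560 -/
theorem lnW_560 {Dq Uq : Finset (Fin 18)} {W : Wnd 18 fun _ => ℕ × ℝ} {κ : ℕ → ℝ}
    {u : ℕ → Fin 18 → ℝ} {f : ∀ n : ℕ, ℕ × ℝ → FW} {mm σ x : ℝ}
    (g : Ln619.LnW Dq Uq W κ u f mm σ x) : Lin560.LnW Dq Uq W κ u f mm σ x :=
  { x0 := g.x0
    m0 := g.m0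
    s0 := g.s0
    ww := g.ww
    eS := g.eS
    etop := g.etop
    ekap := g.ekap
    dw := g.dw
    hk := g.hk
    tight := g.tight
    gap := g.gap
    room := g.room
    dens := g.dens
    frost := g.frost
    leg := g.leg
    n3 := g.n3
    n4 := g.n4
    n5 := g.n5 }

/-- side of the slot `4 + q` at the base -/
noncomputable def sda (B : Base) (Y u : ℕ → Fin 18 → ℝ) (n : ℕ) (q : Fin 14) : ℝ :=
  B.d n ^ Y n (Fin.natAdd 4 q) / u n (Fin.natAdd 4 q)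

/-- **`LinRel` in absolute units** -/
def LRel (Qj : Finset (Fin 14)) (B B' : Base) (Y : ℕ → Fin 18 → ℝ) (κ : ℕ → ℝ)
    (u : ℕ → Fin 18 → ℝ) (f : ℕ → ℕ × ℝ → FW) (n : ℕ) (s t : ℝ) (G : Finset (ℕ × ℝ)) : Prop :=
  ∃ j : ℕ × ℝ → Fin 14 → ℝ, (∀ y, ∀ q, q ∉ Qj → j y q = 0) ∧
    (∀ y ∈ G, ∀ q ∈ Qj, |j y q| ≤ B'.d n ^ (-s) * sda B Y u n q) ∧
    ∀ y ∈ G, ∀ y' ∈ G, ∀ q ∈ Qj ∪ {12},
      |coW (κ n) (f n y) (f n y') (Fin.natAdd 4 q) -
        (j y' q - tr (κ n) (rel (κ n) (f n y).g (f n y').g) (j y) q)| ≤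
        B'.d n ^ t * sda B Y u n q

theorem LRel.mono {Qj : Finset (Fin 14)} {B B' : Base} {Y : ℕ → Fin 18 → ℝ} {κ : ℕ → ℝ}
    {u : ℕ → Fin 18 → ℝ} {f : ℕ → ℕ × ℝ → FW} {n : ℕ} {s t : ℝ} {G G' : Finset (ℕ × ℝ)}
    (h : LRel Qj B B' Y κ u f n s t G) (hG : G' ⊆ G) : LRel Qj B B' Y κ u f n s t G' := by
  obtain ⟨j, h1, h2, h3⟩ := h
  exact ⟨j, h1, fun y hy => h2 y (hG hy), fun y hy y' hy' => h3 y (hG hy) y' (hG hy')⟩

theorem sda_pos {B : Base} {Y u : ℕ → Fin 18 → ℝ} {n : ℕ} (hu : GrU (u n)) (q : Fin 14) :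
    0 < sda B Y u n q :=
  div_pos (Real.rpow_pos_of_pos (B.pos n) _) (hu.pos _)

theorem LRel.weak {Qj : Finset (Fin 14)} {B B' : Base} {Y : ℕ → Fin 18 → ℝ} {κ : ℕ → ℝ}
    {u : ℕ → Fin 18 → ℝ} {f : ℕ → ℕ × ℝ → FW} {n : ℕ} {s s' t t' : ℝ} {G : Finset (ℕ × ℝ)}
    (h : LRel Qj B B' Y κ u f n s t G) (hu : GrU (u n)) (hs : s ≤ s') (ht : t' ≤ t) :
    LRel Qj B B' Y κ u f n s' t' G := by
  obtain ⟨j, h1, h2, h3⟩ := h
  refine ⟨j, h1, fun y hy q hq => (h2 y hy q hq).trans ?_,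
    fun y hy y' hy' q hq => (h3 y hy y' hy' q hq).trans ?_⟩
  · exact mul_le_mul_of_nonneg_right (Real.rpow_le_rpow_of_exponent_ge (B'.pos n) (B'.lt n).le
      (by linarith)) (sda_pos hu q).le
  · exact mul_le_mul_of_nonneg_right (Real.rpow_le_rpow_of_exponent_ge (B'.pos n) (B'.lt n).le
      ht) (sda_pos hu q).le

variable {B B' : Base} {I J : ℕ → Finset (ℕ × ℝ)}
  {kp : ℕ → ℝ} {u : ℕ → Fin 18 → ℝ} {f : ℕ → ℕ × ℝ → FW} {Y : ℕ → Fin 18 → ℝ}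
  {w : ℕ → ℝ} {Tz : ℕ → ℝ} {Ma : Mons 18} {Dr : Set (Fin 18)} {lam : (Fin 18 → ℝ) → ℝ}
  {x mm σ : ℝ} {Dq Uq : Finset (Fin 18)} {Qj : Finset (Fin 14)}

/-- **one gauge on a dense part** -/
theorem lin_front (hZ : ZWin B B' I J (coU u kp f) monW 67 Y w (coneM Ma) Tz lam)
    (hX : AwZ146.BasX monW Ma Ma Y w) (hA : ActM Ma Dr) (hDq : ∀ k, k ∈ Dr ↔ k ∈ Dq)
    (hgr : ∀ n, GrU (u n)) (hk1 : ∀ n, |kp n| ≤ 1) (hkp : B'.Sub fun n => |kp n|⁻¹)
    (hx : 0 < x) (hm : 0 < mm) (hσ : 0 < σ) (hD : LnD lam x) (hN : LnL Uq lam mm σ x) {K : ℝ}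
    (hrel : ∀ W : Wnd 18 fun _ => ℕ × ℝ, Lin560.LnW Dq Uq W kp u f mm σ x →
      ∀ ε : ℝ, 0 < ε → ∀ᶠ n in (U : Filter ℕ), ∃ G ⊆ W.Cl n,
        W.B'.d n ^ ε * ((W.Cl n).card : ℝ) ≤ (G.card : ℝ) ∧
        Lin560.LinRel Qj W kp u f n ε (K - ε) G) :
    ∃ J1 : ℕ → Finset (ℕ × ℝ), (∀ n, J1 n ⊆ J n) ∧ Dense B' J1 J ∧
      ∃ j : ℕ → ℕ × ℝ → Fin 14 → ℝ, (∀ n i p, p ∉ Qj → j n i p = 0) ∧
        (∀ ε : ℝ, 0 < ε → ∀ᶠ n in (U : Filter ℕ), ∀ i ∈ J1 n, ∀ p ∈ Qj,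
          |j n i p| ≤ B'.d n ^ (-ε) * sda B Y u n p) ∧
        ∀ ε : ℝ, 0 < ε → ∀ᶠ n in (U : Filter ℕ), ∀ i ∈ J1 n, ∀ i' ∈ J1 n,
          zlab B I (coU u kp f) monW 67 Y w n 0 i' = zlab B I (coU u kp f) monW 67 Y w n 0 i →
          ∀ q ∈ Qj ∪ {12}, |coW (kp n) (f n i) (f n i') (Fin.natAdd 4 q) -
            (j n i' q - tr (kp n) (rel (kp n) (f n i).g (f n i').g) (j n i) q)| ≤
            B'.d n ^ (K - ε) * sda B Y u n q := by
  classical
  obtain ⟨J1, h1, h2, h3⟩ := ln_core hZ hX hA hDq hgr hk1 hkp hx hm hσ hD hN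
    (fun n ε G => LRel Qj B B' Y kp u f n ε (K - ε) G)
    (fun n ε G G' hG h => h.mono hG)
    (fun n ε ε' G hε h => h.weak (hgr n) hε (by linarith))
    (fun Gd s₀ hW ε hε => by
      filter_upwards [hrel _ (lnW_560 hW) ε hε] with n hn
      obtain ⟨G, g1, g2, g3⟩ := hn
      exact ⟨G, g1, g2, g3⟩)
  obtain ⟨e, he, he0, h4⟩ := RL66.diag_eps _ h3
  -- the gauge of the class of a base incidence
  set lb : ℕ → ℕ × ℝ → _ := fun n i => zlab B I (coU u kp f) monW 67 Y w n 0 i with hlb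
  have hcls : ∀ᶠ n in (U : Filter ℕ), ∀ s ∈ J1 n,
      LRel Qj B B' Y kp u f n (e n) (K - e n) (cls (J1 n) (lb n) s) := h4
  -- representative of a class
  set rp : ℕ → ℕ × ℝ → ℕ × ℝ := fun n i =>
    if h : ∃ i' ∈ J1 n, lb n i' = lb n i then h.choose else i with hrp
  have hrp1 : ∀ n, ∀ i ∈ J1 n, rp n i ∈ J1 n ∧ lb n (rp n i) = lb n i := fun n i hi => by
    have h : ∃ i' ∈ J1 n, lb n i' = lb n i := ⟨i, hi, rfl⟩
    have e1 : rp n i = h.choose := dif_pos h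
    rw [e1]
    exact h.choose_spec
  have hrp2 : ∀ n, ∀ i ∈ J1 n, ∀ i' ∈ J1 n, lb n i' = lb n i → rp n i' = rp n i :=
    fun n i hi i' hi' hii => by
    simp only [hrp, hii]
    have h : ∃ i' ∈ J1 n, lb n i' = lb n i := ⟨i, hi, rfl⟩
    rw [dif_pos h, dif_pos h]
  set jj : ℕ → ℕ × ℝ → (ℕ × ℝ → Fin 14 → ℝ) := fun n s =>
    if h : LRel Qj B B' Y kp u f n (e n) (K - e n) (cls (J1 n) (lb n) s) then h.choose
    else 0 with hjj
  refine ⟨J1, h1, h2, fun n i => jj n (rp n i) i, fun n i p hp => ?_, fun ε hε => ?_,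
    fun ε hε => ?_⟩
  · by_cases h : LRel Qj B B' Y kp u f n (e n) (K - e n) (cls (J1 n) (lb n) (rp n i))
    · have e1 : jj n (rp n i) = h.choose := dif_pos h
      beta_reduce
      rw [e1]
      exact h.choose_spec.1 i p hp
    · have e1 : jj n (rp n i) = 0 := dif_neg h
      beta_reduce
      rw [e1]
      rfl
  · filter_upwards [hcls, he0.eventually_lt_const hε] with n hn hlt i hi p hp
    obtain ⟨r1, r2⟩ := hrp1 n i hi
    have h := hn _ r1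
    have e1 : jj n (rp n i) = h.choose := dif_pos h
    rw [e1]
    refine (h.choose_spec.2.1 i (mem_cls.2 ⟨hi, r2.symm⟩) p hp).trans ?_
    exact mul_le_mul_of_nonneg_right (Real.rpow_le_rpow_of_exponent_ge (B'.pos n) (B'.lt n).le
      (by linarith)) (sda_pos (hgr n) p).le
  · filter_upwards [hcls, he0.eventually_lt_const hε] with n hn hlt i hi i' hi' hii q hq
    obtain ⟨r1, r2⟩ := hrp1 n i hi
    have r3 := hrp2 n i hi i' hi' hii
    have h := hn _ r1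
    have e1 : jj n (rp n i) = h.choose := dif_pos h
    rw [r3, e1]
    refine (h.choose_spec.2.2 i (mem_cls.2 ⟨hi, r2.symm⟩) i'
      (mem_cls.2 ⟨hi', (hii.trans r2.symm)⟩) q hq).trans ?_
    exact mul_le_mul_of_nonneg_right (Real.rpow_le_rpow_of_exponent_ge (B'.pos n) (B'.lt n).le
      (by linarith)) (sda_pos (hgr n) q).le

end Crest.Agent.R136.LinF403
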