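import Crest.Agent.R136.LinF1_403
import Crest.Agent.R136.Js_893
import Crest.Agent.R136.LadW3_697

/-!
# R136, thin branch (helper403): `lin`, size of the gauge in the slot `15`

**`size15`** : `c` costs something at the box `p`, so the class of a typical incidence has a partner
with full `c`; the relation in the slot `16` (`= c * (slot 15)`) bounds the slot `15` of the gauge.
-/

set_option autoImplicit false
set_option linter.unusedSectionVars false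
set_option linter.unusedVariables false

open Filter Topology

namespace Crest.Agent.R136.LinF403

open Finset Crest.Agent.R138.Ex926 Crest.Agent.R136.Net191 Crest.Agent.R136.Gf356
open Crest.Agent.R136.Qg926 Crest.Agent.R136.Dg219 Crest.Agent.R136.Aw413
open Crest.Agent.R136.NetW191 Crest.Agent.R136.EvW938 Crest.Agent.R136.PrW464
open Crest.Agent.R136.LadW697 Crest.Agent.R136.AwJ774 Crest.Agent.R136.Bas938
open Crest.Agent.R136.LadG697 (coU)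
open Crest.Agent.R138.Dp76 (Dense)

/-- the slot `16` of a transported gauge supported on the slots `14, 15` -/
theorem tr_12 (κ : ℝ) (h : Fin 4 → ℝ) (w : Fin 14 → ℝ)
    (hw : ∀ p, p ∉ ({10, 11} : Finset (Fin 14)) → w p = 0) :
    tr κ h w 12 = -(κ * h 1 ^ 2 * w 10) + h 1 * w 11 := by
  have e : ∀ p : Fin 14, p ∉ ({10, 11} : Finset (Fin 14)) → w p = 0 := hw
  have h0 := e 0 (by decide)
  have h1 := e 1 (by decide)
  have h2 := e 2 (by decide)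
  have h3 := e 3 (by decide)
  have h4 := e 4 (by decide)
  have h5 := e 5 (by decide)
  have h6 := e 6 (by decide)
  have h7 := e 7 (by decide)
  have h8 := e 8 (by decide)
  have h9 := e 9 (by decide)
  have h12 := e 12 (by decide)
  have h13 := e 13 (by decide)
  show w 12 + 4 * κ ^ 2 * h 1 * h 2 ^ 3 * w 0 + 2 * κ * h 2 ^ 2 * h 3 * w 0
      - 2 * κ ^ 2 * h 0 * h 1 ^ 2 * h 2 ^ 2 * w 0 + 4 * κ * h 0 * h 1 * h 2 * h 3 * w 0
      + 2 * h 0 * h 3 ^ 2 * w 0 - 2 * κ * h 0 ^ 2 * h 1 ^ 2 * h 3 * w 0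
      - κ ^ 2 * h 1 ^ 2 * h 2 ^ 2 * w 1 + 2 * κ * h 1 * h 2 * h 3 * w 1 + h 3 ^ 2 * w 1
      - 2 * κ * h 0 * h 1 ^ 2 * h 3 * w 1 + 3 * κ * h 1 * h 2 ^ 2 * w 2 + h 2 * h 3 * w 2
      - κ * h 0 * h 1 ^ 2 * h 2 * w 2 + h 0 * h 1 * h 3 * w 2 - 2 * κ * h 1 ^ 2 * h 3 * w 3
      + κ * h 2 ^ 2 * w 4 + 2 * κ * h 0 * h 1 * h 2 * w 4 + 2 * h 0 * h 3 * w 4
      - κ * h 0 ^ 2 * h 1 ^ 2 * w 4 - κ * h 1 ^ 2 * h 2 * w 5 + h 1 * h 3 * w 5
      + 2 * h 1 * h 2 * w 6 + h 3 * w 7 - κ * h 0 * h 1 ^ 2 * w 7 + h 2 * w 8 + h 0 * h 1 * w 8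
      + 2 * h 0 * w 9 - κ * h 1 ^ 2 * w 10 + h 1 * w 11 = _
  rw [h0, h1, h2, h3, h4, h5, h6, h7, h8, h9, h12]
  ring

variable {B B' : Base} {I J : ℕ → Finset (ℕ × ℝ)}
  {kp : ℕ → ℝ} {u : ℕ → Fin 18 → ℝ} {f : ℕ → ℕ × ℝ → FW} {Y : ℕ → Fin 18 → ℝ}
  {w : ℕ → ℝ} {Tz : ℕ → ℝ} {Ma : Mons 18} {Dr : Set (Fin 18)} {lam : (Fin 18 → ℝ) → ℝ}

/-- kept walls are tight -/
theorem tight_list (hX : AwZ146.BasX monW Ma Ma Y w) (hA : ActM Ma Dr) {k : Fin 18} (hk : k ∉ Dr)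
    {l : List (Fin 18)} (hl : l ∈ mlW k) (hls : ∀ s ∈ l, s ∉ Dr) (n : ℕ) :
    Y n k = (l.map (Y n)).sum := by
  have := hX.act k _ ((hA.iff k _).2 ⟨hk, l, hl, hls, rfl⟩) n
  rwa [← sum_count] at this

theorem ml16a : ([1, 15] : List (Fin 18)) ∈ mlW 16 := by decide
theorem ml16b : ([1, 1, 14] : List (Fin 18)) ∈ mlW 16 := by decide

/-- real inequality of `size15` -/
theorem size15_real {u1 u14 u15 u16 h w10 w11 co er κ S1 S14 S15 S16 K ρ2 ρe ρ1 : ℝ}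
    (hu1 : 0 < u1) (hu14 : 0 < u14) (hu15 : 0 < u15) (e1 : u1 * u15 = u16)
    (e2 : u1 * (u1 * u14) = u16) (hκ : |κ| ≤ 1) (hK : 1 ≤ K) (S1p : 0 < S1) (S14p : 0 < S14)
    (s1 : S16 = S1 * S15) (s2 : S16 = S1 * (S1 * S14)) (r2 : 0 < ρ2) (re : 1 ≤ ρe) (r1 : 0 < ρ1)
    (hc : u1 * |h| ≤ K * S1 * ρ1) (hfar : K * S1 * (ρ1 * ρ2) ≤ u1 * |h|)
    (h10 : u14 * |w10| ≤ ρe * S14) (hco : u16 * |co| ≤ K * S16 * ρ1 ^ 2)
    (her : u16 * |er| ≤ ρe * S16 * ρ1 ^ 2)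
    (hrel : co - er = κ * h ^ 2 * w10 - h * w11) :
    u15 * |w11| * ρ2 ≤ 3 * K * ρe * S15 * ρ1 := by
  have hu16 : 0 < u16 := by rw [← e1]; positivity
  have S16p : 0 < S16 := by rw [s2]; positivity
  have S15p : 0 < S15 := by
    rw [s1] at S16p
    exact (mul_pos_iff_of_pos_left S1p).1 S16p
  have k1 : |h * w11| ≤ |co| + |er| + |h| ^ 2 * |w10| := by
    have e : h * w11 = -co + er + κ * h ^ 2 * w10 := by linarith
    rw [e]
    refine (abs_add_le _ _).trans ?_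
    have a1 : |-co + er| ≤ |co| + |er| := by
      refine (abs_add_le _ _).trans ?_
      rw [abs_neg]
    have a2 : |κ * h ^ 2 * w10| ≤ |h| ^ 2 * |w10| := by
      rw [abs_mul, abs_mul, abs_pow]
      refine mul_le_mul_of_nonneg_right ?_ (abs_nonneg _)
      exact mul_le_of_le_one_left (by positivity) hκ
    linarith
  have k2 : (u1 * |h|) * (u15 * |w11|) ≤ 3 * K ^ 2 * ρe * S16 * ρ1 ^ 2 := by
    have b1 : (u1 * |h|) * (u15 * |w11|) = u16 * |h * w11| := by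
      rw [← e1, abs_mul]; ring
    rw [b1]
    have b2 : u16 * (|h| ^ 2 * |w10|) ≤ K ^ 2 * ρe * S16 * ρ1 ^ 2 := by
      have c1 : u16 * (|h| ^ 2 * |w10|) = (u1 * |h|) ^ 2 * (u14 * |w10|) := by
        rw [← e2]; ring
      rw [c1]
      have c2 : (u1 * |h|) ^ 2 ≤ (K * S1 * ρ1) ^ 2 :=
        pow_le_pow_left₀ (by positivity) hc 2
      calc (u1 * |h|) ^ 2 * (u14 * |w10|) ≤ (K * S1 * ρ1) ^ 2 * (ρe * S14) :=
            mul_le_mul c2 h10 (by positivity) (by positivity)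
        _ = K ^ 2 * ρe * S16 * ρ1 ^ 2 := by rw [s2]; ring
    have b3 : K * S16 * ρ1 ^ 2 ≤ K ^ 2 * ρe * S16 * ρ1 ^ 2 := by
      have : K ≤ K ^ 2 * ρe := by nlinarith [mul_nonneg (by linarith : (0:ℝ) ≤ K - 1) (by linarith : (0:ℝ) ≤ ρe - 1), mul_nonneg (by linarith : (0:ℝ) ≤ K) (by linarith : (0:ℝ) ≤ K - 1), sq_nonneg K]
      have h0 : 0 ≤ S16 * ρ1 ^ 2 := by positivity
      nlinarith
    have b4 : ρe * S16 * ρ1 ^ 2 ≤ K ^ 2 * ρe * S16 * ρ1 ^ 2 := by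
      have : 1 ≤ K ^ 2 := one_le_pow₀ hK
      have h0 : 0 ≤ ρe * S16 * ρ1 ^ 2 := by positivity
      nlinarith
    have b5 := mul_le_mul_of_nonneg_left k1 hu16.le
    have b6 : u16 * (|co| + |er| + |h| ^ 2 * |w10|) =
        u16 * |co| + u16 * |er| + u16 * (|h| ^ 2 * |w10|) := by ring
    rw [b6] at b5
    linarith
  have k3 : (K * S1 * (ρ1 * ρ2)) * (u15 * |w11|) ≤ 3 * K ^ 2 * ρe * S16 * ρ1 ^ 2 :=
    (mul_le_mul_of_nonneg_right hfar (by positivity)).trans k2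
  have k4 : K * S1 * ρ1 * (u15 * |w11| * ρ2) ≤ K * S1 * ρ1 * (3 * K * ρe * S15 * ρ1) := by
    have d1 : K * S1 * ρ1 * (u15 * |w11| * ρ2) = (K * S1 * (ρ1 * ρ2)) * (u15 * |w11|) := by ring
    have d2 : K * S1 * ρ1 * (3 * K * ρe * S15 * ρ1) = 3 * K ^ 2 * ρe * S16 * ρ1 ^ 2 := by
      rw [s1]; ring
    rw [d1, d2]; exact k3
  exact le_of_mul_le_mul_left k4 (by positivity)

/-- **size of the gauge in the slot `15`** -/
theorem size15 (hZ : ZWin B B' I J (coU u kp f) monW 67 Y w (coneM Ma) Tz lam)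
    (hX : AwZ146.BasX monW Ma Ma Y w) (hA : ActM Ma Dr)
    (h1 : (1 : Fin 18) ∉ Dr) (h14 : (14 : Fin 18) ∉ Dr) (h15 : (15 : Fin 18) ∉ Dr)
    (h16 : (16 : Fin 18) ∉ Dr) (hgr : ∀ n, GrU (u n)) (hk1 : ∀ n, |kp n| ≤ 1)
    {J1 : ℕ → Finset (ℕ × ℝ)} (hJ1 : Dense B' J1 J) {j : ℕ → ℕ × ℝ → Fin 14 → ℝ}
    (supp : ∀ n i p, p ∉ ({10, 11} : Finset (Fin 14)) → j n i p = 0)
    (size : ∀ ε : ℝ, 0 < ε → ∀ᶠ n in (U : Filter ℕ), ∀ i ∈ J1 n,
      ∀ p ∈ ({10, 11} : Finset (Fin 14)), |j n i p| ≤ B'.d n ^ (-ε) * sda B Y u n p)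
    {K w1 : ℝ} (hw1 : 0 ≤ w1) (hK : 2 * w1 ≤ K)
    (pair : ∀ ε : ℝ, 0 < ε → ∀ᶠ n in (U : Filter ℕ), ∀ i ∈ J1 n, ∀ i' ∈ J1 n,
      zlab B I (coU u kp f) monW 67 Y w n 0 i' = zlab B I (coU u kp f) monW 67 Y w n 0 i →
      |coW (kp n) (f n i) (f n i') (Fin.natAdd 4 (12 : Fin 14)) -
        (j n i' 12 - tr (kp n) (rel (kp n) (f n i).g (f n i').g) (j n i) 12)| ≤
        B'.d n ^ (K - ε) * sda B Y u n 12)
    {p : Fin 18 → ℝ} (hp : p ∈ coneM Ma) (p0 : 0 ≤ p) (p1 : p 1 = w1) (p16 : p 16 = 2 * w1)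
    (pe : ∀ t : ℝ, 0 ≤ t → p + t • e1W ∈ coneM Ma)
    (hsw : ∀ t : ℝ, 0 < t → lam (p + t • e1W) < lam p) :
    ∃ J2 : ℕ → Finset (ℕ × ℝ), (∀ n, J2 n ⊆ J1 n) ∧ Dense B' J2 J ∧
      ∀ ε : ℝ, 0 < ε → ∀ᶠ n in (U : Filter ℕ), ∀ i ∈ J2 n,
        |j n i 11| ≤ B'.d n ^ (w1 - ε) * sda B Y u n 11 := by
  obtain ⟨J2, a1, a2, a3⟩ := Js893.far_dense hZ hJ1 (a := 0) hZ.zero (fun _ => p)
    (fun k => p + (1 / ((k : ℝ) + 1)) • e1W) (fun _ => hp) (fun k => pe _ (by positivity))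
    (fun _ => p0) (fun k => hsw _ (by positivity))
  refine ⟨J2, a1, a2, fun ε hε => ?_⟩
  obtain ⟨k, hk⟩ := exists_nat_one_div_lt (show (0:ℝ) < ε / 4 by positivity)
  set δ : ℝ := 1 / ((k : ℝ) + 1) with hδ
  have hC0 : 1 ≤ cK0 monW 67 := cK0_one (hZ.chart 0).C0
  have hC3 : 0 < 3 * cK0 monW 67 := by linarith
  filter_upwards [a3 k, size (ε / 4) (by positivity), pair (ε / 4) (by positivity),
    Qg926.ev_const_le B' hC3 (ε := ε / 4) (by positivity)] with n b1 b2 b3 b4 i hi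
  obtain ⟨i', hi', hl, hb, hnb⟩ := b1 i hi
  have hiJ := a1 n hi
  have hu := (hgr n).pos
  have hρ := B'.pos n
  have hρ1 := (B'.lt n).le
  have pw : ∀ t : ℝ, 0 < B'.d n ^ t := fun t => Real.rpow_pos_of_pos hρ t
  set h : Fin 4 → ℝ := rel (kp n) (f n i).g (f n i').g with hh
  have hc1 : |coU u kp f n i i' 1| = u n 1 * |h 1| := by
    show |u n 1 * coW (kp n) (f n i) (f n i') (Fin.castAdd 14 1)| = _
    rw [coW_left, abs_mul, abs_of_pos (hu 1)]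
  have hc16 : |coU u kp f n i i' 16| =
      u n 16 * |coW (kp n) (f n i) (f n i') (Fin.natAdd 4 (12 : Fin 14))| := by
    show |u n 16 * coW (kp n) (f n i) (f n i') (Fin.natAdd 4 (12 : Fin 14))| = _
    rw [abs_mul, abs_of_pos (hu 16)]
  -- `c` is far
  have far : cK0 monW 67 * (B.d n ^ Y n 1) * (B'.d n ^ w1 * B'.d n ^ δ) ≤ u n 1 * |h 1| := by
    by_contra hcon
    push Not at hcon
    refine hnb fun s => ?_
    by_cases hs : s = 1
    · subst hs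
      rw [hc1]
      have e1 : (p + δ • e1W) 1 = w1 + δ := by
        simp only [Pi.add_apply, Pi.smul_apply, smul_eq_mul, p1]
        simp [e1W]
      rw [e1, Real.rpow_add hρ]
      have := hcon.le
      calc u n 1 * |h 1| ≤ cK0 monW 67 * (B.d n ^ Y n 1) * (B'.d n ^ w1 * B'.d n ^ δ) := this
        _ = _ := by ring
    · have e1 : (p + δ • e1W) s = p s := by
        simp only [Pi.add_apply, Pi.smul_apply, smul_eq_mul]
        unfold e1W
        rw [Pi.single_eq_of_ne hs, mul_zero, add_zero]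
      rw [e1]
      exact hb s
  have t1 := tight_list hX hA h16 ml16a (fun s hs => by
    rcases List.mem_cons.1 hs with e | hs
    · rw [e]; exact h1
    · rw [List.mem_singleton.1 hs]; exact h15) n
  have t2 := tight_list hX hA h16 ml16b (fun s hs => by
    rcases List.mem_cons.1 hs with e | hs
    · rw [e]; exact h1
    rcases List.mem_cons.1 hs with e | hs
    · rw [e]; exact h1
    · rw [List.mem_singleton.1 hs]; exact h14) n
  have m1 := (hgr n).mul 16 _ ml16a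
  have m2 := (hgr n).mul 16 _ ml16b
  simp only [List.map_cons, List.map_nil, List.sum_cons, List.sum_nil, add_zero] at t1 t2
  simp only [List.map_cons, List.map_nil, List.prod_cons, List.prod_nil, mul_one] at m1 m2
  have hB := B.pos n
  have e10 : Fin.natAdd 4 (10 : Fin 14) = (14 : Fin 18) := rfl
  have e11 : Fin.natAdd 4 (11 : Fin 14) = (15 : Fin 18) := rfl
  have e12 : Fin.natAdd 4 (12 : Fin 14) = (16 : Fin 18) := rfl
  have hj12 : j n i' 12 = 0 := supp n i' 12 (by decide)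
  have htr := tr_12 (kp n) h (j n i) (supp n i)
  set er : ℝ := coW (kp n) (f n i) (f n i') (Fin.natAdd 4 (12 : Fin 14)) -
    (j n i' 12 - tr (kp n) h (j n i) 12) with her
  have hre : coW (kp n) (f n i) (f n i') (Fin.natAdd 4 (12 : Fin 14)) - er =
      kp n * h 1 ^ 2 * j n i 10 - h 1 * j n i 11 := by
    rw [her, htr, hj12]; ring
  have key := size15_real (u1 := u n 1) (u14 := u n 14) (u15 := u n 15) (u16 := u n 16)
    (h := h 1) (w10 := j n i 10) (w11 := j n i 11)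
    (co := coW (kp n) (f n i) (f n i') (Fin.natAdd 4 (12 : Fin 14))) (er := er) (κ := kp n)
    (S1 := B.d n ^ Y n 1) (S14 := B.d n ^ Y n 14) (S15 := B.d n ^ Y n 15) (S16 := B.d n ^ Y n 16)
    (K := cK0 monW 67) (ρ2 := B'.d n ^ δ) (ρe := B'.d n ^ (-(ε / 4))) (ρ1 := B'.d n ^ w1)
    (hu 1) (hu 14) (hu 15) m1 m2 (hk1 n) hC0 (Real.rpow_pos_of_pos hB _)
    (Real.rpow_pos_of_pos hB _) (by rw [← Real.rpow_add hB, ← t1])
    (by rw [← Real.rpow_add hB, ← Real.rpow_add hB, ← t2]) (pw _)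
    (Real.one_le_rpow_of_pos_of_le_one_of_nonpos hρ hρ1 (by linarith)) (pw _)
    (by
      have := hb 1
      rw [hc1, p1] at this
      linarith) far
    (by
      have := b2 i hiJ 10 (by decide)
      rw [sda, e10, ← mul_div_assoc, le_div_iff₀ (hu 14)] at this
      linarith)
    (by
      have := hb 16
      rw [hc16, p16] at this
      have e : B'.d n ^ w1 ^ 2 = B'.d n ^ w1 ^ 2 := rfl
      have e2 : (B'.d n ^ w1) ^ 2 = B'.d n ^ (2 * w1) := by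
        rw [two_mul, Real.rpow_add hρ, sq]
      rw [e2]
      linarith)
    (by
      have := b3 i hiJ i' hi' hl
      rw [sda, e12, ← mul_div_assoc, le_div_iff₀ (hu 16)] at this
      have e2 : (B'.d n ^ w1) ^ 2 = B'.d n ^ (2 * w1) := by
        rw [two_mul, Real.rpow_add hρ, sq]
      have e3 : B'.d n ^ (K - ε / 4) ≤ B'.d n ^ (-(ε / 4)) * B'.d n ^ (2 * w1) := by
        rw [← Real.rpow_add hρ]
        exact Real.rpow_le_rpow_of_exponent_ge hρ hρ1 (by linarith)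
      have e4 : |er| * u n 16 ≤ B'.d n ^ (K - ε / 4) * B.d n ^ Y n 16 := this
      have e5 := mul_le_mul_of_nonneg_right e3 (Real.rpow_pos_of_pos hB (Y n 16)).le
      rw [e2]
      nlinarith)
    hre
  rw [sda, e11, ← mul_div_assoc, le_div_iff₀ (hu 15)]
  -- divide by `ρ ^ δ`
  have k1 : u n 15 * |j n i 11| * B'.d n ^ δ ≤
      B'.d n ^ (-(ε / 4)) * B'.d n ^ (-(ε / 4)) * B.d n ^ Y n 15 * B'.d n ^ w1 := by
    refine key.trans ?_
    have h0 : 0 ≤ B'.d n ^ (-(ε / 4)) * B.d n ^ Y n 15 * B'.d n ^ w1 :=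
      mul_nonneg (mul_nonneg (pw _).le (Real.rpow_pos_of_pos hB _).le) (pw _).le
    have := mul_le_mul_of_nonneg_right b4 h0
    linarith
  have k2 : u n 15 * |j n i 11| ≤
      B'.d n ^ (-(ε / 4)) * B'.d n ^ (-(ε / 4)) * B.d n ^ Y n 15 * B'.d n ^ w1 * B'.d n ^ (-δ) := by
    have h0 := mul_le_mul_of_nonneg_right k1 (pw (-δ)).le
    rwa [mul_assoc (u n 15 * |j n i 11|), ← Real.rpow_add hρ, add_neg_cancel, Real.rpow_zero,
      mul_one] at h0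
  have k3 : B'.d n ^ (-(ε / 4)) * B'.d n ^ (-(ε / 4)) * B.d n ^ Y n 15 * B'.d n ^ w1 *
      B'.d n ^ (-δ) ≤ B'.d n ^ (w1 - ε) * B.d n ^ Y n 15 := by
    have e : B'.d n ^ (-(ε / 4)) * B'.d n ^ (-(ε / 4)) * B.d n ^ Y n 15 * B'.d n ^ w1 *
        B'.d n ^ (-δ) = B'.d n ^ (-(ε / 4) + -(ε / 4) + w1 + -δ) * B.d n ^ Y n 15 := by
      rw [Real.rpow_add hρ, Real.rpow_add hρ, Real.rpow_add hρ]; ring
    rw [e]
    exact mul_le_mul_of_nonneg_right (Real.rpow_le_rpow_of_exponent_ge hρ hρ1 (by linarith))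
      (Real.rpow_pos_of_pos hB _).le
  rw [mul_comm]
  exact k2.trans k3

end Crest.Agent.R136.LinF403
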