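import Crest.Agent.R136.LinV_938

/-!
# R136, thin branch, `lin` (helper938): facts of the window of `lin`

* `line_ty`, `line_evo`, `pos_r`, `ty_q`, `q_ty` : facts of the lines at one `n`
-/

set_option autoImplicit false
set_option linter.unusedSectionVars false
set_option linter.unusedVariables false

open Filter Topology

namespace Crest.Agent.R136.Lin938

open Finset Crest.Agent.R138.Ex926 Crest.Agent.R136.Net191 Crest.Agent.R136.Gf356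
open Crest.Agent.R136.Qg926 Crest.Agent.R136.NetW191 Crest.Agent.R136.EvW938
open Crest.Agent.R136.QdH887 (bv)
open Crest.Agent.R136.Lin560

/-! ### numbers -/

theorem am {x y X Y : ℝ} (hx : |x| ≤ X) (hy : |y| ≤ Y) : |x * y| ≤ X * Y :=
  (abs_mul x y).le.trans (mul_le_mul hx hy (abs_nonneg _) ((abs_nonneg _).trans hx))

section num

variable {K δ η κ χ ca ce cb ce' z φ A2 A3 A17 P16 w15 w14 Pa Pe Pb Pe' e1 A1 r : ℝ}

/-- `P` on one line -/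
theorem num_line (hK : 1 ≤ K) (hδ : 0 ≤ δ) (hδ1 : δ ≤ 1) (hκ : |κ| ≤ 1) (hχ : |χ| ≤ 1)
    (h1 : |A1| ≤ K * δ) (h16 : |P16| ≤ K * δ) (h15 : |w15| ≤ K) (h14 : |w14| ≤ K)
    (hP : |Pa - (Pe + P16 + A1 * w15 - χ * (κ * (A1 ^ 2 * w14)))| ≤ δ) :
    |Pa - Pe| ≤ 4 * K ^ 3 * δ := by
  have k1 : K * δ ≤ K ^ 3 * δ := mul_le_mul_of_nonneg_right
    (by simpa using pow_le_pow_right₀ hK (show 1 ≤ 3 by norm_num)) hδ
  have k2 : K * K * δ ≤ K ^ 3 * δ := mul_le_mul_of_nonneg_right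
    (by rw [← pow_two]; exact pow_le_pow_right₀ hK (by norm_num)) hδ
  have k0 : δ ≤ K ^ 3 * δ := by nlinarith [one_le_pow₀ hK (n := 3)]
  have hK0 : 0 ≤ K := by linarith
  have m1 : |A1 * w15| ≤ K * δ * K := am h1 h15
  have m2 : |A1 ^ 2 * w14| ≤ (K * δ) ^ 2 * K := am (by rw [abs_pow]; gcongr) h14
  have m3 : |κ * (A1 ^ 2 * w14)| ≤ 1 * ((K * δ) ^ 2 * K) := am hκ m2
  have m4 : |χ * (κ * (A1 ^ 2 * w14))| ≤ 1 * (1 * ((K * δ) ^ 2 * K)) := am hχ m3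
  have m5 : (K * δ) ^ 2 * K ≤ K ^ 3 * δ := by
    have : δ ^ 2 ≤ δ := by nlinarith
    calc (K * δ) ^ 2 * K = K ^ 3 * δ ^ 2 := by ring
      _ ≤ _ := mul_le_mul_of_nonneg_left this (by positivity)
  rw [abs_le] at *
  constructor <;> nlinarith

/-- `A` of the evolution -/
theorem num_evoA (hK : 1 ≤ K) (hδ : 0 ≤ δ) (h2 : |A2| ≤ K * δ) (hca : |ca - ce| ≤ K * δ)
    (hce : |ce| ≤ K) (hz : |z| ≤ K) (hzφ : |z - φ| ≤ 2 * K * δ) {Ab Aa : ℝ}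
    (hA : Ab = Aa + A2 + ca * z) : |Ab - Aa - φ * ce| ≤ 10 * K ^ 4 * δ := by
  have e : Ab - Aa - φ * ce = A2 + (ca - ce) * z + ce * (z - φ) := by rw [hA]; ring
  have m1 := am hca hz
  have m2 := am hce hzφ
  rw [e]
  have k1 : K ≤ K ^ 4 := by nlinarith [one_le_pow₀ hK (n := 3)]
  have k2 : K ^ 2 ≤ K ^ 4 := pow_le_pow_right₀ hK (by norm_num)
  have h3 := abs_add_le (A2 + (ca - ce) * z) (ce * (z - φ))
  have h4 := abs_add_le A2 ((ca - ce) * z)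
  have k1' := mul_le_mul_of_nonneg_right k1 hδ
  have k2' := mul_le_mul_of_nonneg_right k2 hδ
  have k3 : 0 ≤ K ^ 4 * δ := by positivity
  nlinarith

/-- `B` of the evolution -/
theorem num_evoB (hK : 1 ≤ K) (hδ : 0 ≤ δ) (hκ : |κ| ≤ 1) (h2 : |A2| ≤ K * δ) (h3 : |A3| ≤ K * δ)
    (hca : |ca - ce| ≤ K * δ) (hce : |ce| ≤ K) (hca' : |ca| ≤ K) (hz : |z| ≤ K)
    (hzφ : |z - φ| ≤ 2 * K * δ) {Bb Ba : ℝ}
    (hB : Bb = Ba + A3 - 2 * κ * (ca * A2) - κ * (ca ^ 2 * z)) :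
    |Bb - Ba - φ * (-(κ * ce ^ 2))| ≤ 10 * K ^ 4 * δ := by
  have e : Bb - Ba - φ * (-(κ * ce ^ 2)) = A3 - 2 * (κ * (ca * A2)) -
      κ * ((ca - ce) * (ca + ce) * z + ce ^ 2 * (z - φ)) := by rw [hB]; ring
  have m1 := am hκ (am hca' h2)
  have m2 : |ca + ce| ≤ 2 * K := (abs_add_le _ _).trans (by linarith)
  have m3 := am (am hca m2) hz
  have m4 : |ce ^ 2 * (z - φ)| ≤ K ^ 2 * (2 * K * δ) := am (by rw [abs_pow]; gcongr) hzφ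
  have m5 : |(ca - ce) * (ca + ce) * z + ce ^ 2 * (z - φ)| ≤
      K * δ * (2 * K) * K + K ^ 2 * (2 * K * δ) := (abs_add_le _ _).trans (add_le_add m3 m4)
  have m6 := am hκ m5
  rw [e]
  have k1 : K ≤ K ^ 4 := by nlinarith [one_le_pow₀ hK (n := 3)]
  have k2 : K ^ 2 ≤ K ^ 4 := pow_le_pow_right₀ hK (by norm_num)
  have k3 : K ^ 3 ≤ K ^ 4 := pow_le_pow_right₀ hK (by norm_num)
  have k1' := mul_le_mul_of_nonneg_right k1 hδ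
  have k2' := mul_le_mul_of_nonneg_right k2 hδ
  have k3' := mul_le_mul_of_nonneg_right k3 hδ
  have k4 : 0 ≤ K ^ 4 * δ := by positivity
  rw [abs_le] at *
  constructor <;> nlinarith

/-- `N` of the evolution -/
theorem num_evoN (hK : 1 ≤ K) (hδ : 0 ≤ δ) (hχ : |χ| ≤ 1) (h2 : |A2| ≤ K * δ) (h3 : |A3| ≤ K * δ)
    (h17 : |A17| ≤ K * δ) (h15 : |w15| ≤ K) (h14 : |w14| ≤ K) (hPa : |Pa - Pe| ≤ 4 * K ^ 3 * δ)
    (hPe : |Pe| ≤ K) (hz : |z| ≤ K) (hzφ : |z - φ| ≤ 2 * K * δ) {Nb Na : ℝ}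
    (hN : |Nb - (Na + A17 + z * Pa + A2 * w15 + χ * (A3 * w14))| ≤ δ) :
    |Nb - Na - φ * Pe| ≤ 10 * K ^ 4 * δ := by
  have e : Nb - Na - φ * Pe = (Nb - (Na + A17 + z * Pa + A2 * w15 + χ * (A3 * w14))) + A17 +
      (z * (Pa - Pe) + (z - φ) * Pe) + A2 * w15 + χ * (A3 * w14) := by ring
  have m1 := am hz hPa
  have m2 := am hzφ hPe
  have m3 := am h2 h15
  have m4 := am hχ (am h3 h14)
  rw [e]
  have k0 : 1 ≤ K ^ 4 := one_le_pow₀ hK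
  have k1 : K ≤ K ^ 4 := by nlinarith [one_le_pow₀ hK (n := 3)]
  have k2 : K ^ 2 ≤ K ^ 4 := pow_le_pow_right₀ hK (by norm_num)
  have k0' := mul_le_mul_of_nonneg_right k0 hδ
  have k1' := mul_le_mul_of_nonneg_right k1 hδ
  have k2' := mul_le_mul_of_nonneg_right k2 hδ
  have k4 : 0 ≤ K ^ 4 * δ := by positivity
  rw [abs_le] at *
  constructor <;> nlinarith

/-- positions at one height -/
theorem num_rA (hK : 1 ≤ K) (hη : 0 ≤ η) (h2 : |A2| ≤ η) (hca : |ca| ≤ K) (hz : |z| ≤ K * η)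
    {Ab Aa : ℝ} (hA : Ab = Aa + A2 + ca * z) : |Ab - Aa| ≤ 10 * K ^ 4 * η := by
  have e : Ab - Aa = A2 + ca * z := by rw [hA]; ring
  have m1 := am hca hz
  rw [e]
  have k0 : 1 ≤ K ^ 4 := one_le_pow₀ hK
  have k2 : K ^ 2 ≤ K ^ 4 := pow_le_pow_right₀ hK (by norm_num)
  have k0' := mul_le_mul_of_nonneg_right k0 hη
  have k2' := mul_le_mul_of_nonneg_right k2 hη
  rw [abs_le] at *
  constructor <;> nlinarith

theorem num_rB (hK : 1 ≤ K) (hη : 0 ≤ η) (hκ : |κ| ≤ 1) (h2 : |A2| ≤ η) (h3 : |A3| ≤ η)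
    (hca : |ca| ≤ K) (hz : |z| ≤ K * η) {Bb Ba : ℝ}
    (hB : Bb = Ba + A3 - 2 * κ * (ca * A2) - κ * (ca ^ 2 * z)) :
    |Bb - Ba| ≤ 10 * K ^ 4 * η := by
  have e : Bb - Ba = A3 - 2 * (κ * (ca * A2)) - κ * (ca ^ 2 * z) := by rw [hB]; ring
  have m1 := am hκ (am hca h2)
  have m2 : |ca ^ 2 * z| ≤ K ^ 2 * (K * η) := am (by rw [abs_pow]; gcongr) hz
  have m3 := am hκ m2
  rw [e]
  have k0 : 1 ≤ K ^ 4 := one_le_pow₀ hK
  have k1 : K ≤ K ^ 4 := by nlinarith [one_le_pow₀ hK (n := 3)]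
  have k3 : K ^ 3 ≤ K ^ 4 := pow_le_pow_right₀ hK (by norm_num)
  have k0' := mul_le_mul_of_nonneg_right k0 hη
  have k1' := mul_le_mul_of_nonneg_right k1 hη
  have k3' := mul_le_mul_of_nonneg_right k3 hη
  rw [abs_le] at *
  constructor <;> nlinarith

theorem num_rN (hK : 1 ≤ K) (hη : 0 ≤ η) (hχ : |χ| ≤ 1) (h2 : |A2| ≤ η)
    (h3 : |χ * (A3 * w14)| ≤ K * η) (h17 : |A17| ≤ η) (h15 : |w15| ≤ K) (hPa : |Pa| ≤ K)
    (hz : |z| ≤ K * η) {Nb Na : ℝ}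
    (hN : |Nb - (Na + A17 + z * Pa + A2 * w15 + χ * (A3 * w14))| ≤ η) :
    |Nb - Na| ≤ 10 * K ^ 4 * η := by
  have e : Nb - Na = (Nb - (Na + A17 + z * Pa + A2 * w15 + χ * (A3 * w14))) + A17 +
      z * Pa + A2 * w15 + χ * (A3 * w14) := by ring
  have m1 := am hz hPa
  have m3 := am h2 h15
  rw [e]
  have k0 : 1 ≤ K ^ 4 := one_le_pow₀ hK
  have k1 : K ≤ K ^ 4 := by nlinarith [one_le_pow₀ hK (n := 3)]
  have k2 : K ^ 2 ≤ K ^ 4 := pow_le_pow_right₀ hK (by norm_num)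
  have k0' := mul_le_mul_of_nonneg_right k0 hη
  have k1' := mul_le_mul_of_nonneg_right k1 hη
  have k2' := mul_le_mul_of_nonneg_right k2 hη
  rw [abs_le] at *
  constructor <;> nlinarith

/-- types: from the slots `c`, `P` -/
theorem num_qc (hK : 1 ≤ K) (hη : 0 ≤ η) (h1 : |A1| ≤ η) (ha : |ca - ce| ≤ K * η)
    (hb : |cb - ce'| ≤ K * η) (hc : cb = ca + A1) : |ce' - ce| ≤ 20 * K ^ 4 * η := by
  have e : ce' - ce = -(cb - ce') + A1 + (ca - ce) := by rw [hc]; ring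
  rw [e]
  have k0 : 1 ≤ K ^ 4 := one_le_pow₀ hK
  have k1 : K ≤ K ^ 4 := by nlinarith [one_le_pow₀ hK (n := 3)]
  have k0' := mul_le_mul_of_nonneg_right k0 hη
  have k1' := mul_le_mul_of_nonneg_right k1 hη
  rw [abs_le] at *
  constructor <;> nlinarith

theorem num_qP (hK : 1 ≤ K) (hη : 0 ≤ η) (hκ : |κ| ≤ 1) (hχ : |χ| ≤ 1) (h1 : |A1| ≤ η)
    (h1' : |A1| ≤ K) (h16 : |P16| ≤ η) (h15 : |w15| ≤ K) (h14 : |w14| ≤ K)
    (ha : |Pa - Pe| ≤ 4 * K ^ 3 * η) (hb : |Pb - Pe'| ≤ 4 * K ^ 3 * η)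
    (hP : |Pb - (Pa + P16 + A1 * w15 - χ * (κ * (A1 ^ 2 * w14)))| ≤ η) :
    |Pe' - Pe| ≤ 20 * K ^ 4 * η := by
  have e : Pe' - Pe = -(Pb - Pe') + (Pb - (Pa + P16 + A1 * w15 - χ * (κ * (A1 ^ 2 * w14)))) +
      P16 + A1 * w15 - χ * (κ * (A1 ^ 2 * w14)) + (Pa - Pe) := by ring
  have m1 := am h1 h15
  have m2 : |A1 ^ 2 * w14| ≤ K * η * K := by
    have : |A1 ^ 2| ≤ K * η := by rw [pow_two]; exact am h1' h1
    exact am this h14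
  have m4 := am hχ (am hκ m2)
  rw [e]
  have k0 : 1 ≤ K ^ 4 := one_le_pow₀ hK
  have k1 : K ≤ K ^ 4 := by nlinarith [one_le_pow₀ hK (n := 3)]
  have k2 : K ^ 2 ≤ K ^ 4 := pow_le_pow_right₀ hK (by norm_num)
  have k3 : K ^ 3 ≤ K ^ 4 := pow_le_pow_right₀ hK (by norm_num)
  have k0' := mul_le_mul_of_nonneg_right k0 hη
  have k1' := mul_le_mul_of_nonneg_right k1 hη
  have k2' := mul_le_mul_of_nonneg_right k2 hη
  have k3' := mul_le_mul_of_nonneg_right k3 hη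
  rw [abs_le] at *
  constructor <;> nlinarith

/-- slots from the types -/
theorem num_f1 (hK : 1 ≤ K) (hη : 0 ≤ η) (hcc : |ce' - ce| ≤ η) (ha : |ca - ce| ≤ K * η)
    (hb : |cb - ce'| ≤ K * η) (hc : cb = ca + A1) : |A1| ≤ 3 * K * η := by
  have e : A1 = (cb - ce') + (ce' - ce) - (ca - ce) := by rw [hc]; ring
  rw [e]
  have k0' := mul_le_mul_of_nonneg_right hK hη
  rw [abs_le] at *
  constructor <;> nlinarith

theorem num_f16 (hK : 1 ≤ K) (hη : 0 ≤ η) (hκ : |κ| ≤ 1) (hχ : |χ| ≤ 1) (h1 : |A1| ≤ 3 * K * η)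
    (h1' : |A1| ≤ K) (hPP : |Pe' - Pe| ≤ η) (h15 : |w15| ≤ K) (h14 : |w14| ≤ K)
    (ha : |Pa - Pe| ≤ 4 * K ^ 3 * η) (hb : |Pb - Pe'| ≤ 4 * K ^ 3 * η)
    (hP : |Pb - (Pa + P16 + A1 * w15 - χ * (κ * (A1 ^ 2 * w14)))| ≤ η) :
    |P16| ≤ 20 * K ^ 4 * η := by
  have e : P16 = (Pb - Pe') + (Pe' - Pe) - (Pa - Pe) -
      (Pb - (Pa + P16 + A1 * w15 - χ * (κ * (A1 ^ 2 * w14)))) -
      A1 * w15 + χ * (κ * (A1 ^ 2 * w14)) := by ring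
  have m1 := am h1 h15
  have m2 : |A1 ^ 2 * w14| ≤ K * (3 * K * η) * K := by
    have : |A1 ^ 2| ≤ K * (3 * K * η) := by rw [pow_two]; exact am h1' h1
    exact am this h14
  have m4 := am hχ (am hκ m2)
  rw [e]
  have k0 : 1 ≤ K ^ 4 := one_le_pow₀ hK
  have k2 : K ^ 2 ≤ K ^ 4 := pow_le_pow_right₀ hK (by norm_num)
  have k3 : K ^ 3 ≤ K ^ 4 := pow_le_pow_right₀ hK (by norm_num)
  have k0' := mul_le_mul_of_nonneg_right k0 hη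
  have k2' := mul_le_mul_of_nonneg_right k2 hη
  have k3' := mul_le_mul_of_nonneg_right k3 hη
  rw [abs_le] at *
  constructor <;> nlinarith

end num

/-! ### facts of the window -/

section

variable {Dq Uq : Finset (Fin 18)} {W : Wnd 18 fun _ => ℕ × ℝ} {κ : ℕ → ℝ}
  {u : ℕ → Fin 18 → ℝ} {f : ∀ n : ℕ, ℕ × ℝ → FW} {mm σ x χ : ℝ} {n : ℕ}

theorem lrp_spec {E : Finset (ℕ × ℝ)} (hE : E ⊆ W.Cl n) {l k : ℕ}
    (hI : (l, k) ∈ (W.cfg0 n E).I) : lrpW W n l ∈ W.Cl n ∧ W.lc n (lrpW W n l) = l := by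
  obtain ⟨i, hi, h1, h2⟩ := Wnd.mem_I.1 hI
  have h : ∃ i ∈ W.Cl n, W.lc n i = l := ⟨i, hE hi, h1⟩
  unfold lrpW
  rw [dif_pos h]
  exact h.choose_spec

theorem zrp_spec {E : Finset (ℕ × ℝ)} (hE : E ⊆ W.Cl n) {l k : ℕ}
    (hI : (l, k) ∈ (W.cfg0 n E).I) : W.zrep n k ∈ W.Cl n ∧ W.zc n (W.zrep n k) = k := by
  obtain ⟨i, hi, h1, h2⟩ := Wnd.mem_I.1 hI
  have h := W.zrep_spec (hE hi)
  rw [h2] at h
  exact h

variable (g : LnW Dq Uq W κ u f mm σ x)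
include g

theorem crdK (gd : W.Good n) {a b : ℕ × ℝ} (ha : a ∈ W.Cl n) (hb : b ∈ W.Cl n) (s : Fin 18) :
    |W.crd n a b s| ≤ W.K0 := by
  have := g.ww.crd_le gd ha hb s
  rwa [g.ekap, div_one] at this

theorem crdL (gd : W.Good n) {a b : ℕ × ℝ} (ha : a ∈ W.Cl n) (hb : b ∈ W.Cl n)
    (hl : W.lc n a = W.lc n b) {s : Fin 18} (hs : s ≠ 0) :
    |W.crd n a b s| ≤ W.K0 * W.B'.d n ^ x := by
  have hs' : s ∉ W.S := by rw [g.eS]; simpa using hs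
  have := g.ww.crd_own gd ha hb hl (t := x) hs' (by rw [g.etop])
  rwa [g.ekap, div_one] at this

theorem crdZ (gd : W.Good n) {a b : ℕ × ℝ} (ha : a ∈ W.Cl n) (hb : b ∈ W.Cl n)
    (hl : W.zc n a = W.zc n b) : |W.crd n a b 0| ≤ W.K0 * W.B'.d n ^ x := by
  have := g.ww.crd_lev gd ha hb hl (t := x) (s := 0) (by rw [g.eS]; simp) (by rw [g.etop])
  rwa [g.ekap, div_one] at this

theorem ownZ (gd : W.Good n) {E : Finset (ℕ × ℝ)} (hE : E ⊆ W.Cl n) {l k k' : ℕ}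
    (hi : (l, k) ∈ (W.cfg0 n E).I) (hi' : (l, k') ∈ (W.cfg0 n E).I) :
    |W.crd n (W.rep n l k) (W.rep n l k') 0 - (phW W n k' - phW W n k)| ≤
      2 * W.K0 * W.B'.d n ^ x := by
  have h := g.ww.own_zero gd hE hi hi' (t := x) (by rw [g.etop])
  have e : ∀ k, (W.cfg0 n E).z k = phW W n k := fun k => by
    show W.crd n (W.s₀ n) (W.zrep n k) W.kz = _
    rw [g.ww.kz]
    rfl
  rw [e, e, g.ekap, div_one] at h
  exact h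

/-- the type of a line seen from an incidence -/
theorem line_ty (gd : W.Good n) (hC : Cmp W (κ n) χ (W.B'.d n ^ x) n) (hχ : |χ| ≤ 1)
    {E : Finset (ℕ × ℝ)} (hE : E ⊆ W.Cl n) {l k : ℕ} (hi : (l, k) ∈ (W.cfg0 n E).I) :
    |W.crd n (W.s₀ n) (W.rep n l k) 1 - tyW W n l 0| ≤ W.K0 * W.B'.d n ^ x ∧
    |W.crd n (W.s₀ n) (W.rep n l k) 16 - tyW W n l 1| ≤ 4 * W.K0 ^ 3 * W.B'.d n ^ x := by
  obtain ⟨a1, a2, a3⟩ := Wnd.rep_of_mem hE hi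
  obtain ⟨e1, e2⟩ := lrp_spec hE hi
  have ho := gd.s0
  have hK := g.ww.ok.K0_one
  have hδ : 0 ≤ W.B'.d n ^ x := (Real.rpow_pos_of_pos (W.B'.pos n) _).le
  have hδ1 : W.B'.d n ^ x ≤ 1 := Real.rpow_le_one (W.B'.pos n).le (W.B'.lt n).le g.x0.le
  have s1 := crdL g gd e1 a1 (e2.trans a2.symm) (s := 1) (by decide)
  have s16 := crdL g gd e1 a1 (e2.trans a2.symm) (s := 16) (by decide)
  have t0 : tyW W n l 0 = W.crd n (W.s₀ n) (lrpW W n l) 1 := rfl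
  have t1 : tyW W n l 1 = W.crd n (W.s₀ n) (lrpW W n l) 16 := rfl
  constructor
  · rw [t0, hC.c _ ho _ e1 _ a1]
    have : W.crd n (W.s₀ n) (lrpW W n l) 1 + W.crd n (lrpW W n l) (W.rep n l k) 1 -
        W.crd n (W.s₀ n) (lrpW W n l) 1 = W.crd n (lrpW W n l) (W.rep n l k) 1 := by ring
    rw [this]; exact s1
  · rw [t1]
    exact num_line hK hδ hδ1 (g.ww.hκ n) hχ s1 s16 (crdK g gd ho e1 15) (crdK g gd ho e1 14)
      (hC.P _ ho _ e1 _ a1)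

/-- **evolution on a line** -/
theorem line_evo (gd : W.Good n) (hC : Cmp W (κ n) χ (W.B'.d n ^ x) n) (hχ : |χ| ≤ 1)
    {E : Finset (ℕ × ℝ)} (hE : E ⊆ W.Cl n) {l k k' : ℕ} (hi : (l, k) ∈ (W.cfg0 n E).I)
    (hi' : (l, k') ∈ (W.cfg0 n E).I) :
    |W.crd n (W.s₀ n) (W.rep n l k') 2 - W.crd n (W.s₀ n) (W.rep n l k) 2 -
      (phW W n k' - phW W n k) * tyW W n l 0| ≤ 10 * W.K0 ^ 4 * W.B'.d n ^ x ∧
    |W.crd n (W.s₀ n) (W.rep n l k') 3 - W.crd n (W.s₀ n) (W.rep n l k) 3 -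
      (phW W n k' - phW W n k) * (-(κ n * tyW W n l 0 ^ 2))| ≤ 10 * W.K0 ^ 4 * W.B'.d n ^ x ∧
    |W.crd n (W.s₀ n) (W.rep n l k') 17 - W.crd n (W.s₀ n) (W.rep n l k) 17 -
      (phW W n k' - phW W n k) * tyW W n l 1| ≤ 10 * W.K0 ^ 4 * W.B'.d n ^ x := by
  obtain ⟨a1, a2, a3⟩ := Wnd.rep_of_mem hE hi
  obtain ⟨b1, b2, b3⟩ := Wnd.rep_of_mem hE hi'
  obtain ⟨e1, e2⟩ := lrp_spec hE hi
  have ho := gd.s0
  have hK := g.ww.ok.K0_one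
  have hδ : 0 ≤ W.B'.d n ^ x := (Real.rpow_pos_of_pos (W.B'.pos n) _).le
  obtain ⟨l1, l2⟩ := line_ty g gd hC hχ hE hi
  have hab : W.lc n (W.rep n l k) = W.lc n (W.rep n l k') := a2.trans b2.symm
  have z1 := crdK g gd a1 b1 0
  have z2 := ownZ g gd hE hi hi'
  have c0 : |tyW W n l 0| ≤ W.K0 := crdK g gd ho e1 1
  have c1 : |tyW W n l 1| ≤ W.K0 := crdK g gd ho e1 16
  have s2 := crdL g gd a1 b1 hab (s := 2) (by decide)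
  have s3 := crdL g gd a1 b1 hab (s := 3) (by decide)
  have s17 := crdL g gd a1 b1 hab (s := 17) (by decide)
  refine ⟨num_evoA hK hδ s2 l1 c0 z1 z2 (hC.A _ ho _ a1 _ b1),
    num_evoB hK hδ (g.ww.hκ n) s2 s3 l1 c0 (crdK g gd ho a1 1) z1 z2 (hC.B _ ho _ a1 _ b1),
    num_evoN hK hδ hχ s2 s3 s17 (crdK g gd ho a1 15) (crdK g gd ho a1 14) l2 c1 z1 z2
      (hC.N _ ho _ a1 _ b1)⟩

/-- **positions at one height** -/
theorem pos_r (gd : W.Good n) (hC : Cmp W (κ n) χ (W.B'.d n ^ x) n) (hχ : |χ| ≤ 1)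
    {E : Finset (ℕ × ℝ)} (hE : E ⊆ W.Cl n) {l l' k : ℕ} (hi : (l, k) ∈ (W.cfg0 n E).I)
    (hi' : (l', k) ∈ (W.cfg0 n E).I) {η : ℝ} (hη : W.B'.d n ^ x ≤ η)
    (h2 : |W.crd n (W.rep n l k) (W.rep n l' k) 2| ≤ η)
    (h17 : |W.crd n (W.rep n l k) (W.rep n l' k) 17| ≤ η) :
    |W.crd n (W.s₀ n) (W.rep n l' k) 2 - W.crd n (W.s₀ n) (W.rep n l k) 2| ≤
      10 * W.K0 ^ 4 * η ∧
    (|W.crd n (W.rep n l k) (W.rep n l' k) 3| ≤ η →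
      |W.crd n (W.s₀ n) (W.rep n l' k) 3 - W.crd n (W.s₀ n) (W.rep n l k) 3| ≤
        10 * W.K0 ^ 4 * η) ∧
    (χ = 0 ∨ |W.crd n (W.rep n l k) (W.rep n l' k) 3| ≤ η →
      |W.crd n (W.s₀ n) (W.rep n l' k) 17 - W.crd n (W.s₀ n) (W.rep n l k) 17| ≤
        10 * W.K0 ^ 4 * η) := by
  obtain ⟨a1, a2, a3⟩ := Wnd.rep_of_mem hE hi
  obtain ⟨b1, b2, b3⟩ := Wnd.rep_of_mem hE hi'
  have ho := gd.s0
  have hK := g.ww.ok.K0_one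
  have hδ : 0 ≤ W.B'.d n ^ x := (Real.rpow_pos_of_pos (W.B'.pos n) _).le
  have hη0 : 0 ≤ η := hδ.trans hη
  have z1 : |W.crd n (W.rep n l k) (W.rep n l' k) 0| ≤ W.K0 * η :=
    (crdZ g gd a1 b1 (a3.trans b3.symm)).trans
      (mul_le_mul_of_nonneg_left hη (by linarith))
  refine ⟨num_rA hK hη0 h2 (crdK g gd ho a1 1) z1 (hC.A _ ho _ a1 _ b1), fun h3 => ?_,
    fun h3 => ?_⟩
  · exact num_rB hK hη0 (g.ww.hκ n) h2 h3 (crdK g gd ho a1 1) z1 (hC.B _ ho _ a1 _ b1)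
  · refine num_rN hK hη0 hχ h2 ?_ h17 (crdK g gd ho a1 15) (crdK g gd ho a1 16) z1
      ((hC.N _ ho _ a1 _ b1).trans hη)
    rcases h3 with h3 | h3
    · rw [h3, zero_mul, abs_zero]
      have : 0 ≤ W.K0 := by linarith
      positivity
    · have h4 := am hχ (am h3 (crdK g gd ho a1 14))
      refine h4.trans (le_of_eq ?_)
      ring

/-- **types from the slots `c`, `P`** -/
theorem ty_q (gd : W.Good n) (hC : Cmp W (κ n) χ (W.B'.d n ^ x) n) (hχ : |χ| ≤ 1)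
    {E : Finset (ℕ × ℝ)} (hE : E ⊆ W.Cl n) {l l' k : ℕ} (hi : (l, k) ∈ (W.cfg0 n E).I)
    (hi' : (l', k) ∈ (W.cfg0 n E).I) {η : ℝ} (hη : W.B'.d n ^ x ≤ η)
    (h1 : |W.crd n (W.rep n l k) (W.rep n l' k) 1| ≤ η)
    (h16 : |W.crd n (W.rep n l k) (W.rep n l' k) 16| ≤ η) (i : Fin 2) :
    |tyW W n l' i - tyW W n l i| ≤ 20 * W.K0 ^ 4 * η := by
  obtain ⟨a1, a2, a3⟩ := Wnd.rep_of_mem hE hi
  obtain ⟨b1, b2, b3⟩ := Wnd.rep_of_mem hE hi'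
  have ho := gd.s0
  have hK := g.ww.ok.K0_one
  have hδ : 0 ≤ W.B'.d n ^ x := (Real.rpow_pos_of_pos (W.B'.pos n) _).le
  have hη0 : 0 ≤ η := hδ.trans hη
  obtain ⟨l1, l2⟩ := line_ty g gd hC hχ hE hi
  obtain ⟨m1, m2⟩ := line_ty g gd hC hχ hE hi'
  have hK0 : 0 ≤ W.K0 := by linarith
  have k1 : W.K0 * W.B'.d n ^ x ≤ W.K0 * η := mul_le_mul_of_nonneg_left hη hK0
  have k2 : 4 * W.K0 ^ 3 * W.B'.d n ^ x ≤ 4 * W.K0 ^ 3 * η :=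
    mul_le_mul_of_nonneg_left hη (by positivity)
  fin_cases i
  · exact num_qc hK hη0 h1 (l1.trans k1) (m1.trans k1) (hC.c _ ho _ a1 _ b1)
  · exact num_qP hK hη0 (g.ww.hκ n) hχ h1 (crdK g gd a1 b1 1) h16 (crdK g gd ho a1 15)
      (crdK g gd ho a1 14) (l2.trans k2) (m2.trans k2) ((hC.P _ ho _ a1 _ b1).trans hη)

/-- **slots `c`, `P` from the types** -/
theorem q_ty (gd : W.Good n) (hC : Cmp W (κ n) χ (W.B'.d n ^ x) n) (hχ : |χ| ≤ 1)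
    {E : Finset (ℕ × ℝ)} (hE : E ⊆ W.Cl n) {l l' k : ℕ} (hi : (l, k) ∈ (W.cfg0 n E).I)
    (hi' : (l', k) ∈ (W.cfg0 n E).I) {η : ℝ} (hη : W.B'.d n ^ x ≤ η)
    (h0 : |tyW W n l' 0 - tyW W n l 0| ≤ η) :
    |W.crd n (W.rep n l k) (W.rep n l' k) 1| ≤ 3 * W.K0 * η ∧
    (|tyW W n l' 1 - tyW W n l 1| ≤ η →
      |W.crd n (W.rep n l k) (W.rep n l' k) 16| ≤ 20 * W.K0 ^ 4 * η) := by
  obtain ⟨a1, a2, a3⟩ := Wnd.rep_of_mem hE hi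
  obtain ⟨b1, b2, b3⟩ := Wnd.rep_of_mem hE hi'
  have ho := gd.s0
  have hK := g.ww.ok.K0_one
  have hδ : 0 ≤ W.B'.d n ^ x := (Real.rpow_pos_of_pos (W.B'.pos n) _).le
  have hη0 : 0 ≤ η := hδ.trans hη
  obtain ⟨l1, l2⟩ := line_ty g gd hC hχ hE hi
  obtain ⟨m1, m2⟩ := line_ty g gd hC hχ hE hi'
  have hK0 : 0 ≤ W.K0 := by linarith
  have k1 : W.K0 * W.B'.d n ^ x ≤ W.K0 * η := mul_le_mul_of_nonneg_left hη hK0
  have k2 : 4 * W.K0 ^ 3 * W.B'.d n ^ x ≤ 4 * W.K0 ^ 3 * η :=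
    mul_le_mul_of_nonneg_left hη (by positivity)
  have f1 := num_f1 hK hη0 h0 (l1.trans k1) (m1.trans k1) (hC.c _ ho _ a1 _ b1)
  refine ⟨f1, fun h1 => ?_⟩
  exact num_f16 hK hη0 (g.ww.hκ n) hχ f1 (crdK g gd a1 b1 1) h1 (crdK g gd ho a1 15)
    (crdK g gd ho a1 14) (l2.trans k2) (m2.trans k2) ((hC.P _ ho _ a1 _ b1).trans hη)

end

end Crest.Agent.R136.Lin938
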