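import Crest.Agent.R136.LinD_560
import Crest.Agent.R136.Lin4_560

/-!
# R136, thin branch, `lin` (helper938): composition of the coordinates in the window of `lin`

* `coW_c`, `coW_A`, `coW_B`, `coW_flag` : composition of the raw coordinates
* `drop_sum` : the dropped terms are small
* `Cmp` : composition of the normalised coordinates `c, A, B, P, N`; `cmpB`, `cmpA` for `Db`, `Da`
-/

set_option autoImplicit false
set_option linter.unusedSectionVars false
set_option linter.unusedVariables false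

open Filter Topology

namespace Crest.Agent.R136.Lin938

open Finset Crest.Agent.R138.Ex926 Crest.Agent.R136.Net191 Crest.Agent.R136.Gf356
open Crest.Agent.R136.Qg926 Crest.Agent.R136.NetW191 Crest.Agent.R136.EvW938
open Crest.Agent.R136.QdH887 (bv) 
open Crest.Agent.R136.Lin560

/-! ### raw coordinates -/

theorem coW_c (κ : ℝ) (x y z : FW) : coW κ x z 1 = coW κ x y 1 + coW κ y z 1 := by
  have h := congrFun (rel_rel κ x.g y.g z.g) 1
  rw [mul1] at h
  exact h.symm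

theorem coW_A (κ : ℝ) (x y z : FW) :
    coW κ x z 2 = coW κ x y 2 + coW κ y z 2 + coW κ x y 1 * coW κ y z 0 := by
  have h := congrFun (rel_rel κ x.g y.g z.g) 2
  rw [mul2] at h
  exact h.symm

theorem coW_B (κ : ℝ) (x y z : FW) :
    coW κ x z 3 = coW κ x y 3 + coW κ y z 3 - 2 * κ * coW κ x y 1 * coW κ y z 2 -
      κ * coW κ x y 1 ^ 2 * coW κ y z 0 := by
  have h := congrFun (rel_rel κ x.g y.g z.g) 3
  rw [mul3] at h
  exact h.symm

theorem coW_flag (κ : ℝ) (x y z : FW) (q : Fin 14) :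
    coW κ x z (Fin.natAdd 4 q) = coW κ y z (Fin.natAdd 4 q) + coW κ x y (Fin.natAdd 4 q) +
      ((tms q).map (Tm.ev κ (fun i => coW κ y z (Fin.castAdd 14 i))
        (fun q => coW κ x y (Fin.natAdd 4 q)))).sum := by
  rw [coW_right, cocycle κ x y z, Pi.add_apply,
    tr_tms κ (rel κ y.g z.g) (tr κ y.g (y.G - x.G)) q, coW_right, coW_right]
  have e1 : (fun i => coW κ y z (Fin.castAdd 14 i)) = rel κ y.g z.g :=
    funext fun i => coW_left κ y z i
  have e2 : (fun q => coW κ x y (Fin.natAdd 4 q)) = tr κ y.g (y.G - x.G) :=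
    funext fun q => coW_right κ x y q
  rw [e1, e2]
  ring

theorem prod_K (K : ℝ) (a : Fin 18 → ℝ) (l : List (Fin 18)) :
    (l.map fun s => K * a s).prod = K ^ l.length * (l.map a).prod := by
  induction l with
  | nil => simp
  | cons s l ih =>
    simp only [List.map_cons, List.prod_cons, ih, List.length_cons, pow_succ]
    ring

section

variable {Dq Uq : Finset (Fin 18)} {W : Wnd 18 fun _ => ℕ × ℝ} {κ : ℕ → ℝ}
  {u : ℕ → Fin 18 → ℝ} {f : ∀ n : ℕ, ℕ × ℝ → FW} {mm σ x : ℝ}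

/-- dropped walls -/
theorem gap_prod (g : LnW Dq Uq W κ u f mm σ x) (R : ℝ) : ∀ᶠ n in (U : Filter ℕ),
    ∀ k, ∀ l ∈ mlW k, (k ∈ Dq ∨ ∃ s ∈ l, s ∈ Dq) →
      (l.map (sd W u n)).prod ≤ W.B'.d n ^ R * sd W u n k := by
  have h1 : ∀ᶠ n in (U : Filter ℕ), ∀ k, ∀ l ∈ (mlW k).toFinset, (k ∈ Dq ∨ ∃ s ∈ l, s ∈ Dq) →
      W.X n k + R * W.w n ≤ (l.map (W.X n)).sum := by
    rw [Filter.eventually_all]
    intro k
    rw [Filter.eventually_all_finset]
    intro l hl
    by_cases hd : k ∈ Dq ∨ ∃ s ∈ l, s ∈ Dq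
    · filter_upwards [g.gap k l (List.mem_toFinset.1 hl) hd R] with n hn _
      exact hn
    · exact Eventually.of_forall fun n h => absurd h hd
  filter_upwards [h1] with n hn k l hl hd
  have hX := hn k l (List.mem_toFinset.2 hl) hd
  have e1 : (l.map (sd W u n)).prod = W.B.d n ^ (l.map (W.X n)).sum / (l.map (u n)).prod := by
    clear hl hd hX
    induction l with
    | nil => simp
    | cons a l ih =>
      simp only [List.map_cons, List.prod_cons, List.sum_cons, ih]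
      unfold sd
      rw [Real.rpow_add (W.B.pos n), div_mul_div_comm]
  rw [e1, (g.ww.hl n).mul k l hl, g.dw n, ← Real.rpow_mul (W.B.pos n).le]
  unfold sd
  rw [← mul_div_assoc, ← Real.rpow_add (W.B.pos n)]
  refine div_le_div_of_nonneg_right ?_ ((g.ww.hl n).pos k).le
  refine Real.rpow_le_rpow_of_exponent_ge (W.B.pos n) (W.B.lt n).le ?_
  linarith

theorem LnW.un_sd (g : LnW Dq Uq W κ u f mm σ x) (n : ℕ) (s : Fin 18) :
    un W u n s = sd W u n s := by
  unfold un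
  rw [g.ekap, one_mul]

/-- kept walls -/
theorem tight_un (g : LnW Dq Uq W κ u f mm σ x) (n : ℕ) {k : Fin 18} {l : List (Fin 18)}
    (hk : k ∉ Dq) (hl : l ∈ mlW k) (hs : ∀ s ∈ l, s ∉ Dq) :
    (l.map (un W u n)).prod = un W u n k := by
  have h1 := g.ww.cfl_eq (n := n) hl (g.tight k hk l hl hs n)
  have h2 : (l.map W.kap).prod / W.kap k = 1 := by
    rw [g.ekap]
    have : ∀ l : List (Fin 18), (l.map fun _ => (1 : ℝ)).prod = 1 := fun l => by simp
    rw [this, div_one]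
  rw [h2] at h1
  unfold cfl at h1
  have h3 := (g.ww.un_pos n k).ne'
  field_simp at h1
  exact h1

/-- **the dropped terms are small** -/
theorem drop_sum (g : LnW Dq Uq W κ u f mm σ x) : ∀ᶠ n in (U : Filter ℕ), W.Good n →
    ∀ (q : Fin 14) (L : List Tm), (∀ t ∈ L, t.idx ∈ mlW (Fin.natAdd 4 q) ∧
      (∃ s ∈ t.idx, s ∈ Dq) ∧ t.idx.length ≤ 6) → (L.map fun t => t.n.natAbs).sum ≤ 67 →
    ∀ o ∈ W.Cl n, ∀ a ∈ W.Cl n, ∀ b ∈ W.Cl n,
      |(L.map (Tm.ev (κ n) (fun i => coW (κ n) (f n a) (f n b) (Fin.castAdd 14 i))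
        (fun q => coW (κ n) (f n o) (f n a) (Fin.natAdd 4 q)))).sum| ≤
        W.B'.d n ^ x * sd W u n (Fin.natAdd 4 q) := by
  filter_upwards [gap_prod g (x + 1), ev_const_le W.B' one_pos (67 * W.K0 ^ 6)] with
    n hgap hc gd q L hL hsum o ho a ha b hb
  have hK := g.ww.ok.K0_one
  have hK0 : 0 ≤ W.K0 := by linarith
  have hsd : ∀ s, 0 < sd W u n s := fun s => g.ww.sd_pos n s
  have hρ : ∀ t : ℝ, 0 < W.B'.d n ^ t := fun t => Real.rpow_pos_of_pos (W.B'.pos n) _
  have h1 := sum_ev_le (g.ww.hκ n) (X := fun s => W.K0 * sd W u n s)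
    (h := fun i => coW (κ n) (f n a) (f n b) (Fin.castAdd 14 i))
    (w := fun q => coW (κ n) (f n o) (f n a) (Fin.natAdd 4 q))
    (fun i => g.ww.bnd gd ha hb _) (fun q => g.ww.bnd gd ho ha _)
    (S := W.K0 ^ 6 * (W.B'.d n ^ (x + 1) * sd W u n (Fin.natAdd 4 q))) L (fun t ht => by
      obtain ⟨t1, ⟨s, hs, hsD⟩, t3⟩ := hL t ht
      rw [prod_K]
      have h2 := hgap _ t.idx t1 (Or.inr ⟨s, hs, hsD⟩)
      have h3 : W.K0 ^ t.idx.length ≤ W.K0 ^ 6 := pow_le_pow_right₀ hK t3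
      refine mul_le_mul h3 h2 ?_ (pow_nonneg hK0 _)
      refine List.prod_nonneg fun y hy => ?_
      obtain ⟨s, _, rfl⟩ := List.mem_map.1 hy
      exact (hsd s).le)
  refine h1.trans ?_
  have h2 : (((L.map fun t => t.n.natAbs).sum : ℕ) : ℝ) ≤ 67 := by exact_mod_cast hsum
  have h3 : 67 * W.K0 ^ 6 * W.B'.d n ^ (x + 1) ≤ W.B'.d n ^ x := by
    refine (mul_le_mul_of_nonneg_right hc (hρ _).le).trans (le_of_eq ?_)
    rw [← Real.rpow_add (W.B'.pos n)]
    congr 1; ring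
  have h4 : 0 ≤ W.K0 ^ 6 * (W.B'.d n ^ (x + 1) * sd W u n (Fin.natAdd 4 q)) := by
    have := hρ (x + 1)
    have := hsd (Fin.natAdd 4 q)
    positivity
  calc (((L.map fun t => t.n.natAbs).sum : ℕ) : ℝ) *
      (W.K0 ^ 6 * (W.B'.d n ^ (x + 1) * sd W u n (Fin.natAdd 4 q)))
      ≤ 67 * (W.K0 ^ 6 * (W.B'.d n ^ (x + 1) * sd W u n (Fin.natAdd 4 q))) :=
        mul_le_mul_of_nonneg_right h2 h4
    _ = 67 * W.K0 ^ 6 * W.B'.d n ^ (x + 1) * sd W u n (Fin.natAdd 4 q) := by ring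
    _ ≤ _ := mul_le_mul_of_nonneg_right h3 (hsd _).le

/-- **composition of the normalised coordinates** -/
structure Cmp (W : Wnd 18 fun _ => ℕ × ℝ) (κ χ t : ℝ) (n : ℕ) : Prop where
  c : ∀ o ∈ W.Cl n, ∀ a ∈ W.Cl n, ∀ b ∈ W.Cl n, W.crd n o b 1 = W.crd n o a 1 + W.crd n a b 1
  A : ∀ o ∈ W.Cl n, ∀ a ∈ W.Cl n, ∀ b ∈ W.Cl n, W.crd n o b 2 =
    W.crd n o a 2 + W.crd n a b 2 + W.crd n o a 1 * W.crd n a b 0
  B : ∀ o ∈ W.Cl n, ∀ a ∈ W.Cl n, ∀ b ∈ W.Cl n, W.crd n o b 3 =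
    W.crd n o a 3 + W.crd n a b 3 - 2 * κ * (W.crd n o a 1 * W.crd n a b 2) -
      κ * (W.crd n o a 1 ^ 2 * W.crd n a b 0)
  P : ∀ o ∈ W.Cl n, ∀ a ∈ W.Cl n, ∀ b ∈ W.Cl n, |W.crd n o b 16 -
    (W.crd n o a 16 + W.crd n a b 16 + W.crd n a b 1 * W.crd n o a 15 -
      χ * (κ * (W.crd n a b 1 ^ 2 * W.crd n o a 14)))| ≤ t
  N : ∀ o ∈ W.Cl n, ∀ a ∈ W.Cl n, ∀ b ∈ W.Cl n, |W.crd n o b 17 -
    (W.crd n o a 17 + W.crd n a b 17 + W.crd n a b 0 * W.crd n o a 16 +
      W.crd n a b 2 * W.crd n o a 15 + χ * (W.crd n a b 3 * W.crd n o a 14))| ≤ t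

theorem cmp_frame (g : LnW Dq Uq W κ u f mm σ x) {n : ℕ} (gd : W.Good n)
    (hD : ∀ s ∈ ({0, 1, 2, 3} : Finset (Fin 18)), s ∉ Dq) :
    (∀ o ∈ W.Cl n, ∀ a ∈ W.Cl n, ∀ b ∈ W.Cl n, W.crd n o b 1 = W.crd n o a 1 + W.crd n a b 1) ∧
    (∀ o ∈ W.Cl n, ∀ a ∈ W.Cl n, ∀ b ∈ W.Cl n, W.crd n o b 2 =
      W.crd n o a 2 + W.crd n a b 2 + W.crd n o a 1 * W.crd n a b 0) ∧
    ∀ o ∈ W.Cl n, ∀ a ∈ W.Cl n, ∀ b ∈ W.Cl n, W.crd n o b 3 =
      W.crd n o a 3 + W.crd n a b 3 - 2 * κ n * (W.crd n o a 1 * W.crd n a b 2) -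
        κ n * (W.crd n o a 1 ^ 2 * W.crd n a b 0) := by
  have d0 := hD 0 (by decide)
  have d1 := hD 1 (by decide)
  have d2 := hD 2 (by decide)
  have d3 := hD 3 (by decide)
  have w2 := tight_un g n (k := 2) (l := [1, 0]) d2 (by decide) (by simp [d0, d1])
  have w3 := tight_un g n (k := 3) (l := [1, 2]) d3 (by decide) (by simp [d1, d2])
  have w3' := tight_un g n (k := 3) (l := [1, 1, 0]) d3 (by decide) (by simp [d0, d1])
  simp only [List.map_cons, List.map_nil, List.prod_cons, List.prod_nil, mul_one] at w2 w3 w3'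
  refine ⟨fun o ho a ha b hb => ?_, fun o ho a ha b hb => ?_, fun o ho a ha b hb => ?_⟩
  · have h := coW_c (κ n) (f n o) (f n a) (f n b)
    rw [g.ww.crd_eq gd ho hb, g.ww.crd_eq gd ho ha, g.ww.crd_eq gd ha hb] at h
    apply mul_left_cancel₀ (g.ww.un_pos n 1).ne'
    linarith
  · have h := coW_A (κ n) (f n o) (f n a) (f n b)
    simp only [g.ww.crd_eq gd ho hb, g.ww.crd_eq gd ho ha, g.ww.crd_eq gd ha hb] at h
    apply mul_left_cancel₀ (g.ww.un_pos n 2).ne'
    rw [h]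
    linear_combination (W.crd n o a 1 * W.crd n a b 0) * w2
  · have h := coW_B (κ n) (f n o) (f n a) (f n b)
    simp only [g.ww.crd_eq gd ho hb, g.ww.crd_eq gd ho ha, g.ww.crd_eq gd ha hb] at h
    apply mul_left_cancel₀ (g.ww.un_pos n 3).ne'
    rw [h]
    linear_combination (-2 * κ n * (W.crd n o a 1 * W.crd n a b 2)) * w3 -
      (κ n * (W.crd n o a 1 ^ 2 * W.crd n a b 0)) * w3'

/-- the dropped terms of `P` and `N` -/
def L12 : List Tm := (tms 12).take 27
def L13 : List Tm := (tms 13).take 15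

theorem tms12 : tms 12 = L12 ++ [⟨-1, 1, [1, 1], 10⟩, ⟨1, 0, [1], 11⟩] := by decide
theorem tms13 : tms 13 = L13 ++ [⟨1, 0, [3], 10⟩, ⟨1, 0, [2], 11⟩, ⟨1, 0, [0], 12⟩] := by decide

theorem L12_ok : (∀ t ∈ L12, t.idx ∈ mlW (Fin.natAdd 4 (12 : Fin 14)) ∧ (∃ s ∈ t.idx, s ∈ Db) ∧
    t.idx.length ≤ 6) ∧ (L12.map fun t => t.n.natAbs).sum ≤ 67 := by decide +kernel
theorem L13_ok : (∀ t ∈ L13, t.idx ∈ mlW (Fin.natAdd 4 (13 : Fin 14)) ∧ (∃ s ∈ t.idx, s ∈ Db) ∧
    t.idx.length ≤ 6) ∧ (L13.map fun t => t.n.natAbs).sum ≤ 67 := by decide +kernel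

/-- the dropped terms of `P` and `N`, slot `14` dropped -/
def L12a : List Tm := (tms 12).take 28
def L13a : List Tm := (tms 13).take 16

theorem tms12a : tms 12 = L12a ++ [⟨1, 0, [1], 11⟩] := by decide
theorem tms13a : tms 13 = L13a ++ [⟨1, 0, [2], 11⟩, ⟨1, 0, [0], 12⟩] := by decide

theorem L12_ok' : (∀ t ∈ L12a, t.idx ∈ mlW (Fin.natAdd 4 (12 : Fin 14)) ∧
    (∃ s ∈ t.idx, s ∈ Da) ∧ t.idx.length ≤ 6) ∧
    (L12a.map fun t => t.n.natAbs).sum ≤ 67 := by decide +kernel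
theorem L13_ok' : (∀ t ∈ L13a, t.idx ∈ mlW (Fin.natAdd 4 (13 : Fin 14)) ∧
    (∃ s ∈ t.idx, s ∈ Da) ∧ t.idx.length ≤ 6) ∧
    (L13a.map fun t => t.n.natAbs).sum ≤ 67 := by decide +kernel

/-- division by the unit -/
theorem div_un {v X t a : ℝ} (hv : 0 < v) (h : v * X = v * a + t) {e : ℝ} (ht : |t| ≤ e * v) :
    |X - a| ≤ e := by
  have h1 : X - a = t / v := by
    field_simp
    linarith
  rw [h1, abs_div, abs_of_pos hv, div_le_iff₀ hv]
  exact ht

/-- **composition, `b1 = 2`** -/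
theorem cmpB (g : LnW Db Uq W κ u f mm σ x) : ∀ᶠ n in (U : Filter ℕ), W.Good n →
    Cmp W (κ n) 1 (W.B'.d n ^ x) n := by
  filter_upwards [drop_sum g] with n hd gd
  obtain ⟨hc, hA, hB⟩ := cmp_frame g gd (by decide)
  have w1 := tight_un g n (k := 16) (l := [1, 1, 14]) (by decide) (by decide) (by decide)
  have w2 := tight_un g n (k := 16) (l := [1, 15]) (by decide) (by decide) (by decide)
  have w3 := tight_un g n (k := 17) (l := [3, 14]) (by decide) (by decide) (by decide)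
  have w4 := tight_un g n (k := 17) (l := [2, 15]) (by decide) (by decide) (by decide)
  have w5 := tight_un g n (k := 17) (l := [0, 16]) (by decide) (by decide) (by decide)
  simp only [List.map_cons, List.map_nil, List.prod_cons, List.prod_nil, mul_one]
    at w1 w2 w3 w4 w5
  refine ⟨hc, hA, hB, fun o ho a ha b hb => ?_, fun o ho a ha b hb => ?_⟩
  · have h := coW_flag (κ n) (f n o) (f n a) (f n b) 12
    have hs := hd gd 12 L12 L12_ok.1 L12_ok.2 o ho a ha b hb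
    rw [tms12, List.map_append, List.sum_append] at h
    set D := (L12.map (Tm.ev (κ n) (fun i => coW (κ n) (f n a) (f n b) (Fin.castAdd 14 i))
        (fun q => coW (κ n) (f n o) (f n a) (Fin.natAdd 4 q)))).sum with hD
    simp only [List.map_cons, List.map_nil, List.sum_cons, List.sum_nil, Tm.ev, List.prod_cons,
      List.prod_nil, mul_one, pow_zero, g.ww.crd_eq gd ho hb, g.ww.crd_eq gd ho ha,
      g.ww.crd_eq gd ha hb] at h
    rw [← LnW.un_sd g] at hs
    refine div_un (g.ww.un_pos n 16) (t := D) ?_ hs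
    have e16 : (Fin.natAdd 4 (12 : Fin 14) : Fin 18) = 16 := by decide
    have e14 : (Fin.natAdd 4 (10 : Fin 14) : Fin 18) = 14 := by decide
    have e15 : (Fin.natAdd 4 (11 : Fin 14) : Fin 18) = 15 := by decide
    have e1 : (Fin.castAdd 14 (1 : Fin 4) : Fin 18) = 1 := by decide
    rw [e16, e14, e15, e1] at h
    rw [h]
    push_cast
    linear_combination (-κ n * (W.crd n a b 1 ^ 2 * W.crd n o a 14)) * w1 +
      (W.crd n a b 1 * W.crd n o a 15) * w2
  · have h := coW_flag (κ n) (f n o) (f n a) (f n b) 13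
    have hs := hd gd 13 L13 L13_ok.1 L13_ok.2 o ho a ha b hb
    rw [tms13, List.map_append, List.sum_append] at h
    set D := (L13.map (Tm.ev (κ n) (fun i => coW (κ n) (f n a) (f n b) (Fin.castAdd 14 i))
        (fun q => coW (κ n) (f n o) (f n a) (Fin.natAdd 4 q)))).sum with hD
    simp only [List.map_cons, List.map_nil, List.sum_cons, List.sum_nil, Tm.ev, List.prod_cons,
      List.prod_nil, mul_one, pow_zero, g.ww.crd_eq gd ho hb, g.ww.crd_eq gd ho ha,
      g.ww.crd_eq gd ha hb] at h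
    rw [← LnW.un_sd g] at hs
    refine div_un (g.ww.un_pos n 17) (t := D) ?_ hs
    have e17 : (Fin.natAdd 4 (13 : Fin 14) : Fin 18) = 17 := by decide
    have e16 : (Fin.natAdd 4 (12 : Fin 14) : Fin 18) = 16 := by decide
    have e14 : (Fin.natAdd 4 (10 : Fin 14) : Fin 18) = 14 := by decide
    have e15 : (Fin.natAdd 4 (11 : Fin 14) : Fin 18) = 15 := by decide
    have e0 : (Fin.castAdd 14 (0 : Fin 4) : Fin 18) = 0 := by decide
    have e2 : (Fin.castAdd 14 (2 : Fin 4) : Fin 18) = 2 := by decide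
    have e3 : (Fin.castAdd 14 (3 : Fin 4) : Fin 18) = 3 := by decide
    rw [e17, e16, e14, e15, e0, e2, e3] at h
    rw [h]
    push_cast
    linear_combination (W.crd n a b 3 * W.crd n o a 14) * w3 +
      (W.crd n a b 2 * W.crd n o a 15) * w4 + (W.crd n a b 0 * W.crd n o a 16) * w5

/-- **composition, `b1 = 1`** -/
theorem cmpA (g : LnW Da Uq W κ u f mm σ x) : ∀ᶠ n in (U : Filter ℕ), W.Good n →
    Cmp W (κ n) 0 (W.B'.d n ^ x) n := by
  filter_upwards [drop_sum g] with n hd gd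
  obtain ⟨hc, hA, hB⟩ := cmp_frame g gd (by decide)
  have w2 := tight_un g n (k := 16) (l := [1, 15]) (by decide) (by decide) (by decide)
  have w4 := tight_un g n (k := 17) (l := [2, 15]) (by decide) (by decide) (by decide)
  have w5 := tight_un g n (k := 17) (l := [0, 16]) (by decide) (by decide) (by decide)
  simp only [List.map_cons, List.map_nil, List.prod_cons, List.prod_nil, mul_one]
    at w2 w4 w5
  refine ⟨hc, hA, hB, fun o ho a ha b hb => ?_, fun o ho a ha b hb => ?_⟩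
  · have h := coW_flag (κ n) (f n o) (f n a) (f n b) 12
    have hs := hd gd 12 _ L12_ok'.1 L12_ok'.2 o ho a ha b hb
    rw [tms12a, List.map_append, List.sum_append] at h
    set D := (L12a.map
      (Tm.ev (κ n) (fun i => coW (κ n) (f n a) (f n b) (Fin.castAdd 14 i))
        (fun q => coW (κ n) (f n o) (f n a) (Fin.natAdd 4 q)))).sum with hD
    simp only [List.map_cons, List.map_nil, List.sum_cons, List.sum_nil, Tm.ev, List.prod_cons,
      List.prod_nil, mul_one, pow_zero, g.ww.crd_eq gd ho hb, g.ww.crd_eq gd ho ha,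
      g.ww.crd_eq gd ha hb] at h
    rw [← LnW.un_sd g] at hs
    refine div_un (g.ww.un_pos n 16) (t := D) ?_ hs
    have e16 : (Fin.natAdd 4 (12 : Fin 14) : Fin 18) = 16 := by decide
    have e15 : (Fin.natAdd 4 (11 : Fin 14) : Fin 18) = 15 := by decide
    have e1 : (Fin.castAdd 14 (1 : Fin 4) : Fin 18) = 1 := by decide
    rw [e16, e15, e1] at h
    rw [h]
    push_cast
    linear_combination (W.crd n a b 1 * W.crd n o a 15) * w2
  · have h := coW_flag (κ n) (f n o) (f n a) (f n b) 13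
    have hs := hd gd 13 _ L13_ok'.1 L13_ok'.2 o ho a ha b hb
    rw [tms13a, List.map_append, List.sum_append] at h
    set D := (L13a.map
      (Tm.ev (κ n) (fun i => coW (κ n) (f n a) (f n b) (Fin.castAdd 14 i))
        (fun q => coW (κ n) (f n o) (f n a) (Fin.natAdd 4 q)))).sum with hD
    simp only [List.map_cons, List.map_nil, List.sum_cons, List.sum_nil, Tm.ev, List.prod_cons,
      List.prod_nil, mul_one, pow_zero, g.ww.crd_eq gd ho hb, g.ww.crd_eq gd ho ha,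
      g.ww.crd_eq gd ha hb] at h
    rw [← LnW.un_sd g] at hs
    refine div_un (g.ww.un_pos n 17) (t := D) ?_ hs
    have e17 : (Fin.natAdd 4 (13 : Fin 14) : Fin 18) = 17 := by decide
    have e16 : (Fin.natAdd 4 (12 : Fin 14) : Fin 18) = 16 := by decide
    have e15 : (Fin.natAdd 4 (11 : Fin 14) : Fin 18) = 15 := by decide
    have e0 : (Fin.castAdd 14 (0 : Fin 4) : Fin 18) = 0 := by decide
    have e2 : (Fin.castAdd 14 (2 : Fin 4) : Fin 18) = 2 := by decide
    rw [e17, e16, e15, e0, e2] at h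
    rw [h]
    push_cast
    linear_combination (W.crd n a b 2 * W.crd n o a 15) * w4 +
      (W.crd n a b 0 * W.crd n o a 16) * w5

end

end Crest.Agent.R136.Lin938
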