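import Crest.Agent.R136.Mlt2_89
import Crest.Agent.R136.Mdr1_535

/-!
# R136 (S0187), PLAN 2, leaf (B4), (III): the frame matrices of a pair of sheets (helper18)

Plank frames `e = S.e`, `e' = S'.e`; fixed height; `b`, `b'` = plank coordinates of the gradients;
strip coordinates `A = Λ <e 1, Δ> / w1`, `B = <e 2, Δ> / w2`; `Y = ty e w b Δ / a`.
`frame_mat` : all coordinates of `Δ` (any vector) are linear in `Y, A, B`, with bounded coefficients
(`D = 8 K ^ 3`); the coefficients `t1`, `t2` are the minors of the two gradients.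
-/

set_option autoImplicit false
set_option linter.unusedVariables false

namespace Crest.Agent.R136.Lkf18

open Crest.Agent.R136.Sh605
open Crest.Agent.R136.Fl808 (dt_expand abs_dt_le_one)
open Crest.Agent.R136.Mdr535 (ty gr)
open Crest.Agent.R136.Mlt89 (cv dt_cv dt_cv0 dt_cv1 dt_cv2)

/-- minor of the two gradients in the plank frame -/
def pk (e : Fin 3 → V3) (n n' : V3) (k : Fin 3) : ℝ :=
  dt (e 0) n * dt (e k) n' - dt (e 0) n' * dt (e k) n

theorem ty_cv {e : Fin 3 → V3} {w b : V3} (hw : w 0 ≠ 0) (hb : b 0 ≠ 0) (Δ : V3) :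
    dt (cv e w b) Δ = b 0 * ty e w b Δ := by
  rw [dt_comm, dt_cv, dt_comm Δ (e 0), dt_comm Δ (e 1), dt_comm Δ (e 2)]
  unfold ty gr
  field_simp

/-- the second gradient in terms of the first one and of the minors -/
theorem nrm_id {e : Fin 3 → V3} (he : Ortho e) (n n' Δ : V3) (h0 : dt (e 0) n ≠ 0) :
    dt n' Δ = dt (e 0) n' / dt (e 0) n * dt n Δ +
      (pk e n n' 1 * dt (e 1) Δ + pk e n n' 2 * dt (e 2) Δ) / dt (e 0) n := by
  have h1 := dt_expand he n' Δ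
  have h2 := dt_expand he n Δ
  rw [h1, h2, dt_comm n' (e 0), dt_comm n' (e 1), dt_comm n' (e 2), dt_comm n (e 0),
    dt_comm n (e 1), dt_comm n (e 2)]
  unfold pk
  field_simp
  ring

/-- slopes of the gradient -/
theorem gr_le {w b : V3} (hw : ∀ i, 0 < w i) (hb : 1 / 2 ≤ b 0) {k : Fin 3} (hk : |b k| ≤ 1)
    (hwk : w 0 ≤ w k) : |gr b w k| ≤ 2 := by
  have hb0 : 0 < b 0 := by linarith
  unfold gr
  rw [abs_mul, abs_div, abs_div, abs_of_pos hb0, abs_of_pos (hw 0), abs_of_pos (hw k)]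
  have h1 : |b k| / b 0 ≤ 2 := by
    rw [div_le_iff₀ hb0]; linarith
  have h2 : w 0 / w k ≤ 1 := by
    rw [div_le_one (hw k)]; exact hwk
  have h3 : 0 ≤ |b k| / b 0 := by positivity
  have h4 : 0 ≤ w 0 / w k := (div_pos (hw 0) (hw k)).le
  calc |b k| / b 0 * (w 0 / w k) ≤ 2 * 1 := mul_le_mul h1 h2 h4 (by norm_num)
    _ = 2 := by norm_num

/-- `|gr 1| w 1 ≤ 2 w 0` -/
theorem gr_w {w b : V3} (hw : ∀ i, 0 < w i) (hb : 1 / 2 ≤ b 0) {k : Fin 3} (hk : |b k| ≤ 1) :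
    |gr b w k| * w k ≤ 2 * w 0 := by
  have hb0 : 0 < b 0 := by linarith
  have h1 : |b k| / b 0 ≤ 2 := by
    rw [div_le_iff₀ hb0]; linarith
  unfold gr
  rw [abs_mul, abs_div, abs_div, abs_of_pos hb0, abs_of_pos (hw 0), abs_of_pos (hw k)]
  have e1 : |b k| / b 0 * (w 0 / w k) * w k = |b k| / b 0 * w 0 := by
    have := (hw k).ne'
    field_simp
  rw [e1]
  exact mul_le_mul_of_nonneg_right h1 (hw 0).le

theorem row {e e' : Fin 3 → V3} (he : Ortho e) {w b : V3} (Δ : V3) (k : Fin 3) :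
    dt (e' k) Δ = dt (e' k) (e 0) * ty e w b Δ +
      (dt (e' k) (e 1) - dt (e' k) (e 0) * gr b w 1) * dt (e 1) Δ +
      (dt (e' k) (e 2) - dt (e' k) (e 0) * gr b w 2) * dt (e 2) Δ := by
  rw [dt_expand he (e' k) Δ]
  unfold ty
  ring

theorem comb_le {x y g : ℝ} (hx : |x| ≤ 1) (hy : |y| ≤ 1) (hg : |g| ≤ 2) : |x - y * g| ≤ 3 := by
  have h1 : |y * g| ≤ 1 * 2 := by
    rw [abs_mul]; exact mul_le_mul hy hg (abs_nonneg _) (by norm_num)
  exact (abs_sub _ _).trans (by linarith)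

/-- **the frame matrices** -/
theorem frame_mat {e e' : Fin 3 → V3} (he : Ortho e) (he' : Ortho e') {w w' b b' : V3}
    {a a' w1 w2 Λ K X : ℝ} (hw : ∀ i, 0 < w i) (hw' : ∀ i, 0 < w' i)
    (h02 : w 0 ≤ w 2) (h21 : w 2 ≤ w 1) (h02' : w' 0 ≤ w' 2) (h21' : w' 2 ≤ w' 1)
    (hb : 1 / 2 ≤ b 0) (hb1 : |b 1| ≤ 1) (hb2 : |b 2| ≤ 1)
    (hb' : 1 / 2 ≤ b' 0) (hb0' : b' 0 ≤ 2) (hb1' : |b' 1| ≤ 1) (hb2' : |b' 2| ≤ 1)
    (ha : 0 < a) (ha' : 0 < a') (haa : a ≤ K * a') (hK : 1 ≤ K) (hΛ : 1 ≤ Λ)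
    (hw2 : 0 < w2) (hw12 : w2 ≤ w1)
    (d1 : w1 ≤ K * w 1) (d2 : w2 ≤ K * w 2) (d2r : w 2 ≤ K * w2)
    (d1' : w1 ≤ K * w' 1) (d2' : w2 ≤ K * w' 2)
    (hX : 0 ≤ X) (haX : a * X ≤ K * w2)
    (hfr : |dt (e' 2) (e 1)| * w1 ≤ K * (Λ * w2)) :
    ∃ l11 l22 k10 k11 k12 k20 k21 k22 mm t1 t2 : ℝ,
      |l11| ≤ 8 * K ^ 3 ∧ |l22| ≤ 8 * K ^ 3 ∧ |k10| * X ≤ 8 * K ^ 3 ∧ |k11| ≤ 8 * K ^ 3 ∧
      |k12| ≤ 8 * K ^ 3 ∧ |k20| * X ≤ 8 * K ^ 3 ∧ |k21| ≤ 8 * K ^ 3 ∧ |k22| ≤ 8 * K ^ 3 ∧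
      |mm| ≤ 8 * K ^ 3 ∧
      t1 = pk e (cv e w b) (cv e' w' b') 1 * w1 / (Λ * a' * (b' 0 * b 0)) ∧
      t2 = pk e (cv e w b) (cv e' w' b') 2 * w2 / (a' * (b' 0 * b 0)) ∧
      ∀ Δ : V3,
        dt (e 1) Δ / w 1 = 0 * (ty e w b Δ / a) + l11 * (Λ * dt (e 1) Δ / w1) +
          0 * (dt (e 2) Δ / w2) ∧
        dt (e 2) Δ / w 2 = 0 * (ty e w b Δ / a) + 0 * (Λ * dt (e 1) Δ / w1) +
          l22 * (dt (e 2) Δ / w2) ∧
        dt (e' 1) Δ / w' 1 = k10 * (ty e w b Δ / a) + k11 * (Λ * dt (e 1) Δ / w1) +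
          k12 * (dt (e 2) Δ / w2) ∧
        dt (e' 2) Δ / w' 2 = k20 * (ty e w b Δ / a) + k21 * (Λ * dt (e 1) Δ / w1) +
          k22 * (dt (e 2) Δ / w2) ∧
        ty e' w' b' Δ / a' = mm * (ty e w b Δ / a) + (t1 * (Λ * dt (e 1) Δ / w1) +
          t2 * (dt (e 2) Δ / w2)) := by
  have K0 : 0 < K := by linarith
  have Λ0 : 0 < Λ := by linarith
  have w10 : 0 < w1 := by linarith
  have p0 := hw 0
  have p1 := hw 1
  have p2 := hw 2
  have p0' := hw' 0
  have p1' := hw' 1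
  have p2' := hw' 2
  have b0 : 0 < b 0 := by linarith
  have b0' : 0 < b' 0 := by linarith
  have hK3 : K ≤ K ^ 3 := le_self_pow₀ hK (by norm_num)
  have hK23 : K ^ 2 ≤ K ^ 3 := pow_le_pow_right₀ hK (by norm_num)
  have K3 : 0 < K ^ 3 := by positivity
  have K2 : 0 < K ^ 2 := by positivity
  have one : ∀ i j, |dt (e' i) (e j)| ≤ 1 := fun i j => abs_dt_le_one he he' i j
  have g1 := gr_le hw hb hb1 (h02.trans h21)
  have g2 := gr_le hw hb hb2 h02
  have g1w := gr_w hw hb hb1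
  -- ratios
  have r1 : w1 / w 1 ≤ K := by rw [div_le_iff₀ p1]; exact d1
  have r2 : w2 / w 2 ≤ K := by rw [div_le_iff₀ p2]; exact d2
  have r1' : w1 / w' 1 ≤ K := by rw [div_le_iff₀ p1']; exact d1'
  have r2' : w2 / w' 2 ≤ K := by rw [div_le_iff₀ p2']; exact d2'
  have r21' : w2 / w' 1 ≤ K := by
    rw [div_le_iff₀ p1']; linarith
  have wΛ : ∀ x : ℝ, 0 ≤ x → x / Λ ≤ x := fun x hx => div_le_self hx hΛ
  refine ⟨w1 / (Λ * w 1), w2 / w 2, dt (e' 1) (e 0) * a / w' 1,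
    (dt (e' 1) (e 1) - dt (e' 1) (e 0) * gr b w 1) * (w1 / (Λ * w' 1)),
    (dt (e' 1) (e 2) - dt (e' 1) (e 0) * gr b w 2) * (w2 / w' 1),
    dt (e' 2) (e 0) * a / w' 2,
    (dt (e' 2) (e 1) - dt (e' 2) (e 0) * gr b w 1) * (w1 / (Λ * w' 2)),
    (dt (e' 2) (e 2) - dt (e' 2) (e 0) * gr b w 2) * (w2 / w' 2),
    dt (e 0) (cv e' w' b') * a / (a' * b' 0),
    pk e (cv e w b) (cv e' w' b') 1 * w1 / (Λ * a' * (b' 0 * b 0)),
    pk e (cv e w b) (cv e' w' b') 2 * w2 / (a' * (b' 0 * b 0)),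
    ?_, ?_, ?_, ?_, ?_, ?_, ?_, ?_, ?_, rfl, rfl, ?_⟩
  · rw [abs_of_pos (by positivity)]
    have : w1 / (Λ * w 1) = w1 / w 1 / Λ := by field_simp
    rw [this]
    have := wΛ (w1 / w 1) (by positivity)
    linarith
  · rw [abs_of_pos (by positivity)]; linarith
  · rw [abs_div, abs_mul, abs_of_pos ha, abs_of_pos p1', div_mul_eq_mul_div, div_le_iff₀ p1']
    have h1 : |dt (e' 1) (e 0)| * a * X ≤ 1 * (a * X) := by
      rw [mul_assoc]; exact mul_le_mul_of_nonneg_right (one 1 0) (by positivity)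
    have h2 : K * w2 ≤ K * (K * w' 1) := by
      apply mul_le_mul_of_nonneg_left _ K0.le; linarith
    have h3 : K * (K * w' 1) ≤ 8 * K ^ 3 * w' 1 := by
      have : K * (K * w' 1) = K ^ 2 * w' 1 := by ring
      rw [this]
      apply mul_le_mul_of_nonneg_right _ p1'.le; linarith
    linarith
  · rw [abs_mul, abs_of_pos (by positivity : 0 < w1 / (Λ * w' 1))]
    have h1 := comb_le (one 1 1) (one 1 0) g1
    have h2 : w1 / (Λ * w' 1) ≤ K := by
      have : w1 / (Λ * w' 1) = w1 / w' 1 / Λ := by field_simp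
      rw [this]
      have := wΛ (w1 / w' 1) (by positivity)
      linarith
    calc _ ≤ 3 * K := mul_le_mul h1 h2 (by positivity) (by norm_num)
      _ ≤ _ := by linarith
  · rw [abs_mul, abs_of_pos (by positivity : 0 < w2 / w' 1)]
    have h1 := comb_le (one 1 2) (one 1 0) g2
    calc _ ≤ 3 * K := mul_le_mul h1 r21' (by positivity) (by norm_num)
      _ ≤ _ := by linarith
  · rw [abs_div, abs_mul, abs_of_pos ha, abs_of_pos p2', div_mul_eq_mul_div, div_le_iff₀ p2']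
    have h1 : |dt (e' 2) (e 0)| * a * X ≤ 1 * (a * X) := by
      rw [mul_assoc]; exact mul_le_mul_of_nonneg_right (one 2 0) (by positivity)
    have h2 : K * w2 ≤ K * (K * w' 2) := by
      apply mul_le_mul_of_nonneg_left _ K0.le; linarith
    have h3 : K * (K * w' 2) ≤ 8 * K ^ 3 * w' 2 := by
      have : K * (K * w' 2) = K ^ 2 * w' 2 := by ring
      rw [this]
      apply mul_le_mul_of_nonneg_right _ p2'.le; linarith
    linarith
  · rw [abs_mul, abs_of_pos (by positivity : 0 < w1 / (Λ * w' 2)), mul_div_assoc',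
      div_le_iff₀ (by positivity)]
    have h1 : |dt (e' 2) (e 1) - dt (e' 2) (e 0) * gr b w 1| * w1 ≤
        K * (Λ * w2) + K * (2 * w 0) := by
      calc _ ≤ (|dt (e' 2) (e 1)| + |gr b w 1|) * w1 := by
            apply mul_le_mul_of_nonneg_right _ w10.le
            refine (abs_sub _ _).trans (add_le_add le_rfl ?_)
            rw [abs_mul]
            calc _ ≤ 1 * |gr b w 1| := mul_le_mul_of_nonneg_right (one 2 0) (abs_nonneg _)
              _ = _ := one_mul _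
        _ = |dt (e' 2) (e 1)| * w1 + |gr b w 1| * w1 := by ring
        _ ≤ K * (Λ * w2) + K * (|gr b w 1| * w 1) := by
            apply add_le_add hfr
            calc |gr b w 1| * w1 ≤ |gr b w 1| * (K * w 1) :=
                  mul_le_mul_of_nonneg_left d1 (abs_nonneg _)
              _ = _ := by ring
        _ ≤ _ := by
            apply add_le_add le_rfl
            exact mul_le_mul_of_nonneg_left g1w K0.le
    have h2 : K * (Λ * w2) ≤ K ^ 2 * (Λ * w' 2) := by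
      calc K * (Λ * w2) ≤ K * (Λ * (K * w' 2)) := by gcongr
        _ = _ := by ring
    have h3 : K * (2 * w 0) ≤ 2 * K ^ 3 * (Λ * w' 2) := by
      have h4 : w 0 ≤ K ^ 2 * w' 2 := by
        calc w 0 ≤ w 2 := h02
          _ ≤ K * w2 := d2r
          _ ≤ K * (K * w' 2) := by gcongr
          _ = _ := by ring
      have h5 : w' 2 ≤ Λ * w' 2 := by nlinarith
      calc K * (2 * w 0) ≤ K * (2 * (K ^ 2 * w' 2)) := by gcongr
        _ = 2 * K ^ 3 * w' 2 := by ring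
        _ ≤ _ := by gcongr
    have h6 : K ^ 2 * (Λ * w' 2) ≤ K ^ 3 * (Λ * w' 2) := by gcongr
    have h7 : 0 < K ^ 3 * (Λ * w' 2) := by positivity
    linarith
  · rw [abs_mul, abs_of_pos (by positivity : 0 < w2 / w' 2)]
    have h1 := comb_le (one 2 2) (one 2 0) g2
    calc _ ≤ 3 * K := mul_le_mul h1 r2' (by positivity) (by norm_num)
      _ ≤ _ := by linarith
  · have h1 : |dt (e 0) (cv e' w' b')| ≤ 4 := by
      rw [dt_cv]
      have o : ∀ j, |dt (e 0) (e' j)| ≤ 1 := fun j => abs_dt_le_one he' he 0 j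
      have t0 : |w' 0 / w' 0 * b' 0 * dt (e 0) (e' 0)| ≤ 2 := by
        rw [div_self p0'.ne', one_mul, abs_mul, abs_of_pos b0']
        calc b' 0 * |dt (e 0) (e' 0)| ≤ 2 * 1 := mul_le_mul hb0' (o 0) (abs_nonneg _) (by norm_num)
          _ = 2 := by norm_num
      have tk : ∀ k : Fin 3, |b' k| ≤ 1 → w' 0 ≤ w' k →
          |w' 0 / w' k * b' k * dt (e 0) (e' k)| ≤ 1 := by
        intro k hk hwk
        rw [abs_mul, abs_mul, abs_of_pos (div_pos p0' (hw' k))]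
        have u1 : w' 0 / w' k ≤ 1 := by rw [div_le_one (hw' k)]; exact hwk
        calc w' 0 / w' k * |b' k| * |dt (e 0) (e' k)| ≤ 1 * 1 * 1 :=
              mul_le_mul (mul_le_mul u1 hk (abs_nonneg _) (by norm_num)) (o k) (abs_nonneg _)
                (by norm_num)
          _ = 1 := by norm_num
      have t1 := tk 1 hb1' (h02'.trans h21')
      have t2 := tk 2 hb2' h02'
      refine (abs_add_le _ _).trans ?_
      have := abs_add_le (w' 0 / w' 0 * b' 0 * dt (e 0) (e' 0))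
        (w' 0 / w' 1 * b' 1 * dt (e 0) (e' 1))
      linarith
    rw [abs_div, abs_mul, abs_of_pos ha, abs_of_pos (by positivity : 0 < a' * b' 0),
      div_le_iff₀ (by positivity)]
    have h2 : |dt (e 0) (cv e' w' b')| * a ≤ 4 * (K * a') :=
      mul_le_mul h1 haa ha.le (by norm_num)
    have h3 : 4 * (K * a') ≤ 8 * K ^ 3 * (a' * b' 0) := by
      have h4 : K * a' ≤ K ^ 3 * a' := by gcongr
      have h5 : K ^ 3 * a' * (1 / 2) ≤ K ^ 3 * a' * b' 0 := by gcongr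
      nlinarith
    linarith
  · intro Δ
    refine ⟨?_, ?_, ?_, ?_, ?_⟩
    · field_simp; ring
    · field_simp; ring
    · rw [row (e' := e') he (w := w) (b := b) Δ 1]
      field_simp
    · rw [row (e' := e') he (w := w) (b := b) Δ 2]
      field_simp
    · have h1 := nrm_id he (cv e w b) (cv e' w' b') Δ (by rw [dt_cv0 he p0.ne']; exact b0.ne')
      rw [ty_cv p0'.ne' b0'.ne', ty_cv p0.ne' b0.ne', dt_cv0 he p0.ne'] at h1
      have h2 : ty e' w' b' Δ = (dt (e 0) (cv e' w' b') * ty e w b Δ +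
          (pk e (cv e w b) (cv e' w' b') 1 * dt (e 1) Δ +
            pk e (cv e w b) (cv e' w' b') 2 * dt (e 2) Δ) / b 0) / b' 0 := by
        rw [eq_div_iff b0'.ne', mul_comm, h1]
        field_simp
      rw [h2]
      field_simp

end Crest.Agent.R136.Lkf18
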