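import Crest.Agent.R136.Mdr1_535

/-!
# R136 (S0187), U5 TILT, `Mid`: comparison of the frames of the planks (helper535)

* `IsExp.sub`, `kap_sub` : expansion over a sub-cell.
* `Nr Θ f f' a w1 w2` : two planks of dimensions `(a, w1, w2)` with frames `f`, `f'` agree up to `Θ`.
* `frame_near` : frames of two lines which are close over the deep cell.
* `frame_height` : frames of one line at two heights.
-/

set_option autoImplicit false
set_option linter.unusedVariables false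

namespace Crest.Agent.R136.Mdr535

open Crest.Agent.R136.Sh605 Crest.Agent.R136.Tl102
open Crest.Agent.R136.Fl808 (InB dt_expand abs_dt_le_one)

variable {e : Fin 3 → V3} {c T t : Ln4} {w : V3} {q : ℝ → V3 → ℝ} {a z0 ρ : ℝ} {b0 b1 : V3}
  {G : QF}

/-! ### sub-cells -/

theorem stP_sub (S : StP e c w q z0 ρ) {z1 ρ1 : ℝ} (h : z0 ≤ z1) (h' : z1 + ρ1 ≤ z0 + ρ) :
    StP e c w q z1 ρ1 where
  ortho := S.ortho
  isQ := S.isQ
  pos := S.pos
  st0 := fun z a b => S.st0 z (h.trans a) (b.trans h')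
  st1 := fun z a b => S.st1 z (h.trans a) (b.trans h')
  st2 := fun z a b => S.st2 z (h.trans a) (b.trans h')

theorem inSheet_sub (S : InSheet t e c w q a z0 ρ) {z1 ρ1 : ℝ} (h : z0 ≤ z1)
    (h' : z1 + ρ1 ≤ z0 + ρ) : InSheet t e c w q a z1 ρ1 :=
  fun z x y => S z (h.trans x) (y.trans h')

theorem isExp_sub (hE : IsExp q e w T z0 ρ b0 b1 G) (ζ1 r : ℝ) :
    IsExp q e w T (z0 + ρ * ζ1) (ρ * r) (fun k => b0 k + ζ1 * b1 k) (fun k => r * b1 k) G := by
  intro ζ x
  have h := hE (ζ1 + r * ζ) x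
  have e1 : z0 + ρ * ζ1 + ρ * r * ζ = z0 + ρ * (ζ1 + r * ζ) := by ring
  rw [e1, h]
  congr 2
  simp only [Fq, dt, bz]
  ring

/-- **the extent over a sub-cell** -/
theorem kap_sub (N : NrmC b0 b1 G) {ζ1 r : ℝ} (h0 : 0 ≤ ζ1) (h1 : ζ1 ≤ 1) (hr0 : 0 ≤ r)
    (hr1 : r ≤ 1) :
    kap (fun k => b0 k + ζ1 * b1 k) (fun k => r * b1 k) G ≤ 128 * kap b0 b1 G ∧
      ∀ k, k = 1 ∨ k = 2 → |(b0 k + ζ1 * b1 k) / (b0 0 + ζ1 * b1 0) - b0 k / b0 0| ≤
        2 * kap b0 b1 G := by
  have a0 : |(0 : ℝ)| ≤ 1 := by norm_num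
  have hst := N.st ζ1 h0 h1 0 0 0 a0 a0 a0
  simp only [mul_zero, add_zero] at hst
  obtain ⟨g1, g2, -, -, -, -, -, s1, s2⟩ := N.b1_le
  have k1 : |shB1 b0 b1 1| ≤ kap b0 b1 G := (le_max_left _ _).trans (le_max_left _ _)
  have k2 : |shB1 b0 b1 2| ≤ kap b0 b1 G := (le_max_right _ _).trans (le_max_left _ _)
  have k3 : |(shG b0 G).uu| ≤ kap b0 b1 G :=
    (le_max_left _ _).trans ((le_max_left _ _).trans (le_max_right _ _))
  have k4 : |(shG b0 G).uv| ≤ kap b0 b1 G :=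
    (le_max_right _ _).trans ((le_max_left _ _).trans (le_max_right _ _))
  have k5 : |(shG b0 G).vv| ≤ kap b0 b1 G := (le_max_right _ _).trans (le_max_right _ _)
  have hκ := kap_nonneg b0 b1 G
  have hκ13 := kap_le N
  obtain ⟨-, -, j3, j4, -, -, -⟩ := N.sh_le
  obtain ⟨m1, -⟩ := N.G_le
  have hb0 : b0 0 ≠ 0 := by linarith
  set κ := kap b0 b1 G with hκd
  set D := b0 0 + ζ1 * b1 0 with hD
  have hD2 : 1 / 2 ≤ D := hst.1
  have hDp : 0 < D := by linarith
  have hDi : |1 / D| ≤ 2 := by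
    rw [abs_of_pos (by positivity), div_le_iff₀ hDp]; linarith
  have hz1 : |ζ1| ≤ 1 := by rw [abs_of_nonneg h0]; exact h1
  have hr : |r| ≤ 1 := by rw [abs_of_nonneg hr0]; exact hr1
  -- the shifts
  have δ1 : (b0 1 + ζ1 * b1 1) / D - b0 1 / b0 0 = ζ1 * (1 / D * shB1 b0 b1 1) := by
    simp only [shB1, Matrix.cons_val, hD]
    rw [hD] at hDp
    field_simp
    ring
  have δ2 : (b0 2 + ζ1 * b1 2) / D - b0 2 / b0 0 = ζ1 * (1 / D * shB1 b0 b1 2) := by
    simp only [shB1, Matrix.cons_val, hD]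
    rw [hD] at hDp
    field_simp
    ring
  have hδ1 : |(b0 1 + ζ1 * b1 1) / D - b0 1 / b0 0| ≤ 2 * κ := by
    rw [δ1]; have := mul_abs_le hz1 (mul_abs_le hDi k1); linarith
  have hδ2 : |(b0 2 + ζ1 * b1 2) / D - b0 2 / b0 0| ≤ 2 * κ := by
    rw [δ2]; have := mul_abs_le hz1 (mul_abs_le hDi k2); linarith
  set d1 := (b0 1 + ζ1 * b1 1) / D - b0 1 / b0 0 with hd1
  set d2 := (b0 2 + ζ1 * b1 2) / D - b0 2 / b0 0 with hd2
  have e1 : (b0 1 + ζ1 * b1 1) / D = b0 1 / b0 0 + d1 := by rw [hd1]; ring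
  have e2 : (b0 2 + ζ1 * b1 2) / D = b0 2 / b0 0 + d2 := by rw [hd2]; ring
  have hb0le : |b0 0| ≤ 2 := by rw [abs_of_pos (by linarith)]; exact g2
  refine ⟨?_, ?_⟩
  · refine max_le (max_le ?_ ?_) (max_le (max_le ?_ ?_) ?_)
    · have : shB1 (fun k => b0 k + ζ1 * b1 k) (fun k => r * b1 k) 1 =
          r * (b0 0 * (1 / D * shB1 b0 b1 1)) := by
        simp only [shB1, Matrix.cons_val, hD]
        rw [hD] at hDp
        field_simp
        ring
      rw [this]
      have := mul_abs_le hr (mul_abs_le hb0le (mul_abs_le hDi k1))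
      linarith
    · have : shB1 (fun k => b0 k + ζ1 * b1 k) (fun k => r * b1 k) 2 =
          r * (b0 0 * (1 / D * shB1 b0 b1 2)) := by
        simp only [shB1, Matrix.cons_val, hD]
        rw [hD] at hDp
        field_simp
        ring
      rw [this]
      have := mul_abs_le hr (mul_abs_le hb0le (mul_abs_le hDi k2))
      linarith
    · have : (shG (fun k => b0 k + ζ1 * b1 k) G).uu =
          (shG b0 G).uu - d1 * (shG b0 G).yu + d1 * d1 * G.yy := by
        change G.uu - (b0 1 + ζ1 * b1 1) / D * G.yu + ((b0 1 + ζ1 * b1 1) / D) ^ 2 * G.yy = _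
        rw [e1]
        simp only [shG]
        ring
      rw [this]
      have t1 := mul_abs_le hδ1 j3
      have t2 := mul_abs_le (mul_abs_le hδ1 hδ1) m1
      refine (abs_add_le _ _).trans ((add_le_add ((abs_sub _ _).trans (add_le_add k3 t1)) t2).trans ?_)
      nlinarith
    · have : (shG (fun k => b0 k + ζ1 * b1 k) G).uv =
          (shG b0 G).uv - d2 * (shG b0 G).yu - d1 * (shG b0 G).yv + 2 * (d1 * d2) * G.yy := by
        change G.uv - (b0 2 + ζ1 * b1 2) / D * G.yu - (b0 1 + ζ1 * b1 1) / D * G.yv +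
          2 * ((b0 1 + ζ1 * b1 1) / D * ((b0 2 + ζ1 * b1 2) / D)) * G.yy = _
        rw [e1, e2]
        simp only [shG]
        ring
      rw [this]
      have t1 := mul_abs_le hδ2 j3
      have t2 := mul_abs_le hδ1 j4
      have t3 := mul_abs_le (mul_abs_le (show |(2 : ℝ)| ≤ 2 by norm_num) (mul_abs_le hδ1 hδ2)) m1
      refine (abs_add_le _ _).trans ((add_le_add ((abs_sub _ _).trans (add_le_add
        ((abs_sub _ _).trans (add_le_add k4 t1)) t2)) t3).trans ?_)
      nlinarith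
    · have : (shG (fun k => b0 k + ζ1 * b1 k) G).vv =
          (shG b0 G).vv - d2 * (shG b0 G).yv + d2 * d2 * G.yy := by
        change G.vv - (b0 2 + ζ1 * b1 2) / D * G.yv + ((b0 2 + ζ1 * b1 2) / D) ^ 2 * G.yy = _
        rw [e2]
        simp only [shG]
        ring
      rw [this]
      have t1 := mul_abs_le hδ2 j4
      have t2 := mul_abs_le (mul_abs_le hδ2 hδ2) m1
      refine (abs_add_le _ _).trans ((add_le_add ((abs_sub _ _).trans (add_le_add k5 t1)) t2).trans ?_)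
      nlinarith
  · rintro k (rfl | rfl)
    · exact hδ1
    · exact hδ2

/-! ### the gradient at another line -/

/-- constant part of the expansion around another line -/
theorem b0_move {T' : Ln4} {b0' b1' : V3} {G' : QF} (he : Ortho e) (hw : ∀ k, 0 < w k)
    (hE : IsExp q e w T z0 ρ b0 b1 G) (hE' : IsExp q e w T' z0 ρ b0' b1' G') {d : V3}
    (hd : ∀ k, d k = dt (e k) (T'.pos z0 - T.pos z0) / w k) :
    b0' 0 = b0 0 + (2 * G.yy * d 0 + G.yu * d 1 + G.yv * d 2) ∧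
    b0' 1 = b0 1 + (G.yu * d 0 + 2 * G.uu * d 1 + G.uv * d 2) ∧
    b0' 2 = b0 2 + (G.yv * d 0 + G.uv * d 1 + 2 * G.vv * d 2) := by
  have hT : T'.pos z0 = T.pos z0 + cmb (fr e w) d := by
    funext i
    have h := he.expand (T'.pos z0 - T.pos z0) i
    have h0 := (hw 0).ne'
    have h1 := (hw 1).ne'
    have h2 := (hw 2).ne'
    simp only [Pi.add_apply, cmb, fr, Pi.smul_apply, smul_eq_mul, hd]
    rw [Pi.sub_apply] at h
    have h' : T'.pos z0 i = T.pos z0 i + (dt (e 0) (T'.pos z0 - T.pos z0) * e 0 i +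
      dt (e 1) (T'.pos z0 - T.pos z0) * e 1 i + dt (e 2) (T'.pos z0 - T.pos z0) * e 2 i) := by
      linarith
    rw [h']
    field_simp
  have h := fun x => hE 0 x
  have h' := fun x => hE' 0 x
  simp only [mul_zero, add_zero] at h h'
  have hadd : ∀ x, T'.pos z0 + cmb (fr e w) x = T.pos z0 + cmb (fr e w) (d + x) := by
    intro x
    rw [hT]
    funext i
    simp only [Pi.add_apply, cmb]
    ring
  have key : ∀ x, Fq b0' b1' G' 0 x - Fq b0' b1' G' 0 (-x) =
      Fq b0 b1 G 0 (d + x) - Fq b0 b1 G 0 (d + -x) := by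
    intro x
    have h1 := h' x
    have h2 := h' (-x)
    rw [hadd, h] at h1 h2
    have h3 : w 0 * (Fq b0' b1' G' 0 x - Fq b0' b1' G' 0 (-x)) =
        w 0 * (Fq b0 b1 G 0 (d + x) - Fq b0 b1 G 0 (d + -x)) := by linarith
    exact mul_left_cancel₀ (hw 0).ne' h3
  have k0 := key ![1, 0, 0]
  have k1 := key ![0, 1, 0]
  have k2 := key ![0, 0, 1]
  simp only [Fq, dt, bz, QF.ev, Pi.add_apply, Pi.neg_apply, Matrix.cons_val] at k0 k1 k2
  refine ⟨?_, ?_, ?_⟩ <;> linarith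

end Crest.Agent.R136.Mdr535
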