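import Crest.Agent.R136.Lnk4_989
import Crest.Agent.R136.Mdr2_535

/-!
# R136 (S0187), g-free tilt (PLAN 2, B4, (III)): bounds of the coefficients (helper989)

`nb_bd`, `cf_le` : gradient and coefficients at both base heights; `Mtx` : change of coordinates.
-/

set_option autoImplicit false
set_option linter.unusedVariables false

namespace Crest.Agent.R136.Lnk989

open Crest.Agent.R136.Sh605 Crest.Agent.R136.Tl102 Crest.Agent.R136.Lgt989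
open Crest.Agent.R136.Mdr535 (ty gr y_bound kap_sub)

theorem nb_bd {b0 b1 : V3} {G : QF} (N : NrmC b0 b1 G) {b : ℝ} (hb : b = 0 ∨ b = 1) :
    1 / 2 ≤ nb b0 b1 b 0 ∧ nb b0 b1 b 0 ≤ 2 ∧ |nb b0 b1 b 1| ≤ 1 ∧ |nb b0 b1 b 2| ≤ 1 := by
  have a0 : |(0 : ℝ)| ≤ 1 := by norm_num
  rcases hb with rfl | rfl
  · have h := N.st 0 le_rfl zero_le_one 0 0 0 a0 a0 a0
    simp only [mul_zero, zero_mul, add_zero] at h
    rw [nb_zero]
    exact ⟨h.1, h.2, N.b01, N.b02⟩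
  · have h := N.st 1 zero_le_one le_rfl 0 0 0 a0 a0 a0
    simp only [mul_zero, one_mul, add_zero] at h
    rw [nb_one]
    exact ⟨h.1, h.2, N.b11, N.b12⟩

/-- **size of the coefficients** -/
theorem cf_le {b0 b1 : V3} {G : QF} (N : NrmC b0 b1 G) {b β : ℝ} (hb : b = 0 ∨ b = 1) (hβ : 0 ≤ β)
    {g1 g2 h11 h12 h22 : ℝ} (C : Cf b0 b1 G b β g1 g2 h11 h12 h22) {Bc : ℝ}
    (hB : 256 * (β * kap b0 b1 G) ≤ Bc) :
    |g1| ≤ Bc ∧ |g2| ≤ Bc ∧ |h11| ≤ Bc ∧ |h12| ≤ Bc ∧ |h22| ≤ Bc := by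
  obtain ⟨m1, m2, -, -⟩ := nb_bd N hb
  have hb0 : 0 ≤ b := by rcases hb with rfl | rfl <;> norm_num
  have hb1 : b ≤ 1 := by rcases hb with rfl | rfl <;> norm_num
  have K := (kap_sub N hb0 hb1 zero_le_one (le_refl (1:ℝ))).1
  have e1 : (fun k => (1:ℝ) * b1 k) = b1 := by funext k; rw [one_mul]
  rw [e1] at K
  have K' : kap (nb b0 b1 b) b1 G ≤ 128 * kap b0 b1 G := K
  obtain ⟨k1, k2, k3, k4, k5⟩ := kap_bd (nb b0 b1 b) b1 G
  have mp : 0 < nb b0 b1 b 0 := by linarith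
  have hk := Tl102.kap_nonneg b0 b1 G
  have D : |β / nb b0 b1 b 0| ≤ 2 * β := by
    rw [abs_div, abs_of_pos mp, abs_of_nonneg hβ, div_le_iff₀ mp]
    nlinarith
  have key : ∀ x : ℝ, |x| ≤ kap (nb b0 b1 b) b1 G → |β / nb b0 b1 b 0 * x| ≤ Bc := by
    intro x hx
    rw [abs_mul]
    calc |β / nb b0 b1 b 0| * |x| ≤ (2 * β) * (128 * kap b0 b1 G) :=
          mul_le_mul D (hx.trans K') (abs_nonneg _) (by positivity)
      _ = 256 * (β * kap b0 b1 G) := by ring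
      _ ≤ Bc := hB
  rw [C.g1e, C.g2e, C.h11e, C.h12e, C.h22e]
  exact ⟨key _ k1, key _ k2, key _ k3, key _ k4, key _ k5⟩

/-- every sheet has its coefficients -/
theorem exists_cf (b0 b1 : V3) (G : QF) (b β : ℝ) :
    ∃ g1 g2 h11 h12 h22, Cf b0 b1 G b β g1 g2 h11 h12 h22 := ⟨_, _, _, _, _, rfl, rfl, rfl, rfl, rfl⟩

/-- **change of coordinates**: normal coordinate `Y = ty / a` of `S`, strip coordinates `A`, `B` -/
structure Mtx (e e' : Fin 3 → V3) (w w' m m' : V3) (a a' : ℝ) (A B : V3 → ℝ) (L Bc : ℝ)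
    (l10 l11 l12 l20 l21 l22 k10 k11 k12 k20 k21 k22 mm t1 t2 : ℝ) : Prop where
  x1 : ∀ X, dt (e 1) X / w 1 = l10 * (ty e w m X / a) + l11 * A X + l12 * B X
  x2 : ∀ X, dt (e 2) X / w 2 = l20 * (ty e w m X / a) + l21 * A X + l22 * B X
  y1 : ∀ X, dt (e' 1) X / w' 1 = k10 * (ty e w m X / a) + k11 * A X + k12 * B X
  y2 : ∀ X, dt (e' 2) X / w' 2 = k20 * (ty e w m X / a) + k21 * A X + k22 * B X
  nn : ∀ X, ty e' w' m' X / a' = mm * (ty e w m X / a) + (t1 * A X + t2 * B X)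
  L1 : 1 ≤ L
  l11b : |l11| ≤ L
  l12b : |l12| ≤ L
  l21b : |l21| ≤ L
  l22b : |l22| ≤ L
  k11b : |k11| ≤ L
  k12b : |k12| ≤ L
  k21b : |k21| ≤ L
  k22b : |k22| ≤ L
  l10b : |l10| * Bc ≤ L
  l20b : |l20| * Bc ≤ L
  k10b : |k10| * Bc ≤ L
  k20b : |k20| * Bc ≤ L
  mmb : |mm| ≤ L

end Crest.Agent.R136.Lnk989
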