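import Crest.Agent.R136.Lkf_18
import Crest.Agent.R136.Lnk5_989

/-!
# R136 (S0187), PLAN 2, leaf (B4), (III): `Mtx` of helper989 from `frame_mat` (helper18)
-/

set_option autoImplicit false
set_option linter.unusedVariables false

namespace Crest.Agent.R136.Lkf18

open Crest.Agent.R136.Sh605
open Crest.Agent.R136.Mdr535 (ty gr)
open Crest.Agent.R136.Mlt89 (cv)
open Crest.Agent.R136.Lnk989 (Mtx)

/-- **the change of coordinates** `Mtx` at one height: strip coordinates `A = Λ <e 1, Δ> / w1`,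
`B = <e 2, Δ> / w2`; `L = 8 K ^ 3`. -/
theorem mtx_of {e e' : Fin 3 → V3} (he : Ortho e) (he' : Ortho e') {w w' b b' : V3}
    {a a' w1 w2 Λ K Bc : ℝ} (hw : ∀ i, 0 < w i) (hw' : ∀ i, 0 < w' i)
    (h02 : w 0 ≤ w 2) (h21 : w 2 ≤ w 1) (h02' : w' 0 ≤ w' 2) (h21' : w' 2 ≤ w' 1)
    (hb : 1 / 2 ≤ b 0) (hb1 : |b 1| ≤ 1) (hb2 : |b 2| ≤ 1)
    (hb' : 1 / 2 ≤ b' 0) (hb0' : b' 0 ≤ 2) (hb1' : |b' 1| ≤ 1) (hb2' : |b' 2| ≤ 1)
    (ha : 0 < a) (ha' : 0 < a') (haa : a ≤ K * a') (hK : 1 ≤ K) (hΛ : 1 ≤ Λ)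
    (hw2 : 0 < w2) (hw12 : w2 ≤ w1)
    (d1 : w1 ≤ K * w 1) (d2 : w2 ≤ K * w 2) (d2r : w 2 ≤ K * w2)
    (d1' : w1 ≤ K * w' 1) (d2' : w2 ≤ K * w' 2)
    (hX : 0 ≤ Bc) (haX : a * Bc ≤ K * w2)
    (hfr : |dt (e' 2) (e 1)| * w1 ≤ K * (Λ * w2)) :
    ∃ l11 l22 k10 k11 k12 k20 k21 k22 mm : ℝ,
      Mtx e e' w w' b b' a a' (fun Δ => Λ * dt (e 1) Δ / w1) (fun Δ => dt (e 2) Δ / w2)
        (8 * K ^ 3) Bc 0 l11 0 0 0 l22 k10 k11 k12 k20 k21 k22 mm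
        (pk e (cv e w b) (cv e' w' b') 1 * w1 / (Λ * a' * (b' 0 * b 0)))
        (pk e (cv e w b) (cv e' w' b') 2 * w2 / (a' * (b' 0 * b 0))) := by
  obtain ⟨l11, l22, k10, k11, k12, k20, k21, k22, mm, t1, t2, c1, c2, c3, c4, c5, c6, c7, c8, c9,
    ht1, ht2, H⟩ := frame_mat he he' hw hw' h02 h21 h02' h21' hb hb1 hb2 hb' hb0' hb1' hb2' ha ha'
      haa hK hΛ hw2 hw12 d1 d2 d2r d1' d2' hX haX hfr
  subst ht1 ht2
  have hK3 : 1 ≤ K ^ 3 := one_le_pow₀ hK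
  have hL : 0 ≤ 8 * K ^ 3 := by positivity
  exact ⟨l11, l22, k10, k11, k12, k20, k21, k22, mm,
    { x1 := fun X => (H X).1
      x2 := fun X => (H X).2.1
      y1 := fun X => (H X).2.2.1
      y2 := fun X => (H X).2.2.2.1
      nn := fun X => (H X).2.2.2.2
      L1 := by linarith
      l11b := c1
      l12b := by rw [abs_zero]; exact hL
      l21b := by rw [abs_zero]; exact hL
      l22b := c2
      k11b := c4
      k12b := c5
      k21b := c7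
      k22b := c8
      l10b := by rw [abs_zero, zero_mul]; exact hL
      l20b := by rw [abs_zero, zero_mul]; exact hL
      k10b := c3
      k20b := c6
      mmb := c9 }⟩

end Crest.Agent.R136.Lkf18
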