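import Crest.Agent.R136.Mlt1_89
import Crest.Agent.R136.Pl2B_860

/-!
# R136 (S0187), PLAN 2, leaf (B4), (H1) GRADIENT: the rotation of the normal of a sheet of type I in
the hull frame (helper89)

`cv S.e S.w b` = covector of the gradient with plank coordinates `b`.
`rot_FH` : `rot2 ≥ 1 / W` ⊢ `kp S ≤ 8 W |n0 ∧ n1 (f 0, f 2)| w2`.
-/

set_option autoImplicit false
set_option linter.unusedVariables false

namespace Crest.Agent.R136.Mlt89

open Crest.Agent.R136.Sh605 Crest.Agent.R136.Fl808 Crest.Agent.R136.Hl706 Crest.Agent.R136.Pl2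
open Crest.Agent.R136.K4 (Plk4)
open Crest.Agent.R136.Tlt51 (Shp InP)
open Crest.Agent.R136.KapP335 (kapP expP DetP expP_spec)
open Crest.Agent.R136.Tl102 (NrmC IsExp StP shB1 kap scB1 QF)

/-- covector of the gradient with plank coordinates `b` -/
noncomputable def cv (e : Fin 3 → V3) (w b : V3) : V3 :=
  ∑ k, (w 0 / w k * b k) • e k

theorem dt_cv (e : Fin 3 → V3) (w b x : V3) : dt x (cv e w b) =
    w 0 / w 0 * b 0 * dt x (e 0) + w 0 / w 1 * b 1 * dt x (e 1) + w 0 / w 2 * b 2 * dt x (e 2) := by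
  simp only [cv, Fin.sum_univ_three, dt_add, dt_smul]

theorem dt_cv0 {e : Fin 3 → V3} (he : Ortho e) {w b : V3} (hw : w 0 ≠ 0) :
    dt (e 0) (cv e w b) = b 0 := by
  rw [dt_cv, he 0 0, he 0 1, he 0 2]; simp [hw]

theorem dt_cv1 {e : Fin 3 → V3} (he : Ortho e) {w b : V3} :
    dt (e 1) (cv e w b) = w 0 / w 1 * b 1 := by
  rw [dt_cv, he 1 0, he 1 1, he 1 2]; simp

theorem dt_cv2 {e : Fin 3 → V3} (he : Ortho e) {w b : V3} :
    dt (e 2) (cv e w b) = w 0 / w 2 * b 2 := by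
  rw [dt_cv, he 2 0, he 2 1, he 2 2]; simp

theorem cv_affine (e : Fin 3 → V3) (w b0 b1 : V3) (ζ : ℝ) :
    cv e w (fun k => b0 k + ζ * b1 k) = cv e w b0 + ζ • cv e w b1 := by
  ext i
  simp only [cv, Fin.sum_univ_three, Pi.add_apply, Pi.smul_apply, smul_eq_mul]
  ring

/-- a permuted frame -/
theorem ortho_perm {e : Fin 3 → V3} (he : Ortho e) {σ : Fin 3 → Fin 3}
    (hσ : Function.Injective σ) : Ortho fun i => e (σ i) := by
  intro i j
  rw [he (σ i) (σ j)]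
  by_cases h : i = j
  · rw [if_pos h, if_pos (by rw [h])]
  · rw [if_neg h, if_neg (fun h' => h (hσ h'))]

theorem det0 {e : Fin 3 → V3} (he : Ortho e) (u v : V3) :
    |det3 (e 0) u v| = |dt (e 1) u * dt (e 2) v - dt (e 2) u * dt (e 1) v| := by
  have h := det3_frame (ortho_perm he (σ := ![2, 0, 1]) (by decide)) u v
  simpa [sh] using h

theorem det1 {e : Fin 3 → V3} (he : Ortho e) (u v : V3) :
    |det3 (e 1) u v| = |dt (e 0) u * dt (e 2) v - dt (e 2) u * dt (e 0) v| := by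
  rw [det3_frame he u v, ← abs_neg]
  congr 1
  unfold sh; ring

theorem det2 {e : Fin 3 → V3} (he : Ortho e) (u v : V3) :
    |det3 (e 2) u v| = |dt (e 1) u * dt (e 0) v - dt (e 0) u * dt (e 1) v| := by
  have h := det3_frame (ortho_perm he (σ := ![0, 2, 1]) (by decide)) u v
  simpa [sh] using h

theorem det_expand {e : Fin 3 → V3} (he : Ortho e) (x u v : V3) :
    det3 x u v = dt (e 0) x * det3 (e 0) u v + dt (e 1) x * det3 (e 1) u v +
      dt (e 2) x * det3 (e 2) u v := by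
  have h : ∀ j, x j = dt (e 0) x * e 0 j + dt (e 1) x * e 1 j + dt (e 2) x * e 2 j :=
    fun j => Ortho.expand he x j
  unfold det3
  rw [h 0, h 1, h 2]
  ring

/-- the rotation of the normal in a frame close to the plank frame -/
theorem rot_frame {e f : Fin 3 → V3} (he : Ortho e) (hf : Ortho f) {w b0 b1 : V3} {G : QF}
    (N : NrmC b0 b1 G) (hw0 : 0 < w 0) (hw02 : w 0 ≤ w 2) (hw21 : w 2 ≤ w 1) {C W : ℝ}
    (hC : 1 ≤ C) (hW : 1 ≤ W) (h10 : |dt (f 1) (e 0)| * w 1 ≤ C * w 2)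
    (h12 : |dt (f 1) (e 2)| * w 1 ≤ C * w 2) (hw : 32 * C * W * w 2 ≤ w 1)
    (hrot : kap b0 b1 G ≤ W * |shB1 b0 b1 2|) :
    w 0 * kap b0 b1 G ≤ 8 * W * (|dt (f 0) (cv e w b0) * dt (f 2) (cv e w b1) -
      dt (f 2) (cv e w b0) * dt (f 0) (cv e w b1)| * w 2) := by
  have hw2 : 0 < w 2 := hw0.trans_le hw02
  have hw1 : 0 < w 1 := hw2.trans_le hw21
  obtain ⟨g1, g2, -⟩ := N.b1_le
  set κ := kap b0 b1 G with hκ
  have k1 : |shB1 b0 b1 1| ≤ κ := (le_max_left _ _).trans (le_max_left _ _)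
  have k2 : |shB1 b0 b1 2| ≤ κ := (le_max_right _ _).trans (le_max_left _ _)
  have hκ0 : 0 ≤ κ := (abs_nonneg _).trans k1
  have hb0 : b0 0 ≠ 0 := by intro h; rw [h] at g1; norm_num at g1
  -- the three determinants
  have D1 : w 0 * κ ≤ 2 * W * (|det3 (e 1) (cv e w b0) (cv e w b1)| * w 2) := by
    rw [det1 he, dt_cv0 he hw0.ne', dt_cv0 he hw0.ne', dt_cv2 he, dt_cv2 he]
    have h1 : b0 0 * (w 0 / w 2 * b1 2) - w 0 / w 2 * b0 2 * b1 0 =
        w 0 / w 2 * (b0 0 * shB1 b0 b1 2) := by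
      simp only [shB1, Matrix.cons_val]
      field_simp
    rw [h1, abs_mul, abs_mul, abs_of_pos (by positivity : 0 < w 0 / w 2),
      abs_of_pos (by linarith : 0 < b0 0)]
    have h2 : w 0 / w 2 * (b0 0 * |shB1 b0 b1 2|) * w 2 = w 0 * (b0 0 * |shB1 b0 b1 2|) := by
      field_simp
    rw [h2]
    have h3 : |shB1 b0 b1 2| ≤ 2 * (b0 0 * |shB1 b0 b1 2|) := by
      have := abs_nonneg (shB1 b0 b1 2)
      nlinarith
    calc w 0 * κ ≤ w 0 * (W * |shB1 b0 b1 2|) := by gcongr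
      _ ≤ w 0 * (W * (2 * (b0 0 * |shB1 b0 b1 2|))) := by gcongr
      _ = _ := by ring
  have D2 : |det3 (e 2) (cv e w b0) (cv e w b1)| * w 1 ≤ 2 * (w 0 * κ) := by
    rw [det2 he, dt_cv0 he hw0.ne', dt_cv0 he hw0.ne', dt_cv1 he, dt_cv1 he]
    have h1 : w 0 / w 1 * b0 1 * b1 0 - b0 0 * (w 0 / w 1 * b1 1) =
        -(w 0 / w 1 * (b0 0 * shB1 b0 b1 1)) := by
      simp only [shB1, Matrix.cons_val_one, Matrix.cons_val_zero]
      field_simp
      ring
    rw [h1, abs_neg, abs_mul, abs_mul, abs_of_pos (by positivity : 0 < w 0 / w 1),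
      abs_of_pos (by linarith : 0 < b0 0)]
    have h2 : w 0 / w 1 * (b0 0 * |shB1 b0 b1 1|) * w 1 = w 0 * (b0 0 * |shB1 b0 b1 1|) := by
      field_simp
    rw [h2]
    calc w 0 * (b0 0 * |shB1 b0 b1 1|) ≤ w 0 * (2 * κ) := by gcongr
      _ = _ := by ring
  have D0 : |det3 (e 0) (cv e w b0) (cv e w b1)| * w 1 ≤ 2 * (w 0 * κ) := by
    rw [det0 he, dt_cv1 he, dt_cv1 he, dt_cv2 he, dt_cv2 he]
    have h1 : w 0 / w 1 * b0 1 * (w 0 / w 2 * b1 2) - w 0 / w 2 * b0 2 * (w 0 / w 1 * b1 1) =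
        w 0 / w 1 * (w 0 / w 2) * (b0 1 * shB1 b0 b1 2 - b0 2 * shB1 b0 b1 1) := by
      simp only [shB1, Matrix.cons_val_one, Matrix.cons_val_zero, Matrix.cons_val]
      field_simp
      ring
    have h4 : |b0 1 * shB1 b0 b1 2 - b0 2 * shB1 b0 b1 1| ≤ 2 * κ := by
      refine (abs_sub _ _).trans ?_
      rw [abs_mul, abs_mul]
      have x1 : |b0 1| * |shB1 b0 b1 2| ≤ 1 * κ :=
        mul_le_mul N.b01 k2 (abs_nonneg _) zero_le_one
      have x2 : |b0 2| * |shB1 b0 b1 1| ≤ 1 * κ :=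
        mul_le_mul N.b02 k1 (abs_nonneg _) zero_le_one
      linarith
    rw [h1, abs_mul, abs_mul, abs_of_pos (by positivity : 0 < w 0 / w 1),
      abs_of_pos (by positivity : 0 < w 0 / w 2)]
    have h5 : w 0 / w 2 ≤ 1 := (div_le_one hw2).2 hw02
    calc w 0 / w 1 * (w 0 / w 2) * |b0 1 * shB1 b0 b1 2 - b0 2 * shB1 b0 b1 1| * w 1 ≤
        w 0 / w 1 * 1 * (2 * κ) * w 1 := by gcongr
      _ = _ := by field_simp
  -- the axis `f 1`
  have u1 : dt (f 1) (f 1) = 1 := by have := hf 1 1; simpa using this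
  have s1 := dt_expand he (f 1) (f 1)
  rw [u1, dt_comm (e 0), dt_comm (e 1) (f 1), dt_comm (e 2) (f 1)] at s1
  have hs0 : |dt (f 1) (e 0)| ≤ 1 / 32 := by
    have h1 : |dt (f 1) (e 0)| * w 1 ≤ 1 / 32 * w 1 := by
      have h2 : C * w 2 ≤ C * W * w 2 := by
        have : 0 ≤ C * w 2 := by positivity
        nlinarith
      linarith
    exact le_of_mul_le_mul_right h1 hw1
  have hs2 : |dt (f 1) (e 2)| ≤ 1 / 32 := by
    have h1 : |dt (f 1) (e 2)| * w 1 ≤ 1 / 32 * w 1 := by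
      have h2 : C * w 2 ≤ C * W * w 2 := by
        have : 0 ≤ C * w 2 := by positivity
        nlinarith
      linarith
    exact le_of_mul_le_mul_right h1 hw1
  have hs1 : 1 / 2 ≤ |dt (f 1) (e 1)| := by
    have q0 : dt (f 1) (e 0) * dt (f 1) (e 0) ≤ 1 / 32 := by
      rw [← abs_mul_abs_self]; nlinarith [abs_nonneg (dt (f 1) (e 0))]
    have q2 : dt (f 1) (e 2) * dt (f 1) (e 2) ≤ 1 / 32 := by
      rw [← abs_mul_abs_self]; nlinarith [abs_nonneg (dt (f 1) (e 2))]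
    have q1 : 1 / 4 ≤ |dt (f 1) (e 1)| * |dt (f 1) (e 1)| := by
      rw [abs_mul_abs_self]; linarith
    by_contra hc
    push Not at hc
    nlinarith [abs_nonneg (dt (f 1) (e 1))]
  -- assembly
  have E := det_expand he (f 1) (cv e w b0) (cv e w b1)
  have E1 : 1 / 2 * |det3 (e 1) (cv e w b0) (cv e w b1)| ≤
      |det3 (f 1) (cv e w b0) (cv e w b1)| +
        |dt (f 1) (e 0)| * |det3 (e 0) (cv e w b0) (cv e w b1)| +
        |dt (f 1) (e 2)| * |det3 (e 2) (cv e w b0) (cv e w b1)| := by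
    have h1 : dt (e 1) (f 1) * det3 (e 1) (cv e w b0) (cv e w b1) =
        det3 (f 1) (cv e w b0) (cv e w b1) - dt (e 0) (f 1) * det3 (e 0) (cv e w b0) (cv e w b1) -
        dt (e 2) (f 1) * det3 (e 2) (cv e w b0) (cv e w b1) := by linarith
    have h2 : |dt (e 1) (f 1) * det3 (e 1) (cv e w b0) (cv e w b1)| ≤
        |det3 (f 1) (cv e w b0) (cv e w b1)| +
        |dt (e 0) (f 1) * det3 (e 0) (cv e w b0) (cv e w b1)| +
        |dt (e 2) (f 1) * det3 (e 2) (cv e w b0) (cv e w b1)| := by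
      rw [h1]
      exact (abs_sub _ _).trans (add_le_add (abs_sub _ _) le_rfl)
    rw [abs_mul, abs_mul, abs_mul, dt_comm (e 1), dt_comm (e 0), dt_comm (e 2)] at h2
    refine le_trans ?_ h2
    gcongr
  rw [← det1 hf]
  have F0 : |dt (f 1) (e 0)| * |det3 (e 0) (cv e w b0) (cv e w b1)| * w 2 ≤
      1 / (16 * W) * (w 0 * κ) := by
    have h1 : (|dt (f 1) (e 0)| * |det3 (e 0) (cv e w b0) (cv e w b1)| * w 2) * (w 1 * w 1) ≤
        (1 / (16 * W) * (w 0 * κ)) * (w 1 * w 1) := by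
      calc (|dt (f 1) (e 0)| * |det3 (e 0) (cv e w b0) (cv e w b1)| * w 2) * (w 1 * w 1) =
          (|dt (f 1) (e 0)| * w 1) * (|det3 (e 0) (cv e w b0) (cv e w b1)| * w 1) * w 2 := by ring
        _ ≤ (C * w 2) * (2 * (w 0 * κ)) * w 2 := by gcongr
        _ = (1 / (16 * W) * (w 0 * κ)) * ((32 * C * W * w 2) * w 2) := by field_simp; ring
        _ ≤ (1 / (16 * W) * (w 0 * κ)) * (w 1 * w 1) := by gcongr
    exact le_of_mul_le_mul_right h1 (by positivity)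
  have F2 : |dt (f 1) (e 2)| * |det3 (e 2) (cv e w b0) (cv e w b1)| * w 2 ≤
      1 / (16 * W) * (w 0 * κ) := by
    have h1 : (|dt (f 1) (e 2)| * |det3 (e 2) (cv e w b0) (cv e w b1)| * w 2) * (w 1 * w 1) ≤
        (1 / (16 * W) * (w 0 * κ)) * (w 1 * w 1) := by
      calc (|dt (f 1) (e 2)| * |det3 (e 2) (cv e w b0) (cv e w b1)| * w 2) * (w 1 * w 1) =
          (|dt (f 1) (e 2)| * w 1) * (|det3 (e 2) (cv e w b0) (cv e w b1)| * w 1) * w 2 := by ring
        _ ≤ (C * w 2) * (2 * (w 0 * κ)) * w 2 := by gcongr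
        _ = (1 / (16 * W) * (w 0 * κ)) * ((32 * C * W * w 2) * w 2) := by field_simp; ring
        _ ≤ (1 / (16 * W) * (w 0 * κ)) * (w 1 * w 1) := by gcongr
    exact le_of_mul_le_mul_right h1 (by positivity)
  have E2 : 1 / 2 * (|det3 (e 1) (cv e w b0) (cv e w b1)| * w 2) ≤
      |det3 (f 1) (cv e w b0) (cv e w b1)| * w 2 + 1 / (8 * W) * (w 0 * κ) := by
    have h1 := mul_le_mul_of_nonneg_right E1 hw2.le
    have h2 : 1 / (16 * W) * (w 0 * κ) + 1 / (16 * W) * (w 0 * κ) = 1 / (8 * W) * (w 0 * κ) := by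
      field_simp; ring
    have h3 : 1 / 2 * |det3 (e 1) (cv e w b0) (cv e w b1)| * w 2 =
        1 / 2 * (|det3 (e 1) (cv e w b0) (cv e w b1)| * w 2) := by ring
    have h4 : (|det3 (f 1) (cv e w b0) (cv e w b1)| +
        |dt (f 1) (e 0)| * |det3 (e 0) (cv e w b0) (cv e w b1)| +
        |dt (f 1) (e 2)| * |det3 (e 2) (cv e w b0) (cv e w b1)|) * w 2 =
        |det3 (f 1) (cv e w b0) (cv e w b1)| * w 2 +
        |dt (f 1) (e 0)| * |det3 (e 0) (cv e w b0) (cv e w b1)| * w 2 +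
        |dt (f 1) (e 2)| * |det3 (e 2) (cv e w b0) (cv e w b1)| * w 2 := by ring
    rw [h3, h4] at h1
    linarith
  have hW0 : 0 < W := by linarith
  have E3 : w 0 * κ ≤ 4 * W * (|det3 (f 1) (cv e w b0) (cv e w b1)| * w 2) + 1 / 2 * (w 0 * κ) := by
    calc w 0 * κ ≤ 2 * W * (|det3 (e 1) (cv e w b0) (cv e w b1)| * w 2) := D1
      _ = 4 * W * (1 / 2 * (|det3 (e 1) (cv e w b0) (cv e w b1)| * w 2)) := by ring
      _ ≤ 4 * W * (|det3 (f 1) (cv e w b0) (cv e w b1)| * w 2 + 1 / (8 * W) * (w 0 * κ)) := by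
          gcongr
      _ = _ := by field_simp; ring
  linarith

/-- **rotation of the normal in the hull frame**, for a sheet of type I -/
theorem rot_FH {S : Plk4} {T : Ln4} {z0 ρ r C W Y : ℝ} {f : Fin 3 → V3} (hr : 0 < r) (hρ : 0 < ρ)
    (hS : Shp S z0 ρ r) (hT : InP T S z0 ρ) (hC : 1 ≤ C) (hW : 1 ≤ W) (hF : FH C Y S f z0 ρ)
    (hrot : 1 / W ≤ rot2 S z0 ρ T) (hw : 32 * C * W * S.w 2 ≤ S.w 1) :
    kp S z0 ρ T ≤ 8 * W * (|dt (f 0) (cv S.e S.w (expP S z0 ρ T).1) *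
        dt (f 2) (cv S.e S.w (expP S z0 ρ T).2.1) -
      dt (f 2) (cv S.e S.w (expP S z0 ρ T).1) *
        dt (f 0) (cv S.e S.w (expP S z0 ρ T).2.1)| * S.w 2) := by
  have hw0 : 0 < S.w 0 := (hr.trans_le hS.r0_le).trans_le hS.a_le0
  have hex := expP_spec hS.isQ hw0.ne' z0 ρ T
  have N : NrmC (expP S z0 ρ T).1 (expP S z0 ρ T).2.1 (expP S z0 ρ T).2.2 :=
    hex.nrmC (StP.of_shN hS hw0) hρ.le (fun z h1 h2 => (hT z h1 h2).1)
  refine rot_frame hS.ortho hF.ortho N hw0 hS.w0_le hS.w_le hC hW hF.e10 hF.e12 hw ?_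
  have hκ0 := Tl102.kap_nonneg (expP S z0 ρ T).1 (expP S z0 ρ T).2.1 (expP S z0 ρ T).2.2
  rcases hκ0.eq_or_lt with h | h
  · rw [← h]; positivity
  · have h1 := hrot
    unfold rot2 at h1
    simp only [scB1, Matrix.cons_val] at h1
    rw [abs_div, abs_of_pos h, div_le_div_iff₀ (by linarith) h] at h1
    linarith

end Crest.Agent.R136.Mlt89
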