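import Crest.Agent.R136.Clu_108
import Crest.Agent.R136.Grp_639

/-!
# R136 (S0187), PLAN 2, B4: from 108's six inequalities to the greedy groups (helper639)

`Lnk` : for every line `T` of `Z` the coefficients of the two sheets along `T` (108's letters) and
`Six` for every pair of lines of a piece.  `grp_of` : `Lnk ⊢ Grp`.  `share_lnk` : the count.
-/

set_option autoImplicit false
set_option linter.unusedVariables false

open Finset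

namespace Crest.Agent.R136.Vlk639

open Crest.Agent.R136.Clu108 Crest.Agent.R136.Grp639

/-- the constant of the bundles -/
def KK (W K : ℝ) : ℝ := 200 * W ^ 2 * K ^ 3

/-- **the normal coordinate of a bundle** -/
theorem bundle_y {K d M W m l : ℝ} {g g' : ℝ × ℝ} {h h' : ℝ × ℝ × ℝ} {y0 y1 px s cx t : ℝ}
    (H : Six K d M g g' h h' y0 y1 px s cx t) (hK : 1 ≤ K) (hW : 1 ≤ W) (hM : 0 < M)
    (hd : 100 * d ≤ 1) (hb : Bd (W * M) g h) (hb' : Bd (W * M) g' h')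
    (hh : |h.2.2| ≤ W * M) (hh' : |h'.2.2| ≤ W * M)
    (hm : 100 * (K * (W * m)) ≤ 1) (hpx : |px| ≤ m) (hs : |s| ≤ m) (hcx : |cx| ≤ m)
    (ht : |t| ≤ m) (l0 : 0 < l) (l1 : l ≤ 1) (lτ : max |g.2| |g'.2| * l ≤ 1)
    (lη : max |h.2.2| |h'.2.2| * l ^ 2 ≤ 1)
    (hmax : l = 1 ∨ max |g.2| |g'.2| * l = 1 ∨ max |h.2.2| |h'.2.2| * l ^ 2 = 1)
    (hs4 : 4 * (200 * W ^ 2 * K ^ 3) * |s| ≤ l) (z : ℝ) (hz : |z| ≤ 1) :
    |y0 + z * y1| ≤ 10 * (200 * W ^ 2 * K ^ 3) := by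
  have K0 : 0 < K := by linarith
  have W0 : 0 < W := by linarith
  have m0 : 0 ≤ m := (abs_nonneg s).trans hs
  have s0 := abs_nonneg s
  have Wm : 0 ≤ W * m := by positivity
  have hm1 : 100 * (W * m) ≤ 1 := by
    have : W * m ≤ K * (W * m) := le_mul_of_one_le_left Wm hK
    linarith
  have T := ((bundle H hK hW hM hd hb hb' hh hh' hm hpx hs hcx ht l0 l1 lτ lη hmax).2 hs4).1
  have B := bundle_eq (τ := max |g.2| |g'.2|) (η := max |h.2.2| |h'.2.2|) H hK hW hM hd hb hb'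
    (le_max_left _ _) (le_max_right _ _) (le_max_left _ _) (le_max_right _ _) hm1 hpx hs hcx ht
  obtain ⟨F1, F2, F3, F4, F5, F6, F7, F8⟩ := facts hK hW (le_refl (1:ℝ))
  simp only [mul_one] at F1 F2 F3 F4 F5 F6 F7 F8
  have K11 : 1 ≤ 200 * W ^ 2 * K ^ 3 := by linarith
  have KK1 : 8 * K ≤ 200 * W ^ 2 * K ^ 3 := by linarith
  have KK2 : 240 * W * K ^ 2 ≤ 2 * (200 * W ^ 2 * K ^ 3) := by linarith
  have Q4 := Qs_le K11 rfl rfl l0 l1 lτ lη hs4 T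
  obtain ⟨B0, B1, B2, B3⟩ := B
  obtain ⟨K1, hK1⟩ : ∃ K1, K1 = 200 * W ^ 2 * K ^ 3 := ⟨_, rfl⟩
  rw [← hK1] at hs4 K11 KK1 KK2 ⊢
  have η0 : 0 ≤ max |h.2.2| |h'.2.2| := (abs_nonneg _).trans (le_max_left _ _)
  have p0 : 0 ≤ M * |px| := by positivity
  have p1 : 0 ≤ M * |cx| := by positivity
  have c1 : |y1| ≤ 2 * K1 := by
    have : 60 * W * K ^ 2 * Qs (max |g.2| |g'.2|) (max |h.2.2| |h'.2.2|) s t
        ≤ 60 * W * K ^ 2 * 4 := mul_le_mul_of_nonneg_left Q4 (by positivity)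
    linarith
  have c2 : |y0| ≤ K1 := by
    have i1 : |s| ≤ l := by
      have : |s| ≤ K1 * |s| := le_mul_of_one_le_left s0 K11
      have : 0 ≤ K1 * |s| := by positivity
      linarith
    have i2 : max |h.2.2| |h'.2.2| * s ^ 2 ≤ 1 := by
      calc max |h.2.2| |h'.2.2| * s ^ 2 = max |h.2.2| |h'.2.2| * (|s| ^ 2) := by rw [sq_abs]
        _ ≤ max |h.2.2| |h'.2.2| * l ^ 2 := by gcongr
        _ ≤ 1 := lη
    have : 4 * K * (1 + max |h.2.2| |h'.2.2| * s ^ 2) ≤ 4 * K * 2 :=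
      mul_le_mul_of_nonneg_left (by linarith) (by positivity)
    linarith
  have c3 : |y0 + z * y1| ≤ |y0| + 1 * |y1| := by
    refine (abs_add_le _ _).trans (add_le_add le_rfl ?_)
    rw [abs_mul]
    exact mul_le_mul_of_nonneg_right hz (abs_nonneg _)
  linarith

variable {ι : Type*}

/-- **the data of a pair of sheets in 108's letters**: `(G T, H T)`, `(G' T, H' T)` = linear and
quadratic parts of the two sheets along `T` in the orthonormal frame `(g T, (g T)^⊥)` of the strip. -/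
structure Lnk (Z : Finset ι) (p c : ι → Fin 2 → ℝ) (b : ι → ℝ) (g : ι → Fin 2 → ℝ)
    (y0 y1 : ι → ι → ℝ) (M : ι → ℝ) (G G' : ι → ℝ × ℝ) (H H' : ι → ℝ × ℝ × ℝ)
    (R m W K d M0 Mx : ℝ) : Prop where
  bb : ∀ T ∈ Z, b T = 0 ∨ b T = 1
  gn : ∀ T ∈ Z, g T 0 ^ 2 + g T 1 ^ 2 = 1
  rp : ∀ T ∈ Z, ∀ k, |p T k| ≤ R
  rc : ∀ T ∈ Z, ∀ k, |c T k| ≤ R
  hR : 0 ≤ R
  hm : 0 < m
  hmm : 100 * (K * (W * m)) ≤ 1
  hd : 100 * d ≤ 1
  hW : 1 ≤ W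
  hK : 1 ≤ K
  hM : 0 < M0
  hWM : 1 ≤ W * M0
  MM : ∀ T ∈ Z, M0 ≤ M T
  Mx : ∀ T ∈ Z, M T ≤ Mx
  bd : ∀ T ∈ Z, Bd (W * M T) (G T) (H T)
  bd' : ∀ T ∈ Z, Bd (W * M T) (G' T) (H' T)
  g2 : ∀ T ∈ Z, |(G T).2| ≤ W * M T
  g2' : ∀ T ∈ Z, |(G' T).2| ≤ W * M T
  h22 : ∀ T ∈ Z, |(H T).2.2| ≤ W * M T
  h22' : ∀ T ∈ Z, |(H' T).2.2| ≤ W * M T
  six : ∀ T ∈ Z, ∀ T' ∈ Z, b T' = b T →
    (∀ k, |dx p c b T T' k| ≤ m / 2 ∧ |dc c T T' k| ≤ m / 2) →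
    Six K d (M T) (G T) (G' T) (H T) (H' T) (y0 T T') (y1 T T') (al (g T) (dx p c b T T'))
      (pe (g T) (dx p c b T T')) (al (g T) (dc c T T')) (pe (g T) (dc c T T'))

section
variable {Z : Finset ι} {p c : ι → Fin 2 → ℝ} {b : ι → ℝ} {g : ι → Fin 2 → ℝ}
  {y0 y1 : ι → ι → ℝ} {M : ι → ℝ} {G G' : ι → ℝ × ℝ} {H H' : ι → ℝ × ℝ × ℝ}
  {R m W K d M0 Mx : ℝ}

theorem al_small {g x : Fin 2 → ℝ} {m : ℝ} (hg : g 0 ^ 2 + g 1 ^ 2 = 1) (hx : ∀ k, |x k| ≤ m / 2) :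
    |al g x| ≤ m ∧ |pe g x| ≤ m := by
  obtain ⟨n0, n1⟩ := g_le hg
  have a : ∀ u v : ℝ, |u| ≤ 1 → |v| ≤ m / 2 → |u * v| ≤ m / 2 := by
    intro u v hu hv
    rw [abs_mul]
    calc |u| * |v| ≤ 1 * |v| := mul_le_mul_of_nonneg_right hu (abs_nonneg _)
      _ ≤ m / 2 := by linarith
  constructor
  · refine (abs_add_le _ _).trans ?_
    have := a _ _ n0 (hx 0)
    have := a _ _ n1 (hx 1)
    linarith
  · refine (abs_sub _ _).trans ?_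
    have := a _ _ n0 (hx 1)
    have := a _ _ n1 (hx 0)
    linarith

/-- **`Lnk ⊢ Grp`** -/
theorem grp_of (h : Lnk Z p c b g y0 y1 M G G' H H' R m W K d M0 Mx) {N : ℕ}
    (hN : W * Mx ≤ 2 ^ N) :
    ∃ l ts : ι → ℝ, Grp Z p c b g y0 y1 M l ts R (m / 2) W (200 * W ^ 2 * K ^ 3) M0 N ∧
      (∀ T ∈ Z, 1 ≤ W * (M T * l T)) ∧ ∀ T ∈ Z, (W * Mx)⁻¹ ≤ l T := by
  have hK := h.hK
  have hW := h.hW
  have W0 : 0 < W := by linarith
  obtain ⟨F1, F2, F3, F4, F5, F6, F7, F8⟩ := facts hK hW (le_refl (1:ℝ))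
  simp only [mul_one] at F1 F2 F3 F4 F5 F6 F7 F8
  have K11 : 1 ≤ 200 * W ^ 2 * K ^ 3 := by linarith
  have hex : ∀ T, ∃ l : ℝ, 0 < l ∧ l ≤ 1 ∧ max |(G T).2| |(G' T).2| * l ≤ 1 ∧
      max |(H T).2.2| |(H' T).2.2| * l ^ 2 ≤ 1 ∧
      (l = 1 ∨ max |(G T).2| |(G' T).2| * l = 1 ∨ max |(H T).2.2| |(H' T).2.2| * l ^ 2 = 1) ∧
      ∀ B, 1 ≤ B → max |(G T).2| |(G' T).2| ≤ B → max |(H T).2.2| |(H' T).2.2| ≤ B → 1 ≤ B * l :=
    fun T => exists_l _ _ ((abs_nonneg _).trans (le_max_left _ _))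
      ((abs_nonneg _).trans (le_max_left _ _))
  choose l l0 l1 lτ lη lm lB using hex
  have hWM : ∀ T ∈ Z, 1 ≤ W * M T := fun T hT =>
    h.hWM.trans (mul_le_mul_of_nonneg_left (h.MM T hT) W0.le)
  have hlM : ∀ T ∈ Z, 1 ≤ W * M T * l T := fun T hT =>
    lB T _ (hWM T hT) (max_le (h.g2 T hT) (h.g2' T hT)) (max_le (h.h22 T hT) (h.h22' T hT))
  have hlM' : ∀ T ∈ Z, 1 ≤ W * (M T * l T) := fun T hT => by
    rw [← mul_assoc]; exact hlM T hT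
  have hl0 : ∀ T ∈ Z, (W * Mx)⁻¹ ≤ l T := by
    intro T hT
    have a1 : W * M T * l T ≤ W * Mx * l T :=
      mul_le_mul_of_nonneg_right (mul_le_mul_of_nonneg_left (h.Mx T hT) W0.le) (l0 T).le
    have a2 := (hlM T hT).trans a1
    have a3 : 0 < W * Mx :=
      lt_of_lt_of_le one_pos ((hWM T hT).trans (mul_le_mul_of_nonneg_left (h.Mx T hT) W0.le))
    rw [inv_le_iff_one_le_mul₀ a3]
    linarith
  refine ⟨l, fun T => ts (G T).2 (H T).2.2 (G' T).2 (H' T).2.2, ?_, hlM', hl0⟩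
  refine ⟨h.bb, h.gn, h.rp, h.rc, h.hR, by linarith [h.hm], ?_, hW, K11, h.hM, h.MM,
    fun T _ => l1 T, ?_, hlM', ?_⟩
  · have hm := h.hm
    have h1 : W * m ≤ K * (W * m) := le_mul_of_one_le_left (by positivity) hK
    have h2 : m ≤ W * m := le_mul_of_one_le_left hm.le hW
    have := h.hmm
    linarith
  · intro T hT
    refine le_trans ?_ (hl0 T hT)
    have a3 : 0 < W * Mx :=
      lt_of_lt_of_le one_pos ((hWM T hT).trans (mul_le_mul_of_nonneg_left (h.Mx T hT) W0.le))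
    rw [one_div, inv_pow]
    exact inv_anti₀ a3 hN
  · intro T hT T' hT' hb hx
    have S := h.six T hT T' hT' hb hx
    have MT : 0 < M T := h.hM.trans_le (h.MM T hT)
    obtain ⟨x1, x2⟩ := al_small (h.gn T hT) (fun k => (hx k).1)
    obtain ⟨c1, c2⟩ := al_small (h.gn T hT) (fun k => (hx k).2)
    have B := bundle S hK hW MT h.hd (h.bd T hT) (h.bd' T hT) (h.h22 T hT) (h.h22' T hT) h.hmm
      x1 x2 c1 c2 (l0 T) (l1 T) (lτ T) (lη T) (lm T)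
    refine ⟨B.1, fun hs => ⟨(B.2 hs).1, fun z hz => ⟨(B.2 hs).2 z hz, ?_⟩⟩⟩
    exact bundle_y S hK hW MT h.hd (h.bd T hT) (h.bd' T hT) (h.h22 T hT) (h.h22' T hT) h.hmm
      x1 x2 c1 c2 (l0 T) (l1 T) (lτ T) (lη T) (lm T) hs z hz

/-- **the count from 108's inequalities and the flat planks** -/
theorem share_lnk (h : Lnk Z p c b g y0 y1 M G G' H H' R m W K d M0 Mx) {N : ℕ}
    (hN : W * Mx ≤ 2 ^ N) {q Q : ℝ} (hq : 0 ≤ q) (hQ : 0 ≤ Q)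
    (hcap : Cap Z p c b g y0 y1 (200 * W ^ 2 * K ^ 3) M0 (W * Mx)⁻¹ q Q) :
    (Z.card : ℝ) ≤ 2 * 10 ^ 8 * (N + 1) * (R / (m / 2) + 1) ^ 4 *
      ((200 * W ^ 2 * K ^ 3) ^ 2 * W) ^ 2 * (200 * W ^ 2 * K ^ 3) * Q := by
  obtain ⟨l, ts, hg, h1, h2⟩ := grp_of h hN
  exact groups hg hq hQ h2 hcap

end

end Crest.Agent.R136.Vlk639
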