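import Crest.Agent.R136.Plk6_511
import Crest.Agent.R136.Vlk_639

/-!
# R136 (S0187), PLAN 2, leaf (B4) share: literal of the links (helper410)

`LnkS` : the links of the pair on a small part.
-/

set_option autoImplicit false
set_option linter.unusedVariables false

open Finset

namespace Crest.Agent.R136.Shv410

open Crest.Agent.R136.Sh605 Crest.Agent.R136.Fl808
open Crest.Agent.R136.K4 (Plk4)
open Crest.Agent.R136.Tlt51 (Shp InP)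
open Crest.Agent.R136.Pl2
open Crest.Agent.R136.Pl2W102 (Near Ex2 Two1)
open Crest.Agent.R136.Shd410
open Crest.Agent.R136.Lnk989 (dis)
open Crest.Agent.R136.Plk511 (stp stc ny0 ny1 cap_shd)
open Crest.Agent.R136.Vlk639 (Lnk share_lnk)

/-- the lines of `F` are close to each other in the boxes of both sheets, at both ends -/
def Small (μ : ℝ) (L : ℕ → Ln4) (F : Finset ℕ) (S S' : Plk4) (z0 ρ : ℝ) : Prop :=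
  ∀ T ∈ F, ∀ T' ∈ F, ∀ z, z = z0 ∨ z = z0 + ρ → ∀ k : Fin 3, k ≠ 0 →
    |dt (S.e k) (dis (L T) (L T') z)| ≤ μ * S.w k ∧
      |dt (S'.e k) (dis (L T) (L T') z)| ≤ μ * S'.w k

/-- the links of the pair on a part -/
def LnkOn (c : ℝ) (L : ℕ → Ln4) (F : Finset ℕ) (S : Plk4) (t0 : Ln4) (W a Y w1 w2 z0 ρ : ℝ)
    (j k' : ℕ) : Prop :=
  ∃ (b : ℕ → ℝ) (gv : ℕ → Fin 2 → ℝ) (N : ℕ → V3) (au : ℝ) (Mf : ℕ → ℝ) (G G' : ℕ → ℝ × ℝ)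
    (H H' : ℕ → ℝ × ℝ × ℝ) (R m W1 K1 d M0 Mx : ℝ),
    Lnk F (stp S.e (2 ^ j) w1 w2 z0 t0 L) (stc S.e (2 ^ j) w1 w2 ρ t0 L) b gv
      (ny0 S.e S.w au z0 ρ N b L) (ny1 S.e S.w au z0 ρ N L) Mf G G' H H' R m W1 K1 d M0 Mx ∧
    R ≤ W ^ c ∧ 1 ≤ W ^ c * m ∧ W1 ≤ W ^ c ∧ K1 ≤ W ^ c ∧ 2 ^ k' * (Y / a) ≤ W ^ c * M0 ∧
    1 ≤ M0 ∧ a * Mx ≤ W ^ c * w2 ∧ 0 < au ∧ au ≤ W ^ c * a ∧
    ∀ T ∈ F, |N T 1 / N T 0| ≤ 2 ∧ |N T 2 / N T 0| ≤ 2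

/-- **the links** (989, 816, 18, 524, 777, 723, 140) -/
def LnkS : Prop := ∀ (η : ℝ) (qm qp : Fin 3 → ℝ), Ex2 η qm qp → ∃ K c : ℝ, 0 ≤ K ∧ 0 ≤ c ∧
  ∀ (L : ℕ → Ln4) (Z : Finset ℕ) (S S' : Plk4) (f g : Fin 3 → V3)
    (W M a Y w1 w2 z0 ρ r : ℝ) (j k' : ℕ),
    ShD K qm qp L Z S S' f g W M a Y w1 w2 z0 ρ r j k' →
    ∀ t0 ∈ Z, ∀ F ⊆ Z, F.Nonempty → Small (1 / W ^ c) L F S S' z0 ρ →
      LnkOn c L F S (L t0) W a Y w1 w2 z0 ρ j k'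

end Crest.Agent.R136.Shv410
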