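import Crest.Agent.R136.Pl7c_186

/-!
# R136 (S0187), g-free tilt (PLAN 2), leaf (B2): sheets longer than the cell (helper186)

`DMx.wide` : D-max for the sheets with `w 1 ≤ ρ` gives D-max for all sheets with `w 1 ≤ K ρ`, with
loss `(35 K)^6 (17 K)^(1 + qp 0)`: curved sheets are cut into their sub-boxes of relative size
`1/(16 K)`, thin sheets are replaced by flat boxes.
-/

set_option autoImplicit false
set_option linter.unusedVariables false
set_option linter.unusedSectionVars false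

namespace Crest.Agent.R136.Pl7186

open Finset
open Crest.Agent.R136.Sh605
open Crest.Agent.R136.HR829 (crs dt_nonneg cs cs1 parseval)
open Crest.Agent.R136.Phc248

/-! ### grid -/

/-- grid label of a line in the box `(e, c, w)` : the six end coordinates in units `w i / m` -/
noncomputable def glb (e : Fin 3 → V3) (c : Ln4) (w : V3) (z0 ρ : ℝ) (m : ℕ) (t : Ln4) :
    Fin 3 → ℤ × ℤ :=
  fun i => (⌊dt (e i) (t.pos z0 - c.pos z0) * m / w i⌋,
    ⌊dt (e i) (t.pos (z0 + ρ) - c.pos (z0 + ρ)) * m / w i⌋)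

theorem floor_mem {y w : ℝ} (hw : 0 < w) {m : ℕ} (h : |y| ≤ w) :
    ⌊y * m / w⌋ ∈ Finset.Icc (-(m : ℤ)) m := by
  have h1 := abs_le.1 h
  have hm : (0 : ℝ) ≤ m := Nat.cast_nonneg m
  rw [Finset.mem_Icc]
  constructor
  · rw [Int.le_floor, le_div_iff₀ hw]
    push_cast
    nlinarith
  · have : y * m / w ≤ (m : ℝ) := by
      rw [div_le_iff₀ hw]; nlinarith
    have h2 : ((⌊y * m / w⌋ : ℤ) : ℝ) ≤ ((m : ℤ) : ℝ) := by
      push_cast
      exact (Int.floor_le _).trans this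
    exact_mod_cast h2

theorem floor_diff {x y w : ℝ} (hw : 0 < w) {m : ℕ} (hm : 0 < m)
    (h : ⌊x * m / w⌋ = ⌊y * m / w⌋) : |x - y| ≤ w / m := by
  have hm0 : (0 : ℝ) < m := Nat.cast_pos.2 hm
  have h1 := Int.abs_sub_lt_one_of_floor_eq_floor h
  have e1 : x * m / w - y * m / w = (x - y) * (m / w) := by ring
  rw [e1, abs_mul, abs_of_pos (by positivity : 0 < (m : ℝ) / w)] at h1
  rw [le_div_iff₀ hm0]
  have h2 : |x - y| * (m / w) * w < 1 * w := mul_lt_mul_of_pos_right h1 hw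
  have e2 : |x - y| * ((m : ℝ) / w) * w = |x - y| * m := by field_simp
  linarith

/-- affine functions are bounded by their end values -/
theorem ends_le {n : V3} {x y : Ln4} {z0 ρ b : ℝ} (hρ : 0 < ρ)
    (h0 : |dt n (x.pos z0 - y.pos z0)| ≤ b) (h1 : |dt n (x.pos (z0 + ρ) - y.pos (z0 + ρ))| ≤ b)
    {z : ℝ} (hz : z0 ≤ z) (hz' : z ≤ z0 + ρ) : |dt n (x.pos z - y.pos z)| ≤ b := by
  obtain ⟨ζ, hζ, hζ0, hζ1⟩ : ∃ ζ, z0 + ρ * ζ = z ∧ 0 ≤ ζ ∧ ζ ≤ 1 := by
    refine ⟨(z - z0) / ρ, by field_simp; ring, div_nonneg (by linarith) hρ.le, ?_⟩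
    rw [div_le_one hρ]; linarith
  have e5 : dt n (x.pos z - y.pos z) = (1 - ζ) * dt n (x.pos z0 - y.pos z0) +
      ζ * dt n (x.pos (z0 + ρ) - y.pos (z0 + ρ)) := by
    rw [← hζ]
    simp only [dt, Ln4.pos, Pi.sub_apply]; ring
  rw [e5]
  refine (abs_add_le _ _).trans ?_
  rw [abs_mul, abs_mul, abs_of_nonneg (by linarith : 0 ≤ 1 - ζ), abs_of_nonneg hζ0]
  have f1 := mul_le_mul_of_nonneg_left h0 (by linarith : 0 ≤ 1 - ζ)
  have f2 := mul_le_mul_of_nonneg_left h1 hζ0
  linarith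

section

variable {ι : Type*} {P : Finset ι} {L : ι → Ln4} {z0 ρ r R D a w1 w2 : ℝ} {qm qp : Fin 3 → ℝ}

open Classical in
/-- **grid decomposition** of the lines of a box -/
theorem grid_le (hρ : 0 < ρ) {e : Fin 3 → V3} {c : Ln4} {w : V3} (hw : ∀ i, 0 < w i) {m : ℕ}
    (hm : 0 < m) (F : Finset ι)
    (hF : ∀ t ∈ F, ∀ z, z0 ≤ z → z ≤ z0 + ρ → InK e c w z ((L t).pos z)) {B : ℝ} (hB : 0 ≤ B)
    (hfib : ∀ t0 ∈ F, ∀ F' ⊆ F, (∀ t ∈ F', ∀ z, z0 ≤ z → z ≤ z0 + ρ → ∀ i,
      |dt (e i) ((L t).pos z - (L t0).pos z)| ≤ w i / m) → (F'.card : ℝ) ≤ B) :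
    (F.card : ℝ) ≤ ((2 * m + 1 : ℕ) : ℝ) ^ 6 * B := by
  set g : ι → Fin 3 → ℤ × ℤ := fun t => glb e c w z0 ρ m (L t) with hg
  set T : Finset (Fin 3 → ℤ × ℤ) := Fintype.piFinset
    (fun _ => Finset.Icc (-(m : ℤ)) m ×ˢ Finset.Icc (-(m : ℤ)) m) with hT
  have hTc : T.card = (2 * m + 1) ^ 6 := by
    rw [hT, Fintype.card_piFinset]
    simp only [Finset.card_product, Int.card_Icc, Finset.prod_const, Finset.card_univ,
      Fintype.card_fin]
    have : ((m : ℤ) + 1 - -(m : ℤ)).toNat = 2 * m + 1 := by omega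
    rw [this]; ring
  have hmap : ∀ t ∈ F, g t ∈ T := by
    intro t ht
    rw [hT, Fintype.mem_piFinset]
    intro i
    rw [Finset.mem_product]
    exact ⟨floor_mem (hw i) (hF t ht z0 le_rfl (by linarith) i),
      floor_mem (hw i) (hF t ht (z0 + ρ) (by linarith) le_rfl i)⟩
  have h1 : (F.card : ℝ) = ∑ y ∈ T, ((F.filter fun t => g t = y).card : ℝ) := by
    rw [Finset.card_eq_sum_card_fiberwise (f := g) (t := T) (fun t ht => hmap t ht)]
    push_cast; rfl
  rw [h1]
  have h2 : ∀ y ∈ T, ((F.filter fun t => g t = y).card : ℝ) ≤ B := by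
    intro y _
    rcases (F.filter fun t => g t = y).eq_empty_or_nonempty with h | ⟨t0, ht0⟩
    · rw [h, Finset.card_empty, Nat.cast_zero]; exact hB
    · have ht0' := (Finset.mem_filter.1 ht0)
      refine hfib t0 ht0'.1 _ (Finset.filter_subset _ _) ?_
      intro t ht z hz hz' i
      have ht' := (Finset.mem_filter.1 ht)
      have e1 : g t = g t0 := ht'.2.trans ht0'.2.symm
      have e2 := congrFun e1 i
      simp only [hg, glb, Prod.mk.injEq] at e2
      have f0 := floor_diff (hw i) hm e2.1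
      have f1 := floor_diff (hw i) hm e2.2
      have s : ∀ z, dt (e i) ((L t).pos z - c.pos z) - dt (e i) ((L t0).pos z - c.pos z) =
          dt (e i) ((L t).pos z - (L t0).pos z) := by
        intro z; simp only [dt_sub]; ring
      rw [s] at f0 f1
      exact ends_le hρ f0 f1 hz hz'
  calc ∑ y ∈ T, ((F.filter fun t => g t = y).card : ℝ) ≤ ∑ y ∈ T, B := Finset.sum_le_sum h2
    _ = ((2 * m + 1 : ℕ) : ℝ) ^ 6 * B := by
        rw [Finset.sum_const, hTc, nsmul_eq_mul]; push_cast; rfl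

set_option maxHeartbeats 1000000 in
open Classical in
/-- **sheets longer than the cell** -/
theorem DMx.wide (hm : ∀ k, 0 ≤ qm k) (hmp : ∀ k, qm k ≤ qp k) (hD : 0 ≤ D) (hρ : 0 < ρ)
    (hr : 0 < r) (hrρ : r ≤ ρ) (ha : 0 < a) (hw1 : 0 < w1) (hw2 : 0 < w2)
    (hd : DMx P L z0 ρ r (fun _ x _ => x ≤ ρ) (fun a' x y => D * phC qm qp a w1 w2 a' x y))
    {K : ℝ} (hK : 1 ≤ K) :
    DMx P L z0 ρ r (fun _ x _ => x ≤ K * ρ)
      (fun a' x y => ((35 * K) ^ 6 * (17 * K) ^ (1 + qp 0) * D) *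
        phC qm qp a w1 w2 a' x y) := by
  have hp : ∀ k, 0 ≤ qp k := fun k => (hm k).trans (hmp k)
  have hK0 : 0 < K := by linarith
  intro e c w Q α S hS
  have hα : 0 < α := hr.trans_le S.r0_le
  have p0 : 0 < w 0 := hα.trans_le S.a_le0
  have p2 : 0 < w 2 := p0.trans_le S.w0_le
  have p1 : 0 < w 1 := p2.trans_le S.w_le
  have hw : ∀ i, 0 < w i := by
    intro i; fin_cases i
    · exact p0
    · exact p1
    · exact p2
  obtain ⟨m, hm16, hm17⟩ : ∃ m : ℕ, 16 * K ≤ m ∧ (m : ℝ) ≤ 17 * K := by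
    refine ⟨⌈16 * K⌉₊, Nat.le_ceil _, ?_⟩
    have := Nat.ceil_lt_add_one (show 0 ≤ 16 * K by positivity)
    linarith
  have hm0R : (0 : ℝ) < m := by linarith
  have hm0 : 0 < m := by exact_mod_cast hm0R
  set F := P.filter fun t => InSheet (L t) e c w Q α z0 ρ with hF
  have hFP : F ⊆ P := filter_subset _ _
  have hmem : ∀ t ∈ F, InSheet (L t) e c w Q α z0 ρ := fun t ht => (mem_filter.1 ht).2
  have hphC : 0 ≤ phC qm qp a w1 w2 α (w 1) (w 2) :=
    phC_nonneg ha.le hw1.le hw2.le hα.le p1.le p2.le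
  have hcard : ((2 * m + 1 : ℕ) : ℝ) ^ 6 ≤ (35 * K) ^ 6 := by
    have : ((2 * m + 1 : ℕ) : ℝ) ≤ 35 * K := by
      push_cast; linarith
    exact pow_le_pow_left₀ (Nat.cast_nonneg _) this 6
  have h16 : (1 : ℝ) ≤ (17 * K) ^ (1 + qp 0) := Real.one_le_rpow (by linarith) (by linarith [hp 0])
  have hwm : ∀ i, w i / m ≤ w i / 16 := by
    intro i
    refine div_le_div_of_nonneg_left (hw i).le (by norm_num) (by linarith)
  -- it is enough to bound the fibres
  have fin : ∀ B : ℝ, 0 ≤ B → B ≤ (17 * K) ^ (1 + qp 0) * (D * phC qm qp a w1 w2 α (w 1) (w 2)) →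
      (∀ t0 ∈ F, ∀ F' ⊆ F, (∀ t ∈ F', ∀ z, z0 ≤ z → z ≤ z0 + ρ → ∀ i,
        |dt (e i) ((L t).pos z - (L t0).pos z)| ≤ w i / m) → (F'.card : ℝ) ≤ B) →
      (F.card : ℝ) ≤ ((35 * K) ^ 6 * (17 * K) ^ (1 + qp 0) * D) *
        phC qm qp a w1 w2 α (w 1) (w 2) := by
    intro B hB0 hB hfib
    refine (grid_le hρ hw hm0 F (fun t ht z hz hz' => (hmem t ht z hz hz').1) hB0 hfib).trans ?_
    calc ((2 * m + 1 : ℕ) : ℝ) ^ 6 * B ≤ (35 * K) ^ 6 *
        ((17 * K) ^ (1 + qp 0) * (D * phC qm qp a w1 w2 α (w 1) (w 2))) :=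
          mul_le_mul hcard hB hB0 (by positivity)
      _ = _ := by ring
  rcases le_total (α * m) (w 0) with hc | hc
  · -- curved sheet
    refine fin (D * phC qm qp a w1 w2 α (w 1) (w 2)) (mul_nonneg hD hphC)
      (le_mul_of_one_le_left (mul_nonneg hD hphC) h16) ?_
    intro t0 ht0 F' hF' hb
    have e21 : w 2 / m ≤ w 1 / m := div_le_div_of_nonneg_right S.w_le hm0R.le
    have hmn : min (w 1 / (m : ℝ)) (w 2 / m) = w 2 / m := min_eq_right e21
    have hmx : max (w 1 / (m : ℝ)) (w 2 / m) = w 1 / m := max_eq_left e21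
    have h1 := sub_count hd S (hmem t0 ht0) (x1 := w 1 / m) (x2 := w 2 / m) hα
      (by positivity) (by positivity) (m := w 0 / m) (by rw [div_mul_eq_mul_div, mul_div_assoc])
      (by rw [div_mul_eq_mul_div, mul_div_assoc]) (by rw [le_div_iff₀ hm0R]; exact hc)
      (by rw [hmn]; exact div_le_div_of_nonneg_right S.w0_le hm0R.le)
      (by have := hwm 0; linarith) (by have := hwm 1; linarith) (by have := hwm 2; linarith)
      (by
        rw [hmx]
        have h3 : w 1 / m ≤ ρ / 16 := by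
          rw [div_le_iff₀ hm0R]
          have h4 : w 1 ≤ K * ρ := hS
          have h5 : 16 * K * ρ ≤ m * ρ := mul_le_mul_of_nonneg_right hm16 hρ.le
          linarith
        linarith) F' (hF'.trans hFP)
      (fun t ht => ⟨hmem t (hF' ht), fun z hz hz' => ⟨hb t ht z hz hz' 1, hb t ht z hz hz' 2⟩⟩)
    rw [hmx, hmn] at h1
    refine h1.trans (mul_le_mul_of_nonneg_left ?_ hD)
    have g1 := hwm 1
    have g2 := hwm 2
    exact phC_mono hm hp ha.le hw1.le hw2.le hα.le (by positivity) (by positivity) le_rfl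
      (by linarith) (by linarith)
  · -- thin sheet
    obtain ⟨α', hα'⟩ : ∃ α', α' = min α ρ := ⟨_, rfl⟩
    have hα'0 : 0 < α' := by rw [hα']; exact lt_min hα hρ
    have hα'a : α' ≤ α := by rw [hα']; exact min_le_left _ _
    have hα'ρ : α' ≤ ρ := by rw [hα']; exact min_le_right _ _
    have hrα' : r ≤ α' := by rw [hα']; exact le_min S.r0_le hrρ
    have hw0K : w 0 ≤ 17 * K * α := by
      calc w 0 ≤ α * m := hc
        _ ≤ α * (17 * K) := mul_le_mul_of_nonneg_left hm17 hα.le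
        _ = _ := by ring
    have hαw : ∀ i, α' ≤ w i := by
      intro i
      refine hα'a.trans (S.a_le0.trans ?_)
      fin_cases i
      · exact le_rfl
      · exact S.w0_le.trans S.w_le
      · exact S.w0_le
    have hwmi : ∀ i, w i / m ≤ w i := fun i => by have := hwm i; have := hw i; linarith
    have hle : ∀ i, max (w i / m) α' ≤ w i := fun i => max_le (hwmi i) (hαw i)
    have hbd : phC qm qp a w1 w2 (max (w 0 / m) α') (max (w 1 / m) α') (max (w 2 / m) α') ≤
        (17 * K) ^ (1 + qp 0) * phC qm qp a w1 w2 α (w 1) (w 2) := by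
      have h1 : phC qm qp a w1 w2 (max (w 0 / m) α') (max (w 1 / m) α') (max (w 2 / m) α') ≤
          phC qm qp a w1 w2 (17 * K * α) (1 * w 1) (1 * w 2) := by
        rw [one_mul, one_mul]
        exact phC_mono hm hp ha.le hw1.le hw2.le (by positivity) (by positivity) (by positivity)
          ((hle 0).trans hw0K) (hle 1) (hle 2)
      refine h1.trans ((phC_mul hm hmp ha.le hw1.le hw2.le hα.le p1.le p2.le (by linarith)
        le_rfl le_rfl).trans (le_of_eq ?_))
      rw [Real.one_rpow, Real.one_rpow, mul_one, mul_one]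
    refine fin (D * phC qm qp a w1 w2 (max (w 0 / m) α') (max (w 1 / m) α') (max (w 2 / m) α'))
      (mul_nonneg hD (phC_nonneg ha.le hw1.le hw2.le (by positivity) (by positivity)
        (by positivity))) ?_ ?_
    · calc D * phC qm qp a w1 w2 (max (w 0 / m) α') (max (w 1 / m) α') (max (w 2 / m) α') ≤
          D * ((17 * K) ^ (1 + qp 0) * phC qm qp a w1 w2 α (w 1) (w 2)) :=
            mul_le_mul_of_nonneg_left hbd hD
        _ = _ := by ring
    · intro t0 ht0 F' hF' hb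
      have e02 : w 0 / m ≤ w 2 / m := div_le_div_of_nonneg_right S.w0_le hm0R.le
      have e21 : w 2 / m ≤ w 1 / m := div_le_div_of_nonneg_right S.w_le hm0R.le
      refine box_count hd S.ortho (L t0) (by positivity) (hrα'.trans (le_max_right _ _))
        (max_le_max_right _ e02) (max_le_max_right _ e21) ?_ F' (hF'.trans hFP) ?_
      · refine max_le ?_ hα'ρ
        rw [div_le_iff₀ hm0R]
        have h4 : w 1 ≤ K * ρ := hS
        have h5 : 16 * K * ρ ≤ m * ρ := mul_le_mul_of_nonneg_right hm16 hρ.le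
        have h6 : 0 < K * ρ := by positivity
        linarith
      · intro t ht z hz hz'
        exact ⟨(hb t ht z hz hz' 0).trans (le_max_left _ _),
          (hb t ht z hz hz' 1).trans (le_max_left _ _),
          (hb t ht z hz hz' 2).trans (le_max_left _ _)⟩

end

end Crest.Agent.R136.Pl7186
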