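import Crest.Agent.R136.Pl7c_186

/-!
# R136 (S0187), g-free tilt (PLAN 2), B4: count of one bundle (helper511)

`plank_count` : lines of `P` in the flat plank
`|N| ≤ K a`, `|ξ| ≤ K / M0`, `|ζ| ≤ K l`, where `N = <e 0 + s1 e 1 + s2 e 2, L x - T0>` and
`(ξ, ζ)` = rotated strip coordinates (`al = <e 1, ·> / (t w1)`, `be = <e 2, ·> / w2`):
at most `D C(K) t^(1 + qm 1) (l / M0)^(1 + qm 2)`.
-/

set_option autoImplicit false
set_option linter.unusedVariables false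
set_option linter.unusedSectionVars false

namespace Crest.Agent.R136.Plk511

open Finset
open Crest.Agent.R136.Sh605
open Crest.Agent.R136.HR829 (crs dt_nonneg cs cs1 parseval)
open Crest.Agent.R136.Phc248
open Crest.Agent.R136.Pl7186

variable {ι : Type*} {P : Finset ι} {L : ι → Ln4} {z0 ρ r R D a w1 w2 : ℝ} {qm qp : Fin 3 → ℝ}

set_option maxHeartbeats 1000000 in
open Classical in
/-- **one bundle** = one flat plank of thickness `a`, of sides `1 / M0` and `l` in strip units -/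
theorem plank_count (hm : ∀ k, 0 ≤ qm k) (hmp : ∀ k, qm k ≤ qp k)
    (h21 : qm 2 ≤ qm 1) (h02 : qp 0 ≤ qm 2) (hD : 0 ≤ D)
    (hd : DMx P L z0 ρ r (fun _ x _ => x ≤ R) (fun a' x y => D * phC qm qp a w1 w2 a' x y))
    {e : Fin 3 → V3} (he : Ortho e) (T0 : Ln4) {K t l M0 s1 s2 g0 g1 : ℝ} (hK : 1 ≤ K)
    (ha : 0 < a) (haw : a ≤ w2) (ht : 0 < t) (ht1 : t ≤ 1) (hw : w2 ≤ K * (t * w1))
    (hs1 : |s1| * (t * w1) ≤ K * w2) (hs2 : |s2| ≤ K) (hg : g0 ^ 2 + g1 ^ 2 = 1)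
    (hl : 0 < l) (hl1 : l ≤ 1) (hM : 1 ≤ M0) (haM : a * M0 ≤ K * w2) (hal : a ≤ K * (l * w2))
    (hR : 30 * K ^ 3 * (t * w1) ≤ R) (hr : 2 * K * r ≤ a)
    (F : Finset ι) (hF : F ⊆ P)
    (hb : ∀ x ∈ F, ∀ z, z0 ≤ z → z ≤ z0 + ρ →
      |dt (e 0) ((L x).pos z - T0.pos z) + s1 * dt (e 1) ((L x).pos z - T0.pos z) +
        s2 * dt (e 2) ((L x).pos z - T0.pos z)| ≤ K * a ∧
      |g0 * (dt (e 1) ((L x).pos z - T0.pos z) / (t * w1)) +
        g1 * (dt (e 2) ((L x).pos z - T0.pos z) / w2)| ≤ K / M0 ∧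
      |g0 * (dt (e 2) ((L x).pos z - T0.pos z) / w2) -
        g1 * (dt (e 1) ((L x).pos z - T0.pos z) / (t * w1))| ≤ K * l) :
    (F.card : ℝ) ≤ D * ((50 * K ^ 3) ^ (1 + qp 1) * (50 * K ^ 3) ^ (1 + qp 2) *
      (t ^ (1 + qm 1) * (l / M0) ^ (1 + qm 2))) := by
  have K0 : 0 < K := by linarith
  have hw2 : 0 < w2 := ha.trans_le haw
  have htw : 0 < t * w1 := by
    by_contra hc
    push Not at hc
    have := mul_nonpos_of_nonneg_of_nonpos K0.le hc
    linarith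
  have hw1 : 0 < w1 := (pos_iff_pos_of_mul_pos htw).1 ht
  have M00 : 0 < M0 := by linarith
  have K2 : K ≤ K ^ 2 := by simpa using pow_le_pow_right₀ hK (by norm_num : 1 ≤ 2)
  have K21 : 1 ≤ K ^ 2 := one_le_pow₀ hK
  have K3 : K ^ 2 ≤ K ^ 3 := pow_le_pow_right₀ hK (by norm_num)
  have K4 : K ^ 2 ≤ K ^ 4 := pow_le_pow_right₀ hK (by norm_num)
  have K41 : 1 ≤ K ^ 4 := one_le_pow₀ hK
  have KKK : K ^ 2 * K = K ^ 3 := by ring
  have hdet := det_abs1 he
  set τ := (t * w1)⁻¹ with hτ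
  set σ := w2⁻¹ with hσ
  have τ0 : 0 < τ := inv_pos.2 htw
  have σ0 : 0 < σ := inv_pos.2 hw2
  have hτσ : τ ≤ K * σ := by
    rw [hτ, hσ, ← div_eq_mul_inv, inv_eq_one_div, div_le_div_iff₀ htw hw2]
    linarith
  set A1 : V3 := ![0, g0 * τ, g1 * σ] with hA1
  set A2 : V3 := ![0, -(g1 * τ), g0 * σ] with hA2
  set G : Fin 3 → V3 := ![rw3 e ![1, s1, s2], rw3 e A1, rw3 e A2] with hG
  set X : Fin 3 → ℝ := ![K * a, K / M0, K * l] with hX
  have hXp : ∀ k, 0 < X k := by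
    intro k; fin_cases k
    · exact mul_pos K0 ha
    · exact div_pos K0 M00
    · exact mul_pos K0 hl
  have hd3 : dt (crs ![1, s1, s2] A1) A2 = τ * σ := by
    rw [hA1, hA2]
    simp only [dt, crs, Matrix.cons_val_zero, Matrix.cons_val_one, Matrix.cons_val]
    linear_combination (τ * σ) * hg
  have hGd : dt (crs (G 0) (G 1)) (G 2) =
      dt (crs ![1, s1, s2] A1) A2 * dt (crs (e 0) (e 1)) (e 2) := by
    have := det_rows e ![![1, s1, s2], A1, A2]
    exact this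
  have hGabs : |dt (crs (G 0) (G 1)) (G 2)| = τ * σ := by
    rw [hGd, abs_mul, hdet, mul_one, hd3, abs_of_pos (mul_pos τ0 σ0)]
  have hG0 : dt (crs (G 0) (G 1)) (G 2) ≠ 0 := by
    rw [← abs_pos, hGabs]; exact mul_pos τ0 σ0
  have hs1' : |s1| ≤ K ^ 2 := by
    by_contra hc
    push Not at hc
    have h1 : K ^ 2 * (t * w1) < |s1| * (t * w1) := mul_lt_mul_of_pos_right hc htw
    have h2 : K * w2 ≤ K * (K * (t * w1)) := mul_le_mul_of_nonneg_left hw K0.le
    have h3 : K * (K * (t * w1)) = K ^ 2 * (t * w1) := by ring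
    linarith
  have hg0 : g0 ^ 2 ≤ 1 := by nlinarith [sq_nonneg g1]
  have hg1 : g1 ^ 2 ≤ 1 := by nlinarith [sq_nonneg g0]
  have hg0' : |g0| ≤ 1 := by rw [← sq_le_one_iff_abs_le_one]; exact hg0
  have hg1' : |g1| ≤ 1 := by rw [← sq_le_one_iff_abs_le_one]; exact hg1
  have hτ2 : τ ^ 2 ≤ K ^ 2 * σ ^ 2 := by
    rw [← mul_pow]; gcongr
  have hσ2 : σ ^ 2 ≤ K ^ 2 * σ ^ 2 := le_mul_of_one_le_left (by positivity) K21
  have hκ : ∀ k, (a / (2 * K)) ^ 2 * dt (G k) (G k) ≤ X k ^ 2 := by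
    intro k
    fin_cases k
    · change (a / (2 * K)) ^ 2 * dt (rw3 e ![1, s1, s2]) (rw3 e ![1, s1, s2]) ≤ (K * a) ^ 2
      rw [rw3_self he]
      simp only [Matrix.cons_val_zero, Matrix.cons_val_one, Matrix.cons_val]
      have g1 : s1 ^ 2 ≤ (K ^ 2) ^ 2 := by
        rw [← sq_abs]; gcongr
      have g2 : s2 ^ 2 ≤ K ^ 2 := by
        rw [← sq_abs]; gcongr
      have g3 : (1:ℝ) ^ 2 + s1 ^ 2 + s2 ^ 2 ≤ 3 * K ^ 4 := by
        have : (K ^ 2) ^ 2 = K ^ 4 := by ring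
        linarith
      calc (a / (2 * K)) ^ 2 * ((1:ℝ) ^ 2 + s1 ^ 2 + s2 ^ 2) ≤ (a / (2 * K)) ^ 2 * (3 * K ^ 4) := by
            gcongr
        _ = 3 / 4 * (K * a) ^ 2 := by field_simp; ring
        _ ≤ (K * a) ^ 2 := by linarith [sq_nonneg (K * a)]
    · change (a / (2 * K)) ^ 2 * dt (rw3 e A1) (rw3 e A1) ≤ (K / M0) ^ 2
      rw [rw3_self he, hA1]
      simp only [Matrix.cons_val_zero, Matrix.cons_val_one, Matrix.cons_val]
      have g3 : (0:ℝ) ^ 2 + (g0 * τ) ^ 2 + (g1 * σ) ^ 2 ≤ K ^ 2 * σ ^ 2 := by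
        have h1 : (g0 * τ) ^ 2 ≤ g0 ^ 2 * (K ^ 2 * σ ^ 2) := by
          rw [mul_pow]; exact mul_le_mul_of_nonneg_left hτ2 (sq_nonneg _)
        have h2 : (g1 * σ) ^ 2 ≤ g1 ^ 2 * (K ^ 2 * σ ^ 2) := by
          rw [mul_pow]; exact mul_le_mul_of_nonneg_left hσ2 (sq_nonneg _)
        have h3 : g0 ^ 2 * (K ^ 2 * σ ^ 2) + g1 ^ 2 * (K ^ 2 * σ ^ 2) = K ^ 2 * σ ^ 2 := by
          rw [← add_mul, hg, one_mul]
        linarith
      have g4 : a / (2 * K) ≤ w2 / M0 := by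
        rw [div_le_div_iff₀ (by positivity) M00]
        have h5 : 0 ≤ K * w2 := by positivity
        linarith
      calc (a / (2 * K)) ^ 2 * ((0:ℝ) ^ 2 + (g0 * τ) ^ 2 + (g1 * σ) ^ 2) ≤
          (w2 / M0) ^ 2 * (K ^ 2 * σ ^ 2) := by gcongr
        _ = (K / M0) ^ 2 := by rw [hσ]; field_simp
    · change (a / (2 * K)) ^ 2 * dt (rw3 e A2) (rw3 e A2) ≤ (K * l) ^ 2
      rw [rw3_self he, hA2]
      simp only [Matrix.cons_val_zero, Matrix.cons_val_one, Matrix.cons_val]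
      have g3 : (0:ℝ) ^ 2 + (-(g1 * τ)) ^ 2 + (g0 * σ) ^ 2 ≤ K ^ 2 * σ ^ 2 := by
        have h1 : (-(g1 * τ)) ^ 2 ≤ g1 ^ 2 * (K ^ 2 * σ ^ 2) := by
          rw [neg_sq, mul_pow]; exact mul_le_mul_of_nonneg_left hτ2 (sq_nonneg _)
        have h2 : (g0 * σ) ^ 2 ≤ g0 ^ 2 * (K ^ 2 * σ ^ 2) := by
          rw [mul_pow]; exact mul_le_mul_of_nonneg_left hσ2 (sq_nonneg _)
        have h3 : g0 ^ 2 * (K ^ 2 * σ ^ 2) + g1 ^ 2 * (K ^ 2 * σ ^ 2) = K ^ 2 * σ ^ 2 := by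
          rw [← add_mul, hg, one_mul]
        linarith
      have g4 : a / (2 * K) ≤ l * w2 := by
        rw [div_le_iff₀ (by positivity)]
        have h5 : 0 ≤ K * (l * w2) := by positivity
        linarith
      calc (a / (2 * K)) ^ 2 * ((0:ℝ) ^ 2 + (-(g1 * τ)) ^ 2 + (g0 * σ) ^ 2) ≤
          (l * w2) ^ 2 * (K ^ 2 * σ ^ 2) := by gcongr
        _ = (K * l) ^ 2 := by rw [hσ]; field_simp
  -- the outer box
  have hout : ∀ δ : V3, (∀ k, |dt (G k) δ| ≤ X k) → ∀ i,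
      |dt (e i) δ| ≤ (5 * K ^ 2) * (![w2, K * (t * w1), w2] : V3) i := by
    intro δ hδ
    have d0 : |dt (rw3 e ![1, s1, s2]) δ| ≤ K * a := hδ 0
    have d1 : |dt (rw3 e A1) δ| ≤ K / M0 := hδ 1
    have d2 : |dt (rw3 e A2) δ| ≤ K * l := hδ 2
    rw [rw3_dt] at d0 d1 d2
    rw [hA1] at d1
    rw [hA2] at d2
    simp only [Matrix.cons_val_zero, Matrix.cons_val_one, Matrix.cons_val, one_mul,
      zero_mul, zero_add] at d0 d1 d2
    have k1 : K / M0 ≤ K := div_le_self K0.le hM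
    have k2 : K * l ≤ K := mul_le_of_le_one_right K0.le hl1
    set x := dt (e 1) δ with hx
    set y := dt (e 2) δ with hy
    have ex : τ * x = g0 * (g0 * τ * x + g1 * σ * y) - g1 * (-(g1 * τ) * x + g0 * σ * y) := by
      linear_combination (-(τ * x)) * hg
    have ey : σ * y = g1 * (g0 * τ * x + g1 * σ * y) + g0 * (-(g1 * τ) * x + g0 * σ * y) := by
      linear_combination (-(σ * y)) * hg
    have m1 : |g0 * (g0 * τ * x + g1 * σ * y)| ≤ K := by
      rw [abs_mul]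
      calc |g0| * _ ≤ 1 * K := mul_le_mul hg0' (d1.trans k1) (abs_nonneg _) zero_le_one
        _ = K := one_mul _
    have m2 : |g1 * (g0 * τ * x + g1 * σ * y)| ≤ K := by
      rw [abs_mul]
      calc |g1| * _ ≤ 1 * K := mul_le_mul hg1' (d1.trans k1) (abs_nonneg _) zero_le_one
        _ = K := one_mul _
    have m3 : |g1 * (-(g1 * τ) * x + g0 * σ * y)| ≤ K := by
      rw [abs_mul]
      calc |g1| * _ ≤ 1 * K := mul_le_mul hg1' (d2.trans k2) (abs_nonneg _) zero_le_one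
        _ = K := one_mul _
    have m4 : |g0 * (-(g1 * τ) * x + g0 * σ * y)| ≤ K := by
      rw [abs_mul]
      calc |g0| * _ ≤ 1 * K := mul_le_mul hg0' (d2.trans k2) (abs_nonneg _) zero_le_one
        _ = K := one_mul _
    have hx1 : |τ * x| ≤ 2 * K := by
      rw [ex]
      refine (abs_sub _ _).trans ?_
      linarith
    have hy1 : |σ * y| ≤ 2 * K := by
      rw [ey]
      refine (abs_add_le _ _).trans ?_
      linarith
    have hx2 : |x| ≤ 2 * K * (t * w1) := by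
      rw [abs_mul, abs_of_pos τ0, hτ, inv_mul_le_iff₀ htw] at hx1
      linarith
    have hy2 : |y| ≤ 2 * K * w2 := by
      rw [abs_mul, abs_of_pos σ0, hσ, inv_mul_le_iff₀ hw2] at hy1
      linarith
    intro i
    fin_cases i
    · change |dt (e 0) δ| ≤ 5 * K ^ 2 * w2
      have e1 : dt (e 0) δ = (dt (e 0) δ + s1 * x + s2 * y) - s1 * x - s2 * y := by ring
      have n1 : |s1 * x| ≤ 2 * K ^ 2 * w2 := by
        rw [abs_mul]
        calc |s1| * |x| ≤ |s1| * (2 * K * (t * w1)) := by gcongr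
          _ = 2 * K * (|s1| * (t * w1)) := by ring
          _ ≤ 2 * K * (K * w2) := by gcongr
          _ = _ := by ring
      have n2 : |s2 * y| ≤ 2 * K ^ 2 * w2 := by
        rw [abs_mul]
        calc |s2| * |y| ≤ K * (2 * K * w2) := by gcongr
          _ = _ := by ring
      rw [e1]
      refine (abs_sub _ _).trans ((add_le_add ((abs_sub _ _).trans (add_le_add d0 n1))
        n2).trans ?_)
      have n3 : K * a ≤ K ^ 2 * w2 := mul_le_mul K2 haw ha.le (by positivity)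
      linarith
    · change |x| ≤ 5 * K ^ 2 * (K * (t * w1))
      refine hx2.trans ?_
      have : 2 * K ≤ 5 * K ^ 2 * K := by
        have : 5 * K ^ 2 * K = 5 * K ^ 3 := by ring
        linarith
      calc 2 * K * (t * w1) ≤ 5 * K ^ 2 * K * (t * w1) := by gcongr
        _ = _ := by ring
    · change |y| ≤ 5 * K ^ 2 * w2
      refine hy2.trans ?_
      have : 2 * K ≤ 5 * K ^ 2 := by linarith
      gcongr
  obtain ⟨α, β1, β2, hα, hαβ, hββ, hvol, hκα, b0, b2, b1, hcard⟩ :=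
    par_count hd he (W := ![w2, K * (t * w1), w2]) hw2 le_rfl hw (S := 5 * K ^ 2)
      (by positivity) G hXp hG0 hout (κ := a / (2 * K)) (by positivity) hκ
      (by rw [le_div_iff₀ (by positivity)]; linarith) T0 F hF
      (by
        intro x hx z hz hz' k
        obtain ⟨c1, c2, c3⟩ := hb x hx z hz hz'
        fin_cases k
        · change |dt (rw3 e ![1, s1, s2]) ((L x).pos z - T0.pos z)| ≤ K * a
          rw [rw3_dt]
          simp only [Matrix.cons_val_zero, Matrix.cons_val_one, Matrix.cons_val, one_mul]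
          exact c1
        · change |dt (rw3 e A1) ((L x).pos z - T0.pos z)| ≤ K / M0
          rw [rw3_dt, hA1]
          simp only [Matrix.cons_val_zero, Matrix.cons_val_one, Matrix.cons_val, zero_mul,
            zero_add]
          refine le_trans (le_of_eq ?_) c2
          congr 1
          rw [hτ, hσ]; ring
        · change |dt (rw3 e A2) ((L x).pos z - T0.pos z)| ≤ K * l
          rw [rw3_dt, hA2]
          simp only [Matrix.cons_val_zero, Matrix.cons_val_one, Matrix.cons_val, zero_mul,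
            zero_add]
          refine le_trans (le_of_eq ?_) c3
          congr 1
          rw [hτ, hσ]; ring)
      (by
        intro α β1 β2 _ _ _ _ _ _ _ h6
        change β1 ≤ 6 * (5 * K ^ 2) * (K * (t * w1)) at h6
        change β1 ≤ R
        have : 6 * (5 * K ^ 2) * (K * (t * w1)) = 30 * K ^ 3 * (t * w1) := by ring
        linarith)
  have hβ2 : 0 < β2 := hα.trans_le hαβ
  have hβ1 : 0 < β1 := hβ2.trans_le hββ
  refine hcard.trans ?_
  refine mul_le_mul_of_nonneg_left ?_ hD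
  have hC : 1 ≤ 50 * K ^ 3 := by linarith
  refine thin_cap hm hmp h21 h02 hC ha hw1 hw2 hα hβ1 hβ2 ht (div_pos hl M00) ht1 ?_ ?_ ?_ ?_
  · -- `a ≤ C α`
    have h1 : a ≤ α * (2 * K) := by rwa [div_le_iff₀ (by positivity)] at hκα
    have h2 : 2 * K ≤ 50 * K ^ 3 := by linarith
    calc a ≤ α * (2 * K) := h1
      _ ≤ α * (50 * K ^ 3) := by gcongr
      _ = _ := by ring
  · have h1 : β1 ≤ 6 * (5 * K ^ 2) * (K * (t * w1)) := b1
    calc β1 ≤ 6 * (5 * K ^ 2) * (K * (t * w1)) := h1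
      _ = 30 * K ^ 3 * (t * w1) := by ring
      _ ≤ 50 * K ^ 3 * (t * w1) := by gcongr; norm_num
  · have h1 : β2 ≤ 10 * (5 * K ^ 2) * w2 := b2
    have h2 : 10 * (5 * K ^ 2) ≤ 50 * K ^ 3 := by linarith
    exact h1.trans (mul_le_mul_of_nonneg_right h2 hw2.le)
  · rw [hvol, hGabs]
    have h1 : X 0 * X 1 * X 2 = K * a * (K / M0) * (K * l) := rfl
    rw [h1, hτ, hσ]
    have h2 : 6 * (K * a * (K / M0) * (K * l) / ((t * w1)⁻¹ * w2⁻¹)) =
        6 * K ^ 3 * (t * (l / M0) * (a * w1 * w2)) := by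
      field_simp
    rw [h2]
    have h3 : 0 ≤ t * (l / M0) * (a * w1 * w2) := by positivity
    have h4 : 6 * K ^ 3 ≤ 50 * K ^ 3 := by linarith
    exact mul_le_mul_of_nonneg_right h4 h3

end Crest.Agent.R136.Plk511
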