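import Crest.Agent.R136.Pl2B_860
import Crest.Agent.R136.Plk_511
import Crest.Agent.R136.Pl7d_186

/-!
# R136 (S0187), PLAN 2, leaf (B4) share: the strip of two tilted sheets, units of D-max (helper410)
-/

set_option autoImplicit false
set_option linter.unusedVariables false

namespace Crest.Agent.R136.Shv410

open Finset
open Crest.Agent.R136.Sh605 Crest.Agent.R136.Fl808
open Crest.Agent.R136.K4 (Plk4)
open Crest.Agent.R136.Tlt51 (Shp InP)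
open Crest.Agent.R136.Phc248
open Crest.Agent.R136.Pl7186
open Crest.Agent.R136.Pl2
open Crest.Agent.R136.Pl2W102 (Near Ex2 Two1)

/-- the strip in the hull frame -/
theorem strip_f {f g : Fin 3 → V3} {Y w1 w2 C : ℝ} {j k' : ℕ} (H : Dy f g Y w1 w2 j k')
    (hf : Ortho f) (hg : Ortho g) (hw2 : 0 < w2) (hw : w2 ≤ w1) (hC : 0 ≤ C) {x : V3}
    (f0 : |dt (f 0) x| ≤ C * w2) (f1 : |dt (f 1) x| ≤ C * w1) (f2 : |dt (f 2) x| ≤ C * w2)
    (g0 : |dt (g 0) x| ≤ C * w2) (g2 : |dt (g 2) x| ≤ C * w2) :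
    2 ^ j * |dt (f 1) x| ≤ 6 * C * w1 := by
  have hw1 : 0 < w1 := hw2.trans_le hw
  have key : ∀ i : Fin 3, |dt (g i) x| ≤ C * w2 → 2 ^ j * w2 ≤ 2 * (|dt (g i) (f 1)| * w1) →
      2 ^ j * |dt (f 1) x| ≤ 6 * C * w1 := by
    intro i hi h2
    have e1 : dt (g i) (f 1) * dt (f 1) x =
        dt (g i) x - dt (g i) (f 0) * dt (f 0) x - dt (g i) (f 2) * dt (f 2) x := by
      rw [dt_expand hf (g i) x]; ring
    have a0 := abs_dt_le_one hf hg i 0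
    have a2 := abs_dt_le_one hf hg i 2
    have h3 : |dt (g i) (f 1)| * |dt (f 1) x| ≤ 3 * (C * w2) := by
      rw [← abs_mul, e1]
      refine (abs_sub _ _).trans ((add_le_add (abs_sub _ _) le_rfl).trans ?_)
      rw [abs_mul, abs_mul]
      have b0 : |dt (g i) (f 0)| * |dt (f 0) x| ≤ 1 * (C * w2) :=
        mul_le_mul a0 f0 (abs_nonneg _) zero_le_one
      have b2 : |dt (g i) (f 2)| * |dt (f 2) x| ≤ 1 * (C * w2) :=
        mul_le_mul a2 f2 (abs_nonneg _) zero_le_one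
      linarith
    have h4 : w2 * (2 ^ j * |dt (f 1) x|) ≤ w2 * (6 * C * w1) := by
      calc w2 * (2 ^ j * |dt (f 1) x|) = (2 ^ j * w2) * |dt (f 1) x| := by ring
        _ ≤ 2 * (|dt (g i) (f 1)| * w1) * |dt (f 1) x| :=
            mul_le_mul_of_nonneg_right h2 (abs_nonneg _)
        _ = 2 * w1 * (|dt (g i) (f 1)| * |dt (f 1) x|) := by ring
        _ ≤ 2 * w1 * (3 * (C * w2)) := mul_le_mul_of_nonneg_left h3 (by positivity)
        _ = w2 * (6 * C * w1) := by ring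
    exact le_of_mul_le_mul_left h4 hw2
  rcases H.blo with h | h | h
  · rw [h, pow_zero, one_mul]
    have : 0 ≤ C * w1 := by positivity
    linarith
  · exact key 2 g2 h
  · exact key 0 g0 h

/-- **the strip** : two lines in two tilted sheets -/
theorem strip_e {S S' : Plk4} {f g : Fin 3 → V3} {Y w1 w2 k z0 ρ : ℝ} {j k' : ℕ}
    (H : Dy f g Y w1 w2 j k') (hF : FH k Y S f z0 ρ) (hG : FH k Y S' g z0 ρ) (hY : 0 < Y)
    (hYw : Y ≤ w2) (hw : w2 ≤ w1) (hk : 1 ≤ k) (p1 : 0 < S.w 1) (p2 : 0 < S.w 2)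
    (n1 : w1 ≤ k * S.w 1) (n1' : S.w 1 ≤ k * w1) (n2' : S.w 2 ≤ k * w2)
    (m2' : S'.w 2 ≤ k * w2) (he : Ortho S.e) {T T' : Ln4}
    (hT : InP T S z0 ρ) (hT' : InP T' S z0 ρ) (hV : InP T S' z0 ρ) (hV' : InP T' S' z0 ρ)
    {z : ℝ} (hz : z0 ≤ z) (hz' : z ≤ z0 + ρ) :
    2 ^ j * |dt (S.e 1) (T'.pos z - T.pos z)| ≤ 10 * k ^ 6 * S.w 1 := by
  have hw2 : 0 < w2 := hY.trans_le hYw
  have hw1 : 0 < w1 := hw2.trans_le hw
  have k0 : 0 < k := by linarith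
  have bf := hF.box T' T hT' hT z hz hz'
  have bg := hG.box T' T hV' hV z hz hz'
  set x : V3 := T'.pos z - T.pos z with hx
  have f0 : |dt (f 0) x| ≤ k * Y := bf 0
  have f1 : |dt (f 1) x| ≤ k * S.w 1 := bf 1
  have f2 : |dt (f 2) x| ≤ k * S.w 2 := bf 2
  have g0 : |dt (g 0) x| ≤ k * Y := bg 0
  have g2 : |dt (g 2) x| ≤ k * S'.w 2 := bg 2
  have k2 : k ≤ k ^ 2 := by nlinarith
  have c0 : k * Y ≤ k ^ 2 * w2 := mul_le_mul k2 hYw hY.le (by positivity)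
  have c2 : k * S.w 2 ≤ k ^ 2 * w2 := by
    calc k * S.w 2 ≤ k * (k * w2) := mul_le_mul_of_nonneg_left n2' k0.le
      _ = _ := by ring
  have c2' : k * S'.w 2 ≤ k ^ 2 * w2 := by
    calc k * S'.w 2 ≤ k * (k * w2) := mul_le_mul_of_nonneg_left m2' k0.le
      _ = _ := by ring
  have c1 : k * S.w 1 ≤ k ^ 2 * w1 := by
    calc k * S.w 1 ≤ k * (k * w1) := mul_le_mul_of_nonneg_left n1' k0.le
      _ = _ := by ring
  have hs := strip_f H hF.ortho hG.ortho hw2 hw (by positivity : 0 ≤ k ^ 2) (x := x)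
    (f0.trans c0) (f1.trans c1) (f2.trans c2) (g0.trans c0) (g2.trans c2')
  have hj := H.hlw hF.ortho hG.ortho hY hYw hw
  have hjp : (0:ℝ) < 2 ^ j := by positivity
  -- the coefficient bounds
  have key : ∀ i : Fin 3, |dt (f i) (S.e 1)| * S.w 1 ≤ k * S.w 2 → |dt (f i) x| ≤ k ^ 2 * w2 →
      2 ^ j * (|dt (f i) (S.e 1)| * |dt (f i) x|) ≤ 2 * k ^ 6 * S.w 1 := by
    intro i h1 h2
    have h3 : S.w 1 * (2 ^ j * (|dt (f i) (S.e 1)| * |dt (f i) x|)) ≤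
        S.w 1 * (2 * k ^ 6 * S.w 1) := by
      calc S.w 1 * (2 ^ j * (|dt (f i) (S.e 1)| * |dt (f i) x|)) =
          2 ^ j * ((|dt (f i) (S.e 1)| * S.w 1) * |dt (f i) x|) := by ring
        _ ≤ 2 ^ j * ((k * S.w 2) * (k ^ 2 * w2)) := by
            refine mul_le_mul_of_nonneg_left (mul_le_mul h1 h2 (abs_nonneg _) ?_) hjp.le
            positivity
        _ = k ^ 3 * S.w 2 * (2 ^ j * w2) := by ring
        _ ≤ k ^ 3 * S.w 2 * (2 * w1) := by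
            refine mul_le_mul_of_nonneg_left hj (by positivity)
        _ ≤ k ^ 3 * (k * (k * S.w 1)) * (2 * (k * S.w 1)) := by
            refine mul_le_mul (mul_le_mul_of_nonneg_left ?_ (by positivity)) (by linarith)
              (by positivity) (by positivity)
            calc S.w 2 ≤ k * w2 := n2'
              _ ≤ k * w1 := mul_le_mul_of_nonneg_left hw k0.le
              _ ≤ k * (k * S.w 1) := mul_le_mul_of_nonneg_left n1 k0.le
        _ = S.w 1 * (2 * k ^ 6 * S.w 1) := by ring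
    exact le_of_mul_le_mul_left h3 p1
  have q0 := key 0 hF.e01 (f0.trans c0)
  have q2 := key 2 hF.e21 (f2.trans c2)
  have q1 : 2 ^ j * (|dt (f 1) (S.e 1)| * |dt (f 1) x|) ≤ 6 * k ^ 6 * S.w 1 := by
    have u1 : |dt (f 1) (S.e 1)| ≤ 1 := abs_dt_le_one he hF.ortho 1 1
    calc 2 ^ j * (|dt (f 1) (S.e 1)| * |dt (f 1) x|) ≤ 2 ^ j * (1 * |dt (f 1) x|) := by gcongr
      _ = 2 ^ j * |dt (f 1) x| := by ring
      _ ≤ 6 * k ^ 2 * w1 := hs
      _ ≤ 6 * k ^ 2 * (k * S.w 1) := mul_le_mul_of_nonneg_left n1 (by positivity)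
      _ = 6 * k ^ 3 * S.w 1 := by ring
      _ ≤ 6 * k ^ 6 * S.w 1 := by
          have : k ^ 3 ≤ k ^ 6 := pow_le_pow_right₀ hk (by norm_num)
          gcongr
  rw [dt_expand hF.ortho (S.e 1) x, dt_comm (S.e 1) (f 0), dt_comm (S.e 1) (f 1),
    dt_comm (S.e 1) (f 2)]
  have t3 : |dt (f 0) (S.e 1) * dt (f 0) x + dt (f 1) (S.e 1) * dt (f 1) x +
      dt (f 2) (S.e 1) * dt (f 2) x| ≤ |dt (f 0) (S.e 1)| * |dt (f 0) x| +
      |dt (f 1) (S.e 1)| * |dt (f 1) x| + |dt (f 2) (S.e 1)| * |dt (f 2) x| := by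
    rw [← abs_mul, ← abs_mul, ← abs_mul]
    exact (abs_add_le _ _).trans (add_le_add (abs_add_le _ _) le_rfl)
  calc _ ≤ 2 ^ j * (|dt (f 0) (S.e 1)| * |dt (f 0) x| +
      |dt (f 1) (S.e 1)| * |dt (f 1) x| + |dt (f 2) (S.e 1)| * |dt (f 2) x|) :=
        mul_le_mul_of_nonneg_left t3 hjp.le
    _ ≤ _ := by linarith

/-- change of the units of `phC` -/
theorem phC_unit {qm qp : Fin 3 → ℝ} (hm : ∀ k, 0 ≤ qm k) (hmp : ∀ k, qm k ≤ qp k)
    {a w1 w2 a1 v1 v2 k x y z : ℝ} (hk : 1 ≤ k) (ha : 0 < a) (hw1 : 0 < w1) (hw2 : 0 < w2)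
    (ha1 : 0 < a1) (hv1 : 0 < v1) (hv2 : 0 < v2) (hx : 0 ≤ x) (hy : 0 ≤ y) (hz : 0 ≤ z)
    (h0 : a1 ≤ k * a) (h1 : v1 ≤ k * w1) (h2 : v2 ≤ k * w2) :
    phC qm qp a w1 w2 x y z ≤
      (k ^ (1 + qp 0) * k ^ (1 + qp 1) * k ^ (1 + qp 2)) * phC qm qp a1 v1 v2 x y z := by
  have key : ∀ (i : Fin 3) (s u v : ℝ), 0 ≤ s → 0 < u → 0 < v → v ≤ k * u →
      ph (qm i) (qp i) (s / u) ≤ k ^ (1 + qp i) * ph (qm i) (qp i) (s / v) := by
    intro i s u v hs hu hv huv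
    have e1 : s / u ≤ (s / v) * k := by
      rw [div_mul_eq_mul_div, div_le_div_iff₀ hu hv]
      calc s * v ≤ s * (k * u) := mul_le_mul_of_nonneg_left huv hs
        _ = s * k * u := by ring
    have e2 := ph_mono (m := qm i) (p := qp i) (hm i) ((hm i).trans (hmp i)) (by positivity) e1
    have e3 := ph_mul (m := qm i) (p := qp i) (r := s / v) (hm i) (hmp i) (by positivity) hk
    rw [mul_comm k] at e3
    exact e2.trans e3
  have n : ∀ (i : Fin 3) (s : ℝ), 0 ≤ s → 0 ≤ ph (qm i) (qp i) s := fun i s hs => ph_nonneg hs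
  unfold phC
  have k0 := key 0 x a a1 hx ha ha1 h0
  have k1 := key 1 y w1 v1 hy hw1 hv1 h1
  have k2 := key 2 z w2 v2 hz hw2 hv2 h2
  have m0 := n 0 (x / a) (by positivity)
  have m1 := n 1 (y / w1) (by positivity)
  have m2 := n 2 (z / w2) (by positivity)
  have l0 := n 0 (x / a1) (by positivity)
  have l1 := n 1 (y / v1) (by positivity)
  have l2 := n 2 (z / v2) (by positivity)
  calc _ ≤ (k ^ (1 + qp 0) * ph (qm 0) (qp 0) (x / a1)) *
        (k ^ (1 + qp 1) * ph (qm 1) (qp 1) (y / v1)) *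
        (k ^ (1 + qp 2) * ph (qm 2) (qp 2) (z / v2)) := by
        refine mul_le_mul (mul_le_mul k0 k1 m1 (by positivity)) k2 m2 (by positivity)
    _ = _ := by ring

/-- D-max of `Two1` in other units and for longer sheets -/
theorem dmx_of {qm qp : Fin 3 → ℝ} (hm : ∀ k, 0 ≤ qm k) (hmp : ∀ k, qm k ≤ qp k)
    {L : ℕ → Ln4} {P : Finset ℕ} {cu cv : ℕ → ℕ} {Uf Vf : ℕ → Plk4}
    {W M a w1 w2 z0 ρ r : ℝ} (H : Two1 qm qp L P cu cv Uf Vf W M a w1 w2 z0 ρ r) (hr : r ≤ ρ)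
    {a1 v1 v2 k K : ℝ} (hk : 1 ≤ k) (hK : 1 ≤ K) (ha1 : 0 < a1) (hv1 : 0 < v1) (hv2 : 0 < v2)
    (h0 : a1 ≤ k * a) (h1 : v1 ≤ k * w1) (h2 : v2 ≤ k * w2) :
    DMx P L z0 ρ r (fun _ x _ => x ≤ K * ρ) (fun a' x y => (((35 * K) ^ 6 * (17 * K) ^ (1 + qp 0) *
      (W * M)) * (k ^ (1 + qp 0) * k ^ (1 + qp 1) * k ^ (1 + qp 2))) *
        phC qm qp a1 v1 v2 a' x y) := by
  have hd : DMx P L z0 ρ r (fun _ x _ => x ≤ ρ)
      (fun a' x y => (W * M) * phC qm qp a w1 w2 a' x y) := by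
    intro e c w Q a' S hS
    exact H.dmax ⟨0, e, c, w, Q, a'⟩ S hS
  have WM : 0 ≤ W * M := mul_nonneg (zero_le_one.trans H.W1) H.M0.le
  have h3 := DMx.wide hm hmp WM H.ρ0 H.r0 hr H.a0 H.w10 H.w20 hd hK
  intro e c w Q a' S hS
  have h4 := h3 e c w Q a' S hS
  refine h4.trans ?_
  have hα : 0 < a' := H.r0.trans_le S.r0_le
  have p0 : 0 < w 0 := hα.trans_le S.a_le0
  have p2 : 0 < w 2 := p0.trans_le S.w0_le
  have p1 : 0 < w 1 := p2.trans_le S.w_le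
  have h5 := phC_unit hm hmp (x := a') (y := w 1) (z := w 2) hk H.a0 H.w10 H.w20 ha1 hv1 hv2
    hα.le p1.le p2.le h0 h1 h2
  have K0 : 0 < K := by linarith
  calc _ ≤ ((35 * K) ^ 6 * (17 * K) ^ (1 + qp 0) * (W * M)) *
      ((k ^ (1 + qp 0) * k ^ (1 + qp 1) * k ^ (1 + qp 2)) * phC qm qp a1 v1 v2 a' (w 1) (w 2)) :=
        mul_le_mul_of_nonneg_left h5 (by positivity)
    _ = _ := by ring

end Crest.Agent.R136.Shv410
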