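import Crest.Agent.R136.Pl2B_860
import Crest.Agent.R136.Hl1_706

/-!
# R136 (S0187), PLAN 2, leaf (B4): the base tilt in the frames of the planks (helper706)

`Dy f g Y w1 w2 j k'` is a statement on the hull frames `f`, `g` of two sheets; here the base tilt is
transported to the plank frames `e = S.e`, `e' = S'.e` (which differ from `f`, `g` by
`O(w2 / w1)` along the wide axis).
-/

set_option autoImplicit false
set_option linter.unusedVariables false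

namespace Crest.Agent.R136.Tpl706

open Crest.Agent.R136.Sh605 Crest.Agent.R136.Fl808 Crest.Agent.R136.Hl706 Crest.Agent.R136.Pl2
open Crest.Agent.R136.K4 (Plk4)
open Crest.Agent.R136.Pl2W102 (Near)

/-- one component of the product of two transition matrices -/
theorem prod3 {e : Fin 3 → V3} (h : Ortho e) (x u : V3) {c0 c1 c2 : ℝ}
    (h0 : |dt x (e 0)| * |dt (e 0) u| ≤ c0) (h1 : |dt x (e 1)| * |dt (e 1) u| ≤ c1)
    (h2 : |dt x (e 2)| * |dt (e 2) u| ≤ c2) : |dt x u| ≤ c0 + c1 + c2 := by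
  rw [dt_expand h x u]
  refine (abs_add_le _ _).trans (add_le_add ((abs_add_le _ _).trans (add_le_add ?_ ?_)) ?_)
  · rw [abs_mul]; exact h0
  · rw [abs_mul]; exact h1
  · rw [abs_mul]; exact h2

theorem dt_abs_comm (x y : V3) : |dt x y| = |dt y x| := by rw [dt_comm]

/-- the wide row against the wide column of an orthogonal matrix -/
theorem row_col {e g : Fin 3 → V3} (he : Ortho e) (hg : Ortho g) {m : ℝ} (hm : 0 ≤ m)
    (h0 : |dt (e 1) (g 0)| ≤ m) (h2 : |dt (e 1) (g 2)| ≤ m) :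
    |dt (g 1) (e 0)| ≤ 2 * m ∧ |dt (g 1) (e 2)| ≤ 2 * m := by
  have r := dt_expand hg (e 1) (e 1)
  have c := dt_expand he (g 1) (g 1)
  have e11 := he 1 1
  have g11 := hg 1 1
  simp only [if_true] at e11 g11
  rw [e11, dt_comm (g 0) (e 1), dt_comm (g 1) (e 1), dt_comm (g 2) (e 1)] at r
  rw [g11, dt_comm (e 0) (g 1), dt_comm (e 1) (g 1), dt_comm (e 2) (g 1)] at c
  rw [dt_comm (g 1) (e 1)] at c
  set a0 := dt (e 1) (g 0)
  set a1 := dt (e 1) (g 1)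
  set a2 := dt (e 1) (g 2)
  set b0 := dt (g 1) (e 0)
  set b2 := dt (g 1) (e 2)
  have q0 : a0 ^ 2 ≤ m ^ 2 := by rw [← sq_abs a0]; exact pow_le_pow_left₀ (abs_nonneg _) h0 2
  have q2 : a2 ^ 2 ≤ m ^ 2 := by rw [← sq_abs a2]; exact pow_le_pow_left₀ (abs_nonneg _) h2 2
  have hb : b0 ^ 2 + b2 ^ 2 = a0 ^ 2 + a2 ^ 2 := by nlinarith
  constructor
  · apply abs_le_of_sq_le_sq _ (by linarith)
    nlinarith [sq_nonneg b2, sq_nonneg m]
  · apply abs_le_of_sq_le_sq _ (by linarith)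
    nlinarith [sq_nonneg b0, sq_nonneg m]

section
variable {e e' f g : Fin 3 → V3} {K Y w1 w2 : ℝ} {j k' : ℕ}

/-- lower bound of the tilt of the plank frames -/
theorem tilt_lo (he : Ortho e) (he' : Ortho e') (hf : Ortho f) (hg : Ortho g) (hw1 : 0 < w1)
    (hw2 : 0 < w2) (hK : 1 ≤ K) (f10 : |dt (f 1) (e 0)| * w1 ≤ K * w2)
    (f12 : |dt (f 1) (e 2)| * w1 ≤ K * w2) (g01 : |dt (g 0) (e' 1)| * w1 ≤ K * w2)
    (g21 : |dt (g 2) (e' 1)| * w1 ≤ K * w2) (H : Dy f g Y w1 w2 j k') (hj : 32 * K ≤ 2 ^ j) :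
    2 ^ j * w2 ≤ 8 * (w1 * max |dt (e 1) (e' 0)| |dt (e 1) (e' 2)|) := by
  set m : ℝ := max |dt (e 1) (e' 0)| |dt (e 1) (e' 2)| with hm
  have hm0 : |dt (e' 0) (e 1)| ≤ m := by rw [dt_comm]; exact le_max_left _ _
  have hm2 : |dt (e' 2) (e 1)| ≤ m := by rw [dt_comm]; exact le_max_right _ _
  set s : ℝ := K * w2 / w1 with hs
  have hs0 : 0 ≤ s := by positivity
  have sb : ∀ x : ℝ, |x| * w1 ≤ K * w2 → |x| ≤ s := fun x hx => by
    rw [hs, le_div_iff₀ hw1]; exact hx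
  have key : ∀ i : Fin 3, |dt (g i) (e' 1)| ≤ s → |dt (g i) (f 1)| ≤ 3 * s + 2 * m := by
    intro i hi
    have a1 : |dt (g i) (e 1)| ≤ m + s + m := by
      refine prod3 he' (g i) (e 1) ?_ ?_ ?_
      · exact (mul_le_of_le_one_left (abs_nonneg _) (abs_dt_le_one he' hg i 0)).trans hm0
      · exact (mul_le_of_le_one_right (abs_nonneg _) (abs_dt_le_one he he' 1 1)).trans hi
      · exact (mul_le_of_le_one_left (abs_nonneg _) (abs_dt_le_one he' hg i 2)).trans hm2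
    have a2 : |dt (g i) (f 1)| ≤ s + (m + s + m) + s := by
      refine prod3 he (g i) (f 1) ?_ ?_ ?_
      · refine (mul_le_of_le_one_left (abs_nonneg _) (abs_dt_le_one he hg i 0)).trans ?_
        rw [dt_comm]; exact sb _ f10
      · exact (mul_le_of_le_one_right (abs_nonneg _) (abs_dt_le_one hf he 1 1)).trans a1
      · refine (mul_le_of_le_one_left (abs_nonneg _) (abs_dt_le_one he hg i 2)).trans ?_
        rw [dt_comm]; exact sb _ f12
    linarith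
  have k0 := key 0 (sb _ g01)
  have k2 := key 2 (sb _ g21)
  have hsw : s * w1 = K * w2 := by rw [hs]; field_simp
  have fin : ∀ x : ℝ, |x| ≤ 3 * s + 2 * m → 2 ^ j * w2 ≤ 2 * (|x| * w1) →
      2 ^ j * w2 ≤ 8 * (w1 * m) := by
    intro x hx h
    have h1 : |x| * w1 ≤ (3 * s + 2 * m) * w1 := mul_le_mul_of_nonneg_right hx hw1.le
    have h2 : 32 * K * w2 ≤ 2 ^ j * w2 := mul_le_mul_of_nonneg_right hj hw2.le
    nlinarith
  rcases H.blo with h | h | h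
  · rw [h, pow_zero] at hj; linarith
  · exact fin _ k2 h
  · exact fin _ k0 h

/-- upper bound of the tilt of the plank frames -/
theorem tilt_hi (he : Ortho e) (he' : Ortho e') (hf : Ortho f) (hg : Ortho g) (hw1 : 0 < w1)
    (hw2 : 0 < w2) (hK : 1 ≤ K) (f01 : |dt (f 0) (e 1)| * w1 ≤ K * w2)
    (f21 : |dt (f 2) (e 1)| * w1 ≤ K * w2) (g10 : |dt (g 1) (e' 0)| * w1 ≤ K * w2)
    (g12 : |dt (g 1) (e' 2)| * w1 ≤ K * w2) (H : Dy f g Y w1 w2 j k') :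
    |dt (e 1) (e' 0)| * w1 ≤ 7 * K * (2 ^ j * w2) ∧ |dt (e 1) (e' 2)| * w1 ≤ 7 * K * (2 ^ j * w2) := by
  set s : ℝ := K * w2 / w1 with hs
  have hs0 : 0 ≤ s := by positivity
  have sb : ∀ x : ℝ, |x| * w1 ≤ K * w2 → |x| ≤ s := fun x hx => by
    rw [hs, le_div_iff₀ hw1]; exact hx
  set b : ℝ := 2 ^ j * w2 / w1 with hb
  have hb0 : 0 ≤ b := by positivity
  have b0 : |dt (g 0) (f 1)| ≤ b := by rw [hb, le_div_iff₀ hw1]; exact H.b01
  have b2 : |dt (g 2) (f 1)| ≤ b := by rw [hb, le_div_iff₀ hw1]; exact H.b21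
  have key : ∀ i : Fin 3, |dt (g i) (f 1)| ≤ b → |dt (g i) (e 1)| ≤ 2 * s + b := by
    intro i hi
    have a1 : |dt (g i) (e 1)| ≤ s + b + s := by
      refine prod3 hf (g i) (e 1) ?_ ?_ ?_
      · exact (mul_le_of_le_one_left (abs_nonneg _) (abs_dt_le_one hf hg i 0)).trans (sb _ f01)
      · exact (mul_le_of_le_one_right (abs_nonneg _) (abs_dt_le_one he hf 1 1)).trans hi
      · exact (mul_le_of_le_one_left (abs_nonneg _) (abs_dt_le_one hf hg i 2)).trans (sb _ f21)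
    linarith
  have k0 := key 0 b0
  have k2 := key 2 b2
  have key2 : ∀ i : Fin 3, |dt (e' i) (g 1)| ≤ s → |dt (e' i) (e 1)| ≤ 5 * s + 2 * b := by
    intro i hi
    have a1 : |dt (e' i) (e 1)| ≤ (2 * s + b) + s + (2 * s + b) := by
      refine prod3 hg (e' i) (e 1) ?_ ?_ ?_
      · exact (mul_le_of_le_one_left (abs_nonneg _) (abs_dt_le_one hg he' i 0)).trans k0
      · exact (mul_le_of_le_one_right (abs_nonneg _) (abs_dt_le_one he hg 1 1)).trans hi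
      · exact (mul_le_of_le_one_left (abs_nonneg _) (abs_dt_le_one hg he' i 2)).trans k2
    linarith
  have hsw : s * w1 = K * w2 := by rw [hs]; field_simp
  have hbw : b * w1 = 2 ^ j * w2 := by rw [hb]; field_simp
  have hj1 : (1:ℝ) ≤ 2 ^ j := one_le_pow₀ (by norm_num)
  have fin : ∀ x : ℝ, |x| ≤ 5 * s + 2 * b → |x| * w1 ≤ 7 * K * (2 ^ j * w2) := by
    intro x hx
    have h1 : |x| * w1 ≤ (5 * s + 2 * b) * w1 := mul_le_mul_of_nonneg_right hx hw1.le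
    have h2 : K * w2 ≤ K * (2 ^ j * w2) := by
      apply mul_le_mul_of_nonneg_left _ (by linarith)
      exact le_mul_of_one_le_left hw2.le hj1
    have h3 : 2 ^ j * w2 ≤ K * (2 ^ j * w2) := le_mul_of_one_le_left (by positivity) hK
    nlinarith
  constructor
  · rw [dt_comm]; exact fin _ (key2 0 (by rw [dt_comm]; exact sb _ g10))
  · rw [dt_comm]; exact fin _ (key2 2 (by rw [dt_comm]; exact sb _ g12))

end

/-- the entries of `FH` in the units of the pair -/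
theorem FH.ents {K Y w1 w2 z0 ρ : ℝ} {S : Plk4} {f : Fin 3 → V3} (hf : FH K Y S f z0 ρ)
    (hK : 1 ≤ K) (hw1 : 0 < w1) (n1 : Near K w1 (S.w 1)) (n2 : Near K w2 (S.w 2)) :
    |dt (f 0) (S.e 1)| * w1 ≤ K ^ 3 * w2 ∧ |dt (f 1) (S.e 0)| * w1 ≤ K ^ 3 * w2 ∧
      |dt (f 1) (S.e 2)| * w1 ≤ K ^ 3 * w2 ∧ |dt (f 2) (S.e 1)| * w1 ≤ K ^ 3 * w2 := by
  have key : ∀ x : ℝ, |x| * S.w 1 ≤ K * S.w 2 → |x| * w1 ≤ K ^ 3 * w2 := by
    intro x hx
    have h1 : |x| * w1 ≤ |x| * (K * S.w 1) := mul_le_mul_of_nonneg_left n1.1 (abs_nonneg _)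
    have h2 : K * (|x| * S.w 1) ≤ K * (K * S.w 2) := mul_le_mul_of_nonneg_left hx (by linarith)
    have h3 : K * K * S.w 2 ≤ K * K * (K * w2) := mul_le_mul_of_nonneg_left n2.2 (by positivity)
    nlinarith
  exact ⟨key _ hf.e01, key _ hf.e10, key _ hf.e12, key _ hf.e21⟩

/-- **tilt of the plank frames from `Dy` of the hull frames** -/
theorem tilt_plank {K Y w1 w2 z0 ρ : ℝ} {S S' : Plk4} {f g : Fin 3 → V3} {j k' : ℕ}
    (hw1 : 0 < w1) (hw2 : 0 < w2) (hK : 1 ≤ K) (hf : FH K Y S f z0 ρ) (hg : FH K Y S' g z0 ρ)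
    (n1 : Near K w1 (S.w 1)) (n2 : Near K w2 (S.w 2)) (n1' : Near K w1 (S'.w 1))
    (n2' : Near K w2 (S'.w 2)) (oe : Ortho S.e) (oe' : Ortho S'.e) (H : Dy f g Y w1 w2 j k') :
    (32 * K ^ 3 ≤ 2 ^ j →
      2 ^ j * w2 ≤ 8 * (w1 * max |dt (S.e 1) (S'.e 0)| |dt (S.e 1) (S'.e 2)|)) ∧
    (|dt (S.e 1) (S'.e 0)| * w1 ≤ 7 * K ^ 3 * (2 ^ j * w2) ∧
      |dt (S.e 1) (S'.e 2)| * w1 ≤ 7 * K ^ 3 * (2 ^ j * w2)) ∧
    (|dt (S'.e 1) (S.e 0)| * w1 ≤ 14 * K ^ 3 * (2 ^ j * w2) ∧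
      |dt (S'.e 1) (S.e 2)| * w1 ≤ 14 * K ^ 3 * (2 ^ j * w2)) := by
  obtain ⟨f01, f10, f12, f21⟩ := FH.ents hf hK hw1 n1 n2
  obtain ⟨g01, g10, g12, g21⟩ := FH.ents hg hK hw1 n1' n2'
  have hK3 : 1 ≤ K ^ 3 := one_le_pow₀ hK
  have hi := tilt_hi oe oe' hf.ortho hg.ortho hw1 hw2 hK3 f01 f21 g10 g12 H
  refine ⟨fun hj => tilt_lo oe oe' hf.ortho hg.ortho hw1 hw2 hK3 f10 f12 g01 g21 H hj, hi, ?_⟩
  set m : ℝ := 7 * K ^ 3 * (2 ^ j * w2) / w1 with hm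
  have hm0 : 0 ≤ m := by positivity
  have hmw : m * w1 = 7 * K ^ 3 * (2 ^ j * w2) := by rw [hm]; field_simp
  have r := row_col oe oe' hm0 (by rw [hm, le_div_iff₀ hw1]; exact hi.1)
    (by rw [hm, le_div_iff₀ hw1]; exact hi.2)
  constructor
  · have := mul_le_mul_of_nonneg_right r.1 hw1.le
    nlinarith
  · have := mul_le_mul_of_nonneg_right r.2 hw1.le
    nlinarith

end Crest.Agent.R136.Tpl706
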