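import Crest.Agent.R136.Plk6_511
import Crest.Agent.R136.Tpl_706
import Crest.Agent.R136.Vlk_639
import Crest.Agent.R136.Shv1_410
import Crest.Agent.R136.Mlt2_89
import Crest.Agent.R136.Shl_410

/-!
# R136 (S0187), PLAN 2, leaf (B4) share: `Lnk` over `ShD` in the letters of the final count (helper140)

`lnkP_of` : `LnkSh` (524: links from the two sheets), `MLow` (565: lower bound of the minors),
`tilt_plank` (706), `strip_e` (410) ⊢ `LnkP` (639's hypothesis of the count) and `LnkS` (410's).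
-/

set_option autoImplicit false
set_option linter.unusedVariables false

namespace Crest.Agent.R136.Lkp140

open Finset
open Crest.Agent.R136.Sh605 Crest.Agent.R136.Fl808
open Crest.Agent.R136.K4 (Plk4)
open Crest.Agent.R136.Tlt51 (Shp InP)
open Crest.Agent.R136.KapP335 (kapP expP)
open Crest.Agent.R136.Pl2
open Crest.Agent.R136.Pl2W102 (Near Ex2 Two1)
open Crest.Agent.R136.Shd410 (ShD)
open Crest.Agent.R136.Lnk989 (dis)
open Crest.Agent.R136.Plk511 (stp stc ny0 ny1)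
open Crest.Agent.R136.Vlk639 (Lnk)
open Crest.Agent.R136.Mlt89 (cv)

/-! ### the literals -/

/-- the lines of `F` are close in both plank frames -/
def Close8 (μ : ℝ) (S S' : Plk4) (L : ℕ → Ln4) (z0 ρ : ℝ) (F : Finset ℕ) : Prop :=
  ∀ T ∈ F, ∀ T' ∈ F, ∀ z, z = z0 ∨ z = z0 + ρ →
    |dt (S.e 1) (dis (L T) (L T') z)| ≤ μ * S.w 1 ∧
    |dt (S.e 2) (dis (L T) (L T') z)| ≤ μ * S.w 2 ∧
    |dt (S'.e 1) (dis (L T) (L T') z)| ≤ μ * S'.w 1 ∧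
    |dt (S'.e 2) (dis (L T) (L T') z)| ≤ μ * S'.w 2

def LnkP : Prop := ∀ (η : ℝ) (qm qp : Fin 3 → ℝ), Ex2 η qm qp → ∃ K c : ℝ, 0 ≤ K ∧ 0 ≤ c ∧
  ∀ (L : ℕ → Ln4) (Z : Finset ℕ) (S S' : Plk4) (f g : Fin 3 → V3)
    (W M a Y w1 w2 z0 ρ r : ℝ) (j k' : ℕ),
    ShD K qm qp L Z S S' f g W M a Y w1 w2 z0 ρ r j k' →
    ∀ t0 ∈ Z, ∀ F ⊆ Z, F.Nonempty → Close8 (W ^ c)⁻¹ S S' L z0 ρ F →
    ∃ (N : ℕ → V3) (b : ℕ → ℝ) (gg : ℕ → Fin 2 → ℝ) (Mf : ℕ → ℝ) (G G' : ℕ → ℝ × ℝ)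
      (H H' : ℕ → ℝ × ℝ × ℝ) (R m V Kc d M0 Mx : ℝ),
      Lnk F (stp S.e (2 ^ j) w1 w2 z0 (L t0) L) (stc S.e (2 ^ j) w1 w2 ρ (L t0) L) b gg
        (ny0 S.e S.w S.a z0 ρ N b L) (ny1 S.e S.w S.a z0 ρ N L) Mf G G' H H' R m V Kc d M0 Mx ∧
      (∀ T ∈ F, |N T 1 / N T 0| ≤ 2 ∧ |N T 2 / N T 0| ≤ 2) ∧
      R ≤ W ^ c ∧ m⁻¹ ≤ W ^ c ∧ V ≤ W ^ c ∧ Kc ≤ W ^ c ∧ 1 ≤ M0 ∧
      2 ^ k' * (Y / a) ≤ W ^ c * M0 ∧ Mx * a ≤ W ^ c * w2

/-- the minor `0 k` of the gradients of the two sheets at the height `ζ` of the line `T` -/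
noncomputable def pik (S S' : Plk4) (z0 ρ : ℝ) (T : Ln4) (ζ : ℝ) (k : Fin 3) : ℝ :=
  dt (S.e 0) (cv S.e S.w fun i => (expP S z0 ρ T).1 i + ζ * (expP S z0 ρ T).2.1 i) *
    dt (S.e k) (cv S'.e S'.w fun i => (expP S' z0 ρ T).1 i + ζ * (expP S' z0 ρ T).2.1 i) -
  dt (S.e 0) (cv S'.e S'.w fun i => (expP S' z0 ρ T).1 i + ζ * (expP S' z0 ρ T).2.1 i) *
    dt (S.e k) (cv S.e S.w fun i => (expP S z0 ρ T).1 i + ζ * (expP S z0 ρ T).2.1 i)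

/-- the lower bound of the minors at the bottom or at the top -/
def MLow : Prop := ∃ K c : ℝ, 0 ≤ K ∧ 0 ≤ c ∧ ∀ (qm qp : Fin 3 → ℝ)
    (L : ℕ → Ln4) (Z : Finset ℕ) (S S' : Plk4) (f g : Fin 3 → V3)
    (W M a Y w1 w2 z0 ρ r : ℝ) (j k' : ℕ),
    ShD K qm qp L Z S S' f g W M a Y w1 w2 z0 ρ r j k' → ∀ s ∈ Z, ∃ ζ : ℝ, (ζ = 0 ∨ ζ = 1) ∧
      2 ^ k' * Y ≤ W ^ c * max (|pik S S' z0 ρ (L s) ζ 1| * (w1 / 2 ^ j))
        (|pik S S' z0 ρ (L s) ζ 2| * w2)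

/-- 524's theorem -/
def LnkSh : Prop := ∃ N0 N1 N2 N3 : ℕ, ∀ (K : ℝ) (qm qp : Fin 3 → ℝ)
    (L : ℕ → Ln4) (Z : Finset ℕ) (S S' : Plk4) (f g : Fin 3 → V3)
    (W M a Y w1 w2 z0 ρ r : ℝ) (j k' : ℕ),
    ShD K qm qp L Z S S' f g W M a Y w1 w2 z0 ρ r j k' → ∀ X : ℝ, W ≤ X →
    |dt (S.e 1) (S'.e 0)| * w1 ≤ X * (2 ^ j * w2) → |dt (S.e 1) (S'.e 2)| * w1 ≤ X * (2 ^ j * w2) →
    (∀ s ∈ Z, ∃ ζ : ℝ, (ζ = 0 ∨ ζ = 1) ∧
      2 ^ k' * Y ≤ X * max (|pik S S' z0 ρ (L s) ζ 1| * (w1 / 2 ^ j))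
        (|pik S S' z0 ρ (L s) ζ 2| * w2)) →
    ∀ (t0 : Ln4) (F : Finset ℕ), F ⊆ Z → ∀ R μ : ℝ, 0 ≤ R →
    (∀ T ∈ F, ∀ k, |stp S.e (2 ^ j) w1 w2 z0 t0 L T k| ≤ R) →
    (∀ T ∈ F, ∀ k, |stc S.e (2 ^ j) w1 w2 ρ t0 L T k| ≤ R) →
    0 < μ → X ^ N0 * μ ≤ 1 → Close8 μ S S' L z0 ρ F →
    ∃ (N : ℕ → V3) (b : ℕ → ℝ) (gg : ℕ → Fin 2 → ℝ) (Mf : ℕ → ℝ) (G G' : ℕ → ℝ × ℝ)
      (H H' : ℕ → ℝ × ℝ × ℝ) (d : ℝ),
      Lnk F (stp S.e (2 ^ j) w1 w2 z0 t0 L) (stc S.e (2 ^ j) w1 w2 ρ t0 L) b gg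
        (ny0 S.e S.w S.a z0 ρ N b L) (ny1 S.e S.w S.a z0 ρ N L) Mf G G' H H' R μ (X ^ N1)
        (X ^ N2) d (2 ^ k' * (Y / a) / X ^ 4) (X ^ N3 * (w2 / a)) ∧
      (∀ T ∈ F, |N T 1 / N T 0| ≤ 2 ∧ |N T 2 / N T 0| ≤ 2)

/-! ### monotonicity in the threshold -/

theorem shD_mono {K K2 : ℝ} (hK : K ≤ K2) {qm qp : Fin 3 → ℝ} {L : ℕ → Ln4} {Z : Finset ℕ}
    {S S' : Plk4} {f g : Fin 3 → V3} {W M a Y w1 w2 z0 ρ r : ℝ} {j k' : ℕ}
    (H : ShD K2 qm qp L Z S S' f g W M a Y w1 w2 z0 ρ r j k') :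
    ShD K qm qp L Z S S' f g W M a Y w1 w2 z0 ρ r j k' := by
  have h1 : W ^ K ≤ W ^ K2 := Real.rpow_le_rpow_of_exponent_le (by linarith [H.W2]) hK
  exact { H with
    big := fun s hs => (mul_le_mul_of_nonneg_right h1 H.a0.le).trans (H.big s hs)
    thr := h1.trans H.thr }

/-! ### the strip coordinates are bounded -/

section
variable {K : ℝ} {qm qp : Fin 3 → ℝ} {L : ℕ → Ln4} {Z : Finset ℕ}
    {S S' : Plk4} {f g : Fin 3 → V3} {W M a Y w1 w2 z0 ρ r : ℝ} {j k' : ℕ}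

/-- displacement of two common lines in strip units -/
theorem disp (H : ShD K qm qp L Z S S' f g W M a Y w1 w2 z0 ρ r j k') {t s : ℕ} (ht : t ∈ Z)
    (hs : s ∈ Z) {z : ℝ} (hz : z0 ≤ z) (hz' : z ≤ z0 + ρ) :
    |2 ^ j * dt (S.e 1) ((L s).pos z - (L t).pos z) / w1| ≤ 10 * W ^ 7 ∧
      |dt (S.e 2) ((L s).pos z - (L t).pos z) / w2| ≤ 2 * W := by
  have hY := H.a0.trans_le H.aY
  have hw2 : 0 < w2 := hY.trans_le H.Yw
  have hw1 : 0 < w1 := hw2.trans_le H.ww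
  have hW : 1 ≤ W := by linarith [H.W2]
  have hW0 : 0 < W := by linarith
  have hp2 : 0 < S.w 2 := by
    have h := H.d2.1
    by_contra hc
    push Not at hc
    have := mul_nonpos_of_nonneg_of_nonpos hW0.le hc
    linarith
  have hp1 : 0 < S.w 1 := hp2.trans_le H.shS.w_le
  constructor
  · have h := Shv410.strip_e H.dy H.hF H.hG hY H.Yw H.ww hW hp1 hp2 H.d1.1 H.d1.2 H.d2.2 H.d2'.2
      H.shS.ortho (H.inS t ht) (H.inS s hs) (H.inS' t ht) (H.inS' s hs) hz hz'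
    rw [abs_div, abs_of_pos hw1, div_le_iff₀ hw1, abs_mul, abs_of_pos (by positivity : (0:ℝ) < 2 ^ j)]
    calc _ ≤ 10 * W ^ 6 * S.w 1 := h
      _ ≤ 10 * W ^ 6 * (W * w1) := mul_le_mul_of_nonneg_left H.d1.2 (by positivity)
      _ = 10 * W ^ 7 * w1 := by ring
  · rw [abs_div, abs_of_pos hw2, div_le_iff₀ hw2]
    have h1 := (H.inS s hs z hz hz').1 2
    have h2 := (H.inS t ht z hz hz').1 2
    have e1 : dt (S.e 2) ((L s).pos z - (L t).pos z) =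
        dt (S.e 2) ((L s).pos z - S.c.pos z) - dt (S.e 2) ((L t).pos z - S.c.pos z) := by
      simp only [dt, Pi.sub_apply]; ring
    rw [e1]
    calc _ ≤ |dt (S.e 2) ((L s).pos z - S.c.pos z)| + |dt (S.e 2) ((L t).pos z - S.c.pos z)| :=
          abs_sub _ _
      _ ≤ S.w 2 + S.w 2 := add_le_add h1 h2
      _ ≤ 2 * W * w2 := by linarith [H.d2.2]

theorem num20 {W : ℝ} (hW : 2 ≤ W) : 20 * W ^ 7 ≤ W ^ 12 ∧ 4 * W ≤ W ^ 12 := by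
  have h0 : 0 < W := by linarith
  have h5 : (32:ℝ) ≤ W ^ 5 := by
    have := pow_le_pow_left₀ (by norm_num : (0:ℝ) ≤ 2) hW 5
    norm_num at this; exact this
  have h11 : (4:ℝ) ≤ W ^ 11 := by
    have := pow_le_pow_left₀ (by norm_num : (0:ℝ) ≤ 2) hW 11
    norm_num at this; linarith
  constructor
  · calc 20 * W ^ 7 ≤ W ^ 5 * W ^ 7 := mul_le_mul_of_nonneg_right (by linarith) (by positivity)
      _ = W ^ 12 := by ring
  · calc 4 * W ≤ W ^ 11 * W := mul_le_mul_of_nonneg_right h11 h0.le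
      _ = W ^ 12 := by ring

theorem stp_le (H : ShD K qm qp L Z S S' f g W M a Y w1 w2 z0 ρ r j k') {t s : ℕ} (ht : t ∈ Z)
    (hs : s ∈ Z) (k : Fin 2) : |stp S.e (2 ^ j) w1 w2 z0 (L t) L s k| ≤ W ^ 12 := by
  obtain ⟨h1, h2⟩ := disp H ht hs le_rfl (by linarith [H.ρ0])
  obtain ⟨n1, n2⟩ := num20 H.W2
  have hW0 : 0 < W := by linarith [H.W2]
  have p7 : 0 < W ^ 7 := by positivity
  fin_cases k
  · simp only [stp, Fin.zero_eta, Matrix.cons_val_zero]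
    linarith
  · simp only [stp, Fin.mk_one, Matrix.cons_val_one, Matrix.cons_val_fin_one]
    linarith

theorem stc_le (H : ShD K qm qp L Z S S' f g W M a Y w1 w2 z0 ρ r j k') {t s : ℕ} (ht : t ∈ Z)
    (hs : s ∈ Z) (k : Fin 2) : |stc S.e (2 ^ j) w1 w2 ρ (L t) L s k| ≤ W ^ 12 := by
  obtain ⟨h1, h2⟩ := disp H ht hs le_rfl (by linarith [H.ρ0])
  obtain ⟨h3, h4⟩ := disp H ht hs (z := z0 + ρ) (by linarith [H.ρ0]) le_rfl
  obtain ⟨n1, n2⟩ := num20 H.W2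
  have e1 : ∀ u : V3, dt u (ρ • ((L s).v - (L t).v)) =
      dt u ((L s).pos (z0 + ρ) - (L t).pos (z0 + ρ)) - dt u ((L s).pos z0 - (L t).pos z0) := by
    intro u
    simp only [dt, Ln4.pos, Pi.sub_apply, Pi.smul_apply, smul_eq_mul]; ring
  fin_cases k
  · simp only [stc, Fin.zero_eta, Matrix.cons_val_zero]
    rw [e1, mul_sub, sub_div]
    refine (abs_sub _ _).trans ?_
    linarith
  · simp only [stc, Fin.mk_one, Matrix.cons_val_one, Matrix.cons_val_fin_one]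
    rw [e1, sub_div]
    refine (abs_sub _ _).trans ?_
    linarith

end

/-! ### the glue -/

theorem rp_nat {W c : ℝ} (hW : 0 < W) (n : ℕ) : (W ^ c) ^ n = W ^ (c * n) := by
  rw [← Real.rpow_natCast, ← Real.rpow_mul hW.le]

/-- **`Lnk` in the letters of the count** -/
theorem lnkP_of (hl : LnkSh) (hm : MLow) : LnkP := by
  intro η qm qp hE
  obtain ⟨N0, N1, N2, N3, hl⟩ := hl
  obtain ⟨Km, cm, hKm, hcm, hm⟩ := hm
  obtain ⟨c0, hc0⟩ : ∃ c0, c0 = cm + 6 := ⟨_, rfl⟩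
  have c00 : 0 ≤ c0 := by linarith
  obtain ⟨c, hc⟩ : ∃ c : ℝ, c = c0 * N0 + c0 * N1 + c0 * N2 + c0 * N3 + c0 * 4 + 12 := ⟨_, rfl⟩
  have m0 : 0 ≤ c0 * N0 := by positivity
  have m1 : 0 ≤ c0 * N1 := by positivity
  have m2 : 0 ≤ c0 * N2 := by positivity
  have m3 : 0 ≤ c0 * N3 := by positivity
  have m4 : 0 ≤ c0 * 4 := by positivity
  refine ⟨Km + c0 * 4 + 2, c, by positivity, by rw [hc]; positivity, ?_⟩
  intro L Z S S' f g W M a Y w1 w2 z0 ρ r j k' H t0 ht0 F hF hFn hcl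
  have hW2 := H.W2
  have hW : 1 ≤ W := by linarith
  have hW0 : 0 < W := by linarith
  have ha := H.a0
  have hY := ha.trans_le H.aY
  have hw2 : 0 < w2 := hY.trans_le H.Yw
  have hw1 : 0 < w1 := hw2.trans_le H.ww
  have mono : ∀ {x y : ℝ}, x ≤ y → W ^ x ≤ W ^ y := fun h =>
    Real.rpow_le_rpow_of_exponent_le hW h
  obtain ⟨X, hX⟩ : ∃ X, X = W ^ c0 := ⟨_, rfl⟩
  have X0 : 0 < X := by rw [hX]; exact Real.rpow_pos_of_pos hW0 _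
  have XW : W ≤ X := by
    rw [hX]
    calc W = W ^ (1:ℝ) := (Real.rpow_one W).symm
      _ ≤ _ := mono (by linarith)
  have X6 : 7 * W ^ 3 ≤ X := by
    have h3 : (8:ℝ) ≤ W ^ 3 := by
      have := pow_le_pow_left₀ (by norm_num : (0:ℝ) ≤ 2) hW2 3
      norm_num at this; exact this
    calc 7 * W ^ 3 ≤ W ^ 3 * W ^ 3 := mul_le_mul_of_nonneg_right (by linarith) (by positivity)
      _ = W ^ (6:ℕ) := by ring
      _ = W ^ ((6:ℕ):ℝ) := (Real.rpow_natCast W 6).symm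
      _ ≤ W ^ c0 := mono (by push_cast; linarith)
      _ = X := hX.symm
  have Xm : W ^ cm ≤ X := by rw [hX]; exact mono (by linarith)
  have Xn : ∀ n : ℕ, X ^ n = W ^ (c0 * n) := fun n => by rw [hX]; exact rp_nat hW0 n
  -- the tilt
  have tp := (Tpl706.tilt_plank hw1 hw2 hW H.hF H.hG H.d1 H.d2 H.d1' H.d2' H.shS.ortho
    H.shS'.ortho H.dy).2.1
  have pj : 0 ≤ 2 ^ j * w2 := by positivity
  have tl0 : |dt (S.e 1) (S'.e 0)| * w1 ≤ X * (2 ^ j * w2) :=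
    tp.1.trans (mul_le_mul_of_nonneg_right X6 pj)
  have tl2 : |dt (S.e 1) (S'.e 2)| * w1 ≤ X * (2 ^ j * w2) :=
    tp.2.trans (mul_le_mul_of_nonneg_right X6 pj)
  -- the minors
  have hm' := hm qm qp L Z S S' f g W M a Y w1 w2 z0 ρ r j k' (shD_mono (by linarith) H)
  have hlo : ∀ s ∈ Z, ∃ ζ : ℝ, (ζ = 0 ∨ ζ = 1) ∧
      2 ^ k' * Y ≤ X * max (|pik S S' z0 ρ (L s) ζ 1| * (w1 / 2 ^ j))
        (|pik S S' z0 ρ (L s) ζ 2| * w2) := by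
    intro s hs
    obtain ⟨ζ, hζ, h⟩ := hm' s hs
    exact ⟨ζ, hζ, h.trans (mul_le_mul_of_nonneg_right Xm
      (le_max_of_le_right (by positivity)))⟩
  -- the cell
  have hμ0 : 0 < (W ^ c)⁻¹ := inv_pos.2 (Real.rpow_pos_of_pos hW0 _)
  have hμ : X ^ N0 * (W ^ c)⁻¹ ≤ 1 := by
    rw [Xn N0, ← div_eq_mul_inv, div_le_one (Real.rpow_pos_of_pos hW0 _)]
    exact mono (by rw [hc]; linarith)
  obtain ⟨N, b, gg, Mf, G, G', Hh, Hh', d, hL, hN⟩ := hl _ qm qp L Z S S' f g W M a Y w1 w2 z0 ρ r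
    j k' H X XW tl0 tl2 hlo (L t0) F hF (W ^ 12) (W ^ c)⁻¹ (by positivity)
    (fun T hT k => stp_le H ht0 (hF hT) k) (fun T hT k => stc_le H ht0 (hF hT) k) hμ0 hμ hcl
  refine ⟨N, b, gg, Mf, G, G', Hh, Hh', W ^ 12, (W ^ c)⁻¹, X ^ N1, X ^ N2, d,
    2 ^ k' * (Y / a) / X ^ 4, X ^ N3 * (w2 / a), hL, hN, ?_, ?_, ?_, ?_, ?_, ?_, ?_⟩
  · calc W ^ 12 = W ^ ((12:ℕ):ℝ) := (Real.rpow_natCast W 12).symm
      _ ≤ W ^ c := mono (by rw [hc]; push_cast; linarith)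
  · rw [inv_inv]
  · rw [Xn N1]; exact mono (by rw [hc]; linarith)
  · rw [Xn N2]; exact mono (by rw [hc]; linarith)
  · obtain ⟨s, hs⟩ := hFn
    have hb := H.big s (hF hs)
    have hn := (H.near s (hF hs)).2
    have X4 : X ^ 4 = W ^ (c0 * 4) := by rw [Xn 4]; norm_num
    have e1 : 4 * W ^ (c0 * 4) ≤ W ^ (Km + c0 * 4 + 2) := by
      rw [show Km + c0 * 4 + 2 = c0 * 4 + (Km + 2) by ring, Real.rpow_add hW0, mul_comm]
      refine mul_le_mul_of_nonneg_left ?_ (Real.rpow_nonneg hW0.le _)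
      calc (4:ℝ) ≤ W ^ 2 := by nlinarith
        _ = W ^ ((2:ℕ):ℝ) := (Real.rpow_natCast W 2).symm
        _ ≤ W ^ (Km + 2) := mono (by push_cast; linarith)
    have e2 : 4 * W ^ (c0 * 4) * a ≤ 4 * Y :=
      (mul_le_mul_of_nonneg_right e1 ha.le).trans (hb.trans hn)
    have e3 : X ^ 4 ≤ Y / a := by
      rw [X4, le_div_iff₀ ha]; linarith
    have e4 : (1:ℝ) ≤ 2 ^ k' := one_le_pow₀ (by norm_num)
    rw [le_div_iff₀ (by positivity), one_mul]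
    have e5 : 0 ≤ Y / a := by positivity
    calc X ^ 4 ≤ 1 * (Y / a) := by rw [one_mul]; exact e3
      _ ≤ 2 ^ k' * (Y / a) := mul_le_mul_of_nonneg_right e4 e5
  · have X4 : X ^ 4 ≤ W ^ c := by
      rw [Xn 4]; exact mono (by rw [hc]; push_cast; linarith)
    have e5 : 0 ≤ 2 ^ k' * (Y / a) / X ^ 4 := by positivity
    calc 2 ^ k' * (Y / a) = X ^ 4 * (2 ^ k' * (Y / a) / X ^ 4) := by field_simp
      _ ≤ W ^ c * (2 ^ k' * (Y / a) / X ^ 4) := mul_le_mul_of_nonneg_right X4 e5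
  · have X3 : X ^ N3 ≤ W ^ c := by rw [Xn N3]; exact mono (by rw [hc]; linarith)
    calc X ^ N3 * (w2 / a) * a = X ^ N3 * w2 := by field_simp
      _ ≤ W ^ c * w2 := mul_le_mul_of_nonneg_right X3 hw2.le

/-- `LnkP` gives 410's literal -/
theorem lnkS_of_lnkP (h : LnkP) : Shv410.LnkS := by
  intro η qm qp hE
  obtain ⟨K, c, hK, hc, h⟩ := h η qm qp hE
  refine ⟨K, c + 1, hK, by linarith, ?_⟩
  intro L Z S S' f g W M a Y w1 w2 z0 ρ r j k' H t0 ht0 F hF hFn hs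
  have hW2 := H.W2
  have hW : 1 ≤ W := by linarith
  have hW0 : 0 < W := by linarith
  have ha := H.a0
  have hY := ha.trans_le H.aY
  have hw2 : 0 < w2 := hY.trans_le H.Yw
  have hSa : 0 < S.a := H.r0.trans_le H.shS.r0_le
  have hSa' : 0 < S'.a := H.r0.trans_le H.shS'.r0_le
  have p2 : 0 < S.w 2 := (hSa.trans_le H.shS.a_le0).trans_le H.shS.w0_le
  have p1 : 0 < S.w 1 := p2.trans_le H.shS.w_le
  have p2' : 0 < S'.w 2 := (hSa'.trans_le H.shS'.a_le0).trans_le H.shS'.w0_le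
  have p1' : 0 < S'.w 1 := p2'.trans_le H.shS'.w_le
  have hcc : W ^ c ≤ W ^ (c + 1) := Real.rpow_le_rpow_of_exponent_le hW (by linarith)
  have h1c : W ≤ W ^ (c + 1) := by
    calc W = W ^ (1:ℝ) := (Real.rpow_one W).symm
      _ ≤ _ := Real.rpow_le_rpow_of_exponent_le hW (by linarith)
  have pc : 0 < W ^ c := Real.rpow_pos_of_pos hW0 _
  have hμ : 1 / W ^ (c + 1) ≤ (W ^ c)⁻¹ := by
    rw [one_div]; exact inv_anti₀ pc hcc
  have hcl : Close8 (W ^ c)⁻¹ S S' L z0 ρ F := by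
    intro T hT T' hT' z hz
    obtain ⟨a1, a2⟩ := hs T hT T' hT' z hz 1 (by decide)
    obtain ⟨b1, b2⟩ := hs T hT T' hT' z hz 2 (by decide)
    exact ⟨a1.trans (mul_le_mul_of_nonneg_right hμ p1.le),
      b1.trans (mul_le_mul_of_nonneg_right hμ p2.le),
      a2.trans (mul_le_mul_of_nonneg_right hμ p1'.le),
      b2.trans (mul_le_mul_of_nonneg_right hμ p2'.le)⟩
  obtain ⟨N, b, gg, Mf, G, G', Hh, Hh', R, m, V, Kc, d, M0, Mx, hL, hN, q1, q2, q3, q4, q5, q6, q7⟩ :=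
    h L Z S S' f g W M a Y w1 w2 z0 ρ r j k' H t0 ht0 F hF hFn hcl
  have hM0 : 0 ≤ M0 := by linarith
  refine ⟨b, gg, N, S.a, Mf, G, G', Hh, Hh', R, m, V, Kc, d, M0, Mx, hL, q1.trans hcc, ?_,
    q3.trans hcc, q4.trans hcc, q6.trans (mul_le_mul_of_nonneg_right hcc hM0), q5, ?_, hSa, ?_, hN⟩
  · have hm := hL.hm
    have h2 : m⁻¹ ≤ W ^ (c + 1) := q2.trans hcc
    rwa [inv_le_iff_one_le_mul₀ hm] at h2
  · rw [mul_comm a]; exact q7.trans (mul_le_mul_of_nonneg_right hcc hw2.le)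
  · exact H.da.2.trans (mul_le_mul_of_nonneg_right h1c ha.le)

theorem lnkS_of (hl : LnkSh) (hm : MLow) : Shv410.LnkS := lnkS_of_lnkP (lnkP_of hl hm)

end Crest.Agent.R136.Lkp140
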