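import Crest.Agent.R136.Lnk1_989
import Crest.Agent.R136.Clu_108

/-!
# R136 (S0187), PLAN 2, (B4) LINK, abstract half (helper816)

`One` : the three coefficient inequalities of one sheet along a pair (output of `Lnk989.link_one`).
`six_of` : two sheets, strip coordinates `(A, B)`, second normal coordinate `mm Y + τ . (A, B)`
⊢ helper108's six inequalities `Clu108.Six` in the rotated strip coordinates.
-/

set_option autoImplicit false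
set_option linter.unusedVariables false

namespace Crest.Agent.R136.Lnk2816

open Crest.Agent.R136.Lnk989 (q2 p2)
open Crest.Agent.R136.Clu108 (h2 pl Six)

/-- **one sheet** (constants `g`, `h`; `N0, N1` normal coordinate, `x, v` lateral coordinates) -/
structure One (K d g1 g2 h11 h12 h22 N0 N1 x1 x2 v1 v2 : ℝ) : Prop where
  c0 : |N0 + q2 h11 h12 h22 x1 x2| ≤ K + d * |N0|
  c1 : |N1 + (g1 * x1 + g2 * x2) + p2 h11 h12 h22 x1 x2 v1 v2| ≤ K * (1 + |N0|) + d * |N1|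
  c2 : |(g1 * v1 + g2 * v2) + q2 h11 h12 h22 v1 v2| ≤ K * (1 + |N1|)

theorem mul_abs_le {a b A B : ℝ} (ha : |a| ≤ A) (hb : |b| ≤ B) : |a * b| ≤ A * B := by
  rw [abs_mul]
  exact mul_le_mul ha hb (abs_nonneg _) ((abs_nonneg _).trans ha)

theorem add_abs_le {a b A B : ℝ} (ha : |a| ≤ A) (hb : |b| ≤ B) : |a + b| ≤ A + B :=
  (abs_add_le _ _).trans (add_le_add ha hb)

/-- product of a coefficient with `l_{i0}` -/
theorem co_le {h l B L : ℝ} (hh : |h| ≤ B) (hl : |l| * B ≤ L) : |h * l| ≤ L := by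
  rw [abs_mul]
  calc |h| * |l| ≤ B * |l| := mul_le_mul_of_nonneg_right hh (abs_nonneg _)
    _ = |l| * B := mul_comm _ _
    _ ≤ L := hl

theorem err_q {h11 h12 h22 B L m Y l1 l2 x1 x2 X1 X2 : ℝ} (b1 : |h11| ≤ B) (b2 : |h12| ≤ B)
    (b3 : |h22| ≤ B) (k1 : |l1| * B ≤ L) (k2 : |l2| * B ≤ L) (hL : 1 ≤ L) (hm : 0 ≤ m)
    (e1 : x1 = l1 * Y + X1) (e2 : x2 = l2 * Y + X2) (y1 : |x1| ≤ m) (y2 : |x2| ≤ m)
    (z1 : |X1| ≤ 2 * L * m) (z2 : |X2| ≤ 2 * L * m) :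
    |q2 h11 h12 h22 x1 x2 - q2 h11 h12 h22 X1 X2| ≤ 9 * L ^ 2 * m * |Y| := by
  have e : q2 h11 h12 h22 x1 x2 - q2 h11 h12 h22 X1 X2 =
      ((h11 * l1) * (x1 + X1) + (h12 * l1) * x2 + (h12 * l2) * X1 + (h22 * l2) * (x2 + X2)) * Y := by
    unfold q2
    rw [e1, e2]; ring
  have mL : m ≤ L * m := le_mul_of_one_le_left hm hL
  have w1 : |x1 + X1| ≤ 3 * L * m := (add_abs_le y1 z1).trans (by linarith)
  have w2 : |x2 + X2| ≤ 3 * L * m := (add_abs_le y2 z2).trans (by linarith)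
  have t := add_abs_le (add_abs_le (add_abs_le (mul_abs_le (co_le b1 k1) w1)
    (mul_abs_le (co_le b2 k1) (y2.trans mL))) (mul_abs_le (co_le b2 k2) z1))
    (mul_abs_le (co_le b3 k2) w2)
  rw [e, abs_mul]
  refine (mul_le_mul_of_nonneg_right t (abs_nonneg Y)).trans (le_of_eq ?_)
  ring

theorem err_p {h11 h12 h22 B L m Y0 Y1 l1 l2 x1 x2 X1 X2 v1 v2 V1 V2 : ℝ} (b1 : |h11| ≤ B)
    (b2 : |h12| ≤ B) (b3 : |h22| ≤ B) (k1 : |l1| * B ≤ L) (k2 : |l2| * B ≤ L) (hL : 1 ≤ L)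
    (hm : 0 ≤ m) (e1 : x1 = l1 * Y0 + X1) (e2 : x2 = l2 * Y0 + X2) (f1 : v1 = l1 * Y1 + V1)
    (f2 : v2 = l2 * Y1 + V2) (y1 : |v1| ≤ m) (y2 : |v2| ≤ m)
    (z1 : |X1| ≤ 2 * L * m) (z2 : |X2| ≤ 2 * L * m) :
    |p2 h11 h12 h22 x1 x2 v1 v2 - p2 h11 h12 h22 X1 X2 V1 V2| ≤
      6 * L * m * |Y0| + 12 * L ^ 2 * m * |Y1| := by
  have e : p2 h11 h12 h22 x1 x2 v1 v2 - p2 h11 h12 h22 X1 X2 V1 V2 =
      ((h11 * l1) * v1 + (h11 * l1) * v1 + (h12 * l1) * v2 + (h12 * l2) * v1 + (h22 * l2) * v2 +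
        (h22 * l2) * v2) * Y0 +
      ((h11 * l1) * X1 + (h11 * l1) * X1 + (h12 * l2) * X1 + (h12 * l1) * X2 + (h22 * l2) * X2 +
        (h22 * l2) * X2) * Y1 := by
    unfold p2
    rw [e1, e2, f1, f2]; ring
  have a1 := co_le b1 k1
  have a2 := co_le b2 k1
  have a3 := co_le b2 k2
  have a4 := co_le b3 k2
  have t := add_abs_le (add_abs_le (add_abs_le (add_abs_le (add_abs_le (mul_abs_le a1 y1)
    (mul_abs_le a1 y1)) (mul_abs_le a2 y2)) (mul_abs_le a3 y1)) (mul_abs_le a4 y2))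
    (mul_abs_le a4 y2)
  have t' := add_abs_le (add_abs_le (add_abs_le (add_abs_le (add_abs_le (mul_abs_le a1 z1)
    (mul_abs_le a1 z1)) (mul_abs_le a3 z1)) (mul_abs_le a2 z2)) (mul_abs_le a4 z2))
    (mul_abs_le a4 z2)
  rw [e]
  refine (add_abs_le (le_of_eq (abs_mul _ _)) (le_of_eq (abs_mul _ _))).trans ?_
  refine (add_le_add (mul_le_mul_of_nonneg_right t (abs_nonneg Y0))
    (mul_le_mul_of_nonneg_right t' (abs_nonneg Y1))).trans (le_of_eq ?_)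
  ring

theorem err_g {g1 g2 B L Y l1 l2 x1 x2 X1 X2 : ℝ} (b1 : |g1| ≤ B) (b2 : |g2| ≤ B)
    (k1 : |l1| * B ≤ L) (k2 : |l2| * B ≤ L) (e1 : x1 = l1 * Y + X1) (e2 : x2 = l2 * Y + X2) :
    |(g1 * x1 + g2 * x2) - (g1 * X1 + g2 * X2)| ≤ 2 * L * |Y| := by
  have e : (g1 * x1 + g2 * x2) - (g1 * X1 + g2 * X2) = ((g1 * l1) + (g2 * l2)) * Y := by
    rw [e1, e2]; ring
  rw [e, abs_mul]
  refine (mul_le_mul_of_nonneg_right (add_abs_le (co_le b1 k1) (co_le b2 k2))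
    (abs_nonneg Y)).trans (le_of_eq ?_)
  ring

/-- pulled back linear form -/
def pg (g1 g2 a11 a12 a21 a22 : ℝ) : ℝ × ℝ := (g1 * a11 + g2 * a21, g1 * a12 + g2 * a22)

/-- pulled back quadratic form, in helper108's normalisation -/
noncomputable def ph (h11 h12 h22 a11 a12 a21 a22 : ℝ) : ℝ × ℝ × ℝ :=
  (q2 h11 h12 h22 a11 a21, p2 h11 h12 h22 a11 a21 a12 a22 / 2, q2 h11 h12 h22 a12 a22)

theorem ph_h2 (h11 h12 h22 a11 a12 a21 a22 x y : ℝ) :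
    h2 (ph h11 h12 h22 a11 a12 a21 a22) x y =
      q2 h11 h12 h22 (a11 * x + a12 * y) (a21 * x + a22 * y) := by
  simp only [h2, ph, q2, p2]; ring

theorem ph_pl (h11 h12 h22 a11 a12 a21 a22 x y x' y' : ℝ) :
    2 * pl (ph h11 h12 h22 a11 a12 a21 a22) x y x' y' =
      p2 h11 h12 h22 (a11 * x + a12 * y) (a21 * x + a22 * y) (a11 * x' + a12 * y')
        (a21 * x' + a22 * y') := by
  simp only [pl, ph, q2, p2]; ring

theorem q2_le {h11 h12 h22 B A x y : ℝ} (b1 : |h11| ≤ B) (b2 : |h12| ≤ B) (b3 : |h22| ≤ B)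
    (hx : |x| ≤ A) (hy : |y| ≤ A) : |q2 h11 h12 h22 x y| ≤ 3 * B * A ^ 2 := by
  have e : q2 h11 h12 h22 x y = h11 * (x * x) + h12 * (x * y) + h22 * (y * y) := by
    unfold q2; ring
  rw [e]
  have := add_abs_le (add_abs_le (mul_abs_le b1 (mul_abs_le hx hx))
    (mul_abs_le b2 (mul_abs_le hx hy))) (mul_abs_le b3 (mul_abs_le hy hy))
  refine this.trans (le_of_eq ?_)
  ring

theorem p2_le {h11 h12 h22 B A x y x' y' : ℝ} (b1 : |h11| ≤ B) (b2 : |h12| ≤ B) (b3 : |h22| ≤ B)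
    (hx : |x| ≤ A) (hy : |y| ≤ A) (hx' : |x'| ≤ A) (hy' : |y'| ≤ A) :
    |p2 h11 h12 h22 x y x' y' / 2| ≤ 3 * B * A ^ 2 := by
  have e : p2 h11 h12 h22 x y x' y' / 2 = h11 * (x * x') + (h12 * (x * y') + h12 * (x' * y)) / 2 +
      h22 * (y * y') := by
    unfold p2; ring
  rw [e]
  have t1 : |(h12 * (x * y') + h12 * (x' * y)) / 2| ≤ B * (A * A) := by
    rw [abs_div, abs_two, div_le_iff₀ two_pos]
    have := add_abs_le (mul_abs_le b2 (mul_abs_le hx hy')) (mul_abs_le b2 (mul_abs_le hx' hy))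
    linarith
  have := add_abs_le (add_abs_le (mul_abs_le b1 (mul_abs_le hx hx')) t1)
    (mul_abs_le b3 (mul_abs_le hy hy'))
  refine this.trans (le_of_eq ?_)
  ring

/-- one sheet in the rotated strip coordinates -/
theorem one_out {K d B L m g1 g2 h11 h12 h22 l10 l20 a11 a12 a21 a22 Y0 Y1 N0 N1 x1 x2 v1 v2 px s
    cx t : ℝ} (O : One K d g1 g2 h11 h12 h22 N0 N1 x1 x2 v1 v2)
    (bg1 : |g1| ≤ B) (bg2 : |g2| ≤ B) (b1 : |h11| ≤ B) (b2 : |h12| ≤ B) (b3 : |h22| ≤ B)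
    (k1 : |l10| * B ≤ L) (k2 : |l20| * B ≤ L) (hL : 1 ≤ L) (hm : 0 ≤ m) (hm1 : m ≤ 1)
    (e1 : x1 = l10 * Y0 + (a11 * px + a12 * s)) (e2 : x2 = l20 * Y0 + (a21 * px + a22 * s))
    (f1 : v1 = l10 * Y1 + (a11 * cx + a12 * t)) (f2 : v2 = l20 * Y1 + (a21 * cx + a22 * t))
    (y1 : |x1| ≤ m) (y2 : |x2| ≤ m) (y3 : |v1| ≤ m) (y4 : |v2| ≤ m)
    (z1 : |a11 * px + a12 * s| ≤ 2 * L * m) (z2 : |a21 * px + a22 * s| ≤ 2 * L * m)
    (z3 : |a11 * cx + a12 * t| ≤ 2 * L * m) (z4 : |a21 * cx + a22 * t| ≤ 2 * L * m) :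
    |N0 + h2 (ph h11 h12 h22 a11 a12 a21 a22) px s| ≤ K + d * |N0| + 9 * L ^ 2 * m * |Y0| ∧
    |N1 + ((pg g1 g2 a11 a12 a21 a22).1 * px + (pg g1 g2 a11 a12 a21 a22).2 * s) +
        2 * pl (ph h11 h12 h22 a11 a12 a21 a22) px s cx t| ≤
      K * (1 + |N0|) + d * |N1| + 8 * L * |Y0| + 12 * L ^ 2 * m * |Y1| ∧
    |((pg g1 g2 a11 a12 a21 a22).1 * cx + (pg g1 g2 a11 a12 a21 a22).2 * t) +
        h2 (ph h11 h12 h22 a11 a12 a21 a22) cx t| ≤ K * (1 + |N1|) + 11 * L ^ 2 * |Y1| := by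
  have q0 := err_q b1 b2 b3 k1 k2 hL hm e1 e2 y1 y2 z1 z2
  have qv := err_q b1 b2 b3 k1 k2 hL hm f1 f2 y3 y4 z3 z4
  have qp := err_p b1 b2 b3 k1 k2 hL hm e1 e2 f1 f2 y3 y4 z1 z2
  have qg := err_g bg1 bg2 k1 k2 e1 e2
  have qgv := err_g bg1 bg2 k1 k2 f1 f2
  have eg : ∀ x y : ℝ, (pg g1 g2 a11 a12 a21 a22).1 * x + (pg g1 g2 a11 a12 a21 a22).2 * y =
      g1 * (a11 * x + a12 * y) + g2 * (a21 * x + a22 * y) := by
    intro x y; simp only [pg]; ring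
  rw [ph_h2, ph_h2, ph_pl, eg, eg]
  set X1 := a11 * px + a12 * s
  set X2 := a21 * px + a22 * s
  set V1 := a11 * cx + a12 * t
  set V2 := a21 * cx + a22 * t
  have Y0n := abs_nonneg Y0
  have Y1n := abs_nonneg Y1
  have L0 : 0 ≤ L := by linarith
  have LmL : L * m * |Y0| ≤ L * |Y0| :=
    mul_le_mul_of_nonneg_right (mul_le_of_le_one_right L0 hm1) Y0n
  have L2m : L ^ 2 * m * |Y1| ≤ L ^ 2 * |Y1| :=
    mul_le_mul_of_nonneg_right (mul_le_of_le_one_right (by positivity) hm1) Y1n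
  have LL : L * |Y1| ≤ L ^ 2 * |Y1| := by
    refine mul_le_mul_of_nonneg_right ?_ Y1n
    rw [pow_two]; exact le_mul_of_one_le_left L0 hL
  refine ⟨?_, ?_, ?_⟩
  · have e : N0 + q2 h11 h12 h22 X1 X2 = (N0 + q2 h11 h12 h22 x1 x2) +
        -(q2 h11 h12 h22 x1 x2 - q2 h11 h12 h22 X1 X2) := by ring
    rw [e]
    exact add_abs_le O.c0 ((abs_neg _).trans_le q0)
  · have e : N1 + (g1 * X1 + g2 * X2) + p2 h11 h12 h22 X1 X2 V1 V2 =
        (N1 + (g1 * x1 + g2 * x2) + p2 h11 h12 h22 x1 x2 v1 v2) +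
        -((g1 * x1 + g2 * x2) - (g1 * X1 + g2 * X2)) +
        -(p2 h11 h12 h22 x1 x2 v1 v2 - p2 h11 h12 h22 X1 X2 V1 V2) := by ring
    rw [e]
    have := add_abs_le (add_abs_le O.c1 ((abs_neg _).trans_le qg)) ((abs_neg _).trans_le qp)
    linarith
  · have e : (g1 * V1 + g2 * V2) + q2 h11 h12 h22 V1 V2 =
        ((g1 * v1 + g2 * v2) + q2 h11 h12 h22 v1 v2) +
        -((g1 * v1 + g2 * v2) - (g1 * V1 + g2 * V2)) +
        -(q2 h11 h12 h22 v1 v2 - q2 h11 h12 h22 V1 V2) := by ring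
    rw [e]
    have := add_abs_le (add_abs_le O.c2 ((abs_neg _).trans_le qgv)) ((abs_neg _).trans_le qv)
    linarith

/-- rotated row -/
theorem row_le {l1 l2 c σ L : ℝ} (h1 : |l1| ≤ L) (h2 : |l2| ≤ L) (hc : |c| ≤ 1) (hσ : |σ| ≤ 1) :
    |l1 * c + l2 * σ| ≤ 2 * L ∧ |l2 * c - l1 * σ| ≤ 2 * L := by
  constructor
  · have := add_abs_le (mul_abs_le h1 hc) (mul_abs_le h2 hσ)
    linarith
  · have := (abs_sub (l2 * c) (l1 * σ)).trans (add_le_add (mul_abs_le h2 hc) (mul_abs_le h1 hσ))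
    linarith

set_option maxHeartbeats 1000000 in
/-- **two sheets** ⊢ helper108's six inequalities -/
theorem six_of {K0 d0 B L mm t1 t2 M g1 g2 h11 h12 h22 g1' g2' h11' h12' h22' l10 l11 l12 l20 l21
    l22 k10 k11 k12 k20 k21 k22 : ℝ} (bg1 : |g1| ≤ B) (bg2 : |g2| ≤ B) (b1 : |h11| ≤ B)
    (b2 : |h12| ≤ B) (b3 : |h22| ≤ B) (bg1' : |g1'| ≤ B) (bg2' : |g2'| ≤ B) (b1' : |h11'| ≤ B)
    (b2' : |h12'| ≤ B) (b3' : |h22'| ≤ B) (hL : 1 ≤ L)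
    (hl11 : |l11| ≤ L) (hl12 : |l12| ≤ L) (hl21 : |l21| ≤ L) (hl22 : |l22| ≤ L)
    (hk11 : |k11| ≤ L) (hk12 : |k12| ≤ L) (hk21 : |k21| ≤ L) (hk22 : |k22| ≤ L)
    (hl10 : |l10| * B ≤ L) (hl20 : |l20| * B ≤ L) (hk10 : |k10| * B ≤ L) (hk20 : |k20| * B ≤ L)
    (hmm : |mm| ≤ L) (hd0 : 0 ≤ d0) (hK0 : 1 ≤ K0) (hM : 0 < M) (hMt : M ^ 2 = t1 ^ 2 + t2 ^ 2) :
    ∃ g g' : ℝ × ℝ, ∃ h h' : ℝ × ℝ × ℝ,
      (|g.1| ≤ 100 * L ^ 3 * B ∧ |g.2| ≤ 100 * L ^ 3 * B ∧ |g'.1| ≤ 100 * L ^ 3 * B ∧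
        |g'.2| ≤ 100 * L ^ 3 * B ∧ |h.1| ≤ 100 * L ^ 3 * B ∧ |h.2.1| ≤ 100 * L ^ 3 * B ∧
        |h.2.2| ≤ 100 * L ^ 3 * B ∧ |h'.1| ≤ 100 * L ^ 3 * B ∧ |h'.2.1| ≤ 100 * L ^ 3 * B ∧
        |h'.2.2| ≤ 100 * L ^ 3 * B) ∧
      ∀ Y0 Y1 N0 N1 A0 B0 A1 B1 x1 x2 v1 v2 x1' x2' v1' v2' m : ℝ,
        One K0 d0 g1 g2 h11 h12 h22 Y0 Y1 x1 x2 v1 v2 →
        One K0 d0 g1' g2' h11' h12' h22' N0 N1 x1' x2' v1' v2' →
        x1 = l10 * Y0 + l11 * A0 + l12 * B0 → x2 = l20 * Y0 + l21 * A0 + l22 * B0 →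
        v1 = l10 * Y1 + l11 * A1 + l12 * B1 → v2 = l20 * Y1 + l21 * A1 + l22 * B1 →
        x1' = k10 * Y0 + k11 * A0 + k12 * B0 → x2' = k20 * Y0 + k21 * A0 + k22 * B0 →
        v1' = k10 * Y1 + k11 * A1 + k12 * B1 → v2' = k20 * Y1 + k21 * A1 + k22 * B1 →
        N0 = mm * Y0 + (t1 * A0 + t2 * B0) → N1 = mm * Y1 + (t1 * A1 + t2 * B1) →
        |x1| ≤ m → |x2| ≤ m → |v1| ≤ m → |v2| ≤ m → |x1'| ≤ m → |x2'| ≤ m → |v1'| ≤ m →
        |v2'| ≤ m → |A0| ≤ m → |B0| ≤ m → |A1| ≤ m → |B1| ≤ m → m ≤ 1 →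
        Six (40 * L ^ 4 * K0) (40 * L ^ 4 * (d0 + m)) M g g' h h' Y0 Y1
          ((t1 * A0 + t2 * B0) / M) ((t1 * B0 - t2 * A0) / M)
          ((t1 * A1 + t2 * B1) / M) ((t1 * B1 - t2 * A1) / M) := by
  have L0 : 0 < L := by linarith
  have B0' : 0 ≤ B := (abs_nonneg _).trans bg1
  obtain ⟨c, hc⟩ : ∃ c, c = t1 / M := ⟨_, rfl⟩
  obtain ⟨σ, hσ⟩ : ∃ σ, σ = t2 / M := ⟨_, rfl⟩
  have hcσ : c ^ 2 + σ ^ 2 = 1 := by
    rw [hc, hσ, div_pow, div_pow, ← add_div, ← hMt, div_self (by positivity)]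
  have c1 : |c| ≤ 1 := by rw [abs_le]; constructor <;> nlinarith [sq_nonneg σ]
  have σ1 : |σ| ≤ 1 := by rw [abs_le]; constructor <;> nlinarith [sq_nonneg c]
  -- rows
  obtain ⟨r11, r12⟩ := row_le hl11 hl12 c1 σ1
  obtain ⟨r21, r22⟩ := row_le hl21 hl22 c1 σ1
  obtain ⟨s11, s12⟩ := row_le hk11 hk12 c1 σ1
  obtain ⟨s21, s22⟩ := row_le hk21 hk22 c1 σ1
  obtain ⟨a11, ha11⟩ : ∃ a, a = l11 * c + l12 * σ := ⟨_, rfl⟩
  obtain ⟨a12, ha12⟩ : ∃ a, a = l12 * c - l11 * σ := ⟨_, rfl⟩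
  obtain ⟨a21, ha21⟩ : ∃ a, a = l21 * c + l22 * σ := ⟨_, rfl⟩
  obtain ⟨a22, ha22⟩ : ∃ a, a = l22 * c - l21 * σ := ⟨_, rfl⟩
  obtain ⟨e11, he11⟩ : ∃ a, a = k11 * c + k12 * σ := ⟨_, rfl⟩
  obtain ⟨e12, he12⟩ : ∃ a, a = k12 * c - k11 * σ := ⟨_, rfl⟩
  obtain ⟨e21, he21⟩ : ∃ a, a = k21 * c + k22 * σ := ⟨_, rfl⟩
  obtain ⟨e22, he22⟩ : ∃ a, a = k22 * c - k21 * σ := ⟨_, rfl⟩
  rw [← ha11] at r11
  rw [← ha12] at r12
  rw [← ha21] at r21
  rw [← ha22] at r22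
  rw [← he11] at s11
  rw [← he12] at s12
  rw [← he21] at s21
  rw [← he22] at s22
  set G : ℝ × ℝ := pg g1 g2 a11 a12 a21 a22 with hG
  set G' : ℝ × ℝ := pg g1' g2' e11 e12 e21 e22 with hG'
  set H : ℝ × ℝ × ℝ := ph h11 h12 h22 a11 a12 a21 a22 with hH
  set H' : ℝ × ℝ × ℝ := ph h11' h12' h22' e11 e12 e21 e22 with hH'
  have hm1 : |1 - mm| ≤ 2 * L := by
    refine (abs_sub _ _).trans ?_
    rw [abs_one]; linarith
  have L2 : L ≤ L ^ 2 := by rw [pow_two]; exact le_mul_of_one_le_left L0.le hL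
  have L3 : L ^ 2 ≤ L ^ 3 := pow_le_pow_right₀ hL (by norm_num)
  have L4 : L ^ 3 ≤ L ^ 4 := pow_le_pow_right₀ hL (by norm_num)
  have lB : L * B ≤ L ^ 3 * B := mul_le_mul_of_nonneg_right (L2.trans L3) B0'
  have l2B : L ^ 2 * B ≤ L ^ 3 * B := mul_le_mul_of_nonneg_right L3 B0'
  have LB0 : 0 ≤ L ^ 3 * B := by positivity
  -- bounds of the coefficients
  have gb : ∀ u1 u2 p q : ℝ, |u1| ≤ B → |u2| ≤ B → |p| ≤ 2 * L → |q| ≤ 2 * L →
      |u1 * p + u2 * q| ≤ 4 * (L * B) := by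
    intro u1 u2 p q h1 h2 h3 h4
    have := add_abs_le (mul_abs_le h1 h3) (mul_abs_le h2 h4)
    linarith
  have hb : ∀ u1 u2 u3 p q : ℝ, |u1| ≤ B → |u2| ≤ B → |u3| ≤ B → |p| ≤ 2 * L → |q| ≤ 2 * L →
      |q2 u1 u2 u3 p q| ≤ 12 * (L ^ 2 * B) := by
    intro u1 u2 u3 p q h1 h2 h3 h4 h5
    have := q2_le h1 h2 h3 h4 h5
    linarith
  have hb2 : ∀ u1 u2 u3 p q p' q' : ℝ, |u1| ≤ B → |u2| ≤ B → |u3| ≤ B → |p| ≤ 2 * L →
      |q| ≤ 2 * L → |p'| ≤ 2 * L → |q'| ≤ 2 * L → |p2 u1 u2 u3 p q p' q' / 2| ≤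
        12 * (L ^ 2 * B) := by
    intro u1 u2 u3 p q p' q' h1 h2 h3 h4 h5 h6 h7
    have := p2_le h1 h2 h3 h4 h5 h6 h7
    linarith
  have G1 : |G.1| ≤ 4 * (L * B) := gb _ _ _ _ bg1 bg2 r11 r21
  have G2 : |G.2| ≤ 4 * (L * B) := gb _ _ _ _ bg1 bg2 r12 r22
  have G1' : |G'.1| ≤ 4 * (L * B) := gb _ _ _ _ bg1' bg2' s11 s21
  have G2' : |G'.2| ≤ 4 * (L * B) := gb _ _ _ _ bg1' bg2' s12 s22
  have H1 : |H.1| ≤ 12 * (L ^ 2 * B) := hb _ _ _ _ _ b1 b2 b3 r11 r21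
  have H2 : |H.2.1| ≤ 12 * (L ^ 2 * B) := hb2 _ _ _ _ _ _ _ b1 b2 b3 r11 r21 r12 r22
  have H3 : |H.2.2| ≤ 12 * (L ^ 2 * B) := hb _ _ _ _ _ b1 b2 b3 r12 r22
  have H1' : |H'.1| ≤ 12 * (L ^ 2 * B) := hb _ _ _ _ _ b1' b2' b3' s11 s21
  have H2' : |H'.2.1| ≤ 12 * (L ^ 2 * B) := hb2 _ _ _ _ _ _ _ b1' b2' b3' s11 s21 s12 s22
  have H3' : |H'.2.2| ≤ 12 * (L ^ 2 * B) := hb _ _ _ _ _ b1' b2' b3' s12 s22
  have com : ∀ x y : ℝ, |x| ≤ 12 * (L ^ 2 * B) → |y| ≤ 12 * (L ^ 2 * B) →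
      |x + (1 - mm) * y| ≤ 100 * L ^ 3 * B := by
    intro x y h1 h2
    have := add_abs_le h1 (mul_abs_le hm1 h2)
    have e : 2 * L * (12 * (L ^ 2 * B)) = 24 * (L ^ 3 * B) := by ring
    rw [e] at this
    linarith
  have lB2 : 4 * (L * B) ≤ 12 * (L ^ 2 * B) := by
    have : L * B ≤ L ^ 2 * B := mul_le_mul_of_nonneg_right L2 B0'
    have : 0 ≤ L * B := by positivity
    linarith
  refine ⟨G, (G'.1 + (1 - mm) * G.1, G'.2 + (1 - mm) * G.2), H,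
    (H'.1 + (1 - mm) * H.1, H'.2.1 + (1 - mm) * H.2.1, H'.2.2 + (1 - mm) * H.2.2), ?_, ?_⟩
  · refine ⟨by linarith, by linarith, com _ _ (G1'.trans lB2) (G1.trans lB2),
      com _ _ (G2'.trans lB2) (G2.trans lB2), by linarith, by linarith, by linarith,
      com _ _ H1' H1, com _ _ H2' H2, com _ _ H3' H3⟩
  · intro Y0 Y1 N0 N1 A0 B0 A1 B1 x1 x2 v1 v2 x1' x2' v1' v2' m O O' ex1 ex2 ev1 ev2 ex1' ex2' ev1'
      ev2' eN0 eN1 y1 y2 y3 y4 y1' y2' y3' y4' mA0 mB0 mA1 mB1 m1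
    have m0 : 0 ≤ m := (abs_nonneg _).trans y1
    obtain ⟨px, hpx⟩ : ∃ px, px = (t1 * A0 + t2 * B0) / M := ⟨_, rfl⟩
    obtain ⟨s, hs⟩ : ∃ s, s = (t1 * B0 - t2 * A0) / M := ⟨_, rfl⟩
    obtain ⟨cx, hcx⟩ : ∃ cx, cx = (t1 * A1 + t2 * B1) / M := ⟨_, rfl⟩
    obtain ⟨t, ht⟩ : ∃ t, t = (t1 * B1 - t2 * A1) / M := ⟨_, rfl⟩
    rw [← hpx, ← hs, ← hcx, ← ht]
    have epx : px = c * A0 + σ * B0 := by rw [hpx, hc, hσ]; ring
    have es : s = c * B0 - σ * A0 := by rw [hs, hc, hσ]; ring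
    have ecx : cx = c * A1 + σ * B1 := by rw [hcx, hc, hσ]; ring
    have et : t = c * B1 - σ * A1 := by rw [ht, hc, hσ]; ring
    have eA0 : A0 = c * px - σ * s := by
      rw [epx, es]; linear_combination (-A0) * hcσ
    have eB0 : B0 = σ * px + c * s := by
      rw [epx, es]; linear_combination (-B0) * hcσ
    have eA1 : A1 = c * cx - σ * t := by
      rw [ecx, et]; linear_combination (-A1) * hcσ
    have eB1 : B1 = σ * cx + c * t := by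
      rw [ecx, et]; linear_combination (-B1) * hcσ
    have hMpx : M * px = t1 * A0 + t2 * B0 := by rw [hpx]; field_simp
    have hMcx : M * cx = t1 * A1 + t2 * B1 := by rw [hcx]; field_simp
    rw [← hMpx] at eN0
    rw [← hMcx] at eN1
    -- linear parts
    have lin : ∀ p q A B' u v : ℝ, A = c * u - σ * v → B' = σ * u + c * v →
        p * A + q * B' = (p * c + q * σ) * u + (q * c - p * σ) * v := by
      intro p q A B' u v h1 h2; rw [h1, h2]; ring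
    have lb : ∀ p q A B' : ℝ, |p| ≤ L → |q| ≤ L → |A| ≤ m → |B'| ≤ m →
        |p * A + q * B'| ≤ 2 * L * m := by
      intro p q A B' h1 h2 h3 h4
      have := add_abs_le (mul_abs_le h1 h3) (mul_abs_le h2 h4)
      linarith
    have r1 := lin l11 l12 A0 B0 px s eA0 eB0
    have r2 := lin l21 l22 A0 B0 px s eA0 eB0
    have r3 := lin l11 l12 A1 B1 cx t eA1 eB1
    have r4 := lin l21 l22 A1 B1 cx t eA1 eB1
    have r5 := lin k11 k12 A0 B0 px s eA0 eB0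
    have r6 := lin k21 k22 A0 B0 px s eA0 eB0
    have r7 := lin k11 k12 A1 B1 cx t eA1 eB1
    have r8 := lin k21 k22 A1 B1 cx t eA1 eB1
    rw [← ha11, ← ha12] at r1 r3
    rw [← ha21, ← ha22] at r2 r4
    rw [← he11, ← he12] at r5 r7
    rw [← he21, ← he22] at r6 r8
    obtain ⟨o0, o1, o2⟩ := one_out (Y0 := Y0) (Y1 := Y1) O bg1 bg2 b1 b2 b3 hl10 hl20 hL m0 m1
      (by rw [ex1, ← r1]; ring) (by rw [ex2, ← r2]; ring) (by rw [ev1, ← r3]; ring)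
      (by rw [ev2, ← r4]; ring) y1 y2 y3 y4
      (by rw [← r1]; exact lb _ _ _ _ hl11 hl12 mA0 mB0)
      (by rw [← r2]; exact lb _ _ _ _ hl21 hl22 mA0 mB0)
      (by rw [← r3]; exact lb _ _ _ _ hl11 hl12 mA1 mB1)
      (by rw [← r4]; exact lb _ _ _ _ hl21 hl22 mA1 mB1)
    obtain ⟨u0, u1, u2⟩ := one_out (Y0 := Y0) (Y1 := Y1) O' bg1' bg2' b1' b2' b3' hk10 hk20 hL m0 m1
      (by rw [ex1', ← r5]; ring) (by rw [ex2', ← r6]; ring) (by rw [ev1', ← r7]; ring)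
      (by rw [ev2', ← r8]; ring) y1' y2' y3' y4'
      (by rw [← r5]; exact lb _ _ _ _ hk11 hk12 mA0 mB0)
      (by rw [← r6]; exact lb _ _ _ _ hk21 hk22 mA0 mB0)
      (by rw [← r7]; exact lb _ _ _ _ hk11 hk12 mA1 mB1)
      (by rw [← r8]; exact lb _ _ _ _ hk21 hk22 mA1 mB1)
    rw [← hG, ← hH] at o1 o2
    rw [← hH] at o0
    rw [← hG', ← hH'] at u1 u2
    rw [← hH'] at u0
    -- sizes
    obtain ⟨y, hy⟩ : ∃ y, y = |Y0| := ⟨_, rfl⟩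
    obtain ⟨w, hw⟩ : ∃ w, w = |Y1| := ⟨_, rfl⟩
    obtain ⟨P, hP⟩ : ∃ P, P = M * |px| := ⟨_, rfl⟩
    obtain ⟨C, hC⟩ : ∃ C, C = M * |cx| := ⟨_, rfl⟩
    have y0 : 0 ≤ y := by rw [hy]; exact abs_nonneg _
    have w0 : 0 ≤ w := by rw [hw]; exact abs_nonneg _
    have P0 : 0 ≤ P := by rw [hP]; positivity
    have C0 : 0 ≤ C := by rw [hC]; positivity
    have N0b : |N0| ≤ L * y + P := by
      rw [eN0, hy, hP]
      exact add_abs_le (mul_abs_le hmm le_rfl) (by rw [abs_mul, abs_of_pos hM])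
    have N1b : |N1| ≤ L * w + C := by
      rw [eN1, hw, hC]
      exact add_abs_le (mul_abs_le hmm le_rfl) (by rw [abs_mul, abs_of_pos hM])
    rw [← hy] at o0 o1 u0 u1
    rw [← hw] at o1 o2 u1 u2
    have K00 : 0 < K0 := by linarith
    -- products of the constants
    have one4 : 1 ≤ L ^ 4 := one_le_pow₀ hL
    have L14 : L ≤ L ^ 4 := L2.trans (L3.trans L4)
    have L24 : L ^ 2 ≤ L ^ 4 := L3.trans L4
    have LK : ∀ z : ℝ, 0 ≤ z → ∀ k : ℕ, k ≤ 4 → L ^ k * z ≤ L ^ 4 * z := fun z hz k hk =>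
      mul_le_mul_of_nonneg_right (pow_le_pow_right₀ hL hk) hz
    have LKK : ∀ z : ℝ, 0 ≤ z → ∀ k : ℕ, k ≤ 4 → L ^ k * z ≤ L ^ 4 * K0 * z := by
      intro z hz k hk
      refine (LK z hz k hk).trans (mul_le_mul_of_nonneg_right ?_ hz)
      exact le_mul_of_one_le_right (by positivity) hK0
    have LK0 : ∀ z : ℝ, 0 ≤ z → ∀ k : ℕ, k ≤ 4 → L ^ k * K0 * z ≤ L ^ 4 * K0 * z := by
      intro z hz k hk
      refine mul_le_mul_of_nonneg_right (mul_le_mul_of_nonneg_right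
        (pow_le_pow_right₀ hL hk) K00.le) hz
    have Ld0 : ∀ z : ℝ, 0 ≤ z → ∀ k : ℕ, k ≤ 4 → L ^ k * d0 * z ≤ L ^ 4 * d0 * z := by
      intro z hz k hk
      refine mul_le_mul_of_nonneg_right (mul_le_mul_of_nonneg_right
        (pow_le_pow_right₀ hL hk) hd0) hz
    have Lm0 : ∀ z : ℝ, 0 ≤ z → ∀ k : ℕ, k ≤ 4 → L ^ k * m * z ≤ L ^ 4 * m * z := by
      intro z hz k hk
      refine mul_le_mul_of_nonneg_right (mul_le_mul_of_nonneg_right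
        (pow_le_pow_right₀ hL hk) m0) hz
    have nK : 0 ≤ L ^ 4 * K0 := by positivity
    have nd : 0 ≤ L ^ 4 * d0 := by positivity
    have nm : 0 ≤ L ^ 4 * m := by positivity
    refine ⟨?_, ?_, ?_, ?_, ?_, ?_⟩
    · -- a0
      rw [← hy, ← hP]
      refine o0.trans ?_
      have i1 := LK0 1 zero_le_one 0 (by norm_num)
      have i2 := Ld0 y y0 0 (by norm_num)
      have i3 := Lm0 y y0 2 (by norm_num)
      have i4 : 0 ≤ (L ^ 4 * d0) * P := mul_nonneg nd P0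
      have i5 : 0 ≤ (L ^ 4 * m) * P := mul_nonneg nm P0
      have i6 : 0 ≤ (L ^ 4 * d0) * y := mul_nonneg nd y0
      have i7 : 0 ≤ (L ^ 4 * m) * y := mul_nonneg nm y0
      have e : 40 * L ^ 4 * K0 + 40 * L ^ 4 * (d0 + m) * (y + P) = 40 * (L ^ 4 * K0) +
        40 * ((L ^ 4 * d0) * y) + 40 * ((L ^ 4 * d0) * P) + 40 * ((L ^ 4 * m) * y) +
        40 * ((L ^ 4 * m) * P) := by ring
      rw [e]
      simp only [pow_zero, one_mul, mul_one] at i1 i2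
      linarith
    · -- a1
      rw [← hy, ← hw, ← hP, ← hC]
      refine o1.trans ?_
      have i1 := LK0 1 zero_le_one 0 (by norm_num)
      have i2 := LK0 y y0 0 (by norm_num)
      have i3 := Ld0 w w0 0 (by norm_num)
      have i4 := LKK y y0 1 (by norm_num)
      have i5 := Lm0 w w0 2 (by norm_num)
      have j1 : 0 ≤ (L ^ 4 * K0) * P := mul_nonneg nK P0
      have j2 : 0 ≤ (L ^ 4 * K0) * y := mul_nonneg nK y0
      have j3 : 0 ≤ (L ^ 4 * d0) * w := mul_nonneg nd w0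
      have j4 : 0 ≤ (L ^ 4 * d0) * C := mul_nonneg nd C0
      have j5 : 0 ≤ (L ^ 4 * m) * w := mul_nonneg nm w0
      have j6 : 0 ≤ (L ^ 4 * m) * C := mul_nonneg nm C0
      have e : 40 * L ^ 4 * K0 * (1 + y + P) + 40 * L ^ 4 * (d0 + m) * (w + C) =
        40 * (L ^ 4 * K0) + 40 * ((L ^ 4 * K0) * y) + 40 * ((L ^ 4 * K0) * P) +
        40 * ((L ^ 4 * d0) * w) + 40 * ((L ^ 4 * d0) * C) + 40 * ((L ^ 4 * m) * w) +
        40 * ((L ^ 4 * m) * C) := by ring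
      rw [e]
      simp only [pow_zero, pow_one, one_mul, mul_one] at i1 i2 i3 i4
      have e2 : K0 * (1 + y) = K0 + K0 * y := by ring
      rw [e2]
      linarith
    · -- a2
      rw [← hy, ← hw, ← hP, ← hC]
      refine o2.trans ?_
      have i1 := LK0 1 zero_le_one 0 (by norm_num)
      have i2 := LK0 w w0 0 (by norm_num)
      have i4 := LKK w w0 2 (by norm_num)
      have j1 : 0 ≤ (L ^ 4 * K0) * P := mul_nonneg nK P0
      have j2 : 0 ≤ (L ^ 4 * K0) * y := mul_nonneg nK y0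
      have j3 : 0 ≤ (L ^ 4 * K0) * w := mul_nonneg nK w0
      have j4 : 0 ≤ (L ^ 4 * K0) * C := mul_nonneg nK C0
      have e : 40 * L ^ 4 * K0 * (1 + y + P + w + C) =
        40 * (L ^ 4 * K0) + 40 * ((L ^ 4 * K0) * y) + 40 * ((L ^ 4 * K0) * P) +
        40 * ((L ^ 4 * K0) * w) + 40 * ((L ^ 4 * K0) * C) := by ring
      rw [e]
      simp only [pow_zero, one_mul, mul_one] at i1 i2
      have e2 : K0 * (1 + w) = K0 + K0 * w := by ring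
      rw [e2]
      linarith
    · -- b0
      rw [← hy, ← hP]
      have e0 : Y0 + M * px + h2 (H'.1 + (1 - mm) * H.1, H'.2.1 + (1 - mm) * H.2.1,
          H'.2.2 + (1 - mm) * H.2.2) px s =
          (N0 + h2 H' px s) + (1 - mm) * (Y0 + h2 H px s) := by
        rw [eN0]; simp only [h2]; ring
      rw [e0]
      refine (add_abs_le u0 (mul_abs_le hm1 o0)).trans ?_
      have i0 : d0 * |N0| ≤ d0 * (L * y + P) := mul_le_mul_of_nonneg_left N0b hd0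
      have i1 := LK0 1 zero_le_one 0 (by norm_num)
      have i1' := LK0 1 zero_le_one 1 (by norm_num)
      have i2 := Ld0 y y0 1 (by norm_num)
      have i2' := Ld0 P P0 0 (by norm_num)
      have i3 := Lm0 y y0 2 (by norm_num)
      have i3' := Lm0 y y0 3 (by norm_num)
      have i4 : 0 ≤ (L ^ 4 * d0) * P := mul_nonneg nd P0
      have i5 : 0 ≤ (L ^ 4 * m) * P := mul_nonneg nm P0
      have i6 : 0 ≤ (L ^ 4 * d0) * y := mul_nonneg nd y0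
      have i7 : 0 ≤ (L ^ 4 * m) * y := mul_nonneg nm y0
      have e : 40 * L ^ 4 * K0 + 40 * L ^ 4 * (d0 + m) * (y + P) = 40 * (L ^ 4 * K0) +
        40 * ((L ^ 4 * d0) * y) + 40 * ((L ^ 4 * d0) * P) + 40 * ((L ^ 4 * m) * y) +
        40 * ((L ^ 4 * m) * P) := by ring
      rw [e]
      simp only [pow_zero, pow_one, one_mul, mul_one] at i1 i1' i2 i2'
      have e2 : 2 * L * (K0 + d0 * y + 9 * L ^ 2 * m * y) = 2 * (L * K0) + 2 * (L * d0 * y) +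
        18 * (L ^ 3 * m * y) := by ring
      have e3 : d0 * (L * y + P) = L * d0 * y + d0 * P := by ring
      rw [e2]
      rw [e3] at i0
      linarith
    · -- b1
      rw [← hy, ← hw, ← hP, ← hC]
      have e0 : Y1 + M * cx + ((G'.1 + (1 - mm) * G.1) * px + (G'.2 + (1 - mm) * G.2) * s) +
          2 * pl (H'.1 + (1 - mm) * H.1, H'.2.1 + (1 - mm) * H.2.1,
            H'.2.2 + (1 - mm) * H.2.2) px s cx t =
          (N1 + (G'.1 * px + G'.2 * s) + 2 * pl H' px s cx t) +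
            (1 - mm) * (Y1 + (G.1 * px + G.2 * s) + 2 * pl H px s cx t) := by
        rw [eN1]; simp only [pl]; ring
      show |Y1 + M * cx + ((G'.1 + (1 - mm) * G.1) * px + (G'.2 + (1 - mm) * G.2) * s) +
          2 * pl (H'.1 + (1 - mm) * H.1, H'.2.1 + (1 - mm) * H.2.1,
            H'.2.2 + (1 - mm) * H.2.2) px s cx t| ≤ _
      rw [e0]
      refine (add_abs_le u1 (mul_abs_le hm1 o1)).trans ?_
      have i0 : K0 * (1 + |N0|) ≤ K0 * (1 + (L * y + P)) :=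
        mul_le_mul_of_nonneg_left (by linarith) K00.le
      have i0' : d0 * |N1| ≤ d0 * (L * w + C) := mul_le_mul_of_nonneg_left N1b hd0
      have i1 := LK0 1 zero_le_one 0 (by norm_num)
      have i1' := LK0 1 zero_le_one 1 (by norm_num)
      have i2 := LK0 y y0 1 (by norm_num)
      have i2' := LK0 P P0 0 (by norm_num)
      have i3 := Ld0 w w0 1 (by norm_num)
      have i3' := Ld0 C C0 0 (by norm_num)
      have i4 := LKK y y0 1 (by norm_num)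
      have i4' := LKK y y0 2 (by norm_num)
      have i5 := Lm0 w w0 2 (by norm_num)
      have i5' := Lm0 w w0 3 (by norm_num)
      have j1 : 0 ≤ (L ^ 4 * K0) * P := mul_nonneg nK P0
      have j2 : 0 ≤ (L ^ 4 * K0) * y := mul_nonneg nK y0
      have j3 : 0 ≤ (L ^ 4 * d0) * w := mul_nonneg nd w0
      have j4 : 0 ≤ (L ^ 4 * d0) * C := mul_nonneg nd C0
      have j5 : 0 ≤ (L ^ 4 * m) * w := mul_nonneg nm w0
      have j6 : 0 ≤ (L ^ 4 * m) * C := mul_nonneg nm C0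
      have e : 40 * L ^ 4 * K0 * (1 + y + P) + 40 * L ^ 4 * (d0 + m) * (w + C) =
        40 * (L ^ 4 * K0) + 40 * ((L ^ 4 * K0) * y) + 40 * ((L ^ 4 * K0) * P) +
        40 * ((L ^ 4 * d0) * w) + 40 * ((L ^ 4 * d0) * C) + 40 * ((L ^ 4 * m) * w) +
        40 * ((L ^ 4 * m) * C) := by ring
      rw [e]
      simp only [pow_zero, pow_one, one_mul, mul_one] at i1 i1' i2 i2' i3 i3' i4
      have e2 : 2 * L * (K0 * (1 + y) + d0 * w + 8 * L * y + 12 * L ^ 2 * m * w) =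
        2 * (L * K0) + 2 * (L * K0 * y) + 2 * (L * d0 * w) + 16 * (L ^ 2 * y) +
          24 * (L ^ 3 * m * w) := by ring
      have e3 : K0 * (1 + (L * y + P)) = K0 + L * K0 * y + K0 * P := by ring
      have e4 : d0 * (L * w + C) = L * d0 * w + d0 * C := by ring
      rw [e2]
      rw [e3] at i0
      rw [e4] at i0'
      linarith
    · -- b2
      rw [← hy, ← hw, ← hP, ← hC]
      have e0 : ((G'.1 + (1 - mm) * G.1) * cx + (G'.2 + (1 - mm) * G.2) * t) +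
          h2 (H'.1 + (1 - mm) * H.1, H'.2.1 + (1 - mm) * H.2.1,
            H'.2.2 + (1 - mm) * H.2.2) cx t =
          ((G'.1 * cx + G'.2 * t) + h2 H' cx t) +
            (1 - mm) * ((G.1 * cx + G.2 * t) + h2 H cx t) := by
        simp only [h2]; ring
      show |((G'.1 + (1 - mm) * G.1) * cx + (G'.2 + (1 - mm) * G.2) * t) +
          h2 (H'.1 + (1 - mm) * H.1, H'.2.1 + (1 - mm) * H.2.1,
            H'.2.2 + (1 - mm) * H.2.2) cx t| ≤ _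
      rw [e0]
      refine (add_abs_le u2 (mul_abs_le hm1 o2)).trans ?_
      have i0 : K0 * (1 + |N1|) ≤ K0 * (1 + (L * w + C)) :=
        mul_le_mul_of_nonneg_left (by linarith) K00.le
      have i1 := LK0 1 zero_le_one 0 (by norm_num)
      have i1' := LK0 1 zero_le_one 1 (by norm_num)
      have i2 := LK0 w w0 1 (by norm_num)
      have i2' := LK0 C C0 0 (by norm_num)
      have i4 := LKK w w0 2 (by norm_num)
      have i4' := LKK w w0 3 (by norm_num)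
      have j1 : 0 ≤ (L ^ 4 * K0) * P := mul_nonneg nK P0
      have j2 : 0 ≤ (L ^ 4 * K0) * y := mul_nonneg nK y0
      have j3 : 0 ≤ (L ^ 4 * K0) * w := mul_nonneg nK w0
      have j4 : 0 ≤ (L ^ 4 * K0) * C := mul_nonneg nK C0
      have e : 40 * L ^ 4 * K0 * (1 + y + P + w + C) =
        40 * (L ^ 4 * K0) + 40 * ((L ^ 4 * K0) * y) + 40 * ((L ^ 4 * K0) * P) +
        40 * ((L ^ 4 * K0) * w) + 40 * ((L ^ 4 * K0) * C) := by ring
      rw [e]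
      simp only [pow_zero, pow_one, one_mul, mul_one] at i1 i1' i2 i2'
      have e2 : 2 * L * (K0 * (1 + w) + 11 * L ^ 2 * w) =
        2 * (L * K0) + 2 * (L * K0 * w) + 22 * (L ^ 3 * w) := by ring
      have e3 : K0 * (1 + (L * w + C)) = K0 + L * K0 * w + K0 * C := by ring
      rw [e2]
      rw [e3] at i0
      linarith

end Crest.Agent.R136.Lnk2816
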