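import Crest.Agent.R136.Lnk5_989
import Crest.Agent.R136.Clu_108

/-!
# R136 (S0187), g-free tilt (PLAN 2, B4, (III)): assembly of the link (helper989)

`SixAt` : the abstract half (helper816), `link_at` : two sheets through a line `T`, base height
`b ∈ {0, 1}` ⊢ 108's `Six` for every pair `T, T'`.
-/

set_option autoImplicit false
set_option linter.unusedVariables false

namespace Crest.Agent.R136.Lnk989

open Crest.Agent.R136.Sh605 Crest.Agent.R136.Tl102 Crest.Agent.R136.Lgt989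
open Crest.Agent.R136.Mdr535 (ty gr y_bound kap_sub)
open Crest.Agent.R136.Clu108 (Six)

/-- abstract half of the link, constants fixed before the pair -/
def SixAt (C K0 d0 B L M : ℝ) (g1 g2 h11 h12 h22 g1' g2' h11' h12' h22' l10 l11 l12 l20 l21 l22 k10
    k11 k12 k20 k21 k22 mm t1 t2 : ℝ) : Prop :=
  ∃ g g' : ℝ × ℝ, ∃ h h' : ℝ × ℝ × ℝ,
    (|g.1| ≤ 100 * L ^ 3 * B ∧ |g.2| ≤ 100 * L ^ 3 * B ∧ |h.1| ≤ 100 * L ^ 3 * B ∧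
      |h.2.1| ≤ 100 * L ^ 3 * B ∧ |h.2.2| ≤ 100 * L ^ 3 * B) ∧
    (|g'.1| ≤ 100 * L ^ 3 * B ∧ |g'.2| ≤ 100 * L ^ 3 * B ∧ |h'.1| ≤ 100 * L ^ 3 * B ∧
      |h'.2.1| ≤ 100 * L ^ 3 * B ∧ |h'.2.2| ≤ 100 * L ^ 3 * B) ∧
    ∀ Y0 Y1 N0 N1 A0 B0 A1 B1 x1 x2 v1 v2 x1' x2' v1' v2' m : ℝ,
      OneN K0 d0 g1 g2 h11 h12 h22 Y0 Y1 x1 x2 v1 v2 →
      OneN K0 d0 g1' g2' h11' h12' h22' N0 N1 x1' x2' v1' v2' →
      x1 = l10 * Y0 + l11 * A0 + l12 * B0 → x2 = l20 * Y0 + l21 * A0 + l22 * B0 →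
      v1 = l10 * Y1 + l11 * A1 + l12 * B1 → v2 = l20 * Y1 + l21 * A1 + l22 * B1 →
      x1' = k10 * Y0 + k11 * A0 + k12 * B0 → x2' = k20 * Y0 + k21 * A0 + k22 * B0 →
      v1' = k10 * Y1 + k11 * A1 + k12 * B1 → v2' = k20 * Y1 + k21 * A1 + k22 * B1 →
      N0 = mm * Y0 + (t1 * A0 + t2 * B0) → N1 = mm * Y1 + (t1 * A1 + t2 * B1) →
      |x1| ≤ m → |x2| ≤ m → |v1| ≤ m → |v2| ≤ m → |x1'| ≤ m → |x2'| ≤ m → |v1'| ≤ m →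
      |v2'| ≤ m → |A0| ≤ m → |B0| ≤ m → |A1| ≤ m → |B1| ≤ m → m ≤ 1 →
      Six (C * L ^ 4 * K0) (C * L ^ 4 * (d0 + m)) M g g' h h' Y0 Y1 ((t1 * A0 + t2 * B0) / M)
        ((t1 * B0 - t2 * A0) / M) ((t1 * A1 + t2 * B1) / M) ((t1 * B1 - t2 * A1) / M)

/-- the abstract half -/
def SixOf (C : ℝ) : Prop := ∀ (K0 d0 B L M g1 g2 h11 h12 h22 g1' g2' h11' h12' h22' l10 l11 l12 l20
    l21 l22 k10 k11 k12 k20 k21 k22 mm t1 t2 : ℝ),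
  1 ≤ K0 → 0 ≤ d0 → 1 ≤ L → 0 < M → M ^ 2 = t1 ^ 2 + t2 ^ 2 →
  |g1| ≤ B → |g2| ≤ B → |h11| ≤ B → |h12| ≤ B → |h22| ≤ B →
  |g1'| ≤ B → |g2'| ≤ B → |h11'| ≤ B → |h12'| ≤ B → |h22'| ≤ B →
  |l11| ≤ L → |l12| ≤ L → |l21| ≤ L → |l22| ≤ L → |k11| ≤ L → |k12| ≤ L → |k21| ≤ L → |k22| ≤ L →
  |l10| * B ≤ L → |l20| * B ≤ L → |k10| * B ≤ L → |k20| * B ≤ L → |mm| ≤ L →
  SixAt C K0 d0 B L M g1 g2 h11 h12 h22 g1' g2' h11' h12' h22' l10 l11 l12 l20 l21 l22 k10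
    k11 k12 k20 k21 k22 mm t1 t2

/-- the data of two sheets through the line `T` -/
structure Two (e e' : Fin 3 → V3) (c c' : Ln4) (w w' : V3) (q q' : ℝ → V3 → ℝ) (a a' z0 ρ : ℝ)
    (T : Ln4) (b0 b1 : V3) (G : QF) (b0' b1' : V3) (G' : QF) : Prop where
  S : StP e c w q z0 ρ
  S' : StP e' c' w' q' z0 ρ
  a0 : 0 < a
  aw : a ≤ w 0
  a0' : 0 < a'
  aw' : a' ≤ w' 0
  ρ0 : 0 < ρ
  hT : InSheet T e c w q a z0 ρ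
  kT : InSheet T e' c' w' q' a' z0 ρ
  hE : IsExp q e w T z0 ρ b0 b1 G
  hE' : IsExp q' e' w' T z0 ρ b0' b1' G'

variable {e e' : Fin 3 → V3} {c c' : Ln4} {w w' : V3} {q q' : ℝ → V3 → ℝ} {a a' z0 ρ : ℝ}
  {T : Ln4} {b0 b1 b0' b1' : V3} {G G' : QF} {A B : V3 → ℝ}

/-- **LINK**: two sheets through `T` -/
theorem link_at {C : ℝ} (HS : SixOf C)
    (D : Two e e' c c' w w' q q' a a' z0 ρ T b0 b1 G b0' b1' G') {b : ℝ} (hb : b = 0 ∨ b = 1)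
    {Bc L M μ : ℝ} (hB : 256 * (w 0 / a * kap b0 b1 G) ≤ Bc)
    (hB' : 256 * (w' 0 / a' * kap b0' b1' G') ≤ Bc) (hμ : 20000 * μ ≤ 1) (μ0 : 0 ≤ μ)
    {l10 l11 l12 l20 l21 l22 k10 k11 k12 k20 k21 k22 mm t1 t2 : ℝ}
    (X : Mtx e e' w w' (nb b0 b1 b) (nb b0' b1' b) a a' A B L Bc l10 l11 l12 l20 l21 l22 k10 k11 k12
      k20 k21 k22 mm t1 t2) (hM : 0 < M) (hMt : M ^ 2 = t1 ^ 2 + t2 ^ 2) :
    ∃ g g' : ℝ × ℝ, ∃ h h' : ℝ × ℝ × ℝ,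
      (|g.1| ≤ 100 * L ^ 3 * Bc ∧ |g.2| ≤ 100 * L ^ 3 * Bc ∧ |h.1| ≤ 100 * L ^ 3 * Bc ∧
        |h.2.1| ≤ 100 * L ^ 3 * Bc ∧ |h.2.2| ≤ 100 * L ^ 3 * Bc) ∧
      (|g'.1| ≤ 100 * L ^ 3 * Bc ∧ |g'.2| ≤ 100 * L ^ 3 * Bc ∧ |h'.1| ≤ 100 * L ^ 3 * Bc ∧
        |h'.2.1| ≤ 100 * L ^ 3 * Bc ∧ |h'.2.2| ≤ 100 * L ^ 3 * Bc) ∧
      ∀ (T' : Ln4) (m : ℝ), InSheet T' e c w q a z0 ρ → InSheet T' e' c' w' q' a' z0 ρ →
        (∀ z, z = z0 ∨ z = z0 + ρ →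
          |dt (e 1) (dis T T' z)| ≤ μ * w 1 ∧ |dt (e 2) (dis T T' z)| ≤ μ * w 2) →
        (∀ z, z = z0 ∨ z = z0 + ρ →
          |dt (e' 1) (dis T T' z)| ≤ μ * w' 1 ∧ |dt (e' 2) (dis T T' z)| ≤ μ * w' 2) →
        2 * μ ≤ m → m ≤ 1 →
        |A (dis T T' (z0 + ρ * b))| ≤ m → |B (dis T T' (z0 + ρ * b))| ≤ m →
        |A (dis T T' (z0 + ρ) - dis T T' z0)| ≤ m → |B (dis T T' (z0 + ρ) - dis T T' z0)| ≤ m →
        Six (C * L ^ 4 * 164) (C * L ^ 4 * (800 * μ + m)) M g g' h h'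
          (ty e w (nb b0 b1 b) (dis T T' (z0 + ρ * b)) / a)
          (ty e w (nb b0 b1 b) (dis T T' (z0 + ρ) - dis T T' z0) / a)
          ((t1 * A (dis T T' (z0 + ρ * b)) + t2 * B (dis T T' (z0 + ρ * b))) / M)
          ((t1 * B (dis T T' (z0 + ρ * b)) - t2 * A (dis T T' (z0 + ρ * b))) / M)
          ((t1 * A (dis T T' (z0 + ρ) - dis T T' z0) + t2 * B (dis T T' (z0 + ρ) - dis T T' z0)) / M)
          ((t1 * B (dis T T' (z0 + ρ) - dis T T' z0) -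
            t2 * A (dis T T' (z0 + ρ) - dis T T' z0)) / M) := by
  have N := D.hE.nrmC D.S D.ρ0.le fun z hz hz' => (D.hT z hz hz').1
  have N' := D.hE'.nrmC D.S' D.ρ0.le fun z hz hz' => (D.kT z hz hz').1
  have wp := D.S.pos
  have wp' := D.S'.pos
  have a0 := D.a0
  have a0' := D.a0'
  have β0 : 0 ≤ w 0 / a := div_nonneg (wp 0).le a0.le
  have β0' : 0 ≤ w' 0 / a' := div_nonneg (wp' 0).le a0'.le
  obtain ⟨g1, g2, h11, h12, h22, Cc⟩ := exists_cf b0 b1 G b (w 0 / a)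
  obtain ⟨g1', g2', h11', h12', h22', Cc'⟩ := exists_cf b0' b1' G' b (w' 0 / a')
  obtain ⟨c1, c2, c3, c4, c5⟩ := cf_le N hb β0 Cc hB
  obtain ⟨d1, d2, d3, d4, d5⟩ := cf_le N' hb β0' Cc' hB'
  obtain ⟨g, g', h, h', i1, i2, i3⟩ := HS 164 (800 * μ) Bc L M g1 g2 h11 h12 h22 g1' g2' h11' h12'
    h22' l10 l11 l12 l20 l21 l22 k10 k11 k12 k20 k21 k22 mm t1 t2 (by norm_num) (by positivity) X.L1
    hM hMt c1 c2 c3 c4 c5 d1 d2 d3 d4 d5 X.l11b X.l12b X.l21b X.l22b X.k11b X.k12b X.k21b X.k22b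
    X.l10b X.l20b X.k10b X.k20b X.mmb
  refine ⟨g, g', h, h', i1, i2, ?_⟩
  intro T' m hT' kT' hs hs' hm m1 A0 B0 A1 B1
  have O := one_at D.S D.a0 D.aw D.ρ0 D.hT hT' D.hE hμ hs hb Cc
  have O' := one_at D.S' D.a0' D.aw' D.ρ0 D.kT kT' D.hE' hμ hs' hb Cc'
  have sub_dt : ∀ (u X Y : V3), dt u (X - Y) = dt u X - dt u Y := by
    intro u X Y
    simp only [dt, Pi.sub_apply]; ring
  have zb : z0 + ρ * b = z0 ∨ z0 + ρ * b = z0 + ρ := by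
    rcases hb with rfl | rfl
    · left; ring
    · right; ring
  have pos : ∀ (f : Fin 3 → V3) (ww : V3) (k : Fin 3), 0 < ww k →
      (∀ z, z = z0 ∨ z = z0 + ρ → |dt (f k) (dis T T' z)| ≤ μ * ww k) →
      |dt (f k) (dis T T' (z0 + ρ * b)) / ww k| ≤ m ∧
        |dt (f k) (dis T T' (z0 + ρ) - dis T T' z0) / ww k| ≤ m := by
    intro f ww k hk hh
    constructor
    · rw [abs_div, abs_of_pos hk, div_le_iff₀ hk]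
      have := hh _ zb
      have : μ * ww k ≤ m * ww k := mul_le_mul_of_nonneg_right (by linarith) hk.le
      linarith
    · rw [abs_div, abs_of_pos hk, div_le_iff₀ hk, sub_dt]
      have h1 := hh _ (Or.inl rfl)
      have h2 := hh _ (Or.inr rfl)
      have : 2 * μ * ww k ≤ m * ww k := mul_le_mul_of_nonneg_right hm hk.le
      exact (abs_sub _ _).trans (by linarith)
  obtain ⟨s1, s2⟩ := pos e w 1 (wp 1) fun z hz => (hs z hz).1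
  obtain ⟨s3, s4⟩ := pos e w 2 (wp 2) fun z hz => (hs z hz).2
  obtain ⟨s5, s6⟩ := pos e' w' 1 (wp' 1) fun z hz => (hs' z hz).1
  obtain ⟨s7, s8⟩ := pos e' w' 2 (wp' 2) fun z hz => (hs' z hz).2
  exact i3 _ _ _ _ _ _ _ _ _ _ _ _ _ _ _ _ m O O' (X.x1 _) (X.x2 _) (X.x1 _) (X.x2 _) (X.y1 _)
    (X.y2 _) (X.y1 _) (X.y2 _) (X.nn _) (X.nn _) s1 s3 s2 s4 s5 s7 s6 s8 A0 B0 A1 B1 m1

end Crest.Agent.R136.Lnk989
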