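import Crest.Agent.R136.Lkp_140
import Crest.Agent.R136.Lkg_18
import Crest.Agent.R136.Lnk6_989
import Crest.Agent.R136.Lnk2_816

/-!
# R136 (S0187), PLAN 2, leaf (B4) share: `LnkSh` (the links over `ShD`) (helper140)

`link_at` (989), `mtx_of` (18), `six_of` (816) ⊢ `Lkp140.LnkSh`.
-/

set_option autoImplicit false
set_option linter.unusedVariables false

namespace Crest.Agent.R136.Lks140

open Finset
open Crest.Agent.R136.Sh605 Crest.Agent.R136.Fl808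
open Crest.Agent.R136.K4 (Plk4)
open Crest.Agent.R136.Tlt51 (Shp InP)
open Crest.Agent.R136.KapP335 (kapP expP expP_spec)
open Crest.Agent.R136.Tl102 (NrmC IsExp StP kap)
open Crest.Agent.R136.Pl2
open Crest.Agent.R136.Pl2W102 (Near Ex2 Two1)
open Crest.Agent.R136.Shd410 (ShD)
open Crest.Agent.R136.Lnk989 (dis nb OneN SixAt SixOf Mtx link_at nb_bd)
open Crest.Agent.R136.Plk511 (stp stc ny0 ny1)
open Crest.Agent.R136.Vlk639 (Lnk)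
open Crest.Agent.R136.Grp639 (dx dc al pe)
open Crest.Agent.R136.Clu108 (Six Bd)
open Crest.Agent.R136.Mlt89 (cv dt_cv)
open Crest.Agent.R136.Mdr535 (ty gr)
open Crest.Agent.R136.Lkf18 (pk mtx_of)
open Crest.Agent.R136.Lkp140 (Close8 pik LnkSh)

/-! ### abstract half -/

theorem sixOf : SixOf 40 := by
  intro K0 d0 B L M g1 g2 h11 h12 h22 g1' g2' h11' h12' h22' l10 l11 l12 l20
    l21 l22 k10 k11 k12 k20 k21 k22 mm t1 t2 hK0 hd0 hL hM hMt a1 a2 a3 a4 a5 b1 b2 b3 b4 b5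
    c1 c2 c3 c4 c5 c6 c7 c8 e1 e2 e3 e4 hmm
  obtain ⟨g, g', h, h', ⟨p1, p2, p3, p4, p5, p6, p7, p8, p9, p10⟩, hs⟩ :=
    Lnk2816.six_of a1 a2 a3 a4 a5 b1 b2 b3 b4 b5 hL c1 c2 c3 c4 c5 c6 c7 c8 e1 e2 e3 e4 hmm hd0
      hK0 hM hMt
  refine ⟨g, g', h, h', ⟨p1, p2, p5, p6, p7⟩, ⟨p3, p4, p8, p9, p10⟩, ?_⟩
  intro Y0 Y1 N0 N1 A0 B0 A1 B1 x1 x2 v1 v2 x1' x2' v1' v2' m h1 h2
  exact hs Y0 Y1 N0 N1 A0 B0 A1 B1 x1 x2 v1 v2 x1' x2' v1' v2' m ⟨h1.1, h1.2.1, h1.2.2⟩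
    ⟨h2.1, h2.2.1, h2.2.2⟩

theorem six_mono {K K' d M : ℝ} (hK : K ≤ K') (hM : 0 < M) {g g' : ℝ × ℝ} {h h' : ℝ × ℝ × ℝ}
    {y0 y1 px s cx t : ℝ} (H : Six K d M g g' h h' y0 y1 px s cx t) :
    Six K' d M g g' h h' y0 y1 px s cx t := by
  have p1 : 0 ≤ 1 + |y0| + M * |px| := by positivity
  have p2 : 0 ≤ 1 + |y0| + M * |px| + |y1| + M * |cx| := by positivity
  have q1 := mul_le_mul_of_nonneg_right hK p1
  have q2 := mul_le_mul_of_nonneg_right hK p2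
  exact ⟨by linarith [H.a0], by linarith [H.a1], by linarith [H.a2], by linarith [H.b0],
    by linarith [H.b1], by linarith [H.b2]⟩

theorem pw {X : ℝ} (hX : 2 ≤ X) (n : ℕ) {c : ℝ} (hc : c ≤ 2 ^ n) : c ≤ X ^ n :=
  hc.trans (pow_le_pow_left₀ (by norm_num) hX n)

/-! ### strip coordinates -/

theorem dx_eq0 (e : Fin 3 → V3) (Λ w1 w2 z0 ρ : ℝ) (t0 : Ln4) (L : ℕ → Ln4) (b : ℕ → ℝ)
    (T T' : ℕ) : dx (stp e Λ w1 w2 z0 t0 L) (stc e Λ w1 w2 ρ t0 L) b T T' 0 =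
      Λ * dt (e 1) (dis (L T) (L T') (z0 + ρ * b T)) / w1 := by
  simp only [dx, stp, stc, Matrix.cons_val_zero, dis, dt, Ln4.pos, Pi.sub_apply, Pi.smul_apply,
    smul_eq_mul]
  ring

theorem dx_eq1 (e : Fin 3 → V3) (Λ w1 w2 z0 ρ : ℝ) (t0 : Ln4) (L : ℕ → Ln4) (b : ℕ → ℝ)
    (T T' : ℕ) : dx (stp e Λ w1 w2 z0 t0 L) (stc e Λ w1 w2 ρ t0 L) b T T' 1 =
      dt (e 2) (dis (L T) (L T') (z0 + ρ * b T)) / w2 := by
  simp only [dx, stp, stc, Matrix.cons_val_one, Matrix.cons_val_fin_one, dis, dt, Ln4.pos,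
    Pi.sub_apply, Pi.smul_apply, smul_eq_mul]
  ring

theorem dc_eq0 (e : Fin 3 → V3) (Λ w1 w2 z0 ρ : ℝ) (t0 : Ln4) (L : ℕ → Ln4)
    (T T' : ℕ) : dc (stc e Λ w1 w2 ρ t0 L) T T' 0 =
      Λ * dt (e 1) (dis (L T) (L T') (z0 + ρ) - dis (L T) (L T') z0) / w1 := by
  simp only [dc, stc, Matrix.cons_val_zero, dis, dt, Ln4.pos, Pi.sub_apply, Pi.smul_apply,
    smul_eq_mul]
  ring

theorem dc_eq1 (e : Fin 3 → V3) (Λ w1 w2 z0 ρ : ℝ) (t0 : Ln4) (L : ℕ → Ln4)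
    (T T' : ℕ) : dc (stc e Λ w1 w2 ρ t0 L) T T' 1 =
      dt (e 2) (dis (L T) (L T') (z0 + ρ) - dis (L T) (L T') z0) / w2 := by
  simp only [dc, stc, Matrix.cons_val_one, Matrix.cons_val_fin_one, dis, dt, Ln4.pos,
    Pi.sub_apply, Pi.smul_apply, smul_eq_mul]
  ring

/-! ### upper bound of the minors -/

/-- components of the gradient of the second sheet in the frame of the first one -/
theorem comp_cv {e e' : Fin 3 → V3} (he : Ortho e) (he' : Ortho e') {w b : V3}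
    (hw0 : 0 < w 0) (h02 : w 0 ≤ w 2) (h21 : w 2 ≤ w 1) (b0 : |b 0| ≤ 2) (b1 : |b 1| ≤ 1)
    (b2 : |b 2| ≤ 1) (k : Fin 3) : |dt (e k) (cv e' w b)| ≤ 4 := by
  have hw2 : 0 < w 2 := hw0.trans_le h02
  have hw1 : 0 < w 1 := hw2.trans_le h21
  rw [dt_cv, div_self hw0.ne', one_mul]
  have o0 := abs_dt_le_one he' he k 0
  have o1 := abs_dt_le_one he' he k 1
  have o2 := abs_dt_le_one he' he k 2
  have r1 : |w 0 / w 1| ≤ 1 := by
    rw [abs_of_pos (by positivity), div_le_one hw1]; linarith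
  have r2 : |w 0 / w 2| ≤ 1 := by
    rw [abs_of_pos (by positivity), div_le_one hw2]; exact h02
  have s0 : |b 0 * dt (e k) (e' 0)| ≤ 2 * 1 := by
    rw [abs_mul]; exact mul_le_mul b0 o0 (abs_nonneg _) (by norm_num)
  have s1 : |w 0 / w 1 * b 1 * dt (e k) (e' 1)| ≤ 1 * 1 * 1 := by
    rw [abs_mul, abs_mul]
    exact mul_le_mul (mul_le_mul r1 b1 (abs_nonneg _) zero_le_one) o1 (abs_nonneg _) (by norm_num)
  have s2 : |w 0 / w 2 * b 2 * dt (e k) (e' 2)| ≤ 1 * 1 * 1 := by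
    rw [abs_mul, abs_mul]
    exact mul_le_mul (mul_le_mul r2 b2 (abs_nonneg _) zero_le_one) o2 (abs_nonneg _) (by norm_num)
  calc _ ≤ |b 0 * dt (e k) (e' 0)| + |w 0 / w 1 * b 1 * dt (e k) (e' 1)| +
        |w 0 / w 2 * b 2 * dt (e k) (e' 2)| :=
        (abs_add_le _ _).trans (add_le_add (abs_add_le _ _) le_rfl)
    _ ≤ _ := by linarith

/-- the wide component of the gradient of the second sheet -/
theorem comp1_cv {e e' : Fin 3 → V3} (he : Ortho e) (he' : Ortho e') {w b : V3}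
    (hw0 : 0 < w 0) (h02 : w 0 ≤ w 2) (h21 : w 2 ≤ w 1) (b0 : |b 0| ≤ 2) (b1 : |b 1| ≤ 1)
    (b2 : |b 2| ≤ 1) {w1 w2 Λ X : ℝ} (hw1 : 0 < w1) (hw2 : 0 < w2) (hΛ : 1 ≤ Λ) (hX : 2 ≤ X)
    (d1 : w1 ≤ X * w 1) (d2 : w 2 ≤ X * w2)
    (t0 : |dt (e 1) (e' 0)| * w1 ≤ X * (Λ * w2)) (t2 : |dt (e 1) (e' 2)| * w1 ≤ X * (Λ * w2)) :
    |dt (e 1) (cv e' w b)| * w1 ≤ 3 * X ^ 2 * (Λ * w2) := by
  have hp2 : 0 < w 2 := hw0.trans_le h02
  have hp1 : 0 < w 1 := hp2.trans_le h21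
  have X0 : 0 < X := by linarith
  rw [dt_cv, div_self hw0.ne', one_mul]
  have o1 := abs_dt_le_one he' he 1 1
  have r2 : |w 0 / w 2| ≤ 1 := by
    rw [abs_of_pos (by positivity), div_le_one hp2]; exact h02
  have hr1 : |w 0 / w 1| = w 0 / w 1 := abs_of_pos (by positivity)
  have s0 : |b 0 * dt (e 1) (e' 0)| * w1 ≤ 2 * (X * (Λ * w2)) := by
    rw [abs_mul, mul_assoc]
    exact mul_le_mul b0 t0 (by positivity) (by norm_num)
  have s1 : |w 0 / w 1 * b 1 * dt (e 1) (e' 1)| * w1 ≤ X ^ 2 * (Λ * w2) := by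
    rw [abs_mul, abs_mul, hr1]
    calc w 0 / w 1 * |b 1| * |dt (e 1) (e' 1)| * w1 ≤ w 0 / w 1 * 1 * 1 * (X * w 1) := by
          gcongr
      _ = X * w 0 := by field_simp
      _ ≤ X * (X * w2) := by
          have := h02.trans d2
          gcongr
      _ = X ^ 2 * (1 * w2) := by ring
      _ ≤ X ^ 2 * (Λ * w2) := by gcongr
  have s2 : |w 0 / w 2 * b 2 * dt (e 1) (e' 2)| * w1 ≤ X * (Λ * w2) := by
    rw [abs_mul, abs_mul]
    calc |w 0 / w 2| * |b 2| * |dt (e 1) (e' 2)| * w1 ≤ 1 * 1 * |dt (e 1) (e' 2)| * w1 := by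
          gcongr
      _ = |dt (e 1) (e' 2)| * w1 := by ring
      _ ≤ _ := t2
  have tri : |b 0 * dt (e 1) (e' 0) + w 0 / w 1 * b 1 * dt (e 1) (e' 1) +
      w 0 / w 2 * b 2 * dt (e 1) (e' 2)| ≤ |b 0 * dt (e 1) (e' 0)| +
        |w 0 / w 1 * b 1 * dt (e 1) (e' 1)| + |w 0 / w 2 * b 2 * dt (e 1) (e' 2)| :=
    (abs_add_le _ _).trans (add_le_add (abs_add_le _ _) le_rfl)
  have hp : 0 ≤ Λ * w2 := by positivity
  have fin : 3 * (X * (Λ * w2)) ≤ 2 * X ^ 2 * (Λ * w2) := by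
    have : 3 * X ≤ 2 * X ^ 2 := by nlinarith
    calc 3 * (X * (Λ * w2)) = (3 * X) * (Λ * w2) := by ring
      _ ≤ _ := mul_le_mul_of_nonneg_right this hp
  calc _ ≤ (|b 0 * dt (e 1) (e' 0)| +
        |w 0 / w 1 * b 1 * dt (e 1) (e' 1)| + |w 0 / w 2 * b 2 * dt (e 1) (e' 2)|) * w1 :=
        mul_le_mul_of_nonneg_right tri hw1.le
    _ = |b 0 * dt (e 1) (e' 0)| * w1 + |w 0 / w 1 * b 1 * dt (e 1) (e' 1)| * w1 +
        |w 0 / w 2 * b 2 * dt (e 1) (e' 2)| * w1 := by ring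
    _ ≤ _ := by linarith

/-- the minors are bounded -/
theorem pk_le {e e' : Fin 3 → V3} (he : Ortho e) (he' : Ortho e') {w w' b b' : V3}
    (hw0 : 0 < w 0) (h02 : w 0 ≤ w 2) (h21 : w 2 ≤ w 1)
    (hw0' : 0 < w' 0) (h02' : w' 0 ≤ w' 2) (h21' : w' 2 ≤ w' 1)
    (b0 : |b 0| ≤ 2) (b1 : |b 1| ≤ 1) (b2 : |b 2| ≤ 1)
    (b0' : |b' 0| ≤ 2) (b1' : |b' 1| ≤ 1) (b2' : |b' 2| ≤ 1)
    {w1 w2 Λ X : ℝ} (hw1 : 0 < w1) (hw2 : 0 < w2) (hΛ : 1 ≤ Λ) (hX : 2 ≤ X)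
    (d1 : w1 ≤ X * w 1) (d2 : w 2 ≤ X * w2) (d1' : w1 ≤ X * w' 1) (d2' : w' 2 ≤ X * w2)
    (t0 : |dt (e 1) (e' 0)| * w1 ≤ X * (Λ * w2)) (t2 : |dt (e 1) (e' 2)| * w1 ≤ X * (Λ * w2)) :
    |pk e (cv e w b) (cv e' w' b') 1| * w1 ≤ 10 * X ^ 2 * (Λ * w2) ∧
      |pk e (cv e w b) (cv e' w' b') 2| ≤ 12 := by
  have hp2 : 0 < w 2 := hw0.trans_le h02
  have hp1 : 0 < w 1 := hp2.trans_le h21
  have X0 : 0 < X := by linarith
  have n0 : |dt (e 0) (cv e w b)| ≤ 2 := by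
    rw [Mlt89.dt_cv0 he hw0.ne']; exact b0
  have n1 : |dt (e 1) (cv e w b)| * w1 ≤ X ^ 2 * (Λ * w2) := by
    rw [Mlt89.dt_cv1 he, abs_mul, abs_of_pos (by positivity : 0 < w 0 / w 1)]
    calc w 0 / w 1 * |b 1| * w1 ≤ w 0 / w 1 * 1 * (X * w 1) := by gcongr
      _ = X * w 0 := by field_simp
      _ ≤ X * (X * w2) := by
          have := h02.trans d2
          gcongr
      _ = X ^ 2 * (1 * w2) := by ring
      _ ≤ X ^ 2 * (Λ * w2) := by gcongr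
  have n2 : |dt (e 2) (cv e w b)| ≤ 1 := by
    rw [Mlt89.dt_cv2 he, abs_mul, abs_of_pos (by positivity : 0 < w 0 / w 2)]
    calc w 0 / w 2 * |b 2| ≤ 1 * 1 := by
          refine mul_le_mul ((div_le_one hp2).2 h02) b2 (abs_nonneg _) zero_le_one
      _ = 1 := by norm_num
  have m0 := comp_cv he he' hw0' h02' h21' b0' b1' b2' 0
  have m2 := comp_cv he he' hw0' h02' h21' b0' b1' b2' 2
  have m1 := comp1_cv he he' hw0' h02' h21' b0' b1' b2' hw1 hw2 hΛ hX d1' d2' t0 t2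
  constructor
  · unfold pk
    calc _ ≤ (|dt (e 0) (cv e w b)| * |dt (e 1) (cv e' w' b')| +
          |dt (e 0) (cv e' w' b')| * |dt (e 1) (cv e w b)|) * w1 := by
          refine mul_le_mul_of_nonneg_right ?_ hw1.le
          rw [← abs_mul, ← abs_mul]; exact abs_sub _ _
      _ = |dt (e 0) (cv e w b)| * (|dt (e 1) (cv e' w' b')| * w1) +
          |dt (e 0) (cv e' w' b')| * (|dt (e 1) (cv e w b)| * w1) := by ring
      _ ≤ 2 * (3 * X ^ 2 * (Λ * w2)) + 4 * (X ^ 2 * (Λ * w2)) := by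
          refine add_le_add (mul_le_mul n0 m1 (by positivity) (by norm_num))
            (mul_le_mul m0 n1 (by positivity) (by norm_num))
      _ = 10 * X ^ 2 * (Λ * w2) := by ring
  · unfold pk
    calc _ ≤ |dt (e 0) (cv e w b)| * |dt (e 2) (cv e' w' b')| +
          |dt (e 0) (cv e' w' b')| * |dt (e 2) (cv e w b)| := by
          rw [← abs_mul, ← abs_mul]; exact abs_sub _ _
      _ ≤ 2 * 4 + 4 * 1 := by
          refine add_le_add (mul_le_mul n0 m2 (abs_nonneg _) (by norm_num))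
            (mul_le_mul m0 n2 (abs_nonneg _) (by norm_num))
      _ = 12 := by norm_num

/-! ### one line -/

/-- the data at one line `T` of `Z` -/
structure At1 (Z : Finset ℕ) (L : ℕ → Ln4) (S S' : Plk4) (X a Y w1 w2 z0 ρ μ Λ : ℝ) (k' : ℕ)
    (T : ℕ) (ζ : ℝ) (N : V3) (gv : Fin 2 → ℝ) (Mf : ℝ) (G G' : ℝ × ℝ) (H H' : ℝ × ℝ × ℝ) :
    Prop where
  hζ : ζ = 0 ∨ ζ = 1
  gn : gv 0 ^ 2 + gv 1 ^ 2 = 1
  MM : 2 ^ k' * (Y / a) / X ^ 4 ≤ Mf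
  Mx : Mf ≤ X ^ 10 * (w2 / a)
  bd : Bd (X ^ 139 * Mf) G H
  bd' : Bd (X ^ 139 * Mf) G' H'
  g2 : |G.2| ≤ X ^ 139 * Mf
  g2' : |G'.2| ≤ X ^ 139 * Mf
  h22 : |H.2.2| ≤ X ^ 139 * Mf
  h22' : |H'.2.2| ≤ X ^ 139 * Mf
  sl : |N 1 / N 0| ≤ 2 ∧ |N 2 / N 0| ≤ 2
  six : ∀ T' ∈ Z, (∀ z, z = z0 ∨ z = z0 + ρ →
      |dt (S.e 1) (dis (L T) (L T') z)| ≤ μ * S.w 1 ∧ |dt (S.e 2) (dis (L T) (L T') z)| ≤ μ * S.w 2 ∧
      |dt (S'.e 1) (dis (L T) (L T') z)| ≤ μ * S'.w 1 ∧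
      |dt (S'.e 2) (dis (L T) (L T') z)| ≤ μ * S'.w 2) →
    |Λ * dt (S.e 1) (dis (L T) (L T') (z0 + ρ * ζ)) / w1| ≤ 2 * μ →
    |dt (S.e 2) (dis (L T) (L T') (z0 + ρ * ζ)) / w2| ≤ 2 * μ →
    |Λ * dt (S.e 1) (dis (L T) (L T') (z0 + ρ) - dis (L T) (L T') z0) / w1| ≤ 2 * μ →
    |dt (S.e 2) (dis (L T) (L T') (z0 + ρ) - dis (L T) (L T') z0) / w2| ≤ 2 * μ →
    Six (X ^ 169) (40 * (8 * (X ^ 12) ^ 3) ^ 4 * (800 * μ + 2 * μ)) Mf G G' H H'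
      (ty S.e S.w N (dis (L T) (L T') (z0 + ρ * ζ)) / S.a)
      (ty S.e S.w N (dis (L T) (L T') (z0 + ρ) - dis (L T) (L T') z0) / S.a)
      (al gv ![Λ * dt (S.e 1) (dis (L T) (L T') (z0 + ρ * ζ)) / w1,
        dt (S.e 2) (dis (L T) (L T') (z0 + ρ * ζ)) / w2])
      (pe gv ![Λ * dt (S.e 1) (dis (L T) (L T') (z0 + ρ * ζ)) / w1,
        dt (S.e 2) (dis (L T) (L T') (z0 + ρ * ζ)) / w2])
      (al gv ![Λ * dt (S.e 1) (dis (L T) (L T') (z0 + ρ) - dis (L T) (L T') z0) / w1,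
        dt (S.e 2) (dis (L T) (L T') (z0 + ρ) - dis (L T) (L T') z0) / w2])
      (pe gv ![Λ * dt (S.e 1) (dis (L T) (L T') (z0 + ρ) - dis (L T) (L T') z0) / w1,
        dt (S.e 2) (dis (L T) (L T') (z0 + ρ) - dis (L T) (L T') z0) / w2])

/-- numbers at one line : `M = |(t1, t2)|` -/
theorem M_bounds {p1 p2 w1 w2 Λ a a' bb X W E : ℝ} (hw1 : 0 < w1) (hw2 : 0 < w2)
    (hΛ : 1 ≤ Λ) (ha : 0 < a) (ha' : 0 < a') (haa : a' ≤ X * a) (haa' : a ≤ X * a')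
    (hb1 : 1 / 4 ≤ bb) (hb2 : bb ≤ 4) (hX : 2 ≤ X) (hE : E ≤ X * max (|p1| * (w1 / Λ)) (|p2| * w2))
    (hE0 : 0 < E) (u1 : |p1| * w1 ≤ 10 * X ^ 2 * (Λ * w2)) (u2 : |p2| ≤ 12) :
    ∃ Mf : ℝ, 0 < Mf ∧ Mf ^ 2 = (p1 * w1 / (Λ * a' * bb)) ^ 2 + (p2 * w2 / (a' * bb)) ^ 2 ∧
      E / a / X ^ 4 ≤ Mf ∧ Mf ≤ X ^ 10 * (w2 / a) := by
  have X0 : 0 < X := by linarith
  have Λ0 : 0 < Λ := by linarith
  have b0 : 0 < bb := by linarith
  obtain ⟨t1, ht1⟩ : ∃ t, t = p1 * w1 / (Λ * a' * bb) := ⟨_, rfl⟩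
  obtain ⟨t2, ht2⟩ : ∃ t, t = p2 * w2 / (a' * bb) := ⟨_, rfl⟩
  rw [← ht1, ← ht2]
  have s0 : 0 ≤ t1 ^ 2 + t2 ^ 2 := by positivity
  have m1 : |t1| ≤ Real.sqrt (t1 ^ 2 + t2 ^ 2) :=
    Real.abs_le_sqrt (by nlinarith [sq_nonneg t2])
  have m2 : |t2| ≤ Real.sqrt (t1 ^ 2 + t2 ^ 2) :=
    Real.abs_le_sqrt (by nlinarith [sq_nonneg t1])
  have e1 : |t1| = |p1| * (w1 / Λ) / (a' * bb) := by
    rw [ht1, abs_div, abs_mul, abs_of_pos hw1, abs_of_pos (by positivity : 0 < Λ * a' * bb)]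
    field_simp
  have e2 : |t2| = |p2| * w2 / (a' * bb) := by
    rw [ht2, abs_div, abs_mul, abs_of_pos hw2, abs_of_pos (by positivity : 0 < a' * bb)]
  have hab : a' * bb ≤ 4 * X * a := by nlinarith
  have hab' : a ≤ 4 * X * (a' * bb) := by
    have : X * a' ≤ 4 * (X * a' * bb) := by nlinarith [mul_pos X0 ha']
    nlinarith
  have lo : E / a / X ^ 4 ≤ max |t1| |t2| := by
    have q : max |t1| |t2| = max (|p1| * (w1 / Λ)) (|p2| * w2) / (a' * bb) := by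
      rw [e1, e2, max_div_div_right (by positivity)]
    rw [q, div_div, div_le_div_iff₀ (by positivity) (by positivity)]
    set mx := max (|p1| * (w1 / Λ)) (|p2| * w2) with hmx
    have mx0 : 0 ≤ mx := le_max_of_le_right (by positivity)
    calc E * (a' * bb) ≤ (X * mx) * (4 * X * a) := by gcongr
      _ = mx * (a * (4 * X ^ 2)) := by ring
      _ ≤ mx * (a * X ^ 4) := by
          have : 4 * X ^ 2 ≤ X ^ 4 := by
            have h4 : (4:ℝ) ≤ X ^ 2 := pw hX 2 (by norm_num)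
            calc 4 * X ^ 2 ≤ X ^ 2 * X ^ 2 := mul_le_mul_of_nonneg_right h4 (by positivity)
              _ = X ^ 4 := by ring
          gcongr
  have lo' : E / a / X ^ 4 ≤ Real.sqrt (t1 ^ 2 + t2 ^ 2) := lo.trans (max_le m1 m2)
  refine ⟨Real.sqrt (t1 ^ 2 + t2 ^ 2), lt_of_lt_of_le (by positivity) lo', Real.sq_sqrt s0, lo', ?_⟩
  have up : Real.sqrt (t1 ^ 2 + t2 ^ 2) ≤ |t1| + |t2| := by
    rw [Real.sqrt_le_left (by positivity)]
    nlinarith [sq_abs t1, sq_abs t2, abs_nonneg t1, abs_nonneg t2,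
      mul_nonneg (abs_nonneg t1) (abs_nonneg t2)]
  have c1 : |t1| ≤ 40 * X ^ 3 * (w2 / a) := by
    rw [e1, div_le_iff₀ (by positivity)]
    have f1 : |p1| * (w1 / Λ) ≤ 10 * X ^ 2 * w2 := by
      rw [← mul_div_assoc, div_le_iff₀ Λ0]; linarith
    calc |p1| * (w1 / Λ) ≤ 10 * X ^ 2 * w2 := f1
      _ = 10 * X ^ 2 * (w2 / a) * a := by field_simp
      _ ≤ 10 * X ^ 2 * (w2 / a) * (4 * X * (a' * bb)) := by gcongr
      _ = _ := by ring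
  have c2 : |t2| ≤ 48 * X * (w2 / a) := by
    rw [e2, div_le_iff₀ (by positivity)]
    calc |p2| * w2 ≤ 12 * w2 := by gcongr
      _ = 12 * (w2 / a) * a := by field_simp
      _ ≤ 12 * (w2 / a) * (4 * X * (a' * bb)) := by gcongr
      _ = _ := by ring
  have n1 : 40 * X ^ 3 + 48 * X ≤ X ^ 10 := by
    have h7 : 88 ≤ X ^ 7 := pw hX 7 (by norm_num)
    have h3 : X ≤ X ^ 3 := le_self_pow₀ (by linarith) (by norm_num)
    calc 40 * X ^ 3 + 48 * X ≤ 88 * X ^ 3 := by linarith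
      _ ≤ X ^ 7 * X ^ 3 := mul_le_mul_of_nonneg_right h7 (by positivity)
      _ = X ^ 10 := by ring
  have hwa : 0 ≤ w2 / a := by positivity
  calc _ ≤ |t1| + |t2| := up
    _ ≤ (40 * X ^ 3 + 48 * X) * (w2 / a) := by linarith
    _ ≤ _ := mul_le_mul_of_nonneg_right n1 hwa

set_option maxHeartbeats 1000000 in
theorem at_one {K : ℝ} {qm qp : Fin 3 → ℝ} {L : ℕ → Ln4} {Z : Finset ℕ}
    {S S' : Plk4} {f g : Fin 3 → V3} {W M a Y w1 w2 z0 ρ r : ℝ} {j k' : ℕ}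
    (H : ShD K qm qp L Z S S' f g W M a Y w1 w2 z0 ρ r j k') {X : ℝ} (hWX : W ≤ X)
    (tl0 : |dt (S.e 1) (S'.e 0)| * w1 ≤ X * (2 ^ j * w2))
    (tl2 : |dt (S.e 1) (S'.e 2)| * w1 ≤ X * (2 ^ j * w2)) {T : ℕ} (hT : T ∈ Z) {ζ : ℝ}
    (hζ : ζ = 0 ∨ ζ = 1)
    (hlo : 2 ^ k' * Y ≤ X * max (|pik S S' z0 ρ (L T) ζ 1| * (w1 / 2 ^ j))
      (|pik S S' z0 ρ (L T) ζ 2| * w2)) {μ : ℝ} (hμ0 : 0 < μ) (hμ : X ^ 315 * μ ≤ 1) :
    ∃ (gv : Fin 2 → ℝ) (Mf : ℝ) (G G' : ℝ × ℝ) (Hh Hh' : ℝ × ℝ × ℝ),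
      At1 Z L S S' X a Y w1 w2 z0 ρ μ (2 ^ j) k' T ζ
        (nb (expP S z0 ρ (L T)).1 (expP S z0 ρ (L T)).2.1 ζ) gv Mf G G' Hh Hh' := by
  have hX : 2 ≤ X := H.W2.trans hWX
  have X0 : 0 < X := by linarith
  have X1 : 1 ≤ X := by linarith
  have W0 : 0 < W := by linarith [H.W2]
  have ha := H.a0
  have hY := ha.trans_le H.aY
  have hw2 : 0 < w2 := hY.trans_le H.Yw
  have hw1 : 0 < w1 := hw2.trans_le H.ww
  have hΛ : (1:ℝ) ≤ 2 ^ j := one_le_pow₀ (by norm_num)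
  have hk1 : (1:ℝ) ≤ 2 ^ k' := one_le_pow₀ (by norm_num)
  have hSa : 0 < S.a := H.r0.trans_le H.shS.r0_le
  have hSa' : 0 < S'.a := H.r0.trans_le H.shS'.r0_le
  have p0 : 0 < S.w 0 := hSa.trans_le H.shS.a_le0
  have p2 : 0 < S.w 2 := p0.trans_le H.shS.w0_le
  have p1 : 0 < S.w 1 := p2.trans_le H.shS.w_le
  have p0' : 0 < S'.w 0 := hSa'.trans_le H.shS'.a_le0
  have p2' : 0 < S'.w 2 := p0'.trans_le H.shS'.w0_le
  have p1' : 0 < S'.w 1 := p2'.trans_le H.shS'.w_le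
  have E := expP_spec H.shS.isQ p0.ne' z0 ρ (L T)
  have E' := expP_spec H.shS'.isQ p0'.ne' z0 ρ (L T)
  have St := StP.of_shN H.shS p0
  have St' := StP.of_shN H.shS' p0'
  have N := E.nrmC St H.ρ0.le fun z h1 h2 => (H.inS T hT z h1 h2).1
  have N' := E'.nrmC St' H.ρ0.le fun z h1 h2 => (H.inS' T hT z h1 h2).1
  obtain ⟨n1, n2, n3, n4⟩ := nb_bd N hζ
  obtain ⟨n1', n2', n3', n4'⟩ := nb_bd N' hζ
  obtain ⟨B, hB⟩ : ∃ B, B = nb (expP S z0 ρ (L T)).1 (expP S z0 ρ (L T)).2.1 ζ := ⟨_, rfl⟩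
  obtain ⟨B', hB'⟩ : ∃ B', B' = nb (expP S' z0 ρ (L T)).1 (expP S' z0 ρ (L T)).2.1 ζ := ⟨_, rfl⟩
  have pk1 : ∀ k, pik S S' z0 ρ (L T) ζ k = pk S.e (cv S.e S.w B) (cv S'.e S'.w B') k := by
    intro k; rw [hB, hB']; rfl
  rw [pk1, pk1] at hlo
  -- dimensions
  have x12 : X ≤ X ^ 12 := le_self_pow₀ X1 (by norm_num)
  have x2 : X ^ 2 ≤ X ^ 12 := pow_le_pow_right₀ X1 (by norm_num)
  have x12' : (1:ℝ) ≤ X ^ 12 := one_le_pow₀ X1
  have D1 : w1 ≤ X * S.w 1 := H.d1.1.trans (mul_le_mul_of_nonneg_right hWX p1.le)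
  have D1' : w1 ≤ X * S'.w 1 := H.d1'.1.trans (mul_le_mul_of_nonneg_right hWX p1'.le)
  have D2 : w2 ≤ X * S.w 2 := H.d2.1.trans (mul_le_mul_of_nonneg_right hWX p2.le)
  have D2' : w2 ≤ X * S'.w 2 := H.d2'.1.trans (mul_le_mul_of_nonneg_right hWX p2'.le)
  have D2r : S.w 2 ≤ X * w2 := H.d2.2.trans (mul_le_mul_of_nonneg_right hWX hw2.le)
  have D2r' : S'.w 2 ≤ X * w2 := H.d2'.2.trans (mul_le_mul_of_nonneg_right hWX hw2.le)
  have A1 : a ≤ X * S.a := H.da.1.trans (mul_le_mul_of_nonneg_right hWX hSa.le)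
  have A2 : S.a ≤ X * a := H.da.2.trans (mul_le_mul_of_nonneg_right hWX ha.le)
  have A1' : a ≤ X * S'.a := H.da'.1.trans (mul_le_mul_of_nonneg_right hWX hSa'.le)
  have A2' : S'.a ≤ X * a := H.da'.2.trans (mul_le_mul_of_nonneg_right hWX ha.le)
  have up : ∀ {x y : ℝ}, 0 ≤ y → x ≤ X * y → x ≤ X ^ 12 * y := fun hy h =>
    h.trans (mul_le_mul_of_nonneg_right x12 hy)
  -- curvature
  have kS : 256 * (S.w 0 / S.a * kap (expP S z0 ρ (L T)).1 (expP S z0 ρ (L T)).2.1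
      (expP S z0 ρ (L T)).2.2) ≤ X ^ 11 * (Y / a) := by
    have h1 : kapP S z0 ρ (L T) ≤ 4 * Y := (H.near T hT).2
    have e1 : S.w 0 / S.a * kap (expP S z0 ρ (L T)).1 (expP S z0 ρ (L T)).2.1
        (expP S z0 ρ (L T)).2.2 = kapP S z0 ρ (L T) / S.a := by
      unfold kapP; ring
    rw [e1]
    calc 256 * (kapP S z0 ρ (L T) / S.a) ≤ 256 * (4 * Y / S.a) := by gcongr
      _ = 1024 * (Y * (1 / S.a)) := by ring
      _ ≤ 1024 * (Y * (X / a)) := by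
          have : 1 / S.a ≤ X / a := by
            rw [div_le_div_iff₀ hSa ha]; linarith
          gcongr
      _ = 1024 * (X * (Y / a)) := by ring
      _ ≤ X ^ 10 * (X * (Y / a)) := by
          have : (1024:ℝ) ≤ X ^ 10 := pw hX 10 (by norm_num)
          gcongr
      _ = _ := by ring
  have kS' : 256 * (S'.w 0 / S'.a * kap (expP S' z0 ρ (L T)).1 (expP S' z0 ρ (L T)).2.1
      (expP S' z0 ρ (L T)).2.2) ≤ X ^ 11 * (Y / a) := by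
    have h1 : kapP S' z0 ρ (L T) ≤ 4 * Y := (H.le T hT).trans (H.near T hT).2
    have e1 : S'.w 0 / S'.a * kap (expP S' z0 ρ (L T)).1 (expP S' z0 ρ (L T)).2.1
        (expP S' z0 ρ (L T)).2.2 = kapP S' z0 ρ (L T) / S'.a := by
      unfold kapP; ring
    rw [e1]
    calc 256 * (kapP S' z0 ρ (L T) / S'.a) ≤ 256 * (4 * Y / S'.a) := by gcongr
      _ = 1024 * (Y * (1 / S'.a)) := by ring
      _ ≤ 1024 * (Y * (X / a)) := by
          have : 1 / S'.a ≤ X / a := by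
            rw [div_le_div_iff₀ hSa' ha]; linarith
          gcongr
      _ = 1024 * (X * (Y / a)) := by ring
      _ ≤ X ^ 10 * (X * (Y / a)) := by
          have : (1024:ℝ) ≤ X ^ 10 := pw hX 10 (by norm_num)
          gcongr
      _ = _ := by ring
  have haX : S.a * (X ^ 11 * (Y / a)) ≤ X ^ 12 * w2 := by
    calc S.a * (X ^ 11 * (Y / a)) ≤ X * a * (X ^ 11 * (Y / a)) := by gcongr
      _ = X ^ 12 * Y := by field_simp
      _ ≤ X ^ 12 * w2 := by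
          have := H.Yw
          gcongr
  have hfr : |dt (S'.e 2) (S.e 1)| * w1 ≤ X ^ 12 * (2 ^ j * w2) := by
    rw [dt_comm]; exact up (by positivity) tl2
  have haa : S.a ≤ X ^ 12 * S'.a := by
    calc S.a ≤ X * (X * S'.a) := A2.trans (mul_le_mul_of_nonneg_left A1' X0.le)
      _ = X ^ 2 * S'.a := by ring
      _ ≤ _ := mul_le_mul_of_nonneg_right x2 hSa'.le
  obtain ⟨l11, l22, k10, k11, k12, k20, k21, k22, mm, MX⟩ := mtx_of (Λ := 2 ^ j)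
    H.shS.ortho H.shS'.ortho St.pos St'.pos H.shS.w0_le H.shS.w_le H.shS'.w0_le H.shS'.w_le
    n1 n3 n4 n1' n2' n3' n4' hSa hSa' haa x12' hΛ hw2 H.ww (up p1.le D1) (up p2.le D2)
    (up hw2.le D2r) (up p1'.le D1') (up p2'.le D2') (by positivity : 0 ≤ X ^ 11 * (Y / a)) haX hfr
  rw [← hB, ← hB'] at MX
  rw [← hB] at n1 n2 n3 n4 ⊢
  rw [← hB'] at n1' n2' n3' n4'
  have ab : |B 0| ≤ 2 := by rw [abs_of_pos (by linarith)]; exact n2
  have ab' : |B' 0| ≤ 2 := by rw [abs_of_pos (by linarith)]; exact n2'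
  obtain ⟨u1, u2⟩ := pk_le H.shS.ortho H.shS'.ortho p0 H.shS.w0_le H.shS.w_le p0' H.shS'.w0_le
    H.shS'.w_le ab n3 n4 ab' n3' n4' hw1 hw2 hΛ hX D1 D2r D1' D2r' tl0 tl2
  have bb1 : 1 / 4 ≤ B' 0 * B 0 := by nlinarith
  have bb2 : B' 0 * B 0 ≤ 4 := by nlinarith
  obtain ⟨Mf, M0, Mt, Ml, Mu⟩ := M_bounds (W := W) hw1 hw2 hΛ ha hSa' A2' A1' bb1 bb2 hX hlo
    (by positivity) u1 u2
  have hμ' : 20000 * μ ≤ 1 := by
    have h1 : (20000:ℝ) ≤ X ^ 315 :=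
      (pw hX 15 (by norm_num)).trans (pow_le_pow_right₀ X1 (by norm_num))
    have := mul_le_mul_of_nonneg_right h1 hμ0.le
    linarith
  obtain ⟨g', g'', h', h'', cb, cb', hsix⟩ := link_at sixOf
    { S := St, S' := St', a0 := hSa, aw := H.shS.a_le0, a0' := hSa', aw' := H.shS'.a_le0,
      ρ0 := H.ρ0, hT := H.inS T hT, kT := H.inS' T hT, hE := E, hE' := E' } hζ kS kS' hμ' hμ0.le
    (by rw [← hB, ← hB']; exact MX) M0 Mt
  rw [← hB] at hsix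
  -- sizes of the coefficients
  have hco : 100 * (8 * (X ^ 12) ^ 3) ^ 3 * (X ^ 11 * (Y / a)) ≤ X ^ 139 * Mf := by
    have hYa : 0 ≤ Y / a := by positivity
    calc 100 * (8 * (X ^ 12) ^ 3) ^ 3 * (X ^ 11 * (Y / a)) = 51200 * (X ^ 119 * (Y / a)) := by ring
      _ ≤ X ^ 16 * (X ^ 119 * (Y / a)) := by
          have : (51200:ℝ) ≤ X ^ 16 := pw hX 16 (by norm_num)
          gcongr
      _ = X ^ 139 * (1 * (Y / a) / X ^ 4) := by field_simp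
      _ ≤ X ^ 139 * (2 ^ k' * (Y / a) / X ^ 4) := by gcongr
      _ = X ^ 139 * (2 ^ k' * Y / a / X ^ 4) := by ring
      _ ≤ X ^ 139 * Mf := by gcongr
  refine ⟨![pk S.e (cv S.e S.w B) (cv S'.e S'.w B') 1 * w1 / (2 ^ j * S'.a * (B' 0 * B 0)) / Mf,
    pk S.e (cv S.e S.w B) (cv S'.e S'.w B') 2 * w2 / (S'.a * (B' 0 * B 0)) / Mf], Mf, g', g'', h',
    h'', ⟨hζ, ?_, ?_, Mu, ⟨cb.1.trans hco, cb.2.2.1.trans hco, cb.2.2.2.1.trans hco⟩,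
    ⟨cb'.1.trans hco, cb'.2.2.1.trans hco, cb'.2.2.2.1.trans hco⟩, cb.2.1.trans hco,
    cb'.2.1.trans hco, cb.2.2.2.2.trans hco, cb'.2.2.2.2.trans hco, ?_, ?_⟩⟩
  · simp only [Matrix.cons_val_zero, Matrix.cons_val_one, Matrix.cons_val_fin_one]
    have e : ∀ x y : ℝ, (x / Mf) ^ 2 + (y / Mf) ^ 2 = (x ^ 2 + y ^ 2) / Mf ^ 2 := fun x y => by ring
    rw [e, ← Mt, div_self (by positivity)]
  · refine le_trans (le_of_eq ?_) Ml
    ring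
  · have hb : 0 < B 0 := by linarith
    constructor
    · rw [abs_div, abs_of_pos hb, div_le_iff₀ hb]; linarith
    · rw [abs_div, abs_of_pos hb, div_le_iff₀ hb]; linarith
  · intro T' hT' hc a1 a2 a3 a4
    have S1 := hsix (L T') (2 * μ) (H.inS T' hT') (H.inS' T' hT')
      (fun z hz => ⟨(hc z hz).1, (hc z hz).2.1⟩)
      (fun z hz => ⟨(hc z hz).2.2.1, (hc z hz).2.2.2⟩) le_rfl (by linarith) a1 a2 a3 a4
    have hK : 40 * (8 * (X ^ 12) ^ 3) ^ 4 * 164 ≤ X ^ 169 := by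
      calc 40 * (8 * (X ^ 12) ^ 3) ^ 4 * 164 = 26869760 * X ^ 144 := by ring
        _ ≤ X ^ 25 * X ^ 144 := by
            have : (26869760:ℝ) ≤ X ^ 25 := pw hX 25 (by norm_num)
            gcongr
        _ = X ^ 169 := by ring
    have S2 := six_mono hK M0 S1
    simp only [al, pe, Matrix.cons_val_zero, Matrix.cons_val_one, Matrix.cons_val_fin_one]
    convert S2 using 1 <;> ring

/-! ### the links -/

theorem lnkSh : LnkSh := by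
  refine ⟨315, 139, 169, 10, ?_⟩
  intro K qm qp L Z S S' f g W M a Y w1 w2 z0 ρ r j k' H X hWX tl0 tl2 hlo t0 F hF R μ hR hp hc
    hμ0 hμ hcl
  have hX : 2 ≤ X := H.W2.trans hWX
  have X0 : 0 < X := by linarith
  have X1 : 1 ≤ X := by linarith
  have ha := H.a0
  have hY := ha.trans_le H.aY
  have hk1 : (1:ℝ) ≤ 2 ^ k' := one_le_pow₀ (by norm_num)
  have hYa : 1 ≤ Y / a := by rw [le_div_iff₀ ha, one_mul]; exact H.aY
  have hkY : 1 ≤ 2 ^ k' * (Y / a) := by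
    calc (1:ℝ) = 1 * 1 := by norm_num
      _ ≤ _ := mul_le_mul hk1 hYa (by norm_num) (by linarith)
  have hex : ∀ T, T ∈ F → ∃ (ζ : ℝ) (N : V3) (gv : Fin 2 → ℝ) (Mf : ℝ) (G G' : ℝ × ℝ)
      (Hh Hh' : ℝ × ℝ × ℝ), At1 Z L S S' X a Y w1 w2 z0 ρ μ (2 ^ j) k' T ζ N gv Mf G G' Hh Hh' := by
    intro T hT
    obtain ⟨ζ, hζ, h⟩ := hlo T (hF hT)
    obtain ⟨gv, Mf, G, G', Hh, Hh', h1⟩ := at_one H hWX tl0 tl2 (hF hT) hζ h hμ0 hμ
    exact ⟨ζ, _, gv, Mf, G, G', Hh, Hh', h1⟩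
  choose! b N gv Mf G G' Hh Hh' hA using hex
  have x315 : ∀ {c : ℝ} {n : ℕ}, c ≤ X ^ n → n ≤ 315 → c * μ ≤ 1 := by
    intro c n h1 h2
    have h3 : c ≤ X ^ 315 := h1.trans (pow_le_pow_right₀ X1 h2)
    exact (mul_le_mul_of_nonneg_right h3 hμ0.le).trans hμ
  refine ⟨N, b, gv, Mf, G, G', Hh, Hh', 40 * (8 * (X ^ 12) ^ 3) ^ 4 * (800 * μ + 2 * μ),
    { bb := fun T hT => (hA T hT).hζ
      gn := fun T hT => (hA T hT).gn
      rp := hp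
      rc := hc
      hR := hR
      hm := hμ0
      hmm := ?_
      hd := ?_
      hW := one_le_pow₀ X1
      hK := one_le_pow₀ X1
      hM := by positivity
      hWM := ?_
      MM := fun T hT => (hA T hT).MM
      Mx := fun T hT => (hA T hT).Mx
      bd := fun T hT => (hA T hT).bd
      bd' := fun T hT => (hA T hT).bd'
      g2 := fun T hT => (hA T hT).g2
      g2' := fun T hT => (hA T hT).g2'
      h22 := fun T hT => (hA T hT).h22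
      h22' := fun T hT => (hA T hT).h22'
      six := ?_ }, fun T hT => (hA T hT).sl⟩
  · have h1 : 100 * (X ^ 169 * (X ^ 139 * μ)) = (100 * X ^ 308) * μ := by ring
    rw [h1]
    refine x315 (n := 315) ?_ le_rfl
    calc 100 * X ^ 308 ≤ X ^ 7 * X ^ 308 := by
          have : (100:ℝ) ≤ X ^ 7 := pw hX 7 (by norm_num)
          gcongr
      _ = X ^ 315 := by ring
  · have h1 : 100 * (40 * (8 * (X ^ 12) ^ 3) ^ 4 * (800 * μ + 2 * μ)) =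
        (13139968000 * X ^ 144) * μ := by ring
    rw [h1]
    refine x315 (n := 178) ?_ (by norm_num)
    calc 13139968000 * X ^ 144 ≤ X ^ 34 * X ^ 144 := by
          have : (13139968000:ℝ) ≤ X ^ 34 := pw hX 34 (by norm_num)
          gcongr
      _ = X ^ 178 := by ring
  · calc (1:ℝ) ≤ X ^ 135 * (2 ^ k' * (Y / a)) := by
          have : (1:ℝ) ≤ X ^ 135 := one_le_pow₀ X1
          nlinarith
      _ = X ^ 139 * (2 ^ k' * (Y / a) / X ^ 4) := by field_simp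
  · intro T hT T' hT' hb hsm
    have hS := (hA T hT).six T' (hF hT') (fun z hz => hcl T hT T' hT' z hz)
    have q0 := (hsm 0).1
    have q1 := (hsm 1).1
    have r0 := (hsm 0).2
    have r1 := (hsm 1).2
    rw [dx_eq0] at q0
    rw [dx_eq1] at q1
    rw [dc_eq0] at r0
    rw [dc_eq1] at r1
    have S1 := hS (q0.trans (by linarith)) (q1.trans (by linarith)) (r0.trans (by linarith))
      (r1.trans (by linarith))
    have ea : ∀ (x : Fin 2 → ℝ) (u v : ℝ), x 0 = u → x 1 = v → ![u, v] = x := by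
      intro x u v h0 h1
      funext k
      fin_cases k
      · simp [h0]
      · simp [h1]
    rw [ea _ _ _ (dx_eq0 S.e (2 ^ j) w1 w2 z0 ρ t0 L b T T')
      (dx_eq1 S.e (2 ^ j) w1 w2 z0 ρ t0 L b T T'),
      ea _ _ _ (dc_eq0 S.e (2 ^ j) w1 w2 z0 ρ t0 L T T')
      (dc_eq1 S.e (2 ^ j) w1 w2 z0 ρ t0 L T T')] at S1
    exact S1

end Crest.Agent.R136.Lks140
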