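import Crest.Agent.R136.Mk4d_418

/-!
# 4-linear Kakeya in R^4, part e (helper418)

Final statements: `nonnarrow_kakeya4_curved` (C^{1,1} curves) and `nonnarrow_kakeya4` (lines).
-/

set_option autoImplicit false

namespace Crest.Agent.R136.MK4

open Finset
open Crest.Agent.R136.MF191 (dir D4 Slab cix cix_close Good Bm)

open Classical in
/-- all 4-tuples of caps in one time slab -/
lemma slab_sum {ι : Type*} (s : Finset ι) (w : ι → ℝ) (hw : ∀ l ∈ s, 0 ≤ w l)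
    (γ v : ι → ℤ → Fin 3 → ℝ) {R B : ℝ} (hR : 1 ≤ R) (hB : 0 ≤ B) (hC : Curved s γ v R B)
    {ν r : ℝ} (hν : 0 < ν) (hν1 : ν ≤ 1) (hr : 1 ≤ r) {N : ℕ} (hN : 1 ≤ N) (m : ℕ)
    (hRm : R < (N : ℝ) ^ m) {η : ℝ} (hη : 0 < η) (hη1 : η ≤ ν ^ 3 / (800 * N))
    {t : ℝ} (ht : 0 ≤ t) (htη : 2 * (B / R) * t ≤ η) (c : ℤ) (hc : |(c : ℝ)| ≤ R)
    (X : Finset (Fin 4 → ℤ)) (hX : ∀ k ∈ X, ∀ i, |(k i : ℝ)| ≤ R)
    (hXc : ∀ k ∈ X, |(k 3 : ℝ) - c| ≤ t)
    (A : (Fin 4 → ℤ) → Finset ι) (hA : ∀ k ∈ X, A k ⊆ s)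
    (hnear : ∀ k ∈ X, ∀ l ∈ A k, ∀ i : Fin 3, |(k i.castSucc : ℝ) - γ l (k 3) i| ≤ r)
    (hnn : ∀ k ∈ X, ∀ u n : Fin 3 → ℝ, ∑ i, n i ^ 2 = 1 →
      ∑ l ∈ (A k).filter (fun l => Slab ν u n (v l (k 3))), w l ≤ (∑ l ∈ A k, w l) / 2) :
    ∑ k ∈ X, (∑ l ∈ A k, w l) ^ (4 / 3 : ℝ) ≤
      2 * ((5 / η) ^ 12 * ((3264 / ν ^ 3 * r) ^ 4 *
        (16 * 14641 ^ m * (∑ l ∈ s, w l) ^ (4 / 3 : ℝ)))) := by
  have hN1 : (1 : ℝ) ≤ N := by exact_mod_cast hN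
  have hη2 : η ≤ 1 := by
    refine hη1.trans ?_
    rw [div_le_one (by positivity)]
    have : ν ^ 3 ≤ 1 := pow_le_one₀ hν.le hν1
    linarith
  set T : Finset (Fin 4 → Fin 3 → ℤ) := Fintype.piFinset (fun _ : Fin 4 => capBox η) with hT
  set F : (Fin 4 → ℤ) → (Fin 4 → Fin 3 → ℤ) → ℝ := fun k τ =>
    ∏ j, (∑ l ∈ (A k).filter (fun l => cix η (v l (k 3)) = τ j), w l) ^ (1 / 3 : ℝ) with hF
  have hwA : ∀ k ∈ X, ∀ l ∈ A k, 0 ≤ w l := fun k hk l hl => hw l (hA k hk hl)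
  have hF0 : ∀ k ∈ X, ∀ τ, 0 ≤ F k τ := by
    intro k hk τ
    refine Finset.prod_nonneg fun j _ => Real.rpow_nonneg ?_ _
    exact Finset.sum_nonneg fun l hl => hwA k hk l (Finset.mem_filter.mp hl).1
  have step1 : ∀ k ∈ X, (∑ l ∈ A k, w l) ^ (4 / 3 : ℝ) ≤
      2 * ∑ τ ∈ T, if Good (A k) (fun l => v l (k 3)) ν η τ then F k τ else 0 := by
    intro k hk
    refine (MF191.caps_of_nonnarrow (A k) (A k) (Finset.Subset.refl _) (fun l => v l (k 3)) w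
      (hwA k hk) hν η (hnn k hk)).trans ?_
    refine mul_le_mul_of_nonneg_left ?_ (by norm_num)
    refine Finset.sum_le_sum_of_subset_of_nonneg ?_ ?_
    · intro τ hτ
      rw [Fintype.mem_piFinset] at hτ
      rw [hT, Fintype.mem_piFinset]
      intro j
      obtain ⟨l, hl, hl2⟩ := Finset.mem_image.mp (hτ j)
      rw [← hl2]
      exact cix_mem hη (hC.vel l (hA k hk hl) (k 3) (hX k hk 3))
    · intro τ _ _
      split_ifs
      · exact hF0 k hk τ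
      · exact le_rfl
  refine (Finset.sum_le_sum step1).trans ?_
  rw [← Finset.mul_sum]
  refine mul_le_mul_of_nonneg_left ?_ (by norm_num)
  rw [Finset.sum_comm]
  set Q : ℝ := (3264 / ν ^ 3 * r) ^ 4 * (16 * 14641 ^ m * (∑ l ∈ s, w l) ^ (4 / 3 : ℝ)) with hQ
  have hQ0 : 0 ≤ Q := by
    have : 0 ≤ ∑ l ∈ s, w l := Finset.sum_nonneg hw
    positivity
  have step2 : ∀ τ ∈ T, ∑ k ∈ X, (if Good (A k) (fun l => v l (k 3)) ν η τ then F k τ else 0) ≤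
      Q := by
    intro τ _
    by_cases hg : ∃ k ∈ X, Good (A k) (fun l => v l (k 3)) ν η τ
    · have h1 := slab_tuple s w hw γ v hR hB hC hν hν1 hr hN m hRm hη hη1 ht htη c hc X hX hXc A
        hA hnear τ hg
      have h2 : ∑ k ∈ X, (if Good (A k) (fun l => v l (k 3)) ν η τ then F k τ else 0) ≤
          ∑ k ∈ X, F k τ := by
        refine Finset.sum_le_sum fun k hk => ?_
        split_ifs
        · exact le_rfl
        · exact hF0 k hk τ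
      refine h2.trans (le_trans (le_of_eq ?_) h1)
      refine Finset.sum_congr rfl fun k _ => ?_
      simp only [hF]
      refine Finset.prod_congr rfl fun j _ => ?_
      congr 1
      refine Finset.sum_congr ?_ fun _ _ => rfl
      ext l
      simp only [Finset.mem_filter]
    · push Not at hg
      have : ∑ k ∈ X, (if Good (A k) (fun l => v l (k 3)) ν η τ then F k τ else 0) = 0 :=
        Finset.sum_eq_zero fun k hk => by rw [if_neg (hg k hk)]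
      rw [this]
      exact hQ0
  refine (Finset.sum_le_card_nsmul T _ _ step2).trans ?_
  rw [nsmul_eq_mul]
  exact mul_le_mul_of_nonneg_right (capBox_card hη hη2) hQ0

open Classical in
/-- **Curved 4-linear Kakeya in R^4 at non-narrow points** (C^{1,1} curves). -/
theorem nonnarrow_kakeya4_curved.{u} (ε B : ℝ) (hε : 0 < ε) (hB : 0 ≤ B) : ∃ C : ℝ, 0 < C ∧
    ∀ (ι : Type u) (s : Finset ι) (w : ι → ℝ) (_hw : ∀ l ∈ s, 0 ≤ w l)
      (γ v : ι → ℤ → Fin 3 → ℝ) (R : ℝ) (_hR : 1 ≤ R) (_hC : Curved s γ v R B)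
      (ν r : ℝ) (_hν : 0 < ν) (_hν1 : ν ≤ 1) (_hr : 1 ≤ r)
      (X : Finset (Fin 4 → ℤ)) (_hX : ∀ k ∈ X, ∀ i, |(k i : ℝ)| ≤ R)
      (A : (Fin 4 → ℤ) → Finset ι) (_hA : ∀ k ∈ X, A k ⊆ s)
      (_hnear : ∀ k ∈ X, ∀ l ∈ A k, ∀ i : Fin 3, |(k i.castSucc : ℝ) - γ l (k 3) i| ≤ r)
      (_hnn : ∀ k ∈ X, ∀ u n : Fin 3 → ℝ, ∑ i, n i ^ 2 = 1 →
        ∑ l ∈ (A k).filter (fun l => Slab ν u n (v l (k 3))), w l ≤ (∑ l ∈ A k, w l) / 2),
      ∑ k ∈ X, (∑ l ∈ A k, w l) ^ (4 / 3 : ℝ) ≤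
        C * r ^ 4 * (1 / ν) ^ 51 * R ^ ε * (∑ l ∈ s, w l) ^ (4 / 3 : ℝ) := by
  obtain ⟨N, hN, hscale⟩ := exists_scale ε hε
  have hN1 : (1 : ℝ) ≤ N := by exact_mod_cast hN
  have hN0 : (0 : ℝ) < N := by linarith
  refine ⟨(8 * (B + 1) * (800 * N)) * (2 * ((4000 * N) ^ 12 * (3264 ^ 4 * (16 * 14641)))),
    by positivity, ?_⟩
  intro ι s w hw γ v R hR hC ν r hν hν1 hr X hX A hA hnear hnn
  obtain ⟨m, hRm, h146⟩ := hscale R hR
  have hR0 : 0 < R := by linarith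
  set η : ℝ := ν ^ 3 / (800 * N) with hη
  have hη0 : 0 < η := by positivity
  have hν31 : ν ^ 3 ≤ 1 := pow_le_one₀ hν.le hν1
  have hη1 : η ≤ 1 := by
    rw [hη, div_le_one (by positivity)]
    linarith
  set t : ℝ := η * R / (2 * (B + 1)) with ht
  have ht0 : 0 < t := by positivity
  have htη : 2 * (B / R) * t ≤ η := by
    rw [ht]
    have : 2 * (B / R) * (η * R / (2 * (B + 1))) = η * (B / (B + 1)) := by
      field_simp
    rw [this]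
    have h1 : B / (B + 1) ≤ 1 := by
      rw [div_le_one (by positivity)]; linarith
    calc η * (B / (B + 1)) ≤ η * 1 := mul_le_mul_of_nonneg_left h1 hη0.le
      _ = η := mul_one _
  set Q : ℝ := 2 * ((5 / η) ^ 12 * ((3264 / ν ^ 3 * r) ^ 4 *
        (16 * 14641 ^ m * (∑ l ∈ s, w l) ^ (4 / 3 : ℝ)))) with hQ
  have hs0 : 0 ≤ ∑ l ∈ s, w l := Finset.sum_nonneg hw
  have hQ0 : 0 ≤ Q := by positivity
  -- slabs
  set idx : (Fin 4 → ℤ) → ℤ := fun k => ⌊(k 3 : ℝ) / t⌋ with hidx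
  have hsplit : ∑ k ∈ X, (∑ l ∈ A k, w l) ^ (4 / 3 : ℝ) =
      ∑ b ∈ X.image idx, ∑ k ∈ X.filter (fun k => idx k = b), (∑ l ∈ A k, w l) ^ (4 / 3 : ℝ) := by
    rw [Finset.sum_fiberwise_of_maps_to]
    intro k hk
    exact Finset.mem_image_of_mem _ hk
  have hslab : ∀ b ∈ X.image idx,
      ∑ k ∈ X.filter (fun k => idx k = b), (∑ l ∈ A k, w l) ^ (4 / 3 : ℝ) ≤ Q := by
    intro b hb
    obtain ⟨k0, hk0, hk0b⟩ := Finset.mem_image.mp hb
    have hsub : ∀ k ∈ X.filter (fun k => idx k = b), k ∈ X := fun k hk =>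
      (Finset.mem_filter.mp hk).1
    refine slab_sum s w hw γ v hR hB hC hν hν1 hr hN m hRm hη0 le_rfl ht0.le htη (k0 3)
      (hX k0 hk0 3) (X.filter (fun k => idx k = b)) (fun k hk => hX k (hsub k hk)) ?_ A
      (fun k hk => hA k (hsub k hk)) (fun k hk => hnear k (hsub k hk))
      (fun k hk => hnn k (hsub k hk))
    intro k hk
    have h1 : idx k = idx k0 := (Finset.mem_filter.mp hk).2.trans hk0b.symm
    have h2 := Int.abs_sub_lt_one_of_floor_eq_floor h1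
    have h3 : (k 3 : ℝ) - (k0 3 : ℤ) = t * ((k 3 : ℝ) / t - (k0 3 : ℝ) / t) := by
      field_simp
    rw [h3, abs_mul, abs_of_pos ht0]
    nlinarith
  have hcard : ((X.image idx).card : ℝ) ≤ 8 * (B + 1) / η := by
    set n : ℕ := ⌈R / t⌉₊ with hn
    have hRt : R / t = 2 * (B + 1) / η := by
      rw [ht]; field_simp
    have hsub : X.image idx ⊆ Finset.Icc (-(n : ℤ)) n := by
      intro b hb
      obtain ⟨k, hk, rfl⟩ := Finset.mem_image.mp hb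
      have h1 := hX k hk 3
      rw [abs_le] at h1
      have h2 : R / t ≤ (n : ℝ) := Nat.le_ceil _
      rw [Finset.mem_Icc]
      constructor
      · simp only [hidx]
        rw [Int.le_floor]
        push_cast
        rw [le_div_iff₀ ht0]
        rw [div_le_iff₀ ht0] at h2
        linarith [h1.1]
      · have h3 : ((⌊(k 3 : ℝ) / t⌋ : ℤ) : ℝ) ≤ (n : ℝ) := by
          refine (Int.floor_le _).trans ?_
          refine le_trans ?_ h2
          exact div_le_div_of_nonneg_right h1.2 ht0.le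
        simp only [hidx]
        exact_mod_cast h3
    have h1 := Finset.card_le_card hsub
    have h2 : (Finset.Icc (-(n : ℤ)) n).card = 2 * n + 1 := by
      rw [Int.card_Icc]; omega
    rw [h2] at h1
    have h3 : (n : ℝ) < R / t + 1 := Nat.ceil_lt_add_one (by positivity)
    have h4 : ((X.image idx).card : ℝ) ≤ 2 * (n : ℝ) + 1 := by exact_mod_cast h1
    rw [hRt] at h3
    have h5 : 2 ≤ 2 * (B + 1) / η := by
      rw [le_div_iff₀ hη0]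
      nlinarith
    have h6 : 8 * (B + 1) / η = 4 * (2 * (B + 1) / η) := by ring
    rw [h6]
    linarith
  rw [hsplit]
  refine (Finset.sum_le_card_nsmul _ _ _ hslab).trans ?_
  rw [nsmul_eq_mul]
  refine (mul_le_mul_of_nonneg_right hcard hQ0).trans ?_
  have hW0 : 0 ≤ (∑ l ∈ s, w l) ^ (4 / 3 : ℝ) := Real.rpow_nonneg hs0 _
  have hQle : Q ≤ 2 * ((5 / η) ^ 12 * ((3264 / ν ^ 3 * r) ^ 4 *
        (16 * (14641 * R ^ ε) * (∑ l ∈ s, w l) ^ (4 / 3 : ℝ)))) := by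
    rw [hQ]
    refine mul_le_mul_of_nonneg_left ?_ (by norm_num)
    refine mul_le_mul_of_nonneg_left ?_ (by positivity)
    refine mul_le_mul_of_nonneg_left ?_ (by positivity)
    refine mul_le_mul_of_nonneg_right ?_ hW0
    exact mul_le_mul_of_nonneg_left h146 (by norm_num)
  refine (mul_le_mul_of_nonneg_left hQle (by positivity)).trans (le_of_eq ?_)
  rw [hη]
  field_simp
  ring

open Classical in
/-- **4-linear Kakeya in R^4 at non-narrow points**, lines `t ↦ (p l + t v l, t)`. -/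
theorem nonnarrow_kakeya4.{u} (ε : ℝ) (hε : 0 < ε) : ∃ C : ℝ, 0 < C ∧
    ∀ (ι : Type u) (s : Finset ι) (w : ι → ℝ) (_hw : ∀ l ∈ s, 0 ≤ w l)
      (p v : ι → Fin 3 → ℝ) (_hv : ∀ l ∈ s, ∀ i, |v l i| ≤ 1) (R : ℝ) (_hR : 1 ≤ R)
      (ν r : ℝ) (_hν : 0 < ν) (_hν1 : ν ≤ 1) (_hr : 1 ≤ r)
      (X : Finset (Fin 4 → ℤ)) (_hX : ∀ k ∈ X, ∀ i, |(k i : ℝ)| ≤ R)
      (A : (Fin 4 → ℤ) → Finset ι) (_hA : ∀ k ∈ X, A k ⊆ s)
      (_hnear : ∀ k ∈ X, ∀ l ∈ A k, ∀ i : Fin 3,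
        |(k i.castSucc : ℝ) - (p l i + (k 3 : ℝ) * v l i)| ≤ r)
      (_hnn : ∀ k ∈ X, ∀ u n : Fin 3 → ℝ, ∑ i, n i ^ 2 = 1 →
        ∑ l ∈ (A k).filter (fun l => Slab ν u n (v l)), w l ≤ (∑ l ∈ A k, w l) / 2),
      ∑ k ∈ X, (∑ l ∈ A k, w l) ^ (4 / 3 : ℝ) ≤
        C * r ^ 4 * (1 / ν) ^ 51 * R ^ ε * (∑ l ∈ s, w l) ^ (4 / 3 : ℝ) := by
  obtain ⟨C, hC, h⟩ := nonnarrow_kakeya4_curved.{u} ε 0 hε le_rfl
  refine ⟨C, hC, ?_⟩
  intro ι s w hw p v hv R hR ν r hν hν1 hr X hX A hA hnear hnn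
  refine h ι s w hw (fun l a i => p l i + (a : ℝ) * v l i) (fun l _ => v l) R hR
    ⟨fun l hl a _ => hv l hl, fun l hl a b c _ _ _ i => ?_⟩ ν r hν hν1 hr X hX A hA hnear hnn
  have : p l i + (a : ℝ) * v l i - (p l i + (b : ℝ) * v l i) - ((a : ℝ) - b) * v l i = 0 := by
    ring
  rw [this, abs_zero]
  have h1 : 0 ≤ max |(a : ℝ) - c| |(b : ℝ) - c| := (abs_nonneg _).trans (le_max_left _ _)
  simp

end Crest.Agent.R136.MK4
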