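import Crest.Agent.R136.LmQ2_861
import Crest.Agent.R136.Mk4e_418

/-!
# R136, LEMMA A_Q: the 4-linear input `NN4c` (from helper418's curved theorem) (helper861)
-/

set_option autoImplicit false
set_option linter.unusedVariables false

namespace Crest.Agent.R136.LmQ861

open Finset Crest.Agent.R136.MK4

theorem nn4c : NN4c := by
  intro ε hε B hB
  obtain ⟨C, hC, key⟩ := nonnarrow_kakeya4_curved.{0} ε B hε hB
  refine ⟨C, hC, 51, ?_⟩
  intro ι s w γ v ν r R hw hν hν1 hr hR hv hcur X hX A hA hnear hnn
  have h := key ι s w hw (fun l a => γ l a) (fun l a => v l a) R hR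
    ⟨fun l hl a ha i => hv l hl a ha i, fun l hl a b c ha hb hc i => hcur l hl a b c ha hb hc i⟩
    ν r hν hν1 hr X hX A hA hnear hnn
  rwa [one_div] at h

end Crest.Agent.R136.LmQ861
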