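import Crest.Agent.R138.LmA1_861

/-!
# R136, LEMMA A_Q (visible rotation in dimension 4), finite normalised form (helper861), part 1

Curves `z ↦ (γ l z, z)` in `R^3 × R`, velocities `v l z`, heights `z = j / R`, `R = H R'`.
Fine cells have side `1 / R`, coarse cells have side `H / R = 1 / R'`.
Case (NN): non-narrow coarse cells, from the curved 4-linear Kakeya inequality `NN4c`.
-/

set_option autoImplicit false
set_option linter.unusedVariables false
set_option linter.unusedSectionVars false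

namespace Crest.Agent.R136.LmQ861

open Finset Crest.Agent.R138.LmA861

/-- **non-narrow 4-linear Kakeya for `C^{1,1}` curves** (helper418 / helper191). -/
def NN4c : Prop :=
  ∀ ε : ℝ, 0 < ε → ∀ B : ℝ, 0 ≤ B → ∃ C : ℝ, 0 < C ∧ ∃ K : ℕ,
    ∀ (ι : Type) (s : Finset ι) (w : ι → ℝ) (γ v : ι → ℝ → Fin 3 → ℝ) (ν r R : ℝ),
      (∀ l ∈ s, 0 ≤ w l) → 0 < ν → ν ≤ 1 → 1 ≤ r → 1 ≤ R →
      (∀ l ∈ s, ∀ z : ℝ, |z| ≤ R → ∀ i, |v l z i| ≤ 1) →
      (∀ l ∈ s, ∀ z z' z0 : ℝ, |z| ≤ R → |z'| ≤ R → |z0| ≤ R → ∀ i,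
        |γ l z i - γ l z' i - (z - z') * v l z0 i| ≤ B / R * max |z - z0| |z' - z0| * |z - z'|) →
      ∀ X : Finset (Fin 4 → ℤ), (∀ k ∈ X, ∀ i, |(k i : ℝ)| ≤ R) →
      ∀ A : (Fin 4 → ℤ) → Finset ι, (∀ k ∈ X, A k ⊆ s) →
      (∀ k ∈ X, ∀ l ∈ A k, ∀ i : Fin 3, |(k i.castSucc : ℝ) - γ l (k 3) i| ≤ r) →
      (∀ k ∈ X, ∀ u n : Fin 3 → ℝ, ∑ i, n i ^ 2 = 1 →
        haveI := Classical.decPred fun l => |∑ i, n i * (v l (k 3) i - u i)| ≤ ν
        ∑ l ∈ (A k).filter (fun l => |∑ i, n i * (v l (k 3) i - u i)| ≤ ν), w l ≤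
          (∑ l ∈ A k, w l) / 2) →
      ∑ k ∈ X, (∑ l ∈ A k, w l) ^ (4 / 3 : ℝ) ≤
        C * r ^ 4 * (ν⁻¹) ^ K * R ^ ε * (∑ l ∈ s, w l) ^ (4 / 3 : ℝ)

section Main

variable {ι : Type} [DecidableEq ι]

/-- position of the curve `l` at the height `j / R` -/
noncomputable def pt (γ : ι → ℝ → Fin 3 → ℝ) (R : ℝ) (x : ι × ℤ) : Fin 3 → ℝ :=
  γ x.1 ((x.2 : ℝ) / R)

/-- integer point of `R^4` -/
def mk4 (f : Fin 3 → ℤ) (a : ℤ) : Fin 4 → ℤ := Fin.snoc f a

@[simp] theorem mk4_last (f : Fin 3 → ℤ) (a : ℤ) : mk4 f a 3 = a := by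
  change mk4 f a (Fin.last 3) = a
  simp [mk4, -Fin.reduceLast]

@[simp] theorem mk4_castSucc (f : Fin 3 → ℤ) (a : ℤ) (i : Fin 3) : mk4 f a i.castSucc = f i := by
  simp [mk4]

/-- the fine cell of an incidence -/
noncomputable def cell (γ : ι → ℝ → Fin 3 → ℝ) (R : ℝ) (x : ι × ℤ) : Fin 4 → ℤ :=
  mk4 (fun i : Fin 3 => ⌊R * pt γ R x i⌋) x.2

/-- the coarse cell of a fine cell -/
def big (H : ℕ) (k : Fin 4 → ℤ) : Fin 4 → ℤ := fun i => k i / (H : ℤ)

@[simp] theorem cell_last (γ : ι → ℝ → Fin 3 → ℝ) (R : ℝ) (x : ι × ℤ) :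
    cell γ R x 3 = x.2 := by
  simp [cell]

@[simp] theorem cell_castSucc (γ : ι → ℝ → Fin 3 → ℝ) (R : ℝ) (x : ι × ℤ) (i : Fin 3) :
    cell γ R x i.castSucc = ⌊R * pt γ R x i⌋ := by
  simp [cell]

theorem fin4_ext {k k' : Fin 4 → ℤ} (h3 : k 3 = k' 3)
    (h : ∀ i : Fin 3, k i.castSucc = k' i.castSucc) : k = k' := by
  funext i
  refine Fin.lastCases ?_ (fun j => h j) i
  exact h3

/-- the curve condition -/
def C11 (γ v : ι → ℝ → Fin 3 → ℝ) (l : ι) : Prop :=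
  (∀ z : ℝ, |z| ≤ 2 → ∀ i, |v l z i| ≤ 1) ∧
  (∀ z z' : ℝ, |z| ≤ 2 → |z'| ≤ 2 → ∀ i,
    |γ l z' i - γ l z i - (z' - z) * v l z i| ≤ (z' - z) ^ 2) ∧
  (∀ z z' : ℝ, |z| ≤ 2 → |z'| ≤ 2 → ∀ i, |v l z' i - v l z i| ≤ |z' - z|)

theorem C11.lip {γ v : ι → ℝ → Fin 3 → ℝ} {l : ι} (h : C11 γ v l) {z z' : ℝ} (hz : |z| ≤ 2)
    (hz' : |z'| ≤ 2) (i : Fin 3) : |γ l z' i - γ l z i| ≤ |z' - z| * (1 + |z' - z|) := by
  have h1 := h.2.1 z z' hz hz' i
  have h2 := h.1 z hz i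
  have h3 : γ l z' i - γ l z i = (γ l z' i - γ l z i - (z' - z) * v l z i) + (z' - z) * v l z i := by
    ring
  rw [h3]
  refine (abs_add_le _ _).trans ?_
  rw [abs_mul]
  have h4 : |z' - z| * |v l z i| ≤ |z' - z| * 1 :=
    mul_le_mul_of_nonneg_left h2 (abs_nonneg _)
  have h5 : (z' - z) ^ 2 = |z' - z| * |z' - z| := by rw [← sq_abs]; ring
  rw [h5] at h1
  nlinarith

/-- the number of fine cells. -/
theorem cells_le (γ : ι → ℝ → Fin 3 → ℝ) {R : ℝ} (hR : 0 < R) (I : Finset (ι × ℤ)) {m : ℝ}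
    (hm : ∀ x ∈ I, m ≤ ((I.filter fun y => y.2 = x.2 ∧
      ∀ i, |pt γ R y i - pt γ R x i| ≤ 1 / R).card : ℝ)) :
    m * ((I.image (cell γ R)).card : ℝ) ≤ 27 * (I.card : ℝ) := by
  classical
  set Nr : (Fin 4 → ℤ) → (Fin 4 → ℤ) → Prop := fun k k' =>
    k' 3 = k 3 ∧ ∀ i : Fin 3, |k' i.castSucc - k i.castSucc| ≤ 1 with hNr
  have h1 : m * ((I.image (cell γ R)).card : ℝ) ≤
      ∑ k ∈ I.image (cell γ R), ((I.filter fun y => Nr k (cell γ R y)).card : ℝ) := by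
    rw [mul_comm, ← nsmul_eq_mul]
    refine card_nsmul_le_sum _ _ _ fun k hk => ?_
    obtain ⟨x, hx, rfl⟩ := mem_image.1 hk
    refine (hm x hx).trans ?_
    have : (I.filter fun y => y.2 = x.2 ∧ ∀ i, |pt γ R y i - pt γ R x i| ≤ 1 / R) ⊆
      I.filter fun y => Nr (cell γ R x) (cell γ R y) := by
      intro y hy
      rw [mem_filter] at hy ⊢
      refine ⟨hy.1, ?_, fun i => ?_⟩
      · simpa using hy.2.1
      · rw [cell_castSucc, cell_castSucc]
        exact floor_near hR (hy.2.2 i)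
    exact_mod_cast card_le_card this
  have h2 : ∑ k ∈ I.image (cell γ R), ((I.filter fun y => Nr k (cell γ R y)).card : ℝ) =
      ∑ y ∈ I, (((I.image (cell γ R)).filter fun k => Nr k (cell γ R y)).card : ℝ) := by
    simp only [card_filter]
    push_cast
    rw [sum_comm]
  have h3 : ∑ y ∈ I, (((I.image (cell γ R)).filter fun k =>
      Nr k (cell γ R y)).card : ℝ) ≤ ∑ _y ∈ I, (27 : ℝ) := by
    refine sum_le_sum fun y hy => ?_
    set k' := cell γ R y with hk'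
    have h4 : ((I.image (cell γ R)).filter fun k => Nr k k') ⊆
        (Fintype.piFinset (fun _ : Fin 3 => Icc (-1 : ℤ) 1)).image
          (fun e : Fin 3 → ℤ => mk4 (fun i : Fin 3 => k' i.castSucc + e i) (k' 3)) := by
      intro k hk
      rw [mem_filter] at hk
      obtain ⟨-, h5, h6⟩ := hk
      rw [mem_image]
      refine ⟨fun i => k i.castSucc - k' i.castSucc, ?_, ?_⟩
      · rw [Fintype.mem_piFinset]
        intro i
        have := h6 i
        rw [abs_le] at this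
        rw [mem_Icc]
        constructor <;> omega
      · refine fin4_ext ?_ ?_
        · rw [mk4_last]; exact h5
        · intro i
          rw [mk4_castSucc]; ring
    have h5 := (card_le_card h4).trans card_image_le
    have h6 : (Fintype.piFinset (fun _ : Fin 3 => Icc (-1 : ℤ) 1)).card = 27 := by
      rw [Fintype.card_piFinset]; simp
    rw [h6] at h5
    exact_mod_cast h5
  rw [sum_const, nsmul_eq_mul] at h3
  linarith [h1, h2, h3]

theorem window_near {H : ℕ} (hH : 0 < H) {a b : ℤ} (h : a / (H : ℤ) = b / (H : ℤ)) :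
    |a - b| ≤ (H : ℤ) := by
  have hH' : (0 : ℤ) < H := by exact_mod_cast hH
  have a1 := Int.emod_add_mul_ediv a H
  have a2 := Int.emod_add_mul_ediv b H
  have a3 := Int.emod_nonneg a hH'.ne'
  have a4 := Int.emod_nonneg b hH'.ne'
  have a5 := Int.emod_lt_of_pos a hH'
  have a6 := Int.emod_lt_of_pos b hH'
  rw [h] at a1
  rw [abs_le]; constructor <;> linarith

theorem floor_div_near {H : ℕ} (hH : 0 < H) {p q : ℝ} (h : |p - q| ≤ 2 * H) :
    |⌊p⌋ / (H : ℤ) - ⌊q⌋ / (H : ℤ)| ≤ 2 := by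
  have hH' : (0 : ℤ) < H := by exact_mod_cast hH
  have h4 := Int.floor_le p
  have h5 := Int.lt_floor_add_one p
  have h6 := Int.floor_le q
  have h7 := Int.lt_floor_add_one q
  rw [abs_le] at h
  have h8 : (⌊p⌋ : ℝ) - ⌊q⌋ < 2 * H + 1 := by linarith
  have h9 : (⌊q⌋ : ℝ) - ⌊p⌋ < 2 * H + 1 := by linarith
  have h8' : ⌊p⌋ - ⌊q⌋ < 2 * H + 1 := by exact_mod_cast h8
  have h9' : ⌊q⌋ - ⌊p⌋ < 2 * H + 1 := by exact_mod_cast h9
  have b1 : ⌊p⌋ / (H : ℤ) ≤ ⌊q⌋ / (H : ℤ) + 2 := by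
    calc ⌊p⌋ / (H : ℤ) ≤ (⌊q⌋ + 2 * H) / (H : ℤ) := Int.ediv_le_ediv hH' (by omega)
      _ = ⌊q⌋ / (H : ℤ) + 2 := Int.add_mul_ediv_right _ _ hH'.ne'
  have b2 : ⌊q⌋ / (H : ℤ) ≤ ⌊p⌋ / (H : ℤ) + 2 := by
    calc ⌊q⌋ / (H : ℤ) ≤ (⌊p⌋ + 2 * H) / (H : ℤ) := Int.ediv_le_ediv hH' (by omega)
      _ = ⌊p⌋ / (H : ℤ) + 2 := Int.add_mul_ediv_right _ _ hH'.ne'
  rw [abs_le]; omega

/-- heights of incidences -/
theorem ht_le {R : ℝ} (hR : 0 < R) {j : ℤ} (h : |(j : ℝ)| ≤ R) : |(j : ℝ) / R| ≤ 1 := by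
  rw [abs_div, abs_of_pos hR, div_le_one hR]; exact h

/-- the coarse cells of one line in one window. -/
theorem lineK_le (γ v : ι → ℝ → Fin 3 → ℝ) {H : ℕ} {R : ℝ} (hH : 0 < H) (hR : 0 < R)
    (hHR : (H : ℝ) ≤ R) (I : Finset (ι × ℤ)) (hC : ∀ x ∈ I, C11 γ v x.1)
    (hj : ∀ x ∈ I, |(x.2 : ℝ)| ≤ R) :
    ((I.image fun x => (x.1, big H (cell γ R x))).card : ℝ) ≤
      125 * ((I.image fun x => (x.1, x.2 / (H : ℤ))).card : ℝ) := by
  classical
  set G := I.image fun x => (x.1, big H (cell γ R x)) with hG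
  have h1 := card_le_mul_image G (fun k : ι × (Fin 4 → ℤ) => (k.1, k.2 3)) (n := 125) (by
    intro k hk
    obtain ⟨x, hx, rfl⟩ := mem_image.1 hk
    have h2 : (G.filter fun y => (y.1, y.2 3) = (x.1, big H (cell γ R x) 3)) ⊆
        (Fintype.piFinset (fun _ : Fin 3 => Icc (-2 : ℤ) 2)).image
          (fun e : Fin 3 → ℤ => (x.1, mk4
            (fun i : Fin 3 => big H (cell γ R x) i.castSucc + e i) (big H (cell γ R x) 3))) := by
      intro y hy
      rw [mem_filter] at hy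
      obtain ⟨hy1, hy2⟩ := hy
      obtain ⟨z, hz, rfl⟩ := mem_image.1 hy1
      rw [Prod.mk.injEq] at hy2
      obtain ⟨e1, e2⟩ := hy2
      simp only at e1 e2
      have hw : z.2 / (H : ℤ) = x.2 / (H : ℤ) := by simpa [big] using e2
      have hjj := window_near hH hw
      have hjr : |(z.2 : ℝ) - x.2| ≤ H := by exact_mod_cast hjj
      have hzx : |(z.2 : ℝ) / R - (x.2 : ℝ) / R| ≤ H / R := by
        rw [← sub_div, abs_div, abs_of_pos hR]
        gcongr
      have hHR1 : (H : ℝ) / R ≤ 1 := by rw [div_le_one hR]; exact hHR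
      have key : ∀ i : Fin 3, |⌊R * pt γ R z i⌋ / (H : ℤ) - ⌊R * pt γ R x i⌋ / (H : ℤ)| ≤ 2 := by
        intro i
        refine floor_div_near hH ?_
        rw [← mul_sub, abs_mul, abs_of_pos hR]
        have h3 := (hC x hx).lip (z := (x.2 : ℝ) / R) (z' := (z.2 : ℝ) / R)
          ((ht_le hR (hj x hx)).trans (by norm_num)) ((ht_le hR (hj z hz)).trans (by norm_num)) i
        have h4 : |pt γ R z i - pt γ R x i| ≤ H / R * (1 + 1) := by
          have e3 : pt γ R z i = γ x.1 ((z.2 : ℝ) / R) i := by rw [pt, e1]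
          rw [e3]
          refine h3.trans ?_
          gcongr
          exact hzx.trans hHR1
        calc R * |pt γ R z i - pt γ R x i| ≤ R * (H / R * (1 + 1)) := by gcongr
          _ = 2 * H := by field_simp; ring
      rw [mem_image]
      refine ⟨fun i => ⌊R * pt γ R z i⌋ / (H : ℤ) - ⌊R * pt γ R x i⌋ / (H : ℤ), ?_, ?_⟩
      · rw [Fintype.mem_piFinset]
        intro i
        have := key i
        rw [abs_le] at this
        rw [mem_Icc]
        exact this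
      · refine Prod.ext e1.symm ?_
        refine fin4_ext ?_ ?_
        · dsimp only
          rw [mk4_last]
          simpa [big] using hw.symm
        · intro i
          dsimp only
          rw [mk4_castSucc]
          simp [big]
    have h5 := (card_le_card h2).trans card_image_le
    have h6 : (Fintype.piFinset (fun _ : Fin 3 => Icc (-2 : ℤ) 2)).card = 125 := by
      rw [Fintype.card_piFinset]; simp
    rw [h6] at h5
    exact_mod_cast h5)
  refine h1.trans (le_of_eq ?_)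
  congr 2
  rw [hG, image_image]
  congr 1

/-- the lines of `J` in the coarse cell `k` -/
def FK (J : Finset (ι × ℤ)) (K : ι × ℤ → Fin 4 → ℤ) (k : Fin 4 → ℤ) : Finset ι :=
  (J.filter fun x => K x = k).image Prod.fst

theorem mem_FK {J : Finset (ι × ℤ)} {K : ι × ℤ → Fin 4 → ℤ} {k : Fin 4 → ℤ} {l : ι} :
    l ∈ FK J K k ↔ ∃ x ∈ J, K x = k ∧ x.1 = l := by
  simp only [FK, mem_image, mem_filter, and_assoc]

/-- at most `H` heights in a window. -/
theorem window_card {H : ℕ} (hH : 0 < H) (J : Finset (ι × ℤ)) (x : ι × ℤ) :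
    ((J.filter fun y => y.1 = x.1 ∧ y.2 / (H : ℤ) = x.2 / (H : ℤ)).card : ℝ) ≤ H := by
  classical
  have hH' : (0 : ℤ) < H := by exact_mod_cast hH
  have h1 : (J.filter fun y => y.1 = x.1 ∧ y.2 / (H : ℤ) = x.2 / (H : ℤ)) ⊆
      (Ico (x.2 / (H : ℤ) * H) (x.2 / (H : ℤ) * H + H)).image (fun j => (x.1, j)) := by
    intro y hy
    rw [mem_filter] at hy
    rw [mem_image]
    refine ⟨y.2, ?_, ?_⟩
    · rw [mem_Ico, ← hy.2.2]
      have a1 := Int.emod_add_mul_ediv y.2 H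
      have a3 := Int.emod_nonneg y.2 hH'.ne'
      have a5 := Int.emod_lt_of_pos y.2 hH'
      constructor <;> nlinarith
    · rw [← hy.2.1]
  have h2 := (card_le_card h1).trans card_image_le
  rw [Int.card_Ico] at h2
  have h3 : (x.2 / (H : ℤ) * H + H - x.2 / (H : ℤ) * H).toNat = H := by
    rw [add_sub_cancel_left]; simp
  rw [h3] at h2
  exact_mod_cast h2

/-- incidences in a coarse cell versus lines in it. -/
theorem inc_le_FK (γ : ι → ℝ → Fin 3 → ℝ) (R : ℝ) {H : ℕ} (hH : 0 < H) (J : Finset (ι × ℤ))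
    (k : Fin 4 → ℤ) :
    ((J.filter fun x => big H (cell γ R x) = k).card : ℝ) ≤
      H * ((FK J (fun x => big H (cell γ R x)) k).card : ℝ) := by
  classical
  refine card_le_mul_image _ _ fun x hx => ?_
  rw [mem_filter] at hx
  refine le_trans ?_ (window_card hH J x)
  have : ((J.filter fun x => big H (cell γ R x) = k).filter fun y => y.1 = x.1) ⊆
      J.filter fun y => y.1 = x.1 ∧ y.2 / (H : ℤ) = x.2 / (H : ℤ) := by
    intro y hy
    rw [mem_filter, mem_filter] at hy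
    rw [mem_filter]
    refine ⟨hy.1.1, hy.2, ?_⟩
    have e1 := congrFun (hy.1.2.trans hx.2.symm) 3
    simpa [big] using e1
  exact_mod_cast card_le_card this

end Main

end Crest.Agent.R136.LmQ861
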