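import Crest.Agent.R136.LmQ1_861

/-!
# R136, LEMMA A_Q, part 2: case (NN) (non-narrow coarse cells) (helper861)
-/

set_option autoImplicit false
set_option linter.unusedVariables false
set_option linter.unusedSectionVars false

namespace Crest.Agent.R136.LmQ861

open Finset Crest.Agent.R138.LmA861

theorem div_floor_near {H : ℕ} (hH : 0 < H) (p : ℝ) :
    |p / H - ((⌊p⌋ / (H : ℤ) : ℤ) : ℝ)| ≤ 1 := by
  have hH0 : (0 : ℝ) < H := by exact_mod_cast hH
  have hHz : (0 : ℤ) < H := by exact_mod_cast hH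
  have a1 := Int.emod_add_mul_ediv ⌊p⌋ H
  have a3 := Int.emod_nonneg ⌊p⌋ hHz.ne'
  have a5 := Int.emod_lt_of_pos ⌊p⌋ hHz
  have b1 : (H : ℝ) * ((⌊p⌋ / (H : ℤ) : ℤ) : ℝ) ≤ ⌊p⌋ := by
    have : (H : ℤ) * (⌊p⌋ / (H : ℤ)) ≤ ⌊p⌋ := by linarith
    exact_mod_cast this
  have b2 : (⌊p⌋ : ℝ) + 1 ≤ H * ((⌊p⌋ / (H : ℤ) : ℤ) : ℝ) + H := by
    have : ⌊p⌋ + 1 ≤ (H : ℤ) * (⌊p⌋ / (H : ℤ)) + H := by linarith
    exact_mod_cast this
  have b3 := Int.floor_le p
  have b4 := Int.lt_floor_add_one p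
  have e1 : p / H - ((⌊p⌋ / (H : ℤ) : ℤ) : ℝ) =
      (p - H * ((⌊p⌋ / (H : ℤ) : ℤ) : ℝ)) / H := by field_simp
  rw [e1, abs_div, abs_of_pos hH0, div_le_one hH0, abs_le]
  constructor <;> linarith

theorem div_int_near {H : ℕ} (hH : 0 < H) (j : ℤ) :
    |(j : ℝ) / H - ((j / (H : ℤ) : ℤ) : ℝ)| ≤ 1 := by
  have := div_floor_near hH (j : ℝ)
  rwa [Int.floor_intCast] at this

/-- **case (NN)**: non-narrow coarse cells. -/
theorem caseA (hNN : NN4c) (ε : ℝ) (hε : 0 < ε) : ∃ C : ℝ, 0 < C ∧ ∃ N : ℕ,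
    ∀ {ι : Type} [DecidableEq ι] (J A : Finset (ι × ℤ)) (γ v : ι → ℝ → Fin 3 → ℝ) (H R' : ℕ)
      (R θ : ℝ), A ⊆ J → 0 < H → 0 < R' → R = H * R' → 0 ≤ θ →
      (∀ x ∈ J, |(x.2 : ℝ)| ≤ R ∧ (∀ i, |pt γ R x i| ≤ 1) ∧ C11 γ v x.1) →
      (∀ x ∈ A, θ ≤ ((FK J (fun x => big H (cell γ R x)) (big H (cell γ R x))).card : ℝ)) →
      (∀ x ∈ A, ∀ u n : Fin 3 → ℝ, ∑ i, n i ^ 2 = 1 →
        (((FK J (fun x => big H (cell γ R x)) (big H (cell γ R x))).filter fun l =>
          |∑ i, n i * (v l (((big H (cell γ R x) 3 : ℤ) : ℝ) / R') i - u i)| ≤ 1 / H).card : ℝ) ≤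
        ((FK J (fun x => big H (cell γ R x)) (big H (cell γ R x))).card : ℝ) / 2) →
      (A.card : ℝ) * θ ^ (1 / 3 : ℝ) ≤
        H * (C * (H : ℝ) ^ N * (R' : ℝ) ^ ε * ((J.image Prod.fst).card : ℝ) ^ (4 / 3 : ℝ)) := by
  obtain ⟨C, hC, N, key⟩ := hNN ε hε 6 (by norm_num)
  refine ⟨C * 3 ^ 4 * 2 ^ ε, by positivity, N, ?_⟩
  intro ι _ J A γ v H R' R θ hAJ hH hR'n hRH hθ hJ hθF hbr
  classical
  have hH0 : (0 : ℝ) < H := by exact_mod_cast hH
  have hH1 : (1 : ℝ) ≤ H := by exact_mod_cast hH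
  have hR'1 : (1 : ℝ) ≤ R' := by exact_mod_cast hR'n
  have hR'0 : (0 : ℝ) < R' := by linarith
  have hR : 0 < R := by rw [hRH]; positivity
  have hHz : (0 : ℤ) < H := by exact_mod_cast hH
  set K : ι × ℤ → Fin 4 → ℤ := fun x => big H (cell γ R x) with hK
  set X := A.image K with hX
  have hRH' : ∀ p : ℝ, R * p / H = R' * p := by
    intro p; rw [hRH]; field_simp
  -- heights
  have hz1 : ∀ x ∈ J, |((K x 3 : ℤ) : ℝ)| ≤ R' ∧ |(x.2 : ℝ) / R - ((K x 3 : ℤ) : ℝ) / R'| ≤ 1 / R' := by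
    intro x hx
    have hK3 : K x 3 = x.2 / (H : ℤ) := by simp [hK, big]
    constructor
    · have h1 := (hJ x hx).1
      rw [hRH] at h1
      have h2 : |x.2| ≤ (H : ℤ) * R' := by
        have : ((|x.2| : ℤ) : ℝ) ≤ (((H : ℤ) * R' : ℤ) : ℝ) := by push_cast; exact h1
        exact_mod_cast this
      rw [abs_le] at h2
      have h3 : -(R' : ℤ) ≤ x.2 / (H : ℤ) := by
        rw [Int.le_ediv_iff_mul_le hHz]; linarith [h2.1, mul_comm (H : ℤ) (R' : ℤ)]
      have h4 : x.2 / (H : ℤ) ≤ R' := by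
        rw [← Int.lt_add_one_iff, Int.ediv_lt_iff_lt_mul hHz]
        nlinarith [h2.2]
      rw [hK3, abs_le]
      constructor
      · exact_mod_cast h3
      · exact_mod_cast h4
    · have h1 := div_int_near hH x.2
      rw [hK3]
      have e1 : (x.2 : ℝ) / R - ((x.2 / (H : ℤ) : ℤ) : ℝ) / R' =
          ((x.2 : ℝ) / H - ((x.2 / (H : ℤ) : ℤ) : ℝ)) / R' := by
        rw [hRH]; field_simp
      rw [e1, abs_div, abs_of_pos hR'0]
      gcongr
  have hmain := key ι (J.image Prod.fst) (fun _ => 1) (fun l z i => R' * γ l (z / R') i)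
    (fun l z => v l (z / R')) (1 / H) 3 (2 * R') (fun _ _ => zero_le_one) (by positivity)
    (by rw [div_le_one hH0]; exact hH1) (by norm_num) (by linarith)
    (by
      intro l hl z hz i
      obtain ⟨x, hx, rfl⟩ := mem_image.1 hl
      refine (hJ x hx).2.2.1 _ ?_ i
      rw [abs_div, abs_of_pos hR'0, div_le_iff₀ hR'0]; exact hz)
    (by
      intro l hl z z' z0 hz hz' hz0 i
      obtain ⟨x, hx, rfl⟩ := mem_image.1 hl
      have hd : ∀ z : ℝ, |z| ≤ 2 * R' → |z / R'| ≤ 2 := by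
        intro z hz
        rw [abs_div, abs_of_pos hR'0, div_le_iff₀ hR'0]; exact hz
      have h1 := (hJ x hx).2.2.2.1 (z' / R') (z / R') (hd _ hz') (hd _ hz) i
      have h2 := (hJ x hx).2.2.2.2 (z0 / R') (z' / R') (hd _ hz0) (hd _ hz') i
      set M := max |z - z0| |z' - z0| with hM
      have hM1 : |z - z0| ≤ M := le_max_left _ _
      have hM2 : |z' - z0| ≤ M := le_max_right _ _
      have hM0 : 0 ≤ M := (abs_nonneg _).trans hM1
      have h3 : |z - z'| ≤ 2 * M := by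
        have : z - z' = (z - z0) - (z' - z0) := by ring
        rw [this]
        exact (abs_sub _ _).trans (by linarith)
      have e1 : R' * γ x.1 (z / R') i - R' * γ x.1 (z' / R') i - (z - z') * v x.1 (z0 / R') i =
          R' * (γ x.1 (z / R') i - γ x.1 (z' / R') i - (z / R' - z' / R') * v x.1 (z' / R') i) +
          (z - z') * (v x.1 (z' / R') i - v x.1 (z0 / R') i) := by
        field_simp; ring
      rw [e1]
      refine (abs_add_le _ _).trans ?_
      rw [abs_mul, abs_mul, abs_of_pos hR'0]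
      have e2 : (z / R' - z' / R') ^ 2 = |z - z'| * |z - z'| / R' ^ 2 := by
        rw [← sub_div, div_pow, ← sq_abs (z - z')]; ring
      rw [e2] at h1
      have e3 : |z' / R' - z0 / R'| = |z' - z0| / R' := by
        rw [← sub_div, abs_div, abs_of_pos hR'0]
      rw [e3] at h2
      calc R' * |γ x.1 (z / R') i - γ x.1 (z' / R') i - (z / R' - z' / R') * v x.1 (z' / R') i| +
          |z - z'| * |v x.1 (z' / R') i - v x.1 (z0 / R') i| ≤
          R' * (|z - z'| * |z - z'| / R' ^ 2) + |z - z'| * (|z' - z0| / R') := by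
            gcongr
        _ ≤ R' * (|z - z'| * (2 * M) / R' ^ 2) + |z - z'| * (M / R') := by
            gcongr
        _ = 6 / (2 * R') * M * |z - z'| := by field_simp; ring)
    X
    (by
      intro k hk i
      obtain ⟨x, hx, rfl⟩ := mem_image.1 hk
      have hxJ := hAJ hx
      obtain ⟨g1, g2, g3⟩ := hJ x hxJ
      refine Fin.lastCases ?_ (fun i => ?_) i
      · have := (hz1 x hxJ).1
        change |((K x 3 : ℤ) : ℝ)| ≤ 2 * R'
        linarith
      · have e2 := div_floor_near hH (R * pt γ R x i)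
        have e1 : |R * pt γ R x i / H| ≤ R' := by
          rw [hRH', abs_mul, abs_of_pos hR'0]
          nlinarith [g2 i]
        have e3 : K x i.castSucc = ⌊R * pt γ R x i⌋ / (H : ℤ) := by
          simp [hK, big]
        rw [e3]
        have e4 := abs_sub_abs_le_abs_sub ((⌊R * pt γ R x i⌋ / (H : ℤ) : ℤ) : ℝ)
          (R * pt γ R x i / H)
        rw [abs_sub_comm] at e4
        linarith)
    (fun k => FK J K k)
    (by
      intro k _ l hl
      obtain ⟨x, hx, -, rfl⟩ := mem_FK.1 hl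
      exact mem_image_of_mem _ hx)
    (by
      intro k _ l hl i
      obtain ⟨x, hx, rfl, rfl⟩ := mem_FK.1 hl
      obtain ⟨g1, g2, g3⟩ := hJ x hx
      have e2 := div_floor_near hH (R * pt γ R x i)
      have e3 : K x i.castSucc = ⌊R * pt γ R x i⌋ / (H : ℤ) := by
        simp [hK, big]
      rw [e3]
      rw [hRH'] at e2
      obtain ⟨hz, hz'⟩ := hz1 x hx
      have hzz : |((K x 3 : ℤ) : ℝ) / R'| ≤ 1 := by
        rw [abs_div, abs_of_pos hR'0, div_le_one hR'0]; exact hz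
      have h4 := g3.lip (z := ((K x 3 : ℤ) : ℝ) / R') (z' := (x.2 : ℝ) / R)
        (hzz.trans (by norm_num)) ((ht_le hR g1).trans (by norm_num)) i
      have h5 : |R' * pt γ R x i - R' * γ x.1 (((K x 3 : ℤ) : ℝ) / R') i| ≤ 2 := by
        rw [← mul_sub, abs_mul, abs_of_pos hR'0]
        have h6 : |(x.2 : ℝ) / R - ((K x 3 : ℤ) : ℝ) / R'| ≤ 1 := by
          refine hz'.trans ?_
          rw [div_le_one hR'0]; exact hR'1
        calc R' * |pt γ R x i - γ x.1 (((K x 3 : ℤ) : ℝ) / R') i| ≤ R' * (1 / R' * (1 + 1)) := by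
              refine mul_le_mul_of_nonneg_left ?_ hR'0.le
              refine h4.trans ?_
              gcongr
          _ = 2 := by field_simp; norm_num
      have e5 : ((⌊R * pt γ R x i⌋ / (H : ℤ) : ℤ) : ℝ) - R' * γ x.1 (((K x 3 : ℤ) : ℝ) / R') i =
          -(R' * pt γ R x i - ((⌊R * pt γ R x i⌋ / (H : ℤ) : ℤ) : ℝ)) +
          (R' * pt γ R x i - R' * γ x.1 (((K x 3 : ℤ) : ℝ) / R') i) := by ring
      change |((⌊R * pt γ R x i⌋ / (H : ℤ) : ℤ) : ℝ) - R' * γ x.1 (((K x 3 : ℤ) : ℝ) / R') i| ≤ 3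
      rw [e5]
      refine (abs_add_le _ _).trans ?_
      rw [abs_neg]
      linarith)
    (by
      intro k hk u n hn
      obtain ⟨x, hx, rfl⟩ := mem_image.1 hk
      have h := hbr x hx u n hn
      simp only [sum_const, nsmul_eq_mul, mul_one]
      refine le_trans (le_of_eq ?_) h
      congr 2)
  simp only [sum_const, nsmul_eq_mul, mul_one] at hmain
  have h1 : (A.card : ℝ) ≤ ∑ k ∈ X, H * ((FK J K k).card : ℝ) := by
    have e1 : A.card = ∑ k ∈ X, (A.filter fun y => K y = k).card := card_eq_sum_card_image K A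
    rw [e1]; push_cast
    refine sum_le_sum fun k _ => ?_
    refine le_trans ?_ (inc_le_FK γ R hH J k)
    exact_mod_cast card_le_card (filter_subset_filter _ hAJ)
  have h3 : ∀ k ∈ X, ((FK J K k).card : ℝ) * θ ^ (1 / 3 : ℝ) ≤
      ((FK J K k).card : ℝ) ^ (4 / 3 : ℝ) := by
    intro k hk
    obtain ⟨x, hx, rfl⟩ := mem_image.1 hk
    have e1 := hθF x hx
    have e2 : θ ^ (1 / 3 : ℝ) ≤ ((FK J K (K x)).card : ℝ) ^ (1 / 3 : ℝ) :=
      Real.rpow_le_rpow hθ e1 (by norm_num)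
    have e3 : ((FK J K (K x)).card : ℝ) ^ (4 / 3 : ℝ) =
        ((FK J K (K x)).card : ℝ) * ((FK J K (K x)).card : ℝ) ^ (1 / 3 : ℝ) := by
      rw [show (4 / 3 : ℝ) = 1 + 1 / 3 by norm_num,
        Real.rpow_add_of_nonneg (Nat.cast_nonneg _) zero_le_one (by norm_num), Real.rpow_one]
    rw [e3]
    exact mul_le_mul_of_nonneg_left e2 (Nat.cast_nonneg _)
  calc (A.card : ℝ) * θ ^ (1 / 3 : ℝ) ≤ (∑ k ∈ X, H * ((FK J K k).card : ℝ)) * θ ^ (1 / 3 : ℝ) :=
        mul_le_mul_of_nonneg_right h1 (Real.rpow_nonneg hθ _)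
    _ = H * ∑ k ∈ X, ((FK J K k).card : ℝ) * θ ^ (1 / 3 : ℝ) := by
        rw [← mul_sum, mul_assoc, sum_mul]
    _ ≤ H * ∑ k ∈ X, ((FK J K k).card : ℝ) ^ (4 / 3 : ℝ) :=
        mul_le_mul_of_nonneg_left (sum_le_sum h3) hH0.le
    _ ≤ H * (C * 3 ^ 4 * ((1 / (H : ℝ))⁻¹) ^ N * (2 * R') ^ ε *
          ((J.image Prod.fst).card : ℝ) ^ (4 / 3 : ℝ)) := mul_le_mul_of_nonneg_left hmain hH0.le
    _ = _ := by
        rw [Real.mul_rpow (by norm_num) hR'0.le, one_div, inv_inv]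
        ring

end Crest.Agent.R136.LmQ861
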