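import Crest.Agent.R136.LmQ4_861
import Crest.Agent.R136.SlbO_480

/-!
# R136, LEMMA A_Q, part 5 (helper861): from the Kakeya maximal inequality in `ℝ³`, with the curve
condition `C11s` only on `[-1, 1]`.
-/

set_option autoImplicit false
set_option linter.unusedVariables false
set_option linter.unusedSectionVars false

namespace Crest.Agent.R136.LmQ861

open Finset

/-- the curve condition on `[-1, 1]` -/
def C11s {ι : Type} (γ v : ι → ℝ → Fin 3 → ℝ) (l : ι) : Prop :=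
  (∀ z : ℝ, |z| ≤ 1 → ∀ i, |v l z i| ≤ 1) ∧
  (∀ z z' : ℝ, |z| ≤ 1 → |z'| ≤ 1 → ∀ i,
    |γ l z' i - γ l z i - (z' - z) * v l z i| ≤ (z' - z) ^ 2) ∧
  (∀ z z' : ℝ, |z| ≤ 1 → |z'| ≤ 1 → ∀ i, |v l z' i - v l z i| ≤ |z' - z|)

/-- projection to `[-1, 1]` -/
noncomputable def clp (z : ℝ) : ℝ := max (-1) (min 1 z)

theorem clp_of {z : ℝ} (h : |z| ≤ 1) : clp z = z := by
  rw [abs_le] at h
  unfold clp
  rw [min_eq_right h.2, max_eq_right h.1]

theorem clp_le (z : ℝ) : |clp z| ≤ 1 := by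
  rw [abs_le]
  unfold clp
  constructor
  · exact le_max_left _ _
  · exact max_le (by norm_num) (min_le_left _ _)

theorem clp_cases (z : ℝ) : (z < -1 ∧ clp z = -1) ∨ (|z| ≤ 1 ∧ clp z = z) ∨ (1 < z ∧ clp z = 1) := by
  rcases lt_or_ge z (-1) with h | h
  · left
    refine ⟨h, ?_⟩
    unfold clp
    rw [min_eq_right (by linarith), max_eq_left h.le]
  · rcases lt_or_ge 1 z with h' | h'
    · right; right
      refine ⟨h', ?_⟩
      unfold clp
      rw [min_eq_left h'.le, max_eq_right (by norm_num)]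
    · right; left
      exact ⟨abs_le.2 ⟨h, h'⟩, clp_of (abs_le.2 ⟨h, h'⟩)⟩

/-- linear extension of the curves -/
noncomputable def exG {ι : Type} (γ v : ι → ℝ → Fin 3 → ℝ) : ι → ℝ → Fin 3 → ℝ :=
  fun l z i => γ l (clp z) i + (z - clp z) * v l (clp z) i

/-- extension of the velocities -/
noncomputable def exV {ι : Type} (v : ι → ℝ → Fin 3 → ℝ) : ι → ℝ → Fin 3 → ℝ :=
  fun l z i => v l (clp z) i

theorem exG_of {ι : Type} (γ v : ι → ℝ → Fin 3 → ℝ) (l : ι) {z : ℝ} (h : |z| ≤ 1) :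
    exG γ v l z = γ l z := by
  funext i
  simp [exG, clp_of h]

theorem exV_of {ι : Type} (v : ι → ℝ → Fin 3 → ℝ) (l : ι) {z : ℝ} (h : |z| ≤ 1) :
    exV v l z = v l z := by
  funext i
  simp [exV, clp_of h]

theorem clp_key (z z' : ℝ) :
    clp z' = clp z ∨ |z' - clp z'| + |clp z' - clp z| ≤ |z' - z| := by
  rcases clp_cases z with ⟨k1, k2⟩ | ⟨k1, k2⟩ | ⟨k1, k2⟩ <;>
    rcases clp_cases z' with ⟨k1', k2'⟩ | ⟨k1', k2'⟩ | ⟨k1', k2'⟩ <;> rw [k2, k2']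
  · left; rfl
  · right
    rw [abs_le] at k1'
    rw [sub_self, abs_zero, zero_add]
    rcases abs_cases (z' - -1) with a1 | a1 <;> rcases abs_cases (z' - z) with a3 | a3 <;>
      linarith [k1'.1, k1'.2]
  · right
    rcases abs_cases (z' - 1) with a1 | a1 <;> rcases abs_cases ((1 : ℝ) - -1) with a2 | a2 <;>
      rcases abs_cases (z' - z) with a3 | a3 <;> linarith
  · right
    rw [abs_le] at k1
    rcases abs_cases (z' - -1) with a1 | a1 <;> rcases abs_cases (-1 - z) with a2 | a2 <;>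
      rcases abs_cases (z' - z) with a3 | a3 <;> linarith [k1.1, k1.2]
  · right
    rw [sub_self, abs_zero, zero_add]
  · right
    rw [abs_le] at k1
    rcases abs_cases (z' - 1) with a1 | a1 <;> rcases abs_cases (1 - z) with a2 | a2 <;>
      rcases abs_cases (z' - z) with a3 | a3 <;> linarith [k1.1, k1.2]
  · right
    rcases abs_cases (z' - -1) with a1 | a1 <;> rcases abs_cases ((-1 : ℝ) - 1) with a2 | a2 <;>
      rcases abs_cases (z' - z) with a3 | a3 <;> linarith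
  · right
    rw [abs_le] at k1'
    rw [sub_self, abs_zero, zero_add]
    rcases abs_cases (z' - 1) with a1 | a1 <;> rcases abs_cases (z' - z) with a3 | a3 <;>
      linarith [k1'.1, k1'.2]
  · left; rfl

theorem clp_lip (z z' : ℝ) : |clp z' - clp z| ≤ |z' - z| := by
  rcases clp_key z z' with h | h
  · rw [h, sub_self, abs_zero]; exact abs_nonneg _
  · have := abs_nonneg (z' - clp z')
    linarith

theorem C11_ex {ι : Type} {γ v : ι → ℝ → Fin 3 → ℝ} {l : ι} (h : C11s γ v l) :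
    C11 (exG γ v) (exV v) l := by
  refine ⟨fun z _ i => h.1 _ (clp_le z) i, ?_, ?_⟩
  · intro z z' _ _ i
    simp only [exG, exV]
    have h1 := h.2.1 (clp z) (clp z') (clp_le z) (clp_le z') i
    have h2 := h.2.2 (clp z) (clp z') (clp_le z) (clp_le z') i
    have hk := clp_key z z'
    set a := clp z with ha
    set b := clp z' with hb
    have e1 : γ l b i + (z' - b) * v l b i - (γ l a i + (z - a) * v l a i) - (z' - z) * v l a i =
        (γ l b i - γ l a i - (b - a) * v l a i) + (z' - b) * (v l b i - v l a i) := by ring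
    rw [e1]
    refine (abs_add_le _ _).trans ?_
    rw [abs_mul]
    have h3 : |z' - b| * |v l b i - v l a i| ≤ |z' - b| * |b - a| :=
      mul_le_mul_of_nonneg_left h2 (abs_nonneg _)
    have h4 : (b - a) ^ 2 + |z' - b| * |b - a| ≤ (z' - z) ^ 2 := by
      rcases hk with hk | h5
      · rw [hk]; simp; positivity
      have h6 : 0 ≤ |z' - b| := abs_nonneg _
      have h7 : 0 ≤ |b - a| := abs_nonneg _
      have h8 : (b - a) ^ 2 = |b - a| * |b - a| := by rw [← sq_abs]; ring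
      have h9 : (z' - z) ^ 2 = |z' - z| * |z' - z| := by rw [← sq_abs]; ring
      rw [h8, h9]
      nlinarith
    linarith
  · intro z z' _ _ i
    simp only [exV]
    exact (h.2.2 _ _ (clp_le z) (clp_le z') i).trans (clp_lip z z')

open Classical in
/-- **LEMMA A_Q, dyadic form, curves on `[-1, 1]`** (`H = 2^k`, `R = 2^M`). -/
theorem lemmaQ_one (hKM : ∀ V : ℝ, Crest.Agent.R138.Tub70.KM32 V) {g : ℝ} (hg : 0 < g) :
    ∃ η ε₀ : ℝ, ∃ M₀ : ℕ, 0 < η ∧ η ≤ 1 / 2 ∧ 0 < ε₀ ∧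
    ∀ {ι : Type} [DecidableEq ι] (I : Finset (ι × ℤ)) (γ v : ι → ℝ → Fin 3 → ℝ) (M k : ℕ)
      (n₀ : ℝ), I.Nonempty → M₀ ≤ M → η / 2 * M ≤ k → (k : ℝ) ≤ η * M →
      (∀ x ∈ I, |(x.2 : ℝ)| ≤ 2 ^ M ∧ (∀ i, |pt γ (2 ^ M) x i| ≤ 1) ∧ C11s γ v x.1) →
      (∀ x ∈ I, (2 : ℝ) ^ ((M : ℝ) - ε₀ * M) ≤ ((I.filter fun y => y.1 = x.1).card : ℝ)) →
      (∀ x ∈ I, (2 : ℝ) ^ ((k : ℝ) - ε₀ * M) ≤
        ((I.filter fun y => y.1 = x.1 ∧ y.2 / 2 ^ k = x.2 / 2 ^ k).card : ℝ)) →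
      (∀ x ∈ I, (2 : ℝ) ^ (n₀ - 3 * M + g * M - ε₀ * M) ≤ ((I.filter fun y => y.2 = x.2 ∧
        ∀ i, |pt γ (2 ^ M) y i - pt γ (2 ^ M) x i| ≤ 1 / 2 ^ M).card : ℝ)) →
      (∀ x ∈ I, ∀ n : Fin 3 → ℝ, ∑ i, n i ^ 2 = 1 → ∀ E : Fin 2 → Fin 3 → ℝ,
        (∀ a b, ∑ i, E a i * E b i = if a = b then 1 else 0) →
        (∀ a, ∑ i, E a i * n i = 0) → ∀ w : Fin 2 → ℝ, (∀ a, 1 / (2 : ℝ) ^ k ≤ w a ∧ w a ≤ 1) →
        (((I.filter fun y => |(y.2 : ℝ) - x.2| ≤ 2 ^ k ∧ Plk γ v (2 ^ M) (2 ^ k) n E w x y).image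
          Prod.fst).card : ℝ) ≤
          (2 : ℝ) ^ (n₀ - 3 * M + g * (M - k) + ε₀ * M) * (w 0 * w 1) * (2 ^ k) ^ 2) →
      ((I.image Prod.fst).card : ℝ) ≤ (2 : ℝ) ^ (n₀ + ε₀ * M) → False := by
  obtain ⟨η, ε₀, M₀, hη, hη1, hε, key⟩ := lemmaQ_two (Slb480.slabOne hKM) hg
  refine ⟨η, ε₀, M₀, hη, hη1, hε, ?_⟩
  intro ι _ I γ v M k n₀ hI hM hk1 hk2 hbd hown hw1 hrich hplank hL
  have hz : ∀ x ∈ I, |(x.2 : ℝ) / 2 ^ M| ≤ 1 := by
    intro x hx
    rw [abs_div, abs_of_pos (by positivity : (0 : ℝ) < 2 ^ M), div_le_one (by positivity)]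
    exact (hbd x hx).1
  have hpt : ∀ x ∈ I, pt (exG γ v) (2 ^ M) x = pt γ (2 ^ M) x := fun x hx =>
    exG_of γ v x.1 (hz x hx)
  refine key I (exG γ v) (exV v) M k n₀ hI hM hk1 hk2 (fun x hx => ⟨(hbd x hx).1, ?_,
    C11_ex (hbd x hx).2.2⟩) hown hw1 ?_ ?_ hL
  · rw [hpt x hx]; exact (hbd x hx).2.1
  · intro x hx
    refine (hrich x hx).trans ?_
    refine Nat.cast_le.2 (card_le_card ?_)
    intro y hy
    rw [mem_filter] at hy ⊢
    refine ⟨hy.1, hy.2.1, ?_⟩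
    rw [hpt x hx, hpt y hy.1]
    exact hy.2.2
  · intro x hx n hn E hE hEn w hw
    refine le_trans (Nat.cast_le.2 (card_le_card (image_subset_image ?_)))
      (hplank x hx n hn E hE hEn w hw)
    intro y hy
    rw [mem_filter] at hy ⊢
    refine ⟨hy.1, hy.2.1, ?_⟩
    have h2 := hy.2.2
    unfold Plk at h2 ⊢
    rwa [exG_of γ v y.1 (hz x hx), exG_of γ v x.1 (hz x hx), exV_of v y.1 (hz x hx),
      exV_of v x.1 (hz x hx)] at h2

end Crest.Agent.R136.LmQ861
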