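import Crest.Agent.R136.LnW_619
import Crest.Agent.R136.Int2_599

/-!
# R136, thin branch (helper619): the window of `lin` inside an interior `ZWin`

* `LnD lam x` : density and Frostman conditions of the tangent, `lnD_of`
* `room_of` : room of a `ZWin`
* **`lnW_iw`** : `LnW` for 599's window `iw` (`S = {0}`) over a `ZWin` with `BasX`
* **`ln_core`** : a relation on a `ρ^ε` part of every such window gives the relation on all classes
  of one dense part of the family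
-/

set_option autoImplicit false
set_option linter.unusedSectionVars false
set_option linter.unusedVariables false

open Filter Topology

namespace Crest.Agent.R136.Ln619

open Finset Crest.Agent.R138.Ex926 Crest.Agent.R136.Net191 Crest.Agent.R136.Gf356
open Crest.Agent.R136.Qg926 Crest.Agent.R136.Dg219 Crest.Agent.R136.Aw413
open Crest.Agent.R136.NetW191 Crest.Agent.R136.EvW938 Crest.Agent.R136.PrW464
open Crest.Agent.R136.LadW697 Crest.Agent.R136.AwJ774 Crest.Agent.R136.Bas938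
open Crest.Agent.R136.Ht887 Crest.Agent.R136.Win887 Crest.Agent.R136.Qgn887
open Crest.Agent.R136.QdH887 (bv bv_in bv_out wdatA)
open Crest.Agent.R136.K2S774 (cn)
open Crest.Agent.R136.LadG697 (coU)
open Crest.Agent.R136.Int599 (iw iw_st_ok iw_top iw_leg)
open Crest.Agent.R136.Gau66 (local_to_global)
open Crest.Agent.R138.Dp76 (Dense)

/-- **density and Frostman conditions** of the tangent at the scale `x` -/
structure LnD (lam : (Fin 18 → ℝ) → ℝ) (x : ℝ) : Prop where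
  dens : lam (fun _ => x) ≤ lam (cut {0} (fun _ => x) 0) + lam (cut {0} 0 (fun _ => x))
  frost : ∀ y : ℝ, 0 ≤ y → y ≤ x → lam (Pi.single 0 y) ≤ -(1 * y)

section pt

variable {B Bo : Base} {I J : ∀ n : ℕ, Finset (ℕ × ℝ)}
  {co : ∀ n : ℕ, ℕ × ℝ → ℕ × ℝ → Fin 18 → ℝ} {kp : ℕ → ℝ} {u : ℕ → Fin 18 → ℝ}
  {F : ∀ n : ℕ, ℕ × ℝ → FW} {Ma : Mons 18} {Dr : Set (Fin 18)} {C : ℝ}
  {lam : (Fin 18 → ℝ) → ℝ} {a b : Fin 18 → ℝ} {A : ℝ × ℝ} {φ : ℕ → (Fin 18 → ℝ) → ℝ}
  {r : ℕ → ℝ} {κ : Fin 18 → ℝ} {V Tw : Fin 18 → Prop}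

/-- **density and Frostman conditions at a point** without visible slots -/
theorem lnD_of (h : PtN B Bo I J co kp u F Ma Dr C lam a b A φ r κ V Tw) (hV : ∀ k, ¬ V k)
    {x : ℝ} (hx : 0 < x) : LnD lam x := by
  have hden := PtN.dens0 h wdatA hx fun k hk => absurd hk (hV k)
  have e0 : scV x (fun _ : Fin 18 => 0) = 0 := scV_zero x
  have et : scV x (fun _ : Fin 18 => 1) = fun _ => x := by
    funext k; simp [scV]
  refine ⟨?_, fun y hy hyx => ?_⟩
  · have := hden.dens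
    rw [e0] at this
    simp only [zero_add, h.aew.zero, sub_zero] at this
    have e1 : (wst Ma (fun _ => 0) (fun _ => 1) 1 {0} x).top = fun _ => x := et
    have e2 : (wst Ma (fun _ => 0) (fun _ => 1) 1 {0} x).S = {0} := rfl
    rw [e1, e2] at this
    exact this
  · have := hden.frost y hy hyx
    rw [e0] at this
    simp only [zero_add, h.aew.zero, sub_zero] at this
    exact this

end pt

section zw

variable {B B' : Base} {I J : ℕ → Finset (ℕ × ℝ)}
  {kp : ℕ → ℝ} {u : ℕ → Fin 18 → ℝ} {f : ℕ → ℕ × ℝ → FW} {Y : ℕ → Fin 18 → ℝ}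
  {w : ℕ → ℝ} {Tz : ℕ → ℝ} {Ma : Mons 18} {Dr : Set (Fin 18)} {lam : (Fin 18 → ℝ) → ℝ}
  {x mm σ : ℝ} {Dq Uq : Finset (Fin 18)} {Gd : ℕ → Finset (ℕ × ℝ)} {s₀ : ℕ → ℕ × ℝ}
  {co : ∀ n : ℕ, ℕ × ℝ → ℕ × ℝ → Fin 18 → ℝ} {C : ℝ}

/-- a negative natural direction -/
theorem gr_neg (k : Fin 18) : grW (-1) (-1) (-10) k ≤ -1 := by
  have h : ∀ k : Fin 18, wz k * (-1) + wc k * (-1) + wn k * (-10) ≤ -1 := by decide
  have := h k
  unfold grW
  exact_mod_cast this

theorem gr_mem (hA : ActM Ma Dr) {R : ℝ} : R • grW (-1) (-1) (-10) ∈ coneM Ma := by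
  have h1 : R • grW (-1) (-1) (-10) ∈ coneM (mA monW (actW Dr)) := by
    rw [coneM_mA]
    exact ((nat_grW _ (-1) (-1) (-10)).smul R).mem
  rw [(actM_mA Dr).cone] at h1
  rw [hA.cone]
  exact h1

/-- **room** -/
theorem room_of (hZ : ZWin B B' I J co monW C Y w (coneM Ma) Tz lam) (hA : ActM Ma Dr)
    (s : Fin 18) (R : ℝ) : ∀ᶠ n in (U : Filter ℕ), R * w n ≤ Y n s := by
  have h0 : (0:ℝ) ≤ max R 0 := le_max_right _ _
  filter_upwards [hZ.legal ‖max R 0 • grW (-1) (-1) (-10)‖] with n hn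
  have h1 := (hn _ (gr_mem hA) le_rfl).nonneg s
  have hw := hZ.w0 n
  have h2 := gr_neg s
  simp only [Pi.add_apply, Pi.smul_apply, smul_eq_mul] at h1
  have h3 : w n * (max R 0 * grW (-1) (-1) (-10) s) ≤ w n * (max R 0 * (-1)) :=
    mul_le_mul_of_nonneg_left (mul_le_mul_of_nonneg_left h2 h0) hw.le
  have h4 : R * w n ≤ max R 0 * w n := mul_le_mul_of_nonneg_right (le_max_left _ _) hw.le
  nlinarith

/-- **the window of `lin` on a class inside an interior `ZWin`** -/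
theorem lnW_iw (hZ : ZWin B B' I J (coU u kp f) monW 67 Y w (coneM Ma) Tz lam)
    (hX : AwZ146.BasX monW Ma Ma Y w) (hA : ActM Ma Dr) (hDq : ∀ k, k ∈ Dr ↔ k ∈ Dq)
    (hgr : ∀ n, GrU (u n)) (hk1 : ∀ n, |kp n| ≤ 1) (hkp : B'.Sub fun n => |kp n|⁻¹)
    (hx : 0 < x) (hm : 0 < mm) (hσ : 0 < σ) (hD : LnD lam x) (hN : LnL Uq lam mm σ x)
    (hok : (iw B B' I J (coU u kp f) 67 Y w Ma Tz lam {0} x Gd s₀).Ok) :
    LnW Dq Uq (iw B B' I J (coU u kp f) 67 Y w Ma Tz lam {0} x Gd s₀) kp u f mm σ x := by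
  have hd := wdatA
  have eS : (iw B B' I J (coU u kp f) 67 Y w Ma Tz lam {0} x Gd s₀).S = {0} := rfl
  have etop : (iw B B' I J (coU u kp f) 67 Y w Ma Tz lam {0} x Gd s₀).top = fun _ => x := iw_top
  have elam : (iw B B' I J (coU u kp f) 67 Y w Ma Tz lam {0} x Gd s₀).lam = lam := rfl
  obtain ⟨n3, n4, n5⟩ := hN.nums eS etop elam
  refine
    { x0 := hx
      m0 := hm
      s0 := hσ
      ww :=
        { ok := hok
          hκ := hk1
          hl := hgr
          hM := rfl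
          hco := fun n i _ j _ s => rfl
          kz := rfl
          h0 := hd.zS
          hS := hd.hS }
      eS := eS
      etop := etop
      ekap := rfl
      dw := hZ.base
      hk := ?_
      tight := ?_
      gap := ?_
      room := fun s R => room_of hZ hA s R
      dens := ?_
      frost := fun y h0 h1 => hD.frost y h0 h1
      leg := ?_
      n3 := n3
      n4 := n4
      n5 := n5 }
  · intro ε hε
    filter_upwards [hkp.ev_le hε, hkp.1.pos] with n hn hpos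
    have h3 : 0 < |kp n| := inv_pos.1 hpos
    have h5 := hn.2
    rw [Real.log_inv] at h5
    show B'.d n ^ ε ≤ |kp n|
    rw [Real.rpow_def_of_pos (B'.pos n), ← Real.exp_log h3]
    refine Real.exp_le_exp.2 ?_
    unfold Base.L at h5
    linarith
  · intro k hk l hl hls n
    have := hX.act k _ ((hA.iff k _).2 ⟨fun h1 => hk ((hDq k).1 h1), l, hl,
      fun s hs' h1 => hls s hs' ((hDq s).1 h1), rfl⟩) n
    rwa [← sum_count] at this
  · intro k l hl hor R
    have := hX.gap k (fun s => l.count s) (mem_monW.2 ⟨l, hl, rfl⟩) (fun he => by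
      obtain ⟨hkD, l', hl', hls', e⟩ := (hA.iff k _).1 he
      rcases hor with h1 | ⟨s, hs', h1⟩
      · exact hkD ((hDq k).2 h1)
      · have h2 : 0 < l.count s := List.count_pos_iff.2 hs'
        have h3 : l.count s = l'.count s := congrFun e s
        rw [h3] at h2
        exact hls' s (List.count_pos_iff.1 h2) ((hDq s).2 h1)) R
    filter_upwards [this] with n hn
    rwa [← sum_count] at hn
  · rw [etop, eS]; exact hD.dens
  · intro p hp0 hpx hw
    rw [WSt.mem_legW]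
    have hcn : ∀ s, 0 ≤ cut {0} p (fun _ => x) s := fun s => by
      by_cases h0 : s ∈ ({0} : Finset (Fin 18))
      · rw [cut_of_mem h0]; exact hx.le
      · rw [cut_of_notMem h0]; exact hp0 s
    refine ⟨?_, fun k _ => ?_⟩
    · show cut {0} p (scV x fun _ => 1) ∈ _
      rw [Int599.scV_one]
      refine iw_leg (Gd := Gd) (s₀ := s₀) (B := B) (B' := B') (I := I) (J := J)
        (co := coU u kp f) (C := 67) (Y := Y) (w := w) (Tz := Tz) (lam := lam) (S := {0}) ?_ hcn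
        (fun s => ?_)
      · rw [hA.cone]
        exact fun k hk l hl hs => hw k (fun h1 => hk ((hDq k).2 h1)) l hl
          fun s hs' h1 => hs s hs' ((hDq s).2 h1)
      · by_cases h0 : s ∈ ({0} : Finset (Fin 18))
        · rw [cut_of_mem h0]
        · rw [cut_of_notMem h0]; exact hpx s
    · show p k ≤ scV x (fun _ => 1) k
      rw [Int599.scV_one]
      exact hpx k

/-- **from the windows to all classes of a dense part** -/
theorem ln_core (hZ : ZWin B B' I J (coU u kp f) monW 67 Y w (coneM Ma) Tz lam)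
    (hX : AwZ146.BasX monW Ma Ma Y w) (hA : ActM Ma Dr) (hDq : ∀ k, k ∈ Dr ↔ k ∈ Dq)
    (hgr : ∀ n, GrU (u n)) (hk1 : ∀ n, |kp n| ≤ 1) (hkp : B'.Sub fun n => |kp n|⁻¹)
    (hx : 0 < x) (hm : 0 < mm) (hσ : 0 < σ) (hD : LnD lam x) (hN : LnL Uq lam mm σ x)
    (Rel : ℕ → ℝ → Finset (ℕ × ℝ) → Prop)
    (hmono : ∀ n ε G G', G' ⊆ G → Rel n ε G → Rel n ε G')
    (hweak : ∀ n ε ε' G, ε ≤ ε' → Rel n ε G → Rel n ε' G)
    (hres : ∀ (Gd : ℕ → Finset (ℕ × ℝ)) (s₀ : ℕ → ℕ × ℝ),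
      LnW Dq Uq (iw B B' I J (coU u kp f) 67 Y w Ma Tz lam {0} x Gd s₀) kp u f mm σ x →
      ∀ ε : ℝ, 0 < ε → ∀ᶠ n in (U : Filter ℕ),
        ∃ G ⊆ (iw B B' I J (coU u kp f) 67 Y w Ma Tz lam {0} x Gd s₀).Cl n,
          B'.d n ^ ε * (((iw B B' I J (coU u kp f) 67 Y w Ma Tz lam {0} x Gd s₀).Cl n).card : ℝ) ≤
            (G.card : ℝ) ∧ Rel n ε G) :
    ∃ J1 : ℕ → Finset (ℕ × ℝ), (∀ n, J1 n ⊆ J n) ∧ Dense B' J1 J ∧
      ∀ ε : ℝ, 0 < ε → ∀ᶠ n in (U : Filter ℕ), ∀ s ∈ J1 n,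
        Rel n ε (cls (J1 n) (zlab B I (coU u kp f) monW 67 Y w n 0) s) := by
  have hst := iw_st_ok hA wdatA hx.le
  refine local_to_global (B := B') (J := J) (fun n => zlab B I (coU u kp f) monW 67 Y w n 0)
    hZ.T0 (fun ε hε => by
      filter_upwards [hZ.prof.up 0 ε hε] with n hn s hs
      have := hn 0 hZ.zero (by rw [norm_zero]) s hs
      rwa [hZ.lam0, zero_add] at this)
    Rel hmono hweak ?_
  intro Gd hGd _ hdens ε hε
  obtain ⟨s₀, hs₀, hok⟩ := hZ.exists_wnd hst (fun _ => (0, 0)) (Gd := Gd) (E := Gd)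
    (Eventually.of_forall hGd) (Eventually.of_forall fun n => Subset.refl _)
    (Sd := fun _ => 2) (Base.Sub.const two_pos) hdens
  have hW := lnW_iw hZ hX hA hDq hgr hk1 hkp hx hm hσ hD hN hok
  filter_upwards [hres Gd s₀ hW (ε / 2) (by positivity), hok.cls.big (ε / 2) (by positivity)]
    with n hn hb
  obtain ⟨G, hG1, hG2, hG3⟩ := hn
  refine ⟨s₀ n, G, hG1, ?_, hweak n _ _ G (by linarith) hG3⟩
  refine le_trans ?_ hG2
  have hb' : Tz n * B'.d n ^ (ε / 2) ≤
      (((iw B B' I J (coU u kp f) 67 Y w Ma Tz lam {0} x Gd s₀).Cl n).card : ℝ) := hb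
  have hp : 0 < B'.d n ^ (ε / 2) := Real.rpow_pos_of_pos (B'.pos n) _
  calc Tz n * B'.d n ^ ε = B'.d n ^ (ε / 2) * (Tz n * B'.d n ^ (ε / 2)) := by
        have : ε = ε / 2 + ε / 2 := by ring
        nth_rewrite 1 [this]
        rw [Real.rpow_add (B'.pos n)]; ring
    _ ≤ _ := mul_le_mul_of_nonneg_left hb' hp.le

end zw

end Crest.Agent.R136.Ln619
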