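import Crest.Agent.R136.Qgn1_887

/-!
# R136, thin branch (helper619): numbers of `lin` (rung `s = 1`)

At a point `PtN` (887) of the rung `s = 1` which is not dead (`-A.1 < 4`):

* `LnL Uq lam mm σ x` : (H3) decoupling of the positions `Uq` and of `{c, P}`, (H4) loss of the
  positions, (H5) `c` costs something
* **`lnL2_of`** : `Uq = {A, B, N}`, dropped slots `{4, .., 13}`
* **`lnL1_of`** : `Uq = {A, N}`, dropped slots `{4, .., 14}`, `btW 14 ≠ 0`
-/

set_option autoImplicit false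
set_option linter.unusedSectionVars false
set_option linter.unusedVariables false

open Filter Topology

namespace Crest.Agent.R136.Ln619

open Finset Crest.Agent.R138.Ex926 Crest.Agent.R136.Net191 Crest.Agent.R136.Gf356
open Crest.Agent.R136.Qg926 Crest.Agent.R136.Dg219 Crest.Agent.R136.Aw413
open Crest.Agent.R136.NetW191 Crest.Agent.R136.EvW938 Crest.Agent.R136.PrW464
open Crest.Agent.R136.LadW697 Crest.Agent.R136.AwJ774 Crest.Agent.R136.Bas938
open Crest.Agent.R136.Ht887 Crest.Agent.R136.Win887 Crest.Agent.R136.Qgn887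
open Crest.Agent.R136.QdH887 (bv bv_in bv_out bv_v4 bv_v4' btW_14 btW_17)
open Crest.Agent.R136.K2S774 (cn)

/-! ### static data -/

/-- dropped slots of the rung `s = 1` -/
def D11 : Finset (Fin 18) := {4, 5, 6, 7, 8, 9, 10, 11, 12, 13}

/-- dropped slots of the rung `s = 1`, slot `14` dropped too -/
def D12 : Finset (Fin 18) := {4, 5, 6, 7, 8, 9, 10, 11, 12, 13, 14}

theorem mem_D11 (k : Fin 18) : k ∈ DrW 1 ↔ k ∈ D11 := by
  have h : ∀ k : Fin 18, (4 ≤ k ∧ 1 < alW k) ↔ k ∈ D11 := by decide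
  rw [← h k]
  simp only [DrW, Set.mem_ofPred_eq]
  constructor
  · rintro ⟨h1, h2⟩; exact ⟨h1, by exact_mod_cast h2⟩
  · rintro ⟨h1, h2⟩; exact ⟨h1, by exact_mod_cast h2⟩

/-- natural integer vectors, dropped slots `Dq` -/
def OkQ (Dq : Finset (Fin 18)) (n : Fin 18 → ℕ) : Prop :=
  ∀ k, ∀ l ∈ mlW k, k ∈ Dq ∨ (∃ s ∈ l, s ∈ Dq) ∨ n k ≤ (l.map n).sum

instance (Dq : Finset (Fin 18)) (n : Fin 18 → ℕ) : Decidable (OkQ Dq n) := by
  unfold OkQ; infer_instance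

/-- indicator -/
def ind (Q : Finset (Fin 18)) : Fin 18 → ℕ := fun k => if k ∈ Q then 1 else 0

theorem bv_eq (x : ℝ) (Q : Finset (Fin 18)) : bv x Q = scV x (ind Q) := by
  funext k; unfold bv scV ind; split_ifs <;> simp

theorem okQ_mem {Ma : Mons 18} {Dr : Set (Fin 18)} (hA : ActM Ma Dr) {Dq : Finset (Fin 18)}
    (hD : ∀ s ∈ Dq, s ∈ Dr) {Q : Finset (Fin 18)} (h : OkQ Dq (ind Q)) {x : ℝ} (hx : 0 ≤ x) :
    bv x Q ∈ coneM Ma := by
  rw [bv_eq, hA.cone]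
  intro k hk l hl hls
  rw [sum_scV]
  refine mul_le_mul_of_nonneg_left ?_ hx
  rcases h k l hl with h1 | ⟨s, h1, h2⟩ | h1
  · exact absurd (hD k h1) hk
  · exact absurd (hD s h2) (hls s h1)
  · exact_mod_cast h1

theorem bv_nonneg {x : ℝ} (hx : 0 ≤ x) (Q : Finset (Fin 18)) (k : Fin 18) : 0 ≤ bv x Q k := by
  unfold bv; split_ifs
  · exact hx
  · exact le_rfl

/-! ### slopes of the rung `s = 1` -/

theorem TW1_0 (k : Fin 18) (hk : k ∈ ({1, 14, 15, 16} : Finset (Fin 18))) : TW 1 k = 0 := by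
  by_cases h1 : k = 1
  · rw [h1]; exact TW_c 1
  have h2 : ∀ k ∈ ({1, 14, 15, 16} : Finset (Fin 18)), k ≠ 1 →
      4 ≤ k ∧ k ∉ D11 ∧ alW k = 1 := by decide
  obtain ⟨h4, hD, hal⟩ := h2 k hk h1
  rw [TW_flag h4 fun h => hD ((mem_D11 k).1 h), hal]; norm_num

theorem TW1_1 (k : Fin 18) (hk : k ∈ ({0, 2, 3, 17} : Finset (Fin 18))) : TW 1 k = 1 := by
  have h2 : ∀ k ∈ ({0, 2, 3, 17} : Finset (Fin 18)), k = 0 ∨ k = 2 ∨ k = 3 ∨
      (4 ≤ k ∧ k ∉ D11 ∧ alW k = 0) := by decide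
  rcases h2 k hk with rfl | rfl | rfl | ⟨h4, hD, hal⟩
  · exact TW_z 1
  · exact TW_A 1
  · exact TW_B 1
  · rw [TW_flag h4 fun h => hD ((mem_D11 k).1 h), hal]; norm_num

/-- **numbers of `lin` at one scale `x`**, positions `Uq` -/
structure LnL (Uq : Finset (Fin 18)) (lam : (Fin 18 → ℝ) → ℝ) (mm σ x : ℝ) : Prop where
  h3 : lam (bv x {0}) + lam (bv x (insert 0 (Uq ∪ {1, 16}))) ≤
    lam (bv x (insert 0 Uq)) + lam (bv x {0, 1, 16})
  h4 : lam (bv x {0}) - ((Uq.card : ℝ) - σ) * x ≤ lam (bv x (insert 0 Uq))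
  h5 : ∀ y, 0 ≤ y → lam (Function.update (bv x {0}) 1 y) ≤ lam (bv x {0}) - mm * y

section pt

variable {B Bo : Base} {I J : ∀ n : ℕ, Finset (ℕ × ℝ)}
  {co : ∀ n : ℕ, ℕ × ℝ → ℕ × ℝ → Fin 18 → ℝ} {kp : ℕ → ℝ} {u : ℕ → Fin 18 → ℝ}
  {F : ∀ n : ℕ, ℕ × ℝ → FW} {Ma : Mons 18} {Dr : Set (Fin 18)} {C : ℝ}
  {lam : (Fin 18 → ℝ) → ℝ} {a : Fin 18 → ℝ} {A : ℝ × ℝ} {φ : ℕ → (Fin 18 → ℝ) → ℝ}
  {r : ℕ → ℝ} {κ : Fin 18 → ℝ} {V Tw : Fin 18 → Prop} {θ : Fin 3 → ℝ}

/-- boxes which differ in slots of slope `0` -/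
theorem bv_z (ha : ∀ k, k ∉ Dr → a k = TW 1 k) (hi : ∀ k ∈ Dr, k ∈ D12) {Q Q' : Finset (Fin 18)}
    {x : ℝ} (hQ : ∀ k, (k ∈ Q ↔ k ∈ Q') ∨ k ∈ ({1, 15, 16} : Finset (Fin 18))) (i : Fin 18)
    (h : gC a (btW θ) i ≠ 0) : bv x Q i = bv x Q' i := by
  rcases hQ i with h1 | h1
  · unfold bv; simp only [h1]
  · have h2 : ∀ i ∈ ({1, 15, 16} : Finset (Fin 18)), i ∉ D12 ∧
        i ∈ ({1, 14, 15, 16} : Finset (Fin 18)) := by decide
    obtain ⟨h3, h4⟩ := h2 i h1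
    exact absurd (gC_zero.2 (by rw [ha i fun hd => h3 (hi i hd), TW1_0 i h4])) h

/-- boxes which differ in slots of positive slope -/
theorem bv_p (ha : ∀ k, k ∉ Dr → a k = TW 1 k) (hi : ∀ k ∈ Dr, k ∈ D12) {Q Q' : Finset (Fin 18)}
    {x : ℝ} (hQ : ∀ k, (k ∈ Q ↔ k ∈ Q') ∨ k ∈ ({0, 2, 3, 17} : Finset (Fin 18))) (i : Fin 18)
    (h : gC a (btW θ) i = 0) : bv x Q i = bv x Q' i := by
  rcases hQ i with h1 | h1
  · unfold bv; simp only [h1]
  · have h2 : ∀ i ∈ ({0, 2, 3, 17} : Finset (Fin 18)), i ∉ D12 := by decide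
    have := gC_zero.1 h
    rw [ha i fun hd => h2 i h1 (hi i hd), TW1_1 i h1] at this
    exact absurd this one_ne_zero

/-- (H5) -/
theorem lnL_h5 (hG : BasG lam Ma Dr a (btW θ) V) (ha : ∀ k, k ∉ Dr → a k = TW 1 k)
    (hi : ∀ k ∈ Dr, k ∈ D12) {mm : ℝ}
    (hsw : ∀ c ∈ coneM Ma, c 1 = 0 → (∀ i, i ≠ 1 → a i = 0 → c i ≤ 0) →
      ∀ t : ℝ, 0 ≤ t → lam (c + t • e1W) ≤ lam c - mm * t) {x : ℝ}
    (m0 : bv x {0} ∈ coneM Ma) (y : ℝ) (hy : 0 ≤ y) :
    lam (Function.update (bv x {0}) 1 y) ≤ lam (bv x {0}) - mm * y := by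
  have e1 := hsw _ m0 (bv_out (by decide)) (fun i _ h0 => by
    by_cases h1 : i = 0
    · have h0D : (0 : Fin 18) ∉ Dr := fun h => absurd (hi 0 h) (by decide)
      rw [h1, ha 0 h0D, TW_z] at h0
      exact absurd h0 one_ne_zero
    · rw [bv_out (by rw [mem_singleton]; exact h1)]) y hy
  have e2 : bv x {0} + y • e1W = Function.update (bv x {0}) 1 y := by
    funext k
    rw [Pi.add_apply, Pi.smul_apply, smul_eq_mul]
    by_cases h1 : k = 1
    · rw [h1, Function.update_self, bv_out (by decide)]; simp [e1W]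
    · have : e1W k = 0 := by unfold e1W; rw [Pi.single_eq_of_ne h1]
      rw [Function.update_of_ne h1, this, mul_zero, add_zero]
  rwa [e2] at e1

/-- value on the ray and own loss -/
theorem ray1 (h : PtN B Bo I J co kp u F Ma Dr C lam a (btW θ) A φ r κ V Tw)
    (ha : ∀ k, k ∉ Dr → a k = TW 1 k) (hlo : ∀ k ∈ D11, k ∈ Dr) (hi : ∀ k ∈ Dr, k ∈ D12)
    {x : ℝ} (hx : 0 < x) :
    lam (bv x {0, 2, 3, 17}) = x * A.1 ∧ lam (bv x {0}) ≤ -x := by
  have m0 : bv x {0} ∈ coneM Ma := okQ_mem h.act hlo (by decide) hx.le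
  have m1 : bv x {0, 2, 3, 17} ∈ coneM Ma := okQ_mem h.act hlo (by decide) hx.le
  have hne : ∀ k, k ∉ Dr → bv x {0, 2, 3, 17} k = (x • a) k := by
    intro k hk
    rw [Pi.smul_apply, smul_eq_mul, ha k hk]
    have hk' : k ∉ D11 := fun hh => hk (hlo k hh)
    have h2 : ∀ k : Fin 18, k ∉ D11 → k ∈ ({1, 14, 15, 16} : Finset (Fin 18)) ∨
      k ∈ ({0, 2, 3, 17} : Finset (Fin 18)) := by decide
    have h3 : ∀ k ∈ ({1, 14, 15, 16} : Finset (Fin 18)), k ∉ ({0, 2, 3, 17} : Finset (Fin 18)) := by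
      decide
    rcases h2 k hk' with h4 | h4
    · rw [TW1_0 k h4, bv_out (h3 k h4), mul_zero]
    · rw [TW1_1 k h4, bv_in h4, mul_one]
  have m2 : x • a ∈ coneM Ma := h.act.congr hne m1
  refine ⟨?_, ?_⟩
  · rw [h.ind _ m1 _ m2 (fun k _ => bv_nonneg hx.le _ k) hne]
    exact out_ray h.aew.out m2
  · have := h.aew.own 0 zero_mem _ m0 (fun k => bv_nonneg hx.le _ k) fun k _ => by simp
    rw [h.aew.zero, bv_in (by decide), Pi.zero_apply] at this
    linarith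

set_option maxRecDepth 4000 in
/-- **numbers of `lin`**, `N ∥ B` (or no resonance), dropped slots `{4, .., 13}` -/
theorem lnL2_of (h : PtN B Bo I J co kp u F Ma Dr C lam a (btW θ) A φ r κ V Tw)
    (hG : BasG lam Ma Dr a (btW θ) V) (ha : ∀ k, k ∉ Dr → a k = TW 1 k)
    (hlo : ∀ k ∈ D11, k ∈ Dr) (hi : ∀ k ∈ Dr, k ∈ D12) (hnd : -A.1 < 4) :
    ∃ mm σ : ℝ, 0 < mm ∧ 0 < σ ∧ ∀ x, 0 < x → LnL {2, 3, 17} lam mm σ x := by
  obtain ⟨mm, hmm, hsw⟩ := hG.sweep
  refine ⟨mm, 4 + A.1, hmm, by linarith, fun x hx => ?_⟩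
  obtain ⟨r1, r2⟩ := ray1 h ha hlo hi hx
  have m : ∀ Q, OkQ D11 (ind Q) → bv x Q ∈ coneM Ma := fun Q hQ => okQ_mem h.act hlo hQ hx.le
  have m0 := m {0} (by decide)
  have mv := m {0, 1, 16} (by decide)
  have mp := m {0, 2, 3, 17} (by decide)
  have mpv := m {0, 1, 2, 3, 16, 17} (by decide)
  have e1 : insert (0 : Fin 18) (({2, 3, 17} : Finset (Fin 18)) ∪ {1, 16}) =
    {0, 1, 2, 3, 16, 17} := by decide
  have e2 : insert (0 : Fin 18) ({2, 3, 17} : Finset (Fin 18)) = {0, 2, 3, 17} := rfl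
  refine ⟨?_, ?_, fun y hy => lnL_h5 hG ha hi hsw m0 y hy⟩
  · rw [e1, e2]
    have := loss_eq h.aew.out 0 m0 mv mp mpv (bv_z ha hi (by decide)) (bv_z ha hi (by decide))
      (bv_p ha hi (by decide)) (bv_p ha hi (by decide))
    linarith
  · rw [e2, r1]
    have : (({2, 3, 17} : Finset (Fin 18)).card : ℝ) = 3 := by
      rw [show ({2, 3, 17} : Finset (Fin 18)).card = 3 by decide]; norm_num
    rw [this]
    nlinarith

set_option maxRecDepth 4000 in
/-- **numbers of `lin`**, `N ∥ A`, dropped slots `{4, .., 14}` -/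
theorem lnL1_of (h : PtN B Bo I J co kp u F Ma Dr C lam a (btW θ) A φ r κ V Tw)
    (hG : BasG lam Ma Dr a (btW θ) V) (ha : ∀ k, k ∉ Dr → a k = TW 1 k)
    (hlo : ∀ k ∈ D12, k ∈ Dr) (hi : ∀ k ∈ Dr, k ∈ D12) (h14 : btW θ 14 ≠ 0)
    (hnd : -A.1 < 4) :
    ∃ mm σ : ℝ, 0 < mm ∧ 0 < σ ∧ ∀ x, 0 < x → LnL {2, 17} lam mm σ x := by
  obtain ⟨mm, hmm, hsw⟩ := hG.sweep
  refine ⟨mm, 4 + A.1, hmm, by linarith, fun x hx => ?_⟩
  have hlo' : ∀ k ∈ D11, k ∈ Dr := fun k hk => hlo k (by revert k; decide)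
  obtain ⟨r1, r2⟩ := ray1 h ha hlo' hi hx
  have m : ∀ Q, OkQ D12 (ind Q) → bv x Q ∈ coneM Ma := fun Q hQ => okQ_mem h.act hlo hQ hx.le
  have m0 := m {0} (by decide)
  have mv := m {0, 1, 16} (by decide)
  have mp := m {0, 2, 17} (by decide)
  have mpv := m {0, 1, 2, 16, 17} (by decide)
  have mq := m {0, 2, 3, 17} (by decide)
  have m2 := m {0, 2} (by decide)
  have m3 := m {0, 2, 3} (by decide)
  have e1 : insert (0 : Fin 18) (({2, 17} : Finset (Fin 18)) ∪ {1, 16}) = {0, 1, 2, 16, 17} := by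
    decide
  have e2 : insert (0 : Fin 18) ({2, 17} : Finset (Fin 18)) = {0, 2, 17} := rfl
  have nD : ∀ k ∈ ({0, 2, 3, 17} : Finset (Fin 18)), k ∉ Dr := by
    intro k hk hd
    have h1 : ∀ k ∈ ({0, 2, 3, 17} : Finset (Fin 18)), k ∉ D12 := by decide
    exact h1 k hk (hi k hd)
  refine ⟨?_, ?_, fun y hy => lnL_h5 hG ha hi hsw m0 y hy⟩
  · rw [e1, e2]
    have := loss_eq h.aew.out 0 m0 mv mp mpv (bv_z ha hi (by decide)) (bv_z ha hi (by decide))
      (bv_p ha hi (by decide)) (bv_p ha hi (by decide))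
    linarith
  · rw [e2]
    -- `B` is full given `z, A, N`
    have g1 := h.full3 hG hx
    have g2 : -(2 * x) ≤ lam (bv x {0, 2}) := by
      have := h.aew.sharp 0 zero_mem _ m2 (fun k => by
        rw [Pi.zero_apply]; exact bv_nonneg hx.le _ _)
      rw [h.aew.zero] at this
      have e3 : ∑ s, (bv x {0, 2} s - (0 : Fin 18 → ℝ) s) = 2 * x := by
        have e4 : ∀ s, bv x {0, 2} s - (0 : Fin 18 → ℝ) s =
            (if s = 0 then x else 0) + (if s = 2 then x else 0) := by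
          intro s
          rw [Pi.zero_apply, sub_zero]
          unfold bv
          by_cases h0 : s = 0
          · subst h0; simp
          · by_cases h2 : s = 2
            · subst h2; simp
            · simp [h0, h2]
        rw [sum_congr rfl fun s _ => e4 s, sum_add_distrib, sum_ite_eq', sum_ite_eq']
        simp only [mem_univ, if_true]; ring
      rw [e3] at this
      linarith
    have g3 : lam (bv x {0, 2, 17}) - lam (bv x {0, 2, 3, 17}) =
        lam (bv x {0, 2}) - lam (bv x {0, 2, 3}) := by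
      refine h.slot (i := 3) mp mq m2 m3 (fun j _ => bv_nonneg hx.le _ j)
        (fun j _ => bv_nonneg hx.le _ j) (fun j _ => bv_nonneg hx.le _ j)
        (fun j _ => bv_nonneg hx.le _ j) (fun j hj _ => ?_) (fun j hj _ => ?_)
        (by rw [bv_out (by decide), bv_out (by decide)])
        (by rw [bv_in (by decide), bv_in (by decide)]) (fun j hj hj3 hjD => ?_)
      · have h1 : ∀ j : Fin 18, j ≠ 3 → (j ∈ ({0, 2, 17} : Finset (Fin 18)) ↔
          j ∈ ({0, 2, 3, 17} : Finset (Fin 18))) := by decide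
        unfold bv; simp only [h1 j hj]
      · have h1 : ∀ j : Fin 18, j ≠ 3 → (j ∈ ({0, 2} : Finset (Fin 18)) ↔
          j ∈ ({0, 2, 3} : Finset (Fin 18))) := by decide
        unfold bv; simp only [h1 j hj]
      · have h1 : ∀ j : Fin 18, j ≠ 17 → (j ∈ ({0, 2, 17} : Finset (Fin 18)) ↔
          j ∈ ({0, 2} : Finset (Fin 18))) := by decide
        by_cases h17 : j = 17
        · exfalso
          subst h17
          have a17 : a 17 = 1 := by rw [ha 17 hjD, TW1_1 17 (by decide)]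
          have a3 : a 3 = 1 := by rw [ha 3 (nD 3 (by decide)), TW_B]
          rw [gC_eq (by rw [a17]; exact one_ne_zero) (by rw [a3]; exact one_ne_zero), a17, a3,
            btW_17, btW3, div_one, div_one] at hj
          refine h14 ?_
          rw [btW_14]; linarith
        · unfold bv; simp only [h1 j h17]
    have e5 : bv x {0, 2, 3} = v4 x 0 x x := by
      have : ({0, 2, 3} : Finset (Fin 18)) = {0, 2, 3} := rfl
      exact bv_v4 x
    rw [e5] at g3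
    have : (({2, 17} : Finset (Fin 18)).card : ℝ) = 2 := by
      rw [show ({2, 17} : Finset (Fin 18)).card = 2 by decide]; norm_num
    rw [this]
    nlinarith

end pt

end Crest.Agent.R136.Ln619
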