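import Crest.Agent.R136.Qgn3_887
import Crest.Agent.R136.LnI_619

/-!
# R136, thin branch (helper619): interior points of a stage of slope `1`

* `LnS Dr Uq lam mm σ` : numbers of `lin` at an interior point
* **`hasLinN2`** : dropped slots `{4, .., 13}`, positions `{A, B, N}`
* **`hasLinN1`** : dropped slots `{4, .., 14}`, `btW 14 ≠ 0`, positions `{A, N}`
-/

set_option autoImplicit false
set_option linter.unusedSectionVars false
set_option linter.unusedVariables false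

open Filter Topology

namespace Crest.Agent.R136.Ln619

open Finset Crest.Agent.R138.Ex926 Crest.Agent.R136.Net191 Crest.Agent.R136.Gf356
open Crest.Agent.R136.Qg926 Crest.Agent.R136.Dg219 Crest.Agent.R136.Aw413
open Crest.Agent.R136.NetW191 Crest.Agent.R136.EvW938 Crest.Agent.R136.PrW464
open Crest.Agent.R136.LadW697 Crest.Agent.R136.AwJ774 Crest.Agent.R136.Bas938
open Crest.Agent.R136.Ht887 Crest.Agent.R136.Win887
open Crest.Agent.R136.Qgn887 (PtN TDs TDs_not StgOk rungN flemN)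
open Crest.Agent.R136.K2S774 Crest.Agent.R136.K2A146 Crest.Agent.R136.NatW697
open Crest.Agent.R136.LadT830 Crest.Agent.R136.ThB830 Crest.Agent.R136.Top484
open Crest.Agent.R136.Dg262 (X)
open Crest.Agent.R136.Rc146 (OutA)

/-- **numbers of `lin` at an interior point**, dropped slots `Dr`, positions `Uq` -/
structure LnS (Dr : Set (Fin 18)) (Uq : Finset (Fin 18)) (lam : (Fin 18 → ℝ) → ℝ)
    (mm σ : ℝ) : Prop where
  m0 : 0 < mm
  s0 : 0 < σ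
  zero : lam 0 = 0
  sharp : ∀ c ∈ cn QW (actW Dr), ∀ c' ∈ cn QW (actW Dr), c ≤ c' →
    lam c - lam c' ≤ ∑ s, (c' s - c s)
  anti : ∀ c ∈ cn QW (actW Dr), ∀ c' ∈ cn QW (actW Dr), c ≤ c' → lam c' ≤ lam c
  own : ∀ c ∈ cn QW (actW Dr), ∀ c' ∈ cn QW (actW Dr), c ≤ c' → c' 0 - c 0 ≤ lam c - lam c'
  num : ∀ x, 0 < x → LnL Uq lam mm σ x
  dn : ∀ x, 0 < x → LnD lam x

/-! ### slots -/

theorem cases_D1 (k : Fin 18) : k ∈ D11 ∨ k ∈ ({1, 14, 15, 16} : Finset (Fin 18)) ∨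
    k ∈ ({0, 2, 3, 17} : Finset (Fin 18)) := by
  revert k; decide

theorem stgOk_aux {Dr Z : Set (Fin 18)} {Dq : Finset (Fin 18)} (hDr : ∀ k, k ∈ Dr ↔ k ∈ Dq)
    (hlo : ∀ k ∈ D11, k ∈ Dq) (h4 : ∀ k ∈ Dq, (4 : Fin 18) ≤ k)
    (hZ : Z = {k | k = 1 ∨ (k ∈ JW 1 ∧ k ∉ Dr)}) : StgOk 1 Dr Z where
  lo := fun k hk => (hDr k).2 (hlo k ((mem_D11 k).1 hk))
  h4 := fun k hk => h4 k ((hDr k).1 hk)
  zz := fun k hk h0 => by
    rw [hZ]
    rcases cases_D1 k with h | h | h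
    · exact absurd ((hDr k).2 (hlo k h)) hk
    · have h1 : ∀ k ∈ ({1, 14, 15, 16} : Finset (Fin 18)), k = 1 ∨ k ∈ JW 1 := by decide
      rcases h1 k h with h2 | h2
      · exact Or.inl h2
      · exact Or.inr ⟨h2, hk⟩
    · rw [TW1_1 k h] at h0; exact absurd h0 one_ne_zero
  z0 := fun k hk hkD => by
    rw [hZ] at hk
    rcases hk with h | ⟨h, -⟩
    · rw [h]; exact TW_c 1
    · have h1 : ∀ k ∈ JW 1, k ∈ ({1, 14, 15, 16} : Finset (Fin 18)) := by decide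
      exact TW1_0 k (h1 k h)

section lin

variable {P : Set (Fin 18 → ℝ)} {ν own : (Fin 18 → ℝ) → ℝ} {K : ℝ} {r0 : Fin 18 → ℝ}
  {θ : Fin 3 → ℝ} {g : ℝ} {q : Fin 3 → ℝ} {V T Z Dr : Set (Fin 18)}
  {lam lo : (Fin 18 → ℝ) → ℝ}

/-- the common frame -/
theorem hasLinN_aux (h : CtxW P ν own K r0 θ g q V T) (hs : ∀ k ∈ V, KW θ k < 1)
    {Uq : Finset (Fin 18)} (hD : StgOk 1 Dr Z)
    (hst : Stage QW P ν own K r0 (btW θ) (DlW g q) (QdW θ) Z V 0 (btW θ) 1 (actW Dr) Dr lam lo)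
    (hnum : ∀ (B Bo : Base) (I J : ℕ → Finset (ℕ × ℝ))
      (co : ∀ n : ℕ, ℕ × ℝ → ℕ × ℝ → Fin 18 → ℝ) (C : ℝ) (κ : ℕ → ℝ) (u : ℕ → Fin 18 → ℝ)
      (f : ℕ → ℕ × ℝ → FW) (lam' : (Fin 18 → ℝ) → ℝ) (A : ℝ × ℝ) (φ : ℕ → (Fin 18 → ℝ) → ℝ)
      (r : ℕ → ℝ),
      PtN B Bo I J co κ u f (mA monW (actW Dr)) Dr C lam' (TDs 1 Dr) (btW θ) A φ r (btW θ)
        (fun k => k ∈ V ∧ KW θ k = 1) (fun k => k ∈ T ∧ k ∈ V ∧ KW θ k = 1) →
      BasG lam' (mA monW (actW Dr)) Dr (TDs 1 Dr) (btW θ) (fun k => k ∈ V ∧ KW θ k = 1) →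
      -A.1 < 4 → ∃ mm σ : ℝ, 0 < mm ∧ 0 < σ ∧ ∀ x, 0 < x → LnL Uq lam' mm σ x) :
    ∃ z : ℝ × ℝ, z.1 < 0 ∧ ∃ k : ℕ → ℝ, (∀ l, 0 < k l) ∧ Tendsto k atTop (𝓝 0) ∧
      ∃ (lamI loI : (Fin 18 → ℝ) → ℝ) (mm σ : ℝ),
        IsTan (cn QW (actW Dr)) (cn QW (actW Dr)) lam (fun _ => X 0 (TDs 1 Dr) (btW θ) z) k lamI ∧
        IsTan (cn QW (actW Dr)) (cn QW (actW Dr)) lo (fun _ => X 0 (TDs 1 Dr) (btW θ) z) k loI ∧
        LnS Dr Uq lamI mm σ := by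
  by_contra hcon
  have hg : 0 < g - q 0 := by
    have := h.q0; have := h.qg; linarith
  refine deadA hst (recW θ _ _) (rungN (s := 1) one_pos hD) hg
    (flemN h one_pos (fun k hk => (hs k hk).le) hD hst (Vis := fun _ => True) ?_)
  intro B Bo I J co C κ u f z k lam' lo' A φ r hz kpos k0 H1 H2 hco hP hO hB hprf _
  rcases le_or_gt 4 (-A.1) with h5 | h5
  · have := full_enough (g := g) (q := q) (s := 1) (C := 0) (A := A) (by linarith)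
    have hq0 := h.q0
    linarith
  · exfalso
    have hVf : ∀ k, ¬ (k ∈ V ∧ KW θ k = 1) := fun k hk => (hs k hk.1).ne hk.2
    obtain ⟨mm, σ, hm, hσ, hn⟩ := hnum B Bo I J co C κ u f lam' A φ r hP hB h5
    refine hcon ⟨z, hz, k, kpos, k0, lam', lo', mm, σ, H1, H2, hm, hσ, hP.aew.zero, ?_, ?_, ?_, hn,
      fun x hx => lnD_of hP hVf hx⟩
    · intro c hc c' hc' hcc
      exact hP.aew.sharp c (by rw [coneM_mA]; exact hc) c' (by rw [coneM_mA]; exact hc') hcc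
    · intro c hc c' hc' hcc
      exact hP.aew.anti c (by rw [coneM_mA]; exact hc) c' (by rw [coneM_mA]; exact hc') hcc
    · intro c hc c' hc' hcc
      have := hP.aew.own c (by rw [coneM_mA]; exact hc) c' (by rw [coneM_mA]; exact hc') hcc
        fun k hk => absurd hk (hVf k)
      linarith

/-- **the interior point of `lin`**, dropped slots `{4, .., 13}` -/
theorem hasLinN2 (h : CtxW P ν own K r0 θ g q V T) (hs : ∀ k ∈ V, KW θ k < 1)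
    (hDr : ∀ k, k ∈ Dr ↔ k ∈ D11) (hZ : Z = {k | k = 1 ∨ (k ∈ JW 1 ∧ k ∉ Dr)})
    (hst : Stage QW P ν own K r0 (btW θ) (DlW g q) (QdW θ) Z V 0 (btW θ) 1 (actW Dr) Dr lam lo) :
    ∃ z : ℝ × ℝ, z.1 < 0 ∧ ∃ k : ℕ → ℝ, (∀ l, 0 < k l) ∧ Tendsto k atTop (𝓝 0) ∧
      ∃ (lamI loI : (Fin 18 → ℝ) → ℝ) (mm σ : ℝ),
        IsTan (cn QW (actW Dr)) (cn QW (actW Dr)) lam (fun _ => X 0 (TDs 1 Dr) (btW θ) z) k lamI ∧
        IsTan (cn QW (actW Dr)) (cn QW (actW Dr)) lo (fun _ => X 0 (TDs 1 Dr) (btW θ) z) k loI ∧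
        LnS Dr {2, 3, 17} lamI mm σ :=
  hasLinN_aux h hs (stgOk_aux hDr (fun k hk => hk) (by decide) hZ) hst
    fun B Bo I J co C κ u f lam' A φ r hP hB h5 =>
      lnL2_of hP hB (fun k hk => TDs_not hk) (fun k hk => (hDr k).2 hk)
        (fun k hk => by
          have h1 : ∀ k ∈ D11, k ∈ D12 := by decide
          exact h1 k ((hDr k).1 hk)) h5

/-- **the interior point of `lin`**, dropped slots `{4, .., 14}` -/
theorem hasLinN1 (h : CtxW P ν own K r0 θ g q V T) (hs : ∀ k ∈ V, KW θ k < 1)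
    (hDr : ∀ k, k ∈ Dr ↔ k ∈ D12) (h14 : btW θ 14 ≠ 0)
    (hZ : Z = {k | k = 1 ∨ (k ∈ JW 1 ∧ k ∉ Dr)})
    (hst : Stage QW P ν own K r0 (btW θ) (DlW g q) (QdW θ) Z V 0 (btW θ) 1 (actW Dr) Dr lam lo) :
    ∃ z : ℝ × ℝ, z.1 < 0 ∧ ∃ k : ℕ → ℝ, (∀ l, 0 < k l) ∧ Tendsto k atTop (𝓝 0) ∧
      ∃ (lamI loI : (Fin 18 → ℝ) → ℝ) (mm σ : ℝ),
        IsTan (cn QW (actW Dr)) (cn QW (actW Dr)) lam (fun _ => X 0 (TDs 1 Dr) (btW θ) z) k lamI ∧
        IsTan (cn QW (actW Dr)) (cn QW (actW Dr)) lo (fun _ => X 0 (TDs 1 Dr) (btW θ) z) k loI ∧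
        LnS Dr {2, 17} lamI mm σ :=
  hasLinN_aux h hs (stgOk_aux hDr (by decide) (by decide) hZ) hst
    fun B Bo I J co C κ u f lam' A φ r hP hB h5 =>
      lnL1_of hP hB (fun k hk => TDs_not hk) (fun k hk => (hDr k).2 hk)
        (fun k hk => (hDr k).1 hk) h14 h5

end lin

end Crest.Agent.R136.Ln619
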