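import Crest.Agent.R136.LnS_619

/-!
# R136, thin branch (helper619): interior points of a stage of slope `1`, numbers at every base

`LnA` : output of the F-half with the splitting `OutA` and the numbers `LnL`, `LnD` at every base
point of the plane; **`hasLinA2`, `hasLinA1`**.
-/

set_option autoImplicit false
set_option linter.unusedSectionVars false
set_option linter.unusedVariables false

open Filter Topology

namespace Crest.Agent.R136.Ln619

open Finset Crest.Agent.R138.Ex926 Crest.Agent.R136.Net191 Crest.Agent.R136.Gf356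
open Crest.Agent.R136.Qg926 Crest.Agent.R136.Dg219 Crest.Agent.R136.Aw413
open Crest.Agent.R136.NetW191 Crest.Agent.R136.EvW938 Crest.Agent.R136.PrW464
open Crest.Agent.R136.LadW697 Crest.Agent.R136.AwJ774 Crest.Agent.R136.Bas938
open Crest.Agent.R136.Ht887 Crest.Agent.R136.Win887
open Crest.Agent.R136.Qgn887 (PtN TDs TDs_not TDs_nonneg natTDs StgOk rungN flemN sweep_recN)
open Crest.Agent.R136.QdH887 (bv bv_in bv_out wdatA)
open Crest.Agent.R136.K2S774 Crest.Agent.R136.K2A146 Crest.Agent.R136.NatW697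
open Crest.Agent.R136.LadT830 Crest.Agent.R136.ThB830 Crest.Agent.R136.Top484
open Crest.Agent.R136.Dg262 (X)
open Crest.Agent.R136.Rc146 (OutA X_eq)

/-- the profile seen from the base point `p` -/
def shp (lam : (Fin 18 → ℝ) → ℝ) (p : Fin 18 → ℝ) : (Fin 18 → ℝ) → ℝ :=
  fun c => lam (p + c) - lam p

/-- **numbers of `lin` at an interior point, at every base of the plane** -/
structure LnA (Dr Z : Set (Fin 18)) (Uq : Finset (Fin 18)) (θ : Fin 3 → ℝ)
    (lam : (Fin 18 → ℝ) → ℝ) (A : ℝ × ℝ) (φ : ℕ → (Fin 18 → ℝ) → ℝ) (r : ℕ → ℝ)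
    (mm σ : ℝ) : Prop where
  s : LnS Dr Uq lam mm σ
  out : OutA (gC (TDs 1 Dr) (btW θ)) (cn QW (actW Dr)) (TDs 1 Dr) (btW θ)
    (dhC (TDs 1 Dr) (btW θ)) (nC (TDs 1 Dr) (btW θ)) lam A φ r
  A4 : -A.1 < 4
  num : ∀ (v : ℝ × ℝ) (x : ℝ), 0 < x → LnL Uq (shp lam (X 0 (TDs 1 Dr) (btW θ) v)) mm σ x
  dn : ∀ (v : ℝ × ℝ) (x : ℝ), 0 < x → LnD (shp lam (X 0 (TDs 1 Dr) (btW θ) v)) x
  ind : ∀ η : ℝ, ∀ c ∈ cn QW (actW Dr), ∀ c' ∈ cn QW (actW Dr), (∀ i ∈ Z, η * btW θ i ≤ c i) →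
    (∀ i, i ∉ Dr → c i = c' i) → lam c = lam c'

theorem X0_eq (a b : Fin 18 → ℝ) (v : ℝ × ℝ) : X 0 a b v = Tn a b v := by
  rw [X_eq, zero_add]

/-- losses in the groups of positive slope do not see the base -/
theorem shift_pos {L : Set (Fin 18 → ℝ)} {T b : Fin 18 → ℝ} {lam : (Fin 18 → ℝ) → ℝ} {A : ℝ × ℝ}
    {φ : ℕ → (Fin 18 → ℝ) → ℝ} {r : ℕ → ℝ} (hO : OutA (gC T b) L T b (dhC T b) (nC T b) lam A φ r)
    (hT0 : ∀ i, 0 ≤ T i) {v : ℝ × ℝ} {c c' : Fin 18 → ℝ} (hc : c ∈ L) (hc' : c' ∈ L)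
    (m : Tn T b v + c ∈ L) (m' : Tn T b v + c' ∈ L) (h : ∀ i, gC T b i = 0 → c i = c' i) :
    lam (Tn T b v + c) - lam (Tn T b v + c') = lam c - lam c' := by
  rw [hO.sum _ m, hO.sum _ m', hO.sum _ hc, hO.sum _ hc', ← sum_sub_distrib, ← sum_sub_distrib]
  refine sum_congr rfl fun k _ => ?_
  by_cases hk : k = 0
  · subst hk
    rw [hO.loc 0 c c' h, hO.loc 0 (Tn T b v + c) (Tn T b v + c') fun i hi => by
      rw [Pi.add_apply, Pi.add_apply, h i hi]]
    ring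
  · have hp : ∀ i, gC T b i = k → 0 < dhC T b i := fun i hi => by
      have h1 : T i ≠ 0 := fun e => hk (by rw [← hi]; exact gC_zero.2 e)
      have h2 : dhC T b i = T i := by unfold dhC; rw [if_neg h1]
      rw [h2]
      exact lt_of_le_of_ne (hT0 i) (Ne.symm h1)
    rw [hO.add k hp v c hc, hO.add k hp v c' hc']
    ring

section lin

variable {P : Set (Fin 18 → ℝ)} {ν own : (Fin 18 → ℝ) → ℝ} {K : ℝ} {r0 : Fin 18 → ℝ}
  {θ : Fin 3 → ℝ} {g : ℝ} {q : Fin 3 → ℝ} {V T Z Dr : Set (Fin 18)}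
  {lam lo lam' : (Fin 18 → ℝ) → ℝ}

/-- **general independence** of the dropped slots at an interior point -/
theorem indG (hD : StgOk 1 Dr Z)
    (H : Stage QW P ν own K r0 (btW θ) (DlW g q) (QdW θ) Z V 0 (btW θ) 1 (actW Dr) Dr lam lo)
    {z : ℝ × ℝ} {k : ℕ → ℝ} (kpos : ∀ l, 0 < k l) (k0 : Tendsto k atTop (𝓝 0))
    (H1 : IsTan (cn QW (actW Dr)) (cn QW (actW Dr)) lam
      (fun _ => X 0 (TDs 1 Dr) (btW θ) z) k lam') (η : ℝ)
    {c c' : Fin 18 → ℝ} (hc : c ∈ cn QW (actW Dr)) (hc' : c' ∈ cn QW (actW Dr))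
    (pc : ∀ i ∈ Z, η * btW θ i ≤ c i) (e : ∀ i, i ∉ Dr → c i = c' i) : lam' c = lam' c' := by
  have hB := bup_of_tan kpos k0 H1
  have L1 := hB.lim _ hc
  have L2 := hB.lim _ hc'
  refine tendsto_nhds_unique L1 (L2.congr fun l => ?_)
  have hy : Nat QW (actW Dr) (X 0 (TDs 1 Dr) (btW θ) z) := by
    rw [X_zero]
    exact ((natTDs hD).smul _).add ((nat_btW _ θ).smul _)
  have hk := kpos l
  have e1 : lam (X 0 (TDs 1 Dr) (btW θ) z + k l • c') =
      lam (X 0 (TDs 1 Dr) (btW θ) z + k l • c) := by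
    refine (H.ind _ (cn_nat_add hy hc hk.le) _ (cn_nat_add hy hc' hk.le) (fun i hi => ?_)
      ⟨z.2 + k l * η, fun i hi => ?_⟩).symm
    · simp only [Pi.add_apply, Pi.smul_apply, smul_eq_mul, e i hi]
    · have hiD : i ∉ Dr := H.ZD i hi
      rw [X_zero]
      simp only [Pi.add_apply, Pi.smul_apply, smul_eq_mul]
      rw [TDs_not hiD, hD.z0 i hi hiD]
      have := mul_le_mul_of_nonneg_left (pc i hi) hk.le
      nlinarith
  rw [e1]

/-- (H5) at every base -/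
theorem h5_base (hD : StgOk 1 Dr Z)
    (H : Stage QW P ν own K r0 (btW θ) (DlW g q) (QdW θ) Z V 0 (btW θ) 1 (actW Dr) Dr lam lo)
    {z : ℝ × ℝ} (hz : z.1 < 0) {k : ℕ → ℝ} (kpos : ∀ l, 0 < k l) (k0 : Tendsto k atTop (𝓝 0))
    (H1 : IsTan (cn QW (actW Dr)) (cn QW (actW Dr)) lam
      (fun _ => X 0 (TDs 1 Dr) (btW θ) z) k lam') (v : ℝ × ℝ) {x : ℝ} (hx : 0 < x)
    (m0 : bv x {0} ∈ cn QW (actW Dr)) {y : ℝ} (hy : 0 ≤ y) :
    shp lam' (X 0 (TDs 1 Dr) (btW θ) v) (Function.update (bv x {0}) 1 y) ≤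
      shp lam' (X 0 (TDs 1 Dr) (btW θ) v) (bv x {0}) - (q 1 + 2 * q 2) * y := by
  have hv : Nat QW (actW Dr) (X 0 (TDs 1 Dr) (btW θ) v) := by
    rw [X_zero]
    exact ((natTDs hD).smul _).add ((nat_btW _ θ).smul _)
  have hc : X 0 (TDs 1 Dr) (btW θ) v + bv x {0} ∈ cn QW (actW Dr) := by
    have := cn_nat_add hv m0 zero_le_one
    rwa [one_smul] at this
  have hXi : ∀ i, X 0 (TDs 1 Dr) (btW θ) v i = v.1 * TDs 1 Dr i + v.2 * btW θ i := fun i => by
    rw [X_zero]; simp only [Pi.add_apply, Pi.smul_apply, smul_eq_mul]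
  have key := H.sweepR (nat_btW _ θ) (TDs_nonneg one_pos Dr) (natTDs hD) (fun i _ => rfl) hz kpos
    k0 H1 (u := e1W) (c' := X 0 (TDs 1 Dr) (btW θ) v + bv x {0}) (mm := q 1 + 2 * q 2)
    (σ := v.2) (h := y) e1W_nonneg hy
    (fun σ h hh _ => by
      have := sweep_recN H σ hh
      linarith) hc (add_e1_mem hc hy) (fun i _ hT => by
      have h0 : i ≠ 0 := fun e => by
        rw [e, hD.TDs0] at hT; exact one_ne_zero hT
      rw [Pi.add_apply, hXi i, hT, bv_out (by rw [mem_singleton]; exact h0)]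
      linarith) (fun i _ hu => by
      have h1 : i = 1 := by
        by_contra hne
        exact hu (by unfold e1W; rw [Pi.single_eq_of_ne hne])
      subst h1
      rw [Pi.add_apply, hXi 1, hD.TDs1, bv_out (by decide)]
      exact ⟨rfl, by ring⟩)
  have e2 : bv x {0} + y • e1W = Function.update (bv x {0}) 1 y := by
    funext k
    rw [Pi.add_apply, Pi.smul_apply, smul_eq_mul]
    by_cases h1 : k = 1
    · rw [h1, Function.update_self, bv_out (by decide)]; simp [e1W]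
    · have : e1W k = 0 := by unfold e1W; rw [Pi.single_eq_of_ne h1]
      rw [Function.update_of_ne h1, this, mul_zero, add_zero]
  rw [add_assoc, e2] at key
  unfold shp
  linarith

/-- density and Frostman conditions at every base -/
theorem lnD_base {pv : Fin 18 → ℝ} {A' : Set (Fin 18)} (hpv : Nat QW (actW Dr) pv)
    (hsharp : ∀ c ∈ cn QW (actW Dr), ∀ c' ∈ cn QW (actW Dr), c ≤ c' →
      lam' c - lam' c' ≤ ∑ s, (c' s - c s))
    (hown : ∀ c ∈ cn QW (actW Dr), ∀ c' ∈ cn QW (actW Dr), c ≤ c' →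
      c' 0 - c 0 ≤ lam' c - lam' c') {x : ℝ} (hx : 0 < x)
    (mt : (fun _ => x : Fin 18 → ℝ) ∈ cn QW (actW Dr))
    (m1 : cut {0} (fun _ => x) 0 ∈ cn QW (actW Dr))
    (m2 : ∀ y : ℝ, 0 ≤ y → (Pi.single 0 y : Fin 18 → ℝ) ∈ cn QW (actW Dr)) :
    LnD (shp lam' pv) x := by
  have add1 : ∀ c ∈ cn QW (actW Dr), pv + c ∈ cn QW (actW Dr) := fun c hc => by
    have := cn_nat_add hpv hc zero_le_one
    rwa [one_smul] at this
  have e0 : cut {0} 0 (fun _ => x) = (Pi.single 0 x : Fin 18 → ℝ) := by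
    funext k
    by_cases hk : k = 0
    · subst hk; rw [cut_of_mem (mem_singleton_self 0), Pi.single_eq_same]
    · rw [cut_of_notMem (by rw [mem_singleton]; exact hk), Pi.single_eq_of_ne hk, Pi.zero_apply]
  have hsin : ∀ y : ℝ, 0 ≤ y → (0 : Fin 18 → ℝ) ≤ Pi.single 0 y := fun y hy k => by
    by_cases hk : k = 0
    · subst hk; rw [Pi.single_eq_same]; exact hy
    · rw [Pi.single_eq_of_ne hk, Pi.zero_apply]
  have hz : pv ∈ cn QW (actW Dr) := hpv.mem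
  have sumS : ∀ y : ℝ, ∑ s, ((pv + (Pi.single 0 y : Fin 18 → ℝ)) s - pv s) = y := fun y => by
    rw [sum_eq_single_of_mem (0 : Fin 18) (mem_univ _)]
    · rw [Pi.add_apply, Pi.single_eq_same]; ring
    · intro j _ hj
      rw [Pi.add_apply, Pi.single_eq_of_ne hj]; ring
  constructor
  · unfold shp
    rw [e0]
    have e1 := hown _ (add1 _ m1) _ (add1 _ mt) (fun k => by
      simp only [Pi.add_apply]
      by_cases hk : k ∈ ({0} : Finset (Fin 18))
      · rw [cut_of_mem hk, Pi.zero_apply, add_zero]; linarith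
      · rw [cut_of_notMem hk])
    have e2 := hsharp _ hz _ (add1 _ (m2 x hx.le)) (fun k => by
      have := hsin x hx.le k
      simp only [Pi.add_apply, Pi.zero_apply] at this ⊢
      linarith)
    rw [sumS] at e2
    rw [Pi.add_apply, Pi.add_apply, cut_of_mem (mem_singleton_self 0), Pi.zero_apply,
      add_zero] at e1
    linarith
  · intro y hy hyx
    unfold shp
    have e2 := hown _ hz _ (add1 _ (m2 y hy)) (fun k => by
      have := hsin y hy k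
      simp only [Pi.add_apply, Pi.zero_apply] at this ⊢
      linarith)
    rw [Pi.add_apply, Pi.single_eq_same] at e2
    linarith

/-- the splitting of `lin` at every base, general positions -/
theorem lnL_base {A : ℝ × ℝ} {φ : ℕ → (Fin 18 → ℝ) → ℝ} {r : ℕ → ℝ} {Uq : Finset (Fin 18)}
    {mm mm' σ x : ℝ} {v : ℝ × ℝ} {T : Fin 18 → ℝ} (hT0 : ∀ i, 0 ≤ T i)
    (hnv : Nat QW (actW Dr) (X 0 T (btW θ) v))
    (hO : OutA (gC T (btW θ)) (cn QW (actW Dr)) T (btW θ)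
      (dhC T (btW θ)) (nC T (btW θ)) lam' A φ r)
    (hT : ∀ k, k ∉ Dr → T k = TW 1 k) (hi : ∀ k ∈ Dr, k ∈ D12)
    (hU : ∀ k ∈ Uq, k ∈ ({2, 3, 17} : Finset (Fin 18)))
    (ma : bv x {0} ∈ cn QW (actW Dr)) (mb : bv x {0, 1, 16} ∈ cn QW (actW Dr))
    (mc : bv x (insert 0 Uq) ∈ cn QW (actW Dr))
    (md : bv x (insert 0 (Uq ∪ {1, 16})) ∈ cn QW (actW Dr))
    (hN : LnL Uq lam' mm' σ x)
    (h5 : ∀ y, 0 ≤ y → shp lam' (X 0 T (btW θ) v) (Function.update (bv x {0}) 1 y) ≤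
      shp lam' (X 0 T (btW θ) v) (bv x {0}) - mm * y) :
    LnL Uq (shp lam' (X 0 T (btW θ) v)) mm σ x := by
  have add1 : ∀ c ∈ cn QW (actW Dr), X 0 T (btW θ) v + c ∈ cn QW (actW Dr) := fun c hc => by
    have := cn_nat_add hnv hc zero_le_one
    rwa [one_smul] at this
  refine ⟨?_, ?_, h5⟩
  · have k1 : ∀ i, gC T (btW θ) i ≠ 0 → bv x {0} i = bv x {0, 1, 16} i :=
      fun i h => bv_z hT hi (fun k => by
        revert k; decide) i h
    have k2 : ∀ i, gC T (btW θ) i ≠ 0 → bv x (insert 0 Uq) i = bv x (insert 0 (Uq ∪ {1, 16})) i :=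
      fun i h => bv_z hT hi (fun k => by
        by_cases h1 : k = 1
        · right; rw [h1]; decide
        by_cases h2 : k = 16
        · right; rw [h2]; decide
        · left; simp [h1, h2]) i h
    have k3 : ∀ i, gC T (btW θ) i = 0 → bv x {0} i = bv x (insert 0 Uq) i :=
      fun i h => bv_p hT hi (fun k => by
        by_cases h1 : k ∈ Uq
        · right
          have h2 : ∀ k ∈ ({2, 3, 17} : Finset (Fin 18)), k ∈ ({0, 2, 3, 17} : Finset (Fin 18)) := by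
            decide
          exact h2 k (hU k h1)
        · left; simp [h1]) i h
    have k4 : ∀ i, gC T (btW θ) i = 0 → bv x {0, 1, 16} i =
        bv x (insert 0 (Uq ∪ {1, 16})) i :=
      fun i h => bv_p hT hi (fun k => by
        by_cases h1 : k ∈ Uq
        · right
          have h2 : ∀ k ∈ ({2, 3, 17} : Finset (Fin 18)), k ∈ ({0, 2, 3, 17} : Finset (Fin 18)) := by
            decide
          exact h2 k (hU k h1)
        · left; simp [h1]) i h
    have := loss_eq hO.toOutS 0 (add1 _ ma) (add1 _ mb) (add1 _ mc) (add1 _ md)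
      (fun i h => by rw [Pi.add_apply, Pi.add_apply, k1 i h])
      (fun i h => by rw [Pi.add_apply, Pi.add_apply, k2 i h])
      (fun i h => by rw [Pi.add_apply, Pi.add_apply, k3 i h])
      (fun i h => by rw [Pi.add_apply, Pi.add_apply, k4 i h])
    unfold shp
    linarith
  · have k3 : ∀ i, gC T (btW θ) i = 0 → bv x {0} i = bv x (insert 0 Uq) i :=
      fun i h => bv_p hT hi (fun k => by
        by_cases h1 : k ∈ Uq
        · right
          have h2 : ∀ k ∈ ({2, 3, 17} : Finset (Fin 18)), k ∈ ({0, 2, 3, 17} : Finset (Fin 18)) := by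
            decide
          exact h2 k (hU k h1)
        · left; simp [h1]) i h
    have m1 := add1 _ ma
    have m2 := add1 _ mc
    rw [X0_eq] at m1 m2
    have := shift_pos hO hT0 ma mc m1 m2 k3
    have h4 := hN.h4
    unfold shp
    rw [X0_eq]
    linarith

/-- the common frame, numbers at every base -/
theorem hasLinA_aux (h : CtxW P ν own K r0 θ g q V T) (hs : ∀ k ∈ V, KW θ k < 1)
    {Uq : Finset (Fin 18)} (hD : StgOk 1 Dr Z) (hlo : ∀ k ∈ D11, k ∈ Dr) (hi : ∀ k ∈ Dr, k ∈ D12)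
    (hU : ∀ k ∈ Uq, k ∈ ({2, 3, 17} : Finset (Fin 18)))
    (hb : OkQ D11 (ind {0}) ∧ OkQ D11 (ind {0, 1, 16}))
    (hmc : ∀ x : ℝ, 0 < x → bv x (insert 0 Uq) ∈ cn QW (actW Dr))
    (hmd : ∀ x : ℝ, 0 < x → bv x (insert 0 (Uq ∪ {1, 16})) ∈ cn QW (actW Dr))
    (hst : Stage QW P ν own K r0 (btW θ) (DlW g q) (QdW θ) Z V 0 (btW θ) 1 (actW Dr) Dr lam lo)
    (hnum : ∀ (B Bo : Base) (I J : ℕ → Finset (ℕ × ℝ))
      (co : ∀ n : ℕ, ℕ × ℝ → ℕ × ℝ → Fin 18 → ℝ) (C : ℝ) (κ : ℕ → ℝ) (u : ℕ → Fin 18 → ℝ)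
      (f : ℕ → ℕ × ℝ → FW) (lam' : (Fin 18 → ℝ) → ℝ) (A : ℝ × ℝ) (φ : ℕ → (Fin 18 → ℝ) → ℝ)
      (r : ℕ → ℝ),
      PtN B Bo I J co κ u f (mA monW (actW Dr)) Dr C lam' (TDs 1 Dr) (btW θ) A φ r (btW θ)
        (fun k => k ∈ V ∧ KW θ k = 1) (fun k => k ∈ T ∧ k ∈ V ∧ KW θ k = 1) →
      BasG lam' (mA monW (actW Dr)) Dr (TDs 1 Dr) (btW θ) (fun k => k ∈ V ∧ KW θ k = 1) →
      -A.1 < 4 → ∃ mm σ : ℝ, 0 < mm ∧ 0 < σ ∧ ∀ x, 0 < x → LnL Uq lam' mm σ x) :
    ∃ z : ℝ × ℝ, z.1 < 0 ∧ ∃ k : ℕ → ℝ, (∀ l, 0 < k l) ∧ Tendsto k atTop (𝓝 0) ∧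
      ∃ (lamI loI : (Fin 18 → ℝ) → ℝ) (A : ℝ × ℝ) (φ : ℕ → (Fin 18 → ℝ) → ℝ) (r : ℕ → ℝ)
        (mm σ : ℝ),
        IsTan (cn QW (actW Dr)) (cn QW (actW Dr)) lam (fun _ => X 0 (TDs 1 Dr) (btW θ) z) k lamI ∧
        IsTan (cn QW (actW Dr)) (cn QW (actW Dr)) lo (fun _ => X 0 (TDs 1 Dr) (btW θ) z) k loI ∧
        LnA Dr Z Uq θ lamI A φ r mm σ := by
  by_contra hcon
  have hg : 0 < g - q 0 := by
    have := h.q0; have := h.qg; linarith
  refine deadA hst (recW θ _ _) (rungN (s := 1) one_pos hD) hg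
    (flemN h one_pos (fun k hk => (hs k hk).le) hD hst (Vis := fun _ => True) ?_)
  intro B Bo I J co C κ u f z k lam' lo' A φ r hz kpos k0 H1 H2 hco hP hO hB hprf _
  rcases le_or_gt 4 (-A.1) with h5 | h5
  · have := full_enough (g := g) (q := q) (s := 1) (C := 0) (A := A) (by linarith)
    have hq0 := h.q0
    linarith
  · exfalso
    have hVf : ∀ k, ¬ (k ∈ V ∧ KW θ k = 1) := fun k hk => (hs k hk.1).ne hk.2
    obtain ⟨mm', σ, hm, hσ, hn⟩ := hnum B Bo I J co C κ u f lam' A φ r hP hB h5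
    have hmm : 0 < q 1 + 2 * q 2 := by linarith [h.q1, h.q2]
    have mem : ∀ Q, OkQ D11 (ind Q) → ∀ x : ℝ, 0 < x → bv x Q ∈ cn QW (actW Dr) :=
      fun Q hQ x hx => by
      have := okQ_mem hP.act hlo hQ hx.le
      rwa [coneM_mA] at this
    have sharp : ∀ c ∈ cn QW (actW Dr), ∀ c' ∈ cn QW (actW Dr), c ≤ c' →
        lam' c - lam' c' ≤ ∑ s, (c' s - c s) := by
      intro c hc c' hc' hcc
      exact hP.aew.sharp c (by rw [coneM_mA]; exact hc) c' (by rw [coneM_mA]; exact hc') hcc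
    have anti : ∀ c ∈ cn QW (actW Dr), ∀ c' ∈ cn QW (actW Dr), c ≤ c' → lam' c' ≤ lam' c := by
      intro c hc c' hc' hcc
      exact hP.aew.anti c (by rw [coneM_mA]; exact hc) c' (by rw [coneM_mA]; exact hc') hcc
    have own' : ∀ c ∈ cn QW (actW Dr), ∀ c' ∈ cn QW (actW Dr), c ≤ c' →
        c' 0 - c 0 ≤ lam' c - lam' c' := by
      intro c hc c' hc' hcc
      have := hP.aew.own c (by rw [coneM_mA]; exact hc) c' (by rw [coneM_mA]; exact hc') hcc
        fun k hk => absurd hk (hVf k)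
      linarith
    have hnv : ∀ v, Nat QW (actW Dr) (X 0 (TDs 1 Dr) (btW θ) v) := fun v => by
      rw [X_zero]
      exact ((natTDs hD).smul _).add ((nat_btW _ θ).smul _)
    have num : ∀ (v : ℝ × ℝ) (x : ℝ), 0 < x →
        LnL Uq (shp lam' (X 0 (TDs 1 Dr) (btW θ) v)) (q 1 + 2 * q 2) σ x := fun v x hx =>
      lnL_base (TDs_nonneg one_pos Dr) (hnv v) hO (fun k hk => TDs_not hk) hi hU (mem _ hb.1 x hx)
        (mem _ hb.2 x hx) (hmc x hx) (hmd x hx) (hn x hx) fun y hy =>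
          h5_base hD hst hz kpos k0 H1 v hx (mem _ hb.1 x hx) hy
    have m2 : ∀ y : ℝ, 0 ≤ y → (Pi.single 0 y : Fin 18 → ℝ) ∈ cn QW (actW Dr) := fun y hy => by
      have := okQ_mem hP.act hlo hb.1 hy
      rw [coneM_mA] at this
      convert this using 1
      funext k
      by_cases hk : k = 0
      · subst hk; rw [Pi.single_eq_same, bv_in (by decide)]
      · rw [Pi.single_eq_of_ne hk, bv_out (by rw [mem_singleton]; exact hk)]
    have mt : ∀ x : ℝ, 0 < x → (fun _ => x : Fin 18 → ℝ) ∈ cn QW (actW Dr) := fun x hx => by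
      rw [← coneM_mA, hP.act.cone]
      intro k hk l hl hls
      have h1 : ∀ k, ∀ l ∈ mlW k, 1 ≤ l.length := by decide
      rw [List.map_const', List.sum_replicate, nsmul_eq_mul]
      have h2 : (1 : ℝ) ≤ (l.length : ℝ) := by exact_mod_cast h1 k l hl
      nlinarith
    have m1 : ∀ x : ℝ, 0 < x → cut {0} (fun _ => x) 0 ∈ cn QW (actW Dr) := fun x hx => by
      have h1 : OkQ D11 (ind ({0}ᶜ : Finset (Fin 18))) := by decide
      have := mem _ h1 x hx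
      convert this using 1
      funext k
      by_cases hk : k ∈ ({0} : Finset (Fin 18))
      · rw [cut_of_mem hk, bv_out (by rw [mem_compl]; exact fun h => h hk), Pi.zero_apply]
      · rw [cut_of_notMem hk, bv_in (by rw [mem_compl]; exact hk)]
    have dn : ∀ (v : ℝ × ℝ) (x : ℝ), 0 < x →
        LnD (shp lam' (X 0 (TDs 1 Dr) (btW θ) v)) x := fun v x hx =>
      lnD_base (A' := Dr) (hnv v) sharp own' hx (mt x hx) (m1 x hx) m2
    have e0 : shp lam' (X 0 (TDs 1 Dr) (btW θ) (0, 0)) = lam' := by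
      funext c
      unfold shp
      rw [X_zero, zero_smul, zero_smul, add_zero, zero_add, hP.aew.zero, sub_zero]
    refine hcon ⟨z, hz, k, kpos, k0, lam', lo', A, φ, r, q 1 + 2 * q 2, σ, H1, H2,
      ⟨⟨hmm, hσ, hP.aew.zero, sharp, anti, own', fun x hx => ?_, fun x hx => ?_⟩, hO, h5, num, dn,
        fun η c hc c' hc' pc e => indG hD hst kpos k0 H1 η hc hc' pc e⟩⟩
    · have := num (0, 0) x hx
      rwa [e0] at this
    · have := dn (0, 0) x hx
      rwa [e0] at this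

/-- **the interior point of `lin`**, dropped slots `{4, .., 13}`, numbers at every base -/
theorem hasLinA2 (h : CtxW P ν own K r0 θ g q V T) (hs : ∀ k ∈ V, KW θ k < 1)
    (hDr : ∀ k, k ∈ Dr ↔ k ∈ D11) (hZ : Z = {k | k = 1 ∨ (k ∈ JW 1 ∧ k ∉ Dr)})
    (hst : Stage QW P ν own K r0 (btW θ) (DlW g q) (QdW θ) Z V 0 (btW θ) 1 (actW Dr) Dr lam lo) :
    ∃ z : ℝ × ℝ, z.1 < 0 ∧ ∃ k : ℕ → ℝ, (∀ l, 0 < k l) ∧ Tendsto k atTop (𝓝 0) ∧
      ∃ (lamI loI : (Fin 18 → ℝ) → ℝ) (A : ℝ × ℝ) (φ : ℕ → (Fin 18 → ℝ) → ℝ) (r : ℕ → ℝ)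
        (mm σ : ℝ),
        IsTan (cn QW (actW Dr)) (cn QW (actW Dr)) lam (fun _ => X 0 (TDs 1 Dr) (btW θ) z) k lamI ∧
        IsTan (cn QW (actW Dr)) (cn QW (actW Dr)) lo (fun _ => X 0 (TDs 1 Dr) (btW θ) z) k loI ∧
        LnA Dr Z {2, 3, 17} θ lamI A φ r mm σ := by
  have hlo : ∀ k ∈ D11, k ∈ Dr := fun k hk => (hDr k).2 hk
  have mem : ∀ Q, OkQ D11 (ind Q) → ∀ x : ℝ, 0 < x → bv x Q ∈ cn QW (actW Dr) :=
    fun Q hQ x hx => by
    have := okQ_mem (actM_mA Dr) hlo hQ hx.le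
    rwa [coneM_mA] at this
  exact hasLinA_aux h hs (stgOk_aux hDr (fun k hk => hk) (by decide) hZ) hlo
    (fun k hk => by
      have h1 : ∀ k ∈ D11, k ∈ D12 := by decide
      exact h1 k ((hDr k).1 hk)) (by decide) ⟨by decide, by decide⟩ (mem _ (by decide))
    (mem _ (by decide)) hst
    fun B Bo I J co C κ u f lam' A φ r hP hB h5 =>
      lnL2_of hP hB (fun k hk => TDs_not hk) (fun k hk => (hDr k).2 hk)
        (fun k hk => by
          have h1 : ∀ k ∈ D11, k ∈ D12 := by decide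
          exact h1 k ((hDr k).1 hk)) h5

/-- **the interior point of `lin`**, dropped slots `{4, .., 14}`, numbers at every base -/
theorem hasLinA1 (h : CtxW P ν own K r0 θ g q V T) (hs : ∀ k ∈ V, KW θ k < 1)
    (hDr : ∀ k, k ∈ Dr ↔ k ∈ D12) (h14 : btW θ 14 ≠ 0)
    (hZ : Z = {k | k = 1 ∨ (k ∈ JW 1 ∧ k ∉ Dr)})
    (hst : Stage QW P ν own K r0 (btW θ) (DlW g q) (QdW θ) Z V 0 (btW θ) 1 (actW Dr) Dr lam lo) :
    ∃ z : ℝ × ℝ, z.1 < 0 ∧ ∃ k : ℕ → ℝ, (∀ l, 0 < k l) ∧ Tendsto k atTop (𝓝 0) ∧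
      ∃ (lamI loI : (Fin 18 → ℝ) → ℝ) (A : ℝ × ℝ) (φ : ℕ → (Fin 18 → ℝ) → ℝ) (r : ℕ → ℝ)
        (mm σ : ℝ),
        IsTan (cn QW (actW Dr)) (cn QW (actW Dr)) lam (fun _ => X 0 (TDs 1 Dr) (btW θ) z) k lamI ∧
        IsTan (cn QW (actW Dr)) (cn QW (actW Dr)) lo (fun _ => X 0 (TDs 1 Dr) (btW θ) z) k loI ∧
        LnA Dr Z {2, 17} θ lamI A φ r mm σ := by
  have hlo : ∀ k ∈ D11, k ∈ Dr := fun k hk => (hDr k).2 (by revert k; decide)
  have hlo2 : ∀ k ∈ D12, k ∈ Dr := fun k hk => (hDr k).2 hk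
  have mem : ∀ Q, OkQ D12 (ind Q) → ∀ x : ℝ, 0 < x → bv x Q ∈ cn QW (actW Dr) :=
    fun Q hQ x hx => by
    have := okQ_mem (actM_mA Dr) hlo2 hQ hx.le
    rwa [coneM_mA] at this
  exact hasLinA_aux h hs (stgOk_aux hDr (by decide) (by decide) hZ) hlo
    (fun k hk => (hDr k).1 hk) (by decide) ⟨by decide, by decide⟩ (mem _ (by decide))
    (mem _ (by decide)) hst
    fun B Bo I J co C κ u f lam' A φ r hP hB h5 =>
      lnL1_of hP hB (fun k hk => TDs_not hk) (fun k hk => (hDr k).2 hk)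
        (fun k hk => (hDr k).1 hk) h14 h5

/-- the own profile if nothing is visible -/
theorem own_tan (H : Stage QW P ν own K r0 (btW θ) (DlW g q) (QdW θ) Z V 0 (btW θ) 1 (actW Dr)
      Dr lam lo) (hV : ∀ k, k ∉ V) {y : Fin 18 → ℝ} (hy : Nat QW (actW Dr) y) {k : ℕ → ℝ}
    (kpos : ∀ l, 0 < k l) (k0 : Tendsto k atTop (𝓝 0)) {loI : (Fin 18 → ℝ) → ℝ}
    (H2 : IsTan (cn QW (actW Dr)) (cn QW (actW Dr)) lo (fun _ => y) k loI) :
    ∀ c ∈ cn QW (actW Dr), loI c = -(c 0) := by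
  intro c hc
  have L1 := (bup_of_tan kpos k0 H2).lim _ hc
  refine tendsto_nhds_unique L1 (tendsto_const_nhds.congr fun l => ?_)
  have hk := kpos l
  rw [H.ownr _ (cn_nat_add hy hc hk.le) fun i hi => absurd hi (hV i),
    H.ownr _ hy.mem fun i hi => absurd hi (hV i)]
  simp only [Pi.add_apply, Pi.smul_apply, smul_eq_mul]
  field_simp
  ring

end lin

end Crest.Agent.R136.Ln619
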