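import Crest.Agent.R136.LnN_619

/-!
# R136, thin branch (helper619): the window of `lin` (rung `s = 1`)

* `LnW Dq Uq W κ u f mm σ x` : window with `S = {0}`, every top `x`, tight walls between the slots
  which are not dropped, the other walls at infinite distance, `|κ| ≥ ρ^ε`, density and Frostman
  conditions, legality, and the numbers of `LnL` in `W.nu`
* `LnW.of_lnL` : the numbers from `LnL`
* `LnW.modelE` : pruned set and `RModel` inside any dense part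
* **`exists_lnW`** : at a point `PtN`, inside any dense set `J'`, with any losses
-/

set_option autoImplicit false
set_option linter.unusedSectionVars false
set_option linter.unusedVariables false

open Filter Topology

namespace Crest.Agent.R136.Ln619

open Finset Crest.Agent.R138.Ex926 Crest.Agent.R136.Net191 Crest.Agent.R136.Gf356
open Crest.Agent.R136.Qg926 Crest.Agent.R136.Dg219 Crest.Agent.R136.Aw413
open Crest.Agent.R136.NetW191 Crest.Agent.R136.EvW938 Crest.Agent.R136.PrW464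
open Crest.Agent.R136.LadW697 Crest.Agent.R136.AwJ774 Crest.Agent.R136.Bas938
open Crest.Agent.R136.Ht887 Crest.Agent.R136.Win887 Crest.Agent.R136.Qgn887
open Crest.Agent.R136.QdH887 (bv bv_in bv_out wdatA)
open Crest.Agent.R136.K2S774 (cn)

/-- **the window of `lin`** : positions `Uq`, velocities `{1, 16}`, dropped slots `Dq` -/
structure LnW (Dq Uq : Finset (Fin 18)) (W : Wnd 18 fun _ => ℕ × ℝ) (κ : ℕ → ℝ)
    (u : ℕ → Fin 18 → ℝ) (f : ∀ n : ℕ, ℕ × ℝ → FW) (mm σ x : ℝ) : Prop where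
  x0 : 0 < x
  m0 : 0 < mm
  s0 : 0 < σ
  ww : WWnd W κ u f
  eS : W.S = {0}
  etop : W.top = fun _ => x
  ekap : W.kap = fun _ => 1
  dw : ∀ n, W.B'.d n = W.B.d n ^ W.w n
  hk : ∀ ε : ℝ, 0 < ε → ∀ᶠ n in (U : Filter ℕ), W.B'.d n ^ ε ≤ |κ n|
  /-- walls between slots which are not dropped -/
  tight : ∀ k, k ∉ Dq → ∀ l ∈ mlW k, (∀ s ∈ l, s ∉ Dq) → ∀ n, W.X n k = (l.map (W.X n)).sum
  /-- the other walls are at infinite distance -/
  gap : ∀ k, ∀ l ∈ mlW k, (k ∈ Dq ∨ ∃ s ∈ l, s ∈ Dq) → ∀ R : ℝ, ∀ᶠ n in (U : Filter ℕ),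
    W.X n k + R * W.w n ≤ (l.map (W.X n)).sum
  room : ∀ s, ∀ R : ℝ, ∀ᶠ n in (U : Filter ℕ), R * W.w n ≤ W.X n s
  dens : W.lam W.top ≤ W.lam (cut W.S W.top 0) + W.lam (cut W.S 0 W.top)
  frost : ∀ y : ℝ, 0 ≤ y → y ≤ x → W.lam (Pi.single 0 y) ≤ -(1 * y)
  /-- legal boxes -/
  leg : ∀ p : Fin 18 → ℝ, (∀ s, 0 ≤ p s) → (∀ s, p s ≤ x) →
    (∀ k, k ∉ Dq → ∀ l ∈ mlW k, (∀ s ∈ l, s ∉ Dq) →
      cut {0} p (fun _ => x) k ≤ (l.map (cut {0} p (fun _ => x))).sum) → p ∈ W.legW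
  n3 : W.nu 0 + W.nu (bv x (Uq ∪ {1, 16})) ≤ W.nu (bv x Uq) + W.nu (bv x {1, 16})
  n4 : W.nu 0 - ((Uq.card : ℝ) - σ) * x ≤ W.nu (bv x Uq)
  n5 : ∀ y, 0 ≤ y → W.nu (Pi.single 1 y) ≤ W.nu 0 - mm * y

section fin

variable {Dq Uq : Finset (Fin 18)} {W : Wnd 18 fun _ => ℕ × ℝ} {κ : ℕ → ℝ}
  {u : ℕ → Fin 18 → ℝ} {f : ∀ n : ℕ, ℕ × ℝ → FW} {mm σ x : ℝ}

theorem cut_bv (x : ℝ) (Q : Finset (Fin 18)) :
    cut {0} (bv x Q) (fun _ => x) = bv x (insert 0 Q) := by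
  funext s
  by_cases h0 : s = 0
  · subst h0
    rw [cut_of_mem (mem_singleton_self 0), bv_in (mem_insert_self _ _)]
  · rw [cut_of_notMem (by rw [mem_singleton]; exact h0)]
    unfold bv
    simp only [mem_insert, h0, false_or]

theorem cut_zero0 (x : ℝ) : cut {0} (0 : Fin 18 → ℝ) (fun _ => x) = bv x {0} := by
  have e : (0 : Fin 18 → ℝ) = bv x ∅ := by funext s; simp [bv]
  rw [e, cut_bv]
  rfl

theorem cut_one (x y : ℝ) : cut {0} (Pi.single (1 : Fin 18) y) (fun _ => x) =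
    Function.update (bv x {0}) 1 y := by
  funext s
  by_cases h0 : s = 0
  · subst h0
    rw [cut_of_mem (mem_singleton_self 0), Function.update_of_ne (by decide),
      bv_in (mem_singleton_self 0)]
  · rw [cut_of_notMem (by rw [mem_singleton]; exact h0)]
    by_cases h1 : s = 1
    · subst h1; rw [Pi.single_eq_same, Function.update_self]
    · rw [Pi.single_eq_of_ne h1, Function.update_of_ne h1,
        bv_out (by rw [mem_singleton]; exact h0)]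

/-- **the numbers of the window from the numbers of the tangent** -/
theorem LnL.nums {lam : (Fin 18 → ℝ) → ℝ} (h : LnL Uq lam mm σ x) (eS : W.S = {0})
    (etop : W.top = fun _ => x) (elam : W.lam = lam) :
    (W.nu 0 + W.nu (bv x (Uq ∪ {1, 16})) ≤ W.nu (bv x Uq) + W.nu (bv x {1, 16})) ∧
    (W.nu 0 - ((Uq.card : ℝ) - σ) * x ≤ W.nu (bv x Uq)) ∧
    (∀ y, 0 ≤ y → W.nu (Pi.single 1 y) ≤ W.nu 0 - mm * y) := by
  have hnu : ∀ p, W.nu p = lam (cut {0} p fun _ => x) - lam fun _ => x := by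
    intro p
    unfold Wnd.nu
    rw [eS, etop, elam]
  have c0 := cut_zero0 x
  have c1 := cut_bv x (Uq ∪ {1, 16})
  have c2 := cut_bv x Uq
  have c3 := cut_bv x {1, 16}
  have e3 : insert (0 : Fin 18) ({1, 16} : Finset (Fin 18)) = {0, 1, 16} := rfl
  rw [e3] at c3
  refine ⟨?_, ?_, fun y hy => ?_⟩
  · rw [hnu, hnu, hnu, hnu, c0, c1, c2, c3]
    linarith [h.h3]
  · rw [hnu, hnu, c0, c2]
    linarith [h.h4]
  · rw [hnu, hnu, cut_one, c0]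
    linarith [h.h5 y hy]

/-- integral boxes are legal -/
theorem LnW.legb (g : LnW Dq Uq W κ u f mm σ x) {Q : Finset (Fin 18)}
    (hQ : OkQ Dq (ind (insert 0 Q))) : bv x Q ∈ W.legW := by
  have hx := g.x0
  refine g.leg _ (fun s => by unfold bv; split_ifs; exacts [hx.le, le_rfl])
    (fun s => by unfold bv; split_ifs; exacts [le_rfl, hx.le]) fun k hk l hl hs => ?_
  rw [cut_bv, bv_eq, sum_scV]
  refine mul_le_mul_of_nonneg_left ?_ hx.le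
  rcases hQ k l hl with h1 | ⟨s, h1, h2⟩ | h1
  · exact absurd h1 hk
  · exact absurd h2 (hs s h1)
  · exact_mod_cast h1

/-- the box `0` is legal -/
theorem LnW.leg0 (g : LnW Dq Uq W κ u f mm σ x) (hQ : OkQ Dq (ind {0})) :
    (0 : Fin 18 → ℝ) ∈ W.legW := by
  have := g.legb (Q := ∅) (by simpa using hQ)
  have e : bv x ∅ = 0 := by funext s; simp [bv]
  rwa [e] at this

/-- **pruned set and model** inside a dense part -/
theorem LnW.modelE (g : LnW Dq Uq W κ u f mm σ x) {E : ∀ n : ℕ, Finset (ℕ × ℝ)} {Mu : ℕ → ℝ}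
    (hE : Wnd.EOk W E Mu) (ex : ℕ → ∀ n : ℕ, ℕ × ℝ → ℕ) {g₀ : ℕ → ℝ}
    (hg₀ : Tendsto g₀ U atTop) :
    ∃ (E' : ∀ n : ℕ, Finset (ℕ × ℝ)) (gg : ℕ → ℝ), Wnd.Pruned W E E' gg ex ∧
      (∀ᶠ n in (U : Filter ℕ), gg n ≤ g₀ n) ∧ EvG W E' ∧
      RModel W.B' (W.cfg E') 1 x W.legW W.nu W.Dc := by
  have hz : W.kz = 0 := g.ww.kz
  obtain ⟨E', gg, h1, h2, h3⟩ := Wnd.EOk.exists_model (σ := 1) (R := x) g.ww.ok hE ex hg₀ g.dens
    zero_le_one le_rfl (by rw [g.etop]) (fun y h0 h1 => by rw [hz]; exact g.frost y h0 h1)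
  refine ⟨E', gg, h1, h2, ?_, h3⟩
  filter_upwards [Wnd.ev_cfg g.ww.ok hE h1] with n hn
  exact ⟨hn.1, (h1.sub n).trans hn.2.1, hn.2.2.2⟩

/-- **pruned set and model** -/
theorem LnW.model (g : LnW Dq Uq W κ u f mm σ x) : ∃ E : ∀ n : ℕ, Finset (ℕ × ℝ), EvG W E ∧
    RModel W.B' (W.cfg E) 1 x W.legW W.nu W.Dc := by
  obtain ⟨E', gg, -, -, h1, h2⟩ := g.modelE g.ww.ok.eok_section (fun _ _ _ => 0)
    (g₀ := fun n => 1 + W.B'.L n)
    (tendsto_atTop.2 fun b => (W.B'.ev_L_ge b).mono fun n hn => by linarith)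
  exact ⟨E', h1, h2⟩

end fin

section pt

variable {B Bo : Base} {I J : ∀ n : ℕ, Finset (ℕ × ℝ)}
  {co : ∀ n : ℕ, ℕ × ℝ → ℕ × ℝ → Fin 18 → ℝ} {kp : ℕ → ℝ} {u : ℕ → Fin 18 → ℝ}
  {F : ∀ n : ℕ, ℕ × ℝ → FW} {Ma : Mons 18} {Dr : Set (Fin 18)} {C : ℝ}
  {lam : (Fin 18 → ℝ) → ℝ} {a b : Fin 18 → ℝ} {A : ℝ × ℝ} {φ : ℕ → (Fin 18 → ℝ) → ℝ}
  {r : ℕ → ℝ} {κ : Fin 18 → ℝ} {V Tw : Fin 18 → Prop} {Dq Uq : Finset (Fin 18)}

/-- **the window of `lin`** from the numbers of the tangent -/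
theorem exists_lnW (h : PtN B Bo I J co kp u F Ma Dr C lam a b A φ r κ V Tw)
    (hDq : ∀ k, k ∈ Dr ↔ k ∈ Dq)
    (hV : ∀ k, ¬ V k) {mm σ x : ℝ} (hm : 0 < mm) (hσ : 0 < σ) (hx : 0 < x)
    (hn : LnL Uq lam mm σ x)
    (s : ℕ → ℕ → ℝ) (hs : ∀ i, Bo.Sub (s i)) (J' : ∀ n : ℕ, Finset (ℕ × ℝ)) (Sd : ℕ → ℝ)
    (hJ : ∀ᶠ n in (U : Filter ℕ), J' n ⊆ J n) (hne : ∀ᶠ n in (U : Filter ℕ), (J' n).Nonempty)
    (hSd : Bo.Sub Sd) (hcard : ∀ᶠ n in (U : Filter ℕ), ((J n).card : ℝ) ≤ Sd n * (J' n).card) :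
    ∃ W : Wnd 18 fun _ => ℕ × ℝ,
      WAt B I co monW Ma C lam V Tw (wst Ma (fun _ => 0) (fun _ => 1) 1 {0} x) W ∧
      (∀ i, W.B'.Sub (s i)) ∧ (∀ᶠ n in (U : Filter ℕ), W.Cl n ⊆ J' n) ∧
      LnW Dq Uq W kp u F mm σ x := by
  have hA := h.act
  have hd := wdatA
  have hden := PtN.dens0 h hd hx fun k hk => absurd hk (hV k)
  have hst := wst_ok hA hd hx.le
  have h0 : scV x (fun _ : Fin 18 => 0) ∈ coneM Ma := (off_mem hA hd hx.le).1
  obtain ⟨W, g1, g2, g3⟩ := h.aew.wndO (scV x fun _ => 0) h0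
    (wst Ma (fun _ => 0) (fun _ => 1) 1 {0} x) rfl hst
    (fun i => if i = 0 then fun n => |kp n|⁻¹ else s (i - 1)) (fun i => by
      by_cases hi : i = 0
      · simp only [hi, if_true]; exact h.ch.ks
      · simp only [hi, if_false]; exact hs _) J' Sd hJ hne hSd hcard
  have gk : W.B'.Sub fun n => |kp n|⁻¹ := by simpa using g2 0
  have gs : ∀ i, W.B'.Sub (s i) := fun i => by simpa using g2 (i + 1)
  have e0 : scV x (fun _ : Fin 18 => 0) = 0 := scV_zero x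
  have et : scV x (fun _ : Fin 18 => 1) = fun _ => x := by
    funext k; simp [scV]
  have elam : W.lam = lam := by
    rw [g1.elam, e0]
    funext p
    rw [zero_add, h.aew.zero, sub_zero]
  have ww : WWnd W kp u F :=
    { ok := g1.ok
      hκ := h.ch.k1
      hl := h.ch.gr
      hM := g1.eM
      hco := fun n i hi j hj s => by
        rw [g1.eI] at hi hj
        rw [g1.eco]
        exact h.ch.co n i hi j hj s
      kz := g1.ekz
      h0 := by rw [g1.eS]; exact hd.zS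
      hS := by rw [g1.eS]; exact hd.hS }
  have eS : W.S = {0} := g1.eS
  have etop : W.top = fun _ => x := g1.etop.trans et
  have hwat : WAt B I co monW Ma C lam V Tw (wst Ma (fun _ => 0) (fun _ => 1) 1 {0} x) W := by
    rw [e0] at g1
    exact g1.toWAt h.aew.zero
  obtain ⟨n3, n4, n5⟩ := hn.nums eS etop elam
  refine ⟨W, hwat, gs, g3, ?_⟩
  refine
    { x0 := hx
      m0 := hm
      s0 := hσ
      ww := ww
      eS := eS
      etop := etop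
      ekap := g1.ekap
      dw := g1.dw
      hk := ?_
      tight := ?_
      gap := ?_
      room := g1.room
      dens := ?_
      frost := ?_
      leg := ?_
      n3 := n3
      n4 := n4
      n5 := n5 }
  · intro ε hε
    filter_upwards [gk.ev_le hε, gk.1.pos] with n hn hpos
    have h3 : 0 < |kp n| := inv_pos.1 hpos
    have h5 := hn.2
    rw [Real.log_inv] at h5
    rw [Real.rpow_def_of_pos (W.B'.pos n), ← Real.exp_log h3]
    refine Real.exp_le_exp.2 ?_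
    unfold Base.L at h5
    linarith
  · intro k hk l hl hls n
    have := hwat.act k _ ((hA.iff k _).2 ⟨fun h1 => hk ((hDq k).1 h1), l, hl,
      fun s hs' h1 => hls s hs' ((hDq s).1 h1), rfl⟩) n
    rwa [← sum_count] at this
  · intro k l hl hor R
    have := hwat.gap k (fun s => l.count s) (mem_monW.2 ⟨l, hl, rfl⟩) (fun he => by
      obtain ⟨hkD, l', hl', hls', e⟩ := (hA.iff k _).1 he
      rcases hor with h1 | ⟨s, hs', h1⟩
      · exact hkD ((hDq k).2 h1)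
      · have h2 : 0 < l.count s := List.count_pos_iff.2 hs'
        have h3 : l.count s = l'.count s := congrFun e s
        rw [h3] at h2
        exact hls' s (List.count_pos_iff.1 h2) ((hDq s).2 h1)) R
    filter_upwards [this] with n hn
    rwa [← sum_count] at hn
  · have := hden.dens
    rw [elam, etop, eS]
    rw [e0] at this
    simp only [zero_add, h.aew.zero, sub_zero] at this
    have e1 : (wst Ma (fun _ => 0) (fun _ => 1) 1 {0} x).top = fun _ => x := et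
    have e2 : (wst Ma (fun _ => 0) (fun _ => 1) 1 {0} x).S = {0} := rfl
    rw [e1, e2] at this
    exact this
  · intro y hy hyx
    have := hden.frost y hy hyx
    rw [e0] at this
    simp only [zero_add, h.aew.zero, sub_zero] at this
    rw [elam]
    exact this
  · intro p hp0 hpx hw
    refine ⟨?_, fun s _ => by rw [etop]; exact hpx s⟩
    rw [eS, etop, g1.eMw, g1.eR]
    have hcn : ∀ s, 0 ≤ cut {0} p (fun _ => x) s := fun s => by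
      by_cases h0 : s ∈ ({0} : Finset (Fin 18))
      · rw [cut_of_mem h0]; exact hx.le
      · rw [cut_of_notMem h0]; exact hp0 s
    refine ⟨⟨hcn, fun k e he => ?_⟩, fun s => ?_⟩
    · obtain ⟨he1, _⟩ := mem_offM.1 he
      obtain ⟨hk, l, hl, hs, rfl⟩ := (hA.iff k e).1 he1
      rw [← sum_count]
      exact hw k (fun h1 => hk ((hDq k).2 h1)) l hl fun s hs' h1 => hs s hs' ((hDq s).2 h1)
    · show cut {0} p (fun _ => x) s ≤ x * ((1 : ℕ) : ℝ)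
      rw [Nat.cast_one, mul_one]
      by_cases h0 : s ∈ ({0} : Finset (Fin 18))
      · rw [cut_of_mem h0]
      · rw [cut_of_notMem h0]; exact hpx s

/-- **the windows of `lin`, `N ∥ B`** (dropped slots `{4, .., 13}`), at a point which is not dead -/
theorem exists_lnW2 {θ : Fin 3 → ℝ}
    (h : PtN B Bo I J co kp u F Ma Dr C lam a (btW θ) A φ r κ V Tw)
    (hG : BasG lam Ma Dr a (btW θ) V) (ha : ∀ k, k ∉ Dr → a k = TW 1 k)
    (hDq : ∀ k, k ∈ Dr ↔ k ∈ D11) (hV : ∀ k, ¬ V k) (hnd : -A.1 < 4) :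
    ∃ mm σ : ℝ, 0 < mm ∧ 0 < σ ∧ ∀ x, 0 < x →
    ∀ (s : ℕ → ℕ → ℝ), (∀ i, Bo.Sub (s i)) → ∀ (J' : ∀ n : ℕ, Finset (ℕ × ℝ)) (Sd : ℕ → ℝ),
    (∀ᶠ n in (U : Filter ℕ), J' n ⊆ J n) → (∀ᶠ n in (U : Filter ℕ), (J' n).Nonempty) →
    Bo.Sub Sd → (∀ᶠ n in (U : Filter ℕ), ((J n).card : ℝ) ≤ Sd n * (J' n).card) →
    ∃ W : Wnd 18 fun _ => ℕ × ℝ,
      WAt B I co monW Ma C lam V Tw (wst Ma (fun _ => 0) (fun _ => 1) 1 {0} x) W ∧
      (∀ i, W.B'.Sub (s i)) ∧ (∀ᶠ n in (U : Filter ℕ), W.Cl n ⊆ J' n) ∧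
      LnW D11 {2, 3, 17} W kp u F mm σ x := by
  obtain ⟨mm, σ, hm, hσ, hn⟩ := lnL2_of h hG ha (fun k hk => (hDq k).2 hk)
    (fun k hk => (by decide : ∀ k ∈ D11, k ∈ D12) k ((hDq k).1 hk)) hnd
  exact ⟨mm, σ, hm, hσ, fun x hx s hs J' Sd h1 h2 h3 h4 =>
    exists_lnW h hDq hV hm hσ hx (hn x hx) s hs J' Sd h1 h2 h3 h4⟩

/-- **the windows of `lin`, `N ∥ A`** (dropped slots `{4, .., 14}`), at a point which is not dead -/
theorem exists_lnW1 {θ : Fin 3 → ℝ}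
    (h : PtN B Bo I J co kp u F Ma Dr C lam a (btW θ) A φ r κ V Tw)
    (hG : BasG lam Ma Dr a (btW θ) V) (ha : ∀ k, k ∉ Dr → a k = TW 1 k)
    (hDq : ∀ k, k ∈ Dr ↔ k ∈ D12) (hV : ∀ k, ¬ V k) (h14 : btW θ 14 ≠ 0) (hnd : -A.1 < 4) :
    ∃ mm σ : ℝ, 0 < mm ∧ 0 < σ ∧ ∀ x, 0 < x →
    ∀ (s : ℕ → ℕ → ℝ), (∀ i, Bo.Sub (s i)) → ∀ (J' : ∀ n : ℕ, Finset (ℕ × ℝ)) (Sd : ℕ → ℝ),
    (∀ᶠ n in (U : Filter ℕ), J' n ⊆ J n) → (∀ᶠ n in (U : Filter ℕ), (J' n).Nonempty) →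
    Bo.Sub Sd → (∀ᶠ n in (U : Filter ℕ), ((J n).card : ℝ) ≤ Sd n * (J' n).card) →
    ∃ W : Wnd 18 fun _ => ℕ × ℝ,
      WAt B I co monW Ma C lam V Tw (wst Ma (fun _ => 0) (fun _ => 1) 1 {0} x) W ∧
      (∀ i, W.B'.Sub (s i)) ∧ (∀ᶠ n in (U : Filter ℕ), W.Cl n ⊆ J' n) ∧
      LnW D12 {2, 17} W kp u F mm σ x := by
  obtain ⟨mm, σ, hm, hσ, hn⟩ := lnL1_of h hG ha (fun k hk => (hDq k).2 hk)
    (fun k hk => (hDq k).1 hk) h14 hnd
  exact ⟨mm, σ, hm, hσ, fun x hx s hs J' Sd h1 h2 h3 h4 =>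
    exists_lnW h hDq hV hm hσ hx (hn x hx) s hs J' Sd h1 h2 h3 h4⟩

end pt

/-! ### `PtC` form, `N ∥ B` -/

section ptC

variable {B Bo : Base} {I J : ℕ → Finset (ℕ × ℝ)} {co : ∀ n : ℕ, ℕ × ℝ → ℕ × ℝ → Fin 18 → ℝ}
  {C : ℝ} {κ : ℕ → ℝ} {u : ℕ → Fin 18 → ℝ} {f : ℕ → ℕ × ℝ → FW} {K : ℝ} {θ q : Fin 3 → ℝ}
  {V T : Set (Fin 18)} {lam lo : (Fin 18 → ℝ) → ℝ} {A : ℝ × ℝ}
  {φ : ℕ → (Fin 18 → ℝ) → ℝ} {r : ℕ → ℝ}

open Crest.Agent.R136.NatW697 (KW)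

/-- **the windows of `lin`, `N ∥ B`, at a point `PtC` of the rung `s = 1`**, or dead -/
theorem exists_lnW_ptC (h : ThB830.PtC B Bo I J co C κ u f K θ q V T 1 lam lo A φ r)
    (hV : ∀ k ∈ V, KW θ k < 1) :
    4 ≤ -A.1 ∨ ∃ mm σ : ℝ, 0 < mm ∧ 0 < σ ∧ ∀ x, 0 < x →
    ∀ (s : ℕ → ℕ → ℝ), (∀ i, Bo.Sub (s i)) → ∀ (J' : ∀ n : ℕ, Finset (ℕ × ℝ)) (Sd : ℕ → ℝ),
    (∀ᶠ n in (U : Filter ℕ), J' n ⊆ J n) → (∀ᶠ n in (U : Filter ℕ), (J' n).Nonempty) →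
    Bo.Sub Sd → (∀ᶠ n in (U : Filter ℕ), ((J n).card : ℝ) ≤ Sd n * (J' n).card) →
    ∃ W : Wnd 18 fun _ => ℕ × ℝ,
      WAt B I co monW (mA monW (actW (DrW 1))) C lam (fun k => k ∈ V ∧ KW θ k = 1)
        (fun k => k ∈ T ∧ k ∈ V ∧ KW θ k = 1)
        (wst (mA monW (actW (DrW 1))) (fun _ => 0) (fun _ => 1) 1 {0} x) W ∧
      (∀ i, W.B'.Sub (s i)) ∧ (∀ᶠ n in (U : Filter ℕ), W.Cl n ⊆ J' n) ∧
      LnW D11 {2, 3, 17} W κ u f mm σ x := by
  rcases le_or_gt 4 (-A.1) with h5 | h5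
  · exact Or.inl h5
  · exact Or.inr (exists_lnW2 (PtN.of_ptB (PtB.of_ptC h h.ne)) (BasG.of_ptC h h.q1 h.q2)
      (fun k _ => rfl) mem_D11 (fun k hk => absurd hk.2 (hV k hk.1).ne) h5)

end ptC

end Crest.Agent.R136.Ln619
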