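import Crest.Agent.R136.AdjB_214
import Crest.Agent.R136.Cod_501
import Crest.Agent.R136.Chm2_862
import Crest.Agent.R136.Rft_877

/-!
# R136 (S0187), PLAN 2 (AL): transport of a division between the charts of two sheets (helper855)

* `CY`, `CU`, `CV` : coordinates of a vector in helper214's chart of the sheet `V` at the line `T`.
* `jb_of_le` : a quadratic function bounded on the unit box has bounded entries.
-/

set_option autoImplicit false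
set_option linter.unusedVariables false

namespace Crest.Agent.R136.Lnd855

open Crest.Agent.R136.Sh605
open Crest.Agent.R136.K4 (Plk4)
open Crest.Agent.R136.Tlt51 (Shp InP)
open Crest.Agent.R136.KapP335 (kapP expP expP_spec)
open Crest.Agent.R136.Tl102
open Crest.Agent.R136.Deep51 (CloseC)
open Crest.Agent.R136.Rk601 (Jt dp qf exists_jet JetAt)
open Crest.Agent.R136.Adj214 (ev JB NJ cP cfr cx_eq chartP divideP KD)
open Crest.Agent.R136.Cod501 (kS cx chart_pt ev_sub_le ev_axis_le closeC_of_div)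
open Crest.Agent.R136.Chm862 (co cmb_co co_add co_smul Tr)
open Crest.Agent.R136.Rf877 (Tub)

/-! ### bounded functions have bounded entries -/

theorem jb_of_le {B c : ℝ} {D : Jt} (hs : D.Sym)
    (h : ∀ ζ y u v : ℝ, |ζ| ≤ 1 → |y| ≤ 1 → |u| ≤ 1 → |v| ≤ 1 → |c + ev D y ![ζ, u, v]| ≤ B) :
    JB (4 * B) c D := by
  have s10 := hs 1 0
  have s20 := hs 2 0
  have s21 := hs 2 1
  have z0 : |(0:ℝ)| ≤ 1 := by norm_num
  have z1 : |(1:ℝ)| ≤ 1 := by norm_num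
  have zm : |(-1:ℝ)| ≤ 1 := by norm_num
  have e : ∀ ζ y u v : ℝ, c + ev D y ![ζ, u, v] = c + D.a0 * y + D.a 0 * ζ + D.a 1 * u + D.a 2 * v +
      (1 / 2 * D.h00 * y ^ 2 + D.h0 0 * y * ζ + D.h0 1 * y * u + D.h0 2 * y * v) +
      (1 / 2 * D.h 0 0 * ζ ^ 2 + 1 / 2 * D.h 1 1 * u ^ 2 + 1 / 2 * D.h 2 2 * v ^ 2 +
        D.h 0 1 * ζ * u + D.h 0 2 * ζ * v + D.h 1 2 * u * v) := by
    intro ζ y u v
    simp only [ev, dp, qf, Fin.sum_univ_three, Matrix.cons_val]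
    rw [s10, s20, s21]
    ring
  have f : ∀ ζ y u v : ℝ, |ζ| ≤ 1 → |y| ≤ 1 → |u| ≤ 1 → |v| ≤ 1 →
      -B ≤ c + D.a0 * y + D.a 0 * ζ + D.a 1 * u + D.a 2 * v +
      (1 / 2 * D.h00 * y ^ 2 + D.h0 0 * y * ζ + D.h0 1 * y * u + D.h0 2 * y * v) +
      (1 / 2 * D.h 0 0 * ζ ^ 2 + 1 / 2 * D.h 1 1 * u ^ 2 + 1 / 2 * D.h 2 2 * v ^ 2 +
        D.h 0 1 * ζ * u + D.h 0 2 * ζ * v + D.h 1 2 * u * v) ∧
      c + D.a0 * y + D.a 0 * ζ + D.a 1 * u + D.a 2 * v +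
      (1 / 2 * D.h00 * y ^ 2 + D.h0 0 * y * ζ + D.h0 1 * y * u + D.h0 2 * y * v) +
      (1 / 2 * D.h 0 0 * ζ ^ 2 + 1 / 2 * D.h 1 1 * u ^ 2 + 1 / 2 * D.h 2 2 * v ^ 2 +
        D.h 0 1 * ζ * u + D.h 0 2 * ζ * v + D.h 1 2 * u * v) ≤ B := by
    intro ζ y u v a1 a2 a3 a4
    have := h ζ y u v a1 a2 a3 a4
    rw [e] at this
    exact abs_le.1 this
  obtain ⟨p0, q0⟩ := f 0 0 0 0 z0 z0 z0 z0
  obtain ⟨p1, q1⟩ := f 0 1 0 0 z0 z1 z0 z0
  obtain ⟨p2, q2⟩ := f 0 (-1) 0 0 z0 zm z0 z0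
  obtain ⟨p3, q3⟩ := f 1 0 0 0 z1 z0 z0 z0
  obtain ⟨p4, q4⟩ := f (-1) 0 0 0 zm z0 z0 z0
  obtain ⟨p5, q5⟩ := f 0 0 1 0 z0 z0 z1 z0
  obtain ⟨p6, q6⟩ := f 0 0 (-1) 0 z0 z0 zm z0
  obtain ⟨p7, q7⟩ := f 0 0 0 1 z0 z0 z0 z1
  obtain ⟨p8, q8⟩ := f 0 0 0 (-1) z0 z0 z0 zm
  obtain ⟨r1, t1⟩ := f 1 1 0 0 z1 z1 z0 z0
  obtain ⟨r2, t2⟩ := f 0 1 1 0 z0 z1 z1 z0
  obtain ⟨r3, t3⟩ := f 0 1 0 1 z0 z1 z0 z1
  obtain ⟨r4, t4⟩ := f 1 0 1 0 z1 z0 z1 z0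
  obtain ⟨r5, t5⟩ := f 1 0 0 1 z1 z0 z0 z1
  obtain ⟨r6, t6⟩ := f 0 0 1 1 z0 z0 z1 z1
  norm_num at p0 q0 p1 q1 p2 q2 p3 q3 p4 q4 p5 q5 p6 q6 p7 q7 p8 q8 r1 t1 r2 t2 r3 t3 r4 t4 r5 t5 r6 t6
  refine ⟨hs, ?_, ?_, ?_, ?_, ?_, ?_⟩
  · rw [abs_le]; constructor <;> linarith
  · rw [abs_le]; constructor <;> linarith
  · intro i
    fin_cases i
    · show |D.a 0| ≤ _
      rw [abs_le]; constructor <;> linarith
    · show |D.a 1| ≤ _
      rw [abs_le]; constructor <;> linarith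
    · show |D.a 2| ≤ _
      rw [abs_le]; constructor <;> linarith
  · rw [abs_le]; constructor <;> linarith
  · intro i
    fin_cases i
    · show |D.h0 0| ≤ _
      rw [abs_le]; constructor <;> linarith
    · show |D.h0 1| ≤ _
      rw [abs_le]; constructor <;> linarith
    · show |D.h0 2| ≤ _
      rw [abs_le]; constructor <;> linarith
  · have g01 : |D.h 0 1| ≤ 4 * B := by rw [abs_le]; constructor <;> linarith
    have g02 : |D.h 0 2| ≤ 4 * B := by rw [abs_le]; constructor <;> linarith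
    have g12 : |D.h 1 2| ≤ 4 * B := by rw [abs_le]; constructor <;> linarith
    have g00 : |D.h 0 0| ≤ 4 * B := by rw [abs_le]; constructor <;> linarith
    have g11 : |D.h 1 1| ≤ 4 * B := by rw [abs_le]; constructor <;> linarith
    have g22 : |D.h 2 2| ≤ 4 * B := by rw [abs_le]; constructor <;> linarith
    intro i j
    fin_cases i <;> fin_cases j
    · exact g00
    · exact g01
    · exact g02
    · show |D.h 1 0| ≤ _
      rw [s10]; exact g01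
    · exact g11
    · exact g12
    · show |D.h 2 0| ≤ _
      rw [s20]; exact g02
    · show |D.h 2 1| ≤ _
      rw [s21]; exact g12
    · exact g22

/-- a bounded jet on the box of size `R` -/
theorem ev_le {K c R : ℝ} {J : Jt} (hJ : JB K c J) (hR : 1 ≤ R) {ζ y u v : ℝ} (hζ : |ζ| ≤ R)
    (hy : |y| ≤ R) (hu : |u| ≤ R) (hv : |v| ≤ R) : |c + ev J y ![ζ, u, v]| ≤ 13 * K * R ^ 2 := by
  have hK : 0 ≤ K := (abs_nonneg _).trans hJ.c
  have s10 := hJ.sym 1 0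
  have s20 := hJ.sym 2 0
  have s21 := hJ.sym 2 1
  have hR2 : R ≤ R ^ 2 := le_self_pow₀ hR (by norm_num)
  have h1R : 1 ≤ R ^ 2 := one_le_pow₀ hR
  have e : c + ev J y ![ζ, u, v] = c + J.a0 * y + J.a 0 * ζ + J.a 1 * u + J.a 2 * v +
      (1 / 2 * (J.h00 * (y * y)) + J.h0 0 * (y * ζ) + J.h0 1 * (y * u) + J.h0 2 * (y * v)) +
      (1 / 2 * (J.h 0 0 * (ζ * ζ)) + J.h 0 1 * (ζ * u) + J.h 0 2 * (ζ * v) +
        1 / 2 * (J.h 1 1 * (u * u)) +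
        J.h 1 2 * (u * v) + 1 / 2 * (J.h 2 2 * (v * v))) := by
    simp only [ev, dp, qf, Fin.sum_univ_three, Matrix.cons_val]
    rw [s10, s20, s21]
    ring
  have m1 : ∀ a x : ℝ, |a| ≤ K → |x| ≤ R → |a * x| ≤ K * R ^ 2 := fun a x ha hx => by
    rw [abs_mul]
    exact (mul_le_mul ha hx (abs_nonneg _) hK).trans (mul_le_mul_of_nonneg_left hR2 hK)
  have m2 : ∀ a x x' : ℝ, |a| ≤ K → |x| ≤ R → |x'| ≤ R → |a * (x * x')| ≤ K * R ^ 2 := by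
    intro a x x' ha hx hx'
    rw [abs_mul, abs_mul]
    refine mul_le_mul ha ?_ (by positivity) hK
    calc |x| * |x'| ≤ R * R := mul_le_mul hx hx' (abs_nonneg _) (by linarith)
      _ = R ^ 2 := by ring
  have q0 : |c| ≤ K * R ^ 2 := hJ.c.trans (by nlinarith)
  have q1 := m1 _ _ hJ.a0 hy
  have q2 := m1 _ _ (hJ.a 0) hζ
  have q3 := m1 _ _ (hJ.a 1) hu
  have q4 := m1 _ _ (hJ.a 2) hv
  have q5 := m2 _ _ _ hJ.h00 hy hy
  have q6 := m2 _ _ _ (hJ.h0 0) hy hζ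
  have q7 := m2 _ _ _ (hJ.h0 1) hy hu
  have q8 := m2 _ _ _ (hJ.h0 2) hy hv
  have q9 := m2 _ _ _ (hJ.h 0 0) hζ hζ
  have q10 := m2 _ _ _ (hJ.h 0 1) hζ hu
  have q11 := m2 _ _ _ (hJ.h 0 2) hζ hv
  have q12 := m2 _ _ _ (hJ.h 1 1) hu hu
  have q13 := m2 _ _ _ (hJ.h 1 2) hu hv
  have q14 := m2 _ _ _ (hJ.h 2 2) hv hv
  rw [e]
  rw [abs_le] at q0 q1 q2 q3 q4 q5 q6 q7 q8 q9 q10 q11 q12 q13 q14 ⊢
  constructor <;> linarith [q0.1, q0.2, q1.1, q1.2, q2.1, q2.2, q3.1, q3.2, q4.1, q4.2, q5.1, q5.2,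
    q6.1, q6.2, q7.1, q7.2, q8.1, q8.2, q9.1, q9.2, q10.1, q10.2, q11.1, q11.2, q12.1, q12.2,
    q13.1, q13.2, q14.1, q14.2]

/-! ### coordinates -/

/-- `u`-coordinate -/
noncomputable def CU (V : Plk4) (d : V3) : ℝ := 256 * co V.e V.w d 1

/-- `v`-coordinate -/
noncomputable def CV (V : Plk4) (d : V3) : ℝ := 256 * co V.e V.w d 2

/-- `y`-coordinate -/
noncomputable def CY (V : Plk4) (z0 ρ : ℝ) (T : Ln4) (d : V3) : ℝ :=
  256 * (yc (expP V z0 ρ T).1 (co V.e V.w d) / kS V z0 ρ T)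

section

variable {V : Plk4} {z0 ρ : ℝ} {T : Ln4}

theorem CU_add (d d' : V3) : CU V (d + d') = CU V d + CU V d' := by
  unfold CU; rw [co_add]; ring

theorem CV_add (d d' : V3) : CV V (d + d') = CV V d + CV V d' := by
  unfold CV; rw [co_add]; ring

theorem CY_add (d d' : V3) : CY V z0 ρ T (d + d') = CY V z0 ρ T d + CY V z0 ρ T d' := by
  unfold CY yc; rw [co_add, co_add, co_add]; ring

theorem CU_smul (k : ℝ) (d : V3) : CU V (k • d) = k * CU V d := by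
  unfold CU; rw [co_smul]; ring

theorem CV_smul (k : ℝ) (d : V3) : CV V (k • d) = k * CV V d := by
  unfold CV; rw [co_smul]; ring

theorem CY_smul (k : ℝ) (d : V3) : CY V z0 ρ T (k • d) = k * CY V z0 ρ T d := by
  unfold CY yc; rw [co_smul, co_smul, co_smul]; ring

/-- every point is a point of the chart -/
theorem cP_inv (hO : Ortho V.e) (hw : ∀ i, 0 < V.w i) (hκ : kS V z0 ρ T ≠ 0) (ζ : ℝ) (X : V3) :
    cP V z0 ρ T ζ (CY V z0 ρ T (X - T.pos (z0 + ρ * ζ))) (CU V (X - T.pos (z0 + ρ * ζ)))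
      (CV V (X - T.pos (z0 + ρ * ζ))) = X := by
  set d := X - T.pos (z0 + ρ * ζ) with hd
  have h1 := cmb_co hO hw d
  show T.pos (z0 + ρ * ζ) + cmb (fr V.e V.w) (unsh (expP V z0 ρ T).1
    (kS V z0 ρ T * (1 / 256 * CY V z0 ρ T d)) (1 / 256 * CU V d) (1 / 256 * CV V d)) = X
  have e1 : kS V z0 ρ T * (1 / 256 * CY V z0 ρ T d) = yc (expP V z0 ρ T).1 (co V.e V.w d) := by
    unfold CY; field_simp
  have e2 : (1 / 256 * CU V d : ℝ) = co V.e V.w d 1 := by unfold CU; ring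
  have e3 : (1 / 256 * CV V d : ℝ) = co V.e V.w d 2 := by unfold CV; ring
  rw [e1, e2, e3, unsh_yc, h1, hd]
  abel

theorem co_cmb (hO : Ortho V.e) (hw : ∀ i, 0 < V.w i) (x : V3) :
    co V.e V.w (cmb (fr V.e V.w) x) = x := by
  funext i
  unfold co
  rw [dt_cmb_fr hO]
  have := (hw i).ne'
  field_simp

/-- coordinates of a chart point -/
theorem C_cP (hO : Ortho V.e) (hw : ∀ i, 0 < V.w i) (hκ : kS V z0 ρ T ≠ 0) (ζ y u v : ℝ) :
    CY V z0 ρ T (cP V z0 ρ T ζ y u v - T.pos (z0 + ρ * ζ)) = y ∧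
    CU V (cP V z0 ρ T ζ y u v - T.pos (z0 + ρ * ζ)) = u ∧
    CV V (cP V z0 ρ T ζ y u v - T.pos (z0 + ρ * ζ)) = v := by
  have e : cP V z0 ρ T ζ y u v - T.pos (z0 + ρ * ζ) = cmb (fr V.e V.w) (unsh (expP V z0 ρ T).1
      (kS V z0 ρ T * (1 / 256 * y)) (1 / 256 * u) (1 / 256 * v)) := add_sub_cancel_left _ _
  rw [e]
  unfold CY CU CV
  rw [co_cmb hO hw]
  refine ⟨?_, ?_, ?_⟩
  · unfold yc unsh
    simp only [Matrix.cons_val]
    field_simp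
    ring
  · simp only [unsh, Matrix.cons_val]; ring
  · simp only [unsh, Matrix.cons_val]; ring

end

/-- frame of the chart -/
noncomputable def cF (S : Plk4) (z0 ρ : ℝ) (T : Ln4) : Fin 3 → V3 :=
  cfr S.e S.w (expP S z0 ρ T).1 (kS S z0 ρ T)

theorem cP_eq (S : Plk4) (z0 ρ : ℝ) (T : Ln4) (ζ y u v : ℝ) : cP S z0 ρ T ζ y u v =
    T.pos (z0 + ρ * ζ) + (y • cF S z0 ρ T 0 + u • cF S z0 ρ T 1 + v • cF S z0 ρ T 2) := by
  have h := cx_eq S.e S.w (expP S z0 ρ T).1 (kS S z0 ρ T) z0 ρ T ζ y u v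
  have h' : cP S z0 ρ T ζ y u v = T.pos z0 + (ρ * ζ) • T.v + cmb (cF S z0 ρ T) ![y, u, v] := h
  rw [h']
  funext i
  simp only [cmb, Ln4.pos, Pi.add_apply, Pi.smul_apply, smul_eq_mul, Matrix.cons_val]
  ring

end Crest.Agent.R136.Lnd855
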