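import Crest.Agent.R136.Lnd1_855

/-!
# R136 (S0187), PLAN 2 (AL): the chart of `S` at `T` in the chart of `V` at `T'` (helper855)

`trans_le` : bounded points of the chart of `S` at `T` are bounded points of the chart of `V` at `T'`.
-/

set_option autoImplicit false
set_option linter.unusedVariables false

namespace Crest.Agent.R136.Lnd855

open Crest.Agent.R136.Sh605
open Crest.Agent.R136.K4 (Plk4)
open Crest.Agent.R136.Tlt51 (Shp InP)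
open Crest.Agent.R136.KapP335 (kapP expP expP_spec)
open Crest.Agent.R136.Tl102
open Crest.Agent.R136.Deep51 (CloseC abs_dt_unit)
open Crest.Agent.R136.Rk601 (Jt dp qf exists_jet JetAt)
open Crest.Agent.R136.Adj214 (ev JB NJ cP cfr cx_eq chartP divideP KD)
open Crest.Agent.R136.Cod501 (kS cx chart_pt ev_sub_le ev_axis_le closeC_of_div)
open Crest.Agent.R136.Chm862 (co cmb_co co_add co_smul Tr)
open Crest.Agent.R136.Rf877 (Tub)

theorem eta_le {c : ℝ} {J : Jt} (N : NJ c J) {y0 u0 v0 η μ1 μ2 M g : ℝ} (hy : |y0| ≤ 1 / 2)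
    (hu : |u0| ≤ 1 / 32) (hv : |v0| ≤ 1 / 32)
    (h : |ev J (y0 + η) ![0, u0 + μ1, v0 + μ2] - ev J (y0 - η) ![0, u0 - μ1, v0 - μ2]| ≤ g)
    (h1 : |μ1| ≤ M) (h2 : |μ2| ≤ M) : |η| ≤ g + 8 * M := by
  have s10 := N.sym 1 0
  have s20 := N.sym 2 0
  have s21 := N.sym 2 1
  set A0 := J.a0 + J.h00 * y0 + dp J.h0 ![0, u0, v0] with hA0
  set A1 := J.h0 1 * y0 + J.h 1 1 * u0 + J.h 1 2 * v0 with hA1
  set A2 := J.h0 2 * y0 + J.h 1 2 * u0 + J.h 2 2 * v0 with hA2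
  have e : ev J (y0 + η) ![0, u0 + μ1, v0 + μ2] - ev J (y0 - η) ![0, u0 - μ1, v0 - μ2] =
      2 * (A0 * η + A1 * μ1 + A2 * μ2) := by
    rw [hA0, hA1, hA2]
    simp only [ev, dp, qf, Fin.sum_univ_three, Matrix.cons_val, N.a1, N.a2]
    rw [s10, s20, s21]
    ring
  have J2 := N.jb
  have hst := N.st y0 ![0, u0, v0] (hy.trans (by norm_num)) (by simp) (by simp)
    (hu.trans (by norm_num)) (hv.trans (by norm_num))
  rw [← hA0] at hst
  have m : ∀ a x b : ℝ, |a| ≤ 2 → |x| ≤ b → |a * x| ≤ 2 * b := fun a x b ha hx =>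
    Adj214.abs2 ha hx
  have g1 : |A1| ≤ 2 := by
    rw [hA1]
    refine (abs_add_three _ _ _).trans ?_
    linarith [m _ _ _ (J2.h0 1) hy, m _ _ _ (J2.h 1 1) hu, m _ _ _ (J2.h 1 2) hv]
  have g2 : |A2| ≤ 2 := by
    rw [hA2]
    refine (abs_add_three _ _ _).trans ?_
    linarith [m _ _ _ (J2.h0 2) hy, m _ _ _ (J2.h 1 2) hu, m _ _ _ (J2.h 2 2) hv]
  have k1 := m _ _ _ g1 h1
  have k2 := m _ _ _ g2 h2
  rw [e, abs_mul, abs_of_pos (by norm_num : (0:ℝ) < 2)] at h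
  have k3 : |A0 * η| ≤ g / 2 + 2 * M + 2 * M := by
    have e2 : A0 * η = (A0 * η + A1 * μ1 + A2 * μ2) - A1 * μ1 - A2 * μ2 := by ring
    rw [e2]
    refine (abs_sub _ _).trans ((add_le_add (abs_sub _ _) le_rfl).trans ?_)
    linarith
  have := Adj214.half_le hst.1 k3
  linarith

section

variable {S V : Plk4} {z0 ρ r : ℝ} {T T' : Ln4} {K : ℝ}

theorem wpos (hr : 0 < r) (hS : Shp S z0 ρ r) : ∀ i, 0 < S.w i := by
  have hw0 : 0 < S.w 0 := (hr.trans_le hS.r0_le).trans_le hS.a_le0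
  exact (StP.of_shN hS hw0).pos

theorem nrm (hr : 0 < r) (hρ : 0 ≤ ρ) (hS : Shp S z0 ρ r) (hT : InP T S z0 ρ) :
    NrmC (expP S z0 ρ T).1 (expP S z0 ρ T).2.1 (expP S z0 ρ T).2.2 := by
  have hw0 : 0 < S.w 0 := (hr.trans_le hS.r0_le).trans_le hS.a_le0
  have SP := StP.of_shN hS hw0
  exact (expP_spec hS.isQ hw0.ne' z0 ρ T).nrmC SP hρ (fun z h1 h2 => (hT z h1 h2).1)

theorem cF_zero (S : Plk4) (z0 ρ : ℝ) (T : Ln4) :
    cF S z0 ρ T 0 = (kS S z0 ρ T * (1 / 256)) • fr S.e S.w 0 := by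
  funext i
  simp only [cF, cfr, fr, Pi.smul_apply, smul_eq_mul, Matrix.cons_val]
  ring

theorem cF_one (S : Plk4) (z0 ρ : ℝ) (T : Ln4) :
    cF S z0 ρ T 1 = (1 / 256 : ℝ) • fr S.e S.w 1 +
      (-(1 / 256 * ((expP S z0 ρ T).1 1 / (expP S z0 ρ T).1 0))) • fr S.e S.w 0 := by
  funext i
  simp only [cF, cfr, fr, Pi.smul_apply, Pi.add_apply, Pi.sub_apply, smul_eq_mul, Matrix.cons_val]
  ring

theorem cF_two (S : Plk4) (z0 ρ : ℝ) (T : Ln4) :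
    cF S z0 ρ T 2 = (1 / 256 : ℝ) • fr S.e S.w 2 +
      (-(1 / 256 * ((expP S z0 ρ T).1 2 / (expP S z0 ρ T).1 0))) • fr S.e S.w 0 := by
  funext i
  simp only [cF, cfr, fr, Pi.smul_apply, Pi.add_apply, Pi.sub_apply, smul_eq_mul, Matrix.cons_val]
  ring

/-- lateral entries of the transition -/
theorem co_cF (H : Tr K S V) (N : NrmC (expP S z0 ρ T).1 (expP S z0 ρ T).2.1 (expP S z0 ρ T).2.2)
    (i k : Fin 3) (hk : k ≠ 0) : |256 * co V.e V.w (cF S z0 ρ T i) k| ≤ 13 * K := by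
  have hK := H.K1
  have k13 : kS S z0 ρ T ≤ 13 := kap_le N
  have k0 : 0 ≤ kS S z0 ρ T := kap_nonneg _ _ _
  obtain ⟨-, -, -, -, -, -, -, s1, s2⟩ := N.b1_le
  have x0 := H.ent 0 k hk
  have x1 := H.ent 1 k hk
  have x2 := H.ent 2 k hk
  fin_cases i
  · show |256 * co V.e V.w (cF S z0 ρ T 0) k| ≤ _
    rw [cF_zero, co_smul]
    have e : 256 * (kS S z0 ρ T * (1 / 256) * co V.e V.w (fr S.e S.w 0) k) =
      kS S z0 ρ T * co V.e V.w (fr S.e S.w 0) k := by ring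
    rw [e]
    exact Adj214.abs2 (by rw [abs_of_nonneg k0]; exact k13) x0
  · show |256 * co V.e V.w (cF S z0 ρ T 1) k| ≤ _
    rw [cF_one, co_add, co_smul, co_smul]
    set r1 := (expP S z0 ρ T).1 1 / (expP S z0 ρ T).1 0
    have e : 256 * (1 / 256 * co V.e V.w (fr S.e S.w 1) k +
      -(1 / 256 * r1) * co V.e V.w (fr S.e S.w 0) k) =
      co V.e V.w (fr S.e S.w 1) k - r1 * co V.e V.w (fr S.e S.w 0) k := by ring
    rw [e]
    refine (abs_sub _ _).trans ?_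
    linarith [Adj214.abs2 s1 x0]
  · show |256 * co V.e V.w (cF S z0 ρ T 2) k| ≤ _
    rw [cF_two, co_add, co_smul, co_smul]
    set r2 := (expP S z0 ρ T).1 2 / (expP S z0 ρ T).1 0
    have e : 256 * (1 / 256 * co V.e V.w (fr S.e S.w 2) k +
      -(1 / 256 * r2) * co V.e V.w (fr S.e S.w 0) k) =
      co V.e V.w (fr S.e S.w 2) k - r2 * co V.e V.w (fr S.e S.w 0) k := by ring
    rw [e]
    refine (abs_sub _ _).trans ?_
    linarith [Adj214.abs2 s2 x0]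

/-- the normal entry of the normal axis -/
theorem CY_zero (H : Tr K S V) (hκ : 0 < kapP V z0 ρ T')
    (N' : NrmC (expP V z0 ρ T').1 (expP V z0 ρ T').2.1 (expP V z0 ρ T').2.2)
    (kk : kapP S z0 ρ T ≤ K * kapP V z0 ρ T') : |CY V z0 ρ T' (cF S z0 ρ T 0)| ≤ 5 * K := by
  have k0 : 0 ≤ kS S z0 ρ T := kap_nonneg _ _ _
  obtain ⟨-, -, -, -, -, -, -, s1, s2⟩ := N'.b1_le
  have hV := H.pos'
  have hkV : 0 < kS V z0 ρ T' := by
    have : kapP V z0 ρ T' = V.w 0 * kS V z0 ρ T' := rfl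
    rw [this] at hκ
    exact (mul_pos_iff_of_pos_left (hV 0)).1 hκ
  have hc : ∀ k, |co V.e V.w (fr S.e S.w 0) k| ≤ S.w 0 / V.w 0 := by
    intro k
    have e1 : co V.e V.w (fr S.e S.w 0) k = S.w 0 * dt (V.e k) (S.e 0) / V.w k := by
      simp only [co, fr, dt, Pi.smul_apply, smul_eq_mul]; ring
    have u := abs_dt_unit H.o' H.o k 0
    have w0k : V.w 0 ≤ V.w k := by
      fin_cases k
      · exact le_rfl
      · exact H.w02'.trans H.w21'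
      · exact H.w02'
    rw [e1, abs_div, abs_of_pos (hV k), abs_mul, abs_of_pos H.w0]
    calc S.w 0 * |dt (V.e k) (S.e 0)| / V.w k ≤ S.w 0 * 1 / V.w k := by
          have := H.w0
          have := hV k
          gcongr
      _ = S.w 0 / V.w k := by rw [mul_one]
      _ ≤ S.w 0 / V.w 0 := div_le_div_of_nonneg_left H.w0.le H.w0' w0k
  have hyc : |yc (expP V z0 ρ T').1 (co V.e V.w (fr S.e S.w 0))| ≤ 5 * (S.w 0 / V.w 0) := by
    unfold yc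
    refine (abs_add_three _ _ _).trans ?_
    linarith [hc 0, Adj214.abs2 s1 (hc 1), Adj214.abs2 s2 (hc 2)]
  rw [cF_zero, CY_smul]
  unfold CY
  have e2 : kS S z0 ρ T * (1 / 256) * (256 * (yc (expP V z0 ρ T').1 (co V.e V.w
      (fr S.e S.w 0)) / kS V z0 ρ T')) = kS S z0 ρ T * yc (expP V z0 ρ T').1 (co V.e V.w
      (fr S.e S.w 0)) / kS V z0 ρ T' := by ring
  rw [e2, abs_div, abs_mul, abs_of_pos hkV, abs_of_nonneg k0, div_le_iff₀ hkV]
  have kk' : S.w 0 * kS S z0 ρ T ≤ K * (V.w 0 * kS V z0 ρ T') := kk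
  calc kS S z0 ρ T * |yc (expP V z0 ρ T').1 (co V.e V.w (fr S.e S.w 0))| ≤
        kS S z0 ρ T * (5 * (S.w 0 / V.w 0)) := mul_le_mul_of_nonneg_left hyc k0
    _ = 5 * (S.w 0 * kS S z0 ρ T) / V.w 0 := by ring
    _ ≤ 5 * (K * (V.w 0 * kS V z0 ρ T')) / V.w 0 := by
        have := hV 0
        gcongr
    _ = 5 * K * kS V z0 ρ T' := by
        have := (hV 0).ne'
        field_simp

/-- coordinates of the line `T` in the chart at `T'` -/
theorem base_le {s ζ : ℝ} (hr : 0 < r) (hρ : 0 ≤ ρ) (hV : Shp V z0 ρ r) (hT : InP T V z0 ρ)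
    (hT' : InP T' V z0 ρ) (hκ : 0 < kapP V z0 ρ T') (hζ : 0 ≤ ζ) (hζ' : ζ ≤ 1) (hs : s ≤ 1 / 8)
    (h0 : |dt (V.e 0) (T.pos (z0 + ρ * ζ) - T'.pos (z0 + ρ * ζ))| ≤ V.w 0 / 8)
    (h1 : |dt (V.e 1) (T.pos (z0 + ρ * ζ) - T'.pos (z0 + ρ * ζ))| ≤ s * V.w 1)
    (h2 : |dt (V.e 2) (T.pos (z0 + ρ * ζ) - T'.pos (z0 + ρ * ζ))| ≤ s * V.w 2) :
    |CY V z0 ρ T' (T.pos (z0 + ρ * ζ) - T'.pos (z0 + ρ * ζ))| ≤
        512 * ((V.a + V.a) / kapP V z0 ρ T') + 1280 * s ∧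
      |CU V (T.pos (z0 + ρ * ζ) - T'.pos (z0 + ρ * ζ))| ≤ 256 * s ∧
      |CV V (T.pos (z0 + ρ * ζ) - T'.pos (z0 + ρ * ζ))| ≤ 256 * s := by
  have hw := wpos hr hV
  have hkV : kS V z0 ρ T' ≠ 0 := by
    have : kapP V z0 ρ T' = V.w 0 * kS V z0 ρ T' := rfl
    rw [this] at hκ
    exact ((mul_pos_iff_of_pos_left (hw 0)).1 hκ).ne'
  obtain ⟨y, u, v, hX, hu, hv, hy⟩ := chart_pt hr hρ hV hT' hκ hζ hζ' hs h0 h1 h2
    (hT _ (by nlinarith) (by nlinarith)).2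
  obtain ⟨c1, c2, c3⟩ := C_cP (T := T') hV.ortho hw hkV ζ y u v
  have hX' : T.pos (z0 + ρ * ζ) = cP V z0 ρ T' ζ y u v := hX
  rw [← hX'] at c1 c2 c3
  rw [c1, c2, c3]
  exact ⟨hy, hu, hv⟩

end

end Crest.Agent.R136.Lnd855
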