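import Crest.Agent.R136.Lnd2_855

/-!
# R136 (S0187), PLAN 2 (AL): transport of a division (helper855)

* `tan_le`, `trans_le` : the chart of `S` at `T` in the chart of `V` at `T'`.
* `mu_le` : size of the multiplier of a division.
* `transport` : `q_V = μ₂ q_S + small` at `T`, `q_{S₁} = μ₁ q_V + small` at `T'`
  ⊢ `q_{S₁} = μ q_S + small` at `T`.
* `value_le` : value of `q_{S₁}` at a point of `T` near `T'`.
-/

set_option autoImplicit false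
set_option linter.unusedVariables false

namespace Crest.Agent.R136.Lnd855

open Crest.Agent.R136.Sh605
open Crest.Agent.R136.K4 (Plk4)
open Crest.Agent.R136.Tlt51 (Shp InP)
open Crest.Agent.R136.KapP335 (kapP expP expP_spec)
open Crest.Agent.R136.Tl102
open Crest.Agent.R136.Deep51 (CloseC abs_dt_unit)
open Crest.Agent.R136.Rk601 (Jt dp qf exists_jet JetAt)
open Crest.Agent.R136.Adj214 (ev JB NJ cP cfr cx_eq chartP divideP KD KD_pos KD_one)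
open Crest.Agent.R136.Cod501 (kS cx chart_pt ev_sub_le ev_axis_le closeC_of_div)
open Crest.Agent.R136.Chm862 (co cmb_co co_add co_smul Tr)
open Crest.Agent.R136.Rf877 (Tub)

section

variable {S V S1 : Plk4} {z0 ρ r : ℝ} {T T' : Ln4} {K E κ : ℝ}

theorem kS_pos (hr : 0 < r) (hV : Shp V z0 ρ r) (hκ : 0 < kapP V z0 ρ T') : 0 < kS V z0 ρ T' := by
  have : kapP V z0 ρ T' = V.w 0 * kS V z0 ρ T' := rfl
  rw [this] at hκ
  exact (mul_pos_iff_of_pos_left (wpos hr hV 0)).1 hκ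

theorem kapP_13 (hr : 0 < r) (hρ : 0 ≤ ρ) (hS : Shp S z0 ρ r) (hT : InP T S z0 ρ) :
    kapP S z0 ρ T ≤ 13 * S.w 0 := by
  have h1 : kS S z0 ρ T ≤ 13 := kap_le (nrm hr hρ hS hT)
  have h2 : kapP S z0 ρ T = S.w 0 * kS S z0 ρ T := rfl
  have := wpos hr hS 0
  nlinarith

/-- the line `T` in the chart at `T'` (tube) -/
theorem tub_base (hr : 0 < r) (hρ : 0 ≤ ρ) (hV : Shp V z0 ρ r) (hT : InP T V z0 ρ)
    (hT' : InP T' V z0 ρ) (kV1 : 10 ^ 6 * V.a ≤ kapP V z0 ρ T') (tub : Tub V κ T T' z0 ρ)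
    (hκ : κ ≤ 1 / 8192) {ζ : ℝ} (hζ : 0 ≤ ζ) (hζ' : ζ ≤ 1) :
    |CY V z0 ρ T' (T.pos (z0 + ρ * ζ) - T'.pos (z0 + ρ * ζ))| ≤ 1 / 2 ∧
      |CU V (T.pos (z0 + ρ * ζ) - T'.pos (z0 + ρ * ζ))| ≤ 1 / 32 ∧
      |CV V (T.pos (z0 + ρ * ζ) - T'.pos (z0 + ρ * ζ))| ≤ 1 / 32 := by
  have hw := wpos hr hV
  have ha : 0 < V.a := hr.trans_le hV.r0_le
  have hk13 := kapP_13 hr hρ hV hT'
  have hκ0 : 0 < kapP V z0 ρ T' := lt_of_lt_of_le (by positivity) kV1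
  obtain ⟨t1, t2, t0⟩ := tub (z0 + ρ * ζ) (by nlinarith) (by nlinarith)
  obtain ⟨g1, g2, g3⟩ := base_le hr hρ hV hT hT' hκ0 hζ hζ' (s := 1 / 8192) (by norm_num)
    (t0.trans (by nlinarith [hw 0])) (t1.trans (by nlinarith [hw 1])) (t2.trans (by nlinarith [hw 2]))
  refine ⟨g1.trans ?_, g2.trans (by norm_num), g3.trans (by norm_num)⟩
  have h1 : (V.a + V.a) / kapP V z0 ρ T' ≤ 2 / 10 ^ 6 := by
    rw [div_le_div_iff₀ hκ0 (by norm_num)]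
    linarith
  linarith

/-- a direction tangent to `S` in the chart of `V` -/
theorem dir_le (hr : 0 < r) (hρ : 0 < ρ) (hS : Shp S z0 ρ r) (hV : Shp V z0 ρ r)
    (hTS : InP T S z0 ρ) (hTV : InP T V z0 ρ) (hT'V : InP T' V z0 ρ)
    (kS1 : 10 ^ 6 * S.a ≤ kapP S z0 ρ T) (kV1 : 10 ^ 6 * V.a ≤ kapP V z0 ρ T')
    (H : Tr K S V) (tub : Tub V κ T T' z0 ρ) (hκ : κ ≤ 1 / 8192)
    (hE : E ≤ K * kapP V z0 ρ T') {μ c2 : ℝ} {D2 : Jt} (hD : JB (KD * E) c2 D2)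
    (hdiv : ∀ ζ y u v, V.q (z0 + ρ * ζ) (cP S z0 ρ T ζ y u v) -
      μ * S.q (z0 + ρ * ζ) (cP S z0 ρ T ζ y u v) = c2 + ev D2 y ![ζ, u, v])
    {a b : ℝ} (ha : |a| ≤ 1) (hb : |b| ≤ 1) :
    |CY V z0 ρ T' (a • cF S z0 ρ T 1 + b • cF S z0 ρ T 2)| ≤ 1024 * KD * K + 208 * K := by
  have hK := H.K1
  have hKD := KD_pos
  have hSa : 0 < S.a := hr.trans_le hS.r0_le
  have hVa : 0 < V.a := hr.trans_le hV.r0_le
  have hkV : 0 < kapP V z0 ρ T' := lt_of_lt_of_le (by positivity) kV1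
  have hkSV := kS_pos hr hV hkV
  obtain ⟨c0, J, N, -, -, -, hq⟩ := chartP hS hSa hρ.le hTS kS1
  obtain ⟨c0', J', N', -, -, -, hq'⟩ := chartP hV hVa hρ.le hT'V kV1
  obtain ⟨b1, b2, b3⟩ := tub_base hr hρ.le hV hTV hT'V kV1 tub hκ (ζ := 0) le_rfl zero_le_one
  have hN := nrm hr hρ.le hS hTS
  set d0 := T.pos (z0 + ρ * 0) - T'.pos (z0 + ρ * 0) with hd0
  set τ := a • cF S z0 ρ T 1 + b • cF S z0 ρ T 2 with hτ
  have hw := wpos hr hV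
  -- the two points
  have P1 : cP S z0 ρ T 0 0 a b - T'.pos (z0 + ρ * 0) = d0 + τ := by
    rw [cP_eq, hd0, hτ]
    funext i
    simp only [Pi.add_apply, Pi.sub_apply, Pi.smul_apply, smul_eq_mul]; ring
  have P2 : cP S z0 ρ T 0 0 (-a) (-b) - T'.pos (z0 + ρ * 0) = d0 + (-1 : ℝ) • τ := by
    rw [cP_eq, hd0, hτ]
    funext i
    simp only [Pi.add_apply, Pi.sub_apply, Pi.smul_apply, smul_eq_mul]; ring
  have i1 := cP_inv (T := T') hV.ortho hw hkSV.ne' 0 (cP S z0 ρ T 0 0 a b)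
  have i2 := cP_inv (T := T') hV.ortho hw hkSV.ne' 0 (cP S z0 ρ T 0 0 (-a) (-b))
  rw [P1, CY_add, CU_add, CV_add] at i1
  rw [P2, CY_add, CU_add, CV_add, CY_smul, CU_smul, CV_smul] at i2
  have v1 := hq' 0 (CY V z0 ρ T' d0 + CY V z0 ρ T' τ) (CU V d0 + CU V τ) (CV V d0 + CV V τ)
  have v2 := hq' 0 (CY V z0 ρ T' d0 + -1 * CY V z0 ρ T' τ) (CU V d0 + -1 * CU V τ)
    (CV V d0 + -1 * CV V τ)
  rw [i1] at v1
  rw [i2] at v2
  have w1 := hdiv 0 0 a b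
  have w2 := hdiv 0 0 (-a) (-b)
  have x1 := hq 0 0 a b
  have x2 := hq 0 0 (-a) (-b)
  have eJ : ev J 0 ![0, a, b] = ev J 0 ![0, -a, -b] := by
    simp only [ev, dp, qf, Fin.sum_univ_three, Matrix.cons_val, N.a1, N.a2]; ring
  have eD : ev D2 0 ![0, a, b] - ev D2 0 ![0, -a, -b] = 2 * (D2.a 1 * a + D2.a 2 * b) := by
    simp only [ev, dp, qf, Fin.sum_univ_three, Matrix.cons_val]; ring
  have hΔ : kapP V z0 ρ T' / 256 * (ev J' (CY V z0 ρ T' d0 + CY V z0 ρ T' τ)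
      ![0, CU V d0 + CU V τ, CV V d0 + CV V τ] - ev J' (CY V z0 ρ T' d0 - CY V z0 ρ T' τ)
      ![0, CU V d0 - CU V τ, CV V d0 - CV V τ]) = 2 * (D2.a 1 * a + D2.a 2 * b) := by
    have e1 : CY V z0 ρ T' d0 + -1 * CY V z0 ρ T' τ = CY V z0 ρ T' d0 - CY V z0 ρ T' τ := by ring
    have e2 : CU V d0 + -1 * CU V τ = CU V d0 - CU V τ := by ring
    have e3 : CV V d0 + -1 * CV V τ = CV V d0 - CV V τ := by ring
    rw [e1, e2, e3] at v2
    rw [← eD]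
    rw [← eJ] at x2
    linear_combination (-1 : ℝ) * v1 + v2 + w1 - w2 + μ * x1 - μ * x2
  have hDle : |2 * (D2.a 1 * a + D2.a 2 * b)| ≤ 4 * (KD * E) := by
    rw [abs_mul, abs_of_pos (by norm_num : (0:ℝ) < 2)]
    have h1 := Adj214.abs2 (hD.a 1) ha
    have h2 := Adj214.abs2 (hD.a 2) hb
    have h3 := abs_add_le (D2.a 1 * a) (D2.a 2 * b)
    linarith
  rw [← hΔ, abs_mul, abs_of_pos (by positivity : 0 < kapP V z0 ρ T' / 256)] at hDle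
  have hg : |ev J' (CY V z0 ρ T' d0 + CY V z0 ρ T' τ)
      ![0, CU V d0 + CU V τ, CV V d0 + CV V τ] - ev J' (CY V z0 ρ T' d0 - CY V z0 ρ T' τ)
      ![0, CU V d0 - CU V τ, CV V d0 - CV V τ]| ≤ 1024 * KD * K := by
    have h1 : kapP V z0 ρ T' / 256 * |ev J' (CY V z0 ρ T' d0 + CY V z0 ρ T' τ)
      ![0, CU V d0 + CU V τ, CV V d0 + CV V τ] - ev J' (CY V z0 ρ T' d0 - CY V z0 ρ T' τ)
      ![0, CU V d0 - CU V τ, CV V d0 - CV V τ]| ≤ kapP V z0 ρ T' / 256 * (1024 * KD * K) := by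
      refine hDle.trans ?_
      have := mul_le_mul_of_nonneg_left hE hKD.le
      nlinarith
    exact le_of_mul_le_mul_left h1 (by positivity)
  have lat : ∀ k : Fin 3, k ≠ 0 → |256 * co V.e V.w τ k| ≤ 26 * K := by
    intro k hk
    rw [hτ, co_add, co_smul, co_smul]
    have h1 := Adj214.abs2 ha (co_cF H hN 1 k hk)
    have h2 := Adj214.abs2 hb (co_cF H hN 2 k hk)
    have e : 256 * (a * co V.e V.w (cF S z0 ρ T 1) k + b * co V.e V.w (cF S z0 ρ T 2) k) =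
      a * (256 * co V.e V.w (cF S z0 ρ T 1) k) + b * (256 * co V.e V.w (cF S z0 ρ T 2) k) := by ring
    rw [e]
    refine (abs_add_le _ _).trans ?_
    linarith
  have := eta_le N' b1 b2 b3 hg (lat 1 (by decide)) (lat 2 (by decide))
  linarith

/-- **the chart of `S` at `T` in the chart of `V` at `T'`** -/
theorem trans_le (hr : 0 < r) (hρ : 0 < ρ) (hS : Shp S z0 ρ r) (hV : Shp V z0 ρ r)
    (hTS : InP T S z0 ρ) (hTV : InP T V z0 ρ) (hT'V : InP T' V z0 ρ)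
    (kS1 : 10 ^ 6 * S.a ≤ kapP S z0 ρ T) (kV1 : 10 ^ 6 * V.a ≤ kapP V z0 ρ T')
    (H : Tr K S V) (tub : Tub V κ T T' z0 ρ) (hκ : κ ≤ 1 / 8192)
    (kk : kapP S z0 ρ T ≤ K * kapP V z0 ρ T')
    (hE : E ≤ K * kapP V z0 ρ T') {μ c2 : ℝ} {D2 : Jt} (hD : JB (KD * E) c2 D2)
    (hdiv : ∀ ζ y u v, V.q (z0 + ρ * ζ) (cP S z0 ρ T ζ y u v) -
      μ * S.q (z0 + ρ * ζ) (cP S z0 ρ T ζ y u v) = c2 + ev D2 y ![ζ, u, v])
    {ζ y u v : ℝ} (hζ : |ζ| ≤ 1) (hy : |y| ≤ 1) (hu : |u| ≤ 1) (hv : |v| ≤ 1) :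
    |CY V z0 ρ T' (cP S z0 ρ T ζ y u v - T'.pos (z0 + ρ * ζ))| ≤ 2500 * KD * K ∧
      |CU V (cP S z0 ρ T ζ y u v - T'.pos (z0 + ρ * ζ))| ≤ 2500 * KD * K ∧
      |CV V (cP S z0 ρ T ζ y u v - T'.pos (z0 + ρ * ζ))| ≤ 2500 * KD * K := by
  have hK := H.K1
  have hKD := KD_one
  have hVa : 0 < V.a := hr.trans_le hV.r0_le
  have hkV : 0 < kapP V z0 ρ T' := lt_of_lt_of_le (by positivity) kV1
  have hN := nrm hr hρ.le hS hTS
  have hN' := nrm hr hρ.le hV hT'V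
  have hKK : K ≤ KD * K := by nlinarith
  have hKK1 : 1 ≤ KD * K := hK.trans hKK
  obtain ⟨b1, b2, b3⟩ := tub_base hr hρ.le hV hTV hT'V kV1 tub hκ (ζ := 0) le_rfl zero_le_one
  obtain ⟨e1, e2, e3⟩ := tub_base hr hρ.le hV hTV hT'V kV1 tub hκ (ζ := 1) zero_le_one le_rfl
  have t1 := dir_le hr hρ hS hV hTS hTV hT'V kS1 kV1 H tub hκ hE hD hdiv (a := 1) (b := 0)
    (by norm_num) (by norm_num)
  have t2 := dir_le hr hρ hS hV hTS hTV hT'V kS1 kV1 H tub hκ hE hD hdiv (a := 0) (b := 1)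
    (by norm_num) (by norm_num)
  rw [one_smul, zero_smul, add_zero] at t1
  rw [one_smul, zero_smul, zero_add] at t2
  have t0 := CY_zero H hkV hN' kk
  have hdec : cP S z0 ρ T ζ y u v - T'.pos (z0 + ρ * ζ) =
      ((1 - ζ) • (T.pos (z0 + ρ * 0) - T'.pos (z0 + ρ * 0)) +
        ζ • (T.pos (z0 + ρ * 1) - T'.pos (z0 + ρ * 1))) +
      (y • cF S z0 ρ T 0 + u • cF S z0 ρ T 1 + v • cF S z0 ρ T 2) := by
    rw [cP_eq]
    funext i
    simp only [Ln4.pos, Pi.add_apply, Pi.sub_apply, Pi.smul_apply, smul_eq_mul]; ring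
  have h1ζ : |1 - ζ| ≤ 2 := by
    rw [abs_le] at hζ ⊢
    constructor <;> linarith [hζ.1, hζ.2]
  have lat := fun i k (hk : k ≠ 0) => co_cF H hN i k hk
  rw [hdec]
  refine ⟨?_, ?_, ?_⟩
  · rw [CY_add, CY_add, CY_add, CY_add, CY_smul, CY_smul, CY_smul, CY_smul, CY_smul]
    have m1 := Adj214.abs2 h1ζ b1
    have m2 := Adj214.abs2 hζ e1
    have m3 := Adj214.abs2 hy t0
    have m4 := Adj214.abs2 hu t1
    have m5 := Adj214.abs2 hv t2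
    rw [abs_le] at m1 m2 m3 m4 m5 ⊢
    constructor <;> linarith [m1.1, m1.2, m2.1, m2.2, m3.1, m3.2, m4.1, m4.2, m5.1, m5.2]
  · rw [CU_add, CU_add, CU_add, CU_add, CU_smul, CU_smul, CU_smul, CU_smul, CU_smul]
    have m1 := Adj214.abs2 h1ζ b2
    have m2 := Adj214.abs2 hζ e2
    have m3 := Adj214.abs2 hy (lat 0 1 (by decide))
    have m4 := Adj214.abs2 hu (lat 1 1 (by decide))
    have m5 := Adj214.abs2 hv (lat 2 1 (by decide))
    unfold CU at m1 m2 ⊢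
    rw [abs_le] at m1 m2 m3 m4 m5 ⊢
    constructor <;> linarith [m1.1, m1.2, m2.1, m2.2, m3.1, m3.2, m4.1, m4.2, m5.1, m5.2]
  · rw [CV_add, CV_add, CV_add, CV_add, CV_smul, CV_smul, CV_smul, CV_smul, CV_smul]
    have m1 := Adj214.abs2 h1ζ b3
    have m2 := Adj214.abs2 hζ e3
    have m3 := Adj214.abs2 hy (lat 0 2 (by decide))
    have m4 := Adj214.abs2 hu (lat 1 2 (by decide))
    have m5 := Adj214.abs2 hv (lat 2 2 (by decide))
    unfold CV at m1 m2 ⊢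
    rw [abs_le] at m1 m2 m3 m4 m5 ⊢
    constructor <;> linarith [m1.1, m1.2, m2.1, m2.2, m3.1, m3.2, m4.1, m4.2, m5.1, m5.2]

end

end Crest.Agent.R136.Lnd855
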