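import Crest.Agent.R136.Lnd3_855

/-!
# R136 (S0187), PLAN 2 (AL): composition of two divisions (helper855)

* `mu_le` : size of the multiplier of a division.
* `transport` : `q_V = μ₂ q_S + small` at `T`, `q_{S₁} = μ₁ q_V + small` at `T'`
  ⊢ `q_{S₁} = μ q_S + small` at `T`.
* `value_le` : value of `q_{S₁}` at a point of `T` near `T'`.
-/

set_option autoImplicit false
set_option linter.unusedVariables false

namespace Crest.Agent.R136.Lnd855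

open Crest.Agent.R136.Sh605
open Crest.Agent.R136.K4 (Plk4)
open Crest.Agent.R136.Tlt51 (Shp InP)
open Crest.Agent.R136.KapP335 (kapP expP expP_spec)
open Crest.Agent.R136.Tl102
open Crest.Agent.R136.Deep51 (CloseC abs_dt_unit)
open Crest.Agent.R136.Rk601 (Jt dp qf exists_jet JetAt)
open Crest.Agent.R136.Adj214 (ev JB NJ cP cfr cx_eq chartP divideP KD KD_pos KD_one)
open Crest.Agent.R136.Cod501 (kS cx chart_pt ev_sub_le ev_axis_le closeC_of_div)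
open Crest.Agent.R136.Chm862 (co cmb_co co_add co_smul Tr)
open Crest.Agent.R136.Rf877 (Tub)

section

variable {S V S1 : Plk4} {z0 ρ r : ℝ} {T T' : Ln4} {K E κ : ℝ}

/-- **size of the multiplier** : `V` = chart sheet, `T'` a line of `V` and of `S1` -/
theorem mu_le (hr : 0 < r) (hρ : 0 < ρ) (hV : Shp V z0 ρ r) (hS1 : Shp S1 z0 ρ r)
    (hT'V : InP T' V z0 ρ) (hT'S : InP T' S1 z0 ρ)
    (kV1 : 10 ^ 6 * V.a ≤ kapP V z0 ρ T') {B μ c1 : ℝ} {D1 : Jt} (hD : JB B c1 D1)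
    (hdiv : ∀ ζ y u v, S1.q (z0 + ρ * ζ) (cP V z0 ρ T' ζ y u v) -
      μ * V.q (z0 + ρ * ζ) (cP V z0 ρ T' ζ y u v) = c1 + ev D1 y ![ζ, u, v]) :
    |μ| ≤ 16 + 512 * (B / kapP V z0 ρ T') := by
  have hVa : 0 < V.a := hr.trans_le hV.r0_le
  have hkV : 0 < kapP V z0 ρ T' := lt_of_lt_of_le (by positivity) kV1
  have hB : 0 ≤ B := (abs_nonneg _).trans hD.c
  obtain ⟨c0', J', N', -, -, -, hq'⟩ := chartP hV hVa hρ.le hT'V kV1
  have hw1 := wpos hr hS1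
  have s0 := hw1 0
  have w02 : S1.w 0 ≤ S1.w 2 := hS1.w0_le
  have w21 : S1.w 2 ≤ S1.w 1 := hS1.w_le
  have w0i : ∀ i, S1.w 0 ≤ S1.w i := by
    intro i; fin_cases i
    · exact le_rfl
    · exact w02.trans w21
    · exact w02
  set θ := 64 * S1.w 0 / kapP V z0 ρ T' with hθ
  have hθ0 : 0 < θ := by rw [hθ]; positivity
  have hθk : kapP V z0 ρ T' * θ = 64 * S1.w 0 := by rw [hθ]; field_simp
  -- the two points
  have P : ∀ t : ℝ, cP V z0 ρ T' 0 t 0 0 = T'.pos (z0 + ρ * 0) +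
      (t * kapP V z0 ρ T' / 256) • V.e 0 := by
    intro t
    rw [cP_eq, cF_zero]
    have e1 : kapP V z0 ρ T' = V.w 0 * kS V z0 ρ T' := rfl
    rw [e1]
    funext i
    simp only [fr, Pi.add_apply, Pi.smul_apply, smul_eq_mul]; ring
  have e1 : θ * kapP V z0 ρ T' / 256 = S1.w 0 / 4 := by rw [mul_comm θ, hθk]; ring
  have e2 : -θ * kapP V z0 ρ T' / 256 = -(S1.w 0 / 4) := by
    have : -θ * kapP V z0 ρ T' / 256 = -(kapP V z0 ρ T' * θ / 256) := by ring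
    rw [this, hθk]; ring
  have P1 := P θ
  have P2 := P (-θ)
  rw [e1] at P1
  rw [e2] at P2
  set z := z0 + ρ * 0 with hz
  have hz0 : z0 ≤ z := by rw [hz, mul_zero, add_zero]
  have hz1 : z ≤ z0 + ρ := by rw [hz, mul_zero, add_zero]; linarith
  have hin := (hT'S z hz0 hz1).1
  have un : ∀ i, |dt (S1.e i) (V.e 0)| ≤ 1 := fun i => abs_dt_unit hS1.ortho hV.ortho i 0
  have box : ∀ t : ℝ, |t| ≤ S1.w 0 / 4 → InK S1.e S1.c (dbl3 S1.w) z (T'.pos z + t • V.e 0) := by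
    intro t ht i
    have e : dt (S1.e i) (T'.pos z + t • V.e 0 - S1.c.pos z) =
        dt (S1.e i) (T'.pos z - S1.c.pos z) + t * dt (S1.e i) (V.e 0) := by
      simp only [dt, Pi.add_apply, Pi.sub_apply, Pi.smul_apply, smul_eq_mul]; ring
    rw [e]
    refine (abs_add_le _ _).trans ?_
    have h1 := hin i
    have h2 := Adj214.abs2 ht (un i)
    have h3 := w0i i
    change _ ≤ 2 * S1.w i
    linarith
  have b1 := box (S1.w 0 / 4) (by rw [abs_of_pos (by positivity)])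
  have b2 := box (-(S1.w 0 / 4)) (by rw [abs_neg, abs_of_pos (by positivity)])
  have SP := StP.of_shN hS1 s0
  have hpath := (SP.path hz0 hz1 b2 b1).1
  have hd : ∀ i, |dt (S1.e i) (T'.pos z + (S1.w 0 / 4) • V.e 0 -
      (T'.pos z + (-(S1.w 0 / 4)) • V.e 0))| ≤ S1.w 0 / 2 := by
    intro i
    have e : dt (S1.e i) (T'.pos z + (S1.w 0 / 4) • V.e 0 -
      (T'.pos z + (-(S1.w 0 / 4)) • V.e 0)) = S1.w 0 / 2 * dt (S1.e i) (V.e 0) := by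
      simp only [dt, Pi.add_apply, Pi.sub_apply, Pi.smul_apply, smul_eq_mul]; ring
    rw [e]
    have := Adj214.abs2 (le_of_eq (abs_of_pos (by positivity : 0 < S1.w 0 / 2))) (un i)
    linarith
  have q1 : S1.w 0 / S1.w 1 ≤ 1 := by rw [div_le_one (hw1 1)]; exact w0i 1
  have q2 : S1.w 0 / S1.w 2 ≤ 1 := by rw [div_le_one (hw1 2)]; exact w02
  have p1 : 0 ≤ S1.w 0 / S1.w 1 := (div_pos s0 (hw1 1)).le
  have p2 : 0 ≤ S1.w 0 / S1.w 2 := (div_pos s0 (hw1 2)).le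
  have hF : |S1.q z (cP V z0 ρ T' 0 θ 0 0) - S1.q z (cP V z0 ρ T' 0 (-θ) 0 0)| ≤ 2 * S1.w 0 := by
    rw [P1, P2]
    refine hpath.trans ?_
    have m1 := mul_le_mul q1 (hd 1) (abs_nonneg _) zero_le_one
    have m2 := mul_le_mul q2 (hd 2) (abs_nonneg _) zero_le_one
    linarith [hd 0]
  have w1 := hdiv 0 θ 0 0
  have w2 := hdiv 0 (-θ) 0 0
  have x1 := hq' 0 θ 0 0
  have x2 := hq' 0 (-θ) 0 0
  have eJ : ev J' θ ![0, 0, 0] - ev J' (-θ) ![0, 0, 0] = 2 * θ * J'.a0 := by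
    simp only [ev, dp, qf, Fin.sum_univ_three, Matrix.cons_val]; ring
  have eD : ev D1 θ ![0, 0, 0] - ev D1 (-θ) ![0, 0, 0] = 2 * θ * D1.a0 := by
    simp only [ev, dp, qf, Fin.sum_univ_three, Matrix.cons_val]; ring
  have hst := N'.st 0 0 (by norm_num) (by simp) (by simp) (by simp) (by simp)
  have e0 : J'.a0 + J'.h00 * 0 + dp J'.h0 0 = J'.a0 := by simp [dp]
  rw [e0] at hst
  have key : μ * (kapP V z0 ρ T' / 256 * (2 * θ * J'.a0)) =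
      (S1.q z (cP V z0 ρ T' 0 θ 0 0) - S1.q z (cP V z0 ρ T' 0 (-θ) 0 0)) - 2 * θ * D1.a0 := by
    rw [← eJ, ← eD]
    linear_combination (-1 : ℝ) * w1 + w2 - μ * x1 + μ * x2
  have key2 : μ * (kapP V z0 ρ T' / 256 * (2 * θ * J'.a0)) = μ * (S1.w 0 / 2 * J'.a0) := by
    have : kapP V z0 ρ T' / 256 * (2 * θ * J'.a0) = kapP V z0 ρ T' * θ * (2 / 256) * J'.a0 := by ring
    rw [this, hθk]; ring
  rw [key2] at key
  have h1 : |μ| * (S1.w 0 / 4) ≤ 2 * S1.w 0 + 2 * θ * B := by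
    calc |μ| * (S1.w 0 / 4) ≤ |μ| * (S1.w 0 / 2 * J'.a0) := by
          refine mul_le_mul_of_nonneg_left ?_ (abs_nonneg _)
          nlinarith [hst.1]
      _ = |μ * (S1.w 0 / 2 * J'.a0)| := by
          rw [abs_mul, abs_of_nonneg (a := S1.w 0 / 2 * J'.a0)]
          have := hst.1
          positivity
      _ ≤ 2 * S1.w 0 + 2 * θ * B := by
          rw [key]
          refine (abs_sub _ _).trans (add_le_add hF ?_)
          rw [abs_mul, abs_of_pos (by positivity : 0 < 2 * θ)]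
          exact mul_le_mul_of_nonneg_left hD.a0 (by positivity)
  have h2 : 2 * θ * B = S1.w 0 / 4 * (512 * (B / kapP V z0 ρ T')) := by
    rw [hθ]; field_simp; ring
  have h3 : |μ| * (S1.w 0 / 4) ≤ (16 + 512 * (B / kapP V z0 ρ T')) * (S1.w 0 / 4) := by
    linarith
  exact le_of_mul_le_mul_right h3 (by positivity)

theorem addm_ev' (P J : Jt) (k y : ℝ) (ξ : Fin 3 → ℝ) :
    ev (P.addm k J) y ξ = ev P y ξ + k * ev J y ξ := by
  simp only [ev, Jt.addm, dp, qf, Fin.sum_univ_three]; ring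

/-- **composition of two divisions** -/
theorem transport (hr : 0 < r) (hρ : 0 < ρ) (hS : Shp S z0 ρ r) (hV : Shp V z0 ρ r)
    (hS1 : Shp S1 z0 ρ r) (hTS : InP T S z0 ρ) (hTV : InP T V z0 ρ) (hT'V : InP T' V z0 ρ)
    (hT'S : InP T' S1 z0 ρ)
    (kS1 : 10 ^ 6 * S.a ≤ kapP S z0 ρ T) (kV1 : 10 ^ 6 * V.a ≤ kapP V z0 ρ T')
    (H : Tr K S V) (tub : Tub V κ T T' z0 ρ) (hκ : κ ≤ 1 / 8192)
    (kk : kapP S z0 ρ T ≤ K * kapP V z0 ρ T') (hE0 : 0 ≤ E)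
    (hE : E ≤ K * kapP V z0 ρ T') (hES : E ≤ K * kapP S z0 ρ T)
    (c1 : CloseC S.e S.w S.q S.a V.q E T z0 ρ) (c2 : CloseC V.e V.w V.q V.a S1.q E T' z0 ρ) :
    (∃ (μ c : ℝ) (D : Jt), |μ| ≤ (528 * KD * K) ^ 2 ∧ JB (10 ^ 9 * KD ^ 3 * K ^ 2 * E) c D ∧
      ∀ ζ y u v, S1.q (z0 + ρ * ζ) (cP S z0 ρ T ζ y u v) -
        μ * S.q (z0 + ρ * ζ) (cP S z0 ρ T ζ y u v) = c + ev D y ![ζ, u, v]) ∧
    ∃ (μ c : ℝ) (D : Jt), |μ| ≤ 528 * KD * K ∧ JB (KD * E) c D ∧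
      ∀ ζ y u v, S1.q (z0 + ρ * ζ) (cP V z0 ρ T' ζ y u v) -
        μ * V.q (z0 + ρ * ζ) (cP V z0 ρ T' ζ y u v) = c + ev D y ![ζ, u, v] := by
  have hK := H.K1
  have hKD := KD_one
  have hSa : 0 < S.a := hr.trans_le hS.r0_le
  have hVa : 0 < V.a := hr.trans_le hV.r0_le
  have hkV : 0 < kapP V z0 ρ T' := lt_of_lt_of_le (by positivity) kV1
  have hkS : 0 < kapP S z0 ρ T := lt_of_lt_of_le (by positivity) kS1
  have hkSV := kS_pos hr hV hkV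
  have hKK : K ≤ KD * K := by nlinarith
  have hKK1 : 1 ≤ KD * K := hK.trans hKK
  obtain ⟨μ2, d2, D2, hD2, hdiv2⟩ := divideP hS hSa hρ.le hTS kS1 hV.isQ c1
  obtain ⟨μ1, d1, D1, hD1, hdiv1⟩ := divideP hV hVa hρ.le hT'V kV1 hS1.isQ c2
  have m1 : |μ1| ≤ 528 * KD * K := by
    refine (mu_le hr hρ hV hS1 hT'V hT'S kV1 hD1 hdiv1).trans ?_
    have h1 : KD * E / kapP V z0 ρ T' ≤ KD * K := by
      rw [div_le_iff₀ hkV, mul_assoc]
      exact mul_le_mul_of_nonneg_left hE (by linarith)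
    linarith
  have m2 : |μ2| ≤ 528 * KD * K := by
    refine (mu_le hr hρ hS hV hTS hTV kS1 hD2 hdiv2).trans ?_
    have h1 : KD * E / kapP S z0 ρ T ≤ KD * K := by
      rw [div_le_iff₀ hkS, mul_assoc]
      exact mul_le_mul_of_nonneg_left hES (by linarith)
    linarith
  refine ⟨?_, μ1, d1, D1, m1, hD1, hdiv1⟩
  obtain ⟨c0, J, N, -, -, -, hq⟩ := chartP hS hSa hρ.le hTS kS1
  obtain ⟨R, hRs, hR⟩ := exists_jet hS1.isQ (cF S z0 ρ T) T.v z0 (T.pos z0) ρ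
  have hR' : ∀ ζ y u v, S1.q (z0 + ρ * ζ) (cP S z0 ρ T ζ y u v) =
      S1.q z0 (T.pos z0) + ev R y ![ζ, u, v] := by
    intro ζ y u v
    have h := cx_eq S.e S.w (expP S z0 ρ T).1 (kS S z0 ρ T) z0 ρ T ζ y u v
    have h' : cP S z0 ρ T ζ y u v = T.pos z0 + (ρ * ζ) • T.v + cmb (cF S z0 ρ T) ![y, u, v] := h
    rw [h', hR y ζ u v]
    unfold ev
    ring
  set μ := μ1 * μ2 with hμ
  set k0 := kapP S z0 ρ T / 256 with hk0
  set c := S1.q z0 (T.pos z0) - μ * (k0 * c0) with hc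
  set D := R.addm (-(μ * k0)) J with hDd
  have hid : ∀ ζ y u v, S1.q (z0 + ρ * ζ) (cP S z0 ρ T ζ y u v) -
      μ * S.q (z0 + ρ * ζ) (cP S z0 ρ T ζ y u v) = c + ev D y ![ζ, u, v] := by
    intro ζ y u v
    rw [hR', hq, hDd, addm_ev', hc]
    ring
  have hsym : D.Sym := by
    intro i j
    show R.h i j + -(μ * k0) * J.h i j = R.h j i + -(μ * k0) * J.h j i
    rw [hRs i j, N.sym i j]
  have hbd : ∀ ζ y u v : ℝ, |ζ| ≤ 1 → |y| ≤ 1 → |u| ≤ 1 → |v| ≤ 1 →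
      |c + ev D y ![ζ, u, v]| ≤ 528 * KD * K * (13 * (KD * E) * 1 ^ 2) +
        13 * (KD * E) * (2500 * KD * K) ^ 2 := by
    intro ζ y u v hζ hy hu hv
    obtain ⟨g1, g2, g3⟩ := trans_le hr hρ hS hV hTS hTV hT'V kS1 kV1 H tub hκ kk hE hD2 hdiv2
      hζ hy hu hv
    have i1 := cP_inv (T := T') hV.ortho (wpos hr hV) hkSV.ne' ζ (cP S z0 ρ T ζ y u v)
    have f1 := hdiv1 ζ (CY V z0 ρ T' (cP S z0 ρ T ζ y u v - T'.pos (z0 + ρ * ζ)))
      (CU V (cP S z0 ρ T ζ y u v - T'.pos (z0 + ρ * ζ)))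
      (CV V (cP S z0 ρ T ζ y u v - T'.pos (z0 + ρ * ζ)))
    rw [i1] at f1
    have f2 := hdiv2 ζ y u v
    have e : c + ev D y ![ζ, u, v] = μ1 * (d2 + ev D2 y ![ζ, u, v]) +
        (d1 + ev D1 (CY V z0 ρ T' (cP S z0 ρ T ζ y u v - T'.pos (z0 + ρ * ζ)))
          ![ζ, CU V (cP S z0 ρ T ζ y u v - T'.pos (z0 + ρ * ζ)),
            CV V (cP S z0 ρ T ζ y u v - T'.pos (z0 + ρ * ζ))]) := by
      rw [← hid, ← f1, ← f2, hμ]; ring
    rw [e]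
    refine (abs_add_le _ _).trans (add_le_add ?_ ?_)
    · exact Adj214.abs2 m1 (ev_le hD2 le_rfl hζ hy hu hv)
    · exact ev_le hD1 (by linarith) (hζ.trans (by linarith)) g1 g2 g3
  refine ⟨μ, c, D, ?_, (jb_of_le hsym hbd).mono ?_, hid⟩
  · rw [hμ, sq]
    exact Adj214.abs2 m1 m2
  · have h1 : 4 * (528 * KD * K * (13 * (KD * E) * 1 ^ 2) + 13 * (KD * E) * (2500 * KD * K) ^ 2) =
      27456 * (KD ^ 2 * K * E) + 325000000 * (KD ^ 3 * K ^ 2 * E) := by ring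
    have h2 : KD ^ 2 * K * E ≤ KD ^ 3 * K ^ 2 * E := by
      refine mul_le_mul_of_nonneg_right ?_ hE0
      have : KD ^ 2 * K * 1 ≤ KD ^ 2 * K * (KD * K) :=
        mul_le_mul_of_nonneg_left hKK1 (by positivity)
      calc KD ^ 2 * K = KD ^ 2 * K * 1 := by ring
        _ ≤ _ := this
        _ = _ := by ring
    have h3 : 10 ^ 9 * KD ^ 3 * K ^ 2 * E = 10 ^ 9 * (KD ^ 3 * K ^ 2 * E) := by ring
    have h4 : 0 ≤ KD ^ 3 * K ^ 2 * E := by positivity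
    rw [h1, h3]
    linarith

/-- **value at a nearby point** -/
theorem value_le {B μ c1 s d ζ : ℝ} {D1 : Jt} (hr : 0 < r) (hρ : 0 < ρ) (hV : Shp V z0 ρ r)
    (hTV : InP T V z0 ρ) (hT'V : InP T' V z0 ρ) (hT'S : InP T' S1 z0 ρ)
    (kV1 : 10 ^ 6 * V.a ≤ kapP V z0 ρ T') (hD : JB B c1 D1)
    (hdiv : ∀ ζ y u v, S1.q (z0 + ρ * ζ) (cP V z0 ρ T' ζ y u v) -
      μ * V.q (z0 + ρ * ζ) (cP V z0 ρ T' ζ y u v) = c1 + ev D1 y ![ζ, u, v])
    (hζ : 0 ≤ ζ) (hζ' : ζ ≤ 1) (hs : s ≤ 1 / 8)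
    (h0 : |dt (V.e 0) (T.pos (z0 + ρ * ζ) - T'.pos (z0 + ρ * ζ))| ≤ V.w 0 / 8)
    (h1 : |dt (V.e 1) (T.pos (z0 + ρ * ζ) - T'.pos (z0 + ρ * ζ))| ≤ s * V.w 1)
    (h2 : |dt (V.e 2) (T.pos (z0 + ρ * ζ) - T'.pos (z0 + ρ * ζ))| ≤ s * V.w 2)
    (hd : 512 * ((V.a + V.a) / kapP V z0 ρ T') + 1280 * s ≤ d) (hd1 : d ≤ 1) :
    |S1.q (z0 + ρ * ζ) (T.pos (z0 + ρ * ζ))| ≤ S1.a + |μ| * (2 * V.a) + 11 * B * d := by
  have hVa : 0 < V.a := hr.trans_le hV.r0_le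
  have hkV : 0 < kapP V z0 ρ T' := lt_of_lt_of_le (by positivity) kV1
  have hkSV := kS_pos hr hV hkV
  have hB : 0 ≤ B := (abs_nonneg _).trans hD.c
  have hw := wpos hr hV
  obtain ⟨g1, g2, g3⟩ := base_le hr hρ.le hV hTV hT'V hkV hζ hζ' hs h0 h1 h2
  have s0 : 0 ≤ s := by
    have h3 := (abs_nonneg _).trans h1
    by_contra hc
    push Not at hc
    have := mul_neg_of_neg_of_pos hc (hw 1)
    linarith
  have ht0 : 0 ≤ (V.a + V.a) / kapP V z0 ρ T' := by positivity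
  have hd0 : 0 ≤ d := le_trans (by positivity) hd
  have i1 := cP_inv (T := T') hV.ortho hw hkSV.ne' ζ (T.pos (z0 + ρ * ζ))
  have i2 : cP V z0 ρ T' ζ 0 0 0 = T'.pos (z0 + ρ * ζ) := Cod501.cx_zero V z0 ρ T' ζ
  have f1 := hdiv ζ (CY V z0 ρ T' (T.pos (z0 + ρ * ζ) - T'.pos (z0 + ρ * ζ)))
      (CU V (T.pos (z0 + ρ * ζ) - T'.pos (z0 + ρ * ζ)))
      (CV V (T.pos (z0 + ρ * ζ) - T'.pos (z0 + ρ * ζ)))
  have f2 := hdiv ζ 0 0 0
  rw [i1] at f1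
  rw [i2] at f2
  have hdd := ev_sub_le hD hζ hζ' (y := CY V z0 ρ T' (T.pos (z0 + ρ * ζ) - T'.pos (z0 + ρ * ζ)))
    (u := CU V (T.pos (z0 + ρ * ζ) - T'.pos (z0 + ρ * ζ)))
    (v := CV V (T.pos (z0 + ρ * ζ) - T'.pos (z0 + ρ * ζ))) (d := d) (g1.trans hd)
    (g2.trans (by linarith)) (g3.trans (by linarith))
  have z1 : z0 ≤ z0 + ρ * ζ := by nlinarith
  have z2 : z0 + ρ * ζ ≤ z0 + ρ := by nlinarith
  have a1 := (hT'S _ z1 z2).2
  have a2 := (hTV _ z1 z2).2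
  have a3 := (hT'V _ z1 z2).2
  have e : S1.q (z0 + ρ * ζ) (T.pos (z0 + ρ * ζ)) = S1.q (z0 + ρ * ζ) (T'.pos (z0 + ρ * ζ)) +
      μ * (V.q (z0 + ρ * ζ) (T.pos (z0 + ρ * ζ)) - V.q (z0 + ρ * ζ) (T'.pos (z0 + ρ * ζ))) +
      (ev D1 (CY V z0 ρ T' (T.pos (z0 + ρ * ζ) - T'.pos (z0 + ρ * ζ)))
        ![ζ, CU V (T.pos (z0 + ρ * ζ) - T'.pos (z0 + ρ * ζ)),
          CV V (T.pos (z0 + ρ * ζ) - T'.pos (z0 + ρ * ζ))] - ev D1 0 ![ζ, 0, 0]) := by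
    linear_combination f1 - f2
  rw [e]
  refine (abs_add_le _ _).trans (add_le_add ((abs_add_le _ _).trans (add_le_add a1 ?_)) ?_)
  · rw [abs_mul]
    refine mul_le_mul_of_nonneg_left ((abs_sub _ _).trans (by linarith)) (abs_nonneg _)
  · refine hdd.trans ?_
    have : 6 * d + 5 * d ^ 2 ≤ 11 * d := by nlinarith
    calc B * (6 * d + 5 * d ^ 2) ≤ B * (11 * d) := mul_le_mul_of_nonneg_left this hB
      _ = 11 * B * d := by ring

end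

end Crest.Agent.R136.Lnd855
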