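import Crest.Agent.R136.Lnd4_855
import Crest.Agent.R136.Cuu3_57

/-!
# R136 (S0187), PLAN 2 (AL): the step `U t - V t - U t'` at a point of `t` (helper855)

`val_uu`, `a0_uu` : value and normal derivative of `q_{U t'}` at a point of `t`, in helper57's letters.
-/

set_option autoImplicit false
set_option linter.unusedVariables false

namespace Crest.Agent.R136.Lnd855

open Crest.Agent.R136.Sh605
open Crest.Agent.R136.K4 (Plk4)
open Crest.Agent.R136.Tlt51 (Shp InP)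
open Crest.Agent.R136.KapP335 (kapP expP expP_spec)
open Crest.Agent.R136.Tl102
open Crest.Agent.R136.Deep51 (CloseC abs_dt_unit)
open Crest.Agent.R136.Rk601 (Jt dp qf exists_jet JetAt)
open Crest.Agent.R136.Adj214 (ev JB NJ cP cfr cx_eq chartP divideP KD KD_pos KD_one)
open Crest.Agent.R136.Cod501 (kS cx chart_pt ev_sub_le ev_axis_le closeC_of_div)
open Crest.Agent.R136.Chm862 (co cmb_co co_add co_smul Tr)
open Crest.Agent.R136.Rf877 (Tub)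
open Crest.Agent.R136.Cuu57 (Uu)
open Crest.Agent.R136.Gbx862 (zj)

/-- central difference of a bounded jet -/
theorem cd_le {K c : ℝ} {J : Jt} (hJ : JB K c J) {y0 u0 v0 ζ η a b : ℝ} (hζ : |ζ| ≤ 1)
    (hy : |y0| ≤ 1 / 2) (hu : |u0| ≤ 1 / 32) (hv : |v0| ≤ 1 / 32) :
    |ev J (y0 + η) ![ζ, u0 + a, v0 + b] - ev J (y0 - η) ![ζ, u0 - a, v0 - b]| ≤
      8 * K * (|η| + |a| + |b|) := by
  have hK : 0 ≤ K := (abs_nonneg _).trans hJ.c
  have s10 := hJ.sym 1 0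
  have s20 := hJ.sym 2 0
  have s21 := hJ.sym 2 1
  set A0 := J.a0 + J.h00 * y0 + J.h0 0 * ζ + J.h0 1 * u0 + J.h0 2 * v0 with hA0
  set A1 := J.a 1 + J.h0 1 * y0 + J.h 0 1 * ζ + J.h 1 1 * u0 + J.h 1 2 * v0 with hA1
  set A2 := J.a 2 + J.h0 2 * y0 + J.h 0 2 * ζ + J.h 1 2 * u0 + J.h 2 2 * v0 with hA2
  have e : ev J (y0 + η) ![ζ, u0 + a, v0 + b] - ev J (y0 - η) ![ζ, u0 - a, v0 - b] =
      2 * (A0 * η + A1 * a + A2 * b) := by
    rw [hA0, hA1, hA2]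
    simp only [ev, dp, qf, Fin.sum_univ_three, Matrix.cons_val]
    rw [s10, s20, s21]
    ring
  have m : ∀ a x b : ℝ, |a| ≤ K → |x| ≤ b → |a * x| ≤ K * b := fun a x b ha hx =>
    Adj214.abs2 ha hx
  have five : ∀ x0 x1 x2 x3 x4 : ℝ, |x0| ≤ K → |x1| ≤ K → |x2| ≤ K → |x3| ≤ K → |x4| ≤ K →
      |x0 + x1 * y0 + x2 * ζ + x3 * u0 + x4 * v0| ≤ 4 * K := by
    intro x0 x1 x2 x3 x4 h0 h1 h2 h3 h4
    have k1 := m _ _ _ h1 hy
    have k2 := m _ _ _ h2 hζ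
    have k3 := m _ _ _ h3 hu
    have k4 := m _ _ _ h4 hv
    rw [abs_le] at h0 k1 k2 k3 k4 ⊢
    constructor <;> linarith [h0.1, h0.2, k1.1, k1.2, k2.1, k2.2, k3.1, k3.2, k4.1, k4.2]
  have g0 : |A0| ≤ 4 * K := five _ _ _ _ _ hJ.a0 hJ.h00 (hJ.h0 0) (hJ.h0 1) (hJ.h0 2)
  have g1 : |A1| ≤ 4 * K := five _ _ _ _ _ (hJ.a 1) (hJ.h0 1) (hJ.h 0 1) (hJ.h 1 1) (hJ.h 1 2)
  have g2 : |A2| ≤ 4 * K := five _ _ _ _ _ (hJ.a 2) (hJ.h0 2) (hJ.h 0 2) (hJ.h 1 2) (hJ.h 2 2)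
  have k0 := Adj214.abs2 g0 (le_refl |η|)
  have k1 := Adj214.abs2 g1 (le_refl |a|)
  have k2 := Adj214.abs2 g2 (le_refl |b|)
  rw [e, abs_mul, abs_of_pos (by norm_num : (0:ℝ) < 2)]
  have := abs_add_three (A0 * η) (A1 * a) (A2 * b)
  linarith

section

variable {U V R : Plk4} {t t' : Ln4} {z0 ρ r W a Λ κ : ℝ}

/-- the division of `q_R` at `t'` -/
theorem div_uu (h : Uu U V R t t' z0 ρ r W a Λ κ) : 10 ^ 6 * V.a ≤ kapP V z0 ρ t' ∧
    0 < kapP V z0 ρ t' ∧ ∃ (μ c : ℝ) (D : Jt), |μ| ≤ 16 + 1024 * KD * W ∧ JB (KD * Λ) c D ∧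
      ∀ ζ y u v, R.q (z0 + ρ * ζ) (cP V z0 ρ t' ζ y u v) -
        μ * V.q (z0 + ρ * ζ) (cP V z0 ρ t' ζ y u v) = c + ev D y ![ζ, u, v] := by
  have hKD := KD_one
  have hW := h.W1
  have hVa : 0 < V.a := h.r0.trans_le h.hV.r0_le
  have k1 : 10 ^ 6 * V.a ≤ kapP V z0 ρ t' := by
    refine le_trans ?_ h.bV
    have h1 : (1:ℝ) ≤ W ^ 3 := one_le_pow₀ hW
    have h2 : (1:ℝ) * 1 ≤ KD * W ^ 3 := mul_le_mul hKD h1 (by norm_num) (by linarith)
    have h3 : (10:ℝ) ^ 6 * V.a = 10 ^ 6 * V.a * (1 * 1) := by ring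
    have h4 : (10:ℝ) ^ 10 * KD * W ^ 3 * V.a = 10 ^ 10 * V.a * (KD * W ^ 3) := by ring
    rw [h3, h4]
    exact mul_le_mul (by nlinarith) h2 (by norm_num) (by positivity)
  have hkV : 0 < kapP V z0 ρ t' := lt_of_lt_of_le (by positivity) k1
  refine ⟨k1, hkV, ?_⟩
  obtain ⟨μ, c, D, hD, hdiv⟩ := divideP h.hV hVa h.ρ0.le h.tV' k1 h.hR.isQ h.c2
  refine ⟨μ, c, D, ?_, hD, hdiv⟩
  refine (mu_le h.r0 h.ρ0 h.hV h.hR h.tV' h.tR k1 hD hdiv).trans ?_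
  have h1 : KD * Λ / kapP V z0 ρ t' ≤ KD * (2 * W) := by
    rw [div_le_iff₀ hkV, mul_assoc]
    exact mul_le_mul_of_nonneg_left h.ΛV (by linarith)
  linarith

/-- **value** -/
theorem val_uu (h : Uu U V R t t' z0 ρ r W a Λ κ) {z s : ℝ} (hz : z0 ≤ z) (hz' : z ≤ z0 + ρ)
    (hs : 0 ≤ s) (hs1 : 10 ^ 8 * KD * W ^ 2 * s ≤ 1)
    (h1 : |dt (V.e 1) (t.pos z - t'.pos z)| ≤ s * V.w 1)
    (h2 : |dt (V.e 2) (t.pos z - t'.pos z)| ≤ s * V.w 2) :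
    |R.q z (t.pos z)| ≤ 10 ^ 5 * KD * W ^ 2 * (a + s * Λ) := by
  have hKD := KD_one
  have hW := h.W1
  have hρ := h.ρ0
  have ha := h.a0
  have hVa : 0 < V.a := h.r0.trans_le h.hV.r0_le
  obtain ⟨k1, hkV, μ, c, D, hμ, hD, hdiv⟩ := div_uu h
  have hB : 0 ≤ KD * Λ := (abs_nonneg _).trans hD.c
  have hΛ0 : 0 ≤ Λ := ha.le.trans h.aΛ
  have hw := wpos h.r0 h.hV
  have hW2 : (1:ℝ) ≤ W ^ 2 := one_le_pow₀ hW
  have hWW : W ≤ W ^ 2 := le_self_pow₀ hW (by norm_num)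
  have hs8 : 10 ^ 8 * s ≤ 1 := by
    refine le_trans ?_ hs1
    have h3 : (1:ℝ) * 1 ≤ KD * W ^ 2 := mul_le_mul hKD hW2 (by norm_num) (by linarith)
    calc 10 ^ 8 * s = 10 ^ 8 * s * (1 * 1) := by ring
      _ ≤ 10 ^ 8 * s * (KD * W ^ 2) := mul_le_mul_of_nonneg_left h3 (by positivity)
      _ = _ := by ring
  have e : z = z0 + ρ * ((z - z0) / ρ) := by field_simp; ring
  have g1 : 0 ≤ (z - z0) / ρ := div_nonneg (by linarith) hρ.le
  have g2 : (z - z0) / ρ ≤ 1 := by rw [div_le_one hρ]; linarith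
  obtain ⟨-, -, t0⟩ := h.tub z hz hz'
  have h0 : |dt (V.e 0) (t.pos z - t'.pos z)| ≤ V.w 0 / 8 := by
    refine t0.trans ?_
    have := h.bw
    have := h.κ1
    nlinarith [hw 0]
  have hak : (V.a + V.a) / kapP V z0 ρ t' ≤ 2 / 10 ^ 6 := by
    rw [div_le_div_iff₀ hkV (by norm_num)]
    linarith
  have main := value_le (S1 := R) (T := t) (T' := t') (s := s)
    (d := 512 * ((V.a + V.a) / kapP V z0 ρ t') + 1280 * s) (ζ := (z - z0) / ρ) h.r0 hρ h.hV h.tV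
    h.tV' h.tR k1 hD hdiv g1 g2 (by linarith) (by rw [← e]; exact h0) (by rw [← e]; exact h1)
    (by rw [← e]; exact h2) le_rfl (by linarith)
  rw [← e] at main
  refine main.trans ?_
  have hR : R.a ≤ W * a := h.aR
  have hV2 : V.a ≤ W * a := h.aV
  have m1 : |μ| * (2 * V.a) ≤ (16 + 1024 * KD * W) * (2 * (W * a)) := by
    refine mul_le_mul hμ (by linarith) (by positivity) (by positivity)
  have m2 : KD * Λ * ((V.a + V.a) / kapP V z0 ρ t') ≤ KD * (4 * (W ^ 2 * a)) := by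
    have h3 : KD * Λ * ((V.a + V.a) / kapP V z0 ρ t') = KD * (Λ * (V.a + V.a) / kapP V z0 ρ t') := by
      ring
    rw [h3]
    refine mul_le_mul_of_nonneg_left ?_ (by linarith)
    rw [div_le_iff₀ hkV]
    calc Λ * (V.a + V.a) ≤ 2 * W * kapP V z0 ρ t' * (2 * (W * a)) :=
          mul_le_mul h.ΛV (by linarith) (by positivity) (by positivity)
      _ = 4 * (W ^ 2 * a) * kapP V z0 ρ t' := by ring
  have m3 : KD * Λ * s ≤ KD * (W ^ 2 * (s * Λ)) := by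
    have h3 : KD * Λ * s = KD * (1 * (s * Λ)) := by ring
    rw [h3]
    refine mul_le_mul_of_nonneg_left ?_ (by linarith)
    exact mul_le_mul_of_nonneg_right hW2 (by positivity)
  have m4 : W * a ≤ KD * (W ^ 2 * a) := by
    calc W * a ≤ W ^ 2 * a := mul_le_mul_of_nonneg_right hWW ha.le
      _ = 1 * (W ^ 2 * a) := by ring
      _ ≤ KD * (W ^ 2 * a) := mul_le_mul_of_nonneg_right hKD (by positivity)
  have m5 : (16 + 1024 * KD * W) * (2 * (W * a)) = 32 * (W * a) + 2048 * (KD * (W ^ 2 * a)) := by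
    ring
  have m6 : 0 ≤ KD * (W ^ 2 * (s * Λ)) := by positivity
  have m7 : 0 ≤ KD * (W ^ 2 * a) := by positivity
  have e2 : 10 ^ 5 * KD * W ^ 2 * (a + s * Λ) = 10 ^ 5 * (KD * (W ^ 2 * a)) +
      10 ^ 5 * (KD * (W ^ 2 * (s * Λ))) := by ring
  have e3 : 11 * (KD * Λ) * (512 * ((V.a + V.a) / kapP V z0 ρ t') + 1280 * s) =
      5632 * (KD * Λ * ((V.a + V.a) / kapP V z0 ρ t')) + 14080 * (KD * Λ * s) := by ring
  rw [e2, e3]
  rw [m5] at m1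
  linarith

/-- **normal derivative** -/
theorem a0_uu (h : Uu U V R t t' z0 ρ r W a Λ κ) {H j : ℕ} (hH : 1 ≤ H) (hj : j ≤ H) :
    |(AlD601.jS U R.q z0 ρ H j t).a0| ≤ 10 ^ 6 * KD * W * U.w 0 := by
  have hKD := KD_one
  have hW := h.W1
  have hρ := h.ρ0
  have ha := h.a0
  have hVa : 0 < V.a := h.r0.trans_le h.hV.r0_le
  obtain ⟨k1, hkV, μ, c, D, hμ, hD, hdiv⟩ := div_uu h
  obtain ⟨c0', J', N', -, -, -, hq'⟩ := chartP h.hV hVa hρ.le h.tV' k1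
  have hB : 0 ≤ KD * Λ := (abs_nonneg _).trans hD.c
  have hw := wpos h.r0 h.hV
  have hwU := wpos h.r0 h.hU
  have hkSV := kS_pos h.r0 h.hV hkV
  have hN' := nrm h.r0 hρ.le h.hV h.tV'
  obtain ⟨-, -, -, -, -, -, -, s1, s2⟩ := hN'.b1_le
  have hHr : (0:ℝ) < H := by exact_mod_cast hH
  have z1 : 0 ≤ (j : ℝ) / H := by positivity
  have z2 : (j : ℝ) / H ≤ 1 := by rw [div_le_one hHr]; exact_mod_cast hj
  have hζ : |(j : ℝ) / H| ≤ 1 := by rw [abs_of_nonneg z1]; exact z2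
  obtain ⟨b1, b2, b3⟩ : |CY V z0 ρ t' (t.pos (z0 + ρ * ((j : ℝ) / H)) -
      t'.pos (z0 + ρ * ((j : ℝ) / H)))| ≤ 1 / 2 ∧
      |CU V (t.pos (z0 + ρ * ((j : ℝ) / H)) - t'.pos (z0 + ρ * ((j : ℝ) / H)))| ≤ 1 / 32 ∧
      |CV V (t.pos (z0 + ρ * ((j : ℝ) / H)) - t'.pos (z0 + ρ * ((j : ℝ) / H)))| ≤ 1 / 32 := by
    obtain ⟨t1, t2, t0⟩ := h.tub (z0 + ρ * ((j : ℝ) / H)) (by nlinarith) (by nlinarith)
    have hκ := h.κ1
    obtain ⟨g1, g2, g3⟩ := base_le h.r0 hρ.le h.hV h.tV h.tV' hkV z1 z2 (s := κ) (by linarith)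
      (t0.trans (by have := h.bw; nlinarith [hw 0])) t1 t2
    refine ⟨g1.trans ?_, g2.trans (by linarith), g3.trans (by linarith)⟩
    have h1 : (V.a + V.a) / kapP V z0 ρ t' ≤ 2 / 10 ^ 6 := by
      rw [div_le_div_iff₀ hkV (by norm_num)]
      linarith
    linarith
  set f := fr U.e U.w 0 with hf
  have ez : zj z0 ρ H j = z0 + ρ * ((j : ℝ) / H) := rfl
  set ζ := (j : ℝ) / H with hζd
  set d0 := t.pos (z0 + ρ * ζ) - t'.pos (z0 + ρ * ζ) with hd0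
  have e1 : (AlD601.jS U R.q z0 ρ H j t).a0 = (R.q (z0 + ρ * ζ) (t.pos (z0 + ρ * ζ) + f) -
      R.q (z0 + ρ * ζ) (t.pos (z0 + ρ * ζ) + (-1 : ℝ) • f)) / 2 := by
    show (AlD601.ch R.q (fr U.e U.w) U.c.v (zj z0 ρ H j) (t.pos (zj z0 ρ H j)) ρ 1 0 -
      AlD601.ch R.q (fr U.e U.w) U.c.v (zj z0 ρ H j) (t.pos (zj z0 ρ H j)) ρ (-1) 0) / 2 = _
    rw [ez]
    unfold AlD601.ch
    have k1 : ∀ y : ℝ, t.pos (z0 + ρ * ζ) + (ρ * (0 : Fin 3 → ℝ) 0) • U.c.v +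
        cmb (fr U.e U.w) ![y, (0 : Fin 3 → ℝ) 1, (0 : Fin 3 → ℝ) 2] =
        t.pos (z0 + ρ * ζ) + y • f := by
      intro y
      funext i
      simp only [cmb, hf, Pi.zero_apply, Pi.add_apply, Pi.smul_apply, smul_eq_mul, Matrix.cons_val]
      ring
    rw [k1, k1, one_smul]
    simp only [Pi.zero_apply, mul_zero, add_zero]
  -- coordinates
  have P1 : t.pos (z0 + ρ * ζ) + f - t'.pos (z0 + ρ * ζ) = d0 + f := by rw [hd0]; abel
  have P2 : t.pos (z0 + ρ * ζ) + (-1 : ℝ) • f - t'.pos (z0 + ρ * ζ) = d0 + (-1 : ℝ) • f := by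
    rw [hd0]; abel
  have i1 := cP_inv (T := t') h.hV.ortho hw hkSV.ne' ζ (t.pos (z0 + ρ * ζ) + f)
  have i2 := cP_inv (T := t') h.hV.ortho hw hkSV.ne' ζ (t.pos (z0 + ρ * ζ) + (-1 : ℝ) • f)
  rw [P1, CY_add, CU_add, CV_add] at i1
  rw [P2, CY_add, CU_add, CV_add, CY_smul, CU_smul, CV_smul] at i2
  have ea : CY V z0 ρ t' d0 + -1 * CY V z0 ρ t' f = CY V z0 ρ t' d0 - CY V z0 ρ t' f := by ring
  have eb : CU V d0 + -1 * CU V f = CU V d0 - CU V f := by ring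
  have ec : CV V d0 + -1 * CV V f = CV V d0 - CV V f := by ring
  rw [ea, eb, ec] at i2
  have v1 := hq' ζ (CY V z0 ρ t' d0 + CY V z0 ρ t' f) (CU V d0 + CU V f) (CV V d0 + CV V f)
  have v2 := hq' ζ (CY V z0 ρ t' d0 - CY V z0 ρ t' f) (CU V d0 - CU V f) (CV V d0 - CV V f)
  have w1 := hdiv ζ (CY V z0 ρ t' d0 + CY V z0 ρ t' f) (CU V d0 + CU V f) (CV V d0 + CV V f)
  have w2 := hdiv ζ (CY V z0 ρ t' d0 - CY V z0 ρ t' f) (CU V d0 - CU V f) (CV V d0 - CV V f)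
  rw [i1] at v1 w1
  rw [i2] at v2 w2
  have q1 := cd_le N'.jb (y0 := CY V z0 ρ t' d0) (u0 := CU V d0) (v0 := CV V d0)
    (η := CY V z0 ρ t' f) (a := CU V f) (b := CV V f) hζ b1 b2 b3
  have q2 := cd_le hD (y0 := CY V z0 ρ t' d0) (u0 := CU V d0) (v0 := CV V d0)
    (η := CY V z0 ρ t' f) (a := CU V f) (b := CV V f) hζ b1 b2 b3
  -- size of the coordinates of `f`
  have hc : ∀ k, |co V.e V.w f k| ≤ U.w 0 / V.w 0 := by
    intro k
    have e1 : co V.e V.w f k = U.w 0 * dt (V.e k) (U.e 0) / V.w k := by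
      simp only [hf, co, fr, dt, Pi.smul_apply, smul_eq_mul]; ring
    have u := abs_dt_unit h.hV.ortho h.hU.ortho k 0
    have w0k : V.w 0 ≤ V.w k := by
      fin_cases k
      · exact le_rfl
      · exact h.hV.w0_le.trans h.hV.w_le
      · exact h.hV.w0_le
    rw [e1, abs_div, abs_of_pos (hw k), abs_mul, abs_of_pos (hwU 0)]
    calc U.w 0 * |dt (V.e k) (U.e 0)| / V.w k ≤ U.w 0 * 1 / V.w k := by
          have := hwU 0
          have := hw k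
          gcongr
      _ = U.w 0 / V.w k := by rw [mul_one]
      _ ≤ U.w 0 / V.w 0 := div_le_div_of_nonneg_left (hwU 0).le (hw 0) w0k
  have hk13 := kapP_13 h.r0 hρ.le h.hV h.tV'
  have hx : U.w 0 / V.w 0 ≤ 13 * (U.w 0 / kapP V z0 ρ t') := by
    rw [div_le_iff₀ (hw 0)]
    have e5 : 13 * (U.w 0 / kapP V z0 ρ t') * V.w 0 = U.w 0 * (13 * V.w 0) / kapP V z0 ρ t' := by
      ring
    rw [e5, le_div_iff₀ hkV]
    exact mul_le_mul_of_nonneg_left hk13 (hwU 0).le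
  set x := U.w 0 / kapP V z0 ρ t' with hxd
  have hx0 : 0 ≤ x := by rw [hxd]; exact div_nonneg (hwU 0).le hkV.le
  have c1 : |CU V f| ≤ 3328 * x := by
    unfold CU
    rw [abs_mul, abs_of_pos (by norm_num : (0:ℝ) < 256)]
    linarith [hc 1]
  have c2 : |CV V f| ≤ 3328 * x := by
    unfold CV
    rw [abs_mul, abs_of_pos (by norm_num : (0:ℝ) < 256)]
    linarith [hc 2]
  have c0 : |CY V z0 ρ t' f| ≤ 1280 * x := by
    have hyc : |yc (expP V z0 ρ t').1 (co V.e V.w f)| ≤ 5 * (U.w 0 / V.w 0) := by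
      unfold yc
      refine (abs_add_three _ _ _).trans ?_
      linarith [hc 0, Adj214.abs2 s1 (hc 1), Adj214.abs2 s2 (hc 2)]
    unfold CY
    rw [abs_mul, abs_of_pos (by norm_num : (0:ℝ) < 256), abs_div, abs_of_pos hkSV]
    have e6 : x = U.w 0 / V.w 0 / kS V z0 ρ t' := by
      rw [hxd]
      show U.w 0 / (V.w 0 * kS V z0 ρ t') = _
      rw [div_div]
    rw [e6]
    have := div_le_div_of_nonneg_right hyc hkSV.le
    have e7 : 5 * (U.w 0 / V.w 0) / kS V z0 ρ t' = 5 * (U.w 0 / V.w 0 / kS V z0 ρ t') := by ring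
    linarith
  have hsum : |CY V z0 ρ t' f| + |CU V f| + |CV V f| ≤ 8000 * x := by linarith
  -- assembly
  have key : R.q (z0 + ρ * ζ) (t.pos (z0 + ρ * ζ) + f) -
      R.q (z0 + ρ * ζ) (t.pos (z0 + ρ * ζ) + (-1 : ℝ) • f) =
      μ * (kapP V z0 ρ t' / 256 * (ev J' (CY V z0 ρ t' d0 + CY V z0 ρ t' f)
        ![ζ, CU V d0 + CU V f, CV V d0 + CV V f] - ev J' (CY V z0 ρ t' d0 - CY V z0 ρ t' f)
        ![ζ, CU V d0 - CU V f, CV V d0 - CV V f])) +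
      (ev D (CY V z0 ρ t' d0 + CY V z0 ρ t' f)
        ![ζ, CU V d0 + CU V f, CV V d0 + CV V f] - ev D (CY V z0 ρ t' d0 - CY V z0 ρ t' f)
        ![ζ, CU V d0 - CU V f, CV V d0 - CV V f]) := by
    linear_combination w1 - w2 + μ * v1 - μ * v2
  rw [e1, key, abs_div, abs_of_pos (by norm_num : (0:ℝ) < 2), div_le_iff₀ (by norm_num)]
  refine (abs_add_le _ _).trans ?_
  rw [abs_mul, abs_mul, abs_of_pos (by positivity : 0 < kapP V z0 ρ t' / 256)]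
  have hkx : kapP V z0 ρ t' * x = U.w 0 := by rw [hxd]; field_simp
  have r1 : |μ| * (kapP V z0 ρ t' / 256 * |ev J' (CY V z0 ρ t' d0 + CY V z0 ρ t' f)
        ![ζ, CU V d0 + CU V f, CV V d0 + CV V f] - ev J' (CY V z0 ρ t' d0 - CY V z0 ρ t' f)
        ![ζ, CU V d0 - CU V f, CV V d0 - CV V f]|) ≤ (16 + 1024 * KD * W) * (500 * U.w 0) := by
    refine mul_le_mul hμ ?_ (by positivity) (by positivity)
    calc kapP V z0 ρ t' / 256 * _ ≤ kapP V z0 ρ t' / 256 * (8 * 2 * (8000 * x)) := by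
          refine mul_le_mul_of_nonneg_left (q1.trans ?_) (by positivity)
          linarith
      _ = 500 * (kapP V z0 ρ t' * x) := by ring
      _ = _ := by rw [hkx]
  have r2 : 8 * (KD * Λ) * (|CY V z0 ρ t' f| + |CU V f| + |CV V f|) ≤ 128000 * (KD * W * U.w 0) := by
    calc 8 * (KD * Λ) * (|CY V z0 ρ t' f| + |CU V f| + |CV V f|) ≤ 8 * (KD * Λ) * (8000 * x) :=
          mul_le_mul_of_nonneg_left hsum (by positivity)
      _ ≤ 8 * (KD * (2 * W * kapP V z0 ρ t')) * (8000 * x) := by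
          have := h.ΛV
          have : 0 ≤ KD := by linarith
          gcongr
      _ = 128000 * (KD * W * (kapP V z0 ρ t' * x)) := by ring
      _ = _ := by rw [hkx]
  have r3 : U.w 0 ≤ KD * W * U.w 0 := by
    have h3 : (1:ℝ) * 1 ≤ KD * W := mul_le_mul hKD hW (by norm_num) (by linarith)
    calc U.w 0 = 1 * 1 * U.w 0 := by ring
      _ ≤ _ := mul_le_mul_of_nonneg_right h3 (hwU 0).le
  have r4 : (16 + 1024 * KD * W) * (500 * U.w 0) = 8000 * U.w 0 + 512000 * (KD * W * U.w 0) := by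
    ring
  have r5 : 0 ≤ KD * W * U.w 0 := (hwU 0).le.trans r3
  have r6 : 10 ^ 6 * KD * W * U.w 0 * 2 = 2000000 * (KD * W * U.w 0) := by ring
  rw [r6]
  rw [r4] at r1
  linarith

end

end Crest.Agent.R136.Lnd855
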