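import Crest.Agent.R136.Lnu_876
import Crest.Agent.R136.Cuu5_57

/-! # R136, PLAN 2 (AL): `LeafNd` (helper57; assembly 876, 57) -/

set_option autoImplicit false

namespace Crest.Agent.R136.Cuu57

/-- **nondegenerate boxes**: the leaf of `AlK_500` -/
theorem leafNd : Al500.LeafNd :=
  Adp876.leafNd_of
    (fun _ _ _ _ _ _ _ _ _ _ _ _ h _ _ hz hz' hs hs1 h1 h2 => val_uu h hz hz' hs hs1 h1 h2)
    (fun _ _ _ _ _ _ _ _ _ _ _ _ h _ _ hj _ hs hs1 h1 h2 => a0_uu h hj hs hs1 h1 h2)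

end Crest.Agent.R136.Cuu57
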