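import Crest.Agent.R136.Lnk4_989
import Crest.Agent.R136.Mlt2_89

/-!
# R136 (S0187), PLAN 2, leaf (B4): frames of the link (helper524)

`e, w, n` : frame, widths and gradient coefficients of the first sheet at the line and base height;
`e', w', n'` : the second one.  Everything in the strip coordinates `A = Λ ⟨e 1, Δ⟩ / w1`,
`B = ⟨e 2, Δ⟩ / w2` and the normal coordinate `Y = ty e w n Δ / a`.
-/

set_option autoImplicit false
set_option linter.unusedVariables false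

namespace Crest.Agent.R136.Lnf524

open Crest.Agent.R136.Sh605 Crest.Agent.R136.Tl102 Crest.Agent.R136.Lgt989
open Crest.Agent.R136.Lnk989 Crest.Agent.R136.Fl808
open Crest.Agent.R136.Mdr535 (ty gr)
open Crest.Agent.R136.Mlt89 (cv dt_cv dt_cv0 dt_cv1 dt_cv2)

/-- the minor of the two gradients -/
noncomputable def ppi (e e' : Fin 3 → V3) (w w' n n' : V3) (k : Fin 3) : ℝ :=
  dt (e 0) (cv e w n) * dt (e k) (cv e' w' n') - dt (e 0) (cv e' w' n') * dt (e k) (cv e w n)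

/-- normal coordinate of the second sheet: coefficient of `Y` -/
noncomputable def mmc (e e' : Fin 3 → V3) (w w' n n' : V3) (a a' : ℝ) : ℝ :=
  dt (e 0) (cv e' w' n') * a / (n' 0 * a')

/-- coefficient of `⟨e k, Δ⟩` of the second sheet in the tangent plane of the first -/
noncomputable def kkc (e e' : Fin 3 → V3) (w n : V3) (i k : Fin 3) : ℝ :=
  dt (e' i) (e k) - dt (e' i) (e 0) * gr n w k

theorem dt_e0 {e : Fin 3 → V3} {w n : V3} (Δ : V3) {a : ℝ} (ha : a ≠ 0) :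
    dt (e 0) Δ = a * (ty e w n Δ / a) - gr n w 1 * dt (e 1) Δ - gr n w 2 * dt (e 2) Δ := by
  rw [mul_div_cancel₀ _ ha]
  simp only [ty]; ring

/-- components in the second frame -/
theorem dt_e' {e e' : Fin 3 → V3} (he : Ortho e) {w n : V3} (Δ : V3) {a : ℝ} (ha : a ≠ 0)
    (i : Fin 3) : dt (e' i) Δ = dt (e' i) (e 0) * a * (ty e w n Δ / a) +
      kkc e e' w n i 1 * dt (e 1) Δ + kkc e e' w n i 2 * dt (e 2) Δ := by
  rw [dt_expand he (e' i) Δ, dt_e0 (e := e) (w := w) (n := n) Δ ha]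
  simp only [kkc]; ring

theorem cv_w0 {e' : Fin 3 → V3} {w' n' : V3} (h0' : n' 0 ≠ 0) (hw' : w' 0 ≠ 0) (x : V3) :
    dt x (cv e' w' n') = n' 0 * (dt x (e' 0) + gr n' w' 1 * dt x (e' 1) +
      gr n' w' 2 * dt x (e' 2)) := by
  rw [dt_cv]
  simp only [gr]
  field_simp

/-- **normal coordinate of the second sheet** -/
theorem normal2 {e e' : Fin 3 → V3} (he : Ortho e) {w w' n n' : V3} (h0 : n 0 ≠ 0) (h0' : n' 0 ≠ 0)
    (hw : w 0 ≠ 0) (hw' : w' 0 ≠ 0) (Δ : V3) {a a' : ℝ} (ha : a ≠ 0) (ha' : a' ≠ 0) :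
    ty e' w' n' Δ / a' = mmc e e' w w' n n' a a' * (ty e w n Δ / a) +
      (ppi e e' w w' n n' 1 / (n 0 * n' 0 * a') * dt (e 1) Δ +
        ppi e e' w w' n n' 2 / (n 0 * n' 0 * a') * dt (e 2) Δ) := by
  have e0 := dt_e' (e' := e') he (w := w) (n := n) Δ ha 0
  have e1 := dt_e' (e' := e') he (w := w) (n := n) Δ ha 1
  have e2 := dt_e' (e' := e') he (w := w) (n := n) Δ ha 2
  have c0 : dt (e 0) (cv e w n) = n 0 := dt_cv0 he hw
  have c1 : dt (e 1) (cv e w n) = n 0 * gr n w 1 := by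
    rw [dt_cv1 he]; simp only [gr]; field_simp
  have c2 : dt (e 2) (cv e w n) = n 0 * gr n w 2 := by
    rw [dt_cv2 he]; simp only [gr]; field_simp
  have s : ∀ i k, dt (e i) (e' k) = dt (e' k) (e i) := fun i k => dt_comm _ _
  have p1 : ppi e e' w w' n n' 1 = n 0 * n' 0 * (kkc e e' w n 0 1 + gr n' w' 1 * kkc e e' w n 1 1 +
      gr n' w' 2 * kkc e e' w n 2 1) := by
    simp only [ppi]
    rw [c0, c1, cv_w0 h0' hw', cv_w0 h0' hw']
    simp only [kkc, s]; ring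
  have p2 : ppi e e' w w' n n' 2 = n 0 * n' 0 * (kkc e e' w n 0 2 + gr n' w' 1 * kkc e e' w n 1 2 +
      gr n' w' 2 * kkc e e' w n 2 2) := by
    simp only [ppi]
    rw [c0, c2, cv_w0 h0' hw', cv_w0 h0' hw']
    simp only [kkc, s]; ring
  have pm : mmc e e' w w' n n' a a' = (dt (e' 0) (e 0) + gr n' w' 1 * dt (e' 1) (e 0) +
      gr n' w' 2 * dt (e' 2) (e 0)) * a / a' := by
    simp only [mmc]
    rw [cv_w0 h0' hw']
    simp only [s]; field_simp
  have hty : ty e' w' n' Δ = dt (e' 0) Δ + gr n' w' 1 * dt (e' 1) Δ + gr n' w' 2 * dt (e' 2) Δ := rfl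
  rw [hty, e0, e1, e2, p1, p2, pm]
  generalize ty e w n Δ / a = Yv
  field_simp
  ring

/-- gradient coefficients at the base height -/
theorem nb_le {b0 b1 : V3} {G : QF} (N : NrmC b0 b1 G) {b : ℝ} (hb : b = 0 ∨ b = 1) :
    1 / 2 ≤ nb b0 b1 b 0 ∧ nb b0 b1 b 0 ≤ 2 ∧ |nb b0 b1 b 1| ≤ 1 ∧ |nb b0 b1 b 2| ≤ 1 := by
  obtain ⟨n1, n2, n3, n4, -⟩ := N.b1_le
  rcases hb with rfl | rfl
  · simp only [nb, zero_mul, add_zero]
    exact ⟨n1, n2, N.b01, N.b02⟩
  · simp only [nb, one_mul]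
    exact ⟨n3, n4, N.b11, N.b12⟩

/-- coefficients at the base height -/
theorem cf_le {b0 b1 : V3} {G : QF} (N : NrmC b0 b1 G) {b β g1 g2 h11 h12 h22 : ℝ} (hb : b = 0 ∨ b = 1)
    (hβ : 0 ≤ β) (C : Cf b0 b1 G b β g1 g2 h11 h12 h22) :
    |g1| ≤ 50 * (β * kap b0 b1 G) ∧ |g2| ≤ 50 * (β * kap b0 b1 G) ∧
      |h11| ≤ 50 * (β * kap b0 b1 G) ∧ |h12| ≤ 50 * (β * kap b0 b1 G) ∧
      |h22| ≤ 50 * (β * kap b0 b1 G) := by
  obtain ⟨n1, n2, n3, n4, -, -, -, s1, s2⟩ := N.b1_le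
  obtain ⟨m1, m2, m3, m4, m5, m6⟩ := N.G_le
  obtain ⟨k1, k2, k3, k4, k5⟩ := kap_bd b0 b1 G
  obtain ⟨κ, hκ⟩ : ∃ κ, κ = kap b0 b1 G := ⟨_, rfl⟩
  rw [← hκ] at k1 k2 k3 k4 k5 ⊢
  have κ0 : 0 ≤ κ := (abs_nonneg _).trans k1
  obtain ⟨c1, c2, c3, c4, c5⟩ := C
  -- one factor
  have sc : ∀ x : ℝ, |x| ≤ 25 * κ → |β / nb b0 b1 b 0 * x| ≤ 50 * (β * κ) := by
    intro x hx
    have hn := (nb_le N hb).1
    have hnp : 0 < nb b0 b1 b 0 := by linarith
    have h1 : β / nb b0 b1 b 0 ≤ 2 * β := by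
      rw [div_le_iff₀ hnp]
      nlinarith
    rw [abs_mul, abs_of_nonneg (div_nonneg hβ hnp.le)]
    calc β / nb b0 b1 b 0 * |x| ≤ (2 * β) * (25 * κ) :=
          mul_le_mul h1 hx (abs_nonneg _) (by positivity)
      _ = _ := by ring
  have key : |shB1 (nb b0 b1 b) b1 1| ≤ 25 * κ ∧ |shB1 (nb b0 b1 b) b1 2| ≤ 25 * κ ∧
      |(shG (nb b0 b1 b) G).uu| ≤ 25 * κ ∧ |(shG (nb b0 b1 b) G).uv| ≤ 25 * κ ∧
      |(shG (nb b0 b1 b) G).vv| ≤ 25 * κ := by
    rcases hb with rfl | rfl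
    · rw [nb_zero]
      exact ⟨by linarith, by linarith, by linarith, by linarith, by linarith⟩
    · rw [nb_one]
      have p0 : 0 < b0 0 := by linarith
      have p1 : 0 < b0 0 + b1 0 := by linarith
      -- the slopes
      have d1 : (b0 1 + b1 1) / (b0 0 + b1 0) = b0 1 / b0 0 + shB1 b0 b1 1 / (b0 0 + b1 0) := by
        simp only [shB1, Matrix.cons_val_one, Matrix.cons_val_zero]
        field_simp; ring
      have d2 : (b0 2 + b1 2) / (b0 0 + b1 0) = b0 2 / b0 0 + shB1 b0 b1 2 / (b0 0 + b1 0) := by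
        simp only [shB1, Matrix.cons_val]
        field_simp; ring
      obtain ⟨σ1, hσ1⟩ : ∃ σ, σ = b0 1 / b0 0 := ⟨_, rfl⟩
      obtain ⟨σ2, hσ2⟩ : ∃ σ, σ = b0 2 / b0 0 := ⟨_, rfl⟩
      obtain ⟨δ1, hδ1⟩ : ∃ δ, δ = shB1 b0 b1 1 / (b0 0 + b1 0) := ⟨_, rfl⟩
      obtain ⟨δ2, hδ2⟩ : ∃ δ, δ = shB1 b0 b1 2 / (b0 0 + b1 0) := ⟨_, rfl⟩
      have D1 : |δ1| ≤ 2 * κ := by
        rw [hδ1, abs_div, abs_of_pos p1, div_le_iff₀ p1]
        nlinarith
      have D2 : |δ2| ≤ 2 * κ := by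
        rw [hδ2, abs_div, abs_of_pos p1, div_le_iff₀ p1]
        nlinarith
      rw [← hσ1, ← hδ1] at d1
      rw [← hσ2, ← hδ2] at d2
      rw [← hσ1] at s1
      rw [← hσ2] at s2
      have t1 : |σ1 + δ1| ≤ 2 := by
        rw [← d1, abs_div, abs_of_pos p1, div_le_iff₀ p1]
        have := N.b11
        linarith
      have t2 : |σ2 + δ2| ≤ 2 := by
        rw [← d2, abs_div, abs_of_pos p1, div_le_iff₀ p1]
        have := N.b12
        linarith
      have e1 : shB1 (fun k => b0 k + b1 k) b1 1 = b0 0 * δ1 := by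
        rw [hδ1]
        simp only [shB1, Matrix.cons_val_one, Matrix.cons_val_zero]
        field_simp; ring
      have e2 : shB1 (fun k => b0 k + b1 k) b1 2 = b0 0 * δ2 := by
        rw [hδ2]
        simp only [shB1, Matrix.cons_val]
        field_simp; ring
      have bb : ∀ δ : ℝ, |δ| ≤ 2 * κ → |b0 0 * δ| ≤ 25 * κ := by
        intro δ h
        rw [abs_mul, abs_of_pos p0]
        have := mul_le_mul n2 h (abs_nonneg _) (by norm_num)
        linarith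
      have k3' : |G.uu - σ1 * G.yu + σ1 ^ 2 * G.yy| ≤ κ := by rw [hσ1]; exact k3
      have k4' : |G.uv - σ2 * G.yu - σ1 * G.yv + 2 * (σ1 * σ2) * G.yy| ≤ κ := by
        rw [hσ1, hσ2]; exact k4
      have k5' : |G.vv - σ2 * G.yv + σ2 ^ 2 * G.yy| ≤ κ := by rw [hσ2]; exact k5
      have pr : ∀ x y X Y' : ℝ, |x| ≤ X → |y| ≤ Y' → |x * y| ≤ X * Y' := by
        intro x y X Y' h h'
        rw [abs_mul]
        exact mul_le_mul h h' (abs_nonneg _) ((abs_nonneg _).trans h)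
      refine ⟨by rw [e1]; exact bb _ D1, by rw [e2]; exact bb _ D2, ?_, ?_, ?_⟩
      · have e3 : (shG (fun k => b0 k + b1 k) G).uu = (G.uu - σ1 * G.yu + σ1 ^ 2 * G.yy) -
            δ1 * G.yu + (δ1 * ((σ1 + δ1) + σ1)) * G.yy := by
          simp only [shG]; rw [d1]; ring
        rw [e3]
        have a1 := pr _ _ _ _ D1 m2
        have a2 := pr _ _ _ _ (pr _ _ _ _ D1 ((abs_add_le (σ1 + δ1) σ1).trans
          (add_le_add t1 s1))) m1
        refine (abs_add_le _ _).trans ((add_le_add ((abs_sub _ _).trans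
          (add_le_add k3' a1)) a2).trans ?_)
        linarith
      · have e3 : (shG (fun k => b0 k + b1 k) G).uv =
            (G.uv - σ2 * G.yu - σ1 * G.yv + 2 * (σ1 * σ2) * G.yy) -
            δ2 * G.yu - δ1 * G.yv + (2 * (δ1 * (σ2 + δ2) + σ1 * δ2)) * G.yy := by
          simp only [shG]; rw [d1, d2]; ring
        rw [e3]
        have a1 := pr _ _ _ _ D2 m2
        have a2 := pr _ _ _ _ D1 m3
        have a3 : |2 * (δ1 * (σ2 + δ2) + σ1 * δ2)| ≤ 2 * (2 * κ * 2 + 2 * (2 * κ)) := by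
          rw [abs_mul, abs_two]
          refine mul_le_mul_of_nonneg_left ?_ (by norm_num)
          exact (abs_add_le _ _).trans (add_le_add (pr _ _ _ _ D1 t2) (pr _ _ _ _ s1 D2))
        have a4 := pr _ _ _ _ a3 m1
        refine (abs_add_le _ _).trans ((add_le_add ((abs_sub _ _).trans
          (add_le_add ((abs_sub _ _).trans (add_le_add k4' a1)) a2)) a4).trans ?_)
        linarith
      · have e3 : (shG (fun k => b0 k + b1 k) G).vv = (G.vv - σ2 * G.yv + σ2 ^ 2 * G.yy) -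
            δ2 * G.yv + (δ2 * ((σ2 + δ2) + σ2)) * G.yy := by
          simp only [shG]; rw [d2]; ring
        rw [e3]
        have a1 := pr _ _ _ _ D2 m3
        have a2 := pr _ _ _ _ (pr _ _ _ _ D2 ((abs_add_le (σ2 + δ2) σ2).trans
          (add_le_add t2 s2))) m1
        refine (abs_add_le _ _).trans ((add_le_add ((abs_sub _ _).trans
          (add_le_add k5' a1)) a2).trans ?_)
        linarith
  obtain ⟨q1, q2, q3, q4, q5⟩ := key
  rw [c1, c2, c3, c4, c5]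
  exact ⟨sc _ q1, sc _ q2, sc _ q3, sc _ q4, sc _ q5⟩

end Crest.Agent.R136.Lnf524
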