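import Crest.Agent.R136.Lnk6_989
import Crest.Agent.R136.Lnk2_816
import Crest.Agent.R136.Lkg_18
import Crest.Agent.R136.Lkp_140

/-!
# R136 (S0187), PLAN 2, leaf (B4) share: the links of a tilted pair over `ShD` (helper524)

`lnkSh : Lkp140.LnkSh` : 989's `link_at`, 816's `six_of`, 18's `mtx_of` at every line of `Z`, base
height `b T` from the lower bound of the minors, `M T = √(t1² + t2²)`.
-/

set_option autoImplicit false
set_option linter.unusedVariables false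

namespace Crest.Agent.R136.Lnf524

open Finset
open Crest.Agent.R136.Sh605 Crest.Agent.R136.Fl808
open Crest.Agent.R136.K4 (Plk4)
open Crest.Agent.R136.Tlt51 (Shp InP)
open Crest.Agent.R136.KapP335 (kapP expP expP_spec)
open Crest.Agent.R136.Pl2
open Crest.Agent.R136.Pl2W102 (Near Ex2 Two1)
open Crest.Agent.R136.Shd410 (ShD)
open Crest.Agent.R136.Lnk989 (dis nb nb_bd link_at Two SixOf Mtx)
open Crest.Agent.R136.Plk511 (stp stc ny0 ny1)
open Crest.Agent.R136.Vlk639 (Lnk)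
open Crest.Agent.R136.Mlt89 (cv dt_cv dt_cv0 dt_cv1 dt_cv2)
open Crest.Agent.R136.Lkf18 (pk mtx_of)
open Crest.Agent.R136.Clu108 (Six Bd)
open Crest.Agent.R136.Grp639 (dx dc al pe)
open Crest.Agent.R136.Tl102 (NrmC IsExp StP kap QF)
open Crest.Agent.R136.Lkp140 (Close8 LnkSh pik)
open Crest.Agent.R136.Mdr535 (ty)

/-- 816's theorem in 989's form -/
theorem sixOf : SixOf 40 := by
  intro K0 d0 B L M g1 g2 h11 h12 h22 g1' g2' h11' h12' h22' l10 l11 l12 l20 l21 l22 k10 k11 k12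
    k20 k21 k22 mm t1 t2 hK0 hd0 hL hM hMt b1 b2 b3 b4 b5 c1 c2 c3 c4 c5 p1 p2 p3 p4 p5 p6 p7 p8
    r1 r2 r3 r4 hmm
  obtain ⟨g, g', h, h', ⟨i1, i2, i3, i4, i5, i6, i7, i8, i9, i10⟩, H⟩ :=
    Lnk2816.six_of b1 b2 b3 b4 b5 c1 c2 c3 c4 c5 hL p1 p2 p3 p4 p5 p6 p7 p8 r1 r2 r3 r4 hmm hd0
      hK0 hM hMt
  refine ⟨g, g', h, h', ⟨i1, i2, i5, i6, i7⟩, ⟨i3, i4, i8, i9, i10⟩, ?_⟩
  intro Y0 Y1 N0 N1 A0 B0 A1 B1 x1 x2 v1 v2 x1' x2' v1' v2' m hO hO'
  exact H Y0 Y1 N0 N1 A0 B0 A1 B1 x1 x2 v1 v2 x1' x2' v1' v2' m ⟨hO.1, hO.2.1, hO.2.2⟩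
    ⟨hO'.1, hO'.2.1, hO'.2.2⟩

theorem six_mono {K K2 d M : ℝ} {g g' : ℝ × ℝ} {h h' : ℝ × ℝ × ℝ} {y0 y1 px s cx t : ℝ}
    (H : Six K d M g g' h h' y0 y1 px s cx t) (hK : K ≤ K2) (hM : 0 ≤ M) :
    Six K2 d M g g' h h' y0 y1 px s cx t := by
  have p1 : 0 ≤ 1 + |y0| + M * |px| := by positivity
  have p2 : 0 ≤ 1 + |y0| + M * |px| + |y1| + M * |cx| := by positivity
  have q1 := mul_le_mul_of_nonneg_right hK p1
  have q2 := mul_le_mul_of_nonneg_right hK p2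
  exact { a0 := H.a0.trans (by linarith)
          a1 := H.a1.trans (by linarith)
          a2 := H.a2.trans q2
          b0 := H.b0.trans (by linarith)
          b1 := H.b1.trans (by linarith)
          b2 := H.b2.trans q2 }

/-! ### upper bounds of the minors -/

/-- component of the second gradient in the first frame -/
theorem dt_cv_le {e e' : Fin 3 → V3} (he : Ortho e) (he' : Ortho e') {w' b' : V3}
    (hw' : ∀ i, 0 < w' i) (h02' : w' 0 ≤ w' 2) (h21' : w' 2 ≤ w' 1)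
    (hb0 : |b' 0| ≤ 2) (hb1 : |b' 1| ≤ 1) (hb2 : |b' 2| ≤ 1) (k : Fin 3) :
    |dt (e k) (cv e' w' b')| ≤ 2 * |dt (e k) (e' 0)| + w' 0 / w' 1 * |dt (e k) (e' 1)| +
      |dt (e k) (e' 2)| := by
  have p0 := hw' 0
  have p1 := hw' 1
  have p2 := hw' 2
  rw [dt_cv, div_self p0.ne', one_mul]
  refine (abs_add_le _ _).trans (add_le_add ((abs_add_le _ _).trans (add_le_add ?_ ?_)) ?_)
  · rw [abs_mul]
    exact mul_le_mul_of_nonneg_right hb0 (abs_nonneg _)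
  · rw [abs_mul, abs_mul, abs_of_pos (div_pos p0 p1)]
    have : w' 0 / w' 1 * |b' 1| ≤ w' 0 / w' 1 * 1 :=
      mul_le_mul_of_nonneg_left hb1 (div_pos p0 p1).le
    have h2 := mul_le_mul_of_nonneg_right this (abs_nonneg (dt (e k) (e' 1)))
    rw [mul_one] at h2
    exact h2
  · rw [abs_mul, abs_mul, abs_of_pos (div_pos p0 p2)]
    have h1 : w' 0 / w' 2 ≤ 1 := (div_le_one p2).2 h02'
    have h2 : w' 0 / w' 2 * |b' 2| ≤ 1 * 1 :=
      mul_le_mul h1 hb2 (abs_nonneg _) zero_le_one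
    have h3 := mul_le_mul_of_nonneg_right h2 (abs_nonneg (dt (e k) (e' 2)))
    simpa using h3

theorem pk_hi {e e' : Fin 3 → V3} (he : Ortho e) (he' : Ortho e') {w w' b b' : V3}
    {w1 w2 Λ X : ℝ} (hw : ∀ i, 0 < w i) (hw' : ∀ i, 0 < w' i)
    (h02 : w 0 ≤ w 2) (h21 : w 2 ≤ w 1) (h02' : w' 0 ≤ w' 2) (h21' : w' 2 ≤ w' 1)
    (hb0 : |b 0| ≤ 2) (hb1 : |b 1| ≤ 1) (hb2 : |b 2| ≤ 1)
    (hb0' : |b' 0| ≤ 2) (hb1' : |b' 1| ≤ 1) (hb2' : |b' 2| ≤ 1)
    (hX : 1 ≤ X) (hΛ : 1 ≤ Λ) (hw2 : 0 < w2) (hw1 : 0 < w1)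
    (d1 : w1 ≤ X * w 1) (d2r : w 2 ≤ X * w2) (d1' : w1 ≤ X * w' 1) (d2r' : w' 2 ≤ X * w2)
    (tl0 : |dt (e 1) (e' 0)| * w1 ≤ X * (Λ * w2)) (tl2 : |dt (e 1) (e' 2)| * w1 ≤ X * (Λ * w2)) :
    |pk e (cv e w b) (cv e' w' b') 1| * w1 ≤ 12 * X ^ 2 * (Λ * w2) ∧
      |pk e (cv e w b) (cv e' w' b') 2| ≤ 12 := by
  have p0 := hw 0
  have p1 := hw 1
  have p2 := hw 2
  have p0' := hw' 0
  have p1' := hw' 1
  have p2' := hw' 2
  have X0 : 0 < X := by linarith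
  have one : ∀ i j, |dt (e i) (e' j)| ≤ 1 := fun i j => abs_dt_le_one he' he i j
  have r1 : w' 0 / w' 1 ≤ 1 := (div_le_one p1').2 (h02'.trans h21')
  have r1p : 0 < w' 0 / w' 1 := div_pos p0' p1'
  have m4 : ∀ k, |dt (e k) (cv e' w' b')| ≤ 4 := by
    intro k
    have h := dt_cv_le he he' hw' h02' h21' hb0' hb1' hb2' k
    have a0 := one k 0
    have a1 : w' 0 / w' 1 * |dt (e k) (e' 1)| ≤ 1 * 1 :=
      mul_le_mul r1 (one k 1) (abs_nonneg _) zero_le_one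
    have a2 := one k 2
    linarith
  have XX : X * w2 ≤ X ^ 2 * (Λ * w2) := by
    have h1 : X * w2 ≤ X ^ 2 * w2 := by
      have : X ≤ X ^ 2 := by nlinarith
      exact mul_le_mul_of_nonneg_right this hw2.le
    have h2 : X ^ 2 * w2 ≤ X ^ 2 * (Λ * w2) :=
      mul_le_mul_of_nonneg_left (le_mul_of_one_le_left hw2.le hΛ) (by positivity)
    exact h1.trans h2
  have X2 : X * (Λ * w2) ≤ X ^ 2 * (Λ * w2) := by
    have : X ≤ X ^ 2 := by nlinarith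
    exact mul_le_mul_of_nonneg_right this (by positivity)
  have X3 : X ^ 2 * w2 ≤ X ^ 2 * (Λ * w2) :=
    mul_le_mul_of_nonneg_left (le_mul_of_one_le_left hw2.le hΛ) (by positivity)
  -- the tilted component
  have m1 : |dt (e 1) (cv e' w' b')| * w1 ≤ 4 * (X ^ 2 * (Λ * w2)) := by
    have h := mul_le_mul_of_nonneg_right
      (dt_cv_le he he' hw' h02' h21' hb0' hb1' hb2' 1) hw1.le
    have a1 : w' 0 / w' 1 * |dt (e 1) (e' 1)| * w1 ≤ X ^ 2 * w2 := by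
      calc w' 0 / w' 1 * |dt (e 1) (e' 1)| * w1 ≤ w' 0 / w' 1 * 1 * w1 := by
            have := mul_le_mul_of_nonneg_left (one 1 1) r1p.le
            exact mul_le_mul_of_nonneg_right this hw1.le
        _ ≤ w' 0 / w' 1 * 1 * (X * w' 1) := by
            refine mul_le_mul_of_nonneg_left d1' ?_
            rw [mul_one]; exact r1p.le
        _ = X * w' 0 := by field_simp
        _ ≤ X * (X * w2) := mul_le_mul_of_nonneg_left (h02'.trans d2r') X0.le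
        _ = X ^ 2 * w2 := by ring
    have e1 : (2 * |dt (e 1) (e' 0)| + w' 0 / w' 1 * |dt (e 1) (e' 1)| + |dt (e 1) (e' 2)|) * w1 =
        2 * (|dt (e 1) (e' 0)| * w1) + w' 0 / w' 1 * |dt (e 1) (e' 1)| * w1 +
          |dt (e 1) (e' 2)| * w1 := by ring
    rw [e1] at h
    linarith
  have n0 : |dt (e 0) (cv e w b)| ≤ 2 := by rw [dt_cv0 he p0.ne']; exact hb0
  have n1 : |dt (e 1) (cv e w b)| * w1 ≤ X ^ 2 * w2 := by
    rw [dt_cv1 he, abs_mul, abs_of_pos (div_pos p0 p1)]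
    calc w 0 / w 1 * |b 1| * w1 ≤ w 0 / w 1 * 1 * (X * w 1) := by
          have h1 : w 0 / w 1 * |b 1| ≤ w 0 / w 1 * 1 :=
            mul_le_mul_of_nonneg_left hb1 (div_pos p0 p1).le
          exact mul_le_mul h1 d1 hw1.le (by rw [mul_one]; exact (div_pos p0 p1).le)
      _ = X * w 0 := by field_simp
      _ ≤ X * (X * w2) := mul_le_mul_of_nonneg_left (h02.trans d2r) X0.le
      _ = X ^ 2 * w2 := by ring
  have n2 : |dt (e 2) (cv e w b)| ≤ 1 := by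
    rw [dt_cv2 he, abs_mul, abs_of_pos (div_pos p0 p2)]
    have h1 : w 0 / w 2 ≤ 1 := (div_le_one p2).2 h02
    calc w 0 / w 2 * |b 2| ≤ 1 * 1 := mul_le_mul h1 hb2 (abs_nonneg _) zero_le_one
      _ = 1 := one_mul 1
  unfold pk
  constructor
  · have h1 : |dt (e 0) (cv e w b) * dt (e 1) (cv e' w' b') -
        dt (e 0) (cv e' w' b') * dt (e 1) (cv e w b)| ≤
        |dt (e 0) (cv e w b)| * |dt (e 1) (cv e' w' b')| +
          |dt (e 0) (cv e' w' b')| * |dt (e 1) (cv e w b)| := by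
      refine (abs_sub _ _).trans ?_
      rw [abs_mul, abs_mul]
    have h2 := mul_le_mul_of_nonneg_right h1 hw1.le
    have h3 : |dt (e 0) (cv e w b)| * (|dt (e 1) (cv e' w' b')| * w1) ≤
        2 * (4 * (X ^ 2 * (Λ * w2))) :=
      mul_le_mul n0 m1 (by positivity) (by norm_num)
    have h4 : |dt (e 0) (cv e' w' b')| * (|dt (e 1) (cv e w b)| * w1) ≤ 4 * (X ^ 2 * w2) :=
      mul_le_mul (m4 0) n1 (by positivity) (by norm_num)
    have e1 : (|dt (e 0) (cv e w b)| * |dt (e 1) (cv e' w' b')| +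
          |dt (e 0) (cv e' w' b')| * |dt (e 1) (cv e w b)|) * w1 =
        |dt (e 0) (cv e w b)| * (|dt (e 1) (cv e' w' b')| * w1) +
          |dt (e 0) (cv e' w' b')| * (|dt (e 1) (cv e w b)| * w1) := by ring
    rw [e1] at h2
    linarith
  · refine (abs_sub _ _).trans ?_
    rw [abs_mul, abs_mul]
    have h3 : |dt (e 0) (cv e w b)| * |dt (e 2) (cv e' w' b')| ≤ 2 * 4 :=
      mul_le_mul n0 (m4 2) (abs_nonneg _) (by norm_num)
    have h4 : |dt (e 0) (cv e' w' b')| * |dt (e 2) (cv e w b)| ≤ 4 * 1 :=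
      mul_le_mul (m4 0) n2 (abs_nonneg _) (by norm_num)
    linarith

/-! ### size of `M` -/

theorem M_size {π1 π2 w1 w2 Λ X a a' Y β t1 t2 : ℝ} {κ : ℝ} (hX : 2 ≤ X) (hΛ : 1 ≤ Λ)
    (hw2 : 0 < w2) (hw1 : 0 < w1) (ha : 0 < a) (ha' : 0 < a') (hY : 0 < Y) (hκ : 1 ≤ κ)
    (haa : a' ≤ X * a) (haa' : a ≤ X * a') (hβ : 1 / 4 ≤ β) (hβ' : β ≤ 4)
    (h1 : |π1| * w1 ≤ 12 * X ^ 2 * (Λ * w2)) (h2 : |π2| ≤ 12)
    (hlo : κ * Y ≤ X * max (|π1| * (w1 / Λ)) (|π2| * w2))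
    (e1 : t1 = π1 * w1 / (Λ * a' * β)) (e2 : t2 = π2 * w2 / (a' * β)) :
    ∃ M, 0 < M ∧ M ^ 2 = t1 ^ 2 + t2 ^ 2 ∧ κ * (Y / a) / X ^ 4 ≤ M ∧ M ≤ X ^ 10 * (w2 / a) := by
  have X0 : 0 < X := by linarith
  have Λ0 : 0 < Λ := by linarith
  have β0 : 0 < β := by linarith
  have hs : 0 ≤ t1 ^ 2 + t2 ^ 2 := by positivity
  obtain ⟨M, hM⟩ : ∃ M, M = √(t1 ^ 2 + t2 ^ 2) := ⟨_, rfl⟩
  have M0 : 0 ≤ M := by rw [hM]; exact Real.sqrt_nonneg _
  have hM2 : M ^ 2 = t1 ^ 2 + t2 ^ 2 := by rw [hM, Real.sq_sqrt hs]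
  have g1 : |t1| ≤ M := abs_le_of_sq_le_sq' (by nlinarith [sq_nonneg t2]) M0 |> fun h => abs_le.2 h
  have g2 : |t2| ≤ M := abs_le_of_sq_le_sq' (by nlinarith [sq_nonneg t1]) M0 |> fun h => abs_le.2 h
  have a1 : |t1| * (a' * β) = |π1| * (w1 / Λ) := by
    rw [e1, abs_div, abs_mul, abs_of_pos hw1, abs_of_pos (by positivity : 0 < Λ * a' * β)]
    field_simp
  have a2 : |t2| * (a' * β) = |π2| * w2 := by
    rw [e2, abs_div, abs_mul, abs_of_pos hw2, abs_of_pos (by positivity : 0 < a' * β)]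
    field_simp
  have ab : a' * β ≤ X * a * 4 := mul_le_mul haa hβ' β0.le (by positivity)
  have hmax : max (|π1| * (w1 / Λ)) (|π2| * w2) ≤ M * (X * a * 4) := by
    rw [← a1, ← a2]
    exact max_le (mul_le_mul g1 ab (by positivity) M0) (mul_le_mul g2 ab (by positivity) M0)
  have lo1 : κ * Y ≤ X ^ 4 * M * a := by
    have h3 : X * max (|π1| * (w1 / Λ)) (|π2| * w2) ≤ X * (M * (X * a * 4)) :=
      mul_le_mul_of_nonneg_left hmax X0.le
    have h4 : (4:ℝ) ≤ X ^ 2 := by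
      have := pow_le_pow_left₀ (by norm_num : (0:ℝ) ≤ 2) hX 2
      norm_num at this; exact this
    have h5 : 4 * (X ^ 2 * (M * a)) ≤ X ^ 2 * (X ^ 2 * (M * a)) :=
      mul_le_mul_of_nonneg_right h4 (by positivity)
    calc κ * Y ≤ X * (M * (X * a * 4)) := hlo.trans h3
      _ = 4 * (X ^ 2 * (M * a)) := by ring
      _ ≤ X ^ 2 * (X ^ 2 * (M * a)) := h5
      _ = X ^ 4 * M * a := by ring
  have lo : κ * (Y / a) / X ^ 4 ≤ M := by
    rw [div_le_iff₀ (by positivity), ← mul_div_assoc, div_le_iff₀ ha]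
    linarith
  have lop : 0 < κ * (Y / a) / X ^ 4 := by positivity
  refine ⟨M, lop.trans_le lo, hM2, lo, ?_⟩
  -- upper bound
  have ab' : a / (4 * X) ≤ a' * β := by
    rw [div_le_iff₀ (by positivity)]
    have h3 : X * a' * (1 / 4) ≤ X * a' * β := mul_le_mul_of_nonneg_left hβ (by positivity)
    linarith
  have hi : ∀ t P : ℝ, |t| * (a' * β) ≤ P → |t| ≤ 4 * X * P / a := by
    intro t P h
    rw [le_div_iff₀ ha]
    have h3 : |t| * (a / (4 * X)) ≤ P :=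
      (mul_le_mul_of_nonneg_left ab' (abs_nonneg _)).trans h
    have h4 : |t| * (a / (4 * X)) = |t| * a / (4 * X) := by ring
    rw [h4, div_le_iff₀ (by positivity)] at h3
    linarith
  have b1 : |t1| ≤ 4 * X * (12 * X ^ 2 * w2) / a := by
    apply hi
    rw [a1, ← mul_div_assoc, div_le_iff₀ Λ0]
    linarith
  have b2 : |t2| ≤ 4 * X * (12 * X ^ 2 * w2) / a := by
    apply hi
    rw [a2]
    have h3 : 12 * w2 ≤ 12 * X ^ 2 * w2 := by
      have h9 : (1:ℝ) ≤ X ^ 2 := one_le_pow₀ (by linarith)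
      have h10 : 1 * (12 * w2) ≤ X ^ 2 * (12 * w2) :=
        mul_le_mul_of_nonneg_right h9 (by positivity)
      calc 12 * w2 = 1 * (12 * w2) := (one_mul _).symm
        _ ≤ X ^ 2 * (12 * w2) := h10
        _ = 12 * X ^ 2 * w2 := by ring
    exact (mul_le_mul_of_nonneg_right h2 hw2.le).trans h3
  have b3 : M ≤ |t1| + |t2| := by
    have h9 : 0 ≤ |t1| * |t2| := mul_nonneg (abs_nonneg _) (abs_nonneg _)
    have h10 : M ^ 2 ≤ (|t1| + |t2|) ^ 2 := by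
      calc M ^ 2 = |t1| ^ 2 + |t2| ^ 2 := by rw [hM2, sq_abs, sq_abs]
        _ ≤ |t1| ^ 2 + |t2| ^ 2 + 2 * (|t1| * |t2|) := by linarith
        _ = (|t1| + |t2|) ^ 2 := by ring
    exact (abs_le_of_sq_le_sq' h10 (by positivity)).2
  have h7 : (96:ℝ) ≤ X ^ 7 := by
    have := pow_le_pow_left₀ (by norm_num : (0:ℝ) ≤ 2) hX 7
    norm_num at this; linarith
  have h8 : 96 * (X ^ 3 * (w2 / a)) ≤ X ^ 7 * (X ^ 3 * (w2 / a)) :=
    mul_le_mul_of_nonneg_right h7 (by positivity)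
  calc M ≤ 4 * X * (12 * X ^ 2 * w2) / a + 4 * X * (12 * X ^ 2 * w2) / a := by linarith
    _ = 96 * (X ^ 3 * (w2 / a)) := by ring
    _ ≤ X ^ 7 * (X ^ 3 * (w2 / a)) := h8
    _ = X ^ 10 * (w2 / a) := by ring

/-! ### strip coordinates of a pair -/

section
variable {e : Fin 3 → V3} {Λ w1 w2 z0 ρ : ℝ} {t0 : Ln4} {L : ℕ → Ln4} {b : ℕ → ℝ} {T T' : ℕ}

theorem dx0 : dx (stp e Λ w1 w2 z0 t0 L) (stc e Λ w1 w2 ρ t0 L) b T T' 0 =
    Λ * dt (e 1) (dis (L T) (L T') (z0 + ρ * b T)) / w1 := by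
  simp only [dx, stp, stc, dis, dt, Ln4.pos, Pi.sub_apply, Pi.smul_apply, smul_eq_mul,
    Matrix.cons_val_zero]
  ring

theorem dx1 : dx (stp e Λ w1 w2 z0 t0 L) (stc e Λ w1 w2 ρ t0 L) b T T' 1 =
    dt (e 2) (dis (L T) (L T') (z0 + ρ * b T)) / w2 := by
  simp only [dx, stp, stc, dis, dt, Ln4.pos, Pi.sub_apply, Pi.smul_apply, smul_eq_mul,
    Matrix.cons_val_one, Matrix.cons_val_fin_one]
  ring

theorem dc0 : dc (stc e Λ w1 w2 ρ t0 L) T T' 0 =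
    Λ * dt (e 1) (dis (L T) (L T') (z0 + ρ) - dis (L T) (L T') z0) / w1 := by
  simp only [dc, stc, dis, dt, Ln4.pos, Pi.sub_apply, Pi.smul_apply, smul_eq_mul,
    Matrix.cons_val_zero]
  ring

theorem dc1 : dc (stc e Λ w1 w2 ρ t0 L) T T' 1 =
    dt (e 2) (dis (L T) (L T') (z0 + ρ) - dis (L T) (L T') z0) / w2 := by
  simp only [dc, stc, dis, dt, Ln4.pos, Pi.sub_apply, Pi.smul_apply, smul_eq_mul,
    Matrix.cons_val_one, Matrix.cons_val_fin_one]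
  ring
end

/-! ### one line -/

section
variable {K : ℝ} {qm qp : Fin 3 → ℝ} {L : ℕ → Ln4} {Z : Finset ℕ}
    {S S' : Plk4} {f g : Fin 3 → V3} {W M a Y w1 w2 z0 ρ r : ℝ} {j k' : ℕ}

/-- the two sheets through the line `s` -/
theorem two_of (H : ShD K qm qp L Z S S' f g W M a Y w1 w2 z0 ρ r j k') {s : ℕ} (hs : s ∈ Z) :
    Two S.e S'.e S.c S'.c S.w S'.w S.q S'.q S.a S'.a z0 ρ (L s) (expP S z0 ρ (L s)).1
      (expP S z0 ρ (L s)).2.1 (expP S z0 ρ (L s)).2.2 (expP S' z0 ρ (L s)).1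
      (expP S' z0 ρ (L s)).2.1 (expP S' z0 ρ (L s)).2.2 := by
  have hS := H.shS
  have hS' := H.shS'
  have pa : 0 < S.a := H.r0.trans_le hS.r0_le
  have pa' : 0 < S'.a := H.r0.trans_le hS'.r0_le
  have p0 : 0 < S.w 0 := pa.trans_le hS.a_le0
  have p0' : 0 < S'.w 0 := pa'.trans_le hS'.a_le0
  exact { S := StP.of_shN hS p0
          S' := StP.of_shN hS' p0'
          a0 := pa
          aw := hS.a_le0
          a0' := pa'
          aw' := hS'.a_le0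
          ρ0 := H.ρ0
          hT := H.inS s hs
          kT := H.inS' s hs
          hE := expP_spec hS.isQ p0.ne' z0 ρ (L s)
          hE' := expP_spec hS'.isQ p0'.ne' z0 ρ (L s) }

/-- the length `8 K ^ 3` of the change of coordinates, `K = X ^ 12` -/
def LL (X : ℝ) : ℝ := 8 * (X ^ 12) ^ 3

set_option maxHeartbeats 1600000 in
theorem link_T (H : ShD K qm qp L Z S S' f g W M a Y w1 w2 z0 ρ r j k') {X : ℝ} (hX : W ≤ X)
    (tl0 : |dt (S.e 1) (S'.e 0)| * w1 ≤ X * (2 ^ j * w2))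
    (tl2 : |dt (S.e 1) (S'.e 2)| * w1 ≤ X * (2 ^ j * w2)) {s : ℕ} (hs : s ∈ Z) {ζ : ℝ}
    (hζ : ζ = 0 ∨ ζ = 1)
    (hlo : 2 ^ k' * Y ≤ X * max (|pik S S' z0 ρ (L s) ζ 1| * (w1 / 2 ^ j))
        (|pik S S' z0 ρ (L s) ζ 2| * w2)) {μ : ℝ} (μ0 : 0 ≤ μ) (hμ : 20000 * μ ≤ 1) :
    ∃ (gg : Fin 2 → ℝ) (Mf : ℝ) (G G' : ℝ × ℝ) (Hh Hh' : ℝ × ℝ × ℝ),
      gg 0 ^ 2 + gg 1 ^ 2 = 1 ∧ 2 ^ k' * (Y / a) / X ^ 4 ≤ Mf ∧ Mf ≤ X ^ 10 * (w2 / a) ∧
      (|G.1| ≤ 100 * LL X ^ 3 * (1024 * X * Y / a) ∧ |G.2| ≤ 100 * LL X ^ 3 * (1024 * X * Y / a) ∧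
        |Hh.1| ≤ 100 * LL X ^ 3 * (1024 * X * Y / a) ∧
        |Hh.2.1| ≤ 100 * LL X ^ 3 * (1024 * X * Y / a) ∧
        |Hh.2.2| ≤ 100 * LL X ^ 3 * (1024 * X * Y / a)) ∧
      (|G'.1| ≤ 100 * LL X ^ 3 * (1024 * X * Y / a) ∧
        |G'.2| ≤ 100 * LL X ^ 3 * (1024 * X * Y / a) ∧
        |Hh'.1| ≤ 100 * LL X ^ 3 * (1024 * X * Y / a) ∧
        |Hh'.2.1| ≤ 100 * LL X ^ 3 * (1024 * X * Y / a) ∧
        |Hh'.2.2| ≤ 100 * LL X ^ 3 * (1024 * X * Y / a)) ∧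
      ∀ (t0 : Ln4) (b : ℕ → ℝ), b s = ζ → ∀ s' ∈ Z,
        (∀ z, z = z0 ∨ z = z0 + ρ →
          |dt (S.e 1) (dis (L s) (L s') z)| ≤ μ * S.w 1 ∧
          |dt (S.e 2) (dis (L s) (L s') z)| ≤ μ * S.w 2) →
        (∀ z, z = z0 ∨ z = z0 + ρ →
          |dt (S'.e 1) (dis (L s) (L s') z)| ≤ μ * S'.w 1 ∧
          |dt (S'.e 2) (dis (L s) (L s') z)| ≤ μ * S'.w 2) →
        (∀ k, |dx (stp S.e (2 ^ j) w1 w2 z0 t0 L) (stc S.e (2 ^ j) w1 w2 ρ t0 L) b s s' k| ≤ μ / 2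
          ∧ |dc (stc S.e (2 ^ j) w1 w2 ρ t0 L) s s' k| ≤ μ / 2) →
        Six (40 * LL X ^ 4 * 164) (40 * LL X ^ 4 * (800 * μ + 2 * μ)) Mf G G' Hh Hh'
          (ny0 S.e S.w S.a z0 ρ (fun T => nb (expP S z0 ρ (L T)).1 (expP S z0 ρ (L T)).2.1 (b T))
            b L s s')
          (ny1 S.e S.w S.a z0 ρ (fun T => nb (expP S z0 ρ (L T)).1 (expP S z0 ρ (L T)).2.1 (b T))
            L s s')
          (al gg (dx (stp S.e (2 ^ j) w1 w2 z0 t0 L) (stc S.e (2 ^ j) w1 w2 ρ t0 L) b s s'))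
          (pe gg (dx (stp S.e (2 ^ j) w1 w2 z0 t0 L) (stc S.e (2 ^ j) w1 w2 ρ t0 L) b s s'))
          (al gg (dc (stc S.e (2 ^ j) w1 w2 ρ t0 L) s s'))
          (pe gg (dc (stc S.e (2 ^ j) w1 w2 ρ t0 L) s s')) := by
  have D := two_of H hs
  have hS := H.shS
  have hS' := H.shS'
  have W2 := H.W2
  have X2 : 2 ≤ X := by linarith
  have X1 : 1 ≤ X := by linarith
  have X0 : 0 < X := by linarith
  have W0 : 0 < W := by linarith
  have ha := H.a0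
  have hY : 0 < Y := ha.trans_le H.aY
  have hw2 : 0 < w2 := hY.trans_le H.Yw
  have hw1 : 0 < w1 := hw2.trans_le H.ww
  have pa := D.a0
  have pa' := D.a0'
  have pw := D.S.pos
  have pw' := D.S'.pos
  have N := D.hE.nrmC D.S D.ρ0.le fun z hz hz' => (D.hT z hz hz').1
  have N' := D.hE'.nrmC D.S' D.ρ0.le fun z hz hz' => (D.kT z hz hz').1
  obtain ⟨n1, n2, n3, n4⟩ := nb_bd N hζ
  obtain ⟨m1, m2, m3, m4⟩ := nb_bd N' hζ
  obtain ⟨b, hb⟩ : ∃ b, b = nb (expP S z0 ρ (L s)).1 (expP S z0 ρ (L s)).2.1 ζ := ⟨_, rfl⟩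
  obtain ⟨b', hb'⟩ : ∃ b, b = nb (expP S' z0 ρ (L s)).1 (expP S' z0 ρ (L s)).2.1 ζ := ⟨_, rfl⟩
  have hΛ : (1:ℝ) ≤ 2 ^ j := one_le_pow₀ (by norm_num)
  have hκ : (1:ℝ) ≤ 2 ^ k' := one_le_pow₀ (by norm_num)
  have WX : ∀ {x : ℝ}, 0 ≤ x → W * x ≤ X * x := fun hx => mul_le_mul_of_nonneg_right hX hx
  have K12 : X ≤ X ^ 12 := le_self_pow₀ X1 (by norm_num)
  have K12' : 1024 * X ^ 2 ≤ X ^ 12 := by
    have := pow_le_pow_left₀ (by norm_num : (0:ℝ) ≤ 2) X2 10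
    norm_num at this
    calc 1024 * X ^ 2 ≤ X ^ 10 * X ^ 2 := mul_le_mul_of_nonneg_right this (by positivity)
      _ = X ^ 12 := by ring
  have XK : ∀ {x : ℝ}, 0 ≤ x → X * x ≤ X ^ 12 * x := fun hx => mul_le_mul_of_nonneg_right K12 hx
  have c1 : w1 ≤ X * S.w 1 := H.d1.1.trans (WX (pw 1).le)
  have c2 : w2 ≤ X * S.w 2 := H.d2.1.trans (WX (pw 2).le)
  have c2r : S.w 2 ≤ X * w2 := H.d2.2.trans (WX hw2.le)
  have c1' : w1 ≤ X * S'.w 1 := H.d1'.1.trans (WX (pw' 1).le)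
  have c2' : w2 ≤ X * S'.w 2 := H.d2'.1.trans (WX (pw' 2).le)
  have c2r' : S'.w 2 ≤ X * w2 := H.d2'.2.trans (WX hw2.le)
  have ca : a ≤ X * S.a := H.da.1.trans (WX pa.le)
  have car : S.a ≤ X * a := H.da.2.trans (WX ha.le)
  have ca' : a ≤ X * S'.a := H.da'.1.trans (WX pa'.le)
  have car' : S'.a ≤ X * a := H.da'.2.trans (WX ha.le)
  -- the coefficients
  have kk : ∀ {A κ : ℝ}, 0 < A → a ≤ X * A → κ ≤ 4 * Y → 256 * (κ / A) ≤ 1024 * X * Y / a := by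
    intro A κ hA h1 h2
    rw [← mul_div_assoc, div_le_div_iff₀ hA ha]
    have h3 : 256 * κ * a ≤ 256 * (4 * Y) * a :=
      mul_le_mul_of_nonneg_right (mul_le_mul_of_nonneg_left h2 (by norm_num)) ha.le
    have h4 : 256 * (4 * Y) * a ≤ 256 * (4 * Y) * (X * A) :=
      mul_le_mul_of_nonneg_left h1 (by positivity)
    linarith
  have kS : S.w 0 * kap (expP S z0 ρ (L s)).1 (expP S z0 ρ (L s)).2.1 (expP S z0 ρ (L s)).2.2
      ≤ 4 * Y := (H.near s hs).2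
  have kS' : S'.w 0 * kap (expP S' z0 ρ (L s)).1 (expP S' z0 ρ (L s)).2.1
      (expP S' z0 ρ (L s)).2.2 ≤ 4 * Y := (H.le s hs).trans (H.near s hs).2
  have hB := kk pa ca kS
  have hB' := kk pa' ca' kS'
  rw [mul_div_right_comm] at hB hB'
  -- the change of coordinates
  have hBc : 0 ≤ 1024 * X * Y / a := by positivity
  have haa : S.a ≤ X ^ 12 * S'.a := by
    have h1 : X * a ≤ X * (X * S'.a) := mul_le_mul_of_nonneg_left ca' X0.le
    have h2 : X ^ 2 * S'.a ≤ X ^ 12 * S'.a :=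
      mul_le_mul_of_nonneg_right (pow_le_pow_right₀ X1 (by norm_num)) pa'.le
    calc S.a ≤ X * (X * S'.a) := car.trans h1
      _ = X ^ 2 * S'.a := by ring
      _ ≤ _ := h2
  have haX : S.a * (1024 * X * Y / a) ≤ X ^ 12 * w2 := by
    have h1 : S.a * (1024 * X * Y / a) ≤ X * a * (1024 * X * Y / a) :=
      mul_le_mul_of_nonneg_right car hBc
    have h2 : 1024 * X ^ 2 * Y ≤ 1024 * X ^ 2 * w2 :=
      mul_le_mul_of_nonneg_left H.Yw (by positivity)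
    calc S.a * (1024 * X * Y / a) ≤ X * a * (1024 * X * Y / a) := h1
      _ = 1024 * X ^ 2 * Y := by field_simp
      _ ≤ 1024 * X ^ 2 * w2 := h2
      _ ≤ X ^ 12 * w2 := mul_le_mul_of_nonneg_right K12' hw2.le
  have hfr : |dt (S'.e 2) (S.e 1)| * w1 ≤ X ^ 12 * (2 ^ j * w2) := by
    rw [dt_comm]; exact tl2.trans (XK (by positivity))
  obtain ⟨l11, l22, k10, k11, k12, k20, k21, k22, mm, hMtx⟩ := mtx_of (w := S.w) (w' := S'.w)
    (b := b) (b' := b') (a := S.a) (a' := S'.a) (w1 := w1) (w2 := w2) (Λ := 2 ^ j)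
    (K := X ^ 12) (Bc := 1024 * X * Y / a) hS.ortho hS'.ortho pw pw' hS.w0_le hS.w_le hS'.w0_le
    hS'.w_le (by rw [hb]; exact n1) (by rw [hb]; exact n3) (by rw [hb]; exact n4)
    (by rw [hb']; exact m1) (by rw [hb']; exact m2) (by rw [hb']; exact m3)
    (by rw [hb']; exact m4) pa pa' haa (one_le_pow₀ X1) hΛ hw2 H.ww (c1.trans (XK (pw 1).le))
    (c2.trans (XK (pw 2).le)) (c2r.trans (XK hw2.le)) (c1'.trans (XK (pw' 1).le))
    (c2'.trans (XK (pw' 2).le)) hBc haX hfr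
  -- size of the minors
  have hpk := pk_hi (w := S.w) (w' := S'.w) (b := b) (b' := b') (w1 := w1) (w2 := w2)
    (Λ := 2 ^ j) (X := X) hS.ortho hS'.ortho pw pw' hS.w0_le hS.w_le hS'.w0_le hS'.w_le
    (by rw [hb, abs_of_pos (by linarith)]; exact n2) (by rw [hb]; exact n3)
    (by rw [hb]; exact n4) (by rw [hb', abs_of_pos (by linarith)]; exact m2)
    (by rw [hb']; exact m3) (by rw [hb']; exact m4) X1 hΛ hw2 hw1 c1 c2r c1' c2r' tl0 tl2
  have eb0 : 1 / 2 ≤ b 0 := by rw [hb]; exact n1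
  have eb0' : b 0 ≤ 2 := by rw [hb]; exact n2
  have fb0 : 1 / 2 ≤ b' 0 := by rw [hb']; exact m1
  have fb0' : b' 0 ≤ 2 := by rw [hb']; exact m2
  have hlo' : 2 ^ k' * Y ≤ X * max (|pk S.e (cv S.e S.w b) (cv S'.e S'.w b') 1| * (w1 / 2 ^ j))
        (|pk S.e (cv S.e S.w b) (cv S'.e S'.w b') 2| * w2) := by
    rw [hb, hb']; exact hlo
  obtain ⟨t1, ht1⟩ : ∃ t, t = pk S.e (cv S.e S.w b) (cv S'.e S'.w b') 1 * w1 /
    (2 ^ j * S'.a * (b' 0 * b 0)) := ⟨_, rfl⟩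
  obtain ⟨t2, ht2⟩ : ∃ t, t = pk S.e (cv S.e S.w b) (cv S'.e S'.w b') 2 * w2 /
    (S'.a * (b' 0 * b 0)) := ⟨_, rfl⟩
  have bb1 : 1 / 4 ≤ b' 0 * b 0 := by nlinarith
  have bb2 : b' 0 * b 0 ≤ 4 := by nlinarith
  obtain ⟨Mf, M0, hM2, Mlo, Mhi⟩ := M_size (κ := 2 ^ k') X2 hΛ hw2 hw1 ha pa' hY hκ car' ca' bb1
    bb2 hpk.1 hpk.2 hlo' ht1 ht2
  rw [← ht1, ← ht2, hb, hb'] at hMtx
  obtain ⟨G, G', Hh, Hh', q1, q2, q3⟩ := link_at sixOf D hζ hB hB' hμ μ0 hMtx M0 hM2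
  refine ⟨![t1 / Mf, t2 / Mf], Mf, G, G', Hh, Hh', ?_, Mlo, Mhi, q1, q2, ?_⟩
  · simp only [Matrix.cons_val_zero, Matrix.cons_val_one, Matrix.cons_val_fin_one]
    rw [div_pow, div_pow, ← add_div, ← hM2, div_self (by positivity)]
  · intro t0 bf hbf s' hs' h1 h2 h3
    have z0' := h3 0
    have z1' := h3 1
    rw [dx0, dc0, hbf] at z0'
    rw [dx1, dc1, hbf] at z1'
    have hμ1 : 2 * μ ≤ 1 := by linarith
    have hh : μ / 2 ≤ 2 * μ := by linarith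
    have := q3 (L s') (2 * μ) (H.inS s' hs') (H.inS' s' hs') h1 h2 le_rfl hμ1
      (z0'.1.trans hh) (z1'.1.trans hh) (z0'.2.trans hh) (z1'.2.trans hh)
    have e1 : al ![t1 / Mf, t2 / Mf] (dx (stp S.e (2 ^ j) w1 w2 z0 t0 L)
        (stc S.e (2 ^ j) w1 w2 ρ t0 L) bf s s') =
        (t1 * (2 ^ j * dt (S.e 1) (dis (L s) (L s') (z0 + ρ * ζ)) / w1) +
          t2 * (dt (S.e 2) (dis (L s) (L s') (z0 + ρ * ζ)) / w2)) / Mf := by
      simp only [al, Matrix.cons_val_zero, Matrix.cons_val_one, Matrix.cons_val_fin_one]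
      rw [dx0, dx1, hbf]; ring
    have e2 : pe ![t1 / Mf, t2 / Mf] (dx (stp S.e (2 ^ j) w1 w2 z0 t0 L)
        (stc S.e (2 ^ j) w1 w2 ρ t0 L) bf s s') =
        (t1 * (dt (S.e 2) (dis (L s) (L s') (z0 + ρ * ζ)) / w2) -
          t2 * (2 ^ j * dt (S.e 1) (dis (L s) (L s') (z0 + ρ * ζ)) / w1)) / Mf := by
      simp only [pe, Matrix.cons_val_zero, Matrix.cons_val_one, Matrix.cons_val_fin_one]
      rw [dx0, dx1, hbf]; ring
    have e3 : al ![t1 / Mf, t2 / Mf] (dc (stc S.e (2 ^ j) w1 w2 ρ t0 L) s s') =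
        (t1 * (2 ^ j * dt (S.e 1) (dis (L s) (L s') (z0 + ρ) - dis (L s) (L s') z0) / w1) +
          t2 * (dt (S.e 2) (dis (L s) (L s') (z0 + ρ) - dis (L s) (L s') z0) / w2)) / Mf := by
      simp only [al, Matrix.cons_val_zero, Matrix.cons_val_one, Matrix.cons_val_fin_one]
      rw [dc0, dc1]; ring
    have e4 : pe ![t1 / Mf, t2 / Mf] (dc (stc S.e (2 ^ j) w1 w2 ρ t0 L) s s') =
        (t1 * (dt (S.e 2) (dis (L s) (L s') (z0 + ρ) - dis (L s) (L s') z0) / w2) -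
          t2 * (2 ^ j * dt (S.e 1) (dis (L s) (L s') (z0 + ρ) - dis (L s) (L s') z0) / w1)) /
            Mf := by
      simp only [pe, Matrix.cons_val_zero, Matrix.cons_val_one, Matrix.cons_val_fin_one]
      rw [dc0, dc1]; ring
    rw [e1, e2, e3, e4]
    simp only [ny0, ny1, hbf]
    exact this

end

/-! ### the links -/

/-- **`Lnk` over `ShD`** -/
theorem lnkSh : LnkSh := by
  refine ⟨320, 139, 170, 10, ?_⟩
  intro K qm qp L Z S S' f g W M a Y w1 w2 z0 ρ r j k' H X hX tl0 tl2 hlo t0 F hF R μ hR hp hc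
    hμ0 hμ hcl
  choose! b hb hbl using hlo
  have W2 := H.W2
  have X2 : 2 ≤ X := by linarith
  have X1 : 1 ≤ X := by linarith
  have X0 : 0 < X := by linarith
  have ha := H.a0
  have hY : 0 < Y := ha.trans_le H.aY
  have hw2 : 0 < w2 := hY.trans_le H.Yw
  have pw : ∀ n m : ℕ, n ≤ m → X ^ n ≤ X ^ m := fun n m h => pow_le_pow_right₀ X1 h
  have p2 : ∀ n : ℕ, (2:ℝ) ^ n ≤ X ^ n := fun n => pow_le_pow_left₀ (by norm_num) X2 n
  have hpow : ∀ n : ℕ, n ≤ 320 → X ^ n * μ ≤ 1 := fun n hn =>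
    (mul_le_mul_of_nonneg_right (pw n 320 hn) hμ0.le).trans hμ
  have hμ2 : 20000 * μ ≤ 1 := by
    have h1 := hpow 15 (by norm_num)
    have h2 := p2 15
    norm_num at h2
    have h3 := mul_le_mul_of_nonneg_right h2 hμ0.le
    linarith
  have key := fun s (hs : s ∈ Z) => link_T H hX tl0 tl2 hs (hb s hs) (hbl s hs) hμ0.le hμ2
  choose! gg Mf G G' Hh Hh' hgn hlo' hhi hbd hbd' hsix using key
  have eL : LL X = 8 * X ^ 36 := by unfold LL; ring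
  have eL3 : 100 * LL X ^ 3 * (1024 * X * Y / a) = 52428800 * (X ^ 109 * (Y / a)) := by
    rw [eL]; ring
  have hYa : 1 ≤ Y / a := by rw [le_div_iff₀ ha, one_mul]; exact H.aY
  have hκ : (1:ℝ) ≤ 2 ^ k' := one_le_pow₀ (by norm_num)
  have hM00 : 0 < 2 ^ k' * (Y / a) / X ^ 4 := by positivity
  have M0lo : X ^ 135 * (Y / a) ≤ X ^ 139 * (2 ^ k' * (Y / a) / X ^ 4) := by
    have h1 : 1 * (X ^ 135 * (Y / a)) ≤ 2 ^ k' * (X ^ 135 * (Y / a)) :=
      mul_le_mul_of_nonneg_right hκ (by positivity)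
    calc X ^ 135 * (Y / a) = 1 * (X ^ 135 * (Y / a)) := (one_mul _).symm
      _ ≤ 2 ^ k' * (X ^ 135 * (Y / a)) := h1
      _ = X ^ 139 * (2 ^ k' * (Y / a) / X ^ 4) := by field_simp
  have cb : ∀ s ∈ Z, 100 * LL X ^ 3 * (1024 * X * Y / a) ≤ X ^ 139 * Mf s := by
    intro s hs
    have h1 : X ^ 139 * (2 ^ k' * (Y / a) / X ^ 4) ≤ X ^ 139 * Mf s :=
      mul_le_mul_of_nonneg_left (hlo' s hs) (by positivity)
    have h2 := p2 26
    norm_num at h2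
    have h3 : 52428800 * (X ^ 109 * (Y / a)) ≤ X ^ 26 * (X ^ 109 * (Y / a)) :=
      mul_le_mul_of_nonneg_right (by linarith) (by positivity)
    rw [eL3]
    calc 52428800 * (X ^ 109 * (Y / a)) ≤ X ^ 26 * (X ^ 109 * (Y / a)) := h3
      _ = X ^ 135 * (Y / a) := by ring
      _ ≤ _ := M0lo.trans h1
  have hK2 : 40 * LL X ^ 4 * 164 ≤ X ^ 170 := by
    have e1 : 40 * LL X ^ 4 * 164 = 26869760 * X ^ 144 := by rw [eL]; ring
    have h2 := p2 26
    norm_num at h2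
    rw [e1]
    calc 26869760 * X ^ 144 ≤ X ^ 26 * X ^ 144 :=
          mul_le_mul_of_nonneg_right (by linarith) (by positivity)
      _ = X ^ 170 := by ring
  refine ⟨fun T => nb (expP S z0 ρ (L T)).1 (expP S z0 ρ (L T)).2.1 (b T), b, gg, Mf, G, G', Hh,
    Hh', 40 * LL X ^ 4 * (800 * μ + 2 * μ), ?_, ?_⟩
  · exact
      { bb := fun T hT => hb T (hF hT)
        gn := fun T hT => hgn T (hF hT)
        rp := hp
        rc := hc
        hR := hR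
        hm := hμ0
        hmm := by
          have h1 := hpow 316 (by norm_num)
          have h2 := p2 7
          norm_num at h2
          have h3 : 100 * (X ^ 309 * μ) ≤ X ^ 7 * (X ^ 309 * μ) :=
            mul_le_mul_of_nonneg_right (by linarith) (by positivity)
          calc 100 * (X ^ 170 * (X ^ 139 * μ)) = 100 * (X ^ 309 * μ) := by ring
            _ ≤ X ^ 7 * (X ^ 309 * μ) := h3
            _ = X ^ 316 * μ := by ring
            _ ≤ 1 := h1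
        hd := by
          have h1 := hpow 180 (by norm_num)
          have h2 := p2 36
          norm_num at h2
          have e1 : 100 * (40 * LL X ^ 4 * (800 * μ + 2 * μ)) =
              13139968000 * (X ^ 144 * μ) := by rw [eL]; ring
          rw [e1]
          calc 13139968000 * (X ^ 144 * μ) ≤ X ^ 36 * (X ^ 144 * μ) :=
                mul_le_mul_of_nonneg_right (by linarith) (by positivity)
            _ = X ^ 180 * μ := by ring
            _ ≤ 1 := h1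
        hW := one_le_pow₀ X1
        hK := one_le_pow₀ X1
        hM := hM00
        hWM := by
          have h1 : (1:ℝ) ≤ X ^ 135 := one_le_pow₀ X1
          have h2 : 1 * 1 ≤ X ^ 135 * (Y / a) := mul_le_mul h1 hYa zero_le_one (by positivity)
          linarith
        MM := fun T hT => hlo' T (hF hT)
        Mx := fun T hT => hhi T (hF hT)
        bd := fun T hT =>
          { g1 := (hbd T (hF hT)).1.trans (cb T (hF hT))
            h1 := (hbd T (hF hT)).2.2.1.trans (cb T (hF hT))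
            h12 := (hbd T (hF hT)).2.2.2.1.trans (cb T (hF hT)) }
        bd' := fun T hT =>
          { g1 := (hbd' T (hF hT)).1.trans (cb T (hF hT))
            h1 := (hbd' T (hF hT)).2.2.1.trans (cb T (hF hT))
            h12 := (hbd' T (hF hT)).2.2.2.1.trans (cb T (hF hT)) }
        g2 := fun T hT => (hbd T (hF hT)).2.1.trans (cb T (hF hT))
        g2' := fun T hT => (hbd' T (hF hT)).2.1.trans (cb T (hF hT))
        h22 := fun T hT => (hbd T (hF hT)).2.2.2.2.trans (cb T (hF hT))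
        h22' := fun T hT => (hbd' T (hF hT)).2.2.2.2.trans (cb T (hF hT))
        six := by
          intro T hT T' hT' _ hsm
          have c := hcl T hT T' hT'
          refine six_mono (hsix T (hF hT) t0 b rfl T' (hF hT') (fun z hz => ?_) (fun z hz => ?_)
            hsm) hK2 (hM00.le.trans (hlo' T (hF hT)))
          · exact ⟨(c z hz).1, (c z hz).2.1⟩
          · exact ⟨(c z hz).2.2.1, (c z hz).2.2.2⟩ }
  · intro T hT
    have D := two_of H (hF hT)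
    have N := D.hE.nrmC D.S D.ρ0.le fun z hz hz' => (D.hT z hz hz').1
    obtain ⟨n1, n2, n3, n4⟩ := nb_bd N (hb T (hF hT))
    have n0 : 0 < nb (expP S z0 ρ (L T)).1 (expP S z0 ρ (L T)).2.1 (b T) 0 := by linarith
    constructor
    · rw [abs_div, abs_of_pos n0, div_le_iff₀ n0]; linarith
    · rw [abs_div, abs_of_pos n0, div_le_iff₀ n0]; linarith

end Crest.Agent.R136.Lnf524
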