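import Crest.Agent.R136.Shl_410
import Crest.Agent.R136.Lkg_18
import Crest.Agent.R136.Lnk6_989
import Crest.Agent.R136.Lnk2_816
import Crest.Agent.R136.Tpl_706

/-!
# R136 (S0187), PLAN 2, leaf (B4), (III): the link at one line (helper18, second of helper524)
-/

set_option autoImplicit false
set_option linter.unusedVariables false

namespace Crest.Agent.R136.Lni18

open Finset
open Crest.Agent.R136.Sh605
open Crest.Agent.R136.K4 (Plk4)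
open Crest.Agent.R136.Tlt51 (Shp InP)
open Crest.Agent.R136.Fl808 (dt_expand abs_dt_le_one)
open Crest.Agent.R136.Mdr535 (ty gr)
open Crest.Agent.R136.Mlt89 (cv dt_cv dt_cv0 dt_cv1 dt_cv2)
open Crest.Agent.R136.Lnk989
open Crest.Agent.R136.Lkf18
open Crest.Agent.R136.Clu108 (Six Bd)
open Crest.Agent.R136.KapP335 (kapP expP expP_spec)
open Crest.Agent.R136.Tl102 (NrmC IsExp StP kap QF)
open Crest.Agent.R136.Pl2
open Crest.Agent.R136.Pl2W102 (Near Ex2 Two1)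
open Crest.Agent.R136.Shd410 (ShD)

/-- 816's `six_of` in 989's letters -/
theorem sixOf : SixOf 40 := by
  intro K0 d0 B L M g1 g2 h11 h12 h22 g1' g2' h11' h12' h22' l10 l11 l12 l20 l21 l22 k10 k11 k12
    k20 k21 k22 mm t1 t2 hK0 hd0 hL hM hMt a1 a2 a3 a4 a5 a1' a2' a3' a4' a5' c1 c2 c3 c4 c5 c6 c7
    c8 e1 e2 e3 e4 hmm
  obtain ⟨g, g', h, h', ⟨b1, b2, b3, b4, b5, b6, b7, b8, b9, b10⟩, hs⟩ :=
    Lnk2816.six_of a1 a2 a3 a4 a5 a1' a2' a3' a4' a5' hL c1 c2 c3 c4 c5 c6 c7 c8 e1 e2 e3 e4 hmm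
      hd0 hK0 hM hMt
  exact ⟨g, g', h, h', ⟨b1, b2, b5, b6, b7⟩, ⟨b3, b4, b8, b9, b10⟩,
    fun Y0 Y1 N0 N1 A0 B0 A1 B1 x1 x2 v1 v2 x1' x2' v1' v2' m o o' =>
      hs Y0 Y1 N0 N1 A0 B0 A1 B1 x1 x2 v1 v2 x1' x2' v1' v2' m ⟨o.1, o.2.1, o.2.2⟩
        ⟨o'.1, o'.2.1, o'.2.2⟩⟩

/-- a component of the gradient -/
theorem dt_cv_le {e : Fin 3 → V3} {w b x : V3} (hw : ∀ i, 0 < w i) (hb : 1 / 2 ≤ b 0)
    (hb0 : b 0 ≤ 2) (hb1 : |b 1| ≤ 1) (hb2 : |b 2| ≤ 1) :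
    |dt x (cv e w b)| ≤ 2 * |dt x (e 0)| + w 0 / w 1 * |dt x (e 1)| + w 0 / w 2 * |dt x (e 2)| := by
  rw [dt_cv]
  have p0 := hw 0
  have p1 := hw 1
  have p2 := hw 2
  have b0 : 0 < b 0 := by linarith
  have t0 : |w 0 / w 0 * b 0 * dt x (e 0)| ≤ 2 * |dt x (e 0)| := by
    rw [div_self p0.ne', one_mul, abs_mul, abs_of_pos b0]
    exact mul_le_mul_of_nonneg_right hb0 (abs_nonneg _)
  have tk : ∀ k : Fin 3, |b k| ≤ 1 → |w 0 / w k * b k * dt x (e k)| ≤ w 0 / w k * |dt x (e k)| := by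
    intro k hk
    rw [abs_mul, abs_mul, abs_of_pos (div_pos p0 (hw k))]
    have : w 0 / w k * |b k| ≤ w 0 / w k * 1 :=
      mul_le_mul_of_nonneg_left hk (div_pos p0 (hw k)).le
    rw [mul_one] at this
    exact mul_le_mul_of_nonneg_right this (abs_nonneg _)
  refine (abs_add_le _ _).trans (add_le_add ((abs_add_le _ _).trans (add_le_add t0 ?_)) ?_)
  · exact tk 1 hb1
  · exact tk 2 hb2

/-- upper bounds of the minors -/
theorem pk_le {e e' : Fin 3 → V3} (he : Ortho e) (he' : Ortho e') {w w' b b' : V3}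
    {w1 w2 Λ W : ℝ} (hw : ∀ i, 0 < w i) (hw' : ∀ i, 0 < w' i)
    (h02 : w 0 ≤ w 2) (h21 : w 2 ≤ w 1) (h02' : w' 0 ≤ w' 2) (h21' : w' 2 ≤ w' 1)
    (hb : 1 / 2 ≤ b 0) (hb0 : b 0 ≤ 2) (hb1 : |b 1| ≤ 1) (hb2 : |b 2| ≤ 1)
    (hb' : 1 / 2 ≤ b' 0) (hb0' : b' 0 ≤ 2) (hb1' : |b' 1| ≤ 1) (hb2' : |b' 2| ≤ 1)
    (hW : 1 ≤ W) (hΛ : 1 ≤ Λ) (hw2 : 0 < w2) (hw1 : 0 < w1)
    (d1 : w1 ≤ W * w 1) (d2r : w 2 ≤ W * w2) (d1' : w1 ≤ W * w' 1) (d2r' : w' 2 ≤ W * w2)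
    (t0 : |dt (e 1) (e' 0)| * w1 ≤ 7 * W ^ 3 * (Λ * w2))
    (t2 : |dt (e 1) (e' 2)| * w1 ≤ 7 * W ^ 3 * (Λ * w2)) :
    |pk e (cv e w b) (cv e' w' b') 1| * (w1 / Λ) ≤ 48 * W ^ 3 * w2 ∧
      |pk e (cv e w b) (cv e' w' b') 2| ≤ 12 := by
  have W0 : 0 < W := by linarith
  have Λ0 : 0 < Λ := by linarith
  have p0 := hw 0
  have p1 := hw 1
  have p2 := hw 2
  have p0' := hw' 0
  have p1' := hw' 1
  have p2' := hw' 2
  have bp : 0 < b 0 := by linarith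
  have o : ∀ i j, |dt (e i) (e' j)| ≤ 1 := fun i j => abs_dt_le_one he' he i j
  have r1' : w' 0 / w' 1 ≤ 1 := by rw [div_le_one p1']; linarith
  have r2' : w' 0 / w' 2 ≤ 1 := by rw [div_le_one p2']; linarith
  have q1' : 0 < w' 0 / w' 1 := div_pos p0' p1'
  have q2' : 0 < w' 0 / w' 2 := div_pos p0' p2'
  have n0 : |dt (e 0) (cv e w b)| ≤ 2 := by
    rw [dt_cv0 he p0.ne', abs_of_pos bp]; exact hb0
  have n1 : |dt (e 1) (cv e w b)| * w 1 ≤ w 0 := by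
    rw [dt_cv1 he, abs_mul, abs_of_pos (div_pos p0 p1)]
    have : w 0 / w 1 * |b 1| * w 1 = w 0 * |b 1| := by field_simp
    rw [this]; nlinarith
  have n2 : |dt (e 2) (cv e w b)| ≤ 1 := by
    rw [dt_cv2 he, abs_mul, abs_of_pos (div_pos p0 p2)]
    have r2 : w 0 / w 2 ≤ 1 := by rw [div_le_one p2]; exact h02
    calc w 0 / w 2 * |b 2| ≤ 1 * 1 := mul_le_mul r2 hb2 (abs_nonneg _) (by norm_num)
      _ = 1 := by norm_num
  have four : ∀ i, |dt (e i) (cv e' w' b')| ≤ 4 := by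
    intro i
    have h := dt_cv_le (e := e') (w := w') (b := b') (x := e i) hw' hb' hb0' hb1' hb2'
    have a0 := o i 0
    have a1 : w' 0 / w' 1 * |dt (e i) (e' 1)| ≤ 1 * 1 :=
      mul_le_mul r1' (o i 1) (abs_nonneg _) (by norm_num)
    have a2 : w' 0 / w' 2 * |dt (e i) (e' 2)| ≤ 1 * 1 :=
      mul_le_mul r2' (o i 2) (abs_nonneg _) (by norm_num)
    linarith
  have W23 : W ^ 2 ≤ W ^ 3 := pow_le_pow_right₀ hW (by norm_num)
  have n1' : |dt (e 1) (cv e' w' b')| * w1 ≤ 22 * W ^ 3 * (Λ * w2) := by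
    have h := dt_cv_le (e := e') (w := w') (b := b') (x := e 1) hw' hb' hb0' hb1' hb2'
    have a1 : w' 0 / w' 1 * |dt (e 1) (e' 1)| * w1 ≤ W ^ 3 * (Λ * w2) := by
      have u1 : w' 0 / w' 1 * w1 ≤ W * w' 0 := by
        rw [div_mul_eq_mul_div, div_le_iff₀ p1']
        calc w' 0 * w1 ≤ w' 0 * (W * w' 1) := mul_le_mul_of_nonneg_left d1' p0'.le
          _ = _ := by ring
      have u2 : W * w' 0 ≤ W ^ 2 * w2 := by
        calc W * w' 0 ≤ W * (W * w2) := by gcongr; linarith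
          _ = _ := by ring
      calc w' 0 / w' 1 * |dt (e 1) (e' 1)| * w1 = (w' 0 / w' 1 * w1) * |dt (e 1) (e' 1)| := by ring
        _ ≤ (w' 0 / w' 1 * w1) * 1 := mul_le_mul_of_nonneg_left (o 1 1) (by positivity)
        _ ≤ W ^ 2 * w2 := by linarith
        _ = W ^ 2 * (1 * w2) := by ring
        _ ≤ W ^ 3 * (Λ * w2) := by gcongr
    have a2 : w' 0 / w' 2 * |dt (e 1) (e' 2)| * w1 ≤ 7 * W ^ 3 * (Λ * w2) := by
      calc w' 0 / w' 2 * |dt (e 1) (e' 2)| * w1 = w' 0 / w' 2 * (|dt (e 1) (e' 2)| * w1) := by ring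
        _ ≤ 1 * (|dt (e 1) (e' 2)| * w1) := mul_le_mul_of_nonneg_right r2' (by positivity)
        _ ≤ _ := by linarith
    calc |dt (e 1) (cv e' w' b')| * w1 ≤ (2 * |dt (e 1) (e' 0)| + w' 0 / w' 1 * |dt (e 1) (e' 1)| +
          w' 0 / w' 2 * |dt (e 1) (e' 2)|) * w1 := mul_le_mul_of_nonneg_right h hw1.le
      _ = 2 * (|dt (e 1) (e' 0)| * w1) + w' 0 / w' 1 * |dt (e 1) (e' 1)| * w1 +
          w' 0 / w' 2 * |dt (e 1) (e' 2)| * w1 := by ring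
      _ ≤ _ := by linarith
  constructor
  · rw [mul_div_assoc', div_le_iff₀ Λ0]
    unfold pk
    have c1 : |dt (e 0) (cv e w b) * dt (e 1) (cv e' w' b')| * w1 ≤ 2 * (22 * W ^ 3 * (Λ * w2)) := by
      rw [abs_mul, mul_assoc]
      exact mul_le_mul n0 n1' (by positivity) (by norm_num)
    have c2 : |dt (e 0) (cv e' w' b') * dt (e 1) (cv e w b)| * w1 ≤ 4 * (W ^ 3 * (Λ * w2)) := by
      have u1 : |dt (e 1) (cv e w b)| * w1 ≤ W ^ 3 * (Λ * w2) := by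
        calc |dt (e 1) (cv e w b)| * w1 ≤ |dt (e 1) (cv e w b)| * (W * w 1) :=
              mul_le_mul_of_nonneg_left d1 (abs_nonneg _)
          _ = W * (|dt (e 1) (cv e w b)| * w 1) := by ring
          _ ≤ W * w 0 := mul_le_mul_of_nonneg_left n1 W0.le
          _ ≤ W * (W * w2) := by gcongr; linarith
          _ = W ^ 2 * (1 * w2) := by ring
          _ ≤ W ^ 3 * (Λ * w2) := by gcongr
      rw [abs_mul, mul_assoc]
      exact mul_le_mul (four 0) u1 (by positivity) (by norm_num)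
    calc _ ≤ (|dt (e 0) (cv e w b) * dt (e 1) (cv e' w' b')| +
          |dt (e 0) (cv e' w' b') * dt (e 1) (cv e w b)|) * w1 :=
          mul_le_mul_of_nonneg_right (abs_sub _ _) hw1.le
      _ = |dt (e 0) (cv e w b) * dt (e 1) (cv e' w' b')| * w1 +
          |dt (e 0) (cv e' w' b') * dt (e 1) (cv e w b)| * w1 := by ring
      _ ≤ 2 * (22 * W ^ 3 * (Λ * w2)) + 4 * (W ^ 3 * (Λ * w2)) := add_le_add c1 c2
      _ = _ := by ring
  · unfold pk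
    have c1 : |dt (e 0) (cv e w b) * dt (e 2) (cv e' w' b')| ≤ 2 * 4 := by
      rw [abs_mul]; exact mul_le_mul n0 (four 2) (abs_nonneg _) (by norm_num)
    have c2 : |dt (e 0) (cv e' w' b') * dt (e 2) (cv e w b)| ≤ 4 * 1 := by
      rw [abs_mul]; exact mul_le_mul (four 0) n2 (abs_nonneg _) (by norm_num)
    exact (abs_sub _ _).trans (by linarith)

end Crest.Agent.R136.Lni18
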