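import Crest.Agent.R136.Lni_18

/-!
# R136 (S0187), PLAN 2, leaf (B4), (III): the link of one line over `ShD` (helper18)
-/

set_option autoImplicit false
set_option linter.unusedVariables false

namespace Crest.Agent.R136.Lni18

open Finset
open Crest.Agent.R136.Sh605
open Crest.Agent.R136.K4 (Plk4)
open Crest.Agent.R136.Tlt51 (Shp InP)
open Crest.Agent.R136.Fl808 (dt_expand abs_dt_le_one)
open Crest.Agent.R136.Mdr535 (ty gr)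
open Crest.Agent.R136.Mlt89 (cv dt_cv dt_cv0 dt_cv1 dt_cv2)
open Crest.Agent.R136.Lnk989
open Crest.Agent.R136.Lkf18
open Crest.Agent.R136.Clu108 (Six Bd)
open Crest.Agent.R136.KapP335 (kapP expP expP_spec)
open Crest.Agent.R136.Tl102 (NrmC IsExp StP kap QF)
open Crest.Agent.R136.Pl2
open Crest.Agent.R136.Pl2W102 (Near Ex2 Two1)
open Crest.Agent.R136.Shd410 (ShD)

/-- size of `M` from the minors -/
theorem M_of {p1 p2 w1 w2 Λ a a' β D W X t1 t2 M : ℝ} (hΛ : 0 < Λ) (ha : 0 < a) (ha' : 0 < a')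
    (haw : a' ≤ W * a) (haw' : a ≤ W * a') (hW : 1 ≤ W) (hβ1 : 1 / 4 ≤ β) (hβ : β ≤ 4)
    (hD : 1 ≤ D) (hw1 : 0 < w1) (hw2 : 0 < w2) (ht1 : t1 = p1 * w1 / (Λ * a' * β))
    (ht2 : t2 = p2 * w2 / (a' * β)) (hM : 0 ≤ M) (hMt : M ^ 2 = t1 ^ 2 + t2 ^ 2)
    (hlo : X ≤ D * max (|p1| * (w1 / Λ)) (|p2| * w2))
    (u1 : |p1| * (w1 / Λ) ≤ 48 * W ^ 3 * w2) (u2 : |p2| ≤ 12) :
    X ≤ 4 * W * D * (a * M) ∧ a * M ≤ 240 * W ^ 4 * w2 := by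
  have β0 : 0 < β := by linarith
  have W0 : 0 < W := by linarith
  have m1 : |t1| ≤ M := by
    rw [← abs_of_nonneg hM, ← sq_le_sq, hMt]; nlinarith [sq_nonneg t2]
  have m2 : |t2| ≤ M := by
    rw [← abs_of_nonneg hM, ← sq_le_sq, hMt]; nlinarith [sq_nonneg t1]
  have m3 : M ≤ |t1| + |t2| := by
    rw [← abs_of_nonneg hM, ← abs_of_nonneg (by positivity : 0 ≤ |t1| + |t2|), ← sq_le_sq, hMt]
    have e1 : t1 ^ 2 = |t1| ^ 2 := (sq_abs t1).symm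
    have e2 : t2 ^ 2 = |t2| ^ 2 := (sq_abs t2).symm
    rw [e1, e2]
    nlinarith [mul_nonneg (abs_nonneg t1) (abs_nonneg t2)]
  have f1 : |p1| * (w1 / Λ) = |t1| * (a' * β) := by
    rw [ht1, abs_div, abs_mul, abs_of_pos hw1, abs_of_pos (by positivity : 0 < Λ * a' * β)]
    field_simp
  have f2 : |p2| * w2 = |t2| * (a' * β) := by
    rw [ht2, abs_div, abs_mul, abs_of_pos hw2, abs_of_pos (by positivity : 0 < a' * β)]
    field_simp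
  have ab : a' * β ≤ 4 * W * a := by
    calc a' * β ≤ (W * a) * 4 := mul_le_mul haw hβ β0.le (by positivity)
      _ = _ := by ring
  have ab' : a ≤ 4 * W * (a' * β) := by
    calc a ≤ W * a' := haw'
      _ = 4 * W * (a' * (1 / 4)) := by ring
      _ ≤ 4 * W * (a' * β) := by gcongr
  constructor
  · calc X ≤ D * max (|p1| * (w1 / Λ)) (|p2| * w2) := hlo
      _ ≤ D * (M * (4 * W * a)) := by
          apply mul_le_mul_of_nonneg_left _ (by linarith)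
          refine max_le ?_ ?_
          · rw [f1]; exact mul_le_mul m1 ab (by positivity) hM
          · rw [f2]; exact mul_le_mul m2 ab (by positivity) hM
      _ = _ := by ring
  · have g1 : a * |t1| ≤ 4 * W * (48 * W ^ 3 * w2) := by
      calc a * |t1| ≤ (4 * W * (a' * β)) * |t1| := mul_le_mul_of_nonneg_right ab' (abs_nonneg _)
        _ = 4 * W * (|t1| * (a' * β)) := by ring
        _ = 4 * W * (|p1| * (w1 / Λ)) := by rw [f1]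
        _ ≤ _ := by gcongr
    have g2 : a * |t2| ≤ 4 * W * (12 * w2) := by
      calc a * |t2| ≤ (4 * W * (a' * β)) * |t2| := mul_le_mul_of_nonneg_right ab' (abs_nonneg _)
        _ = 4 * W * (|t2| * (a' * β)) := by ring
        _ = 4 * W * (|p2| * w2) := by rw [f2]
        _ ≤ _ := by gcongr
    have g3 : W * w2 ≤ W ^ 4 * w2 := by
      have : W ≤ W ^ 4 := le_self_pow₀ hW (by norm_num)
      gcongr
    calc a * M ≤ a * (|t1| + |t2|) := by gcongr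
      _ = a * |t1| + a * |t2| := by ring
      _ ≤ 4 * W * (48 * W ^ 3 * w2) + 4 * W * (12 * w2) := add_le_add g1 g2
      _ = 192 * (W ^ 4 * w2) + 48 * (W * w2) := by ring
      _ ≤ _ := by linarith

section

variable {K : ℝ} {qm qp : Fin 3 → ℝ} {L : ℕ → Ln4} {Z : Finset ℕ} {S S' : Plk4}
  {f g : Fin 3 → V3} {W M a Y w1 w2 z0 ρ r : ℝ} {j k' : ℕ}

/-- gradient of the sheet `S` at the base height `ζ`, plank coordinates -/
noncomputable def nbP (S : Plk4) (z0 ρ : ℝ) (T : Ln4) (ζ : ℝ) : V3 :=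
  nb (expP S z0 ρ T).1 (expP S z0 ρ T).2.1 ζ

theorem shp_pos {r : ℝ} (hr : 0 < r) (h : Shp S z0 ρ r) : ∀ i, 0 < S.w i := by
  have h0 : 0 < S.w 0 := by
    have a1 : r ≤ S.a := h.r0_le
    have a2 : S.a ≤ S.w 0 := h.a_le0
    linarith
  have h2 : 0 < S.w 2 := h0.trans_le h.w0_le
  have h1 : 0 < S.w 1 := h2.trans_le h.w_le
  intro i
  fin_cases i
  · exact h0
  · exact h1
  · exact h2

/-- **the link at one line** -/
theorem line_at (H : ShD K qm qp L Z S S' f g W M a Y w1 w2 z0 ρ r j k') {T : ℕ} (hT : T ∈ Z)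
    {ζ : ℝ} (hζ : ζ = 0 ∨ ζ = 1) {D μ : ℝ} (hD : 1 ≤ D) (hμ : 20000 * μ ≤ 1) (μ0 : 0 ≤ μ)
    (hlo : 2 ^ k' * Y ≤ D * max
      (|pk S.e (cv S.e S.w (nbP S z0 ρ (L T) ζ)) (cv S'.e S'.w (nbP S' z0 ρ (L T) ζ)) 1| *
        (w1 / 2 ^ j))
      (|pk S.e (cv S.e S.w (nbP S z0 ρ (L T) ζ)) (cv S'.e S'.w (nbP S' z0 ρ (L T) ζ)) 2| * w2)) :
    ∃ (Mf t1 t2 : ℝ) (G G' : ℝ × ℝ) (Hh Hh' : ℝ × ℝ × ℝ), 0 < Mf ∧ Mf ^ 2 = t1 ^ 2 + t2 ^ 2 ∧
      2 ^ k' * Y ≤ 4 * W * D * (a * Mf) ∧ a * Mf ≤ 240 * W ^ 4 * w2 ∧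
      (|G.1| ≤ 100 * (8 * (W ^ 12) ^ 3) ^ 3 * (1024 * W * (Y / a)) ∧
        |G.2| ≤ 100 * (8 * (W ^ 12) ^ 3) ^ 3 * (1024 * W * (Y / a)) ∧
        |Hh.1| ≤ 100 * (8 * (W ^ 12) ^ 3) ^ 3 * (1024 * W * (Y / a)) ∧
        |Hh.2.1| ≤ 100 * (8 * (W ^ 12) ^ 3) ^ 3 * (1024 * W * (Y / a)) ∧
        |Hh.2.2| ≤ 100 * (8 * (W ^ 12) ^ 3) ^ 3 * (1024 * W * (Y / a))) ∧
      (|G'.1| ≤ 100 * (8 * (W ^ 12) ^ 3) ^ 3 * (1024 * W * (Y / a)) ∧
        |G'.2| ≤ 100 * (8 * (W ^ 12) ^ 3) ^ 3 * (1024 * W * (Y / a)) ∧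
        |Hh'.1| ≤ 100 * (8 * (W ^ 12) ^ 3) ^ 3 * (1024 * W * (Y / a)) ∧
        |Hh'.2.1| ≤ 100 * (8 * (W ^ 12) ^ 3) ^ 3 * (1024 * W * (Y / a)) ∧
        |Hh'.2.2| ≤ 100 * (8 * (W ^ 12) ^ 3) ^ 3 * (1024 * W * (Y / a))) ∧
      ∀ (T' : Ln4) (m : ℝ), InP T' S z0 ρ → InP T' S' z0 ρ →
        (∀ z, z = z0 ∨ z = z0 + ρ → |dt (S.e 1) (dis (L T) T' z)| ≤ μ * S.w 1 ∧
          |dt (S.e 2) (dis (L T) T' z)| ≤ μ * S.w 2) →
        (∀ z, z = z0 ∨ z = z0 + ρ → |dt (S'.e 1) (dis (L T) T' z)| ≤ μ * S'.w 1 ∧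
          |dt (S'.e 2) (dis (L T) T' z)| ≤ μ * S'.w 2) →
        2 * μ ≤ m → m ≤ 1 →
        |2 ^ j * dt (S.e 1) (dis (L T) T' (z0 + ρ * ζ)) / w1| ≤ m →
        |dt (S.e 2) (dis (L T) T' (z0 + ρ * ζ)) / w2| ≤ m →
        |2 ^ j * dt (S.e 1) (dis (L T) T' (z0 + ρ) - dis (L T) T' z0) / w1| ≤ m →
        |dt (S.e 2) (dis (L T) T' (z0 + ρ) - dis (L T) T' z0) / w2| ≤ m →
        Six (40 * (8 * (W ^ 12) ^ 3) ^ 4 * 164) (40 * (8 * (W ^ 12) ^ 3) ^ 4 * (800 * μ + m)) Mf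
          G G' Hh Hh'
          (ty S.e S.w (nbP S z0 ρ (L T) ζ) (dis (L T) T' (z0 + ρ * ζ)) / S.a)
          (ty S.e S.w (nbP S z0 ρ (L T) ζ) (dis (L T) T' (z0 + ρ) - dis (L T) T' z0) / S.a)
          ((t1 * (2 ^ j * dt (S.e 1) (dis (L T) T' (z0 + ρ * ζ)) / w1) +
            t2 * (dt (S.e 2) (dis (L T) T' (z0 + ρ * ζ)) / w2)) / Mf)
          ((t1 * (dt (S.e 2) (dis (L T) T' (z0 + ρ * ζ)) / w2) -
            t2 * (2 ^ j * dt (S.e 1) (dis (L T) T' (z0 + ρ * ζ)) / w1)) / Mf)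
          ((t1 * (2 ^ j * dt (S.e 1) (dis (L T) T' (z0 + ρ) - dis (L T) T' z0) / w1) +
            t2 * (dt (S.e 2) (dis (L T) T' (z0 + ρ) - dis (L T) T' z0) / w2)) / Mf)
          ((t1 * (dt (S.e 2) (dis (L T) T' (z0 + ρ) - dis (L T) T' z0) / w2) -
            t2 * (2 ^ j * dt (S.e 1) (dis (L T) T' (z0 + ρ) - dis (L T) T' z0) / w1)) / Mf) := by
  have hW2 := H.W2
  have hW : 1 ≤ W := by linarith
  have W0 : 0 < W := by linarith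
  have a0 := H.a0
  have Y0 : 0 < Y := a0.trans_le H.aY
  have w20 : 0 < w2 := Y0.trans_le H.Yw
  have w10 : 0 < w1 := w20.trans_le H.ww
  have Λ1 : (1 : ℝ) ≤ 2 ^ j := one_le_pow₀ (by norm_num)
  have Λ0 : (0 : ℝ) < 2 ^ j := by linarith
  have wp := shp_pos H.r0 H.shS
  have wp' := shp_pos H.r0 H.shS'
  have o02 : S.w 0 ≤ S.w 2 := H.shS.w0_le
  have o21 : S.w 2 ≤ S.w 1 := H.shS.w_le
  have o02' : S'.w 0 ≤ S'.w 2 := H.shS'.w0_le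
  have o21' : S'.w 2 ≤ S'.w 1 := H.shS'.w_le
  have sa : 0 < S.a := H.r0.trans_le H.shS.r0_le
  have sa' : 0 < S'.a := H.r0.trans_le H.shS'.r0_le
  have iT := H.inS T hT
  have iT' := H.inS' T hT
  have St : StP S.e S.c S.w S.q z0 ρ := StP.of_shN H.shS (wp 0)
  have St' : StP S'.e S'.c S'.w S'.q z0 ρ := StP.of_shN H.shS' (wp' 0)
  have hE := expP_spec (S := S) H.shS.isQ (wp 0).ne' z0 ρ (L T)
  have hE' := expP_spec (S := S') H.shS'.isQ (wp' 0).ne' z0 ρ (L T)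
  have N := hE.nrmC St H.ρ0.le fun z hz hz' => (iT z hz hz').1
  have N' := hE'.nrmC St' H.ρ0.le fun z hz hz' => (iT' z hz hz').1
  obtain ⟨n0, n0', n1, n2⟩ := nb_bd N hζ
  obtain ⟨m0, m0', m1, m2⟩ := nb_bd N' hζ
  -- powers of `W`
  have W10 : (1024 : ℝ) ≤ W ^ 10 := by
    calc (1024 : ℝ) = 2 ^ 10 := by norm_num
      _ ≤ W ^ 10 := pow_le_pow_left₀ (by norm_num) hW2 10
  have K1 : 1 ≤ W ^ 12 := one_le_pow₀ hW
  have WK : W ≤ W ^ 12 := le_self_pow₀ hW (by norm_num)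
  have W2K : W ^ 2 ≤ W ^ 12 := pow_le_pow_right₀ hW (by norm_num)
  -- tilts
  obtain ⟨-, ⟨hi1, hi2⟩, -⟩ := Tpl706.tilt_plank w10 w20 hW H.hF H.hG H.d1 H.d2 H.d1' H.d2'
    H.shS.ortho H.shS'.ortho H.dy
  -- curvature
  have hkS : 256 * (S.w 0 / S.a * kap (expP S z0 ρ (L T)).1 (expP S z0 ρ (L T)).2.1
      (expP S z0 ρ (L T)).2.2) ≤ 1024 * W * (Y / a) := by
    have e1 : S.w 0 / S.a * kap (expP S z0 ρ (L T)).1 (expP S z0 ρ (L T)).2.1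
      (expP S z0 ρ (L T)).2.2 = kapP S z0 ρ (L T) / S.a := by unfold kapP; ring
    have h1 : kapP S z0 ρ (L T) ≤ 4 * Y := (H.near T hT).2
    have h2 : a ≤ W * S.a := H.da.1
    rw [e1]
    calc 256 * (kapP S z0 ρ (L T) / S.a) ≤ 256 * (4 * Y / S.a) := by gcongr
      _ = 1024 * (Y / S.a) := by ring
      _ ≤ 1024 * (W * (Y / a)) := by
          apply mul_le_mul_of_nonneg_left _ (by norm_num)
          rw [mul_div_assoc', div_le_div_iff₀ sa a0]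
          calc Y * a ≤ Y * (W * S.a) := by gcongr
            _ = _ := by ring
      _ = _ := by ring
  have hkS' : 256 * (S'.w 0 / S'.a * kap (expP S' z0 ρ (L T)).1 (expP S' z0 ρ (L T)).2.1
      (expP S' z0 ρ (L T)).2.2) ≤ 1024 * W * (Y / a) := by
    have e1 : S'.w 0 / S'.a * kap (expP S' z0 ρ (L T)).1 (expP S' z0 ρ (L T)).2.1
      (expP S' z0 ρ (L T)).2.2 = kapP S' z0 ρ (L T) / S'.a := by unfold kapP; ring
    have h1 : kapP S' z0 ρ (L T) ≤ 4 * Y := le_trans (H.le T hT) (H.near T hT).2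
    have h2 : a ≤ W * S'.a := H.da'.1
    rw [e1]
    calc 256 * (kapP S' z0 ρ (L T) / S'.a) ≤ 256 * (4 * Y / S'.a) := by gcongr
      _ = 1024 * (Y / S'.a) := by ring
      _ ≤ 1024 * (W * (Y / a)) := by
          apply mul_le_mul_of_nonneg_left _ (by norm_num)
          rw [mul_div_assoc', div_le_div_iff₀ sa' a0]
          calc Y * a ≤ Y * (W * S'.a) := by gcongr
            _ = _ := by ring
      _ = _ := by ring
  -- the matrices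
  obtain ⟨l11, l22, k10, k11, k12, k20, k21, k22, mm, X⟩ := mtx_of (e := S.e) (e' := S'.e)
    H.shS.ortho H.shS'.ortho (w := S.w) (w' := S'.w) (b := nbP S z0 ρ (L T) ζ)
    (b' := nbP S' z0 ρ (L T) ζ) (a := S.a) (a' := S'.a) (w1 := w1) (w2 := w2) (Λ := 2 ^ j)
    (K := W ^ 12) (Bc := 1024 * W * (Y / a)) wp wp' o02 o21 o02' o21' n0 n1 n2 m0 m0' m1 m2 sa sa'
    (by
      calc S.a ≤ W * a := H.da.2
        _ ≤ W * (W * S'.a) := by gcongr; exact H.da'.1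
        _ = W ^ 2 * S'.a := by ring
        _ ≤ _ := by gcongr)
    K1 Λ1 w20 H.ww
    (H.d1.1.trans (by have := wp 1; gcongr)) (H.d2.1.trans (by have := wp 2; gcongr))
    (H.d2.2.trans (by gcongr)) (H.d1'.1.trans (by have := wp' 1; gcongr))
    (H.d2'.1.trans (by have := wp' 2; gcongr)) (by positivity)
    (by
      calc S.a * (1024 * W * (Y / a)) ≤ (W * a) * (1024 * W * (Y / a)) := by
            gcongr; exact H.da.2
        _ = 1024 * W ^ 2 * Y := by field_simp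
        _ ≤ W ^ 10 * W ^ 2 * w2 := by gcongr; exact H.Yw
        _ = _ := by ring)
    (by
      rw [dt_comm]
      refine hi2.trans ?_
      have : 7 * W ^ 3 ≤ W ^ 12 := by
        calc 7 * W ^ 3 ≤ W ^ 9 * W ^ 3 := by
              have : (7:ℝ) ≤ W ^ 9 := by
                calc (7 : ℝ) ≤ 2 ^ 9 := by norm_num
                  _ ≤ W ^ 9 := pow_le_pow_left₀ (by norm_num) hW2 9
              gcongr
          _ = _ := by ring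
      gcongr)
  -- `M`
  obtain ⟨t1, ht1⟩ : ∃ t1, t1 = pk S.e (cv S.e S.w (nbP S z0 ρ (L T) ζ))
    (cv S'.e S'.w (nbP S' z0 ρ (L T) ζ)) 1 * w1 /
      (2 ^ j * S'.a * (nbP S' z0 ρ (L T) ζ 0 * nbP S z0 ρ (L T) ζ 0)) := ⟨_, rfl⟩
  obtain ⟨t2, ht2⟩ : ∃ t2, t2 = pk S.e (cv S.e S.w (nbP S z0 ρ (L T) ζ))
    (cv S'.e S'.w (nbP S' z0 ρ (L T) ζ)) 2 * w2 /
      (S'.a * (nbP S' z0 ρ (L T) ζ 0 * nbP S z0 ρ (L T) ζ 0)) := ⟨_, rfl⟩
  rw [← ht1, ← ht2] at X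
  have hs0 : 0 ≤ t1 ^ 2 + t2 ^ 2 := by positivity
  have hMt : Real.sqrt (t1 ^ 2 + t2 ^ 2) ^ 2 = t1 ^ 2 + t2 ^ 2 := Real.sq_sqrt hs0
  have hM0 : 0 ≤ Real.sqrt (t1 ^ 2 + t2 ^ 2) := Real.sqrt_nonneg _
  obtain ⟨Mf, hMf⟩ : ∃ Mf, Mf = Real.sqrt (t1 ^ 2 + t2 ^ 2) := ⟨_, rfl⟩
  rw [← hMf] at hMt hM0
  have hpk := pk_le H.shS.ortho H.shS'.ortho (w := S.w) (w' := S'.w)
    (b := nbP S z0 ρ (L T) ζ) (b' := nbP S' z0 ρ (L T) ζ) (w1 := w1) (w2 := w2) (Λ := 2 ^ j)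
    wp wp' o02 o21 o02' o21' n0 n0' n1 n2 m0 m0' m1 m2 hW Λ1 w20 w10 H.d1.1 H.d2.2 H.d1'.1
    H.d2'.2 hi1 hi2
  have A1 : 1 / 2 ≤ nbP S z0 ρ (L T) ζ 0 := n0
  have A2 : nbP S z0 ρ (L T) ζ 0 ≤ 2 := n0'
  have A3 : 1 / 2 ≤ nbP S' z0 ρ (L T) ζ 0 := m0
  have A4 : nbP S' z0 ρ (L T) ζ 0 ≤ 2 := m0'
  have hβ : 1 / 4 ≤ nbP S' z0 ρ (L T) ζ 0 * nbP S z0 ρ (L T) ζ 0 := by
    calc (1:ℝ) / 4 = 1 / 2 * (1 / 2) := by norm_num
      _ ≤ _ := mul_le_mul A3 A1 (by norm_num) (by linarith)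
  have hβ' : nbP S' z0 ρ (L T) ζ 0 * nbP S z0 ρ (L T) ζ 0 ≤ 4 := by
    calc _ ≤ (2:ℝ) * 2 := mul_le_mul A4 A2 (by linarith) (by norm_num)
      _ = 4 := by norm_num
  obtain ⟨q1, q2⟩ := M_of Λ0 a0 sa' H.da'.2 H.da'.1 hW hβ hβ' hD w10 w20 ht1 ht2 hM0 hMt hlo
    hpk.1 hpk.2
  have hMpos : 0 < Mf := by
    have h1 : 0 < (2:ℝ) ^ k' * Y := by positivity
    by_contra hc
    have h2 : a * Mf ≤ 0 := mul_nonpos_of_nonneg_of_nonpos a0.le (not_lt.1 hc)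
    have h3 : 4 * W * D * (a * Mf) ≤ 0 :=
      mul_nonpos_of_nonneg_of_nonpos (by positivity) h2
    linarith
  have Dd : Two S.e S'.e S.c S'.c S.w S'.w S.q S'.q S.a S'.a z0 ρ (L T) (expP S z0 ρ (L T)).1
      (expP S z0 ρ (L T)).2.1 (expP S z0 ρ (L T)).2.2 (expP S' z0 ρ (L T)).1
      (expP S' z0 ρ (L T)).2.1 (expP S' z0 ρ (L T)).2.2 :=
    { S := St, S' := St', a0 := sa, aw := H.shS.a_le0, a0' := sa', aw' := H.shS'.a_le0,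
      ρ0 := H.ρ0, hT := iT, kT := iT', hE := hE, hE' := hE' }
  obtain ⟨G, G', Hh, Hh', c1, c2, hs⟩ := link_at sixOf Dd hζ hkS hkS' hμ μ0 X hMpos hMt
  exact ⟨Mf, t1, t2, G, G', Hh, Hh', hMpos, hMt, q1, q2, c1, c2, hs⟩

end

end Crest.Agent.R136.Lni18
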