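import Crest.Agent.R136.Lgt1_989

/-!
# R136 (S0187), g-free tilt (PLAN 2, B4, (III)): one sheet at a common line (helper989)

`link_one` : the three coefficients of the sheet polynomial along `T' - T` in tangent coordinates
(shear by `b0`), thickness in the unit `a` (`β = w0 / a`), lateral coordinates in plank units.
-/

set_option autoImplicit false
set_option linter.unusedVariables false

namespace Crest.Agent.R136.Lnk989

open Crest.Agent.R136.Sh605 Crest.Agent.R136.Tl102 Crest.Agent.R136.Lgt989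

/-- a binary quadratic form -/
def q2 (h11 h12 h22 x y : ℝ) : ℝ := h11 * x ^ 2 + h12 * (x * y) + h22 * y ^ 2

/-- its polar form -/
def p2 (h11 h12 h22 x y x' y' : ℝ) : ℝ :=
  2 * h11 * (x * x') + h12 * (x * y' + x' * y) + 2 * h22 * (y * y')

theorem kap_bd (b0 b1 : V3) (G : QF) : |shB1 b0 b1 1| ≤ kap b0 b1 G ∧ |shB1 b0 b1 2| ≤ kap b0 b1 G ∧
    |(shG b0 G).uu| ≤ kap b0 b1 G ∧ |(shG b0 G).uv| ≤ kap b0 b1 G ∧
      |(shG b0 G).vv| ≤ kap b0 b1 G :=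
  ⟨(le_max_left _ _).trans (le_max_left _ _), (le_max_right _ _).trans (le_max_left _ _),
    (le_max_left _ _).trans ((le_max_left _ _).trans (le_max_right _ _)),
    (le_max_right _ _).trans ((le_max_left _ _).trans (le_max_right _ _)),
    (le_max_right _ _).trans (le_max_right _ _)⟩

/-- **one sheet** -/
theorem link_one {b0 b1 : V3} {G : QF} (N : NrmC b0 b1 G) {β μ : ℝ} (hβ : 1 ≤ β) (μ0 : 0 ≤ μ)
    (hμ : 10000 * μ ≤ 1) {p v : V3} (p1 : |p 1| ≤ μ) (p2' : |p 2| ≤ μ) (v1 : |v 1| ≤ μ)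
    (v2 : |v 2| ≤ μ) (hp0 : |β * p 0| ≤ 4 + 6 * μ * (β * kap b0 b1 G))
    (hv0 : |β * p 0 + β * v 0| ≤ 4 + 6 * μ * (β * kap b0 b1 G))
    (hF : ∀ ζ, 0 ≤ ζ → ζ ≤ 1 →
      |Fq (shB0 b0) (shB1 b0 b1) (shG b0 G) ζ (bz p v ζ)| ≤ 2 / β) :
    |β * p 0 + q2 (β / b0 0 * (shG b0 G).uu) (β / b0 0 * (shG b0 G).uv) (β / b0 0 * (shG b0 G).vv)
        (p 1) (p 2)| ≤ 164 + 400 * μ * |β * p 0| ∧
    |β * v 0 + (β / b0 0 * shB1 b0 b1 1 * p 1 + β / b0 0 * shB1 b0 b1 2 * p 2) +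
      p2 (β / b0 0 * (shG b0 G).uu) (β / b0 0 * (shG b0 G).uv) (β / b0 0 * (shG b0 G).vv)
        (p 1) (p 2) (v 1) (v 2)| ≤ 164 * (1 + |β * p 0|) + 400 * μ * |β * v 0| ∧
    |(β / b0 0 * shB1 b0 b1 1 * v 1 + β / b0 0 * shB1 b0 b1 2 * v 2) +
      q2 (β / b0 0 * (shG b0 G).uu) (β / b0 0 * (shG b0 G).uv) (β / b0 0 * (shG b0 G).vv)
        (v 1) (v 2)| ≤ 164 * (1 + |β * v 0|) := by
  obtain ⟨n1, n2, -, -, n3, -, -, s1, s2⟩ := N.b1_le
  obtain ⟨-, -, h3, h4, -, -, -⟩ := N.sh_le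
  obtain ⟨g1, -⟩ := N.G_le
  have hκ13 := Tl102.kap_le N
  have hκ0 := Tl102.kap_nonneg b0 b1 G
  have bp : 0 < b0 0 := by linarith
  have β0 : 0 < β := by linarith
  obtain ⟨κ, hκ⟩ : ∃ κ, κ = kap b0 b1 G := ⟨_, rfl⟩
  rw [← hκ] at hp0 hv0 hκ13 hκ0
  obtain ⟨Y0, hY0⟩ : ∃ Y0, Y0 = β * p 0 := ⟨_, rfl⟩
  obtain ⟨Y1, hY1⟩ : ∃ Y1, Y1 = β * v 0 := ⟨_, rfl⟩
  rw [← hY0] at hp0 hv0
  rw [← hY1] at hv0
  have hY1b : |Y1| ≤ 8 + 12 * μ * (β * κ) := by
    have e : Y1 = (Y0 + Y1) - Y0 := by ring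
    rw [e]; exact (abs_sub _ _).trans (by linarith)
  -- `|x 0|` for `x = p, v`
  have hib : 1 / β ≤ 1 := by rw [div_le_one β0]; exact hβ
  have hib0 : 0 < 1 / β := by positivity
  have ep : p 0 = Y0 / β := by rw [hY0]; field_simp
  have ev : v 0 = Y1 / β := by rw [hY1]; field_simp
  have hp0b : |p 0| ≤ 4 / β + 78 * μ := by
    rw [ep, abs_div, abs_of_pos β0, div_le_iff₀ β0]
    have e1 : (4 / β + 78 * μ) * β = 4 + 78 * μ * β := by field_simp
    rw [e1]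
    have : 6 * μ * (β * κ) ≤ 6 * μ * (β * 13) := by gcongr
    linarith
  have hv0b : |v 0| ≤ 8 / β + 156 * μ := by
    rw [ev, abs_div, abs_of_pos β0, div_le_iff₀ β0]
    have e1 : (8 / β + 156 * μ) * β = 8 + 156 * μ * β := by field_simp
    rw [e1]
    have : 12 * μ * (β * κ) ≤ 12 * μ * (β * 13) := by gcongr
    linarith
  -- products of `1 / β` with `Y`
  have hb0 : (4 / β) * |Y0| ≤ 17 := by
    have e1 : (4 / β) * |Y0| ≤ (4 / β) * (4 + 6 * μ * (β * κ)) :=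
      mul_le_mul_of_nonneg_left hp0 (by positivity)
    have e2 : (4 / β) * (4 + 6 * μ * (β * κ)) = 16 * (1 / β) + 24 * (μ * κ) := by field_simp; ring
    have e3 : μ * κ ≤ μ * 13 := mul_le_mul_of_nonneg_left hκ13 μ0
    rw [e2] at e1; linarith
  have hb1 : (8 / β) * |Y1| ≤ 65 := by
    have e1 : (8 / β) * |Y1| ≤ (8 / β) * (8 + 12 * μ * (β * κ)) :=
      mul_le_mul_of_nonneg_left hY1b (by positivity)
    have e2 : (8 / β) * (8 + 12 * μ * (β * κ)) = 64 * (1 / β) + 96 * (μ * κ) := by field_simp; ring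
    have e3 : μ * κ ≤ μ * 13 := mul_le_mul_of_nonneg_left hκ13 μ0
    rw [e2] at e1; linarith
  have Y0n := abs_nonneg Y0
  have Y1n := abs_nonneg Y1
  -- coefficients
  obtain ⟨c0, c1, c2⟩ := coef_le (c0 := dt (bz (shB0 b0) (shB1 b0 b1) 0) (bz p v 0) +
      (shG b0 G).ev (bz p v 0))
    (c1 := dt (bz (shB0 b0) (shB1 b0 b1) 0) v + dt (shB1 b0 b1) (bz p v 0) +
      (shG b0 G).pol (bz p v 0) v)
    (c2 := dt (shB1 b0 b1) v + (shG b0 G).ev v) (ε := 2 / β) (by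
      intro ζ h0 h1
      have e : (dt (bz (shB0 b0) (shB1 b0 b1) 0) (bz p v 0) + (shG b0 G).ev (bz p v 0)) +
          ζ * (dt (bz (shB0 b0) (shB1 b0 b1) 0) v + dt (shB1 b0 b1) (bz p v 0) +
            (shG b0 G).pol (bz p v 0) v) + ζ ^ 2 * (dt (shB1 b0 b1) v + (shG b0 G).ev v) =
          Fq (shB0 b0) (shB1 b0 b1) (shG b0 G) ζ (bz p v ζ) := by
        simp only [Fq, dt, bz, QF.ev, QF.pol]; ring
      rw [e]
      exact hF ζ h0 h1)
  have hyy : (shG b0 G).yy = G.yy := rfl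
  obtain ⟨bi, hbi⟩ : ∃ bi, bi = 1 / b0 0 := ⟨_, rfl⟩
  have bi0 : 0 < bi := by rw [hbi]; positivity
  have bi2 : bi ≤ 2 := by
    rw [hbi, div_le_iff₀ bp]; linarith
  have hβb : β / b0 0 = β * bi := by rw [hbi]; ring
  have hbib : bi * b0 0 = 1 := by rw [hbi]; field_simp
  rw [hβb, ← hY0, ← hY1]
  have sc : ∀ c E : ℝ, |c| ≤ E * (2 / β) → |β * bi * c| ≤ 4 * E := by
    intro c E h
    have E0 : 0 ≤ E * (2 / β) := (abs_nonneg _).trans h
    rw [abs_mul, abs_mul, abs_of_pos β0, abs_of_pos bi0]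
    calc β * bi * |c| ≤ β * 2 * (E * (2 / β)) :=
          mul_le_mul (mul_le_mul_of_nonneg_left bi2 β0.le) h (abs_nonneg _) (by positivity)
      _ = 4 * E := by field_simp; ring
  have d0 := sc _ 1 (by rw [one_mul]; exact c0)
  have d1 := sc _ 8 c1
  have d2 := sc _ 8 c2
  -- small products
  have biY : ∀ c Y C : ℝ, |c| ≤ C → |bi * (c * Y)| ≤ 2 * (C * |Y|) := by
    intro c Y C h
    rw [abs_mul, abs_mul, abs_of_pos bi0]
    exact mul_le_mul bi2 (mul_le_mul_of_nonneg_right h (abs_nonneg _)) (by positivity) (by norm_num)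
  have muY : ∀ Y : ℝ, 0 ≤ |Y| → μ * |Y| ≤ (1 / 10000) * |Y| := fun Y h =>
    mul_le_mul_of_nonneg_right (by linarith) h
  refine ⟨?_, ?_, ?_⟩
  · have e : Y0 + q2 (β * bi * (shG b0 G).uu) (β * bi * (shG b0 G).uv) (β * bi * (shG b0 G).vv)
        (p 1) (p 2) = β * bi * (dt (bz (shB0 b0) (shB1 b0 b1) 0) (bz p v 0) +
          (shG b0 G).ev (bz p v 0)) - bi * ((G.yy * p 0) * Y0) -
          bi * (((shG b0 G).yu * p 1) * Y0) - bi * (((shG b0 G).yv * p 2) * Y0) := by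
      have e1 : dt (bz (shB0 b0) (shB1 b0 b1) 0) (bz p v 0) = b0 0 * p 0 := by
        simp only [dt, bz, shB0, Matrix.cons_val]; ring
      have e2 : bz p v 0 = p := by funext k; simp [bz]
      rw [e1, e2, hY0]
      simp only [q2, QF.ev, hyy]
      linear_combination (-(β * p 0)) * hbib
    rw [e]
    have a1 := biY (G.yy * p 0) Y0 _ (mul_abs_le g1 hp0b)
    have a2 := biY ((shG b0 G).yu * p 1) Y0 _ (mul_abs_le h3 p1)
    have a3 := biY ((shG b0 G).yv * p 2) Y0 _ (mul_abs_le h4 p2')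
    refine (abs_sub _ _).trans ((add_le_add ((abs_sub _ _).trans (add_le_add ((abs_sub _ _).trans
      (add_le_add d0 a1)) a2)) a3).trans ?_)
    have e3 : 2 * (1 * (4 / β + 78 * μ) * |Y0|) = 2 * ((4 / β) * |Y0|) + 156 * μ * |Y0| := by ring
    rw [e3]
    have := mul_nonneg μ0 Y0n
    linarith
  · have e : Y1 + (β * bi * shB1 b0 b1 1 * p 1 + β * bi * shB1 b0 b1 2 * p 2) +
        p2 (β * bi * (shG b0 G).uu) (β * bi * (shG b0 G).uv) (β * bi * (shG b0 G).vv)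
        (p 1) (p 2) (v 1) (v 2) = β * bi * (dt (bz (shB0 b0) (shB1 b0 b1) 0) v +
          dt (shB1 b0 b1) (bz p v 0) + (shG b0 G).pol (bz p v 0) v) - bi * (b1 0 * Y0) -
          2 * (bi * ((G.yy * p 0) * Y1)) - bi * (((shG b0 G).yu * v 1) * Y0) -
          bi * (((shG b0 G).yu * p 1) * Y1) - bi * (((shG b0 G).yv * v 2) * Y0) -
          bi * (((shG b0 G).yv * p 2) * Y1) := by
      have e1 : dt (bz (shB0 b0) (shB1 b0 b1) 0) v = b0 0 * v 0 := by
        simp only [dt, bz, shB0, Matrix.cons_val]; ring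
      have e2 : bz p v 0 = p := by funext k; simp [bz]
      have e3 : shB1 b0 b1 0 = b1 0 := rfl
      rw [e1, e2, hY0, hY1]
      simp only [p2, QF.pol, dt, e3, hyy]
      linear_combination (-(β * v 0)) * hbib
    rw [e]
    have a1 := biY (b1 0) Y0 _ n3
    have a2 := biY (G.yy * p 0) Y1 _ (mul_abs_le g1 hp0b)
    have a2' : |2 * (bi * (G.yy * p 0 * Y1))| ≤ 2 * (2 * (1 * (4 / β + 78 * μ) * |Y1|)) := by
      rw [abs_mul, abs_of_pos (by norm_num : (0 : ℝ) < 2)]; linarith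
    have a3 := biY ((shG b0 G).yu * v 1) Y0 _ (mul_abs_le h3 v1)
    have a4 := biY ((shG b0 G).yu * p 1) Y1 _ (mul_abs_le h3 p1)
    have a5 := biY ((shG b0 G).yv * v 2) Y0 _ (mul_abs_le h4 v2)
    have a6 := biY ((shG b0 G).yv * p 2) Y1 _ (mul_abs_le h4 p2')
    refine (abs_sub _ _).trans ((add_le_add ((abs_sub _ _).trans (add_le_add ((abs_sub _ _).trans
      (add_le_add ((abs_sub _ _).trans (add_le_add ((abs_sub _ _).trans (add_le_add
      ((abs_sub _ _).trans (add_le_add d1 a1)) a2')) a3)) a4)) a5)) a6).trans ?_)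
    have e3 : 2 * (2 * (1 * (4 / β + 78 * μ) * |Y1|)) = 2 * ((8 / β) * |Y1|) + 312 * μ * |Y1| := by
      ring
    rw [e3]
    have m1 := mul_nonneg μ0 Y0n
    have m2 := mul_nonneg μ0 Y1n
    have m3 := muY Y0 Y0n
    linarith
  · have e : (β * bi * shB1 b0 b1 1 * v 1 + β * bi * shB1 b0 b1 2 * v 2) +
        q2 (β * bi * (shG b0 G).uu) (β * bi * (shG b0 G).uv) (β * bi * (shG b0 G).vv)
        (v 1) (v 2) = β * bi * (dt (shB1 b0 b1) v + (shG b0 G).ev v) - bi * (b1 0 * Y1) -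
          bi * ((G.yy * v 0) * Y1) - bi * (((shG b0 G).yu * v 1) * Y1) -
          bi * (((shG b0 G).yv * v 2) * Y1) := by
      have e3 : shB1 b0 b1 0 = b1 0 := rfl
      rw [hY1]
      simp only [q2, QF.ev, dt, e3, hyy]
      ring
    rw [e]
    have a1 := biY (b1 0) Y1 _ n3
    have a2 := biY (G.yy * v 0) Y1 _ (mul_abs_le g1 hv0b)
    have a3 := biY ((shG b0 G).yu * v 1) Y1 _ (mul_abs_le h3 v1)
    have a4 := biY ((shG b0 G).yv * v 2) Y1 _ (mul_abs_le h4 v2)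
    refine (abs_sub _ _).trans ((add_le_add ((abs_sub _ _).trans (add_le_add ((abs_sub _ _).trans
      (add_le_add ((abs_sub _ _).trans (add_le_add d2 a1)) a2)) a3)) a4).trans ?_)
    have e3 : 2 * (1 * (8 / β + 156 * μ) * |Y1|) = 2 * ((8 / β) * |Y1|) + 312 * μ * |Y1| := by ring
    rw [e3]
    have m2 := mul_nonneg μ0 Y1n
    have m3 := muY Y1 Y1n
    linarith

end Crest.Agent.R136.Lnk989
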