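import Crest.Agent.R136.Lnk1_989
import Crest.Agent.R136.Lgt2_989

/-!
# R136 (S0187), g-free tilt (PLAN 2, B4, (III)): raw half of the link (helper989)

`one_of` : the three inequalities of one sheet along a pair of its lines, base height `z0`.
-/

set_option autoImplicit false
set_option linter.unusedVariables false

namespace Crest.Agent.R136.Lnk989

open Crest.Agent.R136.Sh605 Crest.Agent.R136.Tl102 Crest.Agent.R136.Lgt989
open Crest.Agent.R136.Mdr535 (ty gr y_bound)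

variable {e : Fin 3 → V3} {c : Ln4} {w : V3} {q : ℝ → V3 → ℝ} {a z0 ρ : ℝ}

/-- displacement -/
def dis (T T' : Ln4) (z : ℝ) : V3 := T'.pos z - T.pos z

/-- the three inequalities of one sheet -/
def OneN (K d g1 g2 h11 h12 h22 N0 N1 x1 x2 v1 v2 : ℝ) : Prop :=
  |N0 + q2 h11 h12 h22 x1 x2| ≤ K + d * |N0| ∧
  |N1 + (g1 * x1 + g2 * x2) + p2 h11 h12 h22 x1 x2 v1 v2| ≤ K * (1 + |N0|) + d * |N1| ∧
  |(g1 * v1 + g2 * v2) + q2 h11 h12 h22 v1 v2| ≤ K * (1 + |N1|)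

/-- **one sheet** at the bottom -/
theorem one_of (S : StP e c w q z0 ρ) (a0 : 0 < a) (ha : a ≤ w 0) (hρ : 0 < ρ) {T T' : Ln4}
    (hT : InSheet T e c w q a z0 ρ) (hT' : InSheet T' e c w q a z0 ρ) {b0 b1 : V3} {G : QF}
    (hE : IsExp q e w T z0 ρ b0 b1 G) {μ : ℝ} (hμ : 20000 * μ ≤ 1)
    (h : ∀ z, z = z0 ∨ z = z0 + ρ →
      |dt (e 1) (dis T T' z)| ≤ μ * w 1 ∧ |dt (e 2) (dis T T' z)| ≤ μ * w 2) :
    OneN 164 (800 * μ) (w 0 / a / b0 0 * shB1 b0 b1 1) (w 0 / a / b0 0 * shB1 b0 b1 2)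
      (w 0 / a / b0 0 * (shG b0 G).uu) (w 0 / a / b0 0 * (shG b0 G).uv)
      (w 0 / a / b0 0 * (shG b0 G).vv)
      (ty e w b0 (dis T T' z0) / a) (ty e w b0 (dis T T' (z0 + ρ) - dis T T' z0) / a)
      (dt (e 1) (dis T T' z0) / w 1) (dt (e 2) (dis T T' z0) / w 2)
      (dt (e 1) (dis T T' (z0 + ρ) - dis T T' z0) / w 1)
      (dt (e 2) (dis T T' (z0 + ρ) - dis T T' z0) / w 2) := by
  have hw := S.pos
  have w0p := hw 0
  have w1p := hw 1
  have w2p := hw 2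
  have N := hE.nrmC S hρ.le fun z hz hz' => (hT z hz hz').1
  obtain ⟨n1, n2, n3, n4, -, -, -, n5, n6⟩ := N.b1_le
  have hb0 : b0 0 ≠ 0 := by linarith
  have hμ0 : 0 ≤ μ := by
    have h1 := (h z0 (Or.inl rfl)).1
    have h2 := abs_nonneg (dt (e 1) (dis T T' z0))
    by_contra hc
    push Not at hc
    have := mul_neg_of_neg_of_pos hc w1p
    linarith
  have hβ : 1 ≤ w 0 / a := by rw [one_le_div a0]; exact ha
  -- a priori bounds of the normal coordinate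
  have yb : ∀ ζ, (ζ = 0 ∨ ζ = 1) → |ty e w b0 (dis T T' (z0 + ρ * ζ))| ≤
      4 * a + 6 * μ * (w 0 * kap b0 b1 G) := by
    intro ζ hζ
    have z1 : 0 ≤ ζ := by rcases hζ with rfl | rfl <;> norm_num
    have z2 : ζ ≤ 1 := by rcases hζ with rfl | rfl <;> norm_num
    have z3 : z0 ≤ z0 + ρ * ζ := by nlinarith
    have z4 : z0 + ρ * ζ ≤ z0 + ρ := by nlinarith
    have z5 : z0 + ρ * ζ = z0 ∨ z0 + ρ * ζ = z0 + ρ := by
      rcases hζ with rfl | rfl
      · left; ring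
      · right; ring
    exact y_bound S hE N hρ.le z1 z2 (by linarith) (hT _ z3 z4).1 (hT' _ z3 z4).1 (hT _ z3 z4).2
      (hT' _ z3 z4).2 (h _ z5).1 (h _ z5).2
  have yb0 := yb 0 (Or.inl rfl)
  have yb1 := yb 1 (Or.inr rfl)
  rw [mul_zero, add_zero] at yb0
  rw [mul_one] at yb1
  have sub_ty : ∀ X Y : V3, ty e w b0 (X - Y) = ty e w b0 X - ty e w b0 Y := by
    intro X Y
    simp only [ty, dt, Pi.sub_apply]; ring
  have sub_dt : ∀ (u X Y : V3), dt u (X - Y) = dt u X - dt u Y := by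
    intro u X Y
    simp only [dt, Pi.sub_apply]; ring
  -- the data of `link_one`
  obtain ⟨p, hp⟩ : ∃ p, p = pp e w b0 1 T z0 T' := ⟨_, rfl⟩
  obtain ⟨v, hv⟩ : ∃ v, v = vv e w b0 1 T z0 ρ T' := ⟨_, rfl⟩
  have p_0 : w 0 / a * p 0 = ty e w b0 (dis T T' z0) / a := by
    rw [hp]
    change w 0 / a * (ty e w b0 (dis T T' z0) / (1 * w 0)) = _
    field_simp
  have p_1 : p 1 = dt (e 1) (dis T T' z0) / w 1 := by rw [hp]; rfl
  have p_2 : p 2 = dt (e 2) (dis T T' z0) / w 2 := by rw [hp]; rfl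
  have v_0 : w 0 / a * v 0 = ty e w b0 (dis T T' (z0 + ρ) - dis T T' z0) / a := by
    rw [hv, sub_ty]
    change w 0 / a * (ty e w b0 (dis T T' (z0 + ρ)) / (1 * w 0) -
      ty e w b0 (dis T T' z0) / (1 * w 0)) = _
    field_simp
  have v_1 : v 1 = dt (e 1) (dis T T' (z0 + ρ) - dis T T' z0) / w 1 := by
    rw [hv, sub_dt, sub_div]; rfl
  have v_2 : v 2 = dt (e 2) (dis T T' (z0 + ρ) - dis T T' z0) / w 2 := by
    rw [hv, sub_dt, sub_div]; rfl
  have q1 : |p 1| ≤ 2 * μ := by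
    rw [p_1, abs_div, abs_of_pos w1p, div_le_iff₀ w1p]
    have := (h z0 (Or.inl rfl)).1
    nlinarith
  have q2' : |p 2| ≤ 2 * μ := by
    rw [p_2, abs_div, abs_of_pos w2p, div_le_iff₀ w2p]
    have := (h z0 (Or.inl rfl)).2
    nlinarith
  have r1 : |v 1| ≤ 2 * μ := by
    rw [v_1, sub_dt, abs_div, abs_of_pos w1p, div_le_iff₀ w1p]
    have h1 := (h z0 (Or.inl rfl)).1
    have h2 := (h (z0 + ρ) (Or.inr rfl)).1
    exact (abs_sub _ _).trans (by linarith)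
  have r2 : |v 2| ≤ 2 * μ := by
    rw [v_2, sub_dt, abs_div, abs_of_pos w2p, div_le_iff₀ w2p]
    have h1 := (h z0 (Or.inl rfl)).2
    have h2 := (h (z0 + ρ) (Or.inr rfl)).2
    exact (abs_sub _ _).trans (by linarith)
  have hk0 : 0 ≤ w 0 / a * kap b0 b1 G := mul_nonneg (by linarith) (Tl102.kap_nonneg b0 b1 G)
  have conv : ∀ X : ℝ, |X| ≤ 4 * a + 6 * μ * (w 0 * kap b0 b1 G) →
      |X / a| ≤ 4 + 6 * (2 * μ) * (w 0 / a * kap b0 b1 G) := by
    intro X hX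
    rw [abs_div, abs_of_pos a0, div_le_iff₀ a0]
    have e1 : (4 + 6 * (2 * μ) * (w 0 / a * kap b0 b1 G)) * a =
        4 * a + 12 * μ * (w 0 * kap b0 b1 G) := by field_simp; ring
    rw [e1]
    have : 0 ≤ μ * (w 0 * kap b0 b1 G) :=
      mul_nonneg hμ0 (mul_nonneg w0p.le (Tl102.kap_nonneg b0 b1 G))
    linarith
  have L := link_one N hβ (μ := 2 * μ) (by linarith) (by linarith) q1 q2' r1 r2
    (by rw [p_0]; exact conv _ yb0)
    (by
      rw [p_0, v_0, sub_ty, ← add_div]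
      have : ty e w b0 (dis T T' z0) + (ty e w b0 (dis T T' (z0 + ρ)) - ty e w b0 (dis T T' z0)) =
        ty e w b0 (dis T T' (z0 + ρ)) := by ring
      rw [this]; exact conv _ yb1)
    (by
      intro ζ h0 h1
      have z3 : z0 ≤ z0 + ρ * ζ := by nlinarith
      have z4 : z0 + ρ * ζ ≤ z0 + ρ := by nlinarith
      rw [hp, hv, bz_pp]
      obtain ⟨x, hx⟩ : ∃ x, x = pp e w b0 1 T (z0 + ρ * ζ) T' := ⟨_, rfl⟩
      rw [← hx]
      have e1 : cmb (fr e w) (Phi b0 1 x) = dis T T' (z0 + ρ * ζ) := by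
        rw [hx]; exact cmb_crdS S.ortho hw b0 one_pos _
      have e2 := hE ζ (Phi b0 1 x)
      have e3 : T.pos (z0 + ρ * ζ) + dis T T' (z0 + ρ * ζ) = T'.pos (z0 + ρ * ζ) := by
        unfold dis; abel
      rw [e1, e3] at e2
      have e4 : Fq b0 b1 G ζ (Phi b0 1 x) = Fq (shB0 b0) (shB1 b0 b1) (shG b0 G) ζ x := by
        unfold Phi
        rw [Fq_unsh hb0, one_mul]
        congr 1
        funext i
        fin_cases i <;> rfl
      rw [e4] at e2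
      have e5 : w 0 * Fq (shB0 b0) (shB1 b0 b1) (shG b0 G) ζ x =
          q (z0 + ρ * ζ) (T'.pos (z0 + ρ * ζ)) - q (z0 + ρ * ζ) (T.pos (z0 + ρ * ζ)) := by
        rw [e2]; ring
      have e6 : |w 0 * Fq (shB0 b0) (shB1 b0 b1) (shG b0 G) ζ x| ≤ 2 * a := by
        rw [e5]
        exact (abs_sub _ _).trans (by linarith [(hT _ z3 z4).2, (hT' _ z3 z4).2])
      rw [abs_mul, abs_of_pos w0p] at e6
      have e7 : 2 / (w 0 / a) = 2 * a / w 0 := by field_simp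
      rw [e7, le_div_iff₀ w0p]
      linarith)
  rw [p_0, v_0, p_1, p_2, v_1, v_2] at L
  obtain ⟨L1, L2, L3⟩ := L
  have m1 : 400 * (2 * μ) = 800 * μ := by ring
  rw [m1] at L1 L2
  exact ⟨L1, L2, L3⟩

end Crest.Agent.R136.Lnk989
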