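import Crest.Agent.R136.Lnk3_989

/-!
# R136 (S0187), g-free tilt (PLAN 2, B4, (III)): time reversal (helper989)

`one_at` : the three inequalities of one sheet at the base heights `z0` (`b = 0`) and `z0 + ρ`
(`b = 1`), forward velocities in both cases.
-/

set_option autoImplicit false
set_option linter.unusedVariables false

namespace Crest.Agent.R136.Lnk989

open Crest.Agent.R136.Sh605 Crest.Agent.R136.Tl102 Crest.Agent.R136.Lgt989
open Crest.Agent.R136.Mdr535 (ty gr y_bound)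

variable {e : Fin 3 → V3} {c : Ln4} {w : V3} {q : ℝ → V3 → ℝ} {a z0 ρ : ℝ}

/-- reversed line -/
def rvl (s : ℝ) (T : Ln4) : Ln4 := ⟨fun i => T.p i + s * T.v i, fun i => - T.v i⟩

/-- reversed function -/
def rvq (s : ℝ) (q : ℝ → V3 → ℝ) : ℝ → V3 → ℝ := fun z x => q (s - z) x

theorem rvl_pos (s : ℝ) (T : Ln4) (z : ℝ) : (rvl s T).pos z = T.pos (s - z) := by
  funext i; simp only [rvl, Ln4.pos]; ring

theorem rvq_isQ {q : ℝ → V3 → ℝ} (s : ℝ) (hq : IsQ q) : IsQ (rvq s q) := by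
  obtain ⟨c0, c1, c2, b, d, g, h⟩ := hq
  refine ⟨c0 + c1 * s + c2 * s ^ 2, -c1 - 2 * c2 * s, c2, fun i => b i + d i * s, fun i => - d i, g,
    fun z x => ?_⟩
  unfold rvq
  rw [h]
  have e1 : ∑ i, (b i + d i * (s - z)) * x i = ∑ i, (b i + d i * s + -d i * z) * x i :=
    Finset.sum_congr rfl fun i _ => by ring
  rw [e1]; ring

theorem rv_inK {e : Fin 3 → V3} {c : Ln4} {w : V3} (s z : ℝ) (x : V3) :
    InK e (rvl s c) w z x ↔ InK e c w (s - z) x := by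
  unfold InK
  rw [rvl_pos]

theorem rv_stP (S : StP e c w q z0 ρ) :
    StP e (rvl (2 * z0 + ρ) c) w (rvq (2 * z0 + ρ) q) z0 ρ where
  ortho := S.ortho
  isQ := rvq_isQ _ S.isQ
  pos := S.pos
  st0 := by
    intro z h1 h2 x τ hτ hx hx'
    rw [rv_inK] at hx hx'
    exact S.st0 _ (by linarith) (by linarith) x τ hτ hx hx'
  st1 := by
    intro z h1 h2 x τ hτ hx hx'
    rw [rv_inK] at hx hx'
    exact S.st1 _ (by linarith) (by linarith) x τ hτ hx hx'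
  st2 := by
    intro z h1 h2 x τ hτ hx hx'
    rw [rv_inK] at hx hx'
    exact S.st2 _ (by linarith) (by linarith) x τ hτ hx hx'

theorem rv_inSheet {T : Ln4} (hT : InSheet T e c w q a z0 ρ) :
    InSheet (rvl (2 * z0 + ρ) T) e (rvl (2 * z0 + ρ) c) w (rvq (2 * z0 + ρ) q) a z0 ρ := by
  intro z h1 h2
  rw [rv_inK, rvl_pos]
  exact hT _ (by linarith) (by linarith)

theorem rv_isExp {T : Ln4} {b0 b1 : V3} {G : QF} (hE : IsExp q e w T z0 ρ b0 b1 G) :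
    IsExp (rvq (2 * z0 + ρ) q) e w (rvl (2 * z0 + ρ) T) z0 ρ (fun k => b0 k + b1 k)
      (fun k => - b1 k) G := by
  intro ζ x
  have h := hE (1 - ζ) x
  have e1 : 2 * z0 + ρ - (z0 + ρ * ζ) = z0 + ρ * (1 - ζ) := by ring
  rw [rvl_pos]
  unfold rvq
  rw [e1, h]
  have e2 : Fq b0 b1 G (1 - ζ) x = Fq (fun k => b0 k + b1 k) (fun k => - b1 k) G ζ x := by
    simp only [Fq, dt, bz]; ring
  rw [e2]

/-- sign change -/
theorem OneN.flip {K d g1 g2 h11 h12 h22 N0 N1 x1 x2 v1 v2 : ℝ}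
    (h : OneN K d g1 g2 h11 h12 h22 N0 N1 x1 x2 v1 v2) :
    OneN K d (-g1) (-g2) h11 h12 h22 N0 (-N1) x1 x2 (-v1) (-v2) := by
  obtain ⟨h0, h1, h2⟩ := h
  refine ⟨h0, ?_, ?_⟩
  · have e1 : -N1 + (-g1 * x1 + -g2 * x2) + p2 h11 h12 h22 x1 x2 (-v1) (-v2) =
        -(N1 + (g1 * x1 + g2 * x2) + p2 h11 h12 h22 x1 x2 v1 v2) := by
      simp only [p2]; ring
    rw [e1, abs_neg, abs_neg]; exact h1
  · have e1 : -g1 * -v1 + -g2 * -v2 + q2 h11 h12 h22 (-v1) (-v2) =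
        g1 * v1 + g2 * v2 + q2 h11 h12 h22 v1 v2 := by
      simp only [q2]; ring
    rw [e1, abs_neg]; exact h2

/-- gradient at the base height `b` -/
def nb (b0 b1 : V3) (b : ℝ) : V3 := fun k => b0 k + b * b1 k

/-- the coefficients of a sheet at the base height `b ∈ {0, 1}` (forward velocities) -/
structure Cf (b0 b1 : V3) (G : QF) (b β : ℝ) (g1 g2 h11 h12 h22 : ℝ) : Prop where
  g1e : g1 = β / nb b0 b1 b 0 * shB1 (nb b0 b1 b) b1 1
  g2e : g2 = β / nb b0 b1 b 0 * shB1 (nb b0 b1 b) b1 2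
  h11e : h11 = β / nb b0 b1 b 0 * (shG (nb b0 b1 b) G).uu
  h12e : h12 = β / nb b0 b1 b 0 * (shG (nb b0 b1 b) G).uv
  h22e : h22 = β / nb b0 b1 b 0 * (shG (nb b0 b1 b) G).vv

theorem nb_zero (b0 b1 : V3) : nb b0 b1 0 = b0 := by funext k; simp [nb]

theorem nb_one (b0 b1 : V3) : nb b0 b1 1 = fun k => b0 k + b1 k := by funext k; simp [nb]

/-- **one sheet at the base height `b ∈ {0, 1}`** -/
theorem one_at (S : StP e c w q z0 ρ) (a0 : 0 < a) (ha : a ≤ w 0) (hρ : 0 < ρ) {T T' : Ln4}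
    (hT : InSheet T e c w q a z0 ρ) (hT' : InSheet T' e c w q a z0 ρ) {b0 b1 : V3} {G : QF}
    (hE : IsExp q e w T z0 ρ b0 b1 G) {μ : ℝ} (hμ : 20000 * μ ≤ 1)
    (h : ∀ z, z = z0 ∨ z = z0 + ρ →
      |dt (e 1) (dis T T' z)| ≤ μ * w 1 ∧ |dt (e 2) (dis T T' z)| ≤ μ * w 2)
    {b : ℝ} (hb : b = 0 ∨ b = 1) {g1 g2 h11 h12 h22 : ℝ}
    (C : Cf b0 b1 G b (w 0 / a) g1 g2 h11 h12 h22) :
    OneN 164 (800 * μ) g1 g2 h11 h12 h22
      (ty e w (nb b0 b1 b) (dis T T' (z0 + ρ * b)) / a)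
      (ty e w (nb b0 b1 b) (dis T T' (z0 + ρ) - dis T T' z0) / a)
      (dt (e 1) (dis T T' (z0 + ρ * b)) / w 1) (dt (e 2) (dis T T' (z0 + ρ * b)) / w 2)
      (dt (e 1) (dis T T' (z0 + ρ) - dis T T' z0) / w 1)
      (dt (e 2) (dis T T' (z0 + ρ) - dis T T' z0) / w 2) := by
  obtain ⟨c1, c2, c3, c4, c5⟩ := C
  rcases hb with rfl | rfl
  · rw [nb_zero] at c1 c2 c3 c4 c5 ⊢
    rw [mul_zero, add_zero, c1, c2, c3, c4, c5]
    exact one_of S a0 ha hρ hT hT' hE hμ h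
  · rw [nb_one] at c1 c2 c3 c4 c5 ⊢
    rw [mul_one]
    have hd : ∀ z, dis (rvl (2 * z0 + ρ) T) (rvl (2 * z0 + ρ) T') z = dis T T' (2 * z0 + ρ - z) := by
      intro z
      unfold dis
      rw [rvl_pos, rvl_pos]
    have d1 : dis (rvl (2 * z0 + ρ) T) (rvl (2 * z0 + ρ) T') z0 = dis T T' (z0 + ρ) := by
      rw [hd]; congr 1; ring
    have d2 : dis (rvl (2 * z0 + ρ) T) (rvl (2 * z0 + ρ) T') (z0 + ρ) = dis T T' z0 := by
      rw [hd]; congr 1; ring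
    have M := one_of (rv_stP S) a0 ha hρ (rv_inSheet hT) (rv_inSheet hT') (rv_isExp hE) hμ (by
      intro z hz
      rcases hz with rfl | rfl
      · rw [d1]; exact h _ (Or.inr rfl)
      · rw [d2]; exact h _ (Or.inl rfl))
    rw [d1, d2] at M
    have M' := M.flip
    have f1 : -(w 0 / a / (b0 0 + b1 0) * shB1 (fun k => b0 k + b1 k) (fun k => -b1 k) 1) = g1 := by
      rw [c1]
      simp only [shB1, Matrix.cons_val]; ring
    have f2 : -(w 0 / a / (b0 0 + b1 0) * shB1 (fun k => b0 k + b1 k) (fun k => -b1 k) 2) = g2 := by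
      rw [c2]
      simp only [shB1, Matrix.cons_val]; ring
    have f3 : ∀ u : V3, -(dt u (dis T T' z0 - dis T T' (z0 + ρ))) =
        dt u (dis T T' (z0 + ρ) - dis T T' z0) := by
      intro u; simp only [dt, Pi.sub_apply]; ring
    have f4 : -(ty e w (fun k => b0 k + b1 k) (dis T T' z0 - dis T T' (z0 + ρ)) / a) =
        ty e w (fun k => b0 k + b1 k) (dis T T' (z0 + ρ) - dis T T' z0) / a := by
      simp only [ty, dt, Pi.sub_apply]; ring
    rw [f1, f2, f4, ← neg_div, ← neg_div, f3, f3] at M'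
    rw [c3, c4, c5]
    exact M'

end Crest.Agent.R136.Lnk989
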