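import Crest.Agent.R136.Lnk6_989

/-!
# R136 (S0187), g-free tilt (PLAN 2, B4, (III)): the abstract half (helper989, insurance of 816)
-/

set_option autoImplicit false
set_option linter.unusedVariables false

namespace Crest.Agent.R136.Lnk989

open Crest.Agent.R136.Clu108 (Six h2 pl)

theorem mle2 {x y A B : ℝ} (hx : |x| ≤ A) (hy : |y| ≤ B) : |x * y| ≤ A * B := by
  rw [abs_mul]; exact mul_le_mul hx hy (abs_nonneg _) ((abs_nonneg _).trans hx)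

/-- bilinear form: `|B δ| ≤ E` -/
theorem p2_le {B h11 h12 h22 a b c d m E : ℝ} (h1 : |h11| ≤ B) (h2 : |h12| ≤ B) (h3 : |h22| ≤ B)
    (ha : |a| ≤ m) (hb : |b| ≤ m) (hc : B * |c| ≤ E) (hd : B * |d| ≤ E) :
    |p2 h11 h12 h22 a b c d| ≤ 6 * (m * E) := by
  have m0 : 0 ≤ m := (abs_nonneg _).trans ha
  have B0 : 0 ≤ B := (abs_nonneg _).trans h1
  have key : ∀ h x y : ℝ, |h| ≤ B → |x| ≤ m → B * |y| ≤ E → |h * (x * y)| ≤ m * E := by
    intro h x y hh hx hy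
    rw [abs_mul, abs_mul]
    calc |h| * (|x| * |y|) = |x| * (|h| * |y|) := by ring
      _ ≤ m * (B * |y|) := mul_le_mul hx (mul_le_mul_of_nonneg_right hh (abs_nonneg _))
          (by positivity) m0
      _ ≤ m * E := mul_le_mul_of_nonneg_left hy m0
  have e : p2 h11 h12 h22 a b c d = 2 * (h11 * (a * c)) + h12 * (a * d) + h12 * (b * c) +
      2 * (h22 * (b * d)) := by
    unfold p2; ring
  rw [e]
  have k1 := key h11 a c h1 ha hc
  have k2 := key h12 a d h2 ha hd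
  have k3 := key h12 b c h2 hb hc
  have k4 := key h22 b d h3 hb hd
  have k1' : |2 * (h11 * (a * c))| ≤ 2 * (m * E) := by rw [abs_mul, abs_two]; linarith
  have k4' : |2 * (h22 * (b * d))| ≤ 2 * (m * E) := by rw [abs_mul, abs_two]; linarith
  refine (abs_add_le _ _).trans ((add_le_add ((abs_add_le _ _).trans (add_le_add
    ((abs_add_le _ _).trans (add_le_add k1' k2)) k3)) k4').trans ?_)
  linarith

/-- one sheet in the coordinates `(A, B)` -/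
theorem pull {K d B L m g1 g2 h11 h12 h22 N0 N1 x1 x2 v1 v2 l10 l11 l12 l20 l21 l22 Y0 Y1 A0 B0 A1
    B1 : ℝ} (O : OneN K d g1 g2 h11 h12 h22 N0 N1 x1 x2 v1 v2) (hL : 1 ≤ L)
    (hg1 : |g1| ≤ B) (hg2 : |g2| ≤ B) (h1 : |h11| ≤ B) (h2 : |h12| ≤ B) (h3 : |h22| ≤ B)
    (L11 : |l11| ≤ L) (L12 : |l12| ≤ L) (L21 : |l21| ≤ L) (L22 : |l22| ≤ L)
    (L10 : |l10| * B ≤ L) (L20 : |l20| * B ≤ L)
    (e1 : x1 = l10 * Y0 + l11 * A0 + l12 * B0) (e2 : x2 = l20 * Y0 + l21 * A0 + l22 * B0)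
    (e3 : v1 = l10 * Y1 + l11 * A1 + l12 * B1) (e4 : v2 = l20 * Y1 + l21 * A1 + l22 * B1)
    (x1b : |x1| ≤ m) (x2b : |x2| ≤ m) (v1b : |v1| ≤ m) (v2b : |v2| ≤ m) (A0b : |A0| ≤ m)
    (B0b : |B0| ≤ m) (A1b : |A1| ≤ m) (B1b : |B1| ≤ m) (m1 : m ≤ 1) :
    |N0 + q2 (q2 h11 h12 h22 l11 l21) (p2 h11 h12 h22 l11 l21 l12 l22) (q2 h11 h12 h22 l12 l22)
        A0 B0| ≤ K + d * |N0| + 9 * (L ^ 2 * m * |Y0|) ∧
    |N1 + ((g1 * l11 + g2 * l21) * A0 + (g1 * l12 + g2 * l22) * B0) +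
      p2 (q2 h11 h12 h22 l11 l21) (p2 h11 h12 h22 l11 l21 l12 l22) (q2 h11 h12 h22 l12 l22)
        A0 B0 A1 B1| ≤ K * (1 + |N0|) + d * |N1| + 14 * (L ^ 2 * |Y0|) +
          6 * (L ^ 2 * m * |Y1|) ∧
    |((g1 * l11 + g2 * l21) * A1 + (g1 * l12 + g2 * l22) * B1) +
      q2 (q2 h11 h12 h22 l11 l21) (p2 h11 h12 h22 l11 l21 l12 l22) (q2 h11 h12 h22 l12 l22)
        A1 B1| ≤ K * (1 + |N1|) + 11 * (L ^ 2 * |Y1|) := by
  obtain ⟨O0, O1, O2⟩ := O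
  have m0 : 0 ≤ m := (abs_nonneg _).trans x1b
  have B0' : 0 ≤ B := (abs_nonneg _).trans h1
  have L0 : 0 < L := by linarith
  have LL : L ≤ L ^ 2 := by nlinarith
  obtain ⟨y1, hy1⟩ : ∃ y1, y1 = l11 * A0 + l12 * B0 := ⟨_, rfl⟩
  obtain ⟨y2, hy2⟩ : ∃ y2, y2 = l21 * A0 + l22 * B0 := ⟨_, rfl⟩
  obtain ⟨z1, hz1⟩ : ∃ z1, z1 = l11 * A1 + l12 * B1 := ⟨_, rfl⟩
  obtain ⟨z2, hz2⟩ : ∃ z2, z2 = l21 * A1 + l22 * B1 := ⟨_, rfl⟩
  have two : ∀ p q X Y : ℝ, |p| ≤ L → |q| ≤ L → |X| ≤ m → |Y| ≤ m → |p * X + q * Y| ≤ 2 * (L * m) := by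
    intro p q X Y hp hq hX hY
    have := mle2 hp hX
    have := mle2 hq hY
    exact (abs_add_le _ _).trans (by linarith)
  have y1b : |y1| ≤ 2 * (L * m) := by rw [hy1]; exact two _ _ _ _ L11 L12 A0b B0b
  have y2b : |y2| ≤ 2 * (L * m) := by rw [hy2]; exact two _ _ _ _ L21 L22 A0b B0b
  have z1b : |z1| ≤ 2 * (L * m) := by rw [hz1]; exact two _ _ _ _ L11 L12 A1b B1b
  have z2b : |z2| ≤ 2 * (L * m) := by rw [hz2]; exact two _ _ _ _ L21 L22 A1b B1b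
  have mL : m ≤ L * m := by nlinarith
  -- `B |δ| ≤ L |Y|`
  have dl : ∀ l Y : ℝ, |l| * B ≤ L → B * |l * Y| ≤ L * |Y| := by
    intro l Y h
    rw [abs_mul]
    calc B * (|l| * |Y|) = (|l| * B) * |Y| := by ring
      _ ≤ L * |Y| := mul_le_mul_of_nonneg_right h (abs_nonneg _)
  have Y0n := abs_nonneg Y0
  have Y1n := abs_nonneg Y1
  have Lm : 0 ≤ L * m := by positivity
  have L2Y0 : 0 ≤ L ^ 2 * |Y0| := by positivity
  have L2Y1 : 0 ≤ L ^ 2 * |Y1| := by positivity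
  have L2mY0 : L ^ 2 * m * |Y0| ≤ L ^ 2 * |Y0| := by
    have : m * (L ^ 2 * |Y0|) ≤ 1 * (L ^ 2 * |Y0|) := mul_le_mul_of_nonneg_right m1 L2Y0
    linarith
  have L2mY1 : L ^ 2 * m * |Y1| ≤ L ^ 2 * |Y1| := by
    have : m * (L ^ 2 * |Y1|) ≤ 1 * (L ^ 2 * |Y1|) := mul_le_mul_of_nonneg_right m1 L2Y1
    linarith
  have s1 : |x1 + y1| ≤ 3 * (L * m) := (abs_add_le _ _).trans (by linarith)
  have s2 : |x2 + y2| ≤ 3 * (L * m) := (abs_add_le _ _).trans (by linarith)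
  have s3 : |v1 + z1| ≤ 3 * (L * m) := (abs_add_le _ _).trans (by linarith)
  have s4 : |v2 + z2| ≤ 3 * (L * m) := (abs_add_le _ _).trans (by linarith)
  have gl : ∀ g l Y : ℝ, |g| ≤ B → |l| * B ≤ L → |g * (l * Y)| ≤ L * |Y| := by
    intro g l Y hg hl
    rw [abs_mul]
    calc |g| * |l * Y| ≤ B * |l * Y| := mul_le_mul_of_nonneg_right hg (abs_nonneg _)
      _ ≤ L * |Y| := dl l Y hl
  have LY0 : L * |Y0| ≤ L ^ 2 * |Y0| := mul_le_mul_of_nonneg_right LL Y0n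
  have LY1 : L * |Y1| ≤ L ^ 2 * |Y1| := mul_le_mul_of_nonneg_right LL Y1n
  refine ⟨?_, ?_, ?_⟩
  · have E := p2_le h1 h2 h3 s1 s2 (dl l10 Y0 L10) (dl l20 Y0 L20)
    have e : N0 + q2 (q2 h11 h12 h22 l11 l21) (p2 h11 h12 h22 l11 l21 l12 l22)
        (q2 h11 h12 h22 l12 l22) A0 B0 = (N0 + q2 h11 h12 h22 x1 x2) -
          p2 h11 h12 h22 (x1 + y1) (x2 + y2) (l10 * Y0) (l20 * Y0) / 2 := by
      rw [hy1, hy2, e1, e2]; simp only [q2, p2]; ring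
    rw [e]
    have E2 : |p2 h11 h12 h22 (x1 + y1) (x2 + y2) (l10 * Y0) (l20 * Y0) / 2| ≤
        9 * (L ^ 2 * m * |Y0|) := by
      rw [abs_div, abs_two, div_le_iff₀ (by norm_num : (0:ℝ) < 2)]
      refine E.trans (le_of_eq ?_); ring
    exact (abs_sub _ _).trans (by linarith)
  · have E := p2_le h1 h2 h3 x1b x2b (dl l10 Y1 L10) (dl l20 Y1 L20)
    have E' := p2_le h1 h2 h3 z1b z2b (dl l10 Y0 L10) (dl l20 Y0 L20)
    have G1 := gl g1 l10 Y0 hg1 L10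
    have G2 := gl g2 l20 Y0 hg2 L20
    have e : N1 + ((g1 * l11 + g2 * l21) * A0 + (g1 * l12 + g2 * l22) * B0) +
      p2 (q2 h11 h12 h22 l11 l21) (p2 h11 h12 h22 l11 l21 l12 l22) (q2 h11 h12 h22 l12 l22)
        A0 B0 A1 B1 = (N1 + (g1 * x1 + g2 * x2) + p2 h11 h12 h22 x1 x2 v1 v2) -
          g1 * (l10 * Y0) - g2 * (l20 * Y0) - p2 h11 h12 h22 x1 x2 (l10 * Y1) (l20 * Y1) -
          p2 h11 h12 h22 z1 z2 (l10 * Y0) (l20 * Y0) := by
      rw [hz1, hz2, e1, e2, e3, e4]; simp only [q2, p2]; ring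
    rw [e]
    have F1 : 6 * (m * (L * |Y1|)) ≤ 6 * (L ^ 2 * m * |Y1|) := by
      have : m * (L * |Y1|) ≤ m * (L ^ 2 * |Y1|) := mul_le_mul_of_nonneg_left LY1 m0
      linarith
    have F2 : 6 * (2 * (L * m) * (L * |Y0|)) = 12 * (L ^ 2 * m * |Y0|) := by ring
    refine (abs_sub _ _).trans ((add_le_add ((abs_sub _ _).trans (add_le_add ((abs_sub _ _).trans
      (add_le_add ((abs_sub _ _).trans (add_le_add O1 G1)) G2)) E)) E').trans ?_)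
    rw [F2]
    linarith
  · have E := p2_le h1 h2 h3 s3 s4 (dl l10 Y1 L10) (dl l20 Y1 L20)
    have G1 := gl g1 l10 Y1 hg1 L10
    have G2 := gl g2 l20 Y1 hg2 L20
    have e : ((g1 * l11 + g2 * l21) * A1 + (g1 * l12 + g2 * l22) * B1) +
      q2 (q2 h11 h12 h22 l11 l21) (p2 h11 h12 h22 l11 l21 l12 l22) (q2 h11 h12 h22 l12 l22)
        A1 B1 = ((g1 * v1 + g2 * v2) + q2 h11 h12 h22 v1 v2) - g1 * (l10 * Y1) -
          g2 * (l20 * Y1) - p2 h11 h12 h22 (v1 + z1) (v2 + z2) (l10 * Y1) (l20 * Y1) / 2 := by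
      rw [hz1, hz2, e3, e4]; simp only [q2, p2]; ring
    rw [e]
    have E2 : |p2 h11 h12 h22 (v1 + z1) (v2 + z2) (l10 * Y1) (l20 * Y1) / 2| ≤
        9 * (L ^ 2 * m * |Y1|) := by
      rw [abs_div, abs_two, div_le_iff₀ (by norm_num : (0:ℝ) < 2)]
      refine E.trans (le_of_eq ?_); ring
    refine (abs_sub _ _).trans ((add_le_add ((abs_sub _ _).trans (add_le_add ((abs_sub _ _).trans
      (add_le_add O2 G1)) G2)) E2).trans ?_)
    linarith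

/-- rotated linear form -/
def rg (c1 c2 gA gB : ℝ) : ℝ × ℝ := (gA * c1 + gB * c2, -gA * c2 + gB * c1)

/-- rotated quadratic form -/
noncomputable def rh (c1 c2 hA hB hC : ℝ) : ℝ × ℝ × ℝ :=
  (hA * c1 ^ 2 + hB * (c1 * c2) + hC * c2 ^ 2,
    (-2 * hA * (c1 * c2) + hB * (c1 ^ 2 - c2 ^ 2) + 2 * hC * (c1 * c2)) / 2,
    hA * c2 ^ 2 - hB * (c1 * c2) + hC * c1 ^ 2)

theorem rg_eq {c1 c2 A B : ℝ} (hc : c1 ^ 2 + c2 ^ 2 = 1) (gA gB : ℝ) :
    (rg c1 c2 gA gB).1 * (c1 * A + c2 * B) + (rg c1 c2 gA gB).2 * (c1 * B - c2 * A) =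
      gA * A + gB * B := by
  simp only [rg]
  linear_combination (gA * A + gB * B) * hc

theorem rh_eq {c1 c2 A B : ℝ} (hc : c1 ^ 2 + c2 ^ 2 = 1) (hA hB hC : ℝ) :
    h2 (rh c1 c2 hA hB hC) (c1 * A + c2 * B) (c1 * B - c2 * A) = q2 hA hB hC A B := by
  have e : (c1 ^ 2 + c2 ^ 2) ^ 2 = 1 := by rw [hc]; norm_num
  simp only [rh, h2, q2]
  linear_combination (hA * A ^ 2 + hB * (A * B) + hC * B ^ 2) * e

theorem rp_eq {c1 c2 A B A' B' : ℝ} (hc : c1 ^ 2 + c2 ^ 2 = 1) (hA hB hC : ℝ) :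
    2 * pl (rh c1 c2 hA hB hC) (c1 * A + c2 * B) (c1 * B - c2 * A) (c1 * A' + c2 * B')
      (c1 * B' - c2 * A') = p2 hA hB hC A B A' B' := by
  have e : (c1 ^ 2 + c2 ^ 2) ^ 2 = 1 := by rw [hc]; norm_num
  simp only [rh, pl, p2]
  linear_combination (2 * hA * (A * A') + hB * (A * B' + A' * B) + 2 * hC * (B * B')) * e

theorem rot_le {c1 c2 E gA gB hA hB hC : ℝ} (h1 : |c1| ≤ 1) (h2 : |c2| ≤ 1) (ga : |gA| ≤ E)
    (gb : |gB| ≤ E) (ha : |hA| ≤ E) (hb : |hB| ≤ 2 * E) (hc : |hC| ≤ E) :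
    |(rg c1 c2 gA gB).1| ≤ 4 * E ∧ |(rg c1 c2 gA gB).2| ≤ 4 * E ∧
      |(rh c1 c2 hA hB hC).1| ≤ 4 * E ∧ |(rh c1 c2 hA hB hC).2.1| ≤ 4 * E ∧
        |(rh c1 c2 hA hB hC).2.2| ≤ 4 * E := by
  have E0 : 0 ≤ E := (abs_nonneg _).trans ga
  have one : ∀ x y : ℝ, |x| ≤ 1 → |y| ≤ 1 → |x * y| ≤ 1 := by
    intro x y hx hy
    have := mle2 hx hy
    linarith
  have c12 := one _ _ h1 h2
  have c11 := one _ _ h1 h1
  have c22 := one _ _ h2 h2
  have p : ∀ x y F : ℝ, |x| ≤ F → |y| ≤ 1 → |x * y| ≤ F := by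
    intro x y F hx hy
    have := mle2 hx hy
    linarith
  simp only [rg, rh]
  refine ⟨?_, ?_, ?_, ?_, ?_⟩
  · exact (abs_add_le _ _).trans (by linarith [p _ _ _ ga h1, p _ _ _ gb h2])
  · have e : -gA * c2 + gB * c1 = gB * c1 - gA * c2 := by ring
    rw [e]
    exact (abs_sub _ _).trans (by linarith [p _ _ _ ga h2, p _ _ _ gb h1])
  · have e : hA * c1 ^ 2 + hB * (c1 * c2) + hC * c2 ^ 2 = hA * (c1 * c1) + hB * (c1 * c2) +
        hC * (c2 * c2) := by ring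
    rw [e]
    refine (abs_add_le _ _).trans ((add_le_add (abs_add_le _ _) le_rfl).trans ?_)
    linarith [p _ _ _ ha c11, p _ _ _ hb c12, p _ _ _ hc c22]
  · have e : (-2 * hA * (c1 * c2) + hB * (c1 ^ 2 - c2 ^ 2) + 2 * hC * (c1 * c2)) / 2 =
        hC * (c1 * c2) - hA * (c1 * c2) + (hB * (c1 * c1)) / 2 - (hB * (c2 * c2)) / 2 := by ring
    rw [e]
    have q1 := p _ _ _ hb c11
    have q2 := p _ _ _ hb c22
    have q1' : |hB * (c1 * c1) / 2| ≤ E := by rw [abs_div, abs_two]; linarith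
    have q2' : |hB * (c2 * c2) / 2| ≤ E := by rw [abs_div, abs_two]; linarith
    refine (abs_sub _ _).trans ((add_le_add ((abs_add_le _ _).trans (add_le_add (abs_sub _ _)
      le_rfl)) le_rfl).trans ?_)
    linarith [p _ _ _ ha c12, p _ _ _ hc c12]
  · have e : hA * c2 ^ 2 - hB * (c1 * c2) + hC * c1 ^ 2 = hA * (c2 * c2) - hB * (c1 * c2) +
        hC * (c1 * c1) := by ring
    rw [e]
    refine (abs_add_le _ _).trans ((add_le_add (abs_sub _ _) le_rfl).trans ?_)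
    linarith [p _ _ _ ha c22, p _ _ _ hb c12, p _ _ _ hc c11]

theorem form_le {B L h11 h12 h22 l11 l12 l21 l22 g1 g2 : ℝ} (hL : 1 ≤ L) (hg1 : |g1| ≤ B)
    (hg2 : |g2| ≤ B) (h1 : |h11| ≤ B) (h2 : |h12| ≤ B) (h3 : |h22| ≤ B) (L11 : |l11| ≤ L)
    (L12 : |l12| ≤ L) (L21 : |l21| ≤ L) (L22 : |l22| ≤ L) :
    |g1 * l11 + g2 * l21| ≤ 3 * (L ^ 2 * B) ∧ |g1 * l12 + g2 * l22| ≤ 3 * (L ^ 2 * B) ∧
      |q2 h11 h12 h22 l11 l21| ≤ 3 * (L ^ 2 * B) ∧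
      |p2 h11 h12 h22 l11 l21 l12 l22| ≤ 2 * (3 * (L ^ 2 * B)) ∧
      |q2 h11 h12 h22 l12 l22| ≤ 3 * (L ^ 2 * B) := by
  have B0 : 0 ≤ B := (abs_nonneg _).trans h1
  have L0 : 0 < L := by linarith
  have LB : L * B ≤ L ^ 2 * B := by
    have : L ≤ L ^ 2 := by nlinarith
    exact mul_le_mul_of_nonneg_right this B0
  have L2B : 0 ≤ L ^ 2 * B := by positivity
  have key : ∀ h x y : ℝ, |h| ≤ B → |x| ≤ L → |y| ≤ L → |h * (x * y)| ≤ L ^ 2 * B := by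
    intro h x y hh hx hy
    have := mle2 hh (mle2 hx hy)
    have e : B * (L * L) = L ^ 2 * B := by ring
    linarith
  have qq : ∀ x y : ℝ, |x| ≤ L → |y| ≤ L → |q2 h11 h12 h22 x y| ≤ 3 * (L ^ 2 * B) := by
    intro x y hx hy
    have e : q2 h11 h12 h22 x y = h11 * (x * x) + h12 * (x * y) + h22 * (y * y) := by
      unfold q2; ring
    rw [e]
    refine (abs_add_le _ _).trans ((add_le_add (abs_add_le _ _) le_rfl).trans ?_)
    linarith [key _ _ _ h1 hx hx, key _ _ _ h2 hx hy, key _ _ _ h3 hy hy]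
  refine ⟨?_, ?_, qq _ _ L11 L21, ?_, qq _ _ L12 L22⟩
  · have := mle2 hg1 L11
    have := mle2 hg2 L21
    exact (abs_add_le _ _).trans (by linarith)
  · have := mle2 hg1 L12
    have := mle2 hg2 L22
    exact (abs_add_le _ _).trans (by linarith)
  · have e : B * |l12| ≤ L * B := by
      have := mul_le_mul_of_nonneg_left L12 B0
      linarith
    have e' : B * |l22| ≤ L * B := by
      have := mul_le_mul_of_nonneg_left L22 B0
      linarith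
    have := p2_le h1 h2 h3 L11 L21 e e'
    refine this.trans (le_of_eq ?_); ring

set_option maxHeartbeats 1000000 in
/-- **the abstract half of the link** -/
theorem six_of : SixOf 100 := by
  intro K0 d0 B L M g1 g2 h11 h12 h22 g1' g2' h11' h12' h22' l10 l11 l12 l20
    l21 l22 k10 k11 k12 k20 k21 k22 mm t1 t2 hK hd hL hM hMt G1 G2 H1 H2 H3 G1' G2' H1' H2' H3'
    L11 L12 L21 L22 K11 K12 K21 K22 L10 L20 K10 K20 hmm
  have B0 : 0 ≤ B := (abs_nonneg _).trans H1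
  have L0 : 0 < L := by linarith
  obtain ⟨c1, hc1⟩ : ∃ c1, c1 = t1 / M := ⟨_, rfl⟩
  obtain ⟨c2, hc2⟩ : ∃ c2, c2 = t2 / M := ⟨_, rfl⟩
  have hc : c1 ^ 2 + c2 ^ 2 = 1 := by
    rw [hc1, hc2, div_pow, div_pow, ← add_div, ← hMt, div_self (by positivity)]
  have c1b : |c1| ≤ 1 := by
    rw [abs_le]; constructor <;> nlinarith [sq_nonneg c2, sq_nonneg (c1 - 1), sq_nonneg (c1 + 1)]
  have c2b : |c2| ≤ 1 := by
    rw [abs_le]; constructor <;> nlinarith [sq_nonneg c1, sq_nonneg (c2 - 1), sq_nonneg (c2 + 1)]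
  have mm1 : |1 - mm| ≤ 2 * L := (abs_sub _ _).trans (by rw [abs_one]; linarith)
  obtain ⟨F1, F2, F3, F4, F5⟩ := form_le hL G1 G2 H1 H2 H3 L11 L12 L21 L22
  obtain ⟨F1', F2', F3', F4', F5'⟩ := form_le hL G1' G2' H1' H2' H3' K11 K12 K21 K22
  -- the forms of the two sheets
  obtain ⟨gA, hgA⟩ : ∃ x, x = g1 * l11 + g2 * l21 := ⟨_, rfl⟩
  obtain ⟨gB, hgB⟩ : ∃ x, x = g1 * l12 + g2 * l22 := ⟨_, rfl⟩
  obtain ⟨hA, hhA⟩ : ∃ x, x = q2 h11 h12 h22 l11 l21 := ⟨_, rfl⟩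
  obtain ⟨hB, hhB⟩ : ∃ x, x = p2 h11 h12 h22 l11 l21 l12 l22 := ⟨_, rfl⟩
  obtain ⟨hC, hhC⟩ : ∃ x, x = q2 h11 h12 h22 l12 l22 := ⟨_, rfl⟩
  obtain ⟨gA', hgA'⟩ : ∃ x, x = g1' * k11 + g2' * k21 := ⟨_, rfl⟩
  obtain ⟨gB', hgB'⟩ : ∃ x, x = g1' * k12 + g2' * k22 := ⟨_, rfl⟩
  obtain ⟨hA', hhA'⟩ : ∃ x, x = q2 h11' h12' h22' k11 k21 := ⟨_, rfl⟩
  obtain ⟨hB', hhB'⟩ : ∃ x, x = p2 h11' h12' h22' k11 k21 k12 k22 := ⟨_, rfl⟩
  obtain ⟨hC', hhC'⟩ : ∃ x, x = q2 h11' h12' h22' k12 k22 := ⟨_, rfl⟩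
  rw [← hgA] at F1
  rw [← hgB] at F2
  rw [← hhA] at F3
  rw [← hhB] at F4
  rw [← hhC] at F5
  rw [← hgA'] at F1'
  rw [← hgB'] at F2'
  rw [← hhA'] at F3'
  rw [← hhB'] at F4'
  rw [← hhC'] at F5'
  obtain ⟨E, hE⟩ : ∃ E, E = L ^ 2 * B := ⟨_, rfl⟩
  have E0 : 0 ≤ E := by rw [hE]; positivity
  rw [← hE] at F1 F2 F3 F4 F5 F1' F2' F3' F4' F5'
  have EL : E ≤ L * E := le_mul_of_one_le_left E0 hL
  have comb : ∀ x y k : ℝ, |x| ≤ k → |y| ≤ k → k ≤ L * k → |y + (1 - mm) * x| ≤ 3 * (L * k) := by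
    intro x y k hx hy hk
    have := mle2 mm1 hx
    exact (abs_add_le _ _).trans (by linarith)
  have D1 := comb _ _ _ F1 F1' (by linarith)
  have D2 := comb _ _ _ F2 F2' (by linarith)
  have D3 := comb _ _ _ F3 F3' (by linarith)
  have D4 := comb _ _ _ F4 F4' (by linarith)
  have D5 := comb _ _ _ F5 F5' (by linarith)
  have R := rot_le (E := 3 * E) c1b c2b F1 F2 F3 F4 F5
  have R' := rot_le (E := 9 * (L * E)) (gA := gA' + (1 - mm) * gA) (gB := gB' + (1 - mm) * gB)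
    (hA := hA' + (1 - mm) * hA) (hB := hB' + (1 - mm) * hB) (hC := hC' + (1 - mm) * hC) c1b c2b
    (D1.trans (by linarith)) (D2.trans (by linarith)) (D3.trans (by linarith))
    (D4.trans (by linarith)) (D5.trans (by linarith))
  have LE : 100 * L ^ 3 * B = 100 * (L * E) := by rw [hE]; ring
  refine ⟨rg c1 c2 gA gB, rg c1 c2 (gA' + (1 - mm) * gA) (gB' + (1 - mm) * gB), rh c1 c2 hA hB hC,
    rh c1 c2 (hA' + (1 - mm) * hA) (hB' + (1 - mm) * hB) (hC' + (1 - mm) * hC), ?_, ?_, ?_⟩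
  · rw [LE]
    obtain ⟨r1, r2, r3, r4, r5⟩ := R
    refine ⟨?_, ?_, ?_, ?_, ?_⟩ <;> linarith
  · rw [LE]
    have : 0 ≤ L * E := by positivity
    obtain ⟨r1, r2, r3, r4, r5⟩ := R'
    refine ⟨?_, ?_, ?_, ?_, ?_⟩ <;> linarith
  intro Y0 Y1 N0 N1 A0 B0 A1 B1 x1 x2 v1 v2 x1' x2' v1' v2' m O O' e1 e2 e3 e4 e5 e6 e7 e8 n0 n1 b1
    b2 b3 b4 b5 b6 b7 b8 b9 b10 b11 b12 m1
  have m0 : 0 ≤ m := (abs_nonneg _).trans b1
  obtain ⟨P1, P2, P3⟩ := pull O hL G1 G2 H1 H2 H3 L11 L12 L21 L22 L10 L20 e1 e2 e3 e4 b1 b2 b3 b4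
    b9 b10 b11 b12 m1
  obtain ⟨Q1, Q2, Q3⟩ := pull O' hL G1' G2' H1' H2' H3' K11 K12 K21 K22 K10 K20 e5 e6 e7 e8 b5 b6
    b7 b8 b9 b10 b11 b12 m1
  rw [← hhA, ← hhB, ← hhC] at P1 P2 P3
  rw [← hgA, ← hgB] at P2 P3
  rw [← hhA', ← hhB', ← hhC'] at Q1 Q2 Q3
  rw [← hgA', ← hgB'] at Q2 Q3
  -- positions in the rotated frame
  have p0 : (t1 * A0 + t2 * B0) / M = c1 * A0 + c2 * B0 := by rw [hc1, hc2]; ring
  have s0 : (t1 * B0 - t2 * A0) / M = c1 * B0 - c2 * A0 := by rw [hc1, hc2]; ring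
  have p1 : (t1 * A1 + t2 * B1) / M = c1 * A1 + c2 * B1 := by rw [hc1, hc2]; ring
  have s1 : (t1 * B1 - t2 * A1) / M = c1 * B1 - c2 * A1 := by rw [hc1, hc2]; ring
  have w0 : M * (c1 * A0 + c2 * B0) = t1 * A0 + t2 * B0 := by rw [hc1, hc2]; field_simp
  have w1 : M * (c1 * A1 + c2 * B1) = t1 * A1 + t2 * B1 := by rw [hc1, hc2]; field_simp
  have W0 : M * |c1 * A0 + c2 * B0| = |t1 * A0 + t2 * B0| := by
    rw [← w0, abs_mul, abs_of_pos hM]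
  have W1 : M * |c1 * A1 + c2 * B1| = |t1 * A1 + t2 * B1| := by
    rw [← w1, abs_mul, abs_of_pos hM]
  rw [p0, s0, p1, s1]
  obtain ⟨Z0, hZ0⟩ : ∃ z, z = |t1 * A0 + t2 * B0| := ⟨_, rfl⟩
  obtain ⟨Z1, hZ1⟩ : ∃ z, z = |t1 * A1 + t2 * B1| := ⟨_, rfl⟩
  obtain ⟨y0, hy0⟩ : ∃ z, z = |Y0| := ⟨_, rfl⟩
  obtain ⟨y1, hy1⟩ : ∃ z, z = |Y1| := ⟨_, rfl⟩
  have Z0n : 0 ≤ Z0 := by rw [hZ0]; exact abs_nonneg _
  have Z1n : 0 ≤ Z1 := by rw [hZ1]; exact abs_nonneg _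
  have y0n : 0 ≤ y0 := by rw [hy0]; exact abs_nonneg _
  have y1n : 0 ≤ y1 := by rw [hy1]; exact abs_nonneg _
  have N0b : |N0| ≤ L * y0 + Z0 := by
    rw [n0, hy0, hZ0]
    refine (abs_add_le _ _).trans (add_le_add ?_ le_rfl)
    rw [abs_mul]; exact mul_le_mul_of_nonneg_right hmm (abs_nonneg _)
  have N1b : |N1| ≤ L * y1 + Z1 := by
    rw [n1, hy1, hZ1]
    refine (abs_add_le _ _).trans (add_le_add ?_ le_rfl)
    rw [abs_mul]; exact mul_le_mul_of_nonneg_right hmm (abs_nonneg _)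
  rw [← hy0] at P1 P2 Q1 Q2
  rw [← hy1] at P2 P3 Q2 Q3
  -- powers
  obtain ⟨U, hU⟩ : ∃ U, U = L ^ 4 := ⟨_, rfl⟩
  have U1 : 1 ≤ U := by rw [hU]; exact one_le_pow₀ hL
  have U3 : L ^ 3 ≤ U := by rw [hU]; exact pow_le_pow_right₀ hL (by norm_num)
  have U2 : L ^ 2 ≤ U := by rw [hU]; exact pow_le_pow_right₀ hL (by norm_num)
  have UL : L ≤ U := by
    have : L ^ 1 ≤ L ^ 4 := pow_le_pow_right₀ hL (by norm_num)
    rw [hU]; linarith
  have K0n : 0 < K0 := by linarith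
  rw [← hU]
  -- generic comparison
  have up : ∀ x y : ℝ, 0 ≤ y → x ≤ U → x * y ≤ U * y := fun x y hy hx =>
    mul_le_mul_of_nonneg_right hx hy
  have dm0 : 0 ≤ d0 + m := by linarith
  have UK : U ≤ U * K0 := le_mul_of_one_le_right (by linarith) hK
  have UKy : ∀ y : ℝ, 0 ≤ y → U * y ≤ U * K0 * y := fun y hy => mul_le_mul_of_nonneg_right UK hy
  have Kx : ∀ y : ℝ, 0 ≤ y → K0 * y ≤ U * K0 * y := by
    intro y hy
    have : 1 * (K0 * y) ≤ U * (K0 * y) := mul_le_mul_of_nonneg_right U1 (by positivity)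
    linarith
  have LK : ∀ y : ℝ, 0 ≤ y → L * K0 * y ≤ U * K0 * y := by
    intro y hy
    have : L * (K0 * y) ≤ U * (K0 * y) := mul_le_mul_of_nonneg_right UL (by positivity)
    linarith
  have dx : ∀ y : ℝ, 0 ≤ y → d0 * y ≤ U * (d0 + m) * y := by
    intro y hy
    have a1 : d0 * y ≤ (d0 + m) * y := mul_le_mul_of_nonneg_right (by linarith) hy
    have a2 : 1 * ((d0 + m) * y) ≤ U * ((d0 + m) * y) :=
      mul_le_mul_of_nonneg_right U1 (by positivity)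
    linarith
  have dLx : ∀ y : ℝ, 0 ≤ y → L * d0 * y ≤ U * (d0 + m) * y := by
    intro y hy
    have a1 : (L * d0) * y ≤ (L * (d0 + m)) * y :=
      mul_le_mul_of_nonneg_right (mul_le_mul_of_nonneg_left (by linarith) L0.le) hy
    have a2 : L * ((d0 + m) * y) ≤ U * ((d0 + m) * y) :=
      mul_le_mul_of_nonneg_right UL (by positivity)
    linarith
  have mx : ∀ V y : ℝ, 0 ≤ V → V ≤ U → 0 ≤ y → V * m * y ≤ U * (d0 + m) * y := by
    intro V y hV hVU hy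
    have a1 : V * (m * y) ≤ U * (m * y) := mul_le_mul_of_nonneg_right hVU (by positivity)
    have a2 : U * (m * y) ≤ U * ((d0 + m) * y) :=
      mul_le_mul_of_nonneg_left (mul_le_mul_of_nonneg_right (by linarith) hy) (by linarith)
    linarith
  have L2n : 0 ≤ L ^ 2 := by positivity
  have L3n : 0 ≤ L ^ 3 := by positivity
  -- values of the combined sheet
  have mY : ∀ X : ℝ, |(1 - mm) * X| ≤ 2 * L * |X| := by
    intro X
    rw [abs_mul]; exact mul_le_mul_of_nonneg_right mm1 (abs_nonneg _)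
  have nn : 0 ≤ 2 * L := by linarith
  refine ⟨?_, ?_, ?_, ?_, ?_, ?_⟩
  · rw [rh_eq hc, W0, ← hZ0, ← hy0]
    refine P1.trans ?_
    have i1 := dx y0 y0n
    have i2 := mx (L ^ 2) y0 L2n U2 y0n
    have i3 := Kx 1 zero_le_one
    have i4 : 0 ≤ U * (d0 + m) * Z0 := by positivity
    have i5 : 0 ≤ U * (d0 + m) * y0 := by positivity
    have i6 : 0 ≤ U * K0 := by positivity
    linarith
  · rw [rg_eq hc, rp_eq hc, W0, W1, ← hZ0, ← hZ1, ← hy0, ← hy1]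
    refine P2.trans ?_
    have i1 := dx y1 y1n
    have i2 := mx (L ^ 2) y1 L2n U2 y1n
    have i3 := Kx 1 zero_le_one
    have i3' := Kx y0 y0n
    have i4 : 0 ≤ U * (d0 + m) * Z1 := by positivity
    have i5 : 0 ≤ U * (d0 + m) * y1 := by positivity
    have i6 : 0 ≤ U * K0 := by positivity
    have i7 : 0 ≤ U * K0 * y0 := by positivity
    have i8 : 0 ≤ U * K0 * Z0 := by positivity
    have i9 := up (L ^ 2) y0 y0n U2
    have i10 := UKy y0 y0n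
    linarith
  · rw [rg_eq hc, rh_eq hc, W0, W1, ← hZ0, ← hZ1, ← hy0, ← hy1]
    refine P3.trans ?_
    have i3 := Kx 1 zero_le_one
    have i3' := Kx y1 y1n
    have i6 : 0 ≤ U * K0 := by positivity
    have i7 : 0 ≤ U * K0 * y0 := by positivity
    have i8 : 0 ≤ U * K0 * Z0 := by positivity
    have i7' : 0 ≤ U * K0 * y1 := by positivity
    have i8' : 0 ≤ U * K0 * Z1 := by positivity
    have i9 := up (L ^ 2) y1 y1n U2
    have i10 := UKy y1 y1n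
    linarith
  · rw [rh_eq hc, W0, w0, ← hZ0, ← hy0]
    have e : Y0 + (t1 * A0 + t2 * B0) + q2 (hA' + (1 - mm) * hA) (hB' + (1 - mm) * hB)
        (hC' + (1 - mm) * hC) A0 B0 = (N0 + q2 hA' hB' hC' A0 B0) +
          (1 - mm) * (Y0 + q2 hA hB hC A0 B0) := by
      rw [n0]; simp only [q2]; ring
    rw [e]
    have j := (mY (Y0 + q2 hA hB hC A0 B0)).trans (mul_le_mul_of_nonneg_left P1 nn)
    refine (abs_add_le _ _).trans ((add_le_add Q1 j).trans ?_)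
    have i0 : d0 * |N0| ≤ d0 * (L * y0 + Z0) := mul_le_mul_of_nonneg_left N0b hd
    have i1 := dLx y0 y0n
    have i1' := dx Z0 Z0n
    have i2 := mx (L ^ 2) y0 L2n U2 y0n
    have i2' := mx (L ^ 3) y0 L3n U3 y0n
    have i3 := Kx 1 zero_le_one
    have i3' := LK 1 zero_le_one
    have i4 : 0 ≤ U * (d0 + m) * Z0 := by positivity
    have i5 : 0 ≤ U * (d0 + m) * y0 := by positivity
    have i6 : 0 ≤ U * K0 := by positivity
    have k1 : 2 * L * (K0 + d0 * y0 + 9 * (L ^ 2 * m * y0)) = 2 * (L * K0 * 1) +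
        2 * (L * d0 * y0) + 18 * (L ^ 3 * m * y0) := by ring
    have k2 : d0 * (L * y0 + Z0) = L * d0 * y0 + d0 * Z0 := by ring
    rw [k1]
    linarith
  · rw [rg_eq hc, rp_eq hc, W0, W1, w1, ← hZ0, ← hZ1, ← hy0, ← hy1]
    have e : Y1 + (t1 * A1 + t2 * B1) + ((gA' + (1 - mm) * gA) * A0 + (gB' + (1 - mm) * gB) * B0) +
        p2 (hA' + (1 - mm) * hA) (hB' + (1 - mm) * hB) (hC' + (1 - mm) * hC) A0 B0 A1 B1 =
        (N1 + (gA' * A0 + gB' * B0) + p2 hA' hB' hC' A0 B0 A1 B1) +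
          (1 - mm) * (Y1 + (gA * A0 + gB * B0) + p2 hA hB hC A0 B0 A1 B1) := by
      rw [n1]; simp only [p2]; ring
    rw [e]
    have j := (mY (Y1 + (gA * A0 + gB * B0) + p2 hA hB hC A0 B0 A1 B1)).trans
      (mul_le_mul_of_nonneg_left P2 nn)
    refine (abs_add_le _ _).trans ((add_le_add Q2 j).trans ?_)
    have i0 : d0 * |N1| ≤ d0 * (L * y1 + Z1) := mul_le_mul_of_nonneg_left N1b hd
    have i0' : K0 * (1 + |N0|) ≤ K0 * (1 + (L * y0 + Z0)) :=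
      mul_le_mul_of_nonneg_left (by linarith) K0n.le
    have i1 := dLx y1 y1n
    have i1' := dx Z1 Z1n
    have i2 := mx (L ^ 2) y1 L2n U2 y1n
    have i2' := mx (L ^ 3) y1 L3n U3 y1n
    have i3 := Kx 1 zero_le_one
    have i3' := LK 1 zero_le_one
    have i3'' := LK y0 y0n
    have i3c := Kx Z0 Z0n
    have i4 : 0 ≤ U * (d0 + m) * Z1 := by positivity
    have i5 : 0 ≤ U * (d0 + m) * y1 := by positivity
    have i6 : 0 ≤ U * K0 := by positivity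
    have i7 : 0 ≤ U * K0 * y0 := by positivity
    have i8 : 0 ≤ U * K0 * Z0 := by positivity
    have i9 := up (L ^ 2) y0 y0n U2
    have i9' := up (L ^ 3) y0 y0n U3
    have i10 := UKy y0 y0n
    have k1 : 2 * L * (K0 * (1 + y0) + d0 * y1 + 14 * (L ^ 2 * y0) + 6 * (L ^ 2 * m * y1)) =
        2 * (L * K0 * 1) + 2 * (L * K0 * y0) + 2 * (L * d0 * y1) + 28 * (L ^ 3 * y0) +
          12 * (L ^ 3 * m * y1) := by ring
    have k2 : d0 * (L * y1 + Z1) = L * d0 * y1 + d0 * Z1 := by ring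
    have k3 : K0 * (1 + (L * y0 + Z0)) = K0 * 1 + L * K0 * y0 + K0 * Z0 := by ring
    rw [k1]
    linarith
  · rw [rg_eq hc, rh_eq hc, W0, W1, ← hZ0, ← hZ1, ← hy0, ← hy1]
    have e : (gA' + (1 - mm) * gA) * A1 + (gB' + (1 - mm) * gB) * B1 +
        q2 (hA' + (1 - mm) * hA) (hB' + (1 - mm) * hB) (hC' + (1 - mm) * hC) A1 B1 =
        ((gA' * A1 + gB' * B1) + q2 hA' hB' hC' A1 B1) +
          (1 - mm) * ((gA * A1 + gB * B1) + q2 hA hB hC A1 B1) := by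
      simp only [q2]; ring
    rw [e]
    have j := (mY ((gA * A1 + gB * B1) + q2 hA hB hC A1 B1)).trans
      (mul_le_mul_of_nonneg_left P3 nn)
    refine (abs_add_le _ _).trans ((add_le_add Q3 j).trans ?_)
    have i0' : K0 * (1 + |N1|) ≤ K0 * (1 + (L * y1 + Z1)) :=
      mul_le_mul_of_nonneg_left (by linarith) K0n.le
    have i3 := Kx 1 zero_le_one
    have i3' := LK 1 zero_le_one
    have i3'' := LK y1 y1n
    have i3c := Kx Z1 Z1n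
    have i6 : 0 ≤ U * K0 := by positivity
    have i7 : 0 ≤ U * K0 * y0 := by positivity
    have i8 : 0 ≤ U * K0 * Z0 := by positivity
    have i7' : 0 ≤ U * K0 * y1 := by positivity
    have i8' : 0 ≤ U * K0 * Z1 := by positivity
    have i9 := up (L ^ 2) y1 y1n U2
    have i9' := up (L ^ 3) y1 y1n U3
    have i10 := UKy y1 y1n
    have k1 : 2 * L * (K0 * (1 + y1) + 11 * (L ^ 2 * y1)) =
        2 * (L * K0 * 1) + 2 * (L * K0 * y1) + 22 * (L ^ 3 * y1) := by ring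
    have k3 : K0 * (1 + (L * y1 + Z1)) = K0 * 1 + L * K0 * y1 + K0 * Z1 := by ring
    rw [k1]
    linarith

end Crest.Agent.R136.Lnk989
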