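import Crest.Agent.R136.Lnk6_989
import Crest.Agent.R136.Lnk2_816

/-!
# R136 (S0187), PLAN 2, (B4) LINK: `six_of` in helper989's letters (helper816)
-/

set_option autoImplicit false
set_option linter.unusedVariables false

namespace Crest.Agent.R136.Lnk8816

open Crest.Agent.R136.Lnk989 (SixOf SixAt OneN)
open Crest.Agent.R136.Lnk2816 (One)

/-- **the abstract half of the link**, `C = 40` -/
theorem six_of : SixOf 40 := by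
  intro K0 d0 B L M g1 g2 h11 h12 h22 g1' g2' h11' h12' h22' l10 l11 l12 l20 l21 l22 k10 k11 k12
    k20 k21 k22 mm t1 t2 hK0 hd0 hL hM hMt bg1 bg2 b1 b2 b3 bg1' bg2' b1' b2' b3' hl11 hl12 hl21
    hl22 hk11 hk12 hk21 hk22 hl10 hl20 hk10 hk20 hmm
  obtain ⟨g, g', h, h', ⟨e1, e2, e3, e4, e5, e6, e7, e8, e9, e10⟩, H⟩ :=
    Lnk2816.six_of (K0 := K0) (d0 := d0) bg1 bg2 b1 b2 b3 bg1' bg2' b1' b2' b3' hL hl11 hl12 hl21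
      hl22 hk11 hk12 hk21 hk22 hl10 hl20 hk10 hk20 hmm hd0 hK0 hM hMt
  refine ⟨g, g', h, h', ⟨e1, e2, e5, e6, e7⟩, ⟨e3, e4, e8, e9, e10⟩, ?_⟩
  intro Y0 Y1 N0 N1 A0 B0 A1 B1 x1 x2 v1 v2 x1' x2' v1' v2' m O O' a1 a2 a3 a4 a5 a6 a7 a8 a9 a10
    c1 c2 c3 c4 c5 c6 c7 c8 c9 c10 c11 c12 hm
  exact H Y0 Y1 N0 N1 A0 B0 A1 B1 x1 x2 v1 v2 x1' x2' v1' v2' m ⟨O.1, O.2.1, O.2.2⟩
    ⟨O'.1, O'.2.1, O'.2.2⟩ a1 a2 a3 a4 a5 a6 a7 a8 a9 a10 c1 c2 c3 c4 c5 c6 c7 c8 c9 c10 c11 c12 hm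

end Crest.Agent.R136.Lnk8816
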