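import Crest.Agent.R136.Lnv_876
import Crest.Agent.R136.Cuu4_57

/-!
# R136 (U4, PLAN 2 (AL), leaf (D)): nondegenerate boxes, pairs `U t, U t'` (helper876)

* `uu_of_cf` : 57's configuration `Uu` in a configuration `Cf`;
* `lnd_uu_of` : second conjunct of `Al500.LeafNd` over 57's two facts (`ValUu`, `A0Uu`);
* `leafNd_of` : `Al500.LeafNd` over the same.
-/

set_option autoImplicit false
set_option linter.unusedVariables false

namespace Crest.Agent.R136.Adp876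

open Crest.Agent.R136.Sh605
open Crest.Agent.R136.K4 (Plk4)
open Crest.Agent.R136.Tlt51 (Shp InP)
open Crest.Agent.R136.Deep51 (CloseC)
open Crest.Agent.R136.KapP335 (kapP)
open Crest.Agent.R136.Tl102 (StP angC)
open Crest.Agent.R136.Pl2W102 (Near)
open Crest.Agent.R136.Pl2 (kp)
open Crest.Agent.R136.Rf877 (Tub)
open Crest.Agent.R136.Alw500 (lbl)
open Crest.Agent.R136.Gbx862 (zj gb zj_mem gb_close)
open Crest.Agent.R136.AlD601 (Nd jS jt jt_jet)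
open Crest.Agent.R136.Al500 (Cf)
open Crest.Agent.R136.Adj214 (KD KD_one KD_pos)
open Crest.Agent.R136.Cuu57 (Uu)

/-- 57's (2) -/
def ValUu : Prop := ∀ (U V R : Plk4) (t t' : Ln4) (z0 ρ r W a Λ κ : ℝ),
  Uu U V R t t' z0 ρ r W a Λ κ → ∀ z s : ℝ, z0 ≤ z → z ≤ z0 + ρ → 0 ≤ s →
  10 ^ 8 * KD * W ^ 2 * s ≤ 1 → |dt (V.e 1) (t.pos z - t'.pos z)| ≤ s * V.w 1 →
  |dt (V.e 2) (t.pos z - t'.pos z)| ≤ s * V.w 2 →
  |R.q z (t.pos z)| ≤ 10 ^ 5 * KD * W ^ 2 * (a + s * Λ)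

/-- 57's (3) -/
def A0Uu : Prop := ∀ (U V R : Plk4) (t t' : Ln4) (z0 ρ r W a Λ κ : ℝ),
  Uu U V R t t' z0 ρ r W a Λ κ → ∀ (H j : ℕ), j ≤ H → ∀ s : ℝ, 0 ≤ s →
  10 ^ 8 * KD * W ^ 2 * s ≤ 1 →
  |dt (V.e 1) (t.pos (zj z0 ρ H j) - t'.pos (zj z0 ρ H j))| ≤ s * V.w 1 →
  |dt (V.e 2) (t.pos (zj z0 ρ H j) - t'.pos (zj z0 ρ H j))| ≤ s * V.w 2 →
  |(jS U R.q z0 ρ H j t).a0| ≤ 10 ^ 6 * KD * W * U.w 0

set_option maxHeartbeats 1000000 in
/-- **57's configuration in a configuration** -/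
theorem uu_of_cf {C : ℝ} (hC : 10 ^ 30 * KD ^ 2 ≤ C) {qm qp : Fin 3 → ℝ} {L : ℕ → Ln4}
    {P : Finset ℕ} {cu cv : ℕ → ℕ} {Uf Vf : ℕ → Plk4}
    {W B M a w1 w2 z0 ρ zL ρL r κ E : ℝ} {H : ℕ}
    (hc : Cf qm qp L P cu cv Uf Vf W B M a w1 w2 z0 ρ zL ρL r κ E H) (hCκ : C * W ^ C * κ ≤ 1)
    (hCH : (C * B) ^ C ≤ H) {t t' : ℕ} (ht : t ∈ P) (ht' : t' ∈ P) (hcv : cv t' = cv t) :
    Uu (Uf (cu t)) (Vf (cv t)) (Uf (cu t')) (L t) (L t') z0 ρ r W a (2 * E * a) κ := by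
  have KD1 := KD_one
  have KDp := KD_pos
  have hC1 : 1 ≤ C := by nlinarith
  have h2 := hc.two.to1
  have hW1 := hc.W1
  have hW0 : 0 < W := by linarith
  have hB1 : 1 ≤ B := hW1.trans hc.WB
  have hE1 := hc.E1
  have hE0 : 0 < E := by linarith
  have ha0 := h2.a0
  have hs : 0 < E * a := mul_pos hE0 ha0
  have hr0 := h2.r0
  have hρ := h2.ρ0
  have shU := h2.shU t ht
  have shV := h2.shV t ht
  have shR := h2.shU t' ht'
  have inV' := h2.inV t' ht'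
  rw [hcv] at inV'
  have w0U : 0 < (Uf (cu t)).w 0 := hr0.trans_le (shU.r0_le.trans shU.a_le0)
  have w0V : 0 < (Vf (cv t)).w 0 := hr0.trans_le (shV.r0_le.trans shV.a_le0)
  have wU := (StP.of_shN shU w0U).pos
  have wV := (StP.of_shN shV w0V).pos
  have aU0 : 0 < (Uf (cu t)).a := hr0.trans_le shU.r0_le
  have aV0 : 0 < (Vf (cv t)).a := hr0.trans_le shV.r0_le
  obtain ⟨dU1, dU2, dU3⟩ := hc.dmU t ht
  obtain ⟨dV1, dV2, dV3⟩ := hc.dmV t ht
  obtain ⟨dR1, dR2, dR3⟩ := hc.dmU t' ht'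
  have kEU : E * a ≤ W * kapP (Uf (cu t)) z0 ρ (L t) := hc.kE t ht
  have kEV : E * a ≤ W * kapP (Vf (cv t)) z0 ρ (L t') := by
    have h := hc.kE' t' ht'
    rw [hcv] at h
    exact h
  -- κ is small
  have hκ : 10 ^ 4 * κ ≤ 1 := by
    have h1 : 1 ≤ W ^ C := Real.one_le_rpow hW1 (by linarith)
    have hκ0 := hc.κ0
    have h3 : 10 ^ 4 * κ ≤ C * W ^ C * κ := by
      refine mul_le_mul_of_nonneg_right ?_ hκ0.le
      nlinarith
    linarith
  -- E is large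
  have hKD2 : 1 ≤ KD ^ 2 := one_le_pow₀ KD1
  have hC8 : ((8 : ℕ) : ℝ) ≤ C := by push_cast; nlinarith
  have hEbig : 10 ^ 29 * KD ^ 2 * W ^ 8 ≤ E := by
    have h3 := pow_le_rpow' hC1 hB1 8 hC8
    have h4 : 10 ^ 30 * KD ^ 2 * B ^ 8 ≤ C * B ^ 8 := mul_le_mul_of_nonneg_right hC (by positivity)
    have h5 : 10 ^ 30 * KD ^ 2 * W ^ 8 ≤ 10 ^ 30 * KD ^ 2 * B ^ 8 :=
      mul_le_mul_of_nonneg_left (pow_le_pow_left₀ hW0.le hc.WB 8) (by positivity)
    have h6 := hc.HE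
    have h7 : 0 ≤ KD ^ 2 * W ^ 8 := by positivity
    linarith
  have big : ∀ (x k : ℝ), x ≤ W * a → E * a ≤ W * k → 10 ^ 29 * KD ^ 2 * W ^ 6 * x ≤ k := by
    intro x k hx hk
    have h3 : W * (10 ^ 29 * KD ^ 2 * W ^ 6 * x) ≤ W * k := by
      refine le_trans ?_ hk
      calc W * (10 ^ 29 * KD ^ 2 * W ^ 6 * x) = 10 ^ 29 * KD ^ 2 * W ^ 7 * x := by ring
        _ ≤ 10 ^ 29 * KD ^ 2 * W ^ 7 * (W * a) := mul_le_mul_of_nonneg_left hx (by positivity)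
        _ = 10 ^ 29 * KD ^ 2 * W ^ 8 * a := by ring
        _ ≤ E * a := mul_le_mul_of_nonneg_right hEbig ha0.le
    exact le_of_mul_le_mul_left h3 hW0
  have bU := big _ _ dU1.2 kEU
  have bV := big _ _ dV1.2 kEV
  have hW6 : 1 ≤ W ^ 6 := one_le_pow₀ hW1
  have hW36 : W ^ 3 ≤ W ^ 6 := pow_le_pow_right₀ hW1 (by norm_num)
  have hKDKD : KD ≤ KD ^ 2 := by nlinarith
  have kpV : kapP (Vf (cv t)) z0 ρ (L t') ≤ 13 * (Vf (cv t)).w 0 :=
    Hcp208.kapP_le hr0 hρ.le shV inV'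
  have kpVt : kapP (Vf (cv t)) z0 ρ (L t) ≤ 13 * (Vf (cv t)).w 0 :=
    Hcp208.kapP_le hr0 hρ.le shV (h2.inV t ht)
  have one6 : 1 ≤ KD ^ 2 * W ^ 6 := by nlinarith
  exact
    { r0 := hr0
      ρ0 := hρ
      W1 := hW1
      a0 := ha0
      hU := shU
      hV := shV
      hR := shR
      tU := h2.inU t ht
      tV := h2.inV t ht
      tV' := inV'
      tR := h2.inU t' ht'
      aU := dU1.2
      aU' := dU1.1
      aV := dV1.2
      aV' := dV1.1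
      aR := dR1.2
      w1 := by
        calc (Uf (cu t)).w 1 ≤ W * w1 := dU2.2
          _ ≤ W * (W * (Vf (cv t)).w 1) := mul_le_mul_of_nonneg_left dV2.1 hW0.le
          _ = _ := by ring
      w2 := by
        calc (Uf (cu t)).w 2 ≤ W * w2 := dU3.2
          _ ≤ W * (W * (Vf (cv t)).w 2) := mul_le_mul_of_nonneg_left dV3.1 hW0.le
          _ = _ := by ring
      tl := by
        have h3 : |dt ((Vf (cv t)).e 2) ((Uf (cu t)).e 1)| ≤ angC (Uf (cu t)) (Vf (cv t)) := by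
          rw [dt_comm]
          unfold Tl102.angC
          exact (le_max_right _ _).trans (le_max_left _ _)
        have h5 := hc.ang t ht
        have h6 : 0 ≤ angC (Uf (cu t)) (Vf (cv t)) := (abs_nonneg _).trans h3
        calc |dt ((Vf (cv t)).e 2) ((Uf (cu t)).e 1)| * (Uf (cu t)).w 1
            ≤ angC (Uf (cu t)) (Vf (cv t)) * (W * w1) := mul_le_mul h3 dU2.2 (wU 1).le h6
          _ = W * (angC (Uf (cu t)) (Vf (cv t)) * w1) := by ring
          _ ≤ W * (W * w2) := mul_le_mul_of_nonneg_left h5 hW0.le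
          _ ≤ W * (W * (W * (Vf (cv t)).w 2)) := by
              refine mul_le_mul_of_nonneg_left ?_ hW0.le
              exact mul_le_mul_of_nonneg_left dV3.1 hW0.le
          _ = _ := by ring
      c1 := (hc.up t ht).1
      c2 := by
        have h := (hc.up t' ht').2
        rw [hcv] at h
        exact h
      aΛ := by nlinarith
      ΛU := by linarith
      ΛV := by linarith
      kU := by
        have h3 : kapP (Uf (cu t)) z0 ρ (L t) ≤ W * kapP (Vf (cv t)) z0 ρ (L t) := hc.kUV t ht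
        refine h3.trans ?_
        calc W * kapP (Vf (cv t)) z0 ρ (L t) ≤ W * (13 * (Vf (cv t)).w 0) :=
              mul_le_mul_of_nonneg_left kpVt hW0.le
          _ = _ := by ring
      bU := by
        refine le_trans ?_ bU
        have : 0 ≤ KD ^ 2 * W ^ 6 * (Uf (cu t)).a := by positivity
        linarith
      bV := by
        refine le_trans ?_ bV
        have h3 : KD * W ^ 3 ≤ KD ^ 2 * W ^ 6 := mul_le_mul hKDKD hW36 (by positivity) (by positivity)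
        have h4 : KD * W ^ 3 * (Vf (cv t)).a ≤ KD ^ 2 * W ^ 6 * (Vf (cv t)).a :=
          mul_le_mul_of_nonneg_right h3 aV0.le
        have h5 : 0 ≤ KD ^ 2 * W ^ 6 * (Vf (cv t)).a := by positivity
        linarith
      bw := by
        have h3 : 10 ^ 29 * (Vf (cv t)).a ≤ 10 ^ 29 * KD ^ 2 * W ^ 6 * (Vf (cv t)).a := by
          have := mul_le_mul_of_nonneg_right one6 aV0.le
          linarith
        linarith
      κ0 := hc.κ0.le
      κ1 := hκ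
      tub := by
        have h := hc.tubV t ht t' ht' hcv.symm
        rw [hcv] at h
        exact h }

set_option maxHeartbeats 1000000 in
/-- **second conjunct of `LeafNd`** over 57's two facts -/
theorem lnd_uu_of (g2 : ValUu) (g3 : A0Uu) : ∃ C : ℝ, 1 ≤ C ∧ ∀ (qm qp : Fin 3 → ℝ)
    (L : ℕ → Ln4) (P : Finset ℕ) (cu cv : ℕ → ℕ) (Uf Vf : ℕ → Plk4)
    (W B M a w1 w2 z0 ρ zL ρL r κ E : ℝ) (H : ℕ),
    Cf qm qp L P cu cv Uf Vf W B M a w1 w2 z0 ρ zL ρL r κ E H → C * W ^ C * κ ≤ 1 →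
    (C * B) ^ C ≤ H → ∀ l m : ℝ, 0 < l → l ≤ 1 → 0 < m → m ≤ 1 →
    ∀ (c c1 : ℕ) (T : Finset ((ℤ × ℤ) × ℕ)), (∀ y ∈ T, ∃ t ∈ P, ∃ t' ∈ P, y.2 < H ∧ cu t = c ∧
      cu t' = c1 ∧ cv t' = cv t ∧
      lbl Vf L w1 w2 z0 ρ H (cv t) t' y.2 = lbl Vf L w1 w2 z0 ρ H (cv t) t y.2 ∧
      lbl Uf L w1 w2 z0 ρ H c t y.2 = y.1 ∧
      Nd (Uf (cu t)) (Uf (cu t')).q z0 ρ H y.2 (L t) l m (E * a)) →
      (T.card : ℝ) ≤ (C * B / (l * m)) ^ C * (1 + Real.log H) * (H : ℝ) ^ 2 := by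
  have KD1 := KD_one
  have KDp := KD_pos
  set K : ℝ := 2 * 10 ^ 60 * KD ^ 7 with hKdef
  have hKD7 : 1 ≤ KD ^ 7 := one_le_pow₀ KD1
  have hKD17 : KD ≤ KD ^ 7 := le_self_pow₀ KD1 (by norm_num)
  have hKbig : 2 * 10 ^ 60 * KD ≤ K := by
    rw [hKdef]
    exact mul_le_mul_of_nonneg_left hKD17 (by norm_num)
  have hK1 : 1 ≤ K := by nlinarith
  obtain ⟨C0, hC0, main⟩ := nd_core K 15 hK1
  set C : ℝ := C0 + 10 ^ 30 * KD ^ 2 with hCdef
  have hp : 0 ≤ 10 ^ 30 * KD ^ 2 := by positivity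
  have hC1 : 1 ≤ C := by linarith
  have hCC : C0 ≤ C := by linarith
  refine ⟨C, hC1, ?_⟩
  intro qm qp L P cu cv Uf Vf W B M a w1 w2 z0 ρ zL ρL r κ E H hc hCκ hCH l m hl hl1 hm hm1 c c1
    T hT
  have h2 := hc.two.to1
  have hW1 := hc.W1
  have hW0 : 0 < W := by linarith
  have hB1 : 1 ≤ B := hW1.trans hc.WB
  have hB0 : 0 < B := by linarith
  have hE1 := hc.E1
  have hE0 : 0 < E := by linarith
  have ha0 := h2.a0
  have hs : 0 < E * a := mul_pos hE0 ha0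
  have hH0 : (0 : ℝ) < H := by have := hc.EH; linarith
  have hH : 0 < H := by exact_mod_cast hH0
  have hlog : 0 ≤ 1 + Real.log H := by
    have : 0 ≤ Real.log H := Real.log_nonneg (by have := hc.EH; linarith)
    linarith
  have hlm : 0 < l * m := mul_pos hl hm
  have hlm1 : l * m ≤ 1 := mul_le_one₀ hl1 hm.le hm1
  rcases T.eq_empty_or_nonempty with hTe | ⟨y0, hy0⟩
  · rw [hTe, Finset.card_empty]
    have : 0 ≤ (C * B / (l * m)) ^ C := Real.rpow_nonneg (by positivity) _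
    push_cast
    positivity
  -- the constants of `nd_core`
  have hWC : W ^ C0 ≤ W ^ C := Real.rpow_le_rpow_of_exponent_le hW1 hCC
  have hκ' : C0 * W ^ C0 * κ ≤ 1 := by
    refine le_trans (mul_le_mul_of_nonneg_right ?_ hc.κ0.le) hCκ
    exact mul_le_mul hCC hWC (by positivity) (by linarith)
  have hH' : (C0 * B) ^ C0 ≤ H := by
    refine le_trans ?_ hCH
    calc (C0 * B) ^ C0 ≤ (C * B) ^ C0 :=
          Real.rpow_le_rpow (by positivity) (mul_le_mul_of_nonneg_right hCC hB0.le) (by linarith)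
      _ ≤ (C * B) ^ C := Real.rpow_le_rpow_of_exponent_le (by nlinarith) hCC
  have hfin : (C0 * B / (l * m)) ^ C0 ≤ (C * B / (l * m)) ^ C := by
    calc (C0 * B / (l * m)) ^ C0 ≤ (C * B / (l * m)) ^ C0 := by
          refine Real.rpow_le_rpow (by positivity) ?_ (by linarith)
          exact div_le_div_of_nonneg_right (mul_le_mul_of_nonneg_right hCC hB0.le) hlm.le
      _ ≤ (C * B / (l * m)) ^ C := by
          refine Real.rpow_le_rpow_of_exponent_le ?_ hCC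
          rw [le_div_iff₀ hlm]; nlinarith
  have hCuu : 10 ^ 30 * KD ^ 2 ≤ C := by linarith
  -- `s = W / H` is small
  have hEbig : 10 ^ 29 * KD ^ 2 * W ^ 8 ≤ E := by
    have h3 := pow_le_rpow' hC1 hB1 8 (by push_cast; nlinarith)
    have h4 : 10 ^ 30 * KD ^ 2 * B ^ 8 ≤ C * B ^ 8 := mul_le_mul_of_nonneg_right hCuu (by positivity)
    have h5 : 10 ^ 30 * KD ^ 2 * W ^ 8 ≤ 10 ^ 30 * KD ^ 2 * B ^ 8 :=
      mul_le_mul_of_nonneg_left (pow_le_pow_left₀ hW0.le hc.WB 8) (by positivity)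
    have h6 := hc.HE
    have h7 : 0 ≤ KD ^ 2 * W ^ 8 := by positivity
    linarith
  have hss : 10 ^ 8 * KD * W ^ 2 * (W / H) ≤ 1 := by
    have h3 : 10 ^ 8 * KD * W ^ 2 * (W / H) = 10 ^ 8 * KD * W ^ 3 / H := by ring
    rw [h3, div_le_one hH0]
    have h4 : KD * W ^ 3 ≤ KD ^ 2 * W ^ 8 :=
      mul_le_mul (by nlinarith) (pow_le_pow_right₀ hW1 (by norm_num)) (by positivity)
        (by positivity)
    have h5 := hc.EH
    have h6 : 0 ≤ KD ^ 2 * W ^ 8 := by positivity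
    linarith
  -- same label in `V`
  have near : ∀ t ∈ P, ∀ t' ∈ P, cv t' = cv t → ∀ j < H,
      lbl Vf L w1 w2 z0 ρ H (cv t) t' j = lbl Vf L w1 w2 z0 ρ H (cv t) t j →
      |dt ((Vf (cv t)).e 1) ((L t).pos (zj z0 ρ H j) - (L t').pos (zj z0 ρ H j))| ≤
        W / H * (Vf (cv t)).w 1 ∧
      |dt ((Vf (cv t)).e 2) ((L t).pos (zj z0 ρ H j) - (L t').pos (zj z0 ρ H j))| ≤
        W / H * (Vf (cv t)).w 2 := by
    intro t ht t' ht' hcv j hj hlb
    obtain ⟨e1, e2⟩ := gb_close (e := (Vf (cv t)).e) (c := (Vf (cv t)).c) h2.w10 h2.w20 hH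
      (t := L t) (t' := L t') (j := j) hlb.symm
    obtain ⟨-, dV2, dV3⟩ := hc.dmV t ht
    refine ⟨e1.le.trans ?_, e2.le.trans ?_⟩
    · rw [div_mul_eq_mul_div]
      exact div_le_div_of_nonneg_right dV2.1 hH0.le
    · rw [div_mul_eq_mul_div]
      exact div_le_div_of_nonneg_right dV3.1 hH0.le
  obtain ⟨t0, ht0, t0', ht0', hj0, hcu0, hcu0', hcv0, hlV0, -, -⟩ := hT y0 hy0
  subst hcu0
  subst hcu0'
  have uu0 := uu_of_cf hCuu hc hCκ hCH ht0 ht0' hcv0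
  refine (main qm qp L P cu cv Uf Vf W B M a w1 w2 z0 ρ zL ρL r κ E H hc hκ' hH' l m hl hl1 hm hm1
    t0 ht0 (Uf (cu t0')).q uu0.hR.isQ ?_ ⟨y0.2, hj0.le, ?_⟩ T ?_).trans ?_
  · have h3 := Cuu57.close_uu uu0
    have e1 : 10 ^ 60 * KD ^ 7 * W ^ 15 * (2 * E * a) = K * W ^ 15 * (E * a) := by
      rw [hKdef]; ring
    rw [e1] at h3
    exact h3
  · obtain ⟨n1, n2⟩ := near t0 ht0 t0' ht0' hcv0 y0.2 hj0 hlV0
    have h3 := g3 _ _ _ _ _ _ _ _ _ _ _ _ uu0 H y0.2 hj0.le (W / H) (by positivity) hss n1 n2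
    refine h3.trans ?_
    have hw : 0 < (Uf (cu t0)).w 0 := h2.r0.trans_le (uu0.hU.r0_le.trans uu0.hU.a_le0)
    refine mul_le_mul_of_nonneg_right ?_ hw.le
    have h15 : W ≤ W ^ 15 := le_self_pow₀ hW1 (by norm_num)
    have h16 : 10 ^ 6 * KD ≤ K := by linarith
    exact mul_le_mul h16 h15 hW0.le (by linarith)
  · intro b hb
    obtain ⟨t, ht, t', ht', hj, hcu, hcu', hcv, hlV, hlU, hnd⟩ := hT b hb
    have uu := uu_of_cf hCuu hc hCκ hCH ht ht' hcv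
    refine ⟨hj, t, ht, hcu, hlU, ?_, ?_⟩
    · obtain ⟨n1, n2⟩ := near t ht t' ht' hcv b.2 hj hlV
      obtain ⟨hz, hz'⟩ := zj_mem (z0 := z0) h2.ρ0.le hj.le
      have h3 := g2 _ _ _ _ _ _ _ _ _ _ _ _ uu (zj z0 ρ H b.2) (W / H) hz hz' (by positivity) hss
        n1 n2
      rw [hcu'] at h3
      refine h3.trans ?_
      have h4 : W / H * (2 * E * a) ≤ 2 * W * a := by
        rw [div_mul_eq_mul_div, div_le_iff₀ hH0]
        have := mul_le_mul_of_nonneg_left hc.EH (by positivity : 0 ≤ 2 * W * a)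
        linarith
      have h5 : a + W / H * (2 * E * a) ≤ 3 * W * a := by nlinarith
      calc 10 ^ 5 * KD * W ^ 2 * (a + W / H * (2 * E * a))
          ≤ 10 ^ 5 * KD * W ^ 2 * (3 * W * a) := mul_le_mul_of_nonneg_left h5 (by positivity)
        _ = 3 * 10 ^ 5 * KD * W ^ 3 * a := by ring
        _ ≤ K * W ^ 15 * a := by
            refine mul_le_mul_of_nonneg_right ?_ ha0.le
            refine mul_le_mul ?_ (pow_le_pow_right₀ hW1 (by norm_num)) (by positivity)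
              (by linarith)
            linarith
    · rw [hcu, hcu'] at hnd
      exact hnd
  · refine mul_le_mul_of_nonneg_right (mul_le_mul_of_nonneg_right hfin hlog) (by positivity)

/-- a larger constant -/
theorem up_C {C0 C W B κ l m : ℝ} {H : ℕ} (hC0 : 1 ≤ C0) (hCC : C0 ≤ C) (hW1 : 1 ≤ W)
    (hB1 : 1 ≤ B) (hκ : 0 < κ) (hl : 0 < l) (hl1 : l ≤ 1) (hm : 0 < m) (hm1 : m ≤ 1)
    (hCκ : C * W ^ C * κ ≤ 1) (hCH : (C * B) ^ C ≤ H) (hH : 1 ≤ H) :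
    C0 * W ^ C0 * κ ≤ 1 ∧ (C0 * B) ^ C0 ≤ H ∧
      (C0 * B / (l * m)) ^ C0 * (1 + Real.log H) * (H : ℝ) ^ 2 ≤
        (C * B / (l * m)) ^ C * (1 + Real.log H) * (H : ℝ) ^ 2 := by
  have hB0 : 0 < B := by linarith
  have hlm : 0 < l * m := mul_pos hl hm
  have hlm1 : l * m ≤ 1 := mul_le_one₀ hl1 hm.le hm1
  have hWC : W ^ C0 ≤ W ^ C := Real.rpow_le_rpow_of_exponent_le hW1 hCC
  have hlog : 0 ≤ 1 + Real.log H := by
    have : 0 ≤ Real.log H := Real.log_nonneg (by exact_mod_cast hH)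
    linarith
  refine ⟨?_, ?_, ?_⟩
  · refine le_trans (mul_le_mul_of_nonneg_right ?_ hκ.le) hCκ
    exact mul_le_mul hCC hWC (by positivity) (by linarith)
  · refine le_trans ?_ hCH
    calc (C0 * B) ^ C0 ≤ (C * B) ^ C0 :=
          Real.rpow_le_rpow (by positivity) (mul_le_mul_of_nonneg_right hCC hB0.le) (by linarith)
      _ ≤ (C * B) ^ C := Real.rpow_le_rpow_of_exponent_le (by nlinarith) hCC
  · refine mul_le_mul_of_nonneg_right (mul_le_mul_of_nonneg_right ?_ hlog) (by positivity)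
    calc (C0 * B / (l * m)) ^ C0 ≤ (C * B / (l * m)) ^ C0 := by
          refine Real.rpow_le_rpow (by positivity) ?_ (by linarith)
          exact div_le_div_of_nonneg_right (mul_le_mul_of_nonneg_right hCC hB0.le) hlm.le
      _ ≤ (C * B / (l * m)) ^ C := by
          refine Real.rpow_le_rpow_of_exponent_le ?_ hCC
          rw [le_div_iff₀ hlm]; nlinarith

/-- **`LeafNd`** over 57's two facts -/
theorem leafNd_of (g2 : ValUu) (g3 : A0Uu) : Al500.LeafNd := by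
  obtain ⟨C1, hC1, m1⟩ := lnd_uv
  obtain ⟨C2, hC2, m2⟩ := lnd_uu_of g2 g3
  refine ⟨C1 + C2, by linarith, ?_⟩
  intro qm qp L P cu cv Uf Vf W B M a w1 w2 z0 ρ zL ρL r κ E H hc hCκ hCH l m hl hl1 hm hm1
  have hW1 := hc.W1
  have hB1 : 1 ≤ B := hW1.trans hc.WB
  have hH : 1 ≤ H := by
    have h1 : (1 : ℝ) ≤ H := by have := hc.E1; have := hc.EH; linarith
    exact_mod_cast h1
  obtain ⟨a1, a2, a3⟩ := up_C (H := H) hC1 (by linarith : C1 ≤ C1 + C2) hW1 hB1 hc.κ0 hl hl1 hm hm1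
    hCκ hCH hH
  obtain ⟨b1, b2, b3⟩ := up_C (H := H) hC2 (by linarith : C2 ≤ C1 + C2) hW1 hB1 hc.κ0 hl hl1 hm hm1
    hCκ hCH hH
  refine ⟨fun c c' T hT => ?_, fun c c1 T hT => ?_⟩
  · exact (m1 qm qp L P cu cv Uf Vf W B M a w1 w2 z0 ρ zL ρL r κ E H hc a1 a2 l m hl hl1 hm hm1
      c c' T hT).trans a3
  · exact (m2 qm qp L P cu cv Uf Vf W B M a w1 w2 z0 ρ zL ρL r κ E H hc b1 b2 l m hl hl1 hm hm1
      c c1 T hT).trans b3

end Crest.Agent.R136.Adp876
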