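import Crest.Agent.R136.Ndg_876
import Crest.Agent.R136.AlK_500
import Crest.Agent.R136.Sln_296

/-!
# R136 (U4, PLAN 2 (AL), leaf (D)): nondegenerate boxes in a configuration (helper876)

* `nd_core` : `nd_geo` over a configuration `Cf`, for any function `q'` close to the sheet;
* `lnd_uv`  : the first conjunct of `Al500.LeafNd` (pairs `U t, V t`).
-/

set_option autoImplicit false
set_option linter.unusedVariables false

namespace Crest.Agent.R136.Adp876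

open Crest.Agent.R136.Sh605
open Crest.Agent.R136.K4 (Plk4)
open Crest.Agent.R136.Tlt51 (Shp InP)
open Crest.Agent.R136.Deep51 (CloseC)
open Crest.Agent.R136.KapP335 (kapP)
open Crest.Agent.R136.Tl102 (StP)
open Crest.Agent.R136.Pl2W102 (Near)
open Crest.Agent.R136.Pl2 (kp)
open Crest.Agent.R136.Rf877 (Tub)
open Crest.Agent.R136.Alw500 (lbl)
open Crest.Agent.R136.Gbx862 (zj gb zj_mem)
open Crest.Agent.R136.AlD601 (Nd jS jt jt_jet)
open Crest.Agent.R136.Al500 (Cf)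

/-- change of the scale -/
theorem nd_scale {S : Plk4} {q' : ℝ → V3 → ℝ} {z0 ρ : ℝ} {H j : ℕ} {T : Ln4} {l m s k : ℝ}
    (hk : 0 < k) (h : Nd S q' z0 ρ H j T l m s) :
    Nd S q' z0 ρ H j T (l / k) (m / k ^ 2) (k * s) := by
  have e1 : l / k * (k * s) = l * s := by field_simp
  have e2 : m / k ^ 2 * (k * s) ^ 2 = m * s ^ 2 := by field_simp
  unfold Nd at h ⊢
  rw [e1, e2]
  exact h

/-- `C x^n ≤ (C x)^C` -/
theorem pow_le_rpow' {C x : ℝ} (hC : 1 ≤ C) (hx : 1 ≤ x) (n : ℕ) (hn : (n : ℝ) ≤ C) :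
    C * x ^ n ≤ (C * x) ^ C := by
  have hC0 : 0 ≤ C := by linarith
  have hx0 : 0 ≤ x := by linarith
  rw [Real.mul_rpow hC0 hx0]
  have h1 : C ≤ C ^ C := by
    conv_lhs => rw [← Real.rpow_one C]
    exact Real.rpow_le_rpow_of_exponent_le hC hC
  have h2 : x ^ n ≤ x ^ C := by
    rw [← Real.rpow_natCast x n]
    exact Real.rpow_le_rpow_of_exponent_le hx hn
  exact mul_le_mul h1 h2 (by positivity) (by positivity)

/-- the final numeral -/
theorem fin_core {C0 K W B l m : ℝ} {n : ℕ} {C : ℝ} (hC0 : 1 ≤ C0) (hK : 1 ≤ K) (hW : 1 ≤ W)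
    (hWB : W ≤ B) (hl : 0 < l) (hl1 : l ≤ 1) (hm : 0 < m) (hm1 : m ≤ 1)
    (hC1 : 2 * K ^ 4 * C0 ≤ C) (hC2 : (4 * n + 1) * C0 ≤ C) :
    (C0 * (2 * K * W ^ (n + 1)) / (l / (K * W ^ n) * (m / (K * W ^ n) ^ 2))) ^ C0 ≤
      (C * B / (l * m)) ^ C := by
  have hW0 : 0 < W := by linarith
  have hK0 : 0 < K := by linarith
  have hB : 1 ≤ B := hW.trans hWB
  have hB0 : 0 < B := by linarith
  have hlm : 0 < l * m := mul_pos hl hm
  have hlm1 : l * m ≤ 1 := mul_le_one₀ hl1 hm.le hm1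
  have e1 : C0 * (2 * K * W ^ (n + 1)) / (l / (K * W ^ n) * (m / (K * W ^ n) ^ 2)) =
      2 * K ^ 4 * C0 * W ^ (4 * n + 1) / (l * m) := by
    field_simp
    ring
  have hK4 : 1 ≤ K ^ 4 := one_le_pow₀ hK
  have hCC0 : C0 ≤ 2 * K ^ 4 * C0 := by
    nlinarith
  have hC : 1 ≤ C := by linarith
  have hx : 1 ≤ C * B / (l * m) := by
    rw [le_div_iff₀ hlm]
    nlinarith
  have e2 : 2 * K ^ 4 * C0 * W ^ (4 * n + 1) / (l * m) ≤ (C * B / (l * m)) ^ (4 * n + 1) := by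
    have h1 : W ^ (4 * n + 1) ≤ B ^ (4 * n + 1) := pow_le_pow_left₀ hW0.le hWB _
    have h2 : C ≤ C ^ (4 * n + 1) := le_self_pow₀ hC (by omega)
    have h3 : 1 / (l * m) ≤ (1 / (l * m)) ^ (4 * n + 1) :=
      le_self_pow₀ (by rw [le_div_iff₀ hlm]; linarith) (by omega)
    calc 2 * K ^ 4 * C0 * W ^ (4 * n + 1) / (l * m)
        = 2 * K ^ 4 * C0 * W ^ (4 * n + 1) * (1 / (l * m)) := by ring
      _ ≤ C ^ (4 * n + 1) * B ^ (4 * n + 1) * (1 / (l * m)) ^ (4 * n + 1) := by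
          refine mul_le_mul (mul_le_mul (hC1.trans h2) h1 (by positivity) (by positivity)) h3
            (by positivity) (by positivity)
      _ = (C * B / (l * m)) ^ (4 * n + 1) := by
          rw [← mul_pow, ← mul_pow]; congr 1; ring
  rw [e1]
  calc (2 * K ^ 4 * C0 * W ^ (4 * n + 1) / (l * m)) ^ C0
      ≤ ((C * B / (l * m)) ^ (4 * n + 1)) ^ C0 :=
        Real.rpow_le_rpow (by positivity) e2 (by linarith)
    _ = (C * B / (l * m)) ^ ((4 * n + 1 : ℝ) * C0) := by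
        rw [← Real.rpow_natCast, ← Real.rpow_mul (by linarith)]
        push_cast
        rfl
    _ ≤ (C * B / (l * m)) ^ C := Real.rpow_le_rpow_of_exponent_le hx hC2

set_option maxHeartbeats 1000000 in
/-- **`nd_geo` over a configuration** : `t0 ∈ P`, `q'` close to `U t0` at `L t0` at the size
`K Wⁿ E a`, slope `≤ K Wⁿ w₀` at one height, `|q'| ≤ K Wⁿ a` at the counted points -/
theorem nd_core (K : ℝ) (n : ℕ) (hK : 1 ≤ K) : ∃ C : ℝ, 1 ≤ C ∧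
    ∀ (qm qp : Fin 3 → ℝ) (L : ℕ → Ln4) (P : Finset ℕ) (cu cv : ℕ → ℕ) (Uf Vf : ℕ → Plk4)
      (W B M a w1 w2 z0 ρ zL ρL r κ E : ℝ) (H : ℕ),
      Cf qm qp L P cu cv Uf Vf W B M a w1 w2 z0 ρ zL ρL r κ E H → C * W ^ C * κ ≤ 1 →
      (C * B) ^ C ≤ H → ∀ l m : ℝ, 0 < l → l ≤ 1 → 0 < m → m ≤ 1 →
      ∀ t0 ∈ P, ∀ q' : ℝ → V3 → ℝ, IsQ q' →
      CloseC (Uf (cu t0)).e (Uf (cu t0)).w (Uf (cu t0)).q (Uf (cu t0)).a q' (K * W ^ n * (E * a))
        (L t0) z0 ρ →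
      (∃ j1, j1 ≤ H ∧
        |(jS (Uf (cu t0)) q' z0 ρ H j1 (L t0)).a0| ≤ K * W ^ n * (Uf (cu t0)).w 0) →
      ∀ T : Finset ((ℤ × ℤ) × ℕ), (∀ b ∈ T, b.2 < H ∧ ∃ t ∈ P, cu t = cu t0 ∧
        lbl Uf L w1 w2 z0 ρ H (cu t0) t b.2 = b.1 ∧
        |q' (zj z0 ρ H b.2) ((L t).pos (zj z0 ρ H b.2))| ≤ K * W ^ n * a ∧
        Nd (Uf (cu t0)) q' z0 ρ H b.2 (L t) l m (E * a)) →
      (T.card : ℝ) ≤ (C * B / (l * m)) ^ C * (1 + Real.log H) * (H : ℝ) ^ 2 := by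
  obtain ⟨C0, hC0, main⟩ := nd_geo
  have hK4 : 1 ≤ K ^ 4 := one_le_pow₀ hK
  set C : ℝ := 2 * 10 ^ 6 + 2 * K ^ 4 * C0 + (4 * n + 1) * C0 with hCdef
  have hn0 : (0:ℝ) ≤ n := Nat.cast_nonneg n
  have p1 : 0 ≤ 2 * K ^ 4 * C0 := by positivity
  have p2 : 0 ≤ (4 * n + 1) * C0 := by positivity
  have hC6 : 2 * 10 ^ 6 ≤ C := by linarith
  have hC1 : 1 ≤ C := by linarith
  refine ⟨C, hC1, ?_⟩
  intro qm qp L P cu cv Uf Vf W B M a w1 w2 z0 ρ zL ρL r κ E H hc hCκ hCH l m hl hl1 hm hm1 t0 ht0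
    q' hq' hcl ha0' T hT
  have h2 := hc.two.to1
  have hW1 := hc.W1
  have hW0 : 0 < W := by linarith
  have hB1 : 1 ≤ B := hW1.trans hc.WB
  have hE0 : 0 < E := by have := hc.E1; linarith
  have ha0 := h2.a0
  have hs : 0 < E * a := mul_pos hE0 ha0
  have hH0 : (0 : ℝ) < H := by have := hc.E1; have := hc.EH; linarith
  have hH : 1 ≤ H := by
    have : 0 < H := by exact_mod_cast hH0
    exact this
  have hr0 := h2.r0
  have hρ := h2.ρ0
  have shU := h2.shU t0 ht0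
  have inU := h2.inU t0 ht0
  set S := Uf (cu t0) with hS
  have haS : 0 < S.a := hr0.trans_le shU.r0_le
  have hw0 : 0 < S.w 0 := hr0.trans_le (shU.r0_le.trans shU.a_le0)
  have hwp : ∀ k, 0 < S.w k := (StP.of_shN shU hw0).pos
  obtain ⟨dU1, dU2, dU3⟩ := hc.dmU t0 ht0
  have hKW : 1 ≤ K * W ^ n := by
    have : 1 ≤ W ^ n := one_le_pow₀ hW1
    nlinarith
  have hKW0 : 0 < K * W ^ n := by linarith
  set Q : ℝ := 2 * K * W ^ (n + 1) with hQ
  have hQe : Q = 2 * W * (K * W ^ n) := by rw [hQ, pow_succ]; ring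
  have hQW : W ≤ Q := by
    rw [hQe]; nlinarith
  have hQ2 : 2 * W ≤ Q := by
    rw [hQe]; nlinarith
  have hQ1 : 1 ≤ Q := hW1.trans hQW
  have hQK : K * W ^ n ≤ Q := by rw [hQe]; nlinarith
  -- κ is small
  have hκ : κ ≤ 1 / 8192 := by
    have h1 : 1 ≤ W ^ C := Real.one_le_rpow hW1 (by linarith)
    have hκ0 := hc.κ0
    have h3 : 2 * 10 ^ 6 * κ ≤ C * W ^ C * κ := by
      refine mul_le_mul_of_nonneg_right ?_ hκ0.le
      nlinarith
    linarith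
  -- the sheet is curved
  have hkE : E * a ≤ W * kapP S z0 ρ (L t0) := hc.kE t0 ht0
  have hHbig : 2 * 10 ^ 6 * B ^ 2 ≤ H := by
    have h3 := pow_le_rpow' hC1 hB1 2 (by push_cast; linarith)
    have h4 : 2 * 10 ^ 6 * B ^ 2 ≤ C * B ^ 2 := mul_le_mul_of_nonneg_right hC6 (by positivity)
    exact (h4.trans h3).trans hCH
  have hcurv : 10 ^ 6 * S.a ≤ kapP S z0 ρ (L t0) := by
    have h3 : S.a ≤ W * a := dU1.2
    have h4 : (H : ℝ) ≤ 2 * E := hc.HE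
    have h5 : 10 ^ 6 * W ^ 2 ≤ E := by
      have : W ^ 2 ≤ B ^ 2 := pow_le_pow_left₀ hW0.le hc.WB 2
      nlinarith
    have h6 : W * (10 ^ 6 * (W * a)) ≤ W * kapP S z0 ρ (L t0) := by
      refine le_trans ?_ hkE
      calc W * (10 ^ 6 * (W * a)) = 10 ^ 6 * W ^ 2 * a := by ring
        _ ≤ E * a := mul_le_mul_of_nonneg_right h5 ha0.le
    have h7 := le_of_mul_le_mul_left h6 hW0
    nlinarith
  have hTub : ∀ t ∈ P, cu t = cu t0 → Tub S (1 / 8192) (L t) (L t0) z0 ρ := by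
    intro t ht hct z hz hz'
    obtain ⟨a1, a2, a3⟩ := hc.tubU t ht t0 ht0 hct z hz hz'
    have w1' := (hwp 1)
    have w2' := (hwp 2)
    refine ⟨a1.trans (mul_le_mul_of_nonneg_right hκ w1'.le),
      a2.trans (mul_le_mul_of_nonneg_right hκ w2'.le), a3.trans ?_⟩
    have := mul_le_mul_of_nonneg_right hκ hw0.le
    linarith
  have key := main S q' z0 ρ r (K * W ^ n * (E * a)) w1 w2 Q (l / (K * W ^ n))
    (m / (K * W ^ n) ^ 2) H (L t0) T hr0 hρ shU inU hcurv hq' (by positivity) hcl hQ1 hH h2.w10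
    h2.w20 ?_ ?_ ?_ ?_ ?_ (by positivity) ?_ (by positivity) ?_ ?_
  · refine key.trans ?_
    have hlog : 0 ≤ 1 + Real.log H := by
      have : 0 ≤ Real.log H := Real.log_nonneg (by exact_mod_cast hH)
      linarith
    refine mul_le_mul_of_nonneg_right (mul_le_mul_of_nonneg_right ?_ hlog) (by positivity)
    exact fin_core hC0 hK hW1 hc.WB hl hl1 hm hm1 (by linarith) (by linarith)
  · exact ⟨dU2.2.trans (mul_le_mul_of_nonneg_right hQW h2.w10.le),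
      dU2.1.trans (mul_le_mul_of_nonneg_right hQW (hwp 1).le)⟩
  · exact ⟨dU3.2.trans (mul_le_mul_of_nonneg_right hQW h2.w20.le),
      dU3.1.trans (mul_le_mul_of_nonneg_right hQW (hwp 2).le)⟩
  · have h3 : S.a ≤ W * a := dU1.2
    have h4 : (H : ℝ) ≤ 2 * E := hc.HE
    calc (H : ℝ) * S.a ≤ 2 * E * (W * a) := mul_le_mul h4 h3 haS.le (by positivity)
      _ = 2 * W * (E * a) := by ring
      _ ≤ Q * (K * W ^ n * (E * a)) := by
          refine mul_le_mul hQ2 ?_ hs.le (by linarith)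
          exact le_mul_of_one_le_left hs.le hKW
  · have hkp0 : 0 ≤ kapP S z0 ρ (L t0) := le_trans (by positivity) hcurv
    calc K * W ^ n * (E * a) ≤ K * W ^ n * (W * kapP S z0 ρ (L t0)) :=
          mul_le_mul_of_nonneg_left hkE hKW0.le
      _ = W * (K * W ^ n) * kapP S z0 ρ (L t0) := by ring
      _ ≤ Q * kapP S z0 ρ (L t0) := by
          refine mul_le_mul_of_nonneg_right ?_ hkp0
          rw [hQe]; nlinarith
  · obtain ⟨j1, hj1, h3⟩ := ha0'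
    exact ⟨L t0, j1, hj1, inU, hTub t0 ht0 rfl,
      h3.trans (mul_le_mul_of_nonneg_right hQK hw0.le)⟩
  · rw [div_le_one hKW0]; linarith
  · rw [div_le_one (by positivity)]
    have : 1 ≤ (K * W ^ n) ^ 2 := one_le_pow₀ hKW
    linarith
  · intro b hb
    obtain ⟨hbH, t, ht, hct, hlb, hval, hnd⟩ := hT b hb
    refine ⟨hbH, L t, ?_, hTub t ht hct, hlb, ?_, nd_scale hKW0 hnd⟩
    · have := h2.inU t ht
      rw [hct] at this
      exact this
    · have h4 : (H : ℝ) ≤ 2 * E := hc.HE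
      calc (H : ℝ) * |q' (zj z0 ρ H b.2) ((L t).pos (zj z0 ρ H b.2))|
          ≤ 2 * E * (K * W ^ n * a) := mul_le_mul h4 hval (abs_nonneg _) (by positivity)
        _ = 2 * (K * W ^ n * (E * a)) := by ring
        _ ≤ Q * (K * W ^ n * (E * a)) := by
            refine mul_le_mul_of_nonneg_right ?_ (by positivity)
            linarith

/-- the slope of a second sheet through the line -/
theorem slope_le {S S' : Plk4} {z0 ρ r : ℝ} {H j : ℕ} {T : Ln4} (hr : 0 < r) (hρ : 0 < ρ)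
    (hS : Shp S z0 ρ r) (hS' : Shp S' z0 ρ r) (hT : InP T S' z0 ρ) (hj : j ≤ H) :
    |(jS S S'.q z0 ρ H j T).a0| ≤ 4 * S.w 0 := by
  have w0 : 0 < S.w 0 := hr.trans_le (hS.r0_le.trans hS.a_le0)
  have w0' : 0 < S'.w 0 := hr.trans_le (hS'.r0_le.trans hS'.a_le0)
  have P := StP.of_shN hS w0
  have P' := StP.of_shN hS' w0'
  obtain ⟨hz, hz'⟩ := zj_mem hρ.le hj
  have hX := (hT _ hz hz').1
  have h := Wdg296.jet_other P.ortho P.pos P' hz hz' hX hS'.w0_le hS'.w_le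
    (jt_jet hS'.isQ (Tl102.fr S.e S.w) S.c.v (zj z0 ρ H j) (T.pos (zj z0 ρ H j)) ρ).1
  have h2 := h.2.1
  rw [div_le_iff₀ w0] at h2
  exact h2

set_option maxHeartbeats 1000000 in
/-- **first conjunct of `LeafNd`** : the pairs `U t, V t` -/
theorem lnd_uv : ∃ C : ℝ, 1 ≤ C ∧ ∀ (qm qp : Fin 3 → ℝ)
    (L : ℕ → Ln4) (P : Finset ℕ) (cu cv : ℕ → ℕ) (Uf Vf : ℕ → Plk4)
    (W B M a w1 w2 z0 ρ zL ρL r κ E : ℝ) (H : ℕ),
    Cf qm qp L P cu cv Uf Vf W B M a w1 w2 z0 ρ zL ρL r κ E H → C * W ^ C * κ ≤ 1 →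
    (C * B) ^ C ≤ H → ∀ l m : ℝ, 0 < l → l ≤ 1 → 0 < m → m ≤ 1 →
    ∀ (c c' : ℕ) (T : Finset ((ℤ × ℤ) × ℕ)), (∀ y ∈ T, ∃ t ∈ P, y.2 < H ∧ cu t = c ∧ cv t = c' ∧
      lbl Uf L w1 w2 z0 ρ H c t y.2 = y.1 ∧
      Nd (Uf (cu t)) (Vf (cv t)).q z0 ρ H y.2 (L t) l m (E * a)) →
      (T.card : ℝ) ≤ (C * B / (l * m)) ^ C * (1 + Real.log H) * (H : ℝ) ^ 2 := by
  obtain ⟨C, hC, main⟩ := nd_core 4 1 (by norm_num)
  refine ⟨C, hC, ?_⟩
  intro qm qp L P cu cv Uf Vf W B M a w1 w2 z0 ρ zL ρL r κ E H hc hCκ hCH l m hl hl1 hm hm1 c c'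
    T hT
  have h2 := hc.two.to1
  have hW1 := hc.W1
  have hB1 : 1 ≤ B := hW1.trans hc.WB
  have hE0 : 0 < E := by have := hc.E1; linarith
  have ha0 := h2.a0
  have hs : 0 < E * a := mul_pos hE0 ha0
  have hH0 : (0 : ℝ) < H := by have := hc.E1; have := hc.EH; linarith
  rcases T.eq_empty_or_nonempty with hTe | ⟨y0, hy0⟩
  · rw [hTe, Finset.card_empty]
    have hlog : 0 ≤ 1 + Real.log H := by
      have : 0 ≤ Real.log H := Real.log_nonneg (by have := hc.E1; have := hc.EH; linarith)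
      linarith
    have : 0 ≤ (C * B / (l * m)) ^ C := Real.rpow_nonneg (by positivity) _
    push_cast
    positivity
  obtain ⟨t0, ht0, hj0, hcu0, hcv0, -, -⟩ := hT y0 hy0
  subst hcu0
  subst hcv0
  have shU := h2.shU t0 ht0
  have shV := h2.shV t0 ht0
  refine main qm qp L P cu cv Uf Vf W B M a w1 w2 z0 ρ zL ρL r κ E H hc hCκ hCH l m hl hl1 hm hm1
    t0 ht0 (Vf (cv t0)).q shV.isQ ?_ ⟨0, Nat.zero_le _, ?_⟩ T ?_
  · have h3 := (hc.up t0 ht0).1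
    have h4 : 2 * E * a ≤ 4 * W ^ 1 * (E * a) := by
      rw [pow_one]; nlinarith
    exact fun z hz hz' x hx hq => (h3 z hz hz' x hx hq).trans h4
  · have h3 := slope_le (H := H) h2.r0 h2.ρ0 shU shV (h2.inV t0 ht0) (Nat.zero_le _)
    refine h3.trans ?_
    have : 0 < (Uf (cu t0)).w 0 := h2.r0.trans_le (shU.r0_le.trans shU.a_le0)
    rw [pow_one]; nlinarith
  · intro b hb
    obtain ⟨t, ht, hbH, hcu, hcv, hlb, hnd⟩ := hT b hb
    refine ⟨hbH, t, ht, hcu, hlb, ?_, ?_⟩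
    · obtain ⟨hz, hz'⟩ := zj_mem (z0 := z0) h2.ρ0.le hbH.le
      have h3 := (h2.inV t ht _ hz hz').2
      rw [hcv] at h3
      refine h3.trans ?_
      have h4 : (Vf (cv t0)).a ≤ W * a := (hc.dmV t0 ht0).1.2
      rw [pow_one]; nlinarith
    · rw [hcu, hcv] at hnd
      exact hnd

end Crest.Agent.R136.Adp876
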