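import Crest.Agent.R136.Lnu_876
import Crest.Agent.R136.Cuu5_57

/-!
# R136 (U4, PLAN 2 (AL), leaf (D)): `Al500.LeafNd` (helper876)
-/

set_option autoImplicit false

namespace Crest.Agent.R136.Adp876

theorem leafNd : Al500.LeafNd :=
  leafNd_of
    (fun U V R t t' z0 ρ r W a Λ κ h z s hz hz' hs hs1 h1 h2 =>
      Cuu57.val_uu h hz hz' hs hs1 h1 h2)
    (fun U V R t t' z0 ρ r W a Λ κ h H j hj s hs hs1 h1 h2 =>
      Cuu57.a0_uu h hj hs hs1 h1 h2)

end Crest.Agent.R136.Adp876
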