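import Crest.Agent.R136.Tq1_879
import Crest.Agent.R136.KF1_879

/-!
# R136, block U4 (pure penalty): `fit36` and `low36` (helper32; statements of helper879)

* `fit36 : FitF TT36` : a sheet of level `i` is at most as wide as the cell;
* `low36` : the enemy gives the lower bound of the gap for every reward which is at most `c l` on
  the box `0 ≤ x j ≤ l`.
-/

set_option autoImplicit false
set_option linter.unusedVariables false

open Finset

namespace Crest.Agent.R136.Tq879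

open Crest.Agent.R116.Xa794 (TS)
open Crest.Agent.R116.Xc794
open Crest.Agent.R138.Mk163 (zc zl rho alive own)
open Crest.Agent.R136.KF879
open Sh605 K4

/-- **the test sets of level `i` are at most as wide as the cell** -/
theorem fit36 : FitF TT36 := by
  rintro T ⟨r, hr, rfl⟩ i J s hs j
  obtain ⟨h1, h2, h3⟩ := hs
  have ha2 : s.2.a ≤ s.2.w 2 := h1.a_le
  have h21 : s.2.w 2 ≤ s.2.w 1 := h1.w_le
  have hw : wd s.2 j ≤ rho i := by
    fin_cases j
    · exact (ha2.trans h21).trans h2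
    · exact h2
    · exact h21.trans h2
  rw [h3 j] at hw
  have e1 : rho i = (1 / 2 : ℝ) ^ i := by
    unfold rho; rw [one_div_pow]
  rw [e1] at hw
  by_contra hlt
  push Not at hlt
  have := pow_lt_pow_right_of_lt_one₀ (by norm_num : (0:ℝ) < 1 / 2) (by norm_num) hlt
  linarith

section

variable {Ln ι S : Type}

/-- **the enemy bounds the gap from below**, reward at most `c l` on the box `0 ≤ x j ≤ l` -/
theorem low36 {K : ℕ} {𝒯 : Set (TS Ln ι S)} (hE : EnemyH K 𝒯) (hfit : FitF 𝒯) :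
    ∃ b0 : ℝ, 0 < b0 ∧ ∀ (Ψ : ℝ → (ι → ℝ) → ℝ) (c : ℝ),
      (∀ l x, 0 ≤ l → (∀ j, 0 ≤ x j ∧ x j ≤ l) → Ψ l x ≤ c * l) →
      ∀ b : ℝ, b < b0 - c → ¬ UBH K 𝒯 Ψ b := by
  obtain ⟨b0, hb0, hE⟩ := hE
  refine ⟨b0, hb0, fun Ψ c hΨ b hb hUB => ?_⟩
  obtain ⟨δ, hδ, M0, hUB⟩ := hUB ((b0 - c - b) / 2) (by linarith)
  obtain ⟨T, hT, F, h, hF, hM, hMK, hhM, hm, hlog, hN, hNm, hnu, ha, hgap⟩ := hE δ hδ M0
  have hM0 : (0 : ℝ) ≤ F.M := Nat.cast_nonneg _
  set F' : Cfg Ln ι S := { F with D0 := F.D0 * (2 : ℝ) ^ (c * F.M) } with hF'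
  have hOk : OkH T Ψ h F' := {
    M1 := hF.M1
    h_le := hF.h_le
    ne := hF.ne
    cell := hF.cell
    D1p := hF.D1p
    nup := hF.nup
    fin := hF.fin
    top := hF.top
    low := hF.low
    own := hF.own
    up := by
      intro J s hs
      have h1 := hF.up J s hs
      refine h1.trans ?_
      have hv := T.volpos F.m s.1
      have e0 : capP T (fun _ _ => 0) (F.m + F.M) F.a F.m s.1 = T.vol F.m s.1 := by
        unfold capP; simp
      have hD0 : 0 ≤ F.D0 := by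
        have h2 : (0 : ℝ) ≤ F.D0 * T.vol F.m s.1 := by
          rw [← e0]; exact (Nat.cast_nonneg _).trans h1
        exact nonneg_of_mul_nonneg_left h2 hv
      have hrel : ∀ j, rel F.m s.1 (F.m + F.M) F.a j = (s.1 j : ℝ) - F.m := by
        intro j
        unfold rel
        rw [ha j]; push_cast; ring
      have hps : Ψ (((F.m + F.M : ℕ) : ℝ) - F.m) (rel F.m s.1 (F.m + F.M) F.a) ≤ c * F.M := by
        have e1 : (((F.m + F.M : ℕ) : ℝ) - F.m) = F.M := by push_cast; ring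
        rw [e1]
        refine hΨ _ _ hM0 fun j => ?_
        rw [hrel j]
        have h3 : F.m ≤ s.1 j := hfit T hT F.m J s hs j
        have h4 : s.1 j ≤ F.m + F.M := (hF.fin F.m J s hs j).trans hNm
        have h3' : (F.m : ℝ) ≤ s.1 j := by exact_mod_cast h3
        have h4' : (s.1 j : ℝ) ≤ (F.m : ℝ) + F.M := by exact_mod_cast h4
        constructor <;> linarith
      rw [e0]
      show F.D0 * T.vol F.m s.1 ≤ F.D0 * (2 : ℝ) ^ (c * F.M) *
        (T.vol F.m s.1 * (2 : ℝ) ^ (-(Ψ (((F.m + F.M : ℕ) : ℝ) - F.m)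
          (rel F.m s.1 (F.m + F.M) F.a))))
      have h5 : (1 : ℝ) ≤ (2 : ℝ) ^ (c * F.M) * (2 : ℝ) ^ (-(Ψ (((F.m + F.M : ℕ) : ℝ) - F.m)
          (rel F.m s.1 (F.m + F.M) F.a))) := by
        rw [← Real.rpow_add (by norm_num)]
        exact Real.one_le_rpow (by norm_num) (by linarith)
      calc F.D0 * T.vol F.m s.1 = F.D0 * T.vol F.m s.1 * 1 := by ring
        _ ≤ F.D0 * T.vol F.m s.1 * ((2 : ℝ) ^ (c * F.M) *
            (2 : ℝ) ^ (-(Ψ (((F.m + F.M : ℕ) : ℝ) - F.m) (rel F.m s.1 (F.m + F.M) F.a)))) :=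
          mul_le_mul_of_nonneg_left h5 (mul_nonneg hD0 hv.le)
        _ = _ := by ring }
  have h6 := hUB T hT F' h hOk hM hMK hhM hlog hN hnu
  have h7 : F.D1 ≤ (2 : ℝ) ^ ((b + (b0 - c - b) / 2) * F.M) * (F.D0 * (2 : ℝ) ^ (c * F.M)) := h6
  have e2 : (2 : ℝ) ^ ((b + (b0 - c - b) / 2) * F.M) * (F.D0 * (2 : ℝ) ^ (c * F.M)) =
      (2 : ℝ) ^ ((b + (b0 - c - b) / 2 + c) * F.M) * F.D0 := by
    rw [add_mul (b + (b0 - c - b) / 2) c, Real.rpow_add (by norm_num)]; ring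
  rw [e2] at h7
  have hD1 := hF.D1p
  rcases le_or_gt 0 F.D0 with h0 | h0
  · have h8 : (2 : ℝ) ^ ((b + (b0 - c - b) / 2 + c) * F.M) ≤ (2 : ℝ) ^ (b0 * F.M) :=
      Real.rpow_le_rpow_of_exponent_le (by norm_num)
        (mul_le_mul_of_nonneg_right (by linarith) hM0)
    have h9 := mul_le_mul_of_nonneg_right h8 h0
    linarith
  · have h8 : (0 : ℝ) < (2 : ℝ) ^ ((b + (b0 - c - b) / 2 + c) * F.M) := by positivity
    have h9 := mul_neg_of_pos_of_neg h8 h0
    linarith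

end

end Crest.Agent.R136.Tq879
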