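import Crest.Agent.R136.AlK_500
import Crest.Agent.R136.Kf5_605
import Crest.Agent.R136.Dup_571

/-!
# R136 (S0187), PLAN 2 (AL), balanced case: `LeafPL` (helper685)

`leaf_pl : Al500.LeafPL` : the plank condition for both systems of a configuration, from 605's
`pl_curvedM` over the long cell.
-/

set_option autoImplicit false
set_option linter.unusedVariables false

open Finset

namespace Crest.Agent.R136.Lpl685

open Crest.Agent.R136.Sh605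
open Crest.Agent.R136.K4 (Plk4)
open Crest.Agent.R136.Tlt51 (Shp InP)
open Crest.Agent.R136.KapP335 (DetP kapP)
open Crest.Agent.R136.Pl2W102 (Near)
open Crest.Agent.R136.Pl2 (Two7 kp)
open Crest.Agent.R136.Alw500 (PLh)
open Crest.Agent.R136.Al500 (Cf Dm LeafPL)
open Crest.Agent.R136.Kf605 (bigM cD pl_curvedM)
open Crest.Agent.R136.Phc248 (ph phC)
open Crest.Agent.R138.Defs (E2)
open Crest.Agent.R138.Tub70 (InPl)
open Crest.Agent.R136.Vq571 (chp chv)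

/-- numbers -/
theorem bigM_le {qm qp : Fin 3 → ℝ} (hq : ∀ k, 0 ≤ qm k ∧ qm k ≤ qp k) {W B : ℝ} (hW : 1 ≤ W)
    (hWB : W ≤ B) :
    bigM (1 / 128 * W⁻¹ / (16 * 160 ^ 3)) 128 (80 * B ^ 2) B (1 / (10 ^ 6 * B ^ 2)) qm qp ≤
      (10 ^ 14 * B) ^ (31 + (qp 0 + qp 1 + qp 2) + 7 * (qm 1 + qm 2)) := by
  have hB : 1 ≤ B := hW.trans hWB
  have hB0 : 0 < B := by linarith
  have hW0 : 0 < W := by linarith
  have hq0 : 0 ≤ qp 0 := (hq 0).1.trans (hq 0).2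
  have hq1 : 0 ≤ qp 1 := (hq 1).1.trans (hq 1).2
  have hq2 : 0 ≤ qp 2 := (hq 2).1.trans (hq 2).2
  have hm1 := (hq 1).1
  have hm2 := (hq 2).1
  set X : ℝ := 10 ^ 14 * B with hX
  have hX14 : (10 : ℝ) ^ 14 ≤ X := by rw [hX]; nlinarith
  have hX1 : 1 ≤ X := le_trans (by norm_num) hX14
  have hX0 : 0 < X := by linarith
  set K : ℝ := 10000 / (1 / 128 * W⁻¹ / (16 * 160 ^ 3)) with hK
  have hKe : K = 83886080000000 * W := by rw [hK]; field_simp; norm_num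
  have hKX : K ≤ X := by
    rw [hKe, hX]
    have : 83886080000000 * W ≤ 83886080000000 * B := by linarith
    nlinarith
  have hK0 : 0 ≤ K := by rw [hKe]; positivity
  have f1 : 3 / (1 / (10 ^ 6 * B ^ 2)) ≤ X ^ 2 := by
    have : 3 / (1 / (10 ^ 6 * B ^ 2)) = 3000000 * B ^ 2 := by field_simp; norm_num
    rw [this, hX, mul_pow]
    nlinarith [sq_nonneg B]
  have f2 : 2 / (1 / (10 ^ 6 * B ^ 2)) ≤ X ^ 2 := by
    have : 2 / (1 / (10 ^ 6 * B ^ 2)) = 2000000 * B ^ 2 := by field_simp; norm_num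
    rw [this, hX, mul_pow]
    nlinarith [sq_nonneg B]
  have f3 : 13 * (128 * (80 * B ^ 2)) ≤ X ^ 2 := by
    rw [hX, mul_pow]
    nlinarith [sq_nonneg B]
  have f4 : 1860000 * B ≤ X := by rw [hX]; nlinarith
  have f5 : 3 * B ≤ X := by rw [hX]; nlinarith
  have f6 : 36 * B ≤ X := by rw [hX]; nlinarith
  have f7 : 34 * K ^ 4 ≤ X ^ 5 := by
    have h1 : K ^ 4 ≤ X ^ 4 := pow_le_pow_left₀ hK0 hKX 4
    calc 34 * K ^ 4 ≤ X * X ^ 4 := mul_le_mul (by linarith) h1 (by positivity) hX0.le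
      _ = X ^ 5 := by ring
  have f8 : (40000 : ℝ) ≤ X := by linarith
  have g1 : (3 / (1 / (10 ^ 6 * B ^ 2))) ^ 4 ≤ X ^ (8 : ℝ) := by
    calc (3 / (1 / (10 ^ 6 * B ^ 2))) ^ 4 ≤ (X ^ 2) ^ 4 := pow_le_pow_left₀ (by positivity) f1 4
      _ = X ^ (8 : ℝ) := by norm_cast; ring
  have g2 : K ^ 7 ≤ X ^ (7 : ℝ) := by
    calc K ^ 7 ≤ X ^ 7 := pow_le_pow_left₀ hK0 hKX 7
      _ = X ^ (7 : ℝ) := by norm_cast
  have g3 : 2 / (1 / (10 ^ 6 * B ^ 2)) ≤ X ^ (2 : ℝ) := by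
    refine f2.trans (le_of_eq ?_); norm_cast
  have g4 : (3 * B) ^ (1 + qp 0) ≤ X ^ (1 + qp 0) :=
    Real.rpow_le_rpow (by positivity) f5 (by linarith)
  have g5 : (36 * B) ^ (2 + qp 1 + qp 2) ≤ X ^ (2 + qp 1 + qp 2) :=
    Real.rpow_le_rpow (by positivity) f6 (by linarith)
  have g6 : (34 * K ^ 4) ^ (1 + (qm 1 + qm 2)) ≤ X ^ (5 * (1 + (qm 1 + qm 2))) := by
    refine (Real.rpow_le_rpow (by positivity) f7 (by linarith)).trans (le_of_eq ?_)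
    rw [Real.rpow_mul hX0.le]
    norm_cast
  have g7 : (13 * (128 * (80 * B ^ 2))) ^ (2 + (qm 1 + qm 2)) ≤ X ^ (2 * (2 + (qm 1 + qm 2))) := by
    refine (Real.rpow_le_rpow (by positivity) f3 (by linarith)).trans (le_of_eq ?_)
    rw [Real.rpow_mul hX0.le]
    norm_cast
  have p : ∀ y : ℝ, 0 < X ^ y := fun y => Real.rpow_pos_of_pos hX0 y
  have h1X : X = X ^ (1 : ℝ) := (Real.rpow_one X).symm
  unfold bigM cD
  rw [← hK]
  have step : (3 / (1 / (10 ^ 6 * B ^ 2))) ^ 4 * (40000 * K ^ 7 * (2 / (1 / (10 ^ 6 * B ^ 2))) *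
      (1860000 * B * (3 * B) ^ (1 + qp 0) * (36 * B) ^ (2 + qp 1 + qp 2) *
        (34 * K ^ 4) ^ (1 + (qm 1 + qm 2))) * (13 * (128 * (80 * B ^ 2))) ^ (2 + (qm 1 + qm 2))) ≤
      X ^ (8 : ℝ) * (X * X ^ (7 : ℝ) * X ^ (2 : ℝ) *
      (X * X ^ (1 + qp 0) * X ^ (2 + qp 1 + qp 2) * X ^ (5 * (1 + (qm 1 + qm 2)))) *
        X ^ (2 * (2 + (qm 1 + qm 2)))) := by
    have p1 := (p 8).le
    have p2 := (p 7).le
    have p3 := (p 2).le
    have p4 := (p (1 + qp 0)).le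
    have p5 := (p (2 + qp 1 + qp 2)).le
    have p6 := (p (5 * (1 + (qm 1 + qm 2)))).le
    have p7 := (p (2 * (2 + (qm 1 + qm 2)))).le
    gcongr
  refine step.trans (le_of_eq ?_)
  have e : X ^ (8 : ℝ) * (X ^ (1 : ℝ) * X ^ (7 : ℝ) * X ^ (2 : ℝ) *
      (X ^ (1 : ℝ) * X ^ (1 + qp 0) * X ^ (2 + qp 1 + qp 2) * X ^ (5 * (1 + (qm 1 + qm 2)))) *
        X ^ (2 * (2 + (qm 1 + qm 2)))) =
      X ^ (31 + (qp 0 + qp 1 + qp 2) + 7 * (qm 1 + qm 2)) := by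
    simp only [← Real.rpow_add hX0]
    congr 1
    ring
  rw [Real.rpow_one] at e
  exact e

open Classical in
/-- one system -/
theorem pl_one {qm qp : Fin 3 → ℝ} (hq : ∀ k, 0 ≤ qm k ∧ qm k ≤ qp k) {L : ℕ → Ln4} {P : Finset ℕ}
    {cu : ℕ → ℕ} {Uf : ℕ → Plk4} {W B M a w1 w2 z0 ρ zL ρL r E : ℝ} {H : ℕ} (hr : 0 < r)
    (hρ : 0 < ρ) (ha : 0 < a) (h1 : 0 < w1) (h2 : 0 < w2) (w1ρ : w1 ≤ B * ρ) (hM : 0 ≤ M)
    (lo : zL ≤ z0) (hi : z0 + ρ ≤ zL + ρL) (long : 128 * ρ ≤ ρL) (short : ρL ≤ 128 * ρ)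
    (dmax : ∀ S : Plk4, Shp S z0 ρ r → S.w 1 ≤ ρ →
      ((P.filter fun t => InP (L t) S z0 ρ).card : ℝ) ≤
        B * M * phC qm qp a w1 w2 S.a (S.w 1) (S.w 2))
    (hW : 1 ≤ W) (hWB : W ≤ B) (E1 : 1 ≤ E) (EH : E ≤ H) (HE : (H : ℝ) ≤ 2 * E)
    (hbig : 160000000 * B ^ 4 ≤ H)
    (shU : ∀ t ∈ P, Shp (Uf (cu t)) zL ρL r) (inU : ∀ t ∈ P, InP (L t) (Uf (cu t)) zL ρL)
    (dm : ∀ t ∈ P, Dm W a w1 w2 (Uf (cu t)))
    (kE : ∀ t ∈ P, E * a ≤ W * kp (Uf (cu t)) z0 ρ (L t))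
    (det : ∀ t ∈ P, DetP W⁻¹ (Uf (cu t)) z0 ρ (L t)) {Z : ℝ}
    (hZ : bigM (1 / 128 * W⁻¹ / (16 * 160 ^ 3)) 128 (80 * B ^ 2) B (1 / (10 ^ 6 * B ^ 2)) qm qp ≤
      Z) :
    PLh P cu L Uf z0 ρ (Z * (1 + Real.log H)) M (qm 1 + qm 2) H := by
  have hB : 1 ≤ B := hW.trans hWB
  have hB0 : 0 < B := by linarith
  have hW0 : 0 < W := by linarith
  have hH1 : (1 : ℝ) ≤ H := E1.trans EH
  have hHn : 1 ≤ H := by exact_mod_cast hH1
  have hH0 : (0 : ℝ) < H := by linarith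
  have hlog : 0 ≤ Real.log H := Real.log_nonneg hH1
  have hqq : 0 ≤ qm 1 + qm 2 := add_nonneg (hq 1).1 (hq 2).1
  have hbig0 : 0 ≤ bigM (1 / 128 * W⁻¹ / (16 * 160 ^ 3)) 128 (80 * B ^ 2) B
      (1 / (10 ^ 6 * B ^ 2)) qm qp := by
    unfold bigM cD; positivity
  have hZ0 : 0 ≤ Z := hbig0.trans hZ
  intro c e s p0 v0 hs G hG
  have hs0 : ∀ j, 0 < s j := fun j => lt_of_lt_of_le (by positivity) (hs j).1
  have hmax : 0 ≤ (max (s 0) (s 1)) ^ (qm 1 + qm 2) :=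
    Real.rpow_nonneg ((hs0 0).le.trans (le_max_left _ _)) _
  have hss : 0 ≤ s 0 * s 1 := (mul_pos (hs0 0) (hs0 1)).le
  rcases G.eq_empty_or_nonempty with h0 | ⟨t1, ht1⟩
  · rw [h0, card_empty]
    simp only [Nat.cast_zero]
    positivity
  obtain ⟨p1, c1, -⟩ := hG t1 ht1
  set S := Uf c with hS
  have hSh : Shp S zL ρL r := by rw [hS, ← c1]; exact shU t1 p1
  have hDm : Dm W a w1 w2 S := by rw [hS, ← c1]; exact dm t1 p1
  obtain ⟨da, d1, d2⟩ := hDm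
  have hw0 : 0 < S.w 0 := hr.trans_le (hSh.r0_le.trans hSh.a_le0)
  have hSa : 0 < S.a := hr.trans_le hSh.r0_le
  have hSw1 : 0 < S.w 1 := by
    have := hSh.w0_le
    have := hSh.w_le
    linarith
  set A := P.filter fun t => cu t = c with hA
  have hAP : A ⊆ P := filter_subset _ _
  have hAm : ∀ t ∈ A, t ∈ P ∧ cu t = c := fun t ht => mem_filter.1 ht
  have hAin : ∀ t ∈ A, InP (L t) S zL ρL := by
    intro t ht
    obtain ⟨q1, q2⟩ := hAm t ht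
    rw [hS, ← q2]; exact inU t q1
  -- curvature
  have hkp : ∀ t ∈ A, 0 < kapP S z0 ρ (L t) ∧ E * a ≤ W * (40 * kapP S zL ρL (L t)) := by
    intro t ht
    obtain ⟨q1, q2⟩ := hAm t ht
    have h3 := kE t q1
    rw [q2] at h3
    change E * a ≤ W * kapP S z0 ρ (L t) at h3
    have h4 : 0 < W * kapP S z0 ρ (L t) := lt_of_lt_of_le (by positivity) h3
    have h5 := Crest.Agent.R136.Pl2W102.kapP_le hr hρ lo hi hSh (hAin t ht)
    exact ⟨(mul_pos_iff_of_pos_left hW0).1 h4, h3.trans (mul_le_mul_of_nonneg_left h5 hW0.le)⟩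
  have hcur : ∀ t ∈ A, S.a * H ≤ 80 * B ^ 2 * kapP S zL ρL (L t) := by
    intro t ht
    obtain ⟨k1, k2⟩ := hkp t ht
    have k3 : 0 < kapP S zL ρL (L t) := Dup571.kp_up hr hρ lo hi hSh (hAin t ht) k1
    have hWB2 : W ^ 2 ≤ B ^ 2 := pow_le_pow_left₀ hW0.le hWB 2
    calc S.a * H ≤ (W * a) * (2 * E) := mul_le_mul da.2 HE hH0.le (by positivity)
      _ = 2 * W * (E * a) := by ring
      _ ≤ 2 * W * (W * (40 * kapP S zL ρL (L t))) := mul_le_mul_of_nonneg_left k2 (by positivity)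
      _ = 80 * W ^ 2 * kapP S zL ρL (L t) := by ring
      _ ≤ 80 * B ^ 2 * kapP S zL ρL (L t) := by gcongr
  have hμ0 : (0 : ℝ) < 1 / (10 ^ 6 * B ^ 2) := by positivity
  have hB2 : 1 ≤ B ^ 2 := one_le_pow₀ hB
  have hsm : ∀ t ∈ A, 2 * S.a ≤ 1 / (10 ^ 6 * B ^ 2) * kapP S zL ρL (L t) := by
    intro t ht
    have k4 := hcur t ht
    obtain ⟨k1, k2⟩ := hkp t ht
    have k3 : 0 < kapP S zL ρL (L t) := Dup571.kp_up hr hρ lo hi hSh (hAin t ht) k1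
    rw [div_mul_eq_mul_div, one_mul, le_div_iff₀ (by positivity)]
    have k5 : S.a * (160000000 * B ^ 4) ≤ 80 * B ^ 2 * kapP S zL ρL (L t) :=
      (mul_le_mul_of_nonneg_left hbig hSa.le).trans k4
    have k6 : 80 * B ^ 2 * (2 * S.a * (10 ^ 6 * B ^ 2)) ≤ 80 * B ^ 2 * kapP S zL ρL (L t) := by
      refine le_trans (le_of_eq ?_) k5
      ring
    exact le_of_mul_le_mul_left k6 (by positivity)
  have key := pl_curvedM hq (P := P) (L := L) (S := S) (R := 128) (W := B) (a0 := a) (w10 := w1)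
    (w20 := w2) (M := M) hSh hr lo hi hρ long short hB hM ha h1 h2
    (da.2.trans (mul_le_mul_of_nonneg_right hWB ha.le))
    (d1.2.trans (mul_le_mul_of_nonneg_right hWB h1.le))
    (d2.2.trans (mul_le_mul_of_nonneg_right hWB h2.le)) dmax (μ := 1 / (10 ^ 6 * B ^ 2)) hμ0
    (by
      rw [div_le_div_iff₀ (by positivity) (by norm_num)]
      nlinarith)
    (by
      have h3 : S.w 1 ≤ B * (B * ρ) := (d1.2.trans (mul_le_mul_of_nonneg_right hWB h1.le)).trans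
        (mul_le_mul_of_nonneg_left w1ρ hB0.le)
      calc 576 * (1 / (10 ^ 6 * B ^ 2)) * S.w 1 ≤ 576 * (1 / (10 ^ 6 * B ^ 2)) * (B * (B * ρ)) :=
            mul_le_mul_of_nonneg_left h3 (by positivity)
        _ = 576 / 10 ^ 6 * ρ := by field_simp
        _ ≤ ρ := by nlinarith)
    (A := A) hAP hAin (δ := 1 / 128 * W⁻¹ / (16 * 160 ^ 3)) (by positivity)
    (by
      have : W⁻¹ ≤ 1 := inv_le_one_of_one_le₀ hW
      have : 0 < W⁻¹ := by positivity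
      rw [div_le_one (by norm_num)]
      linarith)
    (by
      intro t ht
      obtain ⟨q1, q2⟩ := hAm t ht
      have h3 := det t q1
      rw [q2] at h3
      exact Dup571.det_up hr hρ lo hi (t := 1 / 128) (by norm_num) (by linarith) hSh (hAin t ht)
        (by positivity) (hkp t ht).1 h3)
    hHn (K1 := 80 * B ^ 2) (by linarith) hcur hsm e s p0 v0 hs
  have hsub : G ⊆ A.filter fun t => InPl e s p0 v0 (chp S z0 ρ (L t)) (chv S z0 ρ (L t)) := by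
    intro t ht
    obtain ⟨q1, q2, q3⟩ := hG t ht
    rw [mem_filter, hA, mem_filter]
    exact ⟨⟨q1, q2⟩, q3⟩
  have hc : (G.card : ℝ) ≤ ((A.filter fun t => InPl e s p0 v0 (chp S z0 ρ (L t))
      (chv S z0 ρ (L t))).card : ℝ) := by exact_mod_cast card_le_card hsub
  refine hc.trans (key.trans ?_)
  gcongr

/-- **LeafPL** -/
theorem leaf_pl : LeafPL := by
  intro qm qp hq
  set e0 : ℝ := 31 + (qp 0 + qp 1 + qp 2) + 7 * (qm 1 + qm 2) with he0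
  have hq0 : 0 ≤ qp 0 := (hq 0).1.trans (hq 0).2
  have hq1 : 0 ≤ qp 1 := (hq 1).1.trans (hq 1).2
  have hq2 : 0 ≤ qp 2 := (hq 2).1.trans (hq 2).2
  have hm1 := (hq 1).1
  have hm2 := (hq 2).1
  have he31 : 31 ≤ e0 := by rw [he0]; linarith
  refine ⟨max (10 ^ 14) e0, le_trans (by norm_num) (le_max_left _ _), ?_⟩
  intro L P cu cv Uf Vf W B M a w1 w2 z0 ρ zL ρL r κ E H h _ hH
  set C := max ((10 : ℝ) ^ 14) e0 with hC
  have hC14 : (10 : ℝ) ^ 14 ≤ C := le_max_left _ _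
  have hCe : e0 ≤ C := le_max_right _ _
  have hW := h.W1
  have hWB := h.WB
  have hB : 1 ≤ B := hW.trans hWB
  have hB0 : 0 < B := by linarith
  have hCB : 10 ^ 14 * B ≤ C * B := mul_le_mul_of_nonneg_right hC14 hB0.le
  have hCB1 : 1 ≤ C * B := le_trans (by nlinarith) hCB
  have hZ : bigM (1 / 128 * W⁻¹ / (16 * 160 ^ 3)) 128 (80 * B ^ 2) B (1 / (10 ^ 6 * B ^ 2)) qm qp ≤
      (C * B) ^ C := by
    refine (bigM_le hq hW hWB).trans ?_
    refine (Real.rpow_le_rpow (by positivity) hCB (by linarith)).trans ?_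
    exact Real.rpow_le_rpow_of_exponent_le hCB1 hCe
  have hbig : 160000000 * B ^ 4 ≤ H := by
    refine le_trans ?_ hH
    have h4 : (C * B) ^ (4 : ℝ) ≤ (C * B) ^ C :=
      Real.rpow_le_rpow_of_exponent_le hCB1 (le_trans (by norm_num) hC14)
    refine le_trans ?_ h4
    have e4 : (C * B) ^ (4 : ℝ) = (C * B) ^ 4 := by norm_cast
    rw [e4]
    calc 160000000 * B ^ 4 ≤ (10 ^ 14) ^ 4 * B ^ 4 :=
          mul_le_mul_of_nonneg_right (by norm_num) (by positivity)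
      _ = (10 ^ 14 * B) ^ 4 := by ring
      _ ≤ (C * B) ^ 4 := pow_le_pow_left₀ (by positivity) hCB 4
  have t := h.two
  constructor
  · exact pl_one hq t.to1.r0 t.to1.ρ0 t.to1.a0 t.to1.w10 t.to1.w20 t.to1.w1ρ t.to1.M0.le t.lo t.hi
      t.long t.short t.to1.dmax hW hWB h.E1 h.EH h.HE hbig t.shU t.inU h.dmU h.kE h.detU hZ
  · exact pl_one hq t.to1.r0 t.to1.ρ0 t.to1.a0 t.to1.w10 t.to1.w20 t.to1.w1ρ t.to1.M0.le t.lo t.hi
      t.long t.short t.to1.dmax hW hWB h.E1 h.EH h.HE hbig t.shV t.inV h.dmV h.kE' h.detV hZ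

end Crest.Agent.R136.Lpl685
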