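import Crest.Agent.R136.Lq2_196

/-!
# R136, leaf L15 of `ℝ⁴` (helper196), part 3: container and sampling

* `PreQ.of_sub` : all fields pass to marked subfamilies;
* `PreQ.cont`   : a marked subfamily inside one container;
* `RawQ`, `raw_of` : the sample of polynomial cardinality.
-/

set_option autoImplicit false
set_option linter.unusedVariables false
set_option linter.unusedSectionVars false

open Finset Filter Topology

namespace Crest.Agent.R136.Lq196

open Crest.Agent.R138.Ex926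
open Crest.Agent.R138.Mk163 (zc zl rho alive)
open Crest.Agent.R138.MkRef627 (lc kc own_one hh hh_even hh_odd exists_num)
open Crest.Agent.R138.Dp76 (Dense)
open Crest.Agent.R138.Dp76 (dpow_pos dpow_add dpow_le)
open Crest.Agent.R136.MkA627
open Crest.Agent.R136.Net191

variable {m : ℕ}

theorem chart_sub {ι : Type*} {I J : Finset ι} {co : ι → ι → Fin m → ℝ} {M : Mons m} {C : ℝ}
    (h : Chart I co M C) (hs : J ⊆ I) : Chart J co M C where
  C0 := h.C0
  refl := fun i hi k => h.refl i (hs hi) k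
  add := fun i hi j hj l hl k => h.add i (hs hi) j (hs hj) l (hs hl) k

section mk

variable {σ κ : Type*} {B : Base} {I : ℕ → Finset (ℕ × ℝ)} {G : Geo σ κ} {lev : ℕ → ℚ → ℕ}
    {A : ℕ → ℝ} {g s : ℝ} {τ : κ → ℝ → ℝ} {f : ℕ → ℚ → ℕ → ℤ → ℕ} {b : ℕ → ℚ → ℕ → σ}
    {vm : ℕ → ℚ → ℝ} {w : κ → ℕ → ℚ → ℝ}
    {co : ∀ n : ℕ, ℕ × ℝ → ℕ × ℝ → Fin m → ℝ} {M : Mons m} {C R : ℝ} {kz : Fin m} {w0 : ℝ}
    {N0 : ℕ → ℝ} {PD : Set (Fin m → ℝ)} {D : (Fin m → ℝ) → ℝ} {r o : ℝ → Fin m → ℝ} {E : ℝ → ℝ}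
    {T : Fin m → Prop}

open Classical in
/-- all fields pass to marked subfamilies -/
theorem PreQ.of_sub (h : PreQ B I G lev A g s τ f b vm w co M C R kz w0 N0 PD D r o E T)
    {J : ℕ → Finset (ℕ × ℝ)} (hs : ∀ n, J n ⊆ I n)
    (hm : MkA B J G lev A (fun v => g * v) (fun v => s * v) τ f b vm w) :
    PreQ B J G lev A g s τ f b vm w co M C R kz w0 N0 PD D r o E T where
  mka := hm
  chart := fun n => chart_sub (h.chart n) (hs n)
  zco := fun n x hx y hy => h.zco n x (hs n hx) y (hs n hy)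
  w00 := h.w00
  w0R := h.w0R
  N0pos := h.N0pos
  PDne := h.PDne
  PDleg := h.PDleg
  gD := fun p hp K hK ε hε => by
    filter_upwards [h.gD p hp K hK ε hε] with n hn x hx
    refine le_trans ?_ (hn x (hs n hx))
    exact_mod_cast card_le_card (filter_subset_filter _ (hs n))
  rleg := h.rleg
  rpos := h.rpos
  rlip := h.rlip
  gR := fun u hu0 hu1 ε hε => by
    filter_upwards [h.gR u hu0 hu1 ε hε] with n hn x hx y hy
    exact hn x (hs n hx) y (hs n hy)
  gH := h.gH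
  oz := h.oz
  own_near := fun u hu0 hu1 ε hε => by
    filter_upwards [h.own_near u hu0 hu1 ε hε] with n hn x hx y hy
    exact hn x (hs n hx) y (hs n hy)
  tw := fun k hk u hu0 hu1 ρ hρ => by
    obtain ⟨γ, hγ, h1⟩ := h.tw k hk u hu0 hu1 ρ hρ
    refine ⟨γ, hγ, ?_⟩
    filter_upwards [h1] with n hn x hx
    refine le_trans ?_ (hn x (hs n hx))
    exact_mod_cast card_le_card (filter_subset_filter _ (hs n))

theorem PreQ.R0 (h : PreQ B I G lev A g s τ f b vm w co M C R kz w0 N0 PD D r o E T) : 0 ≤ R := by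
  have := h.w00
  have := h.w0R
  linarith

theorem PreQ.C0 (h : PreQ B I G lev A g s τ f b vm w co M C R kz w0 N0 PD D r o E T) : 0 ≤ C :=
  (h.chart 0).C0

theorem zero_Leg (M : Mons m) {R : ℝ} (hR : 0 ≤ R) : (0 : Fin m → ℝ) ∈ Leg M R :=
  ⟨⟨fun k => le_rfl, fun k e he => by simp⟩, fun k => hR⟩

theorem top_Leg (M : Mons m) {R : ℝ} (hR : 0 ≤ R) : (fun _ => R : Fin m → ℝ) ∈ Leg M R := by
  refine ⟨⟨fun k => hR, fun k e he => ?_⟩, fun k => le_rfl⟩
  rw [← sum_mul]
  have h2 : (1 : ℝ) ≤ ∑ s, (e s : ℝ) := by exact_mod_cast M.one_le he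
  exact le_mul_of_one_le_left hR h2

set_option maxHeartbeats 400000 in
open Classical in
/-- **a marked subfamily inside one container** -/
theorem PreQ.cont (h : PreQ B I G lev A g s τ f b vm w co M C R kz w0 N0 PD D r o E T) :
    ∃ I0 : ℕ → Finset (ℕ × ℝ), (∀ n, I0 n ⊆ I n) ∧
      (∀ n, ∀ x ∈ I0 n, ∀ y ∈ I0 n, Near (co n) (B.d n) 0 (cK0 M C) x y) ∧
      PreQ B I0 G lev A g s τ f b vm w co M C R kz w0 N0 PD D r o E T := by
  have hR := h.R0
  have hC := h.C0
  obtain ⟨δ, hδ, hδ2⟩ := h.rpos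
  -- few labels on a set of incidences which are `1`-near
  have hcN : 0 < cN M C 1 := cN_pos M hC le_rfl
  have key : ∀ ε : ℝ, 0 < ε → ∀ᶠ n in (U : Filter ℕ), ∀ x ∈ I n, ∀ S ⊆ I n,
      (∀ y ∈ S, ∀ k, |co n x y k| ≤ 1) →
      ((S.image (nlab B I co M C n 0)).card : ℝ) ≤ B.d n ^ (-ε) := by
    intro ε hε
    filter_upwards [B.ev_const_log (Real.log (cN M C 1)) hε] with n hn x hx S hS h1
    have h2 := near_labels (B := B) h.chart hR (zero_Leg M hR) le_rfl (n := n) hx S hS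
      (fun y hy k => by
        have := h1 y hy k
        refine ⟨?_, this⟩
        simp only [Pi.zero_apply, sub_zero, Real.rpow_zero]
        exact this)
    rw [mul_zero, neg_zero, Real.rpow_zero, mul_one] at h2
    refine h2.trans ?_
    rw [← B.exp_eq, ← Real.log_le_iff_le_exp hcN]
    exact hn
  set cv : ℚ → ℚ := fun v => max 0 (min 1 v) with hcv
  have hcv0 : ∀ v, 0 ≤ cv v := fun v => le_max_left _ _
  have hcv1 : ∀ v, cv v ≤ 1 := fun v => max_le zero_le_one (min_le_left _ _)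
  have hcvid : ∀ v : ℚ, 0 ≤ v → v ≤ 1 → cv v = v := fun v h0 h1 => by
    simp only [hcv]; rw [min_eq_right h1, max_eq_right h0]
  set lev' : ℕ → ℚ → ℕ := fun n v => lev n (cv v) with hlev'
  set f' : ℕ → ℚ → ℕ → ℤ → ℕ := fun n v => f n (cv v) with hf'
  have hl : ∀ v : ℚ, 0 ≤ v → v ≤ 1 → ∀ ε : ℝ, 0 < ε → ∀ᶠ n in (U : Filter ℕ), ∀ x ∈ I n,
      ((((I n).filter fun y => lc (lev n v) y = lc (lev n v) x).image
        (nlab B I co M C n 0)).card : ℝ) ≤ B.d n ^ (-ε) := by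
    intro v hv0 hv1 ε hε
    filter_upwards [key ε hε, h.own_near v hv0 hv1 δ hδ] with n h1 h2 x hx
    refine h1 x hx _ (filter_subset _ _) fun y hy k => ?_
    obtain ⟨hy1, hy2⟩ := mem_filter.1 hy
    refine (h2 x hx y hy1 hy2 k).trans ?_
    refine Real.rpow_le_one (B.pos n).le (B.lt n).le ?_
    have := (hδ2 v (by exact_mod_cast hv0) (by exact_mod_cast hv1) k).2
    linarith
  have hk : ∀ v : ℚ, 0 ≤ v → v ≤ 1 → ∀ ε : ℝ, 0 < ε → ∀ᶠ n in (U : Filter ℕ), ∀ x ∈ I n,
      ((((I n).filter fun y => kc (lev n v) (f n v) y = kc (lev n v) (f n v) x).image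
        (nlab B I co M C n 0)).card : ℝ) ≤ B.d n ^ (-ε) := by
    intro v hv0 hv1 ε hε
    filter_upwards [key ε hε, h.gR v hv0 hv1 δ hδ] with n h1 h2 x hx
    refine h1 x hx _ (filter_subset _ _) fun y hy k => ?_
    obtain ⟨hy1, hy2⟩ := mem_filter.1 hy
    refine (h2 x hx y hy1 hy2 k).trans ?_
    refine Real.rpow_le_one (B.pos n).le (B.lt n).le ?_
    have := (hδ2 v (by exact_mod_cast hv0) (by exact_mod_cast hv1) k).1
    linarith
  obtain ⟨I', h1, h2, h3, h4⟩ := Crest.Agent.R138.Cont627.cont_seq (B := B) (I := I) h.mka.ne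
    (η := fun _ _ => ℕ × ℤ) (γ := fun _ => ℕ × ℝ) (hh lev' f') (fun n => nlab B I co M C n 0) (by
      intro j ε hε
      obtain ⟨i, hi | hi⟩ : ∃ i, j = 2 * i ∨ j = 2 * i + 1 := ⟨j / 2, by omega⟩
      · subst hi
        simp only [hh_even]
        filter_upwards [hl _ (hcv0 (Denumerable.ofNat ℚ i)) (hcv1 (Denumerable.ofNat ℚ i)) ε hε]
          with n hn x hx
        have h5 := hn x hx
        convert h5
      · subst hi
        simp only [hh_odd]
        filter_upwards [hk _ (hcv0 (Denumerable.ofNat ℚ i)) (hcv1 (Denumerable.ofNat ℚ i)) ε hε]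
          with n hn x hx
        have h5 := hn x hx
        convert h5)
  refine ⟨I', h1, ?_, h.of_sub h1 (MkA.of_fib h.mka h1 h2 ?_ ?_)⟩
  · intro n x hx y hy
    exact near_of_nlab h.chart (zero_Leg M hR).1 (h1 n hx) (h1 n hy) (h3 n x hx y hy)
  · intro v hv0 hv1 ε hε
    obtain ⟨j, rfl⟩ := exists_num v
    filter_upwards [h4 (2 * j) ε hε] with n hn x hx
    have := hn x hx
    simp only [hh_even, hlev', hcvid _ hv0 hv1] at this
    exact this
  · intro v hv0 hv1 ε hε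
    obtain ⟨j, rfl⟩ := exists_num v
    filter_upwards [h4 (2 * j + 1) ε hε] with n hn x hx
    have := hn x hx
    simp only [hh_odd, hlev', hf', hcvid _ hv0 hv1] at this
    exact this

end mk

end Crest.Agent.R136.Lq196
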