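import Crest.Agent.R136.Lq4_196

/-!
# R136, leaf L15 of `ℝ⁴` (helper196), part 5: tools for `ExtQ`
-/

set_option autoImplicit false
set_option linter.unusedVariables false
set_option linter.unusedSectionVars false

open Finset Filter Topology

namespace Crest.Agent.R136.Lq196

open Crest.Agent.R138.Ex926
open Crest.Agent.R138.Mk163 (zc zl rho alive)
open Crest.Agent.R138.MkRef627 (lc kc own_one)
open Crest.Agent.R138.Dp76 (dpow_pos dpow_add dpow_le)
open Crest.Agent.R136.MkA627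
open Crest.Agent.R136.Net191

variable {m : ℕ}

/-- labels of the two families -/
def kQ : Bool → ℕ → Type
  | true, _ => ℕ × ℝ
  | false, _ => ℕ × (ℕ × ℝ)

noncomputable instance kQdec : ∀ j n, DecidableEq (kQ j n)
  | true, _ => inferInstanceAs (DecidableEq (ℕ × ℝ))
  | false, _ => inferInstanceAs (DecidableEq (ℕ × (ℕ × ℝ)))

/-- the two families -/
noncomputable def fQ (B : Base) (I : ℕ → Finset (ℕ × ℝ))
    (co : ∀ n : ℕ, ℕ × ℝ → ℕ × ℝ → Fin m → ℝ) (M : Mons m) (C : ℝ) :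
    ∀ j n, (Fin m → ℝ) → ℕ × ℝ → kQ j n
  | true, n => nlab B I co M C n
  | false, n => olb B I co M C n

/-- eventually equal families have the same profiles -/
theorem qprof_congr {B : Base} {ι κ : ℕ → Type*} [∀ n, DecidableEq (ι n)] [∀ n, DecidableEq (κ n)]
    {V : Type*} [LE V] {I I' : ∀ n, Finset (ι n)} {f : ∀ n, V → ι n → κ n} {P : Set V} {ν : V → ℝ}
    (h : QProf B I f P ν) (he : ∀ᶠ n in (U : Filter ℕ), I' n = I n) : QProf B I' f P ν where
  up := fun ε hε => by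
    filter_upwards [h.up ε hε, he] with n h1 h2
    rw [h2]; exact h1
  num := fun ε hε => by
    filter_upwards [h.num ε hε, he] with n h1 h2
    rw [h2]; exact h1
  root := fun ε hε => by
    filter_upwards [h.root ε hε, he] with n h1 h2
    rw [h2]; exact h1

open Classical in
theorem exists_twoq (B : Base) {I0 I : ℕ → Finset (ℕ × ℝ)}
    {co : ∀ n : ℕ, ℕ × ℝ → ℕ × ℝ → Fin m → ℝ} {M : Mons m} {C R : ℝ}
    (h : ∀ n, Chart (I0 n) (co n) M C) (hR : 0 ≤ R) (hsub : ∀ n, I n ⊆ I0 n)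
    (hne : ∀ᶠ n in (U : Filter ℕ), (I n).Nonempty)
    (hcard : ∃ c : ℝ, 0 ≤ c ∧ ∀ᶠ n in (U : Filter ℕ), ((I n).card : ℝ) ≤ B.d n ^ (-c)) :
    ∃ (I' : ℕ → Finset (ℕ × ℝ)) (S : ℕ → ℝ), B.Sub S ∧ (∀ n, I' n ⊆ I n) ∧
      (∀ᶠ n in (U : Filter ℕ), I' n ⊆ I n ∧ (I' n).Nonempty ∧
        ((I n).card : ℝ) ≤ S n * (I' n).card ∧ 1 ≤ S n) ∧
      (∃ ν : (Fin m → ℝ) → ℝ, QProf B I' (nlab B I0 co M C) (Leg M R) ν ∧
        (∀ p ∈ Leg M R, ∀ q ∈ Leg M R, |ν p - ν q| ≤ m * ‖p - q‖) ∧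
        (∀ p ∈ Leg M R, ∀ q ∈ Leg M R, p ≤ q → ν q ≤ ν p)) ∧
      ∃ own : (Fin m → ℝ) → ℝ, QProf B I' (olb B I0 co M C) (Leg M R) own ∧
        (∀ p ∈ Leg M R, ∀ q ∈ Leg M R, |own p - own q| ≤ m * ‖p - q‖) ∧
        (∀ p ∈ Leg M R, ∀ q ∈ Leg M R, p ≤ q → own q ≤ own p) := by
  obtain ⟨c, hc, hC⟩ := hcard
  have hleg : ∀ p ∈ Leg M R, Legal M p := fun p hp => hp.1
  have hq : QFam B I (nlab B I0 co M C) m (Leg M R) :=
    (net_QFam (B := B) h hleg).mono (Eventually.of_forall hsub) Set.Subset.rfl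
  have ho : QFam B I (olb B I0 co M C) m (Leg M R) := prod_QFam hq (fun n x => x.1)
  obtain ⟨I', S, hS, hb, hJ⟩ := exists_qprof_many (B := B) (I := I) (J := Bool) (m := fun _ => m)
    (κ := kQ) (f := fQ B I0 co M C) (K := fun _ => (m : ℝ)) (fun _ => Nat.cast_nonneg m)
    (P := fun _ => Leg M R) (fun _ => snet_Leg M hR)
    (fun _ => isCompact_Leg M R) (fun _ p hp q hq => Leg.sup hp hq)
    (fun j => by
      cases j
      · exact ho
      · exact hq) hne hc hC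
  obtain ⟨ν, hν, hν1, hν2⟩ := hJ true
  obtain ⟨own, ho1, ho2, ho3⟩ := hJ false
  have he : ∀ᶠ n in (U : Filter ℕ), (if I' n ⊆ I n then I' n else ∅) = I' n := by
    filter_upwards [hb] with n hn
    rw [if_pos hn.1]
  refine ⟨fun n => if I' n ⊆ I n then I' n else ∅, S, hS, ?_, ?_, ⟨ν, qprof_congr hν he, hν1, hν2⟩,
    own, qprof_congr ho1 he, ho2, ho3⟩
  · intro n
    dsimp only
    split_ifs with h1
    · exact h1
    · exact empty_subset _
  · filter_upwards [hb] with n hn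
    simp only [if_pos hn.1]
    exact hn

/-- fewer values of a coarser function -/
theorem card_image_of_coarse {α β γ : Type*} [DecidableEq β] [DecidableEq γ] {A : Finset α}
    {f : α → β} {f' : α → γ} (h : ∀ x ∈ A, ∀ y ∈ A, f' x = f' y → f x = f y) :
    (A.image f).card ≤ (A.image f').card := by
  classical
  rcases A.eq_empty_or_nonempty with h0 | ⟨x0, hx0⟩
  · rw [h0]; simp
  haveI : Nonempty α := ⟨x0⟩
  have hex : ∀ b ∈ A.image f, ∃ x ∈ A, f x = b := fun b hb => by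
    obtain ⟨x, hx, e⟩ := mem_image.1 hb
    exact ⟨x, hx, e⟩
  choose! φ h1 h2 using hex
  refine card_le_card_of_injOn (fun b => f' (φ b)) (fun b hb => ?_) (fun b hb c hc e => ?_)
  · have := h1 b (by exact_mod_cast hb)
    exact_mod_cast mem_image_of_mem f' this
  · have hb' : b ∈ A.image f := by exact_mod_cast hb
    have hc' : c ∈ A.image f := by exact_mod_cast hc
    have := h (φ b) (h1 b hb') (φ c) (h1 c hc') e
    rw [h2 b hb', h2 c hc'] at this
    exact this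

section cnt

variable {B : Base} {I0 I : ℕ → Finset (ℕ × ℝ)} {co : ∀ n : ℕ, ℕ × ℝ → ℕ × ℝ → Fin m → ℝ}
  {M : Mons m} {C R : ℝ}

open Classical in
/-- number of labels from the number of classes of a function whose classes are near -/
theorem labels_of {κ : Type*} [DecidableEq κ] (h : ∀ n, Chart (I0 n) (co n) M C) (hR : 0 ≤ R)
    (hsub : ∀ n, I n ⊆ I0 n) {p : Fin m → ℝ} (hp : p ∈ Leg M R) {η e : ℝ} (hη : 0 ≤ η)
    {η' : ℕ → Type*} [∀ n, DecidableEq (η' n)] (g : ∀ n, ℕ × ℝ → η' n)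
    (h1 : ∀ᶠ n in (U : Filter ℕ), ∀ x ∈ I0 n, ∀ y ∈ I0 n, g n y = g n x →
      ∀ k, |co n x y k| ≤ B.d n ^ (p k - η) ∧ |co n x y k| ≤ 1)
    (h2 : ∀ᶠ n in (U : Filter ℕ), (((I n).image (g n)).card : ℝ) ≤ (I n).card * B.d n ^ e)
    (f : ℕ → ℕ × ℝ → κ) (hf : ∀ n, ∀ x ∈ I0 n, ∀ y ∈ I0 n, g n y = g n x →
      nlab B I0 co M C n p y = nlab B I0 co M C n p x → f n y = f n x) {ε : ℝ} (hε : 0 < ε) :
    ∀ᶠ n in (U : Filter ℕ), (((I n).image (f n)).card : ℝ) ≤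
      (I n).card * B.d n ^ (e - WS M * η - ε) := by
  have hcN : 0 < cN M C 1 := cN_pos M (h 0).C0 le_rfl
  filter_upwards [h1, h2, B.ev_const_log (Real.log (cN M C 1)) hε] with n a1 a2 a3
  have b1 : ∀ x ∈ I n, (((cls (I n) (g n) x).image (f n)).card : ℝ) ≤
      cN M C 1 * B.d n ^ (-(WS M * η)) := by
    intro x hx
    have c1 := near_labels (B := B) h hR hp hη (n := n) (hsub n hx) (cls (I n) (g n) x)
      ((cls_subset _ _ _).trans (hsub n)) (fun y hy => by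
        obtain ⟨y1, y2⟩ := mem_cls.1 hy
        exact a1 x (hsub n hx) y (hsub n y1) y2)
    refine le_trans ?_ c1
    have c2 := card_image_of_coarse (A := cls (I n) (g n) x) (f := f n)
      (f' := nlab B I0 co M C n p) (fun y hy z hz e => by
        obtain ⟨y1, y2⟩ := mem_cls.1 hy
        obtain ⟨z1, z2⟩ := mem_cls.1 hz
        exact hf n z (hsub n z1) y (hsub n y1) (y2.trans z2.symm) e)
    exact_mod_cast c2
  have b2 := card_image_le_mul (I n) (f n) (g n) b1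
  refine b2.trans ?_
  have b3 : cN M C 1 ≤ B.d n ^ (-ε) := by
    rw [← B.exp_eq, ← Real.log_le_iff_le_exp hcN]
    exact a3
  calc cN M C 1 * B.d n ^ (-(WS M * η)) * (((I n).image (g n)).card : ℝ)
      ≤ B.d n ^ (-ε) * B.d n ^ (-(WS M * η)) * ((I n).card * B.d n ^ e) := by
        refine mul_le_mul (mul_le_mul_of_nonneg_right b3 (dpow_pos B n _).le) a2
          (Nat.cast_nonneg _) ?_
        exact mul_nonneg (dpow_pos B n _).le (dpow_pos B n _).le
    _ = (I n).card * B.d n ^ (e - WS M * η - ε) := by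
        rw [mul_left_comm, ← dpow_add, ← dpow_add]
        congr 2; ring

end cnt

/-- a rational level slightly below -/
theorem exists_low {v ε : ℝ} (h0 : 0 ≤ v) (h1 : v ≤ 1) (hε : 0 < ε) :
    ∃ u : ℚ, 0 ≤ u ∧ u ≤ 1 ∧ (u : ℝ) ≤ v ∧ v - ε ≤ u ∧ ((u : ℝ) < v ∨ u = 0) := by
  rcases h0.eq_or_lt with h | h
  · refine ⟨0, le_rfl, zero_le_one, by simpa using h0, by simp; linarith, Or.inr rfl⟩
  · obtain ⟨u, hu1, hu2⟩ := exists_rat_btwn (show max 0 (v - ε) < v from max_lt h (by linarith))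
    refine ⟨u, ?_, ?_, hu2.le, (le_max_right _ _).trans hu1.le, Or.inl hu2⟩
    · exact_mod_cast (le_max_left _ _).trans hu1.le
    · exact_mod_cast (hu2.le.trans h1)

/-- a rational level slightly above -/
theorem exists_high {v ε : ℝ} (h0 : 0 ≤ v) (h1 : v < 1) (hε : 0 < ε) :
    ∃ u : ℚ, 0 ≤ u ∧ u < 1 ∧ v ≤ u ∧ (u : ℝ) ≤ v + ε := by
  obtain ⟨u, hu1, hu2⟩ := exists_rat_btwn (show v < min 1 (v + ε) from lt_min h1 (by linarith))
  refine ⟨u, ?_, ?_, hu1.le, (hu2.le.trans (min_le_right _ _))⟩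
  · exact_mod_cast h0.trans hu1.le
  · exact_mod_cast hu2.trans_le (min_le_left _ _)

section mk

variable {σ κ : Type*} {B : Base} {I : ℕ → Finset (ℕ × ℝ)} {G : Geo σ κ} {lev : ℕ → ℚ → ℕ}
    {A : ℕ → ℝ} {g s : ℝ} {τ : κ → ℝ → ℝ} {f : ℕ → ℚ → ℕ → ℤ → ℕ} {b : ℕ → ℚ → ℕ → σ}
    {vm : ℕ → ℚ → ℝ} {w : κ → ℕ → ℚ → ℝ}
    {co : ∀ n : ℕ, ℕ × ℝ → ℕ × ℝ → Fin m → ℝ} {M : Mons m} {C R : ℝ} {kz : Fin m} {w0 : ℝ}
    {N0 : ℕ → ℝ} {PD : Set (Fin m → ℝ)} {D : (Fin m → ℝ) → ℝ} {r o : ℝ → Fin m → ℝ} {E : ℝ → ℝ}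
    {T : Fin m → Prop}

/-- points with close heights lie in neighbouring cells of a slightly coarser level -/
theorem near_cells (h : PreQ B I G lev A g s τ f b vm w co M C R kz w0 N0 PD D r o E T)
    {v : ℝ} {u : ℚ} (hu0 : 0 ≤ u) (hu1 : u ≤ 1) (hu : (u : ℝ) < v ∨ u = 0) {K : ℝ} (hK : 0 < K) :
    ∀ᶠ n in (U : Filter ℕ), ∀ x ∈ I n, ∀ y ∈ I n, |co n x y kz| ≤ K * B.d n ^ (w0 + v) →
      |zc (lev n u) y.2 - zc (lev n u) x.2| ≤ 1 := by
  rcases hu with hu | hu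
  · have h1 := h.mka.lev_lim 0 u le_rfl hu0 hu1
    rw [Rat.cast_zero, sub_zero] at h1
    have hη : 0 < (v - u) / 2 := by linarith
    have h2 : ∀ᶠ n in (U : Filter ℕ), ((lev n u : ℝ) - lev n 0) * Real.log 2 / B.L n <
        u + (v - u) / 2 := (tendsto_order.1 h1).2 _ (by linarith)
    filter_upwards [h2, h.mka.lev_mono 0 u le_rfl hu0 hu1, B.ev_const_log (Real.log K) hη]
      with n a1 a2 a3 x hx y hy hxy
    have hL := B.L_pos n
    rw [div_lt_iff₀ hL] at a1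
    rw [h.zco n x hx y hy, abs_mul, abs_of_pos (dpow_pos B n w0), dpow_add] at hxy
    have e1 : |(y.2 - x.2) * 2 ^ (lev n 0)| ≤ K * B.d n ^ v := by
      have := dpow_pos B n w0
      rw [mul_left_comm] at hxy
      exact le_of_mul_le_mul_left hxy this
    have e2 : |(2 : ℝ) ^ (lev n u) * y.2 - 2 ^ (lev n u) * x.2| ≤ 1 := by
      have e3 : (2 : ℝ) ^ (lev n u) * y.2 - 2 ^ (lev n u) * x.2 =
          2 ^ (lev n u - lev n 0) * ((y.2 - x.2) * 2 ^ (lev n 0)) := by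
        have : (2 : ℝ) ^ (lev n u) = 2 ^ (lev n u - lev n 0) * 2 ^ (lev n 0) := by
          rw [← pow_add]; congr 1; omega
        rw [this]; ring
      rw [e3, abs_mul, abs_of_pos (by positivity : (0 : ℝ) < 2 ^ (lev n u - lev n 0))]
      have e4 : (2 : ℝ) ^ (lev n u - lev n 0) ≤ B.d n ^ (-(u + (v - u) / 2)) := by
        rw [Crest.Agent.R138.L15.two_pow_eq, ← B.exp_eq, Real.exp_le_exp, Nat.cast_sub a2]
        exact a1.le
      calc (2 : ℝ) ^ (lev n u - lev n 0) * |(y.2 - x.2) * 2 ^ (lev n 0)|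
          ≤ B.d n ^ (-(u + (v - u) / 2)) * (K * B.d n ^ v) :=
            mul_le_mul e4 e1 (abs_nonneg _) (dpow_pos B n _).le
        _ = K * B.d n ^ ((v - u) / 2) := by
            rw [mul_left_comm, ← dpow_add]; congr 2; ring
        _ ≤ B.d n ^ (-((v - u) / 2)) * B.d n ^ ((v - u) / 2) := by
            refine mul_le_mul_of_nonneg_right ?_ (dpow_pos B n _).le
            rw [← B.exp_eq, ← Real.log_le_iff_le_exp hK]
            exact a3
        _ = 1 := by rw [← dpow_add]; simp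
    have f1 : (zc (lev n u) y.2 : ℝ) ≤ 2 ^ (lev n u) * y.2 := Int.floor_le _
    have f2 : (2 : ℝ) ^ (lev n u) * y.2 < zc (lev n u) y.2 + 1 := Int.lt_floor_add_one _
    have f3 : (zc (lev n u) x.2 : ℝ) ≤ 2 ^ (lev n u) * x.2 := Int.floor_le _
    have f4 : (2 : ℝ) ^ (lev n u) * x.2 < zc (lev n u) x.2 + 1 := Int.lt_floor_add_one _
    rw [abs_le] at e2
    have g1 : ((zc (lev n u) y.2 - zc (lev n u) x.2 : ℤ) : ℝ) < 2 := by push_cast; linarith
    have g2 : (-2 : ℝ) < ((zc (lev n u) y.2 - zc (lev n u) x.2 : ℤ) : ℝ) := by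
      push_cast; linarith
    have g1' : zc (lev n u) y.2 - zc (lev n u) x.2 < 2 := by exact_mod_cast g1
    have g2' : -2 < zc (lev n u) y.2 - zc (lev n u) x.2 := by exact_mod_cast g2
    rw [abs_le]
    constructor <;> omega
  · subst hu
    filter_upwards [h.mka.cell0] with n hn x hx y hy _
    rw [hn x hx y hy, sub_self, abs_zero]
    norm_num

/-- at most three cells -/
theorem three_cells {u : ℕ} {x : ℕ × ℝ} {A : Finset (ℕ × ℝ)}
    (h : ∀ y ∈ A, y.1 = x.1 ∧ |zc u y.2 - zc u x.2| ≤ 1) : (A.image (lc u)).card ≤ 3 := by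
  have h1 : A.image (lc u) ⊆ (Finset.Icc (zc u x.2 - 1) (zc u x.2 + 1)).image
      fun c => (x.1, c) := by
    intro c hc
    obtain ⟨y, hy, rfl⟩ := mem_image.1 hc
    obtain ⟨y1, y2⟩ := h y hy
    rw [mem_image]
    refine ⟨zc u y.2, ?_, ?_⟩
    · rw [abs_le] at y2
      rw [mem_Icc]
      constructor <;> linarith [y2.1, y2.2]
    · unfold lc; rw [y1]
  refine (card_le_card h1).trans (card_image_le.trans ?_)
  rw [Int.card_Icc]
  have : zc u x.2 + 1 + 1 - (zc u x.2 - 1) = 3 := by ring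
  rw [this]
  rfl

end mk

end Crest.Agent.R136.Lq196
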