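import Crest.Agent.R136.Fe1_355
import Crest.Agent.R136.Fe2_355
import Crest.Agent.R136.Lf1_400

/-!
# R136, T.L, ending (Vis), F-half (helper831)

`NA` : model of a window with level slots `{z, F_a}`; `R`, `F_b` dropped (big constants), the own
motion of `E` invisible.

* `NA.xa` : `X_a` is full;
* `NA.leaf` : `E` costs nothing up to `j` or the loss of `X_b` by `x` is `≥ x - j`;
* `NA.xb` : if `C_b` costs something given `E`, then `X_b` is full given `E`;
* `NA.shiftN` : loss of `X_a` given the rest `≤` loss of `N` given the rest (raw twist of `F_a`).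
-/

set_option autoImplicit false
set_option linter.unusedVariables false
set_option linter.unusedSectionVars false

open Filter Topology Finset

namespace Crest.Agent.R136.Lv831

open Crest.Agent.R138.Ex926 (Base U)
open Crest.Agent.R136.Gf356
open Crest.Agent.R136.Fe1355
open Crest.Agent.R136.Fe2355

/-- box vector: `E, C_a, C_b, P, X_a, X_b, N` -/
def bw (e ca cb p xa xb n : ℝ) : Fin 11 → ℝ := ![0, 0, e, 0, 0, ca, cb, p, xa, xb, n]

/-- evolution of the relative coordinates, error `δ` -/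
structure EvA (δ u φ : ℝ) (r r' : Fin 11 → ℝ) : Prop where
  e2 : |r' 2 - r 2| ≤ δ
  e5 : |r' 5 - r 5| ≤ δ
  e6 : |r' 6 - r 6| ≤ δ
  e7 : |r' 7 - (r 7 - φ * r 5)| ≤ δ
  e8 : |r' 8 - (r 8 + u * r 5)| ≤ δ
  e9 : |r' 9 - (r 9 + u * r 6)| ≤ δ
  e10 : |r' 10 - (r 10 + u * r 7 - φ * (r 8 + u * r 5))| ≤ δ

/-- composition of the relative coordinates at one height, error `δ` -/
structure CoA (δ : ℝ) (b c g : Fin 11 → ℝ) : Prop where
  c8 : |g 8 - b 8 - c 8| ≤ δ
  c9 : |g 9 - b 9 - c 9 - b 2 * c 8| ≤ δ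

/-- **window with level slots `{z, F_a}`** -/
structure NA (B : Base) (G : ℕ → RCfg (Fin 11)) (Leg : Set (Fin 11 → ℝ))
    (ν : (Fin 11 → ℝ) → ℝ) (T D : ℝ) (F : ℕ → ℕ → ℝ) : Prop where
  H : RModel B G 1 T Leg ν D
  T0 : 0 < T
  leg : ∀ e ca cb p xa xb n : ℝ, 0 ≤ e → e ≤ T → 0 ≤ ca → ca ≤ T →
    0 ≤ cb → cb ≤ T → 0 ≤ p → p ≤ T → 0 ≤ xa → xa ≤ T → 0 ≤ xb → xb ≤ T → 0 ≤ n → n ≤ T →
    cb ≤ e + ca → xb ≤ e + xa → bw e ca cb p xa xb n ∈ Leg
  zb : ∀ ε : ℝ, 0 < ε → ∀ᶠ n in (U : Filter ℕ), ∀ k ∈ (G n).Z, ∀ k' ∈ (G n).Z,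
    |(G n).z k' - (G n).z k| ≤ B.d n ^ (-ε) ∧ |F n k' - F n k| ≤ B.d n ^ (-ε)
  rb : ∀ ε : ℝ, 0 < ε → ∀ᶠ n in (U : Filter ℕ), ∀ k i l, (i, k) ∈ (G n).I →
    (l, k) ∈ (G n).I → ∀ s, |(G n).rel k i l s| ≤ B.d n ^ (-ε)
  ev : ∀ ε : ℝ, 0 < ε → ∀ᶠ n in (U : Filter ℕ), ∀ k k' i l, (i, k) ∈ (G n).I →
    (l, k) ∈ (G n).I → (i, k') ∈ (G n).I → (l, k') ∈ (G n).I →
    EvA (B.d n ^ (T - ε)) ((G n).z k' - (G n).z k) (F n k' - F n k) ((G n).rel k i l)
      ((G n).rel k' i l)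
  co : ∀ ε : ℝ, 0 < ε → ∀ᶠ n in (U : Filter ℕ), ∀ k i l l', (i, k) ∈ (G n).I →
    (l, k) ∈ (G n).I → (l', k) ∈ (G n).I →
    CoA (B.d n ^ (T - ε)) ((G n).rel k i l) ((G n).rel k l l') ((G n).rel k i l')

variable {B : Base} {G : ℕ → RCfg (Fin 11)} {Leg : Set (Fin 11 → ℝ)} {ν : (Fin 11 → ℝ) → ℝ}
  {T D : ℝ} {F : ℕ → ℕ → ℝ}

theorem bx2_X (p : Fin 11 → ℝ) (e ca cb pp xa xb n x c : ℝ)
    (hp : p = bw e ca cb pp xa xb n) :
    Fx940.bx2 p 8 5 x c = bw e c cb pp x xb n := by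
  subst hp
  funext j
  fin_cases j <;> simp [Fx940.bx2, bw]

theorem bx2_Y (p : Fin 11 → ℝ) (e ca cb pp xa xb n x c : ℝ)
    (hp : p = bw e ca cb pp xa xb n) :
    Fx940.bx2 p 9 6 x c = bw e ca c pp xa x n := by
  subst hp
  funext j
  fin_cases j <;> simp [Fx940.bx2, bw]

theorem lbx (u v w : ℝ) : Lf400.bx (bw 0 0 0 0 0 0 0) 8 2 9 u v w = bw v 0 0 0 u w 0 := by
  funext j
  fin_cases j <;> simp [Lf400.bx, bw]

theorem bw_zero (j : Fin 11) : bw 0 0 0 0 0 0 0 j = 0 := by fin_cases j <;> simp [bw]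

theorem bw_le {e ca cb p xa xb n e' ca' cb' p' xa' xb' n' : ℝ} (h1 : e ≤ e') (h2 : ca ≤ ca')
    (h3 : cb ≤ cb') (h4 : p ≤ p') (h5 : xa ≤ xa') (h6 : xb ≤ xb') (h7 : n ≤ n') :
    ∀ j, bw e ca cb p xa xb n j ≤ bw e' ca' cb' p' xa' xb' n' j := by
  intro j
  fin_cases j <;> simp [bw, *]

namespace NA

variable (h : NA B G Leg ν T D F)

include h

/-- **`X_a` is full** -/
theorem xa {y c : ℝ} (hy : 0 < y) (hyT : y ≤ T) (hc : 0 < c)
    (hs : ∀ t : ℝ, 0 ≤ t → t ≤ y →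
      c * t ≤ ν (bw 0 0 0 0 t 0 0) - ν (bw 0 t 0 0 t 0 0))
    (hl : ∀ t : ℝ, 0 ≤ t → t ≤ y →
      ν (bw 0 0 0 0 t 0 0) - ν (bw 0 0 0 0 y 0 0) ≤ y - t) :
    y ≤ ν (bw 0 0 0 0 0 0 0) - ν (bw 0 0 0 0 y 0 0) := by
  have hT := h.T0
  have L : ∀ t t' : ℝ, 0 ≤ t → t ≤ T → 0 ≤ t' → t' ≤ T → bw 0 t' 0 0 t 0 0 ∈ Leg :=
    fun t t' h1 h2 h3 h4 => h.leg 0 t' 0 0 t 0 0 le_rfl hT.le h3 h4 le_rfl hT.le
      le_rfl hT.le h1 h2 le_rfl hT.le le_rfl hT.le (by linarith) (by linarith)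
  have e0 : ∀ x c : ℝ, Fx940.bx2 (bw 0 0 0 0 0 0 0) 8 5 x c = bw 0 c 0 0 x 0 0 :=
    fun x c => bx2_X _ 0 0 0 0 0 0 0 x c rfl
  have key := full_nl_R h.H (sX := 8) (sC := 5) (by decide) (p := bw 0 0 0 0 0 0 0)
    (bw_zero 8) (bw_zero 5) (y := y) (C := 1) (m := c) hy hyT one_pos hc
    (L 0 0 le_rfl hT.le le_rfl hT.le)
    (by rw [e0]; exact L y 0 hy.le hyT le_rfl hT.le)
    (by intro t h1 h2; rw [e0]; exact L t t h1 (h2.trans hyT) h1 (h2.trans hyT))
    (by
      intro C' hC'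
      refine ⟨1, one_pos, fun ε hε => ?_⟩
      filter_upwards [h.rb ε hε] with n hn k k' i l h1 h2 h3 h4 hlo j
      rw [h.H.base n]
      refine (hn k' i l h3 h4 j).trans (rpow_anti B n ?_)
      rw [bw_zero]; linarith)
    (by
      intro ε hε
      filter_upwards [h.zb ε hε] with n hn k hk k' hk'
      rw [one_mul]
      exact (hn k hk k' hk').1)
    (by
      intro C' hC'
      refine ⟨1, one_pos, fun ε hε => ?_⟩
      filter_upwards [h.ev ε hε] with n hn k k' i l h1 h2 h3 h4 hlo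
      refine (hn k k' i l h1 h2 h3 h4).e8.trans (rpow_anti B n (by linarith)))
    (by
      intro t h1 h2
      refine ⟨ν (bw 0 0 0 0 t 0 0), ?_, ?_, ?_⟩
      · rw [e0]; exact hs t h1 h2
      · rw [e0]; exact hl t h1 h2
      · exact h.H.nu_anti (L 0 0 le_rfl hT.le le_rfl hT.le)
          (L t 0 h1 (h2.trans hyT) le_rfl hT.le)
          (bw_le le_rfl le_rfl le_rfl le_rfl h1 le_rfl le_rfl))
  rwa [e0] at key

/-- **`X_b` is full given `E`** if `C_b` costs something given `E` -/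
theorem xb {y c : ℝ} (hy : 0 < y) (hyT : y ≤ T) (hc : 0 < c)
    (hs : ∀ t : ℝ, 0 ≤ t → t ≤ y →
      c * t ≤ ν (bw y 0 0 0 0 t 0) - ν (bw y 0 t 0 0 t 0))
    (hl : ∀ t : ℝ, 0 ≤ t → t ≤ y →
      ν (bw y 0 0 0 0 t 0) - ν (bw y 0 0 0 0 y 0) ≤ y - t) :
    y ≤ ν (bw y 0 0 0 0 0 0) - ν (bw y 0 0 0 0 y 0) := by
  have hT := h.T0
  have L : ∀ t t' : ℝ, 0 ≤ t → t ≤ y → 0 ≤ t' → t' ≤ y → bw y 0 t' 0 0 t 0 ∈ Leg :=
    fun t t' h1 h2 h3 h4 => h.leg y 0 t' 0 0 t 0 hy.le hyT le_rfl hT.le h3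
      (h4.trans hyT) le_rfl hT.le le_rfl hT.le h1 (h2.trans hyT) le_rfl hT.le (by linarith)
      (by linarith)
  have e0 : ∀ x c : ℝ, Fx940.bx2 (bw y 0 0 0 0 0 0) 9 6 x c = bw y 0 c 0 0 x 0 :=
    fun x c => bx2_Y _ y 0 0 0 0 0 0 x c rfl
  have key := full_nl_R h.H (sX := 9) (sC := 6) (by decide) (p := bw y 0 0 0 0 0 0)
    (by simp [bw]) (by simp [bw]) (y := y) (C := 1) (m := c) hy hyT one_pos hc
    (L 0 0 le_rfl hy.le le_rfl hy.le)
    (by rw [e0]; exact L y 0 hy.le le_rfl le_rfl hy.le)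
    (by intro t h1 h2; rw [e0]; exact L t t h1 h2 h1 h2)
    (by
      intro C' hC'
      refine ⟨C' + 2, by positivity, fun ε hε => ?_⟩
      filter_upwards [h.rb ε hε, h.ev ε hε, ev_const_le B hε 2]
        with n hn he h2c k k' i l h1 h2 h3 h4 hlo j
      have hC'ε : 0 < C' * ε := by positivity
      rw [h.H.base n]
      by_cases hj : j = 2
      · subst hj
        have a1 := hlo 2
        rw [h.H.base n] at a1
        have a2 : bw y 0 0 0 0 0 0 2 = y := by simp [bw]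
        rw [a2] at a1 ⊢
        have a3 := (he k k' i l h1 h2 h3 h4).e2
        have a4 : |(G n).rel k' i l 2| ≤ B.d n ^ (y - C' * ε) + B.d n ^ (T - ε) := by
          have e : (G n).rel k' i l 2 = ((G n).rel k' i l 2 - (G n).rel k i l 2) +
              (G n).rel k i l 2 := by ring
          rw [e]
          have := abs_add_le ((G n).rel k' i l 2 - (G n).rel k i l 2) ((G n).rel k i l 2)
          linarith
        have a5 : B.d n ^ (T - ε) ≤ B.d n ^ (y - (C' + 1) * ε) := rpow_anti B n (by nlinarith)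
        have a6 : B.d n ^ (y - C' * ε) ≤ B.d n ^ (y - (C' + 1) * ε) :=
          rpow_anti B n (by nlinarith)
        have a7 : B.d n ^ (y - (C' + 2) * ε) = B.d n ^ (-ε) * B.d n ^ (y - (C' + 1) * ε) := by
          rw [← rpow_add']; congr 1; ring
        rw [a7]
        have := rpos B n (y - (C' + 1) * ε)
        nlinarith
      · refine (hn k' i l h3 h4 j).trans (rpow_anti B n ?_)
        have : bw y 0 0 0 0 0 0 j = 0 := by
          fin_cases j <;> simp [bw] at hj ⊢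
        rw [this]; nlinarith)
    (by
      intro ε hε
      filter_upwards [h.zb ε hε] with n hn k hk k' hk'
      rw [one_mul]
      exact (hn k hk k' hk').1)
    (by
      intro C' hC'
      refine ⟨1, one_pos, fun ε hε => ?_⟩
      filter_upwards [h.ev ε hε] with n hn k k' i l h1 h2 h3 h4 hlo
      refine (hn k k' i l h1 h2 h3 h4).e9.trans (rpow_anti B n (by linarith)))
    (by
      intro t h1 h2
      refine ⟨ν (bw y 0 0 0 0 t 0), ?_, ?_, ?_⟩
      · rw [e0]; exact hs t h1 h2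
      · rw [e0]; exact hl t h1 h2
      · exact h.H.nu_anti (L 0 0 le_rfl hy.le le_rfl hy.le)
          (L t 0 h1 h2 le_rfl hy.le)
          (bw_le le_rfl le_rfl le_rfl le_rfl le_rfl h1 le_rfl))
  rwa [e0] at key

/-- **crossing leaves**: `E : j` costs nothing or `X_b` loses at least `x - j` -/
theorem leaf {x j : ℝ} (hj : 0 ≤ j) (hjx : j ≤ x) (hxT : x ≤ T)
    (hX : x ≤ ν (bw x 0 0 0 0 x 0) - ν (bw x 0 0 0 x x 0)) :
    ν (bw 0 0 0 0 x x 0) ≤ ν (bw j 0 0 0 x x 0) ∨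
      x + ν (bw 0 0 0 0 x x 0) ≤
        ν (bw 0 0 0 0 0 0 0) - ν (bw x 0 0 0 0 x 0) + ν (bw x 0 0 0 (x - j) x 0) := by
  have hT := h.T0
  have hx : 0 ≤ x := hj.trans hjx
  have L : ∀ v u w : ℝ, 0 ≤ v → v ≤ x → 0 ≤ u → u ≤ x → 0 ≤ w → w ≤ x → w ≤ v + u →
      bw v 0 0 0 u w 0 ∈ Leg := by
    intro v u w h1 h2 h3 h4 h5 h6 h7
    exact h.leg v 0 0 0 u w 0 h1 (h2.trans hxT) le_rfl hT.le le_rfl hT.le le_rfl
      hT.le h3 (h4.trans hxT) h5 (h6.trans hxT) le_rfl hT.le (by linarith) h7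
  have key := Lf400.leaf_R h.H.toRUnif (bw 0 0 0 0 0 0 0) (sX := 8) (sF := 2) (sN := 9)
    (by decide) (by decide) (by decide) hj hjx
    (by rw [lbx]; exact L 0 0 0 le_rfl hx le_rfl hx le_rfl hx (by linarith))
    (by rw [lbx]; exact L x 0 x hx le_rfl le_rfl hx hx le_rfl (by linarith))
    (by rw [lbx]; exact L x x x hx le_rfl hx le_rfl hx le_rfl (by linarith))
    (by rw [lbx]; exact L 0 x x le_rfl hx hx le_rfl hx le_rfl (by linarith))
    (by rw [lbx]; exact L j 0 j hj hjx le_rfl hx hj hjx (by linarith))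
    (by rw [lbx]; exact L j x x hj hjx hx le_rfl hx le_rfl (by linarith))
    (by rw [lbx]; exact L x (x - j) x hx le_rfl (by linarith) (by linarith) hx le_rfl
          (by linarith))
    (fun _ => 1)
    (by
      intro ε hε
      refine Filter.Eventually.of_forall fun n => ?_
      rw [abs_one]
      refine ⟨?_, ?_⟩
      · have := rpow_anti B n hε.le
        rwa [Real.rpow_zero] at this
      · have := rpow_anti B n (show -ε ≤ 0 by linarith)
        rwa [Real.rpow_zero] at this)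
    (C1 := 1) le_rfl
    (by
      intro ε hε
      filter_upwards [h.co ε hε] with n hn k i l l' h1 h2 h3 _ _
      refine (hn k i l l' h1 h2 h3).c8.trans (rpow_anti B n (by linarith)))
    (by
      intro ε hε
      filter_upwards [h.co ε hε] with n hn k i l l' h1 h2 h3 _ _
      rw [one_mul]
      refine (hn k i l l' h1 h2 h3).c9.trans (rpow_anti B n (by linarith)))
  rw [lbx, lbx, lbx, lbx, lbx, lbx] at key
  rcases key with h1 | h1
  · left; linarith
  · right; linarith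

/-- **visible shift**: loss of `X_a` given the rest is at most the loss of `N` given the rest -/
theorem shiftN {y : ℝ} (hy : 0 < y) (hyT : y ≤ T)
    (htw : RawTw B G fun n k k' => F n k' - F n k) :
    ν (bw y y y y 0 y y) - ν (bw y y y y y y y) ≤
      ν (bw y y y y 0 y 0) - ν (bw y y y y 0 y y) := by
  have hT := h.T0
  have L : ∀ a b : ℝ, 0 ≤ a → a ≤ y → 0 ≤ b → b ≤ y → bw y y y y a y b ∈ Leg := by
    intro a b h1 h2 h3 h4
    exact h.leg y y y y a y b hy.le hyT hy.le hyT hy.le hyT hy.le hyT h1 (h2.trans hyT) hy.le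
      hyT h3 (h4.trans hyT) (by linarith) (by linarith)
  have htw' : RawTw B G fun n k k' => -(F n k' - F n k) := by
    intro ε hε
    filter_upwards [htw ε hε] with n hn i hi T hT hT2
    exact hn i hi T hT fun q hq => by
      have := hT2 q hq
      rwa [abs_neg] at this
  refine shift_R h.H (bw y y y y 0 y y) (bw y y y y y y y) (bw y y y y 0 y 0)
    (bw y y y y 0 y y) (L 0 y le_rfl hy.le hy.le le_rfl) (L y y hy.le le_rfl hy.le le_rfl)
    (L 0 0 le_rfl hy.le le_rfl hy.le) (L 0 y le_rfl hy.le hy.le le_rfl)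
    (bw_le le_rfl le_rfl le_rfl le_rfl le_rfl le_rfl hy.le) 8 10 (y := y) (by simp [bw])
    (by
      intro j hj
      fin_cases j <;> simp [bw] at hj ⊢) (by simp [bw]) _ htw' ?_
  intro C0 hC0
  refine ⟨C0 + 4, by positivity, fun ε hε => ?_⟩
  filter_upwards [h.rb ε hε, h.ev ε hε, h.zb ε hε, ev_const_le B hε 4]
    with n hn he hz h4c k hk k' hk' i i' h1 h2 h3 h4 hlo
  have hd := fun t : ℝ => rpos B n t
  have hC0ε : 0 < C0 * ε := by positivity
  have b := he k k' i i' h1 h3 h2 h4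
  obtain ⟨z1, z2⟩ := hz k hk k' hk'
  set u := (G n).z k' - (G n).z k with hu
  set φ := F n k' - F n k with hφ
  have hl : ∀ j, bw y y y y 0 y y j = y → |(G n).rel k i i' j| ≤ B.d n ^ (y - C0 * ε) := by
    intro j hj
    have := hlo j
    rwa [h.H.base n, hj] at this
  have l2 := hl 2 (by simp [bw])
  have l5 := hl 5 (by simp [bw])
  have l6 := hl 6 (by simp [bw])
  have l7 := hl 7 (by simp [bw])
  have l9 := hl 9 (by simp [bw])
  have l10 := hl 10 (by simp [bw])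
  -- sizes
  have s0 : B.d n ^ (T - ε) ≤ B.d n ^ (y - (C0 + 2) * ε) := rpow_anti B n (by nlinarith)
  have s1 : B.d n ^ (y - C0 * ε) ≤ B.d n ^ (y - (C0 + 2) * ε) := rpow_anti B n (by nlinarith)
  have s2 : B.d n ^ (-ε) * B.d n ^ (y - C0 * ε) ≤ B.d n ^ (y - (C0 + 2) * ε) := by
    rw [← rpow_add']; exact rpow_anti B n (by nlinarith)
  have s3 : B.d n ^ (-ε) * (B.d n ^ (-ε) * B.d n ^ (y - C0 * ε)) ≤
      B.d n ^ (y - (C0 + 2) * ε) := by
    rw [← rpow_add', ← rpow_add']; exact rpow_anti B n (by nlinarith)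
  have s4 : 4 * B.d n ^ (y - (C0 + 2) * ε) ≤ B.d n ^ (y - (C0 + 4) * ε) := by
    have e1 : B.d n ^ (y - (C0 + 4) * ε) = B.d n ^ (-ε) * B.d n ^ (y - (C0 + 3) * ε) := by
      rw [← rpow_add']; congr 1; ring
    rw [e1]
    have e2 : B.d n ^ (y - (C0 + 2) * ε) ≤ B.d n ^ (y - (C0 + 3) * ε) :=
      rpow_anti B n (by nlinarith)
    have := hd (y - (C0 + 3) * ε)
    have := hd (y - (C0 + 2) * ε)
    nlinarith
  have mulb : ∀ a c : ℝ, |a| ≤ B.d n ^ (-ε) → |c| ≤ B.d n ^ (y - C0 * ε) →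
      |a * c| ≤ B.d n ^ (y - (C0 + 2) * ε) := by
    intro a c ha hc
    rw [abs_mul]
    exact (mul_le_mul ha hc (abs_nonneg _) (hd _).le).trans s2
  have hq := hd (y - (C0 + 2) * ε)
  constructor
  · intro j
    rw [h.H.base n]
    by_cases hj0 : bw y y y y 0 y 0 j = 0
    · rw [hj0]
      refine (hn k' i i' h2 h4 j).trans (rpow_anti B n ?_)
      nlinarith
    · have hb : j = 2 ∨ j = 5 ∨ j = 6 ∨ j = 7 ∨ j = 9 := by
        revert hj0
        fin_cases j <;> simp [bw]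
      have hby : bw y y y y 0 y 0 j = y := by
        rcases hb with rfl | rfl | rfl | rfl | rfl <;> simp [bw]
      rw [hby]
      refine le_trans ?_ s4
      rcases hb with rfl | rfl | rfl | rfl | rfl
      · have := b.e2
        have e : (G n).rel k' i i' 2 = ((G n).rel k' i i' 2 - (G n).rel k i i' 2) +
          (G n).rel k i i' 2 := by ring
        rw [e]
        refine (abs_add_le _ _).trans ?_
        linarith
      · have := b.e5
        have e : (G n).rel k' i i' 5 = ((G n).rel k' i i' 5 - (G n).rel k i i' 5) +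
          (G n).rel k i i' 5 := by ring
        rw [e]
        refine (abs_add_le _ _).trans ?_
        linarith
      · have := b.e6
        have e : (G n).rel k' i i' 6 = ((G n).rel k' i i' 6 - (G n).rel k i i' 6) +
          (G n).rel k i i' 6 := by ring
        rw [e]
        refine (abs_add_le _ _).trans ?_
        linarith
      · have := b.e7
        have e : (G n).rel k' i i' 7 = ((G n).rel k' i i' 7 - ((G n).rel k i i' 7 -
          φ * (G n).rel k i i' 5)) + ((G n).rel k i i' 7 - φ * (G n).rel k i i' 5) := by ring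
        rw [e]
        refine (abs_add_le _ _).trans ?_
        have := abs_sub ((G n).rel k i i' 7) (φ * (G n).rel k i i' 5)
        have := mulb φ _ z2 l5
        linarith
      · have := b.e9
        have e : (G n).rel k' i i' 9 = ((G n).rel k' i i' 9 - ((G n).rel k i i' 9 +
          u * (G n).rel k i i' 6)) + ((G n).rel k i i' 9 + u * (G n).rel k i i' 6) := by ring
        rw [e]
        refine (abs_add_le _ _).trans ?_
        have := abs_add_le ((G n).rel k i i' 9) (u * (G n).rel k i i' 6)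
        have := mulb u _ z1 l6
        linarith
  · refine le_trans ?_ s4
    have c1 := mulb u _ z1 l7
    have c2 : |φ * (u * (G n).rel k i i' 5)| ≤ B.d n ^ (y - (C0 + 2) * ε) := by
      rw [abs_mul, abs_mul]
      refine le_trans ?_ s3
      exact mul_le_mul z2 (mul_le_mul z1 l5 (abs_nonneg _) (hd _).le)
        (mul_nonneg (abs_nonneg _) (abs_nonneg _)) (hd _).le
    have e : (G n).rel k' i i' 10 - -φ * (G n).rel k i i' 8 =
        ((G n).rel k' i i' 10 - ((G n).rel k i i' 10 + u * (G n).rel k i i' 7 -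
          φ * ((G n).rel k i i' 8 + u * (G n).rel k i i' 5))) + ((G n).rel k i i' 10 +
        u * (G n).rel k i i' 7) + -(φ * (u * (G n).rel k i i' 5)) := by ring
    rw [e]
    refine (abs_add_le _ _).trans ?_
    rw [abs_neg]
    have a1 := abs_add_le ((G n).rel k' i i' 10 - ((G n).rel k i i' 10 +
      u * (G n).rel k i i' 7 - φ * ((G n).rel k i i' 8 + u * (G n).rel k i i' 5)))
      ((G n).rel k i i' 10 + u * (G n).rel k i i' 7)
    have a2 := abs_add_le ((G n).rel k i i' 10) (u * (G n).rel k i i' 7)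
    have a3 := b.e10
    linarith

end NA

end Crest.Agent.R136.Lv831
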