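import Crest.Agent.R136.Lv1_831
import Crest.Agent.R136.Ev8_356
import Crest.Agent.R136.C2w_400
import Crest.Agent.R136.LdF1_511

/-!
# R136, T.L, ending (Vis): the model `NA` in a window of `AeW` (helper831)

`MaV` : walls of `monQ` without the slots `1`, `3`; `coneV`, `legalV_iff`;
`na_of_wat` : everything from `WAt`, static data `stQ {0, 4} K T MaV`.
-/

set_option autoImplicit false
set_option linter.unusedSectionVars false
set_option linter.unusedVariables false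

open Filter Topology

namespace Crest.Agent.R136.Lv831

open Finset Crest.Agent.R136.NetQ186 Crest.Agent.R136.Net191 Crest.Agent.R136.Qg926
open Crest.Agent.R136.Gf356 Crest.Agent.R136.Ev356 Crest.Agent.R136.Aw413
open Crest.Agent.R136.Wq400 Crest.Agent.R136.Fe1355
open Crest.Agent.R138.Ex926 (Base U)
open Crest.Agent.R136.LdF511 (sm monQ_all W7)

/-- walls without the slots `1`, `3` -/
def MaV : Mons 11 where
  mon := fun k => (monQ.mon k).filter fun e => e 1 = 0 ∧ e 3 = 0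
  low := fun k e he => monQ.low k e (mem_filter.1 he).1
  ne := fun k e he => monQ.ne k e (mem_filter.1 he).1

theorem MaV_sub (k : Fin 11) : MaV.mon k ⊆ monQ.mon k := filter_subset _ _

theorem MaV_all (φ : Fin 11 → (Fin 11 → ℕ) → Prop) : (∀ k, ∀ e ∈ MaV.mon k, φ k e) ↔
    ∀ k, ∀ e ∈ monQ.mon k, (e 1 = 0 ∧ e 3 = 0) → φ k e := by
  constructor
  · intro h k e he he'
    exact h k e (mem_filter.2 ⟨he, he'⟩)
  · intro h k e he
    obtain ⟨h1, h2⟩ := mem_filter.1 he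
    exact h k e h1 h2

local macro "us" h:ident : tactic => `(tactic|
  (have hh := $h:ident ⟨by decide, by decide⟩
   rw [sm] at hh; simp only [Matrix.cons_val] at hh; push_cast at hh; linarith))

/-- **the cone of the walls without `R`, `F_b`** -/
theorem coneV : coneM MaV = W7 := by
  ext c
  show (∀ k, ∀ e ∈ MaV.mon k, c k ≤ ∑ s, (e s : ℝ) * c s) ↔ _
  rw [MaV_all (fun k e => c k ≤ ∑ s, (e s : ℝ) * c s),
    monQ_all (fun k e => (e 1 = 0 ∧ e 3 = 0) → c k ≤ ∑ s, (e s : ℝ) * c s)]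
  constructor
  · rintro ⟨h1, h2, h3, h4, h5, h6, h7, h8, h9, h10, h11, h12, h13, h14, h15, h16, h17, h18⟩
    refine ⟨?_, ?_, ?_, ?_, ?_, ?_, ?_⟩
    · us h2
    · us h4
    · us h7
    · us h8
    · us h9
    · us h11
    · us h13
  · rintro ⟨k1, k2, k3, k4, k5, k6, k7⟩
    refine ⟨?_, ?_, ?_, ?_, ?_, ?_, ?_, ?_, ?_, ?_, ?_, ?_, ?_, ?_, ?_, ?_, ?_, ?_⟩ <;>
      rintro ⟨e1, e2⟩ <;> first
      | exact absurd e1 (by decide)
      | exact absurd e2 (by decide)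
      | (rw [sm]; simp only [Matrix.cons_val]; push_cast; linarith)

theorem legalV_iff {p : Fin 11 → ℝ} : Legal MaV p ↔ (∀ k, 0 ≤ p k) ∧ p ∈ W7 := by
  rw [← coneV]
  exact ⟨fun h => ⟨h.nonneg, h.wall⟩, fun h => ⟨h.1, h.2⟩⟩

/-- the box `bw` with the level slots `z, F_a` at `T` -/
def bwT (T e ca cb p xa xb n : ℝ) : Fin 11 → ℝ := ![T, 0, e, 0, T, ca, cb, p, xa, xb, n]

theorem cut_bw (T e ca cb p xa xb n : ℝ) :
    cut {0, 4} (bw e ca cb p xa xb n) (fun _ => T) = bwT T e ca cb p xa xb n := by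
  funext j
  fin_cases j <;> simp [cut, bw, bwT]

theorem bwT_leg {T e ca cb p xa xb n : ℝ} (hT : 0 ≤ T) (e0 : 0 ≤ e) (e1 : e ≤ T)
    (ca0 : 0 ≤ ca) (ca1 : ca ≤ T) (cb0 : 0 ≤ cb) (cb1 : cb ≤ T)
    (p0 : 0 ≤ p) (p1 : p ≤ T) (xa0 : 0 ≤ xa) (xa1 : xa ≤ T) (xb0 : 0 ≤ xb) (xb1 : xb ≤ T)
    (n0 : 0 ≤ n) (n1 : n ≤ T) (w6 : cb ≤ e + ca) (w9 : xb ≤ e + xa) :
    bwT T e ca cb p xa xb n ∈ Leg MaV T := by
  refine ⟨legalV_iff.2 ⟨?_, ?_, ?_, ?_, ?_, ?_, ?_, ?_⟩, ?_⟩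
  · intro s; fin_cases s <;> simp [bwT] <;> assumption
  · simp [bwT]; linarith
  · simp [bwT]; linarith
  · simp [bwT]; linarith
  · simp [bwT]; linarith
  · simp [bwT]; linarith
  · simp [bwT]; linarith
  · simp [bwT]; linarith
  · intro s; fin_cases s <;> simp [bwT] <;> assumption

/-- **the static data are admissible** -/
theorem stV_ok {K T : ℝ} (hK : 0 < K) (hT : 0 ≤ T) :
    (stQ {0, 4} K T MaV).Ok monQ (coneM MaV) where
  R0 := hT
  leg := leg_cone fun k => Finset.Subset.refl _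
  top_leg := ⟨legalV_iff.2 ⟨fun _ => hT, by
    refine ⟨?_, ?_, ?_, ?_, ?_, ?_, ?_⟩ <;> show T ≤ T + T <;> linarith⟩, fun s => le_rfl⟩
  lin_leg := by
    have e : cut (stQ {0, 4} K T MaV).S (stQ {0, 4} K T MaV).top 0 =
        ![0, T, T, T, 0, T, T, T, T, T, T] := by
      funext j
      fin_cases j <;> simp [cut, stQ]
    rw [e]
    refine ⟨legalV_iff.2 ⟨?_, ?_, ?_, ?_, ?_, ?_, ?_, ?_⟩, ?_⟩
    · intro s; fin_cases s <;> simp <;> exact hT
    all_goals first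
      | (intro s; fin_cases s <;> simp [stQ] <;> exact hT)
      | (simp <;> linarith)
  lev_leg := by
    have e : cut (stQ {0, 4} K T MaV).S 0 (stQ {0, 4} K T MaV).top =
        ![T, 0, 0, 0, T, 0, 0, 0, 0, 0, 0] := by
      funext j
      fin_cases j <;> simp [cut, stQ]
    rw [e]
    refine ⟨legalV_iff.2 ⟨?_, ?_, ?_, ?_, ?_, ?_, ?_, ?_⟩, ?_⟩
    · intro s; fin_cases s <;> simp <;> exact hT
    all_goals first
      | (intro s; fin_cases s <;> simp [stQ] <;> exact hT)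
      | (simp <;> linarith)
  kzS := by show (0 : Fin 11) ∈ ({0, 4} : Finset (Fin 11)); decide
  kz0 := rfl
  kzw := by
    have := MaV_sub 0
    exact Finset.subset_empty.1 this
  kap := kapQ_pos hK

variable {ι : ℕ → Type*} [∀ n, DecidableEq (ι n)] {W : Wnd 11 ι} {f : ∀ n, ι n → Fq4}
  {E : ∀ n, Finset (ι n)} {T K : ℝ}

/-- a window with level slots `{z, F_a}` -/
structure WinV (W : Wnd 11 ι) (K T : ℝ) : Prop where
  kz : W.kz = 0
  S : W.S = {0, 4}
  top : W.top = fun _ => T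
  R' : W.R' = T
  kap : W.kap = kapQ K
  K0 : W.K0 ≤ K
  T0 : 0 < T
  mons : W.Mw = MaV

theorem legW_bw (hw : WinV W K T) {e ca cb p xa xb n : ℝ} (e0 : 0 ≤ e) (e1 : e ≤ T)
    (ca0 : 0 ≤ ca) (ca1 : ca ≤ T) (cb0 : 0 ≤ cb) (cb1 : cb ≤ T)
    (p0 : 0 ≤ p) (p1 : p ≤ T) (xa0 : 0 ≤ xa) (xa1 : xa ≤ T) (xb0 : 0 ≤ xb) (xb1 : xb ≤ T)
    (n0 : 0 ≤ n) (n1 : n ≤ T) (w6 : cb ≤ e + ca) (w9 : xb ≤ e + xa) :
    bw e ca cb p xa xb n ∈ W.legW := by
  have h1 := bwT_leg hw.T0.le e0 e1 ca0 ca1 cb0 cb1 p0 p1 xa0 xa1 xb0 xb1 n0 n1 w6 w9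
  refine ⟨?_, fun s hs => ?_⟩
  · rw [hw.S, hw.top, cut_bw, hw.R', hw.mons]
    exact h1
  · rw [hw.top]
    have := h1.2 s
    rw [hw.S] at hs
    rw [← cut_bw, cut_of_notMem hs] at this
    exact this

theorem nu_bw (hw : WinV W K T) (e ca cb p xa xb n : ℝ) :
    W.nu (bw e ca cb p xa xb n) = W.lam (bwT T e ca cb p xa xb n) - W.lam fun _ => T := by
  unfold Wnd.nu
  rw [hw.S, hw.top, cut_bw]

theorem chiV (i j s : Fin 11) : chi MaV i j s = if mv i j ∈ MaV.mon s then 1 else 0 := rfl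

theorem chi_c : chi MaV 2 3 4 = 0 ∧ chi MaV 2 5 6 = 1 ∧ chi MaV 4 5 7 = 1 ∧ chi MaV 3 6 7 = 0 ∧
    chi MaV 0 5 8 = 1 ∧ chi MaV 0 6 9 = 1 ∧ chi MaV 2 8 9 = 1 ∧ chi MaV 0 7 10 = 1 ∧
    chi MaV 4 8 10 = 1 ∧ chi MaV 3 9 10 = 0 ∧ chi MaV 0 1 7 = 0 := by
  refine ⟨?_, ?_, ?_, ?_, ?_, ?_, ?_, ?_, ?_, ?_, ?_⟩ <;> first
    | exact if_neg (by decide)
    | exact if_pos (by decide)

/-- **evolution** -/
theorem evA (h : QAt W f MaV)
    (hc : ∀ᶠ n in (U : Filter ℕ), W.Good n ∧ E n ⊆ W.Cl n ∧ W.cfg E n = W.cfg0 n (E n))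
    (hw : WinV W K T) {ε : ℝ} (hε : 0 < ε) :
    ∀ᶠ n in (U : Filter ℕ), ∀ k k' i l, (i, k) ∈ (W.cfg E n).I →
      (l, k) ∈ (W.cfg E n).I → (i, k') ∈ (W.cfg E n).I → (l, k') ∈ (W.cfg E n).I →
      EvA (W.B'.d n ^ (T - ε)) ((W.cfg E n).z k' - (W.cfg E n).z k)
        (flg W n k' 4 - flg W n k 4) ((W.cfg E n).rel k i l) ((W.cfg E n).rel k' i l) := by
  have h0S : (0 : Fin 11) ∈ W.S := by rw [hw.S]; decide
  have h4S : (4 : Fin 11) ∈ W.S := by rw [hw.S]; decide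
  have h2S : (2 : Fin 11) ∉ W.S := by rw [hw.S]; decide
  have h3S : (3 : Fin 11) ∉ W.S := by rw [hw.S]; decide
  have ht : ∀ s, T ≤ W.top s := fun s => by rw [hw.top]
  have hε2 : 0 < ε / 2 := by positivity
  filter_upwards [hc, h.evoX hc hw.T0.le ht hε2, h.q.mot_eq hc, h.q.z_eq hw.kz hc,
    h.cf_ap (i := 2) (j := 3) (s := 4) (by decide) (by decide) (fun _ => by decide) T hw.T0.le,
    ev_const_le W.B' hε2 3] with n hn hev hmot hz hcf h3
  obtain ⟨g, hE, hcfg⟩ := hn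
  obtain ⟨c234, c256, c457, c367, c058, c069, c289, c0710, c4810, c3910, c017⟩ := chi_c
  intro k₀ k i i' hi0 hi0' hi hi'
  have hk0Z : k₀ ∈ (W.cfg E n).Z := by
    rw [hcfg] at hi0 ⊢
    exact mem_image.2 (by obtain ⟨u, hu, -, h6⟩ := mem_cfg0 hi0; exact ⟨u, hu, h6⟩)
  have hkZ : k ∈ (W.cfg E n).Z := by
    rw [hcfg] at hi ⊢
    exact mem_image.2 (by obtain ⟨u, hu, -, h6⟩ := mem_cfg0 hi; exact ⟨u, hu, h6⟩)
  set d := W.B'.d n with hd
  have hd0 : 0 < d := W.B'.pos n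
  have hpow : ∀ t : ℝ, 0 < d ^ t := fun t => Real.rpow_pos_of_pos hd0 t
  -- motions
  have m0 : ownC (chi MaV) W n k₀ k (fsl W n i k₀ 2) (fsl W n i k₀ 3) 0 =
      (W.cfg E n).z k - (W.cfg E n).z k₀ := by
    unfold ownC mot
    rw [if_neg (by decide), if_pos h0S, hz k, hz k₀]
    exact (hmot k₀ hk0Z k hkZ).1 0 (by simp)
  have m2 : ownC (chi MaV) W n k₀ k (fsl W n i k₀ 2) (fsl W n i k₀ 3) 2 = 0 := by
    unfold ownC mot
    rw [if_neg (by decide), if_neg h2S]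
  have m3 : ownC (chi MaV) W n k₀ k (fsl W n i k₀ 2) (fsl W n i k₀ 3) 3 = 0 := by
    unfold ownC mot
    rw [if_neg (by decide), if_neg h3S]
  have m4 : ownC (chi MaV) W n k₀ k (fsl W n i k₀ 2) (fsl W n i k₀ 3) 4 =
      flg W n k 4 - flg W n k₀ 4 +
        cf W n 2 3 4 * (flg W n k₀ 2 * (flg W n k 3 - flg W n k₀ 3)) := by
    unfold ownC
    rw [if_pos rfl, if_pos h4S, c234, zero_mul, add_zero]
    exact (hmot k₀ hk0Z k hkZ).2
  -- flags are small
  have flb : ∀ k ∈ (W.cfg E n).Z, ∀ s, |flg W n k s| ≤ 1 / 4 := by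
    intro k hk s
    rw [hcfg] at hk
    exact h.crd4 g g.s0 (zrep_of_mem hE hk).1 s
  have e4 : |ownC (chi MaV) W n k₀ k (fsl W n i k₀ 2) (fsl W n i k₀ 3) 4 -
      (flg W n k 4 - flg W n k₀ 4)| ≤ d ^ T := by
    rw [m4, add_sub_cancel_left, abs_mul, abs_mul]
    have a1 := flb k₀ hk0Z 2
    have a2 := (abs_sub (flg W n k 3) (flg W n k₀ 3)).trans
      (add_le_add (flb k hkZ 3) (flb k₀ hk0Z 3))
    have a3 := hcf.d
    rw [c234, sub_zero, one_mul] at a3
    have a4 := mul_le_mul a1 a2 (abs_nonneg _) (by norm_num)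
    have a5 := mul_le_mul a3 a4 (mul_nonneg (abs_nonneg _) (abs_nonneg _)) (hpow T).le
    have := hpow T
    linarith
  set a := ownC (chi MaV) W n k₀ k (fsl W n i k₀ 2) (fsl W n i k₀ 3) with ha
  set b := (W.cfg E n).rel k₀ i i' with hb
  set φ := flg W n k 4 - flg W n k₀ 4 with hφ
  rw [← m0]
  have rb : ∀ s, |b s| ≤ 1 / 4 := by
    intro s
    rw [hb, hcfg]
    rw [hcfg] at hi0 hi0'
    exact h.rel_le g hE hi0 hi0' s
  have ab0 : |a 0| ≤ 1 / 4 := by
    rw [hcfg] at hi0 hi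
    have := (h.bds g hE hi0 hi).1 0
    rw [ha]
    unfold ownC
    rw [if_neg (by decide)]
    exact this
  have key : ∀ s, s ∉ W.S → |(W.cfg E n).rel k i i' s - evoC (chi MaV) a b s| ≤ d ^ (T - ε / 2) :=
    fun s hs => hev k₀ k i i' hi0 hi hi0' hi' s hs
  have hTT : d ^ T ≤ d ^ (T - ε / 2) :=
    Real.rpow_le_rpow_of_exponent_ge hd0 (W.B'.lt n).le (by linarith)
  have hfin : 3 * d ^ (T - ε / 2) ≤ d ^ (T - ε) := by
    have e : d ^ (T - ε) = d ^ (-(ε / 2)) * d ^ (T - ε / 2) := by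
      rw [← Real.rpow_add hd0]; congr 1; ring
    rw [e]
    exact mul_le_mul_of_nonneg_right h3 (hpow _).le
  have hp2 := hpow (T - ε / 2)
  have fin : ∀ {x : ℝ}, |x| ≤ d ^ (T - ε / 2) → |x| ≤ d ^ (T - ε) := fun hx => by linarith
  refine ⟨?_, ?_, ?_, ?_, ?_, ?_, ?_⟩
  · have := key 2 h2S
    have e : evoC (chi MaV) a b 2 = b 2 := by simp [evoC]
    rw [e] at this
    exact fin this
  · have := key 5 (by rw [hw.S]; decide)
    have e : evoC (chi MaV) a b 5 = b 5 := by simp [evoC]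
    rw [e] at this
    exact fin this
  · have := key 6 (by rw [hw.S]; decide)
    have e : evoC (chi MaV) a b 6 = b 6 := by
      simp only [evoC, Matrix.cons_val]
      rw [m2]; ring
    rw [e] at this
    exact fin this
  · have := key 7 (by rw [hw.S]; decide)
    have e : evoC (chi MaV) a b 7 = b 7 - a 4 * b 5 := by
      simp only [evoC, Matrix.cons_val]
      rw [c017, c457, m3]; ring
    rw [e] at this
    have e2 : (W.cfg E n).rel k i i' 7 - (b 7 - φ * b 5) =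
        ((W.cfg E n).rel k i i' 7 - (b 7 - a 4 * b 5)) + -((a 4 - φ) * b 5) := by ring
    rw [e2]
    refine (abs_add_le _ _).trans ?_
    rw [abs_neg, abs_mul]
    have := mul_le_mul e4 (rb 5) (abs_nonneg _) (hpow T).le
    linarith
  · have := key 8 (by rw [hw.S]; decide)
    have e : evoC (chi MaV) a b 8 = b 8 + a 0 * b 5 := by
      simp only [evoC, Matrix.cons_val]
      rw [c058]; ring
    rw [e] at this
    exact fin this
  · have := key 9 (by rw [hw.S]; decide)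
    have e : evoC (chi MaV) a b 9 = b 9 + a 0 * b 6 := by
      simp only [evoC, Matrix.cons_val]
      rw [c069, m2]; ring
    rw [e] at this
    exact fin this
  · have := key 10 (by rw [hw.S]; decide)
    have e : evoC (chi MaV) a b 10 = b 10 + a 0 * b 7 - a 4 * (b 8 + a 0 * b 5) := by
      simp only [evoC, Matrix.cons_val]
      rw [c0710, c017, c4810, c3910, c058]; ring
    rw [e] at this
    have e2 : (W.cfg E n).rel k i i' 10 - (b 10 + a 0 * b 7 - φ * (b 8 + a 0 * b 5)) =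
        ((W.cfg E n).rel k i i' 10 - (b 10 + a 0 * b 7 - a 4 * (b 8 + a 0 * b 5))) +
          -((a 4 - φ) * (b 8 + a 0 * b 5)) := by ring
    rw [e2]
    refine (abs_add_le _ _).trans ?_
    rw [abs_neg, abs_mul]
    have b1 : |b 8 + a 0 * b 5| ≤ 1 := by
      refine (abs_add_le _ _).trans ?_
      rw [abs_mul]
      have := mul_le_mul ab0 (rb 5) (abs_nonneg _) (by norm_num)
      have := rb 8
      linarith
    have := mul_le_mul e4 b1 (abs_nonneg _) (hpow T).le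
    linarith

/-- **composition** -/
theorem coA (h : QAt W f MaV)
    (hc : ∀ᶠ n in (U : Filter ℕ), W.Good n ∧ E n ⊆ W.Cl n ∧ W.cfg E n = W.cfg0 n (E n))
    (hw : WinV W K T) {ε : ℝ} (hε : 0 < ε) :
    ∀ᶠ n in (U : Filter ℕ), ∀ k i l l', (i, k) ∈ (W.cfg E n).I →
      (l, k) ∈ (W.cfg E n).I → (l', k) ∈ (W.cfg E n).I →
      CoA (W.B'.d n ^ (T - ε)) ((W.cfg E n).rel k i l) ((W.cfg E n).rel k l l')
        ((W.cfg E n).rel k i l') := by
  have ht : ∀ s, T ≤ W.top s := fun s => by rw [hw.top]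
  obtain ⟨c234, c256, c457, c367, c058, c069, c289, c0710, c4810, c3910, c017⟩ := chi_c
  filter_upwards [h.compX hc hw.T0.le ht hε] with n hcp
  intro k i l l' h1 h2 h3
  refine ⟨?_, ?_⟩
  · have := hcp k i l l' h1 h2 h3 8 (by rw [hw.S]; decide)
    simp only [compC, Matrix.cons_val] at this
    rw [sub_sub]
    exact this
  · have := hcp k i l l' h1 h2 h3 9 (by rw [hw.S]; decide)
    simp only [compC, Matrix.cons_val] at this
    rw [c289, one_mul] at this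
    rw [sub_sub, sub_sub, ← add_assoc]
    exact this

/-- **the window model** -/
theorem na_of_win (h : QAt W f MaV)
    (hc : ∀ᶠ n in (U : Filter ℕ), W.Good n ∧ E n ⊆ W.Cl n ∧ W.cfg E n = W.cfg0 n (E n))
    (hw : WinV W K T) (H : RModel W.B' (W.cfg E) 1 T W.legW W.nu W.Dc) :
    NA W.B' (W.cfg E) W.legW W.nu T W.Dc (fun n k => flg W n k 4) where
  H := H
  T0 := hw.T0
  leg := fun e ca cb p xa xb n e0 e1 ca0 ca1 cb0 cb1 p0 p1 xa0 xa1 xb0 xb1 n0 n1 w6 w9 =>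
    legW_bw hw e0 e1 ca0 ca1 cb0 cb1 p0 p1 xa0 xa1 xb0 xb1 n0 n1 w6 w9
  zb := fun ε hε => by
    filter_upwards [bdQ h.q hc hw.kz hw.K0 hw.kap, ev_const_le W.B' hε 2] with n hn h2 k hk k' hk'
    obtain ⟨a1, a2⟩ := hn k hk
    obtain ⟨a1', a2'⟩ := hn k' hk'
    have b1 := abs_sub ((W.cfg E n).z k') ((W.cfg E n).z k)
    have b2 := abs_sub (flg W n k' 4) (flg W n k 4)
    have := a2 4
    have := a2' 4
    exact ⟨by linarith, by linarith⟩
  rb := fun ε hε => by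
    filter_upwards [h.q.rel_MW hc, ev_const_le W.B' hε (MW W)] with n hn h2 k i l h3 h4 s
    exact (hn.1 k i l h3 h4 s).trans h2
  ev := fun ε hε => evA h hc hw hε
  co := fun ε hε => coA h hc hw hε

/-- **raw twist of `F_a` between heights** -/
theorem rawTw_four (h : QAt W f MaV)
    (hc : ∀ᶠ n in (U : Filter ℕ), W.Good n ∧ E n ⊆ W.Cl n ∧ W.cfg E n = W.cfg0 n (E n))
    (h4S : (4 : Fin 11) ∈ W.S) {T : ℝ} (hT : 0 < T) (ht : T ≤ W.top 4) (hr : RawL W E 4) :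
    RawTw W.B' (W.cfg E) (fun n k k' => flg W n k' 4 - flg W n k 4) := by
  intro ε hε
  set δ : ℝ := min (ε / 2) (T / 2) with hδ
  have hδ0 : 0 < δ := lt_min (by positivity) (by positivity)
  have hδε : δ < ε := lt_of_le_of_lt (min_le_left _ _) (by linarith)
  have hδT : δ < T := lt_of_le_of_lt (min_le_right _ _) (by linarith)
  set c0 : ℝ := 2 * W.K0 / W.kap 4 + 1 with hc0
  filter_upwards [hc, hr δ hδ0 (1 / 2) (by norm_num), h.q.mot_eq hc,
    h.cf_ap (i := 2) (j := 3) (s := 4) (by decide) (by decide) (fun _ => by decide) T hT.le,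
    ev_const_le W.B' (show 0 < ε - δ by linarith) 2,
    ev_const_le W.B' (show 0 < T - δ by linarith) (2 * |c0|)] with n hn hrn hmot hcf h2 h3
  obtain ⟨g, hE, hcfg⟩ := hn
  intro i hi S hS hSm
  have hd0 : 0 < W.B'.d n := W.B'.pos n
  have hpow : ∀ t : ℝ, 0 < W.B'.d n ^ t := fun t => Real.rpow_pos_of_pos hd0 t
  have hcf' : |cf W n 2 3 4| ≤ W.B'.d n ^ T := by
    have := hcf.d
    rw [chi_c.1, sub_zero, one_mul] at this
    exact this
  -- `ρ^ε ≤ ρ^δ / 2`, `c0 ρ^T ≤ ρ^δ / 2`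
  have a1 : W.B'.d n ^ ε ≤ W.B'.d n ^ δ / 2 := by
    have : W.B'.d n ^ ε * W.B'.d n ^ (-(ε - δ)) = W.B'.d n ^ δ := by
      rw [← Real.rpow_add hd0]; congr 1; ring
    have h4 := mul_le_mul_of_nonneg_left h2 (hpow ε).le
    rw [this] at h4
    linarith
  have a2 : |c0| * W.B'.d n ^ T ≤ W.B'.d n ^ δ / 2 := by
    have : W.B'.d n ^ T * W.B'.d n ^ (-(T - δ)) = W.B'.d n ^ δ := by
      rw [← Real.rpow_add hd0]; congr 1; ring
    have h4 := mul_le_mul_of_nonneg_left h3 (hpow T).le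
    rw [this] at h4
    linarith
  classical
  have hsub : S ⊆ ((W.cfg E n).hts i).biUnion fun k =>
      (((W.cfg E n).hts i).filter fun k' =>
        |W.crd n (W.rep n i k) (W.rep n i k') 4| ≤ W.B'.d n ^ δ).image fun k' => (k, k') := by
    intro q hq
    obtain ⟨q1, q2⟩ := mem_product.1 (hS hq)
    refine mem_biUnion.2 ⟨q.1, q1, mem_image.2 ⟨q.2, mem_filter.2 ⟨q2, ?_⟩, rfl⟩⟩
    have g1 := (RCfg.mem_hts.1 q1)
    have g2 := (RCfg.mem_hts.1 q2)
    have m1 := (hmot q.1 g1.1 q.2 g2.1).2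
    have g1' := g1.2
    have g2' := g2.2
    rw [hcfg] at g1' g2'
    have g1z := g1.1
    have g2z := g2.1
    rw [hcfg] at g1z g2z
    obtain ⟨x1, x2, x3⟩ := rep_of_mem hE g1'
    obtain ⟨y1, y2, y3⟩ := rep_of_mem hE g2'
    obtain ⟨z1, z2⟩ := zrep_of_mem hE g1z
    obtain ⟨z1', z2'⟩ := zrep_of_mem hE g2z
    -- composition through the representatives of the heights
    have f1 := h.q.crd_four g x1 z1 y1
    have f2 := h.q.crd_four g z1 z1' y1
    have l1 := h.q.crd_lev g x1 z1 (x3.trans z2.symm) h4S ht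
    have l2 := h.q.crd_lev g z1' y1 (z2'.trans y3.symm) h4S ht
    have cb : ∀ {u v w' t : ι n}, u ∈ W.Cl n → v ∈ W.Cl n → w' ∈ W.Cl n → t ∈ W.Cl n →
        ∀ s s', |cf W n 2 3 4 * (W.crd n u v s * W.crd n w' t s')| ≤
          1 / 16 * W.B'.d n ^ T := by
      intro u v w' t hu hv hw ht s s'
      rw [abs_mul, abs_mul]
      have b1 := h.crd4 g hu hv s
      have b2 := h.crd4 g hw ht s'
      have b3 := mul_le_mul b1 b2 (abs_nonneg _) (by norm_num)
      have b4 := mul_le_mul hcf' b3 (mul_nonneg (abs_nonneg _) (abs_nonneg _)) (hpow T).le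
      linarith
    have k1 := cb x1 z1 z1 y1 2 3
    have k2 := cb z1 z1' z1' y1 2 3
    have k3 : |cf W n 2 3 4 * (flg W n q.1 2 * (flg W n q.2 3 - flg W n q.1 3))| ≤
        1 / 8 * W.B'.d n ^ T := by
      rw [abs_mul, abs_mul]
      have b1 := h.crd4 g g.s0 z1 2
      have b2 := h.crd4 g g.s0 z1 3
      have b3 := h.crd4 g g.s0 z1' 3
      have b4 := (abs_sub (flg W n q.2 3) (flg W n q.1 3)).trans (add_le_add b3 b2)
      have b5 := mul_le_mul (show |flg W n q.1 2| ≤ 1 / 4 from b1) b4 (abs_nonneg _)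
        (by norm_num)
      have b6 := mul_le_mul hcf' b5 (mul_nonneg (abs_nonneg _) (abs_nonneg _)) (hpow T).le
      linarith
    have m3 := hSm q hq
    have e : W.crd n (W.rep n i q.1) (W.rep n i q.2) 4 - (flg W n q.2 4 - flg W n q.1 4) =
        W.crd n (W.rep n i q.1) (W.zrep n q.1) 4 + W.crd n (W.zrep n q.2) (W.rep n i q.2) 4 +
        (cf W n 2 3 4 * (flg W n q.1 2 * (flg W n q.2 3 - flg W n q.1 3)) -
        cf W n 2 3 4 * (W.crd n (W.rep n i q.1) (W.zrep n q.1) 2 *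
          W.crd n (W.zrep n q.1) (W.rep n i q.2) 3) -
        cf W n 2 3 4 * (W.crd n (W.zrep n q.1) (W.zrep n q.2) 2 *
          W.crd n (W.zrep n q.2) (W.rep n i q.2) 3)) := by
      rw [f1, f2, m1]; ring
    have m5 : |W.crd n (W.rep n i q.1) (W.rep n i q.2) 4 - (flg W n q.2 4 - flg W n q.1 4)| ≤
        c0 * W.B'.d n ^ T := by
      rw [e]
      have t1 := abs_add_le (W.crd n (W.rep n i q.1) (W.zrep n q.1) 4 +
        W.crd n (W.zrep n q.2) (W.rep n i q.2) 4)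
        (cf W n 2 3 4 * (flg W n q.1 2 * (flg W n q.2 3 - flg W n q.1 3)) -
        cf W n 2 3 4 * (W.crd n (W.rep n i q.1) (W.zrep n q.1) 2 *
          W.crd n (W.zrep n q.1) (W.rep n i q.2) 3) -
        cf W n 2 3 4 * (W.crd n (W.zrep n q.1) (W.zrep n q.2) 2 *
          W.crd n (W.zrep n q.2) (W.rep n i q.2) 3))
      have t2 := abs_add_le (W.crd n (W.rep n i q.1) (W.zrep n q.1) 4)
        (W.crd n (W.zrep n q.2) (W.rep n i q.2) 4)
      have t3 := abs_sub (cf W n 2 3 4 * (flg W n q.1 2 * (flg W n q.2 3 - flg W n q.1 3)) -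
        cf W n 2 3 4 * (W.crd n (W.rep n i q.1) (W.zrep n q.1) 2 *
          W.crd n (W.zrep n q.1) (W.rep n i q.2) 3))
        (cf W n 2 3 4 * (W.crd n (W.zrep n q.1) (W.zrep n q.2) 2 *
          W.crd n (W.zrep n q.2) (W.rep n i q.2) 3))
      have t4 := abs_sub (cf W n 2 3 4 * (flg W n q.1 2 * (flg W n q.2 3 - flg W n q.1 3)))
        (cf W n 2 3 4 * (W.crd n (W.rep n i q.1) (W.zrep n q.1) 2 *
          W.crd n (W.zrep n q.1) (W.rep n i q.2) 3))
      have t5 : c0 * W.B'.d n ^ T = W.K0 / W.kap 4 * W.B'.d n ^ T +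
          W.K0 / W.kap 4 * W.B'.d n ^ T + W.B'.d n ^ T := by
        rw [hc0]; ring
      have := hpow T
      linarith
    have m4 : c0 * W.B'.d n ^ T ≤ |c0| * W.B'.d n ^ T :=
      mul_le_mul_of_nonneg_right (le_abs_self _) (hpow _).le
    have m6 := abs_sub_abs_le_abs_sub (W.crd n (W.rep n i q.1) (W.rep n i q.2) 4)
      (flg W n q.2 4 - flg W n q.1 4)
    linarith
  have hcard : (S.card : ℝ) ≤ ∑ k ∈ (W.cfg E n).hts i,
      1 / 2 * (((W.cfg E n).hts i).card : ℝ) := by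
    have h5 : (S.card : ℝ) ≤ ∑ k ∈ (W.cfg E n).hts i,
        ((((W.cfg E n).hts i).filter fun k' =>
        |W.crd n (W.rep n i k) (W.rep n i k') 4| ≤ W.B'.d n ^ δ).card : ℝ) := by
      have h6 := (card_le_card hsub).trans card_biUnion_le
      have h7 : ∑ k ∈ (W.cfg E n).hts i, ((((W.cfg E n).hts i).filter fun k' =>
          |W.crd n (W.rep n i k) (W.rep n i k') 4| ≤ W.B'.d n ^ δ).image
            fun k' => (k, k')).card ≤
          ∑ k ∈ (W.cfg E n).hts i, (((W.cfg E n).hts i).filter fun k' =>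
          |W.crd n (W.rep n i k) (W.rep n i k') 4| ≤ W.B'.d n ^ δ).card :=
        sum_le_sum fun k _ => card_image_le
      exact_mod_cast h6.trans h7
    exact h5.trans (sum_le_sum fun k hk => hrn i hi k hk)
  rw [sum_const, nsmul_eq_mul] at hcard
  nlinarith

section wat

variable {B : Base} {I : ∀ n, Finset (ι n)} {co : ∀ n, ι n → ι n → Fin 11 → ℝ}
  {C : ℝ} {lam : (Fin 11 → ℝ) → ℝ} {V Tw : Fin 11 → Prop}

theorem winV_of_wat (h : WAt B I co monQ MaV C lam V Tw (stQ {0, 4} (4 * cK0 monQ C) T MaV) W)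
    (hT : 0 < T) (hK0 : 0 ≤ cK0 monQ C) : WinV W (4 * cK0 monQ C) T where
  kz := h.ekz
  S := h.eS
  top := h.etop
  R' := h.eR
  kap := h.ekap
  K0 := by
    unfold Wnd.K0
    rw [h.eM, h.eC]; linarith
  T0 := hT
  mons := h.eMw

/-- **the window model at a window of `AeW`** -/
theorem na_of_wat (h : WAt B I co monQ MaV C lam V Tw (stQ {0, 4} (4 * cK0 monQ C) T MaV) W)
    (hco : ∀ n, ∀ i ∈ I n, ∀ j ∈ I n, co n i j = coQ (f n i) (f n j))
    (hK0 : 0 ≤ cK0 monQ C) (hT : 0 < T)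
    (hV : ∀ k, V k → k = 0 ∨ k = 4) (hT4 : Tw 4)
    (hdens : lam (fun _ => T) ≤ lam (cut {0, 4} (fun _ => T) 0) + lam (cut {0, 4} 0 fun _ => T))
    (hfr : ∀ y, 0 ≤ y → y ≤ T → lam (Pi.single 0 y) ≤ -y) :
    ∃ (E' : ∀ n, Finset (ι n)),
      NA W.B' (W.cfg E') W.legW W.nu T W.Dc (fun n k => flg W n k 4) ∧
      RawTw W.B' (W.cfg E') (fun n k k' => flg W n k' 4 - flg W n k 4) := by
  have hden : (stQ {0, 4} (4 * cK0 monQ C) T MaV).Dens lam 1 T :=
    { dens := hdens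
      σ0 := zero_le_one
      σ1 := le_rfl
      hR := le_rfl
      frost := fun y hy hyT => by
        rw [one_mul]; exact hfr y hy hyT }
  obtain ⟨E', g, hP, -, H, htw⟩ := h.model (σ' := 1) (R := T) hden (fun _ _ _ => 0)
    (g₀ := fun n => n)
    (tendsto_natCast_atTop_atTop.mono_left Crest.Agent.R138.Ex926.U_le_atTop) (fun k hk => by
      left
      show k ∈ ({0, 4} : Finset (Fin 11))
      rcases hV k hk with rfl | rfl <;> decide)
  have hw := winV_of_wat h hT hK0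
  have hq : QWnd W f := qwnd_of_wat h hco (by
    show ∀ s ∈ ({0, 4} : Finset (Fin 11)), _
    decide)
  have hQ : QAt W f MaV := QAt.of_wat h hq (by
    show (0 : Fin 11) ∈ ({0, 4} : Finset (Fin 11)); decide) (fun s => rfl) (by decide)
  have hc := hcQ hq hP
  refine ⟨E', na_of_win hQ hc hw H, ?_⟩
  refine rawTw_four hQ hc (by rw [hw.S]; decide) hT (by rw [hw.top]) ?_
  refine htw 4 (by show (4 : Fin 11) ∈ ({0, 4} : Finset (Fin 11)); decide) hT4 hT ⟨T, hT, ?_⟩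
  show cut {0, 4} (fun _ => T) (Pi.single 4 T) ∈ coneM MaV
  rw [coneV]
  have e : cut {0, 4} (fun _ => T) (Pi.single 4 T) =
      (![0, T, T, T, T, T, T, T, T, T, T] : Fin 11 → ℝ) := by
    funext j
    fin_cases j <;> simp [cut]
  rw [e]
  refine ⟨?_, ?_, ?_, ?_, ?_, ?_, ?_⟩ <;> simp <;> linarith

end wat

end Crest.Agent.R136.Lv831
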