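import Crest.Agent.R136.Lv2_831

/-!
# R136, T.L, ending (Vis): the slope (helper831)

`TV θ`, `rV θ` : left ray and record direction of the gauge frame; `grp` facts;
**`slopeV`** : `AeW` on the plane `(TV, rV)` with `V, Tw = {F_a}`, own rate `1`, sweeps `S1`
(`C_a`), `S2` (`E, C_b`) ⊢ `5 - θ ≤ - A.1`.
-/

set_option autoImplicit false
set_option linter.unusedSectionVars false
set_option linter.unusedVariables false

open Filter Topology

namespace Crest.Agent.R136.Lv831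

open Finset Crest.Agent.R136.NetQ186 Crest.Agent.R136.Net191 Crest.Agent.R136.Qg926
open Crest.Agent.R136.Gf356 Crest.Agent.R136.Ev356 Crest.Agent.R136.Aw413
open Crest.Agent.R136.Wq400 Crest.Agent.R136.Fe1355
open Crest.Agent.R136.Dg219 Crest.Agent.R136.Dg262
open Crest.Agent.R138.Ex926 (Base U)
open Crest.Agent.R136.LdF511 (sm monQ_all W7)

/-- left ray -/
def TV (θ : ℝ) : Fin 11 → ℝ := ![1, 0, 0, 0, 1 - θ, 0, 0, 1 - θ, 1, 1, 2 - θ]
/-- record direction (slots `R`, `F_b` constant) -/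
def rV (θ : ℝ) : Fin 11 → ℝ :=
  ![1, 0, -θ, 0, 1 - θ, -θ, -(2 * θ), 1 - 2 * θ, 1 - θ, 1 - 2 * θ, 2 - 2 * θ]

section grp

variable {θ : ℝ} (h0 : 0 < θ) (h1 : θ < 1)

include h1 in
theorem TV_nonneg (i : Fin 11) : 0 ≤ TV θ i := by
  fin_cases i <;> simp [TV] <;> linarith

include h1 in
theorem TV_pos {i : Fin 11} (hi : i = 0 ∨ i = 4 ∨ i = 7 ∨ i = 8 ∨ i = 9 ∨ i = 10) :
    0 < TV θ i := by
  rcases hi with rfl | rfl | rfl | rfl | rfl | rfl <;> simp [TV] <;> linarith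

include h1 in
theorem TV_zero (i : Fin 11) : TV θ i = 0 ↔ i = 1 ∨ i = 2 ∨ i = 3 ∨ i = 5 ∨ i = 6 := by
  constructor
  · intro h
    by_contra hn
    push Not at hn
    have : 0 < TV θ i := TV_pos h1 (by
      revert hn
      fin_cases i <;> simp)
    linarith
  · rintro (rfl | rfl | rfl | rfl | rfl) <;> simp [TV]

/-- same group as a slot with positive ray: proportional slopes -/
theorem grp_par {a b : Fin 11 → ℝ} {i j : Fin 11} (h : gC a b i = gC a b j) (hj : a j ≠ 0) :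
    a i ≠ 0 ∧ b i * a j = b j * a i := by
  have hi : a i ≠ 0 := fun hi => hj (gC_zero.1 (by rw [← h]; exact gC_zero.2 hi))
  exact ⟨hi, by rwa [gC_eq hi hj, div_eq_div_iff hi hj] at h⟩

local macro "gz" h:ident hz:ident : tactic => `(tactic|
  first
    | (left; rfl)
    | (right; rfl)
    | rfl
    | (exfalso; apply $hz:ident; simp [TV]; done)
    | (exfalso
       simp only [TV, rV, Matrix.cons_val, Fin.zero_eta, Fin.mk_one, Fin.reduceFinMk,
         Fin.isValue] at $h:ident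
       nlinarith))

include h0 h1

theorem grp0 (i : Fin 11) : gC (TV θ) (rV θ) i = gC (TV θ) (rV θ) 0 ↔ i = 0 ∨ i = 4 := by
  have k0 := mul_pos h0 (sub_pos.2 h1)
  constructor
  · intro h
    obtain ⟨hz, h⟩ := grp_par h (TV_pos h1 (by simp)).ne'
    fin_cases i <;> gz h hz
  · rintro (rfl | rfl)
    · rfl
    · rw [gC_eq (TV_pos h1 (by simp)).ne' (TV_pos h1 (by simp)).ne',
        div_eq_div_iff (TV_pos h1 (by simp)).ne' (TV_pos h1 (by simp)).ne']
      simp [TV, rV]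

theorem grp8 (i : Fin 11) : gC (TV θ) (rV θ) i = gC (TV θ) (rV θ) 8 ↔ i = 8 := by
  have k0 := mul_pos h0 (sub_pos.2 h1)
  constructor
  · intro h
    obtain ⟨hz, h⟩ := grp_par h (TV_pos h1 (by simp)).ne'
    fin_cases i <;> gz h hz
  · rintro rfl
    rfl

theorem grp9 {i : Fin 11} (h : gC (TV θ) (rV θ) i = gC (TV θ) (rV θ) 9) : i = 7 ∨ i = 9 := by
  have k0 := mul_pos h0 (sub_pos.2 h1)
  obtain ⟨hz, h⟩ := grp_par h (TV_pos h1 (by simp)).ne'
  fin_cases i <;> gz h hz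

theorem grp10 (i : Fin 11) : gC (TV θ) (rV θ) i = gC (TV θ) (rV θ) 10 ↔ i = 10 := by
  have k0 := mul_pos h0 (sub_pos.2 h1)
  constructor
  · intro h
    obtain ⟨hz, h⟩ := grp_par h (TV_pos h1 (by simp)).ne'
    fin_cases i <;> gz h hz
  · rintro rfl
    rfl

end grp

/-! ### group functions -/

section out

variable {grp : Fin 11 → ℕ} {L : Set (Fin 11 → ℝ)} {dh : Fin 11 → ℝ} {nn : ℕ → ℝ × ℝ}
  {lam : (Fin 11 → ℝ) → ℝ} {A : ℝ × ℝ} {φ : ℕ → (Fin 11 → ℝ) → ℝ} {r : ℕ → ℝ}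

/-- boxes which agree off one group -/
theorem out_dif (ho : OutS grp L dh nn lam A φ r) {c c' : Fin 11 → ℝ} (hc : c ∈ L)
    (hc' : c' ∈ L) {k : ℕ} (h : ∀ i, grp i ≠ k → c i = c' i) :
    lam c - lam c' = φ k c - φ k c' := by
  rw [ho.sum c hc, ho.sum c' hc', ← sum_sub_distrib]
  by_cases hk : k ∈ gset grp
  · rw [sum_eq_single_of_mem k hk]
    intro j _ hj
    rw [ho.loc j c c' fun i hi => h i (by rw [hi]; exact hj), sub_self]
  · have e1 : φ k c = φ k c' := ho.loc k c c' fun i hi => by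
      exfalso
      apply hk
      rw [← hi]
      exact mem_image_of_mem _ (mem_univ i)
    rw [e1, sub_self]
    refine sum_eq_zero fun j hj => ?_
    rw [ho.loc j c c' fun i hi => h i fun h' => hk (by rw [← h', hi]; exact hj), sub_self]

/-- losses in one group do not depend on the other groups -/
theorem out_dif4 (ho : OutS grp L dh nn lam A φ r) {c c' d d' : Fin 11 → ℝ} (hc : c ∈ L)
    (hc' : c' ∈ L) (hd : d ∈ L) (hd' : d' ∈ L) (k : ℕ) (h1 : ∀ i, grp i ≠ k → c i = c' i)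
    (h2 : ∀ i, grp i ≠ k → d i = d' i) (h3 : ∀ i, grp i = k → c i = d i)
    (h4 : ∀ i, grp i = k → c' i = d' i) : lam c - lam c' = lam d - lam d' := by
  rw [out_dif ho hc hc' h1, out_dif ho hd hd' h2, ho.loc k c d h3, ho.loc k c' d' h4]

end out

/-! ### the slope -/

theorem bwT_cone {T e ca cb p xa xb n : ℝ} (w6 : cb ≤ e + ca) (w7 : p ≤ T + ca)
    (w8 : xa ≤ T + ca) (w9 : xb ≤ T + cb) (w9' : xb ≤ e + xa) (w10 : n ≤ T + p)
    (w10' : n ≤ T + xa) : bwT T e ca cb p xa xb n ∈ coneM MaV := by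
  rw [coneV]
  refine ⟨?_, ?_, ?_, ?_, ?_, ?_, ?_⟩ <;> simp only [bwT, Matrix.cons_val] <;> linarith

theorem bwT_le {T e ca cb p xa xb n e' ca' cb' p' xa' xb' n' : ℝ} (h1 : e ≤ e') (h2 : ca ≤ ca')
    (h3 : cb ≤ cb') (h4 : p ≤ p') (h5 : xa ≤ xa') (h6 : xb ≤ xb') (h7 : n ≤ n') :
    bwT T e ca cb p xa xb n ≤ bwT T e' ca' cb' p' xa' xb' n' := by
  intro j
  fin_cases j <;> simp [bwT, *]

theorem bwT_sum (T e ca cb p xa xb n e' ca' cb' p' xa' xb' n' : ℝ) :
    ∑ s, (bwT T e' ca' cb' p' xa' xb' n' s - bwT T e ca cb p xa xb n s) =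
      (e' - e) + (ca' - ca) + (cb' - cb) + (p' - p) + (xa' - xa) + (xb' - xb) + (n' - n) := by
  simp [bwT, Fin.sum_univ_succ]
  ring

section slope

variable {ι : ℕ → Type*} [∀ n, DecidableEq (ι n)] {B Bo : Base} {I J : ∀ n, Finset (ι n)}
  {co : ∀ n, ι n → ι n → Fin 11 → ℝ} {C : ℝ} {lam : (Fin 11 → ℝ) → ℝ} {A : ℝ × ℝ}
  {φ : ℕ → (Fin 11 → ℝ) → ℝ} {r : ℕ → ℝ} {κ : Fin 11 → ℝ} {V Tw : Fin 11 → Prop}
  {θ m1 m2 : ℝ} {f : ∀ n, ι n → Fq4}

/-- **the slope of the profile to the left of the record** -/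
theorem slopeV (h : AeW B Bo I J co monQ MaV C lam (TV θ) (rV θ) A φ r 0 1 κ V Tw)
    (h0 : 0 < θ) (h1 : θ < 1) (hC : 0 ≤ C)
    (hco : ∀ n, ∀ i ∈ I n, ∀ j ∈ I n, co n i j = coQ (f n i) (f n j))
    (hJ : ∀ᶠ n in (U : Filter ℕ), (J n).Nonempty)
    (hV : ∀ k, V k → k = 0 ∨ k = 4) (hT : Tw 4) (hm1 : 0 < m1) (hm2 : 0 < m2)
    (S1 : ∀ t : ℝ, 0 ≤ t → t ≤ 1 →
      m1 * t ≤ lam (bwT 1 0 0 0 0 0 0 0) - lam (bwT 1 0 t 0 0 0 0 0))
    (S2 : ∀ t : ℝ, 0 ≤ t → t ≤ 1 →
      m2 * t ≤ lam (bwT 1 0 0 0 0 0 0 0) - lam (bwT 1 t 0 t 0 0 0 0)) :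
    5 - θ ≤ -A.1 := by
  classical
  have hK := cK0_one (M := monQ) hC
  have hok : (stQ {0, 4} (4 * cK0 monQ C) 1 MaV).Ok monQ (coneM MaV) :=
    stV_ok (by linarith) zero_le_one
  have ho := h.out
  -- own loss
  have own0 : ∀ c ∈ coneM MaV, 0 ≤ c → lam c ≤ -(c 0) := by
    intro c hc hc0
    have h2 := h.own 0 zero_mem c hc hc0 (fun k _ => by simp)
    rw [h.zero] at h2
    simp only [Pi.zero_apply, sub_zero, one_mul] at h2
    linarith
  have hfr : ∀ y : ℝ, 0 ≤ y → y ≤ 1 → lam (Pi.single 0 y) ≤ -y := by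
    intro y hy _
    have e : (Pi.single 0 y : Fin 11 → ℝ) = ![y, 0, 0, 0, 0, 0, 0, 0, 0, 0, 0] := by
      funext s
      fin_cases s <;> simp
    have := own0 (Pi.single 0 y) (by
      rw [e, coneV]
      refine ⟨?_, ?_, ?_, ?_, ?_, ?_, ?_⟩ <;> simp only [Matrix.cons_val] <;> linarith)
      (by rw [e]; intro s; fin_cases s <;> simp; exact hy)
    simpa using this
  have hdens : lam (fun _ => 1) ≤ lam (cut {0, 4} (fun _ => 1) 0) +
      lam (cut {0, 4} 0 fun _ => 1) :=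
    (OutS.dens ho (S := {0, 4}) (top := fun _ => 1) (by
      intro i j hij hi
      have hi' : gC (TV θ) (rV θ) i = gC (TV θ) (rV θ) 0 := (grp0 h0 h1 i).2 (by simpa using hi)
      have := (grp0 h0 h1 j).1 (by rw [← hij, hi'])
      simpa using this) (hok.leg hok.top_leg) (hok.leg hok.lin_leg) (hok.leg hok.lev_leg)).le
  -- the window
  obtain ⟨W, hW, -, -⟩ := h.wnd (stQ {0, 4} (4 * cK0 monQ C) 1 MaV) rfl hok (fun _ _ => 1)
    (fun i => Crest.Agent.R138.Ex926.Base.Sub.const one_pos) J (fun _ => 1)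
    (Eventually.of_forall fun n => Finset.Subset.refl _) hJ
    (Crest.Agent.R138.Ex926.Base.Sub.const one_pos) (Eventually.of_forall fun n => by simp)
  obtain ⟨E', hN, hTw⟩ := na_of_wat hW hco (by linarith) one_pos hV hT hdens hfr
  have hw := winV_of_wat hW one_pos (by linarith)
  set L : ℝ → ℝ → ℝ → ℝ → ℝ → ℝ → ℝ → ℝ := fun e ca cb p xa xb n =>
    lam (bwT 1 e ca cb p xa xb n) with hL
  have nu : ∀ e ca cb p xa xb n, W.nu (bw e ca cb p xa xb n) =
      L e ca cb p xa xb n - lam fun _ => 1 := fun e ca cb p xa xb n => by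
    rw [nu_bw hw, hW.elam]
  -- membership
  have mem : ∀ e ca cb p xa xb n : ℝ, 0 ≤ e → 0 ≤ ca → p ≤ 1 → xa ≤ 1 → xb ≤ 1 → 0 ≤ cb →
      cb ≤ e + ca → xb ≤ e + xa → n ≤ 1 → 0 ≤ p → 0 ≤ xa → bwT 1 e ca cb p xa xb n ∈
        coneM MaV := by
    intro e ca cb p xa xb n he hca hp hxa hxb hcb h6 h9 hn hp0 hxa0
    exact bwT_cone h6 (by linarith) (by linarith) (by linarith) h9 (by linarith) (by linarith)
  set g0 := gC (TV θ) (rV θ) 0 with hg0
  set g8 := gC (TV θ) (rV θ) 8 with hg8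
  set g9 := gC (TV θ) (rV θ) 9 with hg9
  set g10 := gC (TV θ) (rV θ) 10 with hg10
  have k0 : ∀ i : Fin 11, gC (TV θ) (rV θ) i = 0 ↔ i = 1 ∨ i = 2 ∨ i = 3 ∨ i = 5 ∨ i = 6 :=
    fun i => by rw [gC_zero, TV_zero h1]
  -- group `0` : the losses of `E, C_a, C_b` do not depend on `X_a, X_b`
  have d0 : ∀ e ca cb e' ca' cb' xa xb : ℝ, bwT 1 e ca cb 0 xa xb 0 ∈ coneM MaV →
      bwT 1 e' ca' cb' 0 xa xb 0 ∈ coneM MaV → bwT 1 e ca cb 0 0 0 0 ∈ coneM MaV →
      bwT 1 e' ca' cb' 0 0 0 0 ∈ coneM MaV →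
      L e ca cb 0 xa xb 0 - L e' ca' cb' 0 xa xb 0 = L e ca cb 0 0 0 0 - L e' ca' cb' 0 0 0 0 := by
    intro e ca cb e' ca' cb' xa xb m1 m2 m3 m4
    refine out_dif4 ho m1 m2 m3 m4 0 ?_ ?_ ?_ ?_
    · intro i hi
      rw [Ne, k0] at hi
      revert hi
      fin_cases i <;> simp [bwT]
    · intro i hi
      rw [Ne, k0] at hi
      revert hi
      fin_cases i <;> simp [bwT]
    · intro i hi
      rw [k0] at hi
      rcases hi with rfl | rfl | rfl | rfl | rfl <;> simp [bwT]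
    · intro i hi
      rw [k0] at hi
      rcases hi with rfl | rfl | rfl | rfl | rfl <;> simp [bwT]
  -- `X_a`
  have p8 : ∀ x : ℝ, 0 ≤ x → x ≤ 1 → φ g8 (bwT 1 0 0 0 0 x 0 0) = -(r g8 * x) := by
    intro x hx hx1
    refine ho.rate g8 _ (mem 0 0 0 0 x 0 0 le_rfl le_rfl zero_le_one hx1 zero_le_one le_rfl
      (by linarith) (by linarith) zero_le_one le_rfl hx) x fun i hi => ?_
    rw [(grp8 h0 h1 i).1 hi]
    simp [bwT, dhC, TV]
  have d8 : ∀ e ca cb p xb n x : ℝ, 0 ≤ x → x ≤ 1 → bwT 1 e ca cb p 0 xb n ∈ coneM MaV →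
      bwT 1 e ca cb p x xb n ∈ coneM MaV →
      L e ca cb p 0 xb n - L e ca cb p x xb n = r g8 * x := by
    intro e ca cb p xb n x hx hx1 m1 m2
    have e1 := out_dif ho m1 m2 (k := g8) (fun i hi => by
      rw [Ne, grp8 h0 h1] at hi
      revert hi
      fin_cases i <;> simp [bwT])
    have e2 : φ g8 (bwT 1 e ca cb p 0 xb n) = φ g8 (bwT 1 0 0 0 0 0 0 0) :=
      ho.loc g8 _ _ fun i hi => by
        rw [(grp8 h0 h1 i).1 hi]; simp [bwT]
    have e3 : φ g8 (bwT 1 e ca cb p x xb n) = φ g8 (bwT 1 0 0 0 0 x 0 0) :=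
      ho.loc g8 _ _ fun i hi => by
        rw [(grp8 h0 h1 i).1 hi]; simp [bwT]
    rw [hL]
    simp only
    rw [e1, e2, e3, p8 0 le_rfl zero_le_one, p8 x hx hx1]; ring
  have m000 : bwT 1 0 0 0 0 0 0 0 ∈ coneM MaV :=
    mem 0 0 0 0 0 0 0 le_rfl le_rfl zero_le_one zero_le_one zero_le_one le_rfl (by linarith)
      (by linarith) zero_le_one le_rfl le_rfl
  have mxa : ∀ x : ℝ, 0 ≤ x → x ≤ 1 → bwT 1 0 0 0 0 x 0 0 ∈ coneM MaV := fun x hx hx1 =>
    mem 0 0 0 0 x 0 0 le_rfl le_rfl zero_le_one hx1 zero_le_one le_rfl (by linarith)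
      (by linarith) zero_le_one le_rfl hx
  have r8 : r g8 = 1 := by
    have e1 := d8 0 0 0 0 0 0 1 zero_le_one le_rfl m000 (mxa 1 zero_le_one le_rfl)
    have e2 := hN.xa (y := 1) (c := m1) one_pos le_rfl hm1 (by
      intro t ht ht1
      rw [nu, nu]
      have := d0 0 0 0 0 t 0 t 0 (mxa t ht ht1)
        (mem 0 t 0 0 t 0 0 le_rfl ht zero_le_one ht1 zero_le_one le_rfl (by linarith)
          (by linarith) zero_le_one le_rfl ht) m000
        (mem 0 t 0 0 0 0 0 le_rfl ht zero_le_one zero_le_one zero_le_one le_rfl (by linarith)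
          (by linarith) zero_le_one le_rfl le_rfl)
      have := S1 t ht ht1
      linarith)
      (by
      intro t ht ht1
      rw [nu, nu]
      have := h.sharp _ (mxa t ht ht1) _ (mxa 1 zero_le_one le_rfl)
        (bwT_le le_rfl le_rfl le_rfl le_rfl ht1 le_rfl le_rfl)
      rw [bwT_sum] at this
      linarith)
    rw [nu, nu] at e2
    have e3 := h.sharp _ m000 _ (mxa 1 zero_le_one le_rfl)
        (bwT_le le_rfl le_rfl le_rfl le_rfl zero_le_one le_rfl le_rfl)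
    rw [bwT_sum] at e3
    have e4 : L 0 0 0 0 0 0 0 - L 0 0 0 0 1 0 0 ≤ 1 := by
      rw [hL]; simp only; linarith
    apply le_antisymm <;> linarith
  -- `X_b`
  have d9 : ∀ e ca cb xa x : ℝ, 0 ≤ x → x ≤ 1 → bwT 1 e ca cb 0 xa 0 0 ∈ coneM MaV →
      bwT 1 e ca cb 0 xa x 0 ∈ coneM MaV →
      L e ca cb 0 xa 0 0 - L e ca cb 0 xa x 0 = -φ g9 (bwT 1 x 0 0 0 0 x 0) := by
    intro e ca cb xa x hx hx1 m1 m2
    have e1 := out_dif ho m1 m2 (k := g9) (fun i hi => by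
      have : i ≠ 9 := fun h => hi (by rw [h])
      revert this
      fin_cases i <;> simp [bwT])
    have e2 : φ g9 (bwT 1 e ca cb 0 xa 0 0) = 0 :=
      ho.zero g9 _ fun i hi => by
        rcases grp9 h0 h1 hi with rfl | rfl <;> simp [bwT]
    have e3 : φ g9 (bwT 1 e ca cb 0 xa x 0) = φ g9 (bwT 1 x 0 0 0 0 x 0) :=
      ho.loc g9 _ _ fun i hi => by
        rcases grp9 h0 h1 hi with rfl | rfl <;> simp [bwT]
    rw [hL]
    simp only
    rw [e1, e2, e3]; ring
  have mexb : ∀ x : ℝ, 0 ≤ x → x ≤ 1 → bwT 1 x 0 0 0 0 x 0 ∈ coneM MaV := fun x hx hx1 =>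
    mem x 0 0 0 0 x 0 hx le_rfl zero_le_one zero_le_one hx1 le_rfl (by linarith)
      (by linarith) zero_le_one le_rfl le_rfl
  have b9 : ∀ y : ℝ, 0 ≤ y → y ≤ 1 → -φ g9 (bwT 1 y 0 0 0 0 y 0) ≤ r g9 * y := by
    intro y hy hy1
    have mc : bwT 1 y 0 0 (y * (1 - θ)) 0 y 0 ∈ coneM MaV :=
      mem y 0 0 _ 0 y 0 hy le_rfl (by nlinarith) zero_le_one hy1 le_rfl (by linarith)
        (by linarith) zero_le_one (mul_nonneg hy (by linarith)) le_rfl
    have e1 := ho.rate g9 _ mc y fun i hi => by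
      rcases grp9 h0 h1 hi with rfl | rfl
      · have : (1:ℝ) - θ ≠ 0 := by linarith
        simp [bwT, dhC, TV, this]
      · simp [bwT, dhC, TV]
    have e2 := (ho.mono g9 _ (mexb y hy hy1) _ mc fun i hi =>
      bwT_le le_rfl le_rfl le_rfl (mul_nonneg hy (by linarith)) le_rfl le_rfl le_rfl i).1
    rw [e1] at e2
    linarith
  have r9 : 1 ≤ r g9 := by
    by_cases hc : ∃ j : ℝ, 0 < j ∧ j ≤ 1 ∧ L 0 0 0 0 0 0 0 ≤ L j 0 0 0 0 0 0
    · obtain ⟨j, hj, hj1, hLj⟩ := hc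
      have me : ∀ x : ℝ, 0 ≤ x → x ≤ 1 → bwT 1 x 0 0 0 0 0 0 ∈ coneM MaV := fun x hx hx1 =>
        mem x 0 0 0 0 0 0 hx le_rfl zero_le_one zero_le_one zero_le_one le_rfl (by linarith)
          (by linarith) zero_le_one le_rfl le_rfl
      have mj : ∀ t : ℝ, 0 ≤ t → t ≤ j → bwT 1 j 0 0 0 0 t 0 ∈ coneM MaV := fun t ht ht1 =>
        mem j 0 0 0 0 t 0 hj.le le_rfl zero_le_one zero_le_one (ht1.trans hj1) le_rfl
          (by linarith) (by linarith) zero_le_one le_rfl le_rfl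
      have e2 := hN.xb (y := j) (c := m2) hj hj1 hm2 (by
        intro t ht ht1
        rw [nu, nu]
        have mt : bwT 1 j 0 t 0 0 0 0 ∈ coneM MaV :=
          mem j 0 t 0 0 0 0 hj.le le_rfl zero_le_one zero_le_one zero_le_one ht
            (by linarith) (by linarith) zero_le_one le_rfl le_rfl
        have a1 := d0 j 0 0 j 0 t 0 t (mj t ht ht1)
          (mem j 0 t 0 0 t 0 hj.le le_rfl zero_le_one zero_le_one (ht1.trans hj1) ht
            (by linarith) (by linarith) zero_le_one le_rfl le_rfl) (me j hj.le hj1) mt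
        have a2 := S2 t ht (ht1.trans hj1)
        have a3 : lam (bwT 1 j 0 t 0 0 0 0) ≤ lam (bwT 1 t 0 t 0 0 0 0) :=
          h.anti _ (mem t 0 t 0 0 0 0 ht le_rfl zero_le_one zero_le_one zero_le_one ht
            (by linarith) (by linarith) zero_le_one le_rfl le_rfl) _ mt
            (bwT_le ht1 le_rfl le_rfl le_rfl le_rfl le_rfl le_rfl)
        have a4 : L j 0 t 0 0 0 0 = lam (bwT 1 j 0 t 0 0 0 0) := rfl
        have a5 : L 0 0 0 0 0 0 0 = lam (bwT 1 0 0 0 0 0 0 0) := rfl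
        linarith)
        (by
        intro t ht ht1
        rw [nu, nu]
        have := h.sharp _ (mj t ht ht1) _ (mexb j hj.le hj1)
          (bwT_le le_rfl le_rfl le_rfl le_rfl le_rfl ht1 le_rfl)
        rw [bwT_sum] at this
        linarith)
      rw [nu, nu] at e2
      have e3 := d9 j 0 0 0 j hj.le hj1 (me j hj.le hj1) (mexb j hj.le hj1)
      have e4 := b9 j hj.le hj1
      have e5 : j * 1 ≤ j * r g9 := by linarith
      exact le_of_mul_le_mul_left e5 hj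
    · push Not at hc
      have mxx : ∀ e xa xb : ℝ, 0 ≤ e → 0 ≤ xa → xa ≤ 1 → xb ≤ 1 → xb ≤ e + xa →
          bwT 1 e 0 0 0 xa xb 0 ∈ coneM MaV := fun e xa xb he hxa hxa1 hxb h9 =>
        mem e 0 0 0 xa xb 0 he le_rfl zero_le_one hxa1 hxb le_rfl (by linarith) h9
          zero_le_one le_rfl hxa
      have key : ∀ j : ℝ, 0 < j → j ≤ 1 → 1 - j ≤ r g9 := by
        intro j hj hj1
        have e1 := hN.leaf (x := 1) (j := j) hj.le hj1 le_rfl (by
          rw [nu, nu]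
          have := d8 1 0 0 0 1 0 1 zero_le_one le_rfl
            (mxx 1 0 1 zero_le_one le_rfl zero_le_one le_rfl (by linarith))
            (mxx 1 1 1 zero_le_one zero_le_one le_rfl le_rfl (by linarith))
          linarith)
        rw [nu, nu, nu, nu, nu] at e1
        rcases e1 with e1 | e1
        · exfalso
          have a1 := d0 0 0 0 j 0 0 1 1 (mxx 0 1 1 le_rfl zero_le_one le_rfl le_rfl
            (by linarith)) (mxx j 1 1 hj.le zero_le_one le_rfl le_rfl (by linarith)) m000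
            (mxx j 0 0 hj.le le_rfl zero_le_one zero_le_one (by linarith))
          have a2 := hc j hj hj1
          linarith
        · have a1 := d8 1 0 0 0 1 0 (1 - j) (by linarith) (by linarith)
            (mxx 1 0 1 zero_le_one le_rfl zero_le_one le_rfl (by linarith))
            (mxx 1 (1 - j) 1 zero_le_one (by linarith) (by linarith) le_rfl (by linarith))
          have a2 := d8 0 0 0 0 0 0 1 zero_le_one le_rfl m000 (mxa 1 zero_le_one le_rfl)
          have a3 := d9 0 0 0 1 1 zero_le_one le_rfl (mxa 1 zero_le_one le_rfl)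
            (mxx 0 1 1 le_rfl zero_le_one le_rfl le_rfl (by linarith))
          have a4 := b9 1 zero_le_one le_rfl
          rw [r8] at a1 a2
          linarith
      by_contra hlt
      push Not at hlt
      have a1 := key (min 1 ((1 - r g9) / 2)) (lt_min one_pos (by linarith)) (min_le_left _ _)
      have a2 := min_le_right 1 ((1 - r g9) / 2)
      linarith
  -- `N`
  have r10 : 2 - θ ≤ r g10 := by
    have mn : ∀ xa n : ℝ, 0 ≤ xa → xa ≤ 1 → n ≤ 1 → bwT 1 1 1 1 1 xa 1 n ∈ coneM MaV :=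
      fun xa n h1 h2 h3 => mem 1 1 1 1 xa 1 n zero_le_one zero_le_one le_rfl h2 le_rfl
        zero_le_one (by linarith) (by linarith) h3 zero_le_one h1
    have e1 := hN.shiftN (y := 1) one_pos le_rfl hTw
    rw [nu, nu, nu] at e1
    have e2 := d8 1 1 1 1 1 1 1 zero_le_one le_rfl (mn 0 1 le_rfl zero_le_one le_rfl)
      (mn 1 1 zero_le_one le_rfl le_rfl)
    have e3 := out_dif ho (mn 0 0 le_rfl zero_le_one zero_le_one)
      (mn 0 1 le_rfl zero_le_one le_rfl) (k := g10) (fun i hi => by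
      rw [Ne, grp10 h0 h1] at hi
      revert hi
      fin_cases i <;> simp [bwT])
    have e4 : φ g10 (bwT 1 1 1 1 1 0 1 0) = 0 := ho.zero g10 _ fun i hi => by
      rw [(grp10 h0 h1 i).1 hi]; simp [bwT]
    have hθ : (2:ℝ) - θ ≠ 0 := by linarith
    have e5 := ho.rate g10 _ (mn 0 1 le_rfl zero_le_one le_rfl) (1 / (2 - θ)) fun i hi => by
      rw [(grp10 h0 h1 i).1 hi]
      simp [bwT, dhC, TV, hθ]
    rw [e4, e5] at e3
    have e6 : L 1 1 1 1 0 1 0 - L 1 1 1 1 0 1 1 = r g10 * (1 / (2 - θ)) := by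
      rw [hL]; simp only; rw [e3]; ring
    rw [r8] at e2
    have e7 : 1 ≤ r g10 * (1 / (2 - θ)) := by linarith
    rw [mul_one_div, le_div_iff₀ (by linarith)] at e7
    linarith
  -- `z`
  have r0 : 1 ≤ r g0 := by
    set c : Fin 11 → ℝ := ![1, 0, 0, 0, 1 - θ, 0, 0, 0, 0, 0, 0] with hc
    have mc : c ∈ coneM MaV := by
      rw [coneV]
      refine ⟨?_, ?_, ?_, ?_, ?_, ?_, ?_⟩ <;> simp only [hc, Matrix.cons_val] <;> linarith
    have e1 := out_dif ho mc zero_mem (k := g0) (fun i hi => by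
      rw [Ne, grp0 h0 h1] at hi
      revert hi
      fin_cases i <;> simp [hc])
    have e2 : φ g0 (0 : Fin 11 → ℝ) = 0 := ho.zero g0 _ fun i hi => rfl
    have hθ : (1:ℝ) - θ ≠ 0 := by linarith
    have e3 := ho.rate g0 _ mc 1 fun i hi => by
      rcases (grp0 h0 h1 i).1 hi with rfl | rfl
      · simp [hc, dhC, TV]
      · simp [hc, dhC, TV, hθ]
    rw [e2, e3, h.zero] at e1
    have e4 := own0 c mc (by intro s; fin_cases s <;> simp [hc]; linarith)
    have e5 : c 0 = 1 := by simp [hc]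
    linarith
  -- total
  have tot := ho.total (1, 0)
  have hA : lf A (1, 0) = A.1 := by simp [lf]
  rw [hA] at tot
  have pos : ∀ i : Fin 11, TV θ i ≠ 0 → (nC (TV θ) (rV θ) (gC (TV θ) (rV θ) i)).1 = 1 ∧
      0 ≤ r (gC (TV θ) (rV θ) i) := by
    intro i hi
    refine ⟨by rw [nC_of hi], ho.r_nonneg _ fun j hj => ?_⟩
    have hj' : TV θ j ≠ 0 := fun hj' => hi (gC_zero.1 (by rw [← hj]; exact gC_zero.2 hj'))
    rw [dhC, if_neg hj']
    exact lt_of_le_of_ne (TV_nonneg h1 j) (Ne.symm hj')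
  have term : ∀ k ∈ gset (gC (TV θ) (rV θ)), 0 ≤ r k * lf (nC (TV θ) (rV θ) k) (1, 0) := by
    intro k hk
    obtain ⟨i, -, rfl⟩ := mem_image.1 hk
    by_cases hi : TV θ i = 0
    · have e : gC (TV θ) (rV θ) i = 0 := gC_zero.2 hi
      rw [e, nC_zero]
      simp [lf]
    · obtain ⟨e1, e2⟩ := pos i hi
      simp only [lf, e1]
      linarith
  have n0 : TV θ 0 ≠ 0 := (TV_pos h1 (by simp)).ne'
  have n8 : TV θ 8 ≠ 0 := (TV_pos h1 (by simp)).ne'
  have n9 : TV θ 9 ≠ 0 := (TV_pos h1 (by simp)).ne'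
  have n10 : TV θ 10 ≠ 0 := (TV_pos h1 (by simp)).ne'
  have sub : ({g0, g8, g9, g10} : Finset ℕ) ⊆ gset (gC (TV θ) (rV θ)) := by
    intro k hk
    simp only [mem_insert, mem_singleton] at hk
    rcases hk with rfl | rfl | rfl | rfl <;> exact mem_image_of_mem _ (mem_univ _)
  have le := sum_le_sum_of_subset_of_nonneg sub fun k hk _ => term k hk
  have c08 : g0 ≠ g8 := fun h => by
    have := (grp0 h0 h1 8).1 h.symm
    simp at this
  have c09 : g0 ≠ g9 := fun h => by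
    have := (grp0 h0 h1 9).1 h.symm
    simp at this
  have c010 : g0 ≠ g10 := fun h => by
    have := (grp0 h0 h1 10).1 h.symm
    simp at this
  have c89 : g8 ≠ g9 := fun h => by
    have := (grp8 h0 h1 9).1 h.symm
    simp at this
  have c810 : g8 ≠ g10 := fun h => by
    have := (grp8 h0 h1 10).1 h.symm
    simp at this
  have c910 : g9 ≠ g10 := fun h => by
    have := (grp10 h0 h1 9).1 h
    simp at this
  rw [sum_insert (by simp [c08, c09, c010]), sum_insert (by simp [c89, c810]),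
    sum_insert (by simp [c910]), sum_singleton] at le
  have q0 : r g0 * lf (nC (TV θ) (rV θ) g0) (1, 0) = r g0 := by
    simp only [lf, (pos 0 n0).1, hg0]; ring
  have q8 : r g8 * lf (nC (TV θ) (rV θ) g8) (1, 0) = r g8 := by
    simp only [lf, (pos 8 n8).1, hg8]; ring
  have q9 : r g9 * lf (nC (TV θ) (rV θ) g9) (1, 0) = r g9 := by
    simp only [lf, (pos 9 n9).1, hg9]; ring
  have q10 : r g10 * lf (nC (TV θ) (rV θ) g10) (1, 0) = r g10 := by
    simp only [lf, (pos 10 n10).1, hg10]; ring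
  rw [q0, q8, q9, q10] at le
  linarith

end slope

end Crest.Agent.R136.Lv831
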