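import Crest.Agent.R136.Lv3_831
import Crest.Agent.R136.AwJ_774
import Crest.Agent.R136.K2Y_774

/-!
# R136, T.L, ending (Vis): the stage of the ladder at a record point (helper831)

`AV` : walls without the slots `1, 3`; `cn_V`, `natV`, `gapV`; `rB θ v` : record point of level `v`
(`T1 = 1`, slots `1, 3` at `9/2`); `nearB`; `recD_V`, `rungD_V`; `stage_initV` : 774's first stage with
one more own inequality; **`flemV`** : the F-lemma left of the record; **`dead_V`**.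
-/

set_option autoImplicit false
set_option linter.unusedSectionVars false
set_option linter.unusedVariables false

open Filter Topology

namespace Crest.Agent.R136.Lv831

open Finset Crest.Agent.R136.NetQ186 Crest.Agent.R136.Net191 Crest.Agent.R136.Qg926
open Crest.Agent.R136.Aw413
open Crest.Agent.R136.Dg219 Crest.Agent.R136.Dg262
open Crest.Agent.R136.K2S774 (cn Prf JT Stage RecD RungD BaseOk exists_joint cn_closed cn_zero)
open Crest.Agent.R136.AwJ774 (Wt mA mem_mA coneM_mA)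
open Crest.Agent.R136.LdF511 (sm monQ_all W7)

/-! ### walls -/

/-- walls without the slots `R`, `F_b` -/
def AV (w : Wt monQ) : Prop := w.2.1 1 = 0 ∧ w.2.1 3 = 0

theorem mons_eq {m : ℕ} {M M' : Mons m} (h : ∀ k, M.mon k = M'.mon k) : M = M' := by
  obtain ⟨a, b, c⟩ := M
  obtain ⟨a', b', c'⟩ := M'
  have : a = a' := funext h
  subst this
  rfl

theorem mA_V : mA monQ AV = MaV := mons_eq fun k => by
  ext e
  rw [mem_mA]
  constructor
  · rintro ⟨h, h1⟩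
    exact mem_filter.2 ⟨h, h1⟩
  · intro h
    obtain ⟨h1, h2⟩ := mem_filter.1 h
    exact ⟨h1, h2⟩

theorem cn_V : cn (mw monQ) AV = W7 := by rw [← coneM_mA, mA_V, coneV]

/-- natural vectors of the seven walls -/
structure NatV (c : Fin 11 → ℝ) : Prop where
  h6 : c 6 = c 2 + c 5
  h7 : c 7 = c 4 + c 5
  h8 : c 8 = c 0 + c 5
  h9 : c 9 = c 0 + c 6
  h10 : c 10 = c 0 + c 7

local macro "wl" : tactic => `(tactic|
  (rw [sm]; simp only [Matrix.cons_val]; push_cast; linarith))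

theorem NatV.eq {c : Fin 11 → ℝ} (h : NatV c) : ∀ k, ∀ e ∈ MaV.mon k,
    c k = ∑ s, (e s : ℝ) * c s := by
  obtain ⟨h6, h7, h8, h9, h10⟩ := h
  rw [MaV_all (fun k e => c k = ∑ s, (e s : ℝ) * c s),
    monQ_all (fun k e => (e 1 = 0 ∧ e 3 = 0) → c k = ∑ s, (e s : ℝ) * c s)]
  refine ⟨?_, ?_, ?_, ?_, ?_, ?_, ?_, ?_, ?_, ?_, ?_, ?_, ?_, ?_, ?_, ?_, ?_, ?_⟩ <;>
    rintro ⟨e1, e2⟩ <;> first
    | exact absurd e1 (by decide)
    | exact absurd e2 (by decide)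
    | wl

theorem NatV.nat {c : Fin 11 → ℝ} (h : NatV c) : K2S774.Nat (mw monQ) AV c := fun w hw => by
  have := h.eq w.1 w.2.1 (mem_filter.2 ⟨w.2.2, hw⟩)
  exact this

/-- the other walls are slack -/
theorem NatV.gap {c : Fin 11 → ℝ} (h : NatV c) {δ : ℝ} (h4 : c 4 + δ ≤ c 2 + c 3)
    (h1 : c 7 + δ ≤ c 0 + c 1) : ∀ k, ∀ e ∈ monQ.mon k, ¬ (e 1 = 0 ∧ e 3 = 0) →
      c k + δ ≤ ∑ s, (e s : ℝ) * c s := by
  obtain ⟨h6, h7, h8, h9, h10⟩ := h
  rw [monQ_all (fun k e => ¬ (e 1 = 0 ∧ e 3 = 0) → c k + δ ≤ ∑ s, (e s : ℝ) * c s)]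
  refine ⟨?_, ?_, ?_, ?_, ?_, ?_, ?_, ?_, ?_, ?_, ?_, ?_, ?_, ?_, ?_, ?_, ?_, ?_⟩ <;>
    intro e1 <;> first
    | exact absurd ⟨by decide, by decide⟩ e1
    | wl

/-! ### the record point -/

/-- record point of level `v`, slots `R`, `F_b` strictly inside -/
noncomputable def rB (θ v : ℝ) : Fin 11 → ℝ :=
  ![v, 9 / 2, 1 - θ * v, 9 / 2, 1 + (1 - θ) * v, 1 - θ * v, 2 * (1 - θ * v), 2 + (1 - 2 * θ) * v,
    1 + (1 - θ) * v, 2 + (1 - 2 * θ) * v, 2 + 2 * (1 - θ) * v]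

theorem rB_nat (θ v : ℝ) : NatV (rB θ v) := by
  constructor <;> simp only [rB, Matrix.cons_val] <;> ring

theorem rV_nat (θ : ℝ) : NatV (rV θ) := by
  constructor <;> simp only [rV, Matrix.cons_val] <;> ring

theorem TV_nat (θ : ℝ) : NatV (TV θ) := by
  constructor <;> simp only [TV, Matrix.cons_val] <;> ring

theorem rB_add (θ v σ : ℝ) : rB θ v + σ • rV θ = rB θ (v + σ) := by
  funext k
  fin_cases k <;> simp [rB, rV] <;> ring

section near

variable {θ v δ : ℝ} (h0 : 0 < θ) (h1 : θ < 1) (v0 : 0 < v) (v1 : v < 1)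

include h0 h1 v0 v1

theorem rB_pos (k : Fin 11) : 0 < rB θ v k := by
  have k0 := mul_pos h0 v0
  have k1 : θ * v < 1 := by nlinarith
  fin_cases k <;> simp only [rB, Matrix.cons_val, Fin.zero_eta, Fin.mk_one, Fin.reduceFinMk,
    Fin.isValue] <;> nlinarith

/-- boxes near the record point are legal -/
theorem nearB (dv : δ ≤ v) (dθ : δ ≤ 1 - θ * v) (d1 : δ ≤ 1 / 8) {d : Fin 11 → ℝ} (hd : d ∈ W7)
    (hdδ : ∀ k, |d k| ≤ δ) : rB θ v + d ∈ Leg monQ 20 := by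
  have k0 := mul_pos h0 v0
  have k1 : θ * v < 1 := by nlinarith
  have k2 : θ * v < v := by nlinarith
  obtain ⟨w1, w2, w3, w4, w5, w6, w7⟩ := hd
  have a := fun k => abs_le.1 (hdδ k)
  have a0 := a 0; have a1 := a 1; have a2 := a 2; have a3 := a 3; have a4 := a 4
  have a5 := a 5; have a6 := a 6; have a7 := a 7; have a8 := a 8; have a9 := a 9
  have a10 := a 10
  refine ⟨?_, fun k => ?_⟩
  · rw [legalQ_iff]
    refine ⟨fun k => ?_, ?_, ?_, ?_, ?_, ?_, ?_, ?_, ?_, ?_, ?_, ?_⟩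
    · fin_cases k <;>
        simp only [rB, Pi.add_apply, Matrix.cons_val, Fin.zero_eta, Fin.mk_one, Fin.reduceFinMk,
          Fin.isValue] <;> linarith
    all_goals
      simp only [rB, Pi.add_apply, Matrix.cons_val]
      linarith
  · fin_cases k <;>
      simp only [rB, Pi.add_apply, Matrix.cons_val, Fin.zero_eta, Fin.mk_one, Fin.reduceFinMk,
        Fin.isValue] <;> linarith

/-- room around the record point -/
theorem roomB : ∃ δ : ℝ, 0 < δ ∧ δ ≤ v ∧ δ ≤ 1 - v ∧ δ ≤ 1 - θ * v ∧ δ ≤ 1 / 8 := by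
  have k1 : θ * v < 1 := by nlinarith
  refine ⟨min (min v (1 - v)) (min (1 - θ * v) (1 / 8)), ?_, ?_, ?_, ?_, ?_⟩
  · exact lt_min (lt_min v0 (by linarith)) (lt_min (by linarith) (by norm_num))
  · exact (min_le_left _ _).trans (min_le_left _ _)
  · exact (min_le_left _ _).trans (min_le_right _ _)
  · exact (min_le_right _ _).trans (min_le_left _ _)
  · exact (min_le_right _ _).trans (min_le_right _ _)

end near

theorem small_of {C h δ : ℝ} {c : Fin 11 → ℝ} (hC : ‖c‖ ≤ C) (hh : 0 ≤ h)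
    (h2 : h * C ≤ δ) (k : Fin 11) : |(h • c) k| ≤ δ := by
  rw [Pi.smul_apply, smul_eq_mul, abs_mul, abs_of_nonneg hh]
  have : |c k| ≤ C := by
    rw [← Real.norm_eq_abs]; exact (norm_le_pi_norm c k).trans hC
  exact (mul_le_mul_of_nonneg_left this hh).trans h2

/-! ### data of the ladder -/

theorem full_V (w : Wt monQ) (hw : AV w) : ∃ s, (mw monQ).co w s ≠ 0 := monQ.ne w.1 w.2.1 w.2.2

theorem recD_V (θ : ℝ) : RecD (mw monQ) AV (rV θ) (cn (mw monQ) AV) ({4} : Set (Fin 11)) 0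
    (fun _ => 1 - θ) where
  full := full_V
  nat := (rV_nat θ).nat
  qd := fun d hd ξ t ht => K2S774.cn_nat_add ((rV_nat θ).nat.smul ξ) hd ht
  tie := fun i hi => by
    rw [Set.mem_singleton_iff.1 hi]
    simp [rV]

theorem rungD_V {θ : ℝ} (h1 : θ < 1) : RungD (mw monQ) AV (∅ : Set (Fin 11))
    ({1, 2, 3, 5, 6} : Set (Fin 11)) ({4} : Set (Fin 11)) 0 (cn (mw monQ) AV) (rV θ) (TV θ) (TV θ)
    (rV θ) (∅ : Finset (Fin 11)) where
  T0 := TV_nonneg h1
  TJ := fun i hi => absurd hi (notMem_empty i)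
  TZ := fun i _ hi => by
    refine lt_of_le_of_ne (TV_nonneg h1 i) fun h => hi ?_
    have := (TV_zero h1 i).1 h.symm
    simpa using this
  natT := (TV_nat θ).nat
  bρ := fun i _ => rfl
  TT := fun i _ => rfl
  qd := by
    have : -TV θ = (-1 : ℝ) • TV θ := by rw [neg_one_smul]
    rw [this]
    exact ((TV_nat θ).nat.smul _).mem
  head := fun w _ h => absurd h (notMem_empty _)
  JZ := fun i hi => absurd hi (notMem_empty i)
  JT := fun i hi => absurd hi (notMem_empty i)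
  Jz := notMem_empty _

section init

variable {m : ℕ} {W : Type*} [Fintype W] {Q : Walls (Fin m) W} {A : W → Prop}
  {P : Set (Fin m → ℝ)} {ν own : (Fin m → ℝ) → ℝ} {K : ℝ} {r0 ρ : Fin m → ℝ}
  {Dl : (Fin m → ℝ) →ₗ[ℝ] ℝ} {Qd : Set (Fin m → ℝ)} {Z Tie : Set (Fin m)} {kz : Fin m}
  {o : Fin m → ℝ} {τ : ℝ}

/-- **774's first stage, with one more own inequality** -/
theorem stage_initV (hP : Prf P ν own K) (R : RecD Q A ρ Qd Tie kz o)
    (hr0 : ∀ w, A w → r0 (Q.hd w) = Q.rhs w r0 + Q.cst w)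
    (hgap : ∀ w, ¬ A w → r0 (Q.hd w) < Q.rhs w r0 + Q.cst w)
    (hleg : ∀ C : ℝ, ∃ h0 : ℝ, 0 < h0 ∧ ∀ h : ℝ, 0 < h → h < h0 → ∀ c ∈ cn Q A, ‖c‖ ≤ C →
      r0 + h • c ∈ P)
    (hrec : ∀ σ : ℝ, ∀ᶠ h in 𝓝[>] (0:ℝ), ν (r0 + h • σ • ρ) = ν r0 + h * (σ * Dl ρ))
    (hdm : ∀ d ∈ Qd, ∀ᶠ h in 𝓝[>] (0:ℝ), r0 + h • d ∈ P ∧ ν (r0 + h • d) ≤ ν r0 + h * Dl d)
    (hown : ∀ c ∈ cn Q A, (∀ i ∈ Tie, c i ≤ o i * c kz) →
      ∀ᶠ h in 𝓝[>] (0:ℝ), own (r0 + h • c) = own r0 - h * (τ * c kz))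
    (hownu : ∀ c ∈ cn Q A, ∀ᶠ h in 𝓝[>] (0:ℝ), own (r0 + h • c) ≤ own r0 - h * (τ * c kz))
    {f : (Fin m → ℝ) → ℝ} {S : (Fin m → ℝ) → Prop}
    (hV : ∀ c ∈ cn Q A, S c → ∀ᶠ h in 𝓝[>] (0:ℝ), own (r0 + h • c) ≤ own r0 + h * f c) :
    ∃ lam lo : (Fin m → ℝ) → ℝ, Stage Q P ν own K r0 ρ Dl Qd Z Tie kz o τ A ∅ lam lo ∧
      ∀ c ∈ cn Q A, S c → lo c ≤ f c := by
  set k : ℕ → ℝ := fun l => 1 / ((l : ℝ) + 1) with hk
  have kpos : ∀ l, 0 < k l := fun l => by positivity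
  have k0 : Tendsto k atTop (𝓝 0) := tendsto_one_div_add_atTop_nhds_zero_nat
  obtain ⟨φ, hφ, lam, lo, H1, H2⟩ := exists_joint hP (cn_closed (Q := Q) (A := A)) cn_zero hleg
    kpos k0
  set q : ℕ → ℝ := fun l => k (φ l) with hq
  have qpos : ∀ l, 0 < q l := fun l => kpos _
  have q0 : Tendsto q atTop (𝓝 0) := k0.comp hφ.tendsto_atTop
  have q1 : Tendsto q atTop (𝓝[>] 0) :=
    tendsto_nhdsWithin_iff.2 ⟨q0, Eventually.of_forall fun l => qpos l⟩
  have hBU := Dg219.bup_of_tan qpos q0 H1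
  have hBO := Dg219.bup_of_tan qpos q0 H2
  have hρ : K2S774.Nat Q A ρ := R.nat
  refine ⟨lam, lo, ⟨⟨fun _ => r0, q, ⟨qpos, q0, fun _ w hw => hr0 w hw, fun w hw R => ?_,
    tendsto_const_nhds, H1, H2⟩, fun l i hi => by ring, fun _ => 0, fun l i _ => by ring,
    by simp⟩, hP.tan qpos H1 H2,
    fun w _ => ⟨Set.notMem_empty _, fun s hs => absurd hs (Set.notMem_empty s)⟩,
    fun i _ => Set.notMem_empty i, fun i _ => Set.notMem_empty i, Set.notMem_empty _, ?_, ?_, ?_,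
    ?_, ?_⟩, ?_⟩
  · have h1 : Tendsto (fun l => r0 (Q.hd w) + R * q l) atTop (𝓝 (r0 (Q.hd w) + R * 0)) :=
      (q0.const_mul R).const_add _
    rw [mul_zero, add_zero] at h1
    exact (h1.eventually_lt_const (hgap w hw)).mono fun l hl => hl.le
  · intro c hc c' hc' hcc _
    have : c = c' := funext fun i => hcc i (Set.notMem_empty i)
    rw [this]
  · intro σ
    refine tendsto_nhds_unique (hBU.lim _ (hρ.smul σ).mem) (tendsto_const_nhds.congr' ?_)
    filter_upwards [q1.eventually (hrec σ)] with l hl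
    rw [hl]
    have := (qpos l).ne'
    field_simp
    ring
  · intro c hc d hd hdc
    refine le_of_tendsto (hBU.lim c hc) ?_
    filter_upwards [hBU.mem c hc, q1.eventually (hdm d hd)] with l m1 hl
    have h1 := hP.mono _ hl.1 _ m1 (Qg926.add_smul_mono (qpos l).le
      (fun i => hdc i (Set.notMem_empty i)))
    rw [div_le_iff₀ (qpos l)]
    linarith [hl.2]
  · intro c hc hcT
    refine tendsto_nhds_unique (hBO.lim c hc) (tendsto_const_nhds.congr' ?_)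
    filter_upwards [q1.eventually (hown c hc hcT)] with l hl
    rw [hl]
    have := (qpos l).ne'
    field_simp
    ring
  · intro c hc
    refine le_of_tendsto (hBO.lim c hc) ?_
    filter_upwards [q1.eventually (hownu c hc)] with l hl
    rw [div_le_iff₀ (qpos l)]
    linarith
  · intro c hc hS
    refine le_of_tendsto (hBO.lim c hc) ?_
    filter_upwards [q1.eventually (hV c hc hS)] with l hl
    rw [div_le_iff₀ (qpos l)]
    linarith

end init

end Crest.Agent.R136.Lv831
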