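import Crest.Agent.R136.Own4_831

/-!
# R136: (Vis) at every scale and moving levels, consequences for tangents (helper831)

`VisS own b e j v` : there is `c > 0` such that for all `a` and `u > 0` the own loss of the slot `j`
at the level `v + a h`, at distance `u h` beyond the path, is `≥ c u h` for small `h`.

`ext_own_casesS` : the own dichotomy for `ExtZ` with `VisS`.
`own_tanZ`, `drop_tanZ` : own loss of a tangent of `ν` and strict drop along the tangent sequence, at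
a base point `x` : inputs `hown`, `hdrop` of 413's core.
-/

set_option autoImplicit false
set_option linter.unusedSectionVars false
set_option linter.unusedVariables false

open Filter Topology MeasureTheory Set

namespace Crest.Agent.R136.Own831

open Crest.Agent.R136.Dec146 Crest.Agent.R138.Ex926 Crest.Agent.R136.Net191
  Crest.Agent.R136.Qg926
open Crest.Agent.R136.Zpr779 (ExtZ)

variable {m : ℕ}

/-- the slot `j` rotates visibly near the level `v`, at every scale -/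
def VisS (own : (Fin m → ℝ) → ℝ) (b e : Fin m → ℝ) (j : Fin m) (v : ℝ) : Prop :=
  ∃ c : ℝ, 0 < c ∧ ∀ a u : ℝ, 0 < u → ∀ᶠ h in 𝓝[>] (0 : ℝ),
    c * (u * h) ≤ oloss own b e j (v + a * h) (u * h)

theorem Vis.strong {own : (Fin m → ℝ) → ℝ} {b e : Fin m → ℝ} {j : Fin m} {v : ℝ}
    (hv : Vis own b e j v)
    (hst : ∀ a u : ℝ, 0 ≤ u → Tendsto
      (fun h => (oloss own b e j (v + a * h) (u * h) - oloss own b e j v (u * h)) / h)
      (𝓝[>] 0) (𝓝 0)) : VisS own b e j v := by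
  obtain ⟨c, hc, y₀, hy₀, hy⟩ := hv
  refine ⟨c / 2, by linarith, fun a u hu => ?_⟩
  have h1 := (hst a u hu.le).eventually (lt_mem_nhds (show -(c / 2 * u) < 0 by nlinarith))
  have h2 : Tendsto (fun h : ℝ => u * h) (𝓝[>] 0) (𝓝 0) := by
    have : Tendsto (fun h : ℝ => u * h) (𝓝 0) (𝓝 (u * 0)) := tendsto_id.const_mul u
    rw [mul_zero] at this
    exact this.mono_left nhdsWithin_le_nhds
  filter_upwards [h1, h2.eventually (ge_mem_nhds hy₀), self_mem_nhdsWithin] with h g1 g2 g3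
  have hh : 0 < h := g3
  have g4 := hy (u * h) (mul_pos hu hh) g2
  rw [lt_div_iff₀ hh] at g1
  nlinarith

section path

variable {b e : Fin m → ℝ} {j kz : Fin m} {P : Set (Fin m → ℝ)} {α β y₁ : ℝ}

/-- stationarity of the loss on a legal set -/
theorem ae_stat_Leg {own : (Fin m → ℝ) → ℝ} {K : ℝ} (hK : 0 ≤ K)
    (hlip : ∀ p ∈ P, ∀ q ∈ P, |own p - own q| ≤ K * ‖p - q‖) (hsup : Sup4 own P)
    (hy₁ : 0 < y₁) (hr : RaiseLeg P b e j α β y₁) (he : ∀ i, 0 ≤ e i) (hej : 0 < e j)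
    (hkz : kz ≠ j) (hek : 0 < e kz) :
    ∀ᵐ v : ℝ, v ∈ Ioo α β → ∀ a u : ℝ, 0 ≤ u → Tendsto
      (fun h => (oloss own b e j (v + a * h) (u * h) - oloss own b e j v (u * h)) / h)
      (𝓝[>] 0) (𝓝 0) := by
  obtain ⟨own', hlip', hext⟩ := exists_ext hK hlip
  have hsup' : Sup4 own' P := by
    intro p hp q hq hi hs
    rw [hext p hp, hext q hq, hext _ hi, hext _ hs]
    exact hsup p hp q hq hi hs
  filter_upwards [ae_statAt (μ := volume) hK hlip' hsup' (LEGp_cone (e := e) (j := j))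
    (dom_of_raise hy₁ hr hkz hek)] with v hv hvI a u hu
  have h0 : (0 : Fin m → ℝ) ∈ LEGp e j := by
    have := LEGp_single (e := e) (j := j) (y := 0) le_rfl
    rwa [zero_smul] at this
  refine (stat_oloss he hej h0 (fun y hy => LEGp_single hy) (hv hvI) a hu).congr' ?_
  have t1 : Tendsto (fun h : ℝ => v + a * h) (𝓝[>] 0) (𝓝 v) := by
    have : Tendsto (fun h : ℝ => v + a * h) (𝓝 0) (𝓝 (v + a * 0)) :=
      (tendsto_id.const_mul a).const_add v
    rw [mul_zero, add_zero] at this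
    exact this.mono_left nhdsWithin_le_nhds
  have t2 : Tendsto (fun h : ℝ => u * h) (𝓝[>] 0) (𝓝 0) := by
    have : Tendsto (fun h : ℝ => u * h) (𝓝 0) (𝓝 (u * 0)) := tendsto_id.const_mul u
    rw [mul_zero] at this
    exact this.mono_left nhdsWithin_le_nhds
  filter_upwards [t1.eventually (lt_mem_nhds hvI.1), t1.eventually (gt_mem_nhds hvI.2),
    t2.eventually (gt_mem_nhds hy₁), self_mem_nhdsWithin] with h h1 h2 h3 h4
  have hh : 0 < h := h4
  rw [oloss_congr hext hr h1 h2 (mul_nonneg hu hh.le) h3.le,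
    oloss_congr hext hr hvI.1 hvI.2 (mul_nonneg hu hh.le) h3.le]

end path

variable {B B' : Base} {I0 I : ℕ → Finset (ℕ × ℝ)}
  {co : ∀ n : ℕ, ℕ × ℝ → ℕ × ℝ → Fin m → ℝ} {M : Mons m} {C : ℝ} {X : ℕ → Fin m → ℝ}
  {w : ℕ → ℝ} {Mw : Mons m} {R : ℝ} {Tn To : ℕ → ℝ} {kz j : Fin m} {w0 s : ℝ}
  {PD : Set (Fin m → ℝ)} {D : (Fin m → ℝ) → ℝ} {r o : ℝ → Fin m → ℝ} {E : ℝ → ℝ}
  {T : Fin m → Prop} {ν own : (Fin m → ℝ) → ℝ} {c₀ : ℝ} {b e : Fin m → ℝ} {α β y₁ : ℝ}

/-- **own dichotomy for `ExtZ`**, strong visible form: at a.e. level or zero loss somewhere -/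
theorem ext_own_casesS
    (h : ExtZ B B' I0 I co M C X w Mw R Tn To kz w0 s PD D r o E T ν own c₀)
    (hp : LPath (Leg Mw R) w0 kz j o b e α β y₁) :
    (∀ᵐ v : ℝ, v ∈ Ioo α β → VisS own b e j v) ∨
    ∀ Q : ℝ → Prop, (∀ᵐ v : ℝ, v ∈ Ioo α β → Q v) →
      ∃ v ∈ Ioo α β, Q v ∧ ∃ hh : ℕ → ℝ, (∀ l, 0 < hh l) ∧ Tendsto hh atTop (𝓝 0) ∧
        ∀ a u : ℝ, 0 ≤ u → ∀ ε : ℝ, 0 < ε → ∀ᶠ l in (atTop : Filter ℕ), ∀ q ∈ Leg Mw R,
          q kz = w0 + (v + a * hh l) → (∀ k, q k ≤ o (v + a * hh l) k) →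
          b + (v + a * hh l) • e ≤ q → q j = b j + (v + a * hh l) * e j →
          q + (u * hh l) • (Pi.single j 1 : Fin m → ℝ) ∈ Leg Mw R → ∀ p ∈ Leg Mw R,
          p ≤ q + (u * hh l) • (Pi.single j 1 : Fin m → ℝ) →
            (1 - s) * (1 - (v + a * hh l)) - ε * hh l ≤ own p := by
  have hm : (0 : ℝ) ≤ m := Nat.cast_nonneg _
  have hek : 0 < e kz := by rw [hp.ez]; exact one_pos
  rcases own_cases_Leg (P := Leg Mw R) (own := own) (K := m) hm h.olip (ext_sup4 h) h.oanti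
    hp.y0 hp.low hp.e0 hp.ej hp.kzj hek with hv | hz
  · left
    filter_upwards [hv, ae_stat_Leg (P := Leg Mw R) (own := own) (K := m) hm h.olip (ext_sup4 h)
      hp.y0 hp.low hp.e0 hp.ej hp.kzj hek] with v h1 h2 hvI
    exact (h1 hvI).strong (h2 hvI)
  · rcases ext_own_casesL h hp with hv | hz'
    · exfalso
      obtain ⟨v, hvI, hV, hh, hh0, hht, hz⟩ := hz _ hv
      obtain ⟨c, hc, y₀, hy₀, H⟩ := hV
      have h1 := hz 0 1 zero_le_one
      have h2 := h1.eventually (gt_mem_nhds hc)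
      have t2 : Tendsto hh atTop (𝓝 0) := hht
      obtain ⟨l, g1, g2, g3⟩ := (h2.and ((t2.eventually (ge_mem_nhds hy₀)).and
        (t2.eventually (ge_mem_nhds hp.y0)))).exists
      rw [zero_mul, add_zero, one_mul, div_lt_iff₀ (hh0 l)] at g1
      have g4 := H (hh l) (hh0 l) g2 _ (hp.low v hvI.1 hvI.2 (hh l) (hh0 l).le g3) le_rfl
      have g5 : oloss own b e j v (hh l) =
          (1 - s) * (1 - v) - own (b + v • e + hh l • (Pi.single j 1 : Fin m → ℝ)) := by
        unfold oloss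
        rw [hp.ownp h hvI.1 hvI.2]
      linarith
    · exact Or.inr hz'

/-! ### tangents at a base point -/

/-- position of a base point `x` of the level `v` : natural in the slot `j`, strictly own-wide in the
other slots, strictly above the lower path -/
structure PosP (w0 : ℝ) (kz j : Fin m) (o : ℝ → Fin m → ℝ) (b e : Fin m → ℝ) (α β v : ℝ)
    (x : Fin m → ℝ) : Prop where
  v1 : α < v
  v2 : v < β
  xz : x kz = w0 + v
  xj : x j = b j + v * e j
  wide : ∃ δ : ℝ, 0 < δ ∧ ∀ v' : ℝ, |v' - v| < δ → w0 + v' ≤ o v' kz ∧ b j + v' * e j ≤ o v' j ∧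
    ∀ k, k ≠ kz → k ≠ j → x k + δ ≤ o v' k
  low : ∀ k, k ≠ kz → k ≠ j → b k + v * e k < x k

/-- own-wide boxes near `x` -/
theorem PosP.wideEv {x : Fin m → ℝ} {v : ℝ} (hx : PosP w0 kz j o b e α β v x) (hez : e kz = 1)
    {hh : ℕ → ℝ} (hh0 : ∀ l, 0 < hh l) (hht : Tendsto hh atTop (𝓝 0)) {c : Fin m → ℝ}
    (hcj : c j ≤ e j * c kz) : ∀ᶠ l in atTop, α < v + c kz * hh l ∧ v + c kz * hh l < β ∧
      (x + hh l • c) kz = w0 + (v + c kz * hh l) ∧
      ∀ k, (x + hh l • c) k ≤ o (v + c kz * hh l) k := by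
  obtain ⟨δ, hδ, hw⟩ := hx.wide
  have t0 : ∀ a : ℝ, Tendsto (fun l => a * hh l) atTop (𝓝 0) := fun a => by
    have := hht.const_mul a
    rwa [mul_zero] at this
  have t1 : Tendsto (fun l => v + c kz * hh l) atTop (𝓝 v) := by
    have := (t0 (c kz)).const_add v
    rwa [add_zero] at this
  have t2 : ∀ᶠ l in atTop, ∀ k, c k * hh l ≤ δ := by
    rw [eventually_all]
    intro k
    exact (t0 (c k)).eventually (ge_mem_nhds hδ)
  have t3 : ∀ᶠ l in atTop, |v + c kz * hh l - v| < δ := by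
    have := (t0 (c kz)).abs
    rw [abs_zero] at this
    filter_upwards [this.eventually (gt_mem_nhds hδ)] with l hl
    have e1 : v + c kz * hh l - v = c kz * hh l := by ring
    rwa [e1]
  filter_upwards [t1.eventually (lt_mem_nhds hx.v1), t1.eventually (gt_mem_nhds hx.v2), t2, t3]
    with l h1 h2 h3 h4
  obtain ⟨w1, w2, w3⟩ := hw _ h4
  refine ⟨h1, h2, ?_, fun k => ?_⟩
  · simp only [Pi.add_apply, Pi.smul_apply, smul_eq_mul, hx.xz]; ring
  · simp only [Pi.add_apply, Pi.smul_apply, smul_eq_mul]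
    by_cases hk : k = kz
    · subst hk
      rw [hx.xz]; linarith
    · by_cases hkj : k = j
      · subst hkj
        rw [hx.xj]
        have := mul_le_mul_of_nonneg_left hcj (hh0 l).le
        nlinarith
      · have := w3 k hk hkj
        have := h3 k
        linarith

variable {L : Set (Fin m → ℝ)} {lam : (Fin m → ℝ) → ℝ} {x : Fin m → ℝ} {v : ℝ} {hh : ℕ → ℝ}

/-- **own loss of the tangent** at `x` -/
theorem own_tanZ (h : ExtZ B B' I0 I co M C X w Mw R Tn To kz w0 s PD D r o E T ν own c₀)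
    (hα : 0 ≤ α) (hβ : β ≤ 1) (hez : e kz = 1) (hx : PosP w0 kz j o b e α β v x)
    (hh0 : ∀ l, 0 < hh l) (hht : Tendsto hh atTop (𝓝 0))
    (ht : IsTan (Leg Mw R) L ν (fun _ => x) hh lam) :
    ∀ c ∈ L, ∀ c' ∈ L, c ≤ c' → c j ≤ e j * c kz →
      (1 - s) * (c' kz - c kz) ≤ lam c - lam c' := by
  intro c hc c' hc' hcc hcj
  refine le_of_forall_pos_le_add fun ε hε => ?_
  have t0 : Tendsto (fun l => c' kz * hh l) atTop (𝓝 0) := by
    have := hht.const_mul (c' kz)
    rwa [mul_zero] at this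
  have t1 : Tendsto (fun l => v + c' kz * hh l) atTop (𝓝 v) := by
    have := t0.const_add v
    rwa [add_zero] at this
  obtain ⟨l, g1, g2, g3, g4, g5⟩ := ((hx.wideEv hez hh0 hht hcj).and
    ((ht ‖c‖ (ε / 2) (by positivity)).and ((ht ‖c'‖ (ε / 2) (by positivity)).and
    ((t1.eventually (lt_mem_nhds hx.v1)).and (t1.eventually (gt_mem_nhds hx.v2)))))).exists
  obtain ⟨k1, k2, k3, k4⟩ := g1
  obtain ⟨m1, m2⟩ := g2 c hc le_rfl
  obtain ⟨m3, m4⟩ := g3 c' hc' le_rfl
  have hw := hh0 l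
  have hle : x + hh l • c ≤ x + hh l • c' := by
    intro k
    simp only [Pi.add_apply, Pi.smul_apply, smul_eq_mul]
    have := mul_le_mul_of_nonneg_left (hcc k) hw.le
    linarith
  have e1 := h.own_le _ m1 _ m3 hle
  have e2 := h.own_rot _ m1 _ (by linarith) (by linarith) k3 k4
  have e3 := h.own_up _ m3 (v + c' kz * hh l) (by linarith) (by linarith) (by
    simp only [Pi.add_apply, Pi.smul_apply, smul_eq_mul, hx.xz]; ring)
  rw [abs_le] at m2 m4
  have key : hh l * ((1 - s) * (c' kz - c kz)) ≤ hh l * (lam c - lam c' + ε) := by nlinarith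
  exact le_of_mul_le_mul_left key hw

/-- **strict drop** at `x` along every sequence of scales, from `VisS` -/
theorem drop_tanZ (h : ExtZ B B' I0 I co M C X w Mw R Tn To kz w0 s PD D r o E T ν own c₀)
    (hp : LPath (Leg Mw R) w0 kz j o b e α β y₁) (hV : VisS own b e j v)
    (hx : PosP w0 kz j o b e α β v x) (hh0 : ∀ l, 0 < hh l) (hht : Tendsto hh atTop (𝓝 0))
    (ht : IsTan (Leg Mw R) L ν (fun _ => x) hh lam) :
    ∀ c ∈ L, ∀ c' ∈ L, c ≤ c' → c j ≤ e j * c kz → c' kz = c kz → e j * c kz < c' j →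
      ∀ᶠ l in atTop, ν (x + hh l • c') < ν (x + hh l • c) := by
  intro c hc c' hc' hcc hcj hkz hj
  have hα := hp.α0
  have hβ := hp.β1
  obtain ⟨c1, hc1, hV⟩ := hV
  set u : ℝ := c' j - e j * c kz with hu
  have hu0 : 0 < u := by linarith
  have hht' : Tendsto hh atTop (𝓝[>] 0) :=
    tendsto_nhdsWithin_iff.2 ⟨hht, Eventually.of_forall hh0⟩
  have hev := hht'.eventually (hV (c kz) u hu0)
  have t0 : ∀ a : ℝ, Tendsto (fun l => a * hh l) atTop (𝓝 0) := fun a => by
    have := hht.const_mul a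
    rwa [mul_zero] at this
  have hlow : ∀ᶠ l in atTop, ∀ k, k ≠ kz → k ≠ j →
      b k + (v + c kz * hh l) * e k ≤ x k + hh l * c' k := by
    rw [eventually_all]
    intro k
    by_cases hk : k = kz
    · exact Eventually.of_forall fun l hn => absurd hk hn
    by_cases hkj : k = j
    · exact Eventually.of_forall fun l _ hn => absurd hkj hn
    have h1 := hx.low k hk hkj
    have h2 : Tendsto (fun l => (c kz * e k - c' k) * hh l) atTop (𝓝 0) := t0 _
    filter_upwards [h2.eventually (ge_mem_nhds (sub_pos.2 h1))] with l hl _ _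
    nlinarith
  filter_upwards [hx.wideEv hp.ez hh0 hht hcj, ht ‖c‖ 1 one_pos, ht ‖c'‖ 1 one_pos, hev, hlow,
    (t0 u).eventually (ge_mem_nhds hp.y0)] with l g1 g2 g3 g4 g5 g6
  obtain ⟨k1, k2, k3, k4⟩ := g1
  obtain ⟨m1, -⟩ := g2 c hc le_rfl
  obtain ⟨m3, -⟩ := g3 c' hc' le_rfl
  have hw := hh0 l
  have hle : x + hh l • c ≤ x + hh l • c' := by
    intro k
    simp only [Pi.add_apply, Pi.smul_apply, smul_eq_mul]
    have := mul_le_mul_of_nonneg_left (hcc k) hw.le
    linarith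
  -- the raised path lies below the box `c'`
  have hq : b + (v + c kz * hh l) • e + (u * hh l) • (Pi.single j 1 : Fin m → ℝ) ≤
      x + hh l • c' := by
    intro k
    by_cases hk : k = kz
    · subst hk
      simp only [Pi.add_apply, Pi.smul_apply, smul_eq_mul, Pi.single_eq_of_ne hp.kzj, mul_zero,
        add_zero, hp.bz, hp.ez, hx.xz, mul_one, hkz]
      linarith
    · by_cases hkj : k = j
      · subst hkj
        simp only [Pi.add_apply, Pi.smul_apply, smul_eq_mul, Pi.single_eq_same, mul_one, hx.xj, hu]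
        nlinarith
      · have := g5 k hk hkj
        simp only [Pi.add_apply, Pi.smul_apply, smul_eq_mul, Pi.single_eq_of_ne hkj, mul_zero,
          add_zero]
        linarith
  have e1 := h.oanti _ (hp.low _ k1 k2 _ (mul_nonneg hu0.le hw.le) g6) _ m3 hq
  have e2 : oloss own b e j (v + c kz * hh l) (u * hh l) = (1 - s) * (1 - (v + c kz * hh l)) -
      own (b + (v + c kz * hh l) • e + (u * hh l) • (Pi.single j 1 : Fin m → ℝ)) := by
    unfold oloss
    rw [hp.ownp h k1 k2]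
  have e3 := vis_drop h (v := v + c kz * hh l) (c := c1) (y := u * hh l) (by linarith)
    (by linarith) m1 m3 hle k3 k4 (by linarith)
  have : 0 < c1 * (u * hh l) := mul_pos hc1 (mul_pos hu0 hw)
  linarith

end Crest.Agent.R136.Own831
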