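import Crest.Agent.R136.Lv4_831
import Crest.Agent.R136.AwZ_146
import Crest.Agent.R136.Own5_831
import Crest.Agent.R136.TL0_196

/-!
# R136, T.L, the seam (Vis) (helper831)

`loss_rec` : D-max losses at the record; `drop_of_lo` : strict drop from an own drop of the joint
tangent; **`flemV`** : F-lemma left of the record; **`dead_V`**; **`seamVis`** : `SeamVis η`, `η ≤ 1`.
-/

set_option autoImplicit false
set_option linter.unusedSectionVars false
set_option linter.unusedVariables false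

open Filter Topology MeasureTheory

namespace Crest.Agent.R136.Lv831

open Finset Crest.Agent.R136.NetQ186 Crest.Agent.R136.Net191 Crest.Agent.R136.Qg926
open Crest.Agent.R136.GeoQ186
open Crest.Agent.R136.Gf356 Crest.Agent.R136.Aw413
open Crest.Agent.R136.Dg219 Crest.Agent.R136.Dg262
open Crest.Agent.R136.K2S774 (cn Prf JT Stage RecD RungD BaseOk X_zero)
open Crest.Agent.R136.K2A146 (FLemA deadA)
open Crest.Agent.R136.AwJ774 (Wt mA mem_mA coneM_mA bas_of_jt)
open Crest.Agent.R136.AwZ146 (BasX aewZ_core)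
open Crest.Agent.R136.LdF511 (W7)
open Crest.Agent.R136.Top484 (Par4)
open Crest.Agent.R136.TL196
open Crest.Agent.R136.Gz779
open Crest.Agent.R138.Ex926 (Base U IsTan)

/-! ### stage facts -/

section stage

variable {m : ℕ} {W : Type*} [Fintype W] {Q : Walls (Fin m) W} {A : W → Prop}
  {P : Set (Fin m → ℝ)} {ν own : (Fin m → ℝ) → ℝ} {K : ℝ} {r0 ρ : Fin m → ℝ}
  {Dl : (Fin m → ℝ) →ₗ[ℝ] ℝ} {Z Tie : Set (Fin m)} {kz : Fin m}
  {o : Fin m → ℝ} {τ : ℝ} {Dr : Set (Fin m)} {lam lo : (Fin m → ℝ) → ℝ}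

/-- D-max loss of `u` at the record points: `u` pays for one more slot -/
theorem loss_rec (H : Stage Q P ν own K r0 ρ Dl (cn Q A) Z Tie kz o τ A Dr lam lo)
    (R : RecD Q A ρ (cn Q A) Tie kz o) {u d : Fin m → ℝ} {s : Fin m}
    (hds : d = u + (Pi.single s (1:ℝ) : Fin m → ℝ))
    (hd : d ∈ cn Q A) {mm : ℝ} (hm : Dl d = -(1 + mm))
    (σ h : ℝ) (hh : 0 ≤ h) (hmem : σ • ρ + h • u ∈ cn Q A) :
    mm * h ≤ lam (σ • ρ) - lam (σ • ρ + h • u) := by
  have md := R.qd _ hd σ h hh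
  have h1 := H.dmx _ md _ md fun i _ => le_rfl
  have hdi : ∀ i, d i = u i + (Pi.single s (1:ℝ) : Fin m → ℝ) i := fun i => by rw [hds]; rfl
  have hle : σ • ρ + h • u ≤ σ • ρ + h • d := by
    intro i
    simp only [Pi.add_apply, Pi.smul_apply, smul_eq_mul]
    have : (0:ℝ) ≤ (Pi.single s (1:ℝ) : Fin m → ℝ) i := by
      by_cases hi : i = s
      · subst hi; simp
      · rw [Pi.single_eq_of_ne hi]
    have := mul_nonneg hh this
    rw [hdi]
    linarith
  have h2 := H.prf.sharp _ hmem _ md hle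
  have e1 : ∑ i, ((σ • ρ + h • d) i - (σ • ρ + h • u) i) = h := by
    rw [sum_eq_single s]
    · simp only [Pi.add_apply, Pi.smul_apply, smul_eq_mul]
      rw [hdi, Pi.single_eq_same]; ring
    · intro i _ hi
      simp only [Pi.add_apply, Pi.smul_apply, smul_eq_mul]
      rw [hdi, Pi.single_eq_of_ne hi]; ring
    · intro hs; exact absurd (mem_univ s) hs
  rw [e1] at h2
  rw [map_add, map_smul, map_smul, smul_eq_mul, smul_eq_mul, hm] at h1
  rw [H.rcd σ]
  nlinarith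

/-- strict drop of `ν` from a drop of the own tangent -/
theorem drop_of_lo {x : ℕ → Fin m → ℝ} {h : ℕ → ℝ} (hJ : JT Q A P ν own r0 x h lam lo)
    (hle : ∀ p ∈ P, ∀ q ∈ P, p ≤ q → own p - own q ≤ ν p - ν q) {c c' : Fin m → ℝ}
    (hc : c ∈ cn Q A) (hc' : c' ∈ cn Q A) (hcc : c ≤ c') (hlt : lo c' < lo c) :
    ∀ᶠ l in atTop, ν (x l + h l • c') < ν (x l + h l • c) := by
  set ε : ℝ := (lo c - lo c') / 3 with hε
  have hε0 : 0 < ε := by rw [hε]; linarith
  filter_upwards [hJ.tano ‖c‖ ε hε0, hJ.tano ‖c'‖ ε hε0] with l h1 h2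
  obtain ⟨m1, e1⟩ := h1 c hc le_rfl
  obtain ⟨m2, e2⟩ := h2 c' hc' le_rfl
  have hl := hJ.pos l
  have h3 := hle _ m1 _ m2 (Qg926.add_smul_mono hl.le hcc)
  rw [abs_le] at e1 e2
  have h4 : h l * (lo c - lo c') = 3 * (ε * h l) := by rw [hε]; ring
  have h5 : 0 < ε * h l := mul_pos hε0 hl
  nlinarith

end stage

/-! ### the F-lemma -/

/-- D-max, linear part -/
noncomputable def DLl (p : Par4) : (Fin 11 → ℝ) →ₗ[ℝ] ℝ where
  toFun := DL p
  map_add' := fun a b => by simp only [DL, Pi.add_apply]; ring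
  map_smul' := fun t a => by
    simp only [DL, Pi.smul_apply, smul_eq_mul, RingHom.id_apply]; ring

theorem DLl_apply (p : Par4) (a : Fin 11 → ℝ) : DLl p a = DL p a := rfl

section flem

variable {B B₁ : Base} {I0 J : ℕ → Finset (ℕ × ℝ)} {co : ∀ n : ℕ, ℕ × ℝ → ℕ × ℝ → Fin 11 → ℝ}
  {f : ℕ → ℕ × ℝ → Fq4} {C : ℝ} {X : ℕ → Fin 11 → ℝ} {wx : ℕ → ℝ} {T : ℕ → ℝ}
  {ν own lam lo : (Fin 11 → ℝ) → ℝ} {p : Par4} {v kk : ℝ}

/-- **the F-lemma left of the record** -/
theorem flemV (hZ : ZWin B B₁ I0 J co monQ C X wx (Leg monQ 20) T ν) (hC : 0 ≤ C)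
    (hco : ∀ n, ∀ i ∈ I0 n, ∀ j ∈ I0 n, co n i j = coQ (f n i) (f n j))
    (hX : ∀ n, NatV (X n)) (h0 : 0 < p.θ 1) (h1 : p.θ 1 < 1) (v0 : 0 < v) (v1 : v < 1)
    (hq1 : 0 < p.q 1) (hq2 : 0 < p.q 2)
    (H : Stage (mw monQ) (Leg monQ 20) ν own ((11 : ℕ) : ℝ) (rB (p.θ 1) v) (rV (p.θ 1)) (DLl p)
      (cn (mw monQ) AV) ({1, 2, 3, 5, 6} : Set (Fin 11)) ({4} : Set (Fin 11)) 0
      (fun _ => 1 - p.θ 1) 1 AV ∅ lam lo)
    (hkk : 0 < kk) (hlo : ∀ c ∈ cn (mw monQ) AV, (1 - p.θ 1) * c 0 ≤ c 4 →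
      lo c ≤ -(c 0) - kk * (c 4 - (1 - p.θ 1) * c 0))
    (hle : ∀ a ∈ Leg monQ 20, ∀ b ∈ Leg monQ 20, a ≤ b → own a - own b ≤ ν a - ν b) :
    FLemA (mw monQ) AV (Leg monQ 20) ν own (rB (p.θ 1) v) (DLl p) ({4} : Set (Fin 11)) 0
      (fun _ => 1 - p.θ 1) (TV (p.θ 1)) (TV (p.θ 1)) (rV (p.θ 1)) lam lo (fun _ => True)
      (p.g - p.q 0 * (1 - p.θ 1)) := by
  intro z hz D hD k lam' lo' kpos k0 H1 H2 x' h' hJ hB φ rt out _
  set θ := p.θ 1 with hθ
  have R := recD_V θ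
  have T0 := TV_nonneg h1
  have natT := (TV_nat θ).nat
  have hTie : ∀ i ∈ ({4} : Set (Fin 11)), (fun _ : Fin 11 => 1 - θ) i * TV θ 0 ≤ TV θ i := by
    intro i hi
    rw [Set.mem_singleton_iff.1 hi]
    simp [TV]
  have hb : ∀ i, i ∉ (∅ : Set (Fin 11)) → rV θ i = rV θ i := fun i _ => rfl
  have hown := H.hown R natT hTie hb hz kpos k0 H1 H2
  have hlo1 := (H.lo_tan R natT hTie hb hz kpos k0 H2).1
  -- own drop of the tangent
  have hlo2 : ∀ c ∈ cn (mw monQ) AV, (1 - θ) * c 0 < c 4 → lo' c < -(c 0) := by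
    intro c hc hc4
    set y : Fin 11 → ℝ := Dg262.X 0 (TV θ) (rV θ) z with hy
    have hyn : K2S774.Nat (mw monQ) AV y := by
      rw [hy, X_zero]; exact (natT.smul _).add ((rV_nat θ).nat.smul _)
    have y4 : y 4 = (1 - θ) * y 0 := by
      rw [hy, X_zero]; simp [TV, rV]; ring
    have hBO := Dg219.bup_of_tan kpos k0 H2
    have hy0 : lo y = -(1 * y 0) := H.ownr y hyn.mem fun i hi => by
      rw [Set.mem_singleton_iff.1 hi, y4]
    have hle1 : lo' c ≤ -(c 0) - kk * (c 4 - (1 - θ) * c 0) := by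
      refine le_of_tendsto (hBO.lim c hc) (Eventually.of_forall fun l => ?_)
      have hk := kpos l
      have h3 : (1 - θ) * (y + k l • c) 0 ≤ (y + k l • c) 4 := by
        simp only [Pi.add_apply, Pi.smul_apply, smul_eq_mul, y4]
        nlinarith
      have h4 := hlo _ (K2S774.cn_nat_add hyn hc hk.le) h3
      rw [div_le_iff₀ hk, hy0]
      simp only [Pi.add_apply, Pi.smul_apply, smul_eq_mul, y4] at h4
      nlinarith
    have : 0 < kk * (c 4 - (1 - θ) * c 0) := mul_pos hkk (by linarith)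
    linarith
  -- the windows
  have hcone : coneM MaV = cn (mw monQ) AV := by rw [← coneM_mA, mA_V]
  have hBas : Bas monQ MaV x' h' := by
    have := bas_of_jt hJ (rB_pos h0 h1 v0 v1)
    rwa [mA_V] at this
  have hBX : BasX monQ monQ MaV X wx :=
    ⟨MaV_sub, fun k e he n => (hX n).eq k e he, fun k e he hne => absurd he hne⟩
  have ht := hJ.tan
  have outS := out.toOutS
  rw [← hcone] at ht outS
  have hA : AeW B B₁ I0 J co monQ MaV C lam' (TV θ) (rV θ) (D (1, 0), D (0, 1)) φ rt 0 1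
      (fun _ => 1 - θ) (fun i => i = 4) (fun i => i = 4) :=
    aewZ_core hZ (by norm_num) hBX hBas ht outS
      (by
        intro c hc c' hc' hcc hV
        rw [hcone] at hc hc'
        exact hown c hc c' hc' hcc fun i hi _ => hV i (Set.mem_singleton_iff.1 hi))
      (by decide)
      (by
        rintro c hc c' hc' hcc hV hkz ⟨i, hi, hi2⟩
        subst hi
        rw [hcone] at hc hc'
        refine drop_of_lo hJ hle hc hc' hcc ?_
        have e1 := hlo1 c hc fun i hi _ => hV i (Set.mem_singleton_iff.1 hi)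
        have e2 := hlo2 c' hc' (by rw [hkz]; exact hi2)
        rw [hkz] at e2
        linarith)
  -- the sweeps
  have mz : bwT 1 0 0 0 0 0 0 0 ∈ cn (mw monQ) AV := by
    rw [← hcone]
    exact bwT_cone (by norm_num) (by norm_num) (by norm_num) (by norm_num) (by norm_num)
      (by norm_num) (by norm_num)
  have z0 : ∀ i : Fin 11, TV θ i = 0 → bwT 1 0 0 0 0 0 0 0 i ≤ 0 * rV θ i := by
    intro i hi
    rw [zero_mul]
    rcases (TV_zero h1 i).1 hi with rfl | rfl | rfl | rfl | rfl <;> simp [bwT]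
  have S1 : ∀ t : ℝ, 0 ≤ t → t ≤ 1 →
      p.q 1 * t ≤ lam' (bwT 1 0 0 0 0 0 0 0) - lam' (bwT 1 0 t 0 0 0 0 0) := by
    intro t ht0 ht1
    set u : Fin 11 → ℝ := Pi.single 5 1 with hu
    have e1 : bwT 1 0 0 0 0 0 0 0 + t • u = bwT 1 0 t 0 0 0 0 0 := by
      funext i
      fin_cases i <;> simp [bwT, hu]
    have m1 : bwT 1 0 t 0 0 0 0 0 ∈ cn (mw monQ) AV := by
      rw [← hcone]
      exact bwT_cone (by linarith) (by linarith) (by linarith) (by linarith) (by linarith)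
        (by linarith) (by linarith)
    have hds : (![0, 0, 0, 0, 0, 1, 0, 0, 1, 0, 0] : Fin 11 → ℝ) =
        u + (Pi.single 8 (1:ℝ) : Fin 11 → ℝ) := by
      funext i
      fin_cases i <;> simp [hu]
    have hd : (![0, 0, 0, 0, 0, 1, 0, 0, 1, 0, 0] : Fin 11 → ℝ) ∈ cn (mw monQ) AV := by
      rw [cn_V]
      refine ⟨?_, ?_, ?_, ?_, ?_, ?_, ?_⟩ <;> simp only [Matrix.cons_val] <;> norm_num
    have hm : DLl p ![0, 0, 0, 0, 0, 1, 0, 0, 1, 0, 0] = -(1 + p.q 1) := by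
      rw [DLl_apply]
      simp [DL]
      ring
    have := H.sweepR R.nat T0 natT hb hz kpos k0 H1 (u := u) (c' := bwT 1 0 0 0 0 0 0 0)
      (mm := p.q 1) (σ := 0) (h := t) (by
        intro i
        rw [hu]
        by_cases hi : i = 5
        · subst hi; simp
        · rw [Pi.single_eq_of_ne hi]) ht0 (fun σ h hh hmem => loss_rec H R hds hd hm σ h hh hmem)
      mz (by rw [e1]; exact m1) (fun i _ hi => z0 i hi) (by
        intro i _ hui
        have hi : i = 5 := by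
          by_contra hi
          exact hui (by rw [hu, Pi.single_eq_of_ne hi])
        subst hi
        exact ⟨by simp [TV], by simp [bwT]⟩)
    rwa [e1] at this
  have S2 : ∀ t : ℝ, 0 ≤ t → t ≤ 1 →
      p.q 2 * t ≤ lam' (bwT 1 0 0 0 0 0 0 0) - lam' (bwT 1 t 0 t 0 0 0 0) := by
    intro t ht0 ht1
    set u : Fin 11 → ℝ := ![0, 0, 1, 0, 0, 0, 1, 0, 0, 0, 0] with hu
    have e1 : bwT 1 0 0 0 0 0 0 0 + t • u = bwT 1 t 0 t 0 0 0 0 := by
      funext i
      fin_cases i <;> simp [bwT, hu]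
    have m1 : bwT 1 t 0 t 0 0 0 0 ∈ cn (mw monQ) AV := by
      rw [← hcone]
      exact bwT_cone (by linarith) (by linarith) (by linarith) (by linarith) (by linarith)
        (by linarith) (by linarith)
    have hds : (![0, 0, 1, 0, 0, 0, 1, 0, 0, 1, 0] : Fin 11 → ℝ) =
        u + (Pi.single 9 (1:ℝ) : Fin 11 → ℝ) := by
      funext i
      fin_cases i <;> simp [hu]
    have hd : (![0, 0, 1, 0, 0, 0, 1, 0, 0, 1, 0] : Fin 11 → ℝ) ∈ cn (mw monQ) AV := by
      rw [cn_V]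
      refine ⟨?_, ?_, ?_, ?_, ?_, ?_, ?_⟩ <;> simp only [Matrix.cons_val] <;> norm_num
    have hm : DLl p ![0, 0, 1, 0, 0, 0, 1, 0, 0, 1, 0] = -(1 + p.q 2) := by
      rw [DLl_apply]
      simp [DL]
      ring
    have := H.sweepR R.nat T0 natT hb hz kpos k0 H1 (u := u) (c' := bwT 1 0 0 0 0 0 0 0)
      (mm := p.q 2) (σ := 0) (h := t) (by
        intro i
        fin_cases i <;> simp [hu]) ht0 (fun σ h hh hmem => loss_rec H R hds hd hm σ h hh hmem)
      mz (by rw [e1]; exact m1) (fun i _ hi => z0 i hi) (by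
        intro i _ hui
        have hi : i = 2 ∨ i = 6 := by
          revert hui
          fin_cases i <;> simp [hu]
        rcases hi with rfl | rfl
        · exact ⟨by simp [TV], by simp [bwT]⟩
        · exact ⟨by simp [TV], by simp [bwT]⟩)
    rwa [e1] at this
  have hsl := slopeV (ι := fun _ => ℕ × ℝ) (f := f) hA h0 h1 hC hco hZ.ne (fun i hi => Or.inr hi)
    rfl hq1 hq2 S1 S2
  have hDT : DLl p (TV θ) = p.g - 5 + θ - p.q 0 * (1 - θ) := by
    rw [DLl_apply]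
    simp [DL, TV]
    ring
  rw [hDT]
  simp only at hsl
  linarith

end flem

end Crest.Agent.R136.Lv831
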