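import Crest.Agent.R136.Lv6b_208
import Crest.Agent.R136.Lnf0_208

/-!
# R136 (S0187), PLAN 2 (AL): `LeafV6` (helper208)
-/

set_option autoImplicit false
set_option linter.unusedVariables false

open Finset

namespace Crest.Agent.R136.Lv6208

open Crest.Agent.R136.Sh605
open Crest.Agent.R136.K4 (Plk4)
open Crest.Agent.R136.Tlt51 (Shp InP)
open Crest.Agent.R136.Deep51 (CloseC)
open Crest.Agent.R136.Alw500 (lbl)
open Crest.Agent.R136.Gbx862 (zj gb gb_close zj_mem)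
open Crest.Agent.R136.AlD601 (Nd Sm Gn jS vS)
open Crest.Agent.R136.Al500 (Cf Dm Cl2 LeafV6)
open Crest.Agent.R136.Lnf208 (rpow_up uu_of_cf)
open Crest.Agent.R136.Adj214 (KD KD_pos KD_one)

set_option maxHeartbeats 1000000 in
/-- **`LeafV6`** -/
theorem leafV6 : LeafV6 := by
  have KD1 := KD_one
  obtain ⟨c0, hc0⟩ : ∃ c0 : ℝ, c0 = 2 * 10 ^ 60 * KD ^ 7 := ⟨_, rfl⟩
  have hKD7 : (1:ℝ) ≤ KD ^ 7 := one_le_pow₀ KD1
  have hc01 : 1 ≤ c0 := by rw [hc0]; nlinarith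
  have hKD2 : (1:ℝ) ≤ KD ^ 2 := one_le_pow₀ KD1
  have hKD0 : (0:ℝ) ≤ KD := by linarith
  obtain ⟨C, hC⟩ : ∃ C : ℝ, C = 2 * 10 ^ 9 * ((10 ^ 13 * KD) ^ 35 * (c0 ^ 400) ^ 105) + 630105
      + 10 ^ 27 * KD ^ 2 := ⟨_, rfl⟩
  have q1 : 0 ≤ 2 * 10 ^ 9 * ((10 ^ 13 * KD) ^ 35 * (c0 ^ 400) ^ 105) := by positivity
  have q2 : 0 ≤ 10 ^ 27 * KD ^ 2 := by positivity
  have hCC1 : 2 * 10 ^ 9 * ((10 ^ 13 * KD) ^ 35 * (c0 ^ 400) ^ 105) + 630105 ≤ C := by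
    rw [hC]; linarith
  have hCC4 : 10 ^ 27 * KD ^ 2 ≤ C := by rw [hC]; linarith
  have hCC5 : 10 ^ 4 ≤ C := by rw [hC]; linarith
  refine ⟨C, by linarith, ?_⟩
  intro qm qp L P cu cv Uf Vf W B M a w1 w2 z0 ρ zL ρL r κ E H hc hκ hH l m k g hl hm hk hk1 hg hg1
    hn t ht t' ht' j hj hcv hlb nd1 nd2 nd3 sm1 sm2
  have t1 := hc.two.to1
  have hW1 := hc.W1
  have hB1 : 1 ≤ B := hW1.trans hc.WB
  have hκ0 := hc.κ0
  have hE0 : 0 < E := by have := hc.E1; linarith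
  have hHpos : (0 : ℝ) < H := by have := hc.E1; have := hc.EH; linarith
  have hC0 : 0 < C := by linarith
  have hCB1 : 1 ≤ C * B := by nlinarith
  have hκ2 : 10 ^ 4 * κ ≤ 1 := by
    refine le_trans ?_ hκ
    apply mul_le_mul_of_nonneg_right _ hκ0.le
    have : 1 ≤ W ^ C := Real.one_le_rpow hW1 hC0.le
    nlinarith
  have hH2 : 10 ^ 27 * KD ^ 2 * W ^ 8 ≤ (H : ℝ) := by
    refine le_trans ?_ hH
    have a1 : 10 ^ 27 * KD ^ 2 * W ^ 8 ≤ C * B ^ 8 :=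
      mul_le_mul hCC4 (pow_le_pow_left₀ (by linarith) hc.WB 8) (by positivity) hC0.le
    have a2 : C * B ^ 8 ≤ (C * B) ^ 8 := by
      rw [mul_pow]
      exact mul_le_mul_of_nonneg_right (le_self_pow₀ (by linarith) (by norm_num)) (by positivity)
    have a3 : (C * B) ^ 8 ≤ (C * B) ^ C := by
      rw [← Real.rpow_natCast (C * B) 8]
      exact rpow_up hCB1 (by push_cast; linarith)
    exact a1.trans (a2.trans a3)
  have uu := uu_of_cf hc hκ2 hH2 ht ht' hcv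
  have Sg0 : 0 ≤ l + m + 1 / (H : ℝ) := by positivity
  have hnum := num hc01 hW1 hc.WB hk hk1 Sg0 hg hg1 hCC1 hn
  have hang := hc.ang t' ht'
  have hup := (hc.up t' ht').1
  have hkE' := hc.kE' t' ht'
  have hkUV := hc.kUV t' ht'
  have hkVU := hc.kVU t' ht'
  rw [hcv] at hang hup hkE' hkUV hkVU nd2 sm2
  refine AlD601.not_Gn.2 ⟨sm1, fun i => ?_⟩
  exact core uu hc.E1 hc.EH hc.HE hH2 t1.w10 t1.w20 (hc.dmU t ht) (hc.dmV t ht) (hc.dmU t' ht')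
    (hc.ang t ht) hang hup (hc.kE t ht) (hc.kE' t ht) hkE' (hc.kE t' ht') (hc.kUV t ht)
    (hc.kVU t ht) hkUV hkVU hj hlb.symm hc0 rfl rfl hl hm hk hk1 hg hg1 hnum nd1 nd2 nd3 sm1 sm2 i

end Crest.Agent.R136.Lv6208
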