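import Mathlib

/-!
# R136 (S0187), PLAN 2 (AL), leaf V6: real powers to natural powers (helper601)
-/

set_option autoImplicit false

namespace Crest.Agent.R136.Nv601

/-- **numbers of LeafV6** : any `C ≥ c, n, 2` turns the real powers of the leaf into natural ones -/
theorem num6 {c C : ℝ} {n : ℕ} (hc : 1 ≤ c) (h1 : c ≤ C) (h2 : (n : ℝ) ≤ C) (h3 : 2 ≤ C)
    {B k g S : ℝ} (hB : 1 ≤ B) (hk : 0 < k) (hk1 : k ≤ 1) (hg : 0 < g) (hg1 : g ≤ 1) (hS : 0 ≤ S)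
    (h : (C * B / k) ^ C * S ≤ g ^ C) : (c * B / k) ^ n * S ≤ g ^ 2 := by
  have hC : 1 ≤ C := hc.trans h1
  have hcB : 1 ≤ c * B / k := by
    rw [le_div_iff₀ hk]
    have : 1 ≤ c * B := by nlinarith
    linarith
  have hCB : c * B / k ≤ C * B / k := by
    refine div_le_div_of_nonneg_right ?_ hk.le
    exact mul_le_mul_of_nonneg_right h1 (by linarith)
  have e1 : (c * B / k) ^ n ≤ (C * B / k) ^ C := by
    calc (c * B / k) ^ n = (c * B / k) ^ ((n : ℕ) : ℝ) := (Real.rpow_natCast _ _).symm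
      _ ≤ (c * B / k) ^ C := Real.rpow_le_rpow_of_exponent_le hcB h2
      _ ≤ (C * B / k) ^ C := Real.rpow_le_rpow (by linarith) hCB (by linarith)
  have e2 : g ^ C ≤ g ^ 2 := by
    calc g ^ C ≤ g ^ (2 : ℝ) := Real.rpow_le_rpow_of_exponent_ge hg hg1 h3
      _ = g ^ 2 := by norm_cast
  exact ((mul_le_mul_of_nonneg_right e1 hS).trans h).trans e2

/-- the same for `(C B)^C ≤ H` -/
theorem numH {c C : ℝ} {n : ℕ} (hc : 1 ≤ c) (h1 : c ≤ C) (h2 : (n : ℝ) ≤ C) {B H : ℝ} (hB : 1 ≤ B)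
    (h : (C * B) ^ C ≤ H) : (c * B) ^ n ≤ H := by
  have hC : 1 ≤ C := hc.trans h1
  have hcB : 1 ≤ c * B := by nlinarith
  calc (c * B) ^ n = (c * B) ^ ((n : ℕ) : ℝ) := (Real.rpow_natCast _ _).symm
    _ ≤ (c * B) ^ C := Real.rpow_le_rpow_of_exponent_le hcB h2
    _ ≤ (C * B) ^ C := Real.rpow_le_rpow (by linarith)
        (mul_le_mul_of_nonneg_right h1 (by linarith)) (by linarith)
    _ ≤ H := h

/-- and for `C W^C κ ≤ 1` -/
theorem numκ {c C : ℝ} {n : ℕ} (hc : 1 ≤ c) (h1 : c ≤ C) (h2 : (n : ℝ) ≤ C) {W κ : ℝ} (hW : 1 ≤ W)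
    (hκ : 0 ≤ κ) (h : C * W ^ C * κ ≤ 1) : c * W ^ n * κ ≤ 1 := by
  have e : W ^ n ≤ W ^ C := by
    calc W ^ n = W ^ ((n : ℕ) : ℝ) := (Real.rpow_natCast _ _).symm
      _ ≤ W ^ C := Real.rpow_le_rpow_of_exponent_le hW h2
  refine le_trans (mul_le_mul_of_nonneg_right (mul_le_mul h1 e (by positivity) (by linarith)) hκ) h

end Crest.Agent.R136.Nv601
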