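import Crest.Agent.R136.V6m_467
import Crest.Agent.R136.Cuu4_57
import Crest.Agent.R136.Lnf0_208
import Crest.Agent.R136.Chm5_862
import Crest.Agent.R136.Nv6_601
import Crest.Agent.R136.AlK_500

/-!
# R136 (S0187), PLAN 2 (AL), leaf V6: assembly (helper500, second copy)

* `v6_pt` : one pair of lines, one letter `K` for all the constants.
* `leafV6` : `Al500.LeafV6`.
-/

set_option autoImplicit false
set_option linter.unusedVariables false

namespace Crest.Agent.R136.Lv6500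

open Crest.Agent.R136.Sh605 Crest.Agent.R136.Tl102
open Crest.Agent.R136.K4 (Plk4)
open Crest.Agent.R136.Tlt51 (Shp InP)
open Crest.Agent.R136.Deep51 (CloseC)
open Crest.Agent.R136.KapP335 (kapP kapP_eq)
open Crest.Agent.R136.Gbx862 (zj)
open Crest.Agent.R136.AlD601
open Crest.Agent.R136.Rk601 (Jt sl th mn)
open Crest.Agent.R136.Hcp208 (Nr)
open Crest.Agent.R136.Chm862 (gm df Tr co Own own v6_move sl_of_tg)
open Crest.Agent.R136.Adj214 (KD KD_pos KD_one)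
open Crest.Agent.R136.Wdg296 (Dv dv_of slopes_of_not_Nd jS_self)
open Crest.Agent.R136.V6p467 (v6_point disp_V near_box a0_gen)

theorem Own.up {C K w k : ℝ} {J : Jt} (h : Own C w k J) (hC : C ≤ K) (hw : 0 ≤ w) (hk : 0 ≤ k) :
    Own K w k J :=
  { sy := h.sy
    lo := h.lo
    hi := h.hi
    s := fun i => (h.s i).trans hC
    g := fun i => (h.g i).trans (mul_le_mul_of_nonneg_right hC hw)
    h00 := h.h00
    lf := fun i j => (h.lf i j).trans (mul_le_mul_of_nonneg_right hC hk) }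

theorem Dv.up {S : Plk4} {q' : ℝ → V3 → ℝ} {z0 ρ : ℝ} {H j : ℕ} {T : Ln4} {K K' κ s s' : ℝ}
    (h : Dv S q' z0 ρ H j T K κ s) (hs : K * s ≤ K' * s') : Dv S q' z0 ρ H j T K' κ s' :=
  { th := fun i i' => (h.th i i').trans hs
    gm := fun i => (h.gm i).trans hs
    h00 := h.h00.trans hs }

/-- all the data at one pair of lines, with one constant `K` -/
structure Pt (U V R : Plk4) (T T' : Ln4) (z0 ρ r K a s l m k δ g : ℝ) (H j : ℕ) : Prop where
  K7 : 10 ^ 7 ≤ K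
  KDK : KD ≤ K
  r0 : 0 < r
  ρ0 : 0 < ρ
  hj : j ≤ H
  hU : Shp U z0 ρ r
  hV : Shp V z0 ρ r
  hR : Shp R z0 ρ r
  tU : InP T U z0 ρ
  tV : InP T V z0 ρ
  tV' : InP T' V z0 ρ
  tR : InP T' R z0 ρ
  VR : Tr K V R
  UR : Tr K U R
  RU : Tr K R U
  VU : Tr K V U
  a0 : 0 < a
  aU : a ≤ K * U.a
  aV : V.a ≤ K * a
  aR : R.a ≤ K * a
  s0 : 0 < s
  as' : a ≤ K * δ * s
  sU : s ≤ K * kapP U z0 ρ T
  sV : s ≤ K * kapP V z0 ρ T'
  kU : 10 ^ 6 * U.a ≤ kapP U z0 ρ T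
  kV : 10 ^ 6 * V.a ≤ kapP V z0 ρ T'
  kR : 10 ^ 6 * R.a ≤ kapP R z0 ρ T'
  VRk : kapP V z0 ρ T' ≤ K * kapP R z0 ρ T'
  RVk : kapP R z0 ρ T' ≤ K * kapP V z0 ρ T'
  VUk : kapP V z0 ρ T' ≤ K * kapP U z0 ρ T
  VUw : kapP V z0 ρ T' ≤ K * U.w 0
  qa : V.a ≤ K * kapP V z0 ρ T' * δ
  dm : 4 * V.a + 69 * δ * V.w 0 ≤ K * δ * V.w 0
  nr : Nr V δ (zj z0 ρ H j) T T'
  c1 : CloseC U.e U.w U.q U.a V.q (K * s) T z0 ρ
  c3 : CloseC U.e U.w U.q U.a R.q (K * s) T z0 ρ
  d3 : Dv R V.q z0 ρ H j T' K (kapP R z0 ρ T' / R.w 0) s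
  c2 : CloseC V.e V.w V.q V.a R.q (2 * s) T' z0 ρ
  n1 : ¬ Nd U V.q z0 ρ H j T l m s
  n2 : ¬ Nd R V.q z0 ρ H j T' l m s
  n3 : ¬ Nd U R.q z0 ρ H j T l m s
  s1 : ¬ Sm U V.q z0 ρ H j T k s
  s2 : ¬ Sm R V.q z0 ρ H j T' k s
  k0 : 0 < k
  k1 : k ≤ 1
  kK : 1 ≤ K * k
  l0 : 0 ≤ l
  m0 : 0 ≤ m
  δ0 : 0 ≤ δ
  g0 : 0 ≤ g
  g1 : g ≤ 1
  hn : 2 * 10 ^ 9 * (10 ^ 13 * KD * (K ^ 401) ^ 3) ^ 35 * (l + m + δ) ≤ g ^ 2

set_option maxHeartbeats 1600000 in
/-- **one pair of lines** -/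
theorem v6_pt {U V R : Plk4} {T T' : Ln4} {z0 ρ r K a s l m k δ g : ℝ} {H j : ℕ}
    (h : Pt U V R T T' z0 ρ r K a s l m k δ g H j) (i : Fin 3) :
    |∑ j', th (jS U U.q z0 ρ H j T) (jS U V.q z0 ρ H j T) i j' * vS U ρ T' j'| ≤ g * s := by
  have K7 := h.K7
  have hK1 : (1 : ℝ) ≤ K := by linarith
  have hK0 : (0 : ℝ) < K := by linarith
  have hρ := h.ρ0
  have hr := h.r0
  have hj := h.hj
  have hp : ∀ {a b : ℕ}, a ≤ b → K ^ a ≤ K ^ b := fun h => pow_le_pow_right₀ hK1 h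
  obtain ⟨N, hN⟩ : ∃ N : ℝ, N = K ^ 401 := ⟨_, rfl⟩
  have hn := h.hn
  rw [← hN] at hn
  have hN7 : K ≤ N := by rw [hN]; exact le_self_pow₀ hK1 (by norm_num)
  have hN1 : (1 : ℝ) ≤ N := hK1.trans hN7
  have hN0 : (0 : ℝ) < N := by linarith
  have hl0 := h.l0
  have hm0 := h.m0
  have hδ0 := h.δ0
  have hs0 := h.s0
  have ha0 := h.a0
  have KD1 := KD_one
  have KDp := KD_pos
  obtain ⟨X, hX⟩ : ∃ X : ℝ, X = l + m + δ := ⟨_, rfl⟩
  rw [← hX] at hn
  have hX0 : 0 ≤ X := by rw [hX]; positivity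
  have lX : l ≤ X := by rw [hX]; linarith
  have mX : m ≤ X := by rw [hX]; linarith
  have δX : δ ≤ X := by rw [hX]; linarith
  have ldX : l + δ ≤ X := by rw [hX]; linarith
  -- small quantities
  have hNX : N * X ≤ 1 := by
    have h1 : N ≤ 2 * 10 ^ 9 * (10 ^ 13 * KD * N ^ 3) ^ 35 := by
      have a1 : N ≤ N ^ 3 := le_self_pow₀ hN1 (by norm_num)
      have a2 : N ^ 3 ≤ 10 ^ 13 * KD * N ^ 3 := by
        have : (1 : ℝ) ≤ 10 ^ 13 * KD := by linarith
        exact le_mul_of_one_le_left (by positivity) this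
      have a3 : (1 : ℝ) ≤ 10 ^ 13 * KD * N ^ 3 := hN1.trans (a1.trans a2)
      have a4 : 10 ^ 13 * KD * N ^ 3 ≤ (10 ^ 13 * KD * N ^ 3) ^ 35 :=
        le_self_pow₀ a3 (by norm_num)
      have a5 : 0 ≤ (10 ^ 13 * KD * N ^ 3) ^ 35 := by positivity
      linarith
    have h2 := mul_le_mul_of_nonneg_right h1 hX0
    have h3 : g ^ 2 ≤ 1 := pow_le_one₀ h.g0 h.g1
    exact (h2.trans hn).trans h3
  have sm : ∀ {c : ℝ}, c ≤ N → c * X ≤ 1 := fun h1 =>
    (mul_le_mul_of_nonneg_right h1 hX0).trans hNX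
  have Kbig : K ^ 20 ≤ N := by rw [hN]; exact hp (by norm_num)
  -- positivity
  have wU : 0 < U.w 0 := hr.trans_le (h.hU.r0_le.trans h.hU.a_le0)
  have wV : 0 < V.w 0 := hr.trans_le (h.hV.r0_le.trans h.hV.a_le0)
  have wR : 0 < R.w 0 := hr.trans_le (h.hR.r0_le.trans h.hR.a_le0)
  have aU0 : 0 < U.a := hr.trans_le h.hU.r0_le
  have aV0 : 0 < V.a := hr.trans_le h.hV.r0_le
  have aR0 : 0 < R.a := hr.trans_le h.hR.r0_le
  have kU0 : 0 < kapP U z0 ρ T := by have := h.kU; linarith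
  have kV0 : 0 < kapP V z0 ρ T' := by have := h.kV; linarith
  have kR0 : 0 < kapP R z0 ρ T' := by have := h.kR; linarith
  have kU13 := Hcp208.kapP_le hr hρ.le h.hU h.tU
  have kV13 := Hcp208.kapP_le hr hρ.le h.hV h.tV'
  have kR13 := Hcp208.kapP_le hr hρ.le h.hR h.tR
  have SU := StP.of_shN h.hU wU
  have SV := StP.of_shN h.hV wV
  have SR := StP.of_shN h.hR wR
  -- numbers
  have l832 : l * s ≤ U.w 0 / 64 := by
    have h1 : l * s ≤ l * (K * (13 * U.w 0)) :=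
      mul_le_mul_of_nonneg_left (h.sU.trans (mul_le_mul_of_nonneg_left kU13 hK0.le)) hl0
    have h2 : 832 * K * X ≤ 1 := by
      refine sm ?_
      calc 832 * K ≤ K * K := mul_le_mul_of_nonneg_right (by linarith) hK0.le
        _ = K ^ 2 := by ring
        _ ≤ K ^ 20 := hp (by norm_num)
        _ ≤ N := Kbig
    have h3 : 832 * K * l ≤ 1 := (mul_le_mul_of_nonneg_left lX (by positivity)).trans h2
    have h4 := mul_le_mul_of_nonneg_right h3 wU.le
    linarith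
  have l832R : l * s ≤ R.w 0 / 64 := by
    have h0 : s ≤ K * (K * (13 * R.w 0)) := h.sV.trans
      (mul_le_mul_of_nonneg_left (h.VRk.trans (mul_le_mul_of_nonneg_left kR13 hK0.le)) hK0.le)
    have h1 : l * s ≤ l * (K * (K * (13 * R.w 0))) := mul_le_mul_of_nonneg_left h0 hl0
    have h2 : 832 * (K * K) * X ≤ 1 := by
      refine sm ?_
      calc 832 * (K * K) ≤ K * (K * K) := mul_le_mul_of_nonneg_right (by linarith) (by positivity)
        _ = K ^ 3 := by ring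
        _ ≤ K ^ 20 := hp (by norm_num)
        _ ≤ N := Kbig
    have h3 : 832 * (K * K) * l ≤ 1 := (mul_le_mul_of_nonneg_left lX (by positivity)).trans h2
    have h4 := mul_le_mul_of_nonneg_right h3 wR.le
    linarith
  -- jets
  obtain ⟨g1, g1', -⟩ := slopes_of_not_Nd SU SV hρ.le hj h.hU.w0_le h.hU.w_le h.hV.w0_le h.hV.w_le
    h.tU h.tV h.n1 l832
  obtain ⟨g3, g3', -⟩ := slopes_of_not_Nd SR SV hρ.le hj h.hR.w0_le h.hR.w_le h.hV.w0_le h.hV.w_le
    h.tR h.tV' h.n2 l832R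
  have δ8 : δ ≤ 1 / 8 := by
    have h1 : 8 * X ≤ 1 := sm (by linarith)
    linarith
  have hdisp := disp_V hr hρ.le h.hV h.tV h.tV' hj δ8 h.nr h.dm
    (le_mul_of_one_le_left hδ0 hK1)
  have K13 : (1 : ℝ) ≤ 13 * K := by linarith
  have hnb := near_box (K := 13 * K) (m := K * δ) (M := 2000 * K * δ) (Λ := 2 * s) hr hρ K13 h.hV
    h.hR h.tV h.tV' h.tR hj δ8 h.nr h.dm (le_mul_of_one_le_left hδ0 hK1)
    (h.VR.mono (by linarith)) h.kV h.c2 (by positivity) (by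
      have := h.sV
      have : 0 ≤ K * kapP V z0 ρ T' := by positivity
      linarith) (by
      have h1 := h.VRk
      have h2 := mul_le_mul_of_nonneg_left kR13 hK0.le
      linarith) (by
      have h1 : (V.a + V.a) / kapP V z0 ρ T' ≤ 2 * (K * δ) := by
        rw [div_le_iff₀ kV0]
        have := h.qa
        calc V.a + V.a ≤ K * kapP V z0 ρ T' * δ + K * kapP V z0 ρ T' * δ := add_le_add this this
          _ = _ := by ring
      have h2 : 1280 * δ ≤ 900 * (K * δ) := by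
        have : 1280 * δ ≤ K * δ := mul_le_mul_of_nonneg_right (by linarith) hδ0
        have : 0 ≤ K * δ := by positivity
        linarith
      linarith) (by
      have h1 : 10 ^ 5 * KD * (13 * K) ^ 2 * (2000 * K * δ) ≤ (10 ^ 11 * K ^ 4) * X := by
        have hKD := h.KDK
        calc 10 ^ 5 * KD * (13 * K) ^ 2 * (2000 * K * δ) = 33800000000 * (KD * (K ^ 3 * δ)) := by
              ring
          _ ≤ 33800000000 * (K * (K ^ 3 * X)) := by
              refine mul_le_mul_of_nonneg_left ?_ (by norm_num)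
              exact mul_le_mul hKD (mul_le_mul_of_nonneg_left δX (by positivity)) (by positivity)
                hK0.le
          _ = 33800000000 * (K ^ 4 * X) := by ring
          _ ≤ (10 ^ 11 * K ^ 4) * X := by
              have : 0 ≤ K ^ 4 * X := by positivity
              linarith
      refine h1.trans (sm ?_)
      have h3 : (10 : ℝ) ^ 11 ≤ K ^ 2 := by
        have := pow_le_pow_left₀ (by norm_num) K7 2
        linarith
      calc 10 ^ 11 * K ^ 4 ≤ K ^ 2 * K ^ 4 := mul_le_mul_of_nonneg_right h3 (by positivity)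
        _ = K ^ 6 := by ring
        _ ≤ K ^ 20 := hp (by norm_num)
        _ ≤ N := Kbig) (by
      have h1 : 48 * (13 * K) * (K * δ) ≤ (624 * K ^ 2) * X := by
        calc 48 * (13 * K) * (K * δ) = 624 * K ^ 2 * δ := by ring
          _ ≤ _ := mul_le_mul_of_nonneg_left δX (by positivity)
      refine h1.trans (sm ?_)
      calc 624 * K ^ 2 ≤ K * K ^ 2 := mul_le_mul_of_nonneg_right (by linarith) (by positivity)
        _ = K ^ 3 := by ring
        _ ≤ K ^ 20 := hp (by norm_num)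
        _ ≤ N := Kbig)
  obtain ⟨zm1, zm2⟩ := Gbx862.zj_mem (z0 := z0) hρ.le hj
  obtain ⟨g2, g2'⟩ := a0_gen hr hρ.le h.hU h.hR h.tU hj (fun i => by
    have h1 := hnb i
    have h2 := (h.tR _ zm1 zm2).1 i
    have e : dt (R.e i) (T.pos (zj z0 ρ H j) - R.c.pos (zj z0 ρ H j)) =
        dt (R.e i) (T.pos (zj z0 ρ H j) - T'.pos (zj z0 ρ H j)) +
        dt (R.e i) (T'.pos (zj z0 ρ H j) - R.c.pos (zj z0 ρ H j)) := by
      simp only [dt, Pi.sub_apply]; ring
    rw [e]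
    refine (abs_add_le _ _).trans ?_
    linarith) h.n3 l832
  obtain ⟨t3, m3⟩ := not_Nd.1 h.n3
  have ownU := own hr hρ.le h.hU h.tU hj (by have := h.kU; linarith)
  have bs : ∀ i, |sl (jS U R.q z0 ρ H j T) i| ≤ 2 * K := fun i =>
    (sl_of_tg ownU.s wU g2 t3 (by linarith) i).trans (by
      have : (3600000 : ℝ) + 1 ≤ 2 * K := by linarith
      exact this)
  -- the move
  obtain ⟨b2, l2, m2, t2⟩ := v6_move (kV := kapP V z0 ρ T') (kR := kapP R z0 ρ T')
    (kk := kapP V z0 ρ T') (δ := δ) (k := k) (s := s) (l := l) (m := m) (H := H) (j := j)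
    (U := U) K7 hρ.le h.hV.isQ h.hR.isQ
    (Own.up (own hr hρ.le h.hV h.tV' hj (by have := h.kV; linarith)) (by linarith) wV.le kV0.le)
    (Own.up (own hr hρ.le h.hR h.tR hj (by have := h.kR; linarith)) (by linarith) wR.le kR0.le)
    (le_mul_of_one_le_left kV0.le hK1) h.VRk kR13 h.VUw h.RVk h.VR h.UR h.RU h.VU h.tU h.tV h.tV'
    h.tR ((h.tV _ zm1 zm2).2.trans h.qa) ((h.tV' _ zm1 zm2).2.trans h.qa) hdisp hs0 h.sV h.n2 h.s2
    g3 h.d3 g2 bs h.k1 hl0 hm0 hδ0 (by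
      have e : K ^ 401 = K ^ 400 * K := by ring
      have h1 : K ^ 400 * (l + δ) ≤ K ^ 400 * X := mul_le_mul_of_nonneg_left ldX (by positivity)
      have h2 : K ^ 400 * X ≤ K ^ 400 * X * (K * k) :=
        le_mul_of_one_le_right (by positivity) h.kK
      have h3 : K ^ 400 * X * (K * k) = (N * X) * k := by rw [hN, e]; ring
      have h4 : (N * X) * k ≤ 1 * k := mul_le_mul_of_nonneg_right hNX h.k0.le
      linarith)
  -- constants of `v6_point`
  have hKN : K ^ 400 ≤ N := by rw [hN]; exact hp (by norm_num)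
  have hkN : ∀ y : ℝ, 0 ≤ y → k * s ≤ K ^ 400 * y → s ≤ N * y := by
    intro y hy h1
    have e : K ^ 401 = K * K ^ 400 := by ring
    calc s ≤ s * (K * k) := le_mul_of_one_le_right hs0.le h.kK
      _ = K * (k * s) := by ring
      _ ≤ K * (K ^ 400 * y) := mul_le_mul_of_nonneg_left h1 hK0.le
      _ = N * y := by rw [hN, e]; ring
  have l1 : ∃ i i', s ≤ N * |th (jS U U.q z0 ρ H j T) (jS U V.q z0 ρ H j T) i i'| := by
    have h1 := h.s1
    unfold Sm at h1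
    push Not at h1
    obtain ⟨i, i', h1⟩ := h1
    refine ⟨i, i', hkN _ (abs_nonneg _) (h1.le.trans ?_)⟩
    exact le_mul_of_one_le_left (abs_nonneg _) (one_le_pow₀ hK1)
  obtain ⟨i2, i2', l2⟩ := l2
  have hKs : K * s ≤ N * s := mul_le_mul_of_nonneg_right hN7 hs0.le
  have hδN : δ ≤ N * δ := le_mul_of_one_le_left hδ0 hN1
  refine v6_point (K := N) (r := r) (a := a) (δ := δ) hN1 hr hρ ha0 hs0 hl0 hm0 hδ0 h.g0 h.g1 hj
    h.hU h.hV h.hR h.tU h.tV h.tV' h.tR (h.aU.trans (mul_le_mul_of_nonneg_right hN7 aU0.le))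
    (h.aV.trans (mul_le_mul_of_nonneg_right hN7 ha0.le))
    (h.aR.trans (mul_le_mul_of_nonneg_right hN7 ha0.le)) h.kU
    (h.VUk.trans (mul_le_mul_of_nonneg_right hN7 kU0.le))
    (h.sU.trans (mul_le_mul_of_nonneg_right hN7 kU0.le)) ?_ ?_ (h.VU.mono hN7)
    (fun z h1 h2 x h3 h4 => (h.c1 z h1 h2 x h3 h4).trans hKs)
    (fun z h1 h2 x h3 h4 => (h.c3 z h1 h2 x h3 h4).trans hKs) h.n1 h.n3 l1 ⟨g1, g1'⟩ ⟨g2, g2'⟩
    (fun i i' => (b2 i i').trans (mul_le_mul_of_nonneg_right hKN hs0.le))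
    ⟨i2, i2', hkN _ (abs_nonneg _) l2⟩
    (fun i i' k k' => (m2 i i' k k').trans (mul_le_mul_of_nonneg_right hKN (by positivity)))
    (fun i => (t2 i).trans (mul_le_mul_of_nonneg_right hKN (by positivity))) ?_ ?_
    (by rw [← hX]; exact hn) i
  · -- `N δ ≤ 1 / 8`
    have h1 : N * δ * 8 ≤ 1 := by
      have a1 : N * 8 ≤ 2 * 10 ^ 9 * (10 ^ 13 * KD * N ^ 3) ^ 35 := by
        have a1 : N ≤ N ^ 3 := le_self_pow₀ hN1 (by norm_num)
        have a2 : N ^ 3 ≤ 10 ^ 13 * KD * N ^ 3 := by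
          have : (1 : ℝ) ≤ 10 ^ 13 * KD := by linarith
          exact le_mul_of_one_le_left (by positivity) this
        have a3 : (1 : ℝ) ≤ 10 ^ 13 * KD * N ^ 3 := hN1.trans (a1.trans a2)
        have a4 : 10 ^ 13 * KD * N ^ 3 ≤ (10 ^ 13 * KD * N ^ 3) ^ 35 :=
          le_self_pow₀ a3 (by norm_num)
        have a5 : 0 ≤ (10 ^ 13 * KD * N ^ 3) ^ 35 := by positivity
        linarith
      have h3 : g ^ 2 ≤ 1 := pow_le_one₀ h.g0 h.g1
      have h4 := (mul_le_mul_of_nonneg_right a1 hX0).trans (hn.trans h3)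
      have h5 : N * 8 * δ ≤ N * 8 * X := mul_le_mul_of_nonneg_left δX (by positivity)
      linarith
    linarith
  · exact ⟨h.nr.1.trans (mul_le_mul_of_nonneg_right hδN (SV.pos 1).le),
      h.nr.2.trans (mul_le_mul_of_nonneg_right hδN (SV.pos 2).le)⟩
  · refine h.as'.trans ?_
    exact mul_le_mul_of_nonneg_right (mul_le_mul_of_nonneg_right hN7 hδ0) hs0.le
  · calc a ≤ K * δ * s := h.as'
      _ ≤ K * δ * (K * kapP U z0 ρ T) := mul_le_mul_of_nonneg_left h.sU (by positivity)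
      _ = K ^ 2 * (δ * kapP U z0 ρ T) := by ring
      _ ≤ N * (δ * kapP U z0 ρ T) :=
          mul_le_mul_of_nonneg_right ((hp (by norm_num)).trans Kbig) (by positivity)
      _ = N * δ * kapP U z0 ρ T := by ring

end Crest.Agent.R136.Lv6500
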