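import Crest.Agent.R136.A0r_467

/-!
# R136 (S0187), PLAN 2 (AL), leaf V6 at one pair of lines (helper467)

`v6_point` : all hypotheses of 601's `v6_close` from the geometry, with the numbers.
-/

set_option autoImplicit false

namespace Crest.Agent.R136.V6p467

open Crest.Agent.R136.Sh605 Crest.Agent.R136.Tl102
open Crest.Agent.R136.K4 (Plk4)
open Crest.Agent.R136.Tlt51 (Shp InP)
open Crest.Agent.R136.Deep51 (CloseC)
open Crest.Agent.R136.KapP335 (kapP kapP_eq)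
open Crest.Agent.R136.Gbx862 (zj)
open Crest.Agent.R136.Rk601
open Crest.Agent.R136.AlD601
open Crest.Agent.R136.Hcp208 (Nr)
open Crest.Agent.R136.Chm862 (gm df Tr co)
open Crest.Agent.R136.Adj214 (KD KD_pos KD_one)

/-- derivative of the end sheet's function in the direction `(y; v)` from the middle one's -/
theorem dir_end {q1 q2 : Jt} {y : ℝ} {v : Fin 3 → ℝ} {A t K ω : ℝ} (hω : 0 < ω)
    (h1 : ω / 32 ≤ |q1.a0|) (h2 : ω / 32 ≤ |q2.a0|) (h2' : |q2.a0| ≤ 4 * ω)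
    (hA : |q1.a0 * y + dp q1.a v| ≤ A) (ht : ∀ i, |tg q2 q1 i| ≤ t) (hv : ∀ i, |v i| ≤ K) :
    |q2.a0 * y + dp q2.a v| ≤ 128 * (A + 3 * (t * K)) := by
  have n1 : q1.a0 ≠ 0 := by
    intro h; rw [h, abs_zero] at h1; linarith
  have n2 : q2.a0 ≠ 0 := by
    intro h; rw [h, abs_zero] at h2; linarith
  have p1 : 0 < |q1.a0| := abs_pos.2 n1
  have t0 : 0 ≤ t := (abs_nonneg _).trans (ht 0)
  have e : q2.a0 * y + dp q2.a v = q2.a0 / q1.a0 * ((q1.a0 * y + dp q1.a v) -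
      ∑ i, tg q2 q1 i * v i) := by
    simp only [Rk601.tg, dp, Fin.sum_univ_three]
    field_simp
    ring
  have hr : |q2.a0 / q1.a0| ≤ 128 := by
    rw [abs_div, div_le_iff₀ p1]; linarith
  have hs : |∑ i, tg q2 q1 i * v i| ≤ 3 * (t * K) := by
    refine Chm862.sum3_le fun i => ?_
    rw [abs_mul]
    exact mul_le_mul (ht i) (hv i) (abs_nonneg _) t0
  rw [e, abs_mul]
  refine mul_le_mul hr ?_ (abs_nonneg _) (by norm_num)
  refine (abs_sub _ _).trans ?_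
  linarith

/-- final numbers -/
theorem fin_num {K3 Sg g X Y : ℝ} (hK : 1 ≤ K3) (hS : 0 ≤ Sg) (hg : 0 ≤ g)
    (hX : X ≤ 300 * K3 ^ 11 * Sg) (hY : Y ≤ 300 * K3 ^ 11 * Sg)
    (hn : 2 * 10 ^ 9 * K3 ^ 35 * Sg ≤ g ^ 2) :
    1000 * K3 ^ 12 * (Real.sqrt X + Real.sqrt Y) ≤ g := by
  have hK0 : 0 < K3 := by linarith
  have key : Real.sqrt (300 * K3 ^ 11 * Sg) ≤ g / (2000 * K3 ^ 12) := by
    rw [Real.sqrt_le_iff]
    refine ⟨by positivity, ?_⟩
    rw [div_pow, le_div_iff₀ (by positivity)]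
    calc 300 * K3 ^ 11 * Sg * (2000 * K3 ^ 12) ^ 2 = 12 * 10 ^ 8 * K3 ^ 35 * Sg := by ring
      _ ≤ 2 * 10 ^ 9 * K3 ^ 35 * Sg := by
          have : 0 ≤ K3 ^ 35 * Sg := by positivity
          nlinarith
      _ ≤ g ^ 2 := hn
  have h1 := (Real.sqrt_le_sqrt hX).trans key
  have h2 := (Real.sqrt_le_sqrt hY).trans key
  calc 1000 * K3 ^ 12 * (Real.sqrt X + Real.sqrt Y) ≤
        1000 * K3 ^ 12 * (g / (2000 * K3 ^ 12) + g / (2000 * K3 ^ 12)) :=
        mul_le_mul_of_nonneg_left (add_le_add h1 h2) (by positivity)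
    _ = g := by field_simp; ring

set_option maxHeartbeats 1600000 in
/-- **V6 at one pair of lines** -/
theorem v6_point {U V R : Plk4} {T T' : Ln4} {z0 ρ r K a s l m δ g : ℝ} {H j : ℕ}
    (hK : 1 ≤ K) (hr : 0 < r) (hρ : 0 < ρ) (ha : 0 < a) (hs : 0 < s) (hl : 0 ≤ l) (hm : 0 ≤ m)
    (hδ : 0 ≤ δ) (hg : 0 ≤ g) (hg1 : g ≤ 1) (hj : j ≤ H) (shU : Shp U z0 ρ r) (shV : Shp V z0 ρ r)
    (shR : Shp R z0 ρ r) (inU : InP T U z0 ρ) (inV : InP T V z0 ρ) (inV' : InP T' V z0 ρ)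
    (inR : InP T' R z0 ρ) (aU : a ≤ K * U.a) (aV : V.a ≤ K * a) (aR : R.a ≤ K * a)
    (kU : 10 ^ 6 * U.a ≤ kapP U z0 ρ T) (kV : kapP V z0 ρ T' ≤ K * kapP U z0 ρ T)
    (sk : s ≤ K * kapP U z0 ρ T) (h8 : K * δ ≤ 1 / 8) (nr : Nr V (K * δ) (zj z0 ρ H j) T T')
    (tr : Tr K V U) (c1 : CloseC U.e U.w U.q U.a V.q (K * s) T z0 ρ)
    (c2 : CloseC U.e U.w U.q U.a R.q (K * s) T z0 ρ)
    (nd1 : ¬ Nd U V.q z0 ρ H j T l m s) (nd2 : ¬ Nd U R.q z0 ρ H j T l m s)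
    (l1 : ∃ i i', s ≤ K * |th (jS U U.q z0 ρ H j T) (jS U V.q z0 ρ H j T) i i'|)
    (a1 : U.w 0 / 32 ≤ |(jS U V.q z0 ρ H j T).a0| ∧ |(jS U V.q z0 ρ H j T).a0| ≤ 4 * U.w 0)
    (a2 : U.w 0 / 32 ≤ |(jS U R.q z0 ρ H j T).a0| ∧ |(jS U R.q z0 ρ H j T).a0| ≤ 4 * U.w 0)
    (b2 : ∀ i i', |th (jS U R.q z0 ρ H j T) (jS U V.q z0 ρ H j T) i i'| ≤ K * s)
    (l2 : ∃ i i', s ≤ K * |th (jS U R.q z0 ρ H j T) (jS U V.q z0 ρ H j T) i i'|)
    (m2 : ∀ i i' k k', |mn (th (jS U R.q z0 ρ H j T) (jS U V.q z0 ρ H j T)) i i' k k'| ≤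
      K * ((l + m + δ) * s ^ 2))
    (t2 : ∀ i, |tg (jS U R.q z0 ρ H j T) (jS U V.q z0 ρ H j T) i| ≤ K * ((l + δ) * s))
    (has : a ≤ K * δ * s) (hak : a ≤ K * δ * kapP U z0 ρ T)
    (hn : 2 * 10 ^ 9 * (10 ^ 13 * KD * K ^ 3) ^ 35 * (l + m + δ) ≤ g ^ 2) (i : Fin 3) :
    |∑ j', th (jS U U.q z0 ρ H j T) (jS U V.q z0 ρ H j T) i j' * vS U ρ T' j'| ≤ g * s := by
  have KDp := KD_pos
  have KD1 := KD_one
  have hU0 : 0 < U.a := hr.trans_le shU.r0_le
  have hw0 : 0 < U.w 0 := hU0.trans_le shU.a_le0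
  have SP := StP.of_shN shU hw0
  obtain ⟨k, hk⟩ : ∃ k, k = kapP U z0 ρ T := ⟨_, rfl⟩
  rw [← hk] at kU kV sk hak
  have hkp : 0 < k := by linarith
  obtain ⟨K3, hK3⟩ : ∃ x : ℝ, x = 10 ^ 13 * KD * K ^ 3 := ⟨_, rfl⟩
  rw [← hK3] at hn
  have hK0 : 0 < K := by linarith
  have hK31 : K ≤ K ^ 3 := le_self_pow₀ hK (by norm_num)
  have hbig : 10 ^ 13 * K ^ 3 ≤ K3 := by
    rw [hK3]
    have : 0 ≤ 10 ^ 13 * K ^ 3 * (KD - 1) := mul_nonneg (by positivity) (by linarith)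
    linarith
  have hKK3 : 10 ^ 13 * K ≤ K3 := by linarith
  have hK3' : K ≤ K3 := by linarith
  have h31 : 1 ≤ K3 := by linarith
  have hK30 : 0 < K3 := by linarith
  have hdvK : 10 ^ 13 * KD * K ≤ K3 := by
    rw [hK3]
    exact mul_le_mul_of_nonneg_left hK31 (by positivity)
  have hSg : 0 ≤ l + m + δ := by linarith
  set Sg := l + m + δ with hSgd
  have hSg1 : 2 * 10 ^ 9 * K3 ^ 35 * Sg ≤ 1 := hn.trans (pow_le_one₀ hg hg1)
  -- data of the two pairs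
  have D1 := Wdg296.dv_of shU hU0 hρ.le inU (by rw [← hk]; exact kU) shV.isQ c1 hj
  have D2 := Wdg296.dv_of shU hU0 hρ.le inU (by rw [← hk]; exact kU) shR.isQ c2 hj
  rw [← hk] at D1 D2
  obtain ⟨g1, g2⟩ := not_Nd.1 nd1
  obtain ⟨g3, g4⟩ := not_Nd.1 nd2
  obtain ⟨s1, -, -⟩ := Wdg296.jS_self SP hρ.le hj inU
  have dU := (jt_jet shU.isQ (fr U.e U.w) U.c.v (zj z0 ρ H j) (T.pos (zj z0 ρ H j)) ρ).2
  have dV := (jt_jet shV.isQ (fr U.e U.w) U.c.v (zj z0 ρ H j) (T.pos (zj z0 ρ H j)) ρ).2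
  have dR := (jt_jet shR.isQ (fr U.e U.w) U.c.v (zj z0 ρ H j) (T.pos (zj z0 ρ H j)) ρ).2
  have hv := vS_le tr hρ.le inU inV inV'
  have e1 := d2_le (T := T) hr hρ.le shU shR inR hj
  have e2 := d2_le (T := T) hr hρ.le shU shV inV' hj
  have e3 := d1_le hr hρ.le shU shV inV inV' hj h8 nr
  have e4 := dir_end hw0 a1.1 a2.1 a2.2 e3 t2 hv
  have hdv : ∀ x : ℝ, x ≤ 10 ^ 13 * KD * (K * s) → x ≤ K3 * s := fun x hx => by
    refine hx.trans ?_
    calc 10 ^ 13 * KD * (K * s) = 10 ^ 13 * KD * K * s := by ring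
      _ ≤ K3 * s := mul_le_mul_of_nonneg_right hdvK hs.le
  have hKs : ∀ x : ℝ, x ≤ K * s → x ≤ K3 * s := fun x hx =>
    hx.trans (mul_le_mul_of_nonneg_right hK3' hs.le)
  have hKx : ∀ x : ℝ, s ≤ K * |x| → s ≤ K3 * |x| := fun x hx =>
    hx.trans (mul_le_mul_of_nonneg_right hK3' (abs_nonneg _))
  have hκω : k / U.w 0 * U.w 0 = k := div_mul_cancel₀ _ hw0.ne'
  have hK8 : 1 ≤ K3 ^ 8 := one_le_pow₀ h31
  obtain ⟨m', hm'⟩ : ∃ x : ℝ, x = 12 * K3 ^ 8 * Sg := ⟨_, rfl⟩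
  have hKm' : K * Sg ≤ m' := by
    rw [hm']
    refine mul_le_mul_of_nonneg_right ?_ hSg
    have : K3 ≤ K3 ^ 8 := le_self_pow₀ h31 (by norm_num)
    linarith
  have hmm' : m ≤ m' := by
    have : m ≤ Sg := by rw [hSgd]; linarith
    have h2 : Sg ≤ K * Sg := le_mul_of_one_le_left hSg hK
    linarith
  have hlm : 12 * K3 ^ 8 * l ≤ m' := by
    rw [hm']
    refine mul_le_mul_of_nonneg_left ?_ (by positivity)
    rw [hSgd]; linarith
  have p16 : K3 ^ 16 ≤ K3 ^ 35 := pow_le_pow_right₀ h31 (by norm_num)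
  have hm4 : m' ≤ 1 / (4 * K3 ^ 8) := by
    rw [hm', le_div_iff₀ (by positivity)]
    calc 12 * K3 ^ 8 * Sg * (4 * K3 ^ 8) = 48 * (K3 ^ 16 * Sg) := by ring
      _ ≤ 48 * (K3 ^ 35 * Sg) :=
          mul_le_mul_of_nonneg_left (mul_le_mul_of_nonneg_right p16 hSg) (by norm_num)
      _ ≤ 2 * 10 ^ 9 * K3 ^ 35 * Sg := by
          have : 0 ≤ K3 ^ 35 * Sg := by positivity
          linarith
      _ ≤ 1 := hSg1
  have hh1 : l + δ ≤ 1 := by
    have h2 : Sg ≤ 2 * 10 ^ 9 * K3 ^ 35 * Sg := by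
      refine le_mul_of_one_le_left hSg ?_
      have : 1 ≤ K3 ^ 35 := one_le_pow₀ h31
      linarith
    have : l + δ ≤ Sg := by rw [hSgd]; linarith
    linarith
  have s2 : 0 ≤ s ^ 2 := sq_nonneg s
  have fin := v6_close (q0 := jS U U.q z0 ρ H j T) (q1 := jS U V.q z0 ρ H j T)
    (q2 := jS U R.q z0 ρ H j T) (v := vS U ρ T')
    (y := ρ * dt (U.e 0) (T'.v - U.c.v) / U.w 0) (K := K3) (ω := U.w 0) (κ := k / U.w 0) (s := s)
    (l := l) (m := m') (a := a) (h := l + δ) h31 hw0 (by positivity) hs hl ha.le (by linarith)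
    (by rw [hκω]; exact sk.trans (mul_le_mul_of_nonneg_right hK3' hkp.le)) hh1
    (by
      rw [hκω]
      have : a ≤ K * k := by
        have : K * U.a ≤ K * k := mul_le_mul_of_nonneg_left (by linarith) hK0.le
        linarith
      exact this.trans (mul_le_mul_of_nonneg_right hK3' hkp.le))
    (by intro h0; rw [h0] at s1; linarith)
    (by
      refine le_trans ?_ a2.1
      exact div_le_div_of_nonneg_left hw0.le (by norm_num) (by linarith))
    (a1.2.trans (mul_le_mul_of_nonneg_right (by linarith) hw0.le))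
    dU dV dR (fun i => hdv _ (D1.gm i)) (hdv _ D1.h00) (fun i => hdv _ (D2.gm i)) (hdv _ D2.h00)
    g3 (fun i i' => hdv _ (D1.th i i')) (fun i i' => hKs _ (b2 i i'))
    (by obtain ⟨i, i', h⟩ := l1; exact ⟨i, i', hKx _ h⟩)
    (by obtain ⟨i, i', h⟩ := l2; exact ⟨i, i', hKx _ h⟩)
    (fun i i' k k' => (g2 i i' k k').trans (mul_le_mul_of_nonneg_right hmm' s2))
    (fun i i' k k' => (m2 i i' k k').trans (by
      rw [← mul_assoc]; exact mul_le_mul_of_nonneg_right hKm' s2))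
    (fun i i' k k' => (g4 i i' k k').trans (mul_le_mul_of_nonneg_right hmm' s2))
    hlm hm4 (fun i => (hv i).trans (by linarith))
    (e1.trans (by
      calc 16 * R.a ≤ 16 * (K * a) := by linarith
        _ = 16 * K * a := by ring
        _ ≤ K3 * a := mul_le_mul_of_nonneg_right (by linarith) ha.le))
    (e2.trans (by
      calc 16 * V.a ≤ 16 * (K * a) := by linarith
        _ = 16 * K * a := by ring
        _ ≤ K3 * a := mul_le_mul_of_nonneg_right (by linarith) ha.le))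
    (e4.trans (by
      rw [hκω]
      have x1 : K * δ * kapP V z0 ρ T' ≤ K * δ * (K * k) :=
        mul_le_mul_of_nonneg_left kV (by positivity)
      have x2 : K * ((l + δ) * s) * (14 * K) ≤ K * ((l + δ) * (K * k)) * (14 * K) := by
        have : 0 ≤ l + δ := by linarith
        gcongr
      have x3 : K * δ * (K * k) ≤ K ^ 3 * ((l + δ) * k) := by
        have y1 : K * δ * (K * k) = K ^ 2 * (δ * k) := by ring
        have y2 : K ^ 2 ≤ K ^ 3 := pow_le_pow_right₀ hK (by norm_num)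
        have y3 : δ * k ≤ (l + δ) * k := mul_le_mul_of_nonneg_right (by linarith) hkp.le
        rw [y1]
        exact mul_le_mul y2 y3 (by positivity) (by positivity)
      have x4 : K * ((l + δ) * (K * k)) * (14 * K) = 14 * (K ^ 3 * ((l + δ) * k)) := by ring
      have x5 : 16 * V.a ≤ 16 * (K ^ 3 * a) := by
        have : K * a ≤ K ^ 3 * a := mul_le_mul_of_nonneg_right hK31 ha.le
        linarith
      have x6 : 10 ^ 13 * (K ^ 3 * (a + k * (l + δ))) ≤ K3 * (a + k * (l + δ)) := by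
        rw [← mul_assoc]
        refine mul_le_mul_of_nonneg_right hbig ?_
        have : 0 ≤ l + δ := by linarith
        positivity
      have x7 : 0 ≤ K ^ 3 * a := by positivity
      have x8 : 0 ≤ K ^ 3 * ((l + δ) * k) := by
        have : 0 ≤ l + δ := by linarith
        positivity
      have x9 : K ^ 3 * (a + k * (l + δ)) = K ^ 3 * a + K ^ 3 * ((l + δ) * k) := by ring
      rw [x9] at x6
      rw [x4] at x2
      linarith)) i
  refine fin.trans ?_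
  rw [mul_comm g s]
  refine mul_le_mul_of_nonneg_left ?_ hs.le
  refine fin_num h31 hSg hg ?_ ?_ hn
  · rw [hκω]
    have y1 : a / s ≤ K * δ := by rw [div_le_iff₀ hs]; exact has
    have y2 : a / k ≤ K * δ := by rw [div_le_iff₀ hkp]; exact hak
    have y3 : a / s + a / k + (l + δ) ≤ 3 * (K3 * Sg) := by
      have z1 : K * δ ≤ K3 * δ := mul_le_mul_of_nonneg_right hK3' hδ
      have z2 : l + δ ≤ K3 * (l + δ) := le_mul_of_one_le_left (by linarith) h31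
      have z3 : K3 * Sg = K3 * l + K3 * m + K3 * δ := by rw [hSgd]; ring
      have z4 : 0 ≤ K3 * m := by positivity
      have z5 : 0 ≤ K3 * l := by positivity
      have z6 : K3 * (l + δ) = K3 * l + K3 * δ := by ring
      linarith
    calc 100 * K3 ^ 10 * (a / s + a / k + (l + δ)) ≤ 100 * K3 ^ 10 * (3 * (K3 * Sg)) :=
          mul_le_mul_of_nonneg_left y3 (by positivity)
      _ = 300 * K3 ^ 11 * Sg := by ring
  · rw [hm']
    refine mul_le_mul_of_nonneg_right ?_ hSg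
    have : K3 ^ 8 ≤ K3 ^ 11 := pow_le_pow_right₀ h31 (by norm_num)
    have : 0 ≤ K3 ^ 11 := by positivity
    linarith

end Crest.Agent.R136.V6p467
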