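import Crest.Agent.R136.Chm5_862
import Crest.Agent.R136.V6m_467
import Crest.Agent.R136.Cuu4_57
import Crest.Agent.R136.Kpc_104
import Crest.Agent.R136.Lnu_876
import Crest.Agent.R136.Nv6_601
import Crest.Agent.R136.AlK_500

/-!
# R136 (S0187), PLAN 2 (AL), balanced case: leaf V6 (helper778, insurance)
-/

set_option autoImplicit false
set_option linter.unusedVariables false

open Finset

namespace Crest.Agent.R136.Lv6778

open Crest.Agent.R136.Sh605 Crest.Agent.R136.Tl102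
open Crest.Agent.R136.Rk601
open Crest.Agent.R136.AlD601
open Crest.Agent.R136.K4 (Plk4)
open Crest.Agent.R136.Tlt51 (Shp InP)
open Crest.Agent.R136.Deep51 (CloseC)
open Crest.Agent.R136.KapP335 (kapP)
open Crest.Agent.R136.Chm862
open Crest.Agent.R136.Hcp208 (Nr)
open Crest.Agent.R136.Cuu57 (Uu)
open Crest.Agent.R136.Gbx862 (zj zj_mem)
open Crest.Agent.R136.Adj214 (KD KD_pos KD_one)
open Crest.Agent.R136.Alw500 (lbl)

theorem cc_mono {e : Fin 3 → V3} {w : V3} {q : ℝ → V3 → ℝ} {a : ℝ} {q' : ℝ → V3 → ℝ}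
    {E E' : ℝ} {T : Ln4} {z0 ρ : ℝ} (h : CloseC e w q a q' E T z0 ρ) (hE : E ≤ E') :
    CloseC e w q a q' E' T z0 ρ :=
  fun z h1 h2 x hx hq => (h z h1 h2 x hx hq).trans hE

set_option maxHeartbeats 2000000 in
/-- **V6 at one pair of lines** -/
theorem v6_uu {U V R : Plk4} {T T' : Ln4} {z0 ρ r W a κ E A l m k g : ℝ} {H j : ℕ}
    (h : Uu U V R T T' z0 ρ r W a (2 * E * a) κ) (hE1 : 1 ≤ E) (hEH : E ≤ H)
    (hHE : (H : ℝ) ≤ 2 * E) (trUV : Tr (W ^ 3) U V) (trVU : Tr (W ^ 3) V U)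
    (trVR : Tr (W ^ 3) V R) (trRV : Tr (W ^ 3) R V)
    (kEU : E * a ≤ W * kapP U z0 ρ T) (kER : E * a ≤ W * kapP R z0 ρ T')
    (kEV : E * a ≤ W * kapP V z0 ρ T') (kVU : kapP V z0 ρ T ≤ W * kapP U z0 ρ T)
    (kRV : kapP R z0 ρ T' ≤ W * kapP V z0 ρ T') (kVR : kapP V z0 ρ T' ≤ W * kapP R z0 ρ T')
    (upR : CloseC R.e R.w R.q R.a V.q (2 * E * a) T' z0 ρ) (hj : j ≤ H)
    (n1 : |dt (V.e 1) (T.pos (zj z0 ρ H j) - T'.pos (zj z0 ρ H j))| ≤ W / H * V.w 1)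
    (n2 : |dt (V.e 2) (T.pos (zj z0 ρ H j) - T'.pos (zj z0 ρ H j))| ≤ W / H * V.w 2)
    (hl : 0 < l) (hm : 0 < m) (hk : 0 < k) (hk1 : k ≤ 1) (hg : 0 < g) (hg1 : g ≤ 1)
    (nd1 : ¬ Nd U V.q z0 ρ H j T l m (E * a)) (nd2 : ¬ Nd R V.q z0 ρ H j T' l m (E * a))
    (nd3 : ¬ Nd U R.q z0 ρ H j T l m (E * a)) (sm1 : ¬ Sm U V.q z0 ρ H j T k (E * a))
    (sm2 : ¬ Sm R V.q z0 ρ H j T' k (E * a)) (hA : 10 ^ 61 * KD ^ 7 ≤ A)
    (num : (A * W ^ 15 / k) ^ 50000 * (l + m + 1 / H) ≤ g ^ 2) (i : Fin 3) :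
    |∑ j', th (jS U U.q z0 ρ H j T) (jS U V.q z0 ρ H j T) i j' * vS U ρ T' j'| ≤ g * (E * a) := by
  have KDp := KD_pos
  have KD1 := KD_one
  have hW := h.W1
  have hW0 : 0 < W := by linarith
  have ha := h.a0
  have hr := h.r0
  have hρ := h.ρ0
  have hH0 : (0 : ℝ) < H := by linarith
  obtain ⟨δ, hδ⟩ : ∃ δ, δ = 1 / (H : ℝ) := ⟨_, rfl⟩
  obtain ⟨s, hs⟩ : ∃ s, s = E * a := ⟨_, rfl⟩
  have hs2 : 2 * E * a = 2 * s := by rw [hs]; ring
  have hs0 : 0 < s := by rw [hs]; positivity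
  rw [hs2] at upR h
  rw [← hs] at nd1 nd2 nd3 sm1 sm2 kEU kER kEV ⊢
  rw [← hδ] at num
  have hδ0 : 0 < δ := by rw [hδ]; positivity
  have hδH : δ * H = 1 := by rw [hδ]; field_simp
  have hWδ : W / H = W * δ := by rw [hδ]; ring
  rw [hWδ] at n1 n2
  -- `a ≤ 2 s δ`
  have has : a ≤ 2 * s * δ := by
    have h1 : a * (H * δ) ≤ a * (2 * E * δ) := by
      refine mul_le_mul_of_nonneg_left ?_ ha.le
      exact mul_le_mul_of_nonneg_right hHE hδ0.le
    have h2 : H * δ = 1 := by rw [mul_comm]; exact hδH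
    rw [h2, mul_one] at h1
    rw [hs]; linarith
  -- the constants
  obtain ⟨K, hK⟩ : ∃ K, K = A * W ^ 15 := ⟨_, rfl⟩
  obtain ⟨x, hx⟩ : ∃ x, x = K / k := ⟨_, rfl⟩
  rw [← hK, ← hx] at num
  have KD7 : 1 ≤ KD ^ 7 := one_le_pow₀ KD1
  have hA1 : 10 ^ 61 ≤ A := by
    have : (10 : ℝ) ^ 61 * 1 ≤ 10 ^ 61 * KD ^ 7 := mul_le_mul_of_nonneg_left KD7 (by positivity)
    linarith
  have hA0 : 0 < A := by linarith
  have hWn : ∀ n : ℕ, n ≤ 15 → A * W ^ n ≤ K := fun n hn => by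
    rw [hK]
    exact mul_le_mul_of_nonneg_left (pow_le_pow_right₀ hW hn) hA0.le
  have hAK : A ≤ K := by have := hWn 0 (by norm_num); rwa [pow_zero, mul_one] at this
  have hK61 : 10 ^ 61 ≤ K := hA1.trans hAK
  have hK0 : 0 < K := by linarith
  have hK1 : 1 ≤ K := by linarith
  have hKW : ∀ (c : ℝ) (n : ℕ), c ≤ 10 ^ 61 → n ≤ 15 → c * W ^ n ≤ K := fun c n hc hn =>
    (mul_le_mul_of_nonneg_right (hc.trans hA1) (by positivity)).trans (hWn n hn)
  have hKW1 : W ≤ K := by have := hKW 1 1 (by norm_num) (by norm_num); linarith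
  have hKx : K ≤ x := by
    rw [hx, le_div_iff₀ hk]
    exact mul_le_of_le_one_right hK0.le hk1
  have hx0 : 0 < x := by linarith
  have hx1 : 1 ≤ x := by linarith
  have hkx : k * x = K := by rw [hx]; field_simp
  have hKDA : 10 ^ 61 * KD ≤ K := by
    have : KD ≤ KD ^ 7 := le_self_pow₀ KD1 (by norm_num)
    have : (10 : ℝ) ^ 61 * KD ≤ 10 ^ 61 * KD ^ 7 := mul_le_mul_of_nonneg_left this (by positivity)
    linarith
  obtain ⟨S, hS⟩ : ∃ S, S = l + m + δ := ⟨_, rfl⟩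
  rw [← hS] at num
  have hS0 : 0 < S := by rw [hS]; linarith
  have hSδ : δ ≤ S := by rw [hS]; linarith
  have hSl : l ≤ S := by rw [hS]; linarith
  have hlδ : l + δ ≤ S := by rw [hS]; linarith
  have hg2 : g ^ 2 ≤ 1 := pow_le_one₀ hg.le hg1
  have hP : ∀ n : ℕ, n ≤ 50000 → x ^ n * S ≤ g ^ 2 := fun n hn =>
    (mul_le_mul_of_nonneg_right (pow_le_pow_right₀ hx1 hn) hS0.le).trans num
  have hP1 : ∀ n : ℕ, n ≤ 50000 → x ^ n * S ≤ 1 := fun n hn => (hP n hn).trans hg2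
  have hKn : ∀ n : ℕ, K ^ n ≤ x ^ n := fun n => pow_le_pow_left₀ hK0.le hKx n
  have hKδ : ∀ n : ℕ, n ≤ 400 → K ^ n * δ ≤ 1 := fun n hn =>
    (mul_le_mul (hKn n) hSδ hδ0.le (by positivity)).trans (hP1 n (by omega))
  have hKl : ∀ n : ℕ, n ≤ 400 → K ^ n * l ≤ 1 := fun n hn =>
    (mul_le_mul (hKn n) hSl hl.le (by positivity)).trans (hP1 n (by omega))
  -- sizes
  obtain ⟨kU, hkU⟩ : ∃ y, y = kapP U z0 ρ T := ⟨_, rfl⟩
  obtain ⟨kV, hkV⟩ : ∃ y, y = kapP V z0 ρ T' := ⟨_, rfl⟩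
  obtain ⟨kR, hkR⟩ : ∃ y, y = kapP R z0 ρ T' := ⟨_, rfl⟩
  have aU0 : 0 < U.a := hr.trans_le h.hU.r0_le
  have aV0 : 0 < V.a := hr.trans_le h.hV.r0_le
  have aR0 : 0 < R.a := hr.trans_le h.hR.r0_le
  have wU0 : 0 < U.w 0 := aU0.trans_le h.hU.a_le0
  have wV0 : 0 < V.w 0 := aV0.trans_le h.hV.a_le0
  have wR0 : 0 < R.w 0 := aR0.trans_le h.hR.a_le0
  have U13 : kU ≤ 13 * U.w 0 := by rw [hkU]; exact Hcp208.kapP_le hr hρ.le h.hU h.tU
  have V13 : kV ≤ 13 * V.w 0 := by rw [hkV]; exact Hcp208.kapP_le hr hρ.le h.hV h.tV'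
  have R13 : kR ≤ 13 * R.w 0 := by rw [hkR]; exact Hcp208.kapP_le hr hρ.le h.hR h.tR
  have comp := Kpc104.kapP_comp hρ hr h.hV h.tV h.tV'
  rw [← hkU] at kEU kVU
  rw [← hkR] at kER kRV kVR
  rw [← hkV] at kEV kRV kVR comp
  have pos_of : ∀ y : ℝ, s ≤ W * y → 0 < y := by
    intro y hy
    by_contra hc
    push Not at hc
    have := mul_nonpos_of_nonneg_of_nonpos hW0.le hc
    linarith
  have kU0 := pos_of _ kEU
  have kR0 := pos_of _ kER
  have kV0 := pos_of _ kEV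
  have W2 : W ≤ W ^ 2 := le_self_pow₀ hW (by norm_num)
  have δK : ∀ (c : ℝ) (n : ℕ), 0 ≤ c → c ≤ 10 ^ 61 → n ≤ 15 → c * W ^ n * δ ≤ 1 := by
    intro c n hc0 hc hn
    have h1 := mul_le_mul_of_nonneg_right (hKW c n hc hn) hδ0.le
    have h2 := hKδ 1 (by norm_num)
    rw [pow_one] at h2
    linarith
  -- `x.a` against the curvatures
  have aW : ∀ y b : ℝ, b ≤ W * a → s ≤ W * y → b ≤ 2 * W ^ 2 * δ * y := by
    intro y b h1 h2
    calc b ≤ W * (2 * s * δ) := h1.trans (mul_le_mul_of_nonneg_left has hW0.le)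
      _ = 2 * W * δ * s := by ring
      _ ≤ 2 * W * δ * (W * y) := mul_le_mul_of_nonneg_left h2 (by positivity)
      _ = _ := by ring
  have aV1 := aW _ _ h.aV kEV
  have aR1 := aW _ _ h.aR kER
  have aVU := aW _ _ h.aV kEU
  have hVa : 10 ^ 6 * V.a ≤ kV := by
    have h1 := δK (2 * 10 ^ 6) 2 (by norm_num) (by norm_num) (by norm_num)
    have h2 := mul_le_mul_of_nonneg_right h1 kV0.le
    linarith
  have hRa : 10 ^ 6 * R.a ≤ kR := by
    have h1 := δK (2 * 10 ^ 6) 2 (by norm_num) (by norm_num) (by norm_num)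
    have h2 := mul_le_mul_of_nonneg_right h1 kR0.le
    linarith
  have hUa : 10 ^ 6 * U.a ≤ kU := by
    have aU1 := aW _ _ h.aU kEU
    have h1 := δK (2 * 10 ^ 6) 2 (by norm_num) (by norm_num) (by norm_num)
    have h2 := mul_le_mul_of_nonneg_right h1 kU0.le
    linarith
  have kVkU : kV ≤ 1200000 * W ^ 2 * kU := by
    have h1 := δK 2 0 (by norm_num) (by norm_num) (by norm_num)
    rw [pow_zero, mul_one] at h1
    have h2 : 2 * W ^ 2 * δ * kU ≤ W ^ 2 * kU := by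
      have := mul_le_mul_of_nonneg_right h1 (show 0 ≤ W ^ 2 * kU by positivity)
      linarith
    have h3 : W * kU ≤ W ^ 2 * kU := mul_le_mul_of_nonneg_right W2 kU0.le
    linarith
  -- transition data
  have tVR : Tr K V R := trVR.mono (by have := hKW 1 3 (by norm_num) (by norm_num); linarith)
  have tVU : Tr K V U := trVU.mono (by have := hKW 1 3 (by norm_num) (by norm_num); linarith)
  have tUR : Tr K U R := (trUV.trans trVR).mono (by
    have := hKW 3 6 (by norm_num) (by norm_num)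
    calc 3 * W ^ 3 * W ^ 3 = 3 * W ^ 6 := by ring
      _ ≤ K := this)
  have tRU : Tr K R U := (trRV.trans trVU).mono (by
    have := hKW 3 6 (by norm_num) (by norm_num)
    calc 3 * W ^ 3 * W ^ 3 = 3 * W ^ 6 := by ring
      _ ≤ K := this)
  obtain ⟨z1, z2⟩ := zj_mem (z0 := z0) hρ.le hj
  have hK36 : (3600000 : ℝ) ≤ K := by linarith
  have oV : Own K (V.w 0) kV (jS V V.q z0 ρ H j T') := by
    rw [hkV]
    exact (own hr hρ.le h.hV h.tV' hj (by rw [← hkV]; linarith)).mono hK36 wV0.le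
      (by rw [← hkV]; exact kV0.le)
  have oR : Own K (R.w 0) kR (jS R R.q z0 ρ H j T') := by
    rw [hkR]
    exact (own hr hρ.le h.hR h.tR hj (by rw [← hkR]; linarith)).mono hK36 wR0.le
      (by rw [← hkR]; exact kR0.le)
  have oU := own (H := H) (j := j) hr hρ.le h.hU h.tU hj (by rw [← hkU]; linarith)
  have hWK : ∀ y : ℝ, 0 ≤ y → W * y ≤ K * y := fun y hy => mul_le_mul_of_nonneg_right hKW1 hy
  -- displacement
  have hWδ8 : W * δ ≤ 1 / 8 := by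
    have := δK 8 1 (by norm_num) (by norm_num) (by norm_num)
    rw [pow_one] at this; linarith
  have nr : Nr V (W * δ) (zj z0 ρ H j) T T' := ⟨n1, n2⟩
  have hWKδ : W * δ ≤ K * δ := mul_le_mul_of_nonneg_right hKW1 hδ0.le
  have hm4 : 4 * V.a + 69 * (W * δ) * V.w 0 ≤ K * δ * V.w 0 := by
    have h1 : 2 * W ^ 2 * δ * kV ≤ 2 * W ^ 2 * δ * (13 * V.w 0) :=
      mul_le_mul_of_nonneg_left V13 (by positivity)
    have h2 := hKW 200 2 (by norm_num) (by norm_num)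
    have h3 := mul_le_mul_of_nonneg_right h2 (show 0 ≤ δ * V.w 0 by positivity)
    have h4 := mul_le_mul_of_nonneg_right W2 (show 0 ≤ δ * V.w 0 by positivity)
    have h5 : 0 ≤ W ^ 2 * (δ * V.w 0) := by positivity
    linarith
  have hd := V6p467.disp_V hr hρ.le h.hV h.tV h.tV' hj hWδ8 nr hm4 hWKδ
  -- slopes at `T'`
  have SU := StP.of_shN h.hU wU0
  have SV := StP.of_shN h.hV wV0
  have SR := StP.of_shN h.hR wR0
  have hl832 : 832 * W * l ≤ 1 := by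
    have h1 := mul_le_mul_of_nonneg_right (hKW 832 1 (by norm_num) (by norm_num)) hl.le
    have h2 := hKl 1 (by norm_num)
    rw [pow_one] at h1 h2; linarith
  have hlsU : l * s ≤ U.w 0 / 64 := by
    have h1 : l * s ≤ l * (W * (13 * U.w 0)) :=
      mul_le_mul_of_nonneg_left (kEU.trans (mul_le_mul_of_nonneg_left U13 hW0.le)) hl.le
    have h2 := mul_le_mul_of_nonneg_right hl832 wU0.le
    linarith
  have hlsR : l * s ≤ R.w 0 / 64 := by
    have h1 : l * s ≤ l * (W * (13 * R.w 0)) :=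
      mul_le_mul_of_nonneg_left (kER.trans (mul_le_mul_of_nonneg_left R13 hW0.le)) hl.le
    have h2 := mul_le_mul_of_nonneg_right hl832 wR0.le
    linarith
  obtain ⟨r1, r2, -⟩ := Wdg296.slopes_of_not_Nd SR SV hρ.le hj h.hR.w0_le h.hR.w_le h.hV.w0_le
    h.hV.w_le h.tR h.tV' nd2 hlsR
  obtain ⟨v1, v2, -⟩ := Wdg296.slopes_of_not_Nd SU SV hρ.le hj h.hU.w0_le h.hU.w_le h.hV.w0_le
    h.hV.w_le h.tU h.tV nd1 hlsU
  have dv0 := Wdg296.dv_of h.hR aR0 hρ.le h.tR (by rw [← hkR]; exact hRa) h.hV.isQ upR hj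
  rw [← hkR] at dv0
  have hKD2 : 10 ^ 13 * KD * (2 * s) ≤ K * s := by
    have h1 : 2 * 10 ^ 13 * KD ≤ K := by linarith
    have := mul_le_mul_of_nonneg_right h1 hs0.le
    linarith
  have dv : Wdg296.Dv R V.q z0 ρ H j T' K (kR / R.w 0) s :=
    ⟨fun i i' => (dv0.th i i').trans hKD2, fun i => (dv0.gm i).trans hKD2, dv0.h00.trans hKD2⟩
  -- `T` in the box of `R`
  have hcl : CloseC V.e V.w V.q V.a R.q (2 * s) T' z0 ρ := h.c2
  have hkVR : kV ≤ K * R.w 0 := by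
    have h1 : kV ≤ W * (13 * R.w 0) := kVR.trans (mul_le_mul_of_nonneg_left R13 hW0.le)
    have h2 := mul_le_mul_of_nonneg_right (hKW 13 1 (by norm_num) (by norm_num)) wR0.le
    rw [pow_one] at h2
    linarith
  have hM : 512 * ((V.a + V.a) / kV) + 1280 * (W * δ) ≤ K * δ := by
    have h1 : (V.a + V.a) / kV ≤ 4 * W ^ 2 * δ := by
      rw [div_le_iff₀ kV0]; linarith
    have h2 := mul_le_mul_of_nonneg_right (hKW 4000 2 (by norm_num) (by norm_num)) hδ0.le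
    have h3 := mul_le_mul_of_nonneg_right W2 hδ0.le
    have h4 : 0 ≤ W ^ 2 * δ := by positivity
    linarith
  have hM1 : 10 ^ 5 * KD * K ^ 2 * (K * δ) ≤ 1 := by
    have h1 : 10 ^ 5 * KD ≤ K := by linarith
    have h2 := mul_le_mul_of_nonneg_right h1 (show 0 ≤ K ^ 3 * δ by positivity)
    have h3 := hKδ 4 (by norm_num)
    calc 10 ^ 5 * KD * K ^ 2 * (K * δ) = 10 ^ 5 * KD * (K ^ 3 * δ) := by ring
      _ ≤ K * (K ^ 3 * δ) := h2
      _ = K ^ 4 * δ := by ring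
      _ ≤ 1 := h3
  have hm1 : 48 * K * (K * δ) ≤ 1 := by
    have h1 : 48 * (K ^ 2 * δ) ≤ K * (K ^ 2 * δ) :=
      mul_le_mul_of_nonneg_right (by linarith) (by positivity)
    have h3 := hKδ 3 (by norm_num)
    calc 48 * K * (K * δ) = 48 * (K ^ 2 * δ) := by ring
      _ ≤ K * (K ^ 2 * δ) := h1
      _ = K ^ 3 * δ := by ring
      _ ≤ 1 := h3
  have hΛk : 2 * s ≤ 2 * K * kapP V z0 ρ T' := by
    rw [← hkV]
    have := kEV.trans (hWK _ kV0.le)
    linarith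
  have nb := V6p467.near_box hr hρ hK1 h.hV h.hR h.tV h.tV' h.tR hj hWδ8 nr hm4 hWKδ tVR
    (by rw [← hkV]; exact hVa) hcl (by linarith) hΛk (by rw [← hkV]; exact hkVR)
    (by rw [← hkV]; exact hM) hM1 hm1
  have hTR : ∀ i, |dt (R.e i) (T.pos (zj z0 ρ H j) - R.c.pos (zj z0 ρ H j))| ≤ 3 / 2 * R.w i := by
    intro i
    have h1 := (h.tR _ z1 z2).1 i
    have e : dt (R.e i) (T.pos (zj z0 ρ H j) - R.c.pos (zj z0 ρ H j)) =
        dt (R.e i) (T.pos (zj z0 ρ H j) - T'.pos (zj z0 ρ H j)) +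
          dt (R.e i) (T'.pos (zj z0 ρ H j) - R.c.pos (zj z0 ρ H j)) := by
      simp only [dt, Pi.sub_apply]; ring
    rw [e]
    refine (abs_add_le _ _).trans ?_
    have := nb i
    linarith
  obtain ⟨u1, u2⟩ := V6p467.a0_gen hr hρ.le h.hU h.hR h.tU hj hTR nd3 hlsU
  obtain ⟨nd3t, -⟩ := not_Nd.1 nd3
  have bs : ∀ i, |sl (jS U R.q z0 ρ H j T) i| ≤ 2 * K := fun i =>
    (sl_of_tg (A := l * s) oU.s wU0 u1 nd3t (by linarith) i).trans (by linarith)
  -- the move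
  have hVq : ∀ y : ℝ, |y| ≤ V.a → |y| ≤ K * kV * δ := by
    intro y hy
    have h1 := mul_le_mul_of_nonneg_right (hKW 2 2 (by norm_num) (by norm_num))
      (show 0 ≤ δ * kV by positivity)
    linarith
  have hx400 : x ^ 400 * S ≤ k := by
    have h1 := hP1 401 (by norm_num)
    have h2 : x ^ 400 * S * x ≤ k * x := by
      rw [hkx]
      calc x ^ 400 * S * x = x ^ 401 * S := by ring
        _ ≤ 1 := h1
        _ ≤ K := hK1
    exact le_of_mul_le_mul_right h2 hx0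
  have hPk : K ^ 400 * (l + δ) ≤ k :=
    (mul_le_mul (hKn 400) hlδ (by linarith) (by positivity)).trans hx400
  obtain ⟨b2, ⟨i1, i2, l2⟩, m2, t2⟩ := v6_move (kk := kV) (δ := δ) (k := k)
    (by linarith : (10 : ℝ) ^ 7 ≤ K) hρ.le h.hV.isQ
    h.hR.isQ oV oR (le_mul_of_one_le_left kV0.le hK1) (kVR.trans (hWK _ kR0.le)) R13
    (by
      have h1 : 1200000 * W ^ 2 * kU ≤ 1200000 * W ^ 2 * (13 * U.w 0) :=
        mul_le_mul_of_nonneg_left U13 (by positivity)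
      have h2 := mul_le_mul_of_nonneg_right (hKW 15600000 2 (by norm_num) (by norm_num)) wU0.le
      linarith)
    (kRV.trans (hWK _ kV0.le)) tVR tUR tRU tVU h.tU h.tV h.tV' h.tR
    (hVq _ (h.tV _ z1 z2).2) (hVq _ (h.tV' _ z1 z2).2) hd hs0 (kEV.trans (hWK _ kV0.le)) nd2 sm2
    r1 dv u1 bs hk1 hl.le hm.le hδ0.le hPk
  -- the point
  obtain ⟨X, hX⟩ : ∃ X, X = x ^ 400 := ⟨_, rfl⟩
  have hKX : K ^ 400 ≤ X := by rw [hX]; exact hKn 400
  have hxX : x ≤ X := by rw [hX]; exact le_self_pow₀ hx1 (by norm_num)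
  have hKX1 : K ≤ X := hKx.trans hxX
  have hX0 : 0 < X := by linarith
  have hX1 : 1 ≤ X := by linarith
  have hkX : K ^ 400 ≤ k * X := by
    rw [hX]
    calc K ^ 400 = K * K ^ 399 := by ring
      _ ≤ K * x ^ 399 := mul_le_mul_of_nonneg_left (hKn 399) hK0.le
      _ = k * x * x ^ 399 := by rw [hkx]
      _ = k * x ^ 400 := by ring
  have hXδ : X * δ ≤ 1 / 8 := by
    have h1 : x ^ 401 * δ ≤ 1 :=
      (mul_le_mul_of_nonneg_left hSδ (by positivity)).trans (hP1 401 (by norm_num))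
    have h2 : X * δ * 8 ≤ X * δ * x := mul_le_mul_of_nonneg_left (by linarith) (by positivity)
    have h3 : X * δ * x = x ^ 401 * δ := by rw [hX]; ring
    linarith
  have up : ∀ c y : ℝ, c ≤ X → 0 ≤ y → c * y ≤ X * y := fun c y h1 h2 =>
    mul_le_mul_of_nonneg_right h1 h2
  have hXW : ∀ (c : ℝ) (n : ℕ), c ≤ 10 ^ 61 → n ≤ 15 → c * W ^ n ≤ X := fun c n h1 h2 =>
    (hKW c n h1 h2).trans hKX1
  have hXW1 : W ≤ X := hKW1.trans hKX1
  refine V6p467.v6_point (K := X) (a := a) (s := s) (l := l) (m := m) (δ := δ) (g := g) hX1 hr hρ ha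
    hs0 hl.le hm.le hδ0.le hg.le hg1 hj h.hU h.hV h.hR h.tU h.tV h.tV' h.tR
    (h.aU'.trans (up _ _ hXW1 aU0.le)) (h.aV.trans (up _ _ hXW1 ha.le))
    (h.aR.trans (up _ _ hXW1 ha.le)) (by rw [← hkU]; exact hUa) ?_ ?_ hXδ ?_ (tVU.mono hKX1) ?_ ?_
    nd1 nd3 ?_ ⟨v1, v2⟩ ⟨u1, u2⟩ ?_ ?_ ?_ ?_ ?_ ?_ ?_ i
  · rw [← hkU, ← hkV]
    exact kVkU.trans (up _ _ (hXW _ 2 (by norm_num) (by norm_num)) kU0.le)
  · rw [← hkU]
    exact kEU.trans (up _ _ hXW1 kU0.le)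
  · have h1 : W * δ ≤ X * δ := up _ _ hXW1 hδ0.le
    exact ⟨n1.trans (mul_le_mul_of_nonneg_right h1 (SV.pos 1).le),
      n2.trans (mul_le_mul_of_nonneg_right h1 (SV.pos 2).le)⟩
  · exact cc_mono h.c1 (up _ _ (by linarith) hs0.le)
  · refine cc_mono (Cuu57.close_uu h) ?_
    have h1 : 10 ^ 60 * KD ^ 7 * W ^ 15 * (2 * s) = 2 * 10 ^ 60 * KD ^ 7 * W ^ 15 * s := by ring
    rw [h1]
    refine up _ _ ?_ hs0.le
    refine le_trans ?_ hKX1
    rw [hK]
    refine mul_le_mul_of_nonneg_right ?_ (by positivity)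
    linarith
  · unfold Sm at sm1
    push Not at sm1
    obtain ⟨i3, i4, h3⟩ := sm1
    refine ⟨i3, i4, ?_⟩
    have h4 : k * s ≤ k * (X * |th (jS U U.q z0 ρ H j T) (jS U V.q z0 ρ H j T) i3 i4|) := by
      refine h3.le.trans ?_
      have h5 : 1 ≤ k * X := (one_le_pow₀ hK1).trans hkX
      have := mul_le_mul_of_nonneg_right h5
        (abs_nonneg (th (jS U U.q z0 ρ H j T) (jS U V.q z0 ρ H j T) i3 i4))
      linarith
    exact le_of_mul_le_mul_left h4 hk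
  · exact fun i i' => (b2 i i').trans (up _ _ hKX hs0.le)
  · refine ⟨i1, i2, ?_⟩
    have h4 : k * s ≤ k * (X * |th (jS U R.q z0 ρ H j T) (jS U V.q z0 ρ H j T) i1 i2|) := by
      refine l2.trans ?_
      have := mul_le_mul_of_nonneg_right hkX
        (abs_nonneg (th (jS U R.q z0 ρ H j T) (jS U V.q z0 ρ H j T) i1 i2))
      linarith
    exact le_of_mul_le_mul_left h4 hk
  · exact fun i i' k1 k2 => (m2 i i' k1 k2).trans (up _ _ hKX (by positivity))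
  · exact fun i => (t2 i).trans (up _ _ hKX (by positivity))
  · have h1 := up 2 (s * δ) (by linarith) (by positivity)
    linarith
  · rw [← hkU]
    have h1 : 2 * s * δ ≤ 2 * (W * kU) * δ := by
      have := mul_le_mul_of_nonneg_right kEU hδ0.le
      linarith
    have h2 := up _ (δ * kU) (hXW 2 1 (by norm_num) (by norm_num)) (by positivity)
    rw [pow_one] at h2
    linarith
  · have h1 : 10 ^ 13 * KD * X ^ 3 ≤ x * X ^ 3 :=
      mul_le_mul_of_nonneg_right (by linarith) (by positivity)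
    have h2 : (10 ^ 13 * KD * X ^ 3) ^ 35 ≤ (x * X ^ 3) ^ 35 :=
      pow_le_pow_left₀ (by positivity) h1 35
    have e1 : x * X ^ 3 = x ^ 1201 := by
      rw [hX, ← pow_mul]
      calc x * x ^ (400 * 3) = x ^ (1 + 400 * 3) := by rw [pow_add, pow_one]
        _ = _ := rfl
    rw [e1, ← pow_mul] at h2
    have h3 : 2 * 10 ^ 9 * (10 ^ 13 * KD * X ^ 3) ^ 35 ≤ x * x ^ (1201 * 35) :=
      mul_le_mul (by linarith) h2 (by positivity) hx0.le
    have e2 : x * x ^ (1201 * 35) = x ^ (1 + 1201 * 35) := by rw [pow_add, pow_one]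
    rw [e2] at h3
    rw [← hS]
    exact (mul_le_mul_of_nonneg_right h3 hS0.le).trans (hP _ (by norm_num))

/-- **leaf V6** -/
theorem leafV6 : Al500.LeafV6 := by
  have KDp := KD_pos
  have KD1 := KD_one
  obtain ⟨A, hA⟩ : ∃ A : ℝ, A = 10 ^ 61 * KD ^ 7 := ⟨_, rfl⟩
  have hA2 : 10 ^ 30 * KD ^ 2 ≤ A := by
    rw [hA]
    exact mul_le_mul (by norm_num) (pow_le_pow_right₀ KD1 (by norm_num)) (by positivity)
      (by positivity)
  have hA1 : 1 ≤ A := by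
    have : 1 ≤ KD ^ 2 := one_le_pow₀ KD1
    linarith
  refine ⟨A + 750000, by linarith, ?_⟩
  intro qm qp L P cu cv Uf Vf W B M a w1 w2 z0 ρ zL ρL r κ E H hc hCκ hCH l m k g hl hm hk hk1 hg
    hg1 hnum t ht t' ht' j hj hcv hlb nd1 nd2 nd3 sm1 sm2
  have uu := Adp876.uu_of_cf (C := A + 750000) (by linarith) hc hCκ hCH ht ht' hcv
  have h2 := hc.two.to1
  have hW := hc.W1
  have hB : 1 ≤ B := hW.trans hc.WB
  have hH0 : 0 < H := by omega
  have hHr : (0 : ℝ) < H := by exact_mod_cast hH0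
  refine not_Gn.2 ⟨sm1, fun i => ?_⟩
  obtain ⟨dU1, dU2, dU3⟩ := hc.dmU t ht
  obtain ⟨dV1, dV2, dV3⟩ := hc.dmV t ht
  obtain ⟨dR1, dR2, dR3⟩ := hc.dmU t' ht'
  obtain ⟨trUV, trVU⟩ := Tr.of_ang hW h2.r0 uu.hU uu.hV dU2 dU3 dV2 dV3 (hc.ang t ht)
  have angR := hc.ang t' ht'
  have kER' := hc.kE' t' ht'
  have kUV' := hc.kUV t' ht'
  have kVU' := hc.kVU t' ht'
  have upR := (hc.up t' ht').1
  rw [hcv] at nd2 sm2 angR kER' kUV' kVU' upR
  obtain ⟨trRV, trVR⟩ := Tr.of_ang hW h2.r0 uu.hR uu.hV dR2 dR3 dV2 dV3 angR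
  obtain ⟨e1, e2⟩ := Gbx862.gb_close (e := (Vf (cv t)).e) (c := (Vf (cv t)).c) h2.w10 h2.w20 hH0
    (t := L t) (t' := L t') (j := j) hlb.symm
  have n1 : |dt ((Vf (cv t)).e 1) ((L t).pos (zj z0 ρ H j) - (L t').pos (zj z0 ρ H j))| ≤
      W / H * (Vf (cv t)).w 1 := by
    refine e1.le.trans ?_
    rw [div_mul_eq_mul_div]
    exact div_le_div_of_nonneg_right dV2.1 hHr.le
  have n2 : |dt ((Vf (cv t)).e 2) ((L t).pos (zj z0 ρ H j) - (L t').pos (zj z0 ρ H j))| ≤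
      W / H * (Vf (cv t)).w 2 := by
    refine e2.le.trans ?_
    rw [div_mul_eq_mul_div]
    exact div_le_div_of_nonneg_right dV3.1 hHr.le
  have hS0 : 0 ≤ l + m + 1 / (H : ℝ) := by positivity
  have num0 := Nv601.num6 (c := A) (C := A + 750000) (n := 750000) hA1 (by linarith)
    (by push_cast; linarith) (by linarith) hB hk hk1 hg hg1 hS0 hnum
  have num : (A * W ^ 15 / k) ^ 50000 * (l + m + 1 / H) ≤ g ^ 2 := by
    refine le_trans (mul_le_mul_of_nonneg_right ?_ hS0) num0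
    have h3 : A * W ^ 15 / k ≤ (A * B / k) ^ 15 := by
      rw [div_pow, mul_pow]
      have a1 : A * W ^ 15 ≤ A ^ 15 * B ^ 15 :=
        mul_le_mul (le_self_pow₀ hA1 (by norm_num)) (pow_le_pow_left₀ (by linarith) hc.WB 15)
          (by positivity) (by positivity)
      have a2 : k ^ 15 ≤ k := pow_le_of_le_one hk.le hk1 (by norm_num)
      exact div_le_div₀ (by positivity) a1 (by positivity) a2
    calc (A * W ^ 15 / k) ^ 50000 ≤ ((A * B / k) ^ 15) ^ 50000 :=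
          pow_le_pow_left₀ (by positivity) h3 _
      _ = (A * B / k) ^ (15 * 50000) := by rw [← pow_mul]
      _ = (A * B / k) ^ 750000 := by norm_num
  exact v6_uu uu hc.E1 hc.EH hc.HE trUV trVU trVR trRV (hc.kE t ht) (hc.kE t' ht') kER'
    (hc.kVU t ht) kUV' kVU' upR hj.le n1 n2 hl hm hk hk1 hg hg1 nd1 nd2 nd3 sm1 sm2 hA.ge num i

end Crest.Agent.R136.Lv6778
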