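import Crest.Agent.R136.Lv5_831

/-!
# R136, T.L, the seam (Vis), end (helper831)

`GV` : facts of the gauge object, `T1 = 1`, `x = 5`, `R' = 20`; `stageV` : the stage at a record point;
`gv_of_gz`, `visS_of_gz`; **`seamVis`** : `SeamVis η` for `η ≤ 1`.
-/

set_option autoImplicit false
set_option linter.unusedSectionVars false
set_option linter.unusedVariables false

open Filter Topology MeasureTheory

namespace Crest.Agent.R136.Lv831

open Finset Crest.Agent.R136.NetQ186 Crest.Agent.R136.Net191 Crest.Agent.R136.Qg926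
open Crest.Agent.R136.GeoQ186
open Crest.Agent.R136.Gf356 Crest.Agent.R136.Aw413
open Crest.Agent.R136.Dg219 Crest.Agent.R136.Dg262
open Crest.Agent.R136.K2S774 (cn Prf JT Stage RecD RungD BaseOk X_zero)
open Crest.Agent.R136.K2A146 (FLemA deadA)
open Crest.Agent.R136.LdF511 (W7)
open Crest.Agent.R136.Top484 (Par4)
open Crest.Agent.R136.TL196
open Crest.Agent.R136.Gz779
open Crest.Agent.R136.Zpr779 (ExtZ)
open Crest.Agent.R138.Ex926 (Base U IsTan)
open Crest.Agent.R136.Own831 (ol11 oe11 lPath11 LPath VisS oloss ae_stat_Leg ext_sup4)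

/-- facts of the gauge object used on the ending (Vis) -/
structure GV (p : Par4) (ν own : (Fin 11 → ℝ) → ℝ) (c₀ : ℝ) : Prop where
  prf : Prf (Leg monQ 20) ν own ((11 : ℕ) : ℝ)
  dmax : ∀ a ∈ Leg monQ 20, ν a ≤ c₀ + DL p a
  rcd : ∀ v : ℝ, 0 ≤ v → v ≤ 1 → rz (p.θ 1) 1 5 v ∈ Leg monQ 20 ∧
    c₀ + DL p (rz (p.θ 1) 1 5 v) ≤ ν (rz (p.θ 1) 1 5 v)
  rot : ∀ a ∈ Leg monQ 20, ∀ v : ℝ, 0 ≤ v → v ≤ 1 → a 0 = v → a 1 ≤ 5 → a 3 ≤ 5 →
    a 4 ≤ 1 + (1 - p.θ 1) * v → own a = 1 - v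
  up : ∀ a ∈ Leg monQ 20, ∀ v : ℝ, 0 ≤ v → v ≤ 1 → a 0 = v → own a ≤ 1 - v
  zero : ∀ a ∈ Leg monQ 20, ∀ b ∈ Leg monQ 20, a ≤ b → (∀ k, k ≠ 1 → k ≠ 3 → a k = b k) →
    b 1 ≤ 5 → b 3 ≤ 5 → ν a = ν b ∧ own a = own b

/-- visible near the level `v`, at every scale -/
def VisB (θ : ℝ) (own : (Fin 11 → ℝ) → ℝ) (v : ℝ) : Prop :=
  ∃ c1 : ℝ, 0 < c1 ∧ ∀ a u : ℝ, 0 < u → ∀ᶠ h in 𝓝[>] (0 : ℝ), ∀ b ∈ Leg monQ 20,
    v + a * h ≤ b 0 → 5 ≤ b 3 → 1 + (1 - θ) * (v + a * h) + u * h ≤ b 4 →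
      own b ≤ 1 - (v + a * h) - c1 * (u * h)

theorem DL_congr (p : Par4) {a b : Fin 11 → ℝ} (h : ∀ k, k ≠ 1 → k ≠ 3 → a k = b k) :
    DL p a = DL p b := by
  simp only [DL]
  rw [h 0 (by decide) (by decide), h 8 (by decide) (by decide), h 9 (by decide) (by decide),
    h 10 (by decide) (by decide)]

theorem rz_off (θ v : ℝ) : ∀ k, k ≠ 1 → k ≠ 3 → rB θ v k = rz θ 1 5 v k := by
  intro k h1 h3
  revert h1 h3
  fin_cases k <;> simp [rB, rz]

theorem rz_le (θ v : ℝ) : rB θ v ≤ rz θ 1 5 v := by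
  intro k
  by_cases h1 : k = 1
  · subst h1; simp [rB, rz]; norm_num
  by_cases h3 : k = 3
  · subst h3; simp [rB, rz]; norm_num
  exact (rz_off θ v k h1 h3).le

section st

variable {p : Par4} {ν own : (Fin 11 → ℝ) → ℝ} {c₀ v : ℝ} (G : GV p ν own c₀)

include G

theorem GV.nu_rB {v : ℝ} (v0 : 0 ≤ v) (v1 : v ≤ 1) (hm : rB (p.θ 1) v ∈ Leg monQ 20) :
    ν (rB (p.θ 1) v) = c₀ + DL p (rB (p.θ 1) v) := by
  obtain ⟨m1, h1⟩ := G.rcd v v0 v1
  have h2 := (G.zero _ hm _ m1 (rz_le _ _) (rz_off _ _) (by simp [rz]) (by simp [rz])).1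
  have h3 := G.dmax _ hm
  rw [← h2, ← DL_congr p (rz_off (p.θ 1) v)] at h1
  linarith

variable (h0 : 0 < p.θ 1) (h1 : p.θ 1 < 1) (v0 : 0 < v) (v1 : v < 1)

include h0 h1 v0 v1

theorem ev_near {δ : ℝ} (hδ : 0 < δ) (dv : δ ≤ v) (dθ : δ ≤ 1 - p.θ 1 * v) (d1 : δ ≤ 1 / 8)
    {c : Fin 11 → ℝ} (hc : c ∈ cn (mw monQ) AV) : ∀ᶠ h in 𝓝[>] (0 : ℝ), 0 < h ∧
      rB (p.θ 1) v + h • c ∈ Leg monQ 20 ∧ ∀ k, |h * c k| ≤ δ := by
  have t : Tendsto (fun h : ℝ => h * ‖c‖) (𝓝[>] 0) (𝓝 0) := by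
    have : Tendsto (fun h : ℝ => h * ‖c‖) (𝓝 0) (𝓝 (0 * ‖c‖)) := tendsto_id.mul_const _
    rw [zero_mul] at this
    exact this.mono_left nhdsWithin_le_nhds
  filter_upwards [t.eventually (ge_mem_nhds hδ), self_mem_nhdsWithin] with h h2 h3
  have hh : 0 < h := h3
  have hs := small_of (c := c) le_rfl hh.le h2
  refine ⟨hh, nearB h0 h1 v0 v1 dv dθ d1 ?_ hs, fun k => by simpa using hs k⟩
  rw [← cn_V]
  exact K2S774.cn_smul hc hh.le

/-- **the stage at the record point of level `v`** -/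
theorem stageV (hvis : VisB (p.θ 1) own v) : ∃ (kk : ℝ) (lam lo : (Fin 11 → ℝ) → ℝ), 0 < kk ∧
    Stage (mw monQ) (Leg monQ 20) ν own ((11 : ℕ) : ℝ) (rB (p.θ 1) v) (rV (p.θ 1)) (DLl p)
      (cn (mw monQ) AV) ({1, 2, 3, 5, 6} : Set (Fin 11)) ({4} : Set (Fin 11)) 0
      (fun _ => 1 - p.θ 1) 1 AV ∅ lam lo ∧
    ∀ c ∈ cn (mw monQ) AV, (1 - p.θ 1) * c 0 ≤ c 4 →
      lo c ≤ -(c 0) - kk * (c 4 - (1 - p.θ 1) * c 0) := by
  obtain ⟨δ, hδ, dv, dv1, dθ, d1⟩ := roomB h0 h1 v0 v1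
  set θ := p.θ 1 with hθ
  have near : ∀ {c : Fin 11 → ℝ}, c ∈ cn (mw monQ) AV → ∀ᶠ h in 𝓝[>] (0 : ℝ), 0 < h ∧
      rB θ v + h • c ∈ Leg monQ 20 ∧ ∀ k, |h * c k| ≤ δ := fun hc =>
    ev_near G h0 h1 v0 v1 hδ dv dθ d1 hc
  have mB : rB θ v ∈ Leg monQ 20 := by
    have := nearB h0 h1 v0 v1 dv dθ d1 (d := 0) (by
      rw [← cn_V]; exact K2S774.cn_zero) (fun k => by simpa using hδ.le)
    rwa [add_zero] at this
  have b0 : ∀ (c : Fin 11 → ℝ) (h : ℝ), (rB θ v + h • c) 0 = v + h * c 0 := fun c h => by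
    simp [rB]
  have b1 : ∀ (c : Fin 11 → ℝ) (h : ℝ), (rB θ v + h • c) 1 = 9 / 2 + h * c 1 := fun c h => by
    simp [rB]
  have b3 : ∀ (c : Fin 11 → ℝ) (h : ℝ), (rB θ v + h • c) 3 = 9 / 2 + h * c 3 := fun c h => by
    simp [rB]
  have b4 : ∀ (c : Fin 11 → ℝ) (h : ℝ), (rB θ v + h • c) 4 = 1 + (1 - θ) * v + h * c 4 :=
    fun c h => by simp [rB]
  have oB : own (rB θ v) = 1 - v := G.rot _ mB v v0.le v1.le (by simp [rB])
    (by simp [rB]; norm_num) (by simp [rB]; norm_num) (by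
      show rB θ v 4 ≤ 1 + (1 - θ) * v
      simp [rB])
  have hup : ∀ c ∈ cn (mw monQ) AV, ∀ᶠ h in 𝓝[>] (0:ℝ),
      own (rB θ v + h • c) ≤ own (rB θ v) - h * (1 * c 0) := by
    intro c hc
    filter_upwards [near hc] with h ⟨hh, hm, hs⟩
    have s0 := abs_le.1 (hs 0)
    have := G.up _ hm (v + h * c 0) (by linarith [s0.1]) (by linarith [s0.2]) (b0 c h)
    rw [oB]; linarith
  obtain ⟨c1, hc1, hvis⟩ := hvis
  obtain ⟨lam, lo, hS, hlo⟩ := stage_initV (Q := mw monQ) (A := AV) (P := Leg monQ 20) (ν := ν)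
    (own := own) (K := ((11 : ℕ) : ℝ)) (r0 := rB θ v) (ρ := rV θ) (Dl := DLl p)
    (Qd := cn (mw monQ) AV) (Z := ({1, 2, 3, 5, 6} : Set (Fin 11))) (Tie := ({4} : Set (Fin 11)))
    (kz := 0) (o := fun _ => 1 - θ) (τ := 1)
    (f := fun c => -(c 0) - c1 * (c 4 - (1 - θ) * c 0)) (S := fun c => (1 - θ) * c 0 ≤ c 4)
    G.prf (recD_V θ)
    (by
      intro w hw
      have := (rB_nat θ v).nat w hw
      rw [this]
      show _ = _ + 0
      rw [add_zero])
    (by
      intro w hw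
      have := (rB_nat θ v).gap (δ := 1) (by
          simp only [rB, Matrix.cons_val]; nlinarith)
        (by simp only [rB, Matrix.cons_val]; nlinarith) w.1 w.2.1 w.2.2 hw
      show rB θ v w.1 < (mw monQ).rhs w (rB θ v) + 0
      have e : (mw monQ).rhs w (rB θ v) = ∑ s, (w.2.1 s : ℝ) * rB θ v s := rfl
      rw [e]
      linarith)
    (by
      intro C
      refine ⟨δ / (|C| + 1), by positivity, fun h hh hlt c hc hcC => ?_⟩
      rw [lt_div_iff₀ (by positivity)] at hlt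
      have h3 : h * C ≤ δ := by
        have := mul_le_mul_of_nonneg_left (le_abs_self C) hh.le
        nlinarith
      refine nearB h0 h1 v0 v1 dv dθ d1 ?_ (small_of hcC hh.le h3)
      rw [← cn_V]
      exact K2S774.cn_smul hc hh.le)
    (by
      intro σ
      have hρ : σ • rV θ ∈ cn (mw monQ) AV := ((rV_nat θ).nat.smul σ).mem
      filter_upwards [near hρ] with h ⟨hh, hm, hs⟩
      have s0 := abs_le.1 (hs 0)
      have e0 : (σ • rV θ) 0 = σ := by simp [rV]
      rw [e0] at s0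
      have e1 : rB θ v + h • σ • rV θ = rB θ (v + h * σ) := by rw [smul_smul, rB_add]
      rw [e1] at hm ⊢
      rw [G.nu_rB (by linarith [s0.1]) (by linarith [s0.2]) hm, G.nu_rB v0.le v1.le mB,
        ← rB_add θ v (h * σ), ← DLl_apply, ← DLl_apply, map_add, map_smul, smul_eq_mul]
      ring)
    (by
      intro d hd
      filter_upwards [near hd] with h ⟨hh, hm, hs⟩
      refine ⟨hm, ?_⟩
      have h3 := G.dmax _ hm
      rw [G.nu_rB v0.le v1.le mB]
      rw [← DLl_apply, map_add, map_smul, smul_eq_mul] at h3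
      rw [← DLl_apply]
      linarith)
    (by
      intro c hc hcT
      have c4 := hcT 4 rfl
      filter_upwards [near hc] with h ⟨hh, hm, hs⟩
      have s0 := abs_le.1 (hs 0)
      have s1 := abs_le.1 (hs 1)
      have s3 := abs_le.1 (hs 3)
      have := G.rot _ hm (v + h * c 0) (by linarith [s0.1]) (by linarith [s0.2]) (b0 c h)
        (by rw [b1]; linarith [s1.2]) (by rw [b3]; linarith [s3.2]) (by
          rw [b4]
          have := mul_le_mul_of_nonneg_left c4 hh.le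
          linarith)
      rw [this, oB]; ring)
    hup
    (by
      intro c hc hS
      rcases hS.eq_or_lt with he | hlt
      · filter_upwards [hup c hc] with h hh
        rw [← he]
        linarith
      · have hu : 0 < c 4 - (1 - θ) * c 0 := by linarith
        filter_upwards [near hc, hvis (c 0) _ hu] with h ⟨hh, hm, hs⟩ hv
        have s1 := abs_le.1 (hs 1)
        have s3 := abs_le.1 (hs 3)
        set q : Fin 11 → ℝ := rB θ v + h • c with hq
        have q3 : q 3 ≤ 5 := by rw [hq, b3]; linarith [s3.2]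
        set b : Fin 11 → ℝ := Function.update q 3 5 with hb
        have boff : ∀ k, k ≠ 3 → b k = q k := fun k hk => by
          rw [hb, Function.update_of_ne hk]
        have bon : b 3 = 5 := by rw [hb, Function.update_self]
        have hmb : b ∈ Leg monQ 20 := by
          obtain ⟨hl, hR⟩ := hm
          refine ⟨?_, fun k => ?_⟩
          · rw [legalQ_iff] at hl ⊢
            obtain ⟨w0, w1, w2, w3, w4, w5, w6, w7, w8, w9, w10, w11⟩ := hl
            refine ⟨fun k => ?_, ?_, ?_, ?_, ?_, ?_, ?_, ?_, ?_, ?_, ?_, ?_⟩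
            · by_cases hk : k = 3
              · subst hk; rw [bon]; norm_num
              · rw [boff k hk]; exact w0 k
            all_goals
              simp only [bon, boff 0 (by decide), boff 1 (by decide), boff 2 (by decide),
                boff 4 (by decide), boff 5 (by decide), boff 6 (by decide), boff 7 (by decide),
                boff 8 (by decide), boff 9 (by decide), boff 10 (by decide)]
              linarith
          · by_cases hk : k = 3
            · subst hk; rw [bon]; norm_num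
            · rw [boff k hk]; exact hR k
        have hz := (G.zero q hm b hmb (by
            intro k
            by_cases hk : k = 3
            · subst hk; rw [bon]; exact q3
            · rw [boff k hk]) (fun k _ h3 => (boff k h3).symm) (by
            rw [boff 1 (by decide), hq, b1]; linarith [s1.2]) bon.le).2
        have h5 := hv b hmb (by rw [boff 0 (by decide), hq, b0]; linarith) bon.ge (by
          rw [boff 4 (by decide), hq, b4]; nlinarith)
        rw [hz, oB]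
        nlinarith)
  exact ⟨c1, lam, lo, hc1, hS, hlo⟩

end st

/-! ### from the gauge object -/

section gz

variable {c : LCtx} {B' : Base} {J : ℕ → Finset (ℕ × ℝ)} {ξ w : ℕ → ℝ}
  {lam lo : (Fin 11 → ℝ) → ℝ} {Cl E : ℕ → Finset (ℕ × ℝ)} {s₀ : ℕ → ℕ × ℝ}
  {h : ℕ → Fin 6 → ℝ} {ηg : ℕ → ℝ} {J' : ℕ → Finset (ℕ × ℝ)} {To : ℕ → ℝ}
  {ν' own' : (Fin 11 → ℝ) → ℝ}

theorem gv_of_gz (G : GZ c 1 5 20 B' J ξ w lam lo Cl E s₀ h ηg J' To ν' own')
    (h1 : c.p.θ 1 < 1) : GV c.p ν' own' (DL c.p (bT 1) - lam (bT 1)) where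
  prf := ⟨Nat.cast_nonneg _, G.ext.win.lip, G.ext.olip, G.ext.win.anti, G.ext.win.sharp,
    G.ext.win.submod, G.ext.own_le⟩
  dmax := fun a ha => G.ext.dmax a ⟨ha, fun h => absurd h h1.ne⟩ ha
  rcd := fun v h0 h1 => G.ext.record v h0 h1
  rot := fun a ha v h0 h1 a0 a1 a3 a4 => by
    have := G.ext.own_rot a ha v h0 h1 (by rw [a0, zero_add]) (by
      intro k
      have hR := ha.2 k
      fin_cases k
      · exact a0.le
      · exact a1
      · exact hR
      · exact a3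
      · exact a4
      all_goals exact hR)
    rw [this]; ring
  up := fun a ha v h0 h1 a0 => by
    have := G.ext.own_up a ha v h0 h1 (by rw [a0, zero_add])
    linarith
  zero := G.zero

theorem visB_of_gz (G : GZ c 1 5 20 B' J ξ w lam lo Cl E s₀ h ηg J' To ν' own')
    (h0 : 0 < c.p.θ 1) (h1 : c.p.θ 1 < 1) (hV : Vis (c.p.θ 1) 1 5 20 own') :
    ∀ᵐ v : ℝ, v ∈ Set.Ioo (0 : ℝ) 1 → VisB (c.p.θ 1) own' v := by
  set θ := c.p.θ 1 with hθ
  have hp : LPath (Leg monQ 20) 0 0 4 (oz θ 1 5 20) (ol11 0 5 1) (oe11 (1 - θ)) 0 1 1 :=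
    lPath11 (Mw := monQ) (fun _ hp => hp) le_rfl zero_le_one (by linarith) one_pos
      (by linarith) (by norm_num) (by norm_num) (by
        intro v hv0 hv1
        refine ⟨?_, ?_, ?_, ?_⟩
        · simp [oz]
        · simp [oz]
        · simp [oz]
        · intro k hk0 hk3 hk4
          fin_cases k <;> first | exact absurd rfl hk0 | exact absurd rfl hk3 |
            exact absurd rfl hk4 | simp [oz])
  have hst := ae_stat_Leg (P := Leg monQ 20) (own := own') (K := ((11 : ℕ) : ℝ))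
    (Nat.cast_nonneg _) G.ext.olip (ext_sup4 G.ext) hp.y0 hp.low hp.e0 hp.ej hp.kzj
    (by rw [hp.ez]; exact one_pos)
  filter_upwards [hV, hst] with v hv hs hvI
  have hvs : VisS own' (ol11 0 5 1) (oe11 (1 - θ)) 4 v := by
    refine Own831.Vis.strong ?_ (hs hvI)
    obtain ⟨k, hk, y₀, hy₀, H⟩ := hv hvI
    refine ⟨k, hk, min y₀ 1, lt_min hy₀ one_pos, fun y hy hyy => ?_⟩
    have h2 := H y hy (hyy.trans (min_le_left _ _)) _
      (hp.low v hvI.1 hvI.2 y hy.le (hyy.trans (min_le_right _ _))) (by simp [ol11, oe11])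
      (by simp [ol11, oe11]) (by simp [ol11, oe11]; ring_nf; exact le_rfl)
    have h3 := hp.ownp G.ext hvI.1 hvI.2
    unfold oloss
    rw [h3]
    linarith
  obtain ⟨c1, hc1, H⟩ := hvs
  refine ⟨c1, hc1, fun a u hu => ?_⟩
  have t1 : Tendsto (fun h : ℝ => v + a * h) (𝓝[>] 0) (𝓝 v) := by
    have : Tendsto (fun h : ℝ => v + a * h) (𝓝 0) (𝓝 (v + a * 0)) :=
      (tendsto_id.const_mul a).const_add v
    rw [mul_zero, add_zero] at this
    exact this.mono_left nhdsWithin_le_nhds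
  have t2 : Tendsto (fun h : ℝ => u * h) (𝓝[>] 0) (𝓝 0) := by
    have : Tendsto (fun h : ℝ => u * h) (𝓝 0) (𝓝 (u * 0)) := tendsto_id.const_mul u
    rw [mul_zero] at this
    exact this.mono_left nhdsWithin_le_nhds
  filter_upwards [H a u hu, t1.eventually (lt_mem_nhds hvI.1), t1.eventually (gt_mem_nhds hvI.2),
    t2.eventually (ge_mem_nhds one_pos), self_mem_nhdsWithin] with h g1 g2 g3 g4 g5 b hb b0 b3 b4
  have hh : 0 < h := g5
  have h2 := G.ext.oanti _ (hp.low _ g2 g3 (u * h) (mul_nonneg hu.le hh.le) g4) b hb (by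
    have hn := hb.1.nonneg
    intro k
    fin_cases k
    · simpa [ol11, oe11] using b0
    · simpa [ol11, oe11] using hn 1
    · simpa [ol11, oe11] using hn 2
    · simpa [ol11, oe11] using b3
    · simp [ol11, oe11]; linarith
    · simpa [ol11, oe11] using hn 5
    · simpa [ol11, oe11] using hn 6
    · simpa [ol11, oe11] using hn 7
    · simpa [ol11, oe11] using hn 8
    · simpa [ol11, oe11] using hn 9
    · simpa [ol11, oe11] using hn 10)
  have h3 := hp.ownp G.ext g2 g3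
  unfold oloss at g1
  rw [h3] at g1
  linarith

theorem xg_nat (c : LCtx) (T1 : ℝ) (ξ w : ℕ → ℝ) (n : ℕ) : NatV (XG (c.XB T1 ξ w) n) := by
  have e : ∀ k : Fin 11, k ≠ 1 → XG (c.XB T1 ξ w) n k = c.XB T1 ξ w n k := fun k hk => XG_of_ne hk
  constructor
  all_goals
    simp only [e 0 (by decide), e 2 (by decide), e 4 (by decide), e 5 (by decide),
      e 6 (by decide), e 7 (by decide), e 8 (by decide), e 9 (by decide), e 10 (by decide)]
    simp only [LCtx.XB, LCtx.X, bT, NatT550.nat4, NatR550.nL, Pi.add_apply, Pi.smul_apply,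
      smul_eq_mul, Matrix.cons_val]
    ring

end gz

/-- **THE SEAM (Vis)** -/
theorem seamVis {η : ℝ} (hη : η ≤ 1) : SeamVis η := by
  intro c ok
  refine ⟨fun _ _ => 1, fun _ => Base.Sub.const one_pos, ?_⟩
  intro B' J ξ w lam lo Cl E s₀ h ηg J' To ν' own' G _ h1 hV
  have e1 : T1z (c.p.θ 1) = 1 := max_eq_left h1.le
  have e2 : xz (c.p.θ 1) = 5 := by unfold xz; rw [e1]; norm_num
  have e3 : Rz (c.p.θ 1) = 20 := by unfold Rz; rw [e2]; norm_num
  rw [e1, e2, e3] at G hV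
  have pk := ok.th.tp.ok
  have h0 := pk.θ1
  have hG := gv_of_gz G h1
  -- a visible level
  obtain ⟨v, hvI, hv⟩ : ∃ v : ℝ, v ∈ Set.Ioo (0 : ℝ) 1 ∧ VisB (c.p.θ 1) own' v := by
    by_contra hcon
    push Not at hcon
    have h3 := visB_of_gz G h0 h1 hV
    have h4 : ∀ᵐ v : ℝ, v ∉ Set.Ioo (0 : ℝ) 1 := by
      filter_upwards [h3] with v hv hvI
      exact hcon v hvI (hv hvI)
    have h5 : volume (Set.Ioo (0 : ℝ) 1) = 0 := by
      have := measure_eq_zero_iff_ae_notMem.2 h4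
      exact this
    rw [Real.volume_Ioo] at h5
    simp at h5
  obtain ⟨kk, lam₁, lo₁, hkk, hS, hlo⟩ := stageV hG h0 h1 hvI.1 hvI.2 hv
  have hF := flemV (f := fun n i => rg (h n) (c.F n i)) G.ext.win (by norm_num)
    (fun n i _ j _ => rfl) (fun n => xg_nat c 1 ξ w n) h0 h1 hvI.1 hvI.2 pk.g0.2 pk.q2.1 hS hkk hlo
    G.ext.own_le
  refine deadA hS (recD_V _) (rungD_V h1) ?_ hF
  -- the gain
  have q0 := pk.q0
  have q2 := pk.q2
  have g0 := pk.g0.1
  have hη0 := pk.η_pos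
  have a1 : c.p.q 0 ≤ c.p.g := by
    calc c.p.q 0 ≤ η * c.p.q 2 := q0.2
      _ ≤ 1 * c.p.q 2 := mul_le_mul_of_nonneg_right hη q2.1.le
      _ ≤ η * c.p.g := by rw [one_mul]; exact q2.2
      _ ≤ 1 * c.p.g := mul_le_mul_of_nonneg_right hη g0.le
      _ = c.p.g := one_mul _
  nlinarith

end Crest.Agent.R136.Lv831
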