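import Crest.Agent.R136.Lnf0_208
import Crest.Agent.R136.Cuu4_57
import Crest.Agent.R136.V6m_467
import Crest.Agent.R136.Chm5_862

/-!
# R136 (S0187), PLAN 2 (AL), `LeafV6`: numbers (helper208)
-/

set_option autoImplicit false
set_option linter.unusedVariables false

open Finset

namespace Crest.Agent.R136.Lv6208

open Crest.Agent.R136.Sh605
open Crest.Agent.R136.K4 (Plk4)
open Crest.Agent.R136.Tlt51 (Shp InP)
open Crest.Agent.R136.Deep51 (CloseC)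
open Crest.Agent.R136.KapP335 (kapP)
open Crest.Agent.R136.Adj214 (KD KD_pos KD_one)

theorem closeC_mono {e : Fin 3 → V3} {w : V3} {q q' : ℝ → V3 → ℝ} {a E E' z0 ρ : ℝ} {T : Ln4}
    (h : CloseC e w q a q' E T z0 ρ) (hE : E ≤ E') : CloseC e w q a q' E' T z0 ρ :=
  fun z h0 h1 x hx hq => (h z h0 h1 x hx hq).trans hE

theorem nr_mono {S : Plk4} {c c' z : ℝ} {t T : Ln4} (h : Hcp208.Nr S c z t T) (hc : c ≤ c')
    (h1 : 0 ≤ S.w 1) (h2 : 0 ≤ S.w 2) : Hcp208.Nr S c' z t T :=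
  ⟨h.1.trans (mul_le_mul_of_nonneg_right hc h1), h.2.trans (mul_le_mul_of_nonneg_right hc h2)⟩

theorem dv_mono {S : Plk4} {q' : ℝ → V3 → ℝ} {z0 ρ : ℝ} {H j : ℕ} {T : Ln4} {K κ s K' s' : ℝ}
    (h : Wdg296.Dv S q' z0 ρ H j T K κ s) (hK : K * s ≤ K' * s') :
    Wdg296.Dv S q' z0 ρ H j T K' κ s' :=
  ⟨fun i i' => (h.th i i').trans hK, fun i => (h.gm i).trans hK, h.h00.trans hK⟩

/-- `c x^n ≤ (C x)^C` -/
theorem pow_le_rpow' {C c x : ℝ} (hc : c ≤ C) (hC : 1 ≤ C) (hx : 1 ≤ x) (n : ℕ) (hn : (n : ℝ) ≤ C) :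
    c * x ^ n ≤ (C * x) ^ C := by
  have hC0 : 0 ≤ C := by linarith
  have hx0 : 0 ≤ x := by linarith
  rw [Real.mul_rpow hC0 hx0]
  have h1 : C ≤ C ^ C := by
    conv_lhs => rw [← Real.rpow_one C]
    exact Real.rpow_le_rpow_of_exponent_le hC hC
  have h2 : x ^ n ≤ x ^ C := by
    rw [← Real.rpow_natCast x n]
    exact Real.rpow_le_rpow_of_exponent_le hx hn
  exact mul_le_mul (hc.trans h1) h2 (by positivity) (by positivity)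

/-- **thresholds** -/
theorem num {c0 W B k C Sg g : ℝ} (hc0 : 1 ≤ c0) (hW : 1 ≤ W) (hWB : W ≤ B) (hk : 0 < k)
    (hk1 : k ≤ 1) (hS : 0 ≤ Sg) (hg : 0 < g) (hg1 : g ≤ 1)
    (hC : 2 * 10 ^ 9 * ((10 ^ 13 * KD) ^ 35 * (c0 ^ 400) ^ 105) + 630105 ≤ C)
    (hn : (C * B / k) ^ C * Sg ≤ g ^ C) :
    2 * 10 ^ 9 * (10 ^ 13 * KD * ((c0 * W ^ 15) ^ 400 / k) ^ 3) ^ 35 * Sg ≤ g ^ 2 := by
  have KD1 := KD_one
  have KDp := KD_pos
  obtain ⟨D, hD⟩ : ∃ D : ℝ, D = 2 * 10 ^ 9 * ((10 ^ 13 * KD) ^ 35 * (c0 ^ 400) ^ 105) := ⟨_, rfl⟩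
  rw [← hD] at hC
  have hD0 : 0 ≤ D := by rw [hD]; positivity
  have hC1 : 1 ≤ C := by linarith
  have hB1 : 1 ≤ B := hW.trans hWB
  obtain ⟨x, hx⟩ : ∃ x : ℝ, x = B / k := ⟨_, rfl⟩
  have hBx : B ≤ x := by rw [hx, le_div_iff₀ hk]; nlinarith
  have hx1 : 1 ≤ x := hB1.trans hBx
  have hx0 : 0 < x := by linarith
  have hkx : 1 / k ≤ x := by rw [hx]; exact div_le_div_of_nonneg_right hB1 hk.le
  have e1 : C * B / k = C * x := by rw [hx]; ring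
  rw [e1] at hn
  have h1 := pow_le_rpow' (by linarith : D ≤ C) hC1 hx1 630105 (by norm_num; linarith)
  have h2 : g ^ C ≤ g ^ 2 := by
    rw [← Real.rpow_natCast g 2]
    exact Real.rpow_le_rpow_of_exponent_ge hg hg1 (by push_cast; linarith)
  refine le_trans ?_ ((mul_le_mul_of_nonneg_right h1 hS).trans (hn.trans h2))
  apply mul_le_mul_of_nonneg_right _ hS
  have hW15 : c0 * W ^ 15 ≤ c0 * x ^ 15 :=
    mul_le_mul_of_nonneg_left (pow_le_pow_left₀ (by linarith) (hWB.trans hBx) 15) (by linarith)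
  have h3 : (c0 * W ^ 15) ^ 400 / k ≤ c0 ^ 400 * x ^ 6001 := by
    have a1 : (c0 * W ^ 15) ^ 400 ≤ (c0 * x ^ 15) ^ 400 :=
      pow_le_pow_left₀ (by positivity) hW15 400
    have a2 : (c0 * W ^ 15) ^ 400 / k = (c0 * W ^ 15) ^ 400 * (1 / k) := by ring
    have a3 : (c0 * x ^ 15) ^ 400 * x = c0 ^ 400 * x ^ 6001 := by
      rw [mul_pow, ← pow_mul, mul_assoc, ← pow_succ]
    rw [a2, ← a3]
    exact mul_le_mul a1 hkx (by positivity) (by positivity)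
  have h4 : (10 ^ 13 * KD * ((c0 * W ^ 15) ^ 400 / k) ^ 3) ^ 35 ≤
      (10 ^ 13 * KD * (c0 ^ 400 * x ^ 6001) ^ 3) ^ 35 := by
    apply pow_le_pow_left₀ (by positivity)
    apply mul_le_mul_of_nonneg_left _ (by positivity)
    exact pow_le_pow_left₀ (by positivity) h3 3
  have e2 : (10 ^ 13 * KD * (c0 ^ 400 * x ^ 6001) ^ 3) ^ 35 =
      (10 ^ 13 * KD) ^ 35 * (c0 ^ 400) ^ 105 * x ^ 630105 := by
    rw [mul_pow (10 ^ 13 * KD), ← pow_mul, mul_pow (c0 ^ 400), ← pow_mul x]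
    ring
  rw [e2] at h4
  calc 2 * 10 ^ 9 * (10 ^ 13 * KD * ((c0 * W ^ 15) ^ 400 / k) ^ 3) ^ 35
      ≤ 2 * 10 ^ 9 * ((10 ^ 13 * KD) ^ 35 * (c0 ^ 400) ^ 105 * x ^ 630105) :=
        mul_le_mul_of_nonneg_left h4 (by norm_num)
    _ = D * x ^ 630105 := by rw [hD]; ring

/-- `K ≤ N`, `N Sg ≤ g²` -/
theorem num2 {K Sg g : ℝ} (hK : 1 ≤ K) (hS : 0 ≤ Sg) (hg : 0 < g) (hg1 : g ≤ 1)
    (hn : 2 * 10 ^ 9 * (10 ^ 13 * KD * K ^ 3) ^ 35 * Sg ≤ g ^ 2) : 10 ^ 9 * (K * Sg) ≤ 1 := by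
  have KD1 := KD_one
  have h1 : K ≤ (10 ^ 13 * KD * K ^ 3) ^ 35 := by
    have a1 : K ≤ K ^ 3 := le_self_pow₀ hK (by norm_num)
    have a2 : K ^ 3 ≤ 10 ^ 13 * KD * K ^ 3 := le_mul_of_one_le_left (by positivity) (by linarith)
    have a3 : 1 ≤ 10 ^ 13 * KD * K ^ 3 := (hK.trans a1).trans a2
    exact (a1.trans a2).trans (le_self_pow₀ a3 (by norm_num))
  have h2 : g ^ 2 ≤ 1 := pow_le_one₀ hg.le hg1
  have h3 : K * Sg ≤ (10 ^ 13 * KD * K ^ 3) ^ 35 * Sg := mul_le_mul_of_nonneg_right h1 hS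
  linarith

end Crest.Agent.R136.Lv6208
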