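import Crest.Agent.R136.Lv6a_208

/-!
# R136 (S0187), PLAN 2 (AL), `LeafV6`: one pair of lines (helper208)
-/

set_option autoImplicit false
set_option linter.unusedVariables false

open Finset

namespace Crest.Agent.R136.Lv6208

open Crest.Agent.R136.Sh605
open Crest.Agent.R136.K4 (Plk4)
open Crest.Agent.R136.Tlt51 (Shp InP)
open Crest.Agent.R136.Deep51 (CloseC)
open Crest.Agent.R136.KapP335 (kapP)
open Crest.Agent.R136.Tl102 (angC StP StP.of_shN)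
open Crest.Agent.R136.Gbx862 (zj gb gb_close zj_mem)
open Crest.Agent.R136.Rk601 (th tg mn sl)
open Crest.Agent.R136.AlD601 (Nd Sm Gn jS vS not_Nd)
open Crest.Agent.R136.Al500 (Dm)
open Crest.Agent.R136.Hcp208 (Nr kapP_le)
open Crest.Agent.R136.Chm862 (Tr Own own sl_of_tg v6_move)
open Crest.Agent.R136.V6p467 (disp_V near_box a0_gen v6_point)
open Crest.Agent.R136.Kpc104 (kapP_comp)
open Crest.Agent.R136.Adj214 (KD KD_pos KD_one)

set_option maxHeartbeats 4000000 in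
theorem core {U V R : Plk4} {T T' : Ln4} {z0 ρ r W a E w1 w2 l m k g κ c0 K0 K1 : ℝ} {H j : ℕ}
    (uu : Cuu57.Uu U V R T T' z0 ρ r W a (2 * E * a) κ) (hE1 : 1 ≤ E) (hEH : E ≤ H)
    (hHE : (H : ℝ) ≤ 2 * E) (hH : 10 ^ 27 * KD ^ 2 * W ^ 8 ≤ (H : ℝ)) (w10 : 0 < w1) (w20 : 0 < w2)
    (dU : Dm W a w1 w2 U) (dV : Dm W a w1 w2 V) (dR : Dm W a w1 w2 R)
    (ang : angC U V * w1 ≤ W * w2) (ang' : angC R V * w1 ≤ W * w2)
    (cRV : CloseC R.e R.w R.q R.a V.q (2 * E * a) T' z0 ρ)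
    (kEU : E * a ≤ W * kapP U z0 ρ T) (kEV : E * a ≤ W * kapP V z0 ρ T)
    (kEV' : E * a ≤ W * kapP V z0 ρ T') (kER : E * a ≤ W * kapP R z0 ρ T')
    (kUV : kapP U z0 ρ T ≤ W * kapP V z0 ρ T) (kVU : kapP V z0 ρ T ≤ W * kapP U z0 ρ T)
    (kRV : kapP R z0 ρ T' ≤ W * kapP V z0 ρ T') (kVR : kapP V z0 ρ T' ≤ W * kapP R z0 ρ T')
    (hj : j < H) (hlb : gb V.e V.c w1 w2 z0 ρ H T j = gb V.e V.c w1 w2 z0 ρ H T' j)
    (hc0 : c0 = 2 * 10 ^ 60 * KD ^ 7) (hK0 : K0 = c0 * W ^ 15) (hK1 : K1 = K0 ^ 400 / k)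
    (hl : 0 < l) (hm : 0 < m) (hk : 0 < k) (hk1 : k ≤ 1) (hg : 0 < g) (hg1 : g ≤ 1)
    (hn : 2 * 10 ^ 9 * (10 ^ 13 * KD * K1 ^ 3) ^ 35 * (l + m + 1 / (H : ℝ)) ≤ g ^ 2)
    (nd1 : ¬ Nd U V.q z0 ρ H j T l m (E * a)) (nd2 : ¬ Nd R V.q z0 ρ H j T' l m (E * a))
    (nd3 : ¬ Nd U R.q z0 ρ H j T l m (E * a)) (sm1 : ¬ Sm U V.q z0 ρ H j T k (E * a))
    (sm2 : ¬ Sm R V.q z0 ρ H j T' k (E * a)) (i : Fin 3) :
    |∑ j', th (jS U U.q z0 ρ H j T) (jS U V.q z0 ρ H j T) i j' * vS U ρ T' j'| ≤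
      g * (E * a) := by
  have KD1 := KD_one
  have KDp := KD_pos
  have hr := uu.r0
  have hρ := uu.ρ0
  have hW := uu.W1
  have ha := uu.a0
  have hW0 : 0 < W := by linarith
  obtain ⟨Ua, U0, U1, U2, Uw, -⟩ := Cuu57.wpos hr uu.hU
  obtain ⟨Va, V0, V1, V2, Vw, -⟩ := Cuu57.wpos hr uu.hV
  obtain ⟨Ra, R0, R1, R2, Rw, -⟩ := Cuu57.wpos hr uu.hR
  have SPV := StP.of_shN uu.hV V0
  have SPU := StP.of_shN uu.hU U0
  have SPR := StP.of_shN uu.hR R0
  have hHp : (0 : ℝ) < H := by linarith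
  have hHn : 0 < H := by exact_mod_cast hHp
  obtain ⟨s, hs⟩ : ∃ s, s = E * a := ⟨_, rfl⟩
  obtain ⟨δ, hδ⟩ : ∃ δ : ℝ, δ = 1 / (H : ℝ) := ⟨_, rfl⟩
  have hs0 : 0 < s := by rw [hs]; positivity
  have hδ0 : 0 < δ := by rw [hδ]; positivity
  have hHδ : (H : ℝ) * δ = 1 := by rw [hδ]; field_simp
  have e2s : 2 * E * a = 2 * s := by rw [hs]; ring
  have hcuu := Cuu57.close_uu uu
  have hc1 := uu.c1
  have hc2 := uu.c2
  rw [e2s] at hcuu hc1 hc2 cRV
  rw [← hδ] at hn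
  rw [← hs] at kEU kEV kEV' kER nd1 nd2 nd3 sm1 sm2 ⊢
  have has : a ≤ 2 * (δ * s) := by
    calc a = ((H : ℝ) * δ) * a := by rw [hHδ, one_mul]
      _ ≤ (2 * E * δ) * a := by gcongr
      _ = 2 * (δ * s) := by rw [hs]; ring
  -- constants
  have hKD7 : (1 : ℝ) ≤ KD ^ 7 := one_le_pow₀ KD1
  have hc0b : 2 * 10 ^ 60 ≤ c0 := by rw [hc0]; linarith
  have hc00 : 0 < c0 := by linarith
  have hcKD : 2 * 10 ^ 13 * KD ≤ c0 := by
    rw [hc0]
    have : KD ≤ KD ^ 7 := le_self_pow₀ KD1 (by norm_num)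
    linarith
  have big : ∀ {c : ℝ} {n : ℕ}, 0 ≤ c → c ≤ 2 * 10 ^ 60 → n ≤ 15 → c * W ^ n ≤ K0 := by
    intro c n h0 h1 h2
    rw [hK0]
    exact mul_le_mul (h1.trans hc0b) (pow_le_pow_right₀ hW h2) (by positivity) hc00.le
  have K07 : 10 ^ 7 ≤ K0 := by
    have := big (c := 10 ^ 7) (n := 0) (by norm_num) (by norm_num) (by norm_num)
    simpa using this
  have K01 : 1 ≤ K0 := by linarith
  have hK00 : 0 < K0 := by linarith
  have W15 : (1 : ℝ) ≤ W ^ 15 := one_le_pow₀ hW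
  have hcK0 : c0 ≤ K0 := by rw [hK0]; exact le_mul_of_one_le_right hc00.le W15
  have K400 : K0 ≤ K0 ^ 400 := le_self_pow₀ K01 (by norm_num)
  have K400p : 0 < K0 ^ 400 := by positivity
  have K1ge : K0 ^ 400 ≤ K1 := by
    rw [hK1, le_div_iff₀ hk]
    exact mul_le_of_le_one_right K400p.le hk1
  have K10 : K0 ≤ K1 := K400.trans K1ge
  have K11 : 1 ≤ K1 := K01.trans K10
  have hK1p : 0 < K1 := by linarith
  have K1k : K1 * k = K0 ^ 400 := by rw [hK1]; field_simp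
  have Sg0 : 0 ≤ l + m + δ := by linarith
  have hn2 := num2 K11 Sg0 hg hg1 hn
  have sml : 10 ^ 9 * (K1 * l) ≤ 1 := by
    have h1 : 0 ≤ K1 * m := by positivity
    have h2 : 0 ≤ K1 * δ := by positivity
    have e : K1 * (l + m + δ) = K1 * l + K1 * m + K1 * δ := by ring
    rw [e] at hn2; linarith
  have smd : 10 ^ 9 * (K1 * δ) ≤ 1 := by
    have h1 : 0 ≤ K1 * m := by positivity
    have h2 : 0 ≤ K1 * l := by positivity
    have e : K1 * (l + m + δ) = K1 * l + K1 * m + K1 * δ := by ring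
    rw [e] at hn2; linarith
  have hP : K0 ^ 400 * (l + δ) ≤ k := by
    have e : K0 ^ 400 * (l + δ) = (K1 * l + K1 * δ) * k := by rw [← K1k]; ring
    rw [e]
    have : K1 * l + K1 * δ ≤ 1 := by linarith
    exact mul_le_of_le_one_left hk.le this
  -- small quantities
  have hHδ' : 10 ^ 27 * KD ^ 2 * W ^ 8 * δ ≤ 1 := by
    rw [← hHδ]; exact mul_le_mul_of_nonneg_right hH hδ0.le
  have KD2 : (1 : ℝ) ≤ KD ^ 2 := one_le_pow₀ KD1
  have smW : ∀ {c : ℝ} {n : ℕ}, 0 ≤ c → c ≤ 10 ^ 27 → n ≤ 8 → c * W ^ n * δ ≤ 1 := by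
    intro c n h0 h1 h2
    refine le_trans ?_ hHδ'
    apply mul_le_mul_of_nonneg_right _ hδ0.le
    exact mul_le_mul (by nlinarith) (pow_le_pow_right₀ hW h2) (by positivity) (by positivity)
  -- thickness against curvature
  have aS : ∀ {A x : ℝ}, A ≤ W * a → s ≤ W * x → A ≤ 2 * W ^ 2 * δ * x := by
    intro A x h1 h2
    calc A ≤ W * a := h1
      _ ≤ W * (2 * (δ * s)) := by gcongr
      _ ≤ W * (2 * (δ * (W * x))) := by gcongr
      _ = 2 * W ^ 2 * δ * x := by ring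
  obtain ⟨kU, hkU⟩ : ∃ x, x = kapP U z0 ρ T := ⟨_, rfl⟩
  obtain ⟨kV, hkV⟩ : ∃ x, x = kapP V z0 ρ T' := ⟨_, rfl⟩
  obtain ⟨kT, hkT⟩ : ∃ x, x = kapP V z0 ρ T := ⟨_, rfl⟩
  obtain ⟨kR, hkR⟩ : ∃ x, x = kapP R z0 ρ T' := ⟨_, rfl⟩
  have pos : ∀ {x : ℝ}, s ≤ W * x → 0 < x := by
    intro x h
    by_contra hc
    push Not at hc
    have := mul_nonpos_of_nonneg_of_nonpos hW0.le hc
    linarith
  have kU0 : 0 < kU := by rw [hkU]; exact pos kEU
  have kV0 : 0 < kV := by rw [hkV]; exact pos kEV'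
  have kT0 : 0 < kT := by rw [hkT]; exact pos kEV
  have kR0 : 0 < kR := by rw [hkR]; exact pos kER
  have comp1 := kapP_comp hρ hr uu.hV uu.tV uu.tV'
  have comp2 := kapP_comp hρ hr uu.hV uu.tV' uu.tV
  have lU := kapP_le hr hρ.le uu.hU uu.tU
  have lV := kapP_le hr hρ.le uu.hV uu.tV'
  have lR := kapP_le hr hρ.le uu.hR uu.tR
  have bU := uu.bU
  rw [← hkU] at kEU kUV kVU lU bU
  rw [← hkV] at kEV' kRV kVR lV comp1 comp2
  rw [← hkT] at kEV kUV kVU comp1 comp2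
  rw [← hkR] at kER kRV kVR lR
  have tiny : ∀ {A x : ℝ}, 0 < x → A ≤ 2 * W ^ 2 * δ * x → 10 ^ 6 * A ≤ x := by
    intro A x hx h
    have h1 := smW (c := 2 * 10 ^ 6) (n := 2) (by norm_num) (by norm_num) (by norm_num)
    calc 10 ^ 6 * A ≤ 10 ^ 6 * (2 * W ^ 2 * δ * x) := by gcongr
      _ = (2 * 10 ^ 6 * W ^ 2 * δ) * x := by ring
      _ ≤ 1 * x := by gcongr
      _ = x := one_mul x
  have aVT : V.a ≤ 2 * W ^ 2 * δ * kT := aS uu.aV kEV
  have aVV : V.a ≤ 2 * W ^ 2 * δ * kV := aS uu.aV kEV'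
  have aVU : V.a ≤ 2 * W ^ 2 * δ * kU := aS uu.aV kEU
  have aRR : R.a ≤ 2 * W ^ 2 * δ * kR := aS uu.aR kER
  have aUU : U.a ≤ 2 * W ^ 2 * δ * kU := aS uu.aU kEU
  have V6a := tiny kT0 aVT
  have V6b := tiny kV0 aVV
  have R6 := tiny kR0 aRR
  have U6 := tiny kU0 aUU
  have x1 : kV ≤ 1200000 * kT := by linarith
  have x2 : kT ≤ 1200000 * kV := by linarith
  have c1 : kV ≤ K0 * kU := by
    have h1 := big (c := 1200000) (n := 1) (by norm_num) (by norm_num) (by norm_num)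
    rw [pow_one] at h1
    calc kV ≤ 1200000 * kT := x1
      _ ≤ 1200000 * (W * kU) := by gcongr
      _ = 1200000 * W * kU := by ring
      _ ≤ K0 * kU := by gcongr
  have h12 := big (c := 1200000) (n := 2) (by norm_num) (by norm_num) (by norm_num)
  have c2 : kU ≤ K0 * kR := by
    calc kU ≤ W * kT := kUV
      _ ≤ W * (1200000 * kV) := by gcongr
      _ ≤ W * (1200000 * (W * kR)) := by gcongr
      _ = 1200000 * W ^ 2 * kR := by ring
      _ ≤ K0 * kR := by gcongr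
  have c5 : kR ≤ K0 * kU := by
    calc kR ≤ W * kV := kRV
      _ ≤ W * (1200000 * kT) := by gcongr
      _ ≤ W * (1200000 * (W * kU)) := by gcongr
      _ = 1200000 * W ^ 2 * kU := by ring
      _ ≤ K0 * kU := by gcongr
  have c4 : kU ≤ K0 * U.w 0 := by
    refine lU.trans ?_
    exact mul_le_mul_of_nonneg_right (by linarith) U0.le
  -- transitions
  obtain ⟨tUV, tVU⟩ := Tr.of_ang hW hr uu.hU uu.hV dU.2.1 dU.2.2 dV.2.1 dV.2.2 ang
  obtain ⟨tRV, tVR⟩ := Tr.of_ang hW hr uu.hR uu.hV dR.2.1 dR.2.2 dV.2.1 dV.2.2 ang'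
  have tUR := tUV.trans tVR
  have tRU := tRV.trans tVU
  have b3 : W ^ 3 ≤ K0 := by
    have := big (c := 1) (n := 3) (by norm_num) (by norm_num) (by norm_num)
    rwa [one_mul] at this
  have b1 : W ≤ K0 := by
    have := big (c := 1) (n := 1) (by norm_num) (by norm_num) (by norm_num)
    rwa [one_mul, pow_one] at this
  have b6 : 3 * W ^ 3 * W ^ 3 ≤ K0 := by
    have := big (c := 3) (n := 6) (by norm_num) (by norm_num) (by norm_num)
    calc 3 * W ^ 3 * W ^ 3 = 3 * W ^ 6 := by ring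
      _ ≤ K0 := this
  -- own data
  have oV := (own (H := H) (j := j) hr hρ.le uu.hV uu.tV' hj.le (by rw [← hkV]; linarith)).mono
    (C' := K0) (by linarith) V0.le (by rw [← hkV]; exact kV0.le)
  have oR := (own (H := H) (j := j) hr hρ.le uu.hR uu.tR hj.le (by rw [← hkR]; linarith)).mono
    (C' := K0) (by linarith) R0.le (by rw [← hkR]; exact kR0.le)
  have oU := (own (H := H) (j := j) hr hρ.le uu.hU uu.tU hj.le (by rw [← hkU]; linarith)).mono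
    (C' := K0) (by linarith) U0.le (by rw [← hkU]; exact kU0.le)
  rw [← hkV] at oV
  rw [← hkR] at oR
  obtain ⟨zm1, zm2⟩ := zj_mem (z0 := z0) (H := H) (j := j) hρ.le hj.le
  have b2' : 2 * W ^ 2 ≤ K0 := big (by norm_num) (by norm_num) (by norm_num)
  have qA : V.a ≤ K0 * kU * δ := by
    calc V.a ≤ 2 * W ^ 2 * δ * kU := aVU
      _ = 2 * W ^ 2 * kU * δ := by ring
      _ ≤ K0 * kU * δ := by gcongr
  have qa : |V.q (zj z0 ρ H j) (T.pos (zj z0 ρ H j))| ≤ K0 * kU * δ :=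
    (uu.tV _ zm1 zm2).2.trans qA
  have qa' : |V.q (zj z0 ρ H j) (T'.pos (zj z0 ρ H j))| ≤ K0 * kU * δ :=
    (uu.tV' _ zm1 zm2).2.trans qA
  -- displacement
  have hg' := gb_close w10 w20 hHn hlb
  have nr0 : Nr V (W * δ) (zj z0 ρ H j) T T' := by
    constructor
    · refine hg'.1.le.trans ?_
      calc w1 / (H : ℝ) = w1 * δ := by rw [hδ]; ring
        _ ≤ W * V.w 1 * δ := mul_le_mul_of_nonneg_right dV.2.1.1 hδ0.le
        _ = W * δ * V.w 1 := by ring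
    · refine hg'.2.le.trans ?_
      calc w2 / (H : ℝ) = w2 * δ := by rw [hδ]; ring
        _ ≤ W * V.w 2 * δ := mul_le_mul_of_nonneg_right dV.2.2.1 hδ0.le
        _ = W * δ * V.w 2 := by ring
  have hh8 : W * δ ≤ 1 / 8 := by
    have := smW (c := 8) (n := 1) (by norm_num) (by norm_num) (by norm_num)
    rw [pow_one] at this
    linarith
  have hWW : W ≤ W ^ 2 := le_self_pow₀ hW (by norm_num)
  have hm200 : 4 * V.a + 69 * (W * δ) * V.w 0 ≤ 200 * W ^ 2 * δ * V.w 0 := by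
    have g1 : V.a ≤ 26 * (W ^ 2 * δ * V.w 0) := by
      calc V.a ≤ 2 * W ^ 2 * δ * kV := aVV
        _ ≤ 2 * W ^ 2 * δ * (13 * V.w 0) := by gcongr
        _ = _ := by ring
    have g2 : W * δ * V.w 0 ≤ W ^ 2 * δ * V.w 0 := by gcongr
    have g3 : 0 ≤ W ^ 2 * δ * V.w 0 := by positivity
    linarith
  have b200 : 200 * W ^ 2 ≤ K0 := big (by norm_num) (by norm_num) (by norm_num)
  have hd : ∀ i, |dt (V.e i) (T.pos (zj z0 ρ H j) - T'.pos (zj z0 ρ H j))| ≤ K0 * δ * V.w i :=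
    disp_V hr hρ.le uu.hV uu.tV uu.tV' hj.le hh8 nr0
      (hm200.trans (by gcongr)) (by gcongr)
  have s1 : s ≤ K0 * kU := kEU.trans (by gcongr)
  -- division data
  have dv := dv_mono (K' := K0) (s' := s) (Wdg296.dv_of (H := H) (j := j) uu.hR Ra hρ.le uu.tR
    (by rw [← hkR]; exact R6) uu.hV.isQ cRV hj.le) (by
      calc 10 ^ 13 * KD * (2 * s) = 2 * 10 ^ 13 * KD * s := by ring
        _ ≤ K0 * s := mul_le_mul_of_nonneg_right (hcKD.trans hcK0) hs0.le)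
  rw [← hkR] at dv
  -- slopes
  have lsw : ∀ {x w : ℝ}, 0 < w → s ≤ W * x → x ≤ 13 * w → l * s ≤ w / 64 := by
    intro x w hw h1 h2
    have h3 : 832 * W ≤ K1 := by
      have := big (c := 832) (n := 1) (by norm_num) (by norm_num) (by norm_num)
      rw [pow_one] at this
      exact this.trans K10
    have h4 : 832 * W * l ≤ 1 := by
      have : 832 * W * l ≤ K1 * l := mul_le_mul_of_nonneg_right h3 hl.le
      linarith
    have h5 : s ≤ W * (13 * w) := h1.trans (mul_le_mul_of_nonneg_left h2 hW0.le)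
    calc l * s ≤ l * (W * (13 * w)) := mul_le_mul_of_nonneg_left h5 hl.le
      _ = (832 * W * l) * (w / 64) := by ring
      _ ≤ 1 * (w / 64) := mul_le_mul_of_nonneg_right h4 (by positivity)
      _ = w / 64 := one_mul _
  have lsR := lsw R0 kER lR
  have lsU := lsw U0 kEU lU
  have aR0 := Wdg296.slopes_of_not_Nd SPR SPV hρ.le hj.le uu.hR.w0_le uu.hR.w_le uu.hV.w0_le
    uu.hV.w_le uu.tR uu.tV' nd2 lsR
  have aU0 := Wdg296.slopes_of_not_Nd SPU SPV hρ.le hj.le uu.hU.w0_le uu.hU.w_le uu.hV.w0_le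
    uu.hV.w_le uu.tU uu.tV nd1 lsU
  -- the point of `T` in the box of `R`
  have h13 : (1 : ℝ) ≤ 13 * W ^ 3 := by
    have : (1 : ℝ) ≤ W ^ 3 := one_le_pow₀ hW
    linarith
  have nb : ∀ i, |dt (R.e i) (T.pos (zj z0 ρ H j) - T'.pos (zj z0 ρ H j))| ≤ 1 / 2 * R.w i := by
    refine near_box (K := 13 * W ^ 3) (M := 3400 * W ^ 2 * δ) (Λ := 2 * s) (m := 200 * W ^ 2 * δ)
      (h := W * δ) hr hρ h13 uu.hV uu.hR uu.tV uu.tV' uu.tR hj.le hh8 nr0 hm200 ?_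
      (tVR.mono (by linarith [pow_pos hW0 3])) (by rw [← hkV]; exact V6b) hc2 (by positivity)
      ?_ ?_ ?_ ?_ ?_
    · have : W * δ ≤ W ^ 2 * δ := by gcongr
      have : 0 ≤ W ^ 2 * δ := by positivity
      linarith
    · rw [← hkV]
      have h3 : W ≤ 13 * W ^ 3 := by
        have : W ≤ W ^ 3 := le_self_pow₀ hW (by norm_num)
        have : 0 < W ^ 3 := by positivity
        linarith
      calc 2 * s ≤ 2 * (W * kV) := by linarith
        _ ≤ 2 * (13 * W ^ 3 * kV) := by gcongr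
        _ = 2 * (13 * W ^ 3) * kV := by ring
    · rw [← hkV]
      calc kV ≤ W * kR := kVR
        _ ≤ W * (13 * R.w 0) := by gcongr
        _ = 13 * W * R.w 0 := by ring
        _ ≤ 13 * W ^ 3 * R.w 0 := by
            have : W ≤ W ^ 3 := le_self_pow₀ hW (by norm_num)
            gcongr
    · rw [← hkV]
      have h3 : (V.a + V.a) / kV ≤ 4 * (W ^ 2 * δ) := by
        rw [div_le_iff₀ kV0]
        calc V.a + V.a ≤ 2 * (2 * W ^ 2 * δ * kV) := by linarith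
          _ = 4 * (W ^ 2 * δ) * kV := by ring
      have h4 : W * δ ≤ W ^ 2 * δ := by gcongr
      have h5 : 0 ≤ W ^ 2 * δ := by positivity
      linarith
    · have e : 10 ^ 5 * KD * (13 * W ^ 3) ^ 2 * (3400 * W ^ 2 * δ) =
          57460000000 * (KD * (W ^ 8 * δ)) := by ring
      rw [e]
      have h3 : KD ≤ KD ^ 2 := le_self_pow₀ KD1 (by norm_num)
      have h4 : KD * (W ^ 8 * δ) ≤ KD ^ 2 * (W ^ 8 * δ) :=
        mul_le_mul_of_nonneg_right h3 (by positivity)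
      have h5 : 10 ^ 27 * (KD ^ 2 * (W ^ 8 * δ)) ≤ 1 := by
        calc 10 ^ 27 * (KD ^ 2 * (W ^ 8 * δ)) = 10 ^ 27 * KD ^ 2 * W ^ 8 * δ := by ring
          _ ≤ 1 := hHδ'
      have h6 : 0 ≤ KD ^ 2 * (W ^ 8 * δ) := by positivity
      linarith
    · have h3 := smW (c := 124800) (n := 5) (by norm_num) (by norm_num) (by norm_num)
      calc 48 * (13 * W ^ 3) * (200 * W ^ 2 * δ) = 124800 * W ^ 5 * δ := by ring
        _ ≤ 1 := h3
  have hTR : ∀ i, |dt (R.e i) (T.pos (zj z0 ρ H j) - R.c.pos (zj z0 ρ H j))| ≤ 3 / 2 * R.w i := by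
    intro i
    have h1 := nb i
    have h2 := (uu.tR _ zm1 zm2).1 i
    have e : dt (R.e i) (T.pos (zj z0 ρ H j) - R.c.pos (zj z0 ρ H j)) =
        dt (R.e i) (T.pos (zj z0 ρ H j) - T'.pos (zj z0 ρ H j)) +
        dt (R.e i) (T'.pos (zj z0 ρ H j) - R.c.pos (zj z0 ρ H j)) := by
      simp only [dt, Pi.sub_apply]; ring
    rw [e]
    refine (abs_add_le _ _).trans ?_
    linarith
  have aG := a0_gen hr hρ.le uu.hU uu.hR uu.tU hj.le hTR nd3 lsU
  have bs : ∀ i, |sl (jS U R.q z0 ρ H j T) i| ≤ 2 * K0 := by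
    intro i
    have h1 := sl_of_tg (A := l * s) oU.s U0 aG.1 (not_Nd.1 nd3).1 (by linarith) i
    linarith
  obtain ⟨mb, ml, mm, mt⟩ := v6_move (kk := kU) K07 hρ.le uu.hV.isQ uu.hR.isQ oV oR c1 c2 lR c4 c5
    (tVR.mono b3) (tUR.mono b6) (tRU.mono b6) (tVU.mono b3) uu.tU uu.tV uu.tV' uu.tR qa qa' hd hs0
    s1 nd2 sm2 aR0.1 dv aG.1 bs hk1 hl.le hm.le hδ0.le hP
  -- final step
  have K1W : W ≤ K1 := b1.trans K10
  have l1 : ∃ i i', s ≤ K1 * |th (jS U U.q z0 ρ H j T) (jS U V.q z0 ρ H j T) i i'| := by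
    unfold Sm at sm1
    push Not at sm1
    obtain ⟨i, i', h⟩ := sm1
    refine ⟨i, i', ?_⟩
    have h1 : 1 ≤ K1 * k := by rw [K1k]; exact K01.trans K400
    calc s = 1 * s := (one_mul s).symm
      _ ≤ (K1 * k) * s := mul_le_mul_of_nonneg_right h1 hs0.le
      _ = K1 * (k * s) := by ring
      _ ≤ _ := mul_le_mul_of_nonneg_left h.le hK1p.le
  have l2 : ∃ i i', s ≤ K1 * |th (jS U R.q z0 ρ H j T) (jS U V.q z0 ρ H j T) i i'| := by
    obtain ⟨i, i', h⟩ := ml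
    refine ⟨i, i', ?_⟩
    have h1 : k * s ≤ k * (K1 * |th (jS U R.q z0 ρ H j T) (jS U V.q z0 ρ H j T) i i'|) := by
      rw [← mul_assoc, mul_comm k K1, K1k]; exact h
    exact le_of_mul_le_mul_left h1 hk
  have Sg1 : 0 ≤ (l + m + δ) * s ^ 2 := by positivity
  have Sg2 : 0 ≤ (l + δ) * s := by positivity
  refine v6_point K11 hr hρ ha hs0 hl.le hm.le hδ0.le hg.le hg1 hj.le uu.hU uu.hV uu.hR uu.tU uu.tV
    uu.tV' uu.tR (uu.aU'.trans (by gcongr)) (uu.aV.trans (by gcongr)) (uu.aR.trans (by gcongr))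
    (by rw [← hkU]; exact U6) (by rw [← hkU, ← hkV]; exact c1.trans (by gcongr))
    (by rw [← hkU]; exact s1.trans (by gcongr)) (by linarith)
    (nr_mono nr0 (by gcongr) V1.le V2.le) ((tVU.mono b3).mono K10)
    (closeC_mono hc1 (mul_le_mul_of_nonneg_right (by linarith) hs0.le))
    (closeC_mono hcuu ?_) nd1 nd3 l1 ⟨aU0.1, aU0.2.1⟩ aG
    (fun i i' => (mb i i').trans (mul_le_mul_of_nonneg_right K1ge hs0.le)) l2
    (fun i i' k k' => (mm i i' k k').trans (mul_le_mul_of_nonneg_right K1ge Sg1))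
    (fun i => (mt i).trans (mul_le_mul_of_nonneg_right K1ge Sg2)) ?_ ?_ hn i
  · calc 10 ^ 60 * KD ^ 7 * W ^ 15 * (2 * s) = K0 * s := by rw [hK0, hc0]; ring
      _ ≤ K1 * s := mul_le_mul_of_nonneg_right K10 hs0.le
  · calc a ≤ 2 * (δ * s) := has
      _ ≤ K1 * (δ * s) := mul_le_mul_of_nonneg_right (by linarith) (by positivity)
      _ = K1 * δ * s := by ring
  · rw [← hkU]
    have h2W : 2 * W ≤ K1 := by
      have := big (c := 2) (n := 1) (by norm_num) (by norm_num) (by norm_num)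
      rw [pow_one] at this
      exact this.trans K10
    calc a ≤ 2 * (δ * s) := has
      _ ≤ 2 * (δ * (W * kU)) := by gcongr
      _ = 2 * W * (δ * kU) := by ring
      _ ≤ K1 * (δ * kU) := mul_le_mul_of_nonneg_right h2W (by positivity)
      _ = K1 * δ * kU := by ring

end Crest.Agent.R136.Lv6208
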