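import Crest.Agent.R136.V6m_467
import Crest.Agent.R136.AlK_500
import Crest.Agent.R136.Chm5_862
import Crest.Agent.R136.Lnf0_208
import Crest.Agent.R136.Cuu4_57

/-!
# R136 (S0187), PLAN 2 (AL), leaf V6, wiring of `Cf` (helper467)

`Pre` : the geometric data of a pair of lines; `pre_of_cf`.
-/

set_option autoImplicit false

namespace Crest.Agent.R136.V6p467

open Crest.Agent.R136.Sh605
open Crest.Agent.R136.K4 (Plk4)
open Crest.Agent.R136.Tlt51 (Shp InP)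
open Crest.Agent.R136.Deep51 (CloseC)
open Crest.Agent.R136.KapP335 (kapP DetP)
open Crest.Agent.R136.Tl102 (angC)
open Crest.Agent.R136.Pl2W102 (Near)
open Crest.Agent.R136.Pl2 (kp)
open Crest.Agent.R136.Hcp208 (Nr)
open Crest.Agent.R136.Chm862 (Tr)
open Crest.Agent.R136.Al500 (Cf Dm Cl2 LeafV6)
open Crest.Agent.R136.Adj214 (KD KD_pos KD_one)

/-- geometric data of a pair of lines `T ∈ U ∩ V`, `T' ∈ V ∩ R` -/
structure Pre (U V R : Plk4) (T T' : Ln4) (z0 ρ r K a s : ℝ) (H : ℕ) : Prop where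
  hr : 0 < r
  hρ : 0 < ρ
  ha : 0 < a
  hs : 0 < s
  shU : Shp U z0 ρ r
  shV : Shp V z0 ρ r
  shR : Shp R z0 ρ r
  inU : InP T U z0 ρ
  inV : InP T V z0 ρ
  inV' : InP T' V z0 ρ
  inR : InP T' R z0 ρ
  aU : a ≤ K * U.a
  aV : V.a ≤ K * a
  aR : R.a ≤ K * a
  kU6 : 10 ^ 6 * U.a ≤ kapP U z0 ρ T
  kV6 : 10 ^ 6 * V.a ≤ kapP V z0 ρ T'
  kR6 : 10 ^ 6 * R.a ≤ kapP R z0 ρ T'
  c1 : kapP V z0 ρ T' ≤ K * kapP U z0 ρ T
  c2 : kapP U z0 ρ T ≤ K * kapP R z0 ρ T'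
  c3 : kapP R z0 ρ T' ≤ 13 * R.w 0
  c4 : kapP U z0 ρ T ≤ 13 * U.w 0
  c5 : kapP R z0 ρ T' ≤ K * kapP U z0 ρ T
  kVR : kapP V z0 ρ T' ≤ K * R.w 0
  sU : s ≤ K * kapP U z0 ρ T
  sV : s ≤ K * kapP V z0 ρ T'
  sR : s ≤ K * kapP R z0 ρ T'
  VR : Tr K V R
  UR : Tr K U R
  RU : Tr K R U
  VU : Tr K V U
  aHU : a * H ≤ K * kapP U z0 ρ T
  VaU : V.a * H ≤ K * kapP U z0 ρ T
  VaV : 1024 * (V.a * H) ≤ K / 2 * kapP V z0 ρ T'
  Vaw : 4 * (V.a * H) ≤ K / 2 * V.w 0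
  aHs : a * H ≤ 2 * s
  up : CloseC U.e U.w U.q U.a V.q (2 * s) T z0 ρ
  upV : CloseC V.e V.w V.q V.a R.q (2 * s) T' z0 ρ
  upR : CloseC R.e R.w R.q R.a V.q (2 * s) T' z0 ρ

variable {qm qp : Fin 3 → ℝ} {L : ℕ → Ln4} {P : Finset ℕ} {cu cv : ℕ → ℕ} {Uf Vf : ℕ → Plk4}
  {W B M a w1 w2 z0 ρ zL ρL r κ E : ℝ} {H : ℕ}

set_option maxHeartbeats 1600000 in
theorem pre_of_cf (h : Cf qm qp L P cu cv Uf Vf W B M a w1 w2 z0 ρ zL ρL r κ E H) {K : ℝ}
    (hKW : 10 ^ 7 * W ^ 6 ≤ K) (hKH : K ≤ H) {t t' : ℕ} (ht : t ∈ P) (ht' : t' ∈ P)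
    (he : cv t' = cv t) :
    Pre (Uf (cu t)) (Vf (cv t)) (Uf (cu t')) (L t) (L t') z0 ρ r K a (E * a) H := by
  have h2 := h.two.to1
  have hW1 := h.W1
  have hW0 : 0 < W := by linarith
  have hE0 : 0 < E := by have := h.E1; linarith
  have ha0 := h2.a0
  have hr := h2.r0
  have hρ := h2.ρ0
  have hs : 0 < E * a := mul_pos hE0 ha0
  have p16 : W ≤ W ^ 6 := le_self_pow₀ hW1 (by norm_num)
  have p26 : W ^ 2 ≤ W ^ 6 := pow_le_pow_right₀ hW1 (by norm_num)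
  have p36 : W ^ 3 ≤ W ^ 6 := pow_le_pow_right₀ hW1 (by norm_num)
  have p6 : 1 ≤ W ^ 6 := one_le_pow₀ hW1
  have hWK : W ≤ K := by linarith
  have hK0 : 0 < K := by linarith
  have hH0 : (0 : ℝ) < H := by linarith
  have hHE := h.HE
  have shU := h2.shU t ht
  have shV := h2.shV t ht
  have shR := h2.shU t' ht'
  have inU := h2.inU t ht
  have inV := h2.inV t ht
  have inR := h2.inU t' ht'
  have inV' : InP (L t') (Vf (cv t)) z0 ρ := by have := h2.inV t' ht'; rwa [he] at this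
  obtain ⟨⟨da, da'⟩, d1, d2⟩ := h.dmU t ht
  obtain ⟨⟨ea, ea'⟩, e1, e2⟩ := h.dmV t ht
  obtain ⟨⟨fa, fa'⟩, f1, f2⟩ := h.dmU t' ht'
  have kE : E * a ≤ W * kapP (Uf (cu t)) z0 ρ (L t) := h.kE t ht
  have kER : E * a ≤ W * kapP (Uf (cu t')) z0 ρ (L t') := h.kE t' ht'
  have kEV' : E * a ≤ W * kapP (Vf (cv t)) z0 ρ (L t') := by
    have := h.kE' t' ht'; rwa [he] at this
  have kEV : E * a ≤ W * kapP (Vf (cv t)) z0 ρ (L t) := h.kE' t ht
  have kUV : kapP (Uf (cu t)) z0 ρ (L t) ≤ W * kapP (Vf (cv t)) z0 ρ (L t) := h.kUV t ht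
  have kVU : kapP (Vf (cv t)) z0 ρ (L t) ≤ W * kapP (Uf (cu t)) z0 ρ (L t) := h.kVU t ht
  have kRV : kapP (Uf (cu t')) z0 ρ (L t') ≤ W * kapP (Vf (cv t)) z0 ρ (L t') := by
    have := h.kUV t' ht'; rwa [he] at this
  have kVR : kapP (Vf (cv t)) z0 ρ (L t') ≤ W * kapP (Uf (cu t')) z0 ρ (L t') := by
    have := h.kVU t' ht'; rwa [he] at this
  have kapU := Hcp208.kapP_le hr hρ.le shU inU
  have kapR := Hcp208.kapP_le hr hρ.le shR inR
  have kapV := Hcp208.kapP_le hr hρ.le shV inV'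
  have cmp1 := Kpc104.kapP_comp hρ hr shV inV inV'
  have cmp2 := Kpc104.kapP_comp hρ hr shV inV' inV
  have up := h.up t ht
  have up' := h.up t' ht'
  rw [he] at up'
  obtain ⟨T1, T2⟩ := Tr.of_ang hW1 hr shU shV d1 d2 e1 e2 (h.ang t ht)
  obtain ⟨T3, T4⟩ := Tr.of_ang hW1 hr shR shV f1 f2 e1 e2 (by have := h.ang t' ht'; rwa [he] at this)
  generalize hU : Uf (cu t) = U at *
  generalize hV : Vf (cv t) = V at *
  generalize hR : Uf (cu t') = R at *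
  generalize hT : L t = T at *
  generalize hT' : L t' = T' at *
  obtain ⟨kU, hkU⟩ : ∃ x, x = kapP U z0 ρ T := ⟨_, rfl⟩
  obtain ⟨kV, hkV⟩ : ∃ x, x = kapP V z0 ρ T := ⟨_, rfl⟩
  obtain ⟨kV', hkV'⟩ : ∃ x, x = kapP V z0 ρ T' := ⟨_, rfl⟩
  obtain ⟨kR, hkR⟩ : ∃ x, x = kapP R z0 ρ T' := ⟨_, rfl⟩
  rw [← hkU] at kE kUV kVU kapU
  rw [← hkR] at kER kRV kVR kapR
  rw [← hkV'] at kEV' kRV kVR kapV cmp1 cmp2
  rw [← hkV] at kEV kUV kVU cmp1 cmp2
  have haH : a * H ≤ 2 * (E * a) := by nlinarith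
  -- generic: `10^6 S.a ≤ k`
  have big : ∀ {x k : ℝ}, x ≤ W * a → E * a ≤ W * k → 10 ^ 6 * x ≤ k := by
    intro x k hx hk
    have a2 : 2 * 10 ^ 6 * W ^ 2 ≤ H := by linarith
    have a3 : W * (10 ^ 6 * x) ≤ W * k := by
      calc W * (10 ^ 6 * x) ≤ W * (10 ^ 6 * (W * a)) := by gcongr
        _ = 10 ^ 6 * W ^ 2 * a := by ring
        _ ≤ E * a := mul_le_mul_of_nonneg_right (by linarith) ha0.le
        _ ≤ _ := hk
    exact le_of_mul_le_mul_left a3 hW0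
  have pos : ∀ {k : ℝ}, E * a ≤ W * k → 0 < k := by
    intro k hk
    by_contra hc
    push Not at hc
    have := mul_nonpos_of_nonneg_of_nonpos hW0.le hc
    linarith
  have pU := pos kE
  have pV := pos kEV
  have pV' := pos kEV'
  have pR := pos kER
  have bU := big da' kE
  have bV := big ea' kEV
  have bV' := big ea' kEV'
  have bR := big fa' kER
  have hVa : 0 < V.a := hr.trans_le shV.r0_le
  have cc1 : kV' ≤ 1200000 * kV := by linarith
  have cc2 : kV ≤ 1200000 * kV' := by linarith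
  have w2k : ∀ {x : ℝ}, 0 ≤ x → W ^ 2 * x ≤ W ^ 6 * x := fun hx => mul_le_mul_of_nonneg_right p26 hx
  have w1k : ∀ {x : ℝ}, 0 ≤ x → W * x ≤ W ^ 6 * x := fun hx => mul_le_mul_of_nonneg_right p16 hx
  have Kx : ∀ {x : ℝ}, 0 ≤ x → 10 ^ 7 * (W ^ 6 * x) ≤ K * x := fun hx => by
    rw [← mul_assoc]; exact mul_le_mul_of_nonneg_right hKW hx
  have hTr : Tr (3 * W ^ 3 * W ^ 3) U R := T1.trans T4
  have hTr' : Tr (3 * W ^ 3 * W ^ 3) R U := T3.trans T2
  have e36 : 3 * W ^ 3 * W ^ 3 ≤ K := by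
    have : 3 * W ^ 3 * W ^ 3 = 3 * W ^ 6 := by ring
    rw [this]; linarith
  have hVaH : V.a * H ≤ 2 * W * (E * a) := by
    calc V.a * H ≤ (W * a) * (2 * E) := mul_le_mul ea' hHE hH0.le (by positivity)
      _ = _ := by ring
  have hVaHk : ∀ {k : ℝ}, E * a ≤ W * k → V.a * H ≤ 2 * (W ^ 2 * k) := by
    intro k hk
    calc V.a * H ≤ 2 * W * (E * a) := hVaH
      _ ≤ 2 * W * (W * k) := mul_le_mul_of_nonneg_left hk (by positivity)
      _ = _ := by ring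
  have w0U : 0 < U.w 0 := hr.trans_le (shU.r0_le.trans shU.a_le0)
  have w0V : 0 < V.w 0 := hr.trans_le (shV.r0_le.trans shV.a_le0)
  have w0R : 0 < R.w 0 := hr.trans_le (shR.r0_le.trans shR.a_le0)
  refine ⟨hr, hρ, ha0, hs, shU, shV, shR, inU, inV, inV', inR, ?_, ?_, ?_, ?_, ?_, ?_, ?_, ?_, ?_,
    ?_, ?_, ?_, ?_, ?_, ?_, ?_, ?_, ?_, ?_, ?_, ?_, ?_, ?_, haH, ?_, ?_, ?_⟩
  · exact da.trans (mul_le_mul_of_nonneg_right hWK (hr.trans_le shU.r0_le).le)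
  · exact ea'.trans (mul_le_mul_of_nonneg_right hWK ha0.le)
  · exact fa'.trans (mul_le_mul_of_nonneg_right hWK ha0.le)
  · rw [← hkU]; exact bU
  · rw [← hkV']; exact bV'
  · rw [← hkR]; exact bR
  · rw [← hkV', ← hkU]
    have := Kx pU.le
    have := w1k pU.le
    linarith
  · rw [← hkU, ← hkR]
    have x1 : kU ≤ 1200000 * (W ^ 2 * kR) := by
      calc kU ≤ W * kV := kUV
        _ ≤ W * (1200000 * (W * kR)) :=
            mul_le_mul_of_nonneg_left (cc2.trans (by linarith)) hW0.le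
        _ = _ := by ring
    have := Kx pR.le
    have := w2k pR.le
    have : 0 ≤ W ^ 6 * kR := by positivity
    linarith
  · rw [← hkR]; exact kapR
  · rw [← hkU]; exact kapU
  · rw [← hkU, ← hkR]
    have x1 : kR ≤ 1200000 * (W ^ 2 * kU) := by
      calc kR ≤ W * kV' := kRV
        _ ≤ W * (1200000 * (W * kU)) :=
            mul_le_mul_of_nonneg_left (cc1.trans (by linarith)) hW0.le
        _ = _ := by ring
    have := Kx pU.le
    have := w2k pU.le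
    have : 0 ≤ W ^ 6 * kU := by positivity
    linarith
  · rw [← hkV']
    have x1 : kV' ≤ W * (13 * R.w 0) := kVR.trans (mul_le_mul_of_nonneg_left kapR hW0.le)
    have := Kx w0R.le
    have := w1k w0R.le
    have : 0 ≤ W ^ 6 * R.w 0 := by positivity
    linarith
  · rw [← hkU]; exact kE.trans (mul_le_mul_of_nonneg_right hWK pU.le)
  · rw [← hkV']; exact kEV'.trans (mul_le_mul_of_nonneg_right hWK pV'.le)
  · rw [← hkR]; exact kER.trans (mul_le_mul_of_nonneg_right hWK pR.le)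
  · exact T4.mono (by linarith)
  · exact hTr.mono e36
  · exact hTr'.mono e36
  · exact T2.mono (by linarith)
  · rw [← hkU]
    have := Kx pU.le
    have := w1k pU.le
    have : 0 ≤ W ^ 6 * kU := by positivity
    linarith
  · rw [← hkU]
    have := hVaHk kE
    have := Kx pU.le
    have := w2k pU.le
    have : 0 ≤ W ^ 6 * kU := by positivity
    linarith
  · rw [← hkV']
    have := hVaHk kEV'
    have := Kx pV'.le
    have := w2k pV'.le
    have : 0 ≤ W ^ 6 * kV' := by positivity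
    linarith
  · have x0 := hVaHk kEV'
    have x1 : W ^ 2 * kV' ≤ W ^ 2 * (13 * V.w 0) := mul_le_mul_of_nonneg_left kapV (by positivity)
    have := Kx w0V.le
    have := w2k w0V.le
    have : 0 ≤ W ^ 6 * V.w 0 := by positivity
    linarith
  · have := up.1
    rwa [mul_assoc] at this
  · have := up'.2
    rwa [mul_assoc] at this
  · have := up'.1
    rwa [mul_assoc] at this

end Crest.Agent.R136.V6p467
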