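import Crest.Agent.R136.Lva_467

/-!
# R136 (S0187), PLAN 2 (AL), leaf V6, one pair of lines (helper467)

`v6_at` : rows of `th` at the velocity of `T'`, from `Pre`, the label and the negations.
-/

set_option autoImplicit false

namespace Crest.Agent.R136.V6p467

open Crest.Agent.R136.Sh605
open Crest.Agent.R136.K4 (Plk4)
open Crest.Agent.R136.Tlt51 (Shp InP)
open Crest.Agent.R136.Deep51 (CloseC)
open Crest.Agent.R136.KapP335 (kapP DetP)
open Crest.Agent.R136.Tl102 (StP)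
open Crest.Agent.R136.Gbx862 (zj)
open Crest.Agent.R136.Rk601 (sl th mn)
open Crest.Agent.R136.AlD601 (Nd Sm Gn jS vS not_Nd)
open Crest.Agent.R136.Hcp208 (Nr)
open Crest.Agent.R136.Chm862 (Tr Own own v6_move sl_of_tg)
open Crest.Agent.R136.Adj214 (KD KD_pos KD_one)

variable {U V R : Plk4} {T T' : Ln4} {z0 ρ r K a s l m k g w : ℝ} {H j : ℕ}

/-- numbers -/
structure Num (K l m k g w s : ℝ) (H : ℕ) : Prop where
  K7 : 10 ^ 14 * KD ≤ K
  Kk : 1 ≤ K * k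
  k0 : 0 < k
  k1 : k ≤ 1
  l0 : 0 ≤ l
  m0 : 0 ≤ m
  g0 : 0 ≤ g
  g1 : g ≤ 1
  w1 : 1 ≤ w
  wK : 2560 * w ≤ K
  H0 : (0 : ℝ) < H
  sm : ∀ n : ℕ, n ≤ 401 → K ^ n * (l + m + 1 / H) ≤ 1
  fin : 2 * 10 ^ 9 * (10 ^ 13 * KD * (K ^ 401) ^ 3) ^ 35 * (l + m + 1 / H) ≤ g ^ 2

theorem Num.K0 (n : Num K l m k g w s H) : 10 ^ 14 ≤ K := by
  have := n.K7
  have := KD_one
  linarith

theorem Num.sH (n : Num K l m k g w s H) (i : ℕ) (hi : i ≤ 401) : K ^ i * (1 / H) ≤ 1 := by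
  have h1 := n.sm i hi
  have h2 : 0 < K := by have := n.K0; linarith
  have h3 : K ^ i * (1 / H) ≤ K ^ i * (l + m + 1 / H) :=
    mul_le_mul_of_nonneg_left (by linarith [n.l0, n.m0]) (by positivity)
  linarith

theorem Num.sl (n : Num K l m k g w s H) (i : ℕ) (hi : i ≤ 401) : K ^ i * l ≤ 1 := by
  have h1 := n.sm i hi
  have h2 : 0 < K := by have := n.K0; linarith
  have h4 : (0 : ℝ) ≤ 1 / H := by have := n.H0; positivity
  have h3 : K ^ i * l ≤ K ^ i * (l + m + 1 / H) :=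
    mul_le_mul_of_nonneg_left (by linarith [n.l0, n.m0]) (by positivity)
  linarith

/-- `l s ≤ S.w 0 / 64` -/
theorem ls_le (n : Num K l m k g w s H) {c ω : ℝ} (hs : s ≤ K * c) (hc : c ≤ 13 * ω)
    (hω : 0 < ω) : l * s ≤ ω / 64 := by
  have hK := n.K0
  have hK0 : 0 < K := by linarith
  have h1 := n.sl 2 (by norm_num)
  have h2 : l * s ≤ l * (K * (13 * ω)) :=
    mul_le_mul_of_nonneg_left (hs.trans (mul_le_mul_of_nonneg_left hc hK0.le)) n.l0
  have h3 : 832 * (K * l) ≤ 1 := by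
    have : 832 * (K * l) ≤ K * (K * l) :=
      mul_le_mul_of_nonneg_right (by linarith) (mul_nonneg hK0.le n.l0)
    have e : K * (K * l) = K ^ 2 * l := by ring
    linarith
  have h4 : l * (K * (13 * ω)) = 832 * (K * l) * (ω / 64) := by ring
  have h5 : 832 * (K * l) * (ω / 64) ≤ 1 * (ω / 64) := mul_le_mul_of_nonneg_right h3 (by positivity)
  linarith

/-- the end sheet at the point of `T` -/
theorem Pre.b0 (p : Pre U V R T T' z0 ρ r K a s H) (n : Num K l m k g w s H) (hj : j < H)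
    (nr : Nr V (w * (1 / H)) (zj z0 ρ H j) T T')
    (nd : ¬ Nd U R.q z0 ρ H j T l m s) :
    U.w 0 / 32 ≤ |(jS U R.q z0 ρ H j T).a0| ∧ |(jS U R.q z0 ρ H j T).a0| ≤ 4 * U.w 0 := by
  have hK := n.K0
  have hK0 : 0 < K := by linarith
  have hH0 := n.H0
  have hi0 : (0 : ℝ) < 1 / H := by positivity
  have KDp := KD_pos
  have s4 := n.sH 4 (by norm_num)
  have s3 := n.sH 3 (by norm_num)
  have s2 := n.sH 2 (by norm_num)
  have hkV : 0 < kapP V z0 ρ T' := by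
    have h1 := p.kV6
    have h2 : 0 < V.a := p.hr.trans_le p.shV.r0_le
    linarith
  have hwU : 0 < U.w 0 := p.hr.trans_le (p.shU.r0_le.trans p.shU.a_le0)
  have hwV : 0 < V.w 0 := p.hr.trans_le (p.shV.r0_le.trans p.shV.a_le0)
  have hVa : 0 < V.a := p.hr.trans_le p.shV.r0_le
  have hKi : 0 ≤ K * (1 / H) := by positivity
  have hKK : K * (1 / H) * 10 ^ 14 ≤ K ^ 2 * (1 / H) := by
    have : K * (1 / H) * 10 ^ 14 ≤ K * (1 / H) * K := mul_le_mul_of_nonneg_left hK hKi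
    have e : K * (1 / (H : ℝ)) * K = K ^ 2 * (1 / H) := by ring
    linarith
  have box := near_box (K := K) (m := K * (1 / H)) (M := K * (1 / H)) (Λ := 2 * s) p.hr p.hρ
    (by linarith) p.shV p.shR p.inV p.inV' p.inR hj.le (by
      have : w * (1 / H) ≤ K * (1 / H) :=
        mul_le_mul_of_nonneg_right (by linarith [n.wK, n.w1]) hi0.le
      linarith) nr (by
      have h1 := p.Vaw
      have e1 : 4 * V.a = 4 * (V.a * H) * (1 / H) := by field_simp
      have h2 : 4 * (V.a * H) * (1 / H) ≤ K / 2 * V.w 0 * (1 / H) :=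
        mul_le_mul_of_nonneg_right h1 hi0.le
      have h3 : 69 * (w * (1 / H)) * V.w 0 ≤ K / 2 * V.w 0 * (1 / H) := by
        have : 69 * w ≤ K / 2 := by linarith [n.wK, n.w1]
        calc 69 * (w * (1 / H)) * V.w 0 = 69 * w * (V.w 0 * (1 / H)) := by ring
          _ ≤ K / 2 * (V.w 0 * (1 / H)) := mul_le_mul_of_nonneg_right this (by positivity)
          _ = _ := by ring
      have e2 : K * (1 / (H : ℝ)) * V.w 0 = K / 2 * V.w 0 * (1 / H) + K / 2 * V.w 0 * (1 / H) := by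
        ring
      linarith) (mul_le_mul_of_nonneg_right (by linarith [n.wK, n.w1]) hi0.le)
    p.VR p.kV6 p.upV (by linarith [p.hs]) (by linarith [p.sV]) p.kVR (by
      have h1 : 512 * ((V.a + V.a) / kapP V z0 ρ T') ≤ K / 2 * (1 / H) := by
        rw [← mul_div_assoc, div_le_iff₀ hkV]
        have h2 := p.VaV
        have e1 : 512 * (V.a + V.a) = 1024 * (V.a * H) * (1 / H) := by field_simp; ring
        rw [e1]
        calc 1024 * (V.a * H) * (1 / H) ≤ K / 2 * kapP V z0 ρ T' * (1 / H) :=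
              mul_le_mul_of_nonneg_right h2 hi0.le
          _ = _ := by ring
      have h3 : 1280 * (w * (1 / H)) ≤ K / 2 * (1 / H) := by
        calc 1280 * (w * (1 / H)) = 1280 * w * (1 / H) := by ring
          _ ≤ K / 2 * (1 / H) := mul_le_mul_of_nonneg_right (by linarith [n.wK]) hi0.le
      linarith) (by
      have h1 : 10 ^ 5 * KD ≤ K := by
        have := n.K7
        linarith
      calc 10 ^ 5 * KD * K ^ 2 * (K * (1 / H)) = 10 ^ 5 * KD * (K ^ 3 * (1 / H)) := by ring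
        _ ≤ K * (K ^ 3 * (1 / H)) := mul_le_mul_of_nonneg_right h1 (by positivity)
        _ = K ^ 4 * (1 / H) := by ring
        _ ≤ 1 := s4) (by
      calc 48 * K * (K * (1 / H)) = 48 * (K ^ 2 * (1 / H)) := by ring
        _ ≤ K * (K ^ 2 * (1 / H)) := mul_le_mul_of_nonneg_right (by linarith) (by positivity)
        _ = K ^ 3 * (1 / H) := by ring
        _ ≤ 1 := s3)
  obtain ⟨z1, z2⟩ := ratio_mem hj.le
  have hρ := p.hρ
  have zm1 : z0 ≤ zj z0 ρ H j := by rw [zj_eq]; nlinarith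
  have zm2 : zj z0 ρ H j ≤ z0 + ρ := by rw [zj_eq]; nlinarith
  refine a0_gen p.hr p.hρ.le p.shU p.shR p.inU hj.le (fun i => ?_) nd (ls_le n p.sU p.c4 hwU)
  have h1 := box i
  have h2 := (p.inR _ zm1 zm2).1 i
  have e1 : dt (R.e i) (T.pos (zj z0 ρ H j) - R.c.pos (zj z0 ρ H j)) =
      dt (R.e i) (T.pos (zj z0 ρ H j) - T'.pos (zj z0 ρ H j)) +
        dt (R.e i) (T'.pos (zj z0 ρ H j) - R.c.pos (zj z0 ρ H j)) := by
    simp only [dt, Pi.sub_apply]; ring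
  rw [e1]
  refine (abs_add_le _ _).trans ?_
  linarith

/-- displacement of the lines in the frame of `V` -/
theorem Pre.hd (p : Pre U V R T T' z0 ρ r K a s H) (n : Num K l m k g w s H) (hj : j < H)
    (nr : Nr V (w * (1 / H)) (zj z0 ρ H j) T T') (i : Fin 3) :
    |dt (V.e i) (T.pos (zj z0 ρ H j) - T'.pos (zj z0 ρ H j))| ≤ K * (1 / H) * V.w i := by
  have hK := n.K0
  have hK0 : 0 < K := by linarith
  have hH0 := n.H0
  have hi0 : (0 : ℝ) < 1 / H := by positivity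
  have s2 := n.sH 2 (by norm_num)
  have hwV : 0 < V.w 0 := p.hr.trans_le (p.shV.r0_le.trans p.shV.a_le0)
  have hKi : 0 ≤ K * (1 / H) := by positivity
  have hKK : K * (1 / H) * 10 ^ 14 ≤ K ^ 2 * (1 / H) := by
    have : K * (1 / H) * 10 ^ 14 ≤ K * (1 / H) * K := mul_le_mul_of_nonneg_left hK hKi
    have e : K * (1 / (H : ℝ)) * K = K ^ 2 * (1 / H) := by ring
    linarith
  refine disp_V p.hr p.hρ.le p.shV p.inV p.inV' hj.le ?_ nr ?_ ?_ i
  · have : w * (1 / H) ≤ K * (1 / H) :=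
      mul_le_mul_of_nonneg_right (by linarith [n.wK, n.w1]) hi0.le
    linarith
  · have h1 := p.Vaw
    have e1 : 4 * V.a = 4 * (V.a * H) * (1 / H) := by field_simp
    have h2 : 4 * (V.a * H) * (1 / H) ≤ K / 2 * V.w 0 * (1 / H) :=
      mul_le_mul_of_nonneg_right h1 hi0.le
    have h3 : 69 * (w * (1 / H)) * V.w 0 ≤ K / 2 * V.w 0 * (1 / H) := by
      have : 69 * w ≤ K / 2 := by linarith [n.wK, n.w1]
      calc 69 * (w * (1 / H)) * V.w 0 = 69 * w * (V.w 0 * (1 / H)) := by ring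
        _ ≤ K / 2 * (V.w 0 * (1 / H)) := mul_le_mul_of_nonneg_right this (by positivity)
        _ = _ := by ring
    have e2 : K * (1 / (H : ℝ)) * V.w 0 = K / 2 * V.w 0 * (1 / H) + K / 2 * V.w 0 * (1 / H) := by
      ring
    linarith
  · exact mul_le_mul_of_nonneg_right (by linarith [n.wK, n.w1]) hi0.le

/-- **862's move at the pair** -/
theorem Pre.move (p : Pre U V R T T' z0 ρ r K a s H) (n : Num K l m k g w s H) (hj : j < H)
    (nr : Nr V (w * (1 / H)) (zj z0 ρ H j) T T')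
    (nd2 : ¬ Nd U R.q z0 ρ H j T l m s) (nd : ¬ Nd R V.q z0 ρ H j T' l m s)
    (sm : ¬ Sm R V.q z0 ρ H j T' k s) :
    (∀ i i', |th (jS U R.q z0 ρ H j T) (jS U V.q z0 ρ H j T) i i'| ≤ K ^ 400 * s) ∧
    (∃ i i', k * s ≤ K ^ 400 * |th (jS U R.q z0 ρ H j T) (jS U V.q z0 ρ H j T) i i'|) ∧
    (∀ i i' j' k', |mn (th (jS U R.q z0 ρ H j T) (jS U V.q z0 ρ H j T)) i i' j' k'| ≤
      K ^ 400 * ((l + m + 1 / H) * s ^ 2)) ∧
    ∀ i, |Rk601.tg (jS U R.q z0 ρ H j T) (jS U V.q z0 ρ H j T) i| ≤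
      K ^ 400 * ((l + 1 / H) * s) := by
  have hK := n.K0
  have hK0 : 0 < K := by linarith
  have hH0 := n.H0
  have hi0 : (0 : ℝ) < 1 / H := by positivity
  have KDp := KD_pos
  have hwU : 0 < U.w 0 := p.hr.trans_le (p.shU.r0_le.trans p.shU.a_le0)
  have hwV : 0 < V.w 0 := p.hr.trans_le (p.shV.r0_le.trans p.shV.a_le0)
  have hwR : 0 < R.w 0 := p.hr.trans_le (p.shR.r0_le.trans p.shR.a_le0)
  have hUa : 0 < U.a := p.hr.trans_le p.shU.r0_le
  have hVa : 0 < V.a := p.hr.trans_le p.shV.r0_le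
  have hRa : 0 < R.a := p.hr.trans_le p.shR.r0_le
  have kU6 := p.kU6
  have kV6 := p.kV6
  have kR6 := p.kR6
  have hkU : 0 < kapP U z0 ρ T := by linarith
  have hkV : 0 < kapP V z0 ρ T' := by linarith
  have hkR : 0 < kapP R z0 ρ T' := by linarith
  have h36 : (3600000 : ℝ) ≤ K := by linarith
  have oV := (own p.hr p.hρ.le p.shV p.inV' hj.le (by linarith)).mono h36 hwV.le hkV.le
  have oR := (own p.hr p.hρ.le p.shR p.inR hj.le (by linarith)).mono h36 hwR.le hkR.le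
  have oU := own p.hr p.hρ.le p.shU p.inU hj.le (by linarith : U.a ≤ kapP U z0 ρ T)
  obtain ⟨b0, -⟩ := p.b0 n hj nr nd2
  have bs := sl_of_tg oU.s hwU b0 (fun i => (not_Nd.1 nd2).1 i)
    (by have := ls_le n p.sU p.c4 hwU; linarith)
  obtain ⟨z1, z2⟩ := ratio_mem hj.le
  have hρ := p.hρ
  have zm1 : z0 ≤ zj z0 ρ H j := by rw [zj_eq]; nlinarith
  have zm2 : zj z0 ρ H j ≤ z0 + ρ := by rw [zj_eq]; nlinarith
  have qq : V.a ≤ K * kapP U z0 ρ T * (1 / H) := by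
    have h1 := p.VaU
    rw [mul_one_div, le_div_iff₀ hH0]; exact h1
  obtain ⟨a0, -, -⟩ := Wdg296.slopes_of_not_Nd (StP.of_shN p.shR hwR) (StP.of_shN p.shV hwV)
    p.hρ.le hj.le p.shR.w0_le p.shR.w_le p.shV.w0_le p.shV.w_le p.inR p.inV' nd
    (ls_le n p.sR p.c3 hwR)
  have dv0 := Wdg296.dv_of p.shR hRa p.hρ.le p.inR kR6 p.shV.isQ p.upR hj.le
  have hdK : 10 ^ 13 * KD * (2 * s) ≤ K * s := by
    have h1 : 10 ^ 13 * KD * 2 ≤ K := by have := n.K7; linarith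
    calc 10 ^ 13 * KD * (2 * s) = 10 ^ 13 * KD * 2 * s := by ring
      _ ≤ K * s := mul_le_mul_of_nonneg_right h1 p.hs.le
  have dv : Wdg296.Dv R V.q z0 ρ H j T' K (kapP R z0 ρ T' / R.w 0) s :=
    ⟨fun i i' => (dv0.th i i').trans hdK, fun i => (dv0.gm i).trans hdK, dv0.h00.trans hdK⟩
  refine v6_move (k := k) (by linarith) p.hρ.le p.shV.isQ p.shR.isQ oV oR p.c1 p.c2 p.c3 ?_ p.c5
    p.VR p.UR p.RU p.VU p.inU p.inV p.inV' p.inR ((p.inV _ zm1 zm2).2.trans qq)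
    ((p.inV' _ zm1 zm2).2.trans qq) (p.hd n hj nr) p.hs p.sU nd sm a0 dv b0 (fun i => ?_) n.k1
    n.l0 n.m0 hi0.le ?_
  · exact p.c4.trans (mul_le_mul_of_nonneg_right (by linarith) hwU.le)
  · exact (bs i).trans (by linarith)
  · -- `K ^ 400 (l + 1 / H) ≤ k`
    have h1 := n.sm 401 le_rfl
    have h2 : K ^ 400 * (l + 1 / H) * 1 ≤ K ^ 400 * (l + m + 1 / H) * (K * k) := by
      have h3 : l + 1 / (H : ℝ) ≤ l + m + 1 / H := by linarith [n.m0]
      have h4 : 0 ≤ l + 1 / (H : ℝ) := by linarith [n.l0]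
      have h7 : 0 ≤ l + m + 1 / (H : ℝ) := by linarith
      exact mul_le_mul (mul_le_mul_of_nonneg_left h3 (by positivity)) n.Kk (by norm_num)
        (mul_nonneg (by positivity) h7)
    have h5 : K ^ 400 * (l + m + 1 / H) * (K * k) = K ^ 401 * (l + m + 1 / H) * k := by ring
    have h6 : K ^ 401 * (l + m + 1 / H) * k ≤ 1 * k := mul_le_mul_of_nonneg_right h1 n.k0.le
    linarith

set_option maxHeartbeats 1600000 in
/-- **V6 at one pair of lines** -/
theorem Pre.v6 (p : Pre U V R T T' z0 ρ r K a s H) (n : Num K l m k g w s H) (hj : j < H)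
    (nr : Nr V (w * (1 / H)) (zj z0 ρ H j) T T') (cl : CloseC U.e U.w U.q U.a R.q (K ^ 400 * s) T z0 ρ)
    (nd1 : ¬ Nd U V.q z0 ρ H j T l m s)
    (nd2 : ¬ Nd U R.q z0 ρ H j T l m s) (nd : ¬ Nd R V.q z0 ρ H j T' l m s)
    (sm1 : ¬ Sm U V.q z0 ρ H j T k s)
    (sm : ¬ Sm R V.q z0 ρ H j T' k s) (i : Fin 3) :
    |∑ j', th (jS U U.q z0 ρ H j T) (jS U V.q z0 ρ H j T) i j' * vS U ρ T' j'| ≤ g * s := by
  have hK := n.K0
  have hK0 : 0 < K := by linarith
  have hK1 : 1 ≤ K := by linarith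
  have hH0 := n.H0
  have hs := p.hs
  have hi0 : (0 : ℝ) < 1 / H := by positivity
  have hwU : 0 < U.w 0 := p.hr.trans_le (p.shU.r0_le.trans p.shU.a_le0)
  have hwV : 0 < V.w 0 := p.hr.trans_le (p.shV.r0_le.trans p.shV.a_le0)
  obtain ⟨mv1, mv2, mv3, mv4⟩ := p.move n hj nr nd2 nd sm
  have a2 := p.b0 n hj nr nd2
  obtain ⟨a1, a1', -⟩ := Wdg296.slopes_of_not_Nd (StP.of_shN p.shU hwU) (StP.of_shN p.shV hwV)
    p.hρ.le hj.le p.shU.w0_le p.shU.w_le p.shV.w0_le p.shV.w_le p.inU p.inV nd1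
    (ls_le n p.sU p.c4 hwU)
  obtain ⟨Q, hQ⟩ : ∃ Q : ℝ, Q = K ^ 401 := ⟨_, rfl⟩
  have hQK : K ≤ Q := by rw [hQ]; exact le_self_pow₀ hK1 (by norm_num)
  have hQ4 : K ^ 400 ≤ Q := by rw [hQ]; exact pow_le_pow_right₀ hK1 (by norm_num)
  have hQ1 : 1 ≤ Q := by linarith
  have hQk : K ^ 400 ≤ Q * k := by
    have : Q * k = K ^ 400 * (K * k) := by rw [hQ]; ring
    rw [this]
    exact le_mul_of_one_le_right (by positivity) n.Kk
  have hQ41 : 1 ≤ K ^ 400 := one_le_pow₀ hK1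
  have fin := n.fin
  rw [← hQ] at fin
  have hUa : 0 < U.a := p.hr.trans_le p.shU.r0_le
  have kU6 := p.kU6
  have hkU : 0 < kapP U z0 ρ T := by linarith
  have lift : ∀ {x y : ℝ}, x ≤ K * y → 0 ≤ y → x ≤ Q * y := fun hx hy =>
    hx.trans (mul_le_mul_of_nonneg_right hQK hy)
  have lift4 : ∀ {x y : ℝ}, x ≤ K ^ 400 * y → 0 ≤ y → x ≤ Q * y := fun hx hy =>
    hx.trans (mul_le_mul_of_nonneg_right hQ4 hy)
  have ent : ∀ {x : ℝ}, k * s ≤ K ^ 400 * |x| → s ≤ Q * |x| := by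
    intro x hx
    have h1 : k * s ≤ k * (Q * |x|) := by
      calc k * s ≤ K ^ 400 * |x| := hx
        _ ≤ Q * k * |x| := mul_le_mul_of_nonneg_right hQk (abs_nonneg _)
        _ = _ := by ring
    exact le_of_mul_le_mul_left h1 n.k0
  have hl0 := n.l0
  have hm0 := n.m0
  refine v6_point (K := Q) (δ := 1 / H) (m := m) (l := l) hQ1 p.hr p.hρ p.ha hs n.l0 n.m0 hi0.le
    n.g0 n.g1 hj.le p.shU p.shV p.shR p.inU p.inV p.inV' p.inR (lift p.aU hUa.le)
    (lift p.aV p.ha.le) (lift p.aR p.ha.le) kU6 (lift p.c1 hkU.le) (lift p.sU hkU.le) ?_ ?_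
    (p.VU.mono hQK) ?_ ?_ nd1 nd2 ?_ ⟨a1, a1'⟩ a2 (fun i i' => lift4 (mv1 i i') hs.le) ?_
    (fun i i' j' k' => lift4 (mv3 i i' j' k') (by positivity))
    (fun i => lift4 (mv4 i) (by positivity)) ?_ ?_ fin i
  · -- `Q (1 / H) ≤ 1 / 8`
    have h1 := fin.trans (pow_le_one₀ n.g0 n.g1)
    have KDp := KD_one
    have h2 : 8 * (Q * (1 / H)) ≤ 2 * 10 ^ 9 * (10 ^ 13 * KD * Q ^ 3) ^ 35 * (l + m + 1 / H) := by
      have h3 : Q ≤ 10 ^ 13 * KD * Q ^ 3 := by
        have : Q ≤ Q ^ 3 := le_self_pow₀ hQ1 (by norm_num)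
        have h4 : 1 ≤ 10 ^ 13 * KD := by linarith
        have h5 : 0 ≤ Q ^ 3 := by positivity
        nlinarith
      have h6 : 10 ^ 13 * KD * Q ^ 3 ≤ (10 ^ 13 * KD * Q ^ 3) ^ 35 :=
        le_self_pow₀ (by linarith) (by norm_num)
      have h7 : (1 / (H : ℝ)) ≤ l + m + 1 / H := by linarith
      have h8 : Q * (1 / H) ≤ (10 ^ 13 * KD * Q ^ 3) ^ 35 * (l + m + 1 / H) :=
        mul_le_mul (h3.trans h6) h7 hi0.le (by positivity)
      have h9 : 0 ≤ Q * (1 / H) := by positivity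
      linarith
    linarith
  · -- labels
    have h1 : w * (1 / H) ≤ Q * (1 / H) :=
      mul_le_mul_of_nonneg_right (by linarith [n.wK, n.w1]) hi0.le
    have hw1 : 0 < V.w 1 := p.VR.pos 1
    have hw2 : 0 < V.w 2 := p.VR.pos 2
    exact ⟨nr.1.trans (mul_le_mul_of_nonneg_right h1 hw1.le),
      nr.2.trans (mul_le_mul_of_nonneg_right h1 hw2.le)⟩
  · intro z hz1 hz2 x hx1 hx2
    refine (p.up z hz1 hz2 x hx1 hx2).trans ?_
    exact mul_le_mul_of_nonneg_right (by linarith) hs.le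
  · intro z hz1 hz2 x hx1 hx2
    refine (cl z hz1 hz2 x hx1 hx2).trans ?_
    exact mul_le_mul_of_nonneg_right hQ4 hs.le
  · unfold Sm at sm1
    push Not at sm1
    obtain ⟨i, i', h⟩ := sm1
    refine ⟨i, i', ent (h.le.trans ?_)⟩
    exact le_mul_of_one_le_left (abs_nonneg _) hQ41
  · obtain ⟨i, i', h⟩ := mv2
    exact ⟨i, i', ent h⟩
  · -- `a ≤ Q (1 / H) s`
    have h1 := p.aHs
    have h2 : a ≤ 2 * s * (1 / H) := by
      rw [mul_one_div, le_div_iff₀ hH0]; exact h1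
    refine h2.trans ?_
    calc 2 * s * (1 / H) = 2 * (1 / H * s) := by ring
      _ ≤ Q * (1 / H * s) := mul_le_mul_of_nonneg_right (by linarith) (by positivity)
      _ = _ := by ring
  · have h1 := p.aHU
    have h2 : a ≤ K * kapP U z0 ρ T * (1 / H) := by
      rw [mul_one_div, le_div_iff₀ hH0]; exact h1
    refine h2.trans ?_
    calc K * kapP U z0 ρ T * (1 / H) = K * (1 / H * kapP U z0 ρ T) := by ring
      _ ≤ Q * (1 / H * kapP U z0 ρ T) := mul_le_mul_of_nonneg_right hQK (by positivity)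
      _ = _ := by ring

end Crest.Agent.R136.V6p467
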