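import Crest.Agent.R136.Lvb_467
import Crest.Agent.R136.LWd_467

/-!
# R136 (S0187), PLAN 2 (AL), leaf of record `LeafV6` (helper467)

`leafV6 : Al500.LeafV6`: exponents over `Pre.v6`.
-/

set_option autoImplicit false

namespace Crest.Agent.R136.V6p467

open Crest.Agent.R136.Sh605
open Crest.Agent.R136.K4 (Plk4)
open Crest.Agent.R136.Deep51 (CloseC)
open Crest.Agent.R136.KapP335 (kapP)
open Crest.Agent.R136.Hcp208 (Nr)
open Crest.Agent.R136.AlD601 (Nd Sm Gn not_Gn)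
open Crest.Agent.R136.Al500 (Cf LeafV6)
open Crest.Agent.R136.Adj214 (KD KD_pos KD_one)

/-- the main power -/
theorem pow_main {K0 x C S g : ℝ} {N : ℕ} (hK0 : 1 ≤ K0) (hx : 1 ≤ x) (hS : 0 ≤ S) (hg : 0 < g)
    (hg1 : g ≤ 1) (hC1 : K0 ^ N ≤ C) (hC2 : ((6 * N : ℕ) : ℝ) ≤ C) (hC3 : 2 ≤ C)
    (hn : (C * x) ^ C * S ≤ g ^ C) : (K0 * x ^ 6) ^ N * S ≤ g ^ 2 := by
  have hx0 : 0 < x := by linarith
  have h1 := Gen467.pow_le_rpow (C := C) (x := x) (by linarith) hx (6 * N) hC2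
  have h2 : (K0 * x ^ 6) ^ N = K0 ^ N * x ^ (6 * N) := by rw [mul_pow, ← pow_mul]
  have h3 : (K0 * x ^ 6) ^ N ≤ (C * x) ^ C := by
    rw [h2]
    exact (mul_le_mul_of_nonneg_right hC1 (by positivity)).trans h1
  have h4 : g ^ C ≤ g ^ 2 := by
    rw [← Real.rpow_natCast g 2]
    exact Real.rpow_le_rpow_of_exponent_ge hg hg1 (by push_cast; exact hC3)
  exact (mul_le_mul_of_nonneg_right h3 hS).trans (hn.trans h4)

/-- the number condition of `v6_point` -/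
theorem fin_pow {K S : ℝ} (hK : 10 ^ 14 * KD ≤ K) (hS : 0 ≤ S) :
    2 * 10 ^ 9 * (10 ^ 13 * KD * (K ^ 401) ^ 3) ^ 35 * S ≤ K ^ 42142 * S := by
  have KD1 := KD_one
  have hK14 : 10 ^ 14 ≤ K := by linarith
  have hK0 : 0 < K := by linarith
  have hK1 : 1 ≤ K := by linarith
  refine mul_le_mul_of_nonneg_right ?_ hS
  have e1 : (K ^ 401) ^ 3 = K ^ 1203 := by rw [← pow_mul]
  have h1 : 10 ^ 13 * KD * K ^ 1203 ≤ K ^ 1204 := by
    rw [pow_succ K 1203, mul_comm (K ^ 1203) K]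
    exact mul_le_mul_of_nonneg_right (by linarith) (by positivity)
  have h2 : (10 ^ 13 * KD * K ^ 1203) ^ 35 ≤ (K ^ 1204) ^ 35 :=
    pow_le_pow_left₀ (by positivity) h1 35
  have e2 : (K ^ 1204) ^ 35 = K ^ 42140 := by rw [← pow_mul]
  have h3 : (2 : ℝ) * 10 ^ 9 ≤ K ^ 2 := by
    have : K ≤ K ^ 2 := le_self_pow₀ hK1 (by norm_num)
    linarith
  rw [e1]
  calc 2 * 10 ^ 9 * (10 ^ 13 * KD * K ^ 1203) ^ 35 ≤ K ^ 2 * K ^ 42140 := by
        rw [← e2]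
        exact mul_le_mul h3 h2 (by positivity) (by positivity)
    _ = K ^ 42142 := by rw [← pow_add]

/-- **`LeafV6`** -/
theorem leafV6 : LeafV6 := by
  obtain ⟨N, hN⟩ : ∃ N : ℕ, N = 42142 := ⟨_, rfl⟩
  obtain ⟨K0, hK0⟩ : ∃ K0 : ℝ, K0 = 10 ^ 14 * KD := ⟨_, rfl⟩
  have KDp := KD_pos
  have KD1 := KD_one
  have hK14 : 10 ^ 14 ≤ K0 := by rw [hK0]; linarith
  have hK01 : 1 ≤ K0 := by linarith
  have hKN : K0 ≤ K0 ^ N := le_self_pow₀ hK01 (by omega)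
  obtain ⟨C, hC⟩ : ∃ C : ℝ, C = K0 ^ N + ((6 * N : ℕ) : ℝ) := ⟨_, rfl⟩
  have hN0 : (0 : ℝ) ≤ ((6 * N : ℕ) : ℝ) := by positivity
  have hCN : K0 ^ N ≤ C := by rw [hC]; linarith
  have hCN2 : ((6 * N : ℕ) : ℝ) ≤ C := by
    rw [hC]
    have : 0 ≤ K0 ^ N := by positivity
    linarith
  have hC14 : 10 ^ 14 ≤ C := by linarith
  refine ⟨C, by linarith, ?_⟩
  intro qm qp L P cu cv Uf Vf W B M a w1 w2 z0 ρ zL ρL r κ E H h hκ _ l m k g hl hm hk hk1 hg hg1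
    hn t ht t' ht' j hj he hlab nd1 nd nd2 sm1 sm
  have h2 := h.two.to1
  have hW1 := h.W1
  have hB1 : 1 ≤ B := hW1.trans h.WB
  have hH0 : (0 : ℝ) < H := by have := h.E1; have := h.EH; linarith
  have hH1 : 0 < H := by exact_mod_cast hH0
  obtain ⟨x, hx⟩ : ∃ x : ℝ, x = B / k := ⟨_, rfl⟩
  have hxk : x * k = B := by rw [hx]; field_simp
  have hx1 : 1 ≤ x := by rw [hx, le_div_iff₀ hk]; linarith
  have hBx : B ≤ x := by rw [hx, le_div_iff₀ hk]; nlinarith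
  have hWx : W ≤ x := h.WB.trans hBx
  have hx0 : 0 < x := by linarith
  have hS0 : 0 ≤ l + m + 1 / (H : ℝ) := by positivity
  obtain ⟨K, hK⟩ : ∃ K : ℝ, K = K0 * x ^ 6 := ⟨_, rfl⟩
  have e1 : C * B / k = C * x := by rw [hx]; ring
  rw [e1] at hn
  have main := pow_main hK01 hx1 hS0 hg hg1 hCN hCN2 (by linarith) hn
  rw [← hK] at main
  have hx6 : x ≤ x ^ 6 := le_self_pow₀ hx1 (by norm_num)
  have hx61 : 1 ≤ x ^ 6 := one_le_pow₀ hx1
  have hK0K : K0 ≤ K := by rw [hK]; exact le_mul_of_one_le_right (by linarith) hx61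
  have hK1 : 1 ≤ K := by linarith
  have hKpos : 0 < K := by linarith
  have hKx : 10 ^ 14 * x ^ 6 ≤ K := by
    rw [hK]; exact mul_le_mul_of_nonneg_right hK14 (by positivity)
  have hW6 : W ^ 6 ≤ x ^ 6 := pow_le_pow_left₀ (by linarith) hWx 6
  have hK7 : 10 ^ 14 * KD ≤ K := by rw [← hK0]; exact hK0K
  have small : ∀ n : ℕ, n ≤ 401 → K ^ n * (l + m + 1 / (H : ℝ)) ≤ 1 := by
    intro n hn'
    have h3 : K ^ n ≤ K ^ N := pow_le_pow_right₀ hK1 (by omega)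
    have h4 := mul_le_mul_of_nonneg_right h3 hS0
    have h5 : g ^ 2 ≤ 1 := pow_le_one₀ hg.le hg1
    linarith
  have smH : ∀ n : ℕ, n ≤ 401 → K ^ n ≤ H := by
    intro n hn'
    have h3 := small n hn'
    have h4 : K ^ n * (1 / (H : ℝ)) ≤ K ^ n * (l + m + 1 / (H : ℝ)) :=
      mul_le_mul_of_nonneg_left (by linarith) (by positivity)
    have h5 : K ^ n * (1 / (H : ℝ)) ≤ 1 := h4.trans h3
    rw [mul_one_div, div_le_one hH0] at h5
    exact h5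
  have hfin : 2 * 10 ^ 9 * (10 ^ 13 * KD * (K ^ 401) ^ 3) ^ 35 * (l + m + 1 / (H : ℝ)) ≤ g ^ 2 := by
    have := fin_pow hK7 hS0
    rw [← hN] at this
    exact this.trans main
  have num : Num K l m k g W (E * a) H := by
    refine ⟨hK7, ?_, hk, hk1, hl.le, hm.le, hg.le, hg1, hW1, ?_, hH0, small, hfin⟩
    · -- `1 ≤ K k`
      have h3 : x * k ≤ K * k := mul_le_mul_of_nonneg_right (by linarith) hk.le
      linarith
    · linarith
  have hKH : K ≤ H := by have := smH 1 (by norm_num); rwa [pow_one] at this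
  have pre := pre_of_cf h (K := K) (by linarith) hKH ht ht' he
  -- labels
  have nr : Nr (Vf (cv t)) (W * (1 / H)) (Gbx862.zj z0 ρ H j) (L t) (L t') := by
    have h3 := Gen467.lbl_nr (Sf := Vf) (L := L) (z0 := z0) (ρ := ρ) (W := W) (j := j) h2.w10
      h2.w20 hH1 (h.dmV t ht).2.1.1 (h.dmV t ht).2.2.1 hlab.symm
    have e3 : W / (H : ℝ) = W * (1 / H) := by ring
    rw [e3] at h3
    exact h3
  -- closeness of the two end sheets
  have hκ4 : 10 ^ 4 * κ ≤ 1 := by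
    have hWC : 1 ≤ W ^ C := Real.one_le_rpow hW1 (by linarith)
    have hκ0 := h.κ0
    have h3 : C * 1 * κ ≤ C * W ^ C * κ :=
      mul_le_mul_of_nonneg_right (mul_le_mul_of_nonneg_left hWC (by linarith)) hκ0.le
    have h4 : 10 ^ 4 * κ ≤ C * κ := mul_le_mul_of_nonneg_right (by linarith) hκ0.le
    linarith
  have hK2 : 10 ^ 27 * KD ^ 2 * W ^ 8 ≤ (H : ℝ) := by
    have h3 := smH 2 (by norm_num)
    have h4 : W ^ 8 ≤ x ^ 12 :=
      (pow_le_pow_left₀ (by linarith) hWx 8).trans (pow_le_pow_right₀ hx1 (by norm_num))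
    have e2 : K ^ 2 = 10 ^ 28 * (KD ^ 2 * x ^ 12) := by rw [hK, hK0]; ring
    have h5 : KD ^ 2 * W ^ 8 ≤ KD ^ 2 * x ^ 12 := mul_le_mul_of_nonneg_left h4 (by positivity)
    have h6 : 0 ≤ KD ^ 2 * x ^ 12 := by positivity
    rw [e2] at h3
    linarith
  have uu := Lnf208.uu_of_cf h hκ4 hK2 ht ht' he
  have cl0 := Cuu57.close_uu uu
  have hs : 0 < E * a := pre.hs
  have cl : CloseC (Uf (cu t)).e (Uf (cu t)).w (Uf (cu t)).q (Uf (cu t)).a (Uf (cu t')).q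
      (K ^ 400 * (E * a)) (L t) z0 ρ := by
    intro z hz1 hz2 y hy1 hy2
    refine (cl0 z hz1 hz2 y hy1 hy2).trans ?_
    have h4 : W ^ 15 ≤ x ^ 42 :=
      (pow_le_pow_left₀ (by linarith) hWx 15).trans (pow_le_pow_right₀ hx1 (by norm_num))
    have e2 : K ^ 7 = 10 ^ 98 * (KD ^ 7 * x ^ 42) := by rw [hK, hK0]; ring
    have h5 : KD ^ 7 * W ^ 15 ≤ KD ^ 7 * x ^ 42 := mul_le_mul_of_nonneg_left h4 (by positivity)
    have h6 : 0 ≤ KD ^ 7 * x ^ 42 := by positivity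
    have h7 : 10 ^ 60 * KD ^ 7 * W ^ 15 * 2 ≤ K ^ 7 := by rw [e2]; linarith
    have h8 : K ^ 7 ≤ K ^ 400 := pow_le_pow_right₀ hK1 (by norm_num)
    calc 10 ^ 60 * KD ^ 7 * W ^ 15 * (2 * E * a) = 10 ^ 60 * KD ^ 7 * W ^ 15 * 2 * (E * a) := by ring
      _ ≤ K ^ 400 * (E * a) := mul_le_mul_of_nonneg_right (h7.trans h8) hs.le
  rw [he] at nd sm
  rw [not_Gn]
  exact ⟨sm1, fun i => pre.v6 num hj nr cl nd1 nd2 nd sm1 sm i⟩

end Crest.Agent.R136.V6p467
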