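import Crest.Agent.R136.AlK_500
import Crest.Agent.R136.V6m_467
import Crest.Agent.R136.Chm5_862
import Crest.Agent.R136.Cuu4_57
import Crest.Agent.R136.Lnf0_208
import Crest.Agent.R136.Kpc_104

/-!
# R136 (S0187), PLAN 2, (AL): the last leaf `LeafV6` (helper18)

862's `v6_move` and 467's `v6_point` over the configuration `Cf`.
-/

set_option autoImplicit false
set_option linter.unusedVariables false

open Finset

namespace Crest.Agent.R136.Lw618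

open Crest.Agent.R136.Sh605
open Crest.Agent.R136.Rk601
open Crest.Agent.R136.AlD601
open Crest.Agent.R136.Chm862
open Crest.Agent.R136.K4 (Plk4)
open Crest.Agent.R136.Tlt51 (Shp InP)
open Crest.Agent.R136.Deep51 (CloseC)
open Crest.Agent.R136.KapP335 (kapP)
open Crest.Agent.R136.Tl102 (angC StP)
open Crest.Agent.R136.Pl2W102 (Near)
open Crest.Agent.R136.Pl2 (kp)
open Crest.Agent.R136.Al500 (Cf Dm LeafV6)
open Crest.Agent.R136.Alw500 (lbl)
open Crest.Agent.R136.Cuu57 (Uu close_uu)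
open Crest.Agent.R136.Hcp208 (Nr kapP_le)
open Crest.Agent.R136.Gbx862 (zj)
open Crest.Agent.R136.V6p467 (disp_V near_box a0_gen v6_point)
open Crest.Agent.R136.Adj214 (KD KD_pos KD_one)

theorem big {K W c : ℝ} {n p : ℕ} (hW : 1 ≤ W) (hK : 10 ^ 70 * KD ^ 7 * W ^ 20 ≤ K)
    (hc0 : 0 ≤ c) (hc : c ≤ 10 ^ 70) (hp : p ≤ 7) (hn : n ≤ 20) : c * KD ^ p * W ^ n ≤ K := by
  refine le_trans ?_ hK
  have h1 : KD ^ p ≤ KD ^ 7 := pow_le_pow_right₀ KD_one hp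
  have h2 : W ^ n ≤ W ^ 20 := pow_le_pow_right₀ hW hn
  have h3 := KD_pos
  have h4 : 0 < W := by linarith
  calc c * KD ^ p * W ^ n ≤ 10 ^ 70 * KD ^ 7 * W ^ n := by gcongr
    _ ≤ _ := by gcongr

section

variable {U V R : Plk4} {T T' : Ln4} {z0 ρ r W a w1 w2 E κ l m k g K : ℝ} {H j : ℕ}

set_option maxHeartbeats 2000000 in
/-- **one pair** -/
theorem core (u : Uu U V R T T' z0 ρ r W a (2 * E * a) κ) (E1 : 1 ≤ E) (HE : (H : ℝ) ≤ 2 * E)
    (dU : Dm W a w1 w2 U) (dV : Dm W a w1 w2 V) (dR : Dm W a w1 w2 R)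
    (aUV : angC U V * w1 ≤ W * w2) (aRV : angC R V * w1 ≤ W * w2)
    (upR : CloseC R.e R.w R.q R.a V.q (2 * E * a) T' z0 ρ)
    (kE : E * a ≤ W * kapP U z0 ρ T) (kEV : E * a ≤ W * kapP V z0 ρ T)
    (kE' : E * a ≤ W * kapP V z0 ρ T') (kER : E * a ≤ W * kapP R z0 ρ T')
    (kVU : kapP V z0 ρ T ≤ W * kapP U z0 ρ T) (kRV : kapP R z0 ρ T' ≤ W * kapP V z0 ρ T')
    (kVR : kapP V z0 ρ T' ≤ W * kapP R z0 ρ T') (hj : j < H)
    (nr : Nr V (W / H) (zj z0 ρ H j) T T')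
    (nd1 : ¬ Nd U V.q z0 ρ H j T l m (E * a)) (nd2 : ¬ Nd R V.q z0 ρ H j T' l m (E * a))
    (nd3 : ¬ Nd U R.q z0 ρ H j T l m (E * a)) (sm1 : ¬ Sm U V.q z0 ρ H j T k (E * a))
    (sm2 : ¬ Sm R V.q z0 ρ H j T' k (E * a)) (l0 : 0 < l) (m0 : 0 < m) (k0 : 0 < k) (k1 : k ≤ 1)
    (g0 : 0 < g) (g1 : g ≤ 1) (hK : 10 ^ 70 * KD ^ 7 * W ^ 20 ≤ K) (hH : K ^ 10 ≤ (H : ℝ))
    (hP : K ^ 400 * (l + 1 / H) ≤ k) (h8 : K ^ 401 / k * (1 / H) ≤ 1 / 8)
    (hn : 2 * 10 ^ 9 * (10 ^ 13 * KD * (K ^ 401 / k) ^ 3) ^ 35 * (l + m + 1 / H) ≤ g ^ 2)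
    (i : Fin 3) :
    |∑ j', th (jS U U.q z0 ρ H j T) (jS U V.q z0 ρ H j T) i j' * vS U ρ T' j'| ≤
      g * (E * a) := by
  have KDp := KD_pos
  have KD1 := KD_one
  have hW := u.W1
  have hW0 : 0 < W := by linarith
  have ha := u.a0
  have hr := u.r0
  have hρ := u.ρ0
  have hE0 : 0 < E := by linarith
  obtain ⟨s, hs⟩ : ∃ s, s = E * a := ⟨_, rfl⟩
  have hs0 : 0 < s := by rw [hs]; positivity
  have e2 : 2 * E * a = 2 * s := by rw [hs]; ring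
  rw [← hs] at kE kEV kE' kER nd1 nd2 nd3 sm1 sm2 ⊢
  rw [e2] at upR
  have hjH : j ≤ H := hj.le
  -- `K`
  have b1 : ∀ {c : ℝ}, 0 ≤ c → c ≤ 10 ^ 70 → c * W ^ 2 ≤ K := fun {c} h1 h2 => by
    have := big (n := 2) (p := 0) hW hK h1 h2 (by norm_num) (by norm_num)
    rwa [pow_zero, mul_one] at this
  have W2 : W ≤ W ^ 2 := le_self_pow₀ hW (by norm_num)
  have W21 : 1 ≤ W ^ 2 := one_le_pow₀ hW
  have bW : ∀ {c : ℝ}, 0 ≤ c → c ≤ 10 ^ 70 → c * W ≤ K := fun {c} h1 h2 =>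
    (mul_le_mul_of_nonneg_left W2 h1).trans (b1 h1 h2)
  have bc : ∀ {c : ℝ}, 0 ≤ c → c ≤ 10 ^ 70 → c ≤ K := fun {c} h1 h2 =>
    (le_mul_of_one_le_right h1 W21).trans (b1 h1 h2)
  have K7 : 10 ^ 7 ≤ K := bc (by norm_num) (by norm_num)
  have K1 : 1 ≤ K := by linarith
  have K0 : 0 < K := by linarith
  have WK : W ≤ K := by have := bW (c := 1) (by norm_num) (by norm_num); linarith
  have bKD : 2 * 10 ^ 13 * KD ≤ K := by
    have := big (c := 2 * 10 ^ 13) (n := 0) (p := 1) hW hK (by norm_num) (by norm_num) (by norm_num)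
      (by norm_num)
    simpa using this
  have bCl : 2 * 10 ^ 60 * KD ^ 7 * W ^ 15 ≤ K :=
    big (c := 2 * 10 ^ 60) (n := 15) (p := 7) hW hK (by norm_num) (by norm_num) (by norm_num)
      (by norm_num)
  have bTr : 3 * W ^ 3 * W ^ 3 ≤ K := by
    have := big (c := 3) (n := 6) (p := 0) hW hK (by norm_num) (by norm_num) (by norm_num)
      (by norm_num)
    rw [pow_zero, mul_one] at this
    calc 3 * W ^ 3 * W ^ 3 = 3 * W ^ 6 := by ring
      _ ≤ K := this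
  have bTr3 : W ^ 3 ≤ K := by
    have := big (c := 1) (n := 3) (p := 0) hW hK (by norm_num) (by norm_num) (by norm_num)
      (by norm_num)
    simpa using this
  -- `δ`
  have Hp : (0 : ℝ) < H := lt_of_lt_of_le (by positivity) hH
  obtain ⟨δ, hδ⟩ : ∃ δ : ℝ, δ = 1 / H := ⟨_, rfl⟩
  have δ0 : 0 < δ := by rw [hδ]; positivity
  rw [← hδ] at hP h8 hn
  have hWH : W / H = W * δ := by rw [hδ]; ring
  rw [hWH] at nr
  have Kδ : K ^ 10 * δ ≤ 1 := by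
    rw [hδ, mul_one_div, div_le_one Hp]; exact hH
  have pw : ∀ {p : ℕ}, p ≤ 10 → K ^ p * δ ≤ 1 := fun {p} hp =>
    (mul_le_mul_of_nonneg_right (pow_le_pow_right₀ K1 hp) δ0.le).trans Kδ
  have Kδ1 : K * δ ≤ 1 := by have := pw (p := 1) (by norm_num); rwa [pow_one] at this
  have Kδ2 : K ^ 2 * δ ≤ 1 := pw (by norm_num)
  have Kδ4 : K ^ 4 * δ ≤ 1 := pw (by norm_num)
  have ha2 : a ≤ 2 * δ * s := by
    have h1 : (H : ℝ) * a ≤ 2 * s := by
      rw [hs]; nlinarith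
    calc a = δ * ((H : ℝ) * a) := by rw [hδ]; field_simp
      _ ≤ δ * (2 * s) := mul_le_mul_of_nonneg_left h1 δ0.le
      _ = _ := by ring
  -- thickness against curvature
  have thin : ∀ {x kx : ℝ}, x ≤ W * a → s ≤ W * kx → x ≤ 2 * W ^ 2 * δ * kx := by
    intro x kx h1 h2
    calc x ≤ W * a := h1
      _ ≤ W * (2 * δ * s) := by gcongr
      _ ≤ W * (2 * δ * (W * kx)) := by gcongr
      _ = _ := by ring
  have kp0 : ∀ {kx : ℝ}, s ≤ W * kx → 0 < kx := by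
    intro kx h
    by_contra hc
    have := mul_nonpos_of_nonneg_of_nonpos hW0.le (not_lt.1 hc)
    linarith
  have pU := kp0 kE
  have pV := kp0 kEV
  have pV' := kp0 kE'
  have pR := kp0 kER
  have d6 : 2 * 10 ^ 6 * W ^ 2 * δ ≤ 1 := by
    calc 2 * 10 ^ 6 * W ^ 2 * δ ≤ K * δ :=
          mul_le_mul_of_nonneg_right (b1 (by norm_num) (by norm_num)) δ0.le
      _ ≤ 1 := Kδ1
  have thin6 : ∀ {x kx : ℝ}, x ≤ W * a → s ≤ W * kx → 10 ^ 6 * x ≤ kx := by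
    intro x kx h1 h2
    have h3 := thin h1 h2
    have h4 := kp0 h2
    calc 10 ^ 6 * x ≤ 10 ^ 6 * (2 * W ^ 2 * δ * kx) := by gcongr
      _ = (2 * 10 ^ 6 * W ^ 2 * δ) * kx := by ring
      _ ≤ 1 * kx := mul_le_mul_of_nonneg_right d6 h4.le
      _ = kx := one_mul _
  have tU6 : 10 ^ 6 * U.a ≤ kapP U z0 ρ T := thin6 u.aU kE
  have tV6 : 10 ^ 6 * V.a ≤ kapP V z0 ρ T := thin6 u.aV kEV
  have tV6' : 10 ^ 6 * V.a ≤ kapP V z0 ρ T' := thin6 u.aV kE'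
  have tR6 : 10 ^ 6 * R.a ≤ kapP R z0 ρ T' := thin6 u.aR kER
  obtain ⟨ua, uw0, uw1, uw2, uw, -⟩ := Cuu57.wpos hr u.hU
  obtain ⟨va, vw0, vw1, vw2, vw, -⟩ := Cuu57.wpos hr u.hV
  obtain ⟨ra, rw0, rw1, rw2, rw', -⟩ := Cuu57.wpos hr u.hR
  have kU13 : kapP U z0 ρ T ≤ 13 * U.w 0 := kapP_le hr hρ.le u.hU u.tU
  have kV13 : kapP V z0 ρ T' ≤ 13 * V.w 0 := kapP_le hr hρ.le u.hV u.tV'
  have kR13 : kapP R z0 ρ T' ≤ 13 * R.w 0 := kapP_le hr hρ.le u.hR u.tR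
  have kVT : kapP V z0 ρ T' ≤ 1200000 * W * kapP U z0 ρ T := by
    have h1 := Kpc104.kapP_comp hρ hr u.hV u.tV u.tV'
    calc kapP V z0 ρ T' ≤ 600000 * (V.a + kapP V z0 ρ T) := h1
      _ ≤ 1200000 * kapP V z0 ρ T := by linarith
      _ ≤ 1200000 * (W * kapP U z0 ρ T) := by linarith
      _ = _ := by ring
  have kVU0 : kapP V z0 ρ T' ≤ K * U.w 0 := by
    calc kapP V z0 ρ T' ≤ 1200000 * W * kapP U z0 ρ T := kVT
      _ ≤ 1200000 * W * (13 * U.w 0) := by gcongr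
      _ = 15600000 * W * U.w 0 := by ring
      _ ≤ K * U.w 0 := mul_le_mul_of_nonneg_right (bW (by norm_num) (by norm_num)) uw0.le
  -- transitions
  obtain ⟨tUV, tVU⟩ := Tr.of_ang hW hr u.hU u.hV dU.2.1 dU.2.2 dV.2.1 dV.2.2 aUV
  obtain ⟨tRV, tVR⟩ := Tr.of_ang hW hr u.hR u.hV dR.2.1 dR.2.2 dV.2.1 dV.2.2 aRV
  have TUR : Tr K U R := (tUV.trans tVR).mono bTr
  have TRU : Tr K R U := (tRV.trans tVU).mono bTr
  have TVR : Tr K V R := tVR.mono bTr3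
  have TVU : Tr K V U := tVU.mono bTr3
  -- own jets
  have oV := (own (H := H) (j := j) hr hρ.le u.hV u.tV' hjH (by linarith)).mono
    (bc (c := 3600000) (by norm_num) (by norm_num)) vw0.le pV'.le
  have oR := (own (H := H) (j := j) hr hρ.le u.hR u.tR hjH (by linarith)).mono
    (bc (c := 3600000) (by norm_num) (by norm_num)) rw0.le pR.le
  have oU := own (H := H) (j := j) hr hρ.le u.hU u.tU hjH (by linarith)
  -- heights
  obtain ⟨zm1, zm2⟩ := Gbx862.zj_mem hρ.le hjH (z0 := z0) (ρ := ρ)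
  have qb : V.a ≤ K * kapP V z0 ρ T' * δ := by
    calc V.a ≤ 2 * W ^ 2 * δ * kapP V z0 ρ T' := thin u.aV kE'
      _ = (2 * W ^ 2) * (kapP V z0 ρ T' * δ) := by ring
      _ ≤ K * (kapP V z0 ρ T' * δ) := by
          apply mul_le_mul_of_nonneg_right (b1 (by norm_num) (by norm_num)) (by positivity)
      _ = _ := by ring
  have h8' : W * δ ≤ 1 / 8 := by
    have : 8 * W * δ ≤ K * δ := mul_le_mul_of_nonneg_right (bW (by norm_num) (by norm_num)) δ0.le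
    linarith
  have hm1 : 4 * V.a + 69 * (W * δ) * V.w 0 ≤ K * δ * V.w 0 := by
    have h1 : V.a ≤ 26 * W ^ 2 * δ * V.w 0 := by
      calc V.a ≤ 2 * W ^ 2 * δ * kapP V z0 ρ T' := thin u.aV kE'
        _ ≤ 2 * W ^ 2 * δ * (13 * V.w 0) := by gcongr
        _ = _ := by ring
    have h2 : W * (δ * V.w 0) ≤ W ^ 2 * (δ * V.w 0) :=
      mul_le_mul_of_nonneg_right W2 (by positivity)
    have h3 : 173 * W ^ 2 * (δ * V.w 0) ≤ K * (δ * V.w 0) :=
      mul_le_mul_of_nonneg_right (b1 (by norm_num) (by norm_num)) (by positivity)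
    nlinarith
  have hhm : W * δ ≤ K * δ := mul_le_mul_of_nonneg_right WK δ0.le
  have hd := disp_V hr hρ.le u.hV u.tV u.tV' hjH h8' nr hm1 hhm
  -- `l s`
  have Kl : K * l ≤ 1 := by
    have h1 : K ≤ K ^ 400 := le_self_pow₀ K1 (by norm_num)
    calc K * l ≤ K ^ 400 * l := mul_le_mul_of_nonneg_right h1 l0.le
      _ ≤ K ^ 400 * (l + δ) := by gcongr; linarith
      _ ≤ 1 := hP.trans k1
  have lsb : ∀ {x kx : ℝ}, s ≤ W * kx → kx ≤ 13 * x → 0 < x → l * s ≤ x / 64 := by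
    intro x kx h1 h2 h3
    have h4 : s ≤ 13 * W * x := by
      calc s ≤ W * kx := h1
        _ ≤ W * (13 * x) := by gcongr
        _ = _ := by ring
    have h5 : 832 * W * l ≤ 1 := by
      calc 832 * W * l ≤ K * l :=
            mul_le_mul_of_nonneg_right (bW (by norm_num) (by norm_num)) l0.le
        _ ≤ 1 := Kl
    have h6 : l * s ≤ l * (13 * W * x) := mul_le_mul_of_nonneg_left h4 l0.le
    have h7 : 832 * W * l * x ≤ 1 * x := mul_le_mul_of_nonneg_right h5 h3.le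
    nlinarith
  have lsR := lsb kER kR13 rw0
  have lsU := lsb kE kU13 uw0
  have SU := StP.of_shN u.hU uw0
  have SV := StP.of_shN u.hV vw0
  have SR := StP.of_shN u.hR rw0
  obtain ⟨aR1, aR2, -⟩ := Wdg296.slopes_of_not_Nd SR SV hρ.le hjH u.hR.w0_le u.hR.w_le u.hV.w0_le
    u.hV.w_le u.tR u.tV' nd2 lsR
  obtain ⟨aU1, aU2, -⟩ := Wdg296.slopes_of_not_Nd SU SV hρ.le hjH u.hU.w0_le u.hU.w_le u.hV.w0_le
    u.hV.w_le u.tU u.tV nd1 lsU
  have dv0 := Wdg296.dv_of u.hR ra hρ.le u.tR tR6 u.hV.isQ upR hjH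
  have dvb : 10 ^ 13 * KD * (2 * s) ≤ K * s := by
    calc 10 ^ 13 * KD * (2 * s) = 2 * 10 ^ 13 * KD * s := by ring
      _ ≤ K * s := mul_le_mul_of_nonneg_right bKD hs0.le
  have dv : Wdg296.Dv R V.q z0 ρ H j T' K (kapP R z0 ρ T' / R.w 0) s :=
    ⟨fun i i' => (dv0.th i i').trans dvb, fun i => (dv0.gm i).trans dvb, dv0.h00.trans dvb⟩
  -- the box of `R`
  have c2V := u.c2
  rw [e2] at c2V
  have nb := near_box (K := K) (M := K * δ) hr hρ K1 u.hV u.hR u.tV u.tV' u.tR hjH h8' nr hm1 hhm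
    TVR tV6' c2V (by positivity) (by
      have : s ≤ K * kapP V z0 ρ T' := kE'.trans (mul_le_mul_of_nonneg_right WK pV'.le)
      linarith) (by
      calc kapP V z0 ρ T' ≤ W * kapP R z0 ρ T' := kVR
        _ ≤ W * (13 * R.w 0) := by gcongr
        _ = 13 * W * R.w 0 := by ring
        _ ≤ K * R.w 0 := mul_le_mul_of_nonneg_right (bW (by norm_num) (by norm_num)) rw0.le) (by
      have h1 : (V.a + V.a) / kapP V z0 ρ T' ≤ 4 * W ^ 2 * δ := by
        rw [div_le_iff₀ pV']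
        have := thin u.aV kE'
        linarith
      have h2 : W * δ ≤ W ^ 2 * δ := mul_le_mul_of_nonneg_right W2 δ0.le
      have h3 : 3328 * W ^ 2 * δ ≤ K * δ :=
        mul_le_mul_of_nonneg_right (b1 (by norm_num) (by norm_num)) δ0.le
      linarith) (by
      have h1 : 10 ^ 5 * KD ≤ K := by linarith [mul_nonneg (by norm_num : (0:ℝ) ≤ 2 * 10 ^ 13 - 10 ^ 5) KDp.le]
      calc 10 ^ 5 * KD * K ^ 2 * (K * δ) = (10 ^ 5 * KD) * (K ^ 3 * δ) := by ring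
        _ ≤ K * (K ^ 3 * δ) := mul_le_mul_of_nonneg_right h1 (by positivity)
        _ = K ^ 4 * δ := by ring
        _ ≤ 1 := Kδ4) (by
      have h1 : (48 : ℝ) ≤ K := bc (by norm_num) (by norm_num)
      have h3 : K ^ 3 * δ ≤ 1 := pw (by norm_num)
      calc 48 * K * (K * δ) = 48 * (K ^ 2 * δ) := by ring
        _ ≤ K * (K ^ 2 * δ) := mul_le_mul_of_nonneg_right h1 (by positivity)
        _ = K ^ 3 * δ := by ring
        _ ≤ 1 := h3)
  have hTR : ∀ i, |dt (R.e i) (T.pos (zj z0 ρ H j) - R.c.pos (zj z0 ρ H j))| ≤ 3 / 2 * R.w i := by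
    intro i
    have h1 := nb i
    have h2 := (u.tR _ zm1 zm2).1 i
    have e1 : dt (R.e i) (T.pos (zj z0 ρ H j) - R.c.pos (zj z0 ρ H j)) =
        dt (R.e i) (T.pos (zj z0 ρ H j) - T'.pos (zj z0 ρ H j)) +
        dt (R.e i) (T'.pos (zj z0 ρ H j) - R.c.pos (zj z0 ρ H j)) := by
      simp only [dt, Pi.sub_apply]; ring
    rw [e1]
    refine (abs_add_le _ _).trans ?_
    linarith
  obtain ⟨bR1, bR2⟩ := a0_gen hr hρ.le u.hU u.hR u.tU hjH hTR nd3 lsU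
  have bs := sl_of_tg (K := 3600000) (A := l * s) (r := U.w 0) oU.s uw0 bR1 (not_Nd.1 nd3).1
    (by linarith)
  have hP' : K ^ 400 * (l + δ) ≤ k := hP
  obtain ⟨v1, ⟨i2, j2, v2⟩, v3, v4⟩ := v6_move (K := K) (kV := kapP V z0 ρ T')
    (kR := kapP R z0 ρ T') (kk := kapP V z0 ρ T') (δ := δ) (k := k) K7 hρ.le u.hV.isQ u.hR.isQ oV
    oR (le_mul_of_one_le_left pV'.le K1) (kVR.trans (mul_le_mul_of_nonneg_right WK pR.le)) kR13
    kVU0 (kRV.trans (mul_le_mul_of_nonneg_right WK pV'.le)) TVR TUR TRU TVU u.tU u.tV u.tV' u.tR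
    ((u.tV _ zm1 zm2).2.trans qb) ((u.tV' _ zm1 zm2).2.trans qb) hd hs0
    (kE'.trans (mul_le_mul_of_nonneg_right WK pV'.le)) nd2 sm2 aR1 dv bR1
    (fun i => (bs i).trans (by linarith)) k1 l0.le m0.le δ0.le hP'
  -- `K2`
  obtain ⟨K2, hK2⟩ : ∃ K2, K2 = K ^ 401 / k := ⟨_, rfl⟩
  rw [← hK2] at h8 hn
  have K401 : K ^ 401 ≤ K2 := by
    rw [hK2, le_div_iff₀ k0]
    exact mul_le_of_le_one_right (by positivity) k1
  have K400 : K ^ 400 ≤ K2 := (pow_le_pow_right₀ K1 (by norm_num)).trans K401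
  have KK2 : K ≤ K2 := (le_self_pow₀ K1 (by norm_num)).trans K401
  have K21 : 1 ≤ K2 := K1.trans KK2
  have K20 : 0 < K2 := by linarith
  have K2k : K2 * k = K ^ 401 := by rw [hK2]; field_simp
  have K4011 : 1 ≤ K ^ 401 := one_le_pow₀ K1
  have cUR := close_uu u
  have c1U := u.c1
  refine v6_point (K := K2) (δ := δ) (a := a) (r := r) (R := R) (m := m) (l := l) K21 hr hρ ha hs0
    l0.le m0.le δ0.le g0.le g1 hjH u.hU u.hV u.hR u.tU u.tV u.tV' u.tR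
    (u.aU'.trans (mul_le_mul_of_nonneg_right (WK.trans KK2) ua.le))
    (u.aV.trans (mul_le_mul_of_nonneg_right (WK.trans KK2) ha.le))
    (u.aR.trans (mul_le_mul_of_nonneg_right (WK.trans KK2) ha.le)) tU6 ?_ ?_ h8 ?_
    (TVU.mono KK2) ?_ ?_ nd1 nd3 ?_ ⟨aU1, aU2⟩ ⟨bR1, bR2⟩ ?_ ?_ ?_ ?_ ?_ ?_ hn i
  · refine kVT.trans (mul_le_mul_of_nonneg_right ?_ pU.le)
    exact (bW (by norm_num) (by norm_num)).trans KK2
  · exact kE.trans (mul_le_mul_of_nonneg_right (WK.trans KK2) pU.le)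
  · have h1 : W * δ ≤ K2 * δ := mul_le_mul_of_nonneg_right (WK.trans KK2) δ0.le
    exact ⟨nr.1.trans (mul_le_mul_of_nonneg_right h1 vw1.le),
      nr.2.trans (mul_le_mul_of_nonneg_right h1 vw2.le)⟩
  · intro z h1 h2 x h3 h4
    refine (c1U z h1 h2 x h3 h4).trans ?_
    rw [e2]
    have : (2 : ℝ) ≤ K2 := by linarith
    exact mul_le_mul_of_nonneg_right this hs0.le
  · intro z h1 h2 x h3 h4
    refine (cUR z h1 h2 x h3 h4).trans ?_
    rw [e2]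
    calc 10 ^ 60 * KD ^ 7 * W ^ 15 * (2 * s) = 2 * 10 ^ 60 * KD ^ 7 * W ^ 15 * s := by ring
      _ ≤ K2 * s := mul_le_mul_of_nonneg_right (bCl.trans KK2) hs0.le
  · unfold Sm at sm1
    push Not at sm1
    obtain ⟨i1, j1, h1⟩ := sm1
    refine ⟨i1, j1, ?_⟩
    calc s ≤ K ^ 401 * s := le_mul_of_one_le_left hs0.le K4011
      _ = K2 * (k * s) := by rw [← K2k]; ring
      _ ≤ _ := mul_le_mul_of_nonneg_left h1.le K20.le
  · intro i i'
    exact (v1 i i').trans (mul_le_mul_of_nonneg_right K400 hs0.le)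
  · refine ⟨i2, j2, ?_⟩
    have e1 : K2 * |th (jS U R.q z0 ρ H j T) (jS U V.q z0 ρ H j T) i2 j2| * k =
        K * (K ^ 400 * |th (jS U R.q z0 ρ H j T) (jS U V.q z0 ρ H j T) i2 j2|) := by
      calc _ = (K2 * k) * |th (jS U R.q z0 ρ H j T) (jS U V.q z0 ρ H j T) i2 j2| := by ring
        _ = _ := by rw [K2k]; ring
    have e3 : s * k ≤ K2 * |th (jS U R.q z0 ρ H j T) (jS U V.q z0 ρ H j T) i2 j2| * k := by
      rw [e1]
      calc s * k = 1 * (k * s) := by ring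
        _ ≤ K * (k * s) := mul_le_mul_of_nonneg_right K1 (by positivity)
        _ ≤ _ := mul_le_mul_of_nonneg_left v2 K0.le
    exact le_of_mul_le_mul_right e3 k0
  · intro i i' k1' k2'
    exact (v3 i i' k1' k2').trans (mul_le_mul_of_nonneg_right K400 (by positivity))
  · intro i
    exact (v4 i).trans (mul_le_mul_of_nonneg_right K400 (by positivity))
  · refine ha2.trans ?_
    have : 2 * (δ * s) ≤ K2 * (δ * s) := mul_le_mul_of_nonneg_right (by linarith) (by positivity)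
    linarith
  · calc a ≤ 2 * δ * s := ha2
      _ ≤ 2 * δ * (W * kapP U z0 ρ T) := by gcongr
      _ = (2 * W) * (δ * kapP U z0 ρ T) := by ring
      _ ≤ K2 * (δ * kapP U z0 ρ T) :=
          mul_le_mul_of_nonneg_right ((bW (by norm_num) (by norm_num)).trans KK2) (by positivity)
      _ = _ := by ring

end

/-- numbers -/
theorem num {c0 B k C : ℝ} {p q n : ℕ} (hc : 1 ≤ c0) (hB : 1 ≤ B) (k0 : 0 < k) (k1 : k ≤ 1)
    (h1 : p * q ≤ n) (h2 : 20 * (p * q) ≤ n) (h3 : q ≤ n) (hC : c0 ≤ C) (hn : (n : ℝ) ≤ C) :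
    ((c0 * B ^ 20) ^ p / k) ^ q ≤ (C * B / k) ^ C := by
  have hC1 : 1 ≤ C := hc.trans hC
  have x1 : 1 ≤ C * B / k := by
    rw [le_div_iff₀ k0]
    nlinarith
  have e1 : (C * B / k) ^ n ≤ (C * B / k) ^ C := by
    rw [← Real.rpow_natCast]
    exact Real.rpow_le_rpow_of_exponent_le x1 hn
  refine le_trans ?_ e1
  rw [div_pow, div_pow, mul_pow C B n]
  have c00 : 0 < c0 := by linarith
  have B0 : 0 < B := by linarith
  have kn : k ^ n ≤ k ^ q := pow_le_pow_of_le_one k0.le k1 h3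
  have e2 : ((c0 * B ^ 20) ^ p) ^ q ≤ C ^ n * B ^ n := by
    calc ((c0 * B ^ 20) ^ p) ^ q = c0 ^ (p * q) * B ^ (20 * (p * q)) := by
          rw [← pow_mul, mul_pow, ← pow_mul]
      _ ≤ C ^ n * B ^ n := by
          have a1 : c0 ^ (p * q) ≤ C ^ n :=
            (pow_le_pow_left₀ c00.le hC _).trans (pow_le_pow_right₀ hC1 h1)
          have a2 : B ^ (20 * (p * q)) ≤ B ^ n := pow_le_pow_right₀ hB h2
          exact mul_le_mul a1 a2 (by positivity) (by positivity)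
  have kq : 0 < k ^ q := by positivity
  have kn0 : 0 < k ^ n := by positivity
  calc ((c0 * B ^ 20) ^ p) ^ q / k ^ q ≤ C ^ n * B ^ n / k ^ q := by gcongr
    _ ≤ C ^ n * B ^ n / k ^ n := by
        apply div_le_div_of_nonneg_left (by positivity) kn0 kn

set_option maxHeartbeats 1000000 in
/-- **the last leaf** -/
theorem leafV6 : LeafV6 := by
  have KD1 := KD_one
  have KDp := KD_pos
  obtain ⟨c0, hc0⟩ : ∃ c0 : ℝ, c0 = 10 ^ 70 * KD ^ 7 := ⟨_, rfl⟩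
  have hc1 : 10 ^ 70 ≤ c0 := by
    rw [hc0]
    exact le_mul_of_one_le_right (by positivity) (one_le_pow₀ KD1)
  have hc : 1 ≤ c0 := le_trans (by norm_num) hc1
  obtain ⟨n, hn⟩ : ∃ n : ℕ, n = 1130820 := ⟨_, rfl⟩
  obtain ⟨C, hC⟩ : ∃ C : ℝ, C = c0 + n := ⟨_, rfl⟩
  have n0 : (0 : ℝ) ≤ n := Nat.cast_nonneg n
  have hCc : c0 ≤ C := by linarith
  have hCn : (n : ℝ) ≤ C := by linarith
  have hC1 : 1 ≤ C := by linarith
  have n200 : (200 : ℝ) ≤ n := by rw [hn]; norm_num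
  refine ⟨C, hC1, ?_⟩
  intro qm qp L P cu cv Uf Vf W B M a w1 w2 z0 ρ zL ρL r κ E H cf hκ hHB l m k g l0 m0 k0 k1 g0 g1
    hs t ht t' ht' j hj hcv hlbl nd1 nd2 nd3 sm1 sm2
  have hW := cf.W1
  have hB : 1 ≤ B := hW.trans cf.WB
  have B0 : 0 < B := by linarith
  have W0 : 0 < W := by linarith
  have h2 := cf.two.to1
  obtain ⟨K, hK⟩ : ∃ K, K = c0 * B ^ 20 := ⟨_, rfl⟩
  have hKW : 10 ^ 70 * KD ^ 7 * W ^ 20 ≤ K := by
    rw [hK, hc0]
    have : W ^ 20 ≤ B ^ 20 := pow_le_pow_left₀ W0.le cf.WB 20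
    gcongr
  have hK70 : 10 ^ 70 ≤ K := by
    rw [hK]
    exact hc1.trans (le_mul_of_one_le_right (by linarith) (one_le_pow₀ hB))
  have K1 : 1 ≤ K := by linarith
  have K0 : 0 < K := by linarith
  -- `K ^ 10 ≤ H`
  have hCB : 1 ≤ C * B := by nlinarith
  have hH : K ^ 10 ≤ (H : ℝ) := by
    refine le_trans ?_ hHB
    have e1 : (C * B) ^ 200 ≤ (C * B) ^ C := by
      rw [← Real.rpow_natCast]
      exact Real.rpow_le_rpow_of_exponent_le hCB (by push_cast; linarith)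
    refine le_trans ?_ e1
    rw [hK, mul_pow, ← pow_mul, mul_pow]
    have a1 : c0 ^ 10 ≤ C ^ 200 :=
      (pow_le_pow_left₀ (by linarith) hCc _).trans (pow_le_pow_right₀ hC1 (by norm_num))
    exact mul_le_mul a1 le_rfl (by positivity) (by positivity)
  have Hp : (0 : ℝ) < H := lt_of_lt_of_le (by positivity) hH
  have HN : 0 < H := by exact_mod_cast Hp
  -- `K2`
  obtain ⟨δ, hδ⟩ : ∃ δ : ℝ, δ = 1 / H := ⟨_, rfl⟩
  have δ0 : 0 < δ := by rw [hδ]; positivity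
  obtain ⟨K2, hK2⟩ : ∃ K2, K2 = K ^ 401 / k := ⟨_, rfl⟩
  have K401 : K ^ 401 ≤ K2 := by
    rw [hK2, le_div_iff₀ k0]
    exact mul_le_of_le_one_right (by positivity) k1
  have KK2 : K ≤ K2 := (le_self_pow₀ K1 (by norm_num)).trans K401
  have K21 : 1 ≤ K2 := K1.trans KK2
  have K20 : 0 < K2 := by linarith
  have hnum : K2 ^ 141 ≤ (C * B / k) ^ C := by
    rw [hK2, hK]
    exact num hc hB k0 k1 (by rw [hn]; norm_num) (by rw [hn]) (by rw [hn]; norm_num) hCc hCn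
  rw [← hδ] at hs
  have hs2 : K2 ^ 141 * (l + m + δ) ≤ g ^ 2 := by
    have e1 : g ^ C ≤ g ^ 2 := by
      rw [← Real.rpow_natCast g 2]
      exact Real.rpow_le_rpow_of_exponent_ge g0 g1 (by push_cast; linarith)
    calc K2 ^ 141 * (l + m + δ) ≤ (C * B / k) ^ C * (l + m + δ) :=
          mul_le_mul_of_nonneg_right hnum (by linarith)
      _ ≤ g ^ C := hs
      _ ≤ g ^ 2 := e1
  have g21 : g ^ 2 ≤ 1 := pow_le_one₀ g0.le g1
  have K2p : ∀ {p : ℕ} {x : ℝ}, p ≤ 141 → 0 ≤ x → x ≤ l + m + δ → K2 ^ p * x ≤ 1 := by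
    intro p x hp hx hx'
    calc K2 ^ p * x ≤ K2 ^ 141 * (l + m + δ) :=
          mul_le_mul (pow_le_pow_right₀ K21 hp) hx' hx (by positivity)
      _ ≤ 1 := hs2.trans g21
  have hP : K ^ 400 * (l + 1 / H) ≤ k := by
    rw [← hδ]
    have h3 := K2p (p := 1) (x := l + δ) (by norm_num) (by positivity) (by linarith)
    rw [pow_one, hK2, div_mul_eq_mul_div, div_le_one k0] at h3
    refine le_trans ?_ h3
    exact mul_le_mul_of_nonneg_right (pow_le_pow_right₀ K1 (by norm_num)) (by positivity)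
  have h8 : K ^ 401 / k * (1 / H) ≤ 1 / 8 := by
    rw [← hδ, ← hK2]
    have h3 := K2p (p := 2) (x := δ) (by norm_num) δ0.le (by linarith)
    have h4 : 8 * K2 ≤ K2 ^ 2 := by
      have : (8 : ℝ) ≤ K2 := by linarith
      nlinarith
    have h5 := mul_le_mul_of_nonneg_right h4 δ0.le
    linarith
  have hn' : 2 * 10 ^ 9 * (10 ^ 13 * KD * (K ^ 401 / k) ^ 3) ^ 35 * (l + m + 1 / H) ≤ g ^ 2 := by
    rw [← hδ, ← hK2]
    refine le_trans (mul_le_mul_of_nonneg_right ?_ (by positivity)) hs2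
    have a1 : 10 ^ 13 * KD ≤ K2 := by
      refine le_trans ?_ KK2
      rw [hK, hc0]
      have b1 : KD ≤ KD ^ 7 := le_self_pow₀ KD1 (by norm_num)
      have b2 : (1 : ℝ) ≤ B ^ 20 := one_le_pow₀ hB
      calc 10 ^ 13 * KD ≤ 10 ^ 70 * KD ^ 7 := by gcongr; norm_num; norm_num
        _ ≤ _ := le_mul_of_one_le_right (by positivity) b2
    have a2 : 2 * 10 ^ 9 ≤ K2 := by
      refine le_trans ?_ KK2
      refine le_trans ?_ hK70
      norm_num
    have a3 : 10 ^ 13 * KD * K2 ^ 3 ≤ K2 ^ 4 := by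
      calc 10 ^ 13 * KD * K2 ^ 3 ≤ K2 * K2 ^ 3 := by gcongr
        _ = K2 ^ 4 := by ring
    calc 2 * 10 ^ 9 * (10 ^ 13 * KD * K2 ^ 3) ^ 35 ≤ K2 * (K2 ^ 4) ^ 35 := by gcongr
      _ = K2 ^ 141 := by ring
  -- `κ`
  have hκ4 : 10 ^ 4 * κ ≤ 1 := by
    have hκ0 := cf.κ0
    have a1 : (10 : ℝ) ^ 4 ≤ C * W ^ C := by
      have b1 : 1 ≤ W ^ C := Real.one_le_rpow hW (by linarith)
      have b2 : (10 : ℝ) ^ 4 ≤ C := by
        have : (10 : ℝ) ^ 4 ≤ 10 ^ 70 := by norm_num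
        linarith
      calc (10 : ℝ) ^ 4 ≤ C * 1 := by linarith
        _ ≤ C * W ^ C := mul_le_mul_of_nonneg_left b1 (by linarith)
    exact (mul_le_mul_of_nonneg_right a1 hκ0.le).trans hκ
  have hH27 : 10 ^ 27 * KD ^ 2 * W ^ 8 ≤ (H : ℝ) := by
    refine le_trans ?_ hH
    refine le_trans ?_ (le_self_pow₀ K1 (by norm_num : (10 : ℕ) ≠ 0))
    exact big hW hKW (by norm_num) (by norm_num) (by norm_num) (by norm_num)
  have u := Lnf208.uu_of_cf cf hκ4 hH27 ht ht' hcv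
  have e0 : Vf (cv t') = Vf (cv t) := by rw [hcv]
  have aRV := cf.ang t' ht'
  have upR := (cf.up t' ht').1
  have kE' := cf.kE' t' ht'
  have kRV := cf.kUV t' ht'
  have kVR := cf.kVU t' ht'
  rw [e0] at aRV upR kE' kRV kVR nd2 sm2
  have nr : Nr (Vf (cv t)) (W / H) (zj z0 ρ H j) (L t) (L t') :=
    Gen467.lbl_nr h2.w10 h2.w20 HN (cf.dmV t ht).2.1.1 (cf.dmV t ht).2.2.1 hlbl.symm
  rw [not_Gn]
  refine ⟨sm1, fun i => ?_⟩
  exact core u cf.E1 cf.HE (cf.dmU t ht) (cf.dmV t ht) (cf.dmU t' ht') (cf.ang t ht) aRV upR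
    (cf.kE t ht) (cf.kE' t ht) kE' (cf.kE t' ht') (cf.kVU t ht) kRV kVR hj nr nd1 nd2 nd3 sm1 sm2
    l0 m0 k0 k1 g0 g1 hKW hH hP h8 hn' i

end Crest.Agent.R136.Lw618

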