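import Crest.Agent.R136.Lv6_500
import Crest.Agent.R136.Lva_467

/-!
# R136 (S0187), PLAN 2 (AL): leaf V6 (helper500)
-/

set_option autoImplicit false
set_option linter.unusedVariables false

namespace Crest.Agent.R136.Lv6500

open Crest.Agent.R136.Sh605 Crest.Agent.R136.Tl102
open Crest.Agent.R136.K4 (Plk4)
open Crest.Agent.R136.Tlt51 (Shp InP)
open Crest.Agent.R136.Deep51 (CloseC)
open Crest.Agent.R136.KapP335 (kapP kapP_eq)
open Crest.Agent.R136.Gbx862 (zj gb gb_close)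
open Crest.Agent.R136.AlD601
open Crest.Agent.R136.Rk601 (Jt sl th mn)
open Crest.Agent.R136.Hcp208 (Nr)
open Crest.Agent.R136.Chm862 (gm df Tr co Own own)
open Crest.Agent.R136.Adj214 (KD KD_pos KD_one)
open Crest.Agent.R136.Wdg296 (Dv dv_of)
open Crest.Agent.R136.V6p467 (Pre pre_of_cf)
open Crest.Agent.R136.Alw500 (lbl)
open Crest.Agent.R136.Al500 (Cf)

section

variable {qm qp : Fin 3 → ℝ} {L : ℕ → Ln4} {P : Finset ℕ} {cu cv : ℕ → ℕ} {Uf Vf : ℕ → Plk4}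
  {W B M a w1 w2 z0 ρ zL ρL r κ E : ℝ} {H : ℕ}

/-- equal labels -/
theorem nr_lab (h : Cf qm qp L P cu cv Uf Vf W B M a w1 w2 z0 ρ zL ρL r κ E H) {t t' j : ℕ}
    (ht : t ∈ P) (hH : 0 < H)
    (lab : lbl Vf L w1 w2 z0 ρ H (cv t) t' j = lbl Vf L w1 w2 z0 ρ H (cv t) t j) :
    Nr (Vf (cv t)) (W / H) (zj z0 ρ H j) (L t) (L t') := by
  have h2 := h.two.to1
  have hHr : (0 : ℝ) < H := by exact_mod_cast hH
  obtain ⟨g1, g2⟩ := gb_close h2.w10 h2.w20 hH lab.symm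
  obtain ⟨-, e1, e2⟩ := h.dmV t ht
  constructor
  · refine g1.le.trans ?_
    rw [div_mul_eq_mul_div]
    exact div_le_div_of_nonneg_right e1.1 hHr.le
  · refine g2.le.trans ?_
    rw [div_mul_eq_mul_div]
    exact div_le_div_of_nonneg_right e2.1 hHr.le

set_option maxHeartbeats 1600000 in
/-- the data of one pair -/
theorem pt_of_cf (h : Cf qm qp L P cu cv Uf Vf W B M a w1 w2 z0 ρ zL ρL r κ E H) {K l m k g : ℝ}
    (hK : 10 ^ 80 * KD ^ 8 * W ^ 20 ≤ K) (hKH : 10 ^ 28 * KD ^ 2 * W ^ 8 ≤ (H : ℝ))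
    (hκ : 10 ^ 4 * κ ≤ 1) {t t' j : ℕ} (ht : t ∈ P) (ht' : t' ∈ P) (he : cv t' = cv t) (hj : j < H)
    (lab : lbl Vf L w1 w2 z0 ρ H (cv t) t' j = lbl Vf L w1 w2 z0 ρ H (cv t) t j)
    (n1 : ¬ Nd (Uf (cu t)) (Vf (cv t)).q z0 ρ H j (L t) l m (E * a))
    (n2 : ¬ Nd (Uf (cu t')) (Vf (cv t)).q z0 ρ H j (L t') l m (E * a))
    (n3 : ¬ Nd (Uf (cu t)) (Uf (cu t')).q z0 ρ H j (L t) l m (E * a))
    (s1 : ¬ Sm (Uf (cu t)) (Vf (cv t)).q z0 ρ H j (L t) k (E * a))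
    (s2 : ¬ Sm (Uf (cu t')) (Vf (cv t)).q z0 ρ H j (L t') k (E * a))
    (k0 : 0 < k) (k1 : k ≤ 1) (kK : 1 ≤ K * k) (l0 : 0 ≤ l) (m0 : 0 ≤ m) (g0 : 0 ≤ g) (g1 : g ≤ 1)
    (hn : 2 * 10 ^ 9 * (10 ^ 13 * KD * (K ^ 401) ^ 3) ^ 35 * (l + m + W / H) ≤ g ^ 2) :
    Pt (Uf (cu t)) (Vf (cv t)) (Uf (cu t')) (L t) (L t') z0 ρ r K a (E * a) l m k (W / H) g H j := by
  have h2 := h.two.to1
  have hW1 := h.W1
  have hW0 : 0 < W := by linarith
  have KD1 := KD_one
  have KDp := KD_pos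
  have hE0 : 0 < E := by have := h.E1; linarith
  have ha0 := h2.a0
  have hs : 0 < E * a := mul_pos hE0 ha0
  have hpW : ∀ n : ℕ, (1 : ℝ) ≤ W ^ n := fun n => one_le_pow₀ hW1
  have hW68 : W ^ 6 ≤ W ^ 8 := pow_le_pow_right₀ hW1 (by norm_num)
  have hW620 : W ^ 6 ≤ W ^ 20 := pow_le_pow_right₀ hW1 (by norm_num)
  have hKD8 : (1 : ℝ) ≤ KD ^ 8 := one_le_pow₀ KD1
  have hKD2 : (1 : ℝ) ≤ KD ^ 2 := one_le_pow₀ KD1
  -- the small constant
  obtain ⟨K0, hK0⟩ : ∃ K0 : ℝ, K0 = 10 ^ 7 * W ^ 6 := ⟨_, rfl⟩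
  have hK0H : K0 ≤ H := by
    refine le_trans ?_ hKH
    rw [hK0]
    calc 10 ^ 7 * W ^ 6 ≤ 10 ^ 28 * W ^ 8 := by
          have : 0 ≤ W ^ 8 := by positivity
          linarith
      _ = 10 ^ 28 * 1 * W ^ 8 := by ring
      _ ≤ 10 ^ 28 * KD ^ 2 * W ^ 8 := by gcongr
  have pr := pre_of_cf h (K := K0) (le_of_eq hK0.symm) hK0H ht ht' he
  have hK01 : 10 ^ 7 ≤ K0 := by
    rw [hK0]; have := hpW 6; linarith
  have hK00 : 0 < K0 := by linarith
  have hbig : 10 ^ 70 * K0 ≤ K := by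
    refine le_trans ?_ hK
    rw [hK0]
    calc 10 ^ 70 * (10 ^ 7 * W ^ 6) = 10 ^ 77 * W ^ 6 := by ring
      _ ≤ 10 ^ 80 * W ^ 20 := by
          have : 0 ≤ W ^ 20 := by positivity
          linarith
      _ = 10 ^ 80 * 1 * W ^ 20 := by ring
      _ ≤ 10 ^ 80 * KD ^ 8 * W ^ 20 := by gcongr
  have hK0K : K0 ≤ K := by linarith
  have hKKD : 10 ^ 80 * KD ≤ K := by
    refine le_trans ?_ hK
    calc 10 ^ 80 * KD ≤ 10 ^ 80 * KD ^ 8 := by
          have := le_self_pow₀ KD1 (show 8 ≠ 0 by norm_num)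
          linarith
      _ ≤ 10 ^ 80 * KD ^ 8 * W ^ 20 := le_mul_of_one_le_right (by positivity) (hpW 20)
  have hKp : 0 < K := by linarith
  have hH0 : (0 : ℝ) < H := by
    have : (0:ℝ) < 10 ^ 28 * KD ^ 2 * W ^ 8 := by positivity
    linarith
  have hHn : 0 < H := by exact_mod_cast hH0
  have hδ0 : 0 ≤ W / H := by positivity
  have hδ1 : 1 / (H : ℝ) ≤ W / H := div_le_div_of_nonneg_right hW1 hH0.le
  have kVp : 0 < kapP (Vf (cv t)) z0 ρ (L t') := by
    have := pr.kV6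
    have := pr.hr.trans_le pr.shV.r0_le
    linarith
  have kRp : 0 < kapP (Uf (cu t')) z0 ρ (L t') := by
    have := pr.kR6
    have := pr.hr.trans_le pr.shR.r0_le
    linarith
  have kUp : 0 < kapP (Uf (cu t)) z0 ρ (L t) := by
    have := pr.kU6
    have := pr.hr.trans_le pr.shU.r0_le
    linarith
  have wVp : 0 < (Vf (cv t)).w 0 := pr.hr.trans_le (pr.shV.r0_le.trans pr.shV.a_le0)
  have wUp : 0 < (Uf (cu t)).w 0 := pr.hr.trans_le (pr.shU.r0_le.trans pr.shU.a_le0)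
  have hWK : W ≤ K := by
    have : W ≤ W ^ 6 := le_self_pow₀ hW1 (by norm_num)
    rw [hK0] at hK0K
    have : 0 ≤ W ^ 6 := by positivity
    linarith
  have uu := Lnf208.uu_of_cf h hκ (by
    refine le_trans ?_ hKH
    have : 0 ≤ KD ^ 2 * W ^ 8 := by positivity
    linarith) ht ht' he
  have c3 := Cuu57.close_uu uu
  have kUV' : kapP (Uf (cu t')) z0 ρ (L t') ≤ W * kapP (Vf (cv t)) z0 ρ (L t') := by
    have := h.kUV t' ht'; rwa [he] at this
  have kVU' : kapP (Vf (cv t)) z0 ρ (L t') ≤ W * kapP (Uf (cu t')) z0 ρ (L t') := by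
    have := h.kVU t' ht'; rwa [he] at this
  have hdv := dv_of (H := H) (j := j) pr.shR (pr.hr.trans_le pr.shR.r0_le) pr.hρ.le pr.inR pr.kR6
    pr.shV.isQ pr.upR hj.le
  exact
    { K7 := by linarith
      KDK := by linarith
      r0 := pr.hr
      ρ0 := pr.hρ
      hj := hj.le
      hU := pr.shU
      hV := pr.shV
      hR := pr.shR
      tU := pr.inU
      tV := pr.inV
      tV' := pr.inV'
      tR := pr.inR
      VR := pr.VR.mono hK0K
      UR := pr.UR.mono hK0K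
      RU := pr.RU.mono hK0K
      VU := pr.VU.mono hK0K
      a0 := ha0
      aU := pr.aU.trans (mul_le_mul_of_nonneg_right hK0K (pr.hr.trans_le pr.shU.r0_le).le)
      aV := pr.aV.trans (mul_le_mul_of_nonneg_right hK0K ha0.le)
      aR := pr.aR.trans (mul_le_mul_of_nonneg_right hK0K ha0.le)
      s0 := hs
      as' := by
        have h1 := pr.aHs
        have h3 : a ≤ 2 * (E * a) * (1 / H) := by
          rw [mul_one_div, le_div_iff₀ hH0]; exact h1
        calc a ≤ 2 * (E * a) * (1 / H) := h3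
          _ ≤ K * (E * a) * (W / H) :=
            mul_le_mul (mul_le_mul_of_nonneg_right (by linarith) hs.le) hδ1 (by positivity)
              (by positivity)
          _ = K * (W / H) * (E * a) := by ring
      sU := pr.sU.trans (mul_le_mul_of_nonneg_right hK0K kUp.le)
      sV := pr.sV.trans (mul_le_mul_of_nonneg_right hK0K kVp.le)
      kU := pr.kU6
      kV := pr.kV6
      kR := pr.kR6
      VRk := kVU'.trans (mul_le_mul_of_nonneg_right hWK kRp.le)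
      RVk := kUV'.trans (mul_le_mul_of_nonneg_right hWK kVp.le)
      VUk := pr.c1.trans (mul_le_mul_of_nonneg_right hK0K kUp.le)
      VUw := by
        calc kapP (Vf (cv t)) z0 ρ (L t') ≤ K0 * kapP (Uf (cu t)) z0 ρ (L t) := pr.c1
          _ ≤ K0 * (13 * (Uf (cu t)).w 0) := mul_le_mul_of_nonneg_left pr.c4 hK00.le
          _ = (13 * K0) * (Uf (cu t)).w 0 := by ring
          _ ≤ K * (Uf (cu t)).w 0 := mul_le_mul_of_nonneg_right (by linarith) wUp.le
      qa := by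
        have h1 := pr.VaV
        have hV0 := pr.hr.trans_le pr.shV.r0_le
        have h3 : (Vf (cv t)).a ≤ K0 * kapP (Vf (cv t)) z0 ρ (L t') * (1 / H) := by
          rw [mul_one_div, le_div_iff₀ hH0]
          have : 0 ≤ K0 * kapP (Vf (cv t)) z0 ρ (L t') := by positivity
          have : 0 ≤ (Vf (cv t)).a * H := by positivity
          linarith
        refine h3.trans ?_
        exact mul_le_mul (mul_le_mul_of_nonneg_right hK0K kVp.le) hδ1 (by positivity)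
          (by positivity)
      dm := by
        have h1 := pr.Vaw
        have h3 : 4 * (Vf (cv t)).a ≤ K0 / 2 * (Vf (cv t)).w 0 * (1 / H) := by
          rw [mul_one_div, le_div_iff₀ hH0]; linarith
        have h4 : K0 / 2 * (Vf (cv t)).w 0 * (1 / H) ≤ K0 / 2 * (Vf (cv t)).w 0 * (W / H) :=
          mul_le_mul_of_nonneg_left hδ1 (by positivity)
        have h5 : (K0 / 2 + 69) * ((W / H) * (Vf (cv t)).w 0) ≤ K * ((W / H) * (Vf (cv t)).w 0) :=
          mul_le_mul_of_nonneg_right (by linarith) (by positivity)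
        linarith
      nr := nr_lab h ht hHn lab
      c1 := fun z z1 z2 x x1 x2 => (pr.up z z1 z2 x x1 x2).trans
        (mul_le_mul_of_nonneg_right (by linarith) hs.le)
      c3 := fun z z1 z2 x x1 x2 => (c3 z z1 z2 x x1 x2).trans (by
        calc 10 ^ 60 * KD ^ 7 * W ^ 15 * (2 * E * a) = (2 * 10 ^ 60 * KD ^ 7 * W ^ 15) * (E * a) := by
              ring
          _ ≤ K * (E * a) := by
              refine mul_le_mul_of_nonneg_right (le_trans ?_ hK) hs.le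
              have e1 : KD ^ 7 ≤ KD ^ 8 := pow_le_pow_right₀ KD1 (by norm_num)
              have e2 : W ^ 15 ≤ W ^ 20 := pow_le_pow_right₀ hW1 (by norm_num)
              calc 2 * 10 ^ 60 * KD ^ 7 * W ^ 15 ≤ 2 * 10 ^ 60 * KD ^ 8 * W ^ 20 := by gcongr
                _ ≤ 10 ^ 80 * KD ^ 8 * W ^ 20 := by
                    have : 0 ≤ KD ^ 8 * W ^ 20 := by positivity
                    linarith)
      d3 := Dv.up hdv (by
        calc 10 ^ 13 * KD * (2 * (E * a)) = (2 * 10 ^ 13 * KD) * (E * a) := by ring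
          _ ≤ K * (E * a) := mul_le_mul_of_nonneg_right (by linarith) hs.le)
      c2 := pr.upV
      n1 := n1
      n2 := n2
      n3 := n3
      s1 := s1
      s2 := s2
      k0 := k0
      k1 := k1
      kK := kK
      l0 := l0
      m0 := m0
      δ0 := hδ0
      g0 := g0
      g1 := g1
      hn := hn }

end

/-- **leaf V6** -/
theorem leafV6 : Al500.LeafV6 := by
  have KD1 := KD_one
  have KDp := KD_pos
  obtain ⟨D, hD⟩ : ∃ D : ℝ, D = 10 ^ 80 * KD ^ 8 := ⟨_, rfl⟩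
  have hKD8 : (1 : ℝ) ≤ KD ^ 8 := one_le_pow₀ KD1
  have hD1 : 10 ^ 80 ≤ D := by rw [hD]; linarith
  have hD0 : (1 : ℝ) ≤ D := by linarith
  have hDp : 0 < D := by linarith
  obtain ⟨c, hc⟩ : ∃ c : ℝ, c = 2 * 10 ^ 9 * (10 ^ 13 * KD * D ^ 1203) ^ 35 := ⟨_, rfl⟩
  have hDc : D ≤ c := by
    rw [hc]
    have a1 : D ≤ D ^ 1203 := le_self_pow₀ hD0 (by norm_num)
    have a2 : D ^ 1203 ≤ 10 ^ 13 * KD * D ^ 1203 :=
      le_mul_of_one_le_left (by positivity) (by linarith)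
    have a3 : (1 : ℝ) ≤ 10 ^ 13 * KD * D ^ 1203 := hD0.trans (a1.trans a2)
    have a4 : 10 ^ 13 * KD * D ^ 1203 ≤ (10 ^ 13 * KD * D ^ 1203) ^ 35 :=
      le_self_pow₀ a3 (by norm_num)
    have a5 : 0 ≤ (10 ^ 13 * KD * D ^ 1203) ^ 35 := by positivity
    linarith
  have hc1 : (1 : ℝ) ≤ c := hD0.trans hDc
  refine ⟨c + 842101, by linarith, ?_⟩
  intro qm qp L P cu cv Uf Vf W B M a w1 w2 z0 ρ zL ρL r κ E H h hκ hH l m k g l0 m0 k0 k1 g0 g1 hg
    t ht t' ht' j hj he lab n1 n2 n3 s1 s2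
  have hW1 := h.W1
  have hB1 : 1 ≤ B := hW1.trans h.WB
  have hW0 : 0 < W := by linarith
  have hB0 : 0 < B := by linarith
  rw [he] at n2 s2
  have hS0 : 0 ≤ l + m + 1 / (H : ℝ) := by positivity
  have e1 := Nv601.num6 (c := c) (n := 842101) hc1 (by linarith) (by
    push_cast; linarith) (by linarith) hB1 k0 k1 g0 g1 hS0 hg
  have e2 := Nv601.numH (c := c) (n := 20) hc1 (C := c + 842101) (by linarith) (by
    push_cast; linarith) hB1 hH
  have e3 := Nv601.numκ (c := c) (n := 1) hc1 (C := c + 842101) (by linarith) (by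
    push_cast; linarith) hW1 h.κ0.le hκ
  obtain ⟨Y, hY⟩ : ∃ Y : ℝ, Y = B / k := ⟨_, rfl⟩
  have hYB : B ≤ Y := by
    rw [hY, le_div_iff₀ k0]
    exact mul_le_of_le_one_right hB0.le k1
  have hY1 : 1 ≤ Y := hB1.trans hYB
  have hY0 : 0 < Y := by linarith
  have hYk : Y * k = B := by rw [hY]; field_simp
  refine not_Gn.2 ⟨s1, fun i => ?_⟩
  refine v6_pt (K := D * Y ^ 20) (r := r) (a := a) (δ := W / H) (l := l) (m := m) (k := k)
    (pt_of_cf h ?_ ?_ ?_ ht ht' he hj lab n1 n2 n3 s1 s2 k0 k1 ?_ l0.le m0.le g0.le g1 ?_) i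
  · rw [← hD]
    refine mul_le_mul_of_nonneg_left ?_ hDp.le
    exact pow_le_pow_left₀ hW0.le (h.WB.trans hYB) 20
  · refine le_trans ?_ e2
    have a1 : c ≤ c ^ 20 := le_self_pow₀ hc1 (by norm_num)
    have a2 : W ^ 8 ≤ B ^ 20 :=
      (pow_le_pow_right₀ hW1 (by norm_num : 8 ≤ 20)).trans (pow_le_pow_left₀ hW0.le h.WB 20)
    have a3 : 10 ^ 28 * KD ^ 2 ≤ c := by
      refine le_trans ?_ hDc
      rw [hD]
      have : KD ^ 2 ≤ KD ^ 8 := pow_le_pow_right₀ KD1 (by norm_num)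
      have : 0 ≤ KD ^ 2 := by positivity
      linarith
    calc 10 ^ 28 * KD ^ 2 * W ^ 8 ≤ c ^ 20 * B ^ 20 :=
          mul_le_mul (a3.trans a1) a2 (by positivity) (by positivity)
      _ = (c * B) ^ 20 := by rw [mul_pow]
  · refine le_trans ?_ e3
    rw [pow_one]
    have hκ0 := h.κ0.le
    refine mul_le_mul_of_nonneg_right ?_ hκ0
    calc (10 : ℝ) ^ 4 ≤ c := by linarith
      _ ≤ c * W := le_mul_of_one_le_right (by linarith) hW1
  · have a1 : Y ≤ Y ^ 20 := le_self_pow₀ hY1 (by norm_num)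
    have a2 : Y * k ≤ Y ^ 20 * k := mul_le_mul_of_nonneg_right a1 k0.le
    rw [hYk] at a2
    calc (1 : ℝ) ≤ D * B := one_le_mul_of_one_le_of_one_le hD0 hB1
      _ ≤ D * (Y ^ 20 * k) := mul_le_mul_of_nonneg_left a2 hDp.le
      _ = D * Y ^ 20 * k := by ring
  · have a1 : l + m + W / H ≤ Y * (l + m + 1 / H) := by
      have b1 : l ≤ Y * l := le_mul_of_one_le_left l0.le hY1
      have b2 : m ≤ Y * m := le_mul_of_one_le_left m0.le hY1
      have b3 : W / H ≤ Y * (1 / H) := by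
        rw [mul_one_div]
        exact div_le_div_of_nonneg_right (h.WB.trans hYB) (Nat.cast_nonneg H)
      have b4 : Y * (l + m + 1 / H) = Y * l + Y * m + Y * (1 / H) := by ring
      linarith
    have a2 : ((D * Y ^ 20) ^ 401) ^ 3 = D ^ 1203 * Y ^ 24060 := by
      rw [← pow_mul, mul_pow, ← pow_mul]
    have a3 : (10 ^ 13 * KD * (D ^ 1203 * Y ^ 24060)) ^ 35 =
        (10 ^ 13 * KD * D ^ 1203) ^ 35 * Y ^ 842100 := by
      rw [← mul_assoc, mul_pow, ← pow_mul]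
    rw [a2, a3]
    have a4 : c * Y ^ 842101 ≤ (c * B / k) ^ 842101 := by
      have b1 : c * B / k = c * Y := by rw [hY]; ring
      rw [b1, mul_pow]
      exact mul_le_mul_of_nonneg_right (le_self_pow₀ hc1 (by norm_num)) (by positivity)
    have a5 : (0 : ℝ) ≤ 2 * 10 ^ 9 * ((10 ^ 13 * KD * D ^ 1203) ^ 35 * Y ^ 842100) := by positivity
    calc 2 * 10 ^ 9 * ((10 ^ 13 * KD * D ^ 1203) ^ 35 * Y ^ 842100) * (l + m + W / H)
        ≤ 2 * 10 ^ 9 * ((10 ^ 13 * KD * D ^ 1203) ^ 35 * Y ^ 842100) * (Y * (l + m + 1 / H)) :=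
          mul_le_mul_of_nonneg_left a1 a5
      _ = (2 * 10 ^ 9 * (10 ^ 13 * KD * D ^ 1203) ^ 35) * (Y ^ 842100 * Y) * (l + m + 1 / H) := by
          ring
      _ = c * Y ^ 842101 * (l + m + 1 / H) := by rw [← hc, ← pow_succ]
      _ ≤ (c * B / k) ^ 842101 * (l + m + 1 / H) := mul_le_mul_of_nonneg_right a4 hS0
      _ ≤ g ^ 2 := e1

end Crest.Agent.R136.Lv6500
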