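import Crest.Agent.R136.Lz4_627

/-!
# R136 (S0187), U4, pure penalty, leaf (d) (helper627), part 7: linear rewards at all levels

* `lin_coreN` : helper139's `lin_core` at every natural level of bounded relative distance.
* `Cmp` : comparison of the `Ψ`-valued capacity with the linear capacity on growing ranges.
* `exists_cmp`, `linK` : the short window, range `K1 → ∞`.
* `allD_lin`, `dbody_lin` : transport of D-max at all levels and at arbitrary (bounded) depth.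
-/

set_option autoImplicit false
set_option linter.unusedVariables false
set_option linter.unusedSectionVars false

open Finset Filter Topology

namespace Crest.Agent.R136.Lz627

open Crest.Agent.R138.Ex926 (Base U exists_diag exists_tendsto ev_em)
open Crest.Agent.R138.Dp76
open Crest.Agent.R138.Mk163 (zc zl rho alive own)
open Crest.Agent.R138.MkRef627 (mem_alive)
open Crest.Agent.R136.MkA627
open Crest.Agent.R116.Xa794 (TS geo)
open Crest.Agent.R116.Xc794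
open Crest.Agent.R116.Zl139
open Dia770 (AllD extO)

section

variable {Ln ι S σ : Type} [Fintype ι] {B' : Base} {I' : ℕ → Finset (ℕ × ℝ)}
    {G : Geo σ ι} {lev' : ℕ → ℚ → ℕ}
    {A' : ℕ → ℝ} {c' Λ' : ℝ → ℝ} {θ : ι → ℝ} {f' : ℕ → ℚ → ℕ → ℤ → ℕ} {b' : ℕ → ℚ → ℕ → σ}
    {vm' : ℕ → ℚ → ℝ} {w' : ι → ℕ → ℚ → ℝ}

/-- **linearisation of the reward in a short window**, all natural levels. -/
theorem lin_coreN {Ψ : ℝ → (ι → ℝ) → ℝ} {g0 : ℝ} {p : ι → ℝ} (hΨ : LinAt Ψ θ g0 p) {B : Base}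
    {H : ℕ → ℝ} (hH : ∀ n, 0 < H n) (hH0 : Tendsto H U (𝓝 0))
    (hL : ∀ n, B'.L n = H n * B.L n) {mt : ℕ → ℕ} {atop : ℕ → ι → ℕ} {t R C : ℝ} (ht : 0 < t)
    (hR : 0 ≤ R) (hC : 0 ≤ C)
    (hz : MkA B' I' G lev' A' c' Λ' (fun j v => θ j * (1 - v)) f' b' vm' w')
    (hlen : Tendsto (fun n => ((mt n : ℝ) - lev' n 0) * Real.log 2 / B.L n) U (𝓝 t))
    (hrel : ∀ j, Tendsto (fun n => (-Real.log (w' j n 0) - (lev' n 0 : ℝ) * Real.log 2 -
      ((atop n j : ℝ) - mt n) * Real.log 2) / B.L n) U (𝓝 (θ j * t)))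
    {ε : ℝ} (hε : 0 < ε) :
    ∀ᶠ n in (U : Filter ℕ), ∀ i : ℕ, |((i : ℝ) - lev' n 0) * Real.log 2| ≤ C * B'.L n →
      ∀ s : ι → ℕ, (∀ j, B'.d n ^ R * w' j n 1 ≤ (1 / 2 : ℝ) ^ (s j) ∧
        (1 / 2 : ℝ) ^ (s j) ≤ B'.d n ^ (-R) * w' j n 1) →
      Real.log 2 * |Ψ ((mt n : ℝ) - i) (rel i s (mt n) (atop n)) -
        Ψ ((mt n : ℝ) - lev' n 0) (fun j => (ee w' n 0 j - lev' n 0) - ((atop n j : ℝ) - mt n)) -
        g0 * ((lev' n 0 : ℝ) - i) -
        ∑ j, p j * (((s j : ℝ) - i) - (ee w' n 0 j - lev' n 0))| ≤ ε * B'.L n := by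
  have l2 : 0 < Real.log 2 := Real.log_pos one_lt_two
  set Θ : ℝ := ∑ j, |θ j| with hΘ
  have hΘ0 : 0 ≤ Θ := Finset.sum_nonneg fun j _ => abs_nonneg _
  have hΘj : ∀ j, |θ j| ≤ Θ := fun j =>
    Finset.single_le_sum (f := fun j => |θ j|) (fun i _ => abs_nonneg _) (Finset.mem_univ j)
  obtain ⟨κ, hκ, hcore⟩ := pure_core hΨ (t := t) (D := R + Θ + 2 + C) (ε := ε) ht (by positivity) hε
  have f1 : ∀ᶠ n in (U : Filter ℕ), H n ≤ κ := hH0.eventually (eventually_le_nhds hκ)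
  have f2 : ∀ᶠ n in (U : Filter ℕ), t / 2 ≤ ((mt n : ℝ) - lev' n 0) * Real.log 2 / B.L n :=
    hlen.eventually (eventually_ge_nhds (by linarith))
  have f3 : ∀ᶠ n in (U : Filter ℕ), ∀ j, |(-Real.log (w' j n 0) - (lev' n 0 : ℝ) * Real.log 2 -
      ((atop n j : ℝ) - mt n) * Real.log 2) / B.L n -
      θ j * (((mt n : ℝ) - lev' n 0) * Real.log 2 / B.L n)| ≤ κ := by
    rw [Filter.eventually_all]
    intro j
    have h3 := (hrel j).sub (hlen.const_mul (θ j))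
    rw [sub_self] at h3
    have h4 := h3.abs
    rw [abs_zero] at h4
    exact h4.eventually (eventually_le_nhds hκ)
  have f5 : ∀ᶠ n in (U : Filter ℕ), ∀ j,
      |((ee w' n 0 j - ee w' n 1 j) * Real.log 2) / B'.L n| ≤ Θ + 2 := by
    rw [Filter.eventually_all]
    intro j
    have h3 := (ee_lim hz le_rfl zero_le_one j).abs
    refine h3.eventually (eventually_le_nhds ?_)
    push_cast
    rw [sub_zero, mul_one]
    refine (abs_sub _ _).trans_lt ?_
    have := hΘj j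
    rw [abs_one]
    linarith
  have f6 : ∀ᶠ n in (U : Filter ℕ), ∀ j, 0 < w' j n 1 := by
    rw [Filter.eventually_all]
    exact fun j => hz.wpos j 1 zero_le_one le_rfl
  filter_upwards [f1, f2, f3, f5, f6] with n a1 a2 a3 a5 a6 i hi s hs
  have hLp := B.L_pos n
  have hLp' := B'.L_pos n
  have hHn := hH n
  have hlam : 0 < Real.log 2 / B.L n := div_pos l2 hLp
  have eL : H n = B'.L n / B.L n := by rw [hL]; field_simp
  have a4 : |((i : ℝ) - lev' n 0) * Real.log 2 / B'.L n| ≤ C := by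
    rw [abs_div, abs_of_pos hLp', div_le_iff₀ hLp']
    exact hi
  have hc := hcore (Real.log 2 / B.L n) (H n) ((mt n : ℝ) - i) ((mt n : ℝ) - lev' n 0)
    (rel i s (mt n) (atop n))
    (fun j => (ee w' n 0 j - lev' n 0) - ((atop n j : ℝ) - mt n)) hlam hHn a1
    (by rw [div_mul_eq_mul_div, mul_comm (Real.log 2)]; exact a2)
    (by
      intro j
      refine le_trans (le_of_eq ?_) (a3 j)
      congr 1
      unfold ee
      field_simp)
    (by
      have e1 : Real.log 2 / B.L n * (((mt n : ℝ) - i) - ((mt n : ℝ) - lev' n 0)) =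
          -(((i : ℝ) - lev' n 0) * Real.log 2 / B'.L n * H n) := by
        rw [hL]; field_simp; ring
      rw [e1, abs_neg, abs_mul, abs_of_pos hHn]
      nlinarith)
    (by
      intro j
      have e1 : Real.log 2 / B.L n * (rel i s (mt n) (atop n) j -
          ((ee w' n 0 j - lev' n 0) - ((atop n j : ℝ) - mt n))) =
          ((((s j : ℝ) * Real.log 2 - ee w' n 1 j * Real.log 2) / B'.L n) -
            ((ee w' n 0 j - ee w' n 1 j) * Real.log 2) / B'.L n -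
            ((i : ℝ) - lev' n 0) * Real.log 2 / B'.L n) * H n := by
        rw [hL]
        unfold rel
        field_simp
        ring
      have e2 : |((s j : ℝ) * Real.log 2 - ee w' n 1 j * Real.log 2) / B'.L n| ≤ R := by
        obtain ⟨s1, s2⟩ := hs j
        have hw := a6 j
        have d1 := B'.pos n
        have e3 : ee w' n 1 j * Real.log 2 = -Real.log (w' j n 1) := by
          unfold ee; field_simp
        have e4 : Real.log ((1 / 2 : ℝ) ^ (s j)) = -((s j : ℝ) * Real.log 2) := by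
          rw [Real.log_pow, one_div, Real.log_inv]; ring
        have e5 : ∀ a : ℝ, Real.log (B'.d n ^ a * w' j n 1) = -(a * B'.L n) + Real.log (w' j n 1) := by
          intro a
          rw [Real.log_mul (Real.rpow_pos_of_pos d1 _).ne' hw.ne', Real.log_rpow d1]
          unfold Base.L
          ring
        have s3 := Real.log_le_log (mul_pos (Real.rpow_pos_of_pos d1 _) hw) s1
        have s4 := Real.log_le_log (by positivity) s2
        rw [e5, e4] at s3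
        rw [e5, e4] at s4
        rw [abs_div, abs_of_pos hLp', div_le_iff₀ hLp', e3, abs_le]
        constructor <;> linarith
      rw [e1, abs_mul, abs_of_pos hHn]
      refine mul_le_mul_of_nonneg_right ?_ hHn.le
      refine (abs_sub _ _).trans ((add_le_add (abs_sub _ _) a4).trans ?_)
      have := a5 j
      linarith)
  have e6 : Real.log 2 / B.L n * B.L n = Real.log 2 := by field_simp
  have h7 := mul_le_mul_of_nonneg_right hc hLp.le
  rw [mul_assoc ε, ← hL] at h7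
  refine le_trans (le_of_eq ?_) h7
  have e8 : (((mt n : ℝ) - i) - ((mt n : ℝ) - lev' n 0)) = (lev' n 0 : ℝ) - i := by
    ring
  have e9 : ∀ j, rel i s (mt n) (atop n) j -
      ((ee w' n 0 j - lev' n 0) - ((atop n j : ℝ) - mt n)) =
      ((s j : ℝ) - i) - (ee w' n 0 j - lev' n 0) := fun j => by
    unfold rel; ring
  simp only [e8, e9]
  field_simp

/-- comparison of the `Ψ`-valued capacity with the linear capacity, depth and range `K1`. -/
def Cmp (B' : Base) (T : ℕ → TS Ln ι S) (Ψ : ℝ → (ι → ℝ) → ℝ) (mt : ℕ → ℕ) (atop : ℕ → ι → ℕ)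
    (lev' : ℕ → ℚ → ℕ) (w' : ι → ℕ → ℚ → ℝ) (p : ι → ℝ) (g0 : ℝ) (E K1 : ℕ → ℝ) : Prop :=
  ∀ ε : ℝ, 0 < ε → ∀ᶠ n in (U : Filter ℕ), ∀ i : ℕ,
    |((i : ℝ) - lev' n 0) * Real.log 2| ≤ K1 n * B'.L n → ∀ s : ι → ℕ,
    (∀ j, B'.d n ^ (K1 n) * w' j n 1 ≤ (1 / 2 : ℝ) ^ (s j) ∧
      (1 / 2 : ℝ) ^ (s j) ≤ B'.d n ^ (-(K1 n)) * w' j n 1) →
    capP (T n) Ψ (mt n) (atop n) i s ≤
      B'.d n ^ (-ε) * (E n * 2 ^ (g0 * ((i : ℝ) - lev' n 0))) * (T n).cap p i s

/-- comparison at fixed range and depth. -/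
theorem cmp_fix {T : ℕ → TS Ln ι S} {Ψ : ℝ → (ι → ℝ) → ℝ} {g0 : ℝ} {p : ι → ℝ}
    (hΨ : LinAt Ψ θ g0 p) {B : Base}
    {H : ℕ → ℝ} (hH : ∀ n, 0 < H n) (hH0 : Tendsto H U (𝓝 0))
    (hL : ∀ n, B'.L n = H n * B.L n) {mt : ℕ → ℕ} {atop : ℕ → ι → ℕ} {t R C : ℝ} (ht : 0 < t)
    (hR : 0 ≤ R) (hC : 0 ≤ C)
    (hz : MkA B' I' G lev' A' c' Λ' (fun j v => θ j * (1 - v)) f' b' vm' w')
    (hlen : Tendsto (fun n => ((mt n : ℝ) - lev' n 0) * Real.log 2 / B.L n) U (𝓝 t))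
    (hrel : ∀ j, Tendsto (fun n => (-Real.log (w' j n 0) - (lev' n 0 : ℝ) * Real.log 2 -
      ((atop n j : ℝ) - mt n) * Real.log 2) / B.L n) U (𝓝 (θ j * t)))
    {ε : ℝ} (hε : 0 < ε) :
    ∀ᶠ n in (U : Filter ℕ), ∀ i : ℕ, |((i : ℝ) - lev' n 0) * Real.log 2| ≤ C * B'.L n →
      ∀ s : ι → ℕ, (∀ j, B'.d n ^ R * w' j n 1 ≤ (1 / 2 : ℝ) ^ (s j) ∧
        (1 / 2 : ℝ) ^ (s j) ≤ B'.d n ^ (-R) * w' j n 1) →
      capP (T n) Ψ (mt n) (atop n) i s ≤
        B'.d n ^ (-ε) * (EE Ψ p lev' w' mt atop n * 2 ^ (g0 * ((i : ℝ) - lev' n 0))) *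
          (T n).cap p i s := by
  have l2 : 0 < Real.log 2 := Real.log_pos one_lt_two
  filter_upwards [lin_coreN hΨ hH hH0 hL ht hR hC hz hlen hrel hε] with n a1 i hi s hs
  have hLp := B'.L_pos n
  have b1 := a1 i hi s hs
  set P : ℝ := Ψ ((mt n : ℝ) - i) (rel i s (mt n) (atop n)) with hP
  set P0 : ℝ := Psi0 Ψ lev' w' mt atop n with hP0
  set X : ℝ := ∑ j, p j * ((s j : ℝ) - i) with hX
  set Y : ℝ := ∑ j, p j * (ee w' n 0 j - lev' n 0) with hY
  have e1 : ∑ j, p j * (((s j : ℝ) - i) - (ee w' n 0 j - lev' n 0)) = X - Y := by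
    rw [hX, hY, ← Finset.sum_sub_distrib]
    refine Finset.sum_congr rfl fun j _ => ?_
    ring
  rw [e1] at b1
  have b1' : Real.log 2 * |P - P0 - g0 * ((lev' n 0 : ℝ) - i) - (X - Y)| ≤ ε * B'.L n := b1
  have b3 : |Real.log 2 * (P - P0 - g0 * ((lev' n 0 : ℝ) - i) - (X - Y))| ≤ ε * B'.L n := by
    rw [abs_mul, abs_of_pos l2]; exact b1'
  rw [abs_le] at b3
  have d1 := B'.pos n
  have vp := (T n).volpos i s
  have pw : ∀ a : ℝ, (2 : ℝ) ^ a = Real.exp (Real.log 2 * a) := fun a => by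
    rw [Real.rpow_def_of_pos two_pos]
  have pd : ∀ a : ℝ, B'.d n ^ a = Real.exp (-(a * B'.L n)) := fun a => by
    rw [Real.rpow_def_of_pos d1]
    unfold Base.L
    congr 1; ring
  unfold capP TS.cap EE
  rw [← hP, ← hX, ← hP0, ← hY, pw, pw, pw, pw, pd]
  calc (T n).vol i s * Real.exp (Real.log 2 * -P)
      ≤ (T n).vol i s * Real.exp (-(-ε * B'.L n) + (Real.log 2 * (-P0 + Y) +
          Real.log 2 * (g0 * ((i : ℝ) - lev' n 0))) + Real.log 2 * -X) := by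
        refine mul_le_mul_of_nonneg_left (Real.exp_le_exp.2 ?_) vp.le
        nlinarith [b3.1, b3.2]
    _ = _ := by
        rw [Real.exp_add, Real.exp_add, Real.exp_add]; ring

/-- **the comparison on growing ranges.** -/
theorem exists_cmp {T : ℕ → TS Ln ι S} {Ψ : ℝ → (ι → ℝ) → ℝ} {g0 : ℝ} {p : ι → ℝ}
    (hΨ : LinAt Ψ θ g0 p) {B : Base}
    {H : ℕ → ℝ} (hH : ∀ n, 0 < H n) (hH0 : Tendsto H U (𝓝 0))
    (hL : ∀ n, B'.L n = H n * B.L n) {mt : ℕ → ℕ} {atop : ℕ → ι → ℕ} {t : ℝ} (ht : 0 < t)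
    (hz : MkA B' I' G lev' A' c' Λ' (fun j v => θ j * (1 - v)) f' b' vm' w')
    (hlen : Tendsto (fun n => ((mt n : ℝ) - lev' n 0) * Real.log 2 / B.L n) U (𝓝 t))
    (hrel : ∀ j, Tendsto (fun n => (-Real.log (w' j n 0) - (lev' n 0 : ℝ) * Real.log 2 -
      ((atop n j : ℝ) - mt n) * Real.log 2) / B.L n) U (𝓝 (θ j * t))) :
    ∃ K1 : ℕ → ℝ, Tendsto K1 U atTop ∧
      Cmp B' T Ψ mt atop lev' w' p g0 (EE Ψ p lev' w' mt atop) K1 := by
  classical
  obtain ⟨k, hk, hk2⟩ := exists_diag (fun k n => ∀ i : ℕ,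
      |((i : ℝ) - lev' n 0) * Real.log 2| ≤ (k : ℝ) * B'.L n →
      ∀ s : ι → ℕ, (∀ j, B'.d n ^ (k : ℝ) * w' j n 1 ≤ (1 / 2 : ℝ) ^ (s j) ∧
        (1 / 2 : ℝ) ^ (s j) ≤ B'.d n ^ (-(k : ℝ)) * w' j n 1) →
      capP (T n) Ψ (mt n) (atop n) i s ≤
        B'.d n ^ (-(1 / ((k : ℝ) + 1))) *
          (EE Ψ p lev' w' mt atop n * 2 ^ (g0 * ((i : ℝ) - lev' n 0))) *
          (T n).cap p i s) (fun k => cmp_fix hΨ hH hH0 hL ht (Nat.cast_nonneg k)
            (Nat.cast_nonneg k) hz hlen hrel (by positivity))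
  refine ⟨fun n => (k n : ℝ), tendsto_natCast_atTop_atTop.comp hk, fun ε hε => ?_⟩
  have hE : ∀ᶠ n in (U : Filter ℕ), 1 / ε ≤ (k n : ℝ) :=
    (tendsto_natCast_atTop_atTop.comp hk).eventually_ge_atTop (1 / ε)
  filter_upwards [hE, hk2] with n a2 a3 i hi s hs
  have h1 := a3 (k n) le_rfl i hi s hs
  refine h1.trans ?_
  have p1 : 0 < EE Ψ p lev' w' mt atop n := Real.rpow_pos_of_pos two_pos _
  have p2 : (0:ℝ) < 2 ^ (g0 * ((i : ℝ) - lev' n 0)) := Real.rpow_pos_of_pos two_pos _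
  have p3 := cap_pos (T n) p i s
  have h2 : B'.d n ^ (-(1 / ((k n : ℝ) + 1))) ≤ B'.d n ^ (-ε) := by
    refine dpow_le B' n ?_
    rw [neg_le_neg_iff]
    have h3 : (0 : ℝ) < (k n : ℝ) + 1 := by positivity
    rw [div_le_iff₀ h3]
    rw [div_le_iff₀ hε] at a2
    linarith
  gcongr

end

section transport

variable {Ln ι S : Type} [Fintype ι] {B : Base} {I : ℕ → Finset (ℕ × ℝ)}
    {T : ℕ → TS Ln ι S} {L : ℕ → ℕ → Ln} {lev : ℕ → ℚ → ℕ} {A : ℕ → ℝ} {g : ℝ}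
    {w : ι → ℕ → ℚ → ℝ} {Ψ : ℝ → (ι → ℝ) → ℝ} {g0 : ℝ} {p : ι → ℝ}
    {mt : ℕ → ℕ} {atop : ℕ → ι → ℕ} {E K1 K : ℕ → ℝ}

/-- `rgK` is monotone -/
theorem rgK_adm_mono {σ : Type} {G : Geo σ ι} {n i : ℕ} {J : ℤ} {s : σ}
    (hw : ∀ j, 0 ≤ w j n 1) (h : K n ≤ K1 n) (hs : (rgK B w K G).adm n i J s) :
    (rgK B w K1 G).adm n i J s :=
  ⟨hs.1, fun j => rng_mono (hw j) h (hs.2 j)⟩

open Classical in
/-- transport of `AllD` -/
theorem allD_lin (hc : Cmp B T Ψ mt atop lev w p g0 E K1) (hE : ∀ n, 0 < E n) (hA : ∀ n, 0 < A n)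
    (hK1 : Tendsto K1 U atTop) (hK : ∀ᶠ n in (U : Filter ℕ), K n ≤ K1 n)
    (hw : ∀ᶠ n in (U : Filter ℕ), ∀ j, 0 < w j n 1)
    (hlev : Tendsto (fun n => ((lev n 1 : ℝ) - lev n 0) * Real.log 2 / B.L n) U (𝓝 1))
    (h : AllD B I (geoP T Ψ mt atop L) lev A g) :
    AllD B I (rgK B w K (geo T p L)) lev (fun n => A n * E n) (g + g0) := by
  intro ε hε
  filter_upwards [h (ε / 2) (by positivity), hc (ε / 2) (by positivity), hK, hw,
    hK1.eventually_ge_atTop 2, hlev.eventually (eventually_le_nhds (show (1:ℝ) < 2 by norm_num))]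
    with n h1 h2 h3 h4 h5 h6 i hi0 hi1 J s hs
  have hL := B.L_pos n
  have l2 : 0 < Real.log 2 := Real.log_pos one_lt_two
  have hi0' : (lev n 0 : ℝ) ≤ i := by exact_mod_cast hi0
  have hi1' : (i : ℝ) ≤ lev n 1 := by exact_mod_cast hi1
  have hdist : |((i : ℝ) - lev n 0) * Real.log 2| ≤ K1 n * B.L n := by
    rw [abs_of_nonneg (mul_nonneg (by linarith) l2.le)]
    rw [div_le_iff₀ hL] at h6
    have h7 : ((i : ℝ) - lev n 0) * Real.log 2 ≤ ((lev n 1 : ℝ) - lev n 0) * Real.log 2 :=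
      mul_le_mul_of_nonneg_right (by linarith) l2.le
    have h8 : 2 * B.L n ≤ K1 n * B.L n := mul_le_mul_of_nonneg_right h5 hL.le
    linarith
  have hs' := rgK_adm_mono (K1 := K1) (fun j => (h4 j).le) h3 hs
  have k1 := h1 i hi0 hi1 J s hs.1
  have k2 := h2 i hdist s.1 hs'.2
  have pA := hA n
  have p1 := dpow_pos B n (-(ε / 2))
  have p2 : (0:ℝ) < 2 ^ (g * ((i : ℝ) - lev n 0)) := Real.rpow_pos_of_pos two_pos _
  calc (((alive (I n) i J).filter fun t => (T n).mem i J s (L n t)).card : ℝ)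
      ≤ B.d n ^ (-(ε / 2)) * (A n * 2 ^ (g * ((i : ℝ) - lev n 0))) *
          capP (T n) Ψ (mt n) (atop n) i s.1 := k1
    _ ≤ B.d n ^ (-(ε / 2)) * (A n * 2 ^ (g * ((i : ℝ) - lev n 0))) *
          (B.d n ^ (-(ε / 2)) * (E n * 2 ^ (g0 * ((i : ℝ) - lev n 0))) * (T n).cap p i s.1) :=
        mul_le_mul_of_nonneg_left k2 (by positivity)
    _ = (B.d n ^ (-(ε / 2)) * B.d n ^ (-(ε / 2))) * (A n * E n *
          (2 ^ (g * ((i : ℝ) - lev n 0)) * 2 ^ (g0 * ((i : ℝ) - lev n 0)))) *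
            (T n).cap p i s.1 := by ring
    _ = B.d n ^ (-ε) * (A n * E n * 2 ^ ((g + g0) * ((i : ℝ) - lev n 0))) *
          (T n).cap p i s.1 := by
        rw [← Real.rpow_add (B.pos n), ← Real.rpow_add two_pos]
        congr 2
        · congr 1; ring
        · congr 2; ring

open Classical in
/-- transport of D-max at bounded relative depth -/
theorem dbody_lin (hc : Cmp B T Ψ mt atop lev w p g0 E K1) (hE : ∀ n, 0 < E n)
    (hA : ∀ n, 0 < A n)
    (hK1 : Tendsto K1 U atTop) (hK : ∀ᶠ n in (U : Filter ℕ), K n ≤ K1 n)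
    (hw : ∀ᶠ n in (U : Filter ℕ), ∀ j, 0 < w j n 1)
    {v : ℚ} (hlev : Tendsto (fun n => ((lev n 1 : ℝ) - lev n 0) * Real.log 2 / B.L n) U (𝓝 1))
    (hlv : Tendsto (fun n => ((lev n v : ℝ) - lev n 0) * Real.log 2 / B.L n) U (𝓝 (v : ℝ)))
    (hv0 : ∀ᶠ n in (U : Filter ℕ), lev n 0 ≤ lev n v)
    {m : ℕ → ℕ} (hm : ∀ᶠ n in (U : Filter ℕ), lev n v ≤ m n) {C : ℝ}
    (hmC : ∀ᶠ n in (U : Filter ℕ), (m n : ℝ) ≤ lev n 1 + C * B.L n)
    {J : ℕ → Finset (ℕ × ℝ)} {ε : ℝ} (hε : 0 < ε)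
    (h : DBody B (geoP T Ψ mt atop L) lev A g v m J (ε / 3)) :
    DBody B (rgK B w K (geo T p L)) lev (fun n => A n * E n) (g + g0) v m J ε := by
  obtain ⟨P, hP1, hP2, hP3⟩ := h
  refine ⟨P, hP1, hP2, ?_⟩
  have l2 : 0 < Real.log 2 := Real.log_pos one_lt_two
  have l21 : Real.log 2 ≤ 1 := by
    have := Real.log_two_lt_d9
    linarith
  have e1 : ∀ᶠ n in (U : Filter ℕ),
      |((lev n v : ℝ) - lev n 0) * Real.log 2 / B.L n - v| ≤ ε / (3 * (|g0| + 1)) := by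
    have h4 := (hlv.sub_const (v : ℝ)).abs
    rw [sub_self, abs_zero] at h4
    exact h4.eventually (eventually_le_nhds (by positivity))
  filter_upwards [hP3, hc (ε / 3) (by positivity), hK, hw,
    hK1.eventually_ge_atTop (2 + |C|),
    hlev.eventually (eventually_le_nhds (show (1:ℝ) < 2 by norm_num)), hv0, hm, hmC, e1]
    with n h1 h2 h3 h4 h5 h6 h7 h8 h9 h10 j s hs
  have hL := B.L_pos n
  have h7' : (lev n 0 : ℝ) ≤ lev n v := by exact_mod_cast h7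
  have h8' : (lev n v : ℝ) ≤ m n := by exact_mod_cast h8
  have hdist : |((m n : ℝ) - lev n 0) * Real.log 2| ≤ K1 n * B.L n := by
    rw [abs_of_nonneg (mul_nonneg (by linarith) l2.le)]
    rw [div_le_iff₀ hL] at h6
    have h11 : ((m n : ℝ) - lev n 0) * Real.log 2 ≤
        ((lev n 1 : ℝ) - lev n 0) * Real.log 2 + (C * B.L n) * Real.log 2 := by
      rw [← add_mul]
      exact mul_le_mul_of_nonneg_right (by linarith) l2.le
    have h12 : (C * B.L n) * Real.log 2 ≤ |C| * B.L n := by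
      have h13 : C * (B.L n * Real.log 2) ≤ |C| * (B.L n * Real.log 2) :=
        mul_le_mul_of_nonneg_right (le_abs_self C) (by positivity)
      have h14 : |C| * (B.L n * Real.log 2) ≤ |C| * (B.L n * 1) :=
        mul_le_mul_of_nonneg_left (mul_le_mul_of_nonneg_left l21 hL.le) (abs_nonneg _)
      nlinarith
    have h13 : (2 + |C|) * B.L n ≤ K1 n * B.L n := mul_le_mul_of_nonneg_right h5 hL.le
    nlinarith
  have hs' := rgK_adm_mono (K1 := K1) (fun j => (h4 j).le) h3 hs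
  have k1 := h1 j s hs.1
  have k2 := h2 (m n) hdist s.1 hs'.2
  have pA := hA n
  have pE := hE n
  have p1 := dpow_pos B n (-(ε / 3))
  have pv := dpow_pos B n (-(g * v))
  have pc := cap_pos (T n) p (m n) s.1
  have p2 : (0:ℝ) < 2 ^ ((g + ε / 3) * ((m n : ℝ) - lev n v)) := Real.rpow_pos_of_pos two_pos _
  -- the factor `2 ^ (g0 (lev v - lev 0))`
  have k3 : (2 : ℝ) ^ (g0 * ((lev n v : ℝ) - lev n 0)) ≤ B.d n ^ (-(g0 * v) - ε / 3) := by
    rw [Real.rpow_def_of_pos two_pos, Real.rpow_def_of_pos (B.pos n)]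
    have e1 : Real.log (B.d n) = -B.L n := by unfold Base.L; ring
    rw [e1]
    refine Real.exp_le_exp.2 ?_
    have e2 : ((lev n v : ℝ) - lev n 0) * Real.log 2 / B.L n - v =
        (((lev n v : ℝ) - lev n 0) * Real.log 2 - v * B.L n) / B.L n := by
      field_simp
    rw [e2, abs_div, abs_of_pos hL, div_le_iff₀ hL] at h10
    have h11 : g0 * (((lev n v : ℝ) - lev n 0) * Real.log 2 - v * B.L n) ≤
        |g0| * (ε / (3 * (|g0| + 1)) * B.L n) := by
      refine (le_abs_self _).trans ?_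
      rw [abs_mul]
      exact mul_le_mul_of_nonneg_left h10 (abs_nonneg _)
    have h12 : |g0| * (ε / (3 * (|g0| + 1)) * B.L n) =
        (|g0| / (|g0| + 1)) * (ε / 3 * B.L n) := by
      field_simp
    have h13 : |g0| / (|g0| + 1) ≤ 1 := by
      rw [div_le_one (by positivity)]; linarith
    have h14 : (|g0| / (|g0| + 1)) * (ε / 3 * B.L n) ≤ 1 * (ε / 3 * B.L n) :=
      mul_le_mul_of_nonneg_right h13 (by positivity)
    nlinarith
  have k4 : (2 : ℝ) ^ (g0 * ((m n : ℝ) - lev n 0)) ≤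
      B.d n ^ (-(g0 * v) - ε / 3) * 2 ^ (g0 * ((m n : ℝ) - lev n v)) := by
    have e2 : g0 * ((m n : ℝ) - lev n 0) =
        g0 * ((lev n v : ℝ) - lev n 0) + g0 * ((m n : ℝ) - lev n v) := by ring
    rw [e2, Real.rpow_add two_pos]
    exact mul_le_mul_of_nonneg_right k3 (Real.rpow_pos_of_pos two_pos _).le
  have k5 : (2:ℝ) ^ ((g + ε / 3) * ((m n : ℝ) - lev n v)) * 2 ^ (g0 * ((m n : ℝ) - lev n v)) ≤
      2 ^ ((g + g0 + ε) * ((m n : ℝ) - lev n v)) := by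
    rw [← Real.rpow_add two_pos]
    refine Real.rpow_le_rpow_of_exponent_le (by norm_num) ?_
    nlinarith
  calc (((P n).filter fun o => o.2 = j ∧ (T n).mem (m n) j s (L n o.1)).card : ℝ)
      ≤ B.d n ^ (-(ε / 3)) * (A n * B.d n ^ (-(g * v))) *
          2 ^ ((g + ε / 3) * ((m n : ℝ) - lev n v)) *
            capP (T n) Ψ (mt n) (atop n) (m n) s.1 := k1
    _ ≤ B.d n ^ (-(ε / 3)) * (A n * B.d n ^ (-(g * v))) *
          2 ^ ((g + ε / 3) * ((m n : ℝ) - lev n v)) *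
          (B.d n ^ (-(ε / 3)) * (E n * (B.d n ^ (-(g0 * v) - ε / 3) *
            2 ^ (g0 * ((m n : ℝ) - lev n v)))) * (T n).cap p (m n) s.1) := by
        refine mul_le_mul_of_nonneg_left (k2.trans ?_) (by positivity)
        gcongr
    _ = (B.d n ^ (-(ε / 3)) * B.d n ^ (-(ε / 3)) * B.d n ^ (-(ε / 3))) * (A n * E n *
          (B.d n ^ (-(g * v)) * B.d n ^ (-(g0 * v)))) *
          (2 ^ ((g + ε / 3) * ((m n : ℝ) - lev n v)) * 2 ^ (g0 * ((m n : ℝ) - lev n v))) *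
            (T n).cap p (m n) s.1 := by
        rw [sub_eq_add_neg (-(g0 * (v:ℝ))), Real.rpow_add (B.pos n) (-(g0 * (v:ℝ)))]
        ring
    _ ≤ (B.d n ^ (-(ε / 3)) * B.d n ^ (-(ε / 3)) * B.d n ^ (-(ε / 3))) * (A n * E n *
          (B.d n ^ (-(g * v)) * B.d n ^ (-(g0 * v)))) *
          2 ^ ((g + g0 + ε) * ((m n : ℝ) - lev n v)) * (T n).cap p (m n) s.1 := by
        have pv0 := dpow_pos B n (-(g0 * v))
        gcongr
    _ = B.d n ^ (-ε) * (A n * E n * B.d n ^ (-((g + g0) * v))) *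
          2 ^ ((g + g0 + ε) * ((m n : ℝ) - lev n v)) * (T n).cap p (m n) s.1 := by
        rw [← Real.rpow_add (B.pos n), ← Real.rpow_add (B.pos n), ← Real.rpow_add (B.pos n)]
        congr 4
        · ring
        · congr 2
          ring

end transport

end Crest.Agent.R136.Lz627
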