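import Crest.Agent.R136.Lz6_627
import Crest.Agent.R136.Lz7_627

/-!
# R136 (S0187), U4, pure penalty, leaf (d) (helper627), part 9: one level beyond the short window

* `lin4` : helper627's `lin3` with D-max of the big sequence at the natural levels of the window and
  `kk` levels beyond.
* `PBody` : the bound of the deep D-max on given objects; `pbody_lin`, `pbody_cov`.
* `SubB` : helper335's `SubD`.
-/

set_option autoImplicit false
set_option linter.unusedVariables false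
set_option linter.unusedSectionVars false

open Finset Filter Topology

namespace Crest.Agent.R136.Lz627

open Crest.Agent.R138.Ex926 (Base U exists_diag exists_tendsto ev_em)
open Crest.Agent.R138.Dp76
open Crest.Agent.R138.Mk163 (zc zl rho alive own)
open Crest.Agent.R138.MkRef627 (lc mem_alive alive_mono)
open Crest.Agent.R136.MkA627
open Crest.Agent.R116.Xa794 (TS geo)
open Crest.Agent.R116.Xc794
open Crest.Agent.R116.Zl139
open Crest.Agent.R116.KF439 (Win)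
open Dia770
open XIn823

section lin

variable {Ln ι S : Type} [Fintype ι] {B : Base} {I : ℕ → Finset (ℕ × ℝ)} {T : ℕ → TS Ln ι S}
    {L : ℕ → ℕ → Ln} {lev : ℕ → ℚ → ℕ} {A : ℕ → ℝ} {g : ℝ} {θ : ι → ℝ}
    {f : ℕ → ℚ → ℕ → ℤ → ℕ} {b : ℕ → ℚ → ℕ → (ι → ℕ) × S} {vm : ℕ → ℚ → ℝ}
    {w : ι → ℕ → ℚ → ℝ} {Ψ : ℝ → (ι → ℝ) → ℝ} {g0 : ℝ} {p : ι → ℝ} {mt : ℕ → ℕ}
    {atop : ℕ → ι → ℕ} {T0 : ℝ}

open Classical in
/-- **the short window**: `Ψ`-valued and linear, with D-max at all natural levels of the window and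
`kk` levels beyond, for all the incidences of the big sequence. -/
theorem lin4
    (h : MkA B I (geoP T Ψ mt atop L) lev A (fun v => g * v) (fun v => 0 * v)
      (fun j v => θ j * (1 - v)) f b vm w)
    (hAll : AllD B I (geoP T Ψ mt atop L) lev A g) (kk : ℕ)
    (hT : TopPos B lev w mt atop θ T0) (hT0 : 1 ≤ T0) (hΨ : LinAt Ψ θ g0 p)
    (Q : ((ℕ → ℝ) × (ℕ → ℚ → ℚ)) → ℕ → ℕ → Prop)
    (hQ : ∀ (η : ℕ → ℝ) (m : ℕ → ℚ → ℚ), (∀ k, 0 < η k) →
      (∀ k, ∀ x : ℚ, 0 ≤ x → x ≤ 1 → 0 ≤ m k x ∧ m k x ≤ 1) →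
      ∀ k, ∀ᶠ n in (U : Filter ℕ), Q (η, m) k n) :
    ∃ (η : ℕ → ℝ) (m : ℕ → ℚ → ℚ) (t : ℕ → ℕ) (B' : Base) (I' : ℕ → Finset (ℕ × ℝ))
      (A' A2 : ℕ → ℝ) (vm2 : ℕ → ℚ → ℝ) (K1 : ℕ → ℝ),
      (∀ k, 0 < η k) ∧ (∀ k, η k ≤ 1) ∧ Tendsto η atTop (𝓝 0) ∧ Tendsto t U atTop ∧
      (∀ x : ℚ, Tendsto (fun k => ((m k x : ℚ) : ℝ)) atTop (𝓝 (1 / 2))) ∧
      Win B I B' I' (fun n => η (t n)) (fun n => m (t n)) ∧
      MkA B' I' (geoP T Ψ mt atop L) (fun n x => lev n (m (t n) x)) A'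
        (fun v => g * v) (fun v => 0 * v)
        (fun j v => θ j * (1 - v)) (fun n x => f n (m (t n) x)) (fun n x => b n (m (t n) x))
        (fun n x => vm n (m (t n) x)) (fun j n x => w j n (m (t n) x)) ∧
      Tendsto (fun n => ((mt n : ℝ) - lev n (m (t n) 0)) * Real.log 2 / B.L n) U
        (𝓝 (T0 - 1 / 2)) ∧
      (∀ j, Tendsto (fun n => (-Real.log (w j n (m (t n) 0)) -
        (lev n (m (t n) 0) : ℝ) * Real.log 2 - ((atop n j : ℝ) - mt n) * Real.log 2) / B.L n) U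
        (𝓝 (θ j * (T0 - 1 / 2)))) ∧
      (∀ n, A2 n = A' n * EE Ψ p (fun n x => lev n (m (t n) x))
        (fun j n x => w j n (m (t n) x)) mt atop n) ∧
      Tendsto K1 U atTop ∧
      (∀ K : ℕ → ℝ, Tendsto K U atTop → (∀ᶠ n in (U : Filter ℕ), K n ≤ K1 n) →
        MkA B' I' (rgK B' (fun j n x => w j n (m (t n) x)) K (geo T p L))
          (fun n x => lev n (m (t n) x)) A2
          (fun v => (g + g0) * v) (fun v => 0 * v)
          (fun j v => θ j * (1 - v)) (fun n x => f n (m (t n) x)) (fun n x => b n (m (t n) x))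
          vm2 (fun j n x => w j n (m (t n) x))) ∧
      (∀ ε : ℝ, 0 < ε → ∀ᶠ n in (U : Filter ℕ), ∀ i : ℕ, lev n (m (t n) 0) ≤ i →
        i ≤ lev n (m (t n) 1) + kk → ∀ (J : ℤ) (s : (ι → ℕ) × S), (geoP T Ψ mt atop L).adm n i J s →
          (((alive (I n) i J).filter fun t => (geoP T Ψ mt atop L).mem n i J s t).card : ℝ) ≤
            B'.d n ^ (-ε) * (A' n * 2 ^ (g * ((i : ℝ) - lev n (m (t n) 0)))) *
              (geoP T Ψ mt atop L).val n i J s) ∧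
      ∀ᶠ n in (U : Filter ℕ), Q (η, m) (t n) n := by
  classical
  obtain ⟨η, m, t, B', I', A', hη, hη1, hη0, htt, hpt, hW, hA', hM, hX, hD⟩ :=
    zoomAll h (a := 0) (e := 1) (by norm_num) (by norm_num) le_rfl le_rfl (allMid_of_allD hAll) kk
      (fun q k n => Q q k n ∧
      |((mt n : ℝ) - lev n (q.2 k 0)) * Real.log 2 / B.L n - (T0 - (q.2 k 0 : ℝ))| ≤
        1 / ((k : ℝ) + 1) ∧
      ∀ j, |(-Real.log (w j n (q.2 k 0)) - (lev n (q.2 k 0) : ℝ) * Real.log 2 -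
        ((atop n j : ℝ) - mt n) * Real.log 2) / B.L n - θ j * (T0 - (q.2 k 0 : ℝ))| ≤
        1 / ((k : ℝ) + 1)) (by
      intro η m hη hm k
      obtain ⟨hm0, hm1⟩ := hm k 0 le_rfl zero_le_one
      have hk : (0 : ℝ) < 1 / ((k : ℝ) + 1) := by positivity
      have e1 := (Metric.tendsto_nhds.1 (hT.len (m k 0) hm0 hm1)) _ hk
      have e2 : ∀ᶠ n in (U : Filter ℕ), ∀ j,
          |(-Real.log (w j n (m k 0)) - (lev n (m k 0) : ℝ) * Real.log 2 -
          ((atop n j : ℝ) - mt n) * Real.log 2) / B.L n - θ j * (T0 - (m k 0 : ℝ))| ≤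
          1 / ((k : ℝ) + 1) := by
        rw [Filter.eventually_all]
        intro j
        filter_upwards [(Metric.tendsto_nhds.1 (hT.rel j (m k 0) hm0 hm1)) _ hk] with n hn
        rw [Real.dist_eq] at hn
        exact hn.le
      filter_upwards [hQ η m hη hm k, e1, e2] with n a2 a3 a4
      rw [Real.dist_eq] at a3
      exact ⟨a2, a3.le, a4⟩)
  have hH : ∀ n, 0 < η (t n) := fun n => hη _
  have hH0 : Tendsto (fun n => η (t n)) U (𝓝 0) := hη0.comp htt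
  have hL : ∀ n, B'.L n = η (t n) * B.L n := fun n => by
    unfold Base.L
    rw [hW.base, Real.log_rpow (B.pos n)]
    ring
  have h1k : Tendsto (fun n => 1 / ((t n : ℝ) + 1)) U (𝓝 0) :=
    tendsto_one_div_add_atTop_nhds_zero_nat.comp htt
  have hm0 : Tendsto (fun n => ((m (t n) 0 : ℚ) : ℝ)) U (𝓝 (1 / 2)) := (hpt 0).comp htt
  have hlen : Tendsto (fun n => ((mt n : ℝ) - lev n (m (t n) 0)) * Real.log 2 / B.L n) U
      (𝓝 (T0 - 1 / 2)) := by
    have h1 : Tendsto (fun n => ((mt n : ℝ) - lev n (m (t n) 0)) * Real.log 2 / B.L n -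
        (T0 - ((m (t n) 0 : ℚ) : ℝ))) U (𝓝 0) := by
      refine squeeze_zero_norm' ?_ h1k
      filter_upwards [hD] with n hn using hn.2.1
    have h2 := h1.add (hm0.const_sub T0)
    rw [zero_add] at h2
    refine h2.congr fun n => ?_
    ring
  have hrel : ∀ j, Tendsto (fun n => (-Real.log (w j n (m (t n) 0)) -
      (lev n (m (t n) 0) : ℝ) * Real.log 2 - ((atop n j : ℝ) - mt n) * Real.log 2) / B.L n) U
      (𝓝 (θ j * (T0 - 1 / 2))) := by
    intro j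
    have h1 : Tendsto (fun n => (-Real.log (w j n (m (t n) 0)) -
        (lev n (m (t n) 0) : ℝ) * Real.log 2 - ((atop n j : ℝ) - mt n) * Real.log 2) / B.L n -
        θ j * (T0 - ((m (t n) 0 : ℚ) : ℝ))) U (𝓝 0) := by
      refine squeeze_zero_norm' ?_ h1k
      filter_upwards [hD] with n hn using hn.2.2 j
    have h2 := h1.add ((hm0.const_sub T0).const_mul (θ j))
    rw [zero_add] at h2
    refine h2.congr fun n => ?_
    ring
  set R0 : ℝ := 2 + ∑ j, |θ j| with hR0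
  have hRj : ∀ R : ℝ, R0 ≤ R → ∀ j, 1 + |θ j| < R := by
    intro R hR j
    have h1 : |θ j| ≤ ∑ j, |θ j| :=
      Finset.single_le_sum (f := fun j => |θ j|) (fun i _ => abs_nonneg _) (Finset.mem_univ j)
    rw [hR0] at hR
    linarith
  have hR0p : ∀ R : ℝ, R0 ≤ R → 0 ≤ R := by
    intro R hR
    have h1 : 0 ≤ ∑ j, |θ j| := Finset.sum_nonneg fun j _ => abs_nonneg _
    rw [hR0] at hR
    linarith
  have hlin : ∀ R : ℝ, R0 ≤ R →
      MkA B' I' (rg B' (fun j n x => w j n (m (t n) x)) R (geo T p L))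
        (fun n x => lev n (m (t n) x)) (fun n => A' n * EE Ψ p (fun n x => lev n (m (t n) x))
          (fun j n x => w j n (m (t n) x)) mt atop n)
        (fun v => (g + g0) * v) (fun v => 0 * v)
        (fun j v => θ j * (1 - v)) (fun n x => f n (m (t n) x)) (fun n x => b n (m (t n) x))
        (vm2 T p (fun n x => lev n (m (t n) x)) (fun j n x => w j n (m (t n) x)))
        (fun j n x => w j n (m (t n) x)) := by
    intro R hR
    have h1 := lin_of (lev' := fun n x => lev n (m (t n) x)) (w' := fun j n x => w j n (m (t n) x))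
      (t := T0 - 1 / 2) (R := R) hΨ hH hH0 hL (by linarith) (hRj R hR) (hR0p R hR) hM hlen hrel
    refine h1.congr (fun v _ _ => ?_) (fun j v _ _ => rfl)
    ring
  obtain ⟨K1, hK1, hK⟩ := growK (R0 := R0) hlin
  exact ⟨η, m, t, B', I', A', _, _, K1, hη, hη1, hη0, htt, hpt, hW, hM, hlen, hrel,
    fun n => rfl, hK1, hK, hX, hD.mono fun n hn => hn.1⟩

end lin

/-- the bound of the deep D-max on given objects -/
def PBody {σ κ : Type} (B : Base) (G : Geo σ κ) (lev : ℕ → ℚ → ℕ) (A : ℕ → ℝ) (g : ℝ)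
    (v : ℚ) (m : ℕ → ℕ) (P : ℕ → Finset (ℕ × ℤ)) (ε : ℝ) : Prop :=
  open Classical in
  ∀ᶠ n in (U : Filter ℕ), ∀ (j : ℤ) (s : σ), G.adm n (m n) j s →
      (((P n).filter fun o => o.2 = j ∧ G.mem n (m n) j s o.1).card : ℝ) ≤
        B.d n ^ (-ε) * (A n * B.d n ^ (-(g * v))) *
          2 ^ ((g + ε) * ((m n : ℝ) - lev n v)) * G.val n (m n) j s

open Classical in
/-- helper335's `SubD` -/
def SubB {σ κ : Type} (B : Base) (I : ℕ → Finset (ℕ × ℝ)) (G : Geo σ κ) (lev : ℕ → ℚ → ℕ)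
    (A : ℕ → ℝ) (g : ℝ) (v : ℚ) (k : ℕ) : Prop :=
  ∀ ε : ℝ, 0 < ε → ∃ P : ℕ → Finset (ℕ × ℤ),
    (∀ᶠ n in (U : Filter ℕ), ∀ x ∈ I n, ∃ j : ℤ, j / 2 ^ k = zc (lev n v) x.2 ∧ (x.1, j) ∈ P n) ∧
    ∀ᶠ n in (U : Filter ℕ), ∀ (j : ℤ) (s : σ), G.adm n (lev n v + k) j s →
      (((P n).filter fun o => o.2 = j ∧ G.mem n (lev n v + k) j s o.1).card : ℝ) ≤
        B.d n ^ (-ε) * (A n * B.d n ^ (-(g * v))) * 2 ^ ((g + ε) * k) *
          G.val n (lev n v + k) j s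

/-- `SubB` from `PBody` -/
theorem subB_of {σ κ : Type} {B : Base} {I : ℕ → Finset (ℕ × ℝ)} {G : Geo σ κ} {lev : ℕ → ℚ → ℕ}
    {A : ℕ → ℝ} {g : ℝ} {v : ℚ} {k : ℕ} {P : ℕ → Finset (ℕ × ℤ)}
    (hP : ∀ᶠ n in (U : Filter ℕ), ∀ x ∈ I n, ∃ j : ℤ, j / 2 ^ k = zc (lev n v) x.2 ∧ (x.1, j) ∈ P n)
    (h : ∀ ε : ℝ, 0 < ε → PBody B G lev A g v (fun n => lev n v + k) P ε) :
    SubB B I G lev A g v k := by
  intro ε hε
  refine ⟨P, hP, ?_⟩
  filter_upwards [h ε hε] with n hn j s hs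
  have h1 := hn j s hs
  have e1 : (((fun n => lev n v + k) n : ℕ) : ℝ) - lev n v = k := by
    show ((lev n v + k : ℕ) : ℝ) - lev n v = k
    push_cast; ring
  rw [e1] at h1
  exact h1

section transport

variable {Ln ι S : Type} [Fintype ι] {B : Base} {I : ℕ → Finset (ℕ × ℝ)}
    {T : ℕ → TS Ln ι S} {L : ℕ → ℕ → Ln} {lev : ℕ → ℚ → ℕ} {A : ℕ → ℝ} {g : ℝ}
    {w : ι → ℕ → ℚ → ℝ} {Ψ : ℝ → (ι → ℝ) → ℝ} {g0 : ℝ} {p : ι → ℝ}
    {mt : ℕ → ℕ} {atop : ℕ → ι → ℕ} {E K1 K : ℕ → ℝ}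

open Classical in
/-- transport of the bound on given objects -/
theorem pbody_lin (hc : Cmp B T Ψ mt atop lev w p g0 E K1) (hE : ∀ n, 0 < E n)
    (hA : ∀ n, 0 < A n)
    (hK1 : Tendsto K1 U atTop) (hK : ∀ᶠ n in (U : Filter ℕ), K n ≤ K1 n)
    (hw : ∀ᶠ n in (U : Filter ℕ), ∀ j, 0 < w j n 1)
    {v : ℚ} (hlev : Tendsto (fun n => ((lev n 1 : ℝ) - lev n 0) * Real.log 2 / B.L n) U (𝓝 1))
    (hlv : Tendsto (fun n => ((lev n v : ℝ) - lev n 0) * Real.log 2 / B.L n) U (𝓝 (v : ℝ)))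
    (hv0 : ∀ᶠ n in (U : Filter ℕ), lev n 0 ≤ lev n v)
    {m : ℕ → ℕ} (hm : ∀ᶠ n in (U : Filter ℕ), lev n v ≤ m n) {C : ℝ}
    (hmC : ∀ᶠ n in (U : Filter ℕ), (m n : ℝ) ≤ lev n 1 + C * B.L n)
    {P : ℕ → Finset (ℕ × ℤ)} {ε : ℝ} (hε : 0 < ε)
    (hP3 : PBody B (geoP T Ψ mt atop L) lev A g v m P (ε / 3)) :
    PBody B (rgK B w K (geo T p L)) lev (fun n => A n * E n) (g + g0) v m P ε := by
  have l2 : 0 < Real.log 2 := Real.log_pos one_lt_two
  have l21 : Real.log 2 ≤ 1 := by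
    have := Real.log_two_lt_d9
    linarith
  have e1 : ∀ᶠ n in (U : Filter ℕ),
      |((lev n v : ℝ) - lev n 0) * Real.log 2 / B.L n - v| ≤ ε / (3 * (|g0| + 1)) := by
    have h4 := (hlv.sub_const (v : ℝ)).abs
    rw [sub_self, abs_zero] at h4
    exact h4.eventually (eventually_le_nhds (by positivity))
  filter_upwards [hP3, hc (ε / 3) (by positivity), hK, hw,
    hK1.eventually_ge_atTop (2 + |C|),
    hlev.eventually (eventually_le_nhds (show (1:ℝ) < 2 by norm_num)), hv0, hm, hmC, e1]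
    with n h1 h2 h3 h4 h5 h6 h7 h8 h9 h10 j s hs
  have hL := B.L_pos n
  have h7' : (lev n 0 : ℝ) ≤ lev n v := by exact_mod_cast h7
  have h8' : (lev n v : ℝ) ≤ m n := by exact_mod_cast h8
  have hdist : |((m n : ℝ) - lev n 0) * Real.log 2| ≤ K1 n * B.L n := by
    rw [abs_of_nonneg (mul_nonneg (by linarith) l2.le)]
    rw [div_le_iff₀ hL] at h6
    have h11 : ((m n : ℝ) - lev n 0) * Real.log 2 ≤
        ((lev n 1 : ℝ) - lev n 0) * Real.log 2 + (C * B.L n) * Real.log 2 := by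
      rw [← add_mul]
      exact mul_le_mul_of_nonneg_right (by linarith) l2.le
    have h12 : (C * B.L n) * Real.log 2 ≤ |C| * B.L n := by
      have h13 : C * (B.L n * Real.log 2) ≤ |C| * (B.L n * Real.log 2) :=
        mul_le_mul_of_nonneg_right (le_abs_self C) (by positivity)
      have h14 : |C| * (B.L n * Real.log 2) ≤ |C| * (B.L n * 1) :=
        mul_le_mul_of_nonneg_left (mul_le_mul_of_nonneg_left l21 hL.le) (abs_nonneg _)
      nlinarith
    have h13 : (2 + |C|) * B.L n ≤ K1 n * B.L n := mul_le_mul_of_nonneg_right h5 hL.le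
    nlinarith
  have hs' := rgK_adm_mono (K1 := K1) (fun j => (h4 j).le) h3 hs
  have k1 := h1 j s hs.1
  have k2 := h2 (m n) hdist s.1 hs'.2
  have pA := hA n
  have pE := hE n
  have p1 := dpow_pos B n (-(ε / 3))
  have pv := dpow_pos B n (-(g * v))
  have pc := cap_pos (T n) p (m n) s.1
  have p2 : (0:ℝ) < 2 ^ ((g + ε / 3) * ((m n : ℝ) - lev n v)) := Real.rpow_pos_of_pos two_pos _
  -- the factor `2 ^ (g0 (lev v - lev 0))`
  have k3 : (2 : ℝ) ^ (g0 * ((lev n v : ℝ) - lev n 0)) ≤ B.d n ^ (-(g0 * v) - ε / 3) := by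
    rw [Real.rpow_def_of_pos two_pos, Real.rpow_def_of_pos (B.pos n)]
    have e1 : Real.log (B.d n) = -B.L n := by unfold Base.L; ring
    rw [e1]
    refine Real.exp_le_exp.2 ?_
    have e2 : ((lev n v : ℝ) - lev n 0) * Real.log 2 / B.L n - v =
        (((lev n v : ℝ) - lev n 0) * Real.log 2 - v * B.L n) / B.L n := by
      field_simp
    rw [e2, abs_div, abs_of_pos hL, div_le_iff₀ hL] at h10
    have h11 : g0 * (((lev n v : ℝ) - lev n 0) * Real.log 2 - v * B.L n) ≤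
        |g0| * (ε / (3 * (|g0| + 1)) * B.L n) := by
      refine (le_abs_self _).trans ?_
      rw [abs_mul]
      exact mul_le_mul_of_nonneg_left h10 (abs_nonneg _)
    have h12 : |g0| * (ε / (3 * (|g0| + 1)) * B.L n) =
        (|g0| / (|g0| + 1)) * (ε / 3 * B.L n) := by
      field_simp
    have h13 : |g0| / (|g0| + 1) ≤ 1 := by
      rw [div_le_one (by positivity)]; linarith
    have h14 : (|g0| / (|g0| + 1)) * (ε / 3 * B.L n) ≤ 1 * (ε / 3 * B.L n) :=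
      mul_le_mul_of_nonneg_right h13 (by positivity)
    nlinarith
  have k4 : (2 : ℝ) ^ (g0 * ((m n : ℝ) - lev n 0)) ≤
      B.d n ^ (-(g0 * v) - ε / 3) * 2 ^ (g0 * ((m n : ℝ) - lev n v)) := by
    have e2 : g0 * ((m n : ℝ) - lev n 0) =
        g0 * ((lev n v : ℝ) - lev n 0) + g0 * ((m n : ℝ) - lev n v) := by ring
    rw [e2, Real.rpow_add two_pos]
    exact mul_le_mul_of_nonneg_right k3 (Real.rpow_pos_of_pos two_pos _).le
  have k5 : (2:ℝ) ^ ((g + ε / 3) * ((m n : ℝ) - lev n v)) * 2 ^ (g0 * ((m n : ℝ) - lev n v)) ≤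
      2 ^ ((g + g0 + ε) * ((m n : ℝ) - lev n v)) := by
    rw [← Real.rpow_add two_pos]
    refine Real.rpow_le_rpow_of_exponent_le (by norm_num) ?_
    nlinarith
  calc (((P n).filter fun o => o.2 = j ∧ (T n).mem (m n) j s (L n o.1)).card : ℝ)
      ≤ B.d n ^ (-(ε / 3)) * (A n * B.d n ^ (-(g * v))) *
          2 ^ ((g + ε / 3) * ((m n : ℝ) - lev n v)) *
            capP (T n) Ψ (mt n) (atop n) (m n) s.1 := k1
    _ ≤ B.d n ^ (-(ε / 3)) * (A n * B.d n ^ (-(g * v))) *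
          2 ^ ((g + ε / 3) * ((m n : ℝ) - lev n v)) *
          (B.d n ^ (-(ε / 3)) * (E n * (B.d n ^ (-(g0 * v) - ε / 3) *
            2 ^ (g0 * ((m n : ℝ) - lev n v)))) * (T n).cap p (m n) s.1) := by
        refine mul_le_mul_of_nonneg_left (k2.trans ?_) (by positivity)
        gcongr
    _ = (B.d n ^ (-(ε / 3)) * B.d n ^ (-(ε / 3)) * B.d n ^ (-(ε / 3))) * (A n * E n *
          (B.d n ^ (-(g * v)) * B.d n ^ (-(g0 * v)))) *
          (2 ^ ((g + ε / 3) * ((m n : ℝ) - lev n v)) * 2 ^ (g0 * ((m n : ℝ) - lev n v))) *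
            (T n).cap p (m n) s.1 := by
        rw [sub_eq_add_neg (-(g0 * (v:ℝ))), Real.rpow_add (B.pos n) (-(g0 * (v:ℝ)))]
        ring
    _ ≤ (B.d n ^ (-(ε / 3)) * B.d n ^ (-(ε / 3)) * B.d n ^ (-(ε / 3))) * (A n * E n *
          (B.d n ^ (-(g * v)) * B.d n ^ (-(g0 * v)))) *
          2 ^ ((g + g0 + ε) * ((m n : ℝ) - lev n v)) * (T n).cap p (m n) s.1 := by
        have pv0 := dpow_pos B n (-(g0 * v))
        gcongr
    _ = B.d n ^ (-ε) * (A n * E n * B.d n ^ (-((g + g0) * v))) *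
          2 ^ ((g + g0 + ε) * ((m n : ℝ) - lev n v)) * (T n).cap p (m n) s.1 := by
        rw [← Real.rpow_add (B.pos n), ← Real.rpow_add (B.pos n), ← Real.rpow_add (B.pos n)]
        congr 4
        · ring
        · congr 2
          ring

end transport

section

variable {σ1 σ2 κ : Type} {π : σ1 → σ2} {B : Base} {lo : ℕ → ℕ} {L : ℕ → Finset ℕ} {K0 : ℝ}
  {G1 : Geo σ1 κ} {G2 : Geo σ2 κ} {I : ℕ → Finset (ℕ × ℝ)} {lev : ℕ → ℚ → ℕ} {A : ℕ → ℝ}

open Classical in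
theorem pbody_cov (hc : CovP π K0 lo L G1 G2) (hK0 : 1 ≤ K0)
    (hlo : ∀ᶠ n in (U : Filter ℕ), lo n ≤ lev n 0)
    (hmono : ∀ v : ℚ, 0 ≤ v → v ≤ 1 → ∀ᶠ n in (U : Filter ℕ), lev n 0 ≤ lev n v)
    (hA : ∀ n, 0 < A n) {g : ℝ} {v : ℚ} (hv0 : 0 ≤ v) (hv1 : v ≤ 1) {m : ℕ → ℕ}
    (hm : ∀ᶠ n in (U : Filter ℕ), lev n v ≤ m n) {P : ℕ → Finset (ℕ × ℤ)}
    (hPLc : ∀ᶠ n in (U : Filter ℕ), ∀ o ∈ P n, o.1 ∈ L n)
    {ε : ℝ} (hε : 0 < ε) (hP3 : PBody B G1 lev A g v m P (ε / 2)) :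
    PBody B G2 lev A g v m P ε := by
  filter_upwards [ev_const_le B (K0 * K0) (show 0 < ε / 2 by positivity), hP3, hlo,
    hmono v hv0 hv1, hm, hPLc, hc.cov] with n h1 h2 h3 h4 h6 hPL h8
  intro j s hs
  have hAn := hA n
  have hp : 0 < B.d n ^ (-(ε / 2)) := Real.rpow_pos_of_pos (B.pos n) _
  have hpv : 0 < B.d n ^ (-(g * v)) := Real.rpow_pos_of_pos (B.pos n) _
  have key : ∀ Q : Finset (ℕ × ℤ), (∀ o ∈ Q, o.2 = j) → (Q.image Prod.fst).card = Q.card := by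
    intro Q hQ
    refine card_image_of_injOn fun o ho o' ho' hoo => ?_
    exact Prod.ext hoo ((hQ o ho).trans (hQ o' ho').symm)
  set Q := (P n).filter fun o => o.2 = j ∧ G2.mem n (m n) j s o.1 with hQ
  have h5 := one_cov (G1 := G1) (G2 := G2) (T := Q.image Prod.fst)
    (D := B.d n ^ (-(ε / 2)) * (A n * B.d n ^ (-(g * v))) *
      2 ^ ((g + ε / 2) * ((m n : ℝ) - lev n v))) hK0 (by positivity)
    (h8 (m n) (h3.trans (h4.trans h6)) j s hs (Q.image Prod.fst) (fun t ht => by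
      obtain ⟨o, ho, rfl⟩ := mem_image.1 ht
      exact hPL o (mem_filter.1 ho).1) (fun t ht => by
      obtain ⟨o, ho, rfl⟩ := mem_image.1 ht
      exact (mem_filter.1 ho).2.2))
    (fun s' hs' T' hT' hmm => by
      refine le_trans ?_ (h2 j s' hs')
      have e1 : T'.card = ((T'.image fun t => (t, j)).card) := by
        rw [card_image_of_injective]
        intro a b hab
        exact (Prod.ext_iff.1 hab).1
      rw [e1]
      refine Nat.cast_le.2 (card_le_card fun o ho => ?_)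
      obtain ⟨t, ht, rfl⟩ := mem_image.1 ho
      obtain ⟨o', ho', hoo⟩ := mem_image.1 (hT' ht)
      rw [hQ, mem_filter] at ho'
      have e2 : o' = (t, j) := Prod.ext hoo ho'.2.1
      rw [mem_filter, ← e2]
      refine ⟨ho'.1, ho'.2.1, ?_⟩
      rw [e2]; exact hmm t ht) h1
  rw [key Q (fun o ho => (mem_filter.1 ho).2.1)] at h5
  have hmv : (lev n v : ℝ) ≤ m n := by exact_mod_cast h6
  have e3 : (2:ℝ) ^ ((g + ε / 2) * ((m n : ℝ) - lev n v)) ≤
      2 ^ ((g + ε) * ((m n : ℝ) - lev n v)) := by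
    refine Real.rpow_le_rpow_of_exponent_le (by norm_num) ?_
    nlinarith
  have hv : 0 ≤ G2.val n (m n) j s := by
    have hX : 0 < B.d n ^ (-(ε / 2)) * (B.d n ^ (-(ε / 2)) * (A n * B.d n ^ (-(g * v))) *
      2 ^ ((g + ε / 2) * ((m n : ℝ) - lev n v))) := by positivity
    have h9 : (0:ℝ) ≤ (Q.card : ℝ) := Nat.cast_nonneg _
    by_contra hneg
    have h10 := mul_neg_of_pos_of_neg hX (not_le.1 hneg)
    linarith
  calc ((Q.card : ℕ) : ℝ) ≤ B.d n ^ (-(ε / 2)) * (B.d n ^ (-(ε / 2)) *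
        (A n * B.d n ^ (-(g * v))) * 2 ^ ((g + ε / 2) * ((m n : ℝ) - lev n v))) *
          G2.val n (m n) j s := h5
    _ ≤ B.d n ^ (-(ε / 2)) * (B.d n ^ (-(ε / 2)) * (A n * B.d n ^ (-(g * v))) *
        2 ^ ((g + ε) * ((m n : ℝ) - lev n v))) * G2.val n (m n) j s := by gcongr
    _ = (B.d n ^ (-(ε / 2)) * B.d n ^ (-(ε / 2))) * (A n * B.d n ^ (-(g * v))) *
        2 ^ ((g + ε) * ((m n : ℝ) - lev n v)) * G2.val n (m n) j s := by ring
    _ = _ := by rw [rpow_half n (ε := ε)]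

end

end Crest.Agent.R136.Lz627
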