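import Crest.Agent.R136.Lz8_627
import Crest.Agent.R136.Lz9_627
import Crest.Agent.R136.DAl_879
import Crest.Agent.R136.DAl7_879
import Crest.Agent.R136.Dd1_325

/-!
# R136 (S0187), U4, route G, leaf (G2) (helper627), part 10: all fields of `J1c`

* `dall36` : (DD), D-max at the marked levels for all sheets, two-sided exponents (`DAl879.DAll`).
* `dallK36` : the same `kk` levels deeper (`DAl879.DAllK`, text of helper685).
* `OutD` : `mka`, `alld`, `sub7` (helper335), `dall`, `dall7`, `wrs`, `r0pos`, `r0log`, `vel`.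
* **`out_of2`** : `XOutF TT36 Ψ ψ κ g θ`, `LinAt Ψ θ g0 p`, `LipR`, `TwoS Ψ qm qp` ⊢ `OutD`.
-/

set_option autoImplicit false
set_option linter.unusedVariables false
set_option linter.unusedSectionVars false

open Finset Filter Topology

namespace Crest.Agent.R136.Lz627

open Sh605 K4 KS879 En879 XA248 Win823 Cod289
open Crest.Agent.R138.Ex926 (Base U exists_diag exists_tendsto ev_em)
open Crest.Agent.R138.Dp76
open Crest.Agent.R138.Mk163 (zc zl rho alive own)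
open Crest.Agent.R138.MkRef627 (lc mem_alive alive_mono)
open Crest.Agent.R136.MkA627
open Crest.Agent.R116.Xa794 (TS geo)
open Crest.Agent.R116.Xc794
open Crest.Agent.R116.Zl139
open Dia770
open Yc953 (XOutF)
open Tq879 (TS36 TT36)
open AllD823 (LipR allD_P)
open XIn823
open Phc248 (ph phC phC_mono phC_nonneg)
open DAl879 (DAll DAllK vmk)
open Pen325 (TwoS capP_twoS)

/-- two-sided capacity -/
theorem capP_phC {r : ℝ} {Ψ : ℝ → (Fin 3 → ℝ) → ℝ} {qm qp : Fin 3 → ℝ} (hΨ : TwoS Ψ qm qp)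
    (mt : ℕ) (atop : Fin 3 → ℕ) (i : ℕ) (u v : Fin 3 → ℕ) :
    capP (TS36 r) Ψ mt atop i v ≤ capP (TS36 r) Ψ mt atop i u *
      phC qm qp ((1 / 2 : ℝ) ^ (u 0)) ((1 / 2 : ℝ) ^ (u 1)) ((1 / 2 : ℝ) ^ (u 2))
        ((1 / 2 : ℝ) ^ (v 0)) ((1 / 2 : ℝ) ^ (v 1)) ((1 / 2 : ℝ) ^ (v 2)) := by
  refine (capP_twoS hΨ mt atop i u v).trans (le_of_eq ?_)
  rw [Fin.prod_univ_three]
  rfl

/-- **(DD)** in the short window. -/
theorem dall36 {B : Base} {I : ℕ → Finset (ℕ × ℝ)} {T : ℕ → TS Ln4 (Fin 3) Plk4} {r : ℕ → ℝ}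
    {R : ℕ → ℕ} {L : ℕ → ℕ → Ln4} {mt : ℕ → ℕ} {atop : ℕ → Fin 3 → ℕ} {lev : ℕ → ℚ → ℕ}
    {A A2 : ℕ → ℝ} {f : ℕ → ℚ → ℕ → ℤ → ℕ} {b : ℕ → ℚ → ℕ → (Fin 3 → ℕ) × Plk4}
    {vm vm2 : ℕ → ℚ → ℝ} {w : Fin 3 → ℕ → ℚ → ℝ} {Ψ : ℝ → (Fin 3 → ℝ) → ℝ} {g g0 : ℝ}
    {p θ qm qp : Fin 3 → ℝ} {K : ℕ → ℝ} (hTr : ∀ n, T n = TS36 (r n))
    (hT : ∀ n, Is36 (T n) (R n))
    (h : MkA B I (geoP T Ψ mt atop L) lev A (fun v => g * v) (fun v => 0 * v)
      (fun j v => θ j * (1 - v)) f b vm w)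
    (h2 : MkA B I (rgK B w K (geo T p L)) lev A2 (fun v => (g + g0) * v) (fun v => 0 * v)
      (fun j v => θ j * (1 - v)) f b vm2 w)
    (hq : ∀ k, 0 ≤ qm k ∧ qm k ≤ qp k) (hΨ : TwoS Ψ qm qp)
    (vel : ∀ᶠ n in (U : Filter ℕ), ∀ x ∈ I n, ∀ i, |(L n x.1).v i| ≤ 1) :
    DAll B I L lev A2 (g + g0) p (fun n => (1 / 2 : ℝ) ^ (R n)) w qm qp := by
  classical
  intro v h0 h1 ε hε
  have he : 0 < ε / 4 := by positivity
  filter_upwards [ev_const_le B (K0N p) he, h.dmax v h0 h1 (ε / 4) he, h.near v h0 h1 (ε / 4) he,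
    h.mark v h0 h1, h2.dmax v h0 h1 (ε / 4) he, h2.mark v h0 h1, h.ne, vel]
    with n c1 c2 c3 c4 c5 c6 c7 c8
  intro j s hS hw1
  set O := (alive (I n) (lev n v) j).filter fun t =>
    InSheet (L n t) s.e s.c s.w s.q s.a (zl (lev n v) j) (rho (lev n v)) with hO
  have hOv : ∀ t ∈ O, InSheet (L n t) s.e s.c s.w s.q s.a (zl (lev n v) j) (rho (lev n v)) ∧
      ∀ k, |(L n t).v k| ≤ 1 := by
    intro t ht
    rw [hO, mem_filter] at ht
    obtain ⟨x, hx, hx1, -⟩ := mem_alive.1 ht.1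
    refine ⟨ht.2, ?_⟩
    rw [← hx1]; exact c8 x hx
  obtain ⟨s', b1, b2, -, O', d1, d2, d3⟩ := rnd36 (hT n) p hS hw1 (L n) O hOv
  -- the mark
  obtain ⟨x, hx⟩ := c7
  have hal : x.1 ∈ alive (I n) (lev n v) (zc (lev n v) x.2) := mem_alive.2 ⟨x, hx, rfl, rfl⟩
  obtain ⟨m1, m2, m3, m4⟩ := c4 _ _ hal
  obtain ⟨n1, n2, n3, n4⟩ := c6 _ _ hal
  set mk := b n v (f n v x.1 (zc (lev n v) x.2)) with hmk
  have m3' : capP (T n) Ψ (mt n) (atop n) (lev n v) mk.1 = vm n v := m3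
  have m4' : ∀ k, (1 / 2 : ℝ) ^ (mk.1 k) = w k n v := m4
  have n3' : (T n).cap p (lev n v) mk.1 = vm2 n v := n3
  have hwp : ∀ k, 0 < w k n v := fun k => by rw [← m4' k]; positivity
  -- D-max over `geoP`
  have k1 : (O'.card : ℝ) ≤ B.d n ^ (-(ε / 4)) * (A n * B.d n ^ (-(g * v))) *
      capP (T n) Ψ (mt n) (atop n) (lev n v) s'.1 := by
    refine le_trans (Nat.cast_le.2 (card_le_card fun t ht => ?_)) (c2 j s' b1)
    have h3 := d1 ht
    rw [hO, mem_filter] at h3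
    exact mem_filter.2 ⟨h3.1, d2 t ht⟩
  -- the ratio
  have hs'w : ∀ k, wd s'.2 k = (1 / 2 : ℝ) ^ (s'.1 k) := (((hT n).adm _ _ _).1 b1).2.2
  have k2 : capP (T n) Ψ (mt n) (atop n) (lev n v) s'.1 ≤ vm n v *
      phC qm qp (w 0 n v) (w 1 n v) (w 2 n v) (wd s'.2 0) (wd s'.2 1) (wd s'.2 2) := by
    have h3 := capP_phC (r := r n) hΨ (mt n) (atop n) (lev n v) mk.1 s'.1
    rw [← hTr n, m3', m4', m4', m4', ← hs'w 0, ← hs'w 1, ← hs'w 2] at h3
    exact h3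
  have hp0 : ∀ k, 0 ≤ wd s'.2 k := fun k => by rw [hs'w]; positivity
  have k3 : phC qm qp (w 0 n v) (w 1 n v) (w 2 n v) (wd s'.2 0) (wd s'.2 1) (wd s'.2 2) ≤
      phC qm qp (w 0 n v) (w 1 n v) (w 2 n v) s.a (s.w 1) (s.w 2) :=
    phC_mono (fun k => (hq k).1) (fun k => (hq k).1.trans (hq k).2) (hwp 0).le (hwp 1).le
      (hwp 2).le (hp0 0) (hp0 1) (hp0 2) (b2 0).1 (b2 1).1 (b2 2).1
  have pC0 : 0 ≤ phC qm qp (w 0 n v) (w 1 n v) (w 2 n v) (wd s'.2 0) (wd s'.2 1) (wd s'.2 2) :=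
    phC_nonneg (hwp 0).le (hwp 1).le (hwp 2).le (hp0 0) (hp0 1) (hp0 2)
  -- the amplitudes
  have k4 : A n * B.d n ^ (-(g * v)) * vm n v ≤ B.d n ^ (-(ε / 4)) *
      (B.d n ^ (-(ε / 4)) * (A2 n * B.d n ^ (-((g + g0) * v))) * vm2 n v) := by
    refine (c3 _ _ hal).trans (mul_le_mul_of_nonneg_left ?_ (dpow_pos B n _).le)
    have h3 := c5 _ mk n2
    have e3 : (rgK B w K (geo T p L)).val n (lev n v) (zc (lev n v) x.2) mk = vm2 n v := n3
    rw [e3] at h3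
    refine le_trans (Nat.cast_le.2 (card_le_card fun t ht => ?_)) h3
    rw [mem_filter] at ht
    refine mem_filter.2 ⟨ht.1, ?_⟩
    have h4 := (c6 _ _ ht.1).1
    rw [ht.2] at h4
    exact h4
  have hvmk : vmk p (rho (lev n v)) (w 0 n v) (w 1 n v) (w 2 n v) = vm2 n v := by
    have hmw : ∀ k, wd mk.2 k = (1 / 2 : ℝ) ^ (mk.1 k) := (((hT n).adm _ _ _).1 m2).2.2
    have h3 := cap36 (hT n) p (lev n v) (s := mk) hmw
    rw [n3'] at h3
    rw [← h3]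
    have e0 : mk.2.a = w 0 n v := (hmw 0).trans (m4' 0)
    have e1 : mk.2.w 1 = w 1 n v := (hmw 1).trans (m4' 1)
    have e2 : mk.2.w 2 = w 2 n v := (hmw 2).trans (m4' 2)
    unfold vmk
    rw [e0, e1, e2]
  have pA : 0 < A n * B.d n ^ (-(g * v)) := mul_pos (h.Apos n) (dpow_pos B n _)
  have pd := dpow_pos B n (-(ε / 4))
  have pA2 : 0 < A2 n * B.d n ^ (-((g + g0) * v)) := mul_pos (h2.Apos n) (dpow_pos B n _)
  have pv2 : 0 < vm2 n v := by rw [← n3']; exact cap_pos _ _ _ _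
  have pvm : 0 < vm n v := by
    rw [← m3']
    unfold capP
    exact mul_pos ((T n).volpos _ _) (Real.rpow_pos_of_pos two_pos _)
  have pK : 0 < K0N p := lt_of_lt_of_le one_pos (K0N_ge p)
  set X := phC qm qp (w 0 n v) (w 1 n v) (w 2 n v) s.a (s.w 1) (s.w 2) with hX
  have pX : 0 ≤ X := pC0.trans k3
  rw [hvmk]
  calc (O.card : ℝ) ≤ K0N p * (O'.card : ℝ) := d3
    _ ≤ B.d n ^ (-(ε / 4)) * (B.d n ^ (-(ε / 4)) * (A n * B.d n ^ (-(g * v))) * (vm n v * X)) := by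
        refine mul_le_mul c1 ?_ (Nat.cast_nonneg _) pd.le
        refine k1.trans (mul_le_mul_of_nonneg_left ?_ (by positivity))
        exact k2.trans (mul_le_mul_of_nonneg_left k3 pvm.le)
    _ = B.d n ^ (-(ε / 4)) * B.d n ^ (-(ε / 4)) * X * (A n * B.d n ^ (-(g * v)) * vm n v) := by
        ring
    _ ≤ B.d n ^ (-(ε / 4)) * B.d n ^ (-(ε / 4)) * X * (B.d n ^ (-(ε / 4)) *
          (B.d n ^ (-(ε / 4)) * (A2 n * B.d n ^ (-((g + g0) * v))) * vm2 n v)) :=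
        mul_le_mul_of_nonneg_left k4 (by positivity)
    _ = (B.d n ^ (-(ε / 4)) * B.d n ^ (-(ε / 4)) * (B.d n ^ (-(ε / 4)) * B.d n ^ (-(ε / 4)))) *
          (A2 n * B.d n ^ (-((g + g0) * v)) * vm2 n v) * X := by ring
    _ = _ := by
        rw [← dpow_add, ← dpow_add]
        congr 3
        ring

/-- the capacity of the same shape `k` levels deeper. -/
theorem capP_level {T : TS Ln4 (Fin 3) Plk4} {R : ℕ} (hT : Is36 T R)
    {Ψ : ℝ → (Fin 3 → ℝ) → ℝ} {Kl : ℝ} (hKl : 0 ≤ Kl) (hΨ : LipR Ψ Kl) {mt l k : ℕ}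
    (h : l + k ≤ mt) (atop : Fin 3 → ℕ) (u : Fin 3 → ℕ) :
    capP T Ψ mt atop (l + k) u ≤ (2 : ℝ) ^ (Kl * (4 * k)) * capP T Ψ mt atop l u := by
  have h1 : ((l + k : ℕ) : ℝ) ≤ mt := by exact_mod_cast h
  have h1' : (l : ℝ) + k ≤ mt := by push_cast at h1; exact h1
  have hk : (0 : ℝ) ≤ k := Nat.cast_nonneg _
  have h2 := hΨ ((mt : ℝ) - l) ((mt : ℝ) - (l + k : ℕ)) (rel l u mt atop) (rel (l + k) u mt atop)
    (by linarith) (by linarith)
  have e1 : ((mt : ℝ) - l) - ((mt : ℝ) - (l + k : ℕ)) = k := by push_cast; ring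
  have e2 : ∀ j, rel l u mt atop j - rel (l + k) u mt atop j = k := fun j => by
    unfold rel; push_cast; ring
  simp only [e1, e2] at h2
  rw [Fin.sum_univ_three, abs_of_nonneg hk] at h2
  have e3 : Kl * ((k : ℝ) + (k + k + k)) = Kl * (4 * k) := by ring
  rw [e3] at h2
  have h3 := (abs_le.1 h2).2
  have hv : T.vol (l + k) u = T.vol l u := by rw [hT.vol, hT.vol]
  unfold capP
  rw [hv]
  have h4 : (2 : ℝ) ^ (-(Ψ ((mt : ℝ) - (l + k : ℕ)) (rel (l + k) u mt atop))) ≤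
      (2 : ℝ) ^ (Kl * (4 * k)) * (2 : ℝ) ^ (-(Ψ ((mt : ℝ) - l) (rel l u mt atop))) := by
    rw [← Real.rpow_add two_pos]
    refine Real.rpow_le_rpow_of_exponent_le (by norm_num) ?_
    linarith
  calc T.vol l u * (2 : ℝ) ^ (-(Ψ ((mt : ℝ) - (l + k : ℕ)) (rel (l + k) u mt atop)))
      ≤ T.vol l u * ((2 : ℝ) ^ (Kl * (4 * k)) *
          (2 : ℝ) ^ (-(Ψ ((mt : ℝ) - l) (rel l u mt atop)))) :=
        mul_le_mul_of_nonneg_left h4 (T.volpos l u).le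
    _ = _ := by ring

open Classical in
/-- **(DD) one constant deeper**, helper685's `dall7`. -/
theorem dallK36 {B : Base} {I Ib : ℕ → Finset (ℕ × ℝ)} {T : ℕ → TS Ln4 (Fin 3) Plk4} {r : ℕ → ℝ}
    {R : ℕ → ℕ} {L : ℕ → ℕ → Ln4} {mt : ℕ → ℕ} {atop : ℕ → Fin 3 → ℕ} {lev : ℕ → ℚ → ℕ}
    {A A2 : ℕ → ℝ} {f : ℕ → ℚ → ℕ → ℤ → ℕ} {b : ℕ → ℚ → ℕ → (Fin 3 → ℕ) × Plk4}
    {vm vm2 : ℕ → ℚ → ℝ} {w : Fin 3 → ℕ → ℚ → ℝ} {Ψ : ℝ → (Fin 3 → ℝ) → ℝ} {g g0 Kl : ℝ}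
    {p θ qm qp : Fin 3 → ℝ} {K : ℕ → ℝ} {kk : ℕ} (hTr : ∀ n, T n = TS36 (r n))
    (hT : ∀ n, Is36 (T n) (R n))
    (h : MkA B I (geoP T Ψ mt atop L) lev A (fun v => g * v) (fun v => 0 * v)
      (fun j v => θ j * (1 - v)) f b vm w)
    (h2 : MkA B I (rgK B w K (geo T p L)) lev A2 (fun v => (g + g0) * v) (fun v => 0 * v)
      (fun j v => θ j * (1 - v)) f b vm2 w)
    (hKl : 0 ≤ Kl) (hL : LipR Ψ Kl) (hq : ∀ k, 0 ≤ qm k ∧ qm k ≤ qp k) (hΨ : TwoS Ψ qm qp)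
    (vel : ∀ᶠ n in (U : Filter ℕ), ∀ x ∈ I n, ∀ i, |(L n x.1).v i| ≤ 1)
    (hIb : ∀ᶠ n in (U : Filter ℕ), I n ⊆ Ib n)
    (hmt : ∀ᶠ n in (U : Filter ℕ), lev n 1 + kk ≤ mt n)
    (hX : ∀ ε : ℝ, 0 < ε → ∀ᶠ n in (U : Filter ℕ), ∀ i : ℕ, lev n 0 ≤ i →
      i ≤ lev n 1 + kk → ∀ (J : ℤ) (s : (Fin 3 → ℕ) × Plk4), (geoP T Ψ mt atop L).adm n i J s →
        (((alive (Ib n) i J).filter fun t => (geoP T Ψ mt atop L).mem n i J s t).card : ℝ) ≤
          B.d n ^ (-ε) * (A n * 2 ^ (g * ((i : ℝ) - lev n 0))) *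
            (geoP T Ψ mt atop L).val n i J s) :
    DAllK kk B I L lev A2 (g + g0) p (fun n => (1 / 2 : ℝ) ^ (R n)) w qm qp := by
  intro v h0 h1 ε hε
  have he : 0 < ε / 8 := by positivity
  refine ⟨fun n => (I n).image (lc (lev n v + kk)), Eventually.of_forall fun n x hx =>
    ⟨zc (lev n v + kk) x.2, ?_, mem_image.2 ⟨x, hx, rfl⟩⟩, ?_⟩
  · rw [zc_div (Nat.le_add_right (lev n v) kk) x.2, Nat.add_sub_cancel_left]
  have hlv : Tendsto (fun n => ((lev n v : ℝ) - lev n 0) * Real.log 2 / B.L n) U (𝓝 (v : ℝ)) := by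
    have h3 := h.lev_lim 0 v le_rfl h0 h1
    push_cast at h3
    rw [sub_zero] at h3
    exact h3
  have e1 : ∀ᶠ n in (U : Filter ℕ), |((lev n v : ℝ) - lev n 0) * Real.log 2 / B.L n - v| ≤
      (ε / 8) / (|g| + 1) := by
    have h4 := (hlv.sub_const (v : ℝ)).abs
    rw [sub_self, abs_zero] at h4
    exact h4.eventually (eventually_le_nhds (by positivity))
  filter_upwards [ev_const_le B (K0N p) he,
    ev_const_le B ((2 : ℝ) ^ (Kl * (4 * kk)) * 2 ^ (g * kk)) he, hX (ε / 8) he,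
    h.near v h0 h1 (ε / 8) he,
    h.mark v h0 h1, h2.dmax v h0 h1 (ε / 8) he, h2.mark v h0 h1, h.ne, vel, hIb, hmt,
    h.lev_mono 0 v le_rfl h0 h1, h.lev_mono v 1 h0 h1 le_rfl, e1]
    with n c1 c1' c2 c3 c4 c5 c6 c7 c8 c9 c10 c11 c12 c13
  intro j s hS hw1
  set i : ℕ := lev n v + kk with hi
  set P : Finset (ℕ × ℤ) := (I n).image (lc i) with hP
  set O0 := P.filter fun o => o.2 = j ∧
    InSheet (L n o.1) s.e s.c s.w s.q s.a (zl i j) (rho i) with hO0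
  set O := O0.image Prod.fst with hO
  have hcard : O0.card = O.card := by
    refine (card_image_of_injOn fun o ho o' ho' hoo => ?_).symm
    exact Prod.ext hoo ((mem_filter.1 ho).2.1.trans (mem_filter.1 ho').2.1.symm)
  have hOm : ∀ t ∈ O, (∃ x ∈ I n, x.1 = t ∧ zc i x.2 = j) ∧
      InSheet (L n t) s.e s.c s.w s.q s.a (zl i j) (rho i) := by
    intro t ht
    obtain ⟨o, ho, rfl⟩ := mem_image.1 ht
    obtain ⟨ho1, ho2, ho3⟩ := mem_filter.1 ho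
    obtain ⟨x, hx, hxo⟩ := mem_image.1 ho1
    exact ⟨⟨x, hx, (Prod.ext_iff.1 hxo).1, (Prod.ext_iff.1 hxo).2.trans ho2⟩, ho3⟩
  have hOv : ∀ t ∈ O, InSheet (L n t) s.e s.c s.w s.q s.a (zl i j) (rho i) ∧
      ∀ k, |(L n t).v k| ≤ 1 := by
    intro t ht
    obtain ⟨⟨x, hx, hx1, -⟩, h4⟩ := hOm t ht
    refine ⟨h4, ?_⟩
    rw [← hx1]; exact c8 x hx
  obtain ⟨s', b1, b2, -, O', d1, d2, d3⟩ := rnd36 (hT n) p hS hw1 (L n) O hOv
  -- the mark
  obtain ⟨x, hx⟩ := c7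
  have hal : x.1 ∈ alive (I n) (lev n v) (zc (lev n v) x.2) := mem_alive.2 ⟨x, hx, rfl, rfl⟩
  obtain ⟨m1, m2, m3, m4⟩ := c4 _ _ hal
  obtain ⟨n1, n2, n3, n4⟩ := c6 _ _ hal
  set mk := b n v (f n v x.1 (zc (lev n v) x.2)) with hmk
  have m3' : capP (T n) Ψ (mt n) (atop n) (lev n v) mk.1 = vm n v := m3
  have m4' : ∀ k, (1 / 2 : ℝ) ^ (mk.1 k) = w k n v := m4
  have n3' : (T n).cap p (lev n v) mk.1 = vm2 n v := n3
  have hwp : ∀ k, 0 < w k n v := fun k => by rw [← m4' k]; positivity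
  -- D-max of the big sequence at level `i`
  have hi0 : lev n 0 ≤ i := c11.trans (Nat.le_add_right _ _)
  have hi1 : i ≤ lev n 1 + kk := Nat.add_le_add_right c12 _
  have k1 : (O'.card : ℝ) ≤ B.d n ^ (-(ε / 8)) * (A n * 2 ^ (g * ((i : ℝ) - lev n 0))) *
      capP (T n) Ψ (mt n) (atop n) i s'.1 := by
    refine le_trans (Nat.cast_le.2 (card_le_card fun t ht => ?_)) (c2 i hi0 hi1 j s' b1)
    obtain ⟨⟨y, hy, hy1, hy2⟩, -⟩ := hOm t (d1 ht)
    exact mem_filter.2 ⟨mem_alive.2 ⟨y, c9 hy, hy1, hy2⟩, d2 t ht⟩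
  -- the ratio
  have hs'w : ∀ k, wd s'.2 k = (1 / 2 : ℝ) ^ (s'.1 k) := (((hT n).adm _ _ _).1 b1).2.2
  have hp0 : ∀ k, 0 ≤ wd s'.2 k := fun k => by rw [hs'w]; positivity
  have pC0 : 0 ≤ phC qm qp (w 0 n v) (w 1 n v) (w 2 n v) (wd s'.2 0) (wd s'.2 1) (wd s'.2 2) :=
    phC_nonneg (hwp 0).le (hwp 1).le (hwp 2).le (hp0 0) (hp0 1) (hp0 2)
  have pvm : 0 < vm n v := by
    rw [← m3']
    unfold capP
    exact mul_pos ((T n).volpos _ _) (Real.rpow_pos_of_pos two_pos _)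
  have k2 : capP (T n) Ψ (mt n) (atop n) i s'.1 ≤ ((2 : ℝ) ^ (Kl * (4 * kk)) * vm n v) *
      phC qm qp (w 0 n v) (w 1 n v) (w 2 n v) (wd s'.2 0) (wd s'.2 1) (wd s'.2 2) := by
    have h3 := capP_phC (r := r n) hΨ (mt n) (atop n) i mk.1 s'.1
    rw [← hTr n, m4', m4', m4', ← hs'w 0, ← hs'w 1, ← hs'w 2] at h3
    refine h3.trans (mul_le_mul_of_nonneg_right ?_ pC0)
    rw [← m3']
    exact capP_level (hT n) hKl hL ((Nat.add_le_add_right c12 _).trans c10) (atop n) mk.1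
  have k3 : phC qm qp (w 0 n v) (w 1 n v) (w 2 n v) (wd s'.2 0) (wd s'.2 1) (wd s'.2 2) ≤
      phC qm qp (w 0 n v) (w 1 n v) (w 2 n v) s.a (s.w 1) (s.w 2) :=
    phC_mono (fun k => (hq k).1) (fun k => (hq k).1.trans (hq k).2) (hwp 0).le (hwp 1).le
      (hwp 2).le (hp0 0) (hp0 1) (hp0 2) (b2 0).1 (b2 1).1 (b2 2).1
  -- the amplitudes
  have k4 : A n * B.d n ^ (-(g * v)) * vm n v ≤ B.d n ^ (-(ε / 8)) *
      (B.d n ^ (-(ε / 8)) * (A2 n * B.d n ^ (-((g + g0) * v))) * vm2 n v) := by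
    refine (c3 _ _ hal).trans (mul_le_mul_of_nonneg_left ?_ (dpow_pos B n _).le)
    have h3 := c5 _ mk n2
    have e3 : (rgK B w K (geo T p L)).val n (lev n v) (zc (lev n v) x.2) mk = vm2 n v := n3
    rw [e3] at h3
    refine le_trans (Nat.cast_le.2 (card_le_card fun t ht => ?_)) h3
    rw [mem_filter] at ht
    refine mem_filter.2 ⟨ht.1, ?_⟩
    have h4 := (c6 _ _ ht.1).1
    rw [ht.2] at h4
    exact h4
  have hvmk : vmk p (rho (lev n v)) (w 0 n v) (w 1 n v) (w 2 n v) = vm2 n v := by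
    have hmw : ∀ k, wd mk.2 k = (1 / 2 : ℝ) ^ (mk.1 k) := (((hT n).adm _ _ _).1 m2).2.2
    have h3 := cap36 (hT n) p (lev n v) (s := mk) hmw
    rw [n3'] at h3
    rw [← h3]
    have e0 : mk.2.a = w 0 n v := (hmw 0).trans (m4' 0)
    have e1 : mk.2.w 1 = w 1 n v := (hmw 1).trans (m4' 1)
    have e2 : mk.2.w 2 = w 2 n v := (hmw 2).trans (m4' 2)
    unfold vmk
    rw [e0, e1, e2]
  -- the level
  have k5 : (2 : ℝ) ^ (g * ((i : ℝ) - lev n 0)) ≤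
      2 ^ (g * kk) * (B.d n ^ (-(ε / 8)) * B.d n ^ (-(g * v))) := by
    have z1 := two_d B n (g := g) c13
    have z2 : g * ((i : ℝ) - lev n 0) = g * kk + g * ((lev n v : ℝ) - lev n 0) := by
      rw [hi]; push_cast; ring
    rw [z2, Real.rpow_add two_pos]
    refine mul_le_mul_of_nonneg_left (z1.trans ?_) (Real.rpow_pos_of_pos two_pos _).le
    rw [← dpow_add]
    refine dpow_le B n ?_
    have z4 : |g| * ((ε / 8) / (|g| + 1)) = (|g| / (|g| + 1)) * (ε / 8) := by field_simp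
    have z5 : |g| / (|g| + 1) ≤ 1 := by
      rw [div_le_one (by positivity)]; linarith
    have z6 := mul_le_mul_of_nonneg_right z5 he.le
    rw [z4]
    linarith
  have pA := h.Apos n
  have pd := dpow_pos B n (-(ε / 8))
  have pdv := dpow_pos B n (-(g * v))
  have pA2 : 0 < A2 n * B.d n ^ (-((g + g0) * v)) := mul_pos (h2.Apos n) (dpow_pos B n _)
  have pv2 : 0 < vm2 n v := by rw [← n3']; exact cap_pos _ _ _ _
  have p2g : (0:ℝ) < 2 ^ (g * kk) := Real.rpow_pos_of_pos two_pos _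
  have p2l : (0:ℝ) < 2 ^ (Kl * (4 * kk)) := Real.rpow_pos_of_pos two_pos _
  set X := phC qm qp (w 0 n v) (w 1 n v) (w 2 n v) s.a (s.w 1) (s.w 2) with hXd
  have pX : 0 ≤ X := pC0.trans k3
  rw [hvmk, hcard]
  calc (O.card : ℝ) ≤ K0N p * (O'.card : ℝ) := d3
    _ ≤ B.d n ^ (-(ε / 8)) * (B.d n ^ (-(ε / 8)) * (A n * (2 ^ (g * kk) *
          (B.d n ^ (-(ε / 8)) * B.d n ^ (-(g * v))))) * (2 ^ (Kl * (4 * kk)) * vm n v * X)) := by
        refine mul_le_mul c1 ?_ (Nat.cast_nonneg _) pd.le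
        refine k1.trans ?_
        have q1 : B.d n ^ (-(ε / 8)) * (A n * 2 ^ (g * ((i : ℝ) - lev n 0))) ≤
            B.d n ^ (-(ε / 8)) * (A n * (2 ^ (g * kk) *
              (B.d n ^ (-(ε / 8)) * B.d n ^ (-(g * v))))) :=
          mul_le_mul_of_nonneg_left (mul_le_mul_of_nonneg_left k5 pA.le) pd.le
        have q2 : capP (T n) Ψ (mt n) (atop n) i s'.1 ≤ 2 ^ (Kl * (4 * kk)) * vm n v * X :=
          k2.trans (mul_le_mul_of_nonneg_left k3 (by positivity))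
        have q3 : 0 ≤ capP (T n) Ψ (mt n) (atop n) i s'.1 := by
          unfold capP
          exact (mul_pos ((T n).volpos _ _) (Real.rpow_pos_of_pos two_pos _)).le
        exact mul_le_mul q1 q2 q3 (by positivity)
    _ = B.d n ^ (-(ε / 8)) * B.d n ^ (-(ε / 8)) * B.d n ^ (-(ε / 8)) * X *
          (2 ^ (Kl * (4 * kk)) * 2 ^ (g * kk)) * (A n * B.d n ^ (-(g * v)) * vm n v) := by
        ring
    _ ≤ B.d n ^ (-(ε / 8)) * B.d n ^ (-(ε / 8)) * B.d n ^ (-(ε / 8)) * X *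
          B.d n ^ (-(ε / 8)) * (B.d n ^ (-(ε / 8)) *
          (B.d n ^ (-(ε / 8)) * (A2 n * B.d n ^ (-((g + g0) * v))) * vm2 n v)) := by
        refine mul_le_mul (mul_le_mul_of_nonneg_left c1' (by positivity)) k4 (by positivity)
          (by positivity)
    _ = (B.d n ^ (-(ε / 8)) * B.d n ^ (-(ε / 8)) * (B.d n ^ (-(ε / 8)) * B.d n ^ (-(ε / 8))) *
          (B.d n ^ (-(ε / 8)) * B.d n ^ (-(ε / 8)))) *
          (A2 n * B.d n ^ (-((g + g0) * v)) * vm2 n v) * X := by ring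
    _ ≤ _ := by
        refine mul_le_mul_of_nonneg_right (mul_le_mul_of_nonneg_right ?_ (by positivity)) pX
        rw [← dpow_add, ← dpow_add, ← dpow_add]
        exact dpow_le B n (by linarith)

/-- **the output** : all fields of `J1c` except the parameter inequalities. -/
structure OutD (B : Base) (I : ℕ → Finset (ℕ × ℝ)) (L : ℕ → ℕ → Ln4) (r0 : ℕ → ℝ)
    (wr cr : Fin 3 → ℕ → ℝ) (lev : ℕ → ℚ → ℕ) (A : ℕ → ℝ) (f : ℕ → ℚ → ℕ → ℤ → ℕ)
    (b : ℕ → ℚ → ℕ → Plk4) (vm : ℕ → ℚ → ℝ) (w : Fin 3 → ℕ → ℚ → ℝ) (p θ : Fin 3 → ℝ) (g : ℝ)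
    (qm qp : Fin 3 → ℝ) : Prop where
  mka : MkA B I (geoR L r0 wr cr p) lev A (fun v => g * v) (fun v => 0 * v)
    (fun j v => θ j * (1 - v)) f b vm w
  alld : AllD B I (geoR L r0 wr cr p) lev A g
  sub7 : SubB B I (geoR L r0 wr cr p) lev A g 1 7
  dall : DAll B I L lev A g p r0 w qm qp
  dall7 : DAllK 7 B I L lev A g p r0 w qm qp
  wrs : ∀ (C : ℝ) (k : Fin 3) (v : ℚ), 0 ≤ v → v ≤ 1 → ∀ᶠ n in (U : Filter ℕ),
    wr k n ≤ B.d n ^ C * w k n v ∧ w k n v ≤ B.d n ^ C * cr k n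
  r0pos : ∀ n, 0 < r0 n
  r0log : ∀ ε : ℝ, 0 < ε → ∀ᶠ n in (U : Filter ℕ), Real.log (1 / r0 n) ≤ B.d n ^ (-ε)
  vel : ∀ᶠ n in (U : Filter ℕ), ∀ x ∈ I n, ∀ i, |(L n x.1).v i| ≤ 1

open Classical in
/-- **the end of the chain** -/
theorem outD_of {B : Base} {I : ℕ → Finset (ℕ × ℝ)} {T : ℕ → TS Ln4 (Fin 3) Plk4} {r : ℕ → ℝ}
    {R : ℕ → ℕ} {L : ℕ → ℕ → Ln4} {mt : ℕ → ℕ} {atop : ℕ → Fin 3 → ℕ} {N : ℕ → ℕ}
    {lev : ℕ → ℚ → ℕ}
    {A E A2 : ℕ → ℝ} {f : ℕ → ℚ → ℕ → ℤ → ℕ} {b : ℕ → ℚ → ℕ → (Fin 3 → ℕ) × Plk4}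
    {vm vm2 : ℕ → ℚ → ℝ} {w : Fin 3 → ℕ → ℚ → ℝ} {Ψ : ℝ → (Fin 3 → ℝ) → ℝ} {g g0 : ℝ}
    {p θ qm qp : Fin 3 → ℝ} {K K1 : ℕ → ℝ} (hTr : ∀ n, T n = TS36 (r n))
    (hT : ∀ n, Is36 (T n) (R n))
    (hN : ∀ n i J s, (T n).adm i J s → ∀ j, s.1 j ≤ N n)
    (hNd : ∀ ε : ℝ, 0 < ε → ∀ᶠ n in (U : Filter ℕ), (N n : ℝ) ≤ B.d n ^ (-ε))
    (h : MkA B I (geoP T Ψ mt atop L) lev A (fun v => g * v) (fun v => 0 * v)
      (fun j v => θ j * (1 - v)) f b vm w)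
    (hE : ∀ n, 0 < E n) (hA2 : ∀ n, A2 n = A n * E n)
    (hcmp : Cmp B T Ψ mt atop lev w p g0 E K1) (hK1 : Tendsto K1 U atTop)
    (hK : Tendsto K U atTop) (hKK1 : ∀ᶠ n in (U : Filter ℕ), K n ≤ K1 n)
    (h2 : MkA B I (rgK B w K (geo T p L)) lev A2 (fun v => (g + g0) * v) (fun v => 0 * v)
      (fun j v => θ j * (1 - v)) f b vm2 w)
    (hAll : AllD B I (geoP T Ψ mt atop L) lev A g)
    {P : ℕ → Finset (ℕ × ℤ)}
    (hPI : ∀ᶠ n in (U : Filter ℕ), ∀ x ∈ I n, ∃ j : ℤ, j / 2 ^ 7 = zc (lev n 1) x.2 ∧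
      (x.1, j) ∈ P n)
    (hPc : ∀ᶠ n in (U : Filter ℕ), ∀ o ∈ P n, o.1 ∈ (I n).image Prod.fst)
    (hP : ∀ ε : ℝ, 0 < ε →
      PBody B (geoP T Ψ mt atop L) lev A g 1 (fun n => lev n 1 + 7) P ε)
    {Kl : ℝ} (hKl : 0 ≤ Kl) (hLip : LipR Ψ Kl) {Ib : ℕ → Finset (ℕ × ℝ)}
    (hIb : ∀ᶠ n in (U : Filter ℕ), I n ⊆ Ib n)
    (hmt : ∀ᶠ n in (U : Filter ℕ), lev n 1 + 7 ≤ mt n)
    (hX7 : ∀ ε : ℝ, 0 < ε → ∀ᶠ n in (U : Filter ℕ), ∀ i : ℕ, lev n 0 ≤ i →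
      i ≤ lev n 1 + 7 → ∀ (J : ℤ) (s : (Fin 3 → ℕ) × Plk4), (geoP T Ψ mt atop L).adm n i J s →
        (((alive (Ib n) i J).filter fun t => (geoP T Ψ mt atop L).mem n i J s t).card : ℝ) ≤
          B.d n ^ (-ε) * (A n * 2 ^ (g * ((i : ℝ) - lev n 0))) *
            (geoP T Ψ mt atop L).val n i J s)
    (hq : ∀ k, 0 ≤ qm k ∧ qm k ≤ qp k) (hΨ : TwoS Ψ qm qp) :
    OutD B I L (fun n => (1 / 2 : ℝ) ^ (R n)) (fun k n => B.d n ^ (K n - 1) * w k n 1)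
      (fun k n => B.d n ^ (-(K n - 1)) * w k n 1) lev A2 f (fun n v i => (b n v i).2) vm2 w p θ
      (g + g0) qm qp := by
  classical
  have hA2' : A2 = fun n => A n * E n := funext hA2
  have vel : ∀ᶠ n in (U : Filter ℕ), ∀ x ∈ I n, ∀ i, |(L n x.1).v i| ≤ 1 :=
    all_of_mem (P := fun n t => ∀ i, |(L n t).v i| ≤ 1) h
      (fun n i J s t hm => (((hT n).mem i J s (L n t)).1 hm).2)
  have hwp : ∀ᶠ n in (U : Filter ℕ), ∀ k, 0 < w k n 1 := by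
    rw [Filter.eventually_all]
    exact fun k => h.wpos k 1 zero_le_one le_rfl
  set Lc : ℕ → Finset ℕ := fun n => (I n).image Prod.fst with hLc
  have hv : ∀ᶠ n in (U : Filter ℕ), ∀ t ∈ Lc n, ∀ k, |(L n t).v k| ≤ 1 := by
    filter_upwards [vel] with n hn t ht
    obtain ⟨x, hx, rfl⟩ := mem_image.1 ht
    exact hn x hx
  have hLI : ∀ᶠ n in (U : Filter ℕ), ∀ x ∈ I n, x.1 ∈ Lc n :=
    Eventually.of_forall fun n x hx => mem_image_of_mem _ hx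
  have hcov := cov36 (B := B) (L := L) (p := p) (w := w) (K := K) hT (Lc := Lc) hv hwp
  have hK0 : 1 ≤ K0N p := K0N_ge p
  have hlo : ∀ᶠ n in (U : Filter ℕ), (fun _ : ℕ => 0) n ≤ lev n 0 :=
    Eventually.of_forall fun n => Nat.zero_le _
  have hl1 : Tendsto (fun n => ((lev n 1 : ℝ) - lev n 0) * Real.log 2 / B.L n) U (𝓝 1) := by
    have h1 := h.lev_lim 0 1 le_rfl zero_le_one le_rfl
    push_cast at h1
    rw [sub_zero] at h1
    exact h1
  have hKm : Tendsto (fun n => K n - 1) U atTop := tendsto_atTop_add_const_right _ _ hK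
  refine
    { mka := mkA_cov hcov hK0 hLI hlo h2 (fun v h0 h1 => mark36 hT hK rfl h2 v h0 h1)
      alld := ?_
      sub7 := ?_
      dall := dall36 hTr hT h h2 hq hΨ vel
      dall7 := dallK36 hTr hT h h2 hKl hLip hq hΨ vel hIb hmt hX7
      wrs := ?_
      r0pos := fun n => by positivity
      r0log := ?_
      vel := vel }
  · have h3 := allD_lin hcmp hE h.Apos hK1 hKK1 hwp hl1 hAll
    rw [← hA2'] at h3
    exact allD_cov hcov hK0 hLI hlo h2.Apos h3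
  · refine subB_of (P := P) hPI fun ε hε => ?_
    have h3 := hP (ε / 2 / 3) (by positivity)
    have hl1' : Tendsto (fun n => ((lev n 1 : ℝ) - lev n 0) * Real.log 2 / B.L n) U
        (𝓝 ((1 : ℚ) : ℝ)) := by
      rw [Rat.cast_one]; exact hl1
    have h4 := pbody_lin hcmp hE h.Apos hK1 hKK1 hwp (v := 1) hl1 hl1'
      (h.lev_mono 0 1 le_rfl zero_le_one le_rfl)
      (m := fun n => lev n 1 + 7) (Eventually.of_forall fun n => Nat.le_add_right _ _)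
      (C := 7) (by
        filter_upwards [B.ev_L_ge 1] with n hn
        push_cast
        linarith) (ε := ε / 2) (by positivity) h3
    rw [← hA2'] at h4
    exact pbody_cov hcov hK0 hlo (fun v h0 h1 => h.lev_mono 0 v le_rfl h0 h1) h2.Apos
      zero_le_one le_rfl (Eventually.of_forall fun n => Nat.le_add_right _ _) hPc hε h4
  · intro C k v h0 h1
    exact rng_of h2 hKm C k v h0 h1
  · refine log_r_of hNd ?_
    filter_upwards [exists_adm h 1 zero_le_one le_rfl] with n hn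
    obtain ⟨J, s, hs⟩ := hn
    have h3 : R n ≤ N n := res_le (hT n) (hN n) hs
    have h4 : (1 / 2 : ℝ) ^ (N n) ≤ (1 / 2 : ℝ) ^ (R n) :=
      pow_le_pow_of_le_one (by norm_num) (by norm_num) h3
    have h5 : (0:ℝ) < (1 / 2 : ℝ) ^ (R n) := by positivity
    exact ⟨h5, by linarith⟩

/-- **(G2)** from the output of the pure penalty to all data of `J1c`. -/
theorem out_of2 {Ψ ψ : ℝ → (Fin 3 → ℝ) → ℝ} {κ g g0 Kl : ℝ} {θ p qm qp : Fin 3 → ℝ}
    (hX : XOutF TT36 Ψ ψ κ g θ) (hl : LinAt Ψ θ g0 p) (hg : 0 ≤ g) (hKl : 0 ≤ Kl)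
    (hΨ : LipR Ψ Kl) (hq : ∀ k, 0 ≤ qm k ∧ qm k ≤ qp k) (h2s : TwoS Ψ qm qp) :
    ∃ (B : Base) (I : ℕ → Finset (ℕ × ℝ)) (L : ℕ → ℕ → Ln4) (r0 : ℕ → ℝ)
      (wr cr : Fin 3 → ℕ → ℝ) (lev : ℕ → ℚ → ℕ) (A : ℕ → ℝ) (f : ℕ → ℚ → ℕ → ℤ → ℕ)
      (b : ℕ → ℚ → ℕ → Plk4) (vm : ℕ → ℚ → ℝ) (w : Fin 3 → ℕ → ℚ → ℝ),
      OutD B I L r0 wr cr lev A f b vm w p θ (g + g0) qm qp := by
  classical
  obtain ⟨B, I, T0, L, lev, A, f, b, vm, w, atop, N, a, hT0, hN0, hNd, -, hM0, ha1, hwa, -,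
    hadm⟩ := hX
  choose r hr0 hTr using hT0
  -- the resolutions are at most one
  set T : ℕ → TS Ln4 (Fin 3) Plk4 := fun n => TS36 (min (r n) 1) with hTdef
  have hr1 : ∀ᶠ n in (U : Filter ℕ), r n ≤ 1 := by
    filter_upwards [hadm 1 zero_le_one le_rfl] with n hn
    obtain ⟨J, s, hs, -⟩ := hn
    rw [hTr n] at hs
    exact ((adm36_le hs) 0).1.trans ((adm36_le hs) 0).2
  have hTT : ∀ᶠ n in (U : Filter ℕ), T0 n = T n := by
    filter_upwards [hr1] with n hn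
    rw [hTr n, hTdef]
    simp only [min_eq_left hn]
  have hmin : ∀ n, 0 < min (r n) 1 := fun n => lt_min (hr0 n) one_pos
  have hTT36 : ∀ n, T n ∈ TT36 := fun n => ⟨min (r n) 1, hmin n, rfl⟩
  choose R hR using fun n => is36_TS36 (hmin n) (min_le_right (r n) 1)
  have hN : ∀ n i J s, (T n).adm i J s → ∀ j, s.1 j ≤ N n := by
    intro n i J s hs j
    rcases le_or_gt (r n) 1 with h1 | h1
    · refine hN0 n i J s ?_ j
      rw [hTr n]
      have h2 : (TS36 (min (r n) 1)).adm i J s := hs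
      rw [min_eq_left h1] at h2
      exact h2
    · have h2 : (TS36 (min (r n) 1)).adm i J s := hs
      rw [min_eq_right h1.le] at h2
      have h3 := (adm36_le h2 j).1
      rw [h2.2.2 j] at h3
      have h4 : s.1 j = 0 := by
        by_contra hne
        have h5 : (1 / 2 : ℝ) ^ (s.1 j) < 1 := pow_lt_one₀ (by norm_num) (by norm_num) hne
        linarith
      rw [h4]
      exact Nat.zero_le _
  have hM : MkA B I (geoP T Ψ (fun n => lev n 1) atop L) lev A (fun v => g * v) (fun v => 0 * v)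
      (fun j v => θ j * (1 - v)) f b vm w := by
    refine mkA_congrG hM0 ?_ rfl
    filter_upwards [hTT] with n hn
    refine ⟨?_, ?_, ?_⟩
    · funext i J s t
      simp only [geoP, hn]
    · funext i J s
      simp only [geoP, hn]
    · funext i J s
      simp only [geoP, hn]
  have hTop : TopPos B lev w (fun n => lev n 1) atop θ 1 :=
    topPos_of hM fun j => Eventually.of_forall fun n => by rw [hwa, ha1]
  have hAllB : AllD B I (geoP T Ψ (fun n => lev n 1) atop L) lev A g :=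
    allD_P hM hg hTT36 (Eventually.of_forall fun n => le_rfl) hKl hΨ
  obtain ⟨η, m, t, B', I', A', A2, vm2, K1, hη, hη1, hη0, htt, hpt, hW, hM1, hlen, hrel, hA2, hK1,
    hMK, hX7, hQ⟩ := lin4 hM hAllB 7 hTop le_rfl hl
    (fun q k n => (N n : ℝ) ≤ B.d n ^ (-(q.1 k / ((k : ℝ) + 1)))) (by
      intro η m hη _ k
      exact hNd _ (div_pos (hη k) (by positivity)))
  have hH : ∀ n, 0 < η (t n) := fun n => hη _
  have hH0 : Tendsto (fun n => η (t n)) U (𝓝 0) := hη0.comp htt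
  have hL : ∀ n, B'.L n = η (t n) * B.L n := fun n => by
    unfold Base.L
    rw [hW.base, Real.log_rpow (B.pos n)]
    ring
  have hTl : (0:ℝ) < 1 - 1 / 2 := by norm_num
  obtain ⟨K2, hK2, hcmp⟩ := exists_cmp (T := T) hl hH hH0 hL hTl hM1 hlen hrel
  -- the range
  set K : ℕ → ℝ := fun n => min (K1 n) (K2 n) with hKdef
  have hK : Tendsto K U atTop := by
    rw [tendsto_atTop]
    intro c
    filter_upwards [tendsto_atTop.1 hK1 c, tendsto_atTop.1 hK2 c] with n h1 h2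
    exact le_min h1 h2
  have h2 := hMK K hK (Eventually.of_forall fun n => min_le_left _ _)
  -- the exponents
  have hNd' : ∀ ε : ℝ, 0 < ε → ∀ᶠ n in (U : Filter ℕ), (N n : ℝ) ≤ B'.d n ^ (-ε) := by
    intro ε hε
    filter_upwards [hQ, (tendsto_natCast_atTop_atTop.comp htt).eventually_ge_atTop (1 / ε)]
      with n h3 h4
    have h4' : 1 / ε ≤ (t n : ℝ) := h4
    refine h3.trans ?_
    rw [hW.base, ← Real.rpow_mul (B.pos n).le]
    refine dpow_le B n ?_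
    have h5 : (0:ℝ) < (t n : ℝ) + 1 := by positivity
    rw [mul_neg, neg_le_neg_iff, div_le_iff₀ h5]
    rw [div_le_iff₀ hε] at h4'
    have := hη (t n)
    nlinarith
  -- levels
  have hl1 : Tendsto (fun n => ((lev n (m (t n) 1) : ℝ) - lev n (m (t n) 0)) * Real.log 2 /
      B'.L n) U (𝓝 1) := by
    have h1 := hM1.lev_lim 0 1 le_rfl zero_le_one le_rfl
    push_cast at h1
    rw [sub_zero] at h1
    exact h1
  have hl01 : ∀ᶠ n in (U : Filter ℕ), lev n (m (t n) 0) ≤ lev n (m (t n) 1) :=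
    hM1.lev_mono 0 1 le_rfl zero_le_one le_rfl
  have hAll : AllD B' I' (geoP T Ψ (fun n => lev n 1) atop L) (fun n x => lev n (m (t n) x)) A' g := by
    intro ε hε
    filter_upwards [hX7 ε hε] with n hn i h0 h1 J s hs
    refine le_trans (Nat.cast_le.2 (card_le_card (filter_subset_filter _
      (alive_mono (hW.sub n) _ _)))) (hn i h0 (h1.trans (Nat.le_add_right _ _)) J s hs)
  set P : ℕ → Finset (ℕ × ℤ) := fun n => (I' n).image (lc (lev n (m (t n) 1) + 7)) with hPdef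
  have hPB : ∀ ε : ℝ, 0 < ε → PBody B' (geoP T Ψ (fun n => lev n 1) atop L)
      (fun n x => lev n (m (t n) x)) A' g 1 (fun n => lev n (m (t n) 1) + 7) P ε := by
    intro ε hε
    have e1 : ∀ᶠ n in (U : Filter ℕ), |((lev n (m (t n) 1) : ℝ) - lev n (m (t n) 0)) * Real.log 2 /
        B'.L n - 1| ≤ ε / (2 * (|g| + 1)) := by
      have h4 := (hl1.sub_const (1 : ℝ)).abs
      rw [sub_self, abs_zero] at h4
      exact h4.eventually (eventually_le_nhds (by positivity))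
    filter_upwards [hX7 (ε / 2) (by positivity), e1, hl01] with n x1 x2 x3 j s hs
    have y1 := x1 (lev n (m (t n) 1) + 7) (x3.trans (Nat.le_add_right _ _)) le_rfl j s hs
    have y2 : ((((P n).filter fun o => o.2 = j ∧ (geoP T Ψ (fun n => lev n 1) atop L).mem n
        (lev n (m (t n) 1) + 7) j s o.1).card : ℕ) : ℝ) ≤
        (((alive (I n) (lev n (m (t n) 1) + 7) j).filter fun t' =>
          (geoP T Ψ (fun n => lev n 1) atop L).mem n (lev n (m (t n) 1) + 7) j s t').card : ℝ) := by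
      have e2 : ((P n).filter fun o => o.2 = j ∧ (geoP T Ψ (fun n => lev n 1) atop L).mem n
          (lev n (m (t n) 1) + 7) j s o.1).card = (((P n).filter fun o => o.2 = j ∧
          (geoP T Ψ (fun n => lev n 1) atop L).mem n
          (lev n (m (t n) 1) + 7) j s o.1).image Prod.fst).card := by
        refine (card_image_of_injOn fun o ho o' ho' hoo => ?_).symm
        have q1 := (mem_filter.1 ho).2.1
        have q2 := (mem_filter.1 ho').2.1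
        exact Prod.ext hoo (q1.trans q2.symm)
      rw [e2]
      refine Nat.cast_le.2 (card_le_card fun t' ht' => ?_)
      obtain ⟨o, ho, rfl⟩ := mem_image.1 ht'
      obtain ⟨ho1, ho2, ho3⟩ := mem_filter.1 ho
      obtain ⟨x, hx, hxo⟩ := mem_image.1 ho1
      have z1 : x.1 = o.1 := (Prod.ext_iff.1 hxo).1
      have z2 : zc (lev n (m (t n) 1) + 7) x.2 = o.2 := (Prod.ext_iff.1 hxo).2
      refine mem_filter.2 ⟨mem_alive.2 ⟨x, hW.sub n hx, z1, z2.trans ho2⟩, ho3⟩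
    refine y2.trans (y1.trans ?_)
    have hval : 0 ≤ (geoP T Ψ (fun n => lev n 1) atop L).val n (lev n (m (t n) 1) + 7) j s := by
      show 0 ≤ capP (T n) Ψ (lev n 1) (atop n) (lev n (m (t n) 1) + 7) s.1
      unfold capP
      exact (mul_pos ((T n).volpos _ _) (Real.rpow_pos_of_pos two_pos _)).le
    refine mul_le_mul_of_nonneg_right ?_ hval
    have z1 := two_d B' n (g := g) x2
    have pA' := hM1.Apos n
    have z2 : (2:ℝ) ^ (g * (((lev n (m (t n) 1) + 7 : ℕ) : ℝ) - lev n (m (t n) 0))) =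
        2 ^ (g * ((lev n (m (t n) 1) : ℝ) - lev n (m (t n) 0))) * 2 ^ (g * 7) := by
      rw [← Real.rpow_add two_pos]
      congr 1
      push_cast; ring
    have z3 : |g| * (ε / (2 * (|g| + 1))) ≤ ε / 2 := by
      have z4 : |g| * (ε / (2 * (|g| + 1))) = (|g| / (|g| + 1)) * (ε / 2) := by field_simp
      have z5 : |g| / (|g| + 1) ≤ 1 := by
        rw [div_le_one (by positivity)]; linarith
      rw [z4]
      have := mul_le_mul_of_nonneg_right z5 (show 0 ≤ ε / 2 by positivity)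
      linarith
    have z6 : B'.d n ^ (-(g * 1) - |g| * (ε / (2 * (|g| + 1)))) ≤
        B'.d n ^ (-(ε / 2)) * B'.d n ^ (-(g * 1)) := by
      rw [← dpow_add]
      exact dpow_le B' n (by linarith)
    have z7 : (2:ℝ) ^ (g * 7) ≤ 2 ^ ((g + ε) * 7) :=
      Real.rpow_le_rpow_of_exponent_le (by norm_num) (by nlinarith)
    have z8 : ((((fun n => lev n (m (t n) 1) + 7) n : ℕ) : ℝ) - lev n (m (t n) 1)) = 7 := by
      show ((lev n (m (t n) 1) + 7 : ℕ) : ℝ) - lev n (m (t n) 1) = 7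
      push_cast; ring
    have p1 := dpow_pos B' n (-(ε / 2))
    have p2 := dpow_pos B' n (-(g * 1))
    have p3 : (0:ℝ) < 2 ^ (g * 7) := Real.rpow_pos_of_pos two_pos _
    rw [z8, Rat.cast_one]
    calc B'.d n ^ (-(ε / 2)) * (A' n *
          2 ^ (g * (((lev n (m (t n) 1) + 7 : ℕ) : ℝ) - lev n (m (t n) 0))))
        ≤ B'.d n ^ (-(ε / 2)) * (A' n * ((B'.d n ^ (-(ε / 2)) * B'.d n ^ (-(g * 1))) *
            2 ^ ((g + ε) * 7))) := by
          rw [z2]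
          refine mul_le_mul_of_nonneg_left (mul_le_mul_of_nonneg_left ?_ pA'.le) p1.le
          exact mul_le_mul (z1.trans z6) z7 p3.le (by positivity)
      _ = (B'.d n ^ (-(ε / 2)) * B'.d n ^ (-(ε / 2))) * (A' n * B'.d n ^ (-(g * 1))) *
            2 ^ ((g + ε) * 7) := by ring
      _ = _ := by
          rw [← dpow_add]
          congr 3
          ring
  have hmt7 : ∀ᶠ n in (U : Filter ℕ), lev n (m (t n) 1) + 7 ≤ lev n 1 := by
    filter_upwards [depth_mt hH0 hL hTl hlen hl1 7, B'.ev_L_ge 1] with n h3 h4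
    have h5 : (lev n (m (t n) 1) : ℝ) + 7 ≤ lev n 1 := by nlinarith
    exact_mod_cast h5
  have hPI : ∀ᶠ n in (U : Filter ℕ), ∀ x ∈ I' n, ∃ j : ℤ,
      j / 2 ^ 7 = zc (lev n (m (t n) 1)) x.2 ∧ (x.1, j) ∈ P n := by
    refine Eventually.of_forall fun n x hx =>
      ⟨zc (lev n (m (t n) 1) + 7) x.2, ?_, mem_image.2 ⟨x, hx, rfl⟩⟩
    rw [zc_div (Nat.le_add_right (lev n (m (t n) 1)) 7) x.2, Nat.add_sub_cancel_left]
  have hPc : ∀ᶠ n in (U : Filter ℕ), ∀ o ∈ P n, o.1 ∈ (I' n).image Prod.fst := by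
    refine Eventually.of_forall fun n o ho => ?_
    obtain ⟨x, hx, rfl⟩ := mem_image.1 ho
    exact mem_image.2 ⟨x, hx, rfl⟩
  exact ⟨_, _, _, _, _, _, _, _, _, _, _, _, outD_of (R := R) (fun n => rfl) hR hN hNd' hM1
    (fun n => Real.rpow_pos_of_pos two_pos _) hA2 hcmp hK2 hK
    (Eventually.of_forall fun n => min_le_right _ _) h2 hAll hPI hPc hPB hKl hΨ
    (Eventually.of_forall fun n => hW.sub n) hmt7 hX7 hq h2s⟩

end Crest.Agent.R136.Lz627
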