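import Crest.Agent.R136.Lz1_627
import Crest.Agent.R116.Zl4_139

/-!
# R136 (S0187), U4, pure penalty, leaf (d) (helper627), part 2: range, resolution, velocities

* `rng_of` : the range `[d^(K n) w 1, d^(-K n) w 1]`, `K n → ∞`, is superpolynomially far from the
  widths of the marks of every level.
* `shrinkK` : smaller range.
* `log_r_of` : a bound of the admissible exponents is a bound of the resolution.
* `all_of_mem` : a property of the lines contained in `mem` holds for all lines.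
-/

set_option autoImplicit false
set_option linter.unusedVariables false
set_option linter.unusedSectionVars false

open Finset Filter Topology

namespace Crest.Agent.R136.Lz627

open Crest.Agent.R138.Ex926 (Base U exists_diag exists_tendsto ev_em)
open Crest.Agent.R138.Dp76
open Crest.Agent.R138.Mk163 (zc zl rho alive own)
open Crest.Agent.R138.MkRef627 (mem_alive)
open Crest.Agent.R136.MkA627
open Crest.Agent.R116.Zl139

section

variable {ι S : Type} {B : Base} {I : ℕ → Finset (ℕ × ℝ)} {G : Geo ((ι → ℕ) × S) ι}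
    {lev : ℕ → ℚ → ℕ} {A : ℕ → ℝ} {c Λ : ℝ → ℝ} {θ : ι → ℝ}
    {f : ℕ → ℚ → ℕ → ℤ → ℕ} {b : ℕ → ℚ → ℕ → (ι → ℕ) × S} {vm : ℕ → ℚ → ℝ} {w : ι → ℕ → ℚ → ℝ}

/-- **the range is superpolynomial.** -/
theorem rng_of (h : MkA B I G lev A c Λ (fun j v => θ j * (1 - v)) f b vm w) {K : ℕ → ℝ}
    (hK : Tendsto K U atTop) (C : ℝ) (j : ι) (v : ℚ) (h0 : 0 ≤ v) (h1 : v ≤ 1) :
    ∀ᶠ n in (U : Filter ℕ), B.d n ^ (K n) * w j n 1 ≤ B.d n ^ C * w j n v ∧
      w j n v ≤ B.d n ^ C * (B.d n ^ (-(K n)) * w j n 1) := by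
  have hR : 1 + |θ j| < 2 + |θ j| := by linarith
  filter_upwards [mark_rg h h0 h1 j hR, hK.eventually_ge_atTop (C + (2 + |θ j|)),
    h.wpos j 1 zero_le_one le_rfl] with n a1 a2 p
  have pc := dpow_pos B n C
  constructor
  · calc B.d n ^ (K n) * w j n 1 ≤ B.d n ^ (C + (2 + |θ j|)) * w j n 1 :=
          mul_le_mul_of_nonneg_right (dpow_le B n a2) p.le
      _ = B.d n ^ C * (B.d n ^ (2 + |θ j|) * w j n 1) := by rw [dpow_add]; ring
      _ ≤ _ := mul_le_mul_of_nonneg_left a1.1 pc.le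
  · calc w j n v ≤ B.d n ^ (-(2 + |θ j|)) * w j n 1 := a1.2
      _ ≤ B.d n ^ (C + -(K n)) * w j n 1 :=
          mul_le_mul_of_nonneg_right (dpow_le B n (by linarith)) p.le
      _ = _ := by rw [dpow_add]; ring

end

section

variable {σ κ : Type*} {B : Base} {I : ℕ → Finset (ℕ × ℝ)} {G : Geo σ κ}
    {lev : ℕ → ℚ → ℕ} {A : ℕ → ℝ} {c Λ : ℝ → ℝ} {τ : κ → ℝ → ℝ}
    {f : ℕ → ℚ → ℕ → ℤ → ℕ} {b : ℕ → ℚ → ℕ → σ} {vm : ℕ → ℚ → ℝ} {w : κ → ℕ → ℚ → ℝ}

/-- a property of the lines contained in `mem` holds for all lines. -/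
theorem all_of_mem (h : MkA B I G lev A c Λ τ f b vm w) {P : ℕ → ℕ → Prop}
    (hP : ∀ n i J s t, G.mem n i J s t → P n t) :
    ∀ᶠ n in (U : Filter ℕ), ∀ x ∈ I n, P n x.1 := by
  filter_upwards [h.mark 1 zero_le_one le_rfl] with n hn x hx
  exact hP n _ _ _ _ (hn (zc (lev n 1) x.2) x.1 (mem_alive.2 ⟨x, hx, rfl, rfl⟩)).1

/-- the mark of some alive line of level `v` is admissible. -/
theorem exists_adm (h : MkA B I G lev A c Λ τ f b vm w) (v : ℚ) (h0 : 0 ≤ v) (h1 : v ≤ 1) :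
    ∀ᶠ n in (U : Filter ℕ), ∃ (J : ℤ) (s : σ), G.adm n (lev n v) J s := by
  filter_upwards [h.mark v h0 h1, h.ne] with n hn hne
  obtain ⟨x, hx⟩ := hne
  exact ⟨_, _, (hn (zc (lev n v) x.2) x.1 (mem_alive.2 ⟨x, hx, rfl, rfl⟩)).2.1⟩

end

/-- **resolution** from a bound of the exponents: if every admissible set has a shrunk admissible
companion with exponent `≥ log₂ (1/r) - 1`. -/
theorem log_r_of {B : Base} {r : ℕ → ℝ} {N : ℕ → ℕ}
    (hN : ∀ ε : ℝ, 0 < ε → ∀ᶠ n in (U : Filter ℕ), (N n : ℝ) ≤ B.d n ^ (-ε))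
    (hr : ∀ᶠ n in (U : Filter ℕ), 0 < r n ∧ (1 / 2 : ℝ) ^ (N n) ≤ 2 * r n) (ε : ℝ) (hε : 0 < ε) :
    ∀ᶠ n in (U : Filter ℕ), Real.log (1 / r n) ≤ B.d n ^ (-ε) := by
  filter_upwards [hN (ε / 2) (by positivity), hr, B.ev_L_ge (2 / ε * Real.log 2)] with n a1 a2 a3
  obtain ⟨p, a2⟩ := a2
  have l2 : 0 < Real.log 2 := Real.log_pos one_lt_two
  have l21 : Real.log 2 ≤ 1 := by
    have := Real.log_two_lt_d9
    linarith
  have e1 : (1 / 2 : ℝ) ^ (N n) = Real.exp (-(N n * Real.log 2)) := by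
    rw [← Real.exp_log (show (0:ℝ) < (1 / 2 : ℝ) ^ (N n) by positivity), Real.log_pow]
    congr 1
    rw [one_div, Real.log_inv]
    ring
  have e2 : Real.log (1 / r n) ≤ (N n + 1) * Real.log 2 := by
    rw [one_div, Real.log_inv]
    have h3 : Real.log ((1 / 2 : ℝ) ^ (N n)) ≤ Real.log (2 * r n) :=
      Real.log_le_log (by positivity) a2
    rw [e1, Real.log_exp, Real.log_mul two_ne_zero p.ne'] at h3
    linarith
  have hd : B.d n ^ (-(ε / 2)) * B.d n ^ (-(ε / 2)) = B.d n ^ (-ε) := by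
    rw [← dpow_add]; congr 1; ring
  have h2 : (2 : ℝ) ≤ B.d n ^ (-(ε / 2)) := by
    have e3 : B.d n ^ (-(ε / 2)) = Real.exp (ε / 2 * B.L n) := by
      rw [Real.rpow_def_of_pos (B.pos n)]
      unfold Base.L
      congr 1; ring
    have h4 : ε / 2 * (2 / ε * Real.log 2) ≤ ε / 2 * B.L n :=
      mul_le_mul_of_nonneg_left a3 (by positivity)
    have e5 : ε / 2 * (2 / ε * Real.log 2) = Real.log 2 := by field_simp
    rw [e5] at h4
    rw [e3]
    calc (2 : ℝ) = Real.exp (Real.log 2) := (Real.exp_log two_pos).symm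
      _ ≤ _ := Real.exp_le_exp.2 h4
  have h1 : (1 : ℝ) ≤ B.d n ^ (-(ε / 2)) := by linarith
  calc Real.log (1 / r n) ≤ (N n + 1) * Real.log 2 := e2
    _ ≤ (N n + 1) * 1 := mul_le_mul_of_nonneg_left l21 (by positivity)
    _ ≤ B.d n ^ (-(ε / 2)) + B.d n ^ (-(ε / 2)) := by linarith
    _ = 2 * B.d n ^ (-(ε / 2)) := by ring
    _ ≤ B.d n ^ (-(ε / 2)) * B.d n ^ (-(ε / 2)) :=
        mul_le_mul_of_nonneg_right h2 (dpow_pos B n _).le
    _ = _ := hd

end Crest.Agent.R136.Lz627
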