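import Crest.Agent.R136.Lz3_627
import Crest.Agent.R136.Rnd2_289

/-!
# R136 (S0187), U4, pure penalty, leaf (d) (helper627), part 4: dyadic sheets ⊢ all sheets

* `geoR` : the geometry of sheets with range in all three widths (= `geo4` of J1 v3c, `rfl`).
* `Is36 T R` : `T` is the class of dyadic sheets of resolution `2^-R` (879's `TS36`).
* `cov36` : the comparison `CovP` between the linear dyadic geometry `rgK (geo T p L)` and `geoR`.
* `mark36` : the marks are in the range.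
-/

set_option autoImplicit false
set_option linter.unusedVariables false
set_option linter.unusedSectionVars false

open Finset Filter Topology

namespace Crest.Agent.R136.Lz627

open Sh605 K4 KS879 En879 XA248 Win823 Cod289
open Crest.Agent.R138.Ex926 Crest.Agent.R138.Dp76
open Crest.Agent.R138.Mk163 (zc zl rho alive own)
open Crest.Agent.R138.MkRef627 (lc mem_alive)
open MkA627 (Geo MkA ampA)
open Dia770 XIn823
open Crest.Agent.R116.Xa794 (TS geo)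
open Crest.Agent.R116.Zl139 (rgK mark_rg)

/-- geometry of sheets, range in all three widths -/
noncomputable def geoR (L : ℕ → ℕ → Ln4) (r0 : ℕ → ℝ) (wr cr : Fin 3 → ℕ → ℝ) (q : Fin 3 → ℝ) :
    Geo Plk4 (Fin 3) where
  mem := fun n i J s t => InSheet (L n t) s.e s.c s.w s.q s.a (zl i J) (rho i)
  adm := fun n i J s => ShN s.e s.c s.w s.q s.a (zl i J) (rho i) (r0 n) ∧ s.w 1 ≤ rho i ∧
    ∀ k : Fin 3, wr k n ≤ ![s.a, s.w 1, s.w 2] k ∧ ![s.a, s.w 1, s.w 2] k ≤ cr k n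
  val := fun n i J s => s.a * s.w 2 * s.w 1 *
    ((s.a / rho i) ^ q 0 * (s.w 1 / rho i) ^ q 1 * (s.w 2 / rho i) ^ q 2)
  wid := fun k s => ![s.a, s.w 1, s.w 2] k

/-- the class of dyadic sheets of resolution `2^-R` -/
structure Is36 (T : TS Ln4 (Fin 3) Plk4) (R : ℕ) : Prop where
  mem : ∀ i J s t, T.mem i J s t ↔
    (InSheet t s.2.e s.2.c s.2.w s.2.q s.2.a (zl i J) (rho i) ∧ ∀ k, |t.v k| ≤ 1)
  adm : ∀ i J s, T.adm i J s ↔
    (ShN s.2.e s.2.c s.2.w s.2.q s.2.a (zl i J) (rho i) ((1 / 2 : ℝ) ^ R) ∧ s.2.w 1 ≤ rho i ∧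
      ∀ k, wd s.2 k = (1 / 2 : ℝ) ^ (s.1 k))
  vol : ∀ i a, T.vol i a = (1 / 2 : ℝ) ^ (a 0) * (1 / 2 : ℝ) ^ (a 1) * (1 / 2 : ℝ) ^ (a 2)

/-- size of a dyadic sheet -/
theorem cap36 {T : TS Ln4 (Fin 3) Plk4} {R : ℕ} (hT : Is36 T R) (p : Fin 3 → ℝ) (i : ℕ)
    {s : (Fin 3 → ℕ) × Plk4} (hs : ∀ k, wd s.2 k = (1 / 2 : ℝ) ^ (s.1 k)) :
    s.2.a * s.2.w 2 * s.2.w 1 * ((s.2.a / rho i) ^ p 0 * (s.2.w 1 / rho i) ^ p 1 *
      (s.2.w 2 / rho i) ^ p 2) = T.cap p i s.1 := by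
  have h0 : s.2.a = (1 / 2 : ℝ) ^ (s.1 0) := hs 0
  have h1 : s.2.w 1 = (1 / 2 : ℝ) ^ (s.1 1) := hs 1
  have h2 : s.2.w 2 = (1 / 2 : ℝ) ^ (s.1 2) := hs 2
  have hr : ∀ k : Fin 3, ((1 / 2 : ℝ) ^ (s.1 k) / rho i) ^ p k =
      (2 : ℝ) ^ (-(p k * ((s.1 k : ℝ) - i))) := by
    intro k
    have e : (1 / 2 : ℝ) ^ (s.1 k) / rho i = (2 : ℝ) ^ (-((s.1 k : ℝ) - i)) := by
      rw [neg_sub, Real.rpow_sub two_pos, Real.rpow_natCast, Real.rpow_natCast]
      unfold rho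
      rw [one_div_pow]
      field_simp
    rw [e, ← Real.rpow_mul two_pos.le]
    congr 1; ring
  unfold TS.cap
  rw [hT.vol, h0, h1, h2, hr, hr, hr, Fin.sum_univ_three, neg_add, neg_add,
    Real.rpow_add two_pos, Real.rpow_add two_pos]
  ring

/-- exponent of a dyadic multiple of the resolution -/
theorem exp36 {R i : ℕ} {x : ℝ} (hx : x = (1 / 2 : ℝ) ^ R * 2 ^ i) (h1 : x ≤ 1) :
    x = (1 / 2 : ℝ) ^ (R - i) := by
  have hi : i ≤ R := by
    by_contra hlt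
    push Not at hlt
    have h2 : (1 / 2 : ℝ) ^ R * 2 ^ i = 2 ^ (i - R) := by
      obtain ⟨k, rfl⟩ := Nat.exists_eq_add_of_le hlt.le
      rw [Nat.add_sub_cancel_left, pow_add, ← mul_assoc, ← mul_pow]
      norm_num
    rw [hx, h2] at h1
    have h3 : (1 : ℝ) < 2 ^ (i - R) := one_lt_pow₀ (by norm_num) (by omega)
    linarith
  obtain ⟨k, rfl⟩ := Nat.exists_eq_add_of_le hi
  rw [Nat.add_sub_cancel_left, hx, pow_add]
  have : (1 / 2 : ℝ) ^ i * (1 / 2) ^ k * 2 ^ i = (1 / 2 * 2) ^ i * (1 / 2) ^ k := by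
    rw [mul_pow]; ring
  rw [this]
  norm_num

open Classical in
/-- **dyadic rounding of one sheet**, lines with multiplicities. -/
theorem rnd36 {T : TS Ln4 (Fin 3) Plk4} {R : ℕ} (hT : Is36 T R) (p : Fin 3 → ℝ) {i : ℕ} {J : ℤ}
    {s : Plk4} (hS : ShN s.e s.c s.w s.q s.a (zl i J) (rho i) ((1 / 2 : ℝ) ^ R))
    (h1 : s.w 1 ≤ rho i) {ι : Type} (L : ι → Ln4) (O : Finset ι)
    (hO : ∀ t ∈ O, InSheet (L t) s.e s.c s.w s.q s.a (zl i J) (rho i) ∧ ∀ k, |(L t).v k| ≤ 1) :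
    ∃ s' : (Fin 3 → ℕ) × Plk4, T.adm i J s' ∧
      (∀ k, wd s'.2 k ≤ wd s k ∧ wd s k ≤ 8 * wd s'.2 k) ∧
      T.cap p i s'.1 ≤ K0N p * (s.a * s.w 2 * s.w 1 * ((s.a / rho i) ^ p 0 *
        (s.w 1 / rho i) ^ p 1 * (s.w 2 / rho i) ^ p 2)) ∧
      ∃ O' : Finset ι, O' ⊆ O ∧ (∀ t ∈ O', T.mem i J s' (L t)) ∧
        (O.card : ℝ) ≤ K0N p * (O'.card : ℝ) := by
  have hr : (0:ℝ) < (1 / 2 : ℝ) ^ R := by positivity
  have hρ : (0:ℝ) < rho i := by unfold rho; positivity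
  have hρ1 : rho i ≤ 1 := by
    unfold rho
    rw [div_le_one (by positivity)]
    exact one_le_pow₀ (by norm_num)
  have hC := Sh321.ShN.toC hr hS
  obtain ⟨c', w', q', a', i0, j0, k0, hS', ha, h2', h1', ba, b2, b1, -, -, hc⟩ :=
    Rnd289.rnd_C hC hr hρ L O (fun t ht => (hO t ht).1)
  obtain ⟨pa, -, p2, p1⟩ := hC.pos hr
  obtain ⟨pa', -, p2', p1'⟩ := hS'.pos hr
  have hN' : ShN s.e c' w' q' a' (zl i J) (rho i) ((1 / 2 : ℝ) ^ R) := hS'.toN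
  have w1le : w' 1 ≤ 1 := (b1.1.trans h1).trans hρ1
  have w2le : w' 2 ≤ 1 := hN'.w_le.trans w1le
  have ale : a' ≤ 1 := hN'.a_le.trans w2le
  set K' : Plk4 := ⟨J, s.e, c', w', q', a'⟩ with hK'
  have hwd : ∀ k, wd K' k = (1 / 2 : ℝ) ^ ((![R - i0, R - k0, R - j0] : Fin 3 → ℕ) k) := by
    intro k
    fin_cases k
    · exact exp36 ha ale
    · exact exp36 h1' w1le
    · exact exp36 h2' w2le
  have hcmp : Rnd289.Comp { s with j := J } K' :=
    ⟨rfl, ba.1, by show s.a ≤ 8 * a'; linarith [ba.2], b2.1,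
      by show s.w 2 ≤ 8 * w' 2; linarith [b2.2], b1.1, b1.2⟩
  have hqs : 0 ≤ 3 * qs p := by unfold qs; positivity
  have hA1 : (1:ℝ) ≤ (2:ℝ) ^ (3 * qs p) := Real.one_le_rpow (by norm_num) hqs
  refine ⟨(![R - i0, R - k0, R - j0], K'), (hT.adm _ _ _).2 ⟨hN', b1.1.trans h1, hwd⟩, ?_, ?_,
    O.filter fun t => InSheet (L t) s.e c' w' q' a' (zl i J) (rho i), filter_subset _ _, ?_, ?_⟩
  · intro k
    fin_cases k
    · exact ⟨ba.1, by show s.a ≤ 8 * a'; linarith [ba.2]⟩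
    · exact ⟨b1.1, b1.2⟩
    · exact ⟨b2.1, by show s.w 2 ≤ 8 * w' 2; linarith [b2.2]⟩
  · rw [← cap36 hT p i (s := (![R - i0, R - k0, R - j0], K')) hwd]
    have hval : ∀ K : Plk4, K.a * K.w 2 * K.w 1 *
        ((K.a / rho i) ^ p 0 * (K.w 1 / rho i) ^ p 1 * (K.w 2 / rho i) ^ p 2) = cap5 p i K := by
      intro K
      unfold cap5
      rw [div_rho, div_rho, div_rho]
    have e1 := hval K'
    have e2 := hval s
    rw [show ((![R - i0, R - k0, R - j0], K') : (Fin 3 → ℕ) × Plk4).2 = K' from rfl, e1, e2]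
    have e3 := (Rnd289.cap5_comp (q := p) (m := i) hcmp pa p2 p1).1
    have e4 : cap5 p i { s with j := J } = cap5 p i s := rfl
    rw [e4] at e3
    refine e3.trans ?_
    have h0 : 0 ≤ cap5 p i s := by unfold cap5; positivity
    refine mul_le_mul_of_nonneg_right ?_ h0
    unfold K0N
    exact le_mul_of_one_le_left (by positivity) (by norm_num)
  · intro t ht
    rw [mem_filter] at ht
    exact (hT.mem _ _ _ _).2 ⟨ht.2, (hO t ht.1).2⟩
  · refine hc.trans ?_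
    refine mul_le_mul_of_nonneg_right ?_ (Nat.cast_nonneg _)
    unfold K0N
    exact le_mul_of_one_le_right (by positivity) hA1

section

variable {B : Base} {I : ℕ → Finset (ℕ × ℝ)} {T : ℕ → TS Ln4 (Fin 3) Plk4} {R : ℕ → ℕ}
  {L : ℕ → ℕ → Ln4} {p : Fin 3 → ℝ} {w : Fin 3 → ℕ → ℚ → ℝ} {K : ℕ → ℝ}

theorem eight_le (B : Base) : ∀ᶠ n in (U : Filter ℕ), 8 * B.d n ^ (1 : ℝ) ≤ 1 := by
  filter_upwards [ev_const_le B 8 (show (0:ℝ) < 1 by norm_num)] with n hn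
  have h1 := mul_le_mul_of_nonneg_right hn (dpow_pos B n 1).le
  have h2 : B.d n ^ (-(1:ℝ)) * B.d n ^ (1:ℝ) = 1 := by
    rw [← dpow_add]; norm_num
  rw [h2] at h1
  exact h1

/-- **the comparison** of the dyadic linear geometry of range `K` with all sheets of range `K - 1`. -/
theorem cov36 (hT : ∀ n, Is36 (T n) (R n)) {Lc : ℕ → Finset ℕ}
    (hv : ∀ᶠ n in (U : Filter ℕ), ∀ t ∈ Lc n, ∀ k, |(L n t).v k| ≤ 1)
    (hw : ∀ᶠ n in (U : Filter ℕ), ∀ k, 0 < w k n 1) :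
    CovP (Prod.snd : (Fin 3 → ℕ) × Plk4 → Plk4) (K0N p) (fun _ => 0) Lc
      (rgK B w K (geo T p L))
      (geoR L (fun n => (1 / 2 : ℝ) ^ (R n)) (fun k n => B.d n ^ (K n - 1) * w k n 1)
        (fun k n => B.d n ^ (-(K n - 1)) * w k n 1) p) where
  mem := by
    intro n i J s _ t ht
    exact (((hT n).mem i J s (L n t)).1 ht).1
  val := by
    intro n i J s hs
    exact cap36 (hT n) p i (((hT n).adm i J s).1 hs.1).2.2
  wid := by
    intro n i J s hs k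
    have h := (((hT n).adm i J s).1 hs.1).2.2
    show ![s.2.a, s.2.w 1, s.2.w 2] k = (1 / 2 : ℝ) ^ (s.1 k)
    exact h k
  cov := by
    filter_upwards [hv, hw, eight_le B] with n h1 h2 h8 i _ J s hs O hO hm
    obtain ⟨a1, a2, a3⟩ := hs
    obtain ⟨s', b1, b2, b3, O', c1, c2, c3⟩ := rnd36 (hT n) p a1 a2 (fun t => L n t) O
      (fun t ht => ⟨hm t ht, h1 t (hO ht)⟩)
    refine ⟨s', ⟨b1, fun j => ?_⟩, b3, O', c1, c2, c3⟩
    have g1 := (((hT n).adm i J s').1 b1).2.2 j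
    have g2 := b2 j
    have g3 := a3 j
    have g4 := h2 j
    have e0 : (![s.a, s.w 1, s.w 2] : Fin 3 → ℝ) j = wd s j := rfl
    rw [e0] at g3
    show B.d n ^ (K n) * w j n 1 ≤ (1 / 2 : ℝ) ^ (s'.1 j) ∧
      (1 / 2 : ℝ) ^ (s'.1 j) ≤ B.d n ^ (-(K n)) * w j n 1
    rw [← g1]
    have d1 := dpow_pos B n (K n - 1)
    constructor
    · have e1 : B.d n ^ (K n) = B.d n ^ (K n - 1) * B.d n ^ (1 : ℝ) := by
        rw [← dpow_add]; congr 1; ring
      have h3 : 8 * (B.d n ^ (K n) * w j n 1) ≤ B.d n ^ (K n - 1) * w j n 1 := by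
        rw [e1]
        calc 8 * (B.d n ^ (K n - 1) * B.d n ^ (1 : ℝ) * w j n 1)
            = (8 * B.d n ^ (1 : ℝ)) * (B.d n ^ (K n - 1) * w j n 1) := by ring
          _ ≤ 1 * (B.d n ^ (K n - 1) * w j n 1) :=
              mul_le_mul_of_nonneg_right h8 (by positivity)
          _ = _ := one_mul _
      linarith [g3.1, g2.2]
    · refine (g2.1.trans g3.2).trans ?_
      exact mul_le_mul_of_nonneg_right (dpow_le B n (by linarith)) g4.le

/-- **the marks are in the range.** -/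
theorem mark36 {G : Geo ((Fin 3 → ℕ) × Plk4) (Fin 3)} {lev : ℕ → ℚ → ℕ} {A : ℕ → ℝ}
    {c Λ : ℝ → ℝ} {θ : Fin 3 → ℝ} {f : ℕ → ℚ → ℕ → ℤ → ℕ} {b : ℕ → ℚ → ℕ → (Fin 3 → ℕ) × Plk4}
    {vm : ℕ → ℚ → ℝ} (hT : ∀ n, Is36 (T n) (R n)) (hK : Tendsto K U atTop)
    (hG : G = rgK B w K (geo T p L))
    (h : MkA B I G lev A c Λ (fun j v => θ j * (1 - v)) f b vm w) (v : ℚ) (h0 : 0 ≤ v)
    (h1 : v ≤ 1) :
    ∀ᶠ n in (U : Filter ℕ), ∀ J : ℤ, ∀ t ∈ alive (I n) (lev n v) J,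
      G.adm n (lev n v) J (b n v (f n v t J)) →
        (geoR L (fun n => (1 / 2 : ℝ) ^ (R n)) (fun k n => B.d n ^ (K n - 1) * w k n 1)
          (fun k n => B.d n ^ (-(K n - 1)) * w k n 1) p).adm n (lev n v) J
          (b n v (f n v t J)).2 := by
  subst hG
  have e1 : ∀ᶠ n in (U : Filter ℕ), ∀ k, B.d n ^ (2 + |θ k|) * w k n 1 ≤ w k n v ∧
      w k n v ≤ B.d n ^ (-(2 + |θ k|)) * w k n 1 := by
    rw [Filter.eventually_all]
    exact fun k => mark_rg h h0 h1 k (by linarith)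
  have e2 : ∀ᶠ n in (U : Filter ℕ), ∀ k, 3 + |θ k| ≤ K n := by
    rw [Filter.eventually_all]
    exact fun k => hK.eventually_ge_atTop _
  have e3 : ∀ᶠ n in (U : Filter ℕ), ∀ k, 0 < w k n 1 := by
    rw [Filter.eventually_all]
    exact fun k => h.wpos k 1 zero_le_one le_rfl
  filter_upwards [e1, e2, e3, h.mark v h0 h1] with n a1 a2 a3 a4 J t ht hs
  obtain ⟨g1, g2, g3⟩ := ((hT n).adm _ _ _).1 hs.1
  refine ⟨g1, g2, fun k => ?_⟩
  have m4 := (a4 J t ht).2.2.2 k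
  have e0 : (![(b n v (f n v t J)).2.a, (b n v (f n v t J)).2.w 1,
    (b n v (f n v t J)).2.w 2] : Fin 3 → ℝ) k = w k n v := (g3 k).trans m4
  rw [e0]
  have h4 := a1 k
  have h5 := a2 k
  have h6 := a3 k
  constructor
  · exact (mul_le_mul_of_nonneg_right (dpow_le B n (by linarith)) h6.le).trans h4.1
  · exact h4.2.trans (mul_le_mul_of_nonneg_right (dpow_le B n (by linarith)) h6.le)

end

end Crest.Agent.R136.Lz627
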