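import Crest.Agent.R136.Lz5_627

/-!
# R136 (S0187), U4, pure penalty, leaf (d) (helper627), part 6: the short window with `AllD`

* `AllMid` : D-max at all natural levels between `lev a` and `lev b`.
* `zoomAll` : the short window around `v = 1/2` of a marked sequence with `AllMid`: D-max at all
  natural levels of the window and `kk` levels beyond, for ALL the incidences of the big sequence.
-/

set_option autoImplicit false
set_option linter.unusedVariables false
set_option linter.unusedSectionVars false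

open Finset Filter Topology

namespace Crest.Agent.R136.Lz627

open Crest.Agent.R138.Ex926 (Base U exists_diag exists_tendsto ev_em)
open Crest.Agent.R138.Dp76
open Crest.Agent.R138.Mk163 (zc zl rho alive own)
open Crest.Agent.R138.MkRef627 (mem_alive alive_mono)
open Crest.Agent.R138.MkPoint627 (exists_affine)
open Crest.Agent.R138.MkZoom779 (Fq Fq_mem ev_mem_Fq)
open Crest.Agent.R136.MkA627
open Crest.Agent.R116.Xa794 (TS geo)
open Crest.Agent.R116.Xc794
open Crest.Agent.R116.Zl139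
open Crest.Agent.R116.KF439 (Win)
open Dia770 (AllD)

section zoom

variable {σ κ : Type} {B : Base} {I : ℕ → Finset (ℕ × ℝ)} {G : Geo σ κ}
    {lev : ℕ → ℚ → ℕ} {A : ℕ → ℝ} {g : ℝ} {θ : κ → ℝ}
    {f : ℕ → ℚ → ℕ → ℤ → ℕ} {b : ℕ → ℚ → ℕ → σ} {vm : ℕ → ℚ → ℝ} {w : κ → ℕ → ℚ → ℝ}

open Classical in
/-- D-max at the natural levels between `lev a` and `lev e` -/
def AllMid (B : Base) (I : ℕ → Finset (ℕ × ℝ)) (G : Geo σ κ) (lev : ℕ → ℚ → ℕ) (A : ℕ → ℝ) (g : ℝ)
    (a e : ℚ) : Prop :=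
  ∀ ε : ℝ, 0 < ε → ∀ᶠ n in (U : Filter ℕ), ∀ i : ℕ, lev n a ≤ i → i ≤ lev n e →
    ∀ (J : ℤ) (s : σ), G.adm n i J s →
      (((alive (I n) i J).filter fun t => G.mem n i J s t).card : ℝ) ≤
        B.d n ^ (-ε) * (A n * 2 ^ (g * ((i : ℝ) - lev n 0))) * G.val n i J s

open Classical in
theorem AllMid.sub {a e : ℚ} (h : AllMid B I G lev A g a e) {J : ℕ → Finset (ℕ × ℝ)}
    (hJ : ∀ᶠ n in (U : Filter ℕ), J n ⊆ I n) : AllMid B J G lev A g a e := by
  intro ε hε
  filter_upwards [h ε hε, hJ] with n hn h2 i h0 h1 j s hs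
  refine le_trans ?_ (hn i h0 h1 j s hs)
  exact_mod_cast card_le_card (filter_subset_filter _ (alive_mono h2 _ _))

theorem allMid_of_allD (h : AllD B I G lev A g) : AllMid B I G lev A g 0 1 := h

theorem AllMid.mono {a e a' e' : ℚ} (h : AllMid B I G lev A g a e)
    (ha : ∀ᶠ n in (U : Filter ℕ), lev n a ≤ lev n a')
    (he : ∀ᶠ n in (U : Filter ℕ), lev n e' ≤ lev n e) : AllMid B I G lev A g a' e' := by
  intro ε hε
  filter_upwards [h ε hε, ha, he] with n hn h1 h2 i h3 h4 j s hs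
  exact hn i (h1.trans h3) (h4.trans h2) j s hs

/-- powers of two as powers of `d`. -/
theorem two_d (B : Base) (n : ℕ) {X x e g : ℝ} (h : |X * Real.log 2 / B.L n - x| ≤ e) :
    (2 : ℝ) ^ (g * X) ≤ B.d n ^ (-(g * x) - |g| * e) := by
  have hL := B.L_pos n
  rw [Real.rpow_def_of_pos two_pos, Real.rpow_def_of_pos (B.pos n)]
  have e1 : Real.log (B.d n) = -B.L n := by unfold Base.L; ring
  rw [e1]
  refine Real.exp_le_exp.2 ?_
  have e2 : X * Real.log 2 / B.L n - x = (X * Real.log 2 - x * B.L n) / B.L n := by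
    field_simp
  rw [e2, abs_div, abs_of_pos hL, div_le_iff₀ hL] at h
  have h2 : g * (X * Real.log 2 - x * B.L n) ≤ |g| * (e * B.L n) := by
    refine (le_abs_self _).trans ?_
    rw [abs_mul]
    exact mul_le_mul_of_nonneg_left h (abs_nonneg _)
  nlinarith

/-- levels at a positive distance are far apart. -/
theorem lev_far {c Λ : ℝ → ℝ} {τ : κ → ℝ → ℝ} (h : MkA B I G lev A c Λ τ f b vm w) {u v : ℚ}
    (hu : 0 ≤ u) (huv : u < v) (hv : v ≤ 1) (k : ℕ) :
    ∀ᶠ n in (U : Filter ℕ), lev n u + k ≤ lev n v := by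
  have huvR : (0 : ℝ) < (v : ℝ) - u := by
    have : (u : ℝ) < v := by exact_mod_cast huv
    linarith
  have l2 : 0 < Real.log 2 := Real.log_pos one_lt_two
  filter_upwards [(h.lev_lim u v hu huv.le hv).eventually
    (eventually_ge_nhds (show ((v : ℝ) - u) / 2 < (v : ℝ) - u by linarith)),
    B.ev_L_ge (2 * ((k : ℝ) * Real.log 2) / ((v : ℝ) - u))] with n a1 a2
  have hL := B.L_pos n
  rw [le_div_iff₀ hL] at a1
  rw [div_le_iff₀ huvR] at a2
  have h3 : (k : ℝ) * Real.log 2 ≤ ((lev n v : ℝ) - lev n u) * Real.log 2 := by nlinarith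
  have h4 := le_of_mul_le_mul_right h3 l2
  have h5 : ((lev n u + k : ℕ) : ℝ) ≤ lev n v := by push_cast; linarith
  exact_mod_cast h5

open Classical in
/-- **zoom to a short window around `1/2`, with `AllD` and a diagonal property.** -/
theorem zoomAll [Countable κ]
    (h : MkA B I G lev A (fun v => g * v) (fun v => 0 * v) (fun j v => θ j * (1 - v)) f b vm w)
    {a e : ℚ} (ha : a < 1 / 2) (he : 1 / 2 < e) (ha0 : 0 ≤ a) (he1 : e ≤ 1)
    (hAll : AllMid B I G lev A g a e) (kk : ℕ)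
    (Q : ((ℕ → ℝ) × (ℕ → ℚ → ℚ)) → ℕ → ℕ → Prop)
    (hQ : ∀ (η : ℕ → ℝ) (m : ℕ → ℚ → ℚ), (∀ k, 0 < η k) →
      (∀ k, ∀ x : ℚ, 0 ≤ x → x ≤ 1 → 0 ≤ m k x ∧ m k x ≤ 1) →
      ∀ k, ∀ᶠ n in (U : Filter ℕ), Q (η, m) k n) :
    ∃ (η : ℕ → ℝ) (m : ℕ → ℚ → ℚ) (t : ℕ → ℕ) (B' : Base) (I' : ℕ → Finset (ℕ × ℝ))
      (A' : ℕ → ℝ),
      (∀ k, 0 < η k) ∧ (∀ k, η k ≤ 1) ∧ Tendsto η atTop (𝓝 0) ∧ Tendsto t U atTop ∧
      (∀ x : ℚ, Tendsto (fun k => ((m k x : ℚ) : ℝ)) atTop (𝓝 (1 / 2))) ∧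
      Win B I B' I' (fun n => η (t n)) (fun n => m (t n)) ∧
      (∀ n, A' n = A n * B.d n ^ (-(g * (m (t n) 0)))) ∧
      MkA B' I' G (fun n x => lev n (m (t n) x)) A' (fun v => g * v) (fun v => 0 * v)
        (fun j v => θ j * (1 - v)) (fun n x => f n (m (t n) x)) (fun n x => b n (m (t n) x))
        (fun n x => vm n (m (t n) x)) (fun j n x => w j n (m (t n) x)) ∧
      (∀ ε : ℝ, 0 < ε → ∀ᶠ n in (U : Filter ℕ), ∀ i : ℕ, lev n (m (t n) 0) ≤ i →
        i ≤ lev n (m (t n) 1) + kk → ∀ (J : ℤ) (s : σ), G.adm n i J s →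
          (((alive (I n) i J).filter fun t => G.mem n i J s t).card : ℝ) ≤
            B'.d n ^ (-ε) * (A' n * 2 ^ (g * ((i : ℝ) - lev n (m (t n) 0)))) * G.val n i J s) ∧
      ∀ᶠ n in (U : Filter ℕ), Q (η, m) (t n) n := by
  obtain ⟨η, m, hη, hη1, hη0, hm, hmono, hq, hpt, -⟩ :=
    exists_affine (v0 := 1 / 2) (by norm_num) (by norm_num)
  obtain ⟨s0, hs0t, hz⟩ := zoomA2 h η m (fun v => g * v) (fun v => 0 * v)
    (fun j v => θ j * (1 - v)) hη hη1 hm
    (fun x y _ hxy _ => Eventually.of_forall fun k => hmono k x y hxy)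
    (fun x y _ _ _ => by
      simp only [hq]
      exact tendsto_const_nhds)
    (fun x hx0 hx1 => by
      have a2 : Tendsto (fun k => g * (((m k x : ℝ) - m k 0) / η k)) atTop
          (𝓝 (g * ((x : ℝ) - ((0 : ℚ) : ℝ)))) := by
        simp only [hq]
        exact tendsto_const_nhds
      have a4 : g * ((x : ℝ) - ((0 : ℚ) : ℝ)) = g * (x : ℝ) := by push_cast; ring
      rw [a4] at a2
      refine a2.congr fun k => ?_
      ring)
    (fun x hx0 hx1 => by simp)
    (fun j x hx0 hx1 => by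
      have a2 : Tendsto (fun k => -(θ j * (((m k x : ℝ) - m k 1) / η k))) atTop
          (𝓝 (-(θ j * ((x : ℝ) - ((1 : ℚ) : ℝ))))) := by
        simp only [hq]
        exact tendsto_const_nhds
      have a4 : -(θ j * ((x : ℝ) - ((1 : ℚ) : ℝ))) = θ j * (1 - (x : ℝ)) := by push_cast; ring
      rw [a4] at a2
      refine a2.congr fun k => ?_
      ring)
    (fun u v hu huv hv => by
      constructor
      · simp
      · simp only [zero_mul, sub_zero]; linarith) (by simp) (by simp) (by simp)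
  obtain ⟨s1, hs1t, hs1'⟩ := exists_diag (fun k n => Q (η, m) k n ∧
      ((a ≤ m k 0 ∧ m k 1 < e) → ∀ i : ℕ, lev n (m k 0) ≤ i → i ≤ lev n (m k 1) + kk →
        ∀ (J : ℤ) (s : σ), G.adm n i J s →
        (((alive (I n) i J).filter fun t => G.mem n i J s t).card : ℝ) ≤
          B.d n ^ (-(η k / ((k : ℝ) + 1))) * (A n * 2 ^ (g * ((i : ℝ) - lev n 0))) *
            G.val n i J s) ∧
      |((lev n (m k 0) : ℝ) - lev n 0) * Real.log 2 / B.L n - (m k 0 : ℝ)| ≤
        η k / ((k : ℝ) + 1)) (by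
    intro k
    obtain ⟨hm0, hm1⟩ := hm k 0 le_rfl zero_le_one
    obtain ⟨hm2, hm3⟩ := hm k 1 zero_le_one le_rfl
    have hk : (0 : ℝ) < η k / ((k : ℝ) + 1) := div_pos (hη k) (by positivity)
    have e1 : ∀ᶠ n in (U : Filter ℕ), (a ≤ m k 0 ∧ m k 1 < e) → lev n a ≤ lev n (m k 0) ∧
        lev n (m k 1) + kk ≤ lev n e := by
      by_cases hae : a ≤ m k 0 ∧ m k 1 < e
      · filter_upwards [h.lev_mono a (m k 0) ha0 hae.1 hm1,
          lev_far h hm2 hae.2 he1 kk] with n a1 a2 _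
        exact ⟨a1, a2⟩
      · exact Eventually.of_forall fun n hn => absurd hn hae
    have e2 := (Metric.tendsto_nhds.1 (h.lev_lim 0 (m k 0) le_rfl hm0 hm1)) _ hk
    filter_upwards [hQ η m hη hm k, e1, hAll _ hk, e2] with n a1 a2 a3 a4
    rw [Real.dist_eq] at a4
    have e5 : (m k 0 : ℝ) - ((0 : ℚ) : ℝ) = (m k 0 : ℝ) := by push_cast; ring
    rw [e5] at a4
    refine ⟨a1, fun hae i h1 h2 J s hs => ?_, a4.le⟩
    exact a3 i ((a2 hae).1.trans h1) (h2.trans (a2 hae).2) J s hs)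
  set t : ℕ → ℕ := fun n => min (s0 n) (s1 n) with ht
  have htt : Tendsto t U atTop := by
    rw [tendsto_atTop]
    intro c
    filter_upwards [tendsto_atTop.1 hs0t c, tendsto_atTop.1 hs1t c] with n h1 h2
    exact le_min h1 h2
  obtain ⟨B', I', A', hB', hI', hA', hMk⟩ := hz t htt
    (Eventually.of_forall fun n => min_le_left _ _)
  have hD : ∀ᶠ n in (U : Filter ℕ), _ := hs1'.mono fun n hn => hn (t n) (min_le_right _ _)
  have hA'' : ∀ n, A' n = A n * B.d n ^ (-(g * (m (t n) 0))) := hA'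
  refine ⟨η, m, t, B', I', A', hη, hη1, hη0, htt, hpt, ?_, hA'', hMk, ?_,
    hD.mono fun n hn => hn.1⟩
  · exact
    { pos := fun n => ⟨hη _, hη1 _⟩
      lim := hη0.comp htt
      mem := fun n => hm _
      aff := fun n x y => by
        have h5 := hq (t n) x y
        rw [div_eq_iff (hη _).ne'] at h5
        linarith
      pt := ⟨1 / 2, ⟨by norm_num, by norm_num⟩, fun x => (hpt x).comp htt⟩
      base := hB'
      sub := hI' }
  · -- AllD
    intro ε hε
    have haR : (a : ℝ) < 1 / 2 := by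
      have : ((a : ℚ) : ℝ) < ((1 / 2 : ℚ) : ℝ) := by exact_mod_cast ha
      push_cast at this
      exact this
    have heR : (1 / 2 : ℝ) < e := by
      have : ((1 / 2 : ℚ) : ℝ) < ((e : ℚ) : ℝ) := by exact_mod_cast he
      push_cast at this
      exact this
    have c1 : ∀ᶠ n in (U : Filter ℕ), (a : ℝ) ≤ (m (t n) 0 : ℝ) :=
      ((hpt 0).comp htt).eventually (eventually_ge_nhds haR)
    have c2 : ∀ᶠ n in (U : Filter ℕ), (m (t n) 1 : ℝ) < e :=
      ((hpt 1).comp htt).eventually (eventually_lt_nhds heR)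
    have c3 : ∀ᶠ n in (U : Filter ℕ), (1 + |g|) / ε ≤ (t n : ℝ) :=
      (tendsto_natCast_atTop_atTop.comp htt).eventually_ge_atTop _
    filter_upwards [hD, c1, c2, c3] with n hn k1 k2 k3 i hi0 hi1 J s hs
    have k1' : a ≤ m (t n) 0 := by exact_mod_cast k1
    have k2' : m (t n) 1 < e := by exact_mod_cast k2
    have h2 := hn.2.1 ⟨k1', k2'⟩ i hi0 hi1 J s hs
    have hη' := hη (t n)
    have ht1 : (0 : ℝ) < (t n : ℝ) + 1 := by positivity
    have hAn := h.Apos n
    have hval : 0 ≤ G.val n i J s := by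
      by_contra hneg
      have h3 := mul_neg_of_pos_of_neg (mul_pos (dpow_pos B n (-(η (t n) / ((t n : ℝ) + 1))))
        (mul_pos hAn (Real.rpow_pos_of_pos two_pos (g * ((i : ℝ) - lev n 0))))) (not_le.1 hneg)
      have h4 : (0 : ℝ) ≤ (((alive (I n) i J).filter fun t => G.mem n i J s t).card : ℝ) := by
        positivity
      linarith
    refine h2.trans (mul_le_mul_of_nonneg_right ?_ hval)
    have h5 := two_d B n (g := g) hn.2.2
    have e1 : g * ((i : ℝ) - lev n 0) =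
        g * ((lev n (m (t n) 0) : ℝ) - lev n 0) + g * ((i : ℝ) - lev n (m (t n) 0)) := by ring
    have p2 : (0:ℝ) < 2 ^ (g * ((i : ℝ) - lev n (m (t n) 0))) := Real.rpow_pos_of_pos two_pos _
    have hBp : B'.d n ^ (-ε) = B.d n ^ (-(ε * η (t n))) := by
      rw [hB', ← Real.rpow_mul (B.pos n).le]
      congr 1; ring
    rw [e1, Real.rpow_add two_pos, hA'', hBp]
    calc B.d n ^ (-(η (t n) / ((t n : ℝ) + 1))) *
          (A n * (2 ^ (g * ((lev n (m (t n) 0) : ℝ) - lev n 0)) *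
            2 ^ (g * ((i : ℝ) - lev n (m (t n) 0)))))
        ≤ B.d n ^ (-(η (t n) / ((t n : ℝ) + 1))) *
          (A n * (B.d n ^ (-(g * (m (t n) 0 : ℝ)) - |g| * (η (t n) / ((t n : ℝ) + 1))) *
            2 ^ (g * ((i : ℝ) - lev n (m (t n) 0))))) := by
          have p1 := dpow_pos B n (-(η (t n) / ((t n : ℝ) + 1)))
          gcongr
      _ = B.d n ^ (-(η (t n) / ((t n : ℝ) + 1)) - |g| * (η (t n) / ((t n : ℝ) + 1))) *
          (A n * B.d n ^ (-(g * (m (t n) 0 : ℝ))) *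
            2 ^ (g * ((i : ℝ) - lev n (m (t n) 0)))) := by
          rw [sub_eq_add_neg (-(g * (m (t n) 0 : ℝ))),
            sub_eq_add_neg (-(η (t n) / ((t n : ℝ) + 1))),
            Real.rpow_add (B.pos n) (-(g * (m (t n) 0 : ℝ))),
            Real.rpow_add (B.pos n) (-(η (t n) / ((t n : ℝ) + 1)))]
          ring
      _ ≤ B.d n ^ (-(ε * η (t n))) * (A n * B.d n ^ (-(g * (m (t n) 0 : ℝ))) *
            2 ^ (g * ((i : ℝ) - lev n (m (t n) 0)))) := by
          refine mul_le_mul_of_nonneg_right (dpow_le B n ?_)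
            (mul_nonneg (mul_nonneg hAn.le (dpow_pos B n _).le) p2.le)
          have h6 : (1 + |g|) / ((t n : ℝ) + 1) ≤ ε := by
            rw [div_le_iff₀ ht1]
            rw [div_le_iff₀ hε] at k3
            nlinarith
          have e7 : -(η (t n) / ((t n : ℝ) + 1)) - |g| * (η (t n) / ((t n : ℝ) + 1)) =
              -(η (t n) * ((1 + |g|) / ((t n : ℝ) + 1))) := by
            field_simp
            ring
          rw [e7, neg_le_neg_iff, mul_comm ε]
          exact mul_le_mul_of_nonneg_left h6 hη'.le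

end zoom

end Crest.Agent.R136.Lz627
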