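import Mathlib

/-!
# 4-linear Kakeya in R^4, linear algebra and pigeonhole (helper191), part 1

`quad_of_nonnarrow`: if no slab of half-width `ν` of the velocity space `R^3` carries more than half
of the weight, then the 4-tuples with `|det| ≥ ν^3` carry at least `1/8` of the fourth power of the
weight.  `caps_of_nonnarrow`: the same after a decomposition into velocity cubes.
-/

set_option autoImplicit false

namespace Crest.Agent.R136.MF191

open Finset Matrix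

/-- direction of the line with velocity `v` -/
def dir (v : Fin 3 → ℝ) : Fin 4 → ℝ := ![v 0, v 1, v 2, 1]

/-- determinant of four directions (columns) -/
noncomputable def D4 (e : Fin 4 → Fin 4 → ℝ) : ℝ := (Matrix.of fun i j => e j i).det

/-- the slab of half-width `ν` through `u` with normal `n` -/
def Slab (ν : ℝ) (u n v : Fin 3 → ℝ) : Prop := |∑ i, n i * (v i - u i)| ≤ ν

lemma D4_dir (v : Fin 4 → Fin 3 → ℝ) : |D4 (fun j => dir (v j))| =
    |(((v 1 1 - v 0 1) * (v 2 2 - v 0 2) - (v 1 2 - v 0 2) * (v 2 1 - v 0 1)) * (v 3 0 - v 0 0)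
      + ((v 1 2 - v 0 2) * (v 2 0 - v 0 0) - (v 1 0 - v 0 0) * (v 2 2 - v 0 2)) * (v 3 1 - v 0 1)
      + ((v 1 0 - v 0 0) * (v 2 1 - v 0 1) - (v 1 1 - v 0 1) * (v 2 0 - v 0 0)) *
        (v 3 2 - v 0 2))| := by
  have h : D4 (fun j => dir (v j)) =
    -(((v 1 1 - v 0 1) * (v 2 2 - v 0 2) - (v 1 2 - v 0 2) * (v 2 1 - v 0 1)) * (v 3 0 - v 0 0)
      + ((v 1 2 - v 0 2) * (v 2 0 - v 0 0) - (v 1 0 - v 0 0) * (v 2 2 - v 0 2)) * (v 3 1 - v 0 1)
      + ((v 1 0 - v 0 0) * (v 2 1 - v 0 1) - (v 1 1 - v 0 1) * (v 2 0 - v 0 0)) *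
        (v 3 2 - v 0 2)) := by
    unfold D4
    rw [Matrix.det_succ_row_zero]
    simp only [Fin.sum_univ_four, Matrix.det_fin_three]
    simp [Matrix.submatrix, dir, Fin.succAbove]
    ring
  rw [h, abs_neg]

/-- nested form of a sum over 4-tuples -/
lemma sum_pi_four {ι : Type*} (A : Finset ι) (F : ι → ι → ι → ι → ℝ) :
    ∑ l ∈ Fintype.piFinset (fun _ : Fin 4 => A), F (l 0) (l 1) (l 2) (l 3) =
      ∑ l0 ∈ A, ∑ l1 ∈ A, ∑ l2 ∈ A, ∑ l3 ∈ A, F l0 l1 l2 l3 := by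
  classical
  have h : ∑ l0 ∈ A, ∑ l1 ∈ A, ∑ l2 ∈ A, ∑ l3 ∈ A, F l0 l1 l2 l3 =
      ∑ q ∈ A ×ˢ (A ×ˢ (A ×ˢ A)), F q.1 q.2.1 q.2.2.1 q.2.2.2 := by
    rw [Finset.sum_product]
    refine Finset.sum_congr rfl fun a _ => ?_
    rw [Finset.sum_product]
    refine Finset.sum_congr rfl fun b _ => ?_
    rw [Finset.sum_product]
  rw [h]
  refine Finset.sum_nbij' (fun l => (l 0, l 1, l 2, l 3))
    (fun q => ![q.1, q.2.1, q.2.2.1, q.2.2.2]) ?_ ?_ ?_ ?_ ?_
  · intro l hl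
    rw [Fintype.mem_piFinset] at hl
    simp only [Finset.mem_product]
    exact ⟨hl 0, hl 1, hl 2, hl 3⟩
  · intro q hq
    simp only [Finset.mem_product] at hq
    rw [Fintype.mem_piFinset]
    intro i
    fin_cases i
    · exact hq.1
    · exact hq.2.1
    · exact hq.2.2.1
    · exact hq.2.2.2
  · intro l _
    funext i
    fin_cases i <;> rfl
  · intro q _
    rfl
  · intro l _
    rfl

/-- one step of the greedy choice -/
lemma step_slab {ι : Type*} (A : Finset ι) (v : ι → Fin 3 → ℝ) (w : ι → ℝ) {ν μ : ℝ}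
    (hcomp : ∀ u n : Fin 3 → ℝ, ∑ i, n i ^ 2 = 1 →
      haveI := Classical.decPred fun l => Slab ν u n (v l)
      μ / 2 ≤ ∑ l ∈ A, if Slab ν u n (v l) then 0 else w l)
    (u n : Fin 3 → ℝ) (hn : ∑ i, n i ^ 2 = 1) {c : ℝ} (hc : 0 ≤ c) (G : ι → ℝ)
    (hG0 : ∀ l ∈ A, 0 ≤ G l) (hG : ∀ l ∈ A, ¬ Slab ν u n (v l) → c * w l ≤ G l) :
    c * (μ / 2) ≤ ∑ l ∈ A, G l := by
  classical
  have h1 := hcomp u n hn
  calc c * (μ / 2) ≤ c * ∑ l ∈ A, (if Slab ν u n (v l) then 0 else w l) := by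
        refine mul_le_mul_of_nonneg_left ?_ hc
        convert h1
    _ = ∑ l ∈ A, c * (if Slab ν u n (v l) then 0 else w l) := by rw [Finset.mul_sum]
    _ ≤ ∑ l ∈ A, G l := by
        refine Finset.sum_le_sum fun l hl => ?_
        by_cases hs : Slab ν u n (v l)
        · rw [if_pos hs, mul_zero]
          exact hG0 l hl
        · rw [if_neg hs]
          exact hG l hl hs

open Classical in
/-- **non-narrow implies many transversal 4-tuples** -/
theorem quad_of_nonnarrow {ι : Type*} (A : Finset ι) (v : ι → Fin 3 → ℝ) (w : ι → ℝ)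
    (hw : ∀ l ∈ A, 0 ≤ w l) {ν : ℝ} (hν : 0 < ν)
    (hnn : ∀ u n : Fin 3 → ℝ, ∑ i, n i ^ 2 = 1 →
      ∑ l ∈ A.filter (fun l => Slab ν u n (v l)), w l ≤ (∑ l ∈ A, w l) / 2) :
    (∑ l ∈ A, w l) ^ 4 / 8 ≤ ∑ l ∈ Fintype.piFinset (fun _ : Fin 4 => A),
      if ν ^ 3 ≤ |D4 (fun j => dir (v (l j)))| then ∏ j, w (l j) else 0 := by
  set μ : ℝ := ∑ l ∈ A, w l with hμ
  have hμ0 : 0 ≤ μ := Finset.sum_nonneg hw
  have hcomp : ∀ u n : Fin 3 → ℝ, ∑ i, n i ^ 2 = 1 →
      μ / 2 ≤ ∑ l ∈ A, if Slab ν u n (v l) then 0 else w l := by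
    intro u n hn
    have h1 := hnn u n hn
    have h2 : ∑ l ∈ A, (if Slab ν u n (v l) then 0 else w l) +
        ∑ l ∈ A.filter (fun l => Slab ν u n (v l)), w l = μ := by
      rw [Finset.sum_filter, ← Finset.sum_add_distrib, hμ]
      refine Finset.sum_congr rfl fun l _ => ?_
      split_ifs <;> simp
    linarith
  -- the determinant in terms of the nested variables
  set X : (Fin 3 → ℝ) → (Fin 3 → ℝ) → (Fin 3 → ℝ) := fun a b =>
    ![a 1 * b 2 - a 2 * b 1, a 2 * b 0 - a 0 * b 2, a 0 * b 1 - a 1 * b 0] with hX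
  set dt : ι → ι → ι → ι → ℝ := fun l0 l1 l2 l3 =>
    ∑ i, X (v l1 - v l0) (v l2 - v l0) i * (v l3 i - v l0 i) with hdt
  have hD : ∀ l : Fin 4 → ι, |D4 (fun j => dir (v (l j)))| = |dt (l 0) (l 1) (l 2) (l 3)| := by
    intro l
    rw [D4_dir (fun j => v (l j))]
    simp only [hdt, hX, Fin.sum_univ_three, Matrix.cons_val_zero, Matrix.cons_val_one,
      Matrix.cons_val, Pi.sub_apply]
  have hprod : ∀ l : Fin 4 → ι, ∏ j, w (l j) = w (l 0) * w (l 1) * w (l 2) * w (l 3) := fun l => by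
    rw [Fin.prod_univ_four]
  simp only [hD, hprod]
  rw [sum_pi_four A (fun l0 l1 l2 l3 => if ν ^ 3 ≤ |dt l0 l1 l2 l3| then
    w l0 * w l1 * w l2 * w l3 else 0)]
  -- level 3
  have h3 : ∀ l0 ∈ A, ∀ l1 ∈ A, ∀ l2 ∈ A,
      ν ^ 2 ≤ |X (v l1 - v l0) (v l2 - v l0) 2| →
      w l0 * w l1 * w l2 * (μ / 2) ≤ ∑ l3 ∈ A, (if ν ^ 3 ≤ |dt l0 l1 l2 l3| then
        w l0 * w l1 * w l2 * w l3 else 0) := by
    intro l0 m0 l1 m1 l2 m2 hb
    have p0 := hw l0 m0
    have p1 := hw l1 m1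
    have p2 := hw l2 m2
    set c : Fin 3 → ℝ := X (v l1 - v l0) (v l2 - v l0) with hc
    set ρ : ℝ := √(c 0 ^ 2 + c 1 ^ 2 + c 2 ^ 2) with hρ
    have hρν : ν ^ 2 ≤ ρ := by
      rw [hρ]
      refine hb.trans ?_
      rw [← Real.sqrt_sq_eq_abs]
      exact Real.sqrt_le_sqrt (by nlinarith [sq_nonneg (c 0), sq_nonneg (c 1)])
    have hρpos : 0 < ρ := lt_of_lt_of_le (by positivity) hρν
    have hρsq : ρ ^ 2 = c 0 ^ 2 + c 1 ^ 2 + c 2 ^ 2 := Real.sq_sqrt (by positivity)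
    refine step_slab A v w hcomp (v l0) (fun i => c i / ρ) ?_ (by positivity) _ ?_ ?_
    · rw [Fin.sum_univ_three]
      have : (c 0 / ρ) ^ 2 + (c 1 / ρ) ^ 2 + (c 2 / ρ) ^ 2 =
          (c 0 ^ 2 + c 1 ^ 2 + c 2 ^ 2) / ρ ^ 2 := by
        field_simp
      rw [this, ← hρsq]
      exact div_self (by positivity)
    · intro l3 m3
      have p3 := hw l3 m3
      split_ifs
      · positivity
      · exact le_rfl
    · intro l3 m3 hs
      have p3 := hw l3 m3
      rw [if_pos]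
      unfold Slab at hs
      push Not at hs
      have e1 : dt l0 l1 l2 l3 = ρ * ∑ i, c i / ρ * (v l3 i - v l0 i) := by
        simp only [hdt]
        rw [Finset.mul_sum]
        refine Finset.sum_congr rfl fun i _ => ?_
        have hρne : ρ ≠ 0 := hρpos.ne'
        field_simp
        rw [mul_comm]
      rw [e1, abs_mul, abs_of_pos hρpos, show ν ^ 3 = ν ^ 2 * ν by ring]
      exact mul_le_mul hρν hs.le hν.le hρpos.le
  -- level 2
  have h2 : ∀ l0 ∈ A, ∀ l1 ∈ A, ν ≤ |v l1 0 - v l0 0| →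
      w l0 * w l1 * (μ / 2) * (μ / 2) ≤ ∑ l2 ∈ A, ∑ l3 ∈ A,
        (if ν ^ 3 ≤ |dt l0 l1 l2 l3| then w l0 * w l1 * w l2 * w l3 else 0) := by
    intro l0 m0 l1 m1 ha
    have p0 := hw l0 m0
    have p1 := hw l1 m1
    set a : Fin 3 → ℝ := v l1 - v l0 with hadef
    have ha0 : ν ≤ |a 0| := ha
    set ρ : ℝ := √(a 0 ^ 2 + a 1 ^ 2) with hρ
    have hρν : ν ≤ ρ := by
      rw [hρ]
      refine ha0.trans ?_
      rw [← Real.sqrt_sq_eq_abs]
      exact Real.sqrt_le_sqrt (by nlinarith [sq_nonneg (a 1)])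
    have hρpos : 0 < ρ := lt_of_lt_of_le hν hρν
    have hρsq : ρ ^ 2 = a 0 ^ 2 + a 1 ^ 2 := Real.sq_sqrt (by positivity)
    have key := step_slab A v w hcomp (v l0) ![-(a 1 / ρ), a 0 / ρ, 0] (by
        rw [Fin.sum_univ_three]
        simp only [Matrix.cons_val_zero, Matrix.cons_val_one, Matrix.cons_val]
        have : (-(a 1 / ρ)) ^ 2 + (a 0 / ρ) ^ 2 + (0 : ℝ) ^ 2 =
          (a 0 ^ 2 + a 1 ^ 2) / ρ ^ 2 := by
          field_simp
          ring
        rw [this, ← hρsq]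
        exact div_self (by positivity)) (c := w l0 * w l1 * (μ / 2)) (by positivity)
      (fun l2 => ∑ l3 ∈ A, (if ν ^ 3 ≤ |dt l0 l1 l2 l3| then
        w l0 * w l1 * w l2 * w l3 else 0)) ?_ ?_
    · exact key
    · intro l2 m2
      have p2 := hw l2 m2
      refine Finset.sum_nonneg fun l3 m3 => ?_
      have p3 := hw l3 m3
      split_ifs
      · positivity
      · exact le_rfl
    · intro l2 m2 hs
      unfold Slab at hs
      push Not at hs
      have hb : ν ^ 2 ≤ |X (v l1 - v l0) (v l2 - v l0) 2| := by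
        have e1 : X (v l1 - v l0) (v l2 - v l0) 2 =
            ρ * ∑ i, (![-(a 1 / ρ), a 0 / ρ, 0] : Fin 3 → ℝ) i * (v l2 i - v l0 i) := by
          rw [Fin.sum_univ_three]
          simp only [hX, Matrix.cons_val_zero, Matrix.cons_val_one, Matrix.cons_val, Pi.sub_apply]
          have hρne : ρ ≠ 0 := hρpos.ne'
          have e2 : a 0 = v l1 0 - v l0 0 := rfl
          have e3 : a 1 = v l1 1 - v l0 1 := rfl
          rw [← e2, ← e3]
          field_simp
          ring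
        rw [e1, abs_mul, abs_of_pos hρpos, pow_two]
        exact mul_le_mul hρν hs.le hν.le hρpos.le
      have := h3 l0 m0 l1 m1 l2 m2 hb
      calc w l0 * w l1 * (μ / 2) * w l2 = w l0 * w l1 * w l2 * (μ / 2) := by ring
        _ ≤ _ := this
  -- level 1
  have h1 : ∀ l0 ∈ A, w l0 * (μ / 2) * (μ / 2) * (μ / 2) ≤
      ∑ l1 ∈ A, ∑ l2 ∈ A, ∑ l3 ∈ A,
        (if ν ^ 3 ≤ |dt l0 l1 l2 l3| then w l0 * w l1 * w l2 * w l3 else 0) := by
    intro l0 m0
    have p0 := hw l0 m0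
    refine step_slab A v w hcomp (v l0) ![1, 0, 0] (by
        rw [Fin.sum_univ_three]
        simp) (c := w l0 * (μ / 2) * (μ / 2)) (by positivity) _ ?_ ?_
    · intro l1 m1
      have p1 := hw l1 m1
      refine Finset.sum_nonneg fun l2 m2 => Finset.sum_nonneg fun l3 m3 => ?_
      have p2 := hw l2 m2
      have p3 := hw l3 m3
      split_ifs
      · positivity
      · exact le_rfl
    · intro l1 m1 hs
      unfold Slab at hs
      push Not at hs
      have ha : ν ≤ |v l1 0 - v l0 0| := by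
        rw [Fin.sum_univ_three] at hs
        simpa using hs.le
      have := h2 l0 m0 l1 m1 ha
      calc w l0 * (μ / 2) * (μ / 2) * w l1 = w l0 * w l1 * (μ / 2) * (μ / 2) := by ring
        _ ≤ _ := this
  calc μ ^ 4 / 8 = ∑ l0 ∈ A, w l0 * (μ / 2) * (μ / 2) * (μ / 2) := by
        rw [← Finset.sum_mul, ← Finset.sum_mul, ← Finset.sum_mul, ← hμ]; ring
    _ ≤ _ := Finset.sum_le_sum fun l0 m0 => h1 l0 m0

/-! ### caps -/

/-- cap index -/
noncomputable def cix (η : ℝ) (v : Fin 3 → ℝ) : Fin 3 → ℤ := fun i => ⌊v i / η⌋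

lemma cix_close {η : ℝ} (hη : 0 < η) {v v' : Fin 3 → ℝ} (h : cix η v = cix η v') (i : Fin 3) :
    |v i - v' i| ≤ η := by
  have h1 := congrFun h i
  simp only [cix] at h1
  have h2 := Int.abs_sub_lt_one_of_floor_eq_floor h1
  have h3 : v i - v' i = η * (v i / η - v' i / η) := by field_simp
  rw [h3, abs_mul, abs_of_pos hη]
  nlinarith

lemma cix_card {α : Type*} (s : Finset α) (v : α → Fin 3 → ℝ) {η : ℝ} (hη : 0 < η)
    (hη1 : η ≤ 1) (hv : ∀ a ∈ s, ∀ i, |v a i| ≤ 1) :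
    (((s.image fun a => cix η (v a)).card : ℕ) : ℝ) ≤ (5 / η) ^ 3 := by
  classical
  set n : ℕ := ⌈1 / η⌉₊ with hn
  have hsub : (s.image fun a => cix η (v a)) ⊆
      Fintype.piFinset (fun _ : Fin 3 => Finset.Icc (-(n : ℤ)) n) := by
    intro k hk
    rw [Finset.mem_image] at hk
    obtain ⟨a, ha, rfl⟩ := hk
    rw [Fintype.mem_piFinset]
    intro i
    rw [Finset.mem_Icc]
    have h1 := hv a ha i
    rw [abs_le] at h1
    have h2 : 1 / η ≤ n := Nat.le_ceil _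
    simp only [cix]
    constructor
    · rw [Int.le_floor]
      push_cast
      have : -(1 / η) ≤ v a i / η := by
        rw [le_div_iff₀ hη]
        have : -(1 / η) * η = -1 := by field_simp
        linarith
      linarith
    · have : (⌊v a i / η⌋ : ℝ) ≤ n := by
        refine (Int.floor_le _).trans ?_
        refine le_trans ?_ h2
        exact div_le_div_of_nonneg_right h1.2 hη.le
      exact_mod_cast this
  have h1 := Finset.card_le_card hsub
  rw [Fintype.card_piFinset] at h1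
  have h2 : (Finset.Icc (-(n : ℤ)) n).card = 2 * n + 1 := by
    rw [Int.card_Icc]; omega
  simp only [h2, Finset.prod_const, Finset.card_univ, Fintype.card_fin] at h1
  have h3 : (n : ℝ) ≤ 1 / η + 1 := (Nat.ceil_lt_add_one (by positivity)).le
  have h4 : 1 ≤ 1 / η := by
    rw [le_div_iff₀ hη]; linarith
  calc (((s.image fun a => cix η (v a)).card : ℕ) : ℝ) ≤ (((2 * n + 1) ^ 3 : ℕ) : ℝ) := by
        exact_mod_cast h1
    _ = (2 * (n : ℝ) + 1) ^ 3 := by push_cast; ring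
    _ ≤ (5 / η) ^ 3 := by
        apply pow_le_pow_left₀ (by positivity)
        have : 5 / η = 5 * (1 / η) := by ring
        rw [this]
        linarith

/-- explicit polynomial: the determinant of four velocities -/
def P4 (x y z t : Fin 3 → ℝ) : ℝ :=
  ((y 1 - x 1) * (z 2 - x 2) - (y 2 - x 2) * (z 1 - x 1)) * (t 0 - x 0)
    + ((y 2 - x 2) * (z 0 - x 0) - (y 0 - x 0) * (z 2 - x 2)) * (t 1 - x 1)
    + ((y 0 - x 0) * (z 1 - x 1) - (y 1 - x 1) * (z 0 - x 0)) * (t 2 - x 2)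

/-- trilinear form -/
def T3 (a b c : Fin 3 → ℝ) : ℝ :=
  (a 1 * b 2 - a 2 * b 1) * c 0 + (a 2 * b 0 - a 0 * b 2) * c 1 + (a 0 * b 1 - a 1 * b 0) * c 2

lemma T3_bound {a b c : Fin 3 → ℝ} {A B C : ℝ} (ha : ∀ i, |a i| ≤ A) (hb : ∀ i, |b i| ≤ B)
    (hc : ∀ i, |c i| ≤ C) : |T3 a b c| ≤ 6 * (A * B * C) := by
  have hA : 0 ≤ A := (abs_nonneg _).trans (ha 0)
  have hB : 0 ≤ B := (abs_nonneg _).trans (hb 0)
  have hC : 0 ≤ C := (abs_nonneg _).trans (hc 0)
  have h : ∀ i j k, |a i * b j * c k| ≤ A * B * C := fun i j k => by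
    rw [abs_mul, abs_mul]
    exact mul_le_mul (mul_le_mul (ha i) (hb j) (abs_nonneg _) hA) (hc k) (abs_nonneg _)
      (mul_nonneg hA hB)
  have e : T3 a b c = a 1 * b 2 * c 0 - a 2 * b 1 * c 0 + a 2 * b 0 * c 1 - a 0 * b 2 * c 1
      + a 0 * b 1 * c 2 - a 1 * b 0 * c 2 := by
    unfold T3; ring
  rw [e]
  have h1 := h 1 2 0; have h2 := h 2 1 0; have h3 := h 2 0 1
  have h4 := h 0 2 1; have h5 := h 0 1 2; have h6 := h 1 0 2
  rw [abs_le] at *
  constructor <;> linarith [h1.1, h1.2, h2.1, h2.2, h3.1, h3.2, h4.1, h4.2, h5.1, h5.2, h6.1, h6.2]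

lemma P4_perturb {x y z t x' y' z' t' : Fin 3 → ℝ} {η : ℝ} (hη : 0 ≤ η)
    (hx : ∀ i, |x i| ≤ 1) (hy : ∀ i, |y i| ≤ 1) (hz : ∀ i, |z i| ≤ 1) (ht : ∀ i, |t i| ≤ 1)
    (hx' : ∀ i, |x' i| ≤ 1) (hy' : ∀ i, |y' i| ≤ 1) (hz' : ∀ i, |z' i| ≤ 1)
    (ht' : ∀ i, |t' i| ≤ 1)
    (hxx : ∀ i, |x i - x' i| ≤ η) (hyy : ∀ i, |y i - y' i| ≤ η) (hzz : ∀ i, |z i - z' i| ≤ η)
    (htt : ∀ i, |t i - t' i| ≤ η) :
    |P4 x y z t - P4 x' y' z' t'| ≤ 144 * η := by
  have e : P4 x y z t - P4 x' y' z' t' =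
      T3 (fun i => (y i - x i) - (y' i - x' i)) (fun i => z i - x i) (fun i => t i - x i)
      + T3 (fun i => y' i - x' i) (fun i => (z i - x i) - (z' i - x' i)) (fun i => t i - x i)
      + T3 (fun i => y' i - x' i) (fun i => z' i - x' i)
          (fun i => (t i - x i) - (t' i - x' i)) := by
    simp only [P4, T3]; ring
  have two : ∀ {a b : Fin 3 → ℝ}, (∀ i, |a i| ≤ 1) → (∀ i, |b i| ≤ 1) → ∀ i, |a i - b i| ≤ 2 := by
    intro a b h1 h2 i
    have := abs_sub (a i) (b i)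
    have := h1 i
    have := h2 i
    linarith
  have dd : ∀ {a b a' b' : Fin 3 → ℝ}, (∀ i, |a i - a' i| ≤ η) → (∀ i, |b i - b' i| ≤ η) →
      ∀ i, |(a i - b i) - (a' i - b' i)| ≤ 2 * η := by
    intro a b a' b' h1 h2 i
    have e : (a i - b i) - (a' i - b' i) = (a i - a' i) - (b i - b' i) := by ring
    rw [e]
    have := abs_sub (a i - a' i) (b i - b' i)
    have := h1 i
    have := h2 i
    linarith
  rw [e]
  have h1 := T3_bound (dd hyy hxx) (two hz hx) (two ht hx)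
  have h2 := T3_bound (two hy' hx') (dd hzz hxx) (two ht hx)
  have h3 := T3_bound (two hy' hx') (two hz' hx') (dd htt hxx)
  set a1 := T3 (fun i => (y i - x i) - (y' i - x' i)) (fun i => z i - x i) (fun i => t i - x i)
  set a2 := T3 (fun i => y' i - x' i) (fun i => (z i - x i) - (z' i - x' i)) (fun i => t i - x i)
  set a3 := T3 (fun i => y' i - x' i) (fun i => z' i - x' i) (fun i => (t i - x i) - (t' i - x' i))
  have := abs_add_le (a1 + a2) a3
  have := abs_add_le a1 a2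
  linarith

lemma D4_dir_P4 (v : Fin 4 → Fin 3 → ℝ) : |D4 (fun j => dir (v j))| =
    |P4 (v 0) (v 1) (v 2) (v 3)| := D4_dir v

lemma D4_perturb {v v' : Fin 4 → Fin 3 → ℝ} {η : ℝ} (hη : 0 ≤ η) (hv : ∀ j i, |v j i| ≤ 1)
    (hv' : ∀ j i, |v' j i| ≤ 1) (h : ∀ j i, |v j i - v' j i| ≤ η) :
    |D4 (fun j => dir (v j))| - 144 * η ≤ |D4 (fun j => dir (v' j))| := by
  rw [D4_dir_P4, D4_dir_P4]
  have h1 := P4_perturb hη (hv 0) (hv 1) (hv 2) (hv 3) (hv' 0) (hv' 1) (hv' 2) (hv' 3)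
    (h 0) (h 1) (h 2) (h 3)
  have := abs_sub_abs_le_abs_sub (P4 (v 0) (v 1) (v 2) (v 3)) (P4 (v' 0) (v' 1) (v' 2) (v' 3))
  linarith

lemma rpow_third_add {x y : ℝ} (hx : 0 ≤ x) (hy : 0 ≤ y) :
    (x + y) ^ (1 / 3 : ℝ) ≤ x ^ (1 / 3 : ℝ) + y ^ (1 / 3 : ℝ) :=
  Real.rpow_add_le_add_rpow hx hy (by norm_num) (by norm_num)

lemma rpow_third_sum {α : Type*} (s : Finset α) (f : α → ℝ) (hf : ∀ a ∈ s, 0 ≤ f a) :
    (∑ a ∈ s, f a) ^ (1 / 3 : ℝ) ≤ ∑ a ∈ s, f a ^ (1 / 3 : ℝ) := by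
  classical
  induction s using Finset.induction_on with
  | empty => simp
  | insert a s ha ih =>
    rw [Finset.sum_insert ha, Finset.sum_insert ha]
    refine (rpow_third_add (hf a (Finset.mem_insert_self a s)) (Finset.sum_nonneg fun b hb =>
      hf b (Finset.mem_insert_of_mem hb))).trans ?_
    have := ih (fun b hb => hf b (Finset.mem_insert_of_mem hb))
    linarith

/-- a 4-tuple of caps with a `ν ^ 3`-transversal 4-tuple of representatives in `s` -/
def Good {ι : Type*} (s : Finset ι) (v : ι → Fin 3 → ℝ) (ν η : ℝ) (τ : Fin 4 → Fin 3 → ℤ) : Prop :=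
  ∃ l : Fin 4 → ι, (∀ j, l j ∈ s ∧ cix η (v (l j)) = τ j) ∧ ν ^ 3 ≤ |D4 (fun j => dir (v (l j)))|

/-- all representatives of a good 4-tuple of caps are transversal -/
lemma Good.det {ι : Type*} {s : Finset ι} {v : ι → Fin 3 → ℝ} {ν η : ℝ} (hη : 0 < η)
    (hην : 288 * η ≤ ν ^ 3) (hv : ∀ l ∈ s, ∀ i, |v l i| ≤ 1) {τ : Fin 4 → Fin 3 → ℤ}
    (h : Good s v ν η τ) (l : Fin 4 → ι) (hl : ∀ j, l j ∈ s ∧ cix η (v (l j)) = τ j) :
    ν ^ 3 / 2 ≤ |D4 (fun j => dir (v (l j)))| := by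
  obtain ⟨m, hm, hD⟩ := h
  have := D4_perturb (v := fun j => v (m j)) (v' := fun j => v (l j)) hη.le
    (fun j => hv _ (hm j).1) (fun j => hv _ (hl j).1)
    (fun j i => cix_close hη ((hm j).2.trans (hl j).2.symm) i)
  linarith

/-- all velocities near a good 4-tuple of caps: the determinant of arbitrary velocities within `η`
of representatives (used with curves). -/
lemma Good.det' {ι : Type*} {s : Finset ι} {v : ι → Fin 3 → ℝ} {ν η : ℝ} (hη : 0 < η)
    (hην : 576 * η ≤ ν ^ 3) (hv : ∀ l ∈ s, ∀ i, |v l i| ≤ 1) {τ : Fin 4 → Fin 3 → ℤ}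
    (h : Good s v ν η τ) (v' : Fin 4 → Fin 3 → ℝ) (hv' : ∀ j i, |v' j i| ≤ 1)
    (l : Fin 4 → ι) (hl : ∀ j, l j ∈ s ∧ cix η (v (l j)) = τ j)
    (hl' : ∀ j i, |v (l j) i - v' j i| ≤ η) :
    ν ^ 3 / 2 ≤ |D4 (fun j => dir (v' j))| := by
  obtain ⟨m, hm, hD⟩ := h
  have := D4_perturb (v := fun j => v (m j)) (v' := v') (η := 2 * η) (by linarith)
    (fun j => hv _ (hm j).1) hv'
    (fun j i => by
      have h1 := cix_close hη ((hm j).2.trans (hl j).2.symm) i
      have h2 := hl' j i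
      have e : v (m j) i - v' j i = (v (m j) i - v (l j) i) + (v (l j) i - v' j i) := by ring
      rw [e]
      have := abs_add_le (v (m j) i - v (l j) i) (v (l j) i - v' j i)
      linarith)
  linarith

open Classical in
/-- **non-narrow implies: one third power of the fourth power of the weight is controlled by the
good 4-tuples of caps.** -/
theorem caps_of_nonnarrow {ι : Type*} (A s : Finset ι) (hAs : A ⊆ s) (v : ι → Fin 3 → ℝ)
    (w : ι → ℝ) (hw : ∀ l ∈ s, 0 ≤ w l) {ν : ℝ} (hν : 0 < ν) (η : ℝ)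
    (hnn : ∀ u n : Fin 3 → ℝ, ∑ i, n i ^ 2 = 1 →
      ∑ l ∈ A.filter (fun l => Slab ν u n (v l)), w l ≤ (∑ l ∈ A, w l) / 2) :
    (∑ l ∈ A, w l) ^ (4 / 3 : ℝ) ≤
      2 * ∑ τ ∈ Fintype.piFinset (fun _ : Fin 4 => s.image fun l => cix η (v l)),
        if Good s v ν η τ then
          ∏ j, (∑ l ∈ A.filter (fun l => cix η (v l) = τ j), w l) ^ (1 / 3 : ℝ) else 0 := by
  have hwA : ∀ l ∈ A, 0 ≤ w l := fun l hl => hw l (hAs hl)
  have h1 := quad_of_nonnarrow A v w hwA hν hnn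
  set μ : ℝ := ∑ l ∈ A, w l with hμ
  have hμ0 : 0 ≤ μ := Finset.sum_nonneg hwA
  set I : Finset (Fin 3 → ℤ) := s.image fun l => cix η (v l) with hI
  set S : (Fin 3 → ℤ) → Finset ι := fun τ => A.filter (fun l => cix η (v l) = τ) with hS
  have hSn : ∀ τ, 0 ≤ ∑ l ∈ S τ, w l := fun τ =>
    Finset.sum_nonneg fun l hl => hwA l (Finset.mem_filter.mp hl).1
  have h2 : ∑ l ∈ Fintype.piFinset (fun _ : Fin 4 => A),
      (if ν ^ 3 ≤ |D4 (fun j => dir (v (l j)))| then ∏ j, w (l j) else 0) ≤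
      ∑ τ ∈ Fintype.piFinset (fun _ : Fin 4 => I),
        if Good s v ν η τ then ∏ j, ∑ l ∈ S (τ j), w l else 0 := by
    -- fibre over the caps
    have hmaps : ∀ l ∈ Fintype.piFinset (fun _ : Fin 4 => A),
        (fun j => cix η (v (l j))) ∈ Fintype.piFinset (fun _ : Fin 4 => I) := by
      intro l hl
      rw [Fintype.mem_piFinset] at hl ⊢
      intro j
      exact Finset.mem_image_of_mem _ (hAs (hl j))
    rw [← Finset.sum_fiberwise_of_maps_to hmaps]
    refine Finset.sum_le_sum fun τ _ => ?_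
    have hfib : (Fintype.piFinset (fun _ : Fin 4 => A)).filter
        (fun l => (fun j => cix η (v (l j))) = τ) = Fintype.piFinset (fun j => S (τ j)) := by
      ext l
      simp only [Finset.mem_filter, Fintype.mem_piFinset, hS]
      constructor
      · rintro ⟨h1, h2⟩ j
        exact ⟨h1 j, congrFun h2 j⟩
      · intro h
        exact ⟨fun j => (h j).1, funext fun j => (h j).2⟩
    rw [hfib]
    by_cases hg : Good s v ν η τ
    · rw [if_pos hg, Finset.prod_univ_sum]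
      refine Finset.sum_le_sum fun l hl => ?_
      rw [Fintype.mem_piFinset] at hl
      split_ifs
      · exact le_rfl
      · exact Finset.prod_nonneg fun j _ => hwA _ (Finset.mem_filter.mp (hl j)).1
    · rw [if_neg hg]
      refine le_of_eq (Finset.sum_eq_zero fun l hl => ?_)
      rw [Fintype.mem_piFinset] at hl
      rw [if_neg]
      intro hD
      exact hg ⟨l, fun j => ⟨hAs (Finset.mem_filter.mp (hl j)).1, (Finset.mem_filter.mp (hl j)).2⟩,
        hD⟩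
  have h3 : μ ^ 4 ≤ 8 * ∑ τ ∈ Fintype.piFinset (fun _ : Fin 4 => I),
        if Good s v ν η τ then ∏ j, ∑ l ∈ S (τ j), w l else 0 := by
    have := h1.trans h2
    linarith
  have hterm : ∀ τ : Fin 4 → Fin 3 → ℤ, 0 ≤ if Good s v ν η τ then ∏ j, ∑ l ∈ S (τ j), w l else 0 := by
    intro τ
    split_ifs
    · exact Finset.prod_nonneg fun j _ => hSn _
    · exact le_rfl
  have h4 : μ ^ (4 / 3 : ℝ) = (μ ^ 4) ^ (1 / 3 : ℝ) := by
    rw [← Real.rpow_natCast, ← Real.rpow_mul hμ0]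
    norm_num
  rw [h4]
  refine (Real.rpow_le_rpow (by positivity) h3 (by norm_num)).trans ?_
  rw [Real.mul_rpow (by norm_num) (Finset.sum_nonneg fun τ _ => hterm τ)]
  have h8 : (8 : ℝ) ^ (1 / 3 : ℝ) = 2 := by
    rw [show (8 : ℝ) = 2 ^ (3 : ℝ) by norm_num, ← Real.rpow_mul (by norm_num)]
    norm_num
  rw [h8]
  refine mul_le_mul_of_nonneg_left ?_ (by norm_num)
  refine (rpow_third_sum _ _ fun τ _ => hterm τ).trans ?_
  refine Finset.sum_le_sum fun τ _ => ?_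
  split_ifs
  · rw [Real.finsetProd_rpow _ _ fun j _ => hSn _]
  · rw [Real.zero_rpow (by norm_num)]

end Crest.Agent.R136.MF191
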