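import Crest.Agent.R136.MF1_191

/-!
# 4-linear Kakeya in R^4, linear algebra and pigeonhole (helper191), part 2

Inverse bounds for four transversal directions, cones, snapping of integer points.
-/

set_option autoImplicit false

namespace Crest.Agent.R136.MF191

open Finset Matrix

/-- the matrix with columns `e j` -/
def Bm (e : Fin 4 → Fin 4 → ℝ) : Matrix (Fin 4) (Fin 4) ℝ := Matrix.of fun i j => e j i

lemma Bm_det (e : Fin 4 → Fin 4 → ℝ) : (Bm e).det = D4 e := rfl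

lemma isUnit_of_D4 {e : Fin 4 → Fin 4 → ℝ} {μ : ℝ} (hμ : 0 < μ) (hD : μ ≤ |D4 e|) :
    IsUnit (Bm e).det := by
  rw [isUnit_iff_ne_zero, Bm_det]
  intro h
  rw [h, abs_zero] at hD
  linarith

lemma inv_entry4 {e : Fin 4 → Fin 4 → ℝ} {μ : ℝ} (hμ : 0 < μ) (he : ∀ j i, |e j i| ≤ 1)
    (hD : μ ≤ |D4 e|) (i j : Fin 4) : |(Bm e)⁻¹ i j| ≤ 24 / μ := by
  have hd : 0 < |(Bm e).det| := lt_of_lt_of_le hμ hD
  have h0 : (Bm e)⁻¹ = ((Bm e).det)⁻¹ • (Bm e).adjugate := by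
    rw [Matrix.inv_def, Ring.inverse_eq_inv']
  have key : |(Bm e).adjugate i j| ≤ 24 := by
    rw [Matrix.adjugate_apply]
    have h1 := Matrix.det_le (A := (Bm e).updateRow j (Pi.single i 1))
      (abv := (AbsoluteValue.abs : AbsoluteValue ℝ ℝ)) (x := 1) (fun a b => by
        change |(Bm e).updateRow j (Pi.single i 1) a b| ≤ 1
        rw [Matrix.updateRow_apply]
        split_ifs with h
        · rw [Pi.single_apply]
          split_ifs <;> simp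
        · exact he b a)
    change |((Bm e).updateRow j (Pi.single i 1)).det| ≤ _ at h1
    refine h1.trans (le_of_eq ?_)
    simp [Fintype.card_fin, Nat.factorial]
  rw [h0, Matrix.smul_apply, smul_eq_mul, abs_mul, abs_inv, div_eq_mul_inv, mul_comm]
  refine mul_le_mul key ?_ (by positivity) (by norm_num)
  exact inv_anti₀ hμ hD

lemma mulVec_bound4 {A : Matrix (Fin 4) (Fin 4) ℝ} {a : ℝ} (hA : ∀ i j, |A i j| ≤ a)
    {v : Fin 4 → ℝ} {d : ℝ} (hv : ∀ i, |v i| ≤ d) (i : Fin 4) : |(A *ᵥ v) i| ≤ 4 * (a * d) := by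
  have ha : 0 ≤ a := (abs_nonneg _).trans (hA 0 0)
  simp only [Matrix.mulVec, dotProduct]
  refine (Finset.abs_sum_le_sum_abs _ _).trans ?_
  calc ∑ j, |A i j * v j| ≤ ∑ _j : Fin 4, a * d := Finset.sum_le_sum fun j _ => by
        rw [abs_mul]; exact mul_le_mul (hA i j) (hv j) (abs_nonneg _) ha
    _ = 4 * (a * d) := by simp

/-- the inverse matrix sends the `j`-th direction to the `j`-th basis vector -/
lemma inv_mulVec {e : Fin 4 → Fin 4 → ℝ} {μ : ℝ} (hμ : 0 < μ) (hD : μ ≤ |D4 e|) (j : Fin 4) :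
    (Bm e)⁻¹ *ᵥ (e j) = Pi.single j 1 := by
  have hu := isUnit_of_D4 hμ hD
  have h1 : e j = (Bm e) *ᵥ (Pi.single j 1) := by
    funext i
    rw [Matrix.mulVec_single_one]
    rfl
  rw [h1, Matrix.mulVec_mulVec, Matrix.nonsing_inv_mul _ hu, Matrix.one_mulVec]

lemma inv_bound {e : Fin 4 → Fin 4 → ℝ} {μ : ℝ} (hμ : 0 < μ) (he : ∀ j i, |e j i| ≤ 1)
    (hD : μ ≤ |D4 e|) {y : Fin 4 → ℝ} {d : ℝ} (hy : ∀ i, |y i| ≤ d) (i : Fin 4) :
    |((Bm e)⁻¹ *ᵥ y) i| ≤ 96 / μ * d := by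
  refine (mulVec_bound4 (inv_entry4 hμ he hD) hy i).trans (le_of_eq ?_)
  ring

/-- **cone lemma**: an almost straight increment in a direction of the `j`-th cap is mapped into
the cone of opening `1/N` around the `j`-th axis. -/
lemma cone {e : Fin 4 → Fin 4 → ℝ} {μ : ℝ} (hμ : 0 < μ) (he : ∀ j i, |e j i| ≤ 1)
    (hD : μ ≤ |D4 e|) {N : ℝ} (hN : 1 ≤ N) {j : Fin 4} {e' y : Fin 4 → ℝ} {s δ : ℝ}
    (hδ : δ ≤ μ / (400 * N)) (h1 : ∀ i, |e' i - e j i| ≤ δ)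
    (h2 : ∀ i, |y i - s * e' i| ≤ |s| * δ) (i : Fin 4) (hi : i ≠ j) :
    |((Bm e)⁻¹ *ᵥ y) i| ≤ 1 / N * |((Bm e)⁻¹ *ᵥ y) j| := by
  have hN0 : 0 < N := by linarith
  set M := (Bm e)⁻¹ with hM
  have hs : 0 ≤ |s| := abs_nonneg s
  -- the increment minus `s e_j`
  have h3 : ∀ i, |(y - s • e j) i| ≤ 2 * (|s| * δ) := by
    intro i
    have e1 : (y - s • e j) i = (y i - s * e' i) + s * (e' i - e j i) := by
      simp only [Pi.sub_apply, Pi.smul_apply, smul_eq_mul]; ring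
    rw [e1]
    refine (abs_add_le _ _).trans ?_
    have h4 := h2 i
    have h5 : |s * (e' i - e j i)| ≤ |s| * δ := by
      rw [abs_mul]; exact mul_le_mul_of_nonneg_left (h1 i) hs
    linarith
  have h4 : ∀ i, |(M *ᵥ (y - s • e j)) i| ≤ 0.48 / N * |s| := by
    intro i
    refine (inv_bound hμ he hD h3 i).trans ?_
    have : 96 / μ * (2 * (|s| * δ)) ≤ 96 / μ * (2 * (|s| * (μ / (400 * N)))) := by gcongr
    refine this.trans (le_of_eq ?_)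
    field_simp
    ring
  have h5 : ∀ i, (M *ᵥ y) i = (M *ᵥ (y - s • e j)) i + s * (Pi.single j (1 : ℝ) : Fin 4 → ℝ) i := by
    intro i
    rw [Matrix.mulVec_sub, Matrix.mulVec_smul, hM, inv_mulVec hμ hD j]
    simp only [Pi.sub_apply, Pi.smul_apply, smul_eq_mul]
    ring
  have hi1 : |(M *ᵥ y) i| ≤ 0.48 / N * |s| := by
    rw [h5 i, Pi.single_apply, if_neg hi, mul_zero, add_zero]
    exact h4 i
  have hj1 : (1 - 0.48 / N) * |s| ≤ |(M *ᵥ y) j| := by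
    have h6 : (M *ᵥ y) j = (M *ᵥ (y - s • e j)) j + s := by
      rw [h5 j, Pi.single_apply, if_pos rfl, mul_one]
    have h7 : |s| - |(M *ᵥ (y - s • e j)) j| ≤ |(M *ᵥ y) j| := by
      have h8 : s = (M *ᵥ y) j - (M *ᵥ (y - s • e j)) j := by rw [h6]; ring
      have h9 := abs_sub ((M *ᵥ y) j) ((M *ᵥ (y - s • e j)) j)
      rw [← h8] at h9
      linarith
    have := h4 j
    linarith
  have h048 : 0.48 / N ≤ 0.48 := by
    rw [div_le_iff₀ hN0]; linarith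
  calc |(M *ᵥ y) i| ≤ 0.48 / N * |s| := hi1
    _ = 1 / N * (0.48 * |s|) := by ring
    _ ≤ 1 / N * ((1 - 0.48 / N) * |s|) := by
        refine mul_le_mul_of_nonneg_left ?_ (by positivity)
        refine mul_le_mul_of_nonneg_right ?_ hs
        linarith
    _ ≤ 1 / N * |(M *ᵥ y) j| := mul_le_mul_of_nonneg_left hj1 (by positivity)

/-- integer points as real vectors -/
def rp (k : Fin 4 → ℤ) : Fin 4 → ℝ := fun i => (k i : ℝ)

/-- snapping of an integer point after the linear map `M`, at scale `σ` -/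
noncomputable def snap (M : Matrix (Fin 4) (Fin 4) ℝ) (σ : ℝ) (k : Fin 4 → ℤ) : Fin 4 → ℤ :=
  fun i => round ((M *ᵥ rp k) i / σ)

lemma snap_dist (M : Matrix (Fin 4) (Fin 4) ℝ) {σ : ℝ} (hσ : 0 < σ) (k : Fin 4 → ℤ) (i : Fin 4) :
    |σ * (snap M σ k i : ℝ) - (M *ᵥ rp k) i| ≤ σ / 2 := by
  have h1 := abs_sub_round ((M *ᵥ rp k) i / σ)
  have h2 : σ * (snap M σ k i : ℝ) - (M *ᵥ rp k) i =
      -(σ * ((M *ᵥ rp k) i / σ - (round ((M *ᵥ rp k) i / σ) : ℤ))) := by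
    simp only [snap]
    field_simp
    ring
  rw [h2, abs_neg, abs_mul, abs_of_pos hσ]
  calc σ * |(M *ᵥ rp k) i / σ - (round ((M *ᵥ rp k) i / σ) : ℤ)| ≤ σ * (1 / 2) :=
        mul_le_mul_of_nonneg_left h1 hσ.le
    _ = σ / 2 := by ring

/-- nearness is preserved with `σ ≥ 192 r / μ` -/
lemma snap_near {e : Fin 4 → Fin 4 → ℝ} {μ : ℝ} (hμ : 0 < μ) (he : ∀ j i, |e j i| ≤ 1)
    (hD : μ ≤ |D4 e|) {r σ : ℝ} (hσ0 : 0 < σ) (hσ : 192 * r / μ ≤ σ) {k : Fin 4 → ℤ}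
    {y : Fin 4 → ℝ} (h : ∀ i, |(k i : ℝ) - y i| ≤ r) (i : Fin 4) :
    |σ * (snap (Bm e)⁻¹ σ k i : ℝ) - ((Bm e)⁻¹ *ᵥ y) i| ≤ σ := by
  have h1 := snap_dist (Bm e)⁻¹ hσ0 k i
  have h2 := inv_bound hμ he hD (y := rp k - y) (d := r) (fun i => h i) i
  rw [Matrix.mulVec_sub] at h2
  simp only [Pi.sub_apply] at h2
  have h3 : 96 / μ * r ≤ σ / 2 := by
    have : 192 * r / μ = 2 * (96 / μ * r) := by ring
    linarith
  have e1 : σ * (snap (Bm e)⁻¹ σ k i : ℝ) - ((Bm e)⁻¹ *ᵥ y) i =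
      (σ * (snap (Bm e)⁻¹ σ k i : ℝ) - ((Bm e)⁻¹ *ᵥ rp k) i) +
        (((Bm e)⁻¹ *ᵥ rp k) i - ((Bm e)⁻¹ *ᵥ y) i) := by ring
  rw [e1]
  refine (abs_add_le _ _).trans ?_
  linarith

lemma snap_range {e : Fin 4 → Fin 4 → ℝ} {μ : ℝ} (hμ : 0 < μ) (he : ∀ j i, |e j i| ≤ 1)
    (hD : μ ≤ |D4 e|) {r R σ : ℝ} (hr : 1 ≤ r) (hR : 0 ≤ R) (hσ : 192 * r / μ ≤ σ)
    {k : Fin 4 → ℤ} (hk : ∀ i, |(k i : ℝ)| ≤ R) (i : Fin 4) :
    |(snap (Bm e)⁻¹ σ k i : ℝ)| ≤ R / 2 + 1 / 2 := by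
  have hσ1 : 192 / μ ≤ σ := by
    refine le_trans ?_ hσ
    exact div_le_div_of_nonneg_right (by linarith) hμ.le
  have hσ0 : 0 < σ := lt_of_lt_of_le (by positivity) hσ1
  have h1 := inv_bound hμ he hD (y := rp k) (d := R) (fun i => hk i) i
  have h2 : |((Bm e)⁻¹ *ᵥ rp k) i / σ| ≤ R / 2 := by
    rw [abs_div, abs_of_pos hσ0, div_le_iff₀ hσ0]
    refine h1.trans ?_
    calc 96 / μ * R = R / 2 * (192 / μ) := by ring
      _ ≤ R / 2 * σ := mul_le_mul_of_nonneg_left hσ1 (by positivity)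
  have h3 := abs_sub_round (((Bm e)⁻¹ *ᵥ rp k) i / σ)
  have : (snap (Bm e)⁻¹ σ k i : ℝ) = ((Bm e)⁻¹ *ᵥ rp k) i / σ -
      (((Bm e)⁻¹ *ᵥ rp k) i / σ - (round (((Bm e)⁻¹ *ᵥ rp k) i / σ) : ℤ)) := by
    simp only [snap]; ring
  rw [this]
  have := abs_sub (((Bm e)⁻¹ *ᵥ rp k) i / σ)
    (((Bm e)⁻¹ *ᵥ rp k) i / σ - (round (((Bm e)⁻¹ *ᵥ rp k) i / σ) : ℤ))
  linarith

lemma snap_fiber {e : Fin 4 → Fin 4 → ℝ} {μ : ℝ} (hμ : 0 < μ) (he : ∀ j i, |e j i| ≤ 1)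
    (hD : μ ≤ |D4 e|) {σ : ℝ} (hσ : 1 ≤ σ) (X : Finset (Fin 4 → ℤ)) (b : Fin 4 → ℤ) :
    ((X.filter fun k => snap (Bm e)⁻¹ σ k = b).card : ℝ) ≤ (9 * σ) ^ 4 := by
  classical
  have hσ0 : 0 < σ := by linarith
  by_cases hne : (X.filter fun k => snap (Bm e)⁻¹ σ k = b).Nonempty
  · obtain ⟨k0, hk0⟩ := hne
    have hk0b := (Finset.mem_filter.mp hk0).2
    set n : ℕ := ⌊4 * σ⌋₊ with hn
    have hu := isUnit_of_D4 hμ hD
    have hsub : (X.filter fun k => snap (Bm e)⁻¹ σ k = b) ⊆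
        Fintype.piFinset (fun i => Finset.Icc (k0 i - n) (k0 i + n)) := by
      intro k hk
      rw [Finset.mem_filter] at hk
      rw [Fintype.mem_piFinset]
      intro i
      rw [Finset.mem_Icc]
      have h1 : ∀ i, |((Bm e)⁻¹ *ᵥ (rp k - rp k0)) i| ≤ σ := by
        intro i
        rw [Matrix.mulVec_sub]
        have h2 := snap_dist (Bm e)⁻¹ hσ0 k i
        have h3 := snap_dist (Bm e)⁻¹ hσ0 k0 i
        rw [hk.2] at h2
        rw [hk0b] at h3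
        have : ((Bm e)⁻¹ *ᵥ rp k - (Bm e)⁻¹ *ᵥ rp k0) i =
            -(σ * (b i : ℝ) - ((Bm e)⁻¹ *ᵥ rp k) i) + (σ * (b i : ℝ) - ((Bm e)⁻¹ *ᵥ rp k0) i) := by
          simp only [Pi.sub_apply]; ring
        rw [this]
        have h4 := abs_add_le (-(σ * (b i : ℝ) - ((Bm e)⁻¹ *ᵥ rp k) i))
          (σ * (b i : ℝ) - ((Bm e)⁻¹ *ᵥ rp k0) i)
        rw [abs_neg] at h4
        linarith
      have h2 : rp k - rp k0 = Bm e *ᵥ ((Bm e)⁻¹ *ᵥ (rp k - rp k0)) := by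
        rw [Matrix.mulVec_mulVec, Matrix.mul_nonsing_inv _ hu, Matrix.one_mulVec]
      have h3 := mulVec_bound4 (A := Bm e) (a := 1) (fun i j => he j i)
        (v := (Bm e)⁻¹ *ᵥ (rp k - rp k0)) (d := σ) h1 i
      rw [← h2] at h3
      simp only [rp, Pi.sub_apply, one_mul] at h3
      have h4 : |k i - k0 i| ≤ (n : ℤ) := by
        have h5 : ((|k i - k0 i| : ℤ) : ℝ) ≤ 4 * σ := by
          push_cast; exact h3
        have h6 : |k i - k0 i| ≤ ⌊4 * σ⌋ := Int.le_floor.mpr h5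
        have h7 : ((n : ℕ) : ℤ) = ⌊4 * σ⌋ := by
          rw [hn]
          exact Int.natCast_floor_eq_floor (by positivity)
        rw [h7]; exact h6
      rw [abs_le] at h4
      omega
    have h1 := Finset.card_le_card hsub
    rw [Fintype.card_piFinset] at h1
    have h2 : ∀ i, (Finset.Icc (k0 i - n) (k0 i + (n : ℤ))).card = 2 * n + 1 := by
      intro i
      rw [Int.card_Icc]
      omega
    simp only [h2, Finset.prod_const, Finset.card_univ, Fintype.card_fin] at h1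
    have h3 : (n : ℝ) ≤ 4 * σ := Nat.floor_le (by positivity)
    calc ((X.filter fun k => snap (Bm e)⁻¹ σ k = b).card : ℝ)
        ≤ (((2 * n + 1) ^ 4 : ℕ) : ℝ) := by exact_mod_cast h1
      _ = (2 * (n : ℝ) + 1) ^ 4 := by push_cast; ring
      _ ≤ (9 * σ) ^ 4 := by
          apply pow_le_pow_left₀ (by positivity)
          linarith
  · rw [Finset.not_nonempty_iff_eq_empty] at hne
    rw [hne]
    simp only [Finset.card_empty, Nat.cast_zero]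
    positivity

/-- **summation over snapped points** -/
lemma sum_snap_le {e : Fin 4 → Fin 4 → ℝ} {μ : ℝ} (hμ : 0 < μ) (he : ∀ j i, |e j i| ≤ 1)
    (hD : μ ≤ |D4 e|) {σ : ℝ} (hσ : 1 ≤ σ) (X : Finset (Fin 4 → ℤ)) (F : (Fin 4 → ℤ) → ℝ)
    (hF : ∀ b, 0 ≤ F b) :
    haveI := Classical.decEq (Fin 4 → ℤ)
    ∑ k ∈ X, F (snap (Bm e)⁻¹ σ k) ≤ (9 * σ) ^ 4 * ∑ b ∈ X.image (snap (Bm e)⁻¹ σ), F b := by
  classical
  have h := Finset.sum_comp (s := X) F (snap (Bm e)⁻¹ σ)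
  rw [h, Finset.mul_sum]
  have key : ∑ b ∈ X.image (snap (Bm e)⁻¹ σ),
      ((X.filter fun k => snap (Bm e)⁻¹ σ k = b).card) • F b ≤
      ∑ b ∈ X.image (snap (Bm e)⁻¹ σ), (9 * σ) ^ 4 * F b := by
    refine Finset.sum_le_sum fun b _ => ?_
    rw [nsmul_eq_mul]
    exact mul_le_mul_of_nonneg_right (snap_fiber hμ he hD hσ X b) (hF b)
  convert key

end Crest.Agent.R136.MF191
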