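import Crest.Agent.R136.MF2_191

/-!
# 4-linear Kakeya in R^4, linear algebra and pigeonhole (helper191), part 3

The sum over all 4-tuples of caps of the products of cube roots of the weights.
-/

set_option autoImplicit false

namespace Crest.Agent.R136.MF191

open Finset

lemma sum_third_le {α : Type*} (s : Finset α) (f : α → ℝ) (hf : ∀ a ∈ s, 0 ≤ f a) :
    ∑ a ∈ s, f a ^ (1 / 3 : ℝ) ≤ (s.card : ℝ) ^ (2 / 3 : ℝ) * (∑ a ∈ s, f a) ^ (1 / 3 : ℝ) := by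
  have h := Real.inner_le_Lp_mul_Lq_of_nonneg s (f := fun _ => (1 : ℝ))
    (g := fun a => f a ^ (1 / 3 : ℝ)) (p := 3 / 2) (q := 3)
    (by constructor <;> norm_num) (fun _ _ => by norm_num) (fun a ha => Real.rpow_nonneg (hf a ha) _)
  have e1 : ∑ a ∈ s, (f a ^ (1 / 3 : ℝ)) ^ (3 : ℝ) = ∑ a ∈ s, f a := by
    refine Finset.sum_congr rfl fun a ha => ?_
    rw [← Real.rpow_mul (hf a ha)]
    norm_num
  rw [e1] at h
  simp only [one_mul, Real.one_rpow, Finset.sum_const, nsmul_eq_mul, mul_one] at h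
  refine h.trans (le_of_eq ?_)
  norm_num

/-- sum over 4-tuples of caps -/
theorem sum_caps_le {ι : Type*} (s : Finset ι) (v : ι → Fin 3 → ℝ) (w : ι → ℝ)
    (hw : ∀ l ∈ s, 0 ≤ w l) (hv : ∀ l ∈ s, ∀ i, |v l i| ≤ 1) {η : ℝ} (hη : 0 < η) (hη1 : η ≤ 1) :
    haveI := Classical.decEq (Fin 3 → ℤ)
    ∑ τ ∈ Fintype.piFinset (fun _ : Fin 4 => s.image fun l => cix η (v l)),
        ∏ j, (∑ l ∈ s.filter (fun l => cix η (v l) = τ j), w l) ^ (1 / 3 : ℝ) ≤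
      (5 / η) ^ 8 * (∑ l ∈ s, w l) ^ (4 / 3 : ℝ) := by
  classical
  set I : Finset (Fin 3 → ℤ) := s.image fun l => cix η (v l) with hI
  set W : (Fin 3 → ℤ) → ℝ := fun τ => ∑ l ∈ s.filter (fun l => cix η (v l) = τ), w l with hW
  have hWn : ∀ τ, 0 ≤ W τ := fun τ =>
    Finset.sum_nonneg fun l hl => hw l (Finset.mem_filter.mp hl).1
  have h0 : 0 ≤ ∑ l ∈ s, w l := Finset.sum_nonneg hw
  have key : ∑ τ ∈ Fintype.piFinset (fun _ : Fin 4 => I), ∏ j, (W (τ j)) ^ (1 / 3 : ℝ) ≤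
      (5 / η) ^ 8 * (∑ l ∈ s, w l) ^ (4 / 3 : ℝ) := by
    have e1 : ∑ τ ∈ Fintype.piFinset (fun _ : Fin 4 => I), ∏ j, (W (τ j)) ^ (1 / 3 : ℝ) =
        (∑ τ ∈ I, W τ ^ (1 / 3 : ℝ)) ^ 4 := by
      rw [← Finset.prod_univ_sum (fun _ : Fin 4 => I) (fun _ τ => W τ ^ (1 / 3 : ℝ))]
      simp
    rw [e1]
    have h1 := sum_third_le I W fun τ _ => hWn τ
    have h2 : ∑ τ ∈ I, W τ = ∑ l ∈ s, w l :=
      Finset.sum_fiberwise_of_maps_to (fun a ha => Finset.mem_image_of_mem _ ha) _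
    rw [h2] at h1
    have h3 : ((I.card : ℕ) : ℝ) ≤ (5 / η) ^ 3 := by
      have := cix_card s v hη hη1 hv
      convert this
    have h5 : 0 < 5 / η := by positivity
    have h4 : (I.card : ℝ) ^ (2 / 3 : ℝ) ≤ (5 / η) ^ 2 := by
      refine (Real.rpow_le_rpow (Nat.cast_nonneg _) h3 (by norm_num)).trans (le_of_eq ?_)
      rw [← Real.rpow_natCast, ← Real.rpow_natCast, ← Real.rpow_mul h5.le]
      norm_num
    calc (∑ τ ∈ I, W τ ^ (1 / 3 : ℝ)) ^ 4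
        ≤ ((5 / η) ^ 2 * (∑ l ∈ s, w l) ^ (1 / 3 : ℝ)) ^ 4 := by
          refine pow_le_pow_left₀ (Finset.sum_nonneg fun τ _ => Real.rpow_nonneg (hWn τ) _) ?_ 4
          refine h1.trans ?_
          exact mul_le_mul_of_nonneg_right h4 (Real.rpow_nonneg h0 _)
      _ = (5 / η) ^ 8 * (∑ l ∈ s, w l) ^ (4 / 3 : ℝ) := by
          rw [mul_pow, ← pow_mul]
          congr 1
          rw [← Real.rpow_natCast, ← Real.rpow_mul h0]
          norm_num
  convert key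

end Crest.Agent.R136.MF191
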