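import Crest.Agent.R136.MF3_191

/-!
# 4-linear Kakeya in R^4 (helper191), part 4: versions with the corners of the caps
-/

set_option autoImplicit false

namespace Crest.Agent.R136.MF191

open Finset Matrix

/-- the corner of a velocity cube -/
def cen (η : ℝ) (t : Fin 3 → ℤ) : Fin 3 → ℝ := fun i => η * (t i : ℝ)

lemma cen_close {η : ℝ} (hη : 0 < η) (v : Fin 3 → ℝ) (i : Fin 3) :
    |v i - cen η (cix η v) i| ≤ η := by
  simp only [cen, cix]
  have h1 := Int.floor_le (v i / η)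
  have h2 := Int.lt_floor_add_one (v i / η)
  have e : v i = η * (v i / η) := by field_simp
  rw [abs_le]
  constructor
  · nlinarith
  · nlinarith

lemma cen_bound {η : ℝ} (hη : 0 < η) (hη1 : η ≤ 1) {v : Fin 3 → ℝ} (hv : ∀ i, |v i| ≤ 1)
    (i : Fin 3) : |cen η (cix η v) i| ≤ 2 := by
  have h1 := cen_close hη v i
  have h2 := hv i
  have : cen η (cix η v) i = v i - (v i - cen η (cix η v) i) := by ring
  rw [this]
  have := abs_sub (v i) (v i - cen η (cix η v) i)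
  linarith

/-- perturbation with entries at most `2` -/
lemma P4_perturb2 {x y z t x' y' z' t' : Fin 3 → ℝ} {η : ℝ}
    (hx : ∀ i, |x i| ≤ 2) (hz : ∀ i, |z i| ≤ 2) (ht : ∀ i, |t i| ≤ 2)
    (hx' : ∀ i, |x' i| ≤ 2) (hy' : ∀ i, |y' i| ≤ 2) (hz' : ∀ i, |z' i| ≤ 2)
    (hxx : ∀ i, |x i - x' i| ≤ η) (hyy : ∀ i, |y i - y' i| ≤ η) (hzz : ∀ i, |z i - z' i| ≤ η)
    (htt : ∀ i, |t i - t' i| ≤ η) :
    |P4 x y z t - P4 x' y' z' t'| ≤ 576 * η := by
  have e : P4 x y z t - P4 x' y' z' t' =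
      T3 (fun i => (y i - x i) - (y' i - x' i)) (fun i => z i - x i) (fun i => t i - x i)
      + T3 (fun i => y' i - x' i) (fun i => (z i - x i) - (z' i - x' i)) (fun i => t i - x i)
      + T3 (fun i => y' i - x' i) (fun i => z' i - x' i)
          (fun i => (t i - x i) - (t' i - x' i)) := by
    simp only [P4, T3]; ring
  have two : ∀ {a b : Fin 3 → ℝ}, (∀ i, |a i| ≤ 2) → (∀ i, |b i| ≤ 2) → ∀ i, |a i - b i| ≤ 4 := by
    intro a b h1 h2 i
    have := abs_sub (a i) (b i)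
    have := h1 i
    have := h2 i
    linarith
  have dd : ∀ {a b a' b' : Fin 3 → ℝ}, (∀ i, |a i - a' i| ≤ η) → (∀ i, |b i - b' i| ≤ η) →
      ∀ i, |(a i - b i) - (a' i - b' i)| ≤ 2 * η := by
    intro a b a' b' h1 h2 i
    have e : (a i - b i) - (a' i - b' i) = (a i - a' i) - (b i - b' i) := by ring
    rw [e]
    have := abs_sub (a i - a' i) (b i - b' i)
    have := h1 i
    have := h2 i
    linarith
  rw [e]
  have h1 := T3_bound (dd hyy hxx) (two hz hx) (two ht hx)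
  have h2 := T3_bound (two hy' hx') (dd hzz hxx) (two ht hx)
  have h3 := T3_bound (two hy' hx') (two hz' hx') (dd htt hxx)
  set a1 := T3 (fun i => (y i - x i) - (y' i - x' i)) (fun i => z i - x i) (fun i => t i - x i)
  set a2 := T3 (fun i => y' i - x' i) (fun i => (z i - x i) - (z' i - x' i)) (fun i => t i - x i)
  set a3 := T3 (fun i => y' i - x' i) (fun i => z' i - x' i) (fun i => (t i - x i) - (t' i - x' i))
  have := abs_add_le (a1 + a2) a3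
  have := abs_add_le a1 a2
  linarith

/-- a 4-tuple of caps with transversal corners -/
def GoodC (ν η : ℝ) (τ : Fin 4 → Fin 3 → ℤ) : Prop :=
  ν ^ 3 / 2 ≤ |D4 (fun j => dir (cen η (τ j)))|

lemma goodC_of {ν η : ℝ} (hη : 0 < η) (hη1 : η ≤ 1) (hην : 1152 * η ≤ ν ^ 3)
    {v : Fin 4 → Fin 3 → ℝ} (hv : ∀ j i, |v j i| ≤ 1)
    (hD : ν ^ 3 ≤ |D4 (fun j => dir (v j))|) : GoodC ν η (fun j => cix η (v j)) := by
  unfold GoodC
  rw [D4_dir_P4] at hD
  rw [D4_dir_P4]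
  have hv2 : ∀ j i, |v j i| ≤ 2 := fun j i => (hv j i).trans (by norm_num)
  have hc2 : ∀ j i, |cen η (cix η (v j)) i| ≤ 2 := fun j i => cen_bound hη hη1 (hv j) i
  have h1 := P4_perturb2 (hv2 0) (hv2 2) (hv2 3) (hc2 0) (hc2 1) (hc2 2)
    (cen_close hη (v 0)) (cen_close hη (v 1)) (cen_close hη (v 2)) (cen_close hη (v 3))
  have := abs_sub_abs_le_abs_sub (P4 (v 0) (v 1) (v 2) (v 3))
    (P4 (cen η (cix η (v 0))) (cen η (cix η (v 1))) (cen η (cix η (v 2))) (cen η (cix η (v 3))))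
  linarith

lemma cix_mem {η : ℝ} (hη : 0 < η) {M : ℕ} (hM : 1 / η ≤ M) {v : Fin 3 → ℝ}
    (hv : ∀ i, |v i| ≤ 1) :
    cix η v ∈ Fintype.piFinset (fun _ : Fin 3 => Finset.Icc (-(M : ℤ)) M) := by
  rw [Fintype.mem_piFinset]
  intro i
  rw [Finset.mem_Icc]
  have h1 := hv i
  rw [abs_le] at h1
  simp only [cix]
  constructor
  · rw [Int.le_floor]
    push_cast
    have : -(1 / η) ≤ v i / η := by
      rw [le_div_iff₀ hη]
      have : -(1 / η) * η = -1 := by field_simp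
      linarith
    linarith
  · have : (⌊v i / η⌋ : ℝ) ≤ M := by
      refine (Int.floor_le _).trans ?_
      refine le_trans ?_ hM
      exact div_le_div_of_nonneg_right h1.2 hη.le
    exact_mod_cast this

open Classical in
/-- **(b1c)** -/
theorem caps_corners {ι : Type*} (A : Finset ι) (v : ι → Fin 3 → ℝ) (w : ι → ℝ)
    (hw : ∀ l ∈ A, 0 ≤ w l) (hv : ∀ l ∈ A, ∀ i, |v l i| ≤ 1) {ν η : ℝ} (hν : 0 < ν) (hη : 0 < η)
    (hη1 : η ≤ 1) (hην : 1152 * η ≤ ν ^ 3) {M : ℕ} (hM : 1 / η ≤ M)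
    (hnn : ∀ u n : Fin 3 → ℝ, ∑ i, n i ^ 2 = 1 →
      ∑ l ∈ A.filter (fun l => Slab ν u n (v l)), w l ≤ (∑ l ∈ A, w l) / 2) :
    (∑ l ∈ A, w l) ^ (4 / 3 : ℝ) ≤
      2 * ∑ τ ∈ (Fintype.piFinset (fun _ : Fin 4 =>
          Fintype.piFinset (fun _ : Fin 3 => Finset.Icc (-(M : ℤ)) M))).filter (GoodC ν η),
        ∏ j, (∑ l ∈ A.filter (fun l => cix η (v l) = τ j), w l) ^ (1 / 3 : ℝ) := by
  refine (caps_of_nonnarrow A A (Finset.Subset.refl A) v w hw hν η hnn).trans ?_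
  refine mul_le_mul_of_nonneg_left ?_ (by norm_num)
  have hWn : ∀ τ : Fin 3 → ℤ, 0 ≤ ∑ l ∈ A.filter (fun l => cix η (v l) = τ), w l := fun τ =>
    Finset.sum_nonneg fun l hl => hw l (Finset.mem_filter.mp hl).1
  have hPn : ∀ τ : Fin 4 → Fin 3 → ℤ,
      0 ≤ ∏ j, (∑ l ∈ A.filter (fun l => cix η (v l) = τ j), w l) ^ (1 / 3 : ℝ) := fun τ =>
    Finset.prod_nonneg fun j _ => Real.rpow_nonneg (hWn _) _
  rw [← Finset.sum_filter]
  refine Finset.sum_le_sum_of_subset_of_nonneg ?_ fun τ _ _ => hPn τ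
  intro τ hτ
  rw [Finset.mem_filter] at hτ ⊢
  obtain ⟨_, l, hl, hD⟩ := hτ
  have hτe : τ = fun j => cix η (v (l j)) := funext fun j => (hl j).2.symm
  refine ⟨?_, ?_⟩
  · rw [Fintype.mem_piFinset]
    intro j
    rw [← (hl j).2]
    exact cix_mem hη hM (hv _ (hl j).1)
  · rw [hτe]
    exact goodC_of hη hη1 hην (fun j => hv _ (hl j).1) hD

/-! ### inverse bounds with entries at most `2` -/

lemma inv_entry4' {e : Fin 4 → Fin 4 → ℝ} {μ : ℝ} (hμ : 0 < μ) (he : ∀ j i, |e j i| ≤ 2)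
    (hD : μ ≤ |D4 e|) (i j : Fin 4) : |(Bm e)⁻¹ i j| ≤ 384 / μ := by
  have hd : 0 < |(Bm e).det| := lt_of_lt_of_le hμ hD
  have h0 : (Bm e)⁻¹ = ((Bm e).det)⁻¹ • (Bm e).adjugate := by
    rw [Matrix.inv_def, Ring.inverse_eq_inv']
  have key : |(Bm e).adjugate i j| ≤ 384 := by
    rw [Matrix.adjugate_apply]
    have h1 := Matrix.det_le (A := (Bm e).updateRow j (Pi.single i 1))
      (abv := (AbsoluteValue.abs : AbsoluteValue ℝ ℝ)) (x := 2) (fun a b => by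
        change |(Bm e).updateRow j (Pi.single i 1) a b| ≤ 2
        rw [Matrix.updateRow_apply]
        split_ifs with h
        · rw [Pi.single_apply]
          split_ifs <;> simp
        · exact he b a)
    change |((Bm e).updateRow j (Pi.single i 1)).det| ≤ _ at h1
    refine h1.trans (le_of_eq ?_)
    simp [Fintype.card_fin, Nat.factorial]
    norm_num
  rw [h0, Matrix.smul_apply, smul_eq_mul, abs_mul, abs_inv, div_eq_mul_inv, mul_comm]
  refine mul_le_mul key ?_ (by positivity) (by norm_num)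
  exact inv_anti₀ hμ hD

/-- `|B⁻¹ y| ≤ (1536 / μ) |y|` -/
lemma inv_bound' {e : Fin 4 → Fin 4 → ℝ} {μ : ℝ} (hμ : 0 < μ) (he : ∀ j i, |e j i| ≤ 2)
    (hD : μ ≤ |D4 e|) {y : Fin 4 → ℝ} {d : ℝ} (hy : ∀ i, |y i| ≤ d) (i : Fin 4) :
    |((Bm e)⁻¹ *ᵥ y) i| ≤ 1536 / μ * d := by
  refine (mulVec_bound4 (inv_entry4' hμ he hD) hy i).trans (le_of_eq ?_)
  ring

/-- `|y| ≤ 8 |B⁻¹ y|` -/
lemma bound_of_inv {e : Fin 4 → Fin 4 → ℝ} {μ : ℝ} (hμ : 0 < μ) (he : ∀ j i, |e j i| ≤ 2)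
    (hD : μ ≤ |D4 e|) {y : Fin 4 → ℝ} {d : ℝ} (hy : ∀ i, |((Bm e)⁻¹ *ᵥ y) i| ≤ d) (i : Fin 4) :
    |y i| ≤ 8 * d := by
  have hu := isUnit_of_D4 hμ hD
  have h2 : y = Bm e *ᵥ ((Bm e)⁻¹ *ᵥ y) := by
    rw [Matrix.mulVec_mulVec, Matrix.mul_nonsing_inv _ hu, Matrix.one_mulVec]
  have h3 := mulVec_bound4 (A := Bm e) (a := 2) (fun i j => he j i)
    (v := (Bm e)⁻¹ *ᵥ y) (d := d) hy i
  rw [← h2] at h3
  linarith

/-- **cone lemma** (corner version) -/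
lemma cone' {e : Fin 4 → Fin 4 → ℝ} {μ : ℝ} (hμ : 0 < μ) (he : ∀ j i, |e j i| ≤ 2)
    (hD : μ ≤ |D4 e|) {N : ℝ} (hN : 1 ≤ N) {j : Fin 4} {y : Fin 4 → ℝ} {s κ : ℝ}
    (hκ : κ ≤ μ / (3200 * N)) (h2 : ∀ i, |y i - s * e j i| ≤ |s| * κ) (i : Fin 4) (hi : i ≠ j) :
    |((Bm e)⁻¹ *ᵥ y) i| ≤ 1 / N * |((Bm e)⁻¹ *ᵥ y) j| := by
  have hN0 : 0 < N := by linarith
  set M := (Bm e)⁻¹ with hM
  have hs : 0 ≤ |s| := abs_nonneg s
  have h4 : ∀ i, |(M *ᵥ (y - s • e j)) i| ≤ 0.48 / N * |s| := by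
    intro i
    refine (inv_bound' hμ he hD (y := y - s • e j) (d := |s| * κ) (fun i => by
      simpa using h2 i) i).trans ?_
    have : 1536 / μ * (|s| * κ) ≤ 1536 / μ * (|s| * (μ / (3200 * N))) := by gcongr
    refine this.trans (le_of_eq ?_)
    field_simp
    ring
  have h5 : ∀ i, (M *ᵥ y) i = (M *ᵥ (y - s • e j)) i + s * (Pi.single j (1 : ℝ) : Fin 4 → ℝ) i := by
    intro i
    rw [Matrix.mulVec_sub, Matrix.mulVec_smul, hM, inv_mulVec hμ hD j]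
    simp only [Pi.sub_apply, Pi.smul_apply, smul_eq_mul]
    ring
  have hi1 : |(M *ᵥ y) i| ≤ 0.48 / N * |s| := by
    rw [h5 i, Pi.single_apply, if_neg hi, mul_zero, add_zero]
    exact h4 i
  have hj1 : (1 - 0.48 / N) * |s| ≤ |(M *ᵥ y) j| := by
    have h6 : (M *ᵥ y) j = (M *ᵥ (y - s • e j)) j + s := by
      rw [h5 j, Pi.single_apply, if_pos rfl, mul_one]
    have h7 : |s| - |(M *ᵥ (y - s • e j)) j| ≤ |(M *ᵥ y) j| := by
      have h8 : s = (M *ᵥ y) j - (M *ᵥ (y - s • e j)) j := by rw [h6]; ring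
      have h9 := abs_sub ((M *ᵥ y) j) ((M *ᵥ (y - s • e j)) j)
      rw [← h8] at h9
      linarith
    have := h4 j
    linarith
  have h048 : 0.48 / N ≤ 0.48 := by
    rw [div_le_iff₀ hN0]; linarith
  calc |(M *ᵥ y) i| ≤ 0.48 / N * |s| := hi1
    _ = 1 / N * (0.48 * |s|) := by ring
    _ ≤ 1 / N * ((1 - 0.48 / N) * |s|) := by
        refine mul_le_mul_of_nonneg_left ?_ (by positivity)
        refine mul_le_mul_of_nonneg_right ?_ hs
        linarith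
    _ ≤ 1 / N * |(M *ᵥ y) j| := mul_le_mul_of_nonneg_left hj1 (by positivity)

end Crest.Agent.R136.MF191
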