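import Crest.Agent.R136.Stk6_464
import Crest.Agent.R136.Lat2_327

/-!
# R136, U6 thin side, stage C (helper464): class mates of good incidences, part 1

`MtD` : data of the level `v` mark along the line of a class mate of a good incidence, against the
mark itself; `mtd_of`.
-/

set_option autoImplicit false
set_option linter.unusedVariables false

open Finset Filter Topology

namespace Crest.Agent.R136.Stk464

open Crest.Agent.R138
open Crest.Agent.R138.Ex926 (Base U)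
open Crest.Agent.R138.Dp76 (dpow_pos dpow_add dpow_le dpow_le_one)
open Crest.Agent.R138.ArgM163 (ev_const)
open Crest.Agent.R138.Mk163 (zc zl rho alive)
open Crest.Agent.R138.MkRef627 (lc kc mem_alive)
open Crest.Agent.R136.MkA627
open Crest.Agent.R136.Sh605
open Crest.Agent.R136.K4
open Crest.Agent.R136.NetW191
open Crest.Agent.R136.GeoN778
open Crest.Agent.R136.Wit321
open Crest.Agent.R136.Top484
open Crest.Agent.R136.Stc321
open Crest.Agent.R136.Tl102 (QF kap Fq bz cmb fr IsExp OmB)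
open Crest.Agent.R136.Tlt51 (Close mk4 zx rh Shp InP)
open Crest.Agent.R136.KapP335 (kapP DetP kapP_eq)
open Crest.Agent.R136.Fw650 (z0N zhN rhN)
open Crest.Agent.R136.Thn768 (ThinW Frm Cont Own Snd Tay D3 nm cr exists_tay abs_dt_unit nm_le_sum)
open Crest.Agent.R136.TL650 (own_of)

/-- upper bound of the curvature extent, with a weaker bound of the multiplier -/
theorem ye_up16 {S : Plk4} {T : Ln4} {z0 ρ δ : ℝ} {b0 b1 : V3} {G : QF} {f : Fin 3 → V3} {c : Ln4}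
    {u : Un} {Q : Qd} {κ ν R η z1 : ℝ} {N R' : V3} {H : QF} (O : Own S T z0 ρ δ b0 b1 G) {X : ℝ}
    (hS : Snd S T z0 ρ b0 b1 G X Q.ev N R' H)
    (hδ1 : δ ≤ 1) (hX : X ≤ δ / 10 ^ 9) (hf : Ortho f) (hu : u.Ok)
    (hN : Nr (hatQ f c u Q) (ul u (rl f c T)) z1 κ ν R η) (hκ1 : |κ| ≤ 1) (hκ2 : 1 / 5 ≤ |κ|)
    (hR : 1 ≤ R) (hv : |(ul u (rl f c T)).v 1| ≤ R) (hη0 : 0 ≤ η) (hs : 6000 * (η * R ^ 4) ≤ 1)
    (hν1 : u.WY / 8 ≤ |ν|) (hν2 : |ν| ≤ 16 * u.WY) :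
    δ * (S.w 0 * kap b0 b1 G) ≤ 10 ^ 19 * (u.WY * (S.w 1 / u.WA) ^ 2) := by
  have hY := hu.Y0
  have hA := hu.A0
  have hB := hu.B0
  have hH := hu.H0
  have hρ := O.hρ
  have w1 := O.pos 1
  have w2 := O.pos 2
  have hν : 0 < |ν| := by linarith
  have c1 := hN.crs_le hκ1 hR hv hη0 (by linarith)
  have c2 := hN.crs_ge hκ1 hR hv hη0 (by linarith)
  have e1 := D3_hat (c := c) hf hu hS.tay z1
  have e2 := Om_hat (c := c) hf hu hS.tay z1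
  have k1 := (hS.D O hX hδ1).1
  have k2 := hS.om_le O (by linarith)
  have hYe := O.Ye0
  have om := abs_dt_unit hf 1 (cr N R')
  have := Y_up (P := ρ * (S.w 1 * S.w 2)) (C := 10 ^ 5) (δ := δ)
    (Ye := S.w 0 * kap b0 b1 G) (w1 := S.w 1) (D := D3 N R' H) (Om := dt (f 1) (cr N R')) hν hH hY
    hA hB (by norm_num) hYe w1.le (by positivity)
    (by rw [e1, abs_mul, abs_of_nonneg (sq_nonneg _)]) e2 c1 c2.1
    (by
      refine k1.trans ?_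
      have : 0 ≤ |D3 N R' H| * (ρ * (S.w 1 * S.w 2)) ^ 2 := by positivity
      linarith)
    (by
      refine le_trans ?_ k2
      exact mul_le_mul_of_nonneg_right om (by positivity))
  refine this.trans ?_
  have h3 : 0 ≤ (S.w 1 / u.WA) ^ 2 := sq_nonneg _
  have h4 := mul_le_mul_of_nonneg_right hν2 h3
  have h5 : 0 ≤ u.WY * (S.w 1 / u.WA) ^ 2 := by positivity
  calc 104 * (10 ^ 5 : ℝ) ^ 3 * (|ν| * (S.w 1 / u.WA) ^ 2) ≤
        104 * (10 ^ 5 : ℝ) ^ 3 * (16 * u.WY * (S.w 1 / u.WA) ^ 2) :=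
        mul_le_mul_of_nonneg_left h4 (by norm_num)
    _ ≤ _ := by
        have e : 104 * (10 ^ 5 : ℝ) ^ 3 * (16 * u.WY * (S.w 1 / u.WA) ^ 2) =
          1664 * 10 ^ 15 * (u.WY * (S.w 1 / u.WA) ^ 2) := by ring
        rw [e]
        exact mul_le_mul_of_nonneg_right (by norm_num) h5

/-- **data of the level `v` mark along the line of a class mate, against the mark itself** -/
structure MtD (D : Dat4) (K : ℕ → CtD) (n : ℕ) (v : ℚ) (x : ℕ × ℝ) (δ R η : ℝ) : Prop where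
  ex : ∃ (b0 b1 : V3) (G : QF) (b0p b1p : V3) (Gp : QF),
    Own (mk4 D n v x) (D.L n x.1) (zx D n v x) (rh D n v) δ b0 b1 G ∧
    IsExp (qdOf (mk4 D n 0 x).q).ev (mk4 D n v x).e (mk4 D n v x).w (D.L n x.1) (zx D n v x)
      (rh D n v) b0p b1p Gp ∧
    1 / 16 ≤ |b0p 0 / b0 0| ∧ |b0p 0 / b0 0| ≤ 16 ∧
    (K n).u.WY / 4 ≤ |((K n).Q (mk4 D n v x).q).b 0| ∧
    |((K n).Q (mk4 D n v x).q).b 0| ≤ 16 * (K n).u.WY ∧
    (∃ g g' : V3, Bas g g' (φb (K n).f (K n).u (mk4 D n v x).e (mk4 D n v x).w (kap b0 b1 G) b0)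
      (K n).κ (((K n).t (D.L n x.1)).v 1) R η (rh D n v / (K n).u.H)
      ((mk4 D n v x).w 0 * kap b0 b1 G / |((K n).Q (mk4 D n v x).q).b 0|) 0
      ((mk4 D n v x).w 1 / (K n).u.WA) ((mk4 D n v x).w 2 / (K n).u.WA)
      ((mk4 D n v x).w 1 / (K n).u.WA * ((mk4 D n v x).w 2 / (K n).u.WB))) ∧
    δ * ((mk4 D n v x).w 0 * kap b0 b1 G) ≤
      (K n).u.WY * ((mk4 D n v x).w 1 / (K n).u.WA) ^ 2 ∧
    δ * ((K n).u.WY * ((mk4 D n v x).w 1 / (K n).u.WA) ^ 2) ≤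
      (mk4 D n v x).w 0 * kap b0 b1 G ∧
    (∀ k, |((K n).t (D.L n x.1)).p k| ≤ R ∧ |((K n).t (D.L n x.1)).v k| ≤ R) ∧
    |(K n).u.zh (zx D n v x)| ≤ 1 ∧
    ∃ X : ℝ, 0 ≤ X ∧ (mk4 D n v x).w 0 * kap b0 b1 G * X ≤ R * D.w 0 n 0 ∧
      OmB (kap b0 b1 G) X X X b0 b1 G b0p b1p Gp

theorem mk_mate {D : Dat4} {n : ℕ} {v : ℚ} {x y : ℕ × ℝ}
    (h : kc (D.lev n v) (D.f n v) y = kc (D.lev n v) (D.f n v) x) :
    mk4 D n v x = mk4 D n v y := by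
  unfold mk4
  have := congrArg Prod.fst h
  simp only [kc] at this
  rw [this]

set_option maxHeartbeats 1600000 in
/-- **the data of the class mates** -/
theorem mtd_of {p : Par4} {D : Dat4} {K : ℕ → CtD} {x0 : ℕ → ℕ × ℝ} (h : ThinW p D)
    (hk : StcK p D K x0) (C : ℝ) {v : ℚ} (v0 : 0 ≤ v) (v1 : v ≤ 1) :
    ∃ C2 M : ℝ, 0 ≤ C2 ∧ ∀ᶠ n in (U : Filter ℕ), ∀ w ∈ D.I n, ∀ x ∈ D.I n,
      kc (D.lev n v) (D.f n v) x = kc (D.lev n v) (D.f n v) w → Gd D K C n w →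
        (∀ k, |MkS D K v n (kc (D.lev n v) (D.f n v) x) k| ≤ D.B.d n ^ (-C2)) ∧
        MtD D K n v x (D.B.d n ^ (1 : ℝ)) (D.B.d n ^ (-C2)) (D.B.d n ^ M) := by
  obtain ⟨Cs, hs⟩ := sndLev_of h
  obtain ⟨C1, hMb⟩ := Mb_all h hk C v v0 v1
  obtain ⟨Cm, hmb⟩ := Lat327.mate_bd h hk C v v0 v1
  have hbg := b0_ge h hk v0 v1 hMb
  set C0 : ℝ := max (max C1 Cm) 0 with hC0
  have c00 : 0 ≤ C0 := le_max_right _ _
  have c01 : C1 ≤ C0 := (le_max_left _ _).trans (le_max_left _ _)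
  have c0m : Cm ≤ C0 := (le_max_right _ _).trans (le_max_left _ _)
  set C2 : ℝ := max (C0 + 1) Cs with hC2
  have c21 : C0 + 1 ≤ C2 := le_max_left _ _
  have c2s : Cs ≤ C2 := le_max_right _ _
  set M : ℝ := 4 * C2 + 10 with hM
  refine ⟨C2, M, by linarith, ?_⟩
  set MX : ℝ := M + 2 with hMX
  set MP : ℝ := M + C2 + 1 with hMP
  filter_upwards [hs v v0 v1 MX, mk_facts h.mka v0 v1, mk_facts h.mka le_rfl zero_le_one,
    h.nd v v0 v1 1 one_pos, h.nd v v0 v1 (1 / 100) (by norm_num),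
    h.nd v v0 v1 (1 / 2) (by norm_num), hk.sm MP, hk.σs (MP + C0), hk.YB M, hk.kp0,
    cell_v h.mka hk v0 v1, hk.bal v v0 v1 (1 / 4) (by norm_num),
    cpow_le D.B (10 ^ 6) (show (0 : ℝ) < 1 by norm_num),
    cpow_le D.B (10 ^ 19) (show (0 : ℝ) < 1 / 2 by norm_num),
    hMb, hmb, hbg] with n hs mf mf0 nd nd1 nd2 sm σs YB kp0 cv bal k1 k2 hMb hmb hbg w hw x hx
      hxw hg
  have hmk : mk4 D n v w = mk4 D n v x := mk_mate hxw
  obtain ⟨gb, gf⟩ := hMb w hw hg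
  obtain ⟨nu1, nu2⟩ := hbg w hw hg
  have gl := hmb w hw x hx hxw hg
  rw [← hxw] at gf
  rw [hmk] at gb nu1 nu2
  have gf' : ∀ k, |flg (K n).κ (K n).σ ((K n).Q (mk4 D n v x).q) k| ≤ D.B.d n ^ (-C1) := gf
  have dp := dpow_pos D.B n
  have d1 : ∀ {s : ℝ}, 0 ≤ s → D.B.d n ^ s ≤ 1 := fun hs => dpow_le_one D.B n hs
  rw [Real.rpow_zero] at k1 k2
  obtain ⟨f1, f2, f3, f4, f5⟩ := mf.2 x hx
  obtain ⟨g1, g2, g3, g4, g5⟩ := mf0.2 x hx
  have ha : 0 < (mk4 D n v x).a := by rw [f3]; exact mf.1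
  have hρ : 0 < rh D n v := rho_pos' _
  obtain ⟨b0, b1, G, O⟩ := own_of f2 ha f1 hρ (dp 1) (nd x hx)
  have O1 : Own (mk4 D n v x) (D.L n x.1) (zx D n v x) (rh D n v) (D.B.d n ^ (1 / 100 : ℝ))
      b0 b1 G := ⟨O.ortho, O.pos, O.w02, O.w21, O.hρ, O.exp, O.nrm, O.k0, dp _, nd1 x hx⟩
  have O2 : Own (mk4 D n v x) (D.L n x.1) (zx D n v x) (rh D n v) (D.B.d n ^ (1 / 2 : ℝ))
      b0 b1 G := ⟨O.ortho, O.pos, O.w02, O.w21, O.hρ, O.exp, O.nrm, O.k0, dp _, nd2 x hx⟩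
  obtain ⟨X, N, R', H, hS, hX1, hX0, hX2⟩ := hs x hx b0 b1 G O1
  have hq0 := (Stk464.qdOf_spec g2.isQ).1
  have hqv := (Stk464.qdOf_spec f2.isQ).1
  have hSQ : Snd (mk4 D n v x) (D.L n x.1) (zx D n v x) (rh D n v) b0 b1 G X
      (qdOf (mk4 D n 0 x).q).ev N R' H := by rw [← hq0]; exact hS
  obtain ⟨b0p, b1p, Gp, hE, m1, m2', hO⟩ := hSQ.ex
  -- the mark itself
  obtain ⟨Nv, Rv, Hv, hTv⟩ := exists_tay f2.isQ (D.L n x.1)
  have hSv : Snd (mk4 D n v x) (D.L n x.1) (zx D n v x) (rh D n v) b0 b1 G 0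
      (qdOf (mk4 D n v x).q).ev Nv Rv Hv := by rw [← hqv]; exact O.snd hTv
  obtain ⟨b0v, b1v, Gv, hEv, mv1, mv2, hOv⟩ := hSv.ex
  -- numbers
  set Rr : ℝ := D.B.d n ^ (-C2) with hRr
  set η : ℝ := D.B.d n ^ M with hη
  have R1 : 1 ≤ Rr := Real.one_le_rpow_of_pos_of_le_one_of_nonpos (D.B.pos n) (D.B.lt n).le
    (by linarith)
  have η0 : 0 < η := dp _
  set Γ : ℝ := D.B.d n ^ (-C1) with hΓ
  set P1 : ℝ := D.B.d n ^ MP with hP1
  have hP10 : 0 < P1 := dp _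
  have e1 : P1 * Rr = η * D.B.d n ^ (1 : ℝ) := by
    rw [hP1, hRr, hη, ← dpow_add, ← dpow_add]; congr 1; rw [hMP]; ring
  have σ0 := hk.σ0 n
  have hσΓ : (K n).σ * Γ ≤ P1 := by
    calc (K n).σ * Γ ≤ D.B.d n ^ (MP + C0) * D.B.d n ^ (-C1) :=
          mul_le_mul_of_nonneg_right σs (dp _).le
      _ = D.B.d n ^ (MP + C0 - C1) := by rw [← dpow_add]; congr 1
      _ ≤ P1 := dpow_le D.B n (by linarith)
  have hσΓ0 : 0 ≤ (K n).σ * Γ := mul_nonneg σ0.le (dp _).le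
  have hd1 : D.B.d n ^ (1 : ℝ) ≤ 1 / 10 ^ 6 := by
    rw [le_div_iff₀ (by norm_num)]; linarith
  have hP1s : P1 ≤ 1 / 10 ^ 6 := by
    refine le_trans (dpow_le D.B n (show (1 : ℝ) ≤ MP by rw [hMP]; linarith)) hd1
  have hηs : η ≤ 1 / 10 ^ 6 := le_trans (dpow_le D.B n (show (1 : ℝ) ≤ M by linarith)) hd1
  have hRη : Rr ^ 4 * η ≤ 1 / 10 ^ 6 := by
    have e : Rr ^ 4 = D.B.d n ^ (-(4 * C2)) := by
      rw [hRr, ← Real.rpow_natCast, ← Real.rpow_mul (D.B.pos n).le]; congr 1; push_cast; ring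
    rw [e, hη, ← dpow_add]
    exact le_trans (dpow_le D.B n (by linarith)) hd1
  have hR4 : Rr ≤ Rr ^ 4 := by
    have : Rr ^ 1 ≤ Rr ^ 4 := pow_le_pow_right₀ R1 (by norm_num)
    rwa [pow_one] at this
  have hRη1 : Rr * η ≤ 1 / 10 ^ 6 := (mul_le_mul_of_nonneg_right hR4 η0.le).trans hRη
  -- positions
  have hC2' : D.B.d n ^ (-C0) * 2 ≤ Rr := by
    have a : 2 ≤ D.B.d n ^ (-(1 : ℝ)) := by
      have e : D.B.d n ^ (1 : ℝ) * D.B.d n ^ (-(1 : ℝ)) = 1 := by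
        rw [← dpow_add]; simp
      have h3 := mul_le_mul_of_nonneg_right hd1 (dp (-(1 : ℝ))).le
      rw [e] at h3
      linarith
    calc D.B.d n ^ (-C0) * 2 ≤ D.B.d n ^ (-C0) * D.B.d n ^ (-(1 : ℝ)) :=
          mul_le_mul_of_nonneg_left a (dp _).le
      _ = D.B.d n ^ (-C0 + -1) := (dpow_add D.B n _ _).symm
      _ ≤ Rr := dpow_le D.B n (by linarith)
  have hΓm : D.B.d n ^ (-Cm) ≤ D.B.d n ^ (-C0) := dpow_le D.B n (by linarith)
  set t := (K n).t (D.L n x.1) with ht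
  have tp : ∀ k, |t.p k| ≤ D.B.d n ^ (-C0) := fun k => (gl k).1.trans hΓm
  have tvb : ∀ k, |t.v k| ≤ D.B.d n ^ (-C0) := fun k => (gl k).2.trans hΓm
  have dC0 := dp (-C0)
  have tpR : ∀ k, |t.p k| ≤ Rr := fun k => (tp k).trans (by linarith)
  have tvR : ∀ k, |t.v k| ≤ Rr := fun k => (tvb k).trans (by linarith)
  have pos : ∀ z, |z| ≤ 1 → ∀ k, |t.pos z k| ≤ Rr := by
    intro z hz k
    have := a2 (tp k) (m2 hz (tvb k))
    show |t.p k + z * t.v k| ≤ _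
    linarith
  have zz0 : |(K n).u.zh (zx D n v x)| ≤ 1 := by
    refine cv.2.2 x hx _ (le_of_eq ?_) ?_
    · rw [uzh_eq]; rfl
    · rw [uzh_eq]
      show z0N D.lev (hzS K) (zsS K) v n (zc (D.lev n v) x.2) ≤ _
      have : 0 < rhN D.lev (hzS K) n v := lt_of_lt_of_le (dp _) cv.1
      linarith
  -- near the model
  have nr : Nr ((K n).Qh (mk4 D n v x).q) t ((K n).u.zh (zx D n v x)) (K n).κ
      (((K n).Q (mk4 D n v x).q).b 0) Rr η := by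
    have hb1 : Rr * (24 * P1 + (K n).σ * Γ) ≤ 25 * (P1 * Rr) := by
      have := mul_le_mul_of_nonneg_left (show 24 * P1 + (K n).σ * Γ ≤ 25 * P1 by linarith)
        (by linarith : 0 ≤ Rr)
      linarith
    have hb2 : 25 * (P1 * Rr) ≤ η / 9 := by
      rw [e1]
      have := mul_le_mul_of_nonneg_left hd1 η0.le
      linarith
    have := nr_good (z1 := (K n).u.zh (zx D n v x)) sm (by linarith) σ0 (hk.kp1 n) gb gf'
      (by linarith) (t := t) R1 (zz0.trans R1) (pos _ zz0) tvR (by linarith)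
    exact this.mono (by linarith)
  have hWY := (hk.ok n).Y0
  have hWA := (hk.ok n).A0
  have hWB := (hk.ok n).B0
  have hHp := (hk.ok n).H0
  have hrh : rh D n v / (K n).u.H = rhN D.lev (hzS K) n v := by
    show rho (D.lev n v) / (K n).u.H = 1 / (K n).u.H * rho (D.lev n v)
    ring
  have hRη' : 6000 * (η * Rr ^ 4) ≤ 1 := by
    have : η * Rr ^ 4 = Rr ^ 4 * η := mul_comm _ _
    rw [this]; linarith
  have hBas := bas_of (c := (K n).c) O (hk.ortho n) (hk.ok n) hEv mv1 mv2 hOv le_rfl (by norm_num)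
    nr (hk.kp1 n) R1 (tvR 1) η0.le (by linarith)
    (by
      have : rh D n v / (K n).u.H ≤ 1 := by rw [hrh]; linarith [cv.2.1]
      rwa [div_le_one hHp] at this) (by linarith) (by linarith) YB
  -- curvature extent
  have hX9 : (0 : ℝ) ≤ D.B.d n ^ (1 / 2 : ℝ) / 10 ^ 9 := by
    have := dp (1 / 2)
    positivity
  have up := ye_up16 (c := (K n).c) O2 hSv (d1 (by norm_num)) hX9 (hk.ortho n) (hk.ok n) nr
    (hk.kp1 n) kp0 R1 (tvR 1) η0.le hRη' (by linarith) nu2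
  set A := (mk4 D n v x).w 1 / (K n).u.WA with hA
  have hA0 : 0 < A := div_pos (O.pos 1) hWA
  have hYe := O.Ye0
  have hup : D.B.d n ^ (1 : ℝ) * ((mk4 D n v x).w 0 * kap b0 b1 G) ≤ (K n).u.WY * A ^ 2 := by
    have e : D.B.d n ^ (1 : ℝ) = D.B.d n ^ (1 / 2 : ℝ) * D.B.d n ^ (1 / 2 : ℝ) := by
      rw [← dpow_add]; congr 1; norm_num
    have hp : 0 < (K n).u.WY * A ^ 2 := by positivity
    calc D.B.d n ^ (1 : ℝ) * ((mk4 D n v x).w 0 * kap b0 b1 G) =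
          D.B.d n ^ (1 / 2 : ℝ) * (D.B.d n ^ (1 / 2 : ℝ) * ((mk4 D n v x).w 0 * kap b0 b1 G)) := by
            rw [e]; ring
      _ ≤ D.B.d n ^ (1 / 2 : ℝ) * (10 ^ 19 * ((K n).u.WY * A ^ 2)) :=
          mul_le_mul_of_nonneg_left up (dp _).le
      _ = 10 ^ 19 * D.B.d n ^ (1 / 2 : ℝ) * ((K n).u.WY * A ^ 2) := by ring
      _ ≤ 1 * ((K n).u.WY * A ^ 2) := mul_le_mul_of_nonneg_right k2 hp.le
      _ = _ := one_mul _
  have hbb : D.B.d n ^ (1 / 4 : ℝ) * A ^ 2 ≤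
      rh D n v / (K n).u.H * ((mk4 D n v x).w 2 / (K n).u.WB) := by
    have b2 := bal.2
    have e : wBS D K n v = A ^ 2 / rhN D.lev (hzS K) n v := by
      rw [hA, f4]; rfl
    have hr0 : 0 < rhN D.lev (hzS K) n v := lt_of_lt_of_le (dp _) cv.1
    rw [e] at b2
    rw [hrh, f5]
    have e3 : D.B.d n ^ (1 / 4 : ℝ) * D.B.d n ^ (-(1 / 4 : ℝ)) = 1 := by rw [← dpow_add]; simp
    have b3 := mul_le_mul_of_nonneg_left b2
      (div_nonneg (mul_nonneg (dp (1 / 4)).le hr0.le) hWB.le)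
    have e4 : D.B.d n ^ (1 / 4 : ℝ) * rhN D.lev (hzS K) n v / (K n).u.WB *
        ((K n).u.WB * (A ^ 2 / rhN D.lev (hzS K) n v)) = D.B.d n ^ (1 / 4 : ℝ) * A ^ 2 := by
      field_simp
    have e5 : D.B.d n ^ (1 / 4 : ℝ) * rhN D.lev (hzS K) n v / (K n).u.WB *
        (D.w 2 n v * D.B.d n ^ (-(1 / 4 : ℝ))) = (D.B.d n ^ (1 / 4 : ℝ) * D.B.d n ^ (-(1 / 4 : ℝ))) *
          (rhN D.lev (hzS K) n v * (D.w 2 n v / (K n).u.WB)) := by ring
    rw [e4, e5, e3, one_mul] at b3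
    exact b3
  have low := ye_low (c := (K n).c) O2 hSv (d1 (by norm_num)) hX9 (hk.ortho n) (hk.ok n)
    nr (hk.kp1 n) kp0 R1 (tvR 1) η0.le hRη' (by linarith) (dp (1 / 4)) hbb
  have hlow : D.B.d n ^ (1 : ℝ) * ((K n).u.WY * A ^ 2) ≤ (mk4 D n v x).w 0 * kap b0 b1 G := by
    refine cube_le (mul_nonneg (dp _).le (by positivity)) hYe.le ?_
    have e : (D.B.d n ^ (1 : ℝ) * ((K n).u.WY * A ^ 2)) ^ 3 =
        D.B.d n ^ (5 / 2 : ℝ) * ((D.B.d n ^ (1 / 4 : ℝ)) ^ 2 * ((K n).u.WY * A ^ 2) ^ 3) := by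
      rw [mul_pow, ← mul_assoc]
      congr 1
      rw [← Real.rpow_natCast, ← Real.rpow_mul (D.B.pos n).le, ← Real.rpow_natCast,
        ← Real.rpow_mul (D.B.pos n).le, ← dpow_add]
      congr 1; push_cast; ring
    rw [e]
    have k3 : D.B.d n ^ (5 / 2 : ℝ) * 10 ^ 17 ≤ 1 := by
      have : D.B.d n ^ (5 / 2 : ℝ) ≤ D.B.d n ^ (1 / 2 : ℝ) := dpow_le D.B n (by norm_num)
      have := dp (1 / 2)
      linarith
    calc D.B.d n ^ (5 / 2 : ℝ) * ((D.B.d n ^ (1 / 4 : ℝ)) ^ 2 * ((K n).u.WY * A ^ 2) ^ 3) ≤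
          D.B.d n ^ (5 / 2 : ℝ) * (10 ^ 17 * ((mk4 D n v x).w 0 * kap b0 b1 G) ^ 3) :=
          mul_le_mul_of_nonneg_left low (dp _).le
      _ = D.B.d n ^ (5 / 2 : ℝ) * 10 ^ 17 * ((mk4 D n v x).w 0 * kap b0 b1 G) ^ 3 := by ring
      _ ≤ 1 * ((mk4 D n v x).w 0 * kap b0 b1 G) ^ 3 :=
          mul_le_mul_of_nonneg_right k3 (pow_pos hYe 3).le
      _ = _ := one_mul _
  refine ⟨fun k => (gf k).trans (dpow_le D.B n (by linarith)),
    ⟨b0, b1, G, b0p, b1p, Gp, O, hE, m1, m2', nu1, nu2, ⟨_, _, hBas⟩, hup, hlow,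
    fun k => ⟨tpR k, tvR k⟩, zz0, X, hX0, ?_, hO⟩⟩
  refine hX2.trans (mul_le_mul_of_nonneg_right (dpow_le D.B n (by linarith)) ?_)
  exact mf0.1.le

end Crest.Agent.R136.Stk464
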