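import Crest.Agent.R136.Mat1_464

/-!
# R136, U6 thin side, stage C (helper464): class mates of good incidences, part 2

`mate_of` : the field `mate` of `StcA`.
-/

set_option autoImplicit false
set_option linter.unusedVariables false

open Finset Filter Topology

namespace Crest.Agent.R136.Stk464

open Crest.Agent.R138
open Crest.Agent.R138.Ex926 (Base U)
open Crest.Agent.R138.Dp76 (dpow_pos dpow_add dpow_le dpow_le_one)
open Crest.Agent.R138.ArgM163 (ev_const)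
open Crest.Agent.R138.Mk163 (zc zl rho alive)
open Crest.Agent.R138.MkRef627 (lc kc mem_alive)
open Crest.Agent.R136.MkA627
open Crest.Agent.R136.Sh605
open Crest.Agent.R136.NetW191
open Crest.Agent.R136.GeoN778
open Crest.Agent.R136.Wit321
open Crest.Agent.R136.Top484
open Crest.Agent.R136.Stc321
open Crest.Agent.R136.Tl102 (QF kap Fq bz cmb fr IsExp OmB)
open Crest.Agent.R136.Tlt51 (Close mk4 zx rh Shp InP)
open Crest.Agent.R136.KapP335 (kapP DetP kapP_eq)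
open Crest.Agent.R136.Fw650 (z0N zhN rhN)
open Crest.Agent.R136.Thn768 (ThinW Frm Cont Own Snd Tay D3 nm cr exists_tay abs_dt_unit nm_le_sum)

variable {p : Par4} {D : Dat4} {K : ℕ → CtD} {x0 : ℕ → ℕ × ℝ}

set_option maxHeartbeats 1600000 in
/-- **class mates of good incidences are good** : the field `mate` of `StcA` -/
theorem mate_of (h : ThinW p D) (hK : StcK p D K x0) :
    ∀ C : ℝ, ∀ v : ℚ, 0 ≤ v → v ≤ 1 → ∃ C' : ℝ, ∀ᶠ n in (U : Filter ℕ), ∀ x ∈ D.I n,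
    ∀ y ∈ D.I n, kc (D.lev n v) (D.f n v) y = kc (D.lev n v) (D.f n v) x → Gd D K C n x →
      Gd D K C' n y := by
  intro C v h0 h1
  obtain ⟨C2, M, c20, hC2⟩ := mtd_of h hK C h0 h1
  set a : ℝ := |1 - p.θ 0| + |1 - p.θ 1| + |1 - p.θ 2| with ha
  set e : ℝ := max C2 0 + a + 4 with he
  have a0 := abs_nonneg (1 - p.θ 0)
  have a1 := abs_nonneg (1 - p.θ 1)
  have a2' := abs_nonneg (1 - p.θ 2)
  have m0 : 0 ≤ max C2 0 := le_max_right _ _
  have eC2 : C2 ≤ e := by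
    have : C2 ≤ max C2 0 := le_max_left _ _
    linarith
  have e4 : 4 ≤ e := by linarith
  have ep : 0 < e := by linarith
  refine ⟨42 * e, ?_⟩
  filter_upwards [hC2, mk_facts h.mka h0 h1, mk_facts h.mka le_rfl zero_le_one,
    cell_v h.mka hK h0 h1, hK.sm 1, hK.σs (41 * e), hK.σw, hK.wid 1 one_pos,
    Wcn464.wid_le h.mka 0 h0 h1, Wcn464.wid_le h.mka 1 h0 h1, wid_ge h.mka 1 h0 h1,
    wid_ge h.mka 2 h0 h1, h.mka.lev_mono 0 v le_rfl h0 h1, ev_const D.B (C := 10 ^ 6) (by norm_num) ep,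
    ev_const D.B (C := 1000) (by norm_num) one_pos] with n b1 b2 b3 b4 b5 b6 b7 b8 c0 c1 c2 c3 b9
      b10 b11 w hw x hx hxw hg
  obtain ⟨gfl, hMt⟩ := b1 w hw x hx hxw hg
  obtain ⟨B0, B1, G, B0p, B1p, Gp, O, hE, q1, q2, q3', q4, ⟨gg, gg', hB⟩, y1, y2, hpv, hzh, X, X0,
    X2, hO⟩ := hMt.ex
  obtain ⟨mv0, mv⟩ := b2
  obtain ⟨v1, v2, v3, v4, v5⟩ := mv x hx
  obtain ⟨mo0, mo⟩ := b3
  obtain ⟨o1, o2, o3, o4, o5⟩ := mo x hx
  have dp := dpow_pos D.B n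
  have hWA := (hK.ok n).A0
  have hWB := (hK.ok n).B0
  have hWY := (hK.ok n).Y0
  have hH := (hK.ok n).H0
  set t : ℝ := D.B.d n ^ (-e) with ht
  have t0 : 0 < t := dp _
  have t1 : 1 ≤ t := by linarith
  set dd : ℝ := D.B.d n ^ (1 : ℝ) with hdd
  have dd0 : 0 < dd := dp _
  have ed : D.B.d n ^ (-(1 : ℝ)) * dd = 1 := by rw [hdd, ← dpow_add]; simp
  have hd1 : 1000 * dd ≤ 1 := by
    have := mul_le_mul_of_nonneg_right b11 dd0.le
    linarith
  -- the widths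
  set s1 : ℝ := D.B.d n ^ (-(|1 - p.θ 1| + 2)) with hs1
  set s2 : ℝ := D.B.d n ^ (-(|1 - p.θ 2| + 2)) with hs2
  have s10 : 0 < s1 := dp _
  have s20 : 0 < s2 := dp _
  have es1 : s1 * D.B.d n ^ (-(1 : ℝ)) ≤ t := by
    rw [hs1, ← dpow_add]
    exact dpow_le D.B n (by linarith)
  have es2 : s2 ≤ t := dpow_le D.B n (by linarith)
  have es1' : s1 ≤ t := dpow_le D.B n (by linarith)
  set A1 : ℝ := (mk4 D n v x).w 1 / (K n).u.WA with hA1
  set A2 : ℝ := (mk4 D n v x).w 2 / (K n).u.WB with hA2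
  have A10 : 0 < A1 := div_pos (O.pos 1) hWA
  have A20 : 0 < A2 := div_pos (O.pos 2) hWB
  have A1u : A1 ≤ s1 := by
    rw [hA1, div_le_iff₀ hWA, v4]
    have k1 := mul_le_mul_of_nonneg_right b8.2.1 (dp (-(|1 - p.θ 1| + 1))).le
    refine (c1.trans k1).trans (le_of_eq ?_)
    have e1 : s1 = D.B.d n ^ (-(1 : ℝ)) * D.B.d n ^ (-(|1 - p.θ 1| + 1)) := by
      rw [hs1, ← dpow_add]; congr 1; ring
    rw [e1]; ring
  have low : ∀ {w0 wv W E : ℝ}, 0 < W → dd * W ≤ w0 → w0 ≤ wv * D.B.d n ^ (-(E + 1)) →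
      1 ≤ D.B.d n ^ (-(E + 2)) * (wv / W) := by
    intro w0 wv W E hW k1 k2
    have e1 : D.B.d n ^ (-(E + 2)) = D.B.d n ^ (-(1 : ℝ)) * D.B.d n ^ (-(E + 1)) := by
      rw [← dpow_add]; congr 1; ring
    have k3 := mul_le_mul_of_nonneg_left (k1.trans k2) (dp (-(1 : ℝ))).le
    rw [← mul_assoc, ed, one_mul] at k3
    have e2 : D.B.d n ^ (-(E + 2)) * (wv / W) =
        D.B.d n ^ (-(1 : ℝ)) * (wv * D.B.d n ^ (-(E + 1))) / W := by rw [e1]; ring
    rw [e2, le_div_iff₀ hW, one_mul]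
    exact k3
  have A1l : 1 ≤ s1 * A1 := by
    rw [hA1, v4]; exact low hWA b8.1 c2
  have A2l : 1 ≤ s2 * A2 := by
    rw [hA2, v5]; exact low hWB b8.2.2.1 c3
  have hα : 0 < A1 * A2 := mul_pos A10 A20
  have hα' : 1 ≤ t ^ 2 * (A1 * A2) := by
    calc (1 : ℝ) ≤ s1 * A1 * (s2 * A2) := one_le_mul_of_one_le_of_one_le A1l A2l
      _ ≤ t * A1 * (t * A2) := mul_le_mul (mul_le_mul_of_nonneg_right es1' A10.le)
          (mul_le_mul_of_nonneg_right es2 A20.le) (by positivity) (by positivity)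
      _ = t ^ 2 * (A1 * A2) := by ring
  -- the curvature extent
  set ν := ((K n).Q (mk4 D n v x).q).b 0 with hν
  have q3 : (K n).u.WY / 8 ≤ |ν| := by linarith
  have hν0 : 0 < |ν| := by linarith
  set Ye : ℝ := (mk4 D n v x).w 0 * kap B0 B1 G with hYe
  have Ye0 : 0 < Ye := O.Ye0
  set Y : ℝ := Ye / |ν| with hY
  have Y0 : 0 < Y := div_pos Ye0 hν0
  have Y1 : Y ≤ t ^ 2 := by
    rw [hY, div_le_iff₀ hν0]
    have k1 : dd * Ye ≤ (K n).u.WY * s1 ^ 2 := by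
      refine y1.trans ?_
      exact mul_le_mul_of_nonneg_left (pow_le_pow_left₀ A10.le A1u 2) hWY.le
    have k2 := mul_le_mul_of_nonneg_left k1 (dp (-(1 : ℝ))).le
    rw [← mul_assoc, ed, one_mul] at k2
    have k3 : t ^ 2 * ((K n).u.WY / 8) ≤ t ^ 2 * |ν| := mul_le_mul_of_nonneg_left q3 (by positivity)
    refine le_trans ?_ k3
    have k4 : (s1 * D.B.d n ^ (-(1 : ℝ))) ^ 2 ≤ t ^ 2 :=
      pow_le_pow_left₀ (mul_pos s10 (dp _)).le es1 2
    have k5 := mul_le_mul_of_nonneg_right k4 (show 0 ≤ (K n).u.WY / 8 by positivity)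
    refine le_trans ?_ k5
    refine k2.trans ?_
    have k6 : 8 * (D.B.d n ^ (-(1 : ℝ)) * ((K n).u.WY * s1 ^ 2)) ≤
        D.B.d n ^ (-(1 : ℝ)) * (D.B.d n ^ (-(1 : ℝ)) * ((K n).u.WY * s1 ^ 2)) :=
      mul_le_mul_of_nonneg_right (by linarith) (mul_pos (dp _) (by positivity)).le
    have e1 : (s1 * D.B.d n ^ (-(1 : ℝ))) ^ 2 * ((K n).u.WY / 8) =
        D.B.d n ^ (-(1 : ℝ)) * (D.B.d n ^ (-(1 : ℝ)) * ((K n).u.WY * s1 ^ 2)) / 8 := by ring
    rw [e1]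
    linarith
  have Y2 : 1 ≤ t ^ 2 * Y := by
    have k1 : dd * ((K n).u.WY * A1 ^ 2) ≤ Ye := y2
    have k2 : dd * A1 ^ 2 / 16 ≤ Y := by
      rw [hY, le_div_iff₀ hν0]
      have k3 := mul_le_mul_of_nonneg_left q4 (show 0 ≤ dd * A1 ^ 2 / 16 by positivity)
      refine k3.trans (le_trans (le_of_eq ?_) k1)
      ring
    have k4 : (s1 * D.B.d n ^ (-(1 : ℝ))) ^ 2 ≤ t ^ 2 :=
      pow_le_pow_left₀ (mul_pos s10 (dp _)).le es1 2
    have k5 : (s1 * D.B.d n ^ (-(1 : ℝ))) ^ 2 * (dd * A1 ^ 2 / 16) ≤ t ^ 2 * Y :=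
      mul_le_mul k4 k2 (by positivity) (by positivity)
    refine le_trans ?_ k5
    have e1 : (s1 * D.B.d n ^ (-(1 : ℝ))) ^ 2 * (dd * A1 ^ 2 / 16) =
        (s1 * A1) ^ 2 * (D.B.d n ^ (-(1 : ℝ)) * (D.B.d n ^ (-(1 : ℝ)) * dd) / 16) := by ring
    rw [e1, ed, mul_one]
    have k6 : (1 : ℝ) ≤ (s1 * A1) ^ 2 := one_le_pow₀ A1l
    exact one_le_mul_of_one_le_of_one_le k6 (by linarith)
  -- the cell
  have hr := hB.rh0
  have erh : rh D n v / (K n).u.H = rhN D.lev (hzS K) n v := by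
    show rho (D.lev n v) / (K n).u.H = 1 / (K n).u.H * rho (D.lev n v)
    ring
  have hv1 : (v : ℝ) ≤ 1 := by exact_mod_cast h1
  have hr' : 1 ≤ t * (rh D n v / (K n).u.H) := by
    rw [erh]
    have k1 := mul_le_mul_of_nonneg_left b4.1 t0.le
    refine le_trans ?_ k1
    rw [ht, ← dpow_add]
    exact Real.one_le_rpow_of_pos_of_le_one_of_nonpos (D.B.pos n) (D.B.lt n).le (by linarith)
  have hR : D.B.d n ^ (-C2) ≤ t := dpow_le D.B n (by linarith)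
  obtain ⟨n1, n2⟩ := mb_num b10 hB.R1 hR Y0 Y1 Y2 hr hr' A10.le (A1u.trans es1') hα hα'
  -- values on the cell
  have hsv := qdOf_spec v2.isQ
  have hs0 := qdOf_spec o2.isQ
  set Kk : ℝ := D.w 0 n 0 * t ^ 2 with hKk
  have tt : t ≤ t ^ 2 := le_self_pow₀ t1 (by norm_num)
  have hKX : Ye * X ≤ Kk := by
    refine X2.trans ?_
    rw [hKk, mul_comm]
    exact mul_le_mul_of_nonneg_left (hR.trans tt) mo0.le
  have hwv : D.w 0 n v ≤ D.w 0 n 0 * t :=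
    c0.trans (mul_le_mul_of_nonneg_left (dpow_le D.B n (by linarith)) mo0.le)
  have cell : ∀ z, zx D n v x ≤ z → z ≤ zx D n v x + rh D n v →
      |(qdOf (mk4 D n 0 x).q).ev z ((D.L n x.1).pos z) - B0p 0 / B0 0 *
        (qdOf (mk4 D n v x).q).ev z ((D.L n x.1).pos z)| ≤ Kk := by
    intro z z1 z2
    rw [← hsv.1, ← hs0.1]
    obtain ⟨u1, u2⟩ := cell_nest b9 x.2
    have k1 := (v1 z z1 z2).2
    have k2 := (o1 z (u1.trans z1) (z2.trans u2)).2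
    rw [v3] at k1
    rw [o3] at k2
    refine (abs_sub _ _).trans ?_
    rw [abs_mul]
    have k3 : |B0p 0 / B0 0| * |(mk4 D n v x).q z ((D.L n x.1).pos z)| ≤ 16 * D.w 0 n v :=
      mul_le_mul q2 k1 (abs_nonneg _) (by norm_num)
    have k4 : D.w 0 n 0 ≤ D.w 0 n 0 * t := le_mul_of_one_le_right mo0.le t1
    have k5 : 17 * (D.w 0 n 0 * t) ≤ t * (D.w 0 n 0 * t) :=
      mul_le_mul_of_nonneg_right (by linarith) (by positivity)
    have k6 : t * (D.w 0 n 0 * t) = Kk := by rw [hKk]; ring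
    linarith
  have Kk0 : 0 ≤ Kk := by rw [hKk]; positivity
  have hW := om_sz O (hK.ortho n) (c := (K n).c) (hK.ok n) hsv.1 hs0.2 hsv.2 hE X0 hO hB
    (fun k => (hpv k).1) (fun k => (hpv k).2) (hzh.trans hB.R1) hKX cell n1
    (one_le_pow₀ t1)
  have hKw := n2 Kk Kk0
  set Kw : ℝ := 10 ^ 4 * (D.B.d n ^ (-C2)) ^ 4 * (18 * (Kk * (t ^ 15) ^ 2) /
    (rh D n v / (K n).u.H)) / (rh D n v / (K n).u.H) ^ 2 with hKwd
  have k40 : Kw ≤ D.w 0 n 0 * t ^ 40 := by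
    refine hKw.trans (le_of_eq ?_)
    rw [hKk]; ring
  have t40 : t ^ 40 = D.B.d n ^ (-(40 * e)) := by
    rw [ht, ← Real.rpow_natCast, ← Real.rpow_mul (D.B.pos n).le]; congr 1; push_cast; ring
  have t41 : t ^ 41 = D.B.d n ^ (-(41 * e)) := by
    rw [ht, ← Real.rpow_natCast, ← Real.rpow_mul (D.B.pos n).le]; congr 1; push_cast; ring
  have hσ := hK.σ0 n
  have hσt : (K n).σ * t ^ 41 ≤ 1 := by
    have k1 := mul_le_mul_of_nonneg_right b6 (show 0 ≤ t ^ 41 by positivity)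
    refine k1.trans (le_of_eq ?_)
    rw [t41, ← dpow_add]; simp
  have k100 : 10 ^ 4 * Kw ≤ (K n).u.WY := by
    have k1 : 10 ^ 4 * (D.w 0 n 0 * t ^ 40) ≤ t * (D.w 0 n 0 * t ^ 40) :=
      mul_le_mul_of_nonneg_right (by linarith) (by positivity)
    have k2 : t * (D.w 0 n 0 * t ^ 40) = (K n).u.WY * ((K n).σ * t ^ 41) := by
      rw [← b7]; ring
    have k3 := mul_le_mul_of_nonneg_left hσt hWY.le
    linarith
  have t42 : t ^ 42 = D.B.d n ^ (-(42 * e)) := by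
    rw [ht, ← Real.rpow_natCast, ← Real.rpow_mul (D.B.pos n).le]; congr 1; push_cast; ring
  obtain ⟨r1, r2⟩ := flags_0 (Γ := t) (b5.inv (by linarith)) (by linarith) (hK.kp1 n) hσ hWY hW q1
    q2 (show (K n).u.WY / 200 ≤ |ν| by linarith) (show |ν| ≤ 200 * (K n).u.WY by linarith)
    (fun k => (gfl k).trans hR) k100
  have hCt : D.B.d n ^ (-C2) ≤ D.B.d n ^ (-(42 * e)) := dpow_le D.B n (by linarith)
  refine ⟨fun k => ⟨(hpv k).1.trans hCt, (hpv k).2.trans hCt⟩, fun e0 => ?_,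
    fun k => (r2 k).trans ?_⟩
  · have r1' : (K n).u.WY / 10 ^ 4 ≤ |((K n).Q (mk4 D n 0 x).q).b 0| := r1
    rw [e0, abs_zero] at r1'
    have : 0 < (K n).u.WY / 10 ^ 4 := by positivity
    linarith
  · rw [← t42]
    have k1 : Kw / ((K n).u.WY * (K n).σ) ≤ t ^ 40 := by
      rw [b7, div_le_iff₀ mo0]
      linarith
    have k2 : t ≤ t ^ 40 := le_self_pow₀ t1 (by norm_num)
    have k3 : 10 ^ 8 * t ^ 40 ≤ t ^ 2 * t ^ 40 := by
      refine mul_le_mul_of_nonneg_right ?_ (by positivity)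
      have := pow_le_pow_left₀ (by norm_num : (0 : ℝ) ≤ 10 ^ 6) b10 2
      linarith
    have k4 : t ^ 2 * t ^ 40 = t ^ 42 := by ring
    linarith

end Crest.Agent.R136.Stk464
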