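import Crest.Agent.R136.Fl1_808

/-!
# R136 (U4, PLAN 2, B4): minors of two gradients in the hull frame and in the plank frame (helper140)

`minor_frame` : the strip size of `n × n'` in the hull frame `f` is at most `18 K^3` times the one in
the plank frame `e`, where `⟨e 0, n⟩` is never small.
-/

set_option autoImplicit false
set_option linter.unusedVariables false

namespace Crest.Agent.R136.Mcv140

open Crest.Agent.R136.Sh605
open Crest.Agent.R136.Fl808 (dt_expand abs_dt_le_one)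

/-- minor on the axes `i, j` -/
def mn (f : Fin 3 → V3) (n n' : V3) (i j : Fin 3) : ℝ :=
  dt (f i) n * dt (f j) n' - dt (f i) n' * dt (f j) n

theorem mn_expand {e : Fin 3 → V3} (he : Ortho e) (f : Fin 3 → V3) (n n' : V3) (i j : Fin 3) :
    mn f n n' i j =
      (dt (f i) (e 0) * dt (f j) (e 1) - dt (f i) (e 1) * dt (f j) (e 0)) * mn e n n' 0 1 +
      (dt (f i) (e 0) * dt (f j) (e 2) - dt (f i) (e 2) * dt (f j) (e 0)) * mn e n n' 0 2 +
      (dt (f i) (e 1) * dt (f j) (e 2) - dt (f i) (e 2) * dt (f j) (e 1)) * mn e n n' 1 2 := by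
  unfold mn
  rw [dt_expand he (f i) n, dt_expand he (f j) n, dt_expand he (f i) n', dt_expand he (f j) n']
  ring

theorem plucker (e : Fin 3 → V3) (n n' : V3) :
    dt (e 0) n * mn e n n' 1 2 = dt (e 1) n * mn e n n' 0 2 - dt (e 2) n * mn e n n' 0 1 := by
  unfold mn; ring

/-- **hull frame against plank frame** -/
theorem minor_frame {e f : Fin 3 → V3} (he : Ortho e) (hf : Ortho f) {n n' : V3}
    {w1 w2 Λ K : ℝ} (hw2 : 0 < w2) (hw : w2 ≤ w1) (hK : 1 ≤ K) (hΛ1 : 1 ≤ Λ)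
    (hlw : Λ * w2 ≤ 2 * w1)
    (r01 : |dt (f 0) (e 1)| * w1 ≤ K * w2) (r10 : |dt (f 1) (e 0)| * w1 ≤ K * w2)
    (r12 : |dt (f 1) (e 2)| * w1 ≤ K * w2) (r21 : |dt (f 2) (e 1)| * w1 ≤ K * w2)
    (h0 : 1 ≤ K * |dt (e 0) n|) (h1 : |dt (e 1) n| * w1 ≤ K * w2) (h2 : |dt (e 2) n| ≤ K) :
    |mn f n n' 0 1| * (w1 / Λ) + |mn f n n' 0 2| * w2 ≤
      18 * K ^ 3 * (|mn e n n' 0 1| * (w1 / Λ) + |mn e n n' 0 2| * w2) := by
  have hΛ : 0 < Λ := by linarith
  have hw1 : 0 < w1 := hw2.trans_le hw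
  have hK0 : 0 < K := by linarith
  have o : ∀ i j, |dt (f i) (e j)| ≤ 1 := fun i j => abs_dt_le_one he hf i j
  obtain ⟨s, hs⟩ : ∃ s, s = w2 / w1 := ⟨_, rfl⟩
  have s0 : 0 < s := by rw [hs]; positivity
  have s1 : s ≤ 1 := by rw [hs, div_le_one hw1]; exact hw
  have hsw : s * w1 = w2 := by rw [hs]; field_simp
  have cv : ∀ {x : ℝ}, |x| * w1 ≤ K * w2 → |x| ≤ K * s := by
    intro x hx
    have : |x| * w1 ≤ (K * s) * w1 := by rw [mul_assoc, hsw]; exact hx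
    exact le_of_mul_le_mul_right this hw1
  have q01 := cv r01
  have q10 := cv r10
  have q12 := cv r12
  have q21 := cv r21
  have q1 := cv h1
  obtain ⟨a, ha⟩ : ∃ a, a = |mn e n n' 0 1| := ⟨_, rfl⟩
  obtain ⟨b, hb⟩ : ∃ b, b = |mn e n n' 0 2| := ⟨_, rfl⟩
  obtain ⟨c, hc⟩ : ∃ c, c = |mn e n n' 1 2| := ⟨_, rfl⟩
  have a0 : 0 ≤ a := by rw [ha]; exact abs_nonneg _
  have b0 : 0 ≤ b := by rw [hb]; exact abs_nonneg _
  have c0 : 0 ≤ c := by rw [hc]; exact abs_nonneg _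
  -- the third minor
  have hcc : c ≤ K ^ 2 * (a + s * b) := by
    have e1 : |dt (e 0) n| * c ≤ K * s * b + K * a := by
      rw [hc, ← abs_mul, plucker]
      refine (abs_sub _ _).trans ?_
      rw [abs_mul, abs_mul, ← ha, ← hb]
      exact add_le_add (mul_le_mul_of_nonneg_right q1 b0) (mul_le_mul_of_nonneg_right h2 a0)
    calc c = 1 * c := (one_mul c).symm
      _ ≤ (K * |dt (e 0) n|) * c := mul_le_mul_of_nonneg_right h0 c0
      _ = K * (|dt (e 0) n| * c) := by ring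
      _ ≤ K * (K * s * b + K * a) := mul_le_mul_of_nonneg_left e1 hK0.le
      _ = _ := by ring
  -- coefficients
  have co : ∀ {x y z t : ℝ} {A B : ℝ}, |x * y| ≤ A → |z * t| ≤ B → |x * y - z * t| ≤ A + B :=
    fun hx hz => (abs_sub _ _).trans (add_le_add hx hz)
  have m1 : ∀ {x y A : ℝ}, |x| ≤ 1 → |y| ≤ A → |x * y| ≤ A := by
    intro x y A hx hy
    rw [abs_mul]
    calc |x| * |y| ≤ 1 * |y| := mul_le_mul_of_nonneg_right hx (abs_nonneg _)
      _ ≤ A := by rw [one_mul]; exact hy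
  have m2 : ∀ {x y A : ℝ}, |x| ≤ A → |y| ≤ 1 → |x * y| ≤ A := by
    intro x y A hx hy
    rw [mul_comm]; exact m1 hy hx
  have Ks : 0 < K * s := by positivity
  have K2 : 1 ≤ K ^ 2 := one_le_pow₀ hK
  have tri : ∀ {x y z : ℝ}, |x + y + z| ≤ |x| + |y| + |z| := fun {x y z} =>
    (abs_add_le _ _).trans (add_le_add (abs_add_le _ _) le_rfl)
  have f1 : |mn f n n' 0 1| ≤ 6 * K ^ 2 * (a + s * b) := by
    rw [mn_expand he f n n' 0 1]
    refine tri.trans ?_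
    rw [abs_mul, abs_mul, abs_mul, ← ha, ← hb, ← hc]
    have k1 : |dt (f 0) (e 0) * dt (f 1) (e 1) - dt (f 0) (e 1) * dt (f 1) (e 0)| ≤ 1 + 1 :=
      co (m1 (o 0 0) (o 1 1)) (m1 (o 0 1) (o 1 0))
    have k2 : |dt (f 0) (e 0) * dt (f 1) (e 2) - dt (f 0) (e 2) * dt (f 1) (e 0)| ≤ K * s + K * s :=
      co (m1 (o 0 0) q12) (m1 (o 0 2) q10)
    have k3 : |dt (f 0) (e 1) * dt (f 1) (e 2) - dt (f 0) (e 2) * dt (f 1) (e 1)| ≤ 1 + 1 :=
      co (m1 (o 0 1) (o 1 2)) (m1 (o 0 2) (o 1 1))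
    have t1 := mul_le_mul_of_nonneg_right k1 a0
    have t2 := mul_le_mul_of_nonneg_right k2 b0
    have t3 := mul_le_mul k3 hcc c0 (by norm_num : (0:ℝ) ≤ 1 + 1)
    have u1 : a ≤ K ^ 2 * a := le_mul_of_one_le_left a0 K2
    have u2 : K * (s * b) ≤ K ^ 2 * (s * b) := by
      have : K ≤ K ^ 2 := le_self_pow₀ hK (by norm_num)
      exact mul_le_mul_of_nonneg_right this (by positivity)
    have e1 : (K * s + K * s) * b = 2 * (K * (s * b)) := by ring
    have e2 : (1 + 1) * (K ^ 2 * (a + s * b)) = 2 * (K ^ 2 * a) + 2 * (K ^ 2 * (s * b)) := by ring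
    have e3 : 6 * K ^ 2 * (a + s * b) = 6 * (K ^ 2 * a) + 6 * (K ^ 2 * (s * b)) := by ring
    have e4 : 0 ≤ K ^ 2 * (s * b) := by positivity
    have e5 : 0 ≤ K ^ 2 * a := by positivity
    rw [e1] at t2
    rw [e2] at t3
    rw [e3]
    linarith
  have f2 : |mn f n n' 0 2| ≤ 6 * K ^ 3 * (s * a + b) := by
    rw [mn_expand he f n n' 0 2]
    refine tri.trans ?_
    rw [abs_mul, abs_mul, abs_mul, ← ha, ← hb, ← hc]
    have k1 : |dt (f 0) (e 0) * dt (f 2) (e 1) - dt (f 0) (e 1) * dt (f 2) (e 0)| ≤ K * s + K * s :=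
      co (m1 (o 0 0) q21) (m2 q01 (o 2 0))
    have k2 : |dt (f 0) (e 0) * dt (f 2) (e 2) - dt (f 0) (e 2) * dt (f 2) (e 0)| ≤ 1 + 1 :=
      co (m1 (o 0 0) (o 2 2)) (m1 (o 0 2) (o 2 0))
    have k3 : |dt (f 0) (e 1) * dt (f 2) (e 2) - dt (f 0) (e 2) * dt (f 2) (e 1)| ≤ K * s + K * s :=
      co (m2 q01 (o 2 2)) (m1 (o 0 2) q21)
    have t1 := mul_le_mul_of_nonneg_right k1 a0
    have t2 := mul_le_mul_of_nonneg_right k2 b0
    have t3 := mul_le_mul k3 hcc c0 (by positivity : (0:ℝ) ≤ K * s + K * s)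
    have K3 : 1 ≤ K ^ 3 := one_le_pow₀ hK
    have u1 : K * (s * a) ≤ K ^ 3 * (s * a) := by
      have : K ≤ K ^ 3 := le_self_pow₀ hK (by norm_num)
      exact mul_le_mul_of_nonneg_right this (by positivity)
    have u2 : b ≤ K ^ 3 * b := le_mul_of_one_le_left b0 K3
    have u3 : s * (s * b) ≤ b := by
      have h3 : s * b ≤ b := mul_le_of_le_one_left b0 s1
      exact (mul_le_of_le_one_left (by positivity) s1).trans h3
    have u4 : K ^ 3 * (s * (s * b)) ≤ K ^ 3 * b := mul_le_mul_of_nonneg_left u3 (by positivity)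
    have e1 : (K * s + K * s) * a = 2 * (K * (s * a)) := by ring
    have e2 : (K * s + K * s) * (K ^ 2 * (a + s * b)) = 2 * (K ^ 3 * (s * a)) +
        2 * (K ^ 3 * (s * (s * b))) := by ring
    have e3 : 6 * K ^ 3 * (s * a + b) = 6 * (K ^ 3 * (s * a)) + 6 * (K ^ 3 * b) := by ring
    have e4 : 0 ≤ K ^ 3 * b := by positivity
    have e5 : 0 ≤ K ^ 3 * (s * a) := by positivity
    rw [e1] at t1
    rw [e2] at t3
    rw [e3]
    linarith
  -- units
  have p1 : 0 < w1 / Λ := by positivity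
  have hwΛ : w2 ≤ 2 * (w1 / Λ) := by
    have : w2 = (Λ * w2) / Λ := by field_simp
    rw [this, ← mul_div_assoc]
    exact div_le_div_of_nonneg_right hlw hΛ.le
  rw [← ha, ← hb]
  have g1 : s * b * (w1 / Λ) ≤ b * w2 * (1 / Λ) := by
    refine le_of_eq ?_
    calc s * b * (w1 / Λ) = (s * w1) * b * (1 / Λ) := by ring
      _ = _ := by rw [hsw]; ring
  have hi : 1 / Λ ≤ 1 := by rw [div_le_one hΛ]; exact hΛ1
  have g2 : b * w2 * (1 / Λ) ≤ b * w2 := mul_le_of_le_one_right (by positivity) hi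
  have g3 : s * a * w2 ≤ 2 * (a * (w1 / Λ)) := by
    calc s * a * w2 ≤ 1 * a * w2 := by gcongr
      _ = a * w2 := by ring
      _ ≤ a * (2 * (w1 / Λ)) := mul_le_mul_of_nonneg_left hwΛ a0
      _ = _ := by ring
  have A1 := mul_le_mul_of_nonneg_right f1 p1.le
  have A2 := mul_le_mul_of_nonneg_right f2 hw2.le
  have K23 : K ^ 2 ≤ K ^ 3 := pow_le_pow_right₀ hK (by norm_num)
  have X0 : 0 ≤ a * (w1 / Λ) := by positivity
  have Z0 : 0 ≤ b * w2 := by positivity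
  have A1' : |mn f n n' 0 1| * (w1 / Λ) ≤ 6 * K ^ 3 * (a * (w1 / Λ) + b * w2) := by
    refine A1.trans ?_
    calc 6 * K ^ 2 * (a + s * b) * (w1 / Λ) = 6 * K ^ 2 * (a * (w1 / Λ) + s * b * (w1 / Λ)) := by
          ring
      _ ≤ 6 * K ^ 2 * (a * (w1 / Λ) + b * w2) := by
          have := g1.trans g2
          gcongr
      _ ≤ _ := by
          have : 0 ≤ a * (w1 / Λ) + b * w2 := by positivity
          gcongr
  have A2' : |mn f n n' 0 2| * w2 ≤ 6 * K ^ 3 * (2 * (a * (w1 / Λ)) + b * w2) := by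
    refine A2.trans ?_
    calc 6 * K ^ 3 * (s * a + b) * w2 = 6 * K ^ 3 * (s * a * w2 + b * w2) := by ring
      _ ≤ _ := by gcongr
  have e1 : 6 * K ^ 3 * (a * (w1 / Λ) + b * w2) = 6 * (K ^ 3 * (a * (w1 / Λ))) +
      6 * (K ^ 3 * (b * w2)) := by ring
  have e2 : 6 * K ^ 3 * (2 * (a * (w1 / Λ)) + b * w2) = 12 * (K ^ 3 * (a * (w1 / Λ))) +
      6 * (K ^ 3 * (b * w2)) := by ring
  have e3 : 18 * K ^ 3 * (a * (w1 / Λ) + b * w2) = 18 * (K ^ 3 * (a * (w1 / Λ))) +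
      18 * (K ^ 3 * (b * w2)) := by ring
  have e4 : 0 ≤ K ^ 3 * (b * w2) := by positivity
  rw [e1] at A1'
  rw [e2] at A2'
  rw [e3]
  linarith

end Crest.Agent.R136.Mcv140
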