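import Mathlib
import Crest.Agent.R136.Cap2_102
import Crest.Agent.R136.Fl1_808

/-!
# R136: change of plank frame for the expansion around a line (helper880)

* `pbl`, `pbM`, `Fq_pb` : pull back of `Fq` by a linear map (basis vectors `A 0, A 1, A 2`).
* `Fq_inj`              : `Fq` determines its coefficients.
* `tr`                  : transition matrix between two plank frames, `IsExp.change`.
* `coef_le`             : coefficients of `q'` in the tangent frame `(κ f0, E1, E2)` of another sheet.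
-/

set_option autoImplicit false
set_option linter.unusedVariables false

namespace Crest.Agent.R136.Mdg880

open Crest.Agent.R136.Sh605 (V3 Ln4 dt IsQ Ortho InK InSheet)
open Crest.Agent.R136.Arc880 (abs_mul_le abs_add2 abs_sub2)
open Crest.Agent.R136.Tl102

/-- pull back of a linear form -/
def pbl (A : Fin 3 → V3) (l : V3) : V3 := fun k => dt (A k) l

/-- pull back of a quadratic form -/
def pbM (A : Fin 3 → V3) (N : QF) : QF where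
  yy := N.ev (A 0)
  yu := N.pol (A 0) (A 1)
  yv := N.pol (A 0) (A 2)
  uu := N.ev (A 1)
  uv := N.pol (A 1) (A 2)
  vv := N.ev (A 2)

theorem Fq_pb (A : Fin 3 → V3) (l0 l1 : V3) (N : QF) (ζ : ℝ) (x : V3) :
    Fq (pbl A l0) (pbl A l1) (pbM A N) ζ x =
      Fq l0 l1 N ζ (fun j => x 0 * A 0 j + x 1 * A 1 j + x 2 * A 2 j) := by
  simp only [Fq, bz, dt, QF.ev, QF.pol, pbl, pbM]
  ring

/-- `Fq` determines its coefficients -/
theorem Fq_inj {l0 l1 l0' l1' : V3} {N N' : QF}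
    (h : ∀ ζ x, Fq l0 l1 N ζ x = Fq l0' l1' N' ζ x) : l0 = l0' ∧ l1 = l1' ∧ N = N' := by
  have key : ∀ ζ (x : V3), dt (bz l0 l1 ζ) x = dt (bz l0' l1' ζ) x ∧ N.ev x = N'.ev x := by
    intro ζ x
    have h1 := h ζ x
    have h2 := h ζ (fun k => -(x k))
    have e : ∀ (m0 m1 : V3) (M : QF), Fq m0 m1 M ζ (fun k => -(x k)) =
        -dt (bz m0 m1 ζ) x + M.ev x := by
      intro m0 m1 M; simp only [Fq, dt, QF.ev]; ring
    have e' : ∀ (m0 m1 : V3) (M : QF), Fq m0 m1 M ζ x = dt (bz m0 m1 ζ) x + M.ev x := by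
      intro m0 m1 M; rfl
    rw [e, e] at h2
    rw [e', e'] at h1
    constructor <;> linarith only [h1, h2]
  have b0 : ∀ ζ, l0 0 + ζ * l1 0 = l0' 0 + ζ * l1' 0 := by
    intro ζ
    have := (key ζ ![1, 0, 0]).1
    simpa [dt, bz] using this
  have b1 : ∀ ζ, l0 1 + ζ * l1 1 = l0' 1 + ζ * l1' 1 := by
    intro ζ
    have := (key ζ ![0, 1, 0]).1
    simpa [dt, bz] using this
  have b2 : ∀ ζ, l0 2 + ζ * l1 2 = l0' 2 + ζ * l1' 2 := by
    intro ζ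
    have := (key ζ ![0, 0, 1]).1
    simpa [dt, bz] using this
  refine ⟨?_, ?_, ?_⟩
  · funext k
    fin_cases k
    · have := b0 0; simpa using this
    · have := b1 0; simpa using this
    · have := b2 0; simpa using this
  · funext k
    fin_cases k
    · have h0 := b0 0; have h1 := b0 1; show l1 0 = l1' 0; linarith only [h0, h1]
    · have h0 := b1 0; have h1 := b1 1; show l1 1 = l1' 1; linarith only [h0, h1]
    · have h0 := b2 0; have h1 := b2 1; show l1 2 = l1' 2; linarith only [h0, h1]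
  · have n0 := (key 0 ![1, 0, 0]).2
    have n1 := (key 0 ![0, 1, 0]).2
    have n2 := (key 0 ![0, 0, 1]).2
    have n3 := (key 0 ![1, 1, 0]).2
    have n4 := (key 0 ![1, 0, 1]).2
    have n5 := (key 0 ![0, 1, 1]).2
    simp only [QF.ev, Matrix.cons_val] at n0 n1 n2 n3 n4 n5
    obtain ⟨yy, yu, yv, uu, uv, vv⟩ := N
    obtain ⟨yy', yu', yv', uu', uv', vv'⟩ := N'
    simp only at n0 n1 n2 n3 n4 n5
    congr 1 <;> linarith only [n0, n1, n2, n3, n4, n5]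

/-- transition matrix of two plank frames: `w k • e k = Σ_j tr k j • (w' j • e' j)` -/
noncomputable def tr (e : Fin 3 → V3) (w : V3) (e' : Fin 3 → V3) (w' : V3) : Fin 3 → V3 :=
  fun k j => w k * dt (e k) (e' j) / w' j

theorem tr_spec {e e' : Fin 3 → V3} (he' : Ortho e') {w w' : V3} (hw' : ∀ k, w' k ≠ 0)
    (k i : Fin 3) : w k * e k i = tr e w e' w' k 0 * (w' 0 * e' 0 i) +
      tr e w e' w' k 1 * (w' 1 * e' 1 i) + tr e w e' w' k 2 * (w' 2 * e' 2 i) := by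
  have h0 := he'.col 0 i
  have h1 := he'.col 1 i
  have h2 := he'.col 2 i
  have s : ∀ j, tr e w e' w' k j * (w' j * e' j i) = w k * (dt (e k) (e' j) * e' j i) := by
    intro j
    have := hw' j
    unfold tr
    field_simp
  rw [s 0, s 1, s 2]
  have e3 : e k 0 * (e' 0 0 * e' 0 i + e' 1 0 * e' 1 i + e' 2 0 * e' 2 i) +
      e k 1 * (e' 0 1 * e' 0 i + e' 1 1 * e' 1 i + e' 2 1 * e' 2 i) +
      e k 2 * (e' 0 2 * e' 0 i + e' 1 2 * e' 1 i + e' 2 2 * e' 2 i) = e k i := by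
    rw [h0, h1, h2]
    fin_cases i <;> simp
  simp only [dt]
  linear_combination (-w k) * e3

theorem cmb_tr {e e' : Fin 3 → V3} (he' : Ortho e') {w w' : V3} (hw' : ∀ k, w' k ≠ 0) (x : V3) :
    cmb (fr e w) x =
      cmb (fr e' w') (fun j => x 0 * tr e w e' w' 0 j + x 1 * tr e w e' w' 1 j +
        x 2 * tr e w e' w' 2 j) := by
  funext i
  have k0 := tr_spec he' hw' (e := e) (w := w) 0 i
  have k1 := tr_spec he' hw' (e := e) (w := w) 1 i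
  have k2 := tr_spec he' hw' (e := e) (w := w) 2 i
  simp only [cmb, fr, Pi.smul_apply, smul_eq_mul]
  rw [k0, k1, k2]; ring

/-- **change of frame** -/
theorem IsExp.change {q : ℝ → V3 → ℝ} {e e' : Fin 3 → V3} {w w' : V3} {T : Ln4} {z0 ρ : ℝ}
    {b0 b1 c0 c1 : V3} {G M : QF} (he' : Ortho e') (hw' : ∀ k, w' k ≠ 0) (hw0 : w 0 ≠ 0)
    (h : IsExp q e w T z0 ρ b0 b1 G) (h' : IsExp q e' w' T z0 ρ c0 c1 M) (ζ : ℝ) (x : V3) :
    w 0 * Fq b0 b1 G ζ x = w' 0 * Fq (pbl (tr e w e' w') c0) (pbl (tr e w e' w') c1)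
      (pbM (tr e w e' w') M) ζ x := by
  have h1 := h ζ x
  have h2 := h' ζ (fun j => x 0 * tr e w e' w' 0 j + x 1 * tr e w e' w' 1 j +
        x 2 * tr e w e' w' 2 j)
  rw [← cmb_tr he' hw', h1, ← Fq_pb] at h2
  linarith only [h2]

/-! ### bounds of a pull back -/

theorem pol_le' {N : QF} {v v' : V3} {r P Q B κ : ℝ} (hr : 0 ≤ r) (hB : 0 ≤ B) (hP : 0 ≤ P)
    (hyy : |N.yy| ≤ 1) (hyu : |N.yu| ≤ 5) (hyv : |N.yv| ≤ 5) (huu : |N.uu| ≤ κ) (huv : |N.uv| ≤ κ)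
    (hvv : |N.vv| ≤ κ) (h0 : r * |v 0| ≤ P) (h0' : r * |v' 0| ≤ P) (h0'' : |v' 0| ≤ Q)
    (h1 : |v 1| ≤ B) (h2 : |v 2| ≤ B) (h1' : |v' 1| ≤ B) (h2' : |v' 2| ≤ B) :
    r * |N.pol v v'| ≤ 2 * (P * Q) + 20 * (P * B) + 6 * (r * κ) * (B * B) := by
  have hκ : 0 ≤ κ := (abs_nonneg _).trans huu
  have t2 : |(2 : ℝ)| ≤ 2 := by norm_num
  have e1 : |N.pol v v'| ≤ 2 * 1 * (|v 0| * |v' 0|) + 5 * (|v 0| * B + B * |v' 0|) +
      5 * (|v 0| * B + B * |v' 0|) + (2 * κ * (B * B) + κ * (B * B + B * B) + 2 * κ * (B * B)) := by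
    unfold QF.pol
    exact abs_add2 (abs_add2 (abs_add2 (abs_mul_le (abs_mul_le t2 hyy) (abs_mul_le le_rfl le_rfl))
      (abs_mul_le hyu (abs_add2 (abs_mul_le le_rfl h1') (abs_mul_le h1 le_rfl))))
      (abs_mul_le hyv (abs_add2 (abs_mul_le le_rfl h2') (abs_mul_le h2 le_rfl))))
      (abs_add2 (abs_add2 (abs_mul_le (abs_mul_le t2 huu) (abs_mul_le h1 h1'))
      (abs_mul_le huv (abs_add2 (abs_mul_le h1 h2') (abs_mul_le h2 h1'))))
      (abs_mul_le (abs_mul_le t2 hvv) (abs_mul_le h2 h2')))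
  have e2 := mul_le_mul_of_nonneg_left e1 hr
  refine e2.trans ?_
  have e3 : r * |v 0| * |v' 0| ≤ P * Q := mul_le_mul h0 h0'' (abs_nonneg _) hP
  have e4 : r * |v 0| * B ≤ P * B := mul_le_mul_of_nonneg_right h0 hB
  have e5 : r * |v' 0| * B ≤ P * B := mul_le_mul_of_nonneg_right h0' hB
  nlinarith only [e3, e4, e5]

theorem ev_eq_pol (N : QF) (v : V3) : N.ev v = N.pol v v / 2 := by
  unfold QF.ev QF.pol; ring

/-- uniform bounds for the pull back -/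
theorem pb_le {A : Fin 3 → V3} {c0 c1 : V3} {M : QF} (hM : NrmC c0 c1 M) {r Λ : ℝ} (hr : 0 ≤ r)
    (hΛ : 1 ≤ Λ) (h0 : ∀ k, r * |A k 0| ≤ 5 * Λ) (h0' : ∀ k, |A k 0| ≤ 5 * Λ ^ 2)
    (h1 : ∀ k, |A k 1| ≤ 3 * Λ) (h2 : ∀ k, |A k 2| ≤ 3 * Λ) (hκ : r * kap c0 c1 M ≤ Λ) :
    (∀ k, |r * pbl A (shB0 c0) k| ≤ 500 * Λ ^ 3) ∧ (∀ k, |r * pbl A (shB1 c0 c1) k| ≤ 500 * Λ ^ 3) ∧
      ((pbM A (shG c0 M)).smul r).Le (500 * Λ ^ 3) := by
  obtain ⟨g1, g2, -, -, g3, -, -, -, -⟩ := hM.b1_le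
  obtain ⟨p1, p2, m2, m3, -, -, -⟩ := hM.sh_le
  obtain ⟨m1, -⟩ := hM.G_le
  have k1 : |shB1 c0 c1 1| ≤ kap c0 c1 M := (le_max_left _ _).trans (le_max_left _ _)
  have k2 : |shB1 c0 c1 2| ≤ kap c0 c1 M := (le_max_right _ _).trans (le_max_left _ _)
  have k3 : |(shG c0 M).uu| ≤ kap c0 c1 M :=
    (le_max_left _ _).trans ((le_max_left _ _).trans (le_max_right _ _))
  have k4 : |(shG c0 M).uv| ≤ kap c0 c1 M :=
    (le_max_right _ _).trans ((le_max_left _ _).trans (le_max_right _ _))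
  have k5 : |(shG c0 M).vv| ≤ kap c0 c1 M := (le_max_right _ _).trans (le_max_right _ _)
  have hk0 := kap_nonneg c0 c1 M
  generalize kap c0 c1 M = κ at *
  have L2 : Λ ≤ Λ ^ 2 := by nlinarith only [hΛ]
  have L3 : Λ ^ 2 ≤ Λ ^ 3 := by nlinarith only [hΛ, sq_nonneg Λ]
  have L1 : 1 ≤ Λ ^ 3 := one_le_pow₀ hΛ
  have hL : 0 ≤ 3 * Λ := by linarith only [hΛ]
  have hL5 : 0 ≤ 5 * Λ := by linarith only [hΛ]
  have polb : ∀ j k, r * |(shG c0 M).pol (A j) (A k)| ≤ 500 * Λ ^ 3 := by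
    intro j k
    have m1' : |(shG c0 M).yy| ≤ 1 := m1
    refine (pol_le' (κ := κ) hr hL hL5 m1' m2 m3 k3 k4 k5 (h0 j) (h0 k) (h0' k) (h1 j) (h2 j) (h1 k)
      (h2 k)).trans ?_
    have e1 : 6 * (r * κ) * (3 * Λ * (3 * Λ)) ≤ 6 * Λ * (3 * Λ * (3 * Λ)) := by
      refine mul_le_mul_of_nonneg_right ?_ (mul_nonneg hL hL)
      linarith only [hκ]
    nlinarith only [e1, L2, L3, L1]
  have evb : ∀ k, r * |(shG c0 M).ev (A k)| ≤ 500 * Λ ^ 3 := by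
    intro k
    rw [ev_eq_pol, abs_div, abs_two]
    have := polb k k
    have h3 : 0 ≤ r * |(shG c0 M).pol (A k) (A k)| := mul_nonneg hr (abs_nonneg _)
    have e1 : r * (|(shG c0 M).pol (A k) (A k)| / 2) = r * |(shG c0 M).pol (A k) (A k)| / 2 := by
      ring
    rw [e1]; linarith only [this, h3]
  refine ⟨?_, ?_, ?_⟩
  · intro k
    have e1 : r * pbl A (shB0 c0) k = c0 0 * (r * A k 0) := by
      simp only [pbl, dt, shB0, Matrix.cons_val]; ring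
    rw [e1, abs_mul, abs_of_nonneg (by linarith only [g1] : 0 ≤ c0 0), abs_mul, abs_of_nonneg hr]
    have e2 := h0 k
    have e3 : 0 ≤ r * |A k 0| := mul_nonneg hr (abs_nonneg _)
    nlinarith only [e2, e3, g2, L2, L3, hΛ]
  · intro k
    have e1 : r * pbl A (shB1 c0 c1) k = r * A k 0 * c1 0 + (r * shB1 c0 c1 1) * A k 1 +
        (r * shB1 c0 c1 2) * A k 2 := by
      have : shB1 c0 c1 0 = c1 0 := rfl
      simp only [pbl, dt, this]; ring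
    have q1 : |r * A k 0| ≤ 5 * Λ := by rw [abs_mul, abs_of_nonneg hr]; exact h0 k
    have q2 : |r * shB1 c0 c1 1| ≤ Λ := by
      rw [abs_mul, abs_of_nonneg hr]; exact (mul_le_mul_of_nonneg_left k1 hr).trans hκ
    have q3 : |r * shB1 c0 c1 2| ≤ Λ := by
      rw [abs_mul, abs_of_nonneg hr]; exact (mul_le_mul_of_nonneg_left k2 hr).trans hκ
    rw [e1]
    refine (abs_add2 (abs_add2 (abs_mul_le q1 g3) (abs_mul_le q2 (h1 k)))
      (abs_mul_le q3 (h2 k))).trans ?_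
    nlinarith only [L2, L3, hΛ]
  · have ab : ∀ x : ℝ, |r * x| = r * |x| := fun x => by rw [abs_mul, abs_of_nonneg hr]
    refine ⟨?_, ?_, ?_, ?_, ?_, ?_⟩
    · change |r * (shG c0 M).ev (A 0)| ≤ _; rw [ab]; exact evb 0
    · change |r * (shG c0 M).pol (A 0) (A 1)| ≤ _; rw [ab]; exact polb 0 1
    · change |r * (shG c0 M).pol (A 0) (A 2)| ≤ _; rw [ab]; exact polb 0 2
    · change |r * (shG c0 M).ev (A 1)| ≤ _; rw [ab]; exact evb 1
    · change |r * (shG c0 M).pol (A 1) (A 2)| ≤ _; rw [ab]; exact polb 1 2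
    · change |r * (shG c0 M).ev (A 2)| ≤ _; rw [ab]; exact evb 2

/-! ### coefficients of `q'` in the tangent frame of another sheet -/

/-- tangent coordinates w.r.t. the second sheet of `κ f0, E1, E2` -/
noncomputable def tA (e : Fin 3 → V3) (w : V3) (e' : Fin 3 → V3) (w' : V3) (κ s₁ s₂ : ℝ) (c0 : V3) :
    Fin 3 → V3 :=
  ![![κ * yc c0 (tr e w e' w' 0), κ * tr e w e' w' 0 1, κ * tr e w e' w' 0 2],
    ![yc c0 (tr e w e' w' 1) - s₁ * yc c0 (tr e w e' w' 0),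
      tr e w e' w' 1 1 - s₁ * tr e w e' w' 0 1, tr e w e' w' 1 2 - s₁ * tr e w e' w' 0 2],
    ![yc c0 (tr e w e' w' 2) - s₂ * yc c0 (tr e w e' w' 0),
      tr e w e' w' 2 1 - s₂ * tr e w e' w' 0 1, tr e w e' w' 2 2 - s₂ * tr e w e' w' 0 2]]

theorem coef_eq {q : ℝ → V3 → ℝ} {e e' : Fin 3 → V3} {w w' : V3} {T : Ln4} {z0 ρ : ℝ}
    {b0' b1' c0 c1 : V3} {G' M : QF} (he' : Ortho e') (hw' : ∀ k, w' k ≠ 0) (hw0 : w 0 ≠ 0)
    (hc : c0 0 ≠ 0) {κ s₁ s₂ : ℝ} (hκ : κ ≠ 0) (h : IsExp q e w T z0 ρ b0' b1' G')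
    (h' : IsExp q e' w' T z0 ρ c0 c1 M) :
    (∀ k, gl κ s₁ s₂ b0' k = w' 0 / (w 0 * κ) * pbl (tA e w e' w' κ s₁ s₂ c0) (shB0 c0) k) ∧
      (∀ k, gl κ s₁ s₂ b1' k = w' 0 / (w 0 * κ) * pbl (tA e w e' w' κ s₁ s₂ c0) (shB1 c0 c1) k) ∧
      gM κ s₁ s₂ G' = (pbM (tA e w e' w' κ s₁ s₂ c0) (shG c0 M)).smul (w' 0 / (w 0 * κ)) := by
  set A := tA e w e' w' κ s₁ s₂ c0 with hA
  set r := w' 0 / (w 0 * κ) with hr
  have key : ∀ ζ x, Fq (gl κ s₁ s₂ b0') (gl κ s₁ s₂ b1') (gM κ s₁ s₂ G') ζ x =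
      Fq (fun k => r * pbl A (shB0 c0) k) (fun k => r * pbl A (shB1 c0 c1) k)
        ((pbM A (shG c0 M)).smul r) ζ x := by
    intro ζ x
    rw [Fq_smul, Fq_pb]
    have hx : x = ![x 0, x 1, x 2] := by
      funext i; fin_cases i <;> rfl
    have e1 := IsExp.change he' hw' hw0 h h' ζ ![κ * x 0 - s₁ * x 1 - s₂ * x 2, x 1, x 2]
    rw [Fq_g hκ, ← hx, Fq_pb] at e1
    set X : V3 := fun j => (![κ * x 0 - s₁ * x 1 - s₂ * x 2, x 1, x 2] : V3) 0 * tr e w e' w' 0 j +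
      (![κ * x 0 - s₁ * x 1 - s₂ * x 2, x 1, x 2] : V3) 1 * tr e w e' w' 1 j +
      (![κ * x 0 - s₁ * x 1 - s₂ * x 2, x 1, x 2] : V3) 2 * tr e w e' w' 2 j with hX
    have e2 : Fq c0 c1 M ζ X = Fq (shB0 c0) (shB1 c0 c1) (shG c0 M) ζ ![yc c0 X, X 1, X 2] := by
      rw [← Fq_unsh hc, unsh_yc]
    have e3 : (![yc c0 X, X 1, X 2] : V3) = fun j => x 0 * A 0 j + x 1 * A 1 j + x 2 * A 2 j := by
      funext i
      fin_cases i
      · simp only [hA, tA, yc, hX, Matrix.cons_val, Fin.zero_eta]; ring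
      · simp only [hA, tA, hX, Matrix.cons_val, Fin.mk_one]; ring
      · simp only [hA, tA, hX, Matrix.cons_val, Fin.reduceFinMk]; ring
    rw [e2, e3] at e1
    rw [hr, div_mul_eq_mul_div, eq_div_iff (mul_ne_zero hw0 hκ), ← e1]
    ring
  obtain ⟨k0, k1, k2⟩ := Fq_inj key
  exact ⟨fun k => congrFun k0 k, fun k => congrFun k1 k, k2⟩

/-- bounds of the transition vectors -/
theorem tA_le {e e' : Fin 3 → V3} {w w' : V3} {c0 c1 b0' : V3} {M : QF} (he : Ortho e)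
    (he' : Ortho e') (hM : NrmC c0 c1 M) (hw : ∀ k, 0 < w k) (hw' : ∀ k, 0 < w' k)
    (h02 : w 0 ≤ w 2) (h21 : w 2 ≤ w 1) (h02' : w' 0 ≤ w' 2) (h21' : w' 2 ≤ w' 1) {κ s₁ s₂ Λ : ℝ}
    (hκ : 0 < κ) (hs1 : |s₁| ≤ 2) (hs2 : |s₂| ≤ 2) (hΛ : 1 ≤ Λ) (hw1 : w 1 ≤ Λ * w' 1)
    (hw2 : w 2 ≤ Λ * w' 2) (hbase : w 1 * |dt (e 1) (e' 2)| ≤ Λ * w' 2)
    (hwκ : w 0 * κ ≤ Λ * w' 0)
    (hgl : ∀ k, gl κ s₁ s₂ b0' k = w' 0 / (w 0 * κ) * pbl (tA e w e' w' κ s₁ s₂ c0) (shB0 c0) k)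
    (ht1 : |b0' 1 - s₁ * b0' 0| ≤ Λ * κ) (ht2 : |b0' 2 - s₂ * b0' 0| ≤ Λ * κ) :
    (∀ k, w' 0 / (w 0 * κ) * |tA e w e' w' κ s₁ s₂ c0 k 0| ≤ 5 * Λ) ∧
      (w' 0 / (w 0 * κ) * |tA e w e' w' κ s₁ s₂ c0 0 0| ≤ 5) ∧
      (∀ k, |tA e w e' w' κ s₁ s₂ c0 k 0| ≤ 5 * Λ ^ 2) ∧
      (∀ k, |tA e w e' w' κ s₁ s₂ c0 k 1| ≤ 3 * Λ) ∧
      (∀ k, |tA e w e' w' κ s₁ s₂ c0 k 2| ≤ 3 * Λ) := by
  obtain ⟨g1, g2, -, -, -, -, -, t1, t2⟩ := hM.b1_le
  have cp : 0 < c0 0 := by linarith only [g1]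
  have hW : 0 < w 0 * κ := mul_pos (hw 0) hκ
  have hr : 0 < w' 0 / (w 0 * κ) := div_pos (hw' 0) hW
  have hone : ∀ i j, |dt (e i) (e' j)| ≤ 1 := fun i j =>
    Fl808.abs_dt_le_one he' he i j
  -- entries of the matrix
  have tr_abs : ∀ k j, |tr e w e' w' k j| = w k * |dt (e k) (e' j)| / w' j := by
    intro k j
    unfold tr
    rw [abs_div, abs_mul, abs_of_pos (hw k), abs_of_pos (hw' j)]
  have tr_le : ∀ k j, |tr e w e' w' k j| ≤ w k / w' j := by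
    intro k j
    rw [tr_abs]
    refine div_le_div_of_nonneg_right ?_ (hw' j).le
    have := hone k j
    nlinarith only [this, hw k]
  have L1 : Λ ≤ Λ ^ 2 := by nlinarith only [hΛ]
  -- lateral entries
  have a01 : |tr e w e' w' 0 1| ≤ Λ := by
    refine (tr_le 0 1).trans ?_
    rw [div_le_iff₀ (hw' 1)]; linarith only [h02, h21, hw1]
  have a02 : |tr e w e' w' 0 2| ≤ Λ := by
    refine (tr_le 0 2).trans ?_
    rw [div_le_iff₀ (hw' 2)]; linarith only [h02, hw2]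
  have a11 : |tr e w e' w' 1 1| ≤ Λ := by
    refine (tr_le 1 1).trans ?_
    rw [div_le_iff₀ (hw' 1)]; linarith only [hw1]
  have a21 : |tr e w e' w' 2 1| ≤ Λ := by
    refine (tr_le 2 1).trans ?_
    rw [div_le_iff₀ (hw' 1)]; linarith only [hw1, h21]
  have a22 : |tr e w e' w' 2 2| ≤ Λ := by
    refine (tr_le 2 2).trans ?_
    rw [div_le_iff₀ (hw' 2)]; linarith only [hw2]
  have a12 : |tr e w e' w' 1 2| ≤ Λ := by
    rw [tr_abs, div_le_iff₀ (hw' 2)]; exact hbase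
  -- first row, `κ`-scaled
  have c0j : ∀ j, j = 1 ∨ j = 2 → |κ * tr e w e' w' 0 j| ≤ Λ := by
    intro j hj
    rw [abs_mul, abs_of_pos hκ]
    have h1 : κ * |tr e w e' w' 0 j| ≤ κ * (w 0 / w' j) := mul_le_mul_of_nonneg_left (tr_le 0 j) hκ.le
    refine h1.trans ?_
    rw [← mul_div_assoc, div_le_iff₀ (hw' j)]
    have h2 : w' 0 ≤ w' j := by rcases hj with rfl | rfl <;> linarith only [h02', h21']
    nlinarith only [hwκ, h2, hΛ]
  have r0j : ∀ j, w' 0 / (w 0 * κ) * |κ * tr e w e' w' 0 j| ≤ w' 0 / w' j := by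
    intro j
    rw [abs_mul, abs_of_pos hκ]
    have h1 : w' 0 / (w 0 * κ) * (κ * |tr e w e' w' 0 j|) ≤
        w' 0 / (w 0 * κ) * (κ * (w 0 / w' j)) :=
      mul_le_mul_of_nonneg_left (mul_le_mul_of_nonneg_left (tr_le 0 j) hκ.le) hr.le
    refine h1.trans (le_of_eq ?_)
    have := (hw 0).ne'
    have := (hw' j).ne'
    field_simp
  have r01 : w' 0 / (w 0 * κ) * |κ * tr e w e' w' 0 1| ≤ 1 := by
    refine (r0j 1).trans ?_
    rw [div_le_one (hw' 1)]; linarith only [h02', h21']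
  have r02 : w' 0 / (w 0 * κ) * |κ * tr e w e' w' 0 2| ≤ 1 := by
    refine (r0j 2).trans ?_
    rw [div_le_one (hw' 2)]; exact h02'
  have r00 : w' 0 / (w 0 * κ) * |κ * tr e w e' w' 0 0| ≤ 1 := by
    refine (r0j 0).trans ?_
    rw [div_self (hw' 0).ne']
  have R00 : w' 0 / (w 0 * κ) * |tA e w e' w' κ s₁ s₂ c0 0 0| ≤ 5 := by
    have e1 : tA e w e' w' κ s₁ s₂ c0 0 0 = κ * tr e w e' w' 0 0 +
        c0 1 / c0 0 * (κ * tr e w e' w' 0 1) + c0 2 / c0 0 * (κ * tr e w e' w' 0 2) := by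
      change κ * yc c0 (tr e w e' w' 0) = _
      unfold yc; ring
    rw [e1]
    have e2 : |κ * tr e w e' w' 0 0 + c0 1 / c0 0 * (κ * tr e w e' w' 0 1) +
        c0 2 / c0 0 * (κ * tr e w e' w' 0 2)| ≤ |κ * tr e w e' w' 0 0| +
        2 * |κ * tr e w e' w' 0 1| + 2 * |κ * tr e w e' w' 0 2| :=
      abs_add2 (abs_add2 le_rfl (abs_mul_le t1 le_rfl)) (abs_mul_le t2 le_rfl)
    have e3 := mul_le_mul_of_nonneg_left e2 hr.le
    refine e3.trans ?_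
    nlinarith only [r00, r01, r02]
  -- the tilt
  have Rk : ∀ k, |gl κ s₁ s₂ b0' k| ≤ Λ →
      w' 0 / (w 0 * κ) * |tA e w e' w' κ s₁ s₂ c0 k 0| ≤ 2 * Λ := by
    intro k hk
    rw [hgl k] at hk
    have e1 : pbl (tA e w e' w' κ s₁ s₂ c0) (shB0 c0) k =
        c0 0 * tA e w e' w' κ s₁ s₂ c0 k 0 := by
      simp only [pbl, dt, shB0, Matrix.cons_val]; ring
    rw [e1, abs_mul, abs_of_pos hr, abs_mul, abs_of_pos cp] at hk
    have h3 : 0 ≤ w' 0 / (w 0 * κ) * |tA e w e' w' κ s₁ s₂ c0 k 0| :=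
      mul_nonneg hr.le (abs_nonneg _)
    nlinarith only [hk, h3, g1]
  have g1' : |gl κ s₁ s₂ b0' 1| ≤ Λ := by
    change |(b0' 1 - s₁ * b0' 0) / κ| ≤ Λ
    rw [abs_div, abs_of_pos hκ, div_le_iff₀ hκ]; exact ht1
  have g2' : |gl κ s₁ s₂ b0' 2| ≤ Λ := by
    change |(b0' 2 - s₂ * b0' 0) / κ| ≤ Λ
    rw [abs_div, abs_of_pos hκ, div_le_iff₀ hκ]; exact ht2
  have Rall : ∀ k, w' 0 / (w 0 * κ) * |tA e w e' w' κ s₁ s₂ c0 k 0| ≤ 5 * Λ := by
    intro k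
    fin_cases k
    · exact R00.trans (by linarith only [hΛ])
    · exact (Rk 1 g1').trans (by linarith only [hΛ])
    · exact (Rk 2 g2').trans (by linarith only [hΛ])
  refine ⟨Rall, R00, ?_, ?_, ?_⟩
  · intro k
    have h3 := Rall k
    rw [div_mul_eq_mul_div, div_le_iff₀ hW] at h3
    have h4 : w' 0 * |tA e w e' w' κ s₁ s₂ c0 k 0| ≤ w' 0 * (5 * Λ ^ 2) := by
      nlinarith only [h3, hwκ, hΛ]
    exact le_of_mul_le_mul_left h4 (hw' 0)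
  · intro k
    fin_cases k
    · exact (c0j 1 (Or.inl rfl)).trans (by linarith only [hΛ])
    · change |tr e w e' w' 1 1 - s₁ * tr e w e' w' 0 1| ≤ 3 * Λ
      have := abs_sub2 a11 (abs_mul_le hs1 a01)
      linarith only [this]
    · change |tr e w e' w' 2 1 - s₂ * tr e w e' w' 0 1| ≤ 3 * Λ
      have := abs_sub2 a21 (abs_mul_le hs2 a01)
      linarith only [this]
  · intro k
    fin_cases k
    · exact (c0j 2 (Or.inr rfl)).trans (by linarith only [hΛ])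
    · change |tr e w e' w' 1 2 - s₁ * tr e w e' w' 0 2| ≤ 3 * Λ
      have := abs_sub2 a12 (abs_mul_le hs1 a02)
      linarith only [this]
    · change |tr e w e' w' 2 2 - s₂ * tr e w e' w' 0 2| ≤ 3 * Λ
      have := abs_sub2 a22 (abs_mul_le hs2 a02)
      linarith only [this]

theorem gl_comb (κ s₁ s₂ m : ℝ) (l' l : V3) (k : Fin 3) :
    gl κ s₁ s₂ (fun k => l' k - m * l k) k = gl κ s₁ s₂ l' k - m * gl κ s₁ s₂ l k := by
  fin_cases k
  · rfl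
  · change (l' 1 - m * l 1 - s₁ * (l' 0 - m * l 0)) / κ =
      (l' 1 - s₁ * l' 0) / κ - m * ((l 1 - s₁ * l 0) / κ)
    ring
  · change (l' 2 - m * l 2 - s₂ * (l' 0 - m * l 0)) / κ =
      (l' 2 - s₂ * l' 0) / κ - m * ((l 2 - s₂ * l 0) / κ)
    ring

theorem gM_comb (κ s₁ s₂ m : ℝ) (M' M : QF) :
    gM κ s₁ s₂ (QF.comb m M' M) = QF.comb m (gM κ s₁ s₂ M') (gM κ s₁ s₂ M) := by
  simp only [gM, QF.comb, QF.mk.injEq]
  refine ⟨?_, ?_, ?_, ?_, ?_, ?_⟩ <;> ring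

/-- the sheet itself in its scaled tangent coordinates -/
theorem own_le {b0 b1 : V3} {G : QF} (N : NrmC b0 b1 G) {κ : ℝ} (hκ0 : 0 < κ)
    (hκ : kap b0 b1 G ≤ κ) (hκ1 : κ ≤ 13) :
    (∀ k, |gl κ (b0 1 / b0 0) (b0 2 / b0 0) b0 k| ≤ 13) ∧
      (∀ k, |gl κ (b0 1 / b0 0) (b0 2 / b0 0) b1 k| ≤ 13) ∧
      (gM κ (b0 1 / b0 0) (b0 2 / b0 0) G).Le 13 := by
  obtain ⟨g1, g2, -, -, g3, -, -, -, -⟩ := N.b1_le
  obtain ⟨-, -, m2, m3, -, -, -⟩ := N.sh_le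
  obtain ⟨m1, -⟩ := N.G_le
  have hb : b0 0 ≠ 0 := ne_of_gt (by linarith only [g1])
  have k1 : |shB1 b0 b1 1| ≤ κ := ((le_max_left _ _).trans (le_max_left _ _)).trans hκ
  have k2 : |shB1 b0 b1 2| ≤ κ := ((le_max_right _ _).trans (le_max_left _ _)).trans hκ
  have k3 : |(shG b0 G).uu| ≤ κ :=
    ((le_max_left _ _).trans ((le_max_left _ _).trans (le_max_right _ _))).trans hκ
  have k4 : |(shG b0 G).uv| ≤ κ :=
    ((le_max_right _ _).trans ((le_max_left _ _).trans (le_max_right _ _))).trans hκ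
  have k5 : |(shG b0 G).vv| ≤ κ := ((le_max_right _ _).trans (le_max_right _ _)).trans hκ
  have d : ∀ {x : ℝ}, |x| ≤ κ → |x / κ| ≤ 13 := by
    intro x hx
    rw [abs_div, abs_of_pos hκ0, div_le_iff₀ hκ0]; linarith only [hx, hκ0]
  refine ⟨?_, ?_, ?_, ?_, ?_, ?_, ?_, ?_⟩
  · intro k
    fin_cases k
    · change |b0 0| ≤ 13
      rw [abs_of_pos (by linarith only [g1])]; linarith only [g2]
    · change |(b0 1 - b0 1 / b0 0 * b0 0) / κ| ≤ 13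
      rw [div_mul_cancel₀ _ hb, sub_self, zero_div, abs_zero]; norm_num
    · change |(b0 2 - b0 2 / b0 0 * b0 0) / κ| ≤ 13
      rw [div_mul_cancel₀ _ hb, sub_self, zero_div, abs_zero]; norm_num
  · intro k
    fin_cases k
    · change |b1 0| ≤ 13
      linarith only [g3]
    · exact d k1
    · exact d k2
  · change |κ * G.yy| ≤ 13
    have := abs_mul_le (abs_le.2 ⟨by linarith only [hκ0], hκ1⟩ : |κ| ≤ 13) m1
    linarith only [this]
  · exact le_trans m2 (by norm_num)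
  · exact le_trans m3 (by norm_num)
  · exact d k3
  · exact d k4
  · exact d k5

/-- **coefficients of `ω = q' - m q` in the tangent frame of `S`, from the normal tilt, the base tilt
and the curvature extents** -/
theorem coef_of_tilt {q' : ℝ → V3 → ℝ} {e e' : Fin 3 → V3} {w w' : V3} {T : Ln4} {z0 ρ : ℝ}
    {b0 b1 b0' b1' c0 c1 : V3} {G G' M : QF} (he : Ortho e) (he' : Ortho e') (N : NrmC b0 b1 G)
    (hM : NrmC c0 c1 M) (hw : ∀ k, 0 < w k) (hw' : ∀ k, 0 < w' k) (h02 : w 0 ≤ w 2)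
    (h21 : w 2 ≤ w 1) (h02' : w' 0 ≤ w' 2) (h21' : w' 2 ≤ w' 1)
    (hE' : IsExp q' e w T z0 ρ b0' b1' G') (hF : IsExp q' e' w' T z0 ρ c0 c1 M) {κ Λ : ℝ}
    (hκ0 : 0 < κ) (hκ : kap b0 b1 G ≤ κ) (hκ1 : κ ≤ 13) (hΛ : 1 ≤ Λ) (hw1 : w 1 ≤ Λ * w' 1)
    (hw2 : w 2 ≤ Λ * w' 2) (hbase : w 1 * |dt (e 1) (e' 2)| ≤ Λ * w' 2)
    (hwκ : w 0 * κ ≤ Λ * w' 0) (hκ' : w' 0 * kap c0 c1 M ≤ Λ * (w 0 * κ))
    (ht1 : |b0' 1 - b0 1 / b0 0 * b0' 0| ≤ Λ * κ) (ht2 : |b0' 2 - b0 2 / b0 0 * b0' 0| ≤ Λ * κ) :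
    |b0' 0 / b0 0| ≤ 20 ∧
      (∀ k, |gl κ (b0 1 / b0 0) (b0 2 / b0 0) (fun k => b0' k - b0' 0 / b0 0 * b0 k) k| ≤
        1000 * Λ ^ 3) ∧
      (∀ k, |gl κ (b0 1 / b0 0) (b0 2 / b0 0) (fun k => b1' k - b0' 0 / b0 0 * b1 k) k| ≤
        1000 * Λ ^ 3) ∧
      (gM κ (b0 1 / b0 0) (b0 2 / b0 0) (QF.comb (b0' 0 / b0 0) G' G)).Le (1000 * Λ ^ 3) := by
  obtain ⟨g1, g2, -, -, -, -, -, s1, s2⟩ := N.b1_le
  obtain ⟨c1', c2', -⟩ := hM.b1_le
  have hc : c0 0 ≠ 0 := ne_of_gt (by linarith only [c1'])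
  have hwn' : ∀ k, w' k ≠ 0 := fun k => (hw' k).ne'
  have hr : 0 < w' 0 / (w 0 * κ) := div_pos (hw' 0) (mul_pos (hw 0) hκ0)
  obtain ⟨q0, q1, q2⟩ := coef_eq he' hwn' (hw 0).ne' hc (s₁ := b0 1 / b0 0) (s₂ := b0 2 / b0 0)
    hκ0.ne' hE' hF
  obtain ⟨A0, A00, A0', A1, A2⟩ := tA_le he he' hM hw hw' h02 h21 h02' h21' hκ0 s1 s2 hΛ hw1 hw2
    hbase hwκ q0 ht1 ht2
  have hk' : w' 0 / (w 0 * κ) * kap c0 c1 M ≤ Λ := by
    rw [div_mul_eq_mul_div, div_le_iff₀ (mul_pos (hw 0) hκ0)]; exact hκ'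
  obtain ⟨P0, P1, P2⟩ := pb_le hM hr.le hΛ A0 A0' A1 A2 hk'
  obtain ⟨O0, O1, O2⟩ := own_le N hκ0 hκ hκ1
  -- the multiplier
  have hb0' : |b0' 0| ≤ 10 := by
    have e1 := q0 0
    have e2 : pbl (tA e w e' w' κ (b0 1 / b0 0) (b0 2 / b0 0) c0) (shB0 c0) 0 =
        c0 0 * tA e w e' w' κ (b0 1 / b0 0) (b0 2 / b0 0) c0 0 0 := by
      simp only [pbl, dt, shB0, Matrix.cons_val]; ring
    have e3 : gl κ (b0 1 / b0 0) (b0 2 / b0 0) b0' 0 = b0' 0 := rfl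
    rw [e2, e3] at e1
    rw [e1, abs_mul, abs_of_pos hr, abs_mul, abs_of_nonneg (by linarith only [c1'] : 0 ≤ c0 0)]
    have h3 : 0 ≤ w' 0 / (w 0 * κ) * |tA e w e' w' κ (b0 1 / b0 0) (b0 2 / b0 0) c0 0 0| :=
      mul_nonneg hr.le (abs_nonneg _)
    nlinarith only [A00, h3, c2', c1']
  have hm : |b0' 0 / b0 0| ≤ 20 := by
    rw [abs_div, abs_of_pos (by linarith only [g1] : 0 < b0 0),
      div_le_iff₀ (by linarith only [g1])]
    linarith only [hb0', g1]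
  have L3 : 1 ≤ Λ ^ 3 := one_le_pow₀ hΛ
  refine ⟨hm, ?_, ?_, ?_⟩
  · intro k
    rw [gl_comb, q0 k]
    have := abs_sub2 (P0 k) (abs_mul_le hm (O0 k))
    linarith only [this, L3]
  · intro k
    rw [gl_comb, q1 k]
    have := abs_sub2 (P1 k) (abs_mul_le hm (O1 k))
    linarith only [this, L3]
  · rw [gM_comb, q2]
    obtain ⟨a1, a2, a3, a4, a5, a6⟩ := P2
    obtain ⟨o1, o2, o3, o4, o5, o6⟩ := O2
    refine ⟨?_, ?_, ?_, ?_, ?_, ?_⟩
    · have := abs_sub2 a1 (abs_mul_le hm o1); exact this.trans (by linarith only [L3])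
    · have := abs_sub2 a2 (abs_mul_le hm o2); exact this.trans (by linarith only [L3])
    · have := abs_sub2 a3 (abs_mul_le hm o3); exact this.trans (by linarith only [L3])
    · have := abs_sub2 a4 (abs_mul_le hm o4); exact this.trans (by linarith only [L3])
    · have := abs_sub2 a5 (abs_mul_le hm o5); exact this.trans (by linarith only [L3])
    · have := abs_sub2 a6 (abs_mul_le hm o6); exact this.trans (by linarith only [L3])

end Crest.Agent.R136.Mdg880
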