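import Mathlib
import Crest.Agent.R136.Mdg1_880
import Crest.Agent.R136.Mdr1_535
import Crest.Agent.R136.Fl5_808

/-!
# R136: normal tilt of two plank frames and the gradient of `q'` on the tangent plane of `S` (helper880)

* `Tl.normal` : `Tl e e' a w1 w2 lam alp` bounds `<e' 0, e 1>`, `<e' 0, e 2>`.
* `grad_tilt` : `w 0 |b0' k - s_k b0' 0| ≤ 30 (|<f' 0, f 1>| w 1 + |<f' 0, f 2>| w 2)`, `f = pfr q ..`,
  `f' = pfr q' ..`.
-/

set_option autoImplicit false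
set_option linter.unusedVariables false

namespace Crest.Agent.R136.Mdg880

open Crest.Agent.R136.Sh605
open Crest.Agent.R136.Arc880 (abs_mul_le)
open Crest.Agent.R136.Tl102 Crest.Agent.R136.Mdr535
open Crest.Agent.R136.Fl808 (InB dt_expand ortho_trans abs_dt_le_one minor_trans Tl)

/-- the other two cofactors -/
theorem minor_one {e e' : Fin 3 → V3} (h : Ortho e) (h' : Ortho e') :
    |dt (e' 0) (e 1)| ≤ |dt (e' 1) (e 0)| * |dt (e' 2) (e 2)| +
      |dt (e' 1) (e 2)| * |dt (e' 2) (e 0)| := by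
  have h1 := minor_trans h' h (i := 0) (j := 2) (k := 1) (by decide) (by decide) (by decide)
  rw [dt_comm (e 1), dt_comm (e 0), dt_comm (e 2), dt_comm (e 0), dt_comm (e 2)] at h1
  exact h1.trans (le_of_eq (by ring))

theorem minor_two {e e' : Fin 3 → V3} (h : Ortho e) (h' : Ortho e') :
    |dt (e' 0) (e 2)| ≤ |dt (e' 1) (e 0)| * |dt (e' 2) (e 1)| +
      |dt (e' 1) (e 1)| * |dt (e' 2) (e 0)| := by
  have h1 := minor_trans h' h (i := 0) (j := 1) (k := 2) (by decide) (by decide) (by decide)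
  rw [dt_comm (e 2), dt_comm (e 0), dt_comm (e 1), dt_comm (e 0), dt_comm (e 1)] at h1
  exact h1.trans (le_of_eq (by ring))

/-- **the normal directions** of two boxes with bounded tilts -/
theorem Tl_normal {e e' : Fin 3 → V3} {a w1 w2 lam alp : ℝ} (h : Tl e e' a w1 w2 lam alp)
    (he : Ortho e) (he' : Ortho e') (hw2 : 0 ≤ w2) (hw : w2 ≤ w1) (hlam : 1 ≤ lam) (halp : 0 ≤ alp) :
    alp * (|dt (e' 0) (e 1)| * w1) ≤ 3 * a ∧ alp * (|dt (e' 0) (e 2)| * w2) ≤ 2 * a := by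
  have h10 := h.h10
  have h20 := h.h20
  have h12 := h.h12
  have m1 := minor_one he he'
  have m2 := minor_two he he'
  have o22 := abs_dt_le_one he he' 2 2
  have o21 := abs_dt_le_one he he' 2 1
  have o11 := abs_dt_le_one he he' 1 1
  have p10 := abs_nonneg (dt (e' 1) (e 0))
  have p20 := abs_nonneg (dt (e' 2) (e 0))
  have p12 := abs_nonneg (dt (e' 1) (e 2))
  have p22 := abs_nonneg (dt (e' 2) (e 2))
  have p21 := abs_nonneg (dt (e' 2) (e 1))
  have p11 := abs_nonneg (dt (e' 1) (e 1))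
  generalize |dt (e' 0) (e 1)| = R01 at *
  generalize |dt (e' 0) (e 2)| = R02 at *
  generalize |dt (e' 1) (e 0)| = R10 at *
  generalize |dt (e' 2) (e 0)| = R20 at *
  generalize |dt (e' 1) (e 2)| = R12 at *
  generalize |dt (e' 2) (e 2)| = R22 at *
  generalize |dt (e' 2) (e 1)| = R21 at *
  generalize |dt (e' 1) (e 1)| = R11 at *
  have hw1 : 0 ≤ w1 := hw2.trans hw
  constructor
  · have e1 : R01 * w1 ≤ R10 * w1 + 2 * (lam * w2) * R20 := by
      calc R01 * w1 ≤ (R10 * R22 + R12 * R20) * w1 := mul_le_mul_of_nonneg_right m1 hw1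
        _ = R10 * R22 * w1 + (R12 * w1) * R20 := by ring
        _ ≤ R10 * 1 * w1 + 2 * (lam * w2) * R20 := by gcongr
        _ = _ := by ring
    calc alp * (R01 * w1) ≤ alp * (R10 * w1 + 2 * (lam * w2) * R20) :=
          mul_le_mul_of_nonneg_left e1 halp
      _ = alp * (R10 * w1) + 2 * (alp * lam * (R20 * w2)) := by ring
      _ ≤ 3 * a := by linarith only [h10, h20]
  · have e1 : R02 * w2 ≤ R10 * w1 + lam * (R20 * w2) := by
      calc R02 * w2 ≤ (R10 * R21 + R11 * R20) * w2 := mul_le_mul_of_nonneg_right m2 hw2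
        _ ≤ (R10 * 1 + 1 * R20) * w2 := by gcongr
        _ = R10 * w2 + 1 * (R20 * w2) := by ring
        _ ≤ R10 * w1 + lam * (R20 * w2) := by gcongr
    calc alp * (R02 * w2) ≤ alp * (R10 * w1 + lam * (R20 * w2)) :=
          mul_le_mul_of_nonneg_left e1 halp
      _ = alp * (R10 * w1) + alp * lam * (R20 * w2) := by ring
      _ ≤ 2 * a := by linarith only [h10, h20]

/-- the tangent vector `E_k = w k e k - s_k w 0 e 0` -/
noncomputable def Ek (e : Fin 3 → V3) (w b0 : V3) (k : Fin 3) : V3 :=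
  w k • e k - (b0 k / b0 0 * w 0) • e 0

theorem Ek_dt {e : Fin 3 → V3} (he : Ortho e) (w b0 : V3) :
    dt (e 0) (Ek e w b0 1) = -(b0 1 / b0 0 * w 0) ∧ dt (e 1) (Ek e w b0 1) = w 1 ∧
      dt (e 2) (Ek e w b0 1) = 0 ∧ dt (e 0) (Ek e w b0 2) = -(b0 2 / b0 0 * w 0) ∧
      dt (e 1) (Ek e w b0 2) = 0 ∧ dt (e 2) (Ek e w b0 2) = w 2 := by
  have key : ∀ (i k : Fin 3), dt (e i) (Ek e w b0 k) = w k * dt (e i) (e k) -
      b0 k / b0 0 * w 0 * dt (e i) (e 0) := by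
    intro i k
    simp only [dt, Ek, Pi.sub_apply, Pi.smul_apply, smul_eq_mul]; ring
  have o := he
  refine ⟨?_, ?_, ?_, ?_, ?_, ?_⟩ <;> rw [key, o, o] <;> simp

/-- **gradient of `q'` on the tangent plane of `S`** -/
theorem grad_tilt {q q' : ℝ → V3 → ℝ} {e e' : Fin 3 → V3} {w w' : V3} {T : Ln4} {z0 ρ : ℝ}
    {b0 b1 b0' b1' c0 c1 : V3} {G G' M : QF} (he : Ortho e) (he' : Ortho e') (N : NrmC b0 b1 G)
    (hM : NrmC c0 c1 M) (hw : ∀ k, 0 < w k) (hw' : ∀ k, 0 < w' k) (h02 : w 0 ≤ w 2)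
    (h21 : w 2 ≤ w 1) (h02' : w' 0 ≤ w' 2) (h21' : w' 2 ≤ w' 1) (hE : IsExp q e w T z0 ρ b0 b1 G)
    (hE' : IsExp q' e w T z0 ρ b0' b1' G') (hF : IsExp q' e' w' T z0 ρ c0 c1 M) :
    (w 0 * |b0' 1 - b0 1 / b0 0 * b0' 0| ≤ 30 *
      (|dt (pfr q' e' w' T z0 0) (pfr q e w T z0 1)| * w 1 +
        |dt (pfr q' e' w' T z0 0) (pfr q e w T z0 2)| * w 2)) ∧
    (w 0 * |b0' 2 - b0 2 / b0 0 * b0' 0| ≤ 48 *
      (|dt (pfr q' e' w' T z0 0) (pfr q e w T z0 1)| * w 1 +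
        |dt (pfr q' e' w' T z0 0) (pfr q e w T z0 2)| * w 2)) := by
  obtain ⟨hba, hbb, -, -, -, -, -, s1, s2⟩ := N.b1_le
  obtain ⟨g1', g2', -⟩ := hM.b1_le
  have hc : c0 0 ≠ 0 := ne_of_gt (by linarith only [g1'])
  have hb : b0 0 ≠ 0 := ne_of_gt (by linarith only [hba])
  obtain ⟨r1, r2⟩ := gr_le N hw
  obtain ⟨r1', r2'⟩ := gr_le hM hw'
  have w01 : w 0 / w 1 ≤ 1 := (div_le_one (hw 1)).2 (h02.trans h21)
  have w02 : w 0 / w 2 ≤ 1 := (div_le_one (hw 2)).2 h02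
  have w01' : w' 0 / w' 1 ≤ 1 := (div_le_one (hw' 1)).2 (h02'.trans h21')
  have w02' : w' 0 / w' 2 ≤ 1 := (div_le_one (hw' 2)).2 h02'
  have r1a : |gr b0 w 1| ≤ 2 := r1.trans (by linarith only [w01])
  have r2a : |gr b0 w 2| ≤ 2 := r2.trans (by linarith only [w02])
  have r1a' : |gr c0 w' 1| ≤ 2 := r1'.trans (by linarith only [w01'])
  have r2a' : |gr c0 w' 2| ≤ 2 := r2'.trans (by linarith only [w02'])
  -- frames
  have f_eq : pfr q e w T z0 = pf e (gr b0 w 1) (gr b0 w 2) := by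
    unfold pfr; rw [cb0_eq hE (hw 0).ne']
  have f_eq' : pfr q' e' w' T z0 = pf e' (gr c0 w' 1) (gr c0 w' 2) := by
    unfold pfr; rw [cb0_eq hF (hw' 0).ne']
  rw [f_eq, f_eq']
  set f := pf e (gr b0 w 1) (gr b0 w 2) with hf
  have hfo : Ortho f := pf_ortho he _ _
  -- the linear part of `q'`
  have hlin : ∀ k, w 0 * b0' k = w' 0 * pbl (tr e w e' w') c0 k := by
    have key : ∀ ζ x, Fq (fun k => w 0 * b0' k) (fun k => w 0 * b1' k) (G'.smul (w 0)) ζ x =
        Fq (fun k => w' 0 * pbl (tr e w e' w') c0 k) (fun k => w' 0 * pbl (tr e w e' w') c1 k)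
          ((pbM (tr e w e' w') M).smul (w' 0)) ζ x := by
      intro ζ x
      rw [Fq_smul, Fq_smul]
      exact IsExp.change he' (fun k => (hw' k).ne') (hw 0).ne' hE' hF ζ x
    exact fun k => congrFun (Fq_inj key).1 k
  set m' := Real.sqrt (1 + gr c0 w' 1 ^ 2 + gr c0 w' 2 ^ 2) with hm'
  have hm1 : 1 ≤ m' := one_le_m _ _
  have hm3 : m' ≤ 3 := by
    rw [hm']
    refine (Real.sqrt_le_sqrt (?_ : _ ≤ (3 : ℝ) ^ 2)).trans (by rw [Real.sqrt_sq (by norm_num)])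
    have e1 := pow_le_pow_left₀ (abs_nonneg _) r1a' 2
    have e2 := pow_le_pow_left₀ (abs_nonneg _) r2a' 2
    rw [sq_abs] at e1 e2
    linarith only [e1, e2]
  -- `w 0 (b0' k - s_k b0' 0) = c0 0 m' <f' 0, E_k>`
  have hg : ∀ k, w 0 * (b0' k - b0 k / b0 0 * b0' 0) =
      c0 0 * (m' * dt (pf e' (gr c0 w' 1) (gr c0 w' 2) 0) (Ek e w b0 k)) := by
    intro k
    have e1 : m' * dt (pf e' (gr c0 w' 1) (gr c0 w' 2) 0) (Ek e w b0 k) =
        dt (e' 0) (Ek e w b0 k) + gr c0 w' 1 * dt (e' 1) (Ek e w b0 k) +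
          gr c0 w' 2 * dt (e' 2) (Ek e w b0 k) := by
      unfold pf
      rw [adF_zero, ← hm', ← mul_assoc, mul_one_div_cancel (by linarith only [hm1]), one_mul,
        one_mul]
    rw [e1]
    have e2 : w 0 * (b0' k - b0 k / b0 0 * b0' 0) = w 0 * b0' k - b0 k / b0 0 * (w 0 * b0' 0) := by
      ring
    rw [e2, hlin k, hlin 0]
    have c : ∀ j, dt (e' j) (Ek e w b0 k) = w k * dt (e k) (e' j) -
        b0 k / b0 0 * w 0 * dt (e 0) (e' j) := by
      intro j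
      simp only [dt, Ek, Pi.sub_apply, Pi.smul_apply, smul_eq_mul]; ring
    rw [c 0, c 1, c 2]
    simp only [pbl, dt, tr, gr]
    have h0 := (hw' 0).ne'
    have h1 := (hw' 1).ne'
    have h2 := (hw' 2).ne'
    field_simp
    ring
  -- coordinates of `E_k` in the frame `f`
  obtain ⟨k01, k11, k21, k02, k12, k22⟩ := Ek_dt he w b0
  have hw0 := hw 0
  have hw1 := hw 1
  have hw2 := hw 2
  have z1 : dt (f 0) (Ek e w b0 1) = 0 := by
    have h := pf_zero (e := e) (gr b0 w 1) (gr b0 w 2) (Ek e w b0 1)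
    rw [k01, k11, k21] at h
    have h2 : -(b0 1 / b0 0 * w 0) + gr b0 w 1 * w 1 + gr b0 w 2 * 0 = 0 := by
      unfold gr; field_simp; ring
    rw [h2, abs_zero] at h
    exact abs_eq_zero.1 (le_antisymm h (abs_nonneg _))
  have z2 : dt (f 0) (Ek e w b0 2) = 0 := by
    have h := pf_zero (e := e) (gr b0 w 1) (gr b0 w 2) (Ek e w b0 2)
    rw [k02, k12, k22] at h
    have h2 : -(b0 2 / b0 0 * w 0) + gr b0 w 1 * 0 + gr b0 w 2 * w 2 = 0 := by
      unfold gr; field_simp; ring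
    rw [h2, abs_zero] at h
    exact abs_eq_zero.1 (le_antisymm h (abs_nonneg _))
  have s1w : |-(b0 1 / b0 0 * w 0)| ≤ 2 * w 0 := by
    rw [abs_neg, abs_mul, abs_of_pos hw0]; exact mul_le_mul_of_nonneg_right s1 hw0.le
  have s2w : |-(b0 2 / b0 0 * w 0)| ≤ 2 * w 0 := by
    rw [abs_neg, abs_mul, abs_of_pos hw0]; exact mul_le_mul_of_nonneg_right s2 hw0.le
  have f11 : |dt (f 1) (Ek e w b0 1)| ≤ 5 * w 1 := by
    have h := pf_one (e := e) (gr b0 w 1) (gr b0 w 2) (Ek e w b0 1)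
    rw [k01, k11, abs_of_pos hw1] at h
    have := mul_le_mul r1a s1w (abs_nonneg _) (by norm_num)
    linarith only [h, this, h02, h21]
  have f12 : |dt (f 1) (Ek e w b0 2)| ≤ 4 * w 1 := by
    have h := pf_one (e := e) (gr b0 w 1) (gr b0 w 2) (Ek e w b0 2)
    rw [k02, k12, abs_zero] at h
    have := mul_le_mul r1a s2w (abs_nonneg _) (by norm_num)
    linarith only [h, this, h02, h21]
  have f21 : |dt (f 2) (Ek e w b0 1)| ≤ 8 * w 2 := by
    have h := pf_two (e := e) (gr b0 w 1) (gr b0 w 2) (Ek e w b0 1)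
    rw [k01, k11, k21, abs_zero] at h
    have t1 := mul_le_mul r2a s1w (abs_nonneg _) (by norm_num)
    have t2 : |gr b0 w 1 * w 1| ≤ 2 * w 0 := by
      have : gr b0 w 1 * w 1 = b0 1 / b0 0 * w 0 := by unfold gr; field_simp
      rw [this, ← abs_neg]; exact s1w
    have t3 := mul_le_mul r2a t2 (abs_nonneg _) (by norm_num)
    linarith only [h, t1, t3, h02]
  have f22 : |dt (f 2) (Ek e w b0 2)| ≤ 5 * w 2 := by
    have h := pf_two (e := e) (gr b0 w 1) (gr b0 w 2) (Ek e w b0 2)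
    rw [k02, k12, k22, mul_zero, abs_zero, mul_zero, abs_of_pos hw2] at h
    have t1 := mul_le_mul r2a s2w (abs_nonneg _) (by norm_num)
    linarith only [h, t1, h02]
  set R1 := dt (pf e' (gr c0 w' 1) (gr c0 w' 2) 0) (f 1) with hR1
  set R2 := dt (pf e' (gr c0 w' 1) (gr c0 w' 2) 0) (f 2) with hR2
  have a1 := abs_nonneg R1
  have a2 := abs_nonneg R2
  have hcm : c0 0 * m' ≤ 6 := by nlinarith only [g1', g2', hm1, hm3]
  have hcm0 : 0 ≤ c0 0 * m' := mul_nonneg (by linarith only [g1']) (by linarith only [hm1])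
  have fin : ∀ (k : Fin 3) {C : ℝ}, |dt (pf e' (gr c0 w' 1) (gr c0 w' 2) 0) (Ek e w b0 k)| ≤ C →
      w 0 * |b0' k - b0 k / b0 0 * b0' 0| ≤ 6 * C := by
    intro k C hC
    have e1 : w 0 * |b0' k - b0 k / b0 0 * b0' 0| = |w 0 * (b0' k - b0 k / b0 0 * b0' 0)| := by
      rw [abs_mul, abs_of_pos hw0]
    rw [e1, hg k, ← mul_assoc, abs_mul, abs_of_nonneg hcm0]
    exact mul_le_mul hcm hC (abs_nonneg _) (by norm_num)
  constructor
  · have h := dt_expand hfo (pf e' (gr c0 w' 1) (gr c0 w' 2) 0) (Ek e w b0 1)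
    rw [z1, mul_zero, zero_add, ← hR1, ← hR2] at h
    -- `f 2` is orthogonal to `E 1`
    have z21 : dt (f 2) (Ek e w b0 1) = 0 := by
      rw [hf]
      unfold pf
      rw [adF_two, k01, k11, k21]
      have : -(1 * gr b0 w 2) * -(b0 1 / b0 0 * w 0) + -(gr b0 w 1 * gr b0 w 2) * w 1 +
          Real.sqrt (1 + gr b0 w 1 ^ 2) ^ 2 * 0 = 0 := by
        have h3 : gr b0 w 1 * w 1 = b0 1 / b0 0 * w 0 := by unfold gr; field_simp
        linear_combination (-gr b0 w 2) * h3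
      rw [this, mul_zero]
    rw [z21, mul_zero, add_zero] at h
    have h5 : |dt (pf e' (gr c0 w' 1) (gr c0 w' 2) 0) (Ek e w b0 1)| ≤ |R1| * (5 * w 1) := by
      rw [h]; exact abs_mul_le le_rfl f11
    have h6 := fin 1 h5
    have h7 : 0 ≤ |R2| * w 2 := mul_nonneg a2 hw2.le
    linarith only [h6, h7]
  · have h := dt_expand hfo (pf e' (gr c0 w' 1) (gr c0 w' 2) 0) (Ek e w b0 2)
    rw [z2, mul_zero, zero_add, ← hR1, ← hR2] at h
    have h5 : |dt (pf e' (gr c0 w' 1) (gr c0 w' 2) 0) (Ek e w b0 2)| ≤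
        |R1| * (4 * w 1) + |R2| * (5 * w 2) := by
      rw [h]; exact Arc880.abs_add2 (abs_mul_le le_rfl f12) (abs_mul_le le_rfl f22)
    have h6 := fin 2 h5
    have h7 : 0 ≤ |R2| * w 2 := mul_nonneg a2 hw2.le
    have h8 : 0 ≤ |R1| * w 1 := mul_nonneg a1 hw1.le
    linarith only [h6, h7, h8]

end Crest.Agent.R136.Mdg880
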