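import Crest.Agent.R136.Ev13_356
import Crest.Agent.R136.C1sD_940
import Crest.Agent.R136.Ab3_356
import Crest.Agent.R136.Fe1_355

/-!
# R136: the mirrored windows in absolute coordinates (helper356)

Level slots `z, F_a`; the flag `F_b` and the slot `R` are not resolved, the walls `234, 367, 3910,
017` are slack, the other ones are tight with coefficient `1`.

* `MirHyp` : hypotheses; **`MirHyp.mirGeo`** : `C1s940.MirGeo`;
* **`rawTw_of_near`**, **`MirHyp.rawTw`** : raw twist of `F_a` between heights;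
* **`mirHyp_of_wat`** : `MirHyp` from helper413's `WAt`.
-/

set_option autoImplicit false
set_option linter.unusedSectionVars false
set_option linter.unusedVariables false

open Filter Topology

namespace Crest.Agent.R136.Mir356

open Finset Crest.Agent.R136.NetQ186 Crest.Agent.R136.Net191 Crest.Agent.R136.Qg926
open Crest.Agent.R136.Gf356 Crest.Agent.R136.Ev356 Crest.Agent.R136.Sh605
open Crest.Agent.R136.Ab356 Crest.Agent.R136.C1s940 Crest.Agent.R136.Aw413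
open Crest.Agent.R138.Ex926 (Base U)

/-- the coefficients of the mirrored window -/
structure Q1 (q : Fin 11 → Fin 11 → Fin 11 → ℝ) : Prop where
  a256 : q 2 5 6 = 1
  a289 : q 2 8 9 = 1
  a457 : q 4 5 7 = 1
  a4810 : q 4 8 10 = 1
  a058 : q 0 5 8 = 1
  a069 : q 0 6 9 = 1
  a0710 : q 0 7 10 = 1
  b234 : q 2 3 4 = 0
  b367 : q 3 6 7 = 0
  b3910 : q 3 9 10 = 0
  b017 : q 0 1 7 = 0

theorem mem_sMir {s : Fin 11} (hs : s ∈ sMir) :
    s = 2 ∨ s = 5 ∨ s = 6 ∨ s = 7 ∨ s = 8 ∨ s = 9 ∨ s = 10 := by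
  revert hs; unfold sMir; revert s; decide

/-- relative coordinates from absolute ones -/
theorem coM_near {q q' : Fin 11 → Fin 11 → Fin 11 → ℝ} {η : ℝ} (hη : 0 ≤ η)
    (hq : CApp η 1 q q') (h1 : Q1 q') {g b c : Fin 11 → ℝ} (H : LawC q g b c)
    (bb : ∀ s, |b s| ≤ 1) (bc : ∀ s, |c s| ≤ 1) (s : Fin 11) (hs : s ∈ sMir) :
    |c s - coM (lnOf b) (lnOf g) (b 2) (g 2) (b 4) (b 0) s| ≤ 14 * η := by
  obtain ⟨c256, c017, c457, c367, c058, c069, c289, c0710, c4810, c3910, c234⟩ := hq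
  obtain ⟨e0, e1, e2, e3, e4, e5, e6, e7, e8, e9, e10⟩ := H
  have d256 : |q 2 5 6 - 1| ≤ η := by have := c256.d; rwa [h1.a256, one_mul] at this
  have d289 : |q 2 8 9 - 1| ≤ η := by have := c289.d; rwa [h1.a289, one_mul] at this
  have d457 : |q 4 5 7 - 1| ≤ η := by have := c457.d; rwa [h1.a457, one_mul] at this
  have d4810 : |q 4 8 10 - 1| ≤ η := by have := c4810.d; rwa [h1.a4810, one_mul] at this
  have d058 : |q 0 5 8 - 1| ≤ η := by have := c058.d; rwa [h1.a058, one_mul] at this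
  have d069 : |q 0 6 9 - 1| ≤ η := by have := c069.d; rwa [h1.a069, one_mul] at this
  have d0710 : |q 0 7 10 - 1| ≤ η := by have := c0710.d; rwa [h1.a0710, one_mul] at this
  have d234 : |q 2 3 4| ≤ η := by have := c234.d; rwa [h1.b234, one_mul, sub_zero] at this
  have d367 : |q 3 6 7| ≤ η := by have := c367.d; rwa [h1.b367, one_mul, sub_zero] at this
  have d3910 : |q 3 9 10| ≤ η := by have := c3910.d; rwa [h1.b3910, one_mul, sub_zero] at this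
  have d017 : |q 0 1 7| ≤ η := by have := c017.d; rwa [h1.b017, one_mul, sub_zero] at this
  have n0 : ∀ {x y : ℝ}, |x| ≤ η → |y| ≤ 1 → |x * y| ≤ η := by
    intro x y hx hy
    rw [mul_comm]; exact abη hη hy hx
  have z : ∀ s, c s = coM (lnOf b) (lnOf g) (b 2) (g 2) (b 4) (b 0) s →
      |c s - coM (lnOf b) (lnOf g) (b 2) (g 2) (b 4) (b 0) s| ≤ 14 * η := by
    intro s hs
    rw [hs, sub_self, abs_zero]; linarith
  rcases mem_sMir hs with rfl | rfl | rfl | rfl | rfl | rfl | rfl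
  · refine z 2 ?_
    simp only [coM, Matrix.cons_val]
    linarith
  · refine z 5 ?_
    simp only [coM, lnOf, Matrix.cons_val]
    linarith
  · have : c 6 - coM (lnOf b) (lnOf g) (b 2) (g 2) (b 4) (b 0) 6 =
        -((q 2 5 6 - 1) * (b 2 * c 5)) := by
      simp only [coM, lnOf, Matrix.cons_val]
      rw [e6, e5]; ring
    rw [this, abs_neg]
    have := n0 d256 (ab1 (bb 2) (bc 5))
    linarith
  · have : c 7 - coM (lnOf b) (lnOf g) (b 2) (g 2) (b 4) (b 0) 7 =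
        2 * (q 0 1 7 * (b 0 * c 1)) - (q 4 5 7 - 1) * (b 4 * c 5) -
        q 4 5 7 * (q 2 3 4 * (b 2 * (b 3 * c 5))) - q 3 6 7 * (b 3 * c 6) := by
      simp only [coM, lnOf, Matrix.cons_val]
      rw [e7, e5]; ring
    rw [this]
    have t1 := n0 d017 (ab1 (bb 0) (bc 1))
    have t2 := n0 d457 (ab1 (bb 4) (bc 5))
    have t3 := abη hη c457.l (n0 d234 (ab1 (bb 2) (ab1 (bb 3) (bc 5))))
    have t4 := n0 d367 (ab1 (bb 3) (bc 6))
    rw [abs_le] at t1 t2 t3 t4 ⊢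
    constructor <;> linarith [t1.1, t1.2, t2.1, t2.2, t3.1, t3.2, t4.1, t4.2]
  · have : c 8 - coM (lnOf b) (lnOf g) (b 2) (g 2) (b 4) (b 0) 8 =
        (q 0 5 8 - 1) * (b 0 * c 5) := by
      simp only [coM, lnOf, Ln4.pos, Matrix.cons_val]
      rw [e8, e5]; ring
    rw [this]
    have := n0 d058 (ab1 (bb 0) (bc 5))
    linarith
  · have : c 9 - coM (lnOf b) (lnOf g) (b 2) (g 2) (b 4) (b 0) 9 =
        (q 0 6 9 - 1) * (b 0 * c 6) - (q 2 8 9 - 1) * (b 2 * c 8) +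
        (q 2 8 9 - 1) * (q 0 5 8 * (b 2 * (b 0 * c 5))) -
        (q 2 5 6 - 1) * (b 0 * (b 2 * c 5)) := by
      simp only [coM, lnOf, Ln4.pos, Matrix.cons_val]
      rw [e9, e8, e6, e5]; ring
    rw [this]
    have t1 := n0 d069 (ab1 (bb 0) (bc 6))
    have t2 := n0 d289 (ab1 (bb 2) (bc 8))
    have t3 := n0 d289 (ab1 c058.l (ab1 (bb 2) (ab1 (bb 0) (bc 5))))
    have t4 := n0 d256 (ab1 (bb 0) (ab1 (bb 2) (bc 5)))
    rw [abs_le] at t1 t2 t3 t4 ⊢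
    constructor <;> linarith [t1.1, t1.2, t2.1, t2.2, t3.1, t3.2, t4.1, t4.2]
  · have : c 10 - coM (lnOf b) (lnOf g) (b 2) (g 2) (b 4) (b 0) 10 =
        (q 0 7 10 - 1) * (b 0 * c 7) - q 0 7 10 * (q 0 1 7 * (b 0 * (b 0 * c 1))) +
        2 * (q 0 1 7 * (b 0 * (b 0 * c 1))) - (q 4 8 10 - 1) * (b 4 * c 8) -
        q 4 8 10 * (q 2 3 4 * (b 2 * (b 3 * c 8))) +
        (q 4 8 10 - 1) * (q 0 5 8 * (b 4 * (b 0 * c 5))) -
        (q 4 5 7 - 1) * (b 0 * (b 4 * c 5)) +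
        q 4 8 10 * (q 2 3 4 * (q 0 5 8 * (b 2 * (b 3 * (b 0 * c 5))))) -
        q 3 9 10 * (b 3 * c 9) + q 3 9 10 * (q 0 6 9 * (b 3 * (b 0 * c 6))) -
        q 4 5 7 * (q 2 3 4 * (b 0 * (b 2 * (b 3 * c 5)))) - q 3 6 7 * (b 0 * (b 3 * c 6)) := by
      simp only [coM, lnOf, Ln4.pos, Matrix.cons_val]
      rw [e10, e8, e7, e5]; ring
    rw [this]
    have t1 := n0 d0710 (ab1 (bb 0) (bc 7))
    have t2 := abη hη c0710.l (n0 d017 (ab1 (bb 0) (ab1 (bb 0) (bc 1))))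
    have t3 := n0 d017 (ab1 (bb 0) (ab1 (bb 0) (bc 1)))
    have t4 := n0 d4810 (ab1 (bb 4) (bc 8))
    have t5 := abη hη c4810.l (n0 d234 (ab1 (bb 2) (ab1 (bb 3) (bc 8))))
    have t6 := n0 d4810 (ab1 c058.l (ab1 (bb 4) (ab1 (bb 0) (bc 5))))
    have t7 := n0 d457 (ab1 (bb 0) (ab1 (bb 4) (bc 5)))
    have t8 := abη hη c4810.l (n0 d234 (ab1 c058.l (ab1 (bb 2) (ab1 (bb 3)
      (ab1 (bb 0) (bc 5))))))
    have t9 := n0 d3910 (ab1 (bb 3) (bc 9))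
    have t10 := n0 d3910 (ab1 c069.l (ab1 (bb 3) (ab1 (bb 0) (bc 6))))
    have t11 := abη hη c457.l (n0 d234 (ab1 (bb 0) (ab1 (bb 2) (ab1 (bb 3) (bc 5)))))
    have t12 := n0 d367 (ab1 (bb 0) (ab1 (bb 3) (bc 6)))
    rw [abs_le] at t1 t2 t3 t4 t5 t6 t7 t8 t9 t10 t11 t12 ⊢
    constructor <;> linarith [t1.1, t1.2, t2.1, t2.2, t3.1, t3.2, t4.1, t4.2, t5.1, t5.2, t6.1,
      t6.2, t7.1, t7.2, t8.1, t8.2, t9.1, t9.2, t10.1, t10.2, t11.1, t11.2, t12.1, t12.2]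

/-- absolute coordinates along one fat line -/
theorem line_near {q : Fin 11 → Fin 11 → Fin 11 → ℝ} {η : ℝ} (hη : 0 ≤ η)
    (hq : ∀ i j s, (i, j, s) ∈ ({(2, 5, 6), (0, 1, 7), (4, 5, 7), (3, 6, 7), (0, 5, 8), (0, 6, 9),
      (2, 8, 9), (0, 7, 10), (4, 8, 10), (3, 9, 10), (2, 3, 4)} :
      Finset (Fin 11 × Fin 11 × Fin 11)) → |q i j s| ≤ 1)
    (h017 : |q 0 1 7| ≤ η) {g b c : Fin 11 → ℝ} (H : LawC q g b c)
    (bb : ∀ s, |b s| ≤ 1) (bc : ∀ s, |c s| ≤ 1)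
    (hc : ∀ s : Fin 11, s = 2 ∨ s = 5 ∨ s = 6 ∨ s = 7 ∨ s = 8 ∨ s = 9 ∨ s = 10 → |c s| ≤ η)
    (s : Fin 11) (hs : s = 2 ∨ s = 5 ∨ s = 6 ∨ s = 7 ∨ s = 8 ∨ s = 9 ∨ s = 10) :
    |g s - b s| ≤ 12 * η := by
  have q256 := hq 2 5 6 (by decide)
  have q457 := hq 4 5 7 (by decide)
  have q367 := hq 3 6 7 (by decide)
  have q058 := hq 0 5 8 (by decide)
  have q069 := hq 0 6 9 (by decide)
  have q289 := hq 2 8 9 (by decide)
  have q0710 := hq 0 7 10 (by decide)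
  have q4810 := hq 4 8 10 (by decide)
  have q3910 := hq 3 9 10 (by decide)
  have q234 := hq 2 3 4 (by decide)
  obtain ⟨e0, e1, e2, e3, e4, e5, e6, e7, e8, e9, e10⟩ := H
  have n0 : ∀ {x y : ℝ}, |x| ≤ η → |y| ≤ 1 → |x * y| ≤ η := by
    intro x y hx hy
    rw [mul_comm]; exact abη hη hy hx
  have k2 := hc 2 (by simp)
  have k5 := hc 5 (by simp)
  have k6 := hc 6 (by simp)
  have k7 := hc 7 (by simp)
  have k8 := hc 8 (by simp)
  have k9 := hc 9 (by simp)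
  have k10 := hc 10 (by simp)
  rcases hs with rfl | rfl | rfl | rfl | rfl | rfl | rfl
  · have : g 2 - b 2 = c 2 := by rw [e2]; ring
    rw [this]; linarith
  · have : g 5 - b 5 = c 5 := by rw [e5]; ring
    rw [this]; linarith
  · have : g 6 - b 6 = c 6 + q 2 5 6 * (b 2 * c 5) := by rw [e6]; ring
    rw [this]
    have t1 := abη hη q256 (abη hη (bb 2) k5)
    rw [abs_le] at t1 k6 ⊢
    constructor <;> linarith [t1.1, t1.2, k6.1, k6.2]
  · have : g 7 - b 7 = c 7 - 2 * (q 0 1 7 * (b 0 * c 1)) + q 4 5 7 * (b 4 * c 5) +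
        q 4 5 7 * (q 2 3 4 * (b 2 * (b 3 * c 5))) + q 3 6 7 * (b 3 * c 6) := by rw [e7]; ring
    rw [this]
    have t1 := n0 h017 (ab1 (bb 0) (bc 1))
    have t2 := abη hη q457 (abη hη (bb 4) k5)
    have t3 := abη hη q457 (abη hη q234 (abη hη (bb 2) (abη hη (bb 3) k5)))
    have t4 := abη hη q367 (abη hη (bb 3) k6)
    rw [abs_le] at t1 t2 t3 t4 k7 ⊢
    constructor <;> linarith [t1.1, t1.2, t2.1, t2.2, t3.1, t3.2, t4.1, t4.2, k7.1, k7.2]
  · have : g 8 - b 8 = c 8 - q 0 5 8 * (b 0 * c 5) := by rw [e8]; ring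
    rw [this]
    have t1 := abη hη q058 (abη hη (bb 0) k5)
    rw [abs_le] at t1 k8 ⊢
    constructor <;> linarith [t1.1, t1.2, k8.1, k8.2]
  · have : g 9 - b 9 = c 9 - q 0 6 9 * (b 0 * c 6) + q 2 8 9 * (b 2 * c 8) -
        q 2 8 9 * (q 0 5 8 * (b 2 * (b 0 * c 5))) := by rw [e9]; ring
    rw [this]
    have t1 := abη hη q069 (abη hη (bb 0) k6)
    have t2 := abη hη q289 (abη hη (bb 2) k8)
    have t3 := abη hη q289 (abη hη q058 (abη hη (bb 2) (abη hη (bb 0) k5)))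
    rw [abs_le] at t1 t2 t3 k9 ⊢
    constructor <;> linarith [t1.1, t1.2, t2.1, t2.2, t3.1, t3.2, k9.1, k9.2]
  · have : g 10 - b 10 = c 10 - q 0 7 10 * (b 0 * c 7) +
        q 0 7 10 * (q 0 1 7 * (b 0 * (b 0 * c 1))) + q 4 8 10 * (b 4 * c 8) +
        q 4 8 10 * (q 2 3 4 * (b 2 * (b 3 * c 8))) - q 4 8 10 * (q 0 5 8 * (b 4 * (b 0 * c 5))) -
        q 4 8 10 * (q 2 3 4 * (q 0 5 8 * (b 2 * (b 3 * (b 0 * c 5))))) +
        q 3 9 10 * (b 3 * c 9) - q 3 9 10 * (q 0 6 9 * (b 3 * (b 0 * c 6))) := by rw [e10]; ring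
    rw [this]
    have t1 := abη hη q0710 (abη hη (bb 0) k7)
    have t2 := abη hη q0710 (n0 h017 (ab1 (bb 0) (ab1 (bb 0) (bc 1))))
    have t3 := abη hη q4810 (abη hη (bb 4) k8)
    have t4 := abη hη q4810 (abη hη q234 (abη hη (bb 2) (abη hη (bb 3) k8)))
    have t5 := abη hη q4810 (abη hη q058 (abη hη (bb 4) (abη hη (bb 0) k5)))
    have t6 := abη hη q4810 (abη hη q234 (abη hη q058 (abη hη (bb 2) (abη hη (bb 3)
      (abη hη (bb 0) k5)))))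
    have t7 := abη hη q3910 (abη hη (bb 3) k9)
    have t8 := abη hη q3910 (abη hη q069 (abη hη (bb 3) (abη hη (bb 0) k6)))
    rw [abs_le] at t1 t2 t3 t4 t5 t6 t7 t8 k10 ⊢
    constructor <;> linarith [t1.1, t1.2, t2.1, t2.2, t3.1, t3.2, t4.1, t4.2, t5.1, t5.2, t6.1,
      t6.2, t7.1, t7.2, t8.1, t8.2, k10.1, k10.2]

/-- the formula is Lipschitz -/
theorem coM_lip {η : ℝ} (hη : 0 ≤ η) {b b' g g' : Fin 11 → ℝ} {e e' z z' : ℝ}
    (hb : ∀ s : Fin 11, s = 2 ∨ s = 5 ∨ s = 6 ∨ s = 7 ∨ s = 8 ∨ s = 9 ∨ s = 10 →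
      Ap η 1 1 (b s) (b' s))
    (hg : ∀ s : Fin 11, s = 2 ∨ s = 5 ∨ s = 6 ∨ s = 7 ∨ s = 8 ∨ s = 9 ∨ s = 10 →
      Ap η 1 1 (g s) (g' s))
    (he : Ap η 1 1 e e') (hz : Ap η 1 1 z z') (s : Fin 11) (hs : s ∈ sMir) :
    |coM (lnOf b) (lnOf g) (b 2) (g 2) e z s -
      coM (lnOf b') (lnOf g') (b' 2) (g' 2) e' z' s| ≤ 50 * η := by
  have b2 := hb 2 (by simp)
  have b5 := hb 5 (by simp)
  have b6 := hb 6 (by simp)
  have b7 := hb 7 (by simp)
  have b8 := hb 8 (by simp)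
  have b9 := hb 9 (by simp)
  have b10 := hb 10 (by simp)
  have g2 := hg 2 (by simp)
  have g5 := hg 5 (by simp)
  have g6 := hg 6 (by simp)
  have g7 := hg 7 (by simp)
  have g8 := hg 8 (by simp)
  have g9 := hg 9 (by simp)
  have g10 := hg 10 (by simp)
  rcases mem_sMir hs with rfl | rfl | rfl | rfl | rfl | rfl | rfl
  · simp only [coM, Matrix.cons_val]
    exact (g2.sub b2).mono hη (by norm_num)
  · simp only [coM, lnOf, Matrix.cons_val]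
    exact (g5.sub b5).mono hη (by norm_num)
  · simp only [coM, lnOf, Matrix.cons_val]
    exact ((g6.sub b6).sub (b2.mul (g5.sub b5))).mono hη (by norm_num)
  · simp only [coM, lnOf, Matrix.cons_val]
    exact ((g7.sub b7).sub (he.mul (g5.sub b5))).mono hη (by norm_num)
  · simp only [coM, lnOf, Ln4.pos, Matrix.cons_val]
    exact ((g8.add (hz.mul g5)).sub (b8.add (hz.mul b5))).mono hη (by norm_num)
  · simp only [coM, lnOf, Ln4.pos, Matrix.cons_val]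
    exact (((g9.add (hz.mul g6)).sub (b9.add (hz.mul b6))).sub
      (b2.mul ((g8.add (hz.mul g5)).sub (b8.add (hz.mul b5))))).mono hη (by norm_num)
  · simp only [coM, lnOf, Ln4.pos, Matrix.cons_val]
    exact (((g10.add (hz.mul g7)).sub (b10.add (hz.mul b7))).sub
      (he.mul ((g8.add (hz.mul g5)).sub (b8.add (hz.mul b5))))).mono hη (by norm_num)

variable {ι : ℕ → Type*} [∀ n, DecidableEq (ι n)]

/-- the resolved slots -/
def RsM : Finset (Fin 11) := {0, 2, 4, 5, 6, 7, 8, 9, 10}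

/-- **hypotheses on a mirrored window** -/
structure MirHyp (W : Wnd 11 ι) (f : ∀ n, ι n → Fq4) (E : ∀ n, Finset (ι n)) (x : ℝ)
    (q' : ℕ → Fin 11 → Fin 11 → Fin 11 → ℝ) : Prop where
  P : PQ W f RsM x q'
  kz : W.kz = 0
  S : W.S = {0, 4}
  q1 : ∀ n, Q1 (q' n)
  cfg : ∀ᶠ n in (U : Filter ℕ), W.Good n ∧ E n ⊆ W.Cl n ∧ W.cfg E n = W.cfg0 n (E n)

namespace MirHyp

variable {W : Wnd 11 ι} {f : ∀ n, ι n → Fq4} {E : ∀ n, Finset (ι n)} {x : ℝ}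
  {q' : ℕ → Fin 11 → Fin 11 → Fin 11 → ℝ} (h : MirHyp W f E x q')

include h

theorem notMem {s : Fin 11} (hs : s = 2 ∨ s = 5 ∨ s = 6 ∨ s = 7 ∨ s = 8 ∨ s = 9 ∨ s = 10) :
    s ∉ W.S := by
  rw [h.S]
  rcases hs with rfl | rfl | rfl | rfl | rfl | rfl | rfl <;> decide

theorem line {n : ℕ} (g : W.Good n) (hca : CApp (W.B'.d n ^ x) 1 (cf W n) (q' n)) {u v : ι n}
    (hu : u ∈ W.Cl n) (hv : v ∈ W.Cl n) (hl : W.lc n u = W.lc n v) (s : Fin 11)
    (hs : s = 2 ∨ s = 5 ∨ s = 6 ∨ s = 7 ∨ s = 8 ∨ s = 9 ∨ s = 10) :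
    Ap (12 * W.B'.d n ^ x) 1 1 (W.crd n (W.s₀ n) u s) (W.crd n (W.s₀ n) v s) := by
  have hη0 : 0 ≤ W.B'.d n ^ x := Real.rpow_nonneg (W.B'.pos n).le x
  have B : ∀ {u v : ι n}, u ∈ W.Cl n → v ∈ W.Cl n → ∀ s, |W.crd n u v s| ≤ 1 := fun hu hv s =>
    (h.P.crd4 g hu hv s).trans (by norm_num)
  obtain ⟨c256, c017, c457, c367, c058, c069, c289, c0710, c4810, c3910, c234⟩ := hca
  have key := line_near (q := cf W n) hη0 (by
    intro i j s hm
    simp only [Finset.mem_insert, Finset.mem_singleton, Prod.mk.injEq] at hm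
    rcases hm with hm | hm | hm | hm | hm | hm | hm | hm | hm | hm | hm <;>
      (obtain ⟨rfl, rfl, rfl⟩ := hm)
    exacts [c256.l, c017.l, c457.l, c367.l, c058.l, c069.l, c289.l, c0710.l, c4810.l, c3910.l,
      c234.l]) (by
    have := c017.d
    rwa [(h.q1 n).b017, one_mul, sub_zero] at this) (h.P.q.lawC g g.s0 hu hv) (B g.s0 hu)
    (B hu hv) (fun s hs => (h.P.sm4 (h.P.q.crd_own g hu hv hl (h.notMem hs) (h.P.top s (by
      unfold RsM
      rcases hs with rfl | rfl | rfl | rfl | rfl | rfl | rfl <;> decide)))).trans (by linarith)) s hs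
  refine ⟨B g.s0 hu s, B g.s0 hv s, ?_⟩
  rw [abs_sub_comm, one_mul]
  exact key

theorem Z_of_mem {n : ℕ} {E0 : Finset (ι n)} (hE : E0 ⊆ W.Cl n) {i k : ℕ}
    (h1 : (i, k) ∈ (W.cfg0 n E0).I) : W.zrep n k ∈ W.Cl n ∧ W.zc n (W.zrep n k) = k := by
  have hk : k ∈ (W.cfg0 n E0).Z := mem_image.2 (by
    obtain ⟨u, hu, -, h6⟩ := mem_cfg0 h1; exact ⟨u, hu, h6⟩)
  exact zrep_of_mem hE hk

theorem lrep_of_mem {n : ℕ} {E0 : Finset (ι n)} (hE : E0 ⊆ W.Cl n) {i k : ℕ}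
    (h1 : (i, k) ∈ (W.cfg0 n E0).I) : lrep W n i ∈ W.Cl n ∧ W.lc n (lrep W n i) = i := by
  obtain ⟨a1, a2, a3⟩ := rep_of_mem hE h1
  have := lrep_spec a1
  rw [a2] at this
  exact this

theorem hz {n : ℕ} {E0 : Finset (ι n)} (k : ℕ) : (W.cfg0 n E0).z k = flg W n k 0 := by
  show W.crd n (W.s₀ n) (W.zrep n k) W.kz = _
  rw [h.kz]; rfl

/-- the level slots of an incidence = those of its height -/
theorem lev {n : ℕ} (g : W.Good n) (hca : CApp (W.B'.d n ^ x) 1 (cf W n) (q' n))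
    {E0 : Finset (ι n)} (hE : E0 ⊆ W.Cl n) {k i : ℕ} (h1 : (i, k) ∈ (W.cfg0 n E0).I) :
    Ap (12 * W.B'.d n ^ x) 1 1 (W.crd n (W.s₀ n) (W.rep n i k) 0) (flg W n k 0) ∧
    Ap (12 * W.B'.d n ^ x) 1 1 (W.crd n (W.s₀ n) (W.rep n i k) 4) (flg W n k 4) := by
  have hη0 : 0 ≤ W.B'.d n ^ x := Real.rpow_nonneg (W.B'.pos n).le x
  obtain ⟨a1, a2, a3⟩ := rep_of_mem hE h1
  obtain ⟨z1, z2⟩ := h.Z_of_mem hE h1
  have B : ∀ {u v : ι n}, u ∈ W.Cl n → v ∈ W.Cl n → ∀ s, |W.crd n u v s| ≤ 1 / 4 := fun hu hv s =>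
    h.P.crd4 g hu hv s
  have S0 : (0 : Fin 11) ∈ W.S := by rw [h.S]; decide
  have S4 : (4 : Fin 11) ∈ W.S := by rw [h.S]; decide
  have l0 := h.P.sm4 (h.P.q.crd_lev g a1 z1 (a3.trans z2.symm) S0 (h.P.top 0 (by decide)))
  have l4 := h.P.sm4 (h.P.q.crd_lev g a1 z1 (a3.trans z2.symm) S4 (h.P.top 4 (by decide)))
  have d234 : |cf W n 2 3 4| ≤ W.B'.d n ^ x := by
    have := hca.2.2.2.2.2.2.2.2.2.2.d
    rwa [(h.q1 n).b234, one_mul, sub_zero] at this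
  refine ⟨⟨(B g.s0 a1 0).trans (by norm_num), (B g.s0 z1 0).trans (by norm_num), ?_⟩,
    ⟨(B g.s0 a1 4).trans (by norm_num), (B g.s0 z1 4).trans (by norm_num), ?_⟩⟩
  · have e1 := h.P.q.crd_add g g.s0 a1 z1 (s := 0) (by simp)
    have e3 : W.crd n (W.s₀ n) (W.rep n i k) 0 - flg W n k 0 =
        -W.crd n (W.rep n i k) (W.zrep n k) 0 := by unfold flg; linarith
    rw [e3, abs_neg, one_mul]
    linarith
  · have e1 := h.P.q.crd_four g g.s0 a1 z1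
    have e3 : W.crd n (W.s₀ n) (W.rep n i k) 4 - flg W n k 4 =
        cf W n 2 3 4 * (W.crd n (W.s₀ n) (W.rep n i k) 2 *
          W.crd n (W.rep n i k) (W.zrep n k) 3) - W.crd n (W.rep n i k) (W.zrep n k) 4 := by
      unfold flg; linarith
    rw [e3, one_mul]
    have t1 : |cf W n 2 3 4 * (W.crd n (W.s₀ n) (W.rep n i k) 2 *
          W.crd n (W.rep n i k) (W.zrep n k) 3)| ≤ W.B'.d n ^ x := by
      rw [mul_comm]
      exact abη hη0 (ab1 ((B g.s0 a1 2).trans (by norm_num)) ((B a1 z1 3).trans (by norm_num))) d234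
    have t2 := abs_sub (cf W n 2 3 4 * (W.crd n (W.s₀ n) (W.rep n i k) 2 *
          W.crd n (W.rep n i k) (W.zrep n k) 3)) (W.crd n (W.rep n i k) (W.zrep n k) 4)
    linarith

/-- relative coordinates from absolute ones, one `n` -/
theorem rel0 {n : ℕ} (g : W.Good n) (hca : CApp (W.B'.d n ^ x) 1 (cf W n) (q' n))
    {E0 : Finset (ι n)} (hE : E0 ⊆ W.Cl n) {k i l : ℕ} (h1 : (i, k) ∈ (W.cfg0 n E0).I)
    (h2 : (l, k) ∈ (W.cfg0 n E0).I) {s : Fin 11} (hs : s ∈ sMir) :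
    |(W.cfg0 n E0).rel k i l s - coM (absT W n i) (absT W n l) (absE W n i) (absE W n l)
      (flg W n k 4) ((W.cfg0 n E0).z k) s| ≤ 700 * W.B'.d n ^ x := by
  have hη0 : 0 ≤ W.B'.d n ^ x := Real.rpow_nonneg (W.B'.pos n).le x
  obtain ⟨a1, a2, a3⟩ := rep_of_mem hE h1
  obtain ⟨b1, b2, b3⟩ := rep_of_mem hE h2
  obtain ⟨l1, l2⟩ := h.lrep_of_mem hE h1
  obtain ⟨m1, m2⟩ := h.lrep_of_mem hE h2
  have B : ∀ {u v : ι n}, u ∈ W.Cl n → v ∈ W.Cl n → ∀ s, |W.crd n u v s| ≤ 1 := fun hu hv s =>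
    (h.P.crd4 g hu hv s).trans (by norm_num)
  have ex := coM_near hη0 hca (h.q1 n) (h.P.q.lawC g g.s0 a1 b1) (B g.s0 a1) (B a1 b1) s hs
  obtain ⟨v0, v4⟩ := h.lev g hca hE h1
  have lip := coM_lip (η := 12 * W.B'.d n ^ x) (by positivity)
    (b := W.crd n (W.s₀ n) (W.rep n i k)) (b' := W.crd n (W.s₀ n) (lrep W n i))
    (g := W.crd n (W.s₀ n) (W.rep n l k)) (g' := W.crd n (W.s₀ n) (lrep W n l))
    (fun s hs => h.line g hca a1 l1 (a2.trans l2.symm) s hs)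
    (fun s hs => h.line g hca b1 m1 (b2.trans m2.symm) s hs) v4 v0 s hs
  rw [rel_cfg0, if_neg (h.notMem (mem_sMir hs)), h.hz]
  have tri := abs_sub_le (W.crd n (W.rep n i k) (W.rep n l k) s)
    (coM (lnOf (W.crd n (W.s₀ n) (W.rep n i k))) (lnOf (W.crd n (W.s₀ n) (W.rep n l k)))
      (W.crd n (W.s₀ n) (W.rep n i k) 2) (W.crd n (W.s₀ n) (W.rep n l k) 2)
      (W.crd n (W.s₀ n) (W.rep n i k) 4) (W.crd n (W.s₀ n) (W.rep n i k) 0) s)
    (coM (absT W n i) (absT W n l) (absE W n i) (absE W n l) (flg W n k 4) (flg W n k 0) s)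
  have lip' : |coM (lnOf (W.crd n (W.s₀ n) (W.rep n i k)))
      (lnOf (W.crd n (W.s₀ n) (W.rep n l k)))
      (W.crd n (W.s₀ n) (W.rep n i k) 2) (W.crd n (W.s₀ n) (W.rep n l k) 2)
      (W.crd n (W.s₀ n) (W.rep n i k) 4) (W.crd n (W.s₀ n) (W.rep n i k) 0) s -
    coM (absT W n i) (absT W n l) (absE W n i) (absE W n l) (flg W n k 4) (flg W n k 0) s| ≤
      50 * (12 * W.B'.d n ^ x) := lip
  linarith

/-- **the mirrored window in absolute coordinates** -/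
theorem mirGeo : MirGeo W.B' (W.cfg E) x (absT W) (absE W) (fun n k => flg W n k 4) where
  bd := by
    filter_upwards [h.cfg] with n hn l k hlk
    obtain ⟨g, hE, hcfg⟩ := hn
    rw [hcfg] at hlk ⊢
    obtain ⟨a1, a2, a3⟩ := rep_of_mem hE hlk
    obtain ⟨z1, z2⟩ := h.Z_of_mem hE hlk
    obtain ⟨l1, l2⟩ := h.lrep_of_mem hE hlk
    have B : ∀ {u v : ι n}, u ∈ W.Cl n → v ∈ W.Cl n → ∀ s, |W.crd n u v s| ≤ 1 / 4 :=
      fun hu hv s => h.P.crd4 g hu hv s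
    have hz : |flg W n k 0| ≤ 1 / 4 := B g.s0 z1 0
    have hp : ∀ a b : ℝ, |a| ≤ 1 / 4 → |b| ≤ 1 / 4 → |a + flg W n k 0 * b| ≤ 1 := by
      intro a b ha hb
      have h1 := abs_add_le a (flg W n k 0 * b)
      rw [abs_mul] at h1
      have h2 := mul_le_mul hz hb (abs_nonneg _) (by norm_num)
      linarith
    rw [h.hz]
    refine ⟨hz.trans (by norm_num), fun j => ?_, fun j => ?_, ?_, ?_⟩
    · fin_cases j
      · exact hp _ _ (B g.s0 l1 10) (B g.s0 l1 7)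
      · exact hp _ _ (B g.s0 l1 8) (B g.s0 l1 5)
      · exact hp _ _ (B g.s0 l1 9) (B g.s0 l1 6)
    · fin_cases j
      · exact (B g.s0 l1 7).trans (by norm_num)
      · exact (B g.s0 l1 5).trans (by norm_num)
      · exact (B g.s0 l1 6).trans (by norm_num)
    · exact (B g.s0 l1 2).trans (by norm_num)
    · exact (B g.s0 z1 4).trans (by norm_num)
  bdr := by
    filter_upwards [h.cfg] with n hn k i l h1 h2 s
    obtain ⟨g, hE, hcfg⟩ := hn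
    rw [hcfg] at h1 h2 ⊢
    obtain ⟨a1, a2, a3⟩ := rep_of_mem hE h1
    obtain ⟨b1, b2, b3⟩ := rep_of_mem hE h2
    rw [rel_cfg0]
    split_ifs
    · rw [abs_zero]; norm_num
    · exact (h.P.crd4 g a1 b1 s).trans (by norm_num)
  rel := by
    intro ε hε
    filter_upwards [h.cfg, h.P.capp, Crest.Agent.R136.Gf356.ev_const_le W.B' hε 700] with
      n hn hca hk k i l h1 h2 s hs
    obtain ⟨g, hE, hcfg⟩ := hn
    rw [hcfg] at h1 h2 ⊢
    refine (h.rel0 g hca hE h1 h2 hs).trans ?_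
    refine (mul_le_mul_of_nonneg_right hk (Real.rpow_nonneg (W.B'.pos n).le _)).trans
      (le_of_eq ?_)
    rw [← Real.rpow_add (W.B'.pos n)]
    congr 1; ring

end MirHyp

end Crest.Agent.R136.Mir356
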