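import Crest.Agent.R136.Mir1_356
import Crest.Agent.R136.Wq0_400

/-!
# R136: the mirrored windows (helper356), part 2: raw twist, instances

* **`rawTw_of_near`** : raw twist between heights from 413's `RawL`, any level slot whose own motion
  is a function of the heights up to `ρ^T`;
* **`MirHyp.rawTw`** : `F_a` of the mirrored window;
* **`mirHyp_of_wat`** : from helper413's `WAt`, plain windows.
-/

set_option autoImplicit false
set_option linter.unusedSectionVars false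
set_option linter.unusedVariables false

open Filter Topology

namespace Crest.Agent.R136.Mir356

open Finset Crest.Agent.R136.NetQ186 Crest.Agent.R136.Net191 Crest.Agent.R136.Qg926
open Crest.Agent.R136.Gf356 Crest.Agent.R136.Ev356 Crest.Agent.R136.Sh605
open Crest.Agent.R136.Ab356 Crest.Agent.R136.C1s940 Crest.Agent.R136.Aw413
open Crest.Agent.R136.Fe1355
open Crest.Agent.R138.Ex926 (Base U)

variable {ι : ℕ → Type*} [∀ n, DecidableEq (ι n)]

/-- **raw twist between heights** -/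
theorem rawTw_of_near {W : Wnd 11 ι} {E : ∀ n, Finset (ι n)} {s : Fin 11} {φ : ℕ → ℕ → ℕ → ℝ}
    {T C : ℝ} (hT : 0 < T)
    (hnr : ∀ᶠ n in (U : Filter ℕ), ∀ l k k', (l, k) ∈ (W.cfg E n).I → (l, k') ∈ (W.cfg E n).I →
      |W.crd n (W.rep n l k) (W.rep n l k') s| ≤ |φ n k k'| + C * W.B'.d n ^ T)
    (hr : RawL W E s) : RawTw W.B' (W.cfg E) φ := by
  intro ε hε
  set δ : ℝ := min (ε / 2) (T / 2) with hδ
  have hδ0 : 0 < δ := lt_min (by positivity) (by positivity)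
  have hδε : δ < ε := lt_of_le_of_lt (min_le_left _ _) (by linarith)
  have hδT : δ < T := lt_of_le_of_lt (min_le_right _ _) (by linarith)
  filter_upwards [hnr, hr δ hδ0 (1 / 2) (by norm_num),
    Crest.Agent.R136.Gf356.ev_const_le W.B' (show 0 < ε - δ by linarith) 2,
    Crest.Agent.R136.Gf356.ev_const_le W.B' (show 0 < T - δ by linarith) (2 * |C|)] with
    n hn hrn h2 h3
  intro i hi S hS hSm
  have hd0 : 0 < W.B'.d n := W.B'.pos n
  have hpow : ∀ t : ℝ, 0 < W.B'.d n ^ t := fun t => Real.rpow_pos_of_pos hd0 t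
  have a1 : W.B'.d n ^ ε ≤ W.B'.d n ^ δ / 2 := by
    have : W.B'.d n ^ ε * W.B'.d n ^ (-(ε - δ)) = W.B'.d n ^ δ := by
      rw [← Real.rpow_add hd0]; congr 1; ring
    have h4 := mul_le_mul_of_nonneg_left h2 (hpow ε).le
    rw [this] at h4
    linarith
  have a2 : |C| * W.B'.d n ^ T ≤ W.B'.d n ^ δ / 2 := by
    have : W.B'.d n ^ T * W.B'.d n ^ (-(T - δ)) = W.B'.d n ^ δ := by
      rw [← Real.rpow_add hd0]; congr 1; ring
    have h4 := mul_le_mul_of_nonneg_left h3 (hpow T).le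
    rw [this] at h4
    linarith
  have hsub : S ⊆ ((W.cfg E n).hts i).biUnion fun k =>
      (((W.cfg E n).hts i).filter fun k' =>
        |W.crd n (W.rep n i k) (W.rep n i k') s| ≤ W.B'.d n ^ δ).image fun k' => (k, k') := by
    intro q hq
    obtain ⟨q1, q2⟩ := mem_product.1 (hS hq)
    refine mem_biUnion.2 ⟨q.1, q1, mem_image.2 ⟨q.2, mem_filter.2 ⟨q2, ?_⟩, rfl⟩⟩
    have g1 := (RCfg.mem_hts.1 q1).2
    have g2 := (RCfg.mem_hts.1 q2).2
    have m2 := hn i q.1 q.2 g1 g2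
    have m3 := hSm q hq
    have m4 : C * W.B'.d n ^ T ≤ |C| * W.B'.d n ^ T :=
      mul_le_mul_of_nonneg_right (le_abs_self _) (hpow _).le
    linarith
  have hcard : (S.card : ℝ) ≤ ∑ k ∈ (W.cfg E n).hts i,
      1 / 2 * (((W.cfg E n).hts i).card : ℝ) := by
    have h5 : (S.card : ℝ) ≤ ∑ k ∈ (W.cfg E n).hts i,
        ((((W.cfg E n).hts i).filter fun k' =>
        |W.crd n (W.rep n i k) (W.rep n i k') s| ≤ W.B'.d n ^ δ).card : ℝ) := by
      have h6 := (card_le_card hsub).trans card_biUnion_le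
      have h7 : ∑ k ∈ (W.cfg E n).hts i, ((((W.cfg E n).hts i).filter fun k' =>
          |W.crd n (W.rep n i k) (W.rep n i k') s| ≤ W.B'.d n ^ δ).image
            fun k' => (k, k')).card ≤
          ∑ k ∈ (W.cfg E n).hts i, (((W.cfg E n).hts i).filter fun k' =>
          |W.crd n (W.rep n i k) (W.rep n i k') s| ≤ W.B'.d n ^ δ).card :=
        sum_le_sum fun k _ => card_image_le
      exact_mod_cast h6.trans h7
    exact h5.trans (sum_le_sum fun k hk => hrn i hi k hk)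
  rw [sum_const, nsmul_eq_mul] at hcard
  nlinarith

/-- **raw twist of `F_a`** in the mirrored window -/
theorem MirHyp.rawTw {W : Wnd 11 ι} {f : ∀ n, ι n → Fq4} {E : ∀ n, Finset (ι n)} {x : ℝ}
    {q' : ℕ → Fin 11 → Fin 11 → Fin 11 → ℝ} (h : MirHyp W f E x q') (hx : 0 < x)
    (hr : RawL W E 4) : RawTw W.B' (W.cfg E) (fun n k k' => flg W n k 4 - flg W n k' 4) := by
  refine rawTw_of_near (C := 30) hx ?_ hr
  filter_upwards [h.cfg, h.P.capp] with n hn hca l k k' h1 h2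
  obtain ⟨g, hE, hcfg⟩ := hn
  rw [hcfg] at h1 h2
  have hη0 : 0 ≤ W.B'.d n ^ x := Real.rpow_nonneg (W.B'.pos n).le x
  obtain ⟨a1, a2, a3⟩ := rep_of_mem hE h1
  obtain ⟨b1, b2, b3⟩ := rep_of_mem hE h2
  have B : ∀ {u v : ι n}, u ∈ W.Cl n → v ∈ W.Cl n → ∀ s, |W.crd n u v s| ≤ 1 := fun hu hv s =>
    (h.P.crd4 g hu hv s).trans (by norm_num)
  have e1 := h.P.q.crd_four g g.s0 a1 b1
  have v := (h.lev g hca hE h1).2.d
  have v' := (h.lev g hca hE h2).2.d
  have d234 : |cf W n 2 3 4| ≤ W.B'.d n ^ x := by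
    have := hca.2.2.2.2.2.2.2.2.2.2.d
    rwa [(h.q1 n).b234, one_mul, sub_zero] at this
  have t1 : |cf W n 2 3 4 * (W.crd n (W.s₀ n) (W.rep n l k) 2 *
        W.crd n (W.rep n l k) (W.rep n l k') 3)| ≤ W.B'.d n ^ x := by
    rw [mul_comm]
    exact abη hη0 (ab1 (B g.s0 a1 2) (B a1 b1 3)) d234
  have e2 : W.crd n (W.rep n l k) (W.rep n l k') 4 =
      -(flg W n k 4 - flg W n k' 4) - (W.crd n (W.s₀ n) (W.rep n l k) 4 - flg W n k 4) +
      (W.crd n (W.s₀ n) (W.rep n l k') 4 - flg W n k' 4) +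
      cf W n 2 3 4 * (W.crd n (W.s₀ n) (W.rep n l k) 2 *
        W.crd n (W.rep n l k) (W.rep n l k') 3) := by linarith
  rw [e2]
  have s1 := abs_add_le (-(flg W n k 4 - flg W n k' 4) -
      (W.crd n (W.s₀ n) (W.rep n l k) 4 - flg W n k 4) +
      (W.crd n (W.s₀ n) (W.rep n l k') 4 - flg W n k' 4)) (cf W n 2 3 4 *
      (W.crd n (W.s₀ n) (W.rep n l k) 2 * W.crd n (W.rep n l k) (W.rep n l k') 3))
  have s2 := abs_add_le (-(flg W n k 4 - flg W n k' 4) -
      (W.crd n (W.s₀ n) (W.rep n l k) 4 - flg W n k 4))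
      (W.crd n (W.s₀ n) (W.rep n l k') 4 - flg W n k' 4)
  have s3 := abs_sub (-(flg W n k 4 - flg W n k' 4))
      (W.crd n (W.s₀ n) (W.rep n l k) 4 - flg W n k 4)
  rw [abs_neg] at s3
  rw [one_mul] at v v'
  have v1 : |W.crd n (W.s₀ n) (W.rep n l k) 4 - flg W n k 4| ≤ 12 * W.B'.d n ^ x := v
  have v2 : |W.crd n (W.s₀ n) (W.rep n l k') 4 - flg W n k' 4| ≤ 12 * W.B'.d n ^ x := v'
  linarith

/-- the walls of the mirrored window -/
structure MirMa (Ma : Mons 11) : Prop where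
  a256 : mv 2 5 ∈ Ma.mon 6
  a289 : mv 2 8 ∈ Ma.mon 9
  a457 : mv 4 5 ∈ Ma.mon 7
  a4810 : mv 4 8 ∈ Ma.mon 10
  a058 : mv 0 5 ∈ Ma.mon 8
  a069 : mv 0 6 ∈ Ma.mon 9
  a0710 : mv 0 7 ∈ Ma.mon 10
  b234 : mv 2 3 ∉ Ma.mon 4
  b367 : mv 3 6 ∉ Ma.mon 7
  b3910 : mv 3 9 ∉ Ma.mon 10
  b017 : mv 0 1 ∉ Ma.mon 7

theorem MirMa.q1 {Ma : Mons 11} (h : MirMa Ma) : Q1 (chi Ma) :=
  ⟨if_pos h.a256, if_pos h.a289, if_pos h.a457, if_pos h.a4810, if_pos h.a058, if_pos h.a069,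
    if_pos h.a0710, if_neg h.b234, if_neg h.b367, if_neg h.b3910, if_neg h.b017⟩

theorem MirMa.clo {Ma : Mons 11} (h : MirMa Ma) : CloM RsM Ma where
  w4 := fun _ => Or.inl h.b234
  w6 := fun _ => Or.inr (by decide)
  w7a := fun _ => Or.inr (by decide)
  w7b := fun _ => Or.inl h.b367
  w8 := fun _ => Or.inr (by decide)
  w9a := fun _ => Or.inr (by decide)
  w9b := fun _ => Or.inr (by decide)
  w10a := fun _ => Or.inr (by decide)
  w10b := fun _ => Or.inr (by decide)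
  w10c := fun _ => Or.inl h.b3910

/-- **mirrored windows from helper413's `WAt`** -/
theorem mirHyp_of_wat {B : Base} {I : ∀ n, Finset (ι n)} {co : ∀ n, ι n → ι n → Fin 11 → ℝ}
    {Ma : Mons 11} {C : ℝ} {lam : (Fin 11 → ℝ) → ℝ} {V Tw : Fin 11 → Prop} {st : WSt 11}
    {W : Wnd 11 ι} {f : ∀ n, ι n → Fq4} (h : WAt B I co monQ Ma C lam V Tw st W)
    (hco : ∀ n, ∀ i ∈ I n, ∀ j ∈ I n, co n i j = coQ (f n i) (f n j)) (hS : st.S = {0, 4})
    (hkz : st.kz = 0) (hkap : ∀ s, st.kap s = (4 * cK0 monQ C) ^ wtQ s) {x : ℝ} (x0 : 0 ≤ x)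
    (htop : ∀ s, s ≠ 1 → s ≠ 3 → x ≤ st.top s) (hMa : MirMa Ma) {E : ∀ n, Finset (ι n)}
    (hc : ∀ᶠ n in (U : Filter ℕ), W.Good n ∧ E n ⊆ W.Cl n ∧ W.cfg E n = W.cfg0 n (E n)) :
    MirHyp W f E x (fun _ => chi Ma) where
  P := PQ.of_at (QAt.of_wat h (Crest.Agent.R136.Wq400.qwnd_of_wat h hco (by
      intro s hs
      rw [hS] at hs
      simp only [Finset.mem_insert, Finset.mem_singleton] at hs
      tauto)) (by rw [hS]; decide) hkap hMa.b017) x0 (by rw [h.eS, hS]; decide)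
    (fun s hs => by
      rw [h.etop]
      refine htop s ?_ ?_
      · rintro rfl; exact absurd hs (by decide)
      · rintro rfl; exact absurd hs (by decide)) hMa.clo
  kz := h.ekz.trans hkz
  S := h.eS.trans hS
  q1 := fun _ => hMa.q1
  cfg := hc

end Crest.Agent.R136.Mir356
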