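import Mathlib

/-!
# 4-linear Kakeya in R^4, part a (helper418)

Discrete Loomis–Whitney in four variables (cube roots) and the local step of Guth's induction on
scales, for abstract sets near the coordinate axes.
-/

set_option autoImplicit false

namespace Crest.Agent.R136.MK4

open Finset

/-- cube root -/
noncomputable def cb (x : ℝ) : ℝ := x ^ ((1 : ℝ) / 3)

lemma cb_nonneg {x : ℝ} (hx : 0 ≤ x) : 0 ≤ cb x := Real.rpow_nonneg hx _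

lemma cb_mono {x y : ℝ} (hx : 0 ≤ x) (h : x ≤ y) : cb x ≤ cb y :=
  Real.rpow_le_rpow hx h (by norm_num)

lemma cb_mul {x y : ℝ} (hx : 0 ≤ x) (hy : 0 ≤ y) : cb (x * y) = cb x * cb y :=
  Real.mul_rpow hx hy

lemma cb_pow3 {x : ℝ} (hx : 0 ≤ x) : cb x ^ 3 = x := by
  unfold cb
  rw [← Real.rpow_natCast, ← Real.rpow_mul hx]
  norm_num

lemma cb_cube {x : ℝ} (hx : 0 ≤ x) : cb (x ^ 3) = x := by
  unfold cb
  rw [← Real.rpow_natCast, ← Real.rpow_mul hx]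
  norm_num

lemma cb_1331 : cb 1331 = 11 := by
  rw [show (1331 : ℝ) = 11 ^ 3 by norm_num]
  exact cb_cube (by norm_num)

lemma cb_sqrt_sq {x : ℝ} (hx : 0 ≤ x) : cb (√x) ^ 2 = cb x := by
  unfold cb
  rw [Real.sqrt_eq_rpow, ← Real.rpow_mul hx, ← Real.rpow_natCast, ← Real.rpow_mul hx]
  norm_num

lemma cb_zero : cb 0 = 0 := by
  unfold cb
  exact Real.zero_rpow (by norm_num)

/-- cube root is subadditive -/
lemma cb_add_le {x y : ℝ} (hx : 0 ≤ x) (hy : 0 ≤ y) : cb (x + y) ≤ cb x + cb y := by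
  unfold cb
  exact Real.rpow_add_le_add_rpow hx hy (by norm_num) (by norm_num)

lemma cb_sum_le {α : Type*} (s : Finset α) (f : α → ℝ) (hf : ∀ a ∈ s, 0 ≤ f a) :
    cb (∑ a ∈ s, f a) ≤ ∑ a ∈ s, cb (f a) := by
  classical
  induction s using Finset.induction_on with
  | empty => simp [cb_zero]
  | insert a s ha ih =>
    rw [Finset.sum_insert ha, Finset.sum_insert ha]
    have h1 : ∀ b ∈ s, 0 ≤ f b := fun b hb => hf b (Finset.mem_insert_of_mem hb)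
    refine (cb_add_le (hf a (Finset.mem_insert_self a s)) (Finset.sum_nonneg h1)).trans ?_
    exact add_le_add le_rfl (ih h1)

/-- Hölder with exponents `3, 3/2`. -/
lemma holder32 {α : Type*} (s : Finset α) (x t : α → ℝ) (hx : ∀ a ∈ s, 0 ≤ x a)
    (ht : ∀ a ∈ s, 0 ≤ t a) :
    ∑ a ∈ s, cb (x a) * cb (t a) ^ 2 ≤ cb (∑ a ∈ s, x a) * cb (∑ a ∈ s, t a) ^ 2 := by
  have h := Real.inner_le_Lp_mul_Lq_of_nonneg s (p := 3) (q := 3 / 2)
    (by rw [Real.holderConjugate_iff]; norm_num) (f := fun a => cb (x a))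
    (g := fun a => cb (t a) ^ 2) (fun a ha => cb_nonneg (hx a ha)) (fun a ha => sq_nonneg _)
  refine h.trans (le_of_eq ?_)
  have e1 : ∑ a ∈ s, cb (x a) ^ (3 : ℝ) = ∑ a ∈ s, x a := by
    refine Finset.sum_congr rfl fun a ha => ?_
    unfold cb
    rw [← Real.rpow_mul (hx a ha)]
    norm_num
  have e2 : ∑ a ∈ s, (cb (t a) ^ 2) ^ (3 / 2 : ℝ) = ∑ a ∈ s, t a := by
    refine Finset.sum_congr rfl fun a ha => ?_
    unfold cb
    rw [← Real.rpow_natCast, ← Real.rpow_mul (ht a ha), ← Real.rpow_mul (ht a ha)]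
    norm_num
  rw [e1, e2]
  have h3 : 0 ≤ ∑ a ∈ s, t a := Finset.sum_nonneg ht
  unfold cb
  rw [← Real.rpow_natCast, ← Real.rpow_mul h3]
  norm_num

/-- Three-dimensional discrete Loomis–Whitney inequality (square roots). -/
lemma lw3 {α β γ : Type*} (s : Finset α) (t : Finset β) (u : Finset γ)
    (f : β → γ → ℝ) (g : α → γ → ℝ) (h : α → β → ℝ)
    (hf : ∀ b c, 0 ≤ f b c) (hg : ∀ a c, 0 ≤ g a c) (hh : ∀ a b, 0 ≤ h a b) :
    ∑ a ∈ s, ∑ b ∈ t, ∑ c ∈ u, √(f b c) * √(g a c) * √(h a b) ≤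
      √(∑ b ∈ t, ∑ c ∈ u, f b c) * √(∑ a ∈ s, ∑ c ∈ u, g a c) * √(∑ a ∈ s, ∑ b ∈ t, h a b) := by
  have e1 : ∑ a ∈ s, ∑ b ∈ t, ∑ c ∈ u, √(f b c) * √(g a c) * √(h a b) =
      ∑ b ∈ t, ∑ c ∈ u, √(f b c) * ∑ a ∈ s, √(g a c) * √(h a b) := by
    rw [Finset.sum_comm]
    refine Finset.sum_congr rfl fun b _ => ?_
    rw [Finset.sum_comm]
    refine Finset.sum_congr rfl fun c _ => ?_
    rw [Finset.mul_sum]
    refine Finset.sum_congr rfl fun a _ => ?_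
    ring
  rw [e1]
  have e2 : ∀ b c, ∑ a ∈ s, √(g a c) * √(h a b) ≤
      √(∑ a ∈ s, g a c) * √(∑ a ∈ s, h a b) := fun b c =>
    Real.sum_sqrt_mul_sqrt_le s (fun a => hg a c) (fun a => hh a b)
  have e3 : ∑ b ∈ t, ∑ c ∈ u, √(f b c) * ∑ a ∈ s, √(g a c) * √(h a b) ≤
      ∑ p ∈ t ×ˢ u, √(f p.1 p.2) * √((∑ a ∈ s, g a p.2) * (∑ a ∈ s, h a p.1)) := by
    rw [Finset.sum_product]
    refine Finset.sum_le_sum fun b _ => Finset.sum_le_sum fun c _ => ?_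
    refine mul_le_mul_of_nonneg_left ?_ (Real.sqrt_nonneg _)
    rw [Real.sqrt_mul (Finset.sum_nonneg fun a _ => hg a c)]
    exact e2 b c
  refine e3.trans ?_
  refine (Real.sum_sqrt_mul_sqrt_le (t ×ˢ u) (f := fun p => f p.1 p.2)
    (g := fun p => (∑ a ∈ s, g a p.2) * (∑ a ∈ s, h a p.1)) (fun p => hf p.1 p.2)
    (fun p => mul_nonneg (Finset.sum_nonneg fun a _ => hg a _)
      (Finset.sum_nonneg fun a _ => hh a _))).trans ?_
  have e4 : ∑ p ∈ t ×ˢ u, (∑ a ∈ s, g a p.2) * (∑ a ∈ s, h a p.1) =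
      (∑ a ∈ s, ∑ c ∈ u, g a c) * (∑ a ∈ s, ∑ b ∈ t, h a b) := by
    rw [Finset.sum_product, Finset.sum_comm (s := s) (t := u), Finset.sum_comm (s := s) (t := t),
      Finset.sum_mul_sum, Finset.sum_comm]
  rw [e4, Finset.sum_product, Real.sqrt_mul (Finset.sum_nonneg fun a _ =>
    Finset.sum_nonneg fun c _ => hg a c), mul_assoc]

/-- Hölder for three cube roots. -/
lemma holder333 {α : Type*} (s : Finset α) (x y z : α → ℝ) (hx : ∀ a, 0 ≤ x a)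
    (hy : ∀ a, 0 ≤ y a) (hz : ∀ a, 0 ≤ z a) :
    ∑ a ∈ s, cb (x a) * (cb (y a) * cb (z a)) ≤
      cb (∑ a ∈ s, x a) * (cb (∑ a ∈ s, y a) * cb (∑ a ∈ s, z a)) := by
  have h1 := holder32 s x (fun a => √(y a) * √(z a)) (fun a _ => hx a)
    (fun a _ => by positivity)
  have e1 : ∑ a ∈ s, cb (x a) * cb (√(y a) * √(z a)) ^ 2 =
      ∑ a ∈ s, cb (x a) * (cb (y a) * cb (z a)) := by
    refine Finset.sum_congr rfl fun a _ => ?_
    rw [cb_mul (Real.sqrt_nonneg _) (Real.sqrt_nonneg _), mul_pow, cb_sqrt_sq (hy a),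
      cb_sqrt_sq (hz a)]
  rw [e1] at h1
  refine h1.trans ?_
  refine mul_le_mul_of_nonneg_left ?_ (cb_nonneg (Finset.sum_nonneg fun a _ => hx a))
  have h2 := Real.sum_sqrt_mul_sqrt_le s (f := y) (g := z) (fun a => hy a) (fun a => hz a)
  have hY : 0 ≤ ∑ a ∈ s, y a := Finset.sum_nonneg fun a _ => hy a
  have hZ : 0 ≤ ∑ a ∈ s, z a := Finset.sum_nonneg fun a _ => hz a
  have h0 : 0 ≤ ∑ a ∈ s, √(y a) * √(z a) := Finset.sum_nonneg fun a _ => by positivity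
  calc cb (∑ a ∈ s, √(y a) * √(z a)) ^ 2 ≤ cb (√(∑ a ∈ s, y a) * √(∑ a ∈ s, z a)) ^ 2 :=
        pow_le_pow_left₀ (cb_nonneg h0) (cb_mono h0 h2) 2
    _ = cb (∑ a ∈ s, y a) * cb (∑ a ∈ s, z a) := by
        rw [cb_mul (Real.sqrt_nonneg _) (Real.sqrt_nonneg _), mul_pow, cb_sqrt_sq hY,
          cb_sqrt_sq hZ]

/-- **Discrete Loomis–Whitney inequality in dimension four** (cube roots). -/
lemma lw4 {α β γ δ : Type*} (s : Finset α) (t : Finset β) (u : Finset γ) (v : Finset δ)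
    (f0 : β → γ → δ → ℝ) (f1 : α → γ → δ → ℝ) (f2 : α → β → δ → ℝ) (f3 : α → β → γ → ℝ)
    (h0 : ∀ b c d, 0 ≤ f0 b c d) (h1 : ∀ a c d, 0 ≤ f1 a c d) (h2 : ∀ a b d, 0 ≤ f2 a b d)
    (h3 : ∀ a b c, 0 ≤ f3 a b c) :
    ∑ a ∈ s, ∑ b ∈ t, ∑ c ∈ u, ∑ d ∈ v,
      cb (f0 b c d) * (cb (f1 a c d) * (cb (f2 a b d) * cb (f3 a b c))) ≤
      cb (∑ b ∈ t, ∑ c ∈ u, ∑ d ∈ v, f0 b c d) *
        (cb (∑ a ∈ s, ∑ c ∈ u, ∑ d ∈ v, f1 a c d) *
          (cb (∑ a ∈ s, ∑ b ∈ t, ∑ d ∈ v, f2 a b d) *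
            cb (∑ a ∈ s, ∑ b ∈ t, ∑ c ∈ u, f3 a b c))) := by
  set F0 : ℝ := ∑ b ∈ t, ∑ c ∈ u, ∑ d ∈ v, f0 b c d with hF0
  set F1 : α → ℝ := fun a => ∑ c ∈ u, ∑ d ∈ v, f1 a c d with hF1
  set F2 : α → ℝ := fun a => ∑ b ∈ t, ∑ d ∈ v, f2 a b d with hF2
  set F3 : α → ℝ := fun a => ∑ b ∈ t, ∑ c ∈ u, f3 a b c with hF3
  have n0 : 0 ≤ F0 := Finset.sum_nonneg fun b _ => Finset.sum_nonneg fun c _ =>
    Finset.sum_nonneg fun d _ => h0 b c d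
  have n1 : ∀ a, 0 ≤ F1 a := fun a => Finset.sum_nonneg fun b _ => Finset.sum_nonneg fun c _ =>
    h1 a b c
  have n2 : ∀ a, 0 ≤ F2 a := fun a => Finset.sum_nonneg fun b _ => Finset.sum_nonneg fun c _ =>
    h2 a b c
  have n3 : ∀ a, 0 ≤ F3 a := fun a => Finset.sum_nonneg fun b _ => Finset.sum_nonneg fun c _ =>
    h3 a b c
  have key : ∀ a ∈ s, ∑ b ∈ t, ∑ c ∈ u, ∑ d ∈ v,
      cb (f0 b c d) * (cb (f1 a c d) * (cb (f2 a b d) * cb (f3 a b c))) ≤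
      cb F0 * (cb (F1 a) * (cb (F2 a) * cb (F3 a))) := by
    intro a _
    have g1 := holder32 (t ×ˢ (u ×ˢ v)) (fun q => f0 q.1 q.2.1 q.2.2)
      (fun q => √(f1 a q.2.1 q.2.2) * √(f2 a q.1 q.2.2) * √(f3 a q.1 q.2.1))
      (fun q _ => h0 _ _ _) (fun q _ => by positivity)
    have g2 : ∑ b ∈ t, ∑ c ∈ u, ∑ d ∈ v,
        cb (f0 b c d) * (cb (f1 a c d) * (cb (f2 a b d) * cb (f3 a b c))) =
        ∑ q ∈ t ×ˢ (u ×ˢ v), cb (f0 q.1 q.2.1 q.2.2) *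
          cb (√(f1 a q.2.1 q.2.2) * √(f2 a q.1 q.2.2) * √(f3 a q.1 q.2.1)) ^ 2 := by
      rw [Finset.sum_product]
      refine Finset.sum_congr rfl fun b _ => ?_
      rw [Finset.sum_product]
      refine Finset.sum_congr rfl fun c _ => Finset.sum_congr rfl fun d _ => ?_
      rw [cb_mul (by positivity) (Real.sqrt_nonneg _), cb_mul (Real.sqrt_nonneg _)
        (Real.sqrt_nonneg _), mul_pow, mul_pow, cb_sqrt_sq (h1 _ _ _), cb_sqrt_sq (h2 _ _ _),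
        cb_sqrt_sq (h3 _ _ _)]
      ring
    rw [g2]
    refine g1.trans ?_
    have g3 : ∑ q ∈ t ×ˢ (u ×ˢ v), f0 q.1 q.2.1 q.2.2 = F0 := by
      rw [Finset.sum_product, hF0]
      refine Finset.sum_congr rfl fun b _ => ?_
      rw [Finset.sum_product]
    have g4 : ∑ q ∈ t ×ˢ (u ×ˢ v), √(f1 a q.2.1 q.2.2) * √(f2 a q.1 q.2.2) * √(f3 a q.1 q.2.1) ≤
        √(F1 a) * √(F2 a) * √(F3 a) := by
      rw [Finset.sum_product]
      have := lw3 t u v (f1 a) (f2 a) (f3 a) (h1 a) (h2 a) (h3 a)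
      refine le_trans (le_of_eq ?_) this
      refine Finset.sum_congr rfl fun b _ => ?_
      rw [Finset.sum_product]
    rw [g3]
    refine mul_le_mul_of_nonneg_left ?_ (cb_nonneg n0)
    have g5 : 0 ≤ ∑ q ∈ t ×ˢ (u ×ˢ v),
        √(f1 a q.2.1 q.2.2) * √(f2 a q.1 q.2.2) * √(f3 a q.1 q.2.1) :=
      Finset.sum_nonneg fun q _ => by positivity
    calc cb (∑ q ∈ t ×ˢ (u ×ˢ v),
          √(f1 a q.2.1 q.2.2) * √(f2 a q.1 q.2.2) * √(f3 a q.1 q.2.1)) ^ 2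
        ≤ cb (√(F1 a) * √(F2 a) * √(F3 a)) ^ 2 :=
          pow_le_pow_left₀ (cb_nonneg g5) (cb_mono g5 g4) 2
      _ = cb (F1 a) * (cb (F2 a) * cb (F3 a)) := by
          rw [cb_mul (by positivity) (Real.sqrt_nonneg _), cb_mul (Real.sqrt_nonneg _)
            (Real.sqrt_nonneg _), mul_pow, mul_pow, cb_sqrt_sq (n1 _), cb_sqrt_sq (n2 _),
            cb_sqrt_sq (n3 _)]
          ring
  refine (Finset.sum_le_sum key).trans ?_
  rw [← Finset.mul_sum]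
  exact mul_le_mul_of_nonneg_left (holder333 s F1 F2 F3 n1 n2 n3) (cb_nonneg n0)

end Crest.Agent.R136.MK4
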