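import Crest.Agent.R136.Mk4a_418

/-!
# 4-linear Kakeya in R^4, part b (helper418)

Near-axis multilinear Kakeya (Guth's induction on scales) for abstract sets `S l ⊂ R^4` any two
points of which are seen in direction `e_j` up to slope `1/N`.
-/

set_option autoImplicit false

namespace Crest.Agent.R136.MK4

open Finset

/-- `x` is within sup-distance `r` of the set `S` -/
def Nr (S : Set (Fin 4 → ℝ)) (x : Fin 4 → ℝ) (r : ℝ) : Prop := ∃ p ∈ S, ∀ i, |x i - p i| ≤ r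

lemma Nr.mono {S : Set (Fin 4 → ℝ)} {x : Fin 4 → ℝ} {r r' : ℝ} (h : Nr S x r) (hr : r ≤ r') :
    Nr S x r' := by
  obtain ⟨p, hp, hs⟩ := h
  exact ⟨p, hp, fun i => (hs i).trans hr⟩

lemma Nr.shift {S : Set (Fin 4 → ℝ)} {x y : Fin 4 → ℝ} {r d : ℝ} (h : Nr S x r)
    (hd : ∀ i, |y i - x i| ≤ d) : Nr S y (r + d) := by
  obtain ⟨p, hp, hs⟩ := h
  refine ⟨p, hp, fun i => ?_⟩
  have : y i - p i = (x i - p i) + (y i - x i) := by ring
  rw [this]
  exact (abs_add_le _ _).trans (add_le_add (hs i) (hd i))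

/-- integer points as real vectors, scaled by `σ` -/
def pt (σ : ℝ) (k : Fin 4 → ℤ) : Fin 4 → ℝ := fun i => σ * (k i : ℝ)

/-- the parent relation -/
lemma near_parent {σ : ℝ} (hσ : 0 ≤ σ) {N : ℕ} {K : Fin 4 → ℤ} {a : Fin 4 → ℤ}
    (ha0 : ∀ i, 0 ≤ a i) (haN : ∀ i, a i < N) {S : Set (Fin 4 → ℝ)}
    (h : Nr S (pt σ (fun i => N * K i + a i)) σ) :
    Nr S (pt (σ * N) K) (σ * N) := by
  have h1 : Nr S (pt (σ * N) K) (σ + σ * (N - 1)) := by
    refine h.shift fun i => ?_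
    simp only [pt]
    push_cast
    have : σ * N * (K i : ℝ) - σ * (N * K i + a i) = -(σ * a i) := by ring
    rw [this, abs_neg, abs_mul, abs_of_nonneg hσ]
    refine mul_le_mul_of_nonneg_left ?_ hσ
    have h0 : (0 : ℝ) ≤ a i := by exact_mod_cast ha0 i
    have h2 : (a i : ℝ) + 1 ≤ N := by exact_mod_cast haN i
    rw [abs_of_nonneg h0]
    linarith
  refine h1.mono (le_of_eq ?_)
  ring

/-- near-axis set in direction `j` -/
def AxS (N : ℕ) (j : Fin 4) (S : Set (Fin 4 → ℝ)) : Prop :=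
  ∀ p ∈ S, ∀ q ∈ S, ∀ i, i ≠ j → |p i - q i| ≤ 1 / (N : ℝ) * |p j - q j|

lemma column {σ : ℝ} (hσ : 0 < σ) {N : ℕ} (hN : 1 ≤ N) {j : Fin 4} {S : Set (Fin 4 → ℝ)}
    (he : AxS N j S) {k k' : Fin 4 → ℤ}
    (hk : Nr S (pt σ k) σ) (hk' : Nr S (pt σ k') σ) (hj : |k j - k' j| ≤ N)
    (i : Fin 4) (hi : i ≠ j) : |k i - k' i| ≤ 5 := by
  obtain ⟨p, hp, hs⟩ := hk
  obtain ⟨q, hq, hs'⟩ := hk'
  have hN' : (1 : ℝ) ≤ N := by exact_mod_cast hN
  have hjR : |(k j : ℝ) - k' j| ≤ N := by exact_mod_cast hj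
  have h1 := hs j
  have h2 := hs' j
  simp only [pt] at h1 h2
  have h3 : |p j - q j| ≤ σ * (N + 2) := by
    have : p j - q j = -(σ * k j - p j) + (σ * k' j - q j) + σ * (k j - k' j) := by
      ring
    rw [this]
    refine (abs_add_le _ _).trans ?_
    have h4 := abs_add_le (-(σ * (k j : ℝ) - p j)) (σ * (k' j : ℝ) - q j)
    rw [abs_neg] at h4
    have h5 : |σ * ((k j : ℝ) - k' j)| ≤ σ * N := by
      rw [abs_mul, abs_of_pos hσ]
      exact mul_le_mul_of_nonneg_left hjR hσ.le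
    nlinarith
  have g1 := hs i
  have g2 := hs' i
  simp only [pt] at g1 g2
  have h6 : |σ * ((k i : ℝ) - k' i)| ≤ σ * 5 := by
    have : σ * ((k i : ℝ) - k' i) = (σ * k i - p i) - (σ * k' i - q i) + (p i - q i) := by ring
    rw [this]
    refine (abs_add_le _ _).trans ?_
    have h7 := abs_sub (σ * (k i : ℝ) - p i) (σ * k' i - q i)
    have h8 : |p i - q i| ≤ σ * 3 := by
      calc |p i - q i| ≤ 1 / (N : ℝ) * |p j - q j| := he p hp q hq i hi
        _ ≤ (1 / (N : ℝ)) * (σ * (N + 2)) :=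
            mul_le_mul_of_nonneg_left h3 (by positivity)
        _ ≤ σ * 3 := by
            rw [one_div, inv_mul_le_iff₀ (by linarith)]
            nlinarith
    linarith
  rw [abs_mul, abs_of_pos hσ] at h6
  have h9 := le_of_mul_le_mul_left h6 hσ
  exact_mod_cast h9

lemma card_close {N : ℕ} (P : ℕ → ℕ → ℕ → Prop)
    [DecidablePred fun q : ℕ × (ℕ × ℕ) => P q.1 q.2.1 q.2.2]
    (h : ∀ b c d b' c' d', b < N → c < N → d < N → b' < N → c' < N → d' < N → P b c d →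
      P b' c' d' → |(b : ℤ) - b'| ≤ 5 ∧ |(c : ℤ) - c'| ≤ 5 ∧ |(d : ℤ) - d'| ≤ 5) :
    (((range N ×ˢ (range N ×ˢ range N)).filter
      fun q : ℕ × (ℕ × ℕ) => P q.1 q.2.1 q.2.2).card : ℝ) ≤ 1331 := by
  classical
  by_cases hne : ((range N ×ˢ (range N ×ˢ range N)).filter
      fun q : ℕ × (ℕ × ℕ) => P q.1 q.2.1 q.2.2).Nonempty
  · obtain ⟨⟨b0, c0, d0⟩, h0⟩ := hne
    simp only [mem_filter, mem_product, mem_range] at h0
    have hsub : ((range N ×ˢ (range N ×ˢ range N)).filter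
        fun q : ℕ × (ℕ × ℕ) => P q.1 q.2.1 q.2.2) ⊆
        (Finset.Icc (b0 - 5) (b0 + 5)) ×ˢ ((Finset.Icc (c0 - 5) (c0 + 5)) ×ˢ
          (Finset.Icc (d0 - 5) (d0 + 5))) := by
      intro q hq
      simp only [mem_filter, mem_product, mem_range] at hq
      have := h q.1 q.2.1 q.2.2 b0 c0 d0 hq.1.1 hq.1.2.1 hq.1.2.2 h0.1.1 h0.1.2.1 h0.1.2.2
        hq.2 h0.2
      simp only [mem_product, mem_Icc]
      obtain ⟨h1, h2, h3⟩ := this
      rw [abs_le] at h1 h2 h3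
      omega
    have := Finset.card_le_card hsub
    rw [Finset.card_product, Finset.card_product, Nat.card_Icc, Nat.card_Icc,
      Nat.card_Icc] at this
    have h3 : b0 + 5 + 1 - (b0 - 5) ≤ 11 := by omega
    have h4 : c0 + 5 + 1 - (c0 - 5) ≤ 11 := by omega
    have h4' : d0 + 5 + 1 - (d0 - 5) ≤ 11 := by omega
    have h5 : ((range N ×ˢ (range N ×ˢ range N)).filter
        fun q : ℕ × (ℕ × ℕ) => P q.1 q.2.1 q.2.2).card ≤ 11 * (11 * 11) :=
      this.trans (Nat.mul_le_mul h3 (Nat.mul_le_mul h4 h4'))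
    calc (((range N ×ˢ (range N ×ˢ range N)).filter
        fun q : ℕ × (ℕ × ℕ) => P q.1 q.2.1 q.2.2).card : ℝ)
        ≤ ((11 * (11 * 11) : ℕ) : ℝ) := by exact_mod_cast h5
      _ = 1331 := by norm_num
  · rw [Finset.not_nonempty_iff_eq_empty] at hne
    rw [hne]
    norm_num

open Classical in
/-- total weight of the sets passing near the cube `k` at scale `σ` -/
noncomputable def W {ι : Type*} (s : Finset ι) (S : ι → Set (Fin 4 → ℝ)) (w : ι → ℝ) (σ : ℝ)
    (k : Fin 4 → ℤ) : ℝ :=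
  ∑ l ∈ s, if Nr (S l) (pt σ k) σ then w l else 0

lemma W_nonneg {ι : Type*} (s : Finset ι) (S : ι → Set (Fin 4 → ℝ)) (w : ι → ℝ)
    (hw : ∀ l ∈ s, 0 ≤ w l) (σ : ℝ) (k : Fin 4 → ℤ) : 0 ≤ W s S w σ k := by
  classical
  refine Finset.sum_nonneg fun l hl => ?_
  split_ifs
  · exact hw l hl
  · exact le_rfl

lemma W_le {ι : Type*} (s : Finset ι) (S : ι → Set (Fin 4 → ℝ)) (w : ι → ℝ)
    (hw : ∀ l ∈ s, 0 ≤ w l) (σ : ℝ) (k : Fin 4 → ℤ) : W s S w σ k ≤ ∑ l ∈ s, w l := by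
  classical
  refine Finset.sum_le_sum fun l hl => ?_
  split_ifs
  · exact le_rfl
  · exact hw l hl

/-- the child cube -/
def ch (N : ℕ) (K : Fin 4 → ℤ) (a b c d : ℕ) : Fin 4 → ℤ :=
  fun i => N * K i + (![(a : ℤ), b, c, d] i)

open Classical in
/-- abstract column count -/
lemma col_sum {ι : Type*} (s : Finset ι) (w : ι → ℝ) (hw : ∀ l ∈ s, 0 ≤ w l) (N : ℕ)
    (Q : ι → ℕ → ℕ → ℕ → ℕ → Prop) (R : ι → Prop)
    (hR : ∀ l ∈ s, ∀ a b c d, a < N → b < N → c < N → d < N → Q l a b c d → R l)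
    (hcol : ∀ l ∈ s, ∀ a b c d a' b' c' d', a < N → b < N → c < N → d < N → a' < N → b' < N →
      c' < N → d' < N → Q l a b c d → Q l a' b' c' d' →
      |(b : ℤ) - b'| ≤ 5 ∧ |(c : ℤ) - c'| ≤ 5 ∧ |(d : ℤ) - d'| ≤ 5) :
    ∑ b ∈ range N, ∑ c ∈ range N, ∑ d ∈ range N,
      ∑ l ∈ s, (if ∃ a < N, Q l a b c d then w l else 0) ≤
      1331 * ∑ l ∈ s, (if R l then w l else 0) := by
  have e0 : ∑ b ∈ range N, ∑ c ∈ range N, ∑ d ∈ range N,
      ∑ l ∈ s, (if ∃ a < N, Q l a b c d then w l else 0) =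
      ∑ q ∈ range N ×ˢ (range N ×ˢ range N),
        ∑ l ∈ s, (if ∃ a < N, Q l a q.1 q.2.1 q.2.2 then w l else 0) := by
    rw [Finset.sum_product]
    refine Finset.sum_congr rfl fun b _ => ?_
    rw [Finset.sum_product]
  have e1 : ∑ b ∈ range N, ∑ c ∈ range N, ∑ d ∈ range N,
      ∑ l ∈ s, (if ∃ a < N, Q l a b c d then w l else 0) =
      ∑ l ∈ s, w l * (((range N ×ˢ (range N ×ˢ range N)).filter fun q : ℕ × (ℕ × ℕ) =>
        ∃ a < N, Q l a q.1 q.2.1 q.2.2).card : ℝ) := by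
    rw [e0, Finset.sum_comm]
    refine Finset.sum_congr rfl fun l _ => ?_
    rw [Finset.card_filter]
    push_cast
    rw [Finset.mul_sum]
    refine Finset.sum_congr rfl fun q _ => ?_
    split_ifs <;> simp
  rw [e1, Finset.mul_sum]
  refine Finset.sum_le_sum fun l hl => ?_
  by_cases hRl : R l
  · rw [if_pos hRl, mul_comm]
    refine mul_le_mul_of_nonneg_right ?_ (hw l hl)
    refine card_close (fun b c d => ∃ a < N, Q l a b c d) ?_
    rintro b c d b' c' d' hb hc hd hb' hc' hd' ⟨a, ha, h1⟩ ⟨a', ha', h2⟩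
    exact hcol l hl a b c d a' b' c' d' ha hb hc hd ha' hb' hc' hd' h1 h2
  · rw [if_neg hRl]
    have : ((range N ×ˢ (range N ×ˢ range N)).filter fun q : ℕ × (ℕ × ℕ) =>
        ∃ a < N, Q l a q.1 q.2.1 q.2.2) = ∅ := by
      rw [Finset.filter_eq_empty_iff]
      rintro ⟨b, c, d⟩ hq ⟨a, ha, h1⟩
      simp only [mem_product, mem_range] at hq
      exact hRl (hR l hl a b c d ha hq.1 hq.2.1 hq.2.2 h1)
    rw [this]
    simp

/-- the product of the four cube roots -/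
noncomputable def P4 {ι : Type*} (s : Fin 4 → Finset ι) (S : ι → Set (Fin 4 → ℝ)) (w : ι → ℝ)
    (σ : ℝ) (k : Fin 4 → ℤ) : ℝ :=
  cb (W (s 0) S w σ k) * (cb (W (s 1) S w σ k) * (cb (W (s 2) S w σ k) * cb (W (s 3) S w σ k)))

lemma P4_nonneg {ι : Type*} (s : Fin 4 → Finset ι) (S : ι → Set (Fin 4 → ℝ)) (w : ι → ℝ)
    (hw : ∀ j, ∀ l ∈ s j, 0 ≤ w l) (σ : ℝ) (k : Fin 4 → ℤ) : 0 ≤ P4 s S w σ k := by
  unfold P4
  have := fun j => cb_nonneg (W_nonneg (s j) S w (hw j) σ k)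
  exact mul_nonneg (this 0) (mul_nonneg (this 1) (mul_nonneg (this 2) (this 3)))

open Classical in
/-- **local step** -/
lemma local_step {ι : Type*} (s : Fin 4 → Finset ι) (S : ι → Set (Fin 4 → ℝ)) (w : ι → ℝ)
    (hw : ∀ j, ∀ l ∈ s j, 0 ≤ w l) {N : ℕ} (hN : 1 ≤ N)
    (hax : ∀ j, ∀ l ∈ s j, AxS N j (S l)) {σ : ℝ} (hσ : 0 < σ) (K : Fin 4 → ℤ) :
    ∑ a ∈ range N, ∑ b ∈ range N, ∑ c ∈ range N, ∑ d ∈ range N,
      P4 s S w σ (ch N K a b c d) ≤ 14641 * P4 s S w (σ * N) K := by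
  -- child nearness predicate
  set Q : ι → ℕ → ℕ → ℕ → ℕ → Prop := fun l a b c d => Nr (S l) (pt σ (ch N K a b c d)) σ with hQ
  set R : ι → Prop := fun l => Nr (S l) (pt (σ * N) K) (σ * N) with hRdef
  have hR : ∀ l a b c d, a < N → b < N → c < N → d < N → Q l a b c d → R l := by
    intro l a b c d ha hb hc hd h
    refine near_parent hσ.le (a := ![(a : ℤ), b, c, d]) ?_ ?_ h
    · intro i; fin_cases i <;> simp
    · intro i; fin_cases i <;> simp [ha, hb, hc, hd]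
  have hclose : ∀ j, ∀ l ∈ s j, ∀ a b c d a' b' c' d', a < N → b < N → c < N → d < N →
      a' < N → b' < N → c' < N → d' < N → Q l a b c d → Q l a' b' c' d' → ∀ i, i ≠ j →
      |(![(a : ℤ), b, c, d] i) - (![(a' : ℤ), b', c', d'] i)| ≤ 5 := by
    intro j l hl a b c d a' b' c' d' ha hb hc hd ha' hb' hc' hd' h1 h2 i hi
    have h3 := column hσ hN (hax j l hl) h1 h2 ?_ i hi
    · have : (ch N K a b c d i) - (ch N K a' b' c' d' i) =
        (![(a : ℤ), b, c, d] i) - (![(a' : ℤ), b', c', d'] i) := by simp [ch]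
      rwa [this] at h3
    · have : (ch N K a b c d j) - (ch N K a' b' c' d' j) =
        (![(a : ℤ), b, c, d] j) - (![(a' : ℤ), b', c', d'] j) := by simp [ch]
      rw [this, abs_le]
      fin_cases j <;> simp <;> omega
  -- the four column functions
  set g0 : ℕ → ℕ → ℕ → ℝ := fun b c d =>
    ∑ l ∈ s 0, (if ∃ a < N, Q l a b c d then w l else 0) with hg0
  set g1 : ℕ → ℕ → ℕ → ℝ := fun a c d =>
    ∑ l ∈ s 1, (if ∃ b < N, Q l a b c d then w l else 0) with hg1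
  set g2 : ℕ → ℕ → ℕ → ℝ := fun a b d =>
    ∑ l ∈ s 2, (if ∃ c < N, Q l a b c d then w l else 0) with hg2
  set g3 : ℕ → ℕ → ℕ → ℝ := fun a b c =>
    ∑ l ∈ s 3, (if ∃ d < N, Q l a b c d then w l else 0) with hg3
  have n0 : ∀ b c d, 0 ≤ g0 b c d := fun b c d => Finset.sum_nonneg fun l hl => by
    split_ifs; exacts [hw 0 l hl, le_rfl]
  have n1 : ∀ b c d, 0 ≤ g1 b c d := fun b c d => Finset.sum_nonneg fun l hl => by
    split_ifs; exacts [hw 1 l hl, le_rfl]
  have n2 : ∀ b c d, 0 ≤ g2 b c d := fun b c d => Finset.sum_nonneg fun l hl => by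
    split_ifs; exacts [hw 2 l hl, le_rfl]
  have n3 : ∀ b c d, 0 ≤ g3 b c d := fun b c d => Finset.sum_nonneg fun l hl => by
    split_ifs; exacts [hw 3 l hl, le_rfl]
  have b0 : ∀ a b c d, a < N → W (s 0) S w σ (ch N K a b c d) ≤ g0 b c d := by
    intro a b c d ha
    refine Finset.sum_le_sum fun l hl => ?_
    by_cases h : Q l a b c d
    · rw [if_pos h, if_pos ⟨a, ha, h⟩]
    · rw [if_neg h]
      split_ifs; exacts [hw 0 l hl, le_rfl]
  have b1 : ∀ a b c d, b < N → W (s 1) S w σ (ch N K a b c d) ≤ g1 a c d := by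
    intro a b c d ha
    refine Finset.sum_le_sum fun l hl => ?_
    by_cases h : Q l a b c d
    · rw [if_pos h, if_pos ⟨b, ha, h⟩]
    · rw [if_neg h]
      split_ifs; exacts [hw 1 l hl, le_rfl]
  have b2 : ∀ a b c d, c < N → W (s 2) S w σ (ch N K a b c d) ≤ g2 a b d := by
    intro a b c d ha
    refine Finset.sum_le_sum fun l hl => ?_
    by_cases h : Q l a b c d
    · rw [if_pos h, if_pos ⟨c, ha, h⟩]
    · rw [if_neg h]
      split_ifs; exacts [hw 2 l hl, le_rfl]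
  have b3 : ∀ a b c d, d < N → W (s 3) S w σ (ch N K a b c d) ≤ g3 a b c := by
    intro a b c d ha
    refine Finset.sum_le_sum fun l hl => ?_
    by_cases h : Q l a b c d
    · rw [if_pos h, if_pos ⟨d, ha, h⟩]
    · rw [if_neg h]
      split_ifs; exacts [hw 3 l hl, le_rfl]
  have t0 : ∑ b ∈ range N, ∑ c ∈ range N, ∑ d ∈ range N, g0 b c d ≤
      1331 * W (s 0) S w (σ * N) K := by
    refine col_sum (s 0) w (hw 0) N (fun l a b c d => Q l a b c d) R
      (fun l _ a b c d ha hb hc hd h => hR l a b c d ha hb hc hd h) ?_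
    intro l hl a b c d a' b' c' d' ha hb hc hd ha' hb' hc' hd' h1 h2
    have := hclose 0 l hl a b c d a' b' c' d' ha hb hc hd ha' hb' hc' hd' h1 h2
    exact ⟨by simpa using this 1 (by decide), by simpa using this 2 (by decide),
      by simpa using this 3 (by decide)⟩
  have t1 : ∑ a ∈ range N, ∑ c ∈ range N, ∑ d ∈ range N, g1 a c d ≤
      1331 * W (s 1) S w (σ * N) K := by
    refine col_sum (s 1) w (hw 1) N (fun l b a c d => Q l a b c d) R
      (fun l _ b a c d hb ha hc hd h => hR l a b c d ha hb hc hd h) ?_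
    intro l hl b a c d b' a' c' d' hb ha hc hd hb' ha' hc' hd' h1 h2
    have := hclose 1 l hl a b c d a' b' c' d' ha hb hc hd ha' hb' hc' hd' h1 h2
    exact ⟨by simpa using this 0 (by decide), by simpa using this 2 (by decide),
      by simpa using this 3 (by decide)⟩
  have t2 : ∑ a ∈ range N, ∑ b ∈ range N, ∑ d ∈ range N, g2 a b d ≤
      1331 * W (s 2) S w (σ * N) K := by
    refine col_sum (s 2) w (hw 2) N (fun l c a b d => Q l a b c d) R
      (fun l _ c a b d hc ha hb hd h => hR l a b c d ha hb hc hd h) ?_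
    intro l hl c a b d c' a' b' d' hc ha hb hd hc' ha' hb' hd' h1 h2
    have := hclose 2 l hl a b c d a' b' c' d' ha hb hc hd ha' hb' hc' hd' h1 h2
    exact ⟨by simpa using this 0 (by decide), by simpa using this 1 (by decide),
      by simpa using this 3 (by decide)⟩
  have t3 : ∑ a ∈ range N, ∑ b ∈ range N, ∑ c ∈ range N, g3 a b c ≤
      1331 * W (s 3) S w (σ * N) K := by
    refine col_sum (s 3) w (hw 3) N (fun l d a b c => Q l a b c d) R
      (fun l _ d a b c hd ha hb hc h => hR l a b c d ha hb hc hd h) ?_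
    intro l hl d a b c d' a' b' c' hd ha hb hc hd' ha' hb' hc' h1 h2
    have := hclose 3 l hl a b c d a' b' c' d' ha hb hc hd ha' hb' hc' hd' h1 h2
    exact ⟨by simpa using this 0 (by decide), by simpa using this 1 (by decide),
      by simpa using this 2 (by decide)⟩
  have m0 := W_nonneg (s 0) S w (hw 0) (σ * N) K
  have m1 := W_nonneg (s 1) S w (hw 1) (σ * N) K
  have m2 := W_nonneg (s 2) S w (hw 2) (σ * N) K
  have m3 := W_nonneg (s 3) S w (hw 3) (σ * N) K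
  have cW : ∀ j k, 0 ≤ cb (W (s j) S w σ k) := fun j k => cb_nonneg (W_nonneg (s j) S w (hw j) σ k)
  have s0 : 0 ≤ ∑ b ∈ range N, ∑ c ∈ range N, ∑ d ∈ range N, g0 b c d :=
    Finset.sum_nonneg fun b _ => Finset.sum_nonneg fun c _ => Finset.sum_nonneg fun d _ => n0 b c d
  have s1 : 0 ≤ ∑ b ∈ range N, ∑ c ∈ range N, ∑ d ∈ range N, g1 b c d :=
    Finset.sum_nonneg fun b _ => Finset.sum_nonneg fun c _ => Finset.sum_nonneg fun d _ => n1 b c d
  have s2 : 0 ≤ ∑ b ∈ range N, ∑ c ∈ range N, ∑ d ∈ range N, g2 b c d :=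
    Finset.sum_nonneg fun b _ => Finset.sum_nonneg fun c _ => Finset.sum_nonneg fun d _ => n2 b c d
  have s3 : 0 ≤ ∑ b ∈ range N, ∑ c ∈ range N, ∑ d ∈ range N, g3 b c d :=
    Finset.sum_nonneg fun b _ => Finset.sum_nonneg fun c _ => Finset.sum_nonneg fun d _ => n3 b c d
  calc ∑ a ∈ range N, ∑ b ∈ range N, ∑ c ∈ range N, ∑ d ∈ range N,
      P4 s S w σ (ch N K a b c d)
      ≤ ∑ a ∈ range N, ∑ b ∈ range N, ∑ c ∈ range N, ∑ d ∈ range N,
          cb (g0 b c d) * (cb (g1 a c d) * (cb (g2 a b d) * cb (g3 a b c))) := by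
        refine Finset.sum_le_sum fun a ha => Finset.sum_le_sum fun b hb =>
          Finset.sum_le_sum fun c hc => Finset.sum_le_sum fun d hd => ?_
        rw [mem_range] at ha hb hc hd
        unfold P4
        have k0 := cb_mono (W_nonneg (s 0) S w (hw 0) σ _) (b0 a b c d ha)
        have k1 := cb_mono (W_nonneg (s 1) S w (hw 1) σ _) (b1 a b c d hb)
        have k2 := cb_mono (W_nonneg (s 2) S w (hw 2) σ _) (b2 a b c d hc)
        have k3 := cb_mono (W_nonneg (s 3) S w (hw 3) σ _) (b3 a b c d hd)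
        refine mul_le_mul k0 (mul_le_mul k1 (mul_le_mul k2 k3 (cW 3 _) (cb_nonneg (n2 _ _ _)))
          (mul_nonneg (cW 2 _) (cW 3 _)) (cb_nonneg (n1 _ _ _)))
          (mul_nonneg (cW 1 _) (mul_nonneg (cW 2 _) (cW 3 _))) (cb_nonneg (n0 _ _ _))
    _ ≤ cb (∑ b ∈ range N, ∑ c ∈ range N, ∑ d ∈ range N, g0 b c d) *
          (cb (∑ a ∈ range N, ∑ c ∈ range N, ∑ d ∈ range N, g1 a c d) *
          (cb (∑ a ∈ range N, ∑ b ∈ range N, ∑ d ∈ range N, g2 a b d) *
          cb (∑ a ∈ range N, ∑ b ∈ range N, ∑ c ∈ range N, g3 a b c))) :=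
        lw4 _ _ _ _ g0 g1 g2 g3 n0 n1 n2 n3
    _ ≤ cb (1331 * W (s 0) S w (σ * N) K) * (cb (1331 * W (s 1) S w (σ * N) K) *
          (cb (1331 * W (s 2) S w (σ * N) K) * cb (1331 * W (s 3) S w (σ * N) K))) := by
        have k0 := cb_mono s0 t0
        have k1 := cb_mono s1 t1
        have k2 := cb_mono s2 t2
        have k3 := cb_mono s3 t3
        have z1 := cb_nonneg s1
        have z2 := cb_nonneg s2
        have z3 := cb_nonneg s3
        have y0 : 0 ≤ cb (1331 * W (s 0) S w (σ * N) K) := cb_nonneg (by positivity)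
        have y1 : 0 ≤ cb (1331 * W (s 1) S w (σ * N) K) := cb_nonneg (by positivity)
        have y2 : 0 ≤ cb (1331 * W (s 2) S w (σ * N) K) := cb_nonneg (by positivity)
        exact mul_le_mul k0 (mul_le_mul k1 (mul_le_mul k2 k3 z3 y2)
          (mul_nonneg z2 z3) y1) (mul_nonneg z1 (mul_nonneg z2 z3)) y0
    _ = 14641 * P4 s S w (σ * N) K := by
        rw [cb_mul (by norm_num) m0, cb_mul (by norm_num) m1, cb_mul (by norm_num) m2,
          cb_mul (by norm_num) m3, cb_1331]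
        unfold P4
        ring

/-- the parent of a cell -/
def par (N : ℕ) (k : Fin 4 → ℤ) : Fin 4 → ℤ := fun i => k i / (N : ℤ)

lemma sum_children {N : ℕ} (hN : 1 ≤ N) (F : (Fin 4 → ℤ) → ℝ) (hF : ∀ k, 0 ≤ F k)
    (X : Finset (Fin 4 → ℤ)) (K : Fin 4 → ℤ) (hX : ∀ k ∈ X, par N k = K) :
    ∑ k ∈ X, F k ≤ ∑ a ∈ range N, ∑ b ∈ range N, ∑ c ∈ range N, ∑ d ∈ range N,
      F (ch N K a b c d) := by
  classical
  have hN0 : (0 : ℤ) < N := by exact_mod_cast hN
  have e2 : ∑ a ∈ range N, ∑ b ∈ range N, ∑ c ∈ range N, ∑ d ∈ range N, F (ch N K a b c d) =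
      ∑ q ∈ range N ×ˢ (range N ×ˢ (range N ×ˢ range N)),
        F (ch N K q.1 q.2.1 q.2.2.1 q.2.2.2) := by
    rw [Finset.sum_product]
    refine Finset.sum_congr rfl fun a _ => ?_
    rw [Finset.sum_product]
    refine Finset.sum_congr rfl fun b _ => ?_
    rw [Finset.sum_product]
  rw [e2]
  set g : (Fin 4 → ℤ) → ℕ × (ℕ × (ℕ × ℕ)) := fun k =>
    ((k 0 % N).toNat, ((k 1 % N).toNat, ((k 2 % N).toNat, (k 3 % N).toNat))) with hg
  have hch : ∀ k ∈ X, ch N K (g k).1 (g k).2.1 (g k).2.2.1 (g k).2.2.2 = k := by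
    intro k hk
    have h1 := hX k hk
    funext i
    have h2 : k i / (N : ℤ) = K i := congrFun h1 i
    have h3 := Int.emod_nonneg (k i) (ne_of_gt hN0)
    have h4 := Int.mul_ediv_add_emod (k i) N
    simp only [ch, hg]
    fin_cases i <;> simp [Int.toNat_of_nonneg (Int.emod_nonneg _ (ne_of_gt hN0))] <;>
      simp at h2 h4 <;> rw [← h2] <;> linarith
  have hinj : Set.InjOn g (X : Set (Fin 4 → ℤ)) := by
    intro k hk k' hk' h
    rw [← hch k hk, ← hch k' hk', h]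
  have e3 : ∑ k ∈ X, F k = ∑ q ∈ X.image g, F (ch N K q.1 q.2.1 q.2.2.1 q.2.2.2) := by
    rw [Finset.sum_image hinj]
    exact Finset.sum_congr rfl fun k hk => by rw [hch k hk]
  rw [e3]
  refine Finset.sum_le_sum_of_subset_of_nonneg ?_ (fun q _ _ => hF _)
  intro q hq
  simp only [Finset.mem_image] at hq
  obtain ⟨k, hk, rfl⟩ := hq
  have h5 : ∀ i, (k i % (N : ℤ)).toNat < N := by
    intro i
    have h3 := Int.emod_nonneg (k i) (ne_of_gt hN0)
    have h4 := Int.emod_lt_of_pos (k i) hN0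
    omega
  simp only [hg, Finset.mem_product, Finset.mem_range]
  exact ⟨h5 0, h5 1, h5 2, h5 3⟩

/-- **near-axis multilinear Kakeya in dimension four** for abstract sets. -/
theorem axial {ι : Type*} (s : Fin 4 → Finset ι) (S : ι → Set (Fin 4 → ℝ)) (w : ι → ℝ)
    (hw : ∀ j, ∀ l ∈ s j, 0 ≤ w l) {N : ℕ} (hN : 1 ≤ N)
    (hax : ∀ j, ∀ l ∈ s j, AxS N j (S l)) (m : ℕ) : ∀ {σ : ℝ}, 0 < σ →
    ∀ (X : Finset (Fin 4 → ℤ)), (∀ k ∈ X, ∀ i, -((N : ℤ) ^ m) ≤ k i ∧ k i < (N : ℤ) ^ m) →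
    ∑ k ∈ X, P4 s S w σ k ≤ 16 * 14641 ^ m *
      (cb (∑ l ∈ s 0, w l) * (cb (∑ l ∈ s 1, w l) * (cb (∑ l ∈ s 2, w l) *
        cb (∑ l ∈ s 3, w l)))) := by
  classical
  have hs : ∀ j, 0 ≤ ∑ l ∈ s j, w l := fun j => Finset.sum_nonneg (hw j)
  have hT : 0 ≤ (cb (∑ l ∈ s 0, w l) * (cb (∑ l ∈ s 1, w l) * (cb (∑ l ∈ s 2, w l) *
        cb (∑ l ∈ s 3, w l)))) :=
    mul_nonneg (cb_nonneg (hs 0)) (mul_nonneg (cb_nonneg (hs 1)) (mul_nonneg (cb_nonneg (hs 2))
      (cb_nonneg (hs 3))))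
  induction m with
  | zero =>
    intro σ hσ X hX
    have hcard : X.card ≤ 16 := by
      have hsub : X ⊆ Fintype.piFinset (fun _ : Fin 4 => Finset.Ico (-1 : ℤ) 1) := by
        intro k hk
        rw [Fintype.mem_piFinset]
        intro i
        have := hX k hk i
        simp only [pow_zero] at this
        rw [Finset.mem_Ico]
        exact this
      have h1 := Finset.card_le_card hsub
      rw [Fintype.card_piFinset] at h1
      simpa using h1
    have hbd : ∀ k ∈ X, P4 s S w σ k ≤ (cb (∑ l ∈ s 0, w l) * (cb (∑ l ∈ s 1, w l) *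
        (cb (∑ l ∈ s 2, w l) * cb (∑ l ∈ s 3, w l)))) := by
      intro k _
      unfold P4
      have k0 := cb_mono (W_nonneg (s 0) S w (hw 0) σ k) (W_le (s 0) S w (hw 0) σ k)
      have k1 := cb_mono (W_nonneg (s 1) S w (hw 1) σ k) (W_le (s 1) S w (hw 1) σ k)
      have k2 := cb_mono (W_nonneg (s 2) S w (hw 2) σ k) (W_le (s 2) S w (hw 2) σ k)
      have k3 := cb_mono (W_nonneg (s 3) S w (hw 3) σ k) (W_le (s 3) S w (hw 3) σ k)
      have z := fun j => cb_nonneg (W_nonneg (s j) S w (hw j) σ k)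
      exact mul_le_mul k0 (mul_le_mul k1 (mul_le_mul k2 k3 (z 3) (cb_nonneg (hs 2)))
        (mul_nonneg (z 2) (z 3)) (cb_nonneg (hs 1)))
        (mul_nonneg (z 1) (mul_nonneg (z 2) (z 3))) (cb_nonneg (hs 0))
    refine (Finset.sum_le_card_nsmul X _ _ hbd).trans ?_
    rw [nsmul_eq_mul, pow_zero, mul_one]
    refine mul_le_mul_of_nonneg_right ?_ hT
    exact_mod_cast hcard
  | succ m ih =>
    intro σ hσ X hX
    have hN0 : (0 : ℤ) < N := by exact_mod_cast hN
    have hNR : (0 : ℝ) < N := by exact_mod_cast hN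
    have e1 : ∑ k ∈ X, P4 s S w σ k =
        ∑ K ∈ X.image (par N), ∑ k ∈ X.filter (fun k => par N k = K), P4 s S w σ k := by
      rw [Finset.sum_fiberwise_of_maps_to]
      intro k hk
      exact Finset.mem_image_of_mem _ hk
    rw [e1]
    have e2 : ∀ K ∈ X.image (par N), ∑ k ∈ X.filter (fun k => par N k = K), P4 s S w σ k ≤
        14641 * P4 s S w (σ * N) K := by
      intro K _
      refine (sum_children hN (P4 s S w σ) (P4_nonneg s S w hw σ) _ K ?_).trans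
        (local_step s S w hw hN hax hσ K)
      intro k hk
      exact (Finset.mem_filter.mp hk).2
    refine (Finset.sum_le_sum e2).trans ?_
    rw [← Finset.mul_sum]
    have h3 := ih (σ := σ * N) (by positivity) (X.image (par N)) ?_
    · calc 14641 * ∑ K ∈ X.image (par N), P4 s S w (σ * N) K
          ≤ 14641 * (16 * 14641 ^ m * (cb (∑ l ∈ s 0, w l) * (cb (∑ l ∈ s 1, w l) *
            (cb (∑ l ∈ s 2, w l) * cb (∑ l ∈ s 3, w l))))) :=
            mul_le_mul_of_nonneg_left h3 (by norm_num)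
        _ = _ := by rw [pow_succ]; ring
    · intro K hK i
      obtain ⟨k, hk, rfl⟩ := Finset.mem_image.mp hK
      have h4 := hX k hk i
      simp only [par]
      rw [pow_succ] at h4
      constructor
      · rw [Int.le_ediv_iff_mul_le hN0]
        linarith [h4.1]
      · rw [Int.ediv_lt_iff_lt_mul hN0]
        exact h4.2

end Crest.Agent.R136.MK4
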