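import Crest.Agent.R136.Mk4b_418

/-!
# 4-linear Kakeya in R^4, part c (helper418)

The transversal statement after a linear change of variables `G` (snapping of unit cells to cells
of the new coordinates), with the loss `R ^ ε`.
-/

set_option autoImplicit false

namespace Crest.Agent.R136.MK4

open Finset

/-- choice of the base of the induction and of the number of scales -/
lemma exists_scale (ε : ℝ) (hε : 0 < ε) : ∃ N : ℕ, 1 ≤ N ∧ ∀ R : ℝ, 1 ≤ R →
    ∃ m : ℕ, R < (N : ℝ) ^ m ∧ (14641 : ℝ) ^ m ≤ 14641 * R ^ ε := by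
  obtain ⟨N, hN⟩ := exists_nat_gt (max 2 ((14641 : ℝ) ^ (1 / ε)))
  have hN2 : (2 : ℝ) < N := lt_of_le_of_lt (le_max_left _ _) hN
  have hN3 : (14641 : ℝ) ^ (1 / ε) < N := lt_of_le_of_lt (le_max_right _ _) hN
  have hN0 : (0 : ℝ) < N := by linarith
  refine ⟨N, by have : (1 : ℝ) ≤ N := by linarith
                exact_mod_cast this, fun R hR => ?_⟩
  have h14 : (14641 : ℝ) ≤ (N : ℝ) ^ ε := by
    calc (14641 : ℝ) = ((14641 : ℝ) ^ (1 / ε)) ^ ε := by
          rw [← Real.rpow_mul (by norm_num)]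
          rw [one_div, inv_mul_cancel₀ hε.ne', Real.rpow_one]
      _ ≤ (N : ℝ) ^ ε := Real.rpow_le_rpow (by positivity) hN3.le hε.le
  have hex : ∃ m : ℕ, R < (N : ℝ) ^ m := pow_unbounded_of_one_lt R (by linarith)
  classical
  set m := Nat.find hex with hm
  have h1 : R < (N : ℝ) ^ m := Nat.find_spec hex
  refine ⟨m, h1, ?_⟩
  have hm0 : m ≠ 0 := by
    intro h0
    rw [h0, pow_zero] at h1
    linarith
  obtain ⟨n, hn⟩ := Nat.exists_eq_succ_of_ne_zero hm0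
  have h2 : (N : ℝ) ^ n ≤ R := by
    have := Nat.find_min hex (m := n) (by rw [← hm, hn]; exact Nat.lt_succ_self n)
    exact not_lt.mp this
  rw [hn, Nat.succ_eq_add_one, pow_succ]
  have h3 : (14641 : ℝ) ^ n ≤ R ^ ε := by
    calc (14641 : ℝ) ^ n ≤ ((N : ℝ) ^ ε) ^ n := pow_le_pow_left₀ (by norm_num) h14 n
      _ = ((N : ℝ) ^ n) ^ ε := by
          rw [← Real.rpow_natCast, ← Real.rpow_mul hN0.le, mul_comm, Real.rpow_mul hN0.le,
            Real.rpow_natCast]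
      _ ≤ R ^ ε := Real.rpow_le_rpow (by positivity) h2 hε.le
  nlinarith

/-- integer point as a real vector -/
def rv (k : Fin 4 → ℤ) : Fin 4 → ℝ := fun i => (k i : ℝ)

/-- snapping -/
noncomputable def snap (G : (Fin 4 → ℝ) → (Fin 4 → ℝ)) (σ : ℝ) (k : Fin 4 → ℤ) : Fin 4 → ℤ :=
  fun i => round (G (rv k) i / σ)

lemma snap_near (G : (Fin 4 → ℝ) → (Fin 4 → ℝ)) {σ : ℝ} (hσ : 0 < σ) (k : Fin 4 → ℤ) (i : Fin 4) :
    |pt σ (snap G σ k) i - G (rv k) i| ≤ σ / 2 := by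
  have h := abs_sub_round (G (rv k) i / σ)
  have e : pt σ (snap G σ k) i - G (rv k) i =
      -(σ * (G (rv k) i / σ - round (G (rv k) i / σ))) := by
    simp only [pt, snap]
    field_simp
    ring
  rw [e, abs_neg, abs_mul, abs_of_pos hσ]
  nlinarith

/-- fibres of the snapping map -/
lemma fibre_card (G : (Fin 4 → ℝ) → (Fin 4 → ℝ))
    (hadd : ∀ x y : Fin 4 → ℝ, ∀ i, G x i - G y i = G (fun i => x i - y i) i)
    (hback : ∀ (y : Fin 4 → ℝ) (t : ℝ), (∀ i, |G y i| ≤ t) → ∀ i, |y i| ≤ 8 * t)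
    {σ : ℝ} (hσ : 1 ≤ σ) (X : Finset (Fin 4 → ℤ)) (κ : Fin 4 → ℤ)
    (hX : ∀ k ∈ X, snap G σ k = κ) : (X.card : ℝ) ≤ (17 * σ) ^ 4 := by
  classical
  have hσ0 : 0 < σ := by linarith
  rcases X.eq_empty_or_nonempty with h0 | ⟨k0, hk0⟩
  · rw [h0]; simp; positivity
  · set b : ℤ := ⌊8 * σ⌋ with hb
    have hb0 : 0 ≤ b := Int.floor_nonneg.mpr (by linarith)
    have hsub : X ⊆ Fintype.piFinset (fun i : Fin 4 => Finset.Icc (k0 i - b) (k0 i + b)) := by
      intro k hk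
      rw [Fintype.mem_piFinset]
      intro i
      have h1 : ∀ i, |G (fun i => rv k i - rv k0 i) i| ≤ σ := by
        intro i
        rw [← hadd]
        have g1 := snap_near G hσ0 k i
        have g2 := snap_near G hσ0 k0 i
        rw [hX k hk] at g1
        rw [hX k0 hk0] at g2
        rw [abs_le] at g1 g2 ⊢
        constructor <;> linarith [g1.1, g1.2, g2.1, g2.2]
      have h2 := hback _ _ h1 i
      simp only [rv] at h2
      have h3 : |k i - k0 i| ≤ b := by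
        rw [hb, Int.le_floor]
        push_cast
        exact h2
      rw [abs_le] at h3
      rw [Finset.mem_Icc]
      constructor <;> linarith [h3.1, h3.2]
    have hc := Finset.card_le_card hsub
    rw [Fintype.card_piFinset] at hc
    have h4 : ∀ i : Fin 4, (Finset.Icc (k0 i - b) (k0 i + b)).card = (2 * b + 1).toNat := by
      intro i
      rw [Int.card_Icc]
      congr 1
      ring
    simp only [h4, Finset.prod_const, Finset.card_univ, Fintype.card_fin] at hc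
    have h5 : (((2 * b + 1).toNat : ℕ) : ℝ) ≤ 17 * σ := by
      have h6 : (((2 * b + 1).toNat : ℤ) : ℝ) = ((2 * b + 1 : ℤ) : ℝ) := by
        rw [Int.toNat_of_nonneg (by linarith)]
      have h7 : (((2 * b + 1).toNat : ℕ) : ℝ) = 2 * (b : ℝ) + 1 := by
        have : (((2 * b + 1).toNat : ℕ) : ℝ) = (((2 * b + 1).toNat : ℤ) : ℝ) := by push_cast; rfl
        rw [this, h6]; push_cast; ring
      rw [h7]
      have h8 : (b : ℝ) ≤ 8 * σ := Int.floor_le _
      linarith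
    calc (X.card : ℝ) ≤ (((2 * b + 1).toNat ^ 4 : ℕ) : ℝ) := by exact_mod_cast hc
      _ = (((2 * b + 1).toNat : ℕ) : ℝ) ^ 4 := by push_cast; rfl
      _ ≤ (17 * σ) ^ 4 := pow_le_pow_left₀ (by positivity) h5 4

/-- **Transversal 4-linear Kakeya**, after the change of variables `G`. -/
theorem transversal {ι : Type*} {N : ℕ} (hN : 1 ≤ N) (m : ℕ)
    (G : (Fin 4 → ℝ) → (Fin 4 → ℝ)) {L : ℝ} (hL : 1 ≤ L)
    (hadd : ∀ x y : Fin 4 → ℝ, ∀ i, G x i - G y i = G (fun i => x i - y i) i)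
    (hforw : ∀ (y : Fin 4 → ℝ) (t : ℝ), (∀ i, |y i| ≤ t) → ∀ i, |G y i| ≤ L * t)
    (hback : ∀ (y : Fin 4 → ℝ) (t : ℝ), (∀ i, |G y i| ≤ t) → ∀ i, |y i| ≤ 8 * t)
    (s : Fin 4 → Finset ι) (S : ι → Set (Fin 4 → ℝ)) (w : ι → ℝ)
    (hw : ∀ j, ∀ l ∈ s j, 0 ≤ w l)
    (hax : ∀ j, ∀ l ∈ s j, AxS N j (G '' S l))
    {r R : ℝ} (hr : 1 ≤ r) (hR : 1 ≤ R) (hRm : R < (N : ℝ) ^ m)
    (X : Finset (Fin 4 → ℤ)) (hX : ∀ k ∈ X, ∀ i, |(k i : ℝ)| ≤ R)
    (A : Fin 4 → (Fin 4 → ℤ) → Finset ι) (hA : ∀ k ∈ X, ∀ j, A j k ⊆ s j)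
    (hnear : ∀ k ∈ X, ∀ j, ∀ l ∈ A j k, Nr (S l) (rv k) r) :
    ∑ k ∈ X, (cb (∑ l ∈ A 0 k, w l) * (cb (∑ l ∈ A 1 k, w l) * (cb (∑ l ∈ A 2 k, w l) *
        cb (∑ l ∈ A 3 k, w l)))) ≤
      (34 * L * r) ^ 4 * (16 * 14641 ^ m * (cb (∑ l ∈ s 0, w l) * (cb (∑ l ∈ s 1, w l) *
        (cb (∑ l ∈ s 2, w l) * cb (∑ l ∈ s 3, w l))))) := by
  classical
  set σ : ℝ := 2 * L * r with hσdef
  have hLr : 1 ≤ L * r := by nlinarith
  have hσ1 : 1 ≤ σ := by rw [hσdef]; nlinarith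
  have hσ0 : 0 < σ := by linarith
  set S' : ι → Set (Fin 4 → ℝ) := fun l => G '' S l with hS'
  have hn : ∀ k ∈ X, ∀ j, ∀ l ∈ A j k, Nr (S' l) (pt σ (snap G σ k)) σ := by
    intro k hk j l hl
    obtain ⟨p, hp, hpr⟩ := hnear k hk j l hl
    refine ⟨G p, ⟨p, hp, rfl⟩, fun i => ?_⟩
    have h1 := snap_near G hσ0 k i
    have h2 : |G (rv k) i - G p i| ≤ L * r := by
      rw [hadd]
      exact hforw _ r hpr i
    have h3 : pt σ (snap G σ k) i - G p i =
        (pt σ (snap G σ k) i - G (rv k) i) + (G (rv k) i - G p i) := by ring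
    rw [h3]
    refine (abs_add_le _ _).trans ?_
    have : σ / 2 = L * r := by rw [hσdef]; ring
    linarith
  have hWk : ∀ k ∈ X, ∀ j, ∑ l ∈ A j k, w l ≤ W (s j) S' w σ (snap G σ k) := by
    intro k hk j
    unfold W
    have h1 : ∑ l ∈ A j k, w l =
        ∑ l ∈ A j k, (if Nr (S' l) (pt σ (snap G σ k)) σ then w l else 0) := by
      refine Finset.sum_congr rfl fun l hl => ?_
      rw [if_pos (hn k hk j l hl)]
    rw [h1]
    refine Finset.sum_le_sum_of_subset_of_nonneg (hA k hk j) ?_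
    intro l hl _
    split_ifs
    · exact hw j l hl
    · exact le_rfl
  have hA0 : ∀ k ∈ X, ∀ j, 0 ≤ ∑ l ∈ A j k, w l := fun k hk j =>
    Finset.sum_nonneg fun l hl => hw j l (hA k hk j hl)
  have e1 : ∀ k ∈ X, (cb (∑ l ∈ A 0 k, w l) * (cb (∑ l ∈ A 1 k, w l) * (cb (∑ l ∈ A 2 k, w l) *
        cb (∑ l ∈ A 3 k, w l)))) ≤ P4 s S' w σ (snap G σ k) := by
    intro k hk
    unfold P4
    have k0 := cb_mono (hA0 k hk 0) (hWk k hk 0)
    have k1 := cb_mono (hA0 k hk 1) (hWk k hk 1)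
    have k2 := cb_mono (hA0 k hk 2) (hWk k hk 2)
    have k3 := cb_mono (hA0 k hk 3) (hWk k hk 3)
    have z := fun j => cb_nonneg (hA0 k hk j)
    have y := fun j => cb_nonneg (W_nonneg (s j) S' w (hw j) σ (snap G σ k))
    exact mul_le_mul k0 (mul_le_mul k1 (mul_le_mul k2 k3 (z 3) (y 2))
      (mul_nonneg (z 2) (z 3)) (y 1)) (mul_nonneg (z 1) (mul_nonneg (z 2) (z 3))) (y 0)
  refine (Finset.sum_le_sum e1).trans ?_
  have e2 : ∑ k ∈ X, P4 s S' w σ (snap G σ k) =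
      ∑ κ ∈ X.image (snap G σ), ∑ k ∈ X.filter (fun k => snap G σ k = κ),
        P4 s S' w σ (snap G σ k) := by
    rw [Finset.sum_fiberwise_of_maps_to]
    intro k hk
    exact Finset.mem_image_of_mem _ hk
  rw [e2]
  have e3 : ∀ κ ∈ X.image (snap G σ), ∑ k ∈ X.filter (fun k => snap G σ k = κ),
        P4 s S' w σ (snap G σ k) ≤ (17 * σ) ^ 4 * P4 s S' w σ κ := by
    intro κ _
    have h1 : ∑ k ∈ X.filter (fun k => snap G σ k = κ), P4 s S' w σ (snap G σ k) =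
        ((X.filter (fun k => snap G σ k = κ)).card : ℝ) * P4 s S' w σ κ := by
      rw [← nsmul_eq_mul, ← Finset.sum_const]
      refine Finset.sum_congr rfl fun k hk => ?_
      rw [(Finset.mem_filter.mp hk).2]
    rw [h1]
    refine mul_le_mul_of_nonneg_right ?_ (P4_nonneg s S' w hw σ κ)
    exact fibre_card G hadd hback hσ1 _ κ fun k hk => (Finset.mem_filter.mp hk).2
  refine (Finset.sum_le_sum e3).trans ?_
  rw [← Finset.mul_sum]
  have h17 : 17 * σ = 34 * L * r := by rw [hσdef]; ring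
  rw [h17]
  refine mul_le_mul_of_nonneg_left ?_ (by positivity)
  refine axial s S' w hw hN hax m hσ0 _ ?_
  intro κ hκ i
  obtain ⟨k, hk, rfl⟩ := Finset.mem_image.mp hκ
  have h1 : |G (rv k) i| ≤ L * R := hforw (rv k) R (fun i => hX k hk i) i
  have h2 : |(snap G σ k i : ℝ)| ≤ R := by
    have h3 : (snap G σ k i : ℝ) = pt σ (snap G σ k) i / σ := by
      simp only [pt]; field_simp
    have h4 := snap_near G hσ0 k i
    have h5 : |pt σ (snap G σ k) i| ≤ L * R + σ / 2 := by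
      have : pt σ (snap G σ k) i = (pt σ (snap G σ k) i - G (rv k) i) + G (rv k) i := by ring
      rw [this]
      refine (abs_add_le _ _).trans ?_
      linarith
    rw [h3, abs_div, abs_of_pos hσ0, div_le_iff₀ hσ0]
    refine h5.trans ?_
    rw [hσdef]
    have h6 : L * R ≤ L * r * R := by
      have : L * R * 1 ≤ L * R * r := mul_le_mul_of_nonneg_left hr (by positivity)
      linarith
    nlinarith
  have h7 : |(snap G σ k i : ℝ)| < (N : ℝ) ^ m := lt_of_le_of_lt h2 hRm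
  rw [abs_lt] at h7
  constructor
  · have := h7.1.le
    exact_mod_cast this
  · exact_mod_cast h7.2

end Crest.Agent.R136.MK4
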