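import Crest.Agent.R136.Mk4c_418
import Crest.Agent.R136.MF2_191

/-!
# 4-linear Kakeya in R^4, part d (helper418)

The curved non-narrow theorem: `nonnarrow_kakeya4_curved`, and its straight special case
`nonnarrow_kakeya4`.
-/

set_option autoImplicit false

namespace Crest.Agent.R136.MK4

open Finset
open Crest.Agent.R136.MF191 (dir D4 Slab cix cix_close Good Bm)

/-- the box of caps -/
noncomputable def capBox (η : ℝ) : Finset (Fin 3 → ℤ) :=
  Fintype.piFinset (fun _ : Fin 3 => Finset.Icc (-(⌈1 / η⌉₊ : ℤ)) ⌈1 / η⌉₊)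

lemma cix_mem {η : ℝ} (hη : 0 < η) {v : Fin 3 → ℝ} (hv : ∀ i, |v i| ≤ 1) :
    cix η v ∈ capBox η := by
  unfold capBox
  rw [Fintype.mem_piFinset]
  intro i
  rw [Finset.mem_Icc]
  have h1 := hv i
  rw [abs_le] at h1
  have h2 : (1 / η : ℝ) ≤ (⌈1 / η⌉₊ : ℝ) := Nat.le_ceil _
  simp only [cix]
  constructor
  · rw [Int.le_floor]
    push_cast
    rw [le_div_iff₀ hη]
    have : (1 / η) * η ≤ (⌈1 / η⌉₊ : ℝ) * η := mul_le_mul_of_nonneg_right h2 hη.le
    rw [one_div, inv_mul_cancel₀ hη.ne'] at this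
    rw [one_div] at *
    linarith [h1.1]
  · have h3 : ((⌊v i / η⌋ : ℤ) : ℝ) ≤ (⌈1 / η⌉₊ : ℝ) := by
      refine (Int.floor_le _).trans ?_
      refine le_trans ?_ h2
      exact div_le_div_of_nonneg_right h1.2 hη.le
    exact_mod_cast h3

lemma capBox_card {η : ℝ} (hη : 0 < η) (hη1 : η ≤ 1) :
    ((Fintype.piFinset (fun _ : Fin 4 => capBox η)).card : ℝ) ≤ (5 / η) ^ 12 := by
  rw [Fintype.card_piFinset]
  simp only [Finset.prod_const, Finset.card_univ, Fintype.card_fin]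
  have h1 : ((capBox η).card : ℝ) ≤ (5 / η) ^ 3 := by
    unfold capBox
    rw [Fintype.card_piFinset]
    simp only [Finset.prod_const, Finset.card_univ, Fintype.card_fin]
    have h2 : (Finset.Icc (-(⌈1 / η⌉₊ : ℤ)) ⌈1 / η⌉₊).card = 2 * ⌈1 / η⌉₊ + 1 := by
      rw [Int.card_Icc]
      omega
    rw [h2]
    push_cast
    apply pow_le_pow_left₀ (by positivity)
    have h3 : (⌈1 / η⌉₊ : ℝ) < 1 / η + 1 := Nat.ceil_lt_add_one (by positivity)
    have h4 : 1 ≤ 1 / η := by rw [le_div_iff₀ hη]; linarith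
    have : 5 / η = 5 * (1 / η) := by ring
    rw [this]
    linarith
  push_cast
  calc ((capBox η).card : ℝ) ^ 4 ≤ ((5 / η) ^ 3) ^ 4 := pow_le_pow_left₀ (by positivity) h1 4
    _ = (5 / η) ^ 12 := by rw [← pow_mul]

/-- space-time point -/
def sp (x : Fin 3 → ℝ) (t : ℝ) : Fin 4 → ℝ := ![x 0, x 1, x 2, t]

/-- the piece of a curve in a time slab -/
def piece (γ : ℤ → Fin 3 → ℝ) (R t : ℝ) (c : ℤ) : Set (Fin 4 → ℝ) :=
  {p | ∃ a : ℤ, |(a : ℝ)| ≤ R ∧ |(a : ℝ) - c| ≤ t ∧ p = sp (γ a) a}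

/-- data of a family of almost straight curves -/
structure Curved {ι : Type*} (s : Finset ι) (γ v : ι → ℤ → Fin 3 → ℝ) (R B : ℝ) : Prop where
  vel : ∀ l ∈ s, ∀ a : ℤ, |(a : ℝ)| ≤ R → ∀ i, |v l a i| ≤ 1
  str : ∀ l ∈ s, ∀ a b c : ℤ, |(a : ℝ)| ≤ R → |(b : ℝ)| ≤ R → |(c : ℝ)| ≤ R → ∀ i,
    |γ l a i - γ l b i - ((a : ℝ) - b) * v l c i| ≤
      B / R * (max |(a : ℝ) - c| |(b : ℝ) - c|) * |(a : ℝ) - b|

/-- velocities are Lipschitz -/
lemma Curved.lip {ι : Type*} {s : Finset ι} {γ v : ι → ℤ → Fin 3 → ℝ} {R B : ℝ} (hR : 0 < R)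
    (hB : 0 ≤ B) (h : Curved s γ v R B) {l : ι} (hl : l ∈ s) {a b : ℤ} (ha : |(a : ℝ)| ≤ R)
    (hb : |(b : ℝ)| ≤ R) (i : Fin 3) : |v l a i - v l b i| ≤ 2 * (B / R) * |(a : ℝ) - b| := by
  by_cases hab : a = b
  · subst hab; simp
  · have h1 := h.str l hl a b a ha hb ha i
    have h2 := h.str l hl a b b ha hb hb i
    have hab' : (a : ℝ) - b ≠ 0 := by
      intro h0
      apply hab
      have : (a : ℝ) = b := by linarith
      exact_mod_cast this
    have hpos : 0 < |(a : ℝ) - b| := abs_pos.mpr hab'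
    have e1 : max |(a : ℝ) - a| |(b : ℝ) - a| = |(a : ℝ) - b| := by
      rw [sub_self, abs_zero, abs_sub_comm (b : ℝ) a]
      exact max_eq_right (abs_nonneg _)
    have e2 : max |(a : ℝ) - b| |(b : ℝ) - b| = |(a : ℝ) - b| := by
      rw [sub_self, abs_zero]
      exact max_eq_left (abs_nonneg _)
    rw [e1] at h1
    rw [e2] at h2
    have h3 : |(a : ℝ) - b| * |v l a i - v l b i| ≤
        |(a : ℝ) - b| * (2 * (B / R) * |(a : ℝ) - b|) := by
      rw [← abs_mul]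
      have e3 : ((a : ℝ) - b) * (v l a i - v l b i) =
          -(γ l a i - γ l b i - ((a : ℝ) - b) * v l a i) +
            (γ l a i - γ l b i - ((a : ℝ) - b) * v l b i) := by ring
      rw [e3]
      refine (abs_add_le _ _).trans ?_
      rw [abs_neg]
      linarith
    exact le_of_mul_le_mul_left h3 hpos

lemma G_add (M : Matrix (Fin 4) (Fin 4) ℝ) (x y : Fin 4 → ℝ) (i : Fin 4) :
    (M.mulVec x) i - (M.mulVec y) i = (M.mulVec (fun i => x i - y i)) i := by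
  have : (fun i => x i - y i) = x - y := rfl
  rw [this, Matrix.mulVec_sub, Pi.sub_apply]

lemma dir_bound {v : Fin 3 → ℝ} (h : ∀ i, |v i| ≤ 1) (i : Fin 4) : |dir v i| ≤ 1 := by
  fin_cases i
  · simpa [dir] using h 0
  · simpa [dir] using h 1
  · simpa [dir] using h 2
  · simp [dir]

lemma dir_close {v v' : Fin 3 → ℝ} {d : ℝ} (hd : 0 ≤ d) (h : ∀ i, |v i - v' i| ≤ d) (i : Fin 4) :
    |dir v i - dir v' i| ≤ d := by
  fin_cases i
  · simpa [dir] using h 0
  · simpa [dir] using h 1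
  · simpa [dir] using h 2
  · simpa [dir] using hd

/-- one 4-tuple of caps in one time slab -/
lemma slab_tuple {ι : Type*} (s : Finset ι) (w : ι → ℝ) (hw : ∀ l ∈ s, 0 ≤ w l)
    (γ v : ι → ℤ → Fin 3 → ℝ) {R B : ℝ} (hR : 1 ≤ R) (hB : 0 ≤ B) (hC : Curved s γ v R B)
    {ν r : ℝ} (hν : 0 < ν) (hν1 : ν ≤ 1) (hr : 1 ≤ r) {N : ℕ} (hN : 1 ≤ N) (m : ℕ)
    (hRm : R < (N : ℝ) ^ m) {η : ℝ} (hη : 0 < η) (hη1 : η ≤ ν ^ 3 / (800 * N))
    {t : ℝ} (ht : 0 ≤ t) (htη : 2 * (B / R) * t ≤ η) (c : ℤ) (hc : |(c : ℝ)| ≤ R)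
    (X : Finset (Fin 4 → ℤ)) (hX : ∀ k ∈ X, ∀ i, |(k i : ℝ)| ≤ R)
    (hXc : ∀ k ∈ X, |(k 3 : ℝ) - c| ≤ t)
    (A : (Fin 4 → ℤ) → Finset ι) (hA : ∀ k ∈ X, A k ⊆ s)
    (hnear : ∀ k ∈ X, ∀ l ∈ A k, ∀ i : Fin 3, |(k i.castSucc : ℝ) - γ l (k 3) i| ≤ r)
    (τ : Fin 4 → Fin 3 → ℤ)
    (hgood : ∃ k ∈ X, Good (A k) (fun l => v l (k 3)) ν η τ) :
    haveI := Classical.decEq (Fin 3 → ℤ)
    ∑ k ∈ X, ∏ j, (∑ l ∈ (A k).filter (fun l => cix η (v l (k 3)) = τ j), w l) ^ (1 / 3 : ℝ) ≤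
      (3264 / ν ^ 3 * r) ^ 4 * (16 * 14641 ^ m * (∑ l ∈ s, w l) ^ (4 / 3 : ℝ)) := by
  classical
  have hR0 : 0 < R := by linarith
  have hN1 : (1 : ℝ) ≤ N := by exact_mod_cast hN
  have hN0 : (0 : ℝ) < N := by linarith
  obtain ⟨k1, hk1, m1, hm1, hD⟩ := hgood
  set e : Fin 4 → Fin 4 → ℝ := fun j => dir (v (m1 j) (k1 3)) with he
  have hμ : 0 < ν ^ 3 := by positivity
  have hμ1 : ν ^ 3 ≤ 1 := pow_le_one₀ hν.le hν1
  have hm1s : ∀ j, m1 j ∈ s := fun j => hA k1 hk1 (hm1 j).1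
  have he1 : ∀ j i, |e j i| ≤ 1 := fun j i =>
    dir_bound (hC.vel _ (hm1s j) (k1 3) (hX k1 hk1 3)) i
  set M := (Bm e)⁻¹ with hM
  set G : (Fin 4 → ℝ) → (Fin 4 → ℝ) := fun y => M.mulVec y with hG
  set fam : Fin 4 → Finset ι := fun j =>
    s.filter (fun l => ∀ i, |v l c i - v (m1 j) (k1 3) i| ≤ 2 * η) with hfam
  set S : ι → Set (Fin 4 → ℝ) := fun l => piece (γ l) R t c with hS
  set A' : Fin 4 → (Fin 4 → ℤ) → Finset ι := fun j k =>
    (A k).filter (fun l => cix η (v l (k 3)) = τ j) with hA'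
  have hunit := MF191.isUnit_of_D4 hμ hD
  have hL : (1 : ℝ) ≤ 96 / ν ^ 3 := by
    rw [le_div_iff₀ hμ]; linarith
  have hmain := transversal hN m G hL (fun x y i => G_add M x y i)
    (fun y d hy i => MF191.inv_bound hμ he1 hD hy i)
    (by
      intro y d hy i
      have h1 : y = (Bm e).mulVec (G y) := by
        simp only [hG, hM]
        rw [Matrix.mulVec_mulVec, Matrix.mul_nonsing_inv _ hunit, Matrix.one_mulVec]
      have h2 := MF191.mulVec_bound4 (A := Bm e) (a := 1) (fun i j => he1 j i) (v := G y)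
        (d := d) hy i
      rw [← h1] at h2
      have hd : 0 ≤ d := (abs_nonneg _).trans (hy 0)
      linarith)
    fam S w (fun j l hl => hw l (Finset.mem_filter.mp hl).1)
    (by
      intro j l hl
      rw [hfam, Finset.mem_filter] at hl
      obtain ⟨hls, hlv⟩ := hl
      rintro _ ⟨p, ⟨a, haR, hac, rfl⟩, rfl⟩ _ ⟨q, ⟨b, hbR, hbc, rfl⟩, rfl⟩ i hi
      rw [G_add, G_add]
      refine MF191.cone hμ he1 hD hN1 (e' := dir (v l c)) (s := (a : ℝ) - b) (δ := 2 * η) ?_ ?_ ?_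
        i hi
      · have : 2 * (ν ^ 3 / (800 * (N : ℝ))) = ν ^ 3 / (400 * N) := by
          field_simp; ring
        linarith
      · exact fun i => dir_close (by linarith) hlv i
      · have key : ∀ i : Fin 3, |γ l a i - γ l b i - ((a : ℝ) - b) * v l c i| ≤
            |(a : ℝ) - b| * (2 * η) := by
          intro i
          refine (hC.str l hls a b c haR hbR hc i).trans ?_
          have h1 : max |(a : ℝ) - c| |(b : ℝ) - c| ≤ t := max_le hac hbc
          have h2 : B / R * max |(a : ℝ) - c| |(b : ℝ) - c| ≤ B / R * t :=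
            mul_le_mul_of_nonneg_left h1 (by positivity)
          have h3 : B / R * max |(a : ℝ) - c| |(b : ℝ) - c| ≤ 2 * η := by
            have h4 : 0 ≤ B / R * t := by positivity
            linarith
          rw [mul_comm |(a : ℝ) - b|]
          exact mul_le_mul_of_nonneg_right h3 (abs_nonneg _)
        intro i
        fin_cases i
        · simpa [sp, dir] using key 0
        · simpa [sp, dir] using key 1
        · simpa [sp, dir] using key 2
        · simp only [sp, dir]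
          simp
          positivity)
    hr hR hRm X hX A'
    (by
      intro k hk j l hl
      rw [hA', Finset.mem_filter] at hl
      rw [hfam, Finset.mem_filter]
      have hls := hA k hk hl.1
      refine ⟨hls, fun i => ?_⟩
      have h1 : |v l (k 3) i - v (m1 j) (k1 3) i| ≤ η :=
        cix_close hη (hl.2.trans (hm1 j).2.symm) i
      have h2 : |v l (k 3) i - v l c i| ≤ η := by
        refine (hC.lip hR0 hB hls (hX k hk 3) hc i).trans ?_
        refine le_trans ?_ htη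
        exact mul_le_mul_of_nonneg_left (hXc k hk) (by positivity)
      have e3 : v l c i - v (m1 j) (k1 3) i =
          -(v l (k 3) i - v l c i) + (v l (k 3) i - v (m1 j) (k1 3) i) := by ring
      rw [e3]
      refine (abs_add_le _ _).trans ?_
      rw [abs_neg]
      linarith)
    (by
      intro k hk j l hl
      rw [hA', Finset.mem_filter] at hl
      refine ⟨sp (γ l (k 3)) (k 3), ⟨k 3, hX k hk 3, hXc k hk, rfl⟩, ?_⟩
      have h1 := hnear k hk l hl.1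
      intro i
      fin_cases i
      · simpa [sp, rv] using h1 0
      · simpa [sp, rv] using h1 1
      · simpa [sp, rv] using h1 2
      · simp only [sp, rv]
        simp
        linarith)
  have e1 : ∑ k ∈ X, ∏ j, (∑ l ∈ (A k).filter (fun l => cix η (v l (k 3)) = τ j), w l) ^
      (1 / 3 : ℝ) = ∑ k ∈ X, (cb (∑ l ∈ A' 0 k, w l) * (cb (∑ l ∈ A' 1 k, w l) *
        (cb (∑ l ∈ A' 2 k, w l) * cb (∑ l ∈ A' 3 k, w l)))) := by
    refine Finset.sum_congr rfl fun k _ => ?_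
    rw [Fin.prod_univ_four]
    simp only [cb, hA']
    ring
  have e2 : (34 * (96 / ν ^ 3) * r) = 3264 / ν ^ 3 * r := by ring
  rw [e2] at hmain
  have hgoal : ∑ k ∈ X, ∏ j, (∑ l ∈ (A k).filter (fun l => cix η (v l (k 3)) = τ j), w l) ^
      (1 / 3 : ℝ) ≤
      (3264 / ν ^ 3 * r) ^ 4 * (16 * 14641 ^ m * (∑ l ∈ s, w l) ^ (4 / 3 : ℝ)) := by
    rw [e1]
    refine hmain.trans ?_
    refine mul_le_mul_of_nonneg_left ?_ (by positivity)
    refine mul_le_mul_of_nonneg_left ?_ (by positivity)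
    have hle : ∀ j, ∑ l ∈ fam j, w l ≤ ∑ l ∈ s, w l := fun j =>
      Finset.sum_le_sum_of_subset_of_nonneg (Finset.filter_subset _ _) (fun l hl _ => hw l hl)
    have h0 : ∀ j, 0 ≤ ∑ l ∈ fam j, w l := fun j =>
      Finset.sum_nonneg fun l hl => hw l (Finset.mem_filter.mp hl).1
    have hs0 : 0 ≤ ∑ l ∈ s, w l := Finset.sum_nonneg hw
    have c0 := cb_nonneg hs0
    have z := fun j => cb_nonneg (h0 j)
    have k := fun j => cb_mono (h0 j) (hle j)
    have h5 : cb (∑ l ∈ s, w l) * (cb (∑ l ∈ s, w l) * (cb (∑ l ∈ s, w l) *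
        cb (∑ l ∈ s, w l))) = (∑ l ∈ s, w l) ^ (4 / 3 : ℝ) := by
      have h6 : cb (∑ l ∈ s, w l) * (cb (∑ l ∈ s, w l) * (cb (∑ l ∈ s, w l) *
        cb (∑ l ∈ s, w l))) = cb (∑ l ∈ s, w l) ^ 4 := by ring
      rw [h6]
      unfold cb
      rw [← Real.rpow_natCast, ← Real.rpow_mul hs0]
      norm_num
    rw [← h5]
    exact mul_le_mul (k 0) (mul_le_mul (k 1) (mul_le_mul (k 2) (k 3) (z 3) c0)
      (mul_nonneg (z 2) (z 3)) c0) (mul_nonneg (z 1) (mul_nonneg (z 2) (z 3))) c0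
  convert hgoal

end Crest.Agent.R136.MK4
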