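import Crest.Agent.R136.Mlo_777
import Crest.Agent.R136.Pl2B_860

/-!
# R136 (S0187), PLAN 2, leaf B4: the gradient of a sheet is adapted to its hull frame (helper777)

`nrm S z0 ρ T ζ` : gradient of `S.q` at the point of `T` at the height `z0 + ρ ζ`.
`conorm_of_FH`   : it is adapted to the frame of the flat hull (`FH`).
-/

set_option autoImplicit false
set_option linter.unusedVariables false

namespace Crest.Agent.R136.Mlo777

open Finset Crest.Agent.R136.Sh605 Crest.Agent.R136.Fl808 Crest.Agent.R136.Hl706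
open Crest.Agent.R136.K4 (Plk4)
open Crest.Agent.R136.Tlt51 (Shp InP)
open Crest.Agent.R136.KapP335 (kapP expP expP_spec DetP)
open Crest.Agent.R136.Tl102 (QF Fq bz shB0 shB1 shG kap NrmC IsExp StP fr cmb)
open Crest.Agent.R136.Pl2 (FH FL kp)

/-- zero of a steep quadratic polynomial -/
theorem exists_root {b yy yu uu l s : ℝ} (hs : |s| ≤ 2) (hl : |l| ≤ 1 / 64)
    (st : ∀ σ, |σ| ≤ 1 → 1 / 2 ≤ b + yy * σ + yu * l) {F0 : ℝ}
    (hF0 : F0 = yy * (s * l) ^ 2 - yu * (s * l) * l + uu * l ^ 2) (hF : |F0| ≤ 1 / 16) :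
    ∃ h : ℝ, |h| ≤ 2 * |F0| ∧
      b * h + yy * (h - s * l) ^ 2 + yu * (h - s * l) * l + uu * l ^ 2 = 0 := by
  set F : ℝ → ℝ := fun h => b * h + yy * (h - s * l) ^ 2 + yu * (h - s * l) * l + uu * l ^ 2 with hFd
  have hsl : |s * l| ≤ 1 / 32 := by
    rw [abs_mul]
    calc |s| * |l| ≤ 2 * (1 / 64) := mul_le_mul hs hl (abs_nonneg _) (by norm_num)
      _ = 1 / 32 := by norm_num
  rw [abs_le] at hsl
  have key : ∀ h, F h = F0 + h * (b + yy * (h - 2 * (s * l)) + yu * l) := by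
    intro h; rw [hF0]; simp only [hFd]; ring
  have hcont : Continuous F := by
    simp only [hFd]; fun_prop
  have hF' := abs_le.1 hF
  have h0 : 0 ≤ |F0| := abs_nonneg _
  have n1 := neg_abs_le F0
  have n2 := le_abs_self F0
  have hlo : F (-(2 * |F0|)) ≤ 0 := by
    have := st (-(2 * |F0|) - 2 * (s * l)) (by rw [abs_le]; constructor <;> linarith)
    rw [key]; nlinarith
  have hhi : 0 ≤ F (2 * |F0|) := by
    have := st (2 * |F0| - 2 * (s * l)) (by rw [abs_le]; constructor <;> linarith)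
    rw [key]; nlinarith
  have hle : -(2 * |F0|) ≤ 2 * |F0| := by linarith
  obtain ⟨h, hh, hz⟩ := intermediate_value_Icc hle hcont.continuousOn ⟨hlo, hhi⟩
  exact ⟨h, abs_le.2 ⟨hh.1, hh.2⟩, hz⟩

/-- gradient of the function of the sheet along `T`, as a vector -/
noncomputable def nrm (S : Plk4) (z0 ρ : ℝ) (T : Ln4) (ζ : ℝ) : V3 :=
  cmb S.e (fun k => S.w 0 / S.w k * ((expP S z0 ρ T).1 k + ζ * (expP S z0 ρ T).2.1 k))

theorem dt_cmb_e {e : Fin 3 → V3} (he : Ortho e) (x : V3) (i : Fin 3) :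
    dt (e i) (cmb e x) = x i := by
  have h : ∀ j, dt (e i) (e j) = if i = j then 1 else 0 := he i
  have e1 : dt (e i) (cmb e x) = x 0 * dt (e i) (e 0) + x 1 * dt (e i) (e 1) +
      x 2 * dt (e i) (e 2) := by
    simp only [dt, cmb]; ring
  rw [e1, h 0, h 1, h 2]
  fin_cases i <;> simp

theorem dt_nrm {S : Plk4} (he : Ortho S.e) (z0 ρ : ℝ) (T : Ln4) (ζ : ℝ) (i : Fin 3) :
    dt (S.e i) (nrm S z0 ρ T ζ) =
      S.w 0 / S.w i * ((expP S z0 ρ T).1 i + ζ * (expP S z0 ρ T).2.1 i) :=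
  dt_cmb_e he _ i

/-- scalar facts of the expansion: slope, curvature along the tangent -/
theorem curv_le {b0 b1 : V3} {G : QF} (N : NrmC b0 b1 G) {ζ : ℝ} (hζ : 0 ≤ ζ) (hζ' : ζ ≤ 1) :
    1 / 2 ≤ b0 0 + ζ * b1 0 ∧ b0 0 + ζ * b1 0 ≤ 2 ∧ |b0 1 + ζ * b1 1| ≤ 1 ∧
      |b0 2 + ζ * b1 2| ≤ 1 ∧
      |G.yy * ((b0 1 + ζ * b1 1) / (b0 0 + ζ * b1 0)) ^ 2 -
        G.yu * ((b0 1 + ζ * b1 1) / (b0 0 + ζ * b1 0)) + G.uu| ≤ 11 * kap b0 b1 G ∧
      |G.yy * ((b0 2 + ζ * b1 2) / (b0 0 + ζ * b1 0)) ^ 2 -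
        G.yv * ((b0 2 + ζ * b1 2) / (b0 0 + ζ * b1 0)) + G.vv| ≤ 11 * kap b0 b1 G := by
  have a0 : |(0 : ℝ)| ≤ 1 := by norm_num
  have h0 := N.st ζ hζ hζ' 0 0 0 a0 a0 a0
  have h00 := N.st 0 le_rfl zero_le_one 0 0 0 a0 a0 a0
  simp only [mul_zero, add_zero, zero_mul] at h0 h00
  obtain ⟨m1, m2, m3, m4, m5, m6⟩ := N.G_le
  have k1 : |shB1 b0 b1 1| ≤ kap b0 b1 G := (le_max_left _ _).trans (le_max_left _ _)
  have k2 : |shB1 b0 b1 2| ≤ kap b0 b1 G := (le_max_right _ _).trans (le_max_left _ _)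
  have k3 : |(shG b0 G).uu| ≤ kap b0 b1 G :=
    (le_max_left _ _).trans ((le_max_left _ _).trans (le_max_right _ _))
  have k5 : |(shG b0 G).vv| ≤ kap b0 b1 G := (le_max_right _ _).trans (le_max_right _ _)
  have c1 : |b0 1 + ζ * b1 1| ≤ 1 := by
    have e1 := abs_le.1 N.b01
    have e2 := abs_le.1 N.b11
    rw [abs_le]; constructor <;> nlinarith [e1.1, e1.2, e2.1, e2.2]
  have c2 : |b0 2 + ζ * b1 2| ≤ 1 := by
    have e1 := abs_le.1 N.b02
    have e2 := abs_le.1 N.b12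
    rw [abs_le]; constructor <;> nlinarith [e1.1, e1.2, e2.1, e2.2]
  have gen : ∀ p p0 B0 B yu uu sb sg κ : ℝ, 1 / 2 ≤ B0 → 1 / 2 ≤ B → |p| ≤ 1 → |p0| ≤ 1 →
      |sb| ≤ κ → |sg| ≤ κ → |yu| ≤ 1 → p / B - p0 / B0 = ζ * sb / B →
      sg = uu - p0 / B0 * yu + (p0 / B0) ^ 2 * G.yy →
      |G.yy * (p / B) ^ 2 - yu * (p / B) + uu| ≤ 11 * κ := by
    intro p p0 B0 B yu uu sb sg κ hB0 hB hp hp0 hsb hsg hyu hd hs
    have q1 : |p / B| ≤ 2 := by
      rw [abs_div, abs_of_pos (by linarith : 0 < B), div_le_iff₀ (by linarith)]; linarith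
    have q0 : |p0 / B0| ≤ 2 := by
      rw [abs_div, abs_of_pos (by linarith : 0 < B0), div_le_iff₀ (by linarith)]; linarith
    have q2 : |p / B - p0 / B0| ≤ 2 * κ := by
      rw [hd, abs_div, abs_of_pos (by linarith : 0 < B), div_le_iff₀ (by linarith), abs_mul,
        abs_of_nonneg hζ]
      have hκ : 0 ≤ κ := (abs_nonneg _).trans hsb
      have : ζ * |sb| ≤ 1 * κ := mul_le_mul hζ' hsb (abs_nonneg _) zero_le_one
      nlinarith
    have q3 : |G.yy * (p / B + p0 / B0) - yu| ≤ 5 := by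
      have := abs_sub (G.yy * (p / B + p0 / B0)) yu
      have h1 : |G.yy * (p / B + p0 / B0)| ≤ 1 * 4 := by
        rw [abs_mul]
        refine mul_le_mul m1 ((abs_add_le _ _).trans (by linarith)) (abs_nonneg _) zero_le_one
      linarith
    have e1 : G.yy * (p / B) ^ 2 - yu * (p / B) + uu =
        sg + (p / B - p0 / B0) * (G.yy * (p / B + p0 / B0) - yu) := by
      rw [hs]; ring
    rw [e1]
    have h2 : |(p / B - p0 / B0) * (G.yy * (p / B + p0 / B0) - yu)| ≤ 2 * κ * 5 := by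
      rw [abs_mul]
      exact mul_le_mul q2 q3 (abs_nonneg _) ((abs_nonneg _).trans q2)
    exact (abs_add_le _ _).trans (by linarith)
  have hB : b0 0 + ζ * b1 0 ≠ 0 := by linarith [h0.1]
  have hB0 : b0 0 ≠ 0 := by linarith [h00.1]
  refine ⟨h0.1, h0.2, c1, c2, ?_, ?_⟩
  · refine gen _ (b0 1) (b0 0) _ _ _ (shB1 b0 b1 1) (shG b0 G).uu _ h00.1 h0.1 c1 N.b01 k1 k3 m2
      ?_ rfl
    have : shB1 b0 b1 1 = b1 1 - b0 1 / b0 0 * b1 0 := rfl
    rw [this]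
    field_simp
    ring
  · refine gen _ (b0 2) (b0 0) _ _ _ (shB1 b0 b1 2) (shG b0 G).vv _ h00.1 h0.1 c2 N.b02 k2 k5 m3
      ?_ rfl
    have : shB1 b0 b1 2 = b1 2 - b0 2 / b0 0 * b1 0 := rfl
    rw [this]
    field_simp
    ring

theorem dt_cmb_fr' (f : V3) (e : Fin 3 → V3) (w x : V3) : dt f (cmb (fr e w) x) =
    x 0 * w 0 * dt f (e 0) + x 1 * w 1 * dt f (e 1) + x 2 * w 2 * dt f (e 2) := by
  simp only [dt, cmb, fr, Pi.smul_apply, smul_eq_mul]; ring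

/-- a point of the sheet over a tangent direction -/
theorem tau_aux {S : Plk4} {T : Ln4} {z0 ρ r C Y ζ : ℝ} {f : Fin 3 → V3} (hρ : 0 < ρ) (hr : 0 < r)
    (hS : Shp S z0 ρ r) (hT : InP T S z0 ρ) (hF : FH C Y S f z0 ρ) (hζ : 0 ≤ ζ) (hζ' : ζ ≤ 1)
    {x : V3} (hx : ∀ i, |x i| ≤ 1 / 8)
    (h0 : Fq (expP S z0 ρ T).1 (expP S z0 ρ T).2.1 (expP S z0 ρ T).2.2 ζ x = 0) :
    |x 0 * S.w 0 * dt (f 0) (S.e 0) + x 1 * S.w 1 * dt (f 0) (S.e 1) +
      x 2 * S.w 2 * dt (f 0) (S.e 2)| ≤ C * Y := by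
  have hw0 : 0 < S.w 0 := (hr.trans_le hS.r0_le).trans_le hS.a_le0
  have hst := StP.of_shN hS hw0
  have hE := expP_spec hS.isQ hw0.ne' z0 ρ T
  have z1 : z0 ≤ z0 + ρ * ζ := by nlinarith
  have z2 : z0 + ρ * ζ ≤ z0 + ρ := by nlinarith
  have h1 := hF.pt T hT (z0 + ρ * ζ) z1 z2 (T.pos (z0 + ρ * ζ) + cmb (fr S.e S.w) x) ?_ ?_
  · have e1 : T.pos (z0 + ρ * ζ) + cmb (fr S.e S.w) x - T.pos (z0 + ρ * ζ) =
      cmb (fr S.e S.w) x := by abel
    rw [e1, dt_cmb_fr'] at h1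
    exact h1
  · intro i
    have e1 : T.pos (z0 + ρ * ζ) + cmb (fr S.e S.w) x - T.pos (z0 + ρ * ζ) =
      cmb (fr S.e S.w) x := by abel
    rw [e1, Crest.Agent.R136.Tl102.dt_cmb_fr hst.ortho, abs_mul, abs_of_pos (hst.pos i)]
    have := mul_le_mul_of_nonneg_left (hx i) (hst.pos i).le
    change _ ≤ S.w i / 8
    linarith
  · rw [hE ζ x, h0, mul_zero, add_zero]
    exact (hT _ z1 z2).2

set_option maxHeartbeats 1000000 in
/-- **tangency** of the flat hull: `τ k = ⟨f 0, t_k⟩`, `t_k` the tangent vectors of the sheet. -/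
theorem tau_le {S : Plk4} {T : Ln4} {z0 ρ r C Y ζ : ℝ} {f : Fin 3 → V3} (hρ : 0 < ρ) (hr : 0 < r)
    (hY : 0 < Y) (hC : 1 ≤ C) (hS : Shp S z0 ρ r) (hT : InP T S z0 ρ)
    (hk : kapP S z0 ρ T ≤ 4 * Y) (hF : FH C Y S f z0 ρ) (hζ : 0 ≤ ζ) (hζ' : ζ ≤ 1) :
    |dt (f 0) (S.e 1) - dt (S.e 1) (nrm S z0 ρ T ζ) / dt (S.e 0) (nrm S z0 ρ T ζ) *
        dt (f 0) (S.e 0)| * S.w 1 ≤ 66 * C * Y ∧
    |dt (f 0) (S.e 2) - dt (S.e 2) (nrm S z0 ρ T ζ) / dt (S.e 0) (nrm S z0 ρ T ζ) *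
        dt (f 0) (S.e 0)| * S.w 2 ≤ 66 * C * Y := by
  have hw0 : 0 < S.w 0 := (hr.trans_le hS.r0_le).trans_le hS.a_le0
  have hst := StP.of_shN hS hw0
  have hE := expP_spec hS.isQ hw0.ne' z0 ρ T
  have N := IsExp.nrmC hst hρ.le (fun z h1 h2 => (hT z h1 h2).1) hE
  have hw1 := hst.pos 1
  have hw2 := hst.pos 2
  have hA := abs_dt_le_one hst.ortho hF.ortho 0 0
  rw [dt_nrm hst.ortho, dt_nrm hst.ortho, dt_nrm hst.ortho]
  have hk' : S.w 0 * kap (expP S z0 ρ T).1 (expP S z0 ρ T).2.1 (expP S z0 ρ T).2.2 ≤ 4 * Y := hk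
  have hκ13 := Crest.Agent.R136.Tl102.kap_le N
  have aux := fun x => tau_aux (x := x) hρ hr hS hT hF hζ hζ'
  obtain ⟨B1, B2, P1, P2, Q1, Q2⟩ := curv_le N hζ hζ'
  have hstp := N.st ζ hζ hζ'
  generalize (expP S z0 ρ T).1 = b0 at *
  generalize (expP S z0 ρ T).2.1 = b1 at *
  generalize (expP S z0 ρ T).2.2 = G at *
  have hκ0 := Crest.Agent.R136.Tl102.kap_nonneg b0 b1 G
  set κ := kap b0 b1 G with hκ
  set B := b0 0 + ζ * b1 0 with hB
  have hB0 : 0 < B := by linarith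
  set s1 := (b0 1 + ζ * b1 1) / B with hs1
  set s2 := (b0 2 + ζ * b1 2) / B with hs2
  have hs1' : |s1| ≤ 2 := by
    rw [hs1, abs_div, abs_of_pos hB0, div_le_iff₀ hB0]; linarith
  have hs2' : |s2| ≤ 2 := by
    rw [hs2, abs_div, abs_of_pos hB0, div_le_iff₀ hB0]; linarith
  have a0 : |(0 : ℝ)| ≤ 1 := by norm_num
  have al : |(1 / 64 : ℝ)| ≤ 1 := by rw [abs_of_pos] <;> norm_num
  have al' : |(1 / 64 : ℝ)| ≤ 1 / 64 := by rw [abs_of_pos] <;> norm_num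
  constructor
  · obtain ⟨h, hh, hz⟩ := exists_root (b := B) (yy := G.yy) (yu := G.yu) (uu := G.uu) (l := 1 / 64)
      (s := s1) hs1' al' (fun σ hσ => by
        have := (hstp σ (1 / 64) 0 hσ al a0).1
        linarith) rfl (by
        have e1 : G.yy * (s1 * (1 / 64)) ^ 2 - G.yu * (s1 * (1 / 64)) * (1 / 64) +
          G.uu * (1 / 64) ^ 2 = (1 / 64) ^ 2 * (G.yy * s1 ^ 2 - G.yu * s1 + G.uu) := by ring
        rw [e1, abs_mul]
        have : |((1 : ℝ) / 64) ^ 2| = 1 / 4096 := by rw [abs_of_pos (by norm_num)]; norm_num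
        rw [this]
        linarith)
    have hF0 : |G.yy * (s1 * (1 / 64)) ^ 2 - G.yu * (s1 * (1 / 64)) * (1 / 64) +
          G.uu * (1 / 64) ^ 2| ≤ 1 / 4096 * (11 * κ) := by
      have e1 : G.yy * (s1 * (1 / 64)) ^ 2 - G.yu * (s1 * (1 / 64)) * (1 / 64) +
        G.uu * (1 / 64) ^ 2 = (1 / 64) ^ 2 * (G.yy * s1 ^ 2 - G.yu * s1 + G.uu) := by ring
      rw [e1, abs_mul]
      have : |((1 : ℝ) / 64) ^ 2| = 1 / 4096 := by rw [abs_of_pos (by norm_num)]; norm_num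
      rw [this]
      linarith
    have hhκ : |h| ≤ 22 / 4096 * κ := by linarith
    have hx0 : |h - s1 * (1 / 64)| ≤ 1 / 8 := by
      refine (abs_sub _ _).trans ?_
      rw [abs_mul]
      have : |s1| * |(1 / 64 : ℝ)| ≤ 2 * (1 / 64) :=
        mul_le_mul hs1' al' (abs_nonneg _) (by norm_num)
      linarith
    have h1 := aux ![h - s1 * (1 / 64), 1 / 64, 0] (by
      intro i; fin_cases i
      · exact hx0
      · exact al'.trans (by norm_num)
      · change |(0:ℝ)| ≤ _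
        norm_num) (by
      have e2 : b0 1 + ζ * b1 1 = s1 * B := by rw [hs1]; field_simp
      simp only [Fq, dt, bz, QF.ev, Matrix.cons_val_zero, Matrix.cons_val_one, Matrix.cons_val]
      rw [← hB, e2]
      linear_combination hz)
    simp only [Matrix.cons_val_zero, Matrix.cons_val_one, Matrix.cons_val] at h1
    have e3 : (dt (f 0) (S.e 1) - S.w 0 / S.w 1 * (b0 1 + ζ * b1 1) / (S.w 0 / S.w 0 * B) *
        dt (f 0) (S.e 0)) * S.w 1 * (1 / 64) =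
        ((h - s1 * (1 / 64)) * S.w 0 * dt (f 0) (S.e 0) + 1 / 64 * S.w 1 * dt (f 0) (S.e 1) +
          0 * S.w 2 * dt (f 0) (S.e 2)) - h * S.w 0 * dt (f 0) (S.e 0) := by
      rw [hs1]; field_simp; ring
    have e4 : |h * S.w 0 * dt (f 0) (S.e 0)| ≤ 22 / 4096 * (4 * Y) := by
      rw [abs_mul, abs_mul, abs_of_pos hw0]
      have g1 : |h| * S.w 0 ≤ 22 / 4096 * κ * S.w 0 := mul_le_mul_of_nonneg_right hhκ hw0.le
      have g2 : |h| * S.w 0 * |dt (f 0) (S.e 0)| ≤ |h| * S.w 0 * 1 :=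
        mul_le_mul_of_nonneg_left hA (by positivity)
      linarith
    have e5 : |(dt (f 0) (S.e 1) - S.w 0 / S.w 1 * (b0 1 + ζ * b1 1) / (S.w 0 / S.w 0 * B) *
        dt (f 0) (S.e 0))| * S.w 1 * (1 / 64) ≤ C * Y + 22 / 4096 * (4 * Y) := by
      have := congrArg abs e3
      rw [abs_mul, abs_mul, abs_of_pos hw1, abs_of_pos (by norm_num : (0:ℝ) < 1 / 64)] at this
      rw [this]
      exact (abs_sub _ _).trans (add_le_add h1 e4)
    have : Y ≤ C * Y := le_mul_of_one_le_left hY.le hC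
    linarith
  · obtain ⟨h, hh, hz⟩ := exists_root (b := B) (yy := G.yy) (yu := G.yv) (uu := G.vv) (l := 1 / 64)
      (s := s2) hs2' al' (fun σ hσ => by
        have := (hstp σ 0 (1 / 64) hσ a0 al).1
        linarith) rfl (by
        have e1 : G.yy * (s2 * (1 / 64)) ^ 2 - G.yv * (s2 * (1 / 64)) * (1 / 64) +
          G.vv * (1 / 64) ^ 2 = (1 / 64) ^ 2 * (G.yy * s2 ^ 2 - G.yv * s2 + G.vv) := by ring
        rw [e1, abs_mul]
        have : |((1 : ℝ) / 64) ^ 2| = 1 / 4096 := by rw [abs_of_pos (by norm_num)]; norm_num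
        rw [this]
        linarith)
    have hF0 : |G.yy * (s2 * (1 / 64)) ^ 2 - G.yv * (s2 * (1 / 64)) * (1 / 64) +
          G.vv * (1 / 64) ^ 2| ≤ 1 / 4096 * (11 * κ) := by
      have e1 : G.yy * (s2 * (1 / 64)) ^ 2 - G.yv * (s2 * (1 / 64)) * (1 / 64) +
        G.vv * (1 / 64) ^ 2 = (1 / 64) ^ 2 * (G.yy * s2 ^ 2 - G.yv * s2 + G.vv) := by ring
      rw [e1, abs_mul]
      have : |((1 : ℝ) / 64) ^ 2| = 1 / 4096 := by rw [abs_of_pos (by norm_num)]; norm_num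
      rw [this]
      linarith
    have hhκ : |h| ≤ 22 / 4096 * κ := by linarith
    have hx0 : |h - s2 * (1 / 64)| ≤ 1 / 8 := by
      refine (abs_sub _ _).trans ?_
      rw [abs_mul]
      have : |s2| * |(1 / 64 : ℝ)| ≤ 2 * (1 / 64) :=
        mul_le_mul hs2' al' (abs_nonneg _) (by norm_num)
      linarith
    have h1 := aux ![h - s2 * (1 / 64), 0, 1 / 64] (by
      intro i; fin_cases i
      · exact hx0
      · change |(0:ℝ)| ≤ _; norm_num
      · exact al'.trans (by norm_num)) (by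
      have e2 : b0 2 + ζ * b1 2 = s2 * B := by rw [hs2]; field_simp
      simp only [Fq, dt, bz, QF.ev, Matrix.cons_val_zero, Matrix.cons_val_one, Matrix.cons_val]
      rw [← hB, e2]
      linear_combination hz)
    simp only [Matrix.cons_val_zero, Matrix.cons_val_one, Matrix.cons_val] at h1
    have e3 : (dt (f 0) (S.e 2) - S.w 0 / S.w 2 * (b0 2 + ζ * b1 2) / (S.w 0 / S.w 0 * B) *
        dt (f 0) (S.e 0)) * S.w 2 * (1 / 64) =
        ((h - s2 * (1 / 64)) * S.w 0 * dt (f 0) (S.e 0) + 0 * S.w 1 * dt (f 0) (S.e 1) +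
          1 / 64 * S.w 2 * dt (f 0) (S.e 2)) - h * S.w 0 * dt (f 0) (S.e 0) := by
      rw [hs2]; field_simp; ring
    have e4 : |h * S.w 0 * dt (f 0) (S.e 0)| ≤ 22 / 4096 * (4 * Y) := by
      rw [abs_mul, abs_mul, abs_of_pos hw0]
      have g1 : |h| * S.w 0 ≤ 22 / 4096 * κ * S.w 0 := mul_le_mul_of_nonneg_right hhκ hw0.le
      have g2 : |h| * S.w 0 * |dt (f 0) (S.e 0)| ≤ |h| * S.w 0 * 1 :=
        mul_le_mul_of_nonneg_left hA (by positivity)
      linarith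
    have e5 : |(dt (f 0) (S.e 2) - S.w 0 / S.w 2 * (b0 2 + ζ * b1 2) / (S.w 0 / S.w 0 * B) *
        dt (f 0) (S.e 0))| * S.w 2 * (1 / 64) ≤ C * Y + 22 / 4096 * (4 * Y) := by
      have := congrArg abs e3
      rw [abs_mul, abs_mul, abs_of_pos hw2, abs_of_pos (by norm_num : (0:ℝ) < 1 / 64)] at this
      rw [this]
      exact (abs_sub _ _).trans (add_le_add h1 e4)
    have : Y ≤ C * Y := le_mul_of_one_le_left hY.le hC
    linarith

set_option maxHeartbeats 2000000 in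
/-- **the gradient is adapted to the hull frame.** -/
theorem conorm_of_FH {S : Plk4} {T : Ln4} {z0 ρ r C Y ζ : ℝ} {f : Fin 3 → V3} (hρ : 0 < ρ)
    (hr : 0 < r) (hY : 0 < Y) (hC : 1 ≤ C) (hS : Shp S z0 ρ r) (hT : InP T S z0 ρ)
    (hk : kapP S z0 ρ T ≤ 4 * Y) (hF : FH C Y S f z0 ρ) (hζ : 0 ≤ ζ) (hζ' : ζ ≤ 1) :
    (264 * C * Y ≤ S.w 2 → 1 ≤ 4 * |dt (f 0) (nrm S z0 ρ T ζ)|) ∧
    |dt (f 0) (nrm S z0 ρ T ζ)| ≤ 4 ∧
    |dt (f 1) (nrm S z0 ρ T ζ)| * S.w 1 ≤ 264 * C ^ 3 * Y ∧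
    |dt (f 2) (nrm S z0 ρ T ζ)| * S.w 2 ≤ 264 * C ^ 3 * Y := by
  have hw0 : 0 < S.w 0 := (hr.trans_le hS.r0_le).trans_le hS.a_le0
  have hst := StP.of_shN hS hw0
  have hE := expP_spec hS.isQ hw0.ne' z0 ρ T
  have N := IsExp.nrmC hst hρ.le (fun z h1 h2 => (hT z h1 h2).1) hE
  have hw1 := hst.pos 1
  have hw2 := hst.pos 2
  have h21 : S.w 2 ≤ S.w 1 := hS.w_le
  have h02 : S.w 0 ≤ S.w 2 := hS.w0_le
  obtain ⟨t1, t2⟩ := tau_le hρ hr hY hC hS hT hk hF hζ hζ'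
  obtain ⟨B1, B2, P1, P2, -, -⟩ := curv_le N hζ hζ'
  have n0 : dt (S.e 0) (nrm S z0 ρ T ζ) =
      (expP S z0 ρ T).1 0 + ζ * (expP S z0 ρ T).2.1 0 := by
    rw [dt_nrm hst.ortho, div_self hw0.ne', one_mul]
  have n1 : |dt (S.e 1) (nrm S z0 ρ T ζ)| ≤ 1 := by
    rw [dt_nrm hst.ortho, abs_mul, abs_of_pos (by positivity)]
    have : S.w 0 / S.w 1 ≤ 1 := by rw [div_le_one hw1]; linarith
    calc S.w 0 / S.w 1 * |_| ≤ 1 * 1 := mul_le_mul this P1 (abs_nonneg _) zero_le_one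
      _ = 1 := one_mul 1
  have n2 : |dt (S.e 2) (nrm S z0 ρ T ζ)| ≤ 1 := by
    rw [dt_nrm hst.ortho, abs_mul, abs_of_pos (by positivity)]
    have : S.w 0 / S.w 2 ≤ 1 := by rw [div_le_one hw2]; linarith
    calc S.w 0 / S.w 2 * |_| ≤ 1 * 1 := mul_le_mul this P2 (abs_nonneg _) zero_le_one
      _ = 1 := one_mul 1
  rw [← n0] at B1 B2
  have x0 := dt_expand hst.ortho (f 0) (nrm S z0 ρ T ζ)
  have x1 := dt_expand hst.ortho (f 1) (nrm S z0 ρ T ζ)
  have x2 := dt_expand hst.ortho (f 2) (nrm S z0 ρ T ζ)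
  have y0 := dt_expand hst.ortho (f 0) (f 0)
  have y1 := dt_expand hst.ortho (f 1) (f 0)
  have y2 := dt_expand hst.ortho (f 2) (f 0)
  rw [hF.ortho 0 0, if_pos rfl] at y0
  rw [hF.ortho 1 0, if_neg (by decide)] at y1
  rw [hF.ortho 2 0, if_neg (by decide)] at y2
  rw [dt_comm (S.e 0) (f 0), dt_comm (S.e 1) (f 0), dt_comm (S.e 2) (f 0)] at y0 y1 y2
  have r00 := abs_dt_le_one hst.ortho hF.ortho 0 0
  have r01 := abs_dt_le_one hst.ortho hF.ortho 0 1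
  have r02 := abs_dt_le_one hst.ortho hF.ortho 0 2
  have r11 := abs_dt_le_one hst.ortho hF.ortho 1 1
  have r21 := abs_dt_le_one hst.ortho hF.ortho 2 1
  have r22 := abs_dt_le_one hst.ortho hF.ortho 2 2
  have q00 := hF.e00
  have q12 := hF.e12
  generalize dt (S.e 0) (nrm S z0 ρ T ζ) = N0 at *
  generalize dt (S.e 1) (nrm S z0 ρ T ζ) = N1 at *
  generalize dt (S.e 2) (nrm S z0 ρ T ζ) = N2 at *
  generalize dt (f 0) (nrm S z0 ρ T ζ) = M0 at *
  generalize dt (f 1) (nrm S z0 ρ T ζ) = M1 at *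
  generalize dt (f 2) (nrm S z0 ρ T ζ) = M2 at *
  generalize dt (f 0) (S.e 0) = A at *
  generalize dt (f 0) (S.e 1) = A1 at *
  generalize dt (f 0) (S.e 2) = A2 at *
  generalize dt (f 1) (S.e 0) = R10 at *
  generalize dt (f 1) (S.e 1) = R11 at *
  generalize dt (f 1) (S.e 2) = R12 at *
  generalize dt (f 2) (S.e 0) = R20 at *
  generalize dt (f 2) (S.e 1) = R21 at *
  generalize dt (f 2) (S.e 2) = R22 at *
  have hN0 : 0 < N0 := by linarith
  have hC0 : 0 < C := by linarith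
  set τ1 := A1 - N1 / N0 * A with hτ1
  set τ2 := A2 - N2 / N0 * A with hτ2
  have k1 : A * M1 = -(N0 * (R11 * τ1 + R12 * τ2)) := by
    have : R10 * A = -(R11 * A1) - R12 * A2 := by linarith
    rw [x1, hτ1, hτ2]
    field_simp
    linear_combination N0 * this
  have k2 : A * M2 = -(N0 * (R21 * τ1 + R22 * τ2)) := by
    have : R20 * A = -(R21 * A1) - R22 * A2 := by linarith
    rw [x2, hτ1, hτ2]
    field_simp
    linear_combination N0 * this
  have k0 : A * M0 = N0 * (1 - A1 * τ1 - A2 * τ2) := by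
    rw [x0, hτ1, hτ2]
    field_simp
    linear_combination (-N0) * y0
  have g1 : |M1| ≤ 2 * C * (|R11| * |τ1| + |R12| * |τ2|) := by
    have a1 : |A| * |M1| ≤ 2 * (|R11| * |τ1| + |R12| * |τ2|) := by
      rw [← abs_mul, k1, abs_neg, abs_mul, abs_of_pos hN0, ← abs_mul, ← abs_mul]
      exact mul_le_mul B2 (abs_add_le _ _) (abs_nonneg _) (by norm_num)
    have a2 : |M1| ≤ C * |A| * |M1| := le_mul_of_one_le_left (abs_nonneg _) q00
    have a3 := mul_le_mul_of_nonneg_left a1 hC0.le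
    linarith
  have g2 : |M2| ≤ 2 * C * (|R21| * |τ1| + |R22| * |τ2|) := by
    have a1 : |A| * |M2| ≤ 2 * (|R21| * |τ1| + |R22| * |τ2|) := by
      rw [← abs_mul, k2, abs_neg, abs_mul, abs_of_pos hN0, ← abs_mul, ← abs_mul]
      exact mul_le_mul B2 (abs_add_le _ _) (abs_nonneg _) (by norm_num)
    have a2 : |M2| ≤ C * |A| * |M2| := le_mul_of_one_le_left (abs_nonneg _) q00
    have a3 := mul_le_mul_of_nonneg_left a1 hC0.le
    linarith
  have p1 := abs_nonneg τ1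
  have p2 := abs_nonneg τ2
  have hCY : 0 < C * Y := by positivity
  have c2 : C * Y ≤ C ^ 2 * Y := by nlinarith
  have c3 : C ^ 2 * Y ≤ C ^ 3 * Y := by
    have : C ^ 2 ≤ C ^ 3 := pow_le_pow_right₀ hC (by norm_num)
    exact mul_le_mul_of_nonneg_right this hY.le
  refine ⟨fun hw => ?_, ?_, ?_, ?_⟩
  · have e1 : |τ1| ≤ 1 / 4 := by
      refine le_of_mul_le_mul_right (a := S.w 1) ?_ hw1
      linarith
    have e2 : |τ2| ≤ 1 / 4 := by
      refine le_of_mul_le_mul_right (a := S.w 2) ?_ hw2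
      linarith
    have e3 : |A1 * τ1| ≤ 1 / 4 := by
      rw [abs_mul]
      calc |A1| * |τ1| ≤ 1 * (1 / 4) := mul_le_mul r01 e1 p1 zero_le_one
        _ = 1 / 4 := one_mul _
    have e4 : |A2 * τ2| ≤ 1 / 4 := by
      rw [abs_mul]
      calc |A2| * |τ2| ≤ 1 * (1 / 4) := mul_le_mul r02 e2 p2 zero_le_one
        _ = 1 / 4 := one_mul _
    rw [abs_le] at e3 e4
    have e5 : 1 / 4 ≤ A * M0 := by
      rw [k0]
      have : 1 / 2 ≤ 1 - A1 * τ1 - A2 * τ2 := by linarith [e3.1, e3.2, e4.1, e4.2]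
      nlinarith
    have e6 : A * M0 ≤ |M0| := by
      calc A * M0 ≤ |A * M0| := le_abs_self _
        _ = |A| * |M0| := abs_mul _ _
        _ ≤ 1 * |M0| := mul_le_mul_of_nonneg_right r00 (abs_nonneg _)
        _ = |M0| := one_mul _
    linarith
  · rw [x0]
    refine (abs_add_le _ _).trans ?_
    have e1 := abs_add_le (A * N0) (A1 * N1)
    rw [abs_mul, abs_mul] at e1
    have e2 : |A| * |N0| ≤ 1 * 2 := mul_le_mul r00 (by rw [abs_of_pos hN0]; exact B2)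
      (abs_nonneg _) zero_le_one
    have e3 : |A1| * |N1| ≤ 1 * 1 := mul_le_mul r01 n1 (abs_nonneg _) zero_le_one
    have e4 : |A2 * N2| ≤ 1 * 1 := by
      rw [abs_mul]; exact mul_le_mul r02 n2 (abs_nonneg _) zero_le_one
    linarith
  · have e1 : |R11| * |τ1| * S.w 1 ≤ 66 * C * Y := by
      have : |R11| * |τ1| ≤ |τ1| := mul_le_of_le_one_left p1 r11
      exact (mul_le_mul_of_nonneg_right this hw1.le).trans t1
    have e2 : |R12| * |τ2| * S.w 1 ≤ 66 * C ^ 2 * Y := by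
      have a1 := mul_le_mul_of_nonneg_right q12 p2
      have a2 := mul_le_mul_of_nonneg_left t2 hC0.le
      linarith
    have e3 := mul_le_mul_of_nonneg_right g1 hw1.le
    have e4 : 2 * C * (|R11| * |τ1| * S.w 1 + |R12| * |τ2| * S.w 1) ≤
        2 * C * (66 * C * Y + 66 * C ^ 2 * Y) :=
      mul_le_mul_of_nonneg_left (by linarith) (by positivity)
    have e5 : 2 * C * (66 * C * Y + 66 * C ^ 2 * Y) = 132 * (C ^ 2 * Y) + 132 * (C ^ 3 * Y) := by
      ring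
    linarith
  · have e1 : |R21| * |τ1| * S.w 2 ≤ 66 * C * Y := by
      have : |R21| * |τ1| ≤ |τ1| := mul_le_of_le_one_left p1 r21
      have a1 := mul_le_mul_of_nonneg_right this hw2.le
      have a2 := mul_le_mul_of_nonneg_left h21 p1
      linarith
    have e2 : |R22| * |τ2| * S.w 2 ≤ 66 * C * Y := by
      have : |R22| * |τ2| ≤ |τ2| := mul_le_of_le_one_left p2 r22
      exact (mul_le_mul_of_nonneg_right this hw2.le).trans t2
    have e3 := mul_le_mul_of_nonneg_right g2 hw2.le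
    have e4 : 2 * C * (|R21| * |τ1| * S.w 2 + |R22| * |τ2| * S.w 2) ≤
        2 * C * (66 * C * Y + 66 * C * Y) :=
      mul_le_mul_of_nonneg_left (by linarith) (by positivity)
    have e5 : 2 * C * (66 * C * Y + 66 * C * Y) = 264 * (C ^ 2 * Y) := by ring
    linarith

end Crest.Agent.R136.Mlo777
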