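import Crest.Agent.R136.Fl8_808

/-!
# R136 (S0187), PLAN 2, B4: lower bound of the gradient of a pair, large base tilt (helper723)

`strip_num` : numbers; `strip_e` : vectors, in the plank frames `e`, `e'` of the two sheets (no
hypothesis on the size of `Y / w2`).
-/

set_option autoImplicit false

namespace Crest.Agent.R136.Mlo723

open Crest.Agent.R136.Sh605 Crest.Agent.R136.Fl808

theorem abs_add3 {x y z X Y Z : ℝ} (hx : |x| ≤ X) (hy : |y| ≤ Y) (hz : |z| ≤ Z) :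
    |x + y + z| ≤ X + Y + Z :=
  (abs_add_le _ _).trans (add_le_add ((abs_add_le _ _).trans (add_le_add hx hy)) hz)

theorem abs_mul_le {x y X Y : ℝ} (hx : |x| ≤ X) (hy : |y| ≤ Y) : |x * y| ≤ X * Y := by
  rw [abs_mul]
  exact mul_le_mul hx hy (abs_nonneg _) ((abs_nonneg _).trans hx)

theorem abs_mul_le_one {x y Y : ℝ} (hx : |x| ≤ 1) (hy : |y| ≤ Y) : |x * y| ≤ Y := by
  have := abs_mul_le hx hy
  linarith

/-- **numbers.** `n_i = (1, a_i, b_i)`, `n'_i = (1, a'_i, b'_i)` in the two frames, `p` the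
transition matrix, `n'_i = s_i n_i + (0, c_i, d_i)`. -/
theorem strip_num {K Λ Y v1 v2 ε : ℝ} {p00 p01 p02 p10 p11 p12 p20 p21 p22 : ℝ}
    {a0 b0 a1 b1 a0' b0' a1' b1' s0 s1 c0 d0 c1 d1 : ℝ}
    (hK : 1 ≤ K) (hΛ : 1500 * K ^ 7 ≤ Λ) (hY : 0 < Y) (hv2 : 0 < v2) (hv : Λ * v2 ≤ 2 * v1)
    (hYv : Y ≤ K * v2) (hε : 0 ≤ ε) (hε1 : 500 * K ^ 5 * ε ≤ 1)
    (h00 : |p00| ≤ 1) (h01 : |p01| ≤ 1) (h02 : |p02| ≤ 1) (h10 : |p10| ≤ 1) (h11 : |p11| ≤ 1)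
    (h20 : |p20| ≤ 1) (h21 : |p21| ≤ 1) (h22 : |p22| ≤ 1)
    (ha0 : |a0| * v1 ≤ K * v2) (ha1 : |a1| * v1 ≤ K * v2) (hb0 : |b0| ≤ K) (hb1 : |b1| ≤ K)
    (ha0' : |a0'| * v1 ≤ K * v2) (ha1' : |a1'| * v1 ≤ K * v2) (hb0' : |b0'| ≤ K) (hb1' : |b1'| ≤ K)
    (E00 : s0 = p00 + p01 * a0' + p02 * b0') (E10 : s1 = p00 + p01 * a1' + p02 * b1')
    (E01 : s0 * a0 + c0 = p10 + p11 * a0' + p12 * b0')
    (E11 : s1 * a1 + c1 = p10 + p11 * a1' + p12 * b1')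
    (E02 : s0 * b0 + d0 = p20 + p21 * a0' + p22 * b0')
    (E12 : s1 * b1 + d1 = p20 + p21 * a1' + p22 * b1')
    (F : p00 * s1 + p10 * (s1 * a1 + c1) + p20 * (s1 * b1 + d1) = 1)
    (hα : |a1 - a0| * v1 ≤ K * Y) (hβ : Y ≤ K * (|b1 - b0| * v2))
    (hα' : |a1' - a0'| * v1 ≤ K * Y)
    (hβ' : |b1' - b0'| * v2 ≤ K * Y)
    (ht : Λ * v2 ≤ K * (|p10| * v1) ∨ Λ * v2 ≤ K * (|p12| * v1))
    (hc0 : |c0| * v1 ≤ ε * (Λ * Y)) (hc1 : |c1| * v1 ≤ ε * (Λ * Y))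
    (hd0 : |d0| * v2 ≤ ε * Y) (hd1 : |d1| * v2 ≤ ε * Y) : False := by
  have hK0 : 0 < K := by linarith
  have hK7 : 1 ≤ K ^ 7 := one_le_pow₀ hK
  have hΛ1 : 1500 ≤ Λ := by linarith
  have hΛ0 : 0 < Λ := by linarith
  have hv1 : 0 < v1 := by
    have := mul_pos hΛ0 hv2
    linarith
  have hv12 : v2 ≤ v1 := by
    have := mul_le_mul_of_nonneg_right hΛ1 hv2.le
    linarith
  -- differences
  obtain ⟨α, hαd⟩ : ∃ α, α = a1 - a0 := ⟨_, rfl⟩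
  obtain ⟨β, hβd⟩ : ∃ β, β = b1 - b0 := ⟨_, rfl⟩
  obtain ⟨α', hαd'⟩ : ∃ α', α' = a1' - a0' := ⟨_, rfl⟩
  obtain ⟨β', hβd'⟩ : ∃ β', β' = b1' - b0' := ⟨_, rfl⟩
  rw [← hαd] at hα
  rw [← hβd] at hβ
  rw [← hαd'] at hα'
  rw [← hβd'] at hβ'
  -- sizes of `a`
  have ba : ∀ x : ℝ, |x| * v1 ≤ K * v2 → |x| ≤ K := by
    intro x hx
    have : |x| * v1 ≤ K * v1 := hx.trans (mul_le_mul_of_nonneg_left hv12 hK0.le)
    exact le_of_mul_le_mul_right this hv1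
  have ba1 := ba a1 ha1
  have ba0 := ba a0 ha0
  have ba1' := ba a1' ha1'
  -- size of `s1`
  have hs1 : |s1| ≤ 3 * K := by
    rw [E10]
    refine (abs_add3 h00 (abs_mul_le_one h01 ba1') (abs_mul_le_one h02 hb1')).trans ?_
    linarith
  -- `σ`
  have hσ : s1 - s0 = p01 * α' + p02 * β' := by rw [E10, E00, hαd', hβd']; ring
  have hσ1 : |s1 - s0| ≤ |α'| + |β'| := by
    rw [hσ]
    exact (abs_add_le _ _).trans (add_le_add (abs_mul_le_one h01 le_rfl) (abs_mul_le_one h02 le_rfl))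
  -- (i)
  have e1 : p12 * β' = s1 * α + (s1 - s0) * a0 + (c1 - c0) - p11 * α' := by
    have : p11 * α' + p12 * β' = s1 * a1 + c1 - (s0 * a0 + c0) := by rw [E11, E01, hαd', hβd']; ring
    rw [hαd]; linarith
  have i1 : |s1 * α| * v1 ≤ 3 * K * (K * Y) := by
    rw [abs_mul, mul_assoc]
    exact mul_le_mul hs1 hα (by positivity) (by positivity)
  have hσv : |s1 - s0| * v2 ≤ 2 * (K * Y) := by
    have h1 : |α'| * v2 ≤ K * Y := (mul_le_mul_of_nonneg_left hv12 (abs_nonneg _)).trans hα'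
    calc |s1 - s0| * v2 ≤ (|α'| + |β'|) * v2 := mul_le_mul_of_nonneg_right hσ1 hv2.le
      _ = |α'| * v2 + |β'| * v2 := by ring
      _ ≤ _ := by linarith
  have i2 : |(s1 - s0) * a0| * v1 ≤ 2 * (K * Y) * K := by
    rw [abs_mul, mul_assoc]
    calc |s1 - s0| * (|a0| * v1) ≤ |s1 - s0| * (K * v2) := mul_le_mul_of_nonneg_left ha0 (abs_nonneg _)
      _ = |s1 - s0| * v2 * K := by ring
      _ ≤ _ := mul_le_mul_of_nonneg_right hσv hK0.le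
  have i3 : |c1 - c0| * v1 ≤ 2 * (ε * (Λ * Y)) := by
    calc |c1 - c0| * v1 ≤ (|c1| + |c0|) * v1 := mul_le_mul_of_nonneg_right (abs_sub _ _) hv1.le
      _ = |c1| * v1 + |c0| * v1 := by ring
      _ ≤ _ := by linarith
  have i4 : |p11 * α'| * v1 ≤ K * Y := by
    refine (mul_le_mul_of_nonneg_right (abs_mul_le_one h11 le_rfl) hv1.le).trans hα'
  have i5 : |p12 * β'| * v1 ≤ 6 * K ^ 2 * Y + 2 * (ε * (Λ * Y)) := by
    have : |p12 * β'| ≤ |s1 * α| + |(s1 - s0) * a0| + |c1 - c0| + |p11 * α'| := by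
      rw [e1]
      exact (abs_sub _ _).trans (add_le_add (abs_add3 le_rfl le_rfl le_rfl) le_rfl)
    calc |p12 * β'| * v1 ≤ (|s1 * α| + |(s1 - s0) * a0| + |c1 - c0| + |p11 * α'|) * v1 :=
          mul_le_mul_of_nonneg_right this hv1.le
      _ = |s1 * α| * v1 + |(s1 - s0) * a0| * v1 + |c1 - c0| * v1 + |p11 * α'| * v1 := by ring
      _ ≤ 3 * K * (K * Y) + 2 * (K * Y) * K + 2 * (ε * (Λ * Y)) + K * Y := by linarith
      _ ≤ _ := by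
        have h1 : K * Y ≤ K * (K * Y) := le_mul_of_one_le_left (by positivity) hK
        have h2 : 6 * K ^ 2 * Y = 6 * (K * (K * Y)) := by ring
        linarith
  -- (ii)
  have i6 : Λ * v2 ≤ 2 * K ^ 2 * (|p12| * v1) := by
    have hK12 : K ≤ K ^ 2 := by
      have := mul_le_mul_of_nonneg_left hK hK0.le
      rw [sq]; linarith
    rcases ht with ht | ht
    · have h1 : p10 = s0 * a0 + c0 - p11 * a0' - p12 * b0' := by linarith
      have hs0 : |s0| ≤ 3 * K := by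
        rw [E00]
        refine (abs_add3 h00 (abs_mul_le_one h01 (ba a0' ha0')) (abs_mul_le_one h02 hb0')).trans ?_
        linarith
      have h2 : |p10| ≤ |s0 * a0| + |c0| + |p11 * a0'| + |p12 * b0'| := by
        rw [h1]
        refine (abs_sub _ _).trans (add_le_add ((abs_sub _ _).trans
          (add_le_add (abs_add_le _ _) le_rfl)) le_rfl)
      have j1 : |s0 * a0| * v1 ≤ 3 * K * (K * v2) := by
        rw [abs_mul, mul_assoc]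
        exact mul_le_mul hs0 ha0 (by positivity) (by positivity)
      have j2 : |c0| * v1 ≤ ε * K * (Λ * v2) := by
        refine hc0.trans ?_
        calc ε * (Λ * Y) ≤ ε * (Λ * (K * v2)) := by gcongr
          _ = _ := by ring
      have j3 : |p11 * a0'| * v1 ≤ K * v2 :=
        (mul_le_mul_of_nonneg_right (abs_mul_le_one h11 le_rfl) hv1.le).trans ha0'
      have j4 : |p12 * b0'| * v1 ≤ K * (|p12| * v1) := by
        rw [abs_mul]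
        calc |p12| * |b0'| * v1 ≤ |p12| * K * v1 := by gcongr
          _ = _ := by ring
      have j5 : |p10| * v1 ≤ 3 * K * (K * v2) + ε * K * (Λ * v2) + K * v2 + K * (|p12| * v1) := by
        calc |p10| * v1 ≤ (|s0 * a0| + |c0| + |p11 * a0'| + |p12 * b0'|) * v1 :=
              mul_le_mul_of_nonneg_right h2 hv1.le
          _ = |s0 * a0| * v1 + |c0| * v1 + |p11 * a0'| * v1 + |p12 * b0'| * v1 := by ring
          _ ≤ _ := by linarith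
      have j6 : Λ * v2 ≤ 4 * K ^ 3 * v2 + ε * K ^ 2 * (Λ * v2) + K ^ 2 * (|p12| * v1) := by
        have h3 : K * (|p10| * v1) ≤ K * (3 * K * (K * v2) + ε * K * (Λ * v2) + K * v2 +
            K * (|p12| * v1)) := mul_le_mul_of_nonneg_left j5 hK0.le
        have h4 : K ^ 2 * v2 ≤ K ^ 3 * v2 :=
          mul_le_mul_of_nonneg_right (pow_le_pow_right₀ hK (by norm_num)) hv2.le
        have h5 : K * (3 * K * (K * v2) + ε * K * (Λ * v2) + K * v2 + K * (|p12| * v1)) =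
          3 * K ^ 3 * v2 + ε * K ^ 2 * (Λ * v2) + K ^ 2 * v2 + K ^ 2 * (|p12| * v1) := by ring
        linarith
      have j7 : 1500 * (K ^ 3 * v2) ≤ Λ * v2 := by
        have h3 : K ^ 3 ≤ K ^ 7 := pow_le_pow_right₀ hK (by norm_num)
        calc 1500 * (K ^ 3 * v2) = 1500 * K ^ 3 * v2 := by ring
          _ ≤ Λ * v2 := mul_le_mul_of_nonneg_right (by linarith) hv2.le
      have j8 : 500 * (ε * K ^ 2 * (Λ * v2)) ≤ Λ * v2 := by
        have h3 : K ^ 2 ≤ K ^ 5 := pow_le_pow_right₀ hK (by norm_num)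
        have h4 : 500 * K ^ 2 * ε ≤ 500 * K ^ 5 * ε :=
          mul_le_mul_of_nonneg_right (by linarith) hε
        calc 500 * (ε * K ^ 2 * (Λ * v2)) = 500 * K ^ 2 * ε * (Λ * v2) := by ring
          _ ≤ 1 * (Λ * v2) := mul_le_mul_of_nonneg_right (by linarith) (by positivity)
          _ = _ := one_mul _
      have h6 : 4 * K ^ 3 * v2 = 4 * (K ^ 3 * v2) := by ring
      have h7 : 2 * K ^ 2 * (|p12| * v1) = 2 * (K ^ 2 * (|p12| * v1)) := by ring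
      have h8 : 0 < Λ * v2 := mul_pos hΛ0 hv2
      linarith
    · have h1 : 0 ≤ |p12| * v1 := by positivity
      calc Λ * v2 ≤ K * (|p12| * v1) := ht
        _ ≤ K ^ 2 * (|p12| * v1) := mul_le_mul_of_nonneg_right hK12 h1
        _ ≤ 2 * K ^ 2 * (|p12| * v1) := by
          have : 0 ≤ K ^ 2 * (|p12| * v1) := by positivity
          linarith
  -- (iii)
  have k1 : |β'| * v2 * Λ ≤ 12 * K ^ 4 * Y + 4 * K ^ 2 * (ε * (Λ * Y)) := by
    calc |β'| * v2 * Λ = |β'| * (Λ * v2) := by ring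
      _ ≤ |β'| * (2 * K ^ 2 * (|p12| * v1)) := mul_le_mul_of_nonneg_left i6 (abs_nonneg _)
      _ = 2 * K ^ 2 * (|p12 * β'| * v1) := by rw [abs_mul]; ring
      _ ≤ 2 * K ^ 2 * (6 * K ^ 2 * Y + 2 * (ε * (Λ * Y))) :=
        mul_le_mul_of_nonneg_left i5 (by positivity)
      _ = _ := by ring
  have k2 : |α'| * v2 * Λ ≤ 2 * (K * Y) := by
    calc |α'| * v2 * Λ = |α'| * (Λ * v2) := by ring
      _ ≤ |α'| * (2 * v1) := mul_le_mul_of_nonneg_left hv (abs_nonneg _)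
      _ = 2 * (|α'| * v1) := by ring
      _ ≤ _ := by linarith
  -- (iv)
  have e2 : s1 * β = p21 * α' + p22 * β' - (s1 - s0) * b0 - (d1 - d0) := by
    have : p21 * α' + p22 * β' = s1 * b1 + d1 - (s0 * b0 + d0) := by rw [E12, E02, hαd', hβd']; ring
    rw [hβd]; linarith
  have k3 : |s1 * β| ≤ 2 * K * (|α'| + |β'|) + |d1 - d0| := by
    have h1 : |p21 * α' + p22 * β'| ≤ |α'| + |β'| :=
      (abs_add_le _ _).trans (add_le_add (abs_mul_le_one h21 le_rfl) (abs_mul_le_one h22 le_rfl))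
    have h2 : |(s1 - s0) * b0| ≤ (|α'| + |β'|) * K := abs_mul_le hσ1 hb0
    have h3 : |s1 * β| ≤ |p21 * α' + p22 * β'| + |(s1 - s0) * b0| + |d1 - d0| := by
      rw [e2]
      exact (abs_sub _ _).trans (add_le_add (abs_sub _ _) le_rfl)
    have h4 : |α'| + |β'| ≤ K * (|α'| + |β'|) := le_mul_of_one_le_left (by positivity) hK
    have h5 : 2 * K * (|α'| + |β'|) = K * (|α'| + |β'|) + (|α'| + |β'|) * K := by ring
    linarith
  have k4 : |d1 - d0| * v2 * Λ ≤ 2 * (ε * (Λ * Y)) := by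
    have h1 : |d1 - d0| * v2 ≤ 2 * (ε * Y) := by
      calc |d1 - d0| * v2 ≤ (|d1| + |d0|) * v2 := mul_le_mul_of_nonneg_right (abs_sub _ _) hv2.le
        _ = |d1| * v2 + |d0| * v2 := by ring
        _ ≤ _ := by linarith
    calc |d1 - d0| * v2 * Λ ≤ 2 * (ε * Y) * Λ := mul_le_mul_of_nonneg_right h1 hΛ0.le
      _ = _ := by ring
  have k5 : |s1 * β| * v2 * Λ ≤ 28 * K ^ 5 * Y + 10 * K ^ 3 * (ε * (Λ * Y)) := by
    have h1 : |s1 * β| * v2 * Λ ≤ 2 * K * (|α'| * v2 * Λ + |β'| * v2 * Λ) + |d1 - d0| * v2 * Λ := by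
      calc |s1 * β| * v2 * Λ ≤ (2 * K * (|α'| + |β'|) + |d1 - d0|) * v2 * Λ := by gcongr
        _ = _ := by ring
    have h2 : 2 * K * (|α'| * v2 * Λ + |β'| * v2 * Λ) ≤
        2 * K * (2 * (K * Y) + (12 * K ^ 4 * Y + 4 * K ^ 2 * (ε * (Λ * Y)))) :=
      mul_le_mul_of_nonneg_left (by linarith) (by positivity)
    have h3 : 2 * K * (2 * (K * Y) + (12 * K ^ 4 * Y + 4 * K ^ 2 * (ε * (Λ * Y)))) =
      4 * (K ^ 2 * Y) + 24 * K ^ 5 * Y + 8 * K ^ 3 * (ε * (Λ * Y)) := by ring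
    have h4 : K ^ 2 * Y ≤ K ^ 5 * Y :=
      mul_le_mul_of_nonneg_right (pow_le_pow_right₀ hK (by norm_num)) hY.le
    have h5 : 0 ≤ ε * (Λ * Y) := by positivity
    have h6 : ε * (Λ * Y) ≤ K ^ 3 * (ε * (Λ * Y)) :=
      le_mul_of_one_le_left h5 (one_le_pow₀ hK)
    have h7 : 28 * K ^ 5 * Y = 4 * (K ^ 5 * Y) + 24 * K ^ 5 * Y := by ring
    have h8 : 10 * K ^ 3 * (ε * (Λ * Y)) = 2 * (K ^ 3 * (ε * (Λ * Y))) + 8 * K ^ 3 * (ε * (Λ * Y)) := by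
      ring
    linarith
  -- (v)
  have m1 : 1 ≤ 4 * K * |s1| := by
    have h1 : |c1| ≤ 2 * ε * K := by
      have h2 : |c1| * v1 ≤ 2 * ε * K * v1 := by
        calc |c1| * v1 ≤ ε * (Λ * Y) := hc1
          _ ≤ ε * (Λ * (K * v2)) := by gcongr
          _ = ε * K * (Λ * v2) := by ring
          _ ≤ ε * K * (2 * v1) := mul_le_mul_of_nonneg_left hv (by positivity)
          _ = _ := by ring
      exact le_of_mul_le_mul_right h2 hv1
    have h2 : |d1| ≤ ε * K := by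
      have h3 : |d1| * v2 ≤ ε * K * v2 := by
        calc |d1| * v2 ≤ ε * Y := hd1
          _ ≤ ε * (K * v2) := by gcongr
          _ = _ := by ring
      exact le_of_mul_le_mul_right h3 hv2
    have h3 : |p00 * s1 + p10 * (s1 * a1 + c1) + p20 * (s1 * b1 + d1)| ≤
        |s1| + (|s1| * K + 2 * ε * K) + (|s1| * K + ε * K) := by
      refine abs_add3 (abs_mul_le_one h00 le_rfl) (abs_mul_le_one h10 ?_) (abs_mul_le_one h20 ?_)
      · exact (abs_add_le _ _).trans (add_le_add (abs_mul_le le_rfl ba1) h1)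
      · exact (abs_add_le _ _).trans (add_le_add (abs_mul_le le_rfl hb1) h2)
    rw [F, abs_one] at h3
    have h4 : |s1| ≤ K * |s1| := le_mul_of_one_le_left (abs_nonneg _) hK
    have h5 : 500 * (ε * K) ≤ 1 := by
      have h6 : K ≤ K ^ 5 := by
        calc K = K ^ 1 := (pow_one K).symm
          _ ≤ K ^ 5 := pow_le_pow_right₀ hK (by norm_num)
      have h7 : 500 * K * ε ≤ 500 * K ^ 5 * ε := mul_le_mul_of_nonneg_right (by linarith) hε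
      linarith
    have h6 : 4 * K * |s1| = 4 * (K * |s1|) := by ring
    have h7 : |s1| * K = K * |s1| := mul_comm _ _
    have h8 : 2 * ε * K = 2 * (ε * K) := by ring
    have h9 : 0 ≤ K * |s1| := by positivity
    linarith
  -- conclusion
  have n1 : |β| * v2 * Λ ≤ 4 * K * (28 * K ^ 5 * Y + 10 * K ^ 3 * (ε * (Λ * Y))) := by
    have h0 : 0 ≤ |β| * v2 * Λ := by positivity
    calc |β| * v2 * Λ ≤ 4 * K * |s1| * (|β| * v2 * Λ) := le_mul_of_one_le_left h0 m1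
      _ = 4 * K * (|s1 * β| * v2 * Λ) := by rw [abs_mul]; ring
      _ ≤ _ := mul_le_mul_of_nonneg_left k5 (by positivity)
  have n2 : Λ * Y ≤ 112 * K ^ 7 * Y + 40 * K ^ 5 * ε * (Λ * Y) := by
    calc Λ * Y ≤ Λ * (K * (|β| * v2)) := mul_le_mul_of_nonneg_left hβ hΛ0.le
      _ = K * (|β| * v2 * Λ) := by ring
      _ ≤ K * (4 * K * (28 * K ^ 5 * Y + 10 * K ^ 3 * (ε * (Λ * Y)))) :=
        mul_le_mul_of_nonneg_left n1 hK0.le
      _ = _ := by ring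
  have n3 : 1500 * (K ^ 7 * Y) ≤ Λ * Y := by
    calc 1500 * (K ^ 7 * Y) = 1500 * K ^ 7 * Y := by ring
      _ ≤ Λ * Y := mul_le_mul_of_nonneg_right hΛ hY.le
  have n4 : 500 * K ^ 5 * ε * (Λ * Y) ≤ Λ * Y := by
    have h1 : 0 ≤ Λ * Y := by positivity
    calc 500 * K ^ 5 * ε * (Λ * Y) ≤ 1 * (Λ * Y) := mul_le_mul_of_nonneg_right hε1 h1
      _ = _ := one_mul _
  have n5 : 112 * K ^ 7 * Y = 112 * (K ^ 7 * Y) := by ring
  have n6 : 500 * K ^ 5 * ε * (Λ * Y) = 12.5 * (40 * K ^ 5 * ε * (Λ * Y)) := by ring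
  have n7 : 0 < Λ * Y := mul_pos hΛ0 hY
  linarith

/-- one vector read in the other frame, normalised -/
theorem expand_at {e' : Fin 3 → V3} (he' : Ortho e') (x N' : V3) (h : 0 < dt (e' 0) N') :
    dt x N' / dt (e' 0) N' = dt x (e' 0) + dt x (e' 1) * (dt (e' 1) N' / dt (e' 0) N') +
      dt x (e' 2) * (dt (e' 2) N' / dt (e' 0) N') := by
  rw [dt_expand he' x N']
  field_simp

/-- **vectors.** `N0, N1` the gradients of the sheet `S` at `ζ = 0, 1`, `N0', N1'` those of `S'`,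
`e`, `e'` the two plank frames. `πk = <e0, N> <ek, N'> - <e0, N'> <ek, N>`. -/
theorem strip_e {K Λ Y v1 v2 ε : ℝ} {e e' : Fin 3 → V3} {N0 N1 N0' N1' : V3}
    (he : Ortho e) (he' : Ortho e')
    (hK : 1 ≤ K) (hΛ : 192000 * K ^ 7 ≤ Λ) (hY : 0 < Y) (hv2 : 0 < v2) (hv : Λ * v2 ≤ 2 * v1)
    (hYv : Y ≤ K * v2) (hε : 0 ≤ ε) (hε1 : 64000 * K ^ 5 * ε ≤ 1)
    (z0 : 1 / 2 ≤ dt (e 0) N0) (z1 : 1 / 2 ≤ dt (e 0) N1)
    (z0' : 1 / 2 ≤ dt (e' 0) N0') (z1' : 1 / 2 ≤ dt (e' 0) N1')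
    (ha0 : |dt (e 1) N0| * v1 ≤ K * v2) (ha1 : |dt (e 1) N1| * v1 ≤ K * v2)
    (hb0 : |dt (e 2) N0| ≤ K) (hb1 : |dt (e 2) N1| ≤ K)
    (ha0' : |dt (e' 1) N0'| * v1 ≤ K * v2) (ha1' : |dt (e' 1) N1'| * v1 ≤ K * v2)
    (hb0' : |dt (e' 2) N0'| ≤ K) (hb1' : |dt (e' 2) N1'| ≤ K)
    (hα : |dt (e 1) N1 / dt (e 0) N1 - dt (e 1) N0 / dt (e 0) N0| * v1 ≤ 2 * K * Y)
    (hβ : Y ≤ 2 * K * (|dt (e 2) N1 / dt (e 0) N1 - dt (e 2) N0 / dt (e 0) N0| * v2))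
    (hα' : |dt (e' 1) N1' / dt (e' 0) N1' - dt (e' 1) N0' / dt (e' 0) N0'| * v1 ≤ 2 * K * Y)
    (hβ' : |dt (e' 2) N1' / dt (e' 0) N1' - dt (e' 2) N0' / dt (e' 0) N0'| * v2 ≤ 2 * K * Y)
    (ht : Λ * v2 ≤ 2 * K * (|dt (e 1) (e' 0)| * v1) ∨ Λ * v2 ≤ 2 * K * (|dt (e 1) (e' 2)| * v1)) :
    ε * Y ≤ max (|dt (e 0) N0 * dt (e 1) N0' - dt (e 0) N0' * dt (e 1) N0| * v1 / Λ)
        (|dt (e 0) N0 * dt (e 2) N0' - dt (e 0) N0' * dt (e 2) N0| * v2) ∨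
      ε * Y ≤ max (|dt (e 0) N1 * dt (e 1) N1' - dt (e 0) N1' * dt (e 1) N1| * v1 / Λ)
        (|dt (e 0) N1 * dt (e 2) N1' - dt (e 0) N1' * dt (e 2) N1| * v2) := by
  have hK0 : 0 < K := by linarith
  have hΛ0 : 0 < Λ := lt_of_lt_of_le (by positivity) hΛ
  have hv1 : 0 < v1 := by
    have := mul_pos hΛ0 hv2
    linarith
  by_contra hc
  simp only [not_or, not_le, max_lt_iff] at hc
  obtain ⟨⟨q1, q2⟩, q3, q4⟩ := hc
  have y0 : 0 < dt (e 0) N0 := by linarith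
  have y1 : 0 < dt (e 0) N1 := by linarith
  have y0' : 0 < dt (e' 0) N0' := by linarith
  have y1' : 0 < dt (e' 0) N1' := by linarith
  -- quotients
  have qa : ∀ x y X : ℝ, 1 / 2 ≤ y → 0 ≤ X → |x| * v1 ≤ X → |x / y| * v1 ≤ 2 * X := by
    intro x y X hy hX hx
    have hy0 : 0 < y := by linarith
    rw [abs_div, abs_of_pos hy0, div_mul_eq_mul_div, div_le_iff₀ hy0]
    nlinarith
  have qb : ∀ x y X : ℝ, 1 / 2 ≤ y → 0 ≤ X → |x| ≤ X → |x / y| ≤ 2 * X := by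
    intro x y X hy hX hx
    have hy0 : 0 < y := by linarith
    rw [abs_div, abs_of_pos hy0, div_le_iff₀ hy0]
    nlinarith
  -- the products `π` control `c`, `d`
  have qc : ∀ (k : Fin 3) (N N' : V3) (v X : ℝ), 0 < v → 1 / 2 ≤ dt (e 0) N →
      1 / 2 ≤ dt (e' 0) N' →
      |dt (e 0) N * dt (e k) N' - dt (e 0) N' * dt (e k) N| * v ≤ X →
      |dt (e k) N' / dt (e' 0) N' - dt (e 0) N' / dt (e' 0) N' * (dt (e k) N / dt (e 0) N)| * v ≤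
        4 * X := by
    intro k N N' v X hv0 h1 h2 h3
    have g1 : 0 < dt (e 0) N := by linarith
    have g2 : 0 < dt (e' 0) N' := by linarith
    have h4 : dt (e k) N' / dt (e' 0) N' - dt (e 0) N' / dt (e' 0) N' * (dt (e k) N / dt (e 0) N) =
        (dt (e 0) N * dt (e k) N' - dt (e 0) N' * dt (e k) N) / (dt (e' 0) N' * dt (e 0) N) := by
      field_simp
    rw [h4, abs_div, abs_of_pos (mul_pos g2 g1), div_mul_eq_mul_div, div_le_iff₀ (mul_pos g2 g1)]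
    have h5 : 1 / 4 ≤ dt (e' 0) N' * dt (e 0) N := by nlinarith
    have h6 : 0 ≤ X := le_trans (by positivity) h3
    nlinarith
  have hX : 0 ≤ K * v2 := by positivity
  have q1' : |dt (e 0) N0 * dt (e 1) N0' - dt (e 0) N0' * dt (e 1) N0| * v1 ≤ ε * Y * Λ := by
    have := q1.le
    rwa [div_le_iff₀ hΛ0] at this
  have q3' : |dt (e 0) N1 * dt (e 1) N1' - dt (e 0) N1' * dt (e 1) N1| * v1 ≤ ε * Y * Λ := by
    have := q3.le
    rwa [div_le_iff₀ hΛ0] at this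
  have c0 := qc 1 N0 N0' v1 _ hv1 z0 z0' q1'
  have c1 := qc 1 N1 N1' v1 _ hv1 z1 z1' q3'
  have d0 := qc 2 N0 N0' v2 _ hv2 z0 z0' q2.le
  have d1 := qc 2 N1 N1' v2 _ hv2 z1 z1' q4.le
  have F : dt (e 0) (e' 0) * (dt (e 0) N1' / dt (e' 0) N1') +
      dt (e 1) (e' 0) * (dt (e 0) N1' / dt (e' 0) N1' * (dt (e 1) N1 / dt (e 0) N1) +
        (dt (e 1) N1' / dt (e' 0) N1' - dt (e 0) N1' / dt (e' 0) N1' *
          (dt (e 1) N1 / dt (e 0) N1))) +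
      dt (e 2) (e' 0) * (dt (e 0) N1' / dt (e' 0) N1' * (dt (e 2) N1 / dt (e 0) N1) +
        (dt (e 2) N1' / dt (e' 0) N1' - dt (e 0) N1' / dt (e' 0) N1' *
          (dt (e 2) N1 / dt (e 0) N1))) = 1 := by
    have h1 := dt_expand he (e' 0) N1'
    rw [dt_comm (e' 0) (e 0), dt_comm (e' 0) (e 1), dt_comm (e' 0) (e 2)] at h1
    rw [add_sub_cancel, add_sub_cancel]
    have h2 : dt (e 0) (e' 0) * (dt (e 0) N1' / dt (e' 0) N1') +
        dt (e 1) (e' 0) * (dt (e 1) N1' / dt (e' 0) N1') +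
        dt (e 2) (e' 0) * (dt (e 2) N1' / dt (e' 0) N1') =
        (dt (e 0) (e' 0) * dt (e 0) N1' + dt (e 1) (e' 0) * dt (e 1) N1' +
          dt (e 2) (e' 0) * dt (e 2) N1') / dt (e' 0) N1' := by ring
    rw [h2, ← h1, div_self y1'.ne']
  exact strip_num (K := 2 * K) (Λ := Λ) (Y := Y) (v1 := v1) (v2 := v2) (ε := 4 * ε)
    (p00 := dt (e 0) (e' 0)) (p01 := dt (e 0) (e' 1)) (p02 := dt (e 0) (e' 2))
    (p10 := dt (e 1) (e' 0)) (p11 := dt (e 1) (e' 1)) (p12 := dt (e 1) (e' 2))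
    (p20 := dt (e 2) (e' 0)) (p21 := dt (e 2) (e' 1)) (p22 := dt (e 2) (e' 2))
    (a0 := dt (e 1) N0 / dt (e 0) N0) (b0 := dt (e 2) N0 / dt (e 0) N0)
    (a1 := dt (e 1) N1 / dt (e 0) N1) (b1 := dt (e 2) N1 / dt (e 0) N1)
    (a0' := dt (e' 1) N0' / dt (e' 0) N0') (b0' := dt (e' 2) N0' / dt (e' 0) N0')
    (a1' := dt (e' 1) N1' / dt (e' 0) N1') (b1' := dt (e' 2) N1' / dt (e' 0) N1')
    (s0 := dt (e 0) N0' / dt (e' 0) N0') (s1 := dt (e 0) N1' / dt (e' 0) N1')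
    (c0 := dt (e 1) N0' / dt (e' 0) N0' - dt (e 0) N0' / dt (e' 0) N0' * (dt (e 1) N0 / dt (e 0) N0))
    (d0 := dt (e 2) N0' / dt (e' 0) N0' - dt (e 0) N0' / dt (e' 0) N0' * (dt (e 2) N0 / dt (e 0) N0))
    (c1 := dt (e 1) N1' / dt (e' 0) N1' - dt (e 0) N1' / dt (e' 0) N1' * (dt (e 1) N1 / dt (e 0) N1))
    (d1 := dt (e 2) N1' / dt (e' 0) N1' - dt (e 0) N1' / dt (e' 0) N1' * (dt (e 2) N1 / dt (e 0) N1))
    (by linarith) (by nlinarith [pow_pos hK0 7]) hY hv2 hv (by nlinarith) (by linarith)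
    (by nlinarith [pow_pos hK0 5])
    (abs_dt_le_one he' he 0 0) (abs_dt_le_one he' he 0 1) (abs_dt_le_one he' he 0 2)
    (abs_dt_le_one he' he 1 0) (abs_dt_le_one he' he 1 1)
    (abs_dt_le_one he' he 2 0) (abs_dt_le_one he' he 2 1) (abs_dt_le_one he' he 2 2)
    ((qa _ _ _ z0 hX ha0).trans_eq (by ring)) ((qa _ _ _ z1 hX ha1).trans_eq (by ring))
    (qb _ _ _ z0 hK0.le hb0) (qb _ _ _ z1 hK0.le hb1)
    ((qa _ _ _ z0' hX ha0').trans_eq (by ring)) ((qa _ _ _ z1' hX ha1').trans_eq (by ring))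
    (qb _ _ _ z0' hK0.le hb0') (qb _ _ _ z1' hK0.le hb1')
    (expand_at he' (e 0) N0' y0') (expand_at he' (e 0) N1' y1')
    (by rw [add_sub_cancel]; exact expand_at he' (e 1) N0' y0')
    (by rw [add_sub_cancel]; exact expand_at he' (e 1) N1' y1')
    (by rw [add_sub_cancel]; exact expand_at he' (e 2) N0' y0')
    (by rw [add_sub_cancel]; exact expand_at he' (e 2) N1' y1')
    F hα hβ hα' hβ' ht (c0.trans_eq (by ring)) (c1.trans_eq (by ring)) (d0.trans_eq (by ring))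
    (d1.trans_eq (by ring))

/-- `strip_e` for gradients given as functions of `ζ` -/
theorem strip_z {K Λ Y v1 v2 ε : ℝ} {e e' : Fin 3 → V3} {N N' : ℝ → V3}
    (he : Ortho e) (he' : Ortho e')
    (hK : 1 ≤ K) (hΛ : 192000 * K ^ 7 ≤ Λ) (hY : 0 < Y) (hv2 : 0 < v2) (hv : Λ * v2 ≤ 2 * v1)
    (hYv : Y ≤ K * v2) (hε : 0 ≤ ε) (hε1 : 64000 * K ^ 5 * ε ≤ 1)
    (hN : ∀ ζ : ℝ, ζ = 0 ∨ ζ = 1 → 1 / 2 ≤ dt (e 0) (N ζ) ∧ |dt (e 1) (N ζ)| * v1 ≤ K * v2 ∧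
      |dt (e 2) (N ζ)| ≤ K)
    (hN' : ∀ ζ : ℝ, ζ = 0 ∨ ζ = 1 → 1 / 2 ≤ dt (e' 0) (N' ζ) ∧
      |dt (e' 1) (N' ζ)| * v1 ≤ K * v2 ∧ |dt (e' 2) (N' ζ)| ≤ K)
    (hα : |dt (e 1) (N 1) / dt (e 0) (N 1) - dt (e 1) (N 0) / dt (e 0) (N 0)| * v1 ≤ 2 * K * Y)
    (hβ : Y ≤ 2 * K * (|dt (e 2) (N 1) / dt (e 0) (N 1) - dt (e 2) (N 0) / dt (e 0) (N 0)| * v2))
    (hα' : |dt (e' 1) (N' 1) / dt (e' 0) (N' 1) - dt (e' 1) (N' 0) / dt (e' 0) (N' 0)| * v1 ≤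
      2 * K * Y)
    (hβ' : |dt (e' 2) (N' 1) / dt (e' 0) (N' 1) - dt (e' 2) (N' 0) / dt (e' 0) (N' 0)| * v2 ≤
      2 * K * Y)
    (ht : Λ * v2 ≤ 2 * K * (|dt (e 1) (e' 0)| * v1) ∨ Λ * v2 ≤ 2 * K * (|dt (e 1) (e' 2)| * v1)) :
    ∃ ζ : ℝ, (ζ = 0 ∨ ζ = 1) ∧
      ε * Y ≤ max (|dt (e 0) (N ζ) * dt (e 1) (N' ζ) - dt (e 0) (N' ζ) * dt (e 1) (N ζ)| * v1 / Λ)
        (|dt (e 0) (N ζ) * dt (e 2) (N' ζ) - dt (e 0) (N' ζ) * dt (e 2) (N ζ)| * v2) := by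
  obtain ⟨z0, ha0, hb0⟩ := hN 0 (Or.inl rfl)
  obtain ⟨z1, ha1, hb1⟩ := hN 1 (Or.inr rfl)
  obtain ⟨z0', ha0', hb0'⟩ := hN' 0 (Or.inl rfl)
  obtain ⟨z1', ha1', hb1'⟩ := hN' 1 (Or.inr rfl)
  rcases strip_e he he' hK hΛ hY hv2 hv hYv hε hε1 z0 z1 z0' z1' ha0 ha1 hb0 hb1 ha0' ha1' hb0'
    hb1' hα hβ hα' hβ' ht with h | h
  · exact ⟨0, Or.inl rfl, h⟩
  · exact ⟨1, Or.inr rfl, h⟩

end Crest.Agent.R136.Mlo723
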