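import Crest.Agent.R136.Shd_410
import Crest.Agent.R136.Mlo_723
import Crest.Agent.R136.Tpl_706
import Crest.Agent.R136.Mlo2_777

/-!
# R136 (S0187), PLAN 2, leaf B4: gradient of a pair, large base tilt (helper89)

`nrm_facts` : the gradient of a sheet in its plank frame at the two ends of the window.
`mlow_j`    : over `ShD`, if `W ^ 53 ≤ 2 ^ j`, the gradient of the pair is `≥ W ^ (-41) * Y` at one of
the two ends of the window (case `2 ^ k' ≤ W ^ c` of the lower bound of `M`).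
-/

set_option autoImplicit false
set_option linter.unusedVariables false

namespace Crest.Agent.R136.Mlj89

open Finset Crest.Agent.R136.Sh605 Crest.Agent.R136.Fl808
open Crest.Agent.R136.K4 (Plk4)
open Crest.Agent.R136.Tlt51 (Shp InP)
open Crest.Agent.R136.KapP335 (kapP expP expP_spec DetP)
open Crest.Agent.R136.Tl102 (QF Fq bz shB0 shB1 shG scB1 kap NrmC IsExp StP)
open Crest.Agent.R136.Pl2 (FH FL kp rot2)
open Crest.Agent.R136.Pl2W102 (Near Ex2 Two1)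
open Crest.Agent.R136.Mlo777 (nrm dt_nrm curv_le)
open Crest.Agent.R136.Shd410 (ShD)

/-- the difference of the slopes of the gradient at the two ends of the window -/
noncomputable def dsl (S : Plk4) (z0 ρ : ℝ) (T : Ln4) (k : Fin 3) : ℝ :=
  dt (S.e k) (nrm S z0 ρ T 1) / dt (S.e 0) (nrm S z0 ρ T 1) -
    dt (S.e k) (nrm S z0 ρ T 0) / dt (S.e 0) (nrm S z0 ρ T 0)

theorem dsl_eq {S : Plk4} {T : Ln4} {z0 ρ r : ℝ} (hρ : 0 < ρ) (hr : 0 < r)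
    (hS : Shp S z0 ρ r) (hT : InP T S z0 ρ) (k : Fin 3) (hk : k = 1 ∨ k = 2) :
    dsl S z0 ρ T k = S.w 0 / S.w k * (shB1 (expP S z0 ρ T).1 (expP S z0 ρ T).2.1 k /
      ((expP S z0 ρ T).1 0 + (expP S z0 ρ T).2.1 0)) := by
  have hw0 : 0 < S.w 0 := (hr.trans_le hS.r0_le).trans_le hS.a_le0
  have hst := StP.of_shN hS hw0
  have hE := expP_spec hS.isQ hw0.ne' z0 ρ T
  have N := IsExp.nrmC hst hρ.le (fun z h1 h2 => (hT z h1 h2).1) hE
  obtain ⟨B1, -, -, -, -, -⟩ := curv_le N (le_refl (0 : ℝ)) zero_le_one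
  obtain ⟨C1, -, -, -, -, -⟩ := curv_le N zero_le_one (le_refl (1 : ℝ))
  have hwk := hst.pos k
  rw [dsl, dt_nrm hst.ortho, dt_nrm hst.ortho, dt_nrm hst.ortho, dt_nrm hst.ortho]
  generalize (expP S z0 ρ T).1 = b0 at *
  generalize (expP S z0 ρ T).2.1 = b1 at *
  have h0 : b0 0 ≠ 0 := by
    have : 1 / 2 ≤ b0 0 := by simpa using B1
    linarith
  have h1 : b0 0 + b1 0 ≠ 0 := by
    have : 1 / 2 ≤ b0 0 + b1 0 := by simpa using C1
    linarith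
  have hs : shB1 b0 b1 k = b1 k - b0 k / b0 0 * b1 0 := by
    rcases hk with rfl | rfl <;> rfl
  rw [hs, div_self hw0.ne', zero_mul, zero_mul, add_zero, add_zero, one_mul, one_mul, one_mul,
    one_mul]
  field_simp
  ring

theorem nrm_facts {S : Plk4} {T : Ln4} {z0 ρ r W w1 w2 : ℝ} (hρ : 0 < ρ) (hr : 0 < r)
    (hS : Shp S z0 ρ r) (hT : InP T S z0 ρ) (hW : 1 ≤ W) (hw1 : 0 < w1) (hw2 : 0 < w2)
    (n1 : Near W w1 (S.w 1)) (n2 : Near W w2 (S.w 2)) :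
    (∀ ζ : ℝ, ζ = 0 ∨ ζ = 1 → 1 / 2 ≤ dt (S.e 0) (nrm S z0 ρ T ζ) ∧
      |dt (S.e 1) (nrm S z0 ρ T ζ)| * w1 ≤ W ^ 2 * w2 ∧ |dt (S.e 2) (nrm S z0 ρ T ζ)| ≤ 1) ∧
    |dsl S z0 ρ T 1| * w1 ≤ 2 * W * kp S z0 ρ T ∧
    |dsl S z0 ρ T 2| * w2 ≤ 2 * W * kp S z0 ρ T ∧
    kp S z0 ρ T * rot2 S z0 ρ T ≤ 2 * W * (|dsl S z0 ρ T 2| * w2) := by
  have hw0 : 0 < S.w 0 := (hr.trans_le hS.r0_le).trans_le hS.a_le0
  have hst := StP.of_shN hS hw0
  have hE := expP_spec hS.isQ hw0.ne' z0 ρ T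
  have N := IsExp.nrmC hst hρ.le (fun z h1 h2 => (hT z h1 h2).1) hE
  have hW0 : 0 < W := by linarith
  have p1 := hst.pos 1
  have p2 := hst.pos 2
  have h21 : S.w 2 ≤ S.w 1 := hS.w_le
  have h02 : S.w 0 ≤ S.w 2 := hS.w0_le
  have k1 : |shB1 (expP S z0 ρ T).1 (expP S z0 ρ T).2.1 1| ≤
      kap (expP S z0 ρ T).1 (expP S z0 ρ T).2.1 (expP S z0 ρ T).2.2 :=
    (le_max_left _ _).trans (le_max_left _ _)
  have k2 : |shB1 (expP S z0 ρ T).1 (expP S z0 ρ T).2.1 2| ≤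
      kap (expP S z0 ρ T).1 (expP S z0 ρ T).2.1 (expP S z0 ρ T).2.2 :=
    (le_max_right _ _).trans (le_max_left _ _)
  have e1 := dsl_eq hρ hr hS hT 1 (Or.inl rfl)
  have e2 := dsl_eq hρ hr hS hT 2 (Or.inr rfl)
  obtain ⟨C1, C2, -, -, -, -⟩ := curv_le N zero_le_one (le_refl (1 : ℝ))
  rw [one_mul] at C1 C2
  have up : ∀ (x κ w v : ℝ), 0 < w → v ≤ W * w → 0 < v → |x| ≤ κ →
      |S.w 0 / w * (x / ((expP S z0 ρ T).1 0 + (expP S z0 ρ T).2.1 0))| * v ≤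
        2 * W * (S.w 0 * κ) := by
    intro x κ w v hw hv hv0 hx
    set l := (expP S z0 ρ T).1 0 + (expP S z0 ρ T).2.1 0 with hl
    have hl0 : 0 < l := by linarith
    rw [abs_mul, abs_of_pos (by positivity), abs_div, abs_of_pos hl0]
    have a1 : |x| / l ≤ 2 * κ := by
      rw [div_le_iff₀ hl0]
      have : 0 ≤ κ := (abs_nonneg _).trans hx
      nlinarith
    have a2 : S.w 0 / w * v ≤ S.w 0 * W := by
      rw [div_mul_eq_mul_div, div_le_iff₀ hw]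
      nlinarith
    calc S.w 0 / w * (|x| / l) * v = (S.w 0 / w * v) * (|x| / l) := by ring
      _ ≤ (S.w 0 * W) * (2 * κ) := mul_le_mul a2 a1 (by positivity) (by positivity)
      _ = _ := by ring
  refine ⟨?_, ?_, ?_, ?_⟩
  · intro ζ hζ
    have hζ' : 0 ≤ ζ ∧ ζ ≤ 1 := by
      rcases hζ with rfl | rfl <;> constructor <;> norm_num
    obtain ⟨D1, -, D3, D4, -, -⟩ := curv_le N hζ'.1 hζ'.2
    rw [dt_nrm hst.ortho, dt_nrm hst.ortho, dt_nrm hst.ortho]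
    refine ⟨?_, ?_, ?_⟩
    · rw [div_self hw0.ne', one_mul]; exact D1
    · rw [abs_mul, abs_of_pos (by positivity)]
      have a1 : S.w 0 / S.w 1 * w1 ≤ W ^ 2 * w2 := by
        rw [div_mul_eq_mul_div, div_le_iff₀ p1]
        have b1 : S.w 0 * w1 ≤ S.w 0 * (W * S.w 1) := mul_le_mul_of_nonneg_left n1.1 hw0.le
        have b2 : W * S.w 1 * S.w 0 ≤ W * S.w 1 * (W * w2) :=
          mul_le_mul_of_nonneg_left (h02.trans n2.2) (by positivity)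
        nlinarith
      calc S.w 0 / S.w 1 * |(expP S z0 ρ T).1 1 + ζ * (expP S z0 ρ T).2.1 1| * w1 =
          (S.w 0 / S.w 1 * w1) * |(expP S z0 ρ T).1 1 + ζ * (expP S z0 ρ T).2.1 1| := by ring
        _ ≤ (W ^ 2 * w2) * 1 := mul_le_mul a1 D3 (abs_nonneg _) (by positivity)
        _ = _ := mul_one _
    · rw [abs_mul, abs_of_pos (by positivity)]
      have a1 : S.w 0 / S.w 2 ≤ 1 := by rw [div_le_one p2]; exact h02
      calc S.w 0 / S.w 2 * |(expP S z0 ρ T).1 2 + ζ * (expP S z0 ρ T).2.1 2| ≤ 1 * 1 :=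
          mul_le_mul a1 D4 (abs_nonneg _) zero_le_one
        _ = 1 := mul_one 1
  · rw [e1]
    exact up _ _ _ _ p1 n1.1 hw1 k1
  · rw [e2]
    exact up _ _ _ _ p2 n2.1 hw2 k2
  · rw [e2, kp, kapP, rot2]
    set κ := kap (expP S z0 ρ T).1 (expP S z0 ρ T).2.1 (expP S z0 ρ T).2.2 with hκ
    have hκ0 : 0 ≤ κ := Crest.Agent.R136.Tl102.kap_nonneg _ _ _
    set x := shB1 (expP S z0 ρ T).1 (expP S z0 ρ T).2.1 2 with hx
    have hsc : scB1 κ (expP S z0 ρ T).1 (expP S z0 ρ T).2.1 2 = x / κ := rfl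
    rw [hsc]
    set l := (expP S z0 ρ T).1 0 + (expP S z0 ρ T).2.1 0 with hl
    have hl0 : 0 < l := by linarith
    have a1 : κ * |x / κ| ≤ |x| := by
      rcases hκ0.eq_or_lt with h | h
      · rw [← h, zero_mul]; exact abs_nonneg _
      · rw [abs_div, abs_of_pos h, mul_div_cancel₀ _ h.ne']
    have a2 : |S.w 0 / S.w 2 * (x / l)| = S.w 0 * |x| / (S.w 2 * l) := by
      rw [abs_mul, abs_of_pos (by positivity), abs_div, abs_of_pos hl0, div_mul_div_comm]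
    rw [a2]
    have a3 : S.w 0 * |x| ≤ 2 * W * (S.w 0 * |x| / (S.w 2 * l) * w2) := by
      rw [div_mul_eq_mul_div, ← mul_div_assoc, le_div_iff₀ (by positivity)]
      have b1 : S.w 2 * l ≤ (W * w2) * 2 := mul_le_mul n2.2 C2 hl0.le (by positivity)
      have b2 : S.w 0 * |x| * (S.w 2 * l) ≤ S.w 0 * |x| * ((W * w2) * 2) :=
        mul_le_mul_of_nonneg_left b1 (by positivity)
      linarith
    calc S.w 0 * κ * |x / κ| = S.w 0 * (κ * |x / κ|) := by ring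
      _ ≤ S.w 0 * |x| := mul_le_mul_of_nonneg_left a1 hw0.le
      _ ≤ _ := a3

/-- **large base tilt** : over `ShD`, the gradient of the pair is large at one of the two ends. -/
theorem mlow_j {K : ℝ} {qm qp : Fin 3 → ℝ} {L : ℕ → Ln4} {Z : Finset ℕ} {S S' : Plk4}
    {f g : Fin 3 → V3} {W M a Y w1 w2 z0 ρ r : ℝ} {j k' : ℕ}
    (h : ShD K qm qp L Z S S' f g W M a Y w1 w2 z0 ρ r j k') (hj : W ^ 53 ≤ (2 : ℝ) ^ j)
    {s : ℕ} (hs : s ∈ Z) :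
    ∃ ζ : ℝ, (ζ = 0 ∨ ζ = 1) ∧ Y ≤ W ^ 41 *
      max (|dt (S.e 0) (nrm S z0 ρ (L s) ζ) * dt (S.e 1) (nrm S' z0 ρ (L s) ζ) -
          dt (S.e 0) (nrm S' z0 ρ (L s) ζ) * dt (S.e 1) (nrm S z0 ρ (L s) ζ)| * w1 / 2 ^ j)
        (|dt (S.e 0) (nrm S z0 ρ (L s) ζ) * dt (S.e 2) (nrm S' z0 ρ (L s) ζ) -
          dt (S.e 0) (nrm S' z0 ρ (L s) ζ) * dt (S.e 2) (nrm S z0 ρ (L s) ζ)| * w2) := by
  have hW : 1 ≤ W := by linarith [h.W2]
  have hW0 : 0 < W := by linarith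
  have hY : 0 < Y := h.a0.trans_le h.aY
  have hw2 : 0 < w2 := hY.trans_le h.Yw
  have hw1 : 0 < w1 := hw2.trans_le h.ww
  have hp : ∀ n : ℕ, (2 : ℝ) ^ n ≤ W ^ n := fun n => pow_le_pow_left₀ (by norm_num) h.W2 n
  have hm : ∀ {m n : ℕ}, m ≤ n → W ^ m ≤ W ^ n := fun hmn => pow_le_pow_right₀ hW hmn
  obtain ⟨a1, a2, a3, a4⟩ := nrm_facts h.ρ0 h.r0 h.shS (h.inS s hs) hW hw1 hw2 h.d1 h.d2
  obtain ⟨b1, b2, b3, b4⟩ := nrm_facts h.ρ0 h.r0 h.shS' (h.inS' s hs) hW hw1 hw2 h.d1' h.d2'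
  obtain ⟨y1, y2⟩ := h.near s hs
  have hle := h.le s hs
  have oe : Ortho S.e := h.shS.ortho
  have oe' : Ortho S'.e := h.shS'.ortho
  have p32 : (32 : ℝ) ≤ W ^ 5 := by have := hp 5; norm_num at this; exact this
  -- the base tilt is at most `w1 / w2`
  have hlw : (2 : ℝ) ^ j * w2 ≤ 2 * w1 := by
    rcases h.dy.blo with h0 | h0 | h0
    · rw [h0, pow_zero, one_mul]; linarith [h.ww]
    · refine h0.trans (mul_le_mul_of_nonneg_left ?_ (by norm_num))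
      exact mul_le_of_le_one_left hw1.le (abs_dt_le_one h.hF.ortho h.hG.ortho 2 1)
    · refine h0.trans (mul_le_mul_of_nonneg_left ?_ (by norm_num))
      exact mul_le_of_le_one_left hw1.le (abs_dt_le_one h.hF.ortho h.hG.ortho 0 1)
  -- rotation
  have hrot : 1 / W ≤ rot2 S z0 ρ (L s) := by
    refine h.rot s hs ?_
    have c1 : W ^ 4 * w2 ≤ 2 * w1 :=
      (mul_le_mul_of_nonneg_right ((hm (by norm_num)).trans hj) hw2.le).trans hlw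
    have c2 : W * S.w 2 ≤ W * (W * w2) := mul_le_mul_of_nonneg_left h.d2.2 hW0.le
    have c3 : W * (W * w2) * (W * W) ≤ 2 * (W * S.w 1) := by
      have := h.d1.1
      nlinarith
    have c4 : W * (W * w2) * W ≤ 2 * S.w 1 := by
      have : (W * (W * w2) * W) * W ≤ (2 * S.w 1) * W := by nlinarith
      exact le_of_mul_le_mul_right this hW0
    have c5 : W * (W * w2) * 2 ≤ W * (W * w2) * W :=
      mul_le_mul_of_nonneg_left h.W2 (by positivity)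
    linarith
  have hkp0 : 0 ≤ kp S z0 ρ (L s) := by
    by_contra hc
    push Not at hc
    linarith
  have hβ : Y ≤ 8 * W ^ 2 * (|dsl S z0 ρ (L s) 2| * w2) := by
    have c1 : kp S z0 ρ (L s) * (1 / W) ≤ 2 * W * (|dsl S z0 ρ (L s) 2| * w2) :=
      (mul_le_mul_of_nonneg_left hrot hkp0).trans a4
    have c2 : kp S z0 ρ (L s) ≤ 2 * W * (|dsl S z0 ρ (L s) 2| * w2) * W := by
      have := mul_le_mul_of_nonneg_right c1 hW0.le
      rwa [mul_assoc, one_div, inv_mul_cancel₀ hW0.ne', mul_one] at this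
    nlinarith
  have w5 : 8 * W ^ 2 ≤ 2 * W ^ 5 := by
    have : (2 : ℝ) ^ 3 ≤ W ^ 3 := hp 3
    have e : W ^ 5 = W ^ 3 * W ^ 2 := by ring
    rw [e]
    nlinarith [sq_nonneg W]
  have w5' : 8 * W ≤ 2 * W ^ 5 := by
    have : W ≤ W ^ 2 := by nlinarith
    linarith
  have w25 : W ^ 2 ≤ W ^ 5 := hm (by norm_num)
  have w15 : 1 ≤ W ^ 5 := one_le_pow₀ hW
  obtain ⟨t1, -, -⟩ := Tpl706.tilt_plank hw1 hw2 hW h.hF h.hG h.d1 h.d2 h.d1' h.d2' oe oe' h.dy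
  have t2 : (2 : ℝ) ^ j * w2 ≤ 8 * (w1 * max |dt (S.e 1) (S'.e 0)| |dt (S.e 1) (S'.e 2)|) := by
    refine t1 (le_trans ?_ hj)
    calc 32 * W ^ 3 ≤ W ^ 5 * W ^ 3 := mul_le_mul_of_nonneg_right p32 (by positivity)
      _ = W ^ 8 := by ring
      _ ≤ W ^ 53 := hm (by norm_num)
  have ht : (2 : ℝ) ^ j * w2 ≤ 2 * W ^ 5 * (|dt (S.e 1) (S'.e 0)| * w1) ∨
      (2 : ℝ) ^ j * w2 ≤ 2 * W ^ 5 * (|dt (S.e 1) (S'.e 2)| * w1) := by
    have c : ∀ x : ℝ, 8 * (w1 * |x|) ≤ 2 * W ^ 5 * (|x| * w1) := fun x => by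
      have : 0 ≤ |x| * w1 := by positivity
      nlinarith
    rcases le_total |dt (S.e 1) (S'.e 0)| |dt (S.e 1) (S'.e 2)| with hh | hh
    · right; rw [max_eq_right hh] at t2; exact t2.trans (c _)
    · left; rw [max_eq_left hh] at t2; exact t2.trans (c _)
  have hε : 64000 * (W ^ 5) ^ 5 * (1 / W ^ 41) ≤ 1 := by
    rw [mul_one_div, div_le_one (by positivity)]
    have : (64000 : ℝ) ≤ W ^ 16 := le_trans (by norm_num) (hp 16)
    calc 64000 * (W ^ 5) ^ 5 ≤ W ^ 16 * (W ^ 5) ^ 5 :=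
        mul_le_mul_of_nonneg_right this (by positivity)
      _ = W ^ 41 := by ring
  have hΛ : 192000 * (W ^ 5) ^ 7 ≤ (2 : ℝ) ^ j := by
    refine le_trans ?_ hj
    have : (192000 : ℝ) ≤ W ^ 18 := le_trans (by norm_num) (hp 18)
    calc 192000 * (W ^ 5) ^ 7 ≤ W ^ 18 * (W ^ 5) ^ 7 :=
        mul_le_mul_of_nonneg_right this (by positivity)
      _ = W ^ 53 := by ring
  have up : ∀ x : ℝ, x ≤ 2 * W * kp S z0 ρ (L s) → x ≤ 2 * W ^ 5 * Y := by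
    intro x hx
    have c1 : 2 * W * kp S z0 ρ (L s) ≤ 2 * W * (4 * Y) :=
      mul_le_mul_of_nonneg_left y2 (by positivity)
    have c2 : 8 * W * Y ≤ 2 * W ^ 5 * Y := mul_le_mul_of_nonneg_right w5' hY.le
    linarith
  have hle' : 2 * W * kp S' z0 ρ (L s) ≤ 2 * W * kp S z0 ρ (L s) :=
    mul_le_mul_of_nonneg_left hle (by positivity)
  obtain ⟨ζ, hζ, hh⟩ := Mlo723.strip_z (K := W ^ 5) (Λ := 2 ^ j) (Y := Y) (v1 := w1) (v2 := w2)
    (ε := 1 / W ^ 41) (N := nrm S z0 ρ (L s)) (N' := nrm S' z0 ρ (L s)) oe oe' w15 hΛ hY hw2 hlw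
    (h.Yw.trans (le_mul_of_one_le_left hw2.le w15)) (by positivity) hε
    (fun ζ hζ => ⟨(a1 ζ hζ).1, (a1 ζ hζ).2.1.trans (mul_le_mul_of_nonneg_right w25 hw2.le),
      (a1 ζ hζ).2.2.trans w15⟩)
    (fun ζ hζ => ⟨(b1 ζ hζ).1, (b1 ζ hζ).2.1.trans (mul_le_mul_of_nonneg_right w25 hw2.le),
      (b1 ζ hζ).2.2.trans w15⟩)
    (up _ a2) (hβ.trans (mul_le_mul_of_nonneg_right w5 (by positivity)))
    (up _ (b2.trans hle')) (up _ (b3.trans hle')) ht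
  refine ⟨ζ, hζ, ?_⟩
  have hp41 : (0 : ℝ) < W ^ 41 := by positivity
  have := mul_le_mul_of_nonneg_left hh hp41.le
  have e : W ^ 41 * (1 / W ^ 41 * Y) = Y := by
    rw [← mul_assoc, mul_one_div, div_self hp41.ne', one_mul]
  rwa [e] at this

/-- `mlow_j`, with the thickness tilt `2 ^ k' ≤ W ^ c`. -/
theorem mlow_jk {K : ℝ} {qm qp : Fin 3 → ℝ} {L : ℕ → Ln4} {Z : Finset ℕ} {S S' : Plk4}
    {f g : Fin 3 → V3} {W M a Y w1 w2 z0 ρ r : ℝ} {j k' : ℕ} {c : ℕ}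
    (h : ShD K qm qp L Z S S' f g W M a Y w1 w2 z0 ρ r j k') (hj : W ^ 53 ≤ (2 : ℝ) ^ j)
    (hk : (2 : ℝ) ^ k' ≤ W ^ c) {s : ℕ} (hs : s ∈ Z) :
    ∃ ζ : ℝ, (ζ = 0 ∨ ζ = 1) ∧ 2 ^ k' * Y ≤ W ^ (c + 41) *
      max (|dt (S.e 0) (nrm S z0 ρ (L s) ζ) * dt (S.e 1) (nrm S' z0 ρ (L s) ζ) -
          dt (S.e 0) (nrm S' z0 ρ (L s) ζ) * dt (S.e 1) (nrm S z0 ρ (L s) ζ)| * w1 / 2 ^ j)
        (|dt (S.e 0) (nrm S z0 ρ (L s) ζ) * dt (S.e 2) (nrm S' z0 ρ (L s) ζ) -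
          dt (S.e 0) (nrm S' z0 ρ (L s) ζ) * dt (S.e 2) (nrm S z0 ρ (L s) ζ)| * w2) := by
  obtain ⟨ζ, hζ, hh⟩ := mlow_j h hj hs
  refine ⟨ζ, hζ, ?_⟩
  have hY : 0 < Y := h.a0.trans_le h.aY
  have hW0 : 0 < W := by linarith [h.W2]
  rw [pow_add, mul_assoc]
  exact mul_le_mul hk hh hY.le (by positivity)

end Crest.Agent.R136.Mlj89
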