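import Crest.Agent.R136.Pl2B_860

/-!
# R136 (S0187), PLAN 2, leaf (B4) share: the reduced statement (helper410)

`ShD K ..` : two tilted sheets `S`, `S'` and a set `Z` of common lines; one letter `W ≥ 2`, every
constant is a power of `W`; `w1, w2` = widths of `Two1` = widths of `Dy`.  `ShareR` : the count.
-/

set_option autoImplicit false
set_option linter.unusedVariables false

open Finset

namespace Crest.Agent.R136.Shd410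

open Crest.Agent.R136.Sh605 Crest.Agent.R136.Fl808
open Crest.Agent.R136.K4 (Plk4)
open Crest.Agent.R136.Tlt51 (Shp InP)
open Crest.Agent.R136.Phc248 (ph phC)
open Crest.Agent.R136.KapP335 (kapP expP DetP)
open Crest.Agent.R136.Pl2
open Crest.Agent.R136.Pl2W102 (Near Ex2 Two1)

/-- **the data of a tilted pair** : `Z` = common lines of `S` (more curved) and `S'` -/
structure ShD (K : ℝ) (qm qp : Fin 3 → ℝ) (L : ℕ → Ln4) (Z : Finset ℕ) (S S' : Plk4)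
    (f g : Fin 3 → V3) (W M a Y w1 w2 z0 ρ r : ℝ) (j k' : ℕ) : Prop where
  W2 : 2 ≤ W
  M0 : 0 < M
  r0 : 0 < r
  ρ0 : 0 < ρ
  rρ : r ≤ ρ
  a0 : 0 < a
  aY : a ≤ Y
  Yw : Y ≤ w2
  ww : w2 ≤ w1
  w1ρ : w1 ≤ W * ρ
  lg : Real.log (w1 / a) ≤ W
  two : ∃ (P : Finset ℕ) (cu cv : ℕ → ℕ) (Uf Vf : ℕ → Plk4), Z ⊆ P ∧ P.Nonempty ∧
    Two1 qm qp L P cu cv Uf Vf W M a w1 w2 z0 ρ r
  vel : ∀ s ∈ Z, ∀ i, |(L s).v i| ≤ 1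
  shS : Shp S z0 ρ r
  shS' : Shp S' z0 ρ r
  inS : ∀ s ∈ Z, InP (L s) S z0 ρ
  inS' : ∀ s ∈ Z, InP (L s) S' z0 ρ
  da : Near W a S.a
  d1 : Near W w1 (S.w 1)
  d2 : Near W w2 (S.w 2)
  da' : Near W a S'.a
  d1' : Near W w1 (S'.w 1)
  d2' : Near W w2 (S'.w 2)
  big : ∀ s ∈ Z, W ^ K * a ≤ kp S z0 ρ (L s)
  le : ∀ s ∈ Z, kp S' z0 ρ (L s) ≤ kp S z0 ρ (L s)
  near : ∀ s ∈ Z, Near 4 Y (kp S z0 ρ (L s))
  rot : ∀ s ∈ Z, W * S.w 2 ≤ S.w 1 → 1 / W ≤ rot2 S z0 ρ (L s)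
  hF : FH W Y S f z0 ρ
  hL : FL W Y S f z0 ρ
  hG : FH W Y S' g z0 ρ
  dy : Dy f g Y w1 w2 j k'
  thr : W ^ K ≤ (2:ℝ) ^ j * 2 ^ k'

/-- **the share of a tilted pair, reduced form** -/
def ShareR : Prop := ∀ (η : ℝ) (qm qp : Fin 3 → ℝ), Ex2 η qm qp → ∃ K C : ℝ, 0 ≤ K ∧ 0 ≤ C ∧
  ∀ (L : ℕ → Ln4) (Z : Finset ℕ) (S S' : Plk4) (f g : Fin 3 → V3)
    (W M a Y w1 w2 z0 ρ r : ℝ) (j k' : ℕ),
    ShD K qm qp L Z S S' f g W M a Y w1 w2 z0 ρ r j k' →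
    (Z.card : ℝ) ≤
      W ^ C * M / (((2:ℝ) ^ j) ^ (1 + qm 1) * ((2:ℝ) ^ k' * (Y / a)) ^ (1 + qm 2))

end Crest.Agent.R136.Shd410
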