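import Crest.Agent.R136.Mlo2_777
import Crest.Agent.R136.Mlt2_89
import Crest.Agent.R136.Mcv_140
import Crest.Agent.R136.Shd_410

/-!
# R136 (S0187), PLAN 2, leaf B4: lower bound of the gradient minors, case `2^k'` large (helper777)

`mlow_k` : over `ShD`, if `W^85 ≤ 2^k'`, then at every height of the cell
`2^k' Y ≤ W^99 max (|π 1| w1 / 2^j) (|π 2| w2)`, `π` = minors of the gradients in the frame `S.e`.
-/

set_option autoImplicit false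
set_option linter.unusedVariables false

namespace Crest.Agent.R136.Mlo777

open Finset Crest.Agent.R136.Sh605 Crest.Agent.R136.Fl808 Crest.Agent.R136.Hl706
open Crest.Agent.R136.K4 (Plk4)
open Crest.Agent.R136.Tlt51 (Shp InP)
open Crest.Agent.R136.KapP335 (kapP expP expP_spec DetP)
open Crest.Agent.R136.Tl102 (QF Fq bz shB0 shB1 shG kap NrmC IsExp StP fr cmb)
open Crest.Agent.R136.Pl2 (FH FL kp)
open Crest.Agent.R136.Pl2W102 (Near)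
open Crest.Agent.R136.Mlt89 (cv)
open Crest.Agent.R136.Mcv140 (mn minor_frame)
open Crest.Agent.R136.Shd410 (ShD)

theorem nrm_eq_cv (S : Plk4) (z0 ρ : ℝ) (T : Ln4) (ζ : ℝ) : nrm S z0 ρ T ζ =
    cv S.e S.w (fun k => (expP S z0 ρ T).1 k + ζ * (expP S z0 ρ T).2.1 k) := by
  ext i
  simp only [nrm, cmb, cv, Fin.sum_univ_three, Pi.add_apply, Pi.smul_apply, smul_eq_mul]

/-- bounds of the gradient in the plank frame -/
theorem nrm_plank {S : Plk4} {T : Ln4} {z0 ρ r ζ : ℝ} (hρ : 0 < ρ) (hr : 0 < r)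
    (hS : Shp S z0 ρ r) (hT : InP T S z0 ρ) (hζ : 0 ≤ ζ) (hζ' : ζ ≤ 1) :
    1 / 2 ≤ dt (S.e 0) (nrm S z0 ρ T ζ) ∧ dt (S.e 0) (nrm S z0 ρ T ζ) ≤ 2 ∧
    |dt (S.e 1) (nrm S z0 ρ T ζ)| * S.w 1 ≤ S.w 0 ∧
    |dt (S.e 2) (nrm S z0 ρ T ζ)| * S.w 2 ≤ S.w 0 := by
  have hw0 : 0 < S.w 0 := (hr.trans_le hS.r0_le).trans_le hS.a_le0
  have hst := StP.of_shN hS hw0
  have hE := expP_spec hS.isQ hw0.ne' z0 ρ T
  have N := IsExp.nrmC hst hρ.le (fun z h1 h2 => (hT z h1 h2).1) hE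
  have hw1 := hst.pos 1
  have hw2 := hst.pos 2
  obtain ⟨B1, B2, P1, P2, -, -⟩ := curv_le N hζ hζ'
  refine ⟨?_, ?_, ?_, ?_⟩
  · rw [dt_nrm hst.ortho, div_self hw0.ne', one_mul]; exact B1
  · rw [dt_nrm hst.ortho, div_self hw0.ne', one_mul]; exact B2
  · rw [dt_nrm hst.ortho, abs_mul, abs_of_pos (by positivity)]
    have : S.w 0 / S.w 1 * |(expP S z0 ρ T).1 1 + ζ * (expP S z0 ρ T).2.1 1| * S.w 1 =
      S.w 0 * |(expP S z0 ρ T).1 1 + ζ * (expP S z0 ρ T).2.1 1| := by field_simp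
    rw [this]
    exact mul_le_of_le_one_right hw0.le P1
  · rw [dt_nrm hst.ortho, abs_mul, abs_of_pos (by positivity)]
    have : S.w 0 / S.w 2 * |(expP S z0 ρ T).1 2 + ζ * (expP S z0 ρ T).2.1 2| * S.w 2 =
      S.w 0 * |(expP S z0 ρ T).1 2 + ζ * (expP S z0 ρ T).2.1 2| := by field_simp
    rw [this]
    exact mul_le_of_le_one_right hw0.le P2

/-- the four conormal bounds in the letters of `ShD` -/
theorem con_shd {S : Plk4} {T : Ln4} {z0 ρ r Y ζ W w1 w2 : ℝ} {f : Fin 3 → V3} (hW : 2 ≤ W)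
    (hρ : 0 < ρ) (hr : 0 < r) (hY : 0 < Y) (hw2 : 0 < w2) (hS : Shp S z0 ρ r)
    (hT : InP T S z0 ρ) (hk : kapP S z0 ρ T ≤ 4 * Y) (hF : FH W Y S f z0 ρ)
    (d1 : Near W w1 (S.w 1)) (d2 : Near W w2 (S.w 2)) (hYw : W ^ 11 * Y ≤ w2) (hζ : 0 ≤ ζ)
    (hζ' : ζ ≤ 1) :
    1 ≤ W ^ 13 * |dt (f 0) (nrm S z0 ρ T ζ)| ∧
    |dt (f 0) (nrm S z0 ρ T ζ)| ≤ W ^ 13 ∧
    |dt (f 1) (nrm S z0 ρ T ζ)| * w1 ≤ W ^ 13 * Y ∧
    |dt (f 2) (nrm S z0 ρ T ζ)| * w2 ≤ W ^ 13 * Y := by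
  obtain ⟨c1, c2, c3, c4⟩ := conorm_of_FH hρ hr hY (by linarith) hS hT hk hF hζ hζ'
  have hW0 : 0 < W := by linarith
  have h9 : (264:ℝ) ≤ W ^ 9 := by
    calc (264:ℝ) ≤ 2 ^ 9 := by norm_num
      _ ≤ W ^ 9 := by gcongr
  have h13 : (4:ℝ) ≤ W ^ 13 := by
    calc (4:ℝ) ≤ 2 ^ 13 := by norm_num
      _ ≤ W ^ 13 := by gcongr
  have hsmall : 264 * W * Y ≤ S.w 2 := by
    have h1 := d2.1
    have e1 : W ^ 11 * Y ≤ W * S.w 2 := hYw.trans h1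
    have e2 : W * (W ^ 10 * Y) ≤ W * S.w 2 := by
      calc W * (W ^ 10 * Y) = W ^ 11 * Y := by ring
        _ ≤ _ := e1
    have e3 := le_of_mul_le_mul_left e2 hW0
    have e4 : 264 * W * Y ≤ W ^ 10 * Y := by
      have : 264 * W ≤ W ^ 10 := by
        calc 264 * W ≤ W ^ 9 * W := by gcongr
          _ = W ^ 10 := by ring
      exact mul_le_mul_of_nonneg_right this hY.le
    linarith
  have hC : 264 * W ^ 3 * Y * W ≤ W ^ 13 * Y := by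
    have : 264 * W ^ 3 * W ≤ W ^ 13 := by
      calc 264 * W ^ 3 * W ≤ W ^ 9 * W ^ 3 * W := by gcongr
        _ = W ^ 13 := by ring
    calc 264 * W ^ 3 * Y * W = 264 * W ^ 3 * W * Y := by ring
      _ ≤ W ^ 13 * Y := mul_le_mul_of_nonneg_right this hY.le
  refine ⟨?_, c2.trans h13, ?_, ?_⟩
  · refine (c1 hsmall).trans ?_
    exact mul_le_mul_of_nonneg_right h13 (abs_nonneg _)
  · have e1 := mul_le_mul_of_nonneg_left d1.1 (abs_nonneg (dt (f 1) (nrm S z0 ρ T ζ)))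
    have e2 := mul_le_mul_of_nonneg_right c3 hW0.le
    linarith
  · have e1 := mul_le_mul_of_nonneg_left d2.1 (abs_nonneg (dt (f 2) (nrm S z0 ρ T ζ)))
    have e2 := mul_le_mul_of_nonneg_right c4 hW0.le
    linarith

/-- **lower bound of the minors, `2^k'` large, in the frame of the plank** -/
theorem mlow_nrm {K : ℝ} {qm qp : Fin 3 → ℝ} {L : ℕ → Ln4} {Z : Finset ℕ} {S S' : Plk4}
    {f g : Fin 3 → V3} {W M a Y w1 w2 z0 ρ r : ℝ} {j k' : ℕ}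
    (H : ShD K qm qp L Z S S' f g W M a Y w1 w2 z0 ρ r j k') (hk : W ^ 85 ≤ 2 ^ k') {s : ℕ}
    (hs : s ∈ Z) {ζ : ℝ} (hζ : 0 ≤ ζ) (hζ' : ζ ≤ 1) :
    2 ^ k' * Y ≤ W ^ 99 * max
      (|mn S.e (nrm S z0 ρ (L s) ζ) (nrm S' z0 ρ (L s) ζ) 0 1| * (w1 / 2 ^ j))
      (|mn S.e (nrm S z0 ρ (L s) ζ) (nrm S' z0 ρ (L s) ζ) 0 2| * w2) := by
  have hW := H.W2
  have hW0 : 0 < W := by linarith
  have hW1 : 1 ≤ W := by linarith
  have hY : 0 < Y := H.a0.trans_le H.aY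
  have hw2 : 0 < w2 := hY.trans_le H.Yw
  have hw1 : 0 < w1 := hw2.trans_le H.ww
  have hsS := H.inS s hs
  have hsS' := H.inS' s hs
  have hkS : kapP S z0 ρ (L s) ≤ 4 * Y := (H.near s hs).2
  have hkS' : kapP S' z0 ρ (L s) ≤ 4 * Y := (H.le s hs).trans hkS
  have hf := H.hF.ortho
  have hg := H.hG.ortho
  have he : Ortho S.e := H.shS.ortho
  have hleg := H.dy.hleg hf hg hY H.Yw H.ww
  have hlw := H.dy.hlw hf hg hY H.Yw H.ww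
  have hΛ1 : (1:ℝ) ≤ 2 ^ j := one_le_pow₀ (by norm_num)
  have hΛ0 : (0:ℝ) < 2 ^ j := by linarith
  have p8 : (8:ℝ) ≤ W ^ 3 := by
    calc (8:ℝ) = 2 ^ 3 := by norm_num
      _ ≤ W ^ 3 := by gcongr
  have hYw : W ^ 11 * Y ≤ w2 := by
    have e1 : W ^ 14 ≤ W ^ 85 := pow_le_pow_right₀ hW1 (by norm_num)
    have e2 : 8 * (W ^ 11 * Y) ≤ 8 * w2 := by
      calc 8 * (W ^ 11 * Y) ≤ W ^ 3 * (W ^ 11 * Y) := by gcongr
        _ = Y * W ^ 14 := by ring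
        _ ≤ Y * 2 ^ k' := by gcongr; exact e1.trans hk
        _ ≤ _ := hleg
    linarith
  obtain ⟨a1, a2, a3, a4⟩ := con_shd hW H.ρ0 H.r0 hY hw2 H.shS hsS hkS H.hF H.d1 H.d2 hYw hζ hζ'
  obtain ⟨b1, b2, b3, b4⟩ := con_shd hW H.ρ0 H.r0 hY hw2 H.shS' hsS' hkS' H.hG H.d1' H.d2' hYw hζ hζ'
  obtain ⟨q1, q2, q3, q4⟩ := nrm_plank H.ρ0 H.r0 H.shS hsS hζ hζ'
  set n := nrm S z0 ρ (L s) ζ with hn
  set n' := nrm S' z0 ρ (L s) ζ with hn'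
  have hK : (1:ℝ) ≤ W ^ 13 := one_le_pow₀ hW1
  have ht := tilt_low hf hg hY H.Yw H.ww H.dy hK a1 a2 a3 a4 b1 b2 b3 b4
  -- frame change
  have w02 : S.w 0 ≤ S.w 2 := H.shS.w0_le
  have d22 : S.w 2 ≤ W * w2 := H.d2.2
  have d11 : w1 ≤ W * S.w 1 := H.d1.1
  have d21 : w2 ≤ W * S.w 2 := H.d2.1
  have cvt : ∀ x : ℝ, |x| * S.w 1 ≤ W * S.w 2 → |x| * w1 ≤ W ^ 3 * w2 := by
    intro x hx
    have e1 := mul_le_mul_of_nonneg_left d11 (abs_nonneg x)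
    have e2 := mul_le_mul_of_nonneg_left hx hW0.le
    have e3 := mul_le_mul_of_nonneg_left d22 (mul_nonneg hW0.le hW0.le)
    calc |x| * w1 ≤ |x| * (W * S.w 1) := e1
      _ = W * (|x| * S.w 1) := by ring
      _ ≤ W * (W * S.w 2) := e2
      _ = W * W * S.w 2 := by ring
      _ ≤ W * W * (W * w2) := e3
      _ = W ^ 3 * w2 := by ring
  have hK3 : (1:ℝ) ≤ W ^ 3 := one_le_pow₀ hW1
  have m0 : 1 ≤ W ^ 3 * |dt (S.e 0) n| := by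
    have : dt (S.e 0) n ≤ |dt (S.e 0) n| := le_abs_self _
    nlinarith
  have m1 : |dt (S.e 1) n| * w1 ≤ W ^ 3 * w2 := by
    refine cvt _ ?_
    have : S.w 2 ≤ W * S.w 2 := le_mul_of_one_le_left (by
      have := H.d2.1; nlinarith) hW1
    linarith
  have m2 : |dt (S.e 2) n| ≤ W ^ 3 := by
    have hs2 : 0 < S.w 2 := by
      by_contra hc
      push Not at hc
      nlinarith
    have : |dt (S.e 2) n| * S.w 2 ≤ 1 * S.w 2 := by linarith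
    exact (le_of_mul_le_mul_right this hs2).trans hK3
  have mf := minor_frame he hf hw2 H.ww hK3 hΛ1 hlw (cvt _ H.hF.e01) (cvt _ H.hF.e10)
    (cvt _ H.hF.e12) (cvt _ H.hF.e21) m0 m1 m2 (n' := n')
  have mx1 := le_max_left (|mn S.e n n' 0 1| * (w1 / 2 ^ j)) (|mn S.e n n' 0 2| * w2)
  have mx2 := le_max_right (|mn S.e n n' 0 1| * (w1 / 2 ^ j)) (|mn S.e n n' 0 2| * w2)
  set X := max (|mn S.e n n' 0 1| * (w1 / 2 ^ j)) (|mn S.e n n' 0 2| * w2) with hX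
  have hX0 : 0 ≤ X := le_trans (by positivity) mx1
  have mf' : |mn f n n' 0 1| * (w1 / 2 ^ j) + |mn f n n' 0 2| * w2 ≤ 36 * W ^ 9 * X := by
    refine mf.trans ?_
    calc 18 * (W ^ 3) ^ 3 * (|mn S.e n n' 0 1| * (w1 / 2 ^ j) + |mn S.e n n' 0 2| * w2) ≤
        18 * (W ^ 3) ^ 3 * (X + X) := by gcongr
      _ = 36 * W ^ 9 * X := by ring
  have ht' : 2 ^ k' * Y ≤ 56 * (W ^ 13) ^ 6 *
      (|mn f n n' 0 1| * (w1 / 2 ^ j) + |mn f n n' 0 2| * w2 + Y) := ht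
  have c1 : 56 * (W ^ 13) ^ 6 * (|mn f n n' 0 1| * (w1 / 2 ^ j) + |mn f n n' 0 2| * w2 + Y) ≤
      56 * (W ^ 13) ^ 6 * (36 * W ^ 9 * X + Y) := by gcongr
  have c2 : 56 * (W ^ 13) ^ 6 * (36 * W ^ 9 * X + Y) = 2016 * W ^ 87 * X + 56 * W ^ 78 * Y := by
    ring
  have c3 : 112 * W ^ 78 * Y ≤ 2 ^ k' * Y := by
    refine mul_le_mul_of_nonneg_right (le_trans ?_ hk) hY.le
    calc 112 * W ^ 78 ≤ 2 ^ 7 * W ^ 78 := by gcongr; norm_num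
      _ ≤ W ^ 7 * W ^ 78 := by gcongr
      _ = W ^ 85 := by ring
  have c4 : 4032 * W ^ 87 * X ≤ W ^ 99 * X := by
    refine mul_le_mul_of_nonneg_right ?_ hX0
    calc 4032 * W ^ 87 ≤ 2 ^ 12 * W ^ 87 := by gcongr; norm_num
      _ ≤ W ^ 12 * W ^ 87 := by gcongr
      _ = W ^ 99 := by ring
  linarith

/-- **`mlow_k`** : the same with 89's `cv`. -/
theorem mlow_k {K : ℝ} {qm qp : Fin 3 → ℝ} {L : ℕ → Ln4} {Z : Finset ℕ} {S S' : Plk4}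
    {f g : Fin 3 → V3} {W M a Y w1 w2 z0 ρ r : ℝ} {j k' : ℕ}
    (H : ShD K qm qp L Z S S' f g W M a Y w1 w2 z0 ρ r j k') (hk : W ^ 85 ≤ 2 ^ k') {s : ℕ}
    (hs : s ∈ Z) {ζ : ℝ} (hζ : 0 ≤ ζ) (hζ' : ζ ≤ 1) {n n' : V3}
    (hn : n = cv S.e S.w (fun k => (expP S z0 ρ (L s)).1 k + ζ * (expP S z0 ρ (L s)).2.1 k))
    (hn' : n' = cv S'.e S'.w
      (fun k => (expP S' z0 ρ (L s)).1 k + ζ * (expP S' z0 ρ (L s)).2.1 k)) :
    2 ^ k' * Y ≤ W ^ 99 * max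
      (|dt (S.e 0) n * dt (S.e 1) n' - dt (S.e 0) n' * dt (S.e 1) n| * (w1 / 2 ^ j))
      (|dt (S.e 0) n * dt (S.e 2) n' - dt (S.e 0) n' * dt (S.e 2) n| * w2) := by
  have h := mlow_nrm H hk hs hζ hζ'
  rw [nrm_eq_cv, nrm_eq_cv, ← hn, ← hn'] at h
  exact h

end Crest.Agent.R136.Mlo777
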