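import Crest.Agent.R136.Fl8_808

/-!
# R136 (U4, PLAN 2, B4): lower bound of the gradient on the strip, large base tilt (helper140)

`n0, n1` = gradients of the first function at the two ends of a common line, `m0, m1` = those of the
second one; `f`, `g` = hull frames. `pk f n m k` = the minor of `n, m` on the axes `0, k` of `f`.

* `strip_low` : if the normal of the first sheet turns by `Y / w2` along the axis `2`, then
  `2^j Y ≤ 100 K^9 (Y + 2^j max (M0, M1))`, `M = |π1| w1 / 2^j + |π2| w2`.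
-/

set_option autoImplicit false
set_option linter.unusedVariables false

namespace Crest.Agent.R136.Mlo140

open Crest.Agent.R136.Sh605
open Crest.Agent.R136.Fl808 (Dy dt_expand abs_dt_le_one)

/-- minor of `n, m` on the axes `0, k` of `f` -/
def pk (f : Fin 3 → V3) (n m : V3) (k : Fin 3) : ℝ :=
  dt (f 0) n * dt (f k) m - dt (f 0) m * dt (f k) n

/-- gradient discrepancy on the strip -/
noncomputable def Ms (f : Fin 3 → V3) (n m : V3) (w1 w2 Λ : ℝ) : ℝ :=
  |pk f n m 1| * w1 / Λ + |pk f n m 2| * w2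

/-- bounds of a gradient in the hull frame -/
structure GrB (f : Fin 3 → V3) (n : V3) (Y w1 w2 K : ℝ) : Prop where
  lo : 1 ≤ K * |dt (f 0) n|
  up : |dt (f 0) n| ≤ K
  b1 : |dt (f 1) n| * w1 ≤ K * Y
  b2 : |dt (f 2) n| * w2 ≤ K * Y

theorem exact {f : Fin 3 → V3} (hf : Ortho f) (n m x : V3) :
    dt (f 0) n * dt x m = dt (f 0) m * dt x n + pk f n m 1 * dt x (f 1) +
      pk f n m 2 * dt x (f 2) := by
  rw [dt_expand hf x m, dt_expand hf x n]
  unfold pk
  ring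

/-- one end -/
theorem one_end {f g : Fin 3 → V3} (hf : Ortho f) (hg : Ortho g) {Y w1 w2 Λ K : ℝ}
    (hY : 0 < Y) (hYw : Y ≤ w2) (hw : w2 ≤ w1) (hK : 1 ≤ K) (hΛ : 1 ≤ Λ) (hlw : Λ * w2 ≤ 2 * w1)
    (h12 : |dt (g 1) (f 2)| * w1 ≤ 2 * (Λ * w2)) {n m : V3} (hn : GrB f n Y w1 w2 K)
    (hm : GrB g m Y w1 w2 K) :
    Λ * Y ≤ 8 * K ^ 2 * (Λ * Ms f n m w1 w2 Λ) ∨
      |dt (g 1) n| * w1 ≤ 8 * K ^ 5 * (Y + Λ * Ms f n m w1 w2 Λ) := by
  have hw2 : 0 < w2 := hY.trans_le hYw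
  have hw1 : 0 < w1 := hw2.trans_le hw
  have hK0 : 0 < K := by linarith
  have hΛ0 : 0 < Λ := by linarith
  set p1 := |pk f n m 1| with hp1
  set p2 := |pk f n m 2| with hp2
  have hp1' : 0 ≤ p1 := abs_nonneg _
  have hp2' : 0 ≤ p2 := abs_nonneg _
  have hM : Λ * Ms f n m w1 w2 Λ = p1 * w1 + Λ * (p2 * w2) := by
    unfold Ms
    rw [← hp1, ← hp2]
    field_simp
  rw [hM]
  set x := |dt (f 0) m| with hx
  have hx0 : 0 ≤ x := abs_nonneg _
  by_cases hc : 1 ≤ 4 * K ^ 3 * x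
  · right
    have h1 := exact hf n m (g 1)
    have h2 : x * |dt (g 1) n| * w1 ≤ K ^ 2 * Y + 2 * (p1 * w1 + Λ * (p2 * w2)) := by
      have e1 : dt (f 0) m * dt (g 1) n = dt (f 0) n * dt (g 1) m - pk f n m 1 * dt (g 1) (f 1) -
          pk f n m 2 * dt (g 1) (f 2) := by linarith
      have e2 : x * |dt (g 1) n| ≤ |dt (f 0) n| * |dt (g 1) m| + p1 * |dt (g 1) (f 1)| +
          p2 * |dt (g 1) (f 2)| := by
        rw [hx, ← abs_mul, e1, hp1, hp2, ← abs_mul, ← abs_mul, ← abs_mul]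
        exact (abs_sub _ _).trans (add_le_add (abs_sub _ _) le_rfl)
      have e3 : |dt (f 0) n| * (|dt (g 1) m| * w1) ≤ K * (K * Y) :=
        mul_le_mul hn.up hm.b1 (by positivity) hK0.le
      have e4 : p1 * |dt (g 1) (f 1)| ≤ p1 * 1 :=
        mul_le_mul_of_nonneg_left (abs_dt_le_one hf hg 1 1) hp1'
      have e5 : p2 * (|dt (g 1) (f 2)| * w1) ≤ p2 * (2 * (Λ * w2)) :=
        mul_le_mul_of_nonneg_left h12 hp2'
      calc x * |dt (g 1) n| * w1 ≤ (|dt (f 0) n| * |dt (g 1) m| + p1 * |dt (g 1) (f 1)| +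
          p2 * |dt (g 1) (f 2)|) * w1 := mul_le_mul_of_nonneg_right e2 hw1.le
        _ = |dt (f 0) n| * (|dt (g 1) m| * w1) + (p1 * |dt (g 1) (f 1)|) * w1 +
          p2 * (|dt (g 1) (f 2)| * w1) := by ring
        _ ≤ K * (K * Y) + (p1 * 1) * w1 + p2 * (2 * (Λ * w2)) := by gcongr
        _ ≤ _ := by
          have e6 : 0 ≤ p1 * w1 := by positivity
          have e7 : K * (K * Y) = K ^ 2 * Y := by ring
          have e8 : p2 * (2 * (Λ * w2)) = 2 * (Λ * (p2 * w2)) := by ring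
          rw [e7, e8]
          linarith
    have h3 : |dt (g 1) n| * w1 ≤ 4 * K ^ 3 * (K ^ 2 * Y + 2 * (p1 * w1 + Λ * (p2 * w2))) := by
      calc |dt (g 1) n| * w1 = 1 * (|dt (g 1) n| * w1) := by ring
        _ ≤ (4 * K ^ 3 * x) * (|dt (g 1) n| * w1) :=
            mul_le_mul_of_nonneg_right hc (by positivity)
        _ = 4 * K ^ 3 * (x * |dt (g 1) n| * w1) := by ring
        _ ≤ _ := mul_le_mul_of_nonneg_left h2 (by positivity)
    refine h3.trans ?_
    have hZ : 0 ≤ p1 * w1 + Λ * (p2 * w2) := by positivity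
    set Z := p1 * w1 + Λ * (p2 * w2) with hZ'
    have hK2 : 1 ≤ K ^ 2 := one_le_pow₀ hK
    have : 4 * K ^ 3 * (K ^ 2 * Y + 2 * Z) ≤ 4 * K ^ 3 * (K ^ 2 * Y + 2 * (K ^ 2 * Z)) := by
      have : Z ≤ K ^ 2 * Z := le_mul_of_one_le_left hZ hK2
      gcongr
    refine this.trans ?_
    have e6 : 4 * K ^ 3 * (K ^ 2 * Y + 2 * (K ^ 2 * Z)) = 4 * K ^ 5 * Y + 8 * K ^ 5 * Z := by ring
    rw [e6]
    have : 0 ≤ K ^ 5 * Y := by positivity
    linarith
  · left
    push Not at hc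
    -- some other component of `m` is large
    have hsq : (dt (g 0) m) ^ 2 ≤ (dt (f 0) m) ^ 2 + (dt (f 1) m) ^ 2 + (dt (f 2) m) ^ 2 := by
      have h1 := dt_expand hg m m
      have h2 := dt_expand hf m m
      rw [dt_comm m (g 0), dt_comm m (g 1), dt_comm m (g 2)] at h1
      rw [dt_comm m (f 0), dt_comm m (f 1), dt_comm m (f 2)] at h2
      nlinarith [sq_nonneg (dt (g 1) m), sq_nonneg (dt (g 2) m)]
    set y1 := |dt (f 1) m| with hy1
    set y2 := |dt (f 2) m| with hy2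
    have hy1' : 0 ≤ y1 := abs_nonneg _
    have hy2' : 0 ≤ y2 := abs_nonneg _
    have hsum : |dt (g 0) m| ≤ x + y1 + y2 := by
      have e1 : |dt (g 0) m| ^ 2 ≤ (x + y1 + y2) ^ 2 := by
        rw [sq_abs]
        have e2 : (dt (f 0) m) ^ 2 + (dt (f 1) m) ^ 2 + (dt (f 2) m) ^ 2 =
            x ^ 2 + y1 ^ 2 + y2 ^ 2 := by
          rw [hx, hy1, hy2, sq_abs, sq_abs, sq_abs]
        rw [e2] at hsq
        nlinarith [mul_nonneg hx0 hy1', mul_nonneg hx0 hy2', mul_nonneg hy1' hy2']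
      exact (le_abs_self _).trans (abs_le_of_sq_le_sq e1 (by positivity))
    -- in units
    have hlo : 1 ≤ K * (x + y1 + y2) := by
      calc (1:ℝ) ≤ K * |dt (g 0) m| := hm.lo
        _ ≤ _ := mul_le_mul_of_nonneg_left hsum hK0.le
    have hKx : K * x ≤ 1 / 4 := by
      have h1 : K * x ≤ K ^ 3 * x := by
        have : K ≤ K ^ 3 := le_self_pow₀ hK (by norm_num)
        exact mul_le_mul_of_nonneg_right this hx0
      have e9 : 4 * K ^ 3 * x = 4 * (K ^ 3 * x) := by ring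
      rw [e9] at hc
      linarith
    have hbig : 3 / 4 ≤ K * (y1 + y2) := by
      have : K * (x + y1 + y2) = K * x + K * (y1 + y2) := by ring
      linarith
    have hn1 : |dt (f 1) n| ≤ K := by
      have h1 : |dt (f 1) n| * w1 ≤ K * w1 := hn.b1.trans
        (mul_le_mul_of_nonneg_left (hYw.trans hw) hK0.le)
      exact le_of_mul_le_mul_right h1 hw1
    have hn2 : |dt (f 2) n| ≤ K := by
      have h1 : |dt (f 2) n| * w2 ≤ K * w2 := hn.b2.trans (mul_le_mul_of_nonneg_left hYw hK0.le)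
      exact le_of_mul_le_mul_right h1 hw2
    -- lower bounds for the minors
    have low : ∀ {p y s : ℝ} (k : Fin 3), p = |pk f n m k| → y = |dt (f k) m| →
        s = |dt (f k) n| → s ≤ K → y ≤ K * p + K ^ 2 * x := by
      intro p y s k hp hy hs hsK
      have e1 : dt (f 0) n * dt (f k) m = pk f n m k + dt (f 0) m * dt (f k) n := by
        unfold pk; ring
      have e2 : |dt (f 0) n| * y ≤ p + x * s := by
        rw [hy, ← abs_mul, e1, hp, hx, hs, ← abs_mul]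
        exact abs_add_le _ _
      have hy0 : 0 ≤ y := by rw [hy]; exact abs_nonneg _
      calc y = 1 * y := by ring
        _ ≤ (K * |dt (f 0) n|) * y := mul_le_mul_of_nonneg_right hn.lo hy0
        _ = K * (|dt (f 0) n| * y) := by ring
        _ ≤ K * (p + x * s) := mul_le_mul_of_nonneg_left e2 hK0.le
        _ ≤ K * (p + x * K) := by gcongr
        _ = _ := by ring
    have l1 := low 1 hp1 hy1 rfl hn1
    have l2 := low 2 hp2 hy2 rfl hn2
    have hfin : 1 / 4 ≤ K ^ 2 * (p1 + p2) := by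
      have h1 : K * (y1 + y2) ≤ K ^ 2 * (p1 + p2) + 2 * (K ^ 3 * x) := by
        calc K * (y1 + y2) ≤ K * ((K * p1 + K ^ 2 * x) + (K * p2 + K ^ 2 * x)) := by gcongr
          _ = _ := by ring
      have e9 : 4 * K ^ 3 * x = 4 * (K ^ 3 * x) := by ring
      rw [e9] at hc
      linarith
    -- `p1 w1 + Λ p2 w2 ≥ (p1 + p2) Λ w2 / 2`
    have h5 : (p1 + p2) * (Λ * w2) ≤ 2 * (p1 * w1 + Λ * (p2 * w2)) := by
      have e1 : p1 * (Λ * w2) ≤ p1 * (2 * w1) := mul_le_mul_of_nonneg_left hlw hp1'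
      have e2 : 0 ≤ Λ * (p2 * w2) := by positivity
      have e3 : (p1 + p2) * (Λ * w2) = p1 * (Λ * w2) + Λ * (p2 * w2) := by ring
      have e4 : p1 * (2 * w1) = 2 * (p1 * w1) := by ring
      rw [e3]
      linarith
    calc Λ * Y ≤ Λ * w2 := mul_le_mul_of_nonneg_left hYw hΛ0.le
      _ = 4 * ((1 / 4) * (Λ * w2)) := by ring
      _ ≤ 4 * ((K ^ 2 * (p1 + p2)) * (Λ * w2)) := by
          have : 0 ≤ Λ * w2 := by positivity
          gcongr
      _ = 4 * K ^ 2 * ((p1 + p2) * (Λ * w2)) := by ring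
      _ ≤ 4 * K ^ 2 * (2 * (p1 * w1 + Λ * (p2 * w2))) :=
          mul_le_mul_of_nonneg_left h5 (by positivity)
      _ = _ := by ring

set_option maxHeartbeats 2000000 in
/-- **gradient lower bound for large base tilt** -/
theorem strip_low {f g : Fin 3 → V3} (hf : Ortho f) (hg : Ortho g) {Y w1 w2 K : ℝ} {j k' : ℕ}
    (H : Dy f g Y w1 w2 j k') (hY : 0 < Y) (hYw : Y ≤ w2) (hw : w2 ≤ w1) (hK : 1 ≤ K)
    {n0 n1 m0 m1 : V3} (hn0 : GrB f n0 Y w1 w2 K) (hn1 : GrB f n1 Y w1 w2 K)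
    (hm0 : GrB g m0 Y w1 w2 K) (hm1 : GrB g m1 Y w1 w2 K)
    (rot : Y ≤ K * (w2 * |dt (f 2) n1 * dt (f 0) n0 - dt (f 2) n0 * dt (f 0) n1|)) :
    2 ^ j * Y ≤ 100 * K ^ 11 * (Y + 2 ^ j * max (Ms f n0 m0 w1 w2 (2 ^ j))
      (Ms f n1 m1 w1 w2 (2 ^ j))) := by
  have hw2 : 0 < w2 := hY.trans_le hYw
  have hw1 : 0 < w1 := hw2.trans_le hw
  have hK0 : 0 < K := by linarith
  have hΛ : (1:ℝ) ≤ 2 ^ j := one_le_pow₀ (by norm_num)
  have hΛ0 : (0:ℝ) < 2 ^ j := by positivity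
  have hlw := H.hlw hf hg hY hYw hw
  have h12 := H.b12 hf hg hY hYw hw
  set M0 := Ms f n0 m0 w1 w2 (2 ^ j) with hM0
  set M1 := Ms f n1 m1 w1 w2 (2 ^ j) with hM1
  have hM0' : 0 ≤ M0 := by rw [hM0]; unfold Ms; positivity
  set M := max M0 M1 with hMM
  have hM' : 0 ≤ M := hM0'.trans (le_max_left _ _)
  have a0 : (2:ℝ) ^ j * M0 ≤ 2 ^ j * M := mul_le_mul_of_nonneg_left (le_max_left _ _) hΛ0.le
  have a1 : (2:ℝ) ^ j * M1 ≤ 2 ^ j * M := mul_le_mul_of_nonneg_left (le_max_right _ _) hΛ0.le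
  set Z := Y + 2 ^ j * M with hZ
  have hZ0 : 0 < Z := by positivity
  have pow_le : ∀ {a b : ℕ}, a ≤ b → K ^ a ≤ K ^ b := fun h => pow_le_pow_right₀ hK h
  have quick : ∀ {N : ℝ}, (2:ℝ) ^ j * N ≤ 2 ^ j * M → 2 ^ j * Y ≤ 8 * K ^ 2 * (2 ^ j * N) →
      2 ^ j * Y ≤ 100 * K ^ 11 * Z := by
    intro N h1 h2
    refine h2.trans ?_
    have h3 : 8 * K ^ 2 * (2 ^ j * N) ≤ 8 * K ^ 2 * Z := by
      refine mul_le_mul_of_nonneg_left ?_ (by positivity)
      linarith
    refine h3.trans ?_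
    have h4 : K ^ 2 * Z ≤ K ^ 11 * Z := mul_le_mul_of_nonneg_right (pow_le (by norm_num)) hZ0.le
    have h5 : 0 ≤ K ^ 11 * Z := by positivity
    linarith
  rcases one_end hf hg hY hYw hw hK hΛ hlw h12 hn0 hm0 with h0 | h0
  · exact quick a0 h0
  rcases one_end hf hg hY hYw hw hK hΛ hlw h12 hn1 hm1 with h1 | h1
  · exact quick a1 h1
  -- both ends
  have b0 : |dt (g 1) n0| * w1 ≤ 8 * K ^ 5 * Z := h0.trans
    (mul_le_mul_of_nonneg_left (by linarith) (by positivity))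
  have b1 : |dt (g 1) n1| * w1 ≤ 8 * K ^ 5 * Z := h1.trans
    (mul_le_mul_of_nonneg_left (by linarith) (by positivity))
  set A := dt (g 1) (f 0) with hA
  set B := dt (g 1) (f 2) with hB
  set R := 9 * K ^ 5 * Z with hR
  have hR0 : 0 < R := by positivity
  have star : ∀ {n : V3}, GrB f n Y w1 w2 K → |dt (g 1) n| * w1 ≤ 8 * K ^ 5 * Z →
      |A * dt (f 0) n + B * dt (f 2) n| * w1 ≤ R := by
    intro n hn h
    have e1 : A * dt (f 0) n + B * dt (f 2) n = dt (g 1) n - dt (g 1) (f 1) * dt (f 1) n := by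
      rw [dt_expand hf (g 1) n]; ring
    have e2 : |dt (g 1) (f 1) * dt (f 1) n| ≤ |dt (f 1) n| := by
      rw [abs_mul]
      calc _ ≤ 1 * |dt (f 1) n| :=
            mul_le_mul_of_nonneg_right (abs_dt_le_one hf hg 1 1) (abs_nonneg _)
        _ = _ := one_mul _
    have e3 : K * Y ≤ K ^ 5 * Z := by
      have h3 : K ≤ K ^ 5 := by
        calc K = K ^ 1 := (pow_one K).symm
          _ ≤ _ := pow_le (by norm_num)
      have h4 : Y ≤ Z := by rw [hZ]; have : 0 ≤ (2:ℝ) ^ j * M := by positivity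
                            linarith
      exact mul_le_mul h3 h4 hY.le (by positivity)
    rw [e1]
    calc |dt (g 1) n - dt (g 1) (f 1) * dt (f 1) n| * w1 ≤
        (|dt (g 1) n| + |dt (f 1) n|) * w1 := by
          refine mul_le_mul_of_nonneg_right ((abs_sub _ _).trans ?_) hw1.le
          exact add_le_add le_rfl e2
      _ = |dt (g 1) n| * w1 + |dt (f 1) n| * w1 := by ring
      _ ≤ 8 * K ^ 5 * Z + K * Y := add_le_add h hn.b1
      _ ≤ _ := by rw [hR]; linarith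
  have s0 := star hn0 b0
  have s1 := star hn1 b1
  set N0 := dt (f 0) n0 with hN0
  set N1 := dt (f 0) n1 with hN1
  set t0 := dt (f 2) n0 with ht0
  set t1 := dt (f 2) n1 with ht1
  -- elimination of `A`
  have hBd : |B| * |t1 * N0 - t0 * N1| * w1 ≤ 2 * K * R := by
    have e1 : B * (t1 * N0 - t0 * N1) = (A * N1 + B * t1) * N0 - (A * N0 + B * t0) * N1 := by ring
    rw [← abs_mul, e1]
    calc |(A * N1 + B * t1) * N0 - (A * N0 + B * t0) * N1| * w1 ≤
        (|A * N1 + B * t1| * |N0| + |A * N0 + B * t0| * |N1|) * w1 := by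
          refine mul_le_mul_of_nonneg_right ((abs_sub _ _).trans (le_of_eq ?_)) hw1.le
          rw [abs_mul, abs_mul]
      _ = (|A * N1 + B * t1| * w1) * |N0| + (|A * N0 + B * t0| * w1) * |N1| := by ring
      _ ≤ R * K + R * K := add_le_add (mul_le_mul s1 hn0.up (abs_nonneg _) hR0.le)
          (mul_le_mul s0 hn1.up (abs_nonneg _) hR0.le)
      _ = _ := by ring
  have hBY : |B| * w1 * Y ≤ 2 * K ^ 2 * R * w2 := by
    calc |B| * w1 * Y ≤ |B| * w1 * (K * (w2 * |t1 * N0 - t0 * N1|)) :=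
          mul_le_mul_of_nonneg_left rot (by positivity)
      _ = K * w2 * (|B| * |t1 * N0 - t0 * N1| * w1) := by ring
      _ ≤ K * w2 * (2 * K * R) := mul_le_mul_of_nonneg_left hBd (by positivity)
      _ = _ := by ring
  have hAb : |A| * w1 ≤ 3 * K ^ 4 * R := by
    have e1 : A * N0 = (A * N0 + B * t0) - B * t0 := by ring
    have e2 : |A| * |N0| ≤ |A * N0 + B * t0| + |B| * |t0| := by
      rw [← abs_mul, ← abs_mul B t0]
      calc |A * N0| = |(A * N0 + B * t0) - B * t0| := by rw [← e1]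
        _ ≤ _ := abs_sub _ _
    have e3 : |B| * |t0| * w1 ≤ 2 * K ^ 3 * R := by
      have h1 : (|B| * |t0| * w1) * w2 ≤ (2 * K ^ 3 * R) * w2 := by
        calc (|B| * |t0| * w1) * w2 = (|B| * w1) * (|t0| * w2) := by ring
          _ ≤ (|B| * w1) * (K * Y) := mul_le_mul_of_nonneg_left hn0.b2 (by positivity)
          _ = K * (|B| * w1 * Y) := by ring
          _ ≤ K * (2 * K ^ 2 * R * w2) := mul_le_mul_of_nonneg_left hBY hK0.le
          _ = _ := by ring
      exact le_of_mul_le_mul_right h1 hw2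
    calc |A| * w1 = 1 * (|A| * w1) := by ring
      _ ≤ (K * |N0|) * (|A| * w1) := mul_le_mul_of_nonneg_right hn0.lo (by positivity)
      _ = K * ((|A| * |N0|) * w1) := by ring
      _ ≤ K * ((|A * N0 + B * t0| + |B| * |t0|) * w1) := by gcongr
      _ = K * (|A * N0 + B * t0| * w1 + |B| * |t0| * w1) := by ring
      _ ≤ K * (R + 2 * K ^ 3 * R) := by gcongr
      _ ≤ _ := by
        have h1 : K * R ≤ K ^ 4 * R := by
          have : K ≤ K ^ 4 := by
            calc K = K ^ 1 := (pow_one K).symm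
              _ ≤ _ := pow_le (by norm_num)
          exact mul_le_mul_of_nonneg_right this hR0.le
        have e4 : K * (R + 2 * K ^ 3 * R) = K * R + 2 * (K ^ 4 * R) := by ring
        rw [e4]; linarith
  -- the angle of the long axes
  have ang : ∀ {x : ℝ}, |x| ≤ |A| + |B| → 2 ^ j * w2 ≤ 2 * (|x| * w1) →
      2 ^ j * Y ≤ 100 * K ^ 11 * Z := by
    intro x hx h
    have h1 : (2 ^ j * Y) * w2 ≤ (10 * K ^ 4 * R) * w2 := by
      calc (2 ^ j * Y) * w2 = (2 ^ j * w2) * Y := by ring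
        _ ≤ (2 * (|x| * w1)) * Y := mul_le_mul_of_nonneg_right h hY.le
        _ ≤ (2 * ((|A| + |B|) * w1)) * Y := by gcongr
        _ = 2 * ((|A| * w1) * Y + |B| * w1 * Y) := by ring
        _ ≤ 2 * ((3 * K ^ 4 * R) * w2 + 2 * K ^ 2 * R * w2) := by
            have h2 : (|A| * w1) * Y ≤ (3 * K ^ 4 * R) * w2 :=
              mul_le_mul hAb hYw hY.le (by positivity)
            linarith
        _ ≤ _ := by
            have h3 : K ^ 2 * R * w2 ≤ K ^ 4 * R * w2 := by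
              have : K ^ 2 ≤ K ^ 4 := pow_le (by norm_num)
              gcongr
            have e1 : 2 * (3 * K ^ 4 * R * w2 + 2 * K ^ 2 * R * w2) =
              6 * (K ^ 4 * R * w2) + 4 * (K ^ 2 * R * w2) := by ring
            have e2 : 10 * K ^ 4 * R * w2 = 10 * (K ^ 4 * R * w2) := by ring
            rw [e1, e2]
            linarith
    have h4 := le_of_mul_le_mul_right h1 hw2
    refine h4.trans ?_
    rw [hR]
    have e5 : 10 * K ^ 4 * (9 * K ^ 5 * Z) = 90 * (K ^ 9 * Z) := by ring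
    rw [e5]
    have h6 : K ^ 9 * Z ≤ K ^ 11 * Z := mul_le_mul_of_nonneg_right (pow_le (by norm_num)) hZ0.le
    have h7 : 0 ≤ K ^ 11 * Z := by positivity
    linarith
  -- Parseval
  have pars : dt (g 0) (f 1) ^ 2 + dt (g 2) (f 1) ^ 2 = A ^ 2 + B ^ 2 := by
    have h1 := dt_expand hf (g 1) (g 1)
    have h2 := dt_expand hg (f 1) (f 1)
    have u1 : dt (g 1) (g 1) = 1 := by have := hg 1 1; simpa using this
    have u2 : dt (f 1) (f 1) = 1 := by have := hf 1 1; simpa using this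
    rw [u1, dt_comm (f 0), dt_comm (f 1) (g 1), dt_comm (f 2) (g 1)] at h1
    rw [u2, dt_comm (f 1) (g 0), dt_comm (f 1) (g 1), dt_comm (f 1) (g 2)] at h2
    rw [hA, hB]
    nlinarith
  have le_of_sq : ∀ {x : ℝ}, x ^ 2 ≤ A ^ 2 + B ^ 2 → |x| ≤ |A| + |B| := by
    intro x hx
    have h1 : x ^ 2 ≤ (|A| + |B|) ^ 2 := by
      have e1 : A ^ 2 + B ^ 2 = |A| ^ 2 + |B| ^ 2 := by rw [sq_abs, sq_abs]
      have e2 : (|A| + |B|) ^ 2 = |A| ^ 2 + |B| ^ 2 + 2 * (|A| * |B|) := by ring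
      have e3 : 0 ≤ |A| * |B| := mul_nonneg (abs_nonneg A) (abs_nonneg B)
      rw [e1] at hx
      rw [e2]
      linarith
    exact abs_le_of_sq_le_sq h1 (add_nonneg (abs_nonneg _) (abs_nonneg _))
  rcases H.blo with h | h | h
  · -- `j = 0`
    rw [h, pow_zero, one_mul]
    have h4 : Y ≤ Z := by rw [hZ]; have : 0 ≤ (2:ℝ) ^ j * M := by positivity
                          linarith
    have h5 : Z ≤ K ^ 11 * Z := le_mul_of_one_le_left hZ0.le (one_le_pow₀ hK)
    have h6 : 100 * K ^ 11 * Z = 100 * (K ^ 11 * Z) := by ring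
    rw [h6]
    linarith
  · exact ang (le_of_sq (by rw [← pars]; have := sq_nonneg (dt (g 0) (f 1)); linarith)) h
  · exact ang (le_of_sq (by rw [← pars]; have := sq_nonneg (dt (g 2) (f 1)); linarith)) h

end Crest.Agent.R136.Mlo140
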