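import Crest.Agent.R136.Hl1_706
import Crest.Agent.R136.Fl8_808

/-!
# R136 (S0187), PLAN 2, leaf B4: the gradient minors of a tilted pair of flat boxes (helper777)

`tilt_low` : two conormals `n`, `n'`, adapted to the frames `f`, `g` of flat boxes `Y × w1 × w2`
whose tilt is `(2^j, 2^k')` (`Dy`), have 2x2-minors of size `2^k' Y` :
`2^k' Y ≤ C K^6 (|π 1| w1 / 2^j + |π 2| w2 + Y)`.
-/

set_option autoImplicit false
set_option linter.unusedVariables false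

namespace Crest.Agent.R136.Mlo777

open Finset Crest.Agent.R136.Sh605 Crest.Agent.R136.Fl808 Crest.Agent.R136.Hl706

theorem dt_cr_self (n n' : V3) : dt n (cr n n') = 0 := by
  simp only [cr, dt, Matrix.cons_val_zero, Matrix.cons_val_one, Matrix.cons_val]; ring

theorem det3_eq (a b c : V3) : det3 a b c = dt a (cr b c) := by
  simp only [det3, cr, dt, Matrix.cons_val_zero, Matrix.cons_val_one, Matrix.cons_val]; ring

/-- swap of the axes `1`, `2` -/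
theorem ortho_swap {e : Fin 3 → V3} (h : Ortho e) : Ortho ![e 0, e 2, e 1] := by
  have h00 := h 0 0
  have h01 := h 0 1
  have h02 := h 0 2
  have h10 := h 1 0
  have h11 := h 1 1
  have h12 := h 1 2
  have h20 := h 2 0
  have h21 := h 2 1
  have h22 := h 2 2
  simp only [if_true, Fin.isValue, Fin.reduceEq, if_false, zero_ne_one, one_ne_zero] at h00 h01 h02 h10 h11 h12 h20 h21 h22
  intro i j
  fin_cases i <;> fin_cases j <;>
    simp only [Fin.zero_eta, Fin.mk_one, Fin.reduceFinMk, Matrix.cons_val_zero,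
      Matrix.cons_val_one, Matrix.cons_val, h00, h01, h02, h10,
      h11, h12, h20, h21, h22, if_true, Fin.isValue, Fin.reduceEq, if_false, zero_ne_one,
      one_ne_zero]

/-- `D (e 1)` is the minor of the axes `0, 2` -/
theorem D1 {e : Fin 3 → V3} (h : Ortho e) (n n' : V3) :
    |dt (e 1) (cr n n')| = |dt (e 0) n * dt (e 2) n' - dt (e 0) n' * dt (e 2) n| := by
  rw [← det3_eq, det3_frame h, sh]
  rw [← abs_neg]; congr 1; ring

/-- `D (e 2)` is the minor of the axes `0, 1` -/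
theorem D2 {e : Fin 3 → V3} (h : Ortho e) (n n' : V3) :
    |dt (e 2) (cr n n')| = |dt (e 0) n * dt (e 1) n' - dt (e 0) n' * dt (e 1) n| :=
  D1 (ortho_swap h) n n'

/-- `D (e 0)` by the other two minors, if `n` is adapted to the box of `e` -/
theorem D0_le {e : Fin 3 → V3} (h : Ortho e) {n n' : V3} {K Y w1 w2 : ℝ} (hK : 1 ≤ K)
    (h0 : 1 ≤ K * |dt (e 0) n|) (h1 : |dt (e 1) n| * w1 ≤ K * Y) (h2 : |dt (e 2) n| * w2 ≤ K * Y)
    (hw1 : 0 < w1) (hw2 : 0 < w2) :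
    |dt (e 0) (cr n n')| * (w1 * w2) ≤
      K ^ 2 * Y * (|dt (e 1) (cr n n')| * w2 + |dt (e 2) (cr n n')| * w1) := by
  have hx := dt_expand h n (cr n n')
  rw [dt_cr_self, dt_comm n (e 0), dt_comm n (e 1), dt_comm n (e 2)] at hx
  set d0 := dt (e 0) (cr n n')
  set d1 := dt (e 1) (cr n n')
  set d2 := dt (e 2) (cr n n')
  have e1 : |dt (e 0) n| * |d0| ≤ |dt (e 1) n| * |d1| + |dt (e 2) n| * |d2| := by
    rw [← abs_mul, ← abs_mul, ← abs_mul]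
    have : dt (e 0) n * d0 = -(dt (e 1) n * d1 + dt (e 2) n * d2) := by linarith
    rw [this, abs_neg]; exact abs_add_le _ _
  have e2 : |d0| ≤ K * (|dt (e 1) n| * |d1| + |dt (e 2) n| * |d2|) := by
    have a1 : |d0| ≤ (K * |dt (e 0) n|) * |d0| := by nlinarith [abs_nonneg d0]
    nlinarith
  have e3 : |dt (e 1) n| * |d1| * (w1 * w2) ≤ K * Y * (|d1| * w2) := by
    have := mul_le_mul_of_nonneg_right h1 (mul_nonneg (abs_nonneg d1) hw2.le)
    nlinarith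
  have e4 : |dt (e 2) n| * |d2| * (w1 * w2) ≤ K * Y * (|d2| * w1) := by
    have := mul_le_mul_of_nonneg_right h2 (mul_nonneg (abs_nonneg d2) hw1.le)
    nlinarith
  have e5 : |d0| * (w1 * w2) ≤ K * (|dt (e 1) n| * |d1| + |dt (e 2) n| * |d2|) * (w1 * w2) :=
    mul_le_mul_of_nonneg_right e2 (by positivity)
  nlinarith

theorem aux_a {M R0 R1 R2 P0 P1 P2 s E Y K : ℝ} (hs : 0 < s) (hK : 1 ≤ K) (hY : 0 < Y)
    (hM : M = R0 * P0 + R1 * P1 + R2 * P2) (hR : E * Y ≤ 2 * (|R0| * s))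
    (h1 : |R1| * |P1| * s ≤ 2 * K * Y) (h2 : |R2| * |P2| * s ≤ 2 * K * Y) (hP : 1 ≤ K * |P0|) :
    E * Y ≤ 2 * K * (|M| * s) + 8 * K ^ 2 * Y := by
  have e1 : |R0| * |P0| ≤ |M| + |R1| * |P1| + |R2| * |P2| := by
    rw [← abs_mul, ← abs_mul, ← abs_mul]
    have : R0 * P0 = M - R1 * P1 - R2 * P2 := by linarith
    rw [this]
    exact (abs_sub _ _).trans (add_le_add (abs_sub _ _) le_rfl)
  have e2 : |R0| ≤ K * (|R0| * |P0|) := by nlinarith [abs_nonneg R0]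
  have e3 : |R0| * s ≤ K * ((|M| + |R1| * |P1| + |R2| * |P2|) * s) := by
    have a1 : |R0| * s ≤ K * (|R0| * |P0|) * s := mul_le_mul_of_nonneg_right e2 hs.le
    have a2 : (|R0| * |P0|) * s ≤ (|M| + |R1| * |P1| + |R2| * |P2|) * s :=
      mul_le_mul_of_nonneg_right e1 hs.le
    have a3 := mul_le_mul_of_nonneg_left a2 (zero_le_one.trans hK)
    nlinarith
  have e4 : K * ((|M| + |R1| * |P1| + |R2| * |P2|) * s) ≤ K * (|M| * s + 4 * K * Y) := by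
    refine mul_le_mul_of_nonneg_left ?_ (zero_le_one.trans hK)
    linarith
  nlinarith

theorem aux_b {A0 Ak B0 Bk s Y K : ℝ} (hs : 0 < s) (hK : 1 ≤ K) (hY : 0 < Y)
    (hA : 1 ≤ K * |A0|) (hB : |B0| ≤ 3 * K) (hk : |Ak| * s ≤ K * Y) :
    |Bk| * s ≤ K * (|A0 * Bk - B0 * Ak| * s) + 3 * K ^ 3 * Y := by
  have e1 : |A0| * |Bk| ≤ |A0 * Bk - B0 * Ak| + |B0| * |Ak| := by
    rw [← abs_mul, ← abs_mul]
    have : A0 * Bk = (A0 * Bk - B0 * Ak) + B0 * Ak := by ring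
    calc |A0 * Bk| = |(A0 * Bk - B0 * Ak) + B0 * Ak| := by rw [← this]
      _ ≤ _ := abs_add_le _ _
  have e2 : |Bk| ≤ K * (|A0| * |Bk|) := by nlinarith [abs_nonneg Bk]
  have e3 : |B0| * |Ak| * s ≤ 3 * K * (K * Y) := by
    have a1 : |B0| * (|Ak| * s) ≤ 3 * K * (K * Y) :=
      mul_le_mul hB hk (by positivity) (by positivity)
    nlinarith
  have e4 : |Bk| * s ≤ K * ((|A0 * Bk - B0 * Ak| + |B0| * |Ak|) * s) := by
    have a1 : |Bk| * s ≤ K * (|A0| * |Bk|) * s := mul_le_mul_of_nonneg_right e2 hs.le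
    have a2 : (|A0| * |Bk|) * s ≤ (|A0 * Bk - B0 * Ak| + |B0| * |Ak|) * s :=
      mul_le_mul_of_nonneg_right e1 hs.le
    have a3 := mul_le_mul_of_nonneg_left a2 (zero_le_one.trans hK)
    nlinarith
  have e5 : K * ((|A0 * Bk - B0 * Ak| + |B0| * |Ak|) * s) ≤
      K * (|A0 * Bk - B0 * Ak| * s + 3 * K * (K * Y)) := by
    refine mul_le_mul_of_nonneg_left ?_ (zero_le_one.trans hK)
    linarith
  nlinarith

theorem aux_c {M R0 R1 R2 P0 P1 P2 A0 Ak B0 s E Y K : ℝ} (hs : 0 < s) (hK : 1 ≤ K) (hY : 0 < Y)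
    (hM : M = R0 * P0 + R1 * P1 + R2 * P2) (hR : E * Y ≤ 2 * (|R0| * s))
    (h1 : |R1| * |P1| * s ≤ 2 * K * Y) (h2 : |R2| * |P2| * s ≤ 2 * K * Y) (hP : 1 ≤ K * |P0|)
    (hA : 1 ≤ K * |A0|) (hB : |B0| ≤ 3 * K) (hk : |Ak| * s ≤ K * Y) :
    E * Y ≤ 14 * K ^ 4 * (|A0 * M - B0 * Ak| * s + Y) := by
  have e1 := aux_a hs hK hY hM hR h1 h2 hP
  have e2 := aux_b (Bk := M) hs hK hY hA hB hk
  have e3 : 2 * K * (|M| * s) ≤ 2 * K * (K * (|A0 * M - B0 * Ak| * s) + 3 * K ^ 3 * Y) :=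
    mul_le_mul_of_nonneg_left e2 (by positivity)
  have hπ : 0 ≤ |A0 * M - B0 * Ak| * s := by positivity
  have hK2 : K ^ 2 ≤ K ^ 4 := pow_le_pow_right₀ hK (by norm_num)
  have e4 : K ^ 2 * (|A0 * M - B0 * Ak| * s) ≤ K ^ 4 * (|A0 * M - B0 * Ak| * s) :=
    mul_le_mul_of_nonneg_right hK2 hπ
  have e5 : K ^ 2 * Y ≤ K ^ 4 * Y := mul_le_mul_of_nonneg_right hK2 hY.le
  have e6 : 0 ≤ K ^ 4 * (|A0 * M - B0 * Ak| * s) := by positivity
  nlinarith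

/-- the first coordinate of an adapted conormal in another frame -/
theorem c0_le {f g : Fin 3 → V3} (hf : Ortho f) (hg : Ortho g) {Y w1 w2 : ℝ}
    (hY : 0 < Y) (hYw : Y ≤ w2) (hw : w2 ≤ w1) {K : ℝ} (hK : 1 ≤ K) {n : V3}
    (n0' : |dt (f 0) n| ≤ K)
    (n1 : |dt (f 1) n| * w1 ≤ K * Y) (n2 : |dt (f 2) n| * w2 ≤ K * Y) :
    |dt (g 0) n| ≤ 3 * K := by
  have hw2 : 0 < w2 := hY.trans_le hYw
  have hw1 : 0 < w1 := hw2.trans_le hw
  have h1 : |dt (f 1) n| ≤ K := by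
    have : |dt (f 1) n| * w1 ≤ K * w1 := n1.trans (by nlinarith)
    exact le_of_mul_le_mul_right this hw1
  have h2 : |dt (f 2) n| ≤ K := by
    have : |dt (f 2) n| * w2 ≤ K * w2 := n2.trans (by nlinarith)
    exact le_of_mul_le_mul_right this hw2
  have h := comp_le hf (g 0) n0' h1 h2
  have a0 := abs_dt_le_one hf hg 0 0
  have a1 := abs_dt_le_one hf hg 0 1
  have a2 := abs_dt_le_one hf hg 0 2
  nlinarith

theorem fin_aux {x S1 Y K : ℝ} (hK : 1 ≤ K) (hY : 0 < Y) (hS : 0 ≤ S1) (hx : x ≤ 4 * K ^ 2 * S1) :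
    14 * K ^ 4 * (x + Y) ≤ 56 * K ^ 6 * (S1 + Y) := by
  have hK6 : K ^ 4 ≤ K ^ 6 := pow_le_pow_right₀ hK (by norm_num)
  have a1 : 14 * K ^ 4 * (x + Y) ≤ 14 * K ^ 4 * (4 * K ^ 2 * S1 + Y) := by
    refine mul_le_mul_of_nonneg_left (by linarith) (by positivity)
  have a2 : 14 * K ^ 4 * (4 * K ^ 2 * S1 + Y) = 56 * K ^ 6 * S1 + 14 * (K ^ 4 * Y) := by ring
  have a3 : K ^ 4 * Y ≤ K ^ 6 * Y := mul_le_mul_of_nonneg_right hK6 hY.le
  have a4 : 0 ≤ K ^ 6 * Y := by positivity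
  nlinarith

/-- the minor of `g 0, g 1` by those of `f` -/
theorem g2_aux {D d0 d1 d2 R20 R21 R22 Λ w1 w2 Y K : ℝ} (hK : 1 ≤ K) (hY : 0 < Y) (hYw : Y ≤ w2)
    (hw : w2 ≤ w1) (hΛ : 1 ≤ Λ) (h : D = R20 * d0 + R21 * d1 + R22 * d2) (h20 : |R20| ≤ 1)
    (h21 : |R21| * w1 ≤ Λ * w2) (h22 : |R22| ≤ 1)
    (h0 : |d0| * (w1 * w2) ≤ K ^ 2 * Y * (|d1| * w2 + |d2| * w1)) :
    |D| * (w1 / Λ) ≤ 4 * K ^ 2 * (|d2| * (w1 / Λ) + |d1| * w2) := by
  have hw2 : 0 < w2 := hY.trans_le hYw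
  have hw1 : 0 < w1 := hw2.trans_le hw
  have hΛ0 : 0 < Λ := by linarith
  have hK2 : 1 ≤ K ^ 2 := one_le_pow₀ hK
  have e0 : |d0| * w1 ≤ K ^ 2 * (|d1| * w2 + |d2| * w1) := by
    refine le_of_mul_le_mul_right (a := w2) ?_ hw2
    have : K ^ 2 * Y * (|d1| * w2 + |d2| * w1) ≤ K ^ 2 * w2 * (|d1| * w2 + |d2| * w1) := by
      gcongr
    nlinarith
  have e1 : |D| ≤ |R20| * |d0| + |R21| * |d1| + |R22| * |d2| := by
    rw [h, ← abs_mul, ← abs_mul, ← abs_mul]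
    exact (abs_add_le _ _).trans (add_le_add (abs_add_le _ _) le_rfl)
  have e2 : |D| * w1 ≤ |d0| * w1 + Λ * w2 * |d1| + |d2| * w1 := by
    have a1 : |R20| * |d0| ≤ |d0| := by nlinarith [abs_nonneg d0]
    have a2 : |R22| * |d2| ≤ |d2| := by nlinarith [abs_nonneg d2]
    have a3 := mul_le_mul_of_nonneg_right h21 (abs_nonneg d1)
    have a4 := mul_le_mul_of_nonneg_right e1 hw1.le
    nlinarith
  have e3 : |D| * w1 ≤ 2 * K ^ 2 * (Λ * (|d1| * w2) + |d2| * w1) := by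
    have a1 : 0 ≤ |d1| * w2 := by positivity
    have a2 : 0 ≤ |d2| * w1 := by positivity
    have a3 : |d1| * w2 ≤ Λ * (|d1| * w2) := by nlinarith
    have a4 : K ^ 2 * (|d1| * w2) ≤ K ^ 2 * (Λ * (|d1| * w2)) := by gcongr
    have a5 : Λ * (|d1| * w2) ≤ K ^ 2 * (Λ * (|d1| * w2)) := by nlinarith
    have a6 : |d2| * w1 ≤ K ^ 2 * (|d2| * w1) := by nlinarith
    nlinarith
  have e4 : |D| * (w1 / Λ) = |D| * w1 / Λ := by ring
  have e5 : |d2| * (w1 / Λ) + |d1| * w2 = (Λ * (|d1| * w2) + |d2| * w1) / Λ := by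
    field_simp; ring
  rw [e4, e5, ← mul_div_assoc]
  refine div_le_div_of_nonneg_right ?_ hΛ0.le
  have : 0 ≤ K ^ 2 * (Λ * (|d1| * w2) + |d2| * w1) := by positivity
  linarith

/-- the minor of `g 0, g 2` by those of `f` -/
theorem g1_aux {D d0 d1 d2 R10 R11 R12 Λ w1 w2 Y K : ℝ} (hK : 1 ≤ K) (hY : 0 < Y) (hYw : Y ≤ w2)
    (hw : w2 ≤ w1) (hΛ : 1 ≤ Λ) (hlw : Λ * w2 ≤ 2 * w1) (h : D = R10 * d0 + R11 * d1 + R12 * d2)
    (h10 : |R10| ≤ 1) (h11 : |R11| ≤ 1) (h12 : |R12| ≤ 1)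
    (h0 : |d0| * (w1 * w2) ≤ K ^ 2 * Y * (|d1| * w2 + |d2| * w1)) :
    |D| * w2 ≤ 4 * K ^ 2 * (|d2| * (w1 / Λ) + |d1| * w2) := by
  have hw2 : 0 < w2 := hY.trans_le hYw
  have hw1 : 0 < w1 := hw2.trans_le hw
  have hΛ0 : 0 < Λ := by linarith
  have hK2 : 1 ≤ K ^ 2 := one_le_pow₀ hK
  have hl : w2 ≤ 2 * (w1 / Λ) := by
    rw [← mul_div_assoc, le_div_iff₀ hΛ0]; linarith
  have e0 : |d0| * w2 ≤ K ^ 2 * (|d1| * w2 + |d2| * w2) := by
    refine le_of_mul_le_mul_right (a := w1) ?_ hw1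
    have b1 : Y * (|d1| * w2) ≤ w1 * (|d1| * w2) := by
      refine mul_le_mul_of_nonneg_right (by linarith) (by positivity)
    have b2 : Y * (|d2| * w1) ≤ w1 * (|d2| * w2) := by
      have := mul_le_mul_of_nonneg_right hYw (show 0 ≤ |d2| * w1 by positivity)
      nlinarith
    have b3 : K ^ 2 * (Y * (|d1| * w2) + Y * (|d2| * w1)) ≤
        K ^ 2 * (w1 * (|d1| * w2) + w1 * (|d2| * w2)) := by gcongr
    nlinarith
  have e1 : |D| ≤ |R10| * |d0| + |R11| * |d1| + |R12| * |d2| := by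
    rw [h, ← abs_mul, ← abs_mul, ← abs_mul]
    exact (abs_add_le _ _).trans (add_le_add (abs_add_le _ _) le_rfl)
  have e2 : |D| * w2 ≤ (|d0| + |d1| + |d2|) * w2 := by
    have a1 : |R10| * |d0| ≤ |d0| := by nlinarith [abs_nonneg d0]
    have a2 : |R12| * |d2| ≤ |d2| := by nlinarith [abs_nonneg d2]
    have a3 : |R11| * |d1| ≤ |d1| := by nlinarith [abs_nonneg d1]
    exact mul_le_mul_of_nonneg_right (by linarith) hw2.le
  have e3 : |d2| * w2 ≤ 2 * (|d2| * (w1 / Λ)) := by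
    have := mul_le_mul_of_nonneg_left hl (abs_nonneg d2)
    linarith
  have a1 : 0 ≤ |d1| * w2 := by positivity
  have a2 : 0 ≤ |d2| * (w1 / Λ) := by positivity
  have a3 : |D| * w2 ≤ 2 * K ^ 2 * (|d1| * w2 + |d2| * w2) := by
    have a4 : |d1| * w2 + |d2| * w2 ≤ K ^ 2 * (|d1| * w2 + |d2| * w2) :=
      le_mul_of_one_le_left (by positivity) hK2
    linarith
  have a5 : 2 * K ^ 2 * (|d1| * w2 + |d2| * w2) ≤ 2 * K ^ 2 * (|d1| * w2 + 2 * (|d2| * (w1 / Λ))) := by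
    gcongr
  have a6 : 0 ≤ K ^ 2 * (|d1| * w2) := by positivity
  linarith

theorem prod_le {R P w s Y K : ℝ} (hP : |P| * w ≤ K * Y) (hRs : |R| * s ≤ 2 * w) :
    |R| * |P| * s ≤ 2 * K * Y := by
  have h1 := mul_le_mul_of_nonneg_right hRs (abs_nonneg P)
  linarith

/-- **the gradient minors of a tilted pair.** -/
theorem tilt_low {f g : Fin 3 → V3} (hf : Ortho f) (hg : Ortho g) {Y w1 w2 : ℝ} {j k' : ℕ}
    (hY : 0 < Y) (hYw : Y ≤ w2) (hw : w2 ≤ w1) (H : Dy f g Y w1 w2 j k') {K : ℝ} (hK : 1 ≤ K)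
    {n n' : V3} (n0 : 1 ≤ K * |dt (f 0) n|) (n0' : |dt (f 0) n| ≤ K)
    (n1 : |dt (f 1) n| * w1 ≤ K * Y) (n2 : |dt (f 2) n| * w2 ≤ K * Y)
    (m0 : 1 ≤ K * |dt (g 0) n'|) (m0' : |dt (g 0) n'| ≤ K)
    (m1 : |dt (g 1) n'| * w1 ≤ K * Y) (m2 : |dt (g 2) n'| * w2 ≤ K * Y) :
    2 ^ k' * Y ≤ 56 * K ^ 6 *
      (|dt (f 0) n * dt (f 1) n' - dt (f 0) n' * dt (f 1) n| * (w1 / 2 ^ j) +
        |dt (f 0) n * dt (f 2) n' - dt (f 0) n' * dt (f 2) n| * w2 + Y) := by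
  have hw2 : 0 < w2 := hY.trans_le hYw
  have hw1 : 0 < w1 := hw2.trans_le hw
  have hΛ0 : (0:ℝ) < 2 ^ j := by positivity
  have hΛ1 : (1:ℝ) ≤ 2 ^ j := one_le_pow₀ (by norm_num)
  have hlw := H.hlw hf hg hY hYw hw
  have hD1 := D1 hf n n'
  have hD2 := D2 hf n n'
  have hs : (0:ℝ) < w1 / 2 ^ j := by positivity
  have hsw : w1 / 2 ^ j ≤ w1 := div_le_self hw1.le hΛ1
  have hS0 : 0 ≤ |dt (f 2) (cr n n')| * (w1 / 2 ^ j) + |dt (f 1) (cr n n')| * w2 := by positivity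
  have hbig : ∀ x : ℝ, 0 ≤ x → x ≤ 4 * K ^ 2 * x := fun x hx =>
    le_mul_of_one_le_left hx (by have := one_le_pow₀ hK (n := 2); linarith)
  rw [← hD1, ← hD2]
  have key : ∀ x : ℝ, x ≤ 4 * K ^ 2 * (|dt (f 2) (cr n n')| * (w1 / 2 ^ j) +
      |dt (f 1) (cr n n')| * w2) → 2 ^ k' * Y ≤ 14 * K ^ 4 * (x + Y) → 2 ^ k' * Y ≤ 56 * K ^ 6 *
      (|dt (f 2) (cr n n')| * (w1 / 2 ^ j) + |dt (f 1) (cr n n')| * w2 + Y) :=
    fun x hx h => h.trans (fin_aux hK hY hS0 hx)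
  rcases H.tlo with h | h | h | h | h
  · -- k' = 0
    refine key 0 (by positivity) ?_
    rw [h, pow_zero, one_mul, zero_add]
    have a1 : (1:ℝ) ≤ 14 * K ^ 4 := by have := one_le_pow₀ hK (n := 4); linarith
    exact le_mul_of_one_le_left hY.le a1
  · -- R10
    have hD := g2_aux hK hY hYw hw hΛ1 (dt_expand hf (g 2) (cr n n')) (abs_dt_le_one hf hg 2 0)
      H.b21 (abs_dt_le_one hf hg 2 2) (D0_le hf hK n0 n1 n2 hw1 hw2)
    refine key _ hD ?_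
    rw [D2 hg n n']
    have hM := dt_expand hf (g 1) n
    have hR : 2 ^ k' * Y ≤ 2 * (|dt (g 1) (f 0)| * (w1 / 2 ^ j)) := by
      have e1 : 2 * (|dt (g 1) (f 0)| * (w1 / 2 ^ j)) = 2 * (|dt (g 1) (f 0)| * w1) / 2 ^ j := by
        ring
      rw [e1, le_div_iff₀ hΛ0]; linarith
    have h1 : |dt (g 1) (f 1)| * |dt (f 1) n| * (w1 / 2 ^ j) ≤ 2 * K * Y := by
      refine prod_le n1 ?_
      have := abs_dt_le_one hf hg 1 1
      nlinarith
    have h2 : |dt (g 1) (f 2)| * |dt (f 2) n| * (w1 / 2 ^ j) ≤ 2 * K * Y := by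
      refine prod_le n2 ?_
      have := H.b12 hf hg hY hYw hw
      have e1 : |dt (g 1) (f 2)| * (w1 / 2 ^ j) = |dt (g 1) (f 2)| * w1 / 2 ^ j := by ring
      rw [e1, div_le_iff₀ hΛ0]; linarith
    have m1s : |dt (g 1) n'| * (w1 / 2 ^ j) ≤ K * Y :=
      (mul_le_mul_of_nonneg_left hsw (abs_nonneg _)).trans m1
    have := aux_c hs hK hY hM hR h1 h2 n0 m0 (c0_le hf hg hY hYw hw hK n0' n1 n2) m1s
    refine this.trans (le_of_eq ?_)
    rw [← abs_neg (dt (g 0) n' * dt (g 1) n - dt (g 0) n * dt (g 1) n')]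
    congr 4
    ring
  · -- R20
    have hD := g1_aux hK hY hYw hw hΛ1 hlw (dt_expand hf (g 1) (cr n n'))
      (abs_dt_le_one hf hg 1 0) (abs_dt_le_one hf hg 1 1) (abs_dt_le_one hf hg 1 2)
      (D0_le hf hK n0 n1 n2 hw1 hw2)
    refine key _ hD ?_
    rw [D1 hg n n']
    have hM := dt_expand hf (g 2) n
    have hR : 2 ^ k' * Y ≤ 2 * (|dt (g 2) (f 0)| * w2) := by
      refine le_of_mul_le_mul_left ?_ hΛ0
      linarith
    have h1 : |dt (g 2) (f 1)| * |dt (f 1) n| * w2 ≤ 2 * K * Y := by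
      refine prod_le n1 ?_
      have := abs_dt_le_one hf hg 2 1
      nlinarith
    have h2 : |dt (g 2) (f 2)| * |dt (f 2) n| * w2 ≤ 2 * K * Y := by
      refine prod_le n2 ?_
      have := abs_dt_le_one hf hg 2 2
      nlinarith
    have := aux_c hw2 hK hY hM hR h1 h2 n0 m0 (c0_le hf hg hY hYw hw hK n0' n1 n2) m2
    refine this.trans (le_of_eq ?_)
    rw [← abs_neg (dt (g 0) n' * dt (g 2) n - dt (g 0) n * dt (g 2) n')]
    congr 4
    ring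
  · -- R01
    have hx : |dt (f 2) (cr n n')| * (w1 / 2 ^ j) ≤ 4 * K ^ 2 *
        (|dt (f 2) (cr n n')| * (w1 / 2 ^ j) + |dt (f 1) (cr n n')| * w2) := by
      refine le_trans ?_ (hbig _ hS0)
      have : 0 ≤ |dt (f 1) (cr n n')| * w2 := by positivity
      linarith
    refine key _ hx ?_
    rw [hD2]
    have hM := dt_expand hg (f 1) n'
    rw [dt_comm (f 1) (g 0), dt_comm (f 1) (g 1), dt_comm (f 1) (g 2)] at hM
    have hR : 2 ^ k' * Y ≤ 2 * (|dt (g 0) (f 1)| * (w1 / 2 ^ j)) := by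
      have e1 : 2 * (|dt (g 0) (f 1)| * (w1 / 2 ^ j)) = 2 * (|dt (g 0) (f 1)| * w1) / 2 ^ j := by
        ring
      rw [e1, le_div_iff₀ hΛ0]; linarith
    have h1 : |dt (g 1) (f 1)| * |dt (g 1) n'| * (w1 / 2 ^ j) ≤ 2 * K * Y := by
      refine prod_le m1 ?_
      have := abs_dt_le_one hf hg 1 1
      nlinarith
    have h2 : |dt (g 2) (f 1)| * |dt (g 2) n'| * (w1 / 2 ^ j) ≤ 2 * K * Y := by
      refine prod_le m2 ?_
      have := H.b21
      have e1 : |dt (g 2) (f 1)| * (w1 / 2 ^ j) = |dt (g 2) (f 1)| * w1 / 2 ^ j := by ring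
      rw [e1, div_le_iff₀ hΛ0]
      have : 0 ≤ 2 ^ j * w2 := by positivity
      linarith
    have n1s : |dt (f 1) n| * (w1 / 2 ^ j) ≤ K * Y :=
      (mul_le_mul_of_nonneg_left hsw (abs_nonneg _)).trans n1
    exact aux_c hs hK hY hM hR h1 h2 m0 n0 (c0_le hg hf hY hYw hw hK m0' m1 m2) n1s
  · -- R02
    have hx : |dt (f 1) (cr n n')| * w2 ≤ 4 * K ^ 2 *
        (|dt (f 2) (cr n n')| * (w1 / 2 ^ j) + |dt (f 1) (cr n n')| * w2) := by
      refine le_trans ?_ (hbig _ hS0)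
      have : 0 ≤ |dt (f 2) (cr n n')| * (w1 / 2 ^ j) := by positivity
      linarith
    refine key _ hx ?_
    rw [hD1]
    have hM := dt_expand hg (f 2) n'
    rw [dt_comm (f 2) (g 0), dt_comm (f 2) (g 1), dt_comm (f 2) (g 2)] at hM
    have hR : 2 ^ k' * Y ≤ 2 * (|dt (g 0) (f 2)| * w2) := by
      refine le_of_mul_le_mul_left ?_ hΛ0
      linarith
    have h1 : |dt (g 1) (f 2)| * |dt (g 1) n'| * w2 ≤ 2 * K * Y := by
      refine prod_le m1 ?_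
      have := abs_dt_le_one hf hg 1 2
      nlinarith
    have h2 : |dt (g 2) (f 2)| * |dt (g 2) n'| * w2 ≤ 2 * K * Y := by
      refine prod_le m2 ?_
      have := abs_dt_le_one hf hg 2 2
      nlinarith
    exact aux_c hw2 hK hY hM hR h1 h2 m0 n0 (c0_le hg hf hY hYw hw hK m0' m1 m2) n2

end Crest.Agent.R136.Mlo777
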