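import Crest.Agent.R136.Mlo_723
import Crest.Agent.R136.Mlt2_89
import Crest.Agent.R136.Tpl_706
import Crest.Agent.R136.Shd_410

/-!
# R136 (S0187), PLAN 2, B4: lower bound of the gradient of a pair, large base tilt, raw form
(helper723)

`gr S z0 ρ T ζ` : gradient of the sheet `S` at the line `T`, height `z0 + ρ ζ`.
`mlow_j` : `W ^ 46 ≤ 2 ^ j` ⊢ at `ζ = 0` or `ζ = 1` the gradient of the pair is large.
-/

set_option autoImplicit false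
set_option linter.unusedVariables false

open Finset

namespace Crest.Agent.R136.Mlr723

open Crest.Agent.R136.Sh605 Crest.Agent.R136.Fl808 Crest.Agent.R136.Mlo723
open Crest.Agent.R136.K4 (Plk4)
open Crest.Agent.R136.Tlt51 (Shp InP)
open Crest.Agent.R136.KapP335 (kapP expP DetP expP_spec)
open Crest.Agent.R136.Tl102 (NrmC IsExp StP shB1 kap scB1 QF)
open Crest.Agent.R136.Pl2
open Crest.Agent.R136.Pl2W102 (Near Ex2 Two1)
open Crest.Agent.R136.Mlt89 (cv dt_cv0 dt_cv1 dt_cv2)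
open Crest.Agent.R136.Shd410 (ShD)

/-- gradient of the sheet `S` at the height `z0 + ρ ζ` of its line `T` -/
noncomputable def gr (S : Plk4) (z0 ρ : ℝ) (T : Ln4) (ζ : ℝ) : V3 :=
  cv S.e S.w (fun k => (expP S z0 ρ T).1 k + ζ * (expP S z0 ρ T).2.1 k)

/-- the coefficients of a sheet at one of its lines are normalised -/
theorem nrm {S : Plk4} {T : Ln4} {z0 ρ r : ℝ} (hr : 0 < r) (hρ : 0 < ρ) (hS : Shp S z0 ρ r)
    (hT : InP T S z0 ρ) : NrmC (expP S z0 ρ T).1 (expP S z0 ρ T).2.1 (expP S z0 ρ T).2.2 := by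
  have hw0 : 0 < S.w 0 := (hr.trans_le hS.r0_le).trans_le hS.a_le0
  exact (expP_spec hS.isQ hw0.ne' z0 ρ T).nrmC (StP.of_shN hS hw0) hρ.le
    (fun z h1 h2 => (hT z h1 h2).1)

/-- sizes of the gradient at the two ends -/
theorem gr_le {S : Plk4} {T : Ln4} {z0 ρ r : ℝ} (hr : 0 < r) (hρ : 0 < ρ) (hS : Shp S z0 ρ r)
    (hT : InP T S z0 ρ) {ζ : ℝ} (hζ : ζ = 0 ∨ ζ = 1) :
    1 / 2 ≤ dt (S.e 0) (gr S z0 ρ T ζ) ∧ dt (S.e 0) (gr S z0 ρ T ζ) ≤ 2 ∧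
      |dt (S.e 1) (gr S z0 ρ T ζ)| * S.w 1 ≤ S.w 0 ∧
      |dt (S.e 2) (gr S z0 ρ T ζ)| * S.w 2 ≤ S.w 0 := by
  have hw0 : 0 < S.w 0 := (hr.trans_le hS.r0_le).trans_le hS.a_le0
  have hw2 : 0 < S.w 2 := hw0.trans_le hS.w0_le
  have hw1 : 0 < S.w 1 := hw2.trans_le hS.w_le
  have N := nrm hr hρ hS hT
  have z1 : 0 ≤ ζ := by rcases hζ with h | h <;> rw [h]; norm_num
  have z2 : ζ ≤ 1 := by rcases hζ with h | h <;> rw [h]; norm_num
  have s := N.st ζ z1 z2 0 0 0 (by norm_num) (by norm_num) (by norm_num)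
  simp only [mul_zero, add_zero] at s
  have h1 : |(expP S z0 ρ T).1 1 + ζ * (expP S z0 ρ T).2.1 1| ≤ 1 := by
    rcases hζ with h | h <;> rw [h]
    · simpa using N.b01
    · simpa using N.b11
  have h2 : |(expP S z0 ρ T).1 2 + ζ * (expP S z0 ρ T).2.1 2| ≤ 1 := by
    rcases hζ with h | h <;> rw [h]
    · simpa using N.b02
    · simpa using N.b12
  unfold gr
  rw [dt_cv0 hS.ortho hw0.ne', dt_cv1 hS.ortho, dt_cv2 hS.ortho]
  refine ⟨s.1, s.2, ?_, ?_⟩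
  · rw [abs_mul, abs_of_pos (div_pos hw0 hw1), mul_right_comm, div_mul_cancel₀ _ hw1.ne']
    exact mul_le_of_le_one_right hw0.le h1
  · rw [abs_mul, abs_of_pos (div_pos hw0 hw2), mul_right_comm, div_mul_cancel₀ _ hw2.ne']
    exact mul_le_of_le_one_right hw0.le h2

/-- rotation of the normalised gradient over the cell, exact -/
theorem gr_rot {S : Plk4} {T : Ln4} {z0 ρ r : ℝ} (hr : 0 < r) (hρ : 0 < ρ) (hS : Shp S z0 ρ r)
    (hT : InP T S z0 ρ) :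
    (∀ k : Fin 3, k = 1 ∨ k = 2 →
      (dt (S.e k) (gr S z0 ρ T 1) / dt (S.e 0) (gr S z0 ρ T 1) -
        dt (S.e k) (gr S z0 ρ T 0) / dt (S.e 0) (gr S z0 ρ T 0)) * S.w k =
        S.w 0 * shB1 (expP S z0 ρ T).1 (expP S z0 ρ T).2.1 k / dt (S.e 0) (gr S z0 ρ T 1)) := by
  have hw0 : 0 < S.w 0 := (hr.trans_le hS.r0_le).trans_le hS.a_le0
  have hw2 : 0 < S.w 2 := hw0.trans_le hS.w0_le
  have hw1 : 0 < S.w 1 := hw2.trans_le hS.w_le
  obtain ⟨p0, -⟩ := gr_le hr hρ hS hT (ζ := 0) (Or.inl rfl)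
  obtain ⟨p1, -⟩ := gr_le hr hρ hS hT (ζ := 1) (Or.inr rfl)
  unfold gr at p0 p1 ⊢
  rw [dt_cv0 hS.ortho hw0.ne'] at p0 p1
  have q0 : (expP S z0 ρ T).1 0 ≠ 0 := by
    have : (0:ℝ) < (expP S z0 ρ T).1 0 := by linarith
    exact this.ne'
  have q1 : (expP S z0 ρ T).1 0 + (expP S z0 ρ T).2.1 0 ≠ 0 := by
    have : (0:ℝ) < (expP S z0 ρ T).1 0 + (expP S z0 ρ T).2.1 0 := by linarith
    exact this.ne'
  intro k hk
  rcases hk with hk | hk <;> subst hk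
  · rw [dt_cv0 hS.ortho hw0.ne', dt_cv0 hS.ortho hw0.ne', dt_cv1 hS.ortho, dt_cv1 hS.ortho]
    simp only [shB1, Matrix.cons_val_one, Matrix.cons_val_zero, one_mul, zero_mul, add_zero]
    field_simp
    ring
  · rw [dt_cv0 hS.ortho hw0.ne', dt_cv0 hS.ortho hw0.ne', dt_cv2 hS.ortho, dt_cv2 hS.ortho]
    simp only [shB1, Matrix.cons_val, one_mul, zero_mul, add_zero]
    field_simp
    ring

theorem absm (x : ℝ) {w : ℝ} (hw : 0 < w) : |x| * w = |x * w| := by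
  rw [abs_mul, abs_of_pos hw]

/-- upper bound of the rotation -/
theorem gr_rot_le {S : Plk4} {T : Ln4} {z0 ρ r : ℝ} (hr : 0 < r) (hρ : 0 < ρ)
    (hS : Shp S z0 ρ r) (hT : InP T S z0 ρ) {k : Fin 3} (hk : k = 1 ∨ k = 2) :
    |dt (S.e k) (gr S z0 ρ T 1) / dt (S.e 0) (gr S z0 ρ T 1) -
      dt (S.e k) (gr S z0 ρ T 0) / dt (S.e 0) (gr S z0 ρ T 0)| * S.w k ≤ 2 * kp S z0 ρ T := by
  have hw0 : 0 < S.w 0 := (hr.trans_le hS.r0_le).trans_le hS.a_le0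
  have hw2 : 0 < S.w 2 := hw0.trans_le hS.w0_le
  have hw1 : 0 < S.w 1 := hw2.trans_le hS.w_le
  have hwk : 0 < S.w k := by rcases hk with h | h <;> subst h <;> assumption
  obtain ⟨p1, -⟩ := gr_le hr hρ hS hT (ζ := 1) (Or.inr rfl)
  have hp : 0 < dt (S.e 0) (gr S z0 ρ T 1) := by linarith
  have hκ : |shB1 (expP S z0 ρ T).1 (expP S z0 ρ T).2.1 k| ≤
      kap (expP S z0 ρ T).1 (expP S z0 ρ T).2.1 (expP S z0 ρ T).2.2 := by
    rcases hk with h | h <;> subst h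
    · exact (le_max_left _ _).trans (le_max_left _ _)
    · exact (le_max_right _ _).trans (le_max_left _ _)
  rw [absm _ hwk, gr_rot hr hρ hS hT k hk, abs_div, abs_of_pos hp, abs_mul, abs_of_pos hw0,
    div_le_iff₀ hp]
  have h1 : kp S z0 ρ T =
    S.w 0 * kap (expP S z0 ρ T).1 (expP S z0 ρ T).2.1 (expP S z0 ρ T).2.2 := rfl
  have h2 : 0 ≤ kap (expP S z0 ρ T).1 (expP S z0 ρ T).2.1 (expP S z0 ρ T).2.2 :=
    (abs_nonneg _).trans hκ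
  rw [h1]
  calc S.w 0 * |shB1 (expP S z0 ρ T).1 (expP S z0 ρ T).2.1 k| ≤
      S.w 0 * kap (expP S z0 ρ T).1 (expP S z0 ρ T).2.1 (expP S z0 ρ T).2.2 :=
        mul_le_mul_of_nonneg_left hκ hw0.le
    _ ≤ _ := by
      have h3 := mul_nonneg hw0.le h2
      nlinarith

/-- lower bound of the rotation along the second axis -/
theorem le_gr_rot {S : Plk4} {T : Ln4} {z0 ρ r W : ℝ} (hr : 0 < r) (hρ : 0 < ρ)
    (hS : Shp S z0 ρ r) (hT : InP T S z0 ρ) (hW : 0 < W) (hrot : 1 / W ≤ rot2 S z0 ρ T) :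
    kp S z0 ρ T ≤ 2 * W * (|dt (S.e 2) (gr S z0 ρ T 1) / dt (S.e 0) (gr S z0 ρ T 1) -
      dt (S.e 2) (gr S z0 ρ T 0) / dt (S.e 0) (gr S z0 ρ T 0)| * S.w 2) := by
  have hw0 : 0 < S.w 0 := (hr.trans_le hS.r0_le).trans_le hS.a_le0
  have hw2 : 0 < S.w 2 := hw0.trans_le hS.w0_le
  obtain ⟨p1, p2, -⟩ := gr_le hr hρ hS hT (ζ := 1) (Or.inr rfl)
  have hp : 0 < dt (S.e 0) (gr S z0 ρ T 1) := by linarith
  have h1 : kp S z0 ρ T =
    S.w 0 * kap (expP S z0 ρ T).1 (expP S z0 ρ T).2.1 (expP S z0 ρ T).2.2 := rfl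
  have hκ0 := Tl102.kap_nonneg (expP S z0 ρ T).1 (expP S z0 ρ T).2.1 (expP S z0 ρ T).2.2
  have h2 : kap (expP S z0 ρ T).1 (expP S z0 ρ T).2.1 (expP S z0 ρ T).2.2 ≤
      W * |shB1 (expP S z0 ρ T).1 (expP S z0 ρ T).2.1 2| := by
    rcases hκ0.eq_or_lt with h | h
    · rw [← h]; positivity
    · have h1 := hrot
      unfold rot2 at h1
      simp only [scB1, Matrix.cons_val] at h1
      rw [abs_div, abs_of_pos h, div_le_div_iff₀ hW h] at h1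
      linarith
  rw [absm _ hw2, gr_rot hr hρ hS hT 2 (Or.inr rfl), abs_div, abs_of_pos hp, abs_mul,
    abs_of_pos hw0, h1]
  have h3 : S.w 0 * |shB1 (expP S z0 ρ T).1 (expP S z0 ρ T).2.1 2| ≤
      2 * (S.w 0 * |shB1 (expP S z0 ρ T).1 (expP S z0 ρ T).2.1 2| /
        dt (S.e 0) (gr S z0 ρ T 1)) := by
    rw [← mul_div_assoc, le_div_iff₀ hp, mul_comm]
    exact mul_le_mul_of_nonneg_right p2 (by positivity)
  calc S.w 0 * kap (expP S z0 ρ T).1 (expP S z0 ρ T).2.1 (expP S z0 ρ T).2.2 ≤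
      S.w 0 * (W * |shB1 (expP S z0 ρ T).1 (expP S z0 ρ T).2.1 2|) :=
        mul_le_mul_of_nonneg_left h2 hw0.le
    _ = W * (S.w 0 * |shB1 (expP S z0 ρ T).1 (expP S z0 ρ T).2.1 2|) := by ring
    _ ≤ W * (2 * (S.w 0 * |shB1 (expP S z0 ρ T).1 (expP S z0 ρ T).2.1 2| /
        dt (S.e 0) (gr S z0 ρ T 1))) := mul_le_mul_of_nonneg_left h3 hW.le
    _ = _ := by ring

/-- **M bound, case of a large base tilt** -/
theorem mlow_j {K : ℝ} {qm qp : Fin 3 → ℝ} {L : ℕ → Ln4} {Z : Finset ℕ} {S S' : Plk4}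
    {f g : Fin 3 → V3} {W M a Y w1 w2 z0 ρ r : ℝ} {j k' : ℕ}
    (H : ShD K qm qp L Z S S' f g W M a Y w1 w2 z0 ρ r j k') {s : ℕ} (hs : s ∈ Z)
    (hj : W ^ 46 ≤ (2:ℝ) ^ j) :
    ∃ ζ : ℝ, (ζ = 0 ∨ ζ = 1) ∧
      Y ≤ W ^ 36 * max
        (|dt (S.e 0) (gr S z0 ρ (L s) ζ) * dt (S.e 1) (gr S' z0 ρ (L s) ζ) -
          dt (S.e 0) (gr S' z0 ρ (L s) ζ) * dt (S.e 1) (gr S z0 ρ (L s) ζ)| * (w1 / 2 ^ j))
        (|dt (S.e 0) (gr S z0 ρ (L s) ζ) * dt (S.e 2) (gr S' z0 ρ (L s) ζ) -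
          dt (S.e 0) (gr S' z0 ρ (L s) ζ) * dt (S.e 2) (gr S z0 ρ (L s) ζ)| * w2) := by
  have hW := H.W2
  have hW0 : 0 < W := by linarith
  have hW1 : 1 ≤ W := by linarith
  have hY : 0 < Y := H.a0.trans_le H.aY
  have hw2 : 0 < w2 := hY.trans_le H.Yw
  have hw1 : 0 < w1 := hw2.trans_le H.ww
  have hS := H.shS
  have hS' := H.shS'
  have hT := H.inS s hs
  have hT' := H.inS' s hs
  have hr := H.r0
  have hρ := H.ρ0
  have u0 : 0 < S.w 0 := (hr.trans_le hS.r0_le).trans_le hS.a_le0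
  have u2 : 0 < S.w 2 := u0.trans_le hS.w0_le
  have u1 : 0 < S.w 1 := u2.trans_le hS.w_le
  have u0' : 0 < S'.w 0 := (hr.trans_le hS'.r0_le).trans_le hS'.a_le0
  have u2' : 0 < S'.w 2 := u0'.trans_le hS'.w0_le
  have u1' : 0 < S'.w 1 := u2'.trans_le hS'.w_le
  have hlw : (2:ℝ) ^ j * w2 ≤ 2 * w1 := Dy.hlw H.dy H.hF.ortho H.hG.ortho hY H.Yw H.ww
  have p1 : W ^ 1 ≤ W ^ 4 := pow_le_pow_right₀ hW1 (by norm_num)
  have p2 : W ^ 2 ≤ W ^ 4 := pow_le_pow_right₀ hW1 (by norm_num)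
  -- sizes
  have sz : ∀ (U : Plk4), Shp U z0 ρ r → InP (L s) U z0 ρ → Near W w1 (U.w 1) →
      Near W w2 (U.w 2) → ∀ ζ : ℝ, ζ = 0 ∨ ζ = 1 → 1 / 2 ≤ dt (U.e 0) (gr U z0 ρ (L s) ζ) ∧
        |dt (U.e 1) (gr U z0 ρ (L s) ζ)| * w1 ≤ W ^ 4 * w2 ∧
        |dt (U.e 2) (gr U z0 ρ (L s) ζ)| ≤ W ^ 4 := by
    intro U hU hTU n1 n2 ζ hζ
    obtain ⟨q1, -, q3, q4⟩ := gr_le hr hρ hU hTU hζ
    have v0 : 0 < U.w 0 := (hr.trans_le hU.r0_le).trans_le hU.a_le0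
    have v2 : 0 < U.w 2 := v0.trans_le hU.w0_le
    refine ⟨q1, ?_, ?_⟩
    · calc |dt (U.e 1) (gr U z0 ρ (L s) ζ)| * w1 ≤
          |dt (U.e 1) (gr U z0 ρ (L s) ζ)| * (W * U.w 1) :=
            mul_le_mul_of_nonneg_left n1.1 (abs_nonneg _)
        _ = W * (|dt (U.e 1) (gr U z0 ρ (L s) ζ)| * U.w 1) := by ring
        _ ≤ W * U.w 0 := mul_le_mul_of_nonneg_left q3 hW0.le
        _ ≤ W * (W * w2) := mul_le_mul_of_nonneg_left (hU.w0_le.trans n2.2) hW0.le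
        _ = W ^ 2 * w2 := by ring
        _ ≤ W ^ 4 * w2 := mul_le_mul_of_nonneg_right p2 hw2.le
    · have h1 : |dt (U.e 2) (gr U z0 ρ (L s) ζ)| * U.w 2 ≤ 1 * U.w 2 := by
        rw [one_mul]; exact q4.trans hU.w0_le
      have h2 := le_of_mul_le_mul_right h1 v2
      have h3 : (1:ℝ) ≤ W ^ 4 := one_le_pow₀ hW1
      linarith
  -- upper bounds of the rotations
  have ru : ∀ (U : Plk4), Shp U z0 ρ r → InP (L s) U z0 ρ → Near W w1 (U.w 1) →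
      Near W w2 (U.w 2) → kp U z0 ρ (L s) ≤ 4 * Y → 
      |dt (U.e 1) (gr U z0 ρ (L s) 1) / dt (U.e 0) (gr U z0 ρ (L s) 1) -
        dt (U.e 1) (gr U z0 ρ (L s) 0) / dt (U.e 0) (gr U z0 ρ (L s) 0)| * w1 ≤ 2 * W ^ 4 * Y ∧
      |dt (U.e 2) (gr U z0 ρ (L s) 1) / dt (U.e 0) (gr U z0 ρ (L s) 1) -
        dt (U.e 2) (gr U z0 ρ (L s) 0) / dt (U.e 0) (gr U z0 ρ (L s) 0)| * w2 ≤ 2 * W ^ 4 * Y := by
    intro U hU hTU n1 n2 hk
    have a1 := gr_rot_le hr hρ hU hTU (k := 1) (Or.inl rfl)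
    have a2 := gr_rot_le hr hρ hU hTU (k := 2) (Or.inr rfl)
    have h8 : 8 * W ≤ 2 * W ^ 4 := by
      have : (2:ℝ) ^ 3 ≤ W ^ 3 := pow_le_pow_left₀ (by norm_num) hW 3
      have h : W ^ 4 = W ^ 3 * W := by ring
      nlinarith
    constructor
    · calc _ ≤ |dt (U.e 1) (gr U z0 ρ (L s) 1) / dt (U.e 0) (gr U z0 ρ (L s) 1) -
            dt (U.e 1) (gr U z0 ρ (L s) 0) / dt (U.e 0) (gr U z0 ρ (L s) 0)| * (W * U.w 1) :=
              mul_le_mul_of_nonneg_left n1.1 (abs_nonneg _)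
        _ = W * (|dt (U.e 1) (gr U z0 ρ (L s) 1) / dt (U.e 0) (gr U z0 ρ (L s) 1) -
            dt (U.e 1) (gr U z0 ρ (L s) 0) / dt (U.e 0) (gr U z0 ρ (L s) 0)| * U.w 1) := by ring
        _ ≤ W * (2 * (4 * Y)) := mul_le_mul_of_nonneg_left (by linarith) hW0.le
        _ = 8 * W * Y := by ring
        _ ≤ _ := mul_le_mul_of_nonneg_right h8 hY.le
    · calc _ ≤ |dt (U.e 2) (gr U z0 ρ (L s) 1) / dt (U.e 0) (gr U z0 ρ (L s) 1) -
            dt (U.e 2) (gr U z0 ρ (L s) 0) / dt (U.e 0) (gr U z0 ρ (L s) 0)| * (W * U.w 2) :=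
              mul_le_mul_of_nonneg_left n2.1 (abs_nonneg _)
        _ = W * (|dt (U.e 2) (gr U z0 ρ (L s) 1) / dt (U.e 0) (gr U z0 ρ (L s) 1) -
            dt (U.e 2) (gr U z0 ρ (L s) 0) / dt (U.e 0) (gr U z0 ρ (L s) 0)| * U.w 2) := by ring
        _ ≤ W * (2 * (4 * Y)) := mul_le_mul_of_nonneg_left (by linarith) hW0.le
        _ = 8 * W * Y := by ring
        _ ≤ _ := mul_le_mul_of_nonneg_right h8 hY.le
  obtain ⟨r1, r2⟩ := ru S hS hT H.d1 H.d2 (H.near s hs).2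
  obtain ⟨r1', r2'⟩ := ru S' hS' hT' H.d1' H.d2' ((H.le s hs).trans (H.near s hs).2)
  -- powers
  have big : (2:ℝ) ^ 18 ≤ W ^ 18 := pow_le_pow_left₀ (by norm_num) hW 18
  have big' : (2:ℝ) ^ 16 ≤ W ^ 16 := pow_le_pow_left₀ (by norm_num) hW 16
  have hΛ : 192000 * (W ^ 4) ^ 7 ≤ (2:ℝ) ^ j := by
    refine le_trans ?_ hj
    calc 192000 * (W ^ 4) ^ 7 ≤ W ^ 18 * (W ^ 4) ^ 7 :=
          mul_le_mul_of_nonneg_right (by norm_num at big; linarith) (by positivity)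
      _ = W ^ 46 := by ring
  have hε : 64000 * (W ^ 4) ^ 5 * (1 / W ^ 36) ≤ 1 := by
    rw [mul_one_div, div_le_one (by positivity)]
    calc 64000 * (W ^ 4) ^ 5 ≤ W ^ 16 * (W ^ 4) ^ 5 :=
          mul_le_mul_of_nonneg_right (by norm_num at big'; linarith) (by positivity)
      _ = W ^ 36 := by ring
  have hj3 : 32 * W ^ 3 ≤ (2:ℝ) ^ j := by
    refine le_trans ?_ hj
    calc 32 * W ^ 3 ≤ W ^ 18 * W ^ 3 :=
          mul_le_mul_of_nonneg_right (by norm_num at big; linarith) (by positivity)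
      _ = W ^ 21 := by ring
      _ ≤ W ^ 46 := pow_le_pow_right₀ hW1 (by norm_num)
  -- the sheet `S` is narrow
  have nar : W * S.w 2 ≤ S.w 1 := by
    have h1 : (2:ℝ) ^ j * S.w 2 ≤ 2 * W ^ 2 * S.w 1 := by
      calc (2:ℝ) ^ j * S.w 2 ≤ 2 ^ j * (W * w2) := mul_le_mul_of_nonneg_left H.d2.2 (by positivity)
        _ = W * (2 ^ j * w2) := by ring
        _ ≤ W * (2 * w1) := mul_le_mul_of_nonneg_left hlw hW0.le
        _ = 2 * W * w1 := by ring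
        _ ≤ 2 * W * (W * S.w 1) := mul_le_mul_of_nonneg_left H.d1.1 (by positivity)
        _ = _ := by ring
    have h2 : 32 * W ^ 3 * S.w 2 ≤ 2 * W ^ 2 * S.w 1 :=
      (mul_le_mul_of_nonneg_right hj3 u2.le).trans h1
    have h3 : 2 * W ^ 2 * (16 * (W * S.w 2)) ≤ 2 * W ^ 2 * S.w 1 := by
      calc 2 * W ^ 2 * (16 * (W * S.w 2)) = 32 * W ^ 3 * S.w 2 := by ring
        _ ≤ _ := h2
    have h4 := le_of_mul_le_mul_left h3 (by positivity)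
    have h5 : 0 < W * S.w 2 := mul_pos hW0 u2
    linarith
  have hβ : Y ≤ 2 * W ^ 4 * (|dt (S.e 2) (gr S z0 ρ (L s) 1) / dt (S.e 0) (gr S z0 ρ (L s) 1) -
      dt (S.e 2) (gr S z0 ρ (L s) 0) / dt (S.e 0) (gr S z0 ρ (L s) 0)| * w2) := by
    have h1 := le_gr_rot hr hρ hS hT hW0 (H.rot s hs nar)
    set x := |dt (S.e 2) (gr S z0 ρ (L s) 1) / dt (S.e 0) (gr S z0 ρ (L s) 1) -
      dt (S.e 2) (gr S z0 ρ (L s) 0) / dt (S.e 0) (gr S z0 ρ (L s) 0)| with hx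
    have hx0 : 0 ≤ x := abs_nonneg _
    calc Y ≤ 4 * kp S z0 ρ (L s) := (H.near s hs).1
      _ ≤ 4 * (2 * W * (x * S.w 2)) := by linarith
      _ ≤ 4 * (2 * W * (x * (W * w2))) := by
        have := H.d2.2
        gcongr
      _ = 2 * (4 * W ^ 2) * (x * w2) := by ring
      _ ≤ 2 * W ^ 4 * (x * w2) := by
        have h4 : (2:ℝ) ^ 2 ≤ W ^ 2 := pow_le_pow_left₀ (by norm_num) hW 2
        have h5 : 4 * W ^ 2 ≤ W ^ 4 := by
          calc 4 * W ^ 2 ≤ W ^ 2 * W ^ 2 :=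
                mul_le_mul_of_nonneg_right (by norm_num at h4; linarith) (by positivity)
            _ = W ^ 4 := by ring
        have h6 : 0 ≤ x * w2 := by positivity
        exact mul_le_mul_of_nonneg_right (by linarith) h6
  -- tilt
  obtain ⟨t1, -⟩ := Tpl706.tilt_plank hw1 hw2 hW1 H.hF H.hG H.d1 H.d2 H.d1' H.d2' hS.ortho
    hS'.ortho H.dy
  have t2 := t1 hj3
  have h4W : 8 ≤ 2 * W ^ 4 := by
    have : (2:ℝ) ^ 4 ≤ W ^ 4 := pow_le_pow_left₀ (by norm_num) hW 4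
    norm_num at this; linarith
  have ht : (2:ℝ) ^ j * w2 ≤ 2 * W ^ 4 * (|dt (S.e 1) (S'.e 0)| * w1) ∨
      (2:ℝ) ^ j * w2 ≤ 2 * W ^ 4 * (|dt (S.e 1) (S'.e 2)| * w1) := by
    rcases max_choice |dt (S.e 1) (S'.e 0)| |dt (S.e 1) (S'.e 2)| with h | h
    · left
      rw [h] at t2
      refine t2.trans ?_
      rw [mul_comm w1]
      exact mul_le_mul_of_nonneg_right h4W (by positivity)
    · right
      rw [h] at t2
      refine t2.trans ?_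
      rw [mul_comm w1]
      exact mul_le_mul_of_nonneg_right h4W (by positivity)
  have hYv : Y ≤ W ^ 4 * w2 := H.Yw.trans (le_mul_of_one_le_left hw2.le (one_le_pow₀ hW1))
  obtain ⟨ζ, hζ, h⟩ := strip_z (N := gr S z0 ρ (L s)) (N' := gr S' z0 ρ (L s)) (ε := 1 / W ^ 36)
    (K := W ^ 4) (Λ := 2 ^ j) (Y := Y) (v1 := w1) (v2 := w2) hS.ortho hS'.ortho
    (one_le_pow₀ hW1) hΛ hY hw2 hlw hYv (by positivity) hε (sz S hS hT H.d1 H.d2)
    (sz S' hS' hT' H.d1' H.d2') r1 hβ r1' r2' ht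
  refine ⟨ζ, hζ, ?_⟩
  rw [one_div, inv_mul_le_iff₀ (by positivity)] at h
  rw [← mul_div_assoc]
  exact h

end Crest.Agent.R136.Mlr723
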