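import Crest.Agent.R136.Hl4_706

/-!
# R136 (S0187), PLAN 2, leaf (B4), (H1) GRADIENT, case `Λ` large (helper89)

`n(ζ) = n0 + ζ n1` gradient of the more curved sheet along the line, `n'` gradient of the other sheet.
`tilt_rot` : if `n` rotates (`D`), then at one of two separated heights the restriction of `n'` to the
tangent plane of `S` is large.
-/

set_option autoImplicit false
set_option linter.unusedVariables false

namespace Crest.Agent.R136.Mlt89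

open Crest.Agent.R136.Sh605 Crest.Agent.R136.Fl808 Crest.Agent.R136.Hl706

theorem key_id {f : Fin 3 → V3} (hf : Ortho f) (n n' x : V3) :
    dt (f 0) n * dt n' x = dt (f 0) n' * dt n x +
      (dt (f 0) n * dt (f 1) n' - dt (f 0) n' * dt (f 1) n) * dt (f 1) x +
      (dt (f 0) n * dt (f 2) n' - dt (f 0) n' * dt (f 2) n) * dt (f 2) x := by
  rw [dt_expand hf n' x, dt_expand hf n x, dt_comm n' (f 0), dt_comm n' (f 1), dt_comm n' (f 2),
    dt_comm n (f 0), dt_comm n (f 1), dt_comm n (f 2)]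
  ring

/-- one height: if `n'` is nearly proportional to `n` on the strip, then `n` is nearly perpendicular
to the long axis of `S'` -/
theorem one_height {f g : Fin 3 → V3} (hf : Ortho f) (hg : Ortho g) {Y w1 w2 : ℝ} {j k' : ℕ}
    (H : Dy f g Y w1 w2 j k') (hY : 0 < Y) (hYw : Y ≤ w2) (hw : w2 ≤ w1) {n n' : V3} {K ε : ℝ}
    (hK : 1 ≤ K) (a0 : |dt (f 0) n| ≤ K) (a0' : 1 ≤ K * |dt (f 0) n|)
    (a1 : |dt (f 1) n| * w1 ≤ K * Y) (a2 : |dt (f 2) n| * w2 ≤ K * Y)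
    (b0 : 1 ≤ K * |dt (g 0) n'|) (b1 : |dt (g 1) n'| * w1 ≤ K * Y) (hε : 0 ≤ ε)
    (hε' : 6 * K ^ 2 * ε ≤ w2)
    (e1 : |dt (f 0) n * dt (f 1) n' - dt (f 0) n' * dt (f 1) n| * w1 ≤ ε * 2 ^ j)
    (e2 : |dt (f 0) n * dt (f 2) n' - dt (f 0) n' * dt (f 2) n| * w2 ≤ ε) :
    |dt (f 0) n * dt (f 0) (g 1) + dt (f 2) n * dt (f 2) (g 1)| * w1 ≤
      18 * K ^ 5 * (Y + ε * 2 ^ j) := by
  have hw2 : 0 < w2 := hY.trans_le hYw
  have hw1 : 0 < w1 := hw2.trans_le hw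
  have hK0 : 0 < K := by linarith
  have hj0 : (0:ℝ) < 2 ^ j := by positivity
  have hlw := H.hlw hf hg hY hYw hw
  set p1 := dt (f 0) n * dt (f 1) n' - dt (f 0) n' * dt (f 1) n with hp1
  set p2 := dt (f 0) n * dt (f 2) n' - dt (f 0) n' * dt (f 2) n with hp2
  -- bounds of the determinants
  have q1 : |p1| * w2 ≤ 2 * ε := by
    have h1 : (|p1| * w2) * w1 ≤ (2 * ε) * w1 := by
      calc (|p1| * w2) * w1 = (|p1| * w1) * w2 := by ring
        _ ≤ (ε * 2 ^ j) * w2 := by gcongr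
        _ = ε * (2 ^ j * w2) := by ring
        _ ≤ ε * (2 * w1) := by gcongr
        _ = _ := by ring
    exact le_of_mul_le_mul_right h1 hw1
  have n1 : |dt (f 1) n| ≤ K := by
    have h1 : |dt (f 1) n| * w1 ≤ K * w1 := a1.trans (by nlinarith)
    exact le_of_mul_le_mul_right h1 hw1
  have n2 : |dt (f 2) n| ≤ K := by
    have h1 : |dt (f 2) n| * w2 ≤ K * w2 := a2.trans (by nlinarith)
    exact le_of_mul_le_mul_right h1 hw2
  -- `n'` is transversal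
  have ng : |dt n (g 0)| ≤ 3 * K := by
    have h := comp_le hf n (x := g 0) (abs_dt_le_one hg hf 0 0) (abs_dt_le_one hg hf 1 0)
      (abs_dt_le_one hg hf 2 0)
    rw [dt_comm n (f 0), dt_comm n (f 1), dt_comm n (f 2)] at h
    linarith
  have t0 : 1 ≤ 6 * K ^ 3 * |dt (f 0) n'| := by
    have h := key_id hf n n' (g 0)
    rw [← hp1, ← hp2] at h
    have h1 : |dt (f 0) n| * |dt n' (g 0)| ≤ |dt (f 0) n'| * (3 * K) + |p1| + |p2| := by
      rw [← abs_mul, h]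
      refine (abs_add_le _ _).trans (add_le_add ((abs_add_le _ _).trans (add_le_add ?_ ?_)) ?_)
      · rw [abs_mul]; gcongr
      · rw [abs_mul]
        have := abs_dt_le_one hg hf 1 0
        have h0 := abs_nonneg p1
        nlinarith
      · rw [abs_mul]
        have := abs_dt_le_one hg hf 2 0
        have h0 := abs_nonneg p2
        nlinarith
    have h2 : (1:ℝ) ≤ K ^ 2 * (|dt (f 0) n| * |dt n' (g 0)|) := by
      rw [dt_comm n' (g 0)]
      calc (1:ℝ) ≤ (K * |dt (f 0) n|) * (K * |dt (g 0) n'|) := by nlinarith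
        _ = _ := by ring
    have h3 : K ^ 2 * (|p1| + |p2|) ≤ 1 / 2 := by
      have h4 : (K ^ 2 * (|p1| + |p2|)) * w2 ≤ 1 / 2 * w2 := by
        calc (K ^ 2 * (|p1| + |p2|)) * w2 = K ^ 2 * (|p1| * w2 + |p2| * w2) := by ring
          _ ≤ K ^ 2 * (2 * ε + ε) := by gcongr
          _ ≤ _ := by linarith
      exact le_of_mul_le_mul_right h4 hw2
    have h5 : K ^ 2 * (|dt (f 0) n| * |dt n' (g 0)|) ≤
        K ^ 2 * (|dt (f 0) n'| * (3 * K) + |p1| + |p2|) := by gcongr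
    have h6 : K ^ 2 * (|dt (f 0) n'| * (3 * K) + |p1| + |p2|) =
        3 * K ^ 3 * |dt (f 0) n'| + K ^ 2 * (|p1| + |p2|) := by ring
    linarith
  -- the long axis of `S'`
  have hg1 : |dt (f 0) n'| * |dt n (g 1)| * w1 ≤ K ^ 2 * Y + 3 * (ε * 2 ^ j) := by
    have h := key_id hf n n' (g 1)
    rw [← hp1, ← hp2] at h
    have h0 : dt (f 0) n' * dt n (g 1) = dt (f 0) n * dt n' (g 1) - p1 * dt (f 1) (g 1) -
        p2 * dt (f 2) (g 1) := by linarith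
    have h1 : |dt (f 0) n'| * |dt n (g 1)| ≤ |dt (f 0) n| * |dt n' (g 1)| +
        |p1| * |dt (f 1) (g 1)| + |p2| * |dt (f 2) (g 1)| := by
      rw [← abs_mul, h0]
      refine (abs_sub _ _).trans (add_le_add ((abs_sub _ _).trans (add_le_add ?_ ?_)) ?_)
      · rw [abs_mul]
      · rw [abs_mul]
      · rw [abs_mul]
    have c1 : |dt (f 0) n| * |dt n' (g 1)| * w1 ≤ K ^ 2 * Y := by
      rw [dt_comm n' (g 1)]
      calc |dt (f 0) n| * |dt (g 1) n'| * w1 = |dt (f 0) n| * (|dt (g 1) n'| * w1) := by ring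
        _ ≤ K * (K * Y) := by gcongr
        _ = _ := by ring
    have c2 : |p1| * |dt (f 1) (g 1)| * w1 ≤ ε * 2 ^ j := by
      have := abs_dt_le_one hg hf 1 1
      calc |p1| * |dt (f 1) (g 1)| * w1 ≤ |p1| * 1 * w1 := by gcongr
        _ = |p1| * w1 := by ring
        _ ≤ _ := e1
    have c3 : |p2| * |dt (f 2) (g 1)| * w1 ≤ 2 * (ε * 2 ^ j) := by
      have b := H.b12 hf hg hY hYw hw
      rw [dt_comm] at b
      have h3 : (|p2| * |dt (f 2) (g 1)| * w1) * w2 ≤ (2 * (ε * 2 ^ j)) * w2 := by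
        calc (|p2| * |dt (f 2) (g 1)| * w1) * w2 = (|p2| * w2) * (|dt (f 2) (g 1)| * w1) := by ring
          _ ≤ ε * (2 * (2 ^ j * w2)) := by gcongr
          _ = _ := by ring
      exact le_of_mul_le_mul_right h3 hw2
    calc |dt (f 0) n'| * |dt n (g 1)| * w1 ≤ (|dt (f 0) n| * |dt n' (g 1)| +
        |p1| * |dt (f 1) (g 1)| + |p2| * |dt (f 2) (g 1)|) * w1 := by gcongr
      _ = |dt (f 0) n| * |dt n' (g 1)| * w1 + |p1| * |dt (f 1) (g 1)| * w1 +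
        |p2| * |dt (f 2) (g 1)| * w1 := by ring
      _ ≤ _ := by linarith
  have hg2 : |dt n (g 1)| * w1 ≤ 6 * K ^ 3 * (K ^ 2 * Y + 3 * (ε * 2 ^ j)) := by
    have hx : 0 ≤ |dt n (g 1)| * w1 := by positivity
    calc |dt n (g 1)| * w1 = 1 * (|dt n (g 1)| * w1) := by ring
      _ ≤ (6 * K ^ 3 * |dt (f 0) n'|) * (|dt n (g 1)| * w1) := by gcongr
      _ = 6 * K ^ 3 * (|dt (f 0) n'| * |dt n (g 1)| * w1) := by ring
      _ ≤ _ := by gcongr
  have hfin : dt (f 0) n * dt (f 0) (g 1) + dt (f 2) n * dt (f 2) (g 1) =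
      dt n (g 1) - dt (f 1) n * dt (f 1) (g 1) := by
    rw [dt_expand hf n (g 1), dt_comm n (f 0), dt_comm n (f 1), dt_comm n (f 2)]; ring
  rw [hfin]
  have c4 : |dt (f 1) n * dt (f 1) (g 1)| * w1 ≤ K * Y := by
    rw [abs_mul]
    have := abs_dt_le_one hg hf 1 1
    calc |dt (f 1) n| * |dt (f 1) (g 1)| * w1 ≤ |dt (f 1) n| * 1 * w1 := by gcongr
      _ = |dt (f 1) n| * w1 := by ring
      _ ≤ _ := a1
  have c5 : |dt n (g 1) - dt (f 1) n * dt (f 1) (g 1)| * w1 ≤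
      |dt n (g 1)| * w1 + |dt (f 1) n * dt (f 1) (g 1)| * w1 := by
    rw [← add_mul]
    exact mul_le_mul_of_nonneg_right (abs_sub _ _) hw1.le
  have k3 : K ^ 3 ≤ K ^ 5 := pow_le_pow_right₀ hK (by norm_num)
  have k1 : K ≤ K ^ 5 := by
    calc K = K ^ 1 := (pow_one K).symm
      _ ≤ K ^ 5 := pow_le_pow_right₀ hK (by norm_num)
  have hE : 0 ≤ ε * 2 ^ j := by positivity
  have d1 : K * Y ≤ K ^ 5 * Y := by gcongr
  have d2 : 18 * K ^ 3 * (ε * 2 ^ j) ≤ 18 * K ^ 5 * (ε * 2 ^ j) := by gcongr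
  have d3 : 0 ≤ K ^ 5 * Y := by positivity
  have d4 : 6 * K ^ 3 * (K ^ 2 * Y + 3 * (ε * 2 ^ j)) =
      6 * (K ^ 5 * Y) + 18 * K ^ 3 * (ε * 2 ^ j) := by ring
  have d5 : 18 * K ^ 5 * (Y + ε * 2 ^ j) = 18 * (K ^ 5 * Y) + 18 * K ^ 5 * (ε * 2 ^ j) := by ring
  linarith

/-- **(H1), `Λ` large.** At one of two `θ`-separated heights the gradient `n'` of the second sheet,
restricted to the tangent plane of the first one, is at least `θ Y / (300 K^7)` in strip units. -/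
theorem tilt_rot {f g : Fin 3 → V3} (hf : Ortho f) (hg : Ortho g) {Y w1 w2 : ℝ} {j k' : ℕ}
    (H : Dy f g Y w1 w2 j k') (hj : 1 ≤ j) (hY : 0 < Y) (hYw : Y ≤ w2) (hw : w2 ≤ w1)
    {n0 n1 n m n' m' : V3} {K θ ζ ζ' : ℝ} (hn : n = n0 + ζ • n1) (hm : m = n0 + ζ' • n1)
    (hK : 1 ≤ K) (hθ : 0 < θ) (hθ1 : θ ≤ 1) (hζ : θ ≤ |ζ - ζ'|)
    (a0 : |dt (f 0) n| ≤ K) (a0' : 1 ≤ K * |dt (f 0) n|)
    (a1 : |dt (f 1) n| * w1 ≤ K * Y) (a2 : |dt (f 2) n| * w2 ≤ K * Y)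
    (c0 : |dt (f 0) m| ≤ K) (c0' : 1 ≤ K * |dt (f 0) m|)
    (c1 : |dt (f 1) m| * w1 ≤ K * Y) (c2 : |dt (f 2) m| * w2 ≤ K * Y)
    (b0 : 1 ≤ K * |dt (g 0) n'|) (b1 : |dt (g 1) n'| * w1 ≤ K * Y)
    (d0 : 1 ≤ K * |dt (g 0) m'|) (d1 : |dt (g 1) m'| * w1 ≤ K * Y)
    (hD : Y ≤ K * (|dt (f 0) n0 * dt (f 2) n1 - dt (f 2) n0 * dt (f 0) n1| * w2))
    (hΛ : 300 * K ^ 7 ≤ θ * 2 ^ j) :
    θ * Y ≤ 300 * K ^ 7 * max
        (|dt (f 0) n * dt (f 1) n' - dt (f 0) n' * dt (f 1) n| * w1 / 2 ^ j)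
        (|dt (f 0) n * dt (f 2) n' - dt (f 0) n' * dt (f 2) n| * w2) ∨
      θ * Y ≤ 300 * K ^ 7 * max
        (|dt (f 0) m * dt (f 1) m' - dt (f 0) m' * dt (f 1) m| * w1 / 2 ^ j)
        (|dt (f 0) m * dt (f 2) m' - dt (f 0) m' * dt (f 2) m| * w2) := by
  have hw2 : 0 < w2 := hY.trans_le hYw
  have hw1 : 0 < w1 := hw2.trans_le hw
  have hK0 : 0 < K := by linarith
  have hj0 : (0:ℝ) < 2 ^ j := by positivity
  have hK7 : 0 < K ^ 7 := by positivity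
  by_contra hc
  push Not at hc
  obtain ⟨h1, h2⟩ := hc
  set ε : ℝ := θ * Y / (300 * K ^ 7) with hε
  have hε0 : 0 ≤ ε := by rw [hε]; positivity
  have hεe : 300 * K ^ 7 * ε = θ * Y := by rw [hε]; field_simp
  have hεw : 6 * K ^ 2 * ε ≤ w2 := by
    have k2 : K ^ 2 ≤ K ^ 7 := pow_le_pow_right₀ hK (by norm_num)
    have h3 : 6 * K ^ 2 * ε ≤ 6 * K ^ 7 * ε := by gcongr
    have h4 : θ * Y ≤ 1 * w2 := by gcongr
    have h5 : 6 * K ^ 7 * ε * 50 = θ * Y := by rw [← hεe]; ring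
    have h6 : 0 ≤ 6 * K ^ 7 * ε := by positivity
    linarith
  have lt_of : ∀ x : ℝ, 300 * K ^ 7 * x < θ * Y → x ≤ ε := by
    intro x hx
    rw [← hεe] at hx
    exact (lt_of_mul_lt_mul_left hx (by positivity)).le
  have m1 := lt_of _ h1
  have m2 := lt_of _ h2
  have e1 := (le_max_left _ _).trans m1
  have e2 := (le_max_right _ _).trans m1
  have g1 := (le_max_left _ _).trans m2
  have g2 := (le_max_right _ _).trans m2
  rw [div_le_iff₀ hj0] at e1 g1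
  have A := one_height hf hg H hY hYw hw hK a0 a0' a1 a2 b0 b1 hε0 hεw e1 e2
  have B := one_height hf hg H hY hYw hw hK c0 c0' c1 c2 d0 d1 hε0 hεw g1 g2
  -- the lower bound of the tilt
  have hp : (2:ℝ) ^ j * w2 ≤ 2 * (w1 * (|dt (f 2) (g 1)| + |dt (f 0) (g 1)|)) := by
    rcases dy_SL H hf hg hw1.le with h | h
    · exfalso
      have : (2:ℝ) ≤ 2 ^ j := by
        calc (2:ℝ) = 2 ^ 1 := (pow_one 2).symm
          _ ≤ 2 ^ j := pow_le_pow_right₀ (by norm_num) hj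
      linarith
    · have := rr_le f (g 1)
      have h3 : w1 * rr f (g 1) ≤ w1 * (|dt (f 2) (g 1)| + |dt (f 0) (g 1)|) := by gcongr
      linarith
  have n2 : |dt (f 2) n| ≤ K := by
    have h1 : |dt (f 2) n| * w2 ≤ K * w2 := a2.trans (by nlinarith)
    exact le_of_mul_le_mul_right h1 hw2
  have m2' : |dt (f 2) m| ≤ K := by
    have h1 : |dt (f 2) m| * w2 ≤ K * w2 := c2.trans (by nlinarith)
    exact le_of_mul_le_mul_right h1 hw2
  set D := dt (f 0) n0 * dt (f 2) n1 - dt (f 2) n0 * dt (f 0) n1 with hDd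
  set a := dt (f 0) n * dt (f 0) (g 1) + dt (f 2) n * dt (f 2) (g 1) with ha
  set b := dt (f 0) m * dt (f 0) (g 1) + dt (f 2) m * dt (f 2) (g 1) with hb
  set D' := dt (f 0) n * dt (f 2) m - dt (f 2) n * dt (f 0) m with hD'
  have hDD : D' = (ζ' - ζ) * D := by
    rw [hD', hDd, hn, hm]
    simp only [dt, Pi.add_apply, Pi.smul_apply, smul_eq_mul]
    ring
  have i2 : |D'| * |dt (f 2) (g 1)| ≤ K * |b| + K * |a| := by
    have : D' * dt (f 2) (g 1) = dt (f 0) n * b - dt (f 0) m * a := by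
      rw [hD', ha, hb]; ring
    rw [← abs_mul, this]
    refine (abs_sub _ _).trans (add_le_add ?_ ?_)
    · rw [abs_mul]; gcongr
    · rw [abs_mul]; gcongr
  have i0 : |D'| * |dt (f 0) (g 1)| ≤ K * |b| + K * |a| := by
    have : D' * dt (f 0) (g 1) = dt (f 2) m * a - dt (f 2) n * b := by
      rw [hD', ha, hb]; ring
    rw [← abs_mul, this]
    refine (abs_sub _ _).trans ?_
    rw [abs_mul, abs_mul]
    have x1 : |dt (f 2) m| * |a| ≤ K * |a| := by gcongr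
    have x2 : |dt (f 2) n| * |b| ≤ K * |b| := by gcongr
    linarith
  have F : |D'| * (2 ^ j * w2) ≤ 144 * K ^ 6 * (Y + ε * 2 ^ j) := by
    calc |D'| * (2 ^ j * w2) ≤ |D'| * (2 * (w1 * (|dt (f 2) (g 1)| + |dt (f 0) (g 1)|))) := by
          gcongr
      _ = 2 * w1 * (|D'| * |dt (f 2) (g 1)| + |D'| * |dt (f 0) (g 1)|) := by ring
      _ ≤ 2 * w1 * ((K * |b| + K * |a|) + (K * |b| + K * |a|)) := by gcongr
      _ = 4 * K * (|a| * w1) + 4 * K * (|b| * w1) := by ring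
      _ ≤ 4 * K * (18 * K ^ 5 * (Y + ε * 2 ^ j)) + 4 * K * (18 * K ^ 5 * (Y + ε * 2 ^ j)) := by
          gcongr
      _ = _ := by ring
  have G : θ * Y * 2 ^ j ≤ 144 * K ^ 7 * (Y + ε * 2 ^ j) := by
    have x1 : θ * Y ≤ |D'| * (K * w2) := by
      calc θ * Y ≤ |ζ - ζ'| * (K * (|D| * w2)) := by gcongr
        _ = |D'| * (K * w2) := by
          rw [hDD, abs_mul, abs_sub_comm ζ' ζ]; ring
    calc θ * Y * 2 ^ j ≤ |D'| * (K * w2) * 2 ^ j := by gcongr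
      _ = K * (|D'| * (2 ^ j * w2)) := by ring
      _ ≤ K * (144 * K ^ 6 * (Y + ε * 2 ^ j)) := by gcongr
      _ = _ := by ring
  have G1 : 300 * K ^ 7 * Y ≤ θ * Y * 2 ^ j := by
    calc 300 * K ^ 7 * Y ≤ (θ * 2 ^ j) * Y := by gcongr
      _ = _ := by ring
  have G2 : 300 * K ^ 7 * (ε * 2 ^ j) = θ * Y * 2 ^ j := by
    rw [← hεe]; ring
  have G3 : 144 * K ^ 7 * (Y + ε * 2 ^ j) =
      144 / 300 * (300 * K ^ 7 * Y) + 144 / 300 * (300 * K ^ 7 * (ε * 2 ^ j)) := by ring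
  have G4 : 0 < θ * Y * 2 ^ j := by positivity
  rw [G3, G2] at G
  linarith

end Crest.Agent.R136.Mlt89
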