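import Crest.Agent.R136.Mlr_723
import Crest.Agent.R136.Mlo3_777

/-!
# R136 (S0187), PLAN 2, B4: lower bound of the gradient of a tilted pair (helper723)

`mlow` : `mlow_j` (large base tilt) and `Mlo777.mlow_k` (large thickness tilt) together.
-/

set_option autoImplicit false
set_option linter.unusedVariables false

open Finset

namespace Crest.Agent.R136.Mlw723

open Crest.Agent.R136.Sh605 Crest.Agent.R136.Fl808
open Crest.Agent.R136.K4 (Plk4)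
open Crest.Agent.R136.KapP335 (expP)
open Crest.Agent.R136.Pl2
open Crest.Agent.R136.Mlt89 (cv)
open Crest.Agent.R136.Shd410 (ShD)

/-- **M bound** at one line of a tilted pair -/
theorem mlow_at {K : ℝ} {qm qp : Fin 3 → ℝ} {L : ℕ → Ln4} {Z : Finset ℕ} {S S' : Plk4}
    {f g : Fin 3 → V3} {W M a Y w1 w2 z0 ρ r : ℝ} {j k' : ℕ} (hK : 131 ≤ K)
    (H : ShD K qm qp L Z S S' f g W M a Y w1 w2 z0 ρ r j k') {s : ℕ} (hs : s ∈ Z) :
    ∃ ζ : ℝ, (ζ = 0 ∨ ζ = 1) ∧ ∀ n n' : V3,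
      n = cv S.e S.w (fun k => (expP S z0 ρ (L s)).1 k + ζ * (expP S z0 ρ (L s)).2.1 k) →
      n' = cv S'.e S'.w (fun k => (expP S' z0 ρ (L s)).1 k + ζ * (expP S' z0 ρ (L s)).2.1 k) →
      2 ^ k' * Y ≤ W ^ 121 * max
        (|dt (S.e 0) n * dt (S.e 1) n' - dt (S.e 0) n' * dt (S.e 1) n| * (w1 / 2 ^ j))
        (|dt (S.e 0) n * dt (S.e 2) n' - dt (S.e 0) n' * dt (S.e 2) n| * w2) := by
  have hW := H.W2
  have hW0 : 0 < W := by linarith
  have hW1 : 1 ≤ W := by linarith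
  have hY : 0 < Y := H.a0.trans_le H.aY
  have hw2 : 0 < w2 := hY.trans_le H.Yw
  have hw1 : 0 < w1 := hw2.trans_le H.ww
  by_cases hk : W ^ 85 ≤ (2:ℝ) ^ k'
  · refine ⟨0, Or.inl rfl, fun n n' hn hn' => ?_⟩
    refine (Mlo777.mlow_k H hk hs le_rfl zero_le_one hn hn').trans ?_
    refine mul_le_mul_of_nonneg_right (pow_le_pow_right₀ hW1 (by norm_num)) ?_
    exact le_max_of_le_right (by positivity)
  · push Not at hk
    have h1 : W ^ 131 ≤ (2:ℝ) ^ j * 2 ^ k' := by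
      refine le_trans ?_ H.thr
      rw [← Real.rpow_natCast]
      exact Real.rpow_le_rpow_of_exponent_le hW1 (by exact_mod_cast hK)
    have hj : W ^ 46 ≤ (2:ℝ) ^ j := by
      have h2 : W ^ 46 * W ^ 85 ≤ 2 ^ j * W ^ 85 := by
        calc W ^ 46 * W ^ 85 = W ^ 131 := by ring
          _ ≤ 2 ^ j * 2 ^ k' := h1
          _ ≤ _ := mul_le_mul_of_nonneg_left hk.le (by positivity)
      exact le_of_mul_le_mul_right h2 (by positivity)
    obtain ⟨ζ, hζ, h⟩ := Mlr723.mlow_j H hs hj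
    refine ⟨ζ, hζ, fun n n' hn hn' => ?_⟩
    subst hn hn'
    unfold Mlr723.gr at h
    refine (mul_le_mul hk.le h hY.le (by positivity)).trans_eq ?_
    ring

/-- **M bound**, with real exponents -/
theorem mlow : ∃ K c : ℝ, 0 ≤ K ∧ 0 ≤ c ∧
    ∀ (qm qp : Fin 3 → ℝ) (L : ℕ → Ln4) (Z : Finset ℕ) (S S' : Plk4) (f g : Fin 3 → V3)
      (W M a Y w1 w2 z0 ρ r : ℝ) (j k' : ℕ),
      ShD K qm qp L Z S S' f g W M a Y w1 w2 z0 ρ r j k' → ∀ s ∈ Z,
      ∃ ζ : ℝ, (ζ = 0 ∨ ζ = 1) ∧ ∀ n n' : V3,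
        n = cv S.e S.w (fun k => (expP S z0 ρ (L s)).1 k + ζ * (expP S z0 ρ (L s)).2.1 k) →
        n' = cv S'.e S'.w (fun k => (expP S' z0 ρ (L s)).1 k + ζ * (expP S' z0 ρ (L s)).2.1 k) →
        2 ^ k' * Y ≤ W ^ c * max
          (|dt (S.e 0) n * dt (S.e 1) n' - dt (S.e 0) n' * dt (S.e 1) n| * (w1 / 2 ^ j))
          (|dt (S.e 0) n * dt (S.e 2) n' - dt (S.e 0) n' * dt (S.e 2) n| * w2) := by
  refine ⟨131, 121, by norm_num, by norm_num, ?_⟩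
  intro qm qp L Z S S' f g W M a Y w1 w2 z0 ρ r j k' H s hs
  obtain ⟨ζ, hζ, h⟩ := mlow_at le_rfl H hs
  refine ⟨ζ, hζ, fun n n' hn hn' => ?_⟩
  have e : W ^ (121:ℝ) = W ^ 121 := Real.rpow_ofNat W 121
  rw [e]
  exact h n n' hn hn'

end Crest.Agent.R136.Mlw723
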