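import Crest.Agent.R136.Mlw_723
import Crest.Agent.R136.Lkp_140

/-!
# R136 (S0187), PLAN 2, B4: `Lkp140.MLow` (helper723)
-/

set_option autoImplicit false

namespace Crest.Agent.R136.Mlx723

/-- **lower bound of the minors of a tilted pair** -/
theorem mLow : Crest.Agent.R136.Lkp140.MLow := by
  obtain ⟨K, c, hK, hc, h⟩ := Crest.Agent.R136.Mlw723.mlow
  refine ⟨K, c, hK, hc, ?_⟩
  intro qm qp L Z S S' f g W M a Y w1 w2 z0 ρ r j k' H s hs
  obtain ⟨ζ, hζ, h1⟩ := h qm qp L Z S S' f g W M a Y w1 w2 z0 ρ r j k' H s hs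
  exact ⟨ζ, hζ, h1 _ _ rfl rfl⟩

end Crest.Agent.R136.Mlx723
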