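import Crest.Agent.R136.Mlr_723
import Crest.Agent.R136.Mlo3_777
import Crest.Agent.R136.Lkp_140

/-!
# R136 (S0187), PLAN 2, leaf (B4) share: the lower bound of the minors (helper410)

Glue of 777's `mlow_k` (large thickness tilt) and 723's `mlow_j` (large base tilt).
-/

set_option autoImplicit false
set_option linter.unusedVariables false

namespace Crest.Agent.R136.Shv410

open Crest.Agent.R136.Sh605 Crest.Agent.R136.Fl808
open Crest.Agent.R136.K4 (Plk4)
open Crest.Agent.R136.KapP335 (kapP expP DetP)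
open Crest.Agent.R136.Shd410
open Crest.Agent.R136.Lkp140 (pik MLow)

/-- **the M bound** -/
theorem mLow : MLow := by
  refine ⟨131, 121, by norm_num, by norm_num, ?_⟩
  intro qm qp L Z S S' f g W M a Y w1 w2 z0 ρ r j k' H s hs
  have W2 := H.W2
  have W1 : 1 ≤ W := by linarith
  have W0 : 0 < W := by linarith
  have hY : 0 < Y := H.a0.trans_le H.aY
  have hw2 : 0 < w2 := hY.trans_le H.Yw
  have hw1 : 0 < w1 := hw2.trans_le H.ww
  have e121 : W ^ (121:ℝ) = W ^ 121 := by exact_mod_cast Real.rpow_natCast W 121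
  have e131 : W ^ (131:ℝ) = W ^ 131 := by exact_mod_cast Real.rpow_natCast W 131
  have hthr := H.thr
  rw [e131] at hthr
  rw [e121]
  by_cases hk : W ^ 85 ≤ (2:ℝ) ^ k'
  · refine ⟨0, Or.inl rfl, ?_⟩
    have h := Mlo777.mlow_k H hk hs le_rfl zero_le_one rfl rfl
    refine h.trans ?_
    have : W ^ 99 ≤ W ^ 121 := pow_le_pow_right₀ W1 (by norm_num)
    refine mul_le_mul_of_nonneg_right this ?_
    exact le_max_of_le_right (by positivity)
  · rw [not_le] at hk
    have hj : W ^ 46 ≤ (2:ℝ) ^ j := by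
      by_contra hc
      rw [not_le] at hc
      have h1 : (2:ℝ) ^ j * 2 ^ k' < W ^ 46 * W ^ 85 :=
        mul_lt_mul'' hc hk (by positivity) (by positivity)
      have h2 : W ^ 46 * W ^ 85 = W ^ 131 := by ring
      rw [h2] at h1
      linarith
    obtain ⟨ζ, hζ, h⟩ := Mlr723.mlow_j H hs hj
    refine ⟨ζ, hζ, ?_⟩
    have h3 : (2:ℝ) ^ k' * Y ≤ W ^ 85 * Y := mul_le_mul_of_nonneg_right hk.le hY.le
    have h4 := mul_le_mul_of_nonneg_left h (by positivity : 0 ≤ W ^ 85)
    refine h3.trans (h4.trans ?_)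
    rw [← mul_assoc, ← pow_add]
    exact le_rfl

end Crest.Agent.R136.Shv410
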