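import Crest.Agent.R136.Q0_455
import Crest.Agent.R136.Sln_296
import Crest.Agent.R136.Dvb_296

/-!
# R136 (S0187), PLAN 2 (AL), V6: move of the base point along `V` (helper778)

* `disp_own` : two points of the sheet `V` at the same height, chart of `V`;
* `mv_of` : `Chm862.Mv` in the chart of `R` from the point of `T'` to the point of `T`.
-/

set_option autoImplicit false
set_option linter.unusedVariables false

open Finset

namespace Crest.Agent.R136.Mov778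

open Crest.Agent.R136.Sh605 Crest.Agent.R136.Tl102
open Crest.Agent.R136.Rk601
open Crest.Agent.R136.AlD601
open Crest.Agent.R136.K4 (Plk4)
open Crest.Agent.R136.Tlt51 (Shp InP)
open Crest.Agent.R136.KapP335 (kapP)
open Crest.Agent.R136.Chm862
open Crest.Agent.R136.Gbx862 (zj zj_mem)

/-- `gr` on the sheet of `J` -/
theorem gr_disp {J : Jt} (h : J.a0 ≠ 0) (y : ℝ) (w : Fin 3 → ℝ) :
    gr J y w = J.a0 * (y - ∑ k, sl J k * w k) := by
  have e : ∀ k, J.a k = -(sl J k * J.a0) := fun k => by have := sl_tan h k; linarith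
  simp only [gr, Fin.sum_univ_three]
  rw [e 0, e 1, e 2]; ring

/-- numbers -/
theorem num_disp {w0 a0 g e h00 Q qX qX' a kp h : ℝ} (hw : 0 < w0) (ha0 : w0 / 2 ≤ a0)
    (hg : |g| ≤ 90 * h * w0) (hA : w0 / 2 ≤ a0 + g + e * h00) (h1 : h ≤ 1 / 1000)
    (hQ : |Q| ≤ 12600 * h ^ 2 * kp) (hX : |qX| ≤ a) (hX' : |qX'| ≤ a)
    (heq : qX = qX' + (a0 * e + 1 / 2 * (Q + 2 * e * g + e ^ 2 * h00))) :
    |e| * w0 ≤ 6 * a + 16800 * h ^ 2 * kp := by
  have hg' := abs_le.1 hg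
  have ha := (abs_nonneg _).trans hX
  have hgw : 90 * h * w0 ≤ 9 / 100 * w0 := mul_le_mul_of_nonneg_right (by linarith) hw.le
  set A := a0 + g + 1 / 2 * (e * h00) with hAd
  have hA2 : 3 / 8 * w0 ≤ A := by rw [hAd]; linarith
  have e1 : e * A = qX - qX' - 1 / 2 * Q := by rw [heq, hAd]; ring
  have e2 : |e| * A ≤ 2 * a + 6300 * h ^ 2 * kp := by
    have hA0 : 0 ≤ A := by linarith
    have : |e| * A = |e * A| := by rw [abs_mul, abs_of_nonneg hA0]
    rw [this, e1]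
    refine (abs_sub _ _).trans ?_
    have h2 := abs_sub qX qX'
    have h3 : |1 / 2 * Q| = 1 / 2 * |Q| := by rw [abs_mul]; norm_num
    rw [h3]; linarith
  have e3 : |e| * (3 / 8 * w0) ≤ |e| * A := mul_le_mul_of_nonneg_left hA2 (abs_nonneg _)
  linarith

/-- **two points of one sheet**, chart of the sheet -/
theorem disp_own {V : Plk4} {z0 ρ r h : ℝ} {H j : ℕ} {T T' : Ln4} (ha : 0 < V.a) (hρ : 0 ≤ ρ)
    (hV : Shp V z0 ρ r) (hT : InP T V z0 ρ) (hT' : InP T' V z0 ρ)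
    (hk : 10 ^ 6 * V.a ≤ kapP V z0 ρ T') (hj : j ≤ H) (h0 : 0 ≤ h) (h1 : h ≤ 1 / 1000) {c : V3}
    (hX : T.pos (zj z0 ρ H j) = T'.pos (zj z0 ρ H j) + cmb (fr V.e V.w) ![c 0, c 1, c 2])
    (l1 : |c 1| ≤ h) (l2 : |c 2| ≤ h) :
    |gr (jS V V.q z0 ρ H j T') (c 0) ![0, c 1, c 2]| ≤
      12 * V.a + 33600 * h ^ 2 * kapP V z0 ρ T' ∧
    |c 0| * V.w 0 ≤ 6 * V.a + 16800 * h ^ 2 * kapP V z0 ρ T' + 33 * h * V.w 0 := by
  have hw0 : 0 < V.w 0 := ha.trans_le hV.a_le0
  have SP := StP.of_shN hV hw0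
  obtain ⟨hne, a1, a2, alf, agm, ah00, asl, akp⟩ := Q0455.q0_of hρ ha hV hT' hk hj
  obtain ⟨z1, z2⟩ := zj_mem (z0 := z0) hρ hj
  obtain ⟨s1, -, -⟩ := Wdg296.jS_self SP hρ hj hT
  have hqX := (hT _ z1 z2).2
  have hqX' := (hT' _ z1 z2).2
  obtain ⟨hJet, hSym⟩ := jt_jet hV.isQ (fr V.e V.w) V.c.v (zj z0 ρ H j) (T'.pos (zj z0 ρ H j)) ρ
  have hJ2 : jS V V.q z0 ρ H j T = sh (jS V V.q z0 ρ H j T') (c 0) ![0, c 1, c 2] := by
    unfold jS
    rw [hX, jt_shift hV.isQ]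
  have hval := hJet (c 0) 0 (c 1) (c 2)
  change V.q _ _ = _ + (jS V V.q z0 ρ H j T').a0 * _ + dp (jS V V.q z0 ρ H j T').a _ +
    1 / 2 * ((jS V V.q z0 ρ H j T').h00 * _ + 2 * _ * dp (jS V V.q z0 ρ H j T').h0 _ +
      qf (jS V V.q z0 ρ H j T').h _) at hval
  change (jS V V.q z0 ρ H j T').Sym at hSym
  rw [hJ2] at s1
  have e0 : zj z0 ρ H j + ρ * 0 = zj z0 ρ H j := by ring
  have e1 : T'.pos (zj z0 ρ H j) + (ρ * 0) • V.c.v + cmb (fr V.e V.w) ![c 0, c 1, c 2] =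
      T.pos (zj z0 ρ H j) := by rw [hX]; simp
  rw [e0, e1] at hval
  generalize jS V V.q z0 ρ H j T' = J at *
  have hinc := incr_eq hSym hne (c 0) ![0, c 1, c 2]
  rw [sh_nor J J] at s1
  set w : Fin 3 → ℝ := ![0, c 1, c 2] with hw
  have hwk : ∀ k, |w k| ≤ h := by
    intro k
    fin_cases k
    · simpa [hw] using h0
    · exact l1
    · exact l2
  set e := c 0 - ∑ k, sl J k * w k with he
  set g := ∑ k, w k * gm J J k with hg
  have hgb : |g| ≤ 90 * h * V.w 0 := by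
    refine (sum3_le (B := h * (30 * V.w 0)) fun k => ?_).trans (le_of_eq (by ring))
    rw [abs_mul]
    exact mul_le_mul (hwk k) (agm k) (abs_nonneg _) h0
  have hQ : |∑ i, ∑ j, w i * w j * lf J (sl J) i j| ≤ 12600 * h ^ 2 * kapP V z0 ρ T' := by
    have h9 : ∀ i, |∑ j, w i * w j * lf J (sl J) i j| ≤ 3 * (h * h * (1400 * kapP V z0 ρ T')) := by
      intro i
      refine sum3_le fun k => ?_
      rw [abs_mul, abs_mul]
      exact mul_le_mul (mul_le_mul (hwk i) (hwk k) (abs_nonneg _) h0) (alf i k) (abs_nonneg _)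
        (by positivity)
    refine (sum3_le h9).trans (le_of_eq (by ring))
  have hval' : V.q (zj z0 ρ H j) (T.pos (zj z0 ρ H j)) =
      V.q (zj z0 ρ H j) (T'.pos (zj z0 ρ H j)) + (J.a0 * e +
        1 / 2 * (∑ i, ∑ j, w i * w j * lf J (sl J) i j + 2 * e * g + e ^ 2 * J.h00)) := by
    rw [hval, ← hinc]; ring
  have E := num_disp hw0 a1 hgb s1 h1 hQ hqX hqX' hval'
  refine ⟨?_, ?_⟩
  · rw [gr_disp hne, abs_mul, abs_of_pos (by linarith : 0 < J.a0)]
    calc J.a0 * |e| ≤ 2 * V.w 0 * |e| := mul_le_mul_of_nonneg_right a2 (abs_nonneg _)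
      _ ≤ _ := by linarith
  · have h3 : |∑ k, sl J k * w k| ≤ 3 * (11 * h) := by
      refine sum3_le fun k => ?_
      rw [abs_mul]
      exact mul_le_mul (asl k) (hwk k) (abs_nonneg _) (by norm_num)
    have h4 : |c 0| ≤ |e| + 33 * h := by
      have : c 0 = e + ∑ k, sl J k * w k := by rw [he]; ring
      rw [this]
      refine (abs_add_le _ _).trans ?_
      linarith
    have := mul_le_mul_of_nonneg_right h4 hw0.le
    linarith

/-- `gr` of a second function on the sheet of `J` -/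
theorem gr_disp2 (J J' : Jt) (y : ℝ) (w : Fin 3 → ℝ) :
    gr J' y w = J'.a0 * (y - ∑ k, sl J k * w k) + ∑ k, tg J J' k * w k := by
  have e : ∀ k, J'.a k = tg J J' k - sl J k * J'.a0 := fun k => by
    have := tg_eq (q := J) (q' := J') k; linarith
  simp only [gr, Fin.sum_univ_three]
  rw [e 0, e 1, e 2]; ring

/-- **the move in the chart of `R`** : from the point of `T'` to the point of `T`, both on `V` -/
theorem mv_of {R V : Plk4} {z0 ρ r h K K1 B l m s : ℝ} {H j : ℕ} {T T' : Ln4} (haR : 0 < R.a)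
    (haV : 0 < V.a) (hρ : 0 ≤ ρ) (hR : Shp R z0 ρ r) (hV : Shp V z0 ρ r) (hT : InP T V z0 ρ)
    (hT' : InP T' V z0 ρ) (hTR : InP T' R z0 ρ) (tr : Tr K V R)
    (hkR : 10 ^ 6 * R.a ≤ kapP R z0 ρ T') (hkV : 10 ^ 6 * V.a ≤ kapP V z0 ρ T') (hj : j ≤ H)
    (hB : 1 ≤ B) (h0 : 0 ≤ h) (hsm : 10 ^ 12 * K * B ^ 2 * h ≤ 1)
    (haB : V.a ≤ B * h * kapP V z0 ρ T') (hVR : kapP V z0 ρ T' ≤ B * kapP R z0 ρ T')
    (hs0 : 0 ≤ s) (hsB : s ≤ B * kapP R z0 ρ T') (hl0 : 0 ≤ l) (hl : l ≤ 1)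
    (hls : l * s ≤ R.w 0 / 64) (nd : ¬ Nd R V.q z0 ρ H j T' l m s)
    (dv : Wdg296.Dv R V.q z0 ρ H j T' K1 (kapP R z0 ρ T' / R.w 0) s)
    (l1 : |dt (V.e 1) (T.pos (zj z0 ρ H j) - T'.pos (zj z0 ρ H j))| ≤ h * V.w 1)
    (l2 : |dt (V.e 2) (T.pos (zj z0 ρ H j) - T'.pos (zj z0 ρ H j))| ≤ h * V.w 2) :
    ∃ y u v : ℝ, jS R R.q z0 ρ H j T = sh (jS R R.q z0 ρ H j T') y ![0, u, v] ∧
      jS R V.q z0 ρ H j T = sh (jS R V.q z0 ρ H j T') y ![0, u, v] ∧
      Mv (jS R R.q z0 ρ H j T') (jS R V.q z0 ρ H j T') y ![0, u, v] 20000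
        (kapP R z0 ρ T' / (13 * R.w 0)) (2 * 10 ^ 9 * K * B ^ 2 * h) (K1 * s) (R.w 0) := by
  have hK := tr.K1
  have hK0 : 0 < K := by linarith
  have hB0 : 0 < B := by linarith
  have hwV : 0 < V.w 0 := haV.trans_le hV.a_le0
  have hwR : 0 < R.w 0 := haR.trans_le hR.a_le0
  have SV := StP.of_shN hV hwV
  have SR := StP.of_shN hR hwR
  have hB2 : 1 ≤ B ^ 2 := one_le_pow₀ hB
  have hKB : 1 ≤ K * B ^ 2 := one_le_mul_of_one_le_of_one_le hK hB2
  have hh : h ≤ 1 / 10 ^ 12 := by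
    have : h ≤ K * B ^ 2 * h := le_mul_of_one_le_left h0 hKB
    have e : 10 ^ 12 * K * B ^ 2 * h = 10 ^ 12 * (K * B ^ 2 * h) := by ring
    rw [e] at hsm
    linarith
  have h2h : h ^ 2 ≤ h := by nlinarith
  have BB : B ≤ B ^ 2 := by nlinarith
  obtain ⟨hneV, -, -, -, -, -, -, akV⟩ := Q0455.q0_of hρ haV hV hT' hkV hj
  obtain ⟨hne, a1, a2, alf, agm, ah00, asl, akR⟩ := Q0455.q0_of hρ haR hR hTR hkR hj
  obtain ⟨z1, z2⟩ := zj_mem (z0 := z0) hρ hj
  obtain ⟨b1, -, -⟩ := Wdg296.slopes_of_not_Nd SR SV hρ hj hR.w0_le hR.w_le hV.w0_le hV.w_le hTR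
    hT' nd hls
  obtain ⟨hnd, -⟩ := not_Nd.1 nd
  obtain ⟨x, hx⟩ : ∃ x, x = T.pos (zj z0 ρ H j) - T'.pos (zj z0 ρ H j) := ⟨_, rfl⟩
  rw [← hx] at l1 l2
  have hXx : T.pos (zj z0 ρ H j) = T'.pos (zj z0 ρ H j) + x := by rw [hx]; abel
  obtain ⟨c, hc⟩ : ∃ c, c = co V.e V.w x := ⟨_, rfl⟩
  obtain ⟨d, hd⟩ : ∃ d, d = co R.e R.w x := ⟨_, rfl⟩
  have fin3 : ∀ c : V3, (![c 0, c 1, c 2] : V3) = c := by
    intro c; funext i; fin_cases i <;> rfl
  have hcx : cmb (fr V.e V.w) ![c 0, c 1, c 2] = x := by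
    rw [fin3, hc, cmb_co SV.ortho SV.pos]
  have hdx : cmb (fr R.e R.w) ![d 0, d 1, d 2] = x := by
    rw [fin3, hd, cmb_co SR.ortho SR.pos]
  have cb : ∀ k : Fin 3, k ≠ 0 → |c k| ≤ h := by
    intro k hk
    rw [hc]
    unfold co
    rw [abs_div, abs_of_pos (SV.pos k), div_le_iff₀ (SV.pos k)]
    fin_cases k
    · exact absurd rfl hk
    · exact l1
    · exact l2
  obtain ⟨g1, g2⟩ := disp_own haV hρ hV hT hT' hkV hj h0 (by linarith) (c := c)
    (by rw [hcx]; exact hXx) (cb 1 (by decide)) (cb 2 (by decide))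
  set kR := kapP R z0 ρ T' with hkRd
  set kV := kapP V z0 ρ T' with hkVd
  have kR0 : 0 < kR := by
    have : 0 < 10 ^ 6 * R.a := by positivity
    linarith
  have kV0 : 0 < kV := by
    have : 0 < 10 ^ 6 * V.a := by positivity
    linarith
  -- the coordinates in the chart of `V`
  have hBh : 0 ≤ B * h := by positivity
  have hhB : h ≤ B * h := le_mul_of_one_le_left h0 hB
  have hc0 : |c 0| ≤ 300000 * (B * h) := by
    have t1 : V.a ≤ 13 * (B * h) * V.w 0 := by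
      refine haB.trans ?_
      have := mul_le_mul_of_nonneg_left akV hBh
      linarith
    have t2 : h ^ 2 * kV ≤ 13 * (B * h) * V.w 0 := by
      have := mul_le_mul (h2h.trans hhB) akV kV0.le hBh
      linarith
    have t3 : h * V.w 0 ≤ (B * h) * V.w 0 := mul_le_mul_of_nonneg_right hhB hwV.le
    have t4 : |c 0| * V.w 0 ≤ 300000 * (B * h) * V.w 0 := by
      have e1 : 16800 * h ^ 2 * kV = 16800 * (h ^ 2 * kV) := by ring
      have e2 : 33 * h * V.w 0 = 33 * (h * V.w 0) := by ring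
      have p : 0 ≤ (B * h) * V.w 0 := by positivity
      linarith
    exact le_of_mul_le_mul_right t4 hwV
  have hbox : ∀ i, |dt (V.e i) x| ≤ 300000 * (B * h) * V.w i := by
    intro i
    have hi : |c i| ≤ 300000 * (B * h) := by
      by_cases h3 : i = 0
      · rw [h3]; exact hc0
      · exact (cb i h3).trans (by linarith)
    rw [hc] at hi
    unfold co at hi
    rwa [abs_div, abs_of_pos (SV.pos i), div_le_iff₀ (SV.pos i)] at hi
  have hdk : ∀ k : Fin 3, k ≠ 0 → |d k| ≤ 900000 * (K * (B * h)) := by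
    intro k hk
    have := tr.box hbox k hk
    rw [← hd] at this
    linarith
  -- the displacement in the chart of `R`
  have hgr : gr (jS R V.q z0 ρ H j T') (d 0) ![0, d 1, d 2] =
      gr (jS V V.q z0 ρ H j T') (c 0) ![0, c 1, c 2] :=
    gr_inv hV.isQ (by rw [hcx, hdx])
  have hJR : jS R R.q z0 ρ H j T = sh (jS R R.q z0 ρ H j T') (d 0) ![0, d 1, d 2] := by
    unfold jS
    rw [hXx, ← hdx, jt_shift hR.isQ]
  have hJV : jS R V.q z0 ρ H j T = sh (jS R V.q z0 ρ H j T') (d 0) ![0, d 1, d 2] := by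
    unfold jS
    rw [hXx, ← hdx, jt_shift hV.isQ]
  refine ⟨d 0, d 1, d 2, hJR, hJV, ?_⟩
  rw [← hgr, gr_disp2 (jS R R.q z0 ρ H j T')] at g1
  have dth := dv.th
  have dgm := dv.gm
  have dh0 := dv.h00
  generalize jS R R.q z0 ρ H j T' = J at *
  generalize jS R V.q z0 ρ H j T' = J' at *
  set w : Fin 3 → ℝ := ![0, d 1, d 2] with hw
  have hKBh : 0 ≤ K * (B * h) := by positivity
  have hwk' : ∀ k, |w k| ≤ 900000 * (K * (B * h)) := by
    intro k
    fin_cases k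
    · simpa [hw] using hKBh
    · exact hdk 1 (by decide)
    · exact hdk 2 (by decide)
  have hδe : 2 * 10 ^ 9 * K * B ^ 2 * h = 2 * 10 ^ 9 * (K * (B ^ 2 * h)) := by ring
  have hBB : K * (B * h) ≤ K * (B ^ 2 * h) :=
    mul_le_mul_of_nonneg_left (mul_le_mul_of_nonneg_right BB h0) hK0.le
  have hδs : K * (B ^ 2 * h) ≤ 1 / 10 ^ 12 := by
    have e : 10 ^ 12 * K * B ^ 2 * h = 10 ^ 12 * (K * (B ^ 2 * h)) := by ring
    rw [e] at hsm
    linarith
  have hδ0 : 0 ≤ K * (B ^ 2 * h) := by positivity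
  have hwk : ∀ k, |w k| ≤ 2 * 10 ^ 9 * K * B ^ 2 * h := fun k => by
    rw [hδe]; linarith [hwk' k]
  set e := d 0 - ∑ k, sl J k * w k with he
  -- size of `e`
  have hE : |e| * R.w 0 ≤ 96 * 10 ^ 6 * (K * (B ^ 2 * h)) * kR := by
    have t1 : |∑ k, tg J J' k * w k| ≤ 3 * (l * s * (900000 * (K * (B * h)))) := by
      refine sum3_le fun k => ?_
      rw [abs_mul]
      exact mul_le_mul (hnd k) (hwk' k) (abs_nonneg _) (mul_nonneg hl0 hs0)
    have t2 : |J'.a0 * e| ≤ 12 * V.a + 33600 * h ^ 2 * kV + 3 * (l * s * (900000 * (K * (B * h)))) := by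
      have e3 : J'.a0 * e = (J'.a0 * e + ∑ k, tg J J' k * w k) - ∑ k, tg J J' k * w k := by ring
      rw [e3]
      refine (abs_sub _ _).trans ?_
      linarith
    have t3 : R.w 0 / 32 * |e| ≤ |J'.a0 * e| := by
      rw [abs_mul]; exact mul_le_mul_of_nonneg_right b1 (abs_nonneg _)
    have p1 : 12 * V.a ≤ 12 * ((K * (B ^ 2 * h)) * kR) := by
      have q1 : B * h * kV ≤ B * h * (B * kR) := mul_le_mul_of_nonneg_left hVR hBh
      have q2 : B * h * (B * kR) = 1 * ((B ^ 2 * h) * kR) := by ring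
      have q3 : 1 * ((B ^ 2 * h) * kR) ≤ K * ((B ^ 2 * h) * kR) :=
        mul_le_mul_of_nonneg_right hK (by positivity)
      have q4 : K * ((B ^ 2 * h) * kR) = (K * (B ^ 2 * h)) * kR := by ring
      linarith
    have p2 : 33600 * h ^ 2 * kV ≤ 33600 * ((K * (B ^ 2 * h)) * kR) := by
      have q1 : h ^ 2 * kV ≤ h * (B * kR) := mul_le_mul h2h hVR kV0.le h0
      have q2 : h * (B * kR) = B * (h * kR) := by ring
      have q3 : B * (h * kR) ≤ (K * B ^ 2) * (h * kR) := by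
        refine mul_le_mul_of_nonneg_right ?_ (by positivity)
        calc B ≤ B ^ 2 := BB
          _ ≤ K * B ^ 2 := le_mul_of_one_le_left (by positivity) hK
      have q4 : (K * B ^ 2) * (h * kR) = (K * (B ^ 2 * h)) * kR := by ring
      have q5 : 33600 * h ^ 2 * kV = 33600 * (h ^ 2 * kV) := by ring
      linarith
    have p3 : 3 * (l * s * (900000 * (K * (B * h)))) ≤ 2700000 * ((K * (B ^ 2 * h)) * kR) := by
      have q1 : l * s ≤ 1 * (B * kR) := mul_le_mul hl hsB hs0 zero_le_one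
      have q2 := mul_le_mul_of_nonneg_right q1 hKBh
      have q3 : 1 * (B * kR) * (K * (B * h)) = (K * (B ^ 2 * h)) * kR := by ring
      have q4 : 3 * (l * s * (900000 * (K * (B * h)))) = 2700000 * (l * s * (K * (B * h))) := by
        ring
      linarith
    have p0 : 0 ≤ (K * (B ^ 2 * h)) * kR := by positivity
    linarith
  have hy : |e| ≤ kR / (13 * R.w 0) * (2 * 10 ^ 9 * K * B ^ 2 * h) := by
    rw [hδe, div_mul_eq_mul_div, le_div_iff₀ (by positivity)]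
    have p0 : 0 ≤ (K * (B ^ 2 * h)) * kR := by positivity
    linarith
  have hκ1 : kR / (13 * R.w 0) ≤ 1 := by
    rw [div_le_one (by positivity)]; exact akR
  have hκ0 : 0 ≤ kR / (13 * R.w 0) := by positivity
  have hκw : kR / (13 * R.w 0) * R.w 0 = kR / 13 := by field_simp
  have hκκ : kR / (13 * R.w 0) ≤ kR / R.w 0 :=
    div_le_div_of_nonneg_left kR0.le hwR (by linarith)
  exact
    { K1 := by norm_num
      R0 := hwR
      κ0 := hκ0
      κ1 := hκ1
      δ0 := by rw [hδe]; positivity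
      δ1 := by rw [hδe]; linarith
      q0 := hne
      q1 := by
        rw [sh_nor J J]
        have g1 : |∑ k, w k * gm J J k| ≤ 3 * (2 * 10 ^ 9 * K * B ^ 2 * h * (30 * R.w 0)) := by
          refine sum3_le fun k => ?_
          rw [abs_mul]
          exact mul_le_mul (hwk k) (agm k) (abs_nonneg _) (by rw [hδe]; positivity)
        have g2 : 2 * 10 ^ 9 * K * B ^ 2 * h * (30 * R.w 0) ≤ 1 / 500 * (30 * R.w 0) :=
          mul_le_mul_of_nonneg_right (by rw [hδe]; linarith) (by positivity)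
        have g3 : |e * J.h00| ≤ 1 / 500 * (2 * R.w 0) := by
          rw [abs_mul]
          refine mul_le_mul ?_ ah00 (abs_nonneg _) (by norm_num)
          calc |e| ≤ kR / (13 * R.w 0) * (2 * 10 ^ 9 * K * B ^ 2 * h) := hy
            _ ≤ 1 * (2 * 10 ^ 9 * K * B ^ 2 * h) :=
                mul_le_mul_of_nonneg_right hκ1 (by rw [hδe]; positivity)
            _ ≤ 1 / 500 := by rw [hδe]; linarith
        have g4 := abs_le.1 g1
        have g5 := abs_le.1 g3
        refine le_trans ?_ (le_abs_self _)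
        have g6 : R.w 0 / 20000 ≤ 1 / 20000 * R.w 0 := by linarith
        linarith [g4.1, g5.1]
      hw := hwk
      hy := hy
      hq := fun i j => by
        refine (alf i j).trans ?_
        have : 20000 * (kR / (13 * R.w 0)) * R.w 0 = 20000 * (kR / 13) := by
          rw [mul_assoc, hκw]
        rw [this]; linarith
      hg := fun i => (agm i).trans (by linarith)
      h00 := ah00.trans (by linarith)
      hN := dth
      hNg := fun i => (mul_le_mul_of_nonneg_right hκκ (abs_nonneg _)).trans (dgm i)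
      hN0 := (mul_le_mul_of_nonneg_right (pow_le_pow_left₀ hκ0 hκκ 2) (abs_nonneg _)).trans dh0 }

end Crest.Agent.R136.Mov778
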