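import Crest.Agent.R136.Tq1_879

/-!
# R136 (U4, POP): class merge, part 1: sub-classes of a mark and the new marks (helper70)

* `lab9` : label of a line of a sheet: positions at the two ends of the cell on the grid `w i / 64`,
  values of `q` at three heights on the grid `a / 64`; at most `129 ^ 9` labels;
* `lab_close` : two lines with one label are close, and so are the values of `q`;
* `mkS S T0` : the mark of the sub-class of `T0` (a legal sheet over the same cell, same resolution,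
  widths `w 1 / 2, w 2 / 2` if `2 a ≤ w 2`, else the same widths; thickness `a`);
* `merge` : a line `y` close to a line `T` of the sub-class of `T0` lies in `mkS S T0`.
-/

set_option autoImplicit false
set_option linter.unusedVariables false

open Finset

namespace Crest.Agent.R136.Mrg70

open Sh605 K4 Tq879

/-! ### elementary facts -/

/-- the value of a quadratic function along a line -/
theorem q_line {q : ℝ → V3 → ℝ} (hq : IsQ q) (T : Ln4) :
    ∃ α β γ : ℝ, ∀ z, q z (T.pos z) = α + β * z + γ * z ^ 2 := by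
  obtain ⟨c0, c1, c2, b, d, g, h⟩ := hq
  refine ⟨c0 + ∑ i, b i * T.p i + ∑ i, ∑ j, g i j * (T.p i * T.p j),
    c1 + ∑ i, (b i * T.v i + d i * T.p i) + ∑ i, ∑ j, g i j * (T.p i * T.v j + T.v i * T.p j),
    c2 + ∑ i, d i * T.v i + ∑ i, ∑ j, g i j * (T.v i * T.v j), fun z => ?_⟩
  rw [h]
  simp only [Ln4.pos, Fin.sum_univ_three]
  ring

theorem dt_line (f : V3) (T T0 : Ln4) (z : ℝ) :
    dt f (T.pos z - T0.pos z) = dt f (T.p - T0.p) + z * dt f (T.v - T0.v) := by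
  simp only [dt, Ln4.pos, Pi.sub_apply]; ring

/-- an affine function bounded at both ends -/
theorem aff_le {α β z0 ρ B z : ℝ} (hρ : 0 < ρ) (h0 : |α + z0 * β| ≤ B)
    (h1 : |α + (z0 + ρ) * β| ≤ B) (hz : z0 ≤ z) (hz' : z ≤ z0 + ρ) : |α + z * β| ≤ B := by
  obtain ⟨s, hs⟩ : ∃ s : ℝ, z = z0 + s * ρ := ⟨(z - z0) / ρ, by field_simp; ring⟩
  have s0 : 0 ≤ s := by
    have : 0 ≤ s * ρ := by linarith
    exact nonneg_of_mul_nonneg_left this hρ
  have s1 : s ≤ 1 := by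
    have : s * ρ ≤ 1 * ρ := by linarith
    exact le_of_mul_le_mul_right this hρ
  have e : α + z * β = (1 - s) * (α + z0 * β) + s * (α + (z0 + ρ) * β) := by rw [hs]; ring
  rw [e]
  have a0 := abs_le.1 h0
  have a1 := abs_le.1 h1
  rw [abs_le]
  constructor <;> nlinarith

/-- a quadratic function bounded at three points -/
theorem quad_le {α β γ z0 ρ B z : ℝ} (hρ : 0 < ρ) (h0 : |α + β * z0 + γ * z0 ^ 2| ≤ B)
    (h1 : |α + β * (z0 + ρ / 2) + γ * (z0 + ρ / 2) ^ 2| ≤ B)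
    (h2 : |α + β * (z0 + ρ) + γ * (z0 + ρ) ^ 2| ≤ B) (hz : z0 ≤ z) (hz' : z ≤ z0 + ρ) :
    |α + β * z + γ * z ^ 2| ≤ 3 * B := by
  obtain ⟨s, hs⟩ : ∃ s : ℝ, z = z0 + s * ρ := ⟨(z - z0) / ρ, by field_simp; ring⟩
  have s0 : 0 ≤ s := by
    have : 0 ≤ s * ρ := by linarith
    exact nonneg_of_mul_nonneg_left this hρ
  have s1 : s ≤ 1 := by
    have : s * ρ ≤ 1 * ρ := by linarith
    exact le_of_mul_le_mul_right this hρ
  have hB : 0 ≤ B := (abs_nonneg _).trans h0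
  have e : α + β * z + γ * z ^ 2 =
      ((1 - s) * (1 - 2 * s)) * (α + β * z0 + γ * z0 ^ 2) +
      (4 * (s * (1 - s))) * (α + β * (z0 + ρ / 2) + γ * (z0 + ρ / 2) ^ 2) +
      (s * (2 * s - 1)) * (α + β * (z0 + ρ) + γ * (z0 + ρ) ^ 2) := by rw [hs]; ring
  have k0 : |(1 - s) * (1 - 2 * s)| ≤ 1 := by
    rw [abs_mul]
    exact mul_le_one₀ (by rw [abs_le]; constructor <;> linarith) (abs_nonneg _)
      (by rw [abs_le]; constructor <;> linarith)
  have k1 : |4 * (s * (1 - s))| ≤ 1 := by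
    rw [abs_le]; constructor <;> nlinarith [sq_nonneg (2 * s - 1)]
  have k2 : |s * (2 * s - 1)| ≤ 1 := by
    rw [abs_mul]
    exact mul_le_one₀ (by rw [abs_le]; constructor <;> linarith) (abs_nonneg _)
      (by rw [abs_le]; constructor <;> linarith)
  have m0 : |((1 - s) * (1 - 2 * s)) * (α + β * z0 + γ * z0 ^ 2)| ≤ B := by
    rw [abs_mul]
    calc |(1 - s) * (1 - 2 * s)| * |α + β * z0 + γ * z0 ^ 2| ≤ 1 * B :=
          mul_le_mul k0 h0 (abs_nonneg _) zero_le_one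
      _ = B := one_mul B
  have m1 : |(4 * (s * (1 - s))) * (α + β * (z0 + ρ / 2) + γ * (z0 + ρ / 2) ^ 2)| ≤ B := by
    rw [abs_mul]
    calc |4 * (s * (1 - s))| * |α + β * (z0 + ρ / 2) + γ * (z0 + ρ / 2) ^ 2| ≤ 1 * B :=
          mul_le_mul k1 h1 (abs_nonneg _) zero_le_one
      _ = B := one_mul B
  have m2 : |(s * (2 * s - 1)) * (α + β * (z0 + ρ) + γ * (z0 + ρ) ^ 2)| ≤ B := by
    rw [abs_mul]
    calc |s * (2 * s - 1)| * |α + β * (z0 + ρ) + γ * (z0 + ρ) ^ 2| ≤ 1 * B :=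
          mul_le_mul k2 h2 (abs_nonneg _) zero_le_one
      _ = B := one_mul B
  rw [e]
  refine (abs_add_three _ _ _).trans ?_
  linarith

theorem isQ_shift {q : ℝ → V3 → ℝ} (hq : IsQ q) (T : Ln4) :
    IsQ fun z x => q z x - q z (T.pos z) := by
  obtain ⟨α, β, γ, h⟩ := q_line hq T
  obtain ⟨c0, c1, c2, b, d, g, h'⟩ := hq
  refine ⟨c0 - α, c1 - β, c2 - γ, b, d, g, fun z x => ?_⟩
  show q z x - q z (T.pos z) = _
  rw [h, h']; ring

theorem isQ_flat (f : V3) (T : Ln4) : IsQ fun z x => dt f (x - T.pos z) := by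
  refine ⟨-dt f T.p, -dt f T.v, 0, f, fun _ => 0, fun _ _ => 0, fun z x => ?_⟩
  simp only [dt, Ln4.pos, Pi.sub_apply, Fin.sum_univ_three]
  ring

/-! ### labels -/

/-- values of one label -/
noncomputable def rng (N : ℤ) : Finset ℤ := Icc (-N) N

theorem card_rng : (rng 64).card = 129 := by
  unfold rng; rw [Int.card_Icc]; rfl

/-- grid value -/
noncomputable def gr (x w : ℝ) : ℤ := ⌊64 * (x / w)⌋

theorem gr_mem {x w : ℝ} (hw : 0 < w) (h : |x| ≤ w) : gr x w ∈ rng 64 := by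
  have h1 : |x / w| ≤ 1 := by rw [abs_div, abs_of_pos hw]; exact (div_le_one hw).2 h
  obtain ⟨a, b⟩ := abs_le.1 h1
  rw [rng, mem_Icc]
  unfold gr
  constructor
  · rw [Int.le_floor]; push_cast; linarith
  · rw [← Int.lt_add_one_iff, Int.floor_lt]; push_cast; linarith

theorem gr_close {x y w : ℝ} (hw : 0 < w) (h : gr x w = gr y w) : |x - y| ≤ w / 64 := by
  have h1 := Int.abs_sub_lt_one_of_floor_eq_floor h
  have e : 64 * (x / w) - 64 * (y / w) = (x - y) * 64 / w := by ring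
  rw [e, abs_div, abs_of_pos hw, div_lt_one hw, abs_mul] at h1
  have : |(64:ℝ)| = 64 := by norm_num
  rw [this] at h1
  linarith

/-- the label of a line of the sheet `S` -/
noncomputable def lab9 (S : Plk4) (z0 ρ : ℝ) (T : Ln4) : Fin 9 → ℤ :=
  ![gr (dt (S.e 0) (T.pos z0 - S.c.pos z0)) (S.w 0),
    gr (dt (S.e 1) (T.pos z0 - S.c.pos z0)) (S.w 1),
    gr (dt (S.e 2) (T.pos z0 - S.c.pos z0)) (S.w 2),
    gr (dt (S.e 0) (T.pos (z0 + ρ) - S.c.pos (z0 + ρ))) (S.w 0),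
    gr (dt (S.e 1) (T.pos (z0 + ρ) - S.c.pos (z0 + ρ))) (S.w 1),
    gr (dt (S.e 2) (T.pos (z0 + ρ) - S.c.pos (z0 + ρ))) (S.w 2),
    gr (S.q z0 (T.pos z0)) S.a,
    gr (S.q (z0 + ρ / 2) (T.pos (z0 + ρ / 2))) S.a,
    gr (S.q (z0 + ρ) (T.pos (z0 + ρ))) S.a]

/-- the set of labels -/
@[irreducible] noncomputable def labs (N : ℤ) : Finset (Fin 9 → ℤ) := Fintype.piFinset fun _ => rng N

theorem mem_labs {N : ℤ} {f : Fin 9 → ℤ} : f ∈ labs N ↔ ∀ k, f k ∈ rng N := by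
  unfold labs; exact Fintype.mem_piFinset

theorem card_labs : (labs 64).card = 129 ^ 9 := by
  unfold labs
  rw [Fintype.card_piFinset_const, card_rng]

section

variable {S : Plk4} {z0 ρ r0 : ℝ}

theorem pos_of (h : ShN S.e S.c S.w S.q S.a z0 ρ r0) (hr : 0 < r0) :
    0 < S.a ∧ 0 < S.w 0 ∧ 0 < S.w 1 ∧ 0 < S.w 2 := by
  have a := hr.trans_le h.r0_le
  have b := a.trans_le h.a_le0
  have c := b.trans_le h.w0_le
  exact ⟨a, b, c.trans_le h.w_le, c⟩

theorem lab_memk (h : ShN S.e S.c S.w S.q S.a z0 ρ r0) (hr : 0 < r0) (hρ : 0 < ρ) {T : Ln4}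
    (hT : InSheet T S.e S.c S.w S.q S.a z0 ρ) (k : Fin 9) :
    lab9 S z0 ρ T k ∈ rng 64 := by
  obtain ⟨pa, p0, p1, p2⟩ := pos_of h hr
  obtain ⟨i0, j0⟩ := hT z0 le_rfl (by linarith)
  obtain ⟨i1, j1⟩ := hT (z0 + ρ / 2) (by linarith) (by linarith)
  obtain ⟨i2, j2⟩ := hT (z0 + ρ) (by linarith) le_rfl
  fin_cases k
  · exact gr_mem p0 (i0 0)
  · exact gr_mem p1 (i0 1)
  · exact gr_mem p2 (i0 2)
  · exact gr_mem p0 (i2 0)
  · exact gr_mem p1 (i2 1)
  · exact gr_mem p2 (i2 2)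
  · exact gr_mem pa j0
  · exact gr_mem pa j1
  · exact gr_mem pa j2

theorem lab_mem (h : ShN S.e S.c S.w S.q S.a z0 ρ r0) (hr : 0 < r0) (hρ : 0 < ρ) {T : Ln4}
    (hT : InSheet T S.e S.c S.w S.q S.a z0 ρ) : lab9 S z0 ρ T ∈ labs 64 :=
  mem_labs.2 (lab_memk h hr hρ hT)

/-- **lines with one label are close** -/
theorem lab_close (h : ShN S.e S.c S.w S.q S.a z0 ρ r0) (hr : 0 < r0) (hρ : 0 < ρ) {T T0 : Ln4}
    (hl : lab9 S z0 ρ T = lab9 S z0 ρ T0) {z : ℝ} (hz : z0 ≤ z) (hz' : z ≤ z0 + ρ) :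
    (∀ i, |dt (S.e i) (T.pos z - T0.pos z)| ≤ S.w i / 64) ∧
      |S.q z (T.pos z) - S.q z (T0.pos z)| ≤ 3 * S.a / 64 := by
  obtain ⟨pa, p0, p1, p2⟩ := pos_of h hr
  have hpw : ∀ i, 0 < S.w i := by
    intro i; fin_cases i
    · exact p0
    · exact p1
    · exact p2
  have dd : ∀ (f x y u : V3), dt f (x - u) - dt f (y - u) = dt f (x - y) := by
    intro f x y u; simp only [dt, Pi.sub_apply]; ring
  have c0 : ∀ i : Fin 3, |dt (S.e i) (T.pos z0 - T0.pos z0)| ≤ S.w i / 64 := by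
    intro i
    rw [← dd (S.e i) (T.pos z0) (T0.pos z0) (S.c.pos z0)]
    refine gr_close (hpw i) ?_
    fin_cases i
    · exact congrFun hl 0
    · exact congrFun hl 1
    · exact congrFun hl 2
  have c1 : ∀ i : Fin 3, |dt (S.e i) (T.pos (z0 + ρ) - T0.pos (z0 + ρ))| ≤ S.w i / 64 := by
    intro i
    rw [← dd (S.e i) (T.pos (z0 + ρ)) (T0.pos (z0 + ρ)) (S.c.pos (z0 + ρ))]
    refine gr_close (hpw i) ?_
    fin_cases i
    · exact congrFun hl 3
    · exact congrFun hl 4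
    · exact congrFun hl 5
  have v0 : |S.q z0 (T.pos z0) - S.q z0 (T0.pos z0)| ≤ S.a / 64 := gr_close pa (congrFun hl 6)
  have v1 : |S.q (z0 + ρ / 2) (T.pos (z0 + ρ / 2)) - S.q (z0 + ρ / 2) (T0.pos (z0 + ρ / 2))| ≤
      S.a / 64 := gr_close pa (congrFun hl 7)
  have v2 : |S.q (z0 + ρ) (T.pos (z0 + ρ)) - S.q (z0 + ρ) (T0.pos (z0 + ρ))| ≤ S.a / 64 :=
    gr_close pa (congrFun hl 8)
  constructor
  · intro i
    have k0 := c0 i
    have k1 := c1 i
    rw [dt_line] at k0 k1 ⊢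
    exact aff_le hρ k0 k1 hz hz'
  · obtain ⟨α, β, γ, e⟩ := q_line h.isQ T
    obtain ⟨α', β', γ', e'⟩ := q_line h.isQ T0
    have ee : ∀ z, S.q z (T.pos z) - S.q z (T0.pos z) =
        (α - α') + (β - β') * z + (γ - γ') * z ^ 2 := fun z => by rw [e, e']; ring
    rw [ee] at v0 v1 v2 ⊢
    have := quad_le hρ v0 v1 v2 hz hz'
    linarith

/-! ### the new marks -/

/-- the mark of the sub-class of `T0` -/
noncomputable def mkS (S : Plk4) (T0 : Ln4) : Plk4 :=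
  if 2 * S.a ≤ S.w 2 then
    (if 2 * S.a ≤ S.w 0 then
      ⟨S.j, S.e, T0, ![S.w 0 / 2, S.w 1 / 2, S.w 2 / 2], fun z x => S.q z x - S.q z (T0.pos z), S.a⟩
    else ⟨S.j, S.e, T0, ![S.a, S.w 1 / 2, S.w 2 / 2], fun z x => dt (S.e 0) (x - T0.pos z), S.a⟩)
  else ⟨S.j, S.e, T0, ![S.a, S.w 1, S.w 2], fun z x => dt (S.e 0) (x - T0.pos z), S.a⟩

theorem mkS_a (S : Plk4) (T0 : Ln4) : (mkS S T0).a = S.a := by
  unfold mkS; split_ifs <;> rfl

theorem mkS_e (S : Plk4) (T0 : Ln4) : (mkS S T0).e = S.e := by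
  unfold mkS; split_ifs <;> rfl

theorem mkS_c (S : Plk4) (T0 : Ln4) : (mkS S T0).c = T0 := by
  unfold mkS; split_ifs <;> rfl

theorem mkS_w1 (S : Plk4) (T0 : Ln4) :
    (mkS S T0).w 1 = if 2 * S.a ≤ S.w 2 then S.w 1 / 2 else S.w 1 := by
  unfold mkS; split_ifs <;> rfl

theorem mkS_w2 (S : Plk4) (T0 : Ln4) :
    (mkS S T0).w 2 = if 2 * S.a ≤ S.w 2 then S.w 2 / 2 else S.w 2 := by
  unfold mkS; split_ifs <;> rfl

/-- a flat sheet is legal -/
theorem shN_flat70 {e : Fin 3 → V3} (he : Ortho e) (T0 : Ln4) {a w1 w2 : ℝ} (ha : 0 ≤ a)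
    (hr : r0 ≤ a) (h2 : a ≤ w2) (h1 : w2 ≤ w1) :
    ShN e T0 ![a, w1, w2] (fun z x => dt (e 0) (x - T0.pos z)) a z0 ρ r0 where
  ortho := he
  isQ := isQ_flat _ _
  a_le0 := le_rfl
  w0_le := h2
  w_le := h1
  r0_le := hr
  st0 := by
    intro z _ _ x τ hτ _ _
    have e1 : dt (e 0) (x + τ • e 0 - T0.pos z) - dt (e 0) (x - T0.pos z) = τ := by
      have h3 : dt (e 0) (e 0) = 1 := ortho_self_aux he 0
      have : dt (e 0) (x + τ • e 0 - T0.pos z) - dt (e 0) (x - T0.pos z) = τ * dt (e 0) (e 0) := by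
        simp only [dt, Pi.add_apply, Pi.sub_apply, Pi.smul_apply, smul_eq_mul]; ring
      rw [this, h3, mul_one]
    show τ / 2 ≤ dt (e 0) (x + τ • e 0 - T0.pos z) - dt (e 0) (x - T0.pos z) ∧
      dt (e 0) (x + τ • e 0 - T0.pos z) - dt (e 0) (x - T0.pos z) ≤ 2 * τ
    rw [e1]
    constructor <;> linarith
  sl1 := by
    intro z _ _ x τ hτ _ _
    have e1 : dt (e 0) (x + τ • e 1 - T0.pos z) - dt (e 0) (x - T0.pos z) = 0 := by
      have h3 : dt (e 0) (e 1) = 0 := by have := he 0 1; simpa using this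
      have : dt (e 0) (x + τ • e 1 - T0.pos z) - dt (e 0) (x - T0.pos z) = τ * dt (e 0) (e 1) := by
        simp only [dt, Pi.add_apply, Pi.sub_apply, Pi.smul_apply, smul_eq_mul]; ring
      rw [this, h3, mul_zero]
    show |dt (e 0) (x + τ • e 1 - T0.pos z) - dt (e 0) (x - T0.pos z)| ≤
      (![a, w1, w2] : V3) 0 / (![a, w1, w2] : V3) 1 * τ
    rw [e1, abs_zero]
    refine mul_nonneg (div_nonneg ha ?_) hτ
    exact ha.trans (h2.trans h1)
  sl2 := by
    intro z _ _ x τ hτ _ _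
    have e1 : dt (e 0) (x + τ • e 2 - T0.pos z) - dt (e 0) (x - T0.pos z) = 0 := by
      have h3 : dt (e 0) (e 2) = 0 := by have := he 0 2; simpa using this
      have : dt (e 0) (x + τ • e 2 - T0.pos z) - dt (e 0) (x - T0.pos z) = τ * dt (e 0) (e 2) := by
        simp only [dt, Pi.add_apply, Pi.sub_apply, Pi.smul_apply, smul_eq_mul]; ring
      rw [this, h3, mul_zero]
    show |dt (e 0) (x + τ • e 2 - T0.pos z) - dt (e 0) (x - T0.pos z)| ≤
      (![a, w1, w2] : V3) 0 / (![a, w1, w2] : V3) 2 * τ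
    rw [e1, abs_zero]
    exact mul_nonneg (div_nonneg ha (ha.trans h2)) hτ

/-- a box of half the size around a line of the sheet -/
theorem half_box {e : Fin 3 → V3} {c T0 : Ln4} {w : V3} {z : ℝ} (hT : InK e c w z (T0.pos z))
    {x : V3} (hx : InK e T0 (dbl3 ![w 0 / 2, w 1 / 2, w 2 / 2]) z x) : InK e c (dbl3 w) z x := by
  intro i
  have h1 := hx i
  have h2 := hT i
  have e1 : dt (e i) (x - c.pos z) = dt (e i) (x - T0.pos z) + dt (e i) (T0.pos z - c.pos z) := by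
    simp only [dt, Pi.sub_apply]; ring
  have h3 : dbl3 ![w 0 / 2, w 1 / 2, w 2 / 2] i = w i := by
    fin_cases i <;> simp [dbl3] <;> ring
  rw [h3] at h1
  rw [e1]
  refine (abs_add_le _ _).trans ?_
  show _ ≤ 2 * w i
  linarith

/-- half the sheet around one of its lines is legal -/
theorem shN_half {e : Fin 3 → V3} {c T0 : Ln4} {w : V3} {q : ℝ → V3 → ℝ} {a : ℝ}
    (h : ShN e c w q a z0 ρ r0) (hw0 : 0 < w 0) (hw1 : 0 < w 1) (hw2 : 0 < w 2)
    (hT : InSheet T0 e c w q a z0 ρ) (ha : 2 * a ≤ w 0) :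
    ShN e T0 ![w 0 / 2, w 1 / 2, w 2 / 2] (fun z x => q z x - q z (T0.pos z)) a z0 ρ r0 where
  ortho := h.ortho
  isQ := isQ_shift h.isQ T0
  a_le0 := by show a ≤ w 0 / 2; linarith
  w0_le := by show w 0 / 2 ≤ w 2 / 2; linarith [h.w0_le]
  w_le := by show w 2 / 2 ≤ w 1 / 2; linarith [h.w_le]
  r0_le := h.r0_le
  st0 := by
    intro z hz hz' x τ hτ h1 h2
    have := h.st0 z hz hz' x τ hτ (half_box (hT z hz hz').1 h1) (half_box (hT z hz hz').1 h2)
    show τ / 2 ≤ (q z (x + τ • e 0) - q z (T0.pos z)) - (q z x - q z (T0.pos z)) ∧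
      (q z (x + τ • e 0) - q z (T0.pos z)) - (q z x - q z (T0.pos z)) ≤ 2 * τ
    have e1 : (q z (x + τ • e 0) - q z (T0.pos z)) - (q z x - q z (T0.pos z)) =
      q z (x + τ • e 0) - q z x := by ring
    rw [e1]; exact this
  sl1 := by
    intro z hz hz' x τ hτ h1 h2
    have := h.sl1 z hz hz' x τ hτ (half_box (hT z hz hz').1 h1) (half_box (hT z hz hz').1 h2)
    show |(q z (x + τ • e 1) - q z (T0.pos z)) - (q z x - q z (T0.pos z))| ≤
      (w 0 / 2) / (w 1 / 2) * τ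
    have e1 : (q z (x + τ • e 1) - q z (T0.pos z)) - (q z x - q z (T0.pos z)) =
      q z (x + τ • e 1) - q z x := by ring
    have e2 : (w 0 / 2) / (w 1 / 2) = w 0 / w 1 := by field_simp
    rw [e1, e2]; exact this
  sl2 := by
    intro z hz hz' x τ hτ h1 h2
    have := h.sl2 z hz hz' x τ hτ (half_box (hT z hz hz').1 h1) (half_box (hT z hz hz').1 h2)
    show |(q z (x + τ • e 2) - q z (T0.pos z)) - (q z x - q z (T0.pos z))| ≤
      (w 0 / 2) / (w 2 / 2) * τ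
    have e1 : (q z (x + τ • e 2) - q z (T0.pos z)) - (q z x - q z (T0.pos z)) =
      q z (x + τ • e 2) - q z x := by ring
    have e2 : (w 0 / 2) / (w 2 / 2) = w 0 / w 2 := by field_simp
    rw [e1, e2]; exact this

/-- **the new marks are legal** (same cell, same resolution) -/
theorem mkS_shN (h : ShN S.e S.c S.w S.q S.a z0 ρ r0) (hr : 0 < r0) {T0 : Ln4}
    (hT : InSheet T0 S.e S.c S.w S.q S.a z0 ρ) :
    ShN (mkS S T0).e (mkS S T0).c (mkS S T0).w (mkS S T0).q (mkS S T0).a z0 ρ r0 := by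
  obtain ⟨pa, p0, p1, p2⟩ := pos_of h hr
  unfold mkS
  split_ifs with h1 h2
  · exact shN_half h p0 p1 p2 hT h2
  · exact shN_flat70 h.ortho T0 pa.le h.r0_le (by linarith) (by linarith [h.w_le])
  · exact shN_flat70 h.ortho T0 pa.le h.r0_le h.a_le h.w_le

/-- **MERGE**: a line `y` close to a line `T` with the label of `T0` lies in the mark of `T0`. -/
theorem merge (h : ShN S.e S.c S.w S.q S.a z0 ρ r0) (hr : 0 < r0) (hρ : 0 < ρ) {T T0 y : Ln4}
    (hl : lab9 S z0 ρ T = lab9 S z0 ρ T0)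
    (hy : ∀ z, z0 ≤ z → z ≤ z0 + ρ → ∀ i, |dt (S.e i) (y.pos z - T.pos z)| ≤ S.w i / 64)
    (hq : 2 * S.a ≤ S.w 0 → ∀ z, z0 ≤ z → z ≤ z0 + ρ →
      |S.q z (y.pos z) - S.q z (T.pos z)| ≤ S.a / 8) :
    InSheet y (mkS S T0).e (mkS S T0).c (mkS S T0).w (mkS S T0).q (mkS S T0).a z0 ρ := by
  obtain ⟨pa, p0, p1, p2⟩ := pos_of h hr
  have hd : ∀ z, z0 ≤ z → z ≤ z0 + ρ → ∀ i, |dt (S.e i) (y.pos z - T0.pos z)| ≤ S.w i / 32 := by
    intro z hz hz' i
    have e1 : dt (S.e i) (y.pos z - T0.pos z) =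
        dt (S.e i) (y.pos z - T.pos z) + dt (S.e i) (T.pos z - T0.pos z) := by
      simp only [dt, Pi.sub_apply]; ring
    rw [e1]
    refine (abs_add_le _ _).trans ?_
    have h1 := hy z hz hz' i
    have h2 := (lab_close h hr hρ hl hz hz').1 i
    linarith
  unfold mkS
  split_ifs with h1 h2
  · intro z hz hz'
    refine ⟨fun i => ?_, ?_⟩
    · have h3 := hd z hz hz' i
      have h4 : (![S.w 0 / 2, S.w 1 / 2, S.w 2 / 2] : V3) i = S.w i / 2 := by fin_cases i <;> rfl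
      show |dt (S.e i) (y.pos z - T0.pos z)| ≤ (![S.w 0 / 2, S.w 1 / 2, S.w 2 / 2] : V3) i
      rw [h4]
      have : 0 < S.w i := by fin_cases i; exacts [p0, p1, p2]
      linarith
    · show |S.q z (y.pos z) - S.q z (T0.pos z)| ≤ S.a
      have h3 := hq h2 z hz hz'
      have h4 := (lab_close h hr hρ hl hz hz').2
      have e1 : S.q z (y.pos z) - S.q z (T0.pos z) = (S.q z (y.pos z) - S.q z (T.pos z)) +
        (S.q z (T.pos z) - S.q z (T0.pos z)) := by ring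
      rw [e1]
      refine (abs_add_le _ _).trans ?_
      linarith
  · intro z hz hz'
    push Not at h2
    have k0 := hd z hz hz' 0
    have k1 := hd z hz hz' 1
    have k2 := hd z hz hz' 2
    refine ⟨fun i => ?_, ?_⟩
    · show |dt (S.e i) (y.pos z - T0.pos z)| ≤ (![S.a, S.w 1 / 2, S.w 2 / 2] : V3) i
      fin_cases i
      · show |dt (S.e 0) (y.pos z - T0.pos z)| ≤ S.a
        linarith
      · show |dt (S.e 1) (y.pos z - T0.pos z)| ≤ S.w 1 / 2
        linarith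
      · show |dt (S.e 2) (y.pos z - T0.pos z)| ≤ S.w 2 / 2
        linarith
    · show |dt (S.e 0) (y.pos z - T0.pos z)| ≤ S.a
      linarith
  · intro z hz hz'
    push Not at h1
    have k0 := hd z hz hz' 0
    have k1 := hd z hz hz' 1
    have k2 := hd z hz hz' 2
    have := h.w0_le
    refine ⟨fun i => ?_, ?_⟩
    · show |dt (S.e i) (y.pos z - T0.pos z)| ≤ (![S.a, S.w 1, S.w 2] : V3) i
      fin_cases i
      · show |dt (S.e 0) (y.pos z - T0.pos z)| ≤ S.a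
        linarith
      · show |dt (S.e 1) (y.pos z - T0.pos z)| ≤ S.w 1
        linarith
      · show |dt (S.e 2) (y.pos z - T0.pos z)| ≤ S.w 2
        linarith
    · show |dt (S.e 0) (y.pos z - T0.pos z)| ≤ S.a
      linarith

end

end Crest.Agent.R136.Mrg70
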