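import Crest.Agent.R136.Ff0_880
import Crest.Agent.R136.Cbx3_140

/-!
# R136 (S0187), U4 / PLAN 2: `flat_free`, leaf (F4): the meeting place (helper140)

`meet_lem` : the lines of a `U`-class `c` which cross, inside a `V`-class, a line of the `U`-class `c''`
with determinant `> y` all pass through one box of the class `c`, and it is a good one.
-/

set_option autoImplicit false
set_option linter.unusedVariables false

namespace Crest.Agent.R136.Mt140

open Finset Crest.Agent.R136.Sh605 Crest.Agent.R136.Ff880 Crest.Agent.R136.Cbx140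
open Crest.Agent.R136.Fl808 (InB Dy)
open Crest.Agent.R136.Cr318 (bx bx_close)
open Crest.Agent.R136.Hl706 (det3 det3_swap)

variable {ι κ κ' : Type}

/-- symmetric tilt bounds of a common line -/
theorem duo_tb {p : Pm} {P : Finset ι} {T : ι → Ln4} {U : Sy ι κ} {V : Sy ι κ'}
    (h : Duo p P T U V) {t : ι} (ht : t ∈ P) :
    Tb (U.e (U.u t)) (V.e (V.u t)) p.a p.w1 p.w2 (2 ^ p.j) (2 ^ p.k) := by
  rcases h.dy with hd | hd
  · exact tb_of_dy (hd t ht) (h.mU.ortho t ht) (h.mV.ortho t ht) h.ok.a0 h.ok.aw h.ok.ww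
  · exact (tb_of_dy (hd t ht) (h.mV.ortho t ht) (h.mU.ortho t ht) h.ok.a0 h.ok.aw h.ok.ww).symm

theorem duo_hlw {p : Pm} {P : Finset ι} {T : ι → Ln4} {U : Sy ι κ} {V : Sy ι κ'}
    (h : Duo p P T U V) : (2:ℝ) ^ p.j * p.w2 ≤ 2 * p.w1 := by
  obtain ⟨t, ht⟩ := h.ne
  rcases h.dy with hd | hd
  · exact (hd t ht).hlw (h.mU.ortho t ht) (h.mV.ortho t ht) h.ok.a0 h.ok.aw h.ok.ww
  · exact (hd t ht).hlw (h.mV.ortho t ht) (h.mU.ortho t ht) h.ok.a0 h.ok.aw h.ok.ww

/-- difference of the chart positions at the height `z0 + ρ i / n` -/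
theorem chart_diff (U : Sy ι κ) (p : Pm) (T : ι → Ln4) (c : κ) (s t : ι) (x : ℝ)
    (hw1 : 0 < p.w1) :
    (U.A p T c t - U.A p T c s) + (U.B p T c t - U.B p T c s) * x =
      dt (U.e c 1) ((T t).pos (p.z0 + p.ρ * x) - (T s).pos (p.z0 + p.ρ * x)) / (2 * p.w1) := by
  unfold Sy.A Sy.B
  rw [eq_div_iff (by positivity)]
  simp only [dt, Ln4.pos, Pi.sub_apply]
  field_simp
  ring

/-- **(F4)** -/
theorem meet_lem {p : Pm} {P : Finset ι} {T : ι → Ln4} {U : Sy ι κ} {V : Sy ι κ'} {G : ℝ}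
    {R : ℕ → ℝ} {K : ℕ} {θ : ℝ} (h : Duo p P T U V) (hθ : 0 < θ) (hθ1 : θ ≤ 1) (hG : 0 ≤ G)
    {y : ℝ} (hy : 0 < y) {k : ℕ} (hk : k < K) (hR : 10 ^ 8 / (θ * y * 2 ^ p.j) ≤ R k)
    (c c'' : κ) :
    ((Ndl372.join P U.u V.u (Cr p P T V U G R K θ) (Dt p V U) y c c'').card : ℝ) ≤
      G * R k * p.M := by
  classical
  have hw2 : 0 < p.w2 := h.ok.a0.trans_le h.ok.aw
  have hw1 : 0 < p.w1 := hw2.trans_le h.ok.ww
  have hρ := h.ok.ρ0
  have hM := h.ok.M0
  have hj : (0:ℝ) < 2 ^ p.j := by positivity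
  have hR0 : 0 ≤ R k := le_trans (by positivity) hR
  rcases (Ndl372.join P U.u V.u (Cr p P T V U G R K θ) (Dt p V U) y c c'').eq_empty_or_nonempty
    with h0 | ⟨t0, ht0⟩
  · rw [h0, Finset.card_empty]; push_cast; positivity
  unfold Ndl372.join at ht0
  obtain ⟨ht0P, ht0c, s0, hs0P, hs0c, hsv, hcr, hav⟩ := Finset.mem_filter.1 ht0
  obtain ⟨hVV, i0, hi0, hg0, -, hbx0, hth0⟩ := hcr
  set n : ℕ := 2 ^ p.j with hn
  have hn0 : 0 < n := by positivity
  have hnR : ((n : ℕ) : ℝ) = 2 ^ p.j := by rw [hn]; push_cast; ring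
  -- heights
  have hts : ∀ i : ℕ, i < n → p.z0 ≤ p.z0 + p.ρ * ((i : ℝ) / (n : ℕ)) ∧
      p.z0 + p.ρ * ((i : ℝ) / (n : ℕ)) ≤ p.z0 + p.ρ := by
    intro i hi
    have h1 : (0:ℝ) ≤ (i : ℝ) / (n : ℕ) := by positivity
    have h2 : (i : ℝ) / (n : ℕ) ≤ 1 := by
      rw [div_le_one (by exact_mod_cast hn0)]
      exact_mod_cast hi.le
    constructor
    · nlinarith
    · nlinarith
  set zs : ℝ := p.z0 + p.ρ * ((i0 : ℝ) / (n : ℕ)) with hzs
  -- same box: distance
  have hbox : ∀ {s t : ι} {i : ℕ} {d : κ'}, bx n (V.A p T d) (V.B p T d) i s =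
      bx n (V.A p T d) (V.B p T d) i t →
      |dt (V.e d 1) ((T s).pos (p.z0 + p.ρ * ((i : ℝ) / (n : ℕ))) -
        (T t).pos (p.z0 + p.ρ * ((i : ℝ) / (n : ℕ))))| ≤ 2 * (p.w1 / 2 ^ p.j) := by
    intro s t i d hb
    have h1 := bx_close hn0 hb.symm
    have h2 := chart_diff V p T d t s ((i : ℝ) / (n : ℕ)) hw1
    have h3 : |dt (V.e d 1) ((T s).pos (p.z0 + p.ρ * ((i : ℝ) / (n : ℕ))) -
        (T t).pos (p.z0 + p.ρ * ((i : ℝ) / (n : ℕ)))) / (2 * p.w1)| ≤ 1 / (n : ℕ) := by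
      rw [← h2]
      exact h1.le
    rw [abs_div, abs_of_pos (by positivity : 0 < 2 * p.w1), div_le_iff₀ (by positivity)] at h3
    refine h3.trans (le_of_eq ?_)
    rw [hnR]
    ring
  -- every member of the join passes through the place
  have hsub : Ndl372.join P U.u V.u (Cr p P T V U G R K θ) (Dt p V U) y c c'' ⊆
      P.filter fun s => U.u s = U.u t0 ∧
        |(U.A p T (U.u t0) s - U.A p T (U.u t0) t0) +
          (U.B p T (U.u t0) s - U.B p T (U.u t0) t0) * ((i0 : ℝ) / (2 ^ p.j : ℕ))| ≤ R k := by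
    intro t ht
    unfold Ndl372.join at ht
    obtain ⟨htP, htc, s, hsP, hsc, hsv', hcr', -⟩ := Finset.mem_filter.1 ht
    obtain ⟨hVV', i, hi, -, -, hbx, -⟩ := hcr'
    rw [Finset.mem_filter]
    refine ⟨htP, by rw [htc, ht0c], ?_⟩
    -- the four classes
    have hUt : U.u t = U.u t0 := by rw [htc, ht0c]
    have hUs : U.u s = U.u s0 := by rw [hsc, hs0c]
    have hav' : y * ((2 ^ p.j) ^ 2 * 2 ^ p.k * p.a * p.w2) ≤
        |det3 (U.e (U.u t0) 1) (V.e (V.u t0) 1) (U.e (U.u s0) 1)| * p.w1 ^ 2 := by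
      have h1 := hav
      unfold Dt at h1
      rw [if_pos hVV, lt_div_iff₀ (by have := h.ok.a0; positivity), det3_swap] at h1
      refine le_trans (le_of_eq ?_) (h1.le.trans (le_of_eq ?_))
      · ring
      · ring
    have key := place_dy (e := U.e (U.u t0)) (f := V.e (V.u t0)) (g := U.e (U.u s0))
      (f' := V.e (V.u t)) (T := T t0) (T2 := T s0) (T1 := T t) (T12 := T s)
      (bS := U.b (U.u t0)) (bv := V.b (V.u t0)) (bS2 := U.b (U.u s0)) (bv' := V.b (V.u t))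
      (Y := p.a) (w1 := p.w1) (w2 := p.w2) (θ := 2 * θ) (η := y) (c := 2) (z0 := p.z0) (ρ := p.ρ)
      (zs := zs) (z1 := p.z0 + p.ρ * ((i : ℝ) / (n : ℕ))) (j := p.j) (k' := p.k)
      (h.mU.ortho t0 ht0P) (h.mV.ortho t0 ht0P) (h.mU.ortho s0 hs0P) (h.mV.ortho t htP)
      h.ok.a0 h.ok.aw h.ok.ww hρ (by norm_num) (by positivity) (by linarith) hy
      (duo_tb h ht0P) (by have := duo_tb h hs0P; rwa [hsv] at this)
      (by have := duo_tb h htP; rwa [hUt] at this) (duo_hlw h)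
      (h.mU.mem t0 ht0P) (by have := h.mU.mem t htP; rwa [hUt] at this)
      (h.mV.mem t0 ht0P) (by have := h.mV.mem s0 hs0P; rwa [hsv] at this)
      (h.mU.mem s0 hs0P) (by have := h.mU.mem s hsP; rwa [hUs] at this)
      (h.mV.mem t htP) (by have := h.mV.mem s hsP; rwa [hsv'] at this)
      (hts i0 hi0) (hts i hi)
      (by
        have := hbox hbx0.symm
        exact this)
      (by
        have h1 := hth0.le
        unfold Sy.B at h1
        have e1 : dt (V.e (V.u t0) 1) ((T s0).v - (V.b (V.u t0)).v) * p.ρ / (2 * p.w1) -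
            dt (V.e (V.u t0) 1) ((T t0).v - (V.b (V.u t0)).v) * p.ρ / (2 * p.w1) =
            dt (V.e (V.u t0) 1) ((T s0).v - (T t0).v) * p.ρ / (2 * p.w1) := by
          simp only [dt, Pi.sub_apply]; ring
        rw [e1, abs_div, abs_mul, abs_of_pos hρ, abs_of_pos (by positivity : 0 < 2 * p.w1),
          le_div_iff₀ (by positivity)] at h1
        linarith)
      (hbox hbx.symm) hav'
    have h2 := chart_diff U p T (U.u t0) t0 t ((i0 : ℝ) / (n : ℕ)) hw1
    rw [h2, abs_div, abs_of_pos (by positivity : 0 < 2 * p.w1), div_le_iff₀ (by positivity)]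
    refine key.2.trans ?_
    have e2 : 3200000 * (2 / (2 * θ * y * 2 ^ p.j)) * p.w1 =
        (1600000 / (θ * y * 2 ^ p.j)) * (2 * p.w1) := by field_simp; ring
    rw [e2]
    refine mul_le_mul_of_nonneg_right (le_trans ?_ hR) (by positivity)
    gcongr
    norm_num
  calc _ ≤ ((P.filter fun s => U.u s = U.u t0 ∧
        |(U.A p T (U.u t0) s - U.A p T (U.u t0) t0) +
          (U.B p T (U.u t0) s - U.B p T (U.u t0) t0) * ((i0 : ℝ) / (2 ^ p.j : ℕ))| ≤ R k).card : ℝ) := by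
        exact_mod_cast Finset.card_le_card hsub
    _ ≤ _ := hg0 k hk

end Crest.Agent.R136.Mt140
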