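import Crest.Agent.R138.Tub3_70

/-!
# R136 / S0186, part 1 (helper639): `KM32` for tubes with `δ`-separated velocities

`Sq δ k`: the half open square of side `δ` with index `k`. `card_plank`: number of points, one in each
square, in a rectangle. `overlap`: the `L^{3/2}` bound of the overlap function of tubes whose velocities
are in different squares.
-/

set_option autoImplicit false

open MeasureTheory
open scoped ENNReal

namespace Crest.Agent.R136.GR639

open Crest.Agent.R138.Tub70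

/-- the square of side `δ` and index `k`. -/
def Sq (δ : ℝ) (k : ℤ × ℤ) (v : E2) : Prop := ⌊v 0 / δ⌋ = k.1 ∧ ⌊v 1 / δ⌋ = k.2

theorem abs_coord_le (x : E2) (i : Fin 2) : |x i| ≤ ‖x‖ := by
  rw [← Real.norm_eq_abs]; exact PiLp.norm_apply_le x i

theorem norm_sq_E2 (x : E2) : ‖x‖ ^ 2 = x 0 ^ 2 + x 1 ^ 2 := by
  rw [EuclideanSpace.norm_sq_eq]; simp [Fin.sum_univ_two, sq_abs]

theorem norm_sq_basis (b : OrthonormalBasis (Fin 2) ℝ E2) (x : E2) :
    ‖x‖ ^ 2 = (inner ℝ x (b 0)) ^ 2 + (inner ℝ x (b 1)) ^ 2 := by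
  have := b.sum_sq_norm_inner_right x
  rw [Fin.sum_univ_two] at this
  rw [← this]
  simp only [Real.norm_eq_abs, sq_abs]
  rw [real_inner_comm, real_inner_comm x]

/-- **number of velocities in a rectangle**. -/
theorem card_plank {δ : ℝ} (hδ : 0 < δ) (K : Finset (ℤ × ℤ)) (v : ℤ × ℤ → E2)
    (hv : ∀ k ∈ K, Sq δ k (v k)) (b : OrthonormalBasis (Fin 2) ℝ E2) (v0 : E2) (s : Fin 2 → ℝ)
    (hs : ∀ j, 2 / 5 * δ ≤ s j) (hin : ∀ k ∈ K, ∀ j, |inner ℝ (v k - v0) (b j)| ≤ s j) :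
    (K.card : ℝ) ≤ 1600 * (s 0 * s 1) / δ ^ 2 := by
  classical
  set F : ℤ × ℤ → ℤ × ℤ := fun k => (⌊inner ℝ (v k - v0) (b 0) / δ⌋, ⌊inner ℝ (v k - v0) (b 1) / δ⌋)
    with hF
  -- the fibres
  have hfib : ∀ a ∈ K.image F, (K.filter fun k => F k = a).card ≤ 25 := by
    intro a ha
    obtain ⟨k0, hk0, rfl⟩ := Finset.mem_image.1 ha
    have hsub : (K.filter fun k => F k = F k0) ⊆
        (Finset.Icc (k0.1 - 2) (k0.1 + 2)) ×ˢ (Finset.Icc (k0.2 - 2) (k0.2 + 2)) := by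
      intro k hk
      rw [Finset.mem_filter] at hk
      have e0 := congrArg Prod.fst hk.2
      have e1 := congrArg Prod.snd hk.2
      have h0 := Int.abs_sub_lt_one_of_floor_eq_floor e0
      have h1 := Int.abs_sub_lt_one_of_floor_eq_floor e1
      rw [← sub_div, abs_div, abs_of_pos hδ, div_lt_one hδ, ← inner_sub_left] at h0 h1
      have e : v k - v0 - (v k0 - v0) = v k - v k0 := by abel
      rw [e] at h0 h1
      have hn : ‖v k - v k0‖ ^ 2 ≤ 2 * δ ^ 2 := by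
        rw [norm_sq_basis b]
        have := sq_lt_sq' (by linarith [abs_nonneg (inner ℝ (v k - v k0) (b 0) : ℝ)]) h0
        have h2 := sq_lt_sq' (by linarith [abs_nonneg (inner ℝ (v k - v k0) (b 1) : ℝ)]) h1
        rw [sq_abs] at this h2
        linarith
      have hc : ∀ i : Fin 2, |(v k) i - (v k0) i| < 3/2 * δ := by
        intro i
        have h3 := abs_coord_le (v k - v k0) i
        have h4 : ‖v k - v k0‖ < 3/2 * δ := by
          by_contra hcon
          push Not at hcon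
          have : (3/2 * δ) ^ 2 ≤ ‖v k - v k0‖ ^ 2 := by gcongr
          nlinarith [sq_nonneg δ, mul_pos hδ hδ]
        have h5 : (v k - v k0) i = (v k) i - (v k0) i := rfl
        rw [h5] at h3
        linarith
      have hi : ∀ (x y : ℝ) (m n : ℤ), ⌊x / δ⌋ = m → ⌊y / δ⌋ = n → |x - y| < 3/2 * δ →
          m ∈ Finset.Icc (n - 2) (n + 2) := by
        intro x y m n hm hn' hxy
        have h6 : |x / δ - y / δ| < 3/2 := by
          rw [← sub_div, abs_div, abs_of_pos hδ, div_lt_iff₀ hδ]; exact hxy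
        have h7 := abs_lt.1 h6
        have a1 := Int.floor_le (x / δ)
        have a2 := Int.lt_floor_add_one (x / δ)
        have a3 := Int.floor_le (y / δ)
        have a4 := Int.lt_floor_add_one (y / δ)
        rw [hm] at a1 a2
        rw [hn'] at a3 a4
        rw [Finset.mem_Icc]
        have b1 : (m : ℝ) < n + 3 := by linarith
        have b2 : (n : ℝ) - 3 < m := by linarith
        have b1' : m < n + 3 := by exact_mod_cast b1
        have b2' : n - 3 < m := by exact_mod_cast b2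
        omega
      rw [Finset.mem_product]
      exact ⟨hi _ _ _ _ (hv k hk.1).1 (hv k0 hk0).1 (hc 0),
        hi _ _ _ _ (hv k hk.1).2 (hv k0 hk0).2 (hc 1)⟩
    refine (Finset.card_le_card hsub).trans ?_
    rw [Finset.card_product]
    simp only [Int.card_Icc]
    have e1 : (k0.1 + 2 + 1 - (k0.1 - 2)).toNat = 5 := by omega
    have e2 : (k0.2 + 2 + 1 - (k0.2 - 2)).toNat = 5 := by omega
    rw [e1, e2]
  have hcard : K.card ≤ 25 * (K.image F).card := by
    have := Finset.card_le_mul_card_image (s := K) (f := F) 25 hfib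
    exact this
  -- the image
  have him : ((K.image F).card : ℝ) ≤ (2 * (s 0 / δ) + 2) * (2 * (s 1 / δ) + 2) := by
    have hsub : K.image F ⊆ (Finset.Icc ⌊-(s 0 / δ)⌋ ⌊s 0 / δ⌋) ×ˢ (Finset.Icc ⌊-(s 1 / δ)⌋ ⌊s 1 / δ⌋) := by
      intro a ha
      obtain ⟨k, hk, rfl⟩ := Finset.mem_image.1 ha
      have key : ∀ j, ⌊(inner ℝ (v k - v0) (b j) : ℝ) / δ⌋ ∈ Finset.Icc ⌊-(s j / δ)⌋ ⌊s j / δ⌋ := by
        intro j
        have h := abs_le.1 (hin k hk j)
        rw [Finset.mem_Icc]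
        constructor
        · apply Int.floor_le_floor
          rw [← neg_div]
          exact div_le_div_of_nonneg_right h.1 hδ.le
        · exact Int.floor_le_floor (div_le_div_of_nonneg_right h.2 hδ.le)
      rw [Finset.mem_product]
      exact ⟨key 0, key 1⟩
    have h1 : ∀ x : ℝ, 0 ≤ x → ((Finset.Icc ⌊-x⌋ ⌊x⌋).card : ℝ) ≤ 2 * x + 2 := by
      intro x hx
      rw [Int.card_Icc]
      have a1 := Int.floor_le x
      have a2 := Int.lt_floor_add_one (-x)
      have a3 : ⌊-x⌋ ≤ ⌊x⌋ := Int.floor_le_floor (by linarith)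
      have : (((⌊x⌋ + 1 - ⌊-x⌋).toNat : ℤ) : ℝ) = (⌊x⌋ : ℝ) + 1 - ⌊-x⌋ := by
        rw [Int.toNat_of_nonneg (by omega)]; push_cast; ring
      have h' : (((⌊x⌋ + 1 - ⌊-x⌋).toNat : ℕ) : ℝ) = (⌊x⌋ : ℝ) + 1 - ⌊-x⌋ := by
        exact_mod_cast this
      rw [h']; linarith
    have hs' : ∀ j, 0 ≤ s j / δ := fun j => by
      have := hs j
      have : 0 ≤ s j := by nlinarith
      positivity
    calc ((K.image F).card : ℝ) ≤ (((Finset.Icc ⌊-(s 0 / δ)⌋ ⌊s 0 / δ⌋) ×ˢ
            (Finset.Icc ⌊-(s 1 / δ)⌋ ⌊s 1 / δ⌋)).card : ℝ) := by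
            exact_mod_cast Finset.card_le_card hsub
      _ = ((Finset.Icc ⌊-(s 0 / δ)⌋ ⌊s 0 / δ⌋).card : ℝ) *
            ((Finset.Icc ⌊-(s 1 / δ)⌋ ⌊s 1 / δ⌋).card : ℝ) := by
            rw [Finset.card_product]; push_cast; rfl
      _ ≤ _ := mul_le_mul (h1 _ (hs' 0)) (h1 _ (hs' 1)) (Nat.cast_nonneg _)
            (by linarith [hs' 0])
  have hs2 : ∀ j, 2 ≤ 5 * (s j / δ) := fun j => by
    have : 2 / 5 ≤ s j / δ := by rw [le_div_iff₀ hδ]; exact hs j
    linarith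
  have hfin : (2 * (s 0 / δ) + 2) * (2 * (s 1 / δ) + 2) ≤ 64 * ((s 0 / δ) * (s 1 / δ)) := by
    have p0 := hs2 0
    have p1 := hs2 1
    calc (2 * (s 0 / δ) + 2) * (2 * (s 1 / δ) + 2) ≤ (8 * (s 0 / δ)) * (8 * (s 1 / δ)) := by
          apply mul_le_mul <;> linarith
      _ = _ := by ring
  have : (K.card : ℝ) ≤ 25 * ((K.image F).card : ℝ) := by exact_mod_cast hcard
  calc (K.card : ℝ) ≤ 25 * ((K.image F).card : ℝ) := this
    _ ≤ 25 * (64 * ((s 0 / δ) * (s 1 / δ))) := by linarith [him.trans hfin]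
    _ = 1600 * (s 0 * s 1) / δ ^ 2 := by field_simp; ring

/-- number of all squares. -/
theorem card_all {δ : ℝ} (hδ : 0 < δ) (hδ1 : δ ≤ 1) (K : Finset (ℤ × ℤ)) (v : ℤ × ℤ → E2)
    (hv : ∀ k ∈ K, Sq δ k (v k)) (hv2 : ∀ k ∈ K, ‖v k‖ ≤ 2) :
    (K.card : ℝ) ≤ 6400 / δ ^ 2 := by
  have h := card_plank hδ K v hv (EuclideanSpace.basisFun (Fin 2) ℝ) 0 (fun _ => 2)
    (fun _ => by linarith) (fun k hk j => by
      refine (abs_real_inner_le_norm _ _).trans ?_
      rw [(EuclideanSpace.basisFun (Fin 2) ℝ).orthonormal.1 j, mul_one, sub_zero]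
      exact hv2 k hk)
  norm_num at h ⊢
  exact h

/-- **overlap of tubes with separated velocities**. -/
theorem overlap (hKM : ∀ V : ℝ, KM32 V) (ε : ℝ) (hε : 0 < ε) : ∃ C : ℝ, 0 ≤ C ∧
    ∀ δ : ℝ, 0 < δ → δ < 1 → ∀ (K : Finset (ℤ × ℤ)) (p v : ℤ × ℤ → E2),
      (∀ k ∈ K, Sq δ k (v k)) → (∀ k ∈ K, ‖v k‖ ≤ 2) → (∀ k ∈ K, ‖p k‖ ≤ 10) →
      ∫⁻ t in Set.Icc (-5 : ℝ) 5, ∫⁻ x in {x : E2 | ‖x‖ ≤ 5},
          (∑ k ∈ K, (if ‖x - p k - t • v k‖ ≤ 2 * δ then (1 : ℝ≥0∞) else 0)) ^ (3/2 : ℝ) ≤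
        ENNReal.ofReal (C * δ ^ (-ε) * (δ ^ 2 * K.card)) := by
  classical
  obtain ⟨C, hC, h⟩ := tubes_KM (hKM 2) ε hε
  refine ⟨C * (2/5) ^ (-ε) * Real.sqrt 256 * 20, by positivity, ?_⟩
  intro δ hδ hδ1 K p v hv hv2 hp
  have key := h (2 * δ) 5 (by positivity) (by linarith) K (fun k => p k) (fun k => - v k)
    (fun _ => 1) (fun _ => by norm_num) (fun k => by norm_num; exact hp k k.2)
    (fun k => by rw [norm_neg]; exact hv2 k k.2) 256 (by norm_num)
    (fun b s x0 c0 hs => by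
      have hs0 : ∀ j, 2 / 5 * δ ≤ s j := fun j => by have := (hs j).1; linarith
      set K' : Finset (ℤ × ℤ) := K.filter (fun k => ∀ t : ℝ, |t| ≤ 5 →
        sl c0 b (fun i => s i * 5) x0 t (p k - t • (- v k))) with hK'
      have h1 : ∑ k : K, (if ∀ t : ℝ, |t| ≤ 5 → sl c0 b (fun i => s i * 5) x0 t (p k - t • (- v k)) then
          (1 : ℝ) * (2 * δ) ^ 2 else 0) = (K'.card : ℝ) * (2 * δ) ^ 2 := by
        rw [Finset.sum_coe_sort K (fun k => if ∀ t : ℝ, |t| ≤ 5 →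
          sl c0 b (fun i => s i * 5) x0 t (p k - t • (- v k)) then (1 : ℝ) * (2 * δ) ^ 2 else 0),
          ← Finset.sum_filter]
        simp [K']
      rw [h1]
      have h2 := card_plank hδ K' v (fun k hk => hv k (Finset.mem_filter.1 hk).1) b (-c0) s hs0
        (fun k hk j => by
          have h3 := (Finset.mem_filter.1 hk).2
          have h4 := h3 5 (by norm_num) j
          have h5 := h3 (-5) (by norm_num) j
          have e : (10 : ℝ) * inner ℝ (v k - -c0) (b j) =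
              inner ℝ (p k - (5 : ℝ) • (- v k) - x0 + (5 : ℝ) • c0) (b j) -
              inner ℝ (p k - (-5 : ℝ) • (- v k) - x0 + (-5 : ℝ) • c0) (b j) := by
            simp only [inner_sub_left, inner_add_left, inner_smul_left, inner_neg_left, smul_neg,
              neg_smul, neg_neg, sub_neg_eq_add]
            simp
            ring
          have h6 : |(10 : ℝ) * inner ℝ (v k - -c0) (b j)| ≤ 10 * s j := by
            rw [e]
            refine (abs_sub _ _).trans ?_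
            linarith
          rw [abs_mul, abs_of_pos (by norm_num : (0:ℝ) < 10)] at h6
          linarith)
      calc (K'.card : ℝ) * (2 * δ) ^ 2 ≤ 1600 * (s 0 * s 1) / δ ^ 2 * (2 * δ) ^ 2 := by gcongr
        _ = 256 * (s 0 * s 1 * 5 ^ 2) := by field_simp; ring)
    (fun x t => ∑ k ∈ K, (if ‖x - p k - t • v k‖ ≤ 2 * δ then (1 : ℝ≥0∞) else 0))
    (fun x t _ _ => by
      rw [← Finset.sum_coe_sort K]
      refine Finset.sum_le_sum fun k _ => ?_
      rw [smul_neg, ← sub_eq_add_neg, ENNReal.ofReal_one])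
  refine key.trans (ENNReal.ofReal_le_ofReal ?_)
  rw [Finset.sum_coe_sort K (fun _ => (1 : ℝ) * (2 * δ) ^ 2), Finset.sum_const, nsmul_eq_mul]
  have e : (2 * δ / 5) ^ (-ε) = (2/5) ^ (-ε) * δ ^ (-ε) := by
    rw [← Real.mul_rpow (by norm_num) hδ.le]; congr 1; ring
  rw [e]
  apply le_of_eq
  ring

end Crest.Agent.R136.GR639
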