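import Mathlib

/-!
# R136 / S0186, part 2 (helper639): level sets, harmonic sum

`harm`: from the level set bounds to the sum of cubes (loss: a harmonic number). `lev`: Hoelder.
-/

set_option autoImplicit false

open MeasureTheory
open scoped ENNReal

namespace Crest.Agent.R136.GR639

open Classical in
/-- from level sets to the sum of cubes. -/
theorem harm {ι : Type*} (A : ι → ℝ≥0∞) (M : ℝ≥0∞) : ∀ (n : ℕ) (K : Finset ι), K.card = n →
    (∀ t : ℝ≥0∞, t ^ 3 * ((K.filter fun k => t ≤ A k).card : ℝ≥0∞) ≤ M) →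
    ∑ k ∈ K, A k ^ 3 ≤ M * ∑ i ∈ Finset.range n, ((i : ℝ≥0∞) + 1)⁻¹ := by
  intro n
  induction n with
  | zero =>
    intro K hK _
    rw [Finset.card_eq_zero] at hK
    subst hK; simp
  | succ n ih =>
    intro K hK h
    have hne : K.Nonempty := by rw [← Finset.card_pos]; omega
    obtain ⟨m, hm, hmin⟩ := Finset.exists_min_image K A hne
    have h1 := h (A m)
    rw [Finset.filter_true_of_mem (fun k hk => hmin k hk), hK] at h1
    have h2 : A m ^ 3 ≤ M * ((n : ℝ≥0∞) + 1)⁻¹ := by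
      have hn0 : ((n + 1 : ℕ) : ℝ≥0∞) ≠ 0 := by exact_mod_cast Nat.succ_ne_zero n
      have hnt : ((n + 1 : ℕ) : ℝ≥0∞) ≠ ⊤ := ENNReal.natCast_ne_top _
      have := ENNReal.le_div_iff_mul_le (a := A m ^ 3) (b := ((n + 1 : ℕ) : ℝ≥0∞)) (c := M)
        (Or.inl hn0) (Or.inl hnt)
      rw [ENNReal.div_eq_inv_mul, mul_comm] at this
      have h3 := this.2 h1
      push_cast at h3
      exact h3
    have h3 := ih (K.erase m) (by rw [Finset.card_erase_of_mem hm, hK]; rfl) (fun t => by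
      refine le_trans ?_ (h t)
      gcongr
      exact Finset.erase_subset _ _)
    rw [← Finset.sum_erase_add K _ hm, Finset.sum_range_succ, mul_add]
    exact add_le_add h3 h2

theorem sum_inv_le (n : ℕ) : ∑ i ∈ Finset.range n, ((i : ℝ≥0∞) + 1)⁻¹ ≤
    ENNReal.ofReal (1 + Real.log n) := by
  have h := harmonic_le_one_add_log n
  have e : ∑ i ∈ Finset.range n, ((i : ℝ≥0∞) + 1)⁻¹ = ENNReal.ofReal ((harmonic n : ℚ) : ℝ) := by
    unfold harmonic
    push_cast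
    rw [ENNReal.ofReal_sum_of_nonneg (fun i _ => by positivity)]
    refine Finset.sum_congr rfl fun i _ => ?_
    rw [ENNReal.ofReal_inv_of_pos (by positivity), ENNReal.ofReal_add (by positivity) (by norm_num)]
    simp
  rw [e]
  exact ENNReal.ofReal_le_ofReal h

/-- the harmonic loss is `≤ C δ^-ε`. -/
theorem harm_loss (ε : ℝ) (hε : 0 < ε) : ∃ C : ℝ, 0 ≤ C ∧ ∀ δ : ℝ, 0 < δ → δ < 1 → ∀ n : ℕ,
    (n : ℝ) ≤ 6400 / δ ^ 2 →
    ∑ i ∈ Finset.range n, ((i : ℝ≥0∞) + 1)⁻¹ ≤ ENNReal.ofReal (C * δ ^ (-ε)) := by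
  refine ⟨1 + 6400 ^ (ε / 2) / (ε / 2), by positivity, ?_⟩
  intro δ hδ hδ1 n hn
  refine (sum_inv_le n).trans (ENNReal.ofReal_le_ofReal ?_)
  have h1 : (1 : ℝ) ≤ δ ^ (-ε) := Real.one_le_rpow_of_pos_of_le_one_of_nonpos hδ hδ1.le (by linarith)
  have h2 : Real.log n ≤ (n : ℝ) ^ (ε / 2) / (ε / 2) :=
    Real.log_le_rpow_div (Nat.cast_nonneg n) (by positivity)
  have h3 : (n : ℝ) ^ (ε / 2) ≤ 6400 ^ (ε / 2) * δ ^ (-ε) := by
    calc (n : ℝ) ^ (ε / 2) ≤ (6400 / δ ^ 2) ^ (ε / 2) :=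
          Real.rpow_le_rpow (Nat.cast_nonneg n) hn (by positivity)
      _ = 6400 ^ (ε / 2) * δ ^ (-ε) := by
          rw [Real.div_rpow (by norm_num) (by positivity), div_eq_mul_inv,
            ← Real.rpow_neg (by positivity)]
          congr 1
          rw [← Real.rpow_natCast δ 2, ← Real.rpow_mul hδ.le]
          congr 1
          push_cast; ring
  calc 1 + Real.log n ≤ δ ^ (-ε) + (6400 ^ (ε / 2) * δ ^ (-ε)) / (ε / 2) := by
        have : (n : ℝ) ^ (ε / 2) / (ε / 2) ≤ (6400 ^ (ε / 2) * δ ^ (-ε)) / (ε / 2) := by gcongr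
        linarith
    _ = _ := by ring

variable {X : Type*} [MeasurableSpace X]

open Classical in
/-- **level sets by Hoelder**. -/
theorem lev {ι : Type*} (μ : Measure X) (B : Set X) (hB : MeasurableSet B) (K : Finset ι)
    (T : ι → Set X) (hT : ∀ k ∈ K, MeasurableSet (T k)) (hTB : ∀ k ∈ K, T k ⊆ B)
    (V : ℝ≥0∞) (hV0 : V ≠ 0) (hVt : V ≠ ⊤) (hV : ∀ k ∈ K, V ≤ μ (T k)) (hTt : ∀ k ∈ K, μ (T k) ≠ ⊤)
    (g : X → ℝ≥0∞) (hg : Measurable g) (D : ℝ≥0∞)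
    (hD : ∀ K' ⊆ K, ∫⁻ x in B, (∑ k ∈ K', (T k).indicator (fun _ => (1 : ℝ≥0∞)) x) ^ (3/2 : ℝ) ∂μ ≤
      D * K'.card) (t : ℝ≥0∞) :
    t ^ 3 * ((K.filter fun k => t ≤ (μ (T k))⁻¹ * ∫⁻ x in T k, g x ∂μ).card : ℝ≥0∞) ≤
      (∫⁻ x in B, g x ^ 3 ∂μ) * D ^ 2 * (V ^ 3)⁻¹ := by
  set K' := K.filter fun k => t ≤ (μ (T k))⁻¹ * ∫⁻ x in T k, g x ∂μ with hK'
  set N : ℝ≥0∞ := (K'.card : ℝ≥0∞) with hN
  set I := ∫⁻ x in B, g x ^ 3 ∂μ with hI
  have hsub : K' ⊆ K := Finset.filter_subset _ _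
  rcases Nat.eq_zero_or_pos K'.card with h0 | hpos
  · rw [hN, h0]; simp
  have hN0 : N ≠ 0 := by rw [hN]; exact_mod_cast hpos.ne'
  have hNt : N ≠ ⊤ := ENNReal.natCast_ne_top _
  have hS : Measurable (fun x => ∑ k ∈ K', (T k).indicator (fun _ => (1 : ℝ≥0∞)) x) :=
    Finset.measurable_sum _ fun k hk => measurable_const.indicator (hT k (hsub hk))
  have h1 : t * N * V ≤ ∫⁻ x in B, g x * (∑ k ∈ K', (T k).indicator (fun _ => (1 : ℝ≥0∞)) x) ∂μ := by
    have e : ∫⁻ x in B, g x * (∑ k ∈ K', (T k).indicator (fun _ => (1 : ℝ≥0∞)) x) ∂μ =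
        ∑ k ∈ K', ∫⁻ x in T k, g x ∂μ := by
      simp only [Finset.mul_sum]
      have hmeas : ∀ k ∈ K', Measurable (fun x => g x * (T k).indicator (fun _ => (1 : ℝ≥0∞)) x) :=
        fun k hk => hg.mul (measurable_const.indicator (hT k (hsub hk)))
      rw [lintegral_finsetSum K' hmeas]
      refine Finset.sum_congr rfl fun k hk => ?_
      have e2 : ∀ x, g x * (T k).indicator (fun _ => (1 : ℝ≥0∞)) x = (T k).indicator g x := by
        intro x
        by_cases hx : x ∈ T k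
        · simp [hx]
        · simp [hx]
      simp only [e2]
      rw [lintegral_indicator (hT k (hsub hk)), Measure.restrict_restrict (hT k (hsub hk)),
        Set.inter_eq_left.2 (hTB k (hsub hk))]
    rw [e]
    calc t * N * V = ∑ k ∈ K', t * V := by
          rw [Finset.sum_const, nsmul_eq_mul]; ring
      _ ≤ _ := Finset.sum_le_sum fun k hk => by
          have hk1 := hsub hk
          have hk2 := (Finset.mem_filter.1 hk).2
          have hm0 : μ (T k) ≠ 0 := fun h => hV0 (le_antisymm ((hV k hk1).trans h.le) (by simp))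
          calc t * V ≤ ((μ (T k))⁻¹ * ∫⁻ x in T k, g x ∂μ) * μ (T k) := by
                gcongr
                exact hV k hk1
            _ = (μ (T k) * (μ (T k))⁻¹) * ∫⁻ x in T k, g x ∂μ := by ring
            _ = _ := by rw [ENNReal.mul_inv_cancel hm0 (hTt k hk1), one_mul]
  have hpq : (3 : ℝ).HolderConjugate (3/2) := by
    rw [Real.holderConjugate_iff]; norm_num
  have h2 := ENNReal.lintegral_mul_le_Lp_mul_Lq (μ.restrict B) hpq hg.aemeasurable hS.aemeasurable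
  simp only [Pi.mul_apply] at h2
  have h3 : t * N * V ≤ I ^ (1/3 : ℝ) * (D * N) ^ (2/3 : ℝ) := by
    refine h1.trans (h2.trans ?_)
    have e1 : (∫⁻ a in B, g a ^ (3:ℝ) ∂μ) = I := by
      simp only [hI]
      congr 1; funext x
      exact_mod_cast ENNReal.rpow_natCast (g x) 3
    rw [e1]
    have e2 : (1 / (3/2) : ℝ) = 2/3 := by norm_num
    rw [e2]
    gcongr
    exact hD K' hsub
  have h4 : (t * N * V) ^ 3 ≤ I * (D * N) ^ 2 := by
    calc (t * N * V) ^ 3 ≤ (I ^ (1/3 : ℝ) * (D * N) ^ (2/3 : ℝ)) ^ 3 := by gcongr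
      _ = I * (D * N) ^ 2 := by
        rw [mul_pow, ← ENNReal.rpow_natCast (I ^ (1/3 : ℝ)), ← ENNReal.rpow_natCast ((D*N) ^ (2/3:ℝ)),
          ← ENNReal.rpow_mul, ← ENNReal.rpow_mul, ← ENNReal.rpow_natCast (D * N)]
        norm_num
  have hN2 : N ^ 2 * (N ^ 2)⁻¹ = 1 := ENNReal.mul_inv_cancel (pow_ne_zero _ hN0) (ENNReal.pow_ne_top hNt)
  have hV3 : V ^ 3 * (V ^ 3)⁻¹ = 1 := ENNReal.mul_inv_cancel (pow_ne_zero _ hV0) (ENNReal.pow_ne_top hVt)
  calc t ^ 3 * N = t ^ 3 * N * (N ^ 2 * (N ^ 2)⁻¹) * (V ^ 3 * (V ^ 3)⁻¹) := by rw [hN2, hV3]; ring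
    _ = (t * N * V) ^ 3 * ((N ^ 2)⁻¹ * (V ^ 3)⁻¹) := by ring
    _ ≤ (I * (D * N) ^ 2) * ((N ^ 2)⁻¹ * (V ^ 3)⁻¹) := by gcongr
    _ = I * D ^ 2 * (V ^ 3)⁻¹ * (N ^ 2 * (N ^ 2)⁻¹) := by ring
    _ = I * D ^ 2 * (V ^ 3)⁻¹ := by rw [hN2, mul_one]

end Crest.Agent.R136.GR639
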