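import Crest.Prelude.Def_Kakeya
import Crest.Agent.R136.Mx1_639
import Crest.Agent.R136.Mx2_639

/-!
# R136 / S0186, part 3 (helper639): tubes of `ℝ³` in the chart `ω 2 ≥ 1/2`, local estimate
-/

set_option autoImplicit false

open MeasureTheory
open scoped ENNReal

namespace Crest.Agent.R136.GR639

open Crest.Agent.R138.Tub70 Crest.AnalysisR.Kakeya

/-- three space -/
abbrev E3 := EuclideanSpace ℝ (Fin 3)

/-- first two coordinates -/
noncomputable def pr (y : E3) : E2 := !₂[y 0, y 1]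

/-- point with given coordinates -/
noncomputable def mk (x : E2) (z : ℝ) : E3 := !₂[x 0, x 1, z]

@[simp] theorem pr_0 (y : E3) : pr y 0 = y 0 := rfl
@[simp] theorem pr_1 (y : E3) : pr y 1 = y 1 := rfl
@[simp] theorem mk_0 (x : E2) (z : ℝ) : mk x z 0 = x 0 := rfl
@[simp] theorem mk_1 (x : E2) (z : ℝ) : mk x z 1 = x 1 := rfl
@[simp] theorem mk_2 (x : E2) (z : ℝ) : mk x z 2 = z := rfl

@[simp] theorem pr_mk (x : E2) (z : ℝ) : pr (mk x z) = x := by
  ext i; fin_cases i <;> rfl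

theorem mk_pr (y : E3) : mk (pr y) (y 2) = y := by
  ext i; fin_cases i <;> rfl

theorem norm_sq_E3 (y : E3) : ‖y‖ ^ 2 = ‖pr y‖ ^ 2 + y 2 ^ 2 := by
  rw [norm_sq_E2, EuclideanSpace.norm_sq_eq]
  simp [Fin.sum_univ_three, sq_abs]

theorem norm_pr_le (y : E3) : ‖pr y‖ ≤ ‖y‖ := by
  have := norm_sq_E3 y
  exact abs_le_of_sq_le_sq' (by nlinarith [sq_nonneg (y 2)]) (norm_nonneg _) |>.2

theorem abs_2_le (y : E3) : |y 2| ≤ ‖y‖ := by
  have := norm_sq_E3 y
  exact abs_le_of_sq_le_sq (by nlinarith [sq_nonneg ‖pr y‖]) (norm_nonneg _)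

theorem measurable_pr : Measurable pr := by
  apply Continuous.measurable
  unfold pr
  fun_prop

theorem measurable_mk : Measurable (fun q : ℝ × E2 => mk q.2 q.1) := by
  apply Continuous.measurable
  unfold mk
  fun_prop

/-- Fubini in the coordinates `(z, x)`. -/
theorem lintegral_E3 {g : E3 → ℝ≥0∞} (hg : Measurable g) :
    ∫⁻ y, g y = ∫⁻ z : ℝ, ∫⁻ x : E2, g (mk x z) := by
  have h1 := (PiLp.volume_preserving_toLp (Fin 3)).lintegral_comp hg
  have h2 := (volume_preserving_piFinSuccAbove (fun _ : Fin 3 => ℝ) 2).symm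
  have hgm : Measurable (fun q : Fin 3 → ℝ => g (WithLp.toLp 2 q)) :=
    hg.comp (WithLp.measurable_toLp _ _)
  have h3 := h2.lintegral_comp hgm
  have h5 : ∫⁻ q : ℝ × (Fin 2 → ℝ), g (WithLp.toLp 2
      ((MeasurableEquiv.piFinSuccAbove (fun _ : Fin 3 => ℝ) 2).symm q)) ∂(volume.prod volume) =
      ∫⁻ z : ℝ, ∫⁻ x : Fin 2 → ℝ, g (WithLp.toLp 2
      ((MeasurableEquiv.piFinSuccAbove (fun _ : Fin 3 => ℝ) 2).symm (z, x))) :=
    lintegral_prod (fun q : ℝ × (Fin 2 → ℝ) => g (WithLp.toLp 2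
      ((MeasurableEquiv.piFinSuccAbove (fun _ : Fin 3 => ℝ) 2).symm q)))
      (hgm.comp (MeasurableEquiv.piFinSuccAbove (fun _ : Fin 3 => ℝ) 2).symm.measurable).aemeasurable
  rw [← h1, ← h3, Measure.volume_eq_prod, h5]
  refine lintegral_congr fun z => ?_
  have h4 := (PiLp.volume_preserving_toLp (Fin 2)).lintegral_comp
    (f := fun x : E2 => g (mk x z)) (hg.comp (measurable_mk.comp measurable_prodMk_left))
  rw [← h4]
  refine lintegral_congr fun x => ?_
  congr 1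
  ext i
  fin_cases i <;> rfl

/-- the velocity -/
noncomputable def vel (ω : E3) : E2 := (ω 2)⁻¹ • pr ω

theorem vel_sq {ω : E3} (h1 : ‖ω‖ = 1) (h2 : 1 / 2 ≤ ω 2) : 1 + ‖vel ω‖ ^ 2 = ((ω 2) ^ 2)⁻¹ := by
  have h := norm_sq_E3 ω
  rw [h1] at h
  have h0 : (0 : ℝ) < ω 2 := by linarith
  unfold vel
  rw [norm_smul, mul_pow, norm_inv, Real.norm_eq_abs, inv_pow, sq_abs]
  have : ‖pr ω‖ ^ 2 = 1 - ω 2 ^ 2 := by linarith
  rw [this]
  field_simp
  ring

theorem vel_sq_le {ω : E3} (h1 : ‖ω‖ = 1) (h2 : 1 / 2 ≤ ω 2) : 1 + ‖vel ω‖ ^ 2 ≤ 4 := by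
  rw [vel_sq h1 h2]
  rw [inv_le_comm₀ (by positivity) (by norm_num)]
  nlinarith

theorem norm_vel_le {ω : E3} (h1 : ‖ω‖ = 1) (h2 : 1 / 2 ≤ ω 2) : ‖vel ω‖ ≤ 2 := by
  have := vel_sq_le h1 h2
  nlinarith [norm_nonneg (vel ω)]

theorem pr_eq_vel {ω : E3} (h2 : 1 / 2 ≤ ω 2) : pr ω = (ω 2) • vel ω := by
  unfold vel
  rw [smul_smul, mul_inv_cancel₀ (by linarith), one_smul]

theorem pr_add (x y : E3) : pr (x + y) = pr x + pr y := by
  ext i; fin_cases i <;> rfl

theorem pr_sub (x y : E3) : pr (x - y) = pr x - pr y := by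
  ext i; fin_cases i <;> rfl

theorem pr_smul (t : ℝ) (y : E3) : pr (t • y) = t • pr y := by
  ext i; fin_cases i <;> rfl

/-- a tube is contained in a tube of the chart. -/
theorem tube_chart {δ : ℝ} {a ω y : E3} (h1 : ‖ω‖ = 1) (h2 : 1 / 2 ≤ ω 2)
    (hy : y ∈ tube δ a ω) : ‖pr y - (pr a - (a 2) • vel ω) - (y 2) • vel ω‖ ≤ 2 * δ := by
  obtain ⟨t, u, ht, hu, hun, rfl⟩ := hy
  have e : pr (a + t • ω + u) - (pr a - (a 2) • vel ω) - ((a + t • ω + u) 2) • vel ω =
      pr u - (u 2) • vel ω := by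
    rw [pr_add, pr_add, pr_smul, pr_eq_vel h2]
    have : (a + t • ω + u) 2 = a 2 + t * ω 2 + u 2 := rfl
    rw [this, add_smul, add_smul, smul_smul]
    abel
  rw [e]
  have h3 : ‖pr u - (u 2) • vel ω‖ ≤ ‖pr u‖ + |u 2| * ‖vel ω‖ := by
    refine (norm_sub_le _ _).trans ?_
    rw [norm_smul, Real.norm_eq_abs]
  have h4 := norm_sq_E3 u
  have h5 := vel_sq_le h1 h2
  have h6 : (‖pr u‖ + |u 2| * ‖vel ω‖) ^ 2 ≤ (2 * ‖u‖) ^ 2 := by
    have h7 : (‖pr u‖ + |u 2| * ‖vel ω‖) ^ 2 ≤ (‖pr u‖ ^ 2 + |u 2| ^ 2) * (1 + ‖vel ω‖ ^ 2) := by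
      nlinarith [sq_nonneg (‖pr u‖ * ‖vel ω‖ - |u 2|)]
    rw [sq_abs, ← h4] at h7
    nlinarith [sq_nonneg ‖u‖]
  have h8 : ‖pr u‖ + |u 2| * ‖vel ω‖ ≤ 2 * ‖u‖ := by
    exact abs_le_of_sq_le_sq' h6 (by positivity) |>.2
  linarith

theorem tube_norm {δ : ℝ} {a ω y : E3} (h1 : ‖ω‖ = 1) (hy : y ∈ tube δ a ω) :
    ‖y - a‖ ≤ 1 / 2 + δ := by
  obtain ⟨t, u, ht, hu, hun, rfl⟩ := hy
  have e : a + t • ω + u - a = t • ω + u := by abel
  rw [e]
  refine (norm_add_le _ _).trans ?_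
  rw [norm_smul, h1, mul_one, Real.norm_eq_abs]
  linarith

theorem tube_eq {δ : ℝ} {a ω : E3} (h1 : ‖ω‖ = 1) :
    tube δ a ω = {y | |inner ℝ (y - a) ω| ≤ 1 / 2 ∧ ‖y - a - (inner ℝ (y - a) ω : ℝ) • ω‖ ≤ δ} := by
  have hω : inner ℝ ω ω = (1 : ℝ) := by rw [real_inner_self_eq_norm_sq, h1]; norm_num
  ext y
  constructor
  · rintro ⟨t, u, ht, hu, hun, rfl⟩
    have e : a + t • ω + u - a = t • ω + u := by abel
    have e2 : inner ℝ (t • ω + u) ω = (t : ℝ) := by
      rw [inner_add_left, inner_smul_left, hω, hu]; simp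
    simp only [Set.mem_ofPred_eq, e, e2]
    refine ⟨ht, ?_⟩
    rwa [add_sub_cancel_left]
  · rintro ⟨ht, hu⟩
    refine ⟨inner ℝ (y - a) ω, y - a - (inner ℝ (y - a) ω : ℝ) • ω, ht, ?_, hu, by abel⟩
    rw [inner_sub_left, inner_smul_left, hω]; simp

theorem isClosed_tube {δ : ℝ} {a ω : E3} (h1 : ‖ω‖ = 1) : IsClosed (tube δ a ω) := by
  rw [tube_eq h1]
  have c1 : Continuous (fun y : E3 => |(inner ℝ (y - a) ω : ℝ)|) := by fun_prop
  have c2 : Continuous (fun y : E3 => ‖y - a - (inner ℝ (y - a) ω : ℝ) • ω‖) := by fun_prop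
  exact (isClosed_le c1 continuous_const).inter (isClosed_le c2 continuous_const)

theorem measurableSet_tube {δ : ℝ} {a ω : E3} (h1 : ‖ω‖ = 1) : MeasurableSet (tube δ a ω) :=
  (isClosed_tube h1).measurableSet

theorem tube_vol_ne_top {δ : ℝ} {a ω : E3} (h1 : ‖ω‖ = 1) : volume (tube δ a ω) ≠ ⊤ := by
  have hsub : tube δ a ω ⊆ Metric.closedBall a (1/2 + δ) := fun y hy => by
    rw [Metric.mem_closedBall, dist_eq_norm]; exact tube_norm h1 hy
  exact ((measure_mono hsub).trans_lt measure_closedBall_lt_top).ne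

/-- lower bound of the volume of a tube. -/
theorem tube_vol {δ : ℝ} (hδ : 0 < δ) (hδ1 : δ < 1) {a ω : E3} (h1 : ‖ω‖ = 1) (h2 : 1 / 2 ≤ ω 2) :
    ENNReal.ofReal (δ ^ 2 / 64) ≤ volume (tube δ a ω) := by
  have hmem : ∀ (z : ℝ) (x : E2), |z - a 2| ≤ 1/8 → ‖x - (pr a + (z - a 2) • vel ω)‖ ≤ δ / 4 →
      mk x z ∈ tube δ a ω := by
    intro z x hz hx
    set w := x - (pr a + (z - a 2) • vel ω) with hw
    have h0 : (0 : ℝ) < ω 2 := by linarith
    have e : mk x z - a = ((z - a 2) / ω 2) • ω + mk w 0 := by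
      have hv : ∀ i, (vel ω) i = (ω 2)⁻¹ * (pr ω) i := fun i => rfl
      ext i
      fin_cases i
      · show x 0 - a 0 = (z - a 2) / ω 2 * ω 0 + (x 0 - (a 0 + (z - a 2) * ((ω 2)⁻¹ * ω 0)))
        field_simp
        ring
      · show x 1 - a 1 = (z - a 2) / ω 2 * ω 1 + (x 1 - (a 1 + (z - a 2) * ((ω 2)⁻¹ * ω 1)))
        field_simp
        ring
      · show z - a 2 = (z - a 2) / ω 2 * ω 2 + 0
        field_simp
        ring
    have hω : inner ℝ ω ω = (1 : ℝ) := by rw [real_inner_self_eq_norm_sq, h1]; norm_num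
    have hmkn : ‖mk w 0‖ = ‖w‖ := by
      have := norm_sq_E3 (mk w 0)
      rw [pr_mk, mk_2] at this
      have h3 : ‖mk w 0‖ ^ 2 = ‖w‖ ^ 2 := by rw [this]; ring
      exact (sq_eq_sq₀ (norm_nonneg _) (norm_nonneg _)).1 h3
    have ein : inner ℝ (mk x z - a) ω = (z - a 2) / ω 2 + inner ℝ (mk w 0) ω := by
      rw [e, inner_add_left, inner_smul_left, hω]; simp
    have hin : |inner ℝ (mk w 0) ω| ≤ δ / 4 := by
      refine (abs_real_inner_le_norm _ _).trans ?_
      rw [h1, mul_one, hmkn]; exact hx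
    rw [tube_eq h1]
    refine ⟨?_, ?_⟩
    · rw [ein]
      refine (abs_add_le _ _).trans ?_
      have : |(z - a 2) / ω 2| ≤ 1/4 := by
        rw [abs_div, abs_of_pos h0, div_le_iff₀ h0]; linarith
      linarith
    · rw [ein, e]
      have e3 : ((z - a 2) / ω 2) • ω + mk w 0 - ((z - a 2) / ω 2 + inner ℝ (mk w 0) ω) • ω =
          mk w 0 - (inner ℝ (mk w 0) ω : ℝ) • ω := by
        rw [add_smul]; abel
      rw [e3]
      have h4 : ‖mk w 0 - (inner ℝ (mk w 0) ω : ℝ) • ω‖ ^ 2 ≤ ‖mk w 0‖ ^ 2 := by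
        rw [norm_sub_sq_real, inner_smul_right, norm_smul, h1, mul_one, Real.norm_eq_abs, sq_abs]
        nlinarith [sq_nonneg (inner ℝ (mk w 0) ω : ℝ)]
      have h5 := abs_le_of_sq_le_sq' h4 (norm_nonneg _) |>.2
      rw [hmkn] at h5
      linarith
  have hm := measurableSet_tube (δ := δ) (a := a) h1
  have hv : volume (tube δ a ω) = ∫⁻ z : ℝ, ∫⁻ x : E2, (tube δ a ω).indicator (fun _ => (1 : ℝ≥0∞)) (mk x z) := by
    rw [← lintegral_E3 (measurable_const.indicator hm), lintegral_indicator hm]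
    simp
  rw [hv]
  have hball : ∀ c : E2, volume (Metric.closedBall c (δ / 4)) = ENNReal.ofReal (δ / 4) ^ 2 * ENNReal.ofReal Real.pi :=
    fun c => EuclideanSpace.volume_closedBall_fin_two c (δ / 4)
  calc ENNReal.ofReal (δ ^ 2 / 64)
      ≤ ENNReal.ofReal (1/4) * (ENNReal.ofReal (δ / 4) ^ 2 * ENNReal.ofReal Real.pi) := by
        have : (1 : ℝ≥0∞) ≤ ENNReal.ofReal Real.pi := by
          rw [ENNReal.one_le_ofReal]
          linarith [Real.pi_gt_three]
        calc ENNReal.ofReal (δ ^ 2 / 64) = ENNReal.ofReal (1/4) * (ENNReal.ofReal (δ / 4) ^ 2 * 1) := by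
              rw [mul_one, ← ENNReal.ofReal_pow (by positivity), ← ENNReal.ofReal_mul (by norm_num)]
              congr 1; ring
          _ ≤ _ := by gcongr
    _ = ∫⁻ z in Set.Icc (a 2 - 1/8) (a 2 + 1/8), (ENNReal.ofReal (δ / 4) ^ 2 * ENNReal.ofReal Real.pi) := by
        rw [setLIntegral_const, Real.volume_Icc]
        rw [mul_comm]
        congr 2; ring
    _ ≤ ∫⁻ z in Set.Icc (a 2 - 1/8) (a 2 + 1/8), ∫⁻ x : E2,
          (tube δ a ω).indicator (fun _ => (1 : ℝ≥0∞)) (mk x z) := by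
        refine setLIntegral_mono' measurableSet_Icc fun z hz => ?_
        rw [← hball (pr a + (z - a 2) • vel ω), ← setLIntegral_one]
        rw [← lintegral_indicator Metric.isClosed_closedBall.measurableSet]
        refine lintegral_mono fun x => ?_
        by_cases hx : x ∈ Metric.closedBall (pr a + (z - a 2) • vel ω) (δ / 4)
        · rw [Set.indicator_of_mem hx]
          rw [Metric.mem_closedBall, dist_eq_norm] at hx
          have := hmem z x (abs_le.2 ⟨by linarith [hz.1], by linarith [hz.2]⟩) hx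
          rw [Set.indicator_of_mem this]
        · rw [Set.indicator_of_notMem hx]; exact zero_le
    _ ≤ _ := setLIntegral_le_lintegral _ _

/-- the big box -/
def B0 : Set E3 := {y | |y 2| ≤ 5 ∧ ‖pr y‖ ≤ 5}

theorem measurableSet_B0 : MeasurableSet B0 := by
  have c1 : Continuous (fun y : E3 => |y 2|) := by fun_prop
  exact ((isClosed_le c1 continuous_const).measurableSet).inter
    (measurableSet_le (measurable_pr.norm) measurable_const)

/-- the unit cube -/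
def Q0 (a : E3) : Prop := ∀ i, 0 ≤ a i ∧ a i < 1

theorem Q0_norm {a : E3} (h : Q0 a) : ‖a‖ ≤ 2 := by
  have : ‖a‖ ^ 2 ≤ 2 ^ 2 := by
    rw [EuclideanSpace.norm_sq_eq, Fin.sum_univ_three]
    simp only [Real.norm_eq_abs, sq_abs]
    nlinarith [(h 0).1, (h 0).2, (h 1).1, (h 1).2, (h 2).1, (h 2).2]
  exact abs_le_of_sq_le_sq' this (by norm_num) |>.2

theorem tube_B0 {δ : ℝ} (hδ1 : δ < 1) {a ω : E3} (h1 : ‖ω‖ = 1) (ha : Q0 a) : tube δ a ω ⊆ B0 := by
  intro y hy
  have h3 := tube_norm h1 hy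
  have h4 := Q0_norm ha
  have h5 : ‖y‖ ≤ 5 := by
    calc ‖y‖ = ‖(y - a) + a‖ := by congr 1; abel
      _ ≤ ‖y - a‖ + ‖a‖ := norm_add_le _ _
      _ ≤ _ := by linarith
  exact ⟨(abs_2_le y).trans h5, (norm_pr_le y).trans h5⟩

/-- the average -/
noncomputable def avg (δ : ℝ) (g : E3 → ℝ≥0∞) (a ω : E3) : ℝ≥0∞ :=
  (volume (tube δ a ω))⁻¹ * ∫⁻ x in tube δ a ω, g x

/-- **local estimate**. -/
theorem local_bound (hKM : ∀ V : ℝ, KM32 V) (ε : ℝ) (hε : 0 < ε) : ∃ C : ℝ, 0 ≤ C ∧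
    ∀ δ : ℝ, 0 < δ → δ < 1 → ∀ (K : Finset (ℤ × ℤ)) (ω a : ℤ × ℤ → E3),
      (∀ k ∈ K, ‖ω k‖ = 1 ∧ 1 / 2 ≤ ω k 2 ∧ Sq δ k (vel (ω k))) → (∀ k ∈ K, Q0 (a k)) →
      ∀ g : E3 → ℝ≥0∞, Measurable g →
      ∑ k ∈ K, avg δ g (a k) (ω k) ^ 3 * ENNReal.ofReal (δ ^ 2) ≤
        ENNReal.ofReal (C * δ ^ (-ε)) * ∫⁻ y in B0, g y ^ 3 := by
  classical
  obtain ⟨C1, hC1, h1⟩ := overlap hKM (ε / 4) (by positivity)
  obtain ⟨C2, hC2, h2⟩ := harm_loss (ε / 2) (by positivity)
  refine ⟨C1 ^ 2 * 64 ^ 3 * C2, by positivity, ?_⟩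
  intro δ hδ hδ1 K ω a hω ha g hg
  set D : ℝ≥0∞ := ENNReal.ofReal (C1 * δ ^ (-(ε / 4)) * δ ^ 2) with hD
  set V : ℝ≥0∞ := ENNReal.ofReal (δ ^ 2 / 64) with hV
  have hV0 : V ≠ 0 := by rw [hV]; simp only [ne_eq, ENNReal.ofReal_eq_zero, not_le]; positivity
  set I := ∫⁻ y in B0, g y ^ 3 with hI
  have hoverlap : ∀ K' ⊆ K, ∫⁻ y in B0, (∑ k ∈ K',
      (tube δ (a k) (ω k)).indicator (fun _ => (1 : ℝ≥0∞)) y) ^ (3/2 : ℝ) ≤ D * K'.card := by
    intro K' hK'
    have hm : Measurable (fun y : E3 => (∑ k ∈ K',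
      (tube δ (a k) (ω k)).indicator (fun _ => (1 : ℝ≥0∞)) y) ^ (3/2 : ℝ)) := by
      apply Measurable.pow_const
      exact Finset.measurable_sum _ fun k hk => measurable_const.indicator
        (measurableSet_tube (hω k (hK' hk)).1)
    rw [← lintegral_indicator measurableSet_B0, lintegral_E3 (hm.indicator measurableSet_B0)]
    have h3 := h1 δ hδ hδ1 K' (fun k => pr (a k) - (a k 2) • vel (ω k)) (fun k => vel (ω k))
      (fun k hk => (hω k (hK' hk)).2.2) (fun k hk => norm_vel_le (hω k (hK' hk)).1 (hω k (hK' hk)).2.1)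
      (fun k hk => by
        have b1 := Q0_norm (ha k (hK' hk))
        have b2 := norm_vel_le (hω k (hK' hk)).1 (hω k (hK' hk)).2.1
        refine (norm_sub_le _ _).trans ?_
        rw [norm_smul, Real.norm_eq_abs]
        have b3 := norm_pr_le (a k)
        have b4 := abs_2_le (a k)
        nlinarith [abs_nonneg (a k 2), norm_nonneg (vel (ω k))])
    refine le_trans ?_ (h3.trans (le_of_eq ?_))
    · rw [← lintegral_indicator measurableSet_Icc]
      refine lintegral_mono fun z => ?_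
      by_cases hz : z ∈ Set.Icc (-5 : ℝ) 5
      · rw [Set.indicator_of_mem hz]
        have hms : MeasurableSet {x : E2 | ‖x‖ ≤ 5} := measurableSet_le measurable_norm measurable_const
        rw [← lintegral_indicator hms]
        refine lintegral_mono fun x => ?_
        by_cases hx : x ∈ {x : E2 | ‖x‖ ≤ 5}
        · rw [Set.indicator_of_mem hx]
          refine (Set.indicator_le_self _ _ _).trans ?_
          gcongr with k hk
          by_cases hy : mk x z ∈ tube δ (a k) (ω k)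
          · rw [Set.indicator_of_mem hy, if_pos]
            have := tube_chart (hω k (hK' hk)).1 (hω k (hK' hk)).2.1 hy
            rwa [pr_mk, mk_2] at this
          · rw [Set.indicator_of_notMem hy]; exact zero_le
        · rw [Set.indicator_of_notMem hx, Set.indicator_of_notMem]
          intro hc
          exact hx (by have := hc.2; rwa [pr_mk] at this)
      · rw [Set.indicator_of_notMem hz]
        refine le_of_eq ?_
        rw [lintegral_eq_zero_iff' ]
        · filter_upwards with x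
          rw [Set.indicator_of_notMem]
          · rfl
          · intro hc
            have := hc.1
            rw [mk_2] at this
            exact hz (abs_le.1 this)
        · exact ((hm.indicator measurableSet_B0).comp
            (measurable_mk.comp measurable_prodMk_left)).aemeasurable
    · rw [hD, ← ENNReal.ofReal_natCast, ← ENNReal.ofReal_mul (by positivity)]
      congr 1; ring
  have hlev := lev (volume : Measure E3) B0 measurableSet_B0 K (fun k => tube δ (a k) (ω k))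
    (fun k hk => measurableSet_tube (hω k hk).1) (fun k hk => tube_B0 hδ1 (hω k hk).1 (ha k hk))
    V hV0 ENNReal.ofReal_ne_top (fun k hk => tube_vol hδ hδ1 (hω k hk).1 (hω k hk).2.1)
    (fun k hk => tube_vol_ne_top (hω k hk).1) g hg D hoverlap
  have hharm := harm (fun k => avg δ g (a k) (ω k)) (I * D ^ 2 * (V ^ 3)⁻¹) K.card K rfl hlev
  have hcard : (K.card : ℝ) ≤ 6400 / δ ^ 2 := card_all hδ hδ1.le K (fun k => vel (ω k))
    (fun k hk => (hω k hk).2.2) (fun k hk => norm_vel_le (hω k hk).1 (hω k hk).2.1)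
  have h3 := h2 δ hδ hδ1 K.card hcard
  rw [← Finset.sum_mul]
  calc (∑ k ∈ K, avg δ g (a k) (ω k) ^ 3) * ENNReal.ofReal (δ ^ 2)
      ≤ (I * D ^ 2 * (V ^ 3)⁻¹ * ENNReal.ofReal (C2 * δ ^ (-(ε / 2)))) * ENNReal.ofReal (δ ^ 2) := by
        gcongr
        exact hharm.trans (by gcongr)
    _ = ENNReal.ofReal (C1 ^ 2 * 64 ^ 3 * C2 * δ ^ (-ε)) * I := by
        rw [hD, hV, ← ENNReal.ofReal_pow (by positivity), ← ENNReal.ofReal_pow (by positivity),
          ← ENNReal.ofReal_inv_of_pos (by positivity)]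
        rw [show ∀ p q r s : ℝ≥0∞, I * p * q * r * s = (p * q * r * s) * I from fun p q r s => by ring]
        congr 1
        rw [← ENNReal.ofReal_mul (by positivity), ← ENNReal.ofReal_mul (by positivity),
          ← ENNReal.ofReal_mul (by positivity)]
        congr 1
        have e1 : δ ^ (-ε) = (δ ^ (-(ε / 4))) ^ 2 * δ ^ (-(ε / 2)) := by
          rw [← Real.rpow_natCast (δ ^ (-(ε / 4))) 2, ← Real.rpow_mul hδ.le, ← Real.rpow_add hδ]
          congr 1; push_cast; ring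
        rw [e1]
        field_simp
end Crest.Agent.R136.GR639
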