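import Crest.Agent.R136.Mx3_639

/-!
# R136 / S0186, part 4 (helper639): arbitrary centres
-/

set_option autoImplicit false

open MeasureTheory
open scoped ENNReal

namespace Crest.Agent.R136.GR639

open Crest.Agent.R138.Tub70 Crest.AnalysisR.Kakeya

theorem mem_tube_sub {δ : ℝ} {a ω τ y : E3} : y ∈ tube δ (a - τ) ω ↔ y + τ ∈ tube δ a ω := by
  constructor
  · rintro ⟨t, u, ht, hu, hun, rfl⟩
    exact ⟨t, u, ht, hu, hun, by abel⟩
  · rintro ⟨t, u, ht, hu, hun, h⟩
    refine ⟨t, u, ht, hu, hun, ?_⟩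
    have : y = a + t • ω + u - τ := by rw [← h]; abel
    rw [this]; abel

theorem avg_sub (δ : ℝ) (g : E3 → ℝ≥0∞) (a ω τ : E3) (h1 : ‖ω‖ = 1) :
    avg δ (fun y => g (y + τ)) (a - τ) ω = avg δ g a ω := by
  have hm := measurableSet_tube (δ := δ) (a := a) h1
  have hm' := measurableSet_tube (δ := δ) (a := a - τ) h1
  have hpre : tube δ (a - τ) ω = (fun y => y + τ) ⁻¹' tube δ a ω := by
    ext y; exact mem_tube_sub
  unfold avg
  congr 1
  · rw [hpre, measure_preimage_add_right]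
  · have h0 := lintegral_add_right_eq_self (μ := (volume : Measure E3))
      (fun y => (tube δ a ω).indicator g y) τ
    rw [← lintegral_indicator hm', ← lintegral_indicator hm, ← h0]
    refine lintegral_congr fun y => ?_
    by_cases hy : y + τ ∈ tube δ a ω
    · rw [Set.indicator_of_mem hy, Set.indicator_of_mem (mem_tube_sub.2 hy)]
    · rw [Set.indicator_of_notMem hy, Set.indicator_of_notMem (fun h => hy (mem_tube_sub.1 h))]

/-- integer vector -/
noncomputable def iv (n : Fin 3 → ℤ) : E3 := WithLp.toLp 2 (fun i => (n i : ℝ))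

@[simp] theorem iv_apply (n : Fin 3 → ℤ) (i : Fin 3) : iv n i = n i := rfl

/-- bounded overlap -/
theorem overlap_B0 (N : Finset (Fin 3 → ℤ)) (y : E3) :
    ∑ n ∈ N, B0.indicator (fun _ => (1 : ℝ≥0∞)) (y - iv n) ≤ 1331 := by
  classical
  have e : ∑ n ∈ N, B0.indicator (fun _ => (1 : ℝ≥0∞)) (y - iv n) =
      ((N.filter fun n => y - iv n ∈ B0).card : ℝ≥0∞) := by
    rw [Finset.card_filter]
    push_cast
    refine Finset.sum_congr rfl fun n _ => ?_
    by_cases h : y - iv n ∈ B0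
    · rw [Set.indicator_of_mem h, if_pos h]
    · rw [Set.indicator_of_notMem h, if_neg h]
  have hsub : (N.filter fun n => y - iv n ∈ B0) ⊆
      Fintype.piFinset (fun i => Finset.Icc (⌊y i⌋ - 5) (⌊y i⌋ + 5)) := by
    intro n hn
    have hB := (Finset.mem_filter.1 hn).2
    have hc : ∀ i, |y i - n i| ≤ 5 := by
      intro i
      have h2 : |(y - iv n) 2| ≤ 5 := hB.1
      have h3 := hB.2
      fin_cases i
      · exact (abs_coord_le (pr (y - iv n)) 0).trans h3
      · exact (abs_coord_le (pr (y - iv n)) 1).trans h3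
      · exact h2
    rw [Fintype.mem_piFinset]
    intro i
    have h4 := abs_le.1 (hc i)
    have a1 := Int.floor_le (y i)
    have a2 := Int.lt_floor_add_one (y i)
    rw [Finset.mem_Icc]
    have b1 : (n i : ℝ) < ⌊y i⌋ + 6 := by linarith [h4.1]
    have b2 : (⌊y i⌋ : ℝ) - 5 ≤ n i := by linarith [h4.2]
    have b1' : n i < ⌊y i⌋ + 6 := by exact_mod_cast b1
    have b2' : ⌊y i⌋ - 5 ≤ n i := by exact_mod_cast b2
    omega
  have hcard : (N.filter fun n => y - iv n ∈ B0).card ≤ 1331 := by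
    refine (Finset.card_le_card hsub).trans ?_
    rw [Fintype.card_piFinset]
    simp only [Int.card_Icc, Fin.prod_univ_three]
    have e5 : ∀ m : ℤ, (m + 5 + 1 - (m - 5)).toNat = 11 := fun m => by omega
    rw [e5, e5, e5]
    norm_num
  rw [e]
  exact_mod_cast hcard

/-- **global estimate**. -/
theorem glob (hKM : ∀ V : ℝ, KM32 V) (ε : ℝ) (hε : 0 < ε) : ∃ C : ℝ, 0 ≤ C ∧
    ∀ δ : ℝ, 0 < δ → δ < 1 → ∀ (K : Finset (ℤ × ℤ)) (ω a : ℤ × ℤ → E3),
      (∀ k ∈ K, ‖ω k‖ = 1 ∧ 1 / 2 ≤ ω k 2 ∧ Sq δ k (vel (ω k))) →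
      ∀ g : E3 → ℝ≥0∞, Measurable g →
      ∑ k ∈ K, avg δ g (a k) (ω k) ^ 3 * ENNReal.ofReal (δ ^ 2) ≤
        ENNReal.ofReal (C * δ ^ (-ε)) * ∫⁻ y, g y ^ 3 := by
  classical
  obtain ⟨C, hC, h⟩ := local_bound hKM ε hε
  refine ⟨C * 1331, by positivity, ?_⟩
  intro δ hδ hδ1 K ω a hω g hg
  set nk : ℤ × ℤ → (Fin 3 → ℤ) := fun k i => ⌊a k i⌋ with hnk
  set N := K.image nk with hN
  have h1 : ∀ n ∈ N, ∑ k ∈ K.filter (fun k => nk k = n),
      avg δ g (a k) (ω k) ^ 3 * ENNReal.ofReal (δ ^ 2) ≤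
      ENNReal.ofReal (C * δ ^ (-ε)) * ∫⁻ y, B0.indicator (fun _ => (1 : ℝ≥0∞)) (y - iv n) * g y ^ 3 := by
    intro n _
    have h2 := h δ hδ hδ1 (K.filter (fun k => nk k = n)) ω (fun k => a k - iv n)
      (fun k hk => hω k (Finset.mem_filter.1 hk).1)
      (fun k hk i => by
        have h3 : ⌊a k i⌋ = n i := congrFun (Finset.mem_filter.1 hk).2 i
        have e : (a k - iv n) i = a k i - n i := rfl
        rw [e, ← h3]
        exact ⟨by linarith [Int.floor_le (a k i)], by linarith [Int.lt_floor_add_one (a k i)]⟩)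
      (fun y => g (y + iv n)) (hg.comp (measurable_id.add_const _))
    have e1 : ∑ k ∈ K.filter (fun k => nk k = n),
        avg δ (fun y => g (y + iv n)) (a k - iv n) (ω k) ^ 3 * ENNReal.ofReal (δ ^ 2) =
        ∑ k ∈ K.filter (fun k => nk k = n), avg δ g (a k) (ω k) ^ 3 * ENNReal.ofReal (δ ^ 2) :=
      Finset.sum_congr rfl fun k hk => by
        rw [avg_sub δ g (a k) (ω k) (iv n) (hω k (Finset.mem_filter.1 hk).1).1]
    rw [← e1]
    refine h2.trans (le_of_eq ?_)
    congr 1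
    have h0 := lintegral_add_right_eq_self (μ := (volume : Measure E3))
      (fun y => B0.indicator (fun _ => (1 : ℝ≥0∞)) (y - iv n) * g y ^ 3) (iv n)
    rw [← lintegral_indicator measurableSet_B0, ← h0]
    refine lintegral_congr fun y => ?_
    rw [add_sub_cancel_right]
    by_cases hy : y ∈ B0
    · rw [Set.indicator_of_mem hy, Set.indicator_of_mem hy, one_mul]
    · rw [Set.indicator_of_notMem hy, Set.indicator_of_notMem hy, zero_mul]
  have hmeas : ∀ n ∈ N, Measurable (fun y : E3 =>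
      B0.indicator (fun _ => (1 : ℝ≥0∞)) (y - iv n) * g y ^ 3) := fun n _ =>
    ((measurable_const.indicator measurableSet_B0).comp (measurable_id.sub_const _)).mul
      (hg.pow_const 3)
  calc ∑ k ∈ K, avg δ g (a k) (ω k) ^ 3 * ENNReal.ofReal (δ ^ 2)
      = ∑ n ∈ N, ∑ k ∈ K.filter (fun k => nk k = n),
          avg δ g (a k) (ω k) ^ 3 * ENNReal.ofReal (δ ^ 2) :=
        (Finset.sum_fiberwise_of_maps_to (fun k hk => Finset.mem_image_of_mem _ hk) _).symm
    _ ≤ ∑ n ∈ N, ENNReal.ofReal (C * δ ^ (-ε)) *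
          ∫⁻ y, B0.indicator (fun _ => (1 : ℝ≥0∞)) (y - iv n) * g y ^ 3 := Finset.sum_le_sum h1
    _ = ENNReal.ofReal (C * δ ^ (-ε)) *
          ∫⁻ y, (∑ n ∈ N, B0.indicator (fun _ => (1 : ℝ≥0∞)) (y - iv n)) * g y ^ 3 := by
        rw [← Finset.mul_sum, ← lintegral_finsetSum N hmeas]
        simp only [Finset.sum_mul]
    _ ≤ ENNReal.ofReal (C * δ ^ (-ε)) * ∫⁻ y, 1331 * g y ^ 3 := by
        gcongr with y
        exact overlap_B0 N y
    _ = ENNReal.ofReal (C * 1331 * δ ^ (-ε)) * ∫⁻ y, g y ^ 3 := by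
        rw [lintegral_const_mul _ (hg.pow_const 3), ← mul_assoc]
        congr 1
        rw [show C * 1331 * δ ^ (-ε) = (C * δ ^ (-ε)) * 1331 by ring,
          ENNReal.ofReal_mul (by positivity : 0 ≤ C * δ ^ (-ε))]
        norm_num

end Crest.Agent.R136.GR639
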