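import Crest.Agent.R136.Mx4_639

/-!
# R136 / S0186, part 5 (helper639): the sphere
-/

set_option autoImplicit false

open MeasureTheory
open scoped ENNReal NNReal

namespace Crest.Agent.R136.GR639

open Crest.Agent.R138.Tub70 Crest.AnalysisR.Kakeya

/-! ### invariance under isometries -/

theorem mem_tube_map (M : E3 ≃ₗᵢ[ℝ] E3) {δ : ℝ} {a ω y : E3} :
    M y ∈ tube δ (M a) (M ω) ↔ y ∈ tube δ a ω := by
  constructor
  · rintro ⟨t, u, ht, hu, hun, h⟩
    refine ⟨t, M.symm u, ht, ?_, ?_, ?_⟩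
    · rw [← M.inner_map_map, M.apply_symm_apply]; exact hu
    · rw [M.symm.norm_map]; exact hun
    · apply M.injective
      rw [h, map_add, map_add, map_smul, M.apply_symm_apply]
  · rintro ⟨t, u, ht, hu, hun, rfl⟩
    refine ⟨t, M u, ht, ?_, ?_, ?_⟩
    · rw [M.inner_map_map]; exact hu
    · rw [M.norm_map]; exact hun
    · rw [map_add, map_add, map_smul]

theorem avg_map (M : E3 ≃ₗᵢ[ℝ] E3) (δ : ℝ) (g : E3 → ℝ≥0∞) (a ω : E3) :
    avg δ g (M a) (M ω) = avg δ (fun y => g (M y)) a ω := by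
  have hpre : M ⁻¹' tube δ (M a) (M ω) = tube δ a ω := by
    ext y; exact mem_tube_map M
  have hmp := M.measurePreserving
  have hemb : MeasurableEmbedding M := M.toHomeomorph.measurableEmbedding
  unfold avg
  congr 1
  · rw [← hpre, hmp.measure_preimage_emb hemb]
  · rw [← hpre, hmp.setLIntegral_comp_preimage_emb hemb]

theorem maximalFn_eq (δ : ℝ) (f : E3 → ℝ) (ω : E3) :
    maximalFn δ f ω = ⨆ a, avg δ (fun y => ‖f y‖ₑ) a ω := rfl

theorem maximalFn_map (M : E3 ≃ₗᵢ[ℝ] E3) (δ : ℝ) (f : E3 → ℝ) (ω : E3) :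
    maximalFn δ f (M ω) = maximalFn δ (fun y => f (M y)) ω := by
  rw [maximalFn_eq, maximalFn_eq]
  exact (M.toEquiv.iSup_congr (fun a => avg_map M δ (fun y => ‖f y‖ₑ) a ω)).symm

/-! ### the chart -/

/-- the part of the sphere in the chart. -/
def Dc : Set E3 := {ω | ‖ω‖ = 1 ∧ 1 / 2 ≤ ω 2}

/-- a cell of the chart -/
def Dk (δ : ℝ) (k : ℤ × ℤ) : Set E3 := {ω | ω ∈ Dc ∧ Sq δ k (vel ω)}

theorem measurable_vel (i : Fin 2) : Measurable (fun ω : E3 => vel ω i) := by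
  have h0 : Measurable (fun ω : E3 => ω 2) := (by fun_prop : Continuous (fun ω : E3 => ω 2)).measurable
  have h1 : Measurable (fun ω : E3 => pr ω i) := by
    have : Continuous (fun ω : E3 => pr ω i) := by
      fin_cases i
      · show Continuous (fun ω : E3 => ω 0); fun_prop
      · show Continuous (fun ω : E3 => ω 1); fun_prop
    exact this.measurable
  exact h0.inv.mul h1

theorem measurableSet_Dc : MeasurableSet Dc := by
  have c1 : Continuous (fun ω : E3 => ω 2) := by fun_prop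
  exact ((isClosed_eq continuous_norm continuous_const).measurableSet).inter
    ((isClosed_le continuous_const c1).measurableSet)

theorem measurableSet_Dk (δ : ℝ) (k : ℤ × ℤ) : MeasurableSet (Dk δ k) := by
  refine measurableSet_Dc.inter (MeasurableSet.inter ?_ ?_)
  · exact measurableSet_eq_fun (((measurable_vel 0).div_const δ).floor) measurable_const
  · exact measurableSet_eq_fun (((measurable_vel 1).div_const δ).floor) measurable_const

/-- unnormalised parametrisation -/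
noncomputable def mv (v : Fin 2 → ℝ) : E3 := !₂[v 0, v 1, 1]

/-- parametrisation of the sphere -/
noncomputable def psi (v : Fin 2 → ℝ) : E3 := (‖mv v‖)⁻¹ • mv v

theorem norm_mv (v : Fin 2 → ℝ) : 1 ≤ ‖mv v‖ := by
  have h := abs_2_le (mv v)
  have : (mv v) 2 = 1 := rfl
  rw [this] at h
  simpa using h

theorem mv_dist (v w : Fin 2 → ℝ) : ‖mv v - mv w‖ ≤ 3 / 2 * dist v w := by
  have h0 : |v 0 - w 0| ≤ dist v w := by rw [← Real.dist_eq]; exact dist_le_pi_dist v w 0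
  have h1 : |v 1 - w 1| ≤ dist v w := by rw [← Real.dist_eq]; exact dist_le_pi_dist v w 1
  have h2 : ‖mv v - mv w‖ ^ 2 ≤ (3 / 2 * dist v w) ^ 2 := by
    rw [EuclideanSpace.norm_sq_eq, Fin.sum_univ_three]
    have e0 : (mv v - mv w) 0 = v 0 - w 0 := rfl
    have e1 : (mv v - mv w) 1 = v 1 - w 1 := rfl
    have e2 : (mv v - mv w) 2 = 1 - 1 := rfl
    rw [e0, e1, e2]
    simp only [Real.norm_eq_abs]
    have a0 : |v 0 - w 0| ^ 2 ≤ dist v w ^ 2 := by gcongr
    have a1 : |v 1 - w 1| ^ 2 ≤ dist v w ^ 2 := by gcongr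
    simp only [sub_self, abs_zero]
    nlinarith [sq_nonneg (dist v w)]
  exact abs_le_of_sq_le_sq' h2 (by positivity) |>.2

theorem psi_lip : LipschitzWith 3 psi := by
  apply LipschitzWith.of_dist_le_mul
  intro v w
  have hv := norm_mv v
  have hw := norm_mv w
  have hd := mv_dist v w
  rw [dist_eq_norm]
  have e : psi v - psi w = (‖mv v‖)⁻¹ • (mv v - mv w) + ((‖mv v‖)⁻¹ - (‖mv w‖)⁻¹) • mv w := by
    unfold psi
    rw [smul_sub, sub_smul]; abel
  have h1 : ‖(‖mv v‖)⁻¹ • (mv v - mv w)‖ ≤ ‖mv v - mv w‖ := by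
    rw [norm_smul, norm_inv, norm_norm]
    exact mul_le_of_le_one_left (norm_nonneg _) (inv_le_one_of_one_le₀ hv)
  have h2 : ‖((‖mv v‖)⁻¹ - (‖mv w‖)⁻¹) • mv w‖ ≤ ‖mv v - mv w‖ := by
    rw [norm_smul, Real.norm_eq_abs]
    have e3 : (‖mv v‖)⁻¹ - (‖mv w‖)⁻¹ = (‖mv w‖ - ‖mv v‖) * ((‖mv v‖)⁻¹ * (‖mv w‖)⁻¹) := by
      field_simp
    rw [e3, abs_mul]
    have h3 : |‖mv w‖ - ‖mv v‖| ≤ ‖mv v - mv w‖ := by
      rw [norm_sub_rev]; exact abs_norm_sub_norm_le _ _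
    have h4 : |(‖mv v‖)⁻¹ * (‖mv w‖)⁻¹| * ‖mv w‖ ≤ 1 := by
      rw [abs_of_nonneg (by positivity), mul_assoc, inv_mul_cancel₀ (by linarith), mul_one]
      exact inv_le_one_of_one_le₀ hv
    calc |‖mv w‖ - ‖mv v‖| * |(‖mv v‖)⁻¹ * (‖mv w‖)⁻¹| * ‖mv w‖
        = |‖mv w‖ - ‖mv v‖| * (|(‖mv v‖)⁻¹ * (‖mv w‖)⁻¹| * ‖mv w‖) := by ring
      _ ≤ ‖mv v - mv w‖ * 1 := mul_le_mul h3 h4 (by positivity) (norm_nonneg _)
      _ = _ := mul_one _
  rw [e]
  refine (norm_add_le _ _).trans ?_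
  have : ((3 : ℝ≥0) : ℝ) = 3 := rfl
  rw [this]
  linarith

/-- measure of a cell -/
theorem meas_Dk {δ : ℝ} (hδ : 0 < δ) (k : ℤ × ℤ) :
    (Measure.hausdorffMeasure 2 : Measure E3) (Dk δ k) ≤ ENNReal.ofReal (9 * δ ^ 2) := by
  set kk : Fin 2 → ℤ := ![k.1, k.2] with hkk
  set S : Set (Fin 2 → ℝ) := Set.Icc (fun i => (kk i : ℝ) * δ) (fun i => ((kk i : ℝ) + 1) * δ) with hS
  have hsub : Dk δ k ⊆ psi '' S := by
    intro ω hω
    obtain ⟨⟨h1, h2⟩, h3, h4⟩ := hω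
    have h0 : (0 : ℝ) < ω 2 := by linarith
    refine ⟨fun i => vel ω i, ?_, ?_⟩
    · rw [hS, Set.mem_Icc]
      have hf : ∀ (x : ℝ) (m : ℤ), ⌊x / δ⌋ = m → (m : ℝ) * δ ≤ x ∧ x ≤ ((m : ℝ) + 1) * δ := by
        intro x m hm
        have a1 := Int.floor_le (x / δ)
        have a2 := Int.lt_floor_add_one (x / δ)
        rw [hm] at a1 a2
        rw [le_div_iff₀ hδ] at a1
        rw [div_lt_iff₀ hδ] at a2
        exact ⟨a1, a2.le⟩
      constructor
      · intro i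
        fin_cases i
        · exact (hf _ _ h3).1
        · exact (hf _ _ h4).1
      · intro i
        fin_cases i
        · exact (hf _ _ h3).2
        · exact (hf _ _ h4).2
    · have e : mv (fun i => vel ω i) = (ω 2)⁻¹ • ω := by
        ext i
        fin_cases i
        · rfl
        · rfl
        · show (1 : ℝ) = (ω 2)⁻¹ * ω 2
          rw [inv_mul_cancel₀ h0.ne']
      unfold psi
      rw [e, norm_smul, h1, mul_one, norm_inv, Real.norm_eq_abs, abs_of_pos h0, inv_inv, smul_smul,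
        mul_inv_cancel₀ h0.ne', one_smul]
  have hvol : (Measure.hausdorffMeasure 2 : Measure (Fin 2 → ℝ)) S = ENNReal.ofReal (δ ^ 2) := by
    have h2 : (Measure.hausdorffMeasure 2 : Measure (Fin 2 → ℝ)) = volume := by
      have := hausdorffMeasure_pi_real (ι := Fin 2)
      simpa using this
    rw [h2, hS, Real.volume_Icc_pi]
    simp only [Fin.prod_univ_two]
    rw [← ENNReal.ofReal_mul (by nlinarith)]
    congr 1
    ring
  calc (Measure.hausdorffMeasure 2 : Measure E3) (Dk δ k)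
      ≤ (Measure.hausdorffMeasure 2 : Measure E3) (psi '' S) := measure_mono hsub
    _ ≤ ((3 : ℝ≥0) : ℝ≥0∞) ^ (2 : ℝ) * (Measure.hausdorffMeasure 2 : Measure (Fin 2 → ℝ)) S :=
        psi_lip.hausdorffMeasure_image_le (by norm_num) S
    _ = ENNReal.ofReal (9 * δ ^ 2) := by
        rw [hvol, ENNReal.ofReal_mul (by norm_num)]
        congr 1
        rw [show ((2 : ℝ)) = ((2 : ℕ) : ℝ) by norm_num, ENNReal.rpow_natCast]
        norm_num

theorem lintegral_biUnion_le {X ι : Type*} [MeasurableSpace X] (μ : Measure X) (K : Finset ι)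
    (s : ι → Set X) (f : X → ℝ≥0∞) :
    ∫⁻ x in ⋃ k ∈ K, s k, f x ∂μ ≤ ∑ k ∈ K, ∫⁻ x in s k, f x ∂μ := by
  classical
  induction K using Finset.induction_on with
  | empty => simp
  | insert a K ha ih =>
    rw [Finset.set_biUnion_insert, Finset.sum_insert ha]
    exact (lintegral_union_le f _ _).trans (by gcongr)

/-- **the maximal function on the chart**. -/
theorem chart_bound (hKM : ∀ V : ℝ, KM32 V) (ε : ℝ) (hε : 0 < ε) : ∃ C : ℝ, 1 ≤ C ∧
    ∀ δ : ℝ, 0 < δ → δ < 1 → ∀ f : E3 → ℝ, Measurable f →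
      ∫⁻ ω in Dc, maximalFn δ f ω ^ 3 ∂(Measure.hausdorffMeasure 2) ≤
        ENNReal.ofReal (C * δ ^ (-ε)) * ∫⁻ x, ‖f x‖ₑ ^ 3 := by
  classical
  obtain ⟨C, hC, h⟩ := glob hKM ε hε
  refine ⟨72 * C + 1, by linarith, ?_⟩
  intro δ hδ hδ1 f hf
  set g : E3 → ℝ≥0∞ := fun y => ‖f y‖ₑ with hg
  have hgm : Measurable g := hf.enorm
  set I := ∫⁻ x, g x ^ 3 with hI
  have hδε : 0 < δ ^ (-ε) := Real.rpow_pos_of_pos hδ _
  by_cases hIt : I = ⊤
  · have : ENNReal.ofReal ((72 * C + 1) * δ ^ (-ε)) * I = ⊤ := by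
      rw [hIt]
      apply ENNReal.mul_top
      simp only [ne_eq, ENNReal.ofReal_eq_zero, not_le]
      positivity
    show _ ≤ ENNReal.ofReal ((72 * C + 1) * δ ^ (-ε)) * I
    rw [this]; exact le_top
  -- the suprema
  set H : ℤ × ℤ → ℝ≥0∞ := fun k => ⨆ ω ∈ Dk δ k, ⨆ a, avg δ g a ω with hH
  have hsingle : ∀ k, ∀ ω ∈ Dk δ k, ∀ a, avg δ g a ω ^ 3 * ENNReal.ofReal (δ ^ 2) ≤
      ENNReal.ofReal (C * δ ^ (-ε)) * I := by
    intro k ω hω a
    have := h δ hδ hδ1 {k} (fun _ => ω) (fun _ => a) (fun k' hk' => by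
      rw [Finset.mem_singleton] at hk'
      subst hk'
      exact ⟨hω.1.1, hω.1.2, hω.2⟩) g hgm
    simpa using this
  have hδ2 : ENNReal.ofReal (δ ^ 2) ≠ 0 := by
    simp only [ne_eq, ENNReal.ofReal_eq_zero, not_le]; positivity
  set Z : ℝ≥0∞ := (ENNReal.ofReal (C * δ ^ (-ε)) * I / ENNReal.ofReal (δ ^ 2)) ^ (1/3 : ℝ) with hZ
  have hZt : Z ≠ ⊤ := by
    apply ENNReal.rpow_ne_top_of_nonneg (by norm_num)
    apply ENNReal.div_ne_top _ hδ2
    exact ENNReal.mul_ne_top ENNReal.ofReal_ne_top hIt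
  have hHt : ∀ k, H k ≠ ⊤ := by
    intro k
    apply ne_top_of_le_ne_top hZt
    refine iSup₂_le fun ω hω => iSup_le fun a => ?_
    have h1 := hsingle k ω hω a
    rw [← ENNReal.le_div_iff_mul_le (Or.inl hδ2) (Or.inl ENNReal.ofReal_ne_top)] at h1
    have h2 : avg δ g a ω = (avg δ g a ω ^ 3) ^ (1/3 : ℝ) := by
      rw [← ENNReal.rpow_natCast, ← ENNReal.rpow_mul]; norm_num
    rw [h2, hZ]
    exact ENNReal.rpow_le_rpow h1 (by norm_num)
  have hchoice : ∀ k, ∃ ω a : E3, H k ≠ 0 → (ω ∈ Dk δ k ∧ H k ≤ 2 * avg δ g a ω) := by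
    intro k
    by_cases h0 : H k = 0
    · exact ⟨0, 0, fun hc => absurd h0 hc⟩
    · have hlt : H k / 2 < H k := ENNReal.half_lt_self h0 (hHt k)
      have h1 : H k / 2 < ⨆ ω ∈ Dk δ k, ⨆ a, avg δ g a ω := hlt
      rw [lt_iSup_iff] at h1
      obtain ⟨ω, h1⟩ := h1
      rw [lt_iSup_iff] at h1
      obtain ⟨hω, h1⟩ := h1
      rw [lt_iSup_iff] at h1
      obtain ⟨a, h1⟩ := h1
      refine ⟨ω, a, fun _ => ⟨hω, ?_⟩⟩
      have h2 := h1.le
      rw [ENNReal.div_le_iff (by norm_num) (by norm_num)] at h2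
      rw [mul_comm]; exact h2
  choose ω a hωa using hchoice
  -- the cells
  set J : Finset ℤ := Finset.Icc ⌊-(2 / δ)⌋ ⌊2 / δ⌋ with hJ
  set K0 : Finset (ℤ × ℤ) := J ×ˢ J with hK0
  have hcover : Dc ⊆ ⋃ k ∈ K0, Dk δ k := by
    intro ω hω
    rw [Set.mem_iUnion₂]
    refine ⟨(⌊vel ω 0 / δ⌋, ⌊vel ω 1 / δ⌋), ?_, hω, rfl, rfl⟩
    have hv := norm_vel_le hω.1 hω.2
    have key : ∀ i, ⌊vel ω i / δ⌋ ∈ J := by
      intro i
      have h1 := abs_le.1 ((abs_coord_le (vel ω) i).trans hv)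
      rw [hJ, Finset.mem_Icc]
      constructor
      · apply Int.floor_le_floor
        rw [← neg_div]; exact div_le_div_of_nonneg_right h1.1 hδ.le
      · exact Int.floor_le_floor (div_le_div_of_nonneg_right h1.2 hδ.le)
    rw [hK0, Finset.mem_product]
    exact ⟨key 0, key 1⟩
  set K1 := K0.filter (fun k => H k ≠ 0) with hK1
  have hfin := h δ hδ hδ1 K1 ω a (fun k hk => by
    have := (hωa k (Finset.mem_filter.1 hk).2).1
    exact ⟨this.1.1, this.1.2, this.2⟩) g hgm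
  have hcell : ∀ k, ∫⁻ ω in Dk δ k, maximalFn δ f ω ^ 3 ∂(Measure.hausdorffMeasure 2) ≤
      H k ^ 3 * ENNReal.ofReal (9 * δ ^ 2) := by
    intro k
    calc ∫⁻ ω in Dk δ k, maximalFn δ f ω ^ 3 ∂(Measure.hausdorffMeasure 2)
        ≤ ∫⁻ _ in Dk δ k, H k ^ 3 ∂(Measure.hausdorffMeasure 2) := by
          refine setLIntegral_mono' (measurableSet_Dk δ k) fun ω hω => ?_
          gcongr
          exact le_iSup₂ (f := fun ω _ => ⨆ a, avg δ g a ω) ω hω
      _ = H k ^ 3 * (Measure.hausdorffMeasure 2 : Measure E3) (Dk δ k) := by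
          rw [setLIntegral_const]
      _ ≤ _ := by gcongr; exact meas_Dk hδ k
  calc ∫⁻ ω in Dc, maximalFn δ f ω ^ 3 ∂(Measure.hausdorffMeasure 2)
      ≤ ∫⁻ ω in ⋃ k ∈ K0, Dk δ k, maximalFn δ f ω ^ 3 ∂(Measure.hausdorffMeasure 2) :=
        lintegral_mono_set hcover
    _ ≤ ∑ k ∈ K0, ∫⁻ ω in Dk δ k, maximalFn δ f ω ^ 3 ∂(Measure.hausdorffMeasure 2) :=
        lintegral_biUnion_le _ K0 _ _
    _ ≤ ∑ k ∈ K0, H k ^ 3 * ENNReal.ofReal (9 * δ ^ 2) := Finset.sum_le_sum fun k _ => hcell k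
    _ = ∑ k ∈ K1, H k ^ 3 * ENNReal.ofReal (9 * δ ^ 2) := by
        rw [hK1]
        refine (Finset.sum_subset (Finset.filter_subset _ _) fun k hk hk' => ?_).symm
        have : H k = 0 := by
          by_contra hc
          exact hk' (Finset.mem_filter.2 ⟨hk, hc⟩)
        rw [this]; simp
    _ ≤ ∑ k ∈ K1, ENNReal.ofReal 72 * (avg δ g (a k) (ω k) ^ 3 * ENNReal.ofReal (δ ^ 2)) := by
        refine Finset.sum_le_sum fun k hk => ?_
        have h1 := (hωa k (Finset.mem_filter.1 hk).2).2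
        calc H k ^ 3 * ENNReal.ofReal (9 * δ ^ 2)
            ≤ (2 * avg δ g (a k) (ω k)) ^ 3 * ENNReal.ofReal (9 * δ ^ 2) := by gcongr
          _ = _ := by
              rw [ENNReal.ofReal_mul (by norm_num : (0:ℝ) ≤ 9), mul_pow]
              have e72 : ENNReal.ofReal 72 = 2 ^ 3 * ENNReal.ofReal 9 := by
                rw [show (72 : ℝ) = 2 ^ 3 * 9 by norm_num, ENNReal.ofReal_mul (by norm_num),
                  ENNReal.ofReal_pow (by norm_num)]
                norm_num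
              rw [e72]; ring
    _ = ENNReal.ofReal 72 * ∑ k ∈ K1, avg δ g (a k) (ω k) ^ 3 * ENNReal.ofReal (δ ^ 2) := by
        rw [Finset.mul_sum]
    _ ≤ ENNReal.ofReal 72 * (ENNReal.ofReal (C * δ ^ (-ε)) * I) := by gcongr
    _ = ENNReal.ofReal (72 * C * δ ^ (-ε)) * I := by
        rw [← mul_assoc, ← ENNReal.ofReal_mul (by norm_num), mul_assoc 72 C]
    _ ≤ ENNReal.ofReal ((72 * C + 1) * δ ^ (-ε)) * I := by
        gcongr
        linarith

end Crest.Agent.R136.GR639
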