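import Crest.Agent.R136.Mx5_639

/-!
# R136 / S0186, part 6 (helper639): all directions, final form from `KM32`
-/

set_option autoImplicit false

open MeasureTheory
open scoped ENNReal NNReal

namespace Crest.Agent.R136.GR639

open Crest.Agent.R138.Tub70 Crest.AnalysisR.Kakeya

/-- coordinate exchange with sign -/
noncomputable def Lm (j : Fin 3 × Bool) : E3 ≃ₗᵢ[ℝ] E3 :=
  (LinearIsometryEquiv.piLpCongrLeft 2 ℝ ℝ (Equiv.swap j.1 2)).trans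
    (if j.2 then LinearIsometryEquiv.refl ℝ E3 else LinearIsometryEquiv.neg ℝ)

theorem Lm_true (i : Fin 3) (ω : E3) : (Lm (i, true) ω) 2 = ω i := by
  unfold Lm
  simp [LinearIsometryEquiv.piLpCongrLeft_apply, Equiv.piCongrLeft'_apply]

theorem Lm_false (i : Fin 3) (ω : E3) : (Lm (i, false) ω) 2 = - ω i := by
  unfold Lm
  simp [LinearIsometryEquiv.piLpCongrLeft_apply, Equiv.piCongrLeft'_apply]

theorem sphere_cover : Metric.sphere (0 : E3) 1 ⊆ ⋃ j : Fin 3 × Bool, (Lm j) ⁻¹' Dc := by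
  intro ω hω
  have h1 : ‖ω‖ = 1 := by simpa using hω
  have hsum : ω 0 ^ 2 + ω 1 ^ 2 + ω 2 ^ 2 = 1 := by
    have := EuclideanSpace.norm_sq_eq ω
    rw [h1, Fin.sum_univ_three] at this
    simp only [Real.norm_eq_abs, sq_abs] at this
    linarith
  have hex : ∃ i : Fin 3, 1 / 4 ≤ ω i ^ 2 := by
    by_contra hc
    push Not at hc
    have a0 := hc 0
    have a1 := hc 1
    have a2 := hc 2
    linarith
  obtain ⟨i, hi⟩ := hex
  rw [Set.mem_iUnion]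
  rcases le_total 0 (ω i) with h | h
  · refine ⟨(i, true), ?_, ?_⟩
    · rw [LinearIsometryEquiv.norm_map]; exact h1
    · rw [Lm_true]; nlinarith
  · refine ⟨(i, false), ?_, ?_⟩
    · rw [LinearIsometryEquiv.norm_map]; exact h1
    · rw [Lm_false]; nlinarith

theorem piece (hKM : ∀ V : ℝ, KM32 V) (ε : ℝ) (hε : 0 < ε) : ∃ C : ℝ, 1 ≤ C ∧
    ∀ δ : ℝ, 0 < δ → δ < 1 → ∀ f : E3 → ℝ, Measurable f → ∀ M : E3 ≃ₗᵢ[ℝ] E3,
      ∫⁻ ω in M ⁻¹' Dc, maximalFn δ f ω ^ 3 ∂(Measure.hausdorffMeasure 2) ≤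
        ENNReal.ofReal (C * δ ^ (-ε)) * ∫⁻ x, ‖f x‖ₑ ^ 3 := by
  obtain ⟨C, hC, h⟩ := chart_bound hKM ε hε
  refine ⟨C, hC, ?_⟩
  intro δ hδ hδ1 f hf M
  have hmp : MeasurePreserving M (Measure.hausdorffMeasure 2 : Measure E3)
      (Measure.hausdorffMeasure 2 : Measure E3) :=
    M.toIsometryEquiv.measurePreserving_hausdorffMeasure 2
  have hemb : MeasurableEmbedding M := M.toHomeomorph.measurableEmbedding
  have h1 := hmp.setLIntegral_comp_preimage_emb hemb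
    (fun ω => maximalFn δ f (M.symm ω) ^ 3) Dc
  simp only [LinearIsometryEquiv.symm_apply_apply] at h1
  rw [h1]
  have h2 := h δ hδ hδ1 (fun y => f (M.symm y)) (hf.comp M.symm.continuous.measurable)
  have h3 : ∫⁻ x, ‖f (M.symm x)‖ₑ ^ 3 = ∫⁻ x, ‖f x‖ₑ ^ 3 :=
    (M.symm.measurePreserving).lintegral_comp (hf.enorm.pow_const 3)
  rw [h3] at h2
  refine le_trans (le_of_eq ?_) h2
  refine lintegral_congr fun ω => ?_
  rw [maximalFn_map]

/-- **S0186 from KM32**. -/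
theorem result_of (hKM : ∀ V : ℝ, KM32 V) :
    ∀ ε : ℝ, 0 < ε → ∃ C : NNReal, ∀ δ : ℝ, 0 < δ → δ < 1 →
      ∀ f : EuclideanSpace ℝ (Fin 3) → ℝ, Measurable f →
        ∫⁻ ω in Metric.sphere (0 : EuclideanSpace ℝ (Fin 3)) 1, maximalFn δ f ω ^ (3 : ℕ) ∂(Measure.hausdorffMeasure 2)
          ≤ ENNReal.ofReal ((C : ℝ) * δ ^ (-ε)) ^ (3 : ℕ) * ∫⁻ x, ‖f x‖ₑ ^ (3 : ℕ) := by
  intro ε hε
  obtain ⟨C, hC, h⟩ := piece hKM (3 * ε) (by positivity)
  refine ⟨Real.toNNReal (6 * C), ?_⟩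
  intro δ hδ hδ1 f hf
  rw [Real.coe_toNNReal _ (by positivity : (0 : ℝ) ≤ 6 * C)]
  have hδε : 0 < δ ^ (-ε) := Real.rpow_pos_of_pos hδ _
  calc ∫⁻ ω in Metric.sphere (0 : E3) 1, maximalFn δ f ω ^ (3 : ℕ) ∂(Measure.hausdorffMeasure 2)
      ≤ ∫⁻ ω in ⋃ j : Fin 3 × Bool, (Lm j) ⁻¹' Dc, maximalFn δ f ω ^ (3 : ℕ)
          ∂(Measure.hausdorffMeasure 2) := lintegral_mono_set sphere_cover
    _ = ∫⁻ ω in ⋃ j ∈ (Finset.univ : Finset (Fin 3 × Bool)), (Lm j) ⁻¹' Dc,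
          maximalFn δ f ω ^ (3 : ℕ) ∂(Measure.hausdorffMeasure 2) := by simp
    _ ≤ ∑ j : Fin 3 × Bool, ∫⁻ ω in (Lm j) ⁻¹' Dc, maximalFn δ f ω ^ (3 : ℕ)
          ∂(Measure.hausdorffMeasure 2) := lintegral_biUnion_le _ _ _ _
    _ ≤ ∑ _j : Fin 3 × Bool, ENNReal.ofReal (C * δ ^ (-(3 * ε))) * ∫⁻ x, ‖f x‖ₑ ^ 3 :=
        Finset.sum_le_sum fun j _ => h δ hδ hδ1 f hf (Lm j)
    _ = ENNReal.ofReal (6 * C * δ ^ (-(3 * ε))) * ∫⁻ x, ‖f x‖ₑ ^ 3 := by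
        rw [Finset.sum_const, nsmul_eq_mul]
        have : ((Finset.univ : Finset (Fin 3 × Bool)).card : ℝ≥0∞) = ENNReal.ofReal 6 := by
          simp [Fintype.card_prod]
        rw [this, ← mul_assoc, ← ENNReal.ofReal_mul (by norm_num), mul_assoc 6 C]
    _ ≤ _ := by
        gcongr
        rw [← ENNReal.ofReal_pow (by positivity)]
        apply ENNReal.ofReal_le_ofReal
        have e1 : δ ^ (-(3 * ε)) = (δ ^ (-ε)) ^ 3 := by
          rw [← Real.rpow_natCast (δ ^ (-ε)) 3, ← Real.rpow_mul hδ.le]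
          congr 1; push_cast; ring
        rw [e1, mul_pow]
        have h6 : (1 : ℝ) ≤ 6 * C := by linarith
        have : 6 * C ≤ (6 * C) ^ 3 := le_self_pow₀ h6 (by norm_num)
        gcongr

end Crest.Agent.R136.GR639
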