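import Crest.Agent.R136.Amd_84
import Crest.Agent.R136.Amx3_325

/-!
# R136 (S0187), PLAN 2, mixed curvatures: helper84's leaf texts give helper325's (helper860)

* `hull_of84 : Amx84.HullMx → Amx325.HullMx`
* `pl_of84   : Amx84.PLMx → Amx325.PLMx`
* `nd_of84   : Amx84.NdMx → Amx325.NdMx`
-/

set_option autoImplicit false
set_option linter.unusedVariables false

open Finset

namespace Crest.Agent.R136.Mxa860

open Crest.Agent.R136.Sh605 Crest.Agent.R136.Pl2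
open Crest.Agent.R136.K4 (Plk4)
open Crest.Agent.R136.Tlt51 (Shp InP)
open Crest.Agent.R136.KapP335 (kapP DetP)
open Crest.Agent.R136.Pl2W102 (Near Ex2 Two1)
open Crest.Agent.R136.Hcp208 (Al Dims)
open Crest.Agent.R136.Gbx862 (gb)
open Crest.Agent.R136.Amx325 (MixD)

section

variable {qm qp : Fin 3 → ℝ} {L : ℕ → Ln4} {P : Finset ℕ} {cu cv : ℕ → ℕ} {Uf Vf : ℕ → Plk4}
  {W M a w1 w2 z0 ρ zL ρL r Y K0 : ℝ}

theorem level_pos (h : MixD qm qp ((2 * W) ^ K0) L P cu cv Uf Vf W M a w1 w2 z0 ρ zL ρL r Y)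
    (hK : 0 ≤ K0) : a ≤ Y := by
  have h1 : (1:ℝ) ≤ (2 * W) ^ K0 :=
    Real.one_le_rpow (by have := h.two.to1.W1; linarith) hK
  calc a = 1 * a := (one_mul _).symm
    _ ≤ (2 * W) ^ K0 * a := mul_le_mul_of_nonneg_right h1 h.two.to1.a0.le
    _ ≤ Y := h.big

theorem near4 (h : MixD qm qp ((2 * W) ^ K0) L P cu cv Uf Vf W M a w1 w2 z0 ρ zL ρL r Y)
    (hK : 0 ≤ K0) : ∀ t ∈ P, Near 4 Y (kp (Uf (cu t)) z0 ρ (L t)) := by
  intro t ht
  have h0 := (h.two.to1.a0.trans_le (level_pos h hK)).le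
  have h1 := h.lo t ht
  have h2 := h.hi t ht
  exact ⟨by linarith, by linarith⟩

theorem detU (h : MixD qm qp ((2 * W) ^ K0) L P cu cv Uf Vf W M a w1 w2 z0 ρ zL ρL r Y)
    (hK : 1 ≤ K0) : ∀ t ∈ P, DetP W⁻¹ (Uf (cu t)) z0 ρ (L t) := by
  intro t ht
  have hW := h.two.to1.W1
  refine (h.ty t ht).det (le_trans ?_ (h.ty t ht).big)
  refine mul_le_mul_of_nonneg_right ?_ h.two.to1.a0.le
  have h1 : (2 * W) ^ (1:ℝ) ≤ (2 * W) ^ K0 :=
    Real.rpow_le_rpow_of_exponent_le (by linarith) hK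
  rw [Real.rpow_one] at h1
  linarith

end

theorem hull_of84 (hH : Amx84.HullMx) : Amx325.HullMx := by
  intro η qm qp hE
  obtain ⟨C, hC, h⟩ := hH η qm qp hE
  refine ⟨0, C, le_rfl, hC, ?_⟩
  intro L P cu cv Uf Vf W M a w1 w2 z0 ρ zL ρL r Y hM c
  exact h L P cu cv Uf Vf W M a w1 w2 z0 ρ zL ρL r Y hM.two (level_pos hM le_rfl)
    (near4 hM le_rfl) (fun t ht => (hM.ty t ht).le) hM.al c

theorem pl_of84 (hP : Amx84.PLMx) : Amx325.PLMx := by
  intro η qm qp hE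
  obtain ⟨C, hC, h⟩ := hP η qm qp hE
  refine ⟨C + 1, C, by linarith, hC, ?_⟩
  intro L P cu cv Uf Vf W M a w1 w2 z0 ρ zL ρL r Y hM H h4 hH
  have hW := hM.two.to1.W1
  have hp : (2 * W) ^ C ≤ (2 * W) ^ (C + 1) :=
    Real.rpow_le_rpow_of_exponent_le (by linarith) (by linarith)
  exact h L P cu cv Uf Vf W M a w1 w2 z0 ρ zL ρL r Y H hM.two (near4 hM (by linarith))
    (detU hM (by linarith)) ((mul_le_mul_of_nonneg_right hp hM.two.to1.a0.le).trans hM.big) h4 hH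

theorem nd_of84 (hN : Amx84.NdMx) : Amx325.NdMx := by
  classical
  intro c1 η qm qp hc1 hE
  obtain ⟨C, hC, h⟩ := hN
  refine ⟨C + 1, C, by linarith, hC, ?_⟩
  intro L P cu cv Uf Vf W M a w1 w2 z0 ρ zL ρL r Y hM H h4 hH hH' c c' T hT
  have hW := hM.two.to1.W1
  have hH1 : (1:ℝ) ≤ H := by exact_mod_cast (show 1 ≤ H by omega)
  have hp : (2 * W) ^ C ≤ (2 * W) ^ (C + 1) :=
    Real.rpow_le_rpow_of_exponent_le (by linarith) (by linarith)
  have hpC : 0 ≤ (2 * W) ^ C := Real.rpow_nonneg (by linarith) _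
  have hlog : 0 ≤ Real.log H := Real.log_nonneg hH1
  rcases T.eq_empty_or_nonempty with rfl | ⟨y0, hy0⟩
  · simp only [card_empty, Nat.cast_zero]
    positivity
  obtain ⟨t0, ht0, -, e1, e2, -⟩ := hT y0 hy0
  have mem : ∀ t, t ∈ P.filter (fun t => cv t = c ∧ cu t = c') ↔ t ∈ P ∧ cv t = c ∧ cu t = c' :=
    fun t => mem_filter
  have sU := hM.two.to1.shU t0 ht0
  have sV := hM.two.to1.shV t0 ht0
  have dU := hM.two.to1.dimU t0 ht0
  have dV := hM.two.to1.dimV t0 ht0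
  rw [e2] at sU dU
  rw [e1] at sV dV
  obtain ⟨-, q1, -, -⟩ := Bl5667.shp_pos hM.two.to1.r0 sV
  refine h W Y a w1 w2 z0 ρ r H (Uf c') (Vf c) (P.filter fun t => cv t = c ∧ cu t = c') L hW
    hM.two.to1.r0 hM.two.to1.ρ0 hM.two.rρ hM.two.to1.a0 sU sV ?_ dU dV ?_ ?_ ?_ ?_ ?_
    (by omega) hH T ?_
  · intro t ht
    obtain ⟨g0, g1, g2⟩ := (mem t).1 ht
    have i1 := hM.two.to1.inU t g0
    have i2 := hM.two.to1.inV t g0
    rw [g2] at i1
    rw [g1] at i2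
    exact ⟨i1, i2⟩
  · intro t ht
    obtain ⟨g0, g1, g2⟩ := (mem t).1 ht
    have := hM.al t g0
    rwa [g1, g2] at this
  · intro t ht
    obtain ⟨g0, g1, g2⟩ := (mem t).1 ht
    have := detU hM (by linarith) t g0
    rwa [g2] at this
  · intro t ht
    obtain ⟨g0, g1, g2⟩ := (mem t).1 ht
    have := near4 hM (by linarith) t g0
    rwa [g2] at this
  · intro t ht
    obtain ⟨g0, g1, g2⟩ := (mem t).1 ht
    have h1 := hM.fl t g0
    rw [g1] at h1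
    rcases le_total 0 (kp (Vf c) z0 ρ (L t)) with h2 | h2
    · exact (mul_le_mul_of_nonneg_right hp h2).trans h1
    · have h3 : (2 * W) ^ C * kp (Vf c) z0 ρ (L t) ≤ 0 :=
        mul_nonpos_of_nonneg_of_nonpos hpC h2
      exact h3.trans (hM.two.to1.a0.trans_le (level_pos hM (by linarith))).le
  · exact (mul_le_mul_of_nonneg_right hp hM.two.to1.a0.le).trans hM.big
  · intro y hy
    obtain ⟨t, g0, g1, g2, g3, g4⟩ := hT y hy
    exact ⟨t, (mem t).2 ⟨g0, g2, g3⟩, g1, g4⟩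

end Crest.Agent.R136.Mxa860
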