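import Mathlib
import Crest.Agent.R136.Rk3_601
import Crest.Agent.R136.Arc1_880

/-!
# R136 (U4, PLAN 2 (AL), mixed curvatures): a nondegenerate sheet and a much flatter one (helper615)

* `minor_of_det` : a symmetric 3x3 matrix with a large determinant has a large 2x2 minor.
* `mixed_minor`  : the same for `N - μ M`, `N` small.
* `mixed_th`     : `q1` much flatter than `q0` at a common point, `q0` nondegenerate: the tangential
  Hessian `th q0 q1` has a large 2x2 minor (so every incidence of a mixed pair is `Nd`).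
-/

set_option autoImplicit false

namespace Crest.Agent.R136.Mxc615

open Crest.Agent.R136.Rk601
open Crest.Agent.R136.Arc880 (det3)

theorem minor_of_det {M : Fin 3 → Fin 3 → ℝ} {K δ : ℝ} (hs : ∀ i j, M i j = M j i)
    (hK : ∀ i j, |M i j| ≤ K) (hd : δ ≤ |det3 M|) :
    ∃ i j k l, δ ≤ 3 * K * |mn M i j k l| := by
  by_contra hcon
  push Not at hcon
  have hK0 : 0 ≤ K := (abs_nonneg _).trans (hK 0 0)
  have e : det3 M = M 0 0 * mn M 1 1 2 2 - M 0 1 * mn M 0 1 2 2 + M 0 2 * mn M 0 1 1 2 := by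
    simp only [det3, mn]
    rw [hs 2 1]
    ring
  have h1 : |M 0 0 * mn M 1 1 2 2| ≤ K * |mn M 1 1 2 2| := by
    rw [abs_mul]; exact mul_le_mul_of_nonneg_right (hK 0 0) (abs_nonneg _)
  have h2 : |M 0 1 * mn M 0 1 2 2| ≤ K * |mn M 0 1 2 2| := by
    rw [abs_mul]; exact mul_le_mul_of_nonneg_right (hK 0 1) (abs_nonneg _)
  have h3 : |M 0 2 * mn M 0 1 1 2| ≤ K * |mn M 0 1 1 2| := by
    rw [abs_mul]; exact mul_le_mul_of_nonneg_right (hK 0 2) (abs_nonneg _)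
  have h4 : |det3 M| ≤ K * |mn M 1 1 2 2| + K * |mn M 0 1 2 2| + K * |mn M 0 1 1 2| := by
    rw [e]
    refine (abs_add_le _ _).trans ?_
    have h5 := abs_sub (M 0 0 * mn M 1 1 2 2) (M 0 1 * mn M 0 1 2 2)
    linarith
  have g1 := hcon 1 1 2 2
  have g2 := hcon 0 1 2 2
  have g3 := hcon 0 1 1 2
  linarith

/-- determinant under a change of the entries -/
theorem mn_lin {N M : Fin 3 → Fin 3 → ℝ} {μ K σ : ℝ} (hM : ∀ i j, |M i j| ≤ K)
    (hN : ∀ i j, |N i j| ≤ σ) (i j k l : Fin 3) :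
    μ ^ 2 * |mn M i j k l| ≤
      |mn (fun i j => N i j - μ * M i j) i j k l| + 4 * |μ| * K * σ + 2 * σ ^ 2 := by
  have e : μ ^ 2 * mn M i j k l = mn (fun i j => N i j - μ * M i j) i j k l +
      (μ * (N i j * M k l) + μ * (M i j * N k l) - μ * (N i l * M k j) - μ * (M i l * N k j)) -
      (N i j * N k l - N i l * N k j) := by
    simp only [mn]; ring
  have hK0 : 0 ≤ K := (abs_nonneg _).trans (hM 0 0)
  have hσ0 : 0 ≤ σ := (abs_nonneg _).trans (hN 0 0)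
  have hNM : ∀ i j k l, |μ * (N i j * M k l)| ≤ |μ| * (σ * K) := fun i j k l => by
    rw [abs_mul, abs_mul]
    exact mul_le_mul_of_nonneg_left (mul_le_mul (hN i j) (hM k l) (abs_nonneg _) hσ0) (abs_nonneg _)
  have hMN : ∀ i j k l, |μ * (M i j * N k l)| ≤ |μ| * (σ * K) := fun i j k l => by
    rw [mul_comm (M i j)]; exact hNM k l i j
  have hNN : ∀ i j k l, |N i j * N k l| ≤ σ * σ := fun i j k l => by
    rw [abs_mul]; exact mul_le_mul (hN i j) (hN k l) (abs_nonneg _) hσ0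
  have h1 : |μ ^ 2 * mn M i j k l| = μ ^ 2 * |mn M i j k l| := by
    rw [abs_mul, abs_of_nonneg (sq_nonneg μ)]
  rw [← h1, e]
  have a1 := hNM i j k l
  have a2 := hMN i j k l
  have a3 := hNM i l k j
  have a4 := hMN i l k j
  have a5 := hNN i j k l
  have a6 := hNN i l k j
  have t1 := abs_le.1 a1
  have t2 := abs_le.1 a2
  have t3 := abs_le.1 a3
  have t4 := abs_le.1 a4
  have t5 := abs_le.1 a5
  have t6 := abs_le.1 a6
  have t0 := abs_le.1 (le_refl |mn (fun i j => N i j - μ * M i j) i j k l|)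
  rw [abs_le]
  constructor <;> nlinarith [t1.1, t1.2, t2.1, t2.2, t3.1, t3.2, t4.1, t4.2, t5.1, t5.2, t6.1, t6.2,
    t0.1, t0.2]

/-- **a nondegenerate form minus a small one has a large minor.** -/
theorem mixed_minor {N M : Fin 3 → Fin 3 → ℝ} {μ K δ σ : ℝ} (hs : ∀ i j, M i j = M j i)
    (hK0 : 0 < K) (hM : ∀ i j, |M i j| ≤ K) (hd : δ ≤ |det3 M|) (hN : ∀ i j, |N i j| ≤ σ)
    (hσK : σ ≤ K) (hμ : 1 / 4 ≤ |μ|) (hμ' : |μ| ≤ 4) (hσ : 1920 * (K ^ 2 * σ) ≤ δ) :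
    ∃ i j k l, δ ≤ 96 * K * |mn (fun i j => N i j - μ * M i j) i j k l| := by
  obtain ⟨i, j, k, l, h⟩ := minor_of_det hs hM hd
  refine ⟨i, j, k, l, ?_⟩
  have h1 := mn_lin (μ := μ) hM hN i j k l
  have hσ0 : 0 ≤ σ := (abs_nonneg _).trans (hN 0 0)
  have h2 : 1 / 16 ≤ μ ^ 2 := by
    rw [← sq_abs]
    nlinarith [abs_nonneg μ]
  set A := |mn M i j k l|
  set B := |mn (fun i j => N i j - μ * M i j) i j k l|
  have hA : 0 ≤ A := abs_nonneg _
  have h3 : 1 / 16 * A ≤ μ ^ 2 * A := mul_le_mul_of_nonneg_right h2 hA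
  have h4 : 4 * |μ| * K * σ ≤ 16 * (K * σ) := by
    have : 0 ≤ K * σ := by positivity
    nlinarith
  have h5 : 2 * σ ^ 2 ≤ 2 * (K * σ) := by nlinarith
  have h6 : A ≤ 16 * B + 288 * (K * σ) + 32 * (K * σ) - 32 * (K * σ) := by linarith
  have h7 : K * A ≤ 16 * (K * B) + 288 * (K ^ 2 * σ) := by nlinarith
  nlinarith

/-- entries of the tangential Hessian of one function -/
theorem lf_le {q : Jt} {s : Fin 3 → ℝ} {κ B K : ℝ} (hκ : ∀ i j, |q.h i j| ≤ κ)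
    (h0 : ∀ i, |q.h0 i| ≤ B) (h00 : |q.h00| ≤ B) (hs : ∀ i, |s i| ≤ K) (i j : Fin 3) :
    |lf q s i j| ≤ κ + 2 * (B * K) + B * K ^ 2 := by
  have hB : 0 ≤ B := (abs_nonneg _).trans h00
  have hK : 0 ≤ K := (abs_nonneg _).trans (hs 0)
  have h1 : |q.h0 i * s j| ≤ B * K := by
    rw [abs_mul]; exact mul_le_mul (h0 i) (hs j) (abs_nonneg _) hB
  have h2 : |q.h0 j * s i| ≤ B * K := by
    rw [abs_mul]; exact mul_le_mul (h0 j) (hs i) (abs_nonneg _) hB
  have h3 : |q.h00 * (s i * s j)| ≤ B * K ^ 2 := by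
    rw [abs_mul, abs_mul, sq]
    exact mul_le_mul h00 (mul_le_mul (hs i) (hs j) (abs_nonneg _) hK) (by positivity) hB
  unfold lf
  have a := abs_add_le (q.h i j + q.h0 i * s j + q.h0 j * s i) (q.h00 * (s i * s j))
  have b := abs_add_le (q.h i j + q.h0 i * s j) (q.h0 j * s i)
  have c := abs_add_le (q.h i j) (q.h0 i * s j)
  have d := hκ i j
  linarith

/-- change of the slopes in the tangential Hessian -/
theorem lf_change {q : Jt} {s s' : Fin 3 → ℝ} {B K η : ℝ} (h0 : ∀ i, |q.h0 i| ≤ B)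
    (h00 : |q.h00| ≤ B) (hs : ∀ i, |s i| ≤ K) (hs' : ∀ i, |s' i| ≤ K)
    (hd : ∀ i, |s i - s' i| ≤ η) (i j : Fin 3) :
    |lf q s i j - lf q s' i j| ≤ 2 * B * (1 + K) * η := by
  have hB : 0 ≤ B := (abs_nonneg _).trans h00
  have hK : 0 ≤ K := (abs_nonneg _).trans (hs 0)
  have hη : 0 ≤ η := (abs_nonneg _).trans (hd 0)
  have e : lf q s i j - lf q s' i j = q.h0 i * (s j - s' j) + q.h0 j * (s i - s' i) +
      q.h00 * ((s i - s' i) * s j + s' i * (s j - s' j)) := by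
    unfold lf; ring
  have h1 : |q.h0 i * (s j - s' j)| ≤ B * η := by
    rw [abs_mul]; exact mul_le_mul (h0 i) (hd j) (abs_nonneg _) hB
  have h2 : |q.h0 j * (s i - s' i)| ≤ B * η := by
    rw [abs_mul]; exact mul_le_mul (h0 j) (hd i) (abs_nonneg _) hB
  have h4 : |(s i - s' i) * s j + s' i * (s j - s' j)| ≤ η * K + K * η := by
    refine (abs_add_le _ _).trans ?_
    rw [abs_mul, abs_mul]
    exact add_le_add (mul_le_mul (hd i) (hs j) (abs_nonneg _) hη)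
      (mul_le_mul (hs' i) (hd j) (abs_nonneg _) hK)
  have h5 : |q.h00 * ((s i - s' i) * s j + s' i * (s j - s' j))| ≤ B * (η * K + K * η) := by
    rw [abs_mul]; exact mul_le_mul h00 h4 (abs_nonneg _) hB
  rw [e]
  refine (abs_add_three _ _ _).trans ?_
  linarith

/-- **mixed pair at a common point**: `q0` nondegenerate with tangential Hessian of size `κ`, `q1`
much flatter (tangential Hessian along its own tangent space at most `σ κ`), tangent spaces close: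
the tangential Hessian of `q1` on `q0` has a minor of size `κ ^ 2`. -/
theorem mixed_th {q0 q1 : Jt} {κ B K δ σ η : ℝ} (hκ : 0 < κ) (h1 : q1.a0 ≠ 0)
    (y0 : ∀ i j, q0.h i j = q0.h j i)
    (hK : 0 < K) (b0 : ∀ i j, |lf q0 (sl q0) i j| ≤ K * κ)
    (hd : δ * κ ^ 3 ≤ |det3 (lf q0 (sl q0))|)
    (b1 : ∀ i j, |lf q1 (sl q1) i j| ≤ σ * κ)
    (s0 : ∀ i, |sl q0 i| ≤ K) (s1 : ∀ i, |sl q1 i| ≤ K)
    (hB0 : ∀ i, |q1.h0 i| ≤ B) (hB : |q1.h00| ≤ B)
    (hη : ∀ i, |tg q0 q1 i| ≤ η * |q1.a0|) (h0 : q0.a0 ≠ 0)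
    (herr : 2 * B * (1 + K) * η ≤ σ * κ) (hσK : 2 * σ ≤ K)
    (hμ : 1 / 4 ≤ |q1.a0 / q0.a0|) (hμ' : |q1.a0 / q0.a0| ≤ 4)
    (hσ : 3840 * (K ^ 2 * σ) ≤ δ) :
    ∃ i j k l, δ * κ ^ 2 ≤ 96 * K * |mn (th q0 q1) i j k l| := by
  have ha1 : 0 < |q1.a0| := abs_pos.2 h1
  have hd' : ∀ i, |sl q0 i - sl q1 i| ≤ η := fun i => by
    rw [sl_sub h0 h1, abs_div, div_le_iff₀ ha1]; exact hη i
  have hN : ∀ i j, |lf q1 (sl q0) i j| ≤ 2 * σ * κ := fun i j => by
    have e1 := lf_change hB0 hB s0 s1 hd' i j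
    have e2 := b1 i j
    have e3 := abs_sub_abs_le_abs_sub (lf q1 (sl q0) i j) (lf q1 (sl q1) i j)
    linarith
  have hsym : ∀ i j, lf q0 (sl q0) i j = lf q0 (sl q0) j i := fun i j => by
    unfold lf; rw [y0 i j]; ring
  have hmix := mixed_minor (N := lf q1 (sl q0)) (M := lf q0 (sl q0)) (μ := q1.a0 / q0.a0)
    (K := K * κ) (δ := δ * κ ^ 3) (σ := 2 * σ * κ) hsym (by positivity) b0 hd hN
    (by nlinarith) hμ hμ' (by
      have hκ3 : 0 ≤ κ ^ 3 := by positivity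
      calc 1920 * ((K * κ) ^ 2 * (2 * σ * κ)) = 3840 * (K ^ 2 * σ) * κ ^ 3 := by ring
        _ ≤ δ * κ ^ 3 := mul_le_mul_of_nonneg_right hσ hκ3)
  obtain ⟨i, j, k, l, h⟩ := hmix
  refine ⟨i, j, k, l, ?_⟩
  have e : (fun i j => lf q1 (sl q0) i j - q1.a0 / q0.a0 * lf q0 (sl q0) i j) = th q0 q1 := by
    funext i j; rfl
  rw [e] at h
  have h2 : δ * κ ^ 3 = δ * κ ^ 2 * κ := by ring
  rw [h2] at h
  have h3 : 96 * (K * κ) * |mn (th q0 q1) i j k l| = 96 * K * |mn (th q0 q1) i j k l| * κ := by ring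
  rw [h3] at h
  exact le_of_mul_le_mul_right h hκ

/-- **mixed pair at a common point, base = the FLATTER sheet `q0`**: `q1` nondegenerate with
tangential Hessian (along its own tangent space) of size `κ`, the tangential Hessian of `q0` along its
own tangent space is at most `σ κ`, tangent spaces close: `q1` restricted to the graph of `q0` has a
Hessian with a minor of size `κ ^ 2`. -/
theorem mixed_th_flat {q0 q1 : Jt} {κ B K δ σ η : ℝ} (hκ : 0 < κ) (h1 : q1.a0 ≠ 0)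
    (y1 : ∀ i j, q1.h i j = q1.h j i)
    (hK : 0 < K) (b1 : ∀ i j, |lf q1 (sl q1) i j| ≤ K * κ)
    (hd : δ * κ ^ 3 ≤ |det3 (lf q1 (sl q1))|)
    (b0 : ∀ i j, |lf q0 (sl q0) i j| ≤ σ * κ)
    (s0 : ∀ i, |sl q0 i| ≤ K) (s1 : ∀ i, |sl q1 i| ≤ K)
    (hB0 : ∀ i, |q1.h0 i| ≤ B) (hB : |q1.h00| ≤ B)
    (hη : ∀ i, |tg q0 q1 i| ≤ η * |q1.a0|) (h0 : q0.a0 ≠ 0)
    (herr : 2 * B * (1 + K) * η ≤ σ * κ) (hσK : 5 * σ ≤ K)
    (hμ' : |q1.a0 / q0.a0| ≤ 4)
    (hσ : 9600 * (K ^ 2 * σ) ≤ δ) :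
    ∃ i j k l, δ * κ ^ 2 ≤ 96 * K * |mn (th q0 q1) i j k l| := by
  have ha1 : 0 < |q1.a0| := abs_pos.2 h1
  have hd' : ∀ i, |sl q0 i - sl q1 i| ≤ η := fun i => by
    rw [sl_sub h0 h1, abs_div, div_le_iff₀ ha1]; exact hη i
  have hσ0 : 0 ≤ σ * κ := (abs_nonneg _).trans (b0 0 0)
  have hN : ∀ i j, |lf q1 (sl q0) i j - lf q1 (sl q1) i j -
      q1.a0 / q0.a0 * lf q0 (sl q0) i j| ≤ 5 * σ * κ := fun i j => by
    have e1 := lf_change hB0 hB s0 s1 hd' i j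
    have e2 : |q1.a0 / q0.a0 * lf q0 (sl q0) i j| ≤ 4 * (σ * κ) := by
      rw [abs_mul]; exact mul_le_mul hμ' (b0 i j) (abs_nonneg _) (by norm_num)
    have e3 := abs_sub (lf q1 (sl q0) i j - lf q1 (sl q1) i j) (q1.a0 / q0.a0 * lf q0 (sl q0) i j)
    linarith
  have hsym : ∀ i j, lf q1 (sl q1) i j = lf q1 (sl q1) j i := fun i j => by
    unfold lf; rw [y1 i j]; ring
  have hmix := mixed_minor (N := fun i j => lf q1 (sl q0) i j - lf q1 (sl q1) i j -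
      q1.a0 / q0.a0 * lf q0 (sl q0) i j) (M := lf q1 (sl q1)) (μ := -1)
    (K := K * κ) (δ := δ * κ ^ 3) (σ := 5 * σ * κ) hsym (by positivity) b1 hd hN
    (by nlinarith) (by norm_num) (by norm_num) (by
      have hκ3 : 0 ≤ κ ^ 3 := by positivity
      calc 1920 * ((K * κ) ^ 2 * (5 * σ * κ)) = 9600 * (K ^ 2 * σ) * κ ^ 3 := by ring
        _ ≤ δ * κ ^ 3 := mul_le_mul_of_nonneg_right hσ hκ3)
  obtain ⟨i, j, k, l, h⟩ := hmix
  refine ⟨i, j, k, l, ?_⟩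
  have e : (fun i j => (lf q1 (sl q0) i j - lf q1 (sl q1) i j -
      q1.a0 / q0.a0 * lf q0 (sl q0) i j) - (-1) * lf q1 (sl q1) i j) = th q0 q1 := by
    funext i j
    simp only [th]
    ring
  simp only [e] at h
  have h2 : δ * κ ^ 3 = δ * κ ^ 2 * κ := by ring
  rw [h2] at h
  have h3 : 96 * (K * κ) * |mn (th q0 q1) i j k l| = 96 * K * |mn (th q0 q1) i j k l| * κ := by ring
  rw [h3] at h
  exact le_of_mul_le_mul_right h hκ

/-! ### determinant of the tangential Hessian along a line of the sheet -/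

/-- the jet along `T` (601's `jet_exp`): tangential Hessian in terms of 102's `fan` -/
theorem det_fan {H F : Fin 3 → Fin 3 → ℝ} {κ : ℝ} (hκ : κ ≠ 0) (h00 : H 0 0 = 0) (f00 : F 0 0 = 0)
    (h01 : H 0 1 = 512 * κ * F 0 1) (h02 : H 0 2 = 512 * κ * F 0 2)
    (h11 : H 1 1 = 128 * κ * F 1 1) (h12 : H 1 2 = 128 * κ * F 1 2)
    (h22 : H 2 2 = 128 * κ * F 2 2) :
    det3 H = 33554432 * κ ^ 3 * det3 F := by
  simp only [det3, h00, f00, h01, h02, h11, h12, h22]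
  ring

end Crest.Agent.R136.Mxc615
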