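import Mathlib
import Crest.Agent.R136.Rk4_601
import Crest.Agent.R136.Mxc_615

/-!
# R136 (U4, PLAN 2 (AL), mixed curvatures): change of the chart (helper615)

* `chg`          : the jet in a chart from the jet in another one.
* `lf_chg`       : the tangential Hessian is a form on the tangent space (`Nᵀ H N`).
* `det3_chg`     : its determinant is multiplied by `(det N)²`.
* `lf_change2`, `mixed_th_flat2` : forms of `Mxc_615` which allow a large normal second derivative.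
-/

set_option autoImplicit false
set_option linter.unusedVariables false

namespace Crest.Agent.R136.Mxc615

open Crest.Agent.R136.Rk601
open Crest.Agent.R136.Sh605 (V3 IsQ)
open Crest.Agent.R136.Tl102 (cmb)
open Crest.Agent.R136.Arc880 (det3)

/-! ### determinant of a congruent matrix -/

theorem det3_congr {H N : Fin 3 → Fin 3 → ℝ} (hs : ∀ i j, H i j = H j i) (n00 : N 0 0 = 1)
    (n10 : N 1 0 = 0) (n20 : N 2 0 = 0) :
    det3 (fun i j => ∑ k, ∑ l, N i k * N j l * H k l) =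
      (N 1 1 * N 2 2 - N 1 2 * N 2 1) ^ 2 * det3 H := by
  simp only [det3, Fin.sum_univ_three, n00, n10, n20]
  rw [hs 1 0, hs 2 0, hs 2 1]
  ring

/-! ### change of the chart -/

/-- the jet in the chart `(y, ζ, u, v) ↦ ζ D + y A 0 + u A 1 + v A 2` (the height is kept) -/
noncomputable def chg (J : Jt) (A : Fin 3 → V3) (D : V3) : Jt where
  a0 := J.a0 * A 0 0 + J.a 1 * A 0 1 + J.a 2 * A 0 2
  a := ![J.a 0 + (J.a0 * D 0 + J.a 1 * D 1 + J.a 2 * D 2),
    J.a0 * A 1 0 + J.a 1 * A 1 1 + J.a 2 * A 1 2,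
    J.a0 * A 2 0 + J.a 1 * A 2 1 + J.a 2 * A 2 2]
  h00 := J.h00 * (A 0 0 * A 0 0) + J.h0 1 * (A 0 0 * A 0 1) * 2 + J.h0 2 * (A 0 0 * A 0 2) * 2 +
    J.h 1 1 * (A 0 1 * A 0 1) + (J.h 1 2 + J.h 2 1) * (A 0 1 * A 0 2) + J.h 2 2 * (A 0 2 * A 0 2)
  h0 := ![J.h0 0 * A 0 0 + (J.h 0 1 + J.h 1 0) / 2 * A 0 1 + (J.h 0 2 + J.h 2 0) / 2 * A 0 2 +
      (J.h00 * (A 0 0 * D 0) + J.h0 1 * (A 0 0 * D 1 + A 0 1 * D 0) +
        J.h0 2 * (A 0 0 * D 2 + A 0 2 * D 0) + J.h 1 1 * (A 0 1 * D 1) +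
        (J.h 1 2 + J.h 2 1) / 2 * (A 0 1 * D 2 + A 0 2 * D 1) + J.h 2 2 * (A 0 2 * D 2)),
    J.h00 * (A 0 0 * A 1 0) + J.h0 1 * (A 0 0 * A 1 1 + A 0 1 * A 1 0) +
        J.h0 2 * (A 0 0 * A 1 2 + A 0 2 * A 1 0) + J.h 1 1 * (A 0 1 * A 1 1) +
        (J.h 1 2 + J.h 2 1) / 2 * (A 0 1 * A 1 2 + A 0 2 * A 1 1) + J.h 2 2 * (A 0 2 * A 1 2),
    J.h00 * (A 0 0 * A 2 0) + J.h0 1 * (A 0 0 * A 2 1 + A 0 1 * A 2 0) +
        J.h0 2 * (A 0 0 * A 2 2 + A 0 2 * A 2 0) + J.h 1 1 * (A 0 1 * A 2 1) +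
        (J.h 1 2 + J.h 2 1) / 2 * (A 0 1 * A 2 2 + A 0 2 * A 2 1) + J.h 2 2 * (A 0 2 * A 2 2)]
  h := fun i j =>
    let B : Fin 3 → V3 := ![D, A 1, A 2]
    (if i = 0 then (if j = 0 then J.h 0 0 else 0) else 0) +
      (if i = 0 then J.h0 0 * B j 0 + (J.h 0 1 + J.h 1 0) / 2 * B j 1 +
        (J.h 0 2 + J.h 2 0) / 2 * B j 2 else 0) +
      (if j = 0 then J.h0 0 * B i 0 + (J.h 0 1 + J.h 1 0) / 2 * B i 1 +
        (J.h 0 2 + J.h 2 0) / 2 * B i 2 else 0) +
      (J.h00 * (B i 0 * B j 0) + J.h0 1 * (B i 0 * B j 1 + B i 1 * B j 0) +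
        J.h0 2 * (B i 0 * B j 2 + B i 2 * B j 0) + J.h 1 1 * (B i 1 * B j 1) +
        (J.h 1 2 + J.h 2 1) / 2 * (B i 1 * B j 2 + B i 2 * B j 1) + J.h 2 2 * (B i 2 * B j 2))

theorem chg_jet {q : ℝ → V3 → ℝ} {f f' : Fin 3 → V3} {V V' : V3} {z : ℝ} {X : V3} {ρ : ℝ} {J : Jt}
    {A : Fin 3 → V3} {D : V3} (h : JetAt q f' V' z X ρ J) (hA : ∀ i, f i = cmb f' (A i))
    (hD : ρ • V = ρ • V' + cmb f' D) : JetAt q f V z X ρ (chg J A D) := by
  intro y ζ u v
  have e : X + (ρ * ζ) • V + cmb f ![y, u, v] = X + (ρ * ζ) • V' +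
      cmb f' ![ζ * D 0 + y * A 0 0 + u * A 1 0 + v * A 2 0,
        ζ * D 1 + y * A 0 1 + u * A 1 1 + v * A 2 1,
        ζ * D 2 + y * A 0 2 + u * A 1 2 + v * A 2 2] := by
    have h1 : (ρ * ζ) • V = (ρ * ζ) • V' + ζ • cmb f' D := by
      have : (ρ * ζ) • V = ζ • (ρ • V) := by rw [smul_smul, mul_comm]
      rw [this, hD, smul_add, smul_smul, mul_comm ζ ρ]
    rw [h1]
    funext i
    simp only [Pi.add_apply, Pi.smul_apply, smul_eq_mul, cmb, hA, Matrix.cons_val]
    ring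
  rw [e, h]
  simp only [chg, dp, qf, Fin.sum_univ_three, Matrix.cons_val, Matrix.cons_val_zero,
    Matrix.cons_val_one]
  simp only [Fin.isValue, reduceIte, one_ne_zero, Fin.reduceEq]
  ring

/-- change of basis of the tangent space -/
noncomputable def chN (J : Jt) (A : Fin 3 → V3) (D : V3) (i k : Fin 3) : ℝ :=
  if k = 0 then (if i = 0 then 1 else 0) else
    (![D, A 1, A 2] : Fin 3 → V3) i k + sl (chg J A D) i * A 0 k

/-- **the tangential Hessian is a form on the tangent space.** -/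
theorem lf_chg {J : Jt} {A : Fin 3 → V3} {D : V3} (h0 : J.a0 ≠ 0) (h1 : (chg J A D).a0 ≠ 0)
    (hs : ∀ i j, J.h i j = J.h j i) (i j : Fin 3) :
    lf (chg J A D) (sl (chg J A D)) i j =
      ∑ k, ∑ l, chN J A D i k * chN J A D j l * lf J (sl J) k l := by
  -- normal components of the tangent vectors
  have hn : ∀ i, (![D, A 1, A 2] : Fin 3 → V3) i 0 + sl (chg J A D) i * A 0 0 =
      ∑ k, chN J A D i k * sl J k := by
    intro i
    have hsl : sl (chg J A D) i * (chg J A D).a0 = -(chg J A D).a i := by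
      unfold sl; field_simp
    have hk : ∀ k, sl J k * J.a0 = -J.a k := fun k => by unfold sl; field_simp
    have e1 : ((![D, A 1, A 2] : Fin 3 → V3) i 0 + sl (chg J A D) i * A 0 0) * J.a0 =
        (∑ k, chN J A D i k * sl J k) * J.a0 := by
      have e2 : (∑ k, chN J A D i k * sl J k) * J.a0 = ∑ k, chN J A D i k * -J.a k := by
        rw [Finset.sum_mul]
        refine Finset.sum_congr rfl fun k _ => ?_
        rw [← hk k]; ring
      rw [e2]
      simp only [Fin.sum_univ_three, chN, Fin.isValue, reduceIte, one_ne_zero, Fin.reduceEq]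
      generalize hS : sl (chg J A D) i = S at hsl ⊢
      fin_cases i
      · simp only [chg, Fin.zero_eta, Matrix.cons_val_zero, Fin.isValue, reduceIte] at hsl ⊢
        linear_combination hsl
      · simp only [chg, Fin.mk_one, Matrix.cons_val_one, Matrix.cons_val_zero, Fin.isValue,
          one_ne_zero, reduceIte] at hsl ⊢
        linear_combination hsl
      · simp only [chg, Fin.reduceFinMk, Matrix.cons_val, Fin.isValue, Fin.reduceEq,
          reduceIte] at hsl ⊢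
        linear_combination hsl
    exact mul_right_cancel₀ h0 e1
  have key : ∀ S : Fin 3 → ℝ, ∀ N : Fin 3 → Fin 3 → ℝ,
      (∀ i k, N i k = if k = 0 then (if i = 0 then 1 else 0) else
        (![D, A 1, A 2] : Fin 3 → V3) i k + S i * A 0 k) →
      (∀ i, (![D, A 1, A 2] : Fin 3 → V3) i 0 + S i * A 0 0 = ∑ k, N i k * sl J k) →
      lf (chg J A D) S i j = ∑ k, ∑ l, N i k * N j l * lf J (sl J) k l := by
    intro S N hN hn'
    -- second derivative of `J` in two vectors with components `(n, N)`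
    have e3 : lf (chg J A D) S i j = (∑ k, ∑ l, N i k * N j l * J.h k l) +
        ((![D, A 1, A 2] : Fin 3 → V3) i 0 + S i * A 0 0) * (∑ l, N j l * J.h0 l) +
        ((![D, A 1, A 2] : Fin 3 → V3) j 0 + S j * A 0 0) * (∑ k, N i k * J.h0 k) +
        J.h00 * (((![D, A 1, A 2] : Fin 3 → V3) i 0 + S i * A 0 0) *
          ((![D, A 1, A 2] : Fin 3 → V3) j 0 + S j * A 0 0)) := by
      simp only [Fin.sum_univ_three, hN, Fin.isValue, reduceIte, one_ne_zero, Fin.reduceEq]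
      have s10 := hs 1 0
      have s20 := hs 2 0
      have s21 := hs 2 1
      fin_cases i <;> fin_cases j <;>
        simp only [lf, chg, Fin.zero_eta, Fin.mk_one, Fin.reduceFinMk, Matrix.cons_val_zero,
          Matrix.cons_val_one, Matrix.cons_val, Fin.isValue, reduceIte, one_ne_zero,
          Fin.reduceEq, s10, s20, s21] <;> ring
    rw [e3, hn' i, hn' j]
    simp only [lf, Fin.sum_univ_three]
    ring
  exact key (sl (chg J A D)) (chN J A D) (fun i k => rfl) hn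

/-- determinant of the tangential Hessian in another chart -/
theorem det3_chg {J : Jt} {A : Fin 3 → V3} {D : V3} (h0 : J.a0 ≠ 0) (h1 : (chg J A D).a0 ≠ 0)
    (hs : ∀ i j, J.h i j = J.h j i) :
    det3 (lf (chg J A D) (sl (chg J A D))) =
      (chN J A D 1 1 * chN J A D 2 2 - chN J A D 1 2 * chN J A D 2 1) ^ 2 *
        det3 (lf J (sl J)) := by
  have e : lf (chg J A D) (sl (chg J A D)) =
      fun i j => ∑ k, ∑ l, chN J A D i k * chN J A D j l * lf J (sl J) k l := by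
    funext i j; exact lf_chg h0 h1 hs i j
  rw [e]
  exact det3_congr (fun i j => by unfold lf; rw [hs i j]; ring) (by simp [chN]) (by simp [chN])
    (by simp [chN])

/-- the Jacobian times the normal derivative: area factor -/
theorem jac_chg {J : Jt} {A : Fin 3 → V3} {D : V3} (h1 : (chg J A D).a0 ≠ 0) :
    (chN J A D 1 1 * chN J A D 2 2 - chN J A D 1 2 * chN J A D 2 1) * (chg J A D).a0 =
      J.a0 * (A 0 0 * (A 1 1 * A 2 2 - A 1 2 * A 2 1) - A 0 1 * (A 1 0 * A 2 2 - A 1 2 * A 2 0) +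
        A 0 2 * (A 1 0 * A 2 1 - A 1 1 * A 2 0)) := by
  have hsl : ∀ i, sl (chg J A D) i * (chg J A D).a0 = -(chg J A D).a i := fun i => by
    unfold sl; field_simp
  have a1 := hsl 1
  have a2 := hsl 2
  simp only [chN, Fin.isValue, reduceIte, one_ne_zero, Fin.reduceEq, Matrix.cons_val_one,
    Matrix.cons_val_zero, Matrix.cons_val]
  generalize sl (chg J A D) 1 = S1 at a1 ⊢
  generalize sl (chg J A D) 2 = S2 at a2 ⊢
  simp only [chg, Matrix.cons_val_one, Matrix.cons_val_zero, Matrix.cons_val] at a1 a2 ⊢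
  linear_combination (A 0 1 * A 2 2 - A 0 2 * A 2 1) * a1 + (A 1 1 * A 0 2 - A 1 2 * A 0 1) * a2

/-! ### forms which allow a large normal second derivative -/

/-- change of the slopes; `B` bounds the mixed second derivatives in TANGENT directions -/
theorem lf_change2 {q : Jt} {s s' : Fin 3 → ℝ} {B η : ℝ} (h0 : ∀ i, |q.h0 i + q.h00 * s' i| ≤ B)
    (h00 : |q.h00| * η ≤ B) (hd : ∀ i, |s i - s' i| ≤ η) (i j : Fin 3) :
    |lf q s i j - lf q s' i j| ≤ 3 * B * η := by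
  have hη : 0 ≤ η := (abs_nonneg _).trans (hd 0)
  have hB : 0 ≤ B := (abs_nonneg _).trans (h0 0)
  have e : lf q s i j - lf q s' i j = (q.h0 i + q.h00 * s' i) * (s j - s' j) +
      (q.h0 j + q.h00 * s' j) * (s i - s' i) + q.h00 * (s i - s' i) * (s j - s' j) := by
    unfold lf; ring
  have h1 : |(q.h0 i + q.h00 * s' i) * (s j - s' j)| ≤ B * η := by
    rw [abs_mul]; exact mul_le_mul (h0 i) (hd j) (abs_nonneg _) hB
  have h2 : |(q.h0 j + q.h00 * s' j) * (s i - s' i)| ≤ B * η := by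
    rw [abs_mul]; exact mul_le_mul (h0 j) (hd i) (abs_nonneg _) hB
  have h3 : |q.h00 * (s i - s' i) * (s j - s' j)| ≤ B * η := by
    rw [abs_mul, abs_mul]
    refine mul_le_mul ?_ (hd j) (abs_nonneg _) hB
    exact (mul_le_mul_of_nonneg_left (hd i) (abs_nonneg _)).trans h00
  rw [e]
  refine (abs_add_three _ _ _).trans ?_
  linarith

/-- **mixed pair at a common point, base = the FLATTER sheet `q0`**, second form: only the second
derivatives of `q1` in tangent directions of `q1` are used. -/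
theorem mixed_th_flat2 {q0 q1 : Jt} {κ B K δ σ η : ℝ} (hκ : 0 < κ) (h1 : q1.a0 ≠ 0)
    (y1 : ∀ i j, q1.h i j = q1.h j i)
    (hK : 0 < K) (b1 : ∀ i j, |lf q1 (sl q1) i j| ≤ K * κ)
    (hd : δ * κ ^ 3 ≤ |det3 (lf q1 (sl q1))|)
    (b0 : ∀ i j, |lf q0 (sl q0) i j| ≤ σ * κ)
    (hB0 : ∀ i, |q1.h0 i + q1.h00 * sl q1 i| ≤ B) (hB : |q1.h00| * η ≤ B)
    (hη : ∀ i, |tg q0 q1 i| ≤ η * |q1.a0|) (h0 : q0.a0 ≠ 0)
    (herr : 3 * B * η ≤ σ * κ) (hσK : 5 * σ ≤ K)
    (hμ' : |q1.a0 / q0.a0| ≤ 4)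
    (hσ : 9600 * (K ^ 2 * σ) ≤ δ) :
    ∃ i j k l, δ * κ ^ 2 ≤ 96 * K * |mn (th q0 q1) i j k l| := by
  have ha1 : 0 < |q1.a0| := abs_pos.2 h1
  have hd' : ∀ i, |sl q0 i - sl q1 i| ≤ η := fun i => by
    rw [sl_sub h0 h1, abs_div, div_le_iff₀ ha1]; exact hη i
  have hσ0 : 0 ≤ σ * κ := (abs_nonneg _).trans (b0 0 0)
  have hN : ∀ i j, |lf q1 (sl q0) i j - lf q1 (sl q1) i j -
      q1.a0 / q0.a0 * lf q0 (sl q0) i j| ≤ 5 * σ * κ := fun i j => by
    have e1 := lf_change2 hB0 hB hd' i j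
    have e2 : |q1.a0 / q0.a0 * lf q0 (sl q0) i j| ≤ 4 * (σ * κ) := by
      rw [abs_mul]; exact mul_le_mul hμ' (b0 i j) (abs_nonneg _) (by norm_num)
    have e3 := abs_sub (lf q1 (sl q0) i j - lf q1 (sl q1) i j) (q1.a0 / q0.a0 * lf q0 (sl q0) i j)
    linarith
  have hsym : ∀ i j, lf q1 (sl q1) i j = lf q1 (sl q1) j i := fun i j => by
    unfold lf; rw [y1 i j]; ring
  have hmix := mixed_minor (N := fun i j => lf q1 (sl q0) i j - lf q1 (sl q1) i j -
      q1.a0 / q0.a0 * lf q0 (sl q0) i j) (M := lf q1 (sl q1)) (μ := -1)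
    (K := K * κ) (δ := δ * κ ^ 3) (σ := 5 * σ * κ) hsym (by positivity) b1 hd hN
    (by nlinarith) (by norm_num) (by norm_num) (by
      have hκ3 : 0 ≤ κ ^ 3 := by positivity
      calc 1920 * ((K * κ) ^ 2 * (5 * σ * κ)) = 9600 * (K ^ 2 * σ) * κ ^ 3 := by ring
        _ ≤ δ * κ ^ 3 := mul_le_mul_of_nonneg_right hσ hκ3)
  obtain ⟨i, j, k, l, h⟩ := hmix
  refine ⟨i, j, k, l, ?_⟩
  have e : (fun i j => (lf q1 (sl q0) i j - lf q1 (sl q1) i j -
      q1.a0 / q0.a0 * lf q0 (sl q0) i j) - (-1) * lf q1 (sl q1) i j) = th q0 q1 := by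
    funext i j
    simp only [th]
    ring
  simp only [e] at h
  have h2 : δ * κ ^ 3 = δ * κ ^ 2 * κ := by ring
  rw [h2] at h
  have h3 : 96 * (K * κ) * |mn (th q0 q1) i j k l| = 96 * K * |mn (th q0 q1) i j k l| * κ := by ring
  rw [h3] at h
  exact le_of_mul_le_mul_right h hκ

/-- mixed second derivatives in another chart: `h0 + h00 s` is the second derivative in the normal
axis and a tangent vector -/
theorem mix_chg {J : Jt} {A : Fin 3 → V3} {D : V3} (h0 : J.a0 ≠ 0) (h1 : (chg J A D).a0 ≠ 0)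
    (hs : ∀ i j, J.h i j = J.h j i) (i : Fin 3) :
    (chg J A D).h0 i + (chg J A D).h00 * sl (chg J A D) i =
      A 0 0 * (∑ k, chN J A D i k * (J.h0 k + J.h00 * sl J k)) +
        ∑ k, chN J A D i k * (A 0 1 * (J.h k 1 + J.h0 1 * sl J k) +
          A 0 2 * (J.h k 2 + J.h0 2 * sl J k)) := by
  have hn : ∀ i, (![D, A 1, A 2] : Fin 3 → V3) i 0 + sl (chg J A D) i * A 0 0 =
      ∑ k, chN J A D i k * sl J k := by
    intro i
    have hsl : sl (chg J A D) i * (chg J A D).a0 = -(chg J A D).a i := by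
      unfold sl; field_simp
    have hk : ∀ k, sl J k * J.a0 = -J.a k := fun k => by unfold sl; field_simp
    have e1 : ((![D, A 1, A 2] : Fin 3 → V3) i 0 + sl (chg J A D) i * A 0 0) * J.a0 =
        (∑ k, chN J A D i k * sl J k) * J.a0 := by
      have e2 : (∑ k, chN J A D i k * sl J k) * J.a0 = ∑ k, chN J A D i k * -J.a k := by
        rw [Finset.sum_mul]
        refine Finset.sum_congr rfl fun k _ => ?_
        rw [← hk k]; ring
      rw [e2]
      simp only [Fin.sum_univ_three, chN, Fin.isValue, reduceIte, one_ne_zero, Fin.reduceEq]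
      generalize hS : sl (chg J A D) i = S at hsl ⊢
      fin_cases i
      · simp only [chg, Fin.zero_eta, Matrix.cons_val_zero, Fin.isValue, reduceIte] at hsl ⊢
        linear_combination hsl
      · simp only [chg, Fin.mk_one, Matrix.cons_val_one, Matrix.cons_val_zero, Fin.isValue,
          one_ne_zero, reduceIte] at hsl ⊢
        linear_combination hsl
      · simp only [chg, Fin.reduceFinMk, Matrix.cons_val, Fin.isValue, Fin.reduceEq,
          reduceIte] at hsl ⊢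
        linear_combination hsl
    exact mul_right_cancel₀ h0 e1
  have key : ∀ S : Fin 3 → ℝ, ∀ N : Fin 3 → Fin 3 → ℝ,
      (∀ i k, N i k = if k = 0 then (if i = 0 then 1 else 0) else
        (![D, A 1, A 2] : Fin 3 → V3) i k + S i * A 0 k) →
      (∀ i, (![D, A 1, A 2] : Fin 3 → V3) i 0 + S i * A 0 0 = ∑ k, N i k * sl J k) →
      (chg J A D).h0 i + (chg J A D).h00 * S i =
      A 0 0 * (∑ k, N i k * (J.h0 k + J.h00 * sl J k)) +
        ∑ k, N i k * (A 0 1 * (J.h k 1 + J.h0 1 * sl J k) +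
          A 0 2 * (J.h k 2 + J.h0 2 * sl J k)) := by
    intro S N hN hn'
    have e3 : (chg J A D).h0 i + (chg J A D).h00 * S i =
        A 0 0 * (∑ k, N i k * J.h0 k) +
        A 0 0 * J.h00 * ((![D, A 1, A 2] : Fin 3 → V3) i 0 + S i * A 0 0) +
        (∑ k, N i k * (A 0 1 * J.h k 1 + A 0 2 * J.h k 2)) +
        (A 0 1 * J.h0 1 + A 0 2 * J.h0 2) *
          ((![D, A 1, A 2] : Fin 3 → V3) i 0 + S i * A 0 0) := by
      simp only [Fin.sum_univ_three, hN, Fin.isValue, reduceIte, one_ne_zero, Fin.reduceEq]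
      have s10 := hs 1 0
      have s20 := hs 2 0
      have s21 := hs 2 1
      fin_cases i <;>
        simp only [chg, Fin.zero_eta, Fin.mk_one, Fin.reduceFinMk, Matrix.cons_val_zero,
          Matrix.cons_val_one, Matrix.cons_val, Fin.isValue, reduceIte, one_ne_zero,
          Fin.reduceEq, s10, s20, s21] <;> ring
    rw [e3, hn' i]
    simp only [Fin.sum_univ_three]
    ring
  exact key (sl (chg J A D)) (chN J A D) (fun i k => rfl) hn

end Crest.Agent.R136.Mxc615
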