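import Mathlib
import Crest.Agent.R136.Mxd_615
import Crest.Agent.R136.Cap3_102
import Crest.Agent.R136.KapP_335
import Crest.Agent.R136.Tlt0_51

/-!
# R136 (U4, PLAN 2 (AL), mixed curvatures): the jet of a sheet along its own line (helper615)

* `ownJ`      : jet of a sheet at a point of one of its lines (601's `jet_exp`).
* `own_lf_le` : tangential Hessian at most `130 κ + 1000 a`.
* `own_det`   : determinant of the tangential Hessian at least `2 ^ 24 δ κ ^ 3` (`DetP δ`).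
-/

set_option autoImplicit false
set_option linter.unusedVariables false

namespace Crest.Agent.R136.Mxc615

open Crest.Agent.R136.Rk601
open Crest.Agent.R136.Sh605 Crest.Agent.R136.Tl102
open Crest.Agent.R136.Arc880 (det3)

/-! ### the fan, unscaled -/

theorem slp_eq {b0 b1 : V3} {ζ : ℝ} (h0 : b0 0 ≠ 0) (h1 : b0 0 + ζ * b1 0 ≠ 0) (k : Fin 3) :
    slp b0 b1 k ζ = -(b0 k / b0 0) + -(ζ * (b1 k - b0 k / b0 0 * b1 0)) / (b0 0 + ζ * b1 0) := by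
  unfold slp
  field_simp
  ring

/-- bounds of the entries of the fan by the curvature extent -/
theorem fan_dir {b0 b1 : V3} {G : QF} (N : NrmC b0 b1 G) {ζ : ℝ} (hζ : 0 ≤ ζ) (hζ' : ζ ≤ 1) :
    1 / 2 ≤ b0 0 + ζ * b1 0 ∧ b0 0 + ζ * b1 0 ≤ 2 ∧
    |slp b0 b1 1 ζ| ≤ 2 ∧ |slp b0 b1 2 ζ| ≤ 2 ∧
    |b1 1 + b1 0 * slp b0 b1 1 ζ| ≤ 4 * kap b0 b1 G ∧
    |b1 2 + b1 0 * slp b0 b1 2 ζ| ≤ 4 * kap b0 b1 G ∧
    |G.uu + G.yu * slp b0 b1 1 ζ + G.yy * slp b0 b1 1 ζ ^ 2| ≤ 63 * kap b0 b1 G ∧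
    |G.uv + G.yu * slp b0 b1 2 ζ + G.yv * slp b0 b1 1 ζ +
      2 * G.yy * (slp b0 b1 1 ζ * slp b0 b1 2 ζ)| ≤ 125 * kap b0 b1 G ∧
    |G.vv + G.yv * slp b0 b1 2 ζ + G.yy * slp b0 b1 2 ζ ^ 2| ≤ 63 * kap b0 b1 G := by
  obtain ⟨g1, g2, g3, g4, g5, -, -, -, -⟩ := N.b1_le
  obtain ⟨h1, h2, h3, h4, h5, h6, h7⟩ := N.sh_le
  obtain ⟨m1, -⟩ := N.G_le
  have hk := kap_le N
  set κ := kap b0 b1 G with hκ
  have hκ0 : 0 ≤ κ := kap_nonneg b0 b1 G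
  have k1 : |shB1 b0 b1 1| ≤ κ := (le_max_left _ _).trans (le_max_left _ _)
  have k2 : |shB1 b0 b1 2| ≤ κ := (le_max_right _ _).trans (le_max_left _ _)
  have k3 : |(shG b0 G).uu| ≤ κ :=
    (le_max_left _ _).trans ((le_max_left _ _).trans (le_max_right _ _))
  have k4 : |(shG b0 G).uv| ≤ κ :=
    (le_max_right _ _).trans ((le_max_left _ _).trans (le_max_right _ _))
  have k5 : |(shG b0 G).vv| ≤ κ := (le_max_right _ _).trans (le_max_right _ _)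
  have hn : 1 / 2 ≤ b0 0 + ζ * b1 0 := by nlinarith
  have hn' : b0 0 + ζ * b1 0 ≤ 2 := by nlinarith
  have hn0 : 0 < b0 0 + ζ * b1 0 := by linarith
  have hb : b0 0 ≠ 0 := by linarith
  have sb : ∀ k : Fin 3, |b0 k| ≤ 1 → |b0 k + b1 k| ≤ 1 → |slp b0 b1 k ζ| ≤ 2 := by
    intro k hk0 hk1
    unfold slp
    rw [abs_div, abs_of_pos hn0, div_le_iff₀ hn0, abs_neg]
    have e : b0 k + ζ * b1 k = (1 - ζ) * b0 k + ζ * (b0 k + b1 k) := by ring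
    have : |b0 k + ζ * b1 k| ≤ 1 := by
      rw [e]
      refine (abs_add_le _ _).trans ?_
      rw [abs_mul, abs_mul, abs_of_nonneg hζ, abs_of_nonneg (by linarith : 0 ≤ 1 - ζ)]
      nlinarith
    linarith
  have s1 := sb 1 N.b01 N.b11
  have s2 := sb 2 N.b02 N.b12
  -- deviations of the slopes
  have dv : ∀ x : ℝ, |x| ≤ κ → |-(ζ * x) / (b0 0 + ζ * b1 0)| ≤ 2 * κ := by
    intro x hx
    rw [abs_div, abs_of_pos hn0, div_le_iff₀ hn0, abs_neg, abs_mul, abs_of_nonneg hζ]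
    have := abs_nonneg x
    nlinarith
  have e1 := slp_eq hb hn0.ne' 1
  have e2 := slp_eq hb hn0.ne' 2
  set p := slp b0 b1 1 ζ with hp
  set r := slp b0 b1 2 ζ with hr
  set d1 := -(ζ * (b1 1 - b0 1 / b0 0 * b1 0)) / (b0 0 + ζ * b1 0) with hd1
  set d2 := -(ζ * (b1 2 - b0 2 / b0 0 * b1 0)) / (b0 0 + ζ * b1 0) with hd2
  have D1 : |d1| ≤ 2 * κ := dv _ k1
  have D2 : |d2| ≤ 2 * κ := dv _ k2
  have t2 : |(2 : ℝ)| ≤ 2 := by norm_num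
  refine ⟨hn, hn', s1, s2, ?_, ?_, ?_, ?_, ?_⟩
  · have e : b1 1 + b1 0 * p = shB1 b0 b1 1 + b1 0 * d1 := by
      rw [e1]; simp only [shB1, Matrix.cons_val_one, Matrix.cons_val_zero]; ring
    rw [e]
    refine (Arc880.abs_add2 k1 (mul_abs_le g5 D1)).trans (by linarith)
  · have e : b1 2 + b1 0 * r = shB1 b0 b1 2 + b1 0 * d2 := by
      rw [e2]; simp only [shB1, Matrix.cons_val]; ring
    rw [e]
    refine (Arc880.abs_add2 k2 (mul_abs_le g5 D2)).trans (by linarith)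
  · have e : G.uu + G.yu * p + G.yy * p ^ 2 =
        (shG b0 G).uu + (shG b0 G).yu * d1 + G.yy * (d1 * d1) := by
      rw [e1]; simp only [shG]; ring
    rw [e]
    refine (Arc880.abs_add2 (Arc880.abs_add2 k3 (mul_abs_le h3 D1))
      (mul_abs_le m1 (mul_abs_le D1 D1))).trans ?_
    nlinarith
  · have e : G.uv + G.yu * r + G.yv * p + 2 * G.yy * (p * r) =
        (shG b0 G).uv + (shG b0 G).yu * d2 + (shG b0 G).yv * d1 + 2 * G.yy * (d1 * d2) := by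
      rw [e1, e2]; simp only [shG]; ring
    rw [e]
    refine (Arc880.abs_add2 (Arc880.abs_add2 (Arc880.abs_add2 k4 (mul_abs_le h3 D2))
      (mul_abs_le h4 D1)) (mul_abs_le (mul_abs_le t2 m1) (mul_abs_le D1 D2))).trans ?_
    nlinarith
  · have e : G.vv + G.yv * r + G.yy * r ^ 2 =
        (shG b0 G).vv + (shG b0 G).yv * d2 + G.yy * (d2 * d2) := by
      rw [e2]; simp only [shG]; ring
    rw [e]
    refine (Arc880.abs_add2 (Arc880.abs_add2 k5 (mul_abs_le h4 D2))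
      (mul_abs_le m1 (mul_abs_le D2 D2))).trans ?_
    nlinarith

/-- the fan scales with the curvature extent -/
theorem fan_scale {b0 b1 : V3} {G : QF} {κ ζ : ℝ} (h0 : b0 0 ≠ 0) (h1 : b0 0 + ζ * b1 0 ≠ 0)
    (hκ : κ ≠ 0) (i j : Fin 3) :
    fan b0 b1 G ζ i j = κ * fan (shB0 b0) (scB1 κ b0 b1) (scG κ b0 G) ζ i j := by
  have s : ∀ k : Fin 3, k ≠ 0 → slp b0 b1 k ζ =
      -(b0 k / b0 0) + κ * slp (shB0 b0) (scB1 κ b0 b1) k ζ := by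
    intro k hk
    rw [slp_eq h0 h1 k]
    congr 1
    unfold slp
    fin_cases k
    · exact absurd rfl hk
    · simp only [shB0, scB1, shB1, Fin.mk_one, Matrix.cons_val_one, Matrix.cons_val_zero]
      field_simp
      ring
    · simp only [shB0, scB1, shB1, Fin.reduceFinMk, Matrix.cons_val, Matrix.cons_val_zero]
      field_simp
      ring
  have s1 := s 1 (by decide)
  have s2 := s 2 (by decide)
  generalize hp : slp (shB0 b0) (scB1 κ b0 b1) 1 ζ = p at s1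
  generalize hr : slp (shB0 b0) (scB1 κ b0 b1) 2 ζ = r at s2
  have t01 : (b1 1 + b1 0 * slp b0 b1 1 ζ) / 512 =
      κ * ((scB1 κ b0 b1 1 + scB1 κ b0 b1 0 * p) / 512) := by
    rw [s1]
    simp only [scB1, shB1, Matrix.cons_val_one, Matrix.cons_val_zero]
    field_simp
    ring
  have t02 : (b1 2 + b1 0 * slp b0 b1 2 ζ) / 512 =
      κ * ((scB1 κ b0 b1 2 + scB1 κ b0 b1 0 * r) / 512) := by
    rw [s2]
    simp only [scB1, shB1, Matrix.cons_val, Matrix.cons_val_zero]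
    field_simp
    ring
  have t11 : (G.uu + G.yu * slp b0 b1 1 ζ + G.yy * slp b0 b1 1 ζ ^ 2) / 64 =
      κ * (((scG κ b0 G).uu + (scG κ b0 G).yu * p + (scG κ b0 G).yy * p ^ 2) / 64) := by
    rw [s1]
    simp only [scG, shG]
    field_simp
    ring
  have t12 : (G.uv + G.yu * slp b0 b1 2 ζ + G.yv * slp b0 b1 1 ζ +
      2 * G.yy * (slp b0 b1 1 ζ * slp b0 b1 2 ζ)) / 128 =
      κ * (((scG κ b0 G).uv + (scG κ b0 G).yu * r + (scG κ b0 G).yv * p +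
        2 * (scG κ b0 G).yy * (p * r)) / 128) := by
    rw [s1, s2]
    simp only [scG, shG]
    field_simp
    ring
  have t22 : (G.vv + G.yv * slp b0 b1 2 ζ + G.yy * slp b0 b1 2 ζ ^ 2) / 64 =
      κ * (((scG κ b0 G).vv + (scG κ b0 G).yv * r + (scG κ b0 G).yy * r ^ 2) / 64) := by
    rw [s2]
    simp only [scG, shG]
    field_simp
    ring
  subst hp hr
  fin_cases i <;> fin_cases j
  · show (0 : ℝ) = κ * 0
    rw [mul_zero]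
  · exact t01
  · exact t02
  · exact t01
  · exact t11
  · exact t12
  · exact t02
  · exact t12
  · exact t22

/-! ### the jet of the sheet on its line -/

/-- 601's `jet_exp` -/
noncomputable def ownJ (w0 : ℝ) (b0 b1 : V3) (G : QF) (ζ k1 k2 : ℝ) : Jt where
  a0 := w0 * (b0 0 + ζ * b1 0)
  a := ![k1, w0 * (b0 1 + ζ * b1 1), w0 * (b0 2 + ζ * b1 2)]
  h00 := 2 * (w0 * G.yy)
  h0 := ![w0 * b1 0, w0 * G.yu, w0 * G.yv]
  h := ![![2 * k2, w0 * b1 1, w0 * b1 2], ![w0 * b1 1, 2 * (w0 * G.uu), w0 * G.uv],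
    ![w0 * b1 2, w0 * G.uv, 2 * (w0 * G.vv)]]

theorem ownJ_sym (w0 : ℝ) (b0 b1 : V3) (G : QF) (ζ k1 k2 : ℝ) (i j : Fin 3) :
    (ownJ w0 b0 b1 G ζ k1 k2).h i j = (ownJ w0 b0 b1 G ζ k1 k2).h j i := by
  fin_cases i <;> fin_cases j <;> rfl

/-- main part of the tangential Hessian -/
noncomputable def ownM (w0 : ℝ) (b0 b1 : V3) (G : QF) (ζ : ℝ) : Fin 3 → Fin 3 → ℝ :=
  ![![0, w0 * (b1 1 + b1 0 * slp b0 b1 1 ζ), w0 * (b1 2 + b1 0 * slp b0 b1 2 ζ)],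
    ![w0 * (b1 1 + b1 0 * slp b0 b1 1 ζ),
      2 * (w0 * (G.uu + G.yu * slp b0 b1 1 ζ + G.yy * slp b0 b1 1 ζ ^ 2)),
      w0 * (G.uv + G.yu * slp b0 b1 2 ζ + G.yv * slp b0 b1 1 ζ +
        2 * G.yy * (slp b0 b1 1 ζ * slp b0 b1 2 ζ))],
    ![w0 * (b1 2 + b1 0 * slp b0 b1 2 ζ),
      w0 * (G.uv + G.yu * slp b0 b1 2 ζ + G.yv * slp b0 b1 1 ζ +
        2 * G.yy * (slp b0 b1 1 ζ * slp b0 b1 2 ζ)),
      2 * (w0 * (G.vv + G.yv * slp b0 b1 2 ζ + G.yy * slp b0 b1 2 ζ ^ 2))]]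

theorem ownM_le {b0 b1 : V3} {G : QF} (N : NrmC b0 b1 G) {w0 ζ : ℝ} (hw : 0 ≤ w0) (hζ : 0 ≤ ζ)
    (hζ' : ζ ≤ 1) (i j : Fin 3) : |ownM w0 b0 b1 G ζ i j| ≤ 130 * (w0 * kap b0 b1 G) := by
  obtain ⟨-, -, -, -, c1, c2, c3, c4, c5⟩ := fan_dir N hζ hζ'
  have hκ0 : 0 ≤ kap b0 b1 G := kap_nonneg b0 b1 G
  have hm : ∀ x C : ℝ, C ≤ 130 → |x| ≤ C * kap b0 b1 G → |w0 * x| ≤ 130 * (w0 * kap b0 b1 G) := by
    intro x C hC hx
    rw [abs_mul, abs_of_nonneg hw]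
    have : |x| ≤ 130 * kap b0 b1 G := hx.trans (mul_le_mul_of_nonneg_right hC hκ0)
    calc w0 * |x| ≤ w0 * (130 * kap b0 b1 G) := mul_le_mul_of_nonneg_left this hw
      _ = _ := by ring
  have hm2 : ∀ x : ℝ, |x| ≤ 63 * kap b0 b1 G → |2 * (w0 * x)| ≤ 130 * (w0 * kap b0 b1 G) := by
    intro x hx
    have e : 2 * (w0 * x) = w0 * (2 * x) := by ring
    rw [e]
    refine hm (2 * x) 126 (by norm_num) ?_
    rw [abs_mul, abs_of_pos (by norm_num : (0:ℝ) < 2)]; linarith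
  have z0 : |(0 : ℝ)| ≤ 130 * (w0 * kap b0 b1 G) := by rw [abs_zero]; positivity
  fin_cases i <;> fin_cases j
  · exact z0
  · exact hm _ 4 (by norm_num) c1
  · exact hm _ 4 (by norm_num) c2
  · exact hm _ 4 (by norm_num) c1
  · exact hm2 _ c3
  · exact hm _ 125 (by norm_num) c4
  · exact hm _ 4 (by norm_num) c2
  · exact hm _ 125 (by norm_num) c4
  · exact hm2 _ c5

/-- slopes of the own jet -/
theorem ownJ_sl {b0 b1 : V3} {G : QF} (N : NrmC b0 b1 G) {w0 ζ k1 k2 a : ℝ} (hw : 0 < w0)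
    (hζ : 0 ≤ ζ) (hζ' : ζ ≤ 1) (h1 : |k1| ≤ 10 * a) :
    |sl (ownJ w0 b0 b1 G ζ k1 k2) 0| * w0 ≤ 20 * a ∧
      sl (ownJ w0 b0 b1 G ζ k1 k2) 1 = slp b0 b1 1 ζ ∧
      sl (ownJ w0 b0 b1 G ζ k1 k2) 2 = slp b0 b1 2 ζ := by
  obtain ⟨n1, n2, -⟩ := fan_dir N hζ hζ'
  have hn0 : 0 < b0 0 + ζ * b1 0 := by linarith
  refine ⟨?_, ?_, ?_⟩
  · simp only [sl, ownJ, Matrix.cons_val_zero]
    rw [abs_div, abs_neg, abs_of_pos (by positivity : 0 < w0 * (b0 0 + ζ * b1 0)),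
      div_mul_eq_mul_div, div_le_iff₀ (by positivity)]
    have ha : 0 ≤ a := by have := abs_nonneg k1; linarith
    have : 0 ≤ a * w0 := by positivity
    nlinarith
  · simp only [sl, ownJ, slp, Matrix.cons_val_one, Matrix.cons_val_zero]
    field_simp
  · simp only [sl, ownJ, slp, Matrix.cons_val]
    field_simp

/-- the tangential Hessian of the own jet is `ownM` up to `1000 a` -/
theorem own_lf_aux {b0 b1 : V3} {G : QF} (N : NrmC b0 b1 G) {w0 ζ k1 k2 a : ℝ}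
    (hζ : 0 ≤ ζ) (hζ' : ζ ≤ 1) (ha : 0 ≤ a) (h2 : |k2| ≤ 8 * a) (s : Fin 3 → ℝ)
    (e1 : s 1 = slp b0 b1 1 ζ) (e2 : s 2 = slp b0 b1 2 ζ) (hws : |w0 * s 0| ≤ 20 * a)
    (S0 : |s 0| ≤ 20) (i j : Fin 3) :
    |lf (ownJ w0 b0 b1 G ζ k1 k2) s i j - ownM w0 b0 b1 G ζ i j| ≤ 1000 * a := by
  obtain ⟨-, -, s1, s2, -⟩ := fan_dir N hζ hζ'
  obtain ⟨-, -, -, -, g5, -⟩ := N.b1_le
  obtain ⟨m1, m2, m3, -⟩ := N.G_le
  have x1 : |b1 0 * (w0 * s 0)| ≤ 3 / 2 * (20 * a) := mul_abs_le g5 hws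
  have x2 : |G.yy * (w0 * s 0 * s 0)| ≤ 1 * (20 * a * 20) := mul_abs_le m1 (mul_abs_le hws S0)
  have x3 : |G.yu * (w0 * s 0)| ≤ 1 * (20 * a) := mul_abs_le m2 hws
  have x4 : |G.yv * (w0 * s 0)| ≤ 1 * (20 * a) := mul_abs_le m3 hws
  have x5 : |G.yy * (w0 * s 0 * slp b0 b1 1 ζ)| ≤ 1 * (20 * a * 2) :=
    mul_abs_le m1 (mul_abs_le hws s1)
  have x6 : |G.yy * (w0 * s 0 * slp b0 b1 2 ζ)| ≤ 1 * (20 * a * 2) :=
    mul_abs_le m1 (mul_abs_le hws s2)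
  rw [abs_le] at x1 x2 x3 x4 x5 x6 h2
  obtain ⟨y1, z1⟩ := x1
  obtain ⟨y2, z2⟩ := x2
  obtain ⟨y3, z3⟩ := x3
  obtain ⟨y4, z4⟩ := x4
  obtain ⟨y5, z5⟩ := x5
  obtain ⟨y6, z6⟩ := x6
  obtain ⟨y7, z7⟩ := h2
  clear s1 s2 g5 m1 m2 m3 hws S0
  generalize hp : slp b0 b1 1 ζ = p at *
  generalize hr : slp b0 b1 2 ζ = r at *
  generalize hs0 : s 0 = s0 at *
  have w01 : |w0 * b1 1 + w0 * b1 0 * p + w0 * G.yu * s0 + 2 * (w0 * G.yy) * (s0 * p) -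
      w0 * (b1 1 + b1 0 * p)| ≤ 1000 * a := by
    rw [abs_le]; constructor <;> linarith
  have w02 : |w0 * b1 2 + w0 * b1 0 * r + w0 * G.yv * s0 + 2 * (w0 * G.yy) * (s0 * r) -
      w0 * (b1 2 + b1 0 * r)| ≤ 1000 * a := by
    rw [abs_le]; constructor <;> linarith
  have w00 : |2 * k2 + w0 * b1 0 * s0 + w0 * b1 0 * s0 + 2 * (w0 * G.yy) * (s0 * s0) - 0| ≤
      1000 * a := by
    rw [abs_le]; constructor <;> linarith
  have ha' : (0 : ℝ) ≤ 1000 * a := by positivity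
  fin_cases i <;> fin_cases j
  · show |2 * k2 + w0 * b1 0 * s 0 + w0 * b1 0 * s 0 + 2 * (w0 * G.yy) * (s 0 * s 0) - 0| ≤ _
    rw [hs0]; exact w00
  · show |w0 * b1 1 + w0 * b1 0 * s 1 + w0 * G.yu * s 0 + 2 * (w0 * G.yy) * (s 0 * s 1) -
      w0 * (b1 1 + b1 0 * slp b0 b1 1 ζ)| ≤ _
    rw [hs0, e1, hp]; exact w01
  · show |w0 * b1 2 + w0 * b1 0 * s 2 + w0 * G.yv * s 0 + 2 * (w0 * G.yy) * (s 0 * s 2) -
      w0 * (b1 2 + b1 0 * slp b0 b1 2 ζ)| ≤ _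
    rw [hs0, e2, hr]; exact w02
  · show |w0 * b1 1 + w0 * G.yu * s 0 + w0 * b1 0 * s 1 + 2 * (w0 * G.yy) * (s 1 * s 0) -
      w0 * (b1 1 + b1 0 * slp b0 b1 1 ζ)| ≤ _
    rw [hs0, e1, hp]
    refine le_trans (le_of_eq ?_) w01
    congr 1; ring
  · show |2 * (w0 * G.uu) + w0 * G.yu * s 1 + w0 * G.yu * s 1 + 2 * (w0 * G.yy) * (s 1 * s 1) -
      2 * (w0 * (G.uu + G.yu * slp b0 b1 1 ζ + G.yy * slp b0 b1 1 ζ ^ 2))| ≤ _
    rw [e1, hp]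
    have : 2 * (w0 * G.uu) + w0 * G.yu * p + w0 * G.yu * p + 2 * (w0 * G.yy) * (p * p) -
      2 * (w0 * (G.uu + G.yu * p + G.yy * p ^ 2)) = 0 := by ring
    rw [this, abs_zero]; exact ha'
  · show |w0 * G.uv + w0 * G.yu * s 2 + w0 * G.yv * s 1 + 2 * (w0 * G.yy) * (s 1 * s 2) -
      w0 * (G.uv + G.yu * slp b0 b1 2 ζ + G.yv * slp b0 b1 1 ζ +
        2 * G.yy * (slp b0 b1 1 ζ * slp b0 b1 2 ζ))| ≤ _
    rw [e1, e2, hp, hr]
    have : w0 * G.uv + w0 * G.yu * r + w0 * G.yv * p + 2 * (w0 * G.yy) * (p * r) -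
      w0 * (G.uv + G.yu * r + G.yv * p + 2 * G.yy * (p * r)) = 0 := by ring
    rw [this, abs_zero]; exact ha'
  · show |w0 * b1 2 + w0 * G.yv * s 0 + w0 * b1 0 * s 2 + 2 * (w0 * G.yy) * (s 2 * s 0) -
      w0 * (b1 2 + b1 0 * slp b0 b1 2 ζ)| ≤ _
    rw [hs0, e2, hr]
    refine le_trans (le_of_eq ?_) w02
    congr 1; ring
  · show |w0 * G.uv + w0 * G.yv * s 1 + w0 * G.yu * s 2 + 2 * (w0 * G.yy) * (s 2 * s 1) -
      w0 * (G.uv + G.yu * slp b0 b1 2 ζ + G.yv * slp b0 b1 1 ζ +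
        2 * G.yy * (slp b0 b1 1 ζ * slp b0 b1 2 ζ))| ≤ _
    rw [e1, e2, hp, hr]
    have : w0 * G.uv + w0 * G.yv * p + w0 * G.yu * r + 2 * (w0 * G.yy) * (r * p) -
      w0 * (G.uv + G.yu * r + G.yv * p + 2 * G.yy * (p * r)) = 0 := by ring
    rw [this, abs_zero]; exact ha'
  · show |2 * (w0 * G.vv) + w0 * G.yv * s 2 + w0 * G.yv * s 2 + 2 * (w0 * G.yy) * (s 2 * s 2) -
      2 * (w0 * (G.vv + G.yv * slp b0 b1 2 ζ + G.yy * slp b0 b1 2 ζ ^ 2))| ≤ _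
    rw [e2, hr]
    have : 2 * (w0 * G.vv) + w0 * G.yv * r + w0 * G.yv * r + 2 * (w0 * G.yy) * (r * r) -
      2 * (w0 * (G.vv + G.yv * r + G.yy * r ^ 2)) = 0 := by ring
    rw [this, abs_zero]; exact ha'

theorem own_lf {b0 b1 : V3} {G : QF} (N : NrmC b0 b1 G) {w0 ζ k1 k2 a : ℝ} (hw : 0 < w0)
    (haw : a ≤ w0) (hζ : 0 ≤ ζ) (hζ' : ζ ≤ 1) (h1 : |k1| ≤ 10 * a) (h2 : |k2| ≤ 8 * a)
    (i j : Fin 3) :
    |lf (ownJ w0 b0 b1 G ζ k1 k2) (sl (ownJ w0 b0 b1 G ζ k1 k2)) i j - ownM w0 b0 b1 G ζ i j| ≤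
      1000 * a := by
  obtain ⟨e0, e1, e2⟩ := ownJ_sl (G := G) (k2 := k2) N hw hζ hζ' h1
  have ha : 0 ≤ a := by have := abs_nonneg k1; linarith
  have S0 : |sl (ownJ w0 b0 b1 G ζ k1 k2) 0| ≤ 20 := by
    by_contra hc
    push Not at hc
    have : 20 * w0 < |sl (ownJ w0 b0 b1 G ζ k1 k2) 0| * w0 := mul_lt_mul_of_pos_right hc hw
    linarith
  refine own_lf_aux N hζ hζ' ha h2 _ e1 e2 ?_ S0 i j
  rw [abs_mul, abs_of_pos hw, mul_comm]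
  exact e0

theorem own_lf_le {b0 b1 : V3} {G : QF} (N : NrmC b0 b1 G) {w0 ζ k1 k2 a : ℝ} (hw : 0 < w0)
    (haw : a ≤ w0) (hζ : 0 ≤ ζ) (hζ' : ζ ≤ 1) (h1 : |k1| ≤ 10 * a) (h2 : |k2| ≤ 8 * a)
    (i j : Fin 3) :
    |lf (ownJ w0 b0 b1 G ζ k1 k2) (sl (ownJ w0 b0 b1 G ζ k1 k2)) i j| ≤
      130 * (w0 * kap b0 b1 G) + 1000 * a := by
  have e1 := own_lf N hw haw hζ hζ' h1 h2 i j
  have e2 := ownM_le N hw.le hζ hζ' i j
  have e3 := abs_sub_abs_le_abs_sub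
    (lf (ownJ w0 b0 b1 G ζ k1 k2) (sl (ownJ w0 b0 b1 G ζ k1 k2)) i j) (ownM w0 b0 b1 G ζ i j)
  linarith

/-! ### the determinant -/

theorem prod3_pert {x y z x' y' z' B ε : ℝ} (hx : |x| ≤ B) (hy : |y| ≤ B) (hz : |z| ≤ B)
    (hx' : |x' - x| ≤ ε) (hy' : |y' - y| ≤ ε) (hz' : |z' - z| ≤ ε) (hε : ε ≤ B) :
    |x' * y' * z' - x * y * z| ≤ 7 * (B ^ 2 * ε) := by
  have hB : 0 ≤ B := (abs_nonneg _).trans hx
  have hε0 : 0 ≤ ε := (abs_nonneg _).trans hx'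
  have e : x' * y' * z' - x * y * z = (x' - x) * y * z + x * (y' - y) * z + x * y * (z' - z) +
      (x' - x) * (y' - y) * z + (x' - x) * y * (z' - z) + x * (y' - y) * (z' - z) +
      (x' - x) * (y' - y) * (z' - z) := by ring
  have a1 := mul_abs_le (mul_abs_le hx' hy) hz
  have a2 := mul_abs_le (mul_abs_le hx hy') hz
  have a3 := mul_abs_le (mul_abs_le hx hy) hz'
  have a4 := mul_abs_le (mul_abs_le hx' hy') hz
  have a5 := mul_abs_le (mul_abs_le hx' hy) hz'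
  have a6 := mul_abs_le (mul_abs_le hx hy') hz'
  have a7 := mul_abs_le (mul_abs_le hx' hy') hz'
  have hεB : ε * ε ≤ B * ε := mul_le_mul_of_nonneg_right hε hε0
  have h4 : ε * ε * B ≤ B ^ 2 * ε := by nlinarith
  have h7 : ε * ε * ε ≤ B ^ 2 * ε := by nlinarith
  rw [e]
  refine (Arc880.abs_add2 (Arc880.abs_add2 (Arc880.abs_add2 (Arc880.abs_add2 (Arc880.abs_add2
    (Arc880.abs_add2 a1 a2) a3) a4) a5) a6) a7).trans ?_
  nlinarith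

theorem det3_pert {M M' : Fin 3 → Fin 3 → ℝ} {B ε : ℝ} (h : ∀ i j, |M i j| ≤ B)
    (h' : ∀ i j, |M' i j - M i j| ≤ ε) (hε : ε ≤ B) :
    |det3 M' - det3 M| ≤ 42 * (B ^ 2 * ε) := by
  have a1 := prod3_pert (h 0 0) (h 1 1) (h 2 2) (h' 0 0) (h' 1 1) (h' 2 2) hε
  have a2 := prod3_pert (h 0 1) (h 1 2) (h 0 2) (h' 0 1) (h' 1 2) (h' 0 2) hε
  have a3 := prod3_pert (h 0 0) (h 1 2) (h 1 2) (h' 0 0) (h' 1 2) (h' 1 2) hε
  have a4 := prod3_pert (h 0 1) (h 0 1) (h 2 2) (h' 0 1) (h' 0 1) (h' 2 2) hε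
  have a5 := prod3_pert (h 0 2) (h 0 2) (h 1 1) (h' 0 2) (h' 0 2) (h' 1 1) hε
  rw [abs_le] at a1 a2 a3 a4 a5 ⊢
  obtain ⟨b1, c1⟩ := a1
  obtain ⟨b2, c2⟩ := a2
  obtain ⟨b3, c3⟩ := a3
  obtain ⟨b4, c4⟩ := a4
  obtain ⟨b5, c5⟩ := a5
  unfold det3
  constructor <;> linarith

/-- **determinant of the tangential Hessian of a nondegenerate sheet along its line** -/
theorem own_det {b0 b1 : V3} {G : QF} (N : NrmC b0 b1 G) (hκ : 0 < kap b0 b1 G)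
    {w0 ζ k1 k2 a δ : ℝ} (hw : 0 < w0) (haw : a ≤ w0) (hζ : 0 ≤ ζ) (hζ' : ζ ≤ 1)
    (h1 : |k1| ≤ 10 * a) (h2 : |k2| ≤ 8 * a) (hδ1 : δ ≤ 1)
    (hd : δ ≤ |det3 (fan (shB0 b0) (scB1 (kap b0 b1 G) b0 b1) (scG (kap b0 b1 G) b0 G) ζ)|)
    (ha : 50 * a ≤ δ * (w0 * kap b0 b1 G)) :
    2 ^ 24 * δ * (w0 * kap b0 b1 G) ^ 3 ≤
      |det3 (lf (ownJ w0 b0 b1 G ζ k1 k2) (sl (ownJ w0 b0 b1 G ζ k1 k2)))| := by
  obtain ⟨n1, n2, -⟩ := fan_dir N hζ hζ'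
  obtain ⟨g1, -⟩ := N.b1_le
  have hn0 : b0 0 + ζ * b1 0 ≠ 0 := by linarith
  have hb0 : b0 0 ≠ 0 := by linarith
  have ha0 : 0 ≤ a := by have := abs_nonneg k1; linarith
  set κ := w0 * kap b0 b1 G with hκd
  have hκ0 : 0 < κ := by positivity
  set F := fan (shB0 b0) (scB1 (kap b0 b1 G) b0 b1) (scG (kap b0 b1 G) b0 G) ζ with hF
  have hfs := fan_scale (G := G) hb0 hn0 hκ.ne'
  have hM : det3 (ownM w0 b0 b1 G ζ) = 33554432 * κ ^ 3 * det3 F := by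
    have x : ∀ i j, F i j * κ = w0 * fan b0 b1 G ζ i j := fun i j => by
      rw [hfs i j, hκd, hF]; ring
    have f01 := x 0 1
    have f02 := x 0 2
    have f11 := x 1 1
    have f12 := x 1 2
    have f22 := x 2 2
    refine det_fan hκ0.ne' rfl rfl ?_ ?_ ?_ ?_ ?_
    · have : fan b0 b1 G ζ 0 1 = (b1 1 + b1 0 * slp b0 b1 1 ζ) / 512 := rfl
      rw [this] at f01
      show w0 * (b1 1 + b1 0 * slp b0 b1 1 ζ) = _
      linarith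
    · have : fan b0 b1 G ζ 0 2 = (b1 2 + b1 0 * slp b0 b1 2 ζ) / 512 := rfl
      rw [this] at f02
      show w0 * (b1 2 + b1 0 * slp b0 b1 2 ζ) = _
      linarith
    · have : fan b0 b1 G ζ 1 1 = (G.uu + G.yu * slp b0 b1 1 ζ + G.yy * slp b0 b1 1 ζ ^ 2) / 64 := rfl
      rw [this] at f11
      show 2 * (w0 * (G.uu + G.yu * slp b0 b1 1 ζ + G.yy * slp b0 b1 1 ζ ^ 2)) = _
      linarith
    · have : fan b0 b1 G ζ 1 2 = (G.uv + G.yu * slp b0 b1 2 ζ + G.yv * slp b0 b1 1 ζ +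
        2 * G.yy * (slp b0 b1 1 ζ * slp b0 b1 2 ζ)) / 128 := rfl
      rw [this] at f12
      show w0 * (G.uv + G.yu * slp b0 b1 2 ζ + G.yv * slp b0 b1 1 ζ +
        2 * G.yy * (slp b0 b1 1 ζ * slp b0 b1 2 ζ)) = _
      linarith
    · have : fan b0 b1 G ζ 2 2 = (G.vv + G.yv * slp b0 b1 2 ζ + G.yy * slp b0 b1 2 ζ ^ 2) / 64 := rfl
      rw [this] at f22
      show 2 * (w0 * (G.vv + G.yv * slp b0 b1 2 ζ + G.yy * slp b0 b1 2 ζ ^ 2)) = _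
      linarith
  have hp := det3_pert (B := 130 * κ) (ε := 1000 * a) (fun i j => ownM_le N hw.le hζ hζ' i j)
    (own_lf N hw haw hζ hζ' h1 h2) (by nlinarith)
  have h3 : 33554432 * κ ^ 3 * δ ≤ |det3 (ownM w0 b0 b1 G ζ)| := by
    rw [hM, abs_mul, abs_of_pos (by positivity : (0:ℝ) < 33554432 * κ ^ 3)]
    exact mul_le_mul_of_nonneg_left hd (by positivity)
  have h4 : 42 * ((130 * κ) ^ 2 * (1000 * a)) ≤ 14196000 * δ * κ ^ 3 := by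
    have : 0 ≤ κ ^ 2 := by positivity
    have h5 : κ ^ 2 * (50 * a) ≤ κ ^ 2 * (δ * κ) := mul_le_mul_of_nonneg_left ha this
    have h6 : 42 * ((130 * κ) ^ 2 * (1000 * a)) = 14196000 * (κ ^ 2 * (50 * a)) := by ring
    have h7 : 14196000 * δ * κ ^ 3 = 14196000 * (κ ^ 2 * (δ * κ)) := by ring
    rw [h6, h7]; linarith
  have h6 := abs_sub_abs_le_abs_sub (det3 (ownM w0 b0 b1 G ζ))
    (det3 (lf (ownJ w0 b0 b1 G ζ k1 k2) (sl (ownJ w0 b0 b1 G ζ k1 k2))))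
  rw [abs_sub_comm] at h6
  have h7 : 0 ≤ δ * κ ^ 3 := by
    have : 0 ≤ δ := by
      by_contra hc
      push Not at hc
      nlinarith
    positivity
  linarith

end Crest.Agent.R136.Mxc615
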