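import Mathlib
import Crest.Agent.R136.Mxe_615
import Crest.Agent.R136.Asm1_102

/-!
# R136 (U4, PLAN 2 (AL), mixed curvatures): every incidence is nondegenerate (helper615)

`caseA_nd`: base = the flatter sheet `V`, function = `U.q`, `U` nondegenerate and much more curved:
if the tangential gradient at a point of a common line is small, the tangential Hessian has a large
2x2 minor.
-/

set_option autoImplicit false
set_option linter.unusedVariables false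

namespace Crest.Agent.R136.Mxc615

open Crest.Agent.R136.Rk601
open Crest.Agent.R136.Sh605 Crest.Agent.R136.Tl102
open Crest.Agent.R136.Arc880 (det3)
open Crest.Agent.R136.K4 (Plk4)
open Crest.Agent.R136.Tlt51 (Shp InP)
open Crest.Agent.R136.KapP335 (kapP DetP expP_spec expP detP_iff kapP_eq)
open Crest.Agent.R136.Deep51 (dt_exp abs_dt_unit abs_dt_exp)

/-! ### bounds for the change of the chart -/

theorem chg_sym {J : Jt} {A : Fin 3 → V3} {D : V3} : (chg J A D).Sym := by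
  intro i j
  fin_cases i <;> fin_cases j <;>
    simp only [chg, Fin.zero_eta, Fin.mk_one, Fin.reduceFinMk, Matrix.cons_val_zero,
      Matrix.cons_val_one, Matrix.cons_val, Fin.isValue, reduceIte, one_ne_zero,
      Fin.reduceEq] <;> ring

theorem sum3_le {x : Fin 3 → ℝ} {b : ℝ} (h : ∀ k, |x k| ≤ b) : |∑ k, x k| ≤ 3 * b := by
  rw [Fin.sum_univ_three]
  refine (abs_add_three _ _ _).trans ?_
  have := h 0; have := h 1; have := h 2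
  linarith

theorem lf_chg_le {J : Jt} {A : Fin 3 → V3} {D : V3} (h0 : J.a0 ≠ 0) (h1 : (chg J A D).a0 ≠ 0)
    (hs : ∀ i j, J.h i j = J.h j i) {n b : ℝ} (hN : ∀ i k, |chN J A D i k| ≤ n)
    (hb : ∀ k l, |lf J (sl J) k l| ≤ b) (i j : Fin 3) :
    |lf (chg J A D) (sl (chg J A D)) i j| ≤ 9 * (n ^ 2 * b) := by
  rw [lf_chg h0 h1 hs]
  have h2 : ∀ k, |∑ l, chN J A D i k * chN J A D j l * lf J (sl J) k l| ≤ 3 * (n * n * b) :=
    fun k => sum3_le fun l => mul_abs_le (mul_abs_le (hN i k) (hN j l)) (hb k l)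
  refine (sum3_le h2).trans (le_of_eq (by ring))

theorem mix_chg_le {J : Jt} {A : Fin 3 → V3} {D : V3} (h0 : J.a0 ≠ 0) (h1 : (chg J A D).a0 ≠ 0)
    (hs : ∀ i j, J.h i j = J.h j i) {n α w : ℝ} (hN : ∀ i k, |chN J A D i k| ≤ n)
    (hA : ∀ k, |A 0 k| ≤ α) (q00 : |J.h00| ≤ 2 * w) (q0 : ∀ k, |J.h0 k| ≤ 2 * w)
    (qh : ∀ k l, |J.h k l| ≤ 16 * w) (hsl : ∀ k, |sl J k| ≤ 20) (i : Fin 3) :
    |(chg J A D).h0 i + (chg J A D).h00 * sl (chg J A D) i| ≤ 500 * (α * n * w) := by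
  rw [mix_chg h0 h1 hs i]
  have e1 : ∀ k, |chN J A D i k * (J.h0 k + J.h00 * sl J k)| ≤ n * (2 * w + 2 * w * 20) := fun k =>
    mul_abs_le (hN i k) (Arc880.abs_add2 (q0 k) (mul_abs_le q00 (hsl k)))
  have e2 : ∀ k, |chN J A D i k * (A 0 1 * (J.h k 1 + J.h0 1 * sl J k) +
      A 0 2 * (J.h k 2 + J.h0 2 * sl J k))| ≤
      n * (α * (16 * w + 2 * w * 20) + α * (16 * w + 2 * w * 20)) := fun k =>
    mul_abs_le (hN i k) (Arc880.abs_add2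
      (mul_abs_le (hA 1) (Arc880.abs_add2 (qh k 1) (mul_abs_le (q0 1) (hsl k))))
      (mul_abs_le (hA 2) (Arc880.abs_add2 (qh k 2) (mul_abs_le (q0 2) (hsl k)))))
  have hα : 0 ≤ α := (abs_nonneg _).trans (hA 0)
  have hn : 0 ≤ n := (abs_nonneg _).trans (hN 0 0)
  have hw : 0 ≤ w := by have := abs_nonneg J.h00; linarith
  have hp : 0 ≤ α * n * w := by positivity
  refine (Arc880.abs_add2 (mul_abs_le (hA 0) (sum3_le e1)) (sum3_le e2)).trans ?_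
  have e3 : α * (3 * (n * (2 * w + 2 * w * 20))) +
      3 * (n * (α * (16 * w + 2 * w * 20) + α * (16 * w + 2 * w * 20))) = 462 * (α * n * w) := by
    ring
  rw [e3]; linarith

theorem h00_chg_le {J : Jt} {A : Fin 3 → V3} {D : V3} {α w : ℝ} (hA : ∀ k, |A 0 k| ≤ α)
    (q00 : |J.h00| ≤ 2 * w) (q0 : ∀ k, |J.h0 k| ≤ 2 * w) (qh : ∀ k l, |J.h k l| ≤ 16 * w) :
    |(chg J A D).h00| ≤ 100 * (α ^ 2 * w) := by
  have hw : 0 ≤ w := by have := abs_nonneg J.h00; linarith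
  have t2 : |(2 : ℝ)| ≤ 2 := by norm_num
  have e : |J.h00 * (A 0 0 * A 0 0) + J.h0 1 * (A 0 0 * A 0 1) * 2 + J.h0 2 * (A 0 0 * A 0 2) * 2 +
    J.h 1 1 * (A 0 1 * A 0 1) + (J.h 1 2 + J.h 2 1) * (A 0 1 * A 0 2) + J.h 2 2 * (A 0 2 * A 0 2)| ≤
    2 * w * (α * α) + 2 * w * (α * α) * 2 + 2 * w * (α * α) * 2 + 16 * w * (α * α) +
      (16 * w + 16 * w) * (α * α) + 16 * w * (α * α) :=
    Arc880.abs_add2 (Arc880.abs_add2 (Arc880.abs_add2 (Arc880.abs_add2 (Arc880.abs_add2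
      (mul_abs_le q00 (mul_abs_le (hA 0) (hA 0)))
      (mul_abs_le (mul_abs_le (q0 1) (mul_abs_le (hA 0) (hA 1))) t2))
      (mul_abs_le (mul_abs_le (q0 2) (mul_abs_le (hA 0) (hA 2))) t2))
      (mul_abs_le (qh 1 1) (mul_abs_le (hA 1) (hA 1))))
      (mul_abs_le (Arc880.abs_add2 (qh 1 2) (qh 2 1)) (mul_abs_le (hA 1) (hA 2))))
      (mul_abs_le (qh 2 2) (mul_abs_le (hA 2) (hA 2)))
  refine e.trans ?_
  have : 0 ≤ α ^ 2 * w := by positivity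
  nlinarith

/-! ### facts of the own jet -/

structure OwnF (J : Jt) (w a : ℝ) : Prop where
  a1 : w / 2 ≤ J.a0
  a2 : J.a0 ≤ 2 * w
  g0 : |J.a 0| ≤ 10 * a
  g1 : |J.a 1| ≤ w
  g2 : |J.a 2| ≤ w
  q00 : |J.h00| ≤ 2 * w
  q0 : ∀ k, |J.h0 k| ≤ 2 * w
  qh : ∀ k l, |J.h k l| ≤ 16 * w
  sl : ∀ k, |Rk601.sl J k| ≤ 20
  sym : ∀ i j, J.h i j = J.h j i

theorem own_facts {b0 b1 : V3} {G : QF} (N : NrmC b0 b1 G) {w0 ζ k1 k2 a : ℝ} (hw : 0 < w0)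
    (haw : a ≤ w0) (hζ : 0 ≤ ζ) (hζ' : ζ ≤ 1) (h1 : |k1| ≤ 10 * a) (h2 : |k2| ≤ 8 * a) :
    OwnF (ownJ w0 b0 b1 G ζ k1 k2) w0 a := by
  obtain ⟨n1, n2, s1, s2, -⟩ := fan_dir N hζ hζ'
  obtain ⟨g1, g2, g3, g4, g5, g6, g7, -, -⟩ := N.b1_le
  obtain ⟨m1, m2, m3, m4, m5, m6⟩ := N.G_le
  obtain ⟨e0, e1, e2⟩ := ownJ_sl (G := G) (k2 := k2) N hw hζ hζ' h1
  have hm : ∀ x C : ℝ, |x| ≤ C → |w0 * x| ≤ C * w0 := fun x C hx => by
    rw [abs_mul, abs_of_pos hw, mul_comm]; exact mul_le_mul_of_nonneg_right hx hw.le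
  have t2 : |(2 : ℝ)| ≤ 2 := by norm_num
  have cv : ∀ k : Fin 3, |b0 k| ≤ 1 → |b0 k + b1 k| ≤ 1 → |b0 k + ζ * b1 k| ≤ 1 := by
    intro k hk0 hk1
    have e : b0 k + ζ * b1 k = (1 - ζ) * b0 k + ζ * (b0 k + b1 k) := by ring
    rw [e]
    refine (abs_add_le _ _).trans ?_
    rw [abs_mul, abs_mul, abs_of_nonneg hζ, abs_of_nonneg (by linarith : 0 ≤ 1 - ζ)]
    nlinarith
  refine ⟨?_, ?_, h1, ?_, ?_, ?_, ?_, ?_, ?_, ownJ_sym _ _ _ _ _ _ _⟩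
  · show w0 / 2 ≤ w0 * (b0 0 + ζ * b1 0)
    nlinarith
  · show w0 * (b0 0 + ζ * b1 0) ≤ 2 * w0
    nlinarith
  · show |w0 * (b0 1 + ζ * b1 1)| ≤ w0
    have := hm _ 1 (cv 1 N.b01 N.b11); linarith
  · show |w0 * (b0 2 + ζ * b1 2)| ≤ w0
    have := hm _ 1 (cv 2 N.b02 N.b12); linarith
  · show |2 * (w0 * G.yy)| ≤ 2 * w0
    have := mul_abs_le t2 (hm _ 1 m1); linarith
  · intro k
    fin_cases k
    · show |w0 * b1 0| ≤ 2 * w0
      have := hm _ _ g5; linarith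
    · show |w0 * G.yu| ≤ 2 * w0
      have := hm _ _ m2; linarith
    · show |w0 * G.yv| ≤ 2 * w0
      have := hm _ _ m3; linarith
  · intro k l
    fin_cases k <;> fin_cases l
    · show |2 * k2| ≤ 16 * w0
      have := mul_abs_le t2 h2; linarith
    · show |w0 * b1 1| ≤ 16 * w0
      have := hm _ _ g6; linarith
    · show |w0 * b1 2| ≤ 16 * w0
      have := hm _ _ g7; linarith
    · show |w0 * b1 1| ≤ 16 * w0
      have := hm _ _ g6; linarith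
    · show |2 * (w0 * G.uu)| ≤ 16 * w0
      have := mul_abs_le t2 (hm _ _ m4); linarith
    · show |w0 * G.uv| ≤ 16 * w0
      have := hm _ _ m5; linarith
    · show |w0 * b1 2| ≤ 16 * w0
      have := hm _ _ g7; linarith
    · show |w0 * G.uv| ≤ 16 * w0
      have := hm _ _ m5; linarith
    · show |2 * (w0 * G.vv)| ≤ 16 * w0
      have := mul_abs_le t2 (hm _ _ m6); linarith
  · intro k
    fin_cases k
    · show |Rk601.sl (ownJ w0 b0 b1 G ζ k1 k2) 0| ≤ 20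
      by_contra hc
      push Not at hc
      have : 20 * w0 < |Rk601.sl (ownJ w0 b0 b1 G ζ k1 k2) 0| * w0 := mul_lt_mul_of_pos_right hc hw
      linarith
    · show |Rk601.sl (ownJ w0 b0 b1 G ζ k1 k2) 1| ≤ 20
      rw [e1]; linarith
    · show |Rk601.sl (ownJ w0 b0 b1 G ζ k1 k2) 2| ≤ 20
      rw [e2]; linarith

/-- **the own jet of a sheet at a point of one of its lines** -/
theorem own_jet {e : Fin 3 → V3} {w : V3} {q : ℝ → V3 → ℝ} {z0 ρ a : ℝ} (hq : IsQ q) {T : Ln4}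
    (hin : ∀ z, z0 ≤ z → z ≤ z0 + ρ → |q z (T.pos z)| ≤ a) (hρ : 0 ≤ ρ) {b0 b1 : V3} {G : QF}
    (hE : IsExp q e w T z0 ρ b0 b1 G) {ζ : ℝ} (hζ : 0 ≤ ζ) (hζ' : ζ ≤ 1) :
    ∃ k1 k2 : ℝ, |k1| ≤ 10 * a ∧ |k2| ≤ 8 * a ∧
      JetAt q (fr e w) T.v (z0 + ρ * ζ) (T.pos (z0 + ρ * ζ)) ρ
        (ownJ (w 0) b0 b1 G ζ k1 k2) := by
  obtain ⟨J, hJs, hJ⟩ := exists_jet hq (fr e w) T.v (z0 + ρ * ζ) (T.pos (z0 + ρ * ζ)) ρ
  have hl : ∀ t : ℝ, q (z0 + ρ * (ζ + t)) (T.pos (z0 + ρ * (ζ + t))) =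
      q (z0 + ρ * ζ) (T.pos (z0 + ρ * ζ)) + J.a 0 * t + J.h 0 0 / 2 * t ^ 2 := by
    intro t
    have h1 := jet_line hJ (T := T) rfl (y1 := 0) (u1 := 0) (v1 := 0) (by
      funext i; simp [cmb]) t
    have e1 : z0 + ρ * ζ + ρ * t = z0 + ρ * (ζ + t) := by ring
    rw [e1] at h1
    rw [h1]
    simp only [dp, qf, Fin.sum_univ_three, Matrix.cons_val]
    ring
  have hv : ∀ t : ℝ, 0 ≤ ζ + t → ζ + t ≤ 1 →
      |q (z0 + ρ * ζ) (T.pos (z0 + ρ * ζ)) + J.a 0 * t + J.h 0 0 / 2 * t ^ 2| ≤ a := by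
    intro t h1 h2
    rw [← hl t]
    exact hin _ (by nlinarith) (by nlinarith)
  have p0 := abs_le.1 (hv (-ζ) (by linarith) (by linarith))
  have p1 := abs_le.1 (hv (1 - ζ) (by linarith) (by linarith))
  have ph := abs_le.1 (hv (1 / 2 - ζ) (by linarith) (by linarith))
  have K2 : |J.h 0 0 / 2| ≤ 8 * a := by
    have e : J.h 0 0 / 2 = 2 * ((q (z0 + ρ * ζ) (T.pos (z0 + ρ * ζ)) + J.a 0 * (-ζ) +
      J.h 0 0 / 2 * (-ζ) ^ 2) + (q (z0 + ρ * ζ) (T.pos (z0 + ρ * ζ)) + J.a 0 * (1 - ζ) +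
      J.h 0 0 / 2 * (1 - ζ) ^ 2) - 2 * (q (z0 + ρ * ζ) (T.pos (z0 + ρ * ζ)) +
      J.a 0 * (1 / 2 - ζ) + J.h 0 0 / 2 * (1 / 2 - ζ) ^ 2)) := by ring
    rw [e, abs_le]
    constructor <;> linarith [p0.1, p0.2, p1.1, p1.2, ph.1, ph.2]
  have K1 : |J.a 0| ≤ 10 * a := by
    have e : J.a 0 = (q (z0 + ρ * ζ) (T.pos (z0 + ρ * ζ)) + J.a 0 * (1 - ζ) +
      J.h 0 0 / 2 * (1 - ζ) ^ 2) - (q (z0 + ρ * ζ) (T.pos (z0 + ρ * ζ)) + J.a 0 * (-ζ) +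
      J.h 0 0 / 2 * (-ζ) ^ 2) - J.h 0 0 / 2 * (1 - 2 * ζ) := by ring
    have z1 : |1 - 2 * ζ| ≤ 1 := by rw [abs_le]; constructor <;> linarith
    have z2 := abs_le.1 (mul_abs_le K2 z1)
    rw [e, abs_le]
    constructor <;> linarith [p0.1, p0.2, p1.1, p1.2, z2.1, z2.2]
  exact ⟨J.a 0, J.h 0 0 / 2, K1, K2, jet_exp hE hl⟩

/-! ### frames -/

theorem cmb_crd {e : Fin 3 → V3} (he : Ortho e) {w : V3} (hw : ∀ k, w k ≠ 0) (Y : V3) :
    cmb (fr e w) (fun k => dt (e k) Y / w k) = Y := by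
  have h := cmb_pc he hw ⟨0, 0⟩ 0 Y
  have e0 : (⟨0, 0⟩ : Ln4).pos 0 = 0 := by
    funext i; simp [Ln4.pos]
  simp only [e0, zero_add] at h
  have e1 : pc e w ⟨0, 0⟩ 0 Y = fun k => dt (e k) Y / w k := by
    funext k
    unfold pc
    rw [e0, sub_zero]
  rw [e1] at h
  exact h

/-- matrix of two orthonormal frames -/
theorem det_frames {e f : Fin 3 → V3} (he : Ortho e) (hf : Ortho f) {m : Fin 3 → Fin 3 → ℝ}
    (hm : ∀ i j, m i j = dt (e j) (f i)) :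
    |m 0 0 * (m 1 1 * m 2 2 - m 1 2 * m 2 1) - m 0 1 * (m 1 0 * m 2 2 - m 1 2 * m 2 0) +
      m 0 2 * (m 1 0 * m 2 1 - m 1 1 * m 2 0)| = 1 := by
  have hMM : (Matrix.of m) * (Matrix.of m).transpose = 1 := by
    ext i k
    rw [Matrix.mul_apply, Fin.sum_univ_three]
    simp only [Matrix.transpose_apply, Matrix.of_apply, hm]
    have h1 := dt_exp he (f i) (f k)
    have h2 := hf i k
    rw [dt_comm (f i) (e 0), dt_comm (f i) (e 1), dt_comm (f i) (e 2)] at h1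
    rw [← h1, h2, Matrix.one_apply]
  have h2 : (Matrix.of m).det ^ 2 = 1 := by
    have h3 := congrArg Matrix.det hMM
    rw [Matrix.det_mul, Matrix.det_transpose, Matrix.det_one] at h3
    rw [sq]; exact h3
  have h4 : (Matrix.of m).det = m 0 0 * (m 1 1 * m 2 2 - m 1 2 * m 2 1) -
      m 0 1 * (m 1 0 * m 2 2 - m 1 2 * m 2 0) + m 0 2 * (m 1 0 * m 2 1 - m 1 1 * m 2 0) := by
    rw [Matrix.det_fin_three]
    simp only [Matrix.of_apply]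
    ring
  rw [← h4]
  have h5 : |(Matrix.of m).det| ^ 2 = 1 := by rw [sq_abs]; exact h2
  have h6 := abs_nonneg (Matrix.of m).det
  nlinarith

theorem grad_low {X0 X1 X2 μ : ℝ} (h : 1 / 4 ≤ X0 ^ 2 + X1 ^ 2 + X2 ^ 2) (h0 : |X0| ≤ 2 * |μ|)
    (h1 : |X1| ≤ |μ| + 1 / 10) (h2 : |X2| ≤ |μ| + 1 / 10) : 1 / 10 ≤ |μ| := by
  by_contra hc
  push Not at hc
  have hμ := abs_nonneg μ
  have a0 : X0 ^ 2 ≤ (1 / 5) ^ 2 := by
    rw [← sq_abs]; exact pow_le_pow_left₀ (abs_nonneg _) (by linarith) 2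
  have a1 : X1 ^ 2 ≤ (1 / 5) ^ 2 := by
    rw [← sq_abs]; exact pow_le_pow_left₀ (abs_nonneg _) (by linarith) 2
  have a2 : X2 ^ 2 ≤ (1 / 5) ^ 2 := by
    rw [← sq_abs]; exact pow_le_pow_left₀ (abs_nonneg _) (by linarith) 2
  norm_num at a0 a1 a2
  linarith

/-- third version of `mixed_th_flat` (ratio at most `6`) -/
theorem mixed_th_flat3 {q0 q1 : Jt} {κ B K δ σ η : ℝ} (hκ : 0 < κ) (h1 : q1.a0 ≠ 0)
    (y1 : ∀ i j, q1.h i j = q1.h j i)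
    (hK : 0 < K) (b1 : ∀ i j, |lf q1 (sl q1) i j| ≤ K * κ)
    (hd : δ * κ ^ 3 ≤ |det3 (lf q1 (sl q1))|)
    (b0 : ∀ i j, |lf q0 (sl q0) i j| ≤ σ * κ)
    (hB0 : ∀ i, |q1.h0 i + q1.h00 * sl q1 i| ≤ B) (hB : |q1.h00| * η ≤ B)
    (hη : ∀ i, |tg q0 q1 i| ≤ η * |q1.a0|) (h0 : q0.a0 ≠ 0)
    (herr : 3 * B * η ≤ σ * κ) (hσK : 7 * σ ≤ K)
    (hμ' : |q1.a0 / q0.a0| ≤ 6)
    (hσ : 13440 * (K ^ 2 * σ) ≤ δ) :
    ∃ i j k l, δ * κ ^ 2 ≤ 96 * K * |mn (th q0 q1) i j k l| := by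
  have ha1 : 0 < |q1.a0| := abs_pos.2 h1
  have hd' : ∀ i, |sl q0 i - sl q1 i| ≤ η := fun i => by
    rw [sl_sub h0 h1, abs_div, div_le_iff₀ ha1]; exact hη i
  have hσ0 : 0 ≤ σ * κ := (abs_nonneg _).trans (b0 0 0)
  have hN : ∀ i j, |lf q1 (sl q0) i j - lf q1 (sl q1) i j -
      q1.a0 / q0.a0 * lf q0 (sl q0) i j| ≤ 7 * σ * κ := fun i j => by
    have e1 := lf_change2 hB0 hB hd' i j
    have e2 : |q1.a0 / q0.a0 * lf q0 (sl q0) i j| ≤ 6 * (σ * κ) := by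
      rw [abs_mul]; exact mul_le_mul hμ' (b0 i j) (abs_nonneg _) (by norm_num)
    have e3 := abs_sub (lf q1 (sl q0) i j - lf q1 (sl q1) i j) (q1.a0 / q0.a0 * lf q0 (sl q0) i j)
    linarith
  have hsym : ∀ i j, lf q1 (sl q1) i j = lf q1 (sl q1) j i := fun i j => by
    unfold lf; rw [y1 i j]; ring
  have hmix := mixed_minor (N := fun i j => lf q1 (sl q0) i j - lf q1 (sl q1) i j -
      q1.a0 / q0.a0 * lf q0 (sl q0) i j) (M := lf q1 (sl q1)) (μ := -1)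
    (K := K * κ) (δ := δ * κ ^ 3) (σ := 7 * σ * κ) hsym (by positivity) b1 hd hN
    (mul_le_mul_of_nonneg_right hσK hκ.le) (by norm_num) (by norm_num) (by
      have hκ3 : 0 ≤ κ ^ 3 := by positivity
      calc 1920 * ((K * κ) ^ 2 * (7 * σ * κ)) = 13440 * (K ^ 2 * σ) * κ ^ 3 := by ring
        _ ≤ δ * κ ^ 3 := mul_le_mul_of_nonneg_right hσ hκ3)
  obtain ⟨i, j, k, l, h⟩ := hmix
  refine ⟨i, j, k, l, ?_⟩
  have e : (fun i j => (lf q1 (sl q0) i j - lf q1 (sl q1) i j -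
      q1.a0 / q0.a0 * lf q0 (sl q0) i j) - (-1) * lf q1 (sl q1) i j) = th q0 q1 := by
    funext i j
    simp only [th]
    ring
  simp only [e] at h
  have h2 : δ * κ ^ 3 = δ * κ ^ 2 * κ := by ring
  rw [h2] at h
  have h3 : 96 * (K * κ) * |mn (th q0 q1) i j k l| = 96 * K * |mn (th q0 q1) i j k l| * κ := by ring
  rw [h3] at h
  exact le_of_mul_le_mul_right h hκ

end Crest.Agent.R136.Mxc615
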