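import Mathlib
import Crest.Agent.R136.Mxf_615

/-!
# R136 (U4, PLAN 2 (AL), mixed curvatures): `caseA_nd` (helper615)
-/

set_option autoImplicit false
set_option linter.unusedVariables false

namespace Crest.Agent.R136.Mxc615

open Crest.Agent.R136.Rk601
open Crest.Agent.R136.Sh605 Crest.Agent.R136.Tl102
open Crest.Agent.R136.Arc880 (det3)
open Crest.Agent.R136.K4 (Plk4)
open Crest.Agent.R136.Tlt51 (Shp InP)
open Crest.Agent.R136.KapP335 (kapP DetP expP_spec expP detP_iff kapP_eq)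
open Crest.Agent.R136.Deep51 (dt_exp abs_dt_unit abs_dt_exp)

/-- velocity of the centre line relative to a line of the box -/
theorem vel_le {e : Fin 3 → V3} {c T : Ln4} {w : V3} {z0 ρ : ℝ} (hρ : 0 ≤ ρ)
    (hT : ∀ z, z0 ≤ z → z ≤ z0 + ρ → InK e c w z (T.pos z)) (i : Fin 3) :
    |dt (e i) (ρ • c.v - ρ • T.v)| ≤ 2 * w i := by
  have h0 := hT z0 le_rfl (by linarith) i
  have h1 := hT (z0 + ρ) (by linarith) le_rfl i
  have e1 : dt (e i) (ρ • c.v - ρ • T.v) =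
      dt (e i) (T.pos z0 - c.pos z0) - dt (e i) (T.pos (z0 + ρ) - c.pos (z0 + ρ)) := by
    simp only [dt, Pi.sub_apply, Pi.smul_apply, smul_eq_mul, Ln4.pos]; ring
  rw [e1]
  refine (abs_sub _ _).trans ?_
  linarith

theorem sq4 {x : ℝ} (h1 : 1 / 2 ≤ x) (h2 : x ≤ 2) : x ^ 2 ≤ 4 ∧ 1 / 4 ≤ x ^ 2 := by
  constructor <;> nlinarith

theorem sq1 {x : ℝ} (h : |x| ≤ 1) : x ^ 2 ≤ 1 := by
  rw [← sq_abs]; nlinarith [abs_nonneg x]

set_option maxHeartbeats 1000000 in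
/-- the jet of the base sheet in its chart -/
theorem base_facts {V : Plk4} {T : Ln4} {z0 ρ r ζ : ℝ} (hr : 0 < r) (hρ : 0 < ρ)
    (hV : Shp V z0 ρ r) (tV : InP T V z0 ρ) (hζ : 0 ≤ ζ) (hζ' : ζ ≤ 1) {JV : Jt} (sV : JV.Sym)
    (jV : JetAt V.q (fr V.e V.w) V.c.v (z0 + ρ * ζ) (T.pos (z0 + ρ * ζ)) ρ JV) :
    V.w 0 / 2 ≤ JV.a0 ∧ (∀ i, |sl JV i| ≤ 40) ∧ (∀ i, i ≠ 0 → |JV.a i| ≤ V.w 0) ∧
      ∀ i j, |lf JV (sl JV) i j| ≤ 36 * (130 * kapP V z0 ρ T + 1000 * V.a) := by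
  have ha : 0 < V.a := lt_of_lt_of_le hr hV.r0_le
  have hw0 : 0 < V.w 0 := lt_of_lt_of_le ha hV.a_le0
  have hw2 : 0 < V.w 2 := lt_of_lt_of_le hw0 hV.w0_le
  have hw1 : 0 < V.w 1 := lt_of_lt_of_le hw2 hV.w_le
  have hwk : ∀ k, V.w k ≠ 0 := by intro k; fin_cases k <;> first | exact hw0.ne' | exact hw1.ne' | exact hw2.ne'
  have S := StP.of_shN hV hw0
  have hin : ∀ z, z0 ≤ z → z ≤ z0 + ρ → InK V.e V.c V.w z (T.pos z) := fun z h1 h2 => (tV z h1 h2).1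
  have hE := expP_spec hV.isQ hw0.ne' z0 ρ T
  obtain ⟨b0, b1, G, hb⟩ : ∃ b0 b1 G, expP V z0 ρ T = (b0, b1, G) := ⟨_, _, _, rfl⟩
  rw [hb] at hE
  simp only at hE
  have N := IsExp.nrmC S hρ.le hin hE
  have hk : kapP V z0 ρ T = V.w 0 * kap b0 b1 G := kapP_eq hw0.ne' hE
  obtain ⟨k1, k2, K1, K2, hJ⟩ := own_jet (a := V.a) hV.isQ (fun z h1 h2 => (tV z h1 h2).2) hρ.le hE
    hζ hζ'
  have F := own_facts N hw0 hV.a_le0 hζ hζ' K1 K2
  have L := own_lf_le N hw0 hV.a_le0 hζ hζ' K1 K2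
  rw [← hk] at L
  generalize hJ' : ownJ (V.w 0) b0 b1 G ζ k1 k2 = J at hJ F L
  -- the chart with the velocity of the centre line
  set A : Fin 3 → V3 := ![![1, 0, 0], ![0, 1, 0], ![0, 0, 1]] with hA
  set D : V3 := fun k => dt (V.e k) (ρ • V.c.v - ρ • T.v) / V.w k with hD
  have hDk : ∀ k, |D k| ≤ 2 := fun k => by
    have hk := vel_le hρ.le hin k
    have hpos : 0 < V.w k := by fin_cases k <;> assumption
    rw [hD]
    show |dt (V.e k) (ρ • V.c.v - ρ • T.v) / V.w k| ≤ 2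
    rw [abs_div, abs_of_pos hpos, div_le_iff₀ hpos]; exact hk
  have hAc : ∀ i, fr V.e V.w i = cmb (fr V.e V.w) (A i) := by
    intro i
    funext j
    fin_cases i <;> simp [hA, cmb]
  have hDc : ρ • V.c.v = ρ • T.v + cmb (fr V.e V.w) D := by
    rw [hD, cmb_crd hV.ortho hwk]; abel
  have hJV : JV = chg J A D := jet_unique jV (chg_jet hJ hAc hDc) sV chg_sym
  have a00 : J.a0 ≠ 0 := by have := F.a1; linarith
  have c0 : (chg J A D).a0 = J.a0 := by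
    show J.a0 * A 0 0 + J.a 1 * A 0 1 + J.a 2 * A 0 2 = J.a0
    simp [hA]
  have c00 : (chg J A D).a0 ≠ 0 := by rw [c0]; exact a00
  have ca0 : |(chg J A D).a 0| ≤ 20 * V.w 0 := by
    show |J.a 0 + (J.a0 * D 0 + J.a 1 * D 1 + J.a 2 * D 2)| ≤ _
    have x0 : |J.a0| ≤ 2 * V.w 0 := by rw [abs_le]; constructor <;> linarith [F.a1, F.a2]
    refine (Arc880.abs_add2 F.g0 (Arc880.abs_add2 (Arc880.abs_add2 (mul_abs_le x0 (hDk 0))
      (mul_abs_le F.g1 (hDk 1))) (mul_abs_le F.g2 (hDk 2)))).trans ?_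
    have := hV.a_le0
    linarith
  have ca1 : (chg J A D).a 1 = J.a 1 := by
    show J.a0 * A 1 0 + J.a 1 * A 1 1 + J.a 2 * A 1 2 = _
    simp [hA]
  have ca2 : (chg J A D).a 2 = J.a 2 := by
    show J.a0 * A 2 0 + J.a 1 * A 2 1 + J.a 2 * A 2 2 = _
    simp [hA]
  have cai : ∀ i, |(chg J A D).a i| ≤ 20 * V.w 0 := by
    intro i
    fin_cases i
    · exact ca0
    · show |(chg J A D).a 1| ≤ _
      rw [ca1]; have := F.g1; linarith
    · show |(chg J A D).a 2| ≤ _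
      rw [ca2]; have := F.g2; linarith
  refine ⟨?_, ?_, ?_, ?_⟩
  · rw [hJV, c0]; exact F.a1
  · intro i
    rw [hJV]
    unfold sl
    have hp : 0 < (chg J A D).a0 := by rw [c0]; have := F.a1; linarith
    rw [abs_div, abs_neg, abs_of_pos hp, div_le_iff₀ hp, c0]
    have := cai i
    have := F.a1
    linarith
  · intro i hi
    rw [hJV]
    fin_cases i
    · exact absurd rfl hi
    · show |(chg J A D).a 1| ≤ _
      rw [ca1]; exact F.g1
    · show |(chg J A D).a 2| ≤ _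
      rw [ca2]; exact F.g2
  · intro i j
    rw [hJV]
    have hN : ∀ i k, |chN J A D i k| ≤ 2 := by
      intro i k
      unfold chN
      fin_cases k
      · simp only [Fin.zero_eta, Fin.isValue, reduceIte]
        split_ifs <;> norm_num
      · simp only [Fin.mk_one, Fin.isValue, one_ne_zero, reduceIte]
        have e0 : A 0 1 = 0 := rfl
        rw [e0, mul_zero, add_zero]
        fin_cases i
        · exact hDk 1
        · show |(1 : ℝ)| ≤ 2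
          norm_num
        · show |(0 : ℝ)| ≤ 2
          norm_num
      · simp only [Fin.reduceFinMk, Fin.isValue, Fin.reduceEq, reduceIte]
        have e0 : A 0 2 = 0 := rfl
        rw [e0, mul_zero, add_zero]
        fin_cases i
        · exact hDk 2
        · show |(0 : ℝ)| ≤ 2
          norm_num
        · show |(1 : ℝ)| ≤ 2
          norm_num
    have := lf_chg_le a00 c00 F.sym hN L i j
    refine this.trans (le_of_eq (by ring))

set_option maxHeartbeats 2000000 in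
/-- **(AL), case (A).** -/
theorem caseA_nd {U V : Plk4} {T : Ln4} {z0 ρ r K τ ζ : ℝ} (hr : 0 < r) (hρ : 0 < ρ) (hK : 1 ≤ K)
    (hU : Shp U z0 ρ r) (hV : Shp V z0 ρ r) (tU : InP T U z0 ρ) (tV : InP T V z0 ρ)
    (d1 : V.w 1 ≤ K * U.w 1) (d1' : U.w 1 ≤ K * V.w 1) (d2 : V.w 2 ≤ K * U.w 2)
    (d2' : U.w 2 ≤ K * V.w 2) (ang : V.w 1 * |dt (U.e 2) (V.e 1)| ≤ K * U.w 2)
    (det : DetP K⁻¹ U z0 ρ T)
    (flat : 10 ^ 22 * K ^ 9 * (kapP V z0 ρ T + U.a + V.a) ≤ kapP U z0 ρ T) (hτ0 : 0 ≤ τ)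
    (hτ : 10 ^ 24 * K ^ 10 * τ ≤ kapP U z0 ρ T) (hζ : 0 ≤ ζ) (hζ' : ζ ≤ 1) {JV JU : Jt}
    (sV : JV.Sym) (sU : JU.Sym)
    (jV : JetAt V.q (fr V.e V.w) V.c.v (z0 + ρ * ζ) (T.pos (z0 + ρ * ζ)) ρ JV)
    (jU : JetAt U.q (fr V.e V.w) V.c.v (z0 + ρ * ζ) (T.pos (z0 + ρ * ζ)) ρ JU)
    (htg : ∀ i, |tg JV JU i| ≤ τ) :
    ∃ i j k l, kapP U z0 ρ T ^ 2 ≤ 10 ^ 6 * K ^ 7 * |mn (th JV JU) i j k l| := by
  have hK0 : 0 < K := by linarith
  obtain ⟨v1, v2, v3, v4⟩ := base_facts hr hρ hV tV hζ hζ' sV jV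
  have ha : 0 < U.a := lt_of_lt_of_le hr hU.r0_le
  have haV : 0 < V.a := lt_of_lt_of_le hr hV.r0_le
  have hw0 : 0 < U.w 0 := lt_of_lt_of_le ha hU.a_le0
  have hw2 : 0 < U.w 2 := lt_of_lt_of_le hw0 hU.w0_le
  have hw1 : 0 < U.w 1 := lt_of_lt_of_le hw2 hU.w_le
  have gw0 : 0 < V.w 0 := lt_of_lt_of_le haV hV.a_le0
  have gw2 : 0 < V.w 2 := lt_of_lt_of_le gw0 hV.w0_le
  have gw1 : 0 < V.w 1 := lt_of_lt_of_le gw2 hV.w_le
  have hwk : ∀ k, U.w k ≠ 0 := by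
    intro k; fin_cases k <;> first | exact hw0.ne' | exact hw1.ne' | exact hw2.ne'
  have S := StP.of_shN hU hw0
  have hin : ∀ z, z0 ≤ z → z ≤ z0 + ρ → InK U.e U.c U.w z (T.pos z) := fun z h1 h2 => (tU z h1 h2).1
  have hinV : ∀ z, z0 ≤ z → z ≤ z0 + ρ → InK V.e V.c V.w z (T.pos z) :=
    fun z h1 h2 => (tV z h1 h2).1
  have hE := expP_spec hU.isQ hw0.ne' z0 ρ T
  obtain ⟨b0, b1, G, hb⟩ : ∃ b0 b1 G, expP U z0 ρ T = (b0, b1, G) := ⟨_, _, _, rfl⟩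
  rw [hb] at hE
  simp only at hE
  have N := IsExp.nrmC S hρ.le hin hE
  have hk : kapP U z0 ρ T = U.w 0 * kap b0 b1 G := kapP_eq hw0.ne' hE
  have hdet := (detP_iff hw0.ne' hE K⁻¹).1 det ζ hζ hζ'
  obtain ⟨k1, k2, K1, K2, hJ⟩ := own_jet (a := U.a) hU.isQ (fun z h1 h2 => (tU z h1 h2).2) hρ.le hE
    hζ hζ'
  -- sizes
  have hκV : 0 ≤ kapP V z0 ρ T := by
    have hE' := expP_spec hV.isQ gw0.ne' z0 ρ T
    rw [kapP_eq gw0.ne' hE']
    exact mul_nonneg gw0.le (kap_nonneg _ _ _)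
  have hK9 : (1 : ℝ) ≤ K ^ 9 := one_le_pow₀ hK
  have hK10 : (1 : ℝ) ≤ K ^ 10 := one_le_pow₀ hK
  set κ := kapP U z0 ρ T with hκ
  have hκ0 : 0 < κ := by
    have : 0 < 10 ^ 22 * K ^ 9 * (kapP V z0 ρ T + U.a + V.a) := by positivity
    linarith
  have hκ13 : κ ≤ 13 * U.w 0 := by
    rw [hk]; have := mul_le_mul_of_nonneg_left (kap_le N) hw0.le; linarith
  have hkap : 0 < kap b0 b1 G := by
    rw [hk] at hκ0
    exact (mul_pos_iff_of_pos_left hw0).1 hκ0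
  have hτκ : 10 ^ 24 * τ ≤ κ := by
    have := mul_le_mul_of_nonneg_right hK10 hτ0
    linarith
  have F := own_facts N hw0 hU.a_le0 hζ hζ' K1 K2
  have L := own_lf_le N hw0 hU.a_le0 hζ hζ' K1 K2
  have aκ : 10 ^ 22 * K ^ 9 * U.a ≤ κ := by
    have : 10 ^ 22 * K ^ 9 * U.a ≤ 10 ^ 22 * K ^ 9 * (kapP V z0 ρ T + U.a + V.a) :=
      mul_le_mul_of_nonneg_left (by linarith) (by positivity)
    linarith
  have Dt := own_det N hkap (δ := K⁻¹) hw0 hU.a_le0 hζ hζ' K1 K2 (inv_le_one_of_one_le₀ hK) hdet (by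
    rw [← hk, inv_mul_eq_div, le_div_iff₀ hK0]
    have h1 : K ≤ K ^ 9 := le_self_pow₀ hK (by norm_num)
    have h2 : 50 * U.a * K ≤ 10 ^ 22 * K ^ 9 * U.a := by
      have : K * U.a ≤ K ^ 9 * U.a := mul_le_mul_of_nonneg_right h1 ha.le
      have h3 : 0 ≤ K ^ 9 * U.a := by positivity
      linarith
    linarith)
  rw [← hk] at L Dt
  generalize hJ' : ownJ (U.w 0) b0 b1 G ζ k1 k2 = J at hJ F L Dt
  -- chart of `V`
  set A : Fin 3 → V3 := fun i k => dt (U.e k) (fr V.e V.w i) / U.w k with hA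
  set D : V3 := fun k => dt (U.e k) (ρ • V.c.v - ρ • T.v) / U.w k with hD
  have hAc : ∀ i, fr V.e V.w i = cmb (fr U.e U.w) (A i) := fun i => (cmb_crd hU.ortho hwk _).symm
  have hDc : ρ • V.c.v = ρ • T.v + cmb (fr U.e U.w) D := by
    rw [hD, cmb_crd hU.ortho hwk]; abel
  have hJU : JU = chg J A D := jet_unique jU (chg_jet hJ hAc hDc) sU chg_sym
  have hm : ∀ i j, A i j = V.w i * dt (U.e j) (V.e i) / U.w j := fun i j => by
    show dt (U.e j) (V.w i • V.e i) / U.w j = _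
    rw [dt_smul]
  have hu : ∀ i j, |dt (U.e j) (V.e i)| ≤ 1 := fun i j => abs_dt_unit hU.ortho hV.ortho j i
  have a00 : J.a0 ≠ 0 := by have := F.a1; linarith
  -- gradient
  set g : V3 := ![J.a0 / U.w 0, J.a 1 / U.w 1, J.a 2 / U.w 2] with hg
  have X : ∀ i, J.a0 * A i 0 + J.a 1 * A i 1 + J.a 2 * A i 2 =
      V.w i * (g 0 * dt (U.e 0) (V.e i) + g 1 * dt (U.e 1) (V.e i) + g 2 * dt (U.e 2) (V.e i)) := by
    intro i
    rw [hm, hm, hm]
    simp only [hg, Matrix.cons_val_zero, Matrix.cons_val_one, Matrix.cons_val]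
    field_simp
  set Xg : Fin 3 → ℝ := fun i =>
    g 0 * dt (U.e 0) (V.e i) + g 1 * dt (U.e 1) (V.e i) + g 2 * dt (U.e 2) (V.e i) with hXg
  have c0 : JU.a0 = V.w 0 * Xg 0 := by rw [hJU]; exact X 0
  have c1 : JU.a 1 = V.w 1 * Xg 1 := by rw [hJU]; exact X 1
  have c2 : JU.a 2 = V.w 2 * Xg 2 := by rw [hJU]; exact X 2
  have hpar : Xg 0 ^ 2 + Xg 1 ^ 2 + Xg 2 ^ 2 = g 0 ^ 2 + g 1 ^ 2 + g 2 ^ 2 := by
    have y : ∀ i j, dt (U.e i) (V.e 0) * dt (U.e j) (V.e 0) + dt (U.e i) (V.e 1) * dt (U.e j) (V.e 1) +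
        dt (U.e i) (V.e 2) * dt (U.e j) (V.e 2) = if i = j then 1 else 0 := by
      intro i j
      have h1 := dt_exp hV.ortho (U.e i) (U.e j)
      rw [hU.ortho i j, dt_comm (V.e 0) (U.e j), dt_comm (V.e 1) (U.e j), dt_comm (V.e 2) (U.e j)] at h1
      exact h1.symm
    have y00 := y 0 0
    have y11 := y 1 1
    have y22 := y 2 2
    have y01 := y 0 1
    have y02 := y 0 2
    have y12 := y 1 2
    simp only [reduceIte, Fin.isValue, zero_ne_one, Fin.reduceEq] at y00 y11 y22 y01 y02 y12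
    simp only [hXg]
    linear_combination g 0 ^ 2 * y00 + g 1 ^ 2 * y11 + g 2 ^ 2 * y22 + 2 * g 0 * g 1 * y01 +
      2 * g 0 * g 2 * y02 + 2 * g 1 * g 2 * y12
  have hg0 : 1 / 2 ≤ g 0 ∧ g 0 ≤ 2 := by
    constructor
    · show 1 / 2 ≤ J.a0 / U.w 0
      rw [le_div_iff₀ hw0]; have := F.a1; linarith
    · show J.a0 / U.w 0 ≤ 2
      rw [div_le_iff₀ hw0]; exact F.a2
  have hg1 : |g 1| ≤ 1 := by
    show |J.a 1 / U.w 1| ≤ 1
    rw [abs_div, abs_of_pos hw1, div_le_one hw1]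
    exact F.g1.trans (hU.w0_le.trans hU.w_le)
  have hg2 : |g 2| ≤ 1 := by
    show |J.a 2 / U.w 2| ≤ 1
    rw [abs_div, abs_of_pos hw2, div_le_one hw2]
    exact F.g2.trans hU.w0_le
  have hlow : 1 / 4 ≤ Xg 0 ^ 2 + Xg 1 ^ 2 + Xg 2 ^ 2 := by
    rw [hpar]
    have h1 := (sq4 hg0.1 hg0.2).2
    have h2 := sq_nonneg (g 1)
    have h3 := sq_nonneg (g 2)
    linarith
  have hup : Xg 0 ^ 2 ≤ 9 := by
    have h1 : g 1 ^ 2 ≤ 1 := sq1 hg1
    have h2 : g 2 ^ 2 ≤ 1 := sq1 hg2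
    have h3 : g 0 ^ 2 ≤ 4 := (sq4 hg0.1 hg0.2).1
    have h4 := sq_nonneg (Xg 1)
    have h5 := sq_nonneg (Xg 2)
    linarith
  have hup' : |Xg 0| ≤ 3 := abs_le_of_sq_le_sq (by linarith) (by norm_num)
  have hVa : 0 < JV.a0 := by linarith
  set μ := JU.a0 / JV.a0 with hμd
  have hμa : JU.a0 = μ * JV.a0 := by rw [hμd]; field_simp
  have hτw2 : 20 * τ ≤ U.w 2 := by
    have := hU.w0_le
    linarith
  have hτv2 : 10 * τ ≤ V.w 2 := by
    -- `10^24 K^10 τ ≤ 13 w0 ≤ 13 K (V.w 2)`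
    have h1 : 10 ^ 24 * K ^ 10 * τ ≤ 13 * (K * V.w 2) := by
      have := hU.w0_le
      linarith
    have h2 : K * (10 ^ 24 * τ) ≤ 10 ^ 24 * K ^ 10 * τ := by
      have h3 : K ≤ K ^ 10 := le_self_pow₀ hK (by norm_num)
      have h4 : K * τ ≤ K ^ 10 * τ := mul_le_mul_of_nonneg_right h3 hτ0
      linarith
    have h5 : K * (10 ^ 24 * τ) ≤ K * (13 * V.w 2) := by linarith
    have h6 := le_of_mul_le_mul_left h5 hK0
    linarith
  have hX12 : ∀ i : Fin 3, i ≠ 0 → V.w 0 ≤ V.w i → 10 * τ ≤ V.w i → 0 < V.w i →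
      JU.a i = V.w i * Xg i → |Xg i| ≤ |μ| + 1 / 10 := by
    intro i hi h1 h2 h3 h4
    have h5 := htg i
    have h6 : tg JV JU i = V.w i * Xg i - μ * JV.a i := by rw [← h4]; rfl
    rw [h6] at h5
    have h7 : |V.w i * Xg i| ≤ τ + |μ| * V.w 0 := by
      have h8 := abs_sub_abs_le_abs_sub (V.w i * Xg i) (μ * JV.a i)
      have h9 : |μ * JV.a i| ≤ |μ| * V.w 0 := by
        rw [abs_mul]; exact mul_le_mul_of_nonneg_left (v3 i hi) (abs_nonneg _)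
      linarith
    rw [abs_mul, abs_of_pos h3] at h7
    have h10 : |μ| * V.w 0 ≤ |μ| * V.w i := mul_le_mul_of_nonneg_left h1 (abs_nonneg _)
    have h11 : V.w i * |Xg i| ≤ V.w i * (|μ| + 1 / 10) := by linarith
    exact le_of_mul_le_mul_left h11 h3
  have gw02 : V.w 0 ≤ V.w 2 := hV.w0_le
  have gw01 : V.w 0 ≤ V.w 1 := hV.w0_le.trans hV.w_le
  have hX1 := hX12 1 (by decide) gw01 (hτv2.trans hV.w_le) gw1 c1
  have hX2 := hX12 2 (by decide) gw02 hτv2 gw2 c2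
  have hVa2 : JV.a0 ≤ 2 * V.w 0 := by
    -- from the slope bound at the base: steepness
    have hE' := expP_spec hV.isQ gw0.ne' z0 ρ T
    obtain ⟨c0', c1', G', hb'⟩ : ∃ c0' c1' G', expP V z0 ρ T = (c0', c1', G') := ⟨_, _, _, rfl⟩
    rw [hb'] at hE'
    simp only at hE'
    have N' := IsExp.nrmC (StP.of_shN hV gw0) hρ.le hinV hE'
    obtain ⟨l1, l2, L1, L2, hJ2⟩ := own_jet (a := V.a) hV.isQ (fun z h1 h2 => (tV z h1 h2).2) hρ.le
      hE' hζ hζ'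
    have F' := own_facts N' gw0 hV.a_le0 hζ hζ' L1 L2
    -- the normal derivative does not depend on the velocity axis
    have y1 := jV 1 0 0 0
    have y2 := jV (-1) 0 0 0
    have z1 := hJ2 1 0 0 0
    have z2 := hJ2 (-1) 0 0 0
    simp only [dp, qf, Fin.sum_univ_three, Matrix.cons_val, mul_zero, zero_smul, add_zero] at y1 y2 z1 z2
    have : JV.a0 = (ownJ (V.w 0) c0' c1' G' ζ l1 l2).a0 := by
      norm_num at y1 y2 z1 z2
      linarith
    rw [this]; exact F'.a2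
  have hX0 : |Xg 0| ≤ 2 * |μ| := by
    have h1 : V.w 0 * Xg 0 = μ * JV.a0 := by rw [← c0]; exact hμa
    have h2 : V.w 0 * |Xg 0| = |μ| * JV.a0 := by
      calc V.w 0 * |Xg 0| = |V.w 0 * Xg 0| := by rw [abs_mul, abs_of_pos gw0]
        _ = |μ * JV.a0| := by rw [h1]
        _ = |μ| * JV.a0 := by rw [abs_mul, abs_of_pos hVa]
    have h3 : V.w 0 * |Xg 0| ≤ V.w 0 * (2 * |μ|) := by
      rw [h2]
      have := mul_le_mul_of_nonneg_left hVa2 (abs_nonneg μ)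
      linarith
    exact le_of_mul_le_mul_left h3 gw0
  have hμ := grad_low hlow hX0 hX1 hX2
  have hJU0 : V.w 0 / 20 ≤ |JU.a0| := by
    rw [hμa, abs_mul, abs_of_pos hVa]
    calc V.w 0 / 20 = 1 / 10 * (V.w 0 / 2) := by ring
      _ ≤ |μ| * JV.a0 := mul_le_mul hμ v1 (by positivity) (abs_nonneg _)
  have hJUup : |JU.a0| ≤ 3 * V.w 0 := by
    rw [c0, abs_mul, abs_of_pos gw0]
    have := mul_le_mul_of_nonneg_left hup' gw0.le
    linarith
  have hJUne : JU.a0 ≠ 0 := by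
    intro h; rw [h, abs_zero] at hJU0; linarith
  have hμ6 : |JU.a0 / JV.a0| ≤ 6 := by
    rw [abs_div, abs_of_pos hVa, div_le_iff₀ hVa]; linarith
  -- entries of the change of basis
  have hA0 : ∀ k, |A 0 k| ≤ V.w 0 / U.w 0 := by
    intro k
    have hUk : U.w 0 ≤ U.w k := by
      fin_cases k
      · exact le_rfl
      · exact hU.w0_le.trans hU.w_le
      · exact hU.w0_le
    have hUk0 : 0 < U.w k := lt_of_lt_of_le hw0 hUk
    rw [hm, abs_div, abs_of_pos hUk0, abs_mul, abs_of_pos gw0, div_le_div_iff₀ hUk0 hw0]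
    have := hu 0 k
    have h1 : V.w 0 * |dt (U.e k) (V.e 0)| ≤ V.w 0 * 1 := mul_le_mul_of_nonneg_left this gw0.le
    have h2 := mul_le_mul h1 hUk hw0.le (by positivity : 0 ≤ V.w 0 * 1)
    linarith
  have hA02 : ∀ k : Fin 3, k ≠ 0 → |A 0 k| * U.w 2 ≤ V.w 0 := by
    intro k hk0
    have hUk : U.w 2 ≤ U.w k := by
      fin_cases k
      · exact absurd rfl hk0
      · exact hU.w_le
      · exact le_rfl
    have hUk0 : 0 < U.w k := lt_of_lt_of_le hw2 hUk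
    rw [hm, abs_div, abs_of_pos hUk0, abs_mul, abs_of_pos gw0, div_mul_eq_mul_div,
      div_le_iff₀ hUk0]
    have := hu 0 k
    have h1 : V.w 0 * |dt (U.e k) (V.e 0)| ≤ V.w 0 * 1 := mul_le_mul_of_nonneg_left this gw0.le
    have h2 := mul_le_mul h1 hUk hw2.le (by positivity : 0 ≤ V.w 0 * 1)
    linarith
  have hAik : ∀ i k : Fin 3, i ≠ 0 → k ≠ 0 → |A i k| ≤ K := by
    intro i k hi hk0
    fin_cases i <;> fin_cases k <;> simp only [Fin.zero_eta, Fin.mk_one, Fin.reduceFinMk, ne_eq,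
      not_true_eq_false, Fin.isValue] at hi hk0 ⊢
    · rw [hm, abs_div, abs_of_pos hw1, abs_mul, abs_of_pos gw1, div_le_iff₀ hw1]
      have := mul_le_mul_of_nonneg_left (hu 1 1) gw1.le
      linarith
    · rw [hm, abs_div, abs_of_pos hw2, abs_mul, abs_of_pos gw1, div_le_iff₀ hw2]
      exact ang
    · rw [hm, abs_div, abs_of_pos hw1, abs_mul, abs_of_pos gw2, div_le_iff₀ hw1]
      have := mul_le_mul_of_nonneg_left (hu 2 1) gw2.le
      have h2 : K * U.w 2 ≤ K * U.w 1 := mul_le_mul_of_nonneg_left hU.w_le hK0.le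
      linarith
    · rw [hm, abs_div, abs_of_pos hw2, abs_mul, abs_of_pos gw2, div_le_iff₀ hw2]
      have := mul_le_mul_of_nonneg_left (hu 2 2) gw2.le
      linarith
  have hDk : ∀ k : Fin 3, k ≠ 0 → |D k| ≤ 6 * K := by
    intro k hk0
    have y0 := vel_le hρ.le hinV 0
    have y1 := vel_le hρ.le hinV 1
    have y2 := vel_le hρ.le hinV 2
    have hexp := abs_dt_exp hU.ortho hV.ortho k (ρ • V.c.v - ρ • T.v)
    set Y := ρ • V.c.v - ρ • T.v
    have u0 := hu 0 k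
    have u2 := hu 2 k
    have m0 : |dt (U.e k) (V.e 0)| * |dt (V.e 0) Y| ≤ 1 * (2 * V.w 0) :=
      mul_le_mul u0 y0 (abs_nonneg _) zero_le_one
    have m2 : |dt (U.e k) (V.e 2)| * |dt (V.e 2) Y| ≤ 1 * (2 * V.w 2) :=
      mul_le_mul u2 y2 (abs_nonneg _) zero_le_one
    fin_cases k
    · exact absurd rfl hk0
    · show |dt (U.e 1) Y / U.w 1| ≤ 6 * K
      rw [abs_div, abs_of_pos hw1, div_le_iff₀ hw1]
      have m1 : |dt (U.e 1) (V.e 1)| * |dt (V.e 1) Y| ≤ 1 * (2 * V.w 1) :=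
        mul_le_mul (hu 1 1) y1 (abs_nonneg _) zero_le_one
      have h3 : V.w 2 ≤ V.w 1 := hV.w_le
      simp only [Fin.mk_one] at hexp m0 m2
      linarith
    · show |dt (U.e 2) Y / U.w 2| ≤ 6 * K
      rw [abs_div, abs_of_pos hw2, div_le_iff₀ hw2]
      have m1 : |dt (U.e 2) (V.e 1)| * |dt (V.e 1) Y| ≤ 2 * (K * U.w 2) := by
        have h1 : |dt (U.e 2) (V.e 1)| * |dt (V.e 1) Y| ≤ |dt (U.e 2) (V.e 1)| * (2 * V.w 1) :=
          mul_le_mul_of_nonneg_left y1 (abs_nonneg _)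
        linarith
      simp only [Fin.reduceFinMk] at hexp m0 m2
      linarith
  have hslU : ∀ i, |sl JU i| * V.w 0 ≤ 40 * V.w 0 + 20 * τ := by
    intro i
    have h1 : sl JV i - sl JU i = tg JV JU i / JU.a0 := sl_sub hVa.ne' hJUne i
    have h2 : |sl JU i| ≤ |sl JV i| + |tg JV JU i / JU.a0| := by
      have : sl JU i = sl JV i - tg JV JU i / JU.a0 := by linarith
      rw [this]; exact abs_sub _ _
    have h3 : |tg JV JU i / JU.a0| * V.w 0 ≤ 20 * τ := by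
      rw [abs_div, div_mul_eq_mul_div, div_le_iff₀ (abs_pos.2 hJUne)]
      have h4 := htg i
      have h5 : 20 * τ * (V.w 0 / 20) ≤ 20 * τ * |JU.a0| :=
        mul_le_mul_of_nonneg_left hJU0 (by positivity)
      have h6 : |tg JV JU i| * V.w 0 ≤ τ * V.w 0 := mul_le_mul_of_nonneg_right h4 gw0.le
      linarith
    have h7 : |sl JV i| * V.w 0 ≤ 40 * V.w 0 := mul_le_mul_of_nonneg_right (v2 i) gw0.le
    have h8 := mul_le_mul_of_nonneg_right h2 gw0.le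
    linarith
  have hsA : ∀ i k : Fin 3, k ≠ 0 → |sl JU i * A 0 k| ≤ 41 * K := by
    intro i k hk0
    have h1 := hA02 k hk0
    have h2 := hslU i
    have h3 : |sl JU i| * |A 0 k| * U.w 2 ≤ 40 * V.w 0 + 20 * τ := by
      have h4 : |sl JU i| * (|A 0 k| * U.w 2) ≤ |sl JU i| * V.w 0 :=
        mul_le_mul_of_nonneg_left h1 (abs_nonneg _)
      linarith
    rw [abs_mul]
    have h5 : |sl JU i| * |A 0 k| * U.w 2 ≤ 41 * K * U.w 2 := by
      have h6 : V.w 0 ≤ K * U.w 2 := gw02.trans d2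
      have h7 : U.w 2 ≤ K * U.w 2 := le_mul_of_one_le_left hw2.le hK
      linarith
    exact le_of_mul_le_mul_right h5 hw2
  have h1K : (1 : ℝ) ≤ 50 * K := by linarith
  have hN : ∀ i k, |chN J A D i k| ≤ 50 * K := by
    intro i k
    unfold chN
    rw [← hJU]
    by_cases hk0 : k = 0
    · rw [if_pos hk0]
      split_ifs
      · rw [abs_one]; exact h1K
      · rw [abs_zero]; positivity
    · rw [if_neg hk0]
      have h1 := hsA i k hk0
      refine (abs_add_le _ _).trans ?_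
      have h2 : |(![D, A 1, A 2] : Fin 3 → V3) i k| ≤ 6 * K := by
        fin_cases i
        · exact hDk k hk0
        · exact (hAik 1 k (by decide) hk0).trans (by linarith)
        · exact (hAik 2 k (by decide) hk0).trans (by linarith)
      linarith
  have cne : (chg J A D).a0 ≠ 0 := by rw [← hJU]; exact hJUne
  -- entries of the tangential Hessian of `U`
  have aκ' : 1000 * U.a ≤ κ := by
    have := mul_le_mul_of_nonneg_right hK9 ha.le
    linarith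
  have B1 : ∀ i j, |lf JU (sl JU) i j| ≤ (10 ^ 7 * K ^ 2) * κ := by
    intro i j
    have h1 := lf_chg_le a00 cne F.sym hN (b := 131 * κ) (fun k l => (L k l).trans (by linarith)) i j
    rw [← hJU] at h1
    refine h1.trans ?_
    have : 0 ≤ K ^ 2 * κ := by positivity
    linarith
  -- determinant
  have Dm := det_frames (m := fun i j => dt (U.e j) (V.e i)) hU.ortho hV.ortho (fun i j => rfl)
  have hjac := jac_chg (J := J) (A := A) (D := D) cne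
  set Nd := chN J A D 1 1 * chN J A D 2 2 - chN J A D 1 2 * chN J A D 2 1 with hNd
  rw [← hJU] at hjac
  have hdetA : A 0 0 * (A 1 1 * A 2 2 - A 1 2 * A 2 1) - A 0 1 * (A 1 0 * A 2 2 - A 1 2 * A 2 0) +
        A 0 2 * (A 1 0 * A 2 1 - A 1 1 * A 2 0) =
      V.w 0 * V.w 1 * V.w 2 / (U.w 0 * U.w 1 * U.w 2) *
        (dt (U.e 0) (V.e 0) * (dt (U.e 1) (V.e 1) * dt (U.e 2) (V.e 2) -
          dt (U.e 2) (V.e 1) * dt (U.e 1) (V.e 2)) -
        dt (U.e 1) (V.e 0) * (dt (U.e 0) (V.e 1) * dt (U.e 2) (V.e 2) -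
          dt (U.e 2) (V.e 1) * dt (U.e 0) (V.e 2)) +
        dt (U.e 2) (V.e 0) * (dt (U.e 0) (V.e 1) * dt (U.e 1) (V.e 2) -
          dt (U.e 1) (V.e 1) * dt (U.e 0) (V.e 2))) := by
    simp only [hm]
    field_simp
  have hNd' : 1 ≤ 6 * K ^ 2 * |Nd| := by
    rw [hdetA] at hjac
    have h1 : |Nd| * |JU.a0| = |J.a0| * (V.w 0 * V.w 1 * V.w 2 / (U.w 0 * U.w 1 * U.w 2)) := by
      rw [← abs_mul, hjac, abs_mul, abs_mul, Dm, mul_one,
        abs_of_pos (by positivity : 0 < V.w 0 * V.w 1 * V.w 2 / (U.w 0 * U.w 1 * U.w 2))]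
    have h2 : U.w 0 / 2 ≤ |J.a0| := F.a1.trans (le_abs_self _)
    have h3 : |Nd| * |JU.a0| ≤ |Nd| * (3 * V.w 0) := mul_le_mul_of_nonneg_left hJUup (abs_nonneg _)
    have h4 : U.w 0 / 2 * (V.w 0 * V.w 1 * V.w 2 / (U.w 0 * U.w 1 * U.w 2)) ≤
        |J.a0| * (V.w 0 * V.w 1 * V.w 2 / (U.w 0 * U.w 1 * U.w 2)) :=
      mul_le_mul_of_nonneg_right h2 (by positivity)
    have h5 : U.w 0 / 2 * (V.w 0 * V.w 1 * V.w 2 / (U.w 0 * U.w 1 * U.w 2)) =
        V.w 0 * (V.w 1 * V.w 2 / (2 * (U.w 1 * U.w 2))) := by field_simp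
    have h6 : V.w 0 * (V.w 1 * V.w 2 / (2 * (U.w 1 * U.w 2))) ≤ V.w 0 * (3 * |Nd|) := by
      rw [← h5]; linarith
    have h7 := le_of_mul_le_mul_left h6 gw0
    have h8 : 1 ≤ K ^ 2 * (V.w 1 * V.w 2 / (U.w 1 * U.w 2)) := by
      rw [← mul_div_assoc, le_div_iff₀ (by positivity), one_mul]
      calc U.w 1 * U.w 2 ≤ (K * V.w 1) * (K * V.w 2) := mul_le_mul d1' d2' hw2.le (by positivity)
        _ = K ^ 2 * (V.w 1 * V.w 2) := by ring
    have h9 : V.w 1 * V.w 2 / (2 * (U.w 1 * U.w 2)) = 1 / 2 * (V.w 1 * V.w 2 / (U.w 1 * U.w 2)) := by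
      field_simp
    rw [h9] at h7
    have h10 : K ^ 2 * (1 / 2 * (V.w 1 * V.w 2 / (U.w 1 * U.w 2))) ≤ K ^ 2 * (3 * |Nd|) :=
      mul_le_mul_of_nonneg_left h7 (by positivity)
    linarith
  have hdet3 : (400000 * K⁻¹ ^ 5) * κ ^ 3 ≤ |det3 (lf JU (sl JU))| := by
    rw [hJU, det3_chg a00 cne F.sym, ← hNd, abs_mul, abs_pow]
    have h1 : 1 / (36 * K ^ 4) ≤ |Nd| ^ 2 := by
      rw [div_le_iff₀ (by positivity)]
      have h2 : (1 : ℝ) ≤ (6 * K ^ 2 * |Nd|) ^ 2 := one_le_pow₀ hNd'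
      calc (1 : ℝ) ≤ (6 * K ^ 2 * |Nd|) ^ 2 := h2
        _ = |Nd| ^ 2 * (36 * K ^ 4) := by ring
    calc (400000 * K⁻¹ ^ 5) * κ ^ 3 ≤ 1 / (36 * K ^ 4) * (2 ^ 24 * K⁻¹ * κ ^ 3) := by
          have h3 : 1 / (36 * K ^ 4) * (2 ^ 24 * K⁻¹ * κ ^ 3) =
              (2 ^ 24 / 36) * (K⁻¹ ^ 5 * κ ^ 3) := by
            field_simp
          have h4 : (400000 * K⁻¹ ^ 5) * κ ^ 3 = 400000 * (K⁻¹ ^ 5 * κ ^ 3) := by ring
          rw [h3, h4]
          exact mul_le_mul_of_nonneg_right (by norm_num) (by positivity)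
      _ ≤ |Nd| ^ 2 * |det3 (lf J (sl J))| :=
          mul_le_mul h1 Dt (by positivity) (by positivity)
  -- mixed derivatives
  have hmix : ∀ i, |JU.h0 i + JU.h00 * sl JU i| ≤ 25000 * K * V.w 0 := by
    intro i
    have h1 := mix_chg_le a00 cne F.sym hN hA0 F.q00 F.q0 F.qh F.sl i
    rw [← hJU] at h1
    have h2 : V.w 0 / U.w 0 * (50 * K) * U.w 0 = 50 * K * V.w 0 := by field_simp
    rw [h2] at h1
    linarith
  have hh00 : |JU.h00| * U.w 0 ≤ 100 * V.w 0 ^ 2 := by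
    have h1 := h00_chg_le (D := D) hA0 F.q00 F.q0 F.qh
    rw [← hJU] at h1
    have h2 : (V.w 0 / U.w 0) ^ 2 * U.w 0 * U.w 0 = V.w 0 ^ 2 := by field_simp
    have h3 := mul_le_mul_of_nonneg_right h1 hw0.le
    calc |JU.h00| * U.w 0 ≤ 100 * ((V.w 0 / U.w 0) ^ 2 * U.w 0) * U.w 0 := h3
      _ = 100 * ((V.w 0 / U.w 0) ^ 2 * U.w 0 * U.w 0) := by ring
      _ = _ := by rw [h2]
  have hη : ∀ i, |tg JV JU i| ≤ 20 * τ / V.w 0 * |JU.a0| := by
    intro i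
    have h1 : τ = 20 * τ / V.w 0 * (V.w 0 / 20) := by field_simp
    calc |tg JV JU i| ≤ τ := htg i
      _ = 20 * τ / V.w 0 * (V.w 0 / 20) := h1
      _ ≤ _ := mul_le_mul_of_nonneg_left hJU0 (by positivity)
  have hBη : |JU.h00| * (20 * τ / V.w 0) ≤ 25000 * K * V.w 0 := by
    have h1 : |JU.h00| * (20 * τ / V.w 0) * (U.w 0 * V.w 0) = |JU.h00| * U.w 0 * (20 * τ) := by
      field_simp
    have h2 : |JU.h00| * U.w 0 * (20 * τ) ≤ 100 * V.w 0 ^ 2 * (20 * τ) :=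
      mul_le_mul_of_nonneg_right hh00 (by positivity)
    have h3 : 2000 * τ ≤ 25000 * K * U.w 0 := by
      have : U.w 0 ≤ K * U.w 0 := le_mul_of_one_le_left hw0.le hK
      linarith
    have h4 : |JU.h00| * (20 * τ / V.w 0) * (U.w 0 * V.w 0) ≤
        25000 * K * V.w 0 * (U.w 0 * V.w 0) := by
      rw [h1]
      calc |JU.h00| * U.w 0 * (20 * τ) ≤ 100 * V.w 0 ^ 2 * (20 * τ) := h2
        _ = V.w 0 ^ 2 * (2000 * τ) := by ring
        _ ≤ V.w 0 ^ 2 * (25000 * K * U.w 0) := mul_le_mul_of_nonneg_left h3 (by positivity)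
        _ = _ := by ring
    exact le_of_mul_le_mul_right h4 (by positivity)
  set σ : ℝ := 2 / 10 ^ 13 * K⁻¹ ^ 9 with hσd
  have hKi : 0 < K⁻¹ := by positivity
  have hσ0 : 0 < σ := by rw [hσd]; positivity
  have hσle : σ ≤ 2 / 10 ^ 13 := by
    rw [hσd]
    have : K⁻¹ ^ 9 ≤ 1 := pow_le_one₀ hKi.le (inv_le_one_of_one_le₀ hK)
    linarith
  have herr : 3 * (25000 * K * V.w 0) * (20 * τ / V.w 0) ≤ σ * κ := by
    have h1 : 3 * (25000 * K * V.w 0) * (20 * τ / V.w 0) = 1500000 * (K * τ) := by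
      field_simp; ring
    rw [h1, hσd]
    have h2 : 2 / 10 ^ 13 * K⁻¹ ^ 9 * (10 ^ 24 * K ^ 10 * τ) ≤ 2 / 10 ^ 13 * K⁻¹ ^ 9 * κ :=
      mul_le_mul_of_nonneg_left hτ (by positivity)
    have h3 : 2 / 10 ^ 13 * K⁻¹ ^ 9 * (10 ^ 24 * K ^ 10 * τ) = 2 * 10 ^ 11 * (K * τ) := by
      field_simp
    rw [h3] at h2
    have : 0 ≤ K * τ := by positivity
    linarith
  have hb0 : ∀ i j, |lf JV (sl JV) i j| ≤ σ * κ := by
    intro i j
    refine (v4 i j).trans ?_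
    have h1 : 36 * (130 * kapP V z0 ρ T + 1000 * V.a) ≤ 36000 * (kapP V z0 ρ T + U.a + V.a) := by
      linarith
    have h2 : σ * (10 ^ 22 * K ^ 9 * (kapP V z0 ρ T + U.a + V.a)) ≤ σ * κ :=
      mul_le_mul_of_nonneg_left flat hσ0.le
    have h3 : σ * (10 ^ 22 * K ^ 9 * (kapP V z0 ρ T + U.a + V.a)) =
        2 * 10 ^ 9 * (kapP V z0 ρ T + U.a + V.a) := by
      rw [hσd]; field_simp
    rw [h3] at h2
    linarith
  have hK2 : (1 : ℝ) ≤ K ^ 2 := one_le_pow₀ hK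
  obtain ⟨i, j, k, l, h⟩ := mixed_th_flat3 (q0 := JV) (q1 := JU) (κ := κ) (K := 10 ^ 7 * K ^ 2)
    (δ := 400000 * K⁻¹ ^ 5) (σ := σ) hκ0 hJUne sU (by positivity) B1 hdet3 hb0 hmix hBη hη hVa.ne'
    herr (by linarith) hμ6 (by
      have h1 : 13440 * ((10 ^ 7 * K ^ 2) ^ 2 * σ) = 268800 * K⁻¹ ^ 5 := by
        rw [hσd]; field_simp; ring
      rw [h1]
      exact mul_le_mul_of_nonneg_right (by norm_num) (by positivity))
  refine ⟨i, j, k, l, ?_⟩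
  have h1 : K ^ 5 * (400000 * K⁻¹ ^ 5 * κ ^ 2) = 400000 * κ ^ 2 := by field_simp
  have h2 : K ^ 5 * (400000 * K⁻¹ ^ 5 * κ ^ 2) ≤
      K ^ 5 * (96 * (10 ^ 7 * K ^ 2) * |mn (th JV JU) i j k l|) :=
    mul_le_mul_of_nonneg_left h (by positivity)
  rw [h1] at h2
  have h3 : K ^ 5 * (96 * (10 ^ 7 * K ^ 2) * |mn (th JV JU) i j k l|) =
      96 * 10 ^ 7 * (K ^ 7 * |mn (th JV JU) i j k l|) := by ring
  rw [h3] at h2
  have h4 : 0 ≤ K ^ 7 * |mn (th JV JU) i j k l| := by positivity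
  linarith

end Crest.Agent.R136.Mxc615
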