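import Mathlib
import Crest.Agent.R136.Mxg_615
import Crest.Agent.R136.AlD_601

/-!
# R136 (U4, PLAN 2 (AL), mixed curvatures): `caseA_Nd`, over 601's `Nd` (helper615)
-/

set_option autoImplicit false
set_option linter.unusedVariables false

namespace Crest.Agent.R136.Mxc615

open Crest.Agent.R136.Rk601
open Crest.Agent.R136.Sh605 Crest.Agent.R136.Tl102
open Crest.Agent.R136.K4 (Plk4)
open Crest.Agent.R136.Tlt51 (Shp InP)
open Crest.Agent.R136.KapP335 (kapP DetP)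
open Crest.Agent.R136.AlD601 (jt jt_jet jS Nd)
open Crest.Agent.R136.Gbx862 (zj)

/-- **(AL), case (A)** : `Nd` at every height number of every common line. -/
theorem caseA_Nd {U V : Plk4} {T : Ln4} {z0 ρ r K l m s : ℝ} {H j : ℕ} (hr : 0 < r) (hρ : 0 < ρ)
    (hK : 1 ≤ K) (hU : Shp U z0 ρ r) (hV : Shp V z0 ρ r) (tU : InP T U z0 ρ) (tV : InP T V z0 ρ)
    (d1 : V.w 1 ≤ K * U.w 1) (d1' : U.w 1 ≤ K * V.w 1) (d2 : V.w 2 ≤ K * U.w 2)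
    (d2' : U.w 2 ≤ K * V.w 2) (ang : V.w 1 * |dt (U.e 2) (V.e 1)| ≤ K * U.w 2)
    (det : DetP K⁻¹ U z0 ρ T)
    (flat : 10 ^ 22 * K ^ 9 * (kapP V z0 ρ T + U.a + V.a) ≤ kapP U z0 ρ T)
    (hH : 0 < H) (hj : j ≤ H) (hl : 0 ≤ l) (hs : 0 ≤ s)
    (h1 : 10 ^ 24 * K ^ 10 * (l * s) ≤ kapP U z0 ρ T)
    (h2 : 10 ^ 6 * K ^ 7 * (m * s ^ 2) < kapP U z0 ρ T ^ 2) : Nd V U.q z0 ρ H j T l m s := by
  by_cases h : ∀ i, |Rk601.tg (jS V V.q z0 ρ H j T) (jS V U.q z0 ρ H j T) i| ≤ l * s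
  · right
    obtain ⟨jV, sV⟩ := jt_jet hV.isQ (fr V.e V.w) V.c.v (zj z0 ρ H j) (T.pos (zj z0 ρ H j)) ρ
    obtain ⟨jU, sU⟩ := jt_jet hU.isQ (fr V.e V.w) V.c.v (zj z0 ρ H j) (T.pos (zj z0 ρ H j)) ρ
    have hH' : (0 : ℝ) < H := by exact_mod_cast hH
    have hζ : (0 : ℝ) ≤ (j : ℝ) / H := by positivity
    have hζ' : (j : ℝ) / H ≤ 1 := (div_le_one hH').2 (by exact_mod_cast hj)
    obtain ⟨i, j', k, k', hm⟩ := caseA_nd hr hρ hK hU hV tU tV d1 d1' d2 d2' ang det flat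
      (mul_nonneg hl hs) h1 hζ hζ' sV sU jV jU h
    refine ⟨i, j', k, k', ?_⟩
    have hK7 : 0 < 10 ^ 6 * K ^ 7 := by positivity
    exact lt_of_mul_lt_mul_left (lt_of_lt_of_le h2 hm) hK7.le
  · left
    push Not at h
    exact h

end Crest.Agent.R136.Mxc615
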