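import Crest.Agent.R136.NSt1_107

/-!
# R136: strips in the models (helper107), part 3: from rare classes with heavy strips to `NsW`

* `heavy` : the incidences whose class (at the box `x`) has a heavy strip; `StripRare`.
* `gs` : the good incidences of the stage `l` (all strips of a grid); `gs_small`, `gs_cls`.
* `nsW_of_gs` : windows whose classes are classes of good incidences have no heavy strips.
-/

set_option autoImplicit false
set_option linter.unusedSectionVars false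
set_option linter.unusedVariables false

open Filter Topology

namespace Crest.Agent.R136.NSt107

open Finset Crest.Agent.R138.Ex926 Crest.Agent.R136.Net191 Crest.Agent.R136.Gf356
open Crest.Agent.R136.Qg926 Crest.Agent.R136.Qg4480

variable {m : ℕ} {ι : ℕ → Type*} [∀ n, DecidableEq (ι n)]

open Classical in
/-- the incidences whose class at `x` has a strip of relative width `d ^ y` (slots `cA`, `cB`, seen
from some incidence of the class) with at least a `d ^ δ`-part of the class -/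
noncomputable def heavy (B : Base) (I J : ∀ n, Finset (ι n)) (co : ∀ n, ι n → ι n → Fin m → ℝ)
    (M : Mons m) (C : ℝ) (x : Fin m → ℝ) (cA cB : Fin m) (y δ : ℝ) (n : ℕ) : Finset (ι n) :=
  (J n).filter fun i => ∃ i1 ∈ J n, nlab B I co M C n x i1 = nlab B I co M C n x i ∧
    ∃ b : Fin 2 → ℝ, b 0 ^ 2 + b 1 ^ 2 = 1 ∧
      B.d n ^ δ * ((cls (J n) (nlab B I co M C n x) i).card : ℝ) ≤
        (((J n).filter fun j => nlab B I co M C n x j = nlab B I co M C n x i ∧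
          |b 0 * (co n i1 j cA / B.d n ^ x cA) + b 1 * (co n i1 j cB / B.d n ^ x cB)| ≤
            B.d n ^ y).card : ℝ)

/-- **classes with a heavy strip are rare** (box `x`, rate `q`) -/
def StripRare (B : Base) (I J : ∀ n, Finset (ι n)) (co : ∀ n, ι n → ι n → Fin m → ℝ)
    (M : Mons m) (C : ℝ) (x : Fin m → ℝ) (cA cB : Fin m) (q : ℝ) : Prop :=
  ∀ y : ℝ, 0 < y → ∀ δ : ℝ, δ < q * y → ∃ δ' : ℝ, 0 < δ' ∧ ∀ᶠ n in (U : Filter ℕ),
    ((heavy B I J co M C x cA cB y δ n).card : ℝ) ≤ B.d n ^ δ' * (J n).card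

/-- the good incidences of the stage `l`: box `x`, scale `w` -/
noncomputable def gs (B : Base) (I J : ∀ n, Finset (ι n)) (co : ∀ n, ι n → ι n → Fin m → ℝ)
    (M : Mons m) (C : ℝ) (x : ℕ → Fin m → ℝ) (w : ℕ → ℝ) (cA cB : Fin m) (q R0 : ℝ) (l n : ℕ) :
    Finset (ι n) :=
  (J n).filter fun i => ∀ j ∈ range (l + 1), i ∉ heavy B I J co M C (x l) cA cB
    (w l * (R0 * ((j : ℝ) + 1) / ((l : ℝ) + 1)))
    (w l * (q * (R0 * ((j : ℝ) + 1) / ((l : ℝ) + 1)) - 1 / ((l : ℝ) + 1))) n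

section

variable {B : Base} {I J : ∀ n, Finset (ι n)} {co : ∀ n, ι n → ι n → Fin m → ℝ}
  {M : Mons m} {C : ℝ} {x : ℕ → Fin m → ℝ} {w : ℕ → ℝ} {cA cB : Fin m} {q R0 : ℝ}

theorem gs_sub (l n : ℕ) : gs B I J co M C x w cA cB q R0 l n ⊆ J n := filter_subset _ _

/-- the property of being heavy depends on the class only -/
theorem heavy_congr {z : Fin m → ℝ} {y δ : ℝ} {n : ℕ} {i i' : ι n}
    (h : nlab B I co M C n z i' = nlab B I co M C n z i) (hi' : i' ∈ J n)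
    (hi : i ∈ heavy B I J co M C z cA cB y δ n) : i' ∈ heavy B I J co M C z cA cB y δ n := by
  classical
  unfold heavy at hi ⊢
  rw [mem_filter] at hi ⊢
  obtain ⟨h1, i1, h2, h3, b, h4, h5⟩ := hi
  refine ⟨hi', i1, h2, h3.trans h.symm, b, h4, ?_⟩
  rw [cls_congr h]
  rw [h]
  exact h5

/-- `gs` is a union of classes of `J` -/
theorem gs_congr {l n : ℕ} {i i' : ι n}
    (h : nlab B I co M C n (x l) i' = nlab B I co M C n (x l) i) (hi' : i' ∈ J n)
    (hi : i ∈ gs B I J co M C x w cA cB q R0 l n) : i' ∈ gs B I J co M C x w cA cB q R0 l n := by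
  unfold gs at hi ⊢
  rw [mem_filter] at hi ⊢
  exact ⟨hi', fun j hj hc => hi.2 j hj (heavy_congr h.symm hi.1 hc)⟩

/-- the bad incidences of a stage are few -/
theorem gs_small (hw : ∀ l, 0 < w l) (hR0 : 0 < R0)
    (h : ∀ l, StripRare B I J co M C (x l) cA cB q) (l : ℕ) (c : ℕ → ℝ) (hc : B.Sub c) :
    ∀ᶠ n in (U : Filter ℕ),
      c n * ((J n \ gs B I J co M C x w cA cB q R0 l n).card : ℝ) ≤ (J n).card := by
  classical
  have key : ∀ᶠ n in (U : Filter ℕ), ∀ j ∈ range (l + 1),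
      (((l : ℝ) + 1) * c n) * ((heavy B I J co M C (x l) cA cB
        (w l * (R0 * ((j : ℝ) + 1) / ((l : ℝ) + 1)))
        (w l * (q * (R0 * ((j : ℝ) + 1) / ((l : ℝ) + 1)) - 1 / ((l : ℝ) + 1))) n).card : ℝ) ≤
        (J n).card := by
    rw [Filter.eventually_all_finset]
    intro j _
    have hw' := hw l
    obtain ⟨δ', hδ', h1⟩ := h l (w l * (R0 * ((j : ℝ) + 1) / ((l : ℝ) + 1))) (by positivity)
      (w l * (q * (R0 * ((j : ℝ) + 1) / ((l : ℝ) + 1)) - 1 / ((l : ℝ) + 1))) (by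
        have : 0 < w l * (1 / ((l : ℝ) + 1)) := by positivity
        nlinarith)
    have hS : B.Sub (fun n => ((l : ℝ) + 1) * c n) :=
      (Base.Sub.const (by positivity)).mul hc
    filter_upwards [h1, hS.ev_le hδ'] with n h2 h3
    have h4 : ((l : ℝ) + 1) * c n ≤ B.d n ^ (-δ') := by
      rw [← B.exp_eq, ← Real.log_le_iff_le_exp h3.1]
      exact h3.2
    have hJ : (0 : ℝ) ≤ (J n).card := Nat.cast_nonneg _
    calc (((l : ℝ) + 1) * c n) * ((heavy B I J co M C (x l) cA cB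
        (w l * (R0 * ((j : ℝ) + 1) / ((l : ℝ) + 1)))
        (w l * (q * (R0 * ((j : ℝ) + 1) / ((l : ℝ) + 1)) - 1 / ((l : ℝ) + 1))) n).card : ℝ)
        ≤ (((l : ℝ) + 1) * c n) * (B.d n ^ δ' * (J n).card) :=
          mul_le_mul_of_nonneg_left h2 h3.1.le
      _ ≤ B.d n ^ (-δ') * (B.d n ^ δ' * (J n).card) :=
          mul_le_mul_of_nonneg_right h4 (mul_nonneg (Real.rpow_nonneg (B.pos n).le _) hJ)
      _ = (B.d n ^ (-δ') * B.d n ^ δ') * (J n).card := by ring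
      _ = (J n).card := by
          rw [← Real.rpow_add (B.pos n), neg_add_cancel, Real.rpow_zero, one_mul]
  have hc1 : ∀ᶠ n in (U : Filter ℕ), 0 < c n := (Base.Sub.iff.1 hc).1
  filter_upwards [key, hc1] with n hn hcn
  have h1 : J n \ gs B I J co M C x w cA cB q R0 l n ⊆ (range (l + 1)).biUnion fun j =>
      heavy B I J co M C (x l) cA cB (w l * (R0 * ((j : ℝ) + 1) / ((l : ℝ) + 1)))
        (w l * (q * (R0 * ((j : ℝ) + 1) / ((l : ℝ) + 1)) - 1 / ((l : ℝ) + 1))) n := by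
    intro i hi
    obtain ⟨h2, h3⟩ := mem_sdiff.1 hi
    unfold gs at h3
    rw [mem_filter, not_and] at h3
    have h4 := h3 h2
    push Not at h4
    obtain ⟨j, hj, hj'⟩ := h4
    exact mem_biUnion.2 ⟨j, hj, hj'⟩
  have h2 : ((J n \ gs B I J co M C x w cA cB q R0 l n).card : ℝ) ≤ ∑ j ∈ range (l + 1),
      ((heavy B I J co M C (x l) cA cB (w l * (R0 * ((j : ℝ) + 1) / ((l : ℝ) + 1)))
        (w l * (q * (R0 * ((j : ℝ) + 1) / ((l : ℝ) + 1)) - 1 / ((l : ℝ) + 1))) n).card : ℝ) := by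
    exact_mod_cast (card_le_card h1).trans card_biUnion_le
  have h3 : (((l : ℝ) + 1) * c n) *
      ((J n \ gs B I J co M C x w cA cB q R0 l n).card : ℝ) ≤ ((l : ℝ) + 1) * (J n).card := by
    calc _ ≤ (((l : ℝ) + 1) * c n) * ∑ j ∈ range (l + 1),
      ((heavy B I J co M C (x l) cA cB (w l * (R0 * ((j : ℝ) + 1) / ((l : ℝ) + 1)))
        (w l * (q * (R0 * ((j : ℝ) + 1) / ((l : ℝ) + 1)) - 1 / ((l : ℝ) + 1))) n).card : ℝ) :=
          mul_le_mul_of_nonneg_left h2 (by positivity)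
      _ = ∑ j ∈ range (l + 1), (((l : ℝ) + 1) * c n) *
      ((heavy B I J co M C (x l) cA cB (w l * (R0 * ((j : ℝ) + 1) / ((l : ℝ) + 1)))
        (w l * (q * (R0 * ((j : ℝ) + 1) / ((l : ℝ) + 1)) - 1 / ((l : ℝ) + 1))) n).card : ℝ) := by
          rw [mul_sum]
      _ ≤ ∑ j ∈ range (l + 1), ((J n).card : ℝ) := sum_le_sum hn
      _ = ((l : ℝ) + 1) * (J n).card := by
          rw [sum_const, card_range, nsmul_eq_mul]; push_cast; ring
  rw [mul_assoc] at h3
  exact le_of_mul_le_mul_left h3 (by positivity)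

/-- renormalised direction -/
theorem exists_unit {kA kB : ℝ} (hA : 0 < kA) (hB : 0 < kB) {b : Fin 2 → ℝ}
    (hb : b 0 ^ 2 + b 1 ^ 2 = 1) :
    ∃ b' : Fin 2 → ℝ, b' 0 ^ 2 + b' 1 ^ 2 = 1 ∧ ∀ u v : ℝ,
      |b' 0 * u + b' 1 * v| ≤ (kA + kB) * |b 0 * (u / kA) + b 1 * (v / kB)| := by
  set N : ℝ := (b 0 / kA) ^ 2 + (b 1 / kB) ^ 2 with hN
  have hK : 0 < kA + kB := by linarith
  have hN1 : 1 / (kA + kB) ^ 2 ≤ N := by
    have h1 : (b 0) ^ 2 / (kA + kB) ^ 2 ≤ (b 0 / kA) ^ 2 := by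
      rw [div_pow]
      exact div_le_div_of_nonneg_left (sq_nonneg _) (by positivity)
        (pow_le_pow_left₀ hA.le (by linarith) 2)
    have h2 : (b 1) ^ 2 / (kA + kB) ^ 2 ≤ (b 1 / kB) ^ 2 := by
      rw [div_pow]
      exact div_le_div_of_nonneg_left (sq_nonneg _) (by positivity)
        (pow_le_pow_left₀ hB.le (by linarith) 2)
    rw [← hb, add_div]
    linarith
  have hN0 : 0 < N := lt_of_lt_of_le (by positivity) hN1
  have hs : 0 < Real.sqrt N := Real.sqrt_pos.2 hN0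
  have hs2 : Real.sqrt N ^ 2 = N := Real.sq_sqrt hN0.le
  have hsK : 1 / Real.sqrt N ≤ kA + kB := by
    rw [div_le_iff₀ hs]
    have h1 : Real.sqrt (1 / (kA + kB) ^ 2) ≤ Real.sqrt N := Real.sqrt_le_sqrt hN1
    have h2 : Real.sqrt (1 / (kA + kB) ^ 2) = 1 / (kA + kB) := by
      rw [← one_div_pow, Real.sqrt_sq (by positivity)]
    rw [h2, div_le_iff₀ hK] at h1
    linarith
  refine ⟨![b 0 / kA / Real.sqrt N, b 1 / kB / Real.sqrt N], ?_, fun u v => ?_⟩
  · show (b 0 / kA / Real.sqrt N) ^ 2 + (b 1 / kB / Real.sqrt N) ^ 2 = 1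
    rw [div_pow, div_pow _ (Real.sqrt N), ← add_div, hs2, ← hN, div_self hN0.ne']
  · show |b 0 / kA / Real.sqrt N * u + b 1 / kB / Real.sqrt N * v| ≤ _
    have e1 : b 0 / kA / Real.sqrt N * u + b 1 / kB / Real.sqrt N * v =
        (1 / Real.sqrt N) * (b 0 * (u / kA) + b 1 * (v / kB)) := by ring
    rw [e1, abs_mul, abs_of_pos (by positivity : 0 < 1 / Real.sqrt N)]
    exact mul_le_mul_of_nonneg_right hsK (abs_nonneg _)

open Classical in
/-- **windows inside the good incidences have no heavy strips** -/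
theorem nsW_of_gs (W : Wnd m ι) (hW : W.Ok) (hB : W.B = B) (hI : W.I = I) (hco : W.co = co)
    (hM : W.M = M) (hC : W.C = C) {k : ℕ → ℕ} (hk : Tendsto k U atTop)
    (hX : ∀ n, W.X n = x (k n)) (hw : ∀ n, W.B'.d n = B.d n ^ w (k n))
    (hR0 : 0 < R0) (hq : 0 ≤ q)
    (hCl : ∀ᶠ n in (U : Filter ℕ), W.Cl n ⊆ J n ∩ gs B I J co M C x w cA cB q R0 (k n) n ∧
      ∀ i ∈ W.Cl n, W.Cl n =
        cls (J n ∩ gs B I J co M C x w cA cB q R0 (k n) n) (W.lab n 0) i) :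
    NsW W cA cB q R0 := by
  subst hB hI hco hM hC
  intro t ht htR ε hε
  set η : ℝ := min (ε / (4 * (q + 1))) (t / 2) with hη
  have hη0 : 0 < η := lt_min (by positivity) (by positivity)
  have hηε : η ≤ ε / (4 * (q + 1)) := min_le_left _ _
  have hηt : η ≤ t / 2 := min_le_right _ _
  have hqη : 2 * q * η ≤ ε / 2 := by
    have h1 : 2 * q * η ≤ 2 * q * (ε / (4 * (q + 1))) :=
      mul_le_mul_of_nonneg_left hηε (by positivity)
    refine h1.trans ?_
    rw [mul_div_assoc', div_le_iff₀ (by positivity)]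
    nlinarith
  have hkA := hW.kap cA
  have hkB := hW.kap cB
  obtain ⟨N1, hN1⟩ := exists_nat_gt (R0 / η)
  obtain ⟨N2, hN2⟩ := exists_nat_gt (2 / ε)
  filter_upwards [hCl, hk.eventually_ge_atTop N1, hk.eventually_ge_atTop N2,
    Crest.Agent.R136.Qg926.ev_const_le W.B' (c := W.kap cA + W.kap cB) (by linarith) hη0,
    hW.ev_good] with n hCln hn1 hn2 hkap g i hi b hb
  obtain ⟨hsub, hcl⟩ := hCln
  set l := k n with hl
  have hl0 : (0 : ℝ) < (l : ℝ) + 1 := by positivity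
  -- the grid point
  have hmesh : R0 / ((l : ℝ) + 1) ≤ η := by
    have h1 : (N1 : ℝ) ≤ l := by exact_mod_cast hn1
    rw [div_lt_iff₀ hη0] at hN1
    rw [div_le_iff₀ hl0]
    nlinarith
  have hεl : 1 / ((l : ℝ) + 1) ≤ ε / 2 := by
    have h1 : (N2 : ℝ) ≤ l := by exact_mod_cast hn2
    rw [div_lt_iff₀ hε] at hN2
    rw [div_le_iff₀ hl0]
    nlinarith
  obtain ⟨j, hj, hj1, hj2⟩ : ∃ j ∈ range (l + 1),
      R0 * ((j : ℝ) + 1) / ((l : ℝ) + 1) ≤ t - η ∧
      t - 2 * η ≤ R0 * ((j : ℝ) + 1) / ((l : ℝ) + 1) := by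
    set r : ℝ := (t - η) * ((l : ℝ) + 1) / R0 with hr
    have hr1 : 1 ≤ r := by
      rw [hr, le_div_iff₀ hR0, one_mul]
      rw [div_le_iff₀ hl0] at hmesh
      nlinarith
    have hf1 : 1 ≤ ⌊r⌋₊ := Nat.le_floor (by exact_mod_cast hr1)
    have hf2 : (⌊r⌋₊ : ℝ) ≤ r := Nat.floor_le (by linarith)
    have hf3 : r < (⌊r⌋₊ : ℝ) + 1 := Nat.lt_floor_add_one r
    have hrl : r ≤ (l : ℝ) + 1 := by
      rw [hr, div_le_iff₀ hR0]
      nlinarith
    refine ⟨⌊r⌋₊ - 1, mem_range.2 ?_, ?_, ?_⟩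
    · have : (⌊r⌋₊ : ℝ) ≤ (l : ℝ) + 1 := hf2.trans hrl
      have h2 : ⌊r⌋₊ ≤ l + 1 := by exact_mod_cast this
      omega
    · have e1 : (((⌊r⌋₊ - 1 : ℕ) : ℝ) + 1) = (⌊r⌋₊ : ℝ) := by
        rw [Nat.cast_sub hf1]; push_cast; ring
      rw [e1, div_le_iff₀ hl0]
      have := mul_le_mul_of_nonneg_left hf2 hR0.le
      have e2 : R0 * r = (t - η) * ((l : ℝ) + 1) := by rw [hr]; field_simp
      linarith
    · have e1 : (((⌊r⌋₊ - 1 : ℕ) : ℝ) + 1) = (⌊r⌋₊ : ℝ) := by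
        rw [Nat.cast_sub hf1]; push_cast; ring
      rw [e1, le_div_iff₀ hl0]
      have h1 := mul_le_mul_of_nonneg_left hf3.le hR0.le
      have e2 : R0 * r = (t - η) * ((l : ℝ) + 1) := by rw [hr]; field_simp
      rw [div_le_iff₀ hl0] at hmesh
      nlinarith
  set τ : ℝ := R0 * ((j : ℝ) + 1) / ((l : ℝ) + 1) with hτ
  -- the class
  have hlab0 : W.lab n 0 = nlab W.B W.I W.co W.M W.C n (x l) := by
    show nlab W.B W.I W.co W.M W.C n (W.X n + W.w n • 0) = _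
    rw [hX, smul_zero, add_zero]
  have hCleq : W.Cl n = cls (J n) (nlab W.B W.I W.co W.M W.C n (x l)) i := by
    rw [hcl i hi, hlab0]
    have hiG := (mem_inter.1 (hsub hi)).2
    ext i'
    rw [mem_cls, mem_cls]
    constructor
    · exact fun h => ⟨(mem_inter.1 h.1).1, h.2⟩
    · exact fun h => ⟨mem_inter.2 ⟨h.1, gs_congr h.2 h.1 hiG⟩, h.2⟩
  have hiJ := (mem_inter.1 (hsub hi)).1
  have hiG := (mem_inter.1 (hsub hi)).2
  have hnot : i ∉ heavy W.B W.I J W.co W.M W.C (x l) cA cB (w l * τ)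
      (w l * (q * τ - 1 / ((l : ℝ) + 1))) n := by
    unfold gs at hiG
    exact (mem_filter.1 hiG).2 j hj
  obtain ⟨b', hb', hbb⟩ := exists_unit hkA hkB hb
  have hlt : (((J n).filter fun j' => nlab W.B W.I W.co W.M W.C n (x l) j' =
      nlab W.B W.I W.co W.M W.C n (x l) i ∧
      |b' 0 * (W.co n i j' cA / W.B.d n ^ x l cA) + b' 1 * (W.co n i j' cB / W.B.d n ^ x l cB)| ≤
        W.B.d n ^ (w l * τ)).card : ℝ) <
      W.B.d n ^ (w l * (q * τ - 1 / ((l : ℝ) + 1))) *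
        ((cls (J n) (nlab W.B W.I W.co W.M W.C n (x l)) i).card : ℝ) := by
    by_contra hcon
    rw [not_lt] at hcon
    refine hnot ?_
    unfold heavy
    exact mem_filter.2 ⟨hiJ, i, hiJ, rfl, b', hb', hcon⟩
  have hd1 : W.B.d n ^ (w l * τ) = W.B'.d n ^ τ := by
    rw [hw n, ← Real.rpow_mul (W.B.pos n).le]
  have hd2 : W.B.d n ^ (w l * (q * τ - 1 / ((l : ℝ) + 1))) =
      W.B'.d n ^ (q * τ - 1 / ((l : ℝ) + 1)) := by
    rw [hw n, ← Real.rpow_mul (W.B.pos n).le]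
  have hpos : ∀ t : ℝ, 0 < W.B'.d n ^ t := fun t => Real.rpow_pos_of_pos (W.B'.pos n) t
  have anti : ∀ {s t : ℝ}, s ≤ t → W.B'.d n ^ t ≤ W.B'.d n ^ s := fun hst =>
    Real.rpow_le_rpow_of_exponent_ge (W.B'.pos n) (W.B'.lt n).le hst
  -- inclusion of the strips
  have hincl : ((W.Cl n).filter fun j' =>
      |b 0 * W.crd n i j' cA + b 1 * W.crd n i j' cB| ≤ W.B'.d n ^ t) ⊆
      ((J n).filter fun j' => nlab W.B W.I W.co W.M W.C n (x l) j' =
      nlab W.B W.I W.co W.M W.C n (x l) i ∧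
      |b' 0 * (W.co n i j' cA / W.B.d n ^ x l cA) + b' 1 * (W.co n i j' cB / W.B.d n ^ x l cB)| ≤
        W.B.d n ^ (w l * τ)) := by
    intro j' hj'
    obtain ⟨a1, a2⟩ := mem_filter.1 hj'
    have a3 := a1
    rw [hCleq, mem_cls] at a3
    refine mem_filter.2 ⟨a3.1, a3.2, ?_⟩
    have e1 : W.crd n i j' cA = W.co n i j' cA / W.B.d n ^ x l cA / W.kap cA := by
      unfold Wnd.crd; rw [hX n, div_div, mul_comm (W.kap cA)]
    have e2 : W.crd n i j' cB = W.co n i j' cB / W.B.d n ^ x l cB / W.kap cB := by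
      unfold Wnd.crd; rw [hX n, div_div, mul_comm (W.kap cB)]
    have h1 := hbb (W.co n i j' cA / W.B.d n ^ x l cA) (W.co n i j' cB / W.B.d n ^ x l cB)
    rw [← e1, ← e2] at h1
    rw [hd1]
    calc _ ≤ (W.kap cA + W.kap cB) * |b 0 * W.crd n i j' cA + b 1 * W.crd n i j' cB| := h1
      _ ≤ W.B'.d n ^ (-η) * W.B'.d n ^ t := mul_le_mul hkap a2 (abs_nonneg _) (hpos _).le
      _ = W.B'.d n ^ (t - η) := by rw [← Real.rpow_add (W.B'.pos n)]; congr 1; ring
      _ ≤ W.B'.d n ^ τ := anti hj1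
  have hc1 : (((W.Cl n).filter fun j' =>
      |b 0 * W.crd n i j' cA + b 1 * W.crd n i j' cB| ≤ W.B'.d n ^ t).card : ℝ) ≤
      W.B'.d n ^ (q * τ - 1 / ((l : ℝ) + 1)) * (W.Cl n).card := by
    have h1 := (Nat.cast_le (α := ℝ)).2 (card_le_card hincl)
    rw [hd2, ← hCleq] at hlt
    exact h1.trans hlt.le
  refine hc1.trans (mul_le_mul_of_nonneg_right (anti ?_) (Nat.cast_nonneg _))
  have : q * (t - 2 * η) ≤ q * τ := mul_le_mul_of_nonneg_left hj2 hq
  linarith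

end

end Crest.Agent.R136.NSt107
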