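import Crest.Agent.R136.Us0_555

/-!
# R136 (S0187): narrowing of the marks of a marked extremal sequence (helper627)

* `MkA.narrowG` : new labels `f'` refine the old ones and split every old class into at most
  `d^(-δ) * N` pieces (every `δ`), and the new sizes satisfy `N * vm' ≤ d^(-ε) * vm` (SATURATION):
  then a dense part is marked by the new (smaller) marks.  `N = 1`, `vm' = vm` is 555's `relabel`.
* `MkA.narrow` : the same with the same geometry.
* `vm_le` : sizes of two marks are compared by the counts.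
-/

set_option autoImplicit false
set_option linter.unusedVariables false
set_option linter.unusedSectionVars false

open Finset Filter Topology

namespace Crest.Agent.R136.Nar627

open Crest.Agent.R138.Ex926 Crest.Agent.R138.Dp76 Crest.Agent.R138.Ps627
open Crest.Agent.R138.Mk163 (zc zl rho alive own Negl)
open Crest.Agent.R138.NatTw76 (exists_avoid)
open Crest.Agent.R138.MkRef627 (lc kc own_one alive_mono mem_alive card_class own_lower hh hh_even
  hh_odd exists_num)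
open Crest.Agent.R136.MkA627 Crest.Agent.R136.Us555

section

variable {σ κ : Type*} {B : Base} {I : ℕ → Finset (ℕ × ℝ)} {G : Geo σ κ} {lev : ℕ → ℚ → ℕ}
    {A : ℕ → ℝ} {c Λ : ℝ → ℝ} {τ : κ → ℝ → ℝ} {f : ℕ → ℚ → ℕ → ℤ → ℕ} {b : ℕ → ℚ → ℕ → σ}
    {vm : ℕ → ℚ → ℝ} {w : κ → ℕ → ℚ → ℝ}

open Classical in
/-- **NARROW.**  New labels `f'` split every old class into at most `d^(-δ) * N` pieces, and
`N * vm' ≤ d^(-ε) * vm`: a dense part is marked by the new labels.  The D-max for the new geometry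
`G'` is a hypothesis (for `G' = G` it is `h.dmax`). -/
theorem MkA.narrowG {σ' κ' : Type*} {G' : Geo σ' κ'} (h : MkA B I G lev A c Λ τ f b vm w)
    {f' : ℕ → ℚ → ℕ → ℤ → ℕ} {b' : ℕ → ℚ → ℕ → σ'} {vm' : ℕ → ℚ → ℝ} {w' : κ' → ℕ → ℚ → ℝ}
    {τ' : κ' → ℝ → ℝ} {N : ℕ → ℚ → ℝ}
    (hdm : ∀ v : ℚ, 0 ≤ v → v ≤ 1 → ∀ ε : ℝ, 0 < ε → ∀ᶠ n in (U : Filter ℕ), ∀ J : ℤ, ∀ s : σ',
      G'.adm n (lev n v) J s →
        (((alive (I n) (lev n v) J).filter fun t => G'.mem n (lev n v) J s t).card : ℝ) ≤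
          B.d n ^ (-ε) * ampA B A c n v * G'.val n (lev n v) J s)
    (hN : ∀ v : ℚ, 0 ≤ v → v ≤ 1 → ∀ᶠ n in (U : Filter ℕ), 0 < N n v)
    (hmark : ∀ v : ℚ, 0 ≤ v → v ≤ 1 → ∀ᶠ n in (U : Filter ℕ), ∀ J : ℤ,
      ∀ t ∈ alive (I n) (lev n v) J,
        G'.mem n (lev n v) J (b' n v (f' n v t J)) t ∧ G'.adm n (lev n v) J (b' n v (f' n v t J)) ∧
        G'.val n (lev n v) J (b' n v (f' n v t J)) = vm' n v ∧
        ∀ j, G'.wid j (b' n v (f' n v t J)) = w' j n v)
    (hcnt : ∀ v : ℚ, 0 ≤ v → v ≤ 1 → ∀ δ : ℝ, 0 < δ → ∀ᶠ n in (U : Filter ℕ), ∀ J : ℤ,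
      ∀ t ∈ alive (I n) (lev n v) J,
        ((((alive (I n) (lev n v) J).filter fun s => f n v s J = f n v t J).image
          fun s => f' n v s J).card : ℝ) ≤ B.d n ^ (-δ) * N n v)
    (hsat : ∀ v : ℚ, 0 ≤ v → v ≤ 1 → ∀ ε : ℝ, 0 < ε → ∀ᶠ n in (U : Filter ℕ),
      N n v * vm' n v ≤ B.d n ^ (-ε) * vm n v)
    (hvpos : ∀ v : ℚ, 0 ≤ v → v ≤ 1 → ∀ᶠ n in (U : Filter ℕ), 0 < vm' n v)
    (hwpos : ∀ j, ∀ v : ℚ, 0 ≤ v → v ≤ 1 → ∀ᶠ n in (U : Filter ℕ), 0 < w' j n v)
    (htau1 : ∀ j, τ' j 1 = 0)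
    (htau : ∀ j, ∀ v : ℚ, 0 ≤ v → v ≤ 1 →
      Tendsto (fun n => Real.log ((rho (lev n v) / w' j n v) / (rho (lev n 1) / w' j n 1)) / B.L n)
        U (𝓝 (τ' j v))) :
    ∃ J' : ℕ → Finset (ℕ × ℝ), (∀ n, J' n ⊆ I n) ∧ Dense B J' I ∧
      MkA B J' G' lev A c Λ τ' f' b' vm' w' := by
  -- the unpopular pieces are negligible
  have hneg : ∀ v : ℚ, 0 ≤ v → v ≤ 1 → ∀ ε : ℝ, 0 < ε → Negl B I fun n x =>
      (((I n).filter fun y => kc (lev n v) (f' n v) y = kc (lev n v) (f' n v) x).card : ℝ) <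
        B.d n ^ ε * (N n v)⁻¹ *
          (((I n).filter fun y => kc (lev n v) (f n v) y = kc (lev n v) (f n v) x).card : ℝ) := by
    intro v h0 h1 ε hε
    refine ⟨ε / 2, by positivity, ?_⟩
    filter_upwards [hcnt v h0 h1 (ε / 2) (by positivity), hN v h0 h1] with n hn hNp
    have hN' : ∀ x ∈ I n, ((((I n).filter fun y => kc (lev n v) (f n v) y =
        kc (lev n v) (f n v) x).image (kc (lev n v) (f' n v))).card : ℝ) ≤
          B.d n ^ (-(ε / 2)) * N n v := by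
      intro x hx
      refine le_trans ?_ (hn (zc (lev n v) x.2) x.1 (mem_alive.2 ⟨x, hx, rfl, rfl⟩))
      have hsub : ((I n).filter fun y => kc (lev n v) (f n v) y = kc (lev n v) (f n v) x).image
          (kc (lev n v) (f' n v)) ⊆
          (((alive (I n) (lev n v) (zc (lev n v) x.2)).filter fun s =>
            f n v s (zc (lev n v) x.2) = f n v x.1 (zc (lev n v) x.2)).image
              fun s => f' n v s (zc (lev n v) x.2)).image fun a => (a, zc (lev n v) x.2) := by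
        intro o ho
        obtain ⟨y, hy, rfl⟩ := mem_image.1 ho
        rw [mem_filter] at hy
        obtain ⟨hy1, hy2⟩ := hy
        simp only [kc, Prod.mk.injEq] at hy2
        obtain ⟨hy3, hy4⟩ := hy2
        refine mem_image.2 ⟨f' n v y.1 (zc (lev n v) x.2), mem_image.2 ⟨y.1, mem_filter.2
          ⟨mem_alive.2 ⟨y, hy1, rfl, hy4⟩, by rw [← hy3, hy4]⟩, rfl⟩, ?_⟩
        simp only [kc, hy4]
      have h5 := (card_le_card hsub).trans card_image_le
      exact_mod_cast h5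
    have h3 := bad_le (I n) (kc (lev n v) (f n v)) (kc (lev n v) (f' n v))
      (θ := B.d n ^ ε * (N n v)⁻¹)
      (N := B.d n ^ (-(ε / 2)) * N n v) (mul_nonneg (dpow_pos B n ε).le (inv_pos.2 hNp).le)
      (fun x hx => by convert hN' x hx)
    have e1 : B.d n ^ (-(ε / 2)) * N n v * (B.d n ^ ε * (N n v)⁻¹) = B.d n ^ (ε / 2) := by
      have : B.d n ^ (-(ε / 2)) * N n v * (B.d n ^ ε * (N n v)⁻¹) =
          B.d n ^ (-(ε / 2)) * B.d n ^ ε * (N n v * (N n v)⁻¹) := by ring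
      rw [this, mul_inv_cancel₀ hNp.ne', mul_one, ← dpow_add]; congr 1; ring
    rw [e1] at h3
    convert h3
  -- avoid them for all levels and all `ε`
  obtain ⟨en, hen⟩ := exists_surjective_nat (ℚ × ℕ)
  have hNg : ∀ k, Negl B I fun n x => (0 ≤ (en k).1 ∧ (en k).1 ≤ 1) ∧
      (((I n).filter fun y => kc (lev n (en k).1) (f' n (en k).1) y =
          kc (lev n (en k).1) (f' n (en k).1) x).card : ℝ) <
        B.d n ^ (1 / (((en k).2 : ℝ) + 1)) * (N n (en k).1)⁻¹ *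
          (((I n).filter fun y => kc (lev n (en k).1) (f n (en k).1) y =
            kc (lev n (en k).1) (f n (en k).1) x).card : ℝ) := by
    intro k
    by_cases hk : 0 ≤ (en k).1 ∧ (en k).1 ≤ 1
    · exact Crest.Agent.R138.Mk163.Negl.mono
        (hneg (en k).1 hk.1 hk.2 (1 / (((en k).2 : ℝ) + 1)) (by positivity))
        (Eventually.of_forall fun n x _ hx => hx.2)
    · exact Crest.Agent.R138.Mk163.Negl.mono Crest.Agent.R138.Mk163.Negl.false
        (Eventually.of_forall fun n x _ hx => hk hx.1)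
  obtain ⟨J0, hJ0I, hJ0d, hJ0⟩ := exists_avoid (B := B) (I := I) _ hNg
  have hpop : ∀ v : ℚ, 0 ≤ v → v ≤ 1 → ∀ ε : ℝ, 0 < ε → ∀ᶠ n in (U : Filter ℕ), ∀ x ∈ J0 n,
      B.d n ^ ε * (N n v)⁻¹ *
          (((I n).filter fun y => kc (lev n v) (f n v) y = kc (lev n v) (f n v) x).card : ℝ) ≤
        (((I n).filter fun y => kc (lev n v) (f' n v) y = kc (lev n v) (f' n v) x).card : ℝ) := by
    intro v h0 h1 ε hε
    obtain ⟨K, hK⟩ := exists_nat_one_div_lt hε
    obtain ⟨k, hk⟩ := hen (v, K)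
    have h2 := hJ0 k
    rw [hk] at h2
    filter_upwards [h2, hN v h0 h1] with n a1 hNp x hx
    have a3 := a1 x hx
    have a4 := not_lt.1 fun hc => a3 ⟨⟨h0, h1⟩, hc⟩
    refine le_trans ?_ a4
    exact mul_le_mul_of_nonneg_right (mul_le_mul_of_nonneg_right (dpow_le B n hK.le)
      (inv_pos.2 hNp).le) (Nat.cast_nonneg _)
  -- prune
  obtain ⟨J', hsub, hhalf, hfib⟩ := prune_seq (η := fun _ _ => ℕ × ℤ) hJ0d (fun j n x =>
    if j % 2 = 0 then hh lev f (j / 2) n x else hh lev f' (j / 2) n x)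
  have hJ'J : Dense B J' J0 := dense_of_half (by
    filter_upwards [hhalf] with n hn using ⟨(hsub n).1, hn⟩)
  have hJ'I : Dense B J' I := hJ'J.trans hJ0d
  have hf1 : ∀ j : ℕ, ∀ ε : ℝ, 0 < ε → ∀ᶠ n in (U : Filter ℕ), ∀ x ∈ J' n,
      B.d n ^ ε * (((I n).filter fun y => hh lev f j n y = hh lev f j n x).card : ℝ) ≤
        (((J' n).filter fun y => hh lev f j n y = hh lev f j n x).card : ℝ) := by
    intro j ε hε
    have := hfib (2 * j) ε hε
    have h1 : (2 * j) / 2 = j := by omega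
    have h2 : (2 * j) % 2 = 0 := by omega
    simp only [h1, h2, if_true] at this
    exact this
  have hf2 : ∀ j : ℕ, ∀ ε : ℝ, 0 < ε → ∀ᶠ n in (U : Filter ℕ), ∀ x ∈ J' n,
      B.d n ^ ε * (((I n).filter fun y => hh lev f' j n y = hh lev f' j n x).card : ℝ) ≤
        (((J' n).filter fun y => hh lev f' j n y = hh lev f' j n x).card : ℝ) := by
    intro j ε hε
    have := hfib (2 * j + 1) ε hε
    have h1 : (2 * j + 1) / 2 = j := by omega
    have h2 : ¬ (2 * j + 1) % 2 = 0 := by omega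
    simp only [h1, h2, if_false] at this
    exact this
  have fl : ∀ v : ℚ, ∀ ε : ℝ, 0 < ε → ∀ᶠ n in (U : Filter ℕ), ∀ x ∈ J' n,
      B.d n ^ ε * (((I n).filter fun y => lc (lev n v) y = lc (lev n v) x).card : ℝ) ≤
        (((J' n).filter fun y => lc (lev n v) y = lc (lev n v) x).card : ℝ) := by
    intro v ε hε
    obtain ⟨j, rfl⟩ := exists_num v
    filter_upwards [hf1 (2 * j) ε hε] with n hn x hx
    have := hn x hx
    simp only [hh_even] at this
    exact this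
  have fk : ∀ v : ℚ, ∀ ε : ℝ, 0 < ε → ∀ᶠ n in (U : Filter ℕ), ∀ x ∈ J' n,
      B.d n ^ ε * (((I n).filter fun y => kc (lev n v) (f n v) y = kc (lev n v) (f n v) x).card : ℝ)
        ≤ (((J' n).filter fun y => kc (lev n v) (f n v) y = kc (lev n v) (f n v) x).card : ℝ) := by
    intro v ε hε
    obtain ⟨j, rfl⟩ := exists_num v
    filter_upwards [hf1 (2 * j + 1) ε hε] with n hn x hx
    have := hn x hx
    simp only [hh_odd] at this
    exact this
  have fk' : ∀ v : ℚ, ∀ ε : ℝ, 0 < ε → ∀ᶠ n in (U : Filter ℕ), ∀ x ∈ J' n,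
      B.d n ^ ε *
          (((I n).filter fun y => kc (lev n v) (f' n v) y = kc (lev n v) (f' n v) x).card : ℝ) ≤
        (((J' n).filter fun y => kc (lev n v) (f' n v) y = kc (lev n v) (f' n v) x).card : ℝ) := by
    intro v ε hε
    obtain ⟨j, rfl⟩ := exists_num v
    filter_upwards [hf2 (2 * j + 1) ε hε] with n hn x hx
    have := hn x hx
    simp only [hh_odd] at this
    exact this
  have hM : MkA B J' G lev A c Λ τ f b vm w := MkA.of_fib h (fun n => (hsub n).2)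
    (hJ'I.nonempty h.ne) (fun v _ _ => fl v) (fun v _ _ => fk v)
  refine ⟨J', fun n => (hsub n).2, hJ'I, ?_⟩
  exact
    { ne := hM.ne
      card := hM.card
      Apos := hM.Apos
      c0 := hM.c0
      lam0 := hM.lam0
      lam := hM.lam
      tau1 := htau1
      lev_mono := hM.lev_mono
      lev_lim := hM.lev_lim
      cell0 := hM.cell0
      one := hM.one
      own := hM.own
      dmax := by
        intro v hv0 hv1 ε hε
        filter_upwards [hdm v hv0 hv1 ε hε] with n hn J s hs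
        refine le_trans ?_ (hn J s hs)
        exact_mod_cast card_le_card (filter_subset_filter _ (alive_mono (hsub n).2 _ _))
      mark := by
        intro v h0 h1
        filter_upwards [hmark v h0 h1] with n hn J t ht
        exact hn J t (alive_mono (hsub n).2 _ _ ht)
      near := by
        intro v h0 h1 ε hε
        have h5 : 0 < ε / 6 := by positivity
        filter_upwards [hM.near v h0 h1 (ε / 6) h5, class_conv hM f v h0 h1 h5,
          class_conv hM f' v h0 h1 h5, hpop v h0 h1 (ε / 6) h5, fk' v (ε / 6) h5, hN v h0 h1,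
          hsat v h0 h1 (ε / 6) h5] with n a1 a2 a3 a4 a5 hNp asat J t ht
        obtain ⟨x, hx, hx1, hx2⟩ := mem_alive.1 ht
        subst hx1
        subst hx2
        have b1 := a1 _ x.1 ht
        have b2 := (a2 x hx).1
        have b3 := (a3 x hx).2
        have b4 := a4 x ((hsub n).1 hx)
        have b5 := a5 x hx
        have b6 : (((J' n).filter fun y => kc (lev n v) (f n v) y =
            kc (lev n v) (f n v) x).card : ℝ) ≤
            (((I n).filter fun y => kc (lev n v) (f n v) y = kc (lev n v) (f n v) x).card : ℝ) := by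
          exact_mod_cast card_le_card (filter_subset_filter _ (hsub n).2)
        set N1 : ℝ := (((alive (J' n) (lev n v) (zc (lev n v) x.2)).filter fun s =>
            f n v s (zc (lev n v) x.2) = f n v x.1 (zc (lev n v) x.2)).card : ℝ) with hN1
        set N2 : ℝ := (((alive (J' n) (lev n v) (zc (lev n v) x.2)).filter fun s =>
            f' n v s (zc (lev n v) x.2) = f' n v x.1 (zc (lev n v) x.2)).card : ℝ) with hN2
        have pe := dpow_pos B n (ε / 6)
        have hNi : 0 ≤ (N n v)⁻¹ := (inv_pos.2 hNp).le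
        have c1 : B.d n ^ (ε / 6) * (B.d n ^ (ε / 6) * (N n v)⁻¹ *
            (B.d n ^ (-(1 - (v : ℝ)) + (Λ 1 - Λ v) + ε / 6) * N1)) ≤
            B.d n ^ (-(1 - (v : ℝ)) + (Λ 1 - Λ v) - ε / 6) * N2 :=
          calc _ ≤ B.d n ^ (ε / 6) * (B.d n ^ (ε / 6) * (N n v)⁻¹ * (((I n).filter fun y =>
                kc (lev n v) (f n v) y = kc (lev n v) (f n v) x).card : ℝ)) :=
                mul_le_mul_of_nonneg_left (mul_le_mul_of_nonneg_left (b2.trans b6)
                  (mul_nonneg pe.le hNi)) pe.le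
            _ ≤ B.d n ^ (ε / 6) * (((I n).filter fun y =>
                kc (lev n v) (f' n v) y = kc (lev n v) (f' n v) x).card : ℝ) :=
                mul_le_mul_of_nonneg_left b4 pe.le
            _ ≤ _ := b5.trans b3
        have c2 : (N n v)⁻¹ * N1 ≤ B.d n ^ (-(4 * (ε / 6))) * N2 := by
          have e1 : B.d n ^ (ε / 6) * (B.d n ^ (ε / 6) * (N n v)⁻¹ *
              (B.d n ^ (-(1 - (v : ℝ)) + (Λ 1 - Λ v) + ε / 6) * N1)) =
              B.d n ^ (-(1 - (v : ℝ)) + (Λ 1 - Λ v) - ε / 6 + 4 * (ε / 6)) *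
                ((N n v)⁻¹ * N1) := by
            have : B.d n ^ (ε / 6) * (B.d n ^ (ε / 6) * (N n v)⁻¹ *
              (B.d n ^ (-(1 - (v : ℝ)) + (Λ 1 - Λ v) + ε / 6) * N1)) =
              (B.d n ^ (ε / 6) * B.d n ^ (ε / 6) *
                B.d n ^ (-(1 - (v : ℝ)) + (Λ 1 - Λ v) + ε / 6)) * ((N n v)⁻¹ * N1) := by ring
            rw [this, ← dpow_add, ← dpow_add]
            congr 2; ring
          rw [e1, dpow_add, mul_assoc] at c1
          have c3 := le_of_mul_le_mul_left c1 (dpow_pos B n _)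
          have c4 := mul_le_mul_of_nonneg_left c3 (dpow_pos B n (-(4 * (ε / 6)))).le
          rw [← mul_assoc, ← dpow_add, neg_add_cancel, Real.rpow_zero, one_mul] at c4
          exact c4
        have hA : 0 < ampA B A c n v := mul_pos (hM.Apos n) (dpow_pos B n _)
        have hvm : vm' n v ≤ (N n v)⁻¹ * (B.d n ^ (-(ε / 6)) * vm n v) := by
          rw [← div_eq_inv_mul, le_div_iff₀' hNp]
          exact asat
        calc ampA B A c n v * vm' n v
            ≤ ampA B A c n v * ((N n v)⁻¹ * (B.d n ^ (-(ε / 6)) * vm n v)) :=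
              mul_le_mul_of_nonneg_left hvm hA.le
          _ = (N n v)⁻¹ * B.d n ^ (-(ε / 6)) * (ampA B A c n v * vm n v) := by ring
          _ ≤ (N n v)⁻¹ * B.d n ^ (-(ε / 6)) * (B.d n ^ (-(ε / 6)) * N1) :=
              mul_le_mul_of_nonneg_left b1 (mul_nonneg hNi (dpow_pos B n _).le)
          _ = B.d n ^ (-(ε / 6)) * B.d n ^ (-(ε / 6)) * ((N n v)⁻¹ * N1) := by ring
          _ ≤ B.d n ^ (-(ε / 6)) * B.d n ^ (-(ε / 6)) * (B.d n ^ (-(4 * (ε / 6))) * N2) :=
              mul_le_mul_of_nonneg_left c2 (mul_pos (dpow_pos B n _) (dpow_pos B n _)).le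
          _ = B.d n ^ (-ε) * N2 := by
              rw [← mul_assoc, ← dpow_add, ← dpow_add]
              congr 2; ring
      vpos := hvpos
      wpos := hwpos
      tau := htau }

open Classical in
/-- **NARROW**, same geometry. -/
theorem MkA.narrow (h : MkA B I G lev A c Λ τ f b vm w)
    {f' : ℕ → ℚ → ℕ → ℤ → ℕ} {b' : ℕ → ℚ → ℕ → σ} {vm' : ℕ → ℚ → ℝ} {w' : κ → ℕ → ℚ → ℝ}
    {τ' : κ → ℝ → ℝ} {N : ℕ → ℚ → ℝ}
    (hN : ∀ v : ℚ, 0 ≤ v → v ≤ 1 → ∀ᶠ n in (U : Filter ℕ), 0 < N n v)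
    (hmark : ∀ v : ℚ, 0 ≤ v → v ≤ 1 → ∀ᶠ n in (U : Filter ℕ), ∀ J : ℤ,
      ∀ t ∈ alive (I n) (lev n v) J,
        G.mem n (lev n v) J (b' n v (f' n v t J)) t ∧ G.adm n (lev n v) J (b' n v (f' n v t J)) ∧
        G.val n (lev n v) J (b' n v (f' n v t J)) = vm' n v ∧
        ∀ j, G.wid j (b' n v (f' n v t J)) = w' j n v)
    (hcnt : ∀ v : ℚ, 0 ≤ v → v ≤ 1 → ∀ δ : ℝ, 0 < δ → ∀ᶠ n in (U : Filter ℕ), ∀ J : ℤ,
      ∀ t ∈ alive (I n) (lev n v) J,
        ((((alive (I n) (lev n v) J).filter fun s => f n v s J = f n v t J).image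
          fun s => f' n v s J).card : ℝ) ≤ B.d n ^ (-δ) * N n v)
    (hsat : ∀ v : ℚ, 0 ≤ v → v ≤ 1 → ∀ ε : ℝ, 0 < ε → ∀ᶠ n in (U : Filter ℕ),
      N n v * vm' n v ≤ B.d n ^ (-ε) * vm n v)
    (hvpos : ∀ v : ℚ, 0 ≤ v → v ≤ 1 → ∀ᶠ n in (U : Filter ℕ), 0 < vm' n v)
    (hwpos : ∀ j, ∀ v : ℚ, 0 ≤ v → v ≤ 1 → ∀ᶠ n in (U : Filter ℕ), 0 < w' j n v)
    (htau1 : ∀ j, τ' j 1 = 0)
    (htau : ∀ j, ∀ v : ℚ, 0 ≤ v → v ≤ 1 →
      Tendsto (fun n => Real.log ((rho (lev n v) / w' j n v) / (rho (lev n 1) / w' j n 1)) / B.L n)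
        U (𝓝 (τ' j v))) :
    ∃ J' : ℕ → Finset (ℕ × ℝ), (∀ n, J' n ⊆ I n) ∧ Dense B J' I ∧
      MkA B J' G lev A c Λ τ' f' b' vm' w' :=
  MkA.narrowG h h.dmax hN hmark hcnt hsat hvpos hwpos htau1 htau

end

end Crest.Agent.R136.Nar627
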