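import Crest.Agent.R136.PrW1_464
import Crest.Agent.R136.Dg1_262

/-!
# R136, thin branch (helper697), part 1: natural boxes and surfaces of the W-chart

* `natW w0 v t ν` : natural box of the level `v` with angular exponent `t` and thickness exponent
  `ν` (level-0 units of 464): `z : w0+v`, `c : w0+t`, `A : 2 w0+v+t`, `B : 3 w0+v+2t`,
  coefficient of a monomial of weights `(al, be)` : `.. + ν - al v - be t`, `N : 9 w0+ν`.
* `KW θ k` : slope of the wall of the slot `k` (`K = n' + be θ₁`).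
* `srfW θ w0 s` : surface of slope `s` through the record line, `srfW_X` : it is a plane
  `Dg262.X x0 (saW s) (sbW θ s)`.
-/

set_option autoImplicit false
set_option linter.unusedVariables false

open Finset

namespace Crest.Agent.R136.NatW697

open Crest.Agent.R136.Net191
open Crest.Agent.R136.NetW191
open Crest.Agent.R136.PrW464

/-- natural box: level `v`, angular exponent `t`, thickness exponent `ν` -/
def natW (w0 v t ν : ℝ) : Fin 18 → ℝ := grW (w0 + v) (w0 + t) (9 * w0 + ν)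

theorem natW_eq (w0 v t ν : ℝ) (k : Fin 18) :
    natW w0 v t ν k = wtR k * w0 + wz k * v + wc k * t + wn k * ν := by
  simp only [natW, wtR, grW]; ring

/-- the record path is natural -/
theorem pathW_nat (θ : Fin 3 → ℝ) (w0 v : ℝ) :
    pathW θ w0 v = natW w0 v (-(θ 1 * v)) ((1 - θ 0) * v) := by
  funext k
  rw [natW_eq, pathW_eq]
  simp only [wtR, btW, grW]; ring

theorem natW_legal {w0 v t ν : ℝ} (h0 : 0 ≤ w0 + v) (h1 : 0 ≤ w0 + t)
    (hν : 4 * (w0 + v) + 4 * (w0 + t) ≤ 9 * w0 + ν) : Legal monW (natW w0 v t ν) :=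
  grW_legal h0 h1 hν

theorem natW_leg {w0 v t ν R : ℝ} (h0 : 0 ≤ w0 + v) (h1 : 0 ≤ w0 + t)
    (hν : 4 * (w0 + v) + 4 * (w0 + t) ≤ 9 * w0 + ν) (hR : 9 * w0 + ν ≤ R) :
    natW w0 v t ν ∈ Leg monW R :=
  ⟨natW_legal h0 h1 hν, fun k => grW_le h0 h1 hν hR k⟩

@[simp] theorem natW_z (w0 v t ν : ℝ) : natW w0 v t ν 0 = w0 + v := by
  simp [natW, grW, wz, wc, wn]
@[simp] theorem natW_c (w0 v t ν : ℝ) : natW w0 v t ν 1 = w0 + t := by
  simp [natW, grW, wz, wc, wn]
@[simp] theorem natW_A (w0 v t ν : ℝ) : natW w0 v t ν 2 = 2 * w0 + (v + t) := by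
  simp [natW, grW, wz, wc, wn]; ring
@[simp] theorem natW_B (w0 v t ν : ℝ) : natW w0 v t ν 3 = 3 * w0 + (v + 2 * t) := by
  simp [natW, grW, wz, wc, wn]; ring
@[simp] theorem natW_R (w0 v t ν : ℝ) : natW w0 v t ν 13 = 7 * w0 + (ν - 2 * v) := by
  simp [natW, grW, wz, wc, wn]; ring
@[simp] theorem natW_fB (w0 v t ν : ℝ) : natW w0 v t ν 14 = 6 * w0 + (ν - v - 2 * t) := by
  simp [natW, grW, wz, wc, wn]; ring
@[simp] theorem natW_fA (w0 v t ν : ℝ) : natW w0 v t ν 15 = 7 * w0 + (ν - v - t) := by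
  simp [natW, grW, wz, wc, wn]; ring
@[simp] theorem natW_P (w0 v t ν : ℝ) : natW w0 v t ν 16 = 8 * w0 + (ν - v) := by
  simp [natW, grW, wz, wc, wn]; ring
@[simp] theorem natW_N (w0 v t ν : ℝ) : natW w0 v t ν 17 = 9 * w0 + ν := by
  simp [natW, grW, wz, wc, wn]

/-- density exponent of a natural box -/
theorem DW_natW (g s : ℝ) (q : Fin 3 → ℝ) (w0 v t ν : ℝ) :
    DW g s q w0 (natW w0 v t ν) = g * v + (1 - s) * (1 - v) - (ν + (v + 2 * t) + (v + t)) -
      q 0 * (ν - v) - q 1 * t - 2 * (q 2 * t) := by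
  simp only [DW, natW_z, natW_A, natW_B, natW_N]
  ring

/-! ### wall slopes -/

/-- slope of the wall of the slot `k` -/
def KW (θ : Fin 3 → ℝ) (k : Fin 18) : ℝ := btW θ k - wz k

theorem KW_eq (θ : Fin 3 → ℝ) (k : Fin 18) : KW θ k = wn k * (1 - θ 0) - wc k * θ 1 := by
  simp only [KW, btW, grW]; ring

/-- a visible slot has `KW > al`; if `KW < 2` it is the slot of `A` or `B` -/
theorem affine_of_KW {θ : Fin 3 → ℝ} {k : Fin 18} (h4 : 4 ≤ k) (hP : k ≠ 16) (hN : k ≠ 17)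
    (hb : 0 < btW θ k) (hK : KW θ k < 2) : k = 14 ∨ k = 15 := by
  have h : (-2 : ℝ) < wz k := by
    have : KW θ k + wz k = btW θ k := by simp only [KW]; ring
    linarith
  have h' : -2 < wz k := by exact_mod_cast h
  revert h' hP hN h4
  revert k
  intro k _ _
  fin_cases k <;> simp [wz]

theorem KW_fA (θ : Fin 3 → ℝ) : KW θ 15 = (1 - θ 0) + θ 1 := by
  simp [KW, btW, grW, wz, wc, wn]; ring
theorem KW_fB (θ : Fin 3 → ℝ) : KW θ 14 = (1 - θ 0) + 2 * θ 1 := by
  simp [KW, btW, grW, wz, wc, wn]; ring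

/-! ### surfaces -/

/-- thickness exponent of the surface of slope `s` through the record line -/
noncomputable def nuS (θ : Fin 3 → ℝ) (s v t : ℝ) : ℝ := s * v + (s - (1 - θ 0)) / θ 1 * t

/-- **surface of slope `s`** -/
noncomputable def srfW (θ : Fin 3 → ℝ) (w0 s v t : ℝ) : Fin 18 → ℝ := natW w0 v t (nuS θ s v t)

theorem nuS_path {θ : Fin 3 → ℝ} (h1 : 0 < θ 1) (s v : ℝ) :
    nuS θ s v (-(θ 1 * v)) = (1 - θ 0) * v := by
  have := h1.ne'
  unfold nuS
  field_simp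
  ring

/-- the record line lies in every surface -/
theorem srfW_path {θ : Fin 3 → ℝ} (h1 : 0 < θ 1) (w0 s v : ℝ) :
    srfW θ w0 s v (-(θ 1 * v)) = pathW θ w0 v := by
  rw [srfW, nuS_path h1, ← pathW_nat]

/-- `v`-slopes of the surface -/
def saW (s : ℝ) (k : Fin 18) : ℝ := wz k + s * wn k
/-- `t`-slopes of the surface -/
noncomputable def sbW (θ : Fin 3 → ℝ) (s : ℝ) (k : Fin 18) : ℝ :=
  wc k + (s - (1 - θ 0)) / θ 1 * wn k
/-- base point of the surface -/
def s0W (w0 : ℝ) (k : Fin 18) : ℝ := wtR k * w0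

theorem srfW_X (θ : Fin 3 → ℝ) (w0 s v t : ℝ) :
    srfW θ w0 s v t = Dg262.X (s0W w0) (saW s) (sbW θ s) (v, t) := by
  funext k
  simp only [srfW, natW_eq, Dg262.X, s0W, saW, sbW, nuS]
  ring

/-- `t`-slope and wall slope: `(s - K) / θ₁` for the flag slots -/
theorem sbW_eq {θ : Fin 3 → ℝ} (h1 : 0 < θ 1) (s : ℝ) {k : Fin 18} (hk : 4 ≤ k) :
    sbW θ s k = (s - KW θ k) / θ 1 := by
  have h0 := h1.ne'
  have hn : (wn k : ℝ) = 1 := by
    have : wn k = 1 := by
      revert hk; fin_cases k <;> simp [wn]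
    rw [this]; norm_num
  rw [sbW, KW_eq, hn]
  field_simp
  ring

/-- on the left of the record line, above slope `≥ al_k`, the surface is coarser than the record
box with the same `t` -/
theorem srfW_le {θ : Fin 3 → ℝ} {w0 s v v' t : ℝ} (h : v' ≤ v) {k : Fin 18}
    (hk : 0 ≤ saW s k) : srfW θ w0 s v' t k ≤ srfW θ w0 s v t k := by
  have e : srfW θ w0 s v t k - srfW θ w0 s v' t k = saW s k * (v - v') := by
    simp only [srfW, natW_eq, saW, nuS]; ring
  have := mul_nonneg hk (sub_nonneg.2 h)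
  linarith

end Crest.Agent.R136.NatW697
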