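import Crest.Agent.R136.Nd8_565
import Crest.Agent.R136.Ndc2_335

/-!
# R136 / U5, non-degeneracy (214's (3.0)), Dg3: `nd_count` (helper335)

565's `strip_count` inserted in `nd_lines`; the hypothesis `hR` for the rewards
`(a s)^q0 (w1 s)^q1 (w2 s)^q2`, `0 ≤ q0`, `0 ≤ q2 ≤ q1`, is `Nd565.pow_reward`.
-/

set_option autoImplicit false
set_option linter.unusedVariables false

open Finset

namespace Crest.Agent.R136.Ndc335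

open Sh605 Nd565

variable {ι : Type}

open Classical in
/-- **count of the lines of a sheet in which a quarter of the pairs through every small cell is in a
flat strip relation** -/
theorem nd_count (A : Finset ι) (L : ι → Ln4) {e : Fin 3 → V3} {c : Ln4} {w : V3}
    {q : ℝ → V3 → ℝ} {a z0 ρ r0 : ℝ} (S : ShN e c w q a z0 ρ r0) (hr : 0 < r0) {z1 ρ1 : ℝ}
    (hρ1 : 0 < ρ1) (hρ : ρ = 128 * ρ1) (h01 : z0 ≤ z1) (h02 : z1 + ρ1 ≤ z0 + ρ)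
    (hA : ∀ t ∈ A, InSheet (L t) e c w q a z0 ρ)
    {D wmax : ℝ} {R : ℝ → ℝ → ℝ → ℝ} (hD0 : 0 ≤ D) (hD : DMaxN A L z1 ρ1 D R r0 wmax)
    (hwm : w 1 ≤ 128 * wmax) {J : ℕ} (hJ : 17 ≤ J) {K σ q2 CR : ℝ} (hK : 1 ≤ K)
    (hσ : 1 / 2 ^ J ≤ σ) (hq2 : 0 < q2) (ha : a * 2 ^ J ≤ w 0)
    (nA nB : ι → ℝ) (hn : ∀ t ∈ A, nA t ^ 2 + nB t ^ 2 = 1) (St : ι → ι → Prop)
    (hpair : ∀ B ⊆ A, ∀ z, z1 ≤ z → z ≤ z1 + ρ1 → (∀ t ∈ B, ∀ t' ∈ B,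
        |dt (e 1) ((L t').pos z - (L t).pos z)| ≤ w 1 / 2 ^ J ∧
        |dt (e 2) ((L t').pos z - (L t).pos z)| ≤ w 2 / 2 ^ J) →
      (B.card : ℝ) ^ 2 ≤ 4 * (((B ×ˢ B).filter fun p => St p.1 p.2).card : ℝ))
    (hSt : ∀ t ∈ A, ∀ t' ∈ A, St t t' →
      |nA t * (ρ * dt (e 1) ((L t').v - (L t).v) / w 1) +
        nB t * (ρ * dt (e 2) ((L t').v - (L t).v) / w 2)| ≤ σ ∧
      FlatAt q e w (L t) z0 ρ (nA t) (nB t)
        (max |ρ * dt (e 1) ((L t').v - (L t).v) / w 1| |ρ * dt (e 2) ((L t').v - (L t).v) / w 2|)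
        (K * σ * w 0))
    (hR0 : 0 ≤ R a (w 2) (w 1)) (hCR : 0 ≤ CR)
    (hR : ∀ a' w2' w1' x, a ≤ a' → a' ≤ 3 * a → 0 < w2' → w2' ≤ w1' → w1' ≤ w 1 → 0 < x →
      w2' * w1' ≤ x * (w 2 * w 1) → R a' w2' w1' ≤ CR * x ^ q2 * R a (w 2) (w 1)) :
    (A.card : ℝ) ≤ 2 ^ 54 * CR * (D * (a * w 2 * w 1 * R a (w 2) (w 1))) *
      (2880000 * K * σ) ^ (1 + q2) * (1 - (2 : ℝ) ^ (-q2))⁻¹ * 2 ^ J := by
  have hap : 0 < a := by linarith [S.r0_le]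
  have hw0 : 0 < w 0 := by linarith [S.a_le0]
  have hw2 : 0 < w 2 := by linarith [S.w0_le]
  have hw1 : 0 < w 1 := by linarith [S.w_le]
  have hρ0 : 0 ≤ ρ := by rw [hρ]; linarith
  have hM : 0 ≤ CR * (D * (a * w 2 * w 1 * R a (w 2) (w 1))) := by positivity
  have h1 := nd_lines A L (e := e) (c := c) (w := w) (z0 := z0) (ρ := ρ) (z1 := z1) (ρ1 := ρ1)
    hw1 hw2 hρ1 hρ h01 h02
    (fun t ht z g0 g1 => ⟨(hA t ht z g0 g1).1 1, (hA t ht z g0 g1).1 2⟩)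
    (J := J) hJ (K := K) (σ := σ) (q2 := q2) (a := a) (W := w 0)
    (M0 := 3 * CR * (D * (a * w 2 * w 1 * R a (w 2) (w 1)))) hK hσ hq2 hw0.le ha (by linarith)
    nA nB hn St (fun t β κ => FlatAt q e w (L t) z0 ρ (nA t) (nB t) β κ) hpair hSt
    (fun t ht β κ hβ _ hF => FlatAt.scale S.isQ hρ0 hβ hF)
    (fun t ht B hB β σ' K' hβ hβ1 hσ' hK' ha1 ha2 hF hmem =>
      strip_count A L S hr (hA t ht) hA h01 h02 hρ1 hρ.ge hD0 hD hwm hK' hσ' hβ hβ1 ha1 ha2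
        (hn t ht) hF hR0 hCR hR B hB (fun t' ht' z g0 g1 => hmem t' ht' z g0 g1))
  refine h1.trans ?_
  have hlt : (2 : ℝ) ^ (-q2) < 1 := Real.rpow_lt_one_of_one_lt_of_neg (by norm_num) (by linarith)
  have hinv : (0 : ℝ) ≤ (1 - (2 : ℝ) ^ (-q2))⁻¹ := inv_nonneg.2 (by linarith)
  have hσ0 : 0 < σ := lt_of_lt_of_le (by positivity) hσ
  have hX : 0 ≤ CR * (D * (a * w 2 * w 1 * R a (w 2) (w 1))) * ((2880000 * K * σ) ^ (1 + q2) *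
      (1 - (2 : ℝ) ^ (-q2))⁻¹ * 2 ^ J) := by positivity
  nlinarith [hX]

end Crest.Agent.R136.Ndc335
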