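import Mathlib

/-!
# R136, non-degeneracy of near-maximal sheets (helper214), part 1: pair count (finite, abstract)
-/

set_option autoImplicit false
set_option linter.unusedVariables false

open Finset

namespace Crest.Agent.R136.Nd214

/-- dyadic summation over the angle -/
theorem dyadic_sum {ι : Type*} (S : Finset ι) (ang com : ι → ℝ) {K A q : ℝ} (J : ℕ)
    (hK : 0 ≤ K) (hA : 0 ≤ A) (hq : 0 < q)
    (h0 : ∀ t ∈ S, ang t ≤ 1)
    (h1 : ∀ t ∈ S, ∀ j < J, (1 / 2 : ℝ) ^ (j + 1) < ang t → com t ≤ K * 2 ^ (j + 1))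
    (h2 : ∀ t ∈ S, com t ≤ K * 2 ^ J)
    (h3 : ∀ j ≤ J, ((S.filter fun t => ang t ≤ (1 / 2 : ℝ) ^ j).card : ℝ) ≤
      A * ((1 / 2 : ℝ) ^ j) ^ (1 + q)) :
    ∑ t ∈ S, com t ≤ 2 * K * A / (1 - 2 ^ (-q)) := by
  classical
  set s : ℕ → Finset ι := fun j => S.filter fun t => ang t ≤ (1 / 2 : ℝ) ^ j with hs
  set x : ℝ := (2 : ℝ) ^ (-q) with hx
  have hx0 : 0 < x := Real.rpow_pos_of_pos (by norm_num) _
  have hx1 : x < 1 := Real.rpow_lt_one_of_one_lt_of_neg (by norm_num) (by linarith)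
  -- one step
  have step : ∀ j < J, ∑ t ∈ s j, com t ≤ K * 2 ^ (j + 1) * (s j).card + ∑ t ∈ s (j + 1), com t := by
    intro j hj
    have hsub : s (j + 1) ⊆ s j := by
      intro t ht
      rw [hs, mem_filter] at ht ⊢
      refine ⟨ht.1, ht.2.trans ?_⟩
      exact pow_le_pow_of_le_one (by norm_num) (by norm_num) (Nat.le_succ j)
    rw [← sum_sdiff hsub]
    have h5 : ∑ t ∈ s j \ s (j + 1), com t ≤ ∑ _t ∈ s j \ s (j + 1), K * 2 ^ (j + 1) := by
      refine sum_le_sum fun t ht => ?_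
      rw [mem_sdiff, hs, mem_filter, mem_filter] at ht
      refine h1 t ht.1.1 j hj ?_
      by_contra hc
      exact ht.2 ⟨ht.1.1, not_lt.1 hc⟩
    rw [sum_const, nsmul_eq_mul] at h5
    have h6 : ((s j \ s (j + 1)).card : ℝ) ≤ (s j).card := by
      exact_mod_cast card_le_card sdiff_subset
    have h7 : (0 : ℝ) ≤ K * 2 ^ (j + 1) := by positivity
    nlinarith
  have last : ∑ t ∈ s J, com t ≤ K * 2 ^ (J + 1) * (s J).card := by
    have h5 : ∑ t ∈ s J, com t ≤ ∑ _t ∈ s J, K * 2 ^ J := by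
      refine sum_le_sum fun t ht => h2 t ?_
      rw [hs, mem_filter] at ht
      exact ht.1
    rw [sum_const, nsmul_eq_mul] at h5
    have : (0 : ℝ) ≤ K * 2 ^ J * (s J).card := by positivity
    rw [pow_succ]
    nlinarith
  have all : ∀ k ≤ J, ∑ t ∈ s (J - k), com t ≤
      ∑ i ∈ Finset.Icc (J - k) J, K * 2 ^ (i + 1) * ((s i).card : ℝ) := by
    intro k
    induction k with
    | zero =>
      intro _
      simp only [Nat.sub_zero, Finset.Icc_self, sum_singleton]
      exact last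
    | succ k ih =>
      intro hk
      have h5 := step (J - (k + 1)) (by omega)
      have h6 : J - (k + 1) + 1 = J - k := by omega
      rw [h6] at h5
      have h7 := ih (by omega)
      have h8 : Finset.Icc (J - (k + 1)) J = insert (J - (k + 1)) (Finset.Icc (J - k) J) := by
        ext i; simp only [Finset.mem_Icc, Finset.mem_insert]; omega
      rw [h8, sum_insert (by simp only [Finset.mem_Icc]; omega), h6]
      linarith
  have h5 := all J le_rfl
  rw [Nat.sub_self] at h5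
  have h6 : s 0 = S := by
    rw [hs]; refine filter_true_of_mem fun t ht => ?_
    rw [pow_zero]; exact h0 t ht
  rw [h6] at h5
  refine h5.trans ?_
  have h7 : ∀ i ∈ Finset.Icc 0 J, K * 2 ^ (i + 1) * ((s i).card : ℝ) ≤ 2 * K * A * x ^ i := by
    intro i hi
    rw [Finset.mem_Icc] at hi
    have h8 := h3 i hi.2
    have e : ((1 / 2 : ℝ) ^ i) ^ (1 + q) = (1 / 2) ^ i * x ^ i := by
      rw [Real.rpow_add (by positivity), Real.rpow_one]
      congr 1
      rw [hx, ← Real.rpow_natCast, ← Real.rpow_natCast, ← Real.rpow_mul (by norm_num),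
        ← Real.rpow_mul (by norm_num), one_div, Real.inv_rpow (by norm_num),
        ← Real.rpow_neg (by norm_num)]
      congr 1; ring
    rw [e] at h8
    calc K * 2 ^ (i + 1) * ((s i).card : ℝ) ≤ K * 2 ^ (i + 1) * (A * ((1 / 2) ^ i * x ^ i)) :=
          mul_le_mul_of_nonneg_left h8 (by positivity)
      _ = 2 * K * A * x ^ i * (2 ^ i * (1 / 2) ^ i) := by ring
      _ = _ := by rw [← mul_pow]; norm_num
  refine (sum_le_sum h7).trans ?_
  rw [← mul_sum]
  have h8 : Finset.Icc 0 J = Finset.range (J + 1) := by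
    ext i; simp only [Finset.mem_Icc, Finset.mem_range]; omega
  rw [h8]
  have h9 : ∑ i ∈ Finset.range (J + 1), x ^ i ≤ 1 / (1 - x) := by
    rw [geom_sum_eq hx1.ne, ← neg_sub 1 x, ← neg_sub 1 (x ^ (J + 1)), neg_div_neg_eq]
    have : 0 ≤ x ^ (J + 1) := by positivity
    have h10 : 0 < 1 - x := by linarith
    exact div_le_div_of_nonneg_right (by linarith) h10.le
  calc 2 * K * A * ∑ i ∈ Finset.range (J + 1), x ^ i
      ≤ 2 * K * A * (1 / (1 - x)) := mul_le_mul_of_nonneg_left h9 (by positivity)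
    _ = _ := by ring

open Classical in
/-- **pair count** : `bx t` = cells visited by the line `t`.  If in every cell a quarter of the pairs
is related by `P`, and the `P`-neighbours of every line share at most `V` cells with it (total), then
`c ^ 2 #lines ≤ 4 #cells V`. -/
theorem pair_count {ι β : Type*} (T : Finset ι) (bx : ι → Finset β) (X : Finset β)
    (P : ι → ι → Prop) {c V : ℝ} (hne : T.Nonempty) (hc : 0 ≤ c)
    (hX : ∀ t ∈ T, bx t ⊆ X) (hown : ∀ t ∈ T, c ≤ ((bx t).card : ℝ))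
    (hP : ∀ x ∈ X, ((T.filter fun t => x ∈ bx t).card : ℝ) ^ 2 ≤
      4 * (((T ×ˢ T).filter fun p => (x ∈ bx p.1 ∧ x ∈ bx p.2) ∧ P p.1 p.2).card : ℝ))
    (hV : ∀ t ∈ T, ∑ t' ∈ T.filter (fun t' => P t t'), ((bx t ∩ bx t').card : ℝ) ≤ V) :
    c ^ 2 * (T.card : ℝ) ≤ 4 * (X.card : ℝ) * V := by
  have hTpos : (0 : ℝ) < T.card := by exact_mod_cast card_pos.2 hne
  set N : β → ℝ := fun x => ((T.filter fun t => x ∈ bx t).card : ℝ) with hN
  have e1 : ∑ x ∈ X, N x = ∑ t ∈ T, ((bx t).card : ℝ) := by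
    have : ∑ x ∈ X, (T.filter fun t => x ∈ bx t).card = ∑ t ∈ T, (X.filter fun x => x ∈ bx t).card :=
      sum_card_bipartiteAbove_eq_sum_card_bipartiteBelow (fun x t => x ∈ bx t)
    have h2 : ∀ t ∈ T, X.filter (fun x => x ∈ bx t) = bx t := by
      intro t ht
      ext x
      rw [mem_filter]
      exact ⟨fun h => h.2, fun h => ⟨hX t ht h, h⟩⟩
    simp only [hN]
    rw [← Nat.cast_sum, this, ← Nat.cast_sum]
    congr 1
    exact sum_congr rfl fun t ht => by rw [h2 t ht]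
  have e2 : c * T.card ≤ ∑ x ∈ X, N x := by
    rw [e1]
    calc c * (T.card : ℝ) = ∑ _t ∈ T, c := by rw [sum_const, nsmul_eq_mul]; ring
      _ ≤ _ := sum_le_sum hown
  have e3 : (∑ x ∈ X, N x) ^ 2 ≤ X.card * ∑ x ∈ X, N x ^ 2 := by
    have := sq_sum_le_card_mul_sum_sq (s := X) (f := N)
    exact this
  have e4 : ∑ x ∈ X, N x ^ 2 ≤
      4 * ∑ x ∈ X, (((T ×ˢ T).filter fun p => (x ∈ bx p.1 ∧ x ∈ bx p.2) ∧ P p.1 p.2).card : ℝ) := by
    rw [mul_sum]; exact sum_le_sum hP
  have e5 : ∑ x ∈ X, (((T ×ˢ T).filter fun p => (x ∈ bx p.1 ∧ x ∈ bx p.2) ∧ P p.1 p.2).card : ℝ) ≤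
      T.card * V := by
    have h1 : ∑ x ∈ X, ((T ×ˢ T).filter fun p => (x ∈ bx p.1 ∧ x ∈ bx p.2) ∧ P p.1 p.2).card =
        ∑ p ∈ (T ×ˢ T).filter (fun p => P p.1 p.2), (X.filter fun x => x ∈ bx p.1 ∧ x ∈ bx p.2).card := by
      have := sum_card_bipartiteAbove_eq_sum_card_bipartiteBelow
        (s := X) (t := (T ×ˢ T).filter (fun p => P p.1 p.2)) (fun x p => x ∈ bx p.1 ∧ x ∈ bx p.2)
      refine Eq.trans ?_ (this.trans ?_)
      · refine sum_congr rfl fun x _ => ?_
        congr 1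
        ext p
        simp only [mem_filter, bipartiteAbove]
        tauto
      · rfl
    have h2 : ∀ p ∈ (T ×ˢ T).filter (fun p => P p.1 p.2),
        (X.filter fun x => x ∈ bx p.1 ∧ x ∈ bx p.2) = bx p.1 ∩ bx p.2 := by
      intro p hp
      rw [mem_filter, mem_product] at hp
      ext x
      rw [mem_filter, mem_inter]
      exact ⟨fun h => h.2, fun h => ⟨hX _ hp.1.1 h.1, h⟩⟩
    rw [← Nat.cast_sum, h1, sum_congr rfl fun p hp => by rw [h2 p hp], Nat.cast_sum]
    rw [sum_filter, sum_product]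
    calc ∑ t ∈ T, ∑ t' ∈ T, (if P t t' then ((bx t ∩ bx t').card : ℝ) else 0)
        = ∑ t ∈ T, ∑ t' ∈ T.filter (fun t' => P t t'), ((bx t ∩ bx t').card : ℝ) := by
          refine sum_congr rfl fun t _ => ?_
          rw [sum_filter]
      _ ≤ ∑ _t ∈ T, V := sum_le_sum hV
      _ = _ := by rw [sum_const, nsmul_eq_mul]
  have e6 : (c * T.card) ^ 2 ≤ X.card * (4 * (T.card * V)) := by
    calc (c * (T.card : ℝ)) ^ 2 ≤ (∑ x ∈ X, N x) ^ 2 := by
          apply pow_le_pow_left₀ (by positivity) e2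
      _ ≤ X.card * ∑ x ∈ X, N x ^ 2 := e3
      _ ≤ _ := by
          refine mul_le_mul_of_nonneg_left (e4.trans ?_) (by positivity)
          linarith
  have e7 : (T.card : ℝ) * (c ^ 2 * T.card) ≤ T.card * (4 * X.card * V) := by
    nlinarith
  exact le_of_mul_le_mul_left e7 hTpos

end Crest.Agent.R136.Nd214
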