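import Mathlib

/-!
# R136 / U5, non-degeneracy of near-maximal sheets (214's (3.0)): abstract pair count (helper565)

`A` = lines of a class, `X` = small boxes, `inc t x` = the line `t` meets the box `x`. Every line
meets at least `H` boxes; in every box at least a quarter of the pairs of lines is in the relation
`St` (the second line lies in a strip around a fixed plane of the first one). Two lines of dyadic
angle `2^{-k}` have at most `K 2^k` common boxes, and the strip of a line contains at most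
`S 2^{-(1+q) j}` lines of angle at most `2^{-j}`. Then `#A H² ≤ 4 K S (1 - 2^{-q})⁻¹ #X`.
-/

set_option autoImplicit false
set_option linter.unusedVariables false

open Finset

namespace Crest.Agent.R136.Nd565

/-- sum of `2^k` over a family whose dyadic tails are `≤ S 2^{-(1+q) j}` -/
theorem sum_two_pow_le {ι : Type*} (B : Finset ι) (k : ι → ℕ) {S q : ℝ} (hS : 0 ≤ S) (hq : 0 < q)
    (h : ∀ j : ℕ, ((B.filter fun t => j ≤ k t).card : ℝ) ≤ S * ((2 : ℝ) ^ (-(1 + q))) ^ j) :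
    (∑ t ∈ B, (2 : ℝ) ^ (k t)) ≤ S * (1 - (2 : ℝ) ^ (-q))⁻¹ := by
  classical
  set N := B.sup k with hN
  have hk : ∀ t ∈ B, k t ∈ range (N + 1) := fun t ht =>
    mem_range.2 (Nat.lt_succ_of_le (le_sup (f := k) ht))
  have h1 : (∑ t ∈ B, (2 : ℝ) ^ (k t)) = ∑ j ∈ range (N + 1), ∑ t ∈ B.filter (fun t => k t = j),
      (2 : ℝ) ^ (k t) := (sum_fiberwise_of_maps_to hk _).symm
  have hlt : (2 : ℝ) ^ (-q) < 1 := Real.rpow_lt_one_of_one_lt_of_neg (by norm_num) (by linarith)
  have hpos : (0 : ℝ) < (2 : ℝ) ^ (-q) := Real.rpow_pos_of_pos (by norm_num) _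
  have h2 : ∀ j ∈ range (N + 1), (∑ t ∈ B.filter (fun t => k t = j), (2 : ℝ) ^ (k t)) ≤
      S * ((2 : ℝ) ^ (-q)) ^ j := by
    intro j _
    have e1 : (∑ t ∈ B.filter (fun t => k t = j), (2 : ℝ) ^ (k t)) =
        ((B.filter fun t => k t = j).card : ℝ) * 2 ^ j := by
      rw [sum_congr rfl (g := fun _ => (2 : ℝ) ^ j), sum_const, nsmul_eq_mul]
      intro t ht
      rw [(mem_filter.1 ht).2]
    have e2 : ((B.filter fun t => k t = j).card : ℝ) ≤ S * ((2 : ℝ) ^ (-(1 + q))) ^ j := by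
      refine le_trans ?_ (h j)
      have : (B.filter fun t => k t = j) ⊆ (B.filter fun t => j ≤ k t) := by
        intro t ht
        rw [mem_filter] at ht ⊢
        exact ⟨ht.1, ht.2.ge⟩
      exact_mod_cast card_le_card this
    have e3 : ((2 : ℝ) ^ (-(1 + q))) * 2 = (2 : ℝ) ^ (-q) := by
      have : (2 : ℝ) ^ (-(1 + q)) * (2 : ℝ) ^ (1 : ℝ) = (2 : ℝ) ^ (-(1 + q) + 1) :=
        (Real.rpow_add (by norm_num) _ _).symm
      rw [Real.rpow_one] at this
      rw [this]; congr 1; ring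
    rw [e1]
    calc ((B.filter fun t => k t = j).card : ℝ) * 2 ^ j
        ≤ S * ((2 : ℝ) ^ (-(1 + q))) ^ j * 2 ^ j :=
          mul_le_mul_of_nonneg_right e2 (by positivity)
      _ = S * (((2 : ℝ) ^ (-(1 + q))) * 2) ^ j := by rw [mul_pow]; ring
      _ = S * ((2 : ℝ) ^ (-q)) ^ j := by rw [e3]
  rw [h1]
  refine (sum_le_sum h2).trans ?_
  rw [← mul_sum]
  refine mul_le_mul_of_nonneg_left ?_ hS
  have h3 := (hasSum_geometric_of_lt_one hpos.le hlt)
  exact h3.tsum_eq ▸ (h3.summable.sum_le_tsum _ (fun i _ => by positivity))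

/-- **pair count.** -/
theorem pair_count {ι β : Type*} (A : Finset ι) (X : Finset β) (inc : ι → β → Prop)
    (St : ι → ι → Prop) (k : ι → ι → ℕ) [DecidableEq ι] [∀ t x, Decidable (inc t x)]
    [∀ t t', Decidable (St t t')] {H K S q : ℝ} (hH : 0 ≤ H)
    (hK : 0 ≤ K) (hS : 0 ≤ S) (hq : 0 < q)
    (hinc : ∀ t ∈ A, H ≤ ((X.filter fun x => inc t x).card : ℝ))
    (hpair : ∀ x ∈ X, ((A.filter fun t => inc t x).card : ℝ) ^ 2 ≤
      4 * (((A ×ˢ A).filter fun p => inc p.1 x ∧ inc p.2 x ∧ St p.1 p.2).card : ℝ))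
    (hcom : ∀ t ∈ A, ∀ t' ∈ A, St t t' →
      ((X.filter fun x => inc t x ∧ inc t' x).card : ℝ) ≤ K * 2 ^ (k t t'))
    (hst : ∀ t ∈ A, ∀ j : ℕ, ((A.filter fun t' => St t t' ∧ j ≤ k t t').card : ℝ) ≤
      S * ((2 : ℝ) ^ (-(1 + q))) ^ j) :
    (A.card : ℝ) * H ^ 2 ≤ 4 * K * S * (1 - (2 : ℝ) ^ (-q))⁻¹ * (X.card : ℝ) := by
  classical
  rcases A.eq_empty_or_nonempty with rfl | hA
  · have hlt : (2 : ℝ) ^ (-q) < 1 := Real.rpow_lt_one_of_one_lt_of_neg (by norm_num) (by linarith)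
    have : (0 : ℝ) ≤ (1 - (2 : ℝ) ^ (-q))⁻¹ := inv_nonneg.2 (by linarith)
    simp only [card_empty, Nat.cast_zero, zero_mul]
    positivity
  have hApos : (0 : ℝ) < (A.card : ℝ) := by exact_mod_cast card_pos.2 hA
  -- double counting of incidences
  have h1 : (A.card : ℝ) * H ≤ ∑ x ∈ X, ((A.filter fun t => inc t x).card : ℝ) := by
    have e : (∑ x ∈ X, ((A.filter fun t => inc t x).card : ℝ)) =
        ∑ t ∈ A, ((X.filter fun x => inc t x).card : ℝ) := by
      have := Finset.sum_card_bipartiteAbove_eq_sum_card_bipartiteBelow (s := A) (t := X)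
        (fun t x => inc t x)
      simp only [bipartiteAbove, bipartiteBelow] at this
      exact_mod_cast this.symm
    rw [e]
    calc (A.card : ℝ) * H = ∑ t ∈ A, H := by rw [sum_const, nsmul_eq_mul]
      _ ≤ _ := sum_le_sum hinc
  -- Cauchy-Schwarz
  have h2 : (∑ x ∈ X, ((A.filter fun t => inc t x).card : ℝ)) ^ 2 ≤
      (X.card : ℝ) * ∑ x ∈ X, ((A.filter fun t => inc t x).card : ℝ) ^ 2 :=
    sq_sum_le_card_mul_sum_sq
  -- pairs
  have h3 : (∑ x ∈ X, ((A.filter fun t => inc t x).card : ℝ) ^ 2) ≤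
      4 * ∑ p ∈ (A ×ˢ A).filter (fun p => St p.1 p.2),
        ((X.filter fun x => inc p.1 x ∧ inc p.2 x).card : ℝ) := by
    refine (sum_le_sum hpair).trans ?_
    rw [← mul_sum]
    refine mul_le_mul_of_nonneg_left (le_of_eq ?_) (by norm_num)
    have := Finset.sum_card_bipartiteAbove_eq_sum_card_bipartiteBelow
      (s := (A ×ˢ A).filter (fun p => St p.1 p.2)) (t := X)
      (fun p x => inc p.1 x ∧ inc p.2 x)
    simp only [bipartiteAbove, bipartiteBelow] at this
    have e : ∀ x, (((A ×ˢ A).filter fun p => inc p.1 x ∧ inc p.2 x ∧ St p.1 p.2)) =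
        (((A ×ˢ A).filter (fun p => St p.1 p.2)).filter fun p => inc p.1 x ∧ inc p.2 x) := by
      intro x
      rw [filter_filter]
      refine filter_congr fun p _ => ?_
      tauto
    simp only [e]
    exact_mod_cast this.symm
  have h4 : (∑ p ∈ (A ×ˢ A).filter (fun p => St p.1 p.2),
      ((X.filter fun x => inc p.1 x ∧ inc p.2 x).card : ℝ)) ≤
      (A.card : ℝ) * (K * (S * (1 - (2 : ℝ) ^ (-q))⁻¹)) := by
    rw [sum_filter, sum_product]
    have : ∀ t ∈ A, (∑ t' ∈ A, if St t t' then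
        ((X.filter fun x => inc t x ∧ inc t' x).card : ℝ) else 0) ≤
        K * (S * (1 - (2 : ℝ) ^ (-q))⁻¹) := by
      intro t ht
      rw [← sum_filter]
      calc (∑ t' ∈ A.filter (fun t' => St t t'),
            ((X.filter fun x => inc t x ∧ inc t' x).card : ℝ))
          ≤ ∑ t' ∈ A.filter (fun t' => St t t'), K * 2 ^ (k t t') :=
            sum_le_sum fun t' ht' => hcom t ht t' (mem_filter.1 ht').1 (mem_filter.1 ht').2
        _ = K * ∑ t' ∈ A.filter (fun t' => St t t'), (2 : ℝ) ^ (k t t') := by rw [mul_sum]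
        _ ≤ K * (S * (1 - (2 : ℝ) ^ (-q))⁻¹) := by
            refine mul_le_mul_of_nonneg_left (sum_two_pow_le _ _ hS hq fun j => ?_) hK
            have := hst t ht j
            rw [filter_filter]
            exact this
    refine (sum_le_sum this).trans ?_
    rw [sum_const, nsmul_eq_mul]
  have h5 : ((A.card : ℝ) * H) ^ 2 ≤
      (X.card : ℝ) * (4 * ((A.card : ℝ) * (K * (S * (1 - (2 : ℝ) ^ (-q))⁻¹)))) := by
    calc ((A.card : ℝ) * H) ^ 2 ≤ (∑ x ∈ X, ((A.filter fun t => inc t x).card : ℝ)) ^ 2 :=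
          pow_le_pow_left₀ (by positivity) h1 2
      _ ≤ _ := h2
      _ ≤ _ := mul_le_mul_of_nonneg_left (h3.trans (mul_le_mul_of_nonneg_left h4 (by norm_num)))
          (by positivity)
  have h6 : (A.card : ℝ) * ((A.card : ℝ) * H ^ 2) ≤
      (A.card : ℝ) * (4 * K * S * (1 - (2 : ℝ) ^ (-q))⁻¹ * (X.card : ℝ)) := by
    calc (A.card : ℝ) * ((A.card : ℝ) * H ^ 2) = ((A.card : ℝ) * H) ^ 2 := by ring
      _ ≤ _ := h5
      _ = _ := by ring
  exact le_of_mul_le_mul_left h6 hApos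

end Crest.Agent.R136.Nd565
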