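import Crest.Agent.R136.UB0_683

/-!
# R136 (S0187), U5: coordinates of a sheet of class `C*` along one of its lines (helper565)

* `crd e X` = coordinates of `X` in the orthonormal frame `e`; `bl H U V` = bilinear form.
* `TD q e T p r H` = exact Taylor expansion of `q` along the line `T` (gradient `p + z r`, Hessian `H`).
* `GB w p r H z0 ρ` = the bounds of the gradient and of the Hessian which the class `ShN` gives.
-/

set_option autoImplicit false
set_option linter.unusedVariables false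

namespace Crest.Agent.R136.Nd565

open Finset Sh605 UB683

/-- coordinates in the frame `e` -/
def crd (e : Fin 3 → V3) (X : V3) : V3 := fun i => dt (e i) X

theorem crd_apply (e : Fin 3 → V3) (X : V3) (i : Fin 3) : crd e X i = dt (e i) X := rfl

theorem crd_add (e : Fin 3 → V3) (X Y : V3) : crd e (X + Y) = crd e X + crd e Y := by
  funext i; simp only [crd, Pi.add_apply, dt_add]

theorem crd_sub (e : Fin 3 → V3) (X Y : V3) : crd e (X - Y) = crd e X - crd e Y := by
  funext i; simp only [crd, Pi.sub_apply, dt_sub]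

theorem crd_smul (e : Fin 3 → V3) (X : V3) (c : ℝ) : crd e (c • X) = c • crd e X := by
  funext i; simp only [crd, Pi.smul_apply, dt_smul, smul_eq_mul]

/-- the vector with given coordinates -/
def cmb (e : Fin 3 → V3) (u : V3) : V3 := u 0 • e 0 + u 1 • e 1 + u 2 • e 2

theorem cmb_crd {e : Fin 3 → V3} (he : Ortho e) (X : V3) : cmb e (crd e X) = X := by
  funext j
  simp only [cmb, crd, Pi.add_apply, Pi.smul_apply, smul_eq_mul]
  exact (he.expand X j).symm

theorem dt_cmb (e : Fin 3 → V3) (u X : V3) : dt (cmb e u) X = dt u (crd e X) := by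
  simp only [cmb, crd, dt, Pi.add_apply, Pi.smul_apply, smul_eq_mul]; ring

theorem crd_cmb {e : Fin 3 → V3} (he : Ortho e) (u : V3) : crd e (cmb e u) = u := by
  funext i
  have h0 := he i 0
  have h1 := he i 1
  have h2 := he i 2
  have e1 : crd e (cmb e u) i = u 0 * dt (e i) (e 0) + u 1 * dt (e i) (e 1) +
      u 2 * dt (e i) (e 2) := by
    simp only [crd, cmb, dt, Pi.add_apply, Pi.smul_apply, smul_eq_mul]; ring
  rw [e1, h0, h1, h2]
  fin_cases i <;> simp

theorem cmb_add (e : Fin 3 → V3) (u v : V3) : cmb e (u + v) = cmb e u + cmb e v := by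
  simp only [cmb, Pi.add_apply, add_smul]; abel

theorem cmb_smul (e : Fin 3 → V3) (u : V3) (c : ℝ) : cmb e (c • u) = c • cmb e u := by
  simp only [cmb, Pi.smul_apply, smul_eq_mul, smul_add, smul_smul]

/-- an orthonormal matrix of coordinates gives an orthonormal frame -/
theorem ortho_cmb {e m : Fin 3 → V3} (he : Ortho e) (hm : Ortho m) :
    Ortho (fun j => cmb e (m j)) := by
  intro i j
  show dt (cmb e (m i)) (cmb e (m j)) = _
  rw [dt_cmb, crd_cmb he]
  exact hm i j

/-- bilinear form with matrix `H` -/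
def bl (H : Fin 3 → Fin 3 → ℝ) (U V : V3) : ℝ := ∑ i, ∑ j, H i j * (U i * V j)

theorem bl_add_left (H : Fin 3 → Fin 3 → ℝ) (U U' V : V3) :
    bl H (U + U') V = bl H U V + bl H U' V := by
  simp only [bl, Fin.sum_univ_three, Pi.add_apply]; ring

theorem bl_smul_left (H : Fin 3 → Fin 3 → ℝ) (U V : V3) (c : ℝ) :
    bl H (c • U) V = c * bl H U V := by
  simp only [bl, Fin.sum_univ_three, Pi.smul_apply, smul_eq_mul]; ring

theorem bl_add_right (H : Fin 3 → Fin 3 → ℝ) (U V V' : V3) :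
    bl H U (V + V') = bl H U V + bl H U V' := by
  simp only [bl, Fin.sum_univ_three, Pi.add_apply]; ring

theorem bl_smul_right (H : Fin 3 → Fin 3 → ℝ) (U V : V3) (c : ℝ) :
    bl H U (c • V) = c * bl H U V := by
  simp only [bl, Fin.sum_univ_three, Pi.smul_apply, smul_eq_mul]; ring

theorem bl_symm {H : Fin 3 → Fin 3 → ℝ} (hH : ∀ i j, H i j = H j i) (U V : V3) :
    bl H U V = bl H V U := by
  simp only [bl, Fin.sum_univ_three]
  rw [hH 1 0, hH 2 0, hH 2 1]; ring

/-- the gradient at height `z` -/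
def gr (p r : V3) (z : ℝ) : V3 := fun i => p i + z * r i

/-- exact Taylor expansion of `q` along the line `T`, in the frame `e` -/
structure TD (q : ℝ → V3 → ℝ) (e : Fin 3 → V3) (T : Ln4) (p r : V3)
    (H : Fin 3 → Fin 3 → ℝ) : Prop where
  symm : ∀ i j, H i j = H j i
  exp : ∀ z, ∀ U : V3, q z (T.pos z + cmb e U) = q z (T.pos z) + dt (gr p r z) U + bl H U U

theorem exists_TD {q : ℝ → V3 → ℝ} (hq : IsQ q) (e : Fin 3 → V3) (T : Ln4) :
    ∃ p r H, TD q e T p r H := by
  obtain ⟨p, r, H, hs, hH⟩ := exists_gradAt hq e T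
  refine ⟨p, r, H, hs, ?_⟩
  intro z U
  have h := hH z U
  simp only [cmb, bl, dt, gr]
  rw [h]
  simp only [Fin.sum_univ_three]

theorem TD.val {q : ℝ → V3 → ℝ} {e : Fin 3 → V3} {T : Ln4} {p r : V3} {H : Fin 3 → Fin 3 → ℝ}
    (h : TD q e T p r H) (he : Ortho e) (z : ℝ) (x : V3) :
    q z x = q z (T.pos z) + dt (gr p r z) (crd e (x - T.pos z)) +
      bl H (crd e (x - T.pos z)) (crd e (x - T.pos z)) := by
  have h1 := h.exp z (crd e (x - T.pos z))
  rw [cmb_crd he] at h1
  rw [← h1]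
  congr 1
  abel

/-- difference quotient in the direction `cmb e m` -/
theorem TD.quot {q : ℝ → V3 → ℝ} {e : Fin 3 → V3} {T : Ln4} {p r : V3} {H : Fin 3 → Fin 3 → ℝ}
    (h : TD q e T p r H) (he : Ortho e) (z : ℝ) (x m : V3) (τ : ℝ) :
    q z (x + τ • cmb e m) - q z x = τ * (dt (gr p r z) m +
      bl H (crd e (x - T.pos z) + crd e (x + τ • cmb e m - T.pos z)) m) := by
  rw [h.val he z x, h.val he z (x + τ • cmb e m)]
  have e1 : crd e (x + τ • cmb e m - T.pos z) = crd e (x - T.pos z) + τ • m := by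
    have : x + τ • cmb e m - T.pos z = (x - T.pos z) + τ • cmb e m := by abel
    rw [this, crd_add, crd_smul, crd_cmb he]
  rw [e1]
  set U := crd e (x - T.pos z) with hU
  simp only [dt_add, dt_smul, bl_add_left, bl_add_right, bl_smul_left, bl_smul_right]
  rw [bl_symm h.symm m U]
  ring

/-! ### bounds -/

theorem lim_le {G h M τ0 : ℝ} (hτ0 : 0 < τ0) (H : ∀ τ, 0 < τ → τ ≤ τ0 → G + τ * h ≤ M) :
    G ≤ M := by
  by_contra hc
  push Not at hc
  have hd : 0 < 2 * (|h| + 1) := by positivity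
  set τ := min τ0 ((G - M) / (2 * (|h| + 1))) with hτ
  have h1 : 0 < τ := lt_min hτ0 (div_pos (by linarith) hd)
  have h2 := H τ h1 (min_le_left _ _)
  have h3 : τ ≤ (G - M) / (2 * (|h| + 1)) := min_le_right _ _
  rw [le_div_iff₀ hd] at h3
  have h4 : -(τ * |h|) ≤ τ * h := by
    have := neg_abs_le h
    nlinarith
  nlinarith [abs_nonneg h]

theorem le_lim {G h M τ0 : ℝ} (hτ0 : 0 < τ0) (H : ∀ τ, 0 < τ → τ ≤ τ0 → M ≤ G + τ * h) :
    M ≤ G := by
  have := lim_le (G := -G) (h := -h) (M := -M) hτ0 (fun τ h1 h2 => by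
    have := H τ h1 h2
    linarith)
  linarith

/-- bounds of the gradient and of the Hessian along a line of a sheet of the class `ShN` -/
structure GB (w p r : V3) (H : Fin 3 → Fin 3 → ℝ) (z0 ρ : ℝ) : Prop where
  g0 : ∀ z, z0 ≤ z → z ≤ z0 + ρ → 1 / 2 ≤ gr p r z 0 ∧ gr p r z 0 ≤ 2
  g1 : ∀ z, z0 ≤ z → z ≤ z0 + ρ → |gr p r z 1| ≤ w 0 / w 1
  g2 : ∀ z, z0 ≤ z → z ≤ z0 + ρ → |gr p r z 2| ≤ w 0 / w 2
  hH : ∀ i j, |H i j| * (w i * w j) ≤ w 0

/-- gradient at a displaced point, direction `e i` -/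
theorem grad_disp {e : Fin 3 → V3} {c : Ln4} {w : V3} {q : ℝ → V3 → ℝ} {a z0 ρ : ℝ} {T : Ln4}
    (he : Ortho e) (hT : InSheet T e c w q a z0 ρ) (hw : ∀ i, 0 < w i) {z : ℝ} (h0 : z0 ≤ z)
    (h1 : z ≤ z0 + ρ) {U : V3} (hU : ∀ i, |U i| ≤ w i / 2) (i : Fin 3) {τ : ℝ} (hτ : 0 < τ)
    (hτw : τ ≤ w i / 2) : InK e c (dbl3 w) z (T.pos z + cmb e U) ∧
      InK e c (dbl3 w) z (T.pos z + cmb e U + τ • e i) := by
  have hb := (hT z h0 h1).1
  constructor
  · intro j
    have e1 : T.pos z + cmb e U - c.pos z = (T.pos z - c.pos z) + cmb e U := by abel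
    have e2 : dt (e j) (cmb e U) = U j := congrFun (crd_cmb he U) j
    rw [e1, dt_add, e2]
    refine (abs_add_le _ _).trans ?_
    have := hb j
    have := hU j
    have := hw j
    simp only [dbl3]
    linarith
  · intro j
    have e1 : T.pos z + cmb e U + τ • e i - c.pos z = ((T.pos z - c.pos z) + cmb e U) + τ • e i := by
      abel
    have e2 : dt (e j) (cmb e U) = U j := congrFun (crd_cmb he U) j
    rw [e1, dt_add, dt_add, e2, dt_smul, he j i]
    refine (abs_add_le _ _).trans ?_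
    have h3 : |τ * (if j = i then 1 else 0)| ≤ w j / 2 := by
      split_ifs with h
      · rw [mul_one, abs_of_pos hτ, h]; exact hτw
      · rw [mul_zero, abs_zero]; have := hw j; linarith
    have h4 := abs_add_le (dt (e j) (T.pos z - c.pos z)) (U j)
    have := hb j
    have := hU j
    simp only [dbl3]
    linarith

/-- standard basis vector -/
def bas (i : Fin 3) : V3 := fun j => if j = i then 1 else 0

theorem cmb_bas (e : Fin 3 → V3) (i : Fin 3) : cmb e (bas i) = e i := by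
  funext j
  simp only [cmb, bas, Pi.add_apply, Pi.smul_apply, smul_eq_mul]
  fin_cases i <;> simp

theorem dt_bas (x : V3) (i : Fin 3) : dt x (bas i) = x i := by
  simp only [dt, bas]
  fin_cases i <;> simp

theorem bl_bas (H : Fin 3 → Fin 3 → ℝ) (U : V3) (i : Fin 3) :
    bl H U (bas i) = ∑ j, H j i * U j := by
  simp only [bl, bas, Fin.sum_univ_three]
  fin_cases i <;> simp

/-- **gradient and Hessian bounds** of the class `C*` along one of its lines -/
theorem gb_of {e : Fin 3 → V3} {c : Ln4} {w : V3} {q : ℝ → V3 → ℝ} {a z0 ρ r0 : ℝ} {T : Ln4}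
    (S : ShN e c w q a z0 ρ r0) (hr : 0 < r0) (hρ : 0 ≤ ρ) (hT : InSheet T e c w q a z0 ρ)
    {p r : V3} {H : Fin 3 → Fin 3 → ℝ} (hG : TD q e T p r H) : GB w p r H z0 ρ := by
  have he := S.ortho
  have hw0 : 0 < w 0 := by linarith [S.a_le0, S.r0_le]
  have hw2 : 0 < w 2 := by linarith [S.w0_le]
  have hw1 : 0 < w 1 := by linarith [S.w_le]
  have hw : ∀ i, 0 < w i := by intro i; fin_cases i <;> assumption
  -- the difference quotients
  have key : ∀ z, z0 ≤ z → z ≤ z0 + ρ → ∀ U : V3, (∀ i, |U i| ≤ w i / 2) → ∀ i τ, 0 < τ →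
      τ ≤ w i / 2 → q z (T.pos z + cmb e U + τ • e i) - q z (T.pos z + cmb e U) =
        τ * ((gr p r z i + 2 * ∑ j, H j i * U j) + τ * H i i) := by
    intro z h0 h1 U hU i τ hτ hτw
    have h2 := hG.quot he z (T.pos z + cmb e U) (bas i) τ
    rw [cmb_bas] at h2
    rw [h2]
    have e1 : T.pos z + cmb e U - T.pos z = cmb e U := by abel
    have e2 : T.pos z + cmb e U + τ • e i - T.pos z = cmb e U + τ • e i := by abel
    rw [e1, e2, crd_add, crd_smul, crd_cmb he, dt_bas, bl_add_left, bl_add_left, bl_smul_left]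
    have e3 : crd e (e i) = bas i := by
      rw [← cmb_bas e i, crd_cmb he]
    rw [e3, bl_bas, bl_bas]
    have e4 : ∑ j, H j i * bas i j = H i i := by
      simp only [bas, Fin.sum_univ_three]
      fin_cases i <;> simp
    rw [e4]; ring
  have k0 : ∀ z, z0 ≤ z → z ≤ z0 + ρ → ∀ U : V3, (∀ i, |U i| ≤ w i / 2) →
      1 / 2 ≤ gr p r z 0 + 2 * ∑ j, H j 0 * U j ∧ gr p r z 0 + 2 * ∑ j, H j 0 * U j ≤ 2 := by
    intro z h0 h1 U hU
    constructor
    · refine le_lim (τ0 := w 0 / 2) (h := H 0 0) (by linarith) fun τ hτ hτw => ?_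
      have h2 := grad_disp he hT hw h0 h1 hU 0 hτ hτw
      have h3 := (S.st0 z h0 h1 _ τ hτ.le h2.1 h2.2).1
      rw [key z h0 h1 U hU 0 τ hτ hτw] at h3
      have h4 : τ * (1 / 2) ≤ τ * ((gr p r z 0 + 2 * ∑ j, H j 0 * U j) + τ * H 0 0) := by
        linarith
      exact le_of_mul_le_mul_left h4 hτ
    · refine lim_le (τ0 := w 0 / 2) (h := H 0 0) (by linarith) fun τ hτ hτw => ?_
      have h2 := grad_disp he hT hw h0 h1 hU 0 hτ hτw
      have h3 := (S.st0 z h0 h1 _ τ hτ.le h2.1 h2.2).2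
      rw [key z h0 h1 U hU 0 τ hτ hτw] at h3
      have h4 : τ * ((gr p r z 0 + 2 * ∑ j, H j 0 * U j) + τ * H 0 0) ≤ τ * 2 := by
        linarith
      exact le_of_mul_le_mul_left h4 hτ
  have kk : ∀ (i : Fin 3) (M : ℝ), (∀ z, z0 ≤ z → z ≤ z0 + ρ → ∀ (x : V3) (τ : ℝ), 0 ≤ τ →
      InK e c (dbl3 w) z x → InK e c (dbl3 w) z (x + τ • e i) →
        |q z (x + τ • e i) - q z x| ≤ M * τ) → ∀ z, z0 ≤ z → z ≤ z0 + ρ → ∀ U : V3,
      (∀ i, |U i| ≤ w i / 2) → |gr p r z i + 2 * ∑ j, H j i * U j| ≤ M := by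
    intro i M hM z h0 h1 U hU
    have hwi := hw i
    rw [abs_le]
    constructor
    · refine le_lim (τ0 := w i / 2) (h := H i i) (by linarith) fun τ hτ hτw => ?_
      have h2 := grad_disp he hT hw h0 h1 hU i hτ hτw
      have h3 := (abs_le.1 (hM z h0 h1 _ τ hτ.le h2.1 h2.2)).1
      rw [key z h0 h1 U hU i τ hτ hτw] at h3
      have h4 : τ * (-M) ≤ τ * ((gr p r z i + 2 * ∑ j, H j i * U j) + τ * H i i) := by
        linarith
      exact le_of_mul_le_mul_left h4 hτ
    · refine lim_le (τ0 := w i / 2) (h := H i i) (by linarith) fun τ hτ hτw => ?_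
      have h2 := grad_disp he hT hw h0 h1 hU i hτ hτw
      have h3 := (abs_le.1 (hM z h0 h1 _ τ hτ.le h2.1 h2.2)).2
      rw [key z h0 h1 U hU i τ hτ hτw] at h3
      have h4 : τ * ((gr p r z i + 2 * ∑ j, H j i * U j) + τ * H i i) ≤ τ * M := by
        linarith
      exact le_of_mul_le_mul_left h4 hτ
  have k1 := kk 1 (w 0 / w 1) S.sl1
  have k2 := kk 2 (w 0 / w 2) S.sl2
  have z00 : z0 ≤ z0 + ρ := by linarith
  have hU0 : ∀ i, |(0 : V3) i| ≤ w i / 2 := fun i => by
    rw [Pi.zero_apply, abs_zero]; have := hw i; linarith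
  have s0 : ∀ i, ∑ j, H j i * (0 : V3) j = 0 := fun i => by simp
  -- Hessian
  set Uv : Fin 3 → ℝ → V3 := fun j s i => (s * (w j / 2)) * bas j i with hUv
  have hUj : ∀ (j : Fin 3) (s : ℝ), |s| = 1 → ∀ i, |Uv j s i| ≤ w i / 2 := by
    intro j s hs i
    have := hw i
    simp only [hUv, bas]
    split_ifs with h
    · rw [mul_one, abs_mul, hs, one_mul, h, abs_of_pos (by have := hw j; linarith)]
    · rw [mul_zero, abs_zero]; linarith
  have sj : ∀ (i j : Fin 3) (s : ℝ), 2 * ∑ k, H k i * Uv j s k = s * (H j i * w j) := by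
    intro i j s
    simp only [hUv, bas, Fin.sum_univ_three]
    fin_cases j <;> simp <;> ring
  have hH0 : ∀ j, |H j 0| * w j ≤ 1 := by
    intro j
    have h1 := k0 z0 le_rfl z00 (Uv j 1) (hUj j 1 (by norm_num))
    have h2 := k0 z0 le_rfl z00 (Uv j (-1)) (hUj j (-1) (by norm_num))
    rw [sj] at h1 h2
    have : |H j 0 * w j| ≤ 1 := by
      rw [abs_le]; constructor <;> linarith [h1.1, h1.2, h2.1, h2.2]
    rwa [abs_mul, abs_of_pos (hw j)] at this
  have hH1 : ∀ j, |H j 1| * w j ≤ w 0 / w 1 := by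
    intro j
    have h1 := k1 z0 le_rfl z00 (Uv j 1) (hUj j 1 (by norm_num))
    have h2 := k1 z0 le_rfl z00 (Uv j (-1)) (hUj j (-1) (by norm_num))
    rw [sj] at h1 h2
    rw [abs_le] at h1 h2
    have : |H j 1 * w j| ≤ w 0 / w 1 := by
      rw [abs_le]; constructor <;> linarith [h1.1, h1.2, h2.1, h2.2]
    rwa [abs_mul, abs_of_pos (hw j)] at this
  have hH2 : ∀ j, |H j 2| * w j ≤ w 0 / w 2 := by
    intro j
    have h1 := k2 z0 le_rfl z00 (Uv j 1) (hUj j 1 (by norm_num))
    have h2 := k2 z0 le_rfl z00 (Uv j (-1)) (hUj j (-1) (by norm_num))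
    rw [sj] at h1 h2
    rw [abs_le] at h1 h2
    have : |H j 2 * w j| ≤ w 0 / w 2 := by
      rw [abs_le]; constructor <;> linarith [h1.1, h1.2, h2.1, h2.2]
    rwa [abs_mul, abs_of_pos (hw j)] at this
  refine ⟨?_, ?_, ?_, ?_⟩
  · intro z h0 h1
    have := k0 z h0 h1 0 hU0
    rw [s0, mul_zero, add_zero] at this
    exact this
  · intro z h0 h1
    have := k1 z h0 h1 0 hU0
    rw [s0, mul_zero, add_zero] at this
    exact this
  · intro z h0 h1
    have := k2 z h0 h1 0 hU0
    rw [s0, mul_zero, add_zero] at this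
    exact this
  · have hj : ∀ j, |H j 0| * (w j * w 0) ≤ w 0 := by
      intro j
      have := hH0 j
      have h3 : |H j 0| * w j * w 0 ≤ 1 * w 0 := mul_le_mul_of_nonneg_right this hw0.le
      linarith
    have hj1 : ∀ j, |H j 1| * (w j * w 1) ≤ w 0 := by
      intro j
      have := hH1 j
      have h3 : |H j 1| * w j * w 1 ≤ w 0 / w 1 * w 1 := mul_le_mul_of_nonneg_right this hw1.le
      rw [div_mul_cancel₀ _ hw1.ne'] at h3
      linarith
    have hj2 : ∀ j, |H j 2| * (w j * w 2) ≤ w 0 := by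
      intro j
      have := hH2 j
      have h3 : |H j 2| * w j * w 2 ≤ w 0 / w 2 * w 2 := mul_le_mul_of_nonneg_right this hw2.le
      rw [div_mul_cancel₀ _ hw2.ne'] at h3
      linarith
    intro i j
    fin_cases j
    · exact hj i
    · exact hj1 i
    · exact hj2 i

end Crest.Agent.R136.Nd565
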