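import Crest.Agent.R136.Sh1_605

/-!
# R136 (S0187): the algebra of the tilt lemma for quadric sheets (helper102)

Two quadratic functions vanishing along a common line `T` (coordinates `(y, u, v)` around `T`, `y` steep):
`q₀ = b(z)·Δ + G(Δ)`, `ω = λ(z)·Δ + Λ(Δ)`.  If at three heights three common lines with pairwise
transversal directions meet `T` (up to small errors), then `ω` is small.
-/

set_option autoImplicit false

namespace Crest.Agent.R136.Tl102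

open Crest.Agent.R136.Sh605 (V3 dt)

/-! ### interpolation -/

/-- a quadratic form of the plane which is small at three pairwise transversal vectors -/
theorem quad2 {A B C e η K U x₁ y₁ x₂ y₂ x₃ y₃ u v : ℝ} (hη : 0 < η) (hK : 0 ≤ K) (hU : 0 ≤ U)
    (h1 : |A * x₁ ^ 2 + B * (x₁ * y₁) + C * y₁ ^ 2| ≤ e)
    (h2 : |A * x₂ ^ 2 + B * (x₂ * y₂) + C * y₂ ^ 2| ≤ e)
    (h3 : |A * x₃ ^ 2 + B * (x₃ * y₃) + C * y₃ ^ 2| ≤ e)
    (kx₁ : |x₁| ≤ K) (ky₁ : |y₁| ≤ K) (kx₂ : |x₂| ≤ K) (ky₂ : |y₂| ≤ K) (kx₃ : |x₃| ≤ K)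
    (ky₃ : |y₃| ≤ K) (d12 : η ≤ |x₁ * y₂ - x₂ * y₁|) (d13 : η ≤ |x₁ * y₃ - x₃ * y₁|)
    (d23 : η ≤ |x₂ * y₃ - x₃ * y₂|) (hu : |u| ≤ U) (hv : |v| ≤ U) :
    |A * u ^ 2 + B * (u * v) + C * v ^ 2| ≤ 12 * K ^ 2 * U ^ 2 * e / η ^ 2 := by
  have he : 0 ≤ e := (abs_nonneg _).trans h1
  set D12 := x₁ * y₂ - x₂ * y₁ with hD12
  set D13 := x₁ * y₃ - x₃ * y₁ with hD13
  set D23 := x₂ * y₃ - x₃ * y₂ with hD23
  have n12 : D12 ≠ 0 := fun h => by rw [h, abs_zero] at d12; linarith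
  have n13 : D13 ≠ 0 := fun h => by rw [h, abs_zero] at d13; linarith
  have n23 : D23 ≠ 0 := fun h => by rw [h, abs_zero] at d23; linarith
  have key : A * u ^ 2 + B * (u * v) + C * v ^ 2 =
      (A * x₁ ^ 2 + B * (x₁ * y₁) + C * y₁ ^ 2) *
        ((u * y₂ - v * x₂) * (u * y₃ - v * x₃)) / (D12 * D13) -
      (A * x₂ ^ 2 + B * (x₂ * y₂) + C * y₂ ^ 2) *
        ((u * y₁ - v * x₁) * (u * y₃ - v * x₃)) / (D12 * D23) +
      (A * x₃ ^ 2 + B * (x₃ * y₃) + C * y₃ ^ 2) *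
        ((u * y₁ - v * x₁) * (u * y₂ - v * x₂)) / (D13 * D23) := by
    field_simp
    rw [hD12, hD13, hD23]
    ring
  have hE : ∀ x y : ℝ, |x| ≤ K → |y| ≤ K → |u * y - v * x| ≤ 2 * (U * K) := by
    intro x y hx hy
    have : |u * y - v * x| ≤ |u| * |y| + |v| * |x| := by
      rw [← abs_mul, ← abs_mul]; exact abs_sub _ _
    have h4 : |u| * |y| ≤ U * K := mul_le_mul hu hy (abs_nonneg _) hU
    have h5 : |v| * |x| ≤ U * K := mul_le_mul hv hx (abs_nonneg _) hU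
    linarith
  have hT : ∀ q E E' D D' : ℝ, |q| ≤ e → |E| ≤ 2 * (U * K) → |E'| ≤ 2 * (U * K) → η ≤ |D| →
      η ≤ |D'| → |q * (E * E') / (D * D')| ≤ 4 * K ^ 2 * U ^ 2 * e / η ^ 2 := by
    intro q E E' D D' hq hE hE' hD hD'
    rw [abs_div, abs_mul, abs_mul, abs_mul]
    have h6 : |q| * (|E| * |E'|) ≤ e * ((2 * (U * K)) * (2 * (U * K))) := by
      gcongr
    have h7 : η ^ 2 ≤ |D| * |D'| := by
      rw [sq]; exact mul_le_mul hD hD' hη.le (abs_nonneg _)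
    have h8 : 0 < η ^ 2 := by positivity
    calc |q| * (|E| * |E'|) / (|D| * |D'|) ≤ e * ((2 * (U * K)) * (2 * (U * K))) / η ^ 2 := by
          gcongr
      _ = _ := by ring
  rw [key]
  have t1 := hT _ _ _ _ _ h1 (hE x₂ y₂ kx₂ ky₂) (hE x₃ y₃ kx₃ ky₃) d12 d13
  have t2 := hT _ _ _ _ _ h2 (hE x₁ y₁ kx₁ ky₁) (hE x₃ y₃ kx₃ ky₃) d12 d23
  have t3 := hT _ _ _ _ _ h3 (hE x₁ y₁ kx₁ ky₁) (hE x₂ y₂ kx₂ ky₂) d13 d23
  refine (abs_add_le _ _).trans ?_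
  have t4 := abs_sub ((A * x₁ ^ 2 + B * (x₁ * y₁) + C * y₁ ^ 2) *
        ((u * y₂ - v * x₂) * (u * y₃ - v * x₃)) / (D12 * D13))
      ((A * x₂ ^ 2 + B * (x₂ * y₂) + C * y₂ ^ 2) *
        ((u * y₁ - v * x₁) * (u * y₃ - v * x₃)) / (D12 * D23))
  have t5 : 12 * K ^ 2 * U ^ 2 * e / η ^ 2 = 4 * K ^ 2 * U ^ 2 * e / η ^ 2 +
    4 * K ^ 2 * U ^ 2 * e / η ^ 2 + 4 * K ^ 2 * U ^ 2 * e / η ^ 2 := by ring
  rw [t5]
  linarith

/-- a linear form of the plane which is small at two transversal vectors -/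
theorem lin2 {A B e η K x₁ y₁ x₂ y₂ : ℝ} (hη : 0 < η)
    (h1 : |A * x₁ + B * y₁| ≤ e) (h2 : |A * x₂ + B * y₂| ≤ e)
    (kx₁ : |x₁| ≤ K) (ky₁ : |y₁| ≤ K) (kx₂ : |x₂| ≤ K) (ky₂ : |y₂| ≤ K)
    (d12 : η ≤ |x₁ * y₂ - x₂ * y₁|) : |A| ≤ 2 * K * e / η ∧ |B| ≤ 2 * K * e / η := by
  have he : 0 ≤ e := (abs_nonneg _).trans h1
  set D12 := x₁ * y₂ - x₂ * y₁ with hD12
  have n12 : D12 ≠ 0 := fun h => by rw [h, abs_zero] at d12; linarith
  have hT : ∀ q q' E E' : ℝ, |q| ≤ e → |q'| ≤ e → |E| ≤ K → |E'| ≤ K →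
      |(q * E - q' * E') / D12| ≤ 2 * K * e / η := by
    intro q q' E E' hq hq' hE hE'
    have hK : 0 ≤ K := (abs_nonneg _).trans hE
    rw [abs_div]
    have : |q * E - q' * E'| ≤ |q| * |E| + |q'| * |E'| := by
      rw [← abs_mul, ← abs_mul]; exact abs_sub _ _
    have h3 : |q| * |E| ≤ e * K := by gcongr
    have h4 : |q'| * |E'| ≤ e * K := by gcongr
    calc |q * E - q' * E'| / |D12| ≤ (2 * K * e) / η := by
          gcongr
          linarith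
      _ = _ := rfl
  constructor
  · have : A = ((A * x₁ + B * y₁) * y₂ - (A * x₂ + B * y₂) * y₁) / D12 := by
      field_simp; rw [hD12]; ring
    rw [this]; exact hT _ _ _ _ h1 h2 ky₂ ky₁
  · have : B = ((A * x₂ + B * y₂) * x₁ - (A * x₁ + B * y₁) * x₂) / D12 := by
      field_simp; rw [hD12]; ring
    rw [this]; exact hT _ _ _ _ h2 h1 kx₁ kx₂

/-- a quadratic polynomial which is small at three separated points -/
theorem quad1 {p0 p1 p2 s δ L z₁ z₂ z₃ : ℝ} (hδ : 0 < δ) (hL : 0 ≤ L)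
    (h1 : |p0 + p1 * z₁ + p2 * z₁ ^ 2| ≤ s) (h2 : |p0 + p1 * z₂ + p2 * z₂ ^ 2| ≤ s)
    (h3 : |p0 + p1 * z₃ + p2 * z₃ ^ 2| ≤ s) (k1 : |z₁| ≤ L) (k2 : |z₂| ≤ L) (k3 : |z₃| ≤ L)
    (d12 : δ ≤ |z₁ - z₂|) (d13 : δ ≤ |z₁ - z₃|) (d23 : δ ≤ |z₂ - z₃|) :
    |p0| ≤ 3 * L ^ 2 * s / δ ^ 2 ∧ |p1| ≤ 6 * L * s / δ ^ 2 ∧ |p2| ≤ 3 * s / δ ^ 2 := by
  have hs : 0 ≤ s := (abs_nonneg _).trans h1
  set D12 := z₁ - z₂ with hD12
  set D13 := z₁ - z₃ with hD13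
  set D23 := z₂ - z₃ with hD23
  have n12 : D12 ≠ 0 := fun h => by rw [h, abs_zero] at d12; linarith
  have n13 : D13 ≠ 0 := fun h => by rw [h, abs_zero] at d13; linarith
  have n23 : D23 ≠ 0 := fun h => by rw [h, abs_zero] at d23; linarith
  have hT : ∀ q E D D' W : ℝ, |q| ≤ s → |E| ≤ W → δ ≤ |D| → δ ≤ |D'| →
      |q * E / (D * D')| ≤ W * s / δ ^ 2 := by
    intro q E D D' W hq hE hD hD'
    rw [abs_div, abs_mul, abs_mul]
    have h7 : δ ^ 2 ≤ |D| * |D'| := by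
      rw [sq]; exact mul_le_mul hD hD' hδ.le (abs_nonneg _)
    have h8 : 0 < δ ^ 2 := by positivity
    have hW : 0 ≤ W := (abs_nonneg _).trans hE
    calc |q| * |E| / (|D| * |D'|) ≤ s * W / δ ^ 2 := by
          gcongr
      _ = _ := by ring
  have three : ∀ x y z W : ℝ, |x| ≤ W → |y| ≤ W → |z| ≤ W → |x - y + z| ≤ 3 * W := by
    intro x y z W hx hy hz
    rw [abs_le] at hx hy hz ⊢
    constructor <;> linarith [hx.1, hx.2, hy.1, hy.2, hz.1, hz.2]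
  set f1 := p0 + p1 * z₁ + p2 * z₁ ^ 2 with hf1
  set f2 := p0 + p1 * z₂ + p2 * z₂ ^ 2 with hf2
  set f3 := p0 + p1 * z₃ + p2 * z₃ ^ 2 with hf3
  refine ⟨?_, ?_, ?_⟩
  · have key : p0 = f1 * (z₂ * z₃) / (D12 * D13) - f2 * (z₁ * z₃) / (D12 * D23) +
        f3 * (z₁ * z₂) / (D13 * D23) := by
      field_simp
      rw [hf1, hf2, hf3, hD12, hD13, hD23]
      ring
    have hW : ∀ x y : ℝ, |x| ≤ L → |y| ≤ L → |x * y| ≤ L ^ 2 := by
      intro x y hx hy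
      rw [abs_mul, sq]; exact mul_le_mul hx hy (abs_nonneg _) hL
    rw [key]
    refine (three _ _ _ _ (hT _ _ _ _ _ h1 (hW _ _ k2 k3) d12 d13)
      (hT _ _ _ _ _ h2 (hW _ _ k1 k3) d12 d23) (hT _ _ _ _ _ h3 (hW _ _ k1 k2) d13 d23)).trans
      (le_of_eq (by ring))
  · have key : p1 = f1 * (-(z₂ + z₃)) / (D12 * D13) - f2 * (-(z₁ + z₃)) / (D12 * D23) +
        f3 * (-(z₁ + z₂)) / (D13 * D23) := by
      field_simp
      rw [hf1, hf2, hf3, hD12, hD13, hD23]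
      ring
    have hW : ∀ x y : ℝ, |x| ≤ L → |y| ≤ L → |(-(x + y))| ≤ 2 * L := by
      intro x y hx hy
      rw [abs_neg]; exact (abs_add_le _ _).trans (by linarith)
    rw [key]
    refine (three _ _ _ _ (hT _ _ _ _ _ h1 (hW _ _ k2 k3) d12 d13)
      (hT _ _ _ _ _ h2 (hW _ _ k1 k3) d12 d23) (hT _ _ _ _ _ h3 (hW _ _ k1 k2) d13 d23)).trans
      (le_of_eq (by ring))
  · have key : p2 = f1 * 1 / (D12 * D13) - f2 * 1 / (D12 * D23) + f3 * 1 / (D13 * D23) := by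
      field_simp
      rw [hf1, hf2, hf3, hD12, hD13, hD23]
      ring
    have h11 : |(1 : ℝ)| ≤ 1 := by simp
    rw [key]
    refine (three _ _ _ _ (hT _ _ _ _ _ h1 h11 d12 d13)
      (hT _ _ _ _ _ h2 h11 d12 d23) (hT _ _ _ _ _ h3 h11 d13 d23)).trans
      (le_of_eq (by ring))

/-! ### the linear part -/

/-- one component of the pencil lemma -/
theorem comp {by0 by1 bk0 bk1 ly1 lk0 lk1 s η : ℝ} (hη : 0 < η)
    (hs0 : 1 / 2 ≤ by0) (hs0' : by0 ≤ 2) (hs1 : |by1| ≤ 3 / 2)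
    {z : Fin 3 → ℝ} (hz : ∀ i, |z i| ≤ 1) (hzd : ∀ i j, i ≠ j → η ≤ |z i - z j|)
    (hg : ∀ i, |(by0 + z i * by1) * (lk0 + z i * lk1) - (z i * ly1) * (bk0 + z i * bk1)| ≤ s) :
    |lk0| ≤ 6 * s / η ^ 2 ∧ |ly1| * |by0 * bk1 - by1 * bk0| ≤ 30 * s / η ^ 2 ∧
      |lk1| ≤ 30 * s / η ^ 2 + 2 * |ly1| * |bk0| := by
  have hs : 0 ≤ s := (abs_nonneg _).trans (hg 0)
  have h := fun i => (show (by0 + z i * by1) * (lk0 + z i * lk1) - (z i * ly1) * (bk0 + z i * bk1) =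
    by0 * lk0 + (by0 * lk1 + by1 * lk0 - ly1 * bk0) * z i + (by1 * lk1 - ly1 * bk1) * z i ^ 2 by
      ring)
  obtain ⟨g0, g1, g2⟩ := quad1 (p0 := by0 * lk0) (p1 := by0 * lk1 + by1 * lk0 - ly1 * bk0)
    (p2 := by1 * lk1 - ly1 * bk1) (s := s) hη zero_le_one (by rw [← h 0]; exact hg 0)
    (by rw [← h 1]; exact hg 1) (by rw [← h 2]; exact hg 2) (hz 0) (hz 1) (hz 2)
    (hzd 0 1 (by decide)) (hzd 0 2 (by decide)) (hzd 1 2 (by decide))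
  set σ := s / η ^ 2 with hσ
  have hσ0 : 0 ≤ σ := by positivity
  have g0' : |by0 * lk0| ≤ 3 * σ := g0.trans (le_of_eq (by rw [hσ]; ring))
  have g1' : |by0 * lk1 + by1 * lk0 - ly1 * bk0| ≤ 6 * σ := g1.trans (le_of_eq (by rw [hσ]; ring))
  have g2' : |by1 * lk1 - ly1 * bk1| ≤ 3 * σ := g2.trans (le_of_eq (by rw [hσ]; ring))
  have hb0 : |by0| = by0 := abs_of_pos (by linarith)
  have k0 : |lk0| ≤ 6 * σ := by
    rw [abs_mul, hb0] at g0'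
    have := abs_nonneg lk0
    nlinarith
  refine ⟨k0.trans (le_of_eq (by rw [hσ]; ring)), ?_, ?_⟩
  · have key : ly1 * (by0 * bk1 - by1 * bk0) =
        by1 * (by0 * lk1 + by1 * lk0 - ly1 * bk0) - by0 * (by1 * lk1 - ly1 * bk1) -
          by1 * (by1 * lk0) := by ring
    rw [← abs_mul, key]
    refine (abs_sub _ _).trans ?_
    have h1 := abs_sub (by1 * (by0 * lk1 + by1 * lk0 - ly1 * bk0)) (by0 * (by1 * lk1 - ly1 * bk1))
    have h2 : |by1 * (by0 * lk1 + by1 * lk0 - ly1 * bk0)| ≤ 3 / 2 * (6 * σ) := by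
      rw [abs_mul]; exact mul_le_mul hs1 g1' (abs_nonneg _) (by norm_num)
    have h3 : |by0 * (by1 * lk1 - ly1 * bk1)| ≤ 2 * (3 * σ) := by
      rw [abs_mul, hb0]; exact mul_le_mul hs0' g2' (abs_nonneg _) (by norm_num)
    have h4 : |by1 * (by1 * lk0)| ≤ 3 / 2 * (3 / 2 * (6 * σ)) := by
      rw [abs_mul, abs_mul]
      exact mul_le_mul hs1 (mul_le_mul hs1 k0 (abs_nonneg _) (by norm_num)) (by positivity)
        (by norm_num)
    have h5 : 30 * s / η ^ 2 = 30 * σ := by rw [hσ]; ring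
    rw [h5]
    linarith
  · have key : by0 * lk1 = (by0 * lk1 + by1 * lk0 - ly1 * bk0) - by1 * lk0 + ly1 * bk0 := by ring
    have h1 : |by0 * lk1| ≤ 6 * σ + 3 / 2 * (6 * σ) + |ly1| * |bk0| := by
      rw [key]
      refine (abs_add_le _ _).trans ?_
      have h2 := abs_sub (by0 * lk1 + by1 * lk0 - ly1 * bk0) (by1 * lk0)
      have h3 : |by1 * lk0| ≤ 3 / 2 * (6 * σ) := by
        rw [abs_mul]; exact mul_le_mul hs1 k0 (abs_nonneg _) (by norm_num)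
      rw [abs_mul ly1]
      linarith
    rw [abs_mul, hb0] at h1
    have h2 := abs_nonneg lk1
    have h5 : 30 * s / η ^ 2 = 30 * σ := by rw [hσ]; ring
    rw [h5]
    nlinarith

/-- coefficients of a quadratic form in `(y, u, v)` -/
structure QF where
  yy : ℝ
  yu : ℝ
  yv : ℝ
  uu : ℝ
  uv : ℝ
  vv : ℝ

/-- the value at a vector -/
def QF.ev (M : QF) (t : V3) : ℝ :=
  M.yy * t 0 ^ 2 + t 0 * (M.yu * t 1 + M.yv * t 2) +
    (M.uu * t 1 ^ 2 + M.uv * (t 1 * t 2) + M.vv * t 2 ^ 2)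

/-- all coefficients are at most `B` -/
def QF.Le (M : QF) (B : ℝ) : Prop :=
  |M.yy| ≤ B ∧ |M.yu| ≤ B ∧ |M.yv| ≤ B ∧ |M.uu| ≤ B ∧ |M.uv| ≤ B ∧ |M.vv| ≤ B

/-- the affine family `b(z) = b0 + z b1` -/
def bz (b0 b1 : V3) (z : ℝ) : V3 := fun k => b0 k + z * b1 k

/-- **linear part of the pencil lemma** -/
theorem linpart {b0 b1 l0 l1 : V3} {η K e1 e3 : ℝ} (hη : 0 < η) (hη1 : η ≤ 1) (hK : 1 ≤ K)
    (hb0 : ∀ k, |b0 k| ≤ K)
    (hs0 : 1 / 2 ≤ b0 0) (hs0' : b0 0 ≤ 2) (hs1 : 1 / 2 ≤ b0 0 + b1 0) (hs1' : b0 0 + b1 0 ≤ 2)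
    (hw : η ≤ |b0 0 * b1 1 - b1 0 * b0 1| ∨ η ≤ |b0 0 * b1 2 - b1 0 * b0 2|)
    (hl : l0 0 = 0) {z : Fin 3 → ℝ} (hz : ∀ i, 0 ≤ z i ∧ z i ≤ 1)
    (hzd : ∀ i j, i ≠ j → η ≤ |z i - z j|) {t : Fin 3 → Fin 3 → V3}
    (ht : ∀ i j k, |t i j k| ≤ K)
    (htd : ∀ i j j', j ≠ j' → η ≤ |t i j 1 * t i j' 2 - t i j' 1 * t i j 2|)
    (hA0 : ∀ i j, |dt (bz b0 b1 (z i)) (t i j)| ≤ e1)
    (hA : ∀ i j, |dt (bz l0 l1 (z i)) (t i j)| ≤ e3) (he1 : 120 * K * e1 ≤ η ^ 4) :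
    ∀ k, |l0 k| ≤ 720 * K ^ 2 * e3 / η ^ 4 ∧ |l1 k| ≤ 720 * K ^ 2 * e3 / η ^ 4 := by
  have he1' : 0 ≤ e1 := (abs_nonneg _).trans (hA0 0 0)
  have he3 : 0 ≤ e3 := (abs_nonneg _).trans (hA 0 0)
  have hz1 : ∀ i, |z i| ≤ 1 := fun i => abs_le.2 ⟨by linarith [(hz i).1], (hz i).2⟩
  have hb1 : |b1 0| ≤ 3 / 2 := abs_le.2 ⟨by linarith, by linarith⟩
  have hbz : ∀ i, |bz b0 b1 (z i) 0| ≤ 2 := by
    intro i
    obtain ⟨h1, h2⟩ := hz i
    simp only [bz]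
    rw [abs_le]
    constructor <;> nlinarith
  set s := 2 * K * (2 * e3 + |l1 0| * e1) / η with hs
  have hg : ∀ i, |(b0 0 + z i * b1 0) * (l0 1 + z i * l1 1) - (z i * l1 0) * (b0 1 + z i * b1 1)| ≤
      s ∧ |(b0 0 + z i * b1 0) * (l0 2 + z i * l1 2) - (z i * l1 0) * (b0 2 + z i * b1 2)| ≤ s := by
    intro i
    have h1 : ∀ j, |((b0 0 + z i * b1 0) * (l0 1 + z i * l1 1) - (z i * l1 0) *
        (b0 1 + z i * b1 1)) * t i j 1 + ((b0 0 + z i * b1 0) * (l0 2 + z i * l1 2) -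
        (z i * l1 0) * (b0 2 + z i * b1 2)) * t i j 2| ≤ 2 * e3 + |l1 0| * e1 := by
      intro j
      have h2 : ((b0 0 + z i * b1 0) * (l0 1 + z i * l1 1) - (z i * l1 0) *
          (b0 1 + z i * b1 1)) * t i j 1 + ((b0 0 + z i * b1 0) * (l0 2 + z i * l1 2) -
          (z i * l1 0) * (b0 2 + z i * b1 2)) * t i j 2 =
          bz b0 b1 (z i) 0 * dt (bz l0 l1 (z i)) (t i j) -
            (z i * l1 0) * dt (bz b0 b1 (z i)) (t i j) := by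
        simp only [dt, bz, hl]; ring
      rw [h2]
      refine (abs_sub _ _).trans (add_le_add ?_ ?_)
      · rw [abs_mul]
        exact mul_le_mul (hbz i) (hA i j) (abs_nonneg _) (by norm_num)
      · rw [abs_mul, abs_mul]
        have h3 : |z i| * |l1 0| ≤ |l1 0| := by
          have := hz1 i; have := abs_nonneg (l1 0); nlinarith
        exact mul_le_mul h3 (hA0 i j) (abs_nonneg _) (abs_nonneg _)
    have h4 := lin2 hη (h1 0) (h1 1) (ht i 0 1) (ht i 0 2) (ht i 1 1) (ht i 1 2)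
      (htd i 0 1 (by decide))
    exact ⟨h4.1.trans (le_of_eq (by rw [hs])), h4.2.trans (le_of_eq (by rw [hs]))⟩
  obtain ⟨u0, u1, u2⟩ := comp hη hs0 hs0' hb1 hz1 hzd fun i => (hg i).1
  obtain ⟨v0, v1, v2⟩ := comp hη hs0 hs0' hb1 hz1 hzd fun i => (hg i).2
  -- bound of `l1 0`
  have hy : |l1 0| * η ≤ 30 * s / η ^ 2 := by
    rcases hw with hw | hw
    · exact (mul_le_mul_of_nonneg_left hw (abs_nonneg _)).trans u1
    · exact (mul_le_mul_of_nonneg_left hw (abs_nonneg _)).trans v1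
  have hy2 : |l1 0| * η ^ 4 ≤ 60 * K * (2 * e3 + |l1 0| * e1) := by
    have h1 : |l1 0| * η * η ^ 2 ≤ 30 * s := by
      rwa [le_div_iff₀ (by positivity)] at hy
    have h2 : s * η = 2 * K * (2 * e3 + |l1 0| * e1) := by
      rw [hs]; field_simp
    calc |l1 0| * η ^ 4 = (|l1 0| * η * η ^ 2) * η := by ring
      _ ≤ 30 * s * η := by gcongr
      _ = 30 * (s * η) := by ring
      _ = _ := by rw [h2]; ring
  have hy3 : |l1 0| * η ^ 4 ≤ 240 * K * e3 := by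
    have h1 : 60 * K * (|l1 0| * e1) ≤ |l1 0| * η ^ 4 / 2 := by
      have := mul_le_mul_of_nonneg_left he1 (abs_nonneg (l1 0))
      nlinarith
    nlinarith
  have hy4 : |l1 0| * e1 ≤ 2 * e3 := by
    have h1 : |l1 0| * e1 * (120 * K) ≤ 240 * K * e3 := by
      calc |l1 0| * e1 * (120 * K) = |l1 0| * (120 * K * e1) := by ring
        _ ≤ |l1 0| * η ^ 4 := by gcongr
        _ ≤ _ := hy3
    have h2 : 0 < 120 * K := by linarith
    have h3 : |l1 0| * e1 * (120 * K) ≤ 2 * e3 * (120 * K) := by linarith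
    exact le_of_mul_le_mul_right h3 h2
  have hs2 : s ≤ 8 * K * e3 / η := by
    rw [hs]
    apply div_le_div_of_nonneg_right _ hη.le
    nlinarith
  have hs0'' : 0 ≤ s := by rw [hs]; positivity
  have hη2 : η ^ 4 ≤ η ^ 3 := by
    have : 0 < η ^ 3 := by positivity
    nlinarith
  have hη4 : 0 < η ^ 4 := by positivity
  have hKK : K ≤ K ^ 2 := by nlinarith
  -- final bounds
  have c1 : |l1 0| ≤ 240 * K * e3 / η ^ 4 := by rwa [le_div_iff₀ hη4]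
  have c2 : 6 * s / η ^ 2 ≤ 48 * K * e3 / η ^ 4 := by
    calc 6 * s / η ^ 2 ≤ 6 * (8 * K * e3 / η) / η ^ 2 := by gcongr
      _ = 48 * K * e3 / η ^ 3 := by field_simp; ring
      _ ≤ _ := by gcongr
  have c3 : 30 * s / η ^ 2 ≤ 240 * K * e3 / η ^ 4 := by
    calc 30 * s / η ^ 2 = 5 * (6 * s / η ^ 2) := by ring
      _ ≤ 5 * (48 * K * e3 / η ^ 4) := by gcongr
      _ = _ := by ring
  have c4 : 240 * K * e3 / η ^ 4 ≤ 240 * K ^ 2 * e3 / η ^ 4 := by gcongr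
  have c5 : 48 * K * e3 / η ^ 4 ≤ 720 * K ^ 2 * e3 / η ^ 4 := by
    gcongr
    · norm_num
  have c6 : ∀ k, 30 * s / η ^ 2 + 2 * |l1 0| * |b0 k| ≤ 720 * K ^ 2 * e3 / η ^ 4 := by
    intro k
    have h1 : 2 * |l1 0| * |b0 k| ≤ 2 * (240 * K * e3 / η ^ 4) * K := by
      gcongr
      exact hb0 k
    have h2 : 2 * (240 * K * e3 / η ^ 4) * K = 480 * K ^ 2 * e3 / η ^ 4 := by ring
    have h3 : 720 * K ^ 2 * e3 / η ^ 4 = 240 * K ^ 2 * e3 / η ^ 4 + 480 * K ^ 2 * e3 / η ^ 4 := by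
      ring
    linarith
  have c7 : 240 * K * e3 / η ^ 4 ≤ 720 * K ^ 2 * e3 / η ^ 4 := by
    refine c4.trans ?_
    gcongr
    norm_num
  intro k
  fin_cases k
  · refine ⟨?_, c1.trans c7⟩
    change |l0 0| ≤ _
    rw [hl, abs_zero]; positivity
  · exact ⟨u0.trans (c2.trans c5), u2.trans (c6 1)⟩
  · exact ⟨v0.trans (c2.trans c5), v2.trans (c6 2)⟩

/-! ### the quadratic part -/

theorem slope_id {A B : ℝ} (hA : A ≠ 0) (hB : B ≠ 0) (a1 a2 c1 c2 u v : ℝ) :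
    (-a1 / A * u + -a2 / A * v) - (-c1 / B * u + -c2 / B * v) =
      ((c1 * A - a1 * B) * u + (c2 * A - a2 * B) * v) / (A * B) := by
  rw [eq_div_iff (mul_ne_zero hA hB)]
  field_simp
  ring

theorem main_dir {B η : ℝ} (M1 M2 M3 W1 W2 : ℝ) (L1 L2 : ℝ) (hW : η ≤ |W1|)
    (h : ∀ u v : ℝ, |u| ≤ 2 → |v| ≤ 2 → η ≤ |W1 * u + W2 * v| →
        |M1 * u ^ 2 + M2 * (u * v) + M3 * v ^ 2| ≤ B ∧ |L1 * u + L2 * v| ≤ B) :
    |M1| ≤ 4 * B ∧ |M2| ≤ 4 * B ∧ |M3| ≤ 4 * B ∧ |L1| ≤ 4 * B ∧ |L2| ≤ 4 * B := by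
  obtain ⟨a1, a2⟩ := h 1 0 (by norm_num) (by norm_num) (by simpa using hW)
  obtain ⟨θ, hθ, hθ2⟩ : ∃ θ : ℝ, (θ = 1 ∨ θ = -1) ∧ 0 ≤ W1 * W2 * θ := by
    rcases le_total 0 (W1 * W2) with h0 | h0
    · exact ⟨1, Or.inl rfl, by linarith⟩
    · exact ⟨-1, Or.inr rfl, by linarith⟩
  have hbig : ∀ c : ℝ, 0 ≤ c → η ≤ |W1 * 1 + W2 * (c * θ)| := by
    intro c hc
    refine hW.trans ?_
    rw [← sq_le_sq]
    have h1 : 0 ≤ c * (W1 * W2 * θ) := mul_nonneg hc hθ2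
    nlinarith [sq_nonneg (W2 * (c * θ))]
  have hθa : |θ| = 1 := by rcases hθ with h | h <;> rw [h] <;> norm_num
  obtain ⟨b1', b2'⟩ := h 1 (1 * θ) (by norm_num) (by rw [one_mul, hθa]; norm_num)
    (hbig 1 (by norm_num))
  obtain ⟨c1', c2'⟩ := h 1 (2 * θ) (by norm_num) (by rw [abs_mul, hθa]; norm_num)
    (hbig 2 (by norm_num))
  have hθs : θ ^ 2 = 1 := by rcases hθ with h | h <;> rw [h] <;> norm_num
  have A1 : |M1| ≤ B := by simpa using a1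
  have A2 : |L1| ≤ B := by simpa using a2
  have B1 : |M1 + M2 * θ + M3| ≤ B := by
    have : M1 * 1 ^ 2 + M2 * (1 * (1 * θ)) + M3 * (1 * θ) ^ 2 = M1 + M2 * θ + M3 := by
      rw [one_mul, one_mul, hθs]; ring
    rwa [this] at b1'
  have C1 : |M1 + 2 * (M2 * θ) + 4 * M3| ≤ B := by
    have : M1 * 1 ^ 2 + M2 * (1 * (2 * θ)) + M3 * (2 * θ) ^ 2 = M1 + 2 * (M2 * θ) + 4 * M3 := by
      rw [mul_pow, hθs]; ring
    rwa [this] at c1'
  have B2 : |L1 + L2 * θ| ≤ B := by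
    have : L1 * 1 + L2 * (1 * θ) = L1 + L2 * θ := by ring
    rwa [this] at b2'
  have hM2 : |M2 * θ| = |M2| := by rw [abs_mul, hθa, mul_one]
  have hL2 : |L2 * θ| = |L2| := by rw [abs_mul, hθa, mul_one]
  rw [abs_le] at A1 A2 B1 C1 B2
  have hM3' : |M3| ≤ 2 * B := by
    rw [abs_le]; constructor <;> linarith [A1.1, A1.2, B1.1, B1.2, C1.1, C1.2]
  rw [abs_le] at hM3'
  refine ⟨?_, ?_, ?_, ?_, ?_⟩
  · rw [abs_le]; constructor <;> linarith [A1.1, A1.2]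
  · rw [← hM2, abs_le]; constructor <;> linarith [A1.1, A1.2, B1.1, B1.2, hM3'.1, hM3'.2]
  · rw [abs_le]; constructor <;> linarith [hM3'.1, hM3'.2]
  · rw [abs_le]; constructor <;> linarith [A2.1, A2.2]
  · rw [← hL2, abs_le]; constructor <;> linarith [A2.1, A2.2, B2.1, B2.2]


/-- **quadratic part of the pencil lemma** -/
theorem quadpart {b0 b1 : V3} {M : QF} {η K e1 e5 Lm : ℝ} (hη : 0 < η) (hK : 1 ≤ K)
    (hb0 : ∀ k, |b0 k| ≤ K) (hb1 : ∀ k, |b1 k| ≤ K)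
    (hs0 : 1 / 2 ≤ b0 0) (hs0' : b0 0 ≤ 2) (hs1 : 1 / 2 ≤ b0 0 + b1 0) (hs1' : b0 0 + b1 0 ≤ 2)
    (hw : η ≤ |b0 0 * b1 1 - b1 0 * b0 1| ∨ η ≤ |b0 0 * b1 2 - b1 0 * b0 2|)
    {z : Fin 3 → ℝ} (hz : ∀ i, 0 ≤ z i ∧ z i ≤ 1)
    (hzd : ∀ i j, i ≠ j → η ≤ |z i - z j|) {t : Fin 3 → Fin 3 → V3}
    (ht : ∀ i j k, |t i j k| ≤ K)
    (htd : ∀ i j j', j ≠ j' → η ≤ |t i j 1 * t i j' 2 - t i j' 1 * t i j 2|)
    (hA0 : ∀ i j, |dt (bz b0 b1 (z i)) (t i j)| ≤ e1) (he1 : e1 ≤ K) (hM : M.Le Lm)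
    (hQ : ∀ i j, |M.ev (t i j)| ≤ e5) :
    M.Le (3000000 * K ^ 4 * (e5 + 12 * K * Lm * e1) / η ^ 6) := by
  have he1' : 0 ≤ e1 := (abs_nonneg _).trans (hA0 0 0)
  have he5 : 0 ≤ e5 := (abs_nonneg _).trans (hQ 0 0)
  have hLm : 0 ≤ Lm := (abs_nonneg _).trans hM.1
  have hby : ∀ i, 1 / 2 ≤ b0 0 + z i * b1 0 ∧ b0 0 + z i * b1 0 ≤ 2 := by
    intro i
    obtain ⟨h1, h2⟩ := hz i
    constructor <;> nlinarith
  have hbk : ∀ i k, |b0 k + z i * b1 k| ≤ 2 * K := by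
    intro i k
    obtain ⟨h1, h2⟩ := hz i
    refine (abs_add_le _ _).trans ?_
    rw [abs_mul, abs_of_nonneg h1]
    have := hb0 k; have h3 := hb1 k; have h4 := abs_nonneg (b1 k)
    nlinarith
  -- slopes of the lift
  set p : Fin 3 → ℝ := fun i => -(b0 1 + z i * b1 1) / (b0 0 + z i * b1 0) with hp
  set q : Fin 3 → ℝ := fun i => -(b0 2 + z i * b1 2) / (b0 0 + z i * b1 0) with hq
  have hpq : ∀ i, |p i| ≤ 4 * K ∧ |q i| ≤ 4 * K := by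
    intro i
    obtain ⟨h1, h2⟩ := hby i
    have h3 : ∀ x : ℝ, |x| ≤ 2 * K → |-x / (b0 0 + z i * b1 0)| ≤ 4 * K := by
      intro x hx
      rw [abs_div, abs_neg, abs_of_pos (by linarith : (0 : ℝ) < b0 0 + z i * b1 0),
        div_le_iff₀ (by linarith)]
      nlinarith
    exact ⟨h3 _ (hbk i 1), h3 _ (hbk i 2)⟩
  set e6 := e5 + 12 * K * Lm * e1 with he6
  have he6' : 0 ≤ e6 := by positivity
  -- the values at the lifts
  have hN : ∀ i j, |(M.yy * p i ^ 2 + M.yu * p i + M.uu) * t i j 1 ^ 2 +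
      (2 * M.yy * p i * q i + M.yu * q i + M.yv * p i + M.uv) * (t i j 1 * t i j 2) +
      (M.yy * q i ^ 2 + M.yv * q i + M.vv) * t i j 2 ^ 2| ≤ e6 := by
    intro i j
    obtain ⟨h1, h2⟩ := hby i
    have hne : b0 0 + z i * b1 0 ≠ 0 := by linarith
    set y' := p i * t i j 1 + q i * t i j 2 with hy'
    have e : y' - t i j 0 = -(dt (bz b0 b1 (z i)) (t i j)) / (b0 0 + z i * b1 0) := by
      rw [hy', hp, hq]
      simp only [dt, bz]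
      field_simp
      ring
    have h3 : |y' - t i j 0| ≤ 2 * e1 := by
      rw [e, abs_div, abs_neg, abs_of_pos (by linarith : (0 : ℝ) < b0 0 + z i * b1 0),
        div_le_iff₀ (by linarith)]
      have := hA0 i j
      nlinarith
    have h4 : (M.yy * p i ^ 2 + M.yu * p i + M.uu) * t i j 1 ^ 2 +
        (2 * M.yy * p i * q i + M.yu * q i + M.yv * p i + M.uv) * (t i j 1 * t i j 2) +
        (M.yy * q i ^ 2 + M.yv * q i + M.vv) * t i j 2 ^ 2 =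
        M.ev (t i j) + (y' - t i j 0) * (M.yy * (y' + t i j 0) + (M.yu * t i j 1 + M.yv * t i j 2)) := by
      rw [hy']
      simp only [QF.ev]
      ring
    rw [h4]
    refine (abs_add_le _ _).trans ?_
    rw [he6]
    refine add_le_add (hQ i j) ?_
    rw [abs_mul]
    have h5 : |y' + t i j 0| ≤ 4 * K := by
      have h6 : y' + t i j 0 = (y' - t i j 0) + 2 * t i j 0 := by ring
      rw [h6]
      refine (abs_add_le _ _).trans ?_
      rw [abs_mul, abs_of_pos (by norm_num : (0 : ℝ) < 2)]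
      have := ht i j 0
      linarith
    have h7 : |M.yy * (y' + t i j 0) + (M.yu * t i j 1 + M.yv * t i j 2)| ≤ 6 * K * Lm := by
      refine (abs_add_le _ _).trans ?_
      have h8 : |M.yy * (y' + t i j 0)| ≤ Lm * (4 * K) := by
        rw [abs_mul]; exact mul_le_mul hM.1 h5 (abs_nonneg _) hLm
      have h9 : |M.yu * t i j 1| ≤ Lm * K := by
        rw [abs_mul]; exact mul_le_mul hM.2.1 (ht i j 1) (abs_nonneg _) hLm
      have h10 : |M.yv * t i j 2| ≤ Lm * K := by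
        rw [abs_mul]; exact mul_le_mul hM.2.2.1 (ht i j 2) (abs_nonneg _) hLm
      have := abs_add_le (M.yu * t i j 1) (M.yv * t i j 2)
      linarith
    calc |y' - t i j 0| * |M.yy * (y' + t i j 0) + (M.yu * t i j 1 + M.yv * t i j 2)| ≤
        (2 * e1) * (6 * K * Lm) := by gcongr
      _ = 12 * K * Lm * e1 := by ring
  -- all vectors of size `2`
  set s2 := 48 * K ^ 2 * e6 / η ^ 2 with hs2
  have hs2' : 0 ≤ s2 := by positivity
  have hN2 : ∀ i, ∀ u v : ℝ, |u| ≤ 2 → |v| ≤ 2 →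
      |(M.uu * u ^ 2 + M.uv * (u * v) + M.vv * v ^ 2) + (M.yu * u + M.yv * v) * (p i * u + q i * v) +
        M.yy * (p i * u + q i * v) ^ 2| ≤ s2 := by
    intro i u v hu hv
    have := quad2 hη (by linarith : (0 : ℝ) ≤ K) (by norm_num : (0 : ℝ) ≤ 2) (hN i 0) (hN i 1)
      (hN i 2) (ht i 0 1) (ht i 0 2) (ht i 1 1) (ht i 1 2) (ht i 2 1) (ht i 2 2)
      (htd i 0 1 (by decide)) (htd i 0 2 (by decide)) (htd i 1 2 (by decide)) hu hv
    have e1 : (M.yy * p i ^ 2 + M.yu * p i + M.uu) * u ^ 2 +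
        (2 * M.yy * p i * q i + M.yu * q i + M.yv * p i + M.uv) * (u * v) +
        (M.yy * q i ^ 2 + M.yv * q i + M.vv) * v ^ 2 =
        (M.uu * u ^ 2 + M.uv * (u * v) + M.vv * v ^ 2) +
          (M.yu * u + M.yv * v) * (p i * u + q i * v) + M.yy * (p i * u + q i * v) ^ 2 := by ring
    rw [e1] at this
    refine this.trans (le_of_eq ?_)
    rw [hs2]; ring
  set B := 12288 * K ^ 2 * s2 / η ^ 4 with hB
  have hB' : 0 ≤ B := by positivity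
  -- separated values of the slope
  have hdir : ∀ u v : ℝ, |u| ≤ 2 → |v| ≤ 2 →
      η ≤ |(b0 0 * b1 1 - b1 0 * b0 1) * u + (b0 0 * b1 2 - b1 0 * b0 2) * v| →
      |M.uu * u ^ 2 + M.uv * (u * v) + M.vv * v ^ 2| ≤ B ∧ |M.yu * u + M.yv * v| ≤ B ∧
        |M.yy| ≤ B := by
    intro u v hu hv hwX
    have hl : ∀ i, |p i * u + q i * v| ≤ 16 * K := by
      intro i
      obtain ⟨h1, h2⟩ := hpq i
      refine (abs_add_le _ _).trans ?_
      rw [abs_mul, abs_mul]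
      have h3 : |p i| * |u| ≤ 4 * K * 2 := mul_le_mul h1 hu (abs_nonneg _) (by linarith)
      have h4 : |q i| * |v| ≤ 4 * K * 2 := mul_le_mul h2 hv (abs_nonneg _) (by linarith)
      linarith
    have hsep : ∀ i j, i ≠ j →
        η ^ 2 / 4 ≤ |(p i * u + q i * v) - (p j * u + q j * v)| := by
      intro i j hij
      obtain ⟨h1, h2⟩ := hby i
      obtain ⟨h3, h4⟩ := hby j
      have hne : b0 0 + z i * b1 0 ≠ 0 := by linarith
      have hne' : b0 0 + z j * b1 0 ≠ 0 := by linarith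
      have e : (p i * u + q i * v) - (p j * u + q j * v) =
          -((z i - z j) * ((b0 0 * b1 1 - b1 0 * b0 1) * u + (b0 0 * b1 2 - b1 0 * b0 2) * v)) /
            ((b0 0 + z i * b1 0) * (b0 0 + z j * b1 0)) := by
        refine (slope_id hne hne' _ _ _ _ u v).trans ?_
        congr 1
        ring
      rw [e, abs_div, abs_neg, abs_mul, abs_mul (b0 0 + z i * b1 0),
        abs_of_pos (by linarith : (0 : ℝ) < b0 0 + z i * b1 0),
        abs_of_pos (by linarith : (0 : ℝ) < b0 0 + z j * b1 0), le_div_iff₀ (by nlinarith)]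
      have h5 : η * η ≤ |z i - z j| *
          |(b0 0 * b1 1 - b1 0 * b0 1) * u + (b0 0 * b1 2 - b1 0 * b0 2) * v| :=
        mul_le_mul (hzd i j hij) hwX hη.le (abs_nonneg _)
      have h6 : (b0 0 + z i * b1 0) * (b0 0 + z j * b1 0) ≤ 4 := by nlinarith
      calc η ^ 2 / 4 * ((b0 0 + z i * b1 0) * (b0 0 + z j * b1 0)) ≤ η ^ 2 / 4 * 4 := by gcongr
        _ = η * η := by ring
        _ ≤ _ := h5
    obtain ⟨r0, r1, r2⟩ := quad1 (by positivity : 0 < η ^ 2 / 4)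
      (by linarith : (0 : ℝ) ≤ 16 * K) (hN2 0 u v hu hv) (hN2 1 u v hu hv) (hN2 2 u v hu hv)
      (hl 0) (hl 1) (hl 2) (hsep 0 1 (by decide)) (hsep 0 2 (by decide)) (hsep 1 2 (by decide))
    have hη4 : 0 < η ^ 4 := by positivity
    refine ⟨r0.trans (le_of_eq ?_), r1.trans ?_, r2.trans ?_⟩
    · rw [hB]; field_simp; ring
    · have : 6 * (16 * K) * s2 / (η ^ 2 / 4) ^ 2 = 1536 * K * s2 / η ^ 4 := by
        field_simp; ring
      rw [this, hB]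
      have h7 : K ≤ K ^ 2 := by nlinarith
      gcongr
      norm_num
    · have : 3 * s2 / (η ^ 2 / 4) ^ 2 = 48 * 1 * s2 / η ^ 4 := by
        field_simp; ring
      rw [this, hB]
      have h7 : 1 ≤ K ^ 2 := by nlinarith
      gcongr
      norm_num
  have fin : 4 * B ≤ 3000000 * K ^ 4 * e6 / η ^ 6 := by
    rw [hB, hs2]
    have : 4 * (12288 * K ^ 2 * (48 * K ^ 2 * e6 / η ^ 2) / η ^ 4) =
        2359296 * K ^ 4 * e6 / η ^ 6 := by field_simp; ring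
    rw [this]
    gcongr
    norm_num
  rcases hw with hw | hw
  · obtain ⟨m1, m2, m3, m4, m5⟩ := main_dir M.uu M.uv M.vv _ _ M.yu M.yv hw
      (fun u v hu hv h => ⟨(hdir u v hu hv h).1, (hdir u v hu hv h).2.1⟩)
    have m0 : |M.yy| ≤ B := (hdir 1 0 (by norm_num) (by norm_num) (by simpa using hw)).2.2
    exact ⟨by linarith, m4.trans fin, m5.trans fin, m1.trans fin, m2.trans fin, m3.trans fin⟩
  · obtain ⟨m1, m2, m3, m4, m5⟩ := main_dir M.vv M.uv M.uu _ (b0 0 * b1 1 - b1 0 * b0 1) M.yv M.yu hw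
      (fun u v hu hv h => by
        have h' := hdir v u hv hu (by rw [add_comm]; exact h)
        refine ⟨?_, ?_⟩
        · have : M.vv * u ^ 2 + M.uv * (u * v) + M.uu * v ^ 2 =
            M.uu * v ^ 2 + M.uv * (v * u) + M.vv * u ^ 2 := by ring
          rw [this]; exact h'.1
        · rw [add_comm]; exact h'.2.1)
    have m0 : |M.yy| ≤ B := (hdir 0 1 (by norm_num) (by norm_num) (by simpa using hw)).2.2
    exact ⟨by linarith, m5.trans fin, m4.trans fin, m3.trans fin, m2.trans fin, m1.trans fin⟩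

/-! ### lines through a box -/

/-- the point at height `z` of the line with offset `D` at height `c` and velocity `t` -/
def pos (D t : V3) (c z : ℝ) : V3 := fun k => D k + (z - c) * t k

/-- the function `b(z)·x + M(x)` -/
def Fq (b0 b1 : V3) (M : QF) (z : ℝ) (x : V3) : ℝ := dt (bz b0 b1 z) x + M.ev x

/-- polarisation -/
def QF.pol (M : QF) (x t : V3) : ℝ :=
  2 * M.yy * (x 0 * t 0) + M.yu * (x 0 * t 1 + x 1 * t 0) + M.yv * (x 0 * t 2 + x 2 * t 0) +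
    (2 * M.uu * (x 1 * t 1) + M.uv * (x 1 * t 2 + x 2 * t 1) + 2 * M.vv * (x 2 * t 2))

theorem Fq_pos (b0 b1 : V3) (M : QF) (D t : V3) (c z : ℝ) :
    Fq b0 b1 M z (pos D t c z) =
      (dt (bz b0 b1 c) D + M.ev D) + (dt (bz b0 b1 c) t + dt b1 D + M.pol D t) * (z - c) +
        (dt b1 t + M.ev t) * (z - c) ^ 2 := by
  simp only [Fq, pos, dt, bz, QF.ev, QF.pol]
  ring

/-- coefficients of a quadratic polynomial bounded on an interval of length one -/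
theorem quad_coef {f0 f1 f2 c B : ℝ} (hc0 : 0 ≤ c) (hc1 : c ≤ 1)
    (h : ∀ z, 0 ≤ z → z ≤ 1 → |f0 + f1 * (z - c) + f2 * (z - c) ^ 2| ≤ B) :
    |f1| ≤ 8 * B ∧ |f2| ≤ 8 * B := by
  have h0 := h 0 le_rfl zero_le_one
  have h1 := h 1 zero_le_one le_rfl
  have h2 := h (1 / 2) (by norm_num) (by norm_num)
  set F0 := f0 + f1 * (0 - c) + f2 * (0 - c) ^ 2 with hF0
  set F1 := f0 + f1 * (1 - c) + f2 * (1 - c) ^ 2 with hF1
  set F2 := f0 + f1 * (1 / 2 - c) + f2 * (1 / 2 - c) ^ 2 with hF2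
  have e2 : f2 = 2 * F0 - 4 * F2 + 2 * F1 := by rw [hF0, hF1, hF2]; ring
  have e1 : f1 = (4 * c - 3) * F0 + (4 - 8 * c) * F2 + (4 * c - 1) * F1 := by
    rw [hF0, hF1, hF2]; ring
  have hB : 0 ≤ B := (abs_nonneg _).trans h0
  constructor
  · have m : ∀ x F : ℝ, |F| ≤ B → |x * F| ≤ |x| * B := by
      intro x F hF; rw [abs_mul]; exact mul_le_mul_of_nonneg_left hF (abs_nonneg _)
    have m0 := m (4 * c - 3) F0 h0
    have m1 := m (4 * c - 1) F1 h1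
    have m2 := m (4 - 8 * c) F2 h2
    have hx : |4 * c - 3| + |4 - 8 * c| + |4 * c - 1| ≤ 8 := by
      rcases abs_cases (4 * c - 3) with ⟨a, _⟩ | ⟨a, _⟩ <;>
      rcases abs_cases (4 - 8 * c) with ⟨b, _⟩ | ⟨b, _⟩ <;>
      rcases abs_cases (4 * c - 1) with ⟨d, _⟩ | ⟨d, _⟩ <;> rw [a, b, d] <;> linarith
    rw [e1]
    have t1 := abs_add_le ((4 * c - 3) * F0 + (4 - 8 * c) * F2) ((4 * c - 1) * F1)
    have t2 := abs_add_le ((4 * c - 3) * F0) ((4 - 8 * c) * F2)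
    nlinarith
  · rw [e2, abs_le]
    rw [abs_le] at h0 h1 h2
    constructor <;> linarith [h0.1, h0.2, h1.1, h1.2, h2.1, h2.2]

theorem dt_le {x y : V3} {A B : ℝ} (hA : 0 ≤ A) (hx : ∀ k, |x k| ≤ A) (hy : ∀ k, |y k| ≤ B) :
    |dt x y| ≤ 3 * (A * B) := by
  unfold dt
  have h : ∀ k, |x k * y k| ≤ A * B := fun k => by
    rw [abs_mul]; exact mul_le_mul (hx k) (hy k) (abs_nonneg _) hA
  have := h 0; have := h 1; have := h 2
  have := abs_add_le (x 0 * y 0 + x 1 * y 1) (x 2 * y 2)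
  have := abs_add_le (x 0 * y 0) (x 1 * y 1)
  linarith

theorem pol_le {M : QF} {S r K : ℝ} (hM : M.Le S) {x t : V3} (hx : ∀ k, |x k| ≤ r)
    (ht : ∀ k, |t k| ≤ K) : |M.pol x t| ≤ 12 * (S * (r * K)) := by
  obtain ⟨m1, m2, m3, m4, m5, m6⟩ := hM
  have hS : 0 ≤ S := (abs_nonneg _).trans m1
  have hr : 0 ≤ r := (abs_nonneg _).trans (hx 0)
  have h : ∀ k l, |x k * t l| ≤ r * K := fun k l => by
    rw [abs_mul]; exact mul_le_mul (hx k) (ht l) (abs_nonneg _) hr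
  have h2 : ∀ k l k' l', |x k * t l + x k' * t l'| ≤ 2 * (r * K) := fun k l k' l' => by
    have := abs_add_le (x k * t l) (x k' * t l'); have := h k l; have := h k' l'; linarith
  have g1 : ∀ c : ℝ, |c| ≤ S → ∀ y, |y| ≤ r * K → |2 * c * y| ≤ 2 * (S * (r * K)) := by
    intro c hc y hy
    rw [abs_mul, abs_mul, abs_of_pos (by norm_num : (0 : ℝ) < 2), mul_assoc]
    have := mul_le_mul hc hy (abs_nonneg _) hS
    linarith
  have g2 : ∀ c : ℝ, |c| ≤ S → ∀ y, |y| ≤ 2 * (r * K) → |c * y| ≤ 2 * (S * (r * K)) := by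
    intro c hc y hy
    rw [abs_mul]
    have := mul_le_mul hc hy (abs_nonneg _) hS
    linarith
  have q1 := g1 _ m1 _ (h 0 0)
  have q2 := g2 _ m2 _ (h2 0 1 1 0)
  have q3 := g2 _ m3 _ (h2 0 2 2 0)
  have q4 := g1 _ m4 _ (h 1 1)
  have q5 := g2 _ m5 _ (h2 1 2 2 1)
  have q6 := g1 _ m6 _ (h 2 2)
  unfold QF.pol
  rw [abs_le] at q1 q2 q3 q4 q5 q6 ⊢
  constructor <;>
  linarith [q1.1, q1.2, q2.1, q2.2, q3.1, q3.2, q4.1, q4.2, q5.1, q5.2, q6.1, q6.2]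

/-- the two coefficients of a line -/
theorem line_coef {b0 b1 D t : V3} {M : QF} {c B K S ℓ r : ℝ} (hc0 : 0 ≤ c) (hc1 : c ≤ 1)
    (hF : ∀ z, 0 ≤ z → z ≤ 1 → |Fq b0 b1 M z (pos D t c z)| ≤ B) (hM : M.Le S)
    (hb1 : ∀ k, |b1 k| ≤ ℓ) (hD : ∀ k, |D k| ≤ r) (ht : ∀ k, |t k| ≤ K) :
    |dt (bz b0 b1 c) t| ≤ 8 * B + (3 * ℓ + 12 * (S * K)) * r ∧ |dt b1 t + M.ev t| ≤ 8 * B := by
  obtain ⟨h1, h2⟩ := quad_coef hc0 hc1 (fun z hz hz' => by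
    have := hF z hz hz'; rw [Fq_pos] at this; exact this)
  refine ⟨?_, h2⟩
  have hℓ : 0 ≤ ℓ := (abs_nonneg _).trans (hb1 0)
  have e : dt (bz b0 b1 c) t = (dt (bz b0 b1 c) t + dt b1 D + M.pol D t) - dt b1 D - M.pol D t := by
    ring
  rw [e]
  have h3 := dt_le hℓ hb1 hD
  have h4 := pol_le hM hD ht
  have h5 := abs_sub (dt (bz b0 b1 c) t + dt b1 D + M.pol D t - dt b1 D) (M.pol D t)
  have h6 := abs_sub (dt (bz b0 b1 c) t + dt b1 D + M.pol D t) (dt b1 D)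
  nlinarith

/-- the final arithmetic of the pencil lemma -/
theorem Xbound {η K r B0 B1 S : ℝ} (hη : 0 < η) (hη1 : η ≤ 1) (hK : 1 ≤ K) (hr : 0 ≤ r)
    (hB0 : 0 ≤ B0) (hB1 : 0 ≤ B1) (hS : 0 ≤ S) (hsm : 10 ^ 12 * K ^ 8 * (r + B0) ≤ η ^ 10) :
    3000000 * K ^ 4 * (8 * B1 + 3 * (720 * K ^ 2 * (8 * B1 + 15 * K * S * r) / η ^ 4 * K) +
      12 * K * S * (8 * B0 + 15 * K ^ 2 * r)) / η ^ 6 ≤
      10 ^ 11 * K ^ 7 * B1 / η ^ 10 + S / 2 := by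
  have hK0 : 0 < K := by linarith
  have e : 3000000 * K ^ 4 * (8 * B1 + 3 * (720 * K ^ 2 * (8 * B1 + 15 * K * S * r) / η ^ 4 * K) +
      12 * K * S * (8 * B0 + 15 * K ^ 2 * r)) / η ^ 6 =
      (24000000 * K ^ 4 * B1 * η ^ 4 + 51840000000 * K ^ 7 * B1 +
        (97200000000 * K ^ 8 * r + 36000000 * K ^ 5 * (8 * B0 + 15 * K ^ 2 * r) * η ^ 4) * S) /
        η ^ 10 := by
    field_simp
    ring
  have hsm' : 10 ^ 12 * (K ^ 8 * r) + 10 ^ 12 * (K ^ 8 * B0) ≤ η ^ 10 := by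
    refine le_trans (le_of_eq ?_) hsm
    ring
  have k2 : η ^ 4 ≤ 1 := pow_le_one₀ hη.le hη1
  have k7 : 0 ≤ K ^ 8 * B0 := by positivity
  have k8 : 0 ≤ K ^ 8 * r := by positivity
  have a1 : 24000000 * K ^ 4 * B1 * η ^ 4 ≤ 24000000 * (K ^ 7 * B1) := by
    have k1 : K ^ 4 ≤ K ^ 7 := pow_le_pow_right₀ hK (by norm_num)
    calc 24000000 * K ^ 4 * B1 * η ^ 4 ≤ 24000000 * K ^ 7 * B1 * 1 := by gcongr
      _ = _ := by ring
  have a2 : 97200000000 * K ^ 8 * r + 36000000 * K ^ 5 * (8 * B0 + 15 * K ^ 2 * r) * η ^ 4 ≤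
      η ^ 10 / 2 := by
    have k3 : 36000000 * K ^ 5 * (8 * B0 + 15 * K ^ 2 * r) * η ^ 4 ≤
        36000000 * K ^ 5 * (8 * B0 + 15 * K ^ 2 * r) :=
      mul_le_of_le_one_right (by positivity) k2
    have k4 : 36000000 * K ^ 5 * (8 * B0 + 15 * K ^ 2 * r) =
        288000000 * (K ^ 5 * B0) + 540000000 * (K ^ 7 * r) := by ring
    have k5 : K ^ 5 * B0 ≤ K ^ 8 * B0 :=
      mul_le_mul_of_nonneg_right (pow_le_pow_right₀ hK (by norm_num)) hB0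
    have k6 : K ^ 7 * r ≤ K ^ 8 * r :=
      mul_le_mul_of_nonneg_right (pow_le_pow_right₀ hK (by norm_num)) hr
    have k9 : 97200000000 * K ^ 8 * r = 97200000000 * (K ^ 8 * r) := by ring
    rw [k9]
    linarith
  have a3 := mul_le_mul_of_nonneg_right a2 hS
  have a4 : 0 ≤ K ^ 7 * B1 := by positivity
  have a5 : 24000000 * K ^ 4 * B1 * η ^ 4 + 51840000000 * K ^ 7 * B1 +
      (97200000000 * K ^ 8 * r + 36000000 * K ^ 5 * (8 * B0 + 15 * K ^ 2 * r) * η ^ 4) * S ≤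
      10 ^ 11 * K ^ 7 * B1 + η ^ 10 / 2 * S := by
    have k10 : 51840000000 * K ^ 7 * B1 = 51840000000 * (K ^ 7 * B1) := by ring
    have k11 : (10 : ℝ) ^ 11 * K ^ 7 * B1 = 10 ^ 11 * (K ^ 7 * B1) := by ring
    rw [k10, k11]
    linarith
  rw [e]
  have a6 : 10 ^ 11 * K ^ 7 * B1 / η ^ 10 + S / 2 =
      (10 ^ 11 * K ^ 7 * B1 + η ^ 10 / 2 * S) / η ^ 10 := by
    field_simp
  rw [a6]
  exact div_le_div_of_nonneg_right a5 (by positivity)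

/-- **the pencil lemma, curved case** -/
theorem pencil_curved {b0 b1 l0 l1 : V3} {G M : QF} {η K r B0 B1 : ℝ} (hη : 0 < η) (hη1 : η ≤ 1)
    (hK : 1 ≤ K) (hb0 : ∀ k, |b0 k| ≤ K) (hb1 : ∀ k, |b1 k| ≤ K) (hG : G.Le K)
    (hs0 : 1 / 2 ≤ b0 0) (hs0' : b0 0 ≤ 2) (hs1 : 1 / 2 ≤ b0 0 + b1 0) (hs1' : b0 0 + b1 0 ≤ 2)
    (hw : η ≤ |b0 0 * b1 1 - b1 0 * b0 1| ∨ η ≤ |b0 0 * b1 2 - b1 0 * b0 2|)
    (hl : l0 0 = 0) {z : Fin 3 → ℝ} (hz : ∀ i, 0 ≤ z i ∧ z i ≤ 1)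
    (hzd : ∀ i j, i ≠ j → η ≤ |z i - z j|) {D t : Fin 3 → Fin 3 → V3}
    (hD : ∀ i j k, |D i j k| ≤ r) (ht : ∀ i j k, |t i j k| ≤ K)
    (htd : ∀ i j j', j ≠ j' → η ≤ |t i j 1 * t i j' 2 - t i j' 1 * t i j 2|)
    (h0 : ∀ i j z', 0 ≤ z' → z' ≤ 1 → |Fq b0 b1 G z' (pos (D i j) (t i j) (z i) z')| ≤ B0)
    (h1 : ∀ i j z', 0 ≤ z' → z' ≤ 1 → |Fq l0 l1 M z' (pos (D i j) (t i j) (z i) z')| ≤ B1)
    (hsm : 10 ^ 12 * K ^ 8 * (r + B0) ≤ η ^ 10) :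
    (∀ k, |l0 k| ≤ 2 * 10 ^ 11 * K ^ 7 * B1 / η ^ 10 ∧
      |l1 k| ≤ 2 * 10 ^ 11 * K ^ 7 * B1 / η ^ 10) ∧ M.Le (2 * 10 ^ 11 * K ^ 7 * B1 / η ^ 10) := by
  have hr : 0 ≤ r := (abs_nonneg _).trans (hD 0 0 0)
  have hB0 : 0 ≤ B0 := (abs_nonneg _).trans (h0 0 0 0 le_rfl zero_le_one)
  have hB1 : 0 ≤ B1 := (abs_nonneg _).trans (h1 0 0 0 le_rfl zero_le_one)
  have hK0 : 0 < K := by linarith
  -- the maximal coefficient
  obtain ⟨S, hS1, hS2, hS3⟩ : ∃ S : ℝ, (∀ k, |l1 k| ≤ S) ∧ M.Le S ∧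
      ∀ X : ℝ, (∀ k, |l1 k| ≤ X) → M.Le X → S ≤ X := by
    refine ⟨max (max (max |l1 0| |l1 1|) |l1 2|) (max (max (max |M.yy| |M.yu|) |M.yv|)
      (max (max |M.uu| |M.uv|) |M.vv|)), ?_, ?_, ?_⟩
    · intro k
      fin_cases k <;> simp
    · refine ⟨?_, ?_, ?_, ?_, ?_, ?_⟩ <;> simp
    · intro X h1 h2
      obtain ⟨m1, m2, m3, m4, m5, m6⟩ := h2
      exact max_le (max_le (max_le (h1 0) (h1 1)) (h1 2))
        (max_le (max_le (max_le m1 m2) m3) (max_le (max_le m4 m5) m6))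
  have hS0 : 0 ≤ S := (abs_nonneg _).trans (hS1 0)
  set e1 := 8 * B0 + 15 * K ^ 2 * r with he1
  have he10 : 0 ≤ e1 := by positivity
  set e3 := 8 * B1 + 15 * K * S * r with he3
  have he30 : 0 ≤ e3 := by positivity
  have hA0 : ∀ i j, |dt (bz b0 b1 (z i)) (t i j)| ≤ e1 := by
    intro i j
    refine (line_coef (hz i).1 (hz i).2 (h0 i j) hG hb1 (hD i j) (ht i j)).1.trans ?_
    rw [he1]
    have : K ≤ K ^ 2 := by nlinarith
    nlinarith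
  have hA : ∀ i j, |dt (bz l0 l1 (z i)) (t i j)| ≤ e3 := by
    intro i j
    refine (line_coef (hz i).1 (hz i).2 (h1 i j) hS2 hS1 (hD i j) (ht i j)).1.trans ?_
    rw [he3]
    have : 3 * S * r ≤ 3 * K * S * r := by
      have h5 : 0 ≤ S * r := by positivity
      nlinarith
    nlinarith
  have hB : ∀ i j, |dt l1 (t i j) + M.ev (t i j)| ≤ 8 * B1 := fun i j =>
    (line_coef (hz i).1 (hz i).2 (h1 i j) hS2 hS1 (hD i j) (ht i j)).2
  -- smallness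
  have hη4 : η ^ 10 ≤ η ^ 4 := pow_le_pow_of_le_one hη.le hη1 (by norm_num)
  have hη10 : η ^ 10 ≤ 1 := pow_le_one₀ hη.le hη1
  have hη10' : 0 < η ^ 10 := by positivity
  have hK8 : ∀ n : ℕ, n ≤ 8 → K ^ n ≤ K ^ 8 := fun n hn => pow_le_pow_right₀ hK hn
  have sm1 : 120 * K * e1 ≤ η ^ 4 := by
    refine le_trans ?_ (hsm.trans hη4)
    have k1 : K ≤ K ^ 8 := by simpa using hK8 1 (by norm_num)
    have k3 := hK8 3 (by norm_num)
    have : 120 * K * e1 = 960 * (K * B0) + 1800 * (K ^ 3 * r) := by rw [he1]; ring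
    rw [this]
    have a1 : K * B0 ≤ K ^ 8 * B0 := by gcongr
    have a2 : K ^ 3 * r ≤ K ^ 8 * r := by gcongr
    have a3 : 0 ≤ K ^ 8 * B0 := by positivity
    have a4 : 0 ≤ K ^ 8 * r := by positivity
    nlinarith
  have sm2 : e1 ≤ K := by
    have : 120 * e1 ≤ 120 * K * e1 := by nlinarith
    have : η ^ 4 ≤ 1 := pow_le_one₀ hη.le hη1
    linarith
  have L := linpart hη hη1 hK hb0 hs0 hs0' hs1 hs1' hw hl hz hzd ht htd hA0 hA sm1
  set ℓ := 720 * K ^ 2 * e3 / η ^ 4 with hℓ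
  have hQ : ∀ i j, |M.ev (t i j)| ≤ 8 * B1 + 3 * (ℓ * K) := by
    intro i j
    have e : M.ev (t i j) = (dt l1 (t i j) + M.ev (t i j)) - dt l1 (t i j) := by ring
    rw [e]
    refine (abs_sub _ _).trans (add_le_add (hB i j) ?_)
    exact dt_le (by positivity) (fun k => (L k).2) (ht i j)
  have Q := quadpart hη hK hb0 hb1 hs0 hs0' hs1 hs1' hw hz hzd ht htd hA0 sm2 hS2 hQ
  set X := 3000000 * K ^ 4 * (8 * B1 + 3 * (ℓ * K) + 12 * K * S * e1) / η ^ 6 with hX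
  -- everything is at most `X`
  have hη64 : η ^ 6 ≤ η ^ 4 := pow_le_pow_of_le_one hη.le hη1 (by norm_num)
  have hη61 : η ^ 6 ≤ 1 := pow_le_one₀ hη.le hη1
  have hℓ0 : 0 ≤ ℓ := by positivity
  have hℓX : ℓ ≤ X := by
    rw [hX, le_div_iff₀ (by positivity)]
    have a1 : ℓ * η ^ 6 ≤ ℓ := mul_le_of_le_one_right hℓ0 hη61
    have a2 : ℓ ≤ ℓ * K := le_mul_of_one_le_right hℓ0 hK
    have a3 : (1 : ℝ) ≤ K ^ 4 := one_le_pow₀ hK
    have a4 : 0 ≤ 12 * K * S * e1 := by positivity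
    have a6 : 0 ≤ ℓ * K := by positivity
    have a5 : 1 * (8 * B1 + 3 * (ℓ * K) + 12 * K * S * e1) ≤
        3000000 * K ^ 4 * (8 * B1 + 3 * (ℓ * K) + 12 * K * S * e1) :=
      mul_le_mul_of_nonneg_right (by linarith) (by linarith)
    linarith
  have hSX : S ≤ X := hS3 X (fun k => (L k).2.trans hℓX) Q
  -- the bound of `X`
  have hXb : X ≤ 10 ^ 11 * K ^ 7 * B1 / η ^ 10 + S / 2 := by
    rw [hX, hℓ, he3, he1]
    exact Xbound hη hη1 hK hr hB0 hB1 hS0 hsm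
  have hSb : S ≤ 2 * 10 ^ 11 * K ^ 7 * B1 / η ^ 10 := by
    have : 2 * 10 ^ 11 * K ^ 7 * B1 / η ^ 10 = 2 * (10 ^ 11 * K ^ 7 * B1 / η ^ 10) := by ring
    rw [this]; linarith
  have hXX : X ≤ 2 * 10 ^ 11 * K ^ 7 * B1 / η ^ 10 := by
    have : 2 * 10 ^ 11 * K ^ 7 * B1 / η ^ 10 = 2 * (10 ^ 11 * K ^ 7 * B1 / η ^ 10) := by ring
    rw [this] at hSb ⊢; linarith
  refine ⟨fun k => ⟨(L k).1.trans (hℓX.trans hXX), (L k).2.trans (hℓX.trans hXX)⟩, ?_⟩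
  obtain ⟨m1, m2, m3, m4, m5, m6⟩ := Q
  exact ⟨m1.trans hXX, m2.trans hXX, m3.trans hXX, m4.trans hXX, m5.trans hXX, m6.trans hXX⟩

end Crest.Agent.R136.Tl102
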