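import Crest.Agent.R136.Nd2_214
import Crest.Agent.R136.Tl2_102

/-!
# R136, non-degeneracy of near-maximal sheets (helper214), part 3: lines of one sheet near one line,
in normalised coordinates
-/

set_option autoImplicit false
set_option linter.unusedVariables false
set_option linter.unusedSectionVars false

namespace Crest.Agent.R136.Nd214

open Crest.Agent.R136.Tl214

variable {E : Type*} [AddCommGroup E] [Module ℝ E]

/-- normalised data of a line `(x0, τ0)` of a sheet -/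
structure Loc (q : QP E) (eA eB eY x0 τ0 : E) (a : ℝ) : Prop where
  a0 : 0 ≤ a
  a1 : a ≤ 1 / 1000
  gA : q.G x0 eA = 0
  gB : q.G x0 eB = 0
  g : ∀ s : ℝ, 0 ≤ s → s ≤ 1 → 1 / 2 ≤ q.G (x0 + s • τ0) eY ∧ q.G (x0 + s • τ0) eY ≤ 2
  f0 : ∀ s : ℝ, 0 ≤ s → s ≤ 1 → |q.f (x0 + s • τ0)| ≤ a
  HAA : |q.H eA eA| ≤ 1
  HAB : |q.H eA eB| ≤ 1
  HBB : |q.H eB eB| ≤ 1
  HτA : |q.H τ0 eA| ≤ 1
  HτB : |q.H τ0 eB| ≤ 1
  HAY : |q.H eA eY| ≤ 5
  HBY : |q.H eB eY| ≤ 5
  HYY : |q.H eY eY| ≤ 21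
  HτY : |q.H τ0 eY| ≤ 1

/-- another line of the sheet -/
structure Lin (q : QP E) (eA eB eY x0 τ0 : E) (a : ℝ) (p τ : E) (uA uB uY vA vB vY : ℝ) :
    Prop where
  hp : p = x0 + (uA • eA + uB • eB + uY • eY)
  hτ : τ = τ0 + (vA • eA + vB • eB + vY • eY)
  bA : ∀ s : ℝ, 0 ≤ s → s ≤ 1 → |uA + s * vA| ≤ 1 / 1000
  bB : ∀ s : ℝ, 0 ≤ s → s ≤ 1 → |uB + s * vB| ≤ 1 / 1000
  bY : ∀ s : ℝ, 0 ≤ s → s ≤ 1 → |uY + s * vY| * |q.H eY eY| ≤ 1 / 100
  hf : ∀ s : ℝ, 0 ≤ s → s ≤ 1 → |q.f (p + s • τ)| ≤ a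
  hg : ∀ s : ℝ, 0 ≤ s → s ≤ 1 → 1 / 2 ≤ q.G (p + s • τ) eY ∧ q.G (p + s • τ) eY ≤ 2

variable {q : QP E} {eA eB eY x0 τ0 p τ : E} {a uA uB uY vA vB vY : ℝ}

theorem Lin.pt (T : Lin q eA eB eY x0 τ0 a p τ uA uB uY vA vB vY) (s : ℝ) :
    p + s • τ = (x0 + s • τ0) +
      ((uA + s * vA) • eA + (uB + s * vB) • eB + (uY + s * vY) • eY) := by
  rw [T.hp, T.hτ]
  module

/-- value at a perturbed point -/
theorem val3 (q : QP E) (x eA eB eY : E) (U V W : ℝ) :
    q.f (x + (U • eA + V • eB + W • eY)) = q.f x + (U * q.G x eA + V * q.G x eB + W * q.G x eY) +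
      (U ^ 2 * q.H eA eA + 2 * (U * V) * q.H eA eB + V ^ 2 * q.H eB eB +
        W * (2 * U * q.H eA eY + 2 * V * q.H eB eY + W * q.H eY eY)) := by
  rw [q.taylor]
  simp only [q.G_add', q.G_smul, map_add, map_smul, LinearMap.add_apply, LinearMap.smul_apply,
    smul_eq_mul]
  rw [q.symm eB eA, q.symm eY eA, q.symm eY eB]
  ring

/-- normal displacement -/
theorem W_le {g D W R : ℝ} (hg : 1 / 2 ≤ g) (hD : |D| ≤ 1 / 10) (h : |W * (g + D)| ≤ R) :
    |W| ≤ 5 / 2 * R := by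
  rw [abs_mul] at h
  have h1 : 2 / 5 ≤ |g + D| := by
    have : 2 / 5 ≤ g + D := by linarith [(abs_le.1 hD).1]
    exact this.trans (le_abs_self _)
  have := abs_nonneg W
  nlinarith

theorem Lin.uY_le (L : Loc q eA eB eY x0 τ0 a) (T : Lin q eA eB eY x0 τ0 a p τ uA uB uY vA vB vY)
    {s : ℝ} (hs : 0 ≤ s) (hs1 : s ≤ 1) : |uY + s * vY| ≤ 1 / 50 := by
  have h1 := T.hf s hs hs1
  rw [T.pt s, val3] at h1
  have h0 := L.f0 s hs hs1
  obtain ⟨g1, g2⟩ := L.g s hs hs1
  have hU := T.bA s hs hs1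
  have hV := T.bB s hs hs1
  have hW := T.bY s hs hs1
  set U := uA + s * vA with hUe
  set V := uB + s * vB with hVe
  set W := uY + s * vY with hWe
  have gA : q.G (x0 + s • τ0) eA = 2 * (s * q.H τ0 eA) := by
    rw [q.G_add, L.gA, map_smul, LinearMap.smul_apply, smul_eq_mul]; ring
  have gB : q.G (x0 + s • τ0) eB = 2 * (s * q.H τ0 eB) := by
    rw [q.G_add, L.gB, map_smul, LinearMap.smul_apply, smul_eq_mul]; ring
  rw [gA, gB] at h1
  have hs' : |s| ≤ 1 := abs_le.2 ⟨by linarith, hs1⟩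
  have k1 : |U * (2 * (s * q.H τ0 eA))| ≤ 1 / 1000 * (2 * (1 * 1)) :=
    abs_mul_le' hU (by rw [abs_mul, abs_two]; gcongr; exact abs_mul_le' hs' L.HτA)
  have k2 : |V * (2 * (s * q.H τ0 eB))| ≤ 1 / 1000 * (2 * (1 * 1)) :=
    abs_mul_le' hV (by rw [abs_mul, abs_two]; gcongr; exact abs_mul_le' hs' L.HτB)
  have k3 : |U ^ 2 * q.H eA eA| ≤ 1 / 100000 := by
    rw [sq, mul_assoc]
    refine (abs_mul_le' hU (abs_mul_le' hU L.HAA)).trans (by norm_num)
  have k4 : |2 * (U * V) * q.H eA eB| ≤ 1 / 100000 := by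
    rw [mul_assoc, mul_assoc]
    refine (abs_mul_le' (le_of_eq abs_two) (abs_mul_le' hU (abs_mul_le' hV L.HAB))).trans
      (by norm_num)
  have k5 : |V ^ 2 * q.H eB eB| ≤ 1 / 100000 := by
    rw [sq, mul_assoc]
    refine (abs_mul_le' hV (abs_mul_le' hV L.HBB)).trans (by norm_num)
  have k6 : |2 * U * q.H eA eY + 2 * V * q.H eB eY + W * q.H eY eY| ≤ 1 / 10 := by
    have e1 : |2 * U * q.H eA eY| ≤ 2 * (1 / 1000) * 5 :=
      abs_mul_le' (abs_mul_le' (le_of_eq abs_two) hU) L.HAY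
    have e2 : |2 * V * q.H eB eY| ≤ 2 * (1 / 1000) * 5 :=
      abs_mul_le' (abs_mul_le' (le_of_eq abs_two) hV) L.HBY
    have e3 : |W * q.H eY eY| ≤ 1 / 100 := by rw [abs_mul]; exact hW
    refine (abs_add3 _ _ _).trans ?_
    linarith
  have h2 : |W * (q.G (x0 + s • τ0) eY + (2 * U * q.H eA eY + 2 * V * q.H eB eY + W * q.H eY eY))| ≤
      8 / 1000 := by
    have e : W * (q.G (x0 + s • τ0) eY + (2 * U * q.H eA eY + 2 * V * q.H eB eY +
        W * q.H eY eY)) = (q.f (x0 + s • τ0) + (U * (2 * (s * q.H τ0 eA)) +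
        V * (2 * (s * q.H τ0 eB)) + W * q.G (x0 + s • τ0) eY) + (U ^ 2 * q.H eA eA +
        2 * (U * V) * q.H eA eB + V ^ 2 * q.H eB eB + W * (2 * U * q.H eA eY +
        2 * V * q.H eB eY + W * q.H eY eY))) - q.f (x0 + s • τ0) - U * (2 * (s * q.H τ0 eA)) -
        V * (2 * (s * q.H τ0 eB)) - U ^ 2 * q.H eA eA - 2 * (U * V) * q.H eA eB -
        V ^ 2 * q.H eB eB := by ring
    rw [e]
    have ha1 := L.a1
    rw [abs_le] at h1 h0 k1 k2 k3 k4 k5 ⊢
    constructor <;> linarith [h1.1, h1.2, h0.1, h0.2, k1.1, k1.2, k2.1, k2.2, k3.1, k3.2, k4.1,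
      k4.2, k5.1, k5.2]
  refine (W_le g1 k6 h2).trans (by norm_num)

theorem Lin.vA_le (T : Lin q eA eB eY x0 τ0 a p τ uA uB uY vA vB vY) : |vA| ≤ 1 / 500 := by
  have h0 := T.bA 0 le_rfl zero_le_one
  have h1 := T.bA 1 zero_le_one le_rfl
  rw [zero_mul, add_zero] at h0
  rw [one_mul] at h1
  rw [abs_le] at h0 h1 ⊢
  constructor <;> linarith [h0.1, h0.2, h1.1, h1.2]

theorem Lin.vB_le (T : Lin q eA eB eY x0 τ0 a p τ uA uB uY vA vB vY) : |vB| ≤ 1 / 500 := by
  have h0 := T.bB 0 le_rfl zero_le_one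
  have h1 := T.bB 1 zero_le_one le_rfl
  rw [zero_mul, add_zero] at h0
  rw [one_mul] at h1
  rw [abs_le] at h0 h1 ⊢
  constructor <;> linarith [h0.1, h0.2, h1.1, h1.2]

theorem Lin.vY_le (L : Loc q eA eB eY x0 τ0 a)
    (T : Lin q eA eB eY x0 τ0 a p τ uA uB uY vA vB vY) : |vY| ≤ 1 / 25 := by
  have h0 := T.uY_le L le_rfl zero_le_one
  have h1 := T.uY_le L zero_le_one le_rfl
  rw [zero_mul, add_zero] at h0
  rw [one_mul] at h1
  rw [abs_le] at h0 h1 ⊢
  constructor <;> linarith [h0.1, h0.2, h1.1, h1.2]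

/-- slopes -/
theorem Lin.slopeA (L : Loc q eA eB eY x0 τ0 a)
    (T : Lin q eA eB eY x0 τ0 a p τ uA uB uY vA vB vY) {s : ℝ} (hs : 0 ≤ s) (hs1 : s ≤ 1) :
    |q.G (p + s • τ) eA / q.G (p + s • τ) eY| ≤ 5 := by
  obtain ⟨g1, g2⟩ := T.hg s hs hs1
  have e : q.G (p + s • τ) eA = 2 * (s * q.H τ0 eA + (uA + s * vA) * q.H eA eA +
      (uB + s * vB) * q.H eA eB + (uY + s * vY) * q.H eA eY) := by
    rw [T.pt s, q.G_add, q.G_add, L.gA]
    simp only [map_add, map_smul, LinearMap.add_apply, LinearMap.smul_apply, smul_eq_mul]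
    rw [q.symm eB eA, q.symm eY eA]
    ring
  have hs' : |s| ≤ 1 := abs_le.2 ⟨by linarith, hs1⟩
  have k1 := abs_mul_le' hs' L.HτA
  have k2 := abs_mul_le' (T.bA s hs hs1) L.HAA
  have k3 := abs_mul_le' (T.bB s hs hs1) L.HAB
  have k4 := abs_mul_le' (T.uY_le L hs hs1) L.HAY
  have k : |q.G (p + s • τ) eA| ≤ 5 / 2 := by
    rw [e, abs_mul, abs_two]
    have := (abs_add_le (s * q.H τ0 eA + (uA + s * vA) * q.H eA eA + (uB + s * vB) * q.H eA eB)
      ((uY + s * vY) * q.H eA eY))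
    have := abs_add3 (s * q.H τ0 eA) ((uA + s * vA) * q.H eA eA) ((uB + s * vB) * q.H eA eB)
    linarith
  rw [abs_div, abs_of_pos (by linarith : 0 < q.G (p + s • τ) eY), div_le_iff₀ (by linarith)]
  linarith

theorem Lin.slopeB (L : Loc q eA eB eY x0 τ0 a)
    (T : Lin q eA eB eY x0 τ0 a p τ uA uB uY vA vB vY) {s : ℝ} (hs : 0 ≤ s) (hs1 : s ≤ 1) :
    |q.G (p + s • τ) eB / q.G (p + s • τ) eY| ≤ 5 := by
  obtain ⟨g1, g2⟩ := T.hg s hs hs1
  have e : q.G (p + s • τ) eB = 2 * (s * q.H τ0 eB + (uA + s * vA) * q.H eA eB +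
      (uB + s * vB) * q.H eB eB + (uY + s * vY) * q.H eB eY) := by
    rw [T.pt s, q.G_add, q.G_add, L.gB]
    simp only [map_add, map_smul, LinearMap.add_apply, LinearMap.smul_apply, smul_eq_mul]
    rw [q.symm eY eB]
    ring
  have hs' : |s| ≤ 1 := abs_le.2 ⟨by linarith, hs1⟩
  have k1 := abs_mul_le' hs' L.HτB
  have k2 := abs_mul_le' (T.bA s hs hs1) L.HAB
  have k3 := abs_mul_le' (T.bB s hs hs1) L.HBB
  have k4 := abs_mul_le' (T.uY_le L hs hs1) L.HBY
  have k : |q.G (p + s • τ) eB| ≤ 5 / 2 := by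
    rw [e, abs_mul, abs_two]
    have := (abs_add_le (s * q.H τ0 eB + (uA + s * vA) * q.H eA eB + (uB + s * vB) * q.H eB eB)
      ((uY + s * vY) * q.H eB eY))
    have := abs_add3 (s * q.H τ0 eB) ((uA + s * vA) * q.H eA eB) ((uB + s * vB) * q.H eB eB)
    linarith
  rw [abs_div, abs_of_pos (by linarith : 0 < q.G (p + s • τ) eY), div_le_iff₀ (by linarith)]
  linarith

/-- frame bounds at every point of every line -/
theorem Lin.frm (L : Loc q eA eB eY x0 τ0 a)
    (T : Lin q eA eB eY x0 τ0 a p τ uA uB uY vA vB vY) {s : ℝ} (hs : 0 ≤ s) (hs1 : s ≤ 1) :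
    Frm q eA eB eY (p + s • τ) τ 600 := by
  have mA := T.slopeA L hs hs1
  have mB := T.slopeB L hs hs1
  obtain ⟨g1, g2⟩ := T.hg s hs hs1
  set x := p + s • τ with hx
  have lA : lift q eY x eA = eA - (q.G x eA / q.G x eY) • eY := rfl
  have lB : lift q eY x eB = eB - (q.G x eB / q.G x eY) • eY := rfl
  set m := q.G x eA / q.G x eY with hm
  set n := q.G x eB / q.G x eY with hn
  have hvA := T.vA_le
  have hvB := T.vB_le
  have hvY := T.vY_le L
  have hAA := L.HAA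
  have hAB := L.HAB
  have hBB := L.HBB
  have hAY := L.HAY
  have hBY := L.HBY
  have hYY := L.HYY
  -- products
  have mAY := abs_mul_le' mA hAY
  have mBY := abs_mul_le' mA hBY
  have nAY := abs_mul_le' mB hAY
  have nBY := abs_mul_le' mB hBY
  have mYY := abs_mul_le' mA hYY
  have nYY := abs_mul_le' mB hYY
  have mmYY := abs_mul_le' mA mYY
  have mnYY := abs_mul_le' mA nYY
  have nnYY := abs_mul_le' mB nYY
  have bτY : |q.H τ eY| ≤ 5 / 2 := by
    rw [T.hτ]
    simp only [map_add, map_smul, LinearMap.add_apply, LinearMap.smul_apply, smul_eq_mul]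
    have k1 := abs_mul_le' hvA hAY
    have k2 := abs_mul_le' hvB hBY
    have k3 := abs_mul_le' hvY hYY
    have k4 := L.HτY
    have := abs_add_le (q.H τ0 eY) (vA * q.H eA eY + vB * q.H eB eY + vY * q.H eY eY)
    have := abs_add3 (vA * q.H eA eY) (vB * q.H eB eY) (vY * q.H eY eY)
    linarith
  have bτA : |q.H τ eA| ≤ 2 := by
    rw [T.hτ]
    simp only [map_add, map_smul, LinearMap.add_apply, LinearMap.smul_apply, smul_eq_mul]
    have k1 := abs_mul_le' hvA hAA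
    have k2 := abs_mul_le' hvB (show |q.H eB eA| ≤ 1 by rw [q.symm]; exact hAB)
    have k3 := abs_mul_le' hvY (show |q.H eY eA| ≤ 5 by rw [q.symm]; exact hAY)
    have k4 := L.HτA
    have := abs_add_le (q.H τ0 eA) (vA * q.H eA eA + vB * q.H eB eA + vY * q.H eY eA)
    have := abs_add3 (vA * q.H eA eA) (vB * q.H eB eA) (vY * q.H eY eA)
    linarith
  have bτB : |q.H τ eB| ≤ 2 := by
    rw [T.hτ]
    simp only [map_add, map_smul, LinearMap.add_apply, LinearMap.smul_apply, smul_eq_mul]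
    have k1 := abs_mul_le' hvA hAB
    have k2 := abs_mul_le' hvB hBB
    have k3 := abs_mul_le' hvY (show |q.H eY eB| ≤ 5 by rw [q.symm]; exact hBY)
    have k4 := L.HτB
    have := abs_add_le (q.H τ0 eB) (vA * q.H eA eB + vB * q.H eB eB + vY * q.H eY eB)
    have := abs_add3 (vA * q.H eA eB) (vB * q.H eB eB) (vY * q.H eY eB)
    linarith
  have mτ := abs_mul_le' mA bτY
  have nτ := abs_mul_le' mB bτY
  refine ⟨by norm_num, g1, g2, ?_, ?_, ?_, ?_, ?_, ?_, ?_, ?_, ?_⟩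
  · have e : q.H (lift q eY x eA) (lift q eY x eA) =
        q.H eA eA - 2 * (m * q.H eA eY) + m * (m * q.H eY eY) := by
      rw [lA]
      simp only [map_sub, map_smul, LinearMap.sub_apply, LinearMap.smul_apply, smul_eq_mul]
      rw [q.symm eY eA]; ring
    rw [e]
    rw [abs_le] at hAA mAY mmYY ⊢
    constructor <;> linarith [hAA.1, hAA.2, mAY.1, mAY.2, mmYY.1, mmYY.2]
  · have e : q.H (lift q eY x eA) (lift q eY x eB) =
        q.H eA eB - n * q.H eA eY - m * q.H eB eY + m * (n * q.H eY eY) := by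
      rw [lA, lB]
      simp only [map_sub, map_smul, LinearMap.sub_apply, LinearMap.smul_apply, smul_eq_mul]
      rw [q.symm eY eB]; ring
    rw [e]
    rw [abs_le] at hAB nAY mBY mnYY ⊢
    constructor <;> linarith [hAB.1, hAB.2, nAY.1, nAY.2, mBY.1, mBY.2, mnYY.1, mnYY.2]
  · have e : q.H (lift q eY x eB) (lift q eY x eB) =
        q.H eB eB - 2 * (n * q.H eB eY) + n * (n * q.H eY eY) := by
      rw [lB]
      simp only [map_sub, map_smul, LinearMap.sub_apply, LinearMap.smul_apply, smul_eq_mul]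
      rw [q.symm eY eB]; ring
    rw [e]
    rw [abs_le] at hBB nBY nnYY ⊢
    constructor <;> linarith [hBB.1, hBB.2, nBY.1, nBY.2, nnYY.1, nnYY.2]
  · have e : q.H (lift q eY x eA) eY = q.H eA eY - m * q.H eY eY := by
      rw [lA]
      simp only [map_sub, map_smul, LinearMap.sub_apply, LinearMap.smul_apply, smul_eq_mul]
    rw [e]
    rw [abs_le] at hAY mYY ⊢
    constructor <;> linarith [hAY.1, hAY.2, mYY.1, mYY.2]
  · have e : q.H (lift q eY x eB) eY = q.H eB eY - n * q.H eY eY := by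
      rw [lB]
      simp only [map_sub, map_smul, LinearMap.sub_apply, LinearMap.smul_apply, smul_eq_mul]
    rw [e]
    rw [abs_le] at hBY nYY ⊢
    constructor <;> linarith [hBY.1, hBY.2, nYY.1, nYY.2]
  · exact hYY.trans (by norm_num)
  · have e : q.H τ (lift q eY x eA) = q.H τ eA - m * q.H τ eY := by
      rw [lA]
      simp only [map_sub, map_smul, LinearMap.sub_apply, LinearMap.smul_apply, smul_eq_mul]
    rw [e]
    rw [abs_le] at bτA mτ ⊢
    constructor <;> linarith [bτA.1, bτA.2, mτ.1, mτ.2]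
  · have e : q.H τ (lift q eY x eB) = q.H τ eB - n * q.H τ eY := by
      rw [lB]
      simp only [map_sub, map_smul, LinearMap.sub_apply, LinearMap.smul_apply, smul_eq_mul]
    rw [e]
    rw [abs_le] at bτB nτ ⊢
    constructor <;> linarith [bτB.1, bτB.2, nτ.1, nτ.2]
  · exact bτY.trans (by norm_num)

/-- coefficients along the line -/
theorem Lin.coef (T : Lin q eA eB eY x0 τ0 a p τ uA uB uY vA vB vY) {s : ℝ} (hs : 0 ≤ s)
    (hs1 : s ≤ 1) : |q.G (p + s • τ) τ| ≤ 8 * a ∧ |q.H τ τ| ≤ 8 * a := by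
  refine Tl102.quad_coef (f0 := q.f (p + s • τ)) hs hs1 fun z hz hz1 => ?_
  have h := T.hf z hz hz1
  have e : p + z • τ = (p + s • τ) + (z - s) • τ := by module
  rw [e, q.taylor] at h
  simp only [q.G_smul, map_smul, LinearMap.smul_apply, smul_eq_mul] at h
  have e2 : q.f (p + s • τ) + (z - s) * q.G (p + s • τ) τ + (z - s) * ((z - s) * q.H τ τ) =
    q.f (p + s • τ) + q.G (p + s • τ) τ * (z - s) + q.H τ τ * (z - s) ^ 2 := by ring
  rwa [e2] at h

/-- **two lines through one small cell** -/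
theorem Lin.two {p' τ' : E} {uA' uB' uY' vA' vB' vY' r : ℝ} (L : Loc q eA eB eY x0 τ0 a)
    (T : Lin q eA eB eY x0 τ0 a p τ uA uB uY vA vB vY)
    (T' : Lin q eA eB eY x0 τ0 a p' τ' uA' uB' uY' vA' vB' vY') {s : ℝ} (hs : 0 ≤ s)
    (hs1 : s ≤ 1) (hr0 : 0 ≤ r) (hr1 : r ≤ 1 / 100000)
    (hA : |(uA' + s * vA') - (uA + s * vA)| ≤ r) (hB : |(uB' + s * vB') - (uB + s * vB)| ≤ r) :
    ∃ y xY : ℝ, p' + s • τ' = (p + s • τ) +
        (((uA' + s * vA') - (uA + s * vA)) • lift q eY (p + s • τ) eA +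
          ((uB' + s * vB') - (uB + s * vB)) • lift q eY (p + s • τ) eB + xY • eY) ∧
      τ' = τ + ((vA' - vA) • lift q eY (p + s • τ) eA + (vB' - vB) • lift q eY (p + s • τ) eB +
        y • eY) ∧
      Two q eA eB eY (p + s • τ) τ 600 (8 * a) (5 * (a + r)) (vA' - vA) (vB' - vB) y
        ((uA' + s * vA') - (uA + s * vA)) ((uB' + s * vB') - (uB + s * vB)) xY := by
  have F := T.frm L hs hs1
  have mA := T.slopeA L hs hs1
  have mB := T.slopeB L hs hs1
  obtain ⟨g1, g2⟩ := T.hg s hs hs1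
  obtain ⟨g1', g2'⟩ := T'.hg s hs hs1
  have ha0 := L.a0
  have c1 := T.coef hs hs1
  have c1' := T'.coef hs hs1
  have hf := T.hf s hs hs1
  have hf' := T'.hf s hs hs1
  have pt := T.pt s
  have pt' := T'.pt s
  have bY := T.bY s hs hs1
  have bY' := T'.bY s hs hs1
  set x := p + s • τ with hx
  have n0 : q.G x eY ≠ 0 := by linarith
  set m := q.G x eA / q.G x eY with hm
  set n := q.G x eB / q.G x eY with hn
  have lA : lift q eY x eA = eA - m • eY := rfl
  have lB : lift q eY x eB = eB - n • eY := rfl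
  set dU := (uA' + s * vA') - (uA + s * vA) with hdU
  set dV := (uB' + s * vB') - (uB + s * vB) with hdV
  set dW := (uY' + s * vY') - (uY + s * vY) with hdW
  have ex : p' + s • τ' = x + (dU • lift q eY x eA + dV • lift q eY x eB +
      (dW + m * dU + n * dV) • eY) := by
    rw [lA, lB, pt', pt, hdU, hdV, hdW]
    module
  have eτ : τ' = τ + ((vA' - vA) • lift q eY x eA + (vB' - vB) • lift q eY x eB +
      ((vY' - vY) + m * (vA' - vA) + n * (vB' - vB)) • eY) := by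
    rw [T'.hτ, T.hτ, lA, lB]
    module
  -- normal offset
  have hY : |dW + m * dU + n * dV| ≤ 5 * (a + r) := by
    rw [ex, val3, G_lift n0, G_lift n0] at hf'
    set xY := dW + m * dU + n * dV with hxY
    have kmU := abs_mul_le' mA hA
    have knV := abs_mul_le' mB hB
    have kYY : |xY * q.H eY eY| ≤ 1 / 40 := by
      have e1 : xY * q.H eY eY = (uY' + s * vY') * q.H eY eY - (uY + s * vY) * q.H eY eY +
          (m * dU) * q.H eY eY + (n * dV) * q.H eY eY := by rw [hxY, hdW]; ring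
      have e2 := abs_mul_le' kmU L.HYY
      have e3 := abs_mul_le' knV L.HYY
      rw [← abs_mul] at bY bY'
      rw [e1]
      rw [abs_le] at bY bY' e2 e3 ⊢
      constructor <;> linarith [bY.1, bY.2, bY'.1, bY'.2, e2.1, e2.2, e3.1, e3.2]
    have k1 : |2 * dU * q.H (lift q eY x eA) eY| ≤ 2 * r * 600 :=
      abs_mul_le' (abs_mul_le' (le_of_eq abs_two) hA) F.HAY
    have k2 : |2 * dV * q.H (lift q eY x eB) eY| ≤ 2 * r * 600 :=
      abs_mul_le' (abs_mul_le' (le_of_eq abs_two) hB) F.HBY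
    have kD : |2 * dU * q.H (lift q eY x eA) eY + 2 * dV * q.H (lift q eY x eB) eY +
        xY * q.H eY eY| ≤ 1 / 10 := by
      refine (abs_add3 _ _ _).trans ?_
      linarith
    have rr : r * (r * 600) ≤ r * (1 / 10) := by
      apply mul_le_mul_of_nonneg_left _ hr0
      linarith
    have k3 : |dU ^ 2 * q.H (lift q eY x eA) (lift q eY x eA)| ≤ r / 10 := by
      rw [sq, mul_assoc]
      refine (abs_mul_le' hA (abs_mul_le' hA F.HAA)).trans ?_
      linarith
    have k4 : |2 * (dU * dV) * q.H (lift q eY x eA) (lift q eY x eB)| ≤ r / 5 := by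
      rw [mul_assoc, mul_assoc]
      refine (abs_mul_le' (le_of_eq abs_two) (abs_mul_le' hA (abs_mul_le' hB F.HAB))).trans ?_
      linarith
    have k5 : |dV ^ 2 * q.H (lift q eY x eB) (lift q eY x eB)| ≤ r / 10 := by
      rw [sq, mul_assoc]
      refine (abs_mul_le' hB (abs_mul_le' hB F.HBB)).trans ?_
      linarith
    have h2 : |xY * (q.G x eY + (2 * dU * q.H (lift q eY x eA) eY +
        2 * dV * q.H (lift q eY x eB) eY + xY * q.H eY eY))| ≤ 2 * (a + r) := by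
      have e : xY * (q.G x eY + (2 * dU * q.H (lift q eY x eA) eY +
          2 * dV * q.H (lift q eY x eB) eY + xY * q.H eY eY)) =
          (q.f x + (dU * 0 + dV * 0 + xY * q.G x eY) +
          (dU ^ 2 * q.H (lift q eY x eA) (lift q eY x eA) +
            2 * (dU * dV) * q.H (lift q eY x eA) (lift q eY x eB) +
            dV ^ 2 * q.H (lift q eY x eB) (lift q eY x eB) +
            xY * (2 * dU * q.H (lift q eY x eA) eY + 2 * dV * q.H (lift q eY x eB) eY +
              xY * q.H eY eY))) - q.f x - dU ^ 2 * q.H (lift q eY x eA) (lift q eY x eA) -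
          2 * (dU * dV) * q.H (lift q eY x eA) (lift q eY x eB) -
          dV ^ 2 * q.H (lift q eY x eB) (lift q eY x eB) := by ring
      rw [e]
      rw [abs_le] at hf hf' k3 k4 k5 ⊢
      constructor <;> linarith [hf.1, hf.2, hf'.1, hf'.2, k3.1, k3.2, k4.1, k4.2, k5.1, k5.2]
    exact (W_le g1 kD h2).trans (le_of_eq (by ring))
  have hvA := T.vA_le
  have hvB := T.vB_le
  have hvY := T.vY_le L
  have hvA' := T'.vA_le
  have hvB' := T'.vB_le
  have hvY' := T'.vY_le L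
  have dA : |vA' - vA| ≤ 1 / 250 := by
    rw [abs_le] at hvA hvA' ⊢
    constructor <;> linarith [hvA.1, hvA.2, hvA'.1, hvA'.2]
  have dB : |vB' - vB| ≤ 1 / 250 := by
    rw [abs_le] at hvB hvB' ⊢
    constructor <;> linarith [hvB.1, hvB.2, hvB'.1, hvB'.2]
  have hy : |(vY' - vY) + m * (vA' - vA) + n * (vB' - vB)| ≤ 1 := by
    have k1 := abs_mul_le' mA dA
    have k2 := abs_mul_le' mB dB
    rw [abs_le] at k1 k2 hvY hvY' ⊢
    constructor <;> linarith [k1.1, k1.2, k2.1, k2.2, hvY.1, hvY.2, hvY'.1, hvY'.2]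
  refine ⟨(vY' - vY) + m * (vA' - vA) + n * (vB' - vB), dW + m * dU + n * dV, ex, eτ, ?_⟩
  exact
    { frm := F
      a0 := by linarith
      r0 := by linarith
      hdA := dA.trans (by norm_num)
      hdB := dB.trans (by norm_num)
      hy := hy
      hxA := hA.trans (by linarith)
      hxB := hB.trans (by linarith)
      hxY := hY
      Hτ := c1.2
      Gτ := c1.1
      Hτ' := by rw [← eτ]; exact c1'.2
      Gτ' := by rw [← ex, ← eτ]; exact c1'.1
      g0' := by rw [← ex]; exact g1' }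

end Crest.Agent.R136.Nd214
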