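import Crest.Agent.R136.Nd2_565

/-!
# R136 (S0187), U5: sub-sheets of a sheet of class `C*` around one of its lines (helper565)

* `same_frame` : the sub-sheet with the same frame and quadratic function.
* `exists_frm` : orthonormal frame adapted to a direction and to a gradient.
* `mk_sheet`   : sheet of class `C*` around a line from bounds of the gradient in coordinates.
-/

set_option autoImplicit false
set_option linter.unusedVariables false

namespace Crest.Agent.R136.Nd565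

open Finset Sh605 UB683

/-! ### vectors -/

theorem cs3 (x y : V3) : dt x y ^ 2 ≤ dt x x * dt y y := by
  unfold dt
  nlinarith [sq_nonneg (x 0 * y 1 - x 1 * y 0), sq_nonneg (x 0 * y 2 - x 2 * y 0),
    sq_nonneg (x 1 * y 2 - x 2 * y 1)]

theorem dt_self_nonneg (x : V3) : 0 ≤ dt x x := by
  unfold dt; nlinarith [sq_nonneg (x 0), sq_nonneg (x 1), sq_nonneg (x 2)]

/-- vector product -/
def cr (x y : V3) : V3 := ![x 1 * y 2 - x 2 * y 1, x 2 * y 0 - x 0 * y 2, x 0 * y 1 - x 1 * y 0]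

theorem dt_cr_cr (x y : V3) : dt (cr x y) (cr x y) = dt x x * dt y y - dt x y ^ 2 := by
  simp only [dt, cr, Matrix.cons_val_zero, Matrix.cons_val_one, Matrix.cons_val]; ring

theorem dt_cr_left (x y : V3) : dt x (cr x y) = 0 := by
  simp only [dt, cr, Matrix.cons_val_zero, Matrix.cons_val_one, Matrix.cons_val]; ring

theorem dt_cr_right (x y : V3) : dt y (cr x y) = 0 := by
  simp only [dt, cr, Matrix.cons_val_zero, Matrix.cons_val_one, Matrix.cons_val]; ring

theorem ortho_cr {x y : V3} (hx : dt x x = 1) (hy : dt y y = 1) (hxy : dt x y = 0) :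
    Ortho ![x, y, cr x y] := by
  have h1 := dt_cr_left x y
  have h2 := dt_cr_right x y
  have h3 := dt_cr_cr x y
  rw [hx, hy, hxy] at h3
  norm_num at h3
  intro i j
  fin_cases i <;> fin_cases j
  · simpa using hx
  · simpa using hxy
  · simpa using h1
  · simpa using (dt_comm y x).trans hxy
  · simpa using hy
  · simpa using h2
  · simpa using (dt_comm _ _).trans h1
  · simpa using (dt_comm _ _).trans h2
  · simpa using h3

/-- frame adapted to the direction `E` and to the gradient `g` -/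
theorem exists_frm (g E : V3) {L l0 : ℝ} (hL : 0 < L) (hE : dt E E = L ^ 2) (hl0 : 0 < l0)
    (hg : l0 ^ 2 + (dt g E / L) ^ 2 ≤ dt g g) :
    ∃ (m : Fin 3 → V3) (lam : ℝ), Ortho m ∧ m 1 = (1 / L) • E ∧ l0 ≤ lam ∧ dt g (m 0) = lam ∧
      dt g (m 2) = 0 := by
  set m1 : V3 := (1 / L) • E with hm1
  have h11 : dt m1 m1 = 1 := by
    rw [hm1, dt_smul, smul_dt, hE]; field_simp
  set s := dt g m1 with hs
  have hs' : s = dt g E / L := by rw [hs, hm1, dt_smul]; ring
  set g' : V3 := g - s • m1 with hg'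
  have hg'1 : dt g' m1 = 0 := by
    rw [dt_comm, hg', dt_sub, dt_smul, h11, dt_comm m1 g, ← hs]; ring
  have hg'g : dt g g' = dt g g - s ^ 2 := by
    rw [hg', dt_sub, dt_smul, ← hs]; ring
  have hg'g' : dt g' g' = dt g g - s ^ 2 := by
    have : dt g' g' = dt g' g - s * dt g' m1 := by
      conv_lhs => rw [hg', dt_sub, dt_smul]
    rw [this, hg'1, dt_comm g' g, hg'g]; ring
  have hpos : l0 ^ 2 ≤ dt g' g' := by rw [hg'g', hs']; linarith
  set lam := Real.sqrt (dt g' g') with hlam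
  have hlam0 : l0 ≤ lam := Real.le_sqrt_of_sq_le hpos
  have hlamp : 0 < lam := by linarith
  have hlam2 : lam ^ 2 = dt g' g' := Real.sq_sqrt (dt_self_nonneg _)
  set m0 : V3 := (1 / lam) • g' with hm0
  have h00 : dt m0 m0 = 1 := by
    rw [hm0, dt_smul, smul_dt, ← hlam2]; field_simp
  have h01 : dt m0 m1 = 0 := by rw [hm0, smul_dt, hg'1, mul_zero]
  refine ⟨![m0, m1, cr m0 m1], lam, ortho_cr h00 h11 h01, rfl, hlam0, ?_, ?_⟩
  · show dt g m0 = lam
    rw [hm0, dt_smul, hg'g, ← hg'g', ← hlam2]; field_simp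
  · show dt g (cr m0 m1) = 0
    have e : g = lam • m0 + s • m1 := by
      rw [hm0, smul_smul, mul_one_div_cancel hlamp.ne', one_smul, hg']; abel
    rw [e, add_dt, smul_dt m0 _ lam, smul_dt m1 _ s, dt_cr_left, dt_cr_right]; ring

theorem IsQ.div {q : ℝ → V3 → ℝ} (hq : IsQ q) (l : ℝ) : IsQ (fun z x => q z x / l) := by
  obtain ⟨c0, c1, c2, b, d, g, hq⟩ := hq
  refine ⟨c0 / l, c1 / l, c2 / l, fun i => b i / l, fun i => d i / l, fun i j => g i j / l, ?_⟩
  intro z x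
  show q z x / l = _
  rw [hq]
  simp only [Fin.sum_univ_three]
  ring

/-! ### the sub-sheet with the same frame -/

theorem same_frame {e : Fin 3 → V3} {c : Ln4} {w : V3} {q : ℝ → V3 → ℝ} {a z0 ρ r0 : ℝ} {T : Ln4}
    (S : ShN e c w q a z0 ρ r0) (hr : 0 < r0) (hT : InSheet T e c w q a z0 ρ) {A1 A2 z1 ρ1 : ℝ}
    (hA1 : 0 < A1) (h12 : A1 ≤ A2) (hA2 : A2 ≤ 1 / 2) (hww : A2 * w 2 ≤ A1 * w 1)
    (ha : a ≤ A2 * w 0) (h0 : z0 ≤ z1) (h1 : z1 + ρ1 ≤ z0 + ρ) :
    ShN e T ![A2 * w 0, A1 * w 1, A2 * w 2] q a z1 ρ1 r0 := by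
  have hw0 : 0 < w 0 := by linarith [S.a_le0, S.r0_le]
  have hw2 : 0 < w 2 := by linarith [S.w0_le]
  have hw1 : 0 < w 1 := by linarith [S.w_le]
  have hA2p : 0 < A2 := by linarith
  have hbox : ∀ z, z1 ≤ z → z ≤ z1 + ρ1 → ∀ x, InK e T (dbl3 ![A2 * w 0, A1 * w 1, A2 * w 2]) z x →
      InK e c (dbl3 w) z x := by
    intro z hz0 hz1 x hx i
    have hb := (hT z (by linarith) (by linarith)).1 i
    have hx' := hx i
    have e1 : x - c.pos z = (x - T.pos z) + (T.pos z - c.pos z) := by abel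
    rw [e1, dt_add]
    refine (abs_add_le _ _).trans ?_
    have h3 : |dt (e i) (x - T.pos z)| ≤ w i := by
      refine hx'.trans ?_
      simp only [dbl3]
      fin_cases i
      · show 2 * (A2 * w 0) ≤ w 0
        nlinarith
      · show 2 * (A1 * w 1) ≤ w 1
        nlinarith
      · show 2 * (A2 * w 2) ≤ w 2
        nlinarith
    simp only [dbl3]
    linarith
  refine ⟨S.ortho, S.isQ, ha, mul_le_mul_of_nonneg_left S.w0_le hA2p.le, hww, S.r0_le, ?_, ?_, ?_⟩
  · intro z hz0 hz1 x τ hτ hx hx'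
    exact S.st0 z (by linarith) (by linarith) x τ hτ (hbox z hz0 hz1 x hx) (hbox z hz0 hz1 _ hx')
  · intro z hz0 hz1 x τ hτ hx hx'
    refine (S.sl1 z (by linarith) (by linarith) x τ hτ (hbox z hz0 hz1 x hx)
      (hbox z hz0 hz1 _ hx')).trans ?_
    refine mul_le_mul_of_nonneg_right ?_ hτ
    show w 0 / w 1 ≤ A2 * w 0 / (A1 * w 1)
    rw [div_le_div_iff₀ hw1 (by positivity)]
    have : A1 * (w 0 * w 1) ≤ A2 * (w 0 * w 1) := mul_le_mul_of_nonneg_right h12 (by positivity)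
    linarith
  · intro z hz0 hz1 x τ hτ hx hx'
    refine (S.sl2 z (by linarith) (by linarith) x τ hτ (hbox z hz0 hz1 x hx)
      (hbox z hz0 hz1 _ hx')).trans ?_
    refine mul_le_mul_of_nonneg_right (le_of_eq ?_) hτ
    show w 0 / w 2 = A2 * w 0 / (A2 * w 2)
    field_simp

/-! ### the sheet in a new frame -/

theorem mk_sheet {e : Fin 3 → V3} {q : ℝ → V3 → ℝ} {T : Ln4} {p r : V3}
    {H : Fin 3 → Fin 3 → ℝ} (he : Ortho e) (hq : IsQ q) (hG : TD q e T p r H)
    {m : Fin 3 → V3} (hm : Ortho m) {lam W0 W1 W2 a' z1 ρ1 r0 : ℝ} (hl : 0 < lam) (hW1 : 0 < W1)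
    (hW2 : 0 < W2) (haW : a' ≤ W0) (hW0 : W0 ≤ W2) (hWW : W2 ≤ W1) (hra : r0 ≤ a')
    (hb : ∀ z, z1 ≤ z → z ≤ z1 + ρ1 → ∀ U U' : V3, (∀ i, |dt (m i) U| ≤ 2 * (![W0, W1, W2] : V3) i) →
      (∀ i, |dt (m i) U'| ≤ 2 * (![W0, W1, W2] : V3) i) →
      (lam / 2 ≤ dt (gr p r z) (m 0) + bl H (U + U') (m 0) ∧
        dt (gr p r z) (m 0) + bl H (U + U') (m 0) ≤ 2 * lam) ∧
      |dt (gr p r z) (m 1) + bl H (U + U') (m 1)| ≤ lam * (W0 / W1) ∧
      |dt (gr p r z) (m 2) + bl H (U + U') (m 2)| ≤ lam * (W0 / W2)) :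
    ShN (fun j => cmb e (m j)) T ![W0, W1, W2] (fun z x => q z x / lam) a' z1 ρ1 r0 := by
  have hc : ∀ z x, InK (fun j => cmb e (m j)) T (dbl3 ![W0, W1, W2]) z x →
      ∀ i, |dt (m i) (crd e (x - T.pos z))| ≤ 2 * (![W0, W1, W2] : V3) i := by
    intro z x hx i
    have := hx i
    simp only [dbl3] at this
    rw [← dt_cmb]
    exact this
  have quo : ∀ z x τ i, (q z (x + τ • cmb e (m i)) / lam - q z x / lam) =
      τ * ((dt (gr p r z) (m i) + bl H (crd e (x - T.pos z) +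
        crd e (x + τ • cmb e (m i) - T.pos z)) (m i)) / lam) := by
    intro z x τ i
    rw [← sub_div, hG.quot he]; ring
  refine ⟨ortho_cmb he hm, IsQ.div hq lam, haW, hW0, hWW, hra, ?_, ?_, ?_⟩
  · intro z hz0 hz1 x τ hτ hx hx'
    show τ / 2 ≤ q z (x + τ • cmb e (m 0)) / lam - q z x / lam ∧
      q z (x + τ • cmb e (m 0)) / lam - q z x / lam ≤ 2 * τ
    rw [quo]
    have h := (hb z hz0 hz1 _ _ (hc z x hx) (hc z _ hx')).1
    constructor
    · have : 1 / 2 ≤ (dt (gr p r z) (m 0) + bl H (crd e (x - T.pos z) +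
        crd e (x + τ • cmb e (m 0) - T.pos z)) (m 0)) / lam := by
        rw [le_div_iff₀ hl]; linarith [h.1]
      nlinarith
    · have : (dt (gr p r z) (m 0) + bl H (crd e (x - T.pos z) +
        crd e (x + τ • cmb e (m 0) - T.pos z)) (m 0)) / lam ≤ 2 := by
        rw [div_le_iff₀ hl]; linarith [h.2]
      nlinarith
  · intro z hz0 hz1 x τ hτ hx hx'
    show |q z (x + τ • cmb e (m 1)) / lam - q z x / lam| ≤ W0 / W1 * τ
    rw [quo, abs_mul, abs_of_nonneg hτ, abs_div, abs_of_pos hl, mul_comm]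
    refine mul_le_mul_of_nonneg_right ?_ hτ
    rw [div_le_iff₀ hl]
    have h := (hb z hz0 hz1 _ _ (hc z x hx) (hc z _ hx')).2.1
    linarith
  · intro z hz0 hz1 x τ hτ hx hx'
    show |q z (x + τ • cmb e (m 2)) / lam - q z x / lam| ≤ W0 / W2 * τ
    rw [quo, abs_mul, abs_of_nonneg hτ, abs_div, abs_of_pos hl, mul_comm]
    refine mul_le_mul_of_nonneg_right ?_ hτ
    rw [div_le_iff₀ hl]
    have h := (hb z hz0 hz1 _ _ (hc z x hx) (hc z _ hx')).2.2
    linarith

end Crest.Agent.R136.Nd565
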