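import Crest.Agent.R136.Nd3_565

/-!
# R136 (S0187), U5: the box around a tilted ribbon of a sheet of the class `ShN` (helper565)

`T` = line of the sheet, `E = (y, -w1 nB, w2 nA)` (coordinates in the frame `e`), flat ribbon
`{T + α E, |α| ≤ β}`. The `(β, σ)`-strip around `T` is contained in one sheet of the class of
half-widths `1200 K σ w0 w1 / |E|`, `3 β |E|`, `1200 K σ w1 w2 / |E|` (over a cell which is 128
times shorter).
-/

set_option autoImplicit false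
set_option linter.unusedVariables false

namespace Crest.Agent.R136.Nd565

open Finset Sh605 UB683

/-- the ribbon direction in coordinates -/
def Ev (w : V3) (nA nB y : ℝ) : V3 := ![y, w 1 * -nB, w 2 * nA]

/-- the transversal direction in coordinates -/
def Nv (w : V3) (nA nB : ℝ) : V3 := ![0, w 1 * nA, w 2 * nB]

@[simp] theorem Ev0 (w : V3) (nA nB y : ℝ) : Ev w nA nB y 0 = y := rfl
@[simp] theorem Ev1 (w : V3) (nA nB y : ℝ) : Ev w nA nB y 1 = w 1 * -nB := rfl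
@[simp] theorem Ev2 (w : V3) (nA nB y : ℝ) : Ev w nA nB y 2 = w 2 * nA := rfl
@[simp] theorem Nv0 (w : V3) (nA nB : ℝ) : Nv w nA nB 0 = 0 := rfl
@[simp] theorem Nv1 (w : V3) (nA nB : ℝ) : Nv w nA nB 1 = w 1 * nA := rfl
@[simp] theorem Nv2 (w : V3) (nA nB : ℝ) : Nv w nA nB 2 = w 2 * nB := rfl

/-- flat ribbon, in coefficients -/
structure Rb (w p r : V3) (H : Fin 3 → Fin 3 → ℝ) (z0 ρ nA nB y β κ : ℝ) : Prop where
  f1 : ∀ z, z0 ≤ z → z ≤ z0 + ρ → |dt (gr p r z) (Ev w nA nB y)| * β ≤ κ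
  f2 : |bl H (Ev w nA nB y) (Ev w nA nB y)| * β ^ 2 ≤ κ

theorem n_le {nA nB : ℝ} (hn : nA ^ 2 + nB ^ 2 = 1) : |nA| ≤ 1 ∧ |nB| ≤ 1 := by
  constructor
  · rw [← sq_le_one_iff_abs_le_one]; nlinarith [sq_nonneg nB]
  · rw [← sq_le_one_iff_abs_le_one]; nlinarith [sq_nonneg nA]

theorem tilt_pre {w p r : V3} {H : Fin 3 → Fin 3 → ℝ} {z0 ρ nA nB y β σ K L : ℝ}
    (hw0 : 0 < w 0) (hw02 : w 0 ≤ w 2) (hw : w 2 ≤ w 1) (B : GB w p r H z0 ρ) (hρ : 0 ≤ ρ)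
    (hn : nA ^ 2 + nB ^ 2 = 1) (R : Rb w p r H z0 ρ nA nB y β (K * σ * w 0)) (hβ : 0 < β)
    (hσ : 0 < σ) (hK : 1 ≤ K) (hL0 : 0 ≤ L) (hL : dt (Ev w nA nB y) (Ev w nA nB y) = L ^ 2)
    (ht : 400 * (K * σ) * w 1 ≤ β * L) :
    w 2 ≤ L ∧ |y| ≤ 5 * w 0 ∧ L ≤ 6 * w 1 ∧ 70 * (K * σ) ≤ β := by
  have hw2 : 0 < w 2 := by linarith
  have hw1 : 0 < w 1 := by linarith
  have hn' := n_le hn
  have hL' : L ^ 2 = y ^ 2 + w 1 ^ 2 * nB ^ 2 + w 2 ^ 2 * nA ^ 2 := by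
    rw [← hL]; simp only [dt, Ev0, Ev1, Ev2]; ring
  have hsq : w 2 ^ 2 ≤ w 1 ^ 2 := by nlinarith
  have a1 : w 2 ≤ L := by
    have h1 : w 2 ^ 2 ≤ L ^ 2 := by
      rw [hL']
      have h2 : w 2 ^ 2 * nB ^ 2 ≤ w 1 ^ 2 * nB ^ 2 := mul_le_mul_of_nonneg_right hsq (sq_nonneg _)
      have h3 : w 2 ^ 2 * nA ^ 2 + w 2 ^ 2 * nB ^ 2 = w 2 ^ 2 := by rw [← mul_add, hn, mul_one]
      nlinarith [sq_nonneg y]
    exact (pow_le_pow_iff_left₀ hw2.le hL0 (by norm_num)).1 h1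
  have a2 : L ≤ |y| + w 1 := by
    have h1 : L ^ 2 ≤ (|y| + w 1) ^ 2 := by
      rw [hL']
      have h2 : w 2 ^ 2 * nA ^ 2 ≤ w 1 ^ 2 * nA ^ 2 := mul_le_mul_of_nonneg_right hsq (sq_nonneg _)
      have h3 : w 1 ^ 2 * nA ^ 2 + w 1 ^ 2 * nB ^ 2 = w 1 ^ 2 := by rw [← mul_add, hn, mul_one]
      have h4 : (|y| + w 1) ^ 2 = y ^ 2 + 2 * (|y| * w 1) + w 1 ^ 2 := by
        rw [add_sq, sq_abs]; ring
      have h5 : 0 ≤ |y| * w 1 := by positivity
      nlinarith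
    exact (pow_le_pow_iff_left₀ hL0 (by positivity) (by norm_num)).1 h1
  have a3 : |y| * β ≤ 2 * (K * σ * w 0) + 4 * w 0 * β := by
    have h0 := B.g0 z0 le_rfl (by linarith)
    have h1 := B.g1 z0 le_rfl (by linarith)
    have h2 := B.g2 z0 le_rfl (by linarith)
    have h3 := R.f1 z0 le_rfl (by linarith)
    have e : gr p r z0 0 * y = dt (gr p r z0) (Ev w nA nB y) - gr p r z0 1 * (w 1 * -nB) -
        gr p r z0 2 * (w 2 * nA) := by
      simp only [dt, Ev0, Ev1, Ev2]; ring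
    have h4 : |gr p r z0 1 * (w 1 * -nB)| ≤ w 0 := by
      rw [abs_mul, abs_mul, abs_neg, abs_of_pos hw1]
      calc |gr p r z0 1| * (w 1 * |nB|) ≤ w 0 / w 1 * (w 1 * 1) := by
            gcongr
            exact hn'.2
        _ = w 0 := by field_simp
    have h5 : |gr p r z0 2 * (w 2 * nA)| ≤ w 0 := by
      rw [abs_mul, abs_mul, abs_of_pos hw2]
      calc |gr p r z0 2| * (w 2 * |nA|) ≤ w 0 / w 2 * (w 2 * 1) := by
            gcongr
            exact hn'.1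
        _ = w 0 := by field_simp
    have h6 : |gr p r z0 0 * y| ≤ |dt (gr p r z0) (Ev w nA nB y)| + 2 * w 0 := by
      rw [e]
      have t1 := abs_sub (dt (gr p r z0) (Ev w nA nB y) - gr p r z0 1 * (w 1 * -nB))
        (gr p r z0 2 * (w 2 * nA))
      have t2 := abs_sub (dt (gr p r z0) (Ev w nA nB y)) (gr p r z0 1 * (w 1 * -nB))
      linarith
    rw [abs_mul, abs_of_pos (by linarith [h0.1] : 0 < gr p r z0 0)] at h6
    have h7 : 1 / 2 * |y| ≤ gr p r z0 0 * |y| := mul_le_mul_of_nonneg_right h0.1 (abs_nonneg y)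
    have h8 : 1 / 2 * |y| * β ≤ (|dt (gr p r z0) (Ev w nA nB y)| + 2 * w 0) * β :=
      mul_le_mul_of_nonneg_right (h7.trans h6) hβ.le
    linarith
  have hKσ : 0 < K * σ := by positivity
  have a4 : 398 * (K * σ) ≤ 5 * β := by
    have h1 : β * L ≤ β * (|y| + w 1) := mul_le_mul_of_nonneg_left a2 hβ.le
    have h2 : K * σ * w 0 ≤ K * σ * w 1 := mul_le_mul_of_nonneg_left (by linarith) hKσ.le
    have h3 : w 0 * β ≤ w 1 * β := mul_le_mul_of_nonneg_right (by linarith) hβ.le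
    have h4 : 398 * (K * σ) * w 1 ≤ 5 * β * w 1 := by linarith
    exact le_of_mul_le_mul_right h4 hw1
  have a5 : |y| ≤ 5 * w 0 := by
    have h1 : K * σ * w 0 ≤ 5 / 398 * β * w 0 := by
      have : K * σ ≤ 5 / 398 * β := by linarith
      exact mul_le_mul_of_nonneg_right this hw0.le
    have h2 : |y| * β ≤ 5 * w 0 * β := by
      have : 0 < w 0 * β := by positivity
      nlinarith
    exact le_of_mul_le_mul_right h2 hβ
  exact ⟨a1, a5, by linarith, by linarith⟩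

theorem bl_le {w : V3} {H : Fin 3 → Fin 3 → ℝ} (hw : ∀ i, 0 < w i)
    (hH : ∀ i j, |H i j| * (w i * w j) ≤ w 0) {x y : V3} (ξ η : V3) (hξ : ∀ i, 0 ≤ ξ i)
    (hη : ∀ i, 0 ≤ η i) (hx : ∀ i, |x i| ≤ ξ i * w i) (hy : ∀ i, |y i| ≤ η i * w i) :
    |bl H x y| ≤ w 0 * ((ξ 0 + ξ 1 + ξ 2) * (η 0 + η 1 + η 2)) := by
  have h1 : |bl H x y| ≤ ∑ i, ∑ j, w 0 * (ξ i * η j) := by
    unfold bl
    refine (abs_sum_le_sum_abs _ _).trans (sum_le_sum fun i _ => ?_)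
    refine (abs_sum_le_sum_abs _ _).trans (sum_le_sum fun j _ => ?_)
    rw [abs_mul, abs_mul]
    have h2 : |x i| * |y j| ≤ (ξ i * w i) * (η j * w j) :=
      mul_le_mul (hx i) (hy j) (abs_nonneg _) (mul_nonneg (hξ i) (hw i).le)
    calc |H i j| * (|x i| * |y j|) ≤ |H i j| * ((ξ i * w i) * (η j * w j)) :=
          mul_le_mul_of_nonneg_left h2 (abs_nonneg _)
      _ = (|H i j| * (w i * w j)) * (ξ i * η j) := by ring
      _ ≤ w 0 * (ξ i * η j) := mul_le_mul_of_nonneg_right (hH i j) (mul_nonneg (hξ i) (hη j))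
  refine h1.trans (le_of_eq ?_)
  simp only [Fin.sum_univ_three]
  ring

theorem cigar_expand {m : Fin 3 → V3} (hm : Ortho m) {E : V3} {L : ℝ} (hm1 : m 1 = (1 / L) • E)
    (H : Fin 3 → Fin 3 → ℝ) (U V : V3) :
    bl H U V = dt (m 0) U * bl H (m 0) V + dt (m 1) U / L * bl H E V + dt (m 2) U * bl H (m 2) V := by
  have h := cmb_crd hm U
  have e1 : U = dt (m 0) U • m 0 + dt (m 1) U • m 1 + dt (m 2) U • m 2 := h.symm
  have e2 : bl H U V = bl H (dt (m 0) U • m 0 + dt (m 1) U • m 1 + dt (m 2) U • m 2) V := by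
    rw [← e1]
  rw [e2, bl_add_left, bl_add_left, bl_smul_left, bl_smul_left, bl_smul_left]
  have e3 : bl H (m 1) V = 1 / L * bl H E V := by rw [hm1, bl_smul_left]
  rw [e3]; ring

/-- half-widths of the new box -/
noncomputable def Wn (w : V3) (β σ K L : ℝ) : V3 :=
  ![1200 * (K * σ) * (w 1 * w 0) / L, 3 * β * L, 1200 * (K * σ) * (w 1 * w 2) / L]

@[simp] theorem Wn0 (w : V3) (β σ K L : ℝ) : Wn w β σ K L 0 = 1200 * (K * σ) * (w 1 * w 0) / L := rfl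
@[simp] theorem Wn1 (w : V3) (β σ K L : ℝ) : Wn w β σ K L 1 = 3 * β * L := rfl
@[simp] theorem Wn2 (w : V3) (β σ K L : ℝ) : Wn w β σ K L 2 = 1200 * (K * σ) * (w 1 * w 2) / L := rfl

/-- the frame of the new box -/
structure Cig (w p r : V3) (H : Fin 3 → Fin 3 → ℝ) (z1 ρ1 nA nB y β σ K L : ℝ)
    (m : Fin 3 → V3) (lam : ℝ) : Prop where
  ortho : Ortho m
  m1 : m 1 = (1 / L) • Ev w nA nB y
  lam_ge : 0.49 ≤ lam
  g0 : dt (gr p r z1) (m 0) = lam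
  g2 : dt (gr p r z1) (m 2) = 0
  bd : ∀ z, z1 ≤ z → z ≤ z1 + ρ1 → ∀ U U' : V3,
      (∀ i, |dt (m i) U| ≤ 2 * Wn w β σ K L i) → (∀ i, |dt (m i) U'| ≤ 2 * Wn w β σ K L i) →
      (lam / 2 ≤ dt (gr p r z) (m 0) + bl H (U + U') (m 0) ∧
        dt (gr p r z) (m 0) + bl H (U + U') (m 0) ≤ 2 * lam) ∧
      |dt (gr p r z) (m 1) + bl H (U + U') (m 1)| ≤ lam * (Wn w β σ K L 0 / Wn w β σ K L 1) ∧
      |dt (gr p r z) (m 2) + bl H (U + U') (m 2)| ≤ lam * (Wn w β σ K L 0 / Wn w β σ K L 2)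

theorem gr_var {w p r : V3} {H : Fin 3 → Fin 3 → ℝ} {z0 ρ z1 ρ1 : ℝ}
    (B : GB w p r H z0 ρ) (hρ1 : 0 ≤ ρ1) (h128 : 128 * ρ1 ≤ ρ) {z : ℝ}
    (hz : z1 ≤ z) (hz' : z ≤ z1 + ρ1) (m : V3) :
    |dt (gr p r z) m - dt (gr p r z1) m| ≤
      (3 / 2 * |m 0| + 2 * (w 0 / w 1) * |m 1| + 2 * (w 0 / w 2) * |m 2|) / 128 := by
  have hρ : 0 ≤ ρ := by linarith
  have a0 := B.g0 z0 le_rfl (by linarith)
  have b0 := B.g0 (z0 + ρ) (by linarith) le_rfl
  have a1 := B.g1 z0 le_rfl (by linarith)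
  have b1 := B.g1 (z0 + ρ) (by linarith) le_rfl
  have a2 := B.g2 z0 le_rfl (by linarith)
  have b2 := B.g2 (z0 + ρ) (by linarith) le_rfl
  have e : ∀ i, gr p r (z0 + ρ) i - gr p r z0 i = ρ * r i := by intro i; simp only [gr]; ring
  have d : ∀ i (M : ℝ), |gr p r (z0 + ρ) i - gr p r z0 i| ≤ M →
      |(z - z1) * r i * m i| ≤ M * |m i| / 128 := by
    intro i M hM
    rw [e i, abs_mul, abs_of_nonneg hρ] at hM
    rw [abs_mul, abs_mul, abs_of_nonneg (by linarith : 0 ≤ z - z1)]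
    have h1 : (z - z1) * |r i| ≤ ρ1 * |r i| := mul_le_mul_of_nonneg_right (by linarith) (abs_nonneg _)
    have h2 : ρ1 * |r i| * 128 ≤ ρ * |r i| := by
      have := mul_le_mul_of_nonneg_right h128 (abs_nonneg (r i))
      linarith
    have h4 : (z - z1) * |r i| ≤ M / 128 := by linarith
    calc (z - z1) * |r i| * |m i| ≤ M / 128 * |m i| := mul_le_mul_of_nonneg_right h4 (abs_nonneg _)
      _ = M * |m i| / 128 := by ring
  have d0 := d 0 (3 / 2) (by rw [abs_le]; constructor <;> linarith [a0.1, a0.2, b0.1, b0.2])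
  have d1 := d 1 (2 * (w 0 / w 1)) ((abs_sub _ _).trans (by linarith))
  have d2 := d 2 (2 * (w 0 / w 2)) ((abs_sub _ _).trans (by linarith))
  have e2 : dt (gr p r z) m - dt (gr p r z1) m = (z - z1) * r 0 * m 0 + (z - z1) * r 1 * m 1 +
      (z - z1) * r 2 * m 2 := by
    simp only [dt, gr]; ring
  rw [e2]
  have t1 := abs_add_le ((z - z1) * r 0 * m 0 + (z - z1) * r 1 * m 1) ((z - z1) * r 2 * m 2)
  have t2 := abs_add_le ((z - z1) * r 0 * m 0) ((z - z1) * r 1 * m 1)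
  linarith

end Crest.Agent.R136.Nd565
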