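import Crest.Agent.R136.Nd4_214

/-!
# R136, non-degeneracy of near-maximal sheets (helper214), part 5: from the class `ShN` to the
normalised structures `Loc`, `Lin`
-/

set_option autoImplicit false
set_option linter.unusedVariables false

namespace Crest.Agent.R136.Nd214

open Crest.Agent.R136.Tl214 Crest.Agent.R136.Tl102
open Crest.Agent.R136.Sh605 (V3 dt Ln4 InK InSheet ShN Ortho IsQ)

/-- plank coordinates of the line `t` relative to `T` at height `z` -/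
noncomputable def crd (e : Fin 3 → V3) (w : V3) (T t : Ln4) (z : ℝ) : V3 :=
  fun i => dt (e i) (t.pos z - T.pos z) / w i

/-- their velocity, time unit `ρ` -/
noncomputable def vel (e : Fin 3 → V3) (w : V3) (T t : Ln4) (ρ : ℝ) : V3 :=
  fun i => ρ * dt (e i) (t.v - T.v) / w i

theorem crd_add (e : Fin 3 → V3) (w : V3) (T t : Ln4) (z0 ρ ζ : ℝ) (i : Fin 3) :
    crd e w T t (z0 + ρ * ζ) i = crd e w T t z0 i + ζ * vel e w T t ρ i := by
  simp only [crd, vel, dt, Ln4.pos, Pi.sub_apply]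
  ring

theorem pos_eq_cmb {e : Fin 3 → V3} (he : Ortho e) {w : V3} (hw : ∀ i, 0 < w i) (T t : Ln4)
    (z : ℝ) : t.pos z = T.pos z + cmb (fr e w) (crd e w T t z) := by
  funext j
  have h := he.expand (t.pos z - T.pos z) j
  have h0 := (hw 0).ne'
  have h1 := (hw 1).ne'
  have h2 := (hw 2).ne'
  have e1 : (t.pos z - T.pos z) j = t.pos z j - T.pos z j := rfl
  rw [e1] at h
  have e2 : (T.pos z + cmb (fr e w) (crd e w T t z)) j = T.pos z j +
      (dt (e 0) (t.pos z - T.pos z) * e 0 j + dt (e 1) (t.pos z - T.pos z) * e 1 j +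
        dt (e 2) (t.pos z - T.pos z) * e 2 j) := by
    simp only [Pi.add_apply, cmb, fr, crd, Pi.smul_apply, smul_eq_mul]
    field_simp
  rw [e2]
  linarith

/-- the value along the central line is a quadratic polynomial -/
theorem exists_phi {q : ℝ → V3 → ℝ} (hq : IsQ q) (T : Ln4) (z0 ρ : ℝ) {N : ℝ} (hN : N ≠ 0) :
    ∃ φ : V3, ∀ ζ, q (z0 + ρ * ζ) (T.pos (z0 + ρ * ζ)) = N * (φ 0 + φ 1 * ζ + φ 2 * ζ ^ 2) := by
  obtain ⟨c0, c1, c2, b, d, g, h⟩ := hq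
  refine ⟨fun k => N⁻¹ * (![c0 + c1 * z0 + c2 * z0 ^ 2 +
      ∑ i, (b i + d i * z0) * (T.p i + z0 * T.v i) +
      ∑ i, ∑ j, g i j * ((T.p i + z0 * T.v i) * (T.p j + z0 * T.v j)),
    c1 * ρ + 2 * c2 * z0 * ρ + ∑ i, ((b i + d i * z0) * (ρ * T.v i) +
      d i * ρ * (T.p i + z0 * T.v i)) + ∑ i, ∑ j, g i j * ((T.p i + z0 * T.v i) * (ρ * T.v j) +
        (ρ * T.v i) * (T.p j + z0 * T.v j)),
    c2 * ρ ^ 2 + ∑ i, d i * ρ * (ρ * T.v i) + ∑ i, ∑ j, g i j * ((ρ * T.v i) * (ρ * T.v j))] : V3) k,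
    fun ζ => ?_⟩
  rw [h]
  simp only [Ln4.pos, Matrix.cons_val]
  have e1 : ∀ x y z' : ℝ, N * (N⁻¹ * x + N⁻¹ * y * ζ + N⁻¹ * z' * ζ ^ 2) =
      x + y * ζ + z' * ζ ^ 2 := by
    intro x y z'; field_simp
  rw [e1]
  simp only [Fin.sum_univ_three]
  ring

/-- data of a sheet around one of its lines -/
structure Dta (e : Fin 3 → V3) (c : Ln4) (w : V3) (q : ℝ → V3 → ℝ) (a z0 ρ : ℝ) (T : Ln4)
    (b0 b1 : V3) (G : QF) (κ : ℝ) (φ : V3) : Prop where
  sh : StP e c w q z0 ρ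
  ρ0 : 0 < ρ
  inS : InSheet T e c w q a z0 ρ
  exp : IsExp q e w T z0 ρ b0 b1 G
  κe : κ = kap b0 b1 G
  κ0 : 0 < κ
  hφ : ∀ ζ, q (z0 + ρ * ζ) (T.pos (z0 + ρ * ζ)) = (w 0 * κ) * (φ 0 + φ 1 * ζ + φ 2 * ζ ^ 2)

variable {e : Fin 3 → V3} {c : Ln4} {w : V3} {q : ℝ → V3 → ℝ} {a z0 ρ : ℝ} {T : Ln4}
  {b0 b1 : V3} {G : QF} {κ : ℝ} {φ : V3}

theorem Dta.w_pos (D : Dta e c w q a z0 ρ T b0 b1 G κ φ) (i : Fin 3) : 0 < w i := D.sh.pos i

theorem Dta.nrm (D : Dta e c w q a z0 ρ T b0 b1 G κ φ) : NrmC b0 b1 G :=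
  IsExp.nrmC D.sh D.ρ0.le (fun z h1 h2 => (D.inS z h1 h2).1) D.exp

theorem Dta.hz (D : Dta e c w q a z0 ρ T b0 b1 G κ φ) {ζ : ℝ} (h0 : 0 ≤ ζ) (h1 : ζ ≤ 1) :
    z0 ≤ z0 + ρ * ζ ∧ z0 + ρ * ζ ≤ z0 + ρ := by
  have := D.ρ0
  constructor <;> nlinarith

/-- the value of `qB` -/
theorem Dta.f_eq (D : Dta e c w q a z0 ρ T b0 b1 G κ φ) (ζ : ℝ) (x : V3) :
    q (z0 + ρ * ζ) (T.pos (z0 + ρ * ζ) + cmb (fr e w) x) =
      (w 0 * κ) * (qB φ κ b0 b1 G).f (ζ, x) := by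
  rw [D.exp, D.hφ, qB_f]
  have := D.κ0.ne'
  field_simp

theorem Dta.f_line (D : Dta e c w q a z0 ρ T b0 b1 G κ φ) (t : Ln4) (ζ : ℝ) :
    q (z0 + ρ * ζ) (t.pos (z0 + ρ * ζ)) =
      (w 0 * κ) * (qB φ κ b0 b1 G).f (ζ, crd e w T t (z0 + ρ * ζ)) := by
  rw [← D.f_eq, ← pos_eq_cmb D.sh.ortho D.w_pos]

theorem abs_le_div {x y N A : ℝ} (hN : 0 < N) (h : x = N * y) (hx : |x| ≤ A) : |y| ≤ A / N := by
  rw [le_div_iff₀ hN]
  rw [h, abs_mul, abs_of_pos hN] at hx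
  linarith

/-- **the central line** -/
theorem Dta.loc (D : Dta e c w q a z0 ρ T b0 b1 G κ φ) (ha : 0 ≤ a)
    (hs : 1000 * a ≤ w 0 * κ) :
    Loc (qB φ κ b0 b1 G) (eA b0) (eB b0) (eY κ) 0 eT (a / (w 0 * κ)) := by
  have N := D.nrm
  have hκ := D.κ0
  have hw := D.w_pos 0
  have hwκ : 0 < w 0 * κ := mul_pos hw hκ
  obtain ⟨g1, g2, g3, g4, -, -, -, s1, s2⟩ := N.b1_le
  have hb : b0 0 ≠ 0 := by linarith
  have hκ' : 0 < kap b0 b1 G := by rw [← D.κe]; exact hκ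
  obtain ⟨k1, k2, k3, k4, k5, k6, k7, k8, k9, k10⟩ := N.sc_le hκ'
  rw [← D.κe] at k2 k3 k4 k5 k6 k7 k8 k9 k10
  obtain ⟨m1, -⟩ := N.G_le
  have hκ13 : κ ≤ 13 := by rw [D.κe]; exact kap_le N
  have e0 : ∀ s : ℝ, (0 : V4) + s • eT = (s, 0) := by
    intro s; simp [eT]
  have ez : (0 : V4) = (0, 0) := rfl
  have hY : ∀ s : ℝ, (qB φ κ b0 b1 G).G (s, 0) (eY κ) = b0 0 + s * b1 0 := by
    intro s
    rw [eY, qB_G]
    simp only [dt, bz, QF.pol, Pi.zero_apply, Matrix.cons_val]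
    field_simp
    ring
  refine ⟨by positivity, ?_, ?_, ?_, ?_, ?_, ?_, ?_, ?_, ?_, ?_, ?_, ?_, ?_, ?_⟩
  · rw [div_le_iff₀ hwκ]; linarith
  · rw [ez, eA, qB_G]
    simp only [dt, bz, QF.pol, Pi.zero_apply, Matrix.cons_val]
    field_simp
    ring
  · rw [ez, eB, qB_G]
    simp only [dt, bz, QF.pol, Pi.zero_apply, Matrix.cons_val]
    field_simp
    ring
  · intro s hs0 hs1
    rw [e0, hY]
    constructor <;> nlinarith
  · intro s hs0 hs1
    rw [e0]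
    obtain ⟨z1, z2⟩ := D.hz hs0 hs1
    have h := (D.inS _ z1 z2).2
    refine abs_le_div hwκ ?_ h
    rw [D.hφ, qB_f]
    simp only [Fq, dt, QF.ev, Pi.zero_apply]
    ring
  · have e1 : (qB φ κ b0 b1 G).H (eA b0) (eA b0) = (scG κ b0 G).uu := by
      rw [qB_H]
      simp only [eA, dt, QF.pol, Matrix.cons_val, scG, shG]
      field_simp
      ring
    rw [e1]; exact k8
  · have e1 : (qB φ κ b0 b1 G).H (eA b0) (eB b0) = (scG κ b0 G).uv / 2 := by
      rw [qB_H]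
      simp only [eA, eB, dt, QF.pol, Matrix.cons_val, scG, shG]
      field_simp
      ring
    rw [e1, abs_div, abs_two]; linarith
  · have e1 : (qB φ κ b0 b1 G).H (eB b0) (eB b0) = (scG κ b0 G).vv := by
      rw [qB_H]
      simp only [eB, dt, QF.pol, Matrix.cons_val, scG, shG]
      field_simp
      ring
    rw [e1]; exact k10
  · have e1 : (qB φ κ b0 b1 G).H eT (eA b0) = scB1 κ b0 b1 1 / 2 := by
      rw [qB_H]
      simp only [eA, eT, dt, QF.pol, Matrix.cons_val, scB1, shB1, Pi.zero_apply]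
      field_simp
      ring
    rw [e1, abs_div, abs_two]; linarith
  · have e1 : (qB φ κ b0 b1 G).H eT (eB b0) = scB1 κ b0 b1 2 / 2 := by
      rw [qB_H]
      simp only [eB, eT, dt, QF.pol, Matrix.cons_val, scB1, shB1, Pi.zero_apply]
      field_simp
      ring
    rw [e1, abs_div, abs_two]; linarith
  · have e1 : (qB φ κ b0 b1 G).H (eA b0) (eY κ) = (scG κ b0 G).yu / 2 := by
      rw [qB_H]
      simp only [eA, eY, dt, QF.pol, Matrix.cons_val, scG, shG]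
      field_simp
      ring
    rw [e1, abs_div, abs_two]; linarith
  · have e1 : (qB φ κ b0 b1 G).H (eB b0) (eY κ) = (scG κ b0 G).yv / 2 := by
      rw [qB_H]
      simp only [eB, eY, dt, QF.pol, Matrix.cons_val, scG, shG]
      field_simp
      ring
    rw [e1, abs_div, abs_two]; linarith
  · have e1 : (qB φ κ b0 b1 G).H (eY κ) (eY κ) = (scG κ b0 G).yy := by
      rw [qB_H]
      simp only [eY, dt, QF.pol, Matrix.cons_val, scG, shG]
      field_simp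
      ring
    rw [e1]; linarith
  · have e1 : (qB φ κ b0 b1 G).H eT (eY κ) = b1 0 / 2 := by
      rw [qB_H]
      simp only [eT, eY, dt, QF.pol, Matrix.cons_val, Pi.zero_apply]
      field_simp
      ring
    have := k2 0
    have e2 : scB1 κ b0 b1 0 = b1 0 := rfl
    rw [e2] at this
    rw [e1, abs_div, abs_two]; linarith

/-- the coordinates `(uA, uB, uY)` from plank coordinates -/
noncomputable def cY (b0 : V3) (κ : ℝ) (x : V3) : ℝ :=
  (x 0 + b0 1 / b0 0 * x 1 + b0 2 / b0 0 * x 2) / κ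

theorem basis_eq (b0 : V3) {κ : ℝ} (hκ : κ ≠ 0) (x : V3) :
    ((0 : ℝ), x) = x 1 • eA b0 + x 2 • eB b0 + cY b0 κ x • eY κ := by
  ext i
  · simp [eA, eB, eY]
  · simp only [eA, eB, eY, cY, Prod.snd_add, Prod.smul_snd, Pi.add_apply, Pi.smul_apply,
      smul_eq_mul]
    fin_cases i
    · simp only [Fin.zero_eta, Matrix.cons_val]
      field_simp
      ring
    · simp
    · simp

/-- **a line of the sheet in the small box of `T`** -/
theorem Dta.lin (D : Dta e c w q a z0 ρ T b0 b1 G κ φ) {t : Ln4}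
    (ht : InSheet t e c w q a z0 ρ)
    (hn : ∀ z, z0 ≤ z → z ≤ z0 + ρ → ∀ i, |crd e w T t z i| ≤ 1 / 1000) :
    Lin (qB φ κ b0 b1 G) (eA b0) (eB b0) (eY κ) 0 eT (a / (w 0 * κ))
      (0, crd e w T t z0) (1, vel e w T t ρ) (crd e w T t z0 1) (crd e w T t z0 2)
      (cY b0 κ (crd e w T t z0)) (vel e w T t ρ 1) (vel e w T t ρ 2)
      (cY b0 κ (vel e w T t ρ)) := by
  have N := D.nrm
  have hκ := D.κ0
  have hw := D.w_pos 0
  have hwκ : 0 < w 0 * κ := mul_pos hw hκ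
  obtain ⟨g1, g2, g3, g4, -, -, -, s1, s2⟩ := N.b1_le
  obtain ⟨m1, -⟩ := N.G_le
  have hx : ∀ s : ℝ, 0 ≤ s → s ≤ 1 → ∀ i, |crd e w T t z0 i + s * vel e w T t ρ i| ≤ 1 / 1000 := by
    intro s hs0 hs1 i
    rw [← crd_add]
    obtain ⟨z1, z2⟩ := D.hz hs0 hs1
    exact hn _ z1 z2 i
  have ept : ∀ s : ℝ, ((0 : ℝ), crd e w T t z0) + s • ((1 : ℝ), vel e w T t ρ) =
      (s, crd e w T t (z0 + ρ * s)) := by
    intro s
    ext i
    · simp
    · simp only [Prod.snd_add, Prod.smul_snd, Pi.add_apply, Pi.smul_apply, smul_eq_mul]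
      rw [crd_add]
  refine ⟨?_, ?_, ?_, ?_, ?_, ?_, ?_⟩
  · rw [zero_add]; exact basis_eq b0 hκ.ne' _
  · rw [← basis_eq b0 hκ.ne']
    ext i
    · simp [eT]
    · simp [eT]
  · intro s hs0 hs1; exact hx s hs0 hs1 1
  · intro s hs0 hs1; exact hx s hs0 hs1 2
  · intro s hs0 hs1
    have e1 : (qB φ κ b0 b1 G).H (eY κ) (eY κ) = κ * G.yy := by
      rw [qB_H]
      simp only [eY, dt, QF.pol, Matrix.cons_val]
      field_simp
      ring
    have e2 : cY b0 κ (crd e w T t z0) + s * cY b0 κ (vel e w T t ρ) =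
        ((crd e w T t z0 0 + s * vel e w T t ρ 0) +
          b0 1 / b0 0 * (crd e w T t z0 1 + s * vel e w T t ρ 1) +
          b0 2 / b0 0 * (crd e w T t z0 2 + s * vel e w T t ρ 2)) / κ := by
      simp only [cY]; ring
    rw [e1, e2, ← abs_mul]
    have e3 : ∀ x : ℝ, x / κ * (κ * G.yy) = x * G.yy := by intro x; field_simp
    rw [e3]
    have h0 := hx s hs0 hs1 0
    have h1 := abs_mul_le' s1 (hx s hs0 hs1 1)
    have h2 := abs_mul_le' s2 (hx s hs0 hs1 2)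
    refine (abs_mul_le' ((abs_add3 _ _ _).trans (add_le_add (add_le_add h0 h1) h2)) m1).trans ?_
    norm_num
  · intro s hs0 hs1
    rw [ept]
    obtain ⟨z1, z2⟩ := D.hz hs0 hs1
    exact abs_le_div hwκ (D.f_line t s) (ht _ z1 z2).2
  · intro s hs0 hs1
    rw [ept, eY, qB_G]
    obtain ⟨z1, z2⟩ := D.hz hs0 hs1
    have hx0 := hn _ z1 z2 0
    have hx1 := hn _ z1 z2 1
    have hx2 := hn _ z1 z2 2
    have e1 : φ 1 * 0 + 2 * φ 2 * s * 0 + κ⁻¹ * (dt (bz b0 b1 s) ![κ, 0, 0] +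
        0 * dt b1 (crd e w T t (z0 + ρ * s)) + G.pol (crd e w T t (z0 + ρ * s)) ![κ, 0, 0]) =
        b0 0 + s * b1 0 + G.yy * (2 * crd e w T t (z0 + ρ * s) 0) +
          G.yu * crd e w T t (z0 + ρ * s) 1 + G.yv * crd e w T t (z0 + ρ * s) 2 := by
      simp only [dt, bz, QF.pol, Matrix.cons_val]
      field_simp
      ring
    rw [e1]
    refine N.st s hs0 hs1 _ _ _ ?_ (hx1.trans (by norm_num)) (hx2.trans (by norm_num))
    rw [abs_mul, abs_two]; linarith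

end Crest.Agent.R136.Nd214
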