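import Crest.Agent.R136.Nd4_565

/-!
# R136 (S0187), U5: the box around a tilted ribbon of a sheet of the class `ShN`, part 2 (helper565)

* `exists_cig` : the frame of the box and its gradient bounds.
-/

set_option autoImplicit false
set_option linter.unusedVariables false

namespace Crest.Agent.R136.Nd565

open Finset Sh605 UB683

theorem ortho_abs_le {n : Fin 3 → V3} (hn : Ortho n) (i j : Fin 3) : |n i j| ≤ 1 := by
  have h := hn i i
  simp only [dt, if_true] at h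
  rw [← sq_le_one_iff_abs_le_one]
  fin_cases j
  · change n i 0 ^ 2 ≤ 1; nlinarith [sq_nonneg (n i 1), sq_nonneg (n i 2)]
  · change n i 1 ^ 2 ≤ 1; nlinarith [sq_nonneg (n i 0), sq_nonneg (n i 2)]
  · change n i 2 ^ 2 ≤ 1; nlinarith [sq_nonneg (n i 1), sq_nonneg (n i 0)]

theorem abs_mul_le2 {a b A B : ℝ} (ha : |a| ≤ A) (hb : |b| ≤ B) : |a * b| ≤ A * B := by
  rw [abs_mul]; exact mul_le_mul ha hb (abs_nonneg _) ((abs_nonneg _).trans ha)

theorem abs_add_three' (a b c : ℝ) : |a + b + c| ≤ |a| + |b| + |c| := by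
  have t1 := abs_add_le (a + b) c
  have t2 := abs_add_le a b
  linarith

set_option maxHeartbeats 1000000 in
theorem exists_cig {w p r : V3} {H : Fin 3 → Fin 3 → ℝ} {z0 ρ z1 ρ1 nA nB y β σ K L : ℝ}
    (hw0 : 0 < w 0) (hw02 : w 0 ≤ w 2) (hw : w 2 ≤ w 1) (B : GB w p r H z0 ρ)
    (hz : z0 ≤ z1) (hz' : z1 + ρ1 ≤ z0 + ρ) (hρ1 : 0 ≤ ρ1) (h128 : 128 * ρ1 ≤ ρ)
    (hs : ∀ i j, H i j = H j i)
    (hn : nA ^ 2 + nB ^ 2 = 1) (R : Rb w p r H z0 ρ nA nB y β (K * σ * w 0)) (hβ : 0 < β)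
    (hβ1 : β ≤ 1 / 20000) (hσ : 0 < σ) (hK : 1 ≤ K) (hL0 : 0 ≤ L)
    (hL : dt (Ev w nA nB y) (Ev w nA nB y) = L ^ 2) (ht : 400 * (K * σ) * w 1 ≤ β * L) :
    ∃ m lam, Cig w p r H z1 ρ1 nA nB y β σ K L m lam := by
  have hw2 : 0 < w 2 := by linarith
  have hw1 : 0 < w 1 := by linarith
  have hρ : 0 ≤ ρ := by linarith
  obtain ⟨p1, p2, p3, p4⟩ := tilt_pre hw0 hw02 hw B hρ hn R hβ hσ hK hL0 hL ht
  have hLp : 0 < L := by linarith
  have hn' := n_le hn
  have hwi : ∀ i, w 0 ≤ w i := by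
    intro i; fin_cases i
    · exact le_rfl
    · show w 0 ≤ w 1
      linarith
    · exact hw02
  have hwp : ∀ i, 0 < w i := fun i => by linarith [hwi i]
  set E := Ev w nA nB y with hE
  set g := gr p r z1 with hg
  have g0 := B.g0 z1 hz (by linarith)
  have g1 := B.g1 z1 hz (by linarith)
  have g2 := B.g2 z1 hz (by linarith)
  have f1 := R.f1 z1 hz (by linarith)
  have hKσ : 0 < K * σ := by positivity
  have q1 : |dt g E / L| ≤ 1 / 70 := by
    rw [abs_div, abs_of_pos hLp, div_le_iff₀ hLp]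
    have h1 : |dt g E| * β ≤ (1 / 70 * L) * β := by
      calc |dt g E| * β ≤ K * σ * w 0 := f1
        _ ≤ (β / 70) * w 0 := mul_le_mul_of_nonneg_right (by linarith) hw0.le
        _ ≤ (β / 70) * L := mul_le_mul_of_nonneg_left (hw02.trans p1) (by positivity)
        _ = _ := by ring
    exact le_of_mul_le_mul_right h1 hβ
  have q2 : (0.49 : ℝ) ^ 2 + (dt g E / L) ^ 2 ≤ dt g g := by
    have h1 : (dt g E / L) ^ 2 ≤ (1 / 70) ^ 2 := by
      rw [← sq_abs]; exact pow_le_pow_left₀ (abs_nonneg _) q1 2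
    have h2 : 1 / 4 ≤ dt g g := by
      have h3 : 1 / 2 ≤ g 0 := g0.1
      unfold dt
      nlinarith [mul_self_nonneg (g 1), mul_self_nonneg (g 2)]
    norm_num at h1 ⊢
    linarith
  obtain ⟨m, lam, hm, hm1, hlam, hg0, hg2⟩ := exists_frm g E hLp hL (by norm_num) q2
  refine ⟨m, lam, hm, hm1, hlam, hg0, hg2, ?_⟩
  -- abbreviations
  set W0 := 1200 * (K * σ) * (w 1 * w 0) / L with hW0
  set W2 := 1200 * (K * σ) * (w 1 * w 2) / L with hW2
  have hW0L : W0 * L = 1200 * (K * σ) * (w 1 * w 0) := by rw [hW0]; field_simp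
  have hW2L : W2 * L = 1200 * (K * σ) * (w 1 * w 2) := by rw [hW2]; field_simp
  have hW0p : 0 < W0 := by rw [hW0]; positivity
  have hW2p : 0 < W2 := by rw [hW2]; positivity
  have hrat : W2 * (w 0 / w 2) = W0 := by rw [hW0, hW2]; field_simp
  have hrat' : W0 / W2 = w 0 / w 2 := by
    rw [div_eq_iff hW2p.ne', mul_comm]; exact hrat.symm
  have s1 : W2 ≤ 3 * β * w 2 := by
    have : W2 * L ≤ 3 * β * w 2 * L := by
      rw [hW2L]
      have := mul_le_mul_of_nonneg_right ht hw2.le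
      linarith
    exact le_of_mul_le_mul_right this hLp
  have s0 : W0 ≤ 3 * β * w 0 := by
    have : W0 * L ≤ 3 * β * w 0 * L := by
      rw [hW0L]
      have := mul_le_mul_of_nonneg_right ht hw0.le
      linarith
    exact le_of_mul_le_mul_right this hLp
  have s2 : 200 * (K * σ) * w 0 ≤ W0 := by
    have h1 : 200 * (K * σ) * w 0 * L ≤ W0 * L := by
      rw [hW0L]
      have : 200 * (K * σ) * w 0 * L ≤ 200 * (K * σ) * w 0 * (6 * w 1) :=
        mul_le_mul_of_nonneg_left p3 (by positivity)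
      linarith
    exact le_of_mul_le_mul_right h1 hLp
  have hm1le : ∀ i j, |m i j| ≤ 1 := fun i j => ortho_abs_le hm i j
  have hrle : w 0 / w 1 ≤ w 0 / w 2 := div_le_div_of_nonneg_left hw0.le hw2 hw
  have hr0 : 0 < w 0 / w 2 := by positivity
  have hm20 : |m 2 0| ≤ 4 * (w 0 / w 2) := by
    have e1 : g 0 * m 2 0 = -(g 1 * m 2 1) - g 2 * m 2 2 := by
      have := hg2
      unfold dt at this
      linarith
    have t1 : |g 1 * m 2 1| ≤ w 0 / w 2 := by
      refine (abs_mul_le2 g1 (hm1le 2 1)).trans ?_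
      linarith
    have t2 : |g 2 * m 2 2| ≤ w 0 / w 2 := by
      refine (abs_mul_le2 g2 (hm1le 2 2)).trans ?_
      linarith
    have t3 : |g 0 * m 2 0| ≤ 2 * (w 0 / w 2) := by
      rw [e1]
      have := abs_sub (-(g 1 * m 2 1)) (g 2 * m 2 2)
      rw [abs_neg] at this
      linarith
    have t4 : 0 < g 0 := by linarith [g0.1]
    rw [abs_mul, abs_of_pos t4] at t3
    have : 1 / 2 * |m 2 0| ≤ g 0 * |m 2 0| := mul_le_mul_of_nonneg_right g0.1 (abs_nonneg _)
    linarith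
  have hm0w : ∀ j, |m 0 j| ≤ (fun _ => 1 / w 0 : V3) j * w j := by
    intro j
    refine (hm1le 0 j).trans ?_
    show 1 ≤ 1 / w 0 * w j
    rw [one_div, inv_mul_eq_div, one_le_div hw0]
    exact hwi j
  have hm2w : ∀ j, |m 2 j| ≤ (![4 / w 2, 1 / w 2, 1 / w 2] : V3) j * w j := by
    intro j
    fin_cases j
    · show |m 2 0| ≤ 4 / w 2 * w 0
      refine hm20.trans (le_of_eq ?_)
      ring
    · show |m 2 1| ≤ 1 / w 2 * w 1
      refine (hm1le 2 1).trans ?_
      rw [one_div, inv_mul_eq_div, one_le_div hw2]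
      exact hw
    · show |m 2 2| ≤ 1 / w 2 * w 2
      refine (hm1le 2 2).trans (le_of_eq ?_)
      field_simp
  have hEw : ∀ j, |E j| ≤ (![5, 1, 1] : V3) j * w j := by
    intro j
    fin_cases j
    · show |y| ≤ 5 * w 0
      exact p2
    · show |w 1 * -nB| ≤ 1 * w 1
      rw [abs_mul, abs_neg, abs_of_pos hw1]; nlinarith [hn'.2]
    · show |w 2 * nA| ≤ 1 * w 2
      rw [abs_mul, abs_of_pos hw2]; nlinarith [hn'.1]
  have hq0 : ∀ i, 0 ≤ (fun _ => 1 / w 0 : V3) i := fun i => by positivity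
  have hq2 : ∀ i, 0 ≤ (![4 / w 2, 1 / w 2, 1 / w 2] : V3) i := by
    intro i; fin_cases i
    · show 0 ≤ 4 / w 2
      positivity
    · show 0 ≤ 1 / w 2
      positivity
    · show 0 ≤ 1 / w 2
      positivity
  have hq1 : ∀ i, 0 ≤ (![5, 1, 1] : V3) i := by
    intro i; fin_cases i <;> simp
  have b00 : |bl H (m 0) (m 0)| ≤ 9 / w 0 := by
    refine (bl_le hwp B.hH _ _ hq0 hq0 hm0w hm0w).trans (le_of_eq ?_)
    field_simp; ring
  have b20 : |bl H (m 2) (m 0)| ≤ 18 / w 2 := by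
    refine (bl_le hwp B.hH _ _ hq2 hq0 hm2w hm0w).trans (le_of_eq ?_)
    show w 0 * ((4 / w 2 + 1 / w 2 + 1 / w 2) * (1 / w 0 + 1 / w 0 + 1 / w 0)) = 18 / w 2
    field_simp; ring
  have b02 : |bl H (m 0) (m 2)| ≤ 18 / w 2 := by rw [bl_symm hs]; exact b20
  have bE0 : |bl H E (m 0)| ≤ 21 := by
    refine (bl_le hwp B.hH _ _ hq1 hq0 hEw hm0w).trans (le_of_eq ?_)
    show w 0 * ((5 + 1 + 1) * (1 / w 0 + 1 / w 0 + 1 / w 0)) = 21
    field_simp; ring
  have b0E : |bl H (m 0) E| ≤ 21 := by rw [bl_symm hs]; exact bE0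
  have b22 : |bl H (m 2) (m 2)| ≤ 36 / w 2 * (w 0 / w 2) := by
    refine (bl_le hwp B.hH _ _ hq2 hq2 hm2w hm2w).trans (le_of_eq ?_)
    show w 0 * ((4 / w 2 + 1 / w 2 + 1 / w 2) * (4 / w 2 + 1 / w 2 + 1 / w 2)) = _
    field_simp; ring
  have bE2 : |bl H E (m 2)| ≤ 42 * (w 0 / w 2) := by
    refine (bl_le hwp B.hH _ _ hq1 hq2 hEw hm2w).trans (le_of_eq ?_)
    show w 0 * ((5 + 1 + 1) * (4 / w 2 + 1 / w 2 + 1 / w 2)) = _
    field_simp; ring
  have b2E : |bl H (m 2) E| ≤ 42 * (w 0 / w 2) := by rw [bl_symm hs]; exact bE2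
  have bEE : |bl H E E| * β ^ 2 ≤ K * σ * w 0 := R.f2
  -- one vector of the box
  have c0 : ∀ U : V3, (∀ i, |dt (m i) U| ≤ 2 * Wn w β σ K L i) →
      |dt (m 0) U| ≤ 2 * W0 ∧ |dt (m 1) U / L| ≤ 6 * β ∧ |dt (m 2) U| ≤ 2 * W2 := by
    intro U hU
    refine ⟨hU 0, ?_, hU 2⟩
    rw [abs_div, abs_of_pos hLp, div_le_iff₀ hLp]
    have : |dt (m 1) U| ≤ 2 * (3 * β * L) := hU 1
    linarith
  have c1 : ∀ U : V3, (∀ i, |dt (m i) U| ≤ 2 * Wn w β σ K L i) → |bl H U (m 0)| ≤ 288 * β := by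
    intro U hU
    obtain ⟨u0, u1, u2⟩ := c0 U hU
    rw [cigar_expand hm hm1 H U (m 0)]
    have t1 : |dt (m 0) U * bl H (m 0) (m 0)| ≤ 54 * β := by
      refine (abs_mul_le2 (u0.trans (by linarith : 2 * W0 ≤ 2 * (3 * β * w 0))) b00).trans
        (le_of_eq ?_)
      field_simp; ring
    have t2 : |dt (m 2) U * bl H (m 2) (m 0)| ≤ 108 * β := by
      refine (abs_mul_le2 (u2.trans (by linarith : 2 * W2 ≤ 2 * (3 * β * w 2))) b20).trans
        (le_of_eq ?_)
      field_simp; ring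
    have t3 : |dt (m 1) U / L * bl H E (m 0)| ≤ 126 * β :=
      (abs_mul_le2 u1 bE0).trans (le_of_eq (by ring))
    have k1 := abs_add_three' (dt (m 0) U * bl H (m 0) (m 0)) (dt (m 1) U / L * bl H E (m 0))
      (dt (m 2) U * bl H (m 2) (m 0))
    linarith
  have c3 : ∀ U : V3, (∀ i, |dt (m i) U| ≤ 2 * Wn w β σ K L i) →
      |bl H U (m 2)| ≤ 576 * β * (w 0 / w 2) := by
    intro U hU
    obtain ⟨u0, u1, u2⟩ := c0 U hU
    rw [cigar_expand hm hm1 H U (m 2)]
    have t1 : |dt (m 0) U * bl H (m 0) (m 2)| ≤ 108 * β * (w 0 / w 2) := by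
      refine (abs_mul_le2 (u0.trans (by linarith : 2 * W0 ≤ 2 * (3 * β * w 0))) b02).trans
        (le_of_eq ?_)
      field_simp; ring
    have t2 : |dt (m 2) U * bl H (m 2) (m 2)| ≤ 216 * β * (w 0 / w 2) := by
      refine (abs_mul_le2 (u2.trans (by linarith : 2 * W2 ≤ 2 * (3 * β * w 2))) b22).trans
        (le_of_eq ?_)
      field_simp; ring
    have t3 : |dt (m 1) U / L * bl H E (m 2)| ≤ 252 * β * (w 0 / w 2) :=
      (abs_mul_le2 u1 bE2).trans (le_of_eq (by ring))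
    have k1 := abs_add_three' (dt (m 0) U * bl H (m 0) (m 2)) (dt (m 1) U / L * bl H E (m 2))
      (dt (m 2) U * bl H (m 2) (m 2))
    linarith
  have c2 : ∀ U : V3, (∀ i, |dt (m i) U| ≤ 2 * Wn w β σ K L i) →
      β * |bl H U E| ≤ 126 * W0 * β + 6 * (K * σ * w 0) := by
    intro U hU
    obtain ⟨u0, u1, u2⟩ := c0 U hU
    rw [cigar_expand hm hm1 H U E]
    have t1 : |dt (m 0) U * bl H (m 0) E| ≤ 42 * W0 :=
      (abs_mul_le2 u0 b0E).trans (le_of_eq (by ring))
    have t2 : |dt (m 2) U * bl H (m 2) E| ≤ 84 * W0 := by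
      refine (abs_mul_le2 u2 b2E).trans (le_of_eq ?_)
      rw [← hrat]; ring
    have t3 : β * |dt (m 1) U / L * bl H E E| ≤ 6 * (K * σ * w 0) := by
      rw [abs_mul]
      calc β * (|dt (m 1) U / L| * |bl H E E|) ≤ β * ((6 * β) * |bl H E E|) :=
            mul_le_mul_of_nonneg_left (mul_le_mul_of_nonneg_right u1 (abs_nonneg _)) hβ.le
        _ = 6 * (|bl H E E| * β ^ 2) := by ring
        _ ≤ 6 * (K * σ * w 0) := by linarith
    have k1 := abs_add_three' (dt (m 0) U * bl H (m 0) E) (dt (m 1) U / L * bl H E E)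
      (dt (m 2) U * bl H (m 2) E)
    have k3 : β * |dt (m 0) U * bl H (m 0) E + dt (m 1) U / L * bl H E E +
        dt (m 2) U * bl H (m 2) E| ≤ β * (|dt (m 0) U * bl H (m 0) E| +
          |dt (m 1) U / L * bl H E E| + |dt (m 2) U * bl H (m 2) E|) :=
      mul_le_mul_of_nonneg_left k1 hβ.le
    have k4 : β * |dt (m 0) U * bl H (m 0) E| ≤ β * (42 * W0) :=
      mul_le_mul_of_nonneg_left t1 hβ.le
    have k5 : β * |dt (m 2) U * bl H (m 2) E| ≤ β * (84 * W0) :=
      mul_le_mul_of_nonneg_left t2 hβ.le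
    linarith
  intro z hzz hzz' U U' hU hU'
  have hβ' : β * (w 0 / w 2) ≤ 1 / 20000 * (w 0 / w 2) := mul_le_mul_of_nonneg_right hβ1 hr0.le
  refine ⟨?_, ?_, ?_⟩
  · have h1 : |bl H (U + U') (m 0)| ≤ 576 * β := by
      rw [bl_add_left]
      have := abs_add_le (bl H U (m 0)) (bl H U' (m 0))
      linarith [c1 U hU, c1 U' hU']
    have h2 := gr_var B hρ1 h128 hzz hzz' (m 0)
    rw [← hg, hg0] at h2
    have h3 : (3 / 2 * |m 0 0| + 2 * (w 0 / w 1) * |m 0 1| + 2 * (w 0 / w 2) * |m 0 2|) / 128 ≤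
        6 / 128 := by
      have u1 : w 0 / w 2 ≤ 1 := by rw [div_le_one hw2]; exact hw02
      have u2 : 2 * (w 0 / w 1) * |m 0 1| ≤ 2 * 1 * 1 := by
        refine mul_le_mul (by linarith) (hm1le 0 1) (abs_nonneg _) (by norm_num)
      have u3 : 2 * (w 0 / w 2) * |m 0 2| ≤ 2 * 1 * 1 := by
        refine mul_le_mul (by linarith) (hm1le 0 2) (abs_nonneg _) (by norm_num)
      have u4 := hm1le 0 0
      linarith
    have h4 := h2.trans h3
    rw [abs_le] at h1 h4
    constructor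
    · linarith [h1.1, h4.1]
    · linarith [h1.2, h4.2]
  · have e1 : dt (gr p r z) (m 1) + bl H (U + U') (m 1) =
        (dt (gr p r z) E + bl H (U + U') E) / L := by
      rw [hm1, dt_smul, bl_smul_right]; ring
    rw [e1, abs_div, abs_of_pos hLp]
    have f2 := R.f1 z (by linarith) (by linarith)
    have k1 : β * |dt (gr p r z) E + bl H (U + U') E| ≤ K * σ * w 0 + (252 * W0 * β +
        12 * (K * σ * w 0)) := by
      have t1 := abs_add_le (dt (gr p r z) E) (bl H (U + U') E)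
      have t2 : |bl H (U + U') E| ≤ |bl H U E| + |bl H U' E| := by
        rw [bl_add_left]; exact abs_add_le _ _
      have t3 := c2 U hU
      have t4 := c2 U' hU'
      have t5 : β * |dt (gr p r z) E + bl H (U + U') E| ≤ β * (|dt (gr p r z) E| +
          (|bl H U E| + |bl H U' E|)) := mul_le_mul_of_nonneg_left (by linarith) hβ.le
      have t6 : β * |dt (gr p r z) E| ≤ K * σ * w 0 := by rw [mul_comm]; exact f2
      linarith
    have k2 : 3 * (β * |dt (gr p r z) E + bl H (U + U') E|) ≤ lam * W0 := by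
      have t1 : W0 * β ≤ W0 * (1 / 20000) := mul_le_mul_of_nonneg_left hβ1 hW0p.le
      have t2 : 0.49 * W0 ≤ lam * W0 := mul_le_mul_of_nonneg_right hlam hW0p.le
      linarith
    rw [div_le_iff₀ hLp]
    have e2 : lam * (Wn w β σ K L 0 / Wn w β σ K L 1) * L = lam * W0 / (3 * β) := by
      show lam * (W0 / (3 * β * L)) * L = lam * W0 / (3 * β)
      field_simp
    rw [e2, le_div_iff₀ (by positivity)]
    linarith
  · have e3 : lam * (Wn w β σ K L 0 / Wn w β σ K L 2) = lam * (w 0 / w 2) := by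
      show lam * (W0 / W2) = _
      rw [hrat']
    rw [e3]
    have h1 : |bl H (U + U') (m 2)| ≤ 1152 * β * (w 0 / w 2) := by
      rw [bl_add_left]
      have := abs_add_le (bl H U (m 2)) (bl H U' (m 2))
      linarith [c3 U hU, c3 U' hU']
    have h2 := gr_var B hρ1 h128 hzz hzz' (m 2)
    rw [← hg, hg2, sub_zero] at h2
    have h3 : (3 / 2 * |m 2 0| + 2 * (w 0 / w 1) * |m 2 1| + 2 * (w 0 / w 2) * |m 2 2|) / 128 ≤
        10 / 128 * (w 0 / w 2) := by
      have u2 : 2 * (w 0 / w 1) * |m 2 1| ≤ 2 * (w 0 / w 2) * 1 := by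
        refine mul_le_mul (by linarith) (hm1le 2 1) (abs_nonneg _) (by positivity)
      have u3 : 2 * (w 0 / w 2) * |m 2 2| ≤ 2 * (w 0 / w 2) * 1 := by
        refine mul_le_mul le_rfl (hm1le 2 2) (abs_nonneg _) (by positivity)
      linarith
    have h4 := h2.trans h3
    have h5 : 0.49 * (w 0 / w 2) ≤ lam * (w 0 / w 2) := mul_le_mul_of_nonneg_right hlam hr0.le
    refine (abs_add_le _ _).trans ?_
    linarith

end Crest.Agent.R136.Nd565
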