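import Crest.Agent.R136.Nd5_214
import Crest.Agent.R136.Nd3_880

/-!
# R136, non-degeneracy of near-maximal sheets (helper214), part 6: pairs of lines of a degenerate
sheet through one small cell, high and low lines
-/

set_option autoImplicit false
set_option linter.unusedVariables false
set_option linter.unusedSectionVars false

open Finset

namespace Crest.Agent.R136.Nd214

open Crest.Agent.R136.Tl214 Crest.Agent.R136.Nd880
open Crest.Agent.R136.Arc880 (det3)

variable {E : Type*} [AddCommGroup E] [Module ℝ E]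
variable {q : QP E} {eA eB eY x0 τ0 p τ : E} {a uA uB uY vA vB vY : ℝ}

/-- the central line -/
theorem Loc.lin0 (L : Loc q eA eB eY x0 τ0 a) : Lin q eA eB eY x0 τ0 a x0 τ0 0 0 0 0 0 0 where
  hp := by simp
  hτ := by simp
  bA := fun s _ _ => by norm_num
  bB := fun s _ _ => by norm_num
  bY := fun s _ _ => by simp
  hf := L.f0
  hg := L.g

/-- **the degeneracy spreads over the whole class** -/
theorem Lin.det_le (L : Loc q eA eB eY x0 τ0 a)
    (T : Lin q eA eB eY x0 τ0 a p τ uA uB uY vA vB vY) {s s0 : ℝ} (hs : 0 ≤ s) (hs1 : s ≤ 1)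
    (h0 : 0 ≤ s0) (h1 : s0 ≤ 1) :
    |det3 (fanQ q eA eB eY (p + s • τ) τ)| ≤
      16 * |det3 (fanQ q eA eB eY (x0 + s0 • τ0) τ0)| + 10 ^ 16 * a := by
  have F0 := L.lin0.frm L h0 h1
  have F := T.frm L hs hs1
  have c0 := L.lin0.coef h0 h1
  have c := T.coef hs hs1
  have a0 := L.a0
  have a1 := L.a1
  have n0 : q.G (x0 + s0 • τ0) eY ≠ 0 := by linarith [F0.g0]
  have hY : lift q eY (x0 + s0 • τ0) eY = 0 := lift_eY n0
  have key := det_move (a := 8 * a) F0 F (by linarith) ((L.f0 s0 h0 h1).trans (by linarith))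
    ((T.hf s hs hs1).trans (by linarith)) c0.1 c.1 c0.2 c.2 (t0 := s - s0) (t1 := uA + s * vA)
    (t2 := uB + s * vB) (dA := vA) (dB := vB) ?_ ?_
  · refine key.trans ?_
    have : 8000 * (600 : ℝ) ^ 4 * (8 * a) ≤ 10 ^ 16 * a := by nlinarith
    linarith
  · have e1 : p + s • τ - (x0 + s0 • τ0) = (s - s0) • τ0 + (uA + s * vA) • eA +
        (uB + s * vB) • eB + (uY + s * vY) • eY := by
      rw [T.pt s]; module
    rw [e1, lift_add', lift_add', lift_add', lift_smul', lift_smul', lift_smul', lift_smul', hY,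
      smul_zero, add_zero]
  · rw [T.hτ, lift_add', lift_add', lift_add', lift_smul', lift_smul', lift_smul', hY, smul_zero,
      add_zero, ← add_assoc]

/-- the normal offset at height `0` -/
theorem Lin.uY0 (L : Loc q eA eB eY x0 τ0 a) (T : Lin q eA eB eY x0 τ0 a p τ uA uB uY vA vB vY)
    (ha : a ≤ 1 / 1000000) : |uY| ≤ 1 / 30000 := by
  have hg0 := L.g 0 le_rfl zero_le_one
  have h1 := T.hf 0 le_rfl zero_le_one
  rw [T.pt 0, val3] at h1
  have h0 := L.f0 0 le_rfl zero_le_one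
  have hU := T.bA 0 le_rfl zero_le_one
  have hV := T.bB 0 le_rfl zero_le_one
  have hW := T.bY 0 le_rfl zero_le_one
  simp only [zero_mul, add_zero, zero_smul] at h1 h0 hg0 hU hV hW
  rw [L.gA, L.gB] at h1
  have k3 : |uA ^ 2 * q.H eA eA| ≤ 1 / 1000000 := by
    rw [sq, mul_assoc]
    refine (abs_mul_le' hU (abs_mul_le' hU L.HAA)).trans (by norm_num)
  have k4 : |2 * (uA * uB) * q.H eA eB| ≤ 2 / 1000000 := by
    rw [mul_assoc, mul_assoc]
    refine (abs_mul_le' (le_of_eq abs_two) (abs_mul_le' hU (abs_mul_le' hV L.HAB))).trans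
      (by norm_num)
  have k5 : |uB ^ 2 * q.H eB eB| ≤ 1 / 1000000 := by
    rw [sq, mul_assoc]
    refine (abs_mul_le' hV (abs_mul_le' hV L.HBB)).trans (by norm_num)
  have k6 : |2 * uA * q.H eA eY + 2 * uB * q.H eB eY + uY * q.H eY eY| ≤ 1 / 10 := by
    have e1 : |2 * uA * q.H eA eY| ≤ 2 * (1 / 1000) * 5 :=
      abs_mul_le' (abs_mul_le' (le_of_eq abs_two) hU) L.HAY
    have e2 : |2 * uB * q.H eB eY| ≤ 2 * (1 / 1000) * 5 :=
      abs_mul_le' (abs_mul_le' (le_of_eq abs_two) hV) L.HBY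
    have e3 : |uY * q.H eY eY| ≤ 1 / 100 := by rw [abs_mul]; exact hW
    refine (abs_add3 _ _ _).trans ?_
    linarith
  have h2 : |uY * (q.G x0 eY + (2 * uA * q.H eA eY + 2 * uB * q.H eB eY + uY * q.H eY eY))| ≤
      6 / 1000000 := by
    have e : uY * (q.G x0 eY + (2 * uA * q.H eA eY + 2 * uB * q.H eB eY + uY * q.H eY eY)) =
        (q.f x0 + (uA * 0 + uB * 0 + uY * q.G x0 eY) + (uA ^ 2 * q.H eA eA +
        2 * (uA * uB) * q.H eA eB + uB ^ 2 * q.H eB eB + uY * (2 * uA * q.H eA eY +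
        2 * uB * q.H eB eY + uY * q.H eY eY))) - q.f x0 - uA ^ 2 * q.H eA eA -
        2 * (uA * uB) * q.H eA eB - uB ^ 2 * q.H eB eB := by ring
    rw [e]
    rw [mul_zero, mul_zero] at h1
    rw [mul_zero, mul_zero]
    rw [abs_le] at h1 h0 k3 k4 k5 ⊢
    constructor <;> linarith [h1.1, h1.2, h0.1, h0.2, k3.1, k3.2, k4.1, k4.2, k5.1, k5.2]
  exact (W_le hg0.1 k6 h2).trans (by norm_num)

/-- slopes at height `0` are small -/
theorem Lin.slope0 (L : Loc q eA eB eY x0 τ0 a)
    (T : Lin q eA eB eY x0 τ0 a p τ uA uB uY vA vB vY) (ha : a ≤ 1 / 1000000) :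
    |q.G p eA / q.G p eY| ≤ 1 / 100 ∧ |q.G p eB / q.G p eY| ≤ 1 / 100 := by
  have hY := T.uY0 L ha
  have hg := T.hg 0 le_rfl zero_le_one
  have hU := T.bA 0 le_rfl zero_le_one
  have hV := T.bB 0 le_rfl zero_le_one
  simp only [zero_mul, add_zero, zero_smul] at hg hU hV
  have eA' : q.G p eA = 2 * (uA * q.H eA eA + uB * q.H eA eB + uY * q.H eA eY) := by
    rw [T.hp, q.G_add, L.gA]
    simp only [map_add, map_smul, LinearMap.add_apply, LinearMap.smul_apply, smul_eq_mul]
    rw [q.symm eB eA, q.symm eY eA]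
    ring
  have eB' : q.G p eB = 2 * (uA * q.H eA eB + uB * q.H eB eB + uY * q.H eB eY) := by
    rw [T.hp, q.G_add, L.gB]
    simp only [map_add, map_smul, LinearMap.add_apply, LinearMap.smul_apply, smul_eq_mul]
    rw [q.symm eY eB]
    ring
  have k1 := abs_mul_le' hU L.HAA
  have k2 := abs_mul_le' hV L.HAB
  have k3 := abs_mul_le' hY L.HAY
  have k4 := abs_mul_le' hU L.HAB
  have k5 := abs_mul_le' hV L.HBB
  have k6 := abs_mul_le' hY L.HBY
  have m1 : |q.G p eA| ≤ 5 / 1000 := by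
    rw [eA', abs_mul, abs_two]
    have := abs_add3 (uA * q.H eA eA) (uB * q.H eA eB) (uY * q.H eA eY)
    linarith
  have m2 : |q.G p eB| ≤ 5 / 1000 := by
    rw [eB', abs_mul, abs_two]
    have := abs_add3 (uA * q.H eA eB) (uB * q.H eB eB) (uY * q.H eB eY)
    linarith
  have gp : 0 < q.G p eY := by linarith [hg.1]
  constructor
  · rw [abs_div, abs_of_pos gp, div_le_iff₀ gp]; linarith [hg.1]
  · rw [abs_div, abs_of_pos gp, div_le_iff₀ gp]; linarith [hg.1]

/-- **low lines are curved**: if the rotation of the line is small, its second fundamental form is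
not. -/
theorem Lin.low_sec (L : Loc q eA eB eY x0 τ0 a)
    (T : Lin q eA eB eY x0 τ0 a p τ uA uB uY vA vB vY) (ha : a ≤ 1 / 1000000)
    (hext : 1 ≤ 2 * |q.H τ0 eA| ∨ 1 ≤ 2 * |q.H τ0 eB| ∨ 1 ≤ |q.H eA eA| ∨ 1 ≤ 2 * |q.H eA eB| ∨
      1 ≤ |q.H eB eB|)
    (hA : |bet q eY p τ eA| ≤ 1 / 10) (hB : |bet q eY p τ eB| ≤ 1 / 10) :
    1 / 4 ≤ |sec q eY p eA eA| ∨ 1 / 4 ≤ |sec q eY p eA eB| ∨ 1 / 4 ≤ |sec q eY p eB eB| := by
  obtain ⟨mA, mB⟩ := T.slope0 L ha
  have lA : lift q eY p eA = eA - (q.G p eA / q.G p eY) • eY := rfl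
  have lB : lift q eY p eB = eB - (q.G p eB / q.G p eY) • eY := rfl
  set m := q.G p eA / q.G p eY with hm
  set n := q.G p eB / q.G p eY with hn
  have hvA := T.vA_le
  have hvB := T.vB_le
  have hvY := T.vY_le L
  have hAA := L.HAA
  have hAB := L.HAB
  have hBB := L.HBB
  have hAY := L.HAY
  have hBY := L.HBY
  have hYY := L.HYY
  have mAY := abs_mul_le' mA hAY
  have mBY := abs_mul_le' mA hBY
  have nAY := abs_mul_le' mB hAY
  have nBY := abs_mul_le' mB hBY
  have mmYY := abs_mul_le' mA (abs_mul_le' mA hYY)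
  have mnYY := abs_mul_le' mA (abs_mul_le' mB hYY)
  have nnYY := abs_mul_le' mB (abs_mul_le' mB hYY)
  have bτY : |q.H τ eY| ≤ 5 / 2 := by
    rw [T.hτ]
    simp only [map_add, map_smul, LinearMap.add_apply, LinearMap.smul_apply, smul_eq_mul]
    have k1 := abs_mul_le' hvA hAY
    have k2 := abs_mul_le' hvB hBY
    have k3 := abs_mul_le' hvY hYY
    have k4 := L.HτY
    have := abs_add_le (q.H τ0 eY) (vA * q.H eA eY + vB * q.H eB eY + vY * q.H eY eY)
    have := abs_add3 (vA * q.H eA eY) (vB * q.H eB eY) (vY * q.H eY eY)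
    linarith
  have mτ := abs_mul_le' mA bτY
  have nτ := abs_mul_le' mB bτY
  rcases hext with h | h | h | h | h
  · -- rotation in direction A
    exfalso
    have e : bet q eY p τ eA = q.H τ0 eA + (vA * q.H eA eA + vB * q.H eB eA + vY * q.H eY eA) -
        m * q.H τ eY := by
      unfold bet
      rw [lA, map_sub, map_smul, smul_eq_mul]
      conv_lhs => rw [T.hτ]
      simp only [map_add, map_smul, LinearMap.add_apply, LinearMap.smul_apply, smul_eq_mul]
      rw [T.hτ]
      simp only [map_add, map_smul, LinearMap.add_apply, LinearMap.smul_apply, smul_eq_mul]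
    have k1 := abs_mul_le' hvA hAA
    have k2 := abs_mul_le' hvB (show |q.H eB eA| ≤ 1 by rw [q.symm]; exact hAB)
    have k3 := abs_mul_le' hvY (show |q.H eY eA| ≤ 5 by rw [q.symm]; exact hAY)
    rw [e] at hA
    have k4 := abs_add3 (vA * q.H eA eA) (vB * q.H eB eA) (vY * q.H eY eA)
    have k5 : |q.H τ0 eA| ≤ |q.H τ0 eA + (vA * q.H eA eA + vB * q.H eB eA + vY * q.H eY eA) -
        m * q.H τ eY| + |vA * q.H eA eA + vB * q.H eB eA + vY * q.H eY eA| + |m * q.H τ eY| := by
      have e2 : q.H τ0 eA = (q.H τ0 eA + (vA * q.H eA eA + vB * q.H eB eA + vY * q.H eY eA) -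
        m * q.H τ eY) + -(vA * q.H eA eA + vB * q.H eB eA + vY * q.H eY eA) + m * q.H τ eY := by
        ring
      conv_lhs => rw [e2]
      refine (abs_add3 _ _ _).trans ?_
      rw [abs_neg]
    linarith
  · exfalso
    have e : bet q eY p τ eB = q.H τ0 eB + (vA * q.H eA eB + vB * q.H eB eB + vY * q.H eY eB) -
        n * q.H τ eY := by
      unfold bet
      rw [lB, map_sub, map_smul, smul_eq_mul]
      conv_lhs => rw [T.hτ]
      simp only [map_add, map_smul, LinearMap.add_apply, LinearMap.smul_apply, smul_eq_mul]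
      rw [T.hτ]
      simp only [map_add, map_smul, LinearMap.add_apply, LinearMap.smul_apply, smul_eq_mul]
    have k1 := abs_mul_le' hvA hAB
    have k2 := abs_mul_le' hvB hBB
    have k3 := abs_mul_le' hvY (show |q.H eY eB| ≤ 5 by rw [q.symm]; exact hBY)
    rw [e] at hB
    have k4 := abs_add3 (vA * q.H eA eB) (vB * q.H eB eB) (vY * q.H eY eB)
    have k5 : |q.H τ0 eB| ≤ |q.H τ0 eB + (vA * q.H eA eB + vB * q.H eB eB + vY * q.H eY eB) -
        n * q.H τ eY| + |vA * q.H eA eB + vB * q.H eB eB + vY * q.H eY eB| + |n * q.H τ eY| := by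
      have e2 : q.H τ0 eB = (q.H τ0 eB + (vA * q.H eA eB + vB * q.H eB eB + vY * q.H eY eB) -
        n * q.H τ eY) + -(vA * q.H eA eB + vB * q.H eB eB + vY * q.H eY eB) + n * q.H τ eY := by
        ring
      conv_lhs => rw [e2]
      refine (abs_add3 _ _ _).trans ?_
      rw [abs_neg]
    linarith
  · left
    have e : sec q eY p eA eA = q.H eA eA - 2 * (m * q.H eA eY) + m * (m * q.H eY eY) := by
      unfold sec
      rw [lA]
      simp only [map_sub, map_smul, LinearMap.sub_apply, LinearMap.smul_apply, smul_eq_mul]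
      rw [q.symm eY eA]; ring
    have e2 : q.H eA eA = sec q eY p eA eA + 2 * (m * q.H eA eY) + -(m * (m * q.H eY eY)) := by
      rw [e]; ring
    rw [e2] at h
    have h2 := abs_add3 (sec q eY p eA eA) (2 * (m * q.H eA eY)) (-(m * (m * q.H eY eY)))
    rw [abs_neg, abs_mul 2, abs_two] at h2
    linarith
  · right; left
    have e : sec q eY p eA eB = q.H eA eB - n * q.H eA eY - m * q.H eB eY +
        m * (n * q.H eY eY) := by
      unfold sec
      rw [lA, lB]
      simp only [map_sub, map_smul, LinearMap.sub_apply, LinearMap.smul_apply, smul_eq_mul]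
      rw [q.symm eY eB]; ring
    have e2 : q.H eA eB = sec q eY p eA eB + (n * q.H eA eY + m * q.H eB eY) +
        -(m * (n * q.H eY eY)) := by rw [e]; ring
    have h2 := abs_add3 (sec q eY p eA eB) (n * q.H eA eY + m * q.H eB eY)
      (-(m * (n * q.H eY eY)))
    rw [← e2, abs_neg] at h2
    have h3 := abs_add_le (n * q.H eA eY) (m * q.H eB eY)
    linarith
  · right; right
    have e : sec q eY p eB eB = q.H eB eB - 2 * (n * q.H eB eY) + n * (n * q.H eY eY) := by
      unfold sec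
      rw [lB]
      simp only [map_sub, map_smul, LinearMap.sub_apply, LinearMap.smul_apply, smul_eq_mul]
      rw [q.symm eY eB]; ring
    have e2 : q.H eB eB = sec q eY p eB eB + 2 * (n * q.H eB eY) + -(n * (n * q.H eY eY)) := by
      rw [e]; ring
    rw [e2] at h
    have h2 := abs_add3 (sec q eY p eB eB) (2 * (n * q.H eB eY)) (-(n * (n * q.H eY eY)))
    rw [abs_neg, abs_mul 2, abs_two] at h2
    linarith

/-- the rotation at height `s` and at height `0` -/
theorem bet_s (T : Lin q eA eB eY x0 τ0 a p τ uA uB uY vA vB vY) {s : ℝ} (hs : 0 ≤ s)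
    (hs1 : s ≤ 1) : ∃ m : ℝ, 1 / 4 ≤ m ∧ m ≤ 4 ∧
      ∀ D, bet q eY (p + s • τ) τ D = m * bet q eY p τ D := by
  have hg := T.hg s hs hs1
  have hg0 := T.hg 0 le_rfl zero_le_one
  rw [zero_smul, add_zero] at hg0
  have p0 : 0 < q.G p eY := by linarith [hg0.1]
  have ps : 0 < q.G (p + s • τ) eY := by linarith [hg.1]
  refine ⟨q.G p eY / q.G (p + s • τ) eY, ?_, ?_, fun D => ?_⟩
  · rw [le_div_iff₀ ps]; linarith [hg.2, hg0.1]
  · rw [div_le_iff₀ ps]; linarith [hg.1, hg0.2]
  · have h := bet_const (q := q) (τ := τ) s p0.ne' ps.ne' D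
    rw [div_mul_eq_mul_div, eq_div_iff ps.ne']
    linarith

end Crest.Agent.R136.Nd214
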