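import Crest.Agent.R136.Nd6_214

/-!
# R136, non-degeneracy of near-maximal sheets (helper214), part 7: output of the pair lemmas in the
form of the count (strip relation + flatness)
-/

set_option autoImplicit false
set_option linter.unusedVariables false
set_option linter.unusedSectionVars false

open Finset

namespace Crest.Agent.R136.Nd214

open Crest.Agent.R136.Tl214 Crest.Agent.R136.Nd880
open Crest.Agent.R136.Arc880 (det3)

variable {E : Type*} [AddCommGroup E] [Module ℝ E]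

/-- a family of lines near the central line -/
structure Fam {ι : Type*} (A : Finset ι) (q : QP E) (eA eB eY x0 τ0 : E) (a : ℝ) (p τ : ι → E)
    (uA uB uY vA vB vY : ι → ℝ) : Prop where
  loc : Loc q eA eB eY x0 τ0 a
  lin : ∀ t ∈ A, Lin q eA eB eY x0 τ0 a (p t) (τ t) (uA t) (uB t) (uY t) (vA t) (vB t) (vY t)

/-- flatness of the sheet along the ribbon of half-width `β` in the direction orthogonal to
`(nA, nB)` -/
def FlN (q : QP E) (eA eB eY p τ : E) (nA nB β σ : ℝ) : Prop :=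
  2 * β * |bet q eY p τ ((-nB) • eA + nA • eB)| +
    β ^ 2 * |sec q eY p ((-nB) • eA + nA • eB) ((-nB) • eA + nA • eB)| ≤ σ

open Classical in
/-- output of the pair lemmas -/
structure Out {ι : Type*} (A : Finset ι) (q : QP E) (eA eB eY : E) (p τ : ι → E)
    (uA uB vA vB : ι → ℝ) (nA nB : ι → ℝ) (St : ι → ι → Prop) (r σ : ℝ) : Prop where
  nrm : ∀ t ∈ A, nA t ^ 2 + nB t ^ 2 = 1
  pair : ∀ B ⊆ A, ∀ s : ℝ, 0 ≤ s → s ≤ 1 → (∀ t ∈ B, ∀ t' ∈ B,
      |(uA t' + s * vA t') - (uA t + s * vA t)| ≤ r ∧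
      |(uB t' + s * vB t') - (uB t + s * vB t)| ≤ r) →
    (B.card : ℝ) ^ 2 ≤ 4 * (((B ×ˢ B).filter fun z => St z.1 z.2).card : ℝ)
  strip : ∀ t ∈ A, ∀ t' ∈ A, St t t' →
    |nA t * (vA t' - vA t) + nB t * (vB t' - vB t)| ≤ σ ∧
      FlN q eA eB eY (p t) (τ t) (nA t) (nB t) (max |vA t' - vA t| |vB t' - vB t|) σ

variable {ι : Type*} {A : Finset ι} {q : QP E} {eA eB eY x0 τ0 : E} {a : ℝ} {p τ : ι → E}
  {uA uB uY vA vB vY : ι → ℝ}

theorem dv_le (F : Fam A q eA eB eY x0 τ0 a p τ uA uB uY vA vB vY) {t t' : ι} (ht : t ∈ A)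
    (ht' : t' ∈ A) : |vA t' - vA t| ≤ 1 / 250 ∧ |vB t' - vB t| ≤ 1 / 250 := by
  have h1 := (F.lin t ht).vA_le
  have h2 := (F.lin t' ht').vA_le
  have h3 := (F.lin t ht).vB_le
  have h4 := (F.lin t' ht').vB_le
  rw [abs_le] at h1 h2 h3 h4
  constructor <;> rw [abs_le] <;> constructor <;>
    linarith [h1.1, h1.2, h2.1, h2.2, h3.1, h3.2, h4.1, h4.2]

/-- **three high lines** through one cell -/
theorem high3 (F : Fam A q eA eB eY x0 τ0 a p τ uA uB uY vA vB vY) {κ b0 r s : ℝ}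
    (hs : 0 ≤ s) (hs1 : s ≤ 1) (hr0 : 0 ≤ r) (hr : r ≤ 1 / 100000) (hb0 : 0 < b0) (hb1 : b0 ≤ 1)
    {i : Fin 3 → ι} (hi : ∀ k, i k ∈ A)
    (hκ : |det3 (fanQ q eA eB eY (p (i 0) + s • τ (i 0)) (τ (i 0)))| ≤ κ)
    (hb : ∀ k, b0 ≤ |bet q eY (p (i k)) (τ (i k)) eA| + |bet q eY (p (i k)) (τ (i k)) eB|)
    (hcell : ∀ k, |(uA (i k) + s * vA (i k)) - (uA (i 0) + s * vA (i 0))| ≤ r ∧
      |(uB (i k) + s * vB (i k)) - (uB (i 0) + s * vB (i 0))| ≤ r)
    (hsm : 10 ^ 38 * (κ + a + r) ≤ b0 ^ 6) :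
    ∃ k l, k ≠ l ∧
      |bet q eY (p (i k)) (τ (i k)) eA * (vA (i l) - vA (i k)) +
        bet q eY (p (i k)) (τ (i k)) eB * (vB (i l) - vB (i k))| ≤ 10 ^ 21 * (κ + a + r) / b0 ^ 2 ∧
      |bet q eY (p (i l)) (τ (i l)) eA * (vA (i l) - vA (i k)) +
        bet q eY (p (i l)) (τ (i l)) eB * (vB (i l) - vB (i k))| ≤
        10 ^ 21 * (κ + a + r) / b0 ^ 2 := by
  have L := F.loc
  have a0 := L.a0
  have a1 := L.a1
  have κ0 : 0 ≤ κ := (abs_nonneg _).trans hκ
  have T := fun k => F.lin (i k) (hi k)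
  have hx : ∀ k, ∃ y xY : ℝ, _ := fun k => (T 0).two L (T k) hs hs1 hr0 hr (hcell k).1 (hcell k).2
  choose y xY hxY using hx
  have hm := fun k => bet_s (T k) hs hs1
  choose m hm1 hm4 hm using hm
  have hβ : b0 / 4 ≤ 1 := by linarith
  have key := large_w (q := q) (eA := eA) (eB := eB) (eY := eY) (fun k => (hxY k).2.2)
    (by linarith) (fun k => (hxY k).1) (fun k => (hxY k).2.1) hκ (b0 := b0 / 4) (by positivity) hβ
    (fun k => ?_) ?_
  · obtain ⟨k, l, hkl, h1, h2⟩ := key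
    rw [hm k, hm k] at h1
    rw [hm l, hm l] at h2
    have e1 : (vA (i l) - vA (i 0)) - (vA (i k) - vA (i 0)) = vA (i l) - vA (i k) := by ring
    have e2 : (vB (i l) - vB (i 0)) - (vB (i k) - vB (i 0)) = vB (i l) - vB (i k) := by ring
    rw [e1, e2] at h1 h2
    have hb2 : 0 < b0 ^ 2 := by positivity
    have hC : 2000000 * (600 : ℝ) ^ 4 * (κ + 8 * a + 5 * (a + r)) / (b0 / 4) ^ 2 ≤
        10 ^ 21 / 4 * (κ + a + r) / b0 ^ 2 := by
      have e3 : (b0 / 4) ^ 2 = b0 ^ 2 / 16 := by ring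
      rw [e3, div_div_eq_mul_div]
      apply div_le_div_of_nonneg_right _ hb2.le
      nlinarith
    have fin : ∀ (k : Fin 3) (X Y : ℝ), |m k * X + m k * Y| ≤
        10 ^ 21 / 4 * (κ + a + r) / b0 ^ 2 → |X + Y| ≤ 10 ^ 21 * (κ + a + r) / b0 ^ 2 := by
      intro k X Y h
      rw [← mul_add, abs_mul, abs_of_pos (by linarith [hm1 k] : 0 < m k)] at h
      have h5 : 1 / 4 * |X + Y| ≤ 10 ^ 21 / 4 * (κ + a + r) / b0 ^ 2 :=
        (mul_le_mul_of_nonneg_right (hm1 k) (abs_nonneg _)).trans h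
      have h6 : 10 ^ 21 / 4 * (κ + a + r) / b0 ^ 2 = 1 / 4 * (10 ^ 21 * (κ + a + r) / b0 ^ 2) := by
        ring
      rw [h6] at h5
      linarith
    refine ⟨k, l, hkl, fin k _ _ ?_, fin l _ _ ?_⟩
    · refine le_trans (le_of_eq (congrArg _ ?_)) (h1.trans hC); ring
    · refine le_trans (le_of_eq (congrArg _ ?_)) (h2.trans hC); ring
  · rw [hm k, hm k, abs_mul, abs_mul, abs_of_pos (by linarith [hm1 k] : 0 < m k)]
    have h1 := hb k
    have h2 := hm1 k
    have h3 := abs_nonneg (bet q eY (p (i k)) (τ (i k)) eA)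
    have h4 := abs_nonneg (bet q eY (p (i k)) (τ (i k)) eB)
    nlinarith
  · have e3 : (b0 / 4) ^ 6 = b0 ^ 6 / 4096 := by ring
    rw [e3, le_div_iff₀ (by norm_num)]
    refine le_trans ?_ hsm
    have h1 : κ + 8 * a + 5 * (a + r) ≤ 13 * (κ + a + r) := by linarith
    have h2 : 0 ≤ κ + a + r := by linarith
    calc 50000000000000 * (600 : ℝ) ^ 7 * (κ + 8 * a + 5 * (a + r)) * 4096 ≤
        50000000000000 * (600 : ℝ) ^ 7 * (13 * (κ + a + r)) * 4096 := by gcongr
      _ = (50000000000000 * (600 : ℝ) ^ 7 * 13 * 4096) * (κ + a + r) := by ring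
      _ ≤ 10 ^ 38 * (κ + a + r) := by gcongr; norm_num

/-- **high family** -/
theorem high_out (F : Fam A q eA eB eY x0 τ0 a p τ uA uB uY vA vB vY) {κ b0 r : ℝ}
    (hr0 : 0 ≤ r) (hr : r ≤ 1 / 100000) (hb0 : 0 < b0) (hb1 : b0 ≤ 1)
    (hκ : ∀ t ∈ A, ∀ s : ℝ, 0 ≤ s → s ≤ 1 → |det3 (fanQ q eA eB eY (p t + s • τ t) (τ t))| ≤ κ)
    (hb : ∀ t ∈ A, b0 ≤ |bet q eY (p t) (τ t) eA| + |bet q eY (p t) (τ t) eB|)
    (hsm : 10 ^ 38 * (κ + a + r) ≤ b0 ^ 6) :
    ∃ (nA nB : ι → ℝ) (St : ι → ι → Prop),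
      Out A q eA eB eY p τ uA uB vA vB nA nB St r (10 ^ 22 * (κ + a + r) / b0 ^ 3) := by
  classical
  have L := F.loc
  have a0 := L.a0
  have a1 := L.a1
  rcases A.eq_empty_or_nonempty with rfl | ⟨t0, ht0⟩
  · refine ⟨fun _ => 1, fun _ => 0, fun _ _ => False, ⟨by simp, ?_, by simp⟩⟩
    intro B hB s _ _ _
    have : B = ∅ := subset_empty.1 hB
    subst this; simp
  have κ0 : 0 ≤ κ := (abs_nonneg _).trans (hκ t0 ht0 0 le_rfl zero_le_one)
  set rA : ι → ℝ := fun t => bet q eY (p t) (τ t) eA with hrA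
  set rB : ι → ℝ := fun t => bet q eY (p t) (τ t) eB with hrB
  set N : ι → ℝ := fun t => Real.sqrt (rA t ^ 2 + rB t ^ 2) with hN
  have hNsq : ∀ t, N t ^ 2 = rA t ^ 2 + rB t ^ 2 := fun t => Real.sq_sqrt (by positivity)
  have hN0 : ∀ t, 0 ≤ N t := fun t => Real.sqrt_nonneg _
  have hNb : ∀ t ∈ A, b0 / 2 ≤ N t := by
    intro t ht
    have h1 := hb t ht
    have h2 : b0 ^ 2 / 4 ≤ N t ^ 2 := by
      rw [hNsq, ← sq_abs (rA t), ← sq_abs (rB t)]
      have h3 : b0 ≤ |rA t| + |rB t| := h1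
      nlinarith [sq_nonneg (|rA t| - |rB t|), abs_nonneg (rA t), abs_nonneg (rB t)]
    nlinarith [hN0 t]
  set M := 10 ^ 21 * (κ + a + r) / b0 ^ 2 with hM
  have hM0 : 0 ≤ M := by rw [hM]; positivity
  set R : ι → ι → Prop := fun t t' =>
    |rA t * (vA t' - vA t) + rB t * (vB t' - vB t)| ≤ M ∧
      |rA t' * (vA t' - vA t) + rB t' * (vB t' - vB t)| ≤ M with hR
  have hσ : M / (b0 / 2) ≤ 10 ^ 22 * (κ + a + r) / b0 ^ 3 := by
    have e1 : M / (b0 / 2) = 2 * 10 ^ 21 * (κ + a + r) / b0 ^ 3 := by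
      rw [hM]; field_simp
    rw [e1]
    apply div_le_div_of_nonneg_right _ (by positivity)
    nlinarith
  refine ⟨fun t => rA t / N t, fun t => rB t / N t, R, ⟨?_, ?_, ?_⟩⟩
  · intro t ht
    have h1 : 0 < N t := lt_of_lt_of_le (by positivity) (hNb t ht)
    rw [div_pow, div_pow, ← add_div, ← hNsq t, div_self (by positivity)]
  · intro B hB s hs hs1 hcell
    have key := pairs3 B R ?_ ?_ ?_
    · have h1 : ((B.card ^ 2 : ℕ) : ℝ) ≤ ((4 * _ : ℕ) : ℝ) := Nat.cast_le.2 key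
      push_cast at h1
      convert h1
    · intro t _
      simp only [hR, sub_self, mul_zero, add_zero, abs_zero]
      exact ⟨hM0, hM0⟩
    · intro t _ t' _ h
      refine ⟨?_, ?_⟩
      · have e : rA t' * (vA t - vA t') + rB t' * (vB t - vB t') =
          -(rA t' * (vA t' - vA t) + rB t' * (vB t' - vB t)) := by ring
        change |rA t' * (vA t - vA t') + rB t' * (vB t - vB t')| ≤ M
        rw [e, abs_neg]; exact h.2
      · have e : rA t * (vA t - vA t') + rB t * (vB t - vB t') =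
          -(rA t * (vA t' - vA t) + rB t * (vB t' - vB t)) := by ring
        change |rA t * (vA t - vA t') + rB t * (vB t - vB t')| ≤ M
        rw [e, abs_neg]; exact h.1
    · intro t1 h1 t2 h2 t3 h3 h12 h13 h23
      have hin : ∀ k, (![t1, t2, t3] : Fin 3 → ι) k ∈ B := by
        intro k; fin_cases k
        · exact h1
        · exact h2
        · exact h3
      obtain ⟨k, l, hkl, g1, g2⟩ := high3 F hs hs1 hr0 hr hb0 hb1
        (i := ![t1, t2, t3]) (fun k => hB (hin k)) (hκ _ (hB h1) s hs hs1)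
        (fun k => hb _ (hB (hin k))) (fun k => hcell _ h1 _ (hin k)) hsm
      have hsymm : ∀ {t t' : ι}, R t t' → R t' t := by
        intro t t' h
        refine ⟨?_, ?_⟩
        · have e : rA t' * (vA t - vA t') + rB t' * (vB t - vB t') =
            -(rA t' * (vA t' - vA t) + rB t' * (vB t' - vB t)) := by ring
          change |rA t' * (vA t - vA t') + rB t' * (vB t - vB t')| ≤ M
          rw [e, abs_neg]; exact h.2
        · have e : rA t * (vA t - vA t') + rB t * (vB t - vB t') =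
            -(rA t * (vA t' - vA t) + rB t * (vB t' - vB t)) := by ring
          change |rA t * (vA t - vA t') + rB t * (vB t - vB t')| ≤ M
          rw [e, abs_neg]; exact h.1
      have hkR : R ((![t1, t2, t3] : Fin 3 → ι) k) ((![t1, t2, t3] : Fin 3 → ι) l) := ⟨g1, g2⟩
      fin_cases k <;> fin_cases l
      · exact absurd rfl hkl
      · exact Or.inl hkR
      · exact Or.inr (Or.inl hkR)
      · exact Or.inl (hsymm hkR)
      · exact absurd rfl hkl
      · exact Or.inr (Or.inr hkR)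
      · exact Or.inr (Or.inl (hsymm hkR))
      · exact Or.inr (Or.inr (hsymm hkR))
      · exact absurd rfl hkl
  · intro t ht t' ht' hSt
    have hNt := hNb t ht
    have hNp : 0 < N t := lt_of_lt_of_le (by positivity) hNt
    refine ⟨?_, ?_⟩
    · have e1 : rA t / N t * (vA t' - vA t) + rB t / N t * (vB t' - vB t) =
          (rA t * (vA t' - vA t) + rB t * (vB t' - vB t)) / N t := by ring
      rw [e1, abs_div, abs_of_pos hNp]
      refine le_trans ?_ hσ
      exact div_le_div₀ hM0 hSt.1 (by positivity) hNt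
    · obtain ⟨d1, d2⟩ := dv_le F ht ht'
      have T := F.lin t ht
      have Fr := T.frm L le_rfl zero_le_one
      have cf := T.coef le_rfl zero_le_one
      rw [zero_smul, add_zero] at Fr cf
      have h0 := hκ t ht 0 le_rfl zero_le_one
      rw [zero_smul, add_zero] at h0
      have nA1 : |rA t / N t| ≤ 1 := by
        rw [abs_div, abs_of_pos hNp, div_le_one hNp]
        refine abs_le_of_sq_le_sq ?_ (hN0 t)
        rw [hNsq]; nlinarith [sq_nonneg (rB t)]
      have nB1 : |rB t / N t| ≤ 1 := by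
        rw [abs_div, abs_of_pos hNp, div_le_one hNp]
        refine abs_le_of_sq_le_sq ?_ (hN0 t)
        rw [hNsq]; nlinarith [sq_nonneg (rA t)]
      have hbe : bet q eY (p t) (τ t) ((-(rB t / N t)) • eA + (rA t / N t) • eB) = 0 := by
        rw [bet_add, bet_smul, bet_smul]
        change -(rB t / N t) * rA t + rA t / N t * rB t = 0
        ring
      have hfl := flat_e Fr cf.2 h0 hb0 (hb t ht) (u := -(rB t / N t)) (v := rA t / N t)
        (by rw [abs_neg]; exact nB1) nA1 (by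
          change -(rB t / N t) * rA t + rA t / N t * rB t = 0
          ring)
      have hse : sec q eY (p t) ((-(rB t / N t)) • eA + (rA t / N t) • eB)
          ((-(rB t / N t)) • eA + (rA t / N t) • eB) =
          sec q eY (p t) eA eA * (-(rB t / N t)) ^ 2 +
          2 * sec q eY (p t) eA eB * (-(rB t / N t) * (rA t / N t)) +
          sec q eY (p t) eB eB * (rA t / N t) ^ 2 := by
        rw [sec_add, sec_smul, sec_smul, sec_symm _ eA, sec_symm _ eB, sec_add, sec_add, sec_smul,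
          sec_smul, sec_smul, sec_smul, sec_symm _ eB eA]
        ring
      unfold FlN
      rw [hbe, abs_zero, mul_zero, zero_add, hse]
      have hβ0 : 0 ≤ max |vA t' - vA t| |vB t' - vB t| := (abs_nonneg _).trans (le_max_left _ _)
      have hβ1 : max |vA t' - vA t| |vB t' - vB t| ≤ 1 := max_le (by linarith) (by linarith)
      have hβ2 : (max |vA t' - vA t| |vB t' - vB t|) ^ 2 ≤ 1 := pow_le_one₀ hβ0 hβ1
      have hb3 : 0 < b0 ^ 3 := by positivity
      refine (mul_le_mul hβ2 hfl (abs_nonneg _) zero_le_one).trans ?_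
      rw [one_mul]
      have e5 : 4 * (κ + 2 * 600 ^ 2 * (8 * a)) / b0 ^ 2 =
          4 * (κ + 2 * 600 ^ 2 * (8 * a)) * b0 / b0 ^ 3 := by field_simp
      rw [e5]
      apply div_le_div_of_nonneg_right _ hb3.le
      have h7 : 4 * (κ + 2 * 600 ^ 2 * (8 * a)) * b0 ≤ 4 * (κ + 2 * 600 ^ 2 * (8 * a)) * 1 := by
        gcongr
      nlinarith

/-- **low family** -/
theorem low_out (F : Fam A q eA eB eY x0 τ0 a p τ uA uB uY vA vB vY) {b0 r : ℝ}
    (hr0 : 0 ≤ r) (hr : r ≤ 1 / 100000) (hb0 : 0 < b0) (hb1 : b0 ≤ 1 / 10)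
    (ha : a ≤ 1 / 1000000)
    (hext : 1 ≤ 2 * |q.H τ0 eA| ∨ 1 ≤ 2 * |q.H τ0 eB| ∨ 1 ≤ |q.H eA eA| ∨ 1 ≤ 2 * |q.H eA eB| ∨
      1 ≤ |q.H eB eB|)
    (hb : ∀ t ∈ A, |bet q eY (p t) (τ t) eA| ≤ b0 ∧ |bet q eY (p t) (τ t) eB| ≤ b0) :
    ∃ (nA nB : ι → ℝ) (St : ι → ι → Prop),
      Out A q eA eB eY p τ uA uB vA vB nA nB St r (10 ^ 14 * (b0 + a + r)) := by
  classical
  have L := F.loc
  have a0 := L.a0
  -- strips
  have hex : ∀ t : ι, ∃ n : ℝ × ℝ, t ∈ A → (n.1 ^ 2 + n.2 ^ 2 = 1 ∧ ∀ u v ρ : ℝ,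
      |sec q eY (p t) eA eA * u + sec q eY (p t) eA eB * v| ≤ ρ →
      |sec q eY (p t) eA eB * u + sec q eY (p t) eB eB * v| ≤ ρ →
      |n.1 * u + n.2 * v| ≤ 4 * ρ ∧
      |sec q eY (p t) ((-n.2) • eA + n.1 • eB) ((-n.2) • eA + n.1 • eB)| * max |u| |v| ≤
        28800 * ρ) := by
    intro t
    by_cases ht : t ∈ A
    swap
    · exact ⟨(1, 0), fun h => absurd h ht⟩
    have T := F.lin t ht
    have Fr := T.frm L le_rfl zero_le_one
    rw [zero_smul, add_zero] at Fr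
    have hc := T.low_sec L ha hext ((hb t ht).1.trans hb1) ((hb t ht).2.trans hb1)
    obtain ⟨nA, nB, ⟨n1, n2, n3⟩, hn⟩ := low_strip (K := 600) (c := 1 / 4) Fr.HAA Fr.HAB Fr.HBB
      (by norm_num) hc
    have hN2 : 1 ≤ nA ^ 2 + nB ^ 2 := by
      rcases n3 with h | h
      · rw [← sq_abs nA, h]; nlinarith [sq_nonneg nB]
      · rw [← sq_abs nB, h]; nlinarith [sq_nonneg nA]
    set N := Real.sqrt (nA ^ 2 + nB ^ 2) with hN
    have hNsq : N ^ 2 = nA ^ 2 + nB ^ 2 := Real.sq_sqrt (by positivity)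
    have hN1 : 1 ≤ N := by
      rw [hN]; exact Real.one_le_sqrt.2 hN2
    have hNp : 0 < N := by linarith
    refine ⟨(nA / N, nB / N), fun _ => ⟨?_, ?_⟩⟩
    · change (nA / N) ^ 2 + (nB / N) ^ 2 = 1
      rw [div_pow, div_pow, ← add_div, ← hNsq, div_self (by positivity)]
    · intro u v ρ h1 h2
      obtain ⟨g1, g2, g3⟩ := hn u v ρ h1 h2
      have hρ0 : 0 ≤ ρ := (abs_nonneg _).trans h1
      refine ⟨?_, ?_⟩
      · change |nA / N * u + nB / N * v| ≤ 4 * ρ
        have e1 : nA / N * u + nB / N * v = (nA * u + nB * v) / N := by ring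
        rw [e1, abs_div, abs_of_pos hNp, div_le_iff₀ hNp]
        have e2 : ρ / (1 / 4) = 4 * ρ := by ring
        rw [e2] at g1
        nlinarith
      · change |sec q eY (p t) ((-(nB / N)) • eA + (nA / N) • eB)
          ((-(nB / N)) • eA + (nA / N) • eB)| * max |u| |v| ≤ 28800 * ρ
        have hse : sec q eY (p t) ((-(nB / N)) • eA + (nA / N) • eB)
            ((-(nB / N)) • eA + (nA / N) • eB) =
            (sec q eY (p t) eA eA * nB ^ 2 - 2 * sec q eY (p t) eA eB * (nA * nB) +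
            sec q eY (p t) eB eB * nA ^ 2) / N ^ 2 := by
          rw [sec_add, sec_smul, sec_smul, sec_symm _ eA, sec_symm _ eB, sec_add, sec_add,
            sec_smul, sec_smul, sec_smul, sec_smul, sec_symm _ eB eA]
          field_simp
          ring
        have e3 : 12 * 600 * ρ / (1 / 4) = 28800 * ρ := by ring
        rw [e3] at g2 g3
        rw [hse, abs_div, abs_of_pos (by positivity : 0 < N ^ 2)]
        set X := |sec q eY (p t) eA eA * nB ^ 2 - 2 * sec q eY (p t) eA eB * (nA * nB) +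
            sec q eY (p t) eB eB * nA ^ 2| with hX
        have hX0 : 0 ≤ X := abs_nonneg _
        have hXN : X / N ^ 2 ≤ X := div_le_self hX0 (by nlinarith)
        have hm0 : 0 ≤ max |u| |v| := (abs_nonneg _).trans (le_max_left _ _)
        refine (mul_le_mul_of_nonneg_right hXN hm0).trans ?_
        rcases le_total |u| |v| with h | h
        · rw [max_eq_right h]; exact g3
        · rw [max_eq_left h]; exact g2
  choose n hn using hex
  set ρL := 10 ^ 9 * (b0 + a + r) with hρL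
  have hρ0 : 0 ≤ ρL := by rw [hρL]; positivity
  set R : ι → ι → Prop := fun t t' =>
    |sec q eY (p t) eA eA * (vA t' - vA t) + sec q eY (p t) eA eB * (vB t' - vB t)| ≤ ρL ∧
    |sec q eY (p t) eA eB * (vA t' - vA t) + sec q eY (p t) eB eB * (vB t' - vB t)| ≤ ρL with hR
  refine ⟨fun t => (n t).1, fun t => (n t).2, R, ⟨fun t ht => (hn t ht).1, ?_, ?_⟩⟩
  · intro B hB s hs hs1 hcell
    have hall : ∀ z ∈ B ×ˢ B, R z.1 z.2 := by
      rintro ⟨t, t'⟩ hz
      rw [mem_product] at hz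
      obtain ⟨ht, ht'⟩ := hz
      simp only at ht ht'
      have T := F.lin t (hB ht)
      have T' := F.lin t' (hB ht')
      obtain ⟨c1, c2⟩ := hcell t ht t' ht'
      obtain ⟨y, xY, h1, h2, h3⟩ := T.two L T' hs hs1 hr0 hr c1 c2
      obtain ⟨m, m1, m4, hm⟩ := bet_s T hs hs1
      obtain ⟨m', m1', m4', hm'⟩ := bet_s T' hs hs1
      obtain ⟨b1, b2⟩ := hb t (hB ht)
      obtain ⟨b1', b2'⟩ := hb t' (hB ht')
      have bd : ∀ {m x : ℝ}, 1 / 4 ≤ m → m ≤ 4 → |x| ≤ b0 → |m * x| ≤ 4 * b0 := by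
        intro m x h h' hx
        rw [abs_mul, abs_of_pos (by linarith)]
        exact mul_le_mul h' hx (abs_nonneg _) (by norm_num)
      obtain ⟨g1, g2⟩ := small_w (b0 := 4 * b0) h3 h1 h2 (by rw [hm]; exact bd m1 m4 b1)
        (by rw [hm]; exact bd m1 m4 b2) (by rw [hm']; exact bd m1' m4' b1')
        (by rw [hm']; exact bd m1' m4' b2')
      -- back to height `0`
      have Fr := T.frm L le_rfl zero_le_one
      rw [zero_smul, add_zero] at Fr
      have gs := (T.hg s hs hs1).1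
      have hsa : |s| ≤ 1 := abs_le.2 ⟨by linarith, hs1⟩
      have k1 := sec_move Fr hsa gs (by linarith : b0 ≤ 1) Fr.HAY Fr.HAY b1 b1
      have k2 := sec_move Fr hsa gs (by linarith : b0 ≤ 1) Fr.HAY Fr.HBY b1 b2
      have k3 := sec_move Fr hsa gs (by linarith : b0 ≤ 1) Fr.HBY Fr.HBY b2 b2
      obtain ⟨d1, d2⟩ := dv_le F (hB ht) (hB ht')
      have j1 := abs_mul_le' k1 d1
      have j2 := abs_mul_le' k2 d2
      have j3 := abs_mul_le' k2 d1
      have j4 := abs_mul_le' k3 d2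
      constructor
      · change |sec q eY (p t) eA eA * (vA t' - vA t) + sec q eY (p t) eA eB * (vB t' - vB t)| ≤ ρL
        rw [hρL]
        rw [abs_le] at g1 j1 j2 ⊢
        constructor <;> nlinarith [g1.1, g1.2, j1.1, j1.2, j2.1, j2.2]
      · change |sec q eY (p t) eA eB * (vA t' - vA t) + sec q eY (p t) eB eB * (vB t' - vB t)| ≤ ρL
        rw [hρL]
        rw [abs_le] at g2 j3 j4 ⊢
        constructor <;> nlinarith [g2.1, g2.2, j3.1, j3.2, j4.1, j4.2]
    have hsub : B ×ˢ B ⊆ ((B ×ˢ B).filter fun z => R z.1 z.2) :=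
      fun z hz => mem_filter.2 ⟨hz, hall z hz⟩
    have h1 : (((B ×ˢ B).card : ℕ) : ℝ) ≤ _ := Nat.cast_le.2 (card_le_card hsub)
    rw [card_product] at h1
    push_cast at h1
    have h2 : (B.card : ℝ) ^ 2 ≤ 4 * (((B ×ˢ B).filter fun z => R z.1 z.2).card : ℝ) := by
      nlinarith [sq_nonneg (B.card : ℝ)]
    convert h2
  · intro t ht t' ht' hSt
    obtain ⟨hn1, hn2⟩ := hn t ht
    obtain ⟨g1, g2⟩ := hn2 _ _ _ hSt.1 hSt.2
    have hbig : 4 * ρL ≤ 10 ^ 14 * (b0 + a + r) := by rw [hρL]; nlinarith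
    refine ⟨g1.trans hbig, ?_⟩
    obtain ⟨b1, b2⟩ := hb t ht
    obtain ⟨d1, d2⟩ := dv_le F ht ht'
    set β := max |vA t' - vA t| |vB t' - vB t| with hβ
    have hβ0 : 0 ≤ β := (abs_nonneg _).trans (le_max_left _ _)
    have hβ1 : β ≤ 1 := max_le (by linarith) (by linarith)
    have nA1 : |(n t).1| ≤ 1 := by
      refine abs_le_of_sq_le_sq ?_ zero_le_one
      nlinarith [sq_nonneg (n t).2]
    have nB1 : |(n t).2| ≤ 1 := by
      refine abs_le_of_sq_le_sq ?_ zero_le_one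
      nlinarith [sq_nonneg (n t).1]
    have hbe : |bet q eY (p t) (τ t) ((-(n t).2) • eA + (n t).1 • eB)| ≤ 2 * b0 := by
      rw [bet_add, bet_smul, bet_smul]
      refine (abs_add_le _ _).trans ?_
      have h1 := abs_mul_le' (show |(-(n t).2)| ≤ 1 by rw [abs_neg]; exact nB1) b1
      have h2 := abs_mul_le' nA1 b2
      linarith
    unfold FlN
    change 2 * β * |bet q eY (p t) (τ t) ((-(n t).2) • eA + (n t).1 • eB)| + β ^ 2 *
      |sec q eY (p t) ((-(n t).2) • eA + (n t).1 • eB) ((-(n t).2) • eA + (n t).1 • eB)| ≤ _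
    set X := |sec q eY (p t) ((-(n t).2) • eA + (n t).1 • eB)
      ((-(n t).2) • eA + (n t).1 • eB)| with hX
    have h1 : 2 * β * |bet q eY (p t) (τ t) ((-(n t).2) • eA + (n t).1 • eB)| ≤
        2 * 1 * (2 * b0) := by gcongr
    have h2 : β ^ 2 * X ≤ 28800 * ρL := by
      have e : β ^ 2 * X = β * (X * β) := by ring
      rw [e]
      calc β * (X * β) ≤ 1 * (28800 * ρL) := by
            apply mul_le_mul hβ1 g2 (by positivity) zero_le_one
        _ = 28800 * ρL := one_mul _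
    rw [hρL] at h2
    nlinarith

end Crest.Agent.R136.Nd214
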