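import Crest.Agent.R136.Nd6_565

/-!
# R136 (S0187), U5: strips of a sheet of class `C*` are contained in one sheet of class `C*`,
part 2 (helper565)

* `FlatAt`, `strip_sheet`.
-/

set_option autoImplicit false
set_option linter.unusedVariables false

namespace Crest.Agent.R136.Nd565

open Finset Sh605 UB683

set_option maxHeartbeats 2000000 in
theorem cig_mem {e : Fin 3 → V3} {c : Ln4} {w : V3} {q : ℝ → V3 → ℝ} {a z0 ρ r0 : ℝ} {T T1 : Ln4}
    (S : ShN e c w q a z0 ρ r0) (hr : 0 < r0) (hT : InSheet T e c w q a z0 ρ)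
    (hT1 : InSheet T1 e c w q a z0 ρ) {p r : V3} {H : Fin 3 → Fin 3 → ℝ} (hG : TD q e T p r H)
    (B : GB w p r H z0 ρ) {nA nB y β σ K L z1 ρ1 lam : ℝ} {m : Fin 3 → V3}
    (hn : nA ^ 2 + nB ^ 2 = 1) (R : Rb w p r H z0 ρ nA nB y β (K * σ * w 0)) (hβ : 0 < β)
    (hβ1 : β ≤ 1 / 20000) (hσ : 0 < σ) (hK : 1 ≤ K) (ha : a ≤ σ * w 0) (hL0 : 0 ≤ L) (hρ : 0 ≤ ρ)
    (hL : dt (Ev w nA nB y) (Ev w nA nB y) = L ^ 2) (ht : 400 * (K * σ) * w 1 ≤ β * L)
    (hz01 : z0 ≤ z1) (hz11 : z1 ≤ z0 + ρ)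
    (C : Cig w p r H z1 ρ1 nA nB y β σ K L m lam) {z α γ : ℝ} (hz0 : z0 ≤ z) (hz1 : z ≤ z0 + ρ)
    (hα : |α| ≤ β) (hγ : |γ| ≤ σ)
    (h1 : dt (e 1) (T1.pos z - T.pos z) = w 1 * (-nB * α + nA * γ))
    (h2 : dt (e 2) (T1.pos z - T.pos z) = w 2 * (nA * α + nB * γ)) :
    ∀ i, |dt (m i) (crd e (T1.pos z - T.pos z))| ≤ Wn w β σ K L i := by
  have he := S.ortho
  have hw0 : 0 < w 0 := by linarith [S.a_le0, S.r0_le]
  have hw02 := S.w0_le
  have hw2 : 0 < w 2 := by linarith [S.w0_le]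
  have hw := S.w_le
  have hw1 : 0 < w 1 := by linarith
  have hwp : ∀ i, 0 < w i := by
    intro i; fin_cases i
    · exact hw0
    · exact hw1
    · exact hw2
  obtain ⟨p1, p2, p3, p4⟩ := tilt_pre hw0 hw02 hw B hρ hn R hβ hσ hK hL0 hL ht
  have p2' : |y| ≤ 5 * w 2 := by linarith
  have hLp : 0 < L := by linarith
  have hn' := n_le hn
  have hKσ : 0 < K * σ := by positivity
  have hσK : σ ≤ K * σ := by nlinarith
  set E := Ev w nA nB y with hE
  set N := Nv w nA nB with hN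
  set V : V3 := α • E + γ • N with hV
  have V0 : V 0 = α * y := by
    show α * y + γ * 0 = _
    ring
  have V1 : V 1 = dt (e 1) (T1.pos z - T.pos z) := by
    rw [h1]
    show α * (w 1 * -nB) + γ * (w 1 * nA) = _
    ring
  have V2 : V 2 = dt (e 2) (T1.pos z - T.pos z) := by
    rw [h2]
    show α * (w 2 * nA) + γ * (w 2 * nB) = _
    ring
  have hEw : ∀ j, |E j| ≤ (![5, 1, 1] : V3) j * w j := by
    intro j
    fin_cases j
    · show |y| ≤ 5 * w 0
      exact p2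
    · show |w 1 * -nB| ≤ 1 * w 1
      rw [abs_mul, abs_neg, abs_of_pos hw1]; nlinarith [hn'.2]
    · show |w 2 * nA| ≤ 1 * w 2
      rw [abs_mul, abs_of_pos hw2]; nlinarith [hn'.1]
  have hNw : ∀ j, |N j| ≤ (![0, 1, 1] : V3) j * w j := by
    intro j
    fin_cases j
    · show |(0 : ℝ)| ≤ 0 * w 0
      simp
    · show |w 1 * nA| ≤ 1 * w 1
      rw [abs_mul, abs_of_pos hw1]; nlinarith [hn'.1]
    · show |w 2 * nB| ≤ 1 * w 2
      rw [abs_mul, abs_of_pos hw2]; nlinarith [hn'.2]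
  have hq1 : ∀ i, 0 ≤ (![5, 1, 1] : V3) i := by
    intro i; fin_cases i <;> simp
  have hq0 : ∀ i, 0 ≤ (![0, 1, 1] : V3) i := by
    intro i; fin_cases i <;> simp
  have bEN : |bl H E N| ≤ 14 * w 0 := by
    refine (bl_le hwp B.hH ![5, 1, 1] ![0, 1, 1] hq1 hq0 hEw hNw).trans (le_of_eq ?_)
    show w 0 * ((5 + 1 + 1) * (0 + 1 + 1)) = _
    ring
  have bNN : |bl H N N| ≤ 4 * w 0 := by
    refine (bl_le hwp B.hH ![0, 1, 1] ![0, 1, 1] hq0 hq0 hNw hNw).trans (le_of_eq ?_)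
    show w 0 * ((0 + 1 + 1) * (0 + 1 + 1)) = _
    ring
  have hα2 : |α ^ 2| ≤ β ^ 2 := by
    rw [abs_pow]; exact pow_le_pow_left₀ (abs_nonneg _) hα 2
  have hγ2 : |γ ^ 2| ≤ σ ^ 2 := by
    rw [abs_pow]; exact pow_le_pow_left₀ (abs_nonneg _) hγ 2
  have gN : ∀ z, z0 ≤ z → z ≤ z0 + ρ → |dt (gr p r z) N| ≤ 2 * w 0 := by
    intro z hz0 hz1
    have e2 : dt (gr p r z) N = gr p r z 1 * (w 1 * nA) + gr p r z 2 * (w 2 * nB) := by
      simp only [dt, hN, Nv0, Nv1, Nv2]; ring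
    have t1 : |gr p r z 1 * (w 1 * nA)| ≤ w 0 := by
      have : |w 1 * nA| ≤ w 1 * 1 := by
        rw [abs_mul, abs_of_pos hw1]; exact mul_le_mul_of_nonneg_left hn'.1 hw1.le
      refine (abs_mul_le2 (B.g1 z hz0 hz1) this).trans (le_of_eq ?_)
      field_simp
    have t2 : |gr p r z 2 * (w 2 * nB)| ≤ w 0 := by
      have : |w 2 * nB| ≤ w 2 * 1 := by
        rw [abs_mul, abs_of_pos hw2]; exact mul_le_mul_of_nonneg_left hn'.2 hw2.le
      refine (abs_mul_le2 (B.g2 z hz0 hz1) this).trans (le_of_eq ?_)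
      field_simp
    rw [e2]; refine (abs_add_le _ _).trans ?_; linarith
  -- value of `q` at the base point
  have hM : |q z (T.pos z + cmb e V) - q z (T.pos z)| ≤ 5 * (K * σ * w 0) := by
    rw [hG.exp z V]
    have e1 : q z (T.pos z) + dt (gr p r z) V + bl H V V - q z (T.pos z) =
        α * dt (gr p r z) E + γ * dt (gr p r z) N + α ^ 2 * bl H E E + 2 * (α * γ) * bl H E N +
          γ ^ 2 * bl H N N := by
      rw [hV]
      simp only [dt_add, dt_smul, bl_add_left, bl_add_right, bl_smul_left, bl_smul_right]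
      rw [bl_symm hG.symm N E]
      ring
    rw [e1]
    have k1 : |α * dt (gr p r z) E| ≤ K * σ * w 0 := by
      rw [abs_mul]
      calc |α| * |dt (gr p r z) E| ≤ β * |dt (gr p r z) E| :=
            mul_le_mul_of_nonneg_right hα (abs_nonneg _)
        _ ≤ K * σ * w 0 := by rw [mul_comm]; exact R.f1 z hz0 hz1
    have k2 : |γ * dt (gr p r z) N| ≤ 2 * (σ * w 0) :=
      (abs_mul_le2 hγ (gN z hz0 hz1)).trans (le_of_eq (by ring))
    have k3 : |α ^ 2 * bl H E E| ≤ K * σ * w 0 := by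
      rw [abs_mul]
      calc |α ^ 2| * |bl H E E| ≤ β ^ 2 * |bl H E E| :=
            mul_le_mul_of_nonneg_right hα2 (abs_nonneg _)
        _ ≤ K * σ * w 0 := by rw [mul_comm]; exact R.f2
    have k4 : |2 * (α * γ) * bl H E N| ≤ σ * w 0 / 2 := by
      have t1 : |2 * (α * γ)| ≤ 2 * (β * σ) := by
        rw [abs_mul, abs_two]; exact mul_le_mul_of_nonneg_left (abs_mul_le2 hα hγ) (by norm_num)
      refine (abs_mul_le2 t1 bEN).trans ?_
      have : β * (σ * w 0) ≤ 1 / 20000 * (σ * w 0) :=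
        mul_le_mul_of_nonneg_right hβ1 (by positivity)
      nlinarith [mul_pos hσ hw0]
    have k5 : |γ ^ 2 * bl H N N| ≤ σ * w 0 / 2 := by
      refine (abs_mul_le2 hγ2 bNN).trans ?_
      have h3 : σ ≤ 1 / 8 := by linarith
      have : σ * (σ * w 0) ≤ 1 / 8 * (σ * w 0) := mul_le_mul_of_nonneg_right h3 (by positivity)
      nlinarith [mul_pos hσ hw0]
    have t1 := abs_add_le (α * dt (gr p r z) E + γ * dt (gr p r z) N + α ^ 2 * bl H E E +
      2 * (α * γ) * bl H E N) (γ ^ 2 * bl H N N)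
    have t2 := abs_add_le (α * dt (gr p r z) E + γ * dt (gr p r z) N + α ^ 2 * bl H E E)
      (2 * (α * γ) * bl H E N)
    have t3 := abs_add_le (α * dt (gr p r z) E + γ * dt (gr p r z) N) (α ^ 2 * bl H E E)
    have t4 := abs_add_le (α * dt (gr p r z) E) (γ * dt (gr p r z) N)
    have t5 : σ * w 0 ≤ K * σ * w 0 := mul_le_mul_of_nonneg_right hσK hw0.le
    linarith
  have hV0 : |V 0| ≤ w 0 := by
    rw [V0]
    refine (abs_mul_le2 hα p2).trans ?_
    nlinarith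
  have hy := y_bound S hr hT hT1 hz0 hz1 hV0 V1 V2 hM
  set y2 := dt (e 0) (T1.pos z - T.pos z) - V 0 with hy2
  have hy' : |y2| ≤ 14 * (K * σ * w 0) := by
    have : a ≤ K * σ * w 0 := ha.trans (mul_le_mul_of_nonneg_right hσK hw0.le)
    linarith
  have eU : crd e (T1.pos z - T.pos z) = α • E + γ • N + y2 • bas 0 := by
    rw [← hV]
    funext i
    fin_cases i
    · show dt (e 0) (T1.pos z - T.pos z) = V 0 + y2 * 1
      rw [hy2]; ring
    · show dt (e 1) (T1.pos z - T.pos z) = V 1 + y2 * 0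
      rw [V1]; ring
    · show dt (e 2) (T1.pos z - T.pos z) = V 2 + y2 * 0
      rw [V2]; ring
  have hm := C.ortho
  have hm1 := C.m1
  have eE : E = L • m 1 := by
    rw [hm1, smul_smul, mul_one_div_cancel hLp.ne', one_smul]
  have em : ∀ i, dt (m i) (crd e (T1.pos z - T.pos z)) =
      α * (L * dt (m i) (m 1)) + γ * dt (m i) N + y2 * m i 0 := by
    intro i
    rw [eU, dt_add, dt_add, dt_smul, dt_smul, dt_smul, dt_bas]
    have : dt (m i) E = L * dt (m i) (m 1) := by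
      conv_lhs => rw [eE]
      rw [dt_smul]
    rw [this]
  have tN1 : |dt (m 1) N| ≤ w 1 := by
    have c1 := cs3 (m 1) N
    rw [hm 1 1, if_pos rfl, one_mul] at c1
    have c2 : dt N N ≤ w 1 ^ 2 := by
      have : dt N N = w 1 ^ 2 * nA ^ 2 + w 2 ^ 2 * nB ^ 2 := by
        simp only [dt, hN, Nv0, Nv1, Nv2]; ring
      rw [this]
      have hsq : w 2 ^ 2 ≤ w 1 ^ 2 := by nlinarith
      have h2 : w 2 ^ 2 * nB ^ 2 ≤ w 1 ^ 2 * nB ^ 2 := mul_le_mul_of_nonneg_right hsq (sq_nonneg _)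
      have h3 : w 1 ^ 2 * nA ^ 2 + w 1 ^ 2 * nB ^ 2 = w 1 ^ 2 := by rw [← mul_add, hn, mul_one]
      linarith
    rw [← abs_of_pos hw1, ← sq_le_sq]
    exact c1.trans c2
  -- lower bounds of the widths
  have wn0 : 200 * (K * σ * w 0) ≤ Wn w β σ K L 0 := by
    rw [Wn0, le_div_iff₀ hLp]
    have := mul_le_mul_of_nonneg_left p3 (by positivity : 0 ≤ 200 * (K * σ * w 0))
    linarith
  have wn2 : 200 * (K * σ * w 2) ≤ Wn w β σ K L 2 := by
    rw [Wn2, le_div_iff₀ hLp]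
    have := mul_le_mul_of_nonneg_left p3 (by positivity : 0 ≤ 200 * (K * σ * w 2))
    linarith
  intro i
  fin_cases i
  · show |dt (m 0) (crd e (T1.pos z - T.pos z))| ≤ Wn w β σ K L 0
    rw [em 0, hm 0 1, if_neg (by decide), mul_zero, mul_zero, zero_add]
    have lam0 : 0 < lam := by linarith [C.lam_ge]
    -- the component of `N` in the direction of the gradient
    have g1 : dt (gr p r z1) N = lam * dt (m 0) N + dt (gr p r z1) (m 1) * dt (m 1) N := by
      have e1 : gr p r z1 = cmb m (crd m (gr p r z1)) := (cmb_crd hm _).symm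
      have e2 : dt (gr p r z1) N = dt (cmb m (crd m (gr p r z1))) N := by rw [← e1]
      rw [e2, dt_cmb]
      have q0 : crd m (gr p r z1) 0 = lam := by rw [crd_apply, dt_comm]; exact C.g0
      have q2 : crd m (gr p r z1) 2 = 0 := by rw [crd_apply, dt_comm]; exact C.g2
      have q1 : crd m (gr p r z1) 1 = dt (gr p r z1) (m 1) := by rw [crd_apply, dt_comm]
      unfold dt at *
      rw [q0, q1, q2]
      simp only [crd, dt]
      ring
    have g2 : |dt (gr p r z1) (m 1)| * w 1 ≤ w 0 / 400 := by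
      have f1 := R.f1 z1 hz01 hz11
      have e1 : |dt (gr p r z1) (m 1)| = |dt (gr p r z1) E| / L := by
        rw [hm1, dt_smul, abs_mul, abs_of_pos (by positivity : 0 < 1 / L)]; ring
      rw [e1]
      have h3 : |dt (gr p r z1) E| * w 1 * (400 * (K * σ)) ≤ w 0 * L * (K * σ) := by
        calc |dt (gr p r z1) E| * w 1 * (400 * (K * σ))
            = |dt (gr p r z1) E| * (400 * (K * σ) * w 1) := by ring
          _ ≤ |dt (gr p r z1) E| * (β * L) := mul_le_mul_of_nonneg_left ht (abs_nonneg _)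
          _ = |dt (gr p r z1) E| * β * L := by ring
          _ ≤ K * σ * w 0 * L := mul_le_mul_of_nonneg_right f1 hLp.le
          _ = _ := by ring
      have h4 : (|dt (gr p r z1) E| * w 1 * 400) * (K * σ) ≤ (w 0 * L) * (K * σ) := by linarith
      have h5 := le_of_mul_le_mul_right h4 hKσ
      rw [div_mul_eq_mul_div, div_le_div_iff₀ hLp (by norm_num)]
      linarith
    have g3 : |dt (m 0) N| ≤ 5 * w 0 := by
      have h3 : |lam * dt (m 0) N| ≤ 2 * w 0 + w 0 / 400 := by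
        have e1 : lam * dt (m 0) N = dt (gr p r z1) N - dt (gr p r z1) (m 1) * dt (m 1) N := by
          rw [g1]; ring
        rw [e1]
        refine (abs_sub _ _).trans (add_le_add (gN z1 hz01 hz11) ?_)
        rw [abs_mul]
        exact (mul_le_mul_of_nonneg_left tN1 (abs_nonneg _)).trans g2
      rw [abs_mul, abs_of_pos lam0] at h3
      have h4 : 0.49 * |dt (m 0) N| ≤ lam * |dt (m 0) N| :=
        mul_le_mul_of_nonneg_right C.lam_ge (abs_nonneg _)
      linarith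
    have t2 : |γ * dt (m 0) N| ≤ σ * (5 * w 0) := abs_mul_le2 hγ g3
    have t3 : |y2 * m 0 0| ≤ 14 * (K * σ * w 0) * 1 := abs_mul_le2 hy' (ortho_abs_le hm 0 0)
    have t5 : σ * w 0 ≤ K * σ * w 0 := mul_le_mul_of_nonneg_right hσK hw0.le
    have t6 : 0 < K * σ * w 0 := by positivity
    refine (abs_add_le _ _).trans ?_
    linarith
  · show |dt (m 1) (crd e (T1.pos z - T.pos z))| ≤ 3 * β * L
    rw [em 1, hm 1 1, if_pos rfl, mul_one]
    have t1 : |α * L| ≤ β * L := by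
      rw [abs_mul, abs_of_pos hLp]; exact mul_le_mul_of_nonneg_right hα hLp.le
    have t2 : |γ * dt (m 1) N| ≤ σ * w 1 := abs_mul_le2 hγ tN1
    have t3 : |y2 * m 1 0| ≤ 14 * (K * σ * w 0) * 1 := abs_mul_le2 hy' (ortho_abs_le hm 1 0)
    have t4 : K * σ * w 0 ≤ K * σ * w 1 := mul_le_mul_of_nonneg_left (by linarith) hKσ.le
    have t5 : σ * w 1 ≤ K * σ * w 1 := mul_le_mul_of_nonneg_right hσK hw1.le
    have k1 := abs_add_le (α * L + γ * dt (m 1) N) (y2 * m 1 0)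
    have k2 := abs_add_le (α * L) (γ * dt (m 1) N)
    have hβL : 0 < β * L := by positivity
    linarith
  · show |dt (m 2) (crd e (T1.pos z - T.pos z))| ≤ Wn w β σ K L 2
    rw [em 2, hm 2 1, if_neg (by decide), mul_zero, mul_zero, zero_add]
    have t1 := perp_bound hw2 hw hn p2' hLp hL hm hm1 (j := 2) (by decide)
    have t2 : |γ * dt (m 2) N| ≤ σ * (6 * (w 1 * w 2) / L) := abs_mul_le2 hγ t1
    have t3 : |y2 * m 2 0| ≤ 14 * (K * σ * w 0) * 1 := abs_mul_le2 hy' (ortho_abs_le hm 2 0)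
    have t4 : K * σ * w 0 ≤ K * σ * w 2 := mul_le_mul_of_nonneg_left hw02 hKσ.le
    have t5 : σ * (6 * (w 1 * w 2) / L) ≤ Wn w β σ K L 2 / 200 := by
      have e1 : Wn w β σ K L 2 / 200 = (K * σ) * (6 * (w 1 * w 2) / L) := by rw [Wn2]; ring
      rw [e1]
      exact mul_le_mul_of_nonneg_right hσK (by positivity)
    refine (abs_add_le _ _).trans ?_
    have t7 : 0 < K * σ * w 2 := by positivity
    linarith

/-! ### flat ribbons -/

/-- the ribbon `T + α E`, `|α| ≤ β`, stays in the `κ`-neighbourhood of the level of `T` -/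
def FlatAt (q : ℝ → V3 → ℝ) (e : Fin 3 → V3) (w : V3) (T : Ln4) (z0 ρ nA nB β κ : ℝ) : Prop :=
  ∃ y : ℝ, ∀ z, z0 ≤ z → z ≤ z0 + ρ → ∀ α : ℝ, |α| ≤ β →
    |q z (T.pos z + α • (y • e 0 + (w 1 * -nB) • e 1 + (w 2 * nA) • e 2)) - q z (T.pos z)| ≤ κ

theorem rb_of_flat {q : ℝ → V3 → ℝ} {e : Fin 3 → V3} {w : V3} {T : Ln4}
    {z0 ρ nA nB β κ : ℝ} {p r : V3} {H : Fin 3 → Fin 3 → ℝ} (hG : TD q e T p r H) (hρ : 0 ≤ ρ)
    (hβ : 0 ≤ β) (hF : FlatAt q e w T z0 ρ nA nB β κ) : ∃ y, Rb w p r H z0 ρ nA nB y β κ := by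
  obtain ⟨y, hF⟩ := hF
  have key : ∀ z, z0 ≤ z → z ≤ z0 + ρ → |dt (gr p r z) (Ev w nA nB y)| * β ≤ κ ∧
      |bl H (Ev w nA nB y) (Ev w nA nB y)| * β ^ 2 ≤ κ := by
    intro z h0 h1
    have e1 : y • e 0 + (w 1 * -nB) • e 1 + (w 2 * nA) • e 2 = cmb e (Ev w nA nB y) := rfl
    have v : ∀ α : ℝ, q z (T.pos z + α • cmb e (Ev w nA nB y)) - q z (T.pos z) =
        α * dt (gr p r z) (Ev w nA nB y) + α ^ 2 * bl H (Ev w nA nB y) (Ev w nA nB y) := by
      intro α
      rw [← cmb_smul, hG.exp, dt_smul, bl_smul_left, bl_smul_right]; ring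
    have f1 := hF z h0 h1 β (by rw [abs_of_nonneg hβ])
    have f2 := hF z h0 h1 (-β) (by rw [abs_neg, abs_of_nonneg hβ])
    rw [e1, v, abs_le] at f1 f2
    constructor
    · have : |dt (gr p r z) (Ev w nA nB y) * β| ≤ κ := by
        rw [abs_le]; constructor <;> linarith [f1.1, f1.2, f2.1, f2.2]
      rwa [abs_mul, abs_of_nonneg hβ] at this
    · have : |bl H (Ev w nA nB y) (Ev w nA nB y) * β ^ 2| ≤ κ := by
        rw [abs_le]; constructor <;> nlinarith [f1.1, f1.2, f2.1, f2.2]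
      rwa [abs_mul, abs_of_nonneg (by positivity : 0 ≤ β ^ 2)] at this
  exact ⟨y, fun z h0 h1 => (key z h0 h1).1, (key z0 le_rfl (by linarith)).2⟩

theorem Rb.two {w p r : V3} {H : Fin 3 → Fin 3 → ℝ} {z0 ρ nA nB y β κ : ℝ}
    (R : Rb w p r H z0 ρ nA nB y β κ) (hκ : 0 ≤ κ) :
    Rb w p r H z0 ρ nA nB y (2 * β) (4 * κ) where
  f1 := fun z h0 h1 => by
    have := R.f1 z h0 h1
    linarith
  f2 := by
    have := R.f2
    nlinarith

end Crest.Agent.R136.Nd565
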