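import Crest.Agent.R136.Nd7_214
import Crest.Agent.R136.Nd7_565

/-!
# R136, non-degeneracy of near-maximal sheets (helper214), part 8: the family of a sheet, flat
ribbons, choice of the scales
-/

set_option autoImplicit false
set_option linter.unusedVariables false

open Finset

namespace Crest.Agent.R136.Nd214

open Crest.Agent.R136.Tl214 Crest.Agent.R136.Tl102 Crest.Agent.R136.Nd880
open Crest.Agent.R136.Sh605 (V3 dt Ln4 InK InSheet ShN Ortho IsQ)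
open Crest.Agent.R136.Arc880 (det3)
open Crest.Agent.R136.Nd565 (FlatAt)

variable {e : Fin 3 → V3} {c : Ln4} {w : V3} {q : ℝ → V3 → ℝ} {a z0 ρ : ℝ} {T : Ln4}
  {b0 b1 : V3} {G : QF} {κ : ℝ} {φ : V3}

theorem vel_sub (e : Fin 3 → V3) (w : V3) (T t t' : Ln4) (ρ : ℝ) (i : Fin 3) :
    vel e w T t' ρ i - vel e w T t ρ i = ρ * dt (e i) (t'.v - t.v) / w i := by
  simp only [vel, dt, Pi.sub_apply]
  ring

theorem crd_sub (e : Fin 3 → V3) (w : V3) (T t t' : Ln4) (z0 ρ ζ : ℝ) (i : Fin 3) :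
    (crd e w T t' z0 i + ζ * vel e w T t' ρ i) - (crd e w T t z0 i + ζ * vel e w T t ρ i) =
      dt (e i) (t'.pos (z0 + ρ * ζ) - t.pos (z0 + ρ * ζ)) / w i := by
  rw [← crd_add, ← crd_add]
  simp only [crd, dt, Pi.sub_apply]
  ring

/-- **the family of the lines near `T`** -/
theorem Dta.fam {ι : Type*} (D : Dta e c w q a z0 ρ T b0 b1 G κ φ) (ha : 0 ≤ a)
    (hs : 1000 * a ≤ w 0 * κ) (A : Finset ι) (L : ι → Ln4)
    (hA : ∀ t ∈ A, InSheet (L t) e c w q a z0 ρ ∧ ∀ z, z0 ≤ z → z ≤ z0 + ρ → ∀ i,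
      |dt (e i) ((L t).pos z - T.pos z)| ≤ w i / 1000) :
    Fam A (qB φ κ b0 b1 G) (eA b0) (eB b0) (eY κ) 0 eT (a / (w 0 * κ))
      (fun t => ((0 : ℝ), crd e w T (L t) z0)) (fun t => ((1 : ℝ), vel e w T (L t) ρ))
      (fun t => crd e w T (L t) z0 1) (fun t => crd e w T (L t) z0 2)
      (fun t => cY b0 κ (crd e w T (L t) z0)) (fun t => vel e w T (L t) ρ 1)
      (fun t => vel e w T (L t) ρ 2) (fun t => cY b0 κ (vel e w T (L t) ρ)) where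
  loc := D.loc ha hs
  lin := fun t ht => D.lin (hA t ht).1 fun z h0 h1 i => by
    have hw := D.w_pos i
    rw [crd, abs_div, abs_of_pos hw, div_le_iff₀ hw]
    have := (hA t ht).2 z h0 h1 i
    linarith

/-- **flat ribbons** -/
theorem Dta.flat (D : Dta e c w q a z0 ρ T b0 b1 G κ φ) {t : Ln4} {nA nB β σ : ℝ}
    (hg : 1 / 2 ≤ (qB φ κ b0 b1 G).G (0, crd e w T t z0) (eY κ)) (hβ : 0 ≤ β)
    (h : FlN (qB φ κ b0 b1 G) (eA b0) (eB b0) (eY κ) (0, crd e w T t z0) (1, vel e w T t ρ)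
      nA nB β σ) : FlatAt q e w t z0 ρ nA nB β (σ * (w 0 * κ)) := by
  set Q := qB φ κ b0 b1 G with hQ
  set P : V4 := (0, crd e w T t z0) with hP
  set τ : V4 := (1, vel e w T t ρ) with hτ
  set D0 : V4 := (-nB) • eA b0 + nA • eB b0 with hD0
  set m := Q.G P D0 / Q.G P (eY κ) with hm
  set y0 : ℝ := nB * (b0 1 / b0 0) - nA * (b0 2 / b0 0) - m * κ with hy0
  have hwκ : 0 < w 0 * κ := mul_pos (D.w_pos 0) D.κ0
  have n0 : Q.G P (eY κ) ≠ 0 := by linarith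
  have eξ : lift Q (eY κ) P D0 = ((0 : ℝ), (![y0, -nB, nA] : V3)) := by
    change D0 - m • eY κ = _
    rw [hD0]
    ext i
    · simp [eA, eB, eY]
    · fin_cases i <;> simp [eA, eB, eY, hy0] <;> ring
  refine ⟨w 0 * y0, fun z hz0 hz1 α hα => ?_⟩
  obtain ⟨s, hs0, hs1, rfl⟩ : ∃ s, 0 ≤ s ∧ s ≤ 1 ∧ z = z0 + ρ * s := by
    have hρ := D.ρ0
    refine ⟨(z - z0) / ρ, div_nonneg (by linarith) hρ.le, ?_, ?_⟩
    · rw [div_le_one hρ]; linarith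
    · field_simp; ring
  have e1 : t.pos (z0 + ρ * s) + α • ((w 0 * y0) • e 0 + (w 1 * -nB) • e 1 + (w 2 * nA) • e 2) =
      T.pos (z0 + ρ * s) + cmb (fr e w)
        (crd e w T t (z0 + ρ * s) + α • (![y0, -nB, nA] : V3)) := by
    rw [pos_eq_cmb D.sh.ortho D.w_pos T t (z0 + ρ * s)]
    funext j
    simp only [cmb, fr, Pi.add_apply, Pi.smul_apply, smul_eq_mul, Matrix.cons_val]
    ring
  have e2 : ((s : ℝ), crd e w T t (z0 + ρ * s)) = P + s • τ := by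
    rw [hP, hτ]
    ext i
    · simp
    · simp only [Prod.snd_add, Prod.smul_snd, Pi.add_apply, Pi.smul_apply, smul_eq_mul]
      rw [crd_add]
  have e3 : ((s : ℝ), crd e w T t (z0 + ρ * s) + α • (![y0, -nB, nA] : V3)) =
      (P + s • τ) + α • lift Q (eY κ) P D0 := by
    rw [eξ, ← e2]
    refine Prod.ext ?_ ?_
    · change s = s + α * 0
      ring
    · rfl
  rw [e1, D.f_eq, D.f_line, e3, e2, Q.taylor, Q.G_smul, Q.G_add, G_lift n0]
  have e4 : (w 0 * κ) * (Q.f (P + s • τ) + α * (0 + 2 * Q.H (s • τ) (lift Q (eY κ) P D0)) +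
      Q.H (α • lift Q (eY κ) P D0) (α • lift Q (eY κ) P D0)) - (w 0 * κ) * Q.f (P + s • τ) =
      (w 0 * κ) * ((2 * α * s) * bet Q (eY κ) P τ D0 + α ^ 2 * sec Q (eY κ) P D0 D0) := by
    simp only [bet, sec, map_smul, LinearMap.smul_apply, smul_eq_mul]
    ring
  rw [e4, abs_mul, abs_of_pos hwκ, mul_comm σ]
  apply mul_le_mul_of_nonneg_left _ hwκ.le
  refine (abs_add_le _ _).trans (le_trans ?_ h)
  have hs' : |s| ≤ 1 := abs_le.2 ⟨by linarith, hs1⟩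
  have k1 : |2 * α * s| ≤ 2 * β * 1 :=
    abs_mul_le' (abs_mul_le' (le_of_eq abs_two) hα) hs'
  have k2 : α ^ 2 ≤ β ^ 2 := by
    rw [← sq_abs α]; exact pow_le_pow_left₀ (abs_nonneg _) hα 2
  have k3 := abs_nonneg (bet Q (eY κ) P τ D0)
  have k4 := abs_nonneg (sec Q (eY κ) P D0 D0)
  refine add_le_add ?_ ?_
  · rw [abs_mul]
    refine (mul_le_mul_of_nonneg_right k1 k3).trans (le_of_eq (by rw [mul_one]))
  · rw [abs_mul, abs_of_nonneg (sq_nonneg α)]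
    exact mul_le_mul_of_nonneg_right k2 k4

theorem FlatAt.mono {nA nB β σ σ' : ℝ} {t : Ln4} (h : FlatAt q e w t z0 ρ nA nB β σ)
    (hσ : σ ≤ σ') : FlatAt q e w t z0 ρ nA nB β σ' := by
  obtain ⟨y, hy⟩ := h
  exact ⟨y, fun z h0 h1 α hα => (hy z h0 h1 α hα).trans hσ⟩

/-! ### choice of the scales -/

/-- **choice of a scale** -/
theorem pick {qq M0 B : ℝ} (hq : 0 < qq) (hM : 0 ≤ M0) (hB : 1 ≤ B) :
    ∃ N0 : ℕ, ∀ N : ℕ, N0 ≤ N → ∀ m : ℕ, 1 ≤ m →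
      M0 * B ^ m * (((1 / 2 : ℝ) ^ (N * m)) ^ qq) < (1 / 2) ^ m := by
  have hy0 : (0 : ℝ) < (1 / 2 : ℝ) ^ qq := Real.rpow_pos_of_pos (by norm_num) _
  have hy1 : (1 / 2 : ℝ) ^ qq < 1 := Real.rpow_lt_one (by norm_num) (by norm_num) hq
  have hpos : 0 < 1 / (2 * (M0 + 1) * B) := by positivity
  obtain ⟨N0, hN0⟩ := exists_pow_lt_of_lt_one hpos hy1
  refine ⟨N0, fun N hN m hm => ?_⟩
  have e1 : ((1 / 2 : ℝ) ^ (N * m)) ^ qq = (((1 / 2 : ℝ) ^ qq) ^ N) ^ m := by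
    rw [← pow_mul, ← Real.rpow_natCast, ← Real.rpow_natCast, ← Real.rpow_mul (by norm_num),
      ← Real.rpow_mul (by norm_num), mul_comm]
  rw [e1]
  set y := ((1 / 2 : ℝ) ^ qq) ^ N with hy
  have hyN : y ≤ 1 / (2 * (M0 + 1) * B) :=
    (pow_le_pow_of_le_one hy0.le hy1.le hN).trans hN0.le
  have hyp : 0 < y := by rw [hy]; positivity
  have h1 : B * y ≤ 1 / (2 * (M0 + 1)) := by
    have : B * y ≤ B * (1 / (2 * (M0 + 1) * B)) := mul_le_mul_of_nonneg_left hyN (by linarith)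
    refine this.trans (le_of_eq ?_)
    field_simp
  have h2 : (B * y) ^ m ≤ (1 / (2 * (M0 + 1))) ^ m :=
    pow_le_pow_left₀ (by positivity) h1 m
  have h3 : (1 / (2 * (M0 + 1))) ^ m = (1 / 2 : ℝ) ^ m * (1 / (M0 + 1)) ^ m := by
    rw [← mul_pow]; congr 1; field_simp
  have h4 : (1 / (M0 + 1)) ^ m ≤ 1 / (M0 + 1) := by
    have h5 : 1 / (M0 + 1) ≤ 1 := by rw [div_le_one (by linarith)]; linarith
    have h6 : (0:ℝ) ≤ 1 / (M0 + 1) := by positivity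
    calc (1 / (M0 + 1)) ^ m ≤ (1 / (M0 + 1)) ^ 1 := pow_le_pow_of_le_one h6 h5 hm
      _ = _ := pow_one _
  have hh : (0 : ℝ) < (1 / 2 : ℝ) ^ m := by positivity
  calc M0 * B ^ m * y ^ m = M0 * (B * y) ^ m := by rw [mul_pow]; ring
    _ ≤ M0 * ((1 / 2 : ℝ) ^ m * (1 / (M0 + 1))) := by
        apply mul_le_mul_of_nonneg_left _ hM
        rw [h3] at h2
        exact h2.trans (mul_le_mul_of_nonneg_left h4 hh.le)
    _ = (1 / 2 : ℝ) ^ m * (M0 / (M0 + 1)) := by ring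
    _ < (1 / 2 : ℝ) ^ m * 1 := by
        apply mul_lt_mul_of_pos_left _ hh
        rw [div_lt_one (by linarith)]; linarith
    _ = _ := mul_one _

/-- dyadic size of `θ` -/
theorem dyad {θ : ℝ} (h0 : 0 < θ) (h1 : θ ≤ 1 / 2) :
    ∃ m : ℕ, 1 ≤ m ∧ (1 / 2 : ℝ) ^ m ≤ θ ∧ θ ^ 2 ≤ (1 / 2) ^ m := by
  obtain ⟨n, hn⟩ := exists_pow_lt_of_lt_one h0 (by norm_num : (1 / 2 : ℝ) < 1)
  classical
  let m := Nat.find (⟨n, hn.le⟩ : ∃ n : ℕ, (1 / 2 : ℝ) ^ n ≤ θ)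
  have hm : (1 / 2 : ℝ) ^ m ≤ θ := Nat.find_spec (⟨n, hn.le⟩ : ∃ n : ℕ, (1 / 2 : ℝ) ^ n ≤ θ)
  have hm1 : 1 ≤ m := by
    rcases Nat.eq_zero_or_pos m with h | h
    · rw [h] at hm; norm_num at hm; linarith
    · exact h
  refine ⟨m, hm1, hm, ?_⟩
  have h2 : θ < (1 / 2 : ℝ) ^ (m - 1) := by
    have := Nat.find_min (⟨n, hn.le⟩ : ∃ n : ℕ, (1 / 2 : ℝ) ^ n ≤ θ)
      (show m - 1 < m by omega)
    push Not at this
    exact this
  have h3 : (1 / 2 : ℝ) ^ m = (1 / 2) ^ (m - 1) * (1 / 2) := by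
    rw [← pow_succ]; congr 1; omega
  rw [h3, sq]
  exact mul_le_mul h2.le h1 h0.le (by positivity)

end Crest.Agent.R136.Nd214
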