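import Crest.Agent.R136.Nd8_214
import Crest.Agent.R136.Fn2_880

/-!
# R136, non-degeneracy of near-maximal sheets (helper214), part 9: the finite theorem, up to the
count `nd_count` of helper335
-/

set_option autoImplicit false
set_option linter.unusedVariables false

open Finset

namespace Crest.Agent.R136.Nd214

open Crest.Agent.R136.Tl214 Crest.Agent.R136.Tl102 Crest.Agent.R136.Nd880
open Crest.Agent.R136.Sh605 (V3 dt Ln4 InK InSheet ShN Ortho IsQ DMaxN)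
open Crest.Agent.R136.Arc880 (det3)
open Crest.Agent.R136.Nd565 (FlatAt)

variable {e : Fin 3 → V3} {c : Ln4} {w : V3} {q : ℝ → V3 → ℝ} {a z0 ρ : ℝ} {T : Ln4}
  {b0 b1 : V3} {G : QF} {κ : ℝ} {φ : V3}

/-- the curvature extent is attained -/
theorem Dta.ext (D : Dta e c w q a z0 ρ T b0 b1 G κ φ) :
    1 ≤ 2 * |(qB φ κ b0 b1 G).H eT (eA b0)| ∨ 1 ≤ 2 * |(qB φ κ b0 b1 G).H eT (eB b0)| ∨
      1 ≤ |(qB φ κ b0 b1 G).H (eA b0) (eA b0)| ∨ 1 ≤ 2 * |(qB φ κ b0 b1 G).H (eA b0) (eB b0)| ∨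
      1 ≤ |(qB φ κ b0 b1 G).H (eB b0) (eB b0)| := by
  have N := D.nrm
  have hκ := D.κ0
  obtain ⟨g1, g2, g3, g4, -, -, -, s1, s2⟩ := N.b1_le
  have hb : b0 0 ≠ 0 := by linarith
  have e1 : (qB φ κ b0 b1 G).H (eA b0) (eA b0) = (shG b0 G).uu / κ := by
    rw [qB_H]
    simp only [eA, dt, QF.pol, Matrix.cons_val, shG]
    field_simp
    ring
  have e2 : (qB φ κ b0 b1 G).H (eA b0) (eB b0) = (shG b0 G).uv / κ / 2 := by
    rw [qB_H]
    simp only [eA, eB, dt, QF.pol, Matrix.cons_val, shG]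
    field_simp
    ring
  have e3 : (qB φ κ b0 b1 G).H (eB b0) (eB b0) = (shG b0 G).vv / κ := by
    rw [qB_H]
    simp only [eB, dt, QF.pol, Matrix.cons_val, shG]
    field_simp
    ring
  have e4 : (qB φ κ b0 b1 G).H eT (eA b0) = shB1 b0 b1 1 / κ / 2 := by
    rw [qB_H]
    simp only [eA, eT, dt, QF.pol, Matrix.cons_val, shB1, Pi.zero_apply]
    field_simp
    ring
  have e5 : (qB φ κ b0 b1 G).H eT (eB b0) = shB1 b0 b1 2 / κ / 2 := by
    rw [qB_H]
    simp only [eB, eT, dt, QF.pol, Matrix.cons_val, shB1, Pi.zero_apply]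
    field_simp
    ring
  rw [e1, e2, e3, e4, e5]
  have d2 : ∀ x : ℝ, κ ≤ |x| → 1 ≤ 2 * |x / κ / 2| := by
    intro x hx
    rw [abs_div, abs_div, abs_two, abs_of_pos hκ]
    have : 1 ≤ |x| / κ := by rw [le_div_iff₀ hκ]; linarith
    linarith
  have d1 : ∀ x : ℝ, κ ≤ |x| → 1 ≤ |x / κ| := by
    intro x hx
    rw [abs_div, abs_of_pos hκ, le_div_iff₀ hκ]; linarith
  have h : κ = kap b0 b1 G := D.κe
  unfold kap at h
  rcases le_total (max |shB1 b0 b1 1| |shB1 b0 b1 2|)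
    (max (max |(shG b0 G).uu| |(shG b0 G).uv|) |(shG b0 G).vv|) with h1 | h1
  · rw [max_eq_right h1] at h
    rcases le_total (max |(shG b0 G).uu| |(shG b0 G).uv|) |(shG b0 G).vv| with h2 | h2
    · rw [max_eq_right h2] at h
      exact Or.inr (Or.inr (Or.inr (Or.inr (d1 _ h.le))))
    · rw [max_eq_left h2] at h
      rcases le_total |(shG b0 G).uu| |(shG b0 G).uv| with h3 | h3
      · rw [max_eq_right h3] at h
        exact Or.inr (Or.inr (Or.inr (Or.inl (d2 _ h.le))))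
      · rw [max_eq_left h3] at h
        exact Or.inr (Or.inr (Or.inl (d1 _ h.le)))
  · rw [max_eq_left h1] at h
    rcases le_total |shB1 b0 b1 1| |shB1 b0 b1 2| with h3 | h3
    · rw [max_eq_right h3] at h
      exact Or.inr (Or.inl (d2 _ h.le))
    · rw [max_eq_left h3] at h
      exact Or.inl (d2 _ h.le)

theorem Fam.mono {E : Type*} [AddCommGroup E] [Module ℝ E] {ι : Type*} {A B : Finset ι}
    {q : QP E} {eA eB eY x0 τ0 : E} {a : ℝ} {p τ : ι → E} {uA uB uY vA vB vY : ι → ℝ}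
    (F : Fam A q eA eB eY x0 τ0 a p τ uA uB uY vA vB vY) (h : B ⊆ A) :
    Fam B q eA eB eY x0 τ0 a p τ uA uB uY vA vB vY where
  loc := F.loc
  lin := fun t ht => F.lin t (h ht)

/-- powers -/
theorem rp {s x q2 : ℝ} (hs : 0 ≤ s) (hx : 0 < x) :
    (s * x) ^ (1 + q2) * x⁻¹ = s ^ (1 + q2) * x ^ q2 := by
  rw [Real.mul_rpow hs hx.le, Real.rpow_add hx, Real.rpow_one]
  field_simp

/-- **the output of the pair lemmas in the form of the count** -/
theorem Dta.toCount {ι : Type*} (D : Dta e c w q a z0 ρ T b0 b1 G κ φ) (ha : 0 ≤ a)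
    (hs : 1000 * a ≤ w 0 * κ) (A : Finset ι) (L : ι → Ln4)
    (hA : ∀ t ∈ A, InSheet (L t) e c w q a z0 ρ ∧ ∀ z, z0 ≤ z → z ≤ z0 + ρ → ∀ i,
      |dt (e i) ((L t).pos z - T.pos z)| ≤ w i / 1000) {J : ℕ} {σ : ℝ} (hσ : 0 ≤ σ)
    {nA nB : ι → ℝ} {St : ι → ι → Prop}
    (O : Out A (qB φ κ b0 b1 G) (eA b0) (eB b0) (eY κ) (fun t => ((0 : ℝ), crd e w T (L t) z0))
      (fun t => ((1 : ℝ), vel e w T (L t) ρ)) (fun t => crd e w T (L t) z0 1)
      (fun t => crd e w T (L t) z0 2) (fun t => vel e w T (L t) ρ 1)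
      (fun t => vel e w T (L t) ρ 2) nA nB St ((1 / 2) ^ J) σ) :
    (∀ B ⊆ A, ∀ z, z0 ≤ z → z ≤ z0 + ρ → (∀ t ∈ B, ∀ t' ∈ B,
        |dt (e 1) ((L t').pos z - (L t).pos z)| ≤ w 1 / 2 ^ J ∧
        |dt (e 2) ((L t').pos z - (L t).pos z)| ≤ w 2 / 2 ^ J) →
      (B.card : ℝ) ^ 2 ≤ 4 * (((@Finset.filter _ (fun p => St p.1 p.2)
        (fun _ => Classical.propDecidable _) (B ×ˢ B))).card : ℝ)) ∧
    (∀ t ∈ A, ∀ t' ∈ A, St t t' →
      |nA t * (ρ * dt (e 1) ((L t').v - (L t).v) / w 1) +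
        nB t * (ρ * dt (e 2) ((L t').v - (L t).v) / w 2)| ≤ σ ∧
      FlatAt q e w (L t) z0 ρ (nA t) (nB t)
        (max |ρ * dt (e 1) ((L t').v - (L t).v) / w 1| |ρ * dt (e 2) ((L t').v - (L t).v) / w 2|)
        (13 * σ * w 0)) := by
  have F := D.fam ha hs A L hA
  have hκ13 : κ ≤ 13 := by rw [D.κe]; exact kap_le D.nrm
  have hw := D.w_pos
  refine ⟨fun B hB z hz0 hz1 hc => ?_, fun t ht t' ht' hSt => ?_⟩
  · obtain ⟨s, hs0, hs1, rfl⟩ : ∃ s, 0 ≤ s ∧ s ≤ 1 ∧ z = z0 + ρ * s := by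
      have hρ := D.ρ0
      refine ⟨(z - z0) / ρ, div_nonneg (by linarith) hρ.le, ?_, ?_⟩
      · rw [div_le_one hρ]; linarith
      · field_simp; ring
    have h := O.pair B hB s hs0 hs1 (fun t ht t' ht' => by
      obtain ⟨h1, h2⟩ := hc t ht t' ht'
      constructor
      · change |(crd e w T (L t') z0 1 + s * vel e w T (L t') ρ 1) -
          (crd e w T (L t) z0 1 + s * vel e w T (L t) ρ 1)| ≤ _
        rw [crd_sub, abs_div, abs_of_pos (hw 1), div_le_iff₀ (hw 1)]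
        refine h1.trans (le_of_eq ?_)
        rw [one_div, inv_pow]; ring
      · change |(crd e w T (L t') z0 2 + s * vel e w T (L t') ρ 2) -
          (crd e w T (L t) z0 2 + s * vel e w T (L t) ρ 2)| ≤ _
        rw [crd_sub, abs_div, abs_of_pos (hw 2), div_le_iff₀ (hw 2)]
        refine h2.trans (le_of_eq ?_)
        rw [one_div, inv_pow]; ring)
    convert h
  · obtain ⟨h1, h2⟩ := O.strip t ht t' ht' hSt
    simp only [vel_sub] at h1 h2
    refine ⟨h1, ?_⟩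
    have Tt := F.lin t ht
    have hg := (Tt.hg 0 le_rfl zero_le_one).1
    rw [zero_smul, add_zero] at hg
    refine FlatAt.mono (D.flat hg ((abs_nonneg _).trans (le_max_left _ _)) h2) ?_
    have : σ * (w 0 * κ) ≤ σ * (w 0 * 13) := by
      apply mul_le_mul_of_nonneg_left _ hσ
      exact mul_le_mul_of_nonneg_left hκ13 (hw 0).le
    linarith

end Crest.Agent.R136.Nd214
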