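import Crest.Agent.R136.Sbl2_57

/-!
# R136 (helper57): the volume lemma over box labels `((b₁, b₂), j)`

* `Sd` : the data at arbitrary labels, box of side `B`; `Sd.total`
* `count_boxes` : the data at real base points of the met boxes
-/

set_option autoImplicit false

open Finset

namespace Crest.Agent.R136.Sbl57

/-- second order data, base box of side `B` -/
structure Sd (S : Finset (Fin 3 → ℕ)) (α K B : ℝ) (F : (Fin 3 → ℕ) → ℝ)
    (G : Fin 3 → (Fin 3 → ℕ) → ℝ) (Q : (Fin 3 → ℕ) → Fin 3 → Fin 3 → ℝ) : Prop where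
  α0 : 0 < α
  α1 : α ≤ 1
  K1 : 1 ≤ K
  B1 : 1 ≤ B
  box : ∀ n ∈ S, ∀ j, α * (n j : ℝ) ≤ B
  gb : ∀ n ∈ S, ∀ i, |G i n| ≤ K
  hb : ∀ n ∈ S, ∀ i j, |Q n i j| ≤ K
  t1 : ∀ n ∈ S, ∀ n' ∈ S, ∀ i, (∀ j, j ≠ i → n j = n' j) →
    |F n' - F n - α * ((n' i : ℝ) - n i) * G i n| ≤ K * ((α * ((n' i : ℝ) - n i)) ^ 2 + α)
  t2 : ∀ n ∈ S, ∀ n' ∈ S, ∀ i, ∀ r : ℝ, (∀ j, |α * ((n' j : ℝ) - n j)| ≤ r) →
    |G i n' - G i n - ∑ j, Q n i j * (α * ((n' j : ℝ) - n j))| ≤ K * (r ^ 2 + α)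
  t3 : ∀ n ∈ S, ∀ n' ∈ S, ∀ r : ℝ, (∀ j, |α * ((n' j : ℝ) - n j)| ≤ r) →
    ∀ i j, |Q n' i j - Q n i j| ≤ K * (r + α)

section

variable {S : Finset (Fin 3 → ℕ)} {α K B : ℝ} {F : (Fin 3 → ℕ) → ℝ}
  {G : Fin 3 → (Fin 3 → ℕ) → ℝ} {Q : (Fin 3 → ℕ) → Fin 3 → Fin 3 → ℝ}

/-- rescaling of the base box -/
theorem Sd.toSc (h : Sd S α K B F G Q) :
    Sc S (α / B) (K * B ^ 3) F (fun i n => B * G i n) (fun n i j => B ^ 2 * Q n i j) := by
  have hα0 := h.α0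
  have hα1 := h.α1
  have hK := h.K1
  have hB := h.B1
  have hB0 : 0 < B := by linarith
  have hB2 : (1 : ℝ) ≤ B ^ 2 := one_le_pow₀ hB
  have hB3 : (1 : ℝ) ≤ B ^ 3 := one_le_pow₀ hB
  have hB13 : B ≤ B ^ 3 := by nlinarith
  have hB23 : B ^ 2 ≤ B ^ 3 := by nlinarith
  have eα : ∀ x : ℝ, α * x = B * (α / B * x) := by intro x; field_simp
  have hr : ∀ n n' : Fin 3 → ℕ, ∀ r : ℝ, (∀ j, |α / B * ((n' j : ℝ) - n j)| ≤ r) →
      ∀ j, |α * ((n' j : ℝ) - n j)| ≤ B * r := by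
    intro n n' r h1 j
    rw [eα, abs_mul, abs_of_pos hB0]
    exact mul_le_mul_of_nonneg_left (h1 j) hB0.le
  have hr0 : ∀ n n' : Fin 3 → ℕ, ∀ r : ℝ, (∀ j, |α / B * ((n' j : ℝ) - n j)| ≤ r) → 0 ≤ r :=
    fun n n' r h1 => (abs_nonneg _).trans (h1 0)
  refine
    { α0 := by positivity
      α1 := by rw [div_le_one hB0]; linarith
      K1 := by nlinarith
      box := fun n hn j => ?_
      gb := fun n hn i => ?_
      t1 := fun n hn n' hn' i hi => ?_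
      hb := fun n hn i j => ?_
      t2 := fun n hn n' hn' i r h1 => ?_
      t3 := fun n hn n' hn' r h1 i j => ?_ }
  · have := h.box n hn j
    rw [div_mul_eq_mul_div, div_le_one hB0]
    exact this
  · rw [abs_mul, abs_of_pos hB0]
    have := h.gb n hn i
    calc B * |G i n| ≤ B ^ 3 * K := mul_le_mul hB13 this (abs_nonneg _) (by positivity)
      _ = K * B ^ 3 := by ring
  · have := h.t1 n hn n' hn' i hi
    have e : F n' - F n - α / B * ((n' i : ℝ) - n i) * (B * G i n) =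
        F n' - F n - α * ((n' i : ℝ) - n i) * G i n := by field_simp
    rw [e]
    refine this.trans ?_
    rw [eα]
    have e2 : α = B * (α / B) := by field_simp
    obtain ⟨w, hw⟩ : ∃ w, w = α / B * ((n' i : ℝ) - n i) := ⟨_, rfl⟩
    obtain ⟨a, ha⟩ : ∃ a, a = α / B := ⟨_, rfl⟩
    have ha0 : 0 ≤ a := by rw [ha]; positivity
    rw [← hw, ← ha]
    rw [← ha] at e2
    rw [e2]
    have h1 : B ^ 2 * w ^ 2 ≤ B ^ 3 * w ^ 2 := mul_le_mul_of_nonneg_right hB23 (sq_nonneg _)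
    have h2 : B * a ≤ B ^ 3 * a := mul_le_mul_of_nonneg_right hB13 ha0
    have h3 : K * ((B * w) ^ 2 + B * a) ≤ K * (B ^ 3 * (w ^ 2 + a)) :=
      mul_le_mul_of_nonneg_left (by linarith [mul_pow B w 2]) (by linarith)
    linarith
  · rw [abs_mul, abs_of_pos (by positivity : (0 : ℝ) < B ^ 2)]
    have := h.hb n hn i j
    calc B ^ 2 * |Q n i j| ≤ B ^ 3 * K := mul_le_mul hB23 this (abs_nonneg _) (by positivity)
      _ = K * B ^ 3 := by ring
  · have := h.t2 n hn n' hn' i (B * r) (hr n n' r h1)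
    have hr0' := hr0 n n' r h1
    have e : B * G i n' - B * G i n - ∑ j, B ^ 2 * Q n i j * (α / B * ((n' j : ℝ) - n j)) =
        B * (G i n' - G i n - ∑ j, Q n i j * (α * ((n' j : ℝ) - n j))) := by
      rw [mul_sub, mul_sub, mul_sum]
      congr 1
      refine sum_congr rfl fun j _ => ?_
      rw [eα]; ring
    have e' : (fun i n => B * G i n) i n' - (fun i n => B * G i n) i n -
        ∑ j, (fun n i j => B ^ 2 * Q n i j) n i j * (α / B * ((n' j : ℝ) - n j)) =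
        B * (G i n' - G i n - ∑ j, Q n i j * (α * ((n' j : ℝ) - n j))) := e
    rw [e', abs_mul, abs_of_pos hB0]
    have e2 : α = B * (α / B) := by field_simp
    obtain ⟨a, ha⟩ : ∃ a, a = α / B := ⟨_, rfl⟩
    have ha0 : 0 ≤ a := by rw [ha]; positivity
    refine (mul_le_mul_of_nonneg_left this hB0.le).trans ?_
    rw [← ha]
    rw [← ha] at e2
    rw [e2]
    have h2 : B ^ 2 * a ≤ B ^ 3 * a := mul_le_mul_of_nonneg_right hB23 ha0
    have h3 : K * (B ^ 3 * r ^ 2 + B ^ 2 * a) ≤ K * (B ^ 3 * (r ^ 2 + a)) :=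
      mul_le_mul_of_nonneg_left (by linarith) (by linarith)
    calc B * (K * ((B * r) ^ 2 + B * a)) = K * (B ^ 3 * r ^ 2 + B ^ 2 * a) := by ring
      _ ≤ K * (B ^ 3 * (r ^ 2 + a)) := h3
      _ = K * B ^ 3 * (r ^ 2 + a) := by ring
  · have := h.t3 n hn n' hn' (B * r) (hr n n' r h1) i j
    have e' : (fun n i j => B ^ 2 * Q n i j) n' i j - (fun n i j => B ^ 2 * Q n i j) n i j =
        B ^ 2 * (Q n' i j - Q n i j) := by ring
    have e2 : α = B * (α / B) := by field_simp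
    rw [e', abs_mul, abs_of_pos (by positivity : (0 : ℝ) < B ^ 2)]
    refine (mul_le_mul_of_nonneg_left this (by positivity)).trans (le_of_eq ?_)
    nth_rewrite 1 [e2]
    ring

/-- **V3 over a base box of side `B`** -/
theorem Sd.total (h : Sd S α K B F G Q) {A : Finset (Fin 3 → ℕ)} (hA : A ⊆ S) {β γ m : ℝ}
    (hγ : 0 < γ) (hm : 0 < m) (hm1 : m ≤ 1) (hαβ : α ≤ β) {N : ℕ} (hN1 : 1 ≤ N)
    (hN : 2 * (K * B ^ 3) ≤ 2 ^ N * √β) (hF : ∀ n ∈ A, |F n| ≤ β)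
    (hnd : ∀ n ∈ A, (∃ i, γ ≤ |G i n|) ∨
      ∃ i j k l, m ≤ |Q n i j * Q n k l - Q n i l * Q n k j|) :
    (A.card : ℝ) ≤ 10 ^ 16 * N * (K * B ^ 3) ^ 10 * (1 / γ ^ 2 + 1 / m ^ 5) * β * B ^ 3 / α ^ 3 := by
  have hα0 := h.α0
  have hB := h.B1
  have hB0 : 0 < B := by linarith
  have hB4 : (1 : ℝ) ≤ B ^ 4 := one_le_pow₀ hB
  have hαB : α / B ≤ β := (div_le_self hα0.le hB).trans hαβ
  have := h.toSc.total hA hγ hm hm1 hαB hN1 hN hF (fun n hn => by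
    rcases hnd n hn with ⟨i, hi⟩ | ⟨i, j, k, l, hi⟩
    · left
      refine ⟨i, ?_⟩
      show γ ≤ |B * G i n|
      rw [abs_mul, abs_of_pos hB0]
      nlinarith [abs_nonneg (G i n)]
    · right
      refine ⟨i, j, k, l, ?_⟩
      show m ≤ |B ^ 2 * Q n i j * (B ^ 2 * Q n k l) - B ^ 2 * Q n i l * (B ^ 2 * Q n k j)|
      have e : B ^ 2 * Q n i j * (B ^ 2 * Q n k l) - B ^ 2 * Q n i l * (B ^ 2 * Q n k j) =
          B ^ 4 * (Q n i j * Q n k l - Q n i l * Q n k j) := by ring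
      rw [e, abs_mul, abs_of_pos (by positivity : (0 : ℝ) < B ^ 4)]
      nlinarith [abs_nonneg (Q n i j * Q n k l - Q n i l * Q n k j)])
  refine this.trans (le_of_eq ?_)
  rw [div_pow]
  field_simp

/-- the label of a box as a vector of naturals -/
def lab (s : ℕ) (y : (ℤ × ℤ) × ℕ) : Fin 3 → ℕ := ![y.2, (y.1.1 + s).toNat, (y.1.2 + s).toNat]

end

/-- **V3 over the met boxes**, one real base point per box -/
theorem count_boxes {H : ℕ} (hH : 1 ≤ H) {K B β γ m : ℝ} (hK : 1 ≤ K) (hB : 1 ≤ B)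
    (T : Finset ((ℤ × ℤ) × ℕ)) (x : (ℤ × ℤ) × ℕ → Fin 3 → ℝ) (F : (ℤ × ℤ) × ℕ → ℝ)
    (G : (ℤ × ℤ) × ℕ → Fin 3 → ℝ) (Q : (ℤ × ℤ) × ℕ → Fin 3 → Fin 3 → ℝ)
    (x0 : ∀ y ∈ T, x y 0 = y.2 / H) (x1 : ∀ y ∈ T, ⌊H * x y 1⌋ = y.1.1)
    (x2 : ∀ y ∈ T, ⌊H * x y 2⌋ = y.1.2) (xB : ∀ y ∈ T, ∀ i, |x y i| ≤ B)
    (gb : ∀ y ∈ T, ∀ i, |G y i| ≤ K) (hb : ∀ y ∈ T, ∀ i j, |Q y i j| ≤ K)
    (t1 : ∀ y ∈ T, ∀ y' ∈ T, ∀ r : ℝ, (∀ j, |x y' j - x y j| ≤ r) →
      |F y' - F y - ∑ j, G y j * (x y' j - x y j)| ≤ K * (r ^ 2 + 1 / H))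
    (t2 : ∀ y ∈ T, ∀ y' ∈ T, ∀ r : ℝ, (∀ j, |x y' j - x y j| ≤ r) →
      ∀ i, |G y' i - G y i - ∑ j, Q y i j * (x y' j - x y j)| ≤ K * (r ^ 2 + 1 / H))
    (t3 : ∀ y ∈ T, ∀ y' ∈ T, ∀ r : ℝ, (∀ j, |x y' j - x y j| ≤ r) →
      ∀ i j, |Q y' i j - Q y i j| ≤ K * (r + 1 / H))
    (hγ : 0 < γ) (hm : 0 < m) (hm1 : m ≤ 1) (hβ : 1 / (H : ℝ) ≤ β) {N : ℕ} (hN1 : 1 ≤ N)
    (hN : 5000 * (K * B ^ 3) ≤ 2 ^ N * √β) (hF : ∀ y ∈ T, |F y| ≤ β)
    (hnd : ∀ y ∈ T, (∃ i, γ ≤ |G y i|) ∨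
      ∃ i j k l, m ≤ |Q y i j * Q y k l - Q y i l * Q y k j|) :
    (T.card : ℝ) ≤ 10 ^ 52 * N * K ^ 10 * B ^ 33 * (1 / γ ^ 2 + 1 / m ^ 5) * β * (H : ℝ) ^ 3 := by
  classical
  have hH0 : (0 : ℝ) < H := by exact_mod_cast hH
  have hH1 : (1 : ℝ) ≤ H := by exact_mod_cast hH
  -- the shift
  obtain ⟨s, hs⟩ : ∃ s : ℕ, s = ⌈H * B⌉₊ + 1 := ⟨_, rfl⟩
  have hs1 : H * B + 1 ≤ (s : ℝ) := by
    rw [hs]; push_cast; linarith [Nat.le_ceil (H * B)]
  have hs2 : (s : ℝ) ≤ H * B + 2 := by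
    rw [hs]; push_cast; linarith [Nat.ceil_lt_add_one (show (0 : ℝ) ≤ H * B by positivity)]
  -- integer labels near the base points
  have fl : ∀ (t : ℝ) (b : ℤ), ⌊H * t⌋ = b → |t| ≤ B →
      ((b + s).toNat : ℝ) = b + s ∧ |t - (b : ℝ) / H| ≤ 1 / H := by
    intro t b h1 h2
    have a1 : (b : ℝ) ≤ H * t := by rw [← h1]; exact Int.floor_le _
    have a2 : H * t < (b : ℝ) + 1 := by rw [← h1]; exact Int.lt_floor_add_one _
    rw [abs_le] at h2
    constructor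
    · have h3 : (0 : ℝ) ≤ (b : ℝ) + s := by nlinarith
      have h4 : (0 : ℤ) ≤ b + s := by exact_mod_cast h3
      have h5 : (((b + s).toNat : ℤ) : ℝ) = ((b + s : ℤ) : ℝ) := by rw [Int.toNat_of_nonneg h4]
      push_cast at h5
      exact h5
    · rw [abs_le]
      constructor
      · rw [← sub_nonneg]
        have : t - (b : ℝ) / H - -(1 / H) = (H * t - b + 1) / H := by field_simp; ring
        rw [this]
        exact div_nonneg (by linarith) hH0.le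
      · rw [← sub_nonneg]
        have : 1 / (H : ℝ) - (t - (b : ℝ) / H) = (b + 1 - H * t) / H := by field_simp; ring
        rw [this]
        exact div_nonneg (by linarith) hH0.le
  obtain ⟨w, hw⟩ : ∃ w : (Fin 3 → ℕ) → (ℤ × ℤ) × ℕ,
      w = fun n => (((n 1 : ℤ) - s, (n 2 : ℤ) - s), n 0) := ⟨_, rfl⟩
  have flab : ∀ y ∈ T, ((y.1.1 + s).toNat : ℝ) = y.1.1 + s ∧ ((y.1.2 + s).toNat : ℝ) = y.1.2 + s :=
    fun y hy => ⟨(fl _ _ (x1 y hy) (xB y hy 1)).1, (fl _ _ (x2 y hy) (xB y hy 2)).1⟩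
  have hwl : ∀ y ∈ T, w (lab s y) = y := by
    intro y hy
    obtain ⟨a1, a2⟩ := flab y hy
    have b1 : ((y.1.1 + s).toNat : ℤ) = y.1.1 + s := by exact_mod_cast a1
    have b2 : ((y.1.2 + s).toNat : ℤ) = y.1.2 + s := by exact_mod_cast a2
    rw [hw]
    show (((((y.1.1 + s).toNat : ℕ) : ℤ) - s, (((y.1.2 + s).toNat : ℕ) : ℤ) - s), y.2) = y
    rw [b1, b2, add_sub_cancel_right, add_sub_cancel_right]
  set S : Finset (Fin 3 → ℕ) := T.image (lab s) with hS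
  have hSw : ∀ n ∈ S, w n ∈ T ∧ lab s (w n) = n := by
    intro n hn
    obtain ⟨y, hy, rfl⟩ := mem_image.1 hn
    rw [hwl y hy]
    exact ⟨hy, rfl⟩
  have hcard : T.card = S.card := by
    rw [hS, card_image_of_injOn]
    intro y hy y' hy' h
    rw [← hwl y (mem_coe.1 hy), ← hwl y' (mem_coe.1 hy'), h]
  obtain ⟨α, hα⟩ : ∃ α : ℝ, α = 1 / H := ⟨_, rfl⟩
  have hα0 : 0 < α := by rw [hα]; positivity
  have hα1 : α ≤ 1 := by rw [hα, div_le_one hH0]; exact hH1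
  rw [← hα] at t1 t2 t3 hβ
  have hHα : ∀ z : ℝ, z / H = α * z := fun z => by rw [hα]; ring
  -- labels against base points
  have near : ∀ y ∈ T, ∀ j, |x y j - (α * (lab s y j : ℝ) - (if j = 0 then 0 else α * s))| ≤ α := by
    intro y hy j
    obtain ⟨a1, a2⟩ := flab y hy
    have c1 := (fl _ _ (x1 y hy) (xB y hy 1)).2
    have c2 := (fl _ _ (x2 y hy) (xB y hy 2)).2
    rw [hHα, ← hα] at c1 c2
    fin_cases j
    · show |x y 0 - (α * ((y.2 : ℕ) : ℝ) - (if (0 : Fin 3) = 0 then 0 else α * s))| ≤ α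
      rw [if_pos rfl, x0 y hy, hHα, sub_zero, sub_self, abs_zero]
      exact hα0.le
    · show |x y 1 - (α * (((y.1.1 + s).toNat : ℕ) : ℝ) - (if (1 : Fin 3) = 0 then 0 else α * s))| ≤ α
      rw [if_neg (by decide), a1]
      have : x y 1 - (α * ((y.1.1 : ℝ) + s) - α * s) = x y 1 - α * y.1.1 := by ring
      rw [this]; exact c1
    · show |x y 2 - (α * (((y.1.2 + s).toNat : ℕ) : ℝ) - (if (2 : Fin 3) = 0 then 0 else α * s))| ≤ α
      rw [if_neg (by decide), a2]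
      have : x y 2 - (α * ((y.1.2 : ℝ) + s) - α * s) = x y 2 - α * y.1.2 := by ring
      rw [this]; exact c2
  have dif : ∀ n ∈ S, ∀ n' ∈ S, ∀ j,
      |(x (w n') j - x (w n) j) - α * ((n' j : ℝ) - n j)| ≤ 2 * α := by
    intro n hn n' hn' j
    have a1 := near (w n) (hSw n hn).1 j
    have a2 := near (w n') (hSw n' hn').1 j
    rw [(hSw n hn).2] at a1
    rw [(hSw n' hn').2] at a2
    rw [abs_le] at a1 a2 ⊢
    constructor <;> linarith [a1.1, a1.2, a2.1, a2.2]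
  have dif' : ∀ n ∈ S, ∀ n' ∈ S, ∀ r : ℝ, (∀ j, |α * ((n' j : ℝ) - n j)| ≤ r) →
      ∀ j, |x (w n') j - x (w n) j| ≤ r + 2 * α := by
    intro n hn n' hn' r hr j
    have a1 := dif n hn n' hn' j
    have a2 := hr j
    rw [abs_le] at a1 a2 ⊢
    constructor <;> linarith [a1.1, a1.2, a2.1, a2.2]
  have sumdif : ∀ n ∈ S, ∀ n' ∈ S, ∀ g : Fin 3 → ℝ, (∀ j, |g j| ≤ K) →
      |∑ j, g j * (x (w n') j - x (w n) j) - ∑ j, g j * (α * ((n' j : ℝ) - n j))| ≤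
        6 * K * α := by
    intro n hn n' hn' g hg
    rw [← sum_sub_distrib]
    calc |∑ j, (g j * (x (w n') j - x (w n) j) - g j * (α * ((n' j : ℝ) - n j)))| ≤
        ∑ j, |g j * (x (w n') j - x (w n) j) - g j * (α * ((n' j : ℝ) - n j))| :=
          abs_sum_le_sum_abs _ _
      _ ≤ ∑ _j : Fin 3, K * (2 * α) := by
          refine sum_le_sum fun j _ => ?_
          rw [← mul_sub, abs_mul]
          exact mul_le_mul (hg j) (dif n hn n' hn' j) (abs_nonneg _) (by linarith)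
      _ = 6 * K * α := by rw [sum_const, card_univ, Fintype.card_fin, nsmul_eq_mul]; push_cast; ring
  have hd : Sd S α (15 * K) (5 * B) (fun n => F (w n)) (fun i n => G (w n) i) (fun n => Q (w n)) := by
    refine
      { α0 := hα0
        α1 := hα1
        K1 := by linarith
        B1 := by linarith
        box := fun n hn j => ?_
        gb := fun n hn i => (gb _ (hSw n hn).1 i).trans (by linarith)
        hb := fun n hn i j => (hb _ (hSw n hn).1 i j).trans (by linarith)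
        t1 := fun n hn n' hn' i hi => ?_
        t2 := fun n hn n' hn' i r h1 => ?_
        t3 := fun n hn n' hn' r h1 i j => ?_ }
    · have a1 := near (w n) (hSw n hn).1 j
      have a2 := xB (w n) (hSw n hn).1 j
      rw [(hSw n hn).2] at a1
      rw [abs_le] at a1 a2
      have a3 : (if j = 0 then 0 else α * (s : ℝ)) ≤ B + 2 * α := by
        have : α * (s : ℝ) ≤ B + 2 * α := by
          calc α * (s : ℝ) ≤ α * (H * B + 2) := mul_le_mul_of_nonneg_left hs2 hα0.le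
            _ = B + 2 * α := by rw [hα]; field_simp
        split_ifs
        · linarith
        · exact this
      linarith [a1.1, a2.2]
    · have e0 : ∀ j, |α * ((n' j : ℝ) - n j)| ≤ |α * ((n' i : ℝ) - n i)| := by
        intro j
        by_cases hj : j = i
        · rw [hj]
        · rw [hi j hj, sub_self, mul_zero, abs_zero]; exact abs_nonneg _
      have a1 := t1 (w n) (hSw n hn).1 (w n') (hSw n' hn').1 _ (dif' n hn n' hn' _ e0)
      have a2 := sumdif n hn n' hn' (G (w n)) (gb _ (hSw n hn).1)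
      have a3 : ∑ j, G (w n) j * (α * ((n' j : ℝ) - n j)) =
          G (w n) i * (α * ((n' i : ℝ) - n i)) := by
        refine sum_eq_single i (fun j _ hj => ?_) (fun h => absurd (mem_univ _) h)
        rw [hi j hj, sub_self, mul_zero, mul_zero]
      rw [a3] at a2
      obtain ⟨v, hv⟩ : ∃ v, v = α * ((n' i : ℝ) - n i) := ⟨_, rfl⟩
      rw [← hv] at a1 a2 ⊢
      have a4 : (|v| + 2 * α) ^ 2 ≤ 2 * v ^ 2 + 8 * α := by
        have h1 : 0 ≤ (|v| - 2 * α) ^ 2 := sq_nonneg _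
        have h2 : |v| ^ 2 = v ^ 2 := sq_abs v
        have h3 : α ^ 2 ≤ α := by nlinarith
        nlinarith
      have a5 : K * ((|v| + 2 * α) ^ 2 + α) ≤ K * (2 * v ^ 2 + 9 * α) :=
        mul_le_mul_of_nonneg_left (by linarith) (by linarith)
      have a6 : 0 ≤ K * v ^ 2 := by positivity
      have a7 : 0 ≤ K * α := by positivity
      show |F (w n') - F (w n) - v * G (w n) i| ≤ 15 * K * (v ^ 2 + α)
      rw [abs_le] at a1 a2 ⊢
      constructor <;> nlinarith [a1.1, a1.2, a2.1, a2.2]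
    · have a1 := t2 (w n) (hSw n hn).1 (w n') (hSw n' hn').1 _ (dif' n hn n' hn' _ h1) i
      have a2 := sumdif n hn n' hn' (Q (w n) i) (hb _ (hSw n hn).1 i)
      have hr0 : 0 ≤ r := (abs_nonneg _).trans (h1 0)
      have a4 : (r + 2 * α) ^ 2 ≤ 2 * r ^ 2 + 8 * α := by
        have h1 : 0 ≤ (r - 2 * α) ^ 2 := sq_nonneg _
        have h3 : α ^ 2 ≤ α := by nlinarith
        nlinarith
      have a5 : K * ((r + 2 * α) ^ 2 + α) ≤ K * (2 * r ^ 2 + 9 * α) :=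
        mul_le_mul_of_nonneg_left (by linarith) (by linarith)
      have a6 : 0 ≤ K * r ^ 2 := by positivity
      have a7 : 0 ≤ K * α := by positivity
      show |G (w n') i - G (w n) i - ∑ j, Q (w n) i j * (α * ((n' j : ℝ) - n j))| ≤
        15 * K * (r ^ 2 + α)
      obtain ⟨u1, hu1⟩ : ∃ u1, u1 = ∑ j, Q (w n) i j * (α * ((n' j : ℝ) - n j)) := ⟨_, rfl⟩
      obtain ⟨u2, hu2⟩ : ∃ u2, u2 = ∑ j, Q (w n) i j * (x (w n') j - x (w n) j) := ⟨_, rfl⟩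
      rw [← hu1, ← hu2] at a2
      rw [← hu2] at a1
      rw [← hu1]
      rw [abs_le] at a1 a2 ⊢
      constructor <;> nlinarith [a1.1, a1.2, a2.1, a2.2]
    · have a1 := t3 (w n) (hSw n hn).1 (w n') (hSw n' hn').1 _ (dif' n hn n' hn' _ h1) i j
      have hr0 : 0 ≤ r := (abs_nonneg _).trans (h1 0)
      refine a1.trans ?_
      have a6 : 0 ≤ K * r := by positivity
      have a7 : 0 ≤ K * α := by positivity
      nlinarith
  have hN' : 2 * (15 * K * (5 * B) ^ 3) ≤ 2 ^ N * √β := by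
    have : 2 * (15 * K * (5 * B) ^ 3) = 3750 * (K * B ^ 3) := by ring
    have h3 : 0 ≤ K * B ^ 3 := by positivity
    linarith
  have hfin := hd.total (Subset.refl S) hγ hm hm1 hβ hN1 hN'
    (fun n hn => hF _ (hSw n hn).1) (fun n hn => hnd _ (hSw n hn).1)
  rw [hcard]
  refine hfin.trans ?_
  have hβ0 : 0 < β := hα0.trans_le hβ
  have e : 10 ^ 16 * N * (15 * K * (5 * B) ^ 3) ^ 10 * (1 / γ ^ 2 + 1 / m ^ 5) * β * (5 * B) ^ 3 / α ^ 3
      = (10 ^ 16 * 1875 ^ 10 * 125) * (N * K ^ 10 * B ^ 33 * (1 / γ ^ 2 + 1 / m ^ 5) * β * (H : ℝ) ^ 3) := by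
    have : 1 / α ^ 3 = (H : ℝ) ^ 3 := by rw [hα]; field_simp
    rw [div_eq_mul_one_div, this]
    ring
  rw [e]
  calc (10 ^ 16 * 1875 ^ 10 * 125 : ℝ) * (N * K ^ 10 * B ^ 33 * (1 / γ ^ 2 + 1 / m ^ 5) * β * (H : ℝ) ^ 3)
      ≤ 10 ^ 52 * (N * K ^ 10 * B ^ 33 * (1 / γ ^ 2 + 1 / m ^ 5) * β * (H : ℝ) ^ 3) :=
        mul_le_mul_of_nonneg_right (by norm_num) (by positivity)
    _ = _ := by ring

end Crest.Agent.R136.Sbl57
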