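import Crest.Agent.R136.Adp_876
import Crest.Agent.R136.Sbl3_57

/-!
# R136 (U4, PLAN 2 (AL), leaf (D)): change of the base coordinates, count (helper876)

* `bc α β N J` : jet after the change `y' = α y + β·x`, `x' = N x`; `tg_bc`, `th_bc`.
* `sm k J` : multiple of a jet.
* `count_chg` : 57's count of boxes for the data of the adapter after a linear change of the base.
-/

set_option autoImplicit false
set_option linter.unusedVariables false

namespace Crest.Agent.R136.Adp876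

open Crest.Agent.R136.Rk601

/-- jet of `J` composed with `y' = α y + β·x`, `x' = N x` -/
def bc (α : ℝ) (β : Fin 3 → ℝ) (N : Fin 3 → Fin 3 → ℝ) (J : Jt) : Jt where
  a0 := α * J.a0
  a := fun i => (∑ k, N k i * J.a k) + β i * J.a0
  h00 := α ^ 2 * J.h00
  h0 := fun i => α * ((∑ k, N k i * J.h0 k) + β i * J.h00)
  h := fun i j => (∑ k, ∑ l, N k i * N l j * J.h k l) + (∑ k, N k i * J.h0 k) * β j +
    β i * (∑ k, N k j * J.h0 k) + β i * β j * J.h00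

theorem bc_ev (α : ℝ) (β : Fin 3 → ℝ) (N : Fin 3 → Fin 3 → ℝ) (J : Jt) (y : ℝ) (x : Fin 3 → ℝ) :
    ev (bc α β N J) y x = ev J (α * y + ∑ i, β i * x i) (fun k => ∑ i, N k i * x i) := by
  simp only [ev, bc, Fin.sum_univ_three]
  ring

theorem bc_sym {α : ℝ} {β : Fin 3 → ℝ} {N : Fin 3 → Fin 3 → ℝ} {J : Jt} (h : J.Sym) :
    (bc α β N J).Sym := by
  intro i j
  simp only [bc, Fin.sum_univ_three]
  rw [h 1 0, h 2 0, h 2 1]
  ring

theorem sl_bc {α : ℝ} {β : Fin 3 → ℝ} {N : Fin 3 → Fin 3 → ℝ} {q : Jt} (hα : α ≠ 0)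
    (h0 : q.a0 ≠ 0) (i : Fin 3) : sl (bc α β N q) i = ((∑ k, N k i * sl q k) - β i) / α := by
  have e : ∑ k, N k i * sl q k = -(∑ k, N k i * q.a k) / q.a0 := by
    simp only [sl, Fin.sum_univ_three]
    field_simp
    ring
  rw [e]
  simp only [sl, bc]
  field_simp
  ring

theorem tg_bc {α : ℝ} {β : Fin 3 → ℝ} {N : Fin 3 → Fin 3 → ℝ} {q P : Jt} (hα : α ≠ 0)
    (h0 : q.a0 ≠ 0) (i : Fin 3) :
    tg (bc α β N q) (bc α β N P) i = ∑ k, N k i * tg q P k := by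
  have e : (α * P.a0) / (α * q.a0) = P.a0 / q.a0 := mul_div_mul_left _ _ hα
  simp only [tg, bc, Fin.sum_univ_three]
  rw [e]
  field_simp
  ring

theorem lf_bc {α : ℝ} {β : Fin 3 → ℝ} {N : Fin 3 → Fin 3 → ℝ} {P : Jt} {s : Fin 3 → ℝ}
    (hα : α ≠ 0) (i j : Fin 3) :
    lf (bc α β N P) (fun i => ((∑ k, N k i * s k) - β i) / α) i j =
      ∑ k, ∑ l, N k i * N l j * lf P s k l := by
  have e : ∑ k, ∑ l, N k i * N l j * lf P s k l = (∑ k, ∑ l, N k i * N l j * P.h k l) +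
      (∑ k, N k i * P.h0 k) * (∑ k, N k j * s k) + (∑ k, N k j * P.h0 k) * (∑ k, N k i * s k) +
      P.h00 * ((∑ k, N k i * s k) * (∑ k, N k j * s k)) := by
    simp only [lf, Fin.sum_univ_three]
    ring
  rw [e]
  simp only [lf, bc]
  generalize (∑ k, ∑ l, N k i * N l j * P.h k l) = A1
  generalize (∑ k, N k i * P.h0 k) = A2
  generalize (∑ k, N k j * P.h0 k) = A3
  generalize (∑ k, N k i * s k) = A4
  generalize (∑ k, N k j * s k) = A5
  field_simp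
  ring

theorem th_bc {α : ℝ} {β : Fin 3 → ℝ} {N : Fin 3 → Fin 3 → ℝ} {q P : Jt} (hα : α ≠ 0)
    (h0 : q.a0 ≠ 0) (i j : Fin 3) :
    th (bc α β N q) (bc α β N P) i j = ∑ k, ∑ l, N k i * N l j * th q P k l := by
  have e : (α * P.a0) / (α * q.a0) = P.a0 / q.a0 := mul_div_mul_left _ _ hα
  have es : sl (bc α β N q) = fun i => ((∑ k, N k i * sl q k) - β i) / α := by
    funext i; exact sl_bc hα h0 i
  have e1 : th (bc α β N q) (bc α β N P) i j = lf (bc α β N P) (sl (bc α β N q)) i j -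
      P.a0 / q.a0 * lf (bc α β N q) (sl (bc α β N q)) i j := by
    unfold th
    show _ - (α * P.a0) / (α * q.a0) * _ = _
    rw [e]
  rw [e1, es, lf_bc hα, lf_bc hα]
  simp only [th, Fin.sum_univ_three]
  ring

/-- multiple of a jet -/
def sm (k : ℝ) (J : Jt) : Jt where
  a0 := k * J.a0
  a := fun i => k * J.a i
  h00 := k * J.h00
  h0 := fun i => k * J.h0 i
  h := fun i j => k * J.h i j

theorem sm_ev (k : ℝ) (J : Jt) (y : ℝ) (x : Fin 3 → ℝ) : ev (sm k J) y x = k * ev J y x := by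
  simp only [ev, sm, Fin.sum_univ_three]; ring

theorem sm_sym {k : ℝ} {J : Jt} (h : J.Sym) : (sm k J).Sym := fun i j => by
  show k * J.h i j = k * J.h j i
  rw [h i j]

theorem tg_sm {k l : ℝ} {q P : Jt} (hk : k ≠ 0) (h0 : q.a0 ≠ 0) (i : Fin 3) :
    tg (sm k q) (sm l P) i = l * tg q P i := by
  simp only [tg, sm]
  field_simp

theorem th_sm {k l : ℝ} {q P : Jt} (hk : k ≠ 0) (h0 : q.a0 ≠ 0) (i j : Fin 3) :
    th (sm k q) (sm l P) i j = l * th q P i j := by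
  have e : sl (sm k q) = sl q := by
    funext i; simp only [sl, sm]; field_simp
  simp only [th, e]
  simp only [lf, sm]
  field_simp

theorem addm_ev (P : Jt) (k : ℝ) (q : Jt) (y : ℝ) (x : Fin 3 → ℝ) :
    ev (P.addm k q) y x = ev P y x + k * ev q y x := by
  simp only [ev, Jt.addm, Fin.sum_univ_three]; ring

theorem addm_sym {P q : Jt} {k : ℝ} (h : P.Sym) (h' : q.Sym) : (P.addm k q).Sym := fun i j => by
  show P.h i j + k * q.h i j = P.h j i + k * q.h j i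
  rw [h i j, h' i j]

theorem bc_addm (α : ℝ) (β : Fin 3 → ℝ) (N : Fin 3 → Fin 3 → ℝ) (P : Jt) (k : ℝ) (q : Jt) :
    bc α β N (P.addm k q) = (bc α β N P).addm k (bc α β N q) := by
  simp only [bc, Jt.addm, Fin.sum_univ_three, Jt.mk.injEq]
  refine ⟨by ring, ?_, by ring, ?_, ?_⟩
  · funext i; ring
  · funext i; ring
  · funext i j; ring

/-! ### the count -/

theorem mdot_le {M : Fin 3 → Fin 3 → ℝ} {v : Fin 3 → ℝ} {L B : ℝ} (hM : ∀ k j, |M k j| ≤ L)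
    (hv : ∀ j, |v j| ≤ B) (k : Fin 3) : |∑ j, M k j * v j| ≤ 3 * (L * B) := dot_le (hM k) hv

theorem mtdot_le {M : Fin 3 → Fin 3 → ℝ} {v : Fin 3 → ℝ} {L B : ℝ} (hM : ∀ k j, |M k j| ≤ L)
    (hv : ∀ j, |v j| ≤ B) (i : Fin 3) : |∑ k, M k i * v k| ≤ 3 * (L * B) :=
  dot_le (fun k => hM k i) hv

theorem mtm_le {M A : Fin 3 → Fin 3 → ℝ} {L B : ℝ} (hM : ∀ k j, |M k j| ≤ L)
    (hA : ∀ k l, |A k l| ≤ B) (i j : Fin 3) : |∑ k, ∑ l, M k i * M l j * A k l| ≤ 9 * (L ^ 2 * B) := by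
  have hL : 0 ≤ L := (abs_nonneg _).trans (hM 0 0)
  have e : ∀ k l, |M k i * M l j * A k l| ≤ L ^ 2 * B := fun k l => by
    rw [abs_mul, abs_mul, sq]
    exact mul_le_mul (mul_le_mul (hM k i) (hM l j) (abs_nonneg _) hL) (hA k l) (abs_nonneg _)
      (by positivity)
  calc |∑ k, ∑ l, M k i * M l j * A k l| ≤ ∑ k, ∑ l, |M k i * M l j * A k l| :=
        (Finset.abs_sum_le_sum_abs _ _).trans
          (Finset.sum_le_sum fun i _ => Finset.abs_sum_le_sum_abs _ _)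
    _ ≤ ∑ _k : Fin 3, ∑ _l : Fin 3, L ^ 2 * B :=
        Finset.sum_le_sum fun i _ => Finset.sum_le_sum fun j _ => e i j
    _ = 9 * (L ^ 2 * B) := by simp; ring

/-- constant of the count -/
noncomputable def KC (K L : ℝ) : ℝ := 27 * L ^ 3 * CK K

/-- **count of the boxes after a linear change of the base coordinates.** -/
theorem count_chg {H : ℕ} (hH : 1 ≤ H) {T : Finset ((ℤ × ℤ) × ℕ)} {cq cP : ℝ} {q P : Jt}
    {y : (ℤ × ℤ) × ℕ → ℝ} {X : (ℤ × ℤ) × ℕ → Fin 3 → ℝ} {K L B : ℝ}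
    (D : Data (T : Set ((ℤ × ℤ) × ℕ)) cq q P y X K (1 / H)) {M : Fin 3 → Fin 3 → ℝ}
    (hL : 1 ≤ L) (hM : ∀ k j, |M k j| ≤ L) (hB : 1 ≤ B) (x : (ℤ × ℤ) × ℕ → Fin 3 → ℝ)
    (hx : ∀ b ∈ T, ∀ b' ∈ T, ∀ k, X b' k - X b k = ∑ j, M k j * (x b' j - x b j))
    (x0 : ∀ y ∈ T, x y 0 = y.2 / H) (x1 : ∀ y ∈ T, ⌊H * x y 1⌋ = y.1.1)
    (x2 : ∀ y ∈ T, ⌊H * x y 2⌋ = y.1.2) (xB : ∀ y ∈ T, ∀ i, |x y i| ≤ B) {β γ m : ℝ}
    (hγ : 0 < γ) (hm : 0 < m) (hm1 : m ≤ 1) (hβ : 1 / (H : ℝ) ≤ β) {N : ℕ} (hN1 : 1 ≤ N)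
    (hN : 5000 * (KC K L * B ^ 3) ≤ 2 ^ N * √β) (hF : ∀ b ∈ T, |FF cP P y X b| ≤ β)
    (hnd : ∀ b ∈ T, (∃ i, γ ≤ |∑ k, M k i * GG q P y X b k|) ∨ ∃ i j k l,
      m ≤ |mn (fun i j => ∑ k, ∑ l, M k i * M l j * HH q P y X b k l) i j k l|) :
    (T.card : ℝ) ≤
      10 ^ 52 * N * (KC K L) ^ 10 * B ^ 33 * (1 / γ ^ 2 + 1 / m ^ 5) * β * (H : ℝ) ^ 3 := by
  have hC := CK_one D.K1
  have hC0 : (0:ℝ) < CK K := by linarith
  have hL0 : (0:ℝ) < L := by linarith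
  have hL2 : (1:ℝ) ≤ L ^ 2 := one_le_pow₀ hL
  have hL3 : (1:ℝ) ≤ L ^ 3 := one_le_pow₀ hL
  have h23 : L ^ 2 ≤ L ^ 3 := pow_le_pow_right₀ hL (by norm_num)
  have h13 : L ≤ L ^ 3 := le_self_pow₀ hL (by norm_num)
  have hHr : (0:ℝ) < H := by exact_mod_cast hH
  have hH0 : (0:ℝ) ≤ 1 / H := by positivity
  have hKC1 : 1 ≤ KC K L := by
    unfold KC
    have : (1:ℝ) * 1 ≤ L ^ 3 * CK K := mul_le_mul hL3 hC (by norm_num) (by positivity)
    linarith
  have hrr : ∀ b ∈ T, ∀ b' ∈ T, ∀ r : ℝ, (∀ j, |x b' j - x b j| ≤ r) →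
      ∀ j, |X b' j - X b j| ≤ 3 * (L * r) := by
    intro b hb b' hb' r hr j
    rw [hx b hb b' hb']
    exact mdot_le hM hr j
  have hKCe : KC K L = 27 * (L ^ 3 * CK K) := by unfold KC; ring
  refine Sbl57.count_boxes hH hKC1 hB T x (FF cP P y X)
    (fun b i => ∑ k, M k i * GG q P y X b k)
    (fun b i j => ∑ k, ∑ l, M k i * M l j * HH q P y X b k l) x0 x1 x2 xB ?_ ?_ ?_ ?_ ?_ hγ hm hm1
    hβ hN1 hN hF ?_
  · intro b hb i
    refine (mtdot_le hM (fun k => D.GG_le hb k) i).trans ?_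
    rw [hKCe]
    have : L * CK K ≤ L ^ 3 * CK K := mul_le_mul_of_nonneg_right h13 hC0.le
    have h0 : 0 ≤ L ^ 3 * CK K := by positivity
    linarith
  · intro b hb i j
    refine (mtm_le hM (fun k l => D.HH_le hb k l) i j).trans ?_
    rw [hKCe]
    have : L ^ 2 * CK K ≤ L ^ 3 * CK K := mul_le_mul_of_nonneg_right h23 hC0.le
    have h0 : 0 ≤ L ^ 3 * CK K := by positivity
    linarith
  · intro b hb b' hb' r hr
    have h1 := D.t1 cP hb hb' (hrr b hb b' hb' r hr)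
    have e1 : ∑ j, (∑ k, M k j * GG q P y X b k) * (x b' j - x b j) =
        ∑ j, GG q P y X b j * (X b' j - X b j) := by
      simp only [hx b hb b' hb', Fin.sum_univ_three]; ring
    show |FF cP P y X b' - FF cP P y X b -
      ∑ j, (∑ k, M k j * GG q P y X b k) * (x b' j - x b j)| ≤ _
    rw [e1]
    refine h1.trans ?_
    have h2 : L ^ 2 * CK K * r ^ 2 ≤ L ^ 3 * CK K * r ^ 2 :=
      mul_le_mul_of_nonneg_right (mul_le_mul_of_nonneg_right h23 hC0.le) (sq_nonneg r)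
    have h3 : 1 * (CK K * (1 / (H:ℝ))) ≤ L ^ 3 * (CK K * (1 / H)) :=
      mul_le_mul_of_nonneg_right hL3 (by positivity)
    have h4 : 0 ≤ L ^ 3 * CK K * r ^ 2 := by positivity
    have h5 : 0 ≤ L ^ 3 * (CK K * (1 / (H:ℝ))) := by positivity
    rw [hKCe]
    have e2 : CK K * ((3 * (L * r)) ^ 2 + 1 / H) = 9 * (L ^ 2 * CK K * r ^ 2) +
        1 * (CK K * (1 / H)) := by ring
    have e3 : 27 * (L ^ 3 * CK K) * (r ^ 2 + 1 / H) = 27 * (L ^ 3 * CK K * r ^ 2) +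
        27 * (L ^ 3 * (CK K * (1 / H))) := by ring
    rw [e2, e3]
    linarith
  · intro b hb b' hb' r hr i
    have h1 := fun k => D.t2 hb hb' (hrr b hb b' hb' r hr) k
    have e1 : (∑ k, M k i * GG q P y X b' k) - (∑ k, M k i * GG q P y X b k) -
        ∑ j, (∑ k, ∑ l, M k i * M l j * HH q P y X b k l) * (x b' j - x b j) =
        ∑ k, M k i * (GG q P y X b' k - GG q P y X b k -
          ∑ j, HH q P y X b k j * (X b' j - X b j)) := by
      simp only [hx b hb b' hb', Fin.sum_univ_three]; ring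
    show |(∑ k, M k i * GG q P y X b' k) - (∑ k, M k i * GG q P y X b k) -
        ∑ j, (∑ k, ∑ l, M k i * M l j * HH q P y X b k l) * (x b' j - x b j)| ≤ _
    rw [e1]
    refine (mtdot_le hM h1 i).trans ?_
    have h3 : L * (CK K * (1 / (H:ℝ))) ≤ L ^ 3 * (CK K * (1 / H)) :=
      mul_le_mul_of_nonneg_right h13 (by positivity)
    have h5 : 0 ≤ L ^ 3 * (CK K * (1 / (H:ℝ))) := by positivity
    rw [hKCe]
    have e2 : 3 * (L * (CK K * ((3 * (L * r)) ^ 2 + 1 / H))) = 27 * (L ^ 3 * CK K * r ^ 2) +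
        3 * (L * (CK K * (1 / H))) := by ring
    have e3 : 27 * (L ^ 3 * CK K) * (r ^ 2 + 1 / H) = 27 * (L ^ 3 * CK K * r ^ 2) +
        27 * (L ^ 3 * (CK K * (1 / H))) := by ring
    rw [e2, e3]
    linarith
  · intro b hb b' hb' r hr i j
    have h1 := fun k l => D.t3 hb hb' (hrr b hb b' hb' r hr) k l
    have e1 : (∑ k, ∑ l, M k i * M l j * HH q P y X b' k l) -
        (∑ k, ∑ l, M k i * M l j * HH q P y X b k l) =
        ∑ k, ∑ l, M k i * M l j * (HH q P y X b' k l - HH q P y X b k l) := by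
      simp only [Fin.sum_univ_three]; ring
    show |(∑ k, ∑ l, M k i * M l j * HH q P y X b' k l) -
        (∑ k, ∑ l, M k i * M l j * HH q P y X b k l)| ≤ _
    rw [e1]
    refine (mtm_le hM h1 i j).trans ?_
    have h3 : L ^ 2 * (CK K * (1 / (H:ℝ))) ≤ L ^ 3 * (CK K * (1 / H)) :=
      mul_le_mul_of_nonneg_right h23 (by positivity)
    have h5 : 0 ≤ L ^ 3 * (CK K * (1 / (H:ℝ))) := by positivity
    rw [hKCe]
    have e2 : 9 * (L ^ 2 * (CK K * (3 * (L * r) + 1 / H))) = 27 * (L ^ 3 * CK K * r) +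
        9 * (L ^ 2 * (CK K * (1 / H))) := by ring
    have e3 : 27 * (L ^ 3 * CK K) * (r + 1 / H) = 27 * (L ^ 3 * CK K * r) +
        27 * (L ^ 3 * (CK K * (1 / H))) := by ring
    rw [e2, e3]
    linarith
  · exact hnd

end Crest.Agent.R136.Adp876
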