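import Crest.Agent.R136.Ndb_876
import Crest.Agent.R136.AlD_601

/-!
# R136 (U4, PLAN 2 (AL), leaf (D)): count of the nondegenerate boxes (helper876)

`cg` : chart around a line `T0` (frame `fr S.e S.w`, sheared and scaled, helper214's `cx`).
`jS_chart` : the jets of `AlD601` in terms of the jets of the chart.
`nd_count` : number of boxes of a sheet with a nondegenerate point of `q'`.
-/

set_option autoImplicit false
set_option linter.unusedVariables false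

namespace Crest.Agent.R136.Adp876

open Crest.Agent.R136.Rk601 Crest.Agent.R136.Sh605
open Crest.Agent.R136.Tl102 (cmb fr)
open Crest.Agent.R136.K4 (Plk4)
open Crest.Agent.R136.Gbx862 (zj gb lc)
open Crest.Agent.R136.AlD601

/-- chart around the line `T0` -/
def cg (f : Fin 3 → V3) (T0 : Ln4) (z0 ρ σ s1 s2 r : ℝ) (ζ y u v : ℝ) : V3 :=
  T0.pos (z0 + ρ * ζ) + cmb f ![σ * y - s1 * (r * u) - s2 * (r * v), r * u, r * v]

/-- relative velocity of `T0` in the frame -/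
noncomputable def gv (S : Plk4) (ρ : ℝ) (T0 : Ln4) (k : Fin 3) : ℝ :=
  ρ * dt (S.e k) (T0.v - S.c.v) / S.w k

/-- `α` of the change chart of `S` → chart around `T0` -/
noncomputable def cα (σ : ℝ) : ℝ := 1 / σ

/-- `β` -/
noncomputable def cβ (g : Fin 3 → ℝ) (σ s1 s2 : ℝ) : Fin 3 → ℝ :=
  ![-(g 0 + s1 * g 1 + s2 * g 2) / σ, s1 / σ, s2 / σ]

/-- base matrix -/
noncomputable def cN (g : Fin 3 → ℝ) (r : ℝ) : Fin 3 → Fin 3 → ℝ :=
  ![![1, 0, 0], ![-g 1 / r, 1 / r, 0], ![-g 2 / r, 0, 1 / r]]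

theorem vel_frame {S : Plk4} (hO : Ortho S.e) (hw : ∀ k, 0 < S.w k) (ρ : ℝ) (T0 : Ln4) :
    (fun i => ρ * (T0.v i - S.c.v i)) = cmb (fr S.e S.w) (gv S ρ T0) := by
  funext i
  have h := hO.expand (T0.v - S.c.v) i
  have h0 := (hw 0).ne'
  have h1 := (hw 1).ne'
  have h2 := (hw 2).ne'
  simp only [Pi.sub_apply] at h
  simp only [cmb, fr, gv, Pi.smul_apply, smul_eq_mul]
  rw [h]
  field_simp

/-- **change of the chart at a point** -/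
theorem cg_shift {S : Plk4} (hO : Ortho S.e) (hw : ∀ k, 0 < S.w k) {z0 ρ : ℝ} {T0 : Ln4}
    {σ s1 s2 r : ℝ} (hσ : σ ≠ 0) (hr : r ≠ 0) (ζ0 y0 u0 v0 y ζ u v : ℝ) :
    cg (fr S.e S.w) T0 z0 ρ σ s1 s2 r ζ0 y0 u0 v0 + (ρ * ζ) • S.c.v +
      cmb (fr S.e S.w) ![y, u, v] =
    cg (fr S.e S.w) T0 z0 ρ σ s1 s2 r (ζ0 + ∑ i, cN (gv S ρ T0) r 0 i * ![ζ, u, v] i)
      (y0 + (cα σ * y + ∑ i, cβ (gv S ρ T0) σ s1 s2 i * ![ζ, u, v] i))
      (u0 + ∑ i, cN (gv S ρ T0) r 1 i * ![ζ, u, v] i)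
      (v0 + ∑ i, cN (gv S ρ T0) r 2 i * ![ζ, u, v] i) := by
  have hv := vel_frame hO hw ρ T0
  funext i
  have hvi := congrFun hv i
  simp only [cmb] at hvi
  simp only [cg, cmb, Ln4.pos, Pi.add_apply, Pi.smul_apply, smul_eq_mul, Fin.sum_univ_three, cN,
    cβ, cα, Matrix.cons_val]
  have e : T0.v i = S.c.v i + (T0.v i - S.c.v i) := by ring
  have e2 : ρ * ζ * T0.v i = ρ * ζ * S.c.v i + ζ * (ρ * (T0.v i - S.c.v i)) := by ring
  have e3 : (z0 + ρ * (ζ0 + (1 * ζ + 0 * u + 0 * v))) * T0.v i =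
      (z0 + ρ * ζ0) * T0.v i + ρ * ζ * T0.v i := by ring
  rw [e3, e2, hvi]
  field_simp
  ring

theorem vec3 (a b c : ℝ) (x : Fin 3 → ℝ) (h0 : x 0 = a) (h1 : x 1 = b) (h2 : x 2 = c) :
    x = ![a, b, c] := by
  funext i; fin_cases i
  · exact h0
  · exact h1
  · exact h2

/-- **the jets in the chart of `S`** of a function which is quadratic in the chart `cg` -/
theorem jS_of {S : Plk4} (hO : Ortho S.e) (hw : ∀ k, 0 < S.w k) {z0 ρ : ℝ} {T0 : Ln4}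
    {σ s1 s2 r : ℝ} (hσ : σ ≠ 0) (hr : r ≠ 0) {q' : ℝ → V3 → ℝ} {c : ℝ} {J : Jt} (hs : J.Sym)
    (hq : ∀ ζ y u v, q' (z0 + ρ * ζ) (cg (fr S.e S.w) T0 z0 ρ σ s1 s2 r ζ y u v) =
      c + ev J y ![ζ, u, v]) {H j : ℕ} {T : Ln4} {y0 u0 v0 : ℝ}
    (pt : T.pos (zj z0 ρ H j) = cg (fr S.e S.w) T0 z0 ρ σ s1 s2 r ((j : ℝ) / H) y0 u0 v0) :
    jS S q' z0 ρ H j T =
      bc (cα σ) (cβ (gv S ρ T0) σ s1 s2) (cN (gv S ρ T0) r) (sh J y0 ![(j : ℝ) / H, u0, v0]) := by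
  have hs' : (sh J y0 ![(j : ℝ) / H, u0, v0]).Sym := hs
  refine jt_eq ?_ (bc_sym hs')
  intro y ζ u v
  have e0 : zj z0 ρ H j = z0 + ρ * ((j : ℝ) / H) := rfl
  have e1 : zj z0 ρ H j + ρ * ζ = z0 + ρ * ((j : ℝ) / H + ∑ i, cN (gv S ρ T0) r 0 i * ![ζ, u, v] i)
      := by
    simp only [cN, Fin.sum_univ_three, Matrix.cons_val, e0]; ring
  rw [pt, cg_shift hO hw hσ hr, e1, hq, e0, hq]
  have key := ev_add (J := J) hs y0
    (cα σ * y + ∑ i, cβ (gv S ρ T0) σ s1 s2 i * ![ζ, u, v] i) ![(j : ℝ) / H, u0, v0]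
    (fun k => ∑ i, cN (gv S ρ T0) r k i * ![ζ, u, v] i)
  have e2 : (fun i => (![(j : ℝ) / H, u0, v0] : Fin 3 → ℝ) i +
      ∑ i_1, cN (gv S ρ T0) r i i_1 * ![ζ, u, v] i_1) =
      ![(j : ℝ) / H + ∑ i, cN (gv S ρ T0) r 0 i * ![ζ, u, v] i,
        u0 + ∑ i, cN (gv S ρ T0) r 1 i * ![ζ, u, v] i,
        v0 + ∑ i, cN (gv S ρ T0) r 2 i * ![ζ, u, v] i] :=
    vec3 _ _ _ _ rfl rfl rfl
  rw [e2] at key
  rw [key, ← bc_ev, ev_eq (bc (cα σ) (cβ (gv S ρ T0) σ s1 s2) (cN (gv S ρ T0) r)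
    (sh J y0 ![(j : ℝ) / H, u0, v0]))]
  ring

theorem sh_sm (k : ℝ) (J : Jt) (y : ℝ) (x : Fin 3 → ℝ) : sh (sm k J) y x = sm k (sh J y x) := by
  simp only [sh, sm, Fin.sum_univ_three, Jt.mk.injEq, and_true]
  refine ⟨by ring, ?_⟩
  funext i; ring

theorem sh_addm (P : Jt) (k : ℝ) (q : Jt) (y : ℝ) (x : Fin 3 → ℝ) :
    sh (P.addm k q) y x = (sh P y x).addm k (sh q y x) := by
  simp only [sh, Jt.addm, Fin.sum_univ_three, Jt.mk.injEq, and_true]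
  refine ⟨by ring, ?_⟩
  funext i; ring

section

variable {S : Plk4} {q' : ℝ → V3 → ℝ} {z0 ρ : ℝ} {T0 : Ln4} {σ s1 s2 r k0 μ Λ cq cP : ℝ}
  {Jq JP : Jt}

/-- tangential gradient and Hessian of `AlD601` in the chart -/
theorem tg_th (hO : Ortho S.e) (hw : ∀ k, 0 < S.w k) (hσ : σ ≠ 0) (hr : r ≠ 0) (hk0 : k0 ≠ 0)
    (hq : ∀ ζ y u v, S.q (z0 + ρ * ζ) (cg (fr S.e S.w) T0 z0 ρ σ s1 s2 r ζ y u v) =
      k0 * (cq + ev Jq y ![ζ, u, v]))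
    (hP : ∀ ζ y u v, q' (z0 + ρ * ζ) (cg (fr S.e S.w) T0 z0 ρ σ s1 s2 r ζ y u v) -
      μ * S.q (z0 + ρ * ζ) (cg (fr S.e S.w) T0 z0 ρ σ s1 s2 r ζ y u v) =
      Λ * (cP + ev JP y ![ζ, u, v])) (sq : Jq.Sym) (sP : JP.Sym) {H j : ℕ} {T : Ln4}
    {y0 u0 v0 : ℝ}
    (pt : T.pos (zj z0 ρ H j) = cg (fr S.e S.w) T0 z0 ρ σ s1 s2 r ((j : ℝ) / H) y0 u0 v0)
    (h0 : (sh Jq y0 ![(j : ℝ) / H, u0, v0]).a0 ≠ 0) :
    (∀ i, tg (jS S S.q z0 ρ H j T) (jS S q' z0 ρ H j T) i = Λ * ∑ k, cN (gv S ρ T0) r k i *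
      tg (sh Jq y0 ![(j : ℝ) / H, u0, v0]) (sh JP y0 ![(j : ℝ) / H, u0, v0]) k) ∧
    ∀ i i', th (jS S S.q z0 ρ H j T) (jS S q' z0 ρ H j T) i i' =
      Λ * ∑ k, ∑ l, cN (gv S ρ T0) r k i * cN (gv S ρ T0) r l i' *
      th (sh Jq y0 ![(j : ℝ) / H, u0, v0]) (sh JP y0 ![(j : ℝ) / H, u0, v0]) k l := by
  have q1 : ∀ ζ y u v, S.q (z0 + ρ * ζ) (cg (fr S.e S.w) T0 z0 ρ σ s1 s2 r ζ y u v) =
      k0 * cq + ev (sm k0 Jq) y ![ζ, u, v] := fun ζ y u v => by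
    rw [hq, sm_ev]; ring
  have q2 : ∀ ζ y u v, q' (z0 + ρ * ζ) (cg (fr S.e S.w) T0 z0 ρ σ s1 s2 r ζ y u v) =
      (Λ * cP + μ * (k0 * cq)) + ev ((sm Λ JP).addm μ (sm k0 Jq)) y ![ζ, u, v] := fun ζ y u v => by
    have h1 := hP ζ y u v
    rw [hq] at h1
    rw [addm_ev, sm_ev, sm_ev]
    linarith
  have j1 := jS_of hO hw hσ hr (sm_sym (k := k0) sq) q1 pt
  have j2 := jS_of hO hw hσ hr (addm_sym (k := μ) (sm_sym (k := Λ) sP) (sm_sym (k := k0) sq)) q2 pt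
  rw [sh_sm] at j1
  rw [sh_addm, sh_sm, sh_sm] at j2
  set Q := sh Jq y0 ![(j : ℝ) / H, u0, v0] with hQ
  set P := sh JP y0 ![(j : ℝ) / H, u0, v0] with hPd
  have hα : cα σ ≠ 0 := by unfold cα; exact one_div_ne_zero hσ
  have h1 : (sm k0 Q).a0 ≠ 0 := mul_ne_zero hk0 h0
  rw [j1, j2]
  constructor
  · intro i
    rw [tg_bc hα h1, Finset.mul_sum]
    refine Finset.sum_congr rfl fun k _ => ?_
    rw [tg_addm h1, tg_sm hk0 h0]; ring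
  · intro i i'
    rw [th_bc hα h1, Finset.mul_sum]
    refine Finset.sum_congr rfl fun k _ => ?_
    rw [Finset.mul_sum]
    refine Finset.sum_congr rfl fun l _ => ?_
    rw [th_addm h1, th_sm hk0 h0]; ring

end

/-- lateral coordinates of a point of the chart -/
theorem lc_cg {S : Plk4} (hO : Ortho S.e) (hw : ∀ k, 0 < S.w k) {z0 ρ : ℝ} {T0 : Ln4}
    {σ s1 s2 r : ℝ} {H j : ℕ} {T : Ln4} {y0 u0 v0 : ℝ}
    (pt : T.pos (zj z0 ρ H j) = cg (fr S.e S.w) T0 z0 ρ σ s1 s2 r ((j : ℝ) / H) y0 u0 v0) :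
    lc S.e S.c 1 T (zj z0 ρ H j) =
      lc S.e S.c 1 T0 z0 + S.w 1 * (gv S ρ T0 1 * ((j : ℝ) / H) + r * u0) ∧
    lc S.e S.c 2 T (zj z0 ρ H j) =
      lc S.e S.c 2 T0 z0 + S.w 2 * (gv S ρ T0 2 * ((j : ℝ) / H) + r * v0) := by
  have hd := fun k => Tl102.dt_cmb_fr hO S.w
    ![σ * y0 - s1 * (r * u0) - s2 * (r * v0), r * u0, r * v0] k
  have hd1 := hd 1
  have hd2 := hd 2
  simp only [Matrix.cons_val] at hd1 hd2
  have h1 := (hw 1).ne'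
  have h2 := (hw 2).ne'
  have e : ∀ k, lc S.e S.c k T (zj z0 ρ H j) = lc S.e S.c k T0 z0 +
      ρ * ((j : ℝ) / H) * dt (S.e k) (T0.v - S.c.v) + dt (S.e k) (cmb (fr S.e S.w)
        ![σ * y0 - s1 * (r * u0) - s2 * (r * v0), r * u0, r * v0]) := fun k => by
    unfold lc
    rw [pt]
    simp only [cg, dt, Ln4.pos, Pi.add_apply, Pi.sub_apply, zj]
    ring
  constructor
  · rw [e 1, hd1]
    unfold gv; field_simp; ring
  · rw [e 2, hd2]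
    unfold gv; field_simp; ring

section

variable {S : Plk4} {q' : ℝ → V3 → ℝ} {z0 ρ : ℝ} {T0 : Ln4} {σ s1 s2 r k0 μ Λ cq cP : ℝ}
  {Jq JP : Jt}

/-- ratios of the label coordinates and the chart coordinates of `S` -/
noncomputable def dD (S : Plk4) (w1 w2 : ℝ) : Fin 3 → ℝ := ![1, S.w 1 / w1, S.w 2 / w2]

/-- matrix label coordinates → chart coordinates -/
noncomputable def cM (S : Plk4) (ρ : ℝ) (T0 : Ln4) (r w1 w2 : ℝ) (k j : Fin 3) : ℝ :=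
  cN (gv S ρ T0) r k j / dD S w1 w2 j

/-- **count of the boxes of the sheet `S` at which `q'` is nondegenerate** (raw form: the chart is an
input) -/
theorem nd_count {K W w1 w2 l m β : ℝ} {H N : ℕ} (hO : Ortho S.e) (hw : ∀ k, 0 < S.w k)
    (hσ : σ ≠ 0) (hr : 0 < r) (hrW : 1 / r ≤ W) (hW : 1 ≤ W) (hk0 : k0 ≠ 0) (hΛ : 0 < Λ)
    (hH : 1 ≤ H) (hw1 : 0 < w1) (hw2 : 0 < w2) (d1 : S.w 1 ≤ W * w1 ∧ w1 ≤ W * S.w 1)
    (d2 : S.w 2 ≤ W * w2 ∧ w2 ≤ W * S.w 2) (hg1 : |gv S ρ T0 1| ≤ W) (hg2 : |gv S ρ T0 2| ≤ W)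
    (hq : ∀ ζ y u v, S.q (z0 + ρ * ζ) (cg (fr S.e S.w) T0 z0 ρ σ s1 s2 r ζ y u v) =
      k0 * (cq + ev Jq y ![ζ, u, v]))
    (hP : ∀ ζ y u v, q' (z0 + ρ * ζ) (cg (fr S.e S.w) T0 z0 ρ σ s1 s2 r ζ y u v) -
      μ * S.q (z0 + ρ * ζ) (cg (fr S.e S.w) T0 z0 ρ σ s1 s2 r ζ y u v) =
      Λ * (cP + ev JP y ![ζ, u, v]))
    (hK : 1 ≤ K) (bq : Bd Jq K) (bP : Bd JP K)
    (st : ∀ (y : ℝ) (x : Fin 3 → ℝ), |y| ≤ 1 → (∀ i, |x i| ≤ 1) → 0 ≤ x 0 →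
      1 / K ≤ |(sh Jq y x).a0|)
    (T : Finset ((ℤ × ℤ) × ℕ)) (Tb : (ℤ × ℤ) × ℕ → Ln4) (yb ub vb : (ℤ × ℤ) × ℕ → ℝ)
    (hj : ∀ b ∈ T, b.2 ≤ H)
    (pt : ∀ b ∈ T, (Tb b).pos (zj z0 ρ H b.2) =
      cg (fr S.e S.w) T0 z0 ρ σ s1 s2 r ((b.2 : ℝ) / H) (yb b) (ub b) (vb b))
    (p1 : ∀ b ∈ T, |yb b| ≤ 1 ∧ |ub b| ≤ 1 ∧ |vb b| ≤ 1)
    (on : ∀ b ∈ T, |S.q (zj z0 ρ H b.2) ((Tb b).pos (zj z0 ρ H b.2))| ≤ |k0| * (K * (1 / H)))
    (onP : ∀ b ∈ T, |q' (zj z0 ρ H b.2) ((Tb b).pos (zj z0 ρ H b.2)) -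
      μ * S.q (zj z0 ρ H b.2) ((Tb b).pos (zj z0 ρ H b.2))| ≤ Λ * β)
    (lab : ∀ b ∈ T, gb S.e S.c w1 w2 z0 ρ H (Tb b) b.2 = b.1)
    (box : ∀ b ∈ T, ∀ k, |lc S.e S.c k (Tb b) (zj z0 ρ H b.2)| ≤ S.w k)
    (hl : 0 < l) (hm : 0 < m) (hm1 : m ≤ 1) (hβ : 1 / (H : ℝ) ≤ β) (hN1 : 1 ≤ N)
    (hN : 5000 * (KC K (W ^ 3) * W ^ 3) ≤ 2 ^ N * √β)
    (nd : ∀ b ∈ T, Nd S q' z0 ρ H b.2 (Tb b) l m Λ) :
    (T.card : ℝ) ≤ 10 ^ 52 * N * (KC K (W ^ 3)) ^ 10 * W ^ 33 *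
      (1 / (l / W) ^ 2 + 1 / (m / W ^ 4) ^ 5) * β * (H : ℝ) ^ 3 := by
  have hW0 : (0:ℝ) < W := by linarith
  have hHr : (0:ℝ) < H := by exact_mod_cast hH
  have hH1 : (1:ℝ) ≤ H := by exact_mod_cast hH
  have hS1 := hw 1
  have hS2 := hw 2
  have hW2 : W ≤ W ^ 2 := le_self_pow₀ hW (by norm_num)
  have hW3 : W ≤ W ^ 3 := le_self_pow₀ hW (by norm_num)
  have hW13 : (1:ℝ) ≤ W ^ 3 := one_le_pow₀ hW
  have hW12 : (1:ℝ) ≤ W ^ 2 := one_le_pow₀ hW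
  have hW23 : W ^ 2 ≤ W ^ 3 := pow_le_pow_right₀ hW (by norm_num)
  set X : (ℤ × ℤ) × ℕ → Fin 3 → ℝ := fun b => ![(b.2 : ℝ) / H, ub b, vb b] with hX
  set x : (ℤ × ℤ) × ℕ → Fin 3 → ℝ := fun b => ![(b.2 : ℝ) / H,
    lc S.e S.c 1 (Tb b) (zj z0 ρ H b.2) / w1, lc S.e S.c 2 (Tb b) (zj z0 ρ H b.2) / w2] with hx
  have hζ : ∀ b ∈ T, 0 ≤ (b.2 : ℝ) / H ∧ (b.2 : ℝ) / H ≤ 1 := fun b hb => by
    refine ⟨by positivity, ?_⟩
    rw [div_le_one hHr]; exact_mod_cast hj b hb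
  -- the diagonal
  have hD : ∀ j, 0 < dD S w1 w2 j ∧ dD S w1 w2 j ≤ W ∧ 1 / dD S w1 w2 j ≤ W := by
    intro j
    fin_cases j
    · refine ⟨by simp [dD], by simpa [dD] using hW, by simpa [dD] using hW⟩
    · show 0 < S.w 1 / w1 ∧ S.w 1 / w1 ≤ W ∧ 1 / (S.w 1 / w1) ≤ W
      refine ⟨by positivity, ?_, ?_⟩
      · rw [div_le_iff₀ hw1]; exact d1.1
      · rw [one_div_div, div_le_iff₀ hS1]; exact d1.2
    · show 0 < S.w 2 / w2 ∧ S.w 2 / w2 ≤ W ∧ 1 / (S.w 2 / w2) ≤ W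
      refine ⟨by positivity, ?_, ?_⟩
      · rw [div_le_iff₀ hw2]; exact d2.1
      · rw [one_div_div, div_le_iff₀ hS2]; exact d2.2
  have hNle : ∀ k j, |cN (gv S ρ T0) r k j| ≤ W ^ 2 := by
    have h1 : |1 / r| ≤ W ^ 2 := by
      rw [abs_of_pos (by positivity)]; linarith
    have h0 : |(0:ℝ)| ≤ W ^ 2 := by rw [abs_zero]; positivity
    have h11 : |(1:ℝ)| ≤ W ^ 2 := by rw [abs_one]; exact hW12
    have hgr : ∀ g : ℝ, |g| ≤ W → |-g / r| ≤ W ^ 2 := fun g hg => by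
      rw [abs_div, abs_neg, abs_of_pos hr, div_eq_mul_one_div, sq]
      exact mul_le_mul hg hrW (by positivity) hW0.le
    intro k j
    fin_cases k <;> fin_cases j
    · exact h11
    · exact h0
    · exact h0
    · exact hgr _ hg1
    · exact h1
    · exact h0
    · exact hgr _ hg2
    · exact h0
    · exact h1
  have hM : ∀ k j, |cM S ρ T0 r w1 w2 k j| ≤ W ^ 3 := by
    intro k j
    obtain ⟨a1, a2, a3⟩ := hD j
    unfold cM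
    rw [abs_div, abs_of_pos a1, div_eq_mul_one_div]
    calc |cN (gv S ρ T0) r k j| * (1 / dD S w1 w2 j) ≤ W ^ 2 * W :=
          mul_le_mul (hNle k j) a3 (by positivity) (by positivity)
      _ = W ^ 3 := by ring
  have DT : Data (T : Set ((ℤ × ℤ) × ℕ)) cq Jq JP yb X K (1 / H) :=
    { K1 := hK
      α0 := by positivity
      α1 := by rw [div_le_one hHr]; exact hH1
      bq := bq
      bP := bP
      st := st
      y1 := fun b hb => (p1 b hb).1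
      X1 := by
        intro b hb i
        fin_cases i
        · show |(b.2 : ℝ) / H| ≤ 1
          rw [abs_of_nonneg (hζ b hb).1]; exact (hζ b hb).2
        · exact (p1 b hb).2.1
        · exact (p1 b hb).2.2
      X0 := fun b hb => (hζ b hb).1
      on := by
        intro b hb
        have h1 := on b hb
        rw [pt b hb] at h1
        have e0 : zj z0 ρ H b.2 = z0 + ρ * ((b.2 : ℝ) / H) := rfl
        rw [e0, hq, abs_mul] at h1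
        exact le_of_mul_le_mul_left h1 (abs_pos.2 hk0) }
  have hxX : ∀ b ∈ T, ∀ b' ∈ T, ∀ k, X b' k - X b k =
      ∑ j, cM S ρ T0 r w1 w2 k j * (x b' j - x b j) := by
    intro b hb b' hb' k
    obtain ⟨e1, e2⟩ := lc_cg hO hw (pt b hb)
    obtain ⟨f1, f2⟩ := lc_cg hO hw (pt b' hb')
    rw [Fin.sum_univ_three]
    fin_cases k
    · show (b'.2 : ℝ) / H - (b.2 : ℝ) / H = 1 / 1 * ((b'.2 : ℝ) / H - (b.2 : ℝ) / H) +
        0 / (S.w 1 / w1) * _ + 0 / (S.w 2 / w2) * _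
      ring
    · show ub b' - ub b = (-gv S ρ T0 1 / r) / 1 * ((b'.2 : ℝ) / H - (b.2 : ℝ) / H) +
        (1 / r) / (S.w 1 / w1) * (lc S.e S.c 1 (Tb b') (zj z0 ρ H b'.2) / w1 -
          lc S.e S.c 1 (Tb b) (zj z0 ρ H b.2) / w1) + 0 / (S.w 2 / w2) * _
      rw [e1, f1]
      field_simp
      ring
    · show vb b' - vb b = (-gv S ρ T0 2 / r) / 1 * ((b'.2 : ℝ) / H - (b.2 : ℝ) / H) +
        0 / (S.w 1 / w1) * _ + (1 / r) / (S.w 2 / w2) *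
          (lc S.e S.c 2 (Tb b') (zj z0 ρ H b'.2) / w2 -
          lc S.e S.c 2 (Tb b) (zj z0 ρ H b.2) / w2)
      rw [e2, f2]
      field_simp
      ring
  have hl' : 0 < l / W := by positivity
  have hm' : 0 < m / W ^ 4 := by positivity
  have hm1' : m / W ^ 4 ≤ 1 := by
    rw [div_le_one (by positivity)]
    exact hm1.trans (one_le_pow₀ hW)
  refine count_chg (cP := cP) hH DT (M := cM S ρ T0 r w1 w2) hW13 hM hW x hxX ?_ ?_ ?_ ?_ hl' hm'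
    hm1' hβ hN1 hN ?_ ?_
  · intro b hb; rfl
  · intro b hb
    have h1 := lab b hb
    unfold gb at h1
    have h2 := congrArg Prod.fst h1
    simp only at h2
    show ⌊(H : ℝ) * (lc S.e S.c 1 (Tb b) (zj z0 ρ H b.2) / w1)⌋ = b.1.1
    rw [← mul_div_assoc]; exact h2
  · intro b hb
    have h1 := lab b hb
    unfold gb at h1
    have h2 := congrArg Prod.snd h1
    simp only at h2
    show ⌊(H : ℝ) * (lc S.e S.c 2 (Tb b) (zj z0 ρ H b.2) / w2)⌋ = b.1.2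
    rw [← mul_div_assoc]; exact h2
  · intro b hb i
    fin_cases i
    · show |(b.2 : ℝ) / H| ≤ W
      rw [abs_of_nonneg (hζ b hb).1]; exact (hζ b hb).2.trans hW
    · show |lc S.e S.c 1 (Tb b) (zj z0 ρ H b.2) / w1| ≤ W
      rw [abs_div, abs_of_pos hw1, div_le_iff₀ hw1]
      exact (box b hb 1).trans d1.1
    · show |lc S.e S.c 2 (Tb b) (zj z0 ρ H b.2) / w2| ≤ W
      rw [abs_div, abs_of_pos hw2, div_le_iff₀ hw2]
      exact (box b hb 2).trans d2.1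
  · intro b hb
    have h1 := onP b hb
    rw [pt b hb] at h1
    have e0 : zj z0 ρ H b.2 = z0 + ρ * ((b.2 : ℝ) / H) := rfl
    rw [e0, hP, abs_mul, abs_of_pos hΛ] at h1
    exact le_of_mul_le_mul_left h1 hΛ
  · intro b hb
    have hXv : X b = ![(b.2 : ℝ) / H, ub b, vb b] := rfl
    have h0 : (sh Jq (yb b) ![(b.2 : ℝ) / H, ub b, vb b]).a0 ≠ 0 := by
      have h1 := DT.st5 hb
      rw [hXv] at h1
      have h2 : 0 < |(sh Jq (yb b) ![(b.2 : ℝ) / H, ub b, vb b]).a0| :=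
        lt_of_lt_of_le (by positivity) h1
      exact abs_pos.1 h2
    obtain ⟨g1, g2⟩ := tg_th hO hw hσ hr.ne' hk0 hq hP bq.s bP.s (pt b hb) h0
    have eG : ∀ i, ∑ k, cM S ρ T0 r w1 w2 k i * GG Jq JP yb X b k =
        tg (jS S S.q z0 ρ H b.2 (Tb b)) (jS S q' z0 ρ H b.2 (Tb b)) i / (Λ * dD S w1 w2 i) := by
      intro i
      have hd := (hD i).1.ne'
      rw [g1 i]
      unfold GG cM
      rw [hXv]
      simp only [Fin.sum_univ_three]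
      field_simp
    have eH : ∀ i i', ∑ k, ∑ l, cM S ρ T0 r w1 w2 k i * cM S ρ T0 r w1 w2 l i' *
        HH Jq JP yb X b k l =
        th (jS S S.q z0 ρ H b.2 (Tb b)) (jS S q' z0 ρ H b.2 (Tb b)) i i' /
          (Λ * (dD S w1 w2 i * dD S w1 w2 i')) := by
      intro i i'
      have hd := (hD i).1.ne'
      have hd' := (hD i').1.ne'
      rw [g2 i i']
      unfold HH cM
      rw [hXv]
      simp only [Fin.sum_univ_three]
      field_simp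
    rcases nd b hb with ⟨i, hi⟩ | ⟨i, j, k, k', hi⟩
    · left
      refine ⟨i, ?_⟩
      rw [eG i]
      obtain ⟨a1, a2, a3⟩ := hD i
      rw [abs_div, abs_of_pos (mul_pos hΛ a1), le_div_iff₀ (mul_pos hΛ a1)]
      have e1 : l / W * (Λ * dD S w1 w2 i) ≤ l / W * (Λ * W) :=
        mul_le_mul_of_nonneg_left (mul_le_mul_of_nonneg_left a2 hΛ.le) hl'.le
      have e2 : l / W * (Λ * W) = l * Λ := by field_simp
      linarith
    · right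
      refine ⟨i, j, k, k', ?_⟩
      have hdi := hD i
      have hdj := hD j
      have hdk := hD k
      have hdk' := hD k'
      have e3 : mn (fun i j => ∑ k, ∑ l, cM S ρ T0 r w1 w2 k i * cM S ρ T0 r w1 w2 l j *
          HH Jq JP yb X b k l) i j k k' =
          mn (th (jS S S.q z0 ρ H b.2 (Tb b)) (jS S q' z0 ρ H b.2 (Tb b))) i j k k' /
            (Λ ^ 2 * ((dD S w1 w2 i * dD S w1 w2 j) * (dD S w1 w2 k * dD S w1 w2 k'))) := by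
        unfold mn
        simp only [eH]
        have n1 := hdi.1.ne'
        have n2 := hdj.1.ne'
        have n3 := hdk.1.ne'
        have n4 := hdk'.1.ne'
        field_simp
      rw [e3]
      have hp : 0 < (dD S w1 w2 i * dD S w1 w2 j) * (dD S w1 w2 k * dD S w1 w2 k') :=
        mul_pos (mul_pos hdi.1 hdj.1) (mul_pos hdk.1 hdk'.1)
      have hp2 : 0 < Λ ^ 2 * ((dD S w1 w2 i * dD S w1 w2 j) * (dD S w1 w2 k * dD S w1 w2 k')) :=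
        by positivity
      rw [abs_div, abs_of_pos hp2, le_div_iff₀ hp2]
      have hle : (dD S w1 w2 i * dD S w1 w2 j) * (dD S w1 w2 k * dD S w1 w2 k') ≤ (W * W) * (W * W) :=
        mul_le_mul (mul_le_mul hdi.2.1 hdj.2.1 hdj.1.le hW0.le)
          (mul_le_mul hdk.2.1 hdk'.2.1 hdk'.1.le hW0.le) (mul_pos hdk.1 hdk'.1).le
          (by positivity)
      have e1 : m / W ^ 4 * (Λ ^ 2 * ((dD S w1 w2 i * dD S w1 w2 j) *
          (dD S w1 w2 k * dD S w1 w2 k'))) ≤ m / W ^ 4 * (Λ ^ 2 * ((W * W) * (W * W))) :=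
        mul_le_mul_of_nonneg_left (mul_le_mul_of_nonneg_left hle (by positivity)) hm'.le
      have e2 : m / W ^ 4 * (Λ ^ 2 * ((W * W) * (W * W))) = m * Λ ^ 2 := by field_simp
      linarith

end

end Crest.Agent.R136.Adp876
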