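import Crest.Agent.R136.Ndj2_335
import Crest.Agent.R136.Tlt0_51

/-!
# R136 / U5: non-degeneracy (3.0) for `J1c`, `J1` (helper335)

`nonDeg_J1c` : every level `v ∈ [0, 1]`, no relation between `g` and `q 1`; used: `mka`, `alld`
(`v < 1`), `sub7` (`v = 1`), `wrs`, `r0pos`, `0 ≤ q 0`, `0 < q 2 ≤ q 1`.
`nonDeg : Tlt51.NonDeg kapP DetP`.
-/

set_option autoImplicit false
set_option linter.unusedVariables false

open Finset Filter Topology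

namespace Crest.Agent.R136.Ndc335

open Crest.Agent.R138.Ex926 (Base U)
open Crest.Agent.R138.Mk163 (zc zl rho alive own Negl)
open Crest.Agent.R138.ArgM163 (ev_const_mul ev_const)
open Crest.Agent.R136.MkA627 Crest.Agent.R136.Dia770
open Crest.Agent.R136.Sh605 Crest.Agent.R136.K4 Crest.Agent.R136.KapP335 Crest.Agent.R136.Top484
open Crest.Agent.R136.Tlt51 (mk4 zx rh)

theorem geoS_geo4 (L : ℕ → ℕ → Ln4) (r0 : ℕ → ℝ) (wr cr : Fin 3 → ℕ → ℝ) (q : Fin 3 → ℝ) :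
    GeoS (geo4 L r0 wr cr q) L r0 q wr cr where
  mem := fun n i J s t => Iff.rfl
  adm := fun n i J s h => ⟨h.1, h.2.1⟩
  adm' := fun n i J s h1 h2 h3 => ⟨h1, h2, h3⟩
  val := fun n i J s => rfl
  wid := fun k s => rfl

theorem geo4_val_nonneg {L : ℕ → ℕ → Ln4} {r0 : ℕ → ℝ} {wr cr : Fin 3 → ℕ → ℝ} {q : Fin 3 → ℝ}
    (hr0 : ∀ n, 0 < r0 n) (n i : ℕ) (j : ℤ) (s : Plk4) (h : (geo4 L r0 wr cr q).adm n i j s) :
    0 ≤ (geo4 L r0 wr cr q).val n i j s := by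
  have hS := h.1
  have ha : 0 < s.a := (hr0 n).trans_le hS.r0_le
  have h0 : 0 < s.w 0 := ha.trans_le hS.a_le0
  have h2 : 0 < s.w 2 := h0.trans_le hS.w0_le
  have h1 : 0 < s.w 1 := h2.trans_le hS.w_le
  have hρ := rho_pos i
  show 0 ≤ s.a * s.w 2 * s.w 1 *
    ((s.a / rho i) ^ q 0 * (s.w 1 / rho i) ^ q 1 * (s.w 2 / rho i) ^ q 2)
  positivity

/-- (3.0) for the data: only `mka`, `wrs`, `r0pos`, the signs of the rewards, `q 2 ≤ q 1` and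
D-max on sub-cells (`SubD`) are used -/
theorem nonDeg_dat {p : Par4} {D : Dat4} {τ : Fin 3 → ℝ → ℝ}
    (hM : MkA D.B D.I (D.G p) D.lev D.A (fun v => p.g * v) (fun v => 0 * v) τ D.f D.b D.vm D.w)
    (hq0 : 0 ≤ p.q 0) (hq2 : 0 < p.q 2) (hq21 : p.q 2 ≤ p.q 1) (hr0 : ∀ n, 0 < D.r0 n)
    (hR : Rng D.B D.wr D.cr D.w) {v : ℚ} (hv0 : 0 ≤ v) (hv1 : v ≤ 1)
    (hd : (∀ᶠ n in (U : Filter ℕ), D.r0 n ≤ rho (D.lev n v + 7)) →
      SubD D.B D.I (D.G p) D.lev D.A p.g v 7) {ε : ℝ} (hε : 0 < ε) :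
    Negl D.B D.I fun n x =>
      D.B.d n ^ (-ε) * (mk4 D n v x).a < kapP (mk4 D n v x) (zx D n v x) (rh D n v) (D.L n x.1) ∧
        ¬ DetP (D.B.d n ^ ε) (mk4 D n v x) (zx D n v x) (rh D n v) (D.L n x.1) := by
  refine nonDeg_of2 hM (geoS_geo4 D.L D.r0 D.wr D.cr p.q) hq0 hq2 hq21 hr0 hv0 hv1 hd ?_ ?_
    (fun C k _ => ?_) (fun k _ => ?_) hε
  · filter_upwards [hR 0 0 v hv0 hv1] with n hn
    have := hn.1
    rwa [Real.rpow_zero, one_mul] at this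
  · filter_upwards [hR 1 0 v hv0 hv1, ev_const_mul D.B (C := 3) (by norm_num)
      (show (0:ℝ) < 1 by norm_num), hM.wpos 0 v hv0 hv1] with n hn hn' hn''
    have h1 : D.w 0 n v ≤ D.B.d n ^ (1:ℝ) * D.cr 0 n := hn.2
    have h0 : 0 < D.w 0 n v := hn''
    have h2 := D.B.pos n
    rw [Real.rpow_one] at h1 hn'
    have h3 : 0 < D.cr 0 n := by
      by_contra hc
      push Not at hc
      exact lt_irrefl _ (h0.trans_le (h1.trans (mul_nonpos_of_nonneg_of_nonpos h2.le hc)))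
    calc 3 * D.w 0 n v ≤ 3 * (D.B.d n * D.cr 0 n) := mul_le_mul_of_nonneg_left h1 (by norm_num)
      _ = (3 * D.B.d n) * D.cr 0 n := by ring
      _ ≤ 1 * D.cr 0 n := mul_le_mul_of_nonneg_right hn' h3.le
      _ = _ := one_mul _
  · filter_upwards [hR C k v hv0 hv1] with n hn using hn.1
  · filter_upwards [hR 0 k v hv0 hv1] with n hn
    have := hn.2
    rwa [Real.rpow_zero, one_mul] at this

/-- **(3.0)** for the core of `J1` -/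
theorem nonDeg_J1c {η : ℝ} {p : Par4} {D : Dat4} (hJ : J1c η p D) (hq21 : p.q 2 ≤ p.q 1) {v : ℚ}
    (hv0 : 0 ≤ v) (hv1 : v ≤ 1) {ε : ℝ} (hε : 0 < ε) :
    Negl D.B D.I fun n x =>
      D.B.d n ^ (-ε) * (mk4 D n v x).a < kapP (mk4 D n v x) (zx D n v x) (rh D n v) (D.L n x.1) ∧
        ¬ DetP (D.B.d n ^ ε) (mk4 D n v x) (zx D n v x) (rh D n v) (D.L n x.1) := by
  refine nonDeg_dat hJ.mka hJ.q0.1 hJ.q2.1 hq21 hJ.r0pos hJ.wrs hv0 hv1 (fun _ => ?_) hε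
  rcases hv1.lt_or_eq with h1 | h1
  · exact subD_of_allD hJ.alld hJ.mka.Apos (geo4_val_nonneg hJ.r0pos) hJ.mka.lev_mono
      hJ.mka.lev_lim hv0 h1 7
  · subst h1
    exact hJ.sub7

/-- **(3.0)** for the core of `J1`, any `η ≤ 1` -/
theorem nonDeg_core {η : ℝ} (hη : η ≤ 1) {p : Par4} {D : Dat4} (hJ : J1c η p D) {v : ℚ}
    (hv0 : 0 ≤ v) (hv1 : v ≤ 1) {ε : ℝ} (hε : 0 < ε) :
    Negl D.B D.I fun n x =>
      D.B.d n ^ (-ε) * (mk4 D n v x).a < kapP (mk4 D n v x) (zx D n v x) (rh D n v) (D.L n x.1) ∧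
        ¬ DetP (D.B.d n ^ ε) (mk4 D n v x) (zx D n v x) (rh D n v) (D.L n x.1) :=
  nonDeg_J1c hJ (by
    have h1 := hJ.q21
    have h2 := hJ.g0.2
    have h3 : η * p.q 1 ≤ 1 * p.q 1 := mul_le_mul_of_nonneg_right hη h2.le
    linarith) hv0 hv1 hε

/-- **(3.0)**, the literal of `Tlt0_51` -/
theorem nonDeg : Tlt51.NonDeg kapP DetP :=
  ⟨1, one_pos, fun _ _ hJ _ hv0 hv1 _ hε => nonDeg_core le_rfl hJ.toJ1c hv0 hv1 hε⟩

end Crest.Agent.R136.Ndc335
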