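import Crest.Agent.R136.Mxh_615
import Crest.Agent.R136.Pl2C_860
import Crest.Agent.R136.Hcp2_208

/-!
# R136 (S0187), PLAN 2 (AL), mixed curvatures: `Nd` at every common point (helper28)

`nd_pt` : helper615's `caseA_Nd` in the letters of `NdMx` (every exponent `C ≥ 200`).
-/

set_option autoImplicit false
set_option linter.unusedVariables false

namespace Crest.Agent.R136.Ndp28

open Crest.Agent.R136.Sh605
open Crest.Agent.R136.K4 (Plk4)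
open Crest.Agent.R136.Tlt51 (Shp InP)
open Crest.Agent.R136.KapP335 (kapP DetP)
open Crest.Agent.R136.Pl2W102 (Near)
open Crest.Agent.R136.Tl102 (angC)
open Crest.Agent.R136.Pl2 (kp Al1)
open Crest.Agent.R136.Hcp208 (Dims)
open Crest.Agent.R136.AlD601 (Nd)
open Crest.Agent.R136.Mxc615 (caseA_Nd)

theorem num1 {W C : ℝ} (hW : 1 ≤ W) (hC : 200 ≤ C) : 10 ^ 30 * W ^ 40 ≤ (2 * W) ^ C := by
  have b1 : (1:ℝ) ≤ 2 * W := by linarith
  have h1 : (2 * W) ^ (200 : ℝ) ≤ (2 * W) ^ C := Real.rpow_le_rpow_of_exponent_le b1 hC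
  have h2 : (2 * W) ^ (200 : ℝ) = (2 * W) ^ 200 := by exact_mod_cast Real.rpow_natCast (2 * W) 200
  rw [h2] at h1
  refine le_trans ?_ h1
  rw [mul_pow]
  have h3 : W ^ 40 ≤ W ^ 200 := pow_le_pow_right₀ hW (by norm_num)
  have h4 : (10:ℝ) ^ 30 ≤ 2 ^ 200 := by norm_num
  exact mul_le_mul h4 h3 (by positivity) (by positivity)

set_option maxHeartbeats 2000000 in
/-- **`Nd` at every common point of a mixed pair** -/
theorem nd_pt {U V : Plk4} {T : Ln4} {W Y a w1 w2 z0 ρ r C : ℝ} {H j : ℕ} (W1 : 1 ≤ W)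
    (r0 : 0 < r) (ρ0 : 0 < ρ) (a0 : 0 < a) (hU : Shp U z0 ρ r) (hV : Shp V z0 ρ r)
    (tU : InP T U z0 ρ) (tV : InP T V z0 ρ) (dU : Dims W a w1 w2 U) (dV : Dims W a w1 w2 V)
    (ang : angC U V * w1 ≤ W * w2) (det : DetP W⁻¹ U z0 ρ T) (nr : Near 4 Y (kp U z0 ρ T))
    (hC : 200 ≤ C) (fl : (2 * W) ^ C * kp V z0 ρ T ≤ Y) (ba : (2 * W) ^ C * a ≤ Y) (hH : 1 ≤ H)
    (hj : j ≤ H) : Nd V U.q z0 ρ H j T ((2 * W) ^ (-C)) ((2 * W) ^ (-C)) Y := by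
  have W0 : 0 < W := by linarith
  have b0 : (0:ℝ) < 2 * W := by linarith
  have pC : 0 < (2 * W) ^ C := Real.rpow_pos_of_pos b0 _
  have hY0 : 0 < Y := (mul_pos pC a0).trans_le ba
  have hN := num1 W1 hC
  have eC : (2 * W) ^ (-C) = ((2 * W) ^ C)⁻¹ := Real.rpow_neg b0.le C
  set B := (2 * W) ^ C with hB
  obtain ⟨⟨uA, uA'⟩, ⟨u1, u1'⟩, ⟨u2, u2'⟩⟩ := dU
  obtain ⟨⟨vA, vA'⟩, ⟨v1, v1'⟩, ⟨v2, v2'⟩⟩ := dV
  obtain ⟨y1, y2⟩ := nr
  have hUa : 0 < U.a := r0.trans_le hU.r0_le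
  have hVa : 0 < V.a := r0.trans_le hV.r0_le
  have hUw0 : 0 < U.w 0 := hUa.trans_le hU.a_le0
  have hVw0 : 0 < V.w 0 := hVa.trans_le hV.a_le0
  have hUw2 : 0 < U.w 2 := hUw0.trans_le hU.w0_le
  have hVw2 : 0 < V.w 2 := hVw0.trans_le hV.w0_le
  have hUw1 : 0 < U.w 1 := hUw2.trans_le hU.w_le
  have hVw1 : 0 < V.w 1 := hVw2.trans_le hV.w_le
  have hw1 : 0 < w1 := by
    by_contra hc
    push Not at hc
    nlinarith
  have hw2 : 0 < w2 := by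
    by_contra hc
    push Not at hc
    nlinarith
  have W2 : 1 ≤ W ^ 2 := one_le_pow₀ W1
  have W3 : 1 ≤ W ^ 3 := one_le_pow₀ W1
  have W23 : W ^ 2 ≤ W ^ 3 := pow_le_pow_right₀ W1 (by norm_num)
  have W13 : W ≤ W ^ 3 := le_self_pow₀ W1 (by norm_num)
  have kap0 : 0 ≤ kp V z0 ρ T := mul_nonneg hVw0.le (Tl102.kap_nonneg _ _ _)
  have hang : |dt (U.e 2) (V.e 1)| ≤ angC U V :=
    (le_max_right _ _).trans (le_max_right _ _)
  have q1 : ∀ x y z : ℝ, 0 < z → x ≤ W * y → y ≤ W * z → x ≤ W ^ 3 * z := by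
    intro x y z hz h1 h2
    have h3 : x ≤ W * (W * z) := h1.trans (mul_le_mul_of_nonneg_left h2 W0.le)
    have h4 : W * (W * z) = W ^ 2 * z := by ring
    rw [h4] at h3
    exact h3.trans (mul_le_mul_of_nonneg_right W23 hz.le)
  have kU : Y / 4 ≤ kapP U z0 ρ T := by
    have : kp U z0 ρ T = kapP U z0 ρ T := rfl
    rw [← this]; linarith
  have flB : kapP V z0 ρ T ≤ Y / B := by
    rw [le_div_iff₀ pC, mul_comm]; exact fl
  have aB : a ≤ Y / B := by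
    rw [le_div_iff₀ pC, mul_comm]; exact ba
  have yB : 0 < Y / B := div_pos hY0 pC
  have hBY : 10 ^ 30 * W ^ 40 * (Y / B) ≤ Y := by
    calc 10 ^ 30 * W ^ 40 * (Y / B) ≤ B * (Y / B) := mul_le_mul_of_nonneg_right hN yB.le
      _ = Y := by field_simp
  have p30 : W ^ 30 ≤ W ^ 40 := pow_le_pow_right₀ W1 (by norm_num)
  have p28 : W ^ 28 ≤ W ^ 40 := pow_le_pow_right₀ W1 (by norm_num)
  have p21 : W ^ 21 ≤ W ^ 40 := pow_le_pow_right₀ W1 (by norm_num)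
  refine caseA_Nd (K := W ^ 3) (r := r) r0 ρ0 W3 hU hV tU tV (q1 _ _ _ hUw1 v1' u1)
    (q1 _ _ _ hVw1 u1' v1) (q1 _ _ _ hUw2 v2' u2) (q1 _ _ _ hVw2 u2' v2) ?_ ?_ ?_ hH hj
    (Real.rpow_nonneg b0.le _) hY0.le ?_ ?_
  · -- ang
    calc V.w 1 * |dt (U.e 2) (V.e 1)| ≤ (W * w1) * angC U V :=
          mul_le_mul v1' hang (abs_nonneg _) (by positivity)
      _ = W * (angC U V * w1) := by ring
      _ ≤ W * (W * w2) := mul_le_mul_of_nonneg_left ang W0.le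
      _ ≤ W * (W * (W * U.w 2)) := by
          refine mul_le_mul_of_nonneg_left (mul_le_mul_of_nonneg_left u2 W0.le) W0.le
      _ = W ^ 3 * U.w 2 := by ring
  · exact det.mono (inv_anti₀ W0 W13)
  · -- flat
    have hs : kapP V z0 ρ T + U.a + V.a ≤ 3 * W * (Y / B) := by
      have h1 : U.a ≤ W * (Y / B) := uA'.trans (mul_le_mul_of_nonneg_left aB W0.le)
      have h2 : V.a ≤ W * (Y / B) := vA'.trans (mul_le_mul_of_nonneg_left aB W0.le)
      have h3 : Y / B ≤ W * (Y / B) := le_mul_of_one_le_left yB.le W1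
      linarith
    have e1 : (W ^ 3) ^ 9 * W = W ^ 28 := by rw [← pow_mul, ← pow_succ]
    calc 10 ^ 22 * (W ^ 3) ^ 9 * (kapP V z0 ρ T + U.a + V.a)
        ≤ 10 ^ 22 * (W ^ 3) ^ 9 * (3 * W * (Y / B)) := mul_le_mul_of_nonneg_left hs (by positivity)
      _ = 3 * 10 ^ 22 * W ^ 28 * (Y / B) := by rw [← e1]; ring
      _ ≤ 3 * 10 ^ 22 * W ^ 40 * (Y / B) := by
          refine mul_le_mul_of_nonneg_right (mul_le_mul_of_nonneg_left p28 (by norm_num)) yB.le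
      _ ≤ 1 / 4 * (10 ^ 30 * W ^ 40 * (Y / B)) := by
          have : 0 ≤ W ^ 40 * (Y / B) := by positivity
          nlinarith
      _ ≤ 1 / 4 * Y := by linarith
      _ ≤ kapP U z0 ρ T := by linarith
  · -- l
    rw [eC]
    have e1 : B⁻¹ * Y = Y / B := by field_simp
    have e2 : (W ^ 3) ^ 10 = W ^ 30 := by rw [← pow_mul]
    rw [e1, e2]
    calc 10 ^ 24 * W ^ 30 * (Y / B) ≤ 10 ^ 24 * W ^ 40 * (Y / B) := by
          refine mul_le_mul_of_nonneg_right (mul_le_mul_of_nonneg_left p30 (by norm_num)) yB.le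
      _ ≤ 1 / 4 * (10 ^ 30 * W ^ 40 * (Y / B)) := by
          have : 0 ≤ W ^ 40 * (Y / B) := by positivity
          nlinarith
      _ ≤ 1 / 4 * Y := by linarith
      _ ≤ kapP U z0 ρ T := by linarith
  · -- m
    rw [eC]
    have e1 : B⁻¹ * Y ^ 2 = Y / B * Y := by field_simp
    have e2 : (W ^ 3) ^ 7 = W ^ 21 := by rw [← pow_mul]
    rw [e1, e2]
    have h1 : 10 ^ 6 * W ^ 21 * (Y / B) ≤ 1 / 32 * Y := by
      calc 10 ^ 6 * W ^ 21 * (Y / B) ≤ 10 ^ 6 * W ^ 40 * (Y / B) := by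
            refine mul_le_mul_of_nonneg_right (mul_le_mul_of_nonneg_left p21 (by norm_num)) yB.le
        _ ≤ 1 / 32 * (10 ^ 30 * W ^ 40 * (Y / B)) := by
            have : 0 ≤ W ^ 40 * (Y / B) := by positivity
            nlinarith
        _ ≤ 1 / 32 * Y := by linarith
    have h2 : (Y / 4) ^ 2 ≤ kapP U z0 ρ T ^ 2 := pow_le_pow_left₀ (by positivity) kU 2
    have h3 : 10 ^ 6 * W ^ 21 * (Y / B * Y) = 10 ^ 6 * W ^ 21 * (Y / B) * Y := by ring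
    rw [h3]
    have h4 : 10 ^ 6 * W ^ 21 * (Y / B) * Y ≤ 1 / 32 * Y * Y := mul_le_mul_of_nonneg_right h1 hY0.le
    nlinarith

end Crest.Agent.R136.Ndp28
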