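import Crest.Agent.R136.NdD_325

/-!
# R136 (S0187), PLAN 2, mixed curvatures: wiring of `NdMx` (helper325)

* `exists_N` : number of scales;
* `cell_count` : count of the boxes met by the lines of one cell, from a chart `ChM`.
-/

set_option autoImplicit false
set_option linter.unusedVariables false

open Finset

namespace Crest.Agent.R136.Ndw325

open Crest.Agent.R136.Rk601 Crest.Agent.R136.Sh605
open Crest.Agent.R136.Tl102 (cmb fr)
open Crest.Agent.R136.K4 (Plk4)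
open Crest.Agent.R136.Tlt51 (Shp InP)
open Crest.Agent.R136.KapP335 (kapP DetP)
open Crest.Agent.R136.Pl2W102 (Near)
open Crest.Agent.R136.Pl2 (kp Al1)
open Crest.Agent.R136.Hcp208 (Dims)
open Crest.Agent.R136.Gbx862 (zj gb lc zj_mem)
open Crest.Agent.R136.AlD601 (Nd jS)
open Crest.Agent.R136.Adp876
open Crest.Agent.R136.Bl5667 (shp_pos kp_nonneg)

theorem num_le : (10 ^ 52 * 5 * 5000 * (54 * 10 ^ 14) * (54 * 10 ^ 14) ^ 10 * 4 : ℝ) ≤ 10 ^ 240 := by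
  norm_num

/-- number of scales -/
theorem exists_N {A : ℝ} (hA : 1 ≤ A) {H : ℕ} (hH : 1 ≤ H) {β : ℝ} (hβ : 1 / (H : ℝ) ≤ β) :
    ∃ N : ℕ, 1 ≤ N ∧ A ≤ 2 ^ N * √β ∧ (N : ℝ) ≤ 5 * A * (1 + Real.log H) := by
  have hHr : (1 : ℝ) ≤ H := by exact_mod_cast hH
  have hH0 : (0 : ℝ) < H := by linarith
  have hl : 0 ≤ Real.log H := Real.log_nonneg hHr
  have hA0 : 0 < A := by linarith
  have hs : 1 ≤ √(H : ℝ) := by
    rw [show (1:ℝ) = √1 by rw [Real.sqrt_one]]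
    exact Real.sqrt_le_sqrt hHr
  set B := A * √(H : ℝ) with hB
  have hB1 : 1 ≤ B := by rw [hB]; nlinarith
  have hB0 : 0 < B := by linarith
  refine ⟨⌈Real.log B / Real.log 2⌉₊ + 1, by omega, ?_, ?_⟩
  · have h2 : 0 < Real.log 2 := Real.log_pos (by norm_num)
    have h3 : Real.log B / Real.log 2 ≤ (⌈Real.log B / Real.log 2⌉₊ : ℝ) := Nat.le_ceil _
    have h4 : B ≤ 2 ^ (⌈Real.log B / Real.log 2⌉₊ + 1) := by
      have h5 : B = (2:ℝ) ^ (Real.log B / Real.log 2) := by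
        rw [Real.rpow_def_of_pos (by norm_num), mul_div_cancel₀ _ h2.ne', Real.exp_log hB0]
      calc B = (2:ℝ) ^ (Real.log B / Real.log 2) := h5
        _ ≤ (2:ℝ) ^ ((⌈Real.log B / Real.log 2⌉₊ : ℕ) : ℝ) :=
            Real.rpow_le_rpow_of_exponent_le (by norm_num) h3
        _ = 2 ^ ⌈Real.log B / Real.log 2⌉₊ := Real.rpow_natCast _ _
        _ ≤ _ := pow_le_pow_right₀ (by norm_num) (by omega)
    have h6 : 1 / √(H : ℝ) ≤ √β := by
      have : √(1 / (H : ℝ)) ≤ √β := Real.sqrt_le_sqrt hβ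
      rwa [Real.sqrt_div zero_le_one, Real.sqrt_one] at this
    have h7 : 0 < √(H : ℝ) := by linarith
    calc A = B * (1 / √(H : ℝ)) := by rw [hB]; field_simp
      _ ≤ 2 ^ (⌈Real.log B / Real.log 2⌉₊ + 1) * √β :=
          mul_le_mul h4 h6 (by positivity) (by positivity)
  · have h1 : Real.log B = Real.log A + Real.log H / 2 := by
      rw [hB, Real.log_mul hA0.ne' (by positivity), Real.log_sqrt hH0.le]
    have hlA : 0 ≤ Real.log A := Real.log_nonneg hA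
    have hlA' : Real.log A ≤ A := (Real.log_le_sub_one_of_pos hA0).trans (by linarith)
    have h2 : 1 / 2 < Real.log 2 := by have := Real.log_two_gt_d9; linarith
    have hlB : 0 ≤ Real.log B := Real.log_nonneg hB1
    have h3 : Real.log B / Real.log 2 ≤ 2 * Real.log B := by
      rw [div_le_iff₀ (by linarith)]
      nlinarith
    have h4 := Nat.ceil_lt_add_one (show 0 ≤ Real.log B / Real.log 2 by positivity)
    push_cast
    have h5 : (⌈Real.log B / Real.log 2⌉₊ : ℝ) + 1 ≤ 2 * A + Real.log H + 2 := by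
      rw [h1] at h3 h4 ⊢
      linarith
    refine h5.trans ?_
    nlinarith [mul_nonneg hA0.le hl]

set_option maxHeartbeats 1600000 in
/-- **the count in one cell** -/
theorem cell_count {K X : ℝ} (hK : 2 ≤ K) (hKX : K ≤ X) {W Y a w1 w2 z0 ρ r : ℝ}
    {U V : Plk4} {T0 : Ln4} {σ s1 s2 rr k0 μ Λ cq cP ε αq : ℝ} {Jq JP : Jt}
    (h : ChM K V U.q T0 z0 ρ Y a σ s1 s2 rr k0 μ Λ cq cP ε αq Jq JP) {H : ℕ} (hH : 1 ≤ H)
    (hW : 1 ≤ W) (hWK : W ≤ K) (hr : 0 < r) (hρ : 0 < ρ) (ha : 0 < a) (hY : 0 < Y)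
    (hHa : (H : ℝ) * a ≤ Y) (hU : Shp U z0 ρ r) (hV : Shp V z0 ρ r) (dU : Dims W a w1 w2 U)
    (dV : Dims W a w1 w2 V) (h0V : InP T0 V z0 ρ) (T : Finset ((ℤ × ℤ) × ℕ))
    (Tb : (ℤ × ℤ) × ℕ → Ln4) (hj : ∀ b ∈ T, b.2 < H)
    (hin : ∀ b ∈ T, InP (Tb b) U z0 ρ ∧ InP (Tb b) V z0 ρ)
    (lab : ∀ b ∈ T, gb V.e V.c w1 w2 z0 ρ H (Tb b) b.2 = b.1)
    (hcl : ∀ b ∈ T, ∀ z, z0 ≤ z → z ≤ z0 + ρ → ∀ k : Fin 3,
      |dt (V.e k) ((Tb b).pos z - T0.pos z)| ≤ V.w k / K)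
    (hnd : ∀ b ∈ T, Nd V U.q z0 ρ H b.2 (Tb b) X⁻¹ X⁻¹ Y) :
    (T.card : ℝ) ≤ 10 ^ 240 * X ^ 414 * (1 + Real.log H) * (H : ℝ) ^ 2 := by
  have hK0 : 0 < K := by linarith
  have hK1 : 1 ≤ K := by linarith
  have hX0 : 0 < X := by linarith
  have hX1 : 1 ≤ X := by linarith
  have hHr : (1 : ℝ) ≤ H := by exact_mod_cast hH
  have hH0 : (0 : ℝ) < H := by linarith
  have hl0 : 0 ≤ Real.log H := Real.log_nonneg hHr
  obtain ⟨va, vw0, v2, v1⟩ := shp_pos hr hV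
  obtain ⟨⟨a1, a2⟩, ⟨b1, b2⟩, ⟨c1, c2⟩⟩ := dV
  obtain ⟨⟨a1', a2'⟩, -, -⟩ := dU
  have w10 : 0 < w1 := by
    have : 0 < W * w1 := v1.trans_le b2
    exact pos_of_mul_pos_right this (by linarith)
  have w20 : 0 < w2 := by
    have : 0 < W * w2 := v2.trans_le c2
    exact pos_of_mul_pos_right this (by linarith)
  have hw : ∀ k, 0 < V.w k := by
    intro k; fin_cases k
    · exact vw0
    · exact v1
    · exact v2
  -- relative velocity of `T0`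
  have hg : ∀ k, |gv V ρ T0 k| ≤ K := by
    intro k
    have e1 := (h0V z0 le_rfl (by linarith)).1 k
    have e2 := (h0V (z0 + ρ) (by linarith) le_rfl).1 k
    have e3 : ρ * dt (V.e k) (T0.v - V.c.v) = dt (V.e k) (T0.pos (z0 + ρ) - V.c.pos (z0 + ρ)) -
        dt (V.e k) (T0.pos z0 - V.c.pos z0) := by
      simp only [dt, Ln4.pos, Pi.sub_apply]; ring
    unfold gv
    rw [e3, abs_div, abs_of_pos (hw k), div_le_iff₀ (hw k)]
    have := abs_sub (dt (V.e k) (T0.pos (z0 + ρ) - V.c.pos (z0 + ρ)))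
      (dt (V.e k) (T0.pos z0 - V.c.pos z0))
    have h3 := hw k
    nlinarith
  -- chart points
  have hex : ∀ b : (ℤ × ℤ) × ℕ, ∃ p : ℝ × ℝ × ℝ, b ∈ T → |p.1| ≤ 1 ∧ |p.2.1| ≤ 1 ∧ |p.2.2| ≤ 1 ∧
      (Tb b).pos (zj z0 ρ H b.2) =
        cg (fr V.e V.w) T0 z0 ρ σ s1 s2 rr ((b.2 : ℝ) / H) p.1 p.2.1 p.2.2 := by
    intro b
    by_cases hb : b ∈ T
    · obtain ⟨y, u, v, h1, h2, h3, h4⟩ := h.pt (Tb b) (hin b hb).2 (hcl b hb) ((b.2 : ℝ) / H)
        (by positivity) (by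
          rw [div_le_one hH0]; exact_mod_cast (hj b hb).le)
      exact ⟨(y, u, v), fun _ => ⟨h1, h2, h3, h4⟩⟩
    · exact ⟨(0, 0, 0), fun hh => absurd hh hb⟩
  choose p hp using hex
  have hzz : ∀ b ∈ T, z0 ≤ zj z0 ρ H b.2 ∧ zj z0 ρ H b.2 ≤ z0 + ρ := fun b hb =>
    zj_mem hρ.le (hj b hb).le
  -- numbers
  set β : ℝ := K * (W + K) / H with hβd
  have hβ : 1 / (H : ℝ) ≤ β := by
    rw [hβd]
    apply div_le_div_of_nonneg_right _ hH0.le
    nlinarith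
  have hWK0 : 0 < W + K := by linarith
  set A : ℝ := 5000 * (Nmx501.KC2 (K ^ 2) (K ^ 3) * K ^ 3) with hA
  have hCK : 1 ≤ CK (K ^ 2) := CK_one (one_le_pow₀ hK1)
  have hKC : Nmx501.KC2 (K ^ 2) (K ^ 3) = 54 * 10 ^ 14 * K ^ 31 := by
    unfold Nmx501.KC2 Nmx501.C2 CK; ring
  have hA1 : 1 ≤ A := by
    rw [hA, hKC]
    have : 1 ≤ K ^ 31 := one_le_pow₀ hK1
    have : 1 ≤ K ^ 3 := one_le_pow₀ hK1
    nlinarith
  obtain ⟨N, hN1, hN2', hN3⟩ := exists_N hA1 hH hβ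
  have hXi : 0 < X⁻¹ := inv_pos.2 hX0
  have key := Nmx501.nd_count2 (S := V) (q' := U.q) (z0 := z0) (ρ := ρ) (T0 := T0) (σ := σ) (s1 := s1)
    (s2 := s2) (r := rr) (k0 := k0) (μ := μ) (Λ := Λ) (cq := cq) (cP := cP) (Jq := Jq) (JP := JP)
    (K := K ^ 2) (W := K) (w1 := w1) (w2 := w2) (l := X⁻¹ / K) (m := X⁻¹ / K ^ 2) (β := β)
    (ε := ε) (αq := αq / K) (H := H) (N := N) hV.ortho hw h.σ0 h.r0 h.rK hK1 h.kk0 h.Λ0 hH w10 w20
    ⟨b2.trans (mul_le_mul_of_nonneg_right hWK w10.le),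
      b1.trans (mul_le_mul_of_nonneg_right hWK v1.le)⟩
    ⟨c2.trans (mul_le_mul_of_nonneg_right hWK w20.le),
      c1.trans (mul_le_mul_of_nonneg_right hWK v2.le)⟩ (hg 1) (hg 2) h.hq h.hP
    (one_le_pow₀ hK1) ?_ h.sP ?_ ?_ ?_ ?_ ?_ ?_ T Tb (fun b => (p b).1) (fun b => (p b).2.1)
    (fun b => (p b).2.2) (fun b hb => (hj b hb).le) (fun b hb => (hp b hb).2.2.2)
    (fun b hb => ⟨(hp b hb).1, (hp b hb).2.1, (hp b hb).2.2.1⟩) (div_pos h.α0 hK0)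
    ((div_le_self h.α0.le hK1).trans h.α1) h.ε0 h.ε1 ?_ ?_ ?_ lab ?_ (by positivity)
    (by positivity) ?_ hβ hN1 hN2' ?_
  · -- conclusion
    have k1 : 1 / (X⁻¹ / K / K) ^ 2 ≤ X ^ 35 := by
      have : 1 / (X⁻¹ / K / K) ^ 2 = X ^ 2 * K ^ 4 := by field_simp
      rw [this]
      calc X ^ 2 * K ^ 4 ≤ X ^ 2 * X ^ 4 :=
            mul_le_mul_of_nonneg_left (pow_le_pow_left₀ hK0.le hKX 4) (by positivity)
        _ = X ^ 6 := by ring
        _ ≤ X ^ 35 := pow_le_pow_right₀ hX1 (by norm_num)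
    have k2 : 1 / (X⁻¹ / K ^ 2 / K ^ 4) ^ 5 ≤ X ^ 35 := by
      have : 1 / (X⁻¹ / K ^ 2 / K ^ 4) ^ 5 = X ^ 5 * K ^ 30 := by field_simp
      rw [this]
      calc X ^ 5 * K ^ 30 ≤ X ^ 5 * X ^ 30 :=
            mul_le_mul_of_nonneg_left (pow_le_pow_left₀ hK0.le hKX 30) (by positivity)
        _ = X ^ 35 := by ring
    have k3 : (Nmx501.KC2 (K ^ 2) (K ^ 3)) ^ 10 ≤ (54 * 10 ^ 14) ^ 10 * X ^ 310 := by
      rw [hKC]
      calc (54 * 10 ^ 14 * K ^ 31) ^ 10 = (54 * 10 ^ 14) ^ 10 * K ^ 310 := by ring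
        _ ≤ _ := mul_le_mul_of_nonneg_left (pow_le_pow_left₀ hK0.le hKX 310) (by positivity)
    have k4 : K ^ 33 ≤ X ^ 33 := pow_le_pow_left₀ hK0.le hKX 33
    have k5 : β * (H : ℝ) ^ 3 ≤ 2 * X ^ 2 * (H : ℝ) ^ 2 := by
      have e1 : β * (H : ℝ) ^ 3 = K * (W + K) * (H : ℝ) ^ 2 := by
        rw [hβd]; field_simp
      rw [e1]
      refine mul_le_mul_of_nonneg_right ?_ (by positivity)
      calc K * (W + K) ≤ X * (X + X) := mul_le_mul hKX (by linarith) hWK0.le hX0.le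
        _ = 2 * X ^ 2 := by ring
    have k6 : (N : ℝ) ≤ 5 * (5000 * (54 * 10 ^ 14) * X ^ 34) * (1 + Real.log H) := by
      refine hN3.trans (mul_le_mul_of_nonneg_right ?_ (by linarith))
      have e1 : A = 5000 * (54 * 10 ^ 14) * K ^ 34 := by rw [hA, hKC]; ring
      rw [e1]
      have : K ^ 34 ≤ X ^ 34 := pow_le_pow_left₀ hK0.le hKX 34
      nlinarith
    have hN0 : (0:ℝ) ≤ N := Nat.cast_nonneg N
    have hKC0 : 0 ≤ Nmx501.KC2 (K ^ 2) (K ^ 3) := by rw [hKC]; positivity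
    have hβ0 : 0 ≤ β := (by positivity : (0:ℝ) ≤ 1 / H).trans hβ
    refine key.trans ?_
    calc 10 ^ 52 * (N : ℝ) * (Nmx501.KC2 (K ^ 2) (K ^ 3)) ^ 10 * K ^ 33 *
          (1 / (X⁻¹ / K / K) ^ 2 + 1 / (X⁻¹ / K ^ 2 / K ^ 4) ^ 5) * β * (H : ℝ) ^ 3
        = 10 ^ 52 * (N : ℝ) * (Nmx501.KC2 (K ^ 2) (K ^ 3)) ^ 10 * K ^ 33 *
          (1 / (X⁻¹ / K / K) ^ 2 + 1 / (X⁻¹ / K ^ 2 / K ^ 4) ^ 5) * (β * (H : ℝ) ^ 3) := by ring
      _ ≤ 10 ^ 52 * (5 * (5000 * (54 * 10 ^ 14) * X ^ 34) * (1 + Real.log H)) *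
          ((54 * 10 ^ 14) ^ 10 * X ^ 310) * X ^ 33 * (X ^ 35 + X ^ 35) *
            (2 * X ^ 2 * (H : ℝ) ^ 2) := by
          gcongr
      _ = (10 ^ 52 * 5 * 5000 * (54 * 10 ^ 14) * (54 * 10 ^ 14) ^ 10 * 4) * X ^ 414 *
          (1 + Real.log H) * (H : ℝ) ^ 2 := by ring
      _ ≤ 10 ^ 240 * X ^ 414 * (1 + Real.log H) * (H : ℝ) ^ 2 := by
          refine mul_le_mul_of_nonneg_right (mul_le_mul_of_nonneg_right
            (mul_le_mul_of_nonneg_right num_le (by positivity)) (by linarith))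
            (by positivity)
  · exact ⟨h.bq.a0.trans (le_self_pow₀ hK1 (by norm_num)),
      fun i => (h.bq.a i).trans (le_self_pow₀ hK1 (by norm_num)),
      h.bq.h00.trans (le_self_pow₀ hK1 (by norm_num)),
      fun i => (h.bq.h0 i).trans (le_self_pow₀ hK1 (by norm_num)),
      fun i j => (h.bq.h i j).trans (le_self_pow₀ hK1 (by norm_num)), h.bq.s⟩
  · exact fun i => (h.bPa i).trans (le_self_pow₀ hK1 (by norm_num))
  · exact fun i j => (h.bPh i j).trans (le_self_pow₀ hK1 (by norm_num))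
  · exact h.bP0.trans (mul_le_mul_of_nonneg_right (le_self_pow₀ hK1 (by norm_num)) h.ε0.le)
  · exact h.bP00.trans (mul_le_mul_of_nonneg_right (le_self_pow₀ hK1 (by norm_num)) h.ε0.le)
  · exact fun i => (h.bPm i).trans
      (mul_le_mul_of_nonneg_right (le_self_pow₀ hK1 (by norm_num)) h.ε0.le)
  · intro y x hy hx hx0
    refine le_trans ?_ (h.st y x hy hx hx0)
    exact one_div_le_one_div_of_le hK0 (le_self_pow₀ hK1 (by norm_num))
  · -- `ε αq / K ≤ 1 / H`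
    have e1 := h.εα
    rw [mul_div_assoc', div_le_div_iff₀ hK0 hH0]
    have e2 : ε * αq * (H * a) ≤ ε * αq * Y :=
      mul_le_mul_of_nonneg_left hHa (mul_nonneg h.ε0.le h.α0.le)
    have e3 : (ε * αq * H) * a ≤ K * a := by nlinarith
    have := le_of_mul_le_mul_right e3 ha
    linarith
  · intro b hb
    obtain ⟨z1, z2⟩ := hzz b hb
    have e1 := ((hin b hb).2 _ z1 z2).2
    refine e1.trans (h.on.trans (le_of_eq ?_))
    field_simp
  · intro b hb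
    obtain ⟨z1, z2⟩ := hzz b hb
    have e1 := ((hin b hb).2 _ z1 z2).2
    have e2 := ((hin b hb).1 _ z1 z2).2
    have e3 : |μ * V.q (zj z0 ρ H b.2) ((Tb b).pos (zj z0 ρ H b.2))| ≤ K * a := by
      rw [abs_mul]
      exact (mul_le_mul_of_nonneg_left e1 (abs_nonneg μ)).trans h.μa
    have e4 := abs_sub (U.q (zj z0 ρ H b.2) ((Tb b).pos (zj z0 ρ H b.2)))
      (μ * V.q (zj z0 ρ H b.2) ((Tb b).pos (zj z0 ρ H b.2)))
    have e5 : (W + K) * a ≤ Λ * β := by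
      have f1 : H * a ≤ K * Λ := hHa.trans h.YΛ
      rw [hβd]
      have f2 : Λ * (K * (W + K) / H) = (K * Λ) * (W + K) / H := by ring
      rw [f2, le_div_iff₀ hH0]
      nlinarith
    have e6 : U.a ≤ W * a := a2'
    linarith
  · intro b hb k
    obtain ⟨z1, z2⟩ := hzz b hb
    exact ((hin b hb).2 _ z1 z2).1 k
  · rw [div_le_one (by positivity)]
    have : X⁻¹ ≤ 1 := inv_le_one_of_one_le₀ hX1
    exact this.trans (one_le_pow₀ hK1)
  · intro b hb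
    rcases hnd b hb with ⟨i, hi⟩ | ⟨i, j, k, k', hi⟩
    · left
      refine ⟨i, lt_of_le_of_lt ?_ hi⟩
      have e1 : X⁻¹ / K * Λ ≤ X⁻¹ / K * (K * Y) :=
        mul_le_mul_of_nonneg_left h.ΛY (by positivity)
      have e2 : X⁻¹ / K * (K * Y) = X⁻¹ * Y := by field_simp
      linarith
    · right
      refine ⟨i, j, k, k', lt_of_le_of_lt ?_ hi⟩
      have e0 : Λ ^ 2 ≤ (K * Y) ^ 2 := pow_le_pow_left₀ h.Λ0.le h.ΛY 2
      have e1 : X⁻¹ / K ^ 2 * Λ ^ 2 ≤ X⁻¹ / K ^ 2 * (K * Y) ^ 2 :=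
        mul_le_mul_of_nonneg_left e0 (by positivity)
      have e2 : X⁻¹ / K ^ 2 * (K * Y) ^ 2 = X⁻¹ * Y ^ 2 := by field_simp
      linarith

end Crest.Agent.R136.Ndw325
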