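import Crest.Agent.R136.Net1_191
import Crest.Agent.R136.Sh1_605

/-!
# R136: the thick chart of `ℝ⁴` (helper186)

Incidence = line, height `z`, flag `V2 ⊂ V3`:  axis `A' = (1, e)` of `V2` in the `(A, B)` plane,
hyperplane `V3 = {Y = fa A + fb B}`.  Coordinates `x 0 = Y`, `x 1 = A`, `x 2 = B` (as in `Sh605`:
`0` normal, `1` wide, `2` narrow).  Relative coordinates of the incidence `j` seen from `i`, in the
frame of `i`, at the height of `i`: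

`0 : z`, `1 : E`, `2 : F_b`, `3 : F_a`, `4 : C_a`, `5 : C_b`, `6 : P`, `7 : X_a`, `8 : X_b`, `9 : N`.

`chart4` : they form a triangular chart (`Net191.Chart`) with constant `1` and the monomials
`mon4`.
-/

set_option autoImplicit false

namespace Crest.Agent.R136.Net186

open Finset
open Crest.Agent.R136.Net191
open Crest.Agent.R136.Sh605

/-- an incidence with its flag -/
structure Fl4 where
  /-- the line -/
  t : Ln4
  /-- the height -/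
  z : ℝ
  /-- slope of `V2` inside `V3` -/
  e : ℝ
  /-- slope of `V3` in the direction `A` -/
  fa : ℝ
  /-- slope of `V3` in the direction `B` -/
  fb : ℝ

/-- relative coordinates of `j` seen from `i` -/
def co4 (i j : Fl4) : Fin 10 → ℝ :=
  ![j.z - i.z,
    j.e - i.e,
    j.fb - i.fb,
    (j.fa - i.fa) + i.e * (j.fb - i.fb),
    j.t.v 1 - i.t.v 1,
    (j.t.v 2 - i.t.v 2) - i.e * (j.t.v 1 - i.t.v 1),
    (j.t.v 0 - i.t.v 0) - i.fa * (j.t.v 1 - i.t.v 1) - i.fb * (j.t.v 2 - i.t.v 2),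
    j.t.pos i.z 1 - i.t.pos i.z 1,
    (j.t.pos i.z 2 - i.t.pos i.z 2) - i.e * (j.t.pos i.z 1 - i.t.pos i.z 1),
    (j.t.pos i.z 0 - i.t.pos i.z 0) - i.fa * (j.t.pos i.z 1 - i.t.pos i.z 1) -
      i.fb * (j.t.pos i.z 2 - i.t.pos i.z 2)]

/-- the monomials -/
def mf4 : Fin 10 → Finset (Fin 10 → ℕ) :=
  ![∅, ∅, ∅,
    {![0, 1, 1, 0, 0, 0, 0, 0, 0, 0]},
    ∅,
    {![0, 1, 0, 0, 1, 0, 0, 0, 0, 0]},
    {![0, 0, 0, 1, 1, 0, 0, 0, 0, 0], ![0, 1, 1, 0, 1, 0, 0, 0, 0, 0],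
      ![0, 0, 1, 0, 0, 1, 0, 0, 0, 0]},
    {![1, 0, 0, 0, 1, 0, 0, 0, 0, 0]},
    {![1, 0, 0, 0, 0, 1, 0, 0, 0, 0], ![0, 1, 0, 0, 0, 0, 0, 1, 0, 0],
      ![1, 1, 0, 0, 1, 0, 0, 0, 0, 0]},
    {![1, 0, 0, 0, 0, 0, 1, 0, 0, 0], ![0, 0, 0, 1, 0, 0, 0, 1, 0, 0],
      ![0, 1, 1, 0, 0, 0, 0, 1, 0, 0], ![1, 0, 0, 1, 1, 0, 0, 0, 0, 0],
      ![1, 1, 1, 0, 1, 0, 0, 0, 0, 0], ![0, 0, 1, 0, 0, 0, 0, 0, 1, 0],
      ![1, 0, 1, 0, 0, 1, 0, 0, 0, 0]}]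

/-- the walls of the thick chart -/
def mon4 : Mons 10 where
  mon := mf4
  low := by decide
  ne := by decide

theorem sum3 (x : Fin 10 → ℝ) : ∑ e ∈ mf4 3, ∏ s, x s ^ e s = x 1 * x 2 := by
  show ∑ e ∈ ({![0, 1, 1, 0, 0, 0, 0, 0, 0, 0]} : Finset (Fin 10 → ℕ)), ∏ s, x s ^ e s = _
  rw [Finset.sum_singleton]
  simp [Fin.prod_univ_succ]

theorem sum5 (x : Fin 10 → ℝ) : ∑ e ∈ mf4 5, ∏ s, x s ^ e s = x 1 * x 4 := by
  show ∑ e ∈ ({![0, 1, 0, 0, 1, 0, 0, 0, 0, 0]} : Finset (Fin 10 → ℕ)), ∏ s, x s ^ e s = _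
  rw [Finset.sum_singleton]
  simp [Fin.prod_univ_succ]

theorem sum6 (x : Fin 10 → ℝ) : ∑ e ∈ mf4 6, ∏ s, x s ^ e s =
    x 3 * x 4 + x 1 * x 2 * x 4 + x 2 * x 5 := by
  show ∑ e ∈ ({![0, 0, 0, 1, 1, 0, 0, 0, 0, 0], ![0, 1, 1, 0, 1, 0, 0, 0, 0, 0],
      ![0, 0, 1, 0, 0, 1, 0, 0, 0, 0]} : Finset (Fin 10 → ℕ)), ∏ s, x s ^ e s = _
  rw [Finset.sum_insert (by decide), Finset.sum_insert (by decide), Finset.sum_singleton]
  simp [Fin.prod_univ_succ]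
  ring

theorem sum7 (x : Fin 10 → ℝ) : ∑ e ∈ mf4 7, ∏ s, x s ^ e s = x 0 * x 4 := by
  show ∑ e ∈ ({![1, 0, 0, 0, 1, 0, 0, 0, 0, 0]} : Finset (Fin 10 → ℕ)), ∏ s, x s ^ e s = _
  rw [Finset.sum_singleton]
  simp [Fin.prod_univ_succ]

theorem sum8 (x : Fin 10 → ℝ) : ∑ e ∈ mf4 8, ∏ s, x s ^ e s =
    x 0 * x 5 + x 1 * x 7 + x 0 * x 1 * x 4 := by
  show ∑ e ∈ ({![1, 0, 0, 0, 0, 1, 0, 0, 0, 0], ![0, 1, 0, 0, 0, 0, 0, 1, 0, 0],
      ![1, 1, 0, 0, 1, 0, 0, 0, 0, 0]} : Finset (Fin 10 → ℕ)), ∏ s, x s ^ e s = _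
  rw [Finset.sum_insert (by decide), Finset.sum_insert (by decide), Finset.sum_singleton]
  simp [Fin.prod_univ_succ]
  ring

theorem sum9 (x : Fin 10 → ℝ) : ∑ e ∈ mf4 9, ∏ s, x s ^ e s =
    x 0 * x 6 + x 3 * x 7 + x 1 * x 2 * x 7 + x 0 * x 3 * x 4 + x 0 * x 1 * x 2 * x 4 +
      x 2 * x 8 + x 0 * x 2 * x 5 := by
  show ∑ e ∈ ({![1, 0, 0, 0, 0, 0, 1, 0, 0, 0], ![0, 0, 0, 1, 0, 0, 0, 1, 0, 0],
      ![0, 1, 1, 0, 0, 0, 0, 1, 0, 0], ![1, 0, 0, 1, 1, 0, 0, 0, 0, 0],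
      ![1, 1, 1, 0, 1, 0, 0, 0, 0, 0], ![0, 0, 1, 0, 0, 0, 0, 0, 1, 0],
      ![1, 0, 1, 0, 0, 1, 0, 0, 0, 0]} : Finset (Fin 10 → ℕ)), ∏ s, x s ^ e s = _
  rw [Finset.sum_insert (by decide), Finset.sum_insert (by decide), Finset.sum_insert (by decide),
    Finset.sum_insert (by decide), Finset.sum_insert (by decide), Finset.sum_insert (by decide),
    Finset.sum_singleton]
  simp [Fin.prod_univ_succ]
  ring

/-- **the cocycle identities of the thick chart** -/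
theorem co4_add (i j l : Fl4) :
    co4 i l 0 = co4 i j 0 + co4 j l 0 ∧
    co4 i l 1 = co4 i j 1 + co4 j l 1 ∧
    co4 i l 2 = co4 i j 2 + co4 j l 2 ∧
    co4 i l 3 = co4 i j 3 + co4 j l 3 - co4 i j 1 * co4 j l 2 ∧
    co4 i l 4 = co4 i j 4 + co4 j l 4 ∧
    co4 i l 5 = co4 i j 5 + co4 j l 5 + co4 i j 1 * co4 j l 4 ∧
    co4 i l 6 = co4 i j 6 + co4 j l 6 + (co4 i j 3 + co4 i j 1 * co4 i j 2) * co4 j l 4 +
      co4 i j 2 * co4 j l 5 ∧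
    co4 i l 7 = co4 i j 7 + co4 j l 7 - co4 i j 0 * co4 j l 4 ∧
    co4 i l 8 = co4 i j 8 + (co4 j l 8 - co4 i j 0 * co4 j l 5) +
      co4 i j 1 * (co4 j l 7 - co4 i j 0 * co4 j l 4) ∧
    co4 i l 9 = co4 i j 9 + (co4 j l 9 - co4 i j 0 * co4 j l 6) +
      (co4 i j 3 + co4 i j 1 * co4 i j 2) * (co4 j l 7 - co4 i j 0 * co4 j l 4) +
      co4 i j 2 * (co4 j l 8 - co4 i j 0 * co4 j l 5) := by
  simp only [co4, Ln4.pos, Matrix.cons_val]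
  refine ⟨by ring, by ring, by ring, by ring, by ring, by ring, by ring, by ring, by ring, by ring⟩

/-- **the thick chart** -/
theorem chart4 {ι : Type*} (I : Finset ι) (f : ι → Fl4) :
    Chart I (fun i j => co4 (f i) (f j)) mon4 1 where
  C0 := zero_le_one
  refl := by
    intro i _ k
    fin_cases k <;> simp [co4]
  add := by
    intro i _ j _ l _ k
    obtain ⟨h0, h1, h2, h3, h4, h5, h6, h7, h8, h9⟩ := co4_add (f i) (f j) (f l)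
    set x : Fin 10 → ℝ := fun s => max |co4 (f i) (f j) s| |co4 (f j) (f l) s| with hx
    have hl : ∀ s, |co4 (f i) (f j) s| ≤ x s := fun s => le_max_left _ _
    have hr : ∀ s, |co4 (f j) (f l) s| ≤ x s := fun s => le_max_right _ _
    have hx0 : ∀ s, 0 ≤ x s := fun s => (abs_nonneg _).trans (hl s)
    have m2 : ∀ {a b u w : ℝ}, |a| ≤ u → |b| ≤ w → |a * b| ≤ u * w := by
      intro a b u w ha hb
      rw [abs_mul]
      exact mul_le_mul ha hb (abs_nonneg _) ((abs_nonneg _).trans ha)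
    have a2 : ∀ {a b u w : ℝ}, |a| ≤ u → |b| ≤ w → |a + b| ≤ u + w := fun ha hb =>
      (abs_add_le _ _).trans (add_le_add ha hb)
    have s2 : ∀ {a b u w : ℝ}, |a| ≤ u → |b| ≤ w → |a - b| ≤ u + w := fun ha hb =>
      (abs_sub _ _).trans (add_le_add ha hb)
    rw [one_mul]
    show |co4 (f i) (f l) k - co4 (f i) (f j) k - co4 (f j) (f l) k| ≤
      ∑ e ∈ mf4 k, ∏ s, x s ^ e s
    fin_cases k
    · show |co4 (f i) (f l) 0 - co4 (f i) (f j) 0 - co4 (f j) (f l) 0| ≤ _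
      rw [h0]
      simp [mf4]
    · show |co4 (f i) (f l) 1 - co4 (f i) (f j) 1 - co4 (f j) (f l) 1| ≤ _
      rw [h1]
      simp [mf4]
    · show |co4 (f i) (f l) 2 - co4 (f i) (f j) 2 - co4 (f j) (f l) 2| ≤ _
      rw [h2]
      simp [mf4]
    · show |co4 (f i) (f l) 3 - co4 (f i) (f j) 3 - co4 (f j) (f l) 3| ≤ _
      rw [show (⟨3, _⟩ : Fin 10) = 3 from rfl, sum3, h3]
      rw [show co4 (f i) (f j) 3 + co4 (f j) (f l) 3 - co4 (f i) (f j) 1 * co4 (f j) (f l) 2 -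
        co4 (f i) (f j) 3 - co4 (f j) (f l) 3 = -(co4 (f i) (f j) 1 * co4 (f j) (f l) 2) by ring,
        abs_neg]
      exact m2 (hl 1) (hr 2)
    · show |co4 (f i) (f l) 4 - co4 (f i) (f j) 4 - co4 (f j) (f l) 4| ≤ _
      rw [h4]
      simp [mf4]
    · show |co4 (f i) (f l) 5 - co4 (f i) (f j) 5 - co4 (f j) (f l) 5| ≤ _
      rw [show (⟨5, _⟩ : Fin 10) = 5 from rfl, sum5, h5]
      rw [show co4 (f i) (f j) 5 + co4 (f j) (f l) 5 + co4 (f i) (f j) 1 * co4 (f j) (f l) 4 -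
        co4 (f i) (f j) 5 - co4 (f j) (f l) 5 = co4 (f i) (f j) 1 * co4 (f j) (f l) 4 by ring]
      exact m2 (hl 1) (hr 4)
    · show |co4 (f i) (f l) 6 - co4 (f i) (f j) 6 - co4 (f j) (f l) 6| ≤ _
      rw [show (⟨6, _⟩ : Fin 10) = 6 from rfl, sum6, h6]
      rw [show co4 (f i) (f j) 6 + co4 (f j) (f l) 6 +
        (co4 (f i) (f j) 3 + co4 (f i) (f j) 1 * co4 (f i) (f j) 2) * co4 (f j) (f l) 4 +
        co4 (f i) (f j) 2 * co4 (f j) (f l) 5 - co4 (f i) (f j) 6 - co4 (f j) (f l) 6 =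
        co4 (f i) (f j) 3 * co4 (f j) (f l) 4 +
        co4 (f i) (f j) 1 * co4 (f i) (f j) 2 * co4 (f j) (f l) 4 +
        co4 (f i) (f j) 2 * co4 (f j) (f l) 5 by ring]
      exact a2 (a2 (m2 (hl 3) (hr 4)) (m2 (m2 (hl 1) (hl 2)) (hr 4))) (m2 (hl 2) (hr 5))
    · show |co4 (f i) (f l) 7 - co4 (f i) (f j) 7 - co4 (f j) (f l) 7| ≤ _
      rw [show (⟨7, _⟩ : Fin 10) = 7 from rfl, sum7, h7]
      rw [show co4 (f i) (f j) 7 + co4 (f j) (f l) 7 - co4 (f i) (f j) 0 * co4 (f j) (f l) 4 -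
        co4 (f i) (f j) 7 - co4 (f j) (f l) 7 = -(co4 (f i) (f j) 0 * co4 (f j) (f l) 4) by ring,
        abs_neg]
      exact m2 (hl 0) (hr 4)
    · show |co4 (f i) (f l) 8 - co4 (f i) (f j) 8 - co4 (f j) (f l) 8| ≤ _
      rw [show (⟨8, _⟩ : Fin 10) = 8 from rfl, sum8, h8]
      rw [show co4 (f i) (f j) 8 + (co4 (f j) (f l) 8 - co4 (f i) (f j) 0 * co4 (f j) (f l) 5) +
        co4 (f i) (f j) 1 * (co4 (f j) (f l) 7 - co4 (f i) (f j) 0 * co4 (f j) (f l) 4) -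
        co4 (f i) (f j) 8 - co4 (f j) (f l) 8 =
        -(co4 (f i) (f j) 0 * co4 (f j) (f l) 5) + co4 (f i) (f j) 1 * co4 (f j) (f l) 7 -
        co4 (f i) (f j) 0 * co4 (f i) (f j) 1 * co4 (f j) (f l) 4 by ring]
      refine s2 (a2 ?_ (m2 (hl 1) (hr 7))) (m2 (m2 (hl 0) (hl 1)) (hr 4))
      rw [abs_neg]
      exact m2 (hl 0) (hr 5)
    · show |co4 (f i) (f l) 9 - co4 (f i) (f j) 9 - co4 (f j) (f l) 9| ≤ _
      rw [show (⟨9, _⟩ : Fin 10) = 9 from rfl, sum9, h9]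
      rw [show co4 (f i) (f j) 9 + (co4 (f j) (f l) 9 - co4 (f i) (f j) 0 * co4 (f j) (f l) 6) +
        (co4 (f i) (f j) 3 + co4 (f i) (f j) 1 * co4 (f i) (f j) 2) *
          (co4 (f j) (f l) 7 - co4 (f i) (f j) 0 * co4 (f j) (f l) 4) +
        co4 (f i) (f j) 2 * (co4 (f j) (f l) 8 - co4 (f i) (f j) 0 * co4 (f j) (f l) 5) -
        co4 (f i) (f j) 9 - co4 (f j) (f l) 9 =
        -(co4 (f i) (f j) 0 * co4 (f j) (f l) 6) + co4 (f i) (f j) 3 * co4 (f j) (f l) 7 +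
        co4 (f i) (f j) 1 * co4 (f i) (f j) 2 * co4 (f j) (f l) 7 -
        co4 (f i) (f j) 0 * co4 (f i) (f j) 3 * co4 (f j) (f l) 4 -
        co4 (f i) (f j) 0 * co4 (f i) (f j) 1 * co4 (f i) (f j) 2 * co4 (f j) (f l) 4 +
        co4 (f i) (f j) 2 * co4 (f j) (f l) 8 -
        co4 (f i) (f j) 0 * co4 (f i) (f j) 2 * co4 (f j) (f l) 5 by ring]
      refine s2 (a2 (s2 (s2 (a2 (a2 ?_ (m2 (hl 3) (hr 7))) (m2 (m2 (hl 1) (hl 2)) (hr 7)))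
        (m2 (m2 (hl 0) (hl 3)) (hr 4))) (m2 (m2 (m2 (hl 0) (hl 1)) (hl 2)) (hr 4)))
        (m2 (hl 2) (hr 8))) (m2 (m2 (hl 0) (hl 2)) (hr 5))
      rw [abs_neg]
      exact m2 (hl 0) (hr 6)

/-- the walls of the thick chart, explicitly -/
theorem legal4_iff {p : Fin 10 → ℝ} : Legal mon4 p ↔ (∀ k, 0 ≤ p k) ∧
    p 3 ≤ p 1 + p 2 ∧ p 5 ≤ p 1 + p 4 ∧ p 6 ≤ p 3 + p 4 ∧ p 6 ≤ p 2 + p 5 ∧
    p 7 ≤ p 0 + p 4 ∧ p 8 ≤ p 0 + p 5 ∧ p 8 ≤ p 1 + p 7 ∧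
    p 9 ≤ p 0 + p 6 ∧ p 9 ≤ p 3 + p 7 ∧ p 9 ≤ p 2 + p 8 := by
  have hs : ∀ e : Fin 10 → ℕ, ∑ s, (e s : ℝ) * p s = e 0 * p 0 + e 1 * p 1 + e 2 * p 2 +
      e 3 * p 3 + e 4 * p 4 + e 5 * p 5 + e 6 * p 6 + e 7 * p 7 + e 8 * p 8 + e 9 * p 9 := by
    intro e
    simp [Fin.sum_univ_succ]
    ring
  constructor
  · intro h
    have w := h.wall
    simp only [hs] at w
    refine ⟨h.nonneg, ?_, ?_, ?_, ?_, ?_, ?_, ?_, ?_, ?_, ?_⟩
    · simpa using w 3 ![0, 1, 1, 0, 0, 0, 0, 0, 0, 0] (by decide)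
    · simpa using w 5 ![0, 1, 0, 0, 1, 0, 0, 0, 0, 0] (by decide)
    · simpa using w 6 ![0, 0, 0, 1, 1, 0, 0, 0, 0, 0] (by decide)
    · simpa using w 6 ![0, 0, 1, 0, 0, 1, 0, 0, 0, 0] (by decide)
    · simpa using w 7 ![1, 0, 0, 0, 1, 0, 0, 0, 0, 0] (by decide)
    · simpa using w 8 ![1, 0, 0, 0, 0, 1, 0, 0, 0, 0] (by decide)
    · simpa using w 8 ![0, 1, 0, 0, 0, 0, 0, 1, 0, 0] (by decide)
    · simpa using w 9 ![1, 0, 0, 0, 0, 0, 1, 0, 0, 0] (by decide)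
    · simpa using w 9 ![0, 0, 0, 1, 0, 0, 0, 1, 0, 0] (by decide)
    · simpa using w 9 ![0, 0, 1, 0, 0, 0, 0, 0, 1, 0] (by decide)
  · rintro ⟨h0, h3, h5, h6, h6', h7, h8, h8', h9, h9', h9''⟩
    refine ⟨h0, fun k e he => ?_⟩
    rw [hs]
    change e ∈ mf4 k at he
    fin_cases k <;> simp [mf4] at he
    · subst he; simpa using h3
    · subst he; simpa using h5
    · rcases he with rfl | rfl | rfl <;> simp <;> linarith
    · subst he; simpa using h7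
    · rcases he with rfl | rfl | rfl <;> simp <;> linarith
    · rcases he with rfl | rfl | rfl | rfl | rfl | rfl | rfl <;> simp <;> linarith

end Crest.Agent.R136.Net186
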