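import Crest.Agent.R136.NetW1_191

/-!
# The W-chart (helper191), part 2: the chart with 18 coordinates

`Mons.ofLists` : walls from lists of indices.  `chartW : Chart I (coW ..) monW 134`.
-/

set_option autoImplicit false
set_option linter.unusedSimpArgs false

namespace Crest.Agent.R136.NetW191

open Finset Crest.Agent.R136.Net191

variable {m : ℕ}

/-- walls from lists of indices -/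
def ofLists (ml : Fin m → List (List (Fin m))) (hlow : ∀ k, ∀ l ∈ ml k, ∀ s ∈ l, s < k)
    (hne : ∀ k, ∀ l ∈ ml k, l ≠ []) : Mons m where
  mon := fun k => ((ml k).map fun l s => l.count s).toFinset
  low := by
    intro k e he s hs
    rw [List.mem_toFinset, List.mem_map] at he
    obtain ⟨l, hl, rfl⟩ := he
    exact List.count_eq_zero.2 fun h => absurd (hlow k l hl s h) (not_lt.2 hs)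
  ne := by
    intro k e he
    rw [List.mem_toFinset, List.mem_map] at he
    obtain ⟨l, hl, rfl⟩ := he
    obtain ⟨s, hs⟩ := List.exists_mem_of_ne_nil l (hne k l hl)
    exact ⟨s, (List.count_pos_iff.2 hs).ne'⟩

lemma prod_count (l : List (Fin m)) (X : Fin m → ℝ) :
    (l.map X).prod = ∏ s, X s ^ l.count s := by
  rw [Finset.prod_list_map_count]
  refine Finset.prod_subset (Finset.subset_univ _) fun s _ hs => ?_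
  rw [List.count_eq_zero.2 (fun h => hs (List.mem_toFinset.2 h)), pow_zero]

lemma sum_count (l : List (Fin m)) (p : Fin m → ℝ) :
    (l.map p).sum = ∑ s, (l.count s : ℝ) * p s := by
  rw [Finset.sum_list_map_count]
  simp only [nsmul_eq_mul]
  refine Finset.sum_subset (Finset.subset_univ _) fun s _ hs => ?_
  rw [List.count_eq_zero.2 (fun h => hs (List.mem_toFinset.2 h))]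
  simp

variable {ml : Fin m → List (List (Fin m))} {hlow : ∀ k, ∀ l ∈ ml k, ∀ s ∈ l, s < k}
  {hne : ∀ k, ∀ l ∈ ml k, l ≠ []}

lemma prod_le_ofLists {X : Fin m → ℝ} (hX : ∀ s, 0 ≤ X s) {k : Fin m} {l : List (Fin m)}
    (hl : l ∈ ml k) : (l.map X).prod ≤ ∑ e ∈ (ofLists ml hlow hne).mon k, ∏ s, X s ^ e s := by
  rw [prod_count]
  refine Finset.single_le_sum (f := fun e : Fin m → ℕ => ∏ s, X s ^ e s)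
    (fun e _ => Finset.prod_nonneg fun s _ => pow_nonneg (hX s) _) ?_
  exact List.mem_toFinset.2 (List.mem_map.2 ⟨l, hl, rfl⟩)

/-- **the walls** -/
theorem legal_ofLists {p : Fin m → ℝ} : Legal (ofLists ml hlow hne) p ↔
    (∀ k, 0 ≤ p k) ∧ ∀ k, ∀ l ∈ ml k, p k ≤ (l.map p).sum := by
  constructor
  · intro h
    refine ⟨h.nonneg, fun k l hl => ?_⟩
    rw [sum_count]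
    exact h.wall k _ (List.mem_toFinset.2 (List.mem_map.2 ⟨l, hl, rfl⟩))
  · intro h
    refine ⟨h.1, fun k e he => ?_⟩
    obtain ⟨l, hl, rfl⟩ := List.mem_map.1 (List.mem_toFinset.1 he)
    have := h.2 k l hl
    rwa [sum_count] at this

/-! ### the error terms of the W-chart -/

/-- a term `n κ^e h^hl w_s` -/
structure Tm where
  n : ℤ
  e : ℕ
  hl : List (Fin 4)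
  s : Fin 14
  deriving DecidableEq

/-- value of a term -/
def Tm.ev (κ : ℝ) (h : Fin 4 → ℝ) (w : Fin 14 → ℝ) (t : Tm) : ℝ :=
  (t.n : ℝ) * κ ^ t.e * (t.hl.map h).prod * w t.s

/-- the terms of `tr κ h w k - w k` -/
def tms : Fin 14 → List Tm := ![
    [],
    [⟨2, 0, [0], 0⟩],
    [⟨4, 1, [2], 0⟩, ⟨-4, 1, [1, 0], 0⟩, ⟨-2, 1, [1], 1⟩],
    [⟨1, 0, [0, 0], 0⟩, ⟨1, 0, [0], 1⟩],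
    [⟨4, 1, [2, 1], 0⟩, ⟨2, 0, [3], 0⟩, ⟨-2, 1, [1, 1, 0], 0⟩, ⟨-1, 1, [1, 1], 1⟩,
      ⟨1, 0, [1], 2⟩],
    [⟨4, 1, [2, 0], 0⟩, ⟨-4, 1, [1, 0, 0], 0⟩, ⟨2, 1, [2], 1⟩, ⟨-4, 1, [1, 0], 1⟩,
      ⟨1, 0, [0], 2⟩, ⟨-4, 1, [1], 3⟩],
    [⟨6, 2, [2, 2], 0⟩, ⟨-8, 2, [2, 1, 0], 0⟩, ⟨2, 1, [3, 0], 0⟩, ⟨4, 2, [1, 1, 0, 0], 0⟩,
      ⟨-4, 2, [2, 1], 1⟩, ⟨1, 1, [3], 1⟩, ⟨4, 2, [1, 1, 0], 1⟩, ⟨3, 1, [2], 2⟩,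
      ⟨-2, 1, [1, 0], 2⟩, ⟨4, 2, [1, 1], 3⟩, ⟨1, 1, [0], 4⟩, ⟨-2, 1, [1], 5⟩],
    [⟨2, 1, [2, 2], 0⟩, ⟨4, 1, [2, 1, 0], 0⟩, ⟨4, 0, [3, 0], 0⟩, ⟨-2, 1, [1, 1, 0, 0], 0⟩,
      ⟨2, 1, [2, 1], 1⟩, ⟨2, 0, [3], 1⟩, ⟨-2, 1, [1, 1, 0], 1⟩, ⟨1, 0, [2], 2⟩,
      ⟨1, 0, [1, 0], 2⟩, ⟨-2, 1, [1, 1], 3⟩, ⟨2, 0, [0], 4⟩, ⟨1, 0, [1], 5⟩],
    [⟨8, 2, [2, 2, 1], 0⟩, ⟨4, 1, [2, 3], 0⟩, ⟨-12, 2, [2, 1, 1, 0], 0⟩, ⟨-4, 1, [3, 1, 0], 0⟩,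
      ⟨4, 2, [1, 1, 1, 0, 0], 0⟩, ⟨-6, 2, [2, 1, 1], 1⟩, ⟨-2, 1, [3, 1], 1⟩,
      ⟨4, 2, [1, 1, 1, 0], 1⟩, ⟨4, 1, [2, 1], 2⟩, ⟨1, 0, [3], 2⟩, ⟨-3, 1, [1, 1, 0], 2⟩,
      ⟨4, 2, [1, 1, 1], 3⟩, ⟨2, 1, [2], 4⟩, ⟨-2, 1, [1, 0], 4⟩, ⟨-3, 1, [1, 1], 5⟩,
      ⟨2, 0, [1], 6⟩, ⟨-2, 1, [1], 7⟩],
    [⟨4, 2, [2, 2, 1, 1], 0⟩, ⟨4, 1, [2, 3, 1], 0⟩, ⟨-4, 2, [2, 1, 1, 1, 0], 0⟩,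
      ⟨1, 0, [3, 3], 0⟩, ⟨-2, 1, [3, 1, 1, 0], 0⟩, ⟨1, 2, [1, 1, 1, 1, 0, 0], 0⟩,
      ⟨-2, 2, [2, 1, 1, 1], 1⟩, ⟨-1, 1, [3, 1, 1], 1⟩, ⟨1, 2, [1, 1, 1, 1, 0], 1⟩,
      ⟨2, 1, [2, 1, 1], 2⟩, ⟨1, 0, [3, 1], 2⟩, ⟨-1, 1, [1, 1, 1, 0], 2⟩,
      ⟨1, 2, [1, 1, 1, 1], 3⟩, ⟨2, 1, [2, 1], 4⟩, ⟨1, 0, [3], 4⟩, ⟨-1, 1, [1, 1, 0], 4⟩,
      ⟨-1, 1, [1, 1, 1], 5⟩, ⟨1, 0, [1, 1], 6⟩, ⟨-1, 1, [1, 1], 7⟩, ⟨1, 0, [1], 8⟩],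
    [⟨2, 1, [2, 2, 0], 0⟩, ⟨2, 0, [3, 0, 0], 0⟩, ⟨1, 1, [2, 2], 1⟩, ⟨2, 0, [3, 0], 1⟩,
      ⟨1, 0, [2, 0], 2⟩, ⟨2, 0, [3], 3⟩, ⟨1, 0, [0, 0], 4⟩, ⟨1, 0, [2], 5⟩, ⟨1, 0, [0], 7⟩],
    [⟨4, 2, [2, 2, 2], 0⟩, ⟨-4, 2, [2, 2, 1, 0], 0⟩, ⟨4, 1, [2, 3, 0], 0⟩,
      ⟨-4, 1, [3, 1, 0, 0], 0⟩, ⟨-2, 2, [2, 2, 1], 1⟩, ⟨2, 1, [2, 3], 1⟩,
      ⟨-4, 1, [3, 1, 0], 1⟩, ⟨3, 1, [2, 2], 2⟩, ⟨-2, 1, [2, 1, 0], 2⟩, ⟨1, 0, [3, 0], 2⟩,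
      ⟨-4, 1, [3, 1], 3⟩, ⟨2, 1, [2, 0], 4⟩, ⟨-2, 1, [1, 0, 0], 4⟩, ⟨-2, 1, [2, 1], 5⟩,
      ⟨1, 0, [3], 5⟩, ⟨2, 0, [2], 6⟩, ⟨-2, 1, [1, 0], 7⟩, ⟨1, 0, [0], 8⟩, ⟨-2, 1, [1], 10⟩],
    [⟨4, 2, [2, 2, 2, 1], 0⟩, ⟨2, 1, [2, 2, 3], 0⟩, ⟨-2, 2, [2, 2, 1, 1, 0], 0⟩,
      ⟨4, 1, [2, 3, 1, 0], 0⟩, ⟨2, 0, [3, 3, 0], 0⟩, ⟨-2, 1, [3, 1, 1, 0, 0], 0⟩,
      ⟨-1, 2, [2, 2, 1, 1], 1⟩, ⟨2, 1, [2, 3, 1], 1⟩, ⟨1, 0, [3, 3], 1⟩,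
      ⟨-2, 1, [3, 1, 1, 0], 1⟩, ⟨3, 1, [2, 2, 1], 2⟩, ⟨1, 0, [2, 3], 2⟩,
      ⟨-1, 1, [2, 1, 1, 0], 2⟩, ⟨1, 0, [3, 1, 0], 2⟩, ⟨-2, 1, [3, 1, 1], 3⟩, ⟨1, 1, [2, 2], 4⟩,
      ⟨2, 1, [2, 1, 0], 4⟩, ⟨2, 0, [3, 0], 4⟩, ⟨-1, 1, [1, 1, 0, 0], 4⟩, ⟨-1, 1, [2, 1, 1], 5⟩,
      ⟨1, 0, [3, 1], 5⟩, ⟨2, 0, [2, 1], 6⟩, ⟨1, 0, [3], 7⟩, ⟨-1, 1, [1, 1, 0], 7⟩,
      ⟨1, 0, [2], 8⟩, ⟨1, 0, [1, 0], 8⟩, ⟨2, 0, [0], 9⟩, ⟨-1, 1, [1, 1], 10⟩, ⟨1, 0, [1], 11⟩],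
    [⟨1, 2, [2, 2, 2, 2], 0⟩, ⟨2, 1, [2, 2, 3, 0], 0⟩, ⟨1, 0, [3, 3, 0, 0], 0⟩,
      ⟨1, 1, [2, 2, 3], 1⟩, ⟨1, 0, [3, 3, 0], 1⟩, ⟨1, 1, [2, 2, 2], 2⟩, ⟨1, 0, [2, 3, 0], 2⟩,
      ⟨1, 0, [3, 3], 3⟩, ⟨1, 1, [2, 2, 0], 4⟩, ⟨1, 0, [3, 0, 0], 4⟩, ⟨1, 0, [2, 3], 5⟩,
      ⟨1, 0, [2, 2], 6⟩, ⟨1, 0, [3, 0], 7⟩, ⟨1, 0, [2, 0], 8⟩, ⟨1, 0, [0, 0], 9⟩,
      ⟨1, 0, [3], 10⟩, ⟨1, 0, [2], 11⟩, ⟨1, 0, [0], 12⟩]]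

lemma tr_tms0 (κ : ℝ) (h : Fin 4 → ℝ) (w : Fin 14 → ℝ) :
    tr κ h w 0 = w 0 + ((tms 0).map (Tm.ev κ h w)).sum := by
  simp [tr0, tms]

lemma tr_tms1 (κ : ℝ) (h : Fin 4 → ℝ) (w : Fin 14 → ℝ) :
    tr κ h w 1 = w 1 + ((tms 1).map (Tm.ev κ h w)).sum := by
  have e : tms 1 = [⟨2, 0, [0], 0⟩] := rfl
  rw [e, tr1]
  simp only [List.map_cons, List.map_nil, List.sum_cons, List.sum_nil, Tm.ev, List.prod_cons,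
    List.prod_nil, Int.cast_neg, Int.cast_one, Int.cast_ofNat, pow_zero, pow_one, mul_one]
  ring

lemma tr_tms2 (κ : ℝ) (h : Fin 4 → ℝ) (w : Fin 14 → ℝ) :
    tr κ h w 2 = w 2 + ((tms 2).map (Tm.ev κ h w)).sum := by
  have e : tms 2 = [⟨4, 1, [2], 0⟩, ⟨-4, 1, [1, 0], 0⟩, ⟨-2, 1, [1], 1⟩] := rfl
  rw [e, tr2]
  simp only [List.map_cons, List.map_nil, List.sum_cons, List.sum_nil, Tm.ev, List.prod_cons,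
    List.prod_nil, Int.cast_neg, Int.cast_one, Int.cast_ofNat, pow_zero, pow_one, mul_one]
  ring

lemma tr_tms3 (κ : ℝ) (h : Fin 4 → ℝ) (w : Fin 14 → ℝ) :
    tr κ h w 3 = w 3 + ((tms 3).map (Tm.ev κ h w)).sum := by
  have e : tms 3 = [⟨1, 0, [0, 0], 0⟩, ⟨1, 0, [0], 1⟩] := rfl
  rw [e, tr3]
  simp only [List.map_cons, List.map_nil, List.sum_cons, List.sum_nil, Tm.ev, List.prod_cons,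
    List.prod_nil, Int.cast_neg, Int.cast_one, Int.cast_ofNat, pow_zero, pow_one, mul_one]
  ring

lemma tr_tms4 (κ : ℝ) (h : Fin 4 → ℝ) (w : Fin 14 → ℝ) :
    tr κ h w 4 = w 4 + ((tms 4).map (Tm.ev κ h w)).sum := by
  have e : tms 4 = [⟨4, 1, [2, 1], 0⟩, ⟨2, 0, [3], 0⟩, ⟨-2, 1, [1, 1, 0], 0⟩, ⟨-1, 1, [1, 1], 1⟩, ⟨1, 0, [1], 2⟩] := rfl
  rw [e, tr4]
  simp only [List.map_cons, List.map_nil, List.sum_cons, List.sum_nil, Tm.ev, List.prod_cons,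
    List.prod_nil, Int.cast_neg, Int.cast_one, Int.cast_ofNat, pow_zero, pow_one, mul_one]
  ring

lemma tr_tms5 (κ : ℝ) (h : Fin 4 → ℝ) (w : Fin 14 → ℝ) :
    tr κ h w 5 = w 5 + ((tms 5).map (Tm.ev κ h w)).sum := by
  have e : tms 5 = [⟨4, 1, [2, 0], 0⟩, ⟨-4, 1, [1, 0, 0], 0⟩, ⟨2, 1, [2], 1⟩, ⟨-4, 1, [1, 0], 1⟩, ⟨1, 0, [0], 2⟩, ⟨-4, 1, [1], 3⟩] := rfl
  rw [e, tr5]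
  simp only [List.map_cons, List.map_nil, List.sum_cons, List.sum_nil, Tm.ev, List.prod_cons,
    List.prod_nil, Int.cast_neg, Int.cast_one, Int.cast_ofNat, pow_zero, pow_one, mul_one]
  ring

lemma tr_tms6 (κ : ℝ) (h : Fin 4 → ℝ) (w : Fin 14 → ℝ) :
    tr κ h w 6 = w 6 + ((tms 6).map (Tm.ev κ h w)).sum := by
  have e : tms 6 = [⟨6, 2, [2, 2], 0⟩, ⟨-8, 2, [2, 1, 0], 0⟩, ⟨2, 1, [3, 0], 0⟩, ⟨4, 2, [1, 1, 0, 0], 0⟩, ⟨-4, 2, [2, 1], 1⟩, ⟨1, 1, [3], 1⟩, ⟨4, 2, [1, 1, 0], 1⟩, ⟨3, 1, [2], 2⟩, ⟨-2, 1, [1, 0], 2⟩, ⟨4, 2, [1, 1], 3⟩, ⟨1, 1, [0], 4⟩, ⟨-2, 1, [1], 5⟩] := rfl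
  rw [e, tr6]
  simp only [List.map_cons, List.map_nil, List.sum_cons, List.sum_nil, Tm.ev, List.prod_cons,
    List.prod_nil, Int.cast_neg, Int.cast_one, Int.cast_ofNat, pow_zero, pow_one, mul_one]
  ring

lemma tr_tms7 (κ : ℝ) (h : Fin 4 → ℝ) (w : Fin 14 → ℝ) :
    tr κ h w 7 = w 7 + ((tms 7).map (Tm.ev κ h w)).sum := by
  have e : tms 7 = [⟨2, 1, [2, 2], 0⟩, ⟨4, 1, [2, 1, 0], 0⟩, ⟨4, 0, [3, 0], 0⟩, ⟨-2, 1, [1, 1, 0, 0], 0⟩, ⟨2, 1, [2, 1], 1⟩, ⟨2, 0, [3], 1⟩, ⟨-2, 1, [1, 1, 0], 1⟩, ⟨1, 0, [2], 2⟩, ⟨1, 0, [1, 0], 2⟩, ⟨-2, 1, [1, 1], 3⟩, ⟨2, 0, [0], 4⟩, ⟨1, 0, [1], 5⟩] := rfl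
  rw [e, tr7]
  simp only [List.map_cons, List.map_nil, List.sum_cons, List.sum_nil, Tm.ev, List.prod_cons,
    List.prod_nil, Int.cast_neg, Int.cast_one, Int.cast_ofNat, pow_zero, pow_one, mul_one]
  ring

lemma tr_tms8 (κ : ℝ) (h : Fin 4 → ℝ) (w : Fin 14 → ℝ) :
    tr κ h w 8 = w 8 + ((tms 8).map (Tm.ev κ h w)).sum := by
  have e : tms 8 = [⟨8, 2, [2, 2, 1], 0⟩, ⟨4, 1, [2, 3], 0⟩, ⟨-12, 2, [2, 1, 1, 0], 0⟩, ⟨-4, 1, [3, 1, 0], 0⟩, ⟨4, 2, [1, 1, 1, 0, 0], 0⟩, ⟨-6, 2, [2, 1, 1], 1⟩, ⟨-2, 1, [3, 1], 1⟩, ⟨4, 2, [1, 1, 1, 0], 1⟩, ⟨4, 1, [2, 1], 2⟩, ⟨1, 0, [3], 2⟩, ⟨-3, 1, [1, 1, 0], 2⟩, ⟨4, 2, [1, 1, 1], 3⟩, ⟨2, 1, [2], 4⟩, ⟨-2, 1, [1, 0], 4⟩, ⟨-3, 1, [1, 1], 5⟩, ⟨2, 0, [1], 6⟩, ⟨-2, 1, [1], 7⟩] := rfl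
  rw [e, tr8]
  simp only [List.map_cons, List.map_nil, List.sum_cons, List.sum_nil, Tm.ev, List.prod_cons,
    List.prod_nil, Int.cast_neg, Int.cast_one, Int.cast_ofNat, pow_zero, pow_one, mul_one]
  ring

lemma tr_tms9 (κ : ℝ) (h : Fin 4 → ℝ) (w : Fin 14 → ℝ) :
    tr κ h w 9 = w 9 + ((tms 9).map (Tm.ev κ h w)).sum := by
  have e : tms 9 = [⟨4, 2, [2, 2, 1, 1], 0⟩, ⟨4, 1, [2, 3, 1], 0⟩, ⟨-4, 2, [2, 1, 1, 1, 0], 0⟩, ⟨1, 0, [3, 3], 0⟩, ⟨-2, 1, [3, 1, 1, 0], 0⟩, ⟨1, 2, [1, 1, 1, 1, 0, 0], 0⟩, ⟨-2, 2, [2, 1, 1, 1], 1⟩, ⟨-1, 1, [3, 1, 1], 1⟩, ⟨1, 2, [1, 1, 1, 1, 0], 1⟩, ⟨2, 1, [2, 1, 1], 2⟩, ⟨1, 0, [3, 1], 2⟩, ⟨-1, 1, [1, 1, 1, 0], 2⟩, ⟨1, 2, [1, 1, 1, 1], 3⟩, ⟨2, 1, [2, 1], 4⟩, ⟨1, 0, [3], 4⟩, ⟨-1, 1, [1, 1, 0], 4⟩, ⟨-1,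 1, [1, 1, 1], 5⟩, ⟨1, 0, [1, 1], 6⟩, ⟨-1, 1, [1, 1], 7⟩, ⟨1, 0, [1], 8⟩] := rfl
  rw [e, tr9]
  simp only [List.map_cons, List.map_nil, List.sum_cons, List.sum_nil, Tm.ev, List.prod_cons,
    List.prod_nil, Int.cast_neg, Int.cast_one, Int.cast_ofNat, pow_zero, pow_one, mul_one]
  ring

lemma tr_tms10 (κ : ℝ) (h : Fin 4 → ℝ) (w : Fin 14 → ℝ) :
    tr κ h w 10 = w 10 + ((tms 10).map (Tm.ev κ h w)).sum := by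
  have e : tms 10 = [⟨2, 1, [2, 2, 0], 0⟩, ⟨2, 0, [3, 0, 0], 0⟩, ⟨1, 1, [2, 2], 1⟩, ⟨2, 0, [3, 0], 1⟩, ⟨1, 0, [2, 0], 2⟩, ⟨2, 0, [3], 3⟩, ⟨1, 0, [0, 0], 4⟩, ⟨1, 0, [2], 5⟩, ⟨1, 0, [0], 7⟩] := rfl
  rw [e, tr10]
  simp only [List.map_cons, List.map_nil, List.sum_cons, List.sum_nil, Tm.ev, List.prod_cons,
    List.prod_nil, Int.cast_neg, Int.cast_one, Int.cast_ofNat, pow_zero, pow_one, mul_one]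
  ring

lemma tr_tms11 (κ : ℝ) (h : Fin 4 → ℝ) (w : Fin 14 → ℝ) :
    tr κ h w 11 = w 11 + ((tms 11).map (Tm.ev κ h w)).sum := by
  have e : tms 11 = [⟨4, 2, [2, 2, 2], 0⟩, ⟨-4, 2, [2, 2, 1, 0], 0⟩, ⟨4, 1, [2, 3, 0], 0⟩, ⟨-4, 1, [3, 1, 0, 0], 0⟩, ⟨-2, 2, [2, 2, 1], 1⟩, ⟨2, 1, [2, 3], 1⟩, ⟨-4, 1, [3, 1, 0], 1⟩, ⟨3, 1, [2, 2], 2⟩, ⟨-2, 1, [2, 1, 0], 2⟩, ⟨1, 0, [3, 0], 2⟩, ⟨-4, 1, [3, 1], 3⟩, ⟨2, 1, [2, 0], 4⟩, ⟨-2, 1, [1, 0, 0], 4⟩, ⟨-2, 1, [2, 1], 5⟩, ⟨1, 0, [3], 5⟩, ⟨2, 0, [2], 6⟩, ⟨-2, 1, [1, 0], 7⟩, ⟨1, 0, [0], 8⟩, ⟨-2, 1, [1], 10⟩] := rfl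
  rw [e, tr11]
  simp only [List.map_cons, List.map_nil, List.sum_cons, List.sum_nil, Tm.ev, List.prod_cons,
    List.prod_nil, Int.cast_neg, Int.cast_one, Int.cast_ofNat, pow_zero, pow_one, mul_one]
  ring

lemma tr_tms12 (κ : ℝ) (h : Fin 4 → ℝ) (w : Fin 14 → ℝ) :
    tr κ h w 12 = w 12 + ((tms 12).map (Tm.ev κ h w)).sum := by
  have e : tms 12 = [⟨4, 2, [2, 2, 2, 1], 0⟩, ⟨2, 1, [2, 2, 3], 0⟩, ⟨-2, 2, [2, 2, 1, 1, 0], 0⟩, ⟨4, 1, [2, 3, 1, 0], 0⟩, ⟨2, 0, [3, 3, 0], 0⟩, ⟨-2, 1, [3, 1, 1, 0, 0], 0⟩, ⟨-1, 2, [2, 2, 1, 1], 1⟩, ⟨2, 1, [2, 3, 1], 1⟩, ⟨1, 0, [3, 3], 1⟩, ⟨-2, 1, [3, 1, 1, 0], 1⟩, ⟨3, 1, [2, 2, 1], 2⟩, ⟨1, 0, [2, 3], 2⟩, ⟨-1, 1, [2, 1, 1, 0], 2⟩, ⟨1, 0, [3, 1, 0], 2⟩, ⟨-2, 1, [3, 1, 1], 3⟩, ⟨1, 1, [2, 2], 4⟩,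 ⟨2, 1, [2, 1, 0], 4⟩, ⟨2, 0, [3, 0], 4⟩, ⟨-1, 1, [1, 1, 0, 0], 4⟩, ⟨-1, 1, [2, 1, 1], 5⟩, ⟨1, 0, [3, 1], 5⟩, ⟨2, 0, [2, 1], 6⟩, ⟨1, 0, [3], 7⟩, ⟨-1, 1, [1, 1, 0], 7⟩, ⟨1, 0, [2], 8⟩, ⟨1, 0, [1, 0], 8⟩, ⟨2, 0, [0], 9⟩, ⟨-1, 1, [1, 1], 10⟩, ⟨1, 0, [1], 11⟩] := rfl
  rw [e, tr12]
  simp only [List.map_cons, List.map_nil, List.sum_cons, List.sum_nil, Tm.ev, List.prod_cons,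
    List.prod_nil, Int.cast_neg, Int.cast_one, Int.cast_ofNat, pow_zero, pow_one, mul_one]
  ring

lemma tr_tms13 (κ : ℝ) (h : Fin 4 → ℝ) (w : Fin 14 → ℝ) :
    tr κ h w 13 = w 13 + ((tms 13).map (Tm.ev κ h w)).sum := by
  have e : tms 13 = [⟨1, 2, [2, 2, 2, 2], 0⟩, ⟨2, 1, [2, 2, 3, 0], 0⟩, ⟨1, 0, [3, 3, 0, 0], 0⟩, ⟨1, 1, [2, 2, 3], 1⟩, ⟨1, 0, [3, 3, 0], 1⟩, ⟨1, 1, [2, 2, 2], 2⟩, ⟨1, 0, [2, 3, 0], 2⟩, ⟨1, 0, [3, 3], 3⟩, ⟨1, 1, [2, 2, 0], 4⟩, ⟨1, 0, [3, 0, 0], 4⟩, ⟨1, 0, [2, 3], 5⟩, ⟨1, 0, [2, 2], 6⟩, ⟨1, 0, [3, 0], 7⟩, ⟨1, 0, [2, 0], 8⟩, ⟨1, 0, [0, 0], 9⟩, ⟨1, 0, [3], 10⟩, ⟨1, 0, [2], 11⟩, ⟨1, 0, [0], 12⟩] := rfl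
  rw [e, tr13]
  simp only [List.map_cons, List.map_nil, List.sum_cons, List.sum_nil, Tm.ev, List.prod_cons,
    List.prod_nil, Int.cast_neg, Int.cast_one, Int.cast_ofNat, pow_zero, pow_one, mul_one]
  ring

theorem tr_tms (κ : ℝ) (h : Fin 4 → ℝ) (w : Fin 14 → ℝ) (q : Fin 14) :
    tr κ h w q = w q + ((tms q).map (Tm.ev κ h w)).sum := by
  fin_cases q
  · exact tr_tms0 κ h w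
  · exact tr_tms1 κ h w
  · exact tr_tms2 κ h w
  · exact tr_tms3 κ h w
  · exact tr_tms4 κ h w
  · exact tr_tms5 κ h w
  · exact tr_tms6 κ h w
  · exact tr_tms7 κ h w
  · exact tr_tms8 κ h w
  · exact tr_tms9 κ h w
  · exact tr_tms10 κ h w
  · exact tr_tms11 κ h w
  · exact tr_tms12 κ h w
  · exact tr_tms13 κ h w

end Crest.Agent.R136.NetW191
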