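import Crest.Agent.R136.NetW1_191

/-!
# The W-chart (helper191), part 5: values of the flags

`evY w z A B Y` = value of the quadratic polynomial with coefficients `w`.
`ht κ z A B Y = Y - zB - κA²` (height over `Q0`) is invariant under the frames;
`evY_tr` : the coefficients `tr κ h w` give the same polynomial in the frame `h`, up to
`lamY κ h w * ht`.
-/

set_option autoImplicit false

namespace Crest.Agent.R136.NetW191

/-- value of a flag -/
def evY (w : Fin 14 → ℝ) (z A B Y : ℝ) : ℝ :=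
  w 0 * Y ^ 2 + w 1 * (B * Y) + w 2 * (A * Y) + w 3 * B ^ 2 + w 4 * (z * Y) + w 5 * (A * B) +
    w 6 * A ^ 2 + w 7 * (z * B) + w 8 * (z * A) + w 9 * z ^ 2 + w 10 * B + w 11 * A + w 12 * z +
    w 13

/-- height over `Q0` -/
def ht (κ z A B Y : ℝ) : ℝ := Y - z * B - κ * A ^ 2

/-- true coordinates from coordinates in the frame `h` -/
def fz (h : Fin 4 → ℝ) (z : ℝ) : ℝ := z + h 0
/-- `A` -/
def fA (h : Fin 4 → ℝ) (z A : ℝ) : ℝ := A + h 1 * z + h 2
/-- `B` -/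
def fB (κ : ℝ) (h : Fin 4 → ℝ) (z A B : ℝ) : ℝ := B - 2 * κ * h 1 * A - κ * h 1 ^ 2 * z + h 3
/-- `Y` -/
def fY (κ : ℝ) (h : Fin 4 → ℝ) (z A B Y : ℝ) : ℝ :=
  Y + h 0 * B + 2 * κ * (h 2 - h 1 * h 0) * A +
    (h 3 + 2 * κ * h 2 * h 1 - κ * h 1 ^ 2 * h 0) * z + (κ * h 2 ^ 2 + h 0 * h 3)

/-- **the height is invariant** -/
theorem ht_inv (κ : ℝ) (h : Fin 4 → ℝ) (z A B Y : ℝ) :
    ht κ (fz h z) (fA h z A) (fB κ h z A B) (fY κ h z A B Y) = ht κ z A B Y := by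
  simp only [ht, fz, fA, fB, fY]
  ring

/-- coefficient of the linear term `Y` which is eliminated -/
def lamY (κ : ℝ) (h : Fin 4 → ℝ) (w : Fin 14 → ℝ) : ℝ :=
  2 * (κ * h 2 ^ 2 + h 0 * h 3) * w 0 + h 3 * w 1 + h 2 * w 2 + h 0 * w 4

/-- **values in the frame `h`** -/
theorem evY_tr (κ : ℝ) (h : Fin 4 → ℝ) (w : Fin 14 → ℝ) (z A B Y : ℝ) :
    evY (tr κ h w) z A B Y = evY w (fz h z) (fA h z A) (fB κ h z A B) (fY κ h z A B Y) -
      lamY κ h w * ht κ z A B Y := by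
  simp only [evY, tr0, tr1, tr2, tr3, tr4, tr5, tr6, tr7, tr8, tr9, tr10, tr11, tr12, tr13,
    fz, fA, fB, fY, lamY, ht]
  ring

/-- composition of the coordinate changes -/
theorem fz_mul (κ : ℝ) (g h : Fin 4 → ℝ) (z : ℝ) : fz (mul κ g h) z = fz g (fz h z) := by
  simp only [fz, mul0]; ring

theorem fA_mul (κ : ℝ) (g h : Fin 4 → ℝ) (z A : ℝ) :
    fA (mul κ g h) z A = fA g (fz h z) (fA h z A) := by
  simp only [fz, fA, mul1, mul2]; ring

theorem fB_mul (κ : ℝ) (g h : Fin 4 → ℝ) (z A B : ℝ) :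
    fB κ (mul κ g h) z A B = fB κ g (fz h z) (fA h z A) (fB κ h z A B) := by
  simp only [fz, fA, fB, mul1, mul3]; ring

theorem fY_mul (κ : ℝ) (g h : Fin 4 → ℝ) (z A B Y : ℝ) :
    fY κ (mul κ g h) z A B Y =
      fY κ g (fz h z) (fA h z A) (fB κ h z A B) (fY κ h z A B Y) := by
  simp only [fz, fA, fB, fY, mul0, mul1, mul2, mul3]; ring

end Crest.Agent.R136.NetW191
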