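import Crest.Agent.R136.Mxd_615

/-!
# R136 (U4, PLAN 2 (AL), mixed curvatures): algebra of 2-jets (helper28)

* `jet_of_box`, `jet_of_box'` : a function of the class bounded by `B` on a box (heights on one side
  of the base height) has a jet `≤ 200 B`.
* `jet_scale` : change of the unit of the normal coordinate.
* `tg_chg`, `lf_chg2`, `th_chg` : gradient and Hessian of the restriction in an adapted chart.
-/

set_option autoImplicit false
set_option linter.unusedVariables false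

namespace Crest.Agent.R136.Nj28

open Crest.Agent.R136.Rk601
open Crest.Agent.R136.Mxc615 (chg)
open Crest.Agent.R136.Sh605 (V3 IsQ)
open Crest.Agent.R136.Tl102 (cmb)

set_option maxHeartbeats 4000000 in
/-- values at the heights `0`, `σ / 2`, `σ` bound the jet -/
theorem jet_box_aux {q : ℝ → V3 → ℝ} {f : Fin 3 → V3} {V : V3} {z : ℝ} {X : V3} {ρ B σ : ℝ}
    {J : Jt} (h : JetAt q f V z X ρ J) (hs : J.Sym) (hσ : σ = 1 / 2 ∨ σ = -(1 / 2))
    (hB : ∀ y s u v : ℝ, |y| ≤ 1 → |u| ≤ 1 → |v| ≤ 1 → (s = 0 ∨ s = σ / 2 ∨ s = σ) →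
      |q (z + ρ * s) (X + (ρ * s) • V + cmb f ![y, u, v])| ≤ B) :
    |J.a0| ≤ 200 * B ∧ (∀ i, |J.a i| ≤ 200 * B) ∧ |J.h00| ≤ 200 * B ∧
      (∀ i, |J.h0 i| ≤ 200 * B) ∧ ∀ i j, |J.h i j| ≤ 200 * B := by
  have i0 : |(0 : ℝ)| ≤ 1 := by norm_num
  have i1 : |(1 : ℝ)| ≤ 1 := by norm_num
  have im : |(-1 : ℝ)| ≤ 1 := by norm_num
  have c0 : (0 : ℝ) = 0 ∨ (0 : ℝ) = σ / 2 ∨ (0 : ℝ) = σ := Or.inl rfl
  have c1 : σ / 2 = 0 ∨ σ / 2 = σ / 2 ∨ σ / 2 = σ := Or.inr (Or.inl rfl)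
  have c2 : σ = 0 ∨ σ = σ / 2 ∨ σ = σ := Or.inr (Or.inr rfl)
  have key : ∀ y s u v : ℝ, |y| ≤ 1 → |u| ≤ 1 → |v| ≤ 1 → (s = 0 ∨ s = σ / 2 ∨ s = σ) →
      |q z X + J.a0 * y + dp J.a ![s, u, v] +
      1 / 2 * (J.h00 * y ^ 2 + 2 * y * dp J.h0 ![s, u, v] + qf J.h ![s, u, v])| ≤ B := by
    intro y s u v h1 h2 h3 h4
    rw [← h y s u v]
    exact hB y s u v h1 h2 h3 h4
  simp only [dp, qf, Fin.sum_univ_three, Matrix.cons_val, abs_le] at key
  have s10 := hs 1 0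
  have s20 := hs 2 0
  have s21 := hs 2 1
  have o := key 0 0 0 0 (by simp) (by simp) (by simp) c0
  have y1 := key 1 0 0 0 (by simp) (by simp) (by simp) c0
  have y2 := key (-1) 0 0 0 (by simp) (by simp) (by simp) c0
  have u1 := key 0 0 1 0 (by simp) (by simp) (by simp) c0
  have u2 := key 0 0 (-1) 0 (by simp) (by simp) (by simp) c0
  have v1 := key 0 0 0 1 (by simp) (by simp) (by simp) c0
  have v2 := key 0 0 0 (-1) (by simp) (by simp) (by simp) c0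
  have yu := key 1 0 1 0 (by simp) (by simp) (by simp) c0
  have yv := key 1 0 0 1 (by simp) (by simp) (by simp) c0
  have uv := key 0 0 1 1 (by simp) (by simp) (by simp) c0
  have z1 := key 0 (σ / 2) 0 0 (by simp) (by simp) (by simp) c1
  have z2 := key 0 σ 0 0 (by simp) (by simp) (by simp) c2
  have yz := key 1 σ 0 0 (by simp) (by simp) (by simp) c2
  have zu := key 0 σ 1 0 (by simp) (by simp) (by simp) c2
  have zv := key 0 σ 0 1 (by simp) (by simp) (by simp) c2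
  clear key hB h
  obtain ⟨a0, a, h00, h0, hh⟩ := J
  clear hs i0 i1 im c0 c1 c2
  simp only at *
  rcases hσ with hσ | hσ <;> subst hσ <;> norm_num at o y1 y2 u1 u2 v1 v2 yu yv uv z1 z2 yz zu zv
  all_goals
    refine ⟨abs_le.2 ⟨by linarith, by linarith⟩, fun i => ?_, abs_le.2 ⟨by linarith, by linarith⟩,
      fun i => ?_, fun i j => ?_⟩
    · fin_cases i <;> simp only [Fin.zero_eta, Fin.mk_one, Fin.reduceFinMk] <;>
        exact abs_le.2 ⟨by linarith, by linarith⟩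
    · fin_cases i <;> simp only [Fin.zero_eta, Fin.mk_one, Fin.reduceFinMk] <;>
        exact abs_le.2 ⟨by linarith, by linarith⟩
    · fin_cases i <;> fin_cases j <;> simp only [Fin.zero_eta, Fin.mk_one, Fin.reduceFinMk] <;>
        exact abs_le.2 ⟨by linarith, by linarith⟩

/-- **bounded on a box (heights `[0, 1/2]` after the base height) ⊢ bounded jet** -/
theorem jet_of_box {q : ℝ → V3 → ℝ} {f : Fin 3 → V3} {V : V3} {z : ℝ} {X : V3} {ρ B : ℝ}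
    {J : Jt} (h : JetAt q f V z X ρ J) (hs : J.Sym)
    (hB : ∀ y s u v : ℝ, |y| ≤ 1 → 0 ≤ s → s ≤ 1 / 2 → |u| ≤ 1 → |v| ≤ 1 →
      |q (z + ρ * s) (X + (ρ * s) • V + cmb f ![y, u, v])| ≤ B) :
    |J.a0| ≤ 200 * B ∧ (∀ i, |J.a i| ≤ 200 * B) ∧ |J.h00| ≤ 200 * B ∧
      (∀ i, |J.h0 i| ≤ 200 * B) ∧ ∀ i j, |J.h i j| ≤ 200 * B := by
  refine jet_box_aux h hs (Or.inl rfl) fun y s u v h1 h2 h3 h4 => ?_
  refine hB y s u v h1 ?_ ?_ h2 h3 <;> rcases h4 with h4 | h4 | h4 <;> rw [h4] <;> norm_num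

/-- **bounded on a box (heights `[-1/2, 0]`) ⊢ bounded jet** -/
theorem jet_of_box' {q : ℝ → V3 → ℝ} {f : Fin 3 → V3} {V : V3} {z : ℝ} {X : V3} {ρ B : ℝ}
    {J : Jt} (h : JetAt q f V z X ρ J) (hs : J.Sym)
    (hB : ∀ y s u v : ℝ, |y| ≤ 1 → -(1 / 2) ≤ s → s ≤ 0 → |u| ≤ 1 → |v| ≤ 1 →
      |q (z + ρ * s) (X + (ρ * s) • V + cmb f ![y, u, v])| ≤ B) :
    |J.a0| ≤ 200 * B ∧ (∀ i, |J.a i| ≤ 200 * B) ∧ |J.h00| ≤ 200 * B ∧
      (∀ i, |J.h0 i| ≤ 200 * B) ∧ ∀ i j, |J.h i j| ≤ 200 * B := by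
  refine jet_box_aux h hs (Or.inr rfl) fun y s u v h1 h2 h3 h4 => ?_
  refine hB y s u v h1 ?_ ?_ h2 h3 <;> rcases h4 with h4 | h4 | h4 <;> rw [h4] <;> norm_num

/-- the jet in the chart with the normal unit multiplied by `θ` -/
def Jt.sc (θ : ℝ) (J : Jt) : Jt := ⟨θ * J.a0, J.a, θ ^ 2 * J.h00, fun i => θ * J.h0 i, J.h⟩

/-- **change of the unit of the normal coordinate** -/
theorem jet_scale {q : ℝ → V3 → ℝ} {e f1 f2 : V3} {V : V3} {z : ℝ} {X : V3} {ρ μ θ : ℝ}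
    {J : Jt} (h : JetAt q ![μ • e, f1, f2] V z X ρ J) :
    JetAt q ![(θ * μ) • e, f1, f2] V z X ρ ⟨θ * J.a0, J.a, θ ^ 2 * J.h00, fun i => θ * J.h0 i, J.h⟩ := by
  intro y ζ u v
  have h1 := h (θ * y) ζ u v
  have e1 : cmb ![(θ * μ) • e, f1, f2] ![y, u, v] = cmb ![μ • e, f1, f2] ![θ * y, u, v] := by
    funext i
    simp only [cmb, Pi.add_apply, Pi.smul_apply, smul_eq_mul, Matrix.cons_val]
    ring
  rw [e1, h1]
  simp only [dp, qf, Fin.sum_univ_three, Matrix.cons_val]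
  ring

theorem sc_sym {θ : ℝ} {J : Jt} (hs : J.Sym) :
    (⟨θ * J.a0, J.a, θ ^ 2 * J.h00, fun i => θ * J.h0 i, J.h⟩ : Jt).Sym := fun i j => hs i j

section

variable {q P : Jt} {A : Fin 3 → V3} {D : V3} {A00 s1 s2 t1 t2 d : ℝ}

/-- **gradient of the restriction in an adapted chart** -/
theorem tg_chg (hq : q.a0 ≠ 0) (hA : A00 ≠ 0) (A0 : A 0 = ![A00, 0, 0]) (A1 : A 1 = ![s1, t1, 0])
    (A2 : A 2 = ![s2, 0, t2]) (hD : D = ![d, 0, 0]) (i : Fin 3) :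
    tg (chg q A D) (chg P A D) i = (![1, t1, t2] : Fin 3 → ℝ) i * tg q P i := by
  fin_cases i
  · simp only [tg, chg, A0, A1, A2, hD, Matrix.cons_val, Matrix.cons_val_zero,
      Matrix.cons_val_one, Fin.zero_eta, Fin.mk_one, Fin.reduceFinMk]
    field_simp
    ring
  · simp only [tg, chg, A0, A1, A2, hD, Matrix.cons_val, Matrix.cons_val_zero,
      Matrix.cons_val_one, Fin.zero_eta, Fin.mk_one, Fin.reduceFinMk]
    field_simp
    ring
  · simp only [tg, chg, A0, A1, A2, hD, Matrix.cons_val, Matrix.cons_val_zero,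
      Matrix.cons_val_one, Fin.zero_eta, Fin.mk_one, Fin.reduceFinMk]
    field_simp
    ring

/-- slopes in an adapted chart -/
theorem sl_chg (hq : q.a0 ≠ 0) (hA : A00 ≠ 0) (A0 : A 0 = ![A00, 0, 0]) (A1 : A 1 = ![s1, t1, 0])
    (A2 : A 2 = ![s2, 0, t2]) (hD : D = ![d, 0, 0]) (i : Fin 3) :
    sl (chg q A D) i * A00 = (![1, t1, t2] : Fin 3 → ℝ) i * sl q i - (![d, s1, s2] : Fin 3 → ℝ) i := by
  fin_cases i <;>
  · simp only [sl, chg, A0, A1, A2, hD, Matrix.cons_val, Matrix.cons_val_zero,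
      Matrix.cons_val_one, Fin.zero_eta, Fin.mk_one, Fin.reduceFinMk]
    field_simp
    ring

/-- Hessian of `P` along the graph of `q` in an adapted chart -/
theorem lf_chg2 (hq : q.a0 ≠ 0) (hA : A00 ≠ 0) (A0 : A 0 = ![A00, 0, 0]) (A1 : A 1 = ![s1, t1, 0])
    (A2 : A 2 = ![s2, 0, t2]) (hD : D = ![d, 0, 0]) (hP : P.Sym) (i j : Fin 3) :
    lf (chg P A D) (sl (chg q A D)) i j =
      (![1, t1, t2] : Fin 3 → ℝ) i * (![1, t1, t2] : Fin 3 → ℝ) j * lf P (sl q) i j := by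
  have h0 := sl_chg hq hA A0 A1 A2 hD 0
  have h1 := sl_chg hq hA A0 A1 A2 hD 1
  have h2 := sl_chg hq hA A0 A1 A2 hD 2
  simp only [Matrix.cons_val_zero, Matrix.cons_val_one, Matrix.cons_val] at h0 h1 h2
  generalize sl (chg q A D) = S at h0 h1 h2 ⊢
  have p10 := hP 1 0
  have p20 := hP 2 0
  have p21 := hP 2 1
  have g0 : sl q 0 = S 0 * A00 + d := by linarith
  have g1 : t1 * sl q 1 = S 1 * A00 + s1 := by linarith
  have g2 : t2 * sl q 2 = S 2 * A00 + s2 := by linarith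
  fin_cases i <;> fin_cases j <;>
    simp only [lf, chg, A0, A1, A2, hD, Matrix.cons_val, Matrix.cons_val_zero,
      Matrix.cons_val_one, Fin.zero_eta, Fin.mk_one, Fin.reduceFinMk, reduceIte, one_ne_zero,
      Fin.isValue, Fin.reduceEq, p10, p20, p21, g0]
  · ring
  · linear_combination (-(P.h0 0) - P.h00 * (S 0 * A00 + d)) * g1
  · linear_combination (-(P.h0 0) - P.h00 * (S 0 * A00 + d)) * g2
  · linear_combination (-(P.h0 0) - P.h00 * (S 0 * A00 + d)) * g1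
  · linear_combination (-(2 * t1 * P.h0 1) - P.h00 * (t1 * sl q 1 + (S 1 * A00 + s1))) * g1
  · linear_combination (-(t2 * P.h0 2) - P.h00 * (t2 * sl q 2)) * g1 +
      (-(t1 * P.h0 1) - P.h00 * (S 1 * A00 + s1)) * g2
  · linear_combination (-(P.h0 0) - P.h00 * (S 0 * A00 + d)) * g2
  · linear_combination (-(t2 * P.h0 2) - P.h00 * (t2 * sl q 2)) * g1 +
      (-(t1 * P.h0 1) - P.h00 * (S 1 * A00 + s1)) * g2
  · linear_combination (-(2 * t2 * P.h0 2) - P.h00 * (t2 * sl q 2 + (S 2 * A00 + s2))) * g2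

/-- **Hessian of the restriction in an adapted chart** -/
theorem th_chg (hq : q.a0 ≠ 0) (hA : A00 ≠ 0) (A0 : A 0 = ![A00, 0, 0]) (A1 : A 1 = ![s1, t1, 0])
    (A2 : A 2 = ![s2, 0, t2]) (hD : D = ![d, 0, 0]) (hsq : q.Sym) (hP : P.Sym) (i j : Fin 3) :
    th (chg q A D) (chg P A D) i j =
      (![1, t1, t2] : Fin 3 → ℝ) i * (![1, t1, t2] : Fin 3 → ℝ) j * th q P i j := by
  have h1 := lf_chg2 hq hA A0 A1 A2 hD hP i j
  have h2 := lf_chg2 hq hA A0 A1 A2 hD hsq i j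
  have h3 : (chg P A D).a0 / (chg q A D).a0 = P.a0 / q.a0 := by
    simp only [chg, A0, Matrix.cons_val_zero, Matrix.cons_val_one, Matrix.cons_val, mul_zero,
      add_zero]
    field_simp
  rw [th, h1, h2, h3, th]
  ring

end

end Crest.Agent.R136.Nj28
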