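import Crest.Agent.R138.Norm3_70

/-!
# R136, NORM-4: the chart-free combinatorial half (helper953)

Objects = pairs (line, top cell) in `I : Finset (Λ × κ)`, classes `g : Λ × κ → β`.

* `dims`: a dense part of `I` all of whose classes have the same (finitely valued) datum `dim`.
* `comb`: if for every pair of cells few lines have two disagreeing marks (`T i j j'`), choose one
  cell `φ i` per line; if every class sees at most `K2` labels of lines which agree with it, there
  is a dense part with ONE label.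
"dense" = own counts and class counts lose at most the stated factor.
-/

set_option autoImplicit false
set_option linter.unusedVariables false

open Finset

namespace Crest.Agent.R136.Nm953

open Crest.Agent.R138.Norm70

noncomputable section

open Classical in
/-- `I'` is a `K`-dense part of `I`: own counts and class counts lose at most the factor `K` -/
structure Dens {Λ κ β : Type*} (g : Λ × κ → β) (K : ℝ) (I' I : Finset (Λ × κ)) : Prop where
  sub : I' ⊆ I
  ne : I'.Nonempty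
  own : ∀ x ∈ I', ((I.filter fun y => y.1 = x.1).card : ℝ) ≤
    K * ((I'.filter fun y => y.1 = x.1).card : ℝ)
  cls : ∀ x ∈ I', ((I.filter fun y => g y = g x).card : ℝ) ≤
    K * ((I'.filter fun y => g y = g x).card : ℝ)

section

variable {Λ κ β γ : Type*} {g : Λ × κ → β}

theorem Dens.trans {K K' : ℝ} {I I' I'' : Finset (Λ × κ)} (h : Dens g K I' I)
    (h' : Dens g K' I'' I') (hK : 0 ≤ K) : Dens g (K * K') I'' I := by
  classical
  refine ⟨h'.sub.trans h.sub, h'.ne, fun x hx => ?_, fun x hx => ?_⟩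
  · have h1 := h.own x (h'.sub hx)
    have h2 := h'.own x hx
    rw [mul_assoc]
    exact h1.trans (mul_le_mul_of_nonneg_left h2 hK)
  · have h1 := h.cls x (h'.sub hx)
    have h2 := h'.cls x hx
    rw [mul_assoc]
    exact h1.trans (mul_le_mul_of_nonneg_left h2 hK)

theorem Dens.mono {K K' : ℝ} {I I' : Finset (Λ × κ)} (h : Dens g K I' I) (hK : K ≤ K') :
    Dens g K' I' I := by
  classical
  exact ⟨h.sub, h.ne,
    fun x hx => (h.own x hx).trans (mul_le_mul_of_nonneg_right hK (Nat.cast_nonneg _)),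
    fun x hx => (h.cls x hx).trans (mul_le_mul_of_nonneg_right hK (Nat.cast_nonneg _))⟩

theorem Dens.refl {I : Finset (Λ × κ)} (h : I.Nonempty) : Dens g 1 I I :=
  ⟨subset_rfl, h, fun x _ => by rw [one_mul], fun x _ => by rw [one_mul]⟩

/-- pruning: a large subset contains a dense part -/
theorem prune {I A0 : Finset (Λ × κ)} (hA0 : A0 ⊆ I) (hI : I.Nonempty) {K : ℝ} (hK : 0 < K)
    (hc : (I.card : ℝ) ≤ K * (A0.card : ℝ)) : ∃ A ⊆ A0, Dens g (4 * K) A I := by
  classical
  have hIc : (0:ℝ) < (I.card : ℝ) := by exact_mod_cast card_pos.2 hI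
  obtain ⟨A, hA, h1, h2, h3⟩ := prune_rel I A0 hA0 (Prod.fst : Λ × κ → Λ) g
    (δ := 1 / (4 * K)) (by positivity)
  have hne : A.Nonempty := by
    rw [← card_pos]
    have e1 : 2 * (1 / (4 * K)) * (I.card : ℝ) ≤ (A0.card : ℝ) / 2 := by
      have : 2 * (1 / (4 * K)) * (I.card : ℝ) = (I.card : ℝ) / (2 * K) := by field_simp; ring
      rw [this, div_le_iff₀ (by positivity)]; linarith
    have e2 : (0:ℝ) < (A0.card : ℝ) := by
      by_contra hc'
      have : K * (A0.card : ℝ) ≤ 0 := mul_nonpos_of_nonneg_of_nonpos hK.le (not_lt.1 hc')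
      linarith
    have : (0:ℝ) < (A.card : ℝ) := by linarith
    exact_mod_cast this
  refine ⟨A, hA, hA.trans hA0, hne, fun x hx => ?_, fun x hx => ?_⟩
  · have := h2 x hx
    rw [div_mul_eq_mul_div, one_mul, div_le_iff₀ (by positivity)] at this
    have e : ((A.filter fun y => y.1 = x.1).card : ℝ) * (4 * K) =
      4 * K * ((A.filter fun y => y.1 = x.1).card : ℝ) := by ring
    rw [e] at this
    convert this
  · have := h3 x hx
    rw [div_mul_eq_mul_div, one_mul, div_le_iff₀ (by positivity)] at this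
    have e : ((A.filter fun y => g y = g x).card : ℝ) * (4 * K) =
      4 * K * ((A.filter fun y => g y = g x).card : ℝ) := by ring
    rw [e] at this
    convert this

/-- **common data of the classes**: `dim` takes at most `K` values on `I` -/
theorem dims (I : Finset (Λ × κ)) (hI : I.Nonempty) (dim : Λ × κ → γ) (t : Finset γ)
    (ht : ∀ x ∈ I, dim x ∈ t) {K : ℕ} (hK : t.card ≤ K) :
    ∃ A, Dens g (4 * K) A I ∧ ∃ d, ∀ x ∈ A, dim x = d := by
  classical
  obtain ⟨y, hy⟩ := pigeon (K := K) I hI dim t ht hK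
  have hKp : 0 < K := by
    obtain ⟨x, hx⟩ := hI
    exact lt_of_lt_of_le (card_pos.2 ⟨_, ht x hx⟩) hK
  obtain ⟨A, hA, h⟩ := prune (g := g) (filter_subset (fun a => dim a = y) I) hI
    (K := (K : ℝ)) (by exact_mod_cast hKp) hy
  exact ⟨A, h, y, fun x hx => (mem_filter.1 (hA hx)).2⟩

/-- **flags, labels, one label.** -/
theorem comb (I : Finset (Λ × κ)) (hI : I.Nonempty) (T : Λ → κ → κ → Prop) {K N n1 : ℝ}
    (hK : 0 ≤ K)
    (hT : by classical exact ∀ j j', (((sl I j).filter fun i => (i, j') ∈ I ∧ T i j j').card : ℝ) ≤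
      K * ((sl I j).card : ℝ))
    (hN : by classical exact ((I.image Prod.snd).card : ℝ) ≤ N) (hn1 : 0 < n1)
    (hn : by classical exact ∀ x ∈ I, n1 ≤ ((I.filter fun y => y.1 = x.1).card : ℝ))
    (hs : 4 * (K * N) ≤ n1)
    (lab : (Λ → κ) → Λ → γ) {K2 : ℕ}
    (hlab : ∀ φ : Λ → κ, (∀ x ∈ I, (x.1, φ x.1) ∈ I) → ∀ x ∈ I, ¬ T x.1 (φ x.1) x.2 →
      ∃ t : Finset γ, t.card ≤ K2 ∧
        ∀ z ∈ I, g z = g x → ¬ T z.1 (φ z.1) z.2 → lab φ z.1 ∈ t) :
    ∃ φ : Λ → κ, (∀ x ∈ I, (x.1, φ x.1) ∈ I) ∧ ∃ I', Dens g (6 * K2) I' I ∧ ∃ y,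
      ∀ x ∈ I', ¬ T x.1 (φ x.1) x.2 ∧ lab φ x.1 = y := by
  classical
  obtain ⟨φ, f1, f2⟩ := choose_flag I hI T hK (by convert hT) (by convert hN) hn1 (by convert hn) hs
  refine ⟨φ, f1, ?_⟩
  have hIc : (0:ℝ) < (I.card : ℝ) := by exact_mod_cast card_pos.2 hI
  set A1 := I.filter fun x => ¬ T x.1 (φ x.1) x.2 with hA1
  have hA1c : (3 / 4 : ℝ) * (I.card : ℝ) ≤ (A1.card : ℝ) := by
    have h1 := card_filter_add_card_filter_not (s := I) (fun x => T x.1 (φ x.1) x.2)
    have h2 : ((I.filter fun x => T x.1 (φ x.1) x.2).card : ℝ) + (A1.card : ℝ) =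
        (I.card : ℝ) := by
      rw [hA1]; exact_mod_cast h1
    have h3 : 4 * ((I.filter fun x => T x.1 (φ x.1) x.2).card : ℝ) ≤ (I.card : ℝ) := by
      convert f2
    linarith
  have hA1ne : A1.Nonempty := by
    rw [← card_pos]
    have : (0:ℝ) < (A1.card : ℝ) := by linarith
    exact_mod_cast this
  haveI : Nonempty γ := ⟨lab φ hA1ne.choose.1⟩
  have hpop : ∀ x ∈ A1, ∃ y, ((A1.filter fun z => g z = g x).card : ℝ) ≤
      (K2 : ℝ) * ((A1.filter fun z => g z = g x ∧ lab φ z.1 = y).card : ℝ) := by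
    intro x hx
    have hx1 := mem_filter.1 hx
    obtain ⟨t, ht, htm⟩ := hlab φ f1 x hx1.1 hx1.2
    obtain ⟨y, hy⟩ := pigeon (K := K2) (A1.filter fun z => g z = g x)
      ⟨x, mem_filter.2 ⟨hx, rfl⟩⟩ (fun z => lab φ z.1) t
      (fun z hz => by
        obtain ⟨h1, h2⟩ := mem_filter.1 hz
        obtain ⟨h3, h4⟩ := mem_filter.1 h1
        exact htm z h3 h2 h4) ht
    refine ⟨y, hy.trans (le_of_eq ?_)⟩
    rw [filter_filter]
  obtain ⟨pop, hpop'⟩ := popular A1 g (fun z => lab φ z.1) hpop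
  set A2 := A1.filter fun z => lab φ z.1 = pop (g z) with hA2
  have hA2I : A2 ⊆ I := (filter_subset _ _).trans (filter_subset _ _)
  have hK2 : (0:ℝ) < K2 := by
    by_contra hc
    have h0 : (K2 : ℝ) = 0 := le_antisymm (not_lt.1 hc) (Nat.cast_nonneg _)
    rw [h0, zero_mul] at hpop'
    linarith
  obtain ⟨A, hA, hD⟩ := prune (g := g) hA2I hI (K := 3 / 2 * K2) (by positivity) (by
    have : (A1.card : ℝ) ≤ K2 * (A2.card : ℝ) := hpop'
    nlinarith)
  obtain ⟨x0, hx0⟩ := hD.ne
  refine ⟨A.filter fun x => lab φ x.1 = lab φ x0.1, ⟨(filter_subset _ _).trans hD.sub,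
    ⟨x0, mem_filter.2 ⟨hx0, rfl⟩⟩, fun x hx => ?_, fun x hx => ?_⟩, lab φ x0.1, fun x hx => ?_⟩
  · obtain ⟨hx1, hx2⟩ := mem_filter.1 hx
    have h1 := hD.own x hx1
    have h2 : (A.filter fun y => y.1 = x.1) ⊆
        (A.filter fun x => lab φ x.1 = lab φ x0.1).filter fun y => y.1 = x.1 := by
      intro y hy
      obtain ⟨hy1, hy2⟩ := mem_filter.1 hy
      refine mem_filter.2 ⟨mem_filter.2 ⟨hy1, ?_⟩, hy2⟩
      rw [hy2]; exact hx2
    have h3 : ((A.filter fun y => y.1 = x.1).card : ℝ) ≤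
        (((A.filter fun x => lab φ x.1 = lab φ x0.1).filter fun y => y.1 = x.1).card : ℝ) := by
      exact_mod_cast card_le_card h2
    have h4 : (4 * (3 / 2 * (K2 : ℝ))) = 6 * K2 := by ring
    rw [h4] at h1
    have h5 : 6 * (K2 : ℝ) * ((A.filter fun y => y.1 = x.1).card : ℝ) ≤ 6 * (K2 : ℝ) *
        (((A.filter fun x => lab φ x.1 = lab φ x0.1).filter fun y => y.1 = x.1).card : ℝ) :=
      mul_le_mul_of_nonneg_left h3 (by positivity)
    refine le_trans ?_ (h5.trans ?_)
    · convert h1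
    · convert le_rfl
  · obtain ⟨hx1, hx2⟩ := mem_filter.1 hx
    have h1 := hD.cls x hx1
    have h2 : (A.filter fun y => g y = g x) ⊆
        (A.filter fun x => lab φ x.1 = lab φ x0.1).filter fun y => g y = g x := by
      intro y hy
      obtain ⟨hy1, hy2⟩ := mem_filter.1 hy
      refine mem_filter.2 ⟨mem_filter.2 ⟨hy1, ?_⟩, hy2⟩
      have h4 := (mem_filter.1 (hA hy1)).2
      have h5 := (mem_filter.1 (hA hx1)).2
      rw [h4, hy2, ← h5]; exact hx2
    have h3 : ((A.filter fun y => g y = g x).card : ℝ) ≤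
        (((A.filter fun x => lab φ x.1 = lab φ x0.1).filter fun y => g y = g x).card : ℝ) := by
      exact_mod_cast card_le_card h2
    have h4 : (4 * (3 / 2 * (K2 : ℝ))) = 6 * K2 := by ring
    rw [h4] at h1
    have h5 : 6 * (K2 : ℝ) * ((A.filter fun y => g y = g x).card : ℝ) ≤ 6 * (K2 : ℝ) *
        (((A.filter fun x => lab φ x.1 = lab φ x0.1).filter fun y => g y = g x).card : ℝ) :=
      mul_le_mul_of_nonneg_left h3 (by positivity)
    refine le_trans ?_ (h5.trans ?_)
    · convert h1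
    · convert le_rfl
  · obtain ⟨hx1, hx2⟩ := mem_filter.1 hx
    have h1 := mem_filter.1 (mem_filter.1 (hA hx1)).1
    exact ⟨h1.2, hx2⟩

end

end

end Crest.Agent.R136.Nm953
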