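import Crest.Agent.R136.Nm1_953
import Crest.Agent.R136.KDef6_879

/-!
# R136, NORM-4: restriction of a configuration to a dense part of its top objects (helper953)

`tob F` = the top objects of `F`; `F.res A h' D0' K` = the incidences whose top object lies in `A`,
with `D1 / K`.  `Ok6.res`: if `A` is a `K`-dense part of `tob F` (`Nm953.Dens` for the classes
`F.cl`), the marks of `A` are legal for the smaller class `Leg'`, and the densities of the levels
`m + h < i ≤ m + h'` are bounded by `D0'`, the restriction is a valid configuration for `Leg'`.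
-/

set_option autoImplicit false
set_option linter.unusedVariables false

open Finset

namespace Crest.Agent.R136.Nm953

open Sh605 KS879 En879 K4

noncomputable section

open Classical in
/-- the top objects -/
def tob (F : Cf4) : Finset (Ln4 × ℤ) := F.I.image (ob4 F.top)

theorem mem_tob {F : Cf4} {o : Ln4 × ℤ} : o ∈ tob F ↔ ∃ x ∈ F.I, ob4 F.top x = o := by
  classical
  unfold tob; rw [mem_image]

open Classical in
/-- incidences whose top object lies in `A` -/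
def resI (F : Cf4) (A : Finset (Ln4 × ℤ)) : Finset (Ln4 × ℝ) :=
  F.I.filter fun x => ob4 F.top x ∈ A

/-- restriction of the configuration to `A` -/
def res (F : Cf6) (A : Finset (Ln4 × ℤ)) (h' : ℕ) (D0' K : ℝ) : Cf6 where
  m := F.m
  M := F.M
  r := F.r
  Λm := F.Λm
  I := resI F.toCf4 A
  cl := F.cl
  K := F.K
  D0 := D0'
  D1 := F.D1 / K
  h := h'

variable {Leg Leg' : ℕ → ℝ → ℝ → Plk4 → Prop} {q : Fin 3 → ℝ} {F : Cf6}

theorem ob4_eq_iff {m : ℕ} {x y : Ln4 × ℝ} (h : zc4 m x.2 = zc4 m y.2) :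
    ob4 m x = ob4 m y ↔ x.1 = y.1 := by
  unfold ob4
  rw [Prod.mk.injEq]
  exact ⟨fun h1 => h1.1, fun h1 => ⟨h1, h⟩⟩

open Classical in
theorem tob_res {A : Finset (Ln4 × ℤ)} (hA : A ⊆ tob F.toCf4) :
    (resI F.toCf4 A).image (ob4 F.top) = A := by
  ext o
  rw [mem_image]
  constructor
  · rintro ⟨x, hx, rfl⟩
    exact (mem_filter.1 hx).2
  · intro ho
    obtain ⟨x, hx, rfl⟩ := mem_tob.1 (hA ho)
    exact ⟨x, mem_filter.2 ⟨hx, ho⟩, rfl⟩

open Classical in
/-- own cells = objects of the same line -/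
theorem ownc4_eq {I : Finset (Ln4 × ℝ)} {m t : ℕ}
    (hc : ∀ x ∈ I, ∀ y ∈ I, zc4 m x.2 = zc4 m y.2) {x : Ln4 × ℝ} (hx : x ∈ I) :
    ownc4 m t I x = (((I.image (ob4 t)).filter fun o => o.1 = x.1).card) := by
  unfold ownc4
  congr 1
  ext o
  rw [mem_image, mem_filter, mem_image]
  constructor
  · rintro ⟨y, hy, rfl⟩
    rw [mem_filter] at hy
    exact ⟨⟨y, hy.1, rfl⟩, (ob4_eq_iff (hc y hy.1 x hx)).1 hy.2⟩
  · rintro ⟨⟨y, hy, rfl⟩, h1⟩
    exact ⟨y, mem_filter.2 ⟨hy, (ob4_eq_iff (hc y hy x hx)).2 h1⟩, rfl⟩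

open Classical in
theorem own_tob (h : Ok6 Leg q F) {o : Ln4 × ℤ} (ho : o ∈ tob F.toCf4) :
    2 ^ (F.M + 20) ≤ 2 ^ F.h * (((tob F.toCf4).filter fun o' => o'.1 = o.1).card) := by
  obtain ⟨x, hx, rfl⟩ := mem_tob.1 ho
  have h1 := h.own x hx
  rw [ownc4_eq h.cell hx] at h1
  have h2 : (ob4 F.top x).1 = x.1 := rfl
  rw [h2]
  unfold tob
  convert h1

open Classical in
theorem low_tob (h : Ok5 Leg q F.toCf4) {o : Ln4 × ℤ} (ho : o ∈ tob F.toCf4) :
    F.D1 * cap5 q F.top (F.K (F.cl o)) ≤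
      (((tob F.toCf4).filter fun o' => F.cl o' = F.cl o).card : ℝ) := by
  obtain ⟨x, hx, rfl⟩ := mem_tob.1 ho
  have h1 := h.low x hx
  unfold Cf4.cls at h1
  unfold tob
  convert h1

theorem resI_sub (A : Finset (Ln4 × ℤ)) : resI F.toCf4 A ⊆ F.I := by
  classical
  exact filter_subset _ _

theorem objs4_mono {i : ℕ} {I' I : Finset (Ln4 × ℝ)} (h : I' ⊆ I) (K : Plk4) :
    objs4 i I' K ⊆ objs4 i I K := by
  classical
  unfold objs4
  exact filter_subset_filter _ (image_subset_image h)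

/-- **restriction to a dense part of the top objects** -/
theorem ok6_res (h : Ok6 Leg q F) {A : Finset (Ln4 × ℤ)} {K D0' : ℝ} {h' : ℕ}
    (hA : Dens F.cl K A (tob F.toCf4)) (hK : 0 < K)
    (hmark : ∀ o ∈ A, Leg' F.top F.r F.Λm (F.K (F.cl o)))
    (hleg : ∀ i S, F.m ≤ i → i ≤ F.m + F.h → Leg' i F.r F.Λm S → Leg i F.r F.Λm S)
    (hcap : ∀ i S, F.m ≤ i → i ≤ F.m + h' → Leg' i F.r F.Λm S → 0 ≤ cap5 q i S)
    (hh : F.h ≤ h') (hhM : h' ≤ F.M) (hKh : K * 2 ^ F.h ≤ 2 ^ h') (hD : F.D0 ≤ D0')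
    (hups : ∀ i, F.m + F.h < i → i ≤ F.m + h' → ∀ S, Leg' i F.r F.Λm S →
      ((objs4 i (resI F.toCf4 A) S).card : ℝ) ≤ D0' * cap5 q i S) :
    Ok6 Leg' q (res F A h' D0' K) := by
  classical
  have hIsub := resI_sub (F := F) A
  have hups0 : ∀ i, F.m ≤ i → i ≤ F.m + h' → ∀ S, Leg' i F.r F.Λm S →
      ((objs4 i (resI F.toCf4 A) S).card : ℝ) ≤ D0' * cap5 q i S := by
    intro i h1 h2 S hS
    by_cases hi : i ≤ F.m + F.h
    · have h3 := h.ups i h1 hi S (hleg i S h1 hi hS)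
      have h4 : ((objs4 i (resI F.toCf4 A) S).card : ℝ) ≤ ((objs4 i F.I S).card : ℝ) := by
        exact_mod_cast card_le_card (objs4_mono hIsub S)
      exact h4.trans (h3.trans (mul_le_mul_of_nonneg_right hD (hcap i S h1 h2 hS)))
    · exact hups i (not_le.1 hi) h2 S hS
  have hmemA : ∀ x ∈ resI F.toCf4 A, ob4 F.top x ∈ A := fun x hx => (mem_filter.1 hx).2
  refine
    { M1 := h.M1, r0 := h.r0, rle := h.rle, Λ1 := h.Λ1, ne := ?_, cell := ?_, D1p := ?_,
      legal := ?_, mem := ?_, low := ?_, up := ?_, h20 := h.h20.trans hh, hM := hhM,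
      ups := hups0, own := ?_ }
  · obtain ⟨o, ho⟩ := hA.ne
    obtain ⟨x, hx, rfl⟩ := mem_tob.1 (hA.sub ho)
    exact ⟨x, mem_filter.2 ⟨hx, ho⟩⟩
  · exact fun x hx y hy => h.cell x (hIsub hx) y (hIsub hy)
  · exact div_pos h.D1p hK
  · exact fun x hx => hmark _ (hmemA x hx)
  · exact fun x hx => h.mem x (hIsub hx)
  · intro x hx
    have ho := hmemA x hx
    have h1 := low_tob h.toOk5 (hA.sub ho)
    have h2 := hA.cls _ ho
    have h3 : ((res F A h' D0' K).toCf4.cls x).card =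
        (A.filter fun y => F.cl y = F.cl (ob4 F.top x)).card := by
      unfold Cf4.cls
      have : (res F A h' D0' K).I.image (ob4 (res F A h' D0' K).top) = A := tob_res hA.sub
      rw [this]
      rfl
    rw [h3]
    show F.D1 / K * cap5 q F.top (F.K (F.cl (ob4 F.top x))) ≤ _
    rw [div_mul_eq_mul_div, div_le_iff₀ hK, mul_comm _ K]
    refine h1.trans (le_trans (le_of_eq ?_) (h2.trans (le_of_eq ?_)))
    · congr!
    · congr!
  · intro S hS
    exact hups0 F.m le_rfl (Nat.le_add_right _ _) S hS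
  · intro x hx
    have ho := hmemA x hx
    have h1 := own_tob h (hA.sub ho)
    have h2 := hA.own _ ho
    have hc : ∀ x ∈ resI F.toCf4 A, ∀ y ∈ resI F.toCf4 A, zc4 F.m x.2 = zc4 F.m y.2 :=
      fun x hx y hy => h.cell x (hIsub hx) y (hIsub hy)
    have h3 : ownc4 F.m F.top (resI F.toCf4 A) x =
        (A.filter fun o => o.1 = (ob4 F.top x).1).card := by
      rw [ownc4_eq hc hx, tob_res hA.sub]
      rfl
    show 2 ^ (F.M + 20) ≤ 2 ^ h' * ownc4 F.m F.top (resI F.toCf4 A) x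
    rw [h3]
    have h4 : ((2 ^ (F.M + 20) : ℕ) : ℝ) ≤
        ((2 ^ h' * (A.filter fun o => o.1 = (ob4 F.top x).1).card : ℕ) : ℝ) := by
      have h5 : ((2 ^ (F.M + 20) : ℕ) : ℝ) ≤ ((2 ^ F.h *
          ((tob F.toCf4).filter fun o' => o'.1 = (ob4 F.top x).1).card : ℕ) : ℝ) := by
        exact_mod_cast h1
      refine h5.trans ?_
      push_cast
      have h6 : (((tob F.toCf4).filter fun o' => o'.1 = (ob4 F.top x).1).card : ℝ) ≤
          K * ((A.filter fun o => o.1 = (ob4 F.top x).1).card : ℝ) := by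
        convert h2
      calc (2:ℝ) ^ F.h * (((tob F.toCf4).filter fun o' => o'.1 = (ob4 F.top x).1).card : ℝ)
          ≤ 2 ^ F.h * (K * ((A.filter fun o => o.1 = (ob4 F.top x).1).card : ℝ)) := by gcongr
        _ = (K * 2 ^ F.h) * ((A.filter fun o => o.1 = (ob4 F.top x).1).card : ℝ) := by ring
        _ ≤ 2 ^ h' * ((A.filter fun o => o.1 = (ob4 F.top x).1).card : ℝ) := by gcongr
    exact_mod_cast h4

/-- value of the restriction -/
theorem val_res {A : Finset (Ln4 × ℤ)} {K D0' : ℝ} {h' : ℕ} (hD1 : 0 < F.D1) (hD0 : 0 < F.D0)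
    (hK : 0 < K) (hD0' : 0 < D0') :
    (res F A h' D0' K).toCf4.val =
      F.toCf4.val - (Real.logb 2 K + Real.logb 2 (D0' / F.D0)) / F.M := by
  unfold Cf4.val
  show Real.logb 2 (F.D1 / K / D0') / F.M = _
  rw [Real.logb_div (by positivity) hD0'.ne', Real.logb_div hD1.ne' hK.ne',
    Real.logb_div hD1.ne' hD0.ne', Real.logb_div hD0'.ne' hD0.ne']
  ring

/-- admissibility of the restriction -/
theorem adm_res {δ δ' : ℝ} {A : Finset (Ln4 × ℤ)} {K D0' : ℝ} {h' : ℕ} (h : Adm6 δ F)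
    (hA : (resI F.toCf4 A).Nonempty) (hd : δ ≤ δ') (hh : (h' : ℝ) ≤ δ' * F.M) :
    Adm6 δ' (res F A h' D0' K) := by
  have h1 := h.mono hd
  refine ⟨hh, ?_, h1.res, h1.slope, fun x hx => h1.vel x (resI_sub A hx)⟩
  refine le_trans ?_ h1.size
  show Real.logb 2 ((resI F.toCf4 A).card : ℝ) ≤ _
  have hc : (0:ℝ) < ((resI F.toCf4 A).card : ℝ) := by exact_mod_cast card_pos.2 hA
  exact Real.logb_le_logb_of_le (by norm_num) hc (by exact_mod_cast card_le_card (resI_sub A))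

end

end Crest.Agent.R136.Nm953
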