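import Crest.Agent.R136.Nm2_953
import Crest.Agent.R136.KDef7_879

/-!
# R136, NORM-4: consumer over `Cf7` (helper953)

* `dims7`   : a dense part `A` of the top objects whose marks have common widths (up to 2);
* `res7`    : restriction to `A` with a new container `KC'` and a new resolution `wr'`;
* `ok7_res`, `inC_res` : validity and class of the restriction; `wrN` = the new resolution.
-/

set_option autoImplicit false
set_option linter.unusedVariables false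

open Finset

namespace Crest.Agent.R136.Nm953

open Sh605 KS879 En879 K4

noncomputable section

variable {Leg : ℕ → ℝ → ℝ → Plk4 → Prop} {q : Fin 3 → ℝ} {F : Cf7} {κ C : ℝ}

/-- mark of a top object -/
def mk7 (F : Cf7) (o : Ln4 × ℤ) : Plk4 := F.K (F.cl o)

theorem mk7_T (F : Cf7) (x : Ln4 × ℝ) : F.T x = wd (mk7 F (ob4 F.top x)) := rfl

theorem legal7 (h : Ok7 Leg q F) {o : Ln4 × ℤ} (ho : o ∈ tob F.toCf4) :
    LegR Leg F.wr (wd F.KC) F.top F.r F.Λm (mk7 F o) := by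
  obtain ⟨x, hx, rfl⟩ := mem_tob.1 ho
  exact h.ok.legal x hx

theorem mem7 (h : Ok7 Leg q F) {o : Ln4 × ℤ} (ho : o ∈ tob F.toCf4) :
    In4 F.top (mk7 F o) o := by
  obtain ⟨x, hx, rfl⟩ := mem_tob.1 ho
  exact h.ok.mem x hx

/-- dyadic index of `w` over `r` -/
def dy (r w : ℝ) : ℕ := ⌊Real.logb 2 (w / r)⌋₊

theorem dy_spec {r w : ℝ} (hr : 0 < r) (h : r ≤ w) :
    2 ^ dy r w * r ≤ w ∧ w ≤ 2 * (2 ^ dy r w * r) := by
  have hx : 1 ≤ w / r := by rw [le_div_iff₀ hr]; linarith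
  have hx0 : 0 < w / r := lt_of_lt_of_le one_pos hx
  have hl : 0 ≤ Real.logb 2 (w / r) := Real.logb_nonneg (by norm_num) hx
  have h1 := Nat.floor_le hl
  have h2 := (Nat.lt_floor_add_one (Real.logb 2 (w / r))).le
  have e : (2:ℝ) ^ Real.logb 2 (w / r) = w / r :=
    Real.rpow_logb (by norm_num) (by norm_num) hx0
  constructor
  · rw [← le_div_iff₀ hr, ← e, ← Real.rpow_natCast]
    exact Real.rpow_le_rpow_of_exponent_le (by norm_num) h1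
  · rw [← mul_assoc, ← div_le_iff₀ hr, ← e]
    have : (2:ℝ) * 2 ^ dy r w = 2 ^ ((dy r w : ℝ) + 1) := by
      rw [Real.rpow_add (by norm_num), Real.rpow_one, Real.rpow_natCast]; ring
    rw [this]
    exact Real.rpow_le_rpow_of_exponent_le (by norm_num) h2

theorem dy_le {r w B : ℝ} (hr : 0 < r) (h : r ≤ w) (hB : w ≤ r * (2:ℝ) ^ B) (hB0 : 0 ≤ B) :
    dy r w ≤ ⌊B⌋₊ := by
  unfold dy
  refine Nat.floor_le_floor ?_
  have hx0 : 0 < w / r := div_pos (hr.trans_le h) hr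
  have h1 : w / r ≤ (2:ℝ) ^ B := by rw [div_le_iff₀ hr]; linarith
  calc Real.logb 2 (w / r) ≤ Real.logb 2 ((2:ℝ) ^ B) :=
        Real.logb_le_logb_of_le (by norm_num) hx0 h1
    _ = B := Real.logb_rpow (by norm_num) (by norm_num)

/-- **common widths** -/
theorem dims7 (h : Ok7 Leg q F) (hC : InC κ C F) (hκ : 0 ≤ (κ + 1) * C * F.M) :
    ∃ A, Dens F.cl (4 * ((⌊(κ + 1) * C * F.M⌋₊ + 1 : ℕ) : ℝ) ^ 3) A (tob F.toCf4) ∧
      ∃ t : Fin 3 → ℝ, (∀ k, F.wr k ≤ t k) ∧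
        ∀ o ∈ A, ∀ k, t k ≤ wd (mk7 F o) k ∧ wd (mk7 F o) k ≤ 2 * t k := by
  classical
  set B : ℕ := ⌊(κ + 1) * C * F.M⌋₊ with hB
  have hne : (tob F.toCf4).Nonempty := by
    obtain ⟨x, hx⟩ := h.ok.ne
    exact ⟨_, mem_tob.2 ⟨x, hx, rfl⟩⟩
  have hd : ∀ o ∈ tob F.toCf4, ∀ k, dy (F.wr k) (wd (mk7 F o) k) ≤ B := by
    intro o ho k
    obtain ⟨x, hx, rfl⟩ := mem_tob.1 ho
    exact dy_le (h.wrp k) ((legal7 h ho).2 k).1 (hC.low x hx k) hκ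
  obtain ⟨A, hA, d, hdA⟩ := dims (g := F.cl) (tob F.toCf4) hne
    (fun o => (dy (F.wr 0) (wd (mk7 F o) 0), dy (F.wr 1) (wd (mk7 F o) 1),
      dy (F.wr 2) (wd (mk7 F o) 2)))
    (range (B + 1) ×ˢ (range (B + 1) ×ˢ range (B + 1)))
    (fun o ho => by
      rw [mem_product, mem_product, mem_range, mem_range, mem_range]
      exact ⟨Nat.lt_succ_of_le (hd o ho 0), Nat.lt_succ_of_le (hd o ho 1),
        Nat.lt_succ_of_le (hd o ho 2)⟩)
    (K := (B + 1) ^ 3) (by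
      rw [card_product, card_product, card_range]
      exact le_of_eq (by ring))
  refine ⟨A, ?_, fun k => 2 ^ (![d.1, d.2.1, d.2.2] k) * F.wr k, fun k => ?_, ?_⟩
  · have : ((((B + 1) ^ 3 : ℕ)) : ℝ) = ((B + 1 : ℕ) : ℝ) ^ 3 := by push_cast; ring
    rw [this] at hA
    exact hA
  · have h1 : (1:ℝ) ≤ 2 ^ (![d.1, d.2.1, d.2.2] k) := one_le_pow₀ (by norm_num)
    have h2 := (h.wrp k).le
    nlinarith
  · intro o ho k
    have h1 := hdA o ho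
    have h2 : dy (F.wr k) (wd (mk7 F o) k) = ![d.1, d.2.1, d.2.2] k := by
      rw [← h1]
      fin_cases k <;> rfl
    have h3 := dy_spec (h.wrp k) ((legal7 h (hA.sub ho)).2 k).1
    rw [h2] at h3
    exact h3

/-- restriction with new container and resolution -/
def res7 (F : Cf7) (A : Finset (Ln4 × ℤ)) (h' : ℕ) (D0' K : ℝ) (KC' : Plk4)
    (wr' : Fin 3 → ℝ) : Cf7 :=
  { res F.toCf6 A h' D0' K with KC := KC', wr := wr' }

/-- **validity of the restriction** -/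
theorem ok7_res (h : Ok7 Leg q F) {A : Finset (Ln4 × ℤ)} {K D0' : ℝ} {h' : ℕ} {KC' : Plk4}
    {wr' : Fin 3 → ℝ} (hA : Dens F.cl K A (tob F.toCf4)) (hK : 0 < K)
    (hconL : Leg F.m F.r F.Λm KC') (hcon : ∀ x ∈ resI F.toCf4 A, In4 F.m KC' (ob4 F.m x))
    (hwr : ∀ k, F.wr k ≤ wr' k) (hc : ∀ k, wd KC' k ≤ wd F.KC k)
    (hmark : ∀ o ∈ A, ∀ k, wr' k ≤ wd (mk7 F o) k ∧ wd (mk7 F o) k ≤ wd KC' k)
    (hLeg : LegPos Leg)
    (hh : F.h ≤ h') (hhM : h' ≤ F.M) (hKh : K * 2 ^ F.h ≤ 2 ^ h') (hD : F.D0 ≤ D0')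
    (hups : ∀ i, F.m + F.h < i → i ≤ F.m + h' → ∀ S, LegR Leg wr' (wd KC') i F.r F.Λm S →
      ((objs4 i (resI F.toCf4 A) S).card : ℝ) ≤ D0' * cap5 q i S) :
    Ok7 Leg q (res7 F A h' D0' K KC' wr') := by
  have hl : ∀ i S, LegR Leg wr' (wd KC') i F.r F.Λm S →
      LegR Leg F.wr (wd F.KC) i F.r F.Λm S := fun i S hS =>
    ⟨hS.1, fun k => ⟨(hwr k).trans (hS.2 k).1, (hS.2 k).2.trans (hc k)⟩⟩
  refine ⟨?_, hconL, hcon, fun k => (h.wrp k).trans_le (hwr k)⟩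
  refine ok6_res (Leg' := LegR Leg wr' (wd KC')) h.ok hA hK
    (fun o ho => ⟨(legal7 h (hA.sub ho)).1, hmark o ho⟩)
    (fun i S _ _ hS => hl i S hS) (fun i S _ _ hS => ?_) hh hhM hKh hD hups
  obtain ⟨pa, p2, p1⟩ := hLeg _ _ _ _ h.ok.r0 hS.1
  unfold cap5
  positivity

/-- the new resolution -/
def wrN (F : Cf7) (t : Fin 3 → ℝ) (κ C0 : ℝ) (k : Fin 3) : ℝ :=
  max (F.wr k) (t k * (2:ℝ) ^ (-(κ * C0 * F.M)))

theorem wrN_ge (F : Cf7) (t : Fin 3 → ℝ) (κ C0 : ℝ) (k : Fin 3) : F.wr k ≤ wrN F t κ C0 k :=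
  le_max_left _ _

theorem wrN_le {t : Fin 3 → ℝ} {C0 : ℝ} {k : Fin 3} (ht : F.wr k ≤ t k) (ht0 : 0 ≤ t k)
    (hκ : 0 ≤ κ * C0 * F.M) : wrN F t κ C0 k ≤ t k := by
  refine max_le ht ?_
  have h1 : (2:ℝ) ^ (-(κ * C0 * F.M)) ≤ 1 :=
    Real.rpow_le_one_of_one_le_of_nonpos (by norm_num) (by linarith)
  nlinarith

/-- **class of the restriction** -/
theorem inC_res (h : Ok7 Leg q F) (hC : InC κ C F) {A : Finset (Ln4 × ℤ)} {K D0' : ℝ} {h' : ℕ}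
    {KC' : Plk4} {t : Fin 3 → ℝ} {C0 : ℝ} (hκ : 0 ≤ κ) (hC0 : 1 ≤ C0 * F.M) (hCC : C0 ≤ C)
    (ht : ∀ k, F.wr k ≤ t k) (htA : ∀ o ∈ A, ∀ k, t k ≤ wd (mk7 F o) k ∧ wd (mk7 F o) k ≤ 2 * t k)
    (hcon : ∀ o ∈ A, ∀ k, wd KC' k ≤ wd (mk7 F o) k * (2:ℝ) ^ (C0 * F.M))
    (hthk : ∀ o ∈ A, wd (mk7 F o) 0 * (2:ℝ) ^ (7 * (F.M : ℝ)) ≤ wd KC' 0 ∨ wd KC' 2 ≤ wd KC' 0) :
    InC κ C0 (res7 F A h' D0' K KC' (wrN F t κ C0)) := by
  classical
  have hM0 : (0:ℝ) ≤ F.M := Nat.cast_nonneg _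
  have ho : ∀ x ∈ resI F.toCf4 A, ob4 F.top x ∈ A := fun x hx => (mem_filter.1 hx).2
  have htp : ∀ k, 0 < t k := fun k => (h.wrp k).trans_le (ht k)
  refine ⟨?_, ?_, ?_, ?_⟩
  · intro x hx k
    exact hcon _ (ho x hx) k
  · intro x hx k hk
    have hxI : x ∈ F.I := resI_sub (F := F.toCf6) A hx
    show wrN F t κ C0 k * (2:ℝ) ^ (κ * C0 * F.M) ≤ wd (mk7 F (ob4 F.top x)) k
    have h1 := hC.mar x hxI k hk
    rw [mk7_T] at h1
    unfold wrN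
    rw [max_mul_of_nonneg _ _ (by positivity)]
    refine max_le ?_ ?_
    · refine le_trans ?_ h1
      refine mul_le_mul_of_nonneg_left ?_ (h.wrp k).le
      refine Real.rpow_le_rpow_of_exponent_le (by norm_num) ?_
      have : κ * C0 ≤ κ * C := mul_le_mul_of_nonneg_left hCC hκ
      exact mul_le_mul_of_nonneg_right this hM0
    · rw [mul_assoc, ← Real.rpow_add (by norm_num), neg_add_cancel, Real.rpow_zero, mul_one]
      exact (htA _ (ho x hx) k).1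
  · intro x hx k
    show wd (mk7 F (ob4 F.top x)) k ≤ wrN F t κ C0 k * (2:ℝ) ^ ((κ + 1) * C0 * F.M)
    have h1 := (htA _ (ho x hx) k).2
    refine h1.trans ?_
    have h2 : t k * (2:ℝ) ^ (-(κ * C0 * F.M)) * (2:ℝ) ^ ((κ + 1) * C0 * F.M) ≤
        wrN F t κ C0 k * (2:ℝ) ^ ((κ + 1) * C0 * F.M) :=
      mul_le_mul_of_nonneg_right (le_max_right _ _) (by positivity)
    refine le_trans ?_ h2
    rw [mul_assoc, ← Real.rpow_add (by norm_num)]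
    have e : -(κ * C0 * F.M) + (κ + 1) * C0 * F.M = C0 * F.M := by ring
    rw [e]
    have h3 : (2:ℝ) ≤ (2:ℝ) ^ (C0 * F.M) := by
      calc (2:ℝ) = (2:ℝ) ^ (1:ℝ) := (Real.rpow_one 2).symm
        _ ≤ _ := Real.rpow_le_rpow_of_exponent_le (by norm_num) hC0
    have := (htp k).le
    nlinarith
  · intro x hx
    exact hthk _ (ho x hx)

end

end Crest.Agent.R136.Nm953
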