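import Crest.Agent.R136.Nm1_953

/-!
# R136, NORM-4: flags, one sub-cell, one label (helper953)

`comb2` = `Nm953.comb` with a choice of ONE sub-cell: objects = (line, top cell), `sub j` = the
sub-cell of the top cell `j`.  `bad φ i s` : the flag `φ i` of the line `i` gives no container over
the sub-cell `s` (few objects); `lab φ i s` : label of the container of the line `i` over `s`.
Own counts lose `256 * K2 * N1`, class counts lose `16 * K2` (`N1` = number of sub-cells seen by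
one line, `K2` = number of labels seen by one class).
-/

set_option autoImplicit false
set_option linter.unusedVariables false

open Finset

namespace Crest.Agent.R136.Nm953

open Crest.Agent.R138.Norm70

noncomputable section

variable {Λ κ β γ σ : Type*} {g : Λ × κ → β}

open Classical in
/-- objects in small (line, sub-cell) fibres are few -/
theorem small_fib (I : Finset (Λ × κ)) (sub : κ → σ) {N1 : ℝ} (hN1 : 0 < N1)
    (hN : ∀ x ∈ I, (((I.filter fun y => y.1 = x.1).image fun y => sub y.2).card : ℝ) ≤ N1) :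
    16 * ((I.filter fun x => 16 * N1 * ((I.filter fun y => y.1 = x.1 ∧ sub y.2 = sub x.2).card : ℝ) <
      ((I.filter fun y => y.1 = x.1).card : ℝ)).card : ℝ) ≤ (I.card : ℝ) := by
  set P : Λ × κ → Prop := fun x =>
    16 * N1 * ((I.filter fun y => y.1 = x.1 ∧ sub y.2 = sub x.2).card : ℝ) <
      ((I.filter fun y => y.1 = x.1).card : ℝ) with hP
  have e1 : ((I.filter P).card : ℝ) =
      ∑ i ∈ I.image Prod.fst, (((I.filter P).filter fun y => y.1 = i).card : ℝ) := by
    rw [card_eq_sum_card_fiberwise (f := Prod.fst) (s := I.filter P) (t := I.image Prod.fst)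
      (fun x hx => mem_coe.2 (mem_image_of_mem _ (mem_filter.1 (mem_coe.1 hx)).1))]
    push_cast; rfl
  have e2 : (I.card : ℝ) =
      ∑ i ∈ I.image Prod.fst, ((I.filter fun y => y.1 = i).card : ℝ) := by
    rw [card_eq_sum_card_fiberwise (f := Prod.fst) (s := I) (t := I.image Prod.fst)
      (fun x hx => mem_coe.2 (mem_image_of_mem _ (mem_coe.1 hx)))]
    push_cast; rfl
  rw [e1, e2, mul_sum]
  refine sum_le_sum fun i hi => ?_
  obtain ⟨x0, hx0, rfl⟩ := mem_image.1 hi
  set S := (I.filter fun y => y.1 = x0.1).image fun y => sub y.2 with hS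
  have e3 : ((((I.filter P).filter fun y => y.1 = x0.1)).card : ℝ) =
      ∑ s ∈ S, ((((I.filter P).filter fun y => y.1 = x0.1).filter fun y => sub y.2 = s).card : ℝ) := by
    rw [card_eq_sum_card_fiberwise (f := fun y : Λ × κ => sub y.2)
      (s := (I.filter P).filter fun y => y.1 = x0.1) (t := S)
      (fun x hx => by
        obtain ⟨h1, h2⟩ := mem_filter.1 (mem_coe.1 hx)
        exact mem_coe.2 (mem_image.2 ⟨x, mem_filter.2 ⟨(mem_filter.1 h1).1, h2⟩, rfl⟩))]
    push_cast; rfl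
  rw [e3]
  have h4 : ∀ s ∈ S, ((((I.filter P).filter fun y => y.1 = x0.1).filter fun y => sub y.2 = s).card : ℝ)
      ≤ ((I.filter fun y => y.1 = x0.1).card : ℝ) / (16 * N1) := by
    intro s hs
    by_cases hne : (((I.filter P).filter fun y => y.1 = x0.1).filter fun y => sub y.2 = s).Nonempty
    · obtain ⟨z, hz⟩ := hne
      obtain ⟨h1, h2⟩ := mem_filter.1 hz
      obtain ⟨h3, h5⟩ := mem_filter.1 h1
      obtain ⟨h6, h7⟩ := mem_filter.1 h3
      have h7 : 16 * N1 * ((I.filter fun y => y.1 = z.1 ∧ sub y.2 = sub z.2).card : ℝ) <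
        ((I.filter fun y => y.1 = z.1).card : ℝ) := h7
      rw [h5, h2] at h7
      have h8 : (((I.filter P).filter fun y => y.1 = x0.1).filter fun y => sub y.2 = s).card ≤
          (I.filter fun y => y.1 = x0.1 ∧ sub y.2 = s).card := by
        refine card_le_card fun y hy => ?_
        obtain ⟨k1, k2⟩ := mem_filter.1 hy
        obtain ⟨k3, k4⟩ := mem_filter.1 k1
        exact mem_filter.2 ⟨(mem_filter.1 k3).1, k4, k2⟩
      rw [le_div_iff₀ (by positivity)]
      have h9 : ((((I.filter P).filter fun y => y.1 = x0.1).filter fun y => sub y.2 = s).card : ℝ) ≤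
          ((I.filter fun y => y.1 = x0.1 ∧ sub y.2 = s).card : ℝ) := by exact_mod_cast h8
      have h10 : ((((I.filter P).filter fun y => y.1 = x0.1).filter fun y => sub y.2 = s).card : ℝ) *
          (16 * N1) ≤ ((I.filter fun y => y.1 = x0.1 ∧ sub y.2 = s).card : ℝ) * (16 * N1) :=
        mul_le_mul_of_nonneg_right h9 (by positivity)
      linarith
    · rw [not_nonempty_iff_eq_empty] at hne
      rw [hne, card_empty, Nat.cast_zero]
      positivity
  have h5 : (S.card : ℝ) ≤ N1 := hN x0 hx0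
  calc 16 * ∑ s ∈ S, ((((I.filter P).filter fun y => y.1 = x0.1).filter fun y => sub y.2 = s).card : ℝ)
      ≤ 16 * ∑ s ∈ S, ((I.filter fun y => y.1 = x0.1).card : ℝ) / (16 * N1) := by
        gcongr with s hs
        exact h4 s hs
    _ = 16 * (S.card * (((I.filter fun y => y.1 = x0.1).card : ℝ) / (16 * N1))) := by
        rw [sum_const, nsmul_eq_mul]
    _ ≤ 16 * (N1 * (((I.filter fun y => y.1 = x0.1).card : ℝ) / (16 * N1))) := by gcongr
    _ = _ := by field_simp

/-- **flags, one sub-cell, one label.** -/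
theorem comb2 (I : Finset (Λ × κ)) (hI : I.Nonempty) (T : Λ → κ → κ → Prop) {K N n1 : ℝ}
    (hK : 0 ≤ K)
    (hT : by classical exact ∀ j j', (((sl I j).filter fun i => (i, j') ∈ I ∧ T i j j').card : ℝ) ≤
      K * ((sl I j).card : ℝ))
    (hN : by classical exact ((I.image Prod.snd).card : ℝ) ≤ N) (hn1 : 0 < n1)
    (hn : by classical exact ∀ x ∈ I, n1 ≤ ((I.filter fun y => y.1 = x.1).card : ℝ))
    (hs : 4 * (K * N) ≤ n1)
    (sub : κ → σ) (hg : ∀ x ∈ I, ∀ y ∈ I, g x = g y → sub x.2 = sub y.2)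
    {N1 : ℝ} (hN1 : 0 < N1)
    (hsub : by classical exact
      ∀ x ∈ I, (((I.filter fun y => y.1 = x.1).image fun y => sub y.2).card : ℝ) ≤ N1)
    (bad : (Λ → κ) → Λ → σ → Prop)
    (hbad : by classical exact ∀ φ : Λ → κ, (∀ x ∈ I, (x.1, φ x.1) ∈ I) →
      8 * ((I.filter fun x => bad φ x.1 (sub x.2)).card : ℝ) ≤ 3 * (I.card : ℝ))
    (lab : (Λ → κ) → Λ → σ → γ) {K2 : ℕ}
    (hlab : ∀ φ : Λ → κ, (∀ x ∈ I, (x.1, φ x.1) ∈ I) → ∀ x ∈ I, ¬ T x.1 (φ x.1) x.2 →
      ¬ bad φ x.1 (sub x.2) → ∃ t : Finset γ, t.card ≤ K2 ∧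
        ∀ z ∈ I, g z = g x → ¬ T z.1 (φ z.1) z.2 → ¬ bad φ z.1 (sub z.2) →
          lab φ z.1 (sub z.2) ∈ t) :
    by classical exact
    ∃ φ : Λ → κ, (∀ x ∈ I, (x.1, φ x.1) ∈ I) ∧ ∃ I' ⊆ I, I'.Nonempty ∧
      (∃ s y, ∀ x ∈ I', sub x.2 = s ∧ ¬ T x.1 (φ x.1) x.2 ∧ ¬ bad φ x.1 s ∧ lab φ x.1 s = y) ∧
      (∀ x ∈ I', ((I.filter fun y => y.1 = x.1).card : ℝ) ≤
        256 * K2 * N1 * ((I'.filter fun y => y.1 = x.1).card : ℝ)) ∧
      (∀ x ∈ I', ((I.filter fun y => g y = g x).card : ℝ) ≤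
        16 * K2 * ((I'.filter fun y => g y = g x).card : ℝ)) := by
  classical
  obtain ⟨φ, f1, f2⟩ := choose_flag I hI T hK (by convert hT) (by convert hN) hn1 (by convert hn) hs
  refine ⟨φ, f1, ?_⟩
  have hIc : (0:ℝ) < (I.card : ℝ) := by exact_mod_cast card_pos.2 hI
  set Sm : Λ × κ → Prop := fun x =>
    16 * N1 * ((I.filter fun y => y.1 = x.1 ∧ sub y.2 = sub x.2).card : ℝ) <
      ((I.filter fun y => y.1 = x.1).card : ℝ) with hSm
  have f3 : 16 * ((I.filter Sm).card : ℝ) ≤ (I.card : ℝ) :=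
    small_fib I sub hN1 (fun x hx => by convert hsub x hx)
  have f4 := hbad φ f1
  set A1 := I.filter fun x => ¬ T x.1 (φ x.1) x.2 ∧ ¬ bad φ x.1 (sub x.2) ∧ ¬ Sm x with hA1
  have hA1c : (5 / 16 : ℝ) * (I.card : ℝ) ≤ (A1.card : ℝ) := by
    have h1 : I ⊆ A1 ∪ ((I.filter fun x => T x.1 (φ x.1) x.2) ∪
        ((I.filter fun x => bad φ x.1 (sub x.2)) ∪ I.filter Sm)) := by
      intro x hx
      by_cases c1 : T x.1 (φ x.1) x.2
      · exact mem_union_right _ (mem_union_left _ (mem_filter.2 ⟨hx, c1⟩))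
      by_cases c2 : bad φ x.1 (sub x.2)
      · exact mem_union_right _ (mem_union_right _ (mem_union_left _ (mem_filter.2 ⟨hx, c2⟩)))
      by_cases c3 : Sm x
      · exact mem_union_right _ (mem_union_right _ (mem_union_right _ (mem_filter.2 ⟨hx, c3⟩)))
      · exact mem_union_left _ (mem_filter.2 ⟨hx, c1, c2, c3⟩)
    have h2 : I.card ≤ A1.card + ((I.filter fun x => T x.1 (φ x.1) x.2).card +
        ((I.filter fun x => bad φ x.1 (sub x.2)).card + (I.filter Sm).card)) :=
      (card_le_card h1).trans ((card_union_le _ _).trans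
        (Nat.add_le_add_left ((card_union_le _ _).trans
          (Nat.add_le_add_left (card_union_le _ _) _)) _))
    have h3 : (I.card : ℝ) ≤ A1.card + (((I.filter fun x => T x.1 (φ x.1) x.2).card : ℝ) +
        (((I.filter fun x => bad φ x.1 (sub x.2)).card : ℝ) + ((I.filter Sm).card : ℝ))) := by
      exact_mod_cast h2
    have f2' : 4 * ((I.filter fun x => T x.1 (φ x.1) x.2).card : ℝ) ≤ (I.card : ℝ) := by
      convert f2
    have f4' : 8 * ((I.filter fun x => bad φ x.1 (sub x.2)).card : ℝ) ≤ 3 * (I.card : ℝ) := by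
      convert f4
    linarith
  have hA1ne : A1.Nonempty := by
    rw [← card_pos]
    have : (0:ℝ) < (A1.card : ℝ) := by linarith
    exact_mod_cast this
  have : Nonempty γ := ⟨lab φ hA1ne.choose.1 (sub hA1ne.choose.2)⟩
  set L : Λ × κ → γ := fun z => lab φ z.1 (sub z.2) with hL
  have hpop : ∀ x ∈ A1, ∃ y, ((A1.filter fun z => g z = g x).card : ℝ) ≤
      (K2 : ℝ) * ((A1.filter fun z => g z = g x ∧ L z = y).card : ℝ) := by
    intro x hx
    have hx1 := mem_filter.1 hx
    obtain ⟨t, ht, htm⟩ := hlab φ f1 x hx1.1 hx1.2.1 hx1.2.2.1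
    obtain ⟨y, hy⟩ := pigeon (K := K2) (A1.filter fun z => g z = g x)
      ⟨x, mem_filter.2 ⟨hx, rfl⟩⟩ L t
      (fun z hz => by
        obtain ⟨h1, h2⟩ := mem_filter.1 hz
        obtain ⟨h3, h4⟩ := mem_filter.1 h1
        exact htm z h3 h2 h4.1 h4.2.1) ht
    refine ⟨y, hy.trans (le_of_eq ?_)⟩
    rw [filter_filter]
  obtain ⟨pop, hpop'⟩ := popular A1 g L hpop
  set A2 := A1.filter fun z => L z = pop (g z) with hA2
  have hA2I : A2 ⊆ I := (filter_subset _ _).trans (filter_subset _ _)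
  have hK2 : (0:ℝ) < K2 := by
    by_contra hc
    have h0 : (K2 : ℝ) = 0 := le_antisymm (not_lt.1 hc) (Nat.cast_nonneg _)
    rw [h0, zero_mul] at hpop'
    linarith
  have hA2c : (I.card : ℝ) ≤ 4 * K2 * (A2.card : ℝ) := by
    have : (A1.card : ℝ) ≤ K2 * (A2.card : ℝ) := hpop'
    nlinarith
  obtain ⟨A, hA, h1, h2, h3⟩ := prune_rel I A2 hA2I (fun x : Λ × κ => (x.1, sub x.2)) g
    (δ := 1 / (16 * K2)) (by positivity)
  have hA2p : (0:ℝ) < (A2.card : ℝ) := by
    by_contra hc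
    have : 4 * K2 * (A2.card : ℝ) ≤ 0 := mul_nonpos_of_nonneg_of_nonpos (by positivity) (not_lt.1 hc)
    linarith
  have hne : A.Nonempty := by
    rw [← card_pos]
    have e1 : 2 * (1 / (16 * K2)) * (I.card : ℝ) ≤ (A2.card : ℝ) / 2 := by
      have : 2 * (1 / (16 * (K2:ℝ))) * (I.card : ℝ) = (I.card : ℝ) / (8 * K2) := by
        field_simp; ring
      rw [this, div_le_iff₀ (by positivity)]; linarith
    have : (0:ℝ) < (A.card : ℝ) := by linarith
    exact_mod_cast this
  obtain ⟨x0, hx0⟩ := hne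
  set I' := A.filter fun x => sub x.2 = sub x0.2 ∧ L x = L x0 with hI'
  have hI'A : I' ⊆ A := filter_subset _ _
  refine ⟨I', hI'A.trans (hA.trans hA2I), ⟨x0, mem_filter.2 ⟨hx0, rfl, rfl⟩⟩,
    ⟨sub x0.2, L x0, fun x hx => ?_⟩, fun x hx => ?_, fun x hx => ?_⟩
  · obtain ⟨k1, k2, k3⟩ := mem_filter.1 hx
    obtain ⟨k4, k5, k6, k7⟩ := mem_filter.1 ((mem_filter.1 (hA k1)).1)
    refine ⟨k2, k5, ?_, ?_⟩
    · rw [← k2]; exact k6
    · rw [← k3, ← k2]
  · obtain ⟨k1, k2, k3⟩ := mem_filter.1 hx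
    obtain ⟨k4, k5, k6, k7⟩ := mem_filter.1 ((mem_filter.1 (hA k1)).1)
    have h4 := h2 x k1
    have e1 : (I.filter fun y : Λ × κ => (y.1, sub y.2) = (x.1, sub x.2)) =
        I.filter fun y => y.1 = x.1 ∧ sub y.2 = sub x.2 := by
      refine filter_congr fun y _ => ?_
      rw [Prod.mk.injEq]
    have e2 : (A.filter fun y : Λ × κ => (y.1, sub y.2) = (x.1, sub x.2)) ⊆
        I'.filter fun y => y.1 = x.1 := by
      intro y hy
      obtain ⟨l1, l2⟩ := mem_filter.1 hy
      rw [Prod.mk.injEq] at l2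
      refine mem_filter.2 ⟨mem_filter.2 ⟨l1, l2.2.trans k2, ?_⟩, l2.1⟩
      rw [← k3, hL]
      simp only [l2.1, l2.2]
    have e3 : ((A.filter fun y : Λ × κ => (y.1, sub y.2) = (x.1, sub x.2)).card : ℝ) ≤
        ((I'.filter fun y => y.1 = x.1).card : ℝ) := by exact_mod_cast card_le_card e2
    rw [hSm] at k7
    simp only [not_lt] at k7
    have h4' : 1 / (16 * (K2:ℝ)) * ((I.filter fun y => y.1 = x.1 ∧ sub y.2 = sub x.2).card : ℝ) ≤
        ((I'.filter fun y => y.1 = x.1).card : ℝ) := by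
      rw [← e1]
      refine le_trans ?_ (h4.trans (le_trans (le_of_eq ?_) e3))
      · refine mul_le_mul_of_nonneg_left (le_of_eq ?_) (by positivity)
        congr!
      · congr!
    have h5 : ((I.filter fun y => y.1 = x.1 ∧ sub y.2 = sub x.2).card : ℝ) ≤
        16 * K2 * ((I'.filter fun y => y.1 = x.1).card : ℝ) := by
      rw [div_mul_eq_mul_div, one_mul, div_le_iff₀ (by positivity)] at h4'
      linarith
    calc ((I.filter fun y => y.1 = x.1).card : ℝ)
        ≤ 16 * N1 * ((I.filter fun y => y.1 = x.1 ∧ sub y.2 = sub x.2).card : ℝ) := k7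
      _ ≤ 16 * N1 * (16 * K2 * ((I'.filter fun y => y.1 = x.1).card : ℝ)) := by gcongr
      _ = _ := by ring
  · obtain ⟨k1, k2, k3⟩ := mem_filter.1 hx
    have hxI := hA2I (hA k1)
    have h4 := h3 x k1
    have e2 : (A.filter fun y => g y = g x) ⊆ I'.filter fun y => g y = g x := by
      intro y hy
      obtain ⟨l1, l2⟩ := mem_filter.1 hy
      have m1 := (mem_filter.1 (hA l1)).2
      have m2 := (mem_filter.1 (hA k1)).2
      refine mem_filter.2 ⟨mem_filter.2 ⟨l1, ?_, ?_⟩, l2⟩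
      · rw [hg y (hA2I (hA l1)) x hxI l2]; exact k2
      · rw [m1, l2, ← m2]; exact k3
    have e3 : ((A.filter fun y => g y = g x).card : ℝ) ≤
        ((I'.filter fun y => g y = g x).card : ℝ) := by exact_mod_cast card_le_card e2
    have h5 : 1 / (16 * (K2:ℝ)) * ((I.filter fun y => g y = g x).card : ℝ) ≤
        ((I'.filter fun y => g y = g x).card : ℝ) := by
      refine le_trans ?_ (h4.trans (le_trans (le_of_eq ?_) e3))
      · refine mul_le_mul_of_nonneg_left (le_of_eq ?_) (by positivity)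
        congr!
      · congr!
    rw [div_mul_eq_mul_div, one_mul, div_le_iff₀ (by positivity)] at h5
    linarith

end

end Crest.Agent.R136.Nm953
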