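import Crest.Agent.R136.Nmx2b_44

/-!
# R136 (S0187), PLAN 2 (AL) (A), NdMx: the chart of a THIN base around one of its lines (helper104)

`cN S z0 ρ T` : chart of the plank `S` around its line `T`, thickness in units of `kN = w 0 / 4`, the
tangent vectors are those of helper44's chart (`dF`).  No hypothesis on `a / w 0`.
`chartN` : the sheet function in the chart; `pointN`, `lineN` : points of the box near `T` (in the
three directions) are chart points.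
-/

set_option autoImplicit false

namespace Crest.Agent.R136.Nmt104

open Crest.Agent.R136.Sh605 Crest.Agent.R136.Tl102
open Crest.Agent.R136.K4 (Plk4)
open Crest.Agent.R136.Tlt51 (Shp InP)
open Crest.Agent.R136.KapP335 (expP kapP expP_spec)
open Crest.Agent.R136.Rk601 (Jt)
open Crest.Agent.R136.Adp876 (ev sh Bd cg gv)
open Crest.Agent.R136.Adj214 (jc theta theta_le abs2)
open Crest.Agent.R136.Nmx44 (sF dF nrm w0_pos a_pos sF_le conv_le dt_line)

/-- thickness unit of the thin chart -/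
noncomputable def kN (S : Plk4) : ℝ := S.w 0 / 4

/-- thin chart of `S` around its line `T` -/
noncomputable def cN (S : Plk4) (z0 ρ : ℝ) (T : Ln4) (ζ y u v : ℝ) : V3 :=
  cg (fr S.e S.w) T z0 ρ (1 / 4) (sF S z0 ρ T 1) (sF S z0 ρ T 2) (1 / 256) ζ y u v

section
variable {S : Plk4} {z0 ρ r0 : ℝ} {T : Ln4}

theorem kN_pos (hr : 0 < r0) (h : Shp S z0 ρ r0) : 0 < kN S := by
  have := w0_pos hr h
  unfold kN; linarith

theorem a_le_kN (h : Shp S z0 ρ r0) : S.a ≤ 4 * kN S := by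
  have := h.a_le0
  unfold kN; linarith

theorem cN_eq (T : Ln4) (ζ y u v : ℝ) :
    cN S z0 ρ T ζ y u v = T.pos (z0 + ρ * ζ) + (kN S * y) • S.e 0 +
      u • dF S z0 ρ T 1 + v • dF S z0 ρ T 2 := by
  funext i
  simp only [cN, cg, cmb, fr, dF, kN, Pi.add_apply, Pi.sub_apply, Pi.smul_apply, smul_eq_mul,
    Matrix.cons_val]
  ring

/-- **the sheet function in the thin chart** -/
theorem chartN (hr : 0 < r0) (hρ : 0 ≤ ρ) (h : Shp S z0 ρ r0) (hT : InP T S z0 ρ) :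
    ∃ (cq : ℝ) (Jq : Jt), |cq| ≤ 4 ∧ Bd Jq 64 ∧
      (∀ ζ y u v, S.q (z0 + ρ * ζ) (cN S z0 ρ T ζ y u v) =
        kN S * (cq + ev Jq y ![ζ, u, v])) ∧
      (∀ (y : ℝ) (x : Fin 3 → ℝ), |y| ≤ 1 → (∀ i, |x i| ≤ 1) → 0 ≤ x 0 →
        1 / 2 ≤ |(sh Jq y x).a0|) ∧
      (∀ (y : ℝ) (x : Fin 3 → ℝ), |y| ≤ 1 → (∀ i, |x i| ≤ 1) → 0 ≤ x 0 →
        1 / 2 ≤ (sh Jq y x).a0) ∧ Jq.a 1 = 0 ∧ Jq.a 2 = 0 := by
  have hw0 := w0_pos hr h
  have ha := a_pos hr h
  have haw := h.a_le0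
  have N := nrm hr hρ h hT
  have hE := expP_spec h.isQ hw0.ne' z0 ρ T
  have hkp := kN_pos hr h
  have hkk : kN S = 64 / 256 * S.w 0 := by unfold kN; ring
  set b0 := (expP S z0 ρ T).1 with hb0
  set b1 := (expP S z0 ρ T).2.1 with hb1
  set G := (expP S z0 ρ T).2.2 with hG
  set k0 := kN S with hk0def
  obtain ⟨κ, hκdef⟩ : ∃ κ : ℝ, κ = 64 := ⟨_, rfl⟩
  have hκ0 : 0 < κ := by rw [hκdef]; norm_num
  obtain ⟨g1, g2, -, -, g3, -, -, s1, s2⟩ := N.b1_le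
  obtain ⟨m1, -⟩ := N.G_le
  obtain ⟨-, -, h3, h4, -, -, -⟩ := N.sh_le
  have hkap : kap b0 b1 G ≤ κ := by
    have := kap_le N
    rw [hκdef]; linarith
  have dv : ∀ x, |x| ≤ kap b0 b1 G → |x / κ| ≤ 1 := by
    intro x hx
    rw [abs_div, abs_of_pos hκ0, div_le_one hκ0]; exact hx.trans hkap
  have k1 : |scB1 κ b0 b1 1| ≤ 1 := dv _ ((le_max_left _ _).trans (le_max_left _ _))
  have k2 : |scB1 κ b0 b1 2| ≤ 1 := dv _ ((le_max_right _ _).trans (le_max_left _ _))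
  have k3 : |(scG κ b0 G).yy| ≤ 64 := by
    change |κ * G.yy| ≤ 64
    have := mul_abs_le (abs_le.2 ⟨by linarith, hκdef.le⟩ : |κ| ≤ 64) m1
    linarith
  have k4 : |(scG κ b0 G).yu| ≤ 5 := h3
  have k5 : |(scG κ b0 G).yv| ≤ 5 := h4
  have k6 : |(scG κ b0 G).uu| ≤ 1 :=
    dv _ ((le_max_left _ _).trans ((le_max_left _ _).trans (le_max_right _ _)))
  have k7 : |(scG κ b0 G).uv| ≤ 1 :=
    dv _ ((le_max_right _ _).trans ((le_max_left _ _).trans (le_max_right _ _)))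
  have k8 : |(scG κ b0 G).vv| ≤ 1 := dv _ ((le_max_right _ _).trans (le_max_right _ _))
  obtain ⟨θ0, θ1, θ2, hθ⟩ := theta h.isQ T z0 ρ
  have hb : b0 0 ≠ 0 := by linarith
  obtain ⟨t0, t1, t2⟩ := theta_le (θ0 := θ0 / k0) (θ1 := θ1 / k0) (θ2 := θ2 / k0) (B := 4)
    (fun ζ h1 h2 => by
      have h3 := (hT (z0 + ρ * ζ) (by nlinarith) (by nlinarith)).2
      rw [hθ] at h3
      have e : θ0 / k0 + θ1 / k0 * ζ + θ2 / k0 * ζ ^ 2 = (θ0 + θ1 * ζ + θ2 * ζ ^ 2) / k0 := by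
        ring
      rw [e, abs_div, abs_of_pos hkp, div_le_iff₀ hkp]
      linarith)
  have half : ∀ {x B : ℝ}, |x| ≤ B → |1 / 256 * x| ≤ 1 / 256 * B := fun hx =>
    abs2 (by norm_num : |(1 / 256 : ℝ)| ≤ 1 / 256) hx
  have two : ∀ {x B : ℝ}, |x| ≤ B → |2 * x| ≤ 2 * B := fun hx =>
    abs2 (by norm_num : |(2 : ℝ)| ≤ 2) hx
  have hst : ∀ (y : ℝ) (x : Fin 3 → ℝ), |y| ≤ 1 → (∀ i, |x i| ≤ 1) → 0 ≤ x 0 →
      1 / 2 ≤ (sh (jc b0 b1 G κ (θ1 / k0) (θ2 / k0)) y x).a0 := by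
    intro y x hy hx hx0
    have eyu : (scG κ b0 G).yu = G.yu - 2 * (b0 1 / b0 0) * G.yy := rfl
    have eyv : (scG κ b0 G).yv = G.yv - 2 * (b0 2 / b0 0) * G.yy := rfl
    have eyy : (scG κ b0 G).yy = κ * G.yy := rfl
    have hk14 : |κ| ≤ 64 := by rw [abs_of_pos hκ0]; exact hκdef.le
    have hσ : |2 * (1 / 256 * (κ * y)) + -(2 * (1 / 256 * (b0 1 / b0 0 * x 1))) +
        -(2 * (1 / 256 * (b0 2 / b0 0 * x 2)))| ≤ 1 := by
      refine (abs_add_le _ _).trans ((add_le_add (abs_add_le _ _) le_rfl).trans ?_)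
      rw [abs_neg, abs_neg]
      have a1 := two (half (abs2 hk14 hy))
      have a2 := two (half (abs2 s1 (hx 1)))
      have a3 := two (half (abs2 s2 (hx 2)))
      linarith
    have hu' : |1 / 256 * x 1| ≤ 1 := (half (hx 1)).trans (by norm_num)
    have hv' : |1 / 256 * x 2| ≤ 1 := (half (hx 2)).trans (by norm_num)
    have := (N.st (x 0) hx0 ((le_abs_self _).trans (hx 0)) _ _ _ hσ hu' hv').1
    have e : (sh (jc b0 b1 G κ (θ1 / k0) (θ2 / k0)) y x).a0 =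
        b0 0 + x 0 * b1 0 + G.yy * (2 * (1 / 256 * (κ * y)) +
        -(2 * (1 / 256 * (b0 1 / b0 0 * x 1))) + -(2 * (1 / 256 * (b0 2 / b0 0 * x 2)))) +
        G.yu * (1 / 256 * x 1) + G.yv * (1 / 256 * x 2) := by
      simp only [jc, sh, Fin.sum_univ_three, Matrix.cons_val, eyu, eyv, eyy]
      ring
    rw [e]
    exact this
  refine ⟨θ0 / k0, jc b0 b1 G κ (θ1 / k0) (θ2 / k0), t0, ?_, ?_,
    fun y x hy hx hx0 => (hst y x hy hx hx0).trans (le_abs_self _), hst, rfl, rfl⟩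
  · refine ⟨?_, ?_, ?_, ?_, ?_, ?_⟩
    · show |b0 0| ≤ 64
      rw [abs_le]; constructor <;> linarith
    · intro i
      fin_cases i
      · exact t1.trans (by norm_num)
      · show |(0:ℝ)| ≤ 64
        norm_num
      · show |(0:ℝ)| ≤ 64
        norm_num
    · exact (two (half k3)).trans (by norm_num)
    · intro i
      fin_cases i
      · exact g3.trans (by norm_num)
      · exact (half k4).trans (by norm_num)
      · exact (half k5).trans (by norm_num)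
    · intro i j
      fin_cases i <;> fin_cases j
      · exact (two t2).trans (by norm_num)
      · exact k1.trans (by norm_num)
      · exact k2.trans (by norm_num)
      · exact k1.trans (by norm_num)
      · exact (two (half k6)).trans (by norm_num)
      · exact (half k7).trans (by norm_num)
      · exact k2.trans (by norm_num)
      · exact (half k7).trans (by norm_num)
      · exact (two (half k8)).trans (by norm_num)
    · intro i j
      fin_cases i <;> fin_cases j <;> rfl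
  · intro ζ y u v
    have e1 : cN S z0 ρ T ζ y u v = T.pos (z0 + ρ * ζ) +
        cmb (fr S.e S.w) (unsh b0 (κ * (1 / 256 * y)) (1 / 256 * u) (1 / 256 * v)) := by
      unfold cN cg unsh sF
      congr 2
      have e0 : 1 / 4 * y - (expP S z0 ρ T).1 1 / (expP S z0 ρ T).1 0 * (1 / 256 * u) -
          (expP S z0 ρ T).1 2 / (expP S z0 ρ T).1 0 * (1 / 256 * v) =
          κ * (1 / 256 * y) - b0 1 / b0 0 * (1 / 256 * u) - b0 2 / b0 0 * (1 / 256 * v) := by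
        rw [← hb0, hκdef]; ring
      rw [e0]
    have hkk' : k0 = κ / 256 * S.w 0 := by rw [hκdef]; exact hkk
    rw [e1, hE, hθ, Fq_scaled hb hκ0.ne', hkk']
    have hk00 : κ / 256 * S.w 0 ≠ 0 := by rw [← hkk']; exact hkp.ne'
    simp only [ev, jc, Fin.sum_univ_three, Matrix.cons_val, Fq, Sh605.dt, bz, QF.ev, shB0]
    have e0 : scB1 κ b0 b1 0 = b1 0 := rfl
    rw [e0]
    field_simp
    ring

/-- **points near `T` are chart points** -/
theorem pointN (hr : 0 < r0) (hρ : 0 ≤ ρ) (h : Shp S z0 ρ r0) (hT : InP T S z0 ρ)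
    {ζ : ℝ} {X : V3} {δ : ℝ} (hk : ∀ k, |dt (S.e k) (X - T.pos (z0 + ρ * ζ))| ≤ δ * S.w k) :
    ∃ y u v, X = cN S z0 ρ T ζ y u v ∧ |y| ≤ 20 * δ ∧ |u| ≤ 256 * δ ∧ |v| ≤ 256 * δ := by
  have hw0 := w0_pos hr h
  have SP := StP.of_shN h hw0
  obtain ⟨s1, s2⟩ := sF_le hr hρ h hT
  have hwne : ∀ i, S.w i ≠ 0 := fun i => (SP.pos i).ne'
  set z := z0 + ρ * ζ with hz
  set x := pc S.e S.w T z X with hx
  have c : ∀ k, |x k| ≤ δ := by
    intro k
    rw [hx]; unfold pc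
    rw [abs_div, abs_of_pos (SP.pos k), div_le_iff₀ (SP.pos k)]; exact hk k
  have hδ0 : 0 ≤ δ := (abs_nonneg _).trans (c 0)
  have hxX : T.pos z + cmb (fr S.e S.w) x = X := cmb_pc SP.ortho hwne T z X
  refine ⟨4 * (x 0 + sF S z0 ρ T 1 * x 1 + sF S z0 ρ T 2 * x 2), 256 * x 1, 256 * x 2, ?_, ?_, ?_,
    ?_⟩
  · rw [← hxX]
    unfold cN cg
    rw [← hz]
    congr 2
    funext i
    fin_cases i
    · show x 0 = 1 / 4 * (4 * (x 0 + sF S z0 ρ T 1 * x 1 + sF S z0 ρ T 2 * x 2)) -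
        sF S z0 ρ T 1 * (1 / 256 * (256 * x 1)) - sF S z0 ρ T 2 * (1 / 256 * (256 * x 2))
      ring
    · show x 1 = 1 / 256 * (256 * x 1)
      ring
    · show x 2 = 1 / 256 * (256 * x 2)
      ring
  · rw [abs_mul, abs_of_pos (by norm_num : (0:ℝ) < 4)]
    have a1 := abs2 s1 (c 1)
    have a2 := abs2 s2 (c 2)
    have a0 := c 0
    have := abs_add_three (x 0) (sF S z0 ρ T 1 * x 1) (sF S z0 ρ T 2 * x 2)
    linarith
  · rw [abs_mul, abs_of_pos (by norm_num : (0:ℝ) < 256)]; linarith [c 1]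
  · rw [abs_mul, abs_of_pos (by norm_num : (0:ℝ) < 256)]; linarith [c 2]

/-- **lines near `T` are chart lines** -/
theorem lineN (hr : 0 < r0) (hρ : 0 ≤ ρ) (h : Shp S z0 ρ r0) (hT : InP T S z0 ρ) {T' : Ln4}
    (p1 : ∀ k : Fin 3, |dt (S.e k) (T'.pos z0 - T.pos z0)| ≤ S.w k / 2 ^ 14)
    (p2 : ∀ k : Fin 3, |dt (S.e k) (T'.pos (z0 + ρ) - T.pos (z0 + ρ))| ≤ S.w k / 2 ^ 14)
    {ζ : ℝ} (z1 : 0 ≤ ζ) (z2 : ζ ≤ 1) : ∃ y u v, T'.pos (z0 + ρ * ζ) = cN S z0 ρ T ζ y u v ∧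
      |y| ≤ 1 ∧ |u| ≤ 1 ∧ |v| ≤ 1 := by
  have q : ∀ k : Fin 3,
      |dt (S.e k) (T'.pos (z0 + ρ * ζ) - T.pos (z0 + ρ * ζ))| ≤ 1 / 2 ^ 14 * S.w k := by
    intro k
    rw [dt_line]
    refine (conv_le (p1 k) ?_ z1 z2).trans (le_of_eq (by ring))
    have := p2 k
    have e : dt (S.e k) (T'.pos z0 - T.pos z0) + (dt (S.e k) (T'.pos (z0 + ρ) - T.pos (z0 + ρ)) -
      dt (S.e k) (T'.pos z0 - T.pos z0)) = dt (S.e k) (T'.pos (z0 + ρ) - T.pos (z0 + ρ)) := by ring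
    rw [e]; exact this
  obtain ⟨y, u, v, hP, hy, hu, hv⟩ := pointN hr hρ h hT q
  exact ⟨y, u, v, hP, hy.trans (by norm_num), hu.trans (by norm_num), hv.trans (by norm_num)⟩

end

end Crest.Agent.R136.Nmt104
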