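import Crest.Agent.R136.Ndc_876
import Crest.Agent.R136.AdjB_214
import Crest.Agent.R136.Coi1_102
import Crest.Agent.R136.Tlt0_51

/-!
# R136 (S0187), PLAN 2 (AL) (A), NdMx: the chart of a flat base around one of its lines (helper44)

`cF S z0 ρ T` : chart of the plank `S` around its line `T`, thickness in units of
`kk = (kapP + 10^5 a) / 256`; no lower bound on the curvature extent `kapP` is needed.
`chartF` : the sheet function in the chart; `pointF`, `lineF` : points of the box and lines of the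
sheet near `T` are chart points; `surfF` : points of the surface `q = 0` at the height `z0`.
-/

set_option autoImplicit false

namespace Crest.Agent.R136.Nmx44

open Crest.Agent.R136.Sh605 Crest.Agent.R136.Tl102
open Crest.Agent.R136.K4 (Plk4)
open Crest.Agent.R136.Tlt51 (Shp InP)
open Crest.Agent.R136.KapP335 (expP kapP expP_spec)
open Crest.Agent.R136.Rk601 (Jt)
open Crest.Agent.R136.Adp876 (ev sh Bd cg gv)
open Crest.Agent.R136.Adj214 (jc theta theta_le abs2)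

/-- thickness unit of the chart, in units of `w 0 / 256` -/
noncomputable def kF (S : Plk4) (z0 ρ : ℝ) (T : Ln4) : ℝ :=
  kap (expP S z0 ρ T).1 (expP S z0 ρ T).2.1 (expP S z0 ρ T).2.2 + 10 ^ 5 * S.a / S.w 0

/-- thickness unit of the chart, a length -/
noncomputable def kk (S : Plk4) (z0 ρ : ℝ) (T : Ln4) : ℝ := (kapP S z0 ρ T + 10 ^ 5 * S.a) / 256

/-- slopes of the tangent plane at `T z0` -/
noncomputable def sF (S : Plk4) (z0 ρ : ℝ) (T : Ln4) (k : Fin 3) : ℝ :=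
  (expP S z0 ρ T).1 k / (expP S z0 ρ T).1 0

/-- chart of `S` around its line `T` -/
noncomputable def cF (S : Plk4) (z0 ρ : ℝ) (T : Ln4) (ζ y u v : ℝ) : V3 :=
  cg (fr S.e S.w) T z0 ρ (kF S z0 ρ T / 256) (sF S z0 ρ T 1) (sF S z0 ρ T 2) (1 / 256) ζ y u v

/-- tangent vectors of the chart -/
noncomputable def dF (S : Plk4) (z0 ρ : ℝ) (T : Ln4) (k : Fin 3) : V3 :=
  (1 / 256 : ℝ) • (S.w k • S.e k - (sF S z0 ρ T k * S.w 0) • S.e 0)

section
variable {S : Plk4} {z0 ρ r0 : ℝ} {T : Ln4}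

theorem a_pos (hr : 0 < r0) (h : Shp S z0 ρ r0) : 0 < S.a := hr.trans_le h.r0_le

theorem w0_pos (hr : 0 < r0) (h : Shp S z0 ρ r0) : 0 < S.w 0 := (a_pos hr h).trans_le h.a_le0

theorem kk_eq (hr : 0 < r0) (h : Shp S z0 ρ r0) (T : Ln4) :
    kk S z0 ρ T = kF S z0 ρ T / 256 * S.w 0 := by
  have := (w0_pos hr h).ne'
  unfold kk kF kapP
  field_simp

theorem kk_ge (hr : 0 < r0) (h : Shp S z0 ρ r0) (T : Ln4) : 390 * S.a ≤ kk S z0 ρ T := by
  have h1 := a_pos hr h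
  have h2 : 0 ≤ kapP S z0 ρ T := mul_nonneg (w0_pos hr h).le (kap_nonneg _ _ _)
  unfold kk
  linarith

theorem a_le_kk (hr : 0 < r0) (h : Shp S z0 ρ r0) (T : Ln4) : 390 * S.a ≤ kk S z0 ρ T :=
  kk_ge hr h T

theorem kk_pos (hr : 0 < r0) (h : Shp S z0 ρ r0) (T : Ln4) : 0 < kk S z0 ρ T := by
  have h1 := a_pos hr h
  have := kk_ge hr h T
  linarith

theorem kF_pos (hr : 0 < r0) (h : Shp S z0 ρ r0) (T : Ln4) : 0 < kF S z0 ρ T := by
  have h1 := a_pos hr h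
  have h2 := w0_pos hr h
  have h3 : 0 < 10 ^ 5 * S.a / S.w 0 := by positivity
  have h4 := kap_nonneg (expP S z0 ρ T).1 (expP S z0 ρ T).2.1 (expP S z0 ρ T).2.2
  unfold kF
  linarith

theorem bd_mono {J : Jt} {K K' : ℝ} (h : Bd J K) (hK : K ≤ K') : Bd J K' where
  a0 := h.a0.trans hK
  a := fun i => (h.a i).trans hK
  h00 := h.h00.trans hK
  h0 := fun i => (h.h0 i).trans hK
  h := fun i j => (h.h i j).trans hK
  s := h.s

theorem cF_eq (hr : 0 < r0) (h : Shp S z0 ρ r0) (T : Ln4) (ζ y u v : ℝ) :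
    cF S z0 ρ T ζ y u v = T.pos (z0 + ρ * ζ) + (kk S z0 ρ T * y) • S.e 0 +
      u • dF S z0 ρ T 1 + v • dF S z0 ρ T 2 := by
  rw [kk_eq hr h]
  funext i
  simp only [cF, cg, cmb, fr, dF, Pi.add_apply, Pi.sub_apply, Pi.smul_apply, smul_eq_mul,
    Matrix.cons_val]
  ring

theorem nrm (hr : 0 < r0) (hρ : 0 ≤ ρ) (h : Shp S z0 ρ r0) (hT : InP T S z0 ρ) :
    NrmC (expP S z0 ρ T).1 (expP S z0 ρ T).2.1 (expP S z0 ρ T).2.2 :=
  (expP_spec h.isQ (w0_pos hr h).ne' z0 ρ T).nrmC (StP.of_shN h (w0_pos hr h)) hρ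
    fun z h1 h2 => (hT z h1 h2).1

theorem sF_le (hr : 0 < r0) (hρ : 0 ≤ ρ) (h : Shp S z0 ρ r0) (hT : InP T S z0 ρ) :
    |sF S z0 ρ T 1| ≤ 2 ∧ |sF S z0 ρ T 2| ≤ 2 := by
  obtain ⟨-, -, -, -, -, -, -, s1, s2⟩ := (nrm hr hρ h hT).b1_le
  exact ⟨s1, s2⟩

theorem kF_le (hr : 0 < r0) (hρ : 0 ≤ ρ) (h : Shp S z0 ρ r0) (hT : InP T S z0 ρ)
    (hk : 10 ^ 6 * S.a ≤ S.w 0) : kF S z0 ρ T ≤ 14 := by
  have h1 := kap_le (nrm hr hρ h hT)
  have hw := w0_pos hr h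
  have h2 : 10 ^ 5 * S.a / S.w 0 ≤ 1 := by
    rw [div_le_one hw]
    have := a_pos hr h
    linarith
  unfold kF
  linarith

theorem gv_le (hr : 0 < r0) (hρ : 0 ≤ ρ) (h : Shp S z0 ρ r0) (hT : InP T S z0 ρ) (k : Fin 3) :
    |gv S ρ T k| ≤ 2 := by
  have hw := (StP.of_shN h (w0_pos hr h)).pos k
  have h0 := (hT z0 le_rfl (by linarith)).1 k
  have h1 := (hT (z0 + ρ) (by linarith) le_rfl).1 k
  have e : ρ * dt (S.e k) (T.v - S.c.v) = dt (S.e k) (T.pos (z0 + ρ) - S.c.pos (z0 + ρ)) -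
      dt (S.e k) (T.pos z0 - S.c.pos z0) := by
    simp only [dt, Ln4.pos, Pi.sub_apply]
    ring
  unfold gv
  rw [e, abs_div, abs_of_pos hw, div_le_iff₀ hw]
  have := abs_sub (dt (S.e k) (T.pos (z0 + ρ) - S.c.pos (z0 + ρ)))
    (dt (S.e k) (T.pos z0 - S.c.pos z0))
  linarith

theorem sc_bd {b0 b1 : V3} {G : QF} {κ : ℝ} (N : NrmC b0 b1 G) (hκ : 0 < κ)
    (hk : kap b0 b1 G ≤ κ) (hκ1 : κ ≤ 14) : |scB1 κ b0 b1 1| ≤ 1 ∧ |scB1 κ b0 b1 2| ≤ 1 ∧
      |(scG κ b0 G).yy| ≤ 14 ∧ |(scG κ b0 G).yu| ≤ 5 ∧ |(scG κ b0 G).yv| ≤ 5 ∧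
      |(scG κ b0 G).uu| ≤ 1 ∧ |(scG κ b0 G).uv| ≤ 1 ∧ |(scG κ b0 G).vv| ≤ 1 := by
  obtain ⟨h1, h2, h3, h4, h5, h6, h7⟩ := N.sh_le
  obtain ⟨m1, -⟩ := N.G_le
  have d : ∀ x, |x| ≤ kap b0 b1 G → |x / κ| ≤ 1 := by
    intro x hx
    rw [abs_div, abs_of_pos hκ, div_le_one hκ]; exact hx.trans hk
  refine ⟨d _ ((le_max_left _ _).trans (le_max_left _ _)),
    d _ ((le_max_right _ _).trans (le_max_left _ _)), ?_, h3, h4,
    d _ ((le_max_left _ _).trans ((le_max_left _ _).trans (le_max_right _ _))),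
    d _ ((le_max_right _ _).trans ((le_max_left _ _).trans (le_max_right _ _))),
    d _ ((le_max_right _ _).trans (le_max_right _ _))⟩
  change |κ * G.yy| ≤ 14
  have := mul_abs_le (abs_le.2 ⟨by linarith, hκ1⟩ : |κ| ≤ 14) m1
  linarith

/-- **the sheet function in the chart** -/
theorem chartF (hr : 0 < r0) (hρ : 0 ≤ ρ) (h : Shp S z0 ρ r0) (hT : InP T S z0 ρ)
    (hk : 10 ^ 6 * S.a ≤ S.w 0) : ∃ (cq : ℝ) (Jq : Jt), |cq| ≤ 1 / 390 ∧ Bd Jq 2 ∧
      (∀ ζ y u v, S.q (z0 + ρ * ζ) (cF S z0 ρ T ζ y u v) =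
        kk S z0 ρ T * (cq + ev Jq y ![ζ, u, v])) ∧
      (∀ (y : ℝ) (x : Fin 3 → ℝ), |y| ≤ 1 → (∀ i, |x i| ≤ 1) → 0 ≤ x 0 →
        1 / 2 ≤ |(sh Jq y x).a0|) ∧
      (∀ (y : ℝ) (x : Fin 3 → ℝ), |y| ≤ 1 → (∀ i, |x i| ≤ 1) → 0 ≤ x 0 →
        1 / 2 ≤ (sh Jq y x).a0) ∧ |Jq.h 1 1| ≤ 1 / 128 ∧ |Jq.h 2 2| ≤ 1 / 128 ∧
      |Jq.h 1 2| ≤ 1 / 256 ∧ Jq.a 1 = 0 ∧ Jq.a 2 = 0 := by
  have hw0 := w0_pos hr h
  have ha := a_pos hr h
  have N := nrm hr hρ h hT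
  have hE := expP_spec h.isQ hw0.ne' z0 ρ T
  have hκ0 := kF_pos hr h T
  have hκ14 := kF_le hr hρ h hT hk
  have hkk := kk_eq hr h T
  have hkp := kk_pos hr h T
  have hge := kk_ge hr h T
  have hkap : kap (expP S z0 ρ T).1 (expP S z0 ρ T).2.1 (expP S z0 ρ T).2.2 ≤ kF S z0 ρ T := by
    unfold kF
    have : 0 < 10 ^ 5 * S.a / S.w 0 := by positivity
    linarith
  set b0 := (expP S z0 ρ T).1 with hb0
  set b1 := (expP S z0 ρ T).2.1 with hb1
  set G := (expP S z0 ρ T).2.2 with hG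
  set κ := kF S z0 ρ T with hκdef
  set k0 := kk S z0 ρ T with hk0def
  obtain ⟨g1, g2, -, -, g3, -, -, s1, s2⟩ := N.b1_le
  obtain ⟨k1, k2, k3, k4, k5, k6, k7, k8⟩ := sc_bd N hκ0 hkap hκ14
  obtain ⟨θ0, θ1, θ2, hθ⟩ := theta h.isQ T z0 ρ
  have hb : b0 0 ≠ 0 := by linarith
  -- size of the `θ`
  obtain ⟨t0, t1, t2⟩ := theta_le (θ0 := θ0 / k0) (θ1 := θ1 / k0) (θ2 := θ2 / k0) (B := 1 / 390)
    (fun ζ h1 h2 => by
      have h3 := (hT (z0 + ρ * ζ) (by nlinarith) (by nlinarith)).2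
      rw [hθ] at h3
      have e : θ0 / k0 + θ1 / k0 * ζ + θ2 / k0 * ζ ^ 2 = (θ0 + θ1 * ζ + θ2 * ζ ^ 2) / k0 := by
        ring
      rw [e, abs_div, abs_of_pos hkp, div_le_iff₀ hkp]
      linarith)
  have half : ∀ {x B : ℝ}, |x| ≤ B → |1 / 256 * x| ≤ 1 / 256 * B := fun hx =>
    abs2 (by norm_num : |(1 / 256 : ℝ)| ≤ 1 / 256) hx
  have two : ∀ {x B : ℝ}, |x| ≤ B → |2 * x| ≤ 2 * B := fun hx =>
    abs2 (by norm_num : |(2 : ℝ)| ≤ 2) hx
  have hst : ∀ (y : ℝ) (x : Fin 3 → ℝ), |y| ≤ 1 → (∀ i, |x i| ≤ 1) → 0 ≤ x 0 →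
      1 / 2 ≤ (sh (jc b0 b1 G κ (θ1 / k0) (θ2 / k0)) y x).a0 := by
    intro y x hy hx hx0
    have eyu : (scG κ b0 G).yu = G.yu - 2 * (b0 1 / b0 0) * G.yy := rfl
    have eyv : (scG κ b0 G).yv = G.yv - 2 * (b0 2 / b0 0) * G.yy := rfl
    have eyy : (scG κ b0 G).yy = κ * G.yy := rfl
    have hk14 : |κ| ≤ 14 := by rw [abs_of_pos hκ0]; exact hκ14
    have hσ : |2 * (1 / 256 * (κ * y)) + -(2 * (1 / 256 * (b0 1 / b0 0 * x 1))) +
        -(2 * (1 / 256 * (b0 2 / b0 0 * x 2)))| ≤ 1 := by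
      refine (abs_add_le _ _).trans ((add_le_add (abs_add_le _ _) le_rfl).trans ?_)
      rw [abs_neg, abs_neg]
      have a1 := two (half (abs2 hk14 hy))
      have a2 := two (half (abs2 s1 (hx 1)))
      have a3 := two (half (abs2 s2 (hx 2)))
      linarith
    have hu' : |1 / 256 * x 1| ≤ 1 := (half (hx 1)).trans (by norm_num)
    have hv' : |1 / 256 * x 2| ≤ 1 := (half (hx 2)).trans (by norm_num)
    have := (N.st (x 0) hx0 ((le_abs_self _).trans (hx 0)) _ _ _ hσ hu' hv').1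
    have e : (sh (jc b0 b1 G κ (θ1 / k0) (θ2 / k0)) y x).a0 =
        b0 0 + x 0 * b1 0 + G.yy * (2 * (1 / 256 * (κ * y)) +
        -(2 * (1 / 256 * (b0 1 / b0 0 * x 1))) + -(2 * (1 / 256 * (b0 2 / b0 0 * x 2)))) +
        G.yu * (1 / 256 * x 1) + G.yv * (1 / 256 * x 2) := by
      simp only [jc, sh, Fin.sum_univ_three, Matrix.cons_val, eyu, eyv, eyy]
      ring
    rw [e]
    exact this
  refine ⟨θ0 / k0, jc b0 b1 G κ (θ1 / k0) (θ2 / k0), t0, ?_, ?_,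
    fun y x hy hx hx0 => (hst y x hy hx hx0).trans (le_abs_self _), hst, ?_, ?_, ?_, rfl, rfl⟩
  · refine ⟨?_, ?_, ?_, ?_, ?_, ?_⟩
    · show |b0 0| ≤ 2
      rw [abs_le]; constructor <;> linarith
    · intro i
      fin_cases i
      · exact t1.trans (by norm_num)
      · show |(0:ℝ)| ≤ 2
        norm_num
      · show |(0:ℝ)| ≤ 2
        norm_num
    · exact (two (half k3)).trans (by norm_num)
    · intro i
      fin_cases i
      · exact g3.trans (by norm_num)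
      · exact (half k4).trans (by norm_num)
      · exact (half k5).trans (by norm_num)
    · intro i j
      fin_cases i <;> fin_cases j
      · exact (two t2).trans (by norm_num)
      · exact k1.trans (by norm_num)
      · exact k2.trans (by norm_num)
      · exact k1.trans (by norm_num)
      · exact (two (half k6)).trans (by norm_num)
      · exact (half k7).trans (by norm_num)
      · exact k2.trans (by norm_num)
      · exact (half k7).trans (by norm_num)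
      · exact (two (half k8)).trans (by norm_num)
    · intro i j
      fin_cases i <;> fin_cases j <;> rfl
  · intro ζ y u v
    have e1 : cF S z0 ρ T ζ y u v = T.pos (z0 + ρ * ζ) +
        cmb (fr S.e S.w) (unsh b0 (κ * (1 / 256 * y)) (1 / 256 * u) (1 / 256 * v)) := by
      unfold cF cg unsh sF
      congr 2
      have e0 : kF S z0 ρ T / 256 * y - (expP S z0 ρ T).1 1 / (expP S z0 ρ T).1 0 * (1 / 256 * u) -
          (expP S z0 ρ T).1 2 / (expP S z0 ρ T).1 0 * (1 / 256 * v) =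
          κ * (1 / 256 * y) - b0 1 / b0 0 * (1 / 256 * u) - b0 2 / b0 0 * (1 / 256 * v) := by
        rw [← hb0, ← hκdef]; ring
      rw [e0]
    rw [e1, hE, hθ, Fq_scaled hb hκ0.ne', hkk]
    have hk00 : κ / 256 * S.w 0 ≠ 0 := by rw [← hkk]; exact hkp.ne'
    simp only [ev, jc, Fin.sum_univ_three, Matrix.cons_val, Fq, Sh605.dt, bz, QF.ev, shB0]
    have e0 : scB1 κ b0 b1 0 = b1 0 := rfl
    rw [e0]
    field_simp
    ring
  · exact (two (half k6)).trans (by norm_num)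
  · exact (two (half k8)).trans (by norm_num)
  · exact (half k7).trans (by norm_num)

end

end Crest.Agent.R136.Nmx44
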