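import Crest.Agent.R136.Nj1_28
import Crest.Agent.R136.Nmx2_44

/-!
# R136 (S0187), PLAN 2 (AL) (A), NdMx: the jet of the curved function in a chart of the flat base
(helper44)

`pjet` : a quadratic function of size `B Y` on the box of thickness `Y` has in the chart of thickness
`k0 ≤ Y` a jet of size `1` with normal entries `≤ k0 / Y` (in units of `200 B Y`).
`cg_eq` : the chart `cg` in terms of its frame; `pjet_cg` : the same in the letters of `nd_count2`.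
-/

set_option autoImplicit false

namespace Crest.Agent.R136.Nmx44

open Crest.Agent.R136.Sh605 Crest.Agent.R136.Tl102
open Crest.Agent.R136.K4 (Plk4)
open Crest.Agent.R136.Rk601 (Jt dp qf JetAt exists_jet)
open Crest.Agent.R136.Adp876 (ev sh Bd cg gv)

/-- **jet of a function of size `B Y`** in a chart of thickness `k0 ≤ Y` -/
theorem pjet {q : ℝ → V3 → ℝ} (hq : IsQ q) {T : Ln4} {z0 ρ Y B k0 : ℝ} {e d1 d2 : V3} (hY : 0 < Y)
    (hB0 : 0 < B) (hk : 0 < k0) (hkY : k0 ≤ Y)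
    (hB : ∀ ζ p u v : ℝ, 0 ≤ ζ → ζ ≤ 1 → |p| ≤ 1 → |u| ≤ 1 → |v| ≤ 1 →
      |q (z0 + ρ * ζ) (T.pos (z0 + ρ * ζ) + (Y * p) • e + u • d1 + v • d2)| ≤ B * Y) :
    ∃ (cP : ℝ) (JP : Jt), JP.Sym ∧ |cP| ≤ 1 ∧ (∀ i, |JP.a i| ≤ 1) ∧ (∀ i j, |JP.h i j| ≤ 1) ∧
      |JP.a0| ≤ k0 / Y ∧ |JP.h00| ≤ k0 / Y ∧ (∀ i, |JP.h0 i| ≤ k0 / Y) ∧
      ∀ ζ y u v : ℝ, q (z0 + ρ * ζ) (T.pos (z0 + ρ * ζ) + (k0 * y) • e + u • d1 + v • d2) =
        200 * B * Y * (cP + ev JP y ![ζ, u, v]) := by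
  obtain ⟨J, hs, hJ⟩ := exists_jet hq ![Y • e, d1, d2] T.v z0 (T.pos z0) ρ
  have eX : ∀ p ζ u v : ℝ, T.pos z0 + (ρ * ζ) • T.v + cmb ![Y • e, d1, d2] ![p, u, v] =
      T.pos (z0 + ρ * ζ) + (Y * p) • e + u • d1 + v • d2 := by
    intro p ζ u v
    funext i
    simp only [cmb, Ln4.pos, Pi.add_apply, Pi.smul_apply, smul_eq_mul, Matrix.cons_val]
    ring
  obtain ⟨j0, ja, j00, j0i, jh⟩ := Nj28.jet_of_box hJ hs (B := B * Y) fun y s u v hy h1 h2 hu hv => by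
    rw [eX]
    exact hB s y u v h1 (by linarith) hy hu hv
  have hc : |q z0 (T.pos z0)| ≤ B * Y := by
    have := hB 0 0 0 0 le_rfl zero_le_one (by simp) (by simp) (by simp)
    simpa using this
  have hBY : 0 < B * Y := mul_pos hB0 hY
  have hL : 0 < 200 * B * Y := by positivity
  set ε := k0 / Y with hε
  have hε0 : 0 < ε := by positivity
  have hε1 : ε ≤ 1 := by rw [hε, div_le_one hY]; exact hkY
  have hεY : ε * Y = k0 := by rw [hε]; field_simp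
  have dv : ∀ x : ℝ, |x| ≤ 200 * (B * Y) → |x / (200 * B * Y)| ≤ 1 := by
    intro x hx
    rw [abs_div, abs_of_pos hL, div_le_one hL]
    linarith
  have dve : ∀ x : ℝ, |x| ≤ 200 * (B * Y) → |ε * (x / (200 * B * Y))| ≤ ε := by
    intro x hx
    rw [abs_mul, abs_of_pos hε0]
    calc ε * |x / (200 * B * Y)| ≤ ε * 1 := mul_le_mul_of_nonneg_left (dv x hx) hε0.le
      _ = ε := mul_one _
  refine ⟨q z0 (T.pos z0) / (200 * B * Y), ⟨ε * (J.a0 / (200 * B * Y)),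
    fun i => J.a i / (200 * B * Y), ε * (ε * (J.h00 / (200 * B * Y))),
    fun i => ε * (J.h0 i / (200 * B * Y)), fun i j => J.h i j / (200 * B * Y)⟩, ?_, ?_, ?_, ?_, ?_,
    ?_, ?_, ?_⟩
  · intro i j
    show J.h i j / (200 * B * Y) = J.h j i / (200 * B * Y)
    rw [hs i j]
  · exact dv _ (hc.trans (by linarith))
  · exact fun i => dv _ (ja i)
  · exact fun i j => dv _ (jh i j)
  · exact dve _ j0
  · show |ε * (ε * (J.h00 / (200 * B * Y)))| ≤ ε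
    rw [abs_mul, abs_of_pos hε0]
    calc ε * |ε * (J.h00 / (200 * B * Y))| ≤ ε * 1 :=
          mul_le_mul_of_nonneg_left ((dve _ j00).trans hε1) hε0.le
      _ = ε := mul_one _
  · exact fun i => dve _ (j0i i)
  · intro ζ y u v
    have h1 := hJ (ε * y) ζ u v
    rw [eX] at h1
    have e1 : Y * (ε * y) = k0 * y := by rw [← hεY]; ring
    rw [e1] at h1
    rw [h1]
    have hLn := hL.ne'
    simp only [ev, dp, qf, Fin.sum_univ_three, Matrix.cons_val]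
    field_simp
    ring

/-- the chart `cg` in terms of its frame -/
theorem cg_eq (e : Fin 3 → V3) (w : V3) (T : Ln4) (z0 ρ σ s1 s2 r ζ y u v : ℝ) :
    cg (fr e w) T z0 ρ σ s1 s2 r ζ y u v = T.pos (z0 + ρ * ζ) + (σ * w 0 * y) • e 0 +
      u • (r • (w 1 • e 1 - (s1 * w 0) • e 0)) + v • (r • (w 2 • e 2 - (s2 * w 0) • e 0)) := by
  funext i
  simp only [cg, cmb, fr, Pi.add_apply, Pi.sub_apply, Pi.smul_apply, smul_eq_mul, Matrix.cons_val]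
  ring

/-- **the jet in the letters of `nd_count2`** (`μ = 0`, `Λ = 200 B Y`, `ε = σ w 0 / Y`) -/
theorem pjet_cg {q : ℝ → V3 → ℝ} (hq : IsQ q) {S : Plk4} {T : Ln4} {z0 ρ Y B σ s1 s2 r : ℝ}
    (hY : 0 < Y) (hB0 : 0 < B) (hk : 0 < σ * S.w 0) (hkY : σ * S.w 0 ≤ Y)
    (hB : ∀ ζ p u v : ℝ, 0 ≤ ζ → ζ ≤ 1 → |p| ≤ 1 → |u| ≤ 1 → |v| ≤ 1 →
      |q (z0 + ρ * ζ) (T.pos (z0 + ρ * ζ) + (Y * p) • S.e 0 +
        u • (r • (S.w 1 • S.e 1 - (s1 * S.w 0) • S.e 0)) +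
        v • (r • (S.w 2 • S.e 2 - (s2 * S.w 0) • S.e 0)))| ≤ B * Y) :
    ∃ (cP : ℝ) (JP : Jt), JP.Sym ∧ |cP| ≤ 1 ∧ (∀ i, |JP.a i| ≤ 1) ∧ (∀ i j, |JP.h i j| ≤ 1) ∧
      |JP.a0| ≤ σ * S.w 0 / Y ∧ |JP.h00| ≤ σ * S.w 0 / Y ∧ (∀ i, |JP.h0 i| ≤ σ * S.w 0 / Y) ∧
      ∀ ζ y u v : ℝ, q (z0 + ρ * ζ) (cg (fr S.e S.w) T z0 ρ σ s1 s2 r ζ y u v) -
        0 * S.q (z0 + ρ * ζ) (cg (fr S.e S.w) T z0 ρ σ s1 s2 r ζ y u v) =
        200 * B * Y * (cP + ev JP y ![ζ, u, v]) := by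
  obtain ⟨cP, JP, h1, h2, h3, h4, h5, h6, h7, h8⟩ := pjet hq hY hB0 hk hkY hB
  refine ⟨cP, JP, h1, h2, h3, h4, h5, h6, h7, fun ζ y u v => ?_⟩
  rw [zero_mul, sub_zero, cg_eq]
  exact h8 ζ y u v

end Crest.Agent.R136.Nmx44
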