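import Crest.Agent.R136.Nmt_104
import Crest.Agent.R136.Nmx3b_44
import Crest.Agent.R136.NdD_325

/-!
# R136 (S0187), PLAN 2 (AL) (A), NdMx: the chart data `ChM` of the base (helper104)

* `chM_thin`  : `V.w 0 ≤ 10^6 V.a` (thin chart `cN`);
* `chM_thick` : `10^6 V.a ≤ V.w 0` (helper44's chart `cF`);
both from a bound of `U.q` on the box `(Y p) e0 + u dF 1 + v dF 2`.
-/

set_option autoImplicit false
set_option linter.unusedVariables false

namespace Crest.Agent.R136.Nmt104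

open Crest.Agent.R136.Sh605 Crest.Agent.R136.Tl102
open Crest.Agent.R136.K4 (Plk4)
open Crest.Agent.R136.Tlt51 (Shp InP)
open Crest.Agent.R136.KapP335 (kapP)
open Crest.Agent.R136.Rk601 (Jt)
open Crest.Agent.R136.Adp876 (ev sh Bd cg gv)
open Crest.Agent.R136.Nmx44 (sF dF nrm w0_pos a_pos sF_le bd_mono pjet_cg kF kk cF kk_eq kk_ge
  kk_pos kF_pos kF_le chartF lineF)
open Crest.Agent.R136.Ndw325 (ChM)

section
variable {U V : Plk4} {z0 ρ r0 : ℝ} {T0 : Ln4} {Y a W K B : ℝ}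

/-- **chart data, thin base** -/
theorem chM_thin (hr : 0 < r0) (hρ : 0 ≤ ρ) (hU : IsQ U.q) (hV : Shp V z0 ρ r0)
    (hT : InP T0 V z0 ρ) (ha : 0 < a) (hY : 0 < Y) (hVa : V.a ≤ W * a)
    (thin : V.w 0 ≤ 10 ^ 6 * V.a) (hYa : 10 ^ 6 * W * a ≤ Y) (hKW : 10 ^ 6 * W ≤ K)
    (hK : 2 ^ 14 ≤ K) (hB1 : 1 ≤ B) (hKB : 200 * B ≤ K)
    (hB : ∀ ζ p u v : ℝ, 0 ≤ ζ → ζ ≤ 1 → |p| ≤ 1 → |u| ≤ 1 → |v| ≤ 1 →
      |U.q (z0 + ρ * ζ) (T0.pos (z0 + ρ * ζ) + (Y * p) • V.e 0 + u • dF V z0 ρ T0 1 +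
        v • dF V z0 ρ T0 2)| ≤ B * Y) :
    ∃ (σ s1 s2 rr k0 μ Λ cq cP ε αq : ℝ) (Jq JP : Jt),
      ChM K V U.q T0 z0 ρ Y a σ s1 s2 rr k0 μ Λ cq cP ε αq Jq JP := by
  have hw0 := w0_pos hr hV
  have hva := a_pos hr hV
  have hk0 := kN_pos hr hV
  have hak := a_le_kN hV
  have hwk : V.w 0 = 4 * kN V := by unfold kN; ring
  have hK0 : (0:ℝ) < K := by linarith
  have hK1 : (1:ℝ) ≤ K := by linarith
  have hkY : kN V ≤ Y := by linarith
  have hkN : 1 / 4 * V.w 0 = kN V := by unfold kN; ring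
  obtain ⟨cq, Jq, hcq, hBd, hq, hst, -, -, -⟩ := chartN hr hρ hV hT
  obtain ⟨cP, JP, p1, -, p2, p3, p4, p5, p6, hP⟩ := pjet_cg (S := V) (σ := 1 / 4)
    (s1 := sF V z0 ρ T0 1) (s2 := sF V z0 ρ T0 2) (r := 1 / 256) hU hY (by linarith : 0 < B)
    (by rw [hkN]; exact hk0) (by rw [hkN]; exact hkY) hB
  rw [hkN] at p4 p5 p6
  have hε : 0 < kN V / Y := div_pos hk0 hY
  have up : ∀ {x : ℝ}, x ≤ kN V / Y → x ≤ K * (kN V / Y) := fun hx => by nlinarith
  refine ⟨1 / 4, sF V z0 ρ T0 1, sF V z0 ρ T0 2, 1 / 256, kN V, 0, 200 * B * Y, cq, cP, kN V / Y, 1,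
    Jq, JP, ?_⟩
  exact {
    σ0 := by norm_num
    r0 := by norm_num
    rK := by rw [one_div_one_div]; linarith
    kk0 := hk0.ne'
    Λ0 := by positivity
    ΛY := mul_le_mul_of_nonneg_right hKB hY.le
    YΛ := by
      have h1 : 1 * Y ≤ 200 * B * Y := mul_le_mul_of_nonneg_right (by linarith) hY.le
      have h2 : 1 * (200 * B * Y) ≤ K * (200 * B * Y) :=
        mul_le_mul_of_nonneg_right hK1 (by positivity)
      linarith
    μa := by rw [abs_zero, zero_mul]; positivity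
    hq := hq
    hP := hP
    bq := bd_mono hBd (by linarith)
    sP := p1
    bPa := fun i => (p2 i).trans hK1
    bPh := fun i j => (p3 i j).trans hK1
    bP0 := up p4
    bP00 := up p5
    bPm := fun i => up (p6 i)
    st := fun y x hy hx hx0 => by
      refine le_trans ?_ (hst y x hy hx hx0)
      rw [div_le_div_iff₀ hK0 (by norm_num)]
      linarith
    α0 := one_pos
    α1 := le_rfl
    ε0 := hε
    ε1 := by rw [div_le_one hY]; exact hkY
    εα := by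
      rw [mul_one, div_mul_cancel₀ _ hY.ne']
      have : 10 ^ 6 * W * a ≤ K * a := mul_le_mul_of_nonneg_right hKW ha.le
      linarith
    on := by
      rw [abs_of_pos hk0, mul_one]
      have : 4 * kN V ≤ K * kN V := mul_le_mul_of_nonneg_right (by linarith) hk0.le
      linarith
    pt := by
      intro T hTV h1 ζ z1 z2
      have hwn : ∀ k, 0 ≤ V.w k := fun k => ((StP.of_shN hV hw0).pos k).le
      have tr : ∀ {x : ℝ} (k : Fin 3), x ≤ V.w k / K → x ≤ V.w k / 2 ^ 14 := fun k hx =>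
        hx.trans (div_le_div_of_nonneg_left (hwn k) (by norm_num) hK)
      obtain ⟨y, u, v, e, hy, hu, hv⟩ := lineN hr hρ hV hT
        (fun k => tr k (h1 z0 le_rfl (by linarith) k))
        (fun k => tr k (h1 (z0 + ρ) (by linarith) le_rfl k)) z1 z2
      exact ⟨y, u, v, hy, hu, hv, e⟩ }

/-- **chart data, thick base** -/
theorem chM_thick (hr : 0 < r0) (hρ : 0 ≤ ρ) (hU : IsQ U.q) (hV : Shp V z0 ρ r0)
    (hT : InP T0 V z0 ρ) (ha : 0 < a) (hY : 0 < Y) (hVa : V.a ≤ W * a)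
    (thick : 10 ^ 6 * V.a ≤ V.w 0) (hkY : kk V z0 ρ T0 ≤ Y) (hKW : W ≤ K)
    (hK : 2 ^ 14 ≤ K) (hB1 : 1 ≤ B) (hKB : 200 * B ≤ K)
    (hB : ∀ ζ p u v : ℝ, 0 ≤ ζ → ζ ≤ 1 → |p| ≤ 1 → |u| ≤ 1 → |v| ≤ 1 →
      |U.q (z0 + ρ * ζ) (T0.pos (z0 + ρ * ζ) + (Y * p) • V.e 0 + u • dF V z0 ρ T0 1 +
        v • dF V z0 ρ T0 2)| ≤ B * Y) :
    ∃ (σ s1 s2 rr k0 μ Λ cq cP ε αq : ℝ) (Jq JP : Jt),
      ChM K V U.q T0 z0 ρ Y a σ s1 s2 rr k0 μ Λ cq cP ε αq Jq JP := by
  have hw0 := w0_pos hr hV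
  have hva := a_pos hr hV
  have hk0 := kk_pos hr hV T0
  have hge := kk_ge hr hV T0
  have hκ0 := kF_pos hr hV T0
  have hkk := kk_eq hr hV T0
  have hK0 : (0:ℝ) < K := by linarith
  have hK1 : (1:ℝ) ≤ K := by linarith
  obtain ⟨cq, Jq, hcq, hBd, hq, hst, -, -, -, -, -, -⟩ := chartF hr hρ hV hT thick
  obtain ⟨cP, JP, p1, -, p2, p3, p4, p5, p6, hP⟩ := pjet_cg (S := V) (σ := kF V z0 ρ T0 / 256)
    (s1 := sF V z0 ρ T0 1) (s2 := sF V z0 ρ T0 2) (r := 1 / 256) hU hY (by linarith : 0 < B)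
    (by rw [← hkk]; exact hk0) (by rw [← hkk]; exact hkY) hB
  rw [← hkk] at p4 p5 p6
  set k0 := kk V z0 ρ T0 with hk0def
  have hε : 0 < k0 / Y := div_pos hk0 hY
  have up : ∀ {x : ℝ}, x ≤ k0 / Y → x ≤ K * (k0 / Y) := fun hx => by nlinarith
  refine ⟨kF V z0 ρ T0 / 256, sF V z0 ρ T0 1, sF V z0 ρ T0 2, 1 / 256, k0, 0, 200 * B * Y, cq, cP,
    k0 / Y, V.a / k0, Jq, JP, ?_⟩
  exact {
    σ0 := by positivity
    r0 := by norm_num
    rK := by rw [one_div_one_div]; linarith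
    kk0 := hk0.ne'
    Λ0 := by positivity
    ΛY := mul_le_mul_of_nonneg_right hKB hY.le
    YΛ := by
      have h1 : 1 * Y ≤ 200 * B * Y := mul_le_mul_of_nonneg_right (by linarith) hY.le
      have h2 : 1 * (200 * B * Y) ≤ K * (200 * B * Y) :=
        mul_le_mul_of_nonneg_right hK1 (by positivity)
      linarith
    μa := by rw [abs_zero, zero_mul]; positivity
    hq := hq
    hP := hP
    bq := bd_mono hBd (by linarith)
    sP := p1
    bPa := fun i => (p2 i).trans hK1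
    bPh := fun i j => (p3 i j).trans hK1
    bP0 := up p4
    bP00 := up p5
    bPm := fun i => up (p6 i)
    st := fun y x hy hx hx0 => by
      refine le_trans ?_ (hst y x hy hx hx0)
      rw [div_le_div_iff₀ hK0 (by norm_num)]
      linarith
    α0 := div_pos hva hk0
    α1 := by rw [div_le_one hk0]; linarith
    ε0 := hε
    ε1 := by rw [div_le_one hY]; exact hkY
    εα := by
      have e : k0 / Y * (V.a / k0) * Y = V.a := by field_simp
      rw [e]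
      exact hVa.trans (mul_le_mul_of_nonneg_right hKW ha.le)
    on := by
      have e : |k0| * (K * (V.a / k0)) = K * V.a := by
        rw [abs_of_pos hk0]; field_simp
      rw [e]
      nlinarith
    pt := by
      intro T hTV h1 ζ z1 z2
      have hwn : ∀ k, 0 ≤ V.w k := fun k => ((StP.of_shN hV hw0).pos k).le
      have tr : ∀ {x : ℝ} (k : Fin 3), x ≤ V.w k / K → x ≤ V.w k / 2 ^ 14 := fun k hx =>
        hx.trans (div_le_div_of_nonneg_left (hwn k) (by norm_num) hK)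
      obtain ⟨y, u, v, e, hy, hu, hv⟩ := lineF hr hρ hV hT hTV
        (fun k _ => tr k (h1 z0 le_rfl (by linarith) k))
        (fun k _ => tr k (h1 (z0 + ρ) (by linarith) le_rfl k)) z1 z2
      exact ⟨y, u, v, hy, hu, hv, e⟩ }

end

end Crest.Agent.R136.Nmt104
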