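import Mathlib
import Crest.Agent.R136.Tlt1_51

/-!
# R136 (S0187), PLAN 2, alignment of sheets, mixed curvatures: cells of lines (helper84)

`cells_sum` : the lines of a sheet are split into at most `2^68` cells (positions at both ends of the
height interval in the grid `w_k / 2^15`); a bound `B` for every cell gives `2^68 B`.
-/

set_option autoImplicit false

open Finset

namespace Crest.Agent.R136.Nmw84

open Crest.Agent.R136.Sh605
open Crest.Agent.R136.K4 (Plk4)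
open Crest.Agent.R136.Tlt51 (Shp InP)

theorem fl_rng {x w : ℝ} (hw : 0 < w) (h : |x| ≤ w) :
    ⌊(2:ℝ) ^ 15 * (x / w)⌋ ∈ Icc (-(2 ^ 15) : ℤ) (2 ^ 15) := by
  have h1 : |x / w| ≤ 1 := by
    rw [abs_div, abs_of_pos hw, div_le_one hw]; exact h
  obtain ⟨h2, h3⟩ := abs_le.1 h1
  rw [mem_Icc]
  constructor
  · rw [Int.le_floor]; push_cast; linarith
  · have : ⌊(2:ℝ) ^ 15 * (x / w)⌋ < 2 ^ 15 + 1 := by
      rw [Int.floor_lt]; push_cast; linarith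
    omega

theorem fl_cls {x y w : ℝ} (hw : 0 < w)
    (h : ⌊(2:ℝ) ^ 15 * (x / w)⌋ = ⌊(2:ℝ) ^ 15 * (y / w)⌋) : |x - y| ≤ w / 2 ^ 15 := by
  have h1 := (Int.abs_sub_lt_one_of_floor_eq_floor h).le
  have h2 : (2:ℝ) ^ 15 * (x / w) - 2 ^ 15 * (y / w) = (x - y) * (2 ^ 15 / w) := by ring
  rw [h2, abs_mul, abs_of_pos (by positivity : (0:ℝ) < 2 ^ 15 / w)] at h1
  rw [le_div_iff₀ (by positivity)]
  have h3 : |x - y| * 2 ^ 15 = |x - y| * (2 ^ 15 / w) * w := by field_simp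
  rw [h3]
  nlinarith

/-- the difference of two lines between two heights -/
theorem dt_mid {n : V3} {s t : Ln4} {z0 ρ z A : ℝ} (hρ : 0 ≤ ρ) (h1 : z0 ≤ z) (h2 : z ≤ z0 + ρ)
    (a1 : |dt n (s.pos z0 - t.pos z0)| ≤ A) (a2 : |dt n (s.pos (z0 + ρ) - t.pos (z0 + ρ))| ≤ A) :
    |dt n (s.pos z - t.pos z)| ≤ A := by
  rcases eq_or_lt_of_le hρ with h0 | h0
  · have : z = z0 := by linarith
    rw [this]; exact a1
  set l := (z - z0) / ρ with hl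
  have l0 : 0 ≤ l := div_nonneg (by linarith) hρ
  have l1 : l ≤ 1 := by rw [hl, div_le_one h0]; linarith
  have hz : z = z0 + ρ * l := by rw [hl]; field_simp; ring
  have e : dt n (s.pos z - t.pos z) = (1 - l) * dt n (s.pos z0 - t.pos z0) +
      l * dt n (s.pos (z0 + ρ) - t.pos (z0 + ρ)) := by
    rw [hz]
    simp only [dt, Ln4.pos, Pi.sub_apply]
    ring
  rw [e]
  refine (abs_add_le _ _).trans ?_
  rw [abs_mul, abs_mul, abs_of_nonneg l0, abs_of_nonneg (by linarith : 0 ≤ 1 - l)]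
  nlinarith [mul_le_mul_of_nonneg_left a1 (by linarith : 0 ≤ 1 - l),
    mul_le_mul_of_nonneg_left a2 l0]

/-- `T'` in the `w / 2^15` tube of `T` (lateral axes) -/
def Cl (V : Plk4) (z0 ρ : ℝ) (t T : Ln4) : Prop :=
  ∀ z, z0 ≤ z → z ≤ z0 + ρ → ∀ k : Fin 3, k ≠ 0 →
    |dt (V.e k) (t.pos z - T.pos z)| ≤ V.w k / 2 ^ 15

/-- **cells of lines** -/
theorem cells_sum {β : Type} {V : Plk4} {P : Finset ℕ} {L : ℕ → Ln4} {z0 ρ B : ℝ} (hρ : 0 ≤ ρ)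
    (hw1 : 0 < V.w 1) (hw2 : 0 < V.w 2) (hP : ∀ t ∈ P, InP (L t) V z0 ρ) (T : Finset β)
    (R : β → ℕ → Prop) (tw : ∀ y ∈ T, ∃ t ∈ P, R y t) (hB0 : 0 ≤ B)
    (hB : ∀ T0 ∈ P, ∀ T' ⊆ T, (∀ y ∈ T', ∃ t ∈ P, R y t ∧ Cl V z0 ρ (L t) (L T0)) →
      (T'.card : ℝ) ≤ B) : (T.card : ℝ) ≤ 2 ^ 68 * B := by
  classical
  have hex : ∀ y : β, ∃ t : ℕ, y ∈ T → t ∈ P ∧ R y t := by
    intro y
    by_cases hy : y ∈ T
    · obtain ⟨t, h1, h2⟩ := tw y hy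
      exact ⟨t, fun _ => ⟨h1, h2⟩⟩
    · exact ⟨0, fun h => absurd h hy⟩
  choose f hf using hex
  let g : Fin 3 → ℝ → β → ℤ := fun k z y =>
    ⌊(2:ℝ) ^ 15 * (dt (V.e k) ((L (f y)).pos z - V.c.pos z) / V.w k)⌋
  let lab : β → (ℤ × ℤ) × (ℤ × ℤ) := fun y => ((g 1 z0 y, g 2 z0 y), (g 1 (z0 + ρ) y, g 2 (z0 + ρ) y))
  have hmem : ∀ y ∈ T, ∀ z, z0 ≤ z → z ≤ z0 + ρ → ∀ k, (0:ℝ) < V.w k →
      g k z y ∈ Icc (-(2 ^ 15) : ℤ) (2 ^ 15) := by
    intro y hy z h1 h2 k hk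
    exact fl_rng hk ((hP _ (hf y hy).1 z h1 h2).1 k)
  obtain ⟨I, hI⟩ : ∃ I : Finset ℤ, I = Icc (-(2 ^ 15) : ℤ) (2 ^ 15) := ⟨_, rfl⟩
  have hIc : (I.card : ℝ) = 65537 := by
    rw [hI, Int.card_Icc]
    norm_num
    rfl
  rw [← hI] at hmem
  have himg : T.image lab ⊆ (I ×ˢ I) ×ˢ (I ×ˢ I) := by
    intro l hl
    obtain ⟨y, hy, rfl⟩ := mem_image.1 hl
    have a := hmem y hy z0 le_rfl (by linarith)
    have b := hmem y hy (z0 + ρ) (by linarith) le_rfl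
    exact mem_product.2 ⟨mem_product.2 ⟨a 1 hw1, a 2 hw2⟩, mem_product.2 ⟨b 1 hw1, b 2 hw2⟩⟩
  have hcard : ((T.image lab).card : ℝ) ≤ 2 ^ 68 := by
    have h1 : ((T.image lab).card : ℝ) ≤ (((I ×ˢ I) ×ˢ (I ×ˢ I)).card : ℝ) :=
      Nat.cast_le.2 (card_le_card himg)
    rw [card_product, card_product, Nat.cast_mul, Nat.cast_mul, hIc] at h1
    refine h1.trans ?_
    norm_num
  have hsum : (T.card : ℝ) = ∑ l ∈ T.image lab, ((T.filter fun y => lab y = l).card : ℝ) := by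
    have := card_eq_sum_card_image lab T
    exact_mod_cast this
  rw [hsum]
  refine (sum_le_card_nsmul _ _ B fun l hl => ?_).trans ?_
  · obtain ⟨y0, hy0, rfl⟩ := mem_image.1 hl
    refine hB (f y0) (hf y0 hy0).1 _ (filter_subset _ _) fun y hy => ?_
    obtain ⟨hyT, hyl⟩ := mem_filter.1 hy
    refine ⟨f y, (hf y hyT).1, (hf y hyT).2, ?_⟩
    have hl1 : lab y = lab y0 := hyl
    simp only [lab, Prod.mk.injEq] at hl1
    obtain ⟨⟨l1, l2⟩, ⟨l3, l4⟩⟩ := hl1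
    have key : ∀ (k : Fin 3), 0 < V.w k → g k z0 y = g k z0 y0 → g k (z0 + ρ) y = g k (z0 + ρ) y0 →
        ∀ z, z0 ≤ z → z ≤ z0 + ρ →
          |dt (V.e k) ((L (f y)).pos z - (L (f y0)).pos z)| ≤ V.w k / 2 ^ 15 := by
      intro k hk e1 e2 z h1 h2
      have d : ∀ z, dt (V.e k) ((L (f y)).pos z - (L (f y0)).pos z) =
          dt (V.e k) ((L (f y)).pos z - V.c.pos z) -
            dt (V.e k) ((L (f y0)).pos z - V.c.pos z) := by
        intro z; simp only [dt, Pi.sub_apply]; ring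
      refine dt_mid hρ h1 h2 ?_ ?_
      · rw [d]; exact fl_cls hk e1
      · rw [d]; exact fl_cls hk e2
    intro z h1 h2 k hk
    fin_cases k
    · exact absurd rfl hk
    · exact key 1 hw1 l1 l3 z h1 h2
    · exact key 2 hw2 l2 l4 z h1 h2
  · rw [nsmul_eq_mul]
    exact mul_le_mul_of_nonneg_right hcard hB0

end Crest.Agent.R136.Nmw84
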