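import Mathlib
import Crest.Agent.R136.Nmw_84

/-!
# R136 (S0187), PLAN 2, alignment of sheets, mixed curvatures: cells of lines (helper84)

`cells_sum3` : the lines of a sheet are split into at most `(3 m)^6` cells (positions at both ends of
the height interval in the grid `w_k / m`, all three axes); a bound `B` for every cell gives
`(3 m)^6 B`.
-/

set_option autoImplicit false

open Finset

namespace Crest.Agent.R136.Nmw84

open Crest.Agent.R136.Sh605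
open Crest.Agent.R136.K4 (Plk4)
open Crest.Agent.R136.Tlt51 (Shp InP)

theorem fl_rng3 {x w : ℝ} {m : ℕ} (hw : 0 < w) (h : |x| ≤ w) :
    ⌊(m:ℝ) * (x / w)⌋ ∈ Icc (-(m : ℤ)) m := by
  have h1 : |x / w| ≤ 1 := by
    rw [abs_div, abs_of_pos hw, div_le_one hw]; exact h
  obtain ⟨h2, h3⟩ := abs_le.1 h1
  have hm : (0:ℝ) ≤ m := Nat.cast_nonneg m
  rw [mem_Icc]
  constructor
  · rw [Int.le_floor]; push_cast; nlinarith
  · have : ⌊(m:ℝ) * (x / w)⌋ < m + 1 := by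
      rw [Int.floor_lt]; push_cast; nlinarith
    omega

theorem fl_cls3 {x y w : ℝ} {m : ℕ} (hm : 1 ≤ m) (hw : 0 < w)
    (h : ⌊(m:ℝ) * (x / w)⌋ = ⌊(m:ℝ) * (y / w)⌋) : |x - y| ≤ w / m := by
  have hm0 : (0:ℝ) < m := by exact_mod_cast hm
  have h1 := (Int.abs_sub_lt_one_of_floor_eq_floor h).le
  have h2 : (m:ℝ) * (x / w) - m * (y / w) = (x - y) * (m / w) := by ring
  rw [h2, abs_mul, abs_of_pos (by positivity : (0:ℝ) < m / w)] at h1
  rw [le_div_iff₀ hm0]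
  have h3 : |x - y| * m = |x - y| * (m / w) * w := by field_simp
  rw [h3]
  nlinarith

/-- `t` in the `w / m` tube of `T` (all axes) -/
def Cl3 (m : ℕ) (V : Plk4) (z0 ρ : ℝ) (t T : Ln4) : Prop :=
  ∀ z, z0 ≤ z → z ≤ z0 + ρ → ∀ k : Fin 3, |dt (V.e k) (t.pos z - T.pos z)| ≤ V.w k / m

/-- **cells of lines** -/
theorem cells_sum3 {β : Type} {V : Plk4} {P : Finset ℕ} {L : ℕ → Ln4} {z0 ρ B : ℝ} {m : ℕ}
    (hm : 1 ≤ m) (hρ : 0 ≤ ρ) (hw : ∀ k, 0 < V.w k) (hP : ∀ t ∈ P, InP (L t) V z0 ρ) (T : Finset β)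
    (R : β → ℕ → Prop) (tw : ∀ y ∈ T, ∃ t ∈ P, R y t) (hB0 : 0 ≤ B)
    (hB : ∀ T0 ∈ P, ∀ T' ⊆ T, (∀ y ∈ T', ∃ t ∈ P, R y t ∧ Cl3 m V z0 ρ (L t) (L T0)) →
      (T'.card : ℝ) ≤ B) : (T.card : ℝ) ≤ (3 * m) ^ 6 * B := by
  classical
  have hex : ∀ y : β, ∃ t : ℕ, y ∈ T → t ∈ P ∧ R y t := by
    intro y
    by_cases hy : y ∈ T
    · obtain ⟨t, h1, h2⟩ := tw y hy
      exact ⟨t, fun _ => ⟨h1, h2⟩⟩
    · exact ⟨0, fun h => absurd h hy⟩
  choose f hf using hex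
  let g : Fin 3 → ℝ → β → ℤ := fun k z y =>
    ⌊(m:ℝ) * (dt (V.e k) ((L (f y)).pos z - V.c.pos z) / V.w k)⌋
  let lab : β → (ℤ × ℤ × ℤ) × (ℤ × ℤ × ℤ) := fun y =>
    ((g 0 z0 y, g 1 z0 y, g 2 z0 y), (g 0 (z0 + ρ) y, g 1 (z0 + ρ) y, g 2 (z0 + ρ) y))
  have hmem : ∀ y ∈ T, ∀ z, z0 ≤ z → z ≤ z0 + ρ → ∀ k, g k z y ∈ Icc (-(m : ℤ)) m := by
    intro y hy z h1 h2 k
    exact fl_rng3 (hw k) ((hP _ (hf y hy).1 z h1 h2).1 k)
  obtain ⟨I, hI⟩ : ∃ I : Finset ℤ, I = Icc (-(m : ℤ)) m := ⟨_, rfl⟩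
  have hmr : (1:ℝ) ≤ m := by exact_mod_cast hm
  have hIc : (I.card : ℝ) ≤ 3 * m := by
    rw [hI, Int.card_Icc]
    have : ((m : ℤ) + 1 - -(m : ℤ)).toNat = 2 * m + 1 := by omega
    rw [this]
    push_cast
    linarith
  rw [← hI] at hmem
  have himg : T.image lab ⊆ (I ×ˢ (I ×ˢ I)) ×ˢ (I ×ˢ (I ×ˢ I)) := by
    intro l hl
    obtain ⟨y, hy, rfl⟩ := mem_image.1 hl
    have a := hmem y hy z0 le_rfl (by linarith)
    have b := hmem y hy (z0 + ρ) (by linarith) le_rfl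
    exact mem_product.2 ⟨mem_product.2 ⟨a 0, mem_product.2 ⟨a 1, a 2⟩⟩,
      mem_product.2 ⟨b 0, mem_product.2 ⟨b 1, b 2⟩⟩⟩
  have hcard : ((T.image lab).card : ℝ) ≤ (3 * m) ^ 6 := by
    have h1 : ((T.image lab).card : ℝ) ≤ (((I ×ˢ (I ×ˢ I)) ×ˢ (I ×ˢ (I ×ˢ I))).card : ℝ) :=
      Nat.cast_le.2 (card_le_card himg)
    rw [card_product, card_product, card_product, Nat.cast_mul, Nat.cast_mul, Nat.cast_mul] at h1
    refine h1.trans ?_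
    have h0 : (0:ℝ) ≤ I.card := Nat.cast_nonneg _
    calc (I.card : ℝ) * ((I.card : ℝ) * I.card) * ((I.card : ℝ) * ((I.card : ℝ) * I.card)) =
        (I.card : ℝ) ^ 6 := by ring
      _ ≤ (3 * m) ^ 6 := pow_le_pow_left₀ h0 hIc 6
  have hsum : (T.card : ℝ) = ∑ l ∈ T.image lab, ((T.filter fun y => lab y = l).card : ℝ) := by
    have := card_eq_sum_card_image lab T
    exact_mod_cast this
  rw [hsum]
  refine (sum_le_card_nsmul _ _ B fun l hl => ?_).trans ?_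
  · obtain ⟨y0, hy0, rfl⟩ := mem_image.1 hl
    refine hB (f y0) (hf y0 hy0).1 _ (filter_subset _ _) fun y hy => ?_
    obtain ⟨hyT, hyl⟩ := mem_filter.1 hy
    refine ⟨f y, (hf y hyT).1, (hf y hyT).2, ?_⟩
    have hl1 : lab y = lab y0 := hyl
    simp only [lab, Prod.mk.injEq] at hl1
    obtain ⟨⟨l0, l1, l2⟩, ⟨l3, l4, l5⟩⟩ := hl1
    have key : ∀ (k : Fin 3), g k z0 y = g k z0 y0 → g k (z0 + ρ) y = g k (z0 + ρ) y0 →
        ∀ z, z0 ≤ z → z ≤ z0 + ρ →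
          |dt (V.e k) ((L (f y)).pos z - (L (f y0)).pos z)| ≤ V.w k / m := by
      intro k e1 e2 z h1 h2
      have d : ∀ z, dt (V.e k) ((L (f y)).pos z - (L (f y0)).pos z) =
          dt (V.e k) ((L (f y)).pos z - V.c.pos z) -
            dt (V.e k) ((L (f y0)).pos z - V.c.pos z) := by
        intro z; simp only [dt, Pi.sub_apply]; ring
      refine dt_mid hρ h1 h2 ?_ ?_
      · rw [d]; exact fl_cls3 hm (hw k) e1
      · rw [d]; exact fl_cls3 hm (hw k) e2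
    intro z h1 h2 k
    fin_cases k
    · exact key 0 l0 l3 z h1 h2
    · exact key 1 l1 l4 z h1 h2
    · exact key 2 l2 l5 z h1 h2
  · rw [nsmul_eq_mul]
    exact mul_le_mul_of_nonneg_right hcard hB0

end Crest.Agent.R136.Nmw84
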