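import Crest.Agent.R136.Ndc_876

/-!
# R136 (U4, PLAN 2 (AL), case (A)): two-scale adapter (helper501)

`DataM` : helper876's `Data` for `q` at the precision `αq`, the `y`-entries of `P` are `O(ε)`,
`ε αq ≤ α`.  By linearity in `P`: the Taylor bounds at the precision `α`.
`count_chg2`, `nd_count2` : 876's counts in this form (proofs copied).
-/

set_option autoImplicit false
set_option linter.unusedVariables false

namespace Crest.Agent.R136.Nmx501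

open Crest.Agent.R136.Rk601 Crest.Agent.R136.Sh605 Crest.Agent.R136.Adp876
open Crest.Agent.R136.Tl102 (cmb fr)
open Crest.Agent.R136.K4 (Plk4)
open Crest.Agent.R136.Gbx862 (zj gb lc)
open Crest.Agent.R136.AlD601

/-- `y`-part divided by `ε` -/
noncomputable def yp (P : Jt) (ε : ℝ) : Jt where
  a0 := P.a0 / ε
  a := fun _ => 0
  h00 := P.h00 / ε
  h0 := fun i => P.h0 i / ε
  h := fun _ _ => 0

theorem yp_bd {P : Jt} {K ε : ℝ} (hK : 1 ≤ K) (hε : 0 < ε) (h0 : |P.a0| ≤ K * ε)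
    (h00 : |P.h00| ≤ K * ε) (hm : ∀ i, |P.h0 i| ≤ K * ε) : Bd (yp P ε) K where
  a0 := by
    show |P.a0 / ε| ≤ K
    rw [abs_div, abs_of_pos hε, div_le_iff₀ hε]; exact h0
  a := fun i => by show |(0:ℝ)| ≤ K; rw [abs_zero]; linarith
  h00 := by
    show |P.h00 / ε| ≤ K
    rw [abs_div, abs_of_pos hε, div_le_iff₀ hε]; exact h00
  h0 := fun i => by
    show |P.h0 i / ε| ≤ K
    rw [abs_div, abs_of_pos hε, div_le_iff₀ hε]; exact hm i
  h := fun i j => by show |(0:ℝ)| ≤ K; rw [abs_zero]; linarith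
  s := fun i j => rfl

/-- **two-scale data** -/
structure DataM {β : Type} (A : Set β) (cq : ℝ) (q P : Jt) (y : β → ℝ) (X : β → Fin 3 → ℝ)
    (K α αq ε : ℝ) : Prop where
  D : Data A cq q (yp P ε) y X K αq
  ba : ∀ i, |P.a i| ≤ K
  bh : ∀ i j, |P.h i j| ≤ K
  s : P.Sym
  ε0 : 0 < ε
  ε1 : ε ≤ 1
  εα : ε * αq ≤ α

/-- constant -/
noncomputable def C2 (K : ℝ) : ℝ := 2 * CK K

theorem C2_one {K : ℝ} (hK : 1 ≤ K) : 1 ≤ C2 K := by
  unfold C2; linarith [CK_one hK]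

/-- constant -/
noncomputable def KC2 (K L : ℝ) : ℝ := 27 * L ^ 3 * C2 K

section

variable {β : Type} {A : Set β} {cq : ℝ} {q P : Jt} {y : β → ℝ} {X : β → Fin 3 → ℝ}
  {K α αq ε : ℝ}

theorem DataM.K1 (D : DataM A cq q P y X K α αq ε) : 1 ≤ K := D.D.K1

theorem FF_split (hε : ε ≠ 0) (cP : ℝ) (n : β) : FF cP P y X n =
    (cP + ∑ i, P.a i * X n i + 1 / 2 * ∑ i, ∑ j, P.h i j * (X n i * X n j)) +
      ε * FF 0 (yp P ε) y X n := by
  simp only [FF, Adp876.ev, yp, Fin.sum_univ_three]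
  field_simp
  ring

theorem GG_split (hε : ε ≠ 0) (n : β) (i : Fin 3) : GG q P y X n i =
    (P.a i + ∑ j, P.h i j * X n j) + ε * GG q (yp P ε) y X n i := by
  simp only [GG, tg, sh, yp, Fin.sum_univ_three]
  field_simp
  ring

theorem HH_split (hε : ε ≠ 0) (n : β) (i j : Fin 3) : HH q P y X n i j =
    P.h i j + ε * HH q (yp P ε) y X n i j := by
  simp only [HH, th, lf]
  have e0 : (sh P (y n) (X n)).a0 = ε * (sh (yp P ε) (y n) (X n)).a0 := by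
    simp only [sh, yp, Fin.sum_univ_three]; field_simp
  have e1 : (sh P (y n) (X n)).h i j = P.h i j := rfl
  have e2 : ∀ k, (sh P (y n) (X n)).h0 k = ε * (sh (yp P ε) (y n) (X n)).h0 k := fun k => by
    simp only [sh, yp]; field_simp
  have e3 : (sh P (y n) (X n)).h00 = ε * (sh (yp P ε) (y n) (X n)).h00 := by
    simp only [sh, yp]; field_simp
  have e4 : (sh (yp P ε) (y n) (X n)).h i j = 0 := rfl
  rw [e0, e1, e2 i, e2 j, e3, e4]
  ring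

theorem scal {ε αq α r C : ℝ} (hε : 0 < ε) (hε1 : ε ≤ 1) (h : ε * αq ≤ α) (hC : 0 ≤ C) (hr : 0 ≤ r) :
    ε * (C * (r + αq)) ≤ C * (r + α) := by
  have h1 : ε * r ≤ r := by nlinarith
  calc ε * (C * (r + αq)) = C * (ε * r + ε * αq) := by ring
    _ ≤ C * (r + α) := mul_le_mul_of_nonneg_left (add_le_add h1 h) hC

theorem DataM.GG_le (D : DataM A cq q P y X K α αq ε) {n : β} (hn : n ∈ A) (i : Fin 3) :
    |GG q P y X n i| ≤ C2 K := by
  have hK := D.K1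
  have h1 := D.D.GG_le hn i
  have hC := CK_one hK
  rw [GG_split D.ε0.ne' n i]
  have h2 : |P.a i + ∑ j, P.h i j * X n j| ≤ 4 * K := by
    have := dot_le (fun j => D.bh i j) (D.D.X1 n hn)
    refine (abs_add_le _ _).trans ?_
    linarith [D.ba i]
  have h3 : |ε * GG q (yp P ε) y X n i| ≤ CK K := by
    rw [abs_mul, abs_of_pos D.ε0]
    have h0 := abs_nonneg (GG q (yp P ε) y X n i)
    have := D.ε1
    nlinarith
  have h4 : 4 * K ≤ CK K := by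
    unfold CK
    have : K ≤ K ^ 11 := le_self_pow₀ hK (by norm_num)
    linarith
  refine (abs_add_le _ _).trans ?_
  unfold C2
  linarith

theorem DataM.HH_le (D : DataM A cq q P y X K α αq ε) {n : β} (hn : n ∈ A) (i j : Fin 3) :
    |HH q P y X n i j| ≤ C2 K := by
  have hK := D.K1
  have h1 := D.D.HH_le hn i j
  have hC := CK_one hK
  rw [HH_split D.ε0.ne' n i j]
  have h3 : |ε * HH q (yp P ε) y X n i j| ≤ CK K := by
    rw [abs_mul, abs_of_pos D.ε0]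
    have h0 := abs_nonneg (HH q (yp P ε) y X n i j)
    have := D.ε1
    nlinarith
  have h4 : K ≤ CK K := by
    unfold CK
    have : K ≤ K ^ 11 := le_self_pow₀ hK (by norm_num)
    linarith
  refine (abs_add_le _ _).trans ?_
  unfold C2
  linarith [D.bh i j]

theorem DataM.t1 (D : DataM A cq q P y X K α αq ε) (cP : ℝ) {n n' : β} (hn : n ∈ A) (hn' : n' ∈ A)
    {r : ℝ} (hr : ∀ j, |X n' j - X n j| ≤ r) :
    |FF cP P y X n' - FF cP P y X n - ∑ j, GG q P y X n j * (X n' j - X n j)| ≤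
      C2 K * (r ^ 2 + α) := by
  have hK := D.K1
  have hC := CK_one hK
  have h1 := D.D.t1 0 hn hn' hr
  have s := D.s
  have e : FF cP P y X n' - FF cP P y X n - ∑ j, GG q P y X n j * (X n' j - X n j) =
      1 / 2 * (∑ i, ∑ j, P.h i j * ((X n' i - X n i) * (X n' j - X n j))) +
      ε * (FF 0 (yp P ε) y X n' - FF 0 (yp P ε) y X n -
        ∑ j, GG q (yp P ε) y X n j * (X n' j - X n j)) := by
    have g := fun i => GG_split (q := q) (P := P) (y := y) (X := X) D.ε0.ne' n i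
    rw [FF_split D.ε0.ne' cP n', FF_split D.ε0.ne' cP n]
    simp only [g, Fin.sum_univ_three]
    rw [s 1 0, s 2 0, s 2 1]
    ring
  rw [e]
  have h2 := quad_le D.bh hr
  have h3 : |1 / 2 * (∑ i, ∑ j, P.h i j * ((X n' i - X n i) * (X n' j - X n j)))| ≤
      CK K * (r ^ 2 + α) := by
    rw [abs_mul, abs_of_pos (by norm_num : (0:ℝ) < 1 / 2)]
    have h4 : 9 * K ≤ CK K := by
      unfold CK
      have : K ≤ K ^ 11 := le_self_pow₀ hK (by norm_num)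
      linarith
    have h5 : 0 ≤ α := le_trans (mul_nonneg D.ε0.le D.D.α0.le) D.εα
    have h6 : 9 * K * r ^ 2 ≤ CK K * (r ^ 2 + α) :=
      mul_le_mul h4 (by linarith) (sq_nonneg r) (by linarith)
    have h7 : 0 ≤ |∑ i, ∑ j, P.h i j * ((X n' i - X n i) * (X n' j - X n j))| := abs_nonneg _
    have h8 : 9 * K * r ^ 2 = 9 * (K * r ^ 2) := by ring
    linarith
  have h4 : |ε * (FF 0 (yp P ε) y X n' - FF 0 (yp P ε) y X n -
        ∑ j, GG q (yp P ε) y X n j * (X n' j - X n j))| ≤ CK K * (r ^ 2 + α) := by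
    rw [abs_mul, abs_of_pos D.ε0]
    exact (mul_le_mul_of_nonneg_left h1 D.ε0.le).trans
      (scal D.ε0 D.ε1 D.εα (by linarith) (sq_nonneg r))
  refine (abs_add_le _ _).trans ?_
  unfold C2
  linarith

theorem DataM.t2 (D : DataM A cq q P y X K α αq ε) {n n' : β} (hn : n ∈ A) (hn' : n' ∈ A)
    {r : ℝ} (hr : ∀ j, |X n' j - X n j| ≤ r) (i : Fin 3) :
    |GG q P y X n' i - GG q P y X n i - ∑ j, HH q P y X n i j * (X n' j - X n j)| ≤
      C2 K * (r ^ 2 + α) := by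
  have hK := D.K1
  have hC := CK_one hK
  have h1 := D.D.t2 hn hn' hr i
  have e : GG q P y X n' i - GG q P y X n i - ∑ j, HH q P y X n i j * (X n' j - X n j) =
      ε * (GG q (yp P ε) y X n' i - GG q (yp P ε) y X n i -
        ∑ j, HH q (yp P ε) y X n i j * (X n' j - X n j)) := by
    have g := fun i => GG_split (q := q) (P := P) (y := y) (X := X) D.ε0.ne' n i
    have g' := fun i => GG_split (q := q) (P := P) (y := y) (X := X) D.ε0.ne' n' i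
    have k := fun i j => HH_split (q := q) (P := P) (y := y) (X := X) D.ε0.ne' n i j
    simp only [g, g', k, Fin.sum_univ_three]
    ring
  rw [e, abs_mul, abs_of_pos D.ε0]
  have h5 : 0 ≤ α := le_trans (mul_nonneg D.ε0.le D.D.α0.le) D.εα
  have h6 := (mul_le_mul_of_nonneg_left h1 D.ε0.le).trans
    (scal D.ε0 D.ε1 D.εα (by linarith) (sq_nonneg r))
  unfold C2
  have : 0 ≤ CK K * (r ^ 2 + α) := by positivity
  linarith

theorem DataM.t3 (D : DataM A cq q P y X K α αq ε) {n n' : β} (hn : n ∈ A) (hn' : n' ∈ A)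
    {r : ℝ} (hr : ∀ j, |X n' j - X n j| ≤ r) (i j : Fin 3) :
    |HH q P y X n' i j - HH q P y X n i j| ≤ C2 K * (r + α) := by
  have hK := D.K1
  have hC := CK_one hK
  have hr0 : 0 ≤ r := (abs_nonneg _).trans (hr 0)
  have h1 := D.D.t3 hn hn' hr i j
  have e : HH q P y X n' i j - HH q P y X n i j =
      ε * (HH q (yp P ε) y X n' i j - HH q (yp P ε) y X n i j) := by
    rw [HH_split (q := q) (P := P) (y := y) (X := X) D.ε0.ne' n i j,
      HH_split (q := q) (P := P) (y := y) (X := X) D.ε0.ne' n' i j]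
    ring
  rw [e, abs_mul, abs_of_pos D.ε0]
  have h5 : 0 ≤ α := le_trans (mul_nonneg D.ε0.le D.D.α0.le) D.εα
  have h6 := (mul_le_mul_of_nonneg_left h1 D.ε0.le).trans
    (scal D.ε0 D.ε1 D.εα (by linarith) hr0)
  unfold C2
  have : 0 ≤ CK K * (r + α) := by positivity
  linarith

end

/-- **count of the boxes after a linear change of the base coordinates.** -/
theorem count_chg2 {H : ℕ} (hH : 1 ≤ H) {T : Finset ((ℤ × ℤ) × ℕ)} {cq cP : ℝ} {q P : Jt}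
    {y : (ℤ × ℤ) × ℕ → ℝ} {X : (ℤ × ℤ) × ℕ → Fin 3 → ℝ} {K L B : ℝ}
    {αq ε : ℝ} (D : DataM (T : Set ((ℤ × ℤ) × ℕ)) cq q P y X K (1 / H) αq ε) {M : Fin 3 → Fin 3 → ℝ}
    (hL : 1 ≤ L) (hM : ∀ k j, |M k j| ≤ L) (hB : 1 ≤ B) (x : (ℤ × ℤ) × ℕ → Fin 3 → ℝ)
    (hx : ∀ b ∈ T, ∀ b' ∈ T, ∀ k, X b' k - X b k = ∑ j, M k j * (x b' j - x b j))
    (x0 : ∀ y ∈ T, x y 0 = y.2 / H) (x1 : ∀ y ∈ T, ⌊H * x y 1⌋ = y.1.1)
    (x2 : ∀ y ∈ T, ⌊H * x y 2⌋ = y.1.2) (xB : ∀ y ∈ T, ∀ i, |x y i| ≤ B) {β γ m : ℝ}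
    (hγ : 0 < γ) (hm : 0 < m) (hm1 : m ≤ 1) (hβ : 1 / (H : ℝ) ≤ β) {N : ℕ} (hN1 : 1 ≤ N)
    (hN : 5000 * (KC2 K L * B ^ 3) ≤ 2 ^ N * √β) (hF : ∀ b ∈ T, |FF cP P y X b| ≤ β)
    (hnd : ∀ b ∈ T, (∃ i, γ ≤ |∑ k, M k i * GG q P y X b k|) ∨ ∃ i j k l,
      m ≤ |mn (fun i j => ∑ k, ∑ l, M k i * M l j * HH q P y X b k l) i j k l|) :
    (T.card : ℝ) ≤
      10 ^ 52 * N * (KC2 K L) ^ 10 * B ^ 33 * (1 / γ ^ 2 + 1 / m ^ 5) * β * (H : ℝ) ^ 3 := by
  have hC := C2_one D.K1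
  have hC0 : (0:ℝ) < C2 K := by linarith
  have hL0 : (0:ℝ) < L := by linarith
  have hL2 : (1:ℝ) ≤ L ^ 2 := one_le_pow₀ hL
  have hL3 : (1:ℝ) ≤ L ^ 3 := one_le_pow₀ hL
  have h23 : L ^ 2 ≤ L ^ 3 := pow_le_pow_right₀ hL (by norm_num)
  have h13 : L ≤ L ^ 3 := le_self_pow₀ hL (by norm_num)
  have hHr : (0:ℝ) < H := by exact_mod_cast hH
  have hH0 : (0:ℝ) ≤ 1 / H := by positivity
  have hKC1 : 1 ≤ KC2 K L := by
    unfold KC2
    have : (1:ℝ) * 1 ≤ L ^ 3 * C2 K := mul_le_mul hL3 hC (by norm_num) (by positivity)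
    linarith
  have hrr : ∀ b ∈ T, ∀ b' ∈ T, ∀ r : ℝ, (∀ j, |x b' j - x b j| ≤ r) →
      ∀ j, |X b' j - X b j| ≤ 3 * (L * r) := by
    intro b hb b' hb' r hr j
    rw [hx b hb b' hb']
    exact mdot_le hM hr j
  have hKCe : KC2 K L = 27 * (L ^ 3 * C2 K) := by unfold KC2; ring
  refine Sbl57.count_boxes hH hKC1 hB T x (FF cP P y X)
    (fun b i => ∑ k, M k i * GG q P y X b k)
    (fun b i j => ∑ k, ∑ l, M k i * M l j * HH q P y X b k l) x0 x1 x2 xB ?_ ?_ ?_ ?_ ?_ hγ hm hm1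
    hβ hN1 hN hF ?_
  · intro b hb i
    refine (mtdot_le hM (fun k => D.GG_le hb k) i).trans ?_
    rw [hKCe]
    have : L * C2 K ≤ L ^ 3 * C2 K := mul_le_mul_of_nonneg_right h13 hC0.le
    have h0 : 0 ≤ L ^ 3 * C2 K := by positivity
    linarith
  · intro b hb i j
    refine (mtm_le hM (fun k l => D.HH_le hb k l) i j).trans ?_
    rw [hKCe]
    have : L ^ 2 * C2 K ≤ L ^ 3 * C2 K := mul_le_mul_of_nonneg_right h23 hC0.le
    have h0 : 0 ≤ L ^ 3 * C2 K := by positivity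
    linarith
  · intro b hb b' hb' r hr
    have h1 := D.t1 cP hb hb' (hrr b hb b' hb' r hr)
    have e1 : ∑ j, (∑ k, M k j * GG q P y X b k) * (x b' j - x b j) =
        ∑ j, GG q P y X b j * (X b' j - X b j) := by
      simp only [hx b hb b' hb', Fin.sum_univ_three]; ring
    show |FF cP P y X b' - FF cP P y X b -
      ∑ j, (∑ k, M k j * GG q P y X b k) * (x b' j - x b j)| ≤ _
    rw [e1]
    refine h1.trans ?_
    have h2 : L ^ 2 * C2 K * r ^ 2 ≤ L ^ 3 * C2 K * r ^ 2 :=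
      mul_le_mul_of_nonneg_right (mul_le_mul_of_nonneg_right h23 hC0.le) (sq_nonneg r)
    have h3 : 1 * (C2 K * (1 / (H:ℝ))) ≤ L ^ 3 * (C2 K * (1 / H)) :=
      mul_le_mul_of_nonneg_right hL3 (by positivity)
    have h4 : 0 ≤ L ^ 3 * C2 K * r ^ 2 := by positivity
    have h5 : 0 ≤ L ^ 3 * (C2 K * (1 / (H:ℝ))) := by positivity
    rw [hKCe]
    have e2 : C2 K * ((3 * (L * r)) ^ 2 + 1 / H) = 9 * (L ^ 2 * C2 K * r ^ 2) +
        1 * (C2 K * (1 / H)) := by ring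
    have e3 : 27 * (L ^ 3 * C2 K) * (r ^ 2 + 1 / H) = 27 * (L ^ 3 * C2 K * r ^ 2) +
        27 * (L ^ 3 * (C2 K * (1 / H))) := by ring
    rw [e2, e3]
    linarith
  · intro b hb b' hb' r hr i
    have h1 := fun k => D.t2 hb hb' (hrr b hb b' hb' r hr) k
    have e1 : (∑ k, M k i * GG q P y X b' k) - (∑ k, M k i * GG q P y X b k) -
        ∑ j, (∑ k, ∑ l, M k i * M l j * HH q P y X b k l) * (x b' j - x b j) =
        ∑ k, M k i * (GG q P y X b' k - GG q P y X b k -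
          ∑ j, HH q P y X b k j * (X b' j - X b j)) := by
      simp only [hx b hb b' hb', Fin.sum_univ_three]; ring
    show |(∑ k, M k i * GG q P y X b' k) - (∑ k, M k i * GG q P y X b k) -
        ∑ j, (∑ k, ∑ l, M k i * M l j * HH q P y X b k l) * (x b' j - x b j)| ≤ _
    rw [e1]
    refine (mtdot_le hM h1 i).trans ?_
    have h3 : L * (C2 K * (1 / (H:ℝ))) ≤ L ^ 3 * (C2 K * (1 / H)) :=
      mul_le_mul_of_nonneg_right h13 (by positivity)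
    have h5 : 0 ≤ L ^ 3 * (C2 K * (1 / (H:ℝ))) := by positivity
    rw [hKCe]
    have e2 : 3 * (L * (C2 K * ((3 * (L * r)) ^ 2 + 1 / H))) = 27 * (L ^ 3 * C2 K * r ^ 2) +
        3 * (L * (C2 K * (1 / H))) := by ring
    have e3 : 27 * (L ^ 3 * C2 K) * (r ^ 2 + 1 / H) = 27 * (L ^ 3 * C2 K * r ^ 2) +
        27 * (L ^ 3 * (C2 K * (1 / H))) := by ring
    rw [e2, e3]
    linarith
  · intro b hb b' hb' r hr i j
    have h1 := fun k l => D.t3 hb hb' (hrr b hb b' hb' r hr) k l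
    have e1 : (∑ k, ∑ l, M k i * M l j * HH q P y X b' k l) -
        (∑ k, ∑ l, M k i * M l j * HH q P y X b k l) =
        ∑ k, ∑ l, M k i * M l j * (HH q P y X b' k l - HH q P y X b k l) := by
      simp only [Fin.sum_univ_three]; ring
    show |(∑ k, ∑ l, M k i * M l j * HH q P y X b' k l) -
        (∑ k, ∑ l, M k i * M l j * HH q P y X b k l)| ≤ _
    rw [e1]
    refine (mtm_le hM h1 i j).trans ?_
    have h3 : L ^ 2 * (C2 K * (1 / (H:ℝ))) ≤ L ^ 3 * (C2 K * (1 / H)) :=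
      mul_le_mul_of_nonneg_right h23 (by positivity)
    have h5 : 0 ≤ L ^ 3 * (C2 K * (1 / (H:ℝ))) := by positivity
    rw [hKCe]
    have e2 : 9 * (L ^ 2 * (C2 K * (3 * (L * r) + 1 / H))) = 27 * (L ^ 3 * C2 K * r) +
        9 * (L ^ 2 * (C2 K * (1 / H))) := by ring
    have e3 : 27 * (L ^ 3 * C2 K) * (r + 1 / H) = 27 * (L ^ 3 * C2 K * r) +
        27 * (L ^ 3 * (C2 K * (1 / H))) := by ring
    rw [e2, e3]
    linarith
  · exact hnd


section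

variable {S : Plk4} {q' : ℝ → V3 → ℝ} {z0 ρ : ℝ} {T0 : Ln4} {σ s1 s2 r k0 μ Λ cq cP : ℝ}
  {Jq JP : Jt}

/-- **count of the boxes of the sheet `S` at which `q'` is nondegenerate** (raw form: the chart is an
input) -/
theorem nd_count2 {K W w1 w2 l m β αq ε : ℝ} {H N : ℕ} (hO : Ortho S.e) (hw : ∀ k, 0 < S.w k)
    (hσ : σ ≠ 0) (hr : 0 < r) (hrW : 1 / r ≤ W) (hW : 1 ≤ W) (hk0 : k0 ≠ 0) (hΛ : 0 < Λ)
    (hH : 1 ≤ H) (hw1 : 0 < w1) (hw2 : 0 < w2) (d1 : S.w 1 ≤ W * w1 ∧ w1 ≤ W * S.w 1)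
    (d2 : S.w 2 ≤ W * w2 ∧ w2 ≤ W * S.w 2) (hg1 : |gv S ρ T0 1| ≤ W) (hg2 : |gv S ρ T0 2| ≤ W)
    (hq : ∀ ζ y u v, S.q (z0 + ρ * ζ) (cg (fr S.e S.w) T0 z0 ρ σ s1 s2 r ζ y u v) =
      k0 * (cq + ev Jq y ![ζ, u, v]))
    (hP : ∀ ζ y u v, q' (z0 + ρ * ζ) (cg (fr S.e S.w) T0 z0 ρ σ s1 s2 r ζ y u v) -
      μ * S.q (z0 + ρ * ζ) (cg (fr S.e S.w) T0 z0 ρ σ s1 s2 r ζ y u v) =
      Λ * (cP + ev JP y ![ζ, u, v]))
    (hK : 1 ≤ K) (bq : Bd Jq K) (sP : JP.Sym) (bPa : ∀ i, |JP.a i| ≤ K) (bPh : ∀ i j, |JP.h i j| ≤ K)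
    (bP0 : |JP.a0| ≤ K * ε) (bP00 : |JP.h00| ≤ K * ε) (bPm : ∀ i, |JP.h0 i| ≤ K * ε)
    (st : ∀ (y : ℝ) (x : Fin 3 → ℝ), |y| ≤ 1 → (∀ i, |x i| ≤ 1) → 0 ≤ x 0 →
      1 / K ≤ |(sh Jq y x).a0|)
    (T : Finset ((ℤ × ℤ) × ℕ)) (Tb : (ℤ × ℤ) × ℕ → Ln4) (yb ub vb : (ℤ × ℤ) × ℕ → ℝ)
    (hj : ∀ b ∈ T, b.2 ≤ H)
    (pt : ∀ b ∈ T, (Tb b).pos (zj z0 ρ H b.2) =
      cg (fr S.e S.w) T0 z0 ρ σ s1 s2 r ((b.2 : ℝ) / H) (yb b) (ub b) (vb b))
    (p1 : ∀ b ∈ T, |yb b| ≤ 1 ∧ |ub b| ≤ 1 ∧ |vb b| ≤ 1)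
    (hαq : 0 < αq) (hαq1 : αq ≤ 1) (hε : 0 < ε) (hε1 : ε ≤ 1) (hεα : ε * αq ≤ 1 / H)
    (on : ∀ b ∈ T, |S.q (zj z0 ρ H b.2) ((Tb b).pos (zj z0 ρ H b.2))| ≤ |k0| * (K * αq))
    (onP : ∀ b ∈ T, |q' (zj z0 ρ H b.2) ((Tb b).pos (zj z0 ρ H b.2)) -
      μ * S.q (zj z0 ρ H b.2) ((Tb b).pos (zj z0 ρ H b.2))| ≤ Λ * β)
    (lab : ∀ b ∈ T, gb S.e S.c w1 w2 z0 ρ H (Tb b) b.2 = b.1)
    (box : ∀ b ∈ T, ∀ k, |lc S.e S.c k (Tb b) (zj z0 ρ H b.2)| ≤ S.w k)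
    (hl : 0 < l) (hm : 0 < m) (hm1 : m ≤ 1) (hβ : 1 / (H : ℝ) ≤ β) (hN1 : 1 ≤ N)
    (hN : 5000 * (KC2 K (W ^ 3) * W ^ 3) ≤ 2 ^ N * √β)
    (nd : ∀ b ∈ T, Nd S q' z0 ρ H b.2 (Tb b) l m Λ) :
    (T.card : ℝ) ≤ 10 ^ 52 * N * (KC2 K (W ^ 3)) ^ 10 * W ^ 33 *
      (1 / (l / W) ^ 2 + 1 / (m / W ^ 4) ^ 5) * β * (H : ℝ) ^ 3 := by
  have hW0 : (0:ℝ) < W := by linarith
  have hHr : (0:ℝ) < H := by exact_mod_cast hH
  have hH1 : (1:ℝ) ≤ H := by exact_mod_cast hH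
  have hS1 := hw 1
  have hS2 := hw 2
  have hW2 : W ≤ W ^ 2 := le_self_pow₀ hW (by norm_num)
  have hW3 : W ≤ W ^ 3 := le_self_pow₀ hW (by norm_num)
  have hW13 : (1:ℝ) ≤ W ^ 3 := one_le_pow₀ hW
  have hW12 : (1:ℝ) ≤ W ^ 2 := one_le_pow₀ hW
  have hW23 : W ^ 2 ≤ W ^ 3 := pow_le_pow_right₀ hW (by norm_num)
  set X : (ℤ × ℤ) × ℕ → Fin 3 → ℝ := fun b => ![(b.2 : ℝ) / H, ub b, vb b] with hX
  set x : (ℤ × ℤ) × ℕ → Fin 3 → ℝ := fun b => ![(b.2 : ℝ) / H,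
    lc S.e S.c 1 (Tb b) (zj z0 ρ H b.2) / w1, lc S.e S.c 2 (Tb b) (zj z0 ρ H b.2) / w2] with hx
  have hζ : ∀ b ∈ T, 0 ≤ (b.2 : ℝ) / H ∧ (b.2 : ℝ) / H ≤ 1 := fun b hb => by
    refine ⟨by positivity, ?_⟩
    rw [div_le_one hHr]; exact_mod_cast hj b hb
  -- the diagonal
  have hD : ∀ j, 0 < dD S w1 w2 j ∧ dD S w1 w2 j ≤ W ∧ 1 / dD S w1 w2 j ≤ W := by
    intro j
    fin_cases j
    · refine ⟨by simp [dD], by simpa [dD] using hW, by simpa [dD] using hW⟩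
    · show 0 < S.w 1 / w1 ∧ S.w 1 / w1 ≤ W ∧ 1 / (S.w 1 / w1) ≤ W
      refine ⟨by positivity, ?_, ?_⟩
      · rw [div_le_iff₀ hw1]; exact d1.1
      · rw [one_div_div, div_le_iff₀ hS1]; exact d1.2
    · show 0 < S.w 2 / w2 ∧ S.w 2 / w2 ≤ W ∧ 1 / (S.w 2 / w2) ≤ W
      refine ⟨by positivity, ?_, ?_⟩
      · rw [div_le_iff₀ hw2]; exact d2.1
      · rw [one_div_div, div_le_iff₀ hS2]; exact d2.2
  have hNle : ∀ k j, |cN (gv S ρ T0) r k j| ≤ W ^ 2 := by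
    have h1 : |1 / r| ≤ W ^ 2 := by
      rw [abs_of_pos (by positivity)]; linarith
    have h0 : |(0:ℝ)| ≤ W ^ 2 := by rw [abs_zero]; positivity
    have h11 : |(1:ℝ)| ≤ W ^ 2 := by rw [abs_one]; exact hW12
    have hgr : ∀ g : ℝ, |g| ≤ W → |-g / r| ≤ W ^ 2 := fun g hg => by
      rw [abs_div, abs_neg, abs_of_pos hr, div_eq_mul_one_div, sq]
      exact mul_le_mul hg hrW (by positivity) hW0.le
    intro k j
    fin_cases k <;> fin_cases j
    · exact h11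
    · exact h0
    · exact h0
    · exact hgr _ hg1
    · exact h1
    · exact h0
    · exact hgr _ hg2
    · exact h0
    · exact h1
  have hM : ∀ k j, |cM S ρ T0 r w1 w2 k j| ≤ W ^ 3 := by
    intro k j
    obtain ⟨a1, a2, a3⟩ := hD j
    unfold cM
    rw [abs_div, abs_of_pos a1, div_eq_mul_one_div]
    calc |cN (gv S ρ T0) r k j| * (1 / dD S w1 w2 j) ≤ W ^ 2 * W :=
          mul_le_mul (hNle k j) a3 (by positivity) (by positivity)
      _ = W ^ 3 := by ring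
  have DT : Data (T : Set ((ℤ × ℤ) × ℕ)) cq Jq (yp JP ε) yb X K αq :=
    { K1 := hK
      α0 := hαq
      α1 := hαq1
      bq := bq
      bP := yp_bd hK hε bP0 bP00 bPm
      st := st
      y1 := fun b hb => (p1 b hb).1
      X1 := by
        intro b hb i
        fin_cases i
        · show |(b.2 : ℝ) / H| ≤ 1
          rw [abs_of_nonneg (hζ b hb).1]; exact (hζ b hb).2
        · exact (p1 b hb).2.1
        · exact (p1 b hb).2.2
      X0 := fun b hb => (hζ b hb).1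
      on := by
        intro b hb
        have h1 := on b hb
        rw [pt b hb] at h1
        have e0 : zj z0 ρ H b.2 = z0 + ρ * ((b.2 : ℝ) / H) := rfl
        rw [e0, hq, abs_mul] at h1
        exact le_of_mul_le_mul_left h1 (abs_pos.2 hk0) }
  have DM : DataM (T : Set ((ℤ × ℤ) × ℕ)) cq Jq JP yb X K (1 / H) αq ε :=
    { D := DT, ba := bPa, bh := bPh, s := sP, ε0 := hε, ε1 := hε1, εα := hεα }
  have hxX : ∀ b ∈ T, ∀ b' ∈ T, ∀ k, X b' k - X b k =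
      ∑ j, cM S ρ T0 r w1 w2 k j * (x b' j - x b j) := by
    intro b hb b' hb' k
    obtain ⟨e1, e2⟩ := lc_cg hO hw (pt b hb)
    obtain ⟨f1, f2⟩ := lc_cg hO hw (pt b' hb')
    rw [Fin.sum_univ_three]
    fin_cases k
    · show (b'.2 : ℝ) / H - (b.2 : ℝ) / H = 1 / 1 * ((b'.2 : ℝ) / H - (b.2 : ℝ) / H) +
        0 / (S.w 1 / w1) * _ + 0 / (S.w 2 / w2) * _
      ring
    · show ub b' - ub b = (-gv S ρ T0 1 / r) / 1 * ((b'.2 : ℝ) / H - (b.2 : ℝ) / H) +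
        (1 / r) / (S.w 1 / w1) * (lc S.e S.c 1 (Tb b') (zj z0 ρ H b'.2) / w1 -
          lc S.e S.c 1 (Tb b) (zj z0 ρ H b.2) / w1) + 0 / (S.w 2 / w2) * _
      rw [e1, f1]
      field_simp
      ring
    · show vb b' - vb b = (-gv S ρ T0 2 / r) / 1 * ((b'.2 : ℝ) / H - (b.2 : ℝ) / H) +
        0 / (S.w 1 / w1) * _ + (1 / r) / (S.w 2 / w2) *
          (lc S.e S.c 2 (Tb b') (zj z0 ρ H b'.2) / w2 -
          lc S.e S.c 2 (Tb b) (zj z0 ρ H b.2) / w2)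
      rw [e2, f2]
      field_simp
      ring
  have hl' : 0 < l / W := by positivity
  have hm' : 0 < m / W ^ 4 := by positivity
  have hm1' : m / W ^ 4 ≤ 1 := by
    rw [div_le_one (by positivity)]
    exact hm1.trans (one_le_pow₀ hW)
  refine count_chg2 (cP := cP) hH DM (M := cM S ρ T0 r w1 w2) hW13 hM hW x hxX ?_ ?_ ?_ ?_ hl' hm'
    hm1' hβ hN1 hN ?_ ?_
  · intro b hb; rfl
  · intro b hb
    have h1 := lab b hb
    unfold gb at h1
    have h2 := congrArg Prod.fst h1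
    simp only at h2
    show ⌊(H : ℝ) * (lc S.e S.c 1 (Tb b) (zj z0 ρ H b.2) / w1)⌋ = b.1.1
    rw [← mul_div_assoc]; exact h2
  · intro b hb
    have h1 := lab b hb
    unfold gb at h1
    have h2 := congrArg Prod.snd h1
    simp only at h2
    show ⌊(H : ℝ) * (lc S.e S.c 2 (Tb b) (zj z0 ρ H b.2) / w2)⌋ = b.1.2
    rw [← mul_div_assoc]; exact h2
  · intro b hb i
    fin_cases i
    · show |(b.2 : ℝ) / H| ≤ W
      rw [abs_of_nonneg (hζ b hb).1]; exact (hζ b hb).2.trans hW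
    · show |lc S.e S.c 1 (Tb b) (zj z0 ρ H b.2) / w1| ≤ W
      rw [abs_div, abs_of_pos hw1, div_le_iff₀ hw1]
      exact (box b hb 1).trans d1.1
    · show |lc S.e S.c 2 (Tb b) (zj z0 ρ H b.2) / w2| ≤ W
      rw [abs_div, abs_of_pos hw2, div_le_iff₀ hw2]
      exact (box b hb 2).trans d2.1
  · intro b hb
    have h1 := onP b hb
    rw [pt b hb] at h1
    have e0 : zj z0 ρ H b.2 = z0 + ρ * ((b.2 : ℝ) / H) := rfl
    rw [e0, hP, abs_mul, abs_of_pos hΛ] at h1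
    exact le_of_mul_le_mul_left h1 hΛ
  · intro b hb
    have hXv : X b = ![(b.2 : ℝ) / H, ub b, vb b] := rfl
    have h0 : (sh Jq (yb b) ![(b.2 : ℝ) / H, ub b, vb b]).a0 ≠ 0 := by
      have h1 := DT.st5 hb
      rw [hXv] at h1
      have h2 : 0 < |(sh Jq (yb b) ![(b.2 : ℝ) / H, ub b, vb b]).a0| :=
        lt_of_lt_of_le (by positivity) h1
      exact abs_pos.1 h2
    obtain ⟨g1, g2⟩ := tg_th hO hw hσ hr.ne' hk0 hq hP bq.s sP (pt b hb) h0
    have eG : ∀ i, ∑ k, cM S ρ T0 r w1 w2 k i * GG Jq JP yb X b k =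
        tg (jS S S.q z0 ρ H b.2 (Tb b)) (jS S q' z0 ρ H b.2 (Tb b)) i / (Λ * dD S w1 w2 i) := by
      intro i
      have hd := (hD i).1.ne'
      rw [g1 i]
      unfold GG cM
      rw [hXv]
      simp only [Fin.sum_univ_three]
      field_simp
    have eH : ∀ i i', ∑ k, ∑ l, cM S ρ T0 r w1 w2 k i * cM S ρ T0 r w1 w2 l i' *
        HH Jq JP yb X b k l =
        th (jS S S.q z0 ρ H b.2 (Tb b)) (jS S q' z0 ρ H b.2 (Tb b)) i i' /
          (Λ * (dD S w1 w2 i * dD S w1 w2 i')) := by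
      intro i i'
      have hd := (hD i).1.ne'
      have hd' := (hD i').1.ne'
      rw [g2 i i']
      unfold HH cM
      rw [hXv]
      simp only [Fin.sum_univ_three]
      field_simp
    rcases nd b hb with ⟨i, hi⟩ | ⟨i, j, k, k', hi⟩
    · left
      refine ⟨i, ?_⟩
      rw [eG i]
      obtain ⟨a1, a2, a3⟩ := hD i
      rw [abs_div, abs_of_pos (mul_pos hΛ a1), le_div_iff₀ (mul_pos hΛ a1)]
      have e1 : l / W * (Λ * dD S w1 w2 i) ≤ l / W * (Λ * W) :=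
        mul_le_mul_of_nonneg_left (mul_le_mul_of_nonneg_left a2 hΛ.le) hl'.le
      have e2 : l / W * (Λ * W) = l * Λ := by field_simp
      linarith
    · right
      refine ⟨i, j, k, k', ?_⟩
      have hdi := hD i
      have hdj := hD j
      have hdk := hD k
      have hdk' := hD k'
      have e3 : mn (fun i j => ∑ k, ∑ l, cM S ρ T0 r w1 w2 k i * cM S ρ T0 r w1 w2 l j *
          HH Jq JP yb X b k l) i j k k' =
          mn (th (jS S S.q z0 ρ H b.2 (Tb b)) (jS S q' z0 ρ H b.2 (Tb b))) i j k k' /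
            (Λ ^ 2 * ((dD S w1 w2 i * dD S w1 w2 j) * (dD S w1 w2 k * dD S w1 w2 k'))) := by
        unfold mn
        simp only [eH]
        have n1 := hdi.1.ne'
        have n2 := hdj.1.ne'
        have n3 := hdk.1.ne'
        have n4 := hdk'.1.ne'
        field_simp
      rw [e3]
      have hp : 0 < (dD S w1 w2 i * dD S w1 w2 j) * (dD S w1 w2 k * dD S w1 w2 k') :=
        mul_pos (mul_pos hdi.1 hdj.1) (mul_pos hdk.1 hdk'.1)
      have hp2 : 0 < Λ ^ 2 * ((dD S w1 w2 i * dD S w1 w2 j) * (dD S w1 w2 k * dD S w1 w2 k')) :=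
        by positivity
      rw [abs_div, abs_of_pos hp2, le_div_iff₀ hp2]
      have hle : (dD S w1 w2 i * dD S w1 w2 j) * (dD S w1 w2 k * dD S w1 w2 k') ≤ (W * W) * (W * W) :=
        mul_le_mul (mul_le_mul hdi.2.1 hdj.2.1 hdj.1.le hW0.le)
          (mul_le_mul hdk.2.1 hdk'.2.1 hdk'.1.le hW0.le) (mul_pos hdk.1 hdk'.1).le
          (by positivity)
      have e1 : m / W ^ 4 * (Λ ^ 2 * ((dD S w1 w2 i * dD S w1 w2 j) *
          (dD S w1 w2 k * dD S w1 w2 k'))) ≤ m / W ^ 4 * (Λ ^ 2 * ((W * W) * (W * W))) :=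
        mul_le_mul_of_nonneg_left (mul_le_mul_of_nonneg_left hle (by positivity)) hm'.le
      have e2 : m / W ^ 4 * (Λ ^ 2 * ((W * W) * (W * W))) = m * Λ ^ 2 := by field_simp
      linarith

end

end Crest.Agent.R136.Nmx501
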