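import Crest.Agent.R136.Nmx2_44

/-!
# R136 (S0187), PLAN 2 (AL) (A), NdMx: points of the chart of a flat base (helper44)
-/

set_option autoImplicit false

namespace Crest.Agent.R136.Nmx44

open Crest.Agent.R136.Sh605 Crest.Agent.R136.Tl102
open Crest.Agent.R136.K4 (Plk4)
open Crest.Agent.R136.Tlt51 (Shp InP)
open Crest.Agent.R136.KapP335 (expP kapP expP_spec)
open Crest.Agent.R136.Rk601 (Jt)
open Crest.Agent.R136.Adp876 (ev sh Bd cg gv)

section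
variable {S : Plk4} {z0 ρ r0 : ℝ} {T : Ln4}

/-- **points of the box near `T` are chart points** -/
theorem pointF (hr : 0 < r0) (hρ : 0 ≤ ρ) (h : Shp S z0 ρ r0) (hT : InP T S z0 ρ)
    {ζ : ℝ} (z1 : 0 ≤ ζ) (z2 : ζ ≤ 1) {X : V3} (hX : InK S.e S.c (dbl3 S.w) (z0 + ρ * ζ) X)
    {δ : ℝ} (hδ : δ ≤ 1 / 8) (h1 : |dt (S.e 1) (X - T.pos (z0 + ρ * ζ))| ≤ δ * S.w 1)
    (h2 : |dt (S.e 2) (X - T.pos (z0 + ρ * ζ))| ≤ δ * S.w 2) :
    ∃ y u v, X = cF S z0 ρ T ζ y u v ∧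
      |y| ≤ 2 * (|S.q (z0 + ρ * ζ) X| + S.a) / kk S z0 ρ T + 1280 * δ ∧
      |u| ≤ 256 * δ ∧ |v| ≤ 256 * δ := by
  have hw0 := w0_pos hr h
  have SP := StP.of_shN h hw0
  have N := nrm hr hρ h hT
  have hE := expP_spec h.isQ hw0.ne' z0 ρ T
  have hκ0 := kF_pos hr h T
  have hkk := kk_eq hr h T
  have hkp := kk_pos hr h T
  have hw1 := SP.pos 1
  have hw2 := SP.pos 2
  have hwne : ∀ i, S.w i ≠ 0 := fun i => (SP.pos i).ne'
  set b0 := (expP S z0 ρ T).1 with hb0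
  set b1 := (expP S z0 ρ T).2.1 with hb1
  set G := (expP S z0 ρ T).2.2 with hG
  set κ := kF S z0 ρ T with hκdef
  set z := z0 + ρ * ζ with hz
  set x := pc S.e S.w T z X with hx
  have c1 : |x 1| ≤ δ := by
    rw [hx]; unfold pc
    rw [abs_div, abs_of_pos hw1, div_le_iff₀ hw1]; exact h1
  have c2 : |x 2| ≤ δ := by
    rw [hx]; unfold pc
    rw [abs_div, abs_of_pos hw2, div_le_iff₀ hw2]; exact h2
  have hδ0 : 0 ≤ δ := (abs_nonneg _).trans c1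
  have hy := yc_le2 SP hρ (fun z h1 h2 => (hT z h1 h2).1) hE z1 z2 hX hδ c1 c2
  have hqT : |S.q z (T.pos z)| ≤ S.a := (hT z (by rw [hz]; nlinarith) (by rw [hz]; nlinarith)).2
  have hxX : T.pos z + cmb (fr S.e S.w) x = X := cmb_pc SP.ortho hwne T z X
  set yc' := yc b0 x with hyc
  refine ⟨256 * yc' / κ, 256 * x 1, 256 * x 2, ?_, ?_, ?_, ?_⟩
  · rw [← hxX]
    unfold cF cg sF
    rw [← hz, ← hb0, ← hκdef]
    congr 2
    have e0 : κ / 256 * (256 * yc' / κ) = yc' := by field_simp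
    have e1 : (1:ℝ) / 256 * (256 * x 1) = x 1 := by ring
    have e2 : (1:ℝ) / 256 * (256 * x 2) = x 2 := by ring
    rw [e0, e1, e2]
    have := unsh_yc b0 x
    unfold unsh at this
    exact this.symm
  · have e : |256 * yc' / κ| = S.w 0 * |yc'| / kk S z0 ρ T := by
      rw [hkk, abs_div, abs_mul, abs_of_pos hκ0, abs_of_pos (by norm_num : (0:ℝ) < 256)]
      have := hw0.ne'
      have := hκ0.ne'
      field_simp
    rw [e, div_add' _ _ _ hkp.ne']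
    refine div_le_div_of_nonneg_right ?_ hkp.le
    have hkap : S.w 0 * kap b0 b1 G ≤ 256 * kk S z0 ρ T := by
      unfold kk kapP
      rw [← hb0, ← hb1, ← hG]
      have := a_pos hr h
      linarith
    have h5 : 5 * δ * (S.w 0 * kap b0 b1 G) ≤ 5 * δ * (256 * kk S z0 ρ T) :=
      mul_le_mul_of_nonneg_left hkap (by positivity)
    linarith
  · rw [abs_mul, abs_of_pos (by norm_num : (0:ℝ) < 256)]; linarith
  · rw [abs_mul, abs_of_pos (by norm_num : (0:ℝ) < 256)]; linarith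

/-- a difference of two lines which is small at both ends is small -/
theorem conv_le {p q : ℝ} {B ζ : ℝ} (h0 : |p| ≤ B) (h1 : |p + q| ≤ B) (z1 : 0 ≤ ζ) (z2 : ζ ≤ 1) :
    |p + ζ * q| ≤ B := by
  have e : p + ζ * q = (1 - ζ) * p + ζ * (p + q) := by ring
  rw [e]
  refine (abs_add_le _ _).trans ?_
  rw [abs_mul, abs_mul, abs_of_nonneg z1, abs_of_nonneg (by linarith : 0 ≤ 1 - ζ)]
  have := mul_le_mul_of_nonneg_left h0 (by linarith : 0 ≤ 1 - ζ)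
  have := mul_le_mul_of_nonneg_left h1 z1
  linarith

theorem dt_line (e : V3) (T T' : Ln4) (z0 ρ ζ : ℝ) :
    dt e (T'.pos (z0 + ρ * ζ) - T.pos (z0 + ρ * ζ)) = dt e (T'.pos z0 - T.pos z0) +
      ζ * (dt e (T'.pos (z0 + ρ) - T.pos (z0 + ρ)) - dt e (T'.pos z0 - T.pos z0)) := by
  simp only [dt, Ln4.pos, Pi.sub_apply]
  ring

/-- **lines of the sheet near `T` are chart lines** -/
theorem lineF (hr : 0 < r0) (hρ : 0 ≤ ρ) (h : Shp S z0 ρ r0) (hT : InP T S z0 ρ) {T' : Ln4}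
    (hT' : InP T' S z0 ρ)
    (p1 : ∀ k : Fin 3, k ≠ 0 → |dt (S.e k) (T'.pos z0 - T.pos z0)| ≤ S.w k / 2 ^ 14)
    (p2 : ∀ k : Fin 3, k ≠ 0 → |dt (S.e k) (T'.pos (z0 + ρ) - T.pos (z0 + ρ))| ≤ S.w k / 2 ^ 14)
    {ζ : ℝ} (z1 : 0 ≤ ζ) (z2 : ζ ≤ 1) : ∃ y u v, T'.pos (z0 + ρ * ζ) = cF S z0 ρ T ζ y u v ∧
      |y| ≤ 1 ∧ |u| ≤ 1 ∧ |v| ≤ 1 := by
  have hz1 : z0 ≤ z0 + ρ * ζ := by nlinarith
  have hz2 : z0 + ρ * ζ ≤ z0 + ρ := by nlinarith
  have hX := hT' _ hz1 hz2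
  have hwn : ∀ i, 0 ≤ S.w i := fun i => ((StP.of_shN h (w0_pos hr h)).pos i).le
  have hX2 : InK S.e S.c (dbl3 S.w) (z0 + ρ * ζ) (T'.pos (z0 + ρ * ζ)) := fun i => by
    have := hX.1 i
    have h3 := hwn i
    change _ ≤ 2 * S.w i
    linarith
  have q : ∀ k : Fin 3, k ≠ 0 →
      |dt (S.e k) (T'.pos (z0 + ρ * ζ) - T.pos (z0 + ρ * ζ))| ≤ 1 / 2 ^ 14 * S.w k := by
    intro k hk
    rw [dt_line]
    refine (conv_le (p1 k hk) ?_ z1 z2).trans (le_of_eq (by ring))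
    have := p2 k hk
    have e : dt (S.e k) (T'.pos z0 - T.pos z0) + (dt (S.e k) (T'.pos (z0 + ρ) - T.pos (z0 + ρ)) -
      dt (S.e k) (T'.pos z0 - T.pos z0)) = dt (S.e k) (T'.pos (z0 + ρ) - T.pos (z0 + ρ)) := by ring
    rw [e]; exact this
  obtain ⟨y, u, v, hP, hy, hu, hv⟩ := pointF hr hρ h hT z1 z2 hX2 (by norm_num : (1:ℝ) / 2 ^ 14 ≤ 1 / 8)
    (q 1 (by decide)) (q 2 (by decide))
  refine ⟨y, u, v, hP, hy.trans ?_, hu.trans (by norm_num), hv.trans (by norm_num)⟩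
  have hkp := kk_pos hr h T
  have hge := kk_ge hr h T
  have h4 : 2 * (|S.q (z0 + ρ * ζ) (T'.pos (z0 + ρ * ζ))| + S.a) / kk S z0 ρ T ≤ 4 / 390 := by
    rw [div_le_div_iff₀ hkp (by norm_num)]
    have := hX.2
    linarith
  have : (4:ℝ) / 390 + 1280 * (1 / 2 ^ 14) ≤ 1 := by norm_num
  linarith

/-- **points of the surface** at the height `z0` -/
theorem surfF (hr : 0 < r0) (hρ : 0 ≤ ρ) (h : Shp S z0 ρ r0) (hT : InP T S z0 ρ)
    (hk : 10 ^ 6 * S.a ≤ S.w 0) {u v : ℝ} (hu : |u| ≤ 1) (hv : |v| ≤ 1) :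
    ∃ y, |y| ≤ 1 / 20 ∧ S.q z0 (cF S z0 ρ T 0 y u v) = 0 ∧
      InK S.e S.c (dbl3 S.w) z0 (cF S z0 ρ T 0 y u v) ∧
      ∀ i, |dt (S.e i) (cF S z0 ρ T 0 y u v - T.pos z0)| ≤ S.w i / 8 := by
  obtain ⟨cq, Jq, hc, hB, hq, -, hst, g1, g2, g3, g4, g5⟩ := chartF hr hρ h hT hk
  have hkp := kk_pos hr h T
  have hκ0 := kF_pos hr h T
  have hκ14 := kF_le hr hρ h hT hk
  obtain ⟨s1, s2⟩ := sF_le hr hρ h hT
  have hsym := hB.s
  set f : ℝ → ℝ := fun y => cq + ev Jq y ![0, u, v] with hf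
  have hcont : Continuous f := by
    simp only [hf, ev]
    fun_prop
  have hx : ∀ i, |(![0, u, v] : Fin 3 → ℝ) i| ≤ 1 := by
    intro i; fin_cases i
    · simp
    · exact hu
    · exact hv
  -- value at `0`
  have hf0 : |f 0| ≤ 1 / 390 + (1 / 256 + 1 / 256 + 1 / 256) := by
    have e : f 0 = cq + ((1 / 2 * Jq.h 1 1) * (u * u) + (1 / 2 * Jq.h 2 2) * (v * v) +
        Jq.h 1 2 * (u * v)) := by
      simp only [hf, ev, Fin.sum_univ_three, Matrix.cons_val, g4, g5, hsym 2 1]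
      ring
    rw [e]
    have half : ∀ {x B : ℝ}, |x| ≤ B → |1 / 2 * x| ≤ 1 / 2 * B := fun hx =>
      Adj214.abs2 (by norm_num : |(1 / 2 : ℝ)| ≤ 1 / 2) hx
    have a1 := Adj214.abs2 (half g1) (Adj214.abs2 hu hu)
    have a2 := Adj214.abs2 (half g2) (Adj214.abs2 hv hv)
    have a3 := Adj214.abs2 g3 (Adj214.abs2 hu hv)
    refine (abs_add_le _ _).trans (add_le_add hc ((abs_add_le _ _).trans (add_le_add
      ((abs_add_le _ _).trans (add_le_add (a1.trans ?_) (a2.trans ?_))) (a3.trans ?_)))) <;>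
      norm_num
  -- monotone
  have hmono : ∀ y, |y| ≤ 1 → f y = f 0 + y * (sh Jq (y / 2) ![0, u, v]).a0 := by
    intro y _
    simp only [hf, ev, sh, Fin.sum_univ_three, Matrix.cons_val]
    ring
  have hp : 0 ≤ f (1 / 20) := by
    rw [hmono _ (by norm_num)]
    have := hst (1 / 20 / 2) ![0, u, v] (by norm_num) hx le_rfl
    rw [abs_le] at hf0
    linarith [hf0.1]
  have hn : f (-(1 / 20)) ≤ 0 := by
    rw [hmono _ (by norm_num)]
    have := hst (-(1 / 20) / 2) ![0, u, v] (by norm_num) hx le_rfl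
    rw [abs_le] at hf0
    linarith [hf0.2]
  obtain ⟨y, hy, hy0⟩ : ∃ y ∈ Set.Icc (-(1 / 20 : ℝ)) (1 / 20), f y = 0 :=
    intermediate_value_Icc (by norm_num) hcont.continuousOn ⟨hn, hp⟩
  have hyb : |y| ≤ 1 / 20 := abs_le.2 ⟨hy.1, hy.2⟩
  have hq0 : S.q z0 (cF S z0 ρ T 0 y u v) = 0 := by
    have := hq 0 y u v
    rw [mul_zero, add_zero] at this
    rw [this]
    have e : cq + ev Jq y ![0, u, v] = 0 := hy0
    rw [e, mul_zero]
  have SP := StP.of_shN h (w0_pos hr h)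
  have hbox : ∀ i, |dt (S.e i) (cF S z0 ρ T 0 y u v - T.pos z0)| ≤ S.w i / 8 := by
    have e : cF S z0 ρ T 0 y u v - T.pos z0 = cmb (fr S.e S.w) ![kF S z0 ρ T / 256 * y -
        sF S z0 ρ T 1 * (1 / 256 * u) - sF S z0 ρ T 2 * (1 / 256 * v), 1 / 256 * u,
        1 / 256 * v] := by
      unfold cF cg
      rw [mul_zero, add_zero, add_sub_cancel_left]
    intro i
    rw [e, dt_cmb_fr SP.ortho]
    have hwi := (SP.pos i).le
    rw [abs_mul, abs_of_nonneg hwi]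
    have k2 : |(![kF S z0 ρ T / 256 * y - sF S z0 ρ T 1 * (1 / 256 * u) -
        sF S z0 ρ T 2 * (1 / 256 * v), 1 / 256 * u, 1 / 256 * v] : Fin 3 → ℝ) i| ≤ 1 / 8 := by
      have q1 : |1 / 256 * u| ≤ 1 / 256 * 1 := Adj214.abs2 (by norm_num) hu
      have q2 : |1 / 256 * v| ≤ 1 / 256 * 1 := Adj214.abs2 (by norm_num) hv
      fin_cases i
      · change |kF S z0 ρ T / 256 * y - sF S z0 ρ T 1 * (1 / 256 * u) -
          sF S z0 ρ T 2 * (1 / 256 * v)| ≤ 1 / 8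
        have hk : |kF S z0 ρ T / 256| ≤ 14 / 256 := by
          rw [abs_of_pos (by positivity)]; linarith
        have a1 := Adj214.abs2 hk hyb
        have a2 := Adj214.abs2 s1 q1
        have a3 := Adj214.abs2 s2 q2
        rw [abs_le] at a1 a2 a3 ⊢
        constructor <;> linarith [a1.1, a1.2, a2.1, a2.2, a3.1, a3.2]
      · exact q1.trans (by norm_num)
      · exact q2.trans (by norm_num)
    have := mul_le_mul_of_nonneg_left k2 hwi
    linarith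
  refine ⟨y, hyb, hq0, ?_, hbox⟩
  intro i
  have hTi := (hT z0 le_rfl (by linarith)).1 i
  have e : dt (S.e i) (cF S z0 ρ T 0 y u v - S.c.pos z0) =
      dt (S.e i) (cF S z0 ρ T 0 y u v - T.pos z0) + dt (S.e i) (T.pos z0 - S.c.pos z0) := by
    simp only [dt, Pi.sub_apply]; ring
  have hwi := (SP.pos i).le
  change |dt (S.e i) (cF S z0 ρ T 0 y u v - S.c.pos z0)| ≤ 2 * S.w i
  rw [e]
  refine (abs_add_le _ _).trans ?_
  have := hbox i
  linarith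

end

end Crest.Agent.R136.Nmx44
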