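import Crest.Agent.R136.Nj1_28
import Crest.Agent.R136.Nmx2b_44

/-!
# R136 (S0187), PLAN 2, (AL)(A) [ND]: P-jet in a chart with two scales (helper18)

`pjet` : the jet of a quadratic function which is bounded by `B` on the box
`{T z + (p Y) e + u d1 + v d2 : |p|, |u|, |v| ≤ 1}`, in the chart with the normal unit `k0 ≤ Y`.
-/

set_option autoImplicit false
set_option linter.unusedVariables false

namespace Crest.Agent.R136.Nmx18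

open Crest.Agent.R136.Sh605
open Crest.Agent.R136.Rk601
open Crest.Agent.R136.AlD601
open Crest.Agent.R136.K4 (Plk4)
open Crest.Agent.R136.Tlt51 (Shp InP)
open Crest.Agent.R136.Tl102 (cmb fr)
open Crest.Agent.R136.Adp876 (ev)
open Crest.Agent.R136.Nj28 (jet_of_box)

theorem cmb_box (e d1 d2 : V3) (T : Ln4) (z0 ρ Y s y u v : ℝ) :
    T.pos z0 + (ρ * s) • T.v + cmb ![Y • e, d1, d2] ![y, u, v] =
      T.pos (z0 + ρ * s) + (y * Y) • e + u • d1 + v • d2 := by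
  funext i
  simp only [cmb, Ln4.pos, Pi.add_apply, Pi.smul_apply, smul_eq_mul, Matrix.cons_val]
  ring

/-- **P-jet in a chart with two scales** -/
theorem pjet {q : ℝ → V3 → ℝ} (hq : IsQ q) (e d1 d2 : V3) (T : Ln4) {z0 ρ Y k0 B : ℝ} (hY : 0 < Y)
    (hk : 0 ≤ k0) (hkY : k0 ≤ Y) (hB0 : 0 < B)
    (hB : ∀ ζ p u v : ℝ, 0 ≤ ζ → ζ ≤ 1 → |p| ≤ 1 → |u| ≤ 1 → |v| ≤ 1 →
      |q (z0 + ρ * ζ) (T.pos (z0 + ρ * ζ) + (p * Y) • e + u • d1 + v • d2)| ≤ B) :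
    ∃ (cP : ℝ) (JP : Jt), (∀ ζ y u v : ℝ,
      q (z0 + ρ * ζ) (T.pos (z0 + ρ * ζ) + (k0 * y) • e + u • d1 + v • d2) =
        200 * B * (cP + ev JP y ![ζ, u, v])) ∧ JP.Sym ∧ (∀ i, |JP.a i| ≤ 1) ∧
      (∀ i j, |JP.h i j| ≤ 1) ∧ |JP.a0| ≤ k0 / Y ∧ |JP.h00| ≤ k0 / Y ∧
      ∀ i, |JP.h0 i| ≤ k0 / Y := by
  obtain ⟨h, hs⟩ := jt_jet hq ![Y • e, d1, d2] T.v z0 (T.pos z0) ρ
  generalize jt q ![Y • e, d1, d2] T.v z0 (T.pos z0) ρ = J at h hs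
  obtain ⟨b0, ba, b00, bm, bh⟩ := jet_of_box h hs (B := B) (fun y s u v hy h0 h1 hu hv => by
    rw [cmb_box]
    exact hB s y u v h0 (by linarith) hy hu hv)
  have hE : 0 < 200 * B := by positivity
  have e0 : 0 ≤ k0 / Y := div_nonneg hk hY.le
  have e1 : k0 / Y ≤ 1 := (div_le_one hY).2 hkY
  have key : ∀ x : ℝ, |x| ≤ 200 * B → |x / (200 * B)| ≤ 1 := fun x hx => by
    rw [abs_div, abs_of_pos hE, div_le_one hE]; exact hx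
  have key2 : ∀ c x : ℝ, 0 ≤ c → |x| ≤ 200 * B → |c * (x / (200 * B))| ≤ c := fun c x hc hx => by
    rw [abs_mul, abs_of_nonneg hc]
    exact mul_le_of_le_one_right hc (key x hx)
  refine ⟨q z0 (T.pos z0) / (200 * B), ⟨k0 / Y * (J.a0 / (200 * B)), fun i => J.a i / (200 * B),
    (k0 / Y) ^ 2 * (J.h00 / (200 * B)), fun i => k0 / Y * (J.h0 i / (200 * B)),
    fun i j => J.h i j / (200 * B)⟩, ?_, ?_, fun i => key _ (ba i), fun i j => key _ (bh i j),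
    key2 _ _ e0 b0, ?_, fun i => key2 _ _ e0 (bm i)⟩
  · intro ζ y u v
    have h1 := h (k0 / Y * y) ζ u v
    have e2 : k0 / Y * y * Y = k0 * y := by field_simp
    rw [cmb_box, e2] at h1
    rw [h1]
    simp only [ev, dp, qf, Fin.sum_univ_three, Matrix.cons_val]
    field_simp
    ring
  · intro i j
    show J.h i j / (200 * B) = J.h j i / (200 * B)
    rw [hs i j]
  · refine (key2 _ _ (sq_nonneg _) b00).trans ?_
    calc (k0 / Y) ^ 2 = k0 / Y * (k0 / Y) := by ring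
      _ ≤ k0 / Y * 1 := mul_le_mul_of_nonneg_left e1 e0
      _ = _ := mul_one _

section
variable {S : Plk4} {z0 ρ r0 : ℝ} {T : Ln4}

/-- the P-jet in 44's chart of the flat base -/
theorem pjetF {q : ℝ → V3 → ℝ} (hq : IsQ q) (hr : 0 < r0) (hρ : 0 ≤ ρ) (h : Shp S z0 ρ r0)
    (hT : InP T S z0 ρ) {Y B : ℝ} (hY : 0 < Y) (hkY : Nmx44.kk S z0 ρ T ≤ Y) (hB0 : 0 < B)
    (hB : ∀ ζ p u v : ℝ, 0 ≤ ζ → ζ ≤ 1 → |p| ≤ 1 → |u| ≤ 1 → |v| ≤ 1 →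
      |q (z0 + ρ * ζ) (T.pos (z0 + ρ * ζ) + (p * Y) • S.e 0 + u • Nmx44.dF S z0 ρ T 1 +
        v • Nmx44.dF S z0 ρ T 2)| ≤ B) :
    ∃ (cP : ℝ) (JP : Jt), (∀ ζ y u v : ℝ, q (z0 + ρ * ζ) (Nmx44.cF S z0 ρ T ζ y u v) =
        200 * B * (cP + ev JP y ![ζ, u, v])) ∧ JP.Sym ∧ (∀ i, |JP.a i| ≤ 1) ∧
      (∀ i j, |JP.h i j| ≤ 1) ∧ |JP.a0| ≤ Nmx44.kk S z0 ρ T / Y ∧
      |JP.h00| ≤ Nmx44.kk S z0 ρ T / Y ∧ ∀ i, |JP.h0 i| ≤ Nmx44.kk S z0 ρ T / Y := by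
  obtain ⟨cP, JP, hP, h1⟩ := pjet hq (S.e 0) (Nmx44.dF S z0 ρ T 1) (Nmx44.dF S z0 ρ T 2) T hY
    (Nmx44.kk_pos hr h T).le hkY hB0 hB
  refine ⟨cP, JP, fun ζ y u v => ?_, h1⟩
  rw [Nmx44.cF_eq hr h]
  exact hP ζ y u v

end

end Crest.Agent.R136.Nmx18
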