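import Crest.Agent.R136.Pl2C_860
import Crest.Agent.R136.Coi1_102
import Crest.Agent.R136.Gbx_862
import Crest.Agent.R136.Bl5_667
import Crest.Agent.R136.Cod_501
import Crest.Agent.R136.Hcp2_208

/-!
# R136 (U4, PLAN 2 (AL), case (A), [ND]): the curved sheet near the flat one (helper501)

* `tan_pt`  : points of `V` over the tangent vectors at a line.
* `ubox`    : from `Al1`: `U.q` is `O(Y)` on the box spanned by `Y e₀` and the tangent vectors of `V`.
-/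

set_option autoImplicit false
set_option linter.unusedVariables false

namespace Crest.Agent.R136.Nmx501

open Crest.Agent.R136.Sh605 Crest.Agent.R136.Pl2
open Crest.Agent.R136.Tl102
open Crest.Agent.R136.K4 (Plk4)
open Crest.Agent.R136.Tlt51 (Shp InP)
open Crest.Agent.R136.KapP335 (kapP expP expP_spec)
open Crest.Agent.R136.Pl2W102 (Near)
open Crest.Agent.R136.Gbx862 (dt_frame dt_le_one)
open Crest.Agent.R136.Bl5667 (shp_pos)

/-- slopes of the sheet at the line -/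
noncomputable def sl0 (S : Plk4) (z0 ρ : ℝ) (T : Ln4) (k : Fin 3) : ℝ :=
  (expP S z0 ρ T).1 k / (expP S z0 ρ T).1 0

/-- tangent vector number `k` -/
noncomputable def tau (S : Plk4) (z0 ρ : ℝ) (T : Ln4) (k : Fin 3) : V3 :=
  S.w k • S.e k - (sl0 S z0 ρ T k * S.w 0) • S.e 0

section V

variable {V : Plk4} {T : Ln4} {z0 ρ r : ℝ}

theorem nrm_of (hr : 0 < r) (hρ : 0 ≤ ρ) (hV : Shp V z0 ρ r) (tV : InP T V z0 ρ) :
    NrmC (expP V z0 ρ T).1 (expP V z0 ρ T).2.1 (expP V z0 ρ T).2.2 := by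
  obtain ⟨va, vw0, v2, v1⟩ := shp_pos hr hV
  exact (expP_spec hV.isQ vw0.ne' z0 ρ T).nrmC (StP.of_shN hV vw0) hρ
    (fun z h1 h2 => (tV z h1 h2).1)

theorem sl0_le (hr : 0 < r) (hρ : 0 ≤ ρ) (hV : Shp V z0 ρ r) (tV : InP T V z0 ρ) :
    |sl0 V z0 ρ T 1| ≤ 2 ∧ |sl0 V z0 ρ T 2| ≤ 2 := by
  obtain ⟨-, -, -, -, -, -, -, s1, s2⟩ := (nrm_of hr hρ hV tV).b1_le
  exact ⟨s1, s2⟩

theorem one_dt {e f : Fin 3 → V3} (he : Ortho e) (hf : Ortho f) (i j : Fin 3) :
    |dt (f i) (e j)| ≤ 1 :=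
  dt_le_one (by simpa using hf i i) (by simpa using he j j)

/-- value of `V.q` over a tangent vector at the lower end -/
theorem q_tan (hr : 0 < r) (hρ : 0 ≤ ρ) (hV : Shp V z0 ρ r) (tV : InP T V z0 ρ) {k : Fin 3}
    (hk : k = 1 ∨ k = 2) :
    |V.q z0 (T.pos z0 + (1 / 256 : ℝ) • tau V z0 ρ T k) - V.q z0 (T.pos z0)| ≤
      kapP V z0 ρ T / 65536 := by
  obtain ⟨va, vw0, v2, v1⟩ := shp_pos hr hV
  have hE := expP_spec hV.isQ vw0.ne' z0 ρ T
  have N := nrm_of hr hρ hV tV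
  have hb := N.b1_le.1
  have hb0 : (expP V z0 ρ T).1 0 ≠ 0 := by linarith
  set b0 := (expP V z0 ρ T).1 with hb0d
  set b1 := (expP V z0 ρ T).2.1 with hb1d
  set G := (expP V z0 ρ T).2.2 with hGd
  have k3 : |(shG b0 G).uu| ≤ kap b0 b1 G :=
    (le_max_left _ _).trans ((le_max_left _ _).trans (le_max_right _ _))
  have k5 : |(shG b0 G).vv| ≤ kap b0 b1 G := (le_max_right _ _).trans (le_max_right _ _)
  have key : ∀ u v : ℝ, V.q z0 (T.pos z0 + cmb (fr V.e V.w) (unsh b0 0 u v)) - V.q z0 (T.pos z0) =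
      V.w 0 * ((shG b0 G).uu * (u * u) + (shG b0 G).uv * (u * v) + (shG b0 G).vv * (v * v)) := by
    intro u v
    have h1 := hE 0 (unsh b0 0 u v)
    rw [mul_zero, add_zero] at h1
    rw [h1, Fq_unsh hb0]
    simp only [Fq, dt, bz, QF.ev, shB0, Matrix.cons_val]
    ring
  rcases hk with rfl | rfl
  · have h1 := key (1 / 256) 0
    have e1 : cmb (fr V.e V.w) (unsh b0 0 (1 / 256) 0) = (1 / 256 : ℝ) • tau V z0 ρ T 1 := by
      ext i
      simp only [cmb, fr, unsh, tau, sl0, Pi.smul_apply, Pi.sub_apply, smul_eq_mul,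
        Matrix.cons_val, ← hb0d]
      ring
    rw [e1] at h1
    rw [h1]
    have e2 : V.w 0 * ((shG b0 G).uu * (1 / 256 * (1 / 256)) + (shG b0 G).uv * (1 / 256 * 0) +
        (shG b0 G).vv * (0 * 0)) = V.w 0 * (shG b0 G).uu / 65536 := by ring
    rw [e2, abs_div, abs_mul, abs_of_pos vw0, abs_of_pos (by norm_num : (0:ℝ) < 65536)]
    apply div_le_div_of_nonneg_right _ (by norm_num)
    exact mul_le_mul_of_nonneg_left k3 vw0.le
  · have h1 := key 0 (1 / 256)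
    have e1 : cmb (fr V.e V.w) (unsh b0 0 0 (1 / 256)) = (1 / 256 : ℝ) • tau V z0 ρ T 2 := by
      ext i
      simp only [cmb, fr, unsh, tau, sl0, Pi.smul_apply, Pi.sub_apply, smul_eq_mul,
        Matrix.cons_val, ← hb0d]
      ring
    rw [e1] at h1
    rw [h1]
    have e2 : V.w 0 * ((shG b0 G).uu * (0 * 0) + (shG b0 G).uv * (0 * (1 / 256)) +
        (shG b0 G).vv * (1 / 256 * (1 / 256))) = V.w 0 * (shG b0 G).vv / 65536 := by ring
    rw [e2, abs_div, abs_mul, abs_of_pos vw0, abs_of_pos (by norm_num : (0:ℝ) < 65536)]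
    apply div_le_div_of_nonneg_right _ (by norm_num)
    exact mul_le_mul_of_nonneg_left k5 vw0.le

/-- components of `tau` in the own frame -/
theorem dt_tau (he : Ortho V.e) (k : Fin 3) (i : Fin 3) : dt (V.e i) (tau V z0 ρ T k) =
    V.w k * (if i = k then 1 else 0) - sl0 V z0 ρ T k * V.w 0 * (if i = 0 then 1 else 0) := by
  unfold tau
  rw [dt_sub, dt_smul, dt_smul, he i k, he i 0]

/-- `q` is continuous in `x` -/
theorem q_cont {q : ℝ → V3 → ℝ} (hq : IsQ q) (z : ℝ) (P e : V3) :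
    Continuous fun n : ℝ => q z (P + n • e) := by
  obtain ⟨c0, c1, c2, b, d, g, h⟩ := hq
  simp only [h, Pi.add_apply, Pi.smul_apply, smul_eq_mul]
  fun_prop

/-- **points of the sheet over the tangent vectors** -/
theorem tan_pt (hr : 0 < r) (hρ : 0 < ρ) (hV : Shp V z0 ρ r) (tV : InP T V z0 ρ) {k : Fin 3}
    (hk : k = 1 ∨ k = 2) : ∃ n : ℝ, |n| ≤ kapP V z0 ρ T / 32768 ∧
      InK V.e T (fun i => V.w i / 8) z0 (T.pos z0 + (1 / 256 : ℝ) • tau V z0 ρ T k + n • V.e 0) ∧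
      |V.q z0 (T.pos z0 + (1 / 256 : ℝ) • tau V z0 ρ T k + n • V.e 0)| ≤ V.a := by
  obtain ⟨va, vw0, v2, v1⟩ := shp_pos hr hV
  have hS := StP.of_shN hV vw0
  have hq := q_tan hr hρ.le hV tV hk
  have hTq := (tV z0 le_rfl (by linarith)).2
  have hTK := (tV z0 le_rfl (by linarith)).1
  obtain ⟨s1, s2⟩ := sl0_le hr hρ.le hV tV
  have hk13 : kapP V z0 ρ T ≤ 13 * V.w 0 := Bl5667.kp_le hr hρ.le hV tV
  have hk0 : 0 ≤ kapP V z0 ρ T := by
    unfold KapP335.kapP; exact mul_nonneg vw0.le (kap_nonneg _ _ _)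
  set P := T.pos z0 + (1 / 256 : ℝ) • tau V z0 ρ T k with hP
  have hsk : |sl0 V z0 ρ T k| ≤ 2 := by rcases hk with rfl | rfl; exacts [s1, s2]
  have hk00 : k ≠ 0 := by rcases hk with rfl | rfl <;> decide
  have w01 : V.w 0 ≤ V.w 1 := hV.w0_le.trans hV.w_le
  have wpos : ∀ i, 0 < V.w i := hS.pos
  have hbox : ∀ n : ℝ, |n| ≤ kapP V z0 ρ T / 32768 →
      InK V.e T (fun i => V.w i / 8) z0 (P + n • V.e 0) := by
    intro n hn i
    have hn' : |n| ≤ V.w 0 / 2000 := hn.trans (by linarith)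
    have e1 : dt (V.e i) (P + n • V.e 0 - T.pos z0) =
        1 / 256 * dt (V.e i) (tau V z0 ρ T k) + n * dt (V.e i) (V.e 0) := by
      have : P + n • V.e 0 - T.pos z0 = (1 / 256 : ℝ) • tau V z0 ρ T k + n • V.e 0 := by
        rw [hP]; ext j; simp only [Pi.add_apply, Pi.sub_apply]; ring
      rw [this, dt_add, dt_smul, dt_smul]
    rw [e1, dt_tau hS.ortho, hS.ortho i 0]
    have p := wpos i
    have hs0 : |sl0 V z0 ρ T k * V.w 0| ≤ 2 * V.w 0 := by
      rw [abs_mul, abs_of_pos vw0]; exact mul_le_mul_of_nonneg_right hsk vw0.le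
    rw [abs_le] at hs0 hn' ⊢
    by_cases h0 : i = 0
    · subst h0
      simp only [if_neg hk00.symm, if_true, mul_zero, mul_one, zero_sub]
      constructor <;> linarith [hs0.1, hs0.2, hn'.1, hn'.2]
    · by_cases h1 : i = k
      · subst h1
        simp only [if_true, if_neg h0, mul_zero, mul_one, sub_zero]
        constructor <;> linarith [hn'.1, hn'.2]
      · simp only [if_neg h0, if_neg h1, mul_zero, sub_zero, add_zero]
        constructor <;> linarith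
  have hdbl : ∀ n : ℝ, |n| ≤ kapP V z0 ρ T / 32768 →
      InK V.e V.c (dbl3 V.w) z0 (P + n • V.e 0) := by
    intro n hn i
    have h1 := hbox n hn i
    have h2 := hTK i
    have e1 : dt (V.e i) (P + n • V.e 0 - V.c.pos z0) =
        dt (V.e i) (P + n • V.e 0 - T.pos z0) + dt (V.e i) (T.pos z0 - V.c.pos z0) := by
      simp only [dt, Pi.sub_apply]; ring
    rw [e1]
    refine (abs_add_le _ _).trans ?_
    change _ ≤ 2 * V.w i
    have p := wpos i
    simp only at h1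
    linarith
  have hc := q_cont hV.isQ z0 P (V.e 0)
  set N := kapP V z0 ρ T / 32768 with hN
  have hN0 : 0 ≤ N := by positivity
  have hNa : |N| ≤ kapP V z0 ρ T / 32768 := by rw [abs_of_nonneg hN0]
  have hNa' : |-N| ≤ kapP V z0 ρ T / 32768 := by rw [abs_neg, abs_of_nonneg hN0]
  have hN2 : N / 2 = kapP V z0 ρ T / 65536 := by rw [hN]; ring
  have z0a : |(0:ℝ)| ≤ kapP V z0 ρ T / 32768 := by rw [abs_zero]; positivity
  have d0 := hdbl 0 z0a
  rw [zero_smul, add_zero] at d0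
  rcases le_total |V.q z0 P| V.a with h | h
  · exact ⟨0, z0a, hbox 0 z0a, by rw [zero_smul, add_zero]; exact h⟩
  · have hqb := abs_le.1 hq
    have hTb := abs_le.1 hTq
    rcases le_total 0 (V.q z0 P) with h0 | h0
    · rw [abs_of_nonneg h0] at h
      -- move down
      have s := (hS.st0 z0 le_rfl (by linarith) (P + (-N) • V.e 0) N hN0 (hdbl _ hNa')
        (by rw [add_assoc, ← add_smul, neg_add_cancel, zero_smul, add_zero]; exact d0)).1
      rw [add_assoc, ← add_smul, neg_add_cancel, zero_smul, add_zero] at s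
      have hlow : V.q z0 (P + (-N) • V.e 0) ≤ V.a := by linarith [hqb.2, hTb.2]
      have ivt := intermediate_value_Icc (by linarith : -N ≤ 0) hc.continuousOn
      have hmem : V.a ∈ Set.Icc (V.q z0 (P + (-N) • V.e 0)) (V.q z0 (P + (0:ℝ) • V.e 0)) := by
        rw [zero_smul, add_zero]; exact ⟨hlow, h⟩
      obtain ⟨n, hn, hn'⟩ := ivt hmem
      have hna : |n| ≤ kapP V z0 ρ T / 32768 := abs_le.2 ⟨hn.1, hn.2.trans hN0⟩
      refine ⟨n, hna, hbox n hna, ?_⟩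
      rw [show V.q z0 (P + n • V.e 0) = V.a from hn', abs_of_pos va]
    · rw [abs_of_nonpos h0] at h
      have s := (hS.st0 z0 le_rfl (by linarith) P N hN0 d0 (hdbl _ hNa)).1
      have hup : -V.a ≤ V.q z0 (P + N • V.e 0) := by linarith [hqb.1, hTb.1]
      have ivt := intermediate_value_Icc hN0 hc.continuousOn
      have hmem : -V.a ∈ Set.Icc (V.q z0 (P + (0:ℝ) • V.e 0)) (V.q z0 (P + N • V.e 0)) := by
        rw [zero_smul, add_zero]; exact ⟨by linarith, hup⟩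
      obtain ⟨n, hn, hn'⟩ := ivt hmem
      have hna : |n| ≤ kapP V z0 ρ T / 32768 := abs_le.2 ⟨by linarith [hn.1], hn.2⟩
      refine ⟨n, hna, hbox n hna, ?_⟩
      rw [show V.q z0 (P + n • V.e 0) = -V.a from hn', abs_neg, abs_of_pos va]

end V

section U

variable {U V : Plk4} {T : Ln4} {z0 ρ r W Y a w1 w2 : ℝ}

set_option maxHeartbeats 2000000 in
/-- **`U.q` is `O(Y)` on the box of `Y e₀` and the tangent vectors of `V`** -/
theorem ubox (hW : 1 ≤ W) (hr : 0 < r) (hρ : 0 < ρ) (hU : Shp U z0 ρ r) (hV : Shp V z0 ρ r)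
    (tU : InP T U z0 ρ) (tV : InP T V z0 ρ) (dU : Hcp208.Dims W a w1 w2 U)
    (dV : Hcp208.Dims W a w1 w2 V) (hA : Al1 W U V T a w1 w2 z0 ρ) (hY : Near 4 Y (kp U z0 ρ T))
    (hk : kp V z0 ρ T ≤ kp U z0 ρ T) {m : ℝ} (hm : 1 ≤ m) {z : ℝ} (hz : z0 ≤ z) (hz' : z ≤ z0 + ρ)
    {p u v : ℝ} (hp : |p| ≤ m) (hu : |u| ≤ m) (hv : |v| ≤ m) :
    |U.q z (T.pos z + (p * Y) • V.e 0 + u • tau V z0 ρ T 1 + v • tau V z0 ρ T 2)| ≤
      10 ^ 7 * W ^ 7 * m ^ 2 * Y := by
  obtain ⟨va, vw0, v2, v1⟩ := shp_pos hr hV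
  obtain ⟨ua, uw0, u2, u1⟩ := shp_pos hr hU
  have hSV := StP.of_shN hV vw0
  have hSU := StP.of_shN hU uw0
  obtain ⟨f, g, hf, hFL, hg, t1, t2, -, -⟩ := hA.fr
  obtain ⟨-, ⟨dU1, dU1'⟩, ⟨dU2, dU2'⟩⟩ := dU
  obtain ⟨-, ⟨dV1, dV1'⟩, ⟨dV2, dV2'⟩⟩ := dV
  set Y1 := kp U z0 ρ T with hY1
  have hW0 : 0 < W := by linarith
  have hm0 : 0 < m := by linarith
  obtain ⟨hYa, hYb⟩ := hY
  have hk13 : Y1 ≤ 13 * U.w 0 := Bl5667.kp_le hr hρ.le hU tU
  have hkV0 : 0 ≤ kapP V z0 ρ T := by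
    unfold KapP335.kapP; exact mul_nonneg vw0.le (kap_nonneg _ _ _)
  have hkV : kapP V z0 ρ T ≤ Y1 := hk
  have Y10 : 0 ≤ Y1 := hkV0.trans hkV
  have hY0 : 0 ≤ Y := by linarith
  obtain ⟨s1, s2⟩ := sl0_le hr hρ.le hV tV
  have w1p : 0 < w1 := pos_of_mul_pos_right (v1.trans_le dV1') hW0.le
  have w2p : 0 < w2 := pos_of_mul_pos_right (v2.trans_le dV2') hW0.le
  have hv0 : V.w 0 ≤ V.w 2 := hV.w0_le
  have hv21 : V.w 2 ≤ V.w 1 := hV.w_le
  have hu0 : U.w 0 ≤ U.w 2 := hU.w0_le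
  have hu21 : U.w 2 ≤ U.w 1 := hU.w_le
  -- (general) size of the tangent vectors
  have hse : ∀ (e : V3) (k : Fin 3), dt e e = 1 → |sl0 V z0 ρ T k| ≤ 2 →
      |dt e (tau V z0 ρ T k)| ≤ V.w k * |dt e (V.e k)| + 2 * V.w 0 := by
    intro e k he hs
    have h0 : |dt e (V.e 0)| ≤ 1 := Gbx862.dt_le_one he (by simpa using hSV.ortho 0 0)
    have : dt e (tau V z0 ρ T k) = V.w k * dt e (V.e k) - sl0 V z0 ρ T k * V.w 0 * dt e (V.e 0) := by
      unfold tau; rw [dt_sub, dt_smul, dt_smul]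
    rw [this]
    refine (abs_sub _ _).trans ?_
    rw [abs_mul, abs_mul (sl0 V z0 ρ T k * V.w 0), abs_mul, abs_of_pos (hSV.pos k), abs_of_pos vw0]
    have h1 : |sl0 V z0 ρ T k| * V.w 0 * |dt e (V.e 0)| ≤ 2 * V.w 0 * 1 := by
      apply mul_le_mul _ h0 (abs_nonneg _) (by positivity)
      exact mul_le_mul_of_nonneg_right hs vw0.le
    linarith
  have fo : ∀ i, dt (f i) (f i) = 1 := fun i => by simpa using hf.ortho i i
  have go : ∀ i, dt (g i) (g i) = 1 := fun i => by simpa using hg.ortho i i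
  have vo : ∀ i, dt (V.e i) (V.e i) = 1 := fun i => by simpa using hSV.ortho i i
  have fle : ∀ (i k : Fin 3), |dt (f i) (V.e k)| ≤ 1 := fun i k => Gbx862.dt_le_one (fo i) (vo k)
  have gle : ∀ (i k : Fin 3), |dt (g i) (V.e k)| ≤ 1 := fun i k => Gbx862.dt_le_one (go i) (vo k)
  have fgle : ∀ (i k : Fin 3), |dt (f i) (g k)| ≤ 1 := fun i k => Gbx862.dt_le_one (fo i) (go k)
  -- step A
  have hA0 : ∀ k : Fin 3, k = 1 ∨ k = 2 → |dt (g 0) (tau V z0 ρ T k)| ≤ 512 * W * Y1 := by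
    intro k hk12
    obtain ⟨n, hn, hK, hqn⟩ := tan_pt hr hρ hV tV hk12
    have h1 := hg.pt T tV z0 le_rfl (by linarith) _ hK hqn
    have e1 : dt (g 0) (T.pos z0 + (1 / 256 : ℝ) • tau V z0 ρ T k + n • V.e 0 - T.pos z0) =
        1 / 256 * dt (g 0) (tau V z0 ρ T k) + n * dt (g 0) (V.e 0) := by
      rw [← dt_smul, ← dt_smul, ← dt_add]
      congr 1; ext j; simp only [Pi.add_apply, Pi.sub_apply]; ring
    rw [e1] at h1
    have h2 : |n * dt (g 0) (V.e 0)| ≤ Y1 := by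
      rw [abs_mul]
      have := mul_le_mul (hn.trans (by linarith : kapP V z0 ρ T / 32768 ≤ Y1)) (gle 0 0)
        (abs_nonneg _) Y10
      linarith
    have hWY : Y1 ≤ W * Y1 := by nlinarith
    rw [abs_le] at h1 h2 ⊢
    constructor <;> linarith [h1.1, h1.2, h2.1, h2.2]
  -- components along g 1, g 2
  have hWle : ∀ {x : ℝ}, 0 ≤ x → x ≤ W * x := fun {x} hx => by nlinarith
  have g1t : ∀ k : Fin 3, k = 1 ∨ k = 2 → |dt (g 1) (tau V z0 ρ T k)| ≤ 3 * W * w1 := by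
    rintro k (rfl | rfl)
    · have := hse (g 1) 1 (go 1) s1
      have h2 := mul_le_mul_of_nonneg_left (gle 1 1) v1.le
      linarith
    · have := hse (g 1) 2 (go 1) s2
      have h2 := mul_le_mul_of_nonneg_left (gle 1 2) v2.le
      linarith
  have g2t : ∀ k : Fin 3, k = 1 ∨ k = 2 → |dt (g 2) (tau V z0 ρ T k)| ≤ 3 * W ^ 2 * w2 := by
    rintro k (rfl | rfl)
    · have h1 := hse (g 2) 1 (go 2) s1
      have h2 := hg.e21
      have h3 : V.w 1 * |dt (g 2) (V.e 1)| + 2 * V.w 0 ≤ 3 * W * V.w 2 := by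
        have := hWle v2.le
        linarith [mul_comm (V.w 1) |dt (g 2) (V.e 1)|]
      have h4 : 3 * W * V.w 2 ≤ 3 * W * (W * w2) := mul_le_mul_of_nonneg_left dV2' (by positivity)
      calc _ ≤ _ := h1
        _ ≤ _ := h3
        _ ≤ _ := h4
        _ = _ := by ring
    · have h1 := hse (g 2) 2 (go 2) s2
      have h2 := mul_le_mul_of_nonneg_left (gle 2 2) v2.le
      have h3 : V.w 2 * |dt (g 2) (V.e 2)| + 2 * V.w 0 ≤ 3 * V.w 2 := by linarith
      have h4 : 3 * V.w 2 ≤ 3 * (W * w2) := mul_le_mul_of_nonneg_left dV2' (by positivity)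
      have h5 := hWle (mul_nonneg hW0.le w2p.le)
      calc _ ≤ _ := h1
        _ ≤ _ := h3
        _ ≤ _ := h4
        _ ≤ _ := by nlinarith
  -- step B
  have W3a : W * Y1 ≤ W ^ 3 * Y1 := by
    have : W ≤ W ^ 3 := le_self_pow₀ hW (by norm_num)
    exact mul_le_mul_of_nonneg_right this Y10
  have W3b : W ^ 2 * Y1 ≤ W ^ 3 * Y1 := by
    have : W ^ 2 ≤ W ^ 3 := pow_le_pow_right₀ hW (by norm_num)
    exact mul_le_mul_of_nonneg_right this Y10
  have hB : ∀ k : Fin 3, k = 1 ∨ k = 2 → |dt (f 0) (tau V z0 ρ T k)| ≤ 518 * W ^ 3 * Y1 := by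
    intro k hk12
    rw [Gbx862.dt_frame hg.ortho (f 0)]
    have a0 : |dt (f 0) (g 0) * dt (g 0) (tau V z0 ρ T k)| ≤ 512 * W * Y1 := by
      rw [abs_mul]
      calc _ ≤ 1 * (512 * W * Y1) := mul_le_mul (fgle 0 0) (hA0 k hk12) (abs_nonneg _) zero_le_one
        _ = _ := by ring
    have a1 : |dt (f 0) (g 1) * dt (g 1) (tau V z0 ρ T k)| ≤ 3 * W ^ 2 * Y1 := by
      rw [abs_mul]
      calc _ ≤ |dt (f 0) (g 1)| * (3 * W * w1) :=
            mul_le_mul_of_nonneg_left (g1t k hk12) (abs_nonneg _)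
        _ = 3 * W * (|dt (f 0) (g 1)| * w1) := by ring
        _ ≤ 3 * W * (W * Y1) := mul_le_mul_of_nonneg_left t1 (by positivity)
        _ = _ := by ring
    have a2 : |dt (f 0) (g 2) * dt (g 2) (tau V z0 ρ T k)| ≤ 3 * W ^ 3 * Y1 := by
      rw [abs_mul]
      calc _ ≤ |dt (f 0) (g 2)| * (3 * W ^ 2 * w2) :=
            mul_le_mul_of_nonneg_left (g2t k hk12) (abs_nonneg _)
        _ = 3 * W ^ 2 * (|dt (f 0) (g 2)| * w2) := by ring
        _ ≤ 3 * W ^ 2 * (W * Y1) := mul_le_mul_of_nonneg_left t2 (by positivity)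
        _ = _ := by ring
    rw [abs_le] at a0 a1 a2 ⊢
    constructor <;> linarith [a0.1, a0.2, a1.1, a1.2, a2.1, a2.2]
  -- the vector
  set D : V3 := (p * Y) • V.e 0 + u • tau V z0 ρ T 1 + v • tau V z0 ρ T 2 with hD
  have hx : T.pos z + (p * Y) • V.e 0 + u • tau V z0 ρ T 1 + v • tau V z0 ρ T 2 = T.pos z + D := by
    rw [hD]; ext j; simp only [Pi.add_apply]; ring
  have hxD : T.pos z + D - T.pos z = D := by ext j; simp only [Pi.add_apply, Pi.sub_apply]; ring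
  have hDe : ∀ e : V3, dt e D = p * Y * dt e (V.e 0) + u * dt e (tau V z0 ρ T 1) +
      v * dt e (tau V z0 ρ T 2) := fun e => by rw [hD, dt_add, dt_add, dt_smul, dt_smul, dt_smul]
  have hDle : ∀ (e : V3) {A1 A2 : ℝ}, dt e e = 1 → |dt e (tau V z0 ρ T 1)| ≤ A1 →
      |dt e (tau V z0 ρ T 2)| ≤ A2 → |dt e D| ≤ m * Y + m * A1 + m * A2 := by
    intro e A1 A2 he h1 h2
    rw [hDe]
    have h0 : |dt e (V.e 0)| ≤ 1 := Gbx862.dt_le_one he (vo 0)
    have b0 : |p * Y * dt e (V.e 0)| ≤ m * Y := by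
      rw [abs_mul, abs_mul, abs_of_nonneg hY0]
      calc _ ≤ m * Y * 1 := mul_le_mul (mul_le_mul_of_nonneg_right hp hY0) h0 (abs_nonneg _)
            (by positivity)
        _ = _ := by ring
    have b1 : |u * dt e (tau V z0 ρ T 1)| ≤ m * A1 := by
      rw [abs_mul]; exact mul_le_mul hu h1 (abs_nonneg _) hm0.le
    have b2 : |v * dt e (tau V z0 ρ T 2)| ≤ m * A2 := by
      rw [abs_mul]; exact mul_le_mul hv h2 (abs_nonneg _) hm0.le
    rw [abs_le] at b0 b1 b2 ⊢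
    constructor <;> linarith [b0.1, b0.2, b1.1, b1.2, b2.1, b2.2]
  have hYU : Y ≤ 52 * U.w 0 := by linarith
  set m' := 1040 * W ^ 3 * m with hm'
  have W31 : 1 ≤ W ^ 3 := one_le_pow₀ hW
  have W21 : W ^ 2 ≤ W ^ 3 := pow_le_pow_right₀ hW (by norm_num)
  have m'1 : 1 ≤ m' := by
    have : 1 * 1 ≤ W ^ 3 * m := mul_le_mul W31 hm zero_le_one (by positivity)
    rw [hm']; linarith [mul_assoc 1040 (W ^ 3) m]
  -- f 0
  have F0 : |dt (f 0) D| ≤ m' * Y1 := by
    refine (hDle (f 0) (fo 0) (hB 1 (Or.inl rfl)) (hB 2 (Or.inr rfl))).trans ?_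
    have h1 : m * Y ≤ m * (4 * Y1) := mul_le_mul_of_nonneg_left hYa hm0.le
    have h2 : m * (4 * Y1) ≤ 4 * (W ^ 3 * m) * Y1 := by
      have : m ≤ W ^ 3 * m := by nlinarith
      nlinarith
    rw [hm']
    linarith
  have uw2W : ∀ {x : ℝ}, 0 ≤ x → x ≤ W ^ 3 * x := fun {x} hx => by nlinarith
  -- f 1
  have F1 : |dt (f 1) D| ≤ m' * U.w 1 := by
    have hw1 : V.w 1 ≤ W ^ 2 * U.w 1 := by
      calc V.w 1 ≤ W * w1 := dV1'
        _ ≤ W * (W * U.w 1) := mul_le_mul_of_nonneg_left dU1 hW0.le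
        _ = _ := by ring
    have c1 : |dt (f 1) (tau V z0 ρ T 1)| ≤ 3 * (W ^ 2 * U.w 1) := by
      have := hse (f 1) 1 (fo 1) s1
      have h2 := mul_le_mul_of_nonneg_left (fle 1 1) v1.le
      linarith
    have c2 : |dt (f 1) (tau V z0 ρ T 2)| ≤ 3 * (W ^ 2 * U.w 1) := by
      have := hse (f 1) 2 (fo 1) s2
      have h2 := mul_le_mul_of_nonneg_left (fle 1 2) v2.le
      linarith
    refine (hDle (f 1) (fo 1) c1 c2).trans ?_
    have h1 : m * Y ≤ m * (52 * U.w 1) := mul_le_mul_of_nonneg_left (by linarith) hm0.le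
    have h3 : W ^ 2 * (m * U.w 1) ≤ W ^ 3 * (m * U.w 1) :=
      mul_le_mul_of_nonneg_right W21 (by positivity)
    have h4 : m * U.w 1 ≤ W ^ 3 * (m * U.w 1) := uw2W (by positivity)
    have h5 : 0 ≤ W ^ 3 * (m * U.w 1) := by positivity
    have e : m' * U.w 1 = 1040 * (W ^ 3 * (m * U.w 1)) := by rw [hm']; ring
    have e2 : m * (3 * (W ^ 2 * U.w 1)) = 3 * (W ^ 2 * (m * U.w 1)) := by ring
    rw [e, e2]
    linarith
  -- f 2
  have F2 : |dt (f 2) D| ≤ m' * U.w 2 := by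
    have hw2 : V.w 2 ≤ W ^ 2 * U.w 2 := by
      calc V.w 2 ≤ W * w2 := dV2'
        _ ≤ W * (W * U.w 2) := mul_le_mul_of_nonneg_left dU2 hW0.le
        _ = _ := by ring
    have c2 : |dt (f 2) (tau V z0 ρ T 2)| ≤ 3 * (W ^ 3 * U.w 2) := by
      have := hse (f 2) 2 (fo 2) s2
      have h2 := mul_le_mul_of_nonneg_left (fle 2 2) v2.le
      have h3 : W ^ 2 * U.w 2 ≤ W ^ 3 * U.w 2 := mul_le_mul_of_nonneg_right W21 u2.le
      linarith
    have c1 : |dt (f 2) (tau V z0 ρ T 1)| ≤ 5 * (W ^ 3 * U.w 2) := by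
      have h1 := hse (f 2) 1 (fo 2) s1
      have hang := hA.ang
      have a01 : |dt (U.e 0) (V.e 1)| ≤ angC U V := (le_max_left _ _).trans (le_max_right _ _)
      have a21 : |dt (U.e 2) (V.e 1)| ≤ angC U V := (le_max_right _ _).trans (le_max_right _ _)
      have ang0 : 0 ≤ angC U V := (abs_nonneg _).trans a01
      have uo : ∀ i, dt (U.e i) (U.e i) = 1 := fun i => by simpa using hSU.ortho i i
      have f20 : |dt (f 2) (U.e 0)| ≤ 1 := Gbx862.dt_le_one (fo 2) (uo 0)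
      have f22 : |dt (f 2) (U.e 2)| ≤ 1 := Gbx862.dt_le_one (fo 2) (uo 2)
      have n11 : |dt (U.e 1) (V.e 1)| ≤ 1 := Gbx862.dt_le_one (uo 1) (vo 1)
      have ex : |dt (f 2) (V.e 1)| ≤ angC U V + |dt (f 2) (U.e 1)| + angC U V := by
        rw [Gbx862.dt_frame hSU.ortho (f 2) (V.e 1)]
        have b0 : |dt (f 2) (U.e 0) * dt (U.e 0) (V.e 1)| ≤ angC U V := by
          rw [abs_mul]
          calc _ ≤ 1 * angC U V := mul_le_mul f20 a01 (abs_nonneg _) zero_le_one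
            _ = _ := one_mul _
        have b1 : |dt (f 2) (U.e 1) * dt (U.e 1) (V.e 1)| ≤ |dt (f 2) (U.e 1)| := by
          rw [abs_mul]
          calc _ ≤ |dt (f 2) (U.e 1)| * 1 := mul_le_mul_of_nonneg_left n11 (abs_nonneg _)
            _ = _ := mul_one _
        have b2 : |dt (f 2) (U.e 2) * dt (U.e 2) (V.e 1)| ≤ angC U V := by
          rw [abs_mul]
          calc _ ≤ 1 * angC U V := mul_le_mul f22 a21 (abs_nonneg _) zero_le_one
            _ = _ := one_mul _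
        refine (abs_add_le _ _).trans ?_
        linarith [abs_add_le (dt (f 2) (U.e 0) * dt (U.e 0) (V.e 1))
          (dt (f 2) (U.e 1) * dt (U.e 1) (V.e 1))]
      have h21 := hf.e21
      -- V.w 1 * angC
      have p1 : V.w 1 * angC U V ≤ W ^ 3 * U.w 2 := by
        calc V.w 1 * angC U V ≤ W * w1 * angC U V := mul_le_mul_of_nonneg_right dV1' ang0
          _ = W * (angC U V * w1) := by ring
          _ ≤ W * (W * w2) := mul_le_mul_of_nonneg_left hang hW0.le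
          _ ≤ W * (W * (W * U.w 2)) := by
              apply mul_le_mul_of_nonneg_left _ hW0.le
              exact mul_le_mul_of_nonneg_left dU2 hW0.le
          _ = _ := by ring
      have p2 : V.w 1 * |dt (f 2) (U.e 1)| ≤ W ^ 3 * U.w 2 := by
        calc V.w 1 * |dt (f 2) (U.e 1)| ≤ W * (W * U.w 1) * |dt (f 2) (U.e 1)| := by
              apply mul_le_mul_of_nonneg_right _ (abs_nonneg _)
              exact dV1'.trans (mul_le_mul_of_nonneg_left dU1 hW0.le)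
          _ = W ^ 2 * (|dt (f 2) (U.e 1)| * U.w 1) := by ring
          _ ≤ W ^ 2 * (W * U.w 2) := mul_le_mul_of_nonneg_left h21 (by positivity)
          _ = _ := by ring
      have p3 : V.w 1 * |dt (f 2) (V.e 1)| ≤ 3 * (W ^ 3 * U.w 2) := by
        have := mul_le_mul_of_nonneg_left ex v1.le
        linarith
      have h3 : W ^ 2 * U.w 2 ≤ W ^ 3 * U.w 2 := mul_le_mul_of_nonneg_right W21 u2.le
      linarith
    refine (hDle (f 2) (fo 2) c1 c2).trans ?_
    have h1 : m * Y ≤ m * (52 * U.w 2) := mul_le_mul_of_nonneg_left (by linarith) hm0.le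
    have h4 : m * U.w 2 ≤ W ^ 3 * (m * U.w 2) := uw2W (by positivity)
    have e : m' * U.w 2 = 1040 * (W ^ 3 * (m * U.w 2)) := by rw [hm']; ring
    have h5 : 0 ≤ W ^ 3 * (m * U.w 2) := by positivity
    have e2 : m * (3 * (W ^ 3 * U.w 2)) = 3 * (W ^ 3 * (m * U.w 2)) := by ring
    have e3 : m * (5 * (W ^ 3 * U.w 2)) = 5 * (W ^ 3 * (m * U.w 2)) := by ring
    rw [e, e2, e3]
    linarith
  -- conclusion
  obtain ⟨b0, hb1, hb2, key⟩ := hFL T tU
  have hb0 : 0 ≤ b0 := (pos_of_mul_pos_right (lt_of_lt_of_le one_pos hb1) hW0.le).le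
  have K := key m' m'1 z hz hz' (T.pos z + D) (by rw [hxD]; exact F0) (by rw [hxD]; exact F1)
    (by rw [hxD]; exact F2)
  rw [hxD] at K
  rw [hx]
  have hb : |b0 * dt (f 0) D| ≤ W * (m' * Y1) := by
    rw [abs_mul, abs_of_nonneg hb0]; exact mul_le_mul hb2 F0 (abs_nonneg _) hW0.le
  have hmm : m' ≤ m' ^ 2 := by nlinarith
  have h1 : W * (m' * Y1) ≤ W * m' ^ 2 * Y1 := by
    calc W * (m' * Y1) = m' * (W * Y1) := by ring
      _ ≤ m' ^ 2 * (W * Y1) := mul_le_mul_of_nonneg_right hmm (by positivity)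
      _ = _ := by ring
  have h2 : |U.q z (T.pos z + D)| ≤ 2 * (W * m' ^ 2 * Y1) := by
    rw [abs_le] at K hb ⊢
    constructor <;> linarith [K.1, K.2, hb.1, hb.2]
  refine h2.trans ?_
  have h3 : 2 * (W * m' ^ 2 * Y1) = 2163200 * (W ^ 7 * m ^ 2) * Y1 := by rw [hm']; ring
  rw [h3]
  have h4 : 2163200 * (W ^ 7 * m ^ 2) * Y1 ≤ 2163200 * (W ^ 7 * m ^ 2) * (4 * Y) :=
    mul_le_mul_of_nonneg_left hYb (by positivity)
  have h5 : 0 ≤ W ^ 7 * m ^ 2 * Y := by positivity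
  have h6 : 2163200 * (W ^ 7 * m ^ 2) * (4 * Y) = 8652800 * (W ^ 7 * m ^ 2 * Y) := by ring
  have h7 : 10 ^ 7 * W ^ 7 * m ^ 2 * Y = 10000000 * (W ^ 7 * m ^ 2 * Y) := by ring
  rw [h7]
  rw [h6] at h4
  linarith

end U

end Crest.Agent.R136.Nmx501
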