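import Crest.Agent.R136.Nmx3b_44

/-!
# R136 (S0187), PLAN 2 (AL) (A), NdMx: `pjet` in units of `Y` (helper44)
-/

set_option autoImplicit false

namespace Crest.Agent.R136.Nmx44

open Crest.Agent.R136.Sh605 Crest.Agent.R136.Tl102
open Crest.Agent.R136.K4 (Plk4)
open Crest.Agent.R136.Rk601 (Jt)
open Crest.Agent.R136.Adp876 (ev sh Bd cg gv)

/-- `pjet` with `Λ = Y`, `ε = k0 / Y` and entries `≤ KP` for any `KP ≥ 200 B` -/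
theorem pjetY {q : ℝ → V3 → ℝ} (hq : IsQ q) {T : Ln4} {z0 ρ Y B KP k0 : ℝ} {e d1 d2 : V3}
    (hY : 0 < Y) (hB0 : 0 < B) (hKP : 200 * B ≤ KP) (hk : 0 < k0) (hkY : k0 ≤ Y)
    (hB : ∀ ζ p u v : ℝ, 0 ≤ ζ → ζ ≤ 1 → |p| ≤ 1 → |u| ≤ 1 → |v| ≤ 1 →
      |q (z0 + ρ * ζ) (T.pos (z0 + ρ * ζ) + (Y * p) • e + u • d1 + v • d2)| ≤ B * Y) :
    ∃ (cP : ℝ) (JP : Jt), JP.Sym ∧ (∀ i, |JP.a i| ≤ KP) ∧ (∀ i j, |JP.h i j| ≤ KP) ∧
      |JP.a0| ≤ KP * (k0 / Y) ∧ |JP.h00| ≤ KP * (k0 / Y) ∧ (∀ i, |JP.h0 i| ≤ KP * (k0 / Y)) ∧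
      ∀ ζ y u v : ℝ, q (z0 + ρ * ζ) (T.pos (z0 + ρ * ζ) + (k0 * y) • e + u • d1 + v • d2) =
        Y * (cP + ev JP y ![ζ, u, v]) := by
  obtain ⟨cP, J, h1, -, h3, h4, h5, h6, h7, h8⟩ := pjet hq hY hB0 hk hkY hB
  have hB200 : 0 < 200 * B := by positivity
  have hε : 0 < k0 / Y := by positivity
  have m : ∀ {x M : ℝ}, |x| ≤ M → |200 * B * x| ≤ KP * M := by
    intro x M hx
    rw [abs_mul, abs_of_pos hB200]
    exact mul_le_mul hKP hx (abs_nonneg _) (hB200.le.trans hKP)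
  refine ⟨200 * B * cP, Adp876.sm (200 * B) J, Adp876.sm_sym h1, fun i => ?_, fun i j => ?_,
    m h5, m h6, fun i => m (h7 i), fun ζ y u v => ?_⟩
  · have := m (h3 i)
    rw [mul_one] at this
    exact this
  · have := m (h4 i j)
    rw [mul_one] at this
    exact this
  · rw [h8, Adp876.sm_ev]
    ring

end Crest.Agent.R136.Nmx44
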