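import Crest.Agent.R136.NdD_325
import Crest.Agent.R136.Nmx3_501
import Crest.Agent.R136.Nmx3b_44
import Crest.Agent.R136.Nmx2b_44
import Crest.Agent.R136.Nmt_104

/-!
# R136 (S0187), PLAN 2 (AL) (A), NdMx: the chart of the flat sheet (assembly, helper84)

`ch_of` : a chart of `V` around `T0` of the shape of helper44 / helper104, with `U.q` in it (`ubox`
of helper501, `pjet_cg` of helper44); `chartMx : Ndw325.ChartMx`.
-/

set_option autoImplicit false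
set_option linter.unusedVariables false

namespace Crest.Agent.R136.Nmx84

open Crest.Agent.R136.Rk601 Crest.Agent.R136.Sh605
open Crest.Agent.R136.Tl102 (cmb fr)
open Crest.Agent.R136.K4 (Plk4)
open Crest.Agent.R136.Tlt51 (Shp InP)
open Crest.Agent.R136.KapP335 (expP kapP DetP)
open Crest.Agent.R136.Pl2W102 (Near)
open Crest.Agent.R136.Pl2 (kp Al1)
open Crest.Agent.R136.Hcp208 (Dims)
open Crest.Agent.R136.Adp876
open Crest.Agent.R136.Ndw325 (ChM ChartMx)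
open Crest.Agent.R136.Nmx44 (sF kF kk dF kk_eq kF_pos kk_pos kk_ge)

/-- numerals times low powers are below `X ^ 100` -/
theorem pw {X c : ℝ} (hX : 2 ≤ X) {n m : ℕ} (hc : c ≤ 2 ^ n) (h : n + m ≤ 100) :
    c * X ^ m ≤ X ^ 100 := by
  have h0 : (0:ℝ) ≤ X ^ m := by positivity
  have h1 : (2:ℝ) ^ n ≤ X ^ n := pow_le_pow_left₀ (by norm_num) hX n
  calc c * X ^ m ≤ X ^ n * X ^ m := mul_le_mul_of_nonneg_right (hc.trans h1) h0
    _ = X ^ (n + m) := (pow_add _ _ _).symm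
    _ ≤ X ^ 100 := pow_le_pow_right₀ (by linarith) h

section
variable {K W Y a w1 w2 z0 ρ r σ αq cq : ℝ} {U V : Plk4} {T0 : Ln4} {Jq : Jt}

theorem ch_of (hW : 1 ≤ W) (hr : 0 < r) (hρ : 0 < ρ) (ha : 0 < a) (hU : Shp U z0 ρ r)
    (hV : Shp V z0 ρ r) (tU : InP T0 U z0 ρ) (tV : InP T0 V z0 ρ) (dU : Dims W a w1 w2 U)
    (dV : Dims W a w1 w2 V) (hA : Al1 W U V T0 a w1 w2 z0 ρ) (hY : Near 4 Y (kp U z0 ρ T0))
    (hk : kp V z0 ρ T0 ≤ kp U z0 ρ T0) (hY0 : 0 < Y) (hK : K = (2 * W) ^ 100)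
    (hσ0 : σ ≠ 0) (hσ : 0 < σ * V.w 0) (hσY : σ * V.w 0 ≤ Y)
    (hq : ∀ ζ y u v, V.q (z0 + ρ * ζ) (cg (fr V.e V.w) T0 z0 ρ σ (sF V z0 ρ T0 1)
      (sF V z0 ρ T0 2) (1 / 256) ζ y u v) = (σ * V.w 0) * (cq + ev Jq y ![ζ, u, v]))
    (bJ : Bd Jq 64)
    (st : ∀ (y : ℝ) (x : Fin 3 → ℝ), |y| ≤ 1 → (∀ i, |x i| ≤ 1) → 0 ≤ x 0 →
      1 / 2 ≤ |(sh Jq y x).a0|)
    (α0 : 0 < αq) (α1 : αq ≤ 1) (hα : σ * V.w 0 * αq ≤ K * a)
    (on : V.a ≤ (σ * V.w 0) * (K * αq))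
    (pt : ∀ T : Ln4, InP T V z0 ρ → (∀ z, z0 ≤ z → z ≤ z0 + ρ → ∀ k : Fin 3,
        |dt (V.e k) (T.pos z - T0.pos z)| ≤ V.w k / K) →
      ∀ ζ, 0 ≤ ζ → ζ ≤ 1 → ∃ y u v : ℝ, |y| ≤ 1 ∧ |u| ≤ 1 ∧ |v| ≤ 1 ∧
        T.pos (z0 + ρ * ζ) = cg (fr V.e V.w) T0 z0 ρ σ (sF V z0 ρ T0 1) (sF V z0 ρ T0 2)
          (1 / 256) ζ y u v) :
    ∃ (σ s1 s2 rr k0 μ Λ cq cP ε αq : ℝ) (Jq JP : Jt),
      ChM K V U.q T0 z0 ρ Y a σ s1 s2 rr k0 μ Λ cq cP ε αq Jq JP := by
  have hX : 2 ≤ 2 * W := by linarith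
  have hK1 : ∀ {n m : ℕ} {c : ℝ}, c ≤ 2 ^ n → n + m ≤ 100 → c * (2 * W) ^ m ≤ K := by
    intro n m c h1 h2
    rw [hK]; exact pw hX h1 h2
  have hKc : ∀ {n : ℕ} {c : ℝ}, c ≤ 2 ^ n → n ≤ 100 → c ≤ K := by
    intro n c h1 h2
    have := hK1 (n := n) (m := 0) h1 (by omega)
    simpa using this
  have hK0 : 1 ≤ K := hKc (n := 0) (by norm_num) (by norm_num)
  have hB0 : (0:ℝ) < 10 ^ 7 * W ^ 7 := by positivity
  obtain ⟨cP, JP, sP, -, j1, j2, j3, j4, j5, j6⟩ := Nmx44.pjet_cg (q := U.q) hU.isQ (S := V)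
    (T := T0) (z0 := z0) (ρ := ρ) (Y := Y) (B := 10 ^ 7 * W ^ 7) (σ := σ)
    (s1 := sF V z0 ρ T0 1) (s2 := sF V z0 ρ T0 2) (r := 1 / 256) hY0 hB0 hσ hσY (by
      intro ζ p u v h1 h2 hp hu hv
      have hz : z0 ≤ z0 + ρ * ζ := by nlinarith
      have hz' : z0 + ρ * ζ ≤ z0 + ρ := by nlinarith
      have hu' : |u * (1 / 256)| ≤ 1 := by
        rw [abs_mul, abs_of_pos (by norm_num : (0:ℝ) < 1 / 256)]; linarith
      have hv' : |v * (1 / 256)| ≤ 1 := by
        rw [abs_mul, abs_of_pos (by norm_num : (0:ℝ) < 1 / 256)]; linarith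
      have := Nmx501.ubox hW hr hρ hU hV tU tV dU dV hA hY hk (le_refl (1:ℝ)) hz hz' hp hu' hv'
      rw [smul_smul, smul_smul, mul_comm Y p]
      refine le_trans (le_of_eq ?_) (this.trans (le_of_eq (by ring)))
      rfl)
  refine ⟨σ, sF V z0 ρ T0 1, sF V z0 ρ T0 2, 1 / 256, σ * V.w 0, 0, 200 * (10 ^ 7 * W ^ 7) * Y,
    cq, cP, σ * V.w 0 / Y, αq, Jq, JP, ?_⟩
  have hε : 0 < σ * V.w 0 / Y := div_pos hσ hY0
  have hεK : σ * V.w 0 / Y ≤ K * (σ * V.w 0 / Y) := le_mul_of_one_le_left hε.le hK0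
  exact {
    σ0 := hσ0
    r0 := by norm_num
    rK := by
      refine hKc (n := 8) ?_ (by norm_num)
      norm_num
    kk0 := hσ.ne'
    Λ0 := by positivity
    ΛY := by
      refine mul_le_mul_of_nonneg_right ?_ hY0.le
      have h1 := hK1 (n := 31) (m := 7) (c := 200 * 10 ^ 7) (by norm_num) (by norm_num)
      have h2 : W ^ 7 ≤ (2 * W) ^ 7 := pow_le_pow_left₀ (by linarith) (by linarith) 7
      nlinarith
    YΛ := by
      have h1 : (1:ℝ) ≤ W ^ 7 := one_le_pow₀ hW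
      have h2 : Y ≤ 200 * (10 ^ 7 * W ^ 7) * Y := by
        refine le_mul_of_one_le_left hY0.le ?_
        nlinarith
      exact h2.trans (le_mul_of_one_le_left (by positivity) hK0)
    μa := by
      rw [abs_zero, zero_mul]
      have : 0 < K := by linarith
      positivity
    hq := hq
    hP := j6
    bq := Nmx44.bd_mono bJ (hKc (n := 6) (by norm_num) (by norm_num))
    sP := sP
    bPa := fun i => (j1 i).trans hK0
    bPh := fun i j => (j2 i j).trans hK0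
    bP0 := j3.trans hεK
    bP00 := j4.trans hεK
    bPm := fun i => (j5 i).trans hεK
    st := fun y x h1 h2 h3 => (by
      rw [div_le_div_iff₀ (by linarith) (by norm_num)]
      have := hKc (n := 1) (c := 2) (by norm_num) (by norm_num)
      linarith : 1 / K ≤ (1:ℝ) / 2).trans (st y x h1 h2 h3)
    α0 := α0
    α1 := α1
    ε0 := hε
    ε1 := (div_le_one hY0).2 hσY
    εα := by
      have e : σ * V.w 0 / Y * αq * Y = σ * V.w 0 * αq := by field_simp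
      rw [e]; exact hα
    on := by rw [abs_of_pos hσ]; exact on
    pt := pt }

end

/-- **the chart of the flat sheet** -/
theorem chartMx : ChartMx := by
  refine ⟨100, by norm_num, ?_⟩
  intro W Y a w1 w2 z0 ρ r U V T0 hW hr hρ hrρ ha hU hV tU tV dU dV hA det hY hkV haY
  rw [show (100:ℝ) = ((100:ℕ) : ℝ) by norm_num, Real.rpow_natCast] at hkV haY ⊢
  set K : ℝ := (2 * W) ^ 100 with hK
  have hX : 2 ≤ 2 * W := by linarith
  have hK1 : ∀ {n m : ℕ} {c : ℝ}, c ≤ 2 ^ n → n + m ≤ 100 → c * (2 * W) ^ m ≤ K := by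
    intro n m c h1 h2
    exact pw hX h1 h2
  have hKc : ∀ {n : ℕ} {c : ℝ}, c ≤ 2 ^ n → n ≤ 100 → c ≤ K := by
    intro n c h1 h2
    have := hK1 (n := n) (m := 0) h1 (by omega)
    simpa using this
  have hK0 : 1 ≤ K := hKc (n := 0) (by norm_num) (by norm_num)
  have hKp : 0 < K := by linarith
  have hY0 : 0 < Y := (mul_pos hKp ha).trans_le haY
  have hw0 : 0 < V.w 0 := Nmx44.w0_pos hr hV
  have hkV0 : 0 ≤ kp V z0 ρ T0 := Bl5667.kp_nonneg hw0.le _ _ _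
  have hk : kp V z0 ρ T0 ≤ kp U z0 ρ T0 := by
    have h1 : 4 * kp V z0 ρ T0 ≤ K * kp V z0 ρ T0 :=
      mul_le_mul_of_nonneg_right (hKc (n := 2) (by norm_num) (by norm_num)) hkV0
    have h2 := hY.1
    linarith
  have hVa : V.a ≤ W * a := dV.1.2
  have hVa0 : 0 < V.a := Nmx44.a_pos hr hV
  have haW : K * V.a ≤ W * Y := by
    have h1 : K * V.a ≤ K * (W * a) := mul_le_mul_of_nonneg_left hVa hKp.le
    have h2 : W * (K * a) ≤ W * Y := mul_le_mul_of_nonneg_left haY (by linarith)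
    linarith
  by_cases hth : 10 ^ 6 * V.a ≤ V.w 0
  · -- thick
    obtain ⟨cq, Jq, -, bJ, hq, st, -, -⟩ := Nmx44.chartF hr hρ.le hV tV hth
    have hkk := kk_eq hr hV T0
    have hkp := kk_pos hr hV T0
    have hge := kk_ge hr hV T0
    have hkY : kk V z0 ρ T0 ≤ Y := by
      have e : kk V z0 ρ T0 = (kp V z0 ρ T0 + 10 ^ 5 * V.a) / 256 := rfl
      rw [e]
      have h1 : 1 * kp V z0 ρ T0 ≤ K * kp V z0 ρ T0 :=
        mul_le_mul_of_nonneg_right hK0 hkV0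
      have h3 : 10 ^ 5 * V.a ≤ Y := by
        have h4 := hK1 (n := 17) (m := 1) (c := 10 ^ 5) (by norm_num) (by norm_num)
        rw [pow_one] at h4
        have h5 : 10 ^ 5 * (2 * W) * V.a ≤ K * V.a := mul_le_mul_of_nonneg_right h4 hVa0.le
        have h6 : W * (10 ^ 5 * V.a) ≤ W * Y := by nlinarith
        exact le_of_mul_le_mul_left h6 (by linarith)
      linarith
    have hKK : 390 * 1 ≤ K := hKc (n := 9) (by norm_num) (by norm_num)
    refine ch_of (K := K) (σ := kF V z0 ρ T0 / 256) (αq := V.a / kk V z0 ρ T0) (cq := cq)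
      (Jq := Jq) hW hr hρ ha hU hV tU tV dU dV hA hY hk hY0 hK
      (by have := kF_pos hr hV T0; positivity) (by rw [← hkk]; exact hkp)
      (by rw [← hkk]; exact hkY) (by rw [← hkk]; exact hq) (Nmx44.bd_mono bJ (by norm_num)) st
      (div_pos hVa0 hkp) ((div_le_one hkp).2 (by linarith)) ?_ ?_ ?_
    · rw [← hkk, mul_div_cancel₀ _ hkp.ne']
      refine hVa.trans (mul_le_mul_of_nonneg_right ?_ ha.le)
      have := hK1 (n := 0) (m := 1) (c := 1) (by norm_num) (by norm_num)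
      linarith
    · rw [← hkk]
      have e : kk V z0 ρ T0 * (K * (V.a / kk V z0 ρ T0)) = K * V.a := by field_simp
      rw [e]
      exact le_mul_of_one_le_left hVa0.le hK0
    · intro T hT hd ζ h1 h2
      have hwn : ∀ i, 0 ≤ V.w i := fun i => ((Tl102.StP.of_shN hV hw0).pos i).le
      have hle : ∀ k, V.w k / K ≤ V.w k / 2 ^ 14 := fun k =>
        div_le_div_of_nonneg_left (hwn k) (by norm_num) (hKc (n := 14) le_rfl (by norm_num))
      obtain ⟨y, u, v, hp, hy, hu, hv⟩ := Nmx44.lineF hr hρ.le hV tV hT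
        (fun k _ => (hd z0 le_rfl (by linarith) k).trans (hle k))
        (fun k _ => (hd (z0 + ρ) (by linarith) le_rfl k).trans (hle k)) h1 h2
      exact ⟨y, u, v, hy, hu, hv, hp⟩
  · -- thin
    rw [not_le] at hth
    obtain ⟨cq, Jq, -, bJ, hq, st, -, -⟩ := Nmt104.chartN hr hρ.le hV tV
    have e0 : Nmt104.kN V = 1 / 4 * V.w 0 := by unfold Nmt104.kN; ring
    have hwa : V.w 0 ≤ 10 ^ 6 * (W * a) := hth.le.trans (by nlinarith)
    refine ch_of (K := K) (σ := 1 / 4) (αq := 1) (cq := cq)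
      (Jq := Jq) hW hr hρ ha hU hV tU tV dU dV hA hY hk hY0 hK
      (by norm_num) (by positivity) ?_ (by rw [← e0]; exact hq) bJ st
      one_pos le_rfl ?_ ?_ ?_
    · have h4 := hK1 (n := 20) (m := 1) (c := 10 ^ 6) (by norm_num) (by norm_num)
      rw [pow_one] at h4
      have h5 : 10 ^ 6 * (2 * W) * a ≤ K * a := mul_le_mul_of_nonneg_right h4 ha.le
      have h6 : 0 < W * a := by positivity
      nlinarith
    · have h4 := hK1 (n := 20) (m := 1) (c := 10 ^ 6) (by norm_num) (by norm_num)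
      rw [pow_one] at h4
      have h5 : 10 ^ 6 * (2 * W) * a ≤ K * a := mul_le_mul_of_nonneg_right h4 ha.le
      have h6 : 0 < W * a := by positivity
      nlinarith
    · have h1 := hV.a_le0
      have h2 : 4 ≤ K := hKc (n := 2) (by norm_num) (by norm_num)
      have h3 : 4 * V.w 0 ≤ K * V.w 0 := mul_le_mul_of_nonneg_right h2 hw0.le
      linarith
    · intro T hT hd ζ h1 h2
      have hwn : ∀ i, 0 ≤ V.w i := fun i => ((Tl102.StP.of_shN hV hw0).pos i).le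
      have hle : ∀ k, V.w k / K ≤ V.w k / 2 ^ 14 := fun k =>
        div_le_div_of_nonneg_left (hwn k) (by norm_num) (hKc (n := 14) le_rfl (by norm_num))
      obtain ⟨y, u, v, hp, hy, hu, hv⟩ := Nmt104.lineN hr hρ.le hV tV
        (fun k => (hd z0 le_rfl (by linarith) k).trans (hle k))
        (fun k => (hd (z0 + ρ) (by linarith) le_rfl k).trans (hle k)) h1 h2
      exact ⟨y, u, v, hy, hu, hv, hp⟩

end Crest.Agent.R136.Nmx84
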