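import Crest.Agent.R136.Nmx1_501
import Crest.Agent.R136.Nmx2b_44
import Crest.Agent.R136.Nj1_28
import Crest.Agent.R136.Nmt_104
import Crest.Agent.R136.NdD_325

/-!
# R136 (S0187), PLAN 2, (AL)(A) [ND]: the jet of `U` in the chart of the flatter sheet (helper296)

* `pjet` : a function of the class which is at most `B` on the box
  `T + (p Y) e0 + u d1 + v d2`, `|p|, |u|, |v| ≤ 1`, in a chart with the normal unit `k0 ≤ Y`.
-/

set_option autoImplicit false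
set_option linter.unusedVariables false

namespace Crest.Agent.R136.Nmy296

open Crest.Agent.R136.Sh605 Crest.Agent.R136.Tl102
open Crest.Agent.R136.K4 (Plk4)
open Crest.Agent.R136.Tlt51 (Shp InP)
open Crest.Agent.R136.KapP335 (expP kapP expP_spec)
open Crest.Agent.R136.Rk601 (Jt JetAt exists_jet dp qf)
open Crest.Agent.R136.Adp876 (ev sh Bd cg gv)

/-- **P-jet** -/
theorem pjet {q : ℝ → V3 → ℝ} (hq : IsQ q) {T : Ln4} {z0 ρ Y B Λ k0 : ℝ} {e0 d1 d2 : V3}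
    (hρ : 0 ≤ ρ) (hY : 0 < Y) (hk : 0 < k0) (hkY : k0 ≤ Y) (hB0 : 0 ≤ B) (hΛ : 0 < Λ)
    (hBΛ : 200 * B ≤ Λ)
    (hB : ∀ z, z0 ≤ z → z ≤ z0 + ρ → ∀ p u v : ℝ, |p| ≤ 1 → |u| ≤ 1 → |v| ≤ 1 →
      |q z (T.pos z + (p * Y) • e0 + u • d1 + v • d2)| ≤ B) :
    ∃ (cP : ℝ) (JP : Jt), JP.Sym ∧ (∀ i, |JP.a i| ≤ 1) ∧ (∀ i j, |JP.h i j| ≤ 1) ∧
      |JP.a0| ≤ k0 / Y ∧ |JP.h00| ≤ k0 / Y ∧ (∀ i, |JP.h0 i| ≤ k0 / Y) ∧
      ∀ ζ y u v, q (z0 + ρ * ζ) (T.pos (z0 + ρ * ζ) + (k0 * y) • e0 + u • d1 + v • d2) =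
        Λ * (cP + ev JP y ![ζ, u, v]) := by
  obtain ⟨J, hs, hJ⟩ := exists_jet hq ![Y • e0, d1, d2] T.v z0 (T.pos z0) ρ
  obtain ⟨b1, b2, b3, b4, b5⟩ := Nj28.jet_of_box (B := B) hJ hs (by
    intro y s u v h1 h2 h3 h4 h5
    have e : T.pos z0 + (ρ * s) • T.v + cmb ![Y • e0, d1, d2] ![y, u, v] =
        T.pos (z0 + ρ * s) + (y * Y) • e0 + u • d1 + v • d2 := by
      funext i
      simp only [cmb, Ln4.pos, Pi.add_apply, Pi.smul_apply, smul_eq_mul, Matrix.cons_val]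
      ring
    rw [e]
    exact hB _ (by nlinarith) (by nlinarith) y u v h1 h4 h5)
  obtain ⟨θ, hθ⟩ : ∃ θ, θ = k0 / Y := ⟨_, rfl⟩
  have θ0 : 0 < θ := by rw [hθ]; positivity
  have θ1 : θ ≤ 1 := by rw [hθ, div_le_one hY]; exact hkY
  have hk0 : θ * Y = k0 := by rw [hθ]; field_simp
  have hJ2 := Nj28.jet_scale (θ := θ) hJ
  rw [hk0] at hJ2
  have sc : ∀ x : ℝ, |x| ≤ 200 * B → |Λ⁻¹ * x| ≤ 1 := fun x hx => by
    rw [abs_mul, abs_of_pos (inv_pos.2 hΛ), ← div_eq_inv_mul, div_le_one hΛ]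
    exact hx.trans hBΛ
  have sθ : ∀ x : ℝ, |x| ≤ 200 * B → |Λ⁻¹ * (θ * x)| ≤ θ := fun x hx => by
    have h1 := sc x hx
    have e : Λ⁻¹ * (θ * x) = θ * (Λ⁻¹ * x) := by ring
    rw [e, abs_mul, abs_of_pos θ0]
    exact mul_le_of_le_one_right θ0.le h1
  refine ⟨Λ⁻¹ * q z0 (T.pos z0), ⟨Λ⁻¹ * (θ * J.a0), fun i => Λ⁻¹ * J.a i, Λ⁻¹ * (θ ^ 2 * J.h00),
    fun i => Λ⁻¹ * (θ * J.h0 i), fun i j => Λ⁻¹ * J.h i j⟩, ?_, fun i => sc _ (b2 i),
    fun i j => sc _ (b5 i j), ?_, ?_, ?_, ?_⟩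
  · intro i j
    change Λ⁻¹ * J.h i j = Λ⁻¹ * J.h j i
    rw [hs i j]
  · rw [← hθ]; exact sθ _ b1
  · rw [← hθ]
    have e : θ ^ 2 * J.h00 = θ * (θ * J.h00) := by ring
    change |Λ⁻¹ * (θ ^ 2 * J.h00)| ≤ θ
    rw [e]
    refine sθ _ ?_
    rw [abs_mul, abs_of_pos θ0]
    have := mul_le_of_le_one_left (abs_nonneg J.h00) θ1
    exact this.trans b3
  · rw [← hθ]; exact fun i => sθ _ (b4 i)
  · intro ζ y u v
    have h1 := hJ2 y ζ u v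
    have e : T.pos z0 + (ρ * ζ) • T.v + cmb ![k0 • e0, d1, d2] ![y, u, v] =
        T.pos (z0 + ρ * ζ) + (k0 * y) • e0 + u • d1 + v • d2 := by
      funext i
      simp only [cmb, Ln4.pos, Pi.add_apply, Pi.smul_apply, smul_eq_mul, Matrix.cons_val]
      ring
    rw [e] at h1
    rw [h1]
    have hΛ' := hΛ.ne'
    simp only [ev, dp, qf, Fin.sum_univ_three, Matrix.cons_val]
    field_simp
    ring

open Crest.Agent.R136.Nmx44 (kF kk sF cF dF cF_eq kk_pos kk_ge kF_pos bd_mono chartF lineF w0_pos a_pos sF_le)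
open Crest.Agent.R136.Nmt104 (kN cN cN_eq kN_pos a_le_kN chartN lineN)

open Crest.Agent.R136.Ndw325 (ChM ChartMx)

/-- tangent vectors of 501's `ubox` -/
noncomputable def tau (V : Plk4) (z0 ρ : ℝ) (T : Ln4) (k : Fin 3) : V3 :=
  V.w k • V.e k - (sF V z0 ρ T k * V.w 0) • V.e 0

theorem dF_tau (V : Plk4) (z0 ρ : ℝ) (T : Ln4) (k : Fin 3) :
    dF V z0 ρ T k = (1 / 256 : ℝ) • tau V z0 ρ T k := rfl

/-- **chart of `V` at `T0` with the jets of `V` and `U`** (over 501's `ubox` at `m = 1`) -/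
theorem chart_core {W Y a z0 ρ r K : ℝ} {U V : Plk4} {T0 : Ln4} (hW : 1 ≤ W) (hr : 0 < r)
    (hρ : 0 < ρ) (ha : 0 < a) (hV : Shp V z0 ρ r) (hT : InP T0 V z0 ρ) (hU : IsQ U.q)
    (hda : V.a ≤ W * a) (hK : 2 ^ 31 * W ^ 7 ≤ K) (hkY : kapP V z0 ρ T0 ≤ Y)
    (haY : 10 ^ 6 * W * a ≤ Y)
    (hB : ∀ z, z0 ≤ z → z ≤ z0 + ρ → ∀ p u v : ℝ, |p| ≤ 1 → |u| ≤ 1 → |v| ≤ 1 →
      |U.q z (T0.pos z + (p * Y) • V.e 0 + u • tau V z0 ρ T0 1 + v • tau V z0 ρ T0 2)| ≤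
        10 ^ 7 * W ^ 7 * Y) :
    ∃ (σ s1 s2 rr k0 μ Λ cq cP ε αq : ℝ) (Jq JP : Jt),
      ChM K V U.q T0 z0 ρ Y a σ s1 s2 rr k0 μ Λ cq cP ε αq Jq JP := by
  have hW7 : 1 ≤ W ^ 7 := one_le_pow₀ hW
  have hW0 : 0 < W := by linarith
  have hK31 : 2 ^ 31 ≤ K := by
    have : (2 : ℝ) ^ 31 * 1 ≤ 2 ^ 31 * W ^ 7 := mul_le_mul_of_nonneg_left hW7 (by norm_num)
    linarith
  have hKn : (2147483648 : ℝ) ≤ K := by
    have : (2 : ℝ) ^ 31 = 2147483648 := by norm_num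
    linarith
  have hK0 : 0 < K := by linarith
  have hWW : W ≤ W ^ 7 := le_self_pow₀ hW (by norm_num)
  have hWK : 2147483648 * W ≤ K := by
    have : (2 : ℝ) ^ 31 = 2147483648 := by norm_num
    rw [this] at hK
    linarith
  have hw0 := w0_pos hr hV
  have hVa := a_pos hr hV
  have hY : 0 < Y := by
    have : 0 < 10 ^ 6 * W * a := by positivity
    linarith
  have hVaY : 10 ^ 6 * V.a ≤ Y := by
    have : 10 ^ 6 * V.a ≤ 10 ^ 6 * (W * a) := mul_le_mul_of_nonneg_left hda (by norm_num)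
    linarith
  obtain ⟨Λ, hΛ⟩ : ∃ Λ, Λ = 200 * (10 ^ 7 * W ^ 7 * Y) := ⟨_, rfl⟩
  have Λ0 : 0 < Λ := by rw [hΛ]; positivity
  have ΛY : Λ ≤ K * Y := by
    rw [hΛ]
    have h1 : 2 * 10 ^ 9 * W ^ 7 ≤ K := by
      have : (2 : ℝ) * 10 ^ 9 * W ^ 7 ≤ 2 ^ 31 * W ^ 7 :=
        mul_le_mul_of_nonneg_right (by norm_num) (by positivity)
      linarith
    have := mul_le_mul_of_nonneg_right h1 hY.le
    linarith
  have YΛ : Y ≤ K * Λ := by
    have h1 : Y ≤ Λ := by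
      rw [hΛ]
      have : Y ≤ W ^ 7 * Y := le_mul_of_one_le_left hY.le hW7
      have h0 : 0 < W ^ 7 * Y := by positivity
      linarith
    have h2 : Λ ≤ K * Λ := le_mul_of_one_le_left Λ0.le (by linarith)
    linarith
  -- the box in the vectors `dF`
  have hBd : ∀ z, z0 ≤ z → z ≤ z0 + ρ → ∀ p u v : ℝ, |p| ≤ 1 → |u| ≤ 1 → |v| ≤ 1 →
      |U.q z (T0.pos z + (p * Y) • V.e 0 + u • dF V z0 ρ T0 1 + v • dF V z0 ρ T0 2)| ≤
        10 ^ 7 * W ^ 7 * Y := by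
    intro z z1 z2 p u v hp hu hv
    have s1 : |1 / 256 * u| ≤ 1 := by
      rw [abs_mul, abs_of_pos (by norm_num : (0 : ℝ) < 1 / 256)]; linarith [abs_nonneg u]
    have s2 : |1 / 256 * v| ≤ 1 := by
      rw [abs_mul, abs_of_pos (by norm_num : (0 : ℝ) < 1 / 256)]; linarith [abs_nonneg v]
    have h := hB z z1 z2 p (1 / 256 * u) (1 / 256 * v) hp s1 s2
    have e : ∀ (t : ℝ) (k : Fin 3), t • dF V z0 ρ T0 k = (1 / 256 * t) • tau V z0 ρ T0 k := by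
      intro t k
      rw [dF_tau, smul_smul, mul_comm]
    rw [e, e]
    exact h
  have div_le : ∀ x : ℝ, 0 ≤ x → x / K ≤ x / 2 ^ 14 := fun x hx =>
    div_le_div_of_nonneg_left hx (by norm_num) (by
      have : (2 : ℝ) ^ 14 = 16384 := by norm_num
      linarith)
  have wn : ∀ k, 0 ≤ V.w k := fun k => ((StP.of_shN hV hw0).pos k).le
  by_cases hfat : 10 ^ 6 * V.a ≤ V.w 0
  · -- `V.w 0 ≥ 10^6 V.a`
    obtain ⟨cq, Jq, hc, hBq, hq, hst, -⟩ := chartF hr hρ.le hV hT hfat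
    have hk := kk_pos hr hV T0
    have hge := kk_ge hr hV T0
    have hκ := kF_pos hr hV T0
    have hkkY : kk V z0 ρ T0 ≤ Y := by
      unfold kk
      linarith
    obtain ⟨cP, JP, p1, p2, p3, p4, p5, p6, p7⟩ := pjet hU hρ.le hY hk hkkY
      (by positivity : (0 : ℝ) ≤ 10 ^ 7 * W ^ 7 * Y) Λ0 (le_of_eq hΛ.symm) hBd
    obtain ⟨ε, hε⟩ : ∃ ε, ε = kk V z0 ρ T0 / Y := ⟨_, rfl⟩
    rw [← hε] at p4 p5 p6
    have ε0 : 0 < ε := by rw [hε]; positivity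
    have εK : ε ≤ K * ε := le_mul_of_one_le_left ε0.le (by linarith)
    have hq' : ∀ ζ y u v, V.q (z0 + ρ * ζ) (cg (fr V.e V.w) T0 z0 ρ (kF V z0 ρ T0 / 256)
        (sF V z0 ρ T0 1) (sF V z0 ρ T0 2) (1 / 256) ζ y u v) =
        kk V z0 ρ T0 * (cq + ev Jq y ![ζ, u, v]) := hq
    refine ⟨kF V z0 ρ T0 / 256, sF V z0 ρ T0 1, sF V z0 ρ T0 2, 1 / 256, kk V z0 ρ T0, 0, Λ, cq,
      cP, ε, V.a / kk V z0 ρ T0, Jq, JP, ?_⟩
    refine ⟨by positivity, by norm_num, by norm_num; linarith, hk.ne', Λ0, ΛY, YΛ, ?_, hq', ?_,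
      bd_mono hBq (by linarith), p1, fun i => (p2 i).trans (by linarith),
      fun i j => (p3 i j).trans (by linarith), p4.trans εK, p5.trans εK,
      fun i => (p6 i).trans εK, ?_, by positivity, ?_, ε0, ?_, ?_, ?_, ?_⟩
    · rw [abs_zero, zero_mul]; positivity
    · intro ζ y u v
      rw [zero_mul, sub_zero, ← p7]
      congr 1
      exact cF_eq hr hV T0 ζ y u v
    · intro y x h1 h2 h3
      refine le_trans ?_ (hst y x h1 h2 h3)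
      rw [div_le_div_iff₀ hK0 (by norm_num)]; linarith
    · rw [div_le_one hk]; linarith
    · rw [hε, div_le_one hY]; exact hkkY
    · rw [hε]
      have e : kk V z0 ρ T0 / Y * (V.a / kk V z0 ρ T0) * Y = V.a := by field_simp
      rw [e]
      refine hda.trans (mul_le_mul_of_nonneg_right (by linarith) ha.le)
    · rw [abs_of_pos hk]
      have e : kk V z0 ρ T0 * (K * (V.a / kk V z0 ρ T0)) = K * V.a := by field_simp
      rw [e]
      exact le_mul_of_one_le_left hVa.le (by linarith)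
    · intro T hT' hd ζ z1 z2
      obtain ⟨y, u, v, h1, h2, h3, h4⟩ := lineF hr hρ.le hV hT hT'
        (fun k _ => (hd z0 le_rfl (by linarith) k).trans (div_le _ (wn k)))
        (fun k _ => (hd (z0 + ρ) (by linarith) le_rfl k).trans (div_le _ (wn k))) z1 z2
      exact ⟨y, u, v, h2, h3, h4, h1⟩
  · -- thin sheets
    push Not at hfat
    obtain ⟨cq, Jq, hc, hBq, hq, hst, -⟩ := chartN hr hρ.le hV hT
    have hk := kN_pos hr hV
    have hge := a_le_kN hV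
    have hkN : kN V = V.w 0 / 4 := rfl
    have hkkY : kN V ≤ Y := by rw [hkN]; linarith
    obtain ⟨cP, JP, p1, p2, p3, p4, p5, p6, p7⟩ := pjet hU hρ.le hY hk hkkY
      (by positivity : (0 : ℝ) ≤ 10 ^ 7 * W ^ 7 * Y) Λ0 (le_of_eq hΛ.symm) hBd
    obtain ⟨ε, hε⟩ : ∃ ε, ε = kN V / Y := ⟨_, rfl⟩
    rw [← hε] at p4 p5 p6
    have ε0 : 0 < ε := by rw [hε]; positivity
    have εK : ε ≤ K * ε := le_mul_of_one_le_left ε0.le (by linarith)
    have hq' : ∀ ζ y u v, V.q (z0 + ρ * ζ) (cg (fr V.e V.w) T0 z0 ρ (1 / 4)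
        (sF V z0 ρ T0 1) (sF V z0 ρ T0 2) (1 / 256) ζ y u v) =
        kN V * (cq + ev Jq y ![ζ, u, v]) := hq
    refine ⟨1 / 4, sF V z0 ρ T0 1, sF V z0 ρ T0 2, 1 / 256, kN V, 0, Λ, cq,
      cP, ε, 1, Jq, JP, ?_⟩
    refine ⟨by norm_num, by norm_num, by norm_num; linarith, hk.ne', Λ0, ΛY, YΛ, ?_, hq', ?_,
      bd_mono hBq (by linarith), p1, fun i => (p2 i).trans (by linarith),
      fun i j => (p3 i j).trans (by linarith), p4.trans εK, p5.trans εK,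
      fun i => (p6 i).trans εK, ?_, one_pos, le_rfl, ε0, ?_, ?_, ?_, ?_⟩
    · rw [abs_zero, zero_mul]; positivity
    · intro ζ y u v
      rw [zero_mul, sub_zero, ← p7]
      congr 1
      exact cN_eq T0 ζ y u v
    · intro y x h1 h2 h3
      refine le_trans ?_ (hst y x h1 h2 h3)
      rw [div_le_div_iff₀ hK0 (by norm_num)]; linarith
    · rw [hε, div_le_one hY]; exact hkkY
    · rw [hε]
      have e : kN V / Y * 1 * Y = kN V := by field_simp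
      rw [e, hkN]
      have h1 : V.w 0 / 4 ≤ 10 ^ 6 * (W * a) := by linarith
      have h2 : 10 ^ 6 * (W * a) ≤ K * a := by
        have : 10 ^ 6 * W * a ≤ K * a := mul_le_mul_of_nonneg_right (by linarith) ha.le
        linarith
      linarith
    · rw [abs_of_pos hk, mul_one]
      have h1 : 4 * kN V ≤ K * kN V := mul_le_mul_of_nonneg_right (by linarith) hk.le
      linarith
    · intro T hT' hd ζ z1 z2
      obtain ⟨y, u, v, h1, h2, h3, h4⟩ := lineN hr hρ.le hV hT (T' := T)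
        (fun k => (hd z0 le_rfl (by linarith) k).trans (div_le _ (wn k)))
        (fun k => (hd (z0 + ρ) (by linarith) le_rfl k).trans (div_le _ (wn k))) z1 z2
      exact ⟨y, u, v, h2, h3, h4, h1⟩

open Crest.Agent.R136.KapP335 (DetP)
open Crest.Agent.R136.Pl2W102 (Near)
open Crest.Agent.R136.Pl2 (kp Al1)
open Crest.Agent.R136.Hcp208 (Dims)

/-- 501's `ubox` at `m = 1` -/
def UBx : Prop := ∀ (W Y a w1 w2 z0 ρ r : ℝ) (U V : Plk4) (T0 : Ln4),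
    1 ≤ W → 0 < r → 0 < ρ → r ≤ ρ → 0 < a → Shp U z0 ρ r → Shp V z0 ρ r →
    InP T0 U z0 ρ → InP T0 V z0 ρ → Dims W a w1 w2 U → Dims W a w1 w2 V →
    Al1 W U V T0 a w1 w2 z0 ρ → DetP W⁻¹ U z0 ρ T0 → Near 4 Y (kp U z0 ρ T0) →
    10 ^ 8 * W ^ 8 * kp V z0 ρ T0 ≤ Y → 10 ^ 8 * W ^ 8 * a ≤ Y →
    ∀ z, z0 ≤ z → z ≤ z0 + ρ → ∀ p u v : ℝ, |p| ≤ 1 → |u| ≤ 1 → |v| ≤ 1 →
      |U.q z (T0.pos z + (p * Y) • V.e 0 + u • tau V z0 ρ T0 1 + v • tau V z0 ρ T0 2)| ≤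
        10 ^ 7 * W ^ 7 * Y

/-- **the chart of `V` (mixed curvatures)** -/
theorem chartMx_of (hU : UBx) : ChartMx := by
  refine ⟨40, by norm_num, ?_⟩
  intro W Y a w1 w2 z0 ρ r U V T0 hW hr hρ hrρ ha hSU hSV hTU hTV hDU hDV hAl hDet hYk hkV haY
  have h40 : (2 * W) ^ (40 : ℝ) = (2 * W) ^ 40 := by
    rw [show (40 : ℝ) = ((40 : ℕ) : ℝ) by norm_num, Real.rpow_natCast]
  rw [h40] at hkV haY ⊢
  have hW0 : 0 < W := by linarith
  have hkp : 0 ≤ kp V z0 ρ T0 := mul_nonneg (w0_pos hr hSV).le (kap_nonneg _ _ _)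
  have e40 : (2 * W) ^ 40 = 2 ^ 40 * W ^ 40 := by rw [mul_pow]
  have p1 : W ≤ W ^ 40 := le_self_pow₀ hW (by norm_num)
  have p7 : W ^ 7 ≤ W ^ 40 := pow_le_pow_right₀ hW (by norm_num)
  have p8 : W ^ 8 ≤ W ^ 40 := pow_le_pow_right₀ hW (by norm_num)
  have hW40 : 1 ≤ W ^ 40 := one_le_pow₀ hW
  have k1 : 10 ^ 8 * W ^ 8 ≤ (2 * W) ^ 40 := by
    rw [e40]
    exact mul_le_mul (by norm_num) p8 (by positivity) (by norm_num)
  have k2 : 2 ^ 31 * W ^ 7 ≤ (2 * W) ^ 40 := by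
    rw [e40]
    exact mul_le_mul (by norm_num) p7 (by positivity) (by norm_num)
  have k3 : 10 ^ 6 * W ≤ (2 * W) ^ 40 := by
    rw [e40]
    exact mul_le_mul (by norm_num) p1 (by positivity) (by norm_num)
  have k4 : 1 ≤ (2 * W) ^ 40 := one_le_pow₀ (by linarith)
  have c1 := (mul_le_mul_of_nonneg_right k1 hkp).trans hkV
  have c2 := (mul_le_mul_of_nonneg_right k1 ha.le).trans haY
  have c3 := (mul_le_mul_of_nonneg_right k3 ha.le).trans haY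
  have c4 := (mul_le_mul_of_nonneg_right k4 hkp).trans hkV
  rw [one_mul] at c4
  exact chart_core hW hr hρ ha hSV hTV hSU.isQ hDV.1.2 k2 c4 c3
    (hU W Y a w1 w2 z0 ρ r U V T0 hW hr hρ hrρ ha hSU hSV hTU hTV hDU hDV hAl hDet hYk c1 c2)

end Crest.Agent.R136.Nmy296
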