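import Crest.Agent.R136.Nmy_296
import Crest.Agent.R136.Nmx3_501

/-!
# R136 (S0187), PLAN 2, (AL)(A) [ND]: `ChartMx` (helper140: plug of 501's `ubox` into 296's assembly)
-/

set_option autoImplicit false
set_option linter.unusedVariables false

namespace Crest.Agent.R136.Nmz140

open Crest.Agent.R136.Pl2W102 (Near)
open Crest.Agent.R136.Pl2 (kp Al1)
open Crest.Agent.R136.Bl5667 (kp_nonneg)

theorem uBx : Nmy296.UBx := by
  intro W Y a w1 w2 z0 ρ r U V T0 hW hr hρ hrρ ha hSU hSV hTU hTV hDU hDV hAl hDet hYk hkV haY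
    z hz hz' p u v hp hu hv
  have hW8 : 1 ≤ W ^ 8 := one_le_pow₀ hW
  have k0 : 0 ≤ kp V z0 ρ T0 := kp_nonneg (Nmx44.w0_pos hr hSV).le _ _ _
  have h1 : 4 * kp V z0 ρ T0 ≤ 10 ^ 8 * W ^ 8 * kp V z0 ρ T0 := by
    refine mul_le_mul_of_nonneg_right ?_ k0
    nlinarith
  have hk : kp V z0 ρ T0 ≤ kp U z0 ρ T0 := by
    have := hYk.1
    linarith
  have h := Nmx501.ubox hW hr hρ hSU hSV hTU hTV hDU hDV hAl hYk hk (m := 1) le_rfl hz hz' hp hu hv
  rw [one_pow, mul_one] at h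
  exact h

/-- **`ChartMx`** -/
theorem chartMx : Ndw325.ChartMx := Nmy296.chartMx_of uBx

end Crest.Agent.R136.Nmz140
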