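import Crest.Agent.R136.Nmy_296
import Crest.Agent.R136.Nmx3_501

/-!
# R136 (S0187), PLAN 2, (AL)(A) [ND]: `ChartMx` (296's assembly over 501's `ubox`) (helper18)
-/

set_option autoImplicit false
set_option linter.unusedVariables false

namespace Crest.Agent.R136.Nmz18

open Crest.Agent.R136.Sh605 Crest.Agent.R136.Tl102
open Crest.Agent.R136.K4 (Plk4)
open Crest.Agent.R136.Tlt51 (Shp InP)
open Crest.Agent.R136.KapP335 (DetP)
open Crest.Agent.R136.Pl2W102 (Near)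
open Crest.Agent.R136.Pl2 (kp Al1)
open Crest.Agent.R136.Hcp208 (Dims)

/-- 501's `ubox` at `m = 1` -/
theorem ubx : Nmy296.UBx := by
  intro W Y a w1 w2 z0 ρ r U V T0 hW hr hρ hrρ ha hU hV tU tV dU dV hA hD hY h1 h2 z hz hz' p u v
    hp hu hv
  have hk0 : 0 ≤ kp V z0 ρ T0 := mul_nonneg (Nmx44.w0_pos hr hV).le (kap_nonneg _ _ _)
  have W8 : 1 ≤ W ^ 8 := one_le_pow₀ hW
  have hk : kp V z0 ρ T0 ≤ kp U z0 ρ T0 := by
    have h3 : Y ≤ 4 * kp U z0 ρ T0 := hY.1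
    have h4 : 4 * kp V z0 ρ T0 ≤ 10 ^ 8 * W ^ 8 * kp V z0 ρ T0 := by
      apply mul_le_mul_of_nonneg_right _ hk0
      linarith
    linarith
  have h := Nmx501.ubox hW hr hρ hU hV tU tV dU dV hA hY hk (m := 1) le_rfl hz hz' hp hu hv
  rw [one_pow, mul_one] at h
  exact h

/-- **`ChartMx`** -/
theorem chartMx : Ndw325.ChartMx := Nmy296.chartMx_of ubx

end Crest.Agent.R136.Nmz18

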