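import Mathlib.Analysis.SpecificLimits.Basic
import Mathlib.Tactic

/-!
# R136: NORM-4 by induction on the container constant `C` (helper818, doc 2384)

* `closure_of_step`  : values `B C` (any monotone function of `C`), deep windows of a class `C`
  configuration have a class `≤ 3/4 C`; a step "deep rate `≤ g` ⊢ `B C ≤ B C0`" gives the closure
  `B C = B C0` for all `C ≥ C0` from the single hypothesis `B C0 ≤ g`.
* `closure_unif`     : the same for the uniform bounds `∀ η ∃ δ ∀ C ∃ M0 ∀ F` (`δ` independent of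
  `C`), abstract classes of configurations.
-/

set_option autoImplicit false

namespace Crest.Agent.R136.NormInd818

/-- every real is below some `(4/3)^n * C0` -/
theorem exists_pow_le {C0 : ℝ} (hC0 : 0 < C0) (C : ℝ) : ∃ n : ℕ, C ≤ (4 / 3 : ℝ) ^ n * C0 := by
  obtain ⟨n, hn⟩ := pow_unbounded_of_one_lt (C / C0) (show (1:ℝ) < 4 / 3 by norm_num)
  exact ⟨n, by rw [div_lt_iff₀ hC0] at hn; exact hn.le⟩

/-- induction over the classes: `P C0` and `P (max C0 (3/4 C)) → P C` for `C > C0` give `P C` for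
all `C ≥ C0` -/
theorem induct {P : ℝ → Prop} {C0 : ℝ} (hC0 : 0 < C0) (h0 : P C0)
    (hs : ∀ C, C0 < C → P (max C0 (3 / 4 * C)) → P C) : ∀ C, C0 ≤ C → P C := by
  have key : ∀ n : ℕ, ∀ C, C0 ≤ C → C ≤ (4 / 3 : ℝ) ^ n * C0 → P C := by
    intro n
    induction n with
    | zero =>
      intro C h1 h2
      have : C = C0 := le_antisymm (by simpa using h2) h1
      rw [this]
      exact h0
    | succ n ih =>
      intro C h1 h2
      rcases eq_or_lt_of_le h1 with h | h
      · rw [← h]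
        exact h0
      · refine hs C h (ih _ (le_max_left _ _) (max_le ?_ ?_))
        · have : (1:ℝ) ≤ (4 / 3 : ℝ) ^ n := one_le_pow₀ (by norm_num)
          nlinarith
        · rw [pow_succ] at h2
          nlinarith
  intro C h1
  obtain ⟨n, hn⟩ := exists_pow_le hC0 C
  exact key n C h1 hn

/-- **closure in `C` from one step**: `B` increasing in `C`; the step for the class `C` uses only
that the classes `≤ max C0 (3/4 C)` have value `≤ g` -/
theorem closure_of_step {B : ℝ → ℝ} {C0 g : ℝ} (hC0 : 0 < C0)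
    (mono : ∀ C C', C ≤ C' → B C ≤ B C')
    (step : ∀ C, C0 < C → (∀ C', C' ≤ max C0 (3 / 4 * C) → B C' ≤ g) → B C ≤ B C0)
    (H : B C0 ≤ g) : ∀ C, C0 ≤ C → B C = B C0 := by
  refine induct hC0 rfl fun C h ih => le_antisymm (step C h fun C' hC' => ?_) (mono _ _ h.le)
  exact (mono _ _ hC').trans (ih.le.trans H)

/-- the version for a fixed threshold: if the base class has value `≤ b ≤ g` then all classes
have value `≤ b` (used with `b = 0` beyond the last positive point) -/
theorem closure_le {B : ℝ → ℝ} {C0 b g : ℝ} (hC0 : 0 < C0)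
    (mono : ∀ C C', C ≤ C' → B C ≤ B C')
    (step : ∀ C, C0 < C → (∀ C', C' ≤ max C0 (3 / 4 * C) → B C' ≤ g) → B C ≤ max (B C0) b)
    (hb : b ≤ g) (H : B C0 ≤ b) : ∀ C, B C ≤ b := by
  have key : ∀ C, C0 ≤ C → B C ≤ b := by
    refine induct hC0 H fun C h ih => ?_
    refine (step C h fun C' hC' => ?_).trans (max_le H le_rfl)
    exact ((mono _ _ hC').trans ih).trans hb
  intro C
  rcases le_total C0 C with h | h
  · exact key C h
  · exact (mono _ _ h).trans H

variable {α : Type*}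

/-- **uniform closure**: `cls C` = configurations of class `C`, `adm δ` = error at most `δ`,
`len` = length `M`, `deep F F''` = `F''` is a deep window of `F` (longer, of smaller class).
Base bound `val ≤ b + η` for the class `C0`; step: (all deep windows have value `≤ g`) ⊢
`val ≤ b + η` with `δ` independent of `C`. Then the bound holds for all `C` with `δ` independent
of `C`; only `M0` depends on `C`. -/
theorem closure_unif (cls : ℝ → α → Prop) (adm : ℝ → α → Prop) (len val : α → ℝ)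
    (deep : α → α → Prop) {C0 b g : ℝ} (hC0 : 0 < C0) (hbg : b < g)
    (mono : ∀ C C' F, C ≤ C' → cls C F → cls C' F)
    (hadm : ∀ δ δ' F, δ ≤ δ' → adm δ F → adm δ' F)
    (hdlen : ∀ F F'', deep F F'' → len F ≤ len F'')
    (hdadm : ∀ δ F F'', deep F F'' → adm δ F → adm δ F'')
    (hdcls : ∀ C F F'', C0 < C → cls C F → deep F F'' → cls (max C0 (3 / 4 * C)) F'')
    (base : ∀ η : ℝ, 0 < η → ∃ δ : ℝ, 0 < δ ∧ ∃ M0 : ℝ, ∀ F, cls C0 F → adm δ F →
      M0 ≤ len F → val F ≤ b + η)
    (step : ∀ η : ℝ, 0 < η → ∃ δ : ℝ, 0 < δ ∧ ∀ C, C0 < C → ∃ M0 : ℝ, ∀ F, cls C F → adm δ F →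
      M0 ≤ len F → (∀ F'', deep F F'' → val F'' ≤ g) → val F ≤ b + η) :
    ∀ η : ℝ, 0 < η → ∃ δ : ℝ, 0 < δ ∧ ∀ C, ∃ M0 : ℝ, ∀ F, cls C F → adm δ F →
      M0 ≤ len F → val F ≤ b + η := by
  obtain ⟨δ1, h1, M1, hb1⟩ := base (g - b) (by linarith)
  obtain ⟨δ2, h2, hs2⟩ := step (g - b) (by linarith)
  have crude : ∀ C, C0 ≤ C → ∃ M0 : ℝ, ∀ F, cls C F → adm (min δ1 δ2) F → M0 ≤ len F →
      val F ≤ g := by
    refine induct hC0 ⟨M1, fun F hF hA hM => ?_⟩ fun C h ih => ?_
    · have := hb1 F hF (hadm _ _ F (min_le_left _ _) hA) hM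
      linarith
    · obtain ⟨M0, hM0⟩ := ih
      obtain ⟨M2, hM2⟩ := hs2 C h
      refine ⟨max M0 M2, fun F hF hA hM => ?_⟩
      have := hM2 F hF (hadm _ _ F (min_le_right _ _) hA) ((le_max_right _ _).trans hM)
        fun F'' hd => hM0 F'' (hdcls C F F'' h hF hd) (hdadm _ F F'' hd hA)
          (((le_max_left _ _).trans hM).trans (hdlen F F'' hd))
      linarith
  intro η hη
  obtain ⟨δ3, h3, M3, hb3⟩ := base η hη
  obtain ⟨δ4, h4, hs4⟩ := step η hη
  refine ⟨min (min δ1 δ2) (min δ3 δ4), by positivity, fun C => ?_⟩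
  rcases le_or_gt C C0 with h | h
  · refine ⟨M3, fun F hF hA hM => hb3 F (mono _ _ F h hF) (hadm _ _ F ?_ hA) hM⟩
    exact (min_le_right _ _).trans (min_le_left _ _)
  · obtain ⟨M0, hM0⟩ := crude _ (le_max_left C0 (3 / 4 * C))
    obtain ⟨M4, hM4⟩ := hs4 C h
    refine ⟨max M0 M4, fun F hF hA hM => ?_⟩
    refine hM4 F hF (hadm _ _ F ((min_le_right _ _).trans (min_le_right _ _)) hA)
      ((le_max_right _ _).trans hM) fun F'' hd => ?_
    exact hM0 F'' (hdcls C F F'' h hF hd) (hdadm _ F F'' hd (hadm _ _ F (min_le_left _ _) hA))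
      (((le_max_left _ _).trans hM).trans (hdlen F F'' hd))

end Crest.Agent.R136.NormInd818
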