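import Mathlib
import Crest.Agent.R136.Mxh_615
import Crest.Agent.R136.Amd_84

/-!
# R136 (U4, PLAN 2 (AL), mixed curvatures): `NdPt` (helper615)
-/

set_option autoImplicit false
set_option linter.unusedVariables false

namespace Crest.Agent.R136.Mxc615

open Crest.Agent.R136.Sh605
open Crest.Agent.R136.K4 (Plk4)
open Crest.Agent.R136.Tlt51 (Shp InP)
open Crest.Agent.R136.KapP335 (kapP DetP DetP.mono)
open Crest.Agent.R136.Tl102 (angC StP StP.of_shN)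
open Crest.Agent.R136.Pl2W102 (Near)
open Crest.Agent.R136.Pl2 (kp Al1)
open Crest.Agent.R136.Hcp208 (Dims)
open Crest.Agent.R136.AlD601 (Nd)

/-- **pointwise nondegeneracy in the data of `Amx84.NdMx`** -/
theorem ndPt_at {W Y a w1 w2 z0 ρ r : ℝ} {H j : ℕ} {U V : Plk4} {T : Ln4} (hW : 1 ≤ W)
    (hr : 0 < r) (hρ : 0 < ρ) (ha : 0 < a) (hU : Shp U z0 ρ r) (hV : Shp V z0 ρ r)
    (tU : InP T U z0 ρ) (tV : InP T V z0 ρ) (dU : Dims W a w1 w2 U) (dV : Dims W a w1 w2 V)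
    (al : Al1 W U V T a w1 w2 z0 ρ) (det : DetP W⁻¹ U z0 ρ T) (hY : Near 4 Y (kp U z0 ρ T))
    (hV' : (2 * W) ^ (120 : ℝ) * kp V z0 ρ T ≤ Y) (ha' : (2 * W) ^ (120 : ℝ) * a ≤ Y)
    (hH : 1 ≤ H) (hj : j ≤ H) :
    Nd V U.q z0 ρ H j T ((2 * W) ^ (-(120 : ℝ))) ((2 * W) ^ (-(120 : ℝ))) Y := by
  have hW0 : 0 < W := by linarith
  have h2W : (0 : ℝ) < 2 * W := by linarith
  have e1 : (2 * W) ^ (120 : ℝ) = 2 ^ 120 * W ^ 120 := by
    rw [← mul_pow]; exact_mod_cast Real.rpow_natCast (2 * W) 120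
  have e2 : (2 * W) ^ (-(120 : ℝ)) = (2 ^ 120 * W ^ 120)⁻¹ := by
    rw [Real.rpow_neg h2W.le, e1]
  rw [e1] at hV' ha'
  rw [e2]
  have hQ : (0 : ℝ) < 2 ^ 120 * W ^ 120 := by positivity
  obtain ⟨⟨a1, a2⟩, ⟨b1, b2⟩, ⟨c1, c2⟩⟩ := dU
  obtain ⟨⟨a1', a2'⟩, ⟨b1', b2'⟩, ⟨c1', c2'⟩⟩ := dV
  have haU : 0 < U.a := lt_of_lt_of_le hr hU.r0_le
  have hw0 : 0 < U.w 0 := lt_of_lt_of_le haU hU.a_le0
  have hw2 : 0 < U.w 2 := lt_of_lt_of_le hw0 hU.w0_le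
  have hw1 : 0 < U.w 1 := lt_of_lt_of_le hw2 hU.w_le
  have haV : 0 < V.a := lt_of_lt_of_le hr hV.r0_le
  have gw0 : 0 < V.w 0 := lt_of_lt_of_le haV hV.a_le0
  have gw2 : 0 < V.w 2 := lt_of_lt_of_le gw0 hV.w0_le
  have gw1 : 0 < V.w 1 := lt_of_lt_of_le gw2 hV.w_le
  have hW3 : (1 : ℝ) ≤ W ^ 3 := one_le_pow₀ hW
  have two : ∀ x y X : ℝ, 0 ≤ x → y ≤ W * X → X ≤ W * x → y ≤ W ^ 3 * x := by
    intro x y X hx h1 h2
    have h3 := mul_le_mul_of_nonneg_left h2 hW0.le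
    have h4 : W ^ 2 * x ≤ W ^ 3 * x :=
      mul_le_mul_of_nonneg_right (pow_le_pow_right₀ hW (by norm_num)) hx
    have h5 : W * (W * x) = W ^ 2 * x := by ring
    linarith
  have d1 : V.w 1 ≤ W ^ 3 * U.w 1 := two _ _ _ hw1.le b2' b1
  have d1' : U.w 1 ≤ W ^ 3 * V.w 1 := two _ _ _ gw1.le b2 b1'
  have d2 : V.w 2 ≤ W ^ 3 * U.w 2 := two _ _ _ hw2.le c2' c1
  have d2' : U.w 2 ≤ W ^ 3 * V.w 2 := two _ _ _ gw2.le c2 c1'
  have hang : V.w 1 * |dt (U.e 2) (V.e 1)| ≤ W ^ 3 * U.w 2 := by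
    have h1 : |dt (U.e 2) (V.e 1)| ≤ angC U V := by
      unfold angC
      exact (le_max_right _ _).trans (le_max_right _ _)
    have h0 : 0 ≤ angC U V := (abs_nonneg _).trans h1
    have h2 := al.ang
    calc V.w 1 * |dt (U.e 2) (V.e 1)| ≤ (W * w1) * angC U V :=
          mul_le_mul b2' h1 (abs_nonneg _) (gw1.le.trans b2')
      _ = W * (angC U V * w1) := by ring
      _ ≤ W * (W * w2) := mul_le_mul_of_nonneg_left h2 hW0.le
      _ ≤ W * (W * (W * U.w 2)) :=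
        mul_le_mul_of_nonneg_left (mul_le_mul_of_nonneg_left c1 hW0.le) hW0.le
      _ = W ^ 3 * U.w 2 := by ring
  have hdet : DetP (W ^ 3)⁻¹ U z0 ρ T := by
    refine det.mono ?_
    have h1 : W ≤ W ^ 3 := le_self_pow₀ hW (by norm_num)
    exact inv_anti₀ hW0 h1
  -- numbers
  have hkU : Y ≤ 4 * kapP U z0 ρ T := hY.1
  have hkV0 : (2 ^ 120 * W ^ 120) * kapP V z0 ρ T ≤ Y := hV'
  have hY0 : 0 < Y := lt_of_lt_of_le (by positivity) ha'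
  have hk0 : 0 < kapP U z0 ρ T := by linarith
  have hkVn : 0 ≤ kapP V z0 ρ T := by
    have hE' := KapP335.expP_spec hV.isQ gw0.ne' z0 ρ T
    rw [KapP335.kapP_eq gw0.ne' hE']
    exact mul_nonneg gw0.le (Tl102.kap_nonneg _ _ _)
  have hK27 : (W ^ 3) ^ 9 = W ^ 27 := by ring
  have flat : 10 ^ 22 * (W ^ 3) ^ 9 * (kapP V z0 ρ T + U.a + V.a) ≤ kapP U z0 ρ T := by
    rw [hK27]
    have h1 : W ^ 27 * kapP V z0 ρ T ≤ W ^ 120 * kapP V z0 ρ T :=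
      mul_le_mul_of_nonneg_right (pow_le_pow_right₀ hW (by norm_num)) hkVn
    have h2 : W ^ 28 * a ≤ W ^ 120 * a :=
      mul_le_mul_of_nonneg_right (pow_le_pow_right₀ hW (by norm_num)) ha.le
    have h3 : W ^ 27 * U.a ≤ W ^ 28 * a := by
      have := mul_le_mul_of_nonneg_left a2 (by positivity : (0:ℝ) ≤ W ^ 27)
      calc W ^ 27 * U.a ≤ W ^ 27 * (W * a) := this
        _ = W ^ 28 * a := by ring
    have h4 : W ^ 27 * V.a ≤ W ^ 28 * a := by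
      have := mul_le_mul_of_nonneg_left a2' (by positivity : (0:ℝ) ≤ W ^ 27)
      calc W ^ 27 * V.a ≤ W ^ 27 * (W * a) := this
        _ = W ^ 28 * a := by ring
    have h5 : 0 ≤ W ^ 120 * a := by positivity
    have h6 : 0 ≤ W ^ 120 * kapP V z0 ρ T := mul_nonneg (pow_nonneg hW0.le _) hkVn
    have h7 : 10 ^ 22 * W ^ 27 * (kapP V z0 ρ T + U.a + V.a) =
        10 ^ 22 * (W ^ 27 * kapP V z0 ρ T + W ^ 27 * U.a + W ^ 27 * V.a) := by ring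
    rw [h7]
    norm_num at hkV0 ha' ⊢
    linarith
  have hQi : (0 : ℝ) < (2 ^ 120 * W ^ 120)⁻¹ := by positivity
  refine caseA_Nd hr hρ hW3 hU hV tU tV d1 d1' d2 d2' hang hdet flat (by omega) hj hQi.le hY0.le
    ?_ ?_
  · have h1 : (W ^ 3) ^ 10 = W ^ 30 := by ring
    rw [h1]
    have h2 : 10 ^ 24 * W ^ 30 * ((2 ^ 120 * W ^ 120)⁻¹ * Y) ≤ Y / 4 := by
      rw [inv_mul_eq_div, ← mul_div_assoc, div_le_div_iff₀ hQ (by norm_num)]
      have h3 : W ^ 30 * Y ≤ W ^ 120 * Y :=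
        mul_le_mul_of_nonneg_right (pow_le_pow_right₀ hW (by norm_num)) hY0.le
      have h4 : 0 ≤ W ^ 120 * Y := by positivity
      norm_num
      linarith
    linarith
  · have h1 : (W ^ 3) ^ 7 = W ^ 21 := by ring
    rw [h1]
    have h2 : 10 ^ 6 * W ^ 21 * ((2 ^ 120 * W ^ 120)⁻¹ * Y ^ 2) < Y ^ 2 / 16 := by
      rw [inv_mul_eq_div, ← mul_div_assoc, div_lt_div_iff₀ hQ (by norm_num)]
      have h3 : W ^ 21 * Y ^ 2 ≤ W ^ 120 * Y ^ 2 :=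
        mul_le_mul_of_nonneg_right (pow_le_pow_right₀ hW (by norm_num)) (by positivity)
      have h4 : 0 < W ^ 120 * Y ^ 2 := by positivity
      norm_num
      linarith
    have h5 : Y ^ 2 ≤ 16 * kapP U z0 ρ T ^ 2 := by
      have := pow_le_pow_left₀ hY0.le hkU 2
      calc Y ^ 2 ≤ (4 * kapP U z0 ρ T) ^ 2 := this
        _ = _ := by ring
    linarith

end Crest.Agent.R136.Mxc615
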