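import Mathlib
import Crest.Agent.R136.Npt_615
import Crest.Agent.R136.NdD_325

/-!
# R136 (U4, PLAN 2 (AL), mixed curvatures): `ndPt : NdPt` (helper615)
-/

set_option autoImplicit false
set_option linter.unusedVariables false

namespace Crest.Agent.R136.Mxc615

open Crest.Agent.R136.Sh605

theorem ndPt : Ndw325.NdPt := by
  refine ⟨120, by norm_num, ?_⟩
  intro W Y a w1 w2 z0 ρ r U V T H j hW hr hρ hrρ ha hU hV tU tV dU dV al det hY hV' ha' hH hj
  have h2W : (0 : ℝ) ≤ 2 * W := by linarith
  have h := ndPt_at hW hr hρ ha hU hV tU tV dU dV al det hY hV' ha' hH hj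
  rw [Real.rpow_neg h2W] at h
  exact h

end Crest.Agent.R136.Mxc615
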