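import Crest.Agent.R136.Win2_823

/-!
# R136, block U4 (helper823): finite normalisation of a configuration

`norm6` : every valid configuration contains (with controlled losses) a valid configuration of the same
window with one incidence per (line, top cell) and top sheets of ONE shape.
-/

set_option autoImplicit false

open Finset

namespace Crest.Agent.R136.Win823

open Crest.Agent.R136.K4 Crest.Agent.R136.Sh605 Crest.Agent.R136.KS879 Crest.Agent.R136.En879

noncomputable section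

variable {Leg : ℕ → ℝ → ℝ → Plk4 → Prop} {q : Fin 3 → ℝ} {F : Cf6}

open Classical in
theorem objs4_mono {i : ℕ} {I J : Finset (Ln4 × ℝ)} (h : I ⊆ J) (K : Plk4) :
    (objs4 i I K).card ≤ (objs4 i J K).card := by
  unfold objs4
  exact card_le_card (filter_subset_filter _ (image_subset_image h))

open Classical in
/-- one incidence per object of a set `G` of objects -/
theorem exists_one {k : ℕ} (I : Finset (Ln4 × ℝ)) (G : Finset (Ln4 × ℤ))
    (hG : G ⊆ I.image (ob4 k)) : ∃ I' : Finset (Ln4 × ℝ), I' ⊆ I ∧ I'.image (ob4 k) = G ∧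
      ∀ x ∈ I', ∀ y ∈ I', ob4 k x = ob4 k y → x = y := by
  have h1 : ∀ o : Ln4 × ℤ, ∃ x : Ln4 × ℝ, o ∈ G → x ∈ I ∧ ob4 k x = o := by
    intro o
    by_cases ho : o ∈ G
    · obtain ⟨x, hx, hxo⟩ := mem_image.1 (hG ho)
      exact ⟨x, fun _ => ⟨hx, hxo⟩⟩
    · exact ⟨(⟨0, 0⟩, 0), fun h => absurd h ho⟩
  choose g hg using h1
  refine ⟨G.image g, ?_, ?_, ?_⟩
  · intro x hx
    obtain ⟨o, ho, rfl⟩ := mem_image.1 hx
    exact (hg o ho).1
  · ext o
    rw [image_image, mem_image]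
    constructor
    · rintro ⟨p, hp, rfl⟩
      show ob4 k (g p) ∈ G
      rw [(hg p hp).2]; exact hp
    · intro ho
      exact ⟨o, ho, (hg o ho).2⟩
  · intro x hx y hy hxy
    obtain ⟨o, ho, rfl⟩ := mem_image.1 hx
    obtain ⟨p, hp, rfl⟩ := mem_image.1 hy
    rw [(hg o ho).2, (hg p hp).2] at hxy
    rw [hxy]

theorem sum_image_inj {α X Z : Type*} [DecidableEq X] [DecidableEq Z] (g : X → Z)
    (hg : Function.Injective g) (φ : α → X) (O : Finset α) (W : Z → ℝ) :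
    ∑ x ∈ O.image (fun o => g (φ o)), W x = ∑ x ∈ O.image φ, W (g x) := by
  have : O.image (fun o => g (φ o)) = (O.image φ).image g := by rw [image_image]; rfl
  rw [this, sum_image (fun a _ b _ h => hg h)]

open Classical in
theorem exists_prune2_aux {α X Y : Type*} (φ : α → X)
    (ψ : α → Y) (T : X → ℝ) (S : Y → ℝ) (hT : ∀ x, 0 ≤ T x) (hS : ∀ y, 0 ≤ S y)
    (O : Finset α) : ∃ G ⊆ O,
      (O.card : ℝ) - (∑ x ∈ O.image φ, T x + ∑ y ∈ O.image ψ, S y) ≤ (G.card : ℝ) ∧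
      (∀ o ∈ G, T (φ o) ≤ ((G.filter fun p => φ p = φ o).card : ℝ)) ∧
      ∀ o ∈ G, S (ψ o) ≤ ((G.filter fun p => ψ p = ψ o).card : ℝ) := by
  obtain ⟨G, hGP, hGc, hG⟩ := exists_prune (α := α) (κ := Bool)
    (X := fun _ => X ⊕ Y) Finset.univ
    (fun b o => if b then Sum.inl (φ o) else Sum.inr (ψ o))
    (fun _ => Sum.elim T S)
    (by
      rintro b (x | y)
      · exact hT x
      · exact hS y) _ O le_rfl
  refine ⟨G, hGP, ?_, ?_, ?_⟩
  · rw [Fintype.sum_bool] at hGc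
    simp only [if_true, Bool.false_eq_true, if_false] at hGc
    rw [@sum_image_inj _ _ _ (fun a b => propDecidable (a = b)) (fun a b => propDecidable (a = b))
        Sum.inl Sum.inl_injective φ O (Sum.elim T S),
      @sum_image_inj _ _ _ (fun a b => propDecidable (a = b)) (fun a b => propDecidable (a = b))
        Sum.inr Sum.inr_injective ψ O (Sum.elim T S)] at hGc
    exact hGc
  · intro o ho
    have := hG o ho true (mem_univ _)
    simpa using this
  · intro o ho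
    have := hG o ho false (mem_univ _)
    simpa using this

/-- **pruning with two partitions** -/
theorem exists_prune2 {α X Y : Type*} [DecidableEq X] [DecidableEq Y] (φ : α → X)
    (ψ : α → Y) (T : X → ℝ) (S : Y → ℝ) (hT : ∀ x, 0 ≤ T x) (hS : ∀ y, 0 ≤ S y)
    (O : Finset α) : ∃ G ⊆ O,
      (O.card : ℝ) - (∑ x ∈ O.image φ, T x + ∑ y ∈ O.image ψ, S y) ≤ (G.card : ℝ) ∧
      (∀ o ∈ G, T (φ o) ≤ ((G.filter fun p => φ p = φ o).card : ℝ)) ∧
      ∀ o ∈ G, S (ψ o) ≤ ((G.filter fun p => ψ p = ψ o).card : ℝ) := by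
  obtain ⟨G, h1, h2, h3, h4⟩ := exists_prune2_aux φ ψ T S hT hS O
  refine ⟨G, h1, ?_, ?_, ?_⟩
  · convert h2
  · intro o ho; convert h3 o ho
  · intro o ho; convert h4 o ho

open Classical in
/-- **finite normalisation** -/
theorem norm6 {κ : ℕ} (hL : ClsOK6 Leg κ) {CU : ℝ} (hCU : 0 ≤ CU)
    (hUB : ∀ G : Cf6, Ok6 Leg q G → ∀ S, Leg G.top G.r G.Λm S →
      ((objs4 G.top G.I S).card : ℝ) ≤ (2:ℝ) ^ (CU * (G.M + G.h + 10)) * G.D0 * cap5 q G.top S)
    (hF : Ok6 Leg q F) (hD0 : 0 ≤ F.D0) {T : Type*} (sh : Plk4 → T) (Sh : Finset T) {K0 : ℝ}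
    (hK0 : 1 ≤ K0)
    (hRnd : ∀ K, Leg F.top F.r F.Λm K → ∀ O : Finset (Ln4 × ℤ), (∀ o ∈ O, In4 F.top K o) →
      ∃ K', Leg F.top F.r F.Λm K' ∧ sh K' ∈ Sh ∧ cap5 q F.top K' ≤ K0 * cap5 q F.top K ∧
        (O.card : ℝ) ≤ K0 * ((O.filter fun o => In4 F.top K' o).card : ℝ))
    {h' : ℕ} (hh : 4 * K0 * (Sh.card : ℝ) * 2 ^ F.h ≤ 2 ^ h') (hhM : h' ≤ F.M) :
    ∃ F' : Cf6, Ok6 Leg q F' ∧ F'.m = F.m ∧ F'.M = F.M ∧ F'.r = F.r ∧ F'.Λm = F.Λm ∧
      F'.I ⊆ F.I ∧ (∀ x ∈ F'.I, ∀ y ∈ F'.I, ob4 F.top x = ob4 F.top y → x = y) ∧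
      (∃ s ∈ Sh, ∀ x ∈ F'.I, sh (F'.K (F'.cl (ob4 F.top x))) = s) ∧ F'.h = h' ∧
      F'.D0 = (2:ℝ) ^ (CU * ((h' : ℝ) + F.h + 10)) * F.D0 ∧
      F'.D1 = F.D1 / (4 * K0 ^ 2 * (Sh.card : ℝ)) ∧
      ∀ i, F.m ≤ i → i ≤ F.top → ∀ S, Leg i F.r F.Λm S → ((objs4 i F'.I S).card : ℝ) ≤
        (2:ℝ) ^ (CU * ((i : ℝ) - F.m + F.h + 10)) * F.D0 * cap5 q i S := by
  set top := F.top with htop
  have hmt : F.m ≤ top := Nat.le_add_right _ _
  have hmt' : top - F.m = F.M := by
    show F.m + F.M - F.m = F.M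
    omega
  have hM1 := hF.M1
  have hK0p : 0 < K0 := by linarith
  set O := F.I.image (ob4 top) with hO
  -- rounded sheets
  have hex : ∀ c : ℕ, ∃ K', (∃ o ∈ O, F.cl o = c) → Leg top F.r F.Λm K' ∧ sh K' ∈ Sh ∧
      cap5 q top K' ≤ K0 * cap5 q top (F.K c) ∧
      ((O.filter fun o => F.cl o = c).card : ℝ) ≤
        K0 * (((O.filter fun o => F.cl o = c).filter fun o => In4 top K' o).card : ℝ) := by
    intro c
    by_cases hc : ∃ o ∈ O, F.cl o = c
    · obtain ⟨o, ho, hoc⟩ := hc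
      obtain ⟨x, hx, hxo⟩ := mem_image.1 ho
      have hleg : Leg top F.r F.Λm (F.K c) := by
        have := hF.legal x hx
        rwa [← htop, hxo, hoc] at this
      obtain ⟨K', h1, h2, h3, h4⟩ := hRnd (F.K c) hleg (O.filter fun o => F.cl o = c) (by
        intro p hp
        rw [mem_filter] at hp
        obtain ⟨y, hy, hyp⟩ := mem_image.1 hp.1
        have := hF.mem y hy
        rwa [← htop, hyp, hp.2] at this)
      exact ⟨K', fun _ => ⟨h1, h2, h3, h4⟩⟩
    · exact ⟨F.K c, fun h => absurd h hc⟩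
  choose K' hK' using hex
  have hK : ∀ o ∈ O, Leg top F.r F.Λm (K' (F.cl o)) ∧ sh (K' (F.cl o)) ∈ Sh ∧
      cap5 q top (K' (F.cl o)) ≤ K0 * cap5 q top (F.K (F.cl o)) ∧
      ((O.filter fun p => F.cl p = F.cl o).card : ℝ) ≤
        K0 * (((O.filter fun p => F.cl p = F.cl o).filter fun p =>
          In4 top (K' (F.cl o)) p).card : ℝ) := fun o ho => hK' _ ⟨o, ho, rfl⟩
  set O' := O.filter fun o => In4 top (K' (F.cl o)) o with hO'
  have hOO' : (O.card : ℝ) ≤ K0 * (O'.card : ℝ) := by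
    rw [card_eq_sum_card_image F.cl O]
    have h1 : (O'.card : ℝ) = ∑ c ∈ O.image F.cl, ((O'.filter fun o => F.cl o = c).card : ℝ) := by
      have := card_eq_sum_card_fiberwise (f := F.cl) (s := O') (t := O.image F.cl)
        (fun o ho => mem_image_of_mem _ (mem_filter.1 ho).1)
      exact_mod_cast this
    rw [h1, mul_sum]
    push_cast
    refine sum_le_sum fun c hc => ?_
    obtain ⟨o, ho, rfl⟩ := mem_image.1 hc
    refine (hK o ho).2.2.2.trans (mul_le_mul_of_nonneg_left (Nat.cast_le.2 ?_) hK0p.le)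
    refine card_le_card fun p hp => ?_
    rw [mem_filter, mem_filter] at hp
    rw [mem_filter, hO', mem_filter]
    exact ⟨⟨hp.1.1, by rw [hp.1.2]; exact hp.2⟩, hp.1.2⟩
  have hOne : O.Nonempty := hF.ne.image _
  have hOpos : (0:ℝ) < (O.card : ℝ) := by exact_mod_cast card_pos.2 hOne
  -- popular shape
  obtain ⟨s, hs, hsc⟩ : ∃ s ∈ Sh, (O'.card : ℝ) ≤
      (Sh.card : ℝ) * ((O'.filter fun o => sh (K' (F.cl o)) = s).card : ℝ) := by
    by_contra hcon
    push Not at hcon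
    have h1 : (O'.card : ℝ) =
        ∑ s ∈ Sh, ((O'.filter fun o => sh (K' (F.cl o)) = s).card : ℝ) := by
      have := card_eq_sum_card_fiberwise (f := fun o => sh (K' (F.cl o))) (s := O') (t := Sh)
        (fun o ho => (hK o (mem_filter.1 ho).1).2.1)
      exact_mod_cast this
    have hne : Sh.Nonempty := by
      obtain ⟨o, ho⟩ := hOne
      exact ⟨_, (hK o ho).2.1⟩
    have h2 : (Sh.card : ℝ) * (O'.card : ℝ) < (Sh.card : ℝ) * (O'.card : ℝ) := by
      calc (Sh.card : ℝ) * (O'.card : ℝ) = ∑ s ∈ Sh, (Sh.card : ℝ) *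
            ((O'.filter fun o => sh (K' (F.cl o)) = s).card : ℝ) := by rw [h1, mul_sum]
        _ < ∑ s ∈ Sh, (O'.card : ℝ) := sum_lt_sum_of_nonempty hne hcon
        _ = _ := by rw [sum_const, nsmul_eq_mul]
    exact lt_irrefl _ h2
  set P := O'.filter fun o => sh (K' (F.cl o)) = s with hP
  have hPO : P ⊆ O := (filter_subset _ _).trans (filter_subset _ _)
  have hShp : (0:ℝ) < (Sh.card : ℝ) := by exact_mod_cast card_pos.2 ⟨s, hs⟩
  set A : ℝ := 4 * K0 * (Sh.card : ℝ) with hA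
  have hAp : 0 < A := by positivity
  have hOP : (O.card : ℝ) ≤ K0 * (Sh.card : ℝ) * (P.card : ℝ) := by
    calc (O.card : ℝ) ≤ K0 * (O'.card : ℝ) := hOO'
      _ ≤ K0 * ((Sh.card : ℝ) * (P.card : ℝ)) := mul_le_mul_of_nonneg_left hsc hK0p.le
      _ = _ := by ring
  -- pruning
  set τ : ℝ := 2 ^ (F.M + 20) / (2 ^ F.h * A) with hτ
  have hτp : 0 < τ := by positivity
  obtain ⟨G, hGP, hGc, hG1, hG2⟩ := exists_prune2 (fun o : Ln4 × ℤ => up4 F.M o)
    (fun o => F.cl o) (fun _ => τ) (fun c => ((O.filter fun o => F.cl o = c).card : ℝ) / A)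
    (fun _ => hτp.le) (fun _ => div_nonneg (Nat.cast_nonneg _) hAp.le) P
  -- first sum
  have hs1 : ∑ x ∈ P.image (fun o => up4 F.M o), τ ≤ (O.card : ℝ) / A := by
    rw [sum_const, nsmul_eq_mul]
    have h1 : (((P.image fun o => up4 F.M o).card : ℝ)) ≤
        (((O.image fun o => up4 F.M o).card : ℝ)) :=
      Nat.cast_le.2 (card_le_card (image_subset_image hPO))
    have h2 : (((O.image fun o => up4 F.M o).card : ℝ)) * (2 ^ (F.M + 20) / 2 ^ F.h) ≤
        (O.card : ℝ) := by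
      rw [card_eq_sum_card_image (fun o => up4 F.M o) O]
      push_cast
      rw [← nsmul_eq_mul, ← sum_const]
      refine sum_le_sum fun x hx => ?_
      obtain ⟨o, ho, rfl⟩ := mem_image.1 hx
      obtain ⟨y, hy, rfl⟩ := mem_image.1 ho
      have h3 := hF.own y hy
      rw [← htop, ownc4_eq hmt, hmt'] at h3
      have e1 : up4 F.M (ob4 top y) = ob4 F.m y := by
        rw [← hmt']; exact up4_ob4 hmt y
      rw [e1, div_le_iff₀ (by positivity), mul_comm]
      exact_mod_cast h3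
    calc (((P.image fun o => up4 F.M o).card : ℝ)) * τ
        ≤ (((O.image fun o => up4 F.M o).card : ℝ)) * τ :=
          mul_le_mul_of_nonneg_right h1 hτp.le
      _ = ((((O.image fun o => up4 F.M o).card : ℝ)) * (2 ^ (F.M + 20) / 2 ^ F.h)) / A := by
          rw [hτ]; field_simp
      _ ≤ (O.card : ℝ) / A := div_le_div_of_nonneg_right h2 hAp.le
  have hs2 : ∑ c ∈ P.image (fun o => F.cl o), ((O.filter fun o => F.cl o = c).card : ℝ) / A ≤
      (O.card : ℝ) / A := by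
    rw [← sum_div]
    refine div_le_div_of_nonneg_right ?_ hAp.le
    have h1 := card_eq_sum_card_image F.cl O
    have h2 : (O.card : ℝ) = ∑ c ∈ O.image F.cl, ((O.filter fun o => F.cl o = c).card : ℝ) := by
      exact_mod_cast h1
    rw [h2]
    exact sum_le_sum_of_subset_of_nonneg (image_subset_image hPO) fun _ _ _ => Nat.cast_nonneg _
  have hOA : (O.card : ℝ) / A ≤ (P.card : ℝ) / 4 := by
    rw [div_le_iff₀ hAp, hA]
    calc (O.card : ℝ) ≤ K0 * (Sh.card : ℝ) * (P.card : ℝ) := hOP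
      _ = _ := by ring
  have hPpos : (0:ℝ) < (P.card : ℝ) := by
    by_contra h
    have h0 : (P.card : ℝ) = 0 := le_antisymm (not_lt.1 h) (Nat.cast_nonneg _)
    rw [h0, mul_zero] at hOP
    linarith
  have hGpos : (0:ℝ) < (G.card : ℝ) := by
    have h1 : (P.card : ℝ) - ((P.card : ℝ) / 4 + (P.card : ℝ) / 4) ≤ (G.card : ℝ) :=
      le_trans (sub_le_sub_left (add_le_add (hs1.trans hOA) (hs2.trans hOA)) _) hGc
    linarith
  have hGne : G.Nonempty := card_pos.1 (by exact_mod_cast hGpos)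
  have hGO : G ⊆ O := hGP.trans hPO
  have hGs : ∀ o ∈ G, In4 top (K' (F.cl o)) o ∧ sh (K' (F.cl o)) = s := by
    intro o ho
    have h1 := hGP ho
    rw [hP, mem_filter, hO', mem_filter] at h1
    exact ⟨h1.1.2, h1.2⟩
  obtain ⟨I', hI', himg, hone⟩ := exists_one F.I G hGO
  have hI'ne : I'.Nonempty := by
    rw [← himg] at hGne
    exact image_nonempty.1 hGne
  have hob : ∀ x ∈ I', ob4 top x ∈ G := fun x hx => by
    rw [← himg]; exact mem_image_of_mem _ hx
  have hup : ∀ i, F.m ≤ i → i ≤ top → ∀ S, Leg i F.r F.Λm S → ((objs4 i I' S).card : ℝ) ≤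
        (2:ℝ) ^ (CU * ((i : ℝ) - F.m + F.h + 10)) * F.D0 * cap5 q i S := fun i h1 h2 S hS =>
    le_trans (Nat.cast_le.2 (objs4_mono hI' S)) (ups_all hL hCU hUB hF hD0 h1 h2 hS)
  have h20 : 20 ≤ h' := by
    have h1 : (2:ℝ) ^ F.h ≤ 2 ^ h' := by
      refine le_trans ?_ hh
      have h2 : (1:ℝ) ≤ (Sh.card : ℝ) := by exact_mod_cast card_pos.2 ⟨s, hs⟩
      have h3 : (1:ℝ) ≤ 4 * K0 * (Sh.card : ℝ) := by nlinarith
      exact le_mul_of_one_le_left (by positivity) h3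
    have h4 : F.h ≤ h' := (pow_le_pow_iff_right₀ one_lt_two).1 h1
    exact hF.h20.trans h4
  have hmtlt : F.m < top := by omega
  set D1' : ℝ := F.D1 / (4 * K0 ^ 2 * (Sh.card : ℝ)) with hD1'
  have hD1 := hF.D1p
  have eM : (sub6 F F.m top I' F.cl K' ((2:ℝ) ^ (CU * ((h' : ℝ) + F.h + 10)) * F.D0) D1' h').M
      = F.M := hmt'
  refine ⟨sub6 F F.m top I' F.cl K' ((2:ℝ) ^ (CU * ((h' : ℝ) + F.h + 10)) * F.D0) D1' h',
    ?_, rfl, eM, rfl, rfl, hI', hone, ⟨s, hs, fun x hx => (hGs _ (hob x hx)).2⟩, rfl, rfl, rfl,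
    hup⟩
  refine sub6_ok hF.r0 hF.rle hF.Λ1 hmtlt le_rfl hI'ne
    (fun x hx y hy => hF.cell x (hI' hx) y (hI' hy)) (by positivity)
    (fun x hx => (hK _ (hGO (hob x hx))).1) (fun x hx => (hGs _ (hob x hx)).1) ?_ h20
    (by omega) ?_ ?_
  · -- classes
    intro x hx
    rw [himg]
    set o := ob4 top x with ho
    have hoG := hob x hx
    obtain ⟨-, -, h3, -⟩ := hK o (hGO hoG)
    have hcls : F.D1 * cap5 q top (F.K (F.cl o)) ≤ ((O.filter fun p => F.cl p = F.cl o).card : ℝ) :=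
      hF.low x (hI' hx)
    calc D1' * cap5 q top (K' (F.cl o)) ≤ D1' * (K0 * cap5 q top (F.K (F.cl o))) :=
          mul_le_mul_of_nonneg_left h3 (by positivity)
      _ = (F.D1 * cap5 q top (F.K (F.cl o))) / A := by
          rw [hD1', hA]; field_simp
      _ ≤ ((O.filter fun p => F.cl p = F.cl o).card : ℝ) / A :=
          div_le_div_of_nonneg_right hcls hAp.le
      _ ≤ _ := hG2 o hoG
  · intro l h1 h2 S hS
    refine (hup l h1 (by omega) S hS).trans ?_
    have hc0 : 0 ≤ F.D0 * cap5 q l S := by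
      rcases le_or_gt l (F.m + F.h) with h3 | h3
      · exact le_trans (Nat.cast_nonneg _) (hF.ups l h1 h3 S hS)
      · have := ups_all hL hCU hUB hF hD0 h1 (by omega) hS
        have h4 : (0:ℝ) ≤ (2:ℝ) ^ (CU * ((l : ℝ) - F.m + F.h + 10)) * F.D0 * cap5 q l S :=
          le_trans (Nat.cast_nonneg _) this
        rw [mul_assoc] at h4
        exact nonneg_of_mul_nonneg_right h4 (by positivity)
    rw [mul_assoc, mul_assoc]
    refine mul_le_mul_of_nonneg_right (Real.rpow_le_rpow_of_exponent_le one_le_two ?_) hc0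
    refine mul_le_mul_of_nonneg_left ?_ hCU
    have : (l : ℝ) ≤ F.m + h' := by exact_mod_cast h2
    linarith
  · -- own
    intro x hx
    have h1 := hG1 _ (hob x hx)
    have e1 : up4 F.M (ob4 top x) = ob4 F.m x := by
      rw [← hmt']; exact up4_ob4 hmt x
    rw [ownc4_eq hmt, himg, hmt']
    rw [e1, hτ, div_le_iff₀ (by positivity)] at h1
    have h2 : (2:ℝ) ^ (F.M + 20) ≤ ((G.filter fun p => up4 F.M p = ob4 F.m x).card : ℝ) *
        2 ^ h' := by
      refine h1.trans (mul_le_mul_of_nonneg_left ?_ (Nat.cast_nonneg _))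
      rw [mul_comm]; exact hh
    rw [mul_comm] at h2
    exact_mod_cast h2

end

end Crest.Agent.R136.Win823
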