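import Crest.Agent.R136.MkA_627
import Crest.Agent.R136.Deep0_770
import Crest.Agent.R138.NatTw_76
import Crest.Agent.R138.Ps1_926

/-!
# R136 (S0187): shifting the levels of a marked extremal sequence (helper163)

* `Geo.par k` : the cells of level `i + k` play the role of their ancestors of level `i`.
* `MkA.shift` : a dense part of a marked extremal sequence is marked over `G.par k` at the levels
  `lev n v + k`, with the labels of the ancestors.
-/

set_option autoImplicit false
set_option linter.unusedVariables false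
set_option linter.unusedSectionVars false

open Finset Filter Topology

namespace Crest.Agent.R136.Shf163

open Crest.Agent.R138.Ex926 Crest.Agent.R138.Dp76 Crest.Agent.R138.Ps627
open Crest.Agent.R138.Mk163 (zc zl rho alive own Negl)
open Crest.Agent.R138.NatTw76 (exists_avoid)
open Crest.Agent.R138.MkRef627 (lc kc own_one alive_mono mem_alive card_class own_lower hh hh_even
  hh_odd exists_num)
open Crest.Agent.R136.MkA627
open Crest.Agent.R136.Dia770 (zc_div ico_div)

/-- the geometry of the ancestors: a cell of level `i` is tested through its ancestor of level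
`i - k`. -/
def _root_.Crest.Agent.R136.MkA627.Geo.par {σ κ : Type*} (G : Geo σ κ) (k : ℕ) : Geo σ κ where
  mem n i J s t := G.mem n (i - k) (J / 2 ^ k) s t
  adm n i J s := G.adm n (i - k) (J / 2 ^ k) s
  val n i J s := G.val n (i - k) (J / 2 ^ k) s
  wid := G.wid

theorem par_mem {σ κ : Type*} (G : Geo σ κ) (k n i : ℕ) (J : ℤ) (s : σ) (t : ℕ) :
    (G.par k).mem n (i + k) J s t ↔ G.mem n i (J / 2 ^ k) s t := by
  simp only [Geo.par, Nat.add_sub_cancel]

theorem par_adm {σ κ : Type*} (G : Geo σ κ) (k n i : ℕ) (J : ℤ) (s : σ) :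
    (G.par k).adm n (i + k) J s ↔ G.adm n i (J / 2 ^ k) s := by
  simp only [Geo.par, Nat.add_sub_cancel]

theorem par_val {σ κ : Type*} (G : Geo σ κ) (k n i : ℕ) (J : ℤ) (s : σ) :
    (G.par k).val n (i + k) J s = G.val n i (J / 2 ^ k) s := by
  simp only [Geo.par, Nat.add_sub_cancel]

theorem par_wid {σ κ : Type*} (G : Geo σ κ) (k : ℕ) (j : κ) (s : σ) :
    (G.par k).wid j s = G.wid j s := rfl

theorem zc_add (i k : ℕ) (z : ℝ) : zc (i + k) z / 2 ^ k = zc i z := by
  rw [zc_div (Nat.le_add_right i k) z, Nat.add_sub_cancel_left]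

theorem zc_anc {i k : ℕ} {z z' : ℝ} (h : zc (i + k) z = zc (i + k) z') : zc i z = zc i z' := by
  rw [← zc_add i k z, ← zc_add i k z', h]

open Classical in
/-- alive lines of a cell of level `i + k` are alive in the ancestor. -/
theorem alive_anc {I J : Finset (ℕ × ℝ)} (h : J ⊆ I) (i k : ℕ) (c : ℤ) :
    alive J (i + k) c ⊆ alive I i (c / 2 ^ k) := by
  intro s hs
  obtain ⟨x, hx, h1, h2⟩ := mem_alive.1 hs
  exact mem_alive.2 ⟨x, h hx, h1, by rw [← h2, zc_add]⟩

open Classical in
/-- at most `2^k` sub-cells. -/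
theorem card_sub (k : ℕ) (c : ℤ) {α : Type*} (S : Finset α) (φ : α → ℤ)
    (h : ∀ x ∈ S, φ x / 2 ^ k = c) : (S.image φ).card ≤ 2 ^ k := by
  have h1 : S.image φ ⊆ Finset.Ico (c * 2 ^ k) (c * 2 ^ k + 2 ^ k) := by
    intro j hj
    obtain ⟨x, hx, rfl⟩ := mem_image.1 hj
    exact ico_div.2 (h x hx)
  refine (card_le_card h1).trans ?_
  rw [Int.card_Ico]
  have : (c * 2 ^ k + 2 ^ k - c * 2 ^ k : ℤ) = ((2 ^ k : ℕ) : ℤ) := by push_cast; ring
  rw [this, Int.toNat_natCast]

open Classical in
theorem img_lc (I : Finset (ℕ × ℝ)) (i k : ℕ) (x : ℕ × ℝ) :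
    ((I.filter fun y => lc i y = lc i x).image (lc (i + k))).card ≤ 2 ^ k := by
  set F := I.filter fun y => lc i y = lc i x with hF
  have h1 : F.image (lc (i + k)) ⊆ (F.image fun y => zc (i + k) y.2).image fun c => (x.1, c) := by
    intro o ho
    obtain ⟨y, hy, rfl⟩ := mem_image.1 ho
    refine mem_image.2 ⟨zc (i + k) y.2, mem_image.2 ⟨y, hy, rfl⟩, ?_⟩
    rw [hF, mem_filter] at hy
    have := hy.2
    simp only [lc, Prod.mk.injEq] at this ⊢
    exact ⟨this.1.symm, trivial⟩
  refine (card_le_card h1).trans (card_image_le.trans (card_sub k (zc i x.2) F _ ?_))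
  intro y hy
  rw [hF, mem_filter] at hy
  have := hy.2
  simp only [lc, Prod.mk.injEq] at this
  rw [zc_add, this.2]

open Classical in
theorem img_kc (I : Finset (ℕ × ℝ)) (i k : ℕ) (f : ℕ → ℤ → ℕ) (x : ℕ × ℝ) :
    ((I.filter fun y => kc i f y = kc i f x).image
      (kc (i + k) fun t J => f t (J / 2 ^ k))).card ≤ 2 ^ k := by
  set F := I.filter fun y => kc i f y = kc i f x with hF
  have h1 : F.image (kc (i + k) fun t J => f t (J / 2 ^ k)) ⊆
      (F.image fun y => zc (i + k) y.2).image fun c => (f x.1 (zc i x.2), c) := by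
    intro o ho
    obtain ⟨y, hy, rfl⟩ := mem_image.1 ho
    refine mem_image.2 ⟨zc (i + k) y.2, mem_image.2 ⟨y, hy, rfl⟩, ?_⟩
    rw [hF, mem_filter] at hy
    have := hy.2
    simp only [kc, Prod.mk.injEq] at this ⊢
    refine ⟨?_, trivial⟩
    rw [zc_add]
    exact this.1.symm
  refine (card_le_card h1).trans (card_image_le.trans (card_sub k (zc i x.2) F _ ?_))
  intro y hy
  rw [hF, mem_filter] at hy
  have := hy.2
  simp only [kc, Prod.mk.injEq] at this
  rw [zc_add, this.2]

open Classical in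
/-- few pieces: the unpopular ones are small (copy of `Us555.bad_le`). -/
theorem bad_le {α β γ : Type*} (I : Finset α) (k : α → β) (k' : α → γ) {θ N : ℝ} (hθ : 0 ≤ θ)
    (hN : ∀ x ∈ I, (((I.filter fun y => k y = k x).image k').card : ℝ) ≤ N) :
    ((I.filter fun x => ((I.filter fun y => k' y = k' x).card : ℝ) <
      θ * ((I.filter fun y => k y = k x).card : ℝ)).card : ℝ) ≤ N * θ * (I.card : ℝ) := by
  set bad := I.filter fun x => ((I.filter fun y => k' y = k' x).card : ℝ) <
      θ * ((I.filter fun y => k y = k x).card : ℝ) with hbad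
  have e1 : (bad.card : ℝ) = ∑ c ∈ I.image k, ((bad.filter fun y => k y = c).card : ℝ) := by
    rw [card_eq_sum_card_fiberwise (f := k) (s := bad) (t := I.image k) (fun x hx => by
      have hx' : x ∈ bad := hx
      rw [hbad, mem_filter] at hx'
      exact mem_image_of_mem _ hx'.1)]
    push_cast; rfl
  have e2 : (I.card : ℝ) = ∑ c ∈ I.image k, ((I.filter fun y => k y = c).card : ℝ) := by
    rw [card_eq_sum_card_image k I]
    push_cast; rfl
  rw [e1, e2, mul_sum]
  refine sum_le_sum fun c hc => ?_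
  obtain ⟨x0, hx0, rfl⟩ := mem_image.1 hc
  set F := I.filter fun y => k y = k x0 with hF
  have hF0 : (0 : ℝ) ≤ F.card := Nat.cast_nonneg _
  have e3 : ((bad.filter fun y => k y = k x0).card : ℝ) =
      ∑ a ∈ F.image k', (((bad.filter fun y => k y = k x0).filter fun y => k' y = a).card : ℝ) := by
    rw [card_eq_sum_card_fiberwise (f := k') (s := bad.filter fun y => k y = k x0)
      (t := F.image k') (fun x hx => by
        have hx' : x ∈ bad.filter fun y => k y = k x0 := hx
        rw [mem_filter, hbad, mem_filter] at hx'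
        exact mem_image_of_mem _ (mem_filter.2 ⟨hx'.1.1, hx'.2⟩))]
    push_cast; rfl
  rw [e3]
  have e4 : ∀ a ∈ F.image k',
      (((bad.filter fun y => k y = k x0).filter fun y => k' y = a).card : ℝ) ≤ θ * F.card := by
    intro a ha
    rcases ((bad.filter fun y => k y = k x0).filter fun y => k' y = a).eq_empty_or_nonempty with
      h0 | ⟨y, hy⟩
    · rw [h0, card_empty, Nat.cast_zero]
      exact mul_nonneg hθ hF0
    · rw [mem_filter, mem_filter] at hy
      obtain ⟨⟨hy1, hy2⟩, hy3⟩ := hy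
      have hy4 := hy1
      rw [hbad, mem_filter] at hy4
      have hy5 := hy4.2
      rw [hy2, hy3] at hy5
      refine le_trans ?_ hy5.le
      have : ((bad.filter fun y => k y = k x0).filter fun y => k' y = a) ⊆
          I.filter fun y => k' y = a := by
        intro z hz
        rw [mem_filter, mem_filter, hbad, mem_filter] at hz
        exact mem_filter.2 ⟨hz.1.1.1, hz.2⟩
      exact_mod_cast card_le_card this
  refine (sum_le_sum e4).trans ?_
  rw [sum_const, nsmul_eq_mul]
  have h1 := hN x0 hx0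
  calc ((F.image k').card : ℝ) * (θ * F.card) ≤ N * (θ * F.card) :=
        mul_le_mul_of_nonneg_right h1 (mul_nonneg hθ hF0)
    _ = N * θ * F.card := by ring

open Classical in
/-- **popular pieces**: countably many refinements of partitions into at most `N` pieces; a dense
part meets only popular pieces. -/
theorem pop_seq {B : Base} {I : ℕ → Finset (ℕ × ℝ)} {β : Type*} (k k' : ℕ → ℕ → ℕ × ℝ → β)
    {N : ℝ} (hN0 : 0 < N)
    (hN : ∀ j n, ∀ x ∈ I n, ((((I n).filter fun y => k j n y = k j n x).image (k' j n)).card : ℝ)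
      ≤ N) :
    ∃ J0 : ℕ → Finset (ℕ × ℝ), (∀ n, J0 n ⊆ I n) ∧ Dense B J0 I ∧
      ∀ j, ∀ ε : ℝ, 0 < ε → ∀ᶠ n in (U : Filter ℕ), ∀ x ∈ J0 n,
        B.d n ^ ε * (((I n).filter fun y => k j n y = k j n x).card : ℝ) ≤
          (((I n).filter fun y => k' j n y = k' j n x).card : ℝ) := by
  have hneg : ∀ j, ∀ ε : ℝ, 0 < ε → Negl B I fun n x =>
      (((I n).filter fun y => k' j n y = k' j n x).card : ℝ) <
        B.d n ^ ε * (((I n).filter fun y => k j n y = k j n x).card : ℝ) := by
    intro j ε hε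
    refine ⟨ε / 2, by positivity, ?_⟩
    filter_upwards [Crest.Agent.R138.Ps926.dpow_small B (half_pos hε) (ε := 1 / N)
      (by positivity)] with n hn
    have h3 := bad_le (I n) (k j n) (k' j n) (θ := B.d n ^ ε) (N := N) (dpow_pos B n ε).le
      (fun x hx => by convert hN j n x hx)
    have e1 : N * B.d n ^ ε ≤ B.d n ^ (ε / 2) := by
      have e2 : B.d n ^ ε = B.d n ^ (ε / 2) * B.d n ^ (ε / 2) := by
        rw [← dpow_add]; congr 1; ring
      have p := dpow_pos B n (ε / 2)
      have e3 : N * B.d n ^ (ε / 2) ≤ 1 := by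
        rw [lt_div_iff₀ hN0] at hn
        nlinarith
      rw [e2]
      calc N * (B.d n ^ (ε / 2) * B.d n ^ (ε / 2)) = (N * B.d n ^ (ε / 2)) * B.d n ^ (ε / 2) := by
            ring
        _ ≤ 1 * B.d n ^ (ε / 2) := mul_le_mul_of_nonneg_right e3 p.le
        _ = _ := one_mul _
    have h4 := h3.trans (mul_le_mul_of_nonneg_right e1 (Nat.cast_nonneg _))
    convert h4
  obtain ⟨J0, hJ0I, hJ0d, hJ0⟩ := exists_avoid (B := B) (I := I)
    (fun m n x => (((I n).filter fun y => k' (Nat.unpair m).1 n y = k' (Nat.unpair m).1 n x).card : ℝ)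
      < B.d n ^ (1 / (((Nat.unpair m).2 : ℝ) + 1)) *
        (((I n).filter fun y => k (Nat.unpair m).1 n y = k (Nat.unpair m).1 n x).card : ℝ))
    (fun m => hneg (Nat.unpair m).1 (1 / (((Nat.unpair m).2 : ℝ) + 1)) (by positivity))
  refine ⟨J0, hJ0I, hJ0d, fun j ε hε => ?_⟩
  obtain ⟨K, hK⟩ := exists_nat_one_div_lt hε
  have h2 := hJ0 (Nat.pair j K)
  rw [Nat.unpair_pair] at h2
  filter_upwards [h2] with n a1 x hx
  have a4 := not_lt.1 (a1 x hx)
  refine le_trans ?_ a4
  exact mul_le_mul_of_nonneg_right (dpow_le B n hK.le) (Nat.cast_nonneg _)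

open Classical in
/-- incidences of a class from above. -/
theorem class_up {J : Finset (ℕ × ℝ)} {i : ℕ} {φ : ℕ → ℤ → ℕ} {m : ℝ}
    (h : ∀ y ∈ J, ((J.filter fun z => lc i z = lc i y).card : ℝ) ≤ m) (x : ℕ × ℝ) :
    ((J.filter fun y => kc i φ y = kc i φ x).card : ℝ) ≤
      m * (((alive J i (zc i x.2)).filter fun s => φ s (zc i x.2) = φ x.1 (zc i x.2)).card : ℝ) := by
  set c := zc i x.2 with hc
  set a : ℕ := φ x.1 c with ha
  have kI : (J.filter fun y => kc i φ y = kc i φ x) =
      J.filter fun y => (lc i y).2 = c ∧ φ (lc i y).1 c = a := by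
    ext y
    rw [mem_filter, mem_filter]
    simp only [kc, lc, Prod.mk.injEq, ← hc, ← ha]
    constructor
    · rintro ⟨h5, h6, h7⟩
      exact ⟨h5, h7, by rw [← h7]; exact h6⟩
    · rintro ⟨h5, h7, h6⟩
      exact ⟨h5, by rw [h7]; exact h6, h7⟩
  rw [kI, card_class J i c (fun s => φ s c) a]
  have := card_filter_le_mul (n₂ := m) (lc i) J
    (fun o => o.2 = c ∧ φ o.1 c = a) (fun y hy => by convert h y hy)
  convert this

open Classical in
/-- incidences of a class from below. -/
theorem class_lo {J : Finset (ℕ × ℝ)} {i : ℕ} {φ : ℕ → ℤ → ℕ} {m : ℝ}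
    (h : ∀ y ∈ J, m ≤ ((J.filter fun z => lc i z = lc i y).card : ℝ)) (x : ℕ × ℝ) :
    m * (((alive J i (zc i x.2)).filter fun s => φ s (zc i x.2) = φ x.1 (zc i x.2)).card : ℝ) ≤
      ((J.filter fun y => kc i φ y = kc i φ x).card : ℝ) := by
  set c := zc i x.2 with hc
  set a : ℕ := φ x.1 c with ha
  have kI : (J.filter fun y => kc i φ y = kc i φ x) =
      J.filter fun y => (lc i y).2 = c ∧ φ (lc i y).1 c = a := by
    ext y
    rw [mem_filter, mem_filter]
    simp only [kc, lc, Prod.mk.injEq, ← hc, ← ha]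
    constructor
    · rintro ⟨h5, h6, h7⟩
      exact ⟨h5, h7, by rw [← h7]; exact h6⟩
    · rintro ⟨h5, h7, h6⟩
      exact ⟨h5, by rw [h7]; exact h6, h7⟩
  rw [kI, card_class J i c (fun s => φ s c) a]
  have := mul_card_filter_le (n₁ := m) (lc i) J
    (fun o => o.2 = c ∧ φ o.1 c = a) (fun y hy => by convert h y hy)
  convert this

open Classical in
/-- own counts of descendants. -/
theorem own_anc {I J : Finset (ℕ × ℝ)} (h : J ⊆ I) (i j k : ℕ) (x : ℕ × ℝ) :
    (own J (i + k) (j + k) x).card ≤ 2 ^ k * (own I i j x).card := by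
  have h1 : (own J (i + k) (j + k) x).image (fun c : ℤ => c / 2 ^ k) ⊆ own I i j x := by
    intro c hc
    obtain ⟨c', hc', rfl⟩ := mem_image.1 hc
    unfold own at hc' ⊢
    obtain ⟨y, hy, rfl⟩ := mem_image.1 hc'
    rw [mem_filter] at hy
    exact mem_image.2 ⟨y, mem_filter.2 ⟨h hy.1, hy.2.1, zc_anc hy.2.2⟩, by rw [zc_add]⟩
  refine (card_le_mul_card_image (f := fun c : ℤ => c / 2 ^ k) _ (2 ^ k) ?_).trans
    (Nat.mul_le_mul_left _ (card_le_card h1))
  intro a ha
  refine le_trans (le_of_eq ?_) (card_sub k a ((own J (i + k) (j + k) x).filter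
    fun c : ℤ => c / 2 ^ k = a) id (fun c hc => (mem_filter.1 hc).2))
  rw [image_id]

section

variable {σ κ : Type*} {B : Base} {I : ℕ → Finset (ℕ × ℝ)} {G : Geo σ κ} {lev : ℕ → ℚ → ℕ}
    {A : ℕ → ℝ} {c Λ : ℝ → ℝ} {τ : κ → ℝ → ℝ} {f : ℕ → ℚ → ℕ → ℤ → ℕ} {b : ℕ → ℚ → ℕ → σ}
    {vm : ℕ → ℚ → ℝ} {w : κ → ℕ → ℚ → ℝ}

open Classical in
/-- **SHIFT.**  A dense part is marked over the cells of level `lev n v + k`, by the marks of the
ancestors. -/
theorem MkA.shift (h : MkA B I G lev A c Λ τ f b vm w) (k : ℕ) :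
    ∃ J' : ℕ → Finset (ℕ × ℝ), (∀ n, J' n ⊆ I n) ∧ Dense B J' I ∧
      MkA B J' (G.par k) (fun n v => lev n v + k) A c Λ τ (fun n v t J => f n v t (J / 2 ^ k))
        b vm w := by
  set lev' : ℕ → ℚ → ℕ := fun n v => lev n v + k with hlev'
  set f' : ℕ → ℚ → ℕ → ℤ → ℕ := fun n v t J => f n v t (J / 2 ^ k) with hf'
  -- popular pieces
  obtain ⟨J0, hJ0I, hJ0d, hpop⟩ := pop_seq (B := B) (I := I) (hh lev f) (hh lev' f')
    (N := ((2 ^ k : ℕ) : ℝ)) (by positivity) (fun j n x hx => by
      rcases Nat.even_or_odd' j with ⟨m, rfl | rfl⟩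
      · rw [hh_even, hh_even]
        have := img_lc (I n) (lev n (Denumerable.ofNat ℚ m)) k x
        refine Nat.cast_le.2 ?_
        convert this
      · rw [hh_odd, hh_odd]
        have := img_kc (I n) (lev n (Denumerable.ofNat ℚ m)) k (f n (Denumerable.ofNat ℚ m)) x
        refine Nat.cast_le.2 ?_
        convert this)
  -- one sub-cell of the top cell
  have hcell : ∀ n, ∃ a : ℤ, (∀ x ∈ I n, ∀ y ∈ I n, zc (lev n 0) x.2 = zc (lev n 0) y.2) →
      ((J0 n).card : ℝ) ≤ ((2 ^ k : ℕ) : ℝ) *
        (((J0 n).filter fun x => zc (lev n 0 + k) x.2 = a).card : ℝ) := by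
    intro n
    rcases (J0 n).eq_empty_or_nonempty with he | ⟨x0, hx0⟩
    · refine ⟨0, fun _ => ?_⟩
      rw [he, card_empty, Nat.cast_zero]
      positivity
    by_cases hc : ∀ x ∈ I n, ∀ y ∈ I n, zc (lev n 0) x.2 = zc (lev n 0) y.2
    · have hmaps : ∀ x ∈ J0 n, zc (lev n 0 + k) x.2 ∈
          (J0 n).image fun x => zc (lev n 0 + k) x.2 := fun x hx => mem_image.2 ⟨x, hx, rfl⟩
      have hcard : ((J0 n).image fun x => zc (lev n 0 + k) x.2).card ≤ 2 ^ k :=
        card_sub k (zc (lev n 0) x0.2) _ _ (fun x hx => by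
          rw [zc_add]; exact hc x (hJ0I n hx) x0 (hJ0I n hx0))
      have hpos : (0 : ℝ) < ((2 ^ k : ℕ) : ℝ) := by positivity
      obtain ⟨a, -, ha⟩ := exists_le_card_fiber_of_nsmul_le_card_of_maps_to
        (b := ((J0 n).card : ℝ) / ((2 ^ k : ℕ) : ℝ)) hmaps ⟨_, hmaps x0 hx0⟩ (by
          rw [nsmul_eq_mul, mul_div_assoc', div_le_iff₀ hpos, mul_comm]
          exact mul_le_mul_of_nonneg_left (by exact_mod_cast hcard) (Nat.cast_nonneg _))
      refine ⟨a, fun _ => ?_⟩
      rw [div_le_iff₀ hpos, mul_comm] at ha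
      convert ha
    · exact ⟨0, fun h' => (hc h').elim⟩
  choose a ha using hcell
  set J1 : ℕ → Finset (ℕ × ℝ) := fun n => (J0 n).filter fun x => zc (lev n 0 + k) x.2 = a n with hJ1
  have hJ1J0 : Dense B J1 J0 := dense_of_sub (S := fun _ => ((2 ^ k : ℕ) : ℝ))
    (Base.Sub.const (by positivity)) (by
      filter_upwards [h.cell0] with n hn
      exact ⟨filter_subset _ _, ha n hn⟩)
  have hJ1I : Dense B J1 I := hJ1J0.trans hJ0d
  -- prune
  obtain ⟨J', hsub, hhalf, hfib⟩ := prune_seq (η := fun _ _ => ℕ × ℤ) hJ1I (hh lev' f')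
  have hJ'J : Dense B J' J1 := dense_of_half (by
    filter_upwards [hhalf] with n hn using ⟨(hsub n).1, hn⟩)
  have hJ'I : Dense B J' I := hJ'J.trans hJ1I
  have hJ'0 : ∀ n, J' n ⊆ J0 n := fun n => (hsub n).1.trans (filter_subset _ _)
  -- fibres of pairs (line, cell)
  have fl : ∀ v : ℚ, ∀ ε : ℝ, 0 < ε → ∀ᶠ n in (U : Filter ℕ), ∀ x ∈ J' n,
      B.d n ^ ε * (((I n).filter fun y => lc (lev n v) y = lc (lev n v) x).card : ℝ) ≤
        (((J' n).filter fun y => lc (lev n v + k) y = lc (lev n v + k) x).card : ℝ) := by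
    intro v ε hε
    obtain ⟨j, rfl⟩ := exists_num v
    filter_upwards [hfib (2 * j) (ε / 2) (half_pos hε), hpop (2 * j) (ε / 2) (half_pos hε)]
      with n h1 h2 x hx
    have h3 := h1 x hx
    have h4 := h2 x (hJ'0 n hx)
    simp only [hh_even] at h3 h4
    have e1 : B.d n ^ ε = B.d n ^ (ε / 2) * B.d n ^ (ε / 2) := by
      rw [← dpow_add]; congr 1; ring
    rw [e1, mul_assoc]
    exact (mul_le_mul_of_nonneg_left h4 (dpow_pos B n _).le).trans h3
  have fk : ∀ v : ℚ, ∀ ε : ℝ, 0 < ε → ∀ᶠ n in (U : Filter ℕ), ∀ x ∈ J' n,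
      B.d n ^ ε * (((I n).filter fun y => kc (lev n v) (f n v) y = kc (lev n v) (f n v) x).card : ℝ)
        ≤ (((J' n).filter fun y => kc (lev n v + k) (f' n v) y =
          kc (lev n v + k) (f' n v) x).card : ℝ) := by
    intro v ε hε
    obtain ⟨j, rfl⟩ := exists_num v
    filter_upwards [hfib (2 * j + 1) (ε / 2) (half_pos hε), hpop (2 * j + 1) (ε / 2) (half_pos hε)]
      with n h1 h2 x hx
    have h3 := h1 x hx
    have h4 := h2 x (hJ'0 n hx)
    simp only [hh_odd] at h3 h4
    have e1 : B.d n ^ ε = B.d n ^ (ε / 2) * B.d n ^ (ε / 2) := by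
      rw [← dpow_add]; congr 1; ring
    rw [e1, mul_assoc]
    exact (mul_le_mul_of_nonneg_left h4 (dpow_pos B n _).le).trans h3
  have fup : ∀ v : ℚ, 0 ≤ v → v ≤ 1 → ∀ ε : ℝ, 0 < ε → ∀ᶠ n in (U : Filter ℕ), ∀ x ∈ J' n,
      (((J' n).filter fun y => lc (lev n v + k) y = lc (lev n v + k) x).card : ℝ) ≤
        B.d n ^ (-(1 - (v : ℝ)) + (Λ 1 - Λ v) - ε) := by
    intro v h0 h1 ε hε
    filter_upwards [fib_bounds h v h0 h1 hε] with n hn x hx
    refine le_trans ?_ (hn x ((hsub n).2 hx)).2
    have : ((J' n).filter fun y => lc (lev n v + k) y = lc (lev n v + k) x) ⊆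
        (I n).filter fun y => lc (lev n v) y = lc (lev n v) x := by
      intro y hy
      rw [mem_filter] at hy ⊢
      refine ⟨(hsub n).2 hy.1, ?_⟩
      have := hy.2
      simp only [lc, Prod.mk.injEq] at this ⊢
      exact ⟨this.1, zc_anc this.2⟩
    exact_mod_cast card_le_card this
  refine ⟨J', fun n => (hsub n).2, hJ'I, ?_⟩
  have hne : ∀ᶠ n in (U : Filter ℕ), (J' n).Nonempty := hJ'I.nonempty h.ne
  exact
    { ne := hne
      card := by
        intro ε hε
        filter_upwards [h.card ε hε, hne] with n hn hne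
        exact le_trans (Real.log_le_log (by exact_mod_cast card_pos.2 hne)
          (by exact_mod_cast card_le_card (hsub n).2)) hn
      Apos := h.Apos
      c0 := h.c0
      lam0 := h.lam0
      lam := h.lam
      tau1 := h.tau1
      lev_mono := by
        intro u v hu huv hv
        filter_upwards [h.lev_mono u v hu huv hv] with n hn using Nat.add_le_add_right hn k
      lev_lim := by
        intro u v hu huv hv
        refine (h.lev_lim u v hu huv hv).congr fun n => ?_
        simp only [hlev']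
        push_cast
        congr 2
        ring
      cell0 := by
        refine Eventually.of_forall fun n x hx y hy => ?_
        have h1 := (mem_filter.1 ((hsub n).1 hx)).2
        have h2 := (mem_filter.1 ((hsub n).1 hy)).2
        exact h1.trans h2.symm
      one := by
        filter_upwards [h.one] with n hn x hx y hy h1 h2
        exact hn x ((hsub n).2 hx) y ((hsub n).2 hy) h1 (zc_anc h2)
      own := by
        intro u v hu huv hv ε hε
        have hε3 : 0 < ε / 3 := by positivity
        filter_upwards [h.own u v hu huv hv (ε / 2) (half_pos hε),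
          fib_bounds h u hu (huv.trans hv) hε3, fup v (hu.trans huv) hv (ε / 3) hε3,
          fl u (ε / 3) hε3, Crest.Agent.R138.Ps926.dpow_small B (half_pos hε)
            (ε := 1 / ((2 ^ k : ℕ) : ℝ)) (by positivity)] with n h1 h2 h3 h4 h5 x hx
        have hxI := (hsub n).2 hx
        constructor
        · have h6 := own_lower (J := J' n) (i := lev n u + k) (j := lev n v + k) (x := x)
            (m := B.d n ^ (-(1 - (v : ℝ)) + (Λ 1 - Λ v) - ε / 3)) (fun y hy => h3 y hy) hx
          have h7 := (mul_le_mul_of_nonneg_left (h2 x hxI).1 (dpow_pos B n (ε / 3)).le).trans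
            ((h4 x hx).trans h6)
          rw [← dpow_add] at h7
          have hp := dpow_pos B n (-(1 - (v : ℝ)) + (Λ 1 - Λ v) - ε / 3)
          rw [← div_le_iff₀' hp, ← Real.rpow_sub (B.pos n)] at h7
          refine le_trans (le_of_eq ?_) h7
          congr 1; ring
        · have h6 : ((Crest.Agent.R138.Mk163.own (J' n) (lev n u + k) (lev n v + k) x).card : ℝ) ≤
              ((2 ^ k : ℕ) : ℝ) *
                ((Crest.Agent.R138.Mk163.own (I n) (lev n u) (lev n v) x).card : ℝ) := by
            exact_mod_cast own_anc (hsub n).2 (lev n u) (lev n v) k x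
          refine h6.trans ((mul_le_mul_of_nonneg_left (h1 x hxI).2 (Nat.cast_nonneg _)).trans ?_)
          have e1 : B.d n ^ (-((v : ℝ) - u) + (Λ v - Λ u) - ε / 2) =
              B.d n ^ (ε / 2) * B.d n ^ (-((v : ℝ) - u) + (Λ v - Λ u) - ε) := by
            rw [← dpow_add]; congr 1; ring
          rw [e1, ← mul_assoc]
          have e2 : ((2 ^ k : ℕ) : ℝ) * B.d n ^ (ε / 2) ≤ 1 := by
            rw [lt_div_iff₀ (by positivity)] at h5
            linarith [mul_comm ((2 ^ k : ℕ) : ℝ) (B.d n ^ (ε / 2))]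
          calc ((2 ^ k : ℕ) : ℝ) * B.d n ^ (ε / 2) *
                B.d n ^ (-((v : ℝ) - u) + (Λ v - Λ u) - ε)
              ≤ 1 * B.d n ^ (-((v : ℝ) - u) + (Λ v - Λ u) - ε) :=
                mul_le_mul_of_nonneg_right e2 (dpow_pos B n _).le
            _ = _ := one_mul _
      dmax := by
        intro v hv0 hv1 ε hε
        filter_upwards [h.dmax v hv0 hv1 ε hε] with n hn J s hs
        have hs' := (par_adm G k n (lev n v) J s).1 hs
        have h1 := hn (J / 2 ^ k) s hs'
        show (((alive (J' n) (lev n v + k) J).filter fun t =>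
          (G.par k).mem n (lev n v + k) J s t).card : ℝ) ≤ B.d n ^ (-ε) * ampA B A c n v *
            (G.par k).val n (lev n v + k) J s
        rw [par_val]
        refine le_trans ?_ h1
        have : ((alive (J' n) (lev n v + k) J).filter fun t =>
            (G.par k).mem n (lev n v + k) J s t) ⊆
            (alive (I n) (lev n v) (J / 2 ^ k)).filter fun t =>
              G.mem n (lev n v) (J / 2 ^ k) s t := by
          intro t ht
          rw [mem_filter] at ht ⊢
          exact ⟨alive_anc (hsub n).2 _ _ _ ht.1, (par_mem G k n (lev n v) J s t).1 ht.2⟩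
        exact_mod_cast card_le_card this
      mark := by
        intro v h0 h1
        filter_upwards [h.mark v h0 h1] with n hn J t ht
        have h2 := hn (J / 2 ^ k) t (alive_anc (hsub n).2 _ _ _ ht)
        refine ⟨(par_mem G k n (lev n v) J _ t).2 h2.1, (par_adm G k n (lev n v) J _).2 h2.2.1,
          ?_, h2.2.2.2⟩
        exact (par_val G k n (lev n v) J _).trans h2.2.2.1
      near := by
        intro v h0 h1 ε hε
        have h5 : 0 < ε / 4 := by positivity
        filter_upwards [h.near v h0 h1 (ε / 4) h5, fib_bounds h v h0 h1 h5,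
          fup v h0 h1 (ε / 4) h5, fk v (ε / 4) h5] with n a1 a2 a3 a4 J t ht
        obtain ⟨x, hx, hx1, hx2⟩ := mem_alive.1 ht
        have hx2' : zc (lev n v + k) x.2 = J := hx2
        subst hx1
        have hJ : J / 2 ^ k = zc (lev n v) x.2 := by rw [← hx2', zc_add]
        have b1 := a1 (J / 2 ^ k) x.1 (alive_anc (hsub n).2 _ _ _ ht)
        rw [hJ] at b1
        have b2 := class_lo (J := I n) (i := lev n v) (φ := f n v) (fun y hy => (a2 y hy).1) x
        have b3 := class_up (J := J' n) (i := lev n v + k) (φ := f' n v) (fun y hy => a3 y hy) x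
        have b4 := a4 x hx
        rw [hx2'] at b3
        set N1 : ℝ := (((alive (I n) (lev n v) (zc (lev n v) x.2)).filter fun s =>
            f n v s (zc (lev n v) x.2) = f n v x.1 (zc (lev n v) x.2)).card : ℝ) with hN1
        set N2 : ℝ := (((alive (J' n) (lev n v + k) J).filter fun s =>
            f' n v s J = f' n v x.1 J).card : ℝ) with hN2
        have c1 : B.d n ^ (ε / 4) * (B.d n ^ (-(1 - (v : ℝ)) + (Λ 1 - Λ v) + ε / 4) * N1) ≤
            B.d n ^ (-(1 - (v : ℝ)) + (Λ 1 - Λ v) - ε / 4) * N2 :=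
          (mul_le_mul_of_nonneg_left b2 (dpow_pos B n _).le).trans (b4.trans b3)
        have c2 : N1 ≤ B.d n ^ (-(3 * (ε / 4))) * N2 := by
          have e1 : B.d n ^ (ε / 4) * (B.d n ^ (-(1 - (v : ℝ)) + (Λ 1 - Λ v) + ε / 4) * N1) =
              B.d n ^ (-(1 - (v : ℝ)) + (Λ 1 - Λ v) - ε / 4 + 3 * (ε / 4)) * N1 := by
            rw [← mul_assoc, ← dpow_add]
            congr 2; ring
          rw [e1, dpow_add, mul_assoc] at c1
          have c3 := le_of_mul_le_mul_left c1 (dpow_pos B n _)
          have c4 := mul_le_mul_of_nonneg_left c3 (dpow_pos B n (-(3 * (ε / 4)))).le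
          rw [← mul_assoc, ← dpow_add, neg_add_cancel, Real.rpow_zero, one_mul] at c4
          exact c4
        show ampA B A c n v * vm n v ≤ B.d n ^ (-ε) * N2
        calc ampA B A c n v * vm n v ≤ B.d n ^ (-(ε / 4)) * N1 := b1
          _ ≤ B.d n ^ (-(ε / 4)) * (B.d n ^ (-(3 * (ε / 4))) * N2) :=
              mul_le_mul_of_nonneg_left c2 (dpow_pos B n _).le
          _ = B.d n ^ (-ε) * N2 := by
              rw [← mul_assoc, ← dpow_add]
              congr 2; ring
      vpos := h.vpos
      wpos := h.wpos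
      tau := by
        intro j v h0 h1
        refine (h.tau j v h0 h1).congr fun n => ?_
        have e : ∀ i : ℕ, rho (i + k) = rho i * (1 / 2 ^ k) := by
          intro i
          unfold Crest.Agent.R138.Mk163.rho
          rw [pow_add]
          field_simp
        have hk : (1 / 2 ^ k : ℝ) ≠ 0 := by positivity
        simp only [hlev']
        rw [e, e]
        congr 2
        rw [mul_div_right_comm, mul_div_right_comm (rho (lev n 1)), mul_div_mul_right _ _ hk] }

end

end Crest.Agent.R136.Shf163
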