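import Crest.Agent.R136.Nar_627
import Crest.Agent.R136.Shf1_163

/-!
# R136 (S0187): narrowing from a class-wise cover (helper989)

`MkA.narrow_cov` : if (eventually, for every cell and every old class) the lines of one old class in
one cell are covered by at most `Nb n` (`≤ d^(-δ) * N` for every `δ`) new marks, and
`N * vm' ≤ d^(-ε) * vm` (SATURATION), then a dense part is marked by the new marks; the new labels
refine the old ones.  (`Nar627.MkA.narrowG` with the choice of labels done.)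

`MkA.narrow_cov_par` : the same over the sub-cells of depth `k` (after `Shf163.MkA.shift`).
-/

set_option autoImplicit false
set_option linter.unusedVariables false
set_option linter.unusedSectionVars false

open Finset Filter Topology

namespace Crest.Agent.R136.Nrw989

open Crest.Agent.R138.Ex926 Crest.Agent.R138.Dp76 Crest.Agent.R138.Ps627
open Crest.Agent.R138.Mk163 (zc zl rho alive own Negl)
open Crest.Agent.R136.MkA627

section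

variable {σ κ : Type*} {B : Base} {I : ℕ → Finset (ℕ × ℝ)} {G : Geo σ κ} {lev : ℕ → ℚ → ℕ}
    {A : ℕ → ℝ} {c Λ : ℝ → ℝ} {τ : κ → ℝ → ℝ} {f : ℕ → ℚ → ℕ → ℤ → ℕ} {b : ℕ → ℚ → ℕ → σ}
    {vm : ℕ → ℚ → ℝ} {w : κ → ℕ → ℚ → ℝ}

open Classical in
/-- **NARROW from covers of the classes** -/
theorem _root_.Crest.Agent.R136.MkA627.MkA.narrow_cov {σ' κ' : Type*} [Nonempty σ'] {G' : Geo σ' κ'}
    (h : MkA B I G lev A c Λ τ f b vm w) {vm' : ℕ → ℚ → ℝ} {w' : κ' → ℕ → ℚ → ℝ}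
    {τ' : κ' → ℝ → ℝ} {N : ℕ → ℚ → ℝ}
    (hdm : ∀ v : ℚ, 0 ≤ v → v ≤ 1 → ∀ ε : ℝ, 0 < ε → ∀ᶠ n in (U : Filter ℕ), ∀ J : ℤ, ∀ s : σ',
      G'.adm n (lev n v) J s →
        (((alive (I n) (lev n v) J).filter fun t => G'.mem n (lev n v) J s t).card : ℝ) ≤
          B.d n ^ (-ε) * ampA B A c n v * G'.val n (lev n v) J s)
    (hN : ∀ v : ℚ, 0 ≤ v → v ≤ 1 → ∀ᶠ n in (U : Filter ℕ), 0 < N n v)
    (hcov : ∀ v : ℚ, 0 ≤ v → v ≤ 1 → ∃ Nb : ℕ → ℝ,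
      (∀ δ : ℝ, 0 < δ → ∀ᶠ n in (U : Filter ℕ), Nb n ≤ B.d n ^ (-δ) * N n v) ∧
      ∀ᶠ n in (U : Filter ℕ), ∀ J : ℤ, ∀ m : ℕ, ∃ (lab : ℕ → ℕ) (N0 : ℕ) (P : ℕ → σ'),
        (N0 : ℝ) ≤ Nb n ∧ ∀ t ∈ alive (I n) (lev n v) J, f n v t J = m → lab t < N0 ∧
          G'.mem n (lev n v) J (P (lab t)) t ∧ G'.adm n (lev n v) J (P (lab t)) ∧
          G'.val n (lev n v) J (P (lab t)) = vm' n v ∧ ∀ j, G'.wid j (P (lab t)) = w' j n v)
    (hsat : ∀ v : ℚ, 0 ≤ v → v ≤ 1 → ∀ ε : ℝ, 0 < ε → ∀ᶠ n in (U : Filter ℕ),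
      N n v * vm' n v ≤ B.d n ^ (-ε) * vm n v)
    (hvpos : ∀ v : ℚ, 0 ≤ v → v ≤ 1 → ∀ᶠ n in (U : Filter ℕ), 0 < vm' n v)
    (hwpos : ∀ j, ∀ v : ℚ, 0 ≤ v → v ≤ 1 → ∀ᶠ n in (U : Filter ℕ), 0 < w' j n v)
    (htau1 : ∀ j, τ' j 1 = 0)
    (htau : ∀ j, ∀ v : ℚ, 0 ≤ v → v ≤ 1 →
      Tendsto (fun n => Real.log ((rho (lev n v) / w' j n v) / (rho (lev n 1) / w' j n 1)) / B.L n)
        U (𝓝 (τ' j v))) :
    ∃ (f' : ℕ → ℚ → ℕ → ℤ → ℕ) (b' : ℕ → ℚ → ℕ → σ') (J' : ℕ → Finset (ℕ × ℝ)),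
      (∀ n, J' n ⊆ I n) ∧ Dense B J' I ∧
      (∀ n v t s J J1, f' n v t J = f' n v s J1 → J = J1 ∧ f n v t J = f n v s J1) ∧
      MkA B J' G' lev A c Λ τ' f' b' vm' w' := by
  obtain ⟨σ0⟩ := id ‹Nonempty σ'›
  -- the good property
  set Q : ℕ → ℚ → ℝ → ℤ → ℕ → (ℕ → ℕ) → ℕ → (ℕ → σ') → Prop := fun n v Nb J m lab N0 P =>
    (N0 : ℝ) ≤ Nb ∧ ∀ t ∈ alive (I n) (lev n v) J, f n v t J = m → lab t < N0 ∧
      G'.mem n (lev n v) J (P (lab t)) t ∧ G'.adm n (lev n v) J (P (lab t)) ∧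
      G'.val n (lev n v) J (P (lab t)) = vm' n v ∧ ∀ j, G'.wid j (P (lab t)) = w' j n v with hQ
  have hcov' : ∀ v : ℚ, ∃ Nb : ℕ → ℝ, 0 ≤ v → v ≤ 1 →
      (∀ δ : ℝ, 0 < δ → ∀ᶠ n in (U : Filter ℕ), Nb n ≤ B.d n ^ (-δ) * N n v) ∧
      ∀ᶠ n in (U : Filter ℕ), ∀ J : ℤ, ∀ m : ℕ, ∃ (lab : ℕ → ℕ) (N0 : ℕ) (P : ℕ → σ'),
        Q n v (Nb n) J m lab N0 P := by
    intro v
    by_cases hv : 0 ≤ v ∧ v ≤ 1
    · obtain ⟨Nb, h1, h2⟩ := hcov v hv.1 hv.2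
      exact ⟨Nb, fun _ _ => ⟨h1, h2⟩⟩
    · exact ⟨fun _ => 0, fun a b => (hv ⟨a, b⟩).elim⟩
  choose Nb hNb using hcov'
  have hch : ∀ (n : ℕ) (v : ℚ) (J : ℤ) (m : ℕ), ∃ (lab : ℕ → ℕ) (N0 : ℕ) (P : ℕ → σ'),
      (∃ (lab : ℕ → ℕ) (N0 : ℕ) (P : ℕ → σ'), Q n v (Nb v n) J m lab N0 P) →
        Q n v (Nb v n) J m lab N0 P := by
    intro n v J m
    by_cases hex : ∃ (lab : ℕ → ℕ) (N0 : ℕ) (P : ℕ → σ'), Q n v (Nb v n) J m lab N0 P
    · obtain ⟨lab, N0, P, hP⟩ := id hex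
      exact ⟨lab, N0, P, fun _ => hP⟩
    · exact ⟨fun _ => 0, 0, fun _ => σ0, fun hc => (hex hc).elim⟩
  choose lab N0 P hP using hch
  set f' : ℕ → ℚ → ℕ → ℤ → ℕ := fun n v t J =>
    Nat.pair (Encodable.encode J) (Nat.pair (f n v t J) (lab n v J (f n v t J) t)) with hf'
  set b' : ℕ → ℚ → ℕ → σ' := fun n v k =>
    P n v (Denumerable.ofNat ℤ (Nat.unpair k).1) (Nat.unpair (Nat.unpair k).2).1
      (Nat.unpair (Nat.unpair k).2).2 with hb'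
  have hbf : ∀ n v t J, b' n v (f' n v t J) =
      P n v J (f n v t J) (lab n v J (f n v t J) t) := by
    intro n v t J
    simp only [hb', hf', Nat.unpair_pair, Denumerable.ofNat_encode]
  have hinj : ∀ n v t s J J1, f' n v t J = f' n v s J1 →
      J = J1 ∧ f n v t J = f n v s J1 ∧
        lab n v J (f n v t J) t = lab n v J1 (f n v s J1) s := by
    intro n v t s J J1 he
    simp only [hf', Nat.pair_eq_pair] at he
    exact ⟨Encodable.encode_injective he.1, he.2.1, he.2.2⟩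
  obtain ⟨J', k1, k2, k3⟩ := Nar627.MkA.narrowG (G' := G') (f' := f') (b' := b') (vm' := vm')
    (w' := w') (τ' := τ') (N := N) h hdm hN (by
      intro v h0 h1
      filter_upwards [(hNb v h0 h1).2] with n hn J t ht
      obtain ⟨-, h3⟩ := hP n v J (f n v t J) (hn J (f n v t J))
      obtain ⟨-, h4⟩ := h3 t ht rfl
      rw [hbf]
      exact h4) (by
      intro v h0 h1 δ hδ
      filter_upwards [(hNb v h0 h1).2, (hNb v h0 h1).1 δ hδ] with n hn hn2 J t ht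
      refine le_trans ?_ hn2
      obtain ⟨h2, h3⟩ := hP n v J (f n v t J) (hn J (f n v t J))
      refine le_trans ?_ h2
      have hsub : ((alive (I n) (lev n v) J).filter fun s => f n v s J = f n v t J).image
          (fun s => f' n v s J) ⊆ (Finset.range (N0 n v J (f n v t J))).image fun l =>
            Nat.pair (Encodable.encode J) (Nat.pair (f n v t J) l) := by
        intro o ho
        obtain ⟨s, hs, rfl⟩ := mem_image.1 ho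
        rw [mem_filter] at hs
        obtain ⟨h5, -⟩ := h3 s hs.1 hs.2
        refine mem_image.2 ⟨_, mem_range.2 h5, ?_⟩
        simp only [hf', hs.2]
      have h6 := (card_le_card hsub).trans card_image_le
      rw [card_range] at h6
      exact_mod_cast h6) hsat hvpos hwpos htau1 htau
  exact ⟨f', b', J', k1, k2, fun n v t s J J1 he => ⟨(hinj n v t s J J1 he).1,
    (hinj n v t s J J1 he).2.1⟩, k3⟩

open Classical in
/-- **NARROW from covers of the classes, over the sub-cells of depth `k`** -/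
theorem _root_.Crest.Agent.R136.MkA627.MkA.narrow_cov_par {σ' κ' : Type*} [Nonempty σ']
    {G' : Geo σ' κ'} (h : MkA B I G lev A c Λ τ f b vm w) (k : ℕ) {vm' : ℕ → ℚ → ℝ}
    {w' : κ' → ℕ → ℚ → ℝ} {τ' : κ' → ℝ → ℝ} {N : ℕ → ℚ → ℝ}
    (hdm : ∀ v : ℚ, 0 ≤ v → v ≤ 1 → ∀ ε : ℝ, 0 < ε → ∀ᶠ n in (U : Filter ℕ), ∀ J : ℤ, ∀ s : σ',
      G'.adm n (lev n v + k) J s →
        (((alive (I n) (lev n v + k) J).filter fun t => G'.mem n (lev n v + k) J s t).card : ℝ) ≤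
          B.d n ^ (-ε) * ampA B A c n v * G'.val n (lev n v + k) J s)
    (hN : ∀ v : ℚ, 0 ≤ v → v ≤ 1 → ∀ᶠ n in (U : Filter ℕ), 0 < N n v)
    (hcov : ∀ v : ℚ, 0 ≤ v → v ≤ 1 → ∃ Nb : ℕ → ℝ,
      (∀ δ : ℝ, 0 < δ → ∀ᶠ n in (U : Filter ℕ), Nb n ≤ B.d n ^ (-δ) * N n v) ∧
      ∀ᶠ n in (U : Filter ℕ), ∀ J : ℤ, ∀ m : ℕ, ∃ (lab : ℕ → ℕ) (N0 : ℕ) (P : ℕ → σ'),
        (N0 : ℝ) ≤ Nb n ∧ ∀ t ∈ alive (I n) (lev n v) (J / 2 ^ k), f n v t (J / 2 ^ k) = m →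
          lab t < N0 ∧ G'.mem n (lev n v + k) J (P (lab t)) t ∧
          G'.adm n (lev n v + k) J (P (lab t)) ∧
          G'.val n (lev n v + k) J (P (lab t)) = vm' n v ∧ ∀ j, G'.wid j (P (lab t)) = w' j n v)
    (hsat : ∀ v : ℚ, 0 ≤ v → v ≤ 1 → ∀ ε : ℝ, 0 < ε → ∀ᶠ n in (U : Filter ℕ),
      N n v * vm' n v ≤ B.d n ^ (-ε) * vm n v)
    (hvpos : ∀ v : ℚ, 0 ≤ v → v ≤ 1 → ∀ᶠ n in (U : Filter ℕ), 0 < vm' n v)
    (hwpos : ∀ j, ∀ v : ℚ, 0 ≤ v → v ≤ 1 → ∀ᶠ n in (U : Filter ℕ), 0 < w' j n v)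
    (htau1 : ∀ j, τ' j 1 = 0)
    (htau : ∀ j, ∀ v : ℚ, 0 ≤ v → v ≤ 1 →
      Tendsto (fun n => Real.log ((rho (lev n v) / w' j n v) / (rho (lev n 1) / w' j n 1)) / B.L n)
        U (𝓝 (τ' j v))) :
    ∃ (f' : ℕ → ℚ → ℕ → ℤ → ℕ) (b' : ℕ → ℚ → ℕ → σ') (J' : ℕ → Finset (ℕ × ℝ)),
      (∀ n, J' n ⊆ I n) ∧ Dense B J' I ∧
      (∀ n v t s J J1, f' n v t J = f' n v s J1 →
        J = J1 ∧ f n v t (J / 2 ^ k) = f n v s (J / 2 ^ k)) ∧
      MkA B J' G' (fun n v => lev n v + k) A c Λ τ' f' b' vm' w' := by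
  obtain ⟨J1, h1, h2, h3⟩ := Shf163.MkA.shift h k
  obtain ⟨f', b', J', k1, k2, k3, k4⟩ := MkA.narrow_cov (G' := G') (vm' := vm') (w' := w')
    (τ' := τ') (N := N) h3 (by
      intro v hv0 hv1 ε hε
      filter_upwards [hdm v hv0 hv1 ε hε] with n hn J s hs
      refine le_trans ?_ (hn J s hs)
      exact_mod_cast card_le_card (filter_subset_filter _
        (Crest.Agent.R138.MkRef627.alive_mono (h1 n) _ _))) hN (by
      intro v hv0 hv1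
      obtain ⟨Nb, a1, a2⟩ := hcov v hv0 hv1
      refine ⟨Nb, a1, ?_⟩
      filter_upwards [a2] with n hn J m
      obtain ⟨lab, N0, P, b1, b2⟩ := hn J m
      exact ⟨lab, N0, P, b1, fun t ht hm => b2 t (Shf163.alive_anc (h1 n) _ _ _ ht) hm⟩)
    hsat hvpos hwpos htau1 (by
      intro j v hv0 hv1
      refine (htau j v hv0 hv1).congr fun n => ?_
      have e : ∀ i : ℕ, rho (i + k) = rho i * (1 / 2 ^ k) := by
        intro i
        unfold Crest.Agent.R138.Mk163.rho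
        rw [pow_add]
        field_simp
      have hk : (1 / 2 ^ k : ℝ) ≠ 0 := by positivity
      rw [e, e, mul_div_right_comm, mul_div_right_comm (rho (lev n 1)), mul_div_mul_right _ _ hk])
  refine ⟨f', b', J', fun n => (k1 n).trans (h1 n), k2.trans h2, fun n v t s J J1 he => ?_, k4⟩
  obtain ⟨c1, c2⟩ := k3 n v t s J J1 he
  refine ⟨c1, ?_⟩
  rw [← c1] at c2
  exact c2

end

end Crest.Agent.R136.Nrw989
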