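import Crest.Agent.R136.Kpc_104
import Crest.Agent.R136.Coi1_102
import Crest.Agent.R136.Hcp2_208
import Crest.Agent.R136.Wdg2_296

/-!
# R136 (S0187), PLAN 2, (AL)(A) [ND], (N3): geometry of the flatter sheet (helper296)

Adapted chart of `V` at the line `T0`: frame `afr V b0 w1 w2 μ`, coordinates `cxm .. y u v`
(`u`, `v` = label coordinates in units `w1`, `w2`), `λ = min (V.w 0) Y`.

* `vbox`  : `|V.q| ≤ 10^4 W^4 m² λ` on the box `|y|, |u|, |v| ≤ m`;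
* `vline` : the lines of `V` are chart points, `|u|, |v| ≤ W`, `|y| ≤ 24000 W`.
-/

set_option autoImplicit false
set_option linter.unusedVariables false

namespace Crest.Agent.R136.Wdg296

open Crest.Agent.R136.Sh605 Crest.Agent.R136.Tl102
open Crest.Agent.R136.K4 (Plk4)
open Crest.Agent.R136.Tlt51 (Shp InP)
open Crest.Agent.R136.KapP335 (kapP expP expP_spec)
open Crest.Agent.R136.Hcp208 (Dims)

/-- adapted frame of `V` -/
noncomputable def afr (V : Plk4) (b0 : V3) (w1 w2 μ : ℝ) : Fin 3 → V3 :=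
  ![μ • V.e 0, (w1 / V.w 1) • cmb (fr V.e V.w) ![-b0 1 / b0 0, 1, 0],
    (w2 / V.w 2) • cmb (fr V.e V.w) ![-b0 2 / b0 0, 0, 1]]

/-- label coordinate of `T0` -/
noncomputable def pk (V : Plk4) (T0 : Ln4) (z0 ρ w : ℝ) (k : Fin 3) (ζ : ℝ) : ℝ :=
  dt (V.e k) (T0.pos (z0 + ρ * ζ) - V.c.pos (z0 + ρ * ζ)) / w

/-- chart point -/
noncomputable def cxm (V : Plk4) (b0 : V3) (w1 w2 μ : ℝ) (T0 : Ln4) (z0 ρ ζ y u v : ℝ) : V3 :=
  T0.pos (z0 + ρ * ζ) + cmb (afr V b0 w1 w2 μ)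
    ![y, u - pk V T0 z0 ρ w1 1 ζ, v - pk V T0 z0 ρ w2 2 ζ]

theorem afr_eq (V : Plk4) (b0 : V3) (w1 w2 : ℝ) {μ : ℝ} (hw : V.w 0 ≠ 0) (y u v : ℝ) :
    cmb (afr V b0 w1 w2 μ) ![y, u, v] = cmb (fr V.e V.w)
      (unsh b0 (μ / V.w 0 * y) (w1 / V.w 1 * u) (w2 / V.w 2 * v)) := by
  ext i
  simp only [cmb, afr, fr, unsh, Pi.smul_apply, smul_eq_mul, Matrix.cons_val]
  field_simp
  ring

/-- size of a polynomial of the class -/
theorem Fq_le {b0 b1 : V3} {G : QF} {B R ζ : ℝ} (hB : 0 ≤ B) (hR : 1 ≤ R)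
    (h0 : ∀ k, |b0 k| ≤ B) (h1 : ∀ k, |b1 k| ≤ B) (hG : G.Le B) (hζ : 0 ≤ ζ) (hζ' : ζ ≤ 1)
    {x : V3} (hx : ∀ i, |x i| ≤ R) : |Fq b0 b1 G ζ x| ≤ 12 * B * R ^ 2 := by
  obtain ⟨g1, g2, g3, g4, g5, g6⟩ := hG
  have hR0 : 0 ≤ R := by linarith
  have hb : ∀ k, |b0 k + ζ * b1 k| ≤ 2 * B := fun k => by
    refine (abs_add_le _ _).trans ?_
    rw [abs_mul, abs_of_nonneg hζ]
    have := mul_le_mul hζ' (h1 k) (abs_nonneg _) zero_le_one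
    linarith [h0 k]
  have m1 : ∀ k, |(b0 k + ζ * b1 k) * x k| ≤ 2 * B * R := fun k => mul_abs_le (hb k) (hx k)
  have hRR : B * R ≤ B * R ^ 2 := mul_le_mul_of_nonneg_left (by nlinarith) hB
  have t : ∀ g (i j : Fin 3), |g| ≤ B → |g * (x i * x j)| ≤ B * R ^ 2 := fun g i j hg => by
    have := mul_abs_le hg (mul_abs_le (hx i) (hx j))
    calc |g * (x i * x j)| ≤ B * (R * R) := this
      _ = B * R ^ 2 := by ring
  have e : Fq b0 b1 G ζ x = (b0 0 + ζ * b1 0) * x 0 + (b0 1 + ζ * b1 1) * x 1 +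
      (b0 2 + ζ * b1 2) * x 2 + G.yy * (x 0 * x 0) + G.yu * (x 0 * x 1) + G.yv * (x 0 * x 2) +
      G.uu * (x 1 * x 1) + G.uv * (x 1 * x 2) + G.vv * (x 2 * x 2) := by
    simp only [Fq, dt, bz, QF.ev]; ring
  rw [e]
  have a1 := t _ 0 0 g1
  have a2 := t _ 0 1 g2
  have a3 := t _ 0 2 g3
  have a4 := t _ 1 1 g4
  have a5 := t _ 1 2 g5
  have a6 := t _ 2 2 g6
  have c0 := m1 0
  have c1 := m1 1
  have c2 := m1 2
  rw [abs_le] at *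
  constructor <;> linarith [a1.1, a1.2, a2.1, a2.2, a3.1, a3.2, a4.1, a4.2, a5.1, a5.2, a6.1, a6.2,
    c0.1, c0.2, c1.1, c1.2, c2.1, c2.2]

section
variable {V : Plk4} {T0 : Ln4} {z0 ρ r W Y a w1 w2 m ζ : ℝ}

theorem dims_pos (hV : Shp V z0 ρ r) (hr : 0 < r) (hW : 1 ≤ W) (hD : Dims W a w1 w2 V) :
    0 < V.a ∧ (∀ k, 0 < V.w k) ∧ 0 < a ∧ 0 < w1 ∧ 0 < w2 := by
  have hW0 : 0 < W := by linarith
  have ha : 0 < V.a := hr.trans_le hV.r0_le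
  have hw0 : 0 < V.w 0 := ha.trans_le hV.a_le0
  have SP := StP.of_shN hV hw0
  obtain ⟨⟨d1, d2⟩, ⟨d3, d4⟩, ⟨d5, d6⟩⟩ := hD
  refine ⟨ha, SP.pos, ?_, ?_, ?_⟩
  · exact pos_of_mul_pos_right (ha.trans_le d2) hW0.le
  · exact pos_of_mul_pos_right ((SP.pos 1).trans_le d4) hW0.le
  · exact pos_of_mul_pos_right ((SP.pos 2).trans_le d6) hW0.le

/-- **(N3) the function of `V` in the adapted chart** -/
theorem vbox (hρ : 0 < ρ) (hr : 0 < r) (hV : Shp V z0 ρ r) (hT : InP T0 V z0 ρ) (hW : 1 ≤ W)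
    (hD : Dims W a w1 w2 V) (haY : a ≤ Y) (hk : kapP V z0 ρ T0 ≤ Y) (hm : 1 ≤ m) (hζ : 0 ≤ ζ)
    (hζ' : ζ ≤ 1) {y u v : ℝ} (hy : |y| ≤ m) (hu : |u| ≤ m) (hv : |v| ≤ m) :
    |V.q (z0 + ρ * ζ) (cxm V (expP V z0 ρ T0).1 w1 w2 (min (V.w 0) Y) T0 z0 ρ ζ y u v)| ≤
      10 ^ 4 * W ^ 4 * m ^ 2 * min (V.w 0) Y := by
  obtain ⟨pa, pw, pa', pw1, pw2⟩ := dims_pos hV hr hW hD
  have hW0 : 0 < W := by linarith
  have hm0 : 0 < m := by linarith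
  have hw0 := pw 0
  have hwne : ∀ k, V.w k ≠ 0 := fun k => (pw k).ne'
  have SP := StP.of_shN hV hw0
  obtain ⟨⟨d1, d2⟩, ⟨d3, d4⟩, ⟨d5, d6⟩⟩ := hD
  have hE := expP_spec hV.isQ hw0.ne' z0 ρ T0
  have hN := IsExp.nrmC SP hρ.le (fun z h1 h2 => (hT z h1 h2).1) hE
  have hkP : kapP V z0 ρ T0 = V.w 0 * kap (expP V z0 ρ T0).1 (expP V z0 ρ T0).2.1
    (expP V z0 ρ T0).2.2 := rfl
  set b0 := (expP V z0 ρ T0).1
  set b1 := (expP V z0 ρ T0).2.1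
  set G := (expP V z0 ρ T0).2.2
  have hb : b0 0 ≠ 0 := by have := hN.b1_le.1; linarith
  obtain ⟨l, hl⟩ : ∃ l, l = min (V.w 0) Y := ⟨_, rfl⟩
  rw [← hl]
  have hY : 0 < Y := pa'.trans_le haY
  have l0 : 0 < l := by rw [hl]; exact lt_min hw0 hY
  have l1 : l ≤ V.w 0 := by rw [hl]; exact min_le_left _ _
  have l2 : l ≤ Y := by rw [hl]; exact min_le_right _ _
  -- `kap ≤ 13 l / w0`
  obtain ⟨κ, hκ⟩ : ∃ κ, κ = 13 * (l / V.w 0) := ⟨_, rfl⟩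
  have κ0 : 0 < κ := by rw [hκ]; positivity
  have κ1 : κ ≤ 13 := by
    rw [hκ]
    have : l / V.w 0 ≤ 1 := by rw [div_le_one hw0]; exact l1
    linarith
  have κk : kap b0 b1 G ≤ κ := by
    rw [hκ, ← mul_div_assoc, le_div_iff₀ hw0]
    have h1 : kap b0 b1 G * V.w 0 ≤ Y := by rw [mul_comm, ← hkP]; exact hk
    have h2 : kap b0 b1 G * V.w 0 ≤ 13 * V.w 0 := mul_le_mul_of_nonneg_right (kap_le hN) hw0.le
    rw [hl]
    rcases le_total (V.w 0) Y with h | h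
    · rw [min_eq_left h]; exact h2
    · rw [min_eq_right h]; linarith
  obtain ⟨k1, k2, k3⟩ := hN.sc_le' κ0 κk κ1
  have zz : z0 ≤ z0 + ρ * ζ ∧ z0 + ρ * ζ ≤ z0 + ρ := by constructor <;> nlinarith
  -- the point
  have hp : ∀ (w : ℝ) (k : Fin 3), 0 < w → V.w k ≤ W * w → |pk V T0 z0 ρ w k ζ| ≤ W := by
    intro w k hw h
    unfold pk
    rw [abs_div, abs_of_pos hw, div_le_iff₀ hw]
    exact ((hT _ zz.1 zz.2).1 k).trans h
  have hp1 := hp w1 1 pw1 d4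
  have hp2 := hp w2 2 pw2 d6
  have r1 : w1 / V.w 1 ≤ W := by rw [div_le_iff₀ (pw 1)]; exact d3
  have r2 : w2 / V.w 2 ≤ W := by rw [div_le_iff₀ (pw 2)]; exact d5
  have r1' : 0 ≤ w1 / V.w 1 := div_nonneg pw1.le (pw 1).le
  have r2' : 0 ≤ w2 / V.w 2 := div_nonneg pw2.le (pw 2).le
  have hR : W * (m + W) ≤ 2 * W ^ 2 * m := by nlinarith [mul_nonneg hW0.le hm0.le]
  have q1 : |w1 / V.w 1 * (u - pk V T0 z0 ρ w1 1 ζ)| ≤ 2 * W ^ 2 * m := by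
    rw [abs_mul, abs_of_nonneg r1']
    refine le_trans (mul_le_mul r1 ((abs_sub _ _).trans (add_le_add hu hp1)) (abs_nonneg _)
      hW0.le) hR
  have q2 : |w2 / V.w 2 * (v - pk V T0 z0 ρ w2 2 ζ)| ≤ 2 * W ^ 2 * m := by
    rw [abs_mul, abs_of_nonneg r2']
    refine le_trans (mul_le_mul r2 ((abs_sub _ _).trans (add_le_add hv hp2)) (abs_nonneg _)
      hW0.le) hR
  have W2 : 1 ≤ W ^ 2 := one_le_pow₀ hW
  have hmR : m ≤ 2 * W ^ 2 * m := by nlinarith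
  have q0 : |y / 13| ≤ 2 * W ^ 2 * m := by
    rw [abs_div, abs_of_pos (by norm_num : (0 : ℝ) < 13), div_le_iff₀ (by norm_num)]
    linarith
  have hx : ∀ i, |(![y / 13, w1 / V.w 1 * (u - pk V T0 z0 ρ w1 1 ζ),
      w2 / V.w 2 * (v - pk V T0 z0 ρ w2 2 ζ)] : V3) i| ≤ 2 * W ^ 2 * m := by
    intro i
    fin_cases i
    · exact q0
    · exact q1
    · exact q2
  have hR1 : 1 ≤ 2 * W ^ 2 * m := hm.trans hmR
  have hF := Fq_le (by norm_num : (0 : ℝ) ≤ 13) hR1 k1 k2 k3 hζ hζ' hx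
  have hval : V.q (z0 + ρ * ζ) (cxm V b0 w1 w2 l T0 z0 ρ ζ y u v) =
      V.q (z0 + ρ * ζ) (T0.pos (z0 + ρ * ζ)) + V.w 0 * (κ * Fq (shB0 b0) (scB1 κ b0 b1)
        (scG κ b0 G) ζ ![y / 13, w1 / V.w 1 * (u - pk V T0 z0 ρ w1 1 ζ),
          w2 / V.w 2 * (v - pk V T0 z0 ρ w2 2 ζ)]) := by
    unfold cxm
    rw [afr_eq V b0 w1 w2 hw0.ne', hE, ← Fq_scaled hb κ0.ne']
    have : l / V.w 0 * y = κ * (y / 13) := by rw [hκ]; ring
    rw [this]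
  rw [hval]
  have hVa : V.a ≤ W * l := by
    have h1 : V.a ≤ W * V.w 0 := hV.a_le0.trans (le_mul_of_one_le_left hw0.le hW)
    have h2 : V.a ≤ W * Y := d2.trans (mul_le_mul_of_nonneg_left haY hW0.le)
    rw [hl]
    rcases le_total (V.w 0) Y with h | h
    · rw [min_eq_left h]; exact h1
    · rw [min_eq_right h]; exact h2
  refine (abs_add_le _ _).trans ?_
  have h1 := (hT _ zz.1 zz.2).2
  have h2 : |V.w 0 * (κ * Fq (shB0 b0) (scB1 κ b0 b1)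
        (scG κ b0 G) ζ ![y / 13, w1 / V.w 1 * (u - pk V T0 z0 ρ w1 1 ζ),
          w2 / V.w 2 * (v - pk V T0 z0 ρ w2 2 ζ)])| ≤
      V.w 0 * (κ * (12 * 13 * (2 * W ^ 2 * m) ^ 2)) := by
    rw [abs_mul, abs_mul, abs_of_pos hw0, abs_of_pos κ0]
    exact mul_le_mul_of_nonneg_left (mul_le_mul_of_nonneg_left hF κ0.le) hw0.le
  have h3 : V.w 0 * (κ * (12 * 13 * (2 * W ^ 2 * m) ^ 2)) = 8112 * W ^ 4 * m ^ 2 * l := by
    rw [hκ]; field_simp; ring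
  rw [h3] at h2
  have h4 : W * l ≤ 1000 * W ^ 4 * m ^ 2 * l := by
    have e1 : W ≤ W ^ 4 := le_self_pow₀ hW (by norm_num)
    have e2 : 1 ≤ m ^ 2 := one_le_pow₀ hm
    have e3 : W ≤ W ^ 4 * m ^ 2 := e1.trans (le_mul_of_one_le_right (by positivity) e2)
    have e4 := mul_le_mul_of_nonneg_right e3 l0.le
    have e5 : 0 ≤ W ^ 4 * m ^ 2 * l := by positivity
    linarith
  have h5 : 0 ≤ W ^ 4 * m ^ 2 * l := by positivity
  linarith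

/-- **(N3) the lines of `V` in the adapted chart** -/
theorem vline (hρ : 0 < ρ) (hr : 0 < r) (hV : Shp V z0 ρ r) (hT : InP T0 V z0 ρ) (hW : 1 ≤ W)
    (hD : Dims W a w1 w2 V) (haY : a ≤ Y) (hk : kapP V z0 ρ T0 ≤ Y) {T : Ln4}
    (hT' : InP T V z0 ρ) (hζ : 0 ≤ ζ) (hζ' : ζ ≤ 1) :
    ∃ y : ℝ, |y| ≤ 24000 * W ∧ |pk V T z0 ρ w1 1 ζ| ≤ W ∧ |pk V T z0 ρ w2 2 ζ| ≤ W ∧
      T.pos (z0 + ρ * ζ) = cxm V (expP V z0 ρ T0).1 w1 w2 (min (V.w 0) Y) T0 z0 ρ ζ y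
        (pk V T z0 ρ w1 1 ζ) (pk V T z0 ρ w2 2 ζ) := by
  obtain ⟨pa, pw, pa', pw1, pw2⟩ := dims_pos hV hr hW hD
  have hW0 : 0 < W := by linarith
  have hw0 := pw 0
  have hwne : ∀ k, V.w k ≠ 0 := fun k => (pw k).ne'
  have SP := StP.of_shN hV hw0
  obtain ⟨⟨d1, d2⟩, ⟨d3, d4⟩, ⟨d5, d6⟩⟩ := hD
  have hE := expP_spec hV.isQ hw0.ne' z0 ρ T0
  have hN := IsExp.nrmC SP hρ.le (fun z h1 h2 => (hT z h1 h2).1) hE
  have hkP : kapP V z0 ρ T0 = V.w 0 * kap (expP V z0 ρ T0).1 (expP V z0 ρ T0).2.1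
    (expP V z0 ρ T0).2.2 := rfl
  have hlt := Kpc104.line_tan hρ hr hV hT hT' hζ hζ'
    (x := fun i => dt (V.e i) (T.pos (z0 + ρ * ζ) - T0.pos (z0 + ρ * ζ)) / V.w i) (fun i => rfl)
  set b0 := (expP V z0 ρ T0).1
  have hb1 := hN.b1_le.1
  have hb : b0 0 ≠ 0 := by linarith
  obtain ⟨x, hx⟩ : ∃ x : V3, x = fun i => dt (V.e i) (T.pos (z0 + ρ * ζ) -
    T0.pos (z0 + ρ * ζ)) / V.w i := ⟨_, rfl⟩
  have hlt' : V.w 0 * |b0 0 * x 0 + b0 1 * x 1 + b0 2 * x 2| ≤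
      80 * V.a + 900 * kapP V z0 ρ T0 := by rw [hx]; exact hlt
  obtain ⟨l, hl⟩ : ∃ l, l = min (V.w 0) Y := ⟨_, rfl⟩
  rw [← hl]
  have hY : 0 < Y := pa'.trans_le haY
  have l0 : 0 < l := by rw [hl]; exact lt_min hw0 hY
  have hVa : V.a ≤ W * l := by
    have h1 : V.a ≤ W * V.w 0 := hV.a_le0.trans (le_mul_of_one_le_left hw0.le hW)
    have h2 : V.a ≤ W * Y := d2.trans (mul_le_mul_of_nonneg_left haY hW0.le)
    rw [hl]
    rcases le_total (V.w 0) Y with h | h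
    · rw [min_eq_left h]; exact h1
    · rw [min_eq_right h]; exact h2
  have hkl : kapP V z0 ρ T0 ≤ 13 * l := by
    have h2 : kapP V z0 ρ T0 ≤ 13 * V.w 0 := by
      rw [hkP, mul_comm]; exact mul_le_mul_of_nonneg_right (kap_le hN) hw0.le
    rw [hl]
    rcases le_total (V.w 0) Y with h | h
    · rw [min_eq_left h]; exact h2
    · rw [min_eq_right h]; linarith
  have zz : z0 ≤ z0 + ρ * ζ ∧ z0 + ρ * ζ ≤ z0 + ρ := by constructor <;> nlinarith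
  have hp : ∀ (w : ℝ) (k : Fin 3), 0 < w → V.w k ≤ W * w → |pk V T z0 ρ w k ζ| ≤ W := by
    intro w k hw h
    unfold pk
    rw [abs_div, abs_of_pos hw, div_le_iff₀ hw]
    exact ((hT' _ zz.1 zz.2).1 k).trans h
  obtain ⟨s, hs⟩ : ∃ s, s = x 0 + b0 1 / b0 0 * x 1 + b0 2 / b0 0 * x 2 := ⟨_, rfl⟩
  have hsb : b0 0 * x 0 + b0 1 * x 1 + b0 2 * x 2 = b0 0 * s := by rw [hs]; field_simp
  rw [hsb, abs_mul, abs_of_pos (by linarith : 0 < b0 0)] at hlt'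
  have hs1 : V.w 0 * |s| ≤ 24000 * W * l := by
    have h1 : V.w 0 * (1 / 2 * |s|) ≤ V.w 0 * (b0 0 * |s|) :=
      mul_le_mul_of_nonneg_left (mul_le_mul_of_nonneg_right hb1 (abs_nonneg _)) hw0.le
    have h2 : l ≤ W * l := le_mul_of_one_le_left l0.le hW
    have h3 : 0 < W * l := by positivity
    linarith
  refine ⟨V.w 0 / l * s, ?_, hp w1 1 pw1 d4, hp w2 2 pw2 d6, ?_⟩
  · rw [abs_mul, abs_of_pos (by positivity : 0 < V.w 0 / l), div_mul_eq_mul_div, div_le_iff₀ l0]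
    exact hs1
  · have hback := cmb_back hV.ortho hwne (T.pos (z0 + ρ * ζ) - T0.pos (z0 + ρ * ζ))
    rw [← hx] at hback
    unfold cxm
    rw [afr_eq V b0 w1 w2 hw0.ne']
    have e0 : l / V.w 0 * (V.w 0 / l * s) = s := by field_simp
    have e : ∀ (w : ℝ) (k : Fin 3), 0 < w → w / V.w k * (pk V T z0 ρ w k ζ -
        pk V T0 z0 ρ w k ζ) = x k := by
      intro w k hw
      have h1 : dt (V.e k) (T.pos (z0 + ρ * ζ) - T0.pos (z0 + ρ * ζ)) =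
          dt (V.e k) (T.pos (z0 + ρ * ζ) - V.c.pos (z0 + ρ * ζ)) -
          dt (V.e k) (T0.pos (z0 + ρ * ζ) - V.c.pos (z0 + ρ * ζ)) := by
        simp only [dt, Pi.sub_apply]; ring
      have hk0 := hwne k
      rw [hx]
      simp only
      rw [h1]
      unfold pk
      field_simp
    rw [e0, e w1 1 pw1, e w2 2 pw2]
    have e3 : unsh b0 s (x 1) (x 2) = x := by
      funext k
      fin_cases k
      · change s - b0 1 / b0 0 * x 1 - b0 2 / b0 0 * x 2 = x 0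
        rw [hs]; ring
      · rfl
      · rfl
    rw [e3, hback]
    abel

end

end Crest.Agent.R136.Wdg296
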