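import Crest.Agent.R136.LadG1_697
import Crest.Agent.R136.Own5_831

/-!
# R136, thin branch, own dichotomy in the W-chart, part 1 (helper831)

`CapCl V` : every slot with a wall whose tails are `z` or in `V` is in `V`; `Unc V i` : no such wall.
For such `V` the own box `ownW θ w0 R V v` is legal.
`tw_of_vis` : if every uncapped slot of `V` is visible at a.e. level, then the own count drops at every
box which leaves the own path in some slot of `V`.
-/

set_option autoImplicit false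
set_option linter.unusedVariables false
set_option linter.unusedSectionVars false

open Finset Filter Topology MeasureTheory

namespace Crest.Agent.R136.OwW831

open Crest.Agent.R136.Net191
open Crest.Agent.R136.NetW191
open Crest.Agent.R136.PrW464
open Crest.Agent.R136.NatW697
open Crest.Agent.R136.LadW697
open Crest.Agent.R136.ThS830
open Crest.Agent.R136.LadG697
open Crest.Agent.R136.Zpr779
open Crest.Agent.R136.Own831
open Crest.Agent.R138.Ex926

/-! ### walls as lists -/

theorem legal_list {p : Fin 18 → ℝ} : Legal monW p ↔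
    (∀ k, 0 ≤ p k) ∧ ∀ k, ∀ l ∈ mlW k, p k ≤ (l.map p).sum := by
  constructor
  · intro h
    refine ⟨h.nonneg, fun k l hl => ?_⟩
    obtain ⟨w, hw, -, hr⟩ := list_wall hl
    have h1 := h.wall w.1 w.2.1 w.2.2
    have h2 : QW.rhs w p = ∑ s, (w.2.1 s : ℝ) * p s := rfl
    rw [← h2, hr] at h1
    have h3 : w.1 = k := hw
    rwa [h3] at h1
  · rintro ⟨h1, h2⟩
    refine ⟨h1, fun k e he => ?_⟩
    obtain ⟨l, hl, -, hr⟩ := wall_list ⟨k, e, he⟩
    have h3 : QW.rhs ⟨k, e, he⟩ p = ∑ s, (e s : ℝ) * p s := rfl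
    rw [← h3, hr]
    exact h2 k l hl

theorem sum_mono {l : List (Fin 18)} {p q : Fin 18 → ℝ} (h : ∀ t ∈ l, p t ≤ q t) :
    (l.map p).sum ≤ (l.map q).sum := List.sum_le_sum h

theorem sum_ge {l : List (Fin 18)} {p : Fin 18 → ℝ} (h : ∀ t ∈ l, 0 ≤ p t) {t : Fin 18}
    (ht : t ∈ l) : p t ≤ (l.map p).sum := by
  refine List.single_le_sum (fun x hx => ?_) _ (List.mem_map_of_mem ht)
  obtain ⟨s, hs, rfl⟩ := List.mem_map.1 hx
  exact h s hs

theorem sum_path (θ : Fin 3 → ℝ) (w0 v : ℝ) {k : Fin 18} {l : List (Fin 18)} (hl : l ∈ mlW k) :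
    (l.map (pathW θ w0 v)).sum = pathW θ w0 v k := grW_list _ _ _ k l hl

theorem ml_zero {l : List (Fin 18)} (hl : l ∈ mlW 0) : False := by
  revert l
  decide

/-! ### closed sets of slots -/

/-- not capped -/
def Unc (V : Set (Fin 18)) (i : Fin 18) : Prop := ∀ l ∈ mlW i, ∃ t ∈ l, t ≠ 0 ∧ t ∉ V

section own

variable {θ : Fin 3 → ℝ} {w0 R T : ℝ} {V : Set (Fin 18)}

theorem own_zero (v : ℝ) : ownW θ w0 R (fun k => k ∈ V) v 0 = w0 + v := by simp [ownW]

theorem own_in {v : ℝ} {k : Fin 18} (h0 : k ≠ 0) (hk : k ∈ V) :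
    ownW θ w0 R (fun k => k ∈ V) v k = pathW θ w0 v k := by simp [ownW, h0, hk]

theorem own_out {v : ℝ} {k : Fin 18} (h0 : k ≠ 0) (hk : k ∉ V) :
    ownW θ w0 R (fun k => k ∈ V) v k = R := by simp [ownW, h0, hk]

theorem own_le_R (h : BigW θ w0 R T) {v : ℝ} (v0 : 0 ≤ v) (v1 : v ≤ 1) (k : Fin 18) :
    ownW θ w0 R (fun k => k ∈ V) v k ≤ R := by
  by_cases h0 : k = 0
  · subst h0; rw [own_zero]; linarith [h.wR]
  by_cases hk : k ∈ V
  · rw [own_in h0 hk]; linarith [path_le h v0 v1 k]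
  · rw [own_out h0 hk]

theorem own_ge (h : BigW θ w0 R T) {v : ℝ} (v0 : 0 ≤ v) (v1 : v ≤ 1) (k : Fin 18) :
    1 ≤ ownW θ w0 R (fun k => k ∈ V) v k := by
  by_cases h0 : k = 0
  · subst h0; rw [own_zero]; linarith [h.w0pos]
  by_cases hk : k ∈ V
  · rw [own_in h0 hk]; exact h.path_ge v0 v1 k
  · rw [own_out h0 hk]; linarith [h.wR, h.w0pos]

/-- own box, raised by `y` in an uncapped slot -/
theorem own_leg (h : BigW θ w0 R T) (hcl : CapCl V) {v : ℝ} (v0 : 0 ≤ v) (v1 : v ≤ 1)
    {i : Fin 18} (hi0 : i ≠ 0) (hiV : i ∈ V) {y : ℝ} (y0 : 0 ≤ y) (y1 : y ≤ 1)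
    (hy : y = 0 ∨ Unc V i) :
    ownW θ w0 R (fun k => k ∈ V) v + y • (Pi.single i 1 : Fin 18 → ℝ) ∈ Leg monW R := by
  set Q := ownW θ w0 R (fun k => k ∈ V) v with hQ
  have e1 : ∀ k, (Q + y • (Pi.single i 1 : Fin 18 → ℝ)) k = if k = i then Q k + y else Q k := by
    intro k
    by_cases hk : k = i
    · subst hk; simp
    · simp [hk]
  have ge1 : ∀ k, Q k ≤ (Q + y • (Pi.single i 1 : Fin 18 → ℝ)) k := by
    intro k
    rw [e1]
    split_ifs <;> linarith
  have Q1 : ∀ k, 1 ≤ Q k := fun k => own_ge h v0 v1 k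
  have leR : ∀ k, (Q + y • (Pi.single i 1 : Fin 18 → ℝ)) k ≤ R := by
    intro k
    rw [e1]
    split_ifs with hk
    · subst hk
      rw [hQ, own_in hi0 hiV]
      linarith [path_le h v0 v1 k]
    · exact own_le_R h v0 v1 k
  have nn : ∀ k, 0 ≤ (Q + y • (Pi.single i 1 : Fin 18 → ℝ)) k := fun k => by
    linarith [ge1 k, Q1 k]
  refine ⟨legal_list.2 ⟨nn, fun k l hl => ?_⟩, leR⟩
  by_cases hc : ∃ t ∈ l, t ≠ 0 ∧ t ∉ V
  · obtain ⟨t, ht, ht0, htV⟩ := hc
    have h1 := sum_ge (fun s _ => nn s) ht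
    have h2 : Q t = R := own_out ht0 htV
    linarith [ge1 t, leR k]
  · push Not at hc
    have hc' : ∀ t ∈ l, t = 0 ∨ t ∈ V := by
      intro t ht
      by_cases h0 : t = 0
      · exact Or.inl h0
      · exact Or.inr (hc t ht h0)
    have hk : k ∈ V := hcl k ⟨l, hl, hc'⟩
    have hk0 : k ≠ 0 := fun h0 => by subst h0; exact ml_zero hl
    have h1 : Q k ≤ (l.map Q).sum := by
      have e2 : Q k = (l.map (pathW θ w0 v)).sum := by
        rw [sum_path θ w0 v hl]; exact own_in hk0 hk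
      rw [e2]
      refine sum_mono fun t ht => ?_
      rcases hc' t ht with h0 | h0
      · subst h0; rw [hQ, own_zero, path_zero]
      · by_cases ht0 : t = 0
        · subst ht0; rw [hQ, own_zero, path_zero]
        · rw [hQ, own_in ht0 h0]
    have h2 : (l.map Q).sum ≤ (l.map (Q + y • (Pi.single i 1 : Fin 18 → ℝ))).sum :=
      sum_mono fun t _ => ge1 t
    rw [e1]
    split_ifs with hki
    · subst hki
      rcases hy with hy | hy
      · rw [hy] at h2 ⊢; linarith
      · obtain ⟨t, ht, ht0, htV⟩ := hy l hl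
        exact absurd (hc' t ht) (by push Not; exact ⟨ht0, htV⟩)
    · linarith

/-- the own path is linear -/
noncomputable def bO (θ : Fin 3 → ℝ) (w0 R : ℝ) (V : Set (Fin 18)) : Fin 18 → ℝ :=
  ownW θ w0 R (fun k => k ∈ V) 0

open Classical in
/-- direction of the own path -/
noncomputable def eO (θ : Fin 3 → ℝ) (V : Set (Fin 18)) : Fin 18 → ℝ :=
  fun k => if k = 0 then 1 else if k ∈ V then btW θ k else 0

theorem own_lin (θ : Fin 3 → ℝ) (w0 R : ℝ) (V : Set (Fin 18)) (v : ℝ) :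
    bO θ w0 R V + v • eO θ V = ownW θ w0 R (fun k => k ∈ V) v := by
  funext k
  simp only [bO, eO, Pi.add_apply, Pi.smul_apply, smul_eq_mul]
  by_cases h0 : k = 0
  · subst h0; rw [own_zero, own_zero]; simp
  by_cases hk : k ∈ V
  · rw [own_in h0 hk, own_in h0 hk, if_neg h0, if_pos hk, pathW_eq, pathW_eq]; ring
  · rw [own_out h0 hk, own_out h0 hk, if_neg h0, if_neg hk]; ring

end own

/-! ### the own twist from visibility -/

section tw

variable {θ : Fin 3 → ℝ} {g : ℝ} {q : Fin 3 → ℝ} {V T : Set (Fin 18)} {w0 R T0 : ℝ}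
  {B B' : Base} {I0 I : ℕ → Finset (ℕ × ℝ)} {κ : ℕ → ℝ} {u : ℕ → Fin 18 → ℝ}
  {F : ℕ → ℕ × ℝ → FW} {X : ℕ → Fin 18 → ℝ} {w : ℕ → ℝ} {Tn To : ℕ → ℝ}
  {PD : Set (Fin 18 → ℝ)} {ν own : (Fin 18 → ℝ) → ℝ} {c₀ : ℝ}

variable (H : ZW θ g q V T w0 R T0 B B' I0 I κ u F X w Tn To PD ν own c₀)

include H

theorem ZW.V0 {k : Fin 18} (hk : k ∈ V) : k ≠ 0 := by
  have := (H.vis k hk).1.1
  rintro rfl
  exact absurd this (by decide)

theorem ZW.eO_nonneg (k : Fin 18) : 0 ≤ eO θ V k := by
  unfold eO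
  split_ifs with h0 hk
  · exact zero_le_one
  · exact (H.vis k hk).2.le
  · exact le_rfl

theorem ZW.own_rotV {p : Fin 18 → ℝ} (hp : p ∈ Leg monW R) {v : ℝ} (v0 : 0 ≤ v) (v1 : v ≤ 1)
    (hpv : p 0 = w0 + v) (hV : ∀ k ∈ V, p k ≤ pathW θ w0 v k) : own p = 1 - v :=
  H.fact.own_rot p hp v v0 v1 hpv hV

/-- at a visible level the own count drops -/
theorem ZW.drop_at (hcl : CapCl V) {v : ℝ} (v0 : 0 < v) (v1 : v < 1)
    (hvis : ∀ i ∈ V, Unc V i → Vis own (bO θ w0 R V) (eO θ V) i v) {p : Fin 18 → ℝ}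
    (hp : p ∈ Leg monW R) (hpv : p 0 = w0 + v) (hex : ∃ k ∈ V, pathW θ w0 v k < p k) :
    own p < 1 - v := by
  classical
  obtain ⟨hl, hR⟩ := hp
  obtain ⟨nn, wl⟩ := legal_list.1 hl
  -- the first slot which leaves the path
  obtain ⟨i, ⟨hiV, hi⟩, hmin⟩ : ∃ i : Fin 18, (i ∈ V ∧ pathW θ w0 v i < p i) ∧
      ∀ t, t < i → t ∈ V → p t ≤ pathW θ w0 v t := by
    obtain ⟨k, hk, hk2⟩ := hex
    set S : Finset (Fin 18) := Finset.univ.filter fun i => i ∈ V ∧ pathW θ w0 v i < p i with hS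
    have hne : S.Nonempty := ⟨k, by simp [hS, hk, hk2]⟩
    refine ⟨S.min' hne, by simpa [hS] using S.min'_mem hne, fun t ht htV => ?_⟩
    by_contra hcon
    push Not at hcon
    have := S.min'_le t (by simp [hS, htV, hcon])
    exact absurd ht (not_lt.2 this)
  have hi0 : i ≠ 0 := ZW.V0 H hiV
  have hun : Unc V i := by
    intro l hl'
    by_contra hcon
    push Not at hcon
    have h1 := wl i l hl'
    have h2 : (l.map p).sum ≤ (l.map (pathW θ w0 v)).sum := sum_mono fun t ht => by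
      by_cases h0 : t = 0
      · subst h0; rw [hpv, path_zero]
      · exact hmin t (mlW_low i l hl' t ht) (hcon t ht h0)
    rw [sum_path θ w0 v hl'] at h2
    linarith
  obtain ⟨c, hc, y₀, hy₀, hvi⟩ := hvis i hiV hun
  set y : ℝ := min (min (p i - pathW θ w0 v i) y₀) 1 with hy
  have y0 : 0 < y := lt_min (lt_min (by linarith) hy₀) one_pos
  have y1 : y ≤ 1 := min_le_right _ _
  have y2 : y ≤ y₀ := (min_le_left _ _).trans (min_le_right _ _)
  have y3 : pathW θ w0 v i + y ≤ p i := by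
    have : y ≤ p i - pathW θ w0 v i := (min_le_left _ _).trans (min_le_left _ _)
    linarith
  have hvi2 := hvi y y0 y2
  -- the box below the slot `i`
  set a : ℝ → Fin 18 → ℝ := fun z k => if k < i then p k else if k = i then pathW θ w0 v i + z
    else 0 with ha
  have pi1 := H.big.path_ge v0.le v1.le i
  have aleg : ∀ z : ℝ, 0 ≤ z → pathW θ w0 v i + z ≤ p i → a z ∈ Leg monW R := by
    intro z z0 z1
    have nna : ∀ k, 0 ≤ a z k := by
      intro k
      simp only [ha]
      split_ifs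
      · exact nn k
      · linarith
      · exact le_rfl
    have lea : ∀ k, a z k ≤ p k := by
      intro k
      simp only [ha]
      split_ifs with h1 h2
      · exact le_rfl
      · rw [h2]; exact z1
      · exact nn k
    refine ⟨legal_list.2 ⟨nna, fun k l hl' => ?_⟩, fun k => (lea k).trans (hR k)⟩
    by_cases hk : k ≤ i
    · have e2 : (l.map (a z)).sum = (l.map p).sum := by
        congr 1
        refine List.map_congr_left fun t ht => ?_
        have : t < i := lt_of_lt_of_le (mlW_low k l hl' t ht) hk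
        simp only [ha, if_pos this]
      rw [e2]
      exact (lea k).trans (wl k l hl')
    · have e2 : a z k = 0 := by
        have h1 : ¬ k < i := fun h => hk h.le
        have h2 : k ≠ i := fun h => hk h.le
        simp only [ha, if_neg h1, if_neg h2]
      rw [e2]
      exact List.sum_nonneg fun x hx => by
        obtain ⟨s, -, rfl⟩ := List.mem_map.1 hx
        exact nna s
  have ma := aleg 0 le_rfl (by linarith)
  have may := aleg y y0.le y3
  have e0i : (0 : Fin 18) < i := Fin.pos_iff_ne_zero.2 hi0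
  have a0 : ∀ z, a z 0 = w0 + v := fun z => by simp only [ha, if_pos e0i, hpv]
  -- own count of the natural box
  have oa : own (a 0) = 1 - v := by
    refine ZW.own_rotV H ma v0.le v1.le (a0 0) fun k hk => ?_
    simp only [ha]
    split_ifs with h1 h2
    · exact hmin k h1 hk
    · rw [h2]; linarith
    · linarith [H.big.path_ge v0.le v1.le k]
  set Q := ownW θ w0 R (fun k => k ∈ V) v with hQ
  have hQl : Q ∈ Leg monW R := by
    have := own_leg H.big hcl v0.le v1.le hi0 hiV (y := 0) le_rfl zero_le_one (Or.inl rfl)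
    rwa [zero_smul, add_zero] at this
  have hQy := own_leg H.big hcl v0.le v1.le hi0 hiV y0.le y1 (Or.inr hun)
  have oQ : own Q = 1 - v := ZW.own_rotV H hQl v0.le v1.le (own_zero v) fun k hk => by
    rw [hQ, own_in (ZW.V0 H hk) hk]
  have Qi : Q i = pathW θ w0 v i := own_in hi0 hiV
  have aQ : ∀ k, k ≠ i → a 0 k ≤ Q k := by
    intro k hk
    simp only [ha]
    split_ifs with h1
    · by_cases h0 : k = 0
      · subst h0; rw [hpv, hQ, own_zero]
      by_cases hkV : k ∈ V
      · rw [hQ, own_in h0 hkV]; exact hmin k h1 hkV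
      · rw [hQ, own_out h0 hkV]; exact hR k
    · linarith [own_ge (V := V) H.big v0.le v1.le k]
  have e1 : Q ⊓ a y = a 0 := by
    funext k
    rw [Pi.inf_apply]
    by_cases hk : k = i
    · subst hk
      rw [Qi]
      simp only [ha, lt_irrefl, if_false, if_true, add_zero]
      exact min_eq_left (by linarith)
    · have : a y k = a 0 k := by simp only [ha, if_neg hk]
      rw [this]
      exact min_eq_right (aQ k hk)
  have e2 : Q ⊔ a y = Q + y • (Pi.single i 1 : Fin 18 → ℝ) := by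
    funext k
    rw [Pi.sup_apply]
    by_cases hk : k = i
    · subst hk
      simp only [Pi.add_apply, Pi.smul_apply, smul_eq_mul, Pi.single_eq_same, mul_one]
      rw [Qi]
      simp only [ha, lt_irrefl, if_false, if_true]
      exact max_eq_right (by linarith)
    · have : a y k = a 0 k := by simp only [ha, if_neg hk]
      simp only [Pi.add_apply, Pi.smul_apply, smul_eq_mul, Pi.single_eq_of_ne hk, mul_zero,
        add_zero]
      rw [this]
      exact max_eq_left (aQ k hk)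
  have h3 := H.ext.osub Q hQl (a y) may (by rw [e1]; exact ma)
  rw [e1, e2, oa, oQ] at h3
  have h4 : oloss own (bO θ w0 R V) (eO θ V) i v y =
      (1 - v) - own (Q + y • (Pi.single i 1 : Fin 18 → ℝ)) := by
    unfold oloss
    rw [own_lin, ← hQ, oQ]
  have h5 : own p ≤ own (a y) := H.ext.oanti _ may p ⟨hl, hR⟩ (by
    intro k
    simp only [ha]
    split_ifs with h1 h2
    · exact le_rfl
    · rw [h2]; exact y3
    · exact nn k)
  have := mul_pos hc y0
  linarith

/-- **the own twist at every level** -/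
theorem ZW.tw_of_vis (hcl : CapCl V)
    (hvis : ∀ i ∈ V, Unc V i → ∀ᵐ v : ℝ, v ∈ Set.Ioo (0:ℝ) 1 →
      Vis own (bO θ w0 R V) (eO θ V) i v) {p : Fin 18 → ℝ}
    (hp : p ∈ Leg monW R) {v : ℝ} (v0 : 0 ≤ v) (v1 : v < 1) (hpv : p 0 = w0 + v)
    (hex : ∃ k ∈ V, pathW θ w0 v k < p k) : own p < 1 - v := by
  classical
  obtain ⟨k, hkV, hk⟩ := hex
  have hall : ∀ᵐ v : ℝ, v ∈ Set.Ioo (0:ℝ) 1 → ∀ i ∈ V, Unc V i →
      Vis own (bO θ w0 R V) (eO θ V) i v := by
    have : ∀ᵐ v : ℝ, ∀ i : Fin 18, v ∈ Set.Ioo (0:ℝ) 1 → i ∈ V → Unc V i →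
        Vis own (bO θ w0 R V) (eO θ V) i v := by
      rw [ae_all_iff]
      intro i
      by_cases hi : i ∈ V ∧ Unc V i
      · filter_upwards [hvis i hi.1 hi.2] with v hv hvI _ _
        exact hv hvI
      · exact Eventually.of_forall fun v _ h1 h2 => absurd ⟨h1, h2⟩ hi
    filter_upwards [this] with v hv hvI i hi hu
    exact hv i hvI hi hu
  -- a visible level slightly above `v`
  have hb0 := (H.vis k hkV).2
  set d : ℝ := min ((1 - v) / 2) ((p k - pathW θ w0 v k) / (2 * btW θ k)) with hd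
  have d0 : 0 < d := lt_min (by linarith) (div_pos (by linarith) (by linarith))
  obtain ⟨v', hv', hvis'⟩ : ∃ v' ∈ Set.Ioo v (v + d), ∀ i ∈ V, Unc V i →
      Vis own (bO θ w0 R V) (eO θ V) i v' := by
    by_contra hcon
    push Not at hcon
    have h4 : ∀ᵐ x : ℝ, x ∉ Set.Ioo v (v + d) := by
      filter_upwards [hall] with x hx hxI
      obtain ⟨i, hi, hu, hn⟩ := hcon x hxI
      refine hn (hx ⟨by linarith [hxI.1], ?_⟩ i hi hu)
      have : d ≤ (1 - v) / 2 := min_le_left _ _
      linarith [hxI.2]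
    have h5 : volume (Set.Ioo v (v + d)) = 0 := measure_eq_zero_iff_ae_notMem.2 h4
    rw [Real.volume_Ioo, add_sub_cancel_left, ENNReal.ofReal_eq_zero] at h5
    linarith
  have d1 : d ≤ (1 - v) / 2 := min_le_left _ _
  have d2 : d ≤ (p k - pathW θ w0 v k) / (2 * btW θ k) := min_le_right _ _
  have v'0 : 0 < v' := by linarith [hv'.1]
  have v'1 : v' < 1 := by linarith [hv'.2]
  set p' : Fin 18 → ℝ := Function.update p 0 (w0 + v') with hp'
  have p'0 : p' 0 = w0 + v' := by rw [hp', Function.update_self]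
  have p'o : ∀ s, s ≠ 0 → p' s = p s := fun s hs => by rw [hp', Function.update_of_ne hs]
  have hle : p ≤ p' := by
    intro s
    by_cases hs : s = 0
    · subst hs; rw [p'0, hpv]; linarith [hv'.1]
    · rw [p'o s hs]
  obtain ⟨hl, hR⟩ := hp
  obtain ⟨nn, wl⟩ := legal_list.1 hl
  have hpl' : p' ∈ Leg monW R := by
    refine ⟨legal_list.2 ⟨fun s => (nn s).trans (hle s), fun s l hl' => ?_⟩, fun s => ?_⟩
    · have hs : s ≠ 0 := fun h => by subst h; exact ml_zero hl'
      rw [p'o s hs]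
      exact (wl s l hl').trans (sum_mono fun t _ => hle t)
    · by_cases hs : s = 0
      · subst hs; rw [p'0]; linarith [H.big.wR]
      · rw [p'o s hs]; exact hR s
  have hex' : ∃ k ∈ V, pathW θ w0 v' k < p' k := by
    refine ⟨k, hkV, ?_⟩
    rw [p'o k (ZW.V0 H hkV)]
    have e : pathW θ w0 v' k = pathW θ w0 v k + btW θ k * (v' - v) := by
      rw [pathW_eq, pathW_eq]; ring
    rw [e]
    have h3 : v' - v < (p k - pathW θ w0 v k) / (2 * btW θ k) := by linarith [hv'.2]
    rw [lt_div_iff₀ (by linarith)] at h3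
    nlinarith [hv'.1]
  have h1 := ZW.drop_at H hcl v'0 v'1 hvis' hpl' p'0 hex'
  have h2 := H.ext.own_le p ⟨hl, hR⟩ p' hpl' hle
  have h3 := H.ext.win.sharp p ⟨hl, hR⟩ p' hpl' hle
  have h4 : ∑ s, (p' s - p s) = v' - v := by
    rw [Finset.sum_eq_single 0]
    · rw [p'0, hpv]; ring
    · intro s _ hs; rw [p'o s hs]; ring
    · intro h; exact absurd (Finset.mem_univ _) h
  linarith

end tw

end Crest.Agent.R136.OwW831
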