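import Crest.Agent.R136.OwW1_831

/-!
# R136, thin branch, own dichotomy in the W-chart, part 2 (helper831): closed sets of slots, assembly

`hullC V` : closure under the caps; `Ob.close`; `capCl_KW`, `capCl_diff`; `ZW.chg` : change of the
visible and of the tied slots; **`seamClose : SeamClose`**, **`seamCap : SeamCap`**.
-/

set_option autoImplicit false
set_option linter.unusedVariables false
set_option linter.unusedSectionVars false

open Finset Filter Topology MeasureTheory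

namespace Crest.Agent.R136.OwW831

open Crest.Agent.R136.Net191
open Crest.Agent.R136.NetW191
open Crest.Agent.R136.PrW464
open Crest.Agent.R136.NatW697
open Crest.Agent.R136.LadW697
open Crest.Agent.R136.Top484
open Crest.Agent.R136.NatT550
open Crest.Agent.R136.ThS830
open Crest.Agent.R136.LadT830
open Crest.Agent.R136.LadG697
open Crest.Agent.R136.Zpr779
open Crest.Agent.R136.EvW938
open Crest.Agent.R136.Own831
open Crest.Agent.R138.Ex926

/-! ### closure -/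

/-- closure under the caps -/
def hullC (V : Set (Fin 18)) : Set (Fin 18) := {s | ∀ W : Set (Fin 18), V ⊆ W → CapCl W → s ∈ W}

theorem sub_hull (V : Set (Fin 18)) : V ⊆ hullC V := fun s hs W h _ => h hs

theorem capCl_hull (V : Set (Fin 18)) : CapCl (hullC V) := by
  rintro s ⟨l, hl, ht⟩ W hW hcl
  exact hcl s ⟨l, hl, fun t h => (ht t h).imp id fun h' => h' W hW hcl⟩

theorem hull_cap {V : Set (Fin 18)} {k : Fin 18} (hk : k ∈ hullC V) (hkV : k ∉ V) :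
    ∃ l ∈ mlW k, ∀ t ∈ l, t = 0 ∨ t ∈ hullC V := by
  by_contra hcon
  refine (hk (hullC V \ {k}) (fun s hs => ⟨sub_hull V hs, fun h => ?_⟩) ?_).2 rfl
  · rw [Set.mem_singleton_iff] at h; subst h; exact hkV hs
  · rintro s ⟨l, hl, ht⟩
    refine ⟨capCl_hull V s ⟨l, hl, fun t h => (ht t h).imp id fun h' => h'.1⟩, fun h => ?_⟩
    rw [Set.mem_singleton_iff] at h
    subst h
    exact hcon ⟨l, hl, fun t h => (ht t h).imp id fun h' => h'.1⟩

theorem ml_flag : ∀ s, ∀ l ∈ mlW s, (∀ t ∈ l, t = 0 ∨ (4 ≤ t ∧ t ≠ 13 ∧ t ≠ 16 ∧ t ≠ 17)) →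
    (4 ≤ s ∧ s ≠ 13 ∧ s ≠ 16 ∧ s ≠ 17) := by decide

theorem ml_one : ∀ s, ∀ l ∈ mlW s, (∀ t ∈ l, t = 0 ∨ 4 ≤ t) →
    ∃ t ∈ l, 4 ≤ t ∧ wc s = wc t ∧ wn s = wn t := by decide

theorem btW_list (θ : Fin 3 → ℝ) {k : Fin 18} {l : List (Fin 18)} (hl : l ∈ mlW k) :
    (l.map (btW θ)).sum = btW θ k := grW_list _ _ _ k l hl

theorem hull_vis {θ : Fin 3 → ℝ} {V : Set (Fin 18)}
    (h : ∀ k ∈ V, (4 ≤ k ∧ k ≠ 13 ∧ k ≠ 16 ∧ k ≠ 17) ∧ 0 < btW θ k) : ∀ k ∈ hullC V,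
      (4 ≤ k ∧ k ≠ 13 ∧ k ≠ 16 ∧ k ≠ 17) ∧ 0 < btW θ k := by
  intro k hk
  refine hk {k | (4 ≤ k ∧ k ≠ 13 ∧ k ≠ 16 ∧ k ≠ 17) ∧ 0 < btW θ k} (fun s hs => h s hs) ?_
  rintro s ⟨l, hl, ht⟩
  refine ⟨ml_flag s l hl fun t h' => (ht t h').imp id fun h'' => h''.1, ?_⟩
  have hpos : ∀ t ∈ l, 0 < btW θ t := fun t h' => by
    rcases ht t h' with h0 | h0
    · subst h0; rw [btW_zero]; exact one_pos
    · exact h0.2
  rw [← btW_list θ hl]
  obtain ⟨t, ht'⟩ := List.exists_mem_of_ne_nil l (mlW_ne s l hl)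
  exact (hpos t ht').trans_le (sum_ge (fun s hs => (hpos s hs).le) ht')

/-- the slots of one rate -/
theorem capCl_KW {θ : Fin 3 → ℝ} {V : Set (Fin 18)} (h4 : ∀ k ∈ V, 4 ≤ k) (hcl : CapCl V)
    (s : ℝ) : CapCl {k | k ∈ V ∧ KW θ k ≠ s} := by
  rintro k ⟨l, hl, ht⟩
  refine ⟨hcl k ⟨l, hl, fun t h => (ht t h).imp id fun h' => h'.1⟩, ?_⟩
  obtain ⟨t, h1, h2, h3, h4'⟩ := ml_one k l hl fun t h => (ht t h).imp id fun h' => h4 t h'.1
  have hK : KW θ k = KW θ t := by rw [KW_eq, KW_eq, h3, h4']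
  rw [hK]
  rcases ht t h1 with h0 | h0
  · subst h0; exact absurd h2 (by decide)
  · exact h0.2

theorem capCl_diff {V : Set (Fin 18)} (hcl : CapCl V) {i : Fin 18} (hu : Unc V i) :
    CapCl (V \ {i}) := by
  rintro k ⟨l, hl, ht⟩
  refine ⟨hcl k ⟨l, hl, fun t h => (ht t h).imp id fun h' => h'.1⟩, fun h => ?_⟩
  rw [Set.mem_singleton_iff] at h
  subst h
  obtain ⟨t, h1, h2, h3⟩ := hu l hl
  rcases ht t h1 with h0 | h0
  · exact h2 h0
  · exact h3 h0.1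

/-! ### objects -/

section

variable {θ : Fin 3 → ℝ} {g : ℝ} {q : Fin 3 → ℝ} {V T : Set (Fin 18)} {w0 R T0 : ℝ}
  {B B' : Base} {I0 I : ℕ → Finset (ℕ × ℝ)} {κ : ℕ → ℝ} {u : ℕ → Fin 18 → ℝ}
  {F : ℕ → ℕ × ℝ → FW} {X : ℕ → Fin 18 → ℝ} {w : ℕ → ℝ} {Tn To : ℕ → ℝ}
  {PD : Set (Fin 18 → ℝ)} {ν own : (Fin 18 → ℝ) → ℝ} {c₀ : ℝ}

/-- change of the visible and of the tied slots -/
theorem ZW.chg (H : ZW θ g q V T w0 R T0 B B' I0 I κ u F X w Tn To PD ν own c₀)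
    {V' T' : Set (Fin 18)}
    (hvis : ∀ k ∈ V', (4 ≤ k ∧ k ≠ 13 ∧ k ≠ 16 ∧ k ≠ 17) ∧ 0 < btW θ k)
    (htied : ∀ k ∈ T', k ∈ V')
    (hrot : ∀ p ∈ Leg monW R, ∀ v : ℝ, 0 ≤ v → v ≤ 1 → p 0 = w0 + v →
      (∀ k ∈ V', p k ≤ pathW θ w0 v k) → own p = 1 - v)
    (htw : ∀ p ∈ Leg monW R, ∀ v : ℝ, 0 ≤ v → v < 1 → p 0 = w0 + v →
      (∃ k ∈ T', pathW θ w0 v k < p k) → own p < 1 - v) :
    ZW θ g q V' T' w0 R T0 B B' I0 I κ u F X w Tn To PD ν own c₀ where
  th1 := H.th1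
  q1 := H.q1
  q2 := H.q2
  q0 := H.q0
  qg := H.qg
  qθ := H.qθ
  vis := hvis
  tied := htied
  u0 := H.u0
  κ1 := H.κ1
  κ0 := H.κ0
  big := H.big
  bas := H.bas
  pdn := H.pdn
  ext :=
    { win := H.ext.win
      R0 := H.ext.R0
      s0 := H.ext.s0
      s1 := H.ext.s1
      oprof := H.ext.oprof
      olip := H.ext.olip
      oanti := H.ext.oanti
      own_le := H.ext.own_le
      osub := H.ext.osub
      dmax := H.ext.dmax
      record := H.ext.record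
      own_rot := fun p hp v h0 h1 hpv hk => by
        rw [hrot p hp v h0 h1 hpv fun k hkV => ?_]
        · ring
        · have h4 := (hvis k hkV).1.1
          have hk0 : k ≠ 0 := by rintro rfl; exact absurd h4 (by decide)
          have := hk k
          rwa [own_in hk0 hkV] at this
      own_up := H.ext.own_up
      own_tw := fun p hp v h0 h1 hpv hk => by
        obtain ⟨k, hkT, hk2⟩ := hk
        have hkV := htied k hkT
        have h4 := (hvis k hkV).1.1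
        have hk0 : k ≠ 0 := by rintro rfl; exact absurd h4 (by decide)
        have := htw p hp v h0 h1 hpv ⟨k, hkT, by rwa [own_in hk0 hkV] at hk2⟩
        linarith }
  gd := H.gd
  card := H.card

/-- **the closure of the visible slots** -/
theorem Ob.close {Zs : Set (Fin 18)} (h : Ob θ g q V T Zs)
    (hS : SlotOkW θ (fun k => k ∈ V) (fun k => k ∈ T)) :
    ∃ V' : Set (Fin 18), V ⊆ V' ∧ CapCl V' ∧
      SlotOkW θ (fun k => k ∈ V') (fun k => k ∈ T) ∧ Ob θ g q V' T Zs := by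
  have hvis := hull_vis (θ := θ) (V := V) fun k hk => hS.vis k hk
  refine ⟨hullC V, sub_hull V, capCl_hull V, ⟨fun k hk => sub_hull V (hS.tied k hk), hvis,
    fun k hk hkT => ?_⟩, ?_⟩
  · by_cases hkV : k ∈ V
    · obtain ⟨l, hl, ht⟩ := hS.cap k hkV hkT
      exact ⟨l, hl, fun t h => (ht t h).imp id fun h' => sub_hull V h'⟩
    · exact hull_cap hk hkV
  · obtain ⟨w0, R, T0, B, B', I0, I, κ, u, F, X, w, Tn, To, PD, ν, own, c₀, H, hz⟩ := h
    refine ⟨w0, R, T0, B, B', I0, I, κ, u, F, X, w, Tn, To, PD, ν, own, c₀, ZW.chg H hvis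
      (fun k hk => sub_hull V (H.tied k hk)) (fun p hp v h0 h1 hpv hk =>
        H.fact.own_rot p hp v h0 h1 hpv fun k hkV => hk k (sub_hull V hkV))
      (fun p hp v h0 h1 hpv hk => ?_), hz⟩
    obtain ⟨k, hkT, hk2⟩ := hk
    have hkV := H.tied k hkT
    have h4 := (H.vis k hkV).1.1
    have hk0 : k ≠ 0 := by rintro rfl; exact absurd h4 (by decide)
    have := H.ext.own_tw p hp v h0 h1 hpv ⟨k, hkT, by rwa [own_in hk0 hkV]⟩
    linarith

end

/-- **697's `SeamClose`** -/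
theorem seamClose : SeamClose := fun θ g q V T Zs h hS => Ob.close h hS

/-- **697's `SeamCap`** -/
theorem seamCap : SeamCap := fun θ V s hcl h => capCl_KW (fun k hk => (h k hk).1.1) hcl s

end Crest.Agent.R136.OwW831
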