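import Crest.Agent.R136.OwW1_831

/-!
# R136, thin branch, own dichotomy in the W-chart, part 3 (helper831): tangents at a record point

`ZW.tan_rec`, `ZW.tan_own`, `ZW.tan_own_eq` : record value, D-max, own counts of a joint tangent at a
record point `pathW θ w0 v1`; in the case `Zer` of the uncapped slot `i` the tangent has full own counts
for every move which is slow in the slots `V \ {i}`.
-/

set_option autoImplicit false
set_option linter.unusedVariables false
set_option linter.unusedSectionVars false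

open Finset Filter Topology MeasureTheory

namespace Crest.Agent.R136.OwW831

open Crest.Agent.R136.Net191
open Crest.Agent.R136.NetW191
open Crest.Agent.R136.PrW464
open Crest.Agent.R136.NatW697
open Crest.Agent.R136.K2S774
open Crest.Agent.R136.LadW697
open Crest.Agent.R136.ThS830
open Crest.Agent.R136.LadG697
open Crest.Agent.R136.Zpr779
open Crest.Agent.R136.Own831
open Crest.Agent.R138.Ex926

/-- the cone of the W-chart -/
abbrev CW : Set (Fin 18 → ℝ) := cn QW (fun _ => True)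

section

variable {θ : Fin 3 → ℝ} {g : ℝ} {q : Fin 3 → ℝ} {V T : Set (Fin 18)} {w0 R T0 : ℝ}
  {B B' : Base} {I0 I : ℕ → Finset (ℕ × ℝ)} {κ : ℕ → ℝ} {u : ℕ → Fin 18 → ℝ}
  {F : ℕ → ℕ × ℝ → FW} {X : ℕ → Fin 18 → ℝ} {w : ℕ → ℝ} {Tn To : ℕ → ℝ}
  {PD : Set (Fin 18 → ℝ)} {ν own : (Fin 18 → ℝ) → ℝ} {c₀ : ℝ}

variable (H : ZW θ g q V T w0 R T0 B B' I0 I κ u F X w Tn To PD ν own c₀)
  {v1 : ℝ} (h0 : 0 < v1) (h1 : v1 < 1) {hh : ℕ → ℝ} {lam lo : (Fin 18 → ℝ) → ℝ}

include H h0 h1

/-- record value and D-max of a tangent at a record point -/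
theorem ZW.tan_rec (hpos : ∀ l, 0 < hh l) (hlim : Tendsto hh atTop (𝓝 0))
    (H1 : IsTan (Leg monW R) CW ν (fun _ => pathW θ w0 v1) hh lam) :
    (∀ σ : ℝ, lam (σ • btW θ) = σ * DlW g q (btW θ)) ∧ ∀ d ∈ QdW θ, lam d ≤ DlW g q d := by
  have HF := H.fact
  set r0 := pathW θ w0 v1 with hr0
  have hrl := HF.big.path_leg h0.le h1.le
  have hrec := HF.record_eq h0 h1
  have q1 : Tendsto hh atTop (𝓝[>] 0) :=
    tendsto_nhdsWithin_iff.2 ⟨hlim, Eventually.of_forall fun l => hpos l⟩
  have hBU := Dg219.bup_of_tan hpos hlim H1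
  have hlegd : ∀ d ∈ CW, ∀ᶠ h in 𝓝[>] (0:ℝ), r0 + h • d ∈ Leg monW R := by
    intro d hd
    obtain ⟨e, he, H1⟩ := path_loc HF.big h0.le h1.le ‖d‖
    filter_upwards [ev_small (C := 1) he] with h hh
    exact H1 h hh.1 (by linarith [hh.2]) d hd le_rfl
  have hv : ∀ t : ℝ, ∀ᶠ h in 𝓝[>] (0:ℝ), 0 < v1 + h * t ∧ v1 + h * t < 1 := by
    intro t
    filter_upwards [ev_small (C := t) (sub_pos.2 h1), ev_small (C := -t) h0] with h a1 a2
    constructor <;> linarith [a1.2, a2.2]
  refine ⟨fun σ => ?_, fun d hd => ?_⟩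
  · have hm : σ • btW θ ∈ CW := ((nat_grW (fun _ => True) 1 (-θ 1) (1 - θ 0)).smul σ).mem
    refine tendsto_nhds_unique (hBU.lim _ hm) (tendsto_const_nhds.congr' ?_)
    filter_upwards [q1.eventually (hv σ)] with l hl
    have e : r0 + hh l • σ • btW θ = pathW θ w0 (v1 + hh l * σ) := by
      rw [smul_smul, hr0, path_add]
    rw [e, HF.record_eq hl.1 hl.2, hrec, ← path_add, DW_add, map_smul, smul_eq_mul]
    have := (hpos l).ne'
    field_simp
    ring
  · refine le_of_tendsto (hBU.lim d hd.1) ?_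
    obtain ⟨δ, hδ, hD⟩ := HF.dmax v1 h0 h1
    have h17 : ∀ᶠ h in 𝓝[>] (0:ℝ), (r0 + h • d) 17 ≤ 9 * w0 + max 0 (1 - θ 0) := by
      have e : ∀ h : ℝ, (r0 + h • d) 17 = 9 * w0 + (1 - θ 0) * v1 + h * d 17 := fun h => by
        have : r0 17 = 9 * w0 + (1 - θ 0) * v1 := by rw [hr0, pathW_nat, natW_N]
        simp only [Pi.add_apply, Pi.smul_apply, smul_eq_mul, this]
      rcases lt_trichotomy (θ 0) 1 with h3 | h3 | h3
      · have h4 : 0 < (1 - θ 0) * (1 - v1) := mul_pos (by linarith) (by linarith)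
        filter_upwards [ev_small (C := d 17) h4] with h a2
        rw [e]
        have h5 : 1 - θ 0 ≤ max 0 (1 - θ 0) := le_max_right _ _
        nlinarith [a2.2]
      · filter_upwards [ev_small (C := 1) one_pos] with h a2
        rw [e, h3]
        have h5 := hd.2 h3
        have h6 : (0:ℝ) ≤ max 0 (1 - 1) := le_max_left _ _
        nlinarith [a2.1]
      · have h4 : 0 < (θ 0 - 1) * v1 := mul_pos (by linarith) h0
        filter_upwards [ev_small (C := d 17) h4] with h a2
        rw [e]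
        have h5 : (0:ℝ) ≤ max 0 (1 - θ 0) := le_max_left _ _
        nlinarith [a2.2]
    filter_upwards [q1.eventually (hlegd d hd.1), q1.eventually (ev_small (C := ‖d‖) hδ),
      q1.eventually h17] with l a1 a2 a3
    have h2 := hD _ a1 (fun k => by
      have e : (r0 + hh l • d) k - pathW θ w0 v1 k = hh l * d k := by
        rw [hr0]; simp
      rw [e, abs_mul, abs_of_pos a2.1]
      have h3 := norm_le_pi_norm d k
      rw [Real.norm_eq_abs] at h3
      exact (mul_le_mul_of_nonneg_left h3 a2.1.le).trans a2.2.le) a3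
    rw [DW_add, map_smul, smul_eq_mul] at h2
    rw [div_le_iff₀ (hpos l), hrec]
    linarith

/-- own counts of a tangent at a record point -/
theorem ZW.tan_own (hpos : ∀ l, 0 < hh l) (hlim : Tendsto hh atTop (𝓝 0))
    (H2 : IsTan (Leg monW R) CW own (fun _ => pathW θ w0 v1) hh lo) :
    ∀ c ∈ CW, lo c ≤ -c 0 := by
  have HF := H.fact
  intro c hc
  set r0 := pathW θ w0 v1 with hr0
  have hrl := HF.big.path_leg h0.le h1.le
  have hown0 : own r0 = 1 - v1 :=
    HF.own_rot r0 hrl v1 h0.le h1.le (path_zero θ w0 v1) fun k _ => le_rfl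
  have hBU := Dg219.bup_of_tan hpos hlim H2
  have t1 : Tendsto (fun l => v1 + hh l * c 0) atTop (𝓝 v1) := by
    have := (hlim.mul_const (c 0)).const_add v1
    rwa [zero_mul, add_zero] at this
  refine le_of_tendsto (hBU.lim c hc) ?_
  filter_upwards [hBU.mem c hc, t1.eventually (lt_mem_nhds h0), t1.eventually (gt_mem_nhds h1)]
    with l m1 g1 g2
  have e0 : (r0 + hh l • c) 0 = w0 + (v1 + hh l * c 0) := by
    rw [hr0]; simp only [Pi.add_apply, Pi.smul_apply, smul_eq_mul, path_zero]; ring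
  have := HF.own_up _ m1 _ g1.le g2.le e0
  rw [div_le_iff₀ (hpos l), hown0]
  linarith

/-- **zero own loss of the slot `i`** : full own counts of the tangent -/
theorem ZW.tan_own_eq (hcl : CapCl V) {i : Fin 18} (hi : i ∈ V) (hun : Unc V i)
    (hz : Zer own (bO θ w0 R V) (eO θ V) i v1 hh)
    (H2 : IsTan (Leg monW R) CW own (fun _ => pathW θ w0 v1) hh lo) :
    ∀ c ∈ CW, (∀ k ∈ V, k ≠ i → c k ≤ btW θ k * c 0) → lo c = -c 0 := by
  have HF := H.fact
  have hpos := hz.1
  have hlim := hz.2.1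
  intro c hc hck
  refine le_antisymm (ZW.tan_own H h0 h1 hpos hlim H2 c hc) ?_
  have hi0 : i ≠ 0 := ZW.V0 H hi
  set r0 := pathW θ w0 v1 with hr0
  have hrl := HF.big.path_leg h0.le h1.le
  have hown0 : own r0 = 1 - v1 :=
    HF.own_rot r0 hrl v1 h0.le h1.le (path_zero θ w0 v1) fun k _ => le_rfl
  have hBU := Dg219.bup_of_tan hpos hlim H2
  have t1 : Tendsto (fun l => v1 + hh l * c 0) atTop (𝓝 v1) := by
    have := (hlim.mul_const (c 0)).const_add v1
    rwa [zero_mul, add_zero] at this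
  set y : ℝ := max 0 (c i - btW θ i * c 0) with hy
  have y0 : 0 ≤ y := le_max_left _ _
  have t2 : Tendsto (fun l => hh l * y) atTop (𝓝 0) := by
    have := hlim.mul_const y
    rwa [zero_mul] at this
  have hfull : ∀ v : ℝ, 0 < v → v < 1 → own (bO θ w0 R V + v • eO θ V) = 1 - 1 * v := by
    intro v a1 a2
    rw [own_lin, one_mul]
    have hQl : ownW θ w0 R (fun k => k ∈ V) v ∈ Leg monW R := by
      have := own_leg H.big hcl a1.le a2.le hi0 hi (y := 0) le_rfl zero_le_one (Or.inl rfl)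
      rwa [zero_smul, add_zero] at this
    exact ZW.own_rotV H hQl a1.le a2.le (own_zero v) fun k hk => by
      rw [own_in (ZW.V0 H hk) hk]
  have key := Zer.tan hz h0 h1 hfull (c 0) y0
  rw [one_mul] at key
  refine le_of_tendsto_of_tendsto key (hBU.lim c hc) ?_
  filter_upwards [hBU.mem c hc, t1.eventually (lt_mem_nhds h0), t1.eventually (gt_mem_nhds h1),
    t2.eventually (gt_mem_nhds one_pos)] with l m1 g1 g2 g3
  have hl := hpos l
  have e1 : bO θ w0 R V + v1 • eO θ V + hh l • (c 0 • eO θ V + y • (Pi.single i 1 : Fin 18 → ℝ)) =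
      ownW θ w0 R (fun k => k ∈ V) (v1 + hh l * c 0) + (hh l * y) •
        (Pi.single i 1 : Fin 18 → ℝ) := by
    rw [← own_lin, smul_add, add_smul, smul_smul, smul_smul]; abel
  have hQ := own_leg H.big hcl g1.le g2.le hi0 hi (mul_nonneg hl.le y0) g3.le (Or.inr hun)
  rw [e1, hfull v1 h0 h1, one_mul, hown0]
  refine div_le_div_of_nonneg_right (sub_le_sub_right ?_ _) hl.le
  refine H.ext.oanti _ m1 _ hQ fun k => ?_
  have ek : (r0 + hh l • c) k = pathW θ w0 v1 k + hh l * c k := by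
    rw [hr0]; simp only [Pi.add_apply, Pi.smul_apply, smul_eq_mul]
  by_cases hki : k = i
  · subst hki
    simp only [Pi.add_apply, Pi.smul_apply, smul_eq_mul, Pi.single_eq_same, mul_one]
    rw [own_in hi0 hi]
    have e2 : pathW θ w0 (v1 + hh l * c 0) k = pathW θ w0 v1 k + btW θ k * (hh l * c 0) := by
      rw [pathW_eq, pathW_eq]; ring
    rw [e2]
    have h3 : c k - btW θ k * c 0 ≤ y := le_max_right _ _
    have h4 := mul_le_mul_of_nonneg_left h3 hl.le
    have h5 : r0 k = pathW θ w0 v1 k := by rw [hr0]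
    rw [h5]
    nlinarith
  · have e3 : (ownW θ w0 R (fun k => k ∈ V) (v1 + hh l * c 0) + (hh l * y) •
        (Pi.single i 1 : Fin 18 → ℝ)) k = ownW θ w0 R (fun k => k ∈ V) (v1 + hh l * c 0) k := by
      simp [hki]
    rw [e3]
    by_cases hk0 : k = 0
    · subst hk0
      rw [own_zero, ek, path_zero]; linarith
    by_cases hkV : k ∈ V
    · rw [own_in hk0 hkV, ek]
      have e2 : pathW θ w0 (v1 + hh l * c 0) k = pathW θ w0 v1 k + btW θ k * (hh l * c 0) := by
        rw [pathW_eq, pathW_eq]; ring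
      rw [e2]
      have h4 := mul_le_mul_of_nonneg_left (hck k hkV hki) hl.le
      nlinarith
    · rw [own_out hk0 hkV]
      exact m1.2 k

/-- the slots `Zs` stay unseen -/
theorem ZW.tan_zero {Zs : Set (Fin 18)} (hpos : ∀ l, 0 < hh l) (hlim : Tendsto hh atTop (𝓝 0))
    (hZ : ZeroS (Leg monW R) ν own Zs)
    (H1 : IsTan (Leg monW R) CW ν (fun _ => pathW θ w0 v1) hh lam)
    (H2 : IsTan (Leg monW R) CW own (fun _ => pathW θ w0 v1) hh lo) :
    ZeroS CW lam lo Zs := by
  intro a ha b hb hab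
  have hB1 := Dg219.bup_of_tan hpos hlim H1
  have hB2 := Dg219.bup_of_tan hpos hlim H2
  have key : ∀ᶠ l in atTop, ν (pathW θ w0 v1 + hh l • a) = ν (pathW θ w0 v1 + hh l • b) ∧
      own (pathW θ w0 v1 + hh l • a) = own (pathW θ w0 v1 + hh l • b) := by
    filter_upwards [hB1.mem a ha, hB1.mem b hb] with l m1 m2
    exact hZ _ m1 _ m2 fun k hk => by
      simp only [Pi.add_apply, Pi.smul_apply, smul_eq_mul, hab k hk]
  constructor
  · refine tendsto_nhds_unique (hB1.lim a ha) ((hB1.lim b hb).congr' ?_)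
    filter_upwards [key] with l hl
    rw [hl.1]
  · refine tendsto_nhds_unique (hB2.lim a ha) ((hB2.lim b hb).congr' ?_)
    filter_upwards [key] with l hl
    rw [hl.2]

end

end Crest.Agent.R136.OwW831
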