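import Crest.Agent.R136.OwW3_831

/-!
# R136, thin branch (helper831): UNIFORM D-MAX FOR ALL GAUGES near a record point

`rd δ a` : rounding of a legal box from below to a finite grid.  **`ZW.gd_unif`** : the field `gd` of `ZW`
(`GdG`) uniformly in the box, near every interior record point.
-/

set_option autoImplicit false
set_option linter.unusedVariables false
set_option linter.unusedSectionVars false

open Finset Filter Topology MeasureTheory

namespace Crest.Agent.R136.OwW831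

open Crest.Agent.R136.Net191
open Crest.Agent.R136.NetW191
open Crest.Agent.R136.PrW464
open Crest.Agent.R136.NatW697
open Crest.Agent.R136.K2S774
open Crest.Agent.R136.LadW697
open Crest.Agent.R136.ThS830
open Crest.Agent.R136.LadG697
open Crest.Agent.R136.Zpr779
open Crest.Agent.R136.Own831
open Crest.Agent.R138.Ex926

/-! ### rounding from below -/

/-- graded losses -/
def cwR (k : Fin 18) : ℕ := 6 ^ ((k : ℕ) + 1)

theorem cwR_list : ∀ k : Fin 18, ∀ l ∈ mlW k, (l.map fun t => cwR t + 1).sum ≤ cwR k := by decide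

theorem cwR_le : ∀ k : Fin 18, cwR k + 1 ≤ 6 ^ 19 := by decide

/-- rounding of a box from below -/
noncomputable def rd (δ : ℝ) (a : Fin 18 → ℝ) : Fin 18 → ℝ :=
  fun k => δ * (⌊a k / δ - cwR k⌋₊ : ℝ)

section rd

variable {δ R : ℝ} {a : Fin 18 → ℝ}

theorem rd_nonneg (hδ : 0 < δ) (k : Fin 18) : 0 ≤ rd δ a k :=
  mul_nonneg hδ.le (Nat.cast_nonneg _)

theorem rd_ge (hδ : 0 < δ) (k : Fin 18) : a k - (cwR k + 1) * δ ≤ rd δ a k := by
  have h1 := (Nat.lt_floor_add_one (a k / δ - cwR k)).le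
  have h2 := mul_le_mul_of_nonneg_left h1 hδ.le
  have e1 : δ * (a k / δ - cwR k) = a k - cwR k * δ := by field_simp
  rw [e1] at h2
  simp only [rd]
  nlinarith

theorem rd_le' (hδ : 0 < δ) (k : Fin 18) : rd δ a k = 0 ∨ rd δ a k ≤ a k - cwR k * δ := by
  by_cases h0 : (⌊a k / δ - cwR k⌋₊ : ℕ) = 0
  · left; simp [rd, h0]
  · right
    have h1 : 0 ≤ a k / δ - cwR k := by
      by_contra hcon
      push Not at hcon
      exact h0 (Nat.floor_of_nonpos hcon.le)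
    have h2 := mul_le_mul_of_nonneg_left (Nat.floor_le h1) hδ.le
    have e1 : δ * (a k / δ - cwR k) = a k - cwR k * δ := by field_simp
    rw [e1] at h2
    exact h2

theorem rd_le (hδ : 0 < δ) (ha : ∀ k, 0 ≤ a k) (k : Fin 18) : rd δ a k ≤ a k := by
  rcases rd_le' (a := a) hδ k with h | h
  · rw [h]; exact ha k
  · have : 0 ≤ (cwR k : ℝ) * δ := mul_nonneg (Nat.cast_nonneg _) hδ.le
    linarith

theorem rd_leg (hδ : 0 < δ) (ha : a ∈ Leg monW R) : rd δ a ∈ Leg monW R := by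
  obtain ⟨hl, hR⟩ := ha
  obtain ⟨nn, wl⟩ := legal_list.1 hl
  refine ⟨legal_list.2 ⟨fun k => rd_nonneg hδ k, fun k l hl' => ?_⟩, fun k =>
    (rd_le hδ nn k).trans (hR k)⟩
  have h0 : 0 ≤ (l.map (rd δ a)).sum := List.sum_nonneg fun x hx => by
    obtain ⟨s, -, rfl⟩ := List.mem_map.1 hx
    exact rd_nonneg hδ s
  rcases rd_le' (a := a) hδ k with h | h
  · rw [h]; exact h0
  have h1 := wl k l hl'
  have key : ∀ l : List (Fin 18), (l.map a).sum ≤
      (l.map (rd δ a)).sum + ((l.map fun t => cwR t + 1).sum : ℕ) * δ := by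
    intro l
    induction l with
    | nil => simp
    | cons t l ih =>
      simp only [List.map_cons, List.sum_cons]
      have h2 := rd_ge (a := a) hδ t
      push_cast at ih ⊢
      nlinarith
  have h2 := key l
  have h3 : (((l.map fun t => cwR t + 1).sum : ℕ) : ℝ) ≤ cwR k := by
    exact_mod_cast cwR_list k l hl'
  have h4 := mul_le_mul_of_nonneg_right h3 hδ.le
  linarith

/-- the grid is finite -/
theorem rd_finite (hδ : 0 < δ) (R : ℝ) : ({b | ∃ a ∈ Leg monW R, b = rd δ a}).Finite := by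
  refine (Set.finite_range fun (m : Fin 18 → Fin (⌊R / δ⌋₊ + 1)) (k : Fin 18) =>
    δ * (((m k : ℕ) : ℝ))).subset ?_
  rintro b ⟨a, ha, rfl⟩
  have hm : ∀ k : Fin 18, ⌊a k / δ - cwR k⌋₊ < ⌊R / δ⌋₊ + 1 := by
    intro k
    refine Nat.lt_succ_of_le (Nat.floor_le_floor ?_)
    have h1 : a k / δ ≤ R / δ := div_le_div_of_nonneg_right (ha.2 k) hδ.le
    have h2 : (0 : ℝ) ≤ cwR k := Nat.cast_nonneg _
    linarith
  exact ⟨fun k => ⟨_, hm k⟩, rfl⟩

end rd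

/-! ### uniform D-max -/

section

variable {θ : Fin 3 → ℝ} {g : ℝ} {q : Fin 3 → ℝ} {V T : Set (Fin 18)} {w0 R T0 : ℝ}
  {B B' : Base} {I0 I : ℕ → Finset (ℕ × ℝ)} {κ : ℕ → ℝ} {u : ℕ → Fin 18 → ℝ}
  {F : ℕ → ℕ × ℝ → FW} {X : ℕ → Fin 18 → ℝ} {w : ℕ → ℝ} {Tn To : ℕ → ℝ}
  {PD : Set (Fin 18 → ℝ)} {ν own : (Fin 18 → ℝ) → ℝ} {c₀ : ℝ}

/-- the D-max bound of the box `x` for all gauges -/
def GdAt (B B' : Base) (I : ℕ → Finset (ℕ × ℝ)) (κ : ℕ → ℝ) (u : ℕ → Fin 18 → ℝ)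
    (F : ℕ → ℕ × ℝ → FW) (X : ℕ → Fin 18 → ℝ) (Tn : ℕ → ℝ) (C K : ℝ) (n : ℕ) (x : Fin 18 → ℝ)
    (E : ℝ) : Prop :=
  ∀ e : ℕ × ℝ → Fin 14 → ℝ,
    (∀ j ∈ I n, (e j 9 = 0 ∧ e j 12 = 0 ∧ e j 13 = 0) ∧
      ∀ k, u n (Fin.natAdd 4 k) * |e j k| ≤ B.d n ^ (-C)) →
    ∀ i ∈ I n, ∀ G ⊆ I n, (∀ j ∈ G, ∀ k, |u n k * coW (κ n) (GauW619.gau (κ n) (e i) (F n i))
        (GauW619.gau (κ n) (e j) (F n j)) k| ≤ K * (B.d n ^ X n k * B'.d n ^ x k)) →
      (G.card : ℝ) ≤ Tn n * B'.d n ^ (-E)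

theorem GdAt.mono {C K C' K' : ℝ} {n : ℕ} {x x' : Fin 18 → ℝ} {E E' : ℝ}
    (h : GdAt B B' I κ u F X Tn C' K' n x' E') (hT : 0 ≤ Tn n) (hC : C ≤ C') (hK0 : 0 ≤ K)
    (hK : K ≤ K') (hx : x' ≤ x) (hE : E' ≤ E) : GdAt B B' I κ u F X Tn C K n x E := by
  intro e he i hi G hG hbox
  refine (h e (fun j hj => ⟨(he j hj).1, fun k => ((he j hj).2 k).trans ?_⟩) i hi G hG
    fun j hj k => (hbox j hj k).trans ?_).trans ?_
  · exact Real.rpow_le_rpow_of_exponent_ge (B.pos n) (B.lt n).le (by linarith)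
  · have h1 : B'.d n ^ x k ≤ B'.d n ^ x' k :=
      Real.rpow_le_rpow_of_exponent_ge (B'.pos n) (B'.lt n).le (hx k)
    have h2 : 0 ≤ B.d n ^ X n k := Real.rpow_nonneg (B.pos n).le _
    have h3 : 0 ≤ B'.d n ^ x k := Real.rpow_nonneg (B'.pos n).le _
    exact mul_le_mul hK (mul_le_mul_of_nonneg_left h1 h2) (mul_nonneg h2 h3) (hK0.trans hK)
  · exact mul_le_mul_of_nonneg_left
      (Real.rpow_le_rpow_of_exponent_ge (B'.pos n) (B'.lt n).le (by linarith)) hT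

theorem gdAt_iff {D : (Fin 18 → ℝ) → ℝ} : GdG B B' I κ u F X Tn PD D c₀ ↔
    ∃ C : ℝ, 0 < C ∧ ∀ x ∈ PD, ∀ K : ℝ, 1 ≤ K → ∀ ε : ℝ, 0 < ε → ∀ᶠ n in (U : Filter ℕ),
      GdAt B B' I κ u F X Tn C K n x (c₀ + D x + ε) := Iff.rfl

theorem neg_DlW_le {g : ℝ} {q : Fin 3 → ℝ} (hg : 0 ≤ g) (hq0 : 0 ≤ q 0) (hq1 : 0 ≤ q 1)
    (hq2 : 0 ≤ q 2) {d : Fin 18 → ℝ} {M : ℝ} (h0 : ∀ k, 0 ≤ d k) (h1 : ∀ k, d k ≤ M) :
    -DlW g q d ≤ (4 + q 0 + q 1 + q 2) * M := by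
  rw [DlW_apply]
  have a0 := h0 0; have a2 := h0 2; have a3 := h0 3; have a17 := h0 17
  have b0 := h1 0; have b2 := h1 2; have b3 := h1 3; have b17 := h1 17
  have c0 := mul_nonneg hg a0
  have c1 := mul_le_mul_of_nonneg_left b17 hq0
  have c2 := mul_le_mul_of_nonneg_left b2 hq1
  have c3 := mul_le_mul_of_nonneg_left b3 hq2
  have d1 := mul_nonneg hq0 a0
  have d2 := mul_nonneg hq1 a0
  have d3 := mul_nonneg hq2 a0
  nlinarith

/-- **UNIFORM D-MAX FOR ALL GAUGES** near the interior record points -/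
theorem ZW.gd_unif (H : ZW θ g q V T w0 R T0 B B' I0 I κ u F X w Tn To PD ν own c₀) :
    ∃ C : ℝ, 0 < C ∧ ∀ v1 : ℝ, 0 < v1 → v1 < 1 → ∃ δ : ℝ, 0 < δ ∧ ∀ K ε : ℝ, 1 ≤ K → 0 < ε →
      ∀ᶠ n in (U : Filter ℕ), ∀ x ∈ Leg monW R, (∀ k, |x k - pathW θ w0 v1 k| ≤ δ) →
        x 17 ≤ 9 * w0 + max 0 (1 - θ 0) →
        GdAt B B' I κ u F X Tn C K n x (c₀ + DW g 0 q w0 x + ε) := by
  obtain ⟨C, hC, hgd⟩ := gdAt_iff.1 H.gd
  refine ⟨C, hC, fun v1 h0 h1 => ?_⟩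
  obtain ⟨δ₁, hδ₁, hPD⟩ := H.pdn v1 h0 h1
  refine ⟨δ₁ / 2, by positivity, fun K ε hK hε => ?_⟩
  have hq0 := H.q0
  have hq1 := H.q1
  have hq2 := H.q2
  have hg : 0 < g := by linarith [H.qg]
  set M : ℝ := 6 ^ 19 with hM
  have hM0 : 0 < M := by positivity
  set S : ℝ := 4 + q 0 + q 1 + q 2 with hS
  have hS0 : 0 < S := by positivity
  set δ : ℝ := min (δ₁ / 2 / M) (ε / 2 / (S * M)) with hδd
  have hδ : 0 < δ := lt_min (by positivity) (by positivity)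
  have hδ2 : M * δ ≤ δ₁ / 2 := by
    have : δ ≤ δ₁ / 2 / M := min_le_left _ _
    rw [le_div_iff₀ hM0] at this; linarith
  have hδ3 : S * (M * δ) ≤ ε / 2 := by
    have : δ ≤ ε / 2 / (S * M) := min_le_right _ _
    rw [le_div_iff₀ (by positivity)] at this; linarith
  have hcw : ∀ k : Fin 18, ((cwR k : ℝ) + 1) * δ ≤ M * δ := by
    intro k
    refine mul_le_mul_of_nonneg_right ?_ hδ.le
    have := cwR_le k
    rw [hM]; exact_mod_cast this
  -- the finite net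
  have key : ∀ᶠ n in (U : Filter ℕ), ∀ b ∈ {b | ∃ a ∈ Leg monW R, b = rd δ a}, b ∈ PD →
      GdAt B B' I κ u F X Tn C K n b (c₀ + DW g 0 q w0 b + ε / 2) := by
    rw [Filter.eventually_all_finite (rd_finite hδ R)]
    intro b _
    by_cases hb : b ∈ PD
    · filter_upwards [hgd b hb K hK (ε / 2) (by positivity)] with n hn _
      exact hn
    · exact Eventually.of_forall fun n h => absurd h hb
  filter_upwards [key] with n hn x hx hxk hx17
  have nn : ∀ k, 0 ≤ x k := fun k => (legal_list.1 hx.1).1 k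
  have hle : rd δ x ≤ x := fun k => rd_le hδ nn k
  have hge : ∀ k, x k - M * δ ≤ rd δ x k := fun k => by
    have := rd_ge (a := x) hδ k
    linarith [hcw k]
  have hm := rd_leg hδ hx
  have hnear : ∀ k, |rd δ x k - pathW θ w0 v1 k| ≤ δ₁ := by
    intro k
    have h2 := abs_le.1 (hxk k)
    have h3 := hle k
    have h4 := hge k
    rw [abs_le]; constructor <;> linarith
  have hb : rd δ x ∈ PD := hPD _ hm (hnear 0) (hnear 2) (hnear 3) (hnear 17)
    ((hle 17).trans hx17)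
  refine (hn _ ⟨x, hx, rfl⟩ hb).mono (H.ext.win.T0 n).le le_rfl (by linarith) le_rfl hle ?_
  have e1 : DW g 0 q w0 (rd δ x) = DW g 0 q w0 x - DlW g q (x - rd δ x) := by
    have := DW_add g q w0 (rd δ x) (x - rd δ x)
    rw [add_sub_cancel] at this
    linarith
  have h5 := neg_DlW_le (g := g) (q := q) (M := M * δ) hg.le hq0 hq1.le hq2.le (d := x - rd δ x)
    (fun k => by simp only [Pi.sub_apply]; linarith [hle k])
    (fun k => by simp only [Pi.sub_apply]; linarith [hge k])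
  rw [e1]
  linarith

end

end Crest.Agent.R136.OwW831
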