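import Crest.Agent.R136.OwW2_831
import Crest.Agent.R136.OwW4_831

/-!
# R136, thin branch, own dichotomy in the W-chart, part 4 (helper831): ZOOM AT A RECORD POINT

`ZW.zoom` : in the case `Zer` of the uncapped slot `i` an object without the visible slot `i` exists.
**`seamOwnC : SeamOwnC`**.
-/

set_option autoImplicit false
set_option linter.unusedVariables false
set_option linter.unusedSectionVars false

open Finset Filter Topology MeasureTheory

namespace Crest.Agent.R136.OwW831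

open Crest.Agent.R136.Net191
open Crest.Agent.R136.NetW191
open Crest.Agent.R136.Qg926
open Crest.Agent.R136.PrW464
open Crest.Agent.R136.NatW697
open Crest.Agent.R136.K2S774
open Crest.Agent.R136.LadW697
open Crest.Agent.R136.Top484
open Crest.Agent.R136.ThS830
open Crest.Agent.R136.LadG697
open Crest.Agent.R136.Zpr779
open Crest.Agent.R136.Own831
open Crest.Agent.R138.Ex926

/-- restriction of a window -/
theorem win_restr {m : ℕ} {ι : ℕ → Type*} [∀ n, DecidableEq (ι n)] {B B' : Base}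
    {I J : ∀ n, Finset (ι n)} {co : ∀ n, ι n → ι n → Fin m → ℝ} {M : Mons m} {C : ℝ}
    {X : ℕ → Fin m → ℝ} {w : ℕ → ℝ} {D D' : Set (Fin m → ℝ)} {T : ℕ → ℝ} {lam : (Fin m → ℝ) → ℝ}
    (h : ZWin B B' I J co M C X w D T lam) (hD : D' ⊆ D) (h0 : (0 : Fin m → ℝ) ∈ D') :
    ZWin B B' I J co M C X w D' T lam where
  chart := h.chart
  sub := h.sub
  ne := h.ne
  w0 := h.w0
  base := h.base
  zero := h0
  legal := fun K => (h.legal K).mono fun n hn c hc hcK => hn c (hD hc) hcK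
  prof :=
    { up := fun K ε hε => (h.prof.up K ε hε).mono fun n hn p hp hpK i hi => hn p (hD hp) hpK i hi
      num := fun K ε hε => (h.prof.num K ε hε).mono fun n hn q hq hqK p hp hpK hqp i hi =>
        hn q (hD hq) hqK p (hD hp) hpK hqp i hi
      root := fun K ε hε => (h.prof.root K ε hε).mono fun n hn p hp hpK => hn p (hD hp) hpK }
  lam0 := h.lam0
  T0 := h.T0
  lip := fun c hc c' hc' => h.lip c (hD hc) c' (hD hc')
  anti := fun c hc c' hc' => h.anti c (hD hc) c' (hD hc')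
  sharp := fun c hc c' hc' => h.sharp c (hD hc) c' (hD hc')
  submod := fun c hc c' hc' hi hs => h.submod c (hD hc) c' (hD hc') (hD hi) (hD hs)

theorem leg_norm {m : ℕ} {M : Mons m} {R : ℝ} (hR : 0 ≤ R) {p : Fin m → ℝ} (hp : p ∈ Leg M R) :
    ‖p‖ ≤ R := by
  rw [pi_norm_le_iff_of_nonneg hR]
  intro k
  rw [Real.norm_eq_abs, abs_of_nonneg (hp.1.nonneg k)]
  exact hp.2 k

/-- thickness near a record point -/
theorem ev17 {θ : Fin 3 → ℝ} {w0 v1 : ℝ} (h0 : 0 < v1) (h1 : v1 < 1) {d : Fin 18 → ℝ}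
    (hd : θ 0 = 1 → d 17 ≤ 0) :
    ∀ᶠ h in 𝓝[>] (0:ℝ), (pathW θ w0 v1 + h • d) 17 ≤ 9 * w0 + max 0 (1 - θ 0) := by
  have e : ∀ h : ℝ, (pathW θ w0 v1 + h • d) 17 = 9 * w0 + (1 - θ 0) * v1 + h * d 17 := fun h => by
    have : pathW θ w0 v1 17 = 9 * w0 + (1 - θ 0) * v1 := by rw [pathW_nat, natW_N]
    simp only [Pi.add_apply, Pi.smul_apply, smul_eq_mul, this]
  rcases lt_trichotomy (θ 0) 1 with h3 | h3 | h3
  · have h4 : 0 < (1 - θ 0) * (1 - v1) := mul_pos (by linarith) (by linarith)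
    filter_upwards [ev_small (C := d 17) h4] with h a2
    rw [e]
    have h5 : 1 - θ 0 ≤ max 0 (1 - θ 0) := le_max_right _ _
    nlinarith [a2.2]
  · filter_upwards [ev_small (C := 1) one_pos] with h a2
    rw [e, h3]
    have h5 := hd h3
    have h6 : (0:ℝ) ≤ max 0 (1 - 1) := le_max_left _ _
    nlinarith [a2.1]
  · have h4 : 0 < (θ 0 - 1) * v1 := mul_pos (by linarith) h0
    filter_upwards [ev_small (C := d 17) h4] with h a2
    rw [e]
    have h5 : (0:ℝ) ≤ max 0 (1 - θ 0) := le_max_left _ _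
    nlinarith [a2.2]

/-- D-max set after a zoom -/
def PDz (θ : Fin 3 → ℝ) (w0 R : ℝ) : Set (Fin 18 → ℝ) :=
  {a | a ∈ Leg monW R ∧ (θ 0 = 1 → a 17 ≤ 9 * w0)}

theorem pdz_pdn (θ : Fin 3 → ℝ) (w0 R : ℝ) : Pdn θ w0 R (PDz θ w0 R) := by
  intro v1 _ _
  refine ⟨1, one_pos, fun x hx _ _ _ _ h17 => ⟨hx, fun h => ?_⟩⟩
  rw [h, sub_self, max_self] at h17
  linarith

theorem path0_17 (θ : Fin 3 → ℝ) (w0 : ℝ) : pathW θ w0 0 17 = 9 * w0 := by
  rw [pathW_nat, natW_N]; ring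

theorem path_sub0 (θ : Fin 3 → ℝ) (w0 v : ℝ) :
    -pathW θ w0 0 + pathW θ w0 v = v • btW θ := by
  funext k
  simp only [Pi.add_apply, Pi.neg_apply, Pi.smul_apply, smul_eq_mul, pathW_eq]; ring

/-- legal boxes relative to the frame are in the cone -/
theorem leg_cw {θ : Fin 3 → ℝ} {w0 R : ℝ} {a : Fin 18 → ℝ} (ha : a ∈ Leg monW R) :
    -pathW θ w0 0 + a ∈ CW := by
  have h1 : Nat QW (fun _ => True) (-pathW θ w0 0) := by
    have := (path_nat (fun _ => True) θ w0 0).smul (-1)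
    rwa [neg_one_smul] at this
  refine cn_add h1.mem fun w _ => ?_
  exact ha.1.wall w.1 w.2.1 w.2.2


section zoom

variable {θ : Fin 3 → ℝ} {g : ℝ} {q : Fin 3 → ℝ} {V T : Set (Fin 18)} {w0 R T0 : ℝ}
  {B B' : Base} {I0 I : ℕ → Finset (ℕ × ℝ)} {κ : ℕ → ℝ} {u : ℕ → Fin 18 → ℝ}
  {F : ℕ → ℕ × ℝ → FW} {X : ℕ → Fin 18 → ℝ} {w : ℕ → ℝ} {Tn To : ℕ → ℝ}
  {PD : Set (Fin 18 → ℝ)} {ν own : (Fin 18 → ℝ) → ℝ} {c₀ : ℝ}

/-- the base after the zoom -/
def Xz (θ : Fin 3 → ℝ) (w0 v1 : ℝ) (X : ℕ → Fin 18 → ℝ) (w h : ℕ → ℝ) (n : ℕ) : Fin 18 → ℝ :=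
  X n + w n • pathW θ w0 v1 + (w n * h n) • -pathW θ w0 0

/-- box `a` after the zoom = box `r0 + h (a - f0)` before -/
theorem Xz_add (θ : Fin 3 → ℝ) (w0 v1 : ℝ) (X : ℕ → Fin 18 → ℝ) (w h : ℕ → ℝ) (n : ℕ)
    (a : Fin 18 → ℝ) : Xz θ w0 v1 X w h n + (w n * h n) • a =
      X n + w n • (pathW θ w0 v1 + h n • (-pathW θ w0 0 + a)) := by
  unfold Xz
  rw [add_smul_shift, zoom_zoom]

/-- the base after the zoom is natural -/
theorem bas_zoom (hX : AwZ146.BasX monW monW monW X w) (v1 : ℝ) (h : ℕ → ℝ) :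
    AwZ146.BasX monW monW monW (Xz θ w0 v1 X w h) (fun n => w n * h n) where
  sub := hX.sub
  act := fun k e he n => by
    have a1 := hX.act k e he n
    have a2 : pathW θ w0 v1 k = ∑ s, (e s : ℝ) * pathW θ w0 v1 s :=
      path_nat (fun _ => True) θ w0 v1 ⟨k, e, he⟩ trivial
    have a3 : pathW θ w0 0 k = ∑ s, (e s : ℝ) * pathW θ w0 0 s :=
      path_nat (fun _ => True) θ w0 0 ⟨k, e, he⟩ trivial
    simp only [Xz, Pi.add_apply, Pi.smul_apply, Pi.neg_apply, smul_eq_mul]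
    calc X n k + w n * pathW θ w0 v1 k + w n * h n * -pathW θ w0 0 k
        = (∑ s, (e s : ℝ) * X n s) + w n * (∑ s, (e s : ℝ) * pathW θ w0 v1 s) +
          w n * h n * -(∑ s, (e s : ℝ) * pathW θ w0 0 s) := by rw [← a1, ← a2, ← a3]
      _ = _ := by
          rw [Finset.mul_sum, ← Finset.sum_neg_distrib, Finset.mul_sum, ← Finset.sum_add_distrib,
            ← Finset.sum_add_distrib]
          exact Finset.sum_congr rfl fun s _ => by ring
  gap := fun k e he hne => absurd he hne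

/-- the constants of D-max after the zoom -/
noncomputable def cz (θ : Fin 3 → ℝ) (g : ℝ) (q : Fin 3 → ℝ) (w0 : ℝ)
    (lam : (Fin 18 → ℝ) → ℝ) : ℝ := -lam (-pathW θ w0 0) - DW g 0 q w0 (pathW θ w0 0)

theorem DW_sub0 (g : ℝ) (q : Fin 3 → ℝ) (θ : Fin 3 → ℝ) (w0 : ℝ) (a : Fin 18 → ℝ) :
    DlW g q (-pathW θ w0 0 + a) = DW g 0 q w0 a - DW g 0 q w0 (pathW θ w0 0) := by
  have := DW_add g q w0 (pathW θ w0 0) (-pathW θ w0 0 + a)
  rw [add_neg_cancel_left] at this
  linarith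

/-- **the extended window after the zoom** -/
theorem ext_zoom (big : BigW θ w0 R T0) {V' : Set (Fin 18)}
    (hV : ∀ k ∈ V', k ≠ 0) {B₂ : Base} {h : ℕ → ℝ} {v1 : ℝ} {T₁ : ℕ → ℝ}
    {lam lo : (Fin 18 → ℝ) → ℝ}
    (hwin : ZWin B B₂ I0 I (coU u κ F) monW 67 (fun n => X n + w n • pathW θ w0 v1)
      (fun n => w n * h n) CW T₁ lam)
    {T₂ : ℕ → ℝ} (hT₂ : ∀ n, 0 < T₂ n)
    (hO : ZProf B₂ I (fun n c => zolb B I0 (coU u κ F) monW 67 X w n
      (pathW θ w0 v1 + h n • c)) CW T₂ lo)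
    (hP : Prf CW lam lo 18)
    (osub : ∀ p ∈ CW, ∀ q ∈ CW, p ⊓ q ∈ CW → p ⊔ q ∈ CW → lo p + lo q ≤ lo (p ⊔ q) + lo (p ⊓ q))
    (oanti : ∀ p ∈ CW, ∀ q ∈ CW, p ≤ q → lo q ≤ lo p)
    (hrec : ∀ σ : ℝ, lam (σ • btW θ) = σ * DlW g q (btW θ))
    (hdm : ∀ d ∈ QdW θ, lam d ≤ DlW g q d)
    (hup : ∀ c ∈ CW, lo c ≤ -c 0)
    (hfull : ∀ c ∈ CW, (∀ k ∈ V', c k ≤ btW θ k * c 0) → lo c = -c 0) :
    ExtZ B B₂ I0 I (coU u κ F) monW 67 (Xz θ w0 v1 X w h) (fun n => w n * h n) monW R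
      (fun n => T₁ n * B₂.d n ^ (-lam (-pathW θ w0 0)))
      (fun n => T₂ n * B₂.d n ^ (-lo (-pathW θ w0 0)) * B₂.d n ^ (lo (-pathW θ w0 0) + 1))
      0 w0 0 (PDz θ w0 R) (DW g 0 q w0)
      (pathW θ w0) (ownW θ w0 R fun k => k ∈ V') (fun v => DW g 0 q w0 (pathW θ w0 v))
      (fun k => k ∈ (∅ : Set (Fin 18)))
      (fun a => lam (-pathW θ w0 0 + a) - lam (-pathW θ w0 0))
      (fun a => lo (-pathW θ w0 0 + a) + 1) (cz θ g q w0 lam) := by
  have R0 : 0 ≤ R := by linarith [big.wR, big.w0pos]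
  set f0 := pathW θ w0 0 with hf0
  have hf0m : -f0 ∈ CW := by
    have := (path_nat (fun _ => True) θ w0 0).smul (-1)
    rw [neg_one_smul] at this
    exact this.mem
  have hcw : ∀ a ∈ Leg monW R, -f0 + a ∈ CW := fun a ha => leg_cw ha
  have hf00 : f0 0 = w0 := by rw [hf0, path_zero, add_zero]
  have hle : ∀ {p q : Fin 18 → ℝ}, p ≤ q → -f0 + p ≤ -f0 + q := fun h => add_le_add_right h _
  have hinf : ∀ p q : Fin 18 → ℝ, (-f0 + p) ⊓ (-f0 + q) = -f0 + (p ⊓ q) := fun p q =>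
    (add_inf _ _ _).symm
  have hsup : ∀ p q : Fin 18 → ℝ, (-f0 + p) ⊔ (-f0 + q) = -f0 + (p ⊔ q) := fun p q =>
    (add_sup _ _ _).symm
  refine
    { win := ?_
      R0 := R0
      s0 := le_rfl
      s1 := zero_le_one
      oprof := ?_
      olip := ?_
      oanti := ?_
      own_le := ?_
      osub := ?_
      dmax := ?_
      record := ?_
      own_rot := ?_
      own_up := ?_
      own_tw := ?_ }
  · exact win_restr (hwin.shift hf0m) (fun a ha => hcw a ha) ⟨⟨fun k => le_rfl, fun k e he => by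
      simp⟩, fun k => R0⟩
  · have h1 := zprof_shift hO (-f0)
    have e1 : (fun n a => zolb B I0 (coU u κ F) monW 67 X w n
        (pathW θ w0 v1 + h n • (-f0 + a))) =
        zolb B I0 (coU u κ F) monW 67 (Xz θ w0 v1 X w h) (fun n => w n * h n) := by
      funext n a x
      unfold zolb zlab
      rw [Xz_add]
    rw [e1] at h1
    have h2 := TProf.ofZ h1 (fun n => mul_pos (hT₂ n) (Real.rpow_pos_of_pos (B₂.pos n) _))
      (P := Leg monW R) (fun a ha => hcw a ha) (R := R) fun a ha => leg_norm R0 ha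
    refine (h2.shift (lo (-f0) + 1)).congr fun p _ => ?_
    ring
  · intro p hp q hq
    have h1 := hP.olip _ (hcw p hp) _ (hcw q hq)
    have e1 : -f0 + p - (-f0 + q) = p - q := by abel
    rw [e1] at h1
    have e2 : lo (-f0 + p) + 1 - (lo (-f0 + q) + 1) = lo (-f0 + p) - lo (-f0 + q) := by ring
    rw [e2]; exact_mod_cast h1
  · intro p hp q hq hpq
    have := oanti _ (hcw p hp) _ (hcw q hq) (hle hpq)
    linarith
  · intro p hp q hq hpq
    have := hP.own_le _ (hcw p hp) _ (hcw q hq) (hle hpq)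
    linarith
  · intro p hp q hq hi
    have h1 := osub _ (hcw p hp) _ (hcw q hq) (by rw [hinf]; exact hcw _ hi)
      (by rw [hsup]; exact hcw _ (Leg.sup hp hq))
    rw [hinf, hsup] at h1
    linarith
  · intro p hp hpl
    have h1 := hdm (-f0 + p) ⟨hcw p hpl, fun h => by
      have := hp.2 h
      simp only [Pi.add_apply, Pi.neg_apply]
      rw [hf0, path0_17]; linarith⟩
    rw [DW_sub0] at h1
    unfold cz
    linarith
  · intro v v0 v1'
    refine ⟨big.path_leg v0 v1', ?_⟩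
    have h1 := hrec v
    have h2 := DW_sub0 g q θ w0 (pathW θ w0 v)
    rw [path_sub0, map_smul, smul_eq_mul] at h2
    show _ ≤ lam (-f0 + pathW θ w0 v) - lam (-f0)
    rw [hf0, path_sub0, h1]
    unfold cz
    linarith
  · intro p hp v v0 v1' hpv hk
    have h1 := hfull (-f0 + p) (hcw p hp) fun k hkV => by
      have h2 := hk k
      rw [own_in (hV k hkV) hkV] at h2
      simp only [Pi.add_apply, Pi.neg_apply, hf00, hpv]
      rw [hf0]
      rw [pathW_eq] at h2 ⊢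
      nlinarith
    rw [h1]
    simp only [Pi.add_apply, Pi.neg_apply, hf00, hpv]
    ring
  · intro p hp v v0 v1' hpv
    have h1 := hup (-f0 + p) (hcw p hp)
    simp only [Pi.add_apply, Pi.neg_apply, hf00, hpv] at h1
    linarith
  · intro p hp v v0 v1' hpv hk
    obtain ⟨k, hk, -⟩ := hk
    exact absurd hk (by simp)

/-- **D-max for all gauges after the zoom** -/
theorem gd_zoom (H : ZW θ g q V T w0 R T0 B B' I0 I κ u F X w Tn To PD ν own c₀)
    {v1 : ℝ} (h0 : 0 < v1) (h1 : v1 < 1) {k : ℕ → ℝ} (kpos : ∀ l, 0 < k l)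
    (klim : Tendsto k atTop (𝓝 0)) (lam : (Fin 18 → ℝ) → ℝ) :
    ∃ k1 : ℕ → ℕ, Tendsto k1 U atTop ∧ ∀ k' : ℕ → ℕ, Tendsto k' U atTop →
      (∀ᶠ n in (U : Filter ℕ), k' n ≤ k1 n) → ∀ B₂ : Base,
        (∀ n, B₂.d n = B'.d n ^ k (k' n)) →
        GdG B B₂ I κ u F (Xz θ w0 v1 X w (fun n => k (k' n)))
          (fun n => Tn n * B'.d n ^ (-ν (pathW θ w0 v1)) * B₂.d n ^ (-lam (-pathW θ w0 0)))
          (PDz θ w0 R) (DW g 0 q w0) (cz θ g q w0 lam) := by
  obtain ⟨C, hC, hG'⟩ := ZW.gd_unif H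
  obtain ⟨δ, hδ, hG⟩ := hG' v1 h0 h1
  obtain ⟨k1, hk1, hk2⟩ := exists_diag (fun l n => ∀ x ∈ Leg monW R,
    (∀ j, |x j - pathW θ w0 v1 j| ≤ δ) → x 17 ≤ 9 * w0 + max 0 (1 - θ 0) →
      GdAt B B' I κ u F X Tn C (l + 1) n x (c₀ + DW g 0 q w0 x + k l / (l + 1))) (fun l =>
    hG (l + 1) (k l / (l + 1)) (by
      have : (0 : ℝ) ≤ l := Nat.cast_nonneg l
      linarith) (div_pos (kpos l) (by positivity)))
  refine ⟨k1, hk1, fun k' hk' hle B₂ hB₂ => ?_⟩
  rw [gdAt_iff]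
  refine ⟨C, hC, fun x hx K hK ε hε => ?_⟩
  set f0 := pathW θ w0 0 with hf0
  set r0 := pathW θ w0 v1 with hr0
  have hxc : -f0 + x ∈ CW := leg_cw hx.1
  have hd17 : θ 0 = 1 → (-f0 + x) 17 ≤ 0 := fun h => by
    have := hx.2 h
    simp only [Pi.add_apply, Pi.neg_apply]
    rw [hf0, path0_17]; linarith
  have klim' : Tendsto (fun n => k (k' n)) U (𝓝[>] 0) :=
    tendsto_nhdsWithin_iff.2 ⟨klim.comp hk', Eventually.of_forall fun l => kpos _⟩
  obtain ⟨e0, he0, hloc⟩ := path_loc H.big h0.le h1.le ‖-f0 + x‖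
  obtain ⟨N, hN⟩ := exists_nat_ge (max K (1 / ε))
  filter_upwards [hk2, hle, hk'.eventually_ge_atTop N, klim'.eventually (ev_small (C := 1) he0),
    klim'.eventually (ev_small (C := ‖-f0 + x‖) hδ), klim'.eventually (ev17 (w0 := w0) h0 h1 hd17)]
    with n a1 a2 a3 a4 a5 a6
  set l := k' n with hl
  have hlN : (N : ℝ) ≤ l := by exact_mod_cast a3
  have hlK : K ≤ l := (le_max_left _ _).trans (hN.trans hlN)
  have hlε : 1 / ε ≤ l := (le_max_right _ _).trans (hN.trans hlN)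
  have hmem : r0 + k l • (-f0 + x) ∈ Leg monW R :=
    hloc (k l) a4.1 (by linarith [a4.2]) _ hxc le_rfl
  have key := a1 l a2 _ hmem (fun j => by
    have e : (r0 + k l • (-f0 + x)) j - pathW θ w0 v1 j = k l * (-f0 + x) j := by
      rw [hr0]; simp only [Pi.add_apply, Pi.smul_apply, smul_eq_mul]; ring
    rw [e, abs_mul, abs_of_pos (kpos l)]
    have h3 := norm_le_pi_norm (-f0 + x) j
    rw [Real.norm_eq_abs] at h3
    exact (mul_le_mul_of_nonneg_left h3 (kpos l).le).trans a5.2.le) a6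
  have hpos : 0 < B'.d n := B'.pos n
  have hBp : 0 < B.d n := B.pos n
  -- the bound
  intro e he i hi G hGs hbox
  refine (key e he i hi G hGs fun j hj p => (hbox j hj p).trans ?_).trans ?_
  · have e1 : B.d n ^ Xz θ w0 v1 X w (fun n => k (k' n)) n p * B₂.d n ^ x p =
        B.d n ^ X n p * B'.d n ^ (r0 + k l • (-f0 + x)) p := by
      rw [hB₂, H.ext.win.base, ← Real.rpow_mul hBp.le, ← Real.rpow_mul hBp.le,
        ← Real.rpow_mul hBp.le, ← Real.rpow_add hBp, ← Real.rpow_add hBp]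
      congr 1
      simp only [Xz, Pi.add_apply, Pi.smul_apply, Pi.neg_apply, smul_eq_mul]
      rw [← hl, ← hf0, ← hr0]
      ring
    rw [e1]
    exact mul_le_mul_of_nonneg_right (by linarith) (mul_nonneg (Real.rpow_nonneg hBp.le _)
      (Real.rpow_nonneg hpos.le _))
  · have hrec := H.fact.record_eq h0 h1
    have e2 : c₀ + DW g 0 q w0 (r0 + k l • (-f0 + x)) + k l / (l + 1) =
        ν r0 + k l * (DW g 0 q w0 x - DW g 0 q w0 f0 + 1 / (l + 1)) := by
      rw [DW_add, map_smul, smul_eq_mul, hf0, DW_sub0, hr0, hrec]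
      ring
    have e3 : Tn n * B'.d n ^ (-ν (pathW θ w0 v1)) * B₂.d n ^ (-lam (-pathW θ w0 0)) *
        B₂.d n ^ (-(cz θ g q w0 lam + DW g 0 q w0 x + ε)) =
        Tn n * B'.d n ^ (-(ν r0 + k l * (DW g 0 q w0 x - DW g 0 q w0 f0 + ε))) := by
      rw [hB₂, mul_assoc, mul_assoc, ← Real.rpow_add (Real.rpow_pos_of_pos hpos _),
        ← Real.rpow_mul hpos.le, ← Real.rpow_add hpos]
      congr 2
      unfold cz
      rw [← hl, hf0]
      ring
    rw [e2, e3]
    refine mul_le_mul_of_nonneg_left (Real.rpow_le_rpow_of_exponent_ge hpos (B'.lt n).le ?_)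
      (H.ext.win.T0 n).le
    have h5 : 1 / ((l : ℝ) + 1) ≤ ε := by
      rw [div_le_iff₀ (by positivity)]
      rw [div_le_iff₀ hε] at hlε
      nlinarith
    have h6 := mul_le_mul_of_nonneg_left h5 (kpos l).le
    linarith

/-- **ZOOM**: without own loss of the uncapped slot `i` an object without the visible slot `i` exists -/
theorem ZW.zoom (H : ZW θ g q V T w0 R T0 B B' I0 I κ u F X w Tn To PD ν own c₀)
    {Zs : Set (Fin 18)} (hZ : ZeroS (Leg monW R) ν own Zs) {v1 : ℝ} (h0 : 0 < v1) (h1 : v1 < 1)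
    (hcl : CapCl V) {i : Fin 18} (hi : i ∈ V) (hun : Unc V i) {hh : ℕ → ℝ}
    (hz : Zer own (bO θ w0 R V) (eO θ V) i v1 hh) : Ob θ g q (V \ {i}) ∅ Zs := by
  obtain ⟨φ, hφ, lam, lo, H1, H2⟩ := exists_joint H.fact.prf cn_closed cn_zero
    (path_loc H.big h0.le h1.le) hz.1 hz.2.1
  set k : ℕ → ℝ := fun l => hh (φ l) with hk
  have kpos : ∀ l, 0 < k l := fun l => hz.1 _
  have klim : Tendsto k atTop (𝓝 0) := hz.2.1.comp hφ.tendsto_atTop
  have hz' : Zer own (bO θ w0 R V) (eO θ V) i v1 k :=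
    ⟨kpos, klim, fun a y hy => (hz.2.2 a y hy).comp hφ.tendsto_atTop⟩
  obtain ⟨hrec, hdm⟩ := ZW.tan_rec H h0 h1 kpos klim H1
  have hup := ZW.tan_own H h0 h1 kpos klim H2
  have hfull := ZW.tan_own_eq H h0 h1 hcl hi hun hz' H2
  have hZ' := ZW.tan_zero H h0 h1 kpos klim hZ H1 H2
  have hP := H.fact.prf.tan kpos H1 H2
  obtain ⟨Hc, hHc, hHc'⟩ := H.card
  obtain ⟨k0, hk0, hk0'⟩ := H.ext.win.exists_zoom (x := fun _ => pathW θ w0 v1)
    (b := ‖pathW θ w0 v1‖) (fun _ => le_rfl) kpos klim cn_zero H1 H.ext.oprof.pos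
    H.ext.oprof.toZ cn_zero H2 (fun i n => if i = 0 then |κ n|⁻¹ else Hc n) (fun i => by
      by_cases hi : i = 0
      · simp only [hi, if_true]; exact H.κ0
      · simp only [hi, if_false]; exact hHc)
  obtain ⟨k1, hk1, hk1'⟩ := gd_zoom H h0 h1 kpos klim lam
  set k' : ℕ → ℕ := fun n => min (k0 n) (k1 n) with hk'
  have hk'l : Tendsto k' U atTop := Filter.tendsto_atTop.2 fun K => by
    filter_upwards [hk0.eventually_ge_atTop K, hk1.eventually_ge_atTop K] with n a b using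
      le_min a b
  obtain ⟨B₂, b1, b2, b3, b4, b5⟩ := hk0' k' hk'l (Eventually.of_forall fun n => min_le_left _ _)
  have hgd := hk1' k' hk'l (Eventually.of_forall fun n => min_le_right _ _) B₂ b1
  have hE := ext_zoom (V' := V \ {i}) H.big (fun p hp => ZW.V0 H hp.1) b4
    (fun n => mul_pos (H.ext.oprof.pos n) (Real.rpow_pos_of_pos (B'.pos n) _)) b5 hP
    (fun p hp q hq hi hs => H2.submod kpos (fun a ha b hb hi _ => H.ext.osub a ha b hb hi)
      hp hq hi hs)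
    (fun p hp q hq hpq => H2.anti kpos (fun l c c' hcc => Qg926.add_smul_mono (kpos l).le hcc)
      H.ext.oanti p hp q hq hpq)
    hrec hdm hup
    (fun c hc hck => hfull c hc fun p hp hpi => hck p ⟨hp, fun h => hpi h⟩)
  refine ⟨w0, R, T0, B, B₂, I0, I, κ, u, F, _, _, _, _, _, _, _, _,
    { th1 := H.th1
      q1 := H.q1
      q2 := H.q2
      q0 := H.q0
      qg := H.qg
      qθ := H.qθ
      vis := fun p hp => H.vis p hp.1
      tied := fun p hp => absurd hp (by simp)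
      u0 := H.u0
      κ1 := H.κ1
      κ0 := by simpa using b3 0
      big := H.big
      bas := bas_zoom H.bas v1 _
      pdn := pdz_pdn θ w0 R
      ext := hE
      gd := hgd
      card := ⟨Hc, by simpa using b3 1, hHc'⟩ }, ?_⟩
  intro a ha b hb hab
  obtain ⟨z1, z2⟩ := hZ' _ (leg_cw (θ := θ) (w0 := w0) ha) _ (leg_cw (θ := θ) (w0 := w0) hb)
    fun p hp => by simp only [Pi.add_apply, hab p hp]
  exact ⟨by simp only [z1], by simp only [z2]⟩

/-- **THE OWN DICHOTOMY** -/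
theorem seamOwnC : SeamOwnC := by
  have key : ∀ (N : ℕ) (θ : Fin 3 → ℝ) (g : ℝ) (q : Fin 3 → ℝ) (V Zs : Set (Fin 18)),
      V.ncard ≤ N → CapCl V → Ob θ g q V ∅ Zs →
      ∃ V' : Set (Fin 18), V' ⊆ V ∧ CapCl V' ∧ SlotOkW θ (fun k => k ∈ V') (fun k => k ∈ V') ∧
        Ob θ g q V' V' Zs := by
    intro N
    induction N with
    | zero =>
      intro θ g q V Zs hN hcl h
      have hV : V = ∅ := by
        have := Nat.le_zero.1 hN
        rwa [Set.ncard_eq_zero (Set.toFinite V)] at this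
      subst hV
      exact ⟨∅, subset_rfl, hcl, slotOk_empty θ, h⟩
    | succ N ih =>
      intro θ g q V Zs hN hcl h
      obtain ⟨w0, R, T0, B, B', I0, I, κ, u, F, X, w, Tn, To, PD, ν, own, c₀, H, hZ⟩ := h
      by_cases hvis : ∀ i ∈ V, Unc V i → ∀ᵐ v : ℝ, v ∈ Set.Ioo (0:ℝ) 1 →
          Vis own (bO θ w0 R V) (eO θ V) i v
      · refine ⟨V, subset_rfl, hcl, ⟨fun k hk => hk, H.vis, fun k hk h => absurd hk h⟩,
          w0, R, T0, B, B', I0, I, κ, u, F, X, w, Tn, To, PD, ν, own, c₀,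
          ZW.chg H H.vis (fun k hk => hk) (fun p hp v h0 h1 hpv hk =>
            H.fact.own_rot p hp v h0 h1 hpv hk)
          (fun p hp v h0 h1 hpv hk => ZW.tw_of_vis H hcl hvis hp h0 h1 hpv hk), hZ⟩
      · simp only [not_forall] at hvis
        obtain ⟨i, hi, hun, hnv⟩ := hvis
        have hi0 : i ≠ 0 := ZW.V0 H hi
        have hr : RaiseLeg (Leg monW R) (bO θ w0 R V) (eO θ V) i 0 1 1 := by
          intro v v0 v1 y y0 y1
          rw [own_lin]
          exact own_leg H.big hcl v0.le v1.le hi0 hi y0 y1 (Or.inr hun)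
        have hcase := own_cases_Leg (P := Leg monW R) (own := own) (b := bO θ w0 R V)
          (e := eO θ V) (j := i) (kz := 0) (α := 0) (β := 1) (y₁ := 1) (K := (18 : ℕ))
          (by positivity) (fun p hp q hq => H.ext.olip p hp q hq) (ext_sup4 H.ext) H.ext.oanti
          one_pos hr (ZW.eO_nonneg H)
          (by simp only [eO, if_neg hi0, if_pos hi]; exact (H.vis i hi).2) hi0.symm
          (by simp [eO])
        rcases hcase with hc | hc
        · exact absurd hc hnv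
        · obtain ⟨v, hv, -, hh, hz⟩ := hc (fun _ => True) (Eventually.of_forall fun _ _ => trivial)
          have hO := ZW.zoom H hZ hv.1 hv.2 hcl hi hun hz
          have hlt : (V \ {i}).ncard ≤ N := by
            have h4 : V \ {i} ⊂ V := ⟨Set.sdiff_subset, fun hc => (hc hi).2 rfl⟩
            have := Set.ncard_lt_ncard h4 (Set.toFinite V)
            omega
          obtain ⟨V', g1, g2, g3, g4⟩ := ih θ g q (V \ {i}) Zs hlt (capCl_diff hcl hun) hO
          exact ⟨V', g1.trans Set.sdiff_subset, g2, g3, g4⟩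
  exact fun θ g q V Zs hcl h => key V.ncard θ g q V Zs le_rfl hcl h

end zoom

end Crest.Agent.R136.OwW831
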