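import Crest.Agent.R136.Dec4_146

/-!
# R136: the own dichotomy (helper831)

`own` = own profile (incidences of one line), natural path `v ↦ b + v • e` along which a slot `j` is
full; `oloss own b e j v y` = own loss of the slot `j` at the distance `y` beyond the path.

`own_dich` : at a.e. `v` either the loss is `≥ c y` for all small `y` (the slot rotates visibly, at
every scale), or there is a sequence of scales `h l → 0` along which the loss vanishes at every base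
point `v + a h l` and at every distance `u h l` (the slot is constant along the lines, infinite gap).
-/

set_option autoImplicit false
set_option linter.unusedSectionVars false
set_option linter.unusedVariables false

open Filter Topology MeasureTheory Set

namespace Crest.Agent.R136.Own831

open Crest.Agent.R136.Dec146

variable {ι : Type*} [Fintype ι] [DecidableEq ι]

/-- own loss of the slot `j` at distance `y` beyond the natural path -/
def oloss (own : (ι → ℝ) → ℝ) (b e : ι → ℝ) (j : ι) (v y : ℝ) : ℝ :=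
  own (b + v • e) - own (b + v • e + y • Pi.single j 1)

/-- the slot `j` rotates visibly at the level `v`, at every scale -/
def Vis (own : (ι → ℝ) → ℝ) (b e : ι → ℝ) (j : ι) (v : ℝ) : Prop :=
  ∃ c : ℝ, 0 < c ∧ ∃ y₀ : ℝ, 0 < y₀ ∧ ∀ y : ℝ, 0 < y → y ≤ y₀ → c * y ≤ oloss own b e j v y

/-- the slot `j` has no own loss near the level `v` along the scales `h l` -/
def Zer (own : (ι → ℝ) → ℝ) (b e : ι → ℝ) (j : ι) (v : ℝ) (h : ℕ → ℝ) : Prop :=
  (∀ l, 0 < h l) ∧ Tendsto h atTop (𝓝 0) ∧ ∀ a u : ℝ, 0 ≤ u →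
    Tendsto (fun l => oloss own b e j (v + a * h l) (u * h l) / h l) atTop (𝓝 0)

/-- `L v = v • e` -/
noncomputable def Ln (e : ι → ℝ) : ℝ →ₗ[ℝ] (ι → ℝ) := LinearMap.toSpanSingleton ℝ (ι → ℝ) e

theorem Ln_apply (e : ι → ℝ) (v : ℝ) : Ln e v = v • e := by
  simp [Ln, LinearMap.toSpanSingleton_apply]

/-- stationarity of the loss along the path -/
theorem stat_oloss {own : (ι → ℝ) → ℝ} {b e : ι → ℝ} {LEG : Set (ι → ℝ)} {j : ι}
    (he : ∀ i, 0 ≤ e i) (hej : 0 < e j) (h0 : (0 : ι → ℝ) ∈ LEG)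
    (hj : ∀ y : ℝ, 0 ≤ y → y • (Pi.single j 1 : ι → ℝ) ∈ LEG) {v : ℝ}
    (hst : StatAt own b (Ln e) LEG v) (a : ℝ) {u : ℝ} (hu : 0 ≤ u) :
    Tendsto (fun h => (oloss own b e j (v + a * h) (u * h) - oloss own b e j v (u * h)) / h)
      (𝓝[>] 0) (𝓝 0) := by
  have hm : ((0 : ι → ℝ), u • (Pi.single j 1 : ι → ℝ), u / e j) ∈ Mv (Ln e) LEG := by
    refine ⟨h0, by simpa using hj u hu, Or.inl fun i => ?_⟩
    by_cases hi : i = j
    · subst hi
      left
      refine ⟨rfl, ?_, ?_⟩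
      · rw [Ln_apply]; simp; field_simp
      · simp [hu]
    · right
      refine ⟨by simp [hi], le_rfl, ?_⟩
      rw [Ln_apply]
      exact mul_nonneg (div_nonneg hu hej.le) (he i)
  refine (hst _ hm a).congr fun h => ?_
  rw [GG_eq]
  simp only [Ln_apply, add_zero, smul_zero, zero_add, oloss]
  congr 1
  have e1 : b + v • e + h • a • e = b + (v + a * h) • e := by
    rw [add_smul, mul_comm, mul_smul, add_assoc]
  have e2 : b + v • e + h • (a • e + u • (Pi.single j 1 : ι → ℝ)) =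
      b + (v + a * h) • e + (u * h) • (Pi.single j 1 : ι → ℝ) := by
    rw [smul_add, ← add_assoc, e1, mul_comm u h, mul_smul]
  have e3 : h • u • (Pi.single j 1 : ι → ℝ) = (u * h) • (Pi.single j 1 : ι → ℝ) := by
    rw [mul_comm, mul_smul]
  rw [e1, e2, e3]

/-- scales without loss from a vanishing lower rate -/
theorem exists_scales {φ : ℝ → ℝ} (hmono : ∃ y₁ : ℝ, 0 < y₁ ∧ ∀ y y' : ℝ, 0 ≤ y → y ≤ y' →
      y' ≤ y₁ → φ y ≤ φ y') (hφ0 : 0 ≤ φ 0)
    (h : ∀ c : ℝ, 0 < c → ∀ y₀ : ℝ, 0 < y₀ → ∃ y : ℝ, 0 < y ∧ y ≤ y₀ ∧ φ y < c * y) :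
    ∃ h : ℕ → ℝ, (∀ l, 0 < h l) ∧ Tendsto h atTop (𝓝 0) ∧ ∀ u : ℝ, 0 ≤ u →
      Tendsto (fun l => φ (u * h l) / h l) atTop (𝓝 0) := by
  obtain ⟨y₁, hy₁, hm⟩ := hmono
  have hl : ∀ l : ℕ, (0 : ℝ) < l + 1 := fun l => by positivity
  have h2 : ∀ l : ℕ, ∃ y : ℝ, 0 < y ∧ y ≤ min y₁ 1 ∧ φ y < (1 / ((l : ℝ) + 1) ^ 2) * y := fun l =>
    h _ (by have := hl l; positivity) _ (lt_min hy₁ one_pos)
  choose y hy0 hy1 hy2 using h2
  have hbd : ∀ l : ℕ, y l / ((l : ℝ) + 1) ≤ 1 / ((l : ℝ) + 1) := fun l =>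
    div_le_div_of_nonneg_right ((hy1 l).trans (min_le_right _ _)) (hl l).le
  refine ⟨fun l => y l / ((l : ℝ) + 1), fun l => div_pos (hy0 l) (hl l), ?_, ?_⟩
  · refine squeeze_zero (fun l => (div_pos (hy0 l) (hl l)).le) hbd ?_
    exact tendsto_one_div_add_atTop_nhds_zero_nat
  · intro u hu
    obtain ⟨l₀, hl₀⟩ := exists_nat_gt u
    have hz : Tendsto (fun l : ℕ => 1 / ((l : ℝ) + 1)) atTop (𝓝 0) :=
      tendsto_one_div_add_atTop_nhds_zero_nat
    have key : ∀ᶠ l : ℕ in atTop, 0 ≤ φ (u * (y l / ((l : ℝ) + 1))) / (y l / ((l : ℝ) + 1)) ∧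
        φ (u * (y l / ((l : ℝ) + 1))) / (y l / ((l : ℝ) + 1)) ≤ 1 / ((l : ℝ) + 1) := by
      filter_upwards [eventually_ge_atTop l₀] with l hl1
      have hlu : u ≤ (l : ℝ) + 1 := by
        have : (l₀ : ℝ) ≤ l := by exact_mod_cast hl1
        linarith
      have hhp : 0 < y l / ((l : ℝ) + 1) := div_pos (hy0 l) (hl l)
      have h3 : u * (y l / ((l : ℝ) + 1)) ≤ y l := by
        calc u * (y l / ((l : ℝ) + 1)) ≤ ((l : ℝ) + 1) * (y l / ((l : ℝ) + 1)) :=
              mul_le_mul_of_nonneg_right hlu hhp.le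
          _ = y l := by field_simp
      have h4 : 0 ≤ u * (y l / ((l : ℝ) + 1)) := mul_nonneg hu hhp.le
      have h5 := hm _ _ h4 h3 ((hy1 l).trans (min_le_left _ _))
      have h6 := hm 0 _ le_rfl h4 (h3.trans ((hy1 l).trans (min_le_left _ _)))
      refine ⟨div_nonneg (hφ0.trans h6) hhp.le, ?_⟩
      rw [div_le_iff₀ hhp]
      refine (h5.trans (hy2 l).le).trans (le_of_eq ?_)
      field_simp
    refine tendsto_of_tendsto_of_tendsto_of_le_of_le' tendsto_const_nhds hz ?_ ?_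
    · filter_upwards [key] with l h1 using h1.1
    · filter_upwards [key] with l h1 using h1.2

/-- **OWN DICHOTOMY** -/
theorem own_dich {own : (ι → ℝ) → ℝ} {K : ℝ} (hK : 0 ≤ K)
    (hlip : ∀ p q, |own p - own q| ≤ K * ‖p - q‖) {S LEG : Set (ι → ℝ)} (hsup : Sup4 own S)
    {b e : ι → ℝ} {j : ι} (hC : Cone (Ln e) LEG) {Ω : Set ℝ} (hΩ : Dom b (Ln e) LEG S Ω)
    (he : ∀ i, 0 ≤ e i) (hej : 0 < e j)
    (hj : ∀ y : ℝ, 0 ≤ y → y • (Pi.single j 1 : ι → ℝ) ∈ LEG)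
    (hanti : ∀ p ∈ S, ∀ q ∈ S, p ≤ q → own q ≤ own p) :
    ∀ᵐ v : ℝ, v ∈ Ω → Vis own b e j v ∨ ∃ h : ℕ → ℝ, Zer own b e j v h := by
  filter_upwards [ae_statAt (μ := volume) hK hlip hsup hC hΩ] with v hv hvΩ
  by_cases hvis : Vis own b e j v
  · exact Or.inl hvis
  right
  have hst := hv hvΩ
  have h0 : (0 : ι → ℝ) ∈ LEG := by simpa using hj 0 le_rfl
  -- monotone near `v`
  have hmono : ∃ y₁ : ℝ, 0 < y₁ ∧ ∀ y y' : ℝ, 0 ≤ y → y ≤ y' → y' ≤ y₁ →
      oloss own b e j v y ≤ oloss own b e j v y' := by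
    obtain ⟨ρ, hρ, r, hr, hS⟩ := hΩ v hvΩ
    have hmem : ∀ y : ℝ, 0 ≤ y → y ≤ r → b + v • e + y • (Pi.single j 1 : ι → ℝ) ∈ S := by
      intro y hy0 hyr
      have := hS v (by simpa using hρ.le) _ (hj y hy0) (by
        intro i
        by_cases hi : i = j
        · subst hi; simpa [abs_of_nonneg hy0] using hyr
        · simp [hi, hr.le])
      rwa [Ln_apply] at this
    refine ⟨r, hr, fun y y' hy hyy' hy' => ?_⟩
    unfold oloss
    have := hanti _ (hmem y hy (hyy'.trans hy')) _ (hmem y' (hy.trans hyy') hy') (by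
      intro i
      simp only [Pi.add_apply, Pi.smul_apply, smul_eq_mul]
      by_cases hi : i = j
      · subst hi; simpa using hyy'
      · simp [hi])
    linarith
  have hφ0 : 0 ≤ oloss own b e j v 0 := by simp [oloss]
  have hlow : ∀ c : ℝ, 0 < c → ∀ y₀ : ℝ, 0 < y₀ → ∃ y : ℝ, 0 < y ∧ y ≤ y₀ ∧
      oloss own b e j v y < c * y := by
    intro c hc y₀ hy₀
    by_contra hcon
    push Not at hcon
    exact hvis ⟨c, hc, y₀, hy₀, fun y h1 h2 => hcon y h1 h2⟩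
  obtain ⟨h, hh0, hht, hh⟩ := exists_scales hmono hφ0 hlow
  refine ⟨h, hh0, hht, fun a u hu => ?_⟩
  have hht' : Tendsto h atTop (𝓝[>] 0) :=
    tendsto_nhdsWithin_iff.2 ⟨hht, Eventually.of_forall hh0⟩
  have h1 := (stat_oloss he hej h0 hj hst a hu).comp hht'
  have h2 := h1.add (hh u hu)
  rw [add_zero] at h2
  refine h2.congr fun l => ?_
  simp only [Function.comp]
  rw [← add_div]
  congr 1
  ring

/-- the two cases globally: visible a.e., or zero loss at a point of any set of full measure -/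
theorem own_cases {own : (ι → ℝ) → ℝ} {K : ℝ} (hK : 0 ≤ K)
    (hlip : ∀ p q, |own p - own q| ≤ K * ‖p - q‖) {S LEG : Set (ι → ℝ)} (hsup : Sup4 own S)
    {b e : ι → ℝ} {j : ι} (hC : Cone (Ln e) LEG) {Ω : Set ℝ} (hΩ : Dom b (Ln e) LEG S Ω)
    (he : ∀ i, 0 ≤ e i) (hej : 0 < e j)
    (hj : ∀ y : ℝ, 0 ≤ y → y • (Pi.single j 1 : ι → ℝ) ∈ LEG)
    (hanti : ∀ p ∈ S, ∀ q ∈ S, p ≤ q → own q ≤ own p) :
    (∀ᵐ v : ℝ, v ∈ Ω → Vis own b e j v) ∨
      ∀ P : ℝ → Prop, (∀ᵐ v : ℝ, v ∈ Ω → P v) → ∃ v ∈ Ω, P v ∧ ∃ h : ℕ → ℝ, Zer own b e j v h := by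
  by_cases hvis : ∀ᵐ v : ℝ, v ∈ Ω → Vis own b e j v
  · exact Or.inl hvis
  right
  intro P hP
  by_contra hcon
  push Not at hcon
  apply hvis
  filter_upwards [own_dich hK hlip hsup hC hΩ he hej hj hanti, hP] with v h1 h2 hv
  rcases h1 hv with h3 | ⟨h, h3⟩
  · exact h3
  · exact absurd h3 (hcon v hv (h2 hv) h)

/-- consequence of `Vis` for tangents along any scales -/
theorem Vis.tan {own : (ι → ℝ) → ℝ} {b e : ι → ℝ} {j : ι} {v : ℝ} (hv : Vis own b e j v)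
    {h : ℕ → ℝ} (hh : ∀ l, 0 < h l) (hh0 : Tendsto h atTop (𝓝 0)) {F : Filter ℕ} [NeBot F]
    (hF : F ≤ atTop) :
    ∃ c : ℝ, 0 < c ∧ ∀ (u lim : ℝ), 0 ≤ u →
      Tendsto (fun l => oloss own b e j v (u * h l) / h l) F (𝓝 lim) → c * u ≤ lim := by
  obtain ⟨c, hc, y₀, hy₀, hy⟩ := hv
  refine ⟨c, hc, fun u lim hu hlim => ?_⟩
  refine ge_of_tendsto hlim ?_
  have h1 : Tendsto (fun l => u * h l) F (𝓝 0) := by
    have := (hh0.mono_left hF).const_mul u
    rwa [mul_zero] at this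
  filter_upwards [h1.eventually (ge_mem_nhds hy₀)] with l hl
  rcases eq_or_lt_of_le hu with rfl | hu0
  · simp [oloss]
  rw [le_div_iff₀ (hh l)]
  have := hy (u * h l) (mul_pos hu0 (hh l)) hl
  linarith

/-- full own counts at `p`: raising to `p` costs nothing for a box `q` -/
theorem own_eq_of_full {own : (ι → ℝ) → ℝ} {S : Set (ι → ℝ)} (hsup : Sup4 own S)
    (hanti : ∀ p ∈ S, ∀ q ∈ S, p ≤ q → own q ≤ own p) {p q : ι → ℝ} (hp : p ∈ S) (hq : q ∈ S)
    (hi : p ⊓ q ∈ S) (hs : p ⊔ q ∈ S) (hfull : own (p ⊓ q) = own p) : own (p ⊔ q) = own q := by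
  have h1 := hsup p hp q hq hi hs
  have h2 := hanti q hq (p ⊔ q) hs le_sup_right
  linarith

end Crest.Agent.R136.Own831
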