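import Crest.Agent.R136.Zpr2_779

/-!
# R136: profiles at window scale (helper779), part 3: second profile of a chart

`znet_QFam`, `znet_QJoin` : the nets of a chart at the exponents `X n + w n • c` are quasi-nested in
the window base; `line_QFam` : the same for (line, label).
`exists_zwin_new` : **second profile**: for any chart of `E n` a dense part with a `ZWin` and a
`ZProf` of the own labels.
-/

set_option autoImplicit false
set_option linter.unusedSectionVars false
set_option linter.unusedVariables false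

open Filter Topology

namespace Crest.Agent.R136.Zpr779

open Finset Crest.Agent.R138.Ex926 Crest.Agent.R136.Net191 Crest.Agent.R136.Qg926

variable {m : ℕ} {ι : ℕ → Type*} [∀ n, DecidableEq (ι n)] {B B' : Base} {I J : ∀ n, Finset (ι n)}
  {co : ∀ n, ι n → ι n → Fin m → ℝ} {M : Mons m} {C : ℝ} {X : ℕ → Fin m → ℝ} {w : ℕ → ℝ}
  {P : Set (Fin m → ℝ)}

theorem side_sum (hb : ∀ n, B'.d n = B.d n ^ w n) (n : ℕ) (c c' : Fin m → ℝ) :
    B.d n ^ (-(∑ s, ((X n + w n • c') s - (X n + w n • c) s))) =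
      B'.d n ^ (-(∑ s, (c' s - c s))) := by
  rw [hb n, ← Real.rpow_mul (B.pos n).le]
  congr 1
  rw [mul_neg, mul_sum]
  congr 1
  refine sum_congr rfl fun s _ => ?_
  simp only [Pi.add_apply, Pi.smul_apply, smul_eq_mul]; ring

theorem znet_QFam (h : ∀ n, Chart (I n) (co n) M C) (hw : ∀ n, 0 < w n)
    (hb : ∀ n, B'.d n = B.d n ^ w n)
    (hP : ∀ᶠ n in (U : Filter ℕ), ∀ c ∈ P, Legal M (X n + w n • c)) :
    QFam B' I (zlab B I co M C X w) m P where
  nest := by
    have hC0 := (h 0).C0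
    have hK0 : 1 ≤ cK0 M C := cK0_one hC0
    set K1 := triC M C (cK0 M C) with hK1
    have hK11 : 1 ≤ K1 := hK0.trans (triC_ge hC0 hK0)
    set K2 := symC M C K1 m with hK2
    have hK21 : 1 ≤ K2 := hK11.trans (symC_ge M hC0 hK11 m)
    refine ⟨fun _ => cN M C K2, const_sub' B' (cN_pos M hC0 hK21), ?_⟩
    filter_upwards [hP] with n hPn p hp p' hp' hpp i hi
    classical
    have hd := B.pos n
    have hd1 := (B.lt n).le
    have hpp2 : X n + w n • p ≤ X n + w n • p' := add_smul_mono (hw n).le hpp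
    have h1 := card_nlab_le (B := B) h (hPn p hp) (hPn p hp) le_rfl hK21 hi
    simp only [sub_self, Finset.sum_const_zero, neg_zero, Real.rpow_zero, mul_one] at h1
    refine le_trans ?_ h1
    have hsub : (two (I n) (zlab B I co M C X w n p) (zlab B I co M C X w n p') i).image
        (zlab B I co M C X w n p) ⊆
        ((I n).filter fun j => Near (co n) (B.d n) (X n + w n • p) K2 i j).image
          (nlab B I co M C n (X n + w n • p)) := by
      refine Finset.image_subset_image fun x hx => ?_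
      obtain ⟨hxI, y, hyI, hyi, hxy⟩ := mem_two.1 hx
      rw [Finset.mem_filter]
      refine ⟨hxI, ?_⟩
      have n1 := (near_of_nlab h (hPn p' hp') hxI hyI hxy).anti hd hd1 (by linarith) hpp2
      have n2 := near_of_nlab h (hPn p hp) hyI hi hyi
      have n3 := (h n).tri (hPn p hp) hd hd1 hK0 hxI hyI hi n1 n2
      exact (h n).symm (hPn p hp) hd hd1 hK11 hxI hi n3
    have := Finset.card_le_card hsub
    exact_mod_cast this
  child := by
    have hC0 := (h 0).C0
    have hK0 : 1 ≤ cK0 M C := cK0_one hC0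
    intro ε hε
    have hN := cN_pos M hC0 hK0
    filter_upwards [ev_const_le B' hN hε, hP] with n hn hPn p hp p' hp' hpp i hi
    classical
    have hd : ∀ t : ℝ, 0 < B'.d n ^ t := fun t => Real.rpow_pos_of_pos (B'.pos n) t
    have h1 := card_nlab_le (B := B) h (hPn p hp) (hPn p' hp') (add_smul_mono (hw n).le hpp) hK0 hi
    rw [side_sum hb] at h1
    have hsub : (cls (I n) (zlab B I co M C X w n p) i).image (zlab B I co M C X w n p') ⊆
        ((I n).filter fun j => Near (co n) (B.d n) (X n + w n • p) (cK0 M C) i j).image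
          (nlab B I co M C n (X n + w n • p')) := by
      refine Finset.image_subset_image fun x hx => ?_
      obtain ⟨hxI, hxi⟩ := mem_cls.1 hx
      rw [Finset.mem_filter]
      exact ⟨hxI, near_of_nlab h (hPn p hp) hi hxI hxi.symm⟩
    have h2 : (((cls (I n) (zlab B I co M C X w n p) i).image
        (zlab B I co M C X w n p')).card : ℝ) ≤
        cN M C (cK0 M C) * B'.d n ^ (-(∑ s, (p' s - p s))) := by
      refine le_trans ?_ h1
      exact_mod_cast Finset.card_le_card hsub
    have h3 : ∑ s, (p' s - p s) ≤ (m : ℝ) * ‖p' - p‖ := by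
      calc ∑ s, (p' s - p s) ≤ ∑ _s : Fin m, ‖p' - p‖ := Finset.sum_le_sum fun s _ => by
            have := norm_le_pi_norm (p' - p) s
            rw [Pi.sub_apply, Real.norm_eq_abs] at this
            exact (le_abs_self _).trans this
        _ = (m : ℝ) * ‖p' - p‖ := by simp
    calc _ ≤ cN M C (cK0 M C) * B'.d n ^ (-(∑ s, (p' s - p s))) := h2
      _ ≤ B'.d n ^ (-ε) * B'.d n ^ (-(m * ‖p' - p‖)) := by
          refine mul_le_mul hn ?_ (hd _).le (hd _).le
          exact Real.rpow_le_rpow_of_exponent_ge (B'.pos n) (B'.lt n).le (by linarith)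
      _ = _ := by rw [← Real.rpow_add (B'.pos n)]; congr 1; ring

theorem znet_QJoin (h : ∀ n, Chart (I n) (co n) M C) (hw : ∀ n, 0 < w n)
    (hP : ∀ᶠ n in (U : Filter ℕ), ∀ c ∈ P, Legal M (X n + w n • c)) :
    QJoin B' I (zlab B I co M C X w) P := by
  have hC0 := (h 0).C0
  have hK0 : 1 ≤ cK0 M C := cK0_one hC0
  refine ⟨fun _ => cN M C (cK0 M C), const_sub' B' (cN_pos M hC0 hK0), ?_⟩
  filter_upwards [hP] with n hPn p hp q hq i hi
  classical
  have hpq : Legal M (X n + w n • (p ⊔ q)) := by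
    rw [← smul_sup_pi (hw n).le]
    exact (hPn p hp).sup (hPn q hq)
  have h1 := card_nlab_le (B := B) h hpq hpq le_rfl hK0 hi
  simp only [sub_self, Finset.sum_const_zero, neg_zero, Real.rpow_zero, mul_one] at h1
  refine le_trans ?_ h1
  have hsub : (cls (I n) (zlab B I co M C X w n p) i ∩ cls (I n) (zlab B I co M C X w n q) i).image
      (zlab B I co M C X w n (p ⊔ q)) ⊆
      ((I n).filter fun j => Near (co n) (B.d n) (X n + w n • (p ⊔ q)) (cK0 M C) i j).image
        (nlab B I co M C n (X n + w n • (p ⊔ q))) := by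
    refine Finset.image_subset_image fun x hx => ?_
    rw [Finset.mem_inter] at hx
    obtain ⟨hxI, hxp⟩ := mem_cls.1 hx.1
    obtain ⟨_, hxq⟩ := mem_cls.1 hx.2
    rw [Finset.mem_filter]
    refine ⟨hxI, ?_⟩
    rw [← smul_sup_pi (hw n).le]
    exact (near_of_nlab h (hPn p hp) hi hxI hxp.symm).sup
      (near_of_nlab h (hPn q hq) hi hxI hxq.symm)
  exact_mod_cast Finset.card_le_card hsub

/-- (line, label) is a quasi-nested family -/
theorem line_QFam {κ : ℕ → Type*} [∀ n, DecidableEq (κ n)] {f : ∀ n, (Fin m → ℝ) → ι n → κ n}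
    {K : ℝ} (h : QFam B I f K P) (line : ∀ n, ι n → ℕ) :
    QFam B I (fun n p x => (line n x, f n p x)) K P where
  nest := by
    obtain ⟨N, hN, h1⟩ := h.nest
    refine ⟨N, hN, ?_⟩
    filter_upwards [h1] with n hn p hp p' hp' hpp i hi
    refine le_trans ?_ (hn p hp p' hp' hpp i hi)
    have hs : (two (I n) (fun x => (line n x, f n p x)) (fun x => (line n x, f n p' x)) i).image
        (fun x => (line n x, f n p x)) ⊆
        ((two (I n) (f n p) (f n p') i).image (f n p)).image fun c => (line n i, c) := by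
      intro c hc
      obtain ⟨z, hz, rfl⟩ := mem_image.1 hc
      obtain ⟨z1, y, y1, y2, y3⟩ := mem_two.1 hz
      simp only [Prod.mk.injEq] at y2 y3
      refine mem_image.2 ⟨f n p z, mem_image_of_mem _ (mem_two.2 ⟨z1, y, y1, y2.2, y3.2⟩), ?_⟩
      rw [y3.1, y2.1]
    exact_mod_cast (card_le_card hs).trans card_image_le
  child := by
    intro ε hε
    filter_upwards [h.child ε hε] with n hn p hp p' hp' hpp i hi
    refine le_trans ?_ (hn p hp p' hp' hpp i hi)
    have hs : (cls (I n) (fun x => (line n x, f n p x)) i).image (fun x => (line n x, f n p' x)) ⊆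
        ((cls (I n) (f n p) i).image (f n p')).image fun c => (line n i, c) := by
      intro c hc
      obtain ⟨z, hz, rfl⟩ := mem_image.1 hc
      obtain ⟨z1, z2⟩ := mem_cls.1 hz
      simp only [Prod.mk.injEq] at z2
      refine mem_image.2 ⟨f n p' z, mem_image_of_mem _ (mem_cls.2 ⟨z1, z2.2⟩), ?_⟩
      rw [z2.1]
    exact_mod_cast (card_le_card hs).trans card_image_le

/-- sharp Lipschitz bound -/
theorem tprof_sharp (h : ∀ n, Chart (I n) (co n) M C) (hw : ∀ n, 0 < w n)
    (hb : ∀ n, B'.d n = B.d n ^ w n)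
    (hP : ∀ᶠ n in (U : Filter ℕ), ∀ c ∈ P, Legal M (X n + w n • c))
    (hsub : ∀ᶠ n in (U : Filter ℕ), J n ⊆ I n) (hne : ∀ᶠ n in (U : Filter ℕ), (J n).Nonempty)
    {T : ℕ → ℝ} {ν : (Fin m → ℝ) → ℝ} (hν : TProf B' J (zlab B I co M C X w) P T ν)
    {p q : Fin m → ℝ} (hp : p ∈ P) (hq : q ∈ P) (hpq : p ≤ q) :
    ν p - ν q ≤ ∑ s, (q s - p s) := by
  classical
  refine le_of_forall_pos_le_add fun ε hε => ?_
  have hK0 : 1 ≤ cK0 M C := cK0_one (h 0).C0
  have hN : 0 < cN M C (cK0 M C) := cN_pos M (h 0).C0 hK0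
  have hε4 : 0 < ε / 4 := by positivity
  obtain ⟨n, h1, h2, h3, h4, h5⟩ := (((hν.ev_big hne hε4).and ((hν.up _ hε4).and
    (hsub.and ((ev_const_le B' hN hε4).and hP)))).exists)
  obtain ⟨i, hi, hbig⟩ := h1 p hp
  set A := cls (J n) (zlab B I co M C X w n p) i with hA
  have hd : ∀ t : ℝ, 0 < B'.d n ^ t := fun t => Real.rpow_pos_of_pos (B'.pos n) t
  have hT := hν.pos n
  have c1 : (A.card : ℝ) ≤ (T n * B'.d n ^ (-(ν q + ε / 4))) *
      (A.image (zlab B I co M C X w n q)).card := by
    have := le_count_mul A (fun _ => (1 : ℝ)) (zlab B I co M C X w n q)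
      (m := T n * B'.d n ^ (-(ν q + ε / 4))) (fun x hx => by
        rw [sum_const, nsmul_eq_mul, mul_one]
        have hxI : x ∈ J n := (mem_cls.1 hx).1
        refine le_trans ?_ (h2 q hq x hxI)
        exact_mod_cast card_le_card (cls_mono (cls_subset _ _ _) _ _))
    rwa [sum_const, nsmul_eq_mul, mul_one] at this
  have c2 : ((A.image (zlab B I co M C X w n q)).card : ℝ) ≤
      cN M C (cK0 M C) * B'.d n ^ (-(∑ s, (q s - p s))) := by
    have h6 := card_nlab_le (B := B) h (h5 p hp) (h5 q hq) (add_smul_mono (hw n).le hpq) hK0 (h3 hi)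
    rw [side_sum hb] at h6
    refine le_trans ?_ h6
    have : A.image (zlab B I co M C X w n q) ⊆
        ((I n).filter fun j => Near (co n) (B.d n) (X n + w n • p) (cK0 M C) i j).image
          (nlab B I co M C n (X n + w n • q)) := by
      refine image_subset_image fun x hx => ?_
      obtain ⟨hxI, hxi⟩ := mem_cls.1 hx
      rw [mem_filter]
      exact ⟨h3 hxI, near_of_nlab h (h5 p hp) (h3 hi) (h3 hxI) hxi.symm⟩
    exact_mod_cast card_le_card this
  have c6 : T n * B'.d n ^ (-(ν p - ε / 4)) ≤ T n * (B'.d n ^ (-(ν q + ε / 4)) *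
      (B'.d n ^ (-(ε / 4)) * B'.d n ^ (-(∑ s, (q s - p s))))) := by
    rw [← mul_assoc]
    refine hbig.trans (c1.trans (mul_le_mul_of_nonneg_left ?_ (mul_pos hT (hd _)).le))
    exact c2.trans (mul_le_mul_of_nonneg_right h4 (hd _).le)
  have c7 := le_of_mul_le_mul_left c6 hT
  have c8 : (1 : ℝ) ≤ B'.d n ^ (ν p - ν q - ∑ s, (q s - p s) - ε) := by
    have e1 : B'.d n ^ (ν p - ν q - ∑ s, (q s - p s) - ε) =
        (B'.d n ^ (-(ν q + ε / 4)) * (B'.d n ^ (-(ε / 4)) * B'.d n ^ (-(∑ s, (q s - p s))))) *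
          (B'.d n ^ (ν p - ε / 4) * B'.d n ^ (-(ε / 4))) := by
      rw [← Real.rpow_add (B'.pos n), ← Real.rpow_add (B'.pos n), ← Real.rpow_add (B'.pos n),
        ← Real.rpow_add (B'.pos n)]; congr 1; ring
    rw [e1]
    have e2 : (1 : ℝ) ≤ B'.d n ^ (-(ε / 4)) :=
      Real.one_le_rpow_of_pos_of_le_one_of_nonpos (B'.pos n) (B'.lt n).le (by linarith)
    calc (1 : ℝ) = B'.d n ^ (-(ν p - ε / 4)) * B'.d n ^ (ν p - ε / 4) := by
          rw [← Real.rpow_add (B'.pos n), neg_add_cancel, Real.rpow_zero]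
      _ ≤ (B'.d n ^ (-(ν q + ε / 4)) * (B'.d n ^ (-(ε / 4)) * B'.d n ^ (-(∑ s, (q s - p s))))) *
          B'.d n ^ (ν p - ε / 4) := mul_le_mul_of_nonneg_right c7 (hd _).le
      _ ≤ _ := by
          refine mul_le_mul_of_nonneg_left ?_ (mul_nonneg (hd _).le (mul_nonneg (hd _).le (hd _).le))
          exact le_mul_of_one_le_right (hd _).le e2
  linarith [le_of_rpow B' c8]

theorem Leg_zero (Mw : Mons m) {R : ℝ} (hR : 0 ≤ R) : (0 : Fin m → ℝ) ∈ Leg Mw R :=
  ⟨⟨fun _ => le_rfl, fun k e _ => by simp⟩, fun _ => hR⟩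

theorem Leg_nonneg {Mw : Mons m} {R : ℝ} {p : Fin m → ℝ} (hp : p ∈ Leg Mw R) :
    (0 : Fin m → ℝ) ≤ p := fun s => hp.1.nonneg s

theorem Leg_norm {Mw : Mons m} {R : ℝ} (hR : 0 ≤ R) {p : Fin m → ℝ} (hp : p ∈ Leg Mw R) :
    ‖p‖ ≤ R :=
  (pi_norm_le_iff_of_nonneg hR).2 fun s => by
    rw [Real.norm_eq_abs, abs_of_nonneg (hp.1.nonneg s)]; exact hp.2 s

/-- **second profile**: a dense part of `E n` with a window profile of the chart and an own
profile. -/
theorem exists_zwin_new {E : ∀ n, Finset (ι n)} (h : ∀ n, Chart (E n) (co n) M C)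
    (hw : ∀ n, 0 < w n) (hb : ∀ n, B'.d n = B.d n ^ w n) (Mw : Mons m) {R : ℝ} (hR : 0 ≤ R)
    (hP : ∀ᶠ n in (U : Filter ℕ), ∀ c ∈ Leg Mw R, Legal M (X n + w n • c))
    (hne : ∀ᶠ n in (U : Filter ℕ), (E n).Nonempty) {H : ℕ → ℝ} (hH : B'.Sub H)
    (hcard : ∀ᶠ n in (U : Filter ℕ), (Nat.log 2 (E n).card : ℝ) + 1 ≤ H n)
    (line : ∀ n, ι n → ℕ) :
    ∃ (J : ∀ n, Finset (ι n)) (S : ℕ → ℝ), B'.Sub S ∧
      (∀ᶠ n in (U : Filter ℕ), J n ⊆ E n ∧ (J n).Nonempty ∧
        ((E n).card : ℝ) ≤ S n * (J n).card ∧ 1 ≤ S n) ∧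
      ∃ (T : ℕ → ℝ) (ν : (Fin m → ℝ) → ℝ) (To : ℕ → ℝ) (own : (Fin m → ℝ) → ℝ),
        ZWin B B' E J co M C X w (Leg Mw R) T ν ∧
        (∀ᶠ n in (U : Filter ℕ),
          T n * (((J n).image (zlab B E co M C X w n 0)).card : ℝ) = (J n).card) ∧
        TProf B' J (fun n p x => (line n x, zlab B E co M C X w n p x)) (Leg Mw R) To own ∧
        (∀ᶠ n in (U : Filter ℕ),
          To n * (((J n).image fun x => (line n x, zlab B E co M C X w n 0 x)).card : ℝ) =
            (J n).card) ∧ own 0 = 0 ∧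
        (∀ p ∈ Leg Mw R, ∀ q ∈ Leg Mw R, |own p - own q| ≤ m * ‖p - q‖) ∧
        (∀ p ∈ Leg Mw R, ∀ q ∈ Leg Mw R, p ≤ q → own q ≤ own p) ∧
        (∀ p ∈ Leg Mw R, ∀ q ∈ Leg Mw R, p ≤ q → own p - own q ≤ ν p - ν q) := by
  classical
  have hf1 := znet_QFam (B := B) (B' := B') h hw hb hP
  have hf2 := line_QFam (B := B') hf1 line
  obtain ⟨J, S, hS, hbas, hj⟩ := exists_zprof_many (B := B') (J := Bool) (m := fun _ => m)
    (κ := fun b n => ℕ × ι n) (I := E)
    (f := fun b n p x => (bif b then line n x else 0, zlab B E co M C X w n p x))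
    (K := fun _ => (m : ℝ))
    (fun _ => Nat.cast_nonneg m) (P := fun _ => Leg Mw R) (fun _ => snet_Leg Mw hR)
    (fun _ => isCompact_Leg Mw R) (fun _ p hp q hq => Leg.sup hp hq) (b := fun _ => 0)
    (fun _ => Leg_zero Mw hR) (fun _ p hp => Leg_nonneg hp)
    (by
      intro b
      cases b
      · exact line_QFam (B := B') hf1 fun _ _ => 0
      · exact hf2) hne hH hcard
  have hsub : ∀ᶠ n in (U : Filter ℕ), J n ⊆ E n := hbas.mono fun n hn => hn.1
  have hneJ : ∀ᶠ n in (U : Filter ℕ), (J n).Nonempty := hbas.mono fun n hn => hn.2.1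
  obtain ⟨T, ν, hT, hTc, hZ, hν0, hνl, hνa⟩ := hj false
  obtain ⟨To, own, hTo, hToc, hZo, hown0, hownl, howna⟩ := hj true
  simp only [cond_false, cond_true] at hTc hZ hToc hZo
  -- the first family without the dummy coordinate
  have hcl : ∀ n (A : Finset (ι n)) (p : Fin m → ℝ) (i : ι n),
      cls A (fun x => ((0 : ℕ), zlab B E co M C X w n p x)) i =
        cls A (zlab B E co M C X w n p) i := by
    intro n A p i
    ext y
    rw [mem_cls, mem_cls]
    simp
  have hci : ∀ n (A : Finset (ι n)) (p : Fin m → ℝ),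
      (A.image fun x => ((0 : ℕ), zlab B E co M C X w n p x)).card =
        (A.image (zlab B E co M C X w n p)).card := by
    intro n A p
    have : (A.image fun x => ((0 : ℕ), zlab B E co M C X w n p x)) =
        (A.image (zlab B E co M C X w n p)).image fun y => ((0 : ℕ), y) := by
      rw [image_image]; rfl
    rw [this]
    exact card_image_of_injective _ fun a b hab => (Prod.mk.inj hab).2
  have hZ' : ZProf B' J (zlab B E co M C X w) (Leg Mw R) T ν :=
    { up := fun K ε hε => by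
        filter_upwards [hZ.up K ε hε] with n hn c hc hcK i hi
        have := hn c hc hcK i hi
        rwa [hcl] at this
      num := fun K ε hε => by
        filter_upwards [hZ.num K ε hε] with n hn c hc hcK c' hc' hcK' hcc i hi
        have := hn c hc hcK c' hc' hcK' hcc i hi
        rwa [hcl, hci] at this
      root := fun K ε hε => by
        filter_upwards [hZ.root K ε hε] with n hn c hc hcK
        have := hn c hc hcK
        rwa [hci] at this }
  have hTP : TProf B' J (zlab B E co M C X w) (Leg Mw R) T ν :=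
    TProf.ofZ hZ' hT (Set.Subset.refl _) fun p hp => Leg_norm hR hp
  have hTPo : TProf B' J (fun n p x => (line n x, zlab B E co M C X w n p x)) (Leg Mw R) To own :=
    TProf.ofZ hZo hTo (Set.Subset.refl _) fun p hp => Leg_norm hR hp
  refine ⟨J, S, hS, hbas, T, ν, To, own, ?_, ?_, hTPo, hToc, hown0, hownl, howna, ?_⟩
  · exact
      { chart := h, sub := hsub, ne := hneJ, w0 := hw, base := hb, zero := Leg_zero Mw hR
        legal := fun K => hP.mono fun n hn c hc _ => hn c hc
        prof := hZ', lam0 := hν0, T0 := hT, lip := hνl, anti := hνa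
        sharp := fun c hc c' hc' hcc => tprof_sharp (B := B) h hw hb hP hsub hneJ hTP hc hc' hcc
        submod := fun c hc c' hc' hi hs => hTP.submod
          ((znet_QJoin (B := B) (B' := B') h hw hP).mono hsub (Set.Subset.refl _)) hneJ hc hc'
          hi hs }
  · filter_upwards [hTc] with n hn
    rwa [hci] at hn
  · intro p hp q hq hpq
    -- a `p`-class of `ν` and the line determine the own class
    refine hTP.own_le hTPo hneJ hp hq hpq hp hq ?_ ?_
    · exact Eventually.of_forall fun n i _ j _ hij => (Prod.mk.inj hij).2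
    · refine Eventually.of_forall fun n i _ j _ hij hq' => ?_
      exact Prod.ext (Prod.mk.inj hij).1 hq'

end Crest.Agent.R136.Zpr779
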