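import Crest.Agent.R136.Own1_831
import Crest.Agent.R136.Zpr3_779

/-!
# R136: the own dichotomy for 779's second profile (helper831)

* `line_QJoin`, `own_submod` : the own profile `own` of (line, label) on `Leg Mw R` is supermodular;
* `own_dich_Leg`, `own_cases_Leg` : Own1_831 for a function on `Leg Mw R` and a path
  `v ↦ b + v • e`, `v ∈ (α, β)`, such that raising the slot `j` by `y ≤ y₁` stays legal.
-/

set_option autoImplicit false
set_option linter.unusedSectionVars false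
set_option linter.unusedVariables false

open Filter Topology MeasureTheory Set

namespace Crest.Agent.R136.Own831

open Crest.Agent.R136.Dec146 Crest.Agent.R138.Ex926 Crest.Agent.R136.Net191
  Crest.Agent.R136.Qg926 Crest.Agent.R136.Zpr779

variable {m : ℕ}

/-- (line, label) has the join property -/
theorem line_QJoin {ι κ : ℕ → Type*} [∀ n, DecidableEq (ι n)] [∀ n, DecidableEq (κ n)] {B : Base}
    {I : ∀ n, Finset (ι n)} {f : ∀ n, (Fin m → ℝ) → ι n → κ n} {P : Set (Fin m → ℝ)}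
    (h : QJoin B I f P) (line : ∀ n, ι n → ℕ) :
    QJoin B I (fun n p x => (line n x, f n p x)) P := by
  classical
  obtain ⟨N, hN, h1⟩ := h
  refine ⟨N, hN, ?_⟩
  filter_upwards [h1] with n hn p hp q hq i hi
  refine le_trans ?_ (hn p hp q hq i hi)
  have hs : (cls (I n) (fun x => (line n x, f n p x)) i ∩
      cls (I n) (fun x => (line n x, f n q x)) i).image (fun x => (line n x, f n (p ⊔ q) x)) ⊆
      ((cls (I n) (f n p) i ∩ cls (I n) (f n q) i).image (f n (p ⊔ q))).image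
        fun c => (line n i, c) := by
    intro c hc
    obtain ⟨z, hz, rfl⟩ := Finset.mem_image.1 hc
    rw [Finset.mem_inter] at hz
    obtain ⟨z1, z2⟩ := mem_cls.1 hz.1
    obtain ⟨_, z3⟩ := mem_cls.1 hz.2
    simp only [Prod.mk.injEq] at z2 z3
    refine Finset.mem_image.2 ⟨f n (p ⊔ q) z, Finset.mem_image_of_mem _
      (Finset.mem_inter.2 ⟨mem_cls.2 ⟨z1, z2.2⟩, mem_cls.2 ⟨z1, z3.2⟩⟩), ?_⟩
    rw [z2.1]
  exact_mod_cast (Finset.card_le_card hs).trans Finset.card_image_le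

/-- the own profile is supermodular -/
theorem own_submod {ι : ℕ → Type*} [∀ n, DecidableEq (ι n)] {B B' : Base} {E J : ∀ n, Finset (ι n)}
    {co : ∀ n, ι n → ι n → Fin m → ℝ} {M : Mons m} {C : ℝ} {X : ℕ → Fin m → ℝ} {w : ℕ → ℝ}
    {P : Set (Fin m → ℝ)} {T : ℕ → ℝ} {ν : (Fin m → ℝ) → ℝ}
    (hwin : ZWin B B' E J co M C X w P T ν)
    (hP : ∀ᶠ n in (U : Filter ℕ), ∀ c ∈ P, Legal M (X n + w n • c))
    {line : ∀ n, ι n → ℕ} {To : ℕ → ℝ} {own : (Fin m → ℝ) → ℝ}
    (hown : TProf B' J (fun n p x => (line n x, zlab B E co M C X w n p x)) P To own) :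
    Sup4 own P := by
  intro p hp q hq hi hs
  exact hown.submod (line_QJoin ((znet_QJoin (B := B) (B' := B') hwin.chart hwin.w0 hP).mono
    hwin.sub (Set.Subset.refl _)) line) hwin.ne hp hq hi hs

section path

variable {b e : Fin m → ℝ} {j kz : Fin m} {P : Set (Fin m → ℝ)} {α β y₁ : ℝ}

/-- the cone spanned by the path and the slot `j` -/
def LEGp (e : Fin m → ℝ) (j : Fin m) : Set (Fin m → ℝ) :=
  {c | ∃ a y : ℝ, 0 ≤ y ∧ c = a • e + y • (Pi.single j 1 : Fin m → ℝ)}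

theorem LEGp_single {y : ℝ} (hy : 0 ≤ y) : y • (Pi.single j 1 : Fin m → ℝ) ∈ LEGp e j :=
  ⟨0, y, hy, by simp⟩

theorem LEGp_cone : Cone (Ln e) (LEGp e j) where
  smul := by
    rintro c ⟨a, y, hy, rfl⟩ t ht
    exact ⟨t * a, t * y, mul_nonneg ht hy, by rw [smul_add, smul_smul, smul_smul]⟩
  add := by
    rintro c ⟨a, y, hy, rfl⟩ c' ⟨a', y', hy', rfl⟩
    exact ⟨a + a', y + y', add_nonneg hy hy', by rw [add_smul, add_smul]; abel⟩
  nat := fun x => ⟨x, 0, le_rfl, by rw [Ln_apply]; simp⟩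

/-- raising the slot `j` along the path stays legal -/
def RaiseLeg (P : Set (Fin m → ℝ)) (b e : Fin m → ℝ) (j : Fin m) (α β y₁ : ℝ) : Prop :=
  ∀ v : ℝ, α < v → v < β → ∀ y : ℝ, 0 ≤ y → y ≤ y₁ →
    b + v • e + y • (Pi.single j 1 : Fin m → ℝ) ∈ P

theorem dom_of_raise (hy₁ : 0 < y₁) (hr : RaiseLeg P b e j α β y₁) (hkz : kz ≠ j)
    (hek : 0 < e kz) : Dom b (Ln e) (LEGp e j) P (Ioo α β) := by
  rintro v ⟨hv1, hv2⟩
  set d : ℝ := min (v - α) (β - v) / 2 with hd
  have hd0 : 0 < d := by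
    have : 0 < min (v - α) (β - v) := lt_min (by linarith) (by linarith)
    linarith
  have hd1 : 2 * d ≤ v - α := by rw [hd]; have := min_le_left (v - α) (β - v); linarith
  have hd2 : 2 * d ≤ β - v := by rw [hd]; have := min_le_right (v - α) (β - v); linarith
  set r : ℝ := min (e kz * d / 2) (y₁ / (1 + |e j| / e kz) / 2) with hrdef
  have hA : 0 < 1 + |e j| / e kz := by positivity
  have hr0 : 0 < r := lt_min (by positivity) (by positivity)
  refine ⟨d / 2, by linarith, r, hr0, ?_⟩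
  rintro v' hv' c ⟨a, y, hy, rfl⟩ hc
  have h1 := hc kz
  simp only [Pi.add_apply, Pi.smul_apply, smul_eq_mul, Pi.single_eq_of_ne hkz, mul_zero,
    add_zero] at h1
  have h2 := hc j
  simp only [Pi.add_apply, Pi.smul_apply, smul_eq_mul, Pi.single_eq_same, mul_one] at h2
  have ha : |a| ≤ r / e kz := by
    rw [abs_mul, abs_of_pos hek] at h1
    rwa [le_div_iff₀ hek]
  have ha' : |a| ≤ d / 2 := by
    refine ha.trans ?_
    rw [div_le_iff₀ hek]
    have := min_le_left (e kz * d / 2) (y₁ / (1 + |e j| / e kz) / 2)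
    rw [← hrdef] at this
    linarith
  have hyy : y ≤ y₁ := by
    have h3 : y ≤ r + |a| * |e j| := by
      have := abs_le.1 h2
      have h4 : -(|a| * |e j|) ≤ a * e j := by rw [← abs_mul]; exact neg_abs_le _
      linarith [this.2]
    have h4 : |a| * |e j| ≤ r / e kz * |e j| := mul_le_mul_of_nonneg_right ha (abs_nonneg _)
    have h5 : r + r / e kz * |e j| = r * (1 + |e j| / e kz) := by field_simp
    have h6 : r * (1 + |e j| / e kz) ≤ y₁ / 2 := by
      have := min_le_right (e kz * d / 2) (y₁ / (1 + |e j| / e kz) / 2)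
      rw [← hrdef] at this
      calc r * (1 + |e j| / e kz) ≤ (y₁ / (1 + |e j| / e kz) / 2) * (1 + |e j| / e kz) :=
            mul_le_mul_of_nonneg_right this hA.le
        _ = y₁ / 2 := by field_simp
    linarith
  have e1 : b + Ln e v' + (a • e + y • (Pi.single j 1 : Fin m → ℝ)) =
      b + (v' + a) • e + y • (Pi.single j 1 : Fin m → ℝ) := by
    rw [Ln_apply, add_smul]; abel
  rw [e1]
  rw [Real.norm_eq_abs] at hv'
  have hv'' := abs_le.1 hv'
  have ha'' := abs_le.1 ha'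
  exact hr _ (by linarith [hv''.1, ha''.1]) (by linarith [hv''.2, ha''.2]) y hy hyy

/-- Lipschitz extension -/
theorem exists_ext {own : (Fin m → ℝ) → ℝ} {K : ℝ} (hK : 0 ≤ K)
    (hlip : ∀ p ∈ P, ∀ q ∈ P, |own p - own q| ≤ K * ‖p - q‖) :
    ∃ own' : (Fin m → ℝ) → ℝ, (∀ p q, |own' p - own' q| ≤ K * ‖p - q‖) ∧
      ∀ p ∈ P, own' p = own p := by
  have h1 : LipschitzOnWith ⟨K, hK⟩ own P :=
    LipschitzOnWith.of_dist_le_mul fun p hp q hq => by
      rw [Real.dist_eq, dist_eq_norm]; exact hlip p hp q hq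
  obtain ⟨g, hg, he⟩ := h1.extend_real
  refine ⟨g, fun p q => ?_, fun p hp => (he hp).symm⟩
  have := hg.dist_le_mul p q
  rwa [Real.dist_eq, dist_eq_norm] at this

theorem oloss_congr {own own' : (Fin m → ℝ) → ℝ} (he : ∀ p ∈ P, own' p = own p)
    (hr : RaiseLeg P b e j α β y₁) {v y : ℝ} (h1 : α < v) (h2 : v < β) (h3 : 0 ≤ y)
    (h4 : y ≤ y₁) : oloss own' b e j v y = oloss own b e j v y := by
  unfold oloss
  have h0 := hr v h1 h2 0 le_rfl (h3.trans h4)
  rw [zero_smul, add_zero] at h0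
  rw [he _ h0, he _ (hr v h1 h2 y h3 h4)]

/-- **OWN DICHOTOMY on a legal set** -/
theorem own_dich_Leg {own : (Fin m → ℝ) → ℝ} {K : ℝ} (hK : 0 ≤ K)
    (hlip : ∀ p ∈ P, ∀ q ∈ P, |own p - own q| ≤ K * ‖p - q‖) (hsup : Sup4 own P)
    (hanti : ∀ p ∈ P, ∀ q ∈ P, p ≤ q → own q ≤ own p) (hy₁ : 0 < y₁)
    (hr : RaiseLeg P b e j α β y₁) (he : ∀ i, 0 ≤ e i) (hej : 0 < e j) (hkz : kz ≠ j)
    (hek : 0 < e kz) :
    ∀ᵐ v : ℝ, v ∈ Ioo α β → Vis own b e j v ∨ ∃ h : ℕ → ℝ, Zer own b e j v h := by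
  obtain ⟨own', hlip', hext⟩ := exists_ext hK hlip
  have hsup' : Sup4 own' P := by
    intro p hp q hq hi hs
    rw [hext p hp, hext q hq, hext _ hi, hext _ hs]
    exact hsup p hp q hq hi hs
  have hanti' : ∀ p ∈ P, ∀ q ∈ P, p ≤ q → own' q ≤ own' p := by
    intro p hp q hq hpq
    rw [hext p hp, hext q hq]
    exact hanti p hp q hq hpq
  filter_upwards [own_dich hK hlip' hsup' (LEGp_cone (e := e) (j := j))
    (dom_of_raise hy₁ hr hkz hek) he hej (fun y hy => LEGp_single hy) hanti'] with v hv hvI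
  obtain ⟨hv1, hv2⟩ := hvI
  rcases hv ⟨hv1, hv2⟩ with ⟨c, hc, y₀, hy₀, h⟩ | ⟨h, hh, hh0, hz⟩
  · left
    refine ⟨c, hc, min y₀ y₁, lt_min hy₀ hy₁, fun y hy hyy => ?_⟩
    rw [← oloss_congr hext hr hv1 hv2 hy.le (hyy.trans (min_le_right _ _))]
    exact h y hy (hyy.trans (min_le_left _ _))
  · right
    refine ⟨h, hh, hh0, fun a u hu => (hz a u hu).congr' ?_⟩
    have t1 : Tendsto (fun l => v + a * h l) atTop (𝓝 v) := by
      have := (hh0.const_mul a).const_add v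
      rwa [mul_zero, add_zero] at this
    have t2 : Tendsto (fun l => u * h l) atTop (𝓝 0) := by
      have := hh0.const_mul u
      rwa [mul_zero] at this
    filter_upwards [t1.eventually (lt_mem_nhds hv1), t1.eventually (gt_mem_nhds hv2),
      t2.eventually (gt_mem_nhds hy₁)] with l h1 h2 h3
    rw [oloss_congr hext hr h1 h2 (mul_nonneg hu (hh l).le) h3.le]

/-- the two cases globally, on a legal set -/
theorem own_cases_Leg {own : (Fin m → ℝ) → ℝ} {K : ℝ} (hK : 0 ≤ K)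
    (hlip : ∀ p ∈ P, ∀ q ∈ P, |own p - own q| ≤ K * ‖p - q‖) (hsup : Sup4 own P)
    (hanti : ∀ p ∈ P, ∀ q ∈ P, p ≤ q → own q ≤ own p) (hy₁ : 0 < y₁)
    (hr : RaiseLeg P b e j α β y₁) (he : ∀ i, 0 ≤ e i) (hej : 0 < e j) (hkz : kz ≠ j)
    (hek : 0 < e kz) :
    (∀ᵐ v : ℝ, v ∈ Ioo α β → Vis own b e j v) ∨
      ∀ Q : ℝ → Prop, (∀ᵐ v : ℝ, v ∈ Ioo α β → Q v) →
        ∃ v ∈ Ioo α β, Q v ∧ ∃ h : ℕ → ℝ, Zer own b e j v h := by
  by_cases hvis : ∀ᵐ v : ℝ, v ∈ Ioo α β → Vis own b e j v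
  · exact Or.inl hvis
  right
  intro Q hQ
  by_contra hcon
  push Not at hcon
  apply hvis
  filter_upwards [own_dich_Leg hK hlip hsup hanti hy₁ hr he hej hkz hek, hQ] with v h1 h2 hv
  rcases h1 hv with h3 | ⟨h, h3⟩
  · exact h3
  · exact absurd h3 (hcon v hv (h2 hv) h)

/-- in the case of zero loss the full own counts persist beyond the path: if `own` is `c₁ - c₂ v`
on the path then the blow-up of `own` in the direction `a • e + u • single j` is `- c₂ a` -/
theorem Zer.tan {own : (Fin m → ℝ) → ℝ} {v : ℝ} {h : ℕ → ℝ} (hz : Zer own b e j v h)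
    {c₁ c₂ : ℝ} (hv1 : α < v) (hv2 : v < β)
    (hfull : ∀ v : ℝ, α < v → v < β → own (b + v • e) = c₁ - c₂ * v) (a : ℝ) {u : ℝ}
    (hu : 0 ≤ u) :
    Tendsto (fun l => (own (b + v • e + h l • (a • e + u • (Pi.single j 1 : Fin m → ℝ))) -
      own (b + v • e)) / h l) atTop (𝓝 (-(c₂ * a))) := by
  obtain ⟨hh, hh0, hz⟩ := hz
  have t1 : Tendsto (fun l => v + a * h l) atTop (𝓝 v) := by
    have := (hh0.const_mul a).const_add v
    rwa [mul_zero, add_zero] at this
  have h1 := (hz a u hu).neg.sub_const (c₂ * a)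
  rw [neg_zero, zero_sub] at h1
  refine h1.congr' ?_
  filter_upwards [t1.eventually (lt_mem_nhds hv1), t1.eventually (gt_mem_nhds hv2)] with l h2 h3
  have hl := hh l
  have e1 : b + v • e + h l • (a • e + u • (Pi.single j 1 : Fin m → ℝ)) =
      b + (v + a * h l) • e + (u * h l) • (Pi.single j 1 : Fin m → ℝ) := by
    rw [smul_add, add_smul, mul_comm a, mul_smul, mul_comm u, mul_smul]; abel
  rw [e1, hfull v hv1 hv2]
  unfold oloss
  rw [hfull _ h2 h3]
  field_simp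
  ring

end path

end Crest.Agent.R136.Own831
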