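import Crest.Agent.R136.Own2_831
import Crest.Agent.R136.ExtZ_779
import Crest.Agent.R136.Net4_186

/-!
# R136: the own dichotomy for `ExtZ` (helper831)

`OPath` : a path of boxes `b + v • e` along which the slot `j` has its natural size (`e j > 0`) and
the other slots are constant, and a family `bg v` of larger natural boxes.

`ext_own_cases` : either at a.e. level `v` the own loss of every box above `b + v • e` raised by `y`
in the slot `j` is `≥ c y` for all small `y`, or, at a point `v` of any set of full measure, there are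
scales `h l → 0` along which every box below `bg v'` raised by `u h l` in the slot `j`,
`v' = v + a h l`, has the full own count.

`ext_own_cases11` : the instance in the chart `Fin 11` (`j = 4` = `F_a`, zero slots `R`, `F_b`).
-/

set_option autoImplicit false
set_option linter.unusedSectionVars false
set_option linter.unusedVariables false

open Filter Topology MeasureTheory Set

namespace Crest.Agent.R136.Own831

open Crest.Agent.R136.Dec146 Crest.Agent.R138.Ex926 Crest.Agent.R136.Net191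
  Crest.Agent.R136.Qg926
open Crest.Agent.R136.Zpr779 (ExtZ)

variable {m : ℕ} {B B' : Base} {I0 I : ℕ → Finset (ℕ × ℝ)}
  {co : ∀ n : ℕ, ℕ × ℝ → ℕ × ℝ → Fin m → ℝ} {M : Mons m} {C : ℝ} {X : ℕ → Fin m → ℝ}
  {w : ℕ → ℝ} {Mw : Mons m} {R : ℝ} {Tn To : ℕ → ℝ} {kz j : Fin m} {w0 s : ℝ}
  {PD : Set (Fin m → ℝ)} {D : (Fin m → ℝ) → ℝ} {r o bg : ℝ → Fin m → ℝ} {E : ℝ → ℝ}
  {T : Fin m → Prop} {ν own : (Fin m → ℝ) → ℝ} {c₀ : ℝ} {b e : Fin m → ℝ} {α β y₁ : ℝ}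

/-- path of the slot `j`, with larger natural boxes `bg` -/
structure OPath (L : Set (Fin m → ℝ)) (w0 : ℝ) (kz j : Fin m) (o bg : ℝ → Fin m → ℝ)
    (b e : Fin m → ℝ) (α β y₁ : ℝ) : Prop where
  α0 : 0 ≤ α
  β1 : β ≤ 1
  y0 : 0 < y₁
  e0 : ∀ i, 0 ≤ e i
  ej : 0 < e j
  kzj : kz ≠ j
  bz : b kz = w0
  ez : e kz = 1
  low : RaiseLeg L b e j α β y₁
  up : ∀ v : ℝ, α < v → v < β → ∀ y : ℝ, 0 ≤ y → y ≤ y₁ →
    bg v + y • (Pi.single j 1 : Fin m → ℝ) ∈ L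
  bgz : ∀ v : ℝ, α < v → v < β → bg v kz = w0 + v
  bgo : ∀ v : ℝ, α < v → v < β → ∀ k, bg v k ≤ o v k
  bgl : ∀ v : ℝ, α < v → v < β → b + v • e ≤ bg v
  bgj : ∀ v : ℝ, α < v → v < β → bg v j = b j + v * e j

theorem ext_sup4 (h : ExtZ B B' I0 I co M C X w Mw R Tn To kz w0 s PD D r o E T ν own c₀) :
    Sup4 own (Leg Mw R) := fun p hp q hq hi _ => h.osub p hp q hq hi

theorem OPath.mem (hp : OPath (Leg Mw R) w0 kz j o bg b e α β y₁) {v : ℝ} (h1 : α < v)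
    (h2 : v < β) : b + v • e ∈ Leg Mw R := by
  have := hp.low v h1 h2 0 le_rfl hp.y0.le
  rwa [zero_smul, add_zero] at this

theorem OPath.bmem (hp : OPath (Leg Mw R) w0 kz j o bg b e α β y₁) {v : ℝ} (h1 : α < v)
    (h2 : v < β) : bg v ∈ Leg Mw R := by
  have := hp.up v h1 h2 0 le_rfl hp.y0.le
  rwa [zero_smul, add_zero] at this

theorem OPath.kzv (hp : OPath (Leg Mw R) w0 kz j o bg b e α β y₁) (v : ℝ) :
    (b + v • e) kz = w0 + v := by
  simp [hp.bz, hp.ez]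

/-- full own counts on the path -/
theorem OPath.ownp (h : ExtZ B B' I0 I co M C X w Mw R Tn To kz w0 s PD D r o E T ν own c₀)
    (hp : OPath (Leg Mw R) w0 kz j o bg b e α β y₁) {v : ℝ} (h1 : α < v) (h2 : v < β) :
    own (b + v • e) = (1 - s) * (1 - v) := by
  have hα := hp.α0
  have hβ := hp.β1
  exact h.own_rot _ (hp.mem h1 h2) v (by linarith) (by linarith) (hp.kzv v) fun k =>
    (hp.bgl v h1 h2 k).trans (hp.bgo v h1 h2 k)

/-- full own counts on the larger boxes -/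
theorem OPath.ownb (h : ExtZ B B' I0 I co M C X w Mw R Tn To kz w0 s PD D r o E T ν own c₀)
    (hp : OPath (Leg Mw R) w0 kz j o bg b e α β y₁) {v : ℝ} (h1 : α < v) (h2 : v < β) :
    own (bg v) = (1 - s) * (1 - v) := by
  have hα := hp.α0
  have hβ := hp.β1
  exact h.own_rot _ (hp.bmem h1 h2) v (by linarith) (by linarith) (hp.bgz v h1 h2)
    (hp.bgo v h1 h2)

/-- meet and join of the larger box with the raised path -/
theorem OPath.inf_sup (hp : OPath (Leg Mw R) w0 kz j o bg b e α β y₁) {v : ℝ} (h1 : α < v)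
    (h2 : v < β) {y : ℝ} (hy : 0 ≤ y) :
    bg v ⊓ (b + v • e + y • (Pi.single j 1 : Fin m → ℝ)) = b + v • e ∧
      bg v ⊔ (b + v • e + y • (Pi.single j 1 : Fin m → ℝ)) =
        bg v + y • (Pi.single j 1 : Fin m → ℝ) := by
  have h3 := hp.bgl v h1 h2
  have h4 := hp.bgj v h1 h2
  constructor
  · funext k
    by_cases hk : k = j
    · subst hk
      simp only [Pi.inf_apply, Pi.add_apply, Pi.smul_apply, smul_eq_mul, Pi.single_eq_same,
        mul_one, h4]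
      exact min_eq_left (by linarith)
    · have := h3 k
      simp only [Pi.add_apply, Pi.smul_apply, smul_eq_mul] at this
      simp only [Pi.inf_apply, Pi.add_apply, Pi.smul_apply, smul_eq_mul, Pi.single_eq_of_ne hk,
        mul_zero, add_zero]
      exact min_eq_right this
  · funext k
    by_cases hk : k = j
    · subst hk
      simp only [Pi.sup_apply, Pi.add_apply, Pi.smul_apply, smul_eq_mul, Pi.single_eq_same,
        mul_one, h4]
      exact max_eq_right (by linarith)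
    · have := h3 k
      simp only [Pi.add_apply, Pi.smul_apply, smul_eq_mul] at this
      simp only [Pi.sup_apply, Pi.add_apply, Pi.smul_apply, smul_eq_mul, Pi.single_eq_of_ne hk,
        mul_zero, add_zero]
      exact max_eq_left this

/-- the own loss of the larger boxes is at most that of the path -/
theorem OPath.loss (h : ExtZ B B' I0 I co M C X w Mw R Tn To kz w0 s PD D r o E T ν own c₀)
    (hp : OPath (Leg Mw R) w0 kz j o bg b e α β y₁) {v y : ℝ} (h1 : α < v) (h2 : v < β)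
    (hy : 0 ≤ y) (hyy : y ≤ y₁) :
    (1 - s) * (1 - v) - oloss own b e j v y ≤
      own (bg v + y • (Pi.single j 1 : Fin m → ℝ)) := by
  obtain ⟨e1, e2⟩ := hp.inf_sup h1 h2 hy
  have h3 := h.osub (bg v) (hp.bmem h1 h2) _ (hp.low v h1 h2 y hy hyy) (by
    rw [e1]; exact hp.mem h1 h2)
  rw [e1, e2, hp.ownb h h1 h2, hp.ownp h h1 h2] at h3
  have h4 : oloss own b e j v y =
    (1 - s) * (1 - v) - own (b + v • e + y • (Pi.single j 1 : Fin m → ℝ)) := by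
    unfold oloss
    rw [hp.ownp h h1 h2]
  linarith

/-- **OWN DICHOTOMY for `ExtZ`** -/
theorem ext_own_cases
    (h : ExtZ B B' I0 I co M C X w Mw R Tn To kz w0 s PD D r o E T ν own c₀)
    (hp : OPath (Leg Mw R) w0 kz j o bg b e α β y₁) :
    (∀ᵐ v : ℝ, v ∈ Ioo α β → ∃ c : ℝ, 0 < c ∧ ∃ y₀ : ℝ, 0 < y₀ ∧ ∀ y : ℝ, 0 < y → y ≤ y₀ →
      ∀ p ∈ Leg Mw R, b + v • e + y • (Pi.single j 1 : Fin m → ℝ) ≤ p →
        own p ≤ (1 - s) * (1 - v) - c * y) ∨
    ∀ Q : ℝ → Prop, (∀ᵐ v : ℝ, v ∈ Ioo α β → Q v) →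
      ∃ v ∈ Ioo α β, Q v ∧ ∃ hh : ℕ → ℝ, (∀ l, 0 < hh l) ∧ Tendsto hh atTop (𝓝 0) ∧
        ∀ a u : ℝ, 0 ≤ u → ∀ ε : ℝ, 0 < ε → ∀ᶠ l in (atTop : Filter ℕ), ∀ p ∈ Leg Mw R,
          p ≤ bg (v + a * hh l) + (u * hh l) • (Pi.single j 1 : Fin m → ℝ) →
            (1 - s) * (1 - (v + a * hh l)) - ε * hh l ≤ own p := by
  have hm : (0 : ℝ) ≤ m := Nat.cast_nonneg _
  rcases own_cases_Leg (P := Leg Mw R) (own := own) (K := m) hm h.olip (ext_sup4 h) h.oanti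
    hp.y0 hp.low hp.e0 hp.ej hp.kzj (by rw [hp.ez]; exact one_pos) with hv | hz
  · left
    filter_upwards [hv] with v hv hvI
    obtain ⟨c, hc, y₀, hy₀, H⟩ := hv hvI
    refine ⟨c, hc, min y₀ y₁, lt_min hy₀ hp.y0, fun y hy hyy p hpL hpp => ?_⟩
    have h1 := H y hy (hyy.trans (min_le_left _ _))
    have h2 := h.oanti _ (hp.low v hvI.1 hvI.2 y hy.le (hyy.trans (min_le_right _ _))) p hpL hpp
    have h3 : oloss own b e j v y =
        (1 - s) * (1 - v) - own (b + v • e + y • (Pi.single j 1 : Fin m → ℝ)) := by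
      unfold oloss
      rw [hp.ownp h hvI.1 hvI.2]
    linarith
  · right
    intro Q hQ
    obtain ⟨v, hvI, hQv, hh, hh0, hht, hz⟩ := hz Q hQ
    refine ⟨v, hvI, hQv, hh, hh0, hht, fun a u hu ε hε => ?_⟩
    have t1 : Tendsto (fun l => v + a * hh l) atTop (𝓝 v) := by
      have := (hht.const_mul a).const_add v
      rwa [mul_zero, add_zero] at this
    have t2 : Tendsto (fun l => u * hh l) atTop (𝓝 0) := by
      have := hht.const_mul u
      rwa [mul_zero] at this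
    filter_upwards [t1.eventually (lt_mem_nhds hvI.1), t1.eventually (gt_mem_nhds hvI.2),
      t2.eventually (gt_mem_nhds hp.y0), (hz a u hu).eventually (gt_mem_nhds hε)] with
      l h1 h2 h3 h4 p hpL hpp
    have h5 := hp.loss h h1 h2 (mul_nonneg hu (hh0 l).le) h3.le
    have h6 := h.oanti p hpL _ (hp.up _ h1 h2 _ (mul_nonneg hu (hh0 l).le) h3.le) hpp
    rw [div_lt_iff₀ (hh0 l)] at h4
    linarith

section chart11

open Crest.Agent.R136.NetQ186 (monQ legalQ_iff)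

/-- lower path: only `z`, the zero slots `R`, `F_b` and `F_a` -/
def ob11 (w0 z0 f0 : ℝ) : Fin 11 → ℝ := ![w0, z0, 0, z0, f0, 0, 0, 0, 0, 0, 0]

/-- direction of the path: `z` has slope `1`, `F_a` has slope `κ` -/
def oe11 (κ : ℝ) : Fin 11 → ℝ := ![1, 0, 0, 0, κ, 0, 0, 0, 0, 0, 0]

/-- larger natural boxes: `E` of size `ee v`, all line slots of size `z0` -/
def obg11 (w0 z0 f0 κ : ℝ) (ee : ℝ → ℝ) (v : ℝ) : Fin 11 → ℝ :=
  ![w0 + v, z0, ee v, z0, f0 + κ * v, z0, z0, z0, z0, z0, z0]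

/-- the lower path is legal -/
theorem low11 {w0 z0 f0 κ R y₂ : ℝ} (hw : 0 ≤ w0) (hf : 0 ≤ f0) (hκ : 0 ≤ κ) (hy : 0 ≤ y₂)
    (hz : f0 + κ + y₂ ≤ z0) (hR : w0 + 1 ≤ R) (hzR : z0 ≤ R) {α β : ℝ} (hα : 0 ≤ α)
    (hβ : β ≤ 1) : RaiseLeg (Leg monQ R) (ob11 w0 z0 f0) (oe11 κ) 4 α β y₂ := by
  intro v hv1 hv2 y hy0 hy1
  have hv0 : 0 ≤ v := by linarith
  have hv1' : v ≤ 1 := by linarith
  have hκv : 0 ≤ κ * v := mul_nonneg hκ hv0
  have hκv1 : κ * v ≤ κ := by nlinarith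
  have e1 : ob11 w0 z0 f0 + v • oe11 κ + y • (Pi.single 4 1 : Fin 11 → ℝ) =
      ![w0 + v, z0, 0, z0, f0 + κ * v + y, 0, 0, 0, 0, 0, 0] := by
    funext k
    fin_cases k <;> simp [ob11, oe11, mul_comm]
  rw [e1]
  refine ⟨?_, fun k => ?_⟩
  · rw [legalQ_iff]
    refine ⟨fun k => ?_, ?_, ?_, ?_, ?_, ?_, ?_, ?_, ?_, ?_, ?_, ?_⟩
    · fin_cases k <;>
        simp only [Matrix.cons_val, Fin.zero_eta, Fin.mk_one, Fin.reduceFinMk, Fin.isValue] <;>
        linarith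
    all_goals
      simp only [Matrix.cons_val, Fin.isValue]
      linarith
  · fin_cases k <;>
      simp only [Matrix.cons_val, Fin.zero_eta, Fin.mk_one, Fin.reduceFinMk, Fin.isValue] <;>
      linarith

/-- the larger boxes are legal -/
theorem up11 {w0 z0 f0 κ R y₂ : ℝ} {ee : ℝ → ℝ} (hw : 0 ≤ w0) (hf : 0 ≤ f0) (hκ : 0 ≤ κ)
    (hy : 0 ≤ y₂) (hz : f0 + κ + y₂ ≤ z0) (hR : w0 + 1 ≤ R) (hzR : z0 ≤ R)
    (hee : ∀ v : ℝ, 0 ≤ v → v ≤ 1 → 0 ≤ ee v ∧ ee v ≤ R) {v : ℝ} (hv0 : 0 ≤ v) (hv1 : v ≤ 1)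
    {y : ℝ} (hy0 : 0 ≤ y) (hy1 : y ≤ y₂) :
    obg11 w0 z0 f0 κ ee v + y • (Pi.single 4 1 : Fin 11 → ℝ) ∈ Leg monQ R := by
  have hκv : 0 ≤ κ * v := mul_nonneg hκ hv0
  have hκv1 : κ * v ≤ κ := by nlinarith
  obtain ⟨g1, g2⟩ := hee v hv0 hv1
  have e1 : obg11 w0 z0 f0 κ ee v + y • (Pi.single 4 1 : Fin 11 → ℝ) =
      ![w0 + v, z0, ee v, z0, f0 + κ * v + y, z0, z0, z0, z0, z0, z0] := by
    funext k
    fin_cases k <;> simp [obg11]
  rw [e1]
  refine ⟨?_, fun k => ?_⟩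
  · rw [legalQ_iff]
    refine ⟨fun k => ?_, ?_, ?_, ?_, ?_, ?_, ?_, ?_, ?_, ?_, ?_, ?_⟩
    · fin_cases k <;>
        simp only [Matrix.cons_val, Fin.zero_eta, Fin.mk_one, Fin.reduceFinMk, Fin.isValue] <;>
        linarith
    all_goals
      simp only [Matrix.cons_val, Fin.isValue]
      linarith
  · fin_cases k <;>
      simp only [Matrix.cons_val, Fin.zero_eta, Fin.mk_one, Fin.reduceFinMk, Fin.isValue] <;>
      linarith

/-- monomials implied by those of the chart -/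
theorem Leg_mono_mons {m : ℕ} {M M' : Mons m} (h : ∀ p, Legal M p → Legal M' p) (R : ℝ) :
    Leg M R ⊆ Leg M' R := fun p hp => ⟨h p hp.1, hp.2⟩

/-- the path of `F_a` in the chart, zero slots `R`, `F_b` -/
theorem oPath11 {Mw : Mons 11} (hMw : ∀ p, Legal monQ p → Legal Mw p) {w0 z0 f0 κ R y₂ : ℝ}
    {ee : ℝ → ℝ} {o : ℝ → Fin 11 → ℝ} (hw : 0 ≤ w0) (hf : 0 ≤ f0) (hκ : 0 < κ) (hy : 0 < y₂)
    (hz : f0 + κ + y₂ ≤ z0) (hR : w0 + 1 ≤ R) (hzR : z0 ≤ R)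
    (hee : ∀ v : ℝ, 0 ≤ v → v ≤ 1 → 0 ≤ ee v ∧ ee v ≤ R)
    (ho : ∀ v : ℝ, 0 ≤ v → v ≤ 1 → w0 + v ≤ o v 0 ∧ ee v ≤ o v 2 ∧ f0 + κ * v ≤ o v 4 ∧
      ∀ k, k ≠ 0 → k ≠ 2 → k ≠ 4 → z0 ≤ o v k) :
    OPath (Leg Mw R) w0 0 4 o (obg11 w0 z0 f0 κ ee) (ob11 w0 z0 f0) (oe11 κ) 0 1 y₂ where
  α0 := le_rfl
  β1 := le_rfl
  y0 := hy
  e0 := fun k => by
    fin_cases k <;> simp [oe11, hκ.le]
  ej := by simp [oe11, hκ]
  kzj := by decide
  bz := by simp [ob11]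
  ez := by simp [oe11]
  low := fun v h1 h2 y h3 h4 =>
    Leg_mono_mons hMw R (low11 hw hf hκ.le hy.le hz hR hzR le_rfl le_rfl v h1 h2 y h3 h4)
  up := fun v h1 h2 y h3 h4 =>
    Leg_mono_mons hMw R (up11 hw hf hκ.le hy.le hz hR hzR hee h1.le h2.le h3 h4)
  bgz := fun v _ _ => by simp [obg11]
  bgo := fun v h1 h2 k => by
    obtain ⟨g1, g2, g3, g4⟩ := ho v h1.le h2.le
    by_cases k0 : k = 0
    · subst k0; simpa [obg11] using g1
    by_cases k2 : k = 2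
    · subst k2; simpa [obg11] using g2
    by_cases k4 : k = 4
    · subst k4; simpa [obg11] using g3
    refine le_trans (le_of_eq ?_) (g4 k k0 k2 k4)
    revert k0 k2 k4
    fin_cases k <;> simp [obg11]
  bgl := fun v h1 h2 k => by
    have hz0 : 0 ≤ z0 := by nlinarith
    have := (hee v h1.le h2.le).1
    fin_cases k <;> simp [ob11, oe11, obg11, hz0, this, mul_comm]
  bgj := fun v _ _ => by simp [obg11, ob11, oe11, mul_comm]

/-- **OWN DICHOTOMY for `ExtZ` in the chart `Fin 11`**: `F_a` = slot `4`, zero slots `R`, `F_b` (`1`,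
`3`) of size `z0`.  Either at a.e. level the own loss of all boxes whose slot `F_a` is beyond its
natural size by `y` is `≥ c y`, or, at a point `v` of any set of full measure and along scales
`hh l → 0`, all boxes of the level `v' = v + a h l` whose slots `z`, `E` are at most natural and whose
slot `F_a` is at most `u h l` beyond its natural size, have full own counts up to `ε h l`. -/
theorem ext_own_cases11 {B B' : Base} {I0 I : ℕ → Finset (ℕ × ℝ)}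
    {co : ∀ n : ℕ, ℕ × ℝ → ℕ × ℝ → Fin 11 → ℝ} {M : Mons 11} {C : ℝ} {X : ℕ → Fin 11 → ℝ}
    {w : ℕ → ℝ} {Mw : Mons 11} {R : ℝ} {Tn To : ℕ → ℝ} {w0 s : ℝ}
    {PD : Set (Fin 11 → ℝ)} {D : (Fin 11 → ℝ) → ℝ} {r o : ℝ → Fin 11 → ℝ} {E : ℝ → ℝ}
    {T : Fin 11 → Prop} {ν own : (Fin 11 → ℝ) → ℝ} {c₀ : ℝ} {z0 f0 κ y₂ : ℝ} {ee : ℝ → ℝ}
    (hMw : ∀ p, Legal monQ p → Legal Mw p)
    (h : ExtZ B B' I0 I co M C X w Mw R Tn To 0 w0 s PD D r o E T ν own c₀)
    (hw : 0 ≤ w0) (hf : 0 ≤ f0) (hκ : 0 < κ) (hy : 0 < y₂)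
    (hz : f0 + κ + y₂ ≤ z0) (hR : w0 + 1 ≤ R) (hzR : z0 ≤ R)
    (hee : ∀ v : ℝ, 0 ≤ v → v ≤ 1 → 0 ≤ ee v ∧ ee v ≤ R)
    (ho : ∀ v : ℝ, 0 ≤ v → v ≤ 1 → w0 + v ≤ o v 0 ∧ ee v ≤ o v 2 ∧ f0 + κ * v ≤ o v 4 ∧
      ∀ k, k ≠ 0 → k ≠ 2 → k ≠ 4 → z0 ≤ o v k) :
    (∀ᵐ v : ℝ, v ∈ Ioo (0 : ℝ) 1 → ∃ c : ℝ, 0 < c ∧ ∃ y₀ : ℝ, 0 < y₀ ∧ ∀ y : ℝ, 0 < y →
      y ≤ y₀ → ∀ p ∈ Leg Mw R, w0 + v ≤ p 0 → z0 ≤ p 1 → z0 ≤ p 3 → f0 + κ * v + y ≤ p 4 →
        own p ≤ (1 - s) * (1 - v) - c * y) ∨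
    ∀ Q : ℝ → Prop, (∀ᵐ v : ℝ, v ∈ Ioo (0 : ℝ) 1 → Q v) →
      ∃ v ∈ Ioo (0 : ℝ) 1, Q v ∧ ∃ hh : ℕ → ℝ, (∀ l, 0 < hh l) ∧ Tendsto hh atTop (𝓝 0) ∧
        ∀ a u : ℝ, 0 ≤ u → ∀ ε : ℝ, 0 < ε → ∀ᶠ l in (atTop : Filter ℕ), ∀ p ∈ Leg Mw R,
          p 0 ≤ w0 + (v + a * hh l) → p 2 ≤ ee (v + a * hh l) →
          p 4 ≤ f0 + κ * (v + a * hh l) + u * hh l →
          (∀ k, k ≠ 0 → k ≠ 2 → k ≠ 4 → p k ≤ z0) →
            (1 - s) * (1 - (v + a * hh l)) - ε * hh l ≤ own p := by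
  rcases ext_own_cases h (oPath11 hMw hw hf hκ hy hz hR hzR hee ho) with hv | hz'
  · left
    filter_upwards [hv] with v hv hvI
    obtain ⟨c, hc, y₀, hy₀, H⟩ := hv hvI
    refine ⟨c, hc, y₀, hy₀, fun y hy0 hy1 p hpL g0 g1 g3 g4 => H y hy0 hy1 p hpL fun k => ?_⟩
    have hn := hpL.1.nonneg
    fin_cases k
    · simpa [ob11, oe11] using g0
    · simpa [ob11, oe11] using g1
    · simpa [ob11, oe11] using hn 2
    · simpa [ob11, oe11] using g3
    · simpa [ob11, oe11, mul_comm] using g4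
    · simpa [ob11, oe11] using hn 5
    · simpa [ob11, oe11] using hn 6
    · simpa [ob11, oe11] using hn 7
    · simpa [ob11, oe11] using hn 8
    · simpa [ob11, oe11] using hn 9
    · simpa [ob11, oe11] using hn 10
  · right
    intro Q hQ
    obtain ⟨v, hvI, hQv, hh, hh0, hht, H⟩ := hz' Q hQ
    refine ⟨v, hvI, hQv, hh, hh0, hht, fun a u hu ε hε => ?_⟩
    filter_upwards [H a u hu ε hε] with l hl p hpL g0 g2 g4 gk
    refine hl p hpL fun k => ?_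
    fin_cases k
    · simpa [obg11] using g0
    · simpa [obg11] using gk 1 (by decide) (by decide) (by decide)
    · simpa [obg11] using g2
    · simpa [obg11] using gk 3 (by decide) (by decide) (by decide)
    · simpa [obg11] using g4
    · simpa [obg11] using gk 5 (by decide) (by decide) (by decide)
    · simpa [obg11] using gk 6 (by decide) (by decide) (by decide)
    · simpa [obg11] using gk 7 (by decide) (by decide) (by decide)
    · simpa [obg11] using gk 8 (by decide) (by decide) (by decide)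
    · simpa [obg11] using gk 9 (by decide) (by decide) (by decide)
    · simpa [obg11] using gk 10 (by decide) (by decide) (by decide)

end chart11

end Crest.Agent.R136.Own831
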