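import Crest.Agent.R136.Thn3_768
import Crest.Agent.R136.TL3_650

/-!
# R136 (S0187), U6 thin side (helper650): `Own` and `Snd` from the marks

`kap_pos_of_det` : nondegenerate ⊢ curved; **`own_of`** ; **`snd_of_close`** (closeness of two
marks ⊢ 768's `Snd`).
-/

set_option autoImplicit false
set_option linter.unusedVariables false

namespace Crest.Agent.R136.TL650

open Crest.Agent.R136.Sh605
open Crest.Agent.R136.Tl102
open Crest.Agent.R136.Arc880 (det3)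
open Crest.Agent.R136.KapP335 (kapP DetP expP expP_spec kapP_eq detP_iff)
open Crest.Agent.R136.Tlt51 (Close Shp InP)
open Crest.Agent.R136.K4 (Plk4)
open Crest.Agent.R136.Thn768 (Own Snd Tay exists_tay)

theorem kap_pos_of_det {b0 b1 : V3} {G : QF} {δ : ℝ} (hδ : 0 < δ)
    (h : δ ≤ |det3 (fan (shB0 b0) (scB1 (kap b0 b1 G) b0 b1) (scG (kap b0 b1 G) b0 G) 0)|) :
    0 < kap b0 b1 G := by
  rcases (kap_nonneg b0 b1 G).lt_or_eq with hk | hk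
  · exact hk
  · exfalso
    rw [← hk] at h
    have e : det3 (fan (shB0 b0) (scB1 0 b0 b1) (scG 0 b0 G) 0) = 0 := by
      simp only [det3, fan, slp, shB0, scB1, scG, Matrix.cons_val]
      simp
    rw [e, abs_zero] at h
    linarith

/-- **own expansion of a nondegenerate mark** -/
theorem own_of {S : Plk4} {T : Ln4} {z0 ρ r δ : ℝ} (hS : Shp S z0 ρ r) (hr : 0 < r)
    (hT : InP T S z0 ρ) (hρ : 0 < ρ) (hδ : 0 < δ) (hdet : DetP δ S z0 ρ T) :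
    ∃ b0 b1 G, Own S T z0 ρ δ b0 b1 G := by
  have hw0 : 0 < S.w 0 := (hr.trans_le hS.r0_le).trans_le hS.a_le0
  have P : StP S.e S.c S.w S.q z0 ρ := StP.of_shN hS hw0
  obtain ⟨b0, b1, G, hx⟩ := exists_isExp P.isQ S.e hw0.ne' T z0 ρ
  have N : NrmC b0 b1 G := hx.nrmC P hρ.le (fun z h1 h2 => (hT z h1 h2).1)
  have hd := (detP_iff hw0.ne' hx δ).1 hdet 0 le_rfl zero_le_one
  exact ⟨b0, b1, G, P.ortho, P.pos, hS.w0_le, hS.w_le, hρ, hx, N, kap_pos_of_det hδ hd, hδ, hdet⟩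

/-- **a second mark, close to a nondegenerate one** -/
theorem snd_of_close {S S' : Plk4} {T : Ln4} {z0 ρ z0' ρ' r r' δ E : ℝ} {b0 b1 : V3} {G : QF}
    (O : Own S T z0 ρ δ b0 b1 G) (hS : Shp S z0 ρ r) (hT : InP T S z0 ρ)
    (hS' : Shp S' z0' ρ' r') (hw0' : 0 < S'.w 0) (hz : z0' ≤ z0) (hz' : z0 + ρ ≤ z0' + ρ')
    (hT' : InP T S' z0' ρ') (hcl : Close E S S' T z0 ρ)
    (hsm : 10 ^ 20 * E ≤ δ ^ 8 * (S.w 0 * kap b0 b1 G)) :
    ∃ N R H, Snd S T z0 ρ b0 b1 G (10 ^ 19 * E / δ ^ 8 / (S.w 0 * kap b0 b1 G)) S'.q N R H := by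
  have hw0 := O.pos 0
  have P' : StP S'.e S'.c S'.w S'.q z0' ρ' := StP.of_shN hS' hw0'
  obtain ⟨β0, β1, Γ, hx2⟩ := exists_isExp P'.isQ S.e hw0.ne' T z0 ρ
  obtain ⟨N, R, H, ht⟩ := exists_tay P'.isQ T
  have hkp : kapP S z0 ρ T = S.w 0 * kap b0 b1 G := kapP_eq hw0.ne' O.exp
  have hκ : 0 < kapP S z0 ρ T := by rw [hkp]; exact mul_pos hw0 O.k0
  obtain ⟨m1, m2, X, hX, hO⟩ := omB_of_close hS hw0 O.hρ.le hT hS' hw0' hz hz' hT' hκ O.δ0 O.det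
    hcl (by rw [hkp]; exact hsm) O.exp hx2
  have hX' : X ≤ 10 ^ 19 * E / δ ^ 8 / (S.w 0 * kap b0 b1 G) := by
    rw [le_div_iff₀ (mul_pos hw0 O.k0)]; exact hX
  exact ⟨N, R, H, ht, β0, β1, Γ, hx2, m1, m2.trans (by norm_num), hO.mono hX' hX' hX'⟩

end Crest.Agent.R136.TL650
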