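import Crest.Agent.R136.Bas4_938
import Crest.Agent.R136.ThB_830

/-!
# R136, thin branch (helper830): the last rungs `s < 1` without visible own slots

* `ptB_of` : 938's point structure from `PtC`, `basG_of` : hypotheses of his base
* `full3_ray` : `3 ≤ -A.1` on every rung
* **`dead0`** : row `dead0` (`DeadC`)
-/

set_option autoImplicit false
set_option linter.unusedVariables false

open Finset Filter Topology

namespace Crest.Agent.R136.P0830

open Crest.Agent.R138.Ex926 (Base U)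
open Crest.Agent.R136.Net191 Crest.Agent.R136.NetW191
open Crest.Agent.R136.LadW697 Crest.Agent.R136.NatW697
open Crest.Agent.R136.Bas938 (ChW PtB BasG ActM actM_mA v4 cases4 ray_mem)
open Crest.Agent.R136.EvW938
open Crest.Agent.R136.Aw413
open Crest.Agent.R136.AwJ774
open Crest.Agent.R136.K2S774 (cn)
open Crest.Agent.R136.ThB830
open Crest.Agent.R136.LadT830
open Crest.Agent.R136.Dg219 (gC gC_zero gC_eq)
open Crest.Agent.R136.PrW464

variable {B Bo : Base} {I J : ℕ → Finset (ℕ × ℝ)} {co : ∀ n : ℕ, ℕ × ℝ → ℕ × ℝ → Fin 18 → ℝ}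
  {C : ℝ} {κ : ℕ → ℝ} {u : ℕ → Fin 18 → ℝ} {f : ℕ → ℕ × ℝ → FW} {K : ℝ}
  {θ : Fin 3 → ℝ} {q : Fin 3 → ℝ} {V T : Set (Fin 18)} {s : ℝ}
  {lam lo : (Fin 18 → ℝ) → ℝ} {A : ℝ × ℝ} {φ : ℕ → (Fin 18 → ℝ) → ℝ} {r : ℕ → ℝ}

/-- 938's point structure -/
theorem ptB_of (h : PtC B Bo I J co C κ u f K θ q V T s lam lo A φ r) :
    PtB B Bo I J co κ u f (mA monW (actW (DrW s))) (DrW s) C lam (TW s) (btW θ) A φ r (btW θ)
      (fun k => k ∈ V ∧ KW θ k = s) (fun k => k ∈ T ∧ k ∈ V ∧ KW θ k = s) where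
  aew := h.aew
  ch := ⟨fun n i _ j _ k => h.co_eq n i j k, h.gru, h.kp1, h.kp0, h.ne⟩
  act := actM_mA _
  ind := fun c hc c' hc' e => by
    rw [coneM_mA] at hc hc'
    exact h.ind c hc c' hc' e

/-- hypotheses of the base -/
theorem basG_of (h : PtC B Bo I J co C κ u f K θ q V T s lam lo A φ r) :
    BasG lam (mA monW (actW (DrW s))) (DrW s) (TW s) (btW θ) (fun k => k ∈ V ∧ KW θ k = s) where
  Dr4 := fun k hk => hk.1
  V4 := fun k hk => (h.vis k hk.1).1
  gz := by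
    have hθ := h.th1
    intro j
    have z1 : TW s 0 ≠ 0 := by rw [TW_z]; exact one_ne_zero
    refine cases4 (P := fun j => gC (TW s) (btW θ) j = gC (TW s) (btW θ) 0 → 4 ≤ j ∨ j = 0) ?_ ?_
      ?_ ?_ ?_ j
    · intro _; exact Or.inr rfl
    · intro e
      rw [gC_zero.2 (TW_c s)] at e
      exact absurd (gC_zero.1 e.symm) z1
    · intro e
      rw [gC_eq (by rw [TW_A]; exact one_ne_zero) z1, TW_A, TW_z, Bas938.btW0, Bas938.btW2] at e
      linarith
    · intro e
      rw [gC_eq (by rw [TW_B]; exact one_ne_zero) z1, TW_B, TW_z, Bas938.btW0, Bas938.btW3] at e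
      linarith
    · intro k hk _; exact Or.inl hk
  gA := by
    have hθ := h.th1
    intro j
    have z1 : TW s 2 ≠ 0 := by rw [TW_A]; exact one_ne_zero
    refine cases4 (P := fun j => gC (TW s) (btW θ) j = gC (TW s) (btW θ) 2 → 4 ≤ j ∨ j = 2) ?_ ?_
      ?_ ?_ ?_ j
    · intro e
      rw [gC_eq (by rw [TW_z]; exact one_ne_zero) z1, TW_A, TW_z, Bas938.btW0, Bas938.btW2] at e
      linarith
    · intro e
      rw [gC_zero.2 (TW_c s)] at e
      exact absurd (gC_zero.1 e.symm) z1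
    · intro _; exact Or.inr rfl
    · intro e
      rw [gC_eq (by rw [TW_B]; exact one_ne_zero) z1, TW_B, TW_A, Bas938.btW3, Bas938.btW2] at e
      linarith
    · intro k hk _; exact Or.inl hk
  a0 := by
    intro j
    refine cases4 (P := fun j => TW s j = 0 → 4 ≤ j ∨ j = 1) ?_ ?_ ?_ ?_ ?_ j
    · rw [TW_z]; intro e; exact absurd e one_ne_zero
    · intro _; exact Or.inr rfl
    · rw [TW_A]; intro e; exact absurd e one_ne_zero
    · rw [TW_B]; intro e; exact absurd e one_ne_zero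
    · intro k hk _; exact Or.inl hk
  sweep := by
    have h1 := h.q1
    have h2 := h.q2
    refine ⟨q 1 + 2 * q 2, by linarith, fun c hc h1 h2 t ht => ?_⟩
    rw [coneM_mA] at hc
    exact h.sweep c hc h1 h2 t ht

/-- **the frames are full on every rung** -/
theorem full3_ray (h : PtC B Bo I J co C κ u f K θ q V T s lam lo A φ r) : 3 ≤ -A.1 := by
  refine full_of_ray h.aew.out (F := 3) (C := 0) (Filter.Eventually.frequently ?_)
  filter_upwards [eventually_gt_atTop 0] with t ht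
  have m0 := ray_mem s t
  refine ⟨m0, ?_⟩
  have m2 : v4 t 0 t t ∈ coneM (mA monW (actW (DrW s))) :=
    Bas938.v4_mem (actM_mA _) ht.le le_rfl ht.le ht.le (by linarith) (by linarith) (by linarith)
  have hle : v4 t 0 t t ≤ t • TW s := by
    intro k
    simp only [Pi.smul_apply, smul_eq_mul]
    refine cases4 (P := fun k => v4 t 0 t t k ≤ t * TW s k) ?_ ?_ ?_ ?_ ?_ k
    · rw [Bas938.v4_0, TW_z, mul_one]
    · rw [Bas938.v4_1]; exact mul_nonneg ht.le (TW_nonneg s h.s0 1)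
    · rw [Bas938.v4_2, TW_A, mul_one]
    · rw [Bas938.v4_3, TW_B, mul_one]
    · intro k hk
      rw [Bas938.v4_o _ _ _ _ hk]; exact mul_nonneg ht.le (TW_nonneg s h.s0 k)
  have e1 := h.aew.anti _ m2 _ m0 hle
  have e2 := (ptB_of h).full3 (basG_of h) ht
  linarith

/-- **row `dead0`** -/
theorem dead0 : DeadC fun g θ V s => 0 < s ∧ (∀ k, k ∉ V) ∧ s ≤ g / 2 ∧ s < 1 := by
  refine deadC_of (fun g θ V s h => ⟨h.1, fun k hk => absurd hk (h.2.1 k)⟩) ?_
  intro P ν own K r0 θ g q V T s h hp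
  refine ⟨g / 2, by have := h.g0; linarith, fun B Bo I J co C κ u f lam lo A φ r hP => ?_⟩
  have h1 := full3_ray hP
  have h2 := h.q0
  obtain ⟨p1, p2, p3, p4⟩ := hp
  rw [DlW_saW]
  have h3 : q 0 * (s - 1) ≤ 0 := mul_nonpos_of_nonneg_of_nonpos h2 (by linarith)
  linarith

/-- row `dead0` of the table -/
theorem dead0T {η : ℝ} (hη : 0 < η) (hη4 : η ≤ 1 / 8) :
    DeadT η fun g θ V s => (∀ k, ¬ V k) ∧ s ≤ g / 2 ∧ s < 1 := by
  intro p D I1 π kp uz uc un F V T w0 R T0 PD ν own c₀ h s hs hp v1 h0 h1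
  exact deadT_of_deadC hη hη4 dead0 p D I1 π kp uz uc un F V T w0 R T0 PD ν own c₀ h s hs
    ⟨hs, hp.1, hp.2⟩ v1 h0 h1

end Crest.Agent.R136.P0830
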