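import Crest.Agent.R136.LadW4_697
import Crest.Agent.R136.LegT_191
import Crest.Agent.R136.LfW_619

/-!
# R136, thin pins (helper851): the chain ENGINE at the level of the tangent

`Pin Dr T G m HT lam` : facts about a tangent `lam` on a rung of the thin ladder (walls without the
dropped slots `Dr`): profile facts, decoupling of the groups `G`, sweep of `c`, fullness of `z`,
additivity along the ray `T`, the leaf links and the height links.

* `Vis W f`  : the slot `f` costs something, given the slots of `W` narrow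
* `Full W k` : the slot `k` costs everything up to a constant, given the slots of `W` narrow
* `XF W X`   : the slot `X` is full given `W`
* `leafStep`, `htStep`, `tr_vis`, .. : steps of a chain
* `Pin.fin`  : `Full P N` ⊢ `lam (u • T) ≤ -(3 + s) u + C`
-/

set_option autoImplicit false
set_option linter.unusedSectionVars false
set_option linter.unusedVariables false

open Finset Filter Topology

namespace Crest.Agent.R136.Pin851

open Crest.Agent.R136.NetW191 Crest.Agent.R136.Net191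
open Crest.Agent.R136.LadW697
open Crest.Agent.R136.LfW619 (LeafDat)
open Crest.Agent.R136.K2S774 (cn)

/-- cone of the walls without the dropped slots -/
abbrev CL (Dr : Finset (Fin 18)) : Set (Fin 18 → ℝ) := cn QW (actW (Dr : Set (Fin 18)))

variable {Dr V W W' P : Finset (Fin 18)} {T c c' : Fin 18 → ℝ} {G : Fin 18 → ℕ} {m s : ℝ}
  {HT : Finset (Fin 18) → Fin 18 → Fin 18 → Prop} {lam : (Fin 18 → ℝ) → ℝ} {f k X : Fin 18}

/-- every monomial has a factor with a larger exponent -/
theorem mem_max (h0 : ∀ k, 0 ≤ c k) (h : ∀ k, ∀ l ∈ mlW k, (∀ a ∈ l, a ∉ Dr) → ∃ j ∈ l, c k ≤ c j) :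
    c ∈ CL Dr := by
  rw [CL, mem_cnW]
  intro k _ l hl hD
  obtain ⟨j, hj, hkj⟩ := h k l hl fun a ha => by simpa using hD a ha
  refine hkj.trans (List.single_le_sum ?_ _ (List.mem_map.2 ⟨j, hj, rfl⟩))
  intro y hy
  obtain ⟨a, _, rfl⟩ := List.mem_map.1 hy
  exact h0 a

/-- general test box: `x k` on the up-closed set `W`, monotone in the sense of the walls -/
theorem mem_ind (hW : UpW Dr W) {x : ℝ} (hx : 0 ≤ x) : ind W x ∈ CL Dr := by
  refine mem_max (ind_nonneg hx) fun k l hl hD => ?_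
  by_cases hk : k ∈ W
  · obtain ⟨j, hj, hjW⟩ := hW k hk l hl hD
    exact ⟨j, hj, by rw [ind_mem hk, ind_mem hjW]⟩
  · obtain ⟨j, hj⟩ := List.exists_mem_of_ne_nil l (mlW_ne k l hl)
    exact ⟨j, hj, by rw [ind_notMem hk]; exact ind_nonneg hx j⟩

theorem mem_upd (hW : UpW Dr W) (hf : UpW Dr (insert f W)) (hfW : f ∉ W) {x y : ℝ} (hy : 0 ≤ y)
    (hyx : y ≤ x) : Function.update (ind W x) f y ∈ CL Dr := by
  have hx : 0 ≤ x := hy.trans hyx
  have hv : ∀ j, j ≠ f → Function.update (ind W x) f y j = ind W x j := fun j hj =>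
    Function.update_of_ne hj _ _
  have hvf : Function.update (ind W x) f y f = y := Function.update_self _ _ _
  have hnn : ∀ j, 0 ≤ Function.update (ind W x) f y j := by
    intro j
    by_cases hj : j = f
    · subst hj; rw [hvf]; exact hy
    · rw [hv j hj]; exact ind_nonneg hx j
  refine mem_max hnn fun k l hl hD => ?_
  by_cases hk : k = f
  · subst hk
    obtain ⟨j, hj, hjW⟩ := hf k (Finset.mem_insert_self _ _) l hl hD
    have hjk : j ≠ k := (mlW_low k l hl j hj).ne
    refine ⟨j, hj, ?_⟩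
    rw [hvf, hv j hjk, ind_mem (Finset.mem_of_mem_insert_of_ne hjW hjk)]
    exact hyx
  · by_cases hkW : k ∈ W
    · obtain ⟨j, hj, hjW⟩ := hW k hkW l hl hD
      have hjf : j ≠ f := fun h => hfW (h ▸ hjW)
      exact ⟨j, hj, by rw [hv k hk, hv j hjf, ind_mem hkW, ind_mem hjW]⟩
    · obtain ⟨j, hj⟩ := List.exists_mem_of_ne_nil l (mlW_ne k l hl)
      exact ⟨j, hj, by rw [hv k hk, ind_notMem hkW]; exact hnn j⟩

theorem ind_insert (hf : f ∉ W) (x : ℝ) : ind (insert f W) x = Function.update (ind W x) f x := by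
  funext k
  by_cases hk : k = f
  · subst hk; rw [Function.update_self, ind_mem (Finset.mem_insert_self _ _)]
  · rw [Function.update_of_ne hk]
    by_cases hkW : k ∈ W
    · rw [ind_mem hkW, ind_mem (Finset.mem_insert_of_mem hkW)]
    · rw [ind_notMem hkW, ind_notMem (fun h => hkW (Finset.mem_of_mem_insert_of_ne h hk))]

theorem sum_upd (c : Fin 18 → ℝ) (f : Fin 18) (y : ℝ) :
    ∑ i, (Function.update c f y i - c i) = y - c f := by
  rw [Finset.sum_eq_single f]
  · rw [Function.update_self]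
  · intro i _ hi; rw [Function.update_of_ne hi, sub_self]
  · intro h; exact absurd (Finset.mem_univ f) h

theorem le_upd {y : ℝ} (h : c f ≤ y) : c ≤ Function.update c f y := by
  intro i
  by_cases hi : i = f
  · subst hi; rw [Function.update_self]; exact h
  · rw [Function.update_of_ne hi]

/-- **facts about a tangent on a rung** -/
structure Pin (Dr : Finset (Fin 18)) (T : Fin 18 → ℝ) (G : Fin 18 → ℕ) (m : ℝ)
    (HT : Finset (Fin 18) → Fin 18 → Fin 18 → Prop) (lam : (Fin 18 → ℝ) → ℝ) : Prop where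
  zero : lam 0 = 0
  anti : ∀ c ∈ CL Dr, ∀ c' ∈ CL Dr, c ≤ c' → lam c' ≤ lam c
  sharp : ∀ c ∈ CL Dr, ∀ c' ∈ CL Dr, c ≤ c' → lam c - lam c' ≤ ∑ i, (c' i - c i)
  G0 : ∀ i, G i = 0 ↔ T i = 0
  T0 : ∀ i, 0 ≤ T i
  T1 : T 0 = 1 ∧ T 1 = 0 ∧ T 2 = 1 ∧ T 3 = 1
  nT : T ∈ CL Dr
  /-- the loss of a slot only depends on the slots of its group -/
  dec : ∀ (f : Fin 18) (y : ℝ) (c c' : Fin 18 → ℝ), c ∈ CL Dr → Function.update c f y ∈ CL Dr →
    c' ∈ CL Dr → Function.update c' f y ∈ CL Dr → (∀ i, G i = G f → c i = c' i) →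
    lam c - lam (Function.update c f y) = lam c' - lam (Function.update c' f y)
  /-- `z` is full -/
  zf : ∀ c ∈ CL Dr, ∀ y, c 0 ≤ y → lam c - lam (Function.update c 0 y) = y - c 0
  m0 : 0 < m
  sweep : ∀ t, 0 ≤ t → lam (Function.update 0 1 t) ≤ -(m * t)
  addT : ∀ u : ℝ, 0 ≤ u → ∀ c ∈ CL Dr, lam (u • T + c) = lam (u • T) + lam c
  leaf : ∀ (V : Finset (Fin 18)) (X : Fin 4) (F q : Fin 14) (n : ℤ) (e : ℕ), n ≠ 0 →
    Disjoint V Dr → Fin.natAdd 4 F ∉ Dr → Fin.natAdd 4 q ∉ Dr →
    LeafDat {0} (V ∪ Dr) X F q n e →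
    UpW Dr V → UpW Dr (insert (Fin.natAdd 4 F) (insert (Fin.natAdd 4 q) V)) →
    UpW Dr (insert (Fin.castAdd 14 X) (insert (Fin.natAdd 4 q) V)) →
    UpW Dr (insert (Fin.natAdd 4 F) (insert (Fin.castAdd 14 X) (insert (Fin.natAdd 4 q) V))) →
    ∀ j x : ℝ, 0 ≤ j → j ≤ x →
    x ≤ lam (ind (insert (Fin.natAdd 4 F) (insert (Fin.natAdd 4 q) V)) x) -
      lam (ind (insert (Fin.castAdd 14 X)
        (insert (Fin.natAdd 4 F) (insert (Fin.natAdd 4 q) V))) x) →
    lam (Function.update (ind (insert (Fin.castAdd 14 X) (insert (Fin.natAdd 4 q) V)) x)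
      (Fin.natAdd 4 F) j) < lam (ind (insert (Fin.castAdd 14 X) (insert (Fin.natAdd 4 q) V)) x) →
    2 * x - j ≤ lam (ind V x) - lam (ind (insert (Fin.castAdd 14 X) (insert (Fin.natAdd 4 q) V)) x)
  /-- `c → B` via `A` -/
  leafB : ∀ V : Finset (Fin 18), Disjoint V Dr → 0 ∈ V → 1 ∉ V → 2 ∉ V → 3 ∉ V → UpW Dr V →
    ∀ j x : ℝ, 0 ≤ j → j ≤ x →
    x ≤ lam (ind (insert 1 (insert 3 V)) x) - lam (ind (insert 2 (insert 1 (insert 3 V))) x) →
    lam (Function.update (ind (insert 2 (insert 3 V)) x) 1 j) < lam (ind (insert 2 (insert 3 V)) x) →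
    2 * x - j ≤ lam (ind V x) - lam (ind (insert 2 (insert 3 V)) x)
  /-- height links -/
  ht : ∀ (V : Finset (Fin 18)) (f k : Fin 18), HT V f k → ∀ j x : ℝ, 0 ≤ j → j ≤ x →
    lam (Function.update (ind (insert k V) x) f j) < lam (ind (insert k V) x) →
    x - j ≤ lam (ind V x) - lam (ind (insert k V) x)

/-- the slot `f` costs something, given `W` -/
def Vis (lam : (Fin 18 → ℝ) → ℝ) (W : Finset (Fin 18)) (f : Fin 18) : Prop :=
  ∃ j e : ℝ, 0 < e ∧ 0 ≤ j ∧ ∀ x, j ≤ x → e ≤ lam (ind W x) - lam (Function.update (ind W x) f j)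

/-- the slot `k` costs everything up to a constant, given `W` -/
def Full (lam : (Fin 18 → ℝ) → ℝ) (W : Finset (Fin 18)) (k : Fin 18) : Prop :=
  ∃ j : ℝ, 0 ≤ j ∧ ∀ x, j ≤ x → x - j ≤ lam (ind W x) - lam (ind (insert k W) x)

/-- the slot `X` is full, given `W` -/
def XF (lam : (Fin 18 → ℝ) → ℝ) (W : Finset (Fin 18)) (X : Fin 18) : Prop :=
  ∀ x : ℝ, 0 ≤ x → x ≤ lam (ind W x) - lam (ind (insert X W) x)

/-- `W` and `insert f W` are up-closed, `f ∉ W` -/
def Up2 (Dr W : Finset (Fin 18)) (f : Fin 18) : Prop := UpW Dr W ∧ UpW Dr (insert f W) ∧ f ∉ W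

instance (Dr W : Finset (Fin 18)) (f : Fin 18) : Decidable (Up2 Dr W f) := by
  unfold Up2; infer_instance

/-- the same slots of the group of `f` -/
def Same (G : Fin 18 → ℕ) (f : Fin 18) (W W' : Finset (Fin 18)) : Prop :=
  ∀ i, i ∈ symmDiff W W' → i ≠ f → G i ≠ G f

theorem Same.symm (h : Same G f W W') : Same G f W' W := fun i hi => by
  rw [symmDiff_comm] at hi; exact h i hi

theorem Same.eq (h : Same G f W W') (hf : f ∉ W) (hf' : f ∉ W') (x : ℝ) :
    ∀ i, G i = G f → ind W x i = ind W' x i := by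
  intro i hi
  by_cases hif : i = f
  · subst hif; rw [ind_notMem hf, ind_notMem hf']
  · have h1 : i ∉ symmDiff W W' := fun hm => h i hm hif hi
    rw [Finset.mem_symmDiff] at h1
    push Not at h1
    by_cases hW : i ∈ W
    · rw [ind_mem hW, ind_mem (h1.1 hW)]
    · have : i ∉ W' := fun h2 => hW (h1.2 h2)
      rw [ind_notMem hW, ind_notMem this]

section steps

variable (H : Pin Dr T G m HT lam)
include H

/-- loss of one slot is at most its exponent -/
theorem Pin.one_le (h2 : Up2 Dr W f) {x y y' : ℝ} (hy : 0 ≤ y) (hyy : y ≤ y') (hx : y' ≤ x) :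
    lam (Function.update (ind W x) f y) - lam (Function.update (ind W x) f y') ≤ y' - y := by
  have h := H.sharp _ (mem_upd h2.1 h2.2.1 h2.2.2 hy (hyy.trans hx)) _
    (mem_upd h2.1 h2.2.1 h2.2.2 (hy.trans hyy) hx) (fun i => by
      by_cases hi : i = f
      · subst hi; rw [Function.update_self, Function.update_self]; exact hyy
      · rw [Function.update_of_ne hi, Function.update_of_ne hi])
  refine h.trans (le_of_eq ?_)
  have e : Function.update (ind W x) f y' =
      Function.update (Function.update (ind W x) f y) f y' := by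
    rw [Function.update_idem]
  rw [e, sum_upd, Function.update_self]

theorem Pin.ins_le (h2 : Up2 Dr W f) {x : ℝ} (hx : 0 ≤ x) :
    lam (ind W x) - lam (ind (insert f W) x) ≤ x := by
  have h := H.one_le h2 (x := x) le_rfl hx le_rfl
  have e : Function.update (ind W x) f 0 = ind W x := by
    conv_rhs => rw [← Function.update_eq_self f (ind W x)]
    rw [ind_notMem h2.2.2]
  rw [e, ← ind_insert h2.2.2, sub_zero] at h
  exact h

/-- transfer of the visibility to another box -/
theorem Pin.tr_vis (h : Vis lam W f) (h2 : Up2 Dr W f) (h2' : Up2 Dr W' f)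
    (hG : Same G f W W') : Vis lam W' f := by
  obtain ⟨j, e, he, hj, h3⟩ := h
  refine ⟨j, e, he, hj, fun x hx => (h3 x hx).trans (le_of_eq ?_)⟩
  exact H.dec f j _ _ (mem_ind h2.1 (hj.trans hx)) (mem_upd h2.1 h2.2.1 h2.2.2 hj hx)
    (mem_ind h2'.1 (hj.trans hx)) (mem_upd h2'.1 h2'.2.1 h2'.2.2 hj hx)
    (hG.eq h2.2.2 h2'.2.2 x)

theorem Pin.tr_full (h : Full lam W f) (h2 : Up2 Dr W f) (h2' : Up2 Dr W' f)
    (hG : Same G f W W') : Full lam W' f := by
  obtain ⟨j, hj, h3⟩ := h
  refine ⟨j, hj, fun x hx => (h3 x hx).trans (le_of_eq ?_)⟩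
  have hx0 := hj.trans hx
  rw [ind_insert h2.2.2, ind_insert h2'.2.2]
  exact H.dec f x _ _ (mem_ind h2.1 hx0) (mem_upd h2.1 h2.2.1 h2.2.2 hx0 le_rfl)
    (mem_ind h2'.1 hx0) (mem_upd h2'.1 h2'.2.1 h2'.2.2 hx0 le_rfl) (hG.eq h2.2.2 h2'.2.2 x)

theorem Pin.tr_XF (h : XF lam W f) (h2 : Up2 Dr W f) (h2' : Up2 Dr W' f)
    (hG : Same G f W W') : XF lam W' f := by
  intro x hx
  refine (h x hx).trans (le_of_eq ?_)
  rw [ind_insert h2.2.2, ind_insert h2'.2.2]
  exact H.dec f x _ _ (mem_ind h2.1 hx) (mem_upd h2.1 h2.2.1 h2.2.2 hx le_rfl)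
    (mem_ind h2'.1 hx) (mem_upd h2'.1 h2'.2.1 h2'.2.2 hx le_rfl) (hG.eq h2.2.2 h2'.2.2 x)

/-- a full slot is visible -/
theorem Pin.vis_of_full (h : Full lam W f) (h2 : Up2 Dr W f) : Vis lam W f := by
  obtain ⟨j, hj, h3⟩ := h
  refine ⟨j + 1, 1, one_pos, by linarith, fun x hx => ?_⟩
  have h4 := h3 x (by linarith)
  have h5 := H.one_le h2 (x := x) (y := j + 1) (y' := x) (by linarith) hx le_rfl
  rw [ind_insert h2.2.2] at h4
  linarith

/-- **leaf step** -/
theorem Pin.leafStep {X : Fin 4} {F q : Fin 14} {n : ℤ} {e : ℕ} (hn : n ≠ 0)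
    (hD : Disjoint V Dr) (hF : Fin.natAdd 4 F ∉ Dr) (hq : Fin.natAdd 4 q ∉ Dr)
    (hd : LeafDat {0} (V ∪ Dr) X F q n e) (u1 : Up2 Dr V (Fin.castAdd 14 X))
    (u2 : UpW Dr (insert (Fin.natAdd 4 F) (insert (Fin.natAdd 4 q) V)))
    (u3 : UpW Dr (insert (Fin.castAdd 14 X) (insert (Fin.natAdd 4 q) V)))
    (u4 : UpW Dr (insert (Fin.natAdd 4 F) (insert (Fin.castAdd 14 X) (insert (Fin.natAdd 4 q) V))))
    (hX : XF lam (insert (Fin.natAdd 4 F) (insert (Fin.natAdd 4 q) V)) (Fin.castAdd 14 X))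
    (hv : Vis lam (insert (Fin.castAdd 14 X) (insert (Fin.natAdd 4 q) V)) (Fin.natAdd 4 F)) :
    Full lam (insert (Fin.castAdd 14 X) V) (Fin.natAdd 4 q) := by
  obtain ⟨j, e', he, hj, h3⟩ := hv
  refine ⟨j, hj, fun x hx => ?_⟩
  have h4 := h3 x hx
  have h5 := H.leaf V X F q n e hn hD hF hq hd u1.1 u2 u3 u4 j x hj hx (hX x (hj.trans hx))
    (by linarith)
  have h6 := H.ins_le u1 (hj.trans hx)
  rw [Finset.insert_comm (Fin.natAdd 4 q) (Fin.castAdd 14 X) V]
  linarith

/-- **height step** -/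
theorem Pin.htStep (hd : HT V f k) (hv : Vis lam (insert k V) f) : Full lam V k := by
  obtain ⟨j, e', he, hj, h3⟩ := hv
  refine ⟨j, hj, fun x hx => ?_⟩
  have h4 := h3 x hx
  exact H.ht V f k hd j x hj hx (by linarith)

/-- a set of slots of group `0`, free to every depth -/
structure Free (lam : (Fin 18 → ℝ) → ℝ) (T : Fin 18 → ℝ) (Dr Fr : Finset (Fin 18)) : Prop where
  up : UpW Dr Fr
  T0 : ∀ i ∈ Fr, T i = 0
  n1 : (1 : Fin 18) ∉ Fr
  free : ∀ x : ℝ, 0 ≤ x → lam (ind Fr x) = 0

omit H in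
theorem up_insert1 (h : UpW Dr W) : UpW Dr (insert 1 W) := by
  intro k hk l hl hD
  rcases Finset.mem_insert.1 hk with h1 | h1
  · subst h1
    have h0 : mlW 1 = [] := by decide
    rw [h0] at hl; exact absurd hl (by simp)
  · obtain ⟨j, hj, hjW⟩ := h k h1 l hl hD
    exact ⟨j, hj, Finset.mem_insert_of_mem hjW⟩

omit H in
theorem up_insert0 (h : UpW Dr W) : UpW Dr (insert 0 W) := by
  intro k hk l hl hD
  rcases Finset.mem_insert.1 hk with h1 | h1
  · subst h1
    have h0 : mlW 0 = [] := by decide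
    rw [h0] at hl; exact absurd hl (by simp)
  · obtain ⟨j, hj, hjW⟩ := h k h1 l hl hD
    exact ⟨j, hj, Finset.mem_insert_of_mem hjW⟩

/-- **`c` costs `m y` in every box which has only free slots of group `0`** -/
theorem Pin.closs {Fr : Finset (Fin 18)} (hFr : Free lam T Dr Fr) (hW : UpW Dr W) (h1 : 1 ∉ W)
    (hG : ∀ i, T i = 0 → i ≠ 1 → (i ∈ W ↔ i ∈ Fr)) {x y : ℝ} (hy : 0 ≤ y) (hyx : y ≤ x) :
    m * y ≤ lam (ind W x) - lam (Function.update (ind W x) 1 y) := by
  have hx := hy.trans hyx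
  have e := H.dec 1 y (ind W x) (ind Fr x) (mem_ind hW hx)
    (mem_upd hW (up_insert1 hW) h1 hy hyx) (mem_ind hFr.up hx)
    (mem_upd hFr.up (up_insert1 hFr.up) hFr.n1 hy hyx) (fun i hi => by
      have hT : T i = 0 := by
        have h2 : G 1 = 0 := (H.G0 1).2 H.T1.2.1
        exact (H.G0 i).1 (hi.trans h2)
      by_cases hi1 : i = 1
      · subst hi1; rw [ind_notMem h1, ind_notMem hFr.n1]
      · have h3 := hG i hT hi1
        by_cases hiW : i ∈ W
        · rw [ind_mem hiW, ind_mem (h3.1 hiW)]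
        · rw [ind_notMem hiW, ind_notMem (fun h => hiW (h3.2 h))])
  rw [e, hFr.free x hx]
  have h4 := H.sweep y hy
  have h5 := H.anti (Function.update 0 1 y) (by
      have : (0 : Fin 18 → ℝ) = ind ∅ x := by funext k; simp [ind]
      rw [this]
      exact mem_upd (by intro k hk; simp at hk) (up_insert1 (by intro k hk; simp at hk)) (by simp)
        hy hyx) _ (mem_upd hFr.up (up_insert1 hFr.up) hFr.n1 hy hyx) (fun i => by
      by_cases hi : i = 1
      · subst hi; rw [Function.update_self, Function.update_self]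
      · rw [Function.update_of_ne hi, Function.update_of_ne hi]
        exact ind_nonneg hx i)
  linarith

/-- **`A` is full** in the boxes which allow the height link `c → A` -/
theorem Pin.Afull {Fr : Finset (Fin 18)} (hFr : Free lam T Dr Fr) (hd : HT V 1 2)
    (hV : UpW Dr (insert 2 V)) (h1 : 1 ∉ V)
    (hG : ∀ i, T i = 0 → i ≠ 1 → (i ∈ V ↔ i ∈ Fr)) : XF lam V 2 := by
  intro x hx
  refine le_of_forall_pos_le_add fun ε hε => ?_
  rcases le_or_gt x ε with h | h
  · have h3 : lam (ind (insert 2 V) x) ≤ lam (ind V x) ∨ True := Or.inr trivial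
    rcases hx.eq_or_lt with h0 | h0
    · rw [← h0]
      have e : ∀ U : Finset (Fin 18), ind U (0:ℝ) = 0 := fun U => by
        funext k; simp [ind]
      rw [e, e]; linarith
    · -- small x
      have h4 := H.ht V 1 2 hd (x / 2) x (by linarith) (by linarith) (by
        have := H.closs hFr hV (W := insert 2 V) (by simp [h1])
          (fun i hi hi1 => by
            rw [← hG i hi hi1, Finset.mem_insert]
            constructor
            · rintro (h5 | h5)
              · subst h5; exact absurd hi (by rw [H.T1.2.2.1]; norm_num)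
              · exact h5
            · exact Or.inr) (x := x) (y := x / 2) (by linarith) (by linarith)
        have hm := H.m0
        nlinarith)
      linarith
  · have h4 := H.ht V 1 2 hd ε x hε.le h.le (by
      have := H.closs hFr hV (W := insert 2 V) (by simp [h1])
        (fun i hi hi1 => by
          rw [← hG i hi hi1, Finset.mem_insert]
          constructor
          · rintro (h5 | h5)
            · subst h5; exact absurd hi (by rw [H.T1.2.2.1]; norm_num)
            · exact h5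
          · exact Or.inr) (x := x) (y := ε) hε.le h.le
      have hm := H.m0
      nlinarith)
    linarith

/-- **`B` is full given `A`** -/
theorem Pin.Bfull {Fr : Finset (Fin 18)} (hFr : Free lam T Dr Fr) (hVD : Disjoint V Dr)
    (h0 : 0 ∈ V) (h1 : 1 ∉ V) (h2 : 2 ∉ V) (h3 : 3 ∉ V) (hV : UpW Dr V) (hV2 : Up2 Dr V 2)
    (hV' : UpW Dr (insert 2 (insert 3 V))) (hG : ∀ i, T i = 0 → i ≠ 1 → (i ∈ V ↔ i ∈ Fr))
    (hA : XF lam (insert 1 (insert 3 V)) 2) : XF lam (insert 2 V) 3 := by
  intro x hx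
  have hT2 : T 2 ≠ 0 := by rw [H.T1.2.2.1]; norm_num
  have hT3 : T 3 ≠ 0 := by rw [H.T1.2.2.2]; norm_num
  have key : ∀ j, 0 < j → j ≤ x → x - j ≤ lam (ind (insert 2 V) x) -
      lam (ind (insert 3 (insert 2 V)) x) := by
    intro j hj hjx
    have h4 := H.leafB V hVD h0 h1 h2 h3 hV j x hj.le hjx (hA x hx) (by
      have := H.closs hFr hV' (by simp [h1])
        (fun i hi hi1 => by
          rw [← hG i hi hi1, Finset.mem_insert, Finset.mem_insert]
          constructor
          · rintro (h5 | h5 | h5)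
            · exact absurd hi (h5 ▸ hT2)
            · exact absurd hi (h5 ▸ hT3)
            · exact h5
          · exact fun h5 => Or.inr (Or.inr h5)) (x := x) (y := j) hj.le hjx
      have hm := H.m0
      nlinarith)
    have h5 := H.ins_le hV2 hx
    rw [Finset.insert_comm 3 2 V]
    linarith
  rcases hx.eq_or_lt with h | h
  · rw [← h]
    have e : ∀ U : Finset (Fin 18), ind U (0:ℝ) = 0 := fun U => by
      funext k; simp [ind]
    rw [e, e]; linarith
  · refine le_of_forall_pos_le_add fun ε hε => ?_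
    have := key (min ε x) (lt_min hε h) (min_le_right _ _)
    have h6 := min_le_left ε x
    linarith

/-- a slot which is not free is visible -/
theorem Pin.vis_first {Fr : Finset (Fin 18)} (hFr : Free lam T Dr Fr) {j : Fin 18}
    (hj : T j = 0) (hjF : j ∉ Fr) (hj0 : j ≠ 0) (hup : UpW Dr (insert j Fr)) {y : ℝ} (hy : 0 ≤ y)
    (hl : lam (ind (insert j Fr) y) < 0) : Vis lam (insert 0 Fr) j := by
  have h0F : (0 : Fin 18) ∉ Fr := fun h => by
    have := hFr.T0 0 h
    rw [H.T1.1] at this; norm_num at this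
  refine ⟨y, -lam (ind (insert j Fr) y), by linarith, hy, fun x hx => ?_⟩
  have hx0 := hy.trans hx
  have hup0 : UpW Dr (insert j (insert 0 Fr)) := by
    rw [Finset.insert_comm]; exact up_insert0 hup
  have hj0F : j ∉ insert 0 Fr := by simp [hj0, hjF]
  have e := H.dec j y (ind (insert 0 Fr) x) (ind Fr x) (mem_ind (up_insert0 hFr.up) hx0)
    (mem_upd (up_insert0 hFr.up) hup0 hj0F hy hx) (mem_ind hFr.up hx0)
    (mem_upd hFr.up hup hjF hy hx) (fun i hi => by
      have hT : T i = 0 := (H.G0 i).1 (hi.trans ((H.G0 j).2 hj))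
      have hi0 : i ≠ 0 := fun h => by
        rw [h, H.T1.1] at hT; norm_num at hT
      by_cases hiF : i ∈ Fr
      · rw [ind_mem hiF, ind_mem (Finset.mem_insert_of_mem hiF)]
      · rw [ind_notMem hiF, ind_notMem (by simp [hi0, hiF])])
  rw [e, hFr.free x hx0]
  have h5 := H.anti _ (mem_ind hup hy) _ (mem_upd hFr.up hup hjF hy hx) (fun i => by
    by_cases hi : i = j
    · subst hi; rw [Function.update_self, ind_mem (Finset.mem_insert_self _ _)]
    · rw [Function.update_of_ne hi]
      by_cases hiF : i ∈ Fr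
      · rw [ind_mem hiF, ind_mem (Finset.mem_insert_of_mem hiF)]; exact hx
      · rw [ind_notMem hiF, ind_notMem (by simp [hi, hiF])])
  linarith

/-- the empty set of slots is free -/
theorem Pin.free_empty : Free lam T Dr ∅ where
  up := by intro k hk; simp at hk
  T0 := by intro i hi; simp at hi
  n1 := by simp
  free := fun x _ => by
    have : ind (∅ : Finset (Fin 18)) x = 0 := by funext k; simp [ind]
    rw [this, H.zero]

/-- **dichotomy**: the next slot of group `0` is visible or free -/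
theorem Pin.free_or {Fr : Finset (Fin 18)} (hFr : Free lam T Dr Fr) {j : Fin 18}
    (hj : T j = 0) (hjF : j ∉ Fr) (hj0 : j ≠ 0) (hj1 : j ≠ 1) (hup : UpW Dr (insert j Fr)) :
    Vis lam (insert 0 Fr) j ∨ Free lam T Dr (insert j Fr) := by
  by_cases h : ∃ y : ℝ, 0 ≤ y ∧ lam (ind (insert j Fr) y) < 0
  · obtain ⟨y, hy, hl⟩ := h
    exact Or.inl (H.vis_first hFr hj hjF hj0 hup hy hl)
  · push Not at h
    refine Or.inr ⟨hup, fun i hi => ?_, ?_, fun x hx => le_antisymm ?_ (h x hx)⟩
    · rcases Finset.mem_insert.1 hi with h1 | h1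
      · rw [h1]; exact hj
      · exact hFr.T0 i h1
    · simp [hj1.symm, hFr.n1]
    · have h2 := H.anti 0 K2S774.cn_zero _ (mem_ind hup hx) (fun i => ind_nonneg hx i)
      rwa [H.zero] at h2

omit H in
/-- membership of the tower boxes -/
theorem mem_tower (h17 : UpW Dr (insert 17 P)) (hP : UpW Dr P) {x X' : ℝ} (hx : 0 ≤ x)
    (hxX : x ≤ X') (h0 : ∀ k, 0 ≤ c k) (hc : ∀ k ∈ P, x ≤ c k)
    (hk : ∀ k, c k ≤ 0 ∨ (c k ≤ x ∧ k ∈ insert 17 P) ∨ k = 0 ∨ (k = 2 ∧ c 2 ≤ c 0) ∨
      (k = 3 ∧ c 3 ≤ c 0 ∧ c 3 ≤ c 2)) : c ∈ CL Dr := by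
  refine mem_max h0 fun k l hl hD => ?_
  rcases hk k with h | ⟨h, h'⟩ | h | ⟨h, h'⟩ | ⟨h, h', h''⟩
  · obtain ⟨j, hj⟩ := List.exists_mem_of_ne_nil l (mlW_ne k l hl)
    exact ⟨j, hj, h.trans (h0 j)⟩
  · by_cases hkP : k ∈ P
    · obtain ⟨j, hj, hjP⟩ := hP k hkP l hl hD
      exact ⟨j, hj, h.trans (hc j hjP)⟩
    · obtain ⟨j, hj, hjP⟩ := h17 k h' l hl hD
      have hk17 : k = 17 := by
        rcases Finset.mem_insert.1 h' with h1 | h1
        · exact h1
        · exact absurd h1 hkP
      have hj17 : j ≠ 17 := by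
        have := mlW_low k l hl j hj
        rw [hk17] at this
        exact this.ne
      exact ⟨j, hj, h.trans (hc j (Finset.mem_of_mem_insert_of_ne hjP hj17))⟩
  · subst h
    have e : mlW 0 = [] := by decide
    rw [e] at hl; exact absurd hl (by simp)
  · subst h
    have e : mlW 2 = [[1, 0]] := by decide
    rw [e] at hl
    rw [List.mem_singleton.1 hl]
    exact ⟨0, by simp, h'⟩
  · subst h
    have e : mlW 3 = [[1, 2], [1, 1, 0]] := by decide
    rw [e] at hl
    rcases List.mem_cons.1 hl with h1 | h1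
    · rw [h1]; exact ⟨2, by simp, h''⟩
    · rw [List.mem_singleton.1 h1]; exact ⟨0, by simp, h'⟩

/-- **the end of a chain** -/
theorem Pin.fin (hs : T 17 = s) (hP : Full lam P 17) (uP : Up2 Dr P 17)
    (p0 : 0 ∈ P) (p2 : 2 ∈ P) (p3 : 3 ∈ P) (hA : XF lam {0} 2) (hB : XF lam {0, 2} 3)
    (uA : Up2 Dr {0} 2) (uB : Up2 Dr {0, 2} 3)
    (gA : ∀ i ∈ P, i ≠ 2 → G i ≠ G 2) (gB : ∀ i ∈ P, i ≠ 3 → G i ≠ G 3)
    (gN : ∀ i ∈ P, i ≠ 0 → i ≠ 2 → i ≠ 3 → G i ≠ G 17) :
    ∃ C : ℝ, ∀ u : ℝ, 0 ≤ u → lam (u • T) ≤ -((3 + s) * u) + C := by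
  obtain ⟨j, hj, hN⟩ := hP
  refine ⟨j, fun u hu => ?_⟩
  have hs0 : 0 ≤ s := by rw [← hs]; exact H.T0 17
  have hsu : 0 ≤ s * u := mul_nonneg hs0 hu
  obtain ⟨x, hx⟩ : ∃ x, x = s * u + j := ⟨_, rfl⟩
  obtain ⟨X', hX⟩ : ∃ X', X' = x + u := ⟨_, rfl⟩
  have hx0 : 0 ≤ x := by rw [hx]; linarith
  have hxX : x ≤ X' := by rw [hX]; linarith
  have hX0 : 0 ≤ X' := hx0.trans hxX
  have hsx : s * u ≤ x := by rw [hx]; linarith
  have hn : (17 : Fin 18) ∉ P := uP.2.2
  set c0 := ind P x with hc0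
  set c1 := Function.update c0 0 X' with hc1
  set c2 := Function.update c1 2 X' with hc2
  set c3 := Function.update c2 3 X' with hc3
  set c4 := Function.update c3 17 (s * u) with hc4
  have v0 : ∀ i, c0 i = if i ∈ P then x else 0 := fun i => rfl
  have v1 : ∀ i, c1 i = if i = 0 then X' else c0 i := fun i => by
    rw [hc1, Function.update_apply]
  have v2 : ∀ i, c2 i = if i = 2 then X' else c1 i := fun i => by
    rw [hc2, Function.update_apply]
  have v3 : ∀ i, c3 i = if i = 3 then X' else c2 i := fun i => by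
    rw [hc3, Function.update_apply]
  have v4 : ∀ i, c4 i = if i = 17 then s * u else c3 i := fun i => by
    rw [hc4, Function.update_apply]
  have m0 : c0 ∈ CL Dr := mem_ind uP.1 hx0
  have m1 : c1 ∈ CL Dr := by
    refine mem_tower uP.2.1 uP.1 hx0 hxX (fun k => ?_) (fun k hk => ?_) (fun k => ?_)
    · rw [v1, v0]; split_ifs <;> first | assumption | exact le_rfl
    · rw [v1, v0, if_pos hk]; split_ifs <;> first | assumption | exact le_rfl
    · by_cases h0 : k = 0
      · exact Or.inr (Or.inr (Or.inl h0))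
      · rw [v1, if_neg h0, v0]
        by_cases hk : k ∈ P
        · rw [if_pos hk]; exact Or.inr (Or.inl ⟨le_rfl, Finset.mem_insert_of_mem hk⟩)
        · rw [if_neg hk]; exact Or.inl le_rfl
  have m2 : c2 ∈ CL Dr := by
    refine mem_tower uP.2.1 uP.1 hx0 hxX (fun k => ?_) (fun k hk => ?_) (fun k => ?_)
    · rw [v2, v1, v0]; split_ifs <;> first | assumption | exact le_rfl
    · rw [v2, v1, v0, if_pos hk]; split_ifs <;> first | assumption | exact le_rfl
    · by_cases h0 : k = 0
      · exact Or.inr (Or.inr (Or.inl h0))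
      by_cases h2 : k = 2
      · refine Or.inr (Or.inr (Or.inr (Or.inl ⟨h2, ?_⟩)))
        rw [v2, if_pos rfl, v2, if_neg (by decide), v1, if_pos rfl]
      · rw [v2, if_neg h2, v1, if_neg h0, v0]
        by_cases hk : k ∈ P
        · rw [if_pos hk]; exact Or.inr (Or.inl ⟨le_rfl, Finset.mem_insert_of_mem hk⟩)
        · rw [if_neg hk]; exact Or.inl le_rfl
  have w30 : c3 0 = X' := by
    rw [v3, if_neg (by decide), v2, if_neg (by decide), v1, if_pos rfl]
  have w32 : c3 2 = X' := by
    rw [v3, if_neg (by decide), v2, if_pos rfl]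
  have w33 : c3 3 = X' := by rw [v3, if_pos rfl]
  have m3 : c3 ∈ CL Dr := by
    refine mem_tower uP.2.1 uP.1 hx0 hxX (fun k => ?_) (fun k hk => ?_) (fun k => ?_)
    · rw [v3, v2, v1, v0]; split_ifs <;> first | assumption | exact le_rfl
    · rw [v3, v2, v1, v0, if_pos hk]; split_ifs <;> first | assumption | exact le_rfl
    · by_cases h0 : k = 0
      · exact Or.inr (Or.inr (Or.inl h0))
      by_cases h2 : k = 2
      · exact Or.inr (Or.inr (Or.inr (Or.inl ⟨h2, by rw [w32, w30]⟩)))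
      by_cases h3 : k = 3
      · exact Or.inr (Or.inr (Or.inr (Or.inr ⟨h3, by rw [w33, w30], by rw [w33, w32]⟩)))
      · rw [v3, if_neg h3, v2, if_neg h2, v1, if_neg h0, v0]
        by_cases hk : k ∈ P
        · rw [if_pos hk]; exact Or.inr (Or.inl ⟨le_rfl, Finset.mem_insert_of_mem hk⟩)
        · rw [if_neg hk]; exact Or.inl le_rfl
  have w40 : c4 0 = X' := by rw [v4, if_neg (by decide), w30]
  have w42 : c4 2 = X' := by rw [v4, if_neg (by decide), w32]
  have w43 : c4 3 = X' := by rw [v4, if_neg (by decide), w33]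
  have m4 : c4 ∈ CL Dr := by
    refine mem_tower uP.2.1 uP.1 hx0 hxX (fun k => ?_) (fun k hk => ?_) (fun k => ?_)
    · rw [v4, v3, v2, v1, v0]; split_ifs <;> first | assumption | exact le_rfl
    · have : k ≠ 17 := fun h => hn (h ▸ hk)
      rw [v4, if_neg this, v3, v2, v1, v0, if_pos hk]
      split_ifs <;> first | assumption | exact le_rfl
    · by_cases h0 : k = 0
      · exact Or.inr (Or.inr (Or.inl h0))
      by_cases h2 : k = 2
      · exact Or.inr (Or.inr (Or.inr (Or.inl ⟨h2, by rw [w42, w40]⟩)))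
      by_cases h3 : k = 3
      · exact Or.inr (Or.inr (Or.inr (Or.inr ⟨h3, by rw [w43, w40], by rw [w43, w42]⟩)))
      by_cases h17 : k = 17
      · rw [v4, if_pos h17]
        exact Or.inr (Or.inl ⟨hsx, by rw [h17]; exact Finset.mem_insert_self _ _⟩)
      · rw [v4, if_neg h17, v3, if_neg h3, v2, if_neg h2, v1, if_neg h0, v0]
        by_cases hk : k ∈ P
        · rw [if_pos hk]; exact Or.inr (Or.inl ⟨le_rfl, Finset.mem_insert_of_mem hk⟩)
        · rw [if_neg hk]; exact Or.inl le_rfl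
  -- the height
  have L0 : lam c0 - lam c1 = u := by
    have := H.zf c0 m0 X' (by rw [v0, if_pos p0]; exact hxX)
    rw [v0, if_pos p0] at this
    rw [hc1, this, hX]; ring
  -- the slot A
  have LA : u ≤ lam c1 - lam c2 := by
    set a := Function.update (ind ({0} : Finset (Fin 18)) X') 2 x with ha
    have ea : Function.update a 2 X' = Function.update (ind ({0} : Finset (Fin 18)) X') 2 X' := by
      rw [ha, Function.update_idem]
    have ma : a ∈ CL Dr := mem_upd uA.1 uA.2.1 uA.2.2 hx0 hxX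
    have ma' : Function.update a 2 X' ∈ CL Dr := by
      rw [ea]; exact mem_upd uA.1 uA.2.1 uA.2.2 hX0 le_rfl
    have e := H.dec 2 X' c1 a m1 m2 ma ma' (fun i hi => by
      by_cases h2 : i = 2
      · subst h2
        rw [v1, if_neg (by decide), v0, if_pos p2, ha, Function.update_self]
      · have hiP : i ∉ P := fun h => gA i h h2 hi
        have hi0 : i ≠ 0 := fun h => hiP (h ▸ p0)
        rw [v1, if_neg hi0, v0, if_neg hiP, ha, Function.update_of_ne h2, ind_notMem (by simpa using hi0)])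
    rw [e, ea]
    have h1 := hA X' hX0
    rw [ind_insert uA.2.2] at h1
    have h2 := H.one_le uA (x := X') (y := 0) (y' := x) le_rfl hx0 hxX
    have e0 : Function.update (ind ({0} : Finset (Fin 18)) X') 2 0 = ind ({0} : Finset (Fin 18)) X' := by
      conv_rhs => rw [← Function.update_eq_self 2 (ind ({0} : Finset (Fin 18)) X')]
      rw [ind_notMem uA.2.2]
    rw [e0] at h2
    rw [ha]; linarith
  have LB : u ≤ lam c2 - lam c3 := by
    set a := Function.update (ind ({0, 2} : Finset (Fin 18)) X') 3 x with ha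
    have ea : Function.update a 3 X' = Function.update (ind ({0, 2} : Finset (Fin 18)) X') 3 X' := by
      rw [ha, Function.update_idem]
    have ma : a ∈ CL Dr := mem_upd uB.1 uB.2.1 uB.2.2 hx0 hxX
    have ma' : Function.update a 3 X' ∈ CL Dr := by
      rw [ea]; exact mem_upd uB.1 uB.2.1 uB.2.2 hX0 le_rfl
    have e := H.dec 3 X' c2 a m2 m3 ma ma' (fun i hi => by
      by_cases h3 : i = 3
      · subst h3
        rw [v2, if_neg (by decide), v1, if_neg (by decide), v0, if_pos p3, ha,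
          Function.update_self]
      · have hiP : i ∉ P := fun h => gB i h h3 hi
        have hi0 : i ≠ 0 := fun h => hiP (h ▸ p0)
        have hi2 : i ≠ 2 := fun h => hiP (h ▸ p2)
        rw [v2, if_neg hi2, v1, if_neg hi0, v0, if_neg hiP, ha, Function.update_of_ne h3,
          ind_notMem (by simp [hi0, hi2])])
    rw [e, ea]
    have h1 := hB X' hX0
    rw [ind_insert uB.2.2] at h1
    have h2 := H.one_le uB (x := X') (y := 0) (y' := x) le_rfl hx0 hxX
    have e0 : Function.update (ind ({0, 2} : Finset (Fin 18)) X') 3 0 = ind ({0, 2} : Finset (Fin 18)) X' := by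
      conv_rhs => rw [← Function.update_eq_self 3 (ind ({0, 2} : Finset (Fin 18)) X')]
      rw [ind_notMem uB.2.2]
    rw [e0] at h2
    rw [ha]; linarith
  have LN : s * u - j ≤ lam c3 - lam c4 := by
    have e := H.dec 17 (s * u) c3 (ind P X') m3 m4 (mem_ind uP.1 hX0)
      (mem_upd uP.1 uP.2.1 hn hsu (hsx.trans hxX)) (fun i hi => by
        by_cases h17 : i = 17
        · subst h17
          rw [v3, if_neg (by decide), v2, if_neg (by decide), v1, if_neg (by decide), v0,
            if_neg hn, ind_notMem hn]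
        · by_cases hiP : i ∈ P
          · have h3 : i = 0 ∨ i = 2 ∨ i = 3 := by
              by_contra hcon
              push Not at hcon
              exact gN i hiP hcon.1 hcon.2.1 hcon.2.2 hi
            rw [ind_mem hiP]
            rcases h3 with h | h | h
            · rw [h, w30]
            · rw [h, w32]
            · rw [h, w33]
          · have hi0 : i ≠ 0 := fun h => hiP (h ▸ p0)
            have hi2 : i ≠ 2 := fun h => hiP (h ▸ p2)
            have hi3 : i ≠ 3 := fun h => hiP (h ▸ p3)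
            rw [v3, if_neg hi3, v2, if_neg hi2, v1, if_neg hi0, v0, if_neg hiP,
              ind_notMem hiP])
    rw [e]
    have h1 := hN X' (by rw [hX, hx]; linarith)
    rw [ind_insert hn] at h1
    have h2 := H.one_le uP (x := X') (y := s * u) (y' := X') hsu (hsx.trans hxX) le_rfl
    linarith
  have mT : u • T + c0 ∈ CL Dr := K2S774.cn_add (K2S774.cn_smul H.nT hu) m0
  have h5 := H.anti c4 m4 _ mT (fun i => by
    simp only [Pi.add_apply, Pi.smul_apply, smul_eq_mul]
    by_cases h17 : i = 17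
    · subst h17
      rw [v4, if_pos rfl, hs, v0, if_neg hn]; linarith
    by_cases h3 : i = 3
    · subst h3; rw [w43, H.T1.2.2.2, v0, if_pos p3, hX]; linarith
    by_cases h2 : i = 2
    · subst h2; rw [w42, H.T1.2.2.1, v0, if_pos p2, hX]; linarith
    by_cases h0 : i = 0
    · subst h0; rw [w40, H.T1.1, v0, if_pos p0, hX]; linarith
    · rw [v4, if_neg h17, v3, if_neg h3, v2, if_neg h2, v1, if_neg h0]
      have := mul_nonneg hu (H.T0 i)
      linarith)
  rw [H.addT u hu c0 m0] at h5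
  linarith

end steps

end Crest.Agent.R136.Pin851
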