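import Crest.Agent.R136.ThB_830
import Crest.Agent.R136.PinE_851

/-!
# R136, thin branch (helper830): the chains of the rungs `s < 1` (no pin) and `s = 1`

Over 851's engine `Pin`:

* `dead_core` : `s < 1`, frames only: `lam (u • T) ≤ -(3 u)`
* `pin1_core` : `s = 1`, no resonance: one of `w_B, w_A, P` costs something ⊢
  `lam (u • T) ≤ -(4 u) + C`
-/

set_option autoImplicit false
set_option linter.unusedVariables false

open Finset Filter Topology

namespace Crest.Agent.R136.P1830

open Crest.Agent.R136.NetW191 Crest.Agent.R136.Net191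
open Crest.Agent.R136.LadW697
open Crest.Agent.R136.LfW619 (LeafDat)
open Crest.Agent.R136.Pin851
open Crest.Agent.R136.K2S774 (ind1)

/-- dropped slots of the rung `s = 1` -/
def D1 : Finset (Fin 18) := {4, 5, 6, 7, 8, 9, 10, 11, 12, 13}

/-- dropped slots of the rungs `s < 1` -/
def D0 : Finset (Fin 18) := {4, 5, 6, 7, 8, 9, 10, 11, 12, 13, 14, 15, 16}

variable {Dr : Finset (Fin 18)} {T : Fin 18 → ℝ} {G : Fin 18 → ℕ} {m : ℝ}
  {HT : Finset (Fin 18) → Fin 18 → Fin 18 → Prop} {lam : (Fin 18 → ℝ) → ℝ}

/-- `A` is full given `z`, `B` is full given `z, A` -/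
theorem frames (H : Pin Dr T G m HT lam) (h12 : HT {0} 1 2)
    (g23 : G 2 ≠ G 3) (e1 : UpW Dr ({2, 0} : Finset (Fin 18))) (e2 : Disjoint ({0} : Finset (Fin 18)) Dr)
    (e3 : UpW Dr ({0} : Finset (Fin 18))) (e4 : Up2 Dr ({0} : Finset (Fin 18)) 2)
    (e5 : UpW Dr ({2, 3, 0} : Finset (Fin 18))) (e6 : Up2 Dr ({1, 3, 0} : Finset (Fin 18)) 2) :
    XF lam {0} 2 ∧ XF lam {2, 0} 3 := by
  have hG0 : ∀ i, T i = 0 → i ≠ 1 → (i ∈ ({0} : Finset (Fin 18)) ↔ i ∈ (∅ : Finset (Fin 18))) := by
    intro i hi _
    constructor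
    · intro h
      rw [Finset.mem_singleton.1 h, H.T1.1] at hi
      norm_num at hi
    · intro h; simp at h
  have hA : XF lam {0} 2 := H.Afull H.free_empty h12 e1 (by decide) hG0
  have t1 : G 1 = 0 := (H.G0 1).2 H.T1.2.1
  have t2 : G 2 ≠ 0 := fun h => by
    have := (H.G0 2).1 h
    rw [H.T1.2.2.1] at this; norm_num at this
  refine ⟨hA, H.Bfull H.free_empty e2 (by decide) (by decide) (by decide) (by decide) e3 e4 e5 hG0
    (H.tr_XF hA e4 e6 fun i hi hi2 => ?_)⟩
  have hi' : i = 1 ∨ i = 3 := by
    revert hi; clear hi2; revert i; decide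
  rcases hi' with rfl | rfl
  · rw [t1]; exact t2.symm
  · exact g23.symm

/-- **rungs `s < 1`**: full loss of the frames -/
theorem dead_core (H : Pin D0 T G m HT lam) (h12 : HT {0} 1 2) (g23 : G 2 ≠ G 3) :
    ∀ u : ℝ, 0 ≤ u → lam (u • T) ≤ -(3 * u) := by
  obtain ⟨hA, hB⟩ := frames H h12 g23 (by decide) (by decide) (by decide) (by decide) (by decide)
    (by decide)
  intro u hu
  have u1 : UpW D0 ({0} : Finset (Fin 18)) := by decide
  have u3 : UpW D0 ({3, 2, 0} : Finset (Fin 18)) := by decide
  have h0 : lam 0 - lam (Function.update 0 0 u) = u := by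
    have := H.zf 0 K2S774.cn_zero u hu
    simpa using this
  have e0 : Function.update (0 : Fin 18 → ℝ) 0 u = ind {0} u := by
    funext k
    by_cases hk : k = 0
    · subst hk; rw [Function.update_self, ind_mem (by simp)]
    · rw [Function.update_of_ne hk, ind_notMem (by simpa using hk)]; rfl
  rw [e0, H.zero] at h0
  have h1 := hA u hu
  have h2 := hB u hu
  have h3 := H.anti (ind {3, 2, 0} u) (mem_ind u3 hu) (u • T) (K2S774.cn_smul H.nT hu) (fun i => by
    simp only [Pi.smul_apply, smul_eq_mul]
    by_cases hi : i ∈ ({3, 2, 0} : Finset (Fin 18))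
    · rw [ind_mem hi]
      have hi' : i = 3 ∨ i = 2 ∨ i = 0 := by simpa using hi
      rcases hi' with rfl | rfl | rfl
      · rw [H.T1.2.2.2, mul_one]
      · rw [H.T1.2.2.1, mul_one]
      · rw [H.T1.1, mul_one]
    · rw [ind_notMem hi]
      exact mul_nonneg hu (H.T0 i))
  linarith

/-- **rung `s = 1`, no resonance** -/
theorem pin1_core (H : Pin D1 T G m HT lam) (h12 : HT {0} 1 2) (h16 : HT {0, 14, 15} 16 17)
    (t14 : T 14 = 0) (t15 : T 15 = 0) (t16 : T 16 = 0) (t17 : T 17 = 1)
    (g02 : G 0 ≠ G 2) (g03 : G 0 ≠ G 3)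
    (g23 : G 2 ≠ G 3) (gn2 : G 17 ≠ G 2) (gn3 : G 17 ≠ G 3)
    (hv : lam (ind1 (JW 1)) < 0) :
    ∃ C : ℝ, ∀ u : ℝ, 0 ≤ u → lam (u • T) ≤ -((3 + 1) * u) + C := by
  obtain ⟨hA, hB⟩ := frames H h12 g23 (by decide) (by decide) (by decide) (by decide) (by decide)
    (by decide)
  have g1 : G 1 = 0 := (H.G0 1).2 H.T1.2.1
  have g14 : G 14 = 0 := (H.G0 14).2 t14
  have g15 : G 15 = 0 := (H.G0 15).2 t15
  have g16 : G 16 = 0 := (H.G0 16).2 t16
  have p0 : G 0 ≠ 0 := fun h => by
    have := (H.G0 0).1 h
    rw [H.T1.1] at this; norm_num at this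
  have p2 : G 2 ≠ 0 := fun h => by
    have := (H.G0 2).1 h
    rw [H.T1.2.2.1] at this; norm_num at this
  have p3 : G 3 ≠ 0 := fun h => by
    have := (H.G0 3).1 h
    rw [H.T1.2.2.2] at this; norm_num at this
  have p17 : G 17 ≠ 0 := fun h => by
    have := (H.G0 17).1 h
    rw [t17] at this; norm_num at this
  -- the end
  have hfin : Full lam {0, 2, 3} 17 →
      ∃ C : ℝ, ∀ u : ℝ, 0 ≤ u → lam (u • T) ≤ -((3 + 1) * u) + C := by
    intro hF
    have hB' : XF lam {0, 2} 3 := by
      have e : ({0, 2} : Finset (Fin 18)) = {2, 0} := by decide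
      rw [e]; exact hB
    refine H.fin t17 hF (by decide) (by decide) (by decide) (by decide) hA hB' (by decide)
      (by decide) ?_ ?_ ?_
    · intro i hi h2
      have : i = 0 ∨ i = 3 := by revert hi h2; revert i; decide
      rcases this with rfl | rfl
      · exact g02
      · exact g23.symm
    · intro i hi h2
      have : i = 0 ∨ i = 2 := by revert hi h2; revert i; decide
      rcases this with rfl | rfl
      · exact g03
      · exact g23
    · intro i hi h0 h2 h3
      exfalso
      revert hi h0 h2 h3; revert i; decide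
  -- w_B
  rcases H.free_or H.free_empty (j := 14) t14 (by decide) (by decide) (by decide) (by decide)
    with hb | hb
  · refine hfin ?_
    have hb' : Vis lam ({0} : Finset (Fin 18)) 14 := by simpa using hb
    have hX : XF lam (insert (Fin.natAdd 4 (10 : Fin 14)) (insert (Fin.natAdd 4 (13 : Fin 14))
        ({0, 2} : Finset (Fin 18)))) (Fin.castAdd 14 (3 : Fin 4)) := by
      refine H.tr_XF (f := 3) (W := {2, 0}) hB (by decide) (by decide) fun i hi h3 => ?_
      have : i = 14 ∨ i = 17 := by revert hi h3; revert i; decide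
      rcases this with rfl | rfl
      · rw [g14]; exact p3.symm
      · exact gn3
    have hV : Vis lam (insert (Fin.castAdd 14 (3 : Fin 4)) (insert (Fin.natAdd 4 (13 : Fin 14))
        ({0, 2} : Finset (Fin 18)))) (Fin.natAdd 4 (10 : Fin 14)) := by
      refine H.tr_vis (f := 14) (W := {0}) hb' (by decide) (by decide) fun i hi h14 => ?_
      have : i = 3 ∨ i = 17 ∨ i = 2 := by revert hi h14; revert i; decide
      rw [g14]
      rcases this with rfl | rfl | rfl
      · exact p3
      · exact p17
      · exact p2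
    have hL := H.leafStep (V := ({0, 2} : Finset (Fin 18))) (X := 3) (F := 10) (q := 13) (n := 1)
      (e := 0) (by decide) (by decide) (by decide) (by decide) (by decide) (by decide) (by decide)
      (by decide) (by decide) hX hV
    have e : insert (Fin.castAdd 14 (3 : Fin 4)) ({0, 2} : Finset (Fin 18)) = {0, 2, 3} := by decide
    rw [e] at hL
    exact hL
  -- w_A
  rcases H.free_or hb (j := 15) t15 (by decide) (by decide) (by decide) (by decide) with ha | ha
  · refine hfin ?_
    have hX : XF lam (insert (Fin.natAdd 4 (11 : Fin 14)) (insert (Fin.natAdd 4 (13 : Fin 14))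
        ({0, 14} : Finset (Fin 18)))) (Fin.castAdd 14 (2 : Fin 4)) := by
      refine H.tr_XF (f := 2) (W := {0}) hA (by decide) (by decide) fun i hi h3 => ?_
      have : i = 15 ∨ i = 17 ∨ i = 14 := by revert hi h3; revert i; decide
      rcases this with rfl | rfl | rfl
      · rw [g15]; exact p2.symm
      · exact gn2
      · rw [g14]; exact p2.symm
    have hV : Vis lam (insert (Fin.castAdd 14 (2 : Fin 4)) (insert (Fin.natAdd 4 (13 : Fin 14))
        ({0, 14} : Finset (Fin 18)))) (Fin.natAdd 4 (11 : Fin 14)) := by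
      refine H.tr_vis (f := 15) (W := insert 0 (insert 14 ∅)) ha (by decide) (by decide)
        fun i hi h14 => ?_
      have : i = 2 ∨ i = 17 := by revert hi h14; revert i; decide
      rw [g15]
      rcases this with rfl | rfl
      · exact p2
      · exact p17
    have hL := H.leafStep (V := ({0, 14} : Finset (Fin 18))) (X := 2) (F := 11) (q := 13) (n := 1)
      (e := 0) (by decide) (by decide) (by decide) (by decide) (by decide) (by decide) (by decide)
      (by decide) (by decide) hX hV
    refine H.tr_full hL (by decide) (by decide) fun i hi h17 => ?_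
    have : i = 14 ∨ i = 3 := by revert hi h17; revert i; decide
    rcases this with rfl | rfl
    · rw [g14]; exact p17.symm
    · exact gn3.symm
  -- P
  rcases H.free_or ha (j := 16) t16 (by decide) (by decide) (by decide) (by decide) with hp | hp
  · refine hfin ?_
    have hL := H.htStep h16 (H.tr_vis hp (W' := insert 17 {0, 14, 15}) (by decide) (by decide)
      fun i hi h16 => by
        have : i = 17 := by revert hi h16; revert i; decide
        rw [this, g16]; exact p17)
    refine H.tr_full hL (by decide) (by decide) fun i hi h17 => ?_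
    have : i = 14 ∨ i = 15 ∨ i = 2 ∨ i = 3 := by revert hi h17; revert i; decide
    rcases this with rfl | rfl | rfl | rfl
    · rw [g14]; exact p17.symm
    · rw [g15]; exact p17.symm
    · exact gn2.symm
    · exact gn3.symm
  · exfalso
    have e : ind (insert 16 (insert 15 (insert 14 ∅)) : Finset (Fin 18)) 1 = ind1 (JW 1) := by
      funext k
      have : (insert 16 (insert 15 (insert 14 ∅)) : Finset (Fin 18)) = JW 1 := by decide
      rw [this]
      rfl
    have := hp.free 1 zero_le_one
    rw [e] at this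
    linarith

end Crest.Agent.R136.P1830
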