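import Crest.Agent.R136.LadG1_697
import Crest.Agent.R136.P0_830

/-!
# R136, thin branch (helper830): rows with zero slots

* `tan_zero` : tangents of a profile with zero slots `Zs` do not see `Zs`
* **`pinZ_of_zero`** : `JW j ⊆ Zs ⊢ PinZ j Zs pat` (nothing of weight `j` is visible)
* `dead0C` : row `dead0` in the form of `RowsC`
-/

set_option autoImplicit false
set_option linter.unusedVariables false

open Finset Filter Topology

namespace Crest.Agent.R136.PZ830

open Crest.Agent.R138.Ex926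
open Crest.Agent.R136.Net191 Crest.Agent.R136.NetW191
open Crest.Agent.R136.PrW464
open Crest.Agent.R136.LadW697 Crest.Agent.R136.NatW697
open Crest.Agent.R136.K2S774
open Crest.Agent.R136.K2A146
open Crest.Agent.R136.LadG697
open Crest.Agent.R136.LadT830
open Crest.Agent.R136.Top484

/-- tangents do not see the zero slots -/
theorem tan_zero {P : Set (Fin 18 → ℝ)} {ν own : (Fin 18 → ℝ) → ℝ} {Zs : Set (Fin 18)}
    (hz : ZeroS P ν own Zs) {L : Set (Fin 18 → ℝ)} {x : ℕ → Fin 18 → ℝ} {h : ℕ → ℝ}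
    {lam : (Fin 18 → ℝ) → ℝ} (hT : IsTan P L ν x h lam) (hpos : ∀ l, 0 < h l)
    {c c' : Fin 18 → ℝ} (hc : c ∈ L) (hc' : c' ∈ L) (he : ∀ k, k ∉ Zs → c k = c' k) :
    lam c = lam c' := by
  have key : ∀ ε : ℝ, 0 < ε → |lam c - lam c'| ≤ ε := by
    intro ε hε
    obtain ⟨l, h1, h2⟩ := ((hT ‖c‖ (ε / 2) (by positivity)).and
      (hT ‖c'‖ (ε / 2) (by positivity))).exists
    obtain ⟨m1, e1⟩ := h1 c hc le_rfl
    obtain ⟨m2, e2⟩ := h2 c' hc' le_rfl
    have e3 : ν (x l + h l • c) = ν (x l + h l • c') := (hz _ m1 _ m2 fun k hk => by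
      simp only [Pi.add_apply, Pi.smul_apply, smul_eq_mul, he k hk]).1
    rw [e3] at e1
    have hp := hpos l
    rw [abs_le] at e1 e2 ⊢
    constructor
    · by_contra hcon
      push Not at hcon
      nlinarith
    · by_contra hcon
      push Not at hcon
      nlinarith
  have := le_of_forall_pos_le_add (a := |lam c - lam c'|) (b := 0) fun ε hε => by
    rw [zero_add]; exact key ε hε
  have h0 := abs_nonneg (lam c - lam c')
  have h1 : |lam c - lam c'| = 0 := le_antisymm this h0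
  linarith [abs_eq_zero.1 h1]

/-- the direction of the slots of weight `j` is legal on the rung `j` -/
theorem ind1_mem (j : ℕ) : ind1 (JW j) ∈ cn QW (actW (DrW j)) := by
  rw [mem_cnW]
  intro k hk l hl hs
  have h0 : ∀ i, 0 ≤ ind1 (JW j) i := fun i => by
    unfold ind1; split_ifs <;> norm_num
  by_cases hkJ : k ∈ JW j
  · obtain ⟨h4, hal⟩ := mem_JW.1 hkJ
    have key : ∀ k : Fin 18, 4 ≤ k → ∀ l ∈ mlW k, ∃ i ∈ l, 4 ≤ i ∧ alW k ≤ alW i := by decide
    obtain ⟨i, hi, hi4, hia⟩ := key k h4 l hl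
    have hiJ : i ∈ JW j := by
      rw [mem_JW]
      refine ⟨hi4, le_antisymm ?_ (hal ▸ hia)⟩
      have h1 : ¬ ((j : ℝ) < alW i) := fun h => hs i hi ⟨hi4, h⟩
      have h2 : (alW i : ℝ) ≤ ((j : ℤ) : ℝ) := by push_cast; exact not_lt.1 h1
      exact_mod_cast h2
    have e1 : ind1 (JW j) k = 1 := if_pos hkJ
    have e2 : ind1 (JW j) i = 1 := if_pos hiJ
    rw [e1, ← e2]
    refine List.single_le_sum ?_ _ (List.mem_map.2 ⟨i, hi, rfl⟩)
    intro y hy
    obtain ⟨a, _, rfl⟩ := List.mem_map.1 hy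
    exact h0 a
  · have e1 : ind1 (JW j) k = 0 := if_neg hkJ
    rw [e1]
    refine List.sum_nonneg fun y hy => ?_
    obtain ⟨a, _, rfl⟩ := List.mem_map.1 hy
    exact h0 a

/-- **rows where every slot of weight `j` is a zero slot** -/
theorem pinZ_of_zero {j : ℕ} {Zs : Set (Fin 18)} (hJ : ∀ k ∈ JW j, k ∈ Zs)
    (pat : (Fin 3 → ℝ) → Set (Fin 18) → Prop) : PinZ j Zs pat := by
  intro P ν own K r0 θ g q V T h hz hp
  refine ⟨1, one_pos, btW θ, fun k _ => rfl, fun lam lo hst => ?_⟩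
  intro z hz0 D' hD' k lam' lo' kpos k0 H1 H2 x' h' hJ' hB φ rt out hVis
  exfalso
  have e0 : lam' 0 = 0 := by
    have hT := hJ'.tan
    have key : ∀ ε : ℝ, 0 < ε → |lam' 0| ≤ ε := by
      intro ε hε
      obtain ⟨l, h1⟩ := (hT 0 ε hε).exists
      obtain ⟨_, e1⟩ := h1 0 cn_zero (by simp)
      have hp := hJ'.pos l
      rw [smul_zero, add_zero, sub_self, zero_sub, abs_neg, abs_mul, abs_of_pos hp] at e1
      by_contra hcon
      push Not at hcon
      nlinarith
    have := le_of_forall_pos_le_add (a := |lam' 0|) (b := 0) fun ε hε => by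
      rw [zero_add]; exact key ε hε
    exact abs_eq_zero.1 (le_antisymm this (abs_nonneg _))
  have e1 : lam' (ind1 (JW j)) = lam' 0 := tan_zero hz hJ'.tan hJ'.pos (ind1_mem j) cn_zero
    fun k hk => by
      have : k ∉ JW j := fun h => hk (hJ k h)
      show ind1 (JW j) k = 0
      exact if_neg this
  have : lam' (ind1 (JW j)) < 0 := hVis
  linarith

/-- row `dead0` in the form of `RowsC` -/
theorem dead0C : DeadC fun g θ V s => (∀ k, k ∉ V) ∧ 0 < s ∧ s ≤ g / 2 ∧ s < 1 :=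
  fun P ν own K r0 θ g q V T s h hp =>
    P0830.dead0 P ν own K r0 θ g q V T s h ⟨hp.2.1, hp.1, hp.2.2⟩

/-- **row `pin2z`** -/
theorem pin2z : PinZ 2 (↑(JW 2)) fun θ V => True :=
  pinZ_of_zero (fun k hk => Finset.mem_coe.2 hk) _

/-- **row `pin1z`** -/
theorem pin1z : PinZ 1 (↑(JW 1)) fun θ V => True :=
  pinZ_of_zero (fun k hk => Finset.mem_coe.2 hk) _

end Crest.Agent.R136.PZ830
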