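import Crest.Agent.R136.P1_830
import Crest.Agent.R136.PinY_851
import Crest.Agent.R136.PZ_830

/-!
# R136, thin branch (helper830): row `pin1`

* **`pin1`** : row `pin1` of `RowsC` over 851's adapter `pin_of` and `pin1_core`
-/

set_option autoImplicit false
set_option linter.unusedVariables false

open Finset Filter Topology

namespace Crest.Agent.R136.P1c830

open Crest.Agent.R138.Ex926 (Base U)
open Crest.Agent.R136.NetW191 Crest.Agent.R136.Net191
open Crest.Agent.R136.PrW464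
open Crest.Agent.R136.LadW697 Crest.Agent.R136.NatW697
open Crest.Agent.R136.Pin851
open Crest.Agent.R136.P1830
open Crest.Agent.R136.ThB830
open Crest.Agent.R136.LadT830
open Crest.Agent.R136.Dg219 (gC gC_zero gC_eq)
open Crest.Agent.R136.K2S774 (ind1)

theorem drW1 : DrW (1 : ℝ) = ↑D1 := by
  ext k
  simp only [DrW, Set.mem_setOf_eq, Finset.mem_coe]
  have h1 : ∀ k : Fin 18, (4 ≤ k ∧ 1 < alW k) ↔ k ∈ D1 := by decide
  rw [← h1 k]
  refine and_congr_right fun _ => ?_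
  exact_mod_cast Iff.rfl

section

variable {B Bo : Base} {I J : ℕ → Finset (ℕ × ℝ)} {co : ∀ n : ℕ, ℕ × ℝ → ℕ × ℝ → Fin 18 → ℝ}
  {C : ℝ} {κ : ℕ → ℝ} {u : ℕ → Fin 18 → ℝ} {f : ℕ → ℕ × ℝ → FW} {K : ℝ}
  {θ : Fin 3 → ℝ} {q : Fin 3 → ℝ} {V T : Set (Fin 18)} {s : ℝ}
  {lam lo : (Fin 18 → ℝ) → ℝ} {A : ℝ × ℝ} {φ : ℕ → (Fin 18 → ℝ) → ℝ} {r : ℕ → ℝ}

/-- slopes of the rung `1` -/
theorem tw1 {k : Fin 18} (h4 : 4 ≤ k) (hk : k ∉ D1) : TW 1 k = 1 - alW k :=
  TW_flag h4 fun h => hk (by rw [drW1] at h; exact Finset.mem_coe.1 h)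

/-- the point of the rung `1` -/
theorem pin1_pt (h : PtC B Bo I J co C κ u f K θ q V T 1 lam lo A φ r) (hV : ∀ k, k ∉ V)
    (hr : ¬ Res1 θ) (hv : lam (ind1 (JW 1)) < 0) : 3 + 1 ≤ -A.1 := by
  have hP := pin_of h drW1 (fun k hk => absurd hk (hV k))
  have t14 : TW 1 14 = 0 := by rw [tw1 (by decide) (by decide)]; simp [alW, wz]
  have t15 : TW 1 15 = 0 := by rw [tw1 (by decide) (by decide)]; simp [alW, wz]
  have t16 : TW 1 16 = 0 := by rw [tw1 (by decide) (by decide)]; simp [alW, wz]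
  have t17 : TW 1 17 = 1 := by rw [tw1 (by decide) (by decide)]; simp [alW, wz]
  have hθ := h.th1
  have b0 := Bas938.btW0 θ
  have b2 := Bas938.btW2 θ
  have b3 := Bas938.btW3 θ
  have b14 : btW θ 14 = 2 * θ 1 - θ 0 := by
    rw [Bas938.btW_val, show wz 14 = -1 from rfl, show wc 14 = -2 from rfl,
      show wn 14 = 1 from rfl]
    push_cast; ring
  have b15 : btW θ 15 = θ 1 - θ 0 := by
    rw [Bas938.btW_val, show wz 15 = -1 from rfl, show wc 15 = -1 from rfl,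
      show wn 15 = 1 from rfl]
    push_cast; ring
  have b17 : btW θ 17 = 1 - θ 0 := btW17 θ
  have n14 : 2 * θ 1 - θ 0 ≠ 0 := fun e => hr (Or.inl (by rw [b14, e]))
  have n15 : θ 1 - θ 0 ≠ 0 := fun e => hr (Or.inr (by rw [b15, e]))
  have z0 : TW 1 0 ≠ 0 := by rw [TW_z]; exact one_ne_zero
  have z2 : TW 1 2 ≠ 0 := by rw [TW_A]; exact one_ne_zero
  have z3 : TW 1 3 ≠ 0 := by rw [TW_B]; exact one_ne_zero
  have z17 : TW 1 17 ≠ 0 := by rw [t17]; exact one_ne_zero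
  refine row_end h drW1 (pin1_core hP (Or.inl ⟨rfl, rfl, rfl⟩) ?_ t14 t15 t16 t17 ?_ ?_ ?_ ?_ ?_
    hv)
  · decide +kernel
  · intro e
    rw [gC_eq z0 z2, TW_z, TW_A, b0, b2] at e
    linarith
  · intro e
    rw [gC_eq z0 z3, TW_z, TW_B, b0, b3] at e
    linarith
  · intro e
    rw [gC_eq z2 z3, TW_A, TW_B, b2, b3] at e
    linarith
  · intro e
    rw [gC_eq z17 z2, t17, TW_A, b17, b2] at e
    exact n15 (by linarith)
  · intro e
    rw [gC_eq z17 z3, t17, TW_B, b17, b3] at e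
    exact n14 (by linarith)

end

/-- **row `pin1`** -/
theorem pin1 : PinC 1 fun θ V => (∀ k, k ∉ V) ∧ ¬ Res1 θ := by
  refine pinC_of le_rfl (fun θ V h k hk => absurd hk (h.1 k)) ?_
  intro P ν own K r0 θ g q V T h hp
  refine ⟨g / 4, by have := h.g0; linarith, fun B Bo I J co C κ u f lam lo A φ r hP hv => ?_⟩
  rw [Nat.cast_one] at hP ⊢
  exact CtxW.full h (by norm_num) (pin1_pt hP hp.1 hp.2 hv)

end Crest.Agent.R136.P1c830
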