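import Crest.Agent.R136.Pin4_851

/-!
# R136, thin pins (helper851): rung `s = 2`, no visible slot of wall slope `≥ 2`, no resonance

* `core2` : every case except `R` at `b = 0`
* `SpecR` : the statement of the case `R`, `b = 0` (`θ 0 = -1`)
* `pin2C` : row `pin2` for `θ 0 ≠ -1`
-/

set_option autoImplicit false
set_option linter.unusedSectionVars false
set_option linter.unusedVariables false

open Filter Topology

namespace Crest.Agent.R136.Pin851

open Finset Crest.Agent.R138.Ex926 Crest.Agent.R136.Net191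
open Crest.Agent.R136.NetW191 Crest.Agent.R136.EvW938 Crest.Agent.R136.PrW464
open Crest.Agent.R136.LadW697 Crest.Agent.R136.LfW619 Crest.Agent.R136.RowW619
open Crest.Agent.R136.ThB830 Crest.Agent.R136.LadT830 Crest.Agent.R136.NatW697
open Crest.Agent.R136.Dg219 (gC)
open Crest.Agent.R136.K2S774 (cn ind1)

variable {Dr : Finset (Fin 18)} {T : Fin 18 → ℝ} {G : Fin 18 → ℕ} {m : ℝ}
  {HT : Finset (Fin 18) → Fin 18 → Fin 18 → Prop} {lam : (Fin 18 → ℝ) → ℝ} {b : ℝ}

/-- dropped slots -/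
def D2 : Finset (Fin 18) := {4, 5, 6, 8}

/-- **rung `2`** -/
theorem core2 (H : Pin D2 T G m (HTp D2) lam) (hG : Grp D2 T G 2 b) (hA : XF lam {0} 2)
    (hB : XF lam {0, 2} 3) (b2 : b ≠ 2) (b3 : b ≠ 3) (b4 : b ≠ 4)
    (hR : b = 0 → Vis lam {0, 7, 9, 10, 11, 12} 13 → Free lam T D2 {7, 9, 10, 11, 12} →
      ∃ C : ℝ, ∀ u : ℝ, 0 ≤ u → lam (u • T) ≤ -((3 + ((2 : ℤ) : ℝ)) * u) + C)
    (hv : lam (ind1 (JW 2)) < 0) :
    ∃ C : ℝ, ∀ u : ℝ, 0 ≤ u → lam (u • T) ≤ -((3 + ((2 : ℤ) : ℝ)) * u) + C := by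
  have tt : ∀ k : Fin 18, k ∉ D2 → sI 2 k = 0 → T k = 0 := fun k hk h0 => by
    rw [hG.hT k hk, h0]; norm_num
  have hb : ∀ v ∈ ([(2, 1), (3, 1), (4, 1)] : List (ℤ × ℤ)), b * v.2 ≠ v.1 := by
    simp only [List.forall_mem_cons, List.not_mem_nil, false_implies, implies_true, and_true]
    norm_num
    exact ⟨b2, b3, b4⟩
  rcases H.free_or H.free_empty (j := 7) (tt 7 (by decide) (by decide)) (by decide) (by decide)
    (by decide) (by decide) with h | f1
  · have h' : Vis lam ({0} : Finset (Fin 18)) 7 := by simpa using h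
    exact H.chain hG hA hB hb [.leaf 3 3 10 2 0 {0, 2}, .leaf 3 10 13 1 0 {0, 2, 7}] h'
      (by decide) (by decide +kernel)
  rcases H.free_or f1 (j := 9) (tt 9 (by decide) (by decide)) (by decide) (by decide)
    (by decide) (by decide) with h | f2
  · have e : (insert 0 (insert 7 ∅) : Finset (Fin 18)) = {0, 7} := by decide
    rw [e] at h
    exact H.chain hG hA hB hb [.leaf 2 5 10 1 0 {0, 7}, .leaf 3 10 13 1 0 {0, 2, 7}] h
      (by decide) (by decide +kernel)
  rcases H.free_or f2 (j := 10) (tt 10 (by decide) (by decide)) (by decide) (by decide)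
    (by decide) (by decide) with h | f3
  · have e : (insert 0 (insert 9 (insert 7 ∅)) : Finset (Fin 18)) = {0, 7, 9} := by decide
    rw [e] at h
    exact H.chain hG hA hB hb [.leaf 2 6 11 2 0 {0, 7, 9, 14}, .leaf 2 11 13 1 0 {0, 1, 3, 10}] h
      (by decide) (by decide +kernel)
  rcases H.free_or f3 (j := 11) (tt 11 (by decide) (by decide)) (by decide) (by decide)
    (by decide) (by decide) with h | f4
  · have e : (insert 0 (insert 10 (insert 9 (insert 7 ∅))) : Finset (Fin 18)) = {0, 7, 9, 10} := by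
      decide
    rw [e] at h
    exact H.chain hG hA hB hb [.ht 14 {0, 7, 9, 10}, .leaf 3 10 13 1 0 {0, 2, 7}] h
      (by decide) (by decide +kernel)
  rcases H.free_or f4 (j := 12) (tt 12 (by decide) (by decide)) (by decide) (by decide)
    (by decide) (by decide) with h | f5
  · have e : (insert 0 (insert 11 (insert 10 (insert 9 (insert 7 ∅)))) : Finset (Fin 18)) =
        {0, 7, 9, 10, 11} := by decide
    rw [e] at h
    exact H.chain hG hA hB hb [.ht 15 {0, 7, 9, 10, 11, 14}, .leaf 2 11 13 1 0 {0, 1, 3, 10}] h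
      (by decide) (by decide +kernel)
  rcases H.free_or f5 (j := 13) (tt 13 (by decide) (by decide)) (by decide) (by decide)
    (by decide) (by decide) with h | f6
  · have e : (insert 0 (insert 12 (insert 11 (insert 10 (insert 9 (insert 7 ∅))))) :
        Finset (Fin 18)) = {0, 7, 9, 10, 11, 12} := by decide
    rw [e] at h
    have e' : (insert 12 (insert 11 (insert 10 (insert 9 (insert 7 ∅)))) :
        Finset (Fin 18)) = {7, 9, 10, 11, 12} := by decide
    rw [e'] at f5
    by_cases hb0 : b = 0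
    · exact hR hb0 h f5
    refine H.chain (b := b) (bad := [(0, 1), (2, 1), (3, 1), (4, 1)]) hG hA hB ?_
      [.ht 16 {0, 7, 9, 10, 11, 12, 14, 15}, .ht 17 {0, 1, 7, 9, 10, 11, 12, 13, 14, 15}] h
      (by decide) (by decide +kernel)
    simp only [List.forall_mem_cons, List.not_mem_nil, false_implies, implies_true, and_true]
    norm_num
    exact ⟨hb0, b2, b3, b4⟩
  · exact (free_false f6 (by decide) hv).elim

theorem DrW2 : DrW ((2 : ℤ) : ℝ) = ↑D2 := by rw [DrW_int, DrI2]; rfl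

/-- no resonance on the rung `2` -/
theorem bN2 {θ : Fin 3 → ℝ} (h1 : 0 < θ 1) (hr : ¬ Res2 θ) :
    bN θ ((2 : ℤ) : ℝ) ≠ 2 ∧ bN θ ((2 : ℤ) : ℝ) ≠ 3 ∧ bN θ ((2 : ℤ) : ℝ) ≠ 4 := by
  have hb : ∀ i : Fin 18, sI 2 i = 0 →
      btW θ i = - θ 1 * (wc i + bN θ ((2 : ℤ) : ℝ) * wn i) := by
    intro i hi
    have e : (wz i : ℝ) = -(2 * wn i) := by
      have : wz i + 2 * wn i = 0 := hi
      have h2 : (wz i : ℝ) + 2 * wn i = 0 := by exact_mod_cast this
      linarith
    simp only [btW, grW, bN, e]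
    push_cast
    field_simp
    ring
  have key : ∀ i : Fin 18, ∀ v : ℤ, sI 2 i = 0 → wc i + v * wn i = 0 → btW θ i ≠ 0 →
      bN θ ((2 : ℤ) : ℝ) ≠ v := by
    intro i v h0 hv hne hb'
    apply hne
    rw [hb i h0, hb']
    have : (wc i : ℝ) + v * wn i = 0 := by exact_mod_cast hv
    rw [this, mul_zero]
  unfold Res2 at hr
  push Not at hr
  refine ⟨?_, ?_, ?_⟩
  · have := key 10 2 (by decide) (by decide) hr.2.2
    simpa using this
  · have := key 9 3 (by decide) (by decide) hr.2.1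
    simpa using this
  · have := key 7 4 (by decide) (by decide) hr.1
    simpa using this

/-- `b = 0` on the rung `2` : `θ 0 = -1` -/
theorem bN2_zero {θ : Fin 3 → ℝ} (h1 : 0 < θ 1) (h : bN θ ((2 : ℤ) : ℝ) = 0) : θ 0 = -1 := by
  unfold bN at h
  rcases div_eq_zero_iff.1 h with h | h
  · push_cast at h; linarith
  · exact absurd h h1.ne'

/-- **row `pin2`**, `θ 0 ≠ -1` -/
theorem pin2C : PinC 2 fun θ V => (∀ k ∈ V, KW θ k < 2) ∧ ¬ Res2 θ ∧ θ 0 ≠ -1 := by
  refine pinC_of (by norm_num) (fun θ V h k hk => (by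
    have := (h.1 k hk).le
    push_cast; exact this)) ?_
  intro P ν own K r0 θ g q V T h hp
  refine ⟨g / 4, by have := h.g0; linarith, fun B Bo I J co C κ u f lam lo A φ r hP hv => ?_⟩
  have e4 : ((2 : ℕ) : ℝ) = ((2 : ℤ) : ℝ) := by norm_num
  have hV : ∀ k ∈ V, KW θ k < ((2 : ℤ) : ℝ) := fun k hk => by
    have := hp.1 k hk
    push_cast; exact this
  rw [e4] at hP ⊢
  have H := pin_of hP DrW2 hV
  have hG := grp_of (j := 2) h.θ1 DrW2
  obtain ⟨hA, hB⟩ := frames_of H hG (by decide) (by decide) (by decide) (by decide) (by decide)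
    (by decide) (by decide) (by decide)
  obtain ⟨b2, b3, b4⟩ := bN2 h.θ1 hp.2.1
  have h1 := row_end hP DrW2 (core2 H hG hA hB b2 b3 b4
    (fun hb _ _ => absurd (bN2_zero h.θ1 hb) hp.2.2) hv)
  exact ThB830.CtxW.full h (by norm_num) h1

end Crest.Agent.R136.Pin851
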