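import Crest.Agent.R136.PinA_851

/-!
# R136, thin pins (helper851): rung `s = 3`, no visible slot of wall slope `≥ 3`

* `core3` : every case except `BY` at `b = 5`, `AY` at `b = 4`
* `Spec35`, `Spec34` : the statements of these two cases (191)
* `pin3_of` : row `pin3` from them
-/

set_option autoImplicit false
set_option linter.unusedSectionVars false
set_option linter.unusedVariables false

open Filter Topology

namespace Crest.Agent.R136.Pin851

open Finset Crest.Agent.R138.Ex926 Crest.Agent.R136.Net191 Crest.Agent.R136.Gf356 Crest.Agent.R136.Qg926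
open Crest.Agent.R136.NetW191 Crest.Agent.R136.EvW938 Crest.Agent.R136.PrW464
open Crest.Agent.R136.LadW697 Crest.Agent.R136.LfW619 Crest.Agent.R136.RowW619
open Crest.Agent.R136.ThB830 Crest.Agent.R136.LadT830 Crest.Agent.R136.NatW697
open Crest.Agent.R136.Dg219 (gC)
open Crest.Agent.R136.K2S774 (cn ind1)

variable {Dr : Finset (Fin 18)} {T : Fin 18 → ℝ} {G : Fin 18 → ℕ} {m : ℝ}
  {HT HT2 : Finset (Fin 18) → Fin 18 → Fin 18 → Prop} {lam : (Fin 18 → ℝ) → ℝ} {b : ℝ}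

/-- **slot `BY`**, `b ≠ 5` -/
theorem chainBY (H : Pin {4} T G m (HTp {4}) lam) (hG : Grp {4} T G 3 b) (hA : XF lam {0} 2)
    (hB : XF lam {0, 2} 3) (b5 : b ≠ 5) (hv : Vis lam {0} 5) :
    ∃ C : ℝ, ∀ u : ℝ, 0 ≤ u → lam (u • T) ≤ -((3 + ((3 : ℤ) : ℝ)) * u) + C := by
  by_cases h6 : b = 6
  · refine H.chain (b := b) (bad := [(3, 1), (4, 1), (5, 1)]) hG hA hB ?_
      [.leaf 2 1 5 2 1 {0, 7}, .leaf 3 5 11 1 0 {0, 1, 2, 5}, .leaf 2 11 13 1 0 {0, 1, 3, 5, 6, 10}]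
      hv (by decide) (by decide +kernel)
    rw [h6]; norm_num
  · refine H.chain (b := b) (bad := [(5, 1), (6, 1)]) hG hA hB ?_
      [.ht 7 {0}, .leaf 3 3 10 2 0 {0, 2}, .leaf 3 10 13 1 0 {0, 2, 7}]
      hv (by decide) (by decide +kernel)
    simp only [List.forall_mem_cons, List.not_mem_nil, false_implies, implies_true, and_true]
    norm_num
    exact ⟨b5, h6⟩

/-- **slot `AY`**, `b = 5` -/
theorem chainAY5 (H : Pin {4} T G m (HTp {4}) lam)
    (H' : Pin {4} T G m (fun V f k => HTp {4} V f k ∨ HTa {4} V f k) lam)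
    (hG : Grp {4} T G 3 b) (hA : XF lam {0} 2)
    (hB : XF lam {0, 2} 3) (b5 : b = 5) (hv : Vis lam {0, 5} 6) (hF : Free lam T {4} {5}) :
    ∃ C : ℝ, ∀ u : ℝ, 0 ≤ u → lam (u • T) ≤ -((3 + ((3 : ℤ) : ℝ)) * u) + C := by
  have hb : ∀ v ∈ ([(3, 1), (4, 1)] : List (ℤ × ℤ)), b * v.2 ≠ v.1 := by
    rw [b5]; norm_num
  -- `A` is full given `BY, BB`
  have hG0 : ∀ i, T i = 0 → i ≠ 1 →
      (i ∈ ({0, 5, 7} : Finset (Fin 18)) ↔ i ∈ ({5} : Finset (Fin 18))) := by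
    intro i hi hi1
    by_cases hi4 : i = 4
    · subst hi4; decide
    have h1 : sI 3 i = 0 := by
      have := hG.hT i (by simpa using hi4)
      rw [hi] at this
      exact_mod_cast this.symm
    revert h1 hi1
    clear hi hi4
    revert i
    decide
  have hA' : XF lam {0, 5, 7} 2 :=
    H'.Afull hF (Or.inr (by decide +kernel)) (by decide) (by decide) hG0
  have s1 : SameB 3 [(3, 1), (4, 1)] {4} 2 {0, 5, 7} {10, 6, 0, 5, 7, 9} := by decide +kernel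
  have s2 : SameB 3 [(3, 1), (4, 1)] {4} 2 {10, 6, 0, 5, 7, 9} {0, 5, 7} := by decide +kernel
  have hX : XF lam (insert (Fin.natAdd 4 (2 : Fin 14)) (insert (Fin.natAdd 4 (6 : Fin 14))
      ({0, 5, 7, 9} : Finset (Fin 18)))) (Fin.castAdd 14 (2 : Fin 4)) := by
    have e : (insert (Fin.natAdd 4 (2 : Fin 14)) (insert (Fin.natAdd 4 (6 : Fin 14))
      ({0, 5, 7, 9} : Finset (Fin 18)))) = {10, 6, 0, 5, 7, 9} := by decide
    rw [e]
    exact H.tr_XF hA' (by decide) (by decide) (s1.same hG hb s2)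
  have s3 : SameB 3 [(3, 1), (4, 1)] {4} 6 {0, 5} {2, 10, 0, 5, 7, 9} := by decide +kernel
  have s4 : SameB 3 [(3, 1), (4, 1)] {4} 6 {2, 10, 0, 5, 7, 9} {0, 5} := by decide +kernel
  have hV : Vis lam (insert (Fin.castAdd 14 (2 : Fin 4)) (insert (Fin.natAdd 4 (6 : Fin 14))
      ({0, 5, 7, 9} : Finset (Fin 18)))) (Fin.natAdd 4 (2 : Fin 14)) := by
    have e : (insert (Fin.castAdd 14 (2 : Fin 4)) (insert (Fin.natAdd 4 (6 : Fin 14))
      ({0, 5, 7, 9} : Finset (Fin 18)))) = {2, 10, 0, 5, 7, 9} := by decide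
    rw [e]
    exact H.tr_vis hv (by decide) (by decide) (s3.same hG hb s4)
  have hL := H.leafStep (V := ({0, 5, 7, 9} : Finset (Fin 18))) (X := 2) (F := 2) (q := 6) (n := 3)
    (e := 1) (by decide) (by decide) (by decide) (by decide) (by decide +kernel) (by decide)
    (by decide) (by decide) (by decide) hX hV
  refine H.chain hG hA hB hb [.leaf 2 6 11 2 0 {0, 1, 3, 5, 6},
    .leaf 2 11 13 1 0 {0, 1, 3, 5, 6, 10}] (H.vis_of_full hL (by decide)) (by decide) ?_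
  decide +kernel

/-- **slot `AY`**, `b ≠ 4` -/
theorem chainAY (H : Pin {4} T G m (HTp {4}) lam)
    (H' : Pin {4} T G m (fun V f k => HTp {4} V f k ∨ HTa {4} V f k) lam)
    (hG : Grp {4} T G 3 b) (hA : XF lam {0} 2)
    (hB : XF lam {0, 2} 3) (b4 : b ≠ 4) (hv : Vis lam {0, 5} 6) (hF : Free lam T {4} {5}) :
    ∃ C : ℝ, ∀ u : ℝ, 0 ≤ u → lam (u • T) ≤ -((3 + ((3 : ℤ) : ℝ)) * u) + C := by
  by_cases b5 : b = 5
  · exact chainAY5 H H' hG hA hB b5 hv hF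
  by_cases b3 : b = 3
  · refine H.chain (b := b) (bad := [(4, 1), (5, 1), (6, 1)]) hG hA hB ?_
      [.ht 9 {0, 5, 7}, .leaf 2 5 10 1 0 {0, 5, 7}, .leaf 3 10 13 1 0 {0, 2, 7}]
      hv (by decide) (by decide +kernel)
    rw [b3]; norm_num
  · refine H.chain (b := b) (bad := [(3, 1), (4, 1), (5, 1)]) hG hA hB ?_
      [.leaf 2 2 6 3 1 {0, 5, 7, 9}, .leaf 2 6 11 2 0 {0, 1, 3, 5, 6},
        .leaf 2 11 13 1 0 {0, 1, 3, 5, 6, 10}]
      hv (by decide) (by decide +kernel)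
    simp only [List.forall_mem_cons, List.not_mem_nil, false_implies, implies_true, and_true]
    norm_num
    exact ⟨b3, b4, b5⟩

/-- **slot `zY`** -/
theorem chainzY (H : Pin {4} T G m (HTp {4}) lam) (hG : Grp {4} T G 3 b) (hA : XF lam {0} 2)
    (hB : XF lam {0, 2} 3) (hv : Vis lam {0, 5, 6} 8) :
    ∃ C : ℝ, ∀ u : ℝ, 0 ≤ u → lam (u • T) ≤ -((3 + ((3 : ℤ) : ℝ)) * u) + C := by
  by_cases b3 : b = 3
  · refine H.chain (b := b) (bad := [(2, 1), (4, 1), (6, 1)]) hG hA hB ?_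
      [.ht 11 {0, 5, 6, 7, 9}, .ht 14 {0, 5, 6, 7, 8, 9}, .leaf 3 10 13 1 0 {0, 2, 7}]
      hv (by decide) (by decide +kernel)
    rw [b3]; norm_num
  by_cases b4 : b = 4
  · refine H.chain (b := b) (bad := [(2, 1), (3, 1), (9, 2), (5, 1), (6, 1)]) hG hA hB ?_
      [.ht 11 {0, 5, 6, 7, 9}, .ht 14 {0, 1, 2, 5, 6, 7, 8, 9}, .leaf 3 10 13 1 0 {0, 2, 7, 9}]
      hv (by decide) (by decide +kernel)
    rw [b4]; norm_num
  · refine H.chain (b := b) (bad := [(3, 1), (4, 1)]) hG hA hB ?_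
      [.ht 10 {0, 5, 6, 7, 9}, .leaf 2 6 11 2 0 {0, 1, 3, 5, 6},
        .leaf 2 11 13 1 0 {0, 1, 3, 5, 6, 10}]
      hv (by decide) (by decide +kernel)
    simp only [List.forall_mem_cons, List.not_mem_nil, false_implies, implies_true, and_true]
    norm_num
    exact ⟨b3, b4⟩

/-- **rung `3`** -/
theorem core3 (H : Pin {4} T G m (HTp {4}) lam)
    (H' : Pin {4} T G m (fun V f k => HTp {4} V f k ∨ HTa {4} V f k) lam)
    (hG : Grp {4} T G 3 b) (hA : XF lam {0} 2) (hB : XF lam {0, 2} 3)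
    (h35 : b = 5 → Vis lam {0} 5 →
      ∃ C : ℝ, ∀ u : ℝ, 0 ≤ u → lam (u • T) ≤ -((3 + ((3 : ℤ) : ℝ)) * u) + C)
    (h34 : b = 4 → Free lam T {4} {5} → Vis lam {0, 5} 6 →
      ∃ C : ℝ, ∀ u : ℝ, 0 ≤ u → lam (u • T) ≤ -((3 + ((3 : ℤ) : ℝ)) * u) + C)
    (hv : lam (ind1 (JW 3)) < 0) :
    ∃ C : ℝ, ∀ u : ℝ, 0 ≤ u → lam (u • T) ≤ -((3 + ((3 : ℤ) : ℝ)) * u) + C := by
  have tt : ∀ k : Fin 18, k ∉ ({4} : Finset (Fin 18)) → sI 3 k = 0 → T k = 0 := fun k hk h0 => by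
    rw [hG.hT k hk, h0]; norm_num
  rcases H.free_or H.free_empty (j := 5) (tt 5 (by decide) (by decide)) (by decide) (by decide)
    (by decide) (by decide) with h | f1
  · have h' : Vis lam ({0} : Finset (Fin 18)) 5 := by simpa using h
    by_cases b5 : b = 5
    · exact h35 b5 h'
    · exact chainBY H hG hA hB b5 h'
  have e1 : (insert 5 ∅ : Finset (Fin 18)) = {5} := by decide
  rcases H.free_or f1 (j := 6) (tt 6 (by decide) (by decide)) (by decide) (by decide)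
    (by decide) (by decide) with h | f2
  · have e : (insert 0 (insert 5 ∅) : Finset (Fin 18)) = {0, 5} := by decide
    rw [e] at h
    rw [e1] at f1
    by_cases b4 : b = 4
    · exact h34 b4 f1 h
    · exact chainAY H H' hG hA hB b4 h f1
  rcases H.free_or f2 (j := 8) (tt 8 (by decide) (by decide)) (by decide) (by decide)
    (by decide) (by decide) with h | f3
  · have e : (insert 0 (insert 6 (insert 5 ∅)) : Finset (Fin 18)) = {0, 5, 6} := by decide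
    rw [e] at h
    exact chainzY H hG hA hB h
  · exact (free_false f3 (by decide) hv).elim

/-- **the special case `b = 5`, `BY`** (191) -/
def Spec35 : Prop :=
  ∀ (T : Fin 18 → ℝ) (G : Fin 18 → ℕ) (m : ℝ) (lam : (Fin 18 → ℝ) → ℝ) (κ : ℕ → ℝ)
    (u : ℕ → Fin 18 → ℝ) (f : ℕ → ℕ × ℝ → FW), Pin {4} T G m (HTp {4}) lam → Grp {4} T G 3 5 →
    XF lam {0} 2 → XF lam {0, 2} 3 → Ind {4} lam →
    (∀ x : ℝ, 0 < x → ∃ (W : Wnd 18 fun _ => ℕ × ℝ) (E : ∀ n : ℕ, Finset (ℕ × ℝ)),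
      PWin W E κ u f {4} lam x) → Vis lam {0} 5 →
    ∃ C : ℝ, ∀ v : ℝ, 0 ≤ v → lam (v • T) ≤ -((3 + ((3 : ℤ) : ℝ)) * v) + C

/-- **the special case `b = 4`, `AY`** (191) -/
def Spec34 : Prop :=
  ∀ (T : Fin 18 → ℝ) (G : Fin 18 → ℕ) (m : ℝ) (lam : (Fin 18 → ℝ) → ℝ) (κ : ℕ → ℝ)
    (u : ℕ → Fin 18 → ℝ) (f : ℕ → ℕ × ℝ → FW), Pin {4} T G m (HTp {4}) lam → Grp {4} T G 3 4 →
    XF lam {0} 2 → XF lam {0, 2} 3 → Ind {4} lam →
    (∀ x : ℝ, 0 < x → ∃ (W : Wnd 18 fun _ => ℕ × ℝ) (E : ∀ n : ℕ, Finset (ℕ × ℝ)),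
      PWin W E κ u f {4} lam x) → Free lam T {4} {5} → Vis lam {0, 5} 6 →
    ∃ C : ℝ, ∀ v : ℝ, 0 ≤ v → lam (v • T) ≤ -((3 + ((3 : ℤ) : ℝ)) * v) + C

theorem DrW3 : DrW ((3 : ℤ) : ℝ) = ↑({4} : Finset (Fin 18)) := by rw [DrW_int, DrI3]

/-- **row `pin3`** from the two special cases -/
theorem pin3_of (h35 : Spec35) (h34 : Spec34) : PinC 3 fun θ V => ∀ k ∈ V, KW θ k < 3 := by
  refine pinC_of (by norm_num) (fun θ V h k hk => (by
    have := (h k hk).le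
    push_cast; exact this)) ?_
  intro P ν own K r0 θ g q V T h hp
  refine ⟨g / 4, by have := h.g0; linarith, fun B Bo I J co C κ u f lam lo A φ r hP hv => ?_⟩
  have e4 : ((3 : ℕ) : ℝ) = ((3 : ℤ) : ℝ) := by norm_num
  have hV : ∀ k ∈ V, KW θ k < ((3 : ℤ) : ℝ) := fun k hk => by
    have := hp k hk
    push_cast; exact this
  rw [e4] at hP ⊢
  have H := pin_of hP DrW3 hV
  have H' := pin_of' hP DrW3 hV
  have hG := grp_of (j := 3) h.θ1 DrW3
  obtain ⟨hA, hB⟩ := frames_of H hG (by decide) (by decide) (by decide) (by decide) (by decide)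
    (by decide) (by decide) (by decide)
  have h1 := row_end hP DrW3 (core3 H H' hG hA hB
    (fun hb hv' => h35 _ _ _ _ κ u f H (hb ▸ hG) hA hB (ind_of hP DrW3)
      (fun x hx => exists_win hP DrW3 hV hx) hv')
    (fun hb hF hv' => h34 _ _ _ _ κ u f H (hb ▸ hG) hA hB (ind_of hP DrW3)
      (fun x hx => exists_win hP DrW3 hV hx) hF hv') hv)
  exact ThB830.CtxW.full h (by norm_num) h1

end Crest.Agent.R136.Pin851
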