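import Crest.Agent.R136.PinY_851

/-!
# R136, thin pins (helper851): rung `s = 4`, no visible slot of wall slope `≥ 4`

`pin4C : PinC 4 fun θ V => ∀ k ∈ V, KW θ k < 4`.
-/

set_option autoImplicit false
set_option linter.unusedSectionVars false
set_option linter.unusedVariables false

open Filter Topology

namespace Crest.Agent.R136.Pin851

open Finset Crest.Agent.R138.Ex926 Crest.Agent.R136.Net191
open Crest.Agent.R136.NetW191 Crest.Agent.R136.EvW938 Crest.Agent.R136.PrW464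
open Crest.Agent.R136.LadW697 Crest.Agent.R136.LfW619 Crest.Agent.R136.RowW619
open Crest.Agent.R136.ThB830 Crest.Agent.R136.LadT830 Crest.Agent.R136.NatW697
open Crest.Agent.R136.Dg219 (gC)
open Crest.Agent.R136.K2S774 (cn ind1)

variable {Dr : Finset (Fin 18)} {T : Fin 18 → ℝ} {G : Fin 18 → ℕ} {m : ℝ}
  {HT : Finset (Fin 18) → Fin 18 → Fin 18 → Prop} {lam : (Fin 18 → ℝ) → ℝ} {b : ℝ}

/-- dropped slots of an integer rung -/
def DrI (j : ℤ) : Finset (Fin 18) := univ.filter fun k => 4 ≤ k ∧ j < alW k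

theorem DrW_int (j : ℤ) : DrW (j : ℝ) = ↑(DrI j) := by
  ext k
  simp only [DrI, coe_filter, mem_univ, true_and, Set.mem_ofPred_eq]
  constructor
  · rintro ⟨h1, h2⟩; exact ⟨h1, by exact_mod_cast h2⟩
  · rintro ⟨h1, h2⟩; exact ⟨h1, by exact_mod_cast h2⟩

theorem DrI4 : DrI 4 = ∅ := by decide
theorem DrI3 : DrI 3 = {4} := by decide
theorem DrI2 : DrI 2 = {4, 5, 6, 8} := by decide

/-- all slots of the weight are free: nothing is visible -/
theorem free_false {Fr : Finset (Fin 18)} {j : ℕ} (hF : Free lam T Dr Fr) (hJ : Fr = JW j)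
    (hv : lam (ind1 (JW j)) < 0) : False := by
  have e : ind Fr 1 = ind1 (JW j) := by
    funext k
    rw [hJ]
    rfl
  have := hF.free 1 zero_le_one
  rw [e] at this
  linarith

/-- **rung `4`** -/
theorem core4 (H : Pin ∅ T G m (HTp ∅) lam) (hG : Grp ∅ T G 4 b) (hA : XF lam {0} 2)
    (hB : XF lam {0, 2} 3) (hv : lam (ind1 (JW 4)) < 0) :
    ∃ C : ℝ, ∀ u : ℝ, 0 ≤ u → lam (u • T) ≤ -((3 + ((4 : ℤ) : ℝ)) * u) + C := by
  have t4 : T 4 = 0 := by
    rw [hG.hT 4 (by decide)]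
    have : sI 4 4 = 0 := by decide
    rw [this]; norm_num
  rcases H.free_or H.free_empty (j := 4) t4 (by decide) (by decide) (by decide) (by decide)
    with h | h
  swap
  · exact (free_false h (by decide) hv).elim
  have h' : Vis lam ({0} : Finset (Fin 18)) 4 := by simpa using h
  by_cases h4 : b = 4
  · refine H.chain (b := b) (bad := [(5, 1), (7, 1), (8, 1)]) hG hA hB ?_ [.ht 5 {0},
      .leaf 2 1 5 2 1 {0, 1, 4}, .leaf 2 5 10 1 0 {0, 1, 3, 4, 5}, .leaf 3 10 13 1 0 {0, 2, 7}] h'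
      (by decide) (by decide +kernel)
    rw [h4]; norm_num
  by_cases h6 : b = 6 ∨ b = 8
  · refine H.chain (b := b) (bad := [(4, 1), (5, 1), (16, 3)]) hG hA hB ?_ [
      .leaf 2 0 2 4 1 {0, 5}, .leaf 2 2 6 3 1 {0, 1, 3, 4, 5}, .leaf 2 6 11 2 0 {0, 1, 3, 4, 5, 6},
      .leaf 2 11 13 1 0 {0, 1, 3, 4, 5, 6, 10}] h' (by decide) (by decide +kernel)
    rcases h6 with h6 | h6 <;> rw [h6] <;> norm_num
  · push Not at h6
    refine H.chain (b := b) (bad := [(4, 1), (6, 1), (8, 1)]) hG hA hB ?_ [.ht 5 {0},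
      .ht 7 {0, 4}, .leaf 3 3 10 2 0 {0, 2}, .leaf 3 10 13 1 0 {0, 2, 7}] h' (by decide)
      (by decide +kernel)
    simp only [List.forall_mem_cons, List.not_mem_nil, false_implies, implies_true, and_true]
    norm_num
    exact ⟨h4, h6.1, h6.2⟩

/-- **row `pin4`** -/
theorem pin4C : PinC 4 fun θ V => ∀ k ∈ V, KW θ k < 4 := by
  refine pinC_of (by norm_num) (fun θ V h k hk => (by
    have := (h k hk).le
    push_cast; exact this)) ?_
  intro P ν own K r0 θ g q V T h hp
  refine ⟨g / 4, by have := h.g0; linarith, fun B Bo I J co C κ u f lam lo A φ r hP hv => ?_⟩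
  have e4 : ((4 : ℕ) : ℝ) = ((4 : ℤ) : ℝ) := by norm_num
  have hD : DrW ((4 : ℤ) : ℝ) = ↑(∅ : Finset (Fin 18)) := by rw [DrW_int, DrI4]
  have hV : ∀ k ∈ V, KW θ k < ((4 : ℤ) : ℝ) := fun k hk => by
    have := hp k hk
    push_cast; exact this
  rw [e4] at hP ⊢
  have H := pin_of hP hD hV
  have hG := grp_of (j := 4) h.θ1 hD
  obtain ⟨hA, hB⟩ := frames_of H hG (by decide) (by decide) (by decide) (by decide) (by decide)
    (by decide) (by decide) (by decide)
  have h1 := row_end hP hD (core4 H hG hA hB hv)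
  exact ThB830.CtxW.full h (by norm_num) h1

end Crest.Agent.R136.Pin851
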