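import Crest.Agent.R136.PinF_851
import Crest.Agent.R136.Bas4_938

/-!
# R136, thin pins (helper851): height links `c → A` with narrow flag slots

* `pres_cfg` : a box is preserved by the change of height (887's `flag_pres`)
* `PWin.htAV` : height link `c → A` in a box where further flag slots are narrow
* `pin_of'` : the structure `Pin` with these links
-/

set_option autoImplicit false
set_option linter.unusedSectionVars false
set_option linter.unusedVariables false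

open Filter Topology

namespace Crest.Agent.R136.Pin851

open Finset Crest.Agent.R138.Ex926 Crest.Agent.R136.Net191 Crest.Agent.R136.Gf356
open Crest.Agent.R136.Qg926 Crest.Agent.R136.Dg219 Crest.Agent.R136.Aw413
open Crest.Agent.R136.NetW191 Crest.Agent.R136.EvW938 Crest.Agent.R136.PrW464
open Crest.Agent.R136.LadW697 Crest.Agent.R136.AwJ774 Crest.Agent.R136.Bas938
open Crest.Agent.R136.LfW619 Crest.Agent.R136.BaseW619 Crest.Agent.R136.Lf400
open Crest.Agent.R136.RowW619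
open Crest.Agent.R136.Ht887 Crest.Agent.R136.ThB830 Crest.Agent.R136.LadT830
open Crest.Agent.R136.NatW697
open Crest.Agent.R136.Rc146 (OutA)
open Crest.Agent.R136.K2S774 (cn ind1)

section pres

variable {ι : ℕ → Type*} [∀ n, DecidableEq (ι n)] {W : Wnd 18 ι} {κ : ℕ → ℝ}
  {lam : ℕ → Fin 18 → ℝ} {f : ∀ n, ι n → FW}

/-- **the box is preserved by the change of height**, configuration form -/
theorem pres_cfg (h : WWnd W κ lam f) {E : ∀ n, Finset (ι n)} (hE : EvG W E)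
    {p v : Fin 18 → ℝ} (hpr : HtPres W p v) (hown : OwnV W E v) :
    ∀ ε : ℝ, 0 < ε → ∀ᶠ n in (U : Filter ℕ), ∀ k k' i l, (i, k) ∈ (W.cfg E n).I →
      (i, k') ∈ (W.cfg E n).I → (l, k) ∈ (W.cfg E n).I → (l, k') ∈ (W.cfg E n).I →
      (W.cfg E n).loose p ε k i l → (W.cfg E n).loose p (15 * ε) k' i l := by
  have hM := (MW_le h).1
  have hM0 : 0 ≤ MW W := by linarith
  intro ε hε
  filter_upwards [hE, hown ε hε, ev_const_le W.B' hε (4 * MG W)] with
    n hn hv hk1 k k' i l hi hi' hl hl' hlo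
  obtain ⟨g, hsub, heq⟩ := hn
  have hlo' := hlo
  rw [heq] at hi hi' hl hl' hlo' hv ⊢
  obtain ⟨a1, a2, a3⟩ := Wnd.rep_of_mem hsub hi
  obtain ⟨b1, b2, b3⟩ := Wnd.rep_of_mem hsub hi'
  obtain ⟨c1, c2, c3⟩ := Wnd.rep_of_mem hsub hl
  obtain ⟨d1, d2, d3⟩ := Wnd.rep_of_mem hsub hl'
  have hpos : ∀ t : ℝ, 0 < W.B'.d n ^ t := fun t => Real.rpow_pos_of_pos (W.B'.pos n) _
  have anti : ∀ {s t : ℝ}, s ≤ t → W.B'.d n ^ t ≤ W.B'.d n ^ s := fun hst =>
    Real.rpow_le_rpow_of_exponent_ge (W.B'.pos n) (W.B'.lt n).le hst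
  have radd : ∀ s t : ℝ, W.B'.d n ^ s * W.B'.d n ^ t = W.B'.d n ^ (s + t) := fun s t =>
    (Real.rpow_add (W.B'.pos n) s t).symm
  have q1 : ∀ s, s ∉ W.S → |W.crd n (W.rep n i k) (W.rep n l k) s| ≤
      W.B'.d n ^ (p s - ε) := by
    intro s hs; rw [← h.rel_eq i l k hs]; exact hlo' s
  have ow : ∀ j, (j, k) ∈ (W.cfg0 n (E n)).I → (j, k') ∈ (W.cfg0 n (E n)).I →
      ∀ s ∈ W.S, |W.crd n (W.rep n j k) (W.rep n j k') s| ≤
        MW W * W.B'.d n ^ (v s - ε) := by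
    intro j hj hj' s hs
    rcases lt_or_ge 0 (v s) with hvs | hvs
    · exact (hv j k k' hj hj' s hs hvs).trans (le_mul_of_one_le_left (hpos _).le hM)
    · refine (own_MW' h g hsub hj hj' s).trans (le_mul_of_one_le_right hM0 ?_)
      exact Real.one_le_rpow_of_pos_of_le_one_of_nonpos (W.B'.pos n) (W.B'.lt n).le
        (by linarith)
  have R1 := flag_pres h g a1 b1 c1 d1 (a2.trans b2.symm) (c2.trans d2.symm)
    (a3.trans c3.symm) (b3.trans d3.symm) hpr hε.le q1 (ow i hi hi') (ow l hl hl')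
  intro s
  change |(W.cfg0 n (E n)).rel k' i l s| ≤ W.B'.d n ^ (p s - 15 * ε)
  by_cases hs : s ∈ W.S
  · have : (W.cfg0 n (E n)).rel k' i l s = 0 := if_pos hs
    rw [this, abs_zero]
    exact (hpos _).le
  · rw [h.rel_eq i l k' hs]
    refine (R1 s hs).trans ((mul_le_mul_of_nonneg_right hk1 (hpos _).le).trans ?_)
    rw [radd]
    exact anti (by linarith)

end pres

section win

variable {ι : ℕ → Type*} [∀ n, DecidableEq (ι n)] {W : Wnd 18 ι} {E : ∀ n, Finset (ι n)}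
  {kp : ℕ → ℝ} {un : ℕ → Fin 18 → ℝ} {F : ∀ n, ι n → FW} {Dr V : Finset (Fin 18)}
  {lam : (Fin 18 → ℝ) → ℝ} {x j : ℝ}

/-- decidable height links `c → A` -/
def HTa (Dr V : Finset (Fin 18)) (f k : Fin 18) : Prop :=
  f = 1 ∧ k = 2 ∧ 0 ∈ V ∧ 1 ∉ V ∧ 2 ∉ V ∧ 3 ∉ V ∧ 1 ∉ Dr ∧ 2 ∉ Dr ∧ 3 ∉ Dr ∧
  UpW Dr V ∧ UpW Dr (insert 2 V) ∧ UpW Dr (insert 1 (insert 2 V)) ∧
  ∀ q' : Fin 14, Fin.natAdd 4 q' ∈ V ∪ Dr →
    live (mixS (V ∪ Dr) O0) q' = [] ∧ live (mixS O0 (V ∪ Dr)) q' = []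

instance (Dr V : Finset (Fin 18)) (f k : Fin 18) : Decidable (HTa Dr V f k) := by
  unfold HTa; infer_instance

/-- **height link `c → A`**, further flag slots narrow -/
theorem PWin.htAV (h : PWin W E kp un F Dr lam x) (hi : Ind Dr lam) (hx : 0 < x) (hD0 : 0 ∉ Dr)
    (hH : HTa Dr V 1 2) (hj : 0 ≤ j) (hjx : j ≤ x)
    (hv : lam (Function.update (ind (insert 2 V) x) 1 j) < lam (ind (insert 2 V) x)) :
    x - j ≤ lam (ind V x) - lam (ind (insert 2 V) x) := by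
  obtain ⟨-, -, h0, h1, h2, h3, d1, d2, d3, u1, u2, u3, hlv⟩ := hH
  have hx0 := hx.le
  have nF : (1 : Fin 18) ∉ V ∪ Dr := by simp [h1, d1]
  have nN : (2 : Fin 18) ∉ V ∪ Dr := by simp [h2, d2]
  have n3 : (3 : Fin 18) ∉ V ∪ Dr := by simp [h3, d3]
  have hNF : (2 : Fin 18) ≠ 1 := by decide
  have hFq : (1 : Fin 18) ∉ insert 2 V := by simp [h1]
  have m1 : ∀ {cF cN y : ℝ} {V1 V2 : Finset (Fin 18)}, 0 ≤ y → y ≤ x → UpW Dr V1 → UpW Dr V2 →
      Val V1 V2 x y 1 cF → Val V1 V2 x y 2 cN →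
      (∀ i, i ≠ 1 → i ≠ 2 → (i ∈ V1 ↔ i ∈ V) ∧ (i ∈ V2 ↔ i ∈ V)) →
      b2 (ind (V ∪ Dr) x) 1 2 cF cN ∈ CL Dr ∧
      b2 (ind (V ∪ Dr) x) 1 2 cF cN ∈ W.legW := by
    intro cF cN y V1 V2 hy hyx hV1 hV2 vF vN hVV
    have m := mem_b2 nF nN hNF hx0 hy hyx hV1 hV2 vF vN hVV
    exact ⟨m, h.leg' m (b2_nonneg (vF.nonneg hx0 hy) (vN.nonneg hx0 hy) hx0)
      (b2_le_x (vF.le hx0 hyx) (vN.le hx0 hyx) hx0) (b2_V nF nN h0)⟩
  have oq : ∀ i, i ≠ 1 → i ≠ 2 → (i ∈ insert 2 V ↔ i ∈ V) := fun i _ h3 => by simp [h3]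
  have oA : ∀ i, i ≠ 1 → i ≠ 2 → (i ∈ insert 1 (insert 2 V) ↔ i ∈ V) :=
    fun i h2 h3 => by simp [h2, h3]
  have adx : ∀ t, 0 ≤ t → t ≤ x → b2 (ind (V ∪ Dr) x) 1 2 t x ∈ CL Dr ∧
      b2 (ind (V ∪ Dr) x) 1 2 t x ∈ W.legW := fun t ht htx =>
    m1 ht htx u2 u3 (Or.inr (Or.inl ⟨hFq, by simp, rfl⟩)) (Or.inl ⟨by simp, rfl⟩)
      (fun i h2 h3 => ⟨oq i h2 h3, oA i h2 h3⟩)
  have adg : ∀ t, 0 ≤ t → t ≤ x → b2 (ind (V ∪ Dr) x) 1 2 t t ∈ CL Dr ∧
      b2 (ind (V ∪ Dr) x) 1 2 t t ∈ W.legW := fun t ht htx =>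
    m1 ht htx u1 u3 (Or.inr (Or.inl ⟨h1, by simp, rfl⟩)) (Or.inr (Or.inl ⟨h2, by simp, rfl⟩))
      (fun i h2 h3 => ⟨Iff.rfl, oA i h2 h3⟩)
  have e00 : lam (b2 (ind (V ∪ Dr) x) 1 2 0 0) = lam (ind V x) := by
    refine hi _ (adg 0 le_rfl hx0).1 _ (mem_ind u1 hx0) fun i hi => ?_
    by_cases k2 : i = 1
    · subst k2; rw [b2_F, ind_notMem h1]
    by_cases k3 : i = 2
    · subst k3; rw [b2_N hNF, ind_notMem h2]
    by_cases hV : i ∈ V
    · rw [b2_V nF nN hV, ind_mem hV]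
    · rw [b2_out k2 k3 hV hi, ind_notMem hV]
  have ejx : lam (b2 (ind (V ∪ Dr) x) 1 2 j x) =
      lam (Function.update (ind (insert 2 V) x) 1 j) := by
    refine hi _ (adx j hj hjx).1 _ (mem_upd u2 u3 hFq hj hjx) fun i hi => ?_
    by_cases k2 : i = 1
    · subst k2; rw [b2_F, Function.update_self]
    by_cases k3 : i = 2
    · subst k3; rw [b2_N hNF, Function.update_of_ne hNF, ind_mem (by simp)]
    by_cases hV : i ∈ V
    · rw [b2_V nF nN hV, Function.update_of_ne k2, ind_mem (by simp [hV])]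
    · rw [b2_out k2 k3 hV hi, Function.update_of_ne k2, ind_notMem (by simp [k3, hV])]
  have e0x : lam (b2 (ind (V ∪ Dr) x) 1 2 0 x) = lam (ind (insert 2 V) x) := by
    refine hi _ (adx 0 le_rfl hx0).1 _ (mem_ind u2 hx0) fun i hi => ?_
    by_cases k2 : i = 1
    · subst k2; rw [b2_F, ind_notMem hFq]
    by_cases k3 : i = 2
    · subst k3; rw [b2_N hNF, ind_mem (by simp)]
    by_cases hV : i ∈ V
    · rw [b2_V nF nN hV, ind_mem (by simp [hV])]
    · rw [b2_out k2 k3 hV hi, ind_notMem (by simp [k3, hV])]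
  have hz : ∀ cF cN : ℝ, b2 (ind (V ∪ Dr) x) 1 2 cF cN 0 = x := fun _ _ => b2_V nF nN h0
  set p := b2 (ind (V ∪ Dr) x) 1 2 0 0 with hp
  have p1 : p 1 = 0 := b2_F
  have p2 : p 2 = 0 := b2_N hNF
  have p3 : p 3 = 0 := by rw [hp, b2_o (by decide) (by decide), ind_notMem n3]
  have pn : ∀ s, 0 ≤ p s := b2_nonneg le_rfl le_rfl hx0
  have px : ∀ s, p s ≤ x := b2_le_x hx0 hx0 hx0
  have pA : ∀ s ∈ V ∪ Dr, p s = x := by
    intro s hs
    have k1 : s ≠ 1 := fun e => nF (e ▸ hs)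
    have k2 : s ≠ 2 := fun e => nN (e ▸ hs)
    rw [hp, b2_o k1 k2, ind_mem hs]
  have p0' : ∀ s, s ∉ V ∪ Dr → p s = 0 := by
    intro s hs
    by_cases k1 : s = 1
    · rw [k1]; exact p1
    by_cases k2 : s = 2
    · rw [k2]; exact p2
    rw [hp, b2_o k1 k2, ind_notMem hs]
  have tx : ∀ s, W.top s = x := h.top
  have rA : ∀ s ∈ V ∪ Dr, x ≤ eRel W p s := by
    intro s hs
    unfold eRel
    split_ifs with hsS
    · exact (tx s).ge
    · exact (pA s hs).ge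
  have rO : ∀ s ∈ O0, x ≤ eOwn W (fun _ => 0) s := by
    intro s hs
    unfold eOwn
    split_ifs with hsS
    · rw [h.S, Finset.mem_singleton] at hsS
      subst hsS
      exact absurd hs (by decide)
    · exact (tx s).ge
  have n1 : ∀ s, 0 ≤ eRel W p s := by
    intro s; unfold eRel; split_ifs
    · rw [tx]; exact hx0
    · exact pn s
  have n2 : ∀ s, 0 ≤ eOwn W (fun _ => 0) s := by
    intro s; unfold eOwn; split_ifs
    · exact le_rfl
    · rw [tx]; exact hx0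
  have mm1 : ∀ s, 0 ≤ mix (eRel W p) (eOwn W fun _ => 0) s := by
    intro s
    refine Fin.addCases (m := 4) (n := 14) (fun i => ?_) (fun q' => ?_) s
    · rw [mix_left]; exact n2 _
    · rw [mix_right]; exact n1 _
  have mm2 : ∀ s, 0 ≤ mix (eOwn W fun _ => 0) (eRel W p) s := by
    intro s
    refine Fin.addCases (m := 4) (n := 14) (fun i => ?_) (fun q' => ?_) s
    · rw [mix_left]; exact n1 _
    · rw [mix_right]; exact n2 _
  have k1 : ∀ s ∈ mixS (V ∪ Dr) O0, x ≤ mix (eRel W p) (eOwn W fun _ => 0) s := by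
    intro s
    refine Fin.addCases (m := 4) (n := 14) (fun i hi => ?_) (fun q' hi => ?_) s
    · rw [mix_left]; exact rO _ (mixS_left.1 hi)
    · rw [mix_right]; exact rA _ (mixS_right.1 hi)
  have k2 : ∀ s ∈ mixS O0 (V ∪ Dr), x ≤ mix (eOwn W fun _ => 0) (eRel W p) s := by
    intro s
    refine Fin.addCases (m := 4) (n := 14) (fun i hi => ?_) (fun q' hi => ?_) s
    · rw [mix_left]; exact rA _ (mixS_left.1 hi)
    · rw [mix_right]; exact rO _ (mixS_right.1 hi)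
  have hpr : HtPres W p (fun _ => 0) := by
    refine ⟨pn, fun s => by rw [tx]; exact hx0, rfl, by rw [p1, tx]; exact hx0,
      by rw [p2, tx]; exact hx0, by rw [p3, tx]; exact hx0, by rw [p1, p2], by rw [p1, p3]; simp,
      by rw [p1, p3, tx]; simpa using hx0, by rw [p2, p3, tx]; simpa using hx0,
      by rw [p3, tx]; linarith, fun q' _ => by rw [tx]; exact px _, ?_, ?_⟩
    · intro q' hq' t ht
      by_cases hA : Fin.natAdd 4 q' ∈ V ∪ Dr
      · rw [pA _ hA]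
        refine live_exp mm1 k1 ht ?_
        rw [(hlv q' hA).1]
        exact List.not_mem_nil
      · rw [p0' _ hA]
        refine List.sum_nonneg ?_
        intro z hz
        obtain ⟨s', -, rfl⟩ := List.mem_map.1 hz
        exact mm1 s'
    · intro q' hq' t ht
      by_cases hA : Fin.natAdd 4 q' ∈ V ∪ Dr
      · rw [pA _ hA]
        refine live_exp mm2 k2 ht ?_
        rw [(hlv q' hA).2]
        exact List.not_mem_nil
      · rw [p0' _ hA]
        refine List.sum_nonneg ?_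
        intro z hz
        obtain ⟨s', -, rfl⟩ := List.mem_map.1 hz
        exact mm2 s'
  have hL0 := htA' h.ww h.ev (x := x) hx0 (tx 0).ge (tx 1).ge (tx 2).ge (b := fun _ => 0)
    (fun _ => le_rfl) (Eventually.of_forall fun m => by
      have := h.tight 2 d2 [1, 0] (by decide) (fun s hs => by
        rcases List.mem_cons.1 hs with h1 | h1
        · rw [h1]; exact d1
        · rw [List.mem_singleton.1 h1]; exact hD0) m
      rw [this, List.map_cons, List.map_cons, List.map_nil, List.sum_cons, List.sum_cons,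
        List.sum_nil, add_zero])
  have hdn : ∀ {n : ℕ} {ε : ℝ} {k i l : ℕ}, (W.cfg E n).loose p ε k i l →
      (W.cfg E n).loose (b2 (fun _ => 0) 1 2 0 0) ε k i l := by
    intro n ε k i l hl
    refine h.mod.loose_mono (fun s => ?_) le_rfl hl
    have : b2 (fun _ => (0:ℝ)) (1 : Fin 18) 2 0 0 s = 0 := by
      unfold b2
      split_ifs <;> rfl
    rw [this]
    exact pn s
  have hlink : HtLink W.B' (W.cfg E) p 1 2 x (fun n => cfl W un n [1, 0] 2) 15 := by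
    refine ⟨by norm_num, hL0.hc, hL0.hz, ?_, ?_⟩
    · intro ε hε
      filter_upwards [hL0.comp ε hε] with n hn k i l l' h1 h2 h3 h4 h5
      obtain ⟨r1, r2⟩ := hn k i l l' h1 h2 h3 (hdn h4) (hdn h5)
      have hm : W.B'.d n ^ (x - 1 * ε) ≤ W.B'.d n ^ (x - 15 * ε) :=
        Real.rpow_le_rpow_of_exponent_ge (W.B'.pos n) (W.B'.lt n).le (by linarith)
      exact ⟨r1.trans hm, r2.trans hm⟩
    · intro ε hε
      filter_upwards [hL0.evo ε hε, pres_cfg h.ww h.ev hpr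
        (OwnV.zero W E fun _ _ => le_rfl) ε hε] with n hn hp' k k' i l h1 h2 h3 h4 h5
      obtain ⟨-, r2⟩ := hn k k' i l h1 h2 h3 h4 (hdn h5)
      have hm : W.B'.d n ^ (x - 1 * ε) ≤ W.B'.d n ^ (x - 15 * ε) :=
        Real.rpow_le_rpow_of_exponent_ge (W.B'.pos n) (W.B'.lt n).le (by linarith)
      exact ⟨hp' k k' i l h1 h2 h3 h4 h5, r2.trans hm⟩
  have key := height_pos_R h.mod (ind (V ∪ Dr) x) hNF hx le_rfl hj hjx
    (fun t ht htx => (adx t ht htx).2) (fun t ht htx => (adg t ht htx).2) hlink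
    (by rw [h.nu' (hz _ _), h.nu' (hz _ _), ejx, e0x]; linarith)
  rw [h.nu' (hz _ _), h.nu' (hz _ _), e00, e0x] at key
  linarith

end win

section pin

variable {B Bo : Base} {I J : ℕ → Finset (ℕ × ℝ)} {co : ∀ n : ℕ, ℕ × ℝ → ℕ × ℝ → Fin 18 → ℝ}
  {C : ℝ} {κ : ℕ → ℝ} {u : ℕ → Fin 18 → ℝ} {f : ℕ → ℕ × ℝ → FW} {K : ℝ}
  {θ : Fin 3 → ℝ} {q : Fin 3 → ℝ} {V T : Set (Fin 18)} {s : ℝ}
  {lam lo : (Fin 18 → ℝ) → ℝ} {A : ℝ × ℝ} {φ : ℕ → (Fin 18 → ℝ) → ℝ} {r : ℕ → ℝ}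
  {Dr : Finset (Fin 18)}

theorem ind_of (h : PtC B Bo I J co C κ u f K θ q V T s lam lo A φ r) (hDr : DrW s = ↑Dr) :
    Ind Dr lam := by
  have hind := h.ind
  rw [hDr] at hind
  exact fun c hc c' hc' hcc => hind c hc c' hc' fun i hi =>
    hcc i fun h' => hi (Finset.mem_coe.2 h')

/-- `Pin` with the height links `c → A` in boxes with narrow flag slots -/
theorem pin_of' (h : PtC B Bo I J co C κ u f K θ q V T s lam lo A φ r) (hDr : DrW s = ↑Dr)
    (hV : ∀ k ∈ V, KW θ k < s) :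
    Pin Dr (TW s) (gC (TW s) (btW θ)) (q 1 + 2 * q 2)
      (fun V f k => HTp Dr V f k ∨ HTa Dr V f k) lam := by
  have H := pin_of h hDr hV
  have d0 : (0 : Fin 18) ∉ Dr := frame_notMem hDr (by decide)
  have z0 : ∀ (U : Finset (Fin 18)), ind U (0:ℝ) = 0 := fun U => by funext k; simp [ind]
  refine { H with ht := fun U i k hH j x hj hjx hv => ?_ }
  rcases hH with hH | hH
  · exact H.ht U i k hH j x hj hjx hv
  · have e1 := hH.1
    have e2 := hH.2.1
    subst e1; subst e2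
    rcases (hj.trans hjx).eq_or_lt with h0 | hx
    · have hj0 : j = 0 := le_antisymm (by rw [h0]; exact hjx) hj
      subst h0; subst hj0
      exfalso
      have e : Function.update (ind (insert 2 U) (0:ℝ)) 1 0 = ind (insert 2 U) 0 := by
        rw [z0]; exact Function.update_eq_self_iff.2 rfl
      rw [e] at hv
      exact lt_irrefl _ hv
    · obtain ⟨W, E, hW⟩ := exists_win h hDr hV hx
      exact hW.htAV (ind_of h hDr) hx d0 hH hj hjx hv

end pin

end Crest.Agent.R136.Pin851
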