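import Crest.Agent.R136.PinE_851

/-!
# R136, thin pins (helper851): decidable chains

* `sep s bad i j` : the slots `i`, `j` are in different groups, if `b` is not in the list `bad`
* `Stp`, `Okc` : steps of a chain and their decidable conditions
* `chain` : a chain from a visible slot to `N` ⊢ `lam (u • T) ≤ -(3 + s) u + C`
-/

set_option autoImplicit false
set_option linter.unusedSectionVars false
set_option linter.unusedVariables false

open Finset Filter Topology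

namespace Crest.Agent.R136.Pin851

open Crest.Agent.R136.NetW191 Crest.Agent.R136.Net191
open Crest.Agent.R136.LadW697
open Crest.Agent.R136.LfW619 (LeafDat)
open Crest.Agent.R136.K2S774 (cn)
open Crest.Agent.R136.NatW697 Crest.Agent.R136.PrW464

variable {Dr V W W' P : Finset (Fin 18)} {T c c' : Fin 18 → ℝ} {G : Fin 18 → ℕ} {m : ℝ}
  {HT : Finset (Fin 18) → Fin 18 → Fin 18 → Prop} {lam : (Fin 18 → ℝ) → ℝ} {f k : Fin 18}

/-- first slope of a slot on the rung `s` -/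
def sI (s : ℤ) (k : Fin 18) : ℤ := wz k + s * wn k

/-- the slots `i`, `j` are in different groups, if `b` is not in `bad` (fractions) -/
def sep (s : ℤ) (bad : List (ℤ × ℤ)) (i j : Fin 18) : Prop :=
  (sI s i = 0 ∧ sI s j ≠ 0) ∨ (sI s i ≠ 0 ∧ sI s j = 0) ∨
  (sI s i ≠ 0 ∧ sI s j ≠ 0 ∧
    ((sI s i * wn j = sI s j * wn i ∧ sI s j * wc i ≠ sI s i * wc j) ∨
    (sI s i * wn j ≠ sI s j * wn i ∧ ∃ v ∈ bad, v.2 ≠ 0 ∧
      (sI s j * wc i - sI s i * wc j) * v.2 = (sI s i * wn j - sI s j * wn i) * v.1)))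

instance (s : ℤ) (bad : List (ℤ × ℤ)) (i j : Fin 18) : Decidable (sep s bad i j) := by
  unfold sep; infer_instance

/-- the groups of the rung `s` with the second slope `b` -/
structure Grp (Dr : Finset (Fin 18)) (T : Fin 18 → ℝ) (G : Fin 18 → ℕ) (s : ℤ) (b : ℝ) : Prop where
  hT : ∀ i, i ∉ Dr → T i = sI s i
  G0 : ∀ i, G i = 0 ↔ T i = 0
  par : ∀ i j, i ∉ Dr → j ∉ Dr → T i ≠ 0 → T j ≠ 0 → G i = G j →
    (sI s i : ℝ) * (wc j + b * wn j) = sI s j * (wc i + b * wn i)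

theorem Grp.ne {s : ℤ} {b : ℝ} (h : Grp Dr T G s b) {bad : List (ℤ × ℤ)}
    (hb : ∀ v ∈ bad, b * v.2 ≠ v.1) {i j : Fin 18} (hi : i ∉ Dr) (hj : j ∉ Dr)
    (hs : sep s bad i j) : G i ≠ G j := by
  intro hG
  have hTi := h.hT i hi
  have hTj := h.hT j hj
  have z : ∀ n : ℤ, (n : ℝ) = 0 ↔ n = 0 := fun n => Int.cast_eq_zero
  rcases hs with ⟨h1, h2⟩ | ⟨h1, h2⟩ | ⟨h1, h2, h3⟩
  · have h3 : G i = 0 := (h.G0 i).2 (by rw [hTi, h1]; simp)
    rw [hG] at h3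
    have h4 := (h.G0 j).1 h3
    rw [hTj, z] at h4
    exact h2 h4
  · have h3 : G j = 0 := (h.G0 j).2 (by rw [hTj, h2]; simp)
    rw [← hG] at h3
    have h4 := (h.G0 i).1 h3
    rw [hTi, z] at h4
    exact h1 h4
  · have h4 := h.par i j hi hj (by rw [hTi, Ne, z]; exact h1) (by rw [hTj, Ne, z]; exact h2) hG
    rcases h3 with ⟨h5, h6⟩ | ⟨h5, v, hv, hv2, h6⟩
    · have h5' : (sI s i : ℝ) * wn j = sI s j * wn i := by exact_mod_cast h5
      have h7 : (sI s j : ℝ) * wc i = sI s i * wc j := by linear_combination -h4 + b * h5'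
      exact h6 (by exact_mod_cast h7)
    · have h6' : ((sI s j : ℝ) * wc i - sI s i * wc j) * v.2 =
          (sI s i * wn j - sI s j * wn i) * v.1 := by exact_mod_cast h6
      have h7 : ((sI s i : ℝ) * wn j - sI s j * wn i) * b = sI s j * wc i - sI s i * wc j := by
        linear_combination h4
      have h8 : ((sI s i : ℝ) * wn j - sI s j * wn i) ≠ 0 := by
        intro h9
        apply h5
        have : (sI s i : ℝ) * wn j = sI s j * wn i := by linarith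
        exact_mod_cast this
      refine hb v hv ?_
      apply mul_left_cancel₀ h8
      rw [← mul_assoc, h7, h6']

/-- the same slots in the group of `f`, decidable -/
def SameB (s : ℤ) (bad : List (ℤ × ℤ)) (Dr : Finset (Fin 18)) (f : Fin 18)
    (W W' : Finset (Fin 18)) : Prop :=
  f ∉ Dr ∧ ∀ i ∈ W, i ∉ W' → i ≠ f → i ∉ Dr ∧ sep s bad i f

instance (s : ℤ) (bad : List (ℤ × ℤ)) (f : Fin 18) :
    Decidable (SameB s bad Dr f W W') := by
  unfold SameB; infer_instance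

theorem SameB.same {s : ℤ} {b : ℝ} (h : Grp Dr T G s b) {bad : List (ℤ × ℤ)}
    (hb : ∀ v ∈ bad, b * v.2 ≠ v.1) (h1 : SameB s bad Dr f W W') (h2 : SameB s bad Dr f W' W) :
    Same G f W W' := by
  intro i hi hif
  rw [Finset.mem_symmDiff] at hi
  rcases hi with ⟨hi, hi'⟩ | ⟨hi, hi'⟩
  · obtain ⟨h3, h4⟩ := h1.2 i hi hi' hif
    exact h.ne hb h3 h1.1 h4
  · obtain ⟨h3, h4⟩ := h2.2 i hi hi' hif
    exact h.ne hb h3 h1.1 h4

/-- steps of a chain -/
inductive Stp : Type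
  /-- leaf with the lateral slot `X` : the flag slot `q` from the flag slot `F` (the current one),
  only live monomial `n κ ^ e X F` -/
  | leaf (X : Fin 4) (F q : Fin 14) (n : ℤ) (e : ℕ) (V : Finset (Fin 18))
  /-- height link -/
  | ht (k : Fin 18) (V : Finset (Fin 18))

/-- the lateral slot is full -/
def XOk (s : ℤ) (bad : List (ℤ × ℤ)) (Dr W : Finset (Fin 18)) (X : Fin 4) : Prop :=
  (X = 2 ∧ Up2 Dr {0} 2 ∧ Up2 Dr W 2 ∧ SameB s bad Dr 2 {0} W ∧ SameB s bad Dr 2 W {0}) ∨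
  (X = 3 ∧ Up2 Dr {0, 2} 3 ∧ Up2 Dr W 3 ∧ SameB s bad Dr 3 {0, 2} W ∧ SameB s bad Dr 3 W {0, 2})

instance (s : ℤ) (bad : List (ℤ × ℤ)) (X : Fin 4) : Decidable (XOk s bad Dr W X) := by
  unfold XOk; infer_instance

/-- conditions of a leaf step -/
def LeafOk (s : ℤ) (bad : List (ℤ × ℤ)) (Dr P : Finset (Fin 18)) (f : Fin 18) (X : Fin 4)
    (F q : Fin 14) (n : ℤ) (e : ℕ) (V : Finset (Fin 18)) : Prop :=
  f = Fin.natAdd 4 F ∧ n ≠ 0 ∧ 0 ∈ V ∧ Disjoint V Dr ∧ Fin.natAdd 4 F ∉ Dr ∧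
  Fin.natAdd 4 q ∉ Dr ∧ LeafDat {0} (V ∪ Dr) X F q n e ∧ Up2 Dr V (Fin.castAdd 14 X) ∧
  UpW Dr (insert (Fin.natAdd 4 F) (insert (Fin.natAdd 4 q) V)) ∧
  UpW Dr (insert (Fin.castAdd 14 X) (insert (Fin.natAdd 4 q) V)) ∧
  UpW Dr (insert (Fin.natAdd 4 F) (insert (Fin.castAdd 14 X) (insert (Fin.natAdd 4 q) V))) ∧
  XOk s bad Dr (insert (Fin.natAdd 4 F) (insert (Fin.natAdd 4 q) V)) X ∧
  Up2 Dr P f ∧ Up2 Dr (insert (Fin.castAdd 14 X) (insert (Fin.natAdd 4 q) V)) f ∧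
  SameB s bad Dr f P (insert (Fin.castAdd 14 X) (insert (Fin.natAdd 4 q) V)) ∧
  SameB s bad Dr f (insert (Fin.castAdd 14 X) (insert (Fin.natAdd 4 q) V)) P ∧
  Up2 Dr (insert (Fin.castAdd 14 X) V) (Fin.natAdd 4 q)

instance (s : ℤ) (bad : List (ℤ × ℤ)) (X : Fin 4) (F q : Fin 14) (n : ℤ) (e : ℕ) :
    Decidable (LeafOk s bad Dr P f X F q n e V) := by
  unfold LeafOk; infer_instance

/-- conditions of a height step -/
def HtOk (HT : Finset (Fin 18) → Fin 18 → Fin 18 → Prop) (s : ℤ) (bad : List (ℤ × ℤ))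
    (Dr P : Finset (Fin 18)) (f k : Fin 18) (V : Finset (Fin 18)) : Prop :=
  HT V f k ∧ Up2 Dr P f ∧ Up2 Dr (insert k V) f ∧ SameB s bad Dr f P (insert k V) ∧
  SameB s bad Dr f (insert k V) P ∧ Up2 Dr V k

instance [∀ V f k, Decidable (HT V f k)] (s : ℤ) (bad : List (ℤ × ℤ)) :
    Decidable (HtOk HT s bad Dr P f k V) := by
  unfold HtOk; infer_instance

/-- conditions at the end -/
def FinOk (s : ℤ) (bad : List (ℤ × ℤ)) (Dr P : Finset (Fin 18)) : Prop :=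
  Up2 Dr P 17 ∧ Up2 Dr {0, 2, 3} 17 ∧ SameB s bad Dr 17 P {0, 2, 3} ∧
  SameB s bad Dr 17 {0, 2, 3} P ∧ Up2 Dr {0} 2 ∧ Up2 Dr {0, 2} 3 ∧
  (∀ i ∈ ({0, 2, 3} : Finset (Fin 18)), i ∉ Dr ∧ (i ≠ 2 → sep s bad i 2) ∧
    (i ≠ 3 → sep s bad i 3)) ∧ 2 ∉ Dr ∧ 3 ∉ Dr ∧ 17 ∉ Dr

instance (s : ℤ) (bad : List (ℤ × ℤ)) : Decidable (FinOk s bad Dr P) := by
  unfold FinOk; infer_instance

/-- conditions of a chain -/
def Okc (HT : Finset (Fin 18) → Fin 18 → Fin 18 → Prop) (s : ℤ) (bad : List (ℤ × ℤ))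
    (Dr : Finset (Fin 18)) : Finset (Fin 18) → Fin 18 → List Stp → Prop
  | P, f, [] => f = 17 ∧ FinOk s bad Dr P
  | P, f, Stp.leaf X F q n e V :: L => LeafOk s bad Dr P f X F q n e V ∧
      Okc HT s bad Dr (insert (Fin.castAdd 14 X) V) (Fin.natAdd 4 q) L
  | P, f, Stp.ht k V :: L => HtOk HT s bad Dr P f k V ∧ Okc HT s bad Dr V k L

instance decOkc [∀ V f k, Decidable (HT V f k)] (s : ℤ) (bad : List (ℤ × ℤ)) :
    ∀ (L : List Stp) (P : Finset (Fin 18)) (f : Fin 18), Decidable (Okc HT s bad Dr P f L)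
  | [], P, f => by unfold Okc; infer_instance
  | Stp.leaf X F q n e V :: L, P, f => by
    have := decOkc s bad L (insert (Fin.castAdd 14 X) V) (Fin.natAdd 4 q)
    unfold Okc; infer_instance
  | Stp.ht k V :: L, P, f => by
    have := decOkc s bad L V k
    unfold Okc; infer_instance

section

variable (H : Pin Dr T G m HT lam) {s : ℤ} {b : ℝ} (hG : Grp Dr T G s b)
  (hA : XF lam {0} 2) (hB : XF lam {0, 2} 3) {bad : List (ℤ × ℤ)} (hb : ∀ v ∈ bad, b * v.2 ≠ v.1)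
include H hG hA hB hb

theorem Pin.xok {X : Fin 4} (h : XOk s bad Dr W X) : XF lam W (Fin.castAdd 14 X) := by
  rcases h with ⟨rfl, h1, h2, h3, h4⟩ | ⟨rfl, h1, h2, h3, h4⟩
  · exact H.tr_XF hA h1 h2 (h3.same hG hb h4)
  · exact H.tr_XF hB h1 h2 (h3.same hG hb h4)

theorem Pin.lstep {X : Fin 4} {F q : Fin 14} {n : ℤ} {e : ℕ}
    (h : LeafOk s bad Dr P f X F q n e V) (hv : Vis lam P f) :
    Full lam (insert (Fin.castAdd 14 X) V) (Fin.natAdd 4 q) ∧
      Up2 Dr (insert (Fin.castAdd 14 X) V) (Fin.natAdd 4 q) := by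
  obtain ⟨rfl, hn, h0, hD, hF, hq, hd, u1, u2, u3, u4, hx, v1, v2, s1, s2, u5⟩ := h
  refine ⟨H.leafStep hn hD hF hq hd u1 u2 u3 u4 (H.xok hG hA hB hb hx) ?_, u5⟩
  exact H.tr_vis hv v1 v2 (s1.same hG hb s2)

theorem Pin.hstep (h : HtOk HT s bad Dr P f k V) (hv : Vis lam P f) :
    Full lam V k ∧ Up2 Dr V k := by
  obtain ⟨h1, v1, v2, s1, s2, u⟩ := h
  exact ⟨H.htStep h1 (H.tr_vis hv v1 v2 (s1.same hG hb s2)), u⟩

/-- **soundness of a chain** -/
theorem Pin.chain_aux : ∀ (L : List Stp) (P : Finset (Fin 18)) (f : Fin 18), Vis lam P f →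
    (f = 17 → Full lam P 17) → Okc HT s bad Dr P f L →
    ∃ C : ℝ, ∀ u : ℝ, 0 ≤ u → lam (u • T) ≤ -((3 + s) * u) + C
  | [], P, f, hv, h17, hk => by
    unfold Okc at hk
    obtain ⟨rfl, hk⟩ := hk
    obtain ⟨u1, u2, s1, s2, uA, uB, hp, d2, d3, d17⟩ := hk
    have h1 := H.tr_full (h17 rfl) u1 u2 (s1.same hG hb s2)
    refine H.fin ?_ h1 u2 (by decide) (by decide) (by decide) hA hB uA uB (fun i hi h2 => ?_)
      (fun i hi h3 => ?_) fun i hi h0 h2 h3 => ?_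
    · rw [hG.hT 17 d17]
      have e : sI s 17 = s := by simp [sI, wz, wn]
      rw [e]
    · exact hG.ne hb (hp i hi).1 d2 ((hp i hi).2.1 h2)
    · exact hG.ne hb (hp i hi).1 d3 ((hp i hi).2.2 h3)
    · simp only [mem_insert, mem_singleton] at hi
      rcases hi with h | h | h
      · exact absurd h h0
      · exact absurd h h2
      · exact absurd h h3
  | Stp.leaf X F q n e V :: L, P, f, hv, h17, hk => by
    unfold Okc at hk
    obtain ⟨h1, h2⟩ := H.lstep hG hA hB hb hk.1 hv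
    exact Pin.chain_aux L _ _ (H.vis_of_full h1 h2) (fun e => e ▸ h1) hk.2
  | Stp.ht k V :: L, P, f, hv, h17, hk => by
    unfold Okc at hk
    obtain ⟨h1, h2⟩ := H.hstep hG hA hB hb hk.1 hv
    exact Pin.chain_aux L _ _ (H.vis_of_full h1 h2) (fun e => e ▸ h1) hk.2

/-- **a chain** -/
theorem Pin.chain (L : List Stp) (hv : Vis lam P f) (hf : f ≠ 17) (hk : Okc HT s bad Dr P f L) :
    ∃ C : ℝ, ∀ u : ℝ, 0 ≤ u → lam (u • T) ≤ -((3 + s) * u) + C :=
  Pin.chain_aux H hG hA hB hb L P f hv (fun h => absurd h hf) hk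

end

end Crest.Agent.R136.Pin851
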