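import Crest.Agent.R136.Pin2_851

/-!
# R136, thin pins (helper851): full height links, row `pin2` without condition

* `PWin.htF` : the velocity `f` is FULL given `V` ⊢ the target `k` is full given `V` (Kaufman at all
  scales; nothing is asked given `k` narrow, so `f` may be parallel to `k`)
* `HTf`, `htF_of`, `htFstep`
* `pin2` : row `pin2` (every `θ 0`)
-/

set_option autoImplicit false
set_option linter.unusedSectionVars false
set_option linter.unusedVariables false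

open Filter Topology

namespace Crest.Agent.R136.Pin851

open Finset Crest.Agent.R138.Ex926 Crest.Agent.R136.Net191 Crest.Agent.R136.Gf356
open Crest.Agent.R136.Qg926 Crest.Agent.R136.Dg219 Crest.Agent.R136.Aw413
open Crest.Agent.R136.NetW191 Crest.Agent.R136.EvW938 Crest.Agent.R136.PrW464
open Crest.Agent.R136.LadW697 Crest.Agent.R136.AwJ774 Crest.Agent.R136.Bas938
open Crest.Agent.R136.LfW619 Crest.Agent.R136.BaseW619 Crest.Agent.R136.Lf400
open Crest.Agent.R136.Ht887 Crest.Agent.R136.ThB830 Crest.Agent.R136.LadT830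
open Crest.Agent.R136.NatW697
open Crest.Agent.R136.Rc146 (OutA)
open Crest.Agent.R136.K2S774 (cn ind1)

section win

variable {ι : ℕ → Type*} [∀ n, DecidableEq (ι n)] {W : Wnd 18 ι} {E : ∀ n, Finset (ι n)}
  {kp : ℕ → ℝ} {un : ℕ → Fin 18 → ℝ} {F : ∀ n, ι n → FW} {Dr V : Finset (Fin 18)}
  {lam : (Fin 18 → ℝ) → ℝ} {x j : ℝ}

/-- **full height link** -/
theorem PWin.htF (h : PWin W E kp un F Dr lam x) (hi : Ind Dr lam)
    (ha : ∀ c ∈ CL Dr, ∀ c' ∈ CL Dr, c ≤ c' → lam c' ≤ lam c) (hx : 0 < x) (hD0 : 0 ∉ Dr)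
    {Ff q : Fin 14} {n : ℤ} {e : ℕ} (hn : n ≠ 0) (hF : Fin.natAdd 4 Ff ∉ Dr)
    (hq : Fin.natAdd 4 q ∉ Dr) (hd : HtDat (V ∪ Dr) O0 ((V ∪ Dr) \ {0, 1, 2, 3}) Ff q n e)
    (u1 : UpW Dr V) (u2 : UpW Dr (insert (Fin.natAdd 4 q) V))
    (u3 : UpW Dr (insert (Fin.natAdd 4 Ff) (insert (Fin.natAdd 4 q) V)))
    (u4 : UpW Dr (insert (Fin.natAdd 4 Ff) V))
    (hv : ∀ t, 0 ≤ t → t ≤ x →
      t - j ≤ lam (ind V x) - lam (Function.update (ind V x) (Fin.natAdd 4 Ff) t)) :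
    x - j ≤ lam (ind V x) - lam (ind (insert (Fin.natAdd 4 q) V) x) := by
  have h0 : 0 ∈ V := (mem_union.1 hd.A0).resolve_right hD0
  have nF := hd.AF
  have nN := hd.Aq
  have hNF := hd.ne
  have hx0 := hx.le
  have hFV : Fin.natAdd 4 Ff ∉ V := fun h => nF (mem_union_left _ h)
  have hqV : Fin.natAdd 4 q ∉ V := fun h => nN (mem_union_left _ h)
  have hwall := hd.wall
  set sF : Fin 18 := Fin.natAdd 4 Ff with hsF
  set sN : Fin 18 := Fin.natAdd 4 q with hsN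
  have hFq : sF ∉ insert sN V := by simp [hNF.symm, hFV]
  have m1 : ∀ {cF cN y : ℝ} {V1 V2 : Finset (Fin 18)}, 0 ≤ y → y ≤ x → UpW Dr V1 → UpW Dr V2 →
      Val V1 V2 x y sF cF → Val V1 V2 x y sN cN →
      (∀ i, i ≠ sF → i ≠ sN → (i ∈ V1 ↔ i ∈ V) ∧ (i ∈ V2 ↔ i ∈ V)) →
      b2 (ind (V ∪ Dr) x) sF sN cF cN ∈ CL Dr ∧
      b2 (ind (V ∪ Dr) x) sF sN cF cN ∈ W.legW := by
    intro cF cN y V1 V2 hy hyx hV1 hV2 vF vN hVV
    have m := mem_b2 nF nN hNF hx0 hy hyx hV1 hV2 vF vN hVV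
    exact ⟨m, h.leg' m (b2_nonneg (vF.nonneg hx0 hy) (vN.nonneg hx0 hy) hx0)
      (b2_le_x (vF.le hx0 hyx) (vN.le hx0 hyx) hx0) (b2_V nF nN h0)⟩
  have oq : ∀ i, i ≠ sF → i ≠ sN → (i ∈ insert sN V ↔ i ∈ V) := fun i _ h3 => by simp [h3]
  have oA : ∀ i, i ≠ sF → i ≠ sN → (i ∈ insert sF (insert sN V) ↔ i ∈ V) :=
    fun i h2 h3 => by simp [h2, h3]
  have adx : ∀ t, 0 ≤ t → t ≤ x → b2 (ind (V ∪ Dr) x) sF sN t x ∈ CL Dr ∧
      b2 (ind (V ∪ Dr) x) sF sN t x ∈ W.legW := fun t ht htx =>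
    m1 ht htx u2 u3 (Or.inr (Or.inl ⟨hFq, by simp, rfl⟩)) (Or.inl ⟨by simp, rfl⟩)
      (fun i h2 h3 => ⟨oq i h2 h3, oA i h2 h3⟩)
  have adg : ∀ t, 0 ≤ t → t ≤ x → b2 (ind (V ∪ Dr) x) sF sN t t ∈ CL Dr ∧
      b2 (ind (V ∪ Dr) x) sF sN t t ∈ W.legW := fun t ht htx =>
    m1 ht htx u1 u3 (Or.inr (Or.inl ⟨hFV, by simp, rfl⟩)) (Or.inr (Or.inl ⟨hqV, by simp, rfl⟩))
      (fun i h2 h3 => ⟨Iff.rfl, oA i h2 h3⟩)
  have e0x : lam (b2 (ind (V ∪ Dr) x) sF sN 0 x) = lam (ind (insert sN V) x) := by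
    refine hi _ (adx 0 le_rfl hx0).1 _ (mem_ind u2 hx0) fun i hi => ?_
    by_cases h2 : i = sF
    · subst h2; rw [b2_F, ind_notMem hFq]
    by_cases h3 : i = sN
    · subst h3; rw [b2_N hNF, ind_mem (by simp)]
    by_cases hV : i ∈ V
    · rw [b2_V nF nN hV, ind_mem (by simp [hV])]
    · rw [b2_out h2 h3 hV hi, ind_notMem (by simp [h3, hV])]
  have hz : ∀ cF cN : ℝ, b2 (ind (V ∪ Dr) x) sF sN cF cN 0 = x := fun _ _ => b2_V nF nN h0
  have hbox : HtBox W (V ∪ Dr) O0 ((V ∪ Dr) \ {0, 1, 2, 3}) Ff q (ind (V ∪ Dr) x)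
      (fun _ => 0) x :=
    HtBox.of_zero h.S hx0 (ind_nonneg hx0) (fun s => (h.top s).ge)
      (fun s hs _ => ind_mem hs) (fun s hs _ _ _ => ind_notMem hs) (fun q' hq' => by
        have h1 : ∀ q' : Fin 14, Fin.natAdd 4 q' ∉ ({0, 1, 2, 3} : Finset (Fin 18)) := by decide
        exact Finset.mem_sdiff.2 ⟨hq', h1 q'⟩)
  have hlink := hd.link h.ww h.ev h.mod.toRUnif hbox hx0 le_rfl (adg 0 le_rfl hx0).2
    (OwnV.zero W E fun _ _ => le_rfl)
    (cHt_ok h.ww hwall hn (fun _ => h.kap) (Eventually.of_forall fun m => by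
      have := h.tight sN hq [0, sF] hwall (fun s hs => by
        rcases List.mem_cons.1 hs with h1 | h1
        · rw [h1]; exact hD0
        · rw [List.mem_singleton.1 h1]; exact hF) m
      rw [this, List.map_cons, List.map_cons, List.map_nil, List.sum_cons, List.sum_cons,
        List.sum_nil, add_zero]))
  have key := height_R h.mod (ind (V ∪ Dr) x) hNF hx le_rfl (adx 0 le_rfl hx0).2
    (fun t ht htx => (adg t ht htx).2) hlink
  -- the diagonal costs at least `t - j`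
  have hdg : ∀ t, 0 ≤ t → t ≤ x → lam (b2 (ind (V ∪ Dr) x) sF sN t t) ≤ lam (ind V x) - (t - j) := by
    intro t ht htx
    have h1 := hv t ht htx
    have h2 := ha _ (mem_upd u1 u4 hFV ht htx) _ (adg t ht htx).1 (fun i => by
      by_cases h2 : i = sF
      · subst h2; rw [b2_F, Function.update_self]
      rw [Function.update_of_ne h2]
      by_cases h3 : i = sN
      · subst h3; rw [b2_N hNF, ind_notMem hqV]; exact ht
      by_cases hV : i ∈ V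
      · rw [b2_V nF nN hV, ind_mem hV]
      · rw [ind_notMem hV]
        exact b2_nonneg ht ht hx0 i)
    linarith
  refine le_of_forall_pos_le_add fun ε hε => ?_
  obtain ⟨J, hJ⟩ := exists_nat_gt (x / ε)
  have hJr : (0 : ℝ) < J := (div_pos hx hε).trans hJ
  have hJ0 : 0 < J := by exact_mod_cast hJr
  obtain ⟨i, hiJ, hk⟩ := key J hJ0
  have t0 := sc_nonneg hx0 J i
  have t1 : sc x J i ≤ x := sc_le hx0 hJ0 hiJ
  have hs : sc x J (i + 1) = sc x J i + x / J := by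
    unfold sc
    push_cast
    field_simp
  have h3 := hdg _ t0 t1
  rw [h.nu' (hz _ _), h.nu' (hz _ _), e0x, hs] at hk
  have h4 : x / J ≤ ε := by
    rw [div_le_iff₀ hJr]
    rw [div_lt_iff₀ hε] at hJ
    linarith
  linarith

end win

/-- decidable full height links of the flag slots -/
def HTf (Dr V : Finset (Fin 18)) (f k : Fin 18) : Prop :=
  ∃ Ff q : Fin 14, f = Fin.natAdd 4 Ff ∧ k = Fin.natAdd 4 q ∧
    Fin.natAdd 4 Ff ∉ Dr ∧ Fin.natAdd 4 q ∉ Dr ∧ UpW Dr V ∧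
    UpW Dr (insert (Fin.natAdd 4 q) V) ∧
    UpW Dr (insert (Fin.natAdd 4 Ff) (insert (Fin.natAdd 4 q) V)) ∧
    UpW Dr (insert (Fin.natAdd 4 Ff) V) ∧
    ∃ n ∈ ([1, 2] : List ℤ), ∃ e ∈ ([0, 1] : List ℕ),
      HtDat (V ∪ Dr) O0 ((V ∪ Dr) \ {0, 1, 2, 3}) Ff q n e

instance (Dr V : Finset (Fin 18)) (f k : Fin 18) : Decidable (HTf Dr V f k) := by
  unfold HTf; infer_instance

/-- **full height links of a tangent** -/
def HFull (HF : Finset (Fin 18) → Fin 18 → Fin 18 → Prop) (lam : (Fin 18 → ℝ) → ℝ) : Prop :=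
  ∀ (V : Finset (Fin 18)) (f k : Fin 18), HF V f k → ∀ j x : ℝ, 0 ≤ j → j ≤ x →
    (∀ t, 0 ≤ t → t ≤ x → t - j ≤ lam (ind V x) - lam (Function.update (ind V x) f t)) →
    x - j ≤ lam (ind V x) - lam (ind (insert k V) x)

section pin

variable {B Bo : Base} {I J : ℕ → Finset (ℕ × ℝ)} {co : ∀ n : ℕ, ℕ × ℝ → ℕ × ℝ → Fin 18 → ℝ}
  {C : ℝ} {κ : ℕ → ℝ} {u : ℕ → Fin 18 → ℝ} {f : ℕ → ℕ × ℝ → FW} {K : ℝ}
  {θ : Fin 3 → ℝ} {q : Fin 3 → ℝ} {V T : Set (Fin 18)} {s : ℝ}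
  {lam lo : (Fin 18 → ℝ) → ℝ} {A : ℝ × ℝ} {φ : ℕ → (Fin 18 → ℝ) → ℝ} {r : ℕ → ℝ}
  {Dr : Finset (Fin 18)}

/-- the full height links at a point of a rung -/
theorem hfull_of (h : PtC B Bo I J co C κ u f K θ q V T s lam lo A φ r) (hDr : DrW s = ↑Dr)
    (hV : ∀ k ∈ V, KW θ k < s) : HFull (HTf Dr) lam := by
  have H := pin_of h hDr hV
  have hind := h.ind
  rw [hDr] at hind
  have hi : Ind Dr lam := fun c hc c' hc' hcc => hind c hc c' hc' fun i hi =>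
    hcc i fun h' => hi (Finset.mem_coe.2 h')
  have d0 : (0 : Fin 18) ∉ Dr := frame_notMem hDr (by decide)
  have z0 : ∀ (U : Finset (Fin 18)), ind U (0:ℝ) = 0 := fun U => by funext k; simp [ind]
  intro U i k hH j x hj hjx hv
  rcases (hj.trans hjx).eq_or_lt with h0 | hx
  · have hj0 : j = 0 := le_antisymm (by rw [h0]; exact hjx) hj
    subst h0; subst hj0
    rw [z0, z0, sub_self, sub_self]
  · obtain ⟨W, E, hW⟩ := exists_win h hDr hV hx
    obtain ⟨F, p, rfl, rfl, hF, hp, u1, u2, u3, u4, n, hn, e, he, hd⟩ := hH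
    refine hW.htF hi H.anti hx d0 (n := n) ?_ hF hp hd u1 u2 u3 u4 hv
    simp only [List.mem_cons, List.not_mem_nil, or_false] at hn
    rcases hn with rfl | rfl
    · exact one_ne_zero
    · exact two_ne_zero

end pin

section steps

variable {Dr V W W' P : Finset (Fin 18)} {T : Fin 18 → ℝ} {G : Fin 18 → ℕ} {m : ℝ}
  {HT HF : Finset (Fin 18) → Fin 18 → Fin 18 → Prop} {lam : (Fin 18 → ℝ) → ℝ} {f k : Fin 18}
  {b : ℝ}

/-- **full height step** -/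
theorem Pin.htFstep (H : Pin Dr T G m HT lam) (hF : HFull HF lam) (hd : HF V f k)
    (u : Up2 Dr V f) (hv : Full lam V f) : Full lam V k := by
  obtain ⟨j, hj, h3⟩ := hv
  refine ⟨j, hj, fun x hx => ?_⟩
  refine hF V f k hd j x hj hx fun t ht htx => ?_
  have h4 := h3 x hx
  have h5 := H.one_le u (x := x) (y := t) (y' := x) ht htx le_rfl
  rw [ind_insert u.2.2] at h4
  linarith

/-- **rung `2`, slot `R`** : only `b ≠ 2`, `b ≠ 4` -/
theorem chainR (H : Pin D2 T G m (HTp D2) lam) (hF : HFull (HTf D2) lam) (hG : Grp D2 T G 2 b)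
    (hA : XF lam {0} 2) (hB : XF lam {0, 2} 3) (b2 : b ≠ 2) (b4 : b ≠ 4)
    (hv : Vis lam {0, 7, 9, 10, 11, 12} 13) :
    ∃ C : ℝ, ∀ u : ℝ, 0 ≤ u → lam (u • T) ≤ -((3 + ((2 : ℤ) : ℝ)) * u) + C := by
  have hb : ∀ v ∈ ([(2, 1), (4, 1)] : List (ℤ × ℤ)), b * v.2 ≠ v.1 := by
    simp only [List.forall_mem_cons, List.not_mem_nil, false_implies, implies_true, and_true]
    norm_num
    exact ⟨b2, b4⟩
  have h1 : HtOk (HTp D2) 2 [(2, 1), (4, 1)] D2 {0, 7, 9, 10, 11, 12} 13 16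
      {0, 7, 9, 10, 11, 12, 14, 15} := by decide +kernel
  obtain ⟨f1, u1⟩ := H.hstep hG hA hB hb h1 hv
  have s1 : SameB 2 [(2, 1), (4, 1)] D2 16 {0, 7, 9, 10, 11, 12, 14, 15}
      {0, 1, 7, 9, 10, 11, 12, 13, 14, 15} := by decide +kernel
  have s2 : SameB 2 [(2, 1), (4, 1)] D2 16 {0, 1, 7, 9, 10, 11, 12, 13, 14, 15}
      {0, 7, 9, 10, 11, 12, 14, 15} := by decide +kernel
  have u2 : Up2 D2 {0, 1, 7, 9, 10, 11, 12, 13, 14, 15} 16 := by decide +kernel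
  have f2 : Full lam {0, 1, 7, 9, 10, 11, 12, 13, 14, 15} 16 :=
    H.tr_full f1 u1 u2 (s1.same hG hb s2)
  have hd : HTf D2 {0, 1, 7, 9, 10, 11, 12, 13, 14, 15} 16 17 := by decide +kernel
  have f3 := H.htFstep hF hd u2 f2
  have u3 : Up2 D2 {0, 1, 7, 9, 10, 11, 12, 13, 14, 15} 17 := by decide +kernel
  exact H.chain_aux hG hA hB hb [] _ _ (H.vis_of_full f3 u3) (fun _ => f3)
    ⟨rfl, by decide +kernel⟩

end steps

/-- **row `pin2`** -/
theorem pin2 : PinC 2 fun θ V => (∀ k ∈ V, KW θ k < 2) ∧ ¬ Res2 θ := by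
  refine pinC_of (by norm_num) (fun θ V h k hk => (by
    have := (h.1 k hk).le
    push_cast; exact this)) ?_
  intro P ν own K r0 θ g q V T h hp
  refine ⟨g / 4, by have := h.g0; linarith, fun B Bo I J co C κ u f lam lo A φ r hP hv => ?_⟩
  have e4 : ((2 : ℕ) : ℝ) = ((2 : ℤ) : ℝ) := by norm_num
  have hV : ∀ k ∈ V, KW θ k < ((2 : ℤ) : ℝ) := fun k hk => by
    have := hp.1 k hk
    push_cast; exact this
  rw [e4] at hP ⊢
  have H := pin_of hP DrW2 hV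
  have hF := hfull_of hP DrW2 hV
  have hG := grp_of (j := 2) h.θ1 DrW2
  obtain ⟨hA, hB⟩ := frames_of H hG (by decide) (by decide) (by decide) (by decide) (by decide)
    (by decide) (by decide) (by decide)
  obtain ⟨b2, b3, b4⟩ := bN2 h.θ1 hp.2
  have h1 := row_end hP DrW2 (core2 H hG hA hB b2 b3 b4
    (fun _ hv' _ => chainR H hF hG hA hB b2 b4 hv') hv)
  exact ThB830.CtxW.full h (by norm_num) h1

end Crest.Agent.R136.Pin851
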