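import Crest.Agent.R136.PinA_851

/-!
# R136, thin pins (helper851): resonant rungs `s = 2`, `s = 1`: the slots above the resonance

At `b = 3` (`btW θ 9 = 0`) the slot `BB`, at `b = 2` (`btW θ 10 = 0`) the slots `BB`, `AB`, on the
rung `1` at `b = 1` (`btW θ 15 = 0`) the slot `B` are visible only if the profile is dead:
`drop3`, `drop2`, `drop1` (at a point: `drop3_pt`, `drop2_pt`, `drop1_pt`).
-/

set_option autoImplicit false
set_option linter.unusedSectionVars false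
set_option linter.unusedVariables false

open Filter Topology

namespace Crest.Agent.R136.Pin851

open Finset Crest.Agent.R138.Ex926 Crest.Agent.R136.Net191 Crest.Agent.R136.Gf356
open Crest.Agent.R136.Qg926
open Crest.Agent.R136.NetW191 Crest.Agent.R136.EvW938 Crest.Agent.R136.PrW464
open Crest.Agent.R136.LadW697 Crest.Agent.R136.LfW619 Crest.Agent.R136.RowW619
open Crest.Agent.R136.ThB830 Crest.Agent.R136.LadT830 Crest.Agent.R136.NatW697
open Crest.Agent.R136.Dg219 (gC)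
open Crest.Agent.R136.K2S774 (cn ind1)

variable {Dr : Finset (Fin 18)} {T : Fin 18 → ℝ} {G : Fin 18 → ℕ} {m : ℝ}
  {HT : Finset (Fin 18) → Fin 18 → Fin 18 → Prop} {lam : (Fin 18 → ℝ) → ℝ} {b : ℝ}

theorem free_false' {Fr J : Finset (Fin 18)} (hF : Free lam T Dr Fr) (hJ : Fr = J)
    (hv : lam (ind1 J) < 0) : False := by
  have e : ind Fr 1 = ind1 J := by
    rw [hJ]
    rfl
  have := hF.free 1 zero_le_one
  rw [e] at this
  linarith

/-- `BB` visible -/
theorem coreBB (H : Pin D2 T G m (HTp D2) lam) (hG : Grp D2 T G 2 b) (hA : XF lam {0} 2)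
    (hB : XF lam {0, 2} 3) (b4 : b ≠ 4) (hv : Vis lam {0} 7) :
    ∃ C : ℝ, ∀ u : ℝ, 0 ≤ u → lam (u • T) ≤ -((3 + ((2 : ℤ) : ℝ)) * u) + C := by
  refine H.chain (b := b) (bad := [(4, 1)]) hG hA hB ?_
    [.leaf 3 3 10 2 0 {0, 2}, .leaf 3 10 13 1 0 {0, 2, 7}] hv (by decide) (by decide +kernel)
  simp only [List.forall_mem_cons, List.not_mem_nil, false_implies, implies_true, and_true]
  norm_num
  exact b4

/-- `AB` visible -/
theorem coreAB (H : Pin D2 T G m (HTp D2) lam) (hG : Grp D2 T G 2 b) (hA : XF lam {0} 2)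
    (hB : XF lam {0, 2} 3) (b3 : b ≠ 3) (b4 : b ≠ 4) (hv : Vis lam {0, 7} 9) :
    ∃ C : ℝ, ∀ u : ℝ, 0 ≤ u → lam (u • T) ≤ -((3 + ((2 : ℤ) : ℝ)) * u) + C := by
  refine H.chain (b := b) (bad := [(3, 1), (4, 1)]) hG hA hB ?_
    [.leaf 2 5 10 1 0 {0, 7}, .leaf 3 10 13 1 0 {0, 2, 7}] hv (by decide) (by decide +kernel)
  simp only [List.forall_mem_cons, List.not_mem_nil, false_implies, implies_true, and_true]
  norm_num
  exact ⟨b3, b4⟩

/-- dropped slots of the rung `1` -/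
def D1' : Finset (Fin 18) := {4, 5, 6, 7, 8, 9, 10, 11, 12, 13}

/-- `B` visible on the rung `1` -/
theorem coreB1 (H : Pin D1' T G m (HTp D1') lam) (hG : Grp D1' T G 1 b) (hA : XF lam {0} 2)
    (hB : XF lam {0, 2} 3) (b2 : b ≠ 2) (hv : Vis lam {0} 14) :
    ∃ C : ℝ, ∀ u : ℝ, 0 ≤ u → lam (u • T) ≤ -((3 + ((1 : ℤ) : ℝ)) * u) + C := by
  refine H.chain (b := b) (bad := [(2, 1)]) hG hA hB ?_
    [.leaf 3 10 13 1 0 {0, 2}] hv (by decide) (by decide +kernel)
  simp only [List.forall_mem_cons, List.not_mem_nil, false_implies, implies_true, and_true]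
  norm_num
  exact b2

theorem DrW1 : DrW ((1 : ℤ) : ℝ) = ↑D1' := by
  rw [DrW_int]
  have : DrI 1 = D1' := by decide
  rw [this]

/-- the second slope from a resonance -/
theorem bN_eq {θ : Fin 3 → ℝ} {j : ℤ} (h1 : 0 < θ 1) (i : Fin 18) (v : ℤ) (h0 : sI j i = 0)
    (hv : wc i + v * wn i = 0) (hn : wn i ≠ 0) (hr : btW θ i = 0) : bN θ (j : ℝ) = v := by
  have e : (wz i : ℝ) = -(j * wn i) := by
    have : wz i + j * wn i = 0 := h0
    have h2 : (wz i : ℝ) + j * wn i = 0 := by exact_mod_cast this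
    linarith
  have hb : btW θ i = - θ 1 * (wc i + bN θ (j : ℝ) * wn i) := by
    simp only [btW, grW, bN, e]
    field_simp
    ring
  rw [hr] at hb
  have hv' : (wc i : ℝ) + v * wn i = 0 := by exact_mod_cast hv
  have h3 : (wc i : ℝ) + bN θ (j : ℝ) * wn i = 0 := by
    have := (mul_eq_zero.1 hb.symm).resolve_left (by linarith)
    exact this
  have hn' : (wn i : ℝ) ≠ 0 := by exact_mod_cast hn
  have h4 : (bN θ (j : ℝ) - v) * (wn i : ℝ) = 0 := by linarith
  have := (mul_eq_zero.1 h4).resolve_right hn'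
  linarith

section pt

variable {B Bo : Base} {I J : ℕ → Finset (ℕ × ℝ)} {co : ∀ n : ℕ, ℕ × ℝ → ℕ × ℝ → Fin 18 → ℝ}
  {C : ℝ} {κ : ℕ → ℝ} {u : ℕ → Fin 18 → ℝ} {f : ℕ → ℕ × ℝ → FW} {K : ℝ}
  {θ : Fin 3 → ℝ} {q : Fin 3 → ℝ} {V T' : Set (Fin 18)}
  {lo : (Fin 18 → ℝ) → ℝ} {A : ℝ × ℝ} {φ : ℕ → (Fin 18 → ℝ) → ℝ} {r : ℕ → ℝ}

/-- **`b = 3`: `BB` visible ⊢ dead** -/
theorem drop3_pt (h : PtC B Bo I J co C κ u f K θ q V T' 2 lam lo A φ r)
    (hV : ∀ k ∈ V, KW θ k < 2) (hr : btW θ 9 = 0) (hv : lam (ind1 {7}) < 0) : 3 + 2 ≤ -A.1 := by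
  have e2 : (2 : ℝ) = ((2 : ℤ) : ℝ) := by norm_num
  rw [e2] at h hV ⊢
  have H := pin_of h DrW2 hV
  have hG := grp_of (j := 2) h.th1 DrW2
  have hb : bN θ ((2 : ℤ) : ℝ) = ((3 : ℤ) : ℝ) := bN_eq h.th1 9 3 (by decide) (by decide) (by decide) hr
  obtain ⟨hA, hB⟩ := frames_of H hG (by decide) (by decide) (by decide) (by decide) (by decide)
    (by decide) (by decide) (by decide)
  have t7 : TW ((2 : ℤ) : ℝ) 7 = 0 := by
    rw [hG.hT 7 (by decide)]
    have : sI 2 7 = 0 := by decide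
    rw [this]; norm_num
  rcases H.free_or H.free_empty (j := 7) t7 (by decide) (by decide) (by decide) (by decide)
    with h' | h'
  swap
  · exact (free_false' h' (by decide) hv).elim
  have h7 : Vis lam ({0} : Finset (Fin 18)) 7 := by simpa using h'
  exact row_end h DrW2 (coreBB H hG hA hB (by rw [hb]; norm_num) h7)

/-- **`b = 2`: `BB` or `AB` visible ⊢ dead** -/
theorem drop2_pt (h : PtC B Bo I J co C κ u f K θ q V T' 2 lam lo A φ r)
    (hV : ∀ k ∈ V, KW θ k < 2) (hr : btW θ 10 = 0) (hv : lam (ind1 {7, 9}) < 0) :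
    3 + 2 ≤ -A.1 := by
  have e2 : (2 : ℝ) = ((2 : ℤ) : ℝ) := by norm_num
  rw [e2] at h hV ⊢
  have H := pin_of h DrW2 hV
  have hG := grp_of (j := 2) h.th1 DrW2
  have hb : bN θ ((2 : ℤ) : ℝ) = ((2 : ℤ) : ℝ) :=
    bN_eq h.th1 10 2 (by decide) (by decide) (by decide) hr
  obtain ⟨hA, hB⟩ := frames_of H hG (by decide) (by decide) (by decide) (by decide) (by decide)
    (by decide) (by decide) (by decide)
  have tt : ∀ k : Fin 18, k ∉ D2 → sI 2 k = 0 → TW ((2 : ℤ) : ℝ) k = 0 := fun k hk h0 => by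
    rw [hG.hT k hk, h0]; norm_num
  rcases H.free_or H.free_empty (j := 7) (tt 7 (by decide) (by decide)) (by decide) (by decide)
    (by decide) (by decide) with h' | f1
  · have h7 : Vis lam ({0} : Finset (Fin 18)) 7 := by simpa using h'
    exact row_end h DrW2 (coreBB H hG hA hB (by rw [hb]; norm_num) h7)
  rcases H.free_or f1 (j := 9) (tt 9 (by decide) (by decide)) (by decide) (by decide)
    (by decide) (by decide) with h' | f2
  · have e : (insert 0 (insert 7 ∅) : Finset (Fin 18)) = {0, 7} := by decide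
    rw [e] at h'
    exact row_end h DrW2 (coreAB H hG hA hB (by rw [hb]; norm_num) (by rw [hb]; norm_num) h')
  · exact (free_false' f2 (by decide) hv).elim

/-- **rung `1`, `b = 1`: `B` visible ⊢ dead** -/
theorem drop1_pt (h : PtC B Bo I J co C κ u f K θ q V T' 1 lam lo A φ r)
    (hV : ∀ k ∈ V, KW θ k < 1) (hr : btW θ 15 = 0) (hv : lam (ind1 {14}) < 0) : 3 + 1 ≤ -A.1 := by
  have e2 : (1 : ℝ) = ((1 : ℤ) : ℝ) := by norm_num
  rw [e2] at h hV ⊢
  have H := pin_of h DrW1 hV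
  have hG := grp_of (j := 1) h.th1 DrW1
  have hb : bN θ ((1 : ℤ) : ℝ) = ((1 : ℤ) : ℝ) :=
    bN_eq h.th1 15 1 (by decide) (by decide) (by decide) hr
  obtain ⟨hA, hB⟩ := frames_of H hG (by decide) (by decide) (by decide) (by decide) (by decide)
    (by decide) (by decide) (by decide)
  have t7 : TW ((1 : ℤ) : ℝ) 14 = 0 := by
    rw [hG.hT 14 (by decide)]
    have : sI 1 14 = 0 := by decide
    rw [this]; norm_num
  rcases H.free_or H.free_empty (j := 14) t7 (by decide) (by decide) (by decide) (by decide)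
    with h' | h'
  swap
  · exact (free_false' h' (by decide) hv).elim
  have h7 : Vis lam ({0} : Finset (Fin 18)) 14 := by simpa using h'
  exact row_end h DrW1 (coreB1 H hG hA hB (by rw [hb]; norm_num) h7)

end pt

section ctx

variable {P : Set (Fin 18 → ℝ)} {ν own : (Fin 18 → ℝ) → ℝ} {K : ℝ} {r0 : Fin 18 → ℝ}
  {θ : Fin 3 → ℝ} {g : ℝ} {q : Fin 3 → ℝ} {V T' : Set (Fin 18)}

theorem drop3 (h : CtxW P ν own K r0 θ g q V T') (hV : ∀ k ∈ V, KW θ k < 2)
    (hr : btW θ 9 = 0) : FlW P ν own K r0 θ g q V 2 (fun lam => lam (ind1 {7}) < 0) (g / 4) :=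
  flW_of_ctx h two_pos (fun k hk => (hV k hk).le)
    fun B Bo I J co C κ u f lam lo A φ r hP hv =>
      ThB830.CtxW.full h (by norm_num) (drop3_pt hP hV hr hv)

theorem drop2 (h : CtxW P ν own K r0 θ g q V T') (hV : ∀ k ∈ V, KW θ k < 2)
    (hr : btW θ 10 = 0) :
    FlW P ν own K r0 θ g q V 2 (fun lam => lam (ind1 {7, 9}) < 0) (g / 4) :=
  flW_of_ctx h two_pos (fun k hk => (hV k hk).le)
    fun B Bo I J co C κ u f lam lo A φ r hP hv =>
      ThB830.CtxW.full h (by norm_num) (drop2_pt hP hV hr hv)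

theorem drop1 (h : CtxW P ν own K r0 θ g q V T') (hV : ∀ k ∈ V, KW θ k < 1)
    (hr : btW θ 15 = 0) :
    FlW P ν own K r0 θ g q V 1 (fun lam => lam (ind1 {14}) < 0) (g / 4) :=
  flW_of_ctx h one_pos (fun k hk => (hV k hk).le)
    fun B Bo I J co C κ u f lam lo A φ r hP hv =>
      ThB830.CtxW.full h (by norm_num) (drop1_pt hP hV hr hv)

end ctx

end Crest.Agent.R136.Pin851
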