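import Crest.Agent.R136.Lfz_648

/-!
# R136, thin rows (helper648): the chain engine at EVERY point of a rung

`PinV` = 851's `Pin` without `zf`, `leafB`, `ht`, with `zw` : `z` is full in the tower box
`{0, 2, 3}` (no visible slot resolved); same steps, same decidable chains (`Okc` without height
links).
-/

set_option autoImplicit false
set_option linter.unusedSectionVars false
set_option linter.unusedVariables false
set_option linter.style.longLine false

open Finset Filter Topology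

namespace Crest.Agent.R136.Pinv648

open Crest.Agent.R136.NetW191 Crest.Agent.R136.Net191
open Crest.Agent.R136.LadW697 Crest.Agent.R136.Pin851 Crest.Agent.R136.Lfz648
open Crest.Agent.R136.LfW619 (LeafDat)
open Crest.Agent.R136.K2S774 (cn)
open Crest.Agent.R136.NatW697 Crest.Agent.R136.PrW464

variable {Dr V W W' P : Finset (Fin 18)} {T c c' : Fin 18 → ℝ} {G : Fin 18 → ℕ} {m s : ℝ}
  {lam : (Fin 18 → ℝ) → ℝ} {f k X : Fin 18}

/-- **facts about a tangent at any point of a rung** -/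
structure PinV (Dr : Finset (Fin 18)) (T : Fin 18 → ℝ) (G : Fin 18 → ℕ) (m : ℝ)
    (lam : (Fin 18 → ℝ) → ℝ) : Prop where
  zero : lam 0 = 0
  anti : ∀ c ∈ CL Dr, ∀ c' ∈ CL Dr, c ≤ c' → lam c' ≤ lam c
  sharp : ∀ c ∈ CL Dr, ∀ c' ∈ CL Dr, c ≤ c' → lam c - lam c' ≤ ∑ i, (c' i - c i)
  G0 : ∀ i, G i = 0 ↔ T i = 0
  T0 : ∀ i, 0 ≤ T i
  T1 : T 0 = 1 ∧ T 1 = 0 ∧ T 2 = 1 ∧ T 3 = 1
  nT : T ∈ CL Dr
  /-- the loss of a slot only depends on the slots of its group -/
  dec : ∀ (f : Fin 18) (y : ℝ) (c c' : Fin 18 → ℝ), c ∈ CL Dr → Function.update c f y ∈ CL Dr →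
    c' ∈ CL Dr → Function.update c' f y ∈ CL Dr → (∀ i, G i = G f → c i = c' i) →
    lam c - lam (Function.update c f y) = lam c' - lam (Function.update c' f y)
  /-- `z` is full in the tower box -/
  zw : ∀ x y : ℝ, 0 ≤ x → x ≤ y →
    y - x ≤ lam (ind {0, 2, 3} x) - lam (Function.update (ind {0, 2, 3} x) 0 y)
  m0 : 0 < m
  sweep : ∀ t, 0 ≤ t → lam (Function.update 0 1 t) ≤ -(m * t)
  addT : ∀ u : ℝ, 0 ≤ u → ∀ c ∈ CL Dr, lam (u • T + c) = lam (u • T) + lam c
  leaf : LfZ Dr lam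

section steps

variable (H : PinV Dr T G m lam)
include H

/-- loss of one slot is at most its exponent -/
theorem PinV.one_le (h2 : Up2 Dr W f) {x y y' : ℝ} (hy : 0 ≤ y) (hyy : y ≤ y') (hx : y' ≤ x) :
    lam (Function.update (ind W x) f y) - lam (Function.update (ind W x) f y') ≤ y' - y := by
  have h := H.sharp _ (mem_upd h2.1 h2.2.1 h2.2.2 hy (hyy.trans hx)) _
    (mem_upd h2.1 h2.2.1 h2.2.2 (hy.trans hyy) hx) (fun i => by
      by_cases hi : i = f
      · subst hi; rw [Function.update_self, Function.update_self]; exact hyy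
      · rw [Function.update_of_ne hi, Function.update_of_ne hi])
  refine h.trans (le_of_eq ?_)
  have e : Function.update (ind W x) f y' =
      Function.update (Function.update (ind W x) f y) f y' := by
    rw [Function.update_idem]
  rw [e, sum_upd, Function.update_self]

theorem PinV.ins_le (h2 : Up2 Dr W f) {x : ℝ} (hx : 0 ≤ x) :
    lam (ind W x) - lam (ind (insert f W) x) ≤ x := by
  have h := H.one_le h2 (x := x) le_rfl hx le_rfl
  have e : Function.update (ind W x) f 0 = ind W x := by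
    conv_rhs => rw [← Function.update_eq_self f (ind W x)]
    rw [ind_notMem h2.2.2]
  rw [e, ← ind_insert h2.2.2, sub_zero] at h
  exact h

/-- transfer of the visibility to another box -/
theorem PinV.tr_vis (h : Vis lam W f) (h2 : Up2 Dr W f) (h2' : Up2 Dr W' f)
    (hG : Same G f W W') : Vis lam W' f := by
  obtain ⟨j, e, he, hj, h3⟩ := h
  refine ⟨j, e, he, hj, fun x hx => (h3 x hx).trans (le_of_eq ?_)⟩
  exact H.dec f j _ _ (mem_ind h2.1 (hj.trans hx)) (mem_upd h2.1 h2.2.1 h2.2.2 hj hx)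
    (mem_ind h2'.1 (hj.trans hx)) (mem_upd h2'.1 h2'.2.1 h2'.2.2 hj hx)
    (hG.eq h2.2.2 h2'.2.2 x)

theorem PinV.tr_full (h : Full lam W f) (h2 : Up2 Dr W f) (h2' : Up2 Dr W' f)
    (hG : Same G f W W') : Full lam W' f := by
  obtain ⟨j, hj, h3⟩ := h
  refine ⟨j, hj, fun x hx => (h3 x hx).trans (le_of_eq ?_)⟩
  have hx0 := hj.trans hx
  rw [ind_insert h2.2.2, ind_insert h2'.2.2]
  exact H.dec f x _ _ (mem_ind h2.1 hx0) (mem_upd h2.1 h2.2.1 h2.2.2 hx0 le_rfl)
    (mem_ind h2'.1 hx0) (mem_upd h2'.1 h2'.2.1 h2'.2.2 hx0 le_rfl) (hG.eq h2.2.2 h2'.2.2 x)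

theorem PinV.tr_XF (h : XF lam W f) (h2 : Up2 Dr W f) (h2' : Up2 Dr W' f)
    (hG : Same G f W W') : XF lam W' f := by
  intro x hx
  refine (h x hx).trans (le_of_eq ?_)
  rw [ind_insert h2.2.2, ind_insert h2'.2.2]
  exact H.dec f x _ _ (mem_ind h2.1 hx) (mem_upd h2.1 h2.2.1 h2.2.2 hx le_rfl)
    (mem_ind h2'.1 hx) (mem_upd h2'.1 h2'.2.1 h2'.2.2 hx le_rfl) (hG.eq h2.2.2 h2'.2.2 x)

/-- a full slot is visible -/
theorem PinV.vis_of_full (h : Full lam W f) (h2 : Up2 Dr W f) : Vis lam W f := by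
  obtain ⟨j, hj, h3⟩ := h
  refine ⟨j + 1, 1, one_pos, by linarith, fun x hx => ?_⟩
  have h4 := h3 x (by linarith)
  have h5 := H.one_le h2 (x := x) (y := j + 1) (y' := x) (by linarith) hx le_rfl
  rw [ind_insert h2.2.2] at h4
  linarith

/-- **leaf step** -/
theorem PinV.leafStep {X : Fin 4} {F q : Fin 14} {n : ℤ} {e : ℕ} (hn : n ≠ 0)
    (hD : Disjoint V Dr) (hF : Fin.natAdd 4 F ∉ Dr) (hq : Fin.natAdd 4 q ∉ Dr)
    (hd : LeafDat {0} (V ∪ Dr) X F q n e) (u1 : Up2 Dr V (Fin.castAdd 14 X))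
    (u2 : UpW Dr (insert (Fin.natAdd 4 F) (insert (Fin.natAdd 4 q) V)))
    (u3 : UpW Dr (insert (Fin.castAdd 14 X) (insert (Fin.natAdd 4 q) V)))
    (u4 : UpW Dr (insert (Fin.natAdd 4 F) (insert (Fin.castAdd 14 X) (insert (Fin.natAdd 4 q) V))))
    (hX : XF lam (insert (Fin.natAdd 4 F) (insert (Fin.natAdd 4 q) V)) (Fin.castAdd 14 X))
    (hv : Vis lam (insert (Fin.castAdd 14 X) (insert (Fin.natAdd 4 q) V)) (Fin.natAdd 4 F)) :
    Full lam (insert (Fin.castAdd 14 X) V) (Fin.natAdd 4 q) := by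
  obtain ⟨j, e', he, hj, h3⟩ := hv
  refine ⟨j, hj, fun x hx => ?_⟩
  have h4 := h3 x hx
  have h5 := H.leaf V X F q n e hn hD hF hq hd u1.1 u2 u3 u4 j x hj hx (hX x (hj.trans hx))
    (by linarith)
  have h6 := H.ins_le u1 (hj.trans hx)
  rw [Finset.insert_comm (Fin.natAdd 4 q) (Fin.castAdd 14 X) V]
  linarith

/-- **`c` costs `m y` in every box which has only free slots of group `0`** -/
theorem PinV.closs {Fr : Finset (Fin 18)} (hFr : Free lam T Dr Fr) (hW : UpW Dr W) (h1 : 1 ∉ W)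
    (hG : ∀ i, T i = 0 → i ≠ 1 → (i ∈ W ↔ i ∈ Fr)) {x y : ℝ} (hy : 0 ≤ y) (hyx : y ≤ x) :
    m * y ≤ lam (ind W x) - lam (Function.update (ind W x) 1 y) := by
  have hx := hy.trans hyx
  have e := H.dec 1 y (ind W x) (ind Fr x) (mem_ind hW hx)
    (mem_upd hW (up_insert1 hW) h1 hy hyx) (mem_ind hFr.up hx)
    (mem_upd hFr.up (up_insert1 hFr.up) hFr.n1 hy hyx) (fun i hi => by
      have hT : T i = 0 := by
        have h2 : G 1 = 0 := (H.G0 1).2 H.T1.2.1
        exact (H.G0 i).1 (hi.trans h2)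
      by_cases hi1 : i = 1
      · subst hi1; rw [ind_notMem h1, ind_notMem hFr.n1]
      · have h3 := hG i hT hi1
        by_cases hiW : i ∈ W
        · rw [ind_mem hiW, ind_mem (h3.1 hiW)]
        · rw [ind_notMem hiW, ind_notMem (fun h => hiW (h3.2 h))])
  rw [e, hFr.free x hx]
  have h4 := H.sweep y hy
  have h5 := H.anti (Function.update 0 1 y) (by
      have : (0 : Fin 18 → ℝ) = ind ∅ x := by funext k; simp [ind]
      rw [this]
      exact mem_upd (by intro k hk; simp at hk) (up_insert1 (by intro k hk; simp at hk)) (by simp)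
        hy hyx) _ (mem_upd hFr.up (up_insert1 hFr.up) hFr.n1 hy hyx) (fun i => by
      by_cases hi : i = 1
      · subst hi; rw [Function.update_self, Function.update_self]
      · rw [Function.update_of_ne hi, Function.update_of_ne hi]
        exact ind_nonneg hx i)
  linarith

/-- a slot which is not free is visible -/
theorem PinV.vis_first {Fr : Finset (Fin 18)} (hFr : Free lam T Dr Fr) {j : Fin 18}
    (hj : T j = 0) (hjF : j ∉ Fr) (hj0 : j ≠ 0) (hup : UpW Dr (insert j Fr)) {y : ℝ} (hy : 0 ≤ y)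
    (hl : lam (ind (insert j Fr) y) < 0) : Vis lam (insert 0 Fr) j := by
  have h0F : (0 : Fin 18) ∉ Fr := fun h => by
    have := hFr.T0 0 h
    rw [H.T1.1] at this; norm_num at this
  refine ⟨y, -lam (ind (insert j Fr) y), by linarith, hy, fun x hx => ?_⟩
  have hx0 := hy.trans hx
  have hup0 : UpW Dr (insert j (insert 0 Fr)) := by
    rw [Finset.insert_comm]; exact up_insert0 hup
  have hj0F : j ∉ insert 0 Fr := by simp [hj0, hjF]
  have e := H.dec j y (ind (insert 0 Fr) x) (ind Fr x) (mem_ind (up_insert0 hFr.up) hx0)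
    (mem_upd (up_insert0 hFr.up) hup0 hj0F hy hx) (mem_ind hFr.up hx0)
    (mem_upd hFr.up hup hjF hy hx) (fun i hi => by
      have hT : T i = 0 := (H.G0 i).1 (hi.trans ((H.G0 j).2 hj))
      have hi0 : i ≠ 0 := fun h => by
        rw [h, H.T1.1] at hT; norm_num at hT
      by_cases hiF : i ∈ Fr
      · rw [ind_mem hiF, ind_mem (Finset.mem_insert_of_mem hiF)]
      · rw [ind_notMem hiF, ind_notMem (by simp [hi0, hiF])])
  rw [e, hFr.free x hx0]
  have h5 := H.anti _ (mem_ind hup hy) _ (mem_upd hFr.up hup hjF hy hx) (fun i => by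
    by_cases hi : i = j
    · subst hi; rw [Function.update_self, ind_mem (Finset.mem_insert_self _ _)]
    · rw [Function.update_of_ne hi]
      by_cases hiF : i ∈ Fr
      · rw [ind_mem hiF, ind_mem (Finset.mem_insert_of_mem hiF)]; exact hx
      · rw [ind_notMem hiF, ind_notMem (by simp [hi, hiF])])
  linarith

/-- the empty set of slots is free -/
theorem PinV.free_empty : Free lam T Dr ∅ where
  up := by intro k hk; simp at hk
  T0 := by intro i hi; simp at hi
  n1 := by simp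
  free := fun x _ => by
    have : ind (∅ : Finset (Fin 18)) x = 0 := by funext k; simp [ind]
    rw [this, H.zero]

/-- **dichotomy**: the next slot of group `0` is visible or free -/
theorem PinV.free_or {Fr : Finset (Fin 18)} (hFr : Free lam T Dr Fr) {j : Fin 18}
    (hj : T j = 0) (hjF : j ∉ Fr) (hj0 : j ≠ 0) (hj1 : j ≠ 1) (hup : UpW Dr (insert j Fr)) :
    Vis lam (insert 0 Fr) j ∨ Free lam T Dr (insert j Fr) := by
  by_cases h : ∃ y : ℝ, 0 ≤ y ∧ lam (ind (insert j Fr) y) < 0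
  · obtain ⟨y, hy, hl⟩ := h
    exact Or.inl (H.vis_first hFr hj hjF hj0 hup hy hl)
  · push Not at h
    refine Or.inr ⟨hup, fun i hi => ?_, ?_, fun x hx => le_antisymm ?_ (h x hx)⟩
    · rcases Finset.mem_insert.1 hi with h1 | h1
      · rw [h1]; exact hj
      · exact hFr.T0 i h1
    · simp [hj1.symm, hFr.n1]
    · have h2 := H.anti 0 K2S774.cn_zero _ (mem_ind hup hx) (fun i => ind_nonneg hx i)
      rwa [H.zero] at h2

/-- **the end of a chain** -/
theorem PinV.fin (hs : T 17 = s) (hP : Full lam P 17) (uP : Up2 Dr P 17)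
    (p0 : 0 ∈ P) (p2 : 2 ∈ P) (p3 : 3 ∈ P) (hA : XF lam {0} 2) (hB : XF lam {0, 2} 3)
    (uA : Up2 Dr {0} 2) (uB : Up2 Dr {0, 2} 3)
    (gA : ∀ i ∈ P, i ≠ 2 → G i ≠ G 2) (gB : ∀ i ∈ P, i ≠ 3 → G i ≠ G 3)
    (gN : ∀ i ∈ P, i ≠ 0 → i ≠ 2 → i ≠ 3 → G i ≠ G 17)
    (hz : ∀ x y : ℝ, 0 ≤ x → x ≤ y → y - x ≤ lam (ind P x) - lam (Function.update (ind P x) 0 y)) :
    ∃ C : ℝ, ∀ u : ℝ, 0 ≤ u → lam (u • T) ≤ -((3 + s) * u) + C := by
  obtain ⟨j, hj, hN⟩ := hP
  refine ⟨j, fun u hu => ?_⟩
  have hs0 : 0 ≤ s := by rw [← hs]; exact H.T0 17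
  have hsu : 0 ≤ s * u := mul_nonneg hs0 hu
  obtain ⟨x, hx⟩ : ∃ x, x = s * u + j := ⟨_, rfl⟩
  obtain ⟨X', hX⟩ : ∃ X', X' = x + u := ⟨_, rfl⟩
  have hx0 : 0 ≤ x := by rw [hx]; linarith
  have hxX : x ≤ X' := by rw [hX]; linarith
  have hX0 : 0 ≤ X' := hx0.trans hxX
  have hsx : s * u ≤ x := by rw [hx]; linarith
  have hn : (17 : Fin 18) ∉ P := uP.2.2
  set c0 := ind P x with hc0
  set c1 := Function.update c0 0 X' with hc1
  set c2 := Function.update c1 2 X' with hc2
  set c3 := Function.update c2 3 X' with hc3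
  set c4 := Function.update c3 17 (s * u) with hc4
  have v0 : ∀ i, c0 i = if i ∈ P then x else 0 := fun i => rfl
  have v1 : ∀ i, c1 i = if i = 0 then X' else c0 i := fun i => by
    rw [hc1, Function.update_apply]
  have v2 : ∀ i, c2 i = if i = 2 then X' else c1 i := fun i => by
    rw [hc2, Function.update_apply]
  have v3 : ∀ i, c3 i = if i = 3 then X' else c2 i := fun i => by
    rw [hc3, Function.update_apply]
  have v4 : ∀ i, c4 i = if i = 17 then s * u else c3 i := fun i => by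
    rw [hc4, Function.update_apply]
  have m0 : c0 ∈ CL Dr := mem_ind uP.1 hx0
  have m1 : c1 ∈ CL Dr := by
    refine mem_tower uP.2.1 uP.1 hx0 hxX (fun k => ?_) (fun k hk => ?_) (fun k => ?_)
    · rw [v1, v0]; split_ifs <;> first | assumption | exact le_rfl
    · rw [v1, v0, if_pos hk]; split_ifs <;> first | assumption | exact le_rfl
    · by_cases h0 : k = 0
      · exact Or.inr (Or.inr (Or.inl h0))
      · rw [v1, if_neg h0, v0]
        by_cases hk : k ∈ P
        · rw [if_pos hk]; exact Or.inr (Or.inl ⟨le_rfl, Finset.mem_insert_of_mem hk⟩)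
        · rw [if_neg hk]; exact Or.inl le_rfl
  have m2 : c2 ∈ CL Dr := by
    refine mem_tower uP.2.1 uP.1 hx0 hxX (fun k => ?_) (fun k hk => ?_) (fun k => ?_)
    · rw [v2, v1, v0]; split_ifs <;> first | assumption | exact le_rfl
    · rw [v2, v1, v0, if_pos hk]; split_ifs <;> first | assumption | exact le_rfl
    · by_cases h0 : k = 0
      · exact Or.inr (Or.inr (Or.inl h0))
      by_cases h2 : k = 2
      · refine Or.inr (Or.inr (Or.inr (Or.inl ⟨h2, ?_⟩)))
        rw [v2, if_pos rfl, v2, if_neg (by decide), v1, if_pos rfl]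
      · rw [v2, if_neg h2, v1, if_neg h0, v0]
        by_cases hk : k ∈ P
        · rw [if_pos hk]; exact Or.inr (Or.inl ⟨le_rfl, Finset.mem_insert_of_mem hk⟩)
        · rw [if_neg hk]; exact Or.inl le_rfl
  have w30 : c3 0 = X' := by
    rw [v3, if_neg (by decide), v2, if_neg (by decide), v1, if_pos rfl]
  have w32 : c3 2 = X' := by
    rw [v3, if_neg (by decide), v2, if_pos rfl]
  have w33 : c3 3 = X' := by rw [v3, if_pos rfl]
  have m3 : c3 ∈ CL Dr := by
    refine mem_tower uP.2.1 uP.1 hx0 hxX (fun k => ?_) (fun k hk => ?_) (fun k => ?_)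
    · rw [v3, v2, v1, v0]; split_ifs <;> first | assumption | exact le_rfl
    · rw [v3, v2, v1, v0, if_pos hk]; split_ifs <;> first | assumption | exact le_rfl
    · by_cases h0 : k = 0
      · exact Or.inr (Or.inr (Or.inl h0))
      by_cases h2 : k = 2
      · exact Or.inr (Or.inr (Or.inr (Or.inl ⟨h2, by rw [w32, w30]⟩)))
      by_cases h3 : k = 3
      · exact Or.inr (Or.inr (Or.inr (Or.inr ⟨h3, by rw [w33, w30], by rw [w33, w32]⟩)))
      · rw [v3, if_neg h3, v2, if_neg h2, v1, if_neg h0, v0]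
        by_cases hk : k ∈ P
        · rw [if_pos hk]; exact Or.inr (Or.inl ⟨le_rfl, Finset.mem_insert_of_mem hk⟩)
        · rw [if_neg hk]; exact Or.inl le_rfl
  have w40 : c4 0 = X' := by rw [v4, if_neg (by decide), w30]
  have w42 : c4 2 = X' := by rw [v4, if_neg (by decide), w32]
  have w43 : c4 3 = X' := by rw [v4, if_neg (by decide), w33]
  have m4 : c4 ∈ CL Dr := by
    refine mem_tower uP.2.1 uP.1 hx0 hxX (fun k => ?_) (fun k hk => ?_) (fun k => ?_)
    · rw [v4, v3, v2, v1, v0]; split_ifs <;> first | assumption | exact le_rfl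
    · have : k ≠ 17 := fun h => hn (h ▸ hk)
      rw [v4, if_neg this, v3, v2, v1, v0, if_pos hk]
      split_ifs <;> first | assumption | exact le_rfl
    · by_cases h0 : k = 0
      · exact Or.inr (Or.inr (Or.inl h0))
      by_cases h2 : k = 2
      · exact Or.inr (Or.inr (Or.inr (Or.inl ⟨h2, by rw [w42, w40]⟩)))
      by_cases h3 : k = 3
      · exact Or.inr (Or.inr (Or.inr (Or.inr ⟨h3, by rw [w43, w40], by rw [w43, w42]⟩)))
      by_cases h17 : k = 17
      · rw [v4, if_pos h17]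
        exact Or.inr (Or.inl ⟨hsx, by rw [h17]; exact Finset.mem_insert_self _ _⟩)
      · rw [v4, if_neg h17, v3, if_neg h3, v2, if_neg h2, v1, if_neg h0, v0]
        by_cases hk : k ∈ P
        · rw [if_pos hk]; exact Or.inr (Or.inl ⟨le_rfl, Finset.mem_insert_of_mem hk⟩)
        · rw [if_neg hk]; exact Or.inl le_rfl
  -- the height
  have L0 : u ≤ lam c0 - lam c1 := by
    have := hz x X' hx0 hxX
    rw [hc1, hc0]
    linarith
  -- the slot A
  have LA : u ≤ lam c1 - lam c2 := by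
    set a := Function.update (ind ({0} : Finset (Fin 18)) X') 2 x with ha
    have ea : Function.update a 2 X' = Function.update (ind ({0} : Finset (Fin 18)) X') 2 X' := by
      rw [ha, Function.update_idem]
    have ma : a ∈ CL Dr := mem_upd uA.1 uA.2.1 uA.2.2 hx0 hxX
    have ma' : Function.update a 2 X' ∈ CL Dr := by
      rw [ea]; exact mem_upd uA.1 uA.2.1 uA.2.2 hX0 le_rfl
    have e := H.dec 2 X' c1 a m1 m2 ma ma' (fun i hi => by
      by_cases h2 : i = 2
      · subst h2
        rw [v1, if_neg (by decide), v0, if_pos p2, ha, Function.update_self]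
      · have hiP : i ∉ P := fun h => gA i h h2 hi
        have hi0 : i ≠ 0 := fun h => hiP (h ▸ p0)
        rw [v1, if_neg hi0, v0, if_neg hiP, ha, Function.update_of_ne h2, ind_notMem (by simpa using hi0)])
    rw [e, ea]
    have h1 := hA X' hX0
    rw [ind_insert uA.2.2] at h1
    have h2 := H.one_le uA (x := X') (y := 0) (y' := x) le_rfl hx0 hxX
    have e0 : Function.update (ind ({0} : Finset (Fin 18)) X') 2 0 = ind ({0} : Finset (Fin 18)) X' := by
      conv_rhs => rw [← Function.update_eq_self 2 (ind ({0} : Finset (Fin 18)) X')]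
      rw [ind_notMem uA.2.2]
    rw [e0] at h2
    rw [ha]; linarith
  have LB : u ≤ lam c2 - lam c3 := by
    set a := Function.update (ind ({0, 2} : Finset (Fin 18)) X') 3 x with ha
    have ea : Function.update a 3 X' = Function.update (ind ({0, 2} : Finset (Fin 18)) X') 3 X' := by
      rw [ha, Function.update_idem]
    have ma : a ∈ CL Dr := mem_upd uB.1 uB.2.1 uB.2.2 hx0 hxX
    have ma' : Function.update a 3 X' ∈ CL Dr := by
      rw [ea]; exact mem_upd uB.1 uB.2.1 uB.2.2 hX0 le_rfl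
    have e := H.dec 3 X' c2 a m2 m3 ma ma' (fun i hi => by
      by_cases h3 : i = 3
      · subst h3
        rw [v2, if_neg (by decide), v1, if_neg (by decide), v0, if_pos p3, ha,
          Function.update_self]
      · have hiP : i ∉ P := fun h => gB i h h3 hi
        have hi0 : i ≠ 0 := fun h => hiP (h ▸ p0)
        have hi2 : i ≠ 2 := fun h => hiP (h ▸ p2)
        rw [v2, if_neg hi2, v1, if_neg hi0, v0, if_neg hiP, ha, Function.update_of_ne h3,
          ind_notMem (by simp [hi0, hi2])])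
    rw [e, ea]
    have h1 := hB X' hX0
    rw [ind_insert uB.2.2] at h1
    have h2 := H.one_le uB (x := X') (y := 0) (y' := x) le_rfl hx0 hxX
    have e0 : Function.update (ind ({0, 2} : Finset (Fin 18)) X') 3 0 = ind ({0, 2} : Finset (Fin 18)) X' := by
      conv_rhs => rw [← Function.update_eq_self 3 (ind ({0, 2} : Finset (Fin 18)) X')]
      rw [ind_notMem uB.2.2]
    rw [e0] at h2
    rw [ha]; linarith
  have LN : s * u - j ≤ lam c3 - lam c4 := by
    have e := H.dec 17 (s * u) c3 (ind P X') m3 m4 (mem_ind uP.1 hX0)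
      (mem_upd uP.1 uP.2.1 hn hsu (hsx.trans hxX)) (fun i hi => by
        by_cases h17 : i = 17
        · subst h17
          rw [v3, if_neg (by decide), v2, if_neg (by decide), v1, if_neg (by decide), v0,
            if_neg hn, ind_notMem hn]
        · by_cases hiP : i ∈ P
          · have h3 : i = 0 ∨ i = 2 ∨ i = 3 := by
              by_contra hcon
              push Not at hcon
              exact gN i hiP hcon.1 hcon.2.1 hcon.2.2 hi
            rw [ind_mem hiP]
            rcases h3 with h | h | h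
            · rw [h, w30]
            · rw [h, w32]
            · rw [h, w33]
          · have hi0 : i ≠ 0 := fun h => hiP (h ▸ p0)
            have hi2 : i ≠ 2 := fun h => hiP (h ▸ p2)
            have hi3 : i ≠ 3 := fun h => hiP (h ▸ p3)
            rw [v3, if_neg hi3, v2, if_neg hi2, v1, if_neg hi0, v0, if_neg hiP,
              ind_notMem hiP])
    rw [e]
    have h1 := hN X' (by rw [hX, hx]; linarith)
    rw [ind_insert hn] at h1
    have h2 := H.one_le uP (x := X') (y := s * u) (y' := X') hsu (hsx.trans hxX) le_rfl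
    linarith
  have mT : u • T + c0 ∈ CL Dr := K2S774.cn_add (K2S774.cn_smul H.nT hu) m0
  have h5 := H.anti c4 m4 _ mT (fun i => by
    simp only [Pi.add_apply, Pi.smul_apply, smul_eq_mul]
    by_cases h17 : i = 17
    · subst h17
      rw [v4, if_pos rfl, hs, v0, if_neg hn]; linarith
    by_cases h3 : i = 3
    · subst h3; rw [w43, H.T1.2.2.2, v0, if_pos p3, hX]; linarith
    by_cases h2 : i = 2
    · subst h2; rw [w42, H.T1.2.2.1, v0, if_pos p2, hX]; linarith
    by_cases h0 : i = 0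
    · subst h0; rw [w40, H.T1.1, v0, if_pos p0, hX]; linarith
    · rw [v4, if_neg h17, v3, if_neg h3, v2, if_neg h2, v1, if_neg h0]
      have := mul_nonneg hu (H.T0 i)
      linarith)
  rw [H.addT u hu c0 m0] at h5
  linarith

end steps

/-- no height links -/
def noHT (_ : Finset (Fin 18)) (_ _ : Fin 18) : Prop := False

instance (V : Finset (Fin 18)) (f k : Fin 18) : Decidable (noHT V f k) := by
  unfold noHT; infer_instance

section

variable (H : PinV Dr T G m lam) {s : ℤ} {b : ℝ} (hG : Grp Dr T G s b)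
  (hA : XF lam {0} 2) (hB : XF lam {0, 2} 3) {bad : List (ℤ × ℤ)} (hb : ∀ v ∈ bad, b * v.2 ≠ v.1)
include H hG hA hB hb

theorem PinV.xok {X : Fin 4} (h : XOk s bad Dr W X) : XF lam W (Fin.castAdd 14 X) := by
  rcases h with ⟨rfl, h1, h2, h3, h4⟩ | ⟨rfl, h1, h2, h3, h4⟩
  · exact H.tr_XF hA h1 h2 (h3.same hG hb h4)
  · exact H.tr_XF hB h1 h2 (h3.same hG hb h4)

theorem PinV.lstep {X : Fin 4} {F q : Fin 14} {n : ℤ} {e : ℕ}
    (h : LeafOk s bad Dr P f X F q n e V) (hv : Vis lam P f) :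
    Full lam (insert (Fin.castAdd 14 X) V) (Fin.natAdd 4 q) ∧
      Up2 Dr (insert (Fin.castAdd 14 X) V) (Fin.natAdd 4 q) := by
  obtain ⟨rfl, hn, h0, hD, hF, hq, hd, u1, u2, u3, u4, hx, v1, v2, s1, s2, u5⟩ := h
  refine ⟨H.leafStep hn hD hF hq hd u1 u2 u3 u4 (H.xok hG hA hB hb hx) ?_, u5⟩
  exact H.tr_vis hv v1 v2 (s1.same hG hb s2)

/-- **soundness of a chain** up to any slot -/
theorem PinV.chain_aux : ∀ (L : List Stp) (P : Finset (Fin 18)) (f : Fin 18), Vis lam P f →
    (f = 17 → Full lam P 17) → Okc noHT s bad Dr P f L →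
    ∃ C : ℝ, ∀ u : ℝ, 0 ≤ u → lam (u • T) ≤ -((3 + s) * u) + C
  | [], P, f, hv, h17, hk => by
    unfold Okc at hk
    obtain ⟨rfl, hk⟩ := hk
    obtain ⟨u1, u2, s1, s2, uA, uB, hp, d2, d3, d17⟩ := hk
    have h1 := H.tr_full (h17 rfl) u1 u2 (s1.same hG hb s2)
    refine H.fin ?_ h1 u2 (by decide) (by decide) (by decide) hA hB uA uB (fun i hi h2 => ?_)
      (fun i hi h3 => ?_) (fun i hi h0 h2 h3 => ?_) H.zw
    · rw [hG.hT 17 d17]
      have e : sI s 17 = s := by simp [sI, wz, wn]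
      rw [e]
    · exact hG.ne hb (hp i hi).1 d2 ((hp i hi).2.1 h2)
    · exact hG.ne hb (hp i hi).1 d3 ((hp i hi).2.2 h3)
    · simp only [mem_insert, mem_singleton] at hi
      rcases hi with h | h | h
      · exact absurd h h0
      · exact absurd h h2
      · exact absurd h h3
  | Stp.leaf X F q n e V :: L, P, f, hv, h17, hk => by
    unfold Okc at hk
    obtain ⟨h1, h2⟩ := H.lstep hG hA hB hb hk.1 hv
    exact PinV.chain_aux L _ _ (H.vis_of_full h1 h2) (fun e => e ▸ h1) hk.2
  | Stp.ht k V :: L, P, f, hv, h17, hk => by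
    unfold Okc at hk
    exact absurd hk.1.1 id

/-- **a chain** -/
theorem PinV.chain (L : List Stp) (hv : Vis lam P f) (hf : f ≠ 17) (hk : Okc noHT s bad Dr P f L) :
    ∃ C : ℝ, ∀ u : ℝ, 0 ≤ u → lam (u • T) ≤ -((3 + s) * u) + C :=
  PinV.chain_aux H hG hA hB hb L P f hv (fun h => absurd h hf) hk

end

end Crest.Agent.R136.Pinv648
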