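import Crest.Agent.R136.Pl2C_860
import Crest.Agent.R136.HulW_565

/-!
# R136 (S0187), PLAN 2: conversion of 102's `Two7` to the `Two7` of `Pl2C_860` (helper860)
-/

set_option autoImplicit false
set_option linter.unusedVariables false

open Finset

namespace Crest.Agent.R136.Pl2

open Crest.Agent.R136.Sh605 Crest.Agent.R136.Fl808
open Crest.Agent.R136.K4 (Plk4)
open Crest.Agent.R136.Tlt51 (Shp InP)
open Crest.Agent.R136.Pl2W102 (Near Ex2 Two1)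

variable {qm qp : Fin 3 → ℝ} {L : ℕ → Ln4} {P : Finset ℕ} {cu cv : ℕ → ℕ} {Uf Vf : ℕ → Plk4}
  {W M a w1 w2 z0 ρ zL ρL r : ℝ}

theorem two7_of102 (h : Pl2W102.Two7 qm qp L P cu cv Uf Vf W M a w1 w2 z0 ρ zL ρL r)
    (hr : r ≤ ρ) (h128 : ρL ≤ 128 * ρ) :
    Two7 qm qp L P cu cv Uf Vf W M a w1 w2 z0 ρ zL ρL r :=
  ⟨h.to1, hr, h.z1, h.z2, h.l1, h128, h.shU, h.shV, h.inU, h.inV⟩

theorem Two7.to102 (h : Two7 qm qp L P cu cv Uf Vf W M a w1 w2 z0 ρ zL ρL r)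
    (hW : 128 ≤ W) : Pl2W102.Two7 qm qp L P cu cv Uf Vf W M a w1 w2 z0 ρ zL ρL r :=
  ⟨h.to1, h.lo, h.hi, h.long, h.short.trans (mul_le_mul_of_nonneg_right hW h.to1.ρ0.le),
    h.shU, h.shV, h.inU, h.inV⟩

/-- `r ≤ ρ` is free for curved sheets -/
theorem two7_of102' (h : Pl2W102.Two7 qm qp L P cu cv Uf Vf W M a w1 w2 z0 ρ zL ρL r) {t : ℕ}
    (ht : t ∈ P) {K : ℝ} (hK : (2 * W) ^ (8 : ℝ) ≤ K) (hbig : K * a ≤ kp (Uf (cu t)) z0 ρ (L t))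
    (h128 : ρL ≤ 128 * ρ) : Two7 qm qp L P cu cv Uf Vf W M a w1 w2 z0 ρ zL ρL r :=
  two7_of102 h (Hul565.two1_small h.to1 ht (k := 0) le_rfl (by simpa using hK) hbig).2.2.2 h128

end Crest.Agent.R136.Pl2
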