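import Mathlib

/-!
# R136 / U4, PLAN 2 (294, message 21156 (2)): the abstract counting lemmas (helper860)

`two_step`: two labelings `u`, `v` of a finite set of lines, paths `S - v - S''`.
-/

set_option autoImplicit false

open Finset

namespace Crest.Agent.R136.Pl860

open Classical in
/-- **two-step count.** `L` finite set of lines, `u`, `v` two labelings, all classes have at least
`M / W` members, `u`-class ∩ `v`-class has at most `σ M` members; in every `v`-class at least a
`1 / W` part of the pairs is `Good`; for two `u`-classes `S`, `S''` at most `W r M` lines of `S` take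
part in good pairs with `S''`; every `u`-class reaches at most `N` `u`-classes by good pairs.
Then `1 ≤ W ^ 4 N r σ`. -/
theorem two_step {α ι κ : Type*} (L : Finset α) (u : α → ι) (v : α → κ) (Good : α → α → Prop)
    {M W N r σ : ℝ} (hne : L.Nonempty) (hM : 0 < M) (hW : 1 ≤ W) (hr : 0 ≤ r) (hσ : 0 ≤ σ)
    (hu : ∀ T ∈ L, M ≤ W * ((L.filter fun T' => u T' = u T).card : ℝ))
    (hv : ∀ T ∈ L, M ≤ W * ((L.filter fun T' => v T' = v T).card : ℝ))
    (hs : ∀ T ∈ L, ((L.filter fun T' => u T' = u T ∧ v T' = v T).card : ℝ) ≤ σ * M)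
    (hG : ∀ T ∈ L, ((L.filter fun T' => v T' = v T).card : ℝ) ^ 2 ≤
      W * (((L ×ˢ L).filter fun p => v p.1 = v T ∧ v p.2 = v T ∧ Good p.1 p.2).card : ℝ))
    (hcd : ∀ S ∈ L, ∀ S2 ∈ L, ((L.filter fun T => u T = u S ∧
      ∃ T2 ∈ L, u T2 = u S2 ∧ v T2 = v T ∧ Good T T2).card : ℝ) ≤ W * r * M)
    (hN : ∀ S ∈ L, (((L.filter fun T2 => ∃ T ∈ L, u T = u S ∧ v T2 = v T ∧ Good T T2).image
      u).card : ℝ) ≤ N) :
    1 ≤ W ^ 4 * N * r * σ := by
  have hW0 : 0 < W := lt_of_lt_of_le one_pos hW
  have hLpos : (0:ℝ) < L.card := by exact_mod_cast hne.card_pos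
  have hN0 : 0 ≤ N := by
    obtain ⟨S, hS⟩ := hne
    exact (Nat.cast_nonneg _).trans (hN S hS)
  set P : Finset (α × α) := (L ×ˢ L).filter fun p => v p.1 = v p.2 ∧ Good p.1 p.2 with hP
  -- lower bound
  have hlow : (L.card : ℝ) * M ≤ W ^ 2 * (P.card : ℝ) := by
    have h1 : P.card = ∑ c ∈ L.image v,
        ((L ×ˢ L).filter fun p => v p.1 = c ∧ v p.2 = c ∧ Good p.1 p.2).card := by
      rw [Finset.card_eq_sum_card_fiberwise (f := fun p : α × α => v p.1) (t := L.image v)]
      · refine Finset.sum_congr rfl fun c hc => ?_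
        congr 1
        ext p
        simp only [hP, Finset.mem_filter, Finset.mem_product]
        constructor
        · rintro ⟨⟨h1, h2, h3⟩, h4⟩
          exact ⟨h1, h4, h2 ▸ h4, h3⟩
        · rintro ⟨h1, h2, h3, h4⟩
          exact ⟨⟨h1, by rw [h2, h3], h4⟩, h2⟩
      · intro p hp
        simp only [hP, Finset.coe_filter, Set.mem_setOf_eq, Finset.mem_product] at hp
        exact Finset.mem_coe.2 (Finset.mem_image_of_mem _ hp.1.1)
    have h2 : L.card = ∑ c ∈ L.image v, (L.filter fun T => v T = c).card :=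
      Finset.card_eq_sum_card_fiberwise fun x hx => Finset.mem_coe.2
        (Finset.mem_image_of_mem _ (Finset.mem_coe.1 hx))
    rw [h1, h2]
    push_cast
    rw [Finset.sum_mul, Finset.mul_sum]
    refine Finset.sum_le_sum fun c hc => ?_
    obtain ⟨T, hT, rfl⟩ := Finset.mem_image.1 hc
    have a1 := hv T hT
    have a2 := hG T hT
    have a0 : (0:ℝ) ≤ ((L.filter fun T' => v T' = v T).card : ℝ) := Nat.cast_nonneg _
    calc ((L.filter fun T' => v T' = v T).card : ℝ) * M
        ≤ ((L.filter fun T' => v T' = v T).card : ℝ) *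
          (W * ((L.filter fun T' => v T' = v T).card : ℝ)) :=
          mul_le_mul_of_nonneg_left a1 a0
      _ = W * ((L.filter fun T' => v T' = v T).card : ℝ) ^ 2 := by ring
      _ ≤ W * (W * (((L ×ˢ L).filter fun p => v p.1 = v T ∧ v p.2 = v T ∧
            Good p.1 p.2).card : ℝ)) := mul_le_mul_of_nonneg_left a2 hW0.le
      _ = _ := by ring
  -- the number of `u`-classes
  have hU : ((L.image u).card : ℝ) * M ≤ W * (L.card : ℝ) := by
    have h2 : L.card = ∑ c ∈ L.image u, (L.filter fun T => u T = c).card :=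
      Finset.card_eq_sum_card_fiberwise fun x hx => Finset.mem_coe.2
        (Finset.mem_image_of_mem _ (Finset.mem_coe.1 hx))
    rw [h2]
    push_cast
    rw [Finset.mul_sum, ← nsmul_eq_mul, ← Finset.sum_const]
    refine Finset.sum_le_sum fun c hc => ?_
    obtain ⟨T, hT, rfl⟩ := Finset.mem_image.1 hc
    exact hu T hT
  -- upper bound
  have hup : (P.card : ℝ) ≤ ((L.image u).card : ℝ) * (N * (W * r * M * (σ * M))) := by
    have h1 : P.card = ∑ s ∈ L.image u, (P.filter fun p => u p.1 = s).card :=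
      Finset.card_eq_sum_card_fiberwise fun p hp => by
        have hp' := Finset.mem_coe.1 hp
        rw [hP, Finset.mem_filter, Finset.mem_product] at hp'
        exact Finset.mem_coe.2 (Finset.mem_image_of_mem _ hp'.1.1)
    rw [h1]
    push_cast
    rw [← nsmul_eq_mul, ← Finset.sum_const]
    refine Finset.sum_le_sum fun s hs' => ?_
    obtain ⟨S, hS, rfl⟩ := Finset.mem_image.1 hs'
    set R := (L.filter fun T2 => ∃ T ∈ L, u T = u S ∧ v T2 = v T ∧ Good T T2).image u with hR
    have h2 : (P.filter fun p => u p.1 = u S).card =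
        ∑ c ∈ R, ((P.filter fun p => u p.1 = u S).filter fun p => u p.2 = c).card :=
      Finset.card_eq_sum_card_fiberwise fun p hp => by
        have hp' := Finset.mem_coe.1 hp
        rw [Finset.mem_filter, hP, Finset.mem_filter, Finset.mem_product] at hp'
        obtain ⟨⟨⟨h1, h2⟩, h3, h4⟩, h5⟩ := hp'
        exact Finset.mem_coe.2 (Finset.mem_image_of_mem _ (Finset.mem_filter.2
          ⟨h2, p.1, h1, h5, h3.symm, h4⟩))
    rw [h2]
    push_cast
    have h3 : ∀ c ∈ R, (((P.filter fun p => u p.1 = u S).filter fun p => u p.2 = c).card : ℝ) ≤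
        W * r * M * (σ * M) := by
      intro c hc
      rw [hR, Finset.mem_image] at hc
      obtain ⟨T2, hT2, rfl⟩ := hc
      have hT2L := (Finset.mem_filter.1 hT2).1
      have hb : ((P.filter fun p => u p.1 = u S).filter fun p => u p.2 = u T2).card ≤
          ∑ T ∈ L.filter (fun T => u T = u S ∧ ∃ T3 ∈ L, u T3 = u T2 ∧ v T3 = v T ∧ Good T T3),
            (L.filter fun T3 => u T3 = u T2 ∧ v T3 = v T).card := by
        rw [Finset.card_eq_sum_card_fiberwise (f := fun p : α × α => p.1)
          (t := L.filter (fun T => u T = u S ∧ ∃ T3 ∈ L, u T3 = u T2 ∧ v T3 = v T ∧ Good T T3))]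
        · refine Finset.sum_le_sum fun T hT => ?_
          refine Finset.card_le_card_of_injOn (fun p => p.2) ?_ ?_
          · intro p hp
            have hp' := Finset.mem_coe.1 hp
            simp only [Finset.mem_filter, hP, Finset.mem_product] at hp'
            obtain ⟨⟨⟨⟨⟨h1, h2⟩, h3, h4⟩, h5⟩, h6⟩, h7⟩ := hp'
            refine Finset.mem_coe.2 (Finset.mem_filter.2 ⟨h2, h6, ?_⟩)
            rw [← h3, h7]
          · intro p hp q hq hpq
            have hp' := Finset.mem_coe.1 hp
            have hq' := Finset.mem_coe.1 hq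
            simp only [Finset.mem_filter] at hp' hq'
            exact Prod.ext (hp'.2.trans hq'.2.symm) hpq
        · intro p hp
          have hp' := Finset.mem_coe.1 hp
          simp only [Finset.mem_filter, hP, Finset.mem_product] at hp'
          obtain ⟨⟨⟨⟨h1, h2⟩, h3, h4⟩, h5⟩, h6⟩ := hp'
          exact Finset.mem_coe.2 (Finset.mem_filter.2 ⟨h1, h5, p.2, h2, h6, h3.symm, h4⟩)
      have hb' : (((P.filter fun p => u p.1 = u S).filter fun p => u p.2 = u T2).card : ℝ) ≤
          ∑ T ∈ L.filter (fun T => u T = u S ∧ ∃ T3 ∈ L, u T3 = u T2 ∧ v T3 = v T ∧ Good T T3),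
            ((L.filter fun T3 => u T3 = u T2 ∧ v T3 = v T).card : ℝ) := by exact_mod_cast hb
      refine hb'.trans ((Finset.sum_le_card_nsmul _ _ (σ * M) fun T hT => ?_).trans ?_)
      · rw [Finset.mem_filter] at hT
        obtain ⟨hTL, hTu, T3, hT3, e1, e2, -⟩ := hT
        have := hs T3 hT3
        rw [e1, e2] at this
        exact this
      · rw [nsmul_eq_mul]
        exact mul_le_mul_of_nonneg_right (hcd S hS T2 hT2L) (by positivity)
    refine (Finset.sum_le_card_nsmul _ _ _ h3).trans ?_
    rw [nsmul_eq_mul]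
    refine mul_le_mul_of_nonneg_right (hN S hS) ?_
    have : 0 ≤ W * r * M := by positivity
    positivity
  -- conclusion
  have hfin : (L.card : ℝ) * M * M ≤ W ^ 2 * (W * (L.card : ℝ) * (N * (W * r * M * (σ * M)))) := by
    have e1 : (L.card : ℝ) * M * M ≤ W ^ 2 * (P.card : ℝ) * M :=
      mul_le_mul_of_nonneg_right hlow hM.le
    have e2 : (P.card : ℝ) * M ≤ (W * (L.card : ℝ)) * (N * (W * r * M * (σ * M))) := by
      calc (P.card : ℝ) * M
          ≤ ((L.image u).card : ℝ) * (N * (W * r * M * (σ * M))) * M :=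
            mul_le_mul_of_nonneg_right hup hM.le
        _ = (((L.image u).card : ℝ) * M) * (N * (W * r * M * (σ * M))) := by ring
        _ ≤ _ := mul_le_mul_of_nonneg_right hU (by positivity)
    calc (L.card : ℝ) * M * M ≤ W ^ 2 * (P.card : ℝ) * M := e1
      _ = W ^ 2 * ((P.card : ℝ) * M) := by ring
      _ ≤ W ^ 2 * ((W * (L.card : ℝ)) * (N * (W * r * M * (σ * M)))) :=
          mul_le_mul_of_nonneg_left e2 (by positivity)
  have hpos : 0 < (L.card : ℝ) * M * M := by positivity
  have e3 : (L.card : ℝ) * M * M * 1 ≤ (L.card : ℝ) * M * M * (W ^ 4 * N * r * σ) := by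
    refine le_trans (by linarith) (hfin.trans (le_of_eq ?_))
    ring
  exact le_of_mul_le_mul_left e3 hpos

end Crest.Agent.R136.Pl860
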