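import Mathlib

/-!
# R136 / U4, PLAN 2 (294, message 21156 (2)): planar multiplicity (helper860)

Lines in the `(z, A)`-plane: `z ↦ p T + v T z` on `[0, 1]`, cells of length `r = 2^-k`.
* `cells_le` : two lines with `|Δv| > 2^-(i+1)` are `K r`-close in at most `(4 K + 2) 2^i` cells.
* `planar_tail`, `planar_pt` : tube condition with exponent `1 + q`, `q > 0`, gives multiplicity
  `≤ C_q W r M` on average over the cells of EVERY line.
* `good_pairs` : inside one class a `1 / W'` part of the pairs crosses transversally at a cell which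
  is good for both lines.
-/

set_option autoImplicit false

open Finset

namespace Crest.Agent.R136.Pl860

/-- the lines `T`, `T'` come `K r`-close in the `j`-th cell of length `r` -/
def Meet {α : Type*} (p v : α → ℝ) (K r : ℝ) (j : ℕ) (T T' : α) : Prop :=
  ∃ z, (j:ℝ) * r ≤ z ∧ z ≤ ((j:ℝ) + 1) * r ∧ |(p T' + v T' * z) - (p T + v T * z)| ≤ K * r

open Classical in
theorem cells_le {α : Type*} {p v : α → ℝ} {K r : ℝ} {T T' : α} (i : ℕ) (s : Finset ℕ)
    (hr : 0 < r) (hK : 1 ≤ K) (hd : (1/2 : ℝ) ^ (i + 1) < |v T' - v T|) :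
    (((s.filter fun j => Meet p v K r j T T').card : ℕ) : ℝ) ≤ (4 * K + 2) * 2 ^ i := by
  set S := s.filter fun j => Meet p v K r j T T' with hS
  have h2i : (1:ℝ) ≤ 2 ^ i := one_le_pow₀ (by norm_num)
  rcases S.eq_empty_or_nonempty with h0 | hne
  · rw [h0, Finset.card_empty]; push_cast; positivity
  have hsub : S ⊆ Finset.Icc (S.min' hne) (S.max' hne) := fun j hj =>
    Finset.mem_Icc.2 ⟨Finset.min'_le _ _ hj, Finset.le_max' _ _ hj⟩
  have hcard := Finset.card_le_card hsub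
  rw [Nat.card_Icc] at hcard
  obtain ⟨-, z1, a1, a2, a3⟩ := Finset.mem_filter.1 (S.min'_mem hne)
  obtain ⟨-, z2, b1, b2, b3⟩ := Finset.mem_filter.1 (S.max'_mem hne)
  have hle : S.min' hne ≤ S.max' hne := Finset.min'_le_max' _ _
  set m := S.min' hne
  set M := S.max' hne
  have hd0 : 0 < |v T' - v T| := lt_trans (by positivity) hd
  have h1 : |v T' - v T| * |z2 - z1| ≤ 2 * (K * r) := by
    rw [← abs_mul]
    have e : (v T' - v T) * (z2 - z1) = ((p T' + v T' * z2) - (p T + v T * z2)) -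
        ((p T' + v T' * z1) - (p T + v T * z1)) := by ring
    rw [e]
    refine (abs_sub _ _).trans ?_
    linarith
  have h2 : ((M:ℝ) - m - 1) * r ≤ |z2 - z1| := by
    refine le_trans ?_ (le_abs_self _)
    nlinarith
  have h3 : ((M:ℝ) - m - 1) ≤ 4 * K * 2 ^ i := by
    by_contra hcon
    push Not at hcon
    have h4 : 4 * K * 2 ^ i * r < |z2 - z1| := lt_of_lt_of_le (mul_lt_mul_of_pos_right hcon hr) h2
    have h5 : (1/2 : ℝ) ^ (i + 1) * (4 * K * 2 ^ i * r) < |v T' - v T| * |z2 - z1| := by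
      have h6 : 0 < 4 * K * 2 ^ i * r := by positivity
      calc (1/2 : ℝ) ^ (i + 1) * (4 * K * 2 ^ i * r) < |v T' - v T| * (4 * K * 2 ^ i * r) :=
            mul_lt_mul_of_pos_right hd h6
        _ ≤ _ := mul_le_mul_of_nonneg_left h4.le hd0.le
    have h7 : (1/2 : ℝ) ^ (i + 1) * (4 * K * 2 ^ i * r) = 2 * (K * r) := by
      have : (1/2 : ℝ) ^ (i + 1) * 2 ^ i = 1 / 2 := by
        rw [pow_succ, mul_right_comm, ← mul_pow]; norm_num
      calc (1/2 : ℝ) ^ (i + 1) * (4 * K * 2 ^ i * r) = ((1/2 : ℝ) ^ (i + 1) * 2 ^ i) * (4 * (K * r)) := by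
            ring
        _ = _ := by rw [this]; ring
    linarith
  have h8 : ((S.card : ℕ) : ℝ) ≤ (M:ℝ) - m + 1 := by
    have : ((S.card : ℕ) : ℝ) ≤ ((M + 1 - m : ℕ) : ℝ) := by exact_mod_cast hcard
    refine this.trans (le_of_eq ?_)
    rw [Nat.cast_sub (by omega)]
    push_cast; ring
  nlinarith

open Classical in
/-- **planar multiplicity, tail form.** -/
theorem planar_tail {α : Type*} (L : Finset α) {p v : α → ℝ} {K W M q : ℝ} {k i1 : ℕ} {T : α}
    (hq : 0 < q) (hK : 1 ≤ K) (hW : 0 ≤ W) (hM : 0 ≤ M)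
    (hD : ∀ i, i1 ≤ i → i ≤ k → ((L.filter fun T' => |p T' - p T| ≤ (K + 1) * (1/2) ^ i ∧
      |v T' - v T| ≤ (1/2) ^ i).card : ℝ) ≤ W * ((1/2 : ℝ) ^ i) ^ (1 + q) * M) (hik : i1 ≤ k) :
    ∑ j ∈ range (2 ^ k), ((L.filter fun T' => Meet p v K ((1/2) ^ k) j T T' ∧
      |v T' - v T| ≤ (1/2) ^ i1).card : ℝ) ≤
      (4 * K + 2) * (W * M * (((1/2 : ℝ) ^ q) ^ i1 / (1 - (1/2 : ℝ) ^ q))) := by
  set r : ℝ := (1/2) ^ k with hr
  have hr0 : 0 < r := by positivity
  have hK0 : 0 < 4 * K + 2 := by linarith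
  set Cl : ℕ → Finset α := fun i => L.filter fun T' => |p T' - p T| ≤ (K + 1) * (1/2) ^ i ∧
      |v T' - v T| ≤ (1/2) ^ i with hCl
  -- exchange
  have hex : ∑ j ∈ range (2 ^ k), ((L.filter fun T' => Meet p v K r j T T' ∧
      |v T' - v T| ≤ (1/2) ^ i1).card : ℝ) =
      ∑ T' ∈ L.filter (fun T' => |v T' - v T| ≤ (1/2) ^ i1),
        (((range (2 ^ k)).filter fun j => Meet p v K r j T T').card : ℝ) := by
    generalize (1/2 : ℝ) ^ i1 = c
    simp only [Finset.card_filter, Finset.sum_filter]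
    push_cast
    rw [Finset.sum_comm]
    refine Finset.sum_congr rfl fun T' _ => ?_
    by_cases h : |v T' - v T| ≤ c
    · rw [if_pos h]
      refine Finset.sum_congr rfl fun j _ => ?_
      by_cases h2 : Meet p v K r j T T'
      · rw [if_pos ⟨h2, h⟩, if_pos h2]
      · rw [if_neg (fun h3 => h2 h3.1), if_neg h2]
    · rw [if_neg h]
      refine Finset.sum_eq_zero fun j _ => ?_
      rw [if_neg (fun h3 => h h3.2)]
  rw [hex]
  -- one line
  have hone : ∀ T' ∈ L.filter (fun T' => |v T' - v T| ≤ (1/2) ^ i1),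
      (((range (2 ^ k)).filter fun j => Meet p v K r j T T').card : ℝ) ≤
      (4 * K + 2) * ∑ i ∈ Finset.Icc i1 k, (if T' ∈ Cl i then (2:ℝ) ^ i else 0) := by
    intro T' hT'
    obtain ⟨hT'L, hT'v⟩ := Finset.mem_filter.1 hT'
    have hsum0 : ∀ i ∈ Finset.Icc i1 k, (0:ℝ) ≤ (if T' ∈ Cl i then (2:ℝ) ^ i else 0) := by
      intro i _; split_ifs <;> positivity
    rcases ((range (2 ^ k)).filter fun j => Meet p v K r j T T').eq_empty_or_nonempty with h0 | hne
    · rw [h0]; simp only [Finset.card_empty, Nat.cast_zero]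
      exact mul_nonneg hK0.le (Finset.sum_nonneg hsum0)
    obtain ⟨j, hj⟩ := hne
    obtain ⟨hjr, z, z1, z2, z3⟩ := Finset.mem_filter.1 hj
    have hjk : (j:ℝ) + 1 ≤ 2 ^ k := by
      have := Finset.mem_range.1 hjr
      exact_mod_cast this
    have hz0 : 0 ≤ z := le_trans (by positivity) z1
    have hz1 : z ≤ 1 := by
      refine z2.trans ?_
      calc ((j:ℝ) + 1) * r ≤ 2 ^ k * r := mul_le_mul_of_nonneg_right hjk hr0.le
        _ = 1 := by rw [hr, ← mul_pow]; norm_num
    -- largest i ≤ k with |Δv| ≤ 2^-i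
    have hex' : ∃ i, i1 ≤ i ∧ i ≤ k ∧ |v T' - v T| ≤ (1/2) ^ i ∧
        (i = k ∨ (1/2 : ℝ) ^ (i + 1) < |v T' - v T|) := by
      have hdec : ∀ n, i1 + n ≤ k → |v T' - v T| ≤ (1/2) ^ (i1 + n) ∨
          ∃ i, i1 ≤ i ∧ i ≤ k ∧ |v T' - v T| ≤ (1/2) ^ i ∧
            (i = k ∨ (1/2 : ℝ) ^ (i + 1) < |v T' - v T|) := by
        intro n
        induction n with
        | zero => intro _; left; simpa using hT'v
        | succ n ih =>
          intro hn
          rcases ih (by omega) with h | h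
          · by_cases h2 : |v T' - v T| ≤ (1/2) ^ (i1 + (n + 1))
            · exact Or.inl h2
            · right
              refine ⟨i1 + n, by omega, by omega, h, Or.inr ?_⟩
              push Not at h2
              exact h2
          · exact Or.inr h
      rcases hdec (k - i1) (by omega) with h | h
      · refine ⟨k, hik, le_rfl, ?_, Or.inl rfl⟩
        have e : i1 + (k - i1) = k := by omega
        rwa [e] at h
      · exact h
    obtain ⟨i, hi1, hik', hvi, hcase⟩ := hex'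
    have hrle : r ≤ (1/2) ^ i := pow_le_pow_of_le_one (by norm_num) (by norm_num) hik'
    have hmem : T' ∈ Cl i := by
      refine Finset.mem_filter.2 ⟨hT'L, ?_, hvi⟩
      have e : p T' - p T = ((p T' + v T' * z) - (p T + v T * z)) - (v T' - v T) * z := by ring
      rw [e]
      refine (abs_sub _ _).trans ?_
      rw [abs_mul, abs_of_nonneg hz0]
      have h5 : |v T' - v T| * z ≤ (1/2) ^ i * 1 :=
        mul_le_mul hvi hz1 hz0 (by positivity)
      have h6 : K * r ≤ K * (1/2) ^ i := mul_le_mul_of_nonneg_left hrle (by linarith)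
      linarith
    have hcnt : (((range (2 ^ k)).filter fun j => Meet p v K r j T T').card : ℝ) ≤
        (4 * K + 2) * 2 ^ i := by
      rcases hcase with h | h
      · have h1 : ((range (2 ^ k)).filter fun j => Meet p v K r j T T').card ≤ 2 ^ k := by
          refine (Finset.card_filter_le _ _).trans ?_
          rw [Finset.card_range]
        have h2 : (((range (2 ^ k)).filter fun j => Meet p v K r j T T').card : ℝ) ≤ 2 ^ k := by
          exact_mod_cast h1
        rw [h]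
        have h3 : (0:ℝ) < 2 ^ k := by positivity
        nlinarith
      · exact cells_le i _ hr0 hK h
    refine hcnt.trans (mul_le_mul_of_nonneg_left ?_ hK0.le)
    have hi : i ∈ Finset.Icc i1 k := Finset.mem_Icc.2 ⟨hi1, hik'⟩
    have := Finset.single_le_sum hsum0 hi
    rw [if_pos hmem] at this
    exact this
  refine (Finset.sum_le_sum hone).trans ?_
  rw [← Finset.mul_sum]
  refine mul_le_mul_of_nonneg_left ?_ hK0.le
  rw [Finset.sum_comm]
  -- sum over i
  have hx0 : (0:ℝ) < (1/2 : ℝ) ^ q := by positivity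
  have hx1 : (1/2 : ℝ) ^ q < 1 := Real.rpow_lt_one (by norm_num) (by norm_num) hq
  have hi : ∀ i ∈ Finset.Icc i1 k,
      ∑ T' ∈ L.filter (fun T' => |v T' - v T| ≤ (1/2) ^ i1),
        (if T' ∈ Cl i then (2:ℝ) ^ i else 0) ≤ W * M * ((1/2 : ℝ) ^ q) ^ i := by
    intro i hi
    obtain ⟨hi1, hik'⟩ := Finset.mem_Icc.1 hi
    rw [← Finset.sum_filter, Finset.sum_const, nsmul_eq_mul]
    have hsub : (L.filter (fun T' => |v T' - v T| ≤ (1/2) ^ i1)).filter (fun T' => T' ∈ Cl i) ⊆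
        Cl i := fun x hx => (Finset.mem_filter.1 hx).2
    have h1 : (((L.filter (fun T' => |v T' - v T| ≤ (1/2) ^ i1)).filter
        (fun T' => T' ∈ Cl i)).card : ℝ) ≤ W * ((1/2 : ℝ) ^ i) ^ (1 + q) * M :=
      le_trans (by exact_mod_cast Finset.card_le_card hsub) (hD i hi1 hik')
    refine (mul_le_mul_of_nonneg_right h1 (by positivity)).trans (le_of_eq ?_)
    have e1 : ((1/2 : ℝ) ^ i) ^ (1 + q) = (1/2 : ℝ) ^ i * ((1/2 : ℝ) ^ q) ^ i := by
      rw [Real.rpow_add (by positivity), Real.rpow_one]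
      congr 1
      rw [← Real.rpow_natCast, ← Real.rpow_mul (by norm_num), mul_comm,
        Real.rpow_mul (by norm_num), Real.rpow_natCast]
    have e2 : (1/2 : ℝ) ^ i * 2 ^ i = 1 := by rw [← mul_pow]; norm_num
    rw [e1]
    calc W * ((1/2 : ℝ) ^ i * ((1/2 : ℝ) ^ q) ^ i) * M * 2 ^ i
        = W * M * ((1/2 : ℝ) ^ q) ^ i * ((1/2 : ℝ) ^ i * 2 ^ i) := by ring
      _ = _ := by rw [e2, mul_one]
  refine (Finset.sum_le_sum hi).trans ?_
  rw [← Finset.mul_sum]
  refine mul_le_mul_of_nonneg_left ?_ (mul_nonneg hW hM)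
  -- geometric series
  have hgeo : ∑ i ∈ Finset.Icc i1 k, ((1/2 : ℝ) ^ q) ^ i ≤
      ((1/2 : ℝ) ^ q) ^ i1 / (1 - (1/2 : ℝ) ^ q) := by
    set x := (1/2 : ℝ) ^ q
    have h1x : 0 < 1 - x := by linarith
    rw [le_div_iff₀ h1x]
    have hI : Finset.Icc i1 k = Finset.Ico i1 (k + 1) := by
      ext a; simp only [Finset.mem_Icc, Finset.mem_Ico]; omega
    rw [hI, geom_sum_Ico' (ne_of_lt hx1) (by omega)]
    rw [div_mul_cancel₀ _ h1x.ne']
    have : 0 ≤ x ^ (k + 1) := by positivity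
    linarith
  exact hgeo

open Classical in
/-- **planar multiplicity**: on average over the cells of `T`. -/
theorem planar_pt {α : Type*} (L : Finset α) {p v : α → ℝ} {K W M q : ℝ} {k : ℕ} {T : α}
    (hq : 0 < q) (hK : 1 ≤ K) (hW : 0 ≤ W) (hM : 0 ≤ M)
    (hD : ∀ i, i ≤ k → ((L.filter fun T' => |p T' - p T| ≤ (K + 1) * (1/2) ^ i ∧
      |v T' - v T| ≤ (1/2) ^ i).card : ℝ) ≤ W * ((1/2 : ℝ) ^ i) ^ (1 + q) * M)
    (hv : ∀ T' ∈ L, |v T' - v T| ≤ 1) :
    ∑ j ∈ range (2 ^ k), ((L.filter fun T' => Meet p v K ((1/2) ^ k) j T T').card : ℝ) ≤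
      (4 * K + 2) * (W * M / (1 - (1/2 : ℝ) ^ q)) := by
  have h := planar_tail L (p := p) (v := v) (k := k) (i1 := 0) (T := T) hq hK hW hM
    (fun i _ hi => hD i hi) (Nat.zero_le _)
  have e : ∀ j, (L.filter fun T' => Meet p v K ((1/2) ^ k) j T T' ∧ |v T' - v T| ≤ (1/2) ^ 0) =
      L.filter fun T' => Meet p v K ((1/2) ^ k) j T T' := by
    intro j
    refine Finset.filter_congr fun T' hT' => ?_
    rw [pow_zero]
    exact and_iff_left (hv T' hT')
  simp only [e] at h
  refine h.trans (le_of_eq ?_)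
  rw [pow_zero]
  ring

open Classical in
/-- the number of bad cells -/
theorem planar_bad {α : Type*} (L : Finset α) {p v : α → ℝ} {K W M q B : ℝ} {k : ℕ} {T : α}
    (hq : 0 < q) (hK : 1 ≤ K) (hW : 0 ≤ W) (hM : 0 ≤ M)
    (hD : ∀ i, i ≤ k → ((L.filter fun T' => |p T' - p T| ≤ (K + 1) * (1/2) ^ i ∧
      |v T' - v T| ≤ (1/2) ^ i).card : ℝ) ≤ W * ((1/2 : ℝ) ^ i) ^ (1 + q) * M)
    (hv : ∀ T' ∈ L, |v T' - v T| ≤ 1) :
    (((range (2 ^ k)).filter fun j =>
      B < ((L.filter fun T' => Meet p v K ((1/2) ^ k) j T T').card : ℝ)).card : ℝ) * B ≤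
      (4 * K + 2) * (W * M / (1 - (1/2 : ℝ) ^ q)) := by
  refine le_trans ?_ (planar_pt L hq hK hW hM hD hv)
  rw [← nsmul_eq_mul, ← Finset.sum_const]
  refine (Finset.sum_le_sum (g := fun j => ((L.filter fun T' =>
    Meet p v K ((1/2) ^ k) j T T').card : ℝ)) fun j hj => (Finset.mem_filter.1 hj).2.le).trans ?_
  exact Finset.sum_le_sum_of_subset_of_nonneg (Finset.filter_subset _ _) fun _ _ _ =>
    Nat.cast_nonneg _

end Crest.Agent.R136.Pl860
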