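import Crest.Agent.R136.Pl7b_186
import Crest.Agent.R136.Phc_248

/-!
# R136 (S0187), g-free tilt (PLAN 2), leaf (L7): capacities of thin planks (helper186)

* `ph_sub` : `ph` is submultiplicative;
* `thin_cap` : `phC` of a sorted box of volume `t u`, length `t`, thickness at least `1`
  (in units of the mark) is at most `C t^(1 + qm 1) u^(1 + qm 2)`;
* `strip_share` : lines in the strip `|A| ≤ t w1` and in the thin plank `|p1 A + p2 B| ≤ a`.
-/

set_option autoImplicit false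
set_option linter.unusedVariables false
set_option linter.unusedSectionVars false

namespace Crest.Agent.R136.Pl7186

open Finset
open Crest.Agent.R136.Sh605
open Crest.Agent.R136.HR829 (crs dt_nonneg cs cs1 parseval)
open Crest.Agent.R136.Phc248

theorem ph_sub {m p r s : ℝ} (hm : 0 ≤ m) (hmp : m ≤ p) (hr : 0 ≤ r) (hs : 0 ≤ s) :
    ph m p (r * s) ≤ ph m p r * ph m p s := by
  have hp : 0 ≤ p := hm.trans hmp
  rcases le_total 1 r with h1 | h1
  · rw [ph_ge_one hmp h1]; exact ph_mul hm hmp hs h1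
  · rcases le_total 1 s with h2 | h2
    · rw [mul_comm, ph_ge_one hmp h2, mul_comm (ph m p r)]; exact ph_mul hm hmp hr h2
    · rw [ph_le_one hm hmp hr h1, ph_le_one hm hmp hs h2,
        ph_le_one hm hmp (mul_nonneg hr hs) (mul_le_one₀ h1 hs h2), Real.mul_rpow hr hs]

/-- `ph` of a number at most `C` -/
theorem ph_le_C {m p x C : ℝ} (hm : 0 ≤ m) (hmp : m ≤ p) (hC : 1 ≤ C) (hx : 0 ≤ x) (hxC : x ≤ C) :
    ph m p x ≤ C ^ (1 + p) * (x / C) ^ (1 + m) := by
  have c0 : 0 < C := by linarith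
  have h1 : x / C ≤ 1 := (div_le_one c0).2 hxC
  have h2 := ph_mul (m := m) (p := p) (r := x / C) hm hmp (by positivity) hC
  rw [mul_div_cancel₀ _ c0.ne', ph_le_one hm hmp (by positivity) h1] at h2
  exact h2

/-- **capacity of a thin plank** -/
theorem thin_cap {qm qp : Fin 3 → ℝ} (hm : ∀ k, 0 ≤ qm k) (hmp : ∀ k, qm k ≤ qp k)
    (h21 : qm 2 ≤ qm 1) (h02 : qp 0 ≤ qm 2) {a w1 w2 α β1 β2 t u C : ℝ} (hC : 1 ≤ C)
    (ha : 0 < a) (h1 : 0 < w1) (h2 : 0 < w2) (hα : 0 < α) (hβ1 : 0 < β1) (hβ2 : 0 < β2)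
    (ht : 0 < t) (hu : 0 < u) (ht1 : t ≤ 1) (hκ : a ≤ C * α) (hb1 : β1 ≤ C * (t * w1))
    (hb2 : β2 ≤ C * w2) (hV : α * β2 * β1 ≤ C * (t * u * (a * w1 * w2))) :
    phC qm qp a w1 w2 α β1 β2 ≤
      C ^ (1 + qp 1) * C ^ (1 + qp 2) * (t ^ (1 + qm 1) * u ^ (1 + qm 2)) := by
  have c0 : 0 < C := by linarith
  set z := α / a with hz
  set x := β1 / (t * w1) with hx
  set y := β2 / w2 with hy
  have z0 : 0 < z := by positivity
  have x0 : 0 < x := by positivity
  have y0 : 0 < y := by positivity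
  have hCz : 1 ≤ C * z := by
    rw [hz, ← mul_div_assoc, le_div_iff₀ ha, one_mul]; exact hκ
  have hxC : x ≤ C := by
    rw [hx, div_le_iff₀ (by positivity)]; exact hb1
  have hyC : y ≤ C := by
    rw [hy, div_le_iff₀ h2]; exact hb2
  have hxyz : x * y * z ≤ C * u := by
    rw [hx, hy, hz, div_mul_div_comm, div_mul_div_comm, div_le_iff₀ (by positivity)]
    calc β1 * β2 * α = α * β2 * β1 := by ring
      _ ≤ C * (t * u * (a * w1 * w2)) := hV
      _ = C * u * (t * w1 * w2 * a) := by ring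
  have e1 : β1 / w1 = t * x := by rw [hx]; field_simp
  -- the three factors
  have f0 : ph (qm 0) (qp 0) z ≤ (C * z) ^ (1 + qp 0) := by
    rw [← ph_ge_one (m := qm 0) (hmp 0) hCz]
    exact ph_mono (hm 0) ((hm 0).trans (hmp 0)) z0.le (le_mul_of_one_le_left z0.le hC)
  have f1 : ph (qm 1) (qp 1) (t * x) ≤ t ^ (1 + qm 1) * (C ^ (1 + qp 1) * (x / C) ^ (1 + qm 1)) := by
    refine (ph_sub (hm 1) (hmp 1) ht.le x0.le).trans ?_
    rw [ph_le_one (hm 1) (hmp 1) ht.le ht1]
    exact mul_le_mul_of_nonneg_left (ph_le_C (hm 1) (hmp 1) hC x0.le hxC) (by positivity)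
  have f2 : ph (qm 2) (qp 2) y ≤ C ^ (1 + qp 2) * (y / C) ^ (1 + qm 2) :=
    ph_le_C (hm 2) (hmp 2) hC y0.le hyC
  have f1' : (x / C) ^ (1 + qm 1) ≤ (x / C) ^ (1 + qm 2) :=
    Real.rpow_le_rpow_of_exponent_ge (by positivity) ((div_le_one c0).2 hxC) (by linarith)
  -- end
  have hCz0 : 0 < C * z := by positivity
  have key : (C * z) ^ (1 + qp 0) * ((x / C) ^ (1 + qm 2) * (y / C) ^ (1 + qm 2)) ≤
      u ^ (1 + qm 2) := by
    rw [← Real.mul_rpow (by positivity) (by positivity)]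
    have g1 : x / C * (y / C) ≤ u / (C * z) := by
      rw [div_mul_div_comm, div_le_div_iff₀ (by positivity) (by positivity)]
      calc x * y * (C * z) = C * (x * y * z) := by ring
        _ ≤ C * (C * u) := mul_le_mul_of_nonneg_left hxyz c0.le
        _ = u * (C * C) := by ring
    have g2 : (x / C * (y / C)) ^ (1 + qm 2) ≤ (u / (C * z)) ^ (1 + qm 2) :=
      Real.rpow_le_rpow (by positivity) g1 (by linarith [hm 2])
    have g3 : (C * z) ^ (1 + qp 0) ≤ (C * z) ^ (1 + qm 2) :=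
      Real.rpow_le_rpow_of_exponent_le hCz (by linarith)
    calc (C * z) ^ (1 + qp 0) * (x / C * (y / C)) ^ (1 + qm 2) ≤
        (C * z) ^ (1 + qm 2) * (u / (C * z)) ^ (1 + qm 2) := by gcongr
      _ = u ^ (1 + qm 2) := by
          rw [← Real.mul_rpow hCz0.le (by positivity), mul_div_cancel₀ _ hCz0.ne']
  unfold phC
  rw [← hz, e1, ← hy]
  have p0 := ph_nonneg (m := qm 0) (p := qp 0) z0.le
  have p1 := ph_nonneg (m := qm 1) (p := qp 1) (mul_pos ht x0).le
  have p2 := ph_nonneg (m := qm 2) (p := qp 2) y0.le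
  calc ph (qm 0) (qp 0) z * ph (qm 1) (qp 1) (t * x) * ph (qm 2) (qp 2) y ≤
      (C * z) ^ (1 + qp 0) * (t ^ (1 + qm 1) * (C ^ (1 + qp 1) * (x / C) ^ (1 + qm 2))) *
        (C ^ (1 + qp 2) * (y / C) ^ (1 + qm 2)) := by
        refine mul_le_mul (mul_le_mul f0 (f1.trans ?_) p1 (by positivity)) f2 p2 (by positivity)
        gcongr
    _ = C ^ (1 + qp 1) * C ^ (1 + qp 2) * (t ^ (1 + qm 1) *
        ((C * z) ^ (1 + qp 0) * ((x / C) ^ (1 + qm 2) * (y / C) ^ (1 + qm 2)))) := by ring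
    _ ≤ C ^ (1 + qp 1) * C ^ (1 + qp 2) * (t ^ (1 + qm 1) * u ^ (1 + qm 2)) := by
        have : 0 ≤ C ^ (1 + qp 1) * C ^ (1 + qp 2) := by positivity
        refine mul_le_mul_of_nonneg_left ?_ this
        exact mul_le_mul_of_nonneg_left key (by positivity)

section

variable {ι : Type*} {P : Finset ι} {L : ι → Ln4} {z0 ρ r R D a w1 w2 : ℝ} {qm qp : Fin 3 → ℝ}

/-- the determinant of three rows given in an orthonormal frame -/
theorem det_rows (e : Fin 3 → V3) (A : Fin 3 → V3) :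
    dt (crs (A 0 0 • e 0 + A 0 1 • e 1 + A 0 2 • e 2) (A 1 0 • e 0 + A 1 1 • e 1 + A 1 2 • e 2))
      (A 2 0 • e 0 + A 2 1 • e 1 + A 2 2 • e 2) =
      dt (crs (A 0) (A 1)) (A 2) * dt (crs (e 0) (e 1)) (e 2) := by
  simp only [dt, crs, Pi.add_apply, Pi.smul_apply, smul_eq_mul, Matrix.cons_val_zero,
    Matrix.cons_val_one, Matrix.cons_val]
  ring

theorem det_sq1 {e : Fin 3 → V3} (he : Ortho e) : (dt (crs (e 0) (e 1)) (e 2)) ^ 2 = 1 := by
  have h00 : dt (e 0) (e 0) = 1 := by simpa using he 0 0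
  have h11 : dt (e 1) (e 1) = 1 := by simpa using he 1 1
  have h01 : dt (e 0) (e 1) = 0 := by simpa using he 0 1
  have h1 : dt (crs (e 0) (e 1)) (crs (e 0) (e 1)) =
      dt (e 0) (e 0) * dt (e 1) (e 1) - (dt (e 0) (e 1)) ^ 2 := by
    simp only [dt, crs, Matrix.cons_val_zero, Matrix.cons_val_one, Matrix.cons_val]; ring
  rw [h00, h11, h01] at h1
  have h2 := parseval he (crs (e 0) (e 1))
  have h3 : dt (e 0) (crs (e 0) (e 1)) = 0 := by
    simp only [dt, crs, Matrix.cons_val_zero, Matrix.cons_val_one, Matrix.cons_val]; ring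
  have h4 : dt (e 1) (crs (e 0) (e 1)) = 0 := by
    simp only [dt, crs, Matrix.cons_val_zero, Matrix.cons_val_one, Matrix.cons_val]; ring
  rw [h1, h3, h4, dt_comm (e 2)] at h2
  linarith

theorem det_abs1 {e : Fin 3 → V3} (he : Ortho e) : |dt (crs (e 0) (e 1)) (e 2)| = 1 := by
  have h := det_sq1 he
  rw [← sq_abs] at h
  exact (pow_eq_one_iff_of_nonneg (abs_nonneg _) two_ne_zero).1 h

/-- `A • e` for a row `A` of coefficients -/
def rw3 (e : Fin 3 → V3) (A : V3) : V3 := A 0 • e 0 + A 1 • e 1 + A 2 • e 2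

theorem rw3_dt (e : Fin 3 → V3) (A δ : V3) :
    dt (rw3 e A) δ = A 0 * dt (e 0) δ + A 1 * dt (e 1) δ + A 2 * dt (e 2) δ := by
  unfold rw3
  simp only [add_dt, smul_dt]

theorem rw3_self {e : Fin 3 → V3} (he : Ortho e) (A : V3) :
    dt (rw3 e A) (rw3 e A) = A 0 ^ 2 + A 1 ^ 2 + A 2 ^ 2 := by
  have g00 : dt (e 0) (e 0) = 1 := by simpa using he 0 0
  have g11 : dt (e 1) (e 1) = 1 := by simpa using he 1 1
  have g22 : dt (e 2) (e 2) = 1 := by simpa using he 2 2
  have g01 : dt (e 0) (e 1) = 0 := by simpa using he 0 1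
  have g02 : dt (e 0) (e 2) = 0 := by simpa using he 0 2
  have g10 : dt (e 1) (e 0) = 0 := by simpa using he 1 0
  have g12 : dt (e 1) (e 2) = 0 := by simpa using he 1 2
  have g20 : dt (e 2) (e 0) = 0 := by simpa using he 2 0
  have g21 : dt (e 2) (e 1) = 0 := by simpa using he 2 1
  rw [rw3_dt]
  unfold rw3
  simp only [dt_add, dt_smul, g00, g01, g02, g10, g11, g12, g20, g21, g22]
  ring

set_option maxHeartbeats 1000000 in
open Classical in
/-- **share of the thin part of a strip** : `|A| ≤ t w1`, `|B| ≤ w2`, `|N + s1 A + s2 B| ≤ a`,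
`|p1 A + p2 B| ≤ a`, where `(N, A, B)` = coordinates of `L x - T0` in the frame `e`;
`a ≤ u max (|p1| t w1) (|p2| w2)` -/
theorem strip_share (hm : ∀ k, 0 ≤ qm k) (hmp : ∀ k, qm k ≤ qp k)
    (h21 : qm 2 ≤ qm 1) (h02 : qp 0 ≤ qm 2) (hD : 0 ≤ D)
    (hd : DMx P L z0 ρ r (fun _ x _ => x ≤ R) (fun a' x y => D * phC qm qp a w1 w2 a' x y))
    {e : Fin 3 → V3} (he : Ortho e) (T0 : Ln4) {t u s1 s2 p1 p2 : ℝ} (ha : 0 < a) (haw : a ≤ w2)
    (ht : 0 < t) (ht1 : t ≤ 1) (hu : 0 < u) (hw : w2 ≤ t * w1) (hR : 64 * (t * w1) ≤ R)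
    (hr : 16 * r ≤ a) (hs1 : |s1| * w1 ≤ w2) (hs2 : |s2| ≤ 1) (hp1 : |p1| ≤ 8) (hp2 : |p2| ≤ 8)
    (hp : a ≤ u * max (|p1| * (t * w1)) (|p2| * w2)) (hap : a ≤ max (|p1| * (t * w1)) (|p2| * w2))
    (F : Finset ι) (hF : F ⊆ P)
    (hb : ∀ x ∈ F, ∀ z, z0 ≤ z → z ≤ z0 + ρ →
      |dt (e 1) ((L x).pos z - T0.pos z)| ≤ t * w1 ∧ |dt (e 2) ((L x).pos z - T0.pos z)| ≤ w2 ∧
      |dt (e 0) ((L x).pos z - T0.pos z) + s1 * dt (e 1) ((L x).pos z - T0.pos z) +
        s2 * dt (e 2) ((L x).pos z - T0.pos z)| ≤ a ∧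
      |p1 * dt (e 1) ((L x).pos z - T0.pos z) + p2 * dt (e 2) ((L x).pos z - T0.pos z)| ≤ a) :
    (F.card : ℝ) ≤ D * ((64 : ℝ) ^ (1 + qp 1) * (64 : ℝ) ^ (1 + qp 2) *
      (t ^ (1 + qm 1) * u ^ (1 + qm 2))) := by
  have hw2 : 0 < w2 := ha.trans_le haw
  have htw : 0 < t * w1 := hw2.trans_le hw
  have hw1 : 0 < w1 := (pos_iff_pos_of_mul_pos htw).1 ht
  have hs1' : |s1| ≤ 1 := by
    have h1 : t * w1 ≤ 1 * w1 := mul_le_mul_of_nonneg_right ht1 hw1.le
    by_contra hc
    push Not at hc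
    have : 1 * w1 < |s1| * w1 := mul_lt_mul_of_pos_right hc hw1
    linarith
  set Mx := max (|p1| * (t * w1)) (|p2| * w2) with hMx
  have hMx0 : 0 < Mx := ha.trans_le hap
  have hdet := det_abs1 he
  -- the rows : `A0 = (1, s1, s2)`, `A2 = (0, p1, p2)`, middle row `e 1` or `e 2`
  have main : ∀ (A1 : V3) (X1 Y1 : ℝ), 0 < X1 → a ≤ X1 → A1 0 ^ 2 + A1 1 ^ 2 + A1 2 ^ 2 ≤ 1 →
      (∀ x ∈ F, ∀ z, z0 ≤ z → z ≤ z0 + ρ →
        |dt (rw3 e A1) ((L x).pos z - T0.pos z)| ≤ X1) →
      a * X1 * a / |dt (crs ![1, s1, s2] A1) ![0, p1, p2]| ≤ t * u * (a * w1 * w2) →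
      dt (crs ![1, s1, s2] A1) ![0, p1, p2] ≠ 0 →
      (∀ y1 y2 : ℝ, |p1 * y1 + p2 * y2| ≤ a → |A1 1 * y1 + A1 2 * y2| ≤ X1 →
        |y1| ≤ 2 * (t * w1) ∧ |y2| ≤ 2 * w2) → A1 0 = 0 →
      (F.card : ℝ) ≤ D * ((64 : ℝ) ^ (1 + qp 1) * (64 : ℝ) ^ (1 + qp 2) *
      (t ^ (1 + qm 1) * u ^ (1 + qm 2))) := by
    intro A1 X1 Y1 hX1 haX hA1 hbA hVol hdn hout hA10
    set G : Fin 3 → V3 := ![rw3 e ![1, s1, s2], rw3 e A1, rw3 e ![0, p1, p2]] with hG
    set X : Fin 3 → ℝ := ![a, X1, a] with hX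
    have hXp : ∀ k, 0 < X k := by
      intro k; fin_cases k
      · exact ha
      · exact hX1
      · exact ha
    have hGd : dt (crs (G 0) (G 1)) (G 2) =
        dt (crs ![1, s1, s2] A1) ![0, p1, p2] * dt (crs (e 0) (e 1)) (e 2) := by
      have := det_rows e ![![1, s1, s2], A1, ![0, p1, p2]]
      exact this
    have hGabs : |dt (crs (G 0) (G 1)) (G 2)| = |dt (crs ![1, s1, s2] A1) ![0, p1, p2]| := by
      rw [hGd, abs_mul, hdet, mul_one]
    have hG0 : dt (crs (G 0) (G 1)) (G 2) ≠ 0 := by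
      rw [← abs_pos, hGabs, abs_pos]; exact hdn
    have b1s := abs_le.1 hs1'
    have b2s := abs_le.1 hs2
    have b1p := abs_le.1 hp1
    have b2p := abs_le.1 hp2
    have hκ : ∀ k, (a / 16) ^ 2 * dt (G k) (G k) ≤ X k ^ 2 := by
      intro k
      fin_cases k
      · change (a / 16) ^ 2 * dt (rw3 e ![1, s1, s2]) (rw3 e ![1, s1, s2]) ≤ a ^ 2
        rw [rw3_self he]
        simp only [Matrix.cons_val_zero, Matrix.cons_val_one, Matrix.cons_val]
        have g1 : s1 ^ 2 ≤ 1 := by nlinarith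
        have g2 : s2 ^ 2 ≤ 1 := by nlinarith
        have g3 : 0 < a ^ 2 := by positivity
        nlinarith
      · change (a / 16) ^ 2 * dt (rw3 e A1) (rw3 e A1) ≤ X1 ^ 2
        rw [rw3_self he]
        have g3 : a ^ 2 ≤ X1 ^ 2 := by gcongr
        have g4 : 0 ≤ A1 0 ^ 2 + A1 1 ^ 2 + A1 2 ^ 2 := by positivity
        have g5 : 0 < a ^ 2 := by positivity
        nlinarith
      · change (a / 16) ^ 2 * dt (rw3 e ![0, p1, p2]) (rw3 e ![0, p1, p2]) ≤ a ^ 2
        rw [rw3_self he]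
        simp only [Matrix.cons_val_zero, Matrix.cons_val_one, Matrix.cons_val]
        have g1 : p1 ^ 2 ≤ 64 := by nlinarith
        have g2 : p2 ^ 2 ≤ 64 := by nlinarith
        have g3 : 0 < a ^ 2 := by positivity
        nlinarith
    obtain ⟨α, β1, β2, hα, hαβ, hββ, hvol, hκα, b0, b2, b1, hcard⟩ :=
      par_count hd he (W := ![w2, t * w1, w2]) hw2 le_rfl hw (S := 5) (by norm_num) G hXp hG0
        (by
          intro δ hδ i
          have d0 : |dt (rw3 e ![1, s1, s2]) δ| ≤ a := hδ 0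
          have d1 : |dt (rw3 e A1) δ| ≤ X1 := hδ 1
          have d2 : |dt (rw3 e ![0, p1, p2]) δ| ≤ a := hδ 2
          rw [rw3_dt] at d0 d1 d2
          simp only [Matrix.cons_val_zero, Matrix.cons_val_one, Matrix.cons_val, one_mul,
            zero_mul, zero_add] at d0 d2
          rw [hA10, zero_mul, zero_add] at d1
          obtain ⟨y1, y2⟩ := hout _ _ d2 d1
          fin_cases i
          · change |dt (e 0) δ| ≤ 5 * w2
            have e1 : dt (e 0) δ = (dt (e 0) δ + s1 * dt (e 1) δ + s2 * dt (e 2) δ) -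
              s1 * dt (e 1) δ - s2 * dt (e 2) δ := by ring
            have m1 : |s1 * dt (e 1) δ| ≤ 2 * w2 := by
              rw [abs_mul]
              calc |s1| * |dt (e 1) δ| ≤ |s1| * (2 * (t * w1)) := by gcongr
                _ = 2 * (t * (|s1| * w1)) := by ring
                _ ≤ 2 * (1 * w2) := by gcongr
                _ = 2 * w2 := by ring
            have m2 : |s2 * dt (e 2) δ| ≤ 2 * w2 := by
              rw [abs_mul]
              calc |s2| * |dt (e 2) δ| ≤ 1 * (2 * w2) := by gcongr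
                _ = _ := by ring
            rw [e1]
            refine (abs_sub _ _).trans ((add_le_add ((abs_sub _ _).trans (add_le_add d0 m1))
              m2).trans ?_)
            linarith
          · change |dt (e 1) δ| ≤ 5 * (t * w1)
            linarith
          · change |dt (e 2) δ| ≤ 5 * w2
            linarith)
        (κ := a / 16) (by positivity) hκ (by linarith) T0 F hF
        (by
          intro x hx z hz hz' k
          obtain ⟨c1, c2, c3, c4⟩ := hb x hx z hz hz'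
          fin_cases k
          · change |dt (rw3 e ![1, s1, s2]) ((L x).pos z - T0.pos z)| ≤ a
            rw [rw3_dt]
            simp only [Matrix.cons_val_zero, Matrix.cons_val_one, Matrix.cons_val, one_mul]
            exact c3
          · exact hbA x hx z hz hz'
          · change |dt (rw3 e ![0, p1, p2]) ((L x).pos z - T0.pos z)| ≤ a
            rw [rw3_dt]
            simp only [Matrix.cons_val_zero, Matrix.cons_val_one, Matrix.cons_val, zero_mul,
              zero_add]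
            exact c4)
        (by
          intro α β1 β2 _ _ _ _ _ _ _ h6
          change β1 ≤ 6 * 5 * (t * w1) at h6
          change β1 ≤ R
          linarith)
    have hβ2 : 0 < β2 := hα.trans_le hαβ
    have hβ1 : 0 < β1 := hβ2.trans_le hββ
    refine hcard.trans ?_
    refine mul_le_mul_of_nonneg_left ?_ hD
    refine thin_cap hm hmp h21 h02 (by norm_num) ha hw1 hw2 hα hβ1 hβ2 ht hu ht1 ?_ ?_ ?_ ?_
    · linarith
    · have : β1 ≤ 6 * 5 * (t * w1) := b1
      linarith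
    · have : β2 ≤ 10 * 5 * w2 := b2
      linarith
    · rw [hvol, hGabs]
      have : X 0 * X 1 * X 2 = a * X1 * a := rfl
      rw [this]
      have h9 : 0 < t * u * (a * w1 * w2) := by positivity
      linarith
  rcases le_total (|p1| * (t * w1)) (|p2| * w2) with hc | hc
  · -- `|p2| w2` is the larger one
    have hM : Mx = |p2| * w2 := max_eq_right hc
    rw [hM] at hp hap hMx0
    have hp20 : 0 < |p2| := (pos_iff_pos_of_mul_pos hMx0).2 hw2
    have hdt : dt (crs ![1, s1, s2] ![0, 1, 0]) ![0, p1, p2] = p2 := by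
      simp only [dt, crs, Matrix.cons_val_zero, Matrix.cons_val_one, Matrix.cons_val]; ring
    refine main ![0, 1, 0] (t * w1) 0 htw (haw.trans hw) (by simp) ?_ ?_ ?_ ?_ rfl
    · intro x hx z hz hz'
      rw [rw3_dt]
      simp only [Matrix.cons_val_zero, Matrix.cons_val_one, Matrix.cons_val, one_mul, zero_mul,
        zero_add, add_zero]
      exact (hb x hx z hz hz').1
    · rw [hdt, div_le_iff₀ hp20]
      have h8 : 0 < a * (t * w1) := mul_pos ha htw
      calc a * (t * w1) * a ≤ a * (t * w1) * (u * (|p2| * w2)) :=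
            mul_le_mul_of_nonneg_left hp h8.le
        _ = _ := by ring
    · rw [hdt]; exact abs_pos.1 hp20
    · intro y1 y2 g1 g2
      simp only [Matrix.cons_val_one, Matrix.cons_val, one_mul, zero_mul, add_zero] at g2
      refine ⟨by linarith, ?_⟩
      have g3 : |p2| * |y2| ≤ |p2| * (2 * w2) := by
        have e1 : p2 * y2 = (p1 * y1 + p2 * y2) - p1 * y1 := by ring
        rw [← abs_mul, e1]
        refine (abs_sub _ _).trans ?_
        have e2 : |p1 * y1| ≤ |p1| * (t * w1) := by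
          rw [abs_mul]
          exact mul_le_mul_of_nonneg_left g2 (abs_nonneg _)
        have e3 : |p2| * (2 * w2) = |p2| * w2 + |p2| * w2 := by ring
        rw [e3]
        exact add_le_add (g1.trans hap) (e2.trans hc)
      exact le_of_mul_le_mul_left g3 hp20
  · have hM : Mx = |p1| * (t * w1) := max_eq_left hc
    rw [hM] at hp hap hMx0
    have hp10 : 0 < |p1| := (pos_iff_pos_of_mul_pos hMx0).2 htw
    have hdt : dt (crs ![1, s1, s2] ![0, 0, 1]) ![0, p1, p2] = -p1 := by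
      simp only [dt, crs, Matrix.cons_val_zero, Matrix.cons_val_one, Matrix.cons_val]; ring
    refine main ![0, 0, 1] w2 0 hw2 haw (by simp) ?_ ?_ ?_ ?_ rfl
    · intro x hx z hz hz'
      rw [rw3_dt]
      simp only [Matrix.cons_val_zero, Matrix.cons_val_one, Matrix.cons_val, one_mul, zero_mul,
        zero_add, add_zero]
      exact (hb x hx z hz hz').2.1
    · rw [hdt, abs_neg, div_le_iff₀ hp10]
      have h8 : 0 < a * w2 := mul_pos ha hw2
      calc a * w2 * a ≤ a * w2 * (u * (|p1| * (t * w1))) :=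
            mul_le_mul_of_nonneg_left hp h8.le
        _ = _ := by ring
    · rw [hdt, neg_ne_zero]; exact abs_pos.1 hp10
    · intro y1 y2 g1 g2
      simp only [Matrix.cons_val_one, Matrix.cons_val, one_mul, zero_mul, zero_add] at g2
      refine ⟨?_, by linarith⟩
      have g3 : |p1| * |y1| ≤ |p1| * (2 * (t * w1)) := by
        have e1 : p1 * y1 = (p1 * y1 + p2 * y2) - p2 * y2 := by ring
        rw [← abs_mul, e1]
        refine (abs_sub _ _).trans ?_
        have e2 : |p2 * y2| ≤ |p2| * w2 := by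
          rw [abs_mul]
          exact mul_le_mul_of_nonneg_left g2 (abs_nonneg _)
        have e3 : |p1| * (2 * (t * w1)) = |p1| * (t * w1) + |p1| * (t * w1) := by ring
        rw [e3]
        exact add_le_add (g1.trans hap) (e2.trans hc)
      exact le_of_mul_le_mul_left g3 hp10

end

end Crest.Agent.R136.Pl7186
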