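import Mathlib

/-!
# R136, U4 (PLAN 2 of helper294): planar Cordoba for one class of lines (helper372)

`S` a finite set of lines in the `(z, A)`-plane (`A t + α t * z`, `z ∈ [0,1]`), `r = 1/n`.
`bx A α n i t` = the `r`-box of the line `t` at the time `z = i/n`.
`X S A α n` = the triples `((t, t'), i)`, `t` and `t'` in one box at the time `i/n`.

* `TubeB S A α n W q` : D-max, every tube of radius `2^k/n` contains `≤ W (2^k/n)^(1+q) #S` lines;
* `cord_small` : the pairs of `X` with `|α t - α t'| ≤ θ` are at most `C_q W θ^q #S^2`;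
* `cord_le` : `#X ≤ C_q W 2^q #S^2`;
* `cord_ge_inc` : for every set `G` of incidences `(t, i)`, the pairs of `X` with both incidences in
  `G` are at least `#G^2 / (5 n^2)`;
* `cross_inc` : if `#G ≥ γ n #S` and `C_q W θ^q ≤ γ^2 / 10` then the pairs of `X` with both incidences
  in `G` and `|α t - α t'| > θ` are at least `γ^2 #S^2 / 10`;
* `good_inc` : the incidences whose box contains more than `K W #S / n` lines are at most
  `(C_q 2^q / K) n #S`.
-/

set_option autoImplicit false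

open Finset

namespace Crest.Agent.R136.PlC372

variable {ι : Type*}

/-- box of the line `t` at the time `i/n` (side `1/n`) -/
noncomputable def bx (A α : ι → ℝ) (n i : ℕ) (t : ι) : ℤ :=
  ⌊(A t + α t * ((i : ℝ) / n)) * n⌋

open Classical in
/-- pairs of lines in one box, with the time -/
noncomputable def X (S : Finset ι) (A α : ι → ℝ) (n : ℕ) : Finset ((ι × ι) × ℕ) :=
  ((S ×ˢ S) ×ˢ range n).filter fun x => bx A α n x.2 x.1.1 = bx A α n x.2 x.1.2

open Classical in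
/-- tube of radius `2^k/n` around the line `t` -/
noncomputable def tube (S : Finset ι) (A α : ι → ℝ) (n k : ℕ) (t : ι) : Finset ι :=
  S.filter fun t' => |A t' - A t| ≤ 2 ^ k / n ∧ |α t' - α t| ≤ 2 ^ k / n

/-- D-max for the tubes of radius `r = 1/n, .., 1` -/
def TubeB (S : Finset ι) (A α : ι → ℝ) (n : ℕ) (W q : ℝ) : Prop :=
  ∀ t ∈ S, ∀ k : ℕ, 2 ^ k ≤ n →
    ((tube S A α n k t).card : ℝ) ≤ W * ((2:ℝ) ^ k / n) ^ (1 + q) * S.card

theorem TubeB.all {S : Finset ι} {A α : ι → ℝ} {n : ℕ} {W q : ℝ} (h : TubeB S A α n W q)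
    (hn : 1 ≤ n) (hW : 1 ≤ W) (hq : 0 ≤ q) {t : ι} (ht : t ∈ S) (k : ℕ) :
    ((tube S A α n k t).card : ℝ) ≤ W * ((2:ℝ) ^ k / n) ^ (1 + q) * S.card := by
  have hn0 : (0:ℝ) < n := by exact_mod_cast hn
  by_cases hk : 2 ^ k ≤ n
  · exact h t ht k hk
  · have h1 : (1:ℝ) ≤ (2:ℝ) ^ k / n := by
      rw [le_div_iff₀ hn0, one_mul]
      have : n ≤ 2 ^ k := (not_le.1 hk).le
      exact_mod_cast this
    have h2 : (1:ℝ) ≤ ((2:ℝ) ^ k / n) ^ (1 + q) := Real.one_le_rpow h1 (by linarith)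
    have h3 : ((tube S A α n k t).card : ℝ) ≤ S.card := by
      exact_mod_cast card_le_card (filter_subset _ _)
    have h4 : (1:ℝ) ≤ W * ((2:ℝ) ^ k / n) ^ (1 + q) := by nlinarith
    have h5 : (0:ℝ) ≤ S.card := by positivity
    nlinarith

/-! ### number of times -/

theorem card_near (n : ℕ) (c L : ℝ) :
    (((range n).filter fun i : ℕ => |(i:ℝ) - c| < L).card : ℝ) ≤ max 0 (2 * L + 1) := by
  have h1 : ((range n).filter fun i : ℕ => |(i:ℝ) - c| < L).card ≤
      (Finset.Icc ⌈c - L⌉ ⌊c + L⌋).card := by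
    refine Finset.card_le_card_of_injOn (fun i : ℕ => (i:ℤ)) ?_ ?_
    · intro i hi
      rw [mem_coe, mem_filter] at hi
      obtain ⟨-, hi⟩ := hi
      rw [abs_lt] at hi
      simp only [coe_Icc, Set.mem_Icc]
      constructor
      · rw [Int.ceil_le]; push_cast; linarith [hi.1]
      · rw [Int.le_floor]; push_cast; linarith [hi.2]
    · intro i _ j _ h
      exact Nat.cast_injective h
  refine le_trans (Nat.cast_le.2 h1) ?_
  rw [Int.card_Icc]
  have e1 := Int.floor_le (c + L)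
  have e2 := Int.le_ceil (c - L)
  rcases le_total 0 (⌊c + L⌋ + 1 - ⌈c - L⌉) with h | h
  · refine le_trans ?_ (le_max_right _ _)
    have e3 : (((⌊c + L⌋ + 1 - ⌈c - L⌉).toNat : ℕ) : ℝ) =
        ((⌊c + L⌋ + 1 - ⌈c - L⌉ : ℤ) : ℝ) := by
      have := Int.toNat_of_nonneg h
      exact_mod_cast this
    rw [e3]; push_cast; linarith
  · refine le_trans ?_ (le_max_left _ _)
    rw [Int.toNat_of_nonpos h]; simp

/-- times at which two lines with `|Δα| > 2^k/(2n)` are closer than `1/n` -/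
theorem card_times {n k : ℕ} (hn : 1 ≤ n) (hk : 2 ^ k ≤ 4 * n) (a b : ℝ)
    (hb : k = 0 ∨ (2:ℝ) ^ k / (2 * n) < |b|) :
    (((range n).filter fun i : ℕ => |a + b * ((i:ℝ) / n)| < 1 / n).card : ℝ) ≤
      8 * n / 2 ^ k := by
  have hn0 : (0:ℝ) < n := by exact_mod_cast hn
  rcases hb with hk0 | hb
  · subst hk0
    have h1 : (((range n).filter fun i : ℕ => |a + b * ((i:ℝ) / n)| < 1 / n).card : ℝ) ≤ n := by
      have := card_le_card (filter_subset (fun i : ℕ => |a + b * ((i:ℝ) / n)| < 1 / n) (range n))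
      rw [card_range] at this
      exact_mod_cast this
    simp only [pow_zero, div_one]
    linarith
  · have hp : (0:ℝ) < 2 ^ k := by positivity
    have hb0 : 0 < |b| := lt_trans (by positivity) hb
    have hbne : b ≠ 0 := abs_pos.1 hb0
    have h1 : ((range n).filter fun i : ℕ => |a + b * ((i:ℝ) / n)| < 1 / n) ⊆
        (range n).filter fun i : ℕ => |(i:ℝ) - (-(a * n / b))| < 1 / |b| := by
      intro i hi
      rw [mem_filter] at hi ⊢
      refine ⟨hi.1, ?_⟩
      have e1 : (i:ℝ) - (-(a * n / b)) = (a + b * ((i:ℝ) / n)) * (n / b) := by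
        field_simp; ring
      rw [e1, abs_mul, abs_div, abs_of_pos hn0]
      have h2 := hi.2
      calc |a + b * ((i:ℝ) / n)| * (n / |b|) < 1 / n * (n / |b|) :=
            mul_lt_mul_of_pos_right h2 (by positivity)
        _ = 1 / |b| := by field_simp
    have h2 : (((range n).filter fun i : ℕ => |a + b * ((i:ℝ) / n)| < 1 / n).card : ℝ) ≤
        max 0 (2 * (1 / |b|) + 1) :=
      le_trans (by exact_mod_cast card_le_card h1) (card_near n _ _)
    rw [max_eq_right (by positivity)] at h2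
    have h3 : 1 / |b| ≤ 2 * n / 2 ^ k := by
      rw [div_le_div_iff₀ hb0 hp, one_mul]
      rw [div_lt_iff₀ (by positivity)] at hb
      linarith
    have h4 : (1:ℝ) ≤ 4 * n / 2 ^ k := by
      rw [le_div_iff₀ hp, one_mul]
      exact_mod_cast hk
    calc _ ≤ 2 * (1 / |b|) + 1 := h2
      _ ≤ 2 * (2 * n / 2 ^ k) + 4 * n / 2 ^ k := by linarith
      _ = 8 * n / 2 ^ k := by ring

theorem bx_close {A α : ι → ℝ} {n i : ℕ} (hn : 1 ≤ n) {t t' : ι}
    (h : bx A α n i t = bx A α n i t') :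
    |(A t' - A t) + (α t' - α t) * ((i:ℝ) / n)| < 1 / n := by
  have hn0 : (0:ℝ) < n := by exact_mod_cast hn
  unfold bx at h
  have h1 := Int.abs_sub_lt_one_of_floor_eq_floor h
  rw [lt_div_iff₀ hn0]
  have e : (A t' - A t) + (α t' - α t) * ((i:ℝ) / n) =
      -((A t + α t * ((i:ℝ) / n)) - (A t' + α t' * ((i:ℝ) / n))) := by ring
  rw [e, abs_neg]
  calc |(A t + α t * ((i:ℝ) / n)) - (A t' + α t' * ((i:ℝ) / n))| * n
      = |((A t + α t * ((i:ℝ) / n)) - (A t' + α t' * ((i:ℝ) / n))) * n| := by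
        rw [abs_mul, abs_of_pos hn0]
    _ = |(A t + α t * ((i:ℝ) / n)) * n - (A t' + α t' * ((i:ℝ) / n)) * n| := by
        congr 1; ring
    _ < 1 := h1

/-- the constant of the planar Cordoba bound -/
noncomputable def Cq (q : ℝ) : ℝ := 16 * 8 ^ q / (2 ^ q - 1)

theorem Cq_pos {q : ℝ} (hq : 0 < q) : 0 < Cq q := by
  have h : (1:ℝ) < 2 ^ q := Real.one_lt_rpow (by norm_num) hq
  unfold Cq
  have : (0:ℝ) < 2 ^ q - 1 := by linarith
  positivity

open Classical in
/-- **planar Cordoba, small angles** -/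
theorem cord_small {S : Finset ι} {A α : ι → ℝ} {n : ℕ} {W q : ℝ} (h : TubeB S A α n W q)
    (hn : 1 ≤ n) (hW : 1 ≤ W) (hq : 0 < q) {θ : ℝ} (hθ : 1 ≤ θ * n) (hθ2 : θ ≤ 2) :
    (((X S A α n).filter fun x => |α x.1.2 - α x.1.1| ≤ θ).card : ℝ) ≤
      Cq q * W * θ ^ q * (S.card : ℝ) ^ 2 := by
  have hn0 : (0:ℝ) < n := by exact_mod_cast hn
  have hθ0 : 0 < θ := by
    by_contra hc
    have : θ * n ≤ 0 := mul_nonpos_of_nonpos_of_nonneg (not_lt.1 hc) hn0.le
    linarith
  set N : ℕ := ⌊2 * θ * n⌋₊ with hN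
  have hN1 : 1 ≤ N := by
    rw [hN, Nat.one_le_floor_iff]; linarith
  have hNle : (N:ℝ) ≤ 2 * θ * n := Nat.floor_le (by positivity)
  set K : ℕ := Nat.log 2 N + 1 with hK
  have hKN : (2:ℝ) ^ K ≤ 4 * θ * n := by
    have h1 : 2 ^ Nat.log 2 N ≤ N := Nat.pow_log_le_self 2 (by omega)
    have h2 : (2:ℝ) ^ Nat.log 2 N ≤ N := by exact_mod_cast h1
    rw [hK, pow_succ]; linarith
  -- the pieces
  let Y : ℕ → Finset ((ι × ι) × ℕ) := fun k =>
    S.biUnion fun t => (tube S A α n (k + 1) t).biUnion fun t' =>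
      ((range n).filter fun i : ℕ => |(A t' - A t) + (α t' - α t) * ((i:ℝ) / n)| < 1 / n ∧
        (k = 0 ∨ (2:ℝ) ^ k / (2 * n) < |α t' - α t|)).image fun i => ((t, t'), i)
  have hsub : ((X S A α n).filter fun x => |α x.1.2 - α x.1.1| ≤ θ) ⊆ (range K).biUnion Y := by
    rintro ⟨⟨t, t'⟩, i⟩ hx
    rw [mem_filter] at hx
    obtain ⟨hx, hxθ⟩ := hx
    unfold X at hx
    rw [mem_filter, mem_product, mem_product] at hx
    obtain ⟨⟨⟨ht, ht'⟩, hi⟩, hb⟩ := hx
    simp only at ht ht' hi hb hxθ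
    have hcl := bx_close hn hb
    have hex : ∃ k : ℕ, |α t' - α t| ≤ 2 ^ k / n := by
      obtain ⟨k, hk⟩ := pow_unbounded_of_one_lt (|α t' - α t| * n) (by norm_num : (1:ℝ) < 2)
      exact ⟨k, by rw [le_div_iff₀ hn0]; exact hk.le⟩
    obtain ⟨k, hk1, hk2⟩ : ∃ k : ℕ, |α t' - α t| ≤ 2 ^ k / n ∧
        (k = 0 ∨ (2:ℝ) ^ k / (2 * n) < |α t' - α t|) := by
      refine ⟨Nat.find hex, Nat.find_spec hex, ?_⟩
      rcases Nat.eq_zero_or_pos (Nat.find hex) with h0 | h0
      · exact Or.inl h0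
      · right
        have := Nat.find_min hex (m := Nat.find hex - 1) (by omega)
        rw [not_le] at this
        refine lt_of_eq_of_lt ?_ this
        obtain ⟨j, hj⟩ : ∃ j, Nat.find hex = j + 1 := ⟨Nat.find hex - 1, by omega⟩
        rw [hj, Nat.add_sub_cancel, pow_succ]
        field_simp
    have hkN : 2 ^ k ≤ N := by
      rw [hN, Nat.le_floor_iff (by positivity)]
      push_cast
      rcases hk2 with h0 | h0
      · rw [h0, pow_zero]; linarith
      · rw [div_lt_iff₀ (by positivity)] at h0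
        have : |α t' - α t| * (2 * n) ≤ θ * (2 * n) :=
          mul_le_mul_of_nonneg_right hxθ (by positivity)
        linarith
    have hkK : k < K := by
      rw [hK, Nat.lt_succ_iff]
      exact Nat.le_log_of_pow_le (by norm_num) hkN
    rw [mem_biUnion]
    refine ⟨k, mem_range.2 hkK, ?_⟩
    simp only [Y, mem_biUnion, mem_image, mem_filter]
    refine ⟨t, ht, t', ?_, i, ⟨hi, hcl, hk2⟩, rfl⟩
    unfold tube
    rw [mem_filter]
    have hi1 : (i:ℝ) / n ≤ 1 := by
      rw [div_le_one hn0]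
      exact_mod_cast (mem_range.1 hi).le
    have hi0 : 0 ≤ (i:ℝ) / n := by positivity
    have hp : (1:ℝ) ≤ 2 ^ k := one_le_pow₀ (by norm_num)
    have e2 : (2:ℝ) ^ (k + 1) / n = 2 ^ k / n + 2 ^ k / n := by rw [pow_succ]; ring
    have hpn : 1 / (n:ℝ) ≤ 2 ^ k / n := div_le_div_of_nonneg_right hp hn0.le
    refine ⟨ht', ?_, ?_⟩
    · have h1 : |A t' - A t| ≤ |(A t' - A t) + (α t' - α t) * ((i:ℝ) / n)| +
          |(α t' - α t) * ((i:ℝ) / n)| := by
        have := abs_sub_abs_le_abs_sub (A t' - A t) (-((α t' - α t) * ((i:ℝ) / n)))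
        rw [abs_neg, sub_neg_eq_add] at this
        linarith
      have h2 : |(α t' - α t) * ((i:ℝ) / n)| ≤ 2 ^ k / n := by
        rw [abs_mul, abs_of_nonneg hi0]
        calc |α t' - α t| * ((i:ℝ) / n) ≤ |α t' - α t| * 1 :=
              mul_le_mul_of_nonneg_left hi1 (abs_nonneg _)
          _ ≤ _ := by rw [mul_one]; exact hk1
      rw [e2]; linarith
    · rw [e2]
      have : (0:ℝ) ≤ 2 ^ k / n := by positivity
      linarith
  -- size of one piece
  have hY : ∀ k ∈ range K, ((Y k).card : ℝ) ≤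
      16 * W * (S.card : ℝ) ^ 2 * ((2:ℝ) / n) ^ q * ((2:ℝ) ^ q) ^ k := by
    intro k hk
    have hkN : 2 ^ k ≤ N :=
      (Nat.pow_le_pow_right (by norm_num) (by rw [mem_range, hK] at hk; omega)).trans
        (Nat.pow_log_le_self 2 (by omega))
    have hk4 : 2 ^ k ≤ 4 * n := by
      have h1 : (N:ℝ) ≤ 4 * n := hNle.trans (by nlinarith)
      have h2 : N ≤ 4 * n := by exact_mod_cast h1
      exact hkN.trans h2
    have hp : (0:ℝ) < 2 ^ k := by positivity
    have h1 : ((Y k).card : ℝ) ≤ ∑ t ∈ S, ∑ t' ∈ tube S A α n (k + 1) t, (8 * n / 2 ^ k : ℝ) := by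
      have h2 : (Y k).card ≤ ∑ t ∈ S, ∑ t' ∈ tube S A α n (k + 1) t,
          ((range n).filter fun i : ℕ =>
            |(A t' - A t) + (α t' - α t) * ((i:ℝ) / n)| < 1 / n ∧
            (k = 0 ∨ (2:ℝ) ^ k / (2 * n) < |α t' - α t|)).card := by
        refine card_biUnion_le.trans (sum_le_sum fun t _ => ?_)
        refine card_biUnion_le.trans (sum_le_sum fun t' _ => ?_)
        exact card_image_le
      refine le_trans (Nat.cast_le.2 h2) ?_
      push_cast
      refine sum_le_sum fun t _ => sum_le_sum fun t' _ => ?_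
      by_cases hc : k = 0 ∨ (2:ℝ) ^ k / (2 * n) < |α t' - α t|
      · have := card_times hn hk4 (A t' - A t) (α t' - α t) hc
        refine le_trans ?_ this
        have h3 : ((range n).filter fun i : ℕ =>
            |(A t' - A t) + (α t' - α t) * ((i:ℝ) / n)| < 1 / n ∧
            (k = 0 ∨ (2:ℝ) ^ k / (2 * n) < |α t' - α t|)).card ≤
            ((range n).filter fun i : ℕ =>
            |(A t' - A t) + (α t' - α t) * ((i:ℝ) / n)| < 1 / n).card := by
          refine card_le_card fun i hi => ?_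
          rw [mem_filter] at hi ⊢
          exact ⟨hi.1, hi.2.1⟩
        exact_mod_cast h3
      · have h3 : ((range n).filter fun i : ℕ =>
            |(A t' - A t) + (α t' - α t) * ((i:ℝ) / n)| < 1 / n ∧
            (k = 0 ∨ (2:ℝ) ^ k / (2 * n) < |α t' - α t|)) = ∅ :=
          filter_eq_empty_iff.2 fun i _ hi => hc hi.2
        rw [h3, card_empty, Nat.cast_zero]
        positivity
    refine h1.trans ?_
    have h2 : ∀ t ∈ S, ∑ t' ∈ tube S A α n (k + 1) t, (8 * n / 2 ^ k : ℝ) ≤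
        16 * W * S.card * ((2:ℝ) ^ (k + 1) / n) ^ q := by
      intro t ht
      rw [sum_const, nsmul_eq_mul]
      have h3 := h.all hn hW hq.le ht (k + 1)
      have hx : (0:ℝ) < (2:ℝ) ^ (k + 1) / n := by positivity
      have e3 : ((2:ℝ) ^ (k + 1) / n) ^ (1 + q) =
          (2:ℝ) ^ (k + 1) / n * ((2:ℝ) ^ (k + 1) / n) ^ q := by
        rw [Real.rpow_add hx, Real.rpow_one]
      calc ((tube S A α n (k + 1) t).card : ℝ) * (8 * n / 2 ^ k)
          ≤ (W * ((2:ℝ) ^ (k + 1) / n) ^ (1 + q) * S.card) * (8 * n / 2 ^ k) :=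
            mul_le_mul_of_nonneg_right h3 (by positivity)
        _ = 16 * W * S.card * ((2:ℝ) ^ (k + 1) / n) ^ q := by
            rw [e3, pow_succ]
            field_simp
            ring
    refine (sum_le_sum h2).trans ?_
    rw [sum_const, nsmul_eq_mul]
    have e4 : ((2:ℝ) ^ (k + 1) / n) ^ q = ((2:ℝ) / n) ^ q * ((2:ℝ) ^ q) ^ k := by
      have e5 : (2:ℝ) ^ (k + 1) / n = (2:ℝ) / n * 2 ^ k := by rw [pow_succ]; ring
      rw [e5, Real.mul_rpow (by positivity) (by positivity), ← Real.rpow_natCast ((2:ℝ) ^ q) k,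
        ← Real.rpow_mul (by norm_num), ← Real.rpow_natCast (2:ℝ) k,
        ← Real.rpow_mul (by norm_num), mul_comm (k:ℝ) q]
    rw [e4]
    apply le_of_eq; ring
  have hcard : (((X S A α n).filter fun x => |α x.1.2 - α x.1.1| ≤ θ).card : ℝ) ≤
      ∑ k ∈ range K, ((Y k).card : ℝ) := by
    have h1 := (card_le_card hsub).trans card_biUnion_le
    exact_mod_cast h1
  refine hcard.trans ((sum_le_sum hY).trans ?_)
  rw [← mul_sum]
  have h2q : (1:ℝ) < 2 ^ q := Real.one_lt_rpow (by norm_num) hq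
  have hd : (0:ℝ) < 2 ^ q - 1 := by linarith
  rw [geom_sum_eq (ne_of_gt h2q)]
  have h3 : (((2:ℝ) ^ q) ^ K - 1) / (2 ^ q - 1) ≤ (4 * θ * n) ^ q / (2 ^ q - 1) := by
    refine div_le_div_of_nonneg_right ?_ hd.le
    have e6 : ((2:ℝ) ^ q) ^ K = ((2:ℝ) ^ K) ^ q := by
      rw [← Real.rpow_natCast ((2:ℝ) ^ q) K, ← Real.rpow_mul (by norm_num),
        ← Real.rpow_natCast (2:ℝ) K, ← Real.rpow_mul (by norm_num), mul_comm q]
    rw [e6]
    have : ((2:ℝ) ^ K) ^ q ≤ (4 * θ * n) ^ q := Real.rpow_le_rpow (by positivity) hKN hq.le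
    linarith
  have h4 : (0:ℝ) ≤ 16 * W * (S.card : ℝ) ^ 2 * ((2:ℝ) / n) ^ q := by positivity
  refine (mul_le_mul_of_nonneg_left h3 h4).trans (le_of_eq ?_)
  have e7 : ((2:ℝ) / n) ^ q * (4 * θ * n) ^ q = 8 ^ q * θ ^ q := by
    rw [← Real.mul_rpow (by positivity) (by positivity),
      ← Real.mul_rpow (by norm_num) hθ0.le]
    congr 1
    field_simp
    ring
  unfold Cq
  calc 16 * W * (S.card : ℝ) ^ 2 * ((2:ℝ) / n) ^ q * ((4 * θ * n) ^ q / (2 ^ q - 1))
      = 16 * W * (S.card : ℝ) ^ 2 * (((2:ℝ) / n) ^ q * (4 * θ * n) ^ q) / (2 ^ q - 1) := by ring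
    _ = 16 * W * (S.card : ℝ) ^ 2 * (8 ^ q * θ ^ q) / (2 ^ q - 1) := by rw [e7]
    _ = _ := by ring

/-- **planar Cordoba** -/
theorem cord_le {S : Finset ι} {A α : ι → ℝ} {n : ℕ} {W q : ℝ} (h : TubeB S A α n W q)
    (hn : 1 ≤ n) (hW : 1 ≤ W) (hq : 0 < q) (hα : ∀ t ∈ S, |α t| ≤ 1) :
    ((X S A α n).card : ℝ) ≤ Cq q * W * 2 ^ q * (S.card : ℝ) ^ 2 := by
  classical
  have hn0 : (1:ℝ) ≤ n := by exact_mod_cast hn
  have h1 := cord_small h hn hW hq (θ := 2) (by linarith) le_rfl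
  have h2 : (X S A α n).filter (fun x => |α x.1.2 - α x.1.1| ≤ 2) = X S A α n := by
    refine filter_true_of_mem fun x hx => ?_
    unfold X at hx
    rw [mem_filter, mem_product, mem_product] at hx
    have h3 := hα _ hx.1.1.1
    have h4 := hα _ hx.1.1.2
    rw [abs_le] at h3 h4 ⊢
    constructor <;> linarith [h3.1, h3.2, h4.1, h4.2]
  rw [h2] at h1
  exact h1

open Classical in
/-- **lower bound**, for the pairs with both incidences in `G` -/
theorem cord_ge_inc {S : Finset ι} {A α : ι → ℝ} {n : ℕ} (hn : 1 ≤ n)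
    (hA : ∀ t ∈ S, |A t| ≤ 1) (hα : ∀ t ∈ S, |α t| ≤ 1) {G : Finset (ι × ℕ)}
    (hG : G ⊆ S ×ˢ range n) :
    (G.card : ℝ) ^ 2 / (5 * n ^ 2) ≤
      (((X S A α n).filter fun x => (x.1.1, x.2) ∈ G ∧ (x.1.2, x.2) ∈ G).card : ℝ) := by
  have hn0 : (0:ℝ) < n := by exact_mod_cast hn
  -- the boxes
  let lab : ι × ℕ → ℕ × ℤ := fun y => (y.2, bx A α n y.2 y.1)
  let T : Finset (ℕ × ℤ) := range n ×ˢ Finset.Icc (-(2 * (n:ℤ))) (2 * n)
  have hT : (T.card : ℝ) ≤ 5 * n ^ 2 := by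
    have h1 : T.card = n * (4 * n + 1) := by
      simp only [T, card_product, card_range, Int.card_Icc]
      congr 1
      omega
    rw [h1]; push_cast
    have : (1:ℝ) ≤ n := by exact_mod_cast hn
    nlinarith
  have hmaps : ∀ y ∈ G, lab y ∈ T := by
    intro y hy
    have hy' := mem_product.1 (hG hy)
    have h1 := abs_le.1 (hA _ hy'.1)
    have h2 := abs_le.1 (hα _ hy'.1)
    have hi := mem_range.1 hy'.2
    have hi1 : ((y.2:ℕ):ℝ) / n ≤ 1 := by
      rw [div_le_one hn0]; exact_mod_cast hi.le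
    have hi0 : 0 ≤ ((y.2:ℕ):ℝ) / n := by positivity
    simp only [lab, T, mem_product, mem_range, mem_Icc]
    refine ⟨hi, ?_, ?_⟩
    · unfold bx
      rw [Int.le_floor]
      push_cast
      have : -2 ≤ A y.1 + α y.1 * ((y.2:ℝ) / n) := by nlinarith [h1.1, h2.1]
      nlinarith
    · unfold bx
      have h3 : A y.1 + α y.1 * ((y.2:ℝ) / n) ≤ 2 := by nlinarith [h1.2, h2.2]
      have h4 : ((⌊(A y.1 + α y.1 * ((y.2:ℝ) / n)) * n⌋ : ℤ) : ℝ) ≤ ((2 * n : ℤ) : ℝ) := by
        refine (Int.floor_le _).trans ?_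
        push_cast
        nlinarith
      exact_mod_cast h4
  have hsum : G.card = ∑ b ∈ T, (G.filter fun y => lab y = b).card :=
    card_eq_sum_card_fiberwise hmaps
  have hCS : (G.card : ℝ) ^ 2 ≤ T.card * ∑ b ∈ T, ((G.filter fun y => lab y = b).card : ℝ) ^ 2 := by
    have := sq_sum_le_card_mul_sum_sq (s := T)
      (f := fun b => ((G.filter fun y => lab y = b).card : ℝ))
    rw [hsum]; push_cast
    exact this
  have hpairs : (∑ b ∈ T, (G.filter fun y => lab y = b).card ^ 2) ≤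
      ((X S A α n).filter fun x => (x.1.1, x.2) ∈ G ∧ (x.1.2, x.2) ∈ G).card := by
    have h1 : ∀ b ∈ T, (G.filter fun y => lab y = b).card ^ 2 ≤
        (((X S A α n).filter fun x => (x.1.1, x.2) ∈ G ∧ (x.1.2, x.2) ∈ G).filter
          fun x => lab (x.1.1, x.2) = b).card := by
      intro b _
      rw [sq, ← card_product]
      refine card_le_card_of_injOn (fun p : (ι × ℕ) × (ι × ℕ) => ((p.1.1, p.2.1), b.1)) ?_ ?_
      · intro p hp
        rw [mem_coe, mem_product, mem_filter, mem_filter] at hp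
        obtain ⟨⟨hp1, hl1⟩, ⟨hp2, hl2⟩⟩ := hp
        have e1 : p.1.2 = b.1 := congrArg Prod.fst hl1
        have e2 : p.2.2 = b.1 := congrArg Prod.fst hl2
        have f1 : bx A α n p.1.2 p.1.1 = b.2 := congrArg Prod.snd hl1
        have f2 : bx A α n p.2.2 p.2.1 = b.2 := congrArg Prod.snd hl2
        rw [e1] at f1
        rw [e2] at f2
        have g1 : (p.1.1, b.1) ∈ G := by rw [← e1]; exact hp1
        have g2 : (p.2.1, b.1) ∈ G := by rw [← e2]; exact hp2
        rw [mem_coe, mem_filter, mem_filter]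
        refine ⟨⟨?_, g1, g2⟩, ?_⟩
        · unfold X
          rw [mem_filter, mem_product, mem_product]
          exact ⟨⟨⟨(mem_product.1 (hG g1)).1, (mem_product.1 (hG g2)).1⟩,
            (mem_product.1 (hG g1)).2⟩, by rw [f1, f2]⟩
        · show (b.1, bx A α n b.1 p.1.1) = b
          rw [f1]
      · intro p hp p' hp' hpp
        rw [mem_coe, mem_product, mem_filter, mem_filter] at hp hp'
        have e1 : p.1.2 = b.1 := congrArg Prod.fst hp.1.2
        have e2 : p.2.2 = b.1 := congrArg Prod.fst hp.2.2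
        have e1' : p'.1.2 = b.1 := congrArg Prod.fst hp'.1.2
        have e2' : p'.2.2 = b.1 := congrArg Prod.fst hp'.2.2
        simp only [Prod.mk.injEq] at hpp
        refine Prod.ext (Prod.ext hpp.1.1 ?_) (Prod.ext hpp.1.2 ?_)
        · rw [e1, e1']
        · rw [e2, e2']
    refine (sum_le_sum h1).trans ?_
    have h2 : ∑ b ∈ T, (((X S A α n).filter fun x => (x.1.1, x.2) ∈ G ∧ (x.1.2, x.2) ∈ G).filter
          fun x => lab (x.1.1, x.2) = b).card =
        ((X S A α n).filter fun x => (x.1.1, x.2) ∈ G ∧ (x.1.2, x.2) ∈ G).card := by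
      symm
      refine card_eq_sum_card_fiberwise fun x hx => ?_
      rw [mem_coe, mem_filter] at hx
      exact hmaps _ hx.2.1
    exact h2.le
  have hpairs' : ∑ b ∈ T, ((G.filter fun y => lab y = b).card : ℝ) ^ 2 ≤
      (((X S A α n).filter fun x => (x.1.1, x.2) ∈ G ∧ (x.1.2, x.2) ∈ G).card : ℝ) := by
    exact_mod_cast hpairs
  rw [div_le_iff₀ (by positivity)]
  have h0 : (0:ℝ) ≤ ∑ b ∈ T, ((G.filter fun y => lab y = b).card : ℝ) ^ 2 :=
    sum_nonneg fun _ _ => by positivity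
  calc (G.card : ℝ) ^ 2 ≤ T.card * ∑ b ∈ T, ((G.filter fun y => lab y = b).card : ℝ) ^ 2 := hCS
    _ ≤ (5 * n ^ 2) * ∑ b ∈ T, ((G.filter fun y => lab y = b).card : ℝ) ^ 2 :=
        mul_le_mul_of_nonneg_right hT h0
    _ ≤ (5 * n ^ 2) * (((X S A α n).filter fun x => (x.1.1, x.2) ∈ G ∧ (x.1.2, x.2) ∈ G).card : ℝ) :=
        mul_le_mul_of_nonneg_left hpairs' (by positivity)
    _ = _ := by ring

open Classical in
/-- **crossing pairs with large angle and both incidences in `G`** -/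
theorem cross_inc {S : Finset ι} {A α : ι → ℝ} {n : ℕ} {W q : ℝ} (h : TubeB S A α n W q)
    (hn : 1 ≤ n) (hW : 1 ≤ W) (hq : 0 < q) (hA : ∀ t ∈ S, |A t| ≤ 1) (hα : ∀ t ∈ S, |α t| ≤ 1)
    {G : Finset (ι × ℕ)} (hG : G ⊆ S ×ˢ range n) {γ : ℝ} (hγ : 0 ≤ γ)
    (hGc : γ * n * S.card ≤ G.card) {θ : ℝ} (hθ : 1 ≤ θ * n) (hθ2 : θ ≤ 2)
    (hθW : Cq q * W * θ ^ q ≤ γ ^ 2 / 10) :
    γ ^ 2 / 10 * (S.card : ℝ) ^ 2 ≤
      (((X S A α n).filter fun x => ((x.1.1, x.2) ∈ G ∧ (x.1.2, x.2) ∈ G) ∧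
        θ < |α x.1.2 - α x.1.1|).card : ℝ) := by
  have hn0 : (0:ℝ) < n := by exact_mod_cast hn
  have h1 := cord_ge_inc (A := A) (α := α) hn hA hα hG
  have h2 := cord_small h hn hW hq hθ hθ2
  set P := (X S A α n).filter fun x => (x.1.1, x.2) ∈ G ∧ (x.1.2, x.2) ∈ G with hP
  have h3 : (P.card : ℝ) ≤ ((P.filter fun x => θ < |α x.1.2 - α x.1.1|).card : ℝ) +
      (((X S A α n).filter fun x => |α x.1.2 - α x.1.1| ≤ θ).card : ℝ) := by
    have e1 := card_filter_add_card_filter_not (s := P) (fun x => θ < |α x.1.2 - α x.1.1|)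
    have e2 : (P.filter fun x => ¬ θ < |α x.1.2 - α x.1.1|).card ≤
        ((X S A α n).filter fun x => |α x.1.2 - α x.1.1| ≤ θ).card := by
      refine card_le_card fun x hx => ?_
      rw [mem_filter, hP, mem_filter] at hx
      rw [mem_filter]
      exact ⟨hx.1.1, not_lt.1 hx.2⟩
    have e3 : P.card ≤ (P.filter fun x => θ < |α x.1.2 - α x.1.1|).card +
        ((X S A α n).filter fun x => |α x.1.2 - α x.1.1| ≤ θ).card := by omega
    exact_mod_cast e3
  have h4 : P.filter (fun x => θ < |α x.1.2 - α x.1.1|) =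
      (X S A α n).filter fun x => ((x.1.1, x.2) ∈ G ∧ (x.1.2, x.2) ∈ G) ∧
        θ < |α x.1.2 - α x.1.1| := by
    rw [hP, filter_filter]
  rw [h4] at h3
  have h5 : γ ^ 2 / 5 * (S.card : ℝ) ^ 2 ≤ (G.card : ℝ) ^ 2 / (5 * n ^ 2) := by
    rw [le_div_iff₀ (by positivity)]
    have h6 : (γ * n * S.card) ^ 2 ≤ (G.card : ℝ) ^ 2 :=
      pow_le_pow_left₀ (by positivity) hGc 2
    calc γ ^ 2 / 5 * (S.card : ℝ) ^ 2 * (5 * n ^ 2) = (γ * n * S.card) ^ 2 := by ring
      _ ≤ _ := h6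
  have h7 : Cq q * W * θ ^ q * (S.card : ℝ) ^ 2 ≤ γ ^ 2 / 10 * (S.card : ℝ) ^ 2 :=
    mul_le_mul_of_nonneg_right hθW (by positivity)
  have h8 : γ ^ 2 / 5 * (S.card : ℝ) ^ 2 =
      γ ^ 2 / 10 * (S.card : ℝ) ^ 2 + γ ^ 2 / 10 * (S.card : ℝ) ^ 2 := by ring
  linarith

open Classical in
/-- number of lines of `S` in the box of `t` at the time `i/n` -/
noncomputable def mul (S : Finset ι) (A α : ι → ℝ) (n : ℕ) (y : ι × ℕ) : ℕ :=
  (S.filter fun t' => bx A α n y.2 y.1 = bx A α n y.2 t').card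

theorem sum_mul (S : Finset ι) (A α : ι → ℝ) (n : ℕ) :
    ∑ y ∈ S ×ˢ range n, mul S A α n y = (X S A α n).card := by
  classical
  unfold X
  rw [card_filter, sum_product, sum_product, sum_product]
  refine sum_congr rfl fun t _ => ?_
  rw [sum_comm]
  refine sum_congr rfl fun i _ => ?_
  unfold mul
  rw [card_filter]

open Classical in
/-- **typical incidences are good** -/
theorem good_inc {S : Finset ι} {A α : ι → ℝ} {n : ℕ} {W q : ℝ} (h : TubeB S A α n W q)
    (hn : 1 ≤ n) (hW : 1 ≤ W) (hq : 0 < q) (hα : ∀ t ∈ S, |α t| ≤ 1) {K : ℝ} (hK : 0 < K) :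
    (((S ×ˢ range n).filter fun y => K * W * S.card / n < mul S A α n y).card : ℝ) ≤
      Cq q * 2 ^ q / K * (n * S.card) := by
  have hn0 : (0:ℝ) < n := by exact_mod_cast hn
  have h1 := cord_le h hn hW hq hα
  rw [← sum_mul] at h1
  push_cast at h1
  rcases S.eq_empty_or_nonempty with hS | hS
  · subst hS; simp
  have hS0 : (0:ℝ) < S.card := by exact_mod_cast hS.card_pos
  set B := (S ×ˢ range n).filter fun y => K * W * S.card / n < mul S A α n y with hB
  have h2 : (B.card : ℝ) * (K * W * S.card / n) ≤ ∑ y ∈ S ×ˢ range n, (mul S A α n y : ℝ) := by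
    calc (B.card : ℝ) * (K * W * S.card / n) = ∑ _y ∈ B, (K * W * S.card / n : ℝ) := by
          rw [sum_const, nsmul_eq_mul]
      _ ≤ ∑ y ∈ B, (mul S A α n y : ℝ) :=
          sum_le_sum fun y hy => (mem_filter.1 hy).2.le
      _ ≤ _ := sum_le_sum_of_subset_of_nonneg (filter_subset _ _)
          fun _ _ _ => Nat.cast_nonneg _
  have hp : 0 < K * W * S.card / n := by positivity
  rw [← le_div_iff₀ hp] at h2
  refine (h2.trans (div_le_div_of_nonneg_right h1 hp.le)).trans (le_of_eq ?_)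
  field_simp

end Crest.Agent.R136.PlC372
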