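import Crest.Agent.R136.Plh_571
import Crest.Agent.R136.Pl7c_186
import Crest.Agent.R136.Cap2_102

/-!
# R136, PLAN 2 (AL), plank hypothesis of (KMb): the strip count for the flat scale (helper571)

`strip_flat` : lines of a sheet `S` in the strip `(β, σ)` around one of its lines, when the sheet is
flat up to `K a` along the strip; the test is a flat box, no lower bound for `w 0`.
-/

set_option autoImplicit false
set_option linter.unusedVariables false

open Finset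

namespace Crest.Agent.R136.Plh571

open Crest.Agent.R136.Sh605
open Crest.Agent.R136.K4 (Plk4)
open Crest.Agent.R136.Tlt51 (Shp InP)
open Crest.Agent.R136.Tl102
open Crest.Agent.R136.Nd565 (FlatAt Stp sA sB)
open Crest.Agent.R136.Phc248
open Crest.Agent.R136.Pl7186 (DMx par_count rw3 rw3_dt rw3_self det_rows det_abs1)
open Crest.Agent.R136.HR829 (crs)

/-- the capacity of a flat box of volume `≤ C β σ` and lengths `≤ D β` -/
theorem cap_fl {qm qp : Fin 3 → ℝ} (hq : ∀ k, 0 ≤ qm k ∧ qm k ≤ qp k) (h1 : qp 0 ≤ qm 1)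
    (h2 : qp 0 ≤ qm 2) {z x y D C β σ : ℝ} (hz : 0 < z) (hx : 0 < x) (hy : 0 < y) (hD : 1 ≤ D)
    (hC : 1 ≤ C) (hσ : 0 < σ) (hσβ : σ ≤ β) (hβ1 : β ≤ 1) (hxD : x ≤ D * β) (hyD : y ≤ D * β)
    (hV : x * y * z ≤ C * (β * σ)) :
    ph (qm 0) (qp 0) z * ph (qm 1) (qp 1) x * ph (qm 2) (qp 2) y ≤
      D ^ (2 + qp 1 + qp 2) * C ^ (1 + qp 0) * ((β * σ) * β ^ (qm 1 + qm 2)) := by
  have hβ : 0 < β := hσ.trans_le hσβ
  have hD0 : 0 < D := by linarith
  have hC0 : 0 < C := by linarith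
  set x' := x / D with hx'
  set y' := y / D with hy'
  have x'p : 0 < x' := by positivity
  have y'p : 0 < y' := by positivity
  have ex : x = D * x' := by rw [hx']; field_simp
  have ey : y = D * y' := by rw [hy']; field_simp
  have x'β : x' ≤ β := by rw [hx', div_le_iff₀ hD0, mul_comm]; exact hxD
  have y'β : y' ≤ β := by rw [hy', div_le_iff₀ hD0, mul_comm]; exact hyD
  have hV' : z * (x' * y') ≤ C * (β * σ) := by
    refine le_trans ?_ hV
    have e : x * y * z = D * D * (z * (x' * y')) := by rw [ex, ey]; ring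
    rw [e]
    have : (1 : ℝ) ≤ D * D := one_le_mul_of_one_le_of_one_le hD hD
    exact le_mul_of_one_le_left (by positivity) this
  have p1 : ph (qm 1) (qp 1) x ≤ D ^ (1 + qp 1) * x' ^ (1 + qm 1) := by
    rw [ex]
    refine (ph_mul (hq 1).1 (hq 1).2 x'p.le hD).trans (le_of_eq ?_)
    rw [ph_le_one (hq 1).1 (hq 1).2 x'p.le (x'β.trans hβ1)]
  have p2 : ph (qm 2) (qp 2) y ≤ D ^ (1 + qp 2) * y' ^ (1 + qm 2) := by
    rw [ey]
    refine (ph_mul (hq 2).1 (hq 2).2 y'p.le hD).trans (le_of_eq ?_)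
    rw [ph_le_one (hq 2).1 (hq 2).2 y'p.le (y'β.trans hβ1)]
  have n0 : 0 ≤ ph (qm 0) (qp 0) z := ph_nonneg hz.le
  have n1 : 0 ≤ ph (qm 1) (qp 1) x := ph_nonneg hx.le
  have n2 : 0 ≤ ph (qm 2) (qp 2) y := ph_nonneg hy.le
  have eD : D ^ (2 + qp 1 + qp 2) = D ^ (1 + qp 1) * D ^ (1 + qp 2) := by
    rw [← Real.rpow_add hD0]; congr 1; ring
  -- the core inequality
  have core : ph (qm 0) (qp 0) z * (x' ^ (1 + qm 1) * y' ^ (1 + qm 2)) ≤
      C ^ (1 + qp 0) * ((β * σ) * β ^ (qm 1 + qm 2)) := by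
    have hCC : C ≤ C ^ (1 + qp 0) := by
      calc C = C ^ (1 : ℝ) := (Real.rpow_one C).symm
        _ ≤ C ^ (1 + qp 0) := Real.rpow_le_rpow_of_exponent_le hC (by linarith [(hq 0).1, (hq 0).2])
    rcases le_total z 1 with hz1 | hz1
    · rw [ph_le_one (hq 0).1 (hq 0).2 hz.le hz1]
      have a0 : z ^ (1 + qm 0) ≤ z := by
        calc z ^ (1 + qm 0) ≤ z ^ (1 : ℝ) :=
              Real.rpow_le_rpow_of_exponent_ge hz hz1 (by linarith [(hq 0).1])
          _ = z := Real.rpow_one z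
      have a1 : x' ^ qm 1 ≤ β ^ qm 1 := Real.rpow_le_rpow x'p.le x'β (hq 1).1
      have a2 : y' ^ qm 2 ≤ β ^ qm 2 := Real.rpow_le_rpow y'p.le y'β (hq 2).1
      have b1 : 0 < x' ^ qm 1 := Real.rpow_pos_of_pos x'p _
      have b2 : 0 < y' ^ qm 2 := Real.rpow_pos_of_pos y'p _
      rw [Real.rpow_add x'p, Real.rpow_add y'p, Real.rpow_one, Real.rpow_one, Real.rpow_add hβ]
      calc z ^ (1 + qm 0) * (x' * x' ^ qm 1 * (y' * y' ^ qm 2))
          ≤ z * (x' * x' ^ qm 1 * (y' * y' ^ qm 2)) := by gcongr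
        _ = z * (x' * y') * (x' ^ qm 1 * y' ^ qm 2) := by ring
        _ ≤ C * (β * σ) * (β ^ qm 1 * β ^ qm 2) := by gcongr
        _ = C * ((β * σ) * (β ^ qm 1 * β ^ qm 2)) := by ring
        _ ≤ C ^ (1 + qp 0) * ((β * σ) * (β ^ qm 1 * β ^ qm 2)) := by gcongr
    · rw [ph_ge_one (hq 0).2 hz1]
      have hp0 : 0 ≤ qp 0 := (hq 0).1.trans (hq 0).2
      have e1 : z ^ (1 + qp 0) * (x' ^ (1 + qm 1) * y' ^ (1 + qm 2)) =
          (z * (x' * y')) ^ (1 + qp 0) * (x' ^ (qm 1 - qp 0) * y' ^ (qm 2 - qp 0)) := by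
        rw [Real.mul_rpow hz.le (by positivity), Real.mul_rpow x'p.le y'p.le]
        have f1 : x' ^ (1 + qm 1) = x' ^ (1 + qp 0) * x' ^ (qm 1 - qp 0) := by
          rw [← Real.rpow_add x'p]; congr 1; ring
        have f2 : y' ^ (1 + qm 2) = y' ^ (1 + qp 0) * y' ^ (qm 2 - qp 0) := by
          rw [← Real.rpow_add y'p]; congr 1; ring
        rw [f1, f2]; ring
      rw [e1]
      have a1 : x' ^ (qm 1 - qp 0) ≤ β ^ (qm 1 - qp 0) :=
        Real.rpow_le_rpow x'p.le x'β (by linarith)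
      have a2 : y' ^ (qm 2 - qp 0) ≤ β ^ (qm 2 - qp 0) :=
        Real.rpow_le_rpow y'p.le y'β (by linarith)
      have a3 : (z * (x' * y')) ^ (1 + qp 0) ≤ (C * (β * σ)) ^ (1 + qp 0) :=
        Real.rpow_le_rpow (by positivity) hV' (by linarith)
      have a4 : (C * (β * σ)) ^ (1 + qp 0) ≤ C ^ (1 + qp 0) * ((β * σ) * (β ^ qp 0 * β ^ qp 0)) := by
        rw [Real.mul_rpow hC0.le (by positivity), Real.rpow_add (by positivity : 0 < β * σ),
          Real.rpow_one, Real.mul_rpow hβ.le hσ.le]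
        have : σ ^ qp 0 ≤ β ^ qp 0 := Real.rpow_le_rpow hσ.le hσβ hp0
        gcongr
      have b1 : 0 < x' ^ (qm 1 - qp 0) := Real.rpow_pos_of_pos x'p _
      have b2 : 0 < y' ^ (qm 2 - qp 0) := Real.rpow_pos_of_pos y'p _
      have e2 : β ^ qp 0 * β ^ qp 0 * (β ^ (qm 1 - qp 0) * β ^ (qm 2 - qp 0)) =
          β ^ (qm 1 + qm 2) := by
        rw [← Real.rpow_add hβ, ← Real.rpow_add hβ, ← Real.rpow_add hβ]; congr 1; ring
      calc (z * (x' * y')) ^ (1 + qp 0) * (x' ^ (qm 1 - qp 0) * y' ^ (qm 2 - qp 0))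
          ≤ (C ^ (1 + qp 0) * ((β * σ) * (β ^ qp 0 * β ^ qp 0))) *
            (β ^ (qm 1 - qp 0) * β ^ (qm 2 - qp 0)) := by
            refine mul_le_mul (a3.trans a4) ?_ (by positivity) (by positivity)
            gcongr
        _ = C ^ (1 + qp 0) * ((β * σ) * (β ^ qp 0 * β ^ qp 0 *
            (β ^ (qm 1 - qp 0) * β ^ (qm 2 - qp 0)))) := by ring
        _ = _ := by rw [e2]
  calc ph (qm 0) (qp 0) z * ph (qm 1) (qp 1) x * ph (qm 2) (qp 2) y
      ≤ ph (qm 0) (qp 0) z * (D ^ (1 + qp 1) * x' ^ (1 + qm 1)) *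
          (D ^ (1 + qp 2) * y' ^ (1 + qm 2)) := by
        refine mul_le_mul (mul_le_mul_of_nonneg_left p1 n0) p2 n2 (by positivity)
    _ = (D ^ (1 + qp 1) * D ^ (1 + qp 2)) *
          (ph (qm 0) (qp 0) z * (x' ^ (1 + qm 1) * y' ^ (1 + qm 2))) := by ring
    _ ≤ (D ^ (1 + qp 1) * D ^ (1 + qp 2)) * (C ^ (1 + qp 0) * ((β * σ) * β ^ (qm 1 + qm 2))) := by
        gcongr
    _ = _ := by rw [eD]; ring

/-- **height of a point of the sheet over the tangent plane**, with the value on the tangent plane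
(helper102's `yc_le`) -/
theorem yc_le' {e : Fin 3 → V3} {c : Ln4} {w : V3} {q : ℝ → V3 → ℝ} {z0 ρ : ℝ}
    (S : StP e c w q z0 ρ) (hρ : 0 ≤ ρ) {T : Ln4}
    (hT : ∀ z, z0 ≤ z → z ≤ z0 + ρ → InK e c w z (T.pos z)) {b0 b1 : V3} {G : QF}
    (hE : IsExp q e w T z0 ρ b0 b1 G) {ζ : ℝ} (hζ : 0 ≤ ζ) (hζ' : ζ ≤ 1) {X : V3}
    (hX : InK e c w (z0 + ρ * ζ) X)
    (h1 : |pc e w T (z0 + ρ * ζ) X 1| ≤ 1 / 8) (h2 : |pc e w T (z0 + ρ * ζ) X 2| ≤ 1 / 8) {Φ : ℝ}
    (hF : |Fq (shB0 b0) (shB1 b0 b1) (shG b0 G) ζ ![0, pc e w T (z0 + ρ * ζ) X 1,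
      pc e w T (z0 + ρ * ζ) X 2]| ≤ Φ) :
    w 0 * |yc b0 (pc e w T (z0 + ρ * ζ) X)| ≤
      2 * (|q (z0 + ρ * ζ) X| + |q (z0 + ρ * ζ) (T.pos (z0 + ρ * ζ))|) + 2 * (w 0 * Φ) := by
  have N := hE.nrmC S hρ hT
  obtain ⟨g1, g2, -, -, -, -, -, s1, s2⟩ := N.b1_le
  have hw0 := S.pos 0
  have hwn : ∀ i, 0 ≤ w i := fun i => (S.pos i).le
  have hwne : ∀ i, w i ≠ 0 := fun i => (S.pos i).ne'
  set z := z0 + ρ * ζ with hz
  have z1 : z0 ≤ z := by rw [hz]; nlinarith
  have z2 : z ≤ z0 + ρ := by rw [hz]; nlinarith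
  set x := pc e w T z X with hx
  set y := yc b0 x with hy
  set P := T.pos z + cmb (fr e w) (unsh b0 0 (x 1) (x 2)) with hP
  have hxX : T.pos z + cmb (fr e w) x = X := cmb_pc S.ortho hwne T z X
  have hu0 : ∀ i, |(unsh b0 0 (x 1) (x 2)) i| ≤ 1 := by
    intro i
    fin_cases i
    · change |0 - b0 1 / b0 0 * x 1 - b0 2 / b0 0 * x 2| ≤ 1
      have a1 := mul_abs_le s1 h1
      have a2 := mul_abs_le s2 h2
      rw [abs_le] at a1 a2 ⊢
      constructor <;> linarith [a1.1, a1.2, a2.1, a2.2]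
    · exact h1.trans (by norm_num)
    · exact h2.trans (by norm_num)
  have hPK : InK e c (dbl3 w) z P := inK_cmb S.ortho hwn (hT z z1 z2) hu0
  have hXK : InK e c (dbl3 w) z X := by
    intro i
    have := hX i
    change _ ≤ 2 * w i
    linarith [hwn i]
  have hXP : X = P + (y * w 0) • e 0 := by
    rw [← hxX, hP]
    ext i
    have e0 : x 0 = y - b0 1 / b0 0 * x 1 - b0 2 / b0 0 * x 2 := by rw [hy]; unfold yc; ring
    simp only [Pi.add_apply, cmb, fr, Pi.smul_apply, smul_eq_mul, unsh, Matrix.cons_val, e0]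
    ring
  have hst : w 0 * |y| ≤ 2 * |q z X - q z P| := by
    rcases le_total 0 y with h0 | h0
    · have hy0 : 0 ≤ y * w 0 := mul_nonneg h0 hw0.le
      have := (S.st0 z z1 z2 P (y * w 0) hy0 hPK (by rw [← hXP]; exact hXK)).1
      rw [← hXP] at this
      rw [abs_of_nonneg h0]
      have h3 := le_abs_self (q z X - q z P)
      have h4 : w 0 * y = y * w 0 := by ring
      rw [h4]; linarith
    · have hy0 : 0 ≤ -y * w 0 := mul_nonneg (by linarith) hw0.le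
      have hPX : P = X + (-y * w 0) • e 0 := by
        rw [hXP]
        ext i
        simp only [Pi.add_apply, Pi.smul_apply, smul_eq_mul]
        ring
      have := (S.st0 z z1 z2 X (-y * w 0) hy0 hXK (by rw [← hPX]; exact hPK)).1
      rw [← hPX] at this
      rw [abs_of_nonpos h0, abs_sub_comm]
      have h3 := le_abs_self (q z P - q z X)
      have h4 : w 0 * -y = -y * w 0 := by ring
      rw [h4]; linarith
  have hPv : q z P = q z (T.pos z) + w 0 * Fq (shB0 b0) (shB1 b0 b1) (shG b0 G) ζ ![0, x 1, x 2] := by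
    rw [← Fq_unsh (by linarith : b0 0 ≠ 0), hP, hz]
    exact hE ζ _
  have h3 : |q z X - q z P| ≤ (|q z X| + |q z (T.pos z)|) + w 0 * Φ := by
    rw [hPv]
    have e1 : q z X - (q z (T.pos z) + w 0 * Fq (shB0 b0) (shB1 b0 b1) (shG b0 G) ζ ![0, x 1, x 2]) =
        (q z X - q z (T.pos z)) -
          w 0 * Fq (shB0 b0) (shB1 b0 b1) (shG b0 G) ζ ![0, x 1, x 2] := by ring
    rw [e1]
    refine (abs_sub _ _).trans (add_le_add (abs_sub _ _) ?_)
    rw [abs_mul, abs_of_pos hw0]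
    exact mul_le_mul_of_nonneg_left hF hw0.le
  calc w 0 * |y| ≤ 2 * |q z X - q z P| := hst
    _ ≤ 2 * ((|q z X| + |q z (T.pos z)|) + w 0 * Φ) := by linarith
    _ = _ := by ring

theorem nn_bd {nA nB : ℝ} (hn : nA ^ 2 + nB ^ 2 = 1) : |nA| ≤ 1 ∧ |nB| ≤ 1 ∧
    |nA * nB| ≤ 1 / 2 ∧ |nA ^ 2 - nB ^ 2| ≤ 1 ∧ |nA ^ 2| ≤ 1 ∧ |nB ^ 2| ≤ 1 := by
  have a := sq_nonneg nA
  have b := sq_nonneg nB
  refine ⟨abs_le_one_iff_mul_self_le_one.2 (by nlinarith), abs_le_one_iff_mul_self_le_one.2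
    (by nlinarith), ?_, ?_, ?_, ?_⟩
  · rw [abs_le]
    constructor
    · nlinarith [sq_nonneg (nA + nB)]
    · nlinarith [sq_nonneg (nA - nB)]
  · rw [abs_le]
    constructor <;> linarith
  · rw [abs_of_nonneg a]; linarith
  · rw [abs_of_nonneg b]; linarith

/-- the value on the tangent plane, in a strip -/
theorem tan_le {b0 b1 : V3} {G : QF} {nA nB β σ ζ A B : ℝ} (hn : nA ^ 2 + nB ^ 2 = 1)
    (hζ : 0 ≤ ζ) (hζ' : ζ ≤ 1) (hσ : 0 ≤ σ) (hσβ : σ ≤ β) (hβ1 : β ≤ 1) (hA : |A| ≤ β)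
    (hB : |B| ≤ β) (hAB : |nA * A + nB * B| ≤ σ) :
    |Fq (shB0 b0) (shB1 b0 b1) (shG b0 G) ζ ![0, A, B]| ≤
      4 * (|kap b0 b1 G * (scB1 (kap b0 b1 G) b0 b1 1 * (-nB) +
        scB1 (kap b0 b1 G) b0 b1 2 * nA)| * β +
      |kap b0 b1 G * ((scG (kap b0 b1 G) b0 G).uu * nB ^ 2 - (scG (kap b0 b1 G) b0 G).uv * nA * nB +
        (scG (kap b0 b1 G) b0 G).vv * nA ^ 2)| * β ^ 2) + 13 * (kap b0 b1 G * σ) := by
  obtain ⟨r1, r2, r3, r4, r5⟩ := kap_mul_scB1 b0 b1 G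
  have k1 : |shB1 b0 b1 1| ≤ kap b0 b1 G := (le_max_left _ _).trans (le_max_left _ _)
  have k2 : |shB1 b0 b1 2| ≤ kap b0 b1 G := (le_max_right _ _).trans (le_max_left _ _)
  have k3 : |(shG b0 G).uu| ≤ kap b0 b1 G :=
    ((le_max_left _ _).trans (le_max_left _ _)).trans (le_max_right _ _)
  have k4 : |(shG b0 G).uv| ≤ kap b0 b1 G :=
    ((le_max_right _ _).trans (le_max_left _ _)).trans (le_max_right _ _)
  have k5 : |(shG b0 G).vv| ≤ kap b0 b1 G := (le_max_right _ _).trans (le_max_right _ _)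
  have f1 : kap b0 b1 G * (scB1 (kap b0 b1 G) b0 b1 1 * (-nB) +
      scB1 (kap b0 b1 G) b0 b1 2 * nA) = shB1 b0 b1 1 * (-nB) + shB1 b0 b1 2 * nA := by
    rw [← r1, ← r2]; ring
  have f2 : kap b0 b1 G * ((scG (kap b0 b1 G) b0 G).uu * nB ^ 2 -
      (scG (kap b0 b1 G) b0 G).uv * nA * nB + (scG (kap b0 b1 G) b0 G).vv * nA ^ 2) =
      (shG b0 G).uu * nB ^ 2 - (shG b0 G).uv * nA * nB + (shG b0 G).vv * nA ^ 2 := by
    rw [← r3, ← r4, ← r5]; ring
  rw [f1, f2]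
  set κ := kap b0 b1 G with hκ
  have hκ0 : 0 ≤ κ := (abs_nonneg _).trans k1
  set g1 := shB1 b0 b1 1
  set g2 := shB1 b0 b1 2
  set u1 := (shG b0 G).uu
  set u2 := (shG b0 G).uv
  set u3 := (shG b0 G).vv
  have hβ0 : 0 ≤ β := (abs_nonneg _).trans hA
  obtain ⟨nA1, nB1, q1, q2, q3, q4⟩ := nn_bd hn
  set X := -nB * A + nA * B with hX
  set Y := nA * A + nB * B with hY
  have eA : A = -nB * X + nA * Y := by
    rw [hX, hY]; linear_combination (-A) * hn
  have eB : B = nA * X + nB * Y := by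
    rw [hX, hY]; linear_combination (-B) * hn
  have hXb : |X| ≤ 2 * β := by
    have a1 := mul_abs_le (by rw [abs_neg]; exact nB1 : |-nB| ≤ 1) hA
    have a2 := mul_abs_le nA1 hB
    rw [hX]
    refine (abs_add_le _ _).trans ?_
    linarith
  have e1 : Fq (shB0 b0) (shB1 b0 b1) (shG b0 G) ζ ![0, A, B] =
      ζ * ((g1 * (-nB) + g2 * nA) * X) + ζ * ((g1 * nA + g2 * nB) * Y) +
      ((u1 * nB ^ 2 - u2 * nA * nB + u3 * nA ^ 2) * X ^ 2 +
        (u1 * (-(2 * (nA * nB))) + u2 * (nA ^ 2 - nB ^ 2) + u3 * (2 * (nA * nB))) * (X * Y) +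
        (u1 * nA ^ 2 + u2 * (nA * nB) + u3 * nB ^ 2) * Y ^ 2) := by
    have e0 : Fq (shB0 b0) (shB1 b0 b1) (shG b0 G) ζ ![0, A, B] =
        ζ * (g1 * A + g2 * B) + (u1 * A ^ 2 + u2 * (A * B) + u3 * B ^ 2) := by
      simp only [Fq, dt, bz, QF.ev, shB0, Matrix.cons_val, g1, g2, u1, u2, u3]
      ring
    rw [e0]
    conv_lhs => rw [eA, eB]
    ring
  rw [e1]
  have hζa : |ζ| ≤ 1 := by rw [abs_of_nonneg hζ]; exact hζ'
  set Lb := g1 * (-nB) + g2 * nA
  set hb := u1 * nB ^ 2 - u2 * nA * nB + u3 * nA ^ 2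
  have t1 : |ζ * (Lb * X)| ≤ 1 * (|Lb| * (2 * β)) := mul_abs_le hζa (mul_abs_le le_rfl hXb)
  have t2a : |g1 * nA + g2 * nB| ≤ κ * 1 + κ * 1 :=
    Arc880.abs_add2 (mul_abs_le k1 nA1) (mul_abs_le k2 nB1)
  have t2 : |ζ * ((g1 * nA + g2 * nB) * Y)| ≤ 1 * ((κ * 1 + κ * 1) * σ) :=
    mul_abs_le hζa (mul_abs_le t2a hAB)
  have t3 : |hb * X ^ 2| ≤ |hb| * (2 * β) ^ 2 := by
    rw [abs_mul, abs_of_nonneg (sq_nonneg X), ← sq_abs X]
    gcongr
  have t4a : |u1 * (-(2 * (nA * nB))) + u2 * (nA ^ 2 - nB ^ 2) + u3 * (2 * (nA * nB))| ≤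
      κ * 1 + κ * 1 + κ * 1 := by
    have c1 : |-(2 * (nA * nB))| ≤ 1 := by
      rw [abs_neg, abs_mul, abs_of_pos (by norm_num : (0:ℝ) < 2)]; linarith
    have c2 : |2 * (nA * nB)| ≤ 1 := by
      rw [abs_mul, abs_of_pos (by norm_num : (0:ℝ) < 2)]; linarith
    exact Arc880.abs_add2 (Arc880.abs_add2 (mul_abs_le k3 c1) (mul_abs_le k4 q2))
      (mul_abs_le k5 c2)
  have t4 := mul_abs_le t4a (mul_abs_le hXb hAB)
  have t5a : |u1 * nA ^ 2 + u2 * (nA * nB) + u3 * nB ^ 2| ≤ κ * 1 + κ * (1 / 2) + κ * 1 :=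
    Arc880.abs_add2 (Arc880.abs_add2 (mul_abs_le k3 q3) (mul_abs_le k4 q1)) (mul_abs_le k5 q4)
  have t5 : |(u1 * nA ^ 2 + u2 * (nA * nB) + u3 * nB ^ 2) * Y ^ 2| ≤
      (κ * 1 + κ * (1 / 2) + κ * 1) * σ ^ 2 := by
    rw [abs_mul, abs_of_nonneg (sq_nonneg Y), ← sq_abs Y]
    gcongr
  refine (Arc880.abs_add2 (Arc880.abs_add2 t1 t2) (Arc880.abs_add2 (Arc880.abs_add2 t3 t4)
    t5)).trans ?_
  have s1 : 0 ≤ κ * σ := mul_nonneg hκ0 hσ
  have s2 : κ * (β * σ) ≤ κ * σ := by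
    refine mul_le_mul_of_nonneg_left ?_ hκ0
    calc β * σ ≤ 1 * σ := mul_le_mul_of_nonneg_right hβ1 hσ
      _ = σ := one_mul σ
  have s3 : κ * σ ^ 2 ≤ κ * σ := by
    refine mul_le_mul_of_nonneg_left ?_ hκ0
    calc σ ^ 2 = σ * σ := sq σ
      _ ≤ 1 * σ := mul_le_mul_of_nonneg_right (hσβ.trans hβ1) hσ
      _ = σ := one_mul σ
  have s4 : 0 ≤ |Lb| * β := mul_nonneg (abs_nonneg _) hβ0
  linarith

theorem row_sq {nA nB t : ℝ} (hn : nA ^ 2 + nB ^ 2 = 1) (ht0 : 0 ≤ t) (ht1 : t ≤ 1) :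
    (nA * t) ^ 2 + nB ^ 2 ≤ 1 := by
  have h : t ^ 2 ≤ 1 := by nlinarith
  have h2 := sq_nonneg nA
  calc (nA * t) ^ 2 + nB ^ 2 = nA ^ 2 * t ^ 2 + nB ^ 2 := by ring
    _ ≤ nA ^ 2 * 1 + nB ^ 2 := by gcongr
    _ = 1 := by rw [mul_one, hn]

theorem sq_le4 {t : ℝ} (h : |t| ≤ 2) : t ^ 2 ≤ 4 := by
  rw [← sq_abs]; nlinarith [abs_nonneg t]

theorem nine_le (a : ℝ) : a ^ 2 * (1 ^ 2 + 4 + 4) ≤ (38 * a) ^ 2 := by
  nlinarith [sq_nonneg a]

/-- inverse of the rotation -/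
theorem rot_le {nA nB A B x y : ℝ} (hn : nA ^ 2 + nB ^ 2 = 1) (h1 : |nA * A + nB * B| ≤ x)
    (h2 : |-nB * A + nA * B| ≤ y) : |A| ≤ x + y ∧ |B| ≤ x + y := by
  obtain ⟨nA1, nB1, -⟩ := nn_bd hn
  have eA : A = nA * (nA * A + nB * B) + -nB * (-nB * A + nA * B) := by
    linear_combination (-A) * hn
  have eB : B = nB * (nA * A + nB * B) + nA * (-nB * A + nA * B) := by
    linear_combination (-B) * hn
  have nB1' : |-nB| ≤ 1 := by rw [abs_neg]; exact nB1
  constructor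
  · rw [eA]
    refine (abs_add_le _ _).trans ?_
    have a1 := mul_abs_le nA1 h1
    have a2 := mul_abs_le nB1' h2
    linarith
  · rw [eB]
    refine (abs_add_le _ _).trans ?_
    have a1 := mul_abs_le nB1 h1
    have a2 := mul_abs_le nA1 h2
    linarith

set_option maxHeartbeats 1600000 in
open Classical in
/-- **strip count for the flat scale**: the sheet is flat up to `K a` along the strip `(β, σ)` around
the line `T` of `S`; no lower bound for `w 0`. -/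
theorem strip_flat {ι : Type*} {qm qp : Fin 3 → ℝ} (hq : ∀ k, 0 ≤ qm k ∧ qm k ≤ qp k)
    (hq1 : qp 0 ≤ qm 1) (hq2 : qp 0 ≤ qm 2) {P : Finset ι} {L : ι → Ln4} {e : Fin 3 → V3} {c : Ln4}
    {w : V3} {q : ℝ → V3 → ℝ} {a zL ρL z0 ρ r a0 w10 w20 W M : ℝ} (S : ShN e c w q a zL ρL r)
    (hr : 0 < r) (hz : zL ≤ z0) (hz' : z0 + ρ ≤ zL + ρL) (hρL : 0 < ρL) (hW : 1 ≤ W) (hM : 0 ≤ M)
    (ha0 : 0 < a0) (h10 : 0 < w10) (h20 : 0 < w20) (na : a ≤ W * a0) (n1 : w 1 ≤ W * w10)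
    (n2 : w 2 ≤ W * w20)
    (hd : ∀ S' : Plk4, Shp S' z0 ρ r → S'.w 1 ≤ ρ →
      ((P.filter fun t => InP (L t) S' z0 ρ).card : ℝ) ≤
        W * M * phC qm qp a0 w10 w20 S'.a (S'.w 1) (S'.w 2))
    {T : Ln4} (hT : InSheet T e c w q a zL ρL) {b0 b1 : V3} {G : QF}
    (hE : IsExp q e w T zL ρL b0 b1 G) {nA nB : ℝ} (hn : nA ^ 2 + nB ^ 2 = 1) {K σ β : ℝ}
    (hK : 1 ≤ K) (hσ : 0 < σ) (hσβ : σ ≤ β) (hβ1 : β ≤ 1 / 8) (haβ : a ≤ W * β * w 2)
    (hrσ : r ≤ σ * w 2) (hβρ : 300 * K * W * β * w 1 ≤ ρ)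
    (hfl : w 0 * (|kap b0 b1 G * (scB1 (kap b0 b1 G) b0 b1 1 * (-nB) +
        scB1 (kap b0 b1 G) b0 b1 2 * nA)| * β +
      |kap b0 b1 G * ((scG (kap b0 b1 G) b0 G).uu * nB ^ 2 - (scG (kap b0 b1 G) b0 G).uv * nA * nB +
        (scG (kap b0 b1 G) b0 G).vv * nA ^ 2)| * β ^ 2) ≤ K * a)
    (hκσ : w 0 * (kap b0 b1 G * σ) ≤ K * a)
    {B : Finset ι} (hB : B ⊆ P) (hBS : ∀ t ∈ B, InSheet (L t) e c w q a zL ρL)
    (hBs : ∀ t ∈ B, ∀ z, z0 ≤ z → z ≤ z0 + ρ → Stp e w T (L t) nA nB β σ z) :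
    (B.card : ℝ) ≤ W * M * ((500 * K * W ^ 2) ^ (2 + qp 1 + qp 2) *
      (456 * K * W ^ 3) ^ (1 + qp 0) * ((β * σ) * β ^ (qm 1 + qm 2))) := by
  have hap : 0 < a := by linarith [S.r0_le]
  have hra : r ≤ a := S.r0_le
  have hw0 : 0 < w 0 := by linarith [S.a_le0]
  have hw02 : w 0 ≤ w 2 := S.w0_le
  have hw2 : 0 < w 2 := by linarith
  have hw21 : w 2 ≤ w 1 := S.w_le
  have hw1 : 0 < w 1 := by linarith
  have hβ : 0 < β := hσ.trans_le hσβ
  have hK0 : 0 < K := by linarith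
  have hW0 : 0 < W := by linarith
  have SP := StP.of_shN S hw0
  have N := IsExp.nrmC SP hρL.le (fun z h1 h2 => (hT z h1 h2).1) hE
  obtain ⟨g1, g2, -, -, -, -, -, s1, s2⟩ := N.b1_le
  have he := S.ortho
  set t1 : ℝ := b0 1 / b0 0 * (w 0 / w 1) with ht1
  set t2 : ℝ := b0 2 / b0 0 * (w 0 / w 2) with ht2
  have r01 : |w 0 / w 1| ≤ 1 := by
    rw [abs_of_pos (by positivity), div_le_one hw1]; linarith
  have r02 : |w 0 / w 2| ≤ 1 := by
    rw [abs_of_pos (by positivity), div_le_one hw2]; linarith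
  have t1b : |t1| ≤ 2 := (mul_abs_le s1 r01).trans (by norm_num)
  have t2b : |t2| ≤ 2 := (mul_abs_le s2 r02).trans (by norm_num)
  set τ : ℝ := w 2 / w 1 with hτ
  have hτ0 : 0 < τ := by positivity
  have hτ1 : τ ≤ 1 := by rw [hτ, div_le_one hw1]; exact hw21
  set A0 : V3 := ![1, t1, t2] with hA0
  set A1 : V3 := ![0, nA * τ, nB] with hA1
  set A2 : V3 := ![0, -nB * τ, nA] with hA2
  set Gr : Fin 3 → V3 := ![rw3 e A0, rw3 e A1, rw3 e A2] with hGr
  set X : Fin 3 → ℝ := ![38 * K * a, w 2 * σ, 2 * β * w 2] with hX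
  have hXp : ∀ k, 0 < X k := by
    intro k; fin_cases k
    · change 0 < 38 * K * a; positivity
    · change 0 < w 2 * σ; positivity
    · change 0 < 2 * β * w 2; positivity
  have hdet := det_abs1 he
  have hD3 : dt (crs A0 A1) A2 = τ := by
    simp only [hA0, hA1, hA2, dt, crs, Matrix.cons_val_zero, Matrix.cons_val_one, Matrix.cons_val]
    linear_combination τ * hn
  have hGd : dt (crs (Gr 0) (Gr 1)) (Gr 2) = τ * dt (crs (e 0) (e 1)) (e 2) := by
    rw [← hD3]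
    exact det_rows e ![A0, A1, A2]
  have hGabs : |dt (crs (Gr 0) (Gr 1)) (Gr 2)| = τ := by
    rw [hGd, abs_mul, hdet, mul_one, abs_of_pos hτ0]
  have hG0 : dt (crs (Gr 0) (Gr 1)) (Gr 2) ≠ 0 := by
    rw [← abs_pos, hGabs]; exact hτ0
  have hκ : ∀ k, r ^ 2 * dt (Gr k) (Gr k) ≤ X k ^ 2 := by
    intro k
    fin_cases k
    · change r ^ 2 * dt (rw3 e A0) (rw3 e A0) ≤ (38 * K * a) ^ 2
      rw [rw3_self he]
      simp only [hA0, Matrix.cons_val_zero, Matrix.cons_val_one, Matrix.cons_val]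
      have g1 := sq_le4 t1b
      have g2 := sq_le4 t2b
      have g3 : r ^ 2 ≤ a ^ 2 := by gcongr
      have g4 : (38 * a) ^ 2 ≤ (38 * K * a) ^ 2 := by
        gcongr
        linarith
      calc r ^ 2 * (1 ^ 2 + t1 ^ 2 + t2 ^ 2) ≤ a ^ 2 * (1 ^ 2 + 4 + 4) := by gcongr
        _ ≤ (38 * a) ^ 2 := nine_le a
        _ ≤ _ := g4
    · change r ^ 2 * dt (rw3 e A1) (rw3 e A1) ≤ (w 2 * σ) ^ 2
      rw [rw3_self he]
      simp only [hA1, Matrix.cons_val_zero, Matrix.cons_val_one, Matrix.cons_val]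
      have g1 := row_sq hn hτ0.le hτ1
      calc r ^ 2 * (0 ^ 2 + (nA * τ) ^ 2 + nB ^ 2) = r ^ 2 * ((nA * τ) ^ 2 + nB ^ 2) := by ring
        _ ≤ (w 2 * σ) ^ 2 * 1 := by
            have : r ≤ w 2 * σ := by rw [mul_comm]; exact hrσ
            gcongr
        _ = _ := mul_one _
    · change r ^ 2 * dt (rw3 e A2) (rw3 e A2) ≤ (2 * β * w 2) ^ 2
      rw [rw3_self he]
      simp only [hA2, Matrix.cons_val_zero, Matrix.cons_val_one, Matrix.cons_val]
      have hn' : nB ^ 2 + nA ^ 2 = 1 := by rw [add_comm]; exact hn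
      have g1 := row_sq hn' hτ0.le hτ1
      have g2 : r ≤ 2 * β * w 2 := by
        have : σ * w 2 ≤ β * w 2 := mul_le_mul_of_nonneg_right hσβ hw2.le
        have : 0 ≤ β * w 2 := by positivity
        linarith
      calc r ^ 2 * (0 ^ 2 + (-nB * τ) ^ 2 + nA ^ 2) = r ^ 2 * ((nB * τ) ^ 2 + nA ^ 2) := by ring
        _ ≤ (2 * β * w 2) ^ 2 * 1 := by gcongr
        _ = _ := mul_one _
  set Sx : ℝ := 50 * K * W * β with hSx
  have hSx0 : 0 < Sx := by positivity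
  have hKW : 1 ≤ K * W := one_le_mul_of_one_le_of_one_le hK hW
  have h3S : 3 * β ≤ Sx := by
    rw [hSx]
    have : β * 1 ≤ β * (K * W) := mul_le_mul_of_nonneg_left hKW hβ.le
    linarith
  have hDM : DMx P L z0 ρ r (fun _ x _ => x ≤ ρ)
      (fun a' x y => W * M * phC qm qp a0 w10 w20 a' x y) := by
    intro e' c' w' Q a' hS' hR
    exact hd ⟨0, e', c', w', Q, a'⟩ hS' hR
  obtain ⟨α, β1, β2, hα, hαβ, hββ, hvol, hκα, b0', b2, b1', hcard⟩ :=
    par_count hDM he (W := ![w 2, w 1, w 2]) hw2 le_rfl hw21 hSx0 Gr hXp hG0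
      (by
        intro δ hδ i
        have d0 : |dt (rw3 e A0) δ| ≤ 38 * K * a := hδ 0
        have d1 : |dt (rw3 e A1) δ| ≤ w 2 * σ := hδ 1
        have d2 : |dt (rw3 e A2) δ| ≤ 2 * β * w 2 := hδ 2
        rw [rw3_dt] at d0 d1 d2
        simp only [hA0, hA1, hA2, Matrix.cons_val_zero, Matrix.cons_val_one, Matrix.cons_val,
          one_mul, zero_mul, zero_add] at d0 d1 d2
        have d1' : |nA * (τ * dt (e 1) δ) + nB * dt (e 2) δ| ≤ w 2 * σ := by
          rw [← mul_assoc]; exact d1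
        have d2' : |-nB * (τ * dt (e 1) δ) + nA * dt (e 2) δ| ≤ 2 * β * w 2 := by
          rw [← mul_assoc]; exact d2
        obtain ⟨h1, h2⟩ := rot_le hn d1' d2'
        have hs3 : w 2 * σ + 2 * β * w 2 ≤ 3 * β * w 2 := by
          have : w 2 * σ ≤ w 2 * β := mul_le_mul_of_nonneg_left hσβ hw2.le
          linarith
        have h1' : |dt (e 1) δ| ≤ 3 * β * w 1 := by
          have h3 := h1.trans hs3
          rw [abs_mul, abs_of_pos hτ0, hτ, div_mul_eq_mul_div, div_le_iff₀ hw1] at h3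
          have h4 : w 2 * |dt (e 1) δ| ≤ w 2 * (3 * β * w 1) := by linarith
          exact le_of_mul_le_mul_left h4 hw2
        have h2' : |dt (e 2) δ| ≤ 3 * β * w 2 := h2.trans hs3
        fin_cases i
        · change |dt (e 0) δ| ≤ Sx * w 2
          have e1 : dt (e 0) δ = (dt (e 0) δ + t1 * dt (e 1) δ + t2 * dt (e 2) δ) -
            b0 1 / b0 0 * (w 0 / w 1 * dt (e 1) δ) - b0 2 / b0 0 * (w 0 / w 2 * dt (e 2) δ) := by
            rw [ht1, ht2]; ring
          have m1 : |w 0 / w 1 * dt (e 1) δ| ≤ 3 * β * w 2 := by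
            rw [abs_mul, abs_of_pos (by positivity : 0 < w 0 / w 1)]
            calc w 0 / w 1 * |dt (e 1) δ| ≤ w 0 / w 1 * (3 * β * w 1) := by gcongr
              _ = 3 * β * w 0 := by field_simp
              _ ≤ 3 * β * w 2 := by gcongr
          have m2 : |w 0 / w 2 * dt (e 2) δ| ≤ 3 * β * w 2 := by
            rw [abs_mul, abs_of_pos (by positivity : 0 < w 0 / w 2)]
            calc w 0 / w 2 * |dt (e 2) δ| ≤ w 0 / w 2 * (3 * β * w 2) := by gcongr
              _ = 3 * β * w 0 := by field_simp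
              _ ≤ 3 * β * w 2 := by gcongr
          have m3 := mul_abs_le s1 m1
          have m4 := mul_abs_le s2 m2
          rw [e1]
          refine (abs_sub _ _).trans ((add_le_add ((abs_sub _ _).trans (add_le_add d0 m3))
            m4).trans ?_)
          have m5 : 38 * K * a ≤ 38 * K * (W * β * w 2) := by gcongr
          have m6 : 0 ≤ β * w 2 := by positivity
          have m7 : β * w 2 ≤ K * W * (β * w 2) := le_mul_of_one_le_left m6 hKW
          calc 38 * K * a + 2 * (3 * β * w 2) + 2 * (3 * β * w 2)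
              ≤ 38 * K * (W * β * w 2) + 12 * (β * w 2) := by linarith
            _ ≤ 38 * (K * W * (β * w 2)) + 12 * (K * W * (β * w 2)) := by linarith
            _ = Sx * w 2 := by rw [hSx]; ring
        · change |dt (e 1) δ| ≤ Sx * w 1
          exact h1'.trans (mul_le_mul_of_nonneg_right h3S hw1.le)
        · change |dt (e 2) δ| ≤ Sx * w 2
          exact h2'.trans (mul_le_mul_of_nonneg_right h3S hw2.le))
      (κ := r) hr.le hκ le_rfl T B hB
      (by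
        intro t ht z hz1 hz2 k
        have hzL : zL ≤ z := hz.trans hz1
        have hzR : z ≤ zL + ρL := hz2.trans hz'
        obtain ⟨c1, c2, c3⟩ := hBs t ht z hz1 hz2
        obtain ⟨i1, i2⟩ := hBS t ht z hzL hzR
        set ζ : ℝ := (z - zL) / ρL with hζ
        have hζz : zL + ρL * ζ = z := by rw [hζ]; field_simp; ring
        have hζ0 : 0 ≤ ζ := div_nonneg (by linarith) hρL.le
        have hζ1 : ζ ≤ 1 := by rw [hζ, div_le_one hρL]; linarith
        have hA : |pc e w T z ((L t).pos z) 1| ≤ β := c1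
        have hBB : |pc e w T z ((L t).pos z) 2| ≤ β := c2
        have hAB : |nA * pc e w T z ((L t).pos z) 1 + nB * pc e w T z ((L t).pos z) 2| ≤ σ := c3
        have hd1 : dt (e 1) ((L t).pos z - T.pos z) = w 1 * pc e w T z ((L t).pos z) 1 := by
          simp only [pc]; field_simp
        have hd2 : dt (e 2) ((L t).pos z - T.pos z) = w 2 * pc e w T z ((L t).pos z) 2 := by
          simp only [pc]; field_simp
        have hd0 : dt (e 0) ((L t).pos z - T.pos z) = w 0 * pc e w T z ((L t).pos z) 0 := by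
          simp only [pc]; field_simp
        fin_cases k
        · change |dt (rw3 e A0) ((L t).pos z - T.pos z)| ≤ 38 * K * a
          rw [rw3_dt]
          simp only [hA0, Matrix.cons_val_zero, Matrix.cons_val_one, Matrix.cons_val, one_mul]
          have e1 : dt (e 0) ((L t).pos z - T.pos z) + t1 * dt (e 1) ((L t).pos z - T.pos z) +
              t2 * dt (e 2) ((L t).pos z - T.pos z) =
              w 0 * yc b0 (pc e w T z ((L t).pos z)) := by
            rw [hd0, hd1, hd2, ht1, ht2]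
            unfold yc
            field_simp
          rw [e1, abs_mul, abs_of_pos hw0]
          have hΦ := tan_le (b0 := b0) (b1 := b1) (G := G) hn hζ0 hζ1 hσ.le hσβ
            (by linarith : β ≤ 1) hA hBB hAB
          have hy := fun Φ => yc_le' (Φ := Φ) SP hρL.le (fun z h1 h2 => (hT z h1 h2).1) hE hζ0 hζ1
            (X := (L t).pos z) (by rw [hζz]; exact i1) (by rw [hζz]; exact hA.trans hβ1)
            (by rw [hζz]; exact hBB.trans hβ1)
          simp only [hζz] at hy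
          replace hy := hy _ hΦ
          have hqT := (hT z hzL hzR).2
          have h5 : w 0 * (4 * (|kap b0 b1 G * (scB1 (kap b0 b1 G) b0 b1 1 * (-nB) +
              scB1 (kap b0 b1 G) b0 b1 2 * nA)| * β +
            |kap b0 b1 G * ((scG (kap b0 b1 G) b0 G).uu * nB ^ 2 -
              (scG (kap b0 b1 G) b0 G).uv * nA * nB +
              (scG (kap b0 b1 G) b0 G).vv * nA ^ 2)| * β ^ 2) + 13 * (kap b0 b1 G * σ)) ≤
              17 * (K * a) := by
            rw [mul_add]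
            have := mul_le_mul_of_nonneg_left hfl (by norm_num : (0:ℝ) ≤ 4)
            have := mul_le_mul_of_nonneg_left hκσ (by norm_num : (0:ℝ) ≤ 13)
            linarith
          have h6 : a ≤ K * a := le_mul_of_one_le_left hap.le hK
          refine hy.trans ?_
          linarith
        · change |dt (rw3 e A1) ((L t).pos z - T.pos z)| ≤ w 2 * σ
          rw [rw3_dt]
          simp only [hA1, Matrix.cons_val_zero, Matrix.cons_val_one, Matrix.cons_val, zero_mul,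
            zero_add]
          have e1 : nA * τ * dt (e 1) ((L t).pos z - T.pos z) +
              nB * dt (e 2) ((L t).pos z - T.pos z) =
              w 2 * (nA * pc e w T z ((L t).pos z) 1 + nB * pc e w T z ((L t).pos z) 2) := by
            rw [hd1, hd2, hτ]; field_simp
          rw [e1, abs_mul, abs_of_pos hw2]
          exact mul_le_mul_of_nonneg_left hAB hw2.le
        · change |dt (rw3 e A2) ((L t).pos z - T.pos z)| ≤ 2 * β * w 2
          rw [rw3_dt]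
          simp only [hA2, Matrix.cons_val_zero, Matrix.cons_val_one, Matrix.cons_val, zero_mul,
            zero_add]
          have e1 : -nB * τ * dt (e 1) ((L t).pos z - T.pos z) +
              nA * dt (e 2) ((L t).pos z - T.pos z) =
              w 2 * (-nB * pc e w T z ((L t).pos z) 1 + nA * pc e w T z ((L t).pos z) 2) := by
            rw [hd1, hd2, hτ]; field_simp
          obtain ⟨nA1, nB1, -⟩ := nn_bd hn
          have a1 := mul_abs_le (by rw [abs_neg]; exact nB1 : |-nB| ≤ 1) hA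
          have a2 := mul_abs_le nA1 hBB
          have a3 : |-nB * pc e w T z ((L t).pos z) 1 + nA * pc e w T z ((L t).pos z) 2| ≤ 2 * β := by
            refine (abs_add_le _ _).trans ?_
            linarith
          rw [e1, abs_mul, abs_of_pos hw2, mul_comm]
          exact mul_le_mul_of_nonneg_right a3 hw2.le)
      (by
        intro α β1 β2 _ _ _ _ _ _ _ h6
        change β1 ≤ 6 * Sx * w 1 at h6
        refine h6.trans (le_trans (le_of_eq ?_) hβρ)
        rw [hSx]; ring)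
  have hβ2 : 0 < β2 := hα.trans_le hαβ
  have hβ1' : 0 < β1 := hβ2.trans_le hββ
  have b1'' : β1 ≤ 6 * Sx * w 1 := b1'
  have b2'' : β2 ≤ 10 * Sx * w 2 := b2
  refine hcard.trans ?_
  refine mul_le_mul_of_nonneg_left ?_ (by positivity)
  unfold phC
  refine cap_fl hq hq1 hq2 (by positivity) (by positivity) (by positivity) ?_ ?_ hσ hσβ
    (by linarith) ?_ ?_ ?_
  · have : 1 ≤ W ^ 2 := one_le_pow₀ hW
    have h2 : 1 ≤ K * W ^ 2 := one_le_mul_of_one_le_of_one_le hK this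
    linarith
  · have : 1 ≤ W ^ 3 := one_le_pow₀ hW
    have h2 : 1 ≤ K * W ^ 3 := one_le_mul_of_one_le_of_one_le hK this
    linarith
  · rw [div_le_iff₀ h10]
    calc β1 ≤ 6 * Sx * w 1 := b1''
      _ ≤ 6 * Sx * (W * w10) := by gcongr
      _ = 300 * K * W ^ 2 * β * w10 := by rw [hSx]; ring
      _ ≤ 500 * K * W ^ 2 * β * w10 := by gcongr; norm_num
  · rw [div_le_iff₀ h20]
    calc β2 ≤ 10 * Sx * w 2 := b2''
      _ ≤ 10 * Sx * (W * w20) := by gcongr
      _ = 500 * K * W ^ 2 * β * w20 := by rw [hSx]; ring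
  · have e1 : β1 / w10 * (β2 / w20) * (α / a0) = α * β2 * β1 / (a0 * w10 * w20) := by
      field_simp
    rw [e1, div_le_iff₀ (by positivity), hvol, hGabs]
    have e2 : X 0 * X 1 * X 2 = 38 * K * a * (w 2 * σ) * (2 * β * w 2) := rfl
    rw [e2, hτ]
    calc 6 * (38 * K * a * (w 2 * σ) * (2 * β * w 2) / (w 2 / w 1))
        = 456 * K * (β * σ) * (a * (w 1 * w 2)) := by field_simp; ring
      _ ≤ 456 * K * (β * σ) * ((W * a0) * ((W * w10) * (W * w20))) := by gcongr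
      _ = 456 * K * W ^ 3 * (β * σ) * (a0 * w10 * w20) := by ring

end Crest.Agent.R136.Plh571
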