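import Crest.Agent.R136.Plk_511
import Crest.Agent.R136.Pl7d_186
import Crest.Agent.R136.Pl2W_102

/-!
# R136 (S0187), g-free tilt (PLAN 2), B4: count of one bundle over `Two1` (helper511)

`plank_two` : `Plk511.plank_count` from the D-max of `Two1`, constant `(2 W K)^C`.
-/

set_option autoImplicit false
set_option linter.unusedVariables false
set_option linter.unusedSectionVars false

namespace Crest.Agent.R136.Plk511

open Finset
open Crest.Agent.R136.Sh605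
open Crest.Agent.R136.K4 (Plk4)
open Crest.Agent.R136.Tlt51 (Shp InP)
open Crest.Agent.R136.Phc248
open Crest.Agent.R136.Pl7186
open Crest.Agent.R136.Pl2W102 (Near Ex2 Two1)

open Classical in
/-- the D-max of `Two1` as `DMx` -/
theorem dmx_two {qm qp : Fin 3 → ℝ} {L : ℕ → Ln4} {P : Finset ℕ} {cu cv : ℕ → ℕ}
    {Uf Vf : ℕ → Plk4} {W M a w1 w2 z0 ρ r : ℝ}
    (H : Two1 qm qp L P cu cv Uf Vf W M a w1 w2 z0 ρ r) :
    DMx P L z0 ρ r (fun _ x _ => x ≤ ρ) (fun a' x y => W * M * phC qm qp a w1 w2 a' x y) := by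
  intro e c w Q α hS hx
  exact H.dmax ⟨0, e, c, w, Q, α⟩ hS hx

/-- constants are absorbed in powers of `2 W K` -/
theorem const_le {x c : ℝ} {k : ℕ} (hx : 2 ≤ x) (hc : c ≤ 2 ^ k) (hc0 : 0 ≤ c) : c ≤ x ^ k :=
  hc.trans (pow_le_pow_left₀ (by norm_num) hx k)

open Classical in
/-- **one bundle over `Two1`** -/
theorem plank_two {η : ℝ} {qm qp : Fin 3 → ℝ} (hE : Ex2 η qm qp) :
    ∃ C : ℝ, 0 ≤ C ∧ ∀ {L : ℕ → Ln4} {P : Finset ℕ} {cu cv : ℕ → ℕ}
    {Uf Vf : ℕ → Plk4} {W M a w1 w2 z0 ρ r : ℝ}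
    (H : Two1 qm qp L P cu cv Uf Vf W M a w1 w2 z0 ρ r) (hrρ : r ≤ ρ) (hP : P.Nonempty)
    {e : Fin 3 → V3} (he : Ortho e) (T0 : Ln4) {K t l M0 s1 s2 g0 g1 : ℝ} (hK : 1 ≤ K)
    (ht : 0 < t) (ht1 : t ≤ 1) (hw : w2 ≤ K * (t * w1))
    (hs1 : |s1| * (t * w1) ≤ K * w2) (hs2 : |s2| ≤ K) (hg : g0 ^ 2 + g1 ^ 2 = 1)
    (hl : 0 < l) (hl1 : l ≤ 1) (hM : 1 ≤ M0) (haM : a * M0 ≤ K * w2) (hal : a ≤ K * (l * w2))
    (F : Finset ℕ) (hF : F ⊆ P)
    (hb : ∀ x ∈ F, ∀ z, z0 ≤ z → z ≤ z0 + ρ →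
      |dt (e 0) ((L x).pos z - T0.pos z) + s1 * dt (e 1) ((L x).pos z - T0.pos z) +
        s2 * dt (e 2) ((L x).pos z - T0.pos z)| ≤ K * a ∧
      |g0 * (dt (e 1) ((L x).pos z - T0.pos z) / (t * w1)) +
        g1 * (dt (e 2) ((L x).pos z - T0.pos z) / w2)| ≤ K / M0 ∧
      |g0 * (dt (e 2) ((L x).pos z - T0.pos z) / w2) -
        g1 * (dt (e 1) ((L x).pos z - T0.pos z) / (t * w1))| ≤ K * l),
    (F.card : ℝ) ≤ (2 * W * K) ^ C * M * (t ^ (1 + qm 1) * (l / M0) ^ (1 + qm 2)) := by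
  have hm : ∀ k, 0 ≤ qm k := fun k => (hE.le k).1
  have hmp : ∀ k, qm k ≤ qp k := fun k => (hE.le k).2
  have hp : ∀ k, 0 ≤ qp k := fun k => (hm k).trans (hmp k)
  have hm2 := hE.pos
  have h21 : qm 2 ≤ qm 1 := by
    have h1 := hE.e1
    have h2 := hmp 2
    have h3 := hp 0
    have h4 := hp 2
    linarith
  have h02 : qp 0 ≤ qm 2 := by
    have h1 := hE.e02
    have h2 := hp 0
    linarith
  have hp0 := hp 0
  have hp1 := hp 1
  have hp2 := hp 2
  refine ⟨115 + 22 * (1 + qp 0) + 13 * (1 + qp 1) + 13 * (1 + qp 2), by positivity, ?_⟩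
  intro L P cu cv Uf Vf W M a w1 w2 z0 ρ r H hrρ hP e he T0 K t l M0 s1 s2 g0 g1 hK ht ht1 hw hs1
    hs2 hg hl hl1 hM haM hal F hF hb
  obtain ⟨t0, ht0⟩ := hP
  have W1 := H.W1
  have W0 : 0 < W := by linarith
  have K0 : 0 < K := by linarith
  have ha := H.a0
  have hw1 := H.w10
  have hw2 := H.w20
  have hr0 := H.r0
  have hρ0 := H.ρ0
  have M00 := H.M0
  have hS := H.shU t0 ht0
  obtain ⟨da, d1, d2⟩ := H.dimU t0 ht0
  -- `r ≤ W a`
  have hra : r ≤ W * a := hS.r0_le.trans da.2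
  -- `a ≤ W ^ 2 w2`
  have haw : a ≤ W ^ 2 * w2 := by
    have h1 : a ≤ W * (Uf (cu t0)).a := da.1
    have h2 : (Uf (cu t0)).a ≤ (Uf (cu t0)).w 2 := hS.a_le0.trans hS.w0_le
    have h3 : (Uf (cu t0)).w 2 ≤ W * w2 := d2.2
    calc a ≤ W * (Uf (cu t0)).a := h1
      _ ≤ W * (W * w2) := mul_le_mul_of_nonneg_left (h2.trans h3) W0.le
      _ = _ := by ring
  set X := 2 * W * K with hX
  have hX2 : 2 ≤ X := by
    have : 1 ≤ W * K := one_le_mul_of_one_le_of_one_le W1 hK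
    rw [hX]; linarith [mul_assoc 2 W K]
  have X0 : 0 < X := by linarith
  have X1 : 1 ≤ X := by linarith
  have hWX : W ≤ X := by
    rw [hX]
    have : W * 1 ≤ W * K := mul_le_mul_of_nonneg_left hK W0.le
    nlinarith
  have hKX : K ≤ X := by
    rw [hX]
    have : 1 * K ≤ W * K := mul_le_mul_of_nonneg_right W1 K0.le
    nlinarith
  set K3 := X ^ 4 with hK3
  have hX3 : X ≤ K3 := by
    rw [hK3]
    calc X = X ^ 1 := (pow_one X).symm
      _ ≤ X ^ 4 := pow_le_pow_right₀ X1 (by norm_num)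
  have K31 : 1 ≤ K3 := X1.trans hX3
  have K30 : 0 < K3 := by linarith
  -- the wide D-max
  have hD1 : 0 ≤ W * M := by positivity
  have hKw : 1 ≤ X ^ 13 := one_le_pow₀ X1
  have hwide := DMx.wide hm hmp hD1 hρ0 hr0 hrρ ha hw1 hw2 (dmx_two H) (K := X ^ 13) hKw
  set D0 := (35 * X ^ 13) ^ 6 * (17 * X ^ 13) ^ (1 + qp 0) * (W * M) with hD0
  have D00 : 0 ≤ D0 := by positivity
  set c3 := K3 ^ (1 + qp 0) * K3 ^ (1 + qp 1) * K3 ^ (1 + qp 2) with hc3
  have c30 : 0 ≤ c3 := by positivity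
  -- new reference shape
  have hd : DMx P L z0 ρ r (fun _ x _ => x ≤ X ^ 13 * ρ)
      (fun a' x y => (D0 * c3) * phC qm qp (X ^ 2 * a) (K3 * w1) (K3 * w2) a' x y) := by
    intro e' c' w' Q' α' hS' hx'
    refine (hwide e' c' w' Q' α' hS' hx').trans ?_
    have p0 : 0 < α' := hr0.trans_le hS'.r0_le
    have p2 : 0 < w' 2 := (p0.trans_le hS'.a_le0).trans_le hS'.w0_le
    have p1 : 0 < w' 1 := p2.trans_le hS'.w_le
    have hX23 : X ^ 2 ≤ K3 := by rw [hK3]; exact pow_le_pow_right₀ X1 (by norm_num)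
    have h1 := phC_ref (qm := qm) (qp := qp) (a := X ^ 2 * a) (w1 := K3 * w1) (w2 := K3 * w2)
      (a' := α') (w1' := w' 1) (w2' := w' 2) (a'' := a) (w1'' := w1) (w2'' := w2) (C := K3)
      hm hmp (by positivity) (by positivity) (by positivity) K31 p0.le p1.le p2.le ha hw1 hw2
      (mul_le_mul_of_nonneg_right hX23 ha.le) le_rfl le_rfl
    calc (35 * X ^ 13) ^ 6 * (17 * X ^ 13) ^ (1 + qp 0) * (W * M) *
          phC qm qp a w1 w2 α' (w' 1) (w' 2) ≤
        D0 * (K3 ^ (1 + qp 0) * K3 ^ (1 + qp 1) * K3 ^ (1 + qp 2) *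
          phC qm qp (X ^ 2 * a) (K3 * w1) (K3 * w2) α' (w' 1) (w' 2)) :=
          mul_le_mul_of_nonneg_left h1 D00
      _ = _ := by rw [hc3]; ring
  have hmain := plank_count hm hmp h21 h02 (mul_nonneg D00 c30) hd he T0 (K := X) (t := t)
    (l := l) (M0 := M0) (s1 := s1) (s2 := s2) (g0 := g0) (g1 := g1) X1 (by positivity)
    (by
      -- `X ^ 2 a ≤ K3 w2`
      calc X ^ 2 * a ≤ X ^ 2 * (W ^ 2 * w2) := by gcongr
        _ ≤ X ^ 2 * (X ^ 2 * w2) := by gcongr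
        _ = K3 * w2 := by rw [hK3]; ring) ht ht1
    (by
      calc K3 * w2 ≤ K3 * (K * (t * w1)) := mul_le_mul_of_nonneg_left hw K30.le
        _ ≤ K3 * (X * (t * w1)) := by gcongr
        _ = X * (t * (K3 * w1)) := by ring)
    (by
      calc |s1| * (t * (K3 * w1)) = K3 * (|s1| * (t * w1)) := by ring
        _ ≤ K3 * (K * w2) := mul_le_mul_of_nonneg_left hs1 K30.le
        _ ≤ K3 * (X * w2) := by gcongr
        _ = X * (K3 * w2) := by ring)
    (hs2.trans hKX) hg hl hl1 hM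
    (by
      calc X ^ 2 * a * M0 = X ^ 2 * (a * M0) := by ring
        _ ≤ X ^ 2 * (K * w2) := by gcongr
        _ ≤ X ^ 2 * (X * w2) := by gcongr
        _ = X ^ 3 * w2 := by ring
        _ ≤ X ^ 5 * w2 := by gcongr; norm_num
        _ = X * (K3 * w2) := by rw [hK3]; ring)
    (by
      calc X ^ 2 * a ≤ X ^ 2 * (K * (l * w2)) := by gcongr
        _ ≤ X ^ 2 * (X * (l * w2)) := by gcongr
        _ = X ^ 3 * (l * w2) := by ring
        _ ≤ X ^ 5 * (l * w2) := by gcongr; norm_num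
        _ = X * (l * (K3 * w2)) := by rw [hK3]; ring)
    (by
      -- `30 X ^ 3 (t (K3 w1)) ≤ X ^ 13 ρ`
      have h1 : t * (K3 * w1) ≤ K3 * (W * ρ) := by
        calc t * (K3 * w1) ≤ 1 * (K3 * w1) := by gcongr
          _ = K3 * w1 := one_mul _
          _ ≤ K3 * (W * ρ) := mul_le_mul_of_nonneg_left H.w1ρ K30.le
      have h2 : (30:ℝ) ≤ X ^ 5 := const_le hX2 (by norm_num) (by norm_num)
      calc 30 * X ^ 3 * (t * (K3 * w1)) ≤ 30 * X ^ 3 * (K3 * (W * ρ)) := by gcongr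
        _ ≤ X ^ 5 * X ^ 3 * (X ^ 4 * (X * ρ)) := by
            rw [hK3]; gcongr
        _ = X ^ 13 * ρ := by ring)
    (by
      -- `2 X r ≤ X ^ 2 a`
      calc 2 * X * r ≤ 2 * X * (W * a) := by gcongr
        _ = X * ((2 * W) * a) := by ring
        _ ≤ X * (X * a) := by
            have h3 : 2 * W ≤ X := by
              rw [hX]
              exact le_mul_of_one_le_right (by positivity) hK
            gcongr
        _ = X ^ 2 * a := by ring) F hF (by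
      intro x hx z hz hz'
      obtain ⟨c1, c2, c3⟩ := hb x hx z hz hz'
      have k1 : K3⁻¹ ≤ 1 := inv_le_one_of_one_le₀ K31
      have k0 : 0 < K3⁻¹ := inv_pos.2 K30
      refine ⟨c1.trans ?_, ?_, ?_⟩
      · calc K * a ≤ X * a := by gcongr
          _ ≤ X * (X ^ 2 * a) := by
              have : 1 * a ≤ X ^ 2 * a := by
                have : 1 ≤ X ^ 2 := one_le_pow₀ X1
                gcongr
              rw [one_mul] at this
              gcongr
      · have e1 : g0 * (dt (e 1) ((L x).pos z - T0.pos z) / (t * (K3 * w1))) +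
            g1 * (dt (e 2) ((L x).pos z - T0.pos z) / (K3 * w2)) =
            K3⁻¹ * (g0 * (dt (e 1) ((L x).pos z - T0.pos z) / (t * w1)) +
              g1 * (dt (e 2) ((L x).pos z - T0.pos z) / w2)) := by
          field_simp
        rw [e1, abs_mul, abs_of_pos k0]
        calc K3⁻¹ * _ ≤ 1 * (K / M0) := mul_le_mul k1 c2 (abs_nonneg _) zero_le_one
          _ = K / M0 := one_mul _
          _ ≤ X / M0 := by gcongr
      · have e1 : g0 * (dt (e 2) ((L x).pos z - T0.pos z) / (K3 * w2)) -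
            g1 * (dt (e 1) ((L x).pos z - T0.pos z) / (t * (K3 * w1))) =
            K3⁻¹ * (g0 * (dt (e 2) ((L x).pos z - T0.pos z) / w2) -
              g1 * (dt (e 1) ((L x).pos z - T0.pos z) / (t * w1))) := by
          field_simp
        rw [e1, abs_mul, abs_of_pos k0]
        calc K3⁻¹ * _ ≤ 1 * (K * l) := mul_le_mul k1 c3 (abs_nonneg _) zero_le_one
          _ = K * l := one_mul _
          _ ≤ X * l := by gcongr)
  refine hmain.trans ?_
  -- exponents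
  have hB0 : 0 ≤ t ^ (1 + qm 1) * (l / M0) ^ (1 + qm 2) := by positivity
  have e35 : (35:ℝ) ≤ X ^ 6 := const_le hX2 (by norm_num) (by norm_num)
  have e17 : (17:ℝ) ≤ X ^ 5 := const_le hX2 (by norm_num) (by norm_num)
  have e50 : (50:ℝ) ≤ X ^ 6 := const_le hX2 (by norm_num) (by norm_num)
  have f1 : (35 * X ^ 13) ^ 6 ≤ X ^ (114:ℝ) := by
    calc (35 * X ^ 13) ^ 6 ≤ (X ^ 6 * X ^ 13) ^ 6 := by gcongr
      _ = X ^ 114 := by ring
      _ = X ^ (114:ℝ) := by rw [← Real.rpow_natCast]; norm_num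
  have f2 : (17 * X ^ 13) ^ (1 + qp 0) ≤ X ^ (18 * (1 + qp 0)) := by
    calc (17 * X ^ 13) ^ (1 + qp 0) ≤ (X ^ 5 * X ^ 13) ^ (1 + qp 0) := by gcongr
      _ = (X ^ (18:ℝ)) ^ (1 + qp 0) := by
          congr 1
          rw [← pow_add, ← Real.rpow_natCast]; norm_num
      _ = _ := by rw [← Real.rpow_mul X0.le]
  have f3 : c3 = X ^ (4 * (1 + qp 0)) * X ^ (4 * (1 + qp 1)) * X ^ (4 * (1 + qp 2)) := by
    have : K3 = X ^ (4:ℝ) := by rw [hK3, ← Real.rpow_natCast]; norm_num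
    rw [hc3, this, ← Real.rpow_mul X0.le, ← Real.rpow_mul X0.le, ← Real.rpow_mul X0.le]
  have f4 : ∀ s : ℝ, 0 ≤ s → (50 * X ^ 3) ^ (1 + s) ≤ X ^ (9 * (1 + s)) := by
    intro s hs
    calc (50 * X ^ 3) ^ (1 + s) ≤ (X ^ 6 * X ^ 3) ^ (1 + s) := by gcongr
      _ = (X ^ (9:ℝ)) ^ (1 + s) := by
          congr 1
          rw [← pow_add, ← Real.rpow_natCast]; norm_num
      _ = _ := by rw [← Real.rpow_mul X0.le]
  have f5 : W ≤ X ^ (1:ℝ) := by rw [Real.rpow_one]; exact hWX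
  calc D0 * c3 * ((50 * X ^ 3) ^ (1 + qp 1) * (50 * X ^ 3) ^ (1 + qp 2) *
        (t ^ (1 + qm 1) * (l / M0) ^ (1 + qm 2))) ≤
      (X ^ (114:ℝ) * X ^ (18 * (1 + qp 0)) * (X ^ (1:ℝ) * M)) *
        (X ^ (4 * (1 + qp 0)) * X ^ (4 * (1 + qp 1)) * X ^ (4 * (1 + qp 2))) *
        (X ^ (9 * (1 + qp 1)) * X ^ (9 * (1 + qp 2)) *
          (t ^ (1 + qm 1) * (l / M0) ^ (1 + qm 2))) := by
        rw [hD0, f3]
        have g1 := f4 _ hp1
        have g2 := f4 _ hp2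
        gcongr
    _ = (X ^ (114:ℝ) * X ^ (1:ℝ) * (X ^ (18 * (1 + qp 0)) * X ^ (4 * (1 + qp 0))) *
          (X ^ (4 * (1 + qp 1)) * X ^ (9 * (1 + qp 1))) *
          (X ^ (4 * (1 + qp 2)) * X ^ (9 * (1 + qp 2)))) * M *
          (t ^ (1 + qm 1) * (l / M0) ^ (1 + qm 2)) := by ring
    _ = _ := by
        congr 2
        rw [← Real.rpow_add X0, ← Real.rpow_add X0, ← Real.rpow_add X0, ← Real.rpow_add X0,
          ← Real.rpow_add X0, ← Real.rpow_add X0, ← Real.rpow_add X0]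
        congr 1
        ring

end Crest.Agent.R136.Plk511
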