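import Crest.Agent.R136.Plk2_511
import Crest.Agent.R136.Grp_639

/-!
# R136 (S0187), g-free tilt (PLAN 2), B4: `Grp639.Cap` from the D-max of `Two1` (helper511)
-/

set_option autoImplicit false
set_option linter.unusedVariables false
set_option linter.unusedSectionVars false

namespace Crest.Agent.R136.Plk511

open Finset
open Crest.Agent.R136.Sh605
open Crest.Agent.R136.K4 (Plk4)
open Crest.Agent.R136.Pl2W102 (Near Ex2 Two1)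
open Crest.Agent.R136.Grp639 (Cap al pe)

/-- **`Cap` over `Two1`** : strip coordinates `<e 1, ·> / (t w1)`, `<e 2, ·> / w2`; the normal
coordinate `y` of the base line `T0` controls `<e 0 + s1 T0 e 1 + s2 T0 e 2, ·> / a` -/
theorem cap_of {η : ℝ} {qm qp : Fin 3 → ℝ} (hE : Ex2 η qm qp) :
    ∃ C : ℝ, 0 ≤ C ∧ ∀ {L : ℕ → Ln4} {P : Finset ℕ} {cu cv : ℕ → ℕ}
    {Uf Vf : ℕ → Plk4} {W M a w1 w2 z0 ρ r : ℝ}
    (H : Two1 qm qp L P cu cv Uf Vf W M a w1 w2 z0 ρ r) (hrρ : r ≤ ρ) (hP : P.Nonempty)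
    {e : Fin 3 → V3} (he : Ortho e) {Z : Finset ℕ} (hZ : Z ⊆ P) {K K' t M0 lam0 : ℝ}
    {s1 s2 : ℕ → ℝ} {g : ℕ → Fin 2 → ℝ} {p c : ℕ → Fin 2 → ℝ} {b : ℕ → ℝ} {y0 y1 : ℕ → ℕ → ℝ}
    (hK : 1 ≤ K) (hK' : 1 ≤ K') (ht : 0 < t) (ht1 : t ≤ 1) (hw : w2 ≤ K' * (t * w1))
    (hs1 : ∀ T ∈ Z, |s1 T| * (t * w1) ≤ K' * w2) (hs2 : ∀ T ∈ Z, |s2 T| ≤ K')
    (gn : ∀ T ∈ Z, g T 0 ^ 2 + g T 1 ^ 2 = 1)
    (hM : 1 ≤ M0) (haM : a * M0 ≤ K' * w2) (hal : a ≤ K' * (lam0 * w2))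
    (hp : ∀ T ∈ Z, ∀ T' ∈ Z, ∀ ζ : ℝ, 0 ≤ ζ → ζ ≤ 1 →
      (p T' 0 + ζ * c T' 0) - (p T 0 + ζ * c T 0) =
        dt (e 1) ((L T').pos (z0 + ρ * ζ) - (L T).pos (z0 + ρ * ζ)) / (t * w1) ∧
      (p T' 1 + ζ * c T' 1) - (p T 1 + ζ * c T 1) =
        dt (e 2) ((L T').pos (z0 + ρ * ζ) - (L T).pos (z0 + ρ * ζ)) / w2)
    (hy : ∀ T0 ∈ Z, ∀ T1 ∈ Z, ∀ T' ∈ Z, ∀ ζ : ℝ, 0 ≤ ζ → ζ ≤ 1 →
      |dt (e 0) ((L T').pos (z0 + ρ * ζ) - (L T1).pos (z0 + ρ * ζ)) +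
        s1 T0 * dt (e 1) ((L T').pos (z0 + ρ * ζ) - (L T1).pos (z0 + ρ * ζ)) +
        s2 T0 * dt (e 2) ((L T').pos (z0 + ρ * ζ) - (L T1).pos (z0 + ρ * ζ))| ≤
      K' * a * |(y0 T0 T' - y0 T0 T1) + (ζ - b T0) * (y1 T0 T' - y1 T0 T1)|),
    Cap Z p c b g y0 y1 K M0 lam0 (qm 2)
      ((2 * W * (40 * K' * K)) ^ C * M * (t ^ (1 + qm 1) * (1 / M0) ^ (1 + qm 2))) := by
  obtain ⟨C, hC, hpl⟩ := plank_two hE
  refine ⟨C, hC, ?_⟩
  intro L P cu cv Uf Vf W M a w1 w2 z0 ρ r H hrρ hP e he Z hZ K K' t M0 lam0 s1 s2 g p c b y0 y1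
    hK hK' ht ht1 hw hs1 hs2 gn hM haM hal hp hy
  have K0 : 0 < K := by linarith
  have K0' : 0 < K' := by linarith
  have M00 : 0 < M0 := by linarith
  have ha := H.a0
  have hw2 := H.w20
  have hw1 := H.w10
  have hρ := H.ρ0
  set Kb := 40 * K' * K with hKb
  have hKK : K' ≤ K' * K := le_mul_of_one_le_right K0'.le hK
  have hKb1 : K' ≤ Kb := by rw [hKb]; linarith [mul_assoc 40 K' K]
  have hKK' : K ≤ K' * K := le_mul_of_one_le_left K0.le hK'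
  have hKb2 : 40 * K ≤ Kb := by rw [hKb]; linarith [mul_assoc 40 K' K]
  have hKb3 : 1 ≤ Kb := hK'.trans hKb1
  intro T0 hT0 T1 hT1 lam hlam hlam0 hlam1 F hF hb
  have h := hpl H hrρ hP he (L T1) (K := Kb) (t := t) (l := lam) (M0 := M0) (s1 := s1 T0)
    (s2 := s2 T0) (g0 := g T0 0) (g1 := g T0 1) hKb3 ht ht1
    (hw.trans (by gcongr)) ((hs1 T0 hT0).trans (by gcongr)) ((hs2 T0 hT0).trans hKb1)
    (gn T0 hT0) hlam hlam1 hM (haM.trans (by gcongr))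
    (hal.trans (by
      calc K' * (lam0 * w2) ≤ K' * (lam * w2) := by gcongr
        _ ≤ Kb * (lam * w2) := by gcongr)) F (hF.trans hZ) (by
      intro x hx z hz hz'
      obtain ⟨ζ, hζ⟩ : ∃ ζ, ζ = (z - z0) / ρ := ⟨_, rfl⟩
      have ζ0 : 0 ≤ ζ := by rw [hζ]; exact div_nonneg (by linarith) hρ.le
      have ζ1 : ζ ≤ 1 := by rw [hζ, div_le_one hρ]; linarith
      have ez : z = z0 + ρ * ζ := by rw [hζ]; field_simp; ring
      obtain ⟨b1, b2, b3⟩ := hb x hx ζ ζ0 ζ1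
      have hxZ := hF hx
      obtain ⟨q1, q2⟩ := hp T1 hT1 x hxZ ζ ζ0 ζ1
      have hyy := hy T0 hT0 T1 hT1 x hxZ ζ ζ0 ζ1
      rw [← ez] at q1 q2 hyy
      simp only [al] at b1
      simp only [pe] at b2
      rw [q1, q2] at b1 b2
      refine ⟨hyy.trans ?_, b1.trans ?_, b2.trans ?_⟩
      · calc K' * a * |(y0 T0 x - y0 T0 T1) + (ζ - b T0) * (y1 T0 x - y1 T0 T1)| ≤
            K' * a * (20 * K) := by gcongr
          _ = 20 * (K' * K) * a := by ring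
          _ ≤ Kb * a := by
              have : 20 * (K' * K) ≤ Kb := by
                rw [hKb]; nlinarith [mul_pos K0' K0]
              gcongr
      · have : 20 * K ≤ Kb := by linarith
        gcongr
      · gcongr)
  refine h.trans (le_of_eq ?_)
  have e1 : lam / M0 = (1 / M0) * lam := by ring
  rw [e1, Real.mul_rpow (by positivity) hlam.le]
  ring

end Crest.Agent.R136.Plk511
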