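import Crest.Agent.R136.Plk3_511

/-!
# R136 (S0187), g-free tilt (PLAN 2), B4: `Cap` in the strip coordinates of record (helper511)

`stp`, `stc` : strip position at `z0` and strip velocity of the line `s` relative to the line `t0`.
-/

set_option autoImplicit false
set_option linter.unusedVariables false
set_option linter.unusedSectionVars false

namespace Crest.Agent.R136.Plk511

open Finset
open Crest.Agent.R136.Sh605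
open Crest.Agent.R136.K4 (Plk4)
open Crest.Agent.R136.Pl2W102 (Near Ex2 Two1)
open Crest.Agent.R136.Grp639 (Cap al pe)

/-- strip position at the bottom -/
noncomputable def stp (e : Fin 3 → V3) (Λ w1 w2 z0 : ℝ) (t0 : Ln4) (L : ℕ → Ln4) (s : ℕ) :
    Fin 2 → ℝ :=
  ![Λ * dt (e 1) ((L s).pos z0 - t0.pos z0) / w1, dt (e 2) ((L s).pos z0 - t0.pos z0) / w2]

/-- strip velocity -/
noncomputable def stc (e : Fin 3 → V3) (Λ w1 w2 ρ : ℝ) (t0 : Ln4) (L : ℕ → Ln4) (s : ℕ) :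
    Fin 2 → ℝ :=
  ![Λ * dt (e 1) (ρ • ((L s).v - t0.v)) / w1, dt (e 2) (ρ • ((L s).v - t0.v)) / w2]

/-- position difference at the height `z0 + ρ ζ` -/
theorem st_diff (e : Fin 3 → V3) {Λ w1 w2 : ℝ} (z0 ρ : ℝ) (t0 : Ln4) (L : ℕ → Ln4)
    (hΛ : Λ ≠ 0) (T T' : ℕ) (ζ : ℝ) :
    (stp e Λ w1 w2 z0 t0 L T' 0 + ζ * stc e Λ w1 w2 ρ t0 L T' 0) -
        (stp e Λ w1 w2 z0 t0 L T 0 + ζ * stc e Λ w1 w2 ρ t0 L T 0) =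
      dt (e 1) ((L T').pos (z0 + ρ * ζ) - (L T).pos (z0 + ρ * ζ)) / (Λ⁻¹ * w1) ∧
    (stp e Λ w1 w2 z0 t0 L T' 1 + ζ * stc e Λ w1 w2 ρ t0 L T' 1) -
        (stp e Λ w1 w2 z0 t0 L T 1 + ζ * stc e Λ w1 w2 ρ t0 L T 1) =
      dt (e 2) ((L T').pos (z0 + ρ * ζ) - (L T).pos (z0 + ρ * ζ)) / w2 := by
  have e0 : ∀ u : V3, dt u ((L T').pos (z0 + ρ * ζ) - (L T).pos (z0 + ρ * ζ)) =
      (dt u ((L T').pos z0 - t0.pos z0) + ζ * dt u (ρ • ((L T').v - t0.v))) -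
      (dt u ((L T).pos z0 - t0.pos z0) + ζ * dt u (ρ • ((L T).v - t0.v))) := by
    intro u
    simp only [dt, Ln4.pos, Pi.sub_apply, Pi.smul_apply, smul_eq_mul]
    ring
  constructor
  · rw [e0]
    simp only [stp, stc, Matrix.cons_val_zero]
    rw [div_mul_eq_div_div_swap, div_inv_eq_mul]
    ring
  · rw [e0]
    simp only [stp, stc, Matrix.cons_val_one, Matrix.cons_val_fin_one]
    ring

/-- **`Cap` in the letters of record** (`Λ = 2 ^ j`) -/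
theorem cap_std {η : ℝ} {qm qp : Fin 3 → ℝ} (hE : Ex2 η qm qp) :
    ∃ C : ℝ, 0 ≤ C ∧ ∀ {L : ℕ → Ln4} {P : Finset ℕ} {cu cv : ℕ → ℕ}
    {Uf Vf : ℕ → Plk4} {W M a w1 w2 z0 ρ r : ℝ}
    (H : Two1 qm qp L P cu cv Uf Vf W M a w1 w2 z0 ρ r) (hrρ : r ≤ ρ) (hP : P.Nonempty)
    {e : Fin 3 → V3} (he : Ortho e) (t0 : Ln4) {Z : Finset ℕ} (hZ : Z ⊆ P)
    {K K' Λ M0 lam0 : ℝ}
    {s1 s2 : ℕ → ℝ} {g : ℕ → Fin 2 → ℝ} {b : ℕ → ℝ} {y0 y1 : ℕ → ℕ → ℝ}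
    (hK : 1 ≤ K) (hK' : 1 ≤ K') (hΛ : 1 ≤ Λ) (hw : Λ * w2 ≤ K' * w1)
    (hs1 : ∀ T ∈ Z, |s1 T| * w1 ≤ K' * (Λ * w2)) (hs2 : ∀ T ∈ Z, |s2 T| ≤ K')
    (gn : ∀ T ∈ Z, g T 0 ^ 2 + g T 1 ^ 2 = 1)
    (hM : 1 ≤ M0) (haM : a * M0 ≤ K' * w2) (hal : a ≤ K' * (lam0 * w2))
    (hy : ∀ T0 ∈ Z, ∀ T1 ∈ Z, ∀ T' ∈ Z, ∀ ζ : ℝ, 0 ≤ ζ → ζ ≤ 1 →
      |dt (e 0) ((L T').pos (z0 + ρ * ζ) - (L T1).pos (z0 + ρ * ζ)) +
        s1 T0 * dt (e 1) ((L T').pos (z0 + ρ * ζ) - (L T1).pos (z0 + ρ * ζ)) +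
        s2 T0 * dt (e 2) ((L T').pos (z0 + ρ * ζ) - (L T1).pos (z0 + ρ * ζ))| ≤
      K' * a * |(y0 T0 T' - y0 T0 T1) + (ζ - b T0) * (y1 T0 T' - y1 T0 T1)|),
    Cap Z (stp e Λ w1 w2 z0 t0 L) (stc e Λ w1 w2 ρ t0 L) b g y0 y1 K M0 lam0 (qm 2)
      ((2 * W * (40 * K' * K)) ^ C * M * ((1 / Λ) ^ (1 + qm 1) * (1 / M0) ^ (1 + qm 2))) := by
  obtain ⟨C, hC, h⟩ := cap_of hE
  refine ⟨C, hC, ?_⟩
  intro L P cu cv Uf Vf W M a w1 w2 z0 ρ r H hrρ hP e he t0 Z hZ K K' Λ M0 lam0 s1 s2 g b y0 y1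
    hK hK' hΛ hw hs1 hs2 gn hM haM hal hy
  have Λ0 : 0 < Λ := by linarith
  have hi : Λ⁻¹ = 1 / Λ := (one_div Λ).symm
  have := h H hrρ hP he hZ (K := K) (K' := K') (t := Λ⁻¹) (M0 := M0) (lam0 := lam0) (s1 := s1)
    (s2 := s2) (g := g) (p := stp e Λ w1 w2 z0 t0 L) (c := stc e Λ w1 w2 ρ t0 L) (b := b)
    (y0 := y0) (y1 := y1) hK hK' (inv_pos.2 Λ0) (inv_le_one_of_one_le₀ hΛ)
    (by
      have e1 : K' * (Λ⁻¹ * w1) = K' * w1 / Λ := by field_simp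
      rw [e1, le_div_iff₀ Λ0]; linarith)
    (fun T hT => by
      have e1 : |s1 T| * (Λ⁻¹ * w1) = |s1 T| * w1 / Λ := by field_simp
      rw [e1, div_le_iff₀ Λ0]
      have := hs1 T hT
      linarith) hs2 gn hM haM hal
    (fun T hT T' hT' ζ _ _ => st_diff e z0 ρ t0 L Λ0.ne' T T' ζ) hy
  rwa [hi] at this

end Crest.Agent.R136.Plk511
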