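import Crest.Agent.R136.Plk4_511
import Crest.Agent.R136.Lnk3_989

/-!
# R136 (S0187), g-free tilt (PLAN 2), B4: `Cap` with the normal coordinates of `Lnk989` (helper511)

`ny0`, `ny1` : normal coordinate (unit `a`) of `T' - T` at the base height of `T`, and its velocity.
-/

set_option autoImplicit false
set_option linter.unusedVariables false
set_option linter.unusedSectionVars false

namespace Crest.Agent.R136.Plk511

open Finset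
open Crest.Agent.R136.Sh605
open Crest.Agent.R136.K4 (Plk4)
open Crest.Agent.R136.Pl2W102 (Near Ex2 Two1)
open Crest.Agent.R136.Grp639 (Cap al pe)
open Crest.Agent.R136.Mdr535 (ty gr)
open Crest.Agent.R136.Lnk989 (dis)

/-- normal coordinate at the base height; `N T` = gradient of the sheet at the base height of `T` -/
noncomputable def ny0 (e : Fin 3 → V3) (w : V3) (a z0 ρ : ℝ) (N : ℕ → V3) (b : ℕ → ℝ)
    (L : ℕ → Ln4) (T T' : ℕ) : ℝ :=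
  ty e w (N T) (dis (L T) (L T') (z0 + ρ * b T)) / a

/-- its velocity -/
noncomputable def ny1 (e : Fin 3 → V3) (w : V3) (a z0 ρ : ℝ) (N : ℕ → V3)
    (L : ℕ → Ln4) (T T' : ℕ) : ℝ :=
  ty e w (N T) (dis (L T) (L T') (z0 + ρ) - dis (L T) (L T') z0) / a

theorem ny_eq {e : Fin 3 → V3} {w : V3} {a : ℝ} (ha : a ≠ 0) (z0 ρ : ℝ) (N : ℕ → V3)
    (b : ℕ → ℝ) (L : ℕ → Ln4) (T0 T1 T' : ℕ) (ζ : ℝ) :
    a * ((ny0 e w a z0 ρ N b L T0 T' - ny0 e w a z0 ρ N b L T0 T1) +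
      (ζ - b T0) * (ny1 e w a z0 ρ N L T0 T' - ny1 e w a z0 ρ N L T0 T1)) =
    dt (e 0) ((L T').pos (z0 + ρ * ζ) - (L T1).pos (z0 + ρ * ζ)) +
      gr (N T0) w 1 * dt (e 1) ((L T').pos (z0 + ρ * ζ) - (L T1).pos (z0 + ρ * ζ)) +
      gr (N T0) w 2 * dt (e 2) ((L T').pos (z0 + ρ * ζ) - (L T1).pos (z0 + ρ * ζ)) := by
  have e1 : dt (e 0) ((L T').pos (z0 + ρ * ζ) - (L T1).pos (z0 + ρ * ζ)) +
      gr (N T0) w 1 * dt (e 1) ((L T').pos (z0 + ρ * ζ) - (L T1).pos (z0 + ρ * ζ)) +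
      gr (N T0) w 2 * dt (e 2) ((L T').pos (z0 + ρ * ζ) - (L T1).pos (z0 + ρ * ζ)) =
      (ty e w (N T0) (dis (L T0) (L T') (z0 + ρ * b T0)) -
        ty e w (N T0) (dis (L T0) (L T1) (z0 + ρ * b T0))) +
      (ζ - b T0) * (ty e w (N T0) (dis (L T0) (L T') (z0 + ρ) - dis (L T0) (L T') z0) -
        ty e w (N T0) (dis (L T0) (L T1) (z0 + ρ) - dis (L T0) (L T1) z0)) := by
    simp only [ty, dis, dt, Ln4.pos, Pi.sub_apply]
    ring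
  rw [e1]
  simp only [ny0, ny1]
  field_simp

/-- **`Cap` with the normal coordinates `ny0`, `ny1`** -/
theorem cap_ty {η : ℝ} {qm qp : Fin 3 → ℝ} (hE : Ex2 η qm qp) :
    ∃ C : ℝ, 0 ≤ C ∧ ∀ {L : ℕ → Ln4} {P : Finset ℕ} {cu cv : ℕ → ℕ}
    {Uf Vf : ℕ → Plk4} {W M a w1 w2 z0 ρ r : ℝ}
    (H : Two1 qm qp L P cu cv Uf Vf W M a w1 w2 z0 ρ r) (hrρ : r ≤ ρ) (hP : P.Nonempty)
    {e : Fin 3 → V3} (he : Ortho e) {w : V3} (t0 : Ln4) {Z : Finset ℕ} (hZ : Z ⊆ P)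
    {K K' K1 Λ M0 lam0 : ℝ} {N : ℕ → V3} {g : ℕ → Fin 2 → ℝ} {b : ℕ → ℝ}
    (hK : 1 ≤ K) (hK' : 1 ≤ K') (hK1 : 1 ≤ K1) (hKK : 2 * K1 ^ 2 ≤ K') (hΛ : 1 ≤ Λ)
    (hw : Λ * w2 ≤ K' * w1) (h0 : 0 < w 0) (h02 : w 0 ≤ w 2) (h1 : 0 < w 1)
    (hw1 : w1 ≤ K1 * w 1) (hw2 : w 2 ≤ K1 * w2)
    (hN : ∀ T ∈ Z, |N T 1 / N T 0| ≤ 2 ∧ |N T 2 / N T 0| ≤ 2)
    (gn : ∀ T ∈ Z, g T 0 ^ 2 + g T 1 ^ 2 = 1)
    (hM : 1 ≤ M0) (haM : a * M0 ≤ K' * w2) (hal : a ≤ K' * (lam0 * w2)),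
    Cap Z (stp e Λ w1 w2 z0 t0 L) (stc e Λ w1 w2 ρ t0 L) b g (ny0 e w a z0 ρ N b L)
      (ny1 e w a z0 ρ N L) K M0 lam0 (qm 2)
      ((2 * W * (40 * K' * K)) ^ C * M * ((1 / Λ) ^ (1 + qm 1) * (1 / M0) ^ (1 + qm 2))) := by
  obtain ⟨C, hC, h⟩ := cap_std hE
  refine ⟨C, hC, ?_⟩
  intro L P cu cv Uf Vf W M a w1 w2 z0 ρ r H hrρ hP e he w t0 Z hZ K K' K1 Λ M0 lam0 N g b
    hK hK' hK1 hKK hΛ hw h0 h02 h1 hw1 hw2 hN gn hM haM hal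
  have h2 : 0 < w 2 := h0.trans_le h02
  have K10 : 0 < K1 := by linarith
  have w2p := H.w20
  have w1p := H.w10
  have hK12 : 1 ≤ K1 ^ 2 := one_le_pow₀ hK1
  refine h H hrρ hP he t0 hZ (K := K) (K' := K') (Λ := Λ) (M0 := M0) (lam0 := lam0)
    (s1 := fun T => gr (N T) w 1) (s2 := fun T => gr (N T) w 2) (g := g) (b := b)
    (y0 := ny0 e w a z0 ρ N b L) (y1 := ny1 e w a z0 ρ N L) hK hK' hΛ hw ?_ ?_ gn hM haM hal ?_
  · intro T hT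
    have e1 : |gr (N T) w 1| ≤ 2 * (w 0 / w 1) := by
      simp only [gr]
      rw [abs_mul, abs_of_pos (div_pos h0 h1)]
      exact mul_le_mul_of_nonneg_right (hN T hT).1 (div_pos h0 h1).le
    calc |gr (N T) w 1| * w1 ≤ 2 * (w 0 / w 1) * (K1 * w 1) := by gcongr
      _ = 2 * K1 * w 0 := by field_simp
      _ ≤ 2 * K1 * (K1 * w2) := by
          have := h02.trans hw2
          gcongr
      _ = 2 * K1 ^ 2 * (1 * w2) := by ring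
      _ ≤ K' * (Λ * w2) := by gcongr
  · intro T hT
    have e1 : |gr (N T) w 2| ≤ 2 * (w 0 / w 2) := by
      simp only [gr]
      rw [abs_mul, abs_of_pos (div_pos h0 h2)]
      exact mul_le_mul_of_nonneg_right (hN T hT).2 (div_pos h0 h2).le
    have e2 : w 0 / w 2 ≤ 1 := (div_le_one h2).2 h02
    calc |gr (N T) w 2| ≤ 2 * (w 0 / w 2) := e1
      _ ≤ 2 * 1 := by gcongr
      _ ≤ K' := by linarith
  · intro T0 _ T1 _ T' _ ζ _ _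
    rw [← ny_eq H.a0.ne' z0 ρ N b L T0 T1 T' ζ, abs_mul, abs_of_pos H.a0]
    have := H.a0
    gcongr
    exact le_mul_of_one_le_left this.le hK'

end Crest.Agent.R136.Plk511
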