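import Crest.Agent.R136.Plk5_511
import Crest.Agent.R136.Shd_410

/-!
# R136 (S0187), g-free tilt (PLAN 2), B4: `Cap` over `ShD` (helper511)
-/

set_option autoImplicit false
set_option linter.unusedVariables false
set_option linter.unusedSectionVars false

namespace Crest.Agent.R136.Plk511

open Finset
open Crest.Agent.R136.Sh605
open Crest.Agent.R136.K4 (Plk4)
open Crest.Agent.R136.Pl2W102 (Near Ex2 Two1)
open Crest.Agent.R136.Grp639 (Cap al pe)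
open Crest.Agent.R136.Mdr535 (ty gr)
open Crest.Agent.R136.Lnk989 (dis)
open Crest.Agent.R136.Shd410 (ShD)

/-- `Cap` over `Two1`, all constants `≤ X`, normal coordinates with a unit `au` -/
theorem cap_au {η : ℝ} {qm qp : Fin 3 → ℝ} (hE : Ex2 η qm qp) :
    ∃ C : ℝ, 0 ≤ C ∧ ∀ {L : ℕ → Ln4} {P : Finset ℕ} {cu cv : ℕ → ℕ}
    {Uf Vf : ℕ → Plk4} {W M a w1 w2 z0 ρ r : ℝ}
    (H : Two1 qm qp L P cu cv Uf Vf W M a w1 w2 z0 ρ r) (hrρ : r ≤ ρ) (hP : P.Nonempty)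
    {e : Fin 3 → V3} (he : Ortho e) {w : V3} (t0 : Ln4) {Z : Finset ℕ} (hZ : Z ⊆ P)
    {K K' K1 Λ M0 lam0 au : ℝ} {N : ℕ → V3} {g : ℕ → Fin 2 → ℝ} {b : ℕ → ℝ}
    (hau : 0 < au) (hau' : au ≤ K' * a)
    (hK : 1 ≤ K) (hK' : 1 ≤ K') (hK1 : 1 ≤ K1) (hKK : 2 * K1 ^ 2 ≤ K') (hΛ : 1 ≤ Λ)
    (hw : Λ * w2 ≤ K' * w1) (h0 : 0 < w 0) (h02 : w 0 ≤ w 2) (h1 : 0 < w 1)
    (hw1 : w1 ≤ K1 * w 1) (hw2 : w 2 ≤ K1 * w2)
    (hN : ∀ T ∈ Z, |N T 1 / N T 0| ≤ 2 ∧ |N T 2 / N T 0| ≤ 2)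
    (gn : ∀ T ∈ Z, g T 0 ^ 2 + g T 1 ^ 2 = 1)
    (hM : 1 ≤ M0) (haM : a * M0 ≤ K' * w2) (hal : a ≤ K' * (lam0 * w2)),
    Cap Z (stp e Λ w1 w2 z0 t0 L) (stc e Λ w1 w2 ρ t0 L) b g (ny0 e w au z0 ρ N b L)
      (ny1 e w au z0 ρ N L) K M0 lam0 (qm 2)
      ((2 * W * (40 * K' * K)) ^ C * M * ((1 / Λ) ^ (1 + qm 1) * (1 / M0) ^ (1 + qm 2))) := by
  obtain ⟨C, hC, h⟩ := cap_std hE
  refine ⟨C, hC, ?_⟩
  intro L P cu cv Uf Vf W M a w1 w2 z0 ρ r H hrρ hP e he w t0 Z hZ K K' K1 Λ M0 lam0 au N g b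
    hau hau' hK hK' hK1 hKK hΛ hw h0 h02 h1 hw1 hw2 hN gn hM haM hal
  have h2 : 0 < w 2 := h0.trans_le h02
  have K10 : 0 < K1 := by linarith
  have w2p := H.w20
  have w1p := H.w10
  have hK12 : 1 ≤ K1 ^ 2 := one_le_pow₀ hK1
  refine h H hrρ hP he t0 hZ (K := K) (K' := K') (Λ := Λ) (M0 := M0) (lam0 := lam0)
    (s1 := fun T => gr (N T) w 1) (s2 := fun T => gr (N T) w 2) (g := g) (b := b)
    (y0 := ny0 e w au z0 ρ N b L) (y1 := ny1 e w au z0 ρ N L) hK hK' hΛ hw ?_ ?_ gn hM haM hal ?_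
  · intro T hT
    have e1 : |gr (N T) w 1| ≤ 2 * (w 0 / w 1) := by
      simp only [gr]
      rw [abs_mul, abs_of_pos (div_pos h0 h1)]
      exact mul_le_mul_of_nonneg_right (hN T hT).1 (div_pos h0 h1).le
    calc |gr (N T) w 1| * w1 ≤ 2 * (w 0 / w 1) * (K1 * w 1) := by gcongr
      _ = 2 * K1 * w 0 := by field_simp
      _ ≤ 2 * K1 * (K1 * w2) := by
          have := h02.trans hw2
          gcongr
      _ = 2 * K1 ^ 2 * (1 * w2) := by ring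
      _ ≤ K' * (Λ * w2) := by gcongr
  · intro T hT
    have e1 : |gr (N T) w 2| ≤ 2 * (w 0 / w 2) := by
      simp only [gr]
      rw [abs_mul, abs_of_pos (div_pos h0 h2)]
      exact mul_le_mul_of_nonneg_right (hN T hT).2 (div_pos h0 h2).le
    have e2 : w 0 / w 2 ≤ 1 := (div_le_one h2).2 h02
    calc |gr (N T) w 2| ≤ 2 * (w 0 / w 2) := e1
      _ ≤ 2 * 1 := by gcongr
      _ ≤ K' := by linarith
  · intro T0 _ T1 _ T' _ ζ _ _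
    rw [← ny_eq hau.ne' z0 ρ N b L T0 T1 T' ζ, abs_mul, abs_of_pos hau]
    gcongr

/-- **`Cap` over `ShD`** : every constant is a power of `W` -/
theorem cap_shd {η : ℝ} {qm qp : Fin 3 → ℝ} (hE : Ex2 η qm qp) {c : ℝ} (hc : 0 ≤ c) :
    ∃ C : ℝ, 0 ≤ C ∧ ∀ {K : ℝ} {L : ℕ → Ln4} {Z : Finset ℕ} {S S' : Plk4}
    {f f' : Fin 3 → V3} {W M a Y w1 w2 z0 ρ r : ℝ} {j k' : ℕ}
    (h : ShD K qm qp L Z S S' f f' W M a Y w1 w2 z0 ρ r j k')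
    (t0 : Ln4) {F : Finset ℕ} (hF : F ⊆ Z) {Kc M0 lam0 au : ℝ} {N : ℕ → V3}
    {g : ℕ → Fin 2 → ℝ} {b : ℕ → ℝ}
    (hau : 0 < au) (hau' : au ≤ W ^ c * a) (hK : 1 ≤ Kc) (hKc : Kc ≤ W ^ c)
    (hN : ∀ T ∈ F, |N T 1 / N T 0| ≤ 2 ∧ |N T 2 / N T 0| ≤ 2)
    (gn : ∀ T ∈ F, g T 0 ^ 2 + g T 1 ^ 2 = 1)
    (hM : 1 ≤ M0) (haM : a * M0 ≤ W ^ c * w2) (hl0 : 0 ≤ lam0) (hal : a ≤ W ^ c * (lam0 * w2)),
    Cap F (stp S.e (2 ^ j) w1 w2 z0 t0 L) (stc S.e (2 ^ j) w1 w2 ρ t0 L) b g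
      (ny0 S.e S.w au z0 ρ N b L) (ny1 S.e S.w au z0 ρ N L) Kc M0 lam0 (qm 2)
      (W ^ C * M * ((1 / 2 ^ j) ^ (1 + qm 1) * (1 / M0) ^ (1 + qm 2))) := by
  obtain ⟨C, hC, hcap⟩ := cap_au hE
  refine ⟨(11 + 2 * c) * C, by positivity, ?_⟩
  intro K L Z S S' f f' W M a Y w1 w2 z0 ρ r j k' h t0 F hF Kc M0 lam0 au N g b hau hau' hK hKc hN
    gn hM haM hl0 hal
  obtain ⟨P, cu, cv, Uf, Vf, hZP, hP, H⟩ := h.two
  have W1 : 1 ≤ W := by linarith [h.W2]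
  have W0 : 0 < W := by linarith
  have ha := h.a0
  have hw2 : 0 < w2 := ha.trans_le (h.aY.trans h.Yw)
  have hw1 : 0 < w1 := hw2.trans_le h.ww
  have hS := h.shS
  have p0 : 0 < S.w 0 := (h.r0.trans_le hS.r0_le).trans_le hS.a_le0
  have p2 : 0 < S.w 2 := p0.trans_le hS.w0_le
  have p1 : 0 < S.w 1 := p2.trans_le hS.w_le
  have hWc : 1 ≤ W ^ c := Real.one_le_rpow W1 hc
  set K' := W ^ (3 + c) with hK'
  have hK'1 : 1 ≤ K' := Real.one_le_rpow W1 (by linarith)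
  have hcK : W ^ c ≤ K' := Real.rpow_le_rpow_of_exponent_le W1 (by linarith)
  have h3K : W ^ (3:ℝ) ≤ K' := Real.rpow_le_rpow_of_exponent_le W1 (by linarith)
  have h3 : W ^ (3:ℝ) = W ^ 3 := by rw [← Real.rpow_natCast]; norm_num
  have hKK : 2 * W ^ 2 ≤ K' := by
    refine le_trans ?_ h3K
    rw [h3]
    calc 2 * W ^ 2 ≤ W * W ^ 2 := by have := h.W2; gcongr
      _ = W ^ 3 := by ring
  have h2K : 2 ≤ K' := by
    refine le_trans ?_ hKK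
    have : 1 ≤ W ^ 2 := one_le_pow₀ W1
    linarith
  have hΛ : (1:ℝ) ≤ 2 ^ j := one_le_pow₀ (by norm_num)
  have hlw := h.dy.hlw h.hF.ortho h.hG.ortho (ha.trans_le h.aY) h.Yw h.ww
  have hres := hcap H h.rρ hP hS.ortho (w := S.w) t0 (hF.trans hZP) (K := Kc) (K' := K')
    (K1 := W) (Λ := 2 ^ j) (M0 := M0) (lam0 := lam0) (au := au) (N := N) (g := g) (b := b)
    hau (hau'.trans (by gcongr)) hK hK'1 W1 hKK hΛ (hlw.trans (by gcongr)) p0 hS.w0_le p1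
    h.d1.1 h.d2.2 hN gn hM (haM.trans (by gcongr)) (hal.trans (by gcongr))
  -- monotone in the constant
  have hQ : (2 * W * (40 * K' * Kc)) ^ C ≤ W ^ ((11 + 2 * c) * C) := by
    have e40 : (40:ℝ) ≤ W ^ (6:ℝ) := by
      have : (2:ℝ) ^ (6:ℝ) ≤ W ^ (6:ℝ) := Real.rpow_le_rpow (by norm_num) h.W2 (by norm_num)
      refine le_trans ?_ this
      norm_num
    have e2 : (2:ℝ) ≤ W ^ (1:ℝ) := by rw [Real.rpow_one]; exact h.W2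
    have eW : W ≤ W ^ (1:ℝ) := by rw [Real.rpow_one]
    have e1 : 2 * W * (40 * K' * Kc) ≤ W ^ (11 + 2 * c) := by
      calc 2 * W * (40 * K' * Kc) ≤ W ^ (1:ℝ) * W ^ (1:ℝ) * (W ^ (6:ℝ) * W ^ (3 + c) * W ^ c) := by
            gcongr
        _ = W ^ (11 + 2 * c) := by
            rw [← Real.rpow_add W0, ← Real.rpow_add W0, ← Real.rpow_add W0, ← Real.rpow_add W0]
            congr 1; ring
    have e0 : 0 ≤ 2 * W * (40 * K' * Kc) := by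
      have : 0 ≤ Kc := by linarith
      positivity
    calc (2 * W * (40 * K' * Kc)) ^ C ≤ (W ^ (11 + 2 * c)) ^ C := Real.rpow_le_rpow e0 e1 hC
      _ = _ := by rw [← Real.rpow_mul W0.le]
  intro T0 hT0 T1 hT1 lam hlam hlam0 hlam1 F' hF' hb'
  refine (hres T0 hT0 T1 hT1 lam hlam hlam0 hlam1 F' hF' hb').trans ?_
  have M0p := h.M0
  have q0 : 0 ≤ (1 / (2:ℝ) ^ j) ^ (1 + qm 1) * (1 / M0) ^ (1 + qm 2) := by positivity
  have q1 : 0 ≤ lam ^ (1 + qm 2) := by positivity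
  gcongr

end Crest.Agent.R136.Plk511
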