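import Crest.Agent.R136.Pl2W_102
import Crest.Agent.R136.Asm4_102

/-!
# R136 (S0187), PLAN 2 (tilt without deep levels): finite facts for the wrapper (helper102)

* `Ty`, `Bse` : the facts about one common line of two sheets which hold off a negligible set;
* `bse_sub` : these facts pass to sub-cells;
* `Two1.mono` : `Two1` is monotone in `W`;
* `tiltOK_cl` : the conclusion from angle and closeness.
-/

set_option autoImplicit false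
set_option linter.unusedVariables false

open Finset

namespace Crest.Agent.R136.Pl2W102

open Crest.Agent.R136.Sh605
open Crest.Agent.R136.Tl102
open Crest.Agent.R136.Deep51 (CloseC)
open Crest.Agent.R136.K4 (Plk4)
open Crest.Agent.R136.Top484
open Crest.Agent.R136.Tlt51 (Shp InP mk4 zx rh TiltOKC)
open Crest.Agent.R136.KapP335
open Crest.Agent.R136.Cps605
open Crest.Agent.R136.Phc248 (ph phC phC_nonneg)

/-- type I: the rotation of the sheet along the second axis is visible along the line `T` -/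
def Ty (δ : ℝ) (S : Plk4) (T : Ln4) (z0 ρ : ℝ) : Prop :=
  ∀ b0 b1 G, IsExp S.q S.e S.w T z0 ρ b0 b1 G → δ ≤ |scB1 (kap b0 b1 G) b0 b1 2|

theorem Ty.mono {δ δ' : ℝ} {S : Plk4} {T : Ln4} {z0 ρ : ℝ} (h : Ty δ S T z0 ρ) (hδ : δ' ≤ δ) :
    Ty δ' S T z0 ρ := fun b0 b1 G hE => hδ.trans (h b0 b1 G hE)

/-- **facts about one common line `T` of the sheets `S` (base, larger curvature extent) and `S'`** -/
structure Bse (W : ℝ) (S S' : Plk4) (T : Ln4) (z0 ρ : ℝ) : Prop where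
  pos : 0 < kapP S z0 ρ T
  kk : kapP S' z0 ρ T ≤ W * kapP S z0 ρ T
  det : DetP W⁻¹ S z0 ρ T
  ty : Ty W⁻¹ S T z0 ρ
  other : (0 < kapP S' z0 ρ T ∧ DetP W⁻¹ S' z0 ρ T ∧ Ty W⁻¹ S' T z0 ρ) ∨
    kapP S' z0 ρ T ≤ W * S'.a

/-! ### sub-cells -/

theorem kapP_le {S : Plk4} {T : Ln4} {z0 ρ z1 ρ1 r : ℝ} (hr : 0 < r) (hρ : 0 < ρ)
    (hz1 : z1 ≤ z0) (hz1' : z0 + ρ ≤ z1 + ρ1) (hS : Shp S z1 ρ1 r) (hT : InP T S z1 ρ1) :
    kapP S z0 ρ T ≤ 40 * kapP S z1 ρ1 T := by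
  have hw0 : 0 < S.w 0 := hr.trans_le (hS.r0_le.trans hS.a_le0)
  have hρ1 : 0 < ρ1 := by linarith
  have P := StP.of_shN hS hw0
  obtain ⟨b0, b1, G, hE⟩ := exists_isExp P.isQ S.e hw0.ne' T z1 ρ1
  have N := hE.nrmC P hρ1.le (fun z h1 h2 => (hT z h1 h2).1)
  obtain ⟨m0, m1, m2⟩ := hgt_mem (z0' := z1) (z0 := z0) hρ1 hρ.le hz1 hz1'
  have hEs := isExp_mono (z0 := z0) (ρ := ρ) hE hρ1.ne'
  have hτ0 : 0 < ρ / ρ1 := div_pos hρ hρ1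
  rw [kapP_eq hw0.ne' hE, kapP_eq hw0.ne' hEs]
  have := mul_le_mul_of_nonneg_left (kap_sub_le N m0 hτ0.le m2) hw0.le
  linarith

theorem kapP_nonneg {S : Plk4} {T : Ln4} {z0 ρ : ℝ} (hw : 0 ≤ S.w 0) : 0 ≤ kapP S z0 ρ T :=
  mul_nonneg hw (kap_nonneg _ _ _)

/-- type I over a sub-cell -/
theorem ty_sub {S : Plk4} {T : Ln4} {z0 ρ z1 ρ1 r δ : ℝ} (hr : 0 < r) (hρ : 0 < ρ)
    (hz1 : z1 ≤ z0) (hz1' : z0 + ρ ≤ z1 + ρ1) (hS : Shp S z1 ρ1 r) (hT : InP T S z1 ρ1)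
    (hκ : 0 < kapP S z0 ρ T) (hδ : 0 ≤ δ) (hty : Ty δ S T z1 ρ1) :
    Ty (ρ / ρ1 * δ / 160) S T z0 ρ := by
  have hw0 : 0 < S.w 0 := hr.trans_le (hS.r0_le.trans hS.a_le0)
  have hρ1 : 0 < ρ1 := by linarith
  have P := StP.of_shN hS hw0
  obtain ⟨b0, b1, G, hE⟩ := exists_isExp P.isQ S.e hw0.ne' T z1 ρ1
  have N := hE.nrmC P hρ1.le (fun z h1 h2 => (hT z h1 h2).1)
  obtain ⟨m0, m1, m2⟩ := hgt_mem (z0' := z1) (z0 := z0) hρ1 hρ.le hz1 hz1'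
  have hEs := isExp_mono (z0 := z0) (ρ := ρ) hE hρ1.ne'
  have hτ0 : 0 < ρ / ρ1 := div_pos hρ hρ1
  rw [kapP_eq hw0.ne' hEs] at hκ
  have hk' : 0 < kap (b0s b0 b1 ((z0 - z1) / ρ1)) (b1s b1 (ρ / ρ1)) G :=
    (mul_pos_iff_of_pos_left hw0).1 hκ
  have hk40 := kap_sub_le N m0 hτ0.le m2
  have hk : 0 < kap b0 b1 G := by linarith
  have hζ1 : (z0 - z1) / ρ1 ≤ 1 := by linarith
  obtain ⟨d1, d2⟩ := D_ge N m0 hζ1
  obtain ⟨g1, g2, -⟩ := N.b1_le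
  intro c0 c1 G' hE'
  obtain ⟨e1, e2, e3⟩ := isExp_unique hw0.ne' hE' hEs
  rw [e1, e2, e3]
  have h0 := hty b0 b1 G hE
  simp only [scB1, Matrix.cons_val] at h0 ⊢
  rw [shB1_sub (by positivity) (by positivity) (Or.inr rfl), abs_div, abs_of_pos hk', abs_mul,
    abs_of_pos hτ0, abs_mul, abs_div, abs_of_pos (by positivity : (0:ℝ) < b0 0),
    abs_of_pos (by linarith : 0 < b0s b0 b1 ((z0 - z1) / ρ1) 0)]
  rw [abs_div, abs_of_pos hk, le_div_iff₀ hk] at h0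
  rw [le_div_iff₀ hk']
  have hb : 1 / 4 ≤ b0 0 / b0s b0 b1 ((z0 - z1) / ρ1) 0 := by
    rw [div_le_div_iff₀ (by norm_num) (by linarith)]
    linarith
  calc ρ / ρ1 * δ / 160 * kap (b0s b0 b1 ((z0 - z1) / ρ1)) (b1s b1 (ρ / ρ1)) G
      ≤ ρ / ρ1 * δ / 160 * (40 * kap b0 b1 G) := mul_le_mul_of_nonneg_left hk40 (by positivity)
    _ = ρ / ρ1 * (1 / 4 * (δ * kap b0 b1 G)) := by ring
    _ ≤ ρ / ρ1 * (b0 0 / b0s b0 b1 ((z0 - z1) / ρ1) 0 * |shB1 b0 b1 2|) := by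
        refine mul_le_mul_of_nonneg_left ?_ hτ0.le
        exact mul_le_mul hb h0 (by positivity) (by linarith)

/-- the facts pass to sub-cells -/
theorem bse_sub {S S' : Plk4} {T : Ln4} {z0 ρ z1 ρ1 z2 ρ2 r B δ W : ℝ} (hr : 0 < r) (hρ : 0 < ρ)
    (h1 : z1 ≤ z0) (h1' : z0 + ρ ≤ z1 + ρ1) (h2 : z2 ≤ z0) (h2' : z0 + ρ ≤ z2 + ρ2)
    (hS : Shp S z1 ρ1 r) (hS' : Shp S' z2 ρ2 r) (hT : InP T S z1 ρ1) (hT' : InP T S' z2 ρ2)
    (hB : 1 ≤ B) (hb1 : ρ1 ≤ B * ρ) (hb2 : ρ2 ≤ B * ρ) (hδ : 0 < δ) (hδ1 : δ ≤ 1)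
    (hκ : 0 < kapP S z1 ρ1 T) (hle : kapP S' z2 ρ2 T ≤ kapP S z1 ρ1 T) (hdet : DetP δ S z1 ρ1 T)
    (hty : Ty δ S T z1 ρ1)
    (ho : (0 < kapP S' z2 ρ2 T ∧ DetP δ S' z2 ρ2 T ∧ Ty δ S' T z2 ρ2) ∨
      kapP S' z2 ρ2 T ≤ δ⁻¹ * S'.a) (hW : 10 ^ 5 * B ^ 2 ≤ δ * W) :
    Bse W S S' T z0 ρ ∧ kapP S z1 ρ1 T ≤ W * kapP S z0 ρ T := by
  have hw0 : 0 < S.w 0 := hr.trans_le (hS.r0_le.trans hS.a_le0)
  have hw0' : 0 < S'.w 0 := hr.trans_le (hS'.r0_le.trans hS'.a_le0)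
  have ha' : 0 < S'.a := hr.trans_le hS'.r0_le
  have hρ1 : 0 < ρ1 := by linarith
  have hρ2 : 0 < ρ2 := by linarith
  have hB0 : 0 < B := by linarith
  have hB2 : B ≤ B ^ 2 := by nlinarith
  have hW0 : 0 < W := by
    by_contra hc
    push Not at hc
    have : δ * W ≤ 0 := mul_nonpos_of_nonneg_of_nonpos hδ.le hc
    have : 0 < 10 ^ 5 * B ^ 2 := by positivity
    linarith
  have hδW : δ * W ≤ W := mul_le_of_le_one_left hW0.le hδ1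
  have hWB : 10 ^ 5 * B ^ 2 ≤ W := hW.trans hδW
  have hWδ : 10 ^ 5 * B ^ 2 / δ ≤ W := by
    rw [div_le_iff₀ hδ]; linarith
  have r1 : B⁻¹ ≤ ρ / ρ1 := by
    rw [le_div_iff₀ hρ1, inv_mul_le_iff₀ hB0]; exact hb1
  have r2 : B⁻¹ ≤ ρ / ρ2 := by
    rw [le_div_iff₀ hρ2, inv_mul_le_iff₀ hB0]; exact hb2
  have hWd : W⁻¹ ≤ (B⁻¹) ^ 2 / 40 ^ 3 * δ := by
    rw [inv_pow, inv_le_iff_one_le_mul₀ hW0, div_mul_eq_mul_div, div_mul_eq_mul_div,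
      le_div_iff₀ (by norm_num), mul_assoc, ← div_eq_inv_mul, le_div_iff₀ (by positivity)]
    nlinarith [sq_nonneg B]
  have hWt : W⁻¹ ≤ B⁻¹ * δ / 160 := by
    rw [inv_le_iff_one_le_mul₀ hW0, div_mul_eq_mul_div, le_div_iff₀ (by norm_num), mul_assoc,
      ← div_eq_inv_mul, le_div_iff₀ hB0]
    nlinarith
  have detm : ∀ {S0 : Plk4} {ρ0 : ℝ}, B⁻¹ ≤ ρ / ρ0 → DetP ((ρ / ρ0) ^ 2 / 40 ^ 3 * δ) S0 z0 ρ T →
      DetP W⁻¹ S0 z0 ρ T := by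
    intro S0 ρ0 hb hd
    refine hd.mono (hWd.trans ?_)
    have : (B⁻¹) ^ 2 ≤ (ρ / ρ0) ^ 2 := pow_le_pow_left₀ (by positivity) hb 2
    gcongr
  have tym : ∀ {S0 : Plk4} {ρ0 : ℝ}, B⁻¹ ≤ ρ / ρ0 → Ty (ρ / ρ0 * δ / 160) S0 T z0 ρ →
      Ty W⁻¹ S0 T z0 ρ := by
    intro S0 ρ0 hb hd
    refine hd.mono (hWt.trans ?_)
    gcongr
  obtain ⟨k1, k2, k3⟩ := kapP_sub hr hρ h1 h1' hS hT hκ hdet
  have k2' : kapP S z1 ρ1 T ≤ 160 * B * kapP S z0 ρ T := by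
    have h3 : B⁻¹ * kapP S z1 ρ1 T ≤ 160 * kapP S z0 ρ T :=
      (mul_le_mul_of_nonneg_right r1 hκ.le).trans k2
    rw [inv_mul_le_iff₀ hB0] at h3
    linarith
  have k4 : kapP S' z0 ρ T ≤ 40 * kapP S' z2 ρ2 T := kapP_le hr hρ h2 h2' hS' hT'
  have kn : 0 ≤ kapP S' z0 ρ T := kapP_nonneg hw0'.le
  refine ⟨⟨k1, ?_, detm r1 k3, tym r1 (ty_sub hr hρ h1 h1' hS hT k1 hδ.le hty), ?_⟩, ?_⟩
  · calc kapP S' z0 ρ T ≤ 40 * kapP S' z2 ρ2 T := k4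
      _ ≤ 40 * kapP S z1 ρ1 T := by linarith
      _ ≤ 40 * (160 * B * kapP S z0 ρ T) := by linarith
      _ = 6400 * B * kapP S z0 ρ T := by ring
      _ ≤ W * kapP S z0 ρ T := mul_le_mul_of_nonneg_right (by linarith) k1.le
  · rcases ho with ⟨o1, o2, o3⟩ | ho
    · obtain ⟨l1, l2, l3⟩ := kapP_sub hr hρ h2 h2' hS' hT' o1 o2
      exact Or.inl ⟨l1, detm r2 l3, tym r2 (ty_sub hr hρ h2 h2' hS' hT' l1 hδ.le o3)⟩
    · right
      calc kapP S' z0 ρ T ≤ 40 * kapP S' z2 ρ2 T := k4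
        _ ≤ 40 * (δ⁻¹ * S'.a) := by linarith
        _ = 40 / δ * S'.a := by ring
        _ ≤ W * S'.a := by
            refine mul_le_mul_of_nonneg_right (le_trans ?_ hWδ) ha'.le
            refine div_le_div_of_nonneg_right ?_ hδ.le
            nlinarith
  · exact k2'.trans (mul_le_mul_of_nonneg_right (by linarith) k1.le)

/-! ### monotonicity in `W` -/

theorem Near.symm {W x y : ℝ} (h : Near W x y) : Near W y x := ⟨h.2, h.1⟩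

theorem Near.mono {W W' x y : ℝ} (h : Near W x y) (hW : W ≤ W') (hx : 0 ≤ x) (hy : 0 ≤ y) :
    Near W' x y :=
  ⟨h.1.trans (mul_le_mul_of_nonneg_right hW hy), h.2.trans (mul_le_mul_of_nonneg_right hW hx)⟩

theorem Two1.mono {qm qp : Fin 3 → ℝ} {L : ℕ → Ln4} {P : Finset ℕ} {cu cv : ℕ → ℕ}
    {Uf Vf : ℕ → Plk4} {W W' M a w1 w2 z0 ρ r : ℝ}
    (h : Two1 qm qp L P cu cv Uf Vf W M a w1 w2 z0 ρ r) (hW : W ≤ W') :
    Two1 qm qp L P cu cv Uf Vf W' M a w1 w2 z0 ρ r := by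
  have pU : ∀ S : Plk4, Shp S z0 ρ r → 0 ≤ S.a ∧ 0 ≤ S.w 1 ∧ 0 ≤ S.w 2 := by
    intro S hS
    have h0 := h.r0.trans_le hS.r0_le
    have h1 := h0.trans_le hS.a_le0
    have h2 := h1.trans_le hS.w0_le
    exact ⟨h0.le, (h2.trans_le hS.w_le).le, h2.le⟩
  refine ⟨h.W1.trans hW, h.M0, h.r0, h.ρ0, h.a0, h.w10, h.w20,
    h.w1ρ.trans (mul_le_mul_of_nonneg_right hW h.ρ0.le), h.lg.trans hW, h.vel, h.shU, h.shV,
    h.inU, h.inV, ?_, ?_, ?_, ?_, ?_⟩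
  · intro t ht
    obtain ⟨p1, p2, p3⟩ := pU _ (h.shU t ht)
    obtain ⟨d1, d2, d3⟩ := h.dimU t ht
    exact ⟨d1.mono hW h.a0.le p1, d2.mono hW h.w10.le p2, d3.mono hW h.w20.le p3⟩
  · intro t ht
    obtain ⟨p1, p2, p3⟩ := pU _ (h.shV t ht)
    obtain ⟨d1, d2, d3⟩ := h.dimV t ht
    exact ⟨d1.mono hW h.a0.le p1, d2.mono hW h.w10.le p2, d3.mono hW h.w20.le p3⟩
  · exact fun t ht => (h.fullU t ht).trans (mul_le_mul_of_nonneg_right hW (Nat.cast_nonneg _))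
  · exact fun t ht => (h.fullV t ht).trans (mul_le_mul_of_nonneg_right hW (Nat.cast_nonneg _))
  · intro S hS h1
    obtain ⟨p1, p2, p3⟩ := pU S hS
    refine (h.dmax S hS h1).trans ?_
    exact mul_le_mul_of_nonneg_right (mul_le_mul_of_nonneg_right hW h.M0.le)
      (phC_nonneg h.a0.le h.w10.le h.w20.le p1 p2 p3)

theorem Two7.mono {qm qp : Fin 3 → ℝ} {L : ℕ → Ln4} {P : Finset ℕ} {cu cv : ℕ → ℕ}
    {Uf Vf : ℕ → Plk4} {W W' M a w1 w2 z0 ρ zL ρL r : ℝ}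
    (h : Two7 qm qp L P cu cv Uf Vf W M a w1 w2 z0 ρ zL ρL r) (hW : W ≤ W') :
    Two7 qm qp L P cu cv Uf Vf W' M a w1 w2 z0 ρ zL ρL r :=
  ⟨h.to1.mono hW, h.z1, h.z2, h.l1, h.l2.trans (mul_le_mul_of_nonneg_right hW h.to1.ρ0.le), h.shU,
    h.shV, h.inU, h.inV⟩

/-! ### the conclusion -/

/-- the conclusion from angle and closeness -/
theorem tiltOK_cl {D : Dat4} {n : ℕ} {x : ℕ × ℝ} {b c u v : ℚ} {E E' lam : ℝ} (huv : u < v)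
    (hbc : (b = v ∧ c = u) ∨ (b = u ∧ c = v))
    (h : CloseC (mk4 D n b x).e (mk4 D n b x).w (mk4 D n b x).q (mk4 D n b x).a (mk4 D n c x).q E'
      (D.L n x.1) (zx D n (max b c) x) (rh D n (max b c)))
    (h' : CloseC (mk4 D n c x).e (mk4 D n c x).w (mk4 D n c x).q (mk4 D n c x).a (mk4 D n b x).q E'
      (D.L n x.1) (zx D n (max b c) x) (rh D n (max b c)))
    (hC : angC (mk4 D n b x) (mk4 D n c x) * D.w 1 n b ≤ lam * D.w 2 n b)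
    (hE' : E' ≤ E * max (D.w 0 n u) (D.w 0 n v)) (hw1 : 0 < D.w 1 n b) (hw2 : 0 ≤ D.w 2 n b)
    (hE : 0 ≤ E) (hlam : lam ≤ E) : TiltOKC D E u v n x := by
  have hm : max b c = v := by
    rcases hbc with ⟨rfl, rfl⟩ | ⟨rfl, rfl⟩
    · exact max_eq_left huv.le
    · exact max_eq_right huv.le
  rw [hm] at h h'
  have ga : angC (mk4 D n b x) (mk4 D n c x) ≤ E * (D.w 2 n b / D.w 1 n b) := by
    rw [← mul_div_assoc, le_div_iff₀ hw1]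
    exact hC.trans (mul_le_mul_of_nonneg_right hlam hw2)
  have g : ∀ i, i ≠ 1 → |dt ((mk4 D n b x).e 1) ((mk4 D n c x).e i)| ≤
      E * (D.w 2 n b / D.w 1 n b) := fun i hi => (le_angC _ _ hi).trans ga
  have g' : ∀ i, i ≠ 1 → |dt ((mk4 D n b x).e i) ((mk4 D n c x).e 1)| ≤
      E * (D.w 2 n b / D.w 1 n b) := fun i hi => (le_angC' _ _ hi).trans ga
  rcases hbc with ⟨rfl, rfl⟩ | ⟨rfl, rfl⟩
  · have hle : E * (D.w 2 n b / D.w 1 n b) ≤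
        E * max (D.w 2 n c / D.w 1 n c) (D.w 2 n b / D.w 1 n b) :=
      mul_le_mul_of_nonneg_left (le_max_right _ _) hE
    exact
      { close := fun z a1 a2 y hy hq => (h z a1 a2 y hy hq).trans hE'
        close' := fun z a1 a2 y hy hq => (h' z a1 a2 y hy hq).trans hE'
        ang := fun i hi => ⟨(g i hi).trans hle, (g' i hi).trans hle⟩ }
  · have hle : E * (D.w 2 n b / D.w 1 n b) ≤
        E * max (D.w 2 n b / D.w 1 n b) (D.w 2 n c / D.w 1 n c) :=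
      mul_le_mul_of_nonneg_left (le_max_left _ _) hE
    refine
      { close := fun z a1 a2 y hy hq => (h' z a1 a2 y hy hq).trans hE'
        close' := fun z a1 a2 y hy hq => (h z a1 a2 y hy hq).trans hE'
        ang := fun i hi => ⟨?_, ?_⟩ }
    · rw [dt_comm]; exact (g' i hi).trans hle
    · rw [dt_comm]; exact (g i hi).trans hle

end Crest.Agent.R136.Pl2W102
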