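import Crest.Agent.R136.Tw7_46

/-!
# R136 (S0187), PLAN 2: closeness of two sheets over a sub-cell gives closeness over the cell, in both
directions (helper46)

* `kp_two` : the extent of the base sheet is bounded by the one of the other sheet.
* `close_up` : both directions, abstract sizes.
* `close_near` : both directions, in the letters of `Two1`, `TypU`.
-/

set_option autoImplicit false
set_option linter.unusedVariables false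

open Finset

namespace Crest.Agent.R136.Tw746

open Crest.Agent.R136.Sh605
open Crest.Agent.R136.Tl102
open Crest.Agent.R136.Deep51 (CloseC)
open Crest.Agent.R136.K4 (Plk4)
open Crest.Agent.R136.Tlt51 (Shp InP)
open Crest.Agent.R136.KapP335
open Crest.Agent.R136.Cps605
open Crest.Agent.R136.Pl2 (kp rot2 TypU TypP)
open Crest.Agent.R136.Pl2W102 (Ty ty_sub Near)

variable {S S' : Plk4} {T : Ln4} {z0 ρ zL ρL r : ℝ}

theorem a_pos {S : Plk4} (hr : 0 < r) (hS : Shp S z0 ρ r) : 0 < S.a := hr.trans_le hS.r0_le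

/-- the extent of the base sheet over the sub-cell is bounded by the one of the other sheet -/
theorem kp_two {Λ E : ℝ} (hr : 0 < r) (hρ : 0 < ρ) (h1 : zL ≤ z0) (h1' : z0 + ρ ≤ zL + ρL)
    (hS : Shp S zL ρL r) (hT : InP T S zL ρL) (hS' : Shp S' zL ρL r) (hT' : InP T S' zL ρL)
    (hΛ : 1 ≤ Λ) (hcl : CloseC S.e S.w S.q S.a S'.q E T z0 ρ) (w1 : S.w 1 ≤ Λ * S'.w 1)
    (w2 : S.w 2 ≤ Λ * S'.w 2) (g : |dt (S'.e 2) (S.e 1)| * S.w 1 ≤ Λ * S'.w 2) :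
    kp S z0 ρ T ≤ 10 ^ 14 * Λ ^ 2 * (E + S'.a + kp S' zL ρL T) := by
  have hρ1 : 0 < ρL := by linarith
  have hw0 : 0 < S.w 0 := w0_pos hr hS
  have hw0' : 0 < S'.w 0 := w0_pos hr hS'
  have P := StP.of_shN hS hw0
  have P' := StP.of_shN hS' hw0'
  have H : Crest.Agent.R136.Prs262.Two Λ E S S' T z0 ρ zL ρL :=
    { one := hΛ
      ρ0 := hρ
      ρ0' := hρ1
      c1 := h1
      c2 := h1'
      st := stP_mono P h1 h1'
      st' := P'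
      o1 := hS.w0_le
      o2 := hS.w_le
      a0 := a_pos hr hS'
      inn := inSheet_mono hT h1 h1'
      inn' := hT'
      cl := hcl
      w1 := w1
      w2 := w2
      g := g }
  exact H.kap_down (expP_spec P.isQ hw0.ne' z0 ρ T) (expP_spec P'.isQ hw0'.ne' zL ρL T)

set_option maxHeartbeats 1000000 in
/-- **both directions over the long cell** -/
theorem close_up {Λ W a t : ℝ} (hr : 0 < r) (hρ : 0 < ρ) (h1 : zL ≤ z0) (h1' : z0 + ρ ≤ zL + ρL)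
    (ht0 : 0 < t) (ht : t * ρL ≤ ρ) (hS : Shp S zL ρL r) (hT : InP T S zL ρL)
    (hS' : Shp S' zL ρL r) (hT' : InP T S' zL ρL) (ha : 0 < a) (hW : 1 ≤ W) (hΛ : 1 ≤ Λ)
    (dS : S.a ≤ Λ * a) (dS' : S'.a ≤ Λ * a) (w1 : S.w 1 ≤ Λ * S'.w 1) (w2 : S.w 2 ≤ Λ * S'.w 2)
    (g : |dt (S'.e 2) (S.e 1)| * S.w 1 ≤ Λ * S'.w 2)
    (tU : W * a ≤ kp S zL ρL T → DetP W⁻¹ S zL ρL T)
    (tV : W * a ≤ kp S' zL ρL T → DetP W⁻¹ S' zL ρL T)
    (hcl : CloseC S.e S.w S.q S.a S'.q (Λ * a) T z0 ρ)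
    (hcl' : CloseC S'.e S'.w S'.q S'.a S.q (Λ * a) T z0 ρ)
    (hbig : 10 ^ 79 * Λ ^ 3 * W ^ 8 / t ^ 18 * a ≤ kp S zL ρL T) :
    CloseC S.e S.w S.q S.a S'.q (10 ^ 69 * Λ * W ^ 8 / t ^ 19 * a) T zL ρL ∧
      CloseC S'.e S'.w S'.q S'.a S.q (10 ^ 69 * Λ * W ^ 8 / t ^ 19 * a) T zL ρL := by
  have hρ1 : 0 < ρL := by linarith
  have hW0 : 0 < W := by linarith
  have hΛ0 : 0 < Λ := by linarith
  have ht1 : t ≤ 1 := by
    by_contra hc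
    push Not at hc
    nlinarith
  have hW8 : 1 ≤ W ^ 8 := one_le_pow₀ hW
  have hWW8 : W ≤ W ^ 8 := by
    calc W = W ^ 1 := (pow_one W).symm
      _ ≤ W ^ 8 := pow_le_pow_right₀ hW (by norm_num)
  have hΛ3 : Λ ≤ Λ ^ 3 := by
    calc Λ = Λ ^ 1 := (pow_one Λ).symm
      _ ≤ Λ ^ 3 := pow_le_pow_right₀ hΛ (by norm_num)
  have hΛ31 : 1 ≤ Λ ^ 3 := one_le_pow₀ hΛ
  have tp : ∀ n : ℕ, 0 < t ^ n := fun n => pow_pos ht0 n
  have tl : ∀ n : ℕ, t ^ n ≤ 1 := fun n => pow_le_one₀ ht0.le ht1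
  set E' := 10 ^ 62 * Λ * W ^ 8 / t ^ 17 * a with hE'
  have hE'0 : 0 < E' := by positivity
  -- `Λ a ≤ E'`, `W a ≤ E'`
  have hge : ∀ x : ℝ, 0 ≤ x → x ≤ Λ * W ^ 8 → x * a ≤ E' := by
    intro x hx0 hx
    rw [hE']
    refine mul_le_mul_of_nonneg_right ?_ ha.le
    rw [le_div_iff₀ (tp 17)]
    calc x * t ^ 17 ≤ x * 1 := mul_le_mul_of_nonneg_left (tl 17) hx0
      _ ≤ 10 ^ 62 * Λ * W ^ 8 := by
        have : 0 ≤ Λ * W ^ 8 := by positivity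
        linarith
  have hΛE : Λ * a ≤ E' := hge Λ hΛ0.le (le_mul_of_one_le_right hΛ0.le hW8)
  have hWE : W * a ≤ E' := hge W hW0.le (hWW8.trans (le_mul_of_one_le_left (by positivity) hΛ))
  have hsm : 10 ^ 62 * (Λ * a) ≤ t ^ 17 * W⁻¹ ^ 8 * E' := by
    refine le_of_eq ?_
    rw [hE']
    field_simp
  -- the base sheet
  have hEk : E' ≤ kp S zL ρL T := by
    refine le_trans ?_ hbig
    rw [hE']
    refine mul_le_mul_of_nonneg_right ?_ ha.le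
    rw [div_le_div_iff₀ (tp 17) (tp 18)]
    have e1 : t ^ 18 ≤ t ^ 17 := pow_le_pow_of_le_one ht0.le ht1 (by norm_num)
    calc 10 ^ 62 * Λ * W ^ 8 * t ^ 18 ≤ 10 ^ 62 * Λ * W ^ 8 * t ^ 17 :=
          mul_le_mul_of_nonneg_left e1 (by positivity)
      _ ≤ 10 ^ 79 * Λ ^ 3 * W ^ 8 * t ^ 17 := by
          refine mul_le_mul_of_nonneg_right ?_ (tp 17).le
          refine mul_le_mul_of_nonneg_right ?_ (by positivity)
          nlinarith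
  -- the other sheet
  have hk1 := kp_two hr hρ h1 h1' hS hT hS' hT' hΛ hcl w1 w2 g
  have hk2 := kp_ge' hr hρ h1 h1' ht hS hT
  have hEk' : E' ≤ kp S' zL ρL T := by
    by_contra hc
    push Not at hc
    have h3 : Λ * a + S'.a + kp S' zL ρL T ≤ 3 * E' := by linarith
    have h4 : 10 ^ 14 * Λ ^ 2 * (Λ * a + S'.a + kp S' zL ρL T) ≤ 10 ^ 14 * Λ ^ 2 * (3 * E') :=
      mul_le_mul_of_nonneg_left h3 (by positivity)
    have h5 : t * kp S zL ρL T ≤ 160 * (10 ^ 14 * Λ ^ 2 * (3 * E')) := by linarith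
    have h6 : t * (10 ^ 79 * Λ ^ 3 * W ^ 8 / t ^ 18 * a) ≤ 160 * (10 ^ 14 * Λ ^ 2 * (3 * E')) :=
      (mul_le_mul_of_nonneg_left hbig ht0.le).trans h5
    have e1 : t * (10 ^ 79 * Λ ^ 3 * W ^ 8 / t ^ 18 * a) =
        10 ^ 79 * (Λ ^ 3 * W ^ 8 / t ^ 17 * a) := by
      field_simp
    have e2 : 160 * (10 ^ 14 * Λ ^ 2 * (3 * E')) =
        (480 * 10 ^ 76) * (Λ ^ 3 * W ^ 8 / t ^ 17 * a) := by
      rw [hE']
      ring
    rw [e1, e2] at h6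
    have h7 : 0 < Λ ^ 3 * W ^ 8 / t ^ 17 * a := by positivity
    have h8 : (480 * 10 ^ 76 : ℝ) < 10 ^ 79 := by norm_num
    nlinarith
  have dU := tU (hWE.trans hEk)
  have dV := tV (hWE.trans hEk')
  have hWi : 0 < W⁻¹ := inv_pos.2 hW0
  have c1 := closeC_ext hr hρ h1 h1' hS hT hS' hT' ht0 ht hWi dU hcl hE'0 hsm hEk
    (dS.trans (hΛE.trans hEk))
  have c2 := closeC_ext hr hρ h1 h1' hS' hT' hS hT ht0 ht hWi dV hcl' hE'0 hsm hEk'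
    (dS'.trans (hΛE.trans hEk'))
  have hfin : 17 * (Λ * a) + 10 ^ 6 / t ^ 2 * E' ≤ 10 ^ 69 * Λ * W ^ 8 / t ^ 19 * a := by
    have e1 : 10 ^ 6 / t ^ 2 * E' = 10 ^ 68 * (Λ * W ^ 8 / t ^ 19 * a) := by
      rw [hE']
      field_simp
    have e2 : 17 * (Λ * a) ≤ 17 * (Λ * W ^ 8 / t ^ 19 * a) := by
      refine mul_le_mul_of_nonneg_left ?_ (by norm_num)
      refine mul_le_mul_of_nonneg_right ?_ ha.le
      rw [le_div_iff₀ (tp 19)]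
      calc Λ * t ^ 19 ≤ Λ * 1 := mul_le_mul_of_nonneg_left (tl 19) hΛ0.le
        _ ≤ Λ * W ^ 8 := mul_le_mul_of_nonneg_left hW8 hΛ0.le
    have e3 : 10 ^ 69 * Λ * W ^ 8 / t ^ 19 * a = 10 ^ 69 * (Λ * W ^ 8 / t ^ 19 * a) := by ring
    have h7 : 0 < Λ * W ^ 8 / t ^ 19 * a := by positivity
    rw [e1, e3]
    have : (17 : ℝ) + 10 ^ 68 ≤ 10 ^ 69 := by norm_num
    nlinarith
  refine ⟨closeC_sub c1 ?_ le_rfl le_rfl, closeC_sub c2 ?_ le_rfl le_rfl⟩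
  · linarith
  · linarith

/-- **both directions over the long cell**, in the letters of `Two1` and `TypU`: `B` bounds all
ratios, `E = B a` -/
theorem close_near {K B W a w1 w2 t : ℝ} (hr : 0 < r) (hρ : 0 < ρ) (h1 : zL ≤ z0)
    (h1' : z0 + ρ ≤ zL + ρL) (ht0 : 0 < t) (ht : t * ρL ≤ ρ) (hS : Shp S zL ρL r)
    (hT : InP T S zL ρL) (hS' : Shp S' zL ρL r) (hT' : InP T S' zL ρL) (ha : 0 < a)
    (hW : 1 ≤ W) (hB : 1 ≤ B)
    (dU : Near B a S.a ∧ Near B w1 (S.w 1) ∧ Near B w2 (S.w 2))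
    (dV : Near B a S'.a ∧ Near B w1 (S'.w 1) ∧ Near B w2 (S'.w 2))
    (hang : angC S S' * w1 ≤ B * w2)
    (tU : TypU K W a S T zL ρL) (tV : TypU K W a S' T zL ρL)
    (hcl : CloseC S.e S.w S.q S.a S'.q (B * a) T z0 ρ)
    (hcl' : CloseC S'.e S'.w S'.q S'.a S.q (B * a) T z0 ρ)
    (hbig : 10 ^ 79 * B ^ 9 * W ^ 8 / t ^ 18 * a ≤ kp S zL ρL T) :
    CloseC S.e S.w S.q S.a S'.q (10 ^ 69 * B ^ 3 * W ^ 8 / t ^ 19 * a) T zL ρL ∧
      CloseC S'.e S'.w S'.q S'.a S.q (10 ^ 69 * B ^ 3 * W ^ 8 / t ^ 19 * a) T zL ρL := by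
  have hB0 : 0 < B := by linarith
  have hB3 : B ≤ B ^ 3 := by
    calc B = B ^ 1 := (pow_one B).symm
      _ ≤ B ^ 3 := pow_le_pow_right₀ hB (by norm_num)
  have hB2 : B ^ 2 ≤ B ^ 3 := pow_le_pow_right₀ hB (by norm_num)
  obtain ⟨⟨ua, ua'⟩, ⟨u1, u1'⟩, ⟨u2, u2'⟩⟩ := dU
  obtain ⟨⟨va, va'⟩, ⟨v1, v1'⟩, ⟨v2, v2'⟩⟩ := dV
  have pw2 : 0 < S'.w 2 := (w0_pos hr hS').trans_le hS'.w0_le
  have pw1 : 0 < S'.w 1 := pw2.trans_le hS'.w_le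
  have qw2 : 0 < S.w 2 := (w0_pos hr hS).trans_le hS.w0_le
  have qw1 : 0 < S.w 1 := qw2.trans_le hS.w_le
  refine close_up hr hρ h1 h1' ht0 ht hS hT hS' hT' ha hW (Λ := B ^ 3) (one_le_pow₀ hB) ?_ ?_ ?_ ?_
    ?_ tU.det tV.det ?_ ?_ ?_
  · exact ua'.trans (mul_le_mul_of_nonneg_right hB3 ha.le)
  · exact va'.trans (mul_le_mul_of_nonneg_right hB3 ha.le)
  · calc S.w 1 ≤ B * w1 := u1'
      _ ≤ B * (B * S'.w 1) := mul_le_mul_of_nonneg_left v1 hB0.le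
      _ = B ^ 2 * S'.w 1 := by ring
      _ ≤ B ^ 3 * S'.w 1 := mul_le_mul_of_nonneg_right hB2 pw1.le
  · calc S.w 2 ≤ B * w2 := u2'
      _ ≤ B * (B * S'.w 2) := mul_le_mul_of_nonneg_left v2 hB0.le
      _ = B ^ 2 * S'.w 2 := by ring
      _ ≤ B ^ 3 * S'.w 2 := mul_le_mul_of_nonneg_right hB2 pw2.le
  · have h3 : |dt (S'.e 2) (S.e 1)| ≤ angC S S' := by
      rw [dt_comm]; exact le_angC _ _ (by decide)
    have h4 : 0 ≤ angC S S' := (abs_nonneg _).trans h3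
    calc |dt (S'.e 2) (S.e 1)| * S.w 1 ≤ angC S S' * (B * w1) :=
          mul_le_mul h3 u1' qw1.le h4
      _ = B * (angC S S' * w1) := by ring
      _ ≤ B * (B * w2) := mul_le_mul_of_nonneg_left hang hB0.le
      _ ≤ B * (B * (B * S'.w 2)) := by gcongr
      _ = B ^ 3 * S'.w 2 := by ring
  · exact closeC_sub hcl (mul_le_mul_of_nonneg_right hB3 ha.le) le_rfl le_rfl
  · exact closeC_sub hcl' (mul_le_mul_of_nonneg_right hB3 ha.le) le_rfl le_rfl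
  · have e : 10 ^ 79 * (B ^ 3) ^ 3 * W ^ 8 / t ^ 18 * a = 10 ^ 79 * B ^ 9 * W ^ 8 / t ^ 18 * a := by
      ring
    rw [e]; exact hbig

/-! ### the same with the facts over the sub-cell -/

/-- **both directions over the long cell**, curvature and non-degeneracy over the sub-cell -/
theorem close_upS {Λ W a t : ℝ} (hr : 0 < r) (hρ : 0 < ρ) (h1 : zL ≤ z0) (h1' : z0 + ρ ≤ zL + ρL)
    (ht0 : 0 < t) (ht : t * ρL ≤ ρ) (hS : Shp S zL ρL r) (hT : InP T S zL ρL)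
    (hS' : Shp S' zL ρL r) (hT' : InP T S' zL ρL) (ha : 0 < a) (hW : 1 ≤ W) (hΛ : 1 ≤ Λ)
    (dS : S.a ≤ Λ * a) (dS' : S'.a ≤ Λ * a) (w1 : S.w 1 ≤ Λ * S'.w 1) (w2 : S.w 2 ≤ Λ * S'.w 2)
    (g : |dt (S'.e 2) (S.e 1)| * S.w 1 ≤ Λ * S'.w 2)
    (tU : W * a ≤ kp S z0 ρ T → DetP W⁻¹ S z0 ρ T)
    (tV : W * a ≤ kp S' z0 ρ T → DetP W⁻¹ S' z0 ρ T)
    (hcl : CloseC S.e S.w S.q S.a S'.q (Λ * a) T z0 ρ)
    (hcl' : CloseC S'.e S'.w S'.q S'.a S.q (Λ * a) T z0 ρ)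
    (hbig : 10 ^ 35 * Λ ^ 3 * W ^ 8 * a ≤ kp S z0 ρ T) :
    CloseC S.e S.w S.q S.a S'.q (10 ^ 26 * Λ * W ^ 8 / t ^ 2 * a) T zL ρL ∧
      CloseC S'.e S'.w S'.q S'.a S.q (10 ^ 26 * Λ * W ^ 8 / t ^ 2 * a) T zL ρL := by
  have hρ1 : 0 < ρL := by linarith
  have hW0 : 0 < W := by linarith
  have hΛ0 : 0 < Λ := by linarith
  have ht1 : t ≤ 1 := by
    by_contra hc
    push Not at hc
    nlinarith
  have hW8 : 1 ≤ W ^ 8 := one_le_pow₀ hW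
  have hWW8 : W ≤ W ^ 8 := by
    calc W = W ^ 1 := (pow_one W).symm
      _ ≤ W ^ 8 := pow_le_pow_right₀ hW (by norm_num)
  have hΛ2 : 1 ≤ Λ ^ 2 := one_le_pow₀ hΛ
  -- the unit `u = Λ W^8 a`
  set u := Λ * W ^ 8 * a with hu
  have hu0 : 0 < u := by positivity
  have e0 : 10 ^ 35 * Λ ^ 3 * W ^ 8 * a = 10 ^ 35 * Λ ^ 2 * u := by rw [hu]; ring
  rw [e0] at hbig
  have hΛu : Λ * a ≤ u := by
    rw [hu]
    exact mul_le_mul_of_nonneg_right (le_mul_of_one_le_right hΛ0.le hW8) ha.le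
  have hWu : W * a ≤ u := by
    rw [hu]
    exact mul_le_mul_of_nonneg_right (hWW8.trans (le_mul_of_one_le_left (by positivity) hΛ)) ha.le
  have hΛ2u : u ≤ Λ ^ 2 * u := le_mul_of_one_le_left hu0.le hΛ2
  have hbig1 : 10 ^ 35 * u ≤ kp S z0 ρ T := by nlinarith
  -- the other sheet
  have hS0 := shp_sub hS h1 h1'
  have hS0' := shp_sub hS' h1 h1'
  have hk1 := kp_two (zL := z0) (ρL := ρ) hr hρ le_rfl le_rfl hS0 (inP_sub hT h1 h1') hS0'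
    (inP_sub hT' h1 h1') hΛ hcl w1 w2 g
  have hbig' : 10 ^ 20 * u ≤ kp S' z0 ρ T := by
    by_contra hc
    push Not at hc
    have h3 : Λ * a + S'.a + kp S' z0 ρ T ≤ (2 + 10 ^ 20) * u := by linarith
    have h4 : 10 ^ 14 * Λ ^ 2 * (Λ * a + S'.a + kp S' z0 ρ T) ≤
        10 ^ 14 * Λ ^ 2 * ((2 + 10 ^ 20) * u) := mul_le_mul_of_nonneg_left h3 (by positivity)
    have h5 : 10 ^ 35 * (Λ ^ 2 * u) ≤ (10 ^ 14 * (2 + 10 ^ 20)) * (Λ ^ 2 * u) := by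
      have e1 : 10 ^ 35 * (Λ ^ 2 * u) = 10 ^ 35 * Λ ^ 2 * u := by ring
      have e2 : (10 ^ 14 * (2 + 10 ^ 20)) * (Λ ^ 2 * u) =
        10 ^ 14 * Λ ^ 2 * ((2 + 10 ^ 20) * u) := by ring
      rw [e1, e2]
      linarith
    have h6 : 0 < Λ ^ 2 * u := by positivity
    have h7 : (10 ^ 14 * (2 + 10 ^ 20) : ℝ) < 10 ^ 35 := by norm_num
    nlinarith
  have dU := tU (by linarith)
  have dV := tV (by linarith)
  have hWi : 0 < W⁻¹ := inv_pos.2 hW0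
  have hE0 : 0 ≤ Λ * a := by positivity
  have hE : ∀ k : ℝ, 10 ^ 20 * u ≤ k → 10 ^ 20 * (Λ * a) ≤ W⁻¹ ^ 8 * k := by
    intro k hk
    have h3 : W⁻¹ ^ 8 * (10 ^ 20 * u) ≤ W⁻¹ ^ 8 * k :=
      mul_le_mul_of_nonneg_left hk (by positivity)
    have h4 : W⁻¹ ^ 8 * (10 ^ 20 * u) = 10 ^ 20 * (Λ * a) := by
      rw [hu]
      field_simp
    linarith
  have c1 := closeC_extS hr hρ h1 h1' hS hT hS' hT' ht0 ht hWi dU hcl hE0
    (hE _ (by linarith)) (by linarith)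
  have c2 := closeC_extS hr hρ h1 h1' hS' hT' hS hT ht0 ht hWi dV hcl' hE0 (hE _ hbig')
    (by linarith)
  have tp2 : 0 < t ^ 2 := by positivity
  have hfin : 17 * (Λ * a) + 10 ^ 6 / t ^ 2 * (10 ^ 19 * (Λ * a) / W⁻¹ ^ 8) ≤
      10 ^ 26 * Λ * W ^ 8 / t ^ 2 * a := by
    have e1 : 10 ^ 6 / t ^ 2 * (10 ^ 19 * (Λ * a) / W⁻¹ ^ 8) = 10 ^ 25 * (u / t ^ 2) := by
      rw [hu]
      field_simp
    have e2 : 10 ^ 26 * Λ * W ^ 8 / t ^ 2 * a = 10 ^ 26 * (u / t ^ 2) := by rw [hu]; ring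
    have e3 : u ≤ u / t ^ 2 := by
      rw [le_div_iff₀ tp2]
      have : t ^ 2 ≤ 1 := pow_le_one₀ ht0.le ht1
      nlinarith
    rw [e1, e2]
    linarith
  refine ⟨closeC_sub c1 ?_ le_rfl le_rfl, closeC_sub c2 ?_ le_rfl le_rfl⟩
  · linarith
  · linarith

/-- **both directions over the long cell**, in the letters of `Two1` and `TypU`, facts over the
sub-cell: `B` bounds all ratios, `E = B a` -/
theorem close_nearS {K K' B W a w1 w2 t : ℝ} (hr : 0 < r) (hρ : 0 < ρ) (h1 : zL ≤ z0)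
    (h1' : z0 + ρ ≤ zL + ρL) (ht0 : 0 < t) (ht : t * ρL ≤ ρ) (hS : Shp S zL ρL r)
    (hT : InP T S zL ρL) (hS' : Shp S' zL ρL r) (hT' : InP T S' zL ρL) (ha : 0 < a)
    (hW : 1 ≤ W) (hB : 1 ≤ B)
    (dU : Near B a S.a ∧ Near B w1 (S.w 1) ∧ Near B w2 (S.w 2))
    (dV : Near B a S'.a ∧ Near B w1 (S'.w 1) ∧ Near B w2 (S'.w 2))
    (hang : angC S S' * w1 ≤ B * w2)
    (tU : TypU K W a S T z0 ρ) (tV : TypU K' W a S' T z0 ρ)
    (hcl : CloseC S.e S.w S.q S.a S'.q (B * a) T z0 ρ)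
    (hcl' : CloseC S'.e S'.w S'.q S'.a S.q (B * a) T z0 ρ)
    (hbig : 10 ^ 35 * B ^ 9 * W ^ 8 * a ≤ kp S z0 ρ T) :
    CloseC S.e S.w S.q S.a S'.q (10 ^ 26 * B ^ 3 * W ^ 8 / t ^ 2 * a) T zL ρL ∧
      CloseC S'.e S'.w S'.q S'.a S.q (10 ^ 26 * B ^ 3 * W ^ 8 / t ^ 2 * a) T zL ρL := by
  have hB0 : 0 < B := by linarith
  have hB3 : B ≤ B ^ 3 := by
    calc B = B ^ 1 := (pow_one B).symm
      _ ≤ B ^ 3 := pow_le_pow_right₀ hB (by norm_num)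
  have hB2 : B ^ 2 ≤ B ^ 3 := pow_le_pow_right₀ hB (by norm_num)
  obtain ⟨⟨ua, ua'⟩, ⟨u1, u1'⟩, ⟨u2, u2'⟩⟩ := dU
  obtain ⟨⟨va, va'⟩, ⟨v1, v1'⟩, ⟨v2, v2'⟩⟩ := dV
  have pw2 : 0 < S'.w 2 := (w0_pos hr hS').trans_le hS'.w0_le
  have pw1 : 0 < S'.w 1 := pw2.trans_le hS'.w_le
  have qw2 : 0 < S.w 2 := (w0_pos hr hS).trans_le hS.w0_le
  have qw1 : 0 < S.w 1 := qw2.trans_le hS.w_le
  refine close_upS hr hρ h1 h1' ht0 ht hS hT hS' hT' ha hW (Λ := B ^ 3) (one_le_pow₀ hB) ?_ ?_ ?_ ?_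
    ?_ tU.det tV.det ?_ ?_ ?_
  · exact ua'.trans (mul_le_mul_of_nonneg_right hB3 ha.le)
  · exact va'.trans (mul_le_mul_of_nonneg_right hB3 ha.le)
  · calc S.w 1 ≤ B * w1 := u1'
      _ ≤ B * (B * S'.w 1) := mul_le_mul_of_nonneg_left v1 hB0.le
      _ = B ^ 2 * S'.w 1 := by ring
      _ ≤ B ^ 3 * S'.w 1 := mul_le_mul_of_nonneg_right hB2 pw1.le
  · calc S.w 2 ≤ B * w2 := u2'
      _ ≤ B * (B * S'.w 2) := mul_le_mul_of_nonneg_left v2 hB0.le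
      _ = B ^ 2 * S'.w 2 := by ring
      _ ≤ B ^ 3 * S'.w 2 := mul_le_mul_of_nonneg_right hB2 pw2.le
  · have h3 : |dt (S'.e 2) (S.e 1)| ≤ angC S S' := by
      rw [dt_comm]; exact le_angC _ _ (by decide)
    have h4 : 0 ≤ angC S S' := (abs_nonneg _).trans h3
    calc |dt (S'.e 2) (S.e 1)| * S.w 1 ≤ angC S S' * (B * w1) :=
          mul_le_mul h3 u1' qw1.le h4
      _ = B * (angC S S' * w1) := by ring
      _ ≤ B * (B * w2) := mul_le_mul_of_nonneg_left hang hB0.le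
      _ ≤ B * (B * (B * S'.w 2)) := by gcongr
      _ = B ^ 3 * S'.w 2 := by ring
  · exact closeC_sub hcl (mul_le_mul_of_nonneg_right hB3 ha.le) le_rfl le_rfl
  · exact closeC_sub hcl' (mul_le_mul_of_nonneg_right hB3 ha.le) le_rfl le_rfl
  · have e : 10 ^ 35 * (B ^ 3) ^ 3 * W ^ 8 * a = 10 ^ 35 * B ^ 9 * W ^ 8 * a := by
      ring
    rw [e]; exact hbig

end Crest.Agent.R136.Tw746
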