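import Crest.Agent.R136.Plw2_102
import Crest.Agent.R136.Tw8_46
import Crest.Agent.R136.Pl2D_860
import Crest.Agent.R136.Bm6_667

/-!
# R136 (S0187), PLAN 2 (tilt without deep levels): last step at one incidence (helper102)

* `QT`, `Q0`, `QA` : hypotheses and conclusions of the finite theorems, `Stab`;
* `stab_Al1`, `ft_BTR`, `ft_ALR` : 860's finite theorems in the common form;
* `Inc` : the two marks of an incidence, their cells and the short cell;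
* `fin_step` : alignment over the short cell and the typical facts give `TiltOKC`.
-/

set_option autoImplicit false
set_option linter.unusedVariables false

open Finset Filter Topology

namespace Crest.Agent.R136.Pl2W102

open Crest.Agent.R138.Ex926 (Base U)
open Crest.Agent.R138.Dp76 (Dense dpow_pos dpow_add dpow_le dpow_le_one)
open Crest.Agent.R138.Mk163 (zc zl rho Negl)
open Crest.Agent.R136.MkA627
open Crest.Agent.R136.Sh605
open Crest.Agent.R136.Tl102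
open Crest.Agent.R136.Deep51 (CloseC)
open Crest.Agent.R136.K4 (Plk4)
open Crest.Agent.R136.Top484
open Crest.Agent.R136.Tlt51 (Shp InP mk4 zx rh TiltOKC)
open Crest.Agent.R136.KapP335
open Crest.Agent.R136.Cps605
open Crest.Agent.R136.Pl2 (TypU TypP kp rot2 BTR ALR Al1 two7_of102')
open Crest.Agent.R136.Tw746 (close_near kp_le kp_ge' inP_sub)

/-- no hypothesis -/
def QT : PropE := fun _ _ _ _ _ _ _ _ _ => True

/-- conclusion of the base tilt theorem, angle only (84) -/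
def Q0 : PropE := fun E S S' T a w1 w2 z0 ρ => angC S S' * w1 ≤ E * w2

/-- conclusion of the alignment theorem -/
def QA : PropE := fun E S S' T a w1 w2 z0 ρ =>
  CloseC S.e S.w S.q S.a S'.q (E * a) T z0 ρ ∧ CloseC S'.e S'.w S'.q S'.a S.q (E * a) T z0 ρ

theorem closeC_mono {e : Fin 3 → V3} {w : V3} {q : ℝ → V3 → ℝ} {a : ℝ} {q' : ℝ → V3 → ℝ}
    {E E' : ℝ} {T : Ln4} {z0 ρ : ℝ} (h : CloseC e w q a q' E T z0 ρ) (hE : E ≤ E') :
    CloseC e w q a q' E' T z0 ρ := fun z h1 h2 x hx hq => (h z h1 h2 x hx hq).trans hE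

theorem stab_QT : Stab QT := by
  intro E E' W S S' T a w1 w2 a' w1' w2' z0 ρ r _ _ _ _ _ _ _ _ _ _ _ _ _ _ _ _
  trivial

theorem stab_QA : Stab QA := by
  intro E E' W S S' T a w1 w2 a' w1' w2' z0 ρ r hW hE hE' ha _ _ ha' _ _ na _ _ _ _ _ h
  have h1 : E * a ≤ E' * a' := by
    have hW2 : W ≤ W ^ 2 := by nlinarith
    calc E * a ≤ E * (W * a') := mul_le_mul_of_nonneg_left na.1 hE.le
      _ = E * W * a' := by ring
      _ ≤ E * W ^ 2 * a' :=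
          mul_le_mul_of_nonneg_right (mul_le_mul_of_nonneg_left hW2 hE.le) ha'.le
      _ ≤ E' * a' := mul_le_mul_of_nonneg_right hE' ha'.le
  exact ⟨closeC_mono h.1 h1, closeC_mono h.2 h1⟩

theorem stab_Q0 : Stab Q0 := by
  intro E E' W S S' T a w1 w2 a' w1' w2' z0 ρ r hW hE hE' ha hw1 hw2 ha' hw1' hw2' na n1 n2 _ _ _ h
  have hW0 : 0 ≤ W := by linarith
  have ha0 : 0 ≤ angC S S' := angC_nonneg S S'
  calc angC S S' * w1' ≤ angC S S' * (W * w1) := mul_le_mul_of_nonneg_left n1.2 ha0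
    _ = W * (angC S S' * w1) := by ring
    _ ≤ W * (E * w2) := mul_le_mul_of_nonneg_left h hW0
    _ = E * W * w2 := by ring
    _ ≤ E * W * (W * w2') := mul_le_mul_of_nonneg_left n2.1 (mul_nonneg hE.le hW0)
    _ = E * W ^ 2 * w2' := by ring
    _ ≤ E' * w2' := mul_le_mul_of_nonneg_right hE' hw2'.le

/-- output of the base tilt theorem (860) -/
theorem stab_Al1 : Stab Al1 := by
  intro E E' W S S' T a w1 w2 a' w1' w2' z0 ρ r hW hE hE' ha hw1 hw2 ha' hw1' hw2' na n1 n2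
    hr hS hS' h
  have hW0 : 0 ≤ W := by linarith
  have hW1 : W ≤ W ^ 2 := by nlinarith
  have hEW : E * W ≤ E' := (mul_le_mul_of_nonneg_left hW1 hE.le).trans hE'
  have hEE : E ≤ E' := (le_mul_of_one_le_right hE.le hW).trans hEW
  have p0 : 0 < S.w 0 := hr.trans_le (hS.r0_le.trans hS.a_le0)
  have p2 : 0 < S.w 2 := p0.trans_le hS.w0_le
  have p1 : 0 < S.w 1 := p2.trans_le hS.w_le
  have q0 : 0 < S'.w 0 := hr.trans_le (hS'.r0_le.trans hS'.a_le0)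
  have q2 : 0 < S'.w 2 := q0.trans_le hS'.w0_le
  have q1 : 0 < S'.w 1 := q2.trans_le hS'.w_le
  have hkp : 0 ≤ kp S z0 ρ T := Crest.Agent.R136.Tw746.kp_nonneg p0.le
  obtain ⟨f, g, a1, a2, a3, a4, a5, a6, a7⟩ := h.fr
  have k1 : E * kp S z0 ρ T ≤ E' * kp S z0 ρ T := mul_le_mul_of_nonneg_right hEE hkp
  have tl : ∀ {y x x' : ℝ}, 0 ≤ y → x' ≤ W * x → y * x ≤ E * kp S z0 ρ T →
      y * x' ≤ E' * kp S z0 ρ T := by
    intro y x x' hy hx h1
    calc y * x' ≤ y * (W * x) := mul_le_mul_of_nonneg_left hx hy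
      _ = W * (y * x) := by ring
      _ ≤ W * (E * kp S z0 ρ T) := mul_le_mul_of_nonneg_left h1 hW0
      _ = E * W * kp S z0 ρ T := by ring
      _ ≤ _ := mul_le_mul_of_nonneg_right hEW hkp
  exact ⟨stab_Q0 E E' W S S' T a w1 w2 a' w1' w2' z0 ρ r hW hE hE' ha hw1 hw2 ha' hw1' hw2' na n1
    n2 hr hS hS' h.ang, closeC_mono h.close k1, f, g,
    Crest.Agent.R136.Bl5667.FH.mono a1 hE.le hEE hkp le_rfl p1.le p2.le,
    Crest.Agent.R136.Bl5667.FL.mono a2 hEE hE hkp,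
    Crest.Agent.R136.Bl5667.FH.mono a3 hE.le hEE hkp le_rfl q1.le q2.le,
    tl (abs_nonneg _) n1.2 a4, tl (abs_nonneg _) n2.2 a5, tl (abs_nonneg _) n1.2 a6,
    tl (abs_nonneg _) n2.2 a7⟩

/-- the finite theorem `BTR R` in the common form -/
theorem ft_BTR {R : PropE} (h : BTR R) {η : ℝ} {qm qp : Fin 3 → ℝ} (hq : Ex2 η qm qp) :
    ∃ K0 C : ℝ, 0 ≤ K0 ∧ 0 ≤ C ∧ FT QT R qm qp K0 C := by
  obtain ⟨K0, C, hK, hC, h⟩ := h η qm qp hq
  exact ⟨K0, C, hK, hC, fun L P cu cv Uf Vf W M a w1 w2 z0 ρ zL ρL r h1 _ h2 h3 _ =>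
    h L P cu cv Uf Vf W M a w1 w2 z0 ρ r h1.to1 h2 h3⟩

/-- the finite theorem `ALR R` in the common form -/
theorem ft_ALR {R : PropE} (h : ALR R) : ∃ η : ℝ, 0 < η ∧ ∀ qm qp : Fin 3 → ℝ, Ex2 η qm qp →
    ∃ K0 C : ℝ, 0 ≤ K0 ∧ 0 ≤ C ∧ FT R QA qm qp K0 C := by
  obtain ⟨η, hη, h⟩ := h
  refine ⟨η, hη, fun qm qp hq => ?_⟩
  obtain ⟨K0, C, hK0, hC, h⟩ := h qm qp hq
  refine ⟨max K0 8, C, le_max_of_le_left hK0, hC, ?_⟩
  intro L P cu cv Uf Vf W M a w1 w2 z0 ρ zL ρL r hT h128 hP typ hyp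
  obtain ⟨t0, ht0⟩ := hP
  have hW := hT.to1.W1
  have ha := hT.to1.a0
  have h2W : 1 ≤ 2 * W := by linarith
  have hT' := two7_of102' hT ht0 (K := (2 * W) ^ (max K0 8))
    (Real.rpow_le_rpow_of_exponent_le h2W (le_max_right _ _)) (typ t0 ht0).big h128
  have hK : (2 * W) ^ K0 ≤ (2 * W) ^ (max K0 8) :=
    Real.rpow_le_rpow_of_exponent_le h2W (le_max_left _ _)
  exact h L P cu cv Uf Vf W M a w1 w2 z0 ρ zL ρL r hT' ⟨t0, ht0⟩ (fun t ht =>
    ⟨(mul_le_mul_of_nonneg_right hK ha.le).trans (typ t ht).big, (typ t ht).le,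
      ⟨(typ t ht).typ.det, (typ t ht).typ.rot⟩, ⟨(typ t ht).typ'.det, (typ t ht).typ'.rot⟩⟩) hyp

/-! ### the incidence -/

theorem Inc.pair_vu {D : Dat4} {n : ℕ} {u v : ℚ} {jx : ℕ → ℕ × ℝ → ℤ} {B : ℝ} {x : ℕ × ℝ}
    (I : Inc D n u v jx B x) (hB : 1 ≤ B) :
    Pair D n v u (128 * B) (zs D v jx n x) (rs D v n) x := by
  have hr := rs_pos D v n
  refine ⟨I.sv, I.su, I.iv, I.iu, I.s1, I.s2, I.z1.trans I.s1, I.s2.trans I.z2, ?_, ?_, I.av.1,
    I.av.2.1, I.av.2.2⟩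
  · rw [I.s3]; nlinarith
  · have := I.rr
    rw [I.s3] at this
    linarith

theorem Inc.pair_uv {D : Dat4} {n : ℕ} {u v : ℚ} {jx : ℕ → ℕ × ℝ → ℤ} {B : ℝ} {x : ℕ × ℝ}
    (I : Inc D n u v jx B x) (hB : 1 ≤ B) :
    Pair D n u v (128 * B) (zs D v jx n x) (rs D v n) x := by
  have h := I.pair_vu hB
  exact ⟨h.shp', h.shp, h.inp', h.inp, h.z2, h.z2', h.z1, h.z1', h.rc, h.rb, I.au.1, I.au.2.1,
    I.au.2.2⟩

/-- the facts about the mark of level `b ∈ {u, v}` used in the last step -/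
structure One (D : Dat4) (n : ℕ) (v b : ℚ) (B : ℝ) (x : ℕ × ℝ) : Prop where
  s : Shp (mk4 D n b x) (zx D n b x) (rh D n b) (D.r0 n)
  i : InP (D.L n x.1) (mk4 D n b x) (zx D n b x) (rh D n b)
  a : (mk4 D n b x).a = D.w 0 n b
  w1 : (mk4 D n b x).w 1 = D.w 1 n b
  w2 : (mk4 D n b x).w 2 = D.w 2 n b
  z1 : zx D n b x ≤ zx D n v x
  z2 : zx D n v x + rh D n v ≤ zx D n b x + rh D n b
  rr : rh D n b ≤ B * rh D n v

theorem Inc.one_v {D : Dat4} {n : ℕ} {u v : ℚ} {jx : ℕ → ℕ × ℝ → ℤ} {B : ℝ} {x : ℕ × ℝ}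
    (I : Inc D n u v jx B x) (hB : 1 ≤ B) : One D n v v B x := by
  have hr := rs_pos D v n
  have h3 := I.s3
  exact ⟨I.sv, I.iv, I.av.1, I.av.2.1, I.av.2.2, le_rfl, le_rfl, by rw [h3]; nlinarith⟩

theorem Inc.one_u {D : Dat4} {n : ℕ} {u v : ℚ} {jx : ℕ → ℕ × ℝ → ℤ} {B : ℝ} {x : ℕ × ℝ}
    (I : Inc D n u v jx B x) : One D n v u B x :=
  ⟨I.su, I.iu, I.au.1, I.au.2.1, I.au.2.2, I.z1, I.z2, I.rr⟩

/-- **last step at one incidence** -/
theorem fin_step {D : Dat4} {n : ℕ} {u v b c : ℚ} {jx : ℕ → ℕ × ℝ → ℤ} {B E1 δ W EE : ℝ}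
    {x : ℕ × ℝ} (huv : u < v) (hbc : (b = v ∧ c = u) ∨ (b = u ∧ c = v)) (hr : 0 < D.r0 n)
    (I : Inc D n u v jx B x) (ob : One D n v b B x) (oc : One D n v c B x) (hB : 1 ≤ B)
    (cw : ∀ k, D.w k n b ≤ B * D.w k n c ∧ D.w k n c ≤ B * D.w k n b)
    (hδ : 0 < δ) (hδ1 : δ ≤ 1)
    (hdb : δ⁻¹ * (mk4 D n b x).a < kpm D n b x →
      DetP δ (mk4 D n b x) (zx D n b x) (rh D n b) (D.L n x.1) ∧
      Ty δ (mk4 D n b x) (D.L n x.1) (zx D n b x) (rh D n b))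
    (hdc : δ⁻¹ * (mk4 D n c x).a < kpm D n c x →
      DetP δ (mk4 D n c x) (zx D n c x) (rh D n c) (D.L n x.1) ∧
      Ty δ (mk4 D n c x) (D.L n x.1) (zx D n c x) (rh D n c))
    (hW : 10 ^ 5 * (B ^ 2 * B) ≤ δ * W) (hBE : B ≤ E1)
    (hang : angC (mk4 D n b x) (mk4 D n c x) * D.w 1 n b ≤ E1 * D.w 2 n b)
    (hcl : QA E1 (mk4 D n b x) (mk4 D n c x) (D.L n x.1) (D.w 0 n b) (D.w 1 n b) (D.w 2 n b)
      (zs D v jx n x) (rs D v n))
    (hbig : 10 ^ 81 * 128 ^ 18 * E1 ^ 9 * W ^ 8 * D.w 0 n b ≤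
      kp (mk4 D n b x) (zs D v jx n x) (rs D v n) (D.L n x.1))
    (hEE : 10 ^ 69 * 128 ^ 19 * E1 ^ 3 * W ^ 8 ≤ EE) : TiltOKC D EE u v n x := by
  have hrs := rs_pos D v n
  have h3 := I.s3
  have hrh : 0 < rh D n v := by rw [h3]; linarith
  have hB0 : 0 < B := by linarith
  have hE1 : 1 ≤ E1 := hB.trans hBE
  have hE0 : 0 < E1 := by linarith
  have hw0 : 0 < D.w 0 n b := by rw [← ob.a]; exact hr.trans_le ob.s.r0_le
  have pb0 : 0 < (mk4 D n b x).w 0 := hr.trans_le (ob.s.r0_le.trans ob.s.a_le0)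
  have hw2 : 0 < D.w 2 n b := by rw [← ob.w2]; exact pb0.trans_le ob.s.w0_le
  have hw1 : 0 < D.w 1 n b := by
    rw [← ob.w1]; exact (pb0.trans_le ob.s.w0_le).trans_le ob.s.w_le
  have hW0 : 0 < W := by
    by_contra hc
    push Not at hc
    have h1 : δ * W ≤ 0 := mul_nonpos_of_nonneg_of_nonpos hδ.le hc
    have h2 : 0 < 10 ^ 5 * (B ^ 2 * B) := by positivity
    linarith
  have hW1 : 1 ≤ W := by
    have h1 : δ * W ≤ W := mul_le_of_le_one_left hW0.le hδ1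
    have h2 : 1 ≤ B ^ 2 * B := by
      have : 1 ≤ B ^ 2 := one_le_pow₀ hB
      nlinarith
    linarith
  have shb : Shp (mk4 D n b x) (zx D n v x) (rh D n v) (D.r0 n) := shp_sub ob.s ob.z1 ob.z2
  have shc : Shp (mk4 D n c x) (zx D n v x) (rh D n v) (D.r0 n) := shp_sub oc.s oc.z1 oc.z2
  have inb : InP (D.L n x.1) (mk4 D n b x) (zx D n v x) (rh D n v) := inP_sub ob.i ob.z1 ob.z2
  have inc : InP (D.L n x.1) (mk4 D n c x) (zx D n v x) (rh D n v) := inP_sub oc.i oc.z1 oc.z2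
  have tb : TypU 1 W (D.w 0 n b) (mk4 D n b x) (D.L n x.1) (zx D n v x) (rh D n v) :=
    typU_sub (W0 := B) hr hrh ob.z1 ob.z2 ob.s ob.i hB ob.rr hδ hδ1 hB
      (by rw [ob.a]; exact le_mul_of_one_le_left hw0.le hB) hdb hW
  have tc : TypU 1 W (D.w 0 n b) (mk4 D n c x) (D.L n x.1) (zx D n v x) (rh D n v) :=
    typU_sub (W0 := B) hr hrh oc.z1 oc.z2 oc.s oc.i hB oc.rr hδ hδ1 hB
      (by rw [oc.a]; exact (cw 0).2) hdc hW
  have hkle : kp (mk4 D n b x) (zs D v jx n x) (rs D v n) (D.L n x.1) ≤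
      40 * kp (mk4 D n b x) (zx D n v x) (rh D n v) (D.L n x.1) := kp_le hr hrs I.s1 I.s2 shb inb
  have ht : (1 / 128 : ℝ) * rh D n v ≤ rs D v n := by rw [h3]; linarith
  have hp18 : (1 / 128 : ℝ) ^ 18 = 1 / 128 ^ 18 := by rw [one_div_pow]
  have hp19 : (1 / 128 : ℝ) ^ 19 = 1 / 128 ^ 19 := by rw [one_div_pow]
  obtain ⟨k1, k2⟩ := close_near (B := E1) (W := W) (a := D.w 0 n b) (w1 := D.w 1 n b)
    (w2 := D.w 2 n b) (t := 1 / 128) hr hrs I.s1 I.s2 (by norm_num) ht shb inb shc inc hw0 hW1 hE1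
    ⟨by rw [ob.a]; exact ⟨le_mul_of_one_le_left hw0.le hE1, le_mul_of_one_le_left hw0.le hE1⟩,
      by rw [ob.w1]; exact ⟨le_mul_of_one_le_left hw1.le hE1, le_mul_of_one_le_left hw1.le hE1⟩,
      by rw [ob.w2]; exact ⟨le_mul_of_one_le_left hw2.le hE1, le_mul_of_one_le_left hw2.le hE1⟩⟩
    (by
      have pc0 : 0 < (mk4 D n c x).w 0 := hr.trans_le (oc.s.r0_le.trans oc.s.a_le0)
      have c0 : 0 < D.w 0 n c := by rw [← oc.a]; exact hr.trans_le oc.s.r0_le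
      have c2 : 0 < D.w 2 n c := by rw [← oc.w2]; exact pc0.trans_le oc.s.w0_le
      have c1 : 0 < D.w 1 n c := by
        rw [← oc.w1]; exact (pc0.trans_le oc.s.w0_le).trans_le oc.s.w_le
      rw [oc.a, oc.w1, oc.w2]
      exact ⟨⟨(cw 0).1.trans (mul_le_mul_of_nonneg_right hBE c0.le),
          (cw 0).2.trans (mul_le_mul_of_nonneg_right hBE hw0.le)⟩,
        ⟨(cw 1).1.trans (mul_le_mul_of_nonneg_right hBE c1.le),
          (cw 1).2.trans (mul_le_mul_of_nonneg_right hBE hw1.le)⟩,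
        ⟨(cw 2).1.trans (mul_le_mul_of_nonneg_right hBE c2.le),
          (cw 2).2.trans (mul_le_mul_of_nonneg_right hBE hw2.le)⟩⟩)
    hang tb tc hcl.1 hcl.2
    (by
      rw [hp18]
      have e1 : 10 ^ 79 * E1 ^ 9 * W ^ 8 / (1 / 128 ^ 18) * D.w 0 n b =
          10 ^ 79 * 128 ^ 18 * E1 ^ 9 * W ^ 8 * D.w 0 n b := by
        rw [div_div_eq_mul_div, div_one]; ring
      rw [e1]
      have e2 : 0 ≤ 10 ^ 79 * 128 ^ 18 * E1 ^ 9 * W ^ 8 * D.w 0 n b := by positivity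
      have e3 : 10 ^ 81 * 128 ^ 18 * E1 ^ 9 * W ^ 8 * D.w 0 n b =
        100 * (10 ^ 79 * 128 ^ 18 * E1 ^ 9 * W ^ 8 * D.w 0 n b) := by ring
      rw [e3] at hbig
      linarith)
  have hm : max b c = v := by
    rcases hbc with ⟨rfl, rfl⟩ | ⟨rfl, rfl⟩
    · exact max_eq_left huv.le
    · exact max_eq_right huv.le
  have e4 : 10 ^ 69 * E1 ^ 3 * W ^ 8 / (1 / 128) ^ 19 = 10 ^ 69 * 128 ^ 19 * E1 ^ 3 * W ^ 8 := by
    rw [hp19, div_div_eq_mul_div, div_one]; ring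
  rw [e4] at k1 k2
  have hE10 : E1 ≤ EE := by
    refine le_trans ?_ hEE
    have h1 : 1 ≤ W ^ 8 := one_le_pow₀ hW1
    have h2 : E1 ≤ E1 ^ 3 := by
      calc E1 = E1 ^ 1 := (pow_one _).symm
        _ ≤ E1 ^ 3 := pow_le_pow_right₀ hE1 (by norm_num)
    calc E1 ≤ E1 ^ 3 := h2
      _ ≤ E1 ^ 3 * W ^ 8 := le_mul_of_one_le_right (by positivity) h1
      _ ≤ 10 ^ 69 * 128 ^ 19 * (E1 ^ 3 * W ^ 8) :=
          le_mul_of_one_le_left (by positivity) (by norm_num)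
      _ = _ := by ring
  have hEE0 : 0 ≤ EE := hE0.le.trans hE10
  have hle : D.w 0 n b ≤ max (D.w 0 n u) (D.w 0 n v) := by
    rcases hbc with ⟨rfl, rfl⟩ | ⟨rfl, rfl⟩
    · exact le_max_right _ _
    · exact le_max_left _ _
  refine tiltOK_cl (b := b) (c := c)
    (E' := 10 ^ 69 * 128 ^ 19 * E1 ^ 3 * W ^ 8 * D.w 0 n b) (lam := E1) huv hbc
    (by rw [hm]; exact k1) (by rw [hm]; exact k2) hang ?_ hw1 hw2.le hEE0 hE10
  exact mul_le_mul hEE hle hw0.le hEE0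

end Crest.Agent.R136.Pl2W102
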