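import Crest.Agent.R136.Plw3_102

/-!
# R136 (S0187), PLAN 2 (tilt without deep levels): tilt of one pair of levels (helper102)

* `inc_step` : one incidence outside of the negligible sets;
* **`pair_tilt`** : the finite theorems give the tilt of the pair of levels `u < v`.
-/

set_option autoImplicit false
set_option linter.unusedVariables false

open Finset Filter Topology

namespace Crest.Agent.R136.Pl2W102

open Crest.Agent.R138.Ex926 (Base U)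
open Crest.Agent.R138.Dp76 (Dense dpow_pos dpow_add dpow_le dpow_le_one)
open Crest.Agent.R138.Mk163 (zc zl rho Negl)
open Crest.Agent.R138.ArgM163 (ev_const log_dpow)
open Crest.Agent.R136.MkA627
open Crest.Agent.R136.Sh605
open Crest.Agent.R136.Tl102
open Crest.Agent.R136.Deep51 (CloseC)
open Crest.Agent.R136.K4 (Plk4)
open Crest.Agent.R136.Top484
open Crest.Agent.R136.Tlt51 (Shp InP mk4 zx rh TiltOKC)
open Crest.Agent.R136.KapP335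
open Crest.Agent.R136.Cps605
open Crest.Agent.R136.Pl2 (TypU TypP kp rot2)

/-- the extent over the own cell and over the short cell -/
theorem kpm_le {D : Dat4} {n : ℕ} {b c m : ℚ} {jx : ℕ → ℕ × ℝ → ℤ} {B : ℝ} {x : ℕ × ℝ}
    (P : Pair D n b c B (zs D m jx n x) (rs D m n) x) (hr : 0 < D.r0 n) (hB : 0 < B) :
    kpm D n b x ≤ 160 * B * kp (mk4 D n b x) (zs D m jx n x) (rs D m n) (D.L n x.1) := by
  have h := Crest.Agent.R136.Tw746.kp_ge' (t := 1 / B) hr (rs_pos D m n) P.z1 P.z1'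
    (by
      rw [div_mul_eq_mul_div, one_mul, div_le_iff₀ hB, mul_comm]
      exact P.rb) P.shp P.inp
  rw [div_mul_eq_mul_div, one_mul, div_le_iff₀ hB] at h
  have e : kpm D n b x = kp (mk4 D n b x) (zx D n b x) (rh D n b) (D.L n x.1) := rfl
  rw [e]
  linarith

/-- **one incidence outside of the negligible sets** -/
theorem inc_step {R : PropE}
    (hR : ∀ (E : ℝ) (S S' : Plk4) (T : Ln4) (a w1 w2 z0 ρ : ℝ),
      R E S S' T a w1 w2 z0 ρ → angC S S' * w1 ≤ E * w2)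
    {D : Dat4} {n : ℕ} {u v b c : ℚ} {jx : ℕ → ℕ × ℝ → ℤ} {x : ℕ × ℝ}
    {B E1 EB EA e W EE Z YB YA M : ℝ}
    (huv : u < v) (hbc : (b = v ∧ c = u) ∨ (b = u ∧ c = v)) (hr : 0 < D.r0 n) (he : 0 < e)
    (I : Inc D n u v jx B x) (ob : One D n v b B x) (oc : One D n v c B x) (hB : 1 ≤ B)
    (cw : ∀ k, D.w k n b ≤ B * D.w k n c ∧ D.w k n c ≤ B * D.w k n b)
    (nd : ¬ DegAt D e b n x) (nd' : ¬ DegAt D e c n x)
    (nr : ¬ RotAt D e b n x) (nr' : ¬ RotAt D e c n x)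
    (nB : ¬ (Curv D v jx b c YB n x ∧ ¬ At R D v jx b c EB n x))
    (nA : ¬ (Curv D v jx b c YA n x ∧ At R D v jx b c EB n x ∧ ¬ At QA D v jx b c EA n x))
    (hM : D.w 0 n b ≤ M) (hZ0 : 0 ≤ Z)
    (hZM : Z * M ≤ kp (mk4 D n b x) (zs D v jx n x) (rs D v n) (D.L n x.1))
    (hle : kp (mk4 D n c x) (zs D v jx n x) (rs D v n) (D.L n x.1) ≤
      kp (mk4 D n b x) (zs D v jx n x) (rs D v n) (D.L n x.1))
    (hYB : YB ≤ Z) (hYA : YA ≤ Z) (hBE : B ≤ E1) (hEB : EB ≤ E1) (hEA : EA ≤ E1)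
    (hW : 10 ^ 5 * (B ^ 2 * B) ≤ D.B.d n ^ e * W)
    (hbig : 10 ^ 81 * 128 ^ 18 * E1 ^ 9 * W ^ 8 ≤ Z)
    (hEE : 10 ^ 69 * 128 ^ 19 * E1 ^ 3 * W ^ 8 ≤ EE) : TiltOKC D EE u v n x := by
  have w0b : 0 < D.w 0 n b := by rw [← ob.a]; exact hr.trans_le ob.s.r0_le
  have pb0 : 0 < (mk4 D n b x).w 0 := hr.trans_le (ob.s.r0_le.trans ob.s.a_le0)
  have hw2 : 0 < D.w 2 n b := by rw [← ob.w2]; exact pb0.trans_le ob.s.w0_le
  have hZb : Z * D.w 0 n b ≤ kp (mk4 D n b x) (zs D v jx n x) (rs D v n) (D.L n x.1) :=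
    (mul_le_mul_of_nonneg_left hM hZ0).trans hZM
  have cB : Curv D v jx b c YB n x := ⟨(mul_le_mul_of_nonneg_right hYB w0b.le).trans hZb, hle⟩
  have cA : Curv D v jx b c YA n x := ⟨(mul_le_mul_of_nonneg_right hYA w0b.le).trans hZb, hle⟩
  have aR : At R D v jx b c EB n x := by by_contra h; exact nB ⟨cB, h⟩
  have aA : At QA D v jx b c EA n x := by by_contra h; exact nA ⟨cA, aR, h⟩
  have hang := hR _ _ _ _ _ _ _ _ _ aR
  have hδ : (D.B.d n ^ e)⁻¹ = D.B.d n ^ (-e) := (Real.rpow_neg (D.B.pos n).le _).symm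
  refine fin_step huv hbc hr I ob oc hB cw (dpow_pos D.B n e) (dpow_le_one D.B n he.le) ?_ ?_ hW
    hBE (hang.trans (mul_le_mul_of_nonneg_right hEB hw2.le))
    ⟨closeC_mono aA.1 (mul_le_mul_of_nonneg_right hEA w0b.le),
      closeC_mono aA.2 (mul_le_mul_of_nonneg_right hEA w0b.le)⟩
    ((mul_le_mul_of_nonneg_right hbig w0b.le).trans hZb) hEE
  · intro hk
    rw [hδ] at hk
    constructor
    · by_contra hc; exact nd ⟨hk, hc⟩
    · by_contra hc; exact nr ⟨hk, hc⟩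
  · intro hk
    rw [hδ] at hk
    constructor
    · by_contra hc; exact nd' ⟨hk, hc⟩
    · by_contra hc; exact nr' ⟨hk, hc⟩

/-- the exponent of the two levels -/
noncomputable def tC (KB CB KA CA Cw C2 : ℝ) : ℝ :=
  (KB * (2 * Cw + 3 * C2) + C2) +
  (KA * (CB * (2 * Cw + 3 * C2) + 2 * C2 + (2 * Cw + 3 * C2)) + C2) +
  9 * ((CA * (CB * (2 * Cw + 3 * C2) + 2 * C2 + (2 * Cw + 3 * C2)) + 2 * C2) +
    (CB * (2 * Cw + 3 * C2) + 2 * C2) + Cw) + 8 * (3 * Cw) + Cw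

/-- the factor of the small loss -/
noncomputable def tK (KB CB KA CA : ℝ) : ℝ :=
  (5 * KB + 2) + (KA * (5 * CB + 3 + 5) + 2) +
  9 * ((CA * (5 * CB + 3 + 5) + 3) + (5 * CB + 3) + 1) + 8 * 5 + 1

theorem tC_nonneg {KB CB KA CA Cw C2 : ℝ} (h1 : 0 ≤ KB) (h2 : 0 ≤ CB) (h3 : 0 ≤ KA) (h4 : 0 ≤ CA)
    (h5 : 0 ≤ Cw) (h6 : 0 ≤ C2) : 0 ≤ tC KB CB KA CA Cw C2 := by
  unfold tC; positivity

theorem tK_pos {KB CB KA CA : ℝ} (h1 : 0 ≤ KB) (h2 : 0 ≤ CB) (h3 : 0 ≤ KA) (h4 : 0 ≤ CA) :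
    0 < tK KB CB KA CA := by
  unfold tK; positivity

set_option maxHeartbeats 2000000 in
/-- **tilt of one pair of levels** -/
theorem pair_tilt {R : PropE} (sR : Stab R)
    (hR : ∀ (E : ℝ) (S S' : Plk4) (T : Ln4) (a w1 w2 z0 ρ : ℝ),
      R E S S' T a w1 w2 z0 ρ → angC S S' * w1 ≤ E * w2)
    {qm qp : Fin 3 → ℝ} {KB CB KA CA : ℝ} (hKB : 0 ≤ KB) (hCB : 0 ≤ CB) (hKA : 0 ≤ KA)
    (hCA : 0 ≤ CA) (fB : FT QT R qm qp KB CB) (fA : FT R QA qm qp KA CA)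
    {D : Dat4} {u v : ℚ} {jx : ℕ → ℕ × ℝ → ℤ} {Cw C2 : ℝ} (hCw : 0 ≤ Cw) (hC2 : 0 ≤ C2)
    (huv : u < v) (hr0 : ∀ n, 0 < D.r0 n)
    (hwu : ∀ k, ∀ᶠ n in (U : Filter ℕ), 0 < D.w k n u)
    (hwv : ∀ k, ∀ᶠ n in (U : Filter ℕ), 0 < D.w k n v)
    (hI : ∀ ε : ℝ, 0 < ε → ∀ᶠ n in (U : Filter ℕ), ∀ x ∈ D.I n,
      Inc D n u v jx (D.B.d n ^ (-(Cw * ((v:ℝ) - u) + ε))) x)
    (hT1 : TwoAt qm qp C2 D v jx v u) (hT2 : TwoAt qm qp C2 D v jx u v)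
    (hd : ∀ b : ℚ, b = u ∨ b = v → ∀ ε : ℝ, 0 < ε →
      Negl D.B D.I (DegAt D ε b) ∧ Negl D.B D.I (RotAt D ε b))
    {ε0 : ℝ} (hε0 : 0 < ε0) :
    Negl D.B D.I fun n x =>
      D.B.d n ^ (-(tC KB CB KA CA Cw C2 * ((v : ℝ) - u)) - ε0) * max (D.w 0 n u) (D.w 0 n v) ≤
        max (kapP (mk4 D n v x) (zx D n v x) (rh D n v) (D.L n x.1))
          (kapP (mk4 D n u x) (zx D n u x) (rh D n u) (D.L n x.1)) ∧
      ¬ TiltOKC D (D.B.d n ^ (-(tC KB CB KA CA Cw C2 * ((v : ℝ) - u)) - ε0)) u v n x := by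
  obtain ⟨δ, hδd⟩ : ∃ δ : ℝ, δ = (v:ℝ) - u := ⟨_, rfl⟩
  have hδ0 : 0 < δ := by
    have : (u : ℝ) < v := by exact_mod_cast huv
    linarith
  have hK0 := tK_pos hKB hCB hKA hCA
  obtain ⟨e, hed⟩ : ∃ e : ℝ, e = ε0 / (tK KB CB KA CA + 3) := ⟨_, rfl⟩
  have he : 0 < e := by rw [hed]; positivity
  have hee : (tK KB CB KA CA + 3) * e = ε0 := by
    rw [hed]; field_simp
  obtain ⟨y1B, hy1B⟩ : ∃ y : ℝ, y = (2 * Cw + 3 * C2) * δ + 5 * e := ⟨_, rfl⟩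
  obtain ⟨yB, hyB⟩ : ∃ y : ℝ, y = CB * y1B + 2 * C2 * δ + 3 * e := ⟨_, rfl⟩
  obtain ⟨ybB, hybB⟩ : ∃ y : ℝ, y = KB * y1B + C2 * δ + 2 * e := ⟨_, rfl⟩
  obtain ⟨y1A, hy1A⟩ : ∃ y : ℝ, y = yB + (2 * Cw + 3 * C2) * δ + 5 * e := ⟨_, rfl⟩
  obtain ⟨yA, hyA⟩ : ∃ y : ℝ, y = CA * y1A + 2 * C2 * δ + 3 * e := ⟨_, rfl⟩
  obtain ⟨ybA, hybA⟩ : ∃ y : ℝ, y = KA * y1A + C2 * δ + 2 * e := ⟨_, rfl⟩
  obtain ⟨yE, hyE⟩ : ∃ y : ℝ, y = yA + yB + Cw * δ + e := ⟨_, rfl⟩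
  obtain ⟨yW, hyW⟩ : ∃ y : ℝ, y = 3 * Cw * δ + 5 * e := ⟨_, rfl⟩
  obtain ⟨Z, hZ⟩ : ∃ y : ℝ, y = ybB + ybA + 9 * yE + 8 * yW + e := ⟨_, rfl⟩
  have tot : tC KB CB KA CA Cw C2 * δ + ε0 = Z + Cw * δ + 3 * e := by
    rw [← hee, hZ, hyW, hyE, hybA, hyA, hy1A, hybB, hyB, hy1B]
    unfold tC tK
    ring
  have p0 : 0 ≤ Cw * δ := by positivity
  have p1 : 0 ≤ C2 * δ := by positivity
  have p2 : 0 ≤ y1B := by rw [hy1B]; positivity
  have p3 : 0 ≤ yB := by rw [hyB]; positivity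
  have p4 : 0 ≤ ybB := by rw [hybB]; positivity
  have p5 : 0 ≤ y1A := by rw [hy1A]; positivity
  have p6 : 0 ≤ yA := by rw [hyA]; positivity
  have p7 : 0 ≤ ybA := by rw [hybA]; positivity
  have p8 : 0 ≤ yE := by rw [hyE]; positivity
  have p9 : 0 ≤ yW := by rw [hyW]; positivity
  have e1 : ∀ (n : ℕ) {z : ℝ}, 0 ≤ z → 1 ≤ D.B.d n ^ (-z) := by
    intro n z hz
    have := dpow_le D.B n (show -z ≤ 0 by linarith)
    rwa [Real.rpow_zero] at this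
  -- the negligible sets
  have key : ∀ b c : ℚ, |(b:ℝ) - c| = δ → (∀ k, ∀ᶠ n in (U : Filter ℕ), 0 < D.w k n b) →
      (∀ᶠ n in (U : Filter ℕ), ∀ x ∈ D.I n,
        Pair D n b c (D.B.d n ^ (-(Cw * |(b:ℝ) - c| + e))) (zs D v jx n x) (rs D v n) x) →
      TwoAt qm qp C2 D v jx b c → (b = u ∨ b = v) → (c = u ∨ c = v) →
      Negl D.B D.I (fun n x => Curv D v jx b c (D.B.d n ^ (-ybB)) n x ∧
        ¬ At R D v jx b c (D.B.d n ^ (-yB)) n x) ∧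
      Negl D.B D.I (fun n x => Curv D v jx b c (D.B.d n ^ (-ybA)) n x ∧
        At R D v jx b c (D.B.d n ^ (-yB)) n x ∧
        ¬ At QA D v jx b c (D.B.d n ^ (-yA)) n x) := by
    intro b c hbc hw hP hTw hb hc
    constructor
    · refine (negl_ft (yH := 0) (y1 := y1B) (yb := ybB) (y := yB) fB hCB hKB stab_QT sR he hr0
        hCw hC2 hw hP hTw (hd b hb e he).1 (hd c hc e he).1 (hd b hb e he).2 (hd c hc e he).2
        le_rfl ?_ ?_ ?_ ?_).mono ?_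
      · rw [hbc, hy1B]; linarith
      · rw [hbc, hy1B]; linarith
      · rw [hbc, hybB]; linarith
      · rw [hbc, hyB]; linarith
      · exact Eventually.of_forall fun n x hx h => ⟨h.1, trivial, h.2⟩
    · refine negl_ft (yH := yB) (y1 := y1A) (yb := ybA) (y := yA) fA hCA hKA sR stab_QA he hr0
        hCw hC2 hw hP hTw (hd b hb e he).1 (hd c hc e he).1 (hd b hb e he).2 (hd c hc e he).2
        p3 ?_ ?_ ?_ ?_
      · rw [hbc, hy1A]; linarith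
      · rw [hbc, hy1A]; linarith
      · rw [hbc, hybA]; linarith
      · rw [hbc, hyA]; linarith
  have hIe := hI e he
  have h128 : ∀ᶠ n in (U : Filter ℕ), 128 * D.B.d n ^ (-(Cw * δ + e / 2)) ≤
      D.B.d n ^ (-(Cw * δ + e)) := ev_pow D.B (by norm_num) (by linarith)
  have b1 : |(v:ℝ) - u| = δ := by rw [← hδd]; exact abs_of_pos hδ0
  have b2 : |(u:ℝ) - v| = δ := by rw [abs_sub_comm]; exact b1
  have P1 : ∀ᶠ n in (U : Filter ℕ), ∀ x ∈ D.I n,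
      Pair D n v u (D.B.d n ^ (-(Cw * |(v:ℝ) - u| + e))) (zs D v jx n x) (rs D v n) x := by
    filter_upwards [hI (e / 2) (by positivity), h128] with n hn h1 x hx
    rw [b1]
    have := hn x hx
    rw [← hδd] at this
    exact (this.pair_vu (e1 n (by linarith))).of_le h1 (rs_pos D v n).le
  have P2 : ∀ᶠ n in (U : Filter ℕ), ∀ x ∈ D.I n,
      Pair D n u v (D.B.d n ^ (-(Cw * |(u:ℝ) - v| + e))) (zs D v jx n x) (rs D v n) x := by
    filter_upwards [hI (e / 2) (by positivity), h128] with n hn h1 x hx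
    rw [b2]
    have := hn x hx
    rw [← hδd] at this
    exact (this.pair_uv (e1 n (by linarith))).of_le h1 (rs_pos D v n).le
  obtain ⟨N1, N2⟩ := key v u b1 hwv P1 hT1 (Or.inr rfl) (Or.inl rfl)
  obtain ⟨N3, N4⟩ := key u v b2 hwu P2 hT2 (Or.inl rfl) (Or.inr rfl)
  obtain ⟨Du, Ru⟩ := hd u (Or.inl rfl) e he
  obtain ⟨Dv, Rv⟩ := hd v (Or.inr rfl) e he
  have V1 : ∀ᶠ n in (U : Filter ℕ), 10 ^ 5 * D.B.d n ^ (-(3 * (Cw * δ + e) + e)) ≤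
      D.B.d n ^ (-yW) := ev_pow D.B (by norm_num) (by rw [hyW]; linarith)
  have V2 : ∀ᶠ n in (U : Filter ℕ), 10 ^ 81 * 128 ^ 18 * D.B.d n ^ (-(9 * yE + 8 * yW)) ≤
      D.B.d n ^ (-Z) := ev_pow D.B (by norm_num) (by rw [hZ]; linarith)
  have V3 : ∀ᶠ n in (U : Filter ℕ), 10 ^ 69 * 128 ^ 19 * D.B.d n ^ (-(3 * yE + 8 * yW)) ≤
      D.B.d n ^ (-(tC KB CB KA CA Cw C2 * δ + ε0)) :=
    ev_pow D.B (by norm_num) (by rw [tot, hZ]; linarith)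
  have V4 : ∀ᶠ n in (U : Filter ℕ), 160 * 128 * D.B.d n ^ (-(Cw * δ + e + Z)) ≤
      D.B.d n ^ (-(tC KB CB KA CA Cw C2 * δ + ε0)) :=
    ev_pow D.B (by norm_num) (by rw [tot]; linarith)
  refine ((N1.or (N2.or (N3.or N4))).or ((Du.or Dv).or (Ru.or Rv))).mono ?_
  filter_upwards [hIe, V1, V2, V3, V4] with n hIn v1 v2 v3 v4 x hx hbad
  by_contra hcon
  simp only [not_or] at hcon
  obtain ⟨⟨n1, n2, n3, n4⟩, ⟨du, dv⟩, ru, rv⟩ := hcon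
  obtain ⟨hb1, hb2⟩ := hbad
  have hI := hIn x hx
  rw [← hδd] at hI hb1 hb2
  have eE : -(tC KB CB KA CA Cw C2 * δ) - ε0 = -(tC KB CB KA CA Cw C2 * δ + ε0) := by ring
  rw [eE] at hb1 hb2
  have hr := hr0 n
  have dp := dpow_pos D.B n
  obtain ⟨B, hBd⟩ : ∃ B : ℝ, B = D.B.d n ^ (-(Cw * δ + e)) := ⟨_, rfl⟩
  rw [← hBd] at hI
  have hB1 : 1 ≤ B := by rw [hBd]; exact e1 n (by linarith)
  have hB0 : 0 < B := by linarith
  obtain ⟨M, hMd⟩ : ∃ M : ℝ, M = max (D.w 0 n u) (D.w 0 n v) := ⟨_, rfl⟩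
  rw [← hMd] at hb1
  have hMu : D.w 0 n u ≤ M := hMd ▸ le_max_left _ _
  have hMv : D.w 0 n v ≤ M := hMd ▸ le_max_right _ _
  have w0u : 0 < D.w 0 n u := by rw [← hI.au.1]; exact hr.trans_le hI.su.r0_le
  have hM0 : 0 < M := w0u.trans_le hMu
  have hpv := hI.pair_vu hB1
  have hpu := hI.pair_uv hB1
  have kv := kpm_le hpv hr (by positivity)
  have ku := kpm_le hpu hr (by positivity)
  obtain ⟨Kv, hKv⟩ : ∃ K : ℝ, K = kp (mk4 D n v x) (zs D v jx n x) (rs D v n) (D.L n x.1) :=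
    ⟨_, rfl⟩
  obtain ⟨Ku, hKu⟩ : ∃ K : ℝ, K = kp (mk4 D n u x) (zs D v jx n x) (rs D v n) (D.L n x.1) :=
    ⟨_, rfl⟩
  rw [← hKv] at kv
  rw [← hKu] at ku
  -- the larger extent over the short cell
  have big : D.B.d n ^ (-Z) * M ≤ max Kv Ku := by
    have h1 : max (kpm D n v x) (kpm D n u x) ≤ 160 * (128 * B) * max Kv Ku :=
      max_le (kv.trans (mul_le_mul_of_nonneg_left (le_max_left _ _) (by positivity)))
        (ku.trans (mul_le_mul_of_nonneg_left (le_max_right _ _) (by positivity)))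
    have h2 : D.B.d n ^ (-(tC KB CB KA CA Cw C2 * δ + ε0)) * M ≤
      160 * (128 * B) * max Kv Ku := hb1.trans h1
    have h3 : 160 * (128 * B) * D.B.d n ^ (-Z) ≤
        D.B.d n ^ (-(tC KB CB KA CA Cw C2 * δ + ε0)) := by
      refine le_trans (le_of_eq ?_) v4
      rw [hBd, show -(Cw * δ + e + Z) = -(Cw * δ + e) + -Z by ring, dpow_add]
      ring
    have h4 : 160 * (128 * B) * (D.B.d n ^ (-Z) * M) ≤ 160 * (128 * B) * max Kv Ku := by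
      calc _ = 160 * (128 * B) * D.B.d n ^ (-Z) * M := by ring
        _ ≤ _ := (mul_le_mul_of_nonneg_right h3 hM0.le).trans h2
    exact le_of_mul_le_mul_left h4 (by positivity)
  have g1 : D.B.d n ^ (-ybB) ≤ D.B.d n ^ (-Z) := dpow_le D.B n (by rw [hZ]; linarith)
  have g2 : D.B.d n ^ (-ybA) ≤ D.B.d n ^ (-Z) := dpow_le D.B n (by rw [hZ]; linarith)
  have g3 : B ≤ D.B.d n ^ (-yE) := by rw [hBd]; exact dpow_le D.B n (by rw [hyE]; linarith)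
  have g4 : D.B.d n ^ (-yB) ≤ D.B.d n ^ (-yE) := dpow_le D.B n (by rw [hyE]; linarith)
  have g5 : D.B.d n ^ (-yA) ≤ D.B.d n ^ (-yE) := dpow_le D.B n (by rw [hyE]; linarith)
  have g6 : 10 ^ 5 * (B ^ 2 * B) ≤ D.B.d n ^ e * D.B.d n ^ (-yW) := by
    have h1 : B ^ 2 * B = D.B.d n ^ e * D.B.d n ^ (-(3 * (Cw * δ + e) + e)) := by
      rw [hBd, ← dpow_add, show e + -(3 * (Cw * δ + e) + e) = (3:ℕ) * -(Cw * δ + e) by
        push_cast; ring, ← dpow_natpow]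
      ring
    rw [h1]
    calc _ = D.B.d n ^ e * (10 ^ 5 * D.B.d n ^ (-(3 * (Cw * δ + e) + e))) := by ring
      _ ≤ _ := mul_le_mul_of_nonneg_left v1 (dp _).le
  have g7 : 10 ^ 81 * 128 ^ 18 * (D.B.d n ^ (-yE)) ^ 9 * (D.B.d n ^ (-yW)) ^ 8 ≤
      D.B.d n ^ (-Z) := by
    refine le_trans (le_of_eq ?_) v2
    rw [dpow_natpow, dpow_natpow, mul_assoc, ← dpow_add]
    congr 2
    push_cast; ring
  have g8 : 10 ^ 69 * 128 ^ 19 * (D.B.d n ^ (-yE)) ^ 3 * (D.B.d n ^ (-yW)) ^ 8 ≤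
      D.B.d n ^ (-(tC KB CB KA CA Cw C2 * δ + ε0)) := by
    refine le_trans (le_of_eq ?_) v3
    rw [dpow_natpow, dpow_natpow, mul_assoc, ← dpow_add]
    congr 2
    push_cast; ring
  apply hb2
  rcases le_total Ku Kv with hc | hc
  · rw [max_eq_left hc] at big
    exact inc_step hR huv (Or.inl ⟨rfl, rfl⟩) hr he hI (hI.one_v hB1) hI.one_u hB1
      (fun k => ⟨(hI.cw k).2, (hI.cw k).1⟩) dv du rv ru n1 n2 hMv (dp _).le
      (by rw [← hKv]; exact big) (by rw [← hKv, ← hKu]; exact hc) g1 g2 g3 g4 g5 g6 g7 g8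
  · rw [max_eq_right hc] at big
    exact inc_step hR huv (Or.inr ⟨rfl, rfl⟩) hr he hI hI.one_u (hI.one_v hB1) hB1
      hI.cw du dv ru rv n3 n4 hMu (dp _).le
      (by rw [← hKu]; exact big) (by rw [← hKv, ← hKu]; exact hc) g1 g2 g3 g4 g5 g6 g7 g8

end Crest.Agent.R136.Pl2W102
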