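import Crest.Agent.R136.Plw4_102
import Crest.Agent.R136.Two8_904
import Crest.Agent.R136.Inc_846
import Crest.Agent.R136.Rtn_846

/-!
# R136 (S0187), PLAN 2 (tilt without deep levels): the tilt theorem over `J1c` (helper102)

* **`bodyC_of`** : one sequence;
* **`tilt4C_G`** : the base tilt theorem and the alignment theorem give `BodyC` (= `TiltB`) for all
  sequences with `J1c η`.
-/

set_option autoImplicit false
set_option linter.unusedVariables false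

open Finset Filter Topology

namespace Crest.Agent.R136.Pl2W102

open Crest.Agent.R138.Ex926 (Base U)
open Crest.Agent.R138.Mk163 (zc zl rho Negl)
open Crest.Agent.R136.MkA627
open Crest.Agent.R136.Sh605
open Crest.Agent.R136.Tl102
open Crest.Agent.R136.K4 (Plk4)
open Crest.Agent.R136.Top484
open Crest.Agent.R136.Tlt51 (Shp InP mk4 zx rh TiltOKC)
open Crest.Agent.R136.KapP335
open Crest.Agent.R136.Pl2 (BTR ALR Al1)

/-- the two records of exponents have the same fields -/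
theorem ex2_of {η η' : ℝ} {qm qp : Fin 3 → ℝ} (h : Crest.Agent.R136.DAl879.Ex2 η qm qp)
    (hη : η ≤ η') : Ex2 η' qm qp := by
  have h' := h.mono hη
  exact ⟨h'.le, h'.pos, h'.e02, h'.e1, h'.e00, h'.e21⟩

/-- **tilt for one sequence** -/
theorem bodyC_of {R : PropE} (sR : Stab R)
    (hR : ∀ (E : ℝ) (S S' : Plk4) (T : Ln4) (a w1 w2 z0 ρ : ℝ),
      R E S S' T a w1 w2 z0 ρ → angC S S' * w1 ≤ E * w2)
    (hB : BTR R) {ηA : ℝ}
    (hA : ∀ qm qp : Fin 3 → ℝ, Ex2 ηA qm qp → ∃ K0 C : ℝ, 0 ≤ K0 ∧ 0 ≤ C ∧ FT R QA qm qp K0 C)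
    {η : ℝ} (hη : η ≤ 1) (hηA : η ≤ ηA) {p : Par4} {D : Dat4} (hJ : J1c η p D) : BodyC D := by
  obtain ⟨qm, qp, hE, C2, hC2, hT⟩ := Crest.Agent.R136.Eng904.two7_at hJ
  obtain ⟨Cw, hCw, hI⟩ := Crest.Agent.R136.Inc846.inc_J1c hJ
  obtain ⟨KB, CB, hKB, hCB, fB⟩ := ft_BTR hB (ex2_of hE le_rfl)
  obtain ⟨KA, CA, hKA, hCA, fA⟩ := hA qm qp (ex2_of hE hηA)
  refine ⟨tC KB CB KA CA Cw C2, tC_nonneg hKB hCB hKA hCA hCw hC2, fun u v hu huv hv ε hε => ?_⟩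
  have hv0 : (0 : ℚ) ≤ v := hu.trans huv.le
  have hu1 : u ≤ 1 := huv.le.trans hv
  obtain ⟨jx, hjx, h1, h2⟩ := hT v u hv0 hv hu hu1
  have hm : max v u = v := max_eq_left huv.le
  rw [hm] at hjx h1 h2
  refine pair_tilt sR hR hKB hCB hKA hCA fB fA hCw hC2 huv hJ.r0pos
    (fun k => hJ.mka.wpos k u hu hu1) (fun k => hJ.mka.wpos k v hv0 hv)
    (hI u v jx hu huv hv hjx) h1 h2 ?_ hε
  intro b hb ε' hε'
  rcases hb with rfl | rfl
  · exact Crest.Agent.R136.Rtn846.typ_negl hη hJ hu hu1 hε'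
  · exact Crest.Agent.R136.Rtn846.typ_negl hη hJ hv0 hv hε'

/-- **THE TILT THEOREM** (PLAN 2), general relation `R` -/
theorem tilt4C_R {R : PropE} (sR : Stab R)
    (hR : ∀ (E : ℝ) (S S' : Plk4) (T : Ln4) (a w1 w2 z0 ρ : ℝ),
      R E S S' T a w1 w2 z0 ρ → angC S S' * w1 ≤ E * w2)
    (hB : BTR R) (hA : ALR R) :
    ∃ η : ℝ, 0 < η ∧ ∀ (p : Par4) (D : Dat4), J1c η p D → BodyC D := by
  obtain ⟨ηA, hη, h⟩ := ft_ALR hA
  exact ⟨min ηA 1, lt_min hη one_pos, fun p D hJ =>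
    bodyC_of sR hR hB h (min_le_right _ _) (min_le_left _ _) hJ⟩

/-- **THE TILT THEOREM** (PLAN 2) from the base tilt theorem and the alignment theorem -/
theorem tilt4C_G (hB : BTR Al1) (hA : ALR Al1) :
    ∃ η : ℝ, 0 < η ∧ ∀ (p : Par4) (D : Dat4), J1c η p D → BodyC D :=
  tilt4C_R stab_Al1 (fun _ _ _ _ _ _ _ _ _ h => h.ang) hB hA

/-- the same in coefficient form -/
theorem tilt4P_G (hB : BTR Al1) (hA : ALR Al1) :
    ∃ η : ℝ, 0 < η ∧ ∀ (p : Par4) (D : Dat4), J1c η p D → BodyP D := by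
  obtain ⟨η, hη, h⟩ := tilt4C_G hB hA
  exact ⟨min η 1, lt_min hη one_pos, fun p D hJ =>
    bodyP_of hJ (h p D (J1c_mono hJ (min_le_left _ _))) fun v hv0 hv1 ε hε =>
      (Crest.Agent.R136.Rtn846.typ_negl (min_le_right _ _) hJ hv0 hv1 hε).1⟩

end Crest.Agent.R136.Pl2W102
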