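import Crest.Agent.R136.Kf5_605
import Crest.Agent.R136.Dup_571
import Crest.Agent.R136.Amx3_325
import Crest.Agent.R136.AlK_500

/-!
# R136 (S0187), PLAN 2 (AL): the plank hypothesis in the letters of `Two7` (helper571)

* `pl7` : `Two7`, curved and non-degenerate classes ⊢ plank hypothesis of `kmb_num`;
* `leafPL : Al500.LeafPL`, `plMx : Amx325.PLMx`.
-/

set_option autoImplicit false
set_option linter.unusedVariables false

open Finset

namespace Crest.Agent.R136.Plx571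

open Crest.Agent.R136.Sh605
open Crest.Agent.R136.K4 (Plk4)
open Crest.Agent.R136.Tlt51 (Shp InP)
open Crest.Agent.R136.KapP335 (kapP DetP)
open Crest.Agent.R136.Pl2W102 (Near Ex2 Two1)
open Crest.Agent.R136.Pl2 (Two7 kp)
open Crest.Agent.R136.Phc248
open Crest.Agent.R138.Defs (E2)
open Crest.Agent.R138.Tub70 (InPl)
open Crest.Agent.R136.Vq571 (chp chv)
open Crest.Agent.R136.Kf605 (cD bigM pl_curvedM)

/-! ### powers -/

theorem pw_c {X c : ℝ} (n : ℕ) (hX : 1 ≤ X) (h : c ≤ 2 ^ n) : c ≤ (2 * X) ^ (n : ℝ) := by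
  rw [Real.rpow_natCast]
  exact h.trans (pow_le_pow_left₀ (by norm_num) (by linarith) n)

/-- constants times powers of `X` -/
theorem pw_cX {X c : ℝ} (n m : ℕ) (hX : 1 ≤ X) (h : c ≤ 2 ^ n) (hc : 0 ≤ c) :
    c * X ^ m ≤ (2 * X) ^ ((n + m : ℕ) : ℝ) := by
  rw [Real.rpow_natCast, pow_add]
  have h1 : c ≤ (2 * X) ^ n := h.trans (pow_le_pow_left₀ (by norm_num) (by linarith) n)
  have h2 : X ^ m ≤ (2 * X) ^ m := pow_le_pow_left₀ (by linarith) (by linarith) m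
  have h3 : 0 ≤ X ^ m := by positivity
  exact mul_le_mul h1 h2 h3 (hc.trans h1)

theorem pw_mul {X a b s t : ℝ} (hX : 1 ≤ X) (hb : 0 ≤ b) (h1 : a ≤ (2 * X) ^ s)
    (h2 : b ≤ (2 * X) ^ t) : a * b ≤ (2 * X) ^ (s + t) := by
  have h0 : (0 : ℝ) < 2 * X := by linarith
  rw [Real.rpow_add h0]
  exact mul_le_mul h1 h2 hb (Real.rpow_pos_of_pos h0 _).le

theorem pw_rpow {X a s p : ℝ} (hX : 1 ≤ X) (ha : 0 ≤ a) (h1 : a ≤ (2 * X) ^ s) (hp : 0 ≤ p) :
    a ^ p ≤ (2 * X) ^ (s * p) := by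
  rw [Real.rpow_mul (by linarith)]
  exact Real.rpow_le_rpow ha h1 hp

theorem pw_pow {X a s : ℝ} (hX : 1 ≤ X) (ha : 0 ≤ a) (h1 : a ≤ (2 * X) ^ s) (n : ℕ) :
    a ^ n ≤ (2 * X) ^ (s * n) := by
  have := pw_rpow (p := n) hX ha h1 (Nat.cast_nonneg n)
  rwa [Real.rpow_natCast] at this

/-- the constant of `pl_curvedM` is a power of `2 X` -/
theorem bigM_le {qm qp : Fin 3 → ℝ} (hq : ∀ k, 0 ≤ qm k ∧ qm k ≤ qp k) : ∃ k : ℝ, 30 ≤ k ∧
    ∀ X B : ℝ, 1 ≤ X → 1 ≤ B → B ≤ X →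
      bigM (X⁻¹ / (128 * 16 * 160 ^ 3)) 128 (40 * X ^ 2) B (1 / (10 ^ 6 * X ^ 2)) qm qp ≤
        (2 * X) ^ k := by
  have q0 := hq 0
  have q1 := hq 1
  have q2 := hq 2
  refine ⟨((24 : ℕ) : ℝ) * ((4 : ℕ) : ℝ) + (((16 : ℕ) : ℝ) + ((48 : ℕ) : ℝ) * ((7 : ℕ) : ℝ) +
    ((23 : ℕ) : ℝ) + (((22 : ℕ) : ℝ) + ((3 : ℕ) : ℝ) * (1 + qp 0) + ((7 : ℕ) : ℝ) *
      (2 + qp 1 + qp 2) + (((6 : ℕ) : ℝ) + ((48 : ℕ) : ℝ) * ((4 : ℕ) : ℝ)) *
        (1 + (qm 1 + qm 2))) + ((19 : ℕ) : ℝ) * (2 + (qm 1 + qm 2))), ?_, ?_⟩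
  · push_cast
    nlinarith
  intro X B hX hB hBX
  have hX0 : 0 < X := by linarith
  have e1 : 3 / (1 / (10 ^ 6 * X ^ 2)) = 3000000 * X ^ 2 := by field_simp; norm_num
  have e2 : 2 / (1 / (10 ^ 6 * X ^ 2)) = 2000000 * X ^ 2 := by field_simp; norm_num
  have e3 : 10000 / (X⁻¹ / (128 * 16 * 160 ^ 3)) = 83886080000000 * X ^ 1 := by
    field_simp; norm_num
  have e4 : 13 * (128 * (40 * X ^ 2)) = 66560 * X ^ 2 := by ring
  unfold bigM cD
  rw [e1, e2, e3, e4]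
  have a1 : 3000000 * X ^ 2 ≤ (2 * X) ^ ((24 : ℕ) : ℝ) := pw_cX 22 2 hX (by norm_num) (by norm_num)
  have a2 : 2000000 * X ^ 2 ≤ (2 * X) ^ ((23 : ℕ) : ℝ) := pw_cX 21 2 hX (by norm_num) (by norm_num)
  have a3 : 83886080000000 * X ^ 1 ≤ (2 * X) ^ ((48 : ℕ) : ℝ) :=
    pw_cX 47 1 hX (by norm_num) (by norm_num)
  have a4 : 66560 * X ^ 2 ≤ (2 * X) ^ ((19 : ℕ) : ℝ) := pw_cX 17 2 hX (by norm_num) (by norm_num)
  have a5 : (40000 : ℝ) ≤ (2 * X) ^ ((16 : ℕ) : ℝ) := pw_c 16 hX (by norm_num)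
  have a6 : 1860000 * B ≤ (2 * X) ^ ((22 : ℕ) : ℝ) := by
    refine le_trans ?_ (pw_cX (c := 1860000) 21 1 hX (by norm_num) (by norm_num))
    rw [pow_one]; linarith
  have a7 : 3 * B ≤ (2 * X) ^ ((3 : ℕ) : ℝ) := by
    refine le_trans ?_ (pw_cX (c := 3) 2 1 hX (by norm_num) (by norm_num))
    rw [pow_one]; linarith
  have a8 : 36 * B ≤ (2 * X) ^ ((7 : ℕ) : ℝ) := by
    refine le_trans ?_ (pw_cX (c := 36) 6 1 hX (by norm_num) (by norm_num))
    rw [pow_one]; linarith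
  have a9 : (34 : ℝ) ≤ (2 * X) ^ ((6 : ℕ) : ℝ) := pw_c 6 hX (by norm_num)
  have b1 := pw_pow hX (by positivity) a1 4
  have b2 := pw_pow hX (by positivity) a3 7
  have b3 := pw_rpow (p := 1 + qp 0) hX (by positivity) a7 (by linarith)
  have b4 := pw_rpow (p := 2 + qp 1 + qp 2) hX (by positivity) a8 (by linarith)
  have b5 := pw_rpow (p := 1 + (qm 1 + qm 2)) hX (by positivity)
    (pw_mul hX (by positivity) a9 (pw_pow hX (by positivity) a3 4)) (by linarith)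
  have b6 := pw_rpow (p := 2 + (qm 1 + qm 2)) hX (by positivity) a4 (by linarith)
  exact pw_mul hX (by positivity) b1 (pw_mul hX (by positivity) (pw_mul hX (by positivity)
    (pw_mul hX (by positivity) (pw_mul hX (by positivity) a5 b2) a2)
    (pw_mul hX (by positivity) (pw_mul hX (by positivity) (pw_mul hX (by positivity) a6 b3) b4) b5))
    b6)

/-! ### the letters of `Two7` -/

open Classical in
/-- **plank hypothesis of `kmb_num` for curved and non-degenerate classes** -/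
theorem pl7 {qm qp : Fin 3 → ℝ} (hq : ∀ k, 0 ≤ qm k ∧ qm k ≤ qp k) : ∃ k : ℝ, 30 ≤ k ∧
    ∀ (L : ℕ → Ln4) (P : Finset ℕ) (cu cv : ℕ → ℕ) (Uf Vf : ℕ → Plk4)
      (B M a w1 w2 z0 ρ zL ρL r X : ℝ),
      Two7 qm qp L P cu cv Uf Vf B M a w1 w2 z0 ρ zL ρL r → B ≤ X → ∀ H : ℕ, 1 ≤ H →
      (∀ t ∈ P, a * H ≤ X * kapP (Uf (cu t)) z0 ρ (L t)) →
      (∀ t ∈ P, DetP X⁻¹ (Uf (cu t)) z0 ρ (L t)) →
      (∀ t ∈ P, (2 * X) ^ k * a ≤ kapP (Uf (cu t)) z0 ρ (L t)) →
      ∀ (c : ℕ) (f : OrthonormalBasis (Fin 2) ℝ E2) (s : Fin 2 → ℝ) (p0 v0 : E2),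
        (∀ j, 1 / (H : ℝ) ≤ s j ∧ s j ≤ 1) →
        ((P.filter fun t => cu t = c ∧
          InPl f s p0 v0 (chp (Uf c) z0 ρ (L t)) (chv (Uf c) z0 ρ (L t))).card : ℝ) ≤
          (2 * X) ^ k * (1 + Real.log H) * (s 0 * s 1) *
            (max (s 0) (s 1)) ^ (qm 1 + qm 2) * M := by
  obtain ⟨k, hk, hM⟩ := bigM_le hq
  refine ⟨k, hk, ?_⟩
  intro L P cu cv Uf Vf B M a w1 w2 z0 ρ zL ρL r X h hBX H hH hcur hdet hbig c f s p0 v0 hs
  have h1 := h.to1
  have hB := h1.W1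
  have hX : 1 ≤ X := hB.trans hBX
  have hX0 : 0 < X := by linarith
  have hB0 : 0 < B := by linarith
  have hρ := h1.ρ0
  have ha := h1.a0
  have hM0 := h1.M0.le
  have hr := h1.r0
  have hlo := h.lo
  have hhi := h.hi
  have hlong := h.long
  have hρL : 0 < ρL := by linarith
  have hH1 : (1 : ℝ) ≤ H := by exact_mod_cast hH
  have hlog : 0 ≤ Real.log H := Real.log_nonneg hH1
  have hsp : ∀ i, 0 < s i := fun i => lt_of_lt_of_le (by positivity) (hs i).1
  have h2X : (0 : ℝ) < 2 * X := by linarith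
  have hpk : 0 < (2 * X) ^ k := Real.rpow_pos_of_pos h2X _
  have hmx : 0 < max (s 0) (s 1) := lt_max_of_lt_left (hsp 0)
  rcases (P.filter fun t => cu t = c ∧
    InPl f s p0 v0 (chp (Uf c) z0 ρ (L t)) (chv (Uf c) z0 ρ (L t))).eq_empty_or_nonempty with hE | hE
  · rw [hE, card_empty, Nat.cast_zero]
    have := hsp 0
    have := hsp 1
    positivity
  obtain ⟨t0, ht0⟩ := hE
  obtain ⟨ht0P, ht0c, -⟩ := mem_filter.1 ht0
  have hS : Shp (Uf c) zL ρL r := by
    have := h.shU t0 ht0P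
    rwa [ht0c] at this
  obtain ⟨dA, dB, dC⟩ := h1.dimU t0 ht0P
  rw [ht0c] at dA dB dC
  have hap : 0 < (Uf c).a := hr.trans_le hS.r0_le
  have hin : ∀ t ∈ P.filter fun t => cu t = c, InP (L t) (Uf c) zL ρL := by
    intro t ht
    obtain ⟨htP, htc⟩ := mem_filter.1 ht
    have := h.inU t htP
    rwa [htc] at this
  have hkS : ∀ t ∈ P.filter fun t => cu t = c, (2 * X) ^ k * a ≤ kapP (Uf c) z0 ρ (L t) := by
    intro t ht
    obtain ⟨htP, htc⟩ := mem_filter.1 ht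
    have := hbig t htP
    rwa [htc] at this
  have hkL : ∀ t ∈ P.filter fun t => cu t = c,
      kapP (Uf c) z0 ρ (L t) ≤ 40 * kapP (Uf c) zL ρL (L t) := fun t ht =>
    Crest.Agent.R136.Pl2W102.kapP_le hr hρ hlo hhi hS (hin t ht)
  have hkS0 : ∀ t ∈ P.filter fun t => cu t = c, 0 < kapP (Uf c) z0 ρ (L t) := fun t ht =>
    (mul_pos hpk ha).trans_le (hkS t ht)
  have hδ0 : 0 < X⁻¹ / (128 * 16 * 160 ^ 3) := by positivity
  have hX30 : 80 * 10 ^ 6 * X ^ 3 ≤ (2 * X) ^ k := by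
    refine le_trans (pw_cX 27 3 hX (by norm_num) (by norm_num)) ?_
    exact Real.rpow_le_rpow_of_exponent_le (by linarith) (by push_cast; linarith)
  have key := pl_curvedM (S := Uf c) (A := P.filter fun t => cu t = c) (R := 128) (W := B)
    (μ := 1 / (10 ^ 6 * X ^ 2)) (δ := X⁻¹ / (128 * 16 * 160 ^ 3)) (H := H) (K1 := 40 * X ^ 2)
    (a0 := a) (w10 := w1) (w20 := w2) (M := M) hq hS hr hlo hhi hρ hlong h.short hB hM0 ha h1.w10
    h1.w20 dA.2 dB.2 dC.2 h1.dmax (by positivity)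
    (by
      rw [div_le_div_iff₀ (by positivity) (by norm_num)]
      have : 1 ≤ X ^ 2 := one_le_pow₀ hX
      linarith)
    (by
      have h2 : (Uf c).w 1 ≤ X ^ 2 * ρ := by
        calc (Uf c).w 1 ≤ B * w1 := dB.2
          _ ≤ B * (B * ρ) := mul_le_mul_of_nonneg_left h1.w1ρ hB0.le
          _ = B ^ 2 * ρ := by ring
          _ ≤ X ^ 2 * ρ := by gcongr
      calc 576 * (1 / (10 ^ 6 * X ^ 2)) * (Uf c).w 1
          ≤ 576 * (1 / (10 ^ 6 * X ^ 2)) * (X ^ 2 * ρ) := by gcongr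
        _ = 576 / 10 ^ 6 * ρ := by field_simp
        _ ≤ ρ := by linarith)
    (filter_subset _ _) hin hδ0
    (by
      rw [div_le_one (by norm_num)]
      have : X⁻¹ ≤ 1 := inv_le_one_of_one_le₀ hX
      linarith)
    (by
      intro t ht
      obtain ⟨htP, htc⟩ := mem_filter.1 ht
      have h2 := hdet t htP
      rw [htc] at h2
      have h3 := Dup571.det_up (t := 1 / 128) hr hρ hlo hhi (by norm_num)
        (by have := h.short; linarith) hS (hin t ht) (by positivity) (hkS0 t ht) h2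
      refine h3.mono (le_of_eq ?_)
      ring)
    hH
    (by
      have : 1 ≤ X ^ 2 := one_le_pow₀ hX
      linarith)
    (by
      intro t ht
      obtain ⟨htP, htc⟩ := mem_filter.1 ht
      have h2 := hcur t htP
      rw [htc] at h2
      have h3 := hkL t ht
      have h4 : (Uf c).a ≤ X * a := dA.2.trans (mul_le_mul_of_nonneg_right hBX ha.le)
      calc (Uf c).a * H ≤ X * a * H := mul_le_mul_of_nonneg_right h4 (by positivity)
        _ = X * (a * H) := by ring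
        _ ≤ X * (X * kapP (Uf c) z0 ρ (L t)) := mul_le_mul_of_nonneg_left h2 hX0.le
        _ ≤ X * (X * (40 * kapP (Uf c) zL ρL (L t))) := by gcongr
        _ = 40 * X ^ 2 * kapP (Uf c) zL ρL (L t) := by ring)
    (by
      intro t ht
      have h2 := hkS t ht
      have h3 := hkL t ht
      have h4 : (Uf c).a ≤ X * a := dA.2.trans (mul_le_mul_of_nonneg_right hBX ha.le)
      have h5 : 80 * 10 ^ 6 * X ^ 3 * a ≤ 40 * kapP (Uf c) zL ρL (L t) :=
        (mul_le_mul_of_nonneg_right hX30 ha.le).trans (h2.trans h3)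
      rw [div_mul_eq_mul_div, one_mul, le_div_iff₀ (by positivity)]
      calc 2 * (Uf c).a * (10 ^ 6 * X ^ 2) ≤ 2 * (X * a) * (10 ^ 6 * X ^ 2) := by gcongr
        _ = 80 * 10 ^ 6 * X ^ 3 * a / 40 := by ring
        _ ≤ _ := by linarith)
    f s p0 v0 hs
  rw [filter_filter] at key
  refine key.trans ?_
  have := hM X B hX hB hBX
  have := hsp 0
  have := hsp 1
  gcongr

theorem two7_swap {qm qp : Fin 3 → ℝ} {L : ℕ → Ln4} {P : Finset ℕ} {cu cv : ℕ → ℕ}
    {Uf Vf : ℕ → Plk4} {W M a w1 w2 z0 ρ zL ρL r : ℝ}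
    (h : Two7 qm qp L P cu cv Uf Vf W M a w1 w2 z0 ρ zL ρL r) :
    Two7 qm qp L P cv cu Vf Uf W M a w1 w2 z0 ρ zL ρL r :=
  ⟨Alw500.two_swap h.to1, h.rρ, h.lo, h.hi, h.long, h.short, h.shV, h.shU, h.inV, h.inU⟩

open Classical in
/-- **PL of the balanced case** -/
theorem leafPL : Al500.LeafPL := by
  intro qm qp hq
  obtain ⟨k, hk, key⟩ := pl7 hq
  refine ⟨k + 4, by linarith, ?_⟩
  intro L P cu cv Uf Vf W B M a w1 w2 z0 ρ zL ρL r κ E H h hκ hBH
  have hB : 1 ≤ B := h.W1.trans h.WB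
  have hB0 : 0 < B := by linarith
  have hW0 : 0 < W := by linarith [h.W1]
  have hCB : 4 * B ≤ (k + 4) * B := mul_le_mul_of_nonneg_right (by linarith) hB0.le
  have h4B : (1 : ℝ) ≤ 4 * B := by linarith
  have e4 : (2 * (2 * B)) = 4 * B := by ring
  have hp1 : (4 * B) ^ (k + 1) ≤ ((k + 4) * B) ^ (k + 4) :=
    (Real.rpow_le_rpow (by positivity) hCB (by linarith)).trans
      (Real.rpow_le_rpow_of_exponent_le (by linarith) (by linarith))
  have hp0 : (4 * B) ^ k ≤ ((k + 4) * B) ^ (k + 4) :=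
    (Real.rpow_le_rpow_of_exponent_le h4B (by linarith)).trans hp1
  have hHr : (1 : ℝ) ≤ H := by
    refine le_trans ?_ hBH
    exact (Real.one_le_rpow h4B (by linarith : (0 : ℝ) ≤ k + 1)).trans hp1
  have hH : 1 ≤ H := by exact_mod_cast hHr
  have ha := h.two.to1.a0
  have hM := h.two.to1.M0
  have hE0 : 0 < E := by linarith [h.E1]
  have hsp : ((4 * B) ^ k * a) * (2 * B) ≤ 2 * (E * a) := by
    have h2 : (4 * B) ^ (k + 1) ≤ 2 * E := hp1.trans (hBH.trans h.HE)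
    rw [Real.rpow_add (by linarith), Real.rpow_one] at h2
    have h3 : 0 < (4 * B) ^ k := Real.rpow_pos_of_pos (by linarith) _
    calc ((4 * B) ^ k * a) * (2 * B) ≤ (4 * B) ^ k * (4 * B) * a := by
          nlinarith [mul_pos (mul_pos h3 ha) hB0]
      _ ≤ 2 * E * a := mul_le_mul_of_nonneg_right h2 ha.le
      _ = 2 * (E * a) := by ring
  have gen : ∀ (cu cv : ℕ → ℕ) (Uf Vf : ℕ → Plk4),
      Two7 qm qp L P cu cv Uf Vf B M a w1 w2 z0 ρ zL ρL r →
      (∀ t ∈ P, E * a ≤ W * kp (Uf (cu t)) z0 ρ (L t)) →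
      (∀ t ∈ P, DetP W⁻¹ (Uf (cu t)) z0 ρ (L t)) →
      Alw500.PLh P cu L Uf z0 ρ (((k + 4) * B) ^ (k + 4) * (1 + Real.log H)) M
        (qm 1 + qm 2) H := by
    intro cu cv Uf Vf h7 hkE hdet c f s p0 v0 hs G hG
    have hWk : ∀ t ∈ P, E * a ≤ B * kapP (Uf (cu t)) z0 ρ (L t) := by
      intro t ht
      have h2 := hkE t ht
      change E * a ≤ W * kapP (Uf (cu t)) z0 ρ (L t) at h2
      have h3 : 0 < kapP (Uf (cu t)) z0 ρ (L t) := by
        by_contra hc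
        push Not at hc
        have : W * kapP (Uf (cu t)) z0 ρ (L t) ≤ 0 := mul_nonpos_of_nonneg_of_nonpos hW0.le hc
        have : 0 < E * a := mul_pos hE0 ha
        linarith
      exact h2.trans (mul_le_mul_of_nonneg_right h.WB h3.le)
    have hmain := key L P cu cv Uf Vf B M a w1 w2 z0 ρ zL ρL r (2 * B) h7 (by linarith) H hH
      (by
        intro t ht
        have h2 := hWk t ht
        calc a * H ≤ a * (2 * E) := mul_le_mul_of_nonneg_left h.HE ha.le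
          _ = 2 * (E * a) := by ring
          _ ≤ 2 * (B * kapP (Uf (cu t)) z0 ρ (L t)) := by linarith
          _ = 2 * B * kapP (Uf (cu t)) z0 ρ (L t) := by ring)
      (by
        intro t ht
        refine (hdet t ht).mono (inv_anti₀ hW0 ?_)
        linarith [h.WB])
      (by
        intro t ht
        have h2 := hWk t ht
        rw [e4]
        have h3 : ((4 * B) ^ k * a) * (2 * B) ≤ kapP (Uf (cu t)) z0 ρ (L t) * (2 * B) := by
          refine hsp.trans ?_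
          linarith
        exact le_of_mul_le_mul_right h3 (by linarith))
      c f s p0 v0 hs
    have hsub : G ⊆ P.filter fun t => cu t = c ∧
        InPl f s p0 v0 (chp (Uf c) z0 ρ (L t)) (chv (Uf c) z0 ρ (L t)) := by
      intro t ht
      obtain ⟨h1, h2, h3⟩ := hG t ht
      exact mem_filter.2 ⟨h1, h2, h3⟩
    have hcd : (G.card : ℝ) ≤ ((P.filter fun t => cu t = c ∧
        InPl f s p0 v0 (chp (Uf c) z0 ρ (L t)) (chv (Uf c) z0 ρ (L t))).card : ℝ) := by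
      exact_mod_cast card_le_card hsub
    refine hcd.trans (hmain.trans ?_)
    rw [e4]
    have hsp : ∀ i, 0 < s i := fun i => lt_of_lt_of_le (by positivity) (hs i).1
    have := hsp 0
    have := hsp 1
    have hlog : 0 ≤ Real.log H := Real.log_nonneg hHr
    gcongr
  exact ⟨gen cu cv Uf Vf h.two h.kE h.detU, gen cv cu Vf Uf (two7_swap h.two) h.kE' h.detV⟩

open Classical in
/-- **PL of the mixed case** -/
theorem plMx : Amx325.PLMx := by
  intro η qm qp hE2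
  obtain ⟨k, hk, key⟩ := pl7 (qm := qm) (qp := qp) hE2.le
  refine ⟨k + 1, k + 6, by linarith, by linarith, ?_⟩
  intro L P cu cv Uf Vf W M a w1 w2 z0 ρ zL ρL r Y h H hH4 hHY
  have h1 := h.two.to1
  have hW := h1.W1
  have hW0 : 0 < W := by linarith
  have ha := h1.a0
  have hM := h1.M0
  have h2W : (1 : ℝ) ≤ 2 * W := by linarith
  have hpk : 0 < (2 * W) ^ k := Real.rpow_pos_of_pos (by linarith) _
  have hHr : (4 : ℝ) ≤ H := by exact_mod_cast hH4
  have hH0 : (0 : ℝ) < H := by linarith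
  have hlog : 0 ≤ Real.log H := Real.log_nonneg (by linarith)
  have hW1k : W ≤ (2 * W) ^ (k + 1) := by
    refine (by linarith : W ≤ 2 * W).trans ?_
    calc 2 * W = (2 * W) ^ (1 : ℝ) := (Real.rpow_one _).symm
      _ ≤ (2 * W) ^ (k + 1) := Real.rpow_le_rpow_of_exponent_le h2W (by linarith)
  -- the logarithm
  have hlogH : 1 + Real.log H ≤ (2 * W) ^ (6 : ℝ) := by
    obtain ⟨t, ht⟩ := h.ne
    have h3 := h.lo t ht
    have h4 := Alr877.kapP_le h1.r0 h1.ρ0.le (h1.shU t ht) (h1.inU t ht)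
    change Y ≤ kapP (Uf (cu t)) z0 ρ (L t) at h3
    have h5 : (Uf (cu t)).w 0 ≤ (Uf (cu t)).w 1 := (h1.shU t ht).w0_le.trans (h1.shU t ht).w_le
    have h6 := (h1.dimU t ht).2.1.2
    have hHa : (H : ℝ) * a ≤ 13 * W * w1 := by
      calc (H : ℝ) * a ≤ 13 * (Uf (cu t)).w 0 := hHY.trans (h3.trans h4)
        _ ≤ 13 * (W * w1) := by linarith
        _ = 13 * W * w1 := by ring
    have hHb : (H : ℝ) ≤ 13 * W * (w1 / a) := by
      rw [← mul_div_assoc, le_div_iff₀ ha]; exact hHa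
    have hwa : 0 < w1 / a := div_pos h1.w10 ha
    have h7 : Real.log H ≤ Real.log (13 * W) + Real.log (w1 / a) := by
      rw [← Real.log_mul (by positivity) hwa.ne']
      exact Real.log_le_log hH0 hHb
    have h8 : Real.log (13 * W) ≤ 13 * W := (Real.log_le_sub_one_of_pos (by positivity)).trans
      (by linarith)
    have h9 := h1.lg
    have h10 : 1 + Real.log H ≤ 15 * W := by linarith
    refine h10.trans ?_
    have : 15 * W ^ 1 ≤ (2 * W) ^ ((4 + 1 : ℕ) : ℝ) := pw_cX 4 1 hW (by norm_num) (by norm_num)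
    rw [pow_one] at this
    refine this.trans (Real.rpow_le_rpow_of_exponent_le h2W (by norm_num))
  intro c f s p0 v0 hs
  refine (key L P cu cv Uf Vf W M a w1 w2 z0 ρ zL ρL r W h.two le_rfl H (by omega)
    (by
      intro t ht
      have h3 := h.lo t ht
      change Y ≤ kapP (Uf (cu t)) z0 ρ (L t) at h3
      have h4 : (H : ℝ) * a ≤ kapP (Uf (cu t)) z0 ρ (L t) := hHY.trans h3
      have h5 : 0 < kapP (Uf (cu t)) z0 ρ (L t) := (mul_pos hH0 ha).trans_le h4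
      have h6 : kapP (Uf (cu t)) z0 ρ (L t) ≤ W * kapP (Uf (cu t)) z0 ρ (L t) :=
        le_mul_of_one_le_left h5.le hW
      linarith)
    (by
      intro t ht
      refine (h.ty t ht).det ?_
      exact (mul_le_mul_of_nonneg_right hW1k ha.le).trans (h.ty t ht).big)
    (by
      intro t ht
      refine (mul_le_mul_of_nonneg_right ?_ ha.le).trans (h.ty t ht).big
      exact Real.rpow_le_rpow_of_exponent_le h2W (by linarith))
    c f s p0 v0 hs).trans ?_
  have hsp : ∀ i, 0 < s i := fun i => lt_of_lt_of_le (by positivity) (hs i).1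
  have := hsp 0
  have := hsp 1
  have e6 : (2 * W) ^ (k + 6) = (2 * W) ^ k * (2 * W) ^ (6 : ℝ) := Real.rpow_add (by linarith) _ _
  rw [e6]
  gcongr

end Crest.Agent.R136.Plx571
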