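import Crest.Agent.R136.Nd2_565

/-!
# R136, branch (A), POP: the midpoint maps (helper818)

`Q s u = Q s 0 + <G0 + s G1, u> + <u, H u>` quadratic, `gd` its gradient in `u`.  For a small vector
`ω` the map `phi ω s u = u + D`, `D = ω × gd s (u + D / 2)` (implicit midpoint rule) is affine in
`(s, u)`, preserves `Q s` exactly, its inverse is `phi (-ω)`, and it maps lines to lines.

* `Am H ω g` : the solution `D` of `D = ω × (g + H D)`; linear in `g`;
* `Am_eq`, `Am_unique`, `Am_bd`, `Am_diff` (expansion in `ω`);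
* `phi_Q`, `phi_inv`, `phi_line`.
-/

set_option autoImplicit false
set_option linter.unusedVariables false

namespace Crest.Agent.R136.Pop818

open Finset Sh605 Nd565

/-- vector product -/
def cr (a b : V3) : V3 := ![a 1 * b 2 - a 2 * b 1, a 2 * b 0 - a 0 * b 2, a 0 * b 1 - a 1 * b 0]

@[simp] theorem cr0 (a b : V3) : cr a b 0 = a 1 * b 2 - a 2 * b 1 := rfl
@[simp] theorem cr1 (a b : V3) : cr a b 1 = a 2 * b 0 - a 0 * b 2 := rfl
@[simp] theorem cr2 (a b : V3) : cr a b 2 = a 0 * b 1 - a 1 * b 0 := rfl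

theorem dt_cr_self (a b : V3) : dt b (cr a b) = 0 := by
  simp only [dt, cr0, cr1, cr2]; ring

theorem dt_cr_left (a b : V3) : dt a (cr a b) = 0 := by
  simp only [dt, cr0, cr1, cr2]; ring

theorem cr_add (a b c : V3) : cr a (b + c) = cr a b + cr a c := by
  funext i; fin_cases i <;> simp <;> ring

theorem cr_sub (a b c : V3) : cr a (b - c) = cr a b - cr a c := by
  funext i; fin_cases i <;> simp <;> ring

theorem add_cr (a b c : V3) : cr (a + b) c = cr a c + cr b c := by
  funext i; fin_cases i <;> simp <;> ring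

theorem sub_cr (a b c : V3) : cr (a - b) c = cr a c - cr b c := by
  funext i; fin_cases i <;> simp <;> ring

theorem cr_smul (a b : V3) (t : ℝ) : cr a (t • b) = t • cr a b := by
  funext i; fin_cases i <;> simp <;> ring

theorem neg_cr (a b : V3) : cr (-a) b = -cr a b := by
  funext i; fin_cases i <;> simp <;> ring

theorem cr_neg (a b : V3) : cr a (-b) = -cr a b := by
  funext i; fin_cases i <;> simp <;> ring

/-- `H u` -/
def mv (H : Fin 3 → Fin 3 → ℝ) (u : V3) : V3 := fun i => H i 0 * u 0 + H i 1 * u 1 + H i 2 * u 2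

theorem mv_add (H : Fin 3 → Fin 3 → ℝ) (u v : V3) : mv H (u + v) = mv H u + mv H v := by
  funext i; simp only [mv, Pi.add_apply]; ring

theorem mv_sub (H : Fin 3 → Fin 3 → ℝ) (u v : V3) : mv H (u - v) = mv H u - mv H v := by
  funext i; simp only [mv, Pi.sub_apply]; ring

theorem mv_smul (H : Fin 3 → Fin 3 → ℝ) (u : V3) (t : ℝ) : mv H (t • u) = t • mv H u := by
  funext i; simp only [mv, Pi.smul_apply, smul_eq_mul]; ring

theorem mv_neg (H : Fin 3 → Fin 3 → ℝ) (u : V3) : mv H (-u) = -mv H u := by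
  funext i; simp only [mv, Pi.neg_apply]; ring

theorem bl_mv {H : Fin 3 → Fin 3 → ℝ} (u v : V3) : bl H u v = dt u (mv H v) := by
  simp only [bl, dt, mv, Fin.sum_univ_three]; ring

/-- all coordinates at most `M` -/
def Bd (u : V3) (M : ℝ) : Prop := ∀ i, |u i| ≤ M

theorem Bd.nonneg {u : V3} {M : ℝ} (h : Bd u M) : 0 ≤ M := (abs_nonneg _).trans (h 0)

theorem Bd.mono {u : V3} {M M' : ℝ} (h : Bd u M) (hM : M ≤ M') : Bd u M' := fun i => (h i).trans hM

theorem Bd.add {u v : V3} {M M' : ℝ} (h : Bd u M) (h' : Bd v M') : Bd (u + v) (M + M') :=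
  fun i => (abs_add_le _ _).trans (add_le_add (h i) (h' i))

theorem Bd.neg {u : V3} {M : ℝ} (h : Bd u M) : Bd (-u) M := fun i => by
  rw [Pi.neg_apply, abs_neg]; exact h i

theorem Bd.sub {u v : V3} {M M' : ℝ} (h : Bd u M) (h' : Bd v M') : Bd (u - v) (M + M') := by
  rw [sub_eq_add_neg]; exact h.add h'.neg

theorem Bd.smul {u : V3} {M : ℝ} (h : Bd u M) (t : ℝ) : Bd (t • u) (|t| * M) := fun i => by
  rw [Pi.smul_apply, smul_eq_mul, abs_mul]; exact mul_le_mul_of_nonneg_left (h i) (abs_nonneg _)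

theorem Bd.cr {a b : V3} {M M' : ℝ} (h : Bd a M) (h' : Bd b M') : Bd (cr a b) (2 * M * M') := by
  have key : ∀ i j k l, |a i * b j - a k * b l| ≤ 2 * M * M' := by
    intro i j k l
    have h1 : |a i * b j| ≤ M * M' := by
      rw [abs_mul]; exact mul_le_mul (h i) (h' j) (abs_nonneg _) h.nonneg
    have h2 : |a k * b l| ≤ M * M' := by
      rw [abs_mul]; exact mul_le_mul (h k) (h' l) (abs_nonneg _) h.nonneg
    have := abs_sub (a i * b j) (a k * b l)
    linarith
  intro i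
  fin_cases i
  · exact key 1 2 2 1
  · exact key 2 0 0 2
  · exact key 0 1 1 0

theorem Bd.mv {H : Fin 3 → Fin 3 → ℝ} {B : ℝ} (hH : ∀ i j, |H i j| ≤ B) {u : V3} {M : ℝ}
    (h : Bd u M) : Bd (mv H u) (3 * B * M) := by
  have hB : 0 ≤ B := (abs_nonneg _).trans (hH 0 0)
  intro i
  have k : ∀ j, |H i j * u j| ≤ B * M := fun j => by
    rw [abs_mul]; exact mul_le_mul (hH i j) (h j) (abs_nonneg _) hB
  show |H i 0 * u 0 + H i 1 * u 1 + H i 2 * u 2| ≤ _
  have h1 := abs_add_le (H i 0 * u 0 + H i 1 * u 1) (H i 2 * u 2)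
  have h2 := abs_add_le (H i 0 * u 0) (H i 1 * u 1)
  have := k 0
  have := k 1
  have := k 2
  linarith

theorem Bd_zero {u : V3} {M κ : ℝ} (h : ∀ M', Bd u M' → Bd u (κ * M')) (hκ : 0 ≤ κ) (hκ1 : κ < 1)
    (h0 : Bd u M) : u = 0 := by
  have h1 : ∀ n : ℕ, Bd u (κ ^ n * M) := by
    intro n
    induction n with
    | zero => simpa using h0
    | succ n ih =>
        have := h _ ih
        rwa [← mul_assoc, ← pow_succ'] at this
  funext i
  have h2 : Filter.Tendsto (fun n : ℕ => κ ^ n * M) Filter.atTop (nhds (0 * M)) :=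
    (tendsto_pow_atTop_nhds_zero_of_lt_one hκ hκ1).mul_const M
  rw [zero_mul] at h2
  have h3 : |u i| ≤ 0 := ge_of_tendsto h2 (Filter.Eventually.of_forall fun n => h1 n i)
  exact abs_nonpos_iff.1 h3

theorem exists_bd (u : V3) : ∃ M, Bd u M := by
  refine ⟨|u 0| + |u 1| + |u 2|, fun i => ?_⟩
  have := abs_nonneg (u 0)
  have := abs_nonneg (u 1)
  have := abs_nonneg (u 2)
  fin_cases i <;> simp <;> linarith

/-- smallness of `ω` relative to `H` -/
structure Sm (H : Fin 3 → Fin 3 → ℝ) (ω : V3) (B ε : ℝ) : Prop where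
  hH : ∀ i j, |H i j| ≤ B
  hω : Bd ω ε
  small : 12 * B * ε ≤ 1

variable {H : Fin 3 → Fin 3 → ℝ} {ω : V3} {B ε : ℝ}

theorem Sm.B0 (h : Sm H ω B ε) : 0 ≤ B := (abs_nonneg _).trans (h.hH 0 0)

theorem Sm.ε0 (h : Sm H ω B ε) : 0 ≤ ε := h.hω.nonneg

theorem Sm.neg (h : Sm H ω B ε) : Sm H (-ω) B ε := ⟨h.hH, h.hω.neg, h.small⟩

/-- the linear map `D ↦ D - ω × (H D)` -/
def Nm (H : Fin 3 → Fin 3 → ℝ) (ω : V3) : V3 →ₗ[ℝ] V3 where
  toFun := fun D => D - cr ω (mv H D)
  map_add' := by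
    intro x y
    rw [mv_add, cr_add]; abel
  map_smul' := by
    intro t x
    rw [mv_smul, cr_smul, RingHom.id_apply, smul_sub]

theorem Nm_apply (D : V3) : Nm H ω D = D - cr ω (mv H D) := rfl

theorem Sm.crmv (h : Sm H ω B ε) {D : V3} {M : ℝ} (hD : Bd D M) :
    Bd (cr ω (mv H D)) (1 / 2 * M) := by
  have h1 := h.hω.cr (hD.mv h.hH)
  refine h1.mono ?_
  have h2 := h.small
  have h3 := hD.nonneg
  have : 2 * ε * (3 * B * M) = 6 * B * ε * M := by ring
  rw [this]
  nlinarith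

theorem Sm.inj (h : Sm H ω B ε) : Function.Injective (Nm H ω) := by
  rw [injective_iff_map_eq_zero]
  intro D hD
  rw [Nm_apply, sub_eq_zero] at hD
  obtain ⟨M, hM⟩ := exists_bd D
  refine Bd_zero (κ := 1 / 2) (fun M' hM' => ?_) (by norm_num) (by norm_num) hM
  rw [hD]; exact h.crmv hM'

open Classical in
/-- the solution `D` of `D = ω × (g + H D)` -/
noncomputable def Am (H : Fin 3 → Fin 3 → ℝ) (ω : V3) (g : V3) : V3 :=
  if h : Function.Injective (Nm H ω) then
    (LinearEquiv.ofInjectiveEndo (Nm H ω) h).symm (cr ω g) else 0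

theorem Am_eq (h : Sm H ω B ε) (g : V3) : Am H ω g = cr ω (g + mv H (Am H ω g)) := by
  have h1 : Nm H ω (Am H ω g) = cr ω g := by
    unfold Am
    rw [dif_pos h.inj]
    exact LinearEquiv.apply_symm_apply (LinearEquiv.ofInjectiveEndo (Nm H ω) h.inj) (cr ω g)
  rw [Nm_apply, sub_eq_iff_eq_add] at h1
  rw [cr_add]
  exact h1

theorem Am_unique (h : Sm H ω B ε) {g D : V3} (hD : D = cr ω (g + mv H D)) : D = Am H ω g := by
  apply h.inj
  rw [Nm_apply, Nm_apply]
  have h1 : D - cr ω (mv H D) = cr ω g := by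
    rw [cr_add] at hD
    rw [sub_eq_iff_eq_add]; exact hD
  have h2 : Am H ω g - cr ω (mv H (Am H ω g)) = cr ω g := by
    have := Am_eq h g
    rw [cr_add] at this
    rw [sub_eq_iff_eq_add]; exact this
  rw [h1, h2]

theorem Am_add (h : Sm H ω B ε) (g g' : V3) : Am H ω (g + g') = Am H ω g + Am H ω g' := by
  symm
  apply Am_unique h
  conv_lhs => rw [Am_eq h g, Am_eq h g']
  rw [mv_add, ← cr_add]
  congr 1
  abel

theorem Am_smul (h : Sm H ω B ε) (g : V3) (t : ℝ) : Am H ω (t • g) = t • Am H ω g := by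
  symm
  apply Am_unique h
  conv_lhs => rw [Am_eq h g]
  rw [mv_smul, ← cr_smul, smul_add]

theorem Am_neg (h : Sm H ω B ε) (g : V3) : Am H ω (-g) = -Am H ω g := by
  have := Am_smul h g (-1)
  rwa [neg_one_smul, neg_one_smul] at this

/-- bound of `D` -/
theorem Am_bd (h : Sm H ω B ε) {g : V3} {M : ℝ} (hg : Bd g M) : Bd (Am H ω g) (4 * ε * M) := by
  -- `|D| ≤ 2 ε M + |D| / 2`
  have hε := h.ε0
  have hM := hg.nonneg
  have step : ∀ M', Bd (Am H ω g) M' → Bd (Am H ω g) (2 * ε * M + 1 / 2 * M') := by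
    intro M' hM'
    have h1 : Bd (cr ω g + cr ω (mv H (Am H ω g))) (2 * ε * M + 1 / 2 * M') :=
      (h.hω.cr hg).add (h.crmv hM')
    rw [← cr_add, ← Am_eq h g] at h1
    exact h1
  obtain ⟨M0, hM0⟩ := exists_bd (Am H ω g)
  have h1 : ∀ n : ℕ, Bd (Am H ω g) (4 * ε * M + (1 / 2) ^ n * M0) := by
    intro n
    induction n with
    | zero =>
        refine hM0.mono ?_
        have : 0 ≤ 4 * ε * M := by positivity
        simp only [pow_zero, one_mul]; linarith
    | succ n ih =>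
        refine (step _ ih).mono ?_
        rw [pow_succ]
        nlinarith
  intro i
  have h2 : Filter.Tendsto (fun n : ℕ => 4 * ε * M + (1 / 2 : ℝ) ^ n * M0) Filter.atTop
      (nhds (4 * ε * M + 0 * M0)) :=
    ((tendsto_pow_atTop_nhds_zero_of_lt_one (by norm_num) (by norm_num)).mul_const M0).const_add _
  rw [zero_mul, add_zero] at h2
  exact ge_of_tendsto h2 (Filter.Eventually.of_forall fun n => h1 n i)

/-- first order expansion of `D` -/
theorem Am_exp (h : Sm H ω B ε) {g : V3} {M : ℝ} (hg : Bd g M) :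
    Bd (Am H ω g - cr ω g) (24 * B * ε ^ 2 * M) := by
  have h1 : Am H ω g - cr ω g = cr ω (mv H (Am H ω g)) := by
    have := Am_eq h g
    rw [cr_add] at this
    rw [sub_eq_iff_eq_add']; exact this
  rw [h1]
  have h2 := h.hω.cr ((Am_bd h hg).mv h.hH)
  refine h2.mono (le_of_eq ?_)
  ring

/-- expansion of the difference for two parameters -/
theorem Am_diff {ω' : V3} {η : ℝ} (h : Sm H ω B ε) (h' : Sm H ω' B ε) (hd : Bd (ω - ω') η) {g : V3}
    {M : ℝ} (hg : Bd g M) :
    Bd (Am H ω g - Am H ω' g) (8 * η * M) ∧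
      Bd (Am H ω g - Am H ω' g - cr (ω - ω') g) (72 * B * ε * η * M) := by
  have hε := h.ε0
  have hM := hg.nonneg
  have hη := hd.nonneg
  have hB := h.B0
  set D := Am H ω g with hD
  set D' := Am H ω' g with hD'
  have e1 : D - D' = cr (ω - ω') (g + mv H D) + cr ω' (mv H (D - D')) := by
    have h1 := Am_eq h g
    have h2 := Am_eq h' g
    rw [← hD] at h1
    rw [← hD'] at h2
    rw [sub_cr, mv_sub, cr_sub]
    conv_lhs => rw [h1, h2]
    rw [cr_add, cr_add, cr_add]
    abel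
  have bD : Bd (mv H D) (M) := by
    refine ((Am_bd h hg).mv h.hH).mono ?_
    have := h.small
    have e : 3 * B * (4 * ε * M) = 12 * B * ε * M := by ring
    rw [e]; nlinarith
  have b1 : Bd (cr (ω - ω') (g + mv H D)) (4 * η * M) := by
    refine (hd.cr (hg.add bD)).mono (le_of_eq ?_); ring
  have step : ∀ M', Bd (D - D') M' → Bd (D - D') (4 * η * M + 1 / 2 * M') := by
    intro M' hM'
    rw [e1]
    rw [e1] at hM'
    have := b1.add (h'.crmv hM')
    rw [← e1] at this
    exact this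
  -- bound `8 η M` at first
  obtain ⟨M0, hM0⟩ := exists_bd (D - D')
  have h1 : ∀ n : ℕ, Bd (D - D') (8 * η * M + (1 / 2) ^ n * M0) := by
    intro n
    induction n with
    | zero =>
        refine hM0.mono ?_
        have : 0 ≤ 8 * η * M := by positivity
        simp only [pow_zero, one_mul]; linarith
    | succ n ih =>
        refine (step _ ih).mono ?_
        rw [pow_succ]
        nlinarith
  have b8 : Bd (D - D') (8 * η * M) := by
    intro i
    have h2 : Filter.Tendsto (fun n : ℕ => 8 * η * M + (1 / 2 : ℝ) ^ n * M0) Filter.atTop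
        (nhds (8 * η * M + 0 * M0)) :=
      ((tendsto_pow_atTop_nhds_zero_of_lt_one (by norm_num) (by norm_num)).mul_const
        M0).const_add _
    rw [zero_mul, add_zero] at h2
    exact ge_of_tendsto h2 (Filter.Eventually.of_forall fun n => h1 n i)
  -- second order
  have e2 : D - D' - cr (ω - ω') g = cr (ω - ω') (mv H D) + cr ω' (mv H (D - D')) := by
    have h3 : D - D' = cr (ω - ω') g + cr (ω - ω') (mv H D) + cr ω' (mv H (D - D')) := by
      rw [← cr_add]; exact e1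
    rw [sub_eq_iff_eq_add]
    conv_lhs => rw [h3]
    abel
  refine ⟨b8, ?_⟩
  rw [e2]
  have c1 := hd.cr ((Am_bd h hg).mv h.hH)
  have c2 := h'.hω.cr (b8.mv h.hH)
  refine (c1.add c2).mono (le_of_eq ?_)
  ring

/-! ### the maps -/

/-- the quadratic function in normalised coordinates -/
structure NQ (Q : ℝ → V3 → ℝ) (G0 G1 : V3) (H : Fin 3 → Fin 3 → ℝ) : Prop where
  symm : ∀ i j, H i j = H j i
  exp : ∀ s u, Q s u = Q s 0 + dt (gr G0 G1 s) u + bl H u u

/-- the gradient in `u` -/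
def gd (G0 G1 : V3) (H : Fin 3 → Fin 3 → ℝ) (s : ℝ) (u : V3) : V3 :=
  gr G0 G1 s + (2:ℝ) • mv H u

/-- **the midpoint map** -/
noncomputable def phi (G0 G1 : V3) (H : Fin 3 → Fin 3 → ℝ) (ω : V3) (s : ℝ) (u : V3) : V3 :=
  u + Am H ω (gd G0 G1 H s u)

variable {Q : ℝ → V3 → ℝ} {G0 G1 : V3}

theorem NQ.diff (hQ : NQ Q G0 G1 H) (s : ℝ) (u D : V3) :
    Q s (u + D) - Q s u = dt (gd G0 G1 H s u + mv H D) D := by
  rw [hQ.exp s (u + D), hQ.exp s u]
  have h01 := hQ.symm 0 1
  have h02 := hQ.symm 0 2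
  have h12 := hQ.symm 1 2
  simp only [dt, bl, gd, gr, mv, Fin.sum_univ_three, Pi.add_apply, Pi.smul_apply, smul_eq_mul]
  rw [h01, h02, h12]
  ring

/-- the midpoint map preserves `Q` -/
theorem phi_Q (hQ : NQ Q G0 G1 H) (h : Sm H ω B ε) (s : ℝ) (u : V3) :
    Q s (phi G0 G1 H ω s u) = Q s u := by
  have h1 := hQ.diff s u (Am H ω (gd G0 G1 H s u))
  have h2 := Am_eq h (gd G0 G1 H s u)
  have h3 : dt (gd G0 G1 H s u + mv H (Am H ω (gd G0 G1 H s u))) (Am H ω (gd G0 G1 H s u)) = 0 := by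
    generalize hX : gd G0 G1 H s u + mv H (Am H ω (gd G0 G1 H s u)) = X at h2 ⊢
    rw [h2]
    exact dt_cr_self _ _
  rw [h3, sub_eq_zero] at h1
  exact h1

/-- the inverse of the midpoint map -/
theorem phi_inv (h : Sm H ω B ε) (s : ℝ) (u : V3) :
    phi G0 G1 H (-ω) s (phi G0 G1 H ω s u) = u := by
  set D := Am H ω (gd G0 G1 H s u) with hD
  have h2 : D = cr ω (gd G0 G1 H s u + mv H D) := Am_eq h _
  have e1 : phi G0 G1 H ω s u = u + D := rfl
  rw [e1]
  have h3 : -D = Am H (-ω) (gd G0 G1 H s (u + D)) := by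
    apply Am_unique h.neg
    have e3 : gd G0 G1 H s (u + D) + mv H (-D) = gd G0 G1 H s u + mv H D := by
      simp only [gd]
      rw [mv_add, mv_neg]
      funext i
      simp only [Pi.add_apply, Pi.smul_apply, Pi.neg_apply, smul_eq_mul]
      ring
    rw [e3, neg_cr, ← h2]
  show u + D + Am H (-ω) (gd G0 G1 H s (u + D)) = u
  rw [← h3]
  abel

theorem phi_inv' (h : Sm H ω B ε) (s : ℝ) (u : V3) :
    phi G0 G1 H ω s (phi G0 G1 H (-ω) s u) = u := by
  have := phi_inv (G0 := G0) (G1 := G1) h.neg s u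
  rwa [neg_neg] at this

/-- the image of the line `s ↦ p + s v` -/
noncomputable def phiP (G0 : V3) (H : Fin 3 → Fin 3 → ℝ) (ω p : V3) : V3 :=
  p + Am H ω (G0 + (2:ℝ) • mv H p)

/-- **lines go to lines** (the same formula for position and velocity) -/
theorem phi_line (h : Sm H ω B ε) (s : ℝ) (p v : V3) :
    phi G0 G1 H ω s (p + s • v) = phiP G0 H ω p + s • phiP G1 H ω v := by
  have e : gd G0 G1 H s (p + s • v) = (G0 + (2:ℝ) • mv H p) + s • (G1 + (2:ℝ) • mv H v) := by
    simp only [gd]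
    rw [mv_add, mv_smul]
    funext i
    simp only [gr, Pi.add_apply, Pi.smul_apply, smul_eq_mul]
    ring
  unfold phi phiP
  rw [e, Am_add h, Am_smul h, smul_add]
  abel

/-- the displacement of a point -/
theorem phi_bd (h : Sm H ω B ε) {s : ℝ} {u : V3} {M : ℝ} (hg : Bd (gd G0 G1 H s u) M) :
    Bd (phi G0 G1 H ω s u - u) (4 * ε * M) := by
  have e : phi G0 G1 H ω s u - u = Am H ω (gd G0 G1 H s u) := by unfold phi; abel
  rw [e]; exact Am_bd h hg

/-- **expansion of the displacement**: first order `ω × grad` -/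
theorem phi_exp (h : Sm H ω B ε) {s : ℝ} {u : V3} {M : ℝ} (hg : Bd (gd G0 G1 H s u) M) :
    Bd (phi G0 G1 H ω s u - u - cr ω (gd G0 G1 H s u)) (24 * B * ε ^ 2 * M) := by
  have e : phi G0 G1 H ω s u - u - cr ω (gd G0 G1 H s u) =
      Am H ω (gd G0 G1 H s u) - cr ω (gd G0 G1 H s u) := by unfold phi; abel
  rw [e]; exact Am_exp h hg

/-- **difference of two maps** -/
theorem phi_diff {ω' : V3} {η : ℝ} (h : Sm H ω B ε) (h' : Sm H ω' B ε) (hd : Bd (ω - ω') η)
    {s : ℝ} {u : V3} {M : ℝ} (hg : Bd (gd G0 G1 H s u) M) :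
    Bd (phi G0 G1 H ω s u - phi G0 G1 H ω' s u) (8 * η * M) ∧
      Bd (phi G0 G1 H ω s u - phi G0 G1 H ω' s u - cr (ω - ω') (gd G0 G1 H s u))
        (72 * B * ε * η * M) := by
  have e : phi G0 G1 H ω s u - phi G0 G1 H ω' s u =
      Am H ω (gd G0 G1 H s u) - Am H ω' (gd G0 G1 H s u) := by unfold phi; abel
  rw [e]; exact Am_diff h h' hd hg

/-- the gradient of another quadratic function along the map: `Q'` changes by at most
`(sup of its gradient) * displacement` -/
theorem NQ.diff_le {Q' : ℝ → V3 → ℝ} {G0' G1' : V3} {H' : Fin 3 → Fin 3 → ℝ}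
    (hQ : NQ Q' G0' G1' H') {s : ℝ} {u D : V3} {N N' η : ℝ} (hg : Bd (gd G0' G1' H' s u) N)
    (hH : Bd (mv H' D) N') (hD : Bd D η) : |Q' s (u + D) - Q' s u| ≤ 3 * (N + N') * η := by
  rw [hQ.diff s u D]
  have h1 := hg.add hH
  have hη := hD.nonneg
  have k : ∀ i, |(gd G0' G1' H' s u + mv H' D) i * D i| ≤ (N + N') * η := fun i => by
    rw [abs_mul]; exact mul_le_mul (h1 i) (hD i) (abs_nonneg _) h1.nonneg
  unfold dt
  refine (abs_add_le _ _).trans ?_
  have h2 := abs_add_le ((gd G0' G1' H' s u + mv H' D) 0 * D 0)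
    ((gd G0' G1' H' s u + mv H' D) 1 * D 1)
  have := k 0
  have := k 1
  have := k 2
  linarith

end Crest.Agent.R136.Pop818
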