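import Crest.Agent.R136.PqG_464
import Crest.Agent.R136.ArgA1_163

/-!
# R136: chart-free half of the wrappers J2 → `PreQ`, part 2 (helper464)

* `gH_of`, `gH_mono` : size of the marked classes (field `gH` of `PreQ`), normalisation
  `N0 n = A n * V n * d^(-(1-s))`; `gH_mono` for monomial sizes `vm = monoW`.
* `lin_pos`, `lin_lip` : affine record / own paths (fields `rpos`, `rlip`).
* `leg_lin` : legality of an affine path from its end points.
-/

set_option autoImplicit false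
set_option linter.unusedVariables false

open Finset Filter Topology

namespace Crest.Agent.R136.PqG464

open Crest.Agent.R138
open Crest.Agent.R138.Ex926 (Base U QProf)
open Crest.Agent.R138.Mk163 (zc zl rho alive)
open Crest.Agent.R138.MkRef627 (lc kc)
open Crest.Agent.R136.MkA627
open Crest.Agent.R136.Net191
open Crest.Agent.R136.ArgA163 (monoW)

section gH

variable {σ κ : Type*} {B : Base} {I : ℕ → Finset (ℕ × ℝ)} {G : Geo σ κ} {lev : ℕ → ℚ → ℕ}
    {A : ℕ → ℝ} {g s : ℝ} {τ : κ → ℝ → ℝ} {f : ℕ → ℚ → ℕ → ℤ → ℕ} {b : ℕ → ℚ → ℕ → σ}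
    {vm : ℕ → ℚ → ℝ} {w : κ → ℕ → ℚ → ℝ} {m : ℕ}

/-- **the field `gH` of `PreQ`** from the exponent `W u` of `vm n u / V n`. -/
theorem gH_of (hM : MkA B I G lev A (fun v => g * v) (fun v => s * v) τ f b vm w)
    {V : ℕ → ℝ} (hV : ∀ᶠ n in (U : Filter ℕ), 0 < V n) (u : ℚ) (hu0 : 0 ≤ u) (hu1 : u ≤ 1)
    {W : ℝ} (hW : Tendsto (fun n => Real.log (vm n u / V n) / B.L n) U (𝓝 W)) :
    Tendsto (fun n => Real.log
      (ampA B A (fun v => g * v) n u * vm n u * B.d n ^ (-((1 - s) * (1 - u))) /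
        (A n * V n * B.d n ^ (-(1 - s)))) / B.L n) U (𝓝 ((g - (1 - s)) * u + W)) := by
  have h1 : Tendsto (fun n => (g - (1 - s)) * u + Real.log (vm n u / V n) / B.L n) U
      (𝓝 ((g - (1 - s)) * u + W)) := hW.const_add _
  refine h1.congr' ?_
  filter_upwards [hV, hM.vpos u hu0 hu1] with n hVn hvn
  have hA := hM.Apos n
  have hL := B.L_pos n
  have hd : ∀ a : ℝ, 0 < B.d n ^ a := fun a => Dp76.dpow_pos B n a
  have e1 : ampA B A (fun v => g * v) n u * vm n u * B.d n ^ (-((1 - s) * (1 - u))) /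
      (A n * V n * B.d n ^ (-(1 - s))) =
      (vm n u / V n) * B.d n ^ (-((g - (1 - s)) * u)) := by
    unfold ampA
    have e2 : B.d n ^ (-(g * (u : ℝ))) * B.d n ^ (-((1 - s) * (1 - (u : ℝ)))) =
        B.d n ^ (-((g - (1 - s)) * u)) * B.d n ^ (-(1 - s)) := by
      rw [← Dp76.dpow_add, ← Dp76.dpow_add]
      congr 1; ring
    rw [div_eq_iff (mul_pos (mul_pos hA hVn) (hd _)).ne']
    have e3 : vm n u / V n * B.d n ^ (-((g - (1 - s)) * u)) * (A n * V n * B.d n ^ (-(1 - s))) =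
        (vm n u / V n * V n) * A n *
          (B.d n ^ (-((g - (1 - s)) * u)) * B.d n ^ (-(1 - s))) := by ring
    rw [e3, ← e2, div_mul_cancel₀ _ hVn.ne']
    ring
  rw [e1, Real.log_mul (div_pos hvn hVn).ne' (hd _).ne', Real.log_rpow (B.pos n), add_div]
  have e4 : -((g - (1 - s)) * u) * Real.log (B.d n) / B.L n = (g - (1 - s)) * u := by
    have : Real.log (B.d n) = - B.L n := by unfold Base.L; ring
    rw [this]
    field_simp
  rw [e4, add_comm]

/-- exponent of a monomial size relative to level `0` -/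
theorem mono_ratio [Fintype κ] {θ : κ → ℝ}
    (h : MkA B I G lev A (fun v => g * v) (fun v => s * v) (fun j v => θ j * (1 - v)) f b vm w)
    {a : κ → ℝ} {a₀ : ℝ} (hvm : ∀ v : ℚ, 0 ≤ v → v ≤ 1 → ∀ᶠ n in (U : Filter ℕ),
      vm n v = monoW lev w a a₀ n v) (u : ℚ) (hu0 : 0 ≤ u) (hu1 : u ≤ 1) :
    Tendsto (fun n => Real.log (vm n u / vm n 0) / B.L n) U
      (𝓝 (-((∑ k, a k * (1 - θ k) + a₀) * u))) := by
  have hp := (ArgA163.prLin_mono (ι := Unit) (pr := fun _ n v => monoW lev w a a₀ n v) (j := ())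
    h (a := a) (a₀ := a₀) (fun _ _ => rfl)).2 u hu0 hu1
  refine (hp.neg).congr' ?_
  filter_upwards [hvm u hu0 hu1, hvm 0 le_rfl zero_le_one, h.vpos u hu0 hu1,
    h.vpos 0 le_rfl zero_le_one] with n h1 h2 h3 h4
  rw [h1] at h3
  rw [h2] at h4
  rw [h1, h2, Real.log_div h3.ne' h4.ne', Real.log_div h4.ne' h3.ne']
  ring

/-- **`gH` for monomial sizes**, `V n = vm n 0`. -/
theorem gH_mono [Fintype κ] {θ : κ → ℝ}
    (h : MkA B I G lev A (fun v => g * v) (fun v => s * v) (fun j v => θ j * (1 - v)) f b vm w)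
    {a : κ → ℝ} {a₀ : ℝ} (hvm : ∀ v : ℚ, 0 ≤ v → v ≤ 1 → ∀ᶠ n in (U : Filter ℕ),
      vm n v = monoW lev w a a₀ n v) (u : ℚ) (hu0 : 0 ≤ u) (hu1 : u ≤ 1) :
    Tendsto (fun n => Real.log
      (ampA B A (fun v => g * v) n u * vm n u * B.d n ^ (-((1 - s) * (1 - u))) /
        (A n * vm n 0 * B.d n ^ (-(1 - s)))) / B.L n) U
      (𝓝 ((g - (1 - s)) * u - (∑ k, a k * (1 - θ k) + a₀) * u)) := by
  rw [sub_eq_add_neg]
  exact gH_of h (V := fun n => vm n 0) (h.vpos 0 le_rfl zero_le_one) u hu0 hu1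
    (mono_ratio h hvm u hu0 hu1)

theorem N0_pos (hM : MkA B I G lev A (fun v => g * v) (fun v => s * v) τ f b vm w)
    {V : ℕ → ℝ} (hV : ∀ᶠ n in (U : Filter ℕ), 0 < V n) :
    ∀ᶠ n in (U : Filter ℕ), 0 < A n * V n * B.d n ^ (-(1 - s)) := by
  filter_upwards [hV] with n hn
  exact mul_pos (mul_pos (hM.Apos n) hn) (Dp76.dpow_pos B n _)

end gH

/-! ### affine paths -/

section lin

variable {m : ℕ}

/-- an affine path -/
def lin (a b : Fin m → ℝ) (v : ℝ) : Fin m → ℝ := fun k => a k + b k * v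

theorem lin_between {a b δ v : ℝ} (h0 : δ ≤ a) (h1 : δ ≤ a + b) (v0 : 0 ≤ v) (v1 : v ≤ 1) :
    δ ≤ a + b * v := by nlinarith

theorem lin_lip (a b : Fin m → ℝ) : ∃ C : ℝ, 0 ≤ C ∧ ∀ u v : ℝ, u ≤ v → ∀ k,
    |lin a b v k - lin a b u k| ≤ C * (v - u) := by
  refine ⟨∑ k, |b k|, Finset.sum_nonneg fun _ _ => abs_nonneg _, fun u v huv k => ?_⟩
  have e : lin a b v k - lin a b u k = b k * (v - u) := by simp only [lin]; ring
  rw [e, abs_mul, abs_of_nonneg (sub_nonneg.2 huv)]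
  exact mul_le_mul_of_nonneg_right
    (Finset.single_le_sum (f := fun k => |b k|) (fun _ _ => abs_nonneg _) (mem_univ k))
    (sub_nonneg.2 huv)

/-- **an affine path with legal end points is legal** -/
theorem leg_lin {M : Mons m} {R : ℝ} {a b : Fin m → ℝ} (h0 : lin a b 0 ∈ Leg M R)
    (h1 : lin a b 1 ∈ Leg M R) {v : ℝ} (v0 : 0 ≤ v) (v1 : v ≤ 1) : lin a b v ∈ Leg M R := by
  have e : ∀ k, lin a b v k = (1 - v) * lin a b 0 k + v * lin a b 1 k := by
    intro k; simp only [lin]; ring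
  have hv : 0 ≤ 1 - v := sub_nonneg.2 v1
  refine ⟨⟨fun k => ?_, fun k e' he => ?_⟩, fun k => ?_⟩
  · rw [e]
    exact add_nonneg (mul_nonneg hv (h0.1.nonneg k)) (mul_nonneg v0 (h1.1.nonneg k))
  · have a0 := mul_le_mul_of_nonneg_left (h0.1.wall k e' he) hv
    have a1 := mul_le_mul_of_nonneg_left (h1.1.wall k e' he) v0
    rw [e]
    have : ∑ s, (e' s : ℝ) * lin a b v s = (1 - v) * ∑ s, (e' s : ℝ) * lin a b 0 s +
        v * ∑ s, (e' s : ℝ) * lin a b 1 s := by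
      rw [Finset.mul_sum, Finset.mul_sum, ← Finset.sum_add_distrib]
      refine Finset.sum_congr rfl fun s _ => ?_
      rw [e]; ring
    rw [this]
    exact add_le_add a0 a1
  · rw [e]
    have a0 := mul_le_mul_of_nonneg_left (h0.2 k) hv
    have a1 := mul_le_mul_of_nonneg_left (h1.2 k) v0
    linarith

/-- positivity of two affine paths -/
theorem lin_pos {a b a' b' : Fin m → ℝ} (h0 : ∀ k, 0 < a k) (h1 : ∀ k, 0 < a k + b k)
    (h0' : ∀ k, 0 < a' k) (h1' : ∀ k, 0 < a' k + b' k) :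
    ∃ δ : ℝ, 0 < δ ∧ ∀ v : ℝ, 0 ≤ v → v ≤ 1 → ∀ k, δ ≤ lin a b v k ∧ δ ≤ lin a' b' v k := by
  have key : ∀ F : Fin m → ℝ, (∀ k, 0 < F k) → ∃ δ : ℝ, 0 < δ ∧ ∀ k, δ ≤ F k := by
    intro F hF
    rcases isEmpty_or_nonempty (Fin m) with h | h
    · exact ⟨1, one_pos, fun k => (h.false k).elim⟩
    · exact ⟨Finset.univ.inf' univ_nonempty F, (Finset.lt_inf'_iff _).2 fun k _ => hF k,
        fun k => Finset.inf'_le _ (mem_univ k)⟩
  obtain ⟨d0, p0, q0⟩ := key a h0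
  obtain ⟨d1, p1, q1⟩ := key (fun k => a k + b k) h1
  obtain ⟨d2, p2, q2⟩ := key a' h0'
  obtain ⟨d3, p3, q3⟩ := key (fun k => a' k + b' k) h1'
  refine ⟨min (min d0 d1) (min d2 d3), lt_min (lt_min p0 p1) (lt_min p2 p3),
    fun v v0 v1 k => ⟨?_, ?_⟩⟩
  · exact lin_between ((min_le_left _ _).trans ((min_le_left _ _).trans (q0 k)))
      ((min_le_left _ _).trans ((min_le_right _ _).trans (q1 k))) v0 v1
  · exact lin_between ((min_le_right _ _).trans ((min_le_left _ _).trans (q2 k)))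
      ((min_le_right _ _).trans ((min_le_right _ _).trans (q3 k))) v0 v1

end lin

end Crest.Agent.R136.PqG464
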