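import Crest.Agent.R136.NetW4_191
import Crest.Agent.R136.PqG2_464

/-!
# R136, wrapper `J2 → PreQ` for the W-chart (helper464), part 1: exponents

W-chart of 191: coordinates `z, c, A, B`, then the coefficients of
`Y², BY, AY, B², zY, AB, A², zB, zA, z², B, A, z, 1`.

* `grW ζ χ ν` : the exponents of the natural box with `z ~ ζ`, `c ~ χ`, height `~ ν`
  (`A = ζ + χ`, `B = ζ + 2 χ`, `Y = 2 ζ + 2 χ`, coefficient of `m` = `ν - weight m`): all walls are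
  equalities.
* `pathW` record path, `btW` its slopes, `ownW` own path, `DW` density exponent of a box.
-/

set_option autoImplicit false
set_option linter.unusedVariables false

open Finset

namespace Crest.Agent.R136.PrW464

open Crest.Agent.R136.Net191
open Crest.Agent.R136.NetW191

/-- `ζ`-weights -/
def wz : Fin 18 → ℤ := ![1, 0, 1, 1, -4, -3, -3, -2, -3, -2, -2, -2, -2, -2, -1, -1, -1, 0]
/-- `χ`-weights -/
def wc : Fin 18 → ℤ := ![0, 1, 1, 2, -4, -4, -3, -4, -2, -3, -2, -2, -1, 0, -2, -1, 0, 0]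
/-- `ν`-weights -/
def wn : Fin 18 → ℤ := ![0, 0, 0, 0, 1, 1, 1, 1, 1, 1, 1, 1, 1, 1, 1, 1, 1, 1]

/-- exponents of the natural box -/
def grW (ζ χ ν : ℝ) (k : Fin 18) : ℝ := (wz k : ℝ) * ζ + (wc k : ℝ) * χ + (wn k : ℝ) * ν

theorem wz_list : ∀ k, ∀ l ∈ mlW k, (l.map wz).sum = wz k := by decide
theorem wc_list : ∀ k, ∀ l ∈ mlW k, (l.map wc).sum = wc k := by decide
theorem wn_list : ∀ k, ∀ l ∈ mlW k, (l.map wn).sum = wn k := by decide

theorem list_sum_real {m : ℕ} (l : List (Fin m)) (a : Fin m → ℤ) :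
    (l.map fun k => ((a k : ℤ) : ℝ)).sum = (((l.map a).sum : ℤ) : ℝ) := by
  induction l with
  | nil => simp
  | cons x l ih => simp only [List.map_cons, List.sum_cons, ih, Int.cast_add]

theorem grW_list (ζ χ ν : ℝ) (k : Fin 18) (l : List (Fin 18)) (hl : l ∈ mlW k) :
    (l.map (grW ζ χ ν)).sum = grW ζ χ ν k := by
  have key : ∀ l : List (Fin 18), (l.map (grW ζ χ ν)).sum =
      (((l.map wz).sum : ℤ) : ℝ) * ζ + (((l.map wc).sum : ℤ) : ℝ) * χ +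
        (((l.map wn).sum : ℤ) : ℝ) * ν := by
    intro l
    induction l with
    | nil => simp
    | cons x l ih =>
      simp only [List.map_cons, List.sum_cons, ih, Int.cast_add, grW]
      ring
  rw [key, wz_list k l hl, wc_list k l hl, wn_list k l hl]
  rfl

/-- the walls are equalities on natural boxes -/
theorem grW_legal {ζ χ ν : ℝ} (hζ : 0 ≤ ζ) (hχ : 0 ≤ χ) (hν : 4 * ζ + 4 * χ ≤ ν) :
    Legal monW (grW ζ χ ν) := by
  refine legal_ofLists.2 ⟨fun k => ?_, fun k l hl => (grW_list ζ χ ν k l hl).ge⟩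
  fin_cases k <;> simp [grW, wz, wc, wn] <;> linarith

/-- bounds of natural boxes -/
theorem grW_ge {ζ χ ν δ : ℝ} (hδ : 0 ≤ δ) (hζ : δ ≤ ζ) (hχ : δ ≤ χ) (hν : 4 * ζ + 4 * χ + δ ≤ ν)
    (k : Fin 18) : δ ≤ grW ζ χ ν k := by
  fin_cases k <;> simp [grW, wz, wc, wn] <;> linarith

theorem grW_le {ζ χ ν R : ℝ} (hζ : 0 ≤ ζ) (hχ : 0 ≤ χ) (hν : 4 * ζ + 4 * χ ≤ ν) (hR : ν ≤ R)
    (k : Fin 18) : grW ζ χ ν k ≤ R := by
  fin_cases k <;> simp [grW, wz, wc, wn] <;> linarith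

/-- differences of natural boxes -/
theorem grW_sub (ζ χ ν ζ' χ' ν' : ℝ) (k : Fin 18) :
    |grW ζ χ ν k - grW ζ' χ' ν' k| ≤ 4 * |ζ - ζ'| + 4 * |χ - χ'| + |ν - ν'| := by
  have e : grW ζ χ ν k - grW ζ' χ' ν' k =
      (wz k : ℝ) * (ζ - ζ') + (wc k : ℝ) * (χ - χ') + (wn k : ℝ) * (ν - ν') := by
    simp only [grW]; ring
  have h1 : ∀ k, |wz k| ≤ 4 := by decide
  have h2 : ∀ k, |wc k| ≤ 4 := by decide
  have h3 : ∀ k, |wn k| ≤ 1 := by decide
  have a1 : |(wz k : ℝ)| ≤ 4 := by exact_mod_cast h1 k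
  have a2 : |(wc k : ℝ)| ≤ 4 := by exact_mod_cast h2 k
  have a3 : |(wn k : ℝ)| ≤ 1 := by exact_mod_cast h3 k
  rw [e]
  have b1 := abs_add_le ((wz k : ℝ) * (ζ - ζ') + (wc k : ℝ) * (χ - χ')) ((wn k : ℝ) * (ν - ν'))
  have b2 := abs_add_le ((wz k : ℝ) * (ζ - ζ')) ((wc k : ℝ) * (χ - χ'))
  rw [abs_mul, abs_mul] at b2
  rw [abs_mul (wn k : ℝ)] at b1
  have c1 := mul_le_mul_of_nonneg_right a1 (abs_nonneg (ζ - ζ'))
  have c2 := mul_le_mul_of_nonneg_right a2 (abs_nonneg (χ - χ'))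
  have c3 := mul_le_mul_of_nonneg_right a3 (abs_nonneg (ν - ν'))
  linarith

/-! ### record path -/

/-- record path, in the units of the mark of level `0`, enlarged by graded powers `w0` -/
def pathW (θ : Fin 3 → ℝ) (w0 v : ℝ) : Fin 18 → ℝ :=
  grW (w0 + v) (w0 - θ 1 * v) (9 * w0 + (1 - θ 0) * v)

/-- graded weights -/
def wtR (k : Fin 18) : ℝ := grW 1 1 9 k

/-- rates of the slots -/
def btW (θ : Fin 3 → ℝ) (k : Fin 18) : ℝ := grW 1 (-θ 1) (1 - θ 0) k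

theorem pathW_eq (θ : Fin 3 → ℝ) (w0 v : ℝ) (k : Fin 18) :
    pathW θ w0 v k = wtR k * w0 + btW θ k * v := by
  simp only [pathW, wtR, btW, grW]; ring

theorem wtR_eq (k : Fin 18) : wtR k = ((PqG464.wtW k : ℕ) : ℝ) := by
  fin_cases k <;> simp [wtR, grW, wz, wc, wn, PqG464.wtW] <;> norm_num

open Classical in
/-- own path, `V k` = slot `k` is visible -/
noncomputable def ownW (θ : Fin 3 → ℝ) (w0 R : ℝ) (V : Fin 18 → Prop) (v : ℝ) : Fin 18 → ℝ :=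
  fun k => if k = 0 then w0 + v else if V k then pathW θ w0 v k else R

/-- exponent of the number of incidences in a box -/
def DW (g s : ℝ) (q : Fin 3 → ℝ) (w0 : ℝ) (p : Fin 18 → ℝ) : ℝ :=
  g * (p 0 - w0) + (1 - s) * (1 - (p 0 - w0)) -
    ((p 17 - 9 * w0) + (p 3 - 3 * w0) + (p 2 - 2 * w0)) -
    q 0 * (p 17 - p 0 - 8 * w0) - q 1 * (p 2 - p 0 - w0) - q 2 * (p 3 - p 0 - 2 * w0)

/-- `w0` and `R` are large -/
structure BigW (θ : Fin 3 → ℝ) (w0 R T : ℝ) : Prop where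
  T0 : 0 ≤ T
  th : ∀ k, |θ k| ≤ T
  w0T : 5 + 5 * T ≤ w0
  R0 : 9 * w0 + 2 + T ≤ R

theorem exists_bigW (θ : Fin 3 → ℝ) : ∃ T w0 R : ℝ, BigW θ w0 R T := by
  refine ⟨|θ 0| + |θ 1| + |θ 2|, _, _, ⟨by positivity, ?_, le_rfl, le_rfl⟩⟩
  intro k
  have h0 := abs_nonneg (θ 0)
  have h1 := abs_nonneg (θ 1)
  have h2 := abs_nonneg (θ 2)
  fin_cases k
  · show |θ 0| ≤ _; linarith
  · show |θ 1| ≤ _; linarith
  · show |θ 2| ≤ _; linarith

namespace BigW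

variable {θ : Fin 3 → ℝ} {w0 R T : ℝ}

theorem bd (h : BigW θ w0 R T) {v : ℝ} (h0 : 0 ≤ v) (h1 : v ≤ 1) (k : Fin 3) :
    -T ≤ θ k * v ∧ θ k * v ≤ T := by
  have a := abs_le.1 (h.th k)
  have b := h.T0
  constructor <;> nlinarith

theorem w0pos (h : BigW θ w0 R T) : 1 ≤ w0 := by
  have := h.T0
  have := h.w0T
  linarith

theorem wR (h : BigW θ w0 R T) : w0 + 1 ≤ R := by
  have := h.T0
  have := h.w0T
  have := h.R0
  linarith

theorem path_leg (h : BigW θ w0 R T) {v : ℝ} (h0 : 0 ≤ v) (h1 : v ≤ 1) :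
    pathW θ w0 v ∈ Leg monW R := by
  have a0 := h.bd h0 h1 0
  have a1 := h.bd h0 h1 1
  have b0 := h.T0
  have b1 := h.w0T
  have b2 := h.R0
  refine ⟨grW_legal (by linarith) (by linarith) (by linarith), fun k => ?_⟩
  exact grW_le (by linarith) (by linarith) (by linarith) (by linarith) k

theorem path_ge (h : BigW θ w0 R T) {v : ℝ} (h0 : 0 ≤ v) (h1 : v ≤ 1) (k : Fin 18) :
    1 ≤ pathW θ w0 v k := by
  have a0 := h.bd h0 h1 0
  have a1 := h.bd h0 h1 1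
  have b0 := h.T0
  have b1 := h.w0T
  exact grW_ge zero_le_one (by linarith) (by linarith) (by linarith) k

theorem path_pos (h : BigW θ w0 R T) (V : Fin 18 → Prop) : ∃ δ : ℝ, 0 < δ ∧
    ∀ v : ℝ, 0 ≤ v → v ≤ 1 → ∀ k, δ ≤ pathW θ w0 v k ∧ δ ≤ ownW θ w0 R V v k := by
  refine ⟨1, one_pos, fun v h0 h1 k => ⟨h.path_ge h0 h1 k, ?_⟩⟩
  unfold ownW
  split_ifs
  · have := h.w0pos; linarith
  · exact h.path_ge h0 h1 k
  · have := h.wR; have := h.w0pos; linarith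

theorem path_lip (h : BigW θ w0 R T) (V : Fin 18 → Prop) {E : ℝ → ℝ} {c : ℝ}
    (hE : ∀ u v : ℝ, E v - E u = c * (v - u)) :
    ∃ Cr : ℝ, ∀ u v : ℝ, 0 ≤ u → u ≤ v → v ≤ 1 →
    (∀ k, |pathW θ w0 v k - pathW θ w0 u k| ≤ Cr * (v - u) ∧
      |ownW θ w0 R V v k - ownW θ w0 R V u k| ≤ Cr * (v - u)) ∧
      |E v - E u| ≤ Cr * (v - u) := by
  refine ⟨5 + 5 * T + |c|, fun u v h0 huv h1 => ?_⟩
  have hc0 : 0 ≤ |c| := abs_nonneg _
  have b0 := h.T0
  have hd : 0 ≤ v - u := by linarith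
  have hp : ∀ k, |pathW θ w0 v k - pathW θ w0 u k| ≤ (5 + 5 * T + |c|) * (v - u) := by
    intro k
    refine (grW_sub _ _ _ _ _ _ k).trans ?_
    have e1 : w0 + v - (w0 + u) = v - u := by ring
    have e2 : w0 - θ 1 * v - (w0 - θ 1 * u) = -(θ 1) * (v - u) := by ring
    have e3 : 9 * w0 + (1 - θ 0) * v - (9 * w0 + (1 - θ 0) * u) = (1 - θ 0) * (v - u) := by ring
    rw [e1, e2, e3, abs_mul, abs_mul, abs_neg, abs_of_nonneg hd]
    have a1 := mul_le_mul_of_nonneg_right (h.th 1) hd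
    have a0 : |1 - θ 0| ≤ 1 + T := by
      have := abs_sub (1 : ℝ) (θ 0)
      rw [abs_one] at this
      linarith [h.th 0]
    have a0' := mul_le_mul_of_nonneg_right a0 hd
    have := mul_nonneg hc0 hd
    nlinarith
  refine ⟨fun k => ⟨hp k, ?_⟩, ?_⟩
  · unfold ownW
    split_ifs
    · have e1 : w0 + v - (w0 + u) = v - u := by ring
      rw [e1, abs_of_nonneg hd]
      have := mul_nonneg hc0 hd
      have := mul_nonneg b0 hd
      nlinarith
    · exact hp k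
    · rw [sub_self, abs_zero]
      positivity
  · rw [hE, abs_mul, abs_of_nonneg hd]
    exact mul_le_mul_of_nonneg_right (by linarith) hd

end BigW

theorem ownW_zero (θ : Fin 3 → ℝ) (w0 R : ℝ) (V : Fin 18 → Prop) (v : ℝ) :
    ownW θ w0 R V v 0 = w0 + v := by
  unfold ownW
  rw [if_pos rfl]

/-- the densities of the record path: the formula of `Wq638.EQ` if `θ 2 = 2 θ 1` -/
theorem DW_path (θ : Fin 3 → ℝ) (g s : ℝ) (q : Fin 3 → ℝ) (w0 v : ℝ) (h2 : θ 2 = 2 * θ 1) :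
    DW g s q w0 (pathW θ w0 v) = g * v + (1 - s) * (1 - v) - (3 - θ 0 - θ 1 - θ 2) * v +
      (q 0 * θ 0 + q 1 * θ 1 + q 2 * θ 2) * v := by
  have e0 : pathW θ w0 v 0 = w0 + v := by simp [pathW, grW, wz, wc, wn]
  have e2 : pathW θ w0 v 2 = 2 * w0 + (1 - θ 1) * v := by
    simp [pathW, grW, wz, wc, wn]; ring
  have e3 : pathW θ w0 v 3 = 3 * w0 + (1 - 2 * θ 1) * v := by
    simp [pathW, grW, wz, wc, wn]; ring
  have e17 : pathW θ w0 v 17 = 9 * w0 + (1 - θ 0) * v := by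
    simp [pathW, grW, wz, wc, wn]
  unfold DW
  rw [e0, e2, e3, e17, h2]
  ring

end Crest.Agent.R136.PrW464
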