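import Crest.Agent.R136.PrW5_464
import Crest.Agent.R136.NatW2_697

/-!
# R136, wrapper `J2 → PreQ` for the W-chart (helper464), part 6: `NatW697.ThinPre`

`thinPre_of` : `WSys` (final window of the thin branch in normal coordinates) + D-max in the chart
(778) ⊢ `ThinPre`.
-/

set_option autoImplicit false
set_option linter.unusedVariables false

open Finset Filter Topology

namespace Crest.Agent.R136.PrW464

open Crest.Agent.R138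
open Crest.Agent.R138.Ex926 (Base U QProf)
open Crest.Agent.R138.Dp76 (dpow_pos dpow_add dpow_le dpow_le_one)
open Crest.Agent.R138.Mk163 (zc zl rho alive own)
open Crest.Agent.R138.MkRef627 (lc kc)
open Crest.Agent.R136.MkA627
open Crest.Agent.R136.Net191
open Crest.Agent.R136.NetW191
open Crest.Agent.R136.Sh605
open Crest.Agent.R136.TD627
open Crest.Agent.R136.Top484
open Crest.Agent.R136.NatT550 (ParOk)
open Crest.Agent.R136.NatW697 (thW qW SlotOkW ThinPre)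
open Crest.Agent.R136.Wq638 (capQ EQ EQ_eq N0Q vm_eq gH_Q)

section

variable {σ : Type*} {G : Geo σ (Fin 3)} {g s : ℝ} {θ ϑ : Fin 3 → ℝ} {B0 B : Base}
    {I : ℕ → Finset (ℕ × ℝ)} {lev : ℕ → ℚ → ℕ} {A : ℕ → ℝ} {f : ℕ → ℚ → ℕ → ℤ → ℕ}
    {b : ℕ → ℚ → ℕ → σ} {vm : ℕ → ℚ → ℝ} {w : Fin 3 → ℕ → ℚ → ℝ}
    {kp sg hz zs : ℕ → ℝ} {hκ : ∀ n, |kp n| ≤ 1} {L : ℕ → ℕ → Ln4} {F : ℕ → ℕ × ℝ → FW}
    {fr : ℕ → ℚ → ℕ × ℝ → FW} {pr : Fin 18 → ℕ → ℚ → ℝ} {sc : Fin 18 → ℕ → ℝ}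
    {uz uc un : ℕ → ℝ} {w0 : ℝ} {C0 : Fin 18 → ℝ}

/-- slots in 697's form -/
theorem WSys.slotsW
    (h : WSys G g s θ ϑ B0 B I lev A f b vm w kp sg hz zs hκ L F fr pr sc uz uc un w0 C0) :
    SlotOkW ϑ (VW kp hκ B I F sc) (TW kp hκ ϑ B I lev F sc C0) where
  tied := h.slots.tied
  vis := by
    intro k hk
    obtain ⟨h0, h1, h2, h3, h13, h16, h17, hb⟩ := h.slots.vis k hk
    refine ⟨⟨?_, h13, h16, h17⟩, hb⟩
    revert h0 h1 h2 h3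
    clear hk hb h13 h16 h17
    revert k
    decide
  cap := by
    intro k hk hnt
    rcases h.alt k with h1 | h1 | ⟨h1, a, ha, -, hn⟩
    · exact absurd h1 hk.2
    · exact absurd ⟨hk, h1.2⟩ hnt
    · obtain ⟨l, hl, rfl⟩ := List.mem_map.1 (List.mem_toFinset.1 ha)
      refine ⟨l, hl, fun t ht => ?_⟩
      by_cases h0 : t = 0
      · exact Or.inl h0
      · exact Or.inr ⟨h0, hn t (List.count_pos_iff.2 ht).ne'⟩

end

section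

variable {η : ℝ} {p : Par4} {D : Dat4} {π : Equiv.Perm (Fin 3)} {B0 : Base}
    {kp sg hz zs : ℕ → ℝ} {hκ : ∀ n, |kp n| ≤ 1} {L : ℕ → ℕ → Ln4} {F : ℕ → ℕ × ℝ → FW}
    {fr : ℕ → ℚ → ℕ × ℝ → FW} {pr : Fin 18 → ℕ → ℚ → ℝ} {sc : Fin 18 → ℕ → ℝ}
    {uz uc un : ℕ → ℝ} {w0 R T0 : ℝ} {C0 : Fin 18 → ℝ} {PD : Set (Fin 18 → ℝ)}

open Classical in
/-- **`ThinPre` from the final window of the thin branch.** -/
theorem thinPre_of
    (h : WSys (D.G p) p.g 0 p.θ (thW p π) B0 D.B D.I D.lev D.A D.f D.b D.vm D.w kp sg hz zs hκ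
      L F fr pr sc uz uc un w0 C0)
    (ok : ParOk η p) (pi0 : π 0 = 0) (th1 : 0 < thW p π 1) (th2 : thW p π 2 = 2 * thW p π 1)
    (q1 : 0 < qW p π 1) (q2 : 0 < qW p π 2) (big : BigW (thW p π) w0 R T0)
    (kp0 : ∀ ε : ℝ, 0 < ε → ∀ᶠ n in (U : Filter ℕ), D.B.d n ^ ε ≤ |kp n|)
    (PDne : PD.Nonempty) (PDleg : PD ⊆ Leg monW R)
    (gD : ∀ x ∈ PD, ∀ K : ℝ, 1 ≤ K → ∀ ε : ℝ, 0 < ε → ∀ᶠ n in (U : Filter ℕ), ∀ i ∈ D.I n,
      (((D.I n).filter fun j => Near (couW kp uz uc un F n) (D.B.d n) x K i j).card : ℝ) ≤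
        N0Q D.A D.vm n * D.B.d n ^ (-(DW p.g 0 (qW p π) w0 x + ε)))
    (pdn : ∀ v1 : ℝ, 0 < v1 → v1 < 1 → ∃ δ : ℝ, 0 < δ ∧ ∀ x ∈ Leg monW R,
      |x 0 - pathW (thW p π) w0 v1 0| ≤ δ → |x 2 - pathW (thW p π) w0 v1 2| ≤ δ →
      |x 3 - pathW (thW p π) w0 v1 3| ≤ δ → |x 17 - pathW (thW p π) w0 v1 17| ≤ δ →
      x 17 ≤ 9 * w0 + max 0 (1 - thW p π 0) → x ∈ PD)
    (gmax : ∀ x ∈ PD,
      GeoN778.GmAt D.B D.I kp uz uc un F (N0Q D.A D.vm) (DW p.g 0 (qW p π) w0) x)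
    (pdc : ∀ x ∈ PD, ∀ y ∈ Leg monW R, y 0 = x 0 → y 2 = x 2 → y 3 = x 3 → y 17 = x 17 → y ∈ PD)
    (pdr : ∀ x ∈ PD, x 17 ≤ 9 * w0 + max 0 (1 - thW p π 0)) :
    ThinPre η p D π kp uz uc un F (VW kp hκ D.B D.I F sc)
      (TW kp hκ (thW p π) D.B D.I D.lev F sc C0) w0 R T0 PD where
  ok := ok
  pi0 := pi0
  th1 := th1
  th2 := th2
  q1 := q1
  q2 := q2
  slots := h.slotsW
  big := big
  kp1 := hκ
  kp0 := kp0
  uz0 := h.unit.z0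
  uc0 := h.unit.c0
  un0 := h.unit.n0
  pre := by
    have hE : EQ p.θ p.g 0 p.q w0 R = EQ (thW p π) p.g 0 (qW p π) w0 R := by
      funext v
      rw [← DW_path_EQ p.θ p.g 0 p.q w0 R v π pi0 th2, EQ_eq]
      exact DW_path _ _ _ _ _ _ th2
    rw [← hE]
    exact h.preW big (fun n i J t _ => rfl) PDne PDleg gD
  pdn := pdn
  gmax := gmax
  pdc := pdc
  pdr := pdr

end

end Crest.Agent.R136.PrW464
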