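import Crest.Agent.R136.PrW7_464
import Crest.Agent.R136.GDW8_778

/-!
# R136, wrapper `J2 → PreQ` for the W-chart (helper464), part 8: hand-over of the thin branch of U6

`ThinC` : everything about the first thin window in normal coordinates; `thinPre_of_C` : `ThinC` ⊢
`NatW697.ThinPre` (flags 650, second zoom 627, D-max 778).
-/

set_option autoImplicit false
set_option linter.unusedVariables false

open Finset Filter Topology

namespace Crest.Agent.R136.PrW464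

open Crest.Agent.R138
open Crest.Agent.R138.Ex926 (Base U QProf)
open Crest.Agent.R138.Dp76 (dpow_pos dpow_add dpow_le dpow_le_one)
open Crest.Agent.R138.Mk163 (zc zl rho alive own)
open Crest.Agent.R138.MkRef627 (lc kc)
open Crest.Agent.R136.MkA627
open Crest.Agent.R136.Net191
open Crest.Agent.R136.NetW191
open Crest.Agent.R136.Sh605
open Crest.Agent.R136.TD627
open Crest.Agent.R136.Top484
open Crest.Agent.R136.NatT550 (ParOk)
open Crest.Agent.R136.NatW697 (thW qW SlotOkW ThinPre)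
open Crest.Agent.R136.Wq638 (capQ EQ EQ_eq N0Q vm_eq gH_Q)
open Crest.Agent.R136.GW650 (prG)
open Crest.Agent.R136.Fw650 (ThinG TiltG FlagsW flags_of flW hW rhN)
open Crest.Agent.R136.GeoN778 (WCon Qw WLev wlev_of carry_Qw Un Qd)

/-- **the first thin window in normal coordinates.**  `D` = data of the window (base `D.B`), `L` =
model lines, `Mk v n c` = flags of the marks, container: frame `f`, origin `c`, units `u`, quadrics
`Q`. -/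
structure ThinC (p : Par4) (D : Dat4) (kp sg hz zs : ℕ → ℝ) (L : ℕ → ℕ → Ln4)
    (wA wB a : ℕ → ℚ → ℝ) (Mk : ℚ → ℕ → ℕ × ℤ → Fin 14 → ℝ) (E : ℚ → ℕ → ℕ × ℤ → ℝ)
    (f : ℕ → Fin 3 → V3) (c : ℕ → Ln4) (u : ℕ → Un) (Q : ℕ → ℕ × ℝ → Qd) : Prop where
  mka : MkA D.B D.I (D.G p) D.lev D.A (fun v => p.g * v) (fun v => 0 * v)
    (fun j v => p.θ j * (1 - v)) D.f D.b D.vm D.w
  thin : ThinG D.B D.I D.lev D.f kp sg hz zs L wA wB a Mk E
  linA : GW650.Lin D.B wA (1 + -p.θ 1)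
  lina : GW650.Lin D.B a (1 - p.θ 0)
  tilt : ∃ C : ℝ, 0 ≤ C ∧ TiltG D.B D.I (hW kp hz zs L D.lev D.f Mk) (prG (rhN D.lev hz) wA a) C
  con : WCon D.B D.I kp sg hz zs (flW kp sg hz zs L D.lev D.f Mk (-p.θ 1) (1 - p.θ 0)) D.L L
    f c u Q
  qw : ∃ C : ℝ, ∀ i, ∀ v : ℚ, 0 ≤ v → v ≤ 1 → ∀ δ : ℝ, 0 < δ → ∀ᶠ n in (U : Filter ℕ),
    Qw D.B D.I D.w kp sg (flW kp sg hz zs L D.lev D.f Mk (-p.θ 1) (1 - p.θ 0)) u (rhN D.lev hz)
      wA a C i n v δ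
  kp0 : ∀ ε : ℝ, 0 < ε → ∀ᶠ n in (U : Filter ℕ), D.B.d n ^ ε ≤ |kp n|
  /-- range of the tests -/
  wrs : Rng D.B D.wr D.cr D.w
  /-- the container, for all flags over the same lines -/
  conG : ∀ J : ℕ → Finset (ℕ × ℝ), (∀ᶠ n in (U : Filter ℕ), J n ⊆ D.I n) →
    ∀ F2 : ℕ → ℕ × ℝ → FW, WData D.B J kp sg hz zs L F2 →
      ∃ Q2, WCon D.B J kp sg hz zs F2 D.L L f c u Q2

/-- the range of the tests, as a carried property -/
def RngQ (D : Dat4) (n : ℕ) (v : ℚ) (δ : ℝ) : Prop :=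
  0 < δ ∧ ∀ k : Fin 3, 0 < D.w k n v ∧ D.wr k n ≤ D.B.d n ^ (1 / δ) * D.w k n v ∧
    D.w k n v ≤ D.B.d n ^ (1 / δ) * D.cr k n

theorem RngQ.mono {D : Dat4} (n : ℕ) (v : ℚ) (δ δ' : ℝ) (hd : δ ≤ δ') (h : RngQ D n v δ) :
    RngQ D n v δ' := by
  obtain ⟨h0, h⟩ := h
  have h0' : 0 < δ' := h0.trans_le hd
  have hm : D.B.d n ^ (1 / δ) ≤ D.B.d n ^ (1 / δ') :=
    dpow_le D.B n (one_div_le_one_div_of_le h0 hd)
  refine ⟨h0', fun k => ?_⟩
  obtain ⟨a1, a2, a3⟩ := h k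
  have hc : 0 < D.cr k n := by
    have h1 : 0 < D.B.d n ^ (1 / δ) * D.cr k n := a1.trans_le a3
    exact (pos_iff_pos_of_mul_pos h1).1 (dpow_pos D.B n _)
  exact ⟨a1, a2.trans (mul_le_mul_of_nonneg_right hm a1.le),
    a3.trans (mul_le_mul_of_nonneg_right hm hc.le)⟩

/-- the range of the zoomed data -/
theorem Zm.rng {D D' : Dat4} {H : ℕ → ℝ} {mm : ℕ → ℚ → ℚ} (h : Zm D H mm D')
    (hQ : ∀ v : ℚ, 0 ≤ v → v ≤ 1 → ∀ δ : ℝ, 0 < δ → ∀ᶠ n in (U : Filter ℕ),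
      RngQ D n (mm n v) (H n * δ)) : Rng D'.B D'.wr D'.cr D'.w := by
  intro C k v h0 h1
  rw [h.wr, h.cr, h.w]
  have hC0 : 0 < max C 1 := lt_max_of_lt_right one_pos
  filter_upwards [hQ v h0 h1 (1 / max C 1) (by positivity)] with n hn
  obtain ⟨H0, H1⟩ := h.H01 n
  obtain ⟨b0, b⟩ := hn
  obtain ⟨a1, a2, a3⟩ := b k
  have e : D.B.d n ^ (1 / (H n * (1 / max C 1))) ≤ D'.B.d n ^ C := by
    rw [← h.pow]
    refine dpow_le D.B n ?_
    have e1 : 1 / (H n * (1 / max C 1)) = max C 1 / H n := by field_simp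
    rw [e1, le_div_iff₀ H0]
    have h2 : H n * C ≤ H n * max C 1 := mul_le_mul_of_nonneg_left (le_max_left _ _) H0.le
    have h3 : H n * max C 1 ≤ max C 1 := mul_le_of_le_one_left hC0.le H1
    nlinarith
  have hc : 0 < D.cr k n := by
    have h1 : 0 < D.B.d n ^ (1 / (H n * (1 / max C 1))) * D.cr k n := a1.trans_le a3
    exact (pos_iff_pos_of_mul_pos h1).1 (dpow_pos D.B n _)
  exact ⟨a2.trans (mul_le_mul_of_nonneg_right e a1.le),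
    a3.trans (mul_le_mul_of_nonneg_right e hc.le)⟩

section

variable {η : ℝ} {p : Par4} {D : Dat4}
    {kp sg hz zs : ℕ → ℝ} {L : ℕ → ℕ → Ln4} {wA wB a : ℕ → ℚ → ℝ}
    {Mk : ℚ → ℕ → ℕ × ℤ → Fin 14 → ℝ} {E : ℚ → ℕ → ℕ × ℤ → ℝ}
    {f : ℕ → Fin 3 → V3} {c : ℕ → Ln4} {u : ℕ → Un} {Q : ℕ → ℕ × ℝ → Qd}

/-- **hand-over of the thin branch of U6** -/
theorem thinPre_of_C (ok : ParOk η p) (th1 : 0 < p.θ 1) (th2 : p.θ 2 = 2 * p.θ 1)
    (hq : ∀ j, 0 ≤ p.q j) (q1 : 0 < p.q 1) (q2 : 0 < p.q 2) (h : ThinC p D kp sg hz zs L wA wB a Mk E f c u Q) :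
    ∃ (D' : Dat4) (π : Equiv.Perm (Fin 3)) (kp uz uc un : ℕ → ℝ) (F : ℕ → ℕ × ℝ → FW)
      (V T : Fin 18 → Prop) (w0 R T0 : ℝ) (PD : Set (Fin 18 → ℝ)),
      ThinPre η p D' π kp uz uc un F V T w0 R T0 PD := by
  obtain ⟨T0, w0, R, big⟩ := exists_bigW p.θ
  obtain ⟨C, hC, tilt⟩ := h.tilt
  obtain ⟨C1, hqw⟩ := h.qw
  obtain ⟨D', uz, uc, un, F, V, T, PD, hT⟩ := thin_end (π := 1) (w0 := w0) (R := R) (T0 := T0)
    h.mka h.thin h.linA h.lina hC tilt ok rfl th1 th2 q1 q2 big h.kp0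
    (carryH_cons (carry_Qw hqw) (P := RngQ D) RngQ.mono (fun v h0 h1 δ hδ => by
      filter_upwards [h.wrs (1 / δ) 0 v h0 h1, h.wrs (1 / δ) 1 v h0 h1, h.wrs (1 / δ) 2 v h0 h1,
        h.mka.wpos 0 v h0 h1, h.mka.wpos 1 v h0 h1, h.mka.wpos 2 v h0 h1] with n a0 a1 a2 b0 b1 b2
      refine ⟨hδ, fun k => ?_⟩
      fin_cases k
      · exact ⟨b0, a0⟩
      · exact ⟨b1, a1⟩
      · exact ⟨b2, a2⟩))
    (by
      intro H mm D' sc' uz uc un hZ hQ1 hu hW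
      have hQ : CarryH (fun i n v δ => Qw D.B D.I D.w kp sg
          (flW kp sg hz zs L D.lev D.f Mk (-p.θ 1) (1 - p.θ 0)) u (rhN D.lev hz)
          wA a C1 i n (mm n v) (H n * δ)) :=
        ⟨fun i n v δ δ' h1 h2 => hQ1.1 (i + 1) n v δ δ' h1 h2, fun i v h0 h1 δ hδ =>
          hQ1.2 (i + 1) v h0 h1 δ hδ⟩
      have hwr : Rng D'.B D'.wr D'.cr D'.w :=
        hZ.rng fun v h0 h1 δ hδ => hQ1.2 0 v h0 h1 δ hδ
      have hlev : WLev D.B D'.B D'.I D'.lev D'.w kp sg hz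
          (flW kp sg hz zs L D.lev D.f Mk (-p.θ 1) (1 - p.θ 0)) u uz uc un w0 := by
        have h1 := hW.unit
        rw [hZ.lev] at h1 ⊢
        rw [hZ.w]
        exact wlev_of h.thin.hz0 hW.base hZ.d hZ.I (fun n v => rfl) hQ h1 hW.low hu
      have hcon := h.conG D'.I hZ.I
      rw [← hZ.L] at hcon
      exact ⟨_, GeoN778.gdmax_W hW hcon (GeoN778.seqFix_of hW.wd) hlev hq th1 th2 big hwr⟩)
  exact ⟨D', 1, kp, uz, uc, un, F, V, T, w0, R, T0, PD, hT⟩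

/-- the same with the parameters from `ParOk` -/
theorem thinPre_of_ok (ok : ParOk η p) (th2 : p.θ 2 = 2 * p.θ 1)
    (h : ThinC p D kp sg hz zs L wA wB a Mk E f c u Q) :
    ∃ (D' : Dat4) (π : Equiv.Perm (Fin 3)) (kp uz uc un : ℕ → ℝ) (F : ℕ → ℕ × ℝ → FW)
      (V T : Fin 18 → Prop) (w0 R T0 : ℝ) (PD : Set (Fin 18 → ℝ)),
      ThinPre η p D' π kp uz uc un F V T w0 R T0 PD :=
  thinPre_of_C ok ok.θ1 th2 (by
    intro j
    fin_cases j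
    · exact ok.q0.1
    · exact ok.g0.2.le
    · exact ok.q2.1.le) ok.g0.2 ok.q2.1 h

end

end Crest.Agent.R136.PrW464
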