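import Mathlib
import Crest.Agent.R136.Deep1_770

/-!
# R136 (helper770): pruning of deep objects

* `par k o` : ancestor of an object, `k` levels up; `par_mem`, `par_par`;
* `ext_full` : full shading at all levels ⊢ `#extO` at level `m` is at least `a 2^(m-i)` times the
  number of objects of level `i`;
* `deep_prune_fin` : finitely many deep levels with parts `P k` (complement small), finitely many
  partitions: a part `R` of the objects of level `m`, at least one half, all ancestors in the `P k`,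
  all fibres of all partitions at least `1 / (4 #S)` of the original fibres;
* `FullO`, `fullO_of`, `deep_prune` : sequence form (with `DeepP`).
-/

set_option autoImplicit false
set_option linter.unusedVariables false
set_option linter.unusedSectionVars false

open Finset Filter Topology

namespace Crest.Agent.R136.Dia770

open Crest.Agent.R138.Ex926 Crest.Agent.R138.Dp76
open Crest.Agent.R138.Mk163 (zc zl rho alive own)
open Crest.Agent.R138.MkRef627 (lc mem_alive own_one)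
open Crest.Agent.R136.MkA627 (Geo)

/-- ancestor, `k` levels up -/
def par (k : ℕ) (o : ℕ × ℤ) : ℕ × ℤ := (o.1, o.2 / 2 ^ k)

theorem par_par (k l : ℕ) (o : ℕ × ℤ) : par l (par k o) = par (k + l) o := by
  unfold par
  simp only [Prod.mk.injEq, true_and]
  rw [Int.ediv_ediv_of_nonneg (by positivity), ← pow_add]

theorem lc_par {i m : ℕ} (h : i ≤ m) (x : ℕ × ℝ) : par (m - i) (lc m x) = lc i x := by
  unfold par Crest.Agent.R138.MkRef627.lc
  simp only [Prod.mk.injEq, true_and]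
  exact (zc_div h x.2).symm

theorem par_mem {J : Finset (ℕ × ℝ)} {l1 i m : ℕ} (h : i ≤ m) {o : ℕ × ℤ}
    (ho : o ∈ extO J l1 m) : par (m - i) o ∈ extO J l1 i := by
  rcases le_total i l1 with h1 | h1
  · obtain ⟨x, hx, hxo⟩ := extO_anc h1 h ho
    exact (mem_extO_le h1).2 ⟨x, hx, hxo⟩
  · rw [mem_extO_ge (h1.trans h)] at ho
    obtain ⟨x, hx, hxo⟩ := ho
    rw [mem_extO_ge h1]
    refine ⟨x, hx, ?_⟩
    rw [hxo]
    unfold par
    simp only [Prod.mk.injEq, true_and]
    rw [Int.ediv_ediv_of_nonneg (by positivity), ← pow_add]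
    congr 2; omega

open Classical in
/-- at most `2^k` objects over one ancestor -/
theorem card_par (E : Finset (ℕ × ℤ)) (k : ℕ) (p : ℕ × ℤ) :
    (E.filter fun o => par k o = p).card ≤ 2 ^ k := by
  have h1 : (E.filter fun o => par k o = p) ⊆
      (Finset.Ico (p.2 * 2 ^ k) (p.2 * 2 ^ k + 2 ^ k)).image fun j => (p.1, j) := by
    intro o ho
    obtain ⟨-, h2⟩ := mem_filter.1 ho
    subst h2
    exact mem_image.2 ⟨o.2, ico_div.2 rfl, rfl⟩
  refine (card_le_card h1).trans (card_image_le.trans (le_of_eq ?_))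
  rw [Int.card_Ico]
  have e2 : p.2 * 2 ^ k + 2 ^ k - p.2 * 2 ^ k = ((2 ^ k : ℕ) : ℤ) := by push_cast; ring
  rw [e2, Int.toNat_natCast]

open Classical in
/-- objects over a set of ancestors -/
theorem card_over (E Z : Finset (ℕ × ℤ)) (k : ℕ) :
    (E.filter fun o => par k o ∈ Z).card ≤ 2 ^ k * Z.card := by
  have h1 : ∀ o ∈ (E.filter fun o => par k o ∈ Z), par k o ∈ Z := fun o ho => (mem_filter.1 ho).2
  rw [card_eq_sum_card_fiberwise h1, mul_comm, ← smul_eq_mul, ← sum_const]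
  refine sum_le_sum fun p hp => ?_
  refine le_trans (card_le_card ?_) (card_par E k p)
  intro o ho
  obtain ⟨h2, h3⟩ := mem_filter.1 ho
  exact mem_filter.2 ⟨(mem_filter.1 h2).1, h3⟩

open Classical in
/-- full shading of the objects -/
theorem ext_full {J : Finset (ℕ × ℝ)} {l0 l1 : ℕ}
    (one : ∀ x ∈ J, ∀ y ∈ J, x.1 = y.1 → zc l1 x.2 = zc l1 y.2 → x = y) {a : ℝ} (ha : 0 < a)
    (ha1 : a ≤ 1) (hown : ∀ i, l0 ≤ i → i ≤ l1 → ∀ x ∈ J,
      a * 2 ^ (l1 - i) ≤ ((own J i l1 x).card : ℝ)) {i m : ℕ} (h0 : l0 ≤ i) (him : i ≤ m) :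
    a * (2 ^ (m - i) * ((extO J l1 i).card : ℝ)) ≤ ((extO J l1 m).card : ℝ) := by
  have e1 : (J.image (lc l1)).card = J.card := by
    refine card_image_of_injOn ?_
    intro x hx y hy hxy
    simp only [lc, Prod.mk.injEq] at hxy
    exact one x hx y hy hxy.1 hxy.2
  have eJ : ∀ m, m ≤ l1 → ((extO J l1 m).card : ℝ) = (J.image (lc m)).card := by
    intro m hm
    unfold extO
    rw [if_pos hm]
  rcases le_total l1 i with h1 | h1
  · rw [card_extO h1, card_extO (h1.trans him), e1]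
    push_cast
    have e2 : (2:ℝ) ^ (m - l1) = 2 ^ (m - i) * 2 ^ (i - l1) := by
      rw [← pow_add]; congr 1; omega
    rw [e2]
    have h2 : (0:ℝ) ≤ 2 ^ (m - i) * (2 ^ (i - l1) * (J.card : ℝ)) := by positivity
    nlinarith
  · have h2 := card_ge_own (l0 := i) (l1 := l1) (by positivity) (hown i h0 h1)
    rw [eJ i h1]
    rcases le_total l1 m with h3 | h3
    · rw [card_extO h3, e1]
      push_cast
      have e2 : (2:ℝ) ^ (m - i) = 2 ^ (m - l1) * 2 ^ (l1 - i) := by
        rw [← pow_add]; congr 1; omega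
      calc a * (2 ^ (m - i) * ((J.image (lc i)).card : ℝ))
          = 2 ^ (m - l1) * (a * 2 ^ (l1 - i) * (J.image (lc i)).card) := by rw [e2]; ring
        _ ≤ 2 ^ (m - l1) * J.card := mul_le_mul_of_nonneg_left h2 (by positivity)
    · rw [eJ m h3]
      have h4 := image_lc_le J (l0 := m) (i := l1) h3
      rw [e1] at h4
      have h5 : (J.card : ℝ) ≤ 2 ^ (l1 - m) * ((J.image (lc m)).card : ℝ) := by exact_mod_cast h4
      have e2 : (2:ℝ) ^ (l1 - i) = 2 ^ (l1 - m) * 2 ^ (m - i) := by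
        rw [← pow_add]; congr 1; omega
      rw [e2] at h2
      have h6 : (2:ℝ) ^ (l1 - m) * (a * (2 ^ (m - i) * ((J.image (lc i)).card : ℝ))) ≤
          2 ^ (l1 - m) * ((J.image (lc m)).card : ℝ) := by
        calc (2:ℝ) ^ (l1 - m) * (a * (2 ^ (m - i) * ((J.image (lc i)).card : ℝ)))
            = a * (2 ^ (l1 - m) * 2 ^ (m - i)) * (J.image (lc i)).card := by ring
          _ ≤ J.card := h2
          _ ≤ _ := h5
      exact le_of_mul_le_mul_left h6 (by positivity)

open Classical in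
/-- **relative pruning**: `P0 ⊆ O`, finitely many partitions of `O`. -/
theorem prune_rel {α κ : Type*} {X : κ → Type*} (O P0 : Finset α) (hP : P0 ⊆ O) (S : Finset κ)
    (φ : ∀ j, α → X j) {c : ℝ} (hc : 0 ≤ c) :
    ∃ P ⊆ P0, (P0.card : ℝ) - c * S.card * O.card ≤ P.card ∧
      ∀ o ∈ P, ∀ j ∈ S, c * ((O.filter fun p => φ j p = φ j o).card : ℝ) ≤
        ((P.filter fun p => φ j p = φ j o).card : ℝ) := by
  obtain ⟨P, h1, h2, h3⟩ := Crest.Agent.R136.Win823.exists_prune (κ := κ) (X := X) S φ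
    (fun j x => c * ((O.filter fun p => φ j p = x).card : ℝ)) (fun j x => by positivity)
    P0.card P0 le_rfl
  refine ⟨P, h1, ?_, fun o ho j hj => ?_⟩
  · refine le_trans ?_ h2
    have h4 : ∀ j ∈ S, ∑ x ∈ P0.image (φ j), c * ((O.filter fun p => φ j p = x).card : ℝ) ≤
        c * O.card := by
      intro j hj
      have e : (O.card : ℝ) = ∑ x ∈ O.image (φ j), ((O.filter fun p => φ j p = x).card : ℝ) := by
        rw [card_eq_sum_card_image (φ j) O]; push_cast; rfl
      rw [e, mul_sum]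
      exact sum_le_sum_of_subset_of_nonneg (image_subset_image hP) (fun x _ _ => by positivity)
    have h5 : ∑ j ∈ S, ∑ x ∈ P0.image (φ j), c * ((O.filter fun p => φ j p = x).card : ℝ) ≤
        c * S.card * O.card := by
      refine (sum_le_sum h4).trans (le_of_eq ?_)
      rw [sum_const, nsmul_eq_mul]; ring
    have h6 : ∑ j ∈ S, ∑ x ∈ P0.image (φ j), c * ((O.filter fun p => φ j p = x).card : ℝ) =
        ∑ j ∈ S, ∑ x ∈ P0.image (φ j), (fun j x => c * ((O.filter fun p => φ j p = x).card : ℝ)) j x :=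
      rfl
    linarith
  · exact h3 o ho j hj

open Classical in
/-- **pruning of deep objects, finite form.** -/
theorem deep_prune_fin {J : Finset (ℕ × ℝ)} {l0 l1 m : ℕ}
    (one : ∀ x ∈ J, ∀ y ∈ J, x.1 = y.1 → zc l1 x.2 = zc l1 y.2 → x = y) {a γ : ℝ} (ha : 0 < a)
    (ha1 : a ≤ 1) (hγ : 0 ≤ γ) (hown : ∀ i, l0 ≤ i → i ≤ l1 → ∀ x ∈ J,
      a * 2 ^ (l1 - i) ≤ ((own J i l1 x).card : ℝ))
    {ι κ : Type*} {X : κ → Type*} (K : Finset ι) (lv : ι → ℕ)
    (hlv : ∀ k ∈ K, l0 ≤ lv k ∧ lv k ≤ m) (P : ι → Finset (ℕ × ℤ))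
    (hP : ∀ k ∈ K, P k ⊆ extO J l1 (lv k))
    (hPc : ∀ k ∈ K, ((extO J l1 (lv k)).card : ℝ) ≤ (P k).card + γ * (extO J l1 (lv k)).card)
    (hK : 4 * (K.card * γ) ≤ a) (S : Finset κ) (φ : ∀ j, ℕ × ℤ → X j) :
    ∃ R ⊆ extO J l1 m, ((extO J l1 m).card : ℝ) ≤ 2 * R.card ∧
      (∀ o ∈ R, ∀ k ∈ K, par (m - lv k) o ∈ P k) ∧
      ∀ o ∈ R, ∀ j ∈ S, (((extO J l1 m).filter fun p => φ j p = φ j o).card : ℝ) ≤
        4 * S.card * ((R.filter fun p => φ j p = φ j o).card : ℝ) := by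
  set O := extO J l1 m with hO
  set P0 := O.filter fun o => ∀ k ∈ K, par (m - lv k) o ∈ P k with hP0
  -- the objects lost by the `P k`
  have hlost : ((O \ P0).card : ℝ) ≤ O.card / 4 := by
    have h1 : O \ P0 ⊆ K.biUnion fun k => O.filter fun o =>
        par (m - lv k) o ∈ extO J l1 (lv k) \ P k := by
      intro o ho
      rw [Finset.mem_sdiff, hP0, mem_filter] at ho
      obtain ⟨hoO, ho2⟩ := ho
      have h2 : ∃ k ∈ K, par (m - lv k) o ∉ P k := by
        by_contra h3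
        push Not at h3
        exact ho2 ⟨hoO, h3⟩
      obtain ⟨k, hk, hk2⟩ := h2
      rw [mem_biUnion]
      refine ⟨k, hk, mem_filter.2 ⟨hoO, ?_⟩⟩
      rw [Finset.mem_sdiff]
      exact ⟨par_mem (hlv k hk).2 hoO, hk2⟩
    have h2 : ((O \ P0).card : ℝ) ≤ ∑ k ∈ K, ((O.filter fun o =>
        par (m - lv k) o ∈ extO J l1 (lv k) \ P k).card : ℝ) := by
      exact_mod_cast (card_le_card h1).trans card_biUnion_le
    have h3 : ∀ k ∈ K, ((O.filter fun o => par (m - lv k) o ∈ extO J l1 (lv k) \ P k).card : ℝ) ≤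
        γ / a * O.card := by
      intro k hk
      have h4 : ((O.filter fun o => par (m - lv k) o ∈ extO J l1 (lv k) \ P k).card : ℝ) ≤
          2 ^ (m - lv k) * ((extO J l1 (lv k) \ P k).card : ℝ) := by
        exact_mod_cast card_over O (extO J l1 (lv k) \ P k) (m - lv k)
      have h5 : ((extO J l1 (lv k) \ P k).card : ℝ) ≤ γ * (extO J l1 (lv k)).card := by
        rw [card_sdiff_of_subset (hP k hk), Nat.cast_sub (card_le_card (hP k hk))]
        have := hPc k hk
        linarith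
      have h6 := ext_full one ha ha1 hown (hlv k hk).1 (hlv k hk).2
      rw [div_mul_eq_mul_div, le_div_iff₀ ha]
      calc ((O.filter fun o => par (m - lv k) o ∈ extO J l1 (lv k) \ P k).card : ℝ) * a
          ≤ 2 ^ (m - lv k) * (γ * (extO J l1 (lv k)).card) * a := by
            refine mul_le_mul_of_nonneg_right (h4.trans ?_) ha.le
            exact mul_le_mul_of_nonneg_left h5 (by positivity)
        _ = γ * (a * (2 ^ (m - lv k) * (extO J l1 (lv k)).card)) := by ring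
        _ ≤ γ * O.card := mul_le_mul_of_nonneg_left h6 hγ
    refine h2.trans ((sum_le_sum h3).trans ?_)
    rw [sum_const, nsmul_eq_mul]
    have h7 : (K.card : ℝ) * (γ / a * O.card) = (K.card * γ) / a * O.card := by ring
    rw [h7]
    have h8 : (K.card * γ) / a ≤ 1 / 4 := by
      rw [div_le_div_iff₀ ha (by norm_num)]; linarith
    have h9 := mul_le_mul_of_nonneg_right h8 (Nat.cast_nonneg (α := ℝ) O.card)
    linarith
  have hP0O : P0 ⊆ O := filter_subset _ _
  have hP0c : (3:ℝ) / 4 * O.card ≤ P0.card := by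
    have h1 : ((O \ P0).card : ℝ) = O.card - P0.card := by
      rw [card_sdiff_of_subset hP0O, Nat.cast_sub (card_le_card hP0O)]
    linarith
  rcases S.eq_empty_or_nonempty with hS | hS
  · subst hS
    refine ⟨P0, hP0O, ?_, fun o ho => (mem_filter.1 ho).2, by simp⟩
    have : (0:ℝ) ≤ O.card := Nat.cast_nonneg _
    linarith
  have hSc : (0:ℝ) < S.card := by exact_mod_cast card_pos.2 hS
  obtain ⟨R, hR, hR1, hR2⟩ := prune_rel O P0 hP0O S φ (c := 1 / (4 * S.card)) (by positivity)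
  refine ⟨R, hR.trans hP0O, ?_, fun o ho => (mem_filter.1 (hR ho)).2, fun o ho j hj => ?_⟩
  · have e : 1 / (4 * (S.card : ℝ)) * S.card * O.card = O.card / 4 := by field_simp
    rw [e] at hR1
    linarith
  · have h1 := hR2 o ho j hj
    rw [one_div, inv_mul_le_iff₀ (by positivity)] at h1
    exact h1

/-! ### sequence form -/

/-- full shading at all levels between `l0` and `l1` -/
def FullO (B : Base) (J : ℕ → Finset (ℕ × ℝ)) (l0 l1 : ℕ → ℕ) : Prop :=
  ∀ ε : ℝ, 0 < ε → ∀ᶠ n in (U : Filter ℕ), ∀ i, l0 n ≤ i → i ≤ l1 n → ∀ x ∈ J n,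
    B.d n ^ ε * 2 ^ (l1 n - i) ≤ ((own (J n) i (l1 n) x).card : ℝ)

open Classical in
/-- **pruning of deep objects, sequence form**: `J` with full shading at all levels; finitely many
levels `lv k n ≤ m n` with parts `P k n` of the objects whose complements are `d^γ`-small (output of
`DeepP`); finitely many partitions `φ n j` of the objects of level `m n`. -/
theorem deep_prune (B : Base) {J : ℕ → Finset (ℕ × ℝ)} {l0 l1 m : ℕ → ℕ}
    (one : ∀ᶠ n in (U : Filter ℕ), ∀ x ∈ J n, ∀ y ∈ J n, x.1 = y.1 →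
      zc (l1 n) x.2 = zc (l1 n) y.2 → x = y) (hfull : FullO B J l0 l1)
    {ι κ : Type*} {X : ℕ → κ → Type*} (K : Finset ι) (lv : ι → ℕ → ℕ)
    (hlv : ∀ k ∈ K, ∀ᶠ n in (U : Filter ℕ), l0 n ≤ lv k n ∧ lv k n ≤ m n)
    (P : ι → ℕ → Finset (ℕ × ℤ)) (hP : ∀ k ∈ K, ∀ n, P k n ⊆ extO (J n) (l1 n) (lv k n))
    (hPc : ∀ k ∈ K, ∃ γ : ℝ, 0 < γ ∧ ∀ᶠ n in (U : Filter ℕ),
      ((extO (J n) (l1 n) (lv k n)).card : ℝ) ≤
        (P k n).card + B.d n ^ γ * (extO (J n) (l1 n) (lv k n)).card)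
    (S : Finset κ) (φ : ∀ n, ∀ j, ℕ × ℤ → X n j) :
    ∃ R : ℕ → Finset (ℕ × ℤ), (∀ n, R n ⊆ extO (J n) (l1 n) (m n)) ∧
      ∀ᶠ n in (U : Filter ℕ), ((extO (J n) (l1 n) (m n)).card : ℝ) ≤ 2 * (R n).card ∧
        (∀ o ∈ R n, ∀ k ∈ K, par (m n - lv k n) o ∈ P k n) ∧
        ∀ o ∈ R n, ∀ j ∈ S,
          (((extO (J n) (l1 n) (m n)).filter fun p => φ n j p = φ n j o).card : ℝ) ≤
            4 * S.card * (((R n).filter fun p => φ n j p = φ n j o).card : ℝ) := by
  -- one exponent for all levels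
  have hγ : ∃ γ : ℝ, 0 < γ ∧ ∀ k ∈ K, ∀ᶠ n in (U : Filter ℕ),
      ((extO (J n) (l1 n) (lv k n)).card : ℝ) ≤
        (P k n).card + B.d n ^ γ * (extO (J n) (l1 n) (lv k n)).card := by
    clear hlv hP
    induction K using Finset.induction_on with
    | empty => exact ⟨1, one_pos, by simp⟩
    | insert k K hk ih =>
      obtain ⟨γ1, h1, h2⟩ := ih (fun k hk => hPc k (mem_insert_of_mem hk))
      obtain ⟨γ2, h3, h4⟩ := hPc k (mem_insert_self _ _)
      have key : ∀ γ' : ℝ, min γ1 γ2 ≤ γ' → ∀ k' n,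
          ((extO (J n) (l1 n) (lv k' n)).card : ℝ) ≤
            (P k' n).card + B.d n ^ γ' * (extO (J n) (l1 n) (lv k' n)).card →
          ((extO (J n) (l1 n) (lv k' n)).card : ℝ) ≤
            (P k' n).card + B.d n ^ (min γ1 γ2) * (extO (J n) (l1 n) (lv k' n)).card := by
        intro γ' h5 k' n h6
        have h7 := mul_le_mul_of_nonneg_right (dpow_le B n h5)
          (Nat.cast_nonneg (α := ℝ) (extO (J n) (l1 n) (lv k' n)).card)
        linarith
      refine ⟨min γ1 γ2, lt_min h1 h3, fun k' hk' => ?_⟩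
      rcases mem_insert.1 hk' with rfl | hk'
      · exact h4.mono fun n hn => key γ2 (min_le_right _ _) _ _ hn
      · exact (h2 k' hk').mono fun n hn => key γ1 (min_le_left _ _) _ _ hn
  obtain ⟨γ, hγ0, hγ1⟩ := hγ
  have hev : ∀ᶠ n in (U : Filter ℕ), ∃ R ⊆ extO (J n) (l1 n) (m n),
      ((extO (J n) (l1 n) (m n)).card : ℝ) ≤ 2 * R.card ∧
        (∀ o ∈ R, ∀ k ∈ K, par (m n - lv k n) o ∈ P k n) ∧
        ∀ o ∈ R, ∀ j ∈ S,
          (((extO (J n) (l1 n) (m n)).filter fun p => φ n j p = φ n j o).card : ℝ) ≤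
            4 * S.card * ((R.filter fun p => φ n j p = φ n j o).card : ℝ) := by
    have hsmall : ∀ᶠ n in (U : Filter ℕ), B.d n ^ (γ / 2) < 1 / (4 * ((K.card : ℝ) + 1)) :=
      Crest.Agent.R138.Ps926.dpow_small B (by linarith) (by positivity)
    have hlv' : ∀ᶠ n in (U : Filter ℕ), ∀ k ∈ K, l0 n ≤ lv k n ∧ lv k n ≤ m n :=
      ev_fin K hlv
    have hγ' : ∀ᶠ n in (U : Filter ℕ), ∀ k ∈ K, ((extO (J n) (l1 n) (lv k n)).card : ℝ) ≤
        (P k n).card + B.d n ^ γ * (extO (J n) (l1 n) (lv k n)).card := ev_fin K hγ1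
    filter_upwards [one, hfull (γ / 2) (by linarith), hsmall, hlv', hγ'] with n a1 a2 a3 a4 a5
    refine deep_prune_fin a1 (dpow_pos B n (γ / 2)) (dpow_le_one B n (by linarith))
      (dpow_pos B n γ).le a2 K (fun k => lv k n) a4 (fun k => P k n) (fun k hk => hP k hk n)
      a5 ?_ S (φ n)
    have e : B.d n ^ γ = B.d n ^ (γ / 2) * B.d n ^ (γ / 2) := by rw [← dpow_add]; congr 1; ring
    have hp := dpow_pos B n (γ / 2)
    rw [lt_div_iff₀ (by positivity)] at a3
    have h6 : (K.card : ℝ) * B.d n ^ (γ / 2) * 4 ≤ 1 := by nlinarith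
    rw [e]
    calc 4 * ((K.card : ℝ) * (B.d n ^ (γ / 2) * B.d n ^ (γ / 2)))
        = (K.card : ℝ) * B.d n ^ (γ / 2) * 4 * B.d n ^ (γ / 2) := by ring
      _ ≤ 1 * B.d n ^ (γ / 2) := mul_le_mul_of_nonneg_right h6 hp.le
      _ = B.d n ^ (γ / 2) := one_mul _
  have hch : ∀ n, ∃ R : Finset (ℕ × ℤ), R ⊆ extO (J n) (l1 n) (m n) ∧
      ((∃ R ⊆ extO (J n) (l1 n) (m n),
        ((extO (J n) (l1 n) (m n)).card : ℝ) ≤ 2 * R.card ∧
        (∀ o ∈ R, ∀ k ∈ K, par (m n - lv k n) o ∈ P k n) ∧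
        ∀ o ∈ R, ∀ j ∈ S,
          (((extO (J n) (l1 n) (m n)).filter fun p => φ n j p = φ n j o).card : ℝ) ≤
            4 * S.card * ((R.filter fun p => φ n j p = φ n j o).card : ℝ)) →
      ((extO (J n) (l1 n) (m n)).card : ℝ) ≤ 2 * R.card ∧
        (∀ o ∈ R, ∀ k ∈ K, par (m n - lv k n) o ∈ P k n) ∧
        ∀ o ∈ R, ∀ j ∈ S,
          (((extO (J n) (l1 n) (m n)).filter fun p => φ n j p = φ n j o).card : ℝ) ≤
            4 * S.card * ((R.filter fun p => φ n j p = φ n j o).card : ℝ)) := by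
    intro n
    by_cases h : ∃ R ⊆ extO (J n) (l1 n) (m n),
        ((extO (J n) (l1 n) (m n)).card : ℝ) ≤ 2 * R.card ∧
        (∀ o ∈ R, ∀ k ∈ K, par (m n - lv k n) o ∈ P k n) ∧
        ∀ o ∈ R, ∀ j ∈ S,
          (((extO (J n) (l1 n) (m n)).filter fun p => φ n j p = φ n j o).card : ℝ) ≤
            4 * S.card * ((R.filter fun p => φ n j p = φ n j o).card : ℝ)
    · obtain ⟨R, h1, h2⟩ := h
      exact ⟨R, h1, fun _ => h2⟩
    · exact ⟨∅, empty_subset _, fun h' => absurd h' h⟩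
  choose R hR1 hR2 using hch
  exact ⟨R, hR1, hev.mono fun n hn => hR2 n hn⟩

end Crest.Agent.R136.Dia770
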