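import Mathlib
import Crest.Agent.R138.Ps2s_627

/-!
# R136: pruning with balls (helper779)

`prune_balls` (finite): `J ⊆ I`, finitely many pairs of relations `R p` (large balls) and `r p` (small
balls), two small balls which meet have centres in one large ball.  Then `J` contains a part `J'` with
`θ p * #(I ∩ r p i) ≤ #(J' ∩ R p i)` for ALL `p` and all `i ∈ J'` (removal cascade included), and at
most `∑ p, θ p` of `I` is lost.

`prune_ball_seq` : sequences, countably many pairs of relations.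
-/

set_option autoImplicit false
set_option linter.unusedVariables false
set_option linter.unusedSectionVars false

open Finset Filter Topology

namespace Crest.Agent.R136.Prn779

open Classical in
/-- disjoint small balls -/
theorem sum_centres {ι : Type*} (I C : Finset ι) (r : ι → ι → Prop)
    (hd : ∀ c ∈ C, ∀ c' ∈ C, c ≠ c' → ∀ l ∈ I, ¬ (r c l ∧ r c' l)) :
    ∑ c ∈ C, ((I.filter fun l => r c l).card : ℝ) ≤ (I.card : ℝ) := by
  have h1 : (C.biUnion fun c => I.filter fun l => r c l).card =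
      ∑ c ∈ C, (I.filter fun l => r c l).card := by
    refine card_biUnion ?_
    intro c hc c' hc' hne
    refine disjoint_left.2 ?_
    intro l hl hl'
    rw [mem_filter] at hl hl'
    exact hd c hc c' hc' hne l hl.1 ⟨hl.2, hl'.2⟩
  have h2 : (C.biUnion fun c => I.filter fun l => r c l) ⊆ I := by
    intro l hl
    obtain ⟨c, -, hl⟩ := mem_biUnion.1 hl
    exact (mem_filter.1 hl).1
  have h3 := card_le_card h2
  rw [h1] at h3
  exact_mod_cast h3

open Classical in
/-- state of the removal -/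
structure Inv {ι P : Type*} (I J : Finset ι) (S : Finset P) (R r : P → ι → ι → Prop)
    (θ : P → ℝ) (J' : Finset ι) (C : P → Finset ι) : Prop where
  sub : J' ⊆ J
  cen : ∀ p ∈ S, C p ⊆ I
  dis : ∀ p ∈ S, ∀ c ∈ C p, ∀ c' ∈ C p, c ≠ c' → ∀ l ∈ I, ¬ (r p c l ∧ r p c' l)
  out : ∀ p ∈ S, ∀ c ∈ C p, ∀ l ∈ J', ¬ R p c l
  cnt : (J.card : ℝ) ≤ (J'.card : ℝ) +
    ∑ p ∈ S, θ p * ∑ c ∈ C p, ((I.filter fun l => r p c l).card : ℝ)

open Classical in
/-- **pruning with balls** (with the cascade) -/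
theorem prune_balls {ι P : Type*} (I J : Finset ι) (hJ : J ⊆ I) (S : Finset P)
    (R r : P → ι → ι → Prop) (θ : P → ℝ) (hθ : ∀ p ∈ S, 0 ≤ θ p)
    (hself : ∀ p ∈ S, ∀ i ∈ I, R p i i)
    (hdisj : ∀ p ∈ S, ∀ i ∈ I, ∀ j ∈ I, ∀ l ∈ I, r p i l → r p j l → R p i j) :
    ∃ J' ⊆ J, (J.card : ℝ) ≤ (J'.card : ℝ) + (∑ p ∈ S, θ p) * (I.card : ℝ) ∧
      ∀ p ∈ S, ∀ i ∈ J', θ p * ((I.filter fun l => r p i l).card : ℝ) ≤
        ((J'.filter fun l => R p i l).card : ℝ) := by
  have hex : ∃ k : ℕ, ∃ (J' : Finset ι) (C : P → Finset ι), Inv I J S R r θ J' C ∧ J'.card = k :=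
    ⟨J.card, J, fun _ => ∅, ⟨Subset.refl _, by simp, by simp, by simp, by simp⟩, rfl⟩
  obtain ⟨J', C, hI, hk⟩ := Nat.find_spec hex
  have hmin := fun k (hk : k < Nat.find hex) => Nat.find_min hex hk
  refine ⟨J', hI.sub, ?_, ?_⟩
  · refine hI.cnt.trans (add_le_add le_rfl ?_)
    rw [sum_mul]
    refine sum_le_sum fun p hp => mul_le_mul_of_nonneg_left ?_ (hθ p hp)
    exact sum_centres I (C p) (r p) (hI.dis p hp)
  · intro p hp i hi
    by_contra hc
    push Not at hc
    have hiI : i ∈ I := hJ (hI.sub hi)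
    set J'' := J'.filter fun l => ¬ R p i l with hJ''
    have hlt : J''.card < J'.card := by
      refine card_lt_card ((ssubset_iff_of_subset (filter_subset _ _)).2 ⟨i, hi, ?_⟩)
      rw [mem_filter]
      exact fun h => h.2 (hself p hp i hiI)
    have hiC : i ∉ C p := fun h => hI.out p hp i h i hi (hself p hp i hiI)
    refine hmin J''.card (hk ▸ hlt) ⟨J'', Function.update C p (insert i (C p)), ?_, rfl⟩
    have hupd : ∀ p' ∈ S, ∀ c, c ∈ Function.update C p (insert i (C p)) p' →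
        c ∈ C p' ∨ (p' = p ∧ c = i) := by
      intro p' hp' c hc'
      by_cases h : p' = p
      · subst h
        rw [Function.update_self] at hc'
        rcases mem_insert.1 hc' with h1 | h1
        · exact Or.inr ⟨rfl, h1⟩
        · exact Or.inl h1
      · rw [Function.update_of_ne h] at hc'
        exact Or.inl hc'
    refine ⟨(filter_subset _ _).trans hI.sub, ?_, ?_, ?_, ?_⟩
    · intro p' hp' c hc'
      rcases hupd p' hp' c hc' with h | ⟨-, rfl⟩
      · exact hI.cen p' hp' h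
      · exact hiI
    · intro p' hp' c hc1 c' hc2 hne l hl hrl
      rcases hupd p' hp' c hc1 with h1 | ⟨rfl, rfl⟩
      · rcases hupd p' hp' c' hc2 with h2 | ⟨rfl, rfl⟩
        · exact hI.dis p' hp' c h1 c' h2 hne l hl hrl
        · exact hI.out p' hp' c h1 c' hi
            (hdisj p' hp' c (hI.cen p' hp' h1) c' hiI l hl hrl.1 hrl.2)
      · rcases hupd p' hp' c' hc2 with h2 | ⟨-, rfl⟩
        · exact hI.out p' hp' c' h2 c hi
            (hdisj p' hp' c' (hI.cen p' hp' h2) c hiI l hl hrl.2 hrl.1)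
        · exact hne rfl
    · intro p' hp' c hc' l hl
      rw [hJ'', mem_filter] at hl
      rcases hupd p' hp' c hc' with h | ⟨rfl, rfl⟩
      · exact hI.out p' hp' c h l hl.1
      · exact hl.2
    · have e1 : (J'.card : ℝ) = ((J'.filter fun l => R p i l).card : ℝ) + (J''.card : ℝ) := by
        exact_mod_cast (card_filter_add_card_filter_not (s := J') fun l => R p i l).symm
      set W : P → ι → ℝ := fun p c => ((I.filter fun l => r p c l).card : ℝ) with hW
      have e2 : ∑ p' ∈ S, θ p' * ∑ c ∈ (Function.update C p (insert i (C p))) p', W p' c =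
          ∑ p' ∈ S, θ p' * ∑ c ∈ C p', W p' c + θ p * W p i := by
        rw [← add_sum_erase S _ hp, ← add_sum_erase S (fun p' => θ p' * ∑ c ∈ C p', W p' c) hp]
        have e3 : ∑ x ∈ S.erase p, θ x * ∑ c ∈ (Function.update C p (insert i (C p))) x, W x c =
            ∑ x ∈ S.erase p, θ x * ∑ c ∈ C x, W x c := by
          refine sum_congr rfl fun x hx => ?_
          rw [Function.update_of_ne (ne_of_mem_erase hx)]
        rw [e3, Function.update_self, sum_insert hiC]
        ring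
      have h1 := hI.cnt
      have h2 : ∑ p' ∈ S, θ p' * ∑ c ∈ (Function.update C p (insert i (C p))) p',
          (((I.filter fun l => r p' c l).card : ℕ) : ℝ) =
          ∑ p' ∈ S, θ p' * ∑ c ∈ C p', (((I.filter fun l => r p' c l).card : ℕ) : ℝ) +
          θ p * (((I.filter fun l => r p i l).card : ℕ) : ℝ) := e2
      rw [h2]
      linarith

/-! ### sequences -/

open Crest.Agent.R138.Ex926 (Base U exists_diag)
open Crest.Agent.R138.Dp76
open Crest.Agent.R138.Ps627 Crest.Agent.R138.Ps926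

section

variable {B : Base} {α : ℕ → Type*} {I : ∀ n, Finset (α n)}

open Classical in
/-- **pruning with balls, sequences**, countably many pairs of relations -/
theorem prune_ball_seq {J : ∀ n, Finset (α n)} (hJ : Dense B J I)
    (R r : ℕ → ∀ n, α n → α n → Prop)
    (hself : ∀ j, ∀ᶠ n in (U : Filter ℕ), ∀ i ∈ I n, R j n i i)
    (hdisj : ∀ j, ∀ᶠ n in (U : Filter ℕ), ∀ i ∈ I n, ∀ i' ∈ I n, ∀ l ∈ I n,
      r j n i l → r j n i' l → R j n i i') :
    ∃ J' : ∀ n, Finset (α n), (∀ n, J' n ⊆ J n) ∧ (∀ n, J' n ⊆ I n) ∧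
      (∀ᶠ n in (U : Filter ℕ), ((J n).card : ℝ) ≤ 2 * ((J' n).card : ℝ)) ∧
      ∀ j, ∀ ε : ℝ, 0 < ε → ∀ᶠ n in (U : Filter ℕ), ∀ i ∈ J' n,
        B.d n ^ ε * (((I n).filter fun l => r j n i l).card : ℝ) ≤
          (((J' n).filter fun l => R j n i l).card : ℝ) := by
  set e : ℕ → ℝ := fun k => 1 / ((k : ℝ) + 1) with he
  have he0 : ∀ k, 0 < e k := fun k => by simp only [he]; positivity
  set Q : ℕ → ℕ → Prop := fun k n => J n ⊆ I n ∧ B.d n ^ e k * ((I n).card : ℝ) ≤ ((J n).card : ℝ) ∧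
    B.d n ^ e k ≤ 1 / (2 * ((k : ℝ) + 1)) ∧ (∀ j ∈ range (k + 1), (∀ i ∈ I n, R j n i i) ∧
      ∀ i ∈ I n, ∀ i' ∈ I n, ∀ l ∈ I n, r j n i l → r j n i' l → R j n i i') with hQ
  have hQev : ∀ k, ∀ᶠ n in (U : Filter ℕ), Q k n := by
    intro k
    have h1 : ∀ᶠ n in (U : Filter ℕ), ∀ j ∈ range (k + 1), (∀ i ∈ I n, R j n i i) ∧
        ∀ i ∈ I n, ∀ i' ∈ I n, ∀ l ∈ I n, r j n i l → r j n i' l → R j n i i' := by
      rw [Filter.eventually_all_finset]
      intro j _
      exact (hself j).and (hdisj j)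
    filter_upwards [hJ.1, hJ.2 (e k) (he0 k),
      dpow_small B (he0 k) (ε := 1 / (2 * ((k : ℝ) + 1))) (by positivity), h1] with n a b c d
    exact ⟨a, b, c.le, d⟩
  obtain ⟨k, hk, hk2⟩ := exists_diag Q hQev
  have hgood : ∀ᶠ n in (U : Filter ℕ), Q (k n) n := by
    filter_upwards [hk2] with n hn using hn _ le_rfl
  have hstep : ∀ n, ∃ J' : Finset (α n), (J' ⊆ J n ∧ J' ⊆ I n) ∧ (Q (k n) n →
      ((J n).card : ℝ) ≤ 2 * (J'.card : ℝ) ∧ ∀ j ≤ k n, ∀ i ∈ J',
        B.d n ^ e (k n) * B.d n ^ e (k n) * (((I n).filter fun l => r j n i l).card : ℝ) ≤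
          ((J'.filter fun l => R j n i l).card : ℝ)) := by
    intro n
    by_cases hq : Q (k n) n
    · obtain ⟨a, b, c, d⟩ := hq
      have hp := dpow_pos B n (e (k n))
      obtain ⟨J', h1, h2, h3⟩ := prune_balls (I n) (J n) a (range (k n + 1))
        (fun j => R j n) (fun j => r j n) (fun _ => B.d n ^ e (k n) * B.d n ^ e (k n))
        (fun _ _ => (mul_pos hp hp).le) (fun j hj => (d j hj).1) (fun j hj => (d j hj).2)
      refine ⟨J', ⟨h1, h1.trans a⟩, fun _ => ⟨?_, fun j hj i hi => ?_⟩⟩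
      · rw [sum_const, card_range, nsmul_eq_mul] at h2
        push_cast at h2
        have hk1 : (0 : ℝ) < (k n : ℝ) + 1 := by positivity
        have h4 : ((k n : ℝ) + 1) * (B.d n ^ e (k n) * B.d n ^ e (k n)) * ((I n).card : ℝ) ≤
            1 / 2 * ((J n).card : ℝ) := by
          calc ((k n : ℝ) + 1) * (B.d n ^ e (k n) * B.d n ^ e (k n)) * ((I n).card : ℝ)
              = (((k n : ℝ) + 1) * B.d n ^ e (k n)) * (B.d n ^ e (k n) * (I n).card) := by ring
            _ ≤ (((k n : ℝ) + 1) * (1 / (2 * ((k n : ℝ) + 1)))) * ((J n).card : ℝ) := by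
                refine mul_le_mul (mul_le_mul_of_nonneg_left c hk1.le) b (by positivity)
                  (by positivity)
            _ = 1 / 2 * ((J n).card : ℝ) := by field_simp
        linarith
      · exact h3 j (mem_range.2 (Nat.lt_succ_of_le hj)) i hi
    · exact ⟨∅, ⟨empty_subset _, empty_subset _⟩, fun h => absurd h hq⟩
  choose J' hJ' hJ'' using hstep
  refine ⟨J', fun n => (hJ' n).1, fun n => (hJ' n).2, ?_, ?_⟩
  · filter_upwards [hgood] with n hn using (hJ'' n hn).1
  · intro j ε hε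
    have h1 : ∀ᶠ n in (U : Filter ℕ), e (k n) ≤ ε / 2 := by
      have h2 : Tendsto e atTop (𝓝 0) := tendsto_one_div_add_atTop_nhds_zero_nat
      have h3 := (h2.comp hk).eventually_lt_const (show (0 : ℝ) < ε / 2 by positivity)
      filter_upwards [h3] with n hn using hn.le
    filter_upwards [hgood, h1, hk.eventually_ge_atTop j] with n a b c i hi
    refine le_trans (mul_le_mul_of_nonneg_right ?_ (Nat.cast_nonneg _)) ((hJ'' n a).2 j c i hi)
    rw [← dpow_add]
    exact dpow_le B n (by linarith)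

end

end Crest.Agent.R136.Prn779
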