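import Mathlib
import Crest.Agent.R136.Gr1_356
import Crest.Agent.R136.Prn1_779

/-!
# R136: refinement of relative models (helper779)

`RUnif.refine`, `RModel.refine` : every dense part `J` of a uniform relative configuration contains a
dense part `I'` which is again a uniform configuration with the SAME exponents `ν`, the same legal
set and the same loss constant; in addition countably many pairs of relations of the user (small balls
`ru`, large balls `Ru`, for instance: same line and nearby heights) keep a `ρ^ε` share.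
-/

set_option autoImplicit false
set_option linter.unusedVariables false
set_option linter.unusedSectionVars false

open Finset Filter Topology

namespace Crest.Agent.R136.Prn779

open Crest.Agent.R138.Ex926 (Base U exists_diag)
open Crest.Agent.R138.Dp76
open Crest.Agent.R138.Ps627 Crest.Agent.R138.Ps926
open Crest.Agent.R136.Gf356

/-! ### countable index types -/

section

variable {B : Base} {α : ℕ → Type*} {I : ∀ n, Finset (α n)}

open Classical in
/-- `prune_ball_seq` for a countable index type -/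
theorem prune_ball_cnt {P : Type*} [Countable P] {J : ∀ n, Finset (α n)} (hJ : Dense B J I)
    (R r : P → ∀ n, α n → α n → Prop)
    (hself : ∀ j, ∀ᶠ n in (U : Filter ℕ), ∀ i ∈ I n, R j n i i)
    (hdisj : ∀ j, ∀ᶠ n in (U : Filter ℕ), ∀ i ∈ I n, ∀ i' ∈ I n, ∀ l ∈ I n,
      r j n i l → r j n i' l → R j n i i') :
    ∃ J' : ∀ n, Finset (α n), (∀ n, J' n ⊆ J n) ∧ (∀ n, J' n ⊆ I n) ∧
      (∀ᶠ n in (U : Filter ℕ), ((J n).card : ℝ) ≤ 2 * ((J' n).card : ℝ)) ∧
      ∀ j, ∀ ε : ℝ, 0 < ε → ∀ᶠ n in (U : Filter ℕ), ∀ i ∈ J' n,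
        B.d n ^ ε * (((I n).filter fun l => r j n i l).card : ℝ) ≤
          (((J' n).filter fun l => R j n i l).card : ℝ) := by
  obtain ⟨en, hen⟩ := exists_surjective_nat (Option P)
  obtain ⟨J', h1, h2, h3, h4⟩ := prune_ball_seq hJ
    (fun k n x y => match en k with
      | none => True
      | some j => R j n x y)
    (fun k n x y => match en k with
      | none => True
      | some j => r j n x y)
    (fun k => by
      rcases hk : en k with _ | j
      · exact Eventually.of_forall fun n i _ => trivial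
      · exact hself j)
    (fun k => by
      rcases hk : en k with _ | j
      · exact Eventually.of_forall fun n i _ i' _ l _ _ _ => trivial
      · exact hdisj j)
  refine ⟨J', h1, h2, h3, fun j ε hε => ?_⟩
  obtain ⟨k, hk⟩ := hen (some j)
  have := h4 k ε hε
  simp only [hk] at this
  exact this

end

/-! ### exponents of a uniform configuration are Lipschitz -/

variable {κ : Type} {B : Base} {G : ℕ → RCfg κ} {Leg : Set (κ → ℝ)} {ν : (κ → ℝ) → ℝ} {D : ℝ}

/-- `ν q ≤ ν p + D δ` if `|q - p| ≤ δ` -/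
theorem nu_lip (H : RUnif B G Leg ν D) {p q : κ → ℝ} (hp : p ∈ Leg) (hq : q ∈ Leg) {δ : ℝ}
    (hδ : 0 ≤ δ) (hpq : ∀ j, p j ≤ q j + δ) : ν q ≤ ν p + D * δ := by
  have hD := H.D1
  have h : ∀ ε : ℝ, 0 < ε → ν q ≤ ν p + D * δ + (D + 1) * ε := by
    intro ε hε
    have h1 := H.up p hp (δ + ε) (by linarith)
    have h2 := H.low q hq ε hε
    obtain ⟨n, h3, h4⟩ := (h1.and h2).exists
    obtain ⟨⟨i, k⟩, hik⟩ := H.nonempty n
    have h5 : (((G n).box q ε i k).card : ℝ) ≤ (((G n).box p (δ + ε) i k).card : ℝ) := by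
      refine Nat.cast_le.2 (card_le_card fun l hl => ?_)
      obtain ⟨l1, l2⟩ := RCfg.mem_box.1 hl
      refine RCfg.mem_box.2 ⟨l1, fun j => (l2 j).trans ?_⟩
      rw [H.base n]
      exact Gf356.rpow_anti B n (by linarith [hpq j])
    have h6 := (h4 i k hik).trans (h5.trans (h3 i k hik))
    have h7 : -ν p - D * (δ + ε) ≤ -ν q + ε := by
      by_contra hc
      push Not at hc
      have := Real.rpow_lt_rpow_of_exponent_gt (B.pos n) (B.lt n) hc
      linarith
    nlinarith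
  by_contra hc
  push Not at hc
  have h8 := h ((ν q - (ν p + D * δ)) / (2 * (D + 1))) (by
    have : 0 < ν q - (ν p + D * δ) := by linarith
    positivity)
  have h9 : (D + 1) * ((ν q - (ν p + D * δ)) / (2 * (D + 1))) = (ν q - (ν p + D * δ)) / 2 := by
    field_simp
  rw [h9] at h8
  linarith

/-- countable dense set of legal exponents -/
theorem exists_leg_dense (κ : Type) [Finite κ] (Leg : Set (κ → ℝ)) :
    ∃ Q : Set (κ → ℝ), Q.Countable ∧ Q ⊆ Leg ∧ ∀ p ∈ Leg, ∀ δ : ℝ, 0 < δ →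
      ∃ q ∈ Q, ∀ j, |q j - p j| ≤ δ := by
  have : Fintype κ := Fintype.ofFinite κ
  obtain ⟨t, ht, htc, htd⟩ := (TopologicalSpace.IsSeparable.of_separableSpace Leg).exists_countable_dense_subset
  refine ⟨t, htc, ht, fun p hp δ hδ => ?_⟩
  obtain ⟨q, hq, hqd⟩ := Metric.mem_closure_iff.1 (htd hp) δ hδ
  refine ⟨q, hq, fun j => ?_⟩
  have h1 := (dist_pi_lt_iff hδ).1 hqd j
  rw [Real.dist_eq, abs_sub_comm] at h1
  exact h1.le

/-! ### the refined configuration -/

/-- restriction of a configuration to a set of incidences -/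
noncomputable def restr (G : RCfg κ) (I' : Finset (ℕ × ℕ)) : RCfg κ where
  ρ := G.ρ
  L := I'.image Prod.fst
  Z := I'.image Prod.snd
  I := I'
  z := G.z
  rel := G.rel

theorem restr_loose (G : RCfg κ) (I' : Finset (ℕ × ℕ)) (p : κ → ℝ) (ε : ℝ) (k i l : ℕ) :
    (restr G I').loose p ε k i l ↔ G.loose p ε k i l := Iff.rfl

theorem mem_restr_slice {G : RCfg κ} {I' : Finset (ℕ × ℕ)} {i k : ℕ} :
    i ∈ (restr G I').slice k ↔ (i, k) ∈ I' := by
  rw [RCfg.mem_slice]
  exact ⟨fun h => h.2, fun h => ⟨mem_image.2 ⟨(i, k), h, rfl⟩, h⟩⟩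

theorem mem_restr_hts {G : RCfg κ} {I' : Finset (ℕ × ℕ)} {i k : ℕ} :
    k ∈ (restr G I').hts i ↔ (i, k) ∈ I' := by
  rw [RCfg.mem_hts]
  exact ⟨fun h => h.2, fun h => ⟨mem_image.2 ⟨(i, k), h, rfl⟩, h⟩⟩

open Classical in
theorem card_restr_box (G : RCfg κ) (I' : Finset (ℕ × ℕ)) (p : κ → ℝ) (ε : ℝ) (i k : ℕ) :
    ((restr G I').box p ε i k).card =
      (I'.filter fun y => y.2 = k ∧ G.loose p ε k i y.1).card := by
  refine card_bij (fun l _ => (l, k)) ?_ ?_ ?_
  · intro l hl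
    obtain ⟨l1, l2⟩ := RCfg.mem_box.1 hl
    exact mem_filter.2 ⟨mem_restr_slice.1 l1, rfl, l2⟩
  · intro a _ b _ h
    exact (Prod.mk.inj h).1
  · rintro ⟨l, k'⟩ hl
    obtain ⟨h1, h2, h3⟩ := mem_filter.1 hl
    simp only at h2 h3
    subst h2
    exact ⟨l, RCfg.mem_box.2 ⟨mem_restr_slice.2 h1, h3⟩, rfl⟩

open Classical in
theorem card_restr_hts (G : RCfg κ) (I' : Finset (ℕ × ℕ)) (i : ℕ) :
    ((restr G I').hts i).card = (I'.filter fun y => y.1 = i).card := by
  refine card_bij (fun l _ => (i, l)) ?_ ?_ ?_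
  · intro l hl
    exact mem_filter.2 ⟨mem_restr_hts.1 hl, rfl⟩
  · intro a _ b _ h
    exact (Prod.mk.inj h).2
  · rintro ⟨l, k'⟩ hl
    obtain ⟨h1, h2⟩ := mem_filter.1 hl
    simp only at h2
    subst h2
    exact ⟨k', mem_restr_hts.2 h1, rfl⟩

open Classical in
theorem card_restr_slice (G : RCfg κ) (I' : Finset (ℕ × ℕ)) (k : ℕ) :
    ((restr G I').slice k).card = (I'.filter fun y => y.2 = k).card := by
  refine card_bij (fun l _ => (l, k)) ?_ ?_ ?_
  · intro l hl
    exact mem_filter.2 ⟨mem_restr_slice.1 hl, rfl⟩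
  · intro a _ b _ h
    exact (Prod.mk.inj h).1
  · rintro ⟨l, k'⟩ hl
    obtain ⟨h1, h2⟩ := mem_filter.1 hl
    simp only at h2
    subst h2
    exact ⟨l, mem_restr_slice.2 h1, rfl⟩

theorem RUnif.card_box (H : RUnif B G Leg ν D) (n : ℕ) (p : κ → ℝ) (ε : ℝ) (i k : ℕ) :
    ((restr (G n) (G n).I).box p ε i k).card = ((G n).box p ε i k).card := by
  congr 1
  ext l
  rw [RCfg.mem_box, RCfg.mem_box, mem_restr_slice, H.memSlice, restr_loose]

theorem RUnif.hts_eq (H : RUnif B G Leg ν D) (n : ℕ) (i : ℕ) :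
    (restr (G n) (G n).I).hts i = (G n).hts i := by
  ext l
  rw [mem_restr_hts, H.memHts]

theorem RUnif.slice_eq (H : RUnif B G Leg ν D) (n : ℕ) (k : ℕ) :
    (restr (G n) (G n).I).slice k = (G n).slice k := by
  ext l
  rw [mem_restr_slice, H.memSlice]

/-- the fields of `RUnif` which are inherited by every non-empty part with enough lines in the boxes -/
theorem RUnif.restrict (H : RUnif B G Leg ν D) {G' : ℕ → RCfg κ} {I' : ℕ → Finset (ℕ × ℕ)}
    (hsub : ∀ n, I' n ⊆ (G n).I) (hne : ∀ n, (I' n).Nonempty)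
    (hlow : ∀ p ∈ Leg, ∀ ε : ℝ, 0 < ε → ∀ᶠ n in (U : Filter ℕ), ∀ i k, (i, k) ∈ I' n →
      B.d n ^ (-ν p + ε) ≤ (((restr (G n) (I' n)).box p ε i k).card : ℝ)) :
    RUnif B (fun n => restr (G n) (I' n)) Leg ν D where
  D1 := H.D1
  base := H.base
  sub := by
    rintro n ⟨i, k⟩ h
    exact mem_product.2 ⟨mem_image.2 ⟨(i, k), h, rfl⟩, mem_image.2 ⟨(i, k), h, rfl⟩⟩
  nonempty := hne
  refl := fun n k i h j => H.refl n k i (hsub n h) j
  symm := fun p hp ε hε => by
    filter_upwards [H.symm p hp ε hε] with n hn k i l h1 h2 h3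
    exact hn k i l (hsub n h1) (hsub n h2) h3
  tri := fun p hp ε hε => by
    filter_upwards [H.tri p hp ε hε] with n hn k i l m h1 h2 h3 h4 h5
    exact hn k i l m (hsub n h1) (hsub n h2) (hsub n h3) h4 h5
  low := hlow
  up := fun p hp ε hε => by
    filter_upwards [H.up p hp ε hε] with n hn i k h1
    refine le_trans (Nat.cast_le.2 (card_le_card fun l hl => ?_)) (hn i k (hsub n h1))
    obtain ⟨l1, l2⟩ := RCfg.mem_box.1 hl
    exact RCfg.mem_box.2 ⟨H.memSlice.2 (hsub n (mem_restr_slice.1 l1)), l2⟩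

open Classical in
/-- **(refine)** dense parts of uniform relative configurations, core form: the new incidences `I'`,
shares of the lines, of the heights and of the balls of the user. -/
theorem RUnif.refine_core [Finite κ] (H : RUnif B G Leg ν D) {J : ℕ → Finset (ℕ × ℕ)}
    (hJ : Dense B J (fun n => (G n).I)) {P : Type*} [Countable P]
    (Ru ru : P → ∀ n, ℕ × ℕ → ℕ × ℕ → Prop)
    (hself : ∀ j, ∀ᶠ n in (U : Filter ℕ), ∀ i ∈ (G n).I, Ru j n i i)
    (hdisj : ∀ j, ∀ᶠ n in (U : Filter ℕ), ∀ i ∈ (G n).I, ∀ i' ∈ (G n).I, ∀ l ∈ (G n).I,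
      ru j n i l → ru j n i' l → Ru j n i i') :
    ∃ I' : ℕ → Finset (ℕ × ℕ), (∀ n, I' n ⊆ (G n).I) ∧ (∀ᶠ n in (U : Filter ℕ), I' n ⊆ J n) ∧
      (∀ᶠ n in (U : Filter ℕ), ((J n).card : ℝ) ≤ 2 * ((I' n).card : ℝ)) ∧
      RUnif B (fun n => restr (G n) (I' n)) Leg ν D ∧
      (∀ ε : ℝ, 0 < ε → ∀ᶠ n in (U : Filter ℕ), ∀ i k, (i, k) ∈ I' n →
        B.d n ^ ε * (((G n).hts i).card : ℝ) ≤ (((restr (G n) (I' n)).hts i).card : ℝ) ∧
        B.d n ^ ε * (((G n).slice k).card : ℝ) ≤ (((restr (G n) (I' n)).slice k).card : ℝ)) ∧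
      ∀ j, ∀ ε : ℝ, 0 < ε → ∀ᶠ n in (U : Filter ℕ), ∀ i ∈ I' n,
        B.d n ^ ε * ((((G n).I).filter fun l => ru j n i l).card : ℝ) ≤
          (((I' n).filter fun l => Ru j n i l).card : ℝ) := by
  have hD := H.D1
  obtain ⟨Q, hQc, hQL, hQd⟩ := exists_leg_dense κ Leg
  have : Countable Q := hQc.to_subtype
  have he : ∀ m : ℕ, (0 : ℝ) < 1 / ((m : ℝ) + 1) := fun m => by positivity
  obtain ⟨J', h1, h2, h3, h4⟩ := prune_ball_cnt (P := P ⊕ Bool ⊕ (Q × ℕ)) hJ
    (fun j n x y => match j with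
      | .inl j => Ru j n x y
      | .inr (.inl true) => y.1 = x.1
      | .inr (.inl false) => y.2 = x.2
      | .inr (.inr (q, m)) => y.2 = x.2 ∧
          (G n).loose q.1 (D ^ 2 * (1 / ((m : ℝ) + 1))) x.2 x.1 y.1)
    (fun j n x y => match j with
      | .inl j => ru j n x y
      | .inr (.inl true) => y.1 = x.1
      | .inr (.inl false) => y.2 = x.2
      | .inr (.inr (q, m)) => y.2 = x.2 ∧ (G n).loose q.1 (1 / ((m : ℝ) + 1)) x.2 x.1 y.1)
    (fun j => by
      rcases j with j | j | ⟨q, m⟩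
      · exact hself j
      · cases j
        · exact Eventually.of_forall fun n i _ => rfl
        · exact Eventually.of_forall fun n i _ => rfl
      · exact Eventually.of_forall fun n i hi => ⟨rfl, H.loose_self _ _ hi⟩)
    (fun j => by
      rcases j with j | j | ⟨q, m⟩
      · exact hdisj j
      · cases j
        · exact Eventually.of_forall fun n i _ i' _ l _ a b => b.symm.trans a
        · exact Eventually.of_forall fun n i _ i' _ l _ a b => b.symm.trans a
      · have e1 := H.symm q.1 (hQL q.2) _ (he m)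
        have e2 := H.tri q.1 (hQL q.2) (D * (1 / ((m : ℝ) + 1))) (mul_pos (by linarith) (he m))
        filter_upwards [e1, e2] with n a1 a2 i hi i' hi' l hl b1 b2
        obtain ⟨b1, b3⟩ := b1
        obtain ⟨b2, b4⟩ := b2
        have c1 : i'.2 = i.2 := b2.symm.trans b1
        refine ⟨c1, ?_⟩
        obtain ⟨i0, k0⟩ := i
        obtain ⟨i1, k1⟩ := i'
        obtain ⟨l0, k2⟩ := l
        simp only at c1 b1 b2 b3 b4 ⊢
        subst c1
        subst b2
        have d1 := a1 k2 i1 l0 hi' hl b4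
        have d2 : (G n).loose q.1 (D * (1 / ((m : ℝ) + 1))) k2 i0 l0 :=
          H.loose_mono (fun _ => le_rfl) (by nlinarith [he m]) b3
        have d3 := a2 k2 i0 l0 i1 hi hl hi' d2 d1
        have d4 : D * (D * (1 / ((m : ℝ) + 1))) = D ^ 2 * (1 / ((m : ℝ) + 1)) := by ring
        rw [d4] at d3
        exact d3)
  have hJne : ∀ᶠ n in (U : Filter ℕ), (J' n).Nonempty := by
    filter_upwards [hJ.nonempty (Eventually.of_forall H.nonempty), h3] with n a1 a2
    have b1 : (0 : ℝ) < ((J n).card : ℝ) := by exact_mod_cast card_pos.2 a1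
    have b2 : (0 : ℝ) < ((J' n).card : ℝ) := by linarith
    exact card_pos.1 (by exact_mod_cast b2)
  set I' : ℕ → Finset (ℕ × ℕ) := fun n => if (J' n).Nonempty then J' n else (G n).I with hI'
  have hI'e : ∀ᶠ n in (U : Filter ℕ), I' n = J' n := by
    filter_upwards [hJne] with n hn
    simp only [hI', if_pos hn]
  have hI's : ∀ n, I' n ⊆ (G n).I := by
    intro n
    simp only [hI']
    split_ifs with h
    · exact h2 n
    · exact Subset.refl _
  have hI'n : ∀ n, (I' n).Nonempty := by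
    intro n
    simp only [hI']
    split_ifs with h
    · exact h
    · exact H.nonempty n
  refine ⟨I', hI's, ?_, ?_, ?_, ?_, ?_⟩
  · filter_upwards [hI'e] with n hn
    rw [hn]; exact h1 n
  · filter_upwards [hI'e, h3] with n hn a
    rw [hn]; exact a
  · refine RUnif.restrict H (G' := G) hI's hI'n ?_
    intro p hp ε hε
    -- a close exponent
    have hD2 : 0 < D ^ 2 := by positivity
    obtain ⟨q, hq, hqp⟩ := hQd p hp (ε / (4 * D)) (by positivity)
    obtain ⟨m, hm⟩ := exists_nat_one_div_lt (show 0 < ε / (4 * D ^ 2) by positivity)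
    have hqL := hQL hq
    have e1 : ν p ≤ ν q + D * (ε / (4 * D)) := nu_lip H hqL hp (by positivity) fun j => by
      have := (abs_le.1 (hqp j)).2; linarith
    have e2 : D * (ε / (4 * D)) = ε / 4 := by field_simp
    rw [e2] at e1
    have e3 : D ^ 2 * (1 / ((m : ℝ) + 1)) ≤ ε / 4 := by
      calc D ^ 2 * (1 / ((m : ℝ) + 1)) ≤ D ^ 2 * (ε / (4 * D ^ 2)) :=
            mul_le_mul_of_nonneg_left hm.le hD2.le
        _ = ε / 4 := by field_simp
    have e4 : ε / (4 * D) ≤ ε / 4 := by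
      apply div_le_div_of_nonneg_left hε.le (by norm_num) (by linarith)
    have e5 : 1 / ((m : ℝ) + 1) ≤ ε / 4 := by
      have := he m
      nlinarith
    filter_upwards [hI'e, h4 (.inr (.inr (⟨q, hq⟩, m))) (ε / 4) (by positivity),
      H.low q hqL _ (he m)] with n a1 a2 a3 i k hik
    rw [a1] at hik ⊢
    have b1 := a2 (i, k) hik
    simp only at b1
    have b2 := a3 i k (h2 n hik)
    rw [← RUnif.card_box H, card_restr_box] at b2
    rw [card_restr_box]
    have b3 : B.d n ^ (-ν p + ε) ≤ B.d n ^ (ε / 4) * B.d n ^ (-ν q + 1 / ((m : ℝ) + 1)) := by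
      rw [← dpow_add]
      exact dpow_le B n (by linarith)
    refine b3.trans ((mul_le_mul_of_nonneg_left b2 (dpow_pos B n _).le).trans
      (b1.trans (Nat.cast_le.2 (card_le_card fun y hy => ?_))))
    rw [mem_filter] at hy ⊢
    refine ⟨hy.1, hy.2.1, fun j => (hy.2.2 j).trans ?_⟩
    rw [H.base n]
    refine Gf356.rpow_anti B n ?_
    have := (abs_le.1 (hqp j)).1
    linarith
  · intro ε hε
    filter_upwards [hI'e, h4 (.inr (.inl true)) ε hε, h4 (.inr (.inl false)) ε hε]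
      with n a1 a2 a3 i k hik
    rw [a1] at hik ⊢
    rw [← RUnif.hts_eq H, ← RUnif.slice_eq H, card_restr_hts, card_restr_hts, card_restr_slice,
      card_restr_slice]
    have b1 := a2 (i, k) hik
    have b2 := a3 (i, k) hik
    simp only at b1 b2
    refine ⟨?_, ?_⟩
    · convert b1
    · convert b2
  · intro j ε hε
    filter_upwards [hI'e, h4 (.inl j) ε hε] with n a1 a2 i hi
    rw [a1] at hi ⊢
    exact a2 i hi

open Classical in
/-- **(refine)** dense parts of relative models. -/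
theorem RModel.refine_core [Finite κ] {σ R : ℝ} (H : RModel B G σ R Leg ν D)
    {J : ℕ → Finset (ℕ × ℕ)} (hJ : Dense B J (fun n => (G n).I)) {P : Type*} [Countable P]
    (Ru ru : P → ∀ n, ℕ × ℕ → ℕ × ℕ → Prop)
    (hself : ∀ j, ∀ᶠ n in (U : Filter ℕ), ∀ i ∈ (G n).I, Ru j n i i)
    (hdisj : ∀ j, ∀ᶠ n in (U : Filter ℕ), ∀ i ∈ (G n).I, ∀ i' ∈ (G n).I, ∀ l ∈ (G n).I,
      ru j n i l → ru j n i' l → Ru j n i i') :
    ∃ I' : ℕ → Finset (ℕ × ℕ), (∀ n, I' n ⊆ (G n).I) ∧ (∀ᶠ n in (U : Filter ℕ), I' n ⊆ J n) ∧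
      (∀ᶠ n in (U : Filter ℕ), ((J n).card : ℝ) ≤ 2 * ((I' n).card : ℝ)) ∧
      RModel B (fun n => restr (G n) (I' n)) σ R Leg ν D ∧
      (∀ ε : ℝ, 0 < ε → ∀ᶠ n in (U : Filter ℕ), ∀ i k, (i, k) ∈ I' n →
        B.d n ^ ε * (((G n).hts i).card : ℝ) ≤ (((restr (G n) (I' n)).hts i).card : ℝ) ∧
        B.d n ^ ε * (((G n).slice k).card : ℝ) ≤ (((restr (G n) (I' n)).slice k).card : ℝ)) ∧
      ∀ j, ∀ ε : ℝ, 0 < ε → ∀ᶠ n in (U : Filter ℕ), ∀ i ∈ I' n,
        B.d n ^ ε * ((((G n).I).filter fun l => ru j n i l).card : ℝ) ≤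
          (((I' n).filter fun l => Ru j n i l).card : ℝ) := by
  obtain ⟨I', h1, h2, h3, h4, h5, h6⟩ := RUnif.refine_core H.toRUnif hJ Ru ru hself hdisj
  have hZ : ∀ n, (restr (G n) (I' n)).Z ⊆ (G n).Z := by
    intro n k hk
    obtain ⟨y, hy, rfl⟩ := mem_image.1 hk
    exact H.toRUnif.memZ (i := y.1) (h1 n hy)
  have hL : ∀ n, (restr (G n) (I' n)).L ⊆ (G n).L := by
    intro n k hk
    obtain ⟨y, hy, rfl⟩ := mem_image.1 hk
    exact H.toRUnif.memL (k := y.2) (h1 n hy)
  have hsplit : ∀ (n : ℕ) (ε : ℝ), B.d n ^ ε = B.d n ^ (ε / 2) * B.d n ^ (ε / 2) := by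
    intro n ε
    rw [← dpow_add]; congr 1; ring
  have hline : ∀ ε : ℝ, 0 < ε → ∀ᶠ n in (U : Filter ℕ), ∀ i ∈ (restr (G n) (I' n)).L,
      B.d n ^ ε * ((G n).Z.card : ℝ) ≤ (((restr (G n) (I' n)).hts i).card : ℝ) := by
    intro ε hε
    filter_upwards [H.line (ε / 2) (by positivity), h5 (ε / 2) (by positivity)] with n a1 a2 i hi
    obtain ⟨⟨i, k⟩, hy, rfl⟩ := mem_image.1 hi
    have b1 := (a2 i k hy).1
    have b2 := a1 i (H.toRUnif.memL (h1 n hy))
    rw [hsplit n ε, mul_assoc]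
    exact (mul_le_mul_of_nonneg_left b2 (dpow_pos B n _).le).trans b1
  refine ⟨I', h1, h2, h3, ?_, h5, h6⟩
  refine
    { h4 with
      σ_nonneg := H.σ_nonneg
      σ_le := H.σ_le
      line := ?_
      slice := ?_
      frost := ?_ }
  · intro ε hε
    filter_upwards [hline ε hε] with n a1 i hi
    refine le_trans (mul_le_mul_of_nonneg_left ?_ (dpow_pos B n _).le) (a1 i hi)
    exact_mod_cast card_le_card (hZ n)
  · intro ε hε
    filter_upwards [H.slice (ε / 2) (by positivity), h5 (ε / 2) (by positivity)] with n a1 a2 k hk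
    obtain ⟨⟨i, k⟩, hy, rfl⟩ := mem_image.1 hk
    have b1 := (a2 i k hy).2
    have b2 := a1 k (H.toRUnif.memZ (h1 n hy))
    rw [hsplit n ε, mul_assoc]
    refine le_trans (mul_le_mul_of_nonneg_left (le_trans ?_ b2) (dpow_pos B n _).le) b1
    refine mul_le_mul_of_nonneg_left ?_ (dpow_pos B n _).le
    exact_mod_cast card_le_card (hL n)
  · intro x hx0 hxR ε hε
    filter_upwards [H.frost x hx0 hxR (ε / 2) (by positivity), hline (ε / 2) (by positivity)]
      with n a1 a2 k hk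
    have hkZ : k ∈ (G n).Z := hZ n hk
    have b1 := a1 k hkZ
    obtain ⟨⟨i, k⟩, hy, rfl⟩ := mem_image.1 hk
    have b2 := a2 i (mem_image.2 ⟨(i, k), hy, rfl⟩)
    have b3 : (((restr (G n) (I' n)).hts i).card : ℝ) ≤ ((restr (G n) (I' n)).Z.card : ℝ) := by
      exact_mod_cast card_le_card (filter_subset _ _)
    have b4 : (((restr (G n) (I' n)).hbox x k).card : ℝ) ≤ (((G n).hbox x k).card : ℝ) := by
      exact_mod_cast card_le_card (filter_subset_filter _ (hZ n))
    refine b4.trans (b1.trans ?_)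
    have b5 : B.d n ^ (σ * x - ε / 2) = B.d n ^ (σ * x - ε) * B.d n ^ (ε / 2) := by
      rw [← dpow_add]; congr 1; ring
    rw [b5, mul_assoc]
    exact mul_le_mul_of_nonneg_left (b2.trans b3) (dpow_pos B n _).le

open Classical in
/-- **(refine)**, short form -/
theorem RModel.refine [Finite κ] {σ R : ℝ} (H : RModel B G σ R Leg ν D)
    {J : ℕ → Finset (ℕ × ℕ)} (hJ : Dense B J (fun n => (G n).I)) :
    ∃ I' : ℕ → Finset (ℕ × ℕ), (∀ n, I' n ⊆ (G n).I) ∧ (∀ᶠ n in (U : Filter ℕ), I' n ⊆ J n) ∧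
      Dense B I' J ∧ RModel B (fun n => restr (G n) (I' n)) σ R Leg ν D := by
  obtain ⟨I', h1, h2, h3, h4, -, -⟩ := RModel.refine_core H hJ (P := Empty) (fun j => j.elim)
    (fun j => j.elim) (fun j => j.elim) (fun j => j.elim)
  exact ⟨I', h1, h2, dense_of_half (by filter_upwards [h2, h3] with n a b using ⟨a, b⟩), h4⟩

open Classical in
/-- **(refine)**, short form, without heights -/
theorem RUnif.refine [Finite κ] (H : RUnif B G Leg ν D)
    {J : ℕ → Finset (ℕ × ℕ)} (hJ : Dense B J (fun n => (G n).I)) :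
    ∃ I' : ℕ → Finset (ℕ × ℕ), (∀ n, I' n ⊆ (G n).I) ∧ (∀ᶠ n in (U : Filter ℕ), I' n ⊆ J n) ∧
      Dense B I' J ∧ RUnif B (fun n => restr (G n) (I' n)) Leg ν D := by
  obtain ⟨I', h1, h2, h3, h4, -, -⟩ := RUnif.refine_core H hJ (P := Empty) (fun j => j.elim)
    (fun j => j.elim) (fun j => j.elim) (fun j => j.elim)
  exact ⟨I', h1, h2, dense_of_half (by filter_upwards [h2, h3] with n a b using ⟨a, b⟩), h4⟩

end Crest.Agent.R136.Prn779
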