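import Mathlib
import Crest.Agent.R136.Prn2_779

/-!
# R136: popular cells of line labels (helper779)

`RModel.pop_line` : if around every incidence a `ρ^o(1)` share of all lines has (approximately) the same
label, a dense refined part has ONE label.  `RModel.one_cell` : the same with the hypothesis
`ν p1 = ν p0` (zero loss of the label at the class box `p0`, the whole family being one class).
`RModel.one_cell_inf` : zero loss at every precision.
-/

set_option autoImplicit false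
set_option linter.unusedVariables false
set_option linter.unusedSectionVars false

open Finset Filter Topology

namespace Crest.Agent.R136.Prn779

open Crest.Agent.R138.Ex926 (Base U exists_diag)
open Crest.Agent.R138.Dp76
open Crest.Agent.R138.Ps627 Crest.Agent.R138.Ps926
open Crest.Agent.R136.Gf356

variable {κ : Type} {B : Base} {G : ℕ → RCfg κ} {Leg : Set (κ → ℝ)} {ν : (κ → ℝ) → ℝ} {D : ℝ}
  {σ R : ℝ}

open Classical in
/-- incidences of a set of lines -/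
theorem card_lines (H : RModel B G σ R Leg ν D) {ε : ℝ} (hε : 0 < ε) :
    ∀ᶠ n in (U : Filter ℕ), ∀ T ⊆ (G n).L,
      B.d n ^ ε * ((G n).Z.card : ℝ) * (T.card : ℝ) ≤
        ((((G n).I).filter fun y => y.1 ∈ T).card : ℝ) := by
  filter_upwards [H.line ε hε] with n hn T hT
  have h1 : (((G n).I).filter fun y => y.1 ∈ T).card =
      ∑ i ∈ T, ((((G n).I).filter fun y => y.1 ∈ T).filter fun y => y.1 = i).card := by
    refine card_eq_sum_card_fiberwise ?_
    intro y hy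
    exact Finset.mem_coe.2 (mem_filter.1 (Finset.mem_coe.1 hy)).2
  rw [h1]
  push_cast
  have h2 : ∀ i ∈ T, B.d n ^ ε * ((G n).Z.card : ℝ) ≤
      (((((G n).I).filter fun y => y.1 ∈ T).filter fun y => y.1 = i).card : ℝ) := by
    intro i hi
    refine (hn i (hT hi)).trans ?_
    rw [← RUnif.hts_eq H.toRUnif, card_restr_hts]
    refine Nat.cast_le.2 (card_le_card fun y hy => ?_)
    rw [mem_filter] at hy
    rw [mem_filter, mem_filter]
    exact ⟨⟨hy.1, by rw [hy.2]; exact hi⟩, hy.2⟩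
  calc B.d n ^ ε * ((G n).Z.card : ℝ) * (T.card : ℝ)
      = ∑ i ∈ T, B.d n ^ ε * ((G n).Z.card : ℝ) := by rw [sum_const, nsmul_eq_mul]; ring
    _ ≤ _ := sum_le_sum h2

open Classical in
/-- **popular label** -/
theorem RModel.pop_line [Finite κ] (H : RModel B G σ R Leg ν D)
    (E : ℕ → ℕ → ℕ → ℕ → Prop) (hmono : ∀ m n i l, E (m + 1) n i l → E m n i l)
    (hE : ∀ m, ∀ ε : ℝ, 0 < ε → ∀ᶠ n in (U : Filter ℕ), ∀ i k, (i, k) ∈ (G n).I →
      B.d n ^ ε * ((G n).L.card : ℝ) ≤ ((((G n).slice k).filter fun l => E m n i l).card : ℝ))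
    {P : Type*} [Countable P] (Ru ru : P → ∀ n, ℕ × ℕ → ℕ × ℕ → Prop)
    (hself : ∀ j, ∀ᶠ n in (U : Filter ℕ), ∀ i ∈ (G n).I, Ru j n i i)
    (hdisj : ∀ j, ∀ᶠ n in (U : Filter ℕ), ∀ i ∈ (G n).I, ∀ i' ∈ (G n).I, ∀ l ∈ (G n).I,
      ru j n i l → ru j n i' l → Ru j n i i') :
    ∃ I' : ℕ → Finset (ℕ × ℕ), (∀ n, I' n ⊆ (G n).I) ∧ Dense B I' (fun n => (G n).I) ∧
      RModel B (fun n => restr (G n) (I' n)) σ R Leg ν D ∧
      (∀ j, ∀ ε : ℝ, 0 < ε → ∀ᶠ n in (U : Filter ℕ), ∀ i ∈ I' n,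
        B.d n ^ ε * ((((G n).I).filter fun l => ru j n i l).card : ℝ) ≤
          (((I' n).filter fun l => Ru j n i l).card : ℝ)) ∧
      ∃ i0 : ℕ → ℕ, (∀ n, ∃ k, (i0 n, k) ∈ (G n).I) ∧
        ∀ m, ∀ᶠ n in (U : Filter ℕ), ∀ l k, (l, k) ∈ I' n → E m n (i0 n) l := by
  have hne : ∀ n, ∃ i, ∃ k, (i, k) ∈ (G n).I := by
    intro n
    obtain ⟨⟨i, k⟩, h⟩ := H.nonempty n
    exact ⟨i, k, h⟩
  choose i0 k0 hik0 using hne
  obtain ⟨s, hs, hs2⟩ := exists_diag (fun m n => ∀ i k, (i, k) ∈ (G n).I →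
      B.d n ^ (1 / ((m : ℝ) + 1)) * ((G n).L.card : ℝ) ≤
        ((((G n).slice k).filter fun l => E m n i l).card : ℝ))
    (fun m => hE m _ (by positivity))
  have hmono' : ∀ m m' n i l, m ≤ m' → E m' n i l → E m n i l := by
    intro m m' n i l h
    induction h with
    | refl => exact fun h => h
    | step _ ih => exact fun h => ih (hmono _ n i l h)
  set J : ℕ → Finset (ℕ × ℕ) := fun n => (G n).I.filter fun y => E (s n) n (i0 n) y.1 with hJdef
  have hJ : Dense B J (fun n => (G n).I) := by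
    refine ⟨Eventually.of_forall fun n => filter_subset _ _, fun η hη => ?_⟩
    have h1 : ∀ᶠ n in (U : Filter ℕ), 1 / ((s n : ℝ) + 1) ≤ η / 2 := by
      have h3 := (tendsto_one_div_add_atTop_nhds_zero_nat.comp hs).eventually_lt_const
        (show (0 : ℝ) < η / 2 by positivity)
      filter_upwards [h3] with n hn using hn.le
    filter_upwards [h1, hs2, card_lines H (ε := η / 2) (by positivity)] with n a1 a2 a3
    set T := (((G n).slice (k0 n)).filter fun l => E (s n) n (i0 n) l) with hT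
    have b1 := a2 (s n) le_rfl (i0 n) (k0 n) (hik0 n)
    have b2 : T ⊆ (G n).L := fun l hl =>
      (RCfg.mem_slice.1 (mem_filter.1 hl).1).1
    have b3 := a3 T b2
    have b4 : ((((G n).I).filter fun y => y.1 ∈ T).card : ℝ) ≤ ((J n).card : ℝ) := by
      refine Nat.cast_le.2 (card_le_card fun y hy => ?_)
      rw [mem_filter] at hy
      rw [hJdef, mem_filter]
      exact ⟨hy.1, (mem_filter.1 hy.2).2⟩
    have b5 : (((G n).I).card : ℝ) ≤ ((G n).L.card : ℝ) * ((G n).Z.card : ℝ) := by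
      have := card_le_card (H.sub n)
      rw [card_product] at this
      exact_mod_cast this
    have b6 : B.d n ^ (η / 2) ≤ B.d n ^ (1 / ((s n : ℝ) + 1)) := dpow_le B n a1
    have b7 : B.d n ^ (η / 2) * ((G n).L.card : ℝ) ≤ (T.card : ℝ) :=
      (mul_le_mul_of_nonneg_right b6 (Nat.cast_nonneg _)).trans b1
    have b8 : B.d n ^ η = B.d n ^ (η / 2) * B.d n ^ (η / 2) := by
      rw [← dpow_add]; congr 1; ring
    calc B.d n ^ η * (((G n).I).card : ℝ)
        ≤ B.d n ^ η * (((G n).L.card : ℝ) * ((G n).Z.card : ℝ)) :=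
          mul_le_mul_of_nonneg_left b5 (dpow_pos B n _).le
      _ = B.d n ^ (η / 2) * ((G n).Z.card : ℝ) * (B.d n ^ (η / 2) * ((G n).L.card : ℝ)) := by
          rw [b8]; ring
      _ ≤ B.d n ^ (η / 2) * ((G n).Z.card : ℝ) * (T.card : ℝ) :=
          mul_le_mul_of_nonneg_left b7 (mul_nonneg (dpow_pos B n _).le (Nat.cast_nonneg _))
      _ ≤ _ := b3.trans b4
  obtain ⟨I', h1, h2, h3, h4, h5, h6⟩ := RModel.refine_core H hJ Ru ru hself hdisj
  refine ⟨I', h1, (dense_of_half (by filter_upwards [h2, h3] with n a b using ⟨a, b⟩)).trans hJ,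
    h4, h6, i0, fun n => ⟨k0 n, hik0 n⟩, fun m => ?_⟩
  filter_upwards [h2, hs.eventually_ge_atTop m] with n a1 a2 l k hl
  have b1 := a1 hl
  rw [hJdef, mem_filter] at b1
  exact hmono' m (s n) n _ _ a2 b1.2

/-- all lines of the family lie in one box of exponents `p0` -/
def OneBox (G : ℕ → RCfg κ) (p0 : κ → ℝ) : Prop :=
  ∀ ε : ℝ, 0 < ε → ∀ᶠ n in (U : Filter ℕ), ∀ i l k, (i, k) ∈ (G n).I → (l, k) ∈ (G n).I →
    (G n).loose p0 ε k i l

theorem card_L_le (H : RModel B G σ R Leg ν D) {p0 : κ → ℝ} (hp0 : p0 ∈ Leg)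
    (hbox : OneBox G p0) {ε : ℝ} (hε : 0 < ε) :
    ∀ᶠ n in (U : Filter ℕ), ((G n).L.card : ℝ) ≤ B.d n ^ (-ν p0 - ε) := by
  have hD := H.D1
  filter_upwards [hbox (ε / (2 * D)) (by positivity), H.up p0 hp0 (ε / (2 * D)) (by positivity),
    H.slice (ε / 2) (by positivity)] with n a1 a2 a3
  obtain ⟨⟨i, k⟩, hik⟩ := H.nonempty n
  have b1 := a3 k (H.toRUnif.memZ hik)
  have b2 := a2 i k hik
  have b3 : (((G n).slice k).card : ℝ) ≤ (((G n).box p0 (ε / (2 * D)) i k).card : ℝ) := by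
    refine Nat.cast_le.2 (card_le_card fun l hl => RCfg.mem_box.2 ⟨hl, ?_⟩)
    exact a1 i l k hik (H.toRUnif.memSlice.1 hl)
  have b4 : D * (ε / (2 * D)) = ε / 2 := by field_simp
  rw [b4] at b2
  have b5 := b1.trans (b3.trans b2)
  have b6 : B.d n ^ (-ν p0 - ε / 2) = B.d n ^ (ε / 2) * B.d n ^ (-ν p0 - ε) := by
    rw [← dpow_add]; congr 1; ring
  rw [b6] at b5
  exact le_of_mul_le_mul_left b5 (dpow_pos B n _)

open Classical in
/-- zero loss gives a `ρ^ε` share of all lines -/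
theorem share_of_zero (H : RModel B G σ R Leg ν D) {p0 p1 : κ → ℝ} (hp0 : p0 ∈ Leg)
    (hp1 : p1 ∈ Leg) (hν : ν p1 = ν p0) (hbox : OneBox G p0) {ε : ℝ} (hε : 0 < ε) :
    ∀ᶠ n in (U : Filter ℕ), ∀ i k, (i, k) ∈ (G n).I →
      B.d n ^ ε * ((G n).L.card : ℝ) ≤ (((G n).box p1 (ε / 2) i k).card : ℝ) := by
  filter_upwards [card_L_le H hp0 hbox (ε := ε / 2) (by positivity),
    H.low p1 hp1 (ε / 2) (by positivity)] with n a1 a2 i k hik
  refine le_trans (mul_le_mul_of_nonneg_left a1 (dpow_pos B n _).le) (le_trans (le_of_eq ?_)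
    (a2 i k hik))
  rw [← dpow_add, hν]; congr 1; ring

open Classical in
/-- **one cell**: zero loss of the labels `V j` at precision `x j`, at the class box. -/
theorem RModel.one_cell [Finite κ] (H : RModel B G σ R Leg ν D) {p0 p1 : κ → ℝ} (hp0 : p0 ∈ Leg)
    (hp1 : p1 ∈ Leg) (hν : ν p1 = ν p0) (hbox : OneBox G p0) {ι : Type*} (V : ℕ → ℕ → ι → ℝ)
    (x : ι → ℝ) {C : ℝ} (hC : 0 < C)
    (hV : ∀ ε : ℝ, 0 < ε → ∀ᶠ n in (U : Filter ℕ), ∀ i l k, (i, k) ∈ (G n).I →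
      (l, k) ∈ (G n).I → (G n).loose p1 ε k i l → ∀ j, |V n l j - V n i j| ≤ B.d n ^ (x j - C * ε))
    {P : Type*} [Countable P] (Ru ru : P → ∀ n, ℕ × ℕ → ℕ × ℕ → Prop)
    (hself : ∀ j, ∀ᶠ n in (U : Filter ℕ), ∀ i ∈ (G n).I, Ru j n i i)
    (hdisj : ∀ j, ∀ᶠ n in (U : Filter ℕ), ∀ i ∈ (G n).I, ∀ i' ∈ (G n).I, ∀ l ∈ (G n).I,
      ru j n i l → ru j n i' l → Ru j n i i') :
    ∃ I' : ℕ → Finset (ℕ × ℕ), (∀ n, I' n ⊆ (G n).I) ∧ Dense B I' (fun n => (G n).I) ∧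
      RModel B (fun n => restr (G n) (I' n)) σ R Leg ν D ∧
      (∀ j, ∀ ε : ℝ, 0 < ε → ∀ᶠ n in (U : Filter ℕ), ∀ i ∈ I' n,
        B.d n ^ ε * ((((G n).I).filter fun l => ru j n i l).card : ℝ) ≤
          (((I' n).filter fun l => Ru j n i l).card : ℝ)) ∧
      ∃ V0 : ℕ → ι → ℝ, ∀ ε : ℝ, 0 < ε → ∀ᶠ n in (U : Filter ℕ), ∀ l k, (l, k) ∈ I' n →
        ∀ j, |V n l j - V0 n j| ≤ B.d n ^ (x j - ε) := by
  obtain ⟨I', h1, h2, h3, h4, i0, -, h5⟩ := RModel.pop_line H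
    (fun m n i l => ∀ j, |V n l j - V n i j| ≤ B.d n ^ (x j - 1 / ((m : ℝ) + 1)))
    (fun m n i l h j => (h j).trans (dpow_le B n (by
      have : (1 : ℝ) / (((m + 1 : ℕ) : ℝ) + 1) ≤ 1 / ((m : ℝ) + 1) := by
        apply one_div_le_one_div_of_le (by positivity)
        push_cast; linarith
      linarith)))
    (fun m ε hε => by
      set δ : ℝ := min ε (2 * (1 / ((m : ℝ) + 1)) / C) with hδ
      have hδ0 : 0 < δ := lt_min hε (by positivity)
      have hδ1 : δ ≤ ε := min_le_left _ _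
      have hδ2 : C * (δ / 2) ≤ 1 / ((m : ℝ) + 1) := by
        have : δ ≤ 2 * (1 / ((m : ℝ) + 1)) / C := min_le_right _ _
        rw [le_div_iff₀ hC] at this
        linarith
      filter_upwards [share_of_zero H hp0 hp1 hν hbox hδ0, hV (δ / 2) (by positivity)]
        with n a1 a2 i k hik
      refine (mul_le_mul_of_nonneg_right (dpow_le B n hδ1) (Nat.cast_nonneg _)).trans
        ((a1 i k hik).trans (Nat.cast_le.2 (card_le_card fun l hl => ?_)))
      obtain ⟨l1, l2⟩ := RCfg.mem_box.1 hl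
      rw [mem_filter]
      refine ⟨l1, fun j => (a2 i l k hik (H.toRUnif.memSlice.1 l1) l2 j).trans ?_⟩
      exact dpow_le B n (by linarith))
    Ru ru hself hdisj
  refine ⟨I', h1, h2, h3, h4, fun n j => V n (i0 n) j, fun ε hε => ?_⟩
  obtain ⟨m, hm⟩ := exists_nat_one_div_lt hε
  filter_upwards [h5 m] with n a1 l k hl j
  exact (a1 l k hl j).trans (dpow_le B n (by linarith))

open Classical in
/-- **one cell, infinite precision**: zero loss of the labels at every precision. -/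
theorem RModel.one_cell_inf [Finite κ] (H : RModel B G σ R Leg ν D) {p0 : κ → ℝ}
    (hp0 : p0 ∈ Leg) (hbox : OneBox G p0) (p1 : ℕ → κ → ℝ) (hp1 : ∀ m, p1 m ∈ Leg)
    (hν : ∀ m, ν (p1 m) = ν p0) {ι : Type*} (V : ℕ → ℕ → ι → ℝ)
    (hV : ∀ m : ℕ, ∃ δ : ℝ, 0 < δ ∧ ∀ᶠ n in (U : Filter ℕ), ∀ i l k, (i, k) ∈ (G n).I →
      (l, k) ∈ (G n).I → (G n).loose (p1 m) δ k i l → ∀ j, |V n l j - V n i j| ≤ B.d n ^ (m : ℝ))
    {P : Type*} [Countable P] (Ru ru : P → ∀ n, ℕ × ℕ → ℕ × ℕ → Prop)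
    (hself : ∀ j, ∀ᶠ n in (U : Filter ℕ), ∀ i ∈ (G n).I, Ru j n i i)
    (hdisj : ∀ j, ∀ᶠ n in (U : Filter ℕ), ∀ i ∈ (G n).I, ∀ i' ∈ (G n).I, ∀ l ∈ (G n).I,
      ru j n i l → ru j n i' l → Ru j n i i') :
    ∃ I' : ℕ → Finset (ℕ × ℕ), (∀ n, I' n ⊆ (G n).I) ∧ Dense B I' (fun n => (G n).I) ∧
      RModel B (fun n => restr (G n) (I' n)) σ R Leg ν D ∧
      (∀ j, ∀ ε : ℝ, 0 < ε → ∀ᶠ n in (U : Filter ℕ), ∀ i ∈ I' n,
        B.d n ^ ε * ((((G n).I).filter fun l => ru j n i l).card : ℝ) ≤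
          (((I' n).filter fun l => Ru j n i l).card : ℝ)) ∧
      ∃ V0 : ℕ → ι → ℝ, ∀ M : ℝ, ∀ᶠ n in (U : Filter ℕ), ∀ l k, (l, k) ∈ I' n →
        ∀ j, |V n l j - V0 n j| ≤ B.d n ^ M := by
  obtain ⟨I', h1, h2, h3, h4, i0, -, h5⟩ := RModel.pop_line H
    (fun m n i l => ∀ j, |V n l j - V n i j| ≤ B.d n ^ (m : ℝ))
    (fun m n i l h j => (h j).trans (dpow_le B n (by push_cast; linarith)))
    (fun m ε hε => by
      obtain ⟨δ0, hδ0, hV1⟩ := hV m
      set δ : ℝ := min ε (2 * δ0) with hδ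
      have hδ0' : 0 < δ := lt_min hε (by positivity)
      have hδ1 : δ ≤ ε := min_le_left _ _
      have hδ2 : δ / 2 ≤ δ0 := by
        have : δ ≤ 2 * δ0 := min_le_right _ _
        linarith
      filter_upwards [share_of_zero H hp0 (hp1 m) (hν m) hbox hδ0', hV1]
        with n a1 a2 i k hik
      refine (mul_le_mul_of_nonneg_right (dpow_le B n hδ1) (Nat.cast_nonneg _)).trans
        ((a1 i k hik).trans (Nat.cast_le.2 (card_le_card fun l hl => ?_)))
      obtain ⟨l1, l2⟩ := RCfg.mem_box.1 hl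
      rw [mem_filter]
      exact ⟨l1, a2 i l k hik (H.toRUnif.memSlice.1 l1)
        (H.toRUnif.loose_mono (fun _ => le_rfl) hδ2 l2)⟩)
    Ru ru hself hdisj
  refine ⟨I', h1, h2, h3, h4, fun n j => V n (i0 n) j, fun M => ?_⟩
  obtain ⟨m, hm⟩ := exists_nat_ge M
  filter_upwards [h5 m] with n a1 l k hl j
  exact (a1 l k hl j).trans (dpow_le B n hm)

end Crest.Agent.R136.Prn779
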