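import Crest.Agent.R136.Us3_555
import Crest.Agent.R136.KapP_335
import Crest.Agent.R136.Tlt0_51

/-!
# R136 (S0187), U6 thin side (helper262): persistence of the curvature, finite part

`kap_le_of_slab` : if the zero set of a normalised quadratic function lies in a slab of half-thickness
`ε`, then the curvature extent is at most `10 ^ 6 ε / t ^ 2`.

`root` : explicit root of a quadratic equation, continuous in the coefficients.
-/

set_option autoImplicit false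
set_option linter.unusedVariables false

open Finset

namespace Crest.Agent.R136.Prs262

open Crest.Agent.R136.Sh605 Crest.Agent.R136.K4
open Crest.Agent.R136.Tl102 (QF Fq bz shB0 shB1 shG kap NrmC IsExp fr cmb unsh Fq_unsh StP)
open Crest.Agent.R136.Us555 (kap_entries abs_mul_le2)

/-! ### explicit root -/

/-- the small root of `A x ^ 2 + B x + C = 0` -/
noncomputable def rt (A B C : ℝ) : ℝ := -(2 * C) / (B + Real.sqrt (B ^ 2 - 4 * A * C))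

theorem rt_eq {A B C : ℝ} (hB : 0 < B) (h : 4 * |A| * |C| ≤ B ^ 2) :
    A * rt A B C ^ 2 + B * rt A B C + C = 0 := by
  have hAC : 4 * A * C ≤ 4 * |A| * |C| := by
    have := le_abs_self (A * C)
    rw [abs_mul] at this
    linarith
  have hD : 0 ≤ B ^ 2 - 4 * A * C := by linarith
  have hs := Real.sq_sqrt hD
  have hs0 := Real.sqrt_nonneg (B ^ 2 - 4 * A * C)
  unfold rt
  set s := Real.sqrt (B ^ 2 - 4 * A * C) with hsdef
  have hp : 0 < B + s := by linarith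
  field_simp
  linear_combination C * hs

theorem rt_abs {A B C : ℝ} (hB : 0 < B) : |rt A B C| ≤ 2 * |C| / B := by
  have hs0 := Real.sqrt_nonneg (B ^ 2 - 4 * A * C)
  unfold rt
  have hp : 0 < B + Real.sqrt (B ^ 2 - 4 * A * C) := by linarith
  rw [abs_div, abs_neg, abs_mul, abs_two, abs_of_pos hp]
  exact div_le_div_of_nonneg_left (by positivity) hB (by linarith)

/-! ### the zero set as a graph -/

section graph

variable {b0 b1 : V3} {G : QF}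

/-- coefficient of `x 0` -/
def cB (b0 b1 : V3) (G : QF) (ζ u v : ℝ) : ℝ := b0 0 + ζ * b1 0 + G.yu * u + G.yv * v
/-- the part without `x 0` -/
def cC (b0 b1 : V3) (G : QF) (ζ u v : ℝ) : ℝ :=
  (b0 1 + ζ * b1 1) * u + (b0 2 + ζ * b1 2) * v + (G.uu * u ^ 2 + G.uv * (u * v) + G.vv * v ^ 2)

/-- the zero set over the lateral coordinates -/
noncomputable def gp (b0 b1 : V3) (G : QF) (ζ u v : ℝ) : ℝ :=
  rt G.yy (cB b0 b1 G ζ u v) (cC b0 b1 G ζ u v)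

theorem Fq_eq (b0 b1 : V3) (G : QF) (ζ p u v : ℝ) :
    Fq b0 b1 G ζ ![p, u, v] = G.yy * p ^ 2 + cB b0 b1 G ζ u v * p + cC b0 b1 G ζ u v := by
  simp only [Fq, dt, bz, QF.ev, cB, cC, Matrix.cons_val]
  ring

theorem b_zeta (N : NrmC b0 b1 G) {ζ : ℝ} (h0 : 0 ≤ ζ) (h1 : ζ ≤ 1) :
    1 / 2 ≤ b0 0 + ζ * b1 0 ∧ b0 0 + ζ * b1 0 ≤ 2 ∧ |b0 1 + ζ * b1 1| ≤ 1 ∧
      |b0 2 + ζ * b1 2| ≤ 1 := by
  have a0 : |(0 : ℝ)| ≤ 1 := by norm_num
  have h := N.st ζ h0 h1 0 0 0 a0 a0 a0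
  norm_num at h
  have k : ∀ x y : ℝ, |x| ≤ 1 → |x + y| ≤ 1 → |x + ζ * y| ≤ 1 := by
    intro x y hx hy
    have e1 : x + ζ * y = (1 - ζ) * x + ζ * (x + y) := by ring
    rw [e1]
    rw [abs_le] at hx hy ⊢
    constructor <;> nlinarith [hx.1, hx.2, hy.1, hy.2]
  exact ⟨h.1, h.2, k _ _ N.b01 N.b11, k _ _ N.b02 N.b12⟩

/-- **the zero set is a graph** -/
theorem gp_spec (N : NrmC b0 b1 G) {ζ : ℝ} (h0 : 0 ≤ ζ) (h1 : ζ ≤ 1) {t u v : ℝ} (t0 : 0 ≤ t)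
    (ht : t ≤ 1 / 64) (hu : |u| ≤ t) (hv : |v| ≤ t) :
    15 / 32 ≤ cB b0 b1 G ζ u v ∧ cB b0 b1 G ζ u v ≤ 3 ∧ |cC b0 b1 G ζ u v| ≤ 5 / 2 * t ∧
      Fq b0 b1 G ζ ![gp b0 b1 G ζ u v, u, v] = 0 ∧ |gp b0 b1 G ζ u v| ≤ 12 * t := by
  obtain ⟨s1, s2, s3, s4⟩ := b_zeta N h0 h1
  obtain ⟨m1, m2, m3, m4, m5, m6⟩ := N.G_le
  have hB : 15 / 32 ≤ cB b0 b1 G ζ u v ∧ cB b0 b1 G ζ u v ≤ 3 := by
    have e1 := abs_mul_le2 m2 hu
    have e2 := abs_mul_le2 m3 hv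
    rw [abs_le] at e1 e2
    unfold cB
    constructor <;> linarith [e1.1, e1.2, e2.1, e2.2]
  have hC : |cC b0 b1 G ζ u v| ≤ 5 / 2 * t := by
    unfold cC
    have u2 : |u ^ 2| ≤ t * t := by rw [sq]; exact abs_mul_le2 hu hu
    have v2 : |v ^ 2| ≤ t * t := by rw [sq]; exact abs_mul_le2 hv hv
    have uv := abs_mul_le2 hu hv
    have e1 := abs_mul_le2 s3 hu
    have e2 := abs_mul_le2 s4 hv
    have e3 := abs_mul_le2 m4 u2
    have e4 := abs_mul_le2 m5 uv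
    have e5 := abs_mul_le2 m6 v2
    have e6 := abs_add_le (G.uu * u ^ 2) (G.uv * (u * v))
    have e7 := abs_add_le (G.uu * u ^ 2 + G.uv * (u * v)) (G.vv * v ^ 2)
    have e8 := abs_add_le ((b0 1 + ζ * b1 1) * u) ((b0 2 + ζ * b1 2) * v)
    have e9 := abs_add_le ((b0 1 + ζ * b1 1) * u + (b0 2 + ζ * b1 2) * v)
      (G.uu * u ^ 2 + G.uv * (u * v) + G.vv * v ^ 2)
    have e10 : 3 * (t * t) ≤ 1 / 2 * t := by nlinarith
    linarith
  have hB0 : 0 < cB b0 b1 G ζ u v := by linarith [hB.1]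
  refine ⟨hB.1, hB.2, hC, ?_, ?_⟩
  · rw [Fq_eq]
    refine rt_eq hB0 ?_
    have e1 : |G.yy| * |cC b0 b1 G ζ u v| ≤ 1 * (5 / 2 * t) :=
      mul_le_mul m1 hC (abs_nonneg _) zero_le_one
    nlinarith [hB.1]
  · refine (rt_abs hB0).trans ?_
    rw [div_le_iff₀ hB0]
    nlinarith [hB.1]

/-- continuity of the graph along a ray -/
theorem gp_cont (N : NrmC b0 b1 G) {ζ : ℝ} (h0 : 0 ≤ ζ) (h1 : ζ ≤ 1) {t u v : ℝ} (t0 : 0 ≤ t)
    (ht : t ≤ 1 / 64) (hu : |u| ≤ t) (hv : |v| ≤ t) :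
    ContinuousOn (fun s : ℝ => gp b0 b1 G ζ (s * u) (s * v)) (Set.Icc 0 1) := by
  intro s hs
  have hsu : |s * u| ≤ t := by
    rw [abs_mul, abs_of_nonneg hs.1]
    nlinarith [hs.1, hs.2, abs_nonneg u]
  have hsv : |s * v| ≤ t := by
    rw [abs_mul, abs_of_nonneg hs.1]
    nlinarith [hs.1, hs.2, abs_nonneg v]
  obtain ⟨hB, -⟩ := gp_spec N h0 h1 t0 ht hsu hsv
  have hne : cB b0 b1 G ζ (s * u) (s * v) + Real.sqrt (cB b0 b1 G ζ (s * u) (s * v) ^ 2 -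
      4 * G.yy * cC b0 b1 G ζ (s * u) (s * v)) ≠ 0 := by
    have := Real.sqrt_nonneg (cB b0 b1 G ζ (s * u) (s * v) ^ 2 -
      4 * G.yy * cC b0 b1 G ζ (s * u) (s * v))
    linarith
  have cBc : Continuous fun s : ℝ => cB b0 b1 G ζ (s * u) (s * v) := by unfold cB; fun_prop
  have cCc : Continuous fun s : ℝ => cC b0 b1 G ζ (s * u) (s * v) := by unfold cC; fun_prop
  have c1 : Continuous fun s : ℝ => -(2 * cC b0 b1 G ζ (s * u) (s * v)) := by fun_prop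
  have c2 : Continuous fun s : ℝ => cB b0 b1 G ζ (s * u) (s * v) +
      Real.sqrt (cB b0 b1 G ζ (s * u) (s * v) ^ 2 - 4 * G.yy * cC b0 b1 G ζ (s * u) (s * v)) :=
    cBc.add (Real.continuous_sqrt.comp (by fun_prop))
  exact (c1.continuousAt.div c2.continuousAt hne).continuousWithinAt

/-! ### slab ⊢ small curvature -/

theorem bd_sub {x y X Y : ℝ} (hx : |x| ≤ X) (hy : |y| ≤ Y) : |x - y| ≤ X + Y :=
  (abs_sub _ _).trans (add_le_add hx hy)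

theorem bd_add {x y X Y : ℝ} (hx : |x| ≤ X) (hy : |y| ≤ Y) : |x + y| ≤ X + Y :=
  (abs_add_le _ _).trans (add_le_add hx hy)

/-- the zero set lies in a slab ⊢ the function is small on a plane -/
theorem plane_of_slab (N : NrmC b0 b1 G) {t ε : ℝ} (t0 : 0 < t) (ht : t ≤ 1 / 1024)
    (hsm : ε ≤ t / 4) {h : V3} (hh : 1 / 2 ≤ |h 0| ∨ 1 / 2 ≤ |h 1| ∨ 1 / 2 ≤ |h 2|)
    (hyp : ∀ ζ, 0 ≤ ζ → ζ ≤ 1 → ∀ u v, |u| ≤ t → |v| ≤ t →
      |h 0 * gp b0 b1 G ζ u v + h 1 * u + h 2 * v| ≤ ε) :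
    ∃ α β : ℝ, |α| ≤ 24 ∧ |β| ≤ 24 ∧ ∀ ζ, 0 ≤ ζ → ζ ≤ 1 → ∀ u v, |u| ≤ t → |v| ≤ t →
      |Fq b0 b1 G ζ ![α * u + β * v, u, v]| ≤ 192 * ε := by
  have ht32 : t ≤ 1 / 64 := by linarith
  have tt : |t| ≤ t := by rw [abs_of_pos t0]
  have z0 : |(0 : ℝ)| ≤ t := by rw [abs_zero]; exact t0.le
  have gen : ∀ x : ℝ, |x| * t ≤ ε + |h 0| * (12 * t) → |x| ≤ 1 / 4 + 12 * |h 0| := by
    intro x hx
    by_contra hc
    push Not at hc
    have := mul_lt_mul_of_pos_right hc t0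
    nlinarith
  have a1 : |h 1| ≤ 1 / 4 + 12 * |h 0| := by
    refine gen _ ?_
    have i1 := hyp 0 le_rfl zero_le_one t 0 tt z0
    obtain ⟨-, -, -, -, g1⟩ := gp_spec N le_rfl zero_le_one t0.le ht32 tt z0
    have e2 : h 1 * t = (h 0 * gp b0 b1 G 0 t 0 + h 1 * t + h 2 * 0) - h 0 * gp b0 b1 G 0 t 0 := by
      ring
    have e3 : |h 1 * t| ≤ ε + |h 0| * (12 * t) := by
      rw [e2]
      refine bd_sub i1 ?_
      rw [abs_mul]
      exact mul_le_mul_of_nonneg_left g1 (abs_nonneg _)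
    rwa [abs_mul, abs_of_pos t0] at e3
  have a2 : |h 2| ≤ 1 / 4 + 12 * |h 0| := by
    refine gen _ ?_
    have i1 := hyp 0 le_rfl zero_le_one 0 t z0 tt
    obtain ⟨-, -, -, -, g1⟩ := gp_spec N le_rfl zero_le_one t0.le ht32 z0 tt
    have e2 : h 2 * t = (h 0 * gp b0 b1 G 0 0 t + h 1 * 0 + h 2 * t) - h 0 * gp b0 b1 G 0 0 t := by
      ring
    have e3 : |h 2 * t| ≤ ε + |h 0| * (12 * t) := by
      rw [e2]
      refine bd_sub i1 ?_
      rw [abs_mul]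
      exact mul_le_mul_of_nonneg_left g1 (abs_nonneg _)
    rwa [abs_mul, abs_of_pos t0] at e3
  have a0 : 1 / 48 ≤ |h 0| := by
    rcases hh with hh | hh | hh
    · linarith
    · linarith
    · linarith
  have hn0 : h 0 ≠ 0 := by
    intro hz; rw [hz, abs_zero] at a0; linarith
  have ha0 : 0 < |h 0| := by linarith
  have bα : |-h 1 / h 0| ≤ 24 := by
    rw [abs_div, abs_neg, div_le_iff₀ ha0]; linarith
  have bβ : |-h 2 / h 0| ≤ 24 := by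
    rw [abs_div, abs_neg, div_le_iff₀ ha0]; linarith
  refine ⟨-h 1 / h 0, -h 2 / h 0, bα, bβ, ?_⟩
  obtain ⟨m1, -⟩ := N.G_le
  intro ζ h0 h1 u v hu hv
  obtain ⟨c1, c2, -, c4, c5⟩ := gp_spec N h0 h1 t0.le ht32 hu hv
  have i1 := hyp ζ h0 h1 u v hu hv
  have ε0 : 0 ≤ ε := (abs_nonneg _).trans i1
  generalize gp b0 b1 G ζ u v = g at i1 c4 c5
  have d1 : |g - (-h 1 / h 0 * u + -h 2 / h 0 * v)| ≤ 48 * ε := by
    have e1 : g - (-h 1 / h 0 * u + -h 2 / h 0 * v) = (h 0 * g + h 1 * u + h 2 * v) / h 0 := by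
      field_simp; ring
    rw [e1, abs_div, div_le_iff₀ ha0]
    nlinarith
  have d2 : |-h 1 / h 0 * u + -h 2 / h 0 * v| ≤ 48 * t := by
    have := bd_add (abs_mul_le2 bα hu) (abs_mul_le2 bβ hv)
    linarith
  generalize -h 1 / h 0 * u + -h 2 / h 0 * v = m at d1 d2
  have e2 : Fq b0 b1 G ζ ![m, u, v] = -((g - m) * (cB b0 b1 G ζ u v + G.yy * (g + m))) := by
    have e3 := Fq_eq b0 b1 G ζ g u v
    rw [c4] at e3
    rw [Fq_eq]
    linarith [e3]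
  have d3 : |cB b0 b1 G ζ u v + G.yy * (g + m)| ≤ 4 := by
    have e4 : |g + m| ≤ 60 * t := (bd_add c5 d2).trans (by linarith)
    have e5 := abs_mul_le2 m1 e4
    have e6 : |cB b0 b1 G ζ u v| ≤ 3 := by rw [abs_le]; constructor <;> linarith
    have := bd_add e6 e5
    linarith
  rw [e2, abs_neg]
  have := abs_mul_le2 d1 d3
  linarith

/-- the function is small on a plane ⊢ small curvature -/
theorem kap_of_plane (N : NrmC b0 b1 G) {t δ α β : ℝ} (t0 : 0 < t) (ht : t ≤ 1) (hδ0 : 0 ≤ δ)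
    (bα : |α| ≤ 24) (bβ : |β| ≤ 24)
    (hPs : ∀ ζ, 0 ≤ ζ → ζ ≤ 1 → ∀ u v, |u| ≤ t → |v| ≤ t →
      |Fq b0 b1 G ζ ![α * u + β * v, u, v]| ≤ δ) : kap b0 b1 G * t ^ 2 ≤ 120 * δ := by
  have t2 : 0 < t ^ 2 := by positivity
  have tt : |t| ≤ t := by rw [abs_of_pos t0]
  have tn : |(-t)| ≤ t := by rw [abs_neg, abs_of_pos t0]
  have z0 : |(0 : ℝ)| ≤ t := by rw [abs_zero]; exact t0.le
  obtain ⟨m1, m2, m3, m4, m5, m6⟩ := N.G_le
  obtain ⟨n1, n2, n3, n4, n5, n6, n7, n8, n9⟩ := N.b1_le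
  have hb : 0 < b0 0 := by linarith
  have hPe : ∀ ζ u v, Fq b0 b1 G ζ ![α * u + β * v, u, v] =
      (α * (b0 0 + ζ * b1 0) + (b0 1 + ζ * b1 1)) * u +
      (β * (b0 0 + ζ * b1 0) + (b0 2 + ζ * b1 2)) * v +
      (G.yy * α ^ 2 + G.yu * α + G.uu) * u ^ 2 +
      (2 * G.yy * (α * β) + G.yu * β + G.yv * α + G.uv) * (u * v) +
      (G.yy * β ^ 2 + G.yv * β + G.vv) * v ^ 2 := by
    intro ζ u v
    rw [Fq_eq]
    simp only [cB, cC]
    ring
  have half : ∀ x y : ℝ, |x| ≤ δ → |y| ≤ δ → |(x - y) / 2| ≤ δ ∧ |(x + y) / 2| ≤ δ := by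
    intro x y hx hy
    have h1 := bd_sub hx hy
    have h2 := bd_add hx hy
    constructor
    · rw [abs_div, abs_two, div_le_iff₀ two_pos]; linarith
    · rw [abs_div, abs_two, div_le_iff₀ two_pos]; linarith
  have l1 : ∀ ζ, 0 ≤ ζ → ζ ≤ 1 → |α * (b0 0 + ζ * b1 0) + (b0 1 + ζ * b1 1)| * t ≤ δ := by
    intro ζ h0 h1
    have i1 := hPs ζ h0 h1 t 0 tt z0
    have i2 := hPs ζ h0 h1 (-t) 0 tn z0
    have i3 := (half _ _ i1 i2).1
    rw [hPe, hPe] at i3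
    have i4 : |(α * (b0 0 + ζ * b1 0) + (b0 1 + ζ * b1 1)) * t| ≤ δ := by
      convert i3 using 2
      ring
    rwa [abs_mul, abs_of_pos t0] at i4
  have l2 : ∀ ζ, 0 ≤ ζ → ζ ≤ 1 → |β * (b0 0 + ζ * b1 0) + (b0 2 + ζ * b1 2)| * t ≤ δ := by
    intro ζ h0 h1
    have i1 := hPs ζ h0 h1 0 t z0 tt
    have i2 := hPs ζ h0 h1 0 (-t) z0 tn
    have i3 := (half _ _ i1 i2).1
    rw [hPe, hPe] at i3
    have i4 : |(β * (b0 0 + ζ * b1 0) + (b0 2 + ζ * b1 2)) * t| ≤ δ := by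
      convert i3 using 2
      ring
    rwa [abs_mul, abs_of_pos t0] at i4
  have q11' : |(G.yy * α ^ 2 + G.yu * α + G.uu) * t ^ 2| ≤ δ := by
    have i1 := hPs 0 le_rfl zero_le_one t 0 tt z0
    have i2 := hPs 0 le_rfl zero_le_one (-t) 0 tn z0
    have i3 := (half _ _ i1 i2).2
    rw [hPe, hPe] at i3
    convert i3 using 2
    ring
  have q22' : |(G.yy * β ^ 2 + G.yv * β + G.vv) * t ^ 2| ≤ δ := by
    have i1 := hPs 0 le_rfl zero_le_one 0 t z0 tt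
    have i2 := hPs 0 le_rfl zero_le_one 0 (-t) z0 tn
    have i3 := (half _ _ i1 i2).2
    rw [hPe, hPe] at i3
    convert i3 using 2
    ring
  have q12' : |(2 * G.yy * (α * β) + G.yu * β + G.yv * α + G.uv) * t ^ 2| ≤ 3 * δ := by
    have i1 := hPs 0 le_rfl zero_le_one t t tt tt
    have i2 := hPs 0 le_rfl zero_le_one (-t) (-t) tn tn
    have i3 := (half _ _ i1 i2).2
    rw [hPe, hPe] at i3
    have i4 := bd_sub (bd_sub i3 q11') q22'
    have e1 : (2 * G.yy * (α * β) + G.yu * β + G.yv * α + G.uv) * t ^ 2 =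
        ((α * (b0 0 + 0 * b1 0) + (b0 1 + 0 * b1 1)) * t +
          (β * (b0 0 + 0 * b1 0) + (b0 2 + 0 * b1 2)) * t +
          (G.yy * α ^ 2 + G.yu * α + G.uu) * t ^ 2 +
          (2 * G.yy * (α * β) + G.yu * β + G.yv * α + G.uv) * (t * t) +
          (G.yy * β ^ 2 + G.yv * β + G.vv) * t ^ 2 +
        ((α * (b0 0 + 0 * b1 0) + (b0 1 + 0 * b1 1)) * -t +
          (β * (b0 0 + 0 * b1 0) + (b0 2 + 0 * b1 2)) * -t +
          (G.yy * α ^ 2 + G.yu * α + G.uu) * (-t) ^ 2 +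
          (2 * G.yy * (α * β) + G.yu * β + G.yv * α + G.uv) * (-t * -t) +
          (G.yy * β ^ 2 + G.yv * β + G.vv) * (-t) ^ 2)) / 2 -
        (G.yy * α ^ 2 + G.yu * α + G.uu) * t ^ 2 - (G.yy * β ^ 2 + G.yv * β + G.vv) * t ^ 2 := by
      ring
    rw [e1]
    refine i4.trans (by linarith)
  have q11 : |G.yy * α ^ 2 + G.yu * α + G.uu| * t ^ 2 ≤ δ := by
    rwa [abs_mul, abs_of_pos t2] at q11'
  have q22 : |G.yy * β ^ 2 + G.yv * β + G.vv| * t ^ 2 ≤ δ := by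
    rwa [abs_mul, abs_of_pos t2] at q22'
  have q12 : |2 * G.yy * (α * β) + G.yu * β + G.yv * α + G.uv| * t ^ 2 ≤ 3 * δ := by
    rwa [abs_mul, abs_of_pos t2] at q12'
  clear q11' q22' q12' hPe hPs half
  have r1 : |α + b0 1 / b0 0| * t ≤ 2 * δ := by
    have e1 : α + b0 1 / b0 0 = (α * (b0 0 + 0 * b1 0) + (b0 1 + 0 * b1 1)) / b0 0 := by
      field_simp; ring
    have := l1 0 le_rfl zero_le_one
    rw [e1, abs_div, abs_of_pos hb, div_mul_eq_mul_div, div_le_iff₀ hb]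
    nlinarith
  have r2 : |β + b0 2 / b0 0| * t ≤ 2 * δ := by
    have e1 : β + b0 2 / b0 0 = (β * (b0 0 + 0 * b1 0) + (b0 2 + 0 * b1 2)) / b0 0 := by
      field_simp; ring
    have := l2 0 le_rfl zero_le_one
    rw [e1, abs_div, abs_of_pos hb, div_mul_eq_mul_div, div_le_iff₀ hb]
    nlinarith
  have up : ∀ x K : ℝ, |x| * t ≤ K * δ → |x| * t ^ 2 ≤ K * δ := by
    intro x K hx
    have e1 : |x| * t ^ 2 = |x| * t * t := by ring
    rw [e1]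
    have h3 : 0 ≤ |x| * t := by positivity
    exact (mul_le_of_le_one_right h3 ht).trans hx
  have two : ∀ (x a b c : ℝ) (K : ℝ), |x| ≤ |a| + |b| + |c| * K → 0 ≤ K →
      |a| * t ≤ δ → |b| * t ≤ δ → |c| * t ≤ 2 * δ → |x| * t ≤ (2 + 2 * K) * δ := by
    intro x a b c K hx hK ha hb hc
    calc |x| * t ≤ (|a| + |b| + |c| * K) * t := mul_le_mul_of_nonneg_right hx t0.le
      _ = |a| * t + |b| * t + K * (|c| * t) := by ring
      _ ≤ δ + δ + K * (2 * δ) := by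
          have := mul_le_mul_of_nonneg_left hc hK
          linarith
      _ = _ := by ring
  have f1 : |shB1 b0 b1 1| * t ^ 2 ≤ 120 * δ := by
    have e1 : shB1 b0 b1 1 = ((α * (b0 0 + 1 * b1 0) + (b0 1 + 1 * b1 1)) -
        (α * (b0 0 + 0 * b1 0) + (b0 1 + 0 * b1 1))) - (α + b0 1 / b0 0) * b1 0 := by
      simp only [shB1, Matrix.cons_val]; ring
    have h1 := two (shB1 b0 b1 1) _ _ (α + b0 1 / b0 0) (3 / 2) (by
      rw [e1]
      refine bd_sub (abs_sub _ _) ?_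
      rw [abs_mul]; exact mul_le_mul_of_nonneg_left n5 (abs_nonneg _)) (by norm_num)
      (l1 1 zero_le_one le_rfl) (l1 0 le_rfl zero_le_one) r1
    exact (up _ _ h1).trans (by nlinarith)
  have f2 : |shB1 b0 b1 2| * t ^ 2 ≤ 120 * δ := by
    have e1 : shB1 b0 b1 2 = ((β * (b0 0 + 1 * b1 0) + (b0 2 + 1 * b1 2)) -
        (β * (b0 0 + 0 * b1 0) + (b0 2 + 0 * b1 2))) - (β + b0 2 / b0 0) * b1 0 := by
      simp only [shB1, Matrix.cons_val]; ring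
    have h1 := two (shB1 b0 b1 2) _ _ (β + b0 2 / b0 0) (3 / 2) (by
      rw [e1]
      refine bd_sub (abs_sub _ _) ?_
      rw [abs_mul]; exact mul_le_mul_of_nonneg_left n5 (abs_nonneg _)) (by norm_num)
      (l2 1 zero_le_one le_rfl) (l2 0 le_rfl zero_le_one) r2
    exact (up _ _ h1).trans (by nlinarith)
  have r1' := up _ 2 r1
  have r2' := up _ 2 r2
  have g1 : |(shG b0 G).uu| * t ^ 2 ≤ 120 * δ := by
    have e1 : (shG b0 G).uu = (G.yy * α ^ 2 + G.yu * α + G.uu) -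
        (α + b0 1 / b0 0) * (G.yu + (α - b0 1 / b0 0) * G.yy) := by
      simp only [shG]; ring
    have j1 : |G.yu + (α - b0 1 / b0 0) * G.yy| ≤ 27 :=
      (bd_add m2 (abs_mul_le2 (bd_sub bα n8) m1)).trans (by norm_num)
    have j2 : |(shG b0 G).uu| ≤ |G.yy * α ^ 2 + G.yu * α + G.uu| + |α + b0 1 / b0 0| * 27 := by
      rw [e1]
      refine bd_sub le_rfl ?_
      rw [abs_mul]; exact mul_le_mul_of_nonneg_left j1 (abs_nonneg _)
    calc |(shG b0 G).uu| * t ^ 2 ≤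
          (|G.yy * α ^ 2 + G.yu * α + G.uu| + |α + b0 1 / b0 0| * 27) * t ^ 2 :=
          mul_le_mul_of_nonneg_right j2 t2.le
      _ = |G.yy * α ^ 2 + G.yu * α + G.uu| * t ^ 2 + 27 * (|α + b0 1 / b0 0| * t ^ 2) := by ring
      _ ≤ _ := by linarith
  have g2 : |(shG b0 G).vv| * t ^ 2 ≤ 120 * δ := by
    have e1 : (shG b0 G).vv = (G.yy * β ^ 2 + G.yv * β + G.vv) -
        (β + b0 2 / b0 0) * (G.yv + (β - b0 2 / b0 0) * G.yy) := by
      simp only [shG]; ring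
    have j1 : |G.yv + (β - b0 2 / b0 0) * G.yy| ≤ 27 :=
      (bd_add m3 (abs_mul_le2 (bd_sub bβ n9) m1)).trans (by norm_num)
    have j2 : |(shG b0 G).vv| ≤ |G.yy * β ^ 2 + G.yv * β + G.vv| + |β + b0 2 / b0 0| * 27 := by
      rw [e1]
      refine bd_sub le_rfl ?_
      rw [abs_mul]; exact mul_le_mul_of_nonneg_left j1 (abs_nonneg _)
    calc |(shG b0 G).vv| * t ^ 2 ≤
          (|G.yy * β ^ 2 + G.yv * β + G.vv| + |β + b0 2 / b0 0| * 27) * t ^ 2 :=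
          mul_le_mul_of_nonneg_right j2 t2.le
      _ = |G.yy * β ^ 2 + G.yv * β + G.vv| * t ^ 2 + 27 * (|β + b0 2 / b0 0| * t ^ 2) := by ring
      _ ≤ _ := by linarith
  have g3 : |(shG b0 G).uv| * t ^ 2 ≤ 120 * δ := by
    have e1 : (shG b0 G).uv = (2 * G.yy * (α * β) + G.yu * β + G.yv * α + G.uv) -
        (β + b0 2 / b0 0) * (G.yu + 2 * G.yy * α) -
        (α + b0 1 / b0 0) * (G.yv - 2 * G.yy * (b0 2 / b0 0)) := by
      simp only [shG]; ring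
    have m1' : |2 * G.yy| ≤ 2 := by rw [abs_mul, abs_two]; linarith
    have j1 : |G.yu + 2 * G.yy * α| ≤ 49 := (bd_add m2 (abs_mul_le2 m1' bα)).trans (by norm_num)
    have j1' : |G.yv - 2 * G.yy * (b0 2 / b0 0)| ≤ 5 :=
      (bd_sub m3 (abs_mul_le2 m1' n9)).trans (by norm_num)
    have j2 : |(shG b0 G).uv| ≤ |2 * G.yy * (α * β) + G.yu * β + G.yv * α + G.uv| +
        |β + b0 2 / b0 0| * 49 + |α + b0 1 / b0 0| * 5 := by
      rw [e1]
      refine bd_sub (bd_sub le_rfl ?_) ?_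
      · rw [abs_mul]; exact mul_le_mul_of_nonneg_left j1 (abs_nonneg _)
      · rw [abs_mul]; exact mul_le_mul_of_nonneg_left j1' (abs_nonneg _)
    calc |(shG b0 G).uv| * t ^ 2 ≤ (|2 * G.yy * (α * β) + G.yu * β + G.yv * α + G.uv| +
          |β + b0 2 / b0 0| * 49 + |α + b0 1 / b0 0| * 5) * t ^ 2 :=
          mul_le_mul_of_nonneg_right j2 t2.le
      _ = |2 * G.yy * (α * β) + G.yu * β + G.yv * α + G.uv| * t ^ 2 +
          49 * (|β + b0 2 / b0 0| * t ^ 2) + 5 * (|α + b0 1 / b0 0| * t ^ 2) := by ring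
      _ ≤ _ := by linarith
  have fin : ∀ x : ℝ, |x| * t ^ 2 ≤ 120 * δ → |x| ≤ 120 * δ / t ^ 2 := fun x hx => by
    rw [le_div_iff₀ t2]; exact hx
  rw [← le_div_iff₀ t2]
  unfold kap
  exact max_le (max_le (fin _ f1) (fin _ f2)) (max_le (max_le (fin _ g1) (fin _ g3)) (fin _ g2))

/-- **the zero set lies in a slab ⊢ the curvature extent is small** -/
theorem kap_le_of_slab (N : NrmC b0 b1 G) {t ε : ℝ} (t0 : 0 < t) (ht : t ≤ 1 / 1024) (hε : 0 ≤ ε)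
    {h : V3} (hh : 1 / 2 ≤ |h 0| ∨ 1 / 2 ≤ |h 1| ∨ 1 / 2 ≤ |h 2|)
    (hyp : ∀ ζ, 0 ≤ ζ → ζ ≤ 1 → ∀ u v, |u| ≤ t → |v| ≤ t →
      |h 0 * gp b0 b1 G ζ u v + h 1 * u + h 2 * v| ≤ ε) :
    kap b0 b1 G * t ^ 2 ≤ 10 ^ 5 * ε := by
  have t2 : 0 < t ^ 2 := by positivity
  rcases lt_or_ge (t / 4) ε with hbig | hsm
  · have k13 := Tl102.kap_le N
    have h1 : kap b0 b1 G * t ^ 2 ≤ 13 * t ^ 2 := mul_le_mul_of_nonneg_right k13 t2.le
    nlinarith
  · obtain ⟨α, β, bα, bβ, h1⟩ := plane_of_slab N t0 ht hsm hh hyp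
    have h2 := kap_of_plane N t0 (by linarith) (δ := 192 * ε) (by positivity) bα bβ h1
    linarith

end graph

end Crest.Agent.R136.Prs262
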