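import Crest.Agent.R136.Prs2_262

/-!
# R136 (S0187), U6 thin side (helper262): persistence of the curvature, finite part (3)

`Two'.kap_up` : `kap S' ≤ C Λ ^ 5 (E + a' + kap S)` (lengths): if the fine sheet is nearly flat then so
is the coarse sheet.
-/

set_option autoImplicit false
set_option linter.unusedVariables false

open Finset

namespace Crest.Agent.R136.Prs262

open Crest.Agent.R136.Sh605 Crest.Agent.R136.K4
open Crest.Agent.R136.Tl102 (QF Fq bz shB0 shB1 shG kap NrmC IsExp fr cmb unsh Fq_unsh StP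
  dt_cmb_fr)
open Crest.Agent.R136.Us555 (kap_entries abs_mul_le2 abs_dt_le_one point_eq_cmb)
open Crest.Agent.R136.Tlt51 (Close)

section

variable {b0 b1 : V3} {G : QF}

/-- the zero set is near the tangent plane -/
theorem yp_small (N : NrmC b0 b1 G) {ζ : ℝ} (h0 : 0 ≤ ζ) (h1 : ζ ≤ 1) {t u v : ℝ} (t0 : 0 ≤ t)
    (ht : t ≤ 1 / 1024) (hu : |u| ≤ t) (hv : |v| ≤ t) :
    |gp b0 b1 G ζ u v + b0 1 / b0 0 * u + b0 2 / b0 0 * v| ≤ kap b0 b1 G := by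
  obtain ⟨n1, -, -, -, -, -, -, n8, n9⟩ := N.b1_le
  have hb : b0 0 ≠ 0 := by
    intro hz; rw [hz] at n1; linarith
  obtain ⟨-, -, -, g1, g2⟩ := gp_spec N h0 h1 t0 (by linarith) hu hv
  obtain ⟨⟨j1, j2⟩, j3⟩ := tan_small N h0 h1 t0 (by linarith) hu hv
  have e1 := Fq_tan (b1 := b1) (G := G) hb ζ ![gp b0 b1 G ζ u v, u, v]
  simp only [Matrix.cons_val] at e1
  rw [g1] at e1
  obtain ⟨m1, -⟩ := N.G_le
  have hk := Tl102.kap_nonneg b0 b1 G
  have y1 : |gp b0 b1 G ζ u v + b0 1 / b0 0 * u + b0 2 / b0 0 * v| ≤ 1 / 64 :=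
    (bd_add (bd_add g2 (abs_mul_le2 n8 hu)) (abs_mul_le2 n9 hv)).trans (by linarith)
  generalize gp b0 b1 G ζ u v + b0 1 / b0 0 * u + b0 2 / b0 0 * v = y at e1 y1
  generalize b0 0 + ζ * b1 0 + (shG b0 G).yu * u + (shG b0 G).yv * v = M at e1 j1 j2
  generalize ζ * (shB1 b0 b1 1 * u + shB1 b0 b1 2 * v) + ((shG b0 G).uu * (u * u) +
    (shG b0 G).uv * (u * v) + (shG b0 G).vv * (v * v)) = R at e1 j3
  have e2 : y * (M + G.yy * y) = -R := by linarith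
  have e3 := abs_mul_le2 m1 y1
  have e4 : 1 / 4 ≤ M + G.yy * y := by linarith [(abs_le.1 e3).1]
  have e5 : |y| * (M + G.yy * y) ≤ 3 * t * kap b0 b1 G := by
    rw [← abs_neg R, ← e2, abs_mul, abs_of_pos (by linarith : 0 < M + G.yy * y)] at j3
    exact j3
  have e6 : |y| * (1 / 4) ≤ |y| * (M + G.yy * y) := mul_le_mul_of_nonneg_left e4 (abs_nonneg _)
  nlinarith

/-- Lipschitz constant near the line -/
theorem Fq_lip (N : NrmC b0 b1 G) {ζ : ℝ} (h0 : 0 ≤ ζ) (h1 : ζ ≤ 1) {x x' : V3} {δ : ℝ}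
    (hx : ∀ i, |x i| ≤ 1 / 16) (hx' : ∀ i, |x' i| ≤ 1 / 16) (hd : ∀ i, |x i - x' i| ≤ δ) :
    |Fq b0 b1 G ζ x - Fq b0 b1 G ζ x'| ≤ 5 * δ := by
  have δ0 : 0 ≤ δ := (abs_nonneg _).trans (hd 0)
  obtain ⟨s1, s2, s3, s4⟩ := b_zeta N h0 h1
  obtain ⟨m1, m2, m3, m4, m5, m6⟩ := N.G_le
  have s0 : |b0 0 + ζ * b1 0| ≤ 2 := by rw [abs_le]; constructor <;> linarith
  have e1 : Fq b0 b1 G ζ x - Fq b0 b1 G ζ x' =
      (b0 0 + ζ * b1 0) * (x 0 - x' 0) + (b0 1 + ζ * b1 1) * (x 1 - x' 1) +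
      (b0 2 + ζ * b1 2) * (x 2 - x' 2) + G.yy * ((x 0 + x' 0) * (x 0 - x' 0)) +
      G.yu * (x 0 * (x 1 - x' 1) + x' 1 * (x 0 - x' 0)) +
      G.yv * (x 0 * (x 2 - x' 2) + x' 2 * (x 0 - x' 0)) +
      G.uu * ((x 1 + x' 1) * (x 1 - x' 1)) +
      G.uv * (x 1 * (x 2 - x' 2) + x' 2 * (x 1 - x' 1)) +
      G.vv * ((x 2 + x' 2) * (x 2 - x' 2)) := by
    simp only [Fq, dt, bz, QF.ev]
    ring
  rw [e1]
  refine (bd_add (bd_add (bd_add (bd_add (bd_add (bd_add (bd_add (bd_add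
    (abs_mul_le2 s0 (hd 0)) (abs_mul_le2 s3 (hd 1))) (abs_mul_le2 s4 (hd 2)))
    (abs_mul_le2 m1 (abs_mul_le2 (bd_add (hx 0) (hx' 0)) (hd 0))))
    (abs_mul_le2 m2 (bd_add (abs_mul_le2 (hx 0) (hd 1)) (abs_mul_le2 (hx' 1) (hd 0)))))
    (abs_mul_le2 m3 (bd_add (abs_mul_le2 (hx 0) (hd 2)) (abs_mul_le2 (hx' 2) (hd 0)))))
    (abs_mul_le2 m4 (abs_mul_le2 (bd_add (hx 1) (hx' 1)) (hd 1))))
    (abs_mul_le2 m5 (bd_add (abs_mul_le2 (hx 1) (hd 2)) (abs_mul_le2 (hx' 2) (hd 1)))))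
    (abs_mul_le2 m6 (abs_mul_le2 (bd_add (hx 2) (hx' 2)) (hd 2)))).trans ?_
  linarith

end

/-- two sheets with comparable sizes -/
structure Two' (Λ E : ℝ) (S S' : Plk4) (T : Ln4) (z0 ρ z0' ρ' : ℝ) : Prop
    extends Two Λ E S S' T z0 ρ z0' ρ' where
  o1' : S'.w 0 ≤ S'.w 2
  o2' : S'.w 2 ≤ S'.w 1
  w1' : S'.w 1 ≤ Λ * S.w 1
  w2' : S'.w 2 ≤ Λ * S.w 2
  g' : |dt (S.e 2) (S'.e 1)| * S'.w 1 ≤ Λ * S.w 2
  hρ : ρ' ≤ Λ * ρ

section

variable {Λ E : ℝ} {S S' : Plk4} {T : Ln4} {z0 ρ z0' ρ' : ℝ} {b0 b1 b0' b1' : V3} {G G' : QF}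

/-- point of the tangent plane of the fine sheet -/
noncomputable def Xq (S : Plk4) (b0 : V3) (u v : ℝ) : V3 :=
  cmb (fr S.e S.w) ![-(b0 1 / b0 0) * u - b0 2 / b0 0 * v, u, v]

theorem xc_Xp (S S' : Plk4) (b0 b1 : V3) (G : QF) (ζ u v : ℝ) (i : Fin 3) :
    xc S' (Xp S b0 b1 G ζ u v) i - xc S' (Xq S b0 u v) i =
      (gp b0 b1 G ζ u v + b0 1 / b0 0 * u + b0 2 / b0 0 * v) * S.w 0 * dt (S'.e i) (S.e 0) /
        S'.w i := by
  unfold xc Xp Xq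
  rw [dt_cmb, dt_cmb]
  simp only [Matrix.cons_val]
  ring

/-- **the coarse function on the tangent plane of the fine sheet** -/
theorem Two'.star (h : Two' Λ E S S' T z0 ρ z0' ρ') (hE : IsExp S.q S.e S.w T z0 ρ b0 b1 G)
    (N : NrmC b0 b1 G) (hE' : IsExp S'.q S'.e S'.w T z0' ρ' b0' b1' G') (N' : NrmC b0' b1' G')
    {D : ℝ} (hD : E + S'.a + S.w 0 * kap b0 b1 G ≤ D) (hD' : 2 ^ 40 * Λ ^ 2 * D ≤ S'.w 0)
    {ζ : ℝ} (h0 : 0 ≤ ζ) (h1 : ζ ≤ 1) {t : ℝ} (t0 : 0 ≤ t) (ht : t * Λ ≤ 1 / 2 ^ 26) {u v : ℝ}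
    (hu : |u| ≤ t) (hv : |v| ≤ t) :
    S'.w 0 * |Fq b0' b1' G' (zt z0 ρ z0' ρ' ζ) (xc S' (Xq S b0 u v))| ≤ 5 * D := by
  have hΛ := h.one
  have hw := h.st.pos
  have hw' := h.st'.pos
  have ha := h.a0
  have hEE := h.toTwo.E0
  have hk := Tl102.kap_nonneg b0 b1 G
  have hk' := Tl102.kap_le N'
  have hk0' := Tl102.kap_nonneg b0' b1' G'
  have hwk : 0 ≤ S.w 0 * kap b0 b1 G := mul_nonneg (hw 0).le hk
  have D0 : 0 < D := by linarith
  have hDw : 2 ^ 40 * D ≤ S'.w 0 := by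
    have : 1 ≤ Λ ^ 2 := by nlinarith
    nlinarith
  have t1 : t ≤ 1 / 2 ^ 26 := by nlinarith
  obtain ⟨m0, m1, m2⟩ := h.toTwo.zt_mem h0 h1
  obtain ⟨-, -, -, g1, g2⟩ := gp_spec N h0 h1 t0 (by linarith) hu hv
  have hy := yp_small N h0 h1 t0 (by linarith) hu hv
  obtain ⟨-, -, -, -, -, -, -, n8, n9⟩ := N'.b1_le
  -- coordinates of the points of the zero set
  obtain ⟨l1, l2⟩ := h.toTwo.lat t0 (by norm_num : (0 : ℝ) ≤ 12) g2 hu hv
  have l1' : |xc S' (Xp S b0 b1 G ζ u v) 1| ≤ 1 / 2 ^ 20 := l1.trans (by linarith)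
  have l2' : |xc S' (Xp S b0 b1 G ζ u v) 2| ≤ 1 / 2 ^ 20 := l2.trans (by linarith)
  have nr := h.toTwo.near hE N hE' N' h0 h1 t0 (τ := 1 / 2 ^ 20) (by linarith) (by norm_num) hu hv
  have y' : |xc S' (Xp S b0 b1 G ζ u v) 0 + b0' 1 / b0' 0 * xc S' (Xp S b0 b1 G ζ u v) 1 +
      b0' 2 / b0' 0 * xc S' (Xp S b0 b1 G ζ u v) 2| ≤ 1 / 100 := by
    by_contra hc
    push Not at hc
    have h5 := mul_lt_mul_of_pos_left hc (hw' 0)
    have h6 : S'.w 0 * kap b0' b1' G' ≤ S'.w 0 * 13 := mul_le_mul_of_nonneg_left hk' (hw' 0).le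
    nlinarith
  have l0' : |xc S' (Xp S b0 b1 G ζ u v) 0| ≤ 1 / 50 := by
    have e1 : xc S' (Xp S b0 b1 G ζ u v) 0 =
        (xc S' (Xp S b0 b1 G ζ u v) 0 + b0' 1 / b0' 0 * xc S' (Xp S b0 b1 G ζ u v) 1 +
        b0' 2 / b0' 0 * xc S' (Xp S b0 b1 G ζ u v) 2) -
        (b0' 1 / b0' 0 * xc S' (Xp S b0 b1 G ζ u v) 1 +
        b0' 2 / b0' 0 * xc S' (Xp S b0 b1 G ζ u v) 2) := by ring
    rw [e1]
    exact (bd_sub y' (bd_add (abs_mul_le2 n8 l1') (abs_mul_le2 n9 l2'))).trans (by norm_num)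
  have dd : ∀ i, |dt (S'.e i) (S.e 0)| ≤ 1 := fun i =>
    abs_dt_le_one (by rw [h.st'.ortho i i]; simp) (by rw [h.st.ortho 0 0]; simp)
  have hw0 : ∀ i, S'.w 0 ≤ S'.w i := by
    intro i
    fin_cases i
    · exact le_rfl
    · exact h.o1'.trans h.o2'
    · exact h.o1'
  have df : ∀ i, |xc S' (Xp S b0 b1 G ζ u v) i - xc S' (Xq S b0 u v) i| ≤
      S.w 0 * kap b0 b1 G / S'.w 0 := by
    intro i
    have hs : |S.w 0| ≤ S.w 0 := by rw [abs_of_pos (hw 0)]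
    rw [xc_Xp, abs_div, abs_of_pos (hw' i)]
    have h5 := abs_mul_le2 (abs_mul_le2 hy hs) (dd i)
    calc _ ≤ kap b0 b1 G * S.w 0 * 1 / S'.w i := div_le_div_of_nonneg_right h5 (hw' i).le
      _ ≤ kap b0 b1 G * S.w 0 * 1 / S'.w 0 :=
          div_le_div_of_nonneg_left (mul_nonneg (mul_nonneg hk (hw 0).le) zero_le_one) (hw' 0)
            (hw0 i)
      _ = _ := by ring
  have hds : S.w 0 * kap b0 b1 G / S'.w 0 ≤ 1 / 2 ^ 20 := by
    rw [div_le_iff₀ (hw' 0)]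
    nlinarith
  have lp : ∀ i, |xc S' (Xp S b0 b1 G ζ u v) i| ≤ 1 / 16 := by
    intro i
    fin_cases i
    · exact l0'.trans (by norm_num)
    · exact l1'.trans (by norm_num)
    · exact l2'.trans (by norm_num)
  have lp2 : ∀ i, |xc S' (Xp S b0 b1 G ζ u v) i| ≤ 1 / 50 := by
    intro i
    fin_cases i
    · exact l0'
    · exact l1'.trans (by norm_num)
    · exact l2'.trans (by norm_num)
  have lq : ∀ i, |xc S' (Xq S b0 u v) i| ≤ 1 / 16 := by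
    intro i
    have e1 : xc S' (Xq S b0 u v) i = xc S' (Xp S b0 b1 G ζ u v) i -
        (xc S' (Xp S b0 b1 G ζ u v) i - xc S' (Xq S b0 u v) i) := by ring
    rw [e1]
    exact (bd_sub (lp2 i) ((df i).trans hds)).trans (by norm_num)
  have lip := Fq_lip N' m0 m1 lp lq df
  have vl := h.toTwo.val hE' h0 h1 _ (h.toTwo.val_gp hE N h0 h1 t0 (by linarith) hu hv)
  have e1 : |Fq b0' b1' G' (zt z0 ρ z0' ρ' ζ) (xc S' (Xq S b0 u v))| ≤
      |Fq b0' b1' G' (zt z0 ρ z0' ρ' ζ) (xc S' (Xp S b0 b1 G ζ u v))| +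
        5 * (S.w 0 * kap b0 b1 G / S'.w 0) := by
    have e2 : Fq b0' b1' G' (zt z0 ρ z0' ρ' ζ) (xc S' (Xq S b0 u v)) =
        Fq b0' b1' G' (zt z0 ρ z0' ρ' ζ) (xc S' (Xp S b0 b1 G ζ u v)) -
        (Fq b0' b1' G' (zt z0 ρ z0' ρ' ζ) (xc S' (Xp S b0 b1 G ζ u v)) -
          Fq b0' b1' G' (zt z0 ρ z0' ρ' ζ) (xc S' (Xq S b0 u v))) := by ring
    rw [e2]
    exact bd_sub le_rfl lip
  have e3 := mul_le_mul_of_nonneg_left e1 (hw' 0).le
  have e4 : S'.w 0 * (5 * (S.w 0 * kap b0 b1 G / S'.w 0)) = 5 * (S.w 0 * kap b0 b1 G) := by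
    have := (hw' 0).ne'
    field_simp
  rw [mul_add, e4] at e3
  linarith

/-- fine lateral coordinates from the coarse coordinates -/
theorem Two'.lat' (h : Two' Λ E S S' T z0 ρ z0' ρ') (x : V3) :
    |dt (S.e 1) (cmb (fr S'.e S'.w) x) / S.w 1| ≤ Λ * (|x 0| + |x 1| + |x 2|) ∧
      |dt (S.e 2) (cmb (fr S'.e S'.w) x) / S.w 2| ≤ Λ * (|x 0| + |x 1| + |x 2|) := by
  have hw := h.st.pos
  have hw' := h.st'.pos
  have hΛ := h.one
  have d : ∀ i k, |dt (S.e i) (S'.e k)| ≤ 1 := fun i k =>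
    abs_dt_le_one (by rw [h.st.ortho i i]; simp) (by rw [h.st'.ortho k k]; simp)
  have a : ∀ i, 0 ≤ |x i| := fun i => abs_nonneg _
  have s0 : ∀ i, |S'.w i| = S'.w i := fun i => abs_of_pos (hw' i)
  have key : ∀ (i : Fin 3) (K : ℝ), S'.w 0 * |dt (S.e i) (S'.e 0)| ≤ K →
      S'.w 1 * |dt (S.e i) (S'.e 1)| ≤ K → S'.w 2 * |dt (S.e i) (S'.e 2)| ≤ K →
      |dt (S.e i) (cmb (fr S'.e S'.w) x)| ≤ (|x 0| + |x 1| + |x 2|) * K := by
    intro i K h0 h1 h2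
    rw [dt_cmb]
    refine (abs_add_le _ _).trans ?_
    have e1 := abs_add_le (x 0 * (S'.w 0 * dt (S.e i) (S'.e 0)))
      (x 1 * (S'.w 1 * dt (S.e i) (S'.e 1)))
    have f0 : |x 0 * (S'.w 0 * dt (S.e i) (S'.e 0))| ≤ |x 0| * K := by
      rw [abs_mul, abs_mul, s0]; exact mul_le_mul_of_nonneg_left h0 (a 0)
    have f1 : |x 1 * (S'.w 1 * dt (S.e i) (S'.e 1))| ≤ |x 1| * K := by
      rw [abs_mul, abs_mul, s0]; exact mul_le_mul_of_nonneg_left h1 (a 1)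
    have f2 : |x 2 * (S'.w 2 * dt (S.e i) (S'.e 2))| ≤ |x 2| * K := by
      rw [abs_mul, abs_mul, s0]; exact mul_le_mul_of_nonneg_left h2 (a 2)
    linarith
  have e : ∀ i k, S'.w k * |dt (S.e i) (S'.e k)| ≤ S'.w k := fun i k =>
    mul_le_of_le_one_right (hw' k).le (d i k)
  have o1' := h.o1'
  have o2' := h.o2'
  have w1' := h.w1'
  have w2' := h.w2'
  have k1 := key 1 (Λ * S.w 1) ((e 1 0).trans (by linarith)) ((e 1 1).trans (by linarith))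
    ((e 1 2).trans (by linarith))
  have k2 := key 2 (Λ * S.w 2) ((e 2 0).trans (by linarith)) (by rw [mul_comm]; exact h.g')
    ((e 2 2).trans (by linarith))
  constructor
  · rw [abs_div, abs_of_pos (hw 1), div_le_iff₀ (hw 1)]
    linarith
  · rw [abs_div, abs_of_pos (hw 2), div_le_iff₀ (hw 2)]
    linarith

set_option maxHeartbeats 1000000 in
/-- **upwards: the curvature extent of the coarse sheet is bounded by the one of the fine sheet** -/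
theorem Two'.kap_up (h : Two' Λ E S S' T z0 ρ z0' ρ') (hE : IsExp S.q S.e S.w T z0 ρ b0 b1 G)
    (hE' : IsExp S'.q S'.e S'.w T z0' ρ' b0' b1' G') :
    S'.w 0 * kap b0' b1' G' ≤ 10 ^ 22 * Λ ^ 5 * (E + S'.a + S.w 0 * kap b0 b1 G) := by
  have N : NrmC b0 b1 G := hE.nrmC h.st h.ρ0.le fun z z1 z2 => (h.inn z z1 z2).1
  have N' : NrmC b0' b1' G' := hE'.nrmC h.st' h.ρ0'.le fun z z1 z2 => (h.inn' z z1 z2).1
  have hΛ := h.one
  have hw := h.st.pos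
  have hw' := h.st'.pos
  have hk := Tl102.kap_nonneg b0 b1 G
  have hk0' := Tl102.kap_nonneg b0' b1' G'
  have hk' := Tl102.kap_le N'
  have ha := h.a0
  have hEE := h.toTwo.E0
  have hΛ0 : 0 < Λ := by linarith
  have hwk : 0 ≤ S.w 0 * kap b0 b1 G := mul_nonneg (hw 0).le hk
  obtain ⟨D, hD⟩ : ∃ D, D = E + S'.a + S.w 0 * kap b0 b1 G := ⟨_, rfl⟩
  have D0 : 0 < D := by rw [hD]; linarith
  rw [← hD]
  have Λ2 : 1 ≤ Λ ^ 2 := one_le_pow₀ hΛ
  have Λ3 : 1 ≤ Λ ^ 3 := one_le_pow₀ hΛ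
  have Λ5 : Λ ^ 2 ≤ Λ ^ 5 := pow_le_pow_right₀ hΛ (by norm_num)
  rcases lt_or_ge (S'.w 0) (2 ^ 40 * Λ ^ 2 * D) with hs | hs
  · calc S'.w 0 * kap b0' b1' G' ≤ S'.w 0 * 13 := mul_le_mul_of_nonneg_left hk' (hw' 0).le
      _ ≤ 2 ^ 40 * Λ ^ 2 * D * 13 := mul_le_mul_of_nonneg_right hs.le (by norm_num)
      _ = (2 ^ 40 * 13) * (Λ ^ 2 * D) := by ring
      _ ≤ 10 ^ 22 * (Λ ^ 5 * D) := mul_le_mul (by norm_num)
          (mul_le_mul_of_nonneg_right Λ5 D0.le) (by positivity) (by norm_num)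
      _ = _ := by ring
  obtain ⟨n1, -, -, -, -, -, -, n8, n9⟩ := N.b1_le
  have hb : b0 0 ≠ 0 := by
    intro hz; rw [hz] at n1; linarith
  set t := 1 / (2 ^ 26 * Λ) with ht
  have t0 : 0 < t := by positivity
  have t1 : t * Λ = 1 / 2 ^ 26 := by rw [ht]; field_simp
  have star := fun {ζ : ℝ} (h0 : 0 ≤ ζ) (h1 : ζ ≤ 1) {u v : ℝ} (hu : |u| ≤ t) (hv : |v| ≤ t) =>
    h.star hE N hE' N' hD.ge hs h0 h1 t0.le t1.le hu hv
  -- the normal vector of the fine sheet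
  set m : V3 := S.e 0 + (b0 1 / b0 0 * (S.w 0 / S.w 1)) • S.e 1 +
    (b0 2 / b0 0 * (S.w 0 / S.w 2)) • S.e 2 with hm
  have md : ∀ x, dt m x = dt (S.e 0) x + b0 1 / b0 0 * (S.w 0 / S.w 1) * dt (S.e 1) x +
      b0 2 / b0 0 * (S.w 0 / S.w 2) * dt (S.e 2) x := by
    intro x; rw [hm]; simp only [add_dt, smul_dt]
  -- points of the plane
  have pl : ∀ X : V3, dt m X = 0 → X = Xq S b0 (dt (S.e 1) X / S.w 1) (dt (S.e 2) X / S.w 2) := by
    intro X hX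
    have h4 := point_eq_cmb h.st.ortho hw (0 : V3) X
    rw [zero_add, sub_zero] at h4
    rw [md] at hX
    have h5 : dt (S.e 0) X / S.w 0 = -(b0 1 / b0 0) * (dt (S.e 1) X / S.w 1) -
        b0 2 / b0 0 * (dt (S.e 2) X / S.w 2) := by
      have h6 : dt (S.e 0) X = -(b0 1 / b0 0 * (S.w 0 / S.w 1) * dt (S.e 1) X) -
        b0 2 / b0 0 * (S.w 0 / S.w 2) * dt (S.e 2) X := by linarith
      rw [h6]
      have g0 := (hw 0).ne'
      field_simp
    unfold Xq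
    rw [← h5]
    exact h4
  -- coarse coordinates of a combination of the coarse frame
  have xcc : ∀ x : V3, xc S' (cmb (fr S'.e S'.w) x) = x := by
    intro x
    funext i
    unfold xc
    rw [dt_cmb_fr h.st'.ortho]
    have := (hw' i).ne'
    field_simp
  -- the value on the plane in coarse coordinates
  have val : ∀ x : V3, dt m (cmb (fr S'.e S'.w) x) = 0 → Λ * (|x 0| + |x 1| + |x 2|) ≤ t →
      ∀ ζ, 0 ≤ ζ → ζ ≤ 1 → S'.w 0 * |Fq b0' b1' G' (zt z0 ρ z0' ρ' ζ) x| ≤ 5 * D := by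
    intro x hx hxt ζ h0 h1
    obtain ⟨l1, l2⟩ := h.lat' x
    have := star h0 h1 (l1.trans hxt) (l2.trans hxt)
    rw [← pl _ hx, xcc] at this
    exact this
  -- the slopes
  have slope : ∀ x : V3, dt m (cmb (fr S'.e S'.w) x) = 0 → |x 0| ≤ 5 * (|x 1| + |x 2|) := by
    intro x hx
    by_cases hs0 : |x 0| + |x 1| + |x 2| = 0
    · have := abs_nonneg (x 0)
      have := abs_nonneg (x 1)
      have := abs_nonneg (x 2)
      linarith
    have hsp : 0 < |x 0| + |x 1| + |x 2| := lt_of_le_of_ne (by positivity) (Ne.symm hs0)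
    set s := |x 0| + |x 1| + |x 2| with hsd
    set l := t / (Λ * s) with hl
    have l0 : 0 < l := by positivity
    have e1 : ∀ c : ℝ, |c| = 1 → dt m (cmb (fr S'.e S'.w) (fun i => c * l * x i)) = 0 ∧
        Λ * (|c * l * x 0| + |c * l * x 1| + |c * l * x 2|) ≤ t := by
      intro c hc
      constructor
      · rw [dt_cmb] at hx ⊢
        have : c * l * x 0 * (S'.w 0 * dt m (S'.e 0)) + c * l * x 1 * (S'.w 1 * dt m (S'.e 1)) +
            c * l * x 2 * (S'.w 2 * dt m (S'.e 2)) = c * l * (x 0 * (S'.w 0 * dt m (S'.e 0)) +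
            x 1 * (S'.w 1 * dt m (S'.e 1)) + x 2 * (S'.w 2 * dt m (S'.e 2))) := by ring
        rw [this, hx, mul_zero]
      · have e9 : ∀ y : ℝ, |c * l * y| = l * |y| := fun y => by
          rw [abs_mul, abs_mul, hc, one_mul, abs_of_pos l0]
        rw [e9, e9, e9]
        have : Λ * (l * |x 0| + l * |x 1| + l * |x 2|) = l * (Λ * s) := by rw [hsd]; ring
        rw [this, hl]
        refine le_of_eq ?_
        field_simp
    obtain ⟨p1, p2⟩ := e1 1 (by simp)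
    obtain ⟨q1, q2⟩ := e1 (-1) (by simp)
    have v1 := val _ p1 p2 0 le_rfl zero_le_one
    have v2 := val _ q1 q2 0 le_rfl zero_le_one
    set z := zt z0 ρ z0' ρ' 0 with hz
    obtain ⟨m0, m1, m2⟩ := h.toTwo.zt_mem (ζ := 0) le_rfl zero_le_one
    obtain ⟨s1, s2, s3, s4⟩ := b_zeta N' m0 m1
    have e2 : Fq b0' b1' G' z (fun i => 1 * l * x i) - Fq b0' b1' G' z (fun i => -1 * l * x i) =
        2 * l * ((b0' 0 + z * b1' 0) * x 0 + (b0' 1 + z * b1' 1) * x 1 +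
          (b0' 2 + z * b1' 2) * x 2) := by
      simp only [Fq, dt, bz, QF.ev]
      ring
    have e3 : S'.w 0 * (2 * l * |(b0' 0 + z * b1' 0) * x 0 + (b0' 1 + z * b1' 1) * x 1 +
          (b0' 2 + z * b1' 2) * x 2|) ≤ 10 * D := by
      have e4 : 2 * l * |(b0' 0 + z * b1' 0) * x 0 + (b0' 1 + z * b1' 1) * x 1 +
          (b0' 2 + z * b1' 2) * x 2| = |2 * l * ((b0' 0 + z * b1' 0) * x 0 +
            (b0' 1 + z * b1' 1) * x 1 + (b0' 2 + z * b1' 2) * x 2)| := by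
        rw [abs_mul, abs_mul, abs_two, abs_of_pos l0]
      rw [e4, ← e2]
      have := mul_le_mul_of_nonneg_left (abs_sub (Fq b0' b1' G' z (fun i => 1 * l * x i))
        (Fq b0' b1' G' z (fun i => -1 * l * x i))) (hw' 0).le
      linarith
    -- `|L| ≤ s / 4`
    have e5 : |(b0' 0 + z * b1' 0) * x 0 + (b0' 1 + z * b1' 1) * x 1 +
          (b0' 2 + z * b1' 2) * x 2| ≤ s / 4 := by
      by_contra hc
      push Not at hc
      have f1 := mul_lt_mul_of_pos_left hc (by have := hw' 0; positivity : 0 < S'.w 0 * (2 * l))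
      have f2 : S'.w 0 * (2 * l) * (s / 4) = S'.w 0 * (t / (2 * Λ)) := by
        rw [hl]
        field_simp
        ring
      have f3 : t / (2 * Λ) = 1 / (2 ^ 27 * Λ ^ 2) := by
        rw [ht]; field_simp
      have f4 : 2 ^ 13 * D ≤ S'.w 0 * (1 / (2 ^ 27 * Λ ^ 2)) := by
        rw [mul_one_div, le_div_iff₀ (by positivity)]
        linarith
      rw [f2, f3] at f1
      linarith
    have e6 : (b0' 0 + z * b1' 0) * x 0 = ((b0' 0 + z * b1' 0) * x 0 + (b0' 1 + z * b1' 1) * x 1 +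
          (b0' 2 + z * b1' 2) * x 2) - ((b0' 1 + z * b1' 1) * x 1 + (b0' 2 + z * b1' 2) * x 2) := by
      ring
    have e7 : |(b0' 0 + z * b1' 0) * x 0| ≤ s / 4 + (1 * |x 1| + 1 * |x 2|) := by
      rw [e6]
      exact bd_sub e5 (bd_add (abs_mul_le2 s3 le_rfl) (abs_mul_le2 s4 le_rfl))
    rw [abs_mul, abs_of_pos (by linarith : 0 < b0' 0 + z * b1' 0)] at e7
    have e8 : 1 / 2 * |x 0| ≤ (b0' 0 + z * b1' 0) * |x 0| :=
      mul_le_mul_of_nonneg_right s1 (abs_nonneg _)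
    rw [hsd] at e7
    linarith
  -- the plane is a graph
  have hn0 : dt m (S'.e 0) ≠ 0 := by
    intro hz
    have := slope ![1, 0, 0] (by rw [dt_cmb]; simp [hz])
    simp at this
    linarith
  set α := -(S'.w 1 * dt m (S'.e 1)) / (S'.w 0 * dt m (S'.e 0)) with hα
  set β := -(S'.w 2 * dt m (S'.e 2)) / (S'.w 0 * dt m (S'.e 0)) with hβ
  have hw0n := (hw' 0).ne'
  have gr : ∀ u v : ℝ, dt m (cmb (fr S'.e S'.w) ![α * u + β * v, u, v]) = 0 := by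
    intro u v
    rw [dt_cmb]
    simp only [Matrix.cons_val]
    rw [hα, hβ]
    field_simp
    ring
  have bα : |α| ≤ 5 := by
    have := slope ![α * 1 + β * 0, 1, 0] (gr 1 0)
    simpa using this
  have bβ : |β| ≤ 5 := by
    have := slope ![α * 0 + β * 1, 0, 1] (gr 0 1)
    simpa using this
  set t' := t / (12 * Λ) with ht'
  have t0' : 0 < t' := by positivity
  have t1' : 12 * Λ * t' = t := by rw [ht']; field_simp
  have tle : t' ≤ 1 := by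
    have : t ≤ 1 := by nlinarith
    nlinarith
  -- small on the plane, heights of the fine cell
  have small : ∀ ζ, 0 ≤ ζ → ζ ≤ 1 → ∀ u v, |u| ≤ t' → |v| ≤ t' →
      |Fq b0' b1' G' (zt z0 ρ z0' ρ' ζ) ![α * u + β * v, u, v]| ≤ 5 * D / S'.w 0 := by
    intro ζ h0 h1 u v hu hv
    rw [le_div_iff₀ (hw' 0), mul_comm]
    refine val _ (gr u v) ?_ ζ h0 h1
    have e1 : |α * u + β * v| ≤ 5 * t' + 5 * t' := bd_add (abs_mul_le2 bα hu) (abs_mul_le2 bβ hv)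
    have e2 : |(![α * u + β * v, u, v] : V3) 0| + |(![α * u + β * v, u, v] : V3) 1| +
        |(![α * u + β * v, u, v] : V3) 2| ≤ 12 * t' := by
      simp only [Matrix.cons_val]
      linarith
    have := mul_le_mul_of_nonneg_left e2 hΛ0.le
    linarith
  -- all heights
  have all : ∀ ζ, 0 ≤ ζ → ζ ≤ 1 → ∀ u v, |u| ≤ t' → |v| ≤ t' →
      |Fq b0' b1' G' ζ ![α * u + β * v, u, v]| ≤ 3 * Λ * (5 * D / S'.w 0) := by
    intro ζ h0 h1 u v hu hv
    have v1 := small 0 le_rfl zero_le_one u v hu hv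
    have v2 := small 1 zero_le_one le_rfl u v hu hv
    obtain ⟨m0, m1, m2⟩ := h.toTwo.zt_mem (ζ := 0) le_rfl zero_le_one
    set za := zt z0 ρ z0' ρ' 0 with hza
    set zb := zt z0 ρ z0' ρ' 1 with hzb
    have hρ0 := h.ρ0
    have hρ0' := h.ρ0'
    have hzz : 1 ≤ Λ * (zb - za) := by
      have e1 : Λ * (zb - za) = Λ * ρ / ρ' := by
        rw [hzb, hza]; unfold zt; field_simp; ring
      rw [e1, le_div_iff₀ hρ0', one_mul]
      exact h.hρ
    set δ := 5 * D / S'.w 0 with hδ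
    have δ0 : 0 ≤ δ := (abs_nonneg _).trans v1
    set p := α * u + β * v with hp
    set Bv := b1' 0 * p + b1' 1 * u + b1' 2 * v with hBv
    have ev : ∀ a b : ℝ, Fq b0' b1' G' a ![p, u, v] = Fq b0' b1' G' b ![p, u, v] + (a - b) * Bv := by
      intro a b
      rw [hBv]
      simp only [Fq, dt, bz, QF.ev, Matrix.cons_val]
      ring
    have hB : |Bv| ≤ 2 * Λ * δ := by
      have e2 := ev zb za
      have e3 : (zb - za) * Bv = Fq b0' b1' G' zb ![p, u, v] - Fq b0' b1' G' za ![p, u, v] := by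
        linarith
      have e4 : |(zb - za) * Bv| ≤ δ + δ := by rw [e3]; exact bd_sub v2 v1
      have hzp : 0 < zb - za := by
        by_contra hc
        push Not at hc
        have := mul_nonpos_of_nonneg_of_nonpos hΛ0.le hc
        linarith
      rw [abs_mul, abs_of_pos hzp] at e4
      have e5 := mul_le_mul_of_nonneg_left e4 hΛ0.le
      have e6 := mul_le_mul_of_nonneg_right hzz (abs_nonneg Bv)
      linarith
    rw [ev ζ za]
    have e7 : |ζ - za| ≤ 1 := abs_le.2 ⟨by linarith, by linarith⟩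
    have e8 := bd_add v1 (abs_mul_le2 e7 hB)
    refine e8.trans ?_
    nlinarith
  have fin := kap_of_plane N' t0' tle (δ := 3 * Λ * (5 * D / S'.w 0)) (by
    have := (abs_nonneg _).trans (small 0 le_rfl zero_le_one 0 0 (by simpa using t0'.le)
      (by simpa using t0'.le))
    positivity) (bα.trans (by norm_num)) (bβ.trans (by norm_num)) all
  -- numbers
  have g1 : kap b0' b1' G' * t' ^ 2 * S'.w 0 ≤ 1800 * (Λ * D) := by
    have := mul_le_mul_of_nonneg_right fin (hw' 0).le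
    refine this.trans (le_of_eq ?_)
    field_simp
    ring
  have g2 : t' = 1 / (12 * 2 ^ 26 * Λ ^ 2) := by
    rw [ht', ht]; field_simp
  have g3 : S'.w 0 * kap b0' b1' G' =
      kap b0' b1' G' * t' ^ 2 * S'.w 0 * (12 * 2 ^ 26 * Λ ^ 2) ^ 2 := by
    have g4 : t' ^ 2 * (12 * 2 ^ 26 * Λ ^ 2) ^ 2 = 1 := by
      rw [← mul_pow, g2]
      have g5 : 1 / (12 * 2 ^ 26 * Λ ^ 2) * (12 * 2 ^ 26 * Λ ^ 2) = 1 := by field_simp
      rw [g5, one_pow]
    calc S'.w 0 * kap b0' b1' G' =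
          kap b0' b1' G' * S'.w 0 * (t' ^ 2 * (12 * 2 ^ 26 * Λ ^ 2) ^ 2) := by rw [g4]; ring
      _ = _ := by ring
  rw [g3]
  calc _ ≤ 1800 * (Λ * D) * (12 * 2 ^ 26 * Λ ^ 2) ^ 2 :=
        mul_le_mul_of_nonneg_right g1 (by positivity)
    _ = (1800 * (12 * 2 ^ 26) ^ 2) * (Λ ^ 5 * D) := by ring
    _ ≤ 10 ^ 22 * (Λ ^ 5 * D) := mul_le_mul_of_nonneg_right (by norm_num) (by positivity)
    _ = _ := by ring

end

end Crest.Agent.R136.Prs262
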