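import Crest.Agent.R138.Ex_926

/-!
# R136, U6 thin (helper327): exponents of the canonical box, as sequences

Levels `v ∈ [a, b]` (rational).  `Lin B X s` : `X n v ~ d^(s v)` relative to the other levels.
`lin_mul`, `lin_rpow`, `lin_of_rel` (a quantity which is determined up to `d^±ε` by linear ones and a
level-independent factor is linear), **`max_alt`** : a linear quantity which is the maximum of two linear
ones has the slope of one of them.
-/

set_option autoImplicit false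
set_option linter.unusedVariables false

open Filter Topology

namespace Crest.Agent.R136.Thx327

open Crest.Agent.R138.Ex926 (Base U)
open Crest.Agent.R138.Ex926.Base

variable {B : Base} {X Y Z W : ℕ → ℚ → ℝ} {s t a b : ℚ → ℝ}

/-- `X n v` has the exponent `s v` relative to the other levels of `[a, b]` -/
def Lin (B : Base) (a b : ℚ) (X : ℕ → ℚ → ℝ) (s : ℝ) : Prop :=
  (∀ v : ℚ, a ≤ v → v ≤ b → ∀ᶠ n in (U : Filter ℕ), 0 < X n v) ∧
  ∀ u v : ℚ, a ≤ u → u ≤ b → a ≤ v → v ≤ b →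
    Tendsto (fun n => Real.log (X n u / X n v) / B.L n) U (𝓝 (s * ((v : ℝ) - u)))

/-- `X` and `Y` agree up to `d^±ε` at every level of `[a, b]` -/
def Eqv (B : Base) (a b : ℚ) (X Y : ℕ → ℚ → ℝ) : Prop :=
  ∀ v : ℚ, a ≤ v → v ≤ b → ∀ ε : ℝ, 0 < ε → ∀ᶠ n in (U : Filter ℕ),
    B.d n ^ ε * Y n v ≤ X n v ∧ X n v ≤ B.d n ^ (-ε) * Y n v

section

variable {a b : ℚ}

theorem Lin.mul {s t : ℝ} (hX : Lin B a b X s) (hY : Lin B a b Y t) :
    Lin B a b (fun n v => X n v * Y n v) (s + t) := by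
  refine ⟨fun v h1 h2 => ?_, fun u v h1 h2 h3 h4 => ?_⟩
  · filter_upwards [hX.1 v h1 h2, hY.1 v h1 h2] with n p q using mul_pos p q
  · have h := (hX.2 u v h1 h2 h3 h4).add (hY.2 u v h1 h2 h3 h4)
    have e : s * ((v : ℝ) - u) + t * ((v : ℝ) - u) = (s + t) * ((v : ℝ) - u) := by ring
    rw [e] at h
    refine h.congr' ?_
    filter_upwards [hX.1 u h1 h2, hY.1 u h1 h2, hX.1 v h3 h4, hY.1 v h3 h4] with n p1 p2 p3 p4
    rw [mul_div_mul_comm, Real.log_mul (div_pos p1 p3).ne' (div_pos p2 p4).ne', add_div]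

theorem Lin.rpow {s : ℝ} (hX : Lin B a b X s) (r : ℝ) :
    Lin B a b (fun n v => X n v ^ r) (r * s) := by
  refine ⟨fun v h1 h2 => ?_, fun u v h1 h2 h3 h4 => ?_⟩
  · filter_upwards [hX.1 v h1 h2] with n p using Real.rpow_pos_of_pos p r
  · have h := (hX.2 u v h1 h2 h3 h4).const_mul r
    rw [← mul_assoc] at h
    refine h.congr' ?_
    filter_upwards [hX.1 u h1 h2, hX.1 v h3 h4] with n p1 p3
    rw [← Real.div_rpow p1.le p3.le, Real.log_rpow (div_pos p1 p3), mul_div_assoc]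

/-- level-independent factor -/
theorem Lin.const {D : ℕ → ℝ} (hD : ∀ᶠ n in (U : Filter ℕ), 0 < D n) :
    Lin B a b (fun n _ => D n) 0 := by
  refine ⟨fun v h1 h2 => hD, fun u v h1 h2 h3 h4 => ?_⟩
  rw [zero_mul]
  refine tendsto_const_nhds.congr' ?_
  filter_upwards [hD] with n p
  rw [div_self p.ne', Real.log_one, zero_div]

/-- a quantity which agrees with a linear one up to `d^±ε` is linear -/
theorem Lin.of_eqv {s : ℝ} (hY : Lin B a b Y s) (h : Eqv B a b X Y) : Lin B a b X s := by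
  have pos : ∀ v : ℚ, a ≤ v → v ≤ b → ∀ᶠ n in (U : Filter ℕ), 0 < X n v := by
    intro v h1 h2
    filter_upwards [hY.1 v h1 h2, h v h1 h2 1 one_pos] with n p q
    exact lt_of_lt_of_le (mul_pos (Real.rpow_pos_of_pos (B.pos n) _) p) q.1
  refine ⟨pos, fun u v h1 h2 h3 h4 => ?_⟩
  rw [Metric.tendsto_nhds]
  intro ε hε
  have e4 : 0 < ε / 4 := by positivity
  have hl := hY.2 u v h1 h2 h3 h4
  rw [Metric.tendsto_nhds] at hl
  filter_upwards [hl (ε / 4) e4, h u h1 h2 _ e4, h v h3 h4 _ e4, hY.1 u h1 h2, hY.1 v h3 h4,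
    pos u h1 h2, pos v h3 h4] with n k1 k2 k3 p1 p2 p3 p4
  have hL := B.L_pos n
  have hd := B.pos n
  have ld : Real.log (B.d n) = -B.L n := by simp [Base.L]
  rw [Real.dist_eq, Real.log_div p1.ne' p2.ne'] at k1
  rw [Real.dist_eq, Real.log_div p3.ne' p4.ne']
  have m : ∀ {x y : ℝ}, 0 < x → 0 < y → B.d n ^ (ε / 4) * y ≤ x → x ≤ B.d n ^ (-(ε / 4)) * y →
      |Real.log x - Real.log y| ≤ ε / 4 * B.L n := by
    intro x y hx hy i1 i2
    have j1 := Real.log_le_log (mul_pos (Real.rpow_pos_of_pos hd _) hy) i1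
    have j2 := Real.log_le_log hx i2
    rw [Real.log_mul (Real.rpow_pos_of_pos hd _).ne' hy.ne', Real.log_rpow hd, ld] at j1 j2
    rw [abs_le]
    constructor <;> linarith
  have m1 := m p3 p1 k2.1 k2.2
  have m2 := m p4 p2 k3.1 k3.2
  have e : (Real.log (X n u) - Real.log (X n v)) / B.L n - s * ((v : ℝ) - u) =
      ((Real.log (Y n u) - Real.log (Y n v)) / B.L n - s * ((v : ℝ) - u)) +
        ((Real.log (X n u) - Real.log (Y n u)) - (Real.log (X n v) - Real.log (Y n v))) / B.L n := by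
    field_simp
    ring
  rw [e]
  have m3 : |((Real.log (X n u) - Real.log (Y n u)) - (Real.log (X n v) - Real.log (Y n v))) /
      B.L n| ≤ ε / 2 := by
    rw [abs_div, abs_of_pos hL, div_le_iff₀ hL]
    refine (abs_sub _ _).trans ?_
    linarith
  calc _ ≤ _ := abs_add_le _ _
    _ < ε := by linarith

/-- equal exponents of one quantity -/
theorem Lin.unique {s t : ℝ} (hX : Lin B a b X s) (hY : Lin B a b X t) {u v : ℚ} (hau : a ≤ u)
    (huv : u < v) (hvb : v ≤ b) : s = t := by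
  have h := tendsto_nhds_unique (hX.2 u v hau (huv.le.trans hvb) (hau.trans huv.le) hvb)
    (hY.2 u v hau (huv.le.trans hvb) (hau.trans huv.le) hvb)
  have : (0 : ℝ) < (v : ℝ) - u := by
    have : (u : ℝ) < v := by exact_mod_cast huv
    linarith
  exact mul_right_cancel₀ this.ne' h

/-- two levels at which `X ~ Y` fix the slope -/
theorem slope_of_two {s t : ℝ} (hX : Lin B a b X s) (hY : Lin B a b Y t) {u v : ℚ} (hau : a ≤ u)
    (huv : u < v) (hvb : v ≤ b)
    (hu : ∀ ε : ℝ, 0 < ε → ∀ᶠ n in (U : Filter ℕ),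
      B.d n ^ ε * Y n u ≤ X n u ∧ X n u ≤ B.d n ^ (-ε) * Y n u)
    (hv : ∀ ε : ℝ, 0 < ε → ∀ᶠ n in (U : Filter ℕ),
      B.d n ^ ε * Y n v ≤ X n v ∧ X n v ≤ B.d n ^ (-ε) * Y n v) : s = t := by
  classical
  -- restrict to the two levels
  have hub : u ≤ b := huv.le.trans hvb
  have hav : a ≤ v := hau.trans huv.le
  set X' : ℕ → ℚ → ℝ := fun n w => if w = u ∨ w = v then X n w else Y n w with hX'
  have hXu : ∀ n, X' n u = X n u := fun n => by simp [hX']
  have hXv : ∀ n, X' n v = X n v := fun n => by simp [hX']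
  have hE : Eqv B a b X' Y := by
    intro w h1 h2 ε hε
    by_cases hw : w = u ∨ w = v
    · rcases hw with rfl | rfl
      · filter_upwards [hu ε hε] with n hn
        rw [hXu]; exact hn
      · filter_upwards [hv ε hε] with n hn
        rw [hXv]; exact hn
    · filter_upwards [hY.1 w h1 h2] with n hn
      have e1 : X' n w = Y n w := by simp [hX', hw]
      rw [e1]
      have h3 : B.d n ^ ε ≤ 1 := Real.rpow_le_one (B.pos n).le (B.lt n).le hε.le
      have h4 : 1 ≤ B.d n ^ (-ε) := by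
        rw [Real.rpow_neg (B.pos n).le]
        exact (one_le_inv₀ (Real.rpow_pos_of_pos (B.pos n) _)).2 h3
      constructor <;> nlinarith
  have h5 := (hY.of_eqv hE).2 u v hau hub hav hvb
  have h6 := hX.2 u v hau hub hav hvb
  simp only [hXu, hXv] at h5
  have h7 := tendsto_nhds_unique h6 h5
  have : (0 : ℝ) < (v : ℝ) - u := by
    have : (u : ℝ) < v := by exact_mod_cast huv
    linarith
  exact mul_right_cancel₀ this.ne' h7

/-- **a linear quantity which is the maximum of two linear ones** -/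
theorem max_alt {s sA sB : ℝ} (hX : Lin B a b X s) (hA : Lin B a b Y sA) (hB : Lin B a b Z sB)
    (hab : a < b) (h : Eqv B a b X (fun n v => max (Y n v) (Z n v))) : s = sA ∨ s = sB := by
  -- three levels
  have h3 : ∀ v : ℚ, a ≤ v → v ≤ b →
      (∀ ε : ℝ, 0 < ε → ∀ᶠ n in (U : Filter ℕ),
        B.d n ^ ε * Y n v ≤ X n v ∧ X n v ≤ B.d n ^ (-ε) * Y n v) ∨
      (∀ ε : ℝ, 0 < ε → ∀ᶠ n in (U : Filter ℕ),
        B.d n ^ ε * Z n v ≤ X n v ∧ X n v ≤ B.d n ^ (-ε) * Z n v) := by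
    intro v h1 h2
    rcases Crest.Agent.R138.Ex926.ev_em (fun n => Z n v ≤ Y n v) with hc | hc
    · left
      intro ε hε
      filter_upwards [hc, h v h1 h2 ε hε] with n k1 k2
      rwa [max_eq_left k1] at k2
    · right
      intro ε hε
      filter_upwards [hc, h v h1 h2 ε hε] with n k1 k2
      rwa [max_eq_right (le_of_lt (not_le.1 k1))] at k2
  set m : ℚ := (a + b) / 2 with hm
  have ham : a < m := by rw [hm]; linarith
  have hmb : m < b := by rw [hm]; linarith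
  rcases h3 a le_rfl hab.le with ha | ha <;> rcases h3 m ham.le hmb.le with hc | hc <;>
    rcases h3 b hab.le le_rfl with hd | hd
  · exact Or.inl (slope_of_two hX hA le_rfl ham hmb.le ha hc)
  · exact Or.inl (slope_of_two hX hA le_rfl ham hmb.le ha hc)
  · exact Or.inl (slope_of_two hX hA le_rfl hab le_rfl ha hd)
  · exact Or.inr (slope_of_two hX hB ham.le hmb le_rfl hc hd)
  · exact Or.inl (slope_of_two hX hA ham.le hmb le_rfl hc hd)
  · exact Or.inr (slope_of_two hX hB le_rfl hab le_rfl ha hd)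
  · exact Or.inr (slope_of_two hX hB le_rfl ham hmb.le ha hc)
  · exact Or.inr (slope_of_two hX hB le_rfl ham hmb.le ha hc)

/-- **exponents of the canonical box**: `Ye³ = D (w₁ w₂ ρ)²`, `W_B = Ye / ρ`, `W_A = l w₁ w₂ / W_B`,
`w₁ = max (W_A, W_B b)`, all up to `d^±ε` (`D, l, b` do not depend on the level).  Then `Ye, W_A, W_B`
are linear and `θ₂ = 2 θ₁` or `θ₁ = 2 θ₂`. -/
theorem canon_alt {ρ w1 w2 Ye WA WB : ℕ → ℚ → ℝ} {D l bb : ℕ → ℝ} {θ1 θ2 : ℝ} (hab : a < b)
    (hρ : Lin B a b ρ 1) (h1 : Lin B a b w1 (1 - θ1)) (h2 : Lin B a b w2 (1 - θ2))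
    (hD : ∀ᶠ n in (U : Filter ℕ), 0 < D n) (hl : ∀ᶠ n in (U : Filter ℕ), 0 < l n)
    (hb : ∀ᶠ n in (U : Filter ℕ), 0 < bb n)
    (hY : Eqv B a b Ye (fun n v => (D n * (w1 n v * w2 n v * ρ n v) ^ (2 : ℝ)) ^ (1 / 3 : ℝ)))
    (hWB : Eqv B a b WB (fun n v => Ye n v * ρ n v ^ (-1 : ℝ)))
    (hWA : Eqv B a b WA (fun n v => l n * (w1 n v * w2 n v) * WB n v ^ (-1 : ℝ)))
    (hmax : Eqv B a b w1 (fun n v => max (WA n v) (WB n v * bb n))) :
    Lin B a b Ye (2 / 3 * (3 - θ1 - θ2)) ∧ Lin B a b WB (2 / 3 * (3 - θ1 - θ2) - 1) ∧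
      Lin B a b WA (1 / 3 * (3 - θ1 - θ2)) ∧ (θ2 = 2 * θ1 ∨ θ1 = 2 * θ2) := by
  have hYe : Lin B a b Ye (2 / 3 * (3 - θ1 - θ2)) := by
    have h := (((Lin.const (B := B) (a := a) (b := b) hD).mul
      (((h1.mul h2).mul hρ).rpow 2)).rpow (1 / 3)).of_eqv hY
    have e : 1 / 3 * (0 + 2 * ((1 - θ1) + (1 - θ2) + 1)) = 2 / 3 * (3 - θ1 - θ2) := by ring
    rwa [e] at h
  have hB' : Lin B a b WB (2 / 3 * (3 - θ1 - θ2) - 1) := by
    have h := (hYe.mul (hρ.rpow (-1))).of_eqv hWB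
    have e : 2 / 3 * (3 - θ1 - θ2) + -1 * 1 = 2 / 3 * (3 - θ1 - θ2) - 1 := by ring
    rwa [e] at h
  have hA' : Lin B a b WA (1 / 3 * (3 - θ1 - θ2)) := by
    have h := (((Lin.const (B := B) (a := a) (b := b) hl).mul (h1.mul h2)).mul
      (hB'.rpow (-1))).of_eqv hWA
    have e : 0 + ((1 - θ1) + (1 - θ2)) + -1 * (2 / 3 * (3 - θ1 - θ2) - 1) =
        1 / 3 * (3 - θ1 - θ2) := by ring
    rwa [e] at h
  refine ⟨hYe, hB', hA', ?_⟩
  have hBb : Lin B a b (fun n v => WB n v * bb n) (2 / 3 * (3 - θ1 - θ2) - 1) := by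
    have h := hB'.mul (Lin.const (B := B) (a := a) (b := b) hb)
    rwa [add_zero] at h
  rcases max_alt h1 hA' hBb hab hmax with h | h
  · left; linarith
  · right; linarith

end

end Crest.Agent.R136.Thx327
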