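import Crest.Agent.R136.Us0_555
import Crest.Agent.R136.ZoomA_102
import Crest.Agent.R136.Thx_327
import Crest.Agent.R136.Tlt0_51
import Crest.Agent.R138.MkPoint_627

/-!
# R136 (S0187), U6 (helper555), part 4: the diagonal (second window) with carried properties

* `Car1`, `Car2` : countable families of properties of one level / two levels with a loss `δ`;
* `exists_affine_in` : affine level maps into a given interval `[a0, b0]`, concentrating at a point;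
* `MkA.win` : marked sequences with linear exponents pass to a small window inside `[a0, b0]`, all
  properties are carried, every fixed power of `d` becomes smaller than every power of the new base;
* `zmD` : the data of the window;
* `J1c.avoid`, `J1c.good` (and `J1` forms) : dense part which avoids countably many negligible sets;
* `Lin.win`, `Eqv.win` : helper327's exponents of sequences in the window.
-/

set_option autoImplicit false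
set_option linter.unusedVariables false
set_option linter.unusedSectionVars false

open Finset Filter Topology

namespace Crest.Agent.R136.Us555

open Crest.Agent.R138.Ex926 (Base U exists_diag)
open Crest.Agent.R138.Dp76
open Crest.Agent.R138.Mk163 (zc zl rho alive own Negl)
open Crest.Agent.R138.MkPoint627 (exists_affine)
open Crest.Agent.R138.MkZoom779 (Fq Fq_mem ev_mem_Fq zero_mem_Fq)
open Crest.Agent.R138.NatTw76 (exists_avoid)
open Crest.Agent.R136.MkA627 Crest.Agent.R136.Sh605 Crest.Agent.R136.K4 Crest.Agent.R136.Top484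
open Crest.Agent.R136.ZoomA102 (zoomA)
open Crest.Agent.R136.Thx327 (Lin Eqv)
open Crest.Agent.R136.Tlt51 (mk4 zx rh TiltOK Close)

/-- properties of one level with a loss, on `[a, b]` -/
structure Car1 (a b : ℚ) (Q : ℕ → ℕ → ℚ → ℝ → Prop) : Prop where
  mono : ∀ i n v δ δ', δ ≤ δ' → Q i n v δ → Q i n v δ'
  ev : ∀ i, ∀ v : ℚ, a ≤ v → v ≤ b → ∀ δ : ℝ, 0 < δ → ∀ᶠ n in (U : Filter ℕ), Q i n v δ

/-- properties of two levels with a loss, on `[a, b]` -/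
structure Car2 (a b : ℚ) (Q : ℕ → ℕ → ℚ → ℚ → ℝ → Prop) : Prop where
  mono : ∀ i n u v δ δ', δ ≤ δ' → Q i n u v δ → Q i n u v δ'
  ev : ∀ i, ∀ u v : ℚ, a ≤ u → u < v → v ≤ b → ∀ δ : ℝ, 0 < δ →
    ∀ᶠ n in (U : Filter ℕ), Q i n u v δ

section car

variable {a b a' b' : ℚ} {Q Q' : ℕ → ℕ → ℚ → ℝ → Prop} {R R' : ℕ → ℕ → ℚ → ℚ → ℝ → Prop}

theorem Car1.sub (h : Car1 a b Q) (ha : a ≤ a') (hb : b' ≤ b) : Car1 a' b' Q :=
  ⟨h.mono, fun i v h1 h2 => h.ev i v (ha.trans h1) (h2.trans hb)⟩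

theorem Car2.sub (h : Car2 a b R) (ha : a ≤ a') (hb : b' ≤ b) : Car2 a' b' R :=
  ⟨h.mono, fun i u v h1 h2 h3 => h.ev i u v (ha.trans h1) h2 (h3.trans hb)⟩

/-- no property -/
theorem Car1.triv : Car1 a b fun _ _ _ _ => True :=
  ⟨fun _ _ _ _ _ _ _ => trivial, fun _ _ _ _ _ _ => Eventually.of_forall fun _ => trivial⟩

theorem Car2.triv : Car2 a b fun _ _ _ _ _ => True :=
  ⟨fun _ _ _ _ _ _ _ _ => trivial, fun _ _ _ _ _ _ _ _ => Eventually.of_forall fun _ => trivial⟩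

/-- properties without loss -/
theorem Car1.of_const {P : ℕ → ℕ → ℚ → Prop}
    (h : ∀ i, ∀ v : ℚ, a ≤ v → v ≤ b → ∀ᶠ n in (U : Filter ℕ), P i n v) :
    Car1 a b fun i n v _ => P i n v :=
  ⟨fun i n v δ δ' _ h => h, fun i v h0 h1 δ _ => h i v h0 h1⟩

theorem Car2.of_const {P : ℕ → ℕ → ℚ → ℚ → Prop}
    (h : ∀ i, ∀ u v : ℚ, a ≤ u → u < v → v ≤ b → ∀ᶠ n in (U : Filter ℕ), P i n u v) :
    Car2 a b fun i n u v _ => P i n u v :=
  ⟨fun i n u v δ δ' _ h => h, fun i u v h0 h01 h1 δ _ => h i u v h0 h01 h1⟩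

/-- two families at once (even and odd numbers) -/
theorem Car1.and (h : Car1 a b Q) (h' : Car1 a b Q') :
    Car1 a b fun i n v δ => Q i n v δ ∧ Q' i n v δ :=
  ⟨fun i n v δ δ' hd hq => ⟨h.mono i n v δ δ' hd hq.1, h'.mono i n v δ δ' hd hq.2⟩,
    fun i v h0 h1 δ hδ => (h.ev i v h0 h1 δ hδ).and (h'.ev i v h0 h1 δ hδ)⟩

theorem Car2.and (h : Car2 a b R) (h' : Car2 a b R') :
    Car2 a b fun i n u v δ => R i n u v δ ∧ R' i n u v δ :=
  ⟨fun i n u v δ δ' hd hq => ⟨h.mono i n u v δ δ' hd hq.1, h'.mono i n u v δ δ' hd hq.2⟩,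
    fun i u v h0 h01 h1 δ hδ => (h.ev i u v h0 h01 h1 δ hδ).and (h'.ev i u v h0 h01 h1 δ hδ)⟩

end car

/-- **affine level maps into `[a0, b0]`**, concentrating at the midpoint. -/
theorem exists_affine_in {a0 b0 : ℚ} (ha : 0 ≤ a0) (hab : a0 < b0) (hb : b0 ≤ 1) :
    ∃ (η : ℕ → ℝ) (mm : ℕ → ℚ → ℚ), (∀ k, 0 < η k) ∧ (∀ k, η k ≤ 1) ∧ Tendsto η atTop (𝓝 0) ∧
      (∀ k, ∀ x : ℚ, 0 ≤ x → x ≤ 1 → a0 ≤ mm k x ∧ mm k x ≤ b0) ∧
      (∀ k, ∀ x y : ℚ, x ≤ y → mm k x ≤ mm k y) ∧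
      (∀ k, ∀ x y : ℚ, (mm k y : ℝ) - mm k x = η k * ((y : ℝ) - x)) := by
  have hab' : (a0 : ℝ) < b0 := by exact_mod_cast hab
  have ha' : (0 : ℝ) ≤ a0 := by exact_mod_cast ha
  have hb' : (b0 : ℝ) ≤ 1 := by exact_mod_cast hb
  obtain ⟨η, mm, h1, h2, h3, h4, h5, h6, h7, h8⟩ :=
    exists_affine (v0 := ((a0 : ℝ) + b0) / 2) (by linarith) (by linarith)
  have e0 : ∀ᶠ k in atTop, ((mm k 0 : ℚ) : ℝ) ∈ Set.Ioo (a0 : ℝ) b0 :=
    (h7 0).eventually (Ioo_mem_nhds (by linarith) (by linarith))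
  have e1 : ∀ᶠ k in atTop, ((mm k 1 : ℚ) : ℝ) ∈ Set.Ioo (a0 : ℝ) b0 :=
    (h7 1).eventually (Ioo_mem_nhds (by linarith) (by linarith))
  obtain ⟨K, hK⟩ := eventually_atTop.1 (e0.and e1)
  refine ⟨fun k => η (k + K), fun k => mm (k + K), fun k => h1 _, fun k => h2 _,
    h3.comp (tendsto_add_atTop_nat K), fun k x hx0 hx1 => ?_, fun k x y hxy => h5 _ x y hxy,
    fun k x y => ?_⟩
  · obtain ⟨p1, p2⟩ := hK (k + K) (Nat.le_add_left _ _)
    have q1 : a0 < mm (k + K) 0 := by exact_mod_cast p1.1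
    have q2 : mm (k + K) 1 < b0 := by exact_mod_cast p2.2
    exact ⟨q1.le.trans (h5 _ 0 x hx0), (h5 _ x 1 hx1).trans q2.le⟩
  · have h := h6 (k + K) x y
    rw [div_eq_iff (h1 _).ne'] at h
    rw [h]; ring

/-- small powers of the old base against powers of the new base -/
theorem gain_of {B B' : Base} {H : ℕ → ℝ} (hB : ∀ n, B'.d n = B.d n ^ H n)
    (hH : Tendsto H U (𝓝 0)) {c : ℝ} (hc : 0 < c) (M : ℝ) :
    ∀ᶠ n in (U : Filter ℕ), B.d n ^ c ≤ B'.d n ^ M := by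
  have h1 : Tendsto (fun n => H n * M) U (𝓝 (0 * M)) := hH.mul_const M
  rw [zero_mul] at h1
  filter_upwards [h1.eventually_lt_const hc] with n hn
  rw [hB, ← Real.rpow_mul (B.pos n).le]
  exact dpow_le B n hn.le

section

variable {σ κ : Type*} {B : Base} {I : ℕ → Finset (ℕ × ℝ)} {G : Geo σ κ} {lev : ℕ → ℚ → ℕ}
    {A : ℕ → ℝ} {g s : ℝ} {θ : κ → ℝ} {f : ℕ → ℚ → ℕ → ℤ → ℕ} {b : ℕ → ℚ → ℕ → σ}
    {vm : ℕ → ℚ → ℝ} {w : κ → ℕ → ℚ → ℝ}

/-- **THE DIAGONAL.** -/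
theorem _root_.Crest.Agent.R136.MkA627.MkA.win [Countable κ]
    (h : MkA B I G lev A (fun v => g * v) (fun v => s * v) (fun j v => θ j * (1 - v)) f b vm w)
    {a0 b0 : ℚ} (ha : 0 ≤ a0) (hab : a0 < b0) (hb : b0 ≤ 1)
    {Q1 : ℕ → ℕ → ℚ → ℝ → Prop} (hQ1 : Car1 a0 b0 Q1)
    {Q2 : ℕ → ℕ → ℚ → ℚ → ℝ → Prop} (hQ2 : Car2 a0 b0 Q2) :
    ∃ (H : ℕ → ℝ) (mm : ℕ → ℚ → ℚ) (B' : Base) (I' : ℕ → Finset (ℕ × ℝ)) (A' : ℕ → ℝ),
      (∀ n, 0 < H n ∧ H n ≤ 1) ∧ Tendsto H U (𝓝 0) ∧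
      (∀ n, ∀ x : ℚ, 0 ≤ x → x ≤ 1 → a0 ≤ mm n x ∧ mm n x ≤ b0) ∧
      (∀ n, ∀ x y : ℚ, (mm n y : ℝ) - mm n x = H n * ((y : ℝ) - x)) ∧
      (∀ n, B'.d n = B.d n ^ H n) ∧ (∀ n, I' n ⊆ I n) ∧
      MkA B' I' G (fun n x => lev n (mm n x)) A' (fun v => g * v) (fun v => s * v)
        (fun j v => θ j * (1 - v)) (fun n x => f n (mm n x)) (fun n x => b n (mm n x))
        (fun n x => vm n (mm n x)) (fun j n x => w j n (mm n x)) ∧
      (∀ c : ℝ, 0 < c → ∀ M : ℝ, ∀ᶠ n in (U : Filter ℕ), B.d n ^ c ≤ B'.d n ^ M) ∧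
      Car1 0 1 (fun i n v δ => Q1 i n (mm n v) (H n * δ)) ∧
      Car2 0 1 (fun i n u v δ => Q2 i n (mm n u) (mm n v) (H n * δ)) := by
  classical
  obtain ⟨η, mm, hη, hη1, hη0, hm, hmono, hq⟩ := exists_affine_in ha hab hb
  have hm' : ∀ k, ∀ x : ℚ, 0 ≤ x → x ≤ 1 → 0 ≤ mm k x ∧ mm k x ≤ 1 := fun k x h0 h1 =>
    ⟨ha.trans (hm k x h0 h1).1, (hm k x h0 h1).2.trans hb⟩
  have hs01 : 0 ≤ s ∧ s ≤ 1 := by
    have := h.lam 0 1 le_rfl zero_le_one le_rfl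
    simpa using this
  obtain ⟨s1, hs1, hz⟩ := zoomA h η mm (fun v => g * v)
    (fun v => s * v) (fun j v => θ j * (1 - v)) hη hη1 hm'
    (fun x y _ hxy _ => Eventually.of_forall fun k => hmono k x y hxy)
    (fun x y _ _ _ => by
      have e1 : ∀ k, ((mm k y : ℝ) - mm k x) / η k = (y : ℝ) - x := fun k => by
        rw [hq, mul_div_cancel_left₀ _ (hη k).ne']
      simp only [e1]
      exact tendsto_const_nhds)
    (fun x hx0 hx1 => by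
      have e1 : ∀ k, (g * (mm k x : ℝ) - g * (mm k 0 : ℝ)) / η k = g * x := by
        intro k
        rw [← mul_sub, hq k 0 x]
        have := (hη k).ne'
        push_cast
        field_simp
        ring
      simp only [e1]
      exact tendsto_const_nhds)
    (fun x hx0 hx1 => by
      have e1 : ∀ k, (s * (mm k x : ℝ) - s * (mm k 0 : ℝ)) / η k = s * x := by
        intro k
        rw [← mul_sub, hq k 0 x]
        have := (hη k).ne'
        push_cast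
        field_simp
        ring
      simp only [e1]
      exact tendsto_const_nhds)
    (fun j x hx0 hx1 => by
      have e1 : ∀ k, (θ j * (1 - (mm k x : ℝ)) - θ j * (1 - (mm k 1 : ℝ))) / η k =
          θ j * (1 - x) := by
        intro k
        have e2 : θ j * (1 - (mm k x : ℝ)) - θ j * (1 - (mm k 1 : ℝ)) =
            θ j * ((mm k 1 : ℝ) - mm k x) := by ring
        rw [e2, hq k x 1]
        have := (hη k).ne'
        push_cast
        field_simp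
      simp only [e1]
      exact tendsto_const_nhds)
    (fun u v hu huv hv => by
      have e1 : s * v - s * u = s * (v - u) := by ring
      rw [e1]
      exact ⟨mul_nonneg hs01.1 (by linarith), by nlinarith⟩)
    (by simp) (by simp) (by simp)
  have hkp : ∀ k : ℕ, (0 : ℝ) < η k / (k + 1) := fun k => div_pos (hη k) (by positivity)
  have hlt : ∀ k, ∀ x y : ℚ, x < y → mm k x < mm k y := by
    intro k x y hxy
    have h1 := hq k x y
    have h2 : (x : ℝ) < y := by exact_mod_cast hxy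
    have h3 : 0 < η k * ((y : ℝ) - x) := mul_pos (hη k) (by linarith)
    have h4 : ((mm k x : ℚ) : ℝ) < (mm k y : ℚ) := by linarith
    exact_mod_cast h4
  obtain ⟨s3, hs3, hs3'⟩ := exists_diag (fun k n => ∀ i ∈ range (k + 1), ∀ x ∈ Fq k,
    Q1 i n (mm k x) (η k / (k + 1))) (by
      intro k
      rw [Filter.eventually_all_finset]
      intro i _
      rw [Filter.eventually_all_finset]
      intro x hx
      obtain ⟨hx0, hx1⟩ := Fq_mem hx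
      obtain ⟨hm0, hm1⟩ := hm k x hx0 hx1
      exact hQ1.ev i (mm k x) hm0 hm1 _ (hkp k))
  obtain ⟨s4, hs4, hs4'⟩ := exists_diag (fun k n => ∀ i ∈ range (k + 1), ∀ x ∈ Fq k, ∀ y ∈ Fq k,
    x < y → Q2 i n (mm k x) (mm k y) (η k / (k + 1))) (by
      intro k
      rw [Filter.eventually_all_finset]
      intro i _
      rw [Filter.eventually_all_finset]
      intro x hx
      rw [Filter.eventually_all_finset]
      intro y hy
      by_cases hxy : x < y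
      · obtain ⟨hx0, hx1⟩ := Fq_mem hx
        obtain ⟨hy0, hy1⟩ := Fq_mem hy
        exact (hQ2.ev i (mm k x) (mm k y) (hm k x hx0 hx1).1 (hlt k x y hxy) (hm k y hy0 hy1).2 _
          (hkp k)).mono fun n hn _ => hn
      · exact Eventually.of_forall fun n hn => absurd hn hxy)
  set t : ℕ → ℕ := fun n => min (s1 n) (min (s3 n) (s4 n)) with ht
  have htt : Tendsto t U atTop := by
    rw [tendsto_atTop]
    intro c
    filter_upwards [tendsto_atTop.1 hs1 c, tendsto_atTop.1 hs3 c, tendsto_atTop.1 hs4 c]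
      with n h1 h2 h3
    exact le_min h1 (le_min h2 h3)
  obtain ⟨B', I', A', hB', hI', hM'⟩ := hz t htt (Eventually.of_forall fun n => min_le_left _ _)
  have hH0 : Tendsto (fun n => η (t n)) U (𝓝 0) := hη0.comp htt
  have htend : Tendsto (fun n => 1 / ((t n : ℝ) + 1)) U (𝓝 0) :=
    tendsto_one_div_add_atTop_nhds_zero_nat.comp htt
  have hsmall : ∀ n {δ : ℝ}, 1 / ((t n : ℝ) + 1) ≤ δ → η (t n) / ((t n : ℝ) + 1) ≤ η (t n) * δ := by
    intro n δ hδ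
    have e3 : η (t n) / ((t n : ℝ) + 1) = η (t n) * (1 / ((t n : ℝ) + 1)) := by ring
    rw [e3]
    exact mul_le_mul_of_nonneg_left hδ (hη _).le
  refine ⟨fun n => η (t n), fun n => mm (t n), B', I', A', fun n => ⟨hη _, hη1 _⟩, hH0,
    fun n => hm (t n), fun n => hq (t n), hB', hI', hM', fun c hc M => gain_of hB' hH0 hc M,
    ⟨fun i n v δ δ' hδ hh => hQ1.mono i n _ _ _ (mul_le_mul_of_nonneg_left hδ (hη _).le) hh,
      fun i v h0 h1 δ hδ => ?_⟩,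
    ⟨fun i n u v δ δ' hδ hh => hQ2.mono i n _ _ _ _ (mul_le_mul_of_nonneg_left hδ (hη _).le) hh,
      fun i u v h0 h01 h1 δ hδ => ?_⟩⟩
  · filter_upwards [hs3', htt.eventually (ev_mem_Fq h0 h1), tendsto_atTop.1 htt i,
      (Metric.tendsto_nhds.1 htend) δ hδ] with n a1 a2 a3 a4
    rw [Real.dist_eq, sub_zero, abs_of_pos (by positivity)] at a4
    exact hQ1.mono i n _ _ _ (hsmall n a4.le) (a1 (t n) ((min_le_right _ _).trans (min_le_left _ _))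
      i (mem_range.2 (Nat.lt_succ_of_le a3)) v a2)
  · filter_upwards [hs4', htt.eventually (ev_mem_Fq h0 (h01.le.trans h1)),
      htt.eventually (ev_mem_Fq (h0.trans h01.le) h1), tendsto_atTop.1 htt i,
      (Metric.tendsto_nhds.1 htend) δ hδ] with n a1 a2 a2' a3 a4
    rw [Real.dist_eq, sub_zero, abs_of_pos (by positivity)] at a4
    exact hQ2.mono i n _ _ _ _ (hsmall n a4.le) (a1 (t n)
      ((min_le_right _ _).trans (min_le_right _ _)) i (mem_range.2 (Nat.lt_succ_of_le a3)) u a2 v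
      a2' h01)

end

/-- upward closure in `δ` : no monotonicity needed -/
theorem Car1.up {a b : ℚ} {Q : ℕ → ℕ → ℚ → ℝ → Prop}
    (h : ∀ i, ∀ v : ℚ, a ≤ v → v ≤ b → ∀ δ : ℝ, 0 < δ → ∀ᶠ n in (U : Filter ℕ), Q i n v δ) :
    Car1 a b fun i n v δ => ∃ δ' ≤ δ, Q i n v δ' :=
  ⟨fun i n v δ δ' hd hq => hq.imp fun x hx => ⟨hx.1.trans hd, hx.2⟩,
    fun i v h0 h1 δ hδ => (h i v h0 h1 δ hδ).mono fun n hn => ⟨δ, le_rfl, hn⟩⟩

theorem Car2.up {a b : ℚ} {Q : ℕ → ℕ → ℚ → ℚ → ℝ → Prop}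
    (h : ∀ i, ∀ u v : ℚ, a ≤ u → u < v → v ≤ b → ∀ δ : ℝ, 0 < δ →
      ∀ᶠ n in (U : Filter ℕ), Q i n u v δ) :
    Car2 a b fun i n u v δ => ∃ δ' ≤ δ, Q i n u v δ' :=
  ⟨fun i n u v δ δ' hd hq => hq.imp fun x hx => ⟨hx.1.trans hd, hx.2⟩,
    fun i u v h0 h01 h1 δ hδ => (h i u v h0 h01 h1 δ hδ).mono fun n hn => ⟨δ, le_rfl, hn⟩⟩

/-! ### the data of the window -/

/-- the data of the window -/
def zmD (D : Dat4) (mm : ℕ → ℚ → ℚ) (B' : Base) (I' : ℕ → Finset (ℕ × ℝ)) (A' : ℕ → ℝ) : Dat4 where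
  B := B'
  I := I'
  L := D.L
  r0 := D.r0
  wr := D.wr
  cr := D.cr
  lev := fun n x => D.lev n (mm n x)
  A := A'
  f := fun n x => D.f n (mm n x)
  b := fun n x => D.b n (mm n x)
  vm := fun n x => D.vm n (mm n x)
  w := fun j n x => D.w j n (mm n x)

section

variable {D : Dat4} {mm : ℕ → ℚ → ℚ} {B' : Base} {I' : ℕ → Finset (ℕ × ℝ)} {A' : ℕ → ℝ}

theorem mk4_zmD (n : ℕ) (v : ℚ) (x : ℕ × ℝ) : mk4 (zmD D mm B' I' A') n v x = mk4 D n (mm n v) x :=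
  rfl

theorem zx_zmD (n : ℕ) (v : ℚ) (x : ℕ × ℝ) : zx (zmD D mm B' I' A') n v x = zx D n (mm n v) x := rfl

theorem rh_zmD (n : ℕ) (v : ℚ) : rh (zmD D mm B' I' A') n v = rh D n (mm n v) := rfl

theorem tiltOK_zmD (E : ℝ) (u v : ℚ) (n : ℕ) (x : ℕ × ℝ) :
    TiltOK (zmD D mm B' I' A') E u v n x ↔ TiltOK D E (mm n u) (mm n v) n x := Iff.rfl

/-- loss of the tilt in the window -/
theorem pow_win {B B' : Base} {H : ℕ → ℝ} (hB : ∀ n, B'.d n = B.d n ^ H n) {mm : ℕ → ℚ → ℚ}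
    (hq : ∀ n, ∀ x y : ℚ, (mm n y : ℝ) - mm n x = H n * ((y : ℝ) - x)) (C : ℝ) (n : ℕ) (u v : ℚ)
    (ε : ℝ) : B.d n ^ (-(C * ((mm n v : ℝ) - mm n u)) - H n * ε) =
      B'.d n ^ (-(C * ((v : ℝ) - u)) - ε) := by
  rw [hB, ← Real.rpow_mul (B.pos n).le, hq]
  congr 1; ring

theorem pow_win1 {B B' : Base} {H : ℕ → ℝ} (hB : ∀ n, B'.d n = B.d n ^ H n) (n : ℕ) (ε : ℝ) :
    B.d n ^ (H n * ε) = B'.d n ^ ε := by
  rw [hB, ← Real.rpow_mul (B.pos n).le]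

theorem Close_mono {E E' : ℝ} (hE : E ≤ E') {S S' : Plk4} {T : Ln4} {z0 ρ : ℝ}
    (h : Close E S S' T z0 ρ) : Close E' S S' T z0 ρ :=
  fun z h0 h1 x hx hq => (h z h0 h1 x hx hq).trans hE

theorem TiltOK_mono {E E' : ℝ} (hE : E ≤ E') {u v : ℚ} {n : ℕ} {x : ℕ × ℝ}
    (hw : ∀ j, 0 ≤ D.w j n u) (h : TiltOK D E u v n x) : TiltOK D E' u v n x :=
  ⟨Close_mono (mul_le_mul_of_nonneg_right hE ((hw 0).trans (le_max_left _ _))) h.1,
    h.2.trans (mul_le_mul_of_nonneg_right hE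
      ((div_nonneg (hw 2) (hw 1)).trans (le_max_left _ _)))⟩

end

/-! ### dense parts which avoid negligible sets -/

section

variable {η : ℝ} {p : Par4} {D : Dat4}

/-- **a dense marked part avoids countably many negligible sets** -/
theorem J1c.avoid {ι : Type*} [Countable ι] (h : J1c η p D) (N : ι → ℕ → ℕ × ℝ → Prop)
    (hN : ∀ k, Negl D.B D.I (N k)) :
    ∃ J : ℕ → Finset (ℕ × ℝ), (∀ n, J n ⊆ D.I n) ∧ Dense D.B J D.I ∧
      J1c η p { D with I := J } ∧ ∀ k, ∀ᶠ n in (U : Filter ℕ), ∀ x ∈ J n, ¬ N k n x := by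
  classical
  rcases isEmpty_or_nonempty ι with hι | hι
  · exact ⟨D.I, fun n => Finset.Subset.refl _, Dense.refl D.B D.I, h, fun k => (hι.false k).elim⟩
  obtain ⟨en, hen⟩ := exists_surjective_nat ι
  obtain ⟨J0, h1, h2, h3⟩ := exists_avoid (B := D.B) (I := D.I) (fun k => N (en k))
    fun k => hN (en k)
  obtain ⟨J, h4, h5, h6⟩ := J1c.refine h h1 h2
  refine ⟨J, fun n => (h4 n).trans (h1 n), h5, h6, fun k => ?_⟩
  obtain ⟨j, rfl⟩ := hen k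
  filter_upwards [h3 j] with n hn x hx using hn x (h4 n hx)

/-- `J1` form -/
theorem J1.avoid {ι : Type*} [Countable ι] (h : J1 η p D) (N : ι → ℕ → ℕ × ℝ → Prop)
    (hN : ∀ k, Negl D.B D.I (N k)) :
    ∃ J : ℕ → Finset (ℕ × ℝ), (∀ n, J n ⊆ D.I n) ∧ Dense D.B J D.I ∧
      J1 η p { D with I := J } ∧ ∀ k, ∀ᶠ n in (U : Filter ℕ), ∀ x ∈ J n, ¬ N k n x := by
  obtain ⟨J, h1, h2, h3, h4⟩ := J1c.avoid h.toJ1c N hN
  exact ⟨J, h1, h2, ⟨h3, h.g1, h.gq⟩, h4⟩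

/-- **tilt and one-level statements for all incidences of a dense part** -/
theorem J1c.good (h : J1c η p D) {T : ℚ → ℚ → ℝ → ℕ → ℕ × ℝ → Prop}
    {S : ℚ → ℝ → ℕ → ℕ × ℝ → Prop}
    (hTm : ∀ u v : ℚ, 0 ≤ u → u < v → v ≤ 1 → ∀ ε ε' : ℝ, 0 < ε → ε ≤ ε' →
      ∀ᶠ n in (U : Filter ℕ), ∀ x ∈ D.I n, T u v ε n x → T u v ε' n x)
    (hT : ∀ u v : ℚ, 0 ≤ u → u < v → v ≤ 1 → ∀ ε : ℝ, 0 < ε → Negl D.B D.I fun n x => ¬ T u v ε n x)
    (hSm : ∀ v : ℚ, 0 ≤ v → v ≤ 1 → ∀ ε ε' : ℝ, 0 < ε → ε ≤ ε' →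
      ∀ᶠ n in (U : Filter ℕ), ∀ x ∈ D.I n, S v ε n x → S v ε' n x)
    (hS : ∀ v : ℚ, 0 ≤ v → v ≤ 1 → ∀ ε : ℝ, 0 < ε → Negl D.B D.I fun n x => ¬ S v ε n x) :
    ∃ J : ℕ → Finset (ℕ × ℝ), (∀ n, J n ⊆ D.I n) ∧ Dense D.B J D.I ∧
      J1c η p { D with I := J } ∧
      (∀ u v : ℚ, 0 ≤ u → u < v → v ≤ 1 → ∀ ε : ℝ, 0 < ε →
        ∀ᶠ n in (U : Filter ℕ), ∀ x ∈ J n, T u v ε n x) ∧
      ∀ v : ℚ, 0 ≤ v → v ≤ 1 → ∀ ε : ℝ, 0 < ε → ∀ᶠ n in (U : Filter ℕ), ∀ x ∈ J n, S v ε n x := by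
  obtain ⟨J, h1, h2, h3, h4⟩ := J1c.avoid h (ι := (ℚ × ℚ × ℕ) ⊕ (ℚ × ℕ))
    (fun k n x => match k with
      | Sum.inl (u, v, K) => (0 ≤ u ∧ u < v ∧ v ≤ 1) ∧ ¬ T u v (1 / ((K : ℝ) + 1)) n x
      | Sum.inr (v, K) => (0 ≤ v ∧ v ≤ 1) ∧ ¬ S v (1 / ((K : ℝ) + 1)) n x) (by
    rintro (⟨u, v, K⟩ | ⟨v, K⟩)
    · by_cases hc : 0 ≤ u ∧ u < v ∧ v ≤ 1
      · exact (hT u v hc.1 hc.2.1 hc.2.2 (1 / ((K : ℝ) + 1)) (by positivity)).mono
          (Eventually.of_forall fun n x _ hx => hx.2)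
      · exact Negl.false.mono (Eventually.of_forall fun n x _ hx => hc hx.1)
    · by_cases hc : 0 ≤ v ∧ v ≤ 1
      · exact (hS v hc.1 hc.2 (1 / ((K : ℝ) + 1)) (by positivity)).mono
          (Eventually.of_forall fun n x _ hx => hx.2)
      · exact Negl.false.mono (Eventually.of_forall fun n x _ hx => hc hx.1))
  refine ⟨J, h1, h2, h3, fun u v g0 g01 g1 ε hε => ?_, fun v g0 g1 ε hε => ?_⟩
  · obtain ⟨K, hK⟩ := exists_nat_one_div_lt hε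
    filter_upwards [h4 (Sum.inl (u, v, K)), hTm u v g0 g01 g1 (1 / ((K : ℝ) + 1)) ε
      (by positivity) hK.le] with n a1 a2 x hx
    refine a2 x (h1 n hx) ?_
    by_contra hc
    exact a1 x hx ⟨⟨g0, g01, g1⟩, hc⟩
  · obtain ⟨K, hK⟩ := exists_nat_one_div_lt hε
    filter_upwards [h4 (Sum.inr (v, K)), hSm v g0 g1 (1 / ((K : ℝ) + 1)) ε
      (by positivity) hK.le] with n a1 a2 x hx
    refine a2 x (h1 n hx) ?_
    by_contra hc
    exact a1 x hx ⟨⟨g0, g1⟩, hc⟩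

/-- `J1` form -/
theorem J1.good (h : J1 η p D) {T : ℚ → ℚ → ℝ → ℕ → ℕ × ℝ → Prop}
    {S : ℚ → ℝ → ℕ → ℕ × ℝ → Prop}
    (hTm : ∀ u v : ℚ, 0 ≤ u → u < v → v ≤ 1 → ∀ ε ε' : ℝ, 0 < ε → ε ≤ ε' →
      ∀ᶠ n in (U : Filter ℕ), ∀ x ∈ D.I n, T u v ε n x → T u v ε' n x)
    (hT : ∀ u v : ℚ, 0 ≤ u → u < v → v ≤ 1 → ∀ ε : ℝ, 0 < ε → Negl D.B D.I fun n x => ¬ T u v ε n x)
    (hSm : ∀ v : ℚ, 0 ≤ v → v ≤ 1 → ∀ ε ε' : ℝ, 0 < ε → ε ≤ ε' →
      ∀ᶠ n in (U : Filter ℕ), ∀ x ∈ D.I n, S v ε n x → S v ε' n x)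
    (hS : ∀ v : ℚ, 0 ≤ v → v ≤ 1 → ∀ ε : ℝ, 0 < ε → Negl D.B D.I fun n x => ¬ S v ε n x) :
    ∃ J : ℕ → Finset (ℕ × ℝ), (∀ n, J n ⊆ D.I n) ∧ Dense D.B J D.I ∧
      J1 η p { D with I := J } ∧
      (∀ u v : ℚ, 0 ≤ u → u < v → v ≤ 1 → ∀ ε : ℝ, 0 < ε →
        ∀ᶠ n in (U : Filter ℕ), ∀ x ∈ J n, T u v ε n x) ∧
      ∀ v : ℚ, 0 ≤ v → v ≤ 1 → ∀ ε : ℝ, 0 < ε → ∀ᶠ n in (U : Filter ℕ), ∀ x ∈ J n, S v ε n x := by
  obtain ⟨J, h1, h2, h3, h4⟩ := J1c.good h.toJ1c hTm hT hSm hS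
  exact ⟨J, h1, h2, ⟨h3, h.g1, h.gq⟩, h4⟩

end

/-! ### helper327's exponents in the window -/

section

variable {B B' : Base} {H : ℕ → ℝ} {mm : ℕ → ℚ → ℚ} {a0 b0 : ℚ} {X Y : ℕ → ℚ → ℝ} {s : ℝ}

/-- exponents as a carried property -/
theorem Lin.car (h : Lin B a0 b0 X s) :
    Car2 a0 b0 fun _ n u v δ => (0 < X n u ∧ 0 < X n v) ∧
      |Real.log (X n u / X n v) / B.L n - s * ((v : ℝ) - u)| ≤ δ :=
  ⟨fun i n u v δ δ' hd hq => ⟨hq.1, hq.2.trans hd⟩, fun i u v h0 h01 h1 δ hδ => by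
    filter_upwards [h.1 u h0 (h01.le.trans h1), h.1 v (h0.trans h01.le) h1,
      (Metric.tendsto_nhds.1 (h.2 u v h0 (h01.le.trans h1) (h0.trans h01.le) h1)) δ hδ]
      with n a1 a2 a3
    rw [Real.dist_eq] at a3
    exact ⟨⟨a1, a2⟩, a3.le⟩⟩

/-- exponents in the window -/
theorem Lin.win (hH : ∀ n, 0 < H n ∧ H n ≤ 1) (hB : ∀ n, B'.d n = B.d n ^ H n)
    (hq : ∀ n, ∀ x y : ℚ, (mm n y : ℝ) - mm n x = H n * ((y : ℝ) - x))
    (h : ∀ u v : ℚ, 0 ≤ u → u < v → v ≤ 1 → ∀ δ : ℝ, 0 < δ → ∀ᶠ n in (U : Filter ℕ),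
      (0 < X n (mm n u) ∧ 0 < X n (mm n v)) ∧
      |Real.log (X n (mm n u) / X n (mm n v)) / B.L n - s * ((mm n v : ℝ) - mm n u)| ≤ H n * δ) :
    Lin B' 0 1 (fun n v => X n (mm n v)) s := by
  have hBL : ∀ n, B'.L n = H n * B.L n := by
    intro n
    have : Real.log (B'.d n) = Real.log (B.d n ^ H n) := by rw [hB n]
    rw [Real.log_rpow (B.pos n)] at this
    unfold Base.L; rw [this]; ring
  have pos : ∀ v : ℚ, 0 ≤ v → v ≤ 1 → ∀ᶠ n in (U : Filter ℕ), 0 < X n (mm n v) := by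
    intro v h0 h1
    rcases lt_or_ge v 1 with hv | hv
    · exact (h v 1 h0 hv le_rfl 1 one_pos).mono fun n hn => hn.1.1
    · have : v = 1 := le_antisymm h1 hv
      subst this
      exact (h 0 1 le_rfl zero_lt_one le_rfl 1 one_pos).mono fun n hn => hn.1.2
  have key : ∀ u v : ℚ, 0 ≤ u → u < v → v ≤ 1 →
      Tendsto (fun n => Real.log (X n (mm n u) / X n (mm n v)) / B'.L n) U
        (𝓝 (s * ((v : ℝ) - u))) := by
    intro u v h0 h01 h1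
    rw [Metric.tendsto_nhds]
    intro ε hε
    filter_upwards [h u v h0 h01 h1 (ε / 2) (by positivity)] with n hn
    have hHn := (hH n).1
    have hL := B.L_pos n
    rw [Real.dist_eq, hBL]
    have e1 : Real.log (X n (mm n u) / X n (mm n v)) / (H n * B.L n) - s * ((v : ℝ) - u) =
        (Real.log (X n (mm n u) / X n (mm n v)) / B.L n - s * ((mm n v : ℝ) - mm n u)) / H n := by
      rw [hq n u v]; field_simp
    rw [e1, abs_div, abs_of_pos hHn, div_lt_iff₀ hHn]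
    have := hn.2
    nlinarith
  refine ⟨pos, fun u v h0 h1 h2 h3 => ?_⟩
  rcases lt_trichotomy u v with huv | huv | huv
  · exact key u v h0 huv h3
  · subst huv
    rw [sub_self, mul_zero]
    refine tendsto_const_nhds.congr' ?_
    filter_upwards [pos u h0 h1] with n hn
    rw [div_self hn.ne', Real.log_one, zero_div]
  · have h4 := (key v u h2 huv h1).neg
    have e : -(s * ((u : ℝ) - v)) = s * ((v : ℝ) - u) := by ring
    rw [e] at h4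
    refine h4.congr' ?_
    filter_upwards [pos u h0 h1, pos v h2 h3] with n hu hv
    rw [Real.log_div hu.ne' hv.ne', Real.log_div hv.ne' hu.ne']
    ring

/-- `Eqv` as a carried property -/
theorem Eqv.car (h : Eqv B a0 b0 X Y) (hY : ∀ n v, 0 ≤ Y n v) :
    Car1 a0 b0 fun _ n v δ => B.d n ^ δ * Y n v ≤ X n v ∧ X n v ≤ B.d n ^ (-δ) * Y n v :=
  ⟨fun i n v δ δ' hd hq => ⟨le_trans (mul_le_mul_of_nonneg_right (dpow_le B n hd) (hY n v)) hq.1,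
    hq.2.trans (mul_le_mul_of_nonneg_right (dpow_le B n (by linarith)) (hY n v))⟩,
    fun i v h0 h1 δ hδ => h v h0 h1 δ hδ⟩

theorem Eqv.win (hB : ∀ n, B'.d n = B.d n ^ H n)
    (h : ∀ v : ℚ, 0 ≤ v → v ≤ 1 → ∀ δ : ℝ, 0 < δ → ∀ᶠ n in (U : Filter ℕ),
      B.d n ^ (H n * δ) * Y n (mm n v) ≤ X n (mm n v) ∧
        X n (mm n v) ≤ B.d n ^ (-(H n * δ)) * Y n (mm n v)) :
    Eqv B' 0 1 (fun n v => X n (mm n v)) (fun n v => Y n (mm n v)) := by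
  intro v h0 h1 ε hε
  filter_upwards [h v h0 h1 ε hε] with n hn
  have e1 := pow_win1 hB n ε
  have e2 := pow_win1 hB n (-ε)
  rw [mul_neg] at e2
  rw [e1, e2] at hn
  exact hn

end

end Crest.Agent.R136.Us555
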