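import Crest.Agent.R136.Prs3_262
import Crest.Agent.R136.Fm4_808
import Crest.Agent.R136.Us4_555
import Crest.Agent.R138.Ctn2_829

/-!
# R136 (S0187), U6 thin side (helper262): persistence of the curvature, marked sequences

`persist` : if all marks of a level `v1` are non-flat (`¬ FltSM D (d ^ (-ε))`) and the two-level tilt
holds, then on an interval of levels around `v1` the curvature extent is a power larger than the
thickness.
-/

set_option autoImplicit false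
set_option linter.unusedVariables false

open Finset Filter Topology

namespace Crest.Agent.R136.Prs262

open Crest.Agent.R138.Ex926 (Base U)
open Crest.Agent.R138.Dp76 (dpow_pos dpow_add dpow_le)
open Crest.Agent.R138.Mk163 (zc zl rho alive own Negl)
open Crest.Agent.R138.MkRef627 (mem_alive)
open Crest.Agent.R136.MkA627 Crest.Agent.R136.Top484
open Crest.Agent.R136.Sh605 Crest.Agent.R136.K4
open Crest.Agent.R136.Tl102 (QF Fq bz shB0 shB1 shG kap NrmC IsExp fr cmb unsh Fq_unsh StP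
  dt_cmb_fr)
open Crest.Agent.R136.Us555 (kap_entries abs_mul_le2 abs_dt_le_one point_eq_cmb dt_expand FltSM
  J1c.mark_pos J1c.kap_of_not_flat)
open Crest.Agent.R136.Tlt51 (Close TiltOK ang mk4 zx rh)
open Crest.Agent.R136.KapP335 (kapP expP expP_spec)
open Crest.Agent.R136.Fl808 (lev_pow wid_comp const_le rho_two)

/-- the two mixed components of two nearly equal long axes -/
theorem ang_swap {e e' : Fin 3 → V3} (he : Ortho e) (he' : Ortho e') :
    |dt (e' 2) (e 1)| ≤ 4 * ang e e' := by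
  have h1 := dt_expand he (e' 1) (e' 1)
  have h2 := dt_expand he (e' 1) (e' 2)
  have g1 : dt (e' 1) (e' 1) = 1 := by rw [he' 1 1]; simp
  have g2 : dt (e' 1) (e' 2) = 0 := by rw [he' 1 2]; simp
  rw [g1] at h1
  rw [g2] at h2
  have b : ∀ i, |dt (e i) (e' 2)| ≤ 1 := fun i =>
    abs_dt_le_one (by rw [he i i]; simp) (by rw [he' 2 2]; simp)
  have a0 : |dt (e 0) (e' 1)| ≤ ang e e' := le_max_left _ _
  have a2 : |dt (e 2) (e' 1)| ≤ ang e e' := le_max_right _ _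
  rw [dt_comm (e' 2) (e 1)]
  generalize ang e e' = A at a0 a2
  have b0 := b 0
  have b1 := b 1
  have b2 := b 2
  generalize dt (e 0) (e' 1) = x0 at *
  generalize dt (e 1) (e' 1) = x1 at *
  generalize dt (e 2) (e' 1) = x2 at *
  generalize dt (e 0) (e' 2) = y0 at *
  generalize dt (e 1) (e' 2) = y1 at *
  generalize dt (e 2) (e' 2) = y2 at *
  rcases le_or_gt (1 / 4) A with hA | hA
  · linarith
  have k0 : x0 * x0 ≤ 1 / 16 := by
    rw [← abs_mul_abs_self x0]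
    nlinarith [abs_nonneg x0]
  have k2 : x2 * x2 ≤ 1 / 16 := by
    rw [← abs_mul_abs_self x2]
    nlinarith [abs_nonneg x2]
  have k1 : 1 / 2 ≤ |x1| := by
    by_contra hc
    push Not at hc
    have : x1 * x1 ≤ 1 / 4 := by
      rw [← abs_mul_abs_self x1]
      nlinarith [abs_nonneg x1]
    linarith
  have k3 : |x1 * y1| ≤ A * 1 + A * 1 := by
    have e1 : x1 * y1 = -(x0 * y0 + x2 * y2) := by linarith
    rw [e1, abs_neg]
    exact bd_add (abs_mul_le2 a0 b0) (abs_mul_le2 a2 b2)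
  rw [abs_mul] at k3
  have k4 : 1 / 2 * |y1| ≤ |x1| * |y1| := mul_le_mul_of_nonneg_right k1 (abs_nonneg _)
  linarith

/-- cells are nested -/
theorem cell_nested {i j : ℕ} (h : i ≤ j) (z : ℝ) : zl i (zc i z) ≤ zl j (zc j z) ∧
    zl j (zc j z) + rho j ≤ zl i (zc i z) + rho i := by
  have hp : (0:ℝ) < 2 ^ i := by positivity
  have hq : (0:ℝ) < 2 ^ j := by positivity
  have e0 : (2:ℝ) ^ j = 2 ^ (j - i) * 2 ^ i := by rw [← pow_add]; congr 1; omega
  have e1 : 2 ^ (j - i) * zc i z ≤ zc j z := by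
    unfold zc
    rw [Int.le_floor]
    push_cast
    rw [e0, mul_assoc]
    exact mul_le_mul_of_nonneg_left (Int.floor_le _) (by positivity)
  have e2 : zc j z + 1 ≤ 2 ^ (j - i) * (zc i z + 1) := by
    have h3 : zc j z < 2 ^ (j - i) * (zc i z + 1) := by
      unfold zc
      rw [Int.floor_lt]
      push_cast
      rw [e0, mul_assoc]
      exact mul_lt_mul_of_pos_left (Int.lt_floor_add_one _) (by positivity)
    omega
  have e3 : (2:ℝ) ^ (j - i) * (zc i z : ℝ) ≤ zc j z := by exact_mod_cast e1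
  have e4 : (zc j z : ℝ) + 1 ≤ 2 ^ (j - i) * ((zc i z : ℝ) + 1) := by exact_mod_cast e2
  unfold zl rho
  constructor
  · rw [div_le_div_iff₀ hp hq, e0]
    nlinarith
  · rw [← add_div, ← add_div, div_le_div_iff₀ hq hp, e0]
    nlinarith

section

variable {η : ℝ} {p : Par4} {D : Dat4}

set_option maxHeartbeats 1000000 in
/-- **two marks of one incidence** -/
theorem ev_two (hJ : J1c η p D) {C : ℝ} (hC : 0 ≤ C) :
    ∃ K : ℝ, 0 ≤ K ∧ ∀ u v : ℚ, 0 ≤ u → u < v → v ≤ 1 → ∀ δ : ℝ, 0 < δ →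
      ∀ᶠ n in (U : Filter ℕ), ∀ x ∈ D.I n,
        (TiltOK D (D.B.d n ^ (-(C * ((v : ℝ) - u)) - δ / 4)) u v n x →
          Two' (D.B.d n ^ (-(K * ((v : ℝ) - u)) - δ))
          (D.B.d n ^ (-(K * ((v : ℝ) - u)) - δ) * (mk4 D n v x).a) (mk4 D n v x) (mk4 D n u x)
          (D.L n x.1) (zx D n v x) (rh D n v) (zx D n u x) (rh D n u)) ∧
        (mk4 D n u x).a ≤ D.B.d n ^ (-(K * ((v : ℝ) - u)) - δ) * (mk4 D n v x).a ∧
        (mk4 D n v x).a ≤ D.B.d n ^ (-(K * ((v : ℝ) - u)) - δ) * (mk4 D n u x).a ∧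
        D.B.d n ^ (-(C * ((v : ℝ) - u)) - δ / 4) * max (D.w 0 n u) (D.w 0 n v) ≤
          D.B.d n ^ (-(K * ((v : ℝ) - u)) - δ) * (mk4 D n v x).a ∧
        D.B.d n ^ (-(C * ((v : ℝ) - u)) - δ / 4) * max (D.w 0 n u) (D.w 0 n v) ≤
          D.B.d n ^ (-(K * ((v : ℝ) - u)) - δ) * (mk4 D n u x).a ∧
        0 < (mk4 D n u x).a ∧ 0 < (mk4 D n v x).a := by
  set Th := |p.θ 0| + |p.θ 1| + |p.θ 2| + 1 with hTh
  have t0 := abs_nonneg (p.θ 0)
  have t1 := abs_nonneg (p.θ 1)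
  have t2 := abs_nonneg (p.θ 2)
  have hθ : ∀ j, |p.θ j| + 1 ≤ Th := by
    intro j
    fin_cases j
    · change |p.θ 0| + 1 ≤ Th; linarith
    · change |p.θ 1| + 1 ≤ Th; linarith
    · change |p.θ 2| + 1 ≤ Th; linarith
  refine ⟨C + Th, by linarith, fun u v h0 huv h1 δ hδ => ?_⟩
  have hs : (0:ℝ) < (v : ℝ) - u := by
    have : (u : ℝ) < v := by exact_mod_cast huv
    linarith
  have hv0 : (0 : ℚ) ≤ v := h0.trans huv.le
  have hu1 : u ≤ (1 : ℚ) := huv.le.trans h1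
  set ε := δ / 4 with hε
  have ε0 : 0 < ε := by positivity
  have hwid : ∀ᶠ n in (U : Filter ℕ), ∀ j, D.w j n u ≤ D.B.d n ^ (-(Th * ((v:ℝ) - u)) - ε) *
      D.w j n v ∧ D.w j n v ≤ D.B.d n ^ (-(Th * ((v:ℝ) - u)) - ε) * D.w j n u := by
    rw [eventually_all]
    intro j
    filter_upwards [wid_comp hJ.mka j h0 huv.le h1 ε0, hJ.mka.wpos j u h0 hu1,
      hJ.mka.wpos j v hv0 h1] with n hn p1 p2
    have e1 : D.B.d n ^ (-((|p.θ j| + 1) * ((v:ℝ) - u)) - ε) ≤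
        D.B.d n ^ (-(Th * ((v:ℝ) - u)) - ε) := by
      apply dpow_le
      have := mul_le_mul_of_nonneg_right (hθ j) hs.le
      linarith
    exact ⟨hn.1.trans (mul_le_mul_of_nonneg_right e1 p2.le),
      hn.2.trans (mul_le_mul_of_nonneg_right e1 p1.le)⟩
  filter_upwards [hwid, lev_pow hJ.mka h0 huv.le h1 ε0,
    hJ.mka.mark u h0 hu1, hJ.mka.mark v hv0 h1, const_le D.B 4 ε0]
    with n hw hlv hmu hmv h4 x hx
  obtain ⟨u1, u2, u3, u4⟩ := hmu (zc (D.lev n u) x.2) x.1 (mem_alive.2 ⟨x, hx, rfl, rfl⟩)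
  obtain ⟨v1, v2, v3, v4⟩ := hmv (zc (D.lev n v) x.2) x.1 (mem_alive.2 ⟨x, hx, rfl, rfl⟩)
  obtain ⟨l1, l2, -⟩ := hlv
  have au : 0 < (mk4 D n u x).a := J1c.mark_pos hJ u2
  have av : 0 < (mk4 D n v x).a := J1c.mark_pos hJ v2
  have su : ShN (mk4 D n u x).e (mk4 D n u x).c (mk4 D n u x).w (mk4 D n u x).q (mk4 D n u x).a
    (zl (D.lev n u) (zc (D.lev n u) x.2)) (rho (D.lev n u)) (D.r0 n) := u2.1
  have sv : ShN (mk4 D n v x).e (mk4 D n v x).c (mk4 D n v x).w (mk4 D n v x).q (mk4 D n v x).a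
    (zl (D.lev n v) (zc (D.lev n v) x.2)) (rho (D.lev n v)) (D.r0 n) := v2.1
  have Su := StP.of_shN su (au.trans_le su.a_le0)
  have Sv := StP.of_shN sv (av.trans_le sv.a_le0)
  -- widths
  have wu0 : (mk4 D n u x).a = D.w 0 n u := u4 0
  have wu1 : (mk4 D n u x).w 1 = D.w 1 n u := u4 1
  have wu2 : (mk4 D n u x).w 2 = D.w 2 n u := u4 2
  have wv0 : (mk4 D n v x).a = D.w 0 n v := v4 0
  have wv1 : (mk4 D n v x).w 1 = D.w 1 n v := v4 1
  have wv2 : (mk4 D n v x).w 2 = D.w 2 n v := v4 2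
  obtain ⟨a1, a2⟩ := hw 0
  obtain ⟨b1, b2⟩ := hw 1
  obtain ⟨c1, c2⟩ := hw 2
  rw [← wu0, ← wv0] at a1 a2
  rw [← wu1, ← wv1] at b1 b2
  rw [← wu2, ← wv2] at c1 c2
  have pu1 := Su.pos 1
  have pu2 := Su.pos 2
  have pv1 := Sv.pos 1
  have pv2 := Sv.pos 2
  -- powers
  obtain ⟨W, hW⟩ : ∃ W, W = D.B.d n ^ (-(Th * ((v:ℝ) - u)) - ε) := ⟨_, rfl⟩
  obtain ⟨E, hE⟩ : ∃ E, E = D.B.d n ^ (-(C * ((v:ℝ) - u)) - ε) := ⟨_, rfl⟩
  obtain ⟨X, hX⟩ : ∃ X, X = D.B.d n ^ (-((C + Th) * ((v:ℝ) - u)) - δ) := ⟨_, rfl⟩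
  have one : ∀ y : ℝ, y ≤ 0 → 1 ≤ D.B.d n ^ y := fun y hy => by
    have := dpow_le D.B n hy
    rwa [Real.rpow_zero] at this
  have hTh0 : 0 ≤ Th * ((v:ℝ) - u) := by positivity
  have hC0 : 0 ≤ C * ((v:ℝ) - u) := by positivity
  have W1 : 1 ≤ W := by rw [hW]; exact one _ (by linarith)
  have E1 : 1 ≤ E := by rw [hE]; exact one _ (by linarith)
  have X4 : 4 * (E * W) ≤ X := by
    have e1 : D.B.d n ^ (-ε) * (E * W) ≤ X := by
      rw [hE, hW, hX, ← dpow_add, ← dpow_add]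
      apply dpow_le
      rw [hε]
      linarith
    have e2 : 4 * (E * W) ≤ D.B.d n ^ (-ε) * (E * W) :=
      mul_le_mul_of_nonneg_right h4 (by positivity)
    linarith
  rw [← hW] at a1 a2 b1 b2 c1 c2
  rw [← hE]
  rw [← hX]
  have EW : 1 ≤ E * W := by nlinarith
  have WX : W ≤ X := by nlinarith
  have X1 : 1 ≤ X := by linarith
  have hρ : rh D n u ≤ X * rh D n v := by
    have e1 : rh D n u = rh D n v * 2 ^ (D.lev n v - D.lev n u) := rho_two l1
    have e2 : (2:ℝ) ^ (D.lev n v - D.lev n u) ≤ X := by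
      refine l2.trans ?_
      rw [hX]
      apply dpow_le
      have : 1 * ((v:ℝ) - u) ≤ (C + Th) * ((v:ℝ) - u) :=
        mul_le_mul_of_nonneg_right (by linarith) hs.le
      rw [hε]
      linarith
    rw [e1, mul_comm]
    exact mul_le_mul_of_nonneg_right e2 (Crest.Agent.R136.Us555.rho_pos _).le
  have hmax : max ((mk4 D n u x).w 2 / (mk4 D n u x).w 1) ((mk4 D n v x).w 2 / (mk4 D n v x).w 1) *
      (mk4 D n v x).w 1 ≤ W * (mk4 D n u x).w 2 := by
    rw [max_mul_of_nonneg _ _ pv1.le]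
    refine max_le ?_ ?_
    · rw [div_mul_eq_mul_div, div_le_iff₀ pu1]
      have := mul_le_mul_of_nonneg_left b2 pu2.le
      linarith
    · rw [div_mul_cancel₀ _ pv1.ne']
      exact c2
  have hmax' : max ((mk4 D n u x).w 2 / (mk4 D n u x).w 1) ((mk4 D n v x).w 2 / (mk4 D n v x).w 1) *
      (mk4 D n u x).w 1 ≤ W * (mk4 D n v x).w 2 := by
    rw [max_mul_of_nonneg _ _ pu1.le]
    refine max_le ?_ ?_
    · rw [div_mul_cancel₀ _ pu1.ne']
      exact c1
    · rw [div_mul_eq_mul_div, div_le_iff₀ pv1]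
      have := mul_le_mul_of_nonneg_left b1 pv2.le
      linarith
  obtain ⟨n1, n2⟩ := cell_nested l1 x.2
  have mxv : E * max (D.w 0 n u) (D.w 0 n v) ≤ X * (mk4 D n v x).a := by
    rw [← wu0, ← wv0]
    have e1 : max (mk4 D n u x).a (mk4 D n v x).a ≤ W * (mk4 D n v x).a :=
      max_le a1 (by nlinarith)
    calc E * max (mk4 D n u x).a (mk4 D n v x).a ≤ E * (W * (mk4 D n v x).a) :=
          mul_le_mul_of_nonneg_left e1 (by linarith)
      _ = (E * W) * (mk4 D n v x).a := by ring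
      _ ≤ X * (mk4 D n v x).a := mul_le_mul_of_nonneg_right (by linarith) av.le
  have mxu : E * max (D.w 0 n u) (D.w 0 n v) ≤ X * (mk4 D n u x).a := by
    rw [← wu0, ← wv0]
    have e1 : max (mk4 D n u x).a (mk4 D n v x).a ≤ W * (mk4 D n u x).a :=
      max_le (by nlinarith) a2
    calc E * max (mk4 D n u x).a (mk4 D n v x).a ≤ E * (W * (mk4 D n u x).a) :=
          mul_le_mul_of_nonneg_left e1 (by linarith)
      _ = (E * W) * (mk4 D n u x).a := by ring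
      _ ≤ X * (mk4 D n u x).a := mul_le_mul_of_nonneg_right (by linarith) au.le
  refine ⟨fun htl => ?_, a1.trans (mul_le_mul_of_nonneg_right WX av.le),
    a2.trans (mul_le_mul_of_nonneg_right WX au.le), mxv, mxu, au, av⟩
  obtain ⟨hcl, hag⟩ := htl
  rw [← wu1, ← wu2, ← wv1, ← wv2] at hag
  refine { one := X1, ρ0 := Us555.rho_pos _, ρ0' := Us555.rho_pos _, c1 := n1, c2 := n2,
            st := Sv, st' := Su, o1 := sv.w0_le, o2 := sv.w_le, a0 := au, inn := v1, inn' := u1, cl := ?_, w1 := ?_, w2 := ?_, g := ?_,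
            o1' := su.w0_le, o2' := su.w_le, w1' := ?_, w2' := ?_, g' := ?_, hρ := hρ }
  · exact Us555.Close_mono mxv hcl
  · exact b2.trans (mul_le_mul_of_nonneg_right WX pu1.le)
  · exact c2.trans (mul_le_mul_of_nonneg_right WX pu2.le)
  · have e1 := ang_swap Sv.ortho Su.ortho
    have e2 := mul_le_mul_of_nonneg_right (e1.trans (mul_le_mul_of_nonneg_left hag (by norm_num)))
      pv1.le
    have e3 := mul_le_mul_of_nonneg_left hmax (by positivity : 0 ≤ 4 * E)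
    have e4 := mul_le_mul_of_nonneg_right X4 pu2.le
    linarith
  · exact b1.trans (mul_le_mul_of_nonneg_right WX pv1.le)
  · exact c1.trans (mul_le_mul_of_nonneg_right WX pv2.le)
  · have e1 : |dt ((mk4 D n v x).e 2) ((mk4 D n u x).e 1)| ≤ ang (mk4 D n v x).e (mk4 D n u x).e :=
      le_max_right _ _
    have e2 := mul_le_mul_of_nonneg_right (e1.trans hag) pu1.le
    have e3 := mul_le_mul_of_nonneg_left hmax' (by positivity : 0 ≤ E)
    have e4 := mul_le_mul_of_nonneg_right X4 pv2.le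
    have e5 : 0 ≤ E * W * (mk4 D n v x).w 2 := by positivity
    linarith

/-- the two inequalities between the curvature extents -/
theorem kapP_two {X E : ℝ} {S S' : Plk4} {T : Ln4} {z0 ρ z0' ρ' : ℝ}
    (h : Two' X E S S' T z0 ρ z0' ρ') :
    kapP S z0 ρ T ≤ 10 ^ 14 * X ^ 2 * (E + S'.a + kapP S' z0' ρ' T) ∧
      kapP S' z0' ρ' T ≤ 10 ^ 22 * X ^ 5 * (E + S'.a + kapP S z0 ρ T) := by
  have e1 := expP_spec h.st.isQ (h.st.pos 0).ne' z0 ρ T
  have e2 := expP_spec h.st'.isQ (h.st'.pos 0).ne' z0' ρ' T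
  exact ⟨h.toTwo.kap_down e1 e2, h.kap_up e1 e2⟩

set_option maxHeartbeats 2000000 in
/-- **PERSISTENCE OF THE CURVATURE** : if the marks of one level are non-flat then on an interval of
levels the curvature extent is a power larger than the thickness. -/
theorem persist (hJ : J1c η p D) {J : ℕ → Finset (ℕ × ℝ)} (hJI : ∀ n, J n ⊆ D.I n) {C : ℝ}
    (hC : 0 ≤ C) (hT : ∀ u v : ℚ, 0 ≤ u → u < v → v ≤ 1 → ∀ ε : ℝ, 0 < ε →
      ∀ᶠ n in (U : Filter ℕ), ∀ x ∈ J n,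
        D.B.d n ^ (-(C * ((v : ℝ) - u)) - ε) * max (D.w 0 n u) (D.w 0 n v) ≤
          max (kapP (mk4 D n v x) (zx D n v x) (rh D n v) (D.L n x.1))
            (kapP (mk4 D n u x) (zx D n u x) (rh D n u) (D.L n x.1)) →
        TiltOK D (D.B.d n ^ (-(C * ((v : ℝ) - u)) - ε)) u v n x)
    {v1 : ℚ} (h0 : 0 ≤ v1) (h1 : v1 ≤ 1) {ε : ℝ} (hε : 0 < ε)
    (hf : ∀ᶠ n in (U : Filter ℕ), ∀ x ∈ J n, ¬ FltSM D (D.B.d n ^ (-ε)) n v1 x) :
    ∃ a0 b0 : ℚ, 0 ≤ a0 ∧ a0 < b0 ∧ b0 ≤ 1 ∧ a0 ≤ v1 ∧ v1 ≤ b0 ∧ ∃ c : ℝ, 0 < c ∧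
      ∀ v : ℚ, a0 ≤ v → v ≤ b0 → ∀ᶠ n in (U : Filter ℕ), ∀ x ∈ J n,
        (mk4 D n v x).a ≤
          D.B.d n ^ c * kapP (mk4 D n v x) (zx D n v x) (rh D n v) (D.L n x.1) := by
  obtain ⟨K, hK, hK2⟩ := ev_two hJ hC
  -- the interval
  obtain ⟨s, hs0, hs1⟩ := exists_rat_btwn (show (0:ℝ) < ε / (40 * (K + 1)) by positivity)
  have s0 : (0 : ℚ) < s := by exact_mod_cast hs0
  have hKs : K * (s : ℝ) ≤ ε / 40 := by
    rw [lt_div_iff₀ (by positivity)] at hs1
    nlinarith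
  -- the given level
  have hk1 : ∀ᶠ n in (U : Filter ℕ), ∀ x ∈ J n, D.B.d n ^ (-(ε / 2)) * (mk4 D n v1 x).a <
      kapP (mk4 D n v1 x) (zx D n v1 x) (rh D n v1) (D.L n x.1) := by
    filter_upwards [J1c.kap_of_not_flat hJ v1 h0 h1 hε hJI hf, hJ.mka.mark v1 h0 h1] with n a1 a2 x hx
    obtain ⟨m1, m2, -, -⟩ := a2 (zc (D.lev n v1) x.2) x.1 (mem_alive.2 ⟨x, hJI n hx, rfl, rfl⟩)
    have av : 0 < (mk4 D n v1 x).a := J1c.mark_pos hJ m2
    have sv : ShN (mk4 D n v1 x).e (mk4 D n v1 x).c (mk4 D n v1 x).w (mk4 D n v1 x).q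
      (mk4 D n v1 x).a (zl (D.lev n v1) (zc (D.lev n v1) x.2)) (rho (D.lev n v1)) (D.r0 n) := m2.1
    exact a1 x hx (D.L n x.1) _ _ _ m1
      (expP_spec sv.isQ (av.trans_le sv.a_le0).ne' _ _ _)
  have one : ∀ n, ∀ y : ℝ, y ≤ 0 → 1 ≤ D.B.d n ^ y := fun n y hy => by
    have := dpow_le D.B n hy
    rwa [Real.rpow_zero] at this
  -- coarser levels
  have down : ∀ u : ℚ, 0 ≤ u → u < v1 → v1 - s ≤ u → ∀ᶠ n in (U : Filter ℕ), ∀ x ∈ J n,
      (mk4 D n u x).a ≤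
        D.B.d n ^ (ε / 10) * kapP (mk4 D n u x) (zx D n u x) (rh D n u) (D.L n x.1) := by
    intro u hu0 huv hus
    have hvu : (0:ℝ) < (v1 : ℝ) - u := by
      have : (u : ℝ) < v1 := by exact_mod_cast huv
      linarith
    have hvs : (v1 : ℝ) - u ≤ s := by
      have : (v1 : ℝ) - s ≤ u := by exact_mod_cast hus
      linarith
    filter_upwards [hk1, hK2 u v1 hu0 huv h1 (ε / 40) (by positivity),
      const_le D.B (4 * 10 ^ 22) (show (0:ℝ) < ε / 20 by positivity),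
      hT u v1 hu0 huv h1 (ε / 40 / 4) (by positivity)] with n a1 a2 a3 a4 x hx
    obtain ⟨t1, t2, t3, t4, t5, av, aV⟩ := a2 x (hJI n hx)
    have b1 := a1 x hx
    set kv := kapP (mk4 D n v1 x) (zx D n v1 x) (rh D n v1) (D.L n x.1)
    set ku := kapP (mk4 D n u x) (zx D n u x) (rh D n u) (D.L n x.1)
    set X := D.B.d n ^ (-(K * ((v1 : ℝ) - u)) - ε / 40) with hX
    have X1 : 1 ≤ X := one n _ (by have := mul_nonneg hK hvu.le; linarith)
    have XF : X ≤ D.B.d n ^ (-(ε / 20)) := by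
      rw [hX]; apply dpow_le
      have := mul_le_mul_of_nonneg_left hvs hK
      linarith
    set F := D.B.d n ^ (-(ε / 20)) with hF
    have F0 : 0 < F := dpow_pos D.B n _
    have hFi : D.B.d n ^ (ε / 10) * (F * F) = 1 := by
      rw [hF, ← dpow_add, ← dpow_add]
      have : ε / 10 + (-(ε / 20) + -(ε / 20)) = 0 := by ring
      rw [this, Real.rpow_zero]
    have hF10 : D.B.d n ^ (-(ε / 2)) = F ^ 10 := by
      rw [hF, ← Real.rpow_natCast, ← Real.rpow_mul (D.B.pos n).le]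
      congr 1; push_cast; ring
    rw [hF10] at b1
    have F1 : 1 ≤ F := X1.trans XF
    have XF10 : X ≤ F ^ 10 := XF.trans (by
      have := pow_le_pow_right₀ F1 (show 1 ≤ 10 by norm_num)
      rwa [pow_one] at this)
    obtain ⟨k1, -⟩ := kapP_two (t1 (a4 x hx (le_trans (t4.trans
      ((mul_le_mul_of_nonneg_right XF10 aV.le).trans b1.le)) (le_max_left _ _))))
    set av1 := (mk4 D n v1 x).a
    set au := (mk4 D n u x).a
    -- kv ≤ 10^14 X^2 (X av1 + au + ku) ≤ 10^14 X^2 (2 X av1 + ku)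
    have e1 : kv ≤ 10 ^ 14 * X ^ 2 * (2 * X * av1 + ku) := by
      refine k1.trans (mul_le_mul_of_nonneg_left ?_ (by positivity))
      linarith
    have X3 : X ^ 3 ≤ F ^ 3 := pow_le_pow_left₀ (by linarith) XF 3
    have e2 : 10 ^ 14 * X ^ 2 * (2 * X * av1) ≤ 1 / 2 * (F ^ 10 * av1) := by
      have h5 : 10 ^ 14 * X ^ 2 * (2 * X * av1) = (2 * 10 ^ 14 * X ^ 3) * av1 := by ring
      rw [h5, ← mul_assoc]
      refine mul_le_mul_of_nonneg_right ?_ aV.le
      have h6 : F ^ 4 ≤ F ^ 10 := pow_le_pow_right₀ F1 (by norm_num)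
      have h7 : F ^ 3 * (4 * 10 ^ 22) ≤ F ^ 3 * F := mul_le_mul_of_nonneg_left a3 (by positivity)
      have h8 : F ^ 3 * F = F ^ 4 := by ring
      nlinarith
    have e3 : 1 / 2 * (F ^ 10 * av1) ≤ 10 ^ 14 * X ^ 2 * ku := by
      have : 10 ^ 14 * X ^ 2 * (2 * X * av1 + ku) = 10 ^ 14 * X ^ 2 * (2 * X * av1) +
        10 ^ 14 * X ^ 2 * ku := by ring
      linarith
    have e4 : 1 / 2 * (F ^ 10 * au) ≤ 10 ^ 14 * X ^ 3 * ku := by
      have h5 : F ^ 10 * au ≤ F ^ 10 * (X * av1) := mul_le_mul_of_nonneg_left t2 (by positivity)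
      have h6 := mul_le_mul_of_nonneg_right e3 (by linarith : 0 ≤ X)
      have h7 : 10 ^ 14 * X ^ 2 * ku * X = 10 ^ 14 * X ^ 3 * ku := by ring
      linarith
    have ku0 : 0 < ku := by
      have : 0 < 10 ^ 14 * X ^ 3 * ku := lt_of_lt_of_le (by positivity) e4
      exact (pos_iff_pos_of_mul_pos this).1 (by positivity)
    have e5 : 2 * (10 ^ 14 * X ^ 3 * ku) ≤ F ^ 4 * ku := by
      have h7 : F ^ 3 * (4 * 10 ^ 22) ≤ F ^ 3 * F := mul_le_mul_of_nonneg_left a3 (by positivity)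
      have h8 : 2 * (10 ^ 14 * X ^ 3) ≤ F ^ 4 := by
        have h8 : F ^ 3 * F = F ^ 4 := by ring
        nlinarith [pow_pos F0 3]
      have := mul_le_mul_of_nonneg_right h8 ku0.le
      linarith
    have e6 : F ^ 10 * au ≤ F ^ 4 * ku := by linarith
    have e7 : F ^ 6 * au ≤ ku := by
      have h5 : F ^ 10 * au = F ^ 4 * (F ^ 6 * au) := by ring
      rw [h5] at e6
      exact le_of_mul_le_mul_left e6 (by positivity)
    have e8 : F * F * au ≤ ku := by
      have h5 : F * F ≤ F ^ 6 := by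
        have := pow_le_pow_right₀ F1 (show 2 ≤ 6 by norm_num)
        rwa [sq] at this
      exact (mul_le_mul_of_nonneg_right h5 av.le).trans e7
    have e9 := mul_le_mul_of_nonneg_left e8 (dpow_pos D.B n (ε / 10)).le
    rw [← mul_assoc, hFi, one_mul] at e9
    exact e9
  -- finer levels
  have up : ∀ v : ℚ, v1 < v → v ≤ 1 → v ≤ v1 + s → ∀ᶠ n in (U : Filter ℕ), ∀ x ∈ J n,
      (mk4 D n v x).a ≤
        D.B.d n ^ (ε / 10) * kapP (mk4 D n v x) (zx D n v x) (rh D n v) (D.L n x.1) := by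
    intro v huv hv1 hus
    have hvu : (0:ℝ) < (v : ℝ) - v1 := by
      have : (v1 : ℝ) < v := by exact_mod_cast huv
      linarith
    have hvs : (v : ℝ) - v1 ≤ s := by
      have : (v : ℝ) ≤ v1 + s := by exact_mod_cast hus
      linarith
    filter_upwards [hk1, hK2 v1 v h0 huv hv1 (ε / 40) (by positivity),
      const_le D.B (4 * 10 ^ 22) (show (0:ℝ) < ε / 20 by positivity),
      hT v1 v h0 huv hv1 (ε / 40 / 4) (by positivity)] with n a1 a2 a3 a4 x hx
    obtain ⟨t1, t2, t3, t4, t5, av, aV⟩ := a2 x (hJI n hx)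
    have b1 := a1 x hx
    set kv := kapP (mk4 D n v x) (zx D n v x) (rh D n v) (D.L n x.1)
    set ku := kapP (mk4 D n v1 x) (zx D n v1 x) (rh D n v1) (D.L n x.1)
    set X := D.B.d n ^ (-(K * ((v : ℝ) - v1)) - ε / 40) with hX
    have X1 : 1 ≤ X := one n _ (by have := mul_nonneg hK hvu.le; linarith)
    have XF : X ≤ D.B.d n ^ (-(ε / 20)) := by
      rw [hX]; apply dpow_le
      have := mul_le_mul_of_nonneg_left hvs hK
      linarith
    set F := D.B.d n ^ (-(ε / 20)) with hF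
    have F0 : 0 < F := dpow_pos D.B n _
    have hFi : D.B.d n ^ (ε / 10) * (F * F) = 1 := by
      rw [hF, ← dpow_add, ← dpow_add]
      have : ε / 10 + (-(ε / 20) + -(ε / 20)) = 0 := by ring
      rw [this, Real.rpow_zero]
    have hF10 : D.B.d n ^ (-(ε / 2)) = F ^ 10 := by
      rw [hF, ← Real.rpow_natCast, ← Real.rpow_mul (D.B.pos n).le]
      congr 1; push_cast; ring
    rw [hF10] at b1
    have F1 : 1 ≤ F := X1.trans XF
    have XF10 : X ≤ F ^ 10 := XF.trans (by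
      have := pow_le_pow_right₀ F1 (show 1 ≤ 10 by norm_num)
      rwa [pow_one] at this)
    obtain ⟨-, k1⟩ := kapP_two (t1 (a4 x hx (le_trans (t5.trans
      ((mul_le_mul_of_nonneg_right XF10 av.le).trans b1.le)) (le_max_right _ _))))
    set au := (mk4 D n v1 x).a
    set ag := (mk4 D n v x).a
    -- ku ≤ 10^22 X^5 (X ag + au + kv) ≤ 10^22 X^5 (2 X^2 au + kv)
    have e1 : ku ≤ 10 ^ 22 * X ^ 5 * (2 * X ^ 2 * au + kv) := by
      refine k1.trans (mul_le_mul_of_nonneg_left ?_ (by positivity))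
      have h5 : X * ag ≤ X * (X * au) := mul_le_mul_of_nonneg_left t3 (by linarith)
      have h6 : 1 * au ≤ X ^ 2 * au := mul_le_mul_of_nonneg_right (one_le_pow₀ X1) av.le
      nlinarith
    have e2 : 10 ^ 22 * X ^ 5 * (2 * X ^ 2 * au) ≤ 1 / 2 * (F ^ 10 * au) := by
      have h5 : 10 ^ 22 * X ^ 5 * (2 * X ^ 2 * au) = (2 * 10 ^ 22 * X ^ 7) * au := by ring
      rw [h5, ← mul_assoc]
      refine mul_le_mul_of_nonneg_right ?_ av.le
      have h6 : F ^ 8 ≤ F ^ 10 := pow_le_pow_right₀ F1 (by norm_num)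
      have h7 : F ^ 7 * (4 * 10 ^ 22) ≤ F ^ 7 * F := mul_le_mul_of_nonneg_left a3 (by positivity)
      have h8 : F ^ 7 * F = F ^ 8 := by ring
      have h9 : X ^ 7 ≤ F ^ 7 := pow_le_pow_left₀ (by linarith) XF 7
      nlinarith
    have e3 : 1 / 2 * (F ^ 10 * au) ≤ 10 ^ 22 * X ^ 5 * kv := by
      have : 10 ^ 22 * X ^ 5 * (2 * X ^ 2 * au + kv) = 10 ^ 22 * X ^ 5 * (2 * X ^ 2 * au) +
        10 ^ 22 * X ^ 5 * kv := by ring
      linarith
    have e4 : 1 / 2 * (F ^ 10 * ag) ≤ 10 ^ 22 * X ^ 6 * kv := by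
      have h5 : F ^ 10 * ag ≤ F ^ 10 * (X * au) := mul_le_mul_of_nonneg_left t3 (by positivity)
      have h6 := mul_le_mul_of_nonneg_right e3 (by linarith : 0 ≤ X)
      have h7 : 10 ^ 22 * X ^ 5 * kv * X = 10 ^ 22 * X ^ 6 * kv := by ring
      linarith
    have kv0 : 0 < kv := by
      have : 0 < 10 ^ 22 * X ^ 6 * kv := lt_of_lt_of_le (by positivity) e4
      exact (pos_iff_pos_of_mul_pos this).1 (by positivity)
    have e5 : 2 * (10 ^ 22 * X ^ 6 * kv) ≤ F ^ 7 * kv := by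
      have h7 : F ^ 6 * (4 * 10 ^ 22) ≤ F ^ 6 * F := mul_le_mul_of_nonneg_left a3 (by positivity)
      have h8 : 2 * (10 ^ 22 * X ^ 6) ≤ F ^ 7 := by
        have h8 : F ^ 6 * F = F ^ 7 := by ring
        have h9 : X ^ 6 ≤ F ^ 6 := pow_le_pow_left₀ (by linarith) XF 6
        nlinarith [pow_pos F0 6]
      have := mul_le_mul_of_nonneg_right h8 kv0.le
      linarith
    have e6 : F ^ 10 * ag ≤ F ^ 7 * kv := by linarith
    have e7 : F ^ 3 * ag ≤ kv := by
      have h5 : F ^ 10 * ag = F ^ 7 * (F ^ 3 * ag) := by ring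
      rw [h5] at e6
      exact le_of_mul_le_mul_left e6 (by positivity)
    have e8 : F * F * ag ≤ kv := by
      have h5 : F * F ≤ F ^ 3 := by
        have := pow_le_pow_right₀ F1 (show 2 ≤ 3 by norm_num)
        rwa [sq] at this
      exact (mul_le_mul_of_nonneg_right h5 aV.le).trans e7
    have e9 := mul_le_mul_of_nonneg_left e8 (dpow_pos D.B n (ε / 10)).le
    rw [← mul_assoc, hFi, one_mul] at e9
    exact e9
  -- the level itself
  have self : ∀ᶠ n in (U : Filter ℕ), ∀ x ∈ J n, (mk4 D n v1 x).a ≤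
        D.B.d n ^ (ε / 10) * kapP (mk4 D n v1 x) (zx D n v1 x) (rh D n v1) (D.L n x.1) := by
    filter_upwards [hk1, hJ.mka.mark v1 h0 h1] with n a1 a2 x hx
    obtain ⟨m1, m2, -, -⟩ := a2 (zc (D.lev n v1) x.2) x.1 (mem_alive.2 ⟨x, hJI n hx, rfl, rfl⟩)
    have av : 0 < (mk4 D n v1 x).a := J1c.mark_pos hJ m2
    have b1 := mul_le_mul_of_nonneg_left (a1 x hx).le (dpow_pos D.B n (ε / 10)).le
    refine le_trans ?_ b1
    rw [← mul_assoc, ← dpow_add]
    exact le_mul_of_one_le_left av.le (one n _ (by linarith))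
  refine ⟨max 0 (v1 - s), min 1 (v1 + s), le_max_left _ _, ?_, min_le_left _ _,
    max_le h0 (by linarith), le_min h1 (by linarith), ε / 10, by positivity, fun v hv hv' => ?_⟩
  · rw [max_lt_iff, lt_min_iff, lt_min_iff]
    exact ⟨⟨zero_lt_one, by linarith⟩, ⟨by linarith, by linarith⟩⟩
  · rcases lt_trichotomy v v1 with h | h | h
    · exact down v ((le_max_left _ _).trans hv) h ((le_max_right _ _).trans hv)
    · rw [h]; exact self
    · exact up v h (hv'.trans (min_le_left _ _)) (hv'.trans (min_le_right _ _))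

end

end Crest.Agent.R136.Prs262
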