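import Crest.Agent.R136.Prs4_262
import Crest.Agent.R136.Tlt1_51

/-!
# R136 (S0187), U6 thin side (helper262): persistence, form over `Tilt4C`
-/

set_option autoImplicit false
set_option linter.unusedVariables false

open Finset Filter Topology

namespace Crest.Agent.R136.Prs262

open Crest.Agent.R138.Ex926 (Base U)
open Crest.Agent.R136.Top484 Crest.Agent.R136.Sh605 Crest.Agent.R136.K4
open Crest.Agent.R136.Us555 (FltSM)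
open Crest.Agent.R136.Tlt51
open Crest.Agent.R136.KapP335 (kapP)

theorem tiltOK_of_C {D : Dat4} {E : ℝ} {u v : ℚ} {n : ℕ} {x : ℕ × ℝ} (h : TiltOKC D E u v n x) :
    TiltOK D E u v n x :=
  ⟨h.close, max_le (h.ang 0 (by decide)).2 (h.ang 2 (by decide)).2⟩

/-- **PERSISTENCE OF THE CURVATURE**, hypothesis = conclusion of the tilt block on a dense part -/
theorem persistC {η : ℝ} {p : Par4} {D : Dat4} (hJ : J1c η p D) {J : ℕ → Finset (ℕ × ℝ)}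
    (hJI : ∀ n, J n ⊆ D.I n) {C : ℝ} (hC : 0 ≤ C)
    (hT : ∀ u v : ℚ, 0 ≤ u → u < v → v ≤ 1 → ∀ ε : ℝ, 0 < ε →
      ∀ᶠ n in (U : Filter ℕ), ∀ x ∈ J n,
        D.B.d n ^ (-(C * ((v : ℝ) - u)) - ε) * max (D.w 0 n u) (D.w 0 n v) ≤
          max (kapP (mk4 D n v x) (zx D n v x) (rh D n v) (D.L n x.1))
            (kapP (mk4 D n u x) (zx D n u x) (rh D n u) (D.L n x.1)) →
        TiltOKC D (D.B.d n ^ (-(C * ((v : ℝ) - u)) - ε)) u v n x)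
    {v1 : ℚ} (h0 : 0 ≤ v1) (h1 : v1 ≤ 1) {ε : ℝ} (hε : 0 < ε)
    (hf : ∀ᶠ n in (U : Filter ℕ), ∀ x ∈ J n, ¬ FltSM D (D.B.d n ^ (-ε)) n v1 x) :
    ∃ a0 b0 : ℚ, 0 ≤ a0 ∧ a0 < b0 ∧ b0 ≤ 1 ∧ a0 ≤ v1 ∧ v1 ≤ b0 ∧ ∃ c : ℝ, 0 < c ∧
      ∀ v : ℚ, a0 ≤ v → v ≤ b0 → ∀ᶠ n in (U : Filter ℕ), ∀ x ∈ J n,
        (mk4 D n v x).a ≤
          D.B.d n ^ c * kapP (mk4 D n v x) (zx D n v x) (rh D n v) (D.L n x.1) :=
  persist hJ hJI hC (fun u v k0 k1 k2 e he => (hT u v k0 k1 k2 e he).mono fun n hn x hx h =>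
    tiltOK_of_C (hn x hx h)) h0 h1 hε hf

end Crest.Agent.R136.Prs262
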