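import Crest.Agent.R136.Cap1_102

/-!
# R136 (S0187), PLAN 2 (B4): tangent plane at the crossing point of a pair (helper933)

Two lines of one sheet which are `dl`-close (laterally, `k dl ≤ al`) at the height `z1`: the second
line stays within `C al` of the tangent plane (of the first line at the height `z1`) at ALL heights.
-/

set_option autoImplicit false

namespace Crest.Agent.R136.Ptn933

open Crest.Agent.R136.Sh605 Crest.Agent.R136.Tl102

/-- a quadratic polynomial bounded by `al` at `0`, `1/2`, `1` -/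
theorem quad_co {A B C al : ℝ} (h0 : |A| ≤ al) (h1 : |A + 1 / 2 * B + 1 / 4 * C| ≤ al)
    (h2 : |A + B + C| ≤ al) : |C| ≤ 8 * al ∧ |B| ≤ 8 * al := by
  rw [abs_le] at h0 h1 h2
  constructor <;> rw [abs_le] <;> constructor <;> linarith [h0.1, h0.2, h1.1, h1.2, h2.1, h2.2]

theorem abs_mul2 {a b A B : ℝ} (ha : |a| ≤ A) (hb : |b| ≤ B) : |a * b| ≤ A * B := by
  rw [abs_mul]; exact mul_le_mul ha hb (abs_nonneg _) ((abs_nonneg a).trans ha)

/-- the scalar core, in tangent coordinates: `y, u, v` = the first line at `z1`, `Y, U, V` = velocity,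
`s = B + z1 β0` the slope, `p, q` = rotation, `gyy, ..` = second order part -/
theorem core {al k dl z1 y u v Y U V s β0 p q gyy gyu gyv guu guv gvv : ℝ}
    (hz0 : 0 ≤ z1) (hz1 : z1 ≤ 1) (hk : 0 ≤ k) (hkd : k * dl ≤ al) (hal : 0 ≤ al)
    (hs : 1 / 2 ≤ s) (hβ : |β0| ≤ 3 / 2) (hp : |p| ≤ k) (hq : |q| ≤ k) (hyy : |gyy| ≤ 1)
    (hyu : |gyu| ≤ 5) (hyv : |gyv| ≤ 5) (huu : |guu| ≤ k) (huv : |guv| ≤ k) (hvv : |gvv| ≤ k)
    (hy : |y| ≤ 5 / 1000) (hu : |u| ≤ 1 / 1000) (hv : |v| ≤ 1 / 1000) (hud : |u| ≤ dl)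
    (hvd : |v| ≤ dl) (hY : |Y| ≤ 1 / 100) (hU : |U| ≤ 2 / 1000) (hV : |V| ≤ 2 / 1000)
    (h0 : |s * y + z1 * (p * u + q * v) +
      (gyy * y ^ 2 + y * (gyu * u + gyv * v) + (guu * u ^ 2 + guv * (u * v) + gvv * v ^ 2))| ≤ al)
    (h1 : |(β0 * y + p * u + q * v) + (s * Y + z1 * (p * U + q * V)) +
      (2 * gyy * y * Y + gyu * (y * U + Y * u) + gyv * (y * V + Y * v) + 2 * guu * (u * U) +
        guv * (u * V + U * v) + 2 * gvv * (v * V))| ≤ 24 * al) :
    |s * y + z1 * (p * u + q * v)| ≤ 2 * al ∧ |s * Y + z1 * (p * U + q * V)| ≤ 40 * al := by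
  have hz : |z1| ≤ 1 := abs_le.2 ⟨by linarith, hz1⟩
  have hd0 : 0 ≤ dl := (abs_nonneg _).trans hud
  -- products with `k dl`
  have pu : |p * u| ≤ al := (abs_mul2 hp hud).trans hkd
  have qv : |q * v| ≤ al := (abs_mul2 hq hvd).trans hkd
  have zpq : |z1 * (p * u + q * v)| ≤ 2 * al := by
    have := abs_mul2 hz (Arc880.abs_add2 pu qv)
    linarith
  have uu : |guu * u| ≤ al := (abs_mul2 huu hud).trans hkd
  have uvu : |guv * u| ≤ al := (abs_mul2 huv hud).trans hkd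
  have uvv : |guv * v| ≤ al := (abs_mul2 huv hvd).trans hkd
  have vv : |gvv * v| ≤ al := (abs_mul2 hvv hvd).trans hkd
  -- second order part at the crossing point
  have g1 : |gyy * y ^ 2| ≤ 5 / 1000 * |y| := by
    have e : gyy * y ^ 2 = gyy * (y * y) := by ring
    rw [e, abs_mul, abs_mul]
    have := abs_nonneg y
    have h : |y| * |y| ≤ 5 / 1000 * |y| := mul_le_mul_of_nonneg_right hy this
    have h2 : |gyy| * (|y| * |y|) ≤ 1 * (|y| * |y|) :=
      mul_le_mul_of_nonneg_right hyy (mul_nonneg this this)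
    linarith
  have g2 : |y * (gyu * u + gyv * v)| ≤ 10 / 1000 * |y| := by
    rw [abs_mul]
    have h : |gyu * u + gyv * v| ≤ 10 / 1000 :=
      (Arc880.abs_add2 (abs_mul2 hyu hu) (abs_mul2 hyv hv)).trans (by norm_num)
    have := mul_le_mul_of_nonneg_left h (abs_nonneg y)
    linarith
  have g3 : |guu * u ^ 2 + guv * (u * v) + gvv * v ^ 2| ≤ 3 / 1000 * al := by
    have e : guu * u ^ 2 + guv * (u * v) + gvv * v ^ 2 =
        guu * u * u + guv * u * v + gvv * v * v := by ring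
    rw [e]
    have := Arc880.abs_add2 (Arc880.abs_add2 (abs_mul2 uu hu) (abs_mul2 uvu hv)) (abs_mul2 vv hv)
    linarith
  have gg : |gyy * y ^ 2 + y * (gyu * u + gyv * v) + (guu * u ^ 2 + guv * (u * v) + gvv * v ^ 2)| ≤
      15 / 1000 * |y| + 3 / 1000 * al := by
    have := Arc880.abs_add2 (Arc880.abs_add2 g1 g2) g3
    linarith
  -- bound of `y`
  have sy : |s * y| ≤ al + (15 / 1000 * |y| + 3 / 1000 * al) + 2 * al := by
    have e : s * y = (s * y + z1 * (p * u + q * v) +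
      (gyy * y ^ 2 + y * (gyu * u + gyv * v) + (guu * u ^ 2 + guv * (u * v) + gvv * v ^ 2))) -
      (gyy * y ^ 2 + y * (gyu * u + gyv * v) + (guu * u ^ 2 + guv * (u * v) + gvv * v ^ 2)) -
      z1 * (p * u + q * v) := by ring
    rw [e]
    exact Arc880.abs_sub2 (Arc880.abs_sub2 h0 gg) zpq
  have hyal : |y| ≤ 7 * al := by
    rw [abs_mul, abs_of_pos (by linarith : 0 < s)] at sy
    have h := mul_le_mul_of_nonneg_right hs (abs_nonneg y)
    linarith
  have r1 : |s * y + z1 * (p * u + q * v)| ≤ 2 * al := by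
    have e : s * y + z1 * (p * u + q * v) = (s * y + z1 * (p * u + q * v) +
      (gyy * y ^ 2 + y * (gyu * u + gyv * v) + (guu * u ^ 2 + guv * (u * v) + gvv * v ^ 2))) -
      (gyy * y ^ 2 + y * (gyu * u + gyv * v) + (guu * u ^ 2 + guv * (u * v) + gvv * v ^ 2)) := by
      ring
    rw [e]
    have := Arc880.abs_sub2 h0 gg
    linarith
  refine ⟨r1, ?_⟩
  -- first order part
  set m := s * Y + z1 * (p * U + q * V) with hm
  have t1 : |β0 * y + p * u + q * v| ≤ 125 / 10 * al := by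
    have := Arc880.abs_add2 (Arc880.abs_add2 (abs_mul2 hβ hyal) pu) qv
    linarith
  -- `Y` in terms of `m`
  have kU : |p * U + q * V| ≤ 4 / 1000 * k := by
    have := Arc880.abs_add2 (abs_mul2 hp hU) (abs_mul2 hq hV)
    linarith
  have hYm : |Y| ≤ 2 * |m| + 8 / 1000 * k := by
    have e : s * Y = m - z1 * (p * U + q * V) := by rw [hm]; ring
    have h2 : |s * Y| ≤ |m| + 1 * (4 / 1000 * k) := by
      rw [e]; exact Arc880.abs_sub2 le_rfl (abs_mul2 hz kU)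
    rw [abs_mul, abs_of_pos (by linarith : 0 < s)] at h2
    have h := mul_le_mul_of_nonneg_right hs (abs_nonneg Y)
    linarith
  have Yx : ∀ x : ℝ, |x| ≤ 1 / 1000 → |x| ≤ dl → |Y * x| ≤ 2 / 1000 * |m| + 8 / 1000 * al := by
    intro x hx hxd
    rw [abs_mul]
    have a1 : |Y| * |x| ≤ (2 * |m| + 8 / 1000 * k) * |x| :=
      mul_le_mul_of_nonneg_right hYm (abs_nonneg _)
    have a2 : 2 * |m| * |x| ≤ 2 * |m| * (1 / 1000) :=
      mul_le_mul_of_nonneg_left hx (by positivity)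
    have a3 : k * |x| ≤ k * dl := mul_le_mul_of_nonneg_left hxd hk
    have e : (2 * |m| + 8 / 1000 * k) * |x| = 2 * |m| * |x| + 8 / 1000 * (k * |x|) := by ring
    linarith
  have Yu := Yx u hu hud
  have Yv := Yx v hv hvd
  have yY : |2 * gyy * y * Y| ≤ 14 / 100 * al := by
    have t2 : |(2 : ℝ)| ≤ 2 := by norm_num
    have := abs_mul2 (abs_mul2 (abs_mul2 t2 hyy) hyal) hY
    linarith
  have b1 : |gyu * (y * U + Y * u)| ≤ 5 * (7 * al * (2 / 1000) + (2 / 1000 * |m| + 8 / 1000 * al)) :=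
    abs_mul2 hyu (Arc880.abs_add2 (abs_mul2 hyal hU) Yu)
  have b2 : |gyv * (y * V + Y * v)| ≤ 5 * (7 * al * (2 / 1000) + (2 / 1000 * |m| + 8 / 1000 * al)) :=
    abs_mul2 hyv (Arc880.abs_add2 (abs_mul2 hyal hV) Yv)
  have b3 : |2 * guu * (u * U)| ≤ 4 / 1000 * al := by
    have e : 2 * guu * (u * U) = 2 * (guu * u * U) := by ring
    rw [e]
    have t2 : |(2 : ℝ)| ≤ 2 := by norm_num
    have := abs_mul2 t2 (abs_mul2 uu hU)
    linarith
  have b4 : |guv * (u * V + U * v)| ≤ 4 / 1000 * al := by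
    have e : guv * (u * V + U * v) = guv * u * V + guv * v * U := by ring
    rw [e]
    have := Arc880.abs_add2 (abs_mul2 uvu hV) (abs_mul2 uvv hU)
    linarith
  have b5 : |2 * gvv * (v * V)| ≤ 4 / 1000 * al := by
    have e : 2 * gvv * (v * V) = 2 * (gvv * v * V) := by ring
    rw [e]
    have t2 : |(2 : ℝ)| ≤ 2 := by norm_num
    have := abs_mul2 t2 (abs_mul2 vv hV)
    linarith
  have tot := Arc880.abs_sub2 (Arc880.abs_sub2 h1 t1)
    (Arc880.abs_add2 (Arc880.abs_add2 (Arc880.abs_add2 (Arc880.abs_add2 (Arc880.abs_add2 yY b1) b2)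
      b3) b4) b5)
  have e : (β0 * y + p * u + q * v) + m +
      (2 * gyy * y * Y + gyu * (y * U + Y * u) + gyv * (y * V + Y * v) + 2 * guu * (u * U) +
        guv * (u * V + U * v) + 2 * gvv * (v * V)) - (β0 * y + p * u + q * v) -
      (2 * gyy * y * Y + gyu * (y * U + Y * u) + gyv * (y * V + Y * v) + 2 * guu * (u * U) +
        guv * (u * V + U * v) + 2 * gvv * (v * V)) = m := by ring
  rw [e] at tot
  linarith

/-- **410's `pair_tan`** (a): the pair stays in the tangent plane at the crossing height -/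
theorem pair_tan {b0 b1 : V3} {G : QF} (N : NrmC b0 b1 G) {k al dl z1 : ℝ}
    (hk : kap b0 b1 G ≤ k) (X0 V : V3)
    (hP : ∀ z : ℝ, 0 ≤ z → z ≤ 1 → |Fq b0 b1 G z (X0 + z • V)| ≤ al)
    (hX : ∀ z : ℝ, 0 ≤ z → z ≤ 1 → ∀ i, |(X0 + z • V) i| ≤ 1 / 1000)
    (hz0 : 0 ≤ z1) (hz1 : z1 ≤ 1) (hd1 : |(X0 + z1 • V) 1| ≤ dl) (hd2 : |(X0 + z1 • V) 2| ≤ dl)
    (hkd : k * dl ≤ al) :
    (∀ z : ℝ, 0 ≤ z → z ≤ 1 → |dt (bz b0 b1 z1) (X0 + z • V)| ≤ 42 * al) ∧
      |dt b1 V + G.ev V| ≤ 8 * al := by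
  obtain ⟨l0, -, l1, -, hβ, -, -, s1, s2⟩ := N.b1_le
  obtain ⟨-, -, hyu, hyv, -, -, -⟩ := N.sh_le
  have hyy := N.G_le.1
  have hk0 : 0 ≤ k := (kap_nonneg b0 b1 G).trans hk
  have k1 : |shB1 b0 b1 1| ≤ k := ((le_max_left _ _).trans (le_max_left _ _)).trans hk
  have k2 : |shB1 b0 b1 2| ≤ k := ((le_max_right _ _).trans (le_max_left _ _)).trans hk
  have k3 : |(shG b0 G).uu| ≤ k :=
    ((le_max_left _ _).trans ((le_max_left _ _).trans (le_max_right _ _))).trans hk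
  have k4 : |(shG b0 G).uv| ≤ k :=
    ((le_max_right _ _).trans ((le_max_left _ _).trans (le_max_right _ _))).trans hk
  have k5 : |(shG b0 G).vv| ≤ k := ((le_max_right _ _).trans (le_max_right _ _)).trans hk
  have hal : 0 ≤ al := (abs_nonneg _).trans (hP 0 le_rfl zero_le_one)
  have hb : b0 0 ≠ 0 := by linarith
  set σ1 := b0 1 / b0 0 with hσ1
  set σ2 := b0 2 / b0 0 with hσ2
  have hc1 : b0 1 = σ1 * b0 0 := by rw [hσ1]; field_simp
  have hc2 : b0 2 = σ2 * b0 0 := by rw [hσ2]; field_simp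
  have X1 := hX z1 hz0 hz1
  have Xa := hX 0 le_rfl zero_le_one
  have Xb := hX 1 zero_le_one le_rfl
  simp only [Pi.add_apply, Pi.smul_apply, smul_eq_mul] at X1 Xa Xb hd1 hd2
  have hV : ∀ i, |V i| ≤ 2 / 1000 := by
    intro i
    have h1 := Xa i
    have h2 := Xb i
    rw [abs_le] at h1 h2 ⊢
    constructor <;> linarith [h1.1, h1.2, h2.1, h2.2]
  have P0 := hP 0 le_rfl zero_le_one
  have Ph := hP (1 / 2) (by norm_num) (by norm_num)
  have P1 := hP 1 zero_le_one le_rfl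
  have Pz := hP z1 hz0 hz1
  simp only [Fq, dt, bz, QF.ev, Pi.add_apply, Pi.smul_apply, smul_eq_mul] at P0 Ph P1 Pz
  -- coefficients of the polynomial in `z`
  set A := (b0 0 * X0 0 + b0 1 * X0 1 + b0 2 * X0 2) + G.ev X0 with hA
  set B := (b1 0 * X0 0 + b1 1 * X0 1 + b1 2 * X0 2) + (b0 0 * V 0 + b0 1 * V 1 + b0 2 * V 2) +
    (2 * G.yy * (X0 0 * V 0) + G.yu * (X0 0 * V 1 + V 0 * X0 1) +
      G.yv * (X0 0 * V 2 + V 0 * X0 2) + 2 * G.uu * (X0 1 * V 1) +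
      G.uv * (X0 1 * V 2 + V 1 * X0 2) + 2 * G.vv * (X0 2 * V 2)) with hB
  set C := dt b1 V + G.ev V with hC
  have qc := quad_co (A := A) (B := B) (C := C) (al := al)
    (by
      refine le_trans (le_of_eq ?_) P0
      congr 1
      simp only [hA, QF.ev]; ring)
    (by
      refine le_trans (le_of_eq ?_) Ph
      congr 1
      simp only [hA, hB, hC, QF.ev, dt]; ring)
    (by
      refine le_trans (le_of_eq ?_) P1
      congr 1
      simp only [hA, hB, hC, QF.ev, dt]; ring)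
  refine ⟨?_, qc.1⟩
  have hs : 1 / 2 ≤ b0 0 + z1 * b1 0 := by nlinarith
  have tz : |(z1 : ℝ)| ≤ 1 := abs_le.2 ⟨by linarith, hz1⟩
  have cz : |B + 2 * C * z1| ≤ 24 * al := by
    have t2 : |(2 : ℝ)| ≤ 2 := by norm_num
    have := Arc880.abs_add2 qc.2 (abs_mul2 (abs_mul2 t2 qc.1) tz)
    linarith
  -- tangent coordinates
  have yb : |(X0 0 + z1 * V 0) + σ1 * (X0 1 + z1 * V 1) + σ2 * (X0 2 + z1 * V 2)| ≤ 5 / 1000 := by
    have := Arc880.abs_add2 (Arc880.abs_add2 (X1 0) (abs_mul2 s1 (X1 1))) (abs_mul2 s2 (X1 2))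
    linarith
  have Yb : |V 0 + σ1 * V 1 + σ2 * V 2| ≤ 1 / 100 := by
    have := Arc880.abs_add2 (Arc880.abs_add2 (hV 0) (abs_mul2 s1 (hV 1))) (abs_mul2 s2 (hV 2))
    linarith
  have key := core (al := al) (k := k) (dl := dl) (z1 := z1)
    (y := (X0 0 + z1 * V 0) + σ1 * (X0 1 + z1 * V 1) + σ2 * (X0 2 + z1 * V 2))
    (u := X0 1 + z1 * V 1) (v := X0 2 + z1 * V 2)
    (Y := V 0 + σ1 * V 1 + σ2 * V 2) (U := V 1) (V := V 2) (s := b0 0 + z1 * b1 0) (β0 := b1 0)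
    (p := shB1 b0 b1 1) (q := shB1 b0 b1 2) (gyy := G.yy) (gyu := (shG b0 G).yu)
    (gyv := (shG b0 G).yv) (guu := (shG b0 G).uu) (guv := (shG b0 G).uv) (gvv := (shG b0 G).vv)
    hz0 hz1 hk0 hkd hal hs hβ k1 k2 hyy hyu hyv k3 k4 k5 yb (X1 1) (X1 2) hd1 hd2 Yb (hV 1) (hV 2)
    (by
      refine le_trans (le_of_eq ?_) Pz
      congr 1
      simp only [shB1, shG, Matrix.cons_val]
      rw [← hσ1, ← hσ2, hc1, hc2]
      ring)
    (by
      refine le_trans (le_of_eq ?_) cz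
      congr 1
      simp only [hB, hC, shB1, shG, Matrix.cons_val, dt, QF.ev]
      rw [← hσ1, ← hσ2, hc1, hc2]
      ring)
  obtain ⟨r1, r2⟩ := key
  intro z h0 h1
  have e : dt (bz b0 b1 z1) (X0 + z • V) =
      ((b0 0 + z1 * b1 0) *
        ((X0 0 + z1 * V 0) + σ1 * (X0 1 + z1 * V 1) + σ2 * (X0 2 + z1 * V 2)) +
        z1 * (shB1 b0 b1 1 * (X0 1 + z1 * V 1) + shB1 b0 b1 2 * (X0 2 + z1 * V 2))) +
      (z - z1) * ((b0 0 + z1 * b1 0) * (V 0 + σ1 * V 1 + σ2 * V 2) +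
        z1 * (shB1 b0 b1 1 * V 1 + shB1 b0 b1 2 * V 2)) := by
    simp only [dt, bz, Pi.add_apply, Pi.smul_apply, smul_eq_mul, shB1, Matrix.cons_val]
    rw [← hσ1, ← hσ2, hc1, hc2]
    ring
  rw [e]
  have hzz : |z - z1| ≤ 1 := abs_le.2 ⟨by linarith, by linarith⟩
  have := Arc880.abs_add2 r1 (abs_mul2 hzz r2)
  linarith

end Crest.Agent.R136.Ptn933
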