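import Crest.Agent.R136.KapP_335
import Crest.Agent.R136.Cap2_102
import Crest.Agent.R136.Tlt0_51
import Crest.Agent.R136.Ptn_933

/-!
# R136 (S0187), PLAN 2 (B4), energy proof: pairs of lines of one sheet, Euclidean form (helper933)

`gr S z0 ρ T ζ` = gradient of `S.q` at the line `T`, height `z0 + ρ ζ`; `rt` = its derivative in `ζ`.
* `pair_S`    : the pair stays in the tangent plane at the crossing height.
* `pair_sum`  : `rt T · Dv + rt T' · Dv = O(a)`.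
* `pair_quad` : `gr T ζ · X(ζ) = O(a + kapP |x|²)`.
-/

set_option autoImplicit false
set_option linter.unusedVariables false

namespace Crest.Agent.R136.Ptw933

open Crest.Agent.R136.Sh605 Crest.Agent.R136.K4
open Crest.Agent.R136.Tl102
open Crest.Agent.R136.Tlt51 (Shp InP)
open Crest.Agent.R136.KapP335 (kapP expP expP_spec expP_eq kapP_eq)
open Crest.Agent.R136.Ptn933 (quad_co abs_mul2 pair_tan)

/-- covector with plank components `b` (units `w 0`) -/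
noncomputable def cv (e : Fin 3 → V3) (w b : V3) : V3 := ∑ k, (w 0 / w k * b k) • e k

theorem dt_cv (e : Fin 3 → V3) (w b X : V3) :
    dt (cv e w b) X = w 0 * dt b (fun k => dt (e k) X / w k) := by
  simp only [cv, dt, Fin.sum_univ_three, Pi.add_apply, Pi.smul_apply, smul_eq_mul]
  ring

/-- gradient of `S.q` at `T`, height `z0 + ρ ζ` -/
noncomputable def gr (S : Plk4) (z0 ρ : ℝ) (T : Ln4) (ζ : ℝ) : V3 :=
  cv S.e S.w (bz (expP S z0 ρ T).1 (expP S z0 ρ T).2.1 ζ)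

/-- rotation of the gradient along `T` -/
noncomputable def rt (S : Plk4) (z0 ρ : ℝ) (T : Ln4) : V3 := cv S.e S.w (expP S z0 ρ T).2.1

theorem gr_affine (S : Plk4) (z0 ρ : ℝ) (T : Ln4) (ζ ζ' : ℝ) :
    gr S z0 ρ T ζ' = gr S z0 ρ T ζ + (ζ' - ζ) • rt S z0 ρ T := by
  unfold gr rt cv bz
  ext i
  simp only [Fin.sum_univ_three, Pi.add_apply, Pi.smul_apply, smul_eq_mul]
  ring

/-- difference of the positions at the height `z0 + ρ ζ` -/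
def X (z0 ρ : ℝ) (T T' : Ln4) (ζ : ℝ) : V3 := T'.pos (z0 + ρ * ζ) - T.pos (z0 + ρ * ζ)

/-- difference of the velocities (per cell) -/
def Dv (ρ : ℝ) (T T' : Ln4) : V3 := ρ • (T'.v - T.v)

theorem X_affine (z0 ρ : ℝ) (T T' : Ln4) (ζ ζ' : ℝ) :
    X z0 ρ T T' ζ' = X z0 ρ T T' ζ + (ζ' - ζ) • Dv ρ T T' := by
  ext i
  simp only [X, Dv, Ln4.pos, Pi.sub_apply, Pi.add_apply, Pi.smul_apply, smul_eq_mul]
  ring

theorem rp_eq (e : Fin 3 → V3) (w : V3) (z0 ρ : ℝ) (T T' : Ln4) (ζ : ℝ) :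
    rp e w z0 ρ T T' ζ = fun k => dt (e k) (X z0 ρ T T' ζ) / w k := rfl

theorem vel_eq (e : Fin 3 → V3) (w : V3) (ρ : ℝ) (T T' : Ln4) :
    vel e w ρ T T' = fun k => dt (e k) (Dv ρ T T') / w k := by
  funext k
  simp only [vel, Dv, dt, Pi.smul_apply, smul_eq_mul, Pi.sub_apply]
  ring

theorem rp_line (e : Fin 3 → V3) (w : V3) (z0 ρ : ℝ) (T T' : Ln4) (ζ : ℝ) :
    rp e w z0 ρ T T' ζ = rp e w z0 ρ T T' 0 + ζ • vel e w ρ T T' := by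
  funext k
  have := rp_affine e w z0 ρ T T' 0 ζ k
  simp only [Pi.add_apply, Pi.smul_apply, smul_eq_mul]
  rw [this]; ring

/-- scalar: tangent coordinate at the crossing -/
theorem core_y {al k dl z1 y u v s p q gyy gyu gyv guu guv gvv : ℝ}
    (hz0 : 0 ≤ z1) (hz1 : z1 ≤ 1) (hkd : k * dl ≤ al) (hal : 0 ≤ al)
    (hs : 1 / 2 ≤ s) (hp : |p| ≤ k) (hq : |q| ≤ k) (hyy : |gyy| ≤ 1)
    (hyu : |gyu| ≤ 5) (hyv : |gyv| ≤ 5) (huu : |guu| ≤ k) (huv : |guv| ≤ k) (hvv : |gvv| ≤ k)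
    (hy : |y| ≤ 5 / 1000) (hu : |u| ≤ 1 / 1000) (hv : |v| ≤ 1 / 1000) (hud : |u| ≤ dl)
    (hvd : |v| ≤ dl)
    (h0 : |s * y + z1 * (p * u + q * v) +
      (gyy * y ^ 2 + y * (gyu * u + gyv * v) + (guu * u ^ 2 + guv * (u * v) + gvv * v ^ 2))| ≤ al) :
    |y| ≤ 7 * al ∧ |p * u| ≤ al ∧ |q * v| ≤ al := by
  have hz : |z1| ≤ 1 := abs_le.2 ⟨by linarith, hz1⟩
  have pu : |p * u| ≤ al := (abs_mul2 hp hud).trans hkd
  have qv : |q * v| ≤ al := (abs_mul2 hq hvd).trans hkd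
  have zpq : |z1 * (p * u + q * v)| ≤ 2 * al := by
    have := abs_mul2 hz (Arc880.abs_add2 pu qv)
    linarith
  have uu : |guu * u| ≤ al := (abs_mul2 huu hud).trans hkd
  have uvu : |guv * u| ≤ al := (abs_mul2 huv hud).trans hkd
  have vv : |gvv * v| ≤ al := (abs_mul2 hvv hvd).trans hkd
  have g1 : |gyy * y ^ 2| ≤ 5 / 1000 * |y| := by
    have e : gyy * y ^ 2 = gyy * (y * y) := by ring
    rw [e, abs_mul, abs_mul]
    have := abs_nonneg y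
    have h : |y| * |y| ≤ 5 / 1000 * |y| := mul_le_mul_of_nonneg_right hy this
    have h2 : |gyy| * (|y| * |y|) ≤ 1 * (|y| * |y|) :=
      mul_le_mul_of_nonneg_right hyy (mul_nonneg this this)
    linarith
  have g2 : |y * (gyu * u + gyv * v)| ≤ 10 / 1000 * |y| := by
    rw [abs_mul]
    have h : |gyu * u + gyv * v| ≤ 10 / 1000 :=
      (Arc880.abs_add2 (abs_mul2 hyu hu) (abs_mul2 hyv hv)).trans (by norm_num)
    have := mul_le_mul_of_nonneg_left h (abs_nonneg y)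
    linarith
  have g3 : |guu * u ^ 2 + guv * (u * v) + gvv * v ^ 2| ≤ 3 / 1000 * al := by
    have e : guu * u ^ 2 + guv * (u * v) + gvv * v ^ 2 =
        guu * u * u + guv * u * v + gvv * v * v := by ring
    rw [e]
    have := Arc880.abs_add2 (Arc880.abs_add2 (abs_mul2 uu hu) (abs_mul2 uvu hv)) (abs_mul2 vv hv)
    linarith
  have gg : |gyy * y ^ 2 + y * (gyu * u + gyv * v) + (guu * u ^ 2 + guv * (u * v) + gvv * v ^ 2)| ≤
      15 / 1000 * |y| + 3 / 1000 * al := by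
    have := Arc880.abs_add2 (Arc880.abs_add2 g1 g2) g3
    linarith
  have sy : |s * y| ≤ al + (15 / 1000 * |y| + 3 / 1000 * al) + 2 * al := by
    have e : s * y = (s * y + z1 * (p * u + q * v) +
      (gyy * y ^ 2 + y * (gyu * u + gyv * v) + (guu * u ^ 2 + guv * (u * v) + gvv * v ^ 2))) -
      (gyy * y ^ 2 + y * (gyu * u + gyv * v) + (guu * u ^ 2 + guv * (u * v) + gvv * v ^ 2)) -
      z1 * (p * u + q * v) := by ring
    rw [e]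
    exact Arc880.abs_sub2 (Arc880.abs_sub2 h0 gg) zpq
  refine ⟨?_, pu, qv⟩
  rw [abs_mul, abs_of_pos (by linarith : 0 < s)] at sy
  have h := mul_le_mul_of_nonneg_right hs (abs_nonneg y)
  linarith

/-- scalar: the quadratic relation -/
theorem core_q {al k m z1 y u v s p q gyy gyu gyv guu guv gvv : ℝ}
    (hz0 : 0 ≤ z1) (hz1 : z1 ≤ 1) (hk : 0 ≤ k) (hk13 : k ≤ 13) (hal : 0 ≤ al)
    (hs : 1 / 2 ≤ s) (hp : |p| ≤ k) (hq : |q| ≤ k) (hyy : |gyy| ≤ 1)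
    (hyu : |gyu| ≤ 5) (hyv : |gyv| ≤ 5) (huu : |guu| ≤ k) (huv : |guv| ≤ k) (hvv : |gvv| ≤ k)
    (hy : |y| ≤ 5 / 1000) (hm : m ≤ 1 / 1000) (hu : |u| ≤ m) (hv : |v| ≤ m)
    (h0 : |s * y + z1 * (p * u + q * v) +
      (gyy * y ^ 2 + y * (gyu * u + gyv * v) + (guu * u ^ 2 + guv * (u * v) + gvv * v ^ 2))| ≤ al) :
    |s * y + z1 * (p * u + q * v)| ≤ 2 * al + 300 * k * m ^ 2 := by
  have hz : |z1| ≤ 1 := abs_le.2 ⟨by linarith, hz1⟩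
  have hm0 : 0 ≤ m := (abs_nonneg _).trans hu
  have hkm0 : 0 ≤ k * m := mul_nonneg hk hm0
  have zpq : |z1 * (p * u + q * v)| ≤ 2 * (k * m) := by
    have := abs_mul2 hz (Arc880.abs_add2 (abs_mul2 hp hu) (abs_mul2 hq hv))
    linarith
  have hy0 := abs_nonneg y
  have g1 : |gyy * y ^ 2| ≤ |y| * |y| := by
    have e : gyy * y ^ 2 = gyy * (y * y) := by ring
    rw [e, abs_mul, abs_mul]
    have h2 : |gyy| * (|y| * |y|) ≤ 1 * (|y| * |y|) :=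
      mul_le_mul_of_nonneg_right hyy (mul_nonneg hy0 hy0)
    linarith
  have g2 : |y * (gyu * u + gyv * v)| ≤ 10 * m * |y| := by
    rw [abs_mul]
    have h : |gyu * u + gyv * v| ≤ 5 * m + 5 * m :=
      Arc880.abs_add2 (abs_mul2 hyu hu) (abs_mul2 hyv hv)
    have := mul_le_mul_of_nonneg_left h hy0
    linarith
  have g3 : |guu * u ^ 2 + guv * (u * v) + gvv * v ^ 2| ≤ 3 * (k * m ^ 2) := by
    have e : guu * u ^ 2 + guv * (u * v) + gvv * v ^ 2 =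
        guu * u * u + guv * u * v + gvv * v * v := by ring
    rw [e]
    have := Arc880.abs_add2 (Arc880.abs_add2 (abs_mul2 (abs_mul2 huu hu) hu)
      (abs_mul2 (abs_mul2 huv hu) hv)) (abs_mul2 (abs_mul2 hvv hv) hv)
    nlinarith
  have gg := Arc880.abs_add2 (Arc880.abs_add2 g1 g2) g3
  have kmm : k * m ^ 2 ≤ 1 / 1000 * (k * m) := by nlinarith
  have yy : |y| * |y| ≤ 5 / 1000 * |y| := mul_le_mul_of_nonneg_right hy hy0
  have my : m * |y| ≤ 1 / 1000 * |y| := mul_le_mul_of_nonneg_right hm hy0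
  have sy : |s * y| ≤ al + (|y| * |y| + 10 * m * |y| + 3 * (k * m ^ 2)) + 2 * (k * m) := by
    have e : s * y = (s * y + z1 * (p * u + q * v) +
      (gyy * y ^ 2 + y * (gyu * u + gyv * v) + (guu * u ^ 2 + guv * (u * v) + gvv * v ^ 2))) -
      (gyy * y ^ 2 + y * (gyu * u + gyv * v) + (guu * u ^ 2 + guv * (u * v) + gvv * v ^ 2)) -
      z1 * (p * u + q * v) := by ring
    rw [e]
    exact Arc880.abs_sub2 (Arc880.abs_sub2 h0 gg) zpq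
  have ya : |y| ≤ 21 / 10 * al + 42 / 10 * (k * m) := by
    rw [abs_mul, abs_of_pos (by linarith : 0 < s)] at sy
    have h := mul_le_mul_of_nonneg_right hs hy0
    linarith
  -- square of `y`
  have km13 : k * m ≤ 13 / 1000 := by nlinarith
  have q1 : |y| * |y| ≤ 2 / 10 * al + 230 * (k * m ^ 2) := by
    have a1 : |y| * |y| ≤ (21 / 10 * al + 42 / 10 * (k * m)) * |y| :=
      mul_le_mul_of_nonneg_right ya hy0
    have a2 : 21 / 10 * al * |y| ≤ 21 / 10 * al * (5 / 1000) :=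
      mul_le_mul_of_nonneg_left hy (by positivity)
    have a3 : 42 / 10 * (k * m) * |y| ≤ 42 / 10 * (k * m) * (21 / 10 * al + 42 / 10 * (k * m)) :=
      mul_le_mul_of_nonneg_left ya (by positivity)
    have a4 : (k * m) * al ≤ 13 / 1000 * al := mul_le_mul_of_nonneg_right km13 hal
    have a5 : (k * m) * (k * m) ≤ 13 * (k * m ^ 2) := by
      have : (k * m) * (k * m) = k * (k * m ^ 2) := by ring
      rw [this]
      exact mul_le_mul_of_nonneg_right hk13 (by positivity)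
    nlinarith
  have q2 : 10 * m * |y| ≤ 1 / 10 * al + 42 * (k * m ^ 2) := by
    have a1 : 10 * m * |y| ≤ 10 * m * (21 / 10 * al + 42 / 10 * (k * m)) :=
      mul_le_mul_of_nonneg_left ya (by positivity)
    have a2 : m * al ≤ 1 / 1000 * al := mul_le_mul_of_nonneg_right hm hal
    nlinarith
  have e : s * y + z1 * (p * u + q * v) = (s * y + z1 * (p * u + q * v) +
      (gyy * y ^ 2 + y * (gyu * u + gyv * v) + (guu * u ^ 2 + guv * (u * v) + gvv * v ^ 2))) -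
      (gyy * y ^ 2 + y * (gyu * u + gyv * v) + (guu * u ^ 2 + guv * (u * v) + gvv * v ^ 2)) := by
    ring
  rw [e]
  have h := Arc880.abs_sub2 h0 gg
  have hkm : 0 ≤ k * m ^ 2 := by positivity
  nlinarith

/-- rewriting `dt (bz b0 b1 z) x` in tangent coordinates -/
theorem bz_tan {b0 b1 : V3} {G : QF} (hb : b0 0 ≠ 0) (z : ℝ) (x : V3) :
    dt (bz b0 b1 z) x = (b0 0 + z * b1 0) * (x 0 + b0 1 / b0 0 * x 1 + b0 2 / b0 0 * x 2) +
      z * (shB1 b0 b1 1 * x 1 + shB1 b0 b1 2 * x 2) := by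
  simp only [dt, bz, shB1, Matrix.cons_val]
  have hc1 : b0 1 = b0 1 / b0 0 * b0 0 := by field_simp
  have hc2 : b0 2 = b0 2 / b0 0 * b0 0 := by field_simp
  set σ1 := b0 1 / b0 0
  set σ2 := b0 2 / b0 0
  rw [hc1, hc2]
  ring

theorem Fq_tan {b0 b1 : V3} {G : QF} (hb : b0 0 ≠ 0) (z : ℝ) (x : V3) :
    Fq b0 b1 G z x = (b0 0 + z * b1 0) * (x 0 + b0 1 / b0 0 * x 1 + b0 2 / b0 0 * x 2) +
      z * (shB1 b0 b1 1 * x 1 + shB1 b0 b1 2 * x 2) +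
      (G.yy * (x 0 + b0 1 / b0 0 * x 1 + b0 2 / b0 0 * x 2) ^ 2 +
        (x 0 + b0 1 / b0 0 * x 1 + b0 2 / b0 0 * x 2) *
          ((shG b0 G).yu * x 1 + (shG b0 G).yv * x 2) +
        ((shG b0 G).uu * x 1 ^ 2 + (shG b0 G).uv * (x 1 * x 2) + (shG b0 G).vv * x 2 ^ 2)) := by
  unfold Fq
  rw [bz_tan (G := G) hb z x]
  simp only [QF.ev, shG]
  ring

theorem b1_tan {b0 b1 : V3} (hb : b0 0 ≠ 0) (x : V3) :
    dt b1 x = b1 0 * (x 0 + b0 1 / b0 0 * x 1 + b0 2 / b0 0 * x 2) +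
      (shB1 b0 b1 1 * x 1 + shB1 b0 b1 2 * x 2) := by
  simp only [dt, shB1, Matrix.cons_val]
  ring

theorem kap_parts {b0 b1 : V3} {G : QF} {k : ℝ} (hk : kap b0 b1 G ≤ k) :
    |shB1 b0 b1 1| ≤ k ∧ |shB1 b0 b1 2| ≤ k ∧ |(shG b0 G).uu| ≤ k ∧ |(shG b0 G).uv| ≤ k ∧
      |(shG b0 G).vv| ≤ k :=
  ⟨((le_max_left _ _).trans (le_max_left _ _)).trans hk,
    ((le_max_right _ _).trans (le_max_left _ _)).trans hk,
    ((le_max_left _ _).trans ((le_max_left _ _).trans (le_max_right _ _))).trans hk,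
    ((le_max_right _ _).trans ((le_max_left _ _).trans (le_max_right _ _))).trans hk,
    ((le_max_right _ _).trans (le_max_right _ _)).trans hk⟩

/-- rotation of a crossing pair -/
theorem pair_rot {b0 b1 : V3} {G : QF} (N : NrmC b0 b1 G) {k al dl z1 : ℝ}
    (hk : kap b0 b1 G ≤ k) (x : V3) (hP : |Fq b0 b1 G z1 x| ≤ al) (hX : ∀ i, |x i| ≤ 1 / 1000)
    (hz0 : 0 ≤ z1) (hz1 : z1 ≤ 1) (hd1 : |x 1| ≤ dl) (hd2 : |x 2| ≤ dl) (hkd : k * dl ≤ al) :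
    |dt b1 x| ≤ 13 * al := by
  obtain ⟨l0, -, l1, -, hβ, -, -, s1, s2⟩ := N.b1_le
  obtain ⟨-, -, hyu, hyv, -, -, -⟩ := N.sh_le
  obtain ⟨k1, k2, k3, k4, k5⟩ := kap_parts hk
  have hyy := N.G_le.1
  have hal : 0 ≤ al := (abs_nonneg _).trans hP
  have hb : b0 0 ≠ 0 := by linarith
  have hs : 1 / 2 ≤ b0 0 + z1 * b1 0 := by nlinarith
  have yb : |x 0 + b0 1 / b0 0 * x 1 + b0 2 / b0 0 * x 2| ≤ 5 / 1000 := by
    have := Arc880.abs_add2 (Arc880.abs_add2 (hX 0) (abs_mul2 s1 (hX 1))) (abs_mul2 s2 (hX 2))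
    linarith
  rw [Fq_tan hb] at hP
  obtain ⟨c1, c2, c3⟩ := core_y hz0 hz1 hkd hal hs k1 k2 hyy hyu hyv k3 k4 k5 yb (hX 1) (hX 2)
    hd1 hd2 hP
  rw [b1_tan hb]
  have := Arc880.abs_add2 (abs_mul2 hβ c1) (Arc880.abs_add2 c2 c3)
  linarith

/-- the quadratic relation at one height -/
theorem pair_q {b0 b1 : V3} {G : QF} (N : NrmC b0 b1 G) {al z1 : ℝ} (x : V3)
    (hP : |Fq b0 b1 G z1 x| ≤ al) (hX : ∀ i, |x i| ≤ 1 / 1000) (hz0 : 0 ≤ z1) (hz1 : z1 ≤ 1) :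
    |dt (bz b0 b1 z1) x| ≤ 2 * al + 300 * kap b0 b1 G * (x 1 ^ 2 + x 2 ^ 2) := by
  obtain ⟨l0, -, l1, -, hβ, -, -, s1, s2⟩ := N.b1_le
  obtain ⟨-, -, hyu, hyv, -, -, -⟩ := N.sh_le
  obtain ⟨k1, k2, k3, k4, k5⟩ := kap_parts (le_refl (kap b0 b1 G))
  have hyy := N.G_le.1
  have hal : 0 ≤ al := (abs_nonneg _).trans hP
  have hb : b0 0 ≠ 0 := by linarith
  have hs : 1 / 2 ≤ b0 0 + z1 * b1 0 := by nlinarith
  have yb : |x 0 + b0 1 / b0 0 * x 1 + b0 2 / b0 0 * x 2| ≤ 5 / 1000 := by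
    have := Arc880.abs_add2 (Arc880.abs_add2 (hX 0) (abs_mul2 s1 (hX 1))) (abs_mul2 s2 (hX 2))
    linarith
  rw [Fq_tan hb] at hP
  have key := core_q (m := max |x 1| |x 2|) hz0 hz1 (kap_nonneg b0 b1 G) (kap_le N) hal hs k1 k2
    hyy hyu hyv k3 k4 k5 yb (max_le (hX 1) (hX 2)) (le_max_left _ _) (le_max_right _ _) hP
  rw [bz_tan (G := G) hb]
  refine key.trans ?_
  have hm : max |x 1| |x 2| ^ 2 ≤ x 1 ^ 2 + x 2 ^ 2 := by
    rcases max_cases |x 1| |x 2| with ⟨h, -⟩ | ⟨h, -⟩ <;> rw [h, sq_abs] <;>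
      nlinarith [sq_nonneg (x 1), sq_nonneg (x 2)]
  have := mul_le_mul_of_nonneg_left hm (kap_nonneg b0 b1 G)
  nlinarith

/-- polar form -/
def pol (G : QF) (x : V3) : V3 :=
  ![2 * G.yy * x 0 + G.yu * x 1 + G.yv * x 2, G.yu * x 0 + 2 * G.uu * x 1 + G.uv * x 2,
    G.yv * x 0 + G.uv * x 1 + 2 * G.vv * x 2]

theorem Fq_add (b0 b1 : V3) (G : QF) (ζ : ℝ) (x y v : V3) (hx : x = y + ζ • v) (t : V3) :
    Fq b0 b1 G ζ (x + t) =
      Fq b0 b1 G ζ x + Fq (b0 + pol G y) (b1 + pol G v) G ζ t := by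
  subst hx
  simp only [Fq, dt, bz, QF.ev, pol, Pi.add_apply, Pi.smul_apply, smul_eq_mul, Matrix.cons_val]
  ring

theorem cmb_add (f : Fin 3 → V3) (x y : V3) : cmb f (x + y) = cmb f x + cmb f y := by
  ext i
  simp only [cmb, Pi.add_apply]
  ring

/-- the expansion around another line -/
theorem exp_shift {q : ℝ → V3 → ℝ} {e : Fin 3 → V3} (he : Ortho e) {w : V3} (hw : ∀ k, w k ≠ 0)
    {T : Ln4} {z0 ρ : ℝ} {b0 b1 : V3} {G : QF} (hE : IsExp q e w T z0 ρ b0 b1 G) (T' : Ln4) :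
    IsExp q e w T' z0 ρ (b0 + pol G (rp e w z0 ρ T T' 0)) (b1 + pol G (vel e w ρ T T')) G := by
  intro ζ x
  have h1 := cmb_pc he hw T (z0 + ρ * ζ) (T'.pos (z0 + ρ * ζ))
  have h2 : T'.pos (z0 + ρ * ζ) + cmb (fr e w) x =
      T.pos (z0 + ρ * ζ) + cmb (fr e w) (rp e w z0 ρ T T' ζ + x) := by
    rw [cmb_add, ← add_assoc]
    congr 1
    exact h1.symm
  have h3 : T'.pos (z0 + ρ * ζ) = T.pos (z0 + ρ * ζ) + cmb (fr e w) (rp e w z0 ρ T T' ζ) :=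
    h1.symm
  rw [h2, hE, Fq_add b0 b1 G ζ _ _ _ (rp_line e w z0 ρ T T' ζ) x]
  have h4 := hE ζ (rp e w z0 ρ T T' ζ)
  rw [← h3] at h4
  rw [h4]
  ring

section
variable {S : Plk4} {z0 ρ r : ℝ} {T T' : Ln4}

theorem basics (hr : 0 < r) (hρ : 0 < ρ) (hS : Shp S z0 ρ r) (hT : InP T S z0 ρ)
    (hT' : InP T' S z0 ρ) :
    0 < S.w 0 ∧ (∀ k, S.w k ≠ 0) ∧ 0 ≤ S.a ∧
    IsExp S.q S.e S.w T z0 ρ (expP S z0 ρ T).1 (expP S z0 ρ T).2.1 (expP S z0 ρ T).2.2 ∧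
    NrmC (expP S z0 ρ T).1 (expP S z0 ρ T).2.1 (expP S z0 ρ T).2.2 ∧
    (∀ ζ, 0 ≤ ζ → ζ ≤ 1 →
      |Fq (expP S z0 ρ T).1 (expP S z0 ρ T).2.1 (expP S z0 ρ T).2.2 ζ
        (rp S.e S.w z0 ρ T T' ζ)| ≤ 2 * S.a / S.w 0) := by
  have hw0 : 0 < S.w 0 := hr.trans_le (hS.r0_le.trans hS.a_le0)
  have P := StP.of_shN hS hw0
  have hw : ∀ k, S.w k ≠ 0 := fun k => (P.pos k).ne'
  have hE := expP_spec (S := S) hS.isQ hw0.ne' z0 ρ T
  have hz : ∀ ζ, 0 ≤ ζ → ζ ≤ 1 → z0 ≤ z0 + ρ * ζ ∧ z0 + ρ * ζ ≤ z0 + ρ := by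
    intro ζ h1 h2
    constructor <;> nlinarith
  refine ⟨hw0, hw, (hr.le.trans hS.r0_le), hE, hE.nrmC P hρ.le (fun z h1 h2 => (hT z h1 h2).1), ?_⟩
  intro ζ h0 h1
  obtain ⟨z1, z2⟩ := hz ζ h0 h1
  have a1 := (hT _ z1 z2).2
  have a2 := (hT' _ z1 z2).2
  have h3 := hE ζ (rp S.e S.w z0 ρ T T' ζ)
  have h4 : T.pos (z0 + ρ * ζ) + cmb (fr S.e S.w) (rp S.e S.w z0 ρ T T' ζ) =
      T'.pos (z0 + ρ * ζ) := cmb_pc hS.ortho hw T (z0 + ρ * ζ) (T'.pos (z0 + ρ * ζ))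
  rw [h4] at h3
  rw [le_div_iff₀ hw0]
  have h5 : S.w 0 * Fq (expP S z0 ρ T).1 (expP S z0 ρ T).2.1 (expP S z0 ρ T).2.2 ζ
      (rp S.e S.w z0 ρ T T' ζ) =
      S.q (z0 + ρ * ζ) (T'.pos (z0 + ρ * ζ)) - S.q (z0 + ρ * ζ) (T.pos (z0 + ρ * ζ)) := by
    rw [h3]; ring
  have h6 : |S.w 0 * Fq (expP S z0 ρ T).1 (expP S z0 ρ T).2.1 (expP S z0 ρ T).2.2 ζ
      (rp S.e S.w z0 ρ T T' ζ)| ≤ S.a + S.a := by
    rw [h5]; exact Arc880.abs_sub2 a2 a1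
  rw [abs_mul, abs_of_pos hw0] at h6
  linarith

theorem rp_small (hw : ∀ k, 0 < S.w k)
    (hX : ∀ ζ : ℝ, 0 ≤ ζ → ζ ≤ 1 → ∀ k, |dt (S.e k) (X z0 ρ T T' ζ)| ≤ S.w k / 1000) {ζ : ℝ}
    (h0 : 0 ≤ ζ) (h1 : ζ ≤ 1) (k : Fin 3) : |rp S.e S.w z0 ρ T T' ζ k| ≤ 1 / 1000 := by
  change |dt (S.e k) (X z0 ρ T T' ζ) / S.w k| ≤ 1 / 1000
  rw [abs_div, abs_of_pos (hw k), div_le_iff₀ (hw k)]
  have := hX ζ h0 h1 k
  linarith

/-- **(1)** a crossing pair stays in the tangent plane, free level `b` -/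
theorem pair_S (hr : 0 < r) (hρ : 0 < ρ) (hS : Shp S z0 ρ r) (hT : InP T S z0 ρ)
    (hT' : InP T' S z0 ρ)
    (hX : ∀ ζ : ℝ, 0 ≤ ζ → ζ ≤ 1 → ∀ k, |dt (S.e k) (X z0 ρ T T' ζ)| ≤ S.w k / 1000)
    {ζ1 dl b : ℝ} (hb : 2 * S.a ≤ b) (h0 : 0 ≤ ζ1) (h1 : ζ1 ≤ 1)
    (hd1 : |dt (S.e 1) (X z0 ρ T T' ζ1)| ≤ dl * S.w 1)
    (hd2 : |dt (S.e 2) (X z0 ρ T T' ζ1)| ≤ dl * S.w 2) (hk : kapP S z0 ρ T * dl ≤ b) :
    (∀ ζ : ℝ, 0 ≤ ζ → ζ ≤ 1 → |dt (gr S z0 ρ T ζ1) (X z0 ρ T T' ζ)| ≤ 42 * b) ∧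
      |dt (rt S z0 ρ T) (X z0 ρ T T' ζ1)| ≤ 13 * b := by
  obtain ⟨hw0, hw, ha, hE, N, hP⟩ := basics hr hρ hS hT hT'
  have P := StP.of_shN hS hw0
  have hsm := fun {ζ} => rp_small (S := S) (z0 := z0) (ρ := ρ) (T := T) (T' := T') P.pos hX (ζ := ζ)
  have d1 : |rp S.e S.w z0 ρ T T' ζ1 1| ≤ dl := by
    change |dt (S.e 1) (X z0 ρ T T' ζ1) / S.w 1| ≤ dl
    rw [abs_div, abs_of_pos (P.pos 1), div_le_iff₀ (P.pos 1)]; exact hd1
  have d2 : |rp S.e S.w z0 ρ T T' ζ1 2| ≤ dl := by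
    change |dt (S.e 2) (X z0 ρ T T' ζ1) / S.w 2| ≤ dl
    rw [abs_div, abs_of_pos (P.pos 2), div_le_iff₀ (P.pos 2)]; exact hd2
  have hkd : kap (expP S z0 ρ T).1 (expP S z0 ρ T).2.1 (expP S z0 ρ T).2.2 * dl ≤
      b / S.w 0 := by
    rw [le_div_iff₀ hw0]
    unfold kapP at hk
    linarith
  have hPb : ∀ ζ, 0 ≤ ζ → ζ ≤ 1 →
      |Fq (expP S z0 ρ T).1 (expP S z0 ρ T).2.1 (expP S z0 ρ T).2.2 ζ
        (rp S.e S.w z0 ρ T T' ζ)| ≤ b / S.w 0 := fun ζ g0 g1 =>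
    (hP ζ g0 g1).trans (div_le_div_of_nonneg_right hb hw0.le)
  have hline := rp_line S.e S.w z0 ρ T T'
  have key := pair_tan N le_rfl (rp S.e S.w z0 ρ T T' 0) (vel S.e S.w ρ T T')
    (al := b / S.w 0) (dl := dl) (z1 := ζ1)
    (fun z g0 g1 => by rw [← hline z]; exact hPb z g0 g1)
    (fun z g0 g1 i => by rw [← hline z]; exact hsm g0 g1 i) h0 h1
    (by rw [← hline ζ1]; exact d1) (by rw [← hline ζ1]; exact d2) hkd
  have e42 : S.w 0 * (42 * (b / S.w 0)) = 42 * b := by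
    field_simp
  have e13 : S.w 0 * (13 * (b / S.w 0)) = 13 * b := by
    field_simp
  constructor
  · intro ζ g0 g1
    unfold gr
    rw [dt_cv, abs_mul, abs_of_pos hw0, ← e42]
    refine mul_le_mul_of_nonneg_left ?_ hw0.le
    have := key.1 ζ g0 g1
    rw [← hline ζ] at this
    exact this
  · unfold rt
    rw [dt_cv, abs_mul, abs_of_pos hw0, ← e13]
    refine mul_le_mul_of_nonneg_left ?_ hw0.le
    exact pair_rot N le_rfl (rp S.e S.w z0 ρ T T' ζ1) (hPb ζ1 h0 h1) (fun i => hsm h0 h1 i) h0 h1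
      d1 d2 hkd

/-- **(4)** the rotation of the gradient against an arbitrary vector -/
theorem rt_le (hr : 0 < r) (hρ : 0 < ρ) (hS : Shp S z0 ρ r) (hT : InP T S z0 ρ) (x : V3) {ζ : ℝ}
    (h0 : 0 ≤ ζ) (h1 : ζ ≤ 1) :
    |dt (rt S z0 ρ T) x| ≤ 4 * |dt (gr S z0 ρ T ζ) x| +
      4 * kapP S z0 ρ T * (|dt (S.e 1) x| / S.w 1 + |dt (S.e 2) x| / S.w 2) := by
  obtain ⟨hw0, hw, ha, hE, N, hP⟩ := basics hr hρ hS hT hT
  have P := StP.of_shN hS hw0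
  obtain ⟨l0, -, l1, -, hβ, -, -, s1, s2⟩ := N.b1_le
  obtain ⟨k1, k2, -, -, -⟩ := kap_parts (le_refl
    (kap (expP S z0 ρ T).1 (expP S z0 ρ T).2.1 (expP S z0 ρ T).2.2))
  set b0 := (expP S z0 ρ T).1 with hb0
  set b1 := (expP S z0 ρ T).2.1 with hb1
  set G := (expP S z0 ρ T).2.2 with hG
  set κ := kap b0 b1 G with hκ
  have hb : b0 0 ≠ 0 := by linarith
  have hs : 1 / 2 ≤ b0 0 + ζ * b1 0 := by nlinarith
  set y : V3 := fun k => dt (S.e k) x / S.w k with hy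
  have e1 : dt (rt S z0 ρ T) x = S.w 0 * dt b1 y := by
    unfold rt; rw [dt_cv]
  have e2 : dt (gr S z0 ρ T ζ) x = S.w 0 * dt (bz b0 b1 ζ) y := by
    unfold gr; rw [dt_cv]
  rw [e1, e2, abs_mul, abs_mul, abs_of_pos hw0]
  have hu : |y 1| = |dt (S.e 1) x| / S.w 1 := by
    rw [hy]; simp only; rw [abs_div, abs_of_pos (P.pos 1)]
  have hv : |y 2| = |dt (S.e 2) x| / S.w 2 := by
    rw [hy]; simp only; rw [abs_div, abs_of_pos (P.pos 2)]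
  rw [← hu, ← hv]
  have hκ0 : 0 ≤ κ := kap_nonneg _ _ _
  have t : |shB1 b0 b1 1 * y 1 + shB1 b0 b1 2 * y 2| ≤ κ * (|y 1| + |y 2|) := by
    have := Arc880.abs_add2 (abs_mul2 k1 (le_refl |y 1|)) (abs_mul2 k2 (le_refl |y 2|))
    linarith
  set Y := y 0 + b0 1 / b0 0 * y 1 + b0 2 / b0 0 * y 2 with hYd
  have f1 := bz_tan (b1 := b1) (G := G) hb ζ y
  rw [← hYd] at f1
  have f2 := b1_tan (b1 := b1) hb y
  rw [← hYd] at f2
  have hz : |ζ| ≤ 1 := abs_le.2 ⟨by linarith, h1⟩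
  have hY : |Y| ≤ 2 * |dt (bz b0 b1 ζ) y| + 2 * (κ * (|y 1| + |y 2|)) := by
    have e : (b0 0 + ζ * b1 0) * Y = dt (bz b0 b1 ζ) y -
        ζ * (shB1 b0 b1 1 * y 1 + shB1 b0 b1 2 * y 2) := by rw [f1]; ring
    have h2 : |(b0 0 + ζ * b1 0) * Y| ≤ |dt (bz b0 b1 ζ) y| + 1 * (κ * (|y 1| + |y 2|)) := by
      rw [e]; exact Arc880.abs_sub2 le_rfl (abs_mul2 hz t)
    rw [abs_mul, abs_of_pos (by linarith : 0 < b0 0 + ζ * b1 0)] at h2
    have h := mul_le_mul_of_nonneg_right hs (abs_nonneg Y)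
    linarith
  have h3 : |dt b1 y| ≤ 4 * |dt (bz b0 b1 ζ) y| + 4 * (κ * (|y 1| + |y 2|)) := by
    rw [f2]
    have a1 : |b1 0 * Y| ≤ 3 / 2 * (2 * |dt (bz b0 b1 ζ) y| + 2 * (κ * (|y 1| + |y 2|))) :=
      abs_mul2 hβ hY
    have := Arc880.abs_add2 a1 t
    have h4 := abs_nonneg (dt (bz b0 b1 ζ) y)
    linarith
  have h5 := mul_le_mul_of_nonneg_left h3 hw0.le
  unfold kapP
  rw [← hb0, ← hb1, ← hG, ← hκ]
  linarith

/-- components of the gradient in the frame of the plank -/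
theorem gr0 (hr : 0 < r) (hρ : 0 < ρ) (hS : Shp S z0 ρ r) (hT : InP T S z0 ρ) {ζ : ℝ}
    (h0 : 0 ≤ ζ) (h1 : ζ ≤ 1) :
    1 / 2 ≤ dt (S.e 0) (gr S z0 ρ T ζ) ∧ dt (S.e 0) (gr S z0 ρ T ζ) ≤ 2 ∧
      |dt (S.e 1) (gr S z0 ρ T ζ)| * S.w 1 ≤ S.w 0 ∧
      |dt (S.e 2) (gr S z0 ρ T ζ)| * S.w 2 ≤ S.w 0 := by
  obtain ⟨hw0, hw, ha, hE, N, hP⟩ := basics hr hρ hS hT hT
  have P := StP.of_shN hS hw0
  set b0 := (expP S z0 ρ T).1 with hb0
  set b1 := (expP S z0 ρ T).2.1 with hb1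
  have a0 : |(0 : ℝ)| ≤ 1 := by norm_num
  have hst := N.st ζ h0 h1 0 0 0 a0 a0 a0
  have ek : ∀ k, dt (S.e k) (gr S z0 ρ T ζ) = S.w 0 / S.w k * bz b0 b1 ζ k := by
    intro k
    have c : dt (S.e k) (gr S z0 ρ T ζ) = dt (gr S z0 ρ T ζ) (S.e k) := by
      simp only [dt]; ring
    rw [c]
    unfold gr
    rw [dt_cv]
    have o : ∀ i j, dt (S.e i) (S.e j) = if i = j then 1 else 0 := hS.ortho
    simp only [dt] at o ⊢
    have o0 := o 0 k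
    have o1 := o 1 k
    have o2 := o 2 k
    rw [o0, o1, o2]
    have h0' := hw 0
    fin_cases k <;> simp <;> ring
  have hb1' : ∀ k : Fin 3, |b0 k| ≤ 1 → |b0 k + b1 k| ≤ 1 → |bz b0 b1 ζ k| ≤ 1 := by
    intro k g1 g2
    have e : bz b0 b1 ζ k = (1 - ζ) * b0 k + ζ * (b0 k + b1 k) := by simp only [bz]; ring
    rw [e]
    rw [abs_le] at g1 g2 ⊢
    constructor <;> nlinarith [g1.1, g1.2, g2.1, g2.2]
  refine ⟨?_, ?_, ?_, ?_⟩
  · rw [ek 0, div_self (hw 0), one_mul]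
    simp only [bz]
    linarith [hst.1]
  · rw [ek 0, div_self (hw 0), one_mul]
    simp only [bz]
    linarith [hst.2]
  · rw [ek 1, abs_mul, abs_div, abs_of_pos hw0, abs_of_pos (P.pos 1)]
    have h := hb1' 1 N.b01 N.b11
    have e : S.w 0 / S.w 1 * |bz b0 b1 ζ 1| * S.w 1 = S.w 0 * |bz b0 b1 ζ 1| := by
      have := hw 1
      field_simp
    rw [e]
    nlinarith
  · rw [ek 2, abs_mul, abs_div, abs_of_pos hw0, abs_of_pos (P.pos 2)]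
    have h := hb1' 2 N.b02 N.b12
    have e : S.w 0 / S.w 2 * |bz b0 b1 ζ 2| * S.w 2 = S.w 0 * |bz b0 b1 ζ 2| := by
      have := hw 2
      field_simp
    rw [e]
    nlinarith

/-- **(2)** the rotations along a pair of lines -/
theorem pair_sum (hr : 0 < r) (hρ : 0 < ρ) (hS : Shp S z0 ρ r) (hT : InP T S z0 ρ)
    (hT' : InP T' S z0 ρ) :
    |dt (rt S z0 ρ T) (Dv ρ T T') + dt (rt S z0 ρ T') (Dv ρ T T')| ≤ 32 * S.a := by
  obtain ⟨hw0, hw, ha, hE, N, hP⟩ := basics hr hρ hS hT hT'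
  have hline := rp_line S.e S.w z0 ρ T T'
  set b0 := (expP S z0 ρ T).1 with hb0
  set b1 := (expP S z0 ρ T).2.1 with hb1
  set G := (expP S z0 ρ T).2.2 with hG
  set V := vel S.e S.w ρ T T' with hV
  set X0 := rp S.e S.w z0 ρ T T' 0 with hX0
  have P0 := hP 0 le_rfl zero_le_one
  have Ph := hP (1 / 2) (by norm_num) (by norm_num)
  have P1 := hP 1 zero_le_one le_rfl
  rw [hline] at P0 Ph P1
  simp only [Fq, dt, bz, QF.ev, Pi.add_apply, Pi.smul_apply, smul_eq_mul] at P0 Ph P1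
  set A := (b0 0 * X0 0 + b0 1 * X0 1 + b0 2 * X0 2) + G.ev X0 with hA
  set B := (b1 0 * X0 0 + b1 1 * X0 1 + b1 2 * X0 2) + (b0 0 * V 0 + b0 1 * V 1 + b0 2 * V 2) +
    (2 * G.yy * (X0 0 * V 0) + G.yu * (X0 0 * V 1 + V 0 * X0 1) +
      G.yv * (X0 0 * V 2 + V 0 * X0 2) + 2 * G.uu * (X0 1 * V 1) +
      G.uv * (X0 1 * V 2 + V 1 * X0 2) + 2 * G.vv * (X0 2 * V 2)) with hB
  have qc := quad_co (A := A) (B := B) (C := dt b1 V + G.ev V) (al := 2 * S.a / S.w 0)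
    (by
      refine le_trans (le_of_eq ?_) P0
      congr 1
      simp only [hA, QF.ev]; ring)
    (by
      refine le_trans (le_of_eq ?_) Ph
      congr 1
      simp only [hA, hB, QF.ev, dt]; ring)
    (by
      refine le_trans (le_of_eq ?_) P1
      congr 1
      simp only [hA, hB, QF.ev, dt]; ring)
  have hE' := expP_eq hw0.ne' (exp_shift hS.ortho hw hE T')
  have e1 : dt (rt S z0 ρ T) (Dv ρ T T') = S.w 0 * dt b1 V := by
    unfold rt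
    rw [dt_cv, hV, vel_eq]
  have e2 : dt (rt S z0 ρ T') (Dv ρ T T') = S.w 0 * dt (b1 + pol G V) V := by
    unfold rt
    rw [dt_cv, hE', hV, vel_eq]
  have e3 : dt (b1 + pol G V) V = dt b1 V + 2 * G.ev V := by
    simp only [dt, pol, QF.ev, Pi.add_apply, Matrix.cons_val]
    ring
  rw [e1, e2, e3]
  have e4 : S.w 0 * dt b1 V + S.w 0 * (dt b1 V + 2 * G.ev V) =
      S.w 0 * (2 * (dt b1 V + G.ev V)) := by ring
  rw [e4, abs_mul, abs_of_pos hw0, abs_mul]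
  have e5 : S.w 0 * (2 * (8 * (2 * S.a / S.w 0))) = 32 * S.a := by
    field_simp
    ring
  rw [← e5]
  have t2 : |(2 : ℝ)| = 2 := by norm_num
  rw [t2]
  have := qc.1
  gcongr

/-- **(3)** the quadratic relation at one height -/
theorem pair_quad (hr : 0 < r) (hρ : 0 < ρ) (hS : Shp S z0 ρ r) (hT : InP T S z0 ρ)
    (hT' : InP T' S z0 ρ)
    (hX : ∀ ζ : ℝ, 0 ≤ ζ → ζ ≤ 1 → ∀ k, |dt (S.e k) (X z0 ρ T T' ζ)| ≤ S.w k / 1000)
    {ζ : ℝ} (h0 : 0 ≤ ζ) (h1 : ζ ≤ 1) :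
    |dt (gr S z0 ρ T ζ) (X z0 ρ T T' ζ)| ≤ 4 * S.a + 300 * kapP S z0 ρ T *
      ((dt (S.e 1) (X z0 ρ T T' ζ) / S.w 1) ^ 2 + (dt (S.e 2) (X z0 ρ T T' ζ) / S.w 2) ^ 2) := by
  obtain ⟨hw0, hw, ha, hE, N, hP⟩ := basics hr hρ hS hT hT'
  have P := StP.of_shN hS hw0
  have key := pair_q N (rp S.e S.w z0 ρ T T' ζ) (hP ζ h0 h1)
    (fun i => rp_small (S := S) P.pos hX h0 h1 i) h0 h1
  unfold gr
  rw [dt_cv, abs_mul, abs_of_pos hw0]
  have e : S.w 0 * (2 * (2 * S.a / S.w 0) +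
      300 * kap (expP S z0 ρ T).1 (expP S z0 ρ T).2.1 (expP S z0 ρ T).2.2 *
        (rp S.e S.w z0 ρ T T' ζ 1 ^ 2 + rp S.e S.w z0 ρ T T' ζ 2 ^ 2)) =
      4 * S.a + 300 * kapP S z0 ρ T *
      ((dt (S.e 1) (X z0 ρ T T' ζ) / S.w 1) ^ 2 + (dt (S.e 2) (X z0 ρ T T' ζ) / S.w 2) ^ 2) := by
    rw [rp_eq]
    unfold kapP
    field_simp
    ring
  rw [← e]
  exact mul_le_mul_of_nonneg_left key hw0.le

end

end Crest.Agent.R136.Ptw933
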