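import Crest.Agent.R136.Tw8_46
import Crest.Agent.R136.Pl2C_860

/-!
# R136 (S0187), PLAN 2: the long cell / sub-cell adapter over 860's `Two7` (helper46)

* `kp7` : curvature extents over the two cells are comparable;
* `typU7`, `typV7`, `typP7` : typical facts over the long cell give the ones over the sub-cell;
* `close7` : **closeness both ways over the sub-cell at `(2W)^C a` gives closeness both ways over the
  long cell at `(2W)^(3C+101) a`** (facts `TypU` and curvature over the sub-cell).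
-/

set_option autoImplicit false
set_option linter.unusedVariables false

open Finset

namespace Crest.Agent.R136.Tw746

open Crest.Agent.R136.Sh605
open Crest.Agent.R136.Tl102
open Crest.Agent.R136.Deep51 (CloseC)
open Crest.Agent.R136.K4 (Plk4)
open Crest.Agent.R136.Tlt51 (Shp InP)
open Crest.Agent.R136.KapP335
open Crest.Agent.R136.Pl2 (kp rot2 TypU TypP Two7)
open Crest.Agent.R136.Pl2W102 (Near Two1)

theorem angC_symm (S S' : Plk4) : angC S S' = angC S' S := by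
  unfold angC
  rw [max_comm, dt_comm (S.e 0) (S'.e 1), dt_comm (S.e 2) (S'.e 1), dt_comm (S.e 1) (S'.e 0),
    dt_comm (S.e 1) (S'.e 2)]

theorem num1 {W C : ℝ} (hW : 1 ≤ W) :
    10 ^ 35 * ((2 * W) ^ C) ^ 9 * W ^ 8 ≤ (2 * W) ^ (9 * C + 117) := by
  have hW0 : 0 < 2 * W := by linarith
  have e1 : (2 * W) ^ (9 * C + 117) = ((2 * W) ^ C) ^ 9 * (2 * W) ^ 117 := by
    rw [Real.rpow_add hW0]
    congr 1
    · rw [show 9 * C = C * ((9 : ℕ) : ℝ) by push_cast; ring, Real.rpow_mul_natCast hW0.le]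
    · rw [show (117 : ℝ) = ((117 : ℕ) : ℝ) by norm_num, Real.rpow_natCast]
  rw [e1]
  have e2 : 10 ^ 35 * ((2 * W) ^ C) ^ 9 * W ^ 8 =
      ((2 * W) ^ C) ^ 9 * (10 ^ 35 * W ^ 8) := by ring
  rw [e2]
  refine mul_le_mul_of_nonneg_left ?_ (by positivity)
  have e3 : (2 * W) ^ 117 = (2 ^ 117 * W ^ 109) * W ^ 8 := by
    rw [mul_pow]; ring
  rw [e3]
  refine mul_le_mul_of_nonneg_right ?_ (by positivity)
  have h1 : (1 : ℝ) ≤ W ^ 109 := one_le_pow₀ hW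
  calc (10 ^ 35 : ℝ) ≤ 2 ^ 117 := by norm_num
    _ ≤ 2 ^ 117 * W ^ 109 := le_mul_of_one_le_right (by positivity) h1

theorem num2 {W C : ℝ} (hW : 1 ≤ W) :
    10 ^ 26 * ((2 * W) ^ C) ^ 3 * W ^ 8 / (1 / 128) ^ 2 ≤ (2 * W) ^ (3 * C + 101) := by
  have hW0 : 0 < 2 * W := by linarith
  have e1 : (2 * W) ^ (3 * C + 101) = ((2 * W) ^ C) ^ 3 * (2 * W) ^ 101 := by
    rw [Real.rpow_add hW0]
    congr 1
    · rw [show 3 * C = C * ((3 : ℕ) : ℝ) by push_cast; ring, Real.rpow_mul_natCast hW0.le]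
    · rw [show (101 : ℝ) = ((101 : ℕ) : ℝ) by norm_num, Real.rpow_natCast]
  rw [e1]
  have e2 : 10 ^ 26 * ((2 * W) ^ C) ^ 3 * W ^ 8 / (1 / 128) ^ 2 =
      ((2 * W) ^ C) ^ 3 * (10 ^ 26 * 128 ^ 2 * W ^ 8) := by ring
  rw [e2]
  refine mul_le_mul_of_nonneg_left ?_ (by positivity)
  have e3 : (2 * W) ^ 101 = (2 ^ 101 * W ^ 93) * W ^ 8 := by
    rw [mul_pow]; ring
  rw [e3]
  refine mul_le_mul_of_nonneg_right ?_ (by positivity)
  have h1 : (1 : ℝ) ≤ W ^ 93 := one_le_pow₀ hW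
  calc (10 ^ 26 * 128 ^ 2 : ℝ) ≤ 2 ^ 101 := by norm_num
    _ ≤ 2 ^ 101 * W ^ 93 := le_mul_of_one_le_right (by positivity) h1

section

variable {qm qp : Fin 3 → ℝ} {L : ℕ → Ln4} {P : Finset ℕ} {cu cv : ℕ → ℕ} {Uf Vf : ℕ → Plk4}
  {W M a w1 w2 z0 ρ zL ρL r : ℝ}

theorem t7 (h : Two7 qm qp L P cu cv Uf Vf W M a w1 w2 z0 ρ zL ρL r) :
    1 / 128 * ρL ≤ ρ := by
  have := h.short
  linarith

/-- typical facts of the first sheet over the sub-cell -/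
theorem typU7 (h : Two7 qm qp L P cu cv Uf Vf W M a w1 w2 z0 ρ zL ρL r) {t : ℕ} (ht : t ∈ P)
    {K K1 W1 W' : ℝ} (hW1 : 0 < W1) (hW : 10 ^ 10 * W1 ≤ W')
    (tU : TypU K1 W1 a (Uf (cu t)) (L t) zL ρL) : TypU K W' a (Uf (cu t)) (L t) z0 ρ := by
  refine typU_sub h.to1.r0 h.to1.ρ0 h.lo h.hi (t := 1 / 128) (by norm_num) (t7 h)
    (h.shU t ht) (h.inU t ht) h.to1.a0 hW1 (le_trans ?_ hW) tU
  refine mul_le_mul_of_nonneg_right ?_ hW1.le
  norm_num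

/-- typical facts of the second sheet over the sub-cell -/
theorem typV7 (h : Two7 qm qp L P cu cv Uf Vf W M a w1 w2 z0 ρ zL ρL r) {t : ℕ} (ht : t ∈ P)
    {K K1 W1 W' : ℝ} (hW1 : 0 < W1) (hW : 10 ^ 10 * W1 ≤ W')
    (tV : TypU K1 W1 a (Vf (cv t)) (L t) zL ρL) : TypU K W' a (Vf (cv t)) (L t) z0 ρ := by
  refine typU_sub h.to1.r0 h.to1.ρ0 h.lo h.hi (t := 1 / 128) (by norm_num) (t7 h)
    (h.shV t ht) (h.inV t ht) h.to1.a0 hW1 (le_trans ?_ hW) tV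
  refine mul_le_mul_of_nonneg_right ?_ hW1.le
  norm_num

/-- extents over the sub-cell and over the long cell -/
theorem kp7 (h : Two7 qm qp L P cu cv Uf Vf W M a w1 w2 z0 ρ zL ρL r) {t : ℕ} (ht : t ∈ P) :
    (kp (Uf (cu t)) z0 ρ (L t) ≤ 40 * kp (Uf (cu t)) zL ρL (L t) ∧
      kp (Uf (cu t)) zL ρL (L t) ≤ 20480 * kp (Uf (cu t)) z0 ρ (L t)) ∧
    (kp (Vf (cv t)) z0 ρ (L t) ≤ 40 * kp (Vf (cv t)) zL ρL (L t) ∧
      kp (Vf (cv t)) zL ρL (L t) ≤ 20480 * kp (Vf (cv t)) z0 ρ (L t)) := by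
  have g1 := kp_le h.to1.r0 h.to1.ρ0 h.lo h.hi (h.shU t ht) (h.inU t ht)
  have g2 := kp_ge' (t := 1 / 128) h.to1.r0 h.to1.ρ0 h.lo h.hi (t7 h) (h.shU t ht) (h.inU t ht)
  have g3 := kp_le h.to1.r0 h.to1.ρ0 h.lo h.hi (h.shV t ht) (h.inV t ht)
  have g4 := kp_ge' (t := 1 / 128) h.to1.r0 h.to1.ρ0 h.lo h.hi (t7 h) (h.shV t ht) (h.inV t ht)
  exact ⟨⟨g1, by linarith⟩, g3, by linarith⟩

/-- **`TypP` over the sub-cell** for one of the two orders of the pair -/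
theorem typP7 (h : Two7 qm qp L P cu cv Uf Vf W M a w1 w2 z0 ρ zL ρL r) {t : ℕ} (ht : t ∈ P)
    {K K1 K2 W1 W' : ℝ} (hW1 : 0 < W1) (hW : 10 ^ 10 * W1 ≤ W')
    (tU : TypU K1 W1 a (Uf (cu t)) (L t) zL ρL) (tV : TypU K2 W1 a (Vf (cv t)) (L t) zL ρL)
    (hbig : 20480 * K * a ≤ max (kp (Uf (cu t)) zL ρL (L t)) (kp (Vf (cv t)) zL ρL (L t))) :
    TypP K W' a (Uf (cu t)) (Vf (cv t)) (L t) z0 ρ ∨
      TypP K W' a (Vf (cv t)) (Uf (cu t)) (L t) z0 ρ := by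
  have sU := typU7 (K := K) h ht hW1 hW tU
  have sV := typV7 (K := K) h ht hW1 hW tV
  obtain ⟨⟨-, g2⟩, -, g4⟩ := kp7 h ht
  have hb : K * a ≤ max (kp (Uf (cu t)) z0 ρ (L t)) (kp (Vf (cv t)) z0 ρ (L t)) := by
    rcases le_max_iff.1 hbig with h6 | h6
    · refine le_trans ?_ (le_max_left _ _)
      linarith
    · refine le_trans ?_ (le_max_right _ _)
      linarith
  rcases le_total (kp (Vf (cv t)) z0 ρ (L t)) (kp (Uf (cu t)) z0 ρ (L t)) with h1 | h1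
  · left
    exact ⟨by rwa [max_eq_left h1] at hb, h1, sU, sV⟩
  · right
    exact ⟨by rwa [max_eq_right h1] at hb, h1, sV, sU⟩

/-- **closeness both ways over the sub-cell gives closeness both ways over the long cell** (facts
over the sub-cell; dims up to `W`, facts `TypU` at `W'`) -/
theorem close7 (h : Two7 qm qp L P cu cv Uf Vf W M a w1 w2 z0 ρ zL ρL r) {t : ℕ} (ht : t ∈ P)
    {K K' C : ℝ} (hC : 1 ≤ C) (hang : angC (Uf (cu t)) (Vf (cv t)) * w1 ≤ (2 * W) ^ C * w2)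
    (tU : TypU K W a (Uf (cu t)) (L t) z0 ρ) (tV : TypU K' W a (Vf (cv t)) (L t) z0 ρ)
    (c1 : CloseC (Uf (cu t)).e (Uf (cu t)).w (Uf (cu t)).q (Uf (cu t)).a (Vf (cv t)).q
      ((2 * W) ^ C * a) (L t) z0 ρ)
    (c2 : CloseC (Vf (cv t)).e (Vf (cv t)).w (Vf (cv t)).q (Vf (cv t)).a (Uf (cu t)).q
      ((2 * W) ^ C * a) (L t) z0 ρ)
    (hbig : (2 * W) ^ (9 * C + 117) * a ≤
      max (kp (Uf (cu t)) z0 ρ (L t)) (kp (Vf (cv t)) z0 ρ (L t))) :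
    CloseC (Uf (cu t)).e (Uf (cu t)).w (Uf (cu t)).q (Uf (cu t)).a (Vf (cv t)).q
        ((2 * W) ^ (3 * C + 101) * a) (L t) zL ρL ∧
      CloseC (Vf (cv t)).e (Vf (cv t)).w (Vf (cv t)).q (Vf (cv t)).a (Uf (cu t)).q
        ((2 * W) ^ (3 * C + 101) * a) (L t) zL ρL := by
  have hW := h.to1.W1
  have hW0 : 0 < 2 * W := by linarith
  have ha := h.to1.a0
  have hB1 : 2 * W ≤ (2 * W) ^ C := by
    calc 2 * W = (2 * W) ^ (1 : ℝ) := (Real.rpow_one _).symm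
      _ ≤ (2 * W) ^ C := Real.rpow_le_rpow_of_exponent_le (by linarith) hC
  have n1 := mul_le_mul_of_nonneg_right (num1 (C := C) hW) ha.le
  have n2 := mul_le_mul_of_nonneg_right (num2 (C := C) hW) ha.le
  set B := (2 * W) ^ C with hBd
  have hWB : W ≤ B := by linarith
  have hB : 1 ≤ B := by linarith
  have pu2 : 0 < (Uf (cu t)).w 2 := (w0_pos h.to1.r0 (h.shU t ht)).trans_le (h.shU t ht).w0_le
  have pu1 : 0 < (Uf (cu t)).w 1 := pu2.trans_le (h.shU t ht).w_le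
  have pv2 : 0 < (Vf (cv t)).w 2 := (w0_pos h.to1.r0 (h.shV t ht)).trans_le (h.shV t ht).w0_le
  have pv1 : 0 < (Vf (cv t)).w 1 := pv2.trans_le (h.shV t ht).w_le
  have pua := a_pos h.to1.r0 (h.shU t ht)
  have pva := a_pos h.to1.r0 (h.shV t ht)
  have nm : ∀ x y : ℝ, 0 ≤ x → 0 ≤ y → Near W x y → Near B x y := fun x y hx hy hn =>
    ⟨hn.1.trans (mul_le_mul_of_nonneg_right hWB hy), hn.2.trans (mul_le_mul_of_nonneg_right hWB hx)⟩
  obtain ⟨d1, d2, d3⟩ := h.to1.dimU t ht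
  obtain ⟨d1', d2', d3'⟩ := h.to1.dimV t ht
  have dU : Near B a (Uf (cu t)).a ∧ Near B w1 ((Uf (cu t)).w 1) ∧ Near B w2 ((Uf (cu t)).w 2) :=
    ⟨nm _ _ ha.le pua.le d1, nm _ _ h.to1.w10.le pu1.le d2, nm _ _ h.to1.w20.le pu2.le d3⟩
  have dV : Near B a (Vf (cv t)).a ∧ Near B w1 ((Vf (cv t)).w 1) ∧ Near B w2 ((Vf (cv t)).w 2) :=
    ⟨nm _ _ ha.le pva.le d1', nm _ _ h.to1.w10.le pv1.le d2', nm _ _ h.to1.w20.le pv2.le d3'⟩
  rcases le_max_iff.1 (n1.trans hbig) with h6 | h6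
  · obtain ⟨k1, k2⟩ := close_nearS h.to1.r0 h.to1.ρ0 h.lo h.hi (t := 1 / 128) (by norm_num) (t7 h)
      (h.shU t ht) (h.inU t ht) (h.shV t ht) (h.inV t ht) ha hW hB dU dV hang tU tV c1 c2 h6
    exact ⟨closeC_sub k1 n2 le_rfl le_rfl, closeC_sub k2 n2 le_rfl le_rfl⟩
  · rw [angC_symm] at hang
    obtain ⟨k1, k2⟩ := close_nearS h.to1.r0 h.to1.ρ0 h.lo h.hi (t := 1 / 128) (by norm_num) (t7 h)
      (h.shV t ht) (h.inV t ht) (h.shU t ht) (h.inU t ht) ha hW hB dV dU hang tV tU c2 c1 h6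
    exact ⟨closeC_sub k2 n2 le_rfl le_rfl, closeC_sub k1 n2 le_rfl le_rfl⟩

/-- the same from the output of the alignment theorem over `TypP` -/
theorem close7P (h : Two7 qm qp L P cu cv Uf Vf W M a w1 w2 z0 ρ zL ρL r) {t : ℕ} (ht : t ∈ P)
    {K C : ℝ} (hC : 1 ≤ C) (hK : (2 * W) ^ (9 * C + 117) ≤ K)
    (hang : angC (Uf (cu t)) (Vf (cv t)) * w1 ≤ (2 * W) ^ C * w2)
    (hP : TypP K W a (Uf (cu t)) (Vf (cv t)) (L t) z0 ρ)
    (c : CloseC (Uf (cu t)).e (Uf (cu t)).w (Uf (cu t)).q (Uf (cu t)).a (Vf (cv t)).q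
        ((2 * W) ^ C * a) (L t) z0 ρ ∧
      CloseC (Vf (cv t)).e (Vf (cv t)).w (Vf (cv t)).q (Vf (cv t)).a (Uf (cu t)).q
        ((2 * W) ^ C * a) (L t) z0 ρ) :
    CloseC (Uf (cu t)).e (Uf (cu t)).w (Uf (cu t)).q (Uf (cu t)).a (Vf (cv t)).q
        ((2 * W) ^ (3 * C + 101) * a) (L t) zL ρL ∧
      CloseC (Vf (cv t)).e (Vf (cv t)).w (Vf (cv t)).q (Vf (cv t)).a (Uf (cu t)).q
        ((2 * W) ^ (3 * C + 101) * a) (L t) zL ρL :=
  close7 h ht hC hang hP.typ hP.typ' c.1 c.2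
    (((mul_le_mul_of_nonneg_right hK h.to1.a0.le).trans hP.big).trans (le_max_left _ _))

end

end Crest.Agent.R136.Tw746
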