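import Crest.Agent.R136.Plw2_102
import Crest.Agent.R136.Pl2D_860
import Crest.Agent.R136.Bm6_667
import Crest.Agent.R136.Tw9_46

/-!
# R136 (S0187), PLAN 2: finite leaves of the wrapper (helper46)

* `stab_Al1 : Stab Al1`; `stab_QT`, `stab_QA`;
* `ft_BTR`, `ft_ALR` : the base tilt and the alignment theorem in the common form `FT`;
* `end_close` : closeness over the short cell gives closeness over the long cell, for marks.
-/

set_option autoImplicit false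
set_option linter.unusedVariables false

open Finset

namespace Crest.Agent.R136.Pwa46

open Crest.Agent.R136.Sh605
open Crest.Agent.R136.Tl102
open Crest.Agent.R136.Deep51 (CloseC)
open Crest.Agent.R136.K4 (Plk4)
open Crest.Agent.R136.Top484
open Crest.Agent.R136.Tlt51 (Shp InP mk4 zx rh)
open Crest.Agent.R136.Pl2 (TypU TypP kp FH FL Rel BTR ALR Al1)
open Crest.Agent.R136.Pl2W102

/-- no hypothesis -/
def QT : PropE := fun _ _ _ _ _ _ _ _ _ => True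

/-- conclusion of the alignment theorem -/
def QA : PropE := fun E S S' T a w1 w2 z0 ρ =>
  CloseC S.e S.w S.q S.a S'.q (E * a) T z0 ρ ∧ CloseC S'.e S'.w S'.q S'.a S.q (E * a) T z0 ρ

theorem closeC_mono {e : Fin 3 → V3} {w : V3} {q q' : ℝ → V3 → ℝ} {b E E' : ℝ} {T : Ln4}
    {z0 ρ : ℝ} (h : CloseC e w q b q' E T z0 ρ) (hE : E ≤ E') : CloseC e w q b q' E' T z0 ρ :=
  fun z h0 h1 x hx hq => (h z h0 h1 x hx hq).trans hE

theorem stab_QT : Stab QT := by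
  intro E E' W S S' T a w1 w2 a' w1' w2' z0 ρ r _ _ _ _ _ _ _ _ _ _ _ _ _ _ _ _
  exact trivial

theorem stab_QA : Stab QA := by
  intro E E' W S S' T a w1 w2 a' w1' w2' z0 ρ r hW hE hE' ha _ _ ha' _ _ na _ _ _ _ _ h
  have h1 : E * a ≤ E' * a' := by
    have hW2 : W ≤ W ^ 2 := by nlinarith
    calc E * a ≤ E * (W * a') := mul_le_mul_of_nonneg_left na.1 hE.le
      _ = E * W * a' := by ring
      _ ≤ E * W ^ 2 * a' :=
          mul_le_mul_of_nonneg_right (mul_le_mul_of_nonneg_left hW2 hE.le) ha'.le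
      _ ≤ E' * a' := mul_le_mul_of_nonneg_right hE' ha'.le
  exact ⟨closeC_mono h.1 h1, closeC_mono h.2 h1⟩

/-- the output of the base tilt theorem is stable -/
theorem stab_Al1 : Stab Al1 := by
  intro E E' W S S' T a w1 w2 a' w1' w2' z0 ρ r hW hE hE' ha hw1 hw2 ha' hw1' hw2' na n1 n2 hr
    hS hS' h
  have g0 := Tw746.w0_pos hr hS
  have s2 : 0 ≤ S.w 2 := g0.le.trans hS.w0_le
  have s1 : 0 ≤ S.w 1 := s2.trans hS.w_le
  have s2' : 0 ≤ S'.w 2 := (Tw746.w0_pos hr hS').le.trans hS'.w0_le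
  have s1' : 0 ≤ S'.w 1 := s2'.trans hS'.w_le
  obtain ⟨f, g, a1, a2, a3, a4, a5, a6, a7⟩ := h.fr
  have hW0 : 0 ≤ W := by linarith
  have hW2 : W ≤ W ^ 2 := by nlinarith
  have hEW : E * W ≤ E' := (mul_le_mul_of_nonneg_left hW2 hE.le).trans hE'
  have hEE : E ≤ E' := (le_mul_of_one_le_right hE.le hW).trans hEW
  have hkp : 0 ≤ kp S z0 ρ T := Tw746.kp_nonneg g0.le
  have k1 : E * kp S z0 ρ T ≤ E' * kp S z0 ρ T := mul_le_mul_of_nonneg_right hEE hkp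
  have k2 : E * W * kp S z0 ρ T ≤ E' * kp S z0 ρ T := mul_le_mul_of_nonneg_right hEW hkp
  have key : ∀ {x v v' : ℝ}, 0 ≤ x → v' ≤ W * v → x * v ≤ E * kp S z0 ρ T →
      x * v' ≤ E' * kp S z0 ρ T := by
    intro x v v' hx hv h1
    calc x * v' ≤ x * (W * v) := mul_le_mul_of_nonneg_left hv hx
      _ = W * (x * v) := by ring
      _ ≤ W * (E * kp S z0 ρ T) := mul_le_mul_of_nonneg_left h1 hW0
      _ = E * W * kp S z0 ρ T := by ring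
      _ ≤ _ := k2
  have ha0 : 0 ≤ angC S S' := angC_nonneg S S'
  refine ⟨?_, closeC_mono h.close k1, f, g,
    Bl5667.FH.mono a1 hE.le hEE hkp le_rfl s1 s2, Bl5667.FL.mono a2 hEE hE hkp,
    Bl5667.FH.mono a3 hE.le hEE hkp le_rfl s1' s2', key (abs_nonneg _) n1.2 a4,
    key (abs_nonneg _) n2.2 a5, key (abs_nonneg _) n1.2 a6, key (abs_nonneg _) n2.2 a7⟩
  calc angC S S' * w1' ≤ angC S S' * (W * w1) := mul_le_mul_of_nonneg_left n1.2 ha0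
    _ = W * (angC S S' * w1) := by ring
    _ ≤ W * (E * w2) := mul_le_mul_of_nonneg_left h.ang hW0
    _ = E * W * w2 := by ring
    _ ≤ E * W * (W * w2') := mul_le_mul_of_nonneg_left n2.1 (mul_nonneg hE.le hW0)
    _ = E * W ^ 2 * w2' := by ring
    _ ≤ E' * w2' := mul_le_mul_of_nonneg_right hE' hw2'.le

/-- **the base tilt theorem** in the common form -/
theorem ft_BTR {R : Rel} (h : BTR R) {η : ℝ} {qm qp : Fin 3 → ℝ} (hq : Ex2 η qm qp) :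
    ∃ K0 C : ℝ, 0 ≤ K0 ∧ 0 ≤ C ∧ FT QT R qm qp K0 C := by
  obtain ⟨K0, C, hK0, hC, h⟩ := h η qm qp hq
  exact ⟨K0, C, hK0, hC, fun L P cu cv Uf Vf W M a w1 w2 z0 ρ zL ρL r h1 _ h2 h3 _ =>
    h L P cu cv Uf Vf W M a w1 w2 z0 ρ r h1.to1 h2 h3⟩

/-- **the alignment theorem** in the common form -/
theorem ft_ALR {R : Rel} (h : ALR R) : ∃ η : ℝ, 0 < η ∧ ∀ qm qp : Fin 3 → ℝ, Ex2 η qm qp →
    ∃ K0 C : ℝ, 0 ≤ K0 ∧ 0 ≤ C ∧ FT R QA qm qp K0 C := by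
  obtain ⟨η, hη, h⟩ := h
  refine ⟨η, hη, fun qm qp hq => ?_⟩
  obtain ⟨K0, C, hK0, hC, h⟩ := h qm qp hq
  refine ⟨max K0 8, C, hK0.trans (le_max_left _ _), hC,
    fun L P cu cv Uf Vf W M a w1 w2 z0 ρ zL ρL r h1 h0 h2 h3 h4 => ?_⟩
  have hW := h1.to1.W1
  have m1 : (2 * W) ^ K0 ≤ (2 * W) ^ (max K0 8) :=
    Real.rpow_le_rpow_of_exponent_le (by linarith) (le_max_left _ _)
  have m2 : (2 * W) ^ (8 : ℝ) ≤ (2 * W) ^ (max K0 8) :=
    Real.rpow_le_rpow_of_exponent_le (by linarith) (le_max_right _ _)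
  obtain ⟨s, hs⟩ := h2
  exact h L P cu cv Uf Vf W M a w1 w2 z0 ρ zL ρL r
    (Pl2.two7_of102' h1 hs m2 (h3 s hs).big h0) ⟨s, hs⟩
    (fun t ht => ⟨(mul_le_mul_of_nonneg_right m1 h1.to1.a0.le).trans (h3 t ht).big, (h3 t ht).le,
      ⟨(h3 t ht).typ.det, (h3 t ht).typ.rot⟩, ⟨(h3 t ht).typ'.det, (h3 t ht).typ'.rot⟩⟩) h4

/-- **end of the wrapper** : the marks of levels `b`, `c` of an incidence agree over the long cell
`[zL, zL + ρL]` if they agree over the short cell `[z0, z0 + ρ]`. -/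
theorem end_close {D : Dat4} {n : ℕ} {b c : ℚ} {x : ℕ × ℝ} {K K' Bw Bw' B W z0 ρ zL ρL : ℝ}
    (hr : 0 < D.r0 n) (pr : Pair D n b c Bw zL ρL x) (pr' : Pair D n c b Bw' zL ρL x)
    (hρ : 0 < ρ) (h1 : zL ≤ z0) (h1' : z0 + ρ ≤ zL + ρL) (h128 : ρL ≤ 128 * ρ) (hW : 1 ≤ W)
    (hB : 1 ≤ B) (ha : 0 < D.w 0 n b) (hw1 : 0 < D.w 1 n b) (hw2 : 0 < D.w 2 n b)
    (hd : ∀ k, Near B (D.w k n b) (D.w k n c))
    (hang : angC (mk4 D n b x) (mk4 D n c x) * D.w 1 n b ≤ B * D.w 2 n b)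
    (tU : TypU K W (D.w 0 n b) (mk4 D n b x) (D.L n x.1) z0 ρ)
    (tV : TypU K' W (D.w 0 n b) (mk4 D n c x) (D.L n x.1) z0 ρ)
    (hcl : QA B (mk4 D n b x) (mk4 D n c x) (D.L n x.1) (D.w 0 n b) (D.w 1 n b) (D.w 2 n b) z0 ρ)
    (hbig : 10 ^ 35 * B ^ 9 * W ^ 8 * D.w 0 n b ≤ kp (mk4 D n b x) z0 ρ (D.L n x.1)) :
    QA (10 ^ 31 * B ^ 3 * W ^ 8) (mk4 D n b x) (mk4 D n c x) (D.L n x.1) (D.w 0 n b) (D.w 1 n b)
      (D.w 2 n b) zL ρL := by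
  have s1 : Near B (D.w 0 n b) (D.w 0 n b) :=
    ⟨le_mul_of_one_le_left ha.le hB, le_mul_of_one_le_left ha.le hB⟩
  have s2 : Near B (D.w 1 n b) (D.w 1 n b) :=
    ⟨le_mul_of_one_le_left hw1.le hB, le_mul_of_one_le_left hw1.le hB⟩
  have s3 : Near B (D.w 2 n b) (D.w 2 n b) :=
    ⟨le_mul_of_one_le_left hw2.le hB, le_mul_of_one_le_left hw2.le hB⟩
  obtain ⟨k1, k2⟩ := Tw746.close_nearS (t := 1 / 128) hr hρ h1 h1' (by norm_num) (by linarith)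
    (shp_sub pr.shp pr.z1 pr.z1') (Tw746.inP_sub pr.inp pr.z1 pr.z1')
    (shp_sub pr.shp' pr.z2 pr.z2') (Tw746.inP_sub pr.inp' pr.z2 pr.z2') ha hW hB
    (w1 := D.w 1 n b) (w2 := D.w 2 n b) (by rw [pr.a, pr.w1, pr.w2]; exact ⟨s1, s2, s3⟩)
    (by rw [pr'.a, pr'.w1, pr'.w2]; exact ⟨hd 0, hd 1, hd 2⟩) hang tU tV hcl.1 hcl.2 hbig
  have e : 10 ^ 26 * B ^ 3 * W ^ 8 / (1 / 128) ^ 2 * D.w 0 n b ≤
      10 ^ 31 * B ^ 3 * W ^ 8 * D.w 0 n b := by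
    refine mul_le_mul_of_nonneg_right ?_ ha.le
    have e1 : 10 ^ 26 * B ^ 3 * W ^ 8 / (1 / 128) ^ 2 = (10 ^ 26 * 128 ^ 2) * (B ^ 3 * W ^ 8) := by
      ring
    have e2 : 10 ^ 31 * B ^ 3 * W ^ 8 = 10 ^ 31 * (B ^ 3 * W ^ 8) := by ring
    rw [e1, e2]
    refine mul_le_mul_of_nonneg_right (by norm_num) (by positivity)
  exact ⟨closeC_mono k1 e, closeC_mono k2 e⟩

end Crest.Agent.R136.Pwa46
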