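import Crest.Agent.R136.Adj_214
import Crest.Agent.R136.Chm2_862

/-!
# R136 (S0187), U4 (AL): the sheet in its own chart at one of its lines (helper455)

* `jet_vel`, `gm_vel`, `lf_vel` : change of the velocity of the chart;
* `jQ` : jet of the sheet function on the line, from the expansion around the line;
* `q0_of` : size of the normal derivative, tangential curvature `≤ K κ w 0`, mixed derivatives
  `≤ K w 0` of `S.q` at the point of `T`, chart of `S`.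
-/

set_option autoImplicit false

namespace Crest.Agent.R136.Q0455

open Crest.Agent.R136.Sh605 Crest.Agent.R136.Tl102
open Crest.Agent.R136.Rk601
open Crest.Agent.R136.AlD601
open Crest.Agent.R136.K4 (Plk4)
open Crest.Agent.R136.Tlt51 (Shp InP)
open Crest.Agent.R136.Deep51 (CloseC)
open Crest.Agent.R136.KapP335 (kapP expP expP_spec)
open Crest.Agent.R136.Chm862
open Crest.Agent.R136.Gbx862 (zj)

/-- change of the velocity of the chart: `ρ • V = ρ • V' + cmb f n` -/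
def vl (n : V3) : Lm where
  m00 := 1
  mR := ![-n 0, 0, 0]
  mC := fun _ => 0
  mm := ![![1, 0, 0], ![-n 1, 1, 0], ![-n 2, 0, 1]]

theorem jet_vel {q : ℝ → V3 → ℝ} {f : Fin 3 → V3} {V V' : V3} {z : ℝ} {X : V3} {ρ : ℝ} {J : Jt}
    (h : JetAt q f V z X ρ J) (hs' : J.Sym) {n : V3} (hn : ρ • V = ρ • V' + cmb f n) :
    JetAt q f V' z X ρ (pull 1 (vl n) J) := by
  intro y ζ u v
  have h1 := h (y - ζ * n 0) ζ (u - ζ * n 1) (v - ζ * n 2)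
  have e2 : X + (ρ * ζ) • V' + cmb f ![y, u, v] =
      X + (ρ * ζ) • V + cmb f ![y - ζ * n 0, u - ζ * n 1, v - ζ * n 2] := by
    funext i
    have h2 := congrFun hn i
    simp only [cmb, Pi.add_apply, Pi.smul_apply, smul_eq_mul, Matrix.cons_val] at h2 ⊢
    linear_combination (-ζ) * h2
  rw [e2, h1]
  have s10 := hs' 1 0
  have s20 := hs' 2 0
  have s21 := hs' 2 1
  simp only [pull, gr, hs, vl, dp, qf, Fin.sum_univ_three, Matrix.cons_val]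
  rw [s10, s20, s21]
  ring

theorem a0_vel (n : V3) (G : Jt) : (pull 1 (vl n) G).a0 = G.a0 := by
  simp only [pull, gr, vl, Fin.sum_univ_three]; ring

theorem h00_vel (n : V3) (G : Jt) : (pull 1 (vl n) G).h00 = G.h00 := by
  simp only [pull, hs, vl, Fin.sum_univ_three]; ring

theorem sl_vel {n : V3} {G : Jt} (h : G.a0 ≠ 0) :
    sl (pull 1 (vl n) G) 0 = n 0 + sl G 0 - n 1 * sl G 1 - n 2 * sl G 2 ∧
      sl (pull 1 (vl n) G) 1 = sl G 1 ∧ sl (pull 1 (vl n) G) 2 = sl G 2 := by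
  refine ⟨?_, ?_, ?_⟩ <;> simp only [sl, a0_vel] <;>
    simp only [pull, gr, vl, Fin.sum_univ_three, Matrix.cons_val] <;> field_simp <;> ring

theorem gm_vel {n : V3} {G : Jt} (h : G.a0 ≠ 0) (P : Jt) (i : Fin 3) :
    gm (pull 1 (vl n) G) (pull 1 (vl n) P) i = ∑ k, (vl n).mm k i * gm G P k := by
  obtain ⟨s0, s1, s2⟩ := sl_vel (n := n) h
  fin_cases i
  · simp only [gm, Fin.zero_eta, s0, h00_vel]
    simp only [pull, hs, vl, Fin.sum_univ_three, Matrix.cons_val]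
    ring
  · simp only [gm, Fin.mk_one, s1, h00_vel]
    simp only [pull, hs, vl, Fin.sum_univ_three, Matrix.cons_val]
    ring
  · simp only [gm, Fin.reduceFinMk, s2, h00_vel]
    simp only [pull, hs, vl, Fin.sum_univ_three, Matrix.cons_val]
    ring

theorem lf_vel {n : V3} {G P : Jt} (hP : P.Sym) (h : G.a0 ≠ 0) (i j : Fin 3) :
    lf (pull 1 (vl n) P) (sl (pull 1 (vl n) G)) i j =
      ∑ k, ∑ l, (vl n).mm k i * (vl n).mm l j * lf P (sl G) k l := by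
  have h' : (pull 1 (vl n) G).a0 ≠ 0 := by rw [a0_vel]; exact h
  rw [lf_pull hP one_ne_zero h h', one_mul]
  refine Finset.sum_congr rfl fun k _ => Finset.sum_congr rfl fun l _ => ?_
  have e : ∀ k i, tm 1 (vl n) G k i = (vl n).mm k i := by
    intro k i
    simp only [tm, vl]; ring
  rw [e, e]

theorem mm_le {n : V3} (hn : ∀ i, |n i| ≤ 2) (k i : Fin 3) : |(vl n).mm k i| ≤ 2 := by
  have h1 := hn 1
  have h2 := hn 2
  fin_cases k <;> fin_cases i <;> simp [vl] <;> assumption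

theorem gm_vel_le {n : V3} (hn : ∀ i, |n i| ≤ 2) {G : Jt} (h : G.a0 ≠ 0) {P : Jt} {B : ℝ}
    (hB : ∀ i, |gm G P i| ≤ B) (i : Fin 3) :
    |gm (pull 1 (vl n) G) (pull 1 (vl n) P) i| ≤ 6 * B := by
  rw [gm_vel h]
  have : ∀ k, |(vl n).mm k i * gm G P k| ≤ 2 * B := fun k => by
    rw [abs_mul]
    exact mul_le_mul (mm_le hn k i) (hB k) (abs_nonneg _) (by norm_num)
  exact (sum3_le this).trans (by linarith)

theorem lf_vel_le {n : V3} (hn : ∀ i, |n i| ≤ 2) {G P : Jt} (hP : P.Sym) (h : G.a0 ≠ 0) {B : ℝ}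
    (hB : ∀ i j, |lf P (sl G) i j| ≤ B) (i j : Fin 3) :
    |lf (pull 1 (vl n) P) (sl (pull 1 (vl n) G)) i j| ≤ 36 * B := by
  rw [lf_vel hP h]
  have : ∀ k l, |(vl n).mm k i * (vl n).mm l j * lf P (sl G) k l| ≤ 4 * B := fun k l => by
    rw [abs_mul, abs_mul]
    have h1 : |(vl n).mm k i| * |(vl n).mm l j| ≤ 2 * 2 :=
      mul_le_mul (mm_le hn k i) (mm_le hn l j) (abs_nonneg _) (by norm_num)
    calc _ ≤ 2 * 2 * B := mul_le_mul h1 (hB k l) (abs_nonneg _) (by norm_num)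
      _ = _ := by ring
  have h2 : ∀ k, |∑ l, (vl n).mm k i * (vl n).mm l j * lf P (sl G) k l| ≤ 12 * B := fun k =>
    (sum3_le (this k)).trans (by linarith)
  exact (sum3_le h2).trans (by linarith)

/-! ### the sheet function -/

/-- jet of the sheet function on the line -/
def jQ (W : ℝ) (b0 b1 : V3) (G : QF) (ζ0 k1 k2 : ℝ) : Jt where
  a0 := W * (b0 0 + ζ0 * b1 0)
  a := ![k1, W * (b0 1 + ζ0 * b1 1), W * (b0 2 + ζ0 * b1 2)]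
  h00 := 2 * (W * G.yy)
  h0 := ![W * b1 0, W * G.yu, W * G.yv]
  h := ![![2 * k2, W * b1 1, W * b1 2], ![W * b1 1, 2 * (W * G.uu), W * G.uv],
    ![W * b1 2, W * G.uv, 2 * (W * G.vv)]]

theorem jQ_sym (W : ℝ) (b0 b1 : V3) (G : QF) (ζ0 k1 k2 : ℝ) : (jQ W b0 b1 G ζ0 k1 k2).Sym := by
  intro i j
  fin_cases i <;> fin_cases j <;> rfl

section

variable {b0 b1 : V3} {G : QF}

theorem le_kap (b0 b1 : V3) (G : QF) : |shB1 b0 b1 1| ≤ kap b0 b1 G ∧ |shB1 b0 b1 2| ≤ kap b0 b1 G ∧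
    |(shG b0 G).uu| ≤ kap b0 b1 G ∧ |(shG b0 G).uv| ≤ kap b0 b1 G ∧
    |(shG b0 G).vv| ≤ kap b0 b1 G := by
  unfold kap
  refine ⟨?_, ?_, ?_, ?_, ?_⟩
  · exact (le_max_left _ _).trans (le_max_left _ _)
  · exact (le_max_right _ _).trans (le_max_left _ _)
  · exact ((le_max_left _ _).trans (le_max_left _ _)).trans (le_max_right _ _)
  · exact ((le_max_right _ _).trans (le_max_left _ _)).trans (le_max_right _ _)
  · exact (le_max_right _ _).trans (le_max_right _ _)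

theorem mid (N : NrmC b0 b1 G) {ζ0 : ℝ} (z0 : 0 ≤ ζ0) (z1 : ζ0 ≤ 1) :
    1 / 2 ≤ b0 0 + ζ0 * b1 0 ∧ b0 0 + ζ0 * b1 0 ≤ 2 := by
  have a0 : |(0 : ℝ)| ≤ 1 := by norm_num
  have h := N.st ζ0 z0 z1 0 0 0 a0 a0 a0
  norm_num at h
  exact h

/-- difference of the slopes at the height `ζ0` and at the bottom -/
theorem dlt (N : NrmC b0 b1 G) {ζ0 : ℝ} (z0 : 0 ≤ ζ0) (z1 : ζ0 ≤ 1) {k : Fin 3}
    (hk : |b1 k - b0 k / b0 0 * b1 0| ≤ kap b0 b1 G) :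
    |-(b0 k + ζ0 * b1 k) / (b0 0 + ζ0 * b1 0) + b0 k / b0 0| ≤ 2 * kap b0 b1 G := by
  obtain ⟨m1, m2⟩ := mid N z0 z1
  have hb := N.b1_le.1
  have hb0 : b0 0 ≠ 0 := by linarith
  have hm0 : b0 0 + ζ0 * b1 0 ≠ 0 := by linarith
  have e : -(b0 k + ζ0 * b1 k) / (b0 0 + ζ0 * b1 0) + b0 k / b0 0 =
      -(ζ0 * (b1 k - b0 k / b0 0 * b1 0)) / (b0 0 + ζ0 * b1 0) := by
    field_simp
    ring
  rw [e, abs_div, abs_neg, abs_mul, abs_of_nonneg z0, abs_of_pos (by linarith : 0 < b0 0 + ζ0 * b1 0),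
    div_le_iff₀ (by linarith)]
  have hκ := kap_nonneg b0 b1 G
  calc ζ0 * |b1 k - b0 k / b0 0 * b1 0| ≤ 1 * kap b0 b1 G :=
        mul_le_mul z1 hk (abs_nonneg _) zero_le_one
    _ ≤ 2 * kap b0 b1 G * (b0 0 + ζ0 * b1 0) := by nlinarith

theorem b2 {x y X Y : ℝ} (hx : |x| ≤ X) (hy : |y| ≤ Y) : |x * y| ≤ X * Y := by
  rw [abs_mul]; exact mul_le_mul hx hy (abs_nonneg _) ((abs_nonneg _).trans hx)

theorem ad {x y X Y : ℝ} (hx : |x| ≤ X) (hy : |y| ≤ Y) : |x + y| ≤ X + Y :=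
  (abs_add_le _ _).trans (add_le_add hx hy)

theorem sb {x y X Y : ℝ} (hx : |x| ≤ X) (hy : |y| ≤ Y) : |x - y| ≤ X + Y :=
  (abs_sub _ _).trans (add_le_add hx hy)

/-- slopes of the sheet on the line -/
theorem sl_jQ (N : NrmC b0 b1 G) {W ζ0 k1 k2 : ℝ} (hW : 0 < W) (z0 : 0 ≤ ζ0) (z1 : ζ0 ≤ 1)
    (h1 : |k1| ≤ 1 / 100 * (kap b0 b1 G * W)) :
    (jQ W b0 b1 G ζ0 k1 k2).a0 ≠ 0 ∧ |sl (jQ W b0 b1 G ζ0 k1 k2) 0| ≤ 1 / 50 * kap b0 b1 G ∧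
      |sl (jQ W b0 b1 G ζ0 k1 k2) 1| ≤ 2 ∧ |sl (jQ W b0 b1 G ζ0 k1 k2) 2| ≤ 2 ∧
      |sl (jQ W b0 b1 G ζ0 k1 k2) 1 + b0 1 / b0 0| ≤ 2 * kap b0 b1 G ∧
      |sl (jQ W b0 b1 G ζ0 k1 k2) 2 + b0 2 / b0 0| ≤ 2 * kap b0 b1 G := by
  obtain ⟨m1, m2⟩ := mid N z0 z1
  obtain ⟨c1, c2, -, -, -⟩ := le_kap b0 b1 G
  have hm : 0 < b0 0 + ζ0 * b1 0 := by linarith
  have hκ := kap_nonneg b0 b1 G
  have e0 : sl (jQ W b0 b1 G ζ0 k1 k2) 0 = -k1 / (W * (b0 0 + ζ0 * b1 0)) := rfl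
  have e1 : sl (jQ W b0 b1 G ζ0 k1 k2) 1 = -(b0 1 + ζ0 * b1 1) / (b0 0 + ζ0 * b1 0) := by
    show -(W * (b0 1 + ζ0 * b1 1)) / (W * (b0 0 + ζ0 * b1 0)) = _
    field_simp
  have e2 : sl (jQ W b0 b1 G ζ0 k1 k2) 2 = -(b0 2 + ζ0 * b1 2) / (b0 0 + ζ0 * b1 0) := by
    show -(W * (b0 2 + ζ0 * b1 2)) / (W * (b0 0 + ζ0 * b1 0)) = _
    field_simp
  have lat : ∀ x y : ℝ, |x| ≤ 1 → |x + y| ≤ 1 → |-(x + ζ0 * y) / (b0 0 + ζ0 * b1 0)| ≤ 2 := by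
    intro x y hx hy
    rw [abs_div, abs_neg, abs_of_pos hm, div_le_iff₀ hm]
    have : |x + ζ0 * y| ≤ 1 := by
      rw [abs_le] at hx hy ⊢
      constructor <;> nlinarith
    linarith
  refine ⟨(mul_pos hW hm).ne', ?_, ?_, ?_, ?_, ?_⟩
  · rw [e0, abs_div, abs_neg, abs_of_pos (mul_pos hW hm), div_le_iff₀ (mul_pos hW hm)]
    refine h1.trans ?_
    have : 0 ≤ kap b0 b1 G * W := mul_nonneg hκ hW.le
    nlinarith
  · rw [e1]; exact lat _ _ N.b01 N.b11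
  · rw [e2]; exact lat _ _ N.b02 N.b12
  · rw [e1]; exact dlt N z0 z1 c1
  · rw [e2]; exact dlt N z0 z1 c2

set_option maxHeartbeats 1000000 in
/-- **the sheet function in tangential directions** -/
theorem jQ_le (N : NrmC b0 b1 G) {W ζ0 k1 k2 : ℝ} (hW : 0 < W) (z0 : 0 ≤ ζ0) (z1 : ζ0 ≤ 1)
    (h1 : |k1| ≤ 1 / 100 * (kap b0 b1 G * W)) (h2 : |k2| ≤ 1 / 100 * (kap b0 b1 G * W)) :
    (∀ i j, |lf (jQ W b0 b1 G ζ0 k1 k2) (sl (jQ W b0 b1 G ζ0 k1 k2)) i j| ≤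
        38 * (kap b0 b1 G * W)) ∧
      (∀ i, |gm (jQ W b0 b1 G ζ0 k1 k2) (jQ W b0 b1 G ζ0 k1 k2) i| ≤ 5 * W) ∧
      |(jQ W b0 b1 G ζ0 k1 k2).h00| ≤ 2 * W := by
  obtain ⟨hne, t0, t1, t2, d1, d2⟩ := sl_jQ (k2 := k2) N hW z0 z1 h1
  obtain ⟨c1, c2, c3, c4, c5⟩ := le_kap b0 b1 G
  obtain ⟨-, -, -, -, g1, -, -, s1, s2⟩ := N.b1_le
  obtain ⟨n1, n2, n3, -, -, -⟩ := N.G_le
  have hκ := kap_nonneg b0 b1 G
  have hκ13 := kap_le N
  set κ := kap b0 b1 G with hκd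
  set S1 := b0 1 / b0 0 with hS1
  set S2 := b0 2 / b0 0 with hS2
  have fin0 : ∀ s : Fin 3 → ℝ, s = sl (jQ W b0 b1 G ζ0 k1 k2) →
      (∀ i j, |lf (jQ W b0 b1 G ζ0 k1 k2) s i j| ≤ 38 * (κ * W)) ∧
      (∀ i, |(jQ W b0 b1 G ζ0 k1 k2).h0 i + s i * (jQ W b0 b1 G ζ0 k1 k2).h00| ≤ 5 * W) := by
    intro s hs
    rw [← hs] at t0 t1 t2 d1 d2
    set x0 := s 0 with hx0
    set x1 := s 1 with hx1
    set x2 := s 2 with hx2
    obtain ⟨δ1, hδ1⟩ : ∃ x, x = x1 + S1 := ⟨_, rfl⟩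
    obtain ⟨δ2, hδ2⟩ : ∃ x, x = x2 + S2 := ⟨_, rfl⟩
    rw [← hδ1] at d1
    rw [← hδ2] at d2
    have y1 : x1 = δ1 - S1 := by rw [hδ1]; ring
    have y2 : x2 = δ2 - S2 := by rw [hδ2]; ring
    have D1 : |δ1| ≤ 4 := by rw [hδ1]; exact (ad t1 s1).trans (by norm_num)
    have D2 : |δ2| ≤ 4 := by rw [hδ2]; exact (ad t2 s2).trans (by norm_num)
    have T0 : |x0| ≤ 1 := t0.trans (by linarith)
    have two : |(2 : ℝ)| ≤ 2 := by norm_num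
    have four : |(4 : ℝ)| ≤ 4 := by norm_num
    clear_value x0 x1 x2
    -- the entries
    have E00 : lf (jQ W b0 b1 G ζ0 k1 k2) s 0 0 = 2 * k2 + W * (x0 * (2 * b1 0 + 2 * G.yy * x0)) := by
      simp only [lf, ← hx0, jQ, Matrix.cons_val]; ring
    have E01 : lf (jQ W b0 b1 G ζ0 k1 k2) s 0 1 =
        W * (shB1 b0 b1 1 + δ1 * b1 0 + x0 * (G.yu + 2 * G.yy * x1)) := by
      simp only [lf, ← hx0, ← hx1, jQ, Matrix.cons_val, shB1, ← hS1]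
      rw [hδ1]; ring
    have E02 : lf (jQ W b0 b1 G ζ0 k1 k2) s 0 2 =
        W * (shB1 b0 b1 2 + δ2 * b1 0 + x0 * (G.yv + 2 * G.yy * x2)) := by
      simp only [lf, ← hx0, ← hx2, jQ, Matrix.cons_val, shB1, ← hS2]
      rw [hδ2]; ring
    have E11 : lf (jQ W b0 b1 G ζ0 k1 k2) s 1 1 = W * (2 * (shG b0 G).uu +
        δ1 * (2 * G.yu - 4 * (S1 * G.yy) + 2 * (δ1 * G.yy))) := by
      simp only [lf, ← hx1, jQ, Matrix.cons_val, shG, ← hS1]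
      rw [y1]; ring
    have E22 : lf (jQ W b0 b1 G ζ0 k1 k2) s 2 2 = W * (2 * (shG b0 G).vv +
        δ2 * (2 * G.yv - 4 * (S2 * G.yy) + 2 * (δ2 * G.yy))) := by
      simp only [lf, ← hx2, jQ, Matrix.cons_val, shG, ← hS2]
      rw [y2]; ring
    have E12 : lf (jQ W b0 b1 G ζ0 k1 k2) s 1 2 = W * ((shG b0 G).uv +
        δ2 * (G.yu - 2 * (S1 * G.yy)) + δ1 * (G.yv - 2 * (S2 * G.yy) + 2 * (δ2 * G.yy))) := by
      simp only [lf, ← hx1, ← hx2, jQ, Matrix.cons_val, shG, ← hS1, ← hS2]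
      rw [y1, y2]; ring
    have sy : ∀ i j, lf (jQ W b0 b1 G ζ0 k1 k2) s i j = lf (jQ W b0 b1 G ζ0 k1 k2) s j i := by
      intro i j
      have := jQ_sym W b0 b1 G ζ0 k1 k2 i j
      simp only [lf]
      rw [this]; ring
    have fin : ∀ x B : ℝ, |x| ≤ B → B ≤ 38 * κ → |W * x| ≤ 38 * (κ * W) := by
      intro x B hx hB
      rw [abs_mul, abs_of_pos hW]
      calc W * |x| ≤ W * (38 * κ) := mul_le_mul_of_nonneg_left (hx.trans hB) hW.le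
        _ = _ := by ring
    have F01 : |lf (jQ W b0 b1 G ζ0 k1 k2) s 0 1| ≤ 38 * (κ * W) := by
      rw [E01]
      refine fin _ _ (ad (ad c1 (b2 d1 g1)) (b2 t0 (ad n2 (b2 (b2 two n1) t1)))) ?_
      linarith
    have F02 : |lf (jQ W b0 b1 G ζ0 k1 k2) s 0 2| ≤ 38 * (κ * W) := by
      rw [E02]
      refine fin _ _ (ad (ad c2 (b2 d2 g1)) (b2 t0 (ad n3 (b2 (b2 two n1) t2)))) ?_
      linarith
    have F11 : |lf (jQ W b0 b1 G ζ0 k1 k2) s 1 1| ≤ 38 * (κ * W) := by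
      rw [E11]
      refine fin _ _ (ad (b2 two c3) (b2 d1 (ad (sb (b2 two n2) (b2 four (b2 s1 n1)))
        (b2 two (b2 D1 n1))))) ?_
      linarith
    have F22 : |lf (jQ W b0 b1 G ζ0 k1 k2) s 2 2| ≤ 38 * (κ * W) := by
      rw [E22]
      refine fin _ _ (ad (b2 two c5) (b2 d2 (ad (sb (b2 two n3) (b2 four (b2 s2 n1)))
        (b2 two (b2 D2 n1))))) ?_
      linarith
    have F12 : |lf (jQ W b0 b1 G ζ0 k1 k2) s 1 2| ≤ 38 * (κ * W) := by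
      rw [E12]
      refine fin _ _ (ad (ad c4 (b2 d2 (sb n2 (b2 two (b2 s1 n1)))))
        (b2 d1 (ad (sb n3 (b2 two (b2 s2 n1))) (b2 two (b2 D2 n1))))) ?_
      linarith
    have F00 : |lf (jQ W b0 b1 G ζ0 k1 k2) s 0 0| ≤ 38 * (κ * W) := by
      rw [E00]
      have f1 := b2 t0 (ad (b2 two g1) (b2 (b2 two n1) T0))
      have f2 : |W * (x0 * (2 * b1 0 + 2 * G.yy * x0))| ≤
          W * (1 / 50 * κ * (2 * (3 / 2) + 2 * 1 * 1)) := by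
        rw [abs_mul, abs_of_pos hW]
        exact mul_le_mul_of_nonneg_left f1 hW.le
      refine (ad (b2 two h2) f2).trans ?_
      have : 0 ≤ κ * W := mul_nonneg hκ hW.le
      nlinarith
    refine ⟨?_, ?_⟩
    · intro i j
      fin_cases i <;> fin_cases j
      · exact F00
      · exact F01
      · exact F02
      · show |lf (jQ W b0 b1 G ζ0 k1 k2) s 1 0| ≤ _
        rw [sy]; exact F01
      · exact F11
      · exact F12
      · show |lf (jQ W b0 b1 G ζ0 k1 k2) s 2 0| ≤ _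
        rw [sy]; exact F02
      · show |lf (jQ W b0 b1 G ζ0 k1 k2) s 2 1| ≤ _
        rw [sy]; exact F12
      · exact F22
    · have g : ∀ x B : ℝ, |x| ≤ B → B ≤ 5 → |W * x| ≤ 5 * W := by
        intro x B hx hB
        rw [abs_mul, abs_of_pos hW, mul_comm]
        exact mul_le_mul_of_nonneg_right (hx.trans hB) hW.le
      intro i
      fin_cases i
      · have e : (jQ W b0 b1 G ζ0 k1 k2).h0 0 + s 0 * (jQ W b0 b1 G ζ0 k1 k2).h00 =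
            W * (b1 0 + x0 * (2 * G.yy)) := by
          simp only [← hx0, jQ, Matrix.cons_val]; ring
        show |(jQ W b0 b1 G ζ0 k1 k2).h0 0 + s 0 * (jQ W b0 b1 G ζ0 k1 k2).h00| ≤ _
        rw [e]
        exact g _ _ (ad g1 (b2 T0 (b2 two n1))) (by norm_num)
      · have e : (jQ W b0 b1 G ζ0 k1 k2).h0 1 + s 1 * (jQ W b0 b1 G ζ0 k1 k2).h00 =
            W * (G.yu + x1 * (2 * G.yy)) := by
          simp only [← hx1, jQ, Matrix.cons_val]; ring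
        show |(jQ W b0 b1 G ζ0 k1 k2).h0 1 + s 1 * (jQ W b0 b1 G ζ0 k1 k2).h00| ≤ _
        rw [e]
        exact g _ _ (ad n2 (b2 t1 (b2 two n1))) (by norm_num)
      · have e : (jQ W b0 b1 G ζ0 k1 k2).h0 2 + s 2 * (jQ W b0 b1 G ζ0 k1 k2).h00 =
            W * (G.yv + x2 * (2 * G.yy)) := by
          simp only [← hx2, jQ, Matrix.cons_val]; ring
        show |(jQ W b0 b1 G ζ0 k1 k2).h0 2 + s 2 * (jQ W b0 b1 G ζ0 k1 k2).h00| ≤ _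
        rw [e]
        exact g _ _ (ad n3 (b2 t2 (b2 two n1))) (by norm_num)
  obtain ⟨f1, f2⟩ := fin0 _ rfl
  refine ⟨f1, f2, ?_⟩
  have e : (jQ W b0 b1 G ζ0 k1 k2).h00 = W * (2 * G.yy) := by simp only [jQ]; ring
  rw [e, abs_mul, abs_of_pos hW, mul_comm]
  have two : |(2 : ℝ)| ≤ 2 := by norm_num
  exact mul_le_mul_of_nonneg_right ((b2 two n1).trans (by norm_num)) hW.le

end

/-- velocity of `T` in the chart of `S` -/
theorem vel_n {S : Plk4} {T : Ln4} {z0 ρ r : ℝ} (hρ : 0 ≤ ρ) (ha : 0 < S.a) (hS : Shp S z0 ρ r)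
    (hT : InP T S z0 ρ) : ∃ n : V3, (∀ i, |n i| ≤ 2) ∧
      ρ • T.v = ρ • S.c.v + cmb (fr S.e S.w) n := by
  have hw0 : 0 < S.w 0 := ha.trans_le hS.a_le0
  have hw2 : 0 < S.w 2 := hw0.trans_le hS.w0_le
  have hw1 : 0 < S.w 1 := hw2.trans_le hS.w_le
  have hw : ∀ i, 0 < S.w i := by
    intro i; fin_cases i
    · exact hw0
    · exact hw1
    · exact hw2
  refine ⟨co S.e S.w (ρ • (T.v - S.c.v)), fun i => ?_, ?_⟩
  · unfold co
    have h := vel_InP hρ hT i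
    rw [abs_div, abs_of_pos (hw i), div_le_iff₀ (hw i)]
    exact h
  · rw [cmb_co hS.ortho hw]
    funext i
    simp only [Pi.add_apply, Pi.sub_apply, Pi.smul_apply, smul_eq_mul]
    ring

/-- **the jet of the sheet in its own chart on the line** -/
theorem jS_eq {S : Plk4} {T : Ln4} {z0 ρ r : ℝ} {b0 b1 : V3} {G : QF} (hρ : 0 ≤ ρ) (ha : 0 < S.a)
    (hS : Shp S z0 ρ r) (hT : InP T S z0 ρ) (hE : IsExp S.q S.e S.w T z0 ρ b0 b1 G)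
    (hk : 10 ^ 6 * S.a ≤ S.w 0 * kap b0 b1 G) {H j : ℕ} (hj : j ≤ H) :
    ∃ (n : V3) (k1 k2 : ℝ), (∀ i, |n i| ≤ 2) ∧ ρ • T.v = ρ • S.c.v + cmb (fr S.e S.w) n ∧
      |k1| ≤ 1 / 100 * (kap b0 b1 G * S.w 0) ∧ |k2| ≤ 1 / 100 * (kap b0 b1 G * S.w 0) ∧
      jS S S.q z0 ρ H j T = pull 1 (vl n) (jQ (S.w 0) b0 b1 G ((j : ℝ) / H) k1 k2) := by
  obtain ⟨n, hn, hv⟩ := vel_n hρ ha hS hT
  obtain ⟨θ0, θ1, θ2, hθ⟩ := Adj214.theta hS.isQ T z0 ρ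
  have ζ0 : 0 ≤ (j : ℝ) / H := by positivity
  have ζ1 : (j : ℝ) / H ≤ 1 := by
    rcases Nat.eq_zero_or_pos H with h | h
    · subst h
      simp
    · rw [div_le_one (by exact_mod_cast h)]
      exact_mod_cast hj
  obtain ⟨-, t1, t2⟩ := Adj214.theta_le (θ0 := θ0) (θ1 := θ1) (θ2 := θ2) (B := S.a) (by
    intro ζ h1 h2
    have h3 := (hT (z0 + ρ * ζ) (by nlinarith) (by nlinarith)).2
    rw [hθ] at h3
    exact h3)
  set ζ := (j : ℝ) / H with hζ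
  refine ⟨n, θ1 + 2 * θ2 * ζ, θ2, hn, hv, ?_, ?_, ?_⟩
  · have h1 : |2 * θ2 * ζ| ≤ 16 * S.a := by
      rw [abs_mul, abs_mul, abs_of_nonneg ζ0, abs_of_pos (by norm_num : (0 : ℝ) < 2)]
      nlinarith [abs_nonneg θ2]
    refine (ad t1 h1).trans ?_
    linarith
  · refine t2.trans ?_
    linarith
  · have hj1 : JetAt S.q (fr S.e S.w) T.v (z0 + ρ * ζ) (T.pos (z0 + ρ * ζ)) ρ
        (jQ (S.w 0) b0 b1 G ζ (θ1 + 2 * θ2 * ζ) θ2) := by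
      refine jet_exp hE (k1 := θ1 + 2 * θ2 * ζ) (k2 := θ2) (fun x => ?_)
      rw [hθ, hθ]; ring
    have hj2 := jet_vel hj1 (jQ_sym _ _ _ _ _ _ _) hv
    exact jt_eq hj2 (pull_sym (jQ_sym _ _ _ _ _ _ _))

/-- **the sheet in its own chart at the point of `T`** (fields of `Chm862.Mv`); `b0, b1, G` any
expansion of the sheet around `T`. -/
theorem q0_exp {S : Plk4} {T : Ln4} {z0 ρ r : ℝ} {b0 b1 : V3} {G : QF} (hρ : 0 ≤ ρ) (ha : 0 < S.a)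
    (hS : Shp S z0 ρ r) (hT : InP T S z0 ρ) (hE : IsExp S.q S.e S.w T z0 ρ b0 b1 G)
    (hk : 10 ^ 6 * S.a ≤ S.w 0 * kap b0 b1 G) {H j : ℕ} (hj : j ≤ H) :
    (jS S S.q z0 ρ H j T).a0 ≠ 0 ∧ S.w 0 / 2 ≤ (jS S S.q z0 ρ H j T).a0 ∧
      (jS S S.q z0 ρ H j T).a0 ≤ 2 * S.w 0 ∧
      (∀ i i', |lf (jS S S.q z0 ρ H j T) (sl (jS S S.q z0 ρ H j T)) i i'| ≤
        1400 * kap b0 b1 G * S.w 0) ∧
      (∀ i, |gm (jS S S.q z0 ρ H j T) (jS S S.q z0 ρ H j T) i| ≤ 30 * S.w 0) ∧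
      |(jS S S.q z0 ρ H j T).h00| ≤ 2 * S.w 0 ∧ (∀ i, |sl (jS S S.q z0 ρ H j T) i| ≤ 11) ∧
      kap b0 b1 G ≤ 13 := by
  have hw0 : 0 < S.w 0 := ha.trans_le hS.a_le0
  have SP := StP.of_shN hS hw0
  have N := hE.nrmC SP hρ (fun z h1 h2 => (hT z h1 h2).1)
  obtain ⟨n, k1, k2, hn, -, h1, h2, e⟩ := jS_eq hρ ha hS hT hE hk hj
  have ζ0 : 0 ≤ (j : ℝ) / H := by positivity
  have ζ1 : (j : ℝ) / H ≤ 1 := by
    rcases Nat.eq_zero_or_pos H with h | h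
    · subst h
      simp
    · rw [div_le_one (by exact_mod_cast h)]
      exact_mod_cast hj
  obtain ⟨hne, s0, s1, s2, -, -⟩ := sl_jQ (k2 := k2) N hw0 ζ0 ζ1 h1
  obtain ⟨f1, f2, f3⟩ := jQ_le N hw0 ζ0 ζ1 h1 h2
  obtain ⟨m1, m2⟩ := mid N ζ0 ζ1
  obtain ⟨v0, v1, v2⟩ := sl_vel (n := n) hne
  have hκ := kap_nonneg b0 b1 G
  have hκ13 := kap_le N
  have hκw : 0 ≤ kap b0 b1 G * S.w 0 := mul_nonneg hκ hw0.le
  rw [e]
  refine ⟨?_, ?_, ?_, ?_, ?_, ?_, ?_, hκ13⟩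
  · rw [a0_vel]; exact hne
  · rw [a0_vel]
    show S.w 0 / 2 ≤ S.w 0 * (b0 0 + (j : ℝ) / H * b1 0)
    nlinarith
  · rw [a0_vel]
    show S.w 0 * (b0 0 + (j : ℝ) / H * b1 0) ≤ 2 * S.w 0
    nlinarith
  · intro i i'
    refine (lf_vel_le hn (jQ_sym _ _ _ _ _ _ _) hne f1 i i').trans ?_
    nlinarith
  · intro i
    refine (gm_vel_le hn hne f2 i).trans ?_
    linarith
  · rw [h00_vel]; exact f3
  · intro i
    fin_cases i
    · show |sl (pull 1 (vl n) _) 0| ≤ 11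
      rw [v0]
      refine (sb (sb (ad (hn 0) s0) (b2 (hn 1) s1)) (b2 (hn 2) s2)).trans ?_
      linarith
    · show |sl (pull 1 (vl n) _) 1| ≤ 11
      rw [v1]; linarith
    · show |sl (pull 1 (vl n) _) 2| ≤ 11
      rw [v2]; linarith

/-- **the sheet in its own chart at the point of `T`**, plank form -/
theorem q0_of {S : Plk4} {T : Ln4} {z0 ρ r : ℝ} (hρ : 0 ≤ ρ) (ha : 0 < S.a) (hS : Shp S z0 ρ r)
    (hT : InP T S z0 ρ) (hk : 10 ^ 6 * S.a ≤ kapP S z0 ρ T) {H j : ℕ} (hj : j ≤ H) :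
    (jS S S.q z0 ρ H j T).a0 ≠ 0 ∧ S.w 0 / 2 ≤ (jS S S.q z0 ρ H j T).a0 ∧
      (jS S S.q z0 ρ H j T).a0 ≤ 2 * S.w 0 ∧
      (∀ i i', |lf (jS S S.q z0 ρ H j T) (sl (jS S S.q z0 ρ H j T)) i i'| ≤
        1400 * kapP S z0 ρ T) ∧
      (∀ i, |gm (jS S S.q z0 ρ H j T) (jS S S.q z0 ρ H j T) i| ≤ 30 * S.w 0) ∧
      |(jS S S.q z0 ρ H j T).h00| ≤ 2 * S.w 0 ∧ (∀ i, |sl (jS S S.q z0 ρ H j T) i| ≤ 11) ∧
      kapP S z0 ρ T ≤ 13 * S.w 0 := by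
  have hw0 : 0 < S.w 0 := ha.trans_le hS.a_le0
  obtain ⟨h1, h2, h3, h4, h5, h6, h7, h8⟩ :=
    q0_exp hρ ha hS hT (expP_spec hS.isQ hw0.ne' z0 ρ T) hk hj
  refine ⟨h1, h2, h3, fun i i' => (h4 i i').trans (le_of_eq ?_), h5, h6, h7, ?_⟩
  · unfold kapP; ring
  · unfold kapP
    nlinarith

end Crest.Agent.R136.Q0455
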