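import Crest.Agent.R136.Qgn3_887
import Crest.Agent.R136.Int5_599

/-!
# R136, thin branch (helper887): the windows of `quad` over a zoom window

* `QdWD Dr W κ u f mm x` : window with `S = {0}`, every top `x`, dropped slots `Dr`, the numbers
  (H1) .. (H5) and (n6) of `quad`.
* **`qdWD_iw`** : the window `iw` (resolution `x`, `S = {0}`) on any class of any part of a zoom window
  of `lam` with the numbers `QdN` (interior point of `hasQuadN`).
-/

set_option autoImplicit false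
set_option linter.unusedSectionVars false
set_option linter.unusedVariables false

open Filter Topology

namespace Crest.Agent.R136.Qgn887

open Finset Crest.Agent.R138.Ex926 Crest.Agent.R136.Net191 Crest.Agent.R136.Gf356
open Crest.Agent.R136.Qg926 Crest.Agent.R136.Dg219 Crest.Agent.R136.Aw413
open Crest.Agent.R136.NetW191 Crest.Agent.R136.EvW938 Crest.Agent.R136.PrW464
open Crest.Agent.R136.LadW697 Crest.Agent.R136.AwJ774 Crest.Agent.R136.Bas938
open Crest.Agent.R136.Ht887 Crest.Agent.R136.Win887 Crest.Agent.R136.QdH887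
open Crest.Agent.R136.K2S774 (cn)
open Crest.Agent.R136.Int599 (iw)
open Crest.Agent.R136.LadG697 (coU)

/-- slots of (n6) -/
def S6 (Dr : Finset (Fin 18)) : Finset (Fin 18) := if (9 : Fin 18) ∈ Dr then {2, 14, 15} else {2, 14}

/-- **the window of `quad`**, dropped slots `Dr`; `p = {2, 3, 14, 15}`, `v = {1, 11, 12}` -/
structure QdWD (Dr : Finset (Fin 18)) (W : Wnd 18 fun _ => ℕ × ℝ) (κ : ℕ → ℝ)
    (u : ℕ → Fin 18 → ℝ) (f : ∀ n : ℕ, ℕ × ℝ → FW) (mm x : ℝ) : Prop where
  x0 : 0 < x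
  m0 : 0 < mm
  ww : WWnd W κ u f
  eS : W.S = {0}
  etop : W.top = fun _ => x
  ekap : W.kap = fun _ => 1
  dw : ∀ n, W.B'.d n = W.B.d n ^ W.w n
  hk : ∀ ε : ℝ, 0 < ε → ∀ᶠ n in (U : Filter ℕ), W.B'.d n ^ ε ≤ |κ n|
  /-- walls between slots which are not dropped -/
  tight : ∀ k, k ∉ Dr → ∀ l ∈ mlW k, (∀ s ∈ l, s ∉ Dr) → ∀ n, W.X n k = (l.map (W.X n)).sum
  /-- the other walls are at infinite distance -/
  gap : ∀ k, ∀ l ∈ mlW k, (k ∈ Dr ∨ ∃ s ∈ l, s ∈ Dr) → ∀ R : ℝ, ∀ᶠ n in (U : Filter ℕ),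
    W.X n k + R * W.w n ≤ (l.map (W.X n)).sum
  dens : W.lam W.top ≤ W.lam (cut W.S W.top 0) + W.lam (cut W.S 0 W.top)
  frost : ∀ y : ℝ, 0 ≤ y → y ≤ x → W.lam (Pi.single 0 y) ≤ -(1 * y)
  /-- legal boxes -/
  leg : ∀ p : Fin 18 → ℝ, (∀ s, 0 ≤ p s) → (∀ s, p s ≤ x) →
    (∀ k, k ∉ Dr → ∀ l ∈ mlW k, (∀ s ∈ l, s ∉ Dr) →
      cut {0} p (fun _ => x) k ≤ (l.map (cut {0} p (fun _ => x))).sum) → p ∈ W.legW
  n1 : W.nu (bv x {2, 3, 14, 15, 16}) = W.nu (bv x {2, 3, 14, 15})
  n2 : W.nu (bv x {1, 11, 12, 16}) = W.nu (bv x {1, 11, 12})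
  n3 : W.nu 0 + W.nu (bv x {1, 2, 3, 11, 12, 14, 15}) =
    W.nu (bv x {2, 3, 14, 15}) + W.nu (bv x {1, 11, 12})
  n4 : W.nu (bv x {2, 3}) ≤ W.nu 0 - 2 * x
  n5 : ∀ y, 0 ≤ y → W.nu (Pi.single 1 y) ≤ W.nu 0 - mm * y
  n6 : (7 : Fin 18) ∈ Dr → ∀ y, 0 ≤ y → y ≤ x →
    mm * y ≤ W.nu (bv x (S6 Dr)) - W.nu (Function.update (bv x (S6 Dr)) 3 y)

section fin

variable {Dr : Finset (Fin 18)} {W : Wnd 18 fun _ => ℕ × ℝ} {κ : ℕ → ℝ} {u : ℕ → Fin 18 → ℝ}
  {f : ∀ n : ℕ, ℕ × ℝ → FW} {mm x : ℝ}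

/-- integral boxes are legal -/
theorem QdWD.legb (g : QdWD Dr W κ u f mm x) {Q : Finset (Fin 18)} (hQ : OkF Dr (ind (insert 0 Q))) :
    bv x Q ∈ W.legW := by
  have hx := g.x0
  refine g.leg _ (fun s => bv_nonneg hx.le _ s)
    (fun s => by unfold bv; split_ifs; exacts [le_rfl, hx.le]) fun k hk l hl hs => ?_
  have e : cut {0} (bv x Q) (fun _ => x) = scV x (ind (insert 0 Q)) := by
    rw [← bv_eq]
    funext s
    by_cases h0 : s = 0
    · subst h0; rw [cut_of_mem (mem_singleton_self 0), bv_in (mem_insert_self _ _)]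
    · rw [cut_of_notMem (by rw [mem_singleton]; exact h0)]
      unfold bv
      simp only [mem_insert, h0, false_or]
  rw [e, sum_scV]
  exact mul_le_mul_of_nonneg_left (by exact_mod_cast hQ k hk l hl hs) hx.le

end fin

/-! ### over a zoom window -/

section zoom

variable {B B' : Base} {I J : ℕ → Finset (ℕ × ℝ)}
  {kp : ℕ → ℝ} {u : ℕ → Fin 18 → ℝ} {f : ℕ → ℕ × ℝ → FW} {Y : ℕ → Fin 18 → ℝ}
  {w : ℕ → ℝ} {Tz : ℕ → ℝ} {Dr : Finset (Fin 18)} {lam : (Fin 18 → ℝ) → ℝ}
  {mm x : ℝ} {Gd : ℕ → Finset (ℕ × ℝ)} {s₀ : ℕ → ℕ × ℝ}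

theorem wd0 : WDat (fun _ => 0) (fun _ => 1) 1 {0} := wdatA

/-- **the window of `quad` on a class of any part of a zoom window** -/
theorem qdWD_iw (hZ : ZWin B B' I J (coU u kp f) monW 67 Y w (cn QW (actW ↑Dr)) Tz lam)
    (hX : AwZ146.BasX monW (mA monW (actW ↑Dr)) (mA monW (actW ↑Dr)) Y w)
    (hkp : B'.Sub fun n => |kp n|⁻¹) (hD : DrOk ↑Dr) (hN : QdN ↑Dr lam mm) (hx : 0 < x)
    (hw : WWnd (iw B B' I J (coU u kp f) 67 Y w (mA monW (actW ↑Dr)) Tz lam {0} x Gd s₀) kp u f) :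
    QdWD Dr (iw B B' I J (coU u kp f) 67 Y w (mA monW (actW ↑Dr)) Tz lam {0} x Gd s₀)
      kp u f mm x := by
  have hA : ActM (mA monW (actW (↑Dr : Set (Fin 18)))) ↑Dr := actM_mA _
  have hc : ∀ c : Fin 18 → ℝ, c ∈ coneM (mA monW (actW (↑Dr : Set (Fin 18)))) ↔
      c ∈ cn QW (actW ↑Dr) := fun c => by rw [coneM_mA]
  have m : ∀ Q, OkD (ind Q) → bv x Q ∈ cn QW (actW (↑Dr : Set (Fin 18))) := fun Q hQ =>
    (hc _).1 (bvN hA hD hQ hx.le)
  have c0m : (0 : Fin 18 → ℝ) ∈ cn QW (actW (↑Dr : Set (Fin 18))) := (hc _).1 zero_mem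
  have top : (iw B B' I J (coU u kp f) 67 Y w (mA monW (actW ↑Dr)) Tz lam {0} x Gd s₀).top =
      fun _ => x := Int599.iw_top
  have hn := hN.num x hx
  have hnu : ∀ p, (iw B B' I J (coU u kp f) 67 Y w (mA monW (actW ↑Dr)) Tz lam {0} x Gd s₀).nu p =
      lam (cut {0} p fun _ => x) - lam fun _ => x := by
    intro p
    show lam (cut {0} p (scV x fun _ => 1)) - lam (scV x fun _ => 1) = _
    rw [Int599.scV_one]
  have cutQ : ∀ Q Q' : Finset (Fin 18), (∀ s, s ∈ Q' ↔ s = 0 ∨ s ∈ Q) →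
      cut {0} (bv x Q) (fun _ => x) = bv x Q' := by
    intro Q Q' hQ
    funext s
    by_cases h0 : s = 0
    · subst h0
      rw [cut_of_mem (mem_singleton_self 0), bv_in ((hQ 0).2 (Or.inl rfl))]
    · rw [cut_of_notMem (by rw [mem_singleton]; exact h0)]
      unfold bv
      simp only [hQ s, h0, false_or]
  have cutU : ∀ (Q Q' : Finset (Fin 18)) (y : ℝ), (∀ s, s ∈ Q' ↔ s = 0 ∨ s ∈ Q) →
      cut {0} (Function.update (bv x Q) 3 y) (fun _ => x) = Function.update (bv x Q') 3 y := by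
    intro Q Q' y hQ
    rw [← cutQ Q Q' hQ]
    funext s
    by_cases h0 : s = 0
    · subst h0
      rw [cut_of_mem (mem_singleton_self 0), Function.update_of_ne (by decide),
        cut_of_mem (mem_singleton_self 0)]
    · rw [cut_of_notMem (by rw [mem_singleton]; exact h0)]
      by_cases h3 : s = 3
      · subst h3; rw [Function.update_self, Function.update_self]
      · rw [Function.update_of_ne h3, Function.update_of_ne h3,
          cut_of_notMem (by rw [mem_singleton]; exact h0)]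
  have c0 : cut {0} (0 : Fin 18 → ℝ) (fun _ => x) = bv x {0} := by
    have e : (0 : Fin 18 → ℝ) = bv x ∅ := by funext s; simp [bv]
    rw [e]; exact cutQ _ _ (by decide)
  have c1 := cutQ {2, 3, 14, 15, 16} {0, 2, 3, 14, 15, 16} (by decide)
  have c2 := cutQ {2, 3, 14, 15} {0, 2, 3, 14, 15} (by decide)
  have c3 := cutQ {1, 11, 12, 16} {0, 1, 11, 12, 16} (by decide)
  have c4 := cutQ {1, 11, 12} {0, 1, 11, 12} (by decide)
  have c5 := cutQ {1, 2, 3, 11, 12, 14, 15} {0, 1, 2, 3, 11, 12, 14, 15} (by decide)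
  have c6 := cutQ {2, 3} {0, 2, 3} (by decide)
  -- `mm ≤ 1`
  have hm1 : mm ≤ 1 := by
    have h1 := hn.h5 x hx.le
    have e : Function.update (bv x {0}) 1 x = bv x {0, 1} := by
      funext s
      by_cases hs : s = 1
      · rw [hs, Function.update_self, bv_in (by decide)]
      · rw [Function.update_of_ne hs]
        unfold bv
        simp only [mem_insert, mem_singleton, hs, or_false]
    rw [e] at h1
    have h2 := hN.sharp _ (m {0} (by decide)) _ (m {0, 1} (by decide)) (fun s => by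
      unfold bv
      split_ifs with a1 a2 a2
      · exact le_rfl
      · exact absurd (by rw [mem_singleton.1 a1]; decide) a2
      · exact hx.le
      · exact le_rfl)
    have e3 : ∑ s, (bv x {0, 1} s - bv x {0} s) = x := by
      rw [sum_eq_single_of_mem (1 : Fin 18) (mem_univ _)]
      · rw [bv_in (by decide), bv_out (by decide), sub_zero]
      · intro j _ hj
        unfold bv
        simp only [mem_insert, mem_singleton, hj, or_false]
        ring
    rw [e3] at h2
    have h3 : mm * x ≤ x := by linarith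
    by_contra hcon
    rw [not_le] at hcon
    nlinarith
  refine
    { x0 := hx
      m0 := hN.m0
      ww := hw
      eS := rfl
      etop := top
      ekap := rfl
      dw := hZ.base
      hk := ?_
      tight := ?_
      gap := ?_
      dens := ?_
      frost := ?_
      leg := ?_
      n1 := ?_
      n2 := ?_
      n3 := ?_
      n4 := ?_
      n5 := ?_
      n6 := ?_ }
  · intro ε hε
    filter_upwards [hkp.ev_le hε, hkp.1.pos] with n hn hpos
    have h3 : 0 < |kp n| := inv_pos.1 hpos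
    have h5 := hn.2
    rw [Real.log_inv] at h5
    show B'.d n ^ ε ≤ |kp n|
    rw [Real.rpow_def_of_pos (B'.pos n), ← Real.exp_log h3]
    refine Real.exp_le_exp.2 ?_
    unfold Base.L at h5
    linarith
  · intro k hk l hl hls n
    have := hX.act k _ ((hA.iff k _).2 ⟨by simpa using hk, l, hl,
      fun s hs' h1 => hls s hs' (by simpa using h1), rfl⟩) n
    rwa [← sum_count] at this
  · intro k l hl hor R
    have := hX.gap k (fun s => l.count s) (mem_monW.2 ⟨l, hl, rfl⟩) (fun he => by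
      obtain ⟨hkD, l', hl', hls', e⟩ := (hA.iff k _).1 he
      rcases hor with h1 | ⟨s, hs', h1⟩
      · exact hkD (by simpa using h1)
      · have h2 : 0 < l.count s := List.count_pos_iff.2 hs'
        have h3 : l.count s = l'.count s := congrFun e s
        rw [h3] at h2
        exact hls' s (List.count_pos_iff.1 h2) (by simpa using h1)) R
    filter_upwards [this] with n hn
    rwa [← sum_count] at hn
  · show lam (scV x fun _ => 1) ≤ lam (cut {0} (scV x fun _ => 1) 0) +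
      lam (cut {0} 0 (scV x fun _ => 1))
    rw [Int599.scV_one]
    have e1 : cut {0} (fun _ => x) (0 : Fin 18 → ℝ) = bv x (univ \ {0}) := by
      funext s
      by_cases h0 : s = 0
      · subst h0
        rw [cut_of_mem (mem_singleton_self 0), bv_out (by decide)]; rfl
      · rw [cut_of_notMem (by rw [mem_singleton]; exact h0), bv_in (by simp [h0])]
    have e2 : (fun _ => x : Fin 18 → ℝ) = bv x univ := by
      funext s; rw [bv_in (mem_univ s)]
    have m1 := m (univ \ {0}) (by decide)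
    have m2 := m univ (by decide)
    have m3 := m {0} (by decide)
    rw [e1, c0, e2]
    have h1 := hN.own _ m1 _ m2 (fun s => by
      rw [bv_in (mem_univ s)]
      unfold bv; split_ifs
      · exact le_rfl
      · exact hx.le)
    rw [bv_in (mem_univ 0), bv_out (by decide), sub_zero] at h1
    have h2 := hN.sharp 0 c0m _ m3 (fun s => by
      rw [Pi.zero_apply]; exact bv_nonneg hx.le _ _)
    rw [hN.zero] at h2
    have e3 : ∑ s, (bv x {0} s - (0 : Fin 18 → ℝ) s) = x := by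
      rw [sum_eq_single_of_mem (0 : Fin 18) (mem_univ _)]
      · rw [bv_in (by decide), Pi.zero_apply, sub_zero]
      · intro j _ hj
        rw [bv_out (by rw [mem_singleton]; exact hj), Pi.zero_apply, sub_zero]
    rw [e3] at h2
    linarith
  · intro y hy hyx
    show lam (Pi.single 0 y) ≤ _
    have m1 : (Pi.single 0 y : Fin 18 → ℝ) ∈ cn QW (actW (↑Dr : Set (Fin 18))) := by
      have : (Pi.single 0 y : Fin 18 → ℝ) = bv y {0} := by
        funext s
        by_cases h0 : s = 0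
        · subst h0; rw [Pi.single_eq_same, bv_in (mem_singleton_self 0)]
        · rw [Pi.single_eq_of_ne h0, bv_out (by rw [mem_singleton]; exact h0)]
      rw [this]
      exact (hc _).1 (bvN hA hD (by decide) hy)
    have h1 := hN.own 0 c0m _ m1 (fun s => by
      rw [Pi.zero_apply]
      by_cases h0 : s = 0
      · subst h0; rw [Pi.single_eq_same]; exact hy
      · rw [Pi.single_eq_of_ne h0])
    rw [hN.zero, Pi.single_eq_same, Pi.zero_apply] at h1
    linarith
  · intro p hp0 hpx hw'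
    rw [WSt.mem_legW]
    refine ⟨?_, fun k _ => ?_⟩
    · show cut {0} p (scV x fun _ => 1) ∈ _
      rw [Int599.scV_one]
      refine Int599.iw_leg (Gd := Gd) (s₀ := s₀) (B := B) (B' := B') (I := I) (J := J)
        (co := coU u kp f) (C := 67) (Y := Y) (w := w) (Tz := Tz) (lam := lam) (S := {0}) ?_
        (fun s => ?_) (fun s => ?_)
      · rw [hA.cone]
        intro k hk l hl hs
        exact hw' k (by simpa using hk) l hl fun s hs' h1 => hs s hs' (by simpa using h1)
      · by_cases h0 : s ∈ ({0} : Finset (Fin 18))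
        · rw [cut_of_mem h0]; exact hx.le
        · rw [cut_of_notMem h0]; exact hp0 s
      · by_cases h0 : s ∈ ({0} : Finset (Fin 18))
        · rw [cut_of_mem h0]
        · rw [cut_of_notMem h0]; exact hpx s
    · show p k ≤ scV x (fun _ => 1) k
      rw [Int599.scV_one]
      exact hpx k
  · rw [hnu, hnu, c1, c2, hn.h1]
  · rw [hnu, hnu, c3, c4, hn.h2]
  · rw [hnu, hnu, hnu, hnu, c0, c5, c2, c4]
    linarith [hn.h3]
  · rw [hnu, hnu, c6, c0]
    linarith [hn.h4]
  · intro y hy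
    have e1 : cut {0} (Pi.single (1 : Fin 18) y) (fun _ => x) =
        Function.update (bv x {0}) 1 y := by
      funext s
      by_cases h0 : s = 0
      · subst h0
        rw [cut_of_mem (mem_singleton_self 0), Function.update_of_ne (by decide),
          bv_in (mem_singleton_self 0)]
      · rw [cut_of_notMem (by rw [mem_singleton]; exact h0)]
        by_cases h1 : s = 1
        · subst h1; rw [Pi.single_eq_same, Function.update_self]
        · rw [Pi.single_eq_of_ne h1, Function.update_of_ne h1,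
            bv_out (by rw [mem_singleton]; exact h0)]
    rw [hnu, hnu, e1, c0]
    linarith [hn.h5 y hy]
  · intro h7 y hy hyx
    have d7 : (7 : Fin 18) ∈ (↑Dr : Set (Fin 18)) := by simpa using h7
    by_cases h9 : (9 : Fin 18) ∈ Dr
    · have d9 : (9 : Fin 18) ∈ (↑Dr : Set (Fin 18)) := by simpa using h9
      have e : S6 Dr = {2, 14, 15} := if_pos h9
      rw [e, hnu, hnu, cutQ {2, 14, 15} {0, 2, 14, 15} (by decide),
        cutU {2, 14, 15} {0, 2, 14, 15} y (by decide)]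
      have h1 := hN.n9 d7 d9 x y hx hy hyx
      have h2 : mm * y ≤ 1 * y := mul_le_mul_of_nonneg_right hm1 hy
      linarith
    · have e : S6 Dr = {2, 14} := if_neg h9
      rw [e, hnu, hnu, cutQ {2, 14} {0, 2, 14} (by decide),
        cutU {2, 14} {0, 2, 14} y (by decide)]
      have h1 := hN.n7 d7 x y hx hy hyx
      have h2 : mm * y ≤ 1 * y := mul_le_mul_of_nonneg_right hm1 hy
      linarith

/-- **from one class to all classes** : a relation which holds on a `ρ^ε` part of every `EOk` set of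
every window `QdWD` holds on all classes of one dense part -/
theorem qd_core (hZ : ZWin B B' I J (coU u kp f) monW 67 Y w (cn QW (actW ↑Dr)) Tz lam)
    (hX : AwZ146.BasX monW (mA monW (actW ↑Dr)) (mA monW (actW ↑Dr)) Y w)
    (hgr : ∀ n, GrU (u n)) (hk1 : ∀ n, |kp n| ≤ 1)
    (hkp : B'.Sub fun n => |kp n|⁻¹) (hD : DrOk ↑Dr) (hN : QdN ↑Dr lam mm) (hx : 0 < x)
    (Rel : ℕ → ℝ → Finset (ℕ × ℝ) → Prop)
    (hG : ∀ n ε G G', G' ⊆ G → Rel n ε G → Rel n ε G')
    (hε : ∀ n ε ε' G, ε ≤ ε' → Rel n ε G → Rel n ε' G)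
    (hres : ∀ (Gd : ℕ → Finset (ℕ × ℝ)) (s₀ : ℕ → ℕ × ℝ) (E : ℕ → Finset (ℕ × ℝ)) (Mu : ℕ → ℝ),
      (∀ n, Gd n ⊆ J n) →
      QdWD Dr (iw B B' I J (coU u kp f) 67 Y w (mA monW (actW ↑Dr)) Tz lam {0} x Gd s₀)
        kp u f mm x →
      Wnd.EOk (iw B B' I J (coU u kp f) 67 Y w (mA monW (actW ↑Dr)) Tz lam {0} x Gd s₀) E Mu →
      ∀ ε : ℝ, 0 < ε → ∀ᶠ n in (U : Filter ℕ), ∃ G ⊆ E n,
        B'.d n ^ ε * ((E n).card : ℝ) ≤ (G.card : ℝ) ∧ Rel n ε G) :
    ∃ J1 : ℕ → Finset (ℕ × ℝ), (∀ n, J1 n ⊆ J n) ∧ Crest.Agent.R138.Dp76.Dense B' J1 J ∧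
      ∀ ε : ℝ, 0 < ε → ∀ᶠ n in (U : Filter ℕ), ∀ s ∈ J1 n,
        Rel n ε (cls (J1 n) (zlab B I (coU u kp f) monW 67 Y w n 0) s) := by
  have hZ' : ZWin B B' I J (coU u kp f) monW 67 Y w
      (coneM (mA monW (actW (↑Dr : Set (Fin 18))))) Tz lam := by rw [coneM_mA]; exact hZ
  exact Int599.int_gen' hZ' (actM_mA _) hgr hk1 wd0 hx.le Rel hG hε
    fun Gd s₀ E Mu hGd hw hE => hres Gd s₀ E Mu hGd (qdWD_iw hZ hX hkp hD hN hx hw) hE

end zoom

end Crest.Agent.R136.Qgn887
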