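import Crest.Agent.R136.SZ1_480

/-!
# R136, thin branch (helper480): stages of the resonances `Res2`, `Res1`

* `mem_JR` : the slots of positive rate next to a slot of rate `0`
* `drR2_ok`, `drR1_14`, `drR1_15` : the dropped slots
* **`stage_quad`**, **`stage_lin`** : the stages
* **`ob_quad`**, **`ob_lin`** : the same from an object; `ob_quadN` : with 887's interior point
-/

set_option autoImplicit false
set_option linter.unusedVariables false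

open Finset Filter Topology

namespace Crest.Agent.R136.SZ480

open Crest.Agent.R138.Ex926
open Crest.Agent.R136.Net191
open Crest.Agent.R136.NetW191
open Crest.Agent.R136.PrW464
open Crest.Agent.R136.NatW697
open Crest.Agent.R136.LadW697
open Crest.Agent.R136.LadT830
open Crest.Agent.R136.LadG697
open Crest.Agent.R136.EvW938
open Crest.Agent.R136.AwJ774
open Crest.Agent.R136.K2S774
open Crest.Agent.R136.K2A146
open Crest.Agent.R136.Qgn887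
open Crest.Agent.R136.QdH887
open Crest.Agent.R136.ThS830
open Crest.Agent.R136.Lq196
open Crest.Agent.R136.Dg219 (Walls mw)
open Crest.Agent.R136.Dg262 (X)

variable {P : Set (Fin 18 → ℝ)} {ν own : (Fin 18 → ℝ) → ℝ} {K : ℝ} {r0 : Fin 18 → ℝ}
  {θ : Fin 3 → ℝ} {g : ℝ} {q : Fin 3 → ℝ} {V T Zs : Set (Fin 18)}
  {lam lo : (Fin 18 → ℝ) → ℝ}

theorem wn_flag : ∀ k : Fin 18, 4 ≤ k → wn k = 1 := by decide

/-- **the slots of positive rate next to a slot of rate `0`** -/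
theorem mem_JR (h1 : 0 < θ 1) {j : ℤ} {l : Fin 18} (hl : l ∈ JW j) (h0 : btW θ l = 0)
    (k : Fin 18) : k ∈ JR θ j ↔ k ∈ JW j ∧ wc k < wc l := by
  obtain ⟨l4, lj⟩ := mem_JW.1 hl
  simp only [alW, if_pos l4] at lj
  constructor
  · rintro ⟨hk, hb⟩
    obtain ⟨k4, kj⟩ := mem_JW.1 hk
    simp only [alW, if_pos k4] at kj
    refine ⟨hk, ?_⟩
    rw [btW_sub (θ := θ) (k := k) (l := l) (by omega) (by rw [wn_flag k k4, wn_flag l l4]), h0,
      zero_add] at hb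
    have h2 : (0 : ℝ) < ((wc l - wc k : ℤ) : ℝ) := pos_of_mul_pos_left hb h1.le
    have h3 : 0 < wc l - wc k := by exact_mod_cast h2
    omega
  · rintro ⟨hk, hc⟩
    obtain ⟨k4, kj⟩ := mem_JW.1 hk
    simp only [alW, if_pos k4] at kj
    refine ⟨hk, ?_⟩
    rw [btW_sub (θ := θ) (k := k) (l := l) (by omega) (by rw [wn_flag k k4, wn_flag l l4]), h0,
      zero_add]
    have h3 : 0 < wc l - wc k := by omega
    have h2 : (0 : ℝ) < ((wc l - wc k : ℤ) : ℝ) := by exact_mod_cast h3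
    exact mul_pos h2 h1

theorem jr7 (h1 : 0 < θ 1) (h0 : btW θ 7 = 0) (k : Fin 18) : k ∉ JR θ 2 := by
  rw [mem_JR h1 (l := 7) (by decide) h0]
  revert k; decide

theorem jr9 (h1 : 0 < θ 1) (h0 : btW θ 9 = 0) (k : Fin 18) :
    k ∈ ({7} : Finset (Fin 18)) ↔ k ∈ JR θ 2 := by
  rw [mem_JR h1 (l := 9) (by decide) h0]
  revert k; decide

theorem jr10 (h1 : 0 < θ 1) (h0 : btW θ 10 = 0) (k : Fin 18) :
    k ∈ ({7, 9} : Finset (Fin 18)) ↔ k ∈ JR θ 2 := by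
  rw [mem_JR h1 (l := 10) (by decide) h0]
  revert k; decide

theorem jr14 (h1 : 0 < θ 1) (h0 : btW θ 14 = 0) (k : Fin 18) : k ∉ JR θ 1 := by
  rw [mem_JR h1 (l := 14) (by decide) h0]
  revert k; decide

theorem jr15 (h1 : 0 < θ 1) (h0 : btW θ 15 = 0) (k : Fin 18) :
    k ∈ ({14} : Finset (Fin 18)) ↔ k ∈ JR θ 1 := by
  rw [mem_JR h1 (l := 15) (by decide) h0]
  revert k; decide

theorem two_cast : ((2 : ℤ) : ℝ) = 2 := by norm_num
theorem one_cast' : ((1 : ℤ) : ℝ) = 1 := by norm_num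

/-- the slots `Z` of `hasQuadN` -/
theorem ZR_def (j : ℤ) : ZR θ j = {k | k = 1 ∨ (k ∈ JW j ∧ k ∉ DrR θ j)} := rfl

theorem JW2_79 (h1 : 0 < θ 1) (hres : Res2 θ) {k : Fin 18} (hk : k ∈ JR θ 2) :
    k = 7 ∨ k = 9 := by
  rcases hres with h | h | h
  · exact absurd hk (jr7 h1 h k)
  · exact Or.inl (mem_singleton.1 ((jr9 h1 h k).2 hk))
  · have := (jr10 h1 h k).2 hk
    rcases mem_insert.1 this with h2 | h2
    · exact Or.inl h2
    · exact Or.inr (mem_singleton.1 h2)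

/-- **the dropped slots of `quad`** -/
theorem drR2_ok (h1 : 0 < θ 1) (hres : Res2 θ) : DrOk (DrR θ 2) where
  lo := fun k hk => Or.inl (by rw [two_cast]; exact (mem_D2 k).2 hk)
  hi := fun k hk => by
    rcases hk with h | h
    · rw [two_cast] at h; exact Or.inl ((mem_D2 k).1 h)
    · exact Or.inr (JW2_79 h1 hres h)

theorem not_D2_of {k : Fin 18} (h : k ∈ DrR θ 2) (hk : alW k = 2) : 0 < btW θ k := by
  rcases h with h | h
  · have := h.2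
    rw [hk] at this
    exact absurd this (lt_irrefl _)
  · exact h.2

theorem drR2_7 (h : (7 : Fin 18) ∈ DrR θ 2) : btW θ 7 ≠ 0 := (not_D2_of h (by decide)).ne'
theorem drR2_9 (h : (9 : Fin 18) ∈ DrR θ 2) : btW θ 9 ≠ 0 := (not_D2_of h (by decide)).ne'

/-- the dropped slots of `lin` at `b1 = 2` -/
theorem drR1_14 (h1 : 0 < θ 1) (h0 : btW θ 14 = 0) (k : Fin 18) :
    k ∈ DrR θ 1 ↔ k ∈ ({4, 5, 6, 7, 8, 9, 10, 11, 12, 13} : Finset (Fin 18)) := by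
  have e : k ∈ DrR θ 1 ↔ 4 ≤ k ∧ 1 < alW k := by
    constructor
    · rintro (⟨h, h2⟩ | h)
      · exact ⟨h, by exact_mod_cast h2⟩
      · exact absurd h (jr14 h1 h0 k)
    · rintro ⟨h, h2⟩
      exact Or.inl ⟨h, by exact_mod_cast h2⟩
  rw [e]
  clear e
  revert k; decide

/-- the dropped slots of `lin` at `b1 = 1` -/
theorem drR1_15 (h1 : 0 < θ 1) (h0 : btW θ 15 = 0) (k : Fin 18) :
    k ∈ DrR θ 1 ↔ k ∈ ({4, 5, 6, 7, 8, 9, 10, 11, 12, 13, 14} : Finset (Fin 18)) := by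
  have e : k ∈ DrR θ 1 ↔ (4 ≤ k ∧ 1 < alW k) ∨ k ∈ ({14} : Finset (Fin 18)) := by
    rw [jr15 h1 h0 k]
    constructor
    · rintro (⟨h, h2⟩ | h)
      · exact Or.inl ⟨h, by exact_mod_cast h2⟩
      · exact Or.inr h
    · rintro (⟨h, h2⟩ | h)
      · exact Or.inl ⟨h, by exact_mod_cast h2⟩
      · exact Or.inr h
  rw [e]
  clear e
  revert k; decide

theorem btW14_ne (h1 : 0 < θ 1) (h0 : btW θ 15 = 0) : btW θ 14 ≠ 0 := by
  have h := (jr15 h1 h0 14).1 (by decide)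
  exact h.2.ne'

/-- visible slots have weight `< j` if all walls are `< j` -/
theorem vis_lt (h : CtxW P ν own K r0 θ g q V T) {s : ℝ} (hs : ∀ k ∈ V, KW θ k ≤ s) :
    ∀ k ∈ V, 4 ≤ k ∧ (alW k : ℝ) < s := fun k hk => by
  obtain ⟨h4, -, h5⟩ := vis_al' h.slots hk
  exact ⟨h4, h5.trans_le (hs k hk)⟩

/-- **the stage of `quad`** -/
theorem stage_quad (hR : RowsC) (h : CtxW P ν own K r0 θ g q V T)
    (hst : ∃ lam lo, StW P ν own K r0 θ g q V 4 lam lo) (hs : ∀ k ∈ V, KW θ k < 2)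
    (hres : Res2 θ) :
    ∃ lam lo, Stage QW P ν own K r0 (btW θ) (DlW g q) (QdW θ) (ZR θ 2) V 0 (btW θ) 1
      (actW (DrR θ 2)) (DrR θ 2) lam lo := by
  have hlt : ∀ {t : ℝ}, 2 < t → ∀ k ∈ V, KW θ k < t := fun ht k hk => (hs k hk).trans ht
  have hV := vis_lt h (s := 2) fun k hk => (hs k hk).le
  obtain ⟨lam, lo, H⟩ := StW.down two_pos hV hst (fun j hj1 hj4 hsj => by
    rcases j4 hj1 hj4 with rfl | rfl | rfl | rfl
    · exact hR.pin4 _ _ _ _ _ _ _ _ _ _ h (hlt (by norm_num))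
    · exact hR.pin3 _ _ _ _ _ _ _ _ _ _ h (hlt (by norm_num))
    · norm_num at hsj
    · norm_num at hsj)
  have hg : 0 < g / 4 := by have := h.g0; positivity
  have e2 : (2 : ℝ) = ((2 : ℤ) : ℝ) := by norm_num
  rcases hres with h7 | h9 | h10
  · rw [e2] at H
    exact ⟨lam, lo, stage_R0 (jr7 h.θ1 h7) H⟩
  · have F := Pin851.drop3 h hs h9
    rw [e2] at H F
    rw [e2] at hV
    exact stage_R (by norm_num) hV (jr9 h.θ1 h9) (by decide) H hg F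
  · have F := Pin851.drop2 h hs h10
    rw [e2] at H F
    rw [e2] at hV
    exact stage_R (by norm_num) hV (jr10 h.θ1 h10) (by decide) H hg F

/-- **the stage of `lin`** -/
theorem stage_lin (hR : RowsC) (h : CtxW P ν own K r0 θ g q V T) (hz : ZeroS P ν own Zs)
    (hst : ∃ lam lo, StW P ν own K r0 θ g q V 4 lam lo) (hV0 : ∀ k, k ∉ V)
    (h2 : ↑(JW 2) ⊆ Zs ∨ ¬ Res2 θ) (hres : Res1 θ) :
    ∃ lam lo, Stage QW P ν own K r0 (btW θ) (DlW g q) (QdW θ) (ZR θ 1) V 0 (btW θ) 1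
      (actW (DrR θ 1)) (DrR θ 1) lam lo := by
  have hlt : ∀ {t : ℝ}, ∀ k ∈ V, KW θ k < t := fun k hk => absurd hk (hV0 k)
  have hV : ∀ k ∈ V, 4 ≤ k ∧ (alW k : ℝ) < 1 := fun k hk => absurd hk (hV0 k)
  obtain ⟨lam, lo, H⟩ := StW.down one_pos hV hst (fun j hj1 hj4 hsj => by
    rcases j4 hj1 hj4 with rfl | rfl | rfl | rfl
    · exact hR.pin4 _ _ _ _ _ _ _ _ _ _ h hlt
    · exact hR.pin3 _ _ _ _ _ _ _ _ _ _ h hlt
    · rcases h2 with h2 | h2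
      · exact hR.pin2z _ _ _ _ _ _ _ _ _ _ h (hz.mono h2) trivial
      · exact hR.pin2 _ _ _ _ _ _ _ _ _ _ h ⟨hlt, h2⟩
    · norm_num at hsj)
  have hg : 0 < g / 4 := by have := h.g0; positivity
  have e1 : (1 : ℝ) = ((1 : ℤ) : ℝ) := by norm_num
  rcases hres with h14 | h15
  · rw [e1] at H
    exact ⟨lam, lo, stage_R0 (jr14 h.θ1 h14) H⟩
  · have F := Pin851.drop1 h hlt h15
    rw [e1] at H F
    rw [e1] at hV
    exact stage_R (by norm_num) hV (jr15 h.θ1 h15) (by decide) H hg F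

/-! ### from an object -/

/-- **the stage of `quad` from an object**, record point at `v1` -/
theorem ob_quad (hR : RowsC) {w0 R T0 : ℝ} {B B' : Base} {I0 I : ℕ → Finset (ℕ × ℝ)} {κ : ℕ → ℝ}
    {u : ℕ → Fin 18 → ℝ} {F : ℕ → ℕ × ℝ → FW} {X : ℕ → Fin 18 → ℝ} {w Tn To : ℕ → ℝ}
    {PD : Set (Fin 18 → ℝ)} {c₀ : ℝ}
    (H : ZW θ g q V T w0 R T0 B B' I0 I κ u F X w Tn To PD ν own c₀)
    (hS : SlotOkW θ (fun k => k ∈ V) (fun k => k ∈ T)) (hs : ∀ k ∈ V, KW θ k < 2)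
    (hres : Res2 θ) {v1 : ℝ} (h0 : 0 < v1) (h1 : v1 < 1) :
    CtxW (Leg monW R) ν own 18 (pathW θ w0 v1) θ g q V T ∧
    ∃ lam lo, Stage QW (Leg monW R) ν own 18 (pathW θ w0 v1) (btW θ) (DlW g q) (QdW θ) (ZR θ 2)
      V 0 (btW θ) 1 (actW (DrR θ 2)) (DrR θ 2) lam lo := by
  have C := CtxZ830.seamCtx _ _ _ _ _ _ _ _ _ _ _ _ _ _ _ _ _ _ _ _ _ _ _ H hS v1 h0 h1
  exact ⟨C, stage_quad hR C (H.init h0 h1) hs hres⟩

/-- **the stage of `lin` from an object**, record point at `v1` -/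
theorem ob_lin (hR : RowsC) {w0 R T0 : ℝ} {B B' : Base} {I0 I : ℕ → Finset (ℕ × ℝ)} {κ : ℕ → ℝ}
    {u : ℕ → Fin 18 → ℝ} {F : ℕ → ℕ × ℝ → FW} {X : ℕ → Fin 18 → ℝ} {w Tn To : ℕ → ℝ}
    {PD : Set (Fin 18 → ℝ)} {c₀ : ℝ}
    (H : ZW θ g q V T w0 R T0 B B' I0 I κ u F X w Tn To PD ν own c₀)
    (hz : ZeroS (Leg monW R) ν own Zs)
    (hS : SlotOkW θ (fun k => k ∈ V) (fun k => k ∈ T)) (hV0 : ∀ k, k ∉ V)
    (h2 : ↑(JW 2) ⊆ Zs ∨ ¬ Res2 θ) (hres : Res1 θ) {v1 : ℝ} (h0 : 0 < v1) (h1 : v1 < 1) :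
    CtxW (Leg monW R) ν own 18 (pathW θ w0 v1) θ g q V T ∧
    ∃ lam lo, Stage QW (Leg monW R) ν own 18 (pathW θ w0 v1) (btW θ) (DlW g q) (QdW θ) (ZR θ 1)
      V 0 (btW θ) 1 (actW (DrR θ 1)) (DrR θ 1) lam lo := by
  have C := CtxZ830.seamCtx _ _ _ _ _ _ _ _ _ _ _ _ _ _ _ _ _ _ _ _ _ _ _ H hS v1 h0 h1
  exact ⟨C, stage_lin hR C hz (H.init h0 h1) hV0 h2 hres⟩

/-- **stage + interior point of `quad`** (887's `hasQuadN`) -/
theorem ob_quadN (hR : RowsC) {w0 R T0 : ℝ} {B B' : Base} {I0 I : ℕ → Finset (ℕ × ℝ)} {κ : ℕ → ℝ}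
    {u : ℕ → Fin 18 → ℝ} {F : ℕ → ℕ × ℝ → FW} {X' : ℕ → Fin 18 → ℝ} {w Tn To : ℕ → ℝ}
    {PD : Set (Fin 18 → ℝ)} {c₀ : ℝ}
    (H : ZW θ g q V T w0 R T0 B B' I0 I κ u F X' w Tn To PD ν own c₀)
    (hS : SlotOkW θ (fun k => k ∈ V) (fun k => k ∈ T)) (hs : ∀ k ∈ V, KW θ k < 2)
    (hres : Res2 θ) {v1 : ℝ} (h0 : 0 < v1) (h1 : v1 < 1) :
    CtxW (Leg monW R) ν own 18 (pathW θ w0 v1) θ g q V T ∧
    ∃ lam lo, Stage QW (Leg monW R) ν own 18 (pathW θ w0 v1) (btW θ) (DlW g q) (QdW θ) (ZR θ 2)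
      V 0 (btW θ) 1 (actW (DrR θ 2)) (DrR θ 2) lam lo ∧
    ∃ z : ℝ × ℝ, z.1 < 0 ∧ ∃ k : ℕ → ℝ, (∀ l, 0 < k l) ∧ Tendsto k atTop (𝓝 0) ∧
      ∃ (lamI loI : (Fin 18 → ℝ) → ℝ) (mm : ℝ),
        IsTan (cn QW (actW (DrR θ 2))) (cn QW (actW (DrR θ 2))) lam
          (fun _ => X 0 (TD (DrR θ 2)) (btW θ) z) k lamI ∧
        IsTan (cn QW (actW (DrR θ 2))) (cn QW (actW (DrR θ 2))) lo
          (fun _ => X 0 (TD (DrR θ 2)) (btW θ) z) k loI ∧
        QdN (DrR θ 2) lamI mm := by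
  obtain ⟨C, lam, lo, hst⟩ := ob_quad hR H hS hs hres h0 h1
  exact ⟨C, lam, lo, hst, hasQuadN C hs hres (drR2_ok C.θ1 hres) drR2_7 drR2_9 rfl hst⟩

end Crest.Agent.R136.SZ480
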