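import Crest.Agent.R136.Qd17_329
import Crest.Agent.R136.Qgn4_887
import Crest.Agent.R136.SZ2_480

/-!
# R136, thin branch (helper619): from helper887's window of `quad` to helper329's

* `QdWD.win`, `QdWD.nums` : `QdWD Dr W κ u f mm x ⊢ QWin W κ u f Dr x`, `QNu W.nu Dr x mm`
* **`QdWD.quad`** : `QuadRel` on a `ρ^ε`-part of every honest set of a window `QdWD`
* **`quad_core`** : `QuadRel` on all classes of a dense part of a zoom window
* `drR2_fin` : the dropped slots of the stage of `quad` as a `Finset`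
-/

set_option autoImplicit false
set_option linter.unusedSectionVars false
set_option linter.unusedVariables false

open Filter Topology

namespace Crest.Agent.R136.Qc619

open Finset Crest.Agent.R138.Ex926 Crest.Agent.R136.Net191 Crest.Agent.R136.Gf356
open Crest.Agent.R136.Qg926 Crest.Agent.R136.Dg219 Crest.Agent.R136.Aw413
open Crest.Agent.R136.NetW191 Crest.Agent.R136.EvW938 Crest.Agent.R136.PrW464
open Crest.Agent.R136.LadW697 Crest.Agent.R136.AwJ774 Crest.Agent.R136.Bas938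
open Crest.Agent.R136.Ht887 Crest.Agent.R136.Win887
open Crest.Agent.R136.K2S774 Crest.Agent.R136.LadT830
open Crest.Agent.R136.LadG697 (coU)
open Crest.Agent.R136.Int599 (iw)
open Crest.Agent.R136.QdH887 (bv bv_in bv_out)
open Crest.Agent.R136.Qgn887 (QdWD S6 DrOk QdN qd_core)
open Crest.Agent.R136.Qd329 (QWin QNu QuadRel qb)
open Crest.Agent.R136.SZ480 (DrR drR2_ok drR2_7 drR2_9)

theorem qb_bv (Q : Finset (Fin 18)) (x : ℝ) : qb Q x = bv x Q := rfl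

theorem Sq_S6 (Dr : Finset (Fin 18)) : Qd329.Sq Dr = S6 Dr := rfl

theorem qb_one (y : ℝ) : qb {1} y = Pi.single 1 y := by
  funext k
  by_cases hk : k = 1
  · subst hk; simp [qb]
  · simp [qb, hk]

section win

variable {Dr : Finset (Fin 18)} {W : Wnd 18 fun _ => ℕ × ℝ} {κ : ℕ → ℝ} {u : ℕ → Fin 18 → ℝ}
  {f : ∀ n : ℕ, ℕ × ℝ → FW} {mm x : ℝ}

/-- the window -/
theorem win (g : QdWD Dr W κ u f mm x)
    (dr : Dr = {4, 5, 6, 8} ∨ Dr = {4, 5, 6, 7, 8} ∨ Dr = {4, 5, 6, 7, 8, 9}) :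
    QWin W κ u f Dr x where
  x0 := g.x0
  ww := g.ww
  eS := g.eS
  etop := g.etop
  ekap := g.ekap
  dw := g.dw
  hk := g.hk
  dr := dr
  tight := g.tight
  gap := g.gap
  dens := g.dens
  frost := g.frost
  leg := g.leg

/-- the numbers -/
theorem nums (g : QdWD Dr W κ u f mm x) : QNu W.nu Dr x mm where
  m0 := g.m0
  n1 := by rw [qb_bv, qb_bv]; exact g.n1.ge
  n2 := by rw [qb_bv, qb_bv]; exact g.n2.ge
  n3 := by rw [qb_bv, qb_bv, qb_bv]; exact g.n3.le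
  n4 := by rw [qb_bv]; linarith [g.n4]
  n5 := fun y hy _ => by rw [qb_one]; linarith [g.n5 y hy]
  n6 := fun h7 y hy hyx => by rw [Sq_S6, qb_bv]; exact g.n6 h7 y hy hyx

/-- **`quad` in helper887's window** -/
theorem quad (g : QdWD Dr W κ u f mm x)
    (dr : Dr = {4, 5, 6, 8} ∨ Dr = {4, 5, 6, 7, 8} ∨ Dr = {4, 5, 6, 7, 8, 9})
    {E : ℕ → Finset (ℕ × ℝ)} {Mu : ℕ → ℝ} (hE : Wnd.EOk W E Mu) {ε : ℝ} (hε : 0 < ε) :
    ∀ᶠ n in (U : Filter ℕ), ∃ G' ⊆ E n, W.B'.d n ^ ε * ((E n).card : ℝ) ≤ (G'.card : ℝ) ∧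
      QuadRel W κ u f Dr n x ε G' :=
  QWin.quad (win g dr) (nums g) hE hε

end win

/-! ### the dropped slots -/

/-- **the dropped slots of the stage of `quad`** -/
theorem drR2_fin {θ : Fin 3 → ℝ} (h1 : 0 < θ 1) (hres : Res2 θ) :
    ∃ D : Finset (Fin 18), (↑D : Set (Fin 18)) = DrR θ 2 ∧
      (D = {4, 5, 6, 8} ∨ D = {4, 5, 6, 7, 8} ∨ D = {4, 5, 6, 7, 8, 9}) := by
  classical
  have hok := drR2_ok h1 hres
  have h97 : (9 : Fin 18) ∈ DrR θ 2 → (7 : Fin 18) ∈ DrR θ 2 := by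
    rintro (h | h)
    · have h2 := h.2
      have h3 : alW (9 : Fin 18) = 2 := by decide
      rw [h3] at h2
      exact absurd h2 (by norm_num)
    · refine Or.inr ⟨by decide, ?_⟩
      have e := SZ480.btW_sub (θ := θ) (k := 7) (l := 9) (by decide) (by decide)
      rw [e]
      have h2 : (0 : ℝ) < btW θ 9 := h.2
      have h3 : wc 9 - wc 7 = 1 := by decide
      rw [h3]
      push_cast
      linarith
  have key : ∀ k, k ∈ DrR θ 2 ↔ k ∈ QdH887.D2 ∨ (k = 7 ∧ (7 : Fin 18) ∈ DrR θ 2) ∨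
      (k = 9 ∧ (9 : Fin 18) ∈ DrR θ 2) := fun k => by
    constructor
    · intro hk
      rcases hok.hi k hk with h | h | h
      · exact Or.inl h
      · exact Or.inr (Or.inl ⟨h, h ▸ hk⟩)
      · exact Or.inr (Or.inr ⟨h, h ▸ hk⟩)
    · rintro (h | ⟨h, h'⟩ | ⟨h, h'⟩)
      · exact hok.lo k h
      · rw [h]; exact h'
      · rw [h]; exact h'
  by_cases h7 : (7 : Fin 18) ∈ DrR θ 2
  · by_cases h9 : (9 : Fin 18) ∈ DrR θ 2
    · refine ⟨{4, 5, 6, 7, 8, 9}, ?_, Or.inr (Or.inr rfl)⟩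
      ext k
      rw [key k]
      simp only [h7, h9, and_true, mem_coe]
      revert k; decide
    · refine ⟨{4, 5, 6, 7, 8}, ?_, Or.inr (Or.inl rfl)⟩
      ext k
      rw [key k]
      simp only [h7, h9, and_true, and_false, or_false, mem_coe]
      revert k; decide
  · have h9 : (9 : Fin 18) ∉ DrR θ 2 := fun h => h7 (h97 h)
    refine ⟨{4, 5, 6, 8}, ?_, Or.inl rfl⟩
    ext k
    rw [key k]
    simp only [h7, h9, and_false, or_false, mem_coe]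
    revert k; decide

section zoom

variable {B B' : Base} {I J : ℕ → Finset (ℕ × ℝ)}
  {kp : ℕ → ℝ} {u : ℕ → Fin 18 → ℝ} {f : ℕ → ℕ × ℝ → FW} {Y : ℕ → Fin 18 → ℝ}
  {w : ℕ → ℝ} {Tz : ℕ → ℝ} {Dr : Finset (Fin 18)} {lam : (Fin 18 → ℝ) → ℝ} {x mm : ℝ}

/-- **`QuadRel` with the units of the zoom window** -/
def QRelY (B B' : Base) (Y : ℕ → Fin 18 → ℝ) (u : ℕ → Fin 18 → ℝ) (κ : ℕ → ℝ)
    (f : ℕ → ℕ × ℝ → FW) (Dr : Finset (Fin 18)) (x : ℝ) (n : ℕ) (ε : ℝ)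
    (G' : Finset (ℕ × ℝ)) : Prop :=
  ∃ j : ℕ × ℝ → Fin 14 → ℝ,
    (∀ y q, q ∉ ({3, 5, 6} : Finset (Fin 14)) ∨ (Fin.natAdd 4 q : Fin 18) ∈ Dr → j y q = 0) ∧
    (∀ y ∈ G', ∀ q, |j y q| ≤
      B'.d n ^ (-ε) * (B.d n ^ Y n (Fin.natAdd 4 q) / u n (Fin.natAdd 4 q))) ∧
    ∀ y ∈ G', ∀ y' ∈ G', ∀ q ∈ ({3, 5, 6, 7, 8, 9, 10, 11, 12} : Finset (Fin 14)),
      (Fin.natAdd 4 q : Fin 18) ∉ Dr →
      |coW (κ n) (f n y) (f n y') (Fin.natAdd 4 q) -
        (j y' q - tr (κ n) (frm (coW (κ n) (f n y) (f n y'))) (j y) q)| ≤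
        B'.d n ^ (x - ε) * (B.d n ^ Y n (Fin.natAdd 4 q) / u n (Fin.natAdd 4 q))

/-- **`quad` on all classes of a dense part** -/
theorem quad_core (hZ : ZWin B B' I J (coU u kp f) monW 67 Y w (cn QW (actW ↑Dr)) Tz lam)
    (hX : AwZ146.BasX monW (mA monW (actW ↑Dr)) (mA monW (actW ↑Dr)) Y w)
    (hgr : ∀ n, GrU (u n)) (hk1 : ∀ n, |kp n| ≤ 1)
    (hkp : B'.Sub fun n => |kp n|⁻¹) (hN : QdN ↑Dr lam mm) (hx : 0 < x)
    (dr : Dr = {4, 5, 6, 8} ∨ Dr = {4, 5, 6, 7, 8} ∨ Dr = {4, 5, 6, 7, 8, 9}) :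
    ∃ J1 : ℕ → Finset (ℕ × ℝ), (∀ n, J1 n ⊆ J n) ∧ Crest.Agent.R138.Dp76.Dense B' J1 J ∧
      ∀ ε : ℝ, 0 < ε → ∀ᶠ n in (U : Filter ℕ), ∀ s ∈ J1 n,
        QRelY B B' Y u kp f Dr x n ε
          (cls (J1 n) (zlab B I (coU u kp f) monW 67 Y w n 0) s) := by
  have hD : DrOk (↑Dr : Set (Fin 18)) := by
    rcases dr with h | h | h
    · exact ⟨fun k hk => by rw [h]; revert k; decide, fun k hk => by rw [h] at hk; revert k; decide⟩
    · exact ⟨fun k hk => by rw [h]; revert k; decide, fun k hk => by rw [h] at hk; revert k; decide⟩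
    · exact ⟨fun k hk => by rw [h]; revert k; decide, fun k hk => by rw [h] at hk; revert k; decide⟩
  have hu : ∀ n s, 0 < B.d n ^ Y n s / u n s := fun n s =>
    div_pos (Real.rpow_pos_of_pos (B.pos n) _) ((hgr n).pos s)
  refine qd_core hZ hX hgr hk1 hkp hD hN hx (fun n ε G => QRelY B B' Y u kp f Dr x n ε G) ?_ ?_ ?_
  · rintro n ε G G' hG ⟨j, h1, h2, h3⟩
    exact ⟨j, h1, fun y hy => h2 y (hG hy), fun y hy y' hy' => h3 y (hG hy) y' (hG hy')⟩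
  · rintro n ε ε' G h ⟨j, h1, h2, h3⟩
    have e1 : B'.d n ^ (x - ε) ≤ B'.d n ^ (x - ε') :=
      Real.rpow_le_rpow_of_exponent_ge (B'.pos n) (B'.lt n).le (by linarith)
    have e2 : B'.d n ^ (-ε) ≤ B'.d n ^ (-ε') :=
      Real.rpow_le_rpow_of_exponent_ge (B'.pos n) (B'.lt n).le (by linarith)
    exact ⟨j, h1, fun y hy q => (h2 y hy q).trans (mul_le_mul_of_nonneg_right e2 (hu n _).le),
      fun y hy y' hy' q hq hq' => (h3 y hy y' hy' q hq hq').trans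
        (mul_le_mul_of_nonneg_right e1 (hu n _).le)⟩
  · intro Gd s₀ E Mu hGd g hE ε hε
    exact quad g dr hE hε

end zoom

end Crest.Agent.R136.Qc619
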