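import Crest.Agent.R136.Qd9_329

/-!
# R136: the bilinear rigidity (helper329), part 10: `quad_full`, with the slots `P` and `R`
-/

set_option autoImplicit false

open Filter Topology

namespace Crest.Agent.R136.Qd329

open Finset
open Crest.Agent.R138.Ex926 (Base U)
open Crest.Agent.R136.Gf356

/-! ### real numbers -/

/-- the part of `R` given by the relation -/
noncomputable def rR (κ l1 l2 m1 m2 ζ0 Z0 c : ℝ) : ℝ :=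
  -κ * c ^ 3 * ((l1 + m2) / 2) + c ^ 2 * (l2 / 2) + κ ^ 2 * c ^ 4 * (m1 / 2) - κ * c ^ 2 * ζ0 +
    c * Z0

theorem phiR_evo (κ l1 l2 m1 m2 s0 β0 ζ0 Z0 a b c u : ℝ) :
    phiR κ l1 l2 m1 m2 (s0 + u * Z0) (β0 + u * ζ0) ζ0 Z0 (a + u * c) (b - κ * u * c ^ 2) c -
      phiR κ l1 l2 m1 m2 s0 β0 ζ0 Z0 a b c = 2 * u * rR κ l1 l2 m1 m2 ζ0 Z0 c := by
  unfold phiR rR
  ring

theorem abs_mul_le' {x y X Y : ℝ} (hx : |x| ≤ X) (hy : |y| ≤ Y) : |x * y| ≤ X * Y := by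
  rw [abs_mul]
  exact mul_le_mul hx hy (abs_nonneg _) ((abs_nonneg _).trans hx)

theorem ARel.evo {κ l1 l2 m1 m2 s0 β0 ζ0 Z0 e a b c s β ζ Z a' b' c' s' β' ζ' Z' u M Λ : ℝ}
    (hκ : |κ| ≤ 1) (hM : 1 ≤ M) (hΛ : 1 ≤ Λ) (he : 0 ≤ e) (he1 : e ≤ 1) (hu : |u| ≤ M)
    (hc : |c| ≤ M) (h1 : |l1| ≤ Λ) (h2 : |l2| ≤ Λ) (h3 : |m1| ≤ Λ) (h4 : |m2| ≤ Λ)
    (hlm : |l1 - m2| ≤ e) (r : ARel κ l1 l2 m1 m2 s0 β0 ζ0 Z0 e a b c s β ζ Z)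
    (ea : |a' - (a + u * c)| ≤ e) (eb : |b' - (b - κ * u * c ^ 2)| ≤ e) (ec : |c' - c| ≤ e)
    (es : |s' - (s + u * Z)| ≤ e) (eβ : |β' - (β + u * ζ)| ≤ e) (eζ : |ζ' - ζ| ≤ e)
    (eZ : |Z' - Z| ≤ e) :
    ARel κ l1 l2 m1 m2 (s0 + u * Z0) (β0 + u * ζ0) ζ0 Z0 (20 * M ^ 3 * Λ * e) a' b' c' s' β' ζ'
      Z' := by
  have hMe : e ≤ M ^ 3 * Λ * e := by
    have h5 : 1 ≤ M ^ 3 * Λ := by
      have := one_le_pow₀ hM (n := 3)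
      nlinarith
    nlinarith
  have hMe1 : M * e ≤ M ^ 3 * Λ * e := by
    have h5 : M ≤ M ^ 3 * Λ := by
      have h6 : M ≤ M ^ 3 := by
        calc M = M ^ 1 := (pow_one M).symm
          _ ≤ M ^ 3 := pow_le_pow_right₀ hM (by norm_num)
      nlinarith [one_le_pow₀ hM (n := 3)]
    exact mul_le_mul_of_nonneg_right h5 he
  have hMe2 : Λ * e ≤ M ^ 3 * Λ * e := by
    have h5 : Λ ≤ M ^ 3 * Λ := by
      have := one_le_pow₀ hM (n := 3)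
      nlinarith
    exact mul_le_mul_of_nonneg_right h5 he
  have hMe3 : M ^ 3 * e ≤ M ^ 3 * Λ * e := by
    have h5 : M ^ 3 ≤ M ^ 3 * Λ := by
      have := one_le_pow₀ hM (n := 3)
      nlinarith
    exact mul_le_mul_of_nonneg_right h5 he
  have hMe4 : M ^ 2 * e ≤ M ^ 3 * Λ * e :=
    (mul_le_mul_of_nonneg_right (pow_le_pow_right₀ hM (by norm_num)) he).trans hMe3
  have hMe5 : M * Λ * e ≤ M ^ 3 * Λ * e := by
    have h6 : M ≤ M ^ 3 := by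
      calc M = M ^ 1 := (pow_one M).symm
        _ ≤ M ^ 3 := pow_le_pow_right₀ hM (by norm_num)
    have : 0 ≤ Λ * e := by positivity
    nlinarith
  have hc2 : |c' ^ 2 - c ^ 2| ≤ 3 * M * e := by
    have e1 : c' ^ 2 - c ^ 2 = (2 * c + (c' - c)) * (c' - c) := by ring
    rw [e1]
    refine abs_mul_le' ?_ ec
    have := abs_add_le (2 * c) (c' - c)
    rw [abs_mul, abs_two] at this
    linarith
  have hκc : |κ * u * c ^ 2| ≤ M ^ 3 := by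
    have : |κ * u * c ^ 2| ≤ 1 * M * M ^ 2 := by
      refine abs_mul_le' (abs_mul_le' hκ hu) ?_
      rw [abs_pow]; exact pow_le_pow_left₀ (abs_nonneg _) hc 2
    linarith
  constructor
  · have e1 : s' - (l1 * b' + l2 * a' + (s0 + u * Z0)) =
        (s' - (s + u * Z)) + (s - (l1 * b + l2 * a + s0)) +
        u * (Z - (l2 * c - κ * m2 * c ^ 2 + Z0)) - l1 * (b' - (b - κ * u * c ^ 2)) -
        l2 * (a' - (a + u * c)) + (κ * u * c ^ 2) * (l1 - m2) := by ring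
    rw [e1]
    have k1 := abs_mul_le' hu r.rZ
    have k2 := abs_mul_le' h1 eb
    have k3 := abs_mul_le' h2 ea
    have k4 := abs_mul_le' hκc hlm
    have t1 := abs_add_le ((s' - (s + u * Z)) + (s - (l1 * b + l2 * a + s0)) +
        u * (Z - (l2 * c - κ * m2 * c ^ 2 + Z0)) - l1 * (b' - (b - κ * u * c ^ 2)) -
        l2 * (a' - (a + u * c))) ((κ * u * c ^ 2) * (l1 - m2))
    have t2 := abs_sub ((s' - (s + u * Z)) + (s - (l1 * b + l2 * a + s0)) +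
        u * (Z - (l2 * c - κ * m2 * c ^ 2 + Z0)) - l1 * (b' - (b - κ * u * c ^ 2)))
        (l2 * (a' - (a + u * c)))
    have t3 := abs_sub ((s' - (s + u * Z)) + (s - (l1 * b + l2 * a + s0)) +
        u * (Z - (l2 * c - κ * m2 * c ^ 2 + Z0))) (l1 * (b' - (b - κ * u * c ^ 2)))
    have t4 := abs_add_le ((s' - (s + u * Z)) + (s - (l1 * b + l2 * a + s0)))
        (u * (Z - (l2 * c - κ * m2 * c ^ 2 + Z0)))
    have t5 := abs_add_le (s' - (s + u * Z)) (s - (l1 * b + l2 * a + s0))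
    have := r.rs
    linarith
  · have e1 : β' - (m1 * b' + m2 * a' + (β0 + u * ζ0)) =
        (β' - (β + u * ζ)) + (β - (m1 * b + m2 * a + β0)) +
        u * (ζ - (l1 * c - κ * m1 * c ^ 2 + ζ0)) - m1 * (b' - (b - κ * u * c ^ 2)) -
        m2 * (a' - (a + u * c)) + (u * c) * (l1 - m2) := by ring
    rw [e1]
    have k1 := abs_mul_le' hu r.rζ
    have k2 := abs_mul_le' h3 eb
    have k3 := abs_mul_le' h4 ea
    have k4 := abs_mul_le' (abs_mul_le' hu hc) hlm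
    have t1 := abs_add_le ((β' - (β + u * ζ)) + (β - (m1 * b + m2 * a + β0)) +
        u * (ζ - (l1 * c - κ * m1 * c ^ 2 + ζ0)) - m1 * (b' - (b - κ * u * c ^ 2)) -
        m2 * (a' - (a + u * c))) ((u * c) * (l1 - m2))
    have t2 := abs_sub ((β' - (β + u * ζ)) + (β - (m1 * b + m2 * a + β0)) +
        u * (ζ - (l1 * c - κ * m1 * c ^ 2 + ζ0)) - m1 * (b' - (b - κ * u * c ^ 2)))
        (m2 * (a' - (a + u * c)))
    have t3 := abs_sub ((β' - (β + u * ζ)) + (β - (m1 * b + m2 * a + β0)) +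
        u * (ζ - (l1 * c - κ * m1 * c ^ 2 + ζ0))) (m1 * (b' - (b - κ * u * c ^ 2)))
    have t4 := abs_add_le ((β' - (β + u * ζ)) + (β - (m1 * b + m2 * a + β0)))
        (u * (ζ - (l1 * c - κ * m1 * c ^ 2 + ζ0)))
    have t5 := abs_add_le (β' - (β + u * ζ)) (β - (m1 * b + m2 * a + β0))
    have := r.rβ
    have k5 : M * M * e = M ^ 2 * e := by ring
    linarith
  · have e1 : ζ' - (l1 * c' - κ * m1 * c' ^ 2 + ζ0) =
        (ζ' - ζ) + (ζ - (l1 * c - κ * m1 * c ^ 2 + ζ0)) - l1 * (c' - c) +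
        (κ * m1) * (c' ^ 2 - c ^ 2) := by ring
    rw [e1]
    have k2 := abs_mul_le' h1 ec
    have k3 := abs_mul_le' (abs_mul_le' hκ h3) hc2
    have t1 := abs_add_le ((ζ' - ζ) + (ζ - (l1 * c - κ * m1 * c ^ 2 + ζ0)) - l1 * (c' - c))
        ((κ * m1) * (c' ^ 2 - c ^ 2))
    have t2 := abs_sub ((ζ' - ζ) + (ζ - (l1 * c - κ * m1 * c ^ 2 + ζ0))) (l1 * (c' - c))
    have t3 := abs_add_le (ζ' - ζ) (ζ - (l1 * c - κ * m1 * c ^ 2 + ζ0))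
    have := r.rζ
    linarith
  · have e1 : Z' - (l2 * c' - κ * m2 * c' ^ 2 + Z0) =
        (Z' - Z) + (Z - (l2 * c - κ * m2 * c ^ 2 + Z0)) - l2 * (c' - c) +
        (κ * m2) * (c' ^ 2 - c ^ 2) := by ring
    rw [e1]
    have k2 := abs_mul_le' h2 ec
    have k3 := abs_mul_le' (abs_mul_le' hκ h4) hc2
    have t1 := abs_add_le ((Z' - Z) + (Z - (l2 * c - κ * m2 * c ^ 2 + Z0)) - l2 * (c' - c))
        ((κ * m2) * (c' ^ 2 - c ^ 2))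
    have t2 := abs_sub ((Z' - Z) + (Z - (l2 * c - κ * m2 * c ^ 2 + Z0))) (l2 * (c' - c))
    have t3 := abs_add_le (Z' - Z) (Z - (l2 * c - κ * m2 * c ^ 2 + Z0))
    have := r.rZ
    linarith

set_option maxHeartbeats 600000 in
/-- `phiR` is Lipschitz -/
theorem phiR_lip {κ l1 l2 m1 m2 s0 β0 ζ0 Z0 e a b c a' b' c' M Λ : ℝ}
    (hκ : |κ| ≤ 1) (hM : 1 ≤ M) (hΛ : 1 ≤ Λ) (he : 0 ≤ e) (he1 : e ≤ 1)
    (h1 : |l1| ≤ Λ) (h2 : |l2| ≤ Λ) (h3 : |m1| ≤ Λ) (h4 : |m2| ≤ Λ) (h5 : |s0| ≤ Λ)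
    (h6 : |β0| ≤ Λ) (h7 : |ζ0| ≤ Λ) (h8 : |Z0| ≤ Λ) (ha : |a'| ≤ M) (hb : |b'| ≤ M)
    (hc : |c'| ≤ M) (ea : |a' - a| ≤ e) (eb : |b' - b| ≤ e) (ec : |c' - c| ≤ e) :
    |phiR κ l1 l2 m1 m2 s0 β0 ζ0 Z0 a' b' c' - phiR κ l1 l2 m1 m2 s0 β0 ζ0 Z0 a b c| ≤
      40 * M ^ 2 * Λ * e := by
  have hc1 : |c| ≤ 2 * M := by
    have e1 : c = c' - (c' - c) := by ring
    rw [e1]
    have := abs_sub c' (c' - c)
    linarith
  have hc2 : |c' ^ 2 - c ^ 2| ≤ 3 * M * e := by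
    have e1 : c' ^ 2 - c ^ 2 = (c' + c) * (c' - c) := by ring
    rw [e1]
    refine abs_mul_le' ?_ ec
    have := abs_add_le c' c
    linarith
  have hlin : ∀ p q t : ℝ, |p| ≤ Λ → |q| ≤ Λ → |t| ≤ Λ → |p * b' + q * a' + t| ≤ 3 * M * Λ := by
    intro p q t hp hq ht
    have k1 := abs_mul_le' hp hb
    have k2 := abs_mul_le' hq ha
    have t1 := abs_add_le (p * b' + q * a') t
    have t2 := abs_add_le (p * b') (q * a')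
    have t3 : Λ ≤ Λ * M := by nlinarith
    linarith
  have hdif : ∀ p q : ℝ, |p| ≤ Λ → |q| ≤ Λ → |p * (b' - b) + q * (a' - a)| ≤ 2 * (Λ * e) := by
    intro p q hp hq
    have k1 := abs_mul_le' hp eb
    have k2 := abs_mul_le' hq ea
    have t2 := abs_add_le (p * (b' - b)) (q * (a' - a))
    linarith
  have e1 : phiR κ l1 l2 m1 m2 s0 β0 ζ0 Z0 a' b' c' - phiR κ l1 l2 m1 m2 s0 β0 ζ0 Z0 a b c =
      (c' - c) * (l1 * b' + l2 * a' + s0) + c * (l1 * (b' - b) + l2 * (a' - a)) -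
      κ * ((c' ^ 2 - c ^ 2) * (m1 * b' + m2 * a' + β0)) -
      κ * (c ^ 2 * (m1 * (b' - b) + m2 * (a' - a))) + (ζ0 * (b' - b) + Z0 * (a' - a)) := by
    unfold phiR; ring
  rw [e1]
  have k1 := abs_mul_le' ec (hlin _ _ _ h1 h2 h5)
  have k2 := abs_mul_le' hc1 (hdif _ _ h1 h2)
  have k3 := abs_mul_le' hκ (abs_mul_le' hc2 (hlin _ _ _ h3 h4 h6))
  have hcc : |c ^ 2| ≤ (2 * M) ^ 2 := by
    rw [abs_pow]; exact pow_le_pow_left₀ (abs_nonneg _) hc1 2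
  have k4 := abs_mul_le' hκ (abs_mul_le' hcc (hdif _ _ h3 h4))
  have k5 := hdif _ _ h7 h8
  have t1 := abs_add_le ((c' - c) * (l1 * b' + l2 * a' + s0) +
      c * (l1 * (b' - b) + l2 * (a' - a)) -
      κ * ((c' ^ 2 - c ^ 2) * (m1 * b' + m2 * a' + β0)) -
      κ * (c ^ 2 * (m1 * (b' - b) + m2 * (a' - a)))) (ζ0 * (b' - b) + Z0 * (a' - a))
  have t2 := abs_sub ((c' - c) * (l1 * b' + l2 * a' + s0) +
      c * (l1 * (b' - b) + l2 * (a' - a)) -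
      κ * ((c' ^ 2 - c ^ 2) * (m1 * b' + m2 * a' + β0)))
      (κ * (c ^ 2 * (m1 * (b' - b) + m2 * (a' - a))))
  have t3 := abs_sub ((c' - c) * (l1 * b' + l2 * a' + s0) +
      c * (l1 * (b' - b) + l2 * (a' - a)))
      (κ * ((c' ^ 2 - c ^ 2) * (m1 * b' + m2 * a' + β0)))
  have t4 := abs_add_le ((c' - c) * (l1 * b' + l2 * a' + s0))
      (c * (l1 * (b' - b) + l2 * (a' - a)))
  have q0 : 0 ≤ Λ * e := by positivity
  have q1 : Λ * e ≤ M ^ 2 * (Λ * e) := by nlinarith [one_le_pow₀ hM (n := 2)]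
  have q2 : M * (Λ * e) ≤ M ^ 2 * (Λ * e) :=
    mul_le_mul_of_nonneg_right (by nlinarith) q0
  have r1 : e * (3 * M * Λ) = 3 * (M * (Λ * e)) := by ring
  have r2 : 2 * M * (2 * (Λ * e)) = 4 * (M * (Λ * e)) := by ring
  have r3 : 1 * (3 * M * e * (3 * M * Λ)) = 9 * (M ^ 2 * (Λ * e)) := by ring
  have r4 : 1 * ((2 * M) ^ 2 * (2 * (Λ * e))) = 8 * (M ^ 2 * (Λ * e)) := by ring
  have r5 : 40 * M ^ 2 * Λ * e = 40 * (M ^ 2 * (Λ * e)) := by ring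
  rw [r1] at k1
  rw [r2] at k2
  rw [r3] at k3
  rw [r4] at k4
  rw [r5]
  have q3 : 0 ≤ M ^ 2 * (Λ * e) := by positivity
  linarith only [t1, t2, t3, t4, k1, k2, k3, k4, k5, q1, q2, q3]

/-- the slot `R` from two heights -/
theorem R_two {κ l1 l2 m1 m2 s0 β0 ζ0 Z0 P0 P1 e E a b c Φ Rr a' b' c' Φ' u M Λ : ℝ}
    (hκ : |κ| ≤ 1) (hM : 1 ≤ M) (hΛ : 1 ≤ Λ) (he : 0 ≤ e) (he1 : e ≤ 1)
    (h1 : |l1| ≤ Λ) (h2 : |l2| ≤ Λ) (h3 : |m1| ≤ Λ) (h4 : |m2| ≤ Λ) (h5 : |s0 + u * Z0| ≤ Λ)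
    (h6 : |β0 + u * ζ0| ≤ Λ) (h7 : |ζ0| ≤ Λ) (h8 : |Z0| ≤ Λ) (ha : |a'| ≤ M) (hb : |b'| ≤ M)
    (hc : |c'| ≤ M) (ea : |a' - (a + u * c)| ≤ e) (eb : |b' - (b - κ * u * c ^ 2)| ≤ e)
    (ec : |c' - c| ≤ e) (eΦ : |Φ' - (Φ + 2 * u * Rr)| ≤ e)
    (k0 : |Φ - phiR κ l1 l2 m1 m2 s0 β0 ζ0 Z0 a b c - P0| ≤ E)
    (k1 : |Φ' - phiR κ l1 l2 m1 m2 (s0 + u * Z0) (β0 + u * ζ0) ζ0 Z0 a' b' c' - P1| ≤ E) :
    |2 * u * (Rr - rR κ l1 l2 m1 m2 ζ0 Z0 c) - (P1 - P0)| ≤ 2 * E + e + 40 * M ^ 2 * Λ * e := by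
  have hl := phiR_lip hκ hM hΛ he he1 h1 h2 h3 h4 h5 h6 h7 h8 ha hb hc ea eb ec
  have hid := phiR_evo κ l1 l2 m1 m2 s0 β0 ζ0 Z0 a b c u
  have e1 : 2 * u * (Rr - rR κ l1 l2 m1 m2 ζ0 Z0 c) - (P1 - P0) =
      -(Φ' - (Φ + 2 * u * Rr)) +
      (Φ' - phiR κ l1 l2 m1 m2 (s0 + u * Z0) (β0 + u * ζ0) ζ0 Z0 a' b' c' - P1) -
      (Φ - phiR κ l1 l2 m1 m2 s0 β0 ζ0 Z0 a b c - P0) +
      (phiR κ l1 l2 m1 m2 (s0 + u * Z0) (β0 + u * ζ0) ζ0 Z0 a' b' c' -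
        phiR κ l1 l2 m1 m2 (s0 + u * Z0) (β0 + u * ζ0) ζ0 Z0 (a + u * c) (b - κ * u * c ^ 2) c) +
      (phiR κ l1 l2 m1 m2 (s0 + u * Z0) (β0 + u * ζ0) ζ0 Z0 (a + u * c) (b - κ * u * c ^ 2) c -
        phiR κ l1 l2 m1 m2 s0 β0 ζ0 Z0 a b c - 2 * u * rR κ l1 l2 m1 m2 ζ0 Z0 c) := by ring
  rw [e1, hid, sub_self, add_zero]
  have t1 := abs_add_le (-(Φ' - (Φ + 2 * u * Rr)) +
      (Φ' - phiR κ l1 l2 m1 m2 (s0 + u * Z0) (β0 + u * ζ0) ζ0 Z0 a' b' c' - P1) -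
      (Φ - phiR κ l1 l2 m1 m2 s0 β0 ζ0 Z0 a b c - P0))
      (phiR κ l1 l2 m1 m2 (s0 + u * Z0) (β0 + u * ζ0) ζ0 Z0 a' b' c' -
        phiR κ l1 l2 m1 m2 (s0 + u * Z0) (β0 + u * ζ0) ζ0 Z0 (a + u * c) (b - κ * u * c ^ 2) c)
  have t2 := abs_sub (-(Φ' - (Φ + 2 * u * Rr)) +
      (Φ' - phiR κ l1 l2 m1 m2 (s0 + u * Z0) (β0 + u * ζ0) ζ0 Z0 a' b' c' - P1))
      (Φ - phiR κ l1 l2 m1 m2 s0 β0 ζ0 Z0 a b c - P0)
  have t3 := abs_add_le (-(Φ' - (Φ + 2 * u * Rr)))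
      (Φ' - phiR κ l1 l2 m1 m2 (s0 + u * Z0) (β0 + u * ζ0) ζ0 Z0 a' b' c' - P1)
  rw [abs_neg] at t3
  linarith

/-- absolute form from the pair form -/
theorem ARel.of_pair {κ l1 l2 m1 m2 e a b c s β ζ Z a' b' c' s' β' ζ' Z' : ℝ}
    (h : |(s - s') - l1 * (b - b') - l2 * (a - a')| ≤ e ∧
      |(β - β') - m1 * (b - b') - m2 * (a - a')| ≤ e ∧
      |(ζ - ζ') - l1 * (c - c') + κ * m1 * (c ^ 2 - c' ^ 2)| ≤ e ∧
      |(Z - Z') - l2 * (c - c') + κ * m2 * (c ^ 2 - c' ^ 2)| ≤ e) :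
    ARel κ l1 l2 m1 m2 (s' - l1 * b' - l2 * a') (β' - m1 * b' - m2 * a')
      (ζ' - l1 * c' + κ * m1 * c' ^ 2) (Z' - l2 * c' + κ * m2 * c' ^ 2) e a b c s β ζ Z := by
  obtain ⟨h1, h2, h3, h4⟩ := h
  constructor
  · refine le_trans (le_of_eq ?_) h1
    congr 1; ring
  · refine le_trans (le_of_eq ?_) h2
    congr 1; ring
  · refine le_trans (le_of_eq ?_) h3
    congr 1; ring
  · refine le_trans (le_of_eq ?_) h4
    congr 1; ring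

end Crest.Agent.R136.Qd329
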