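import Crest.Agent.R136.Qd10_329

/-!
# R136: the bilinear rigidity (helper329), part 11: `quad_full`
-/

set_option autoImplicit false

open Filter Topology

namespace Crest.Agent.R136.Qd329

open Finset
open Crest.Agent.R138.Ex926 (Base U)
open Crest.Agent.R136.Gf356

variable {κ : Type} {B : Base} {G : ℕ → RCfg κ} {Leg : Set (κ → ℝ)} {ν : (κ → ℝ) → ℝ}
  {D σ R x M C m : ℝ} {p0 pA pp pv ppv pP vP : κ → ℝ} {pc : ℝ → κ → ℝ}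
  {a b c s β ζ Z Φ Rr : ℕ → ℕ → ℕ → ℝ} {kp : ℕ → ℝ}

/-- all rows of the evolution -/
structure QEvo2 (B : Base) (G : ℕ → RCfg κ) (x M : ℝ) (a b c s β ζ Z Φ Rr : ℕ → ℕ → ℕ → ℝ)
    (kp : ℕ → ℝ) : Prop where
  zbd : ∀ᶠ n in (U : Filter ℕ), ∀ k ∈ (G n).Z, ∀ k' ∈ (G n).Z, |(G n).z k' - (G n).z k| ≤ M
  fbd : ∀ᶠ n in (U : Filter ℕ), ∀ k l, (l, k) ∈ (G n).I → |Φ n k l| ≤ M ∧ |Rr n k l| ≤ M
  evo : ∀ ε : ℝ, 0 < ε → ∀ᶠ n in (U : Filter ℕ), ∀ k k' l, (l, k) ∈ (G n).I → (l, k') ∈ (G n).I →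
    |a n k' l - (a n k l + ((G n).z k' - (G n).z k) * c n k l)| ≤ B.d n ^ (x - ε) ∧
    |b n k' l - (b n k l - kp n * ((G n).z k' - (G n).z k) * c n k l ^ 2)| ≤ B.d n ^ (x - ε) ∧
    |c n k' l - c n k l| ≤ B.d n ^ (x - ε) ∧
    |s n k' l - (s n k l + ((G n).z k' - (G n).z k) * Z n k l)| ≤ B.d n ^ (x - ε) ∧
    |β n k' l - (β n k l + ((G n).z k' - (G n).z k) * ζ n k l)| ≤ B.d n ^ (x - ε) ∧
    |ζ n k' l - ζ n k l| ≤ B.d n ^ (x - ε) ∧ |Z n k' l - Z n k l| ≤ B.d n ^ (x - ε) ∧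
    |Φ n k' l - (Φ n k l + 2 * ((G n).z k' - (G n).z k) * Rr n k l)| ≤ B.d n ^ (x - ε) ∧
    |Rr n k' l - Rr n k l| ≤ B.d n ^ (x - ε)

theorem QEvo2.toQEvo (V : QEvo2 B G x M a b c s β ζ Z Φ Rr kp) : QEvo B G x M a b c β ζ kp where
  zbd := V.zbd
  evo := fun ε hε => by
    filter_upwards [V.evo ε hε] with n h k k' l h1 h2
    obtain ⟨e1, e2, e3, -, e5, -⟩ := h k k' l h1 h2
    exact ⟨e1, e2, e3, e5⟩

/-- full relation at one incidence -/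
structure FRel (kp l1 l2 m1 m2 s0 β0 ζ0 Z0 P0 R0 e a b c s β ζ Z Φ Rr : ℝ) : Prop where
  rel : ARel kp l1 l2 m1 m2 s0 β0 ζ0 Z0 e a b c s β ζ Z
  rΦ : |Φ - (phiR kp l1 l2 m1 m2 s0 β0 ζ0 Z0 a b c + P0)| ≤ e
  rR : |Rr - (rR kp l1 l2 m1 m2 ζ0 Z0 c + R0)| ≤ e

theorem ARel.mono {κ l1 l2 m1 m2 s0 β0 ζ0 Z0 e e' a b c s β ζ Z : ℝ}
    (r : ARel κ l1 l2 m1 m2 s0 β0 ζ0 Z0 e a b c s β ζ Z) (h : e ≤ e') :
    ARel κ l1 l2 m1 m2 s0 β0 ζ0 Z0 e' a b c s β ζ Z :=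
  ⟨r.rs.trans h, r.rβ.trans h, r.rζ.trans h, r.rZ.trans h⟩

/-- bounds of the constants -/
theorem const_bd {κ l1 l2 m1 m2 a b c s β ζ Z M Λ : ℝ} (hκ : |κ| ≤ 1) (hM : 1 ≤ M)
    (hΛ : 1 ≤ Λ) (h1 : |l1| ≤ Λ) (h2 : |l2| ≤ Λ) (h3 : |m1| ≤ Λ) (h4 : |m2| ≤ Λ)
    (hb : |a| ≤ M ∧ |b| ≤ M ∧ |c| ≤ M ∧ |s| ≤ M ∧ |β| ≤ M ∧ |ζ| ≤ M ∧ |Z| ≤ M) :
    |s - l1 * b - l2 * a| ≤ 3 * M ^ 2 * Λ ∧ |β - m1 * b - m2 * a| ≤ 3 * M ^ 2 * Λ ∧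
    |ζ - l1 * c + κ * m1 * c ^ 2| ≤ 3 * M ^ 2 * Λ ∧
    |Z - l2 * c + κ * m2 * c ^ 2| ≤ 3 * M ^ 2 * Λ := by
  obtain ⟨ha, hb, hc, hs, hβ, hζ, hZ⟩ := hb
  have hMM : M ≤ M ^ 2 := by nlinarith
  have q1 : M ≤ M ^ 2 * Λ := by nlinarith
  have q2 : Λ * M ≤ M ^ 2 * Λ := by nlinarith
  have hc2 : |c ^ 2| ≤ M ^ 2 := by rw [abs_pow]; exact pow_le_pow_left₀ (abs_nonneg _) hc 2
  refine ⟨?_, ?_, ?_, ?_⟩
  · have k1 := abs_mul_le' h1 hb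
    have k2 := abs_mul_le' h2 ha
    have t1 := abs_sub (s - l1 * b) (l2 * a)
    have t2 := abs_sub s (l1 * b)
    linarith
  · have k1 := abs_mul_le' h3 hb
    have k2 := abs_mul_le' h4 ha
    have t1 := abs_sub (β - m1 * b) (m2 * a)
    have t2 := abs_sub β (m1 * b)
    linarith
  · have k1 := abs_mul_le' h1 hc
    have k2 := abs_mul_le' (abs_mul_le' hκ h3) hc2
    have t1 := abs_add_le (ζ - l1 * c) (κ * m1 * c ^ 2)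
    have t2 := abs_sub ζ (l1 * c)
    linarith
  · have k1 := abs_mul_le' h2 hc
    have k2 := abs_mul_le' (abs_mul_le' hκ h4) hc2
    have t1 := abs_add_le (Z - l2 * c) (κ * m2 * c ^ 2)
    have t2 := abs_sub Z (l2 * c)
    linarith

theorem rR_bd {κ l1 l2 m1 m2 ζ0 Z0 c M Λ : ℝ} (hκ : |κ| ≤ 1) (hM : 1 ≤ M) (hΛ : 1 ≤ Λ)
    (h1 : |l1| ≤ Λ) (h2 : |l2| ≤ Λ) (h3 : |m1| ≤ Λ) (h4 : |m2| ≤ Λ) (h7 : |ζ0| ≤ Λ)
    (h8 : |Z0| ≤ Λ) (hc : |c| ≤ M) : |rR κ l1 l2 m1 m2 ζ0 Z0 c| ≤ 5 * M ^ 4 * Λ := by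
  have hp : ∀ j : ℕ, |c ^ j| ≤ M ^ j := fun j => by
    rw [abs_pow]; exact pow_le_pow_left₀ (abs_nonneg _) hc j
  have hM3 : M ^ 3 ≤ M ^ 4 := pow_le_pow_right₀ hM (by norm_num)
  have hM2 : M ^ 2 ≤ M ^ 4 := pow_le_pow_right₀ hM (by norm_num)
  have hM1 : M ≤ M ^ 4 := by
    calc M = M ^ 1 := (pow_one M).symm
      _ ≤ M ^ 4 := pow_le_pow_right₀ hM (by norm_num)
  have hκ2 : |κ ^ 2| ≤ 1 := by rw [abs_pow]; exact pow_le_one₀ (abs_nonneg _) hκ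
  have hlm : |(l1 + m2) / 2| ≤ Λ := by
    rw [abs_div, abs_two, div_le_iff₀ two_pos]
    have := abs_add_le l1 m2
    linarith
  have hl2 : |l2 / 2| ≤ Λ := by
    rw [abs_div, abs_two, div_le_iff₀ two_pos]; linarith
  have hm1 : |m1 / 2| ≤ Λ := by
    rw [abs_div, abs_two, div_le_iff₀ two_pos]; linarith
  have hκn : |-κ| ≤ 1 := by rw [abs_neg]; exact hκ
  have k1 := abs_mul_le' (abs_mul_le' hκn (hp 3)) hlm
  have k2 := abs_mul_le' (hp 2) hl2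
  have k3 := abs_mul_le' (abs_mul_le' hκ2 (hp 4)) hm1
  have k4 := abs_mul_le' (abs_mul_le' hκ (hp 2)) h7
  have k5 := abs_mul_le' hc h8
  have t1 := abs_add_le (-κ * c ^ 3 * ((l1 + m2) / 2) + c ^ 2 * (l2 / 2) +
    κ ^ 2 * c ^ 4 * (m1 / 2) - κ * c ^ 2 * ζ0) (c * Z0)
  have t2 := abs_sub (-κ * c ^ 3 * ((l1 + m2) / 2) + c ^ 2 * (l2 / 2) +
    κ ^ 2 * c ^ 4 * (m1 / 2)) (κ * c ^ 2 * ζ0)
  have t3 := abs_add_le (-κ * c ^ 3 * ((l1 + m2) / 2) + c ^ 2 * (l2 / 2))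
    (κ ^ 2 * c ^ 4 * (m1 / 2))
  have t4 := abs_add_le (-κ * c ^ 3 * ((l1 + m2) / 2)) (c ^ 2 * (l2 / 2))
  have q3 := mul_le_mul_of_nonneg_right hM3 (by linarith : (0 : ℝ) ≤ Λ)
  have q2 := mul_le_mul_of_nonneg_right hM2 (by linarith : (0 : ℝ) ≤ Λ)
  have q1 := mul_le_mul_of_nonneg_right hM1 (by linarith : (0 : ℝ) ≤ Λ)
  unfold rR
  linarith

theorem phiR_bd {κ l1 l2 m1 m2 s0 β0 ζ0 Z0 a b c M Λ : ℝ} (hκ : |κ| ≤ 1) (hM : 1 ≤ M)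
    (hΛ : 1 ≤ Λ) (h1 : |l1| ≤ Λ) (h2 : |l2| ≤ Λ) (h3 : |m1| ≤ Λ) (h4 : |m2| ≤ Λ)
    (h5 : |s0| ≤ Λ) (h6 : |β0| ≤ Λ) (h7 : |ζ0| ≤ Λ) (h8 : |Z0| ≤ Λ) (ha : |a| ≤ M)
    (hb : |b| ≤ M) (hc : |c| ≤ M) :
    |phiR κ l1 l2 m1 m2 s0 β0 ζ0 Z0 a b c| ≤ 8 * M ^ 3 * Λ := by
  have hc2 : |c ^ 2| ≤ M ^ 2 := by rw [abs_pow]; exact pow_le_pow_left₀ (abs_nonneg _) hc 2
  have hM3 : M ^ 2 ≤ M ^ 3 := pow_le_pow_right₀ hM (by norm_num)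
  have hM1 : M ≤ M ^ 3 := by
    calc M = M ^ 1 := (pow_one M).symm
      _ ≤ M ^ 3 := pow_le_pow_right₀ hM (by norm_num)
  have hlin : ∀ p q t : ℝ, |p| ≤ Λ → |q| ≤ Λ → |t| ≤ Λ → |p * b + q * a + t| ≤ 3 * (M * Λ) := by
    intro p q t hp hq ht
    have k1 := abs_mul_le' hp hb
    have k2 := abs_mul_le' hq ha
    have t1 := abs_add_le (p * b + q * a) t
    have t2 := abs_add_le (p * b) (q * a)
    have t3 : Λ ≤ Λ * M := by nlinarith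
    linarith
  have k1 := abs_mul_le' hc (hlin _ _ _ h1 h2 h5)
  have k2 := abs_mul_le' (abs_mul_le' hκ hc2) (hlin _ _ _ h3 h4 h6)
  have k3 := abs_mul_le' h7 hb
  have k4 := abs_mul_le' h8 ha
  have t1 := abs_add_le (c * (l1 * b + l2 * a + s0) - κ * c ^ 2 * (m1 * b + m2 * a + β0) +
    ζ0 * b) (Z0 * a)
  have t2 := abs_add_le (c * (l1 * b + l2 * a + s0) - κ * c ^ 2 * (m1 * b + m2 * a + β0))
    (ζ0 * b)
  have t3 := abs_sub (c * (l1 * b + l2 * a + s0)) (κ * c ^ 2 * (m1 * b + m2 * a + β0))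
  have r1 : M * (3 * (M * Λ)) = 3 * (M ^ 2 * Λ) := by ring
  have r2 : 1 * M ^ 2 * (3 * (M * Λ)) = 3 * (M ^ 3 * Λ) := by ring
  rw [r1] at k1
  rw [r2] at k2
  have q3 := mul_le_mul_of_nonneg_right hM3 (by linarith : (0 : ℝ) ≤ Λ)
  have q1 := mul_le_mul_of_nonneg_right hM1 (by linarith : (0 : ℝ) ≤ Λ)
  unfold phiR
  linarith

/-- `R` on a dense part, the last division -/
theorem R_div (B : Base) (n : ℕ) {t w x M e0 : ℝ} {u X Y : ℝ} (hM : 1 ≤ M)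
    (hK : 10000 * M ^ 8 ≤ B.d n ^ (-e0)) (hu : B.d n ^ w < |u|) (hw : w ≤ t / 16)
    (he0 : 8 * e0 ≤ t / 8) (he00 : 0 ≤ e0)
    (hX : |2 * u * X - Y| ≤ 2 * B.d n ^ (x - t / 8) + B.d n ^ (x - e0) +
      40 * M ^ 2 * B.d n ^ (-(2 * e0)) * B.d n ^ (x - e0)) {X' : ℝ}
    (hX' : |2 * u * X' - Y| ≤ 2 * B.d n ^ (x - t / 8) + B.d n ^ (x - e0) +
      40 * M ^ 2 * B.d n ^ (-(2 * e0)) * B.d n ^ (x - e0)) :
    |X - X'| ≤ B.d n ^ (x - t) := by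
  have hpos : ∀ t : ℝ, 0 < B.d n ^ t := fun t => rpos B n t
  have hM8 : 1 ≤ M ^ 8 := one_le_pow₀ hM
  have hM2 : M ^ 2 ≤ M ^ 8 := pow_le_pow_right₀ hM (by norm_num)
  have hcst : ∀ w t : ℝ, w ≤ 10000 * M ^ 8 → ∀ t', t + e0 ≤ t' →
      w * B.d n ^ t' ≤ B.d n ^ t := by
    intro w t hw t' ht
    calc w * B.d n ^ t' ≤ B.d n ^ (-e0) * B.d n ^ t' :=
          mul_le_mul_of_nonneg_right (hw.trans hK) (hpos _).le
      _ = B.d n ^ (-e0 + t') := by rw [rpow_add']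
      _ ≤ _ := rpow_anti B n (by linarith)
  have h1 : B.d n ^ (x - e0) ≤ B.d n ^ (x - t / 8) := rpow_anti B n (by linarith)
  have h2 : 40 * M ^ 2 * B.d n ^ (-(2 * e0)) * B.d n ^ (x - e0) ≤ B.d n ^ (x - t / 8) := by
    rw [mul_assoc, ← rpow_add']
    exact hcst _ _ (by linarith) _ (by linarith)
  have e1 : 2 * u * (X - X') = (2 * u * X - Y) - (2 * u * X' - Y) := by ring
  have h3 : |2 * u * (X - X')| ≤ 8 * B.d n ^ (x - t / 8) := by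
    rw [e1]
    refine (abs_sub _ _).trans ?_
    linarith
  rw [abs_mul, abs_mul, abs_two] at h3
  have h4 : 2 * B.d n ^ w * |X - X'| ≤ 8 * B.d n ^ (x - t / 8) := by
    refine le_trans ?_ h3
    exact mul_le_mul_of_nonneg_right (by linarith) (abs_nonneg _)
  have h5 : B.d n ^ w * |X - X'| ≤ 4 * B.d n ^ (x - t / 8) := by linarith
  have h6 := mul_le_mul_of_nonneg_left h5 (hpos (-w)).le
  rw [← mul_assoc, ← rpow_add', neg_add_cancel, Real.rpow_zero, one_mul] at h6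
  refine h6.trans ?_
  rw [mul_left_comm, ← rpow_add']
  exact hcst _ _ (by linarith) _ (by linarith)

set_option maxHeartbeats 1000000 in
/-- **the full relation on a dense part of all lines** -/
theorem quad_full (H : RModel B G σ R Leg ν D) (hσ : 0 < σ) (hR : 0 < R)
    (Q : QRow B G x M C p0 pA pp pv pP vP pc a b c s β ζ Z Φ kp)
    (V : QEvo2 B G x M a b c s β ζ Z Φ Rr kp)
    (P : QProf Leg ν x m p0 pA pp pv ppv pP vP pc) {ε : ℝ} (hε : 0 < ε) :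
    ∀ᶠ n in (U : Filter ℕ), ∃ k ∈ (G n).Z, ∃ l1 l2 m1 m2 s0 β0 ζ0 Z0 P0 R0 : ℝ,
      |l1| ≤ B.d n ^ (-ε) ∧ |l2| ≤ B.d n ^ (-ε) ∧ |m1| ≤ B.d n ^ (-ε) ∧ |m2| ≤ B.d n ^ (-ε) ∧
      |s0| ≤ B.d n ^ (-ε) ∧ |β0| ≤ B.d n ^ (-ε) ∧ |ζ0| ≤ B.d n ^ (-ε) ∧ |Z0| ≤ B.d n ^ (-ε) ∧
      |P0| ≤ B.d n ^ (-ε) ∧ |R0| ≤ B.d n ^ (-ε) ∧
      |l1 - m2| ≤ B.d n ^ (x - ε) ∧
      ∃ L2 ⊆ (G n).slice k, B.d n ^ ε * ((G n).L.card : ℝ) ≤ L2.card ∧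
        ∀ l ∈ L2, FRel (kp n) l1 l2 m1 m2 s0 β0 ζ0 Z0 P0 R0 (B.d n ^ (x - ε)) (a n k l) (b n k l)
          (c n k l) (s n k l) (β n k l) (ζ n k l) (Z n k l) (Φ n k l) (Rr n k l) := by
  classical
  have hx := Q.x0
  have hM := Q.M1
  set t := min ε x with ht
  have ht0 : 0 < t := lt_min hε hx
  have htε : t ≤ ε := min_le_left _ _
  have htx : t ≤ x := min_le_right _ _
  obtain ⟨f3, hf3, hf3le, H3⟩ := phi_one H.toRUnif Q P (ε := t / 8) (by positivity)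
  obtain ⟨f1, hf1, hf1le, H1⟩ := phi_one H.toRUnif Q P (ε := f3 / 8) (by positivity)
  set e2 := min (min (R * σ / 4) (t * σ / 64)) (f3 / 32) with he2
  have he20 : 0 < e2 := lt_min (lt_min (by positivity) (by positivity)) (by positivity)
  have he2f : e2 ≤ f3 / 32 := min_le_right _ _
  have he2R : 4 * e2 / σ ≤ R := by
    have : e2 ≤ R * σ / 4 := (min_le_left _ _).trans (min_le_left _ _)
    rw [div_le_iff₀ hσ]; linarith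
  have he2t : 4 * e2 / σ ≤ t / 16 := by
    have : e2 ≤ t * σ / 64 := (min_le_left _ _).trans (min_le_right _ _)
    rw [div_le_iff₀ hσ]; linarith
  set e0 := min f1 f3 / 64 with he0
  have he00 : 0 < e0 := by
    have : 0 < min f1 f3 := lt_min hf1 hf3
    positivity
  have he01 : 64 * e0 ≤ f1 := by
    have : min f1 f3 ≤ f1 := min_le_left _ _
    linarith
  have he03 : 64 * e0 ≤ f3 := by
    have : min f1 f3 ≤ f3 := min_le_right _ _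
    linarith
  have x1 : -f1 ≤ -(2 * e0) := by linarith
  have x2 : -f3 ≤ -(2 * e0) := by linarith
  have x3 : x - f1 ≤ x - e0 := by linarith
  have x4 : e0 ≤ f1 := by linarith
  have x5 : 2 * e2 + (f3 / 8 + e0) ≤ f3 := by linarith
  have x6 : x - f3 + e0 ≤ -e0 + (x - e0) := by linarith
  have x7 : 0 ≤ x - e0 := by linarith
  have x8 : x - t / 8 ≤ x - f3 / 8 := by linarith
  have x9 : -ε ≤ -(2 * e0) := by linarith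
  have x10 : -ε ≤ -e0 := by linarith
  have x11 : x - ε ≤ x - t := by linarith
  have x12 : x - ε ≤ x - e0 := by linarith
  have x13 : -ε + e0 ≤ -(2 * e0) := by linarith
  have x14 : t / 8 + (2 * e2 + (f3 / 8 + e0)) ≤ ε := by linarith
  have x15 : x - ε ≤ x - t / 8 := by linarith
  have x16 : 8 * e0 ≤ t / 8 := by linarith
  have x17 : -(2 * e0) + e0 ≤ -e0 := by linarith
  have x18 : -(2 * e0) ≤ -e0 := by linarith
  have hM8 : 1 ≤ M ^ 8 := one_le_pow₀ hM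
  have hM2' : M ^ 2 ≤ M ^ 8 := pow_le_pow_right₀ hM (by norm_num)
  have hM3' : M ^ 3 ≤ M ^ 8 := pow_le_pow_right₀ hM (by norm_num)
  have hM4' : M ^ 4 ≤ M ^ 8 := pow_le_pow_right₀ hM (by norm_num)
  have hM23 : M ^ 2 ≤ M ^ 3 := pow_le_pow_right₀ hM (by norm_num)
  have hM13 : M ≤ M ^ 3 := by
    calc M = M ^ 1 := (pow_one M).symm
      _ ≤ M ^ 3 := pow_le_pow_right₀ hM (by norm_num)
  have hM14 : M ≤ M ^ 4 := by
    calc M = M ^ 1 := (pow_one M).symm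
      _ ≤ M ^ 4 := pow_le_pow_right₀ hM (by norm_num)
  have w1 : 3 * M ^ 2 ≤ 10000 * M ^ 8 := by linarith
  have w2 : 6 * M ^ 3 ≤ 10000 * M ^ 8 := by linarith
  have w3 : 20 * M ^ 3 ≤ 10000 * M ^ 8 := by linarith
  have w4 : 9 * M ^ 3 ≤ 10000 * M ^ 8 := by linarith
  have w5 : 6 * M ^ 4 ≤ 10000 * M ^ 8 := by linarith
  have w6 : 1 ≤ 10000 * M ^ 8 := by linarith
  filter_upwards [quad_model H hσ hR Q V.toQEvo P he00, H1, H3,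
    second_height H hσ he20 he2R, V.zbd, V.fbd, V.evo e0 he00, Q.bd,
    ev_const_le B he00 (10000 * M ^ 8)] with
    n hmod h1 h3 hsec hzb hfb hevo hbd hK
  have hpos : ∀ t : ℝ, 0 < B.d n ^ t := fun t => rpos B n t
  have hcst : ∀ w t : ℝ, w ≤ 10000 * M ^ 8 → ∀ t', t + e0 ≤ t' →
      w * B.d n ^ t' ≤ B.d n ^ t := by
    intro w t hw t' ht
    calc w * B.d n ^ t' ≤ B.d n ^ (-e0) * B.d n ^ t' :=
          mul_le_mul_of_nonneg_right (hw.trans hK) (hpos _).le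
      _ = B.d n ^ (-e0 + t') := by rw [rpow_add']
      _ ≤ _ := rpow_anti B n (by linarith only [ht])
  have hκ := Q.kp1 n
  obtain ⟨k0, hk0, l1, l2, m1, m2, hl1, hl2, hm1, hm2, hlm, L2, hL2, hL2c, hrel⟩ := hmod
  set Λ := B.d n ^ (-e0) with hΛ
  have hΛ1 : 1 ≤ Λ := w6.trans hK
  have hLL : (0 : ℝ) < (G n).L.card := by
    obtain ⟨⟨i0, k'⟩, hik⟩ := H.nonempty n
    exact_mod_cast card_pos.2 ⟨i0, H.memL hik⟩
  have hne_of : ∀ (T : Finset ℕ) (w : ℝ), B.d n ^ w * ((G n).L.card : ℝ) ≤ T.card →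
      T.Nonempty := by
    intro T w h
    rw [← card_pos]
    have : (0 : ℝ) < T.card := lt_of_lt_of_le (mul_pos (hpos _) hLL) h
    exact_mod_cast this
  have hslL : ∀ k, (((G n).slice k).card : ℝ) ≤ (G n).L.card := fun k =>
    Nat.cast_le.2 (card_le_card (filter_subset _ _))
  obtain ⟨l0, hl0⟩ := hne_of L2 e0 hL2c
  have hI2 : ∀ l ∈ L2, (l, k0) ∈ (G n).I := fun l hl => H.memSlice.1 (hL2 hl)
  -- constants
  set s0 := s n k0 l0 - l1 * b n k0 l0 - l2 * a n k0 l0 with hs0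
  set β0 := β n k0 l0 - m1 * b n k0 l0 - m2 * a n k0 l0 with hβ0
  set ζ0 := ζ n k0 l0 - l1 * c n k0 l0 + kp n * m1 * c n k0 l0 ^ 2 with hζ0
  set Z0 := Z n k0 l0 - l2 * c n k0 l0 + kp n * m2 * c n k0 l0 ^ 2 with hZ0
  have hA : ∀ l ∈ L2, ARel (kp n) l1 l2 m1 m2 s0 β0 ζ0 Z0 (B.d n ^ (x - e0)) (a n k0 l)
      (b n k0 l) (c n k0 l) (s n k0 l) (β n k0 l) (ζ n k0 l) (Z n k0 l) :=
    fun l hl => ARel.of_pair (hrel l hl l0 hl0)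
  obtain ⟨cs, cβ, cζ, cZ⟩ := const_bd hκ hM hΛ1 hl1 hl2 hm1 hm2 (hbd k0 l0 (hI2 l0 hl0))
  have h3M : ∀ w : ℝ, w ≤ 10000 * M ^ 8 → w * Λ ≤ B.d n ^ (-(2 * e0)) := fun w hw =>
    hcst _ _ hw _ x17
  have cs' := cs.trans (h3M _ w1)
  have cβ' := cβ.trans (h3M _ w1)
  have cζ' := cζ.trans (h3M _ w1)
  have cZ' := cZ.trans (h3M _ w1)
  have a2f1 : B.d n ^ (-(2 * e0)) ≤ B.d n ^ (-f1) := rpow_anti B n x1
  have a2f3 : B.d n ^ (-(2 * e0)) ≤ B.d n ^ (-f3) := rpow_anti B n x2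
  obtain ⟨L3, hL3, hL3c, hΨ0⟩ := h1 k0 L2 hL2 ⟨l0, hl0⟩
    ((mul_le_mul_of_nonneg_left (hslL k0) (hpos _).le).trans
      ((mul_le_mul_of_nonneg_right (rpow_anti B n x4) hLL.le).trans hL2c))
    l1 l2 m1 m2 s0 β0 ζ0 Z0 (cs'.trans a2f1) (cβ'.trans a2f1) (cζ'.trans a2f1)
    (cZ'.trans a2f1) (fun l hl => (hA l hl).mono (rpow_anti B n x3))
  have hL3L : B.d n ^ (f3 / 8 + e0) * ((G n).L.card : ℝ) ≤ L3.card := by
    rw [rpow_add', mul_assoc]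
    exact (mul_le_mul_of_nonneg_left hL2c (hpos _).le).trans hL3c
  have hL3ne := hne_of L3 _ hL3L
  obtain ⟨k1, hk1, hu, hL4c⟩ := hsec k0 L3 (hL3.trans hL2) hk0 hL3ne
  set L4 := L3.filter fun l => (l, k1) ∈ (G n).I with hL4
  have hL4L : B.d n ^ (2 * e2 + (f3 / 8 + e0)) * ((G n).L.card : ℝ) ≤ L4.card := by
    rw [rpow_add', mul_assoc]
    exact (mul_le_mul_of_nonneg_left hL3L (hpos _).le).trans hL4c
  have hL4S : L4 ⊆ (G n).slice k1 := fun l hl => H.memSlice.2 (mem_filter.1 hl).2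
  set u := (G n).z k1 - (G n).z k0 with hud
  have huM : |u| ≤ M := hzb k0 hk0 k1 hk1
  have hex1 : B.d n ^ (x - e0) ≤ 1 := by
    rw [← Real.rpow_zero (B.d n)]
    exact rpow_anti B n x7
  have hI4 : ∀ l ∈ L4, (l, k0) ∈ (G n).I ∧ (l, k1) ∈ (G n).I := fun l hl =>
    ⟨hI2 l (hL3 (mem_filter.1 hl).1), (mem_filter.1 hl).2⟩
  have hA1 : ∀ l ∈ L4, ARel (kp n) l1 l2 m1 m2 (s0 + u * Z0) (β0 + u * ζ0) ζ0 Z0
      (B.d n ^ (x - f3)) (a n k1 l) (b n k1 l) (c n k1 l) (s n k1 l) (β n k1 l) (ζ n k1 l)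
      (Z n k1 l) := by
    intro l hl
    obtain ⟨i0, i1⟩ := hI4 l hl
    obtain ⟨ea, eb, ec, es, eβ, eζ, eZ, -, -⟩ := hevo k0 k1 l i0 i1
    have h5 := (hA l (hL3 (mem_filter.1 hl).1)).evo hκ hM hΛ1 (hpos _).le hex1 huM
      (hbd k0 l i0).2.2.1 hl1 hl2 hm1 hm2 hlm ea eb ec es eβ eζ eZ
    refine h5.mono ?_
    rw [hΛ, mul_assoc, ← rpow_add']
    exact hcst _ _ w3 _ x6
  have hMMΛ : 3 * M ^ 2 * Λ ≤ 3 * M ^ 3 * Λ :=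
    mul_le_mul_of_nonneg_right (by linarith only [hM23]) (by linarith only [hΛ1])
  have k36 := h3M (6 * M ^ 3) w2
  have k5 : M * (3 * M ^ 2 * Λ) = 3 * M ^ 3 * Λ := by ring
  have cs1 : |s0 + u * Z0| ≤ B.d n ^ (-(2 * e0)) := by
    have k1 := abs_mul_le' huM cZ
    have k2 := abs_add_le s0 (u * Z0)
    linarith only [k1, k2, k36, hMMΛ, k5, cs]
  have cβ1 : |β0 + u * ζ0| ≤ B.d n ^ (-(2 * e0)) := by
    have k1 := abs_mul_le' huM cζ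
    have k2 := abs_add_le β0 (u * ζ0)
    linarith only [k1, k2, k36, hMMΛ, k5, cβ]
  obtain ⟨L5, hL5, hL5c, hΨ1⟩ := h3 k1 L4 hL4S (hne_of L4 _ hL4L)
    ((mul_le_mul_of_nonneg_left (hslL k1) (hpos _).le).trans
      ((mul_le_mul_of_nonneg_right (rpow_anti B n x5) hLL.le).trans hL4L))
    l1 l2 m1 m2 (s0 + u * Z0) (β0 + u * ζ0) ζ0 Z0 (cs1.trans a2f3) (cβ1.trans a2f3)
    (cζ'.trans a2f3) (cZ'.trans a2f3) hA1
  have hL5L : B.d n ^ (t / 8 + (2 * e2 + (f3 / 8 + e0))) * ((G n).L.card : ℝ) ≤ L5.card := by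
    rw [rpow_add', mul_assoc]
    exact (mul_le_mul_of_nonneg_left hL4L (hpos _).le).trans hL5c
  obtain ⟨ls, hls⟩ := hne_of L5 _ hL5L
  have hin : ∀ l ∈ L5, l ∈ L3 ∧ l ∈ L2 := fun l hl =>
    ⟨(mem_filter.1 (hL5 hl)).1, hL3 (mem_filter.1 (hL5 hl)).1⟩
  set P0 := Φ n k0 ls - phiR (kp n) l1 l2 m1 m2 s0 β0 ζ0 Z0 (a n k0 ls) (b n k0 ls) (c n k0 ls)
    with hP0
  set P1 := Φ n k1 ls - phiR (kp n) l1 l2 m1 m2 (s0 + u * Z0) (β0 + u * ζ0) ζ0 Z0 (a n k1 ls)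
    (b n k1 ls) (c n k1 ls) with hP1
  set R0 := Rr n k0 ls - rR (kp n) l1 l2 m1 m2 ζ0 Z0 (c n k0 ls) with hR0
  have aΛ2 : Λ ≤ B.d n ^ (-(2 * e0)) := rpow_anti B n x18
  have hΛ2 : 1 ≤ B.d n ^ (-(2 * e0)) := hΛ1.trans aΛ2
  have hfE : B.d n ^ (x - f3 / 8) ≤ B.d n ^ (x - t / 8) := rpow_anti B n x8
  -- the slot `R`
  have hRt : ∀ l ∈ L5, |2 * u * (Rr n k0 l - rR (kp n) l1 l2 m1 m2 ζ0 Z0 (c n k0 l)) -
      (P1 - P0)| ≤ 2 * B.d n ^ (x - t / 8) + B.d n ^ (x - e0) +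
      40 * M ^ 2 * B.d n ^ (-(2 * e0)) * B.d n ^ (x - e0) := by
    intro l hl
    obtain ⟨i0, i1⟩ := hI4 l (hL5 hl)
    obtain ⟨ea, eb, ec, -, -, -, -, eΦ, -⟩ := hevo k0 k1 l i0 i1
    obtain ⟨b1, b2, b3, -⟩ := hbd k1 l i1
    refine R_two hκ hM hΛ2 (hpos _).le hex1 (hl1.trans aΛ2) (hl2.trans aΛ2) (hm1.trans aΛ2)
      (hm2.trans aΛ2) cs1 cβ1 cζ' cZ' b1 b2 b3 ea eb ec eΦ ?_ ?_
    · exact (hΨ0 l (hin l hl).1 ls (hin ls hls).1).trans hfE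
    · exact hΨ1 l hl ls hls
  have a2t : B.d n ^ (-(2 * e0)) ≤ B.d n ^ (-ε) := rpow_anti B n x9
  have aΛt : Λ ≤ B.d n ^ (-ε) := rpow_anti B n x10
  have htx' : B.d n ^ (x - t) ≤ B.d n ^ (x - ε) := rpow_anti B n x11
  obtain ⟨bs1, bs2⟩ := hfb k0 ls (hI4 ls (hL5 hls)).1
  obtain ⟨bs3, bs4, bs5, -⟩ := hbd k0 ls (hI4 ls (hL5 hls)).1
  refine ⟨k0, hk0, l1, l2, m1, m2, s0, β0, ζ0, Z0, P0, R0, hl1.trans aΛt, hl2.trans aΛt,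
    hm1.trans aΛt, hm2.trans aΛt, cs'.trans a2t, cβ'.trans a2t, cζ'.trans a2t, cZ'.trans a2t,
    ?_, ?_, hlm.trans (rpow_anti B n x12), L5, fun l hl => hL2 (hin l hl).2, ?_, ?_⟩
  · have k1 := phiR_bd hκ hM hΛ2 (hl1.trans aΛ2) (hl2.trans aΛ2) (hm1.trans aΛ2)
      (hm2.trans aΛ2) cs' cβ' cζ' cZ' bs3 bs4 bs5
    have k2 := abs_sub (Φ n k0 ls)
      (phiR (kp n) l1 l2 m1 m2 s0 β0 ζ0 Z0 (a n k0 ls) (b n k0 ls) (c n k0 ls))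
    have k3 := hcst (9 * M ^ 3) (-ε) w4 (-(2 * e0)) x13
    have k4 : M ≤ M ^ 3 * B.d n ^ (-(2 * e0)) :=
      hM13.trans (le_mul_of_one_le_right (by positivity) hΛ2)
    linarith only [k1, k2, k3, k4, bs1]
  · have k1 := rR_bd hκ hM hΛ2 (hl1.trans aΛ2) (hl2.trans aΛ2) (hm1.trans aΛ2)
      (hm2.trans aΛ2) cζ' cZ' bs5
    have k2 := abs_sub (Rr n k0 ls) (rR (kp n) l1 l2 m1 m2 ζ0 Z0 (c n k0 ls))
    have k3 := hcst (6 * M ^ 4) (-ε) w5 (-(2 * e0)) x13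
    have k4 : M ≤ M ^ 4 * B.d n ^ (-(2 * e0)) :=
      hM14.trans (le_mul_of_one_le_right (by positivity) hΛ2)
    linarith only [k1, k2, k3, k4, bs2]
  · exact le_trans (mul_le_mul_of_nonneg_right (rpow_anti B n x14) hLL.le) hL5L
  · intro l hl
    refine ⟨(hA l (hin l hl).2).mono (rpow_anti B n x12), ?_, ?_⟩
    · have k1 := (hΨ0 l (hin l hl).1 ls (hin ls hls).1)
      have e1 : Φ n k0 l - (phiR (kp n) l1 l2 m1 m2 s0 β0 ζ0 Z0 (a n k0 l) (b n k0 l) (c n k0 l) +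
          P0) = (Φ n k0 l - phiR (kp n) l1 l2 m1 m2 s0 β0 ζ0 Z0 (a n k0 l) (b n k0 l)
          (c n k0 l)) - P0 := by ring
      rw [e1]
      exact k1.trans (hfE.trans (rpow_anti B n x15))
    · have k1 := R_div B n hM hK hu he2t x16 he00.le (hRt l hl) (hRt ls hls)
      have e1 : Rr n k0 l - (rR (kp n) l1 l2 m1 m2 ζ0 Z0 (c n k0 l) + R0) =
          (Rr n k0 l - rR (kp n) l1 l2 m1 m2 ζ0 Z0 (c n k0 l)) - R0 := by ring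
      rw [e1]
      exact k1.trans htx'

end Crest.Agent.R136.Qd329
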