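import Crest.Agent.R136.Qd11_329

/-!
# R136: the bilinear rigidity (helper329), part 12: slopes which are not resonant

`SRow`, `SProf` : a box `pS` (positions `a`, `β`, and `s` if `F9`) in which `b` still costs
something.  Then the slope `m1` (and `l1` if `F9`) of the relation vanishes up to `ρ^(x-ε)`.
-/

set_option autoImplicit false

open Filter Topology

namespace Crest.Agent.R136.Qd329

open Finset
open Crest.Agent.R138.Ex926 (Base U)
open Crest.Agent.R136.Gf356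

variable {κ : Type} {B : Base} {G : ℕ → RCfg κ} {Leg : Set (κ → ℝ)} {ν : (κ → ℝ) → ℝ}
  {D σ R x M C m : ℝ} {p0 pA pp pv ppv pP vP pS : κ → ℝ} {pc pb : ℝ → κ → ℝ}
  {a b c s β ζ Z Φ Rr : ℕ → ℕ → ℕ → ℝ} {kp : ℕ → ℝ} {F7 F9 : Prop}

/-- rows of the box `pS` -/
structure SRow (B : Base) (G : ℕ → RCfg κ) (x C : ℝ) (pS : κ → ℝ) (pb : ℝ → κ → ℝ)
    (a b s β : ℕ → ℕ → ℕ → ℝ) (F9 : Prop) : Prop where
  scl : ∀ ε : ℝ, 0 < ε → ∀ᶠ n in (U : Filter ℕ), ∀ k l l', (l, k) ∈ (G n).I →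
    (l', k) ∈ (G n).I → (G n).loose pS ε k l l' →
      |a n k l - a n k l'| ≤ B.d n ^ (x - C * ε) ∧ |β n k l - β n k l'| ≤ B.d n ^ (x - C * ε) ∧
      (F9 → |s n k l - s n k l'| ≤ B.d n ^ (x - C * ε))
  bcl : ∀ y : ℝ, 0 ≤ y → y ≤ x → ∀ ε : ℝ, 0 < ε → ∀ᶠ n in (U : Filter ℕ), ∀ k l l',
    (l, k) ∈ (G n).I → (l', k) ∈ (G n).I → (G n).loose pS ε k l l' →
      |b n k l' - b n k l| ≤ B.d n ^ y → (G n).loose (pb y) (C * ε) k l l'

/-- numbers of the box `pS` -/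
structure SProf (Leg : Set (κ → ℝ)) (ν : (κ → ℝ) → ℝ) (x m : ℝ) (pS : κ → ℝ) (pb : ℝ → κ → ℝ) :
    Prop where
  lS : pS ∈ Leg
  lb : ∀ y, 0 ≤ y → y ≤ x → pb y ∈ Leg
  n6 : ∀ y, 0 ≤ y → y ≤ x → m * y ≤ ν pS - ν (pb y)

/-- **two lines of a dense part in one `pS`-box with separated `b`** -/
theorem spread_b (H : RUnif B G Leg ν D)
    (Q : QRow B G x M C p0 pA pp pv pP vP pc a b c s β ζ Z Φ kp)
    (hm : 0 < m) (l0 : p0 ∈ Leg) (S : SRow B G x C pS pb a b s β F9) (P : SProf Leg ν x m pS pb)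
    {e : ℝ} (he : 0 < e) (hy : (3 + C * D ^ 6) * e / m ≤ x) :
    ∀ᶠ n in (U : Filter ℕ), ∀ k, ∀ T ⊆ (G n).slice k, T.Nonempty →
      B.d n ^ e * (((G n).slice k).card : ℝ) ≤ T.card →
      ∃ l ∈ T, ∃ l' ∈ T, (G n).loose pS (D ^ 5 * e) k l l' ∧
        B.d n ^ ((3 + C * D ^ 6) * e / m) < |b n k l' - b n k l| := by
  classical
  have hD := H.D1
  have hD0 : 0 < D := by linarith
  have hC := Q.C1
  have hC0 : 0 < C := by linarith
  set y : ℝ := (3 + C * D ^ 6) * e / m with hyd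
  have hy0 : 0 ≤ y := by positivity
  filter_upwards [net_facts H p0 pS l0 P.lS Q.all he, S.bcl y hy0 hy (D ^ 5 * e) (by positivity),
    H.up (pb y) (P.lb y hy0 hy) (C * (D ^ 5 * e)) (by positivity)] with n np hb hup k T hT hTne hTc
  have hpos : ∀ t : ℝ, 0 < B.d n ^ t := fun t => rpos B n t
  have hSne : ((G n).slice k).Nonempty := hTne.mono hT
  have hS0 : (0 : ℝ) < (((G n).slice k).card : ℝ) := by exact_mod_cast hSne.card_pos
  obtain ⟨lp, a1, a2, a3, a4, a5⟩ := np k hSne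
  set Sc : ℝ := (((G n).slice k).card : ℝ) with hS
  obtain ⟨v, hv⟩ := pop1 T lp (N := B.d n ^ (ν pS - e) * Sc)
    (le_trans (Nat.cast_le.2 (card_le_card (image_subset_image hT))) a4)
  set F := T.filter fun t => lp t = v with hF
  have hFlow : B.d n ^ (2 * e - ν pS) ≤ F.card := by
    have h1 : B.d n ^ e * Sc ≤ (B.d n ^ (ν pS - e) * Sc) * F.card := hTc.trans hv
    have h2 : B.d n ^ e ≤ B.d n ^ (ν pS - e) * F.card := by
      refine le_of_mul_le_mul_right (le_trans h1 (le_of_eq ?_)) hS0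
      ring
    have h3 := mul_le_mul_of_nonneg_left h2 (hpos (-(ν pS - e))).le
    calc B.d n ^ (2 * e - ν pS) = B.d n ^ (-(ν pS - e)) * B.d n ^ e := by
          rw [← rpow_add']; congr 1; ring
      _ ≤ B.d n ^ (-(ν pS - e)) * (B.d n ^ (ν pS - e) * F.card) := h3
      _ = F.card := by
          rw [← mul_assoc, ← rpow_add']
          have : -(ν pS - e) + (ν pS - e) = 0 := by ring
          rw [this, Real.rpow_zero, one_mul]
  have hFne : F.Nonempty := by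
    rw [← card_pos]
    have : (0 : ℝ) < F.card := lt_of_lt_of_le (hpos _) hFlow
    exact_mod_cast this
  obtain ⟨l, hl⟩ := hFne
  obtain ⟨hlT, hlv⟩ := mem_filter.1 hl
  by_contra hcon
  push Not at hcon
  have hlI := H.memSlice.1 (hT hlT)
  have hFup : (F.card : ℝ) ≤ B.d n ^ (-ν (pb y) - D * (C * (D ^ 5 * e))) := by
    refine le_trans (Nat.cast_le.2 (card_le_card ?_)) (hup l k hlI)
    intro l' hl'
    obtain ⟨i1, i2⟩ := mem_filter.1 hl'
    have i3 := a2 l (hT hlT) l' (hT i1) (hlv.trans i2.symm)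
    exact RCfg.mem_box.2 ⟨hT i1, hb k l l' hlI (H.memSlice.1 (hT i1)) i3 (hcon l hlT l' i1 i3)⟩
  have h6 := P.n6 y hy0 hy
  have e6 : m * y = (3 + C * D ^ 6) * e := by rw [hyd]; field_simp
  have hlt : B.d n ^ (-ν (pb y) - D * (C * (D ^ 5 * e))) < B.d n ^ (2 * e - ν pS) := by
    refine Real.rpow_lt_rpow_of_exponent_gt (B.pos n) (B.lt n) ?_
    have : D * (C * (D ^ 5 * e)) = C * D ^ 6 * e := by ring
    rw [this]
    linarith
  linarith

/-- the arithmetic of the spread -/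
theorem spread_real {m1 m2 b b' a a' β β' β0 e f g A y : ℝ}
    (r : |β - (m1 * b + m2 * a + β0)| ≤ e) (r' : |β' - (m1 * b' + m2 * a' + β0)| ≤ e)
    (hβ : |β - β'| ≤ f) (ha : |a - a'| ≤ f) (hm2 : |m2| ≤ g) (hb : y < |b' - b|) (h0 : 0 ≤ g)
    (hA : f + g * f + 2 * e ≤ A) : |m1| * y ≤ A := by
  have h1 : |m1| * |b' - b| = |m1 * (b - b')| := by rw [abs_mul, abs_sub_comm]
  have h2 : m1 * (b - b') = (β - β') - m2 * (a - a') - ((β - (m1 * b + m2 * a + β0)) -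
      (β' - (m1 * b' + m2 * a' + β0))) := by ring
  have h3 : |m2 * (a - a')| ≤ g * f := by
    rw [abs_mul]; exact mul_le_mul hm2 ha (abs_nonneg _) h0
  have h4 : |m1| * y ≤ |m1| * |b' - b| := mul_le_mul_of_nonneg_left hb.le (abs_nonneg _)
  have h5 : |m1 * (b - b')| ≤ |β - β'| + |m2 * (a - a')| + (|β - (m1 * b + m2 * a + β0)| +
      |β' - (m1 * b' + m2 * a' + β0)|) := by
    rw [h2]
    exact (abs_sub _ _).trans (add_le_add (abs_sub _ _) (abs_sub _ _))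
  linarith

/-- the powers of the spread -/
theorem spread_pow (B : Base) (n : ℕ) {x e C D y t v : ℝ} (he : 0 < e) (hC : 1 ≤ C) (hD : 1 ≤ D)
    (h4 : 4 ≤ B.d n ^ (-e)) (ht : (C * D ^ 5 + 2) * e + y ≤ t)
    (hv : v * B.d n ^ y ≤ B.d n ^ (x - C * (D ^ 5 * e)) +
      B.d n ^ (-e) * B.d n ^ (x - C * (D ^ 5 * e)) + 2 * B.d n ^ (x - e)) :
    v ≤ B.d n ^ (x - t) := by
  have hpos : ∀ t : ℝ, 0 < B.d n ^ t := fun t => rpos B n t
  have hD5 : 1 ≤ D ^ 5 := one_le_pow₀ hD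
  have hCD : 1 ≤ C * D ^ 5 := by nlinarith
  have i1 : B.d n ^ (x - C * (D ^ 5 * e)) ≤ B.d n ^ (x - (C * D ^ 5 + 1) * e) :=
    rpow_anti B n (by nlinarith)
  have i2 : B.d n ^ (-e) * B.d n ^ (x - C * (D ^ 5 * e)) = B.d n ^ (x - (C * D ^ 5 + 1) * e) := by
    rw [← rpow_add']; congr 1; ring
  have i3 : B.d n ^ (x - e) ≤ B.d n ^ (x - (C * D ^ 5 + 1) * e) :=
    rpow_anti B n (by nlinarith)
  have i4 : v * B.d n ^ y ≤ 4 * B.d n ^ (x - (C * D ^ 5 + 1) * e) := by linarith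
  have i5 : 4 * B.d n ^ (x - (C * D ^ 5 + 1) * e) ≤ B.d n ^ (x - t) * B.d n ^ y := by
    refine (mul_le_mul_of_nonneg_right h4 (hpos _).le).trans ?_
    rw [← rpow_add', ← rpow_add']
    exact rpow_anti B n (by linarith)
  exact le_of_mul_le_mul_right (i4.trans i5) (hpos y)

set_option maxHeartbeats 1000000 in
/-- **the full relation, with the slopes which are not resonant** -/
theorem quad_full2 (H : RModel B G σ R Leg ν D) (hσ : 0 < σ) (hR : 0 < R)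
    (Q : QRow B G x M C p0 pA pp pv pP vP pc a b c s β ζ Z Φ kp)
    (V : QEvo2 B G x M a b c s β ζ Z Φ Rr kp)
    (P : QProf Leg ν x m p0 pA pp pv ppv pP vP pc)
    (S : F7 → SRow B G x C pS pb a b s β F9) (N : F7 → SProf Leg ν x m pS pb) (h97 : F9 → F7)
    {ε : ℝ} (hε : 0 < ε) :
    ∀ᶠ n in (U : Filter ℕ), ∃ k ∈ (G n).Z, ∃ l1 l2 m1 m2 s0 β0 ζ0 Z0 P0 R0 : ℝ,
      |l1| ≤ B.d n ^ (-ε) ∧ |l2| ≤ B.d n ^ (-ε) ∧ |m1| ≤ B.d n ^ (-ε) ∧ |m2| ≤ B.d n ^ (-ε) ∧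
      |s0| ≤ B.d n ^ (-ε) ∧ |β0| ≤ B.d n ^ (-ε) ∧ |ζ0| ≤ B.d n ^ (-ε) ∧ |Z0| ≤ B.d n ^ (-ε) ∧
      |P0| ≤ B.d n ^ (-ε) ∧ |R0| ≤ B.d n ^ (-ε) ∧
      |l1 - m2| ≤ B.d n ^ (x - ε) ∧ (F7 → |m1| ≤ B.d n ^ (x - ε)) ∧
      (F9 → |l1| ≤ B.d n ^ (x - ε)) ∧
      ∃ L2 ⊆ (G n).slice k, B.d n ^ ε * ((G n).L.card : ℝ) ≤ L2.card ∧
        ∀ l ∈ L2, FRel (kp n) l1 l2 m1 m2 s0 β0 ζ0 Z0 P0 R0 (B.d n ^ (x - ε)) (a n k l) (b n k l)
          (c n k l) (s n k l) (β n k l) (ζ n k l) (Z n k l) (Φ n k l) (Rr n k l) := by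
  classical
  have hx := Q.x0
  have hm := P.m0
  have hC := Q.C1
  have hD := H.toRUnif.D1
  have hD0 : 0 < D := by linarith
  have hC0 : 0 < C := by linarith
  by_cases h7 : F7
  swap
  · filter_upwards [quad_full H hσ hR Q V P hε] with n h
    obtain ⟨k, hk, l1, l2, m1, m2, s0, β0, ζ0, Z0, P0, R0, g1, g2, g3, g4, g5, g6, g7, g8, g9, g10,
      g11, L2, hL, hLc, hr⟩ := h
    exact ⟨k, hk, l1, l2, m1, m2, s0, β0, ζ0, Z0, P0, R0, g1, g2, g3, g4, g5, g6, g7, g8, g9, g10,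
      g11, fun h => absurd h h7, fun h => absurd (h97 h) h7, L2, hL, hLc, hr⟩
  set K : ℝ := C * D ^ 5 + 2 + (3 + C * D ^ 6) / m with hK
  have hK2 : 2 ≤ K := by
    have : 0 ≤ C * D ^ 5 := by positivity
    have : 0 ≤ (3 + C * D ^ 6) / m := by positivity
    linarith
  have hK0 : 0 < K := by linarith
  set t := min ε x with ht
  have ht0 : 0 < t := lt_min hε hx
  set e := t / K with hed
  have he0 : 0 < e := by positivity
  have hKe : K * e = t := by rw [hed]; field_simp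
  have hsplit : (C * D ^ 5 + 2) * e + (3 + C * D ^ 6) * e / m = t := by
    rw [← hKe, hK]; ring
  have hpos1 : 0 ≤ (C * D ^ 5 + 2) * e := by positivity
  have hyx : (3 + C * D ^ 6) * e / m ≤ x := by
    have : t ≤ x := min_le_right _ _
    linarith
  have hyt : (3 + C * D ^ 6) * e / m ≤ t := by linarith
  have heε : e ≤ ε := by
    have : t ≤ ε := min_le_left _ _
    have h2 : e ≤ K * e := by nlinarith
    linarith
  have htε : t ≤ ε := min_le_left _ _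
  filter_upwards [quad_full H hσ hR Q V P he0,
    spread_b H.toRUnif Q hm P.l0 (S h7) (N h7) he0 hyx, ev_const_le B he0 4,
    (S h7).scl (D ^ 5 * e) (by positivity)] with n h hsp h4 hscl
  obtain ⟨k, hk, l1, l2, m1, m2, s0, β0, ζ0, Z0, P0, R0, g1, g2, g3, g4, g5, g6, g7, g8, g9, g10,
      g11, L2, hL, hLc, hr⟩ := h
  have hpos : ∀ t : ℝ, 0 < B.d n ^ t := fun t => rpos B n t
  have w1 : B.d n ^ (-e) ≤ B.d n ^ (-ε) := rpow_anti B n (by linarith)
  have w2 : B.d n ^ (x - e) ≤ B.d n ^ (x - ε) := rpow_anti B n (by linarith)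
  have w3 : B.d n ^ ε ≤ B.d n ^ e := rpow_anti B n heε
  have w4 : B.d n ^ (x - t) ≤ B.d n ^ (x - ε) := rpow_anti B n (by linarith)
  have key : |m1| ≤ B.d n ^ (x - ε) ∧ (F9 → |l1| ≤ B.d n ^ (x - ε)) := by
    rcases L2.eq_empty_or_nonempty with he | hne
    · -- no line at all
      exfalso
      rw [he, card_empty, Nat.cast_zero] at hLc
      have h1 : ((G n).L.card : ℝ) ≤ 0 := by
        have := hpos e
        by_contra hcon
        push Not at hcon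
        have := mul_pos this hcon
        linarith
      obtain ⟨p0, hp0⟩ := H.toRUnif.nonempty n
      have h2 : (G n).L.Nonempty := ⟨p0.1, (mem_product.1 (H.toRUnif.sub n hp0)).1⟩
      have h3 : (0 : ℝ) < ((G n).L.card : ℝ) := by exact_mod_cast h2.card_pos
      linarith
    · have hsl : (((G n).slice k).card : ℝ) ≤ ((G n).L.card : ℝ) :=
        Nat.cast_le.2 (card_le_card fun l hl => (RCfg.mem_slice.1 hl).1)
      obtain ⟨l, hl, l', hl', q1, q2⟩ := hsp k L2 hL hne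
        ((mul_le_mul_of_nonneg_left hsl (hpos _).le).trans hLc)
      obtain ⟨c1, c2, c3⟩ := hscl k l l' (H.toRUnif.memSlice.1 (hL hl))
        (H.toRUnif.memSlice.1 (hL hl')) q1
      have f1 := hr l hl
      have f2 := hr l' hl'
      refine ⟨(spread_pow B n he0 hC hD h4 hsplit.le ?_).trans w4, fun h9 =>
        (spread_pow B n he0 hC hD h4 hsplit.le ?_).trans w4⟩
      · exact spread_real f1.rel.rβ f2.rel.rβ c2 c1 g4 q2 (hpos _).le le_rfl
      · exact spread_real f1.rel.rs f2.rel.rs (c3 h9) c1 g2 q2 (hpos _).le le_rfl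
  refine ⟨k, hk, l1, l2, m1, m2, s0, β0, ζ0, Z0, P0, R0, g1.trans w1, g2.trans w1, g3.trans w1,
    g4.trans w1, g5.trans w1, g6.trans w1, g7.trans w1, g8.trans w1, g9.trans w1, g10.trans w1,
    g11.trans w2, fun _ => key.1, key.2, L2, hL,
    (mul_le_mul_of_nonneg_right w3 (Nat.cast_nonneg _)).trans hLc, fun l hl => ?_⟩
  exact ⟨(hr l hl).rel.mono w2, (hr l hl).rΦ.trans w2, (hr l hl).rR.trans w2⟩

end Crest.Agent.R136.Qd329
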