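import Crest.Agent.R136.EvW1_938
import Crest.Agent.R136.NetW6_191

/-!
# R136: the bilinear rigidity (helper329), part 13: one step in the normalised group

`Loc κ K η h h' g w v w'` : `g = h h'` (frames), `w' = v + tr h' w` up to `η` (flags without the
components `0, 1, 2, 4`).  The rows of the position box, of the velocity box, of the evolution.
-/

set_option autoImplicit false

namespace Crest.Agent.R136.Qd329

open Crest.Agent.R136.NetW191 Crest.Agent.R136.EvW938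

/-- sides `1` on the frames, `η` on the flags -/
def sdF (η : ℝ) (s : Fin 18) : ℝ := if s < 4 then 1 else η

theorem sdF_left (η : ℝ) (i : Fin 4) : sdF η (Fin.castAdd 14 i) = 1 := by
  have h : ∀ i : Fin 4, (Fin.castAdd 14 i : Fin 18) < 4 := by decide
  exact if_pos (h i)

theorem sdF_right (η : ℝ) (q : Fin 14) : sdF η (Fin.natAdd 4 q) = η := by
  have h : ∀ q : Fin 14, ¬ (Fin.natAdd 4 q : Fin 18) < 4 := by decide
  exact if_neg (h q)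

theorem prod_frames (η : ℝ) (l : List (Fin 4)) :
    (l.map fun i => sdF η (Fin.castAdd 14 i)).prod = 1 := by
  induction l with
  | nil => rfl
  | cons a l ih => rw [List.map_cons, List.prod_cons, ih, sdF_left, one_mul]

theorem sides_F {η : ℝ} (hη : 0 ≤ η) : SidesW (sdF η) where
  pos s := by unfold sdF; split_ifs <;> linarith
  wall k l hl := by
    induction k using Fin.addCases (m := 4) (n := 14) with
    | left i =>
      rw [mlW_left] at hl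
      have h : ∀ i : Fin 4, ∀ l ∈ mh i, ∀ s ∈ l, s < 4 := by decide
      have h2 : ∀ l : List (Fin 18), (∀ s ∈ l, s < 4) → (l.map (sdF η)).prod = 1 := by
        intro l
        induction l with
        | nil => intro _; rfl
        | cons a l ih =>
          intro ha
          rw [List.map_cons, List.prod_cons, ih fun s hs => ha s (List.mem_cons_of_mem _ hs),
            sdF, if_pos (ha a List.mem_cons_self), one_mul]
      rw [h2 l (h i l hl), sdF_left]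
    | right q =>
      rw [mlW_right] at hl
      obtain ⟨t, -, rfl⟩ := List.mem_map.1 hl
      have e1 : (t.idx.map (sdF η)).prod =
          (t.hl.map fun i => sdF η (Fin.castAdd 14 i)).prod * sdF η (Fin.natAdd 4 t.s) := by
        simp [Tm.idx, List.map_append, List.prod_append, Function.comp_def]
      rw [e1, prod_frames, one_mul, sdF_right, sdF_right]

/-- the substitution, bounded frames, small flags -/
theorem tr_small {κ : ℝ} (hκ : |κ| ≤ 1) {h : Fin 4 → ℝ} {w : Fin 14 → ℝ} {K η : ℝ} (hK : 1 ≤ K)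
    (hη : 0 ≤ η) (h1 : ∀ i, |h i| ≤ K) (w1 : ∀ q, |w q| ≤ η) (q : Fin 14) :
    |tr κ h w q| ≤ 470 * K ^ 7 * η := by
  have := tr_size hκ (sides_F hη) hK (h := h) (w := w)
    (fun i => by rw [sdF_left, mul_one]; exact h1 i)
    (fun q => by rw [sdF_right]; exact (w1 q).trans (by nlinarith)) q
  rwa [sdF_right] at this

/-- the substitution is Lipschitz in the frame -/
theorem tr_frame {κ : ℝ} (hκ : |κ| ≤ 1) {h h' : Fin 4 → ℝ} {w : Fin 14 → ℝ} {K τ Λ : ℝ}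
    (hK : 1 ≤ K) (hτ : 0 ≤ τ) (hΛ : 0 ≤ Λ) (h1 : ∀ i, |h i| ≤ K) (h2 : ∀ i, |h' i| ≤ K)
    (h3 : ∀ i, |h i - h' i| ≤ τ) (w1 : ∀ q, |w q| ≤ Λ) (q : Fin 14) :
    |tr κ h w q - tr κ h' w q| ≤ 470 * K ^ 7 * τ * Λ := by
  have hK0 : 0 ≤ K := by linarith
  have := tr_lip hκ (sides_F hΛ) hK hτ (h := h) (h' := h') (w := w) (w' := w)
    (fun i => by rw [sdF_left, mul_one]; exact h1 i)
    (fun i => by rw [sdF_left, mul_one]; exact h2 i)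
    (fun i => by rw [sdF_left, mul_one]; exact (h3 i).trans (by nlinarith))
    (fun q => by rw [sdF_right]; exact (w1 q).trans (by nlinarith))
    (fun q => by rw [sub_self, abs_zero, sdF_right]; positivity) q
  rwa [sdF_right] at this

/-- the components which are dropped -/
structure Fz (w : Fin 14 → ℝ) : Prop where
  z0 : w 0 = 0
  z1 : w 1 = 0
  z2 : w 2 = 0
  z4 : w 4 = 0

section live

variable {κ : ℝ} {h : Fin 4 → ℝ} {w : Fin 14 → ℝ}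

theorem Fz.t0 (z : Fz w) : tr κ h w 0 = 0 := by rw [tr0, z.z0]
theorem Fz.t1 (z : Fz w) : tr κ h w 1 = 0 := by rw [tr1, z.z0, z.z1]; ring
theorem Fz.t2 (z : Fz w) : tr κ h w 2 = 0 := by rw [tr2, z.z0, z.z1, z.z2]; ring
theorem Fz.t3 (z : Fz w) : tr κ h w 3 = w 3 := by rw [tr3, z.z0, z.z1]; ring
theorem Fz.t4 (z : Fz w) : tr κ h w 4 = 0 := by rw [tr4, z.z0, z.z1, z.z2, z.z4]; ring
theorem Fz.t5 (z : Fz w) : tr κ h w 5 = w 5 - 4 * κ * h 1 * w 3 := by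
  rw [tr5, z.z0, z.z1, z.z2]; ring
theorem Fz.t6 (z : Fz w) : tr κ h w 6 = w 6 + 4 * κ ^ 2 * h 1 ^ 2 * w 3 - 2 * κ * h 1 * w 5 := by
  rw [tr6, z.z0, z.z1, z.z2, z.z4]; ring
theorem Fz.t7 (z : Fz w) : tr κ h w 7 = w 7 - 2 * κ * h 1 ^ 2 * w 3 + h 1 * w 5 := by
  rw [tr7, z.z0, z.z1, z.z2, z.z4]; ring
theorem Fz.t8 (z : Fz w) : tr κ h w 8 = w 8 + 4 * κ ^ 2 * h 1 ^ 3 * w 3 -
    3 * κ * h 1 ^ 2 * w 5 + 2 * h 1 * w 6 - 2 * κ * h 1 * w 7 := by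
  rw [tr8, z.z0, z.z1, z.z2, z.z4]; ring
theorem Fz.t9 (z : Fz w) : tr κ h w 9 = w 9 + κ ^ 2 * h 1 ^ 4 * w 3 - κ * h 1 ^ 3 * w 5 +
    h 1 ^ 2 * w 6 - κ * h 1 ^ 2 * w 7 + h 1 * w 8 := by
  rw [tr9, z.z0, z.z1, z.z2, z.z4]; ring
theorem Fz.t10 (z : Fz w) : tr κ h w 10 = w 10 + 2 * h 3 * w 3 + h 2 * w 5 + h 0 * w 7 := by
  rw [tr10, z.z0, z.z1, z.z2, z.z4]; ring
theorem Fz.t11 (z : Fz w) : tr κ h w 11 = w 11 - 4 * κ * h 1 * h 3 * w 3 -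
    2 * κ * h 1 * h 2 * w 5 + h 3 * w 5 + 2 * h 2 * w 6 - 2 * κ * h 0 * h 1 * w 7 + h 0 * w 8 -
    2 * κ * h 1 * w 10 := by
  rw [tr11, z.z0, z.z1, z.z2, z.z4]; ring
theorem Fz.t12 (z : Fz w) : tr κ h w 12 = w 12 - 2 * κ * h 1 ^ 2 * h 3 * w 3 -
    κ * h 1 ^ 2 * h 2 * w 5 + h 1 * h 3 * w 5 + 2 * h 1 * h 2 * w 6 + h 3 * w 7 -
    κ * h 0 * h 1 ^ 2 * w 7 + h 2 * w 8 + h 0 * h 1 * w 8 + 2 * h 0 * w 9 -
    κ * h 1 ^ 2 * w 10 + h 1 * w 11 := by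
  rw [tr12, z.z0, z.z1, z.z2, z.z4]; ring

theorem Fz.tr (z : Fz w) : Fz (tr κ h w) := ⟨z.t0, z.t1, z.t2, z.t4⟩

end live

/-- one step in the normalised group -/
structure Loc (κ K η : ℝ) (h h' g : Fin 4 → ℝ) (w v w' : Fin 14 → ℝ) : Prop where
  hκ : |κ| ≤ 1
  K1 : 1 ≤ K
  η0 : 0 ≤ η
  bh : ∀ i, |h i| ≤ K
  bh' : ∀ i, |h' i| ≤ K
  bg : ∀ i, |g i| ≤ K
  bw : ∀ q, |w q| ≤ K
  bw' : ∀ q, |w' q| ≤ K
  zw : Fz w
  fr : g = mul κ h h'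
  fl : ∀ q, q ≠ 13 → |w' q - (v q + tr κ h' w q)| ≤ η

section

variable {κ K η : ℝ} {h h' g : Fin 4 → ℝ} {w v w' : Fin 14 → ℝ}

/-- larger errors -/
theorem Loc.mono (L : Loc κ K η h h' g w v w') {η' : ℝ} (hη : η ≤ η') :
    Loc κ K η' h h' g w v w' :=
  ⟨L.hκ, L.K1, L.η0.trans hη, L.bh, L.bh', L.bg, L.bw, L.bw', L.zw, L.fr,
    fun q hq => (L.fl q hq).trans hη⟩

/-- the error of a step -/
theorem Loc.step (L : Loc κ K η h h' g w v w') {h0 : Fin 4 → ℝ} (b0 : ∀ i, |h0 i| ≤ K)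
    (hh : ∀ i, |h' i - h0 i| ≤ η) {q : Fin 14} (hq : q ≠ 13) (hv : |v q| ≤ η) :
    |w' q - NetW191.tr κ h0 w q| ≤ 472 * K ^ 8 * η := by
  have K0 : 0 ≤ K := by linarith [L.K1]
  have h1 := tr_frame L.hκ L.K1 L.η0 K0 L.bh' b0 hh L.bw q
  have h2 := L.fl q hq
  have e : w' q - NetW191.tr κ h0 w q = (w' q - (v q + NetW191.tr κ h' w q)) + v q +
      (NetW191.tr κ h' w q - NetW191.tr κ h0 w q) := by ring
  rw [e]
  have h3 := abs_add_le (w' q - (v q + NetW191.tr κ h' w q) + v q)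
    (NetW191.tr κ h' w q - NetW191.tr κ h0 w q)
  have h4 := abs_add_le (w' q - (v q + NetW191.tr κ h' w q)) (v q)
  have h5 : η ≤ K ^ 8 * η := le_mul_of_one_le_left L.η0 (one_le_pow₀ L.K1)
  have h6 : 470 * K ^ 7 * η * K = 470 * (K ^ 8 * η) := by ring
  rw [h6] at h1
  linarith

theorem Loc.g1 (L : Loc κ K η h h' g w v w') : g 1 = h 1 + h' 1 := by rw [L.fr, mul1]
theorem Loc.g2 (L : Loc κ K η h h' g w v w') : g 2 = h 2 + h' 2 + h 1 * h' 0 := by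
  rw [L.fr, mul2]
theorem Loc.g3 (L : Loc κ K η h h' g w v w') :
    g 3 = h 3 + h' 3 - 2 * κ * h 1 * h' 2 - κ * h 1 ^ 2 * h' 0 := by rw [L.fr, mul3]

/-- products with bounded factors -/
theorem mb {x y X Y : ℝ} (hx : |x| ≤ X) (hy : |y| ≤ Y) : |x * y| ≤ X * Y := by
  rw [abs_mul]; exact mul_le_mul hx hy (abs_nonneg _) ((abs_nonneg _).trans hx)

theorem Loc.kc (L : Loc κ K η h h' g w v w') {x X : ℝ} (hx : |x| ≤ X) : |κ * x| ≤ X := by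
  have := mb L.hκ hx
  linarith

/-- difference of the positions -/
theorem Loc.pos2 (L : Loc κ K η h h' g w v w') (i0 : |h' 0| ≤ η) (i2 : |h' 2| ≤ η) :
    |g 2 - h 2| ≤ 2 * K ^ 2 * η := by
  have e : g 2 - h 2 = h' 2 + h 1 * h' 0 := by rw [L.g2]; ring
  rw [e]
  have h1 := mb (L.bh 1) i0
  have h2 := abs_add_le (h' 2) (h 1 * h' 0)
  have K0 : 0 ≤ K := by linarith [L.K1]
  have h3 : η ≤ K ^ 2 * η := le_mul_of_one_le_left L.η0 (one_le_pow₀ L.K1)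
  have h4 : K * η ≤ K ^ 2 * η := mul_le_mul_of_nonneg_right (by nlinarith [L.K1]) L.η0
  linarith

theorem Loc.pos3 (L : Loc κ K η h h' g w v w') (i0 : |h' 0| ≤ η) (i2 : |h' 2| ≤ η)
    (i3 : |h' 3| ≤ η) : |g 3 - h 3| ≤ 4 * K ^ 2 * η := by
  have e : g 3 - h 3 = h' 3 - 2 * (κ * (h 1 * h' 2)) - κ * (h 1 * (h 1 * h' 0)) := by
    rw [L.g3]; ring
  rw [e]
  have h1 := L.kc (mb (L.bh 1) i2)
  have h2 := L.kc (mb (L.bh 1) (mb (L.bh 1) i0))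
  have h3 := abs_sub (h' 3 - 2 * (κ * (h 1 * h' 2))) (κ * (h 1 * (h 1 * h' 0)))
  have h4 := abs_sub (h' 3) (2 * (κ * (h 1 * h' 2)))
  rw [abs_mul 2, abs_two] at h4
  have K0 : 0 ≤ K := by linarith [L.K1]
  have h5 : η ≤ K ^ 2 * η := le_mul_of_one_le_left L.η0 (one_le_pow₀ L.K1)
  have h6 : K * η ≤ K ^ 2 * η := mul_le_mul_of_nonneg_right (by nlinarith [L.K1]) L.η0
  have h7 : K * (K * η) = K ^ 2 * η := by ring
  linarith

/-- the position box -/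
theorem Loc.pbox (L : Loc κ K η h h' g w v w') (i0 : |h' 0| ≤ η) (i2 : |h' 2| ≤ η)
    (i3 : |h' 3| ≤ η) :
    (|v 10| ≤ η → |w' 10 - w 10| ≤ 472 * K ^ 8 * η) ∧
    (|v 11| ≤ η → |w' 11 - (w 11 - 2 * κ * h' 1 * w 10)| ≤ 472 * K ^ 8 * η) ∧
    (|v 12| ≤ η → |w' 12 - (w 12 - κ * h' 1 ^ 2 * w 10 + h' 1 * w 11)| ≤ 472 * K ^ 8 * η) := by
  have K0 : 0 ≤ K := by linarith [L.K1]
  set h0 : Fin 4 → ℝ := ![0, h' 1, 0, 0] with hh0
  have b0 : ∀ i, |h0 i| ≤ K := by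
    intro i; fin_cases i
    · change |(0 : ℝ)| ≤ K; rw [abs_zero]; exact K0
    · exact L.bh' 1
    · change |(0 : ℝ)| ≤ K; rw [abs_zero]; exact K0
    · change |(0 : ℝ)| ≤ K; rw [abs_zero]; exact K0
  have hh : ∀ i, |h' i - h0 i| ≤ η := by
    intro i; fin_cases i
    · change |h' 0 - 0| ≤ η; rw [sub_zero]; exact i0
    · change |h' 1 - h' 1| ≤ η; rw [sub_self, abs_zero]; exact L.η0
    · change |h' 2 - 0| ≤ η; rw [sub_zero]; exact i2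
    · change |h' 3 - 0| ≤ η; rw [sub_zero]; exact i3
  have e10 : NetW191.tr κ h0 w 10 = w 10 := by
    rw [L.zw.t10]; change w 10 + 2 * 0 * w 3 + 0 * w 5 + 0 * w 7 = _; ring
  have e11 : NetW191.tr κ h0 w 11 = w 11 - 2 * κ * h' 1 * w 10 := by
    rw [L.zw.t11]
    change w 11 - 4 * κ * h' 1 * 0 * w 3 - 2 * κ * h' 1 * 0 * w 5 + 0 * w 5 + 2 * 0 * w 6 -
      2 * κ * 0 * h' 1 * w 7 + 0 * w 8 - 2 * κ * h' 1 * w 10 = _
    ring
  have e12 : NetW191.tr κ h0 w 12 = w 12 - κ * h' 1 ^ 2 * w 10 + h' 1 * w 11 := by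
    rw [L.zw.t12]
    change w 12 - 2 * κ * h' 1 ^ 2 * 0 * w 3 - κ * h' 1 ^ 2 * 0 * w 5 + h' 1 * 0 * w 5 +
      2 * h' 1 * 0 * w 6 + 0 * w 7 - κ * 0 * h' 1 ^ 2 * w 7 + 0 * w 8 + 0 * h' 1 * w 8 +
      2 * 0 * w 9 - κ * h' 1 ^ 2 * w 10 + h' 1 * w 11 = _
    ring
  refine ⟨fun hv => ?_, fun hv => ?_, fun hv => ?_⟩
  · rw [← e10]; exact L.step b0 hh (by decide) hv
  · rw [← e11]; exact L.step b0 hh (by decide) hv
  · rw [← e12]; exact L.step b0 hh (by decide) hv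

/-- the position box, `s` -/
theorem Loc.ps (L : Loc κ K η h h' g w v w') {A : ℝ} (h10 : |w' 10 - w 10| ≤ A)
    (h11 : |w' 11 - (w 11 - 2 * κ * h' 1 * w 10)| ≤ A) :
    |(w' 11 + 2 * κ * g 1 * w' 10) - (w 11 + 2 * κ * h 1 * w 10)| ≤ 3 * K * A := by
  have A0 : 0 ≤ A := (abs_nonneg _).trans h10
  have e : (w' 11 + 2 * κ * g 1 * w' 10) - (w 11 + 2 * κ * h 1 * w 10) =
      (w' 11 - (w 11 - 2 * κ * h' 1 * w 10)) + 2 * (κ * (g 1 * (w' 10 - w 10))) := by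
    rw [L.g1]; ring
  rw [e]
  have h1 := L.kc (mb (L.bg 1) h10)
  have h2 := abs_add_le (w' 11 - (w 11 - 2 * κ * h' 1 * w 10)) (2 * (κ * (g 1 * (w' 10 - w 10))))
  rw [abs_mul 2, abs_two] at h2
  have h3 : A ≤ K * A := le_mul_of_one_le_left A0 L.K1
  linarith

/-- the position box, the invariant -/
theorem Loc.pP (L : Loc κ K η h h' g w v w') {A : ℝ} (h10 : |w' 10 - w 10| ≤ A)
    (h11 : |w' 11 - (w 11 - 2 * κ * h' 1 * w 10)| ≤ A)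
    (h12 : |w' 12 - (w 12 - κ * h' 1 ^ 2 * w 10 + h' 1 * w 11)| ≤ A) :
    |(w' 12 - g 1 * (w' 11 + 2 * κ * g 1 * w' 10) + κ * g 1 ^ 2 * w' 10) -
      (w 12 - h 1 * (w 11 + 2 * κ * h 1 * w 10) + κ * h 1 ^ 2 * w 10)| ≤ 5 * K ^ 2 * A := by
  have A0 : 0 ≤ A := (abs_nonneg _).trans h10
  have K0 : 0 ≤ K := by linarith [L.K1]
  have e : (w' 12 - g 1 * (w' 11 + 2 * κ * g 1 * w' 10) + κ * g 1 ^ 2 * w' 10) -
      (w 12 - h 1 * (w 11 + 2 * κ * h 1 * w 10) + κ * h 1 ^ 2 * w 10) =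
      (w' 12 - (w 12 - κ * h' 1 ^ 2 * w 10 + h' 1 * w 11)) -
      g 1 * ((w' 11 + 2 * κ * g 1 * w' 10) - (w 11 + 2 * κ * h 1 * w 10)) +
      κ * (g 1 * (g 1 * (w' 10 - w 10))) := by
    rw [L.g1]; ring
  rw [e]
  have h1 := mb (L.bg 1) (L.ps h10 h11)
  have h2 := L.kc (mb (L.bg 1) (mb (L.bg 1) h10))
  have h3 := abs_add_le ((w' 12 - (w 12 - κ * h' 1 ^ 2 * w 10 + h' 1 * w 11)) -
      g 1 * ((w' 11 + 2 * κ * g 1 * w' 10) - (w 11 + 2 * κ * h 1 * w 10)))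
      (κ * (g 1 * (g 1 * (w' 10 - w 10))))
  have h4 := abs_sub (w' 12 - (w 12 - κ * h' 1 ^ 2 * w 10 + h' 1 * w 11))
      (g 1 * ((w' 11 + 2 * κ * g 1 * w' 10) - (w 11 + 2 * κ * h 1 * w 10)))
  have h5 : A ≤ K ^ 2 * A := le_mul_of_one_le_left A0 (one_le_pow₀ L.K1)
  have h6 : K * (3 * K * A) = 3 * (K ^ 2 * A) := by ring
  have h7 : K * (K * A) = K ^ 2 * A := by ring
  linarith

/-- the velocity box -/
theorem Loc.vbox (L : Loc κ K η h h' g w v w') (i0 : |h' 0| ≤ η) (i1 : |h' 1| ≤ η) :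
    (|v 7| ≤ η → |w' 7 - w 7| ≤ 472 * K ^ 8 * η) ∧
    (|v 8| ≤ η → |w' 8 - w 8| ≤ 472 * K ^ 8 * η) ∧
    (|v 12| ≤ η → |w' 12 - (w 12 + h' 3 * w 7 + h' 2 * w 8)| ≤ 472 * K ^ 8 * η) := by
  have K0 : 0 ≤ K := by linarith [L.K1]
  set h0 : Fin 4 → ℝ := ![0, 0, h' 2, h' 3] with hh0
  have b0 : ∀ i, |h0 i| ≤ K := by
    intro i; fin_cases i
    · change |(0 : ℝ)| ≤ K; rw [abs_zero]; exact K0
    · change |(0 : ℝ)| ≤ K; rw [abs_zero]; exact K0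
    · exact L.bh' 2
    · exact L.bh' 3
  have hh : ∀ i, |h' i - h0 i| ≤ η := by
    intro i; fin_cases i
    · change |h' 0 - 0| ≤ η; rw [sub_zero]; exact i0
    · change |h' 1 - 0| ≤ η; rw [sub_zero]; exact i1
    · change |h' 2 - h' 2| ≤ η; rw [sub_self, abs_zero]; exact L.η0
    · change |h' 3 - h' 3| ≤ η; rw [sub_self, abs_zero]; exact L.η0
  have e7 : NetW191.tr κ h0 w 7 = w 7 := by
    rw [L.zw.t7]; change w 7 - 2 * κ * 0 ^ 2 * w 3 + 0 * w 5 = _; ring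
  have e8 : NetW191.tr κ h0 w 8 = w 8 := by
    rw [L.zw.t8]
    change w 8 + 4 * κ ^ 2 * 0 ^ 3 * w 3 - 3 * κ * 0 ^ 2 * w 5 + 2 * 0 * w 6 -
      2 * κ * 0 * w 7 = _
    ring
  have e12 : NetW191.tr κ h0 w 12 = w 12 + h' 3 * w 7 + h' 2 * w 8 := by
    rw [L.zw.t12]
    change w 12 - 2 * κ * 0 ^ 2 * h' 3 * w 3 - κ * 0 ^ 2 * h' 2 * w 5 + 0 * h' 3 * w 5 +
      2 * 0 * h' 2 * w 6 + h' 3 * w 7 - κ * 0 * 0 ^ 2 * w 7 + h' 2 * w 8 + 0 * 0 * w 8 +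
      2 * 0 * w 9 - κ * 0 ^ 2 * w 10 + 0 * w 11 = _
    ring
  refine ⟨fun hv => ?_, fun hv => ?_, fun hv => ?_⟩
  · rw [← e7]; exact L.step b0 hh (by decide) hv
  · rw [← e8]; exact L.step b0 hh (by decide) hv
  · rw [← e12]; exact L.step b0 hh (by decide) hv

/-- `Z` -/
theorem Loc.vZ (L : Loc κ K η h h' g w v w') {A : ℝ} (hA : η ≤ A) (i1 : |h' 1| ≤ η)
    (h7 : |w' 7 - w 7| ≤ A) (h8 : |w' 8 - w 8| ≤ A) :
    |(w' 8 + 2 * κ * g 1 * w' 7) - (w 8 + 2 * κ * h 1 * w 7)| ≤ 5 * K * A := by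
  have A0 : 0 ≤ A := (abs_nonneg _).trans h7
  have K0 : 0 ≤ K := by linarith [L.K1]
  have e : (w' 8 + 2 * κ * g 1 * w' 7) - (w 8 + 2 * κ * h 1 * w 7) =
      (w' 8 - w 8) + 2 * (κ * (g 1 * (w' 7 - w 7))) + 2 * (κ * (w 7 * h' 1)) := by
    rw [L.g1]; ring
  rw [e]
  have h1 := L.kc (mb (L.bg 1) h7)
  have h2 := L.kc (mb (L.bw 7) i1)
  have h3 := abs_add_le ((w' 8 - w 8) + 2 * (κ * (g 1 * (w' 7 - w 7)))) (2 * (κ * (w 7 * h' 1)))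
  have h4 := abs_add_le (w' 8 - w 8) (2 * (κ * (g 1 * (w' 7 - w 7))))
  rw [abs_mul 2, abs_two] at h3 h4
  have h5 : A ≤ K * A := le_mul_of_one_le_left A0 L.K1
  have h6 : K * η ≤ K * A := mul_le_mul_of_nonneg_left hA K0
  linarith

/-- the velocity box, the invariant -/
theorem Loc.vP (L : Loc κ K η h h' g w v w') {A : ℝ} (hA : η ≤ A) (i0 : |h' 0| ≤ η)
    (i1 : |h' 1| ≤ η) (h7 : |w' 7 - w 7| ≤ A) (h8 : |w' 8 - w 8| ≤ A)
    (h12 : |w' 12 - (w 12 + h' 3 * w 7 + h' 2 * w 8)| ≤ A) :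
    |(w' 12 - w' 7 * g 3 - (w' 8 + 2 * κ * g 1 * w' 7) * g 2) -
      (w 12 - w 7 * h 3 - (w 8 + 2 * κ * h 1 * w 7) * h 2)| ≤ 12 * K ^ 3 * A := by
  have A0 : 0 ≤ A := (abs_nonneg _).trans h7
  have K0 : 0 ≤ K := by linarith [L.K1]
  have hZ := L.vZ hA i1 h7 h8
  have e : (w' 12 - w' 7 * g 3 - (w' 8 + 2 * κ * g 1 * w' 7) * g 2) -
      (w 12 - w 7 * h 3 - (w 8 + 2 * κ * h 1 * w 7) * h 2) =
      (w' 12 - (w 12 + h' 3 * w 7 + h' 2 * w 8)) + κ * (h 1 * (h 1 * (w 7 * h' 0))) -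
      ((w 8 + 2 * κ * h 1 * w 7) * (h 1 * h' 0)) - g 3 * (w' 7 - w 7) -
      g 2 * ((w' 8 + 2 * κ * g 1 * w' 7) - (w 8 + 2 * κ * h 1 * w 7)) := by
    rw [L.g2, L.g3]; ring
  rw [e]
  have h1 := L.kc (mb (L.bh 1) (mb (L.bh 1) (mb (L.bw 7) i0)))
  have hZb : |w 8 + 2 * κ * h 1 * w 7| ≤ 3 * K ^ 2 := by
    have e : w 8 + 2 * κ * h 1 * w 7 = w 8 + 2 * (κ * (h 1 * w 7)) := by ring
    rw [e]
    have k1 := L.kc (mb (L.bh 1) (L.bw 7))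
    have k2 := abs_add_le (w 8) (2 * (κ * (h 1 * w 7)))
    rw [abs_mul 2, abs_two] at k2
    have k3 := L.bw 8
    nlinarith [L.K1]
  have h2 := mb hZb (mb (L.bh 1) i0)
  have h3 := mb (L.bg 3) h7
  have h4 := mb (L.bg 2) hZ
  have h5 := abs_sub ((w' 12 - (w 12 + h' 3 * w 7 + h' 2 * w 8)) +
      κ * (h 1 * (h 1 * (w 7 * h' 0))) - ((w 8 + 2 * κ * h 1 * w 7) * (h 1 * h' 0)) -
      g 3 * (w' 7 - w 7)) (g 2 * ((w' 8 + 2 * κ * g 1 * w' 7) - (w 8 + 2 * κ * h 1 * w 7)))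
  have h6 := abs_sub ((w' 12 - (w 12 + h' 3 * w 7 + h' 2 * w 8)) +
      κ * (h 1 * (h 1 * (w 7 * h' 0))) - ((w 8 + 2 * κ * h 1 * w 7) * (h 1 * h' 0)))
      (g 3 * (w' 7 - w 7))
  have h7 := abs_sub ((w' 12 - (w 12 + h' 3 * w 7 + h' 2 * w 8)) +
      κ * (h 1 * (h 1 * (w 7 * h' 0)))) ((w 8 + 2 * κ * h 1 * w 7) * (h 1 * h' 0))
  have h8 := abs_add_le (w' 12 - (w 12 + h' 3 * w 7 + h' 2 * w 8))
      (κ * (h 1 * (h 1 * (w 7 * h' 0))))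
  have j1 : A ≤ K ^ 3 * A := le_mul_of_one_le_left A0 (one_le_pow₀ L.K1)
  have j2 : K * (K * (K * η)) ≤ K ^ 3 * A := by
    have : K * (K * (K * η)) = K ^ 3 * η := by ring
    rw [this]
    exact mul_le_mul_of_nonneg_left hA (by positivity)
  have j3 : 3 * K ^ 2 * (K * η) ≤ 3 * (K ^ 3 * A) := by
    have : 3 * K ^ 2 * (K * η) = 3 * (K ^ 3 * η) := by ring
    rw [this]
    have := mul_le_mul_of_nonneg_left hA (show 0 ≤ K ^ 3 by positivity)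
    linarith
  have j4 : K * A ≤ K ^ 3 * A := by
    refine mul_le_mul_of_nonneg_right ?_ A0
    calc K = K ^ 1 := (pow_one K).symm
      _ ≤ K ^ 3 := pow_le_pow_right₀ L.K1 (by norm_num)
  have j5 : K * (5 * K * A) ≤ 5 * (K ^ 3 * A) := by
    have h9 : K * (5 * K * A) = 5 * (K ^ 2 * A) := by ring
    rw [h9]
    have := mul_le_mul_of_nonneg_right (pow_le_pow_right₀ L.K1 (show 2 ≤ 3 by norm_num)) A0
    linarith
  linarith

/-- the box of the spread -/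
theorem Loc.sbox (L : Loc κ K η h h' g w v w') (i0 : |h' 0| ≤ η) (i2 : |h' 2| ≤ η)
    (w3 : w 3 = 0) : (|v 10| ≤ η → |w' 10 - w 10| ≤ 472 * K ^ 8 * η) ∧
    (w 5 = 0 → |v 11| ≤ η → |w' 11 - (w 11 - 2 * κ * h' 1 * w 10)| ≤ 472 * K ^ 8 * η) := by
  have K0 : 0 ≤ K := by linarith [L.K1]
  set h0 : Fin 4 → ℝ := ![0, h' 1, 0, h' 3] with hh0
  have b0 : ∀ i, |h0 i| ≤ K := by
    intro i; fin_cases i
    · change |(0 : ℝ)| ≤ K; rw [abs_zero]; exact K0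
    · exact L.bh' 1
    · change |(0 : ℝ)| ≤ K; rw [abs_zero]; exact K0
    · exact L.bh' 3
  have hh : ∀ i, |h' i - h0 i| ≤ η := by
    intro i; fin_cases i
    · change |h' 0 - 0| ≤ η; rw [sub_zero]; exact i0
    · change |h' 1 - h' 1| ≤ η; rw [sub_self, abs_zero]; exact L.η0
    · change |h' 2 - 0| ≤ η; rw [sub_zero]; exact i2
    · change |h' 3 - h' 3| ≤ η; rw [sub_self, abs_zero]; exact L.η0
  have e10 : NetW191.tr κ h0 w 10 = w 10 := by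
    rw [L.zw.t10, w3]; change w 10 + 2 * h' 3 * 0 + 0 * w 5 + 0 * w 7 = _; ring
  refine ⟨fun hv => ?_, fun w5 hv => ?_⟩
  · rw [← e10]; exact L.step b0 hh (by decide) hv
  · have e11 : NetW191.tr κ h0 w 11 = w 11 - 2 * κ * h' 1 * w 10 := by
      rw [L.zw.t11, w3, w5]
      change w 11 - 4 * κ * h' 1 * h' 3 * 0 - 2 * κ * h' 1 * 0 * 0 + h' 3 * 0 + 2 * 0 * w 6 -
        2 * κ * 0 * h' 1 * w 7 + 0 * w 8 - 2 * κ * h' 1 * w 10 = _
      ring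
    rw [← e11]; exact L.step b0 hh (by decide) hv

/-- inverse rows: positions -/
theorem Loc.inv2 (L : Loc κ K η h h' g w v w') (i0 : |h' 0| ≤ η) (ha : |g 2 - h 2| ≤ η) :
    |h' 2| ≤ 2 * K * η := by
  have e : h' 2 = (g 2 - h 2) - h 1 * h' 0 := by rw [L.g2]; ring
  rw [e]
  have h1 := mb (L.bh 1) i0
  have h2 := abs_sub (g 2 - h 2) (h 1 * h' 0)
  have h3 : η ≤ K * η := le_mul_of_one_le_left L.η0 L.K1
  linarith

theorem Loc.inv3 (L : Loc κ K η h h' g w v w') {y τ : ℝ} (i0 : |h' 0| ≤ τ) (i2 : |h' 2| ≤ τ)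
    (hb : |g 3 - h 3| ≤ y) : |h' 3| ≤ y + 3 * K ^ 2 * τ := by
  have τ0 : 0 ≤ τ := (abs_nonneg _).trans i0
  have e : h' 3 = (g 3 - h 3) + 2 * (κ * (h 1 * h' 2)) + κ * (h 1 * (h 1 * h' 0)) := by
    rw [L.g3]; ring
  have K0 : 0 ≤ K := by linarith [L.K1]
  have h1 := L.kc (mb (L.bh 1) i2)
  have h2 := L.kc (mb (L.bh 1) (mb (L.bh 1) i0))
  have h3 := abs_add_le ((g 3 - h 3) + 2 * (κ * (h 1 * h' 2))) (κ * (h 1 * (h 1 * h' 0)))
  have h4 := abs_add_le (g 3 - h 3) (2 * (κ * (h 1 * h' 2)))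
  rw [abs_mul 2, abs_two] at h4
  rw [← e] at h3
  have h6 : K * τ ≤ K ^ 2 * τ := mul_le_mul_of_nonneg_right (by nlinarith [L.K1]) τ0
  have h7 : K * (K * τ) = K ^ 2 * τ := by ring
  linarith

/-- **evolution** : the rows along one line -/
theorem Loc.evo (L : Loc κ K η h h' g w v w') {u : ℝ} (hu : |u| ≤ K) (i0 : |h' 0 - u| ≤ η)
    (i1 : |h' 1| ≤ η) (i2 : |h' 2| ≤ η) (i3 : |h' 3| ≤ η) (hv : ∀ q, q ≠ 13 → |v q| ≤ η) :
    |g 2 - (h 2 + u * h 1)| ≤ 5000 * K ^ 12 * η ∧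
    |g 3 - (h 3 - κ * u * h 1 ^ 2)| ≤ 5000 * K ^ 12 * η ∧ |g 1 - h 1| ≤ 5000 * K ^ 12 * η ∧
    |(w' 11 + 2 * κ * g 1 * w' 10) -
      ((w 11 + 2 * κ * h 1 * w 10) + u * (w 8 + 2 * κ * h 1 * w 7))| ≤ 5000 * K ^ 12 * η ∧
    |w' 10 - (w 10 + u * w 7)| ≤ 5000 * K ^ 12 * η ∧ |w' 7 - w 7| ≤ 5000 * K ^ 12 * η ∧
    |(w' 8 + 2 * κ * g 1 * w' 7) - (w 8 + 2 * κ * h 1 * w 7)| ≤ 5000 * K ^ 12 * η ∧
    |w' 12 - (w 12 + 2 * u * w 9)| ≤ 5000 * K ^ 12 * η ∧ |w' 9 - w 9| ≤ 5000 * K ^ 12 * η := by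
  have K1 := L.K1
  have K0 : 0 ≤ K := by linarith
  have η0 := L.η0
  have b0 : ∀ i, |sh u i| ≤ K := by
    intro i; fin_cases i
    · exact hu
    · change |(0 : ℝ)| ≤ K; rw [abs_zero]; exact K0
    · change |(0 : ℝ)| ≤ K; rw [abs_zero]; exact K0
    · change |(0 : ℝ)| ≤ K; rw [abs_zero]; exact K0
  have hh : ∀ i, |h' i - sh u i| ≤ η := by
    intro i; fin_cases i
    · exact i0
    · change |h' 1 - 0| ≤ η; rw [sub_zero]; exact i1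
    · change |h' 2 - 0| ≤ η; rw [sub_zero]; exact i2
    · change |h' 3 - 0| ≤ η; rw [sub_zero]; exact i3
  have st : ∀ q, q ≠ 13 → |w' q - NetW191.tr κ (sh u) w q| ≤ 472 * K ^ 8 * η :=
    fun q hq => L.step b0 hh hq (hv q hq)
  have e7 : NetW191.tr κ (sh u) w 7 = w 7 := by
    rw [L.zw.t7]; change w 7 - 2 * κ * 0 ^ 2 * w 3 + 0 * w 5 = _; ring
  have e8 : NetW191.tr κ (sh u) w 8 = w 8 := tr_sh8 ..
  have e9 : NetW191.tr κ (sh u) w 9 = w 9 := tr_sh9 ..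
  have e10 : NetW191.tr κ (sh u) w 10 = w 10 + u * w 7 := by
    rw [tr_sh10, L.zw.z4]; ring
  have e11 : NetW191.tr κ (sh u) w 11 = w 11 + u * w 8 := tr_sh11 ..
  have e12 : NetW191.tr κ (sh u) w 12 = w 12 + 2 * u * w 9 := tr_sh12 ..
  have s7 := st 7 (by decide)
  have s8 := st 8 (by decide)
  have s9 := st 9 (by decide)
  have s10 := st 10 (by decide)
  have s11 := st 11 (by decide)
  have s12 := st 12 (by decide)
  rw [e7] at s7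
  rw [e8] at s8
  rw [e9] at s9
  rw [e10] at s10
  rw [e11] at s11
  rw [e12] at s12
  set A := 472 * K ^ 8 * η with hA
  have A0 : 0 ≤ A := by positivity
  have hηA : η ≤ A := by
    have : η ≤ K ^ 8 * η := le_mul_of_one_le_left η0 (one_le_pow₀ K1)
    have : A = 472 * (K ^ 8 * η) := by rw [hA]; ring
    linarith
  have big : 10 * K ^ 4 * A ≤ 5000 * K ^ 12 * η := by
    have e : 10 * K ^ 4 * A = 4720 * (K ^ 12 * η) := by rw [hA]; ring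
    rw [e]
    have : 0 ≤ K ^ 12 * η := by positivity
    linarith
  have pw : ∀ j : ℕ, j ≤ 4 → K ^ j * A ≤ K ^ 4 * A := fun j hj =>
    mul_le_mul_of_nonneg_right (pow_le_pow_right₀ K1 hj) A0
  have p0 : A ≤ K ^ 4 * A := le_mul_of_one_le_left A0 (one_le_pow₀ K1)
  have p1 : K * A ≤ K ^ 4 * A := by have := pw 1 (by norm_num); rwa [pow_one] at this
  have p2 : K * (K * A) ≤ K ^ 4 * A := by
    have := pw 2 (by norm_num)
    have e : K * (K * A) = K ^ 2 * A := by ring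
    rwa [e]
  have q1 : K * η ≤ K * A := mul_le_mul_of_nonneg_left hηA K0
  have q2 : K * (K * η) ≤ K * (K * A) := mul_le_mul_of_nonneg_left q1 K0
  refine ⟨?_, ?_, ?_, ?_, ?_, ?_, ?_, ?_, ?_⟩
  · have e : g 2 - (h 2 + u * h 1) = h' 2 + h 1 * (h' 0 - u) := by rw [L.g2]; ring
    rw [e]
    have h1 := mb (L.bh 1) i0
    have h2 := abs_add_le (h' 2) (h 1 * (h' 0 - u))
    linarith
  · have e : g 3 - (h 3 - κ * u * h 1 ^ 2) = h' 3 - 2 * (κ * (h 1 * h' 2)) -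
        κ * (h 1 * (h 1 * (h' 0 - u))) := by rw [L.g3]; ring
    rw [e]
    have h1 := L.kc (mb (L.bh 1) i2)
    have h2 := L.kc (mb (L.bh 1) (mb (L.bh 1) i0))
    have h3 := abs_sub (h' 3 - 2 * (κ * (h 1 * h' 2))) (κ * (h 1 * (h 1 * (h' 0 - u))))
    have h4 := abs_sub (h' 3) (2 * (κ * (h 1 * h' 2)))
    rw [abs_mul 2, abs_two] at h4
    linarith
  · have e : g 1 - h 1 = h' 1 := by rw [L.g1]; ring
    rw [e]; linarith
  · have e : (w' 11 + 2 * κ * g 1 * w' 10) -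
        ((w 11 + 2 * κ * h 1 * w 10) + u * (w 8 + 2 * κ * h 1 * w 7)) =
        (w' 11 - (w 11 + u * w 8)) + 2 * (κ * (g 1 * (w' 10 - (w 10 + u * w 7)))) +
        2 * (κ * (w 10 * h' 1)) + 2 * (κ * (u * (w 7 * h' 1))) := by
      rw [L.g1]; ring
    rw [e]
    have h1 := L.kc (mb (L.bg 1) s10)
    have h2 := L.kc (mb (L.bw 10) i1)
    have h3 := L.kc (mb hu (mb (L.bw 7) i1))
    have h4 := abs_add_le ((w' 11 - (w 11 + u * w 8)) +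
      2 * (κ * (g 1 * (w' 10 - (w 10 + u * w 7)))) + 2 * (κ * (w 10 * h' 1)))
      (2 * (κ * (u * (w 7 * h' 1))))
    have h5 := abs_add_le ((w' 11 - (w 11 + u * w 8)) +
      2 * (κ * (g 1 * (w' 10 - (w 10 + u * w 7))))) (2 * (κ * (w 10 * h' 1)))
    have h6 := abs_add_le (w' 11 - (w 11 + u * w 8))
      (2 * (κ * (g 1 * (w' 10 - (w 10 + u * w 7)))))
    rw [abs_mul 2, abs_two] at h4 h5 h6
    linarith
  · linarith
  · linarith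
  · have := L.vZ hηA i1 s7 s8
    linarith
  · linarith
  · linarith

end

end Crest.Agent.R136.Qd329
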