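import Crest.Agent.R136.Qd12_329
import Crest.Agent.R136.Qd13_329

/-!
# R136: the bilinear rigidity (helper329), part 14: the static gauge and its transport

* `Eq0` : the static flag `E` of a full relation at the height `z`.
* `claimA` : full relation at one incidence ⊢ the flag of the incidence is `tr h E` on the slots
  `7 .. 12`.
* `claimB` : transport along the line.
* `pair_rel` : the relation of all pairs.
-/

set_option autoImplicit false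

namespace Crest.Agent.R136.Qd329

open Crest.Agent.R136.NetW191 Crest.Agent.R136.EvW938

/-- the static flag -/
noncomputable def Eq0 (e3 e5 e6 s0 β0 ζ0 Z0 P0 R0 z : ℝ) : Fin 14 → ℝ :=
  ![0, 0, 0, e3, 0, e5, e6, ζ0, Z0, R0, β0 - z * ζ0, s0 - z * Z0, P0 - 2 * z * R0, 0]

section

variable {e3 e5 e6 s0 β0 ζ0 Z0 P0 R0 z : ℝ}

theorem Eq0_fz : Fz (Eq0 e3 e5 e6 s0 β0 ζ0 Z0 P0 R0 z) := ⟨rfl, rfl, rfl, rfl⟩

theorem Eq0_bd {K Λ : ℝ} (hK : 1 ≤ K) (hΛ : 0 ≤ Λ) (h3 : |e3| ≤ Λ) (h5 : |e5| ≤ Λ)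
    (h6 : |e6| ≤ Λ) (hs : |s0| ≤ Λ) (hβ : |β0| ≤ Λ) (hζ : |ζ0| ≤ Λ) (hZ : |Z0| ≤ Λ)
    (hP : |P0| ≤ Λ) (hR : |R0| ≤ Λ) (hz : |z| ≤ K) (q : Fin 14) :
    |Eq0 e3 e5 e6 s0 β0 ζ0 Z0 P0 R0 z q| ≤ 3 * K * Λ := by
  have K0 : 0 ≤ K := by linarith
  have k1 : Λ ≤ K * Λ := le_mul_of_one_le_left hΛ hK
  have h0 : |(0 : ℝ)| ≤ 3 * K * Λ := by rw [abs_zero]; positivity
  have zζ := mb hz hζ
  have zZ := mb hz hZ
  have zR := mb hz hR
  fin_cases q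
  · exact h0
  · exact h0
  · exact h0
  · change |e3| ≤ _; linarith
  · exact h0
  · change |e5| ≤ _; linarith
  · change |e6| ≤ _; linarith
  · change |ζ0| ≤ _; linarith
  · change |Z0| ≤ _; linarith
  · change |R0| ≤ _; linarith
  · change |β0 - z * ζ0| ≤ _
    have := abs_sub β0 (z * ζ0); linarith
  · change |s0 - z * Z0| ≤ _
    have := abs_sub s0 (z * Z0); linarith
  · change |P0 - 2 * z * R0| ≤ _
    have e : P0 - 2 * z * R0 = P0 - 2 * (z * R0) := by ring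
    rw [e]
    have := abs_sub P0 (2 * (z * R0))
    rw [abs_mul 2, abs_two] at this
    linarith
  · exact h0

/-- a product with `κ` -/
theorem kb {κ x X : ℝ} (hκ : |κ| ≤ 1) (hx : |x| ≤ X) : |κ * x| ≤ X := by
  have := mb hκ hx
  linarith

theorem a2 {x X : ℝ} (hx : |x| ≤ X) : |2 * x| ≤ 2 * X := by
  rw [abs_mul, abs_two]; linarith

/-- a bound of a power product -/
theorem pw1 {K x : ℝ} (hK : 1 ≤ K) (hx : 0 ≤ x) : x ≤ K ^ 4 * x :=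
  le_mul_of_one_le_left hx (one_le_pow₀ hK)

theorem pwn {K x : ℝ} (hK : 1 ≤ K) (hx : 0 ≤ x) {j : ℕ} (hj : j ≤ 4) : K ^ j * x ≤ K ^ 4 * x :=
  mul_le_mul_of_nonneg_right (pow_le_pow_right₀ hK hj) hx

variable {l1 l2 m1 m2 κ K Λ η : ℝ} {h : Fin 4 → ℝ} {w : Fin 14 → ℝ}

set_option maxHeartbeats 1000000 in
/-- **full relation at one incidence ⊢ the flag is the static flag on the slots `7 .. 12`** -/
theorem claimA (hκ : |κ| ≤ 1) (hK : 1 ≤ K) (hΛ : 1 ≤ Λ) (hη : 0 ≤ η) (bh : ∀ i, |h i| ≤ K)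
    (hz : |h 0 - z| ≤ η) (h3 : |m1 - 2 * e3| ≤ η) (h5 : |l1 - e5| ≤ η) (h12 : |l1 - m2| ≤ η)
    (h6 : l2 = 2 * e6) (bζ : |ζ0| ≤ Λ) (bZ : |Z0| ≤ Λ) (bR : |R0| ≤ Λ)
    (r : FRel κ l1 l2 m1 m2 s0 β0 ζ0 Z0 P0 R0 η (h 2) (h 3) (h 1) (w 11 + 2 * κ * h 1 * w 10)
      (w 10) (w 7) (w 8 + 2 * κ * h 1 * w 7) (w 12) (w 9)) (q : Fin 14) (hq : 7 ≤ q)
    (hq' : q ≠ 13) :
    |w q - tr κ h (Eq0 e3 e5 e6 s0 β0 ζ0 Z0 P0 R0 z) q| ≤ 20 * K ^ 4 * (Λ * η) := by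
  have K0 : 0 ≤ K := by linarith
  obtain ⟨⟨rs, rβ, rζ, rZ⟩, rΦ, rR'⟩ := r
  set y := Λ * η with hy
  have hηy : η ≤ y := le_mul_of_one_le_left hη hΛ
  have y0 : 0 ≤ y := hη.trans hηy
  have b1 := bh 1
  have b2 := bh 2
  have b3 := bh 3
  have m2e : |m2 - e5| ≤ 2 * η := by
    have e : m2 - e5 = (l1 - e5) - (l1 - m2) := by ring
    rw [e]
    have := abs_sub (l1 - e5) (l1 - m2)
    linarith
  have p0 : y ≤ K ^ 4 * y := pw1 hK y0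
  have p1 : K * y ≤ K ^ 4 * y := by
    have := pwn hK y0 (j := 1) (by norm_num); rwa [pow_one] at this
  have p2 : K * (K * y) ≤ K ^ 4 * y := by
    have := pwn hK y0 (j := 2) (by norm_num)
    have e : K * (K * y) = K ^ 2 * y := by ring
    rwa [e]
  have p3 : K * (K * (K * y)) ≤ K ^ 4 * y := by
    have := pwn hK y0 (j := 3) (by norm_num)
    have e : K * (K * (K * y)) = K ^ 3 * y := by ring
    rwa [e]
  have p4 : K * (K * (K * (K * y))) ≤ K ^ 4 * y := by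
    have e : K * (K * (K * (K * y))) = K ^ 4 * y := by ring
    rw [e]
  have r1 : K * η ≤ K * y := mul_le_mul_of_nonneg_left hηy K0
  have r2 : K * (K * η) ≤ K * (K * y) := mul_le_mul_of_nonneg_left r1 K0
  have r3 : K * (K * (K * η)) ≤ K * (K * (K * y)) := mul_le_mul_of_nonneg_left r2 K0
  have r4 : K * (K * (K * (K * η))) ≤ K * (K * (K * (K * y))) := mul_le_mul_of_nonneg_left r3 K0
  have zz : Fz (Eq0 e3 e5 e6 s0 β0 ζ0 Z0 P0 R0 z) := Eq0_fz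
  have cases : q = 7 ∨ q = 8 ∨ q = 9 ∨ q = 10 ∨ q = 11 ∨ q = 12 := by
    have : ∀ q : Fin 14, 7 ≤ q → q ≠ 13 → q = 7 ∨ q = 8 ∨ q = 9 ∨ q = 10 ∨ q = 11 ∨ q = 12 := by
      decide
    exact this q hq hq'
  have k1 := kb hκ (mb b1 (mb b1 h3))
  have t1 := mb b1 h5
  rcases cases with rfl | rfl | rfl | rfl | rfl | rfl
  · rw [zz.t7]
    change |w 7 - (ζ0 - 2 * κ * h 1 ^ 2 * e3 + h 1 * e5)| ≤ _
    have e : w 7 - (ζ0 - 2 * κ * h 1 ^ 2 * e3 + h 1 * e5) =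
        (w 7 - (l1 * h 1 - κ * m1 * h 1 ^ 2 + ζ0)) + h 1 * (l1 - e5) -
        κ * (h 1 * (h 1 * (m1 - 2 * e3))) := by ring
    rw [e]
    have s1 := abs_sub ((w 7 - (l1 * h 1 - κ * m1 * h 1 ^ 2 + ζ0)) + h 1 * (l1 - e5))
      (κ * (h 1 * (h 1 * (m1 - 2 * e3))))
    have s2 := abs_add_le (w 7 - (l1 * h 1 - κ * m1 * h 1 ^ 2 + ζ0)) (h 1 * (l1 - e5))
    linarith
  · rw [zz.t8]
    change |w 8 - (Z0 + 4 * κ ^ 2 * h 1 ^ 3 * e3 - 3 * κ * h 1 ^ 2 * e5 + 2 * h 1 * e6 -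
      2 * κ * h 1 * ζ0)| ≤ _
    have e : w 8 - (Z0 + 4 * κ ^ 2 * h 1 ^ 3 * e3 - 3 * κ * h 1 ^ 2 * e5 + 2 * h 1 * e6 -
      2 * κ * h 1 * ζ0) = (w 8 + 2 * κ * h 1 * w 7 - (l2 * h 1 - κ * m2 * h 1 ^ 2 + Z0)) -
        2 * (κ * (h 1 * (w 7 - (l1 * h 1 - κ * m1 * h 1 ^ 2 + ζ0)))) +
        κ * (h 1 * (h 1 * (l1 - m2))) - 3 * (κ * (h 1 * (h 1 * (l1 - e5)))) +
        2 * (κ * (κ * (h 1 * (h 1 * (h 1 * (m1 - 2 * e3)))))) := by rw [h6]; ring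
    rw [e]
    have i1 := kb hκ (mb b1 rζ)
    have i2 := kb hκ (mb b1 (mb b1 h12))
    have i3 := kb hκ (mb b1 (mb b1 h5))
    have i4 := kb hκ (kb hκ (mb b1 (mb b1 (mb b1 h3))))
    have s1 := abs_add_le ((w 8 + 2 * κ * h 1 * w 7 - (l2 * h 1 - κ * m2 * h 1 ^ 2 + Z0)) -
        2 * (κ * (h 1 * (w 7 - (l1 * h 1 - κ * m1 * h 1 ^ 2 + ζ0)))) +
        κ * (h 1 * (h 1 * (l1 - m2))) - 3 * (κ * (h 1 * (h 1 * (l1 - e5)))))
        (2 * (κ * (κ * (h 1 * (h 1 * (h 1 * (m1 - 2 * e3)))))))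
    have s2 := abs_sub ((w 8 + 2 * κ * h 1 * w 7 - (l2 * h 1 - κ * m2 * h 1 ^ 2 + Z0)) -
        2 * (κ * (h 1 * (w 7 - (l1 * h 1 - κ * m1 * h 1 ^ 2 + ζ0)))) +
        κ * (h 1 * (h 1 * (l1 - m2)))) (3 * (κ * (h 1 * (h 1 * (l1 - e5)))))
    have s3 := abs_add_le ((w 8 + 2 * κ * h 1 * w 7 - (l2 * h 1 - κ * m2 * h 1 ^ 2 + Z0)) -
        2 * (κ * (h 1 * (w 7 - (l1 * h 1 - κ * m1 * h 1 ^ 2 + ζ0)))))
        (κ * (h 1 * (h 1 * (l1 - m2))))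
    have s4 := abs_sub (w 8 + 2 * κ * h 1 * w 7 - (l2 * h 1 - κ * m2 * h 1 ^ 2 + Z0))
        (2 * (κ * (h 1 * (w 7 - (l1 * h 1 - κ * m1 * h 1 ^ 2 + ζ0)))))
    rw [abs_mul 2, abs_two] at s1 s4
    rw [abs_mul 3, abs_of_pos (show (0 : ℝ) < 3 by norm_num)] at s2
    linarith
  · rw [zz.t9]
    change |w 9 - (R0 + κ ^ 2 * h 1 ^ 4 * e3 - κ * h 1 ^ 3 * e5 + h 1 ^ 2 * e6 -
      κ * h 1 ^ 2 * ζ0 + h 1 * Z0)| ≤ _
    have e : w 9 - (R0 + κ ^ 2 * h 1 ^ 4 * e3 - κ * h 1 ^ 3 * e5 + h 1 ^ 2 * e6 -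
      κ * h 1 ^ 2 * ζ0 + h 1 * Z0) = (w 9 - (rR κ l1 l2 m1 m2 ζ0 Z0 (h 1) + R0)) +
        κ * (κ * (h 1 * (h 1 * (h 1 * (h 1 * (m1 - 2 * e3)))))) / 2 -
        κ * (h 1 * (h 1 * (h 1 * (l1 - e5)))) / 2 -
        κ * (h 1 * (h 1 * (h 1 * (m2 - e5)))) / 2 := by
      rw [h6]; unfold rR; ring
    rw [e]
    have i1 := kb hκ (kb hκ (mb b1 (mb b1 (mb b1 (mb b1 h3)))))
    have i2 := kb hκ (mb b1 (mb b1 (mb b1 h5)))
    have i3 := kb hκ (mb b1 (mb b1 (mb b1 m2e)))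
    have s1 := abs_sub ((w 9 - (rR κ l1 l2 m1 m2 ζ0 Z0 (h 1) + R0)) +
        κ * (κ * (h 1 * (h 1 * (h 1 * (h 1 * (m1 - 2 * e3)))))) / 2 -
        κ * (h 1 * (h 1 * (h 1 * (l1 - e5)))) / 2) (κ * (h 1 * (h 1 * (h 1 * (m2 - e5)))) / 2)
    have s2 := abs_sub ((w 9 - (rR κ l1 l2 m1 m2 ζ0 Z0 (h 1) + R0)) +
        κ * (κ * (h 1 * (h 1 * (h 1 * (h 1 * (m1 - 2 * e3)))))) / 2)
        (κ * (h 1 * (h 1 * (h 1 * (l1 - e5)))) / 2)
    have s3 := abs_add_le (w 9 - (rR κ l1 l2 m1 m2 ζ0 Z0 (h 1) + R0))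
        (κ * (κ * (h 1 * (h 1 * (h 1 * (h 1 * (m1 - 2 * e3)))))) / 2)
    rw [abs_div, abs_two] at s1 s2 s3
    have e4 : K * (K * (K * (2 * η))) = 2 * (K * (K * (K * η))) := by ring
    rw [e4] at i3
    linarith
  · rw [zz.t10]
    change |w 10 - (β0 - z * ζ0 + 2 * h 3 * e3 + h 2 * e5 + h 0 * ζ0)| ≤ _
    have e : w 10 - (β0 - z * ζ0 + 2 * h 3 * e3 + h 2 * e5 + h 0 * ζ0) =
        (w 10 - (m1 * h 3 + m2 * h 2 + β0)) + h 3 * (m1 - 2 * e3) + h 2 * (m2 - e5) -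
        ζ0 * (h 0 - z) := by ring
    rw [e]
    have i1 := mb b3 h3
    have i2 := mb b2 m2e
    have i3 := mb bζ hz
    have s1 := abs_sub ((w 10 - (m1 * h 3 + m2 * h 2 + β0)) + h 3 * (m1 - 2 * e3) +
      h 2 * (m2 - e5)) (ζ0 * (h 0 - z))
    have s2 := abs_add_le ((w 10 - (m1 * h 3 + m2 * h 2 + β0)) + h 3 * (m1 - 2 * e3))
      (h 2 * (m2 - e5))
    have s3 := abs_add_le (w 10 - (m1 * h 3 + m2 * h 2 + β0)) (h 3 * (m1 - 2 * e3))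
    have e4 : K * (2 * η) = 2 * (K * η) := by ring
    rw [e4] at i2
    rw [← hy] at i3
    linarith
  · rw [zz.t11]
    change |w 11 - (s0 - z * Z0 - 4 * κ * h 1 * h 3 * e3 - 2 * κ * h 1 * h 2 * e5 + h 3 * e5 +
      2 * h 2 * e6 - 2 * κ * h 0 * h 1 * ζ0 + h 0 * Z0 - 2 * κ * h 1 * (β0 - z * ζ0))| ≤ _
    have e : w 11 - (s0 - z * Z0 - 4 * κ * h 1 * h 3 * e3 - 2 * κ * h 1 * h 2 * e5 + h 3 * e5 +
      2 * h 2 * e6 - 2 * κ * h 0 * h 1 * ζ0 + h 0 * Z0 - 2 * κ * h 1 * (β0 - z * ζ0)) =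
        (w 11 + 2 * κ * h 1 * w 10 - (l1 * h 3 + l2 * h 2 + s0)) -
        2 * (κ * (h 1 * (w 10 - (m1 * h 3 + m2 * h 2 + β0)))) + h 3 * (l1 - e5) -
        2 * (κ * (h 1 * (h 3 * (m1 - 2 * e3)))) - 2 * (κ * (h 1 * (h 2 * (m2 - e5)))) -
        Z0 * (h 0 - z) + 2 * (κ * (h 1 * (ζ0 * (h 0 - z)))) := by rw [h6]; ring
    rw [e]
    have i1 := kb hκ (mb b1 rβ)
    have i2 := mb b3 h5
    have i3 := kb hκ (mb b1 (mb b3 h3))
    have i4 := kb hκ (mb b1 (mb b2 m2e))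
    have i5 := mb bZ hz
    have i6 := kb hκ (mb b1 (mb bζ hz))
    have s1 := abs_add_le ((w 11 + 2 * κ * h 1 * w 10 - (l1 * h 3 + l2 * h 2 + s0)) -
        2 * (κ * (h 1 * (w 10 - (m1 * h 3 + m2 * h 2 + β0)))) + h 3 * (l1 - e5) -
        2 * (κ * (h 1 * (h 3 * (m1 - 2 * e3)))) - 2 * (κ * (h 1 * (h 2 * (m2 - e5)))) -
        Z0 * (h 0 - z)) (2 * (κ * (h 1 * (ζ0 * (h 0 - z)))))
    have s2 := abs_sub ((w 11 + 2 * κ * h 1 * w 10 - (l1 * h 3 + l2 * h 2 + s0)) -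
        2 * (κ * (h 1 * (w 10 - (m1 * h 3 + m2 * h 2 + β0)))) + h 3 * (l1 - e5) -
        2 * (κ * (h 1 * (h 3 * (m1 - 2 * e3)))) - 2 * (κ * (h 1 * (h 2 * (m2 - e5)))))
        (Z0 * (h 0 - z))
    have s3 := abs_sub ((w 11 + 2 * κ * h 1 * w 10 - (l1 * h 3 + l2 * h 2 + s0)) -
        2 * (κ * (h 1 * (w 10 - (m1 * h 3 + m2 * h 2 + β0)))) + h 3 * (l1 - e5) -
        2 * (κ * (h 1 * (h 3 * (m1 - 2 * e3))))) (2 * (κ * (h 1 * (h 2 * (m2 - e5)))))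
    have s4 := abs_sub ((w 11 + 2 * κ * h 1 * w 10 - (l1 * h 3 + l2 * h 2 + s0)) -
        2 * (κ * (h 1 * (w 10 - (m1 * h 3 + m2 * h 2 + β0)))) + h 3 * (l1 - e5))
        (2 * (κ * (h 1 * (h 3 * (m1 - 2 * e3)))))
    have s5 := abs_add_le ((w 11 + 2 * κ * h 1 * w 10 - (l1 * h 3 + l2 * h 2 + s0)) -
        2 * (κ * (h 1 * (w 10 - (m1 * h 3 + m2 * h 2 + β0))))) (h 3 * (l1 - e5))
    have s6 := abs_sub (w 11 + 2 * κ * h 1 * w 10 - (l1 * h 3 + l2 * h 2 + s0))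
        (2 * (κ * (h 1 * (w 10 - (m1 * h 3 + m2 * h 2 + β0)))))
    rw [abs_mul 2, abs_two] at s1 s3 s4 s6
    have e4 : K * (K * (2 * η)) = 2 * (K * (K * η)) := by ring
    rw [e4] at i4
    rw [← hy] at i5 i6
    linarith
  · rw [zz.t12]
    change |w 12 - (P0 - 2 * z * R0 - 2 * κ * h 1 ^ 2 * h 3 * e3 - κ * h 1 ^ 2 * h 2 * e5 +
      h 1 * h 3 * e5 + 2 * h 1 * h 2 * e6 + h 3 * ζ0 - κ * h 0 * h 1 ^ 2 * ζ0 + h 2 * Z0 +
      h 0 * h 1 * Z0 + 2 * h 0 * R0 - κ * h 1 ^ 2 * (β0 - z * ζ0) +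
      h 1 * (s0 - z * Z0))| ≤ _
    have e : w 12 - (P0 - 2 * z * R0 - 2 * κ * h 1 ^ 2 * h 3 * e3 - κ * h 1 ^ 2 * h 2 * e5 +
      h 1 * h 3 * e5 + 2 * h 1 * h 2 * e6 + h 3 * ζ0 - κ * h 0 * h 1 ^ 2 * ζ0 + h 2 * Z0 +
      h 0 * h 1 * Z0 + 2 * h 0 * R0 - κ * h 1 ^ 2 * (β0 - z * ζ0) +
      h 1 * (s0 - z * Z0)) =
        (w 12 - (phiR κ l1 l2 m1 m2 s0 β0 ζ0 Z0 (h 2) (h 3) (h 1) + P0)) +
        h 1 * (h 3 * (l1 - e5)) - κ * (h 1 * (h 1 * (h 3 * (m1 - 2 * e3)))) -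
        κ * (h 1 * (h 1 * (h 2 * (m2 - e5)))) + κ * (h 1 * (h 1 * (ζ0 * (h 0 - z)))) -
        h 1 * (Z0 * (h 0 - z)) - 2 * (R0 * (h 0 - z)) := by
      rw [h6]; unfold phiR; ring
    rw [e]
    have i1 := mb b1 (mb b3 h5)
    have i2 := kb hκ (mb b1 (mb b1 (mb b3 h3)))
    have i3 := kb hκ (mb b1 (mb b1 (mb b2 m2e)))
    have i4 := kb hκ (mb b1 (mb b1 (mb bζ hz)))
    have i5 := mb b1 (mb bZ hz)
    have i6 := mb bR hz
    have s1 := abs_sub ((w 12 - (phiR κ l1 l2 m1 m2 s0 β0 ζ0 Z0 (h 2) (h 3) (h 1) + P0)) +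
        h 1 * (h 3 * (l1 - e5)) - κ * (h 1 * (h 1 * (h 3 * (m1 - 2 * e3)))) -
        κ * (h 1 * (h 1 * (h 2 * (m2 - e5)))) + κ * (h 1 * (h 1 * (ζ0 * (h 0 - z)))) -
        h 1 * (Z0 * (h 0 - z))) (2 * (R0 * (h 0 - z)))
    have s2 := abs_sub ((w 12 - (phiR κ l1 l2 m1 m2 s0 β0 ζ0 Z0 (h 2) (h 3) (h 1) + P0)) +
        h 1 * (h 3 * (l1 - e5)) - κ * (h 1 * (h 1 * (h 3 * (m1 - 2 * e3)))) -
        κ * (h 1 * (h 1 * (h 2 * (m2 - e5)))) + κ * (h 1 * (h 1 * (ζ0 * (h 0 - z)))))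
        (h 1 * (Z0 * (h 0 - z)))
    have s3 := abs_add_le ((w 12 - (phiR κ l1 l2 m1 m2 s0 β0 ζ0 Z0 (h 2) (h 3) (h 1) + P0)) +
        h 1 * (h 3 * (l1 - e5)) - κ * (h 1 * (h 1 * (h 3 * (m1 - 2 * e3)))) -
        κ * (h 1 * (h 1 * (h 2 * (m2 - e5))))) (κ * (h 1 * (h 1 * (ζ0 * (h 0 - z)))))
    have s4 := abs_sub ((w 12 - (phiR κ l1 l2 m1 m2 s0 β0 ζ0 Z0 (h 2) (h 3) (h 1) + P0)) +
        h 1 * (h 3 * (l1 - e5)) - κ * (h 1 * (h 1 * (h 3 * (m1 - 2 * e3)))))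
        (κ * (h 1 * (h 1 * (h 2 * (m2 - e5)))))
    have s5 := abs_sub ((w 12 - (phiR κ l1 l2 m1 m2 s0 β0 ζ0 Z0 (h 2) (h 3) (h 1) + P0)) +
        h 1 * (h 3 * (l1 - e5))) (κ * (h 1 * (h 1 * (h 3 * (m1 - 2 * e3)))))
    have s6 := abs_add_le (w 12 - (phiR κ l1 l2 m1 m2 s0 β0 ζ0 Z0 (h 2) (h 3) (h 1) + P0))
        (h 1 * (h 3 * (l1 - e5)))
    rw [abs_mul 2, abs_two] at s1
    have e4 : K * (K * (K * (2 * η))) = 2 * (K * (K * (K * η))) := by ring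
    rw [e4] at i3
    rw [← hy] at i4 i5 i6
    linarith

end

/-- the components `q ≤ 12` do not see the component `13` -/
theorem tr_congr13 {κ : ℝ} {h : Fin 4 → ℝ} {w w' : Fin 14 → ℝ} (hw : ∀ q, q ≠ 13 → w q = w' q)
    (q : Fin 14) (hq : q ≠ 13) : tr κ h w q = tr κ h w' q := by
  have hs : ∀ q : Fin 14, q ≠ 13 → ∀ t ∈ tms q, t.s ≠ 13 := by decide
  rw [tr_tms, tr_tms, hw q hq]
  congr 2
  refine List.map_congr_left fun t ht => ?_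
  unfold Tm.ev
  rw [hw t.s (hs q hq t ht)]

section

variable {κ K η Λ : ℝ} {h h' g : Fin 4 → ℝ} {w v w' E : Fin 14 → ℝ}

/-- the flag without its component `13` -/
def cut13 (w : Fin 14 → ℝ) : Fin 14 → ℝ := fun q => if q = 13 then 0 else w q

theorem cut13_of {w : Fin 14 → ℝ} {q : Fin 14} (hq : q ≠ 13) : cut13 w q = w q := if_neg hq

/-- the difference to the static flag -/
theorem Loc.diff (L : Loc κ K η h h' g w v w') (E : Fin 14 → ℝ) {q : Fin 14} (hq : q ≠ 13) :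
    |(w' q - tr κ g E q) - (v q + tr κ h' (cut13 (w - tr κ h E)) q)| ≤ η := by
  have h1 := L.fl q hq
  have e1 : tr κ h' (cut13 (w - tr κ h E)) q = tr κ h' w q - tr κ g E q := by
    rw [tr_congr13 (w' := w - tr κ h E) (fun q hq => cut13_of hq) q hq, tr_sub, Pi.sub_apply,
      L.fr, tr_mul]
  rw [e1]
  have e2 : w' q - tr κ g E q - (v q + (tr κ h' w q - tr κ g E q)) =
      w' q - (v q + tr κ h' w q) := by ring
  rw [e2]
  exact h1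

/-- **transport along the line** -/
theorem claimB (L : Loc κ K η h h' g w v w') {u δ : ℝ} (hu : |u| ≤ K) (i0 : |h' 0 - u| ≤ η)
    (i1 : |h' 1| ≤ η) (i2 : |h' 2| ≤ η) (i3 : |h' 3| ≤ η) (hv : ∀ q, q ≠ 13 → |v q| ≤ η)
    (hE : Fz E) (hΛ : ∀ q, |(w - tr κ h E) q| ≤ Λ)
    (hA : ∀ q, 7 ≤ q → q ≠ 13 → |w q - tr κ h E q| ≤ δ) (q : Fin 14) (hq : 7 ≤ q)
    (hq' : q ≠ 13) : |w' q - tr κ g E q| ≤ 2 * η + 470 * K ^ 7 * η * Λ + (1 + 2 * K) * δ := by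
  have K1 := L.K1
  have K0 : 0 ≤ K := by linarith
  have η0 := L.η0
  have Λ0 : 0 ≤ Λ := (abs_nonneg _).trans (hΛ 0)
  have δ0 : 0 ≤ δ := (abs_nonneg _).trans (hA 7 (by decide) (by decide))
  set D := cut13 (w - tr κ h E) with hD
  have h1 := L.diff E hq'
  rw [← hD] at h1
  have bD : ∀ q, |D q| ≤ Λ := fun q => by
    by_cases h13 : q = 13
    · rw [hD, cut13, if_pos h13, abs_zero]; exact Λ0
    · rw [hD, cut13_of h13]; exact hΛ q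
  have b0 : ∀ i, |sh u i| ≤ K := by
    intro i; fin_cases i
    · exact hu
    · change |(0 : ℝ)| ≤ K; rw [abs_zero]; exact K0
    · change |(0 : ℝ)| ≤ K; rw [abs_zero]; exact K0
    · change |(0 : ℝ)| ≤ K; rw [abs_zero]; exact K0
  have hh : ∀ i, |h' i - sh u i| ≤ η := by
    intro i; fin_cases i
    · exact i0
    · change |h' 1 - 0| ≤ η; rw [sub_zero]; exact i1
    · change |h' 2 - 0| ≤ η; rw [sub_zero]; exact i2
    · change |h' 3 - 0| ≤ η; rw [sub_zero]; exact i3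
  have h2 := tr_frame L.hκ K1 η0 Λ0 L.bh' b0 hh bD q
  have zD : Fz D := by
    have t := hE.tr (κ := κ) (h := h)
    have z := L.zw
    refine ⟨?_, ?_, ?_, ?_⟩
    · rw [hD, cut13_of (by decide), Pi.sub_apply, z.z0, t.z0, sub_zero]
    · rw [hD, cut13_of (by decide), Pi.sub_apply, z.z1, t.z1, sub_zero]
    · rw [hD, cut13_of (by decide), Pi.sub_apply, z.z2, t.z2, sub_zero]
    · rw [hD, cut13_of (by decide), Pi.sub_apply, z.z4, t.z4, sub_zero]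
  have dD : ∀ q, 7 ≤ q → q ≠ 13 → |D q| ≤ δ := fun q a b => by
    rw [hD, cut13_of b, Pi.sub_apply]; exact hA q a b
  have h3 : |tr κ (sh u) D q| ≤ (1 + 2 * K) * δ := by
    have cases : q = 7 ∨ q = 8 ∨ q = 9 ∨ q = 10 ∨ q = 11 ∨ q = 12 := by
      have : ∀ q : Fin 14, 7 ≤ q → q ≠ 13 → q = 7 ∨ q = 8 ∨ q = 9 ∨ q = 10 ∨ q = 11 ∨
        q = 12 := by decide
      exact this q hq hq'
    have d7 := dD 7 (by decide) (by decide)
    have d8 := dD 8 (by decide) (by decide)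
    have d9 := dD 9 (by decide) (by decide)
    have d10 := dD 10 (by decide) (by decide)
    have d11 := dD 11 (by decide) (by decide)
    have d12 := dD 12 (by decide) (by decide)
    have k1 : 0 ≤ K * δ := by positivity
    rcases cases with rfl | rfl | rfl | rfl | rfl | rfl
    · have e : tr κ (sh u) D 7 = D 7 := by
        rw [zD.t7]; change D 7 - 2 * κ * 0 ^ 2 * D 3 + 0 * D 5 = _; ring
      rw [e]; linarith
    · rw [tr_sh8]; linarith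
    · rw [tr_sh9]; linarith
    · have e : tr κ (sh u) D 10 = D 10 + u * D 7 := by rw [tr_sh10, zD.z4]; ring
      rw [e]
      have := abs_add_le (D 10) (u * D 7)
      have := mb hu d7
      linarith
    · rw [tr_sh11]
      have := abs_add_le (D 11) (u * D 8)
      have := mb hu d8
      linarith
    · rw [tr_sh12]
      have e : D 12 + 2 * u * D 9 = D 12 + 2 * (u * D 9) := by ring
      rw [e]
      have h4 := abs_add_le (D 12) (2 * (u * D 9))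
      rw [abs_mul 2, abs_two] at h4
      have := mb hu d9
      linarith
  have h4 := hv q hq'
  have e : w' q - tr κ g E q = ((w' q - tr κ g E q) - (v q + tr κ h' D q)) + v q +
      (tr κ h' D q - tr κ (sh u) D q) + tr κ (sh u) D q := by ring
  rw [e]
  have s1 := abs_add_le (((w' q - tr κ g E q) - (v q + tr κ h' D q)) + v q +
      (tr κ h' D q - tr κ (sh u) D q)) (tr κ (sh u) D q)
  have s2 := abs_add_le (((w' q - tr κ g E q) - (v q + tr κ h' D q)) + v q)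
      (tr κ h' D q - tr κ (sh u) D q)
  have s3 := abs_add_le ((w' q - tr κ g E q) - (v q + tr κ h' D q)) (v q)
  linarith

/-- the own gauge of an incidence: the components `3, 5, 6` of the difference to the static flag -/
def Jg (D : Fin 14 → ℝ) : Fin 14 → ℝ := fun q => if q = 3 ∨ q = 5 ∨ q = 6 then D q else 0

/-- **relation of a pair** -/
theorem pair_rel (L : Loc κ K η h h' g w v w') {δ : ℝ} (hE : Fz E) (hw' : Fz w')
    (hA : ∀ q, 7 ≤ q → q ≠ 13 → |w q - tr κ h E q| ≤ δ)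
    (hB : ∀ q, 7 ≤ q → q ≠ 13 → |w' q - tr κ g E q| ≤ δ) (q : Fin 14) (hq : q ≠ 13) :
    |v q - (Jg (w' - tr κ g E) q - tr κ h' (Jg (w - tr κ h E)) q)| ≤
      η + δ + 470 * K ^ 7 * δ := by
  have K1 := L.K1
  have δ0 : 0 ≤ δ := (abs_nonneg _).trans (hA 7 (by decide) (by decide))
  have K0 : 0 ≤ K := by linarith
  set D := cut13 (w - tr κ h E) with hD
  set D' := w' - tr κ g E with hD'
  have h1 := L.diff E hq
  rw [← hD] at h1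
  have e1 : w' q - tr κ g E q = D' q := rfl
  rw [e1] at h1
  have tE := hE.tr (κ := κ) (h := h)
  have tE' := hE.tr (κ := κ) (h := g)
  have low : ∀ q : Fin 14, ¬ 7 ≤ q → ¬ (q = 3 ∨ q = 5 ∨ q = 6) → q = 0 ∨ q = 1 ∨ q = 2 ∨
      q = 4 := by decide
  -- the rest of `D`
  have r1 : ∀ q, |(D - Jg (w - tr κ h E)) q| ≤ δ := by
    intro q
    rw [Pi.sub_apply]
    by_cases h13 : q = 13
    · subst h13
      rw [hD, cut13, if_pos rfl, Jg, if_neg (by decide), sub_zero, abs_zero]; exact δ0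
    · rw [hD, cut13_of h13]
      unfold Jg
      split_ifs with hc
      · rw [sub_self, abs_zero]; exact δ0
      · by_cases h7 : 7 ≤ q
        · rw [sub_zero]; exact hA q h7 h13
        · rw [sub_zero, Pi.sub_apply]
          rcases low q h7 hc with rfl | rfl | rfl | rfl
          · rw [L.zw.z0, tE.z0, sub_zero, abs_zero]; exact δ0
          · rw [L.zw.z1, tE.z1, sub_zero, abs_zero]; exact δ0
          · rw [L.zw.z2, tE.z2, sub_zero, abs_zero]; exact δ0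
          · rw [L.zw.z4, tE.z4, sub_zero, abs_zero]; exact δ0
  have r2 : |D' q - Jg D' q| ≤ δ := by
    unfold Jg
    split_ifs with hc
    · rw [sub_self, abs_zero]; exact δ0
    · by_cases h7 : 7 ≤ q
      · rw [sub_zero]; exact hB q h7 hq
      · rw [sub_zero, hD', Pi.sub_apply]
        rcases low q h7 hc with rfl | rfl | rfl | rfl
        · rw [hw'.z0, tE'.z0, sub_zero, abs_zero]; exact δ0
        · rw [hw'.z1, tE'.z1, sub_zero, abs_zero]; exact δ0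
        · rw [hw'.z2, tE'.z2, sub_zero, abs_zero]; exact δ0
        · rw [hw'.z4, tE'.z4, sub_zero, abs_zero]; exact δ0
  have r3 := tr_small L.hκ K1 δ0 L.bh' r1 q
  rw [tr_sub, Pi.sub_apply] at r3
  have e : v q - (Jg D' q - tr κ h' (Jg (w - tr κ h E)) q) =
      (D' q - Jg D' q) - (tr κ h' D q - tr κ h' (Jg (w - tr κ h E)) q) -
      (D' q - (v q + tr κ h' D q)) := by ring
  rw [e]
  have s1 := abs_sub ((D' q - Jg D' q) - (tr κ h' D q - tr κ h' (Jg (w - tr κ h E)) q))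
      (D' q - (v q + tr κ h' D q))
  have s2 := abs_sub (D' q - Jg D' q) (tr κ h' D q - tr κ h' (Jg (w - tr κ h E)) q)
  linarith

end

end Crest.Agent.R136.Qd329
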