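import Crest.Agent.R136.EvW3_938

/-!
# R136: rows of the W-chart in the window (helper619)

* `tmN W κ lam n q b c t` : the (normalised) monomial `t` of the flag slot `q`: frame factors from
  `c`, flag factor from `b`.
* `comp_flag`, `comp0 .. comp3` : **exact** composition of normalised coordinates,
  `crd x z = crd x y + crd y z + monomials` (no condition on the heights).
* `evo_flag` : exact rows of `evoC` (evolution / own motion) with the same monomials.
* `live N q` : the monomials of slot `q` without factors in `N`; `row_live` : if all slots of `N`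
  are `≤ η` then only the live monomials count, up to `67 Cf M ^ 6 η`.
-/

set_option autoImplicit false
set_option linter.unusedSectionVars false
set_option linter.unusedVariables false

open Filter Topology

namespace Crest.Agent.R136.RowW619

open Finset Crest.Agent.R136.NetW191 Crest.Agent.R136.Net191 Crest.Agent.R136.Qg926
open Crest.Agent.R136.EvW938
open Crest.Agent.R136.PqG464 (wtW wtW_list)
open Crest.Agent.R138.Ex926 (Base U)

variable {ι : ℕ → Type*} [∀ n, DecidableEq (ι n)] {W : Wnd 18 ι} {κ : ℕ → ℝ}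
  {lam : ℕ → Fin 18 → ℝ}
  {f : ∀ n, ι n → FW}

/-- a normalised monomial: frame factors from `c`, flag factor from `b` -/
noncomputable def tmN (W : Wnd 18 ι) (κ : ℕ → ℝ) (lam : ℕ → Fin 18 → ℝ) (n : ℕ) (q : Fin 14) (b c : Fin 18 → ℝ)
    (t : Tm) : ℝ :=
  (t.n : ℝ) * κ n ^ t.e * cfl W lam n t.idx (Fin.natAdd 4 q) *
    ((t.hl.map fun i => c (Fin.castAdd 14 i)).prod * b (Fin.natAdd 4 t.s))

theorem prod_un {α : Type*} (u v : α → ℝ) (l : List α) :
    (l.map fun i => u i * v i).prod = (l.map u).prod * (l.map v).prod := by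
  induction l with
  | nil => simp
  | cons a l ih =>
    simp only [List.map_cons, List.prod_cons, ih]
    ring

/-- raw monomial = unit times normalised monomial -/
theorem ev_norm (h : WWnd W κ lam f) (n : ℕ) (q : Fin 14) (b c : Fin 18 → ℝ) (t : Tm) :
    Tm.ev (κ n) (frm fun s => un W lam n s * c s) (flg fun s => un W lam n s * b s) t =
      un W lam n (Fin.natAdd 4 q) * tmN W κ lam n q b c t := by
  have hq := (h.un_pos n (Fin.natAdd 4 q)).ne'
  have e1 : (t.idx.map (un W lam n)).prod =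
      (t.hl.map fun i => un W lam n (Fin.castAdd 14 i)).prod * un W lam n (Fin.natAdd 4 t.s) := by
    simp [Tm.idx, List.map_append, List.prod_append, Function.comp_def]
  unfold Tm.ev tmN cfl frm flg
  rw [e1, prod_un]
  field_simp

/-- a row of the substitution in normalised coordinates -/
theorem tr_norm (h : WWnd W κ lam f) (n : ℕ) (q : Fin 14) (b c : Fin 18 → ℝ) :
    tr (κ n) (frm fun s => un W lam n s * c s) (flg fun s => un W lam n s * b s) q =
      un W lam n (Fin.natAdd 4 q) *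
        (b (Fin.natAdd 4 q) + ((tms q).map (tmN W κ lam n q b c)).sum) := by
  rw [tr_tms, mul_add]
  congr 1
  have : (tms q).map (Tm.ev (κ n) (frm fun s => un W lam n s * c s)
      (flg fun s => un W lam n s * b s)) =
      (tms q).map fun t => un W lam n (Fin.natAdd 4 q) * tmN W κ lam n q b c t :=
    List.map_congr_left fun t _ => ev_norm h n q b c t
  rw [this, List.sum_map_mul_left]

/-! ### composition -/

section comp

variable (h : WWnd W κ lam f)

include h

/-- **composition of the flag slots, exact** -/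
theorem comp_flag {n : ℕ} (g : W.Good n) {x y z : ι n} (hx : x ∈ W.Cl n) (hy : y ∈ W.Cl n)
    (hz : z ∈ W.Cl n) (q : Fin 14) :
    W.crd n x z (Fin.natAdd 4 q) = W.crd n x y (Fin.natAdd 4 q) + W.crd n y z (Fin.natAdd 4 q) +
      ((tms q).map (tmN W κ lam n q (W.crd n x y) (W.crd n y z))).sum := by
  have e1 := congrFun (cocycle (κ n) (f n x) (f n y) (f n z)) q
  rw [Pi.add_apply, ← coW_right, ← coW_right, ← frm_coW, ← flg_coW, ← h.crd_fun g hx hy,
    ← h.crd_fun g hy hz, tr_norm h, h.crd_eq g hx hz] at e1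
  beta_reduce at e1
  have hq := (h.un_pos n (Fin.natAdd 4 q)).ne'
  have e2 : un W lam n (Fin.natAdd 4 q) * W.crd n x z (Fin.natAdd 4 q) =
      un W lam n (Fin.natAdd 4 q) * (W.crd n x y (Fin.natAdd 4 q) +
        W.crd n y z (Fin.natAdd 4 q) +
      ((tms q).map (tmN W κ lam n q (W.crd n x y) (W.crd n y z))).sum) := by
    rw [e1]; ring
  exact mul_left_cancel₀ hq e2

theorem frame_rel {n : ℕ} (g : W.Good n) {x y z : ι n} (hx : x ∈ W.Cl n) (hy : y ∈ W.Cl n)
    (hz : z ∈ W.Cl n) (i : Fin 4) :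
    un W lam n (Fin.castAdd 14 i) * W.crd n x z (Fin.castAdd 14 i) =
      mul (κ n) (frm fun s => un W lam n s * W.crd n x y s)
        (frm fun s => un W lam n s * W.crd n y z s) i := by
  rw [h.crd_fun g hx hy, h.crd_fun g hy hz, frm_coW, frm_coW, rel_rel, ← h.crd_eq g hx hz,
    coW_left]

theorem comp0 {n : ℕ} (g : W.Good n) {x y z : ι n} (hx : x ∈ W.Cl n) (hy : y ∈ W.Cl n)
    (hz : z ∈ W.Cl n) : W.crd n x z 0 = W.crd n x y 0 + W.crd n y z 0 := by
  have e := frame_rel h g hx hy hz 0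
  rw [mul0] at e
  have hu := (h.un_pos n 0).ne'
  have e' : un W lam n 0 * W.crd n x z 0 =
      un W lam n 0 * (W.crd n x y 0 + W.crd n y z 0) := by
    refine e.trans ?_
    show un W lam n 0 * W.crd n x y 0 + un W lam n 0 * W.crd n y z 0 = _
    ring
  exact mul_left_cancel₀ hu e'

theorem comp1 {n : ℕ} (g : W.Good n) {x y z : ι n} (hx : x ∈ W.Cl n) (hy : y ∈ W.Cl n)
    (hz : z ∈ W.Cl n) : W.crd n x z 1 = W.crd n x y 1 + W.crd n y z 1 := by
  have e := frame_rel h g hx hy hz 1
  rw [mul1] at e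
  have hu := (h.un_pos n 1).ne'
  have e' : un W lam n 1 * W.crd n x z 1 =
      un W lam n 1 * (W.crd n x y 1 + W.crd n y z 1) := by
    refine e.trans ?_
    show un W lam n 1 * W.crd n x y 1 + un W lam n 1 * W.crd n y z 1 = _
    ring
  exact mul_left_cancel₀ hu e'

theorem comp2 {n : ℕ} (g : W.Good n) {x y z : ι n} (hx : x ∈ W.Cl n) (hy : y ∈ W.Cl n)
    (hz : z ∈ W.Cl n) : W.crd n x z 2 = W.crd n x y 2 + W.crd n y z 2 +
      cfl W lam n [1, 0] 2 * (W.crd n x y 1 * W.crd n y z 0) := by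
  have e := frame_rel h g hx hy hz 2
  rw [mul2] at e
  have hu := (h.un_pos n 2).ne'
  have e' : un W lam n 2 * W.crd n x z 2 =
      un W lam n 2 * (W.crd n x y 2 + W.crd n y z 2 +
        cfl W lam n [1, 0] 2 * (W.crd n x y 1 * W.crd n y z 0)) := by
    refine e.trans ?_
    show un W lam n 2 * W.crd n x y 2 + un W lam n 2 * W.crd n y z 2 +
      un W lam n 1 * W.crd n x y 1 * (un W lam n 0 * W.crd n y z 0) = _
    unfold cfl
    simp only [List.map_cons, List.map_nil, List.prod_cons, List.prod_nil, mul_one]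
    field_simp
  exact mul_left_cancel₀ hu e'

theorem comp3 {n : ℕ} (g : W.Good n) {x y z : ι n} (hx : x ∈ W.Cl n) (hy : y ∈ W.Cl n)
    (hz : z ∈ W.Cl n) : W.crd n x z 3 = W.crd n x y 3 + W.crd n y z 3 -
      2 * κ n * cfl W lam n [1, 2] 3 * (W.crd n x y 1 * W.crd n y z 2) -
      κ n * cfl W lam n [1, 1, 0] 3 * (W.crd n x y 1 ^ 2 * W.crd n y z 0) := by
  have e := frame_rel h g hx hy hz 3
  rw [mul3] at e
  have hu := (h.un_pos n 3).ne'
  have e' : un W lam n 3 * W.crd n x z 3 =
      un W lam n 3 * (W.crd n x y 3 + W.crd n y z 3 -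
      2 * κ n * cfl W lam n [1, 2] 3 * (W.crd n x y 1 * W.crd n y z 2) -
      κ n * cfl W lam n [1, 1, 0] 3 * (W.crd n x y 1 ^ 2 * W.crd n y z 0)) := by
    refine e.trans ?_
    show un W lam n 3 * W.crd n x y 3 + un W lam n 3 * W.crd n y z 3 -
      2 * κ n * (un W lam n 1 * W.crd n x y 1) * (un W lam n 2 * W.crd n y z 2) -
      κ n * (un W lam n 1 * W.crd n x y 1) ^ 2 * (un W lam n 0 * W.crd n y z 0) = _
    unfold cfl
    simp only [List.map_cons, List.map_nil, List.prod_cons, List.prod_nil, mul_one]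
    field_simp
  exact mul_left_cancel₀ hu e'

end comp

/-! ### evolution -/

/-- the frame after a motion by `u = a 0`, as an 18-vector of normalised coordinates -/
noncomputable def evF (W : Wnd 18 ι) (κ : ℕ → ℝ) (lam : ℕ → Fin 18 → ℝ) (n : ℕ) (a b : Fin 18 → ℝ) : Fin 18 → ℝ :=
  fun s => if s = 0 then 0 else evoC W κ lam n a b s

/-- the motion along the centre, as an 18-vector -/
def shF (a : Fin 18 → ℝ) : Fin 18 → ℝ := fun s => if s = 0 then a 0 else 0

/-- **rows of the evolution, exact**: `offS` part of `b` moved by `u`, minus the own motion moved by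
the frame of the second line -/
theorem evo_flag (h : WWnd W κ lam f) (n : ℕ) (a b : Fin 18 → ℝ) (q : Fin 14) :
    evoC W κ lam n a b (Fin.natAdd 4 q) =
      ((if Fin.natAdd 4 q ∈ W.S then 0 else b (Fin.natAdd 4 q)) +
        ((tms q).map (tmN W κ lam n q (fun s => if s ∈ W.S then 0 else b s) (shF a))).sum) -
      ((if Fin.natAdd 4 q ∈ W.S then a (Fin.natAdd 4 q) else 0) +
        ((tms q).map (tmN W κ lam n q (fun s => if s ∈ W.S then a s else 0)
          (evF W κ lam n a b))).sum) := by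
  have hq := (h.un_pos n (Fin.natAdd 4 q)).ne'
  have e1 : sh (un W lam n 0 * a 0) = frm fun s => un W lam n s * shF a s := by
    funext i
    fin_cases i
    · show un W lam n 0 * a 0 = un W lam n 0 * shF a 0
      simp [shF]
    · show (0 : ℝ) = un W lam n 1 * shF a 1
      simp [shF]
    · show (0 : ℝ) = un W lam n 2 * shF a 2
      simp [shF]
    · show (0 : ℝ) = un W lam n 3 * shF a 3
      simp [shF]
  have e2 : offS W.S (flg fun s => un W lam n s * b s) =
      flg fun s => un W lam n s * (if s ∈ W.S then 0 else b s) := by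
    funext q'
    unfold offS flg
    beta_reduce
    split_ifs with hm
    · rw [mul_zero]
    · rfl
  have e3 : onS W.S (flg fun s => un W lam n s * a s) =
      flg fun s => un W lam n s * (if s ∈ W.S then a s else 0) := by
    funext q'
    unfold onS flg
    beta_reduce
    split_ifs with hm
    · rfl
    · rw [mul_zero]
  have e4 : frE (κ n) (un W lam n 0 * a 0) (fun s => un W lam n s * b s) =
      frm fun s => un W lam n s * evF W κ lam n a b s := by
    funext i
    have key : ∀ s : Fin 18, s ≠ 0 → un W lam n s * evF W κ lam n a b s =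
        evoW (κ n) W.S (fun s => un W lam n s * a s) (fun s => un W lam n s * b s) s := by
      intro s hs
      have := (h.un_pos n s).ne'
      unfold evF evoC
      rw [if_neg hs]
      field_simp
    fin_cases i
    · show (0 : ℝ) = un W lam n 0 * evF W κ lam n a b 0
      simp [evF]
    · show _ = un W lam n 1 * evF W κ lam n a b 1
      rw [key 1 (by decide)]
      rfl
    · show _ = un W lam n 2 * evF W κ lam n a b 2
      rw [key 2 (by decide)]
      rfl
    · show _ = un W lam n 3 * evF W κ lam n a b 3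
      rw [key 3 (by decide)]
      rfl
  have e5 : evoC W κ lam n a b (Fin.natAdd 4 q) = (tr (κ n) (sh (un W lam n 0 * a 0))
      (offS W.S (flg fun s => un W lam n s * b s)) q -
      tr (κ n) (frE (κ n) (un W lam n 0 * a 0) fun s => un W lam n s * b s)
      (onS W.S (flg fun s => un W lam n s * a s)) q) / un W lam n (Fin.natAdd 4 q) := by
    unfold evoC evoW
    rw [Fin.append_right]
    rfl
  rw [e5, e1, e2, e3, e4, tr_norm h, tr_norm h]
  field_simp

/-! ### constants -/

/-- a bound of all coefficients -/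
noncomputable def CfW (W : Wnd 18 ι) : ℝ :=
  1 + ∑ q : Fin 14, ((tms q).map fun t => (t.idx.map W.kap).prod / W.kap (Fin.natAdd 4 q)).sum +
    (([1, 0] : List (Fin 18)).map W.kap).prod / W.kap 2 +
    (([1, 2] : List (Fin 18)).map W.kap).prod / W.kap 3 +
    (([1, 1, 0] : List (Fin 18)).map W.kap).prod / W.kap 3

/-- a bound of all coordinates -/
noncomputable def MW (W : Wnd 18 ι) : ℝ := 1 + ∑ s : Fin 18, W.K0 / W.kap s

section consts

variable (h : WWnd W κ lam f)

include h

theorem kprod_pos (l : List (Fin 18)) : 0 < (l.map W.kap).prod := by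
  induction l with
  | nil => simp
  | cons a l ih => simpa using mul_pos (h.ok.kap a) ih

theorem CfW_le : 1 ≤ CfW W ∧
    (∀ q : Fin 14, ∀ t ∈ tms q, (t.idx.map W.kap).prod / W.kap (Fin.natAdd 4 q) ≤ CfW W) ∧
    (([1, 0] : List (Fin 18)).map W.kap).prod / W.kap 2 ≤ CfW W ∧
    (([1, 2] : List (Fin 18)).map W.kap).prod / W.kap 3 ≤ CfW W ∧
    (([1, 1, 0] : List (Fin 18)).map W.kap).prod / W.kap 3 ≤ CfW W := by
  have k := kprod_pos h
  have p1 : 0 ≤ (([1, 0] : List (Fin 18)).map W.kap).prod / W.kap 2 :=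
    (div_pos (k _) (h.ok.kap _)).le
  have p2 : 0 ≤ (([1, 2] : List (Fin 18)).map W.kap).prod / W.kap 3 :=
    (div_pos (k _) (h.ok.kap _)).le
  have p3 : 0 ≤ (([1, 1, 0] : List (Fin 18)).map W.kap).prod / W.kap 3 :=
    (div_pos (k _) (h.ok.kap _)).le
  have hin : ∀ q : Fin 14, 0 ≤ ((tms q).map fun t => (t.idx.map W.kap).prod /
      W.kap (Fin.natAdd 4 q)).sum := by
    intro q
    refine List.sum_nonneg ?_
    intro x hx
    obtain ⟨t, -, rfl⟩ := List.mem_map.1 hx
    exact (div_pos (k _) (h.ok.kap _)).le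
  have hs : 0 ≤ ∑ q : Fin 14, ((tms q).map fun t => (t.idx.map W.kap).prod /
      W.kap (Fin.natAdd 4 q)).sum := Finset.sum_nonneg fun q _ => hin q
  refine ⟨by unfold CfW; linarith, ?_, by unfold CfW; linarith, by unfold CfW; linarith,
    by unfold CfW; linarith⟩
  intro q t ht
  have h1 : (t.idx.map W.kap).prod / W.kap (Fin.natAdd 4 q) ≤
      ((tms q).map fun t => (t.idx.map W.kap).prod / W.kap (Fin.natAdd 4 q)).sum := by
    refine List.single_le_sum ?_ _ (List.mem_map_of_mem ht)
    intro x hx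
    obtain ⟨t, -, rfl⟩ := List.mem_map.1 hx
    exact (div_pos (k _) (h.ok.kap _)).le
  have h2 := Finset.single_le_sum (f := fun q : Fin 14 => ((tms q).map fun t =>
    (t.idx.map W.kap).prod / W.kap (Fin.natAdd 4 q)).sum) (fun q _ => hin q) (Finset.mem_univ q)
  beta_reduce at h2
  unfold CfW
  linarith

theorem MW_le : 1 ≤ MW W ∧ ∀ s, W.K0 / W.kap s ≤ MW W := by
  have hK := h.ok.K0_one
  have hin : ∀ s : Fin 18, 0 ≤ W.K0 / W.kap s := fun s =>
    div_nonneg (by linarith) (h.ok.kap s).le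
  have hs : 0 ≤ ∑ s : Fin 18, W.K0 / W.kap s := Finset.sum_nonneg fun s _ => hin s
  refine ⟨by unfold MW; linarith, fun s => ?_⟩
  have := Finset.single_le_sum (f := fun s : Fin 18 => W.K0 / W.kap s) (fun s _ => hin s)
    (Finset.mem_univ s)
  beta_reduce at this
  unfold MW
  linarith

theorem cfl_CfW {n : ℕ} (g : W.Good n) {q : Fin 14} {t : Tm} (ht : t ∈ tms q) :
    cfl W lam n t.idx (Fin.natAdd 4 q) ≤ CfW W := by
  refine (h.cfl_le g ?_).trans ((CfW_le h).2.1 q t ht)
  rw [mlW_right]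
  exact List.mem_map_of_mem ht

theorem cfl2_CfW {n : ℕ} (g : W.Good n) : cfl W lam n [1, 0] 2 ≤ CfW W :=
  (h.cfl_le g (by decide)).trans (CfW_le h).2.2.1

theorem cfl3_CfW {n : ℕ} (g : W.Good n) : cfl W lam n [1, 2] 3 ≤ CfW W :=
  (h.cfl_le g (by decide)).trans (CfW_le h).2.2.2.1

theorem cfl3'_CfW {n : ℕ} (g : W.Good n) : cfl W lam n [1, 1, 0] 3 ≤ CfW W :=
  (h.cfl_le g (by decide)).trans (CfW_le h).2.2.2.2

theorem crd_MW {n : ℕ} (g : W.Good n) {x y : ι n} (hx : x ∈ W.Cl n) (hy : y ∈ W.Cl n)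
    (s : Fin 18) : |W.crd n x y s| ≤ MW W := (h.crd_le g hx hy s).trans ((MW_le h).2 s)

/-- level slots at one height -/
theorem lev_MW {n : ℕ} (g : W.Good n) {x y : ι n} (hx : x ∈ W.Cl n) (hy : y ∈ W.Cl n)
    (hl : W.zc n x = W.zc n y) {t : ℝ} {s : Fin 18} (hs : s ∈ W.S) (ht : t ≤ W.top s) :
    |W.crd n x y s| ≤ MW W * W.B'.d n ^ t := by
  refine (h.crd_lev g hx hy hl hs ht).trans ?_
  have h1 := (MW_le h).2 s
  have h2 : 0 ≤ W.B'.d n ^ t := Real.rpow_nonneg (W.B'.pos n).le _
  calc W.K0 * W.B'.d n ^ t / W.kap s = W.K0 / W.kap s * W.B'.d n ^ t := by ring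
    _ ≤ _ := mul_le_mul_of_nonneg_right h1 h2

/-- line slots on one fat line -/
theorem own_MW {n : ℕ} (g : W.Good n) {x y : ι n} (hx : x ∈ W.Cl n) (hy : y ∈ W.Cl n)
    (hl : W.lc n x = W.lc n y) {t : ℝ} {s : Fin 18} (hs : s ∉ W.S) (ht : t ≤ W.top s) :
    |W.crd n x y s| ≤ MW W * W.B'.d n ^ t := by
  refine (h.crd_own g hx hy hl hs ht).trans ?_
  have h1 := (MW_le h).2 s
  have h2 : 0 ≤ W.B'.d n ^ t := Real.rpow_nonneg (W.B'.pos n).le _
  calc W.K0 * W.B'.d n ^ t / W.kap s = W.K0 / W.kap s * W.B'.d n ^ t := by ring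
    _ ≤ _ := mul_le_mul_of_nonneg_right h1 h2

end consts

/-! ### dead monomials -/

/-- the live monomials of the slot `q`: no factor in `N` -/
def live (N : Finset (Fin 18)) (q : Fin 14) : List Tm :=
  (tms q).filter fun t => decide (∀ s ∈ t.idx, s ∉ N)

/-- frame slots from `c`, flag slots from `b` -/
def mix (b c : Fin 18 → ℝ) : Fin 18 → ℝ := Fin.append (m := 4) (n := 14) (frm c) (flg b)

theorem mix_left (b c : Fin 18 → ℝ) (i : Fin 4) :
    mix b c (Fin.castAdd 14 i) = c (Fin.castAdd 14 i) := Fin.append_left _ _ _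

theorem mix_right (b c : Fin 18 → ℝ) (q : Fin 14) :
    mix b c (Fin.natAdd 4 q) = b (Fin.natAdd 4 q) := Fin.append_right _ _ _

theorem mix_prod (b c : Fin 18 → ℝ) (t : Tm) :
    (t.hl.map fun i => c (Fin.castAdd 14 i)).prod * b (Fin.natAdd 4 t.s) =
      (t.idx.map (mix b c)).prod := by
  simp [Tm.idx, List.map_append, List.prod_append, Function.comp_def, mix_left, mix_right]

theorem idx_len : ∀ q, ∀ t ∈ tms q, t.idx.length ≤ 7 := by decide

theorem prod_le_pow {v : Fin 18 → ℝ} {M : ℝ} (hM : 1 ≤ M) (hv : ∀ s, |v s| ≤ M)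
    (l : List (Fin 18)) : |(l.map v).prod| ≤ M ^ l.length := by
  induction l with
  | nil => simp
  | cons a l ih =>
    simp only [List.map_cons, List.prod_cons, List.length_cons, abs_mul, pow_succ]
    rw [mul_comm (M ^ l.length)]
    exact mul_le_mul (hv a) ih (abs_nonneg _) (by linarith)

theorem prod_dead {v : Fin 18 → ℝ} {M η : ℝ} (hM : 1 ≤ M) (hv : ∀ s, |v s| ≤ M)
    {s : Fin 18} (hs : |v s| ≤ η) : ∀ l : List (Fin 18), s ∈ l →
      |(l.map v).prod| ≤ M ^ (l.length - 1) * η := by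
  have hη : 0 ≤ η := (abs_nonneg _).trans hs
  intro l
  induction l with
  | nil => intro h; exact absurd h List.not_mem_nil
  | cons a l ih =>
    intro h
    simp only [List.map_cons, List.prod_cons, List.length_cons, abs_mul, Nat.add_sub_cancel]
    rcases List.mem_cons.1 h with h1 | h1
    · subst h1
      rw [mul_comm (M ^ l.length)]
      exact mul_le_mul hs (prod_le_pow hM hv l) (abs_nonneg _) hη
    · have h2 := ih h1
      have h3 : l.length = (l.length - 1) + 1 := by
        have := List.length_pos_of_mem h1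
        omega
      calc |v a| * |(l.map v).prod| ≤ M * (M ^ (l.length - 1) * η) :=
            mul_le_mul (hv a) h2 (abs_nonneg _) (by linarith)
        _ = M ^ ((l.length - 1) + 1) * η := by rw [pow_succ]; ring
        _ = _ := by rw [← h3]

/-- size of a monomial -/
theorem tmN_le (hκ : ∀ n, |κ n| ≤ 1) {n : ℕ} {q : Fin 14} {b c : Fin 18 → ℝ} {t : Tm} {Cf P : ℝ}
    (h0 : 0 ≤ cfl W lam n t.idx (Fin.natAdd 4 q))
    (hCf : cfl W lam n t.idx (Fin.natAdd 4 q) ≤ Cf) (hP : |(t.idx.map (mix b c)).prod| ≤ P) :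
    |tmN W κ lam n q b c t| ≤ |(t.n : ℝ)| * (Cf * P) := by
  have h1 : |κ n| ^ t.e ≤ 1 := pow_le_one₀ (abs_nonneg _) (hκ n)
  unfold tmN
  rw [mix_prod, abs_mul, abs_mul, abs_mul, abs_pow, abs_of_nonneg h0]
  have h2 : |(t.n : ℝ)| * |κ n| ^ t.e ≤ |(t.n : ℝ)| := by
    have := mul_le_mul_of_nonneg_left h1 (abs_nonneg (t.n : ℝ))
    linarith
  calc |(t.n : ℝ)| * |κ n| ^ t.e * cfl W lam n t.idx (Fin.natAdd 4 q) *
        |(t.idx.map (mix b c)).prod|
      ≤ |(t.n : ℝ)| * Cf * P := by
        refine mul_le_mul (mul_le_mul h2 hCf h0 (abs_nonneg _)) hP (abs_nonneg _) ?_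
        exact mul_nonneg (abs_nonneg _) (h0.trans hCf)
    _ = _ := by ring

theorem sum_split {α : Type*} (F : α → ℝ) (p : α → Bool) (l : List α) :
    (l.map F).sum = ((l.filter p).map F).sum + ((l.filter fun a => !p a).map F).sum := by
  induction l with
  | nil => simp
  | cons a l ih =>
    by_cases h : p a
    · simp [h, ih, add_assoc]
    · simp only [Bool.not_eq_true] at h
      simp [h, ih]
      ring

theorem abs_sum_le {α : Type*} (F : α → ℝ) (m : α → ℤ) (D : ℝ) (hD : 0 ≤ D) (l : List α)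
    (p : α → Bool) (h : ∀ a ∈ l, p a = true → |F a| ≤ |(m a : ℝ)| * D) :
    |((l.filter p).map F).sum| ≤ (((l.map fun a => (m a).natAbs).sum : ℕ) : ℝ) * D := by
  induction l with
  | nil => simp
  | cons a l ih =>
    have h1 := ih fun b hb => h b (List.mem_cons_of_mem _ hb)
    have h2 : (((m a).natAbs : ℕ) : ℝ) = |(m a : ℝ)| := by
      rw [Nat.cast_natAbs, Int.cast_abs]
    simp only [List.map_cons, List.sum_cons, Nat.cast_add]
    rw [h2, add_mul]
    by_cases hp : p a = true
    · rw [List.filter_cons_of_pos hp]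
      simp only [List.map_cons, List.sum_cons]
      exact (abs_add_le _ _).trans (add_le_add (h a List.mem_cons_self hp) h1)
    · rw [List.filter_cons_of_neg hp]
      have : 0 ≤ |(m a : ℝ)| * D := mul_nonneg (abs_nonneg _) hD
      linarith

/-- **only the live monomials count** -/
theorem row_live (h : WWnd W κ lam f) {n : ℕ} (q : Fin 14) (N : Finset (Fin 18))
    {b c : Fin 18 → ℝ} {Cf M η : ℝ} (hM : 1 ≤ M) (hη : 0 ≤ η) (hCf0 : 0 ≤ Cf)
    (hCf : ∀ t ∈ tms q, cfl W lam n t.idx (Fin.natAdd 4 q) ≤ Cf)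
    (hc : ∀ i : Fin 4, |c (Fin.castAdd 14 i)| ≤ M) (hb : ∀ q : Fin 14, |b (Fin.natAdd 4 q)| ≤ M)
    (hcN : ∀ i : Fin 4, Fin.castAdd 14 i ∈ N → |c (Fin.castAdd 14 i)| ≤ η)
    (hbN : ∀ q : Fin 14, Fin.natAdd 4 q ∈ N → |b (Fin.natAdd 4 q)| ≤ η) :
    |((tms q).map (tmN W κ lam n q b c)).sum - ((live N q).map (tmN W κ lam n q b c)).sum| ≤
      67 * (Cf * (M ^ 6 * η)) := by
  have hmix : ∀ s, |mix b c s| ≤ M := by
    intro s
    refine Fin.addCases (m := 4) (n := 14) (fun i => ?_) (fun q' => ?_) s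
    · rw [mix_left]; exact hc i
    · rw [mix_right]; exact hb q'
  have hmixN : ∀ s ∈ N, |mix b c s| ≤ η := by
    intro s
    refine Fin.addCases (m := 4) (n := 14) (fun i hi => ?_) (fun q' hq' => ?_) s
    · rw [mix_left]; exact hcN i hi
    · rw [mix_right]; exact hbN q' hq'
  have hD : 0 ≤ Cf * (M ^ 6 * η) := by positivity
  have e := sum_split (tmN W κ lam n q b c) (fun t => decide (∀ s ∈ t.idx, s ∉ N)) (tms q)
  have e2 : ((tms q).map (tmN W κ lam n q b c)).sum -
      ((live N q).map (tmN W κ lam n q b c)).sum =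
      (((tms q).filter fun t => !decide (∀ s ∈ t.idx, s ∉ N)).map (tmN W κ lam n q b c)).sum := by
    unfold live
    linarith
  rw [e2]
  refine (abs_sum_le _ (fun t => t.n) _ hD _ _ ?_).trans ?_
  · intro t ht hp
    have hp' : ∃ s ∈ t.idx, s ∈ N := by simpa using hp
    obtain ⟨s, hs, hsN⟩ := hp'
    refine tmN_le h.hκ (h.cfl_pos n _ _).le (hCf t ht) ?_
    refine (prod_dead hM hmix (hmixN s hsN) t.idx hs).trans ?_
    refine mul_le_mul_of_nonneg_right (pow_le_pow_right₀ hM ?_) hη
    have := idx_len q t ht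
    omega
  · have g2 : ((((tms q).map fun t => t.n.natAbs).sum : ℕ) : ℝ) ≤ 67 := by
      exact_mod_cast tms_sum q
    exact mul_le_mul_of_nonneg_right g2 hD

end Crest.Agent.R136.RowW619
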