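import Crest.Agent.R136.Qd14_329
import Crest.Agent.R136.RowW_619

/-!
# R136: the bilinear rigidity (helper329), part 15: the window

* `QWin W κ lam f Dr x` : window of `quad`, dropped slots `Dr = {4,5,6,8}`, `+ 7`, `+ 7, 9`.
* `QNu` : its numbers.
* `QWin.coc` : the normalised coordinates satisfy the cocycle of the W-group up to `ρ^x`.
* `QWin.qrow`, `QWin.qevo`, `QWin.srow`, `QWin.qprof` : input of `quad_full2`.
-/

set_option autoImplicit false
set_option linter.unusedSectionVars false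
set_option linter.unusedVariables false

open Filter Topology

namespace Crest.Agent.R136.Qd329

open Finset Crest.Agent.R136.NetW191 Crest.Agent.R136.Net191 Crest.Agent.R136.Qg926
open Crest.Agent.R136.EvW938 Crest.Agent.R136.RowW619 Crest.Agent.R136.Gf356
open Crest.Agent.R138.Ex926 (Base U)

/-- the box `x` on `S` -/
def qb (S : Finset (Fin 18)) (x : ℝ) : Fin 18 → ℝ := fun k => if k ∈ S then x else 0

/-- the slots of the spread box -/
def Sq (Dr : Finset (Fin 18)) : Finset (Fin 18) := if (9 : Fin 18) ∈ Dr then {2, 14, 15} else {2, 14}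

/-- **numbers of `quad`** -/
structure QNu (ν : (Fin 18 → ℝ) → ℝ) (Dr : Finset (Fin 18)) (x m : ℝ) : Prop where
  m0 : 0 < m
  n1 : ν (qb {2, 3, 14, 15} x) ≤ ν (qb {2, 3, 14, 15, 16} x)
  n2 : ν (qb {1, 11, 12} x) ≤ ν (qb {1, 11, 12, 16} x)
  n3 : ν 0 + ν (qb {1, 2, 3, 11, 12, 14, 15} x) ≤ ν (qb {2, 3, 14, 15} x) + ν (qb {1, 11, 12} x)
  n4 : 2 * x ≤ ν 0 - ν (qb {2, 3} x)
  n5 : ∀ y, 0 ≤ y → y ≤ x → m * y ≤ ν 0 - ν (qb {1} y)
  n6 : (7 : Fin 18) ∈ Dr → ∀ y, 0 ≤ y → y ≤ x →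
    m * y ≤ ν (qb (Sq Dr) x) - ν (Function.update (qb (Sq Dr) x) 3 y)

variable {ι : ℕ → Type*} [∀ n, DecidableEq (ι n)] {W : Wnd 18 ι} {κ : ℕ → ℝ}
  {lam : ℕ → Fin 18 → ℝ} {f : ∀ n, ι n → FW} {Dr : Finset (Fin 18)} {x m : ℝ}

/-- **window of `quad`** -/
structure QWin (W : Wnd 18 ι) (κ : ℕ → ℝ) (lam : ℕ → Fin 18 → ℝ) (f : ∀ n, ι n → FW)
    (Dr : Finset (Fin 18)) (x : ℝ) : Prop where
  x0 : 0 < x
  ww : WWnd W κ lam f
  eS : W.S = {0}
  etop : W.top = fun _ => x
  ekap : W.kap = fun _ => 1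
  dw : ∀ n, W.B'.d n = W.B.d n ^ W.w n
  hk : ∀ ε : ℝ, 0 < ε → ∀ᶠ n in (U : Filter ℕ), W.B'.d n ^ ε ≤ |κ n|
  dr : Dr = {4, 5, 6, 8} ∨ Dr = {4, 5, 6, 7, 8} ∨ Dr = {4, 5, 6, 7, 8, 9}
  /-- walls between slots which are not dropped -/
  tight : ∀ k, k ∉ Dr → ∀ l ∈ mlW k, (∀ s ∈ l, s ∉ Dr) → ∀ n, W.X n k = (l.map (W.X n)).sum
  /-- the other walls are at infinite distance -/
  gap : ∀ k, ∀ l ∈ mlW k, (k ∈ Dr ∨ ∃ s ∈ l, s ∈ Dr) → ∀ R : ℝ, ∀ᶠ n in (U : Filter ℕ),
    W.X n k + R * W.w n ≤ (l.map (W.X n)).sum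
  dens : W.lam W.top ≤ W.lam (cut W.S W.top 0) + W.lam (cut W.S 0 W.top)
  frost : ∀ y : ℝ, 0 ≤ y → y ≤ x → W.lam (Pi.single 0 y) ≤ -(1 * y)
  /-- legal boxes -/
  leg : ∀ p : Fin 18 → ℝ, (∀ s, 0 ≤ p s) → (∀ s, p s ≤ x) →
    (∀ k, k ∉ Dr → ∀ l ∈ mlW k, (∀ s ∈ l, s ∉ Dr) →
      cut {0} p (fun _ => x) k ≤ (l.map (cut {0} p (fun _ => x))).sum) → p ∈ W.legW

/-- the frame of `y` seen from `x` -/
noncomputable def hW (W : Wnd 18 ι) (n : ℕ) (x y : ι n) : Fin 4 → ℝ := frm (W.crd n x y)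

/-- the flag of `y` seen from `x`, without the dropped components and the component `13` -/
noncomputable def fW (W : Wnd 18 ι) (Dr : Finset (Fin 18)) (n : ℕ) (x y : ι n) : Fin 14 → ℝ :=
  fun q => if q = 13 ∨ Fin.natAdd 4 q ∈ Dr then 0 else W.crd n x y (Fin.natAdd 4 q)

theorem fW_le (n : ℕ) (a b : ι n) (q : Fin 14) :
    |fW W Dr n a b q| ≤ |W.crd n a b (Fin.natAdd 4 q)| := by
  unfold fW
  split_ifs
  · rw [abs_zero]; exact abs_nonneg _
  · exact le_rfl

theorem fW_of {n : ℕ} {a b : ι n} {q : Fin 14} (h1 : q ≠ 13) (h2 : Fin.natAdd 4 q ∉ Dr) :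
    fW W Dr n a b q = W.crd n a b (Fin.natAdd 4 q) := if_neg (by rintro (h | h); exacts [h1 h, h2 h])

theorem fW_dr {n : ℕ} {a b : ι n} {q : Fin 14} (h2 : Fin.natAdd 4 q ∈ Dr) :
    fW W Dr n a b q = 0 := if_pos (Or.inr h2)

section static

variable (g : QWin W κ lam f Dr x)

include g

theorem QWin.sub4 {s : Fin 18} (hs : s ∈ ({4, 5, 6, 8} : Finset (Fin 18))) : s ∈ Dr := by
  have h1 : ∀ s : Fin 18, s ∈ ({4, 5, 6, 8} : Finset (Fin 18)) → s ∈ ({4, 5, 6, 7, 8} : Finset (Fin 18)) := by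
    decide
  have h2 : ∀ s : Fin 18, s ∈ ({4, 5, 6, 8} : Finset (Fin 18)) →
      s ∈ ({4, 5, 6, 7, 8, 9} : Finset (Fin 18)) := by decide
  rcases g.dr with h | h | h
  · rw [h]; exact hs
  · rw [h]; exact h1 s hs
  · rw [h]; exact h2 s hs

theorem QWin.nfr (i : Fin 4) : Fin.castAdd 14 i ∉ Dr := by
  have h0 : ∀ i : Fin 4, (Fin.castAdd 14 i : Fin 18) ∉ ({4, 5, 6, 8} : Finset (Fin 18)) := by decide
  have h1 : ∀ i : Fin 4, (Fin.castAdd 14 i : Fin 18) ∉ ({4, 5, 6, 7, 8} : Finset (Fin 18)) := by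
    decide
  have h2 : ∀ i : Fin 4, (Fin.castAdd 14 i : Fin 18) ∉ ({4, 5, 6, 7, 8, 9} : Finset (Fin 18)) := by
    decide
  rcases g.dr with h | h | h
  · rw [h]; exact h0 i
  · rw [h]; exact h1 i
  · rw [h]; exact h2 i

theorem QWin.h97 (h9 : (9 : Fin 18) ∈ Dr) : (7 : Fin 18) ∈ Dr := by
  rcases g.dr with h | h | h
  · rw [h] at h9; exact absurd h9 (by decide)
  · rw [h]; decide
  · rw [h]; decide

/-- big slots are not dropped -/
theorem QWin.nbig {s : Fin 18} (hs : 10 ≤ s) : s ∉ Dr := by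
  have h0 : ∀ s : Fin 18, 10 ≤ s → s ∉ ({4, 5, 6, 8} : Finset (Fin 18)) := by decide
  have h1 : ∀ s : Fin 18, 10 ≤ s → s ∉ ({4, 5, 6, 7, 8} : Finset (Fin 18)) := by decide
  have h2 : ∀ s : Fin 18, 10 ≤ s → s ∉ ({4, 5, 6, 7, 8, 9} : Finset (Fin 18)) := by decide
  rcases g.dr with h | h | h
  · rw [h]; exact h0 s hs
  · rw [h]; exact h1 s hs
  · rw [h]; exact h2 s hs

theorem QWin.fz {n : ℕ} (a b : ι n) : Fz (fW W Dr n a b) :=
  ⟨fW_dr (g.sub4 (by decide)), fW_dr (g.sub4 (by decide)), fW_dr (g.sub4 (by decide)),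
    fW_dr (g.sub4 (by decide))⟩

theorem QWin.cfl_one {k : Fin 18} (hk : k ∉ Dr) {l : List (Fin 18)} (hl : l ∈ mlW k)
    (hs : ∀ s ∈ l, s ∉ Dr) (n : ℕ) : cfl W lam n l k = 1 := by
  rw [g.ww.cfl_eq hl (g.tight k hk l hl hs n), g.ekap]
  have : (l.map fun _ : Fin 18 => (1 : ℝ)).prod = 1 := by
    induction l with
    | nil => rfl
    | cons a l ih => simp
  rw [this, div_one]

theorem QWin.cfl_dead {k : Fin 18} {l : List (Fin 18)} (hl : l ∈ mlW k)
    (hd : k ∈ Dr ∨ ∃ s ∈ l, s ∈ Dr) :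
    ∀ᶠ n in (U : Filter ℕ), cfl W lam n l k ≤ W.B'.d n ^ x := by
  filter_upwards [g.gap k l hl hd x] with n hn
  have e1 : (l.map (un W lam n)).prod =
      W.B.d n ^ (l.map (W.X n)).sum / (l.map (lam n)).prod := by
    clear hl hd hn
    induction l with
    | nil => simp
    | cons a l ih =>
      simp only [List.map_cons, List.prod_cons, List.sum_cons, ih]
      unfold un sd
      rw [Real.rpow_add (W.B.pos n), g.ekap]
      field_simp
  have h2 := ((g.ww.hl n).pos k).ne'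
  have h3 := (Real.rpow_pos_of_pos (W.B.pos n) (W.X n k))
  have e2 : cfl W lam n l k = W.B.d n ^ ((l.map (W.X n)).sum - W.X n k) := by
    unfold cfl
    rw [e1, (g.ww.hl n).mul k l hl, Real.rpow_sub (W.B.pos n)]
    unfold un sd
    rw [g.ekap]
    have := h3.ne'
    field_simp
  rw [e2, g.dw, ← Real.rpow_mul (W.B.pos n).le]
  exact Real.rpow_le_rpow_of_exponent_ge (W.B.pos n) (W.B.lt n).le (by linarith)

theorem QWin.cfl_all : ∀ᶠ n in (U : Filter ℕ), ∀ q : Fin 14, ∀ t ∈ tms q,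
    Fin.natAdd 4 t.s ∈ Dr → cfl W lam n t.idx (Fin.natAdd 4 q) ≤ W.B'.d n ^ x := by
  refine Filter.eventually_all.2 fun q => ?_
  have : ∀ᶠ n in (U : Filter ℕ), ∀ t ∈ (tms q).toFinset,
      Fin.natAdd 4 t.s ∈ Dr → cfl W lam n t.idx (Fin.natAdd 4 q) ≤ W.B'.d n ^ x := by
    refine (Filter.eventually_all_finset _).2 fun t ht => ?_
    by_cases hs : Fin.natAdd 4 t.s ∈ Dr
    · have hl : t.idx ∈ mlW (Fin.natAdd 4 q) := by
        rw [mlW_right]; exact List.mem_map_of_mem (List.mem_toFinset.1 ht)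
      filter_upwards [g.cfl_dead hl (Or.inr ⟨_, by simp [Tm.idx], hs⟩)] with n hn _
      exact hn
    · exact Eventually.of_forall fun n h => absurd h hs
  filter_upwards [this] with n hn t ht
  exact hn t (List.mem_toFinset.2 ht)

end static

/-- the constant of the window -/
noncomputable def Kq (W : Wnd 18 ι) : ℝ := 2 * MW W

/-- difference of two sums -/
theorem sum_diff {α : Type*} (F G : α → ℝ) (mm : α → ℤ) {D : ℝ} (l : List α)
    (h : ∀ a ∈ l, |F a - G a| ≤ |(mm a : ℝ)| * D) :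
    |(l.map F).sum - (l.map G).sum| ≤ (((l.map fun a => (mm a).natAbs).sum : ℕ) : ℝ) * D := by
  induction l with
  | nil => simp
  | cons a l ih =>
    have h1 := ih fun b hb => h b (List.mem_cons_of_mem _ hb)
    have h2 : (((mm a).natAbs : ℕ) : ℝ) = |(mm a : ℝ)| := by rw [Nat.cast_natAbs, Int.cast_abs]
    have h3 := h a List.mem_cons_self
    simp only [List.map_cons, List.sum_cons, Nat.cast_add]
    rw [h2, add_mul]
    have e : F a + (l.map F).sum - (G a + (l.map G).sum) =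
        (F a - G a) + ((l.map F).sum - (l.map G).sum) := by ring
    rw [e]
    exact (abs_add_le _ _).trans (add_le_add h3 h1)

section coc

variable (g : QWin W κ lam f Dr x)

include g

theorem QWin.Kq1 : 1 ≤ Kq W := by
  have := (MW_le g.ww).1
  unfold Kq
  linarith

theorem QWin.MW_Kq : MW W ≤ Kq W := by
  have := (MW_le g.ww).1
  unfold Kq
  linarith

theorem QWin.K0_MW : W.K0 ≤ MW W := by
  have := (MW_le g.ww).2 0
  rwa [g.ekap, div_one] at this

/-- **the cocycle in normalised coordinates** -/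
theorem QWin.coc : ∀ᶠ n in (U : Filter ℕ), W.Good n ∧ ∀ a ∈ W.Cl n, ∀ b ∈ W.Cl n,
    ∀ c ∈ W.Cl n, Loc (κ n) (Kq W) (67 * (Kq W) ^ 7 * W.B'.d n ^ x) (hW W n a b) (hW W n b c)
      (hW W n a c) (fW W Dr n a b) (fW W Dr n b c) (fW W Dr n a c) := by
  filter_upwards [g.cfl_all, g.ww.ok.ev_good] with n hd gd
  refine ⟨gd, fun a ha b hb c hc => ?_⟩
  have hK := g.Kq1
  have hMK := g.MW_Kq
  have hρ : 0 < W.B'.d n ^ x := Real.rpow_pos_of_pos (W.B'.pos n) _
  have bd : ∀ {a b : ι n}, a ∈ W.Cl n → b ∈ W.Cl n → ∀ s, |W.crd n a b s| ≤ Kq W :=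
    fun ha hb s => (crd_MW g.ww gd ha hb s).trans hMK
  have n1 : (1 : Fin 18) ∉ Dr := g.nfr 1
  have n2 : (2 : Fin 18) ∉ Dr := g.nfr 2
  have n3 : (3 : Fin 18) ∉ Dr := g.nfr 3
  have n0 : (0 : Fin 18) ∉ Dr := g.nfr 0
  refine ⟨g.ww.hκ n, hK, by positivity, fun i => bd ha hb _, fun i => bd hb hc _,
    fun i => bd ha hc _, fun q => (fW_le n a b q).trans (bd ha hb _),
    fun q => (fW_le n a c q).trans (bd ha hc _), g.fz a b, ?_, ?_⟩
  · funext i
    fin_cases i
    · change W.crd n a c 0 = mul (κ n) (hW W n a b) (hW W n b c) 0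
      rw [mul0, comp0 g.ww gd ha hb hc]; rfl
    · change W.crd n a c 1 = mul (κ n) (hW W n a b) (hW W n b c) 1
      rw [mul1, comp1 g.ww gd ha hb hc]; rfl
    · change W.crd n a c 2 = mul (κ n) (hW W n a b) (hW W n b c) 2
      rw [mul2, comp2 g.ww gd ha hb hc, g.cfl_one n2 (by decide) (by
        intro s hs
        simp only [List.mem_cons, List.not_mem_nil, or_false] at hs
        rcases hs with rfl | rfl
        · exact n1
        · exact n0), one_mul]; rfl
    · change W.crd n a c 3 = mul (κ n) (hW W n a b) (hW W n b c) 3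
      rw [mul3, comp3 g.ww gd ha hb hc, g.cfl_one n3 (l := [1, 2]) (by decide) (by
        intro s hs
        simp only [List.mem_cons, List.not_mem_nil, or_false] at hs
        rcases hs with rfl | rfl
        · exact n1
        · exact n2), g.cfl_one n3 (l := [1, 1, 0]) (by decide) (by
        intro s hs
        simp only [List.mem_cons, List.not_mem_nil, or_false] at hs
        rcases hs with rfl | rfl | rfl
        · exact n1
        · exact n1
        · exact n0)]
      change _ = W.crd n a b 3 + W.crd n b c 3 - 2 * κ n * W.crd n a b 1 * W.crd n b c 2 -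
        κ n * W.crd n a b 1 ^ 2 * W.crd n b c 0
      ring
  · intro q hq
    have zw := g.fz a b
    by_cases hqD : Fin.natAdd 4 q ∈ Dr
    · have hz : tr (κ n) (hW W n b c) (fW W Dr n a b) q = 0 := by
        have c0 : ∀ q : Fin 14, (Fin.natAdd 4 q : Fin 18) ∈ ({4, 5, 6, 7, 8, 9} : Finset (Fin 18)) →
            q = 0 ∨ q = 1 ∨ q = 2 ∨ q = 4 ∨ q = 3 ∨ q = 5 := by decide
        have hsub : ∀ s ∈ Dr, s ∈ ({4, 5, 6, 7, 8, 9} : Finset (Fin 18)) := by
          have s1 : ∀ s : Fin 18, s ∈ ({4, 5, 6, 8} : Finset (Fin 18)) →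
            s ∈ ({4, 5, 6, 7, 8, 9} : Finset (Fin 18)) := by decide
          have s2 : ∀ s : Fin 18, s ∈ ({4, 5, 6, 7, 8} : Finset (Fin 18)) →
            s ∈ ({4, 5, 6, 7, 8, 9} : Finset (Fin 18)) := by decide
          intro s hs
          rcases g.dr with h | h | h
          · rw [h] at hs; exact s1 s hs
          · rw [h] at hs; exact s2 s hs
          · rw [h] at hs; exact hs
        rcases c0 q (hsub _ hqD) with rfl | rfl | rfl | rfl | rfl | rfl
        · exact zw.t0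
        · exact zw.t1
        · exact zw.t2
        · exact zw.t4
        · rw [zw.t3, fW_dr hqD]
        · have h7 : (Fin.natAdd 4 (3 : Fin 14) : Fin 18) ∈ Dr := g.h97 hqD
          rw [zw.t5, fW_dr hqD, fW_dr h7]; ring
      rw [hz, fW_dr hqD, fW_dr hqD, add_zero, sub_zero, abs_zero]
      positivity
    · rw [fW_of hq hqD, fW_of hq hqD, tr_tms, fW_of hq hqD, comp_flag g.ww gd ha hb hc q]
      have e : W.crd n a b (Fin.natAdd 4 q) + W.crd n b c (Fin.natAdd 4 q) +
          ((tms q).map (tmN W κ lam n q (W.crd n a b) (W.crd n b c))).sum -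
          (W.crd n b c (Fin.natAdd 4 q) + (W.crd n a b (Fin.natAdd 4 q) +
            ((tms q).map (Tm.ev (κ n) (hW W n b c) (fW W Dr n a b))).sum)) =
          ((tms q).map (tmN W κ lam n q (W.crd n a b) (W.crd n b c))).sum -
            ((tms q).map (Tm.ev (κ n) (hW W n b c) (fW W Dr n a b))).sum := by ring
      rw [e]
      refine (sum_diff _ _ (fun t => t.n) (D := (Kq W) ^ 7 * W.B'.d n ^ x) _ ?_).trans ?_
      · intro t ht
        by_cases hs : Fin.natAdd 4 t.s ∈ Dr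
        · have e0 : Tm.ev (κ n) (hW W n b c) (fW W Dr n a b) t = 0 := by
            unfold Tm.ev; rw [fW_dr hs, mul_zero]
          rw [e0, sub_zero]
          have hP : |(t.idx.map (mix (W.crd n a b) (W.crd n b c))).prod| ≤ (Kq W) ^ 7 := by
            refine (prod_le_pow hK (fun s => ?_) _).trans (pow_le_pow_right₀ hK (idx_len q t ht))
            refine Fin.addCases (m := 4) (n := 14) (fun i => ?_) (fun q' => ?_) s
            · rw [mix_left]; exact bd hb hc _
            · rw [mix_right]; exact bd ha hb _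
          have := tmN_le g.ww.hκ (g.ww.cfl_pos n t.idx (Fin.natAdd 4 q)).le (hd q t ht hs) hP
          refine this.trans (le_of_eq ?_)
          ring
        · have h13 : t.s ≠ 13 := by
            have hs : ∀ q : Fin 14, q ≠ 13 → ∀ t ∈ tms q, t.s ≠ 13 := by decide
            exact hs q hq t ht
          have hc1 : cfl W lam n t.idx (Fin.natAdd 4 q) = 1 := by
            refine g.cfl_one hqD (by rw [mlW_right]; exact List.mem_map_of_mem ht) ?_ n
            intro s hs'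
            simp only [Tm.idx, List.mem_append, List.mem_map, List.mem_singleton] at hs'
            rcases hs' with ⟨i, -, rfl⟩ | rfl
            · exact g.nfr i
            · exact hs
          have e1 : tmN W κ lam n q (W.crd n a b) (W.crd n b c) t =
              Tm.ev (κ n) (hW W n b c) (fW W Dr n a b) t := by
            unfold tmN Tm.ev
            rw [hc1, fW_of h13 hs]
            have : (t.hl.map (hW W n b c)) = t.hl.map fun i => W.crd n b c (Fin.castAdd 14 i) := rfl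
            rw [this]
            ring
          rw [e1, sub_self, abs_zero]
          positivity
      · have g2 : ((((tms q).map fun t => t.n.natAbs).sum : ℕ) : ℝ) ≤ 67 := by
          exact_mod_cast tms_sum q
        have : 0 ≤ (Kq W) ^ 7 * W.B'.d n ^ x := by positivity
        nlinarith

end coc

end Crest.Agent.R136.Qd329
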