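import Crest.Agent.R136.Qd15_329
import Crest.Agent.R136.WkH4_626

/-!
# R136: the bilinear rigidity (helper329), part 16: the rows of the window
-/

set_option autoImplicit false
set_option linter.unusedSectionVars false
set_option linter.unusedVariables false

open Filter Topology

namespace Crest.Agent.R136.Qd329

open Finset Crest.Agent.R136.NetW191 Crest.Agent.R136.Net191 Crest.Agent.R136.Qg926
open Crest.Agent.R136.EvW938 Crest.Agent.R136.RowW619 Crest.Agent.R136.Gf356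
open Crest.Agent.R138.Ex926 (Base U)

variable {ι : ℕ → Type*} [∀ n, DecidableEq (ι n)] {W : Wnd 18 ι} {κ : ℕ → ℝ}
  {lam : ℕ → Fin 18 → ℝ} {f : ∀ n, ι n → FW} {Dr : Finset (Fin 18)} {x m : ℝ}
  {E' : ∀ n, Finset (ι n)}

/-! ### the coordinates of the configuration -/

/-- frame coordinate `i` -/
noncomputable def cH (W : Wnd 18 ι) (i : Fin 4) (n k l : ℕ) : ℝ :=
  hW W n (W.s₀ n) (W.rep n l k) i

/-- flag coordinate `q` -/
noncomputable def cF (W : Wnd 18 ι) (Dr : Finset (Fin 18)) (q : Fin 14) (n k l : ℕ) : ℝ :=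
  fW W Dr n (W.s₀ n) (W.rep n l k) q

/-- the coordinate `s` -/
noncomputable def cS (W : Wnd 18 ι) (κ : ℕ → ℝ) (Dr : Finset (Fin 18)) (n k l : ℕ) : ℝ :=
  cF W Dr 11 n k l + 2 * κ n * cH W 1 n k l * cF W Dr 10 n k l

/-- the coordinate `Z` -/
noncomputable def cZ (W : Wnd 18 ι) (κ : ℕ → ℝ) (Dr : Finset (Fin 18)) (n k l : ℕ) : ℝ :=
  cF W Dr 8 n k l + 2 * κ n * cH W 1 n k l * cF W Dr 7 n k l

/-- the error constant -/
noncomputable def Cq (W : Wnd 18 ι) : ℝ := 6000 * (Kq W) ^ 12 * (67 * (Kq W) ^ 7)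

/-- one row -/
structure RowAt (W : Wnd 18 ι) (κ : ℕ → ℝ) (Dr : Finset (Fin 18)) (G : RCfg (Fin 18)) (n : ℕ)
    (x : ℝ) (k l l' : ℕ) : Prop where
  loc : Loc (κ n) (Kq W) (67 * (Kq W) ^ 7 * W.B'.d n ^ x) (hW W n (W.s₀ n) (W.rep n l k))
    (hW W n (W.rep n l k) (W.rep n l' k)) (hW W n (W.s₀ n) (W.rep n l' k))
    (fW W Dr n (W.s₀ n) (W.rep n l k)) (fW W Dr n (W.rep n l k) (W.rep n l' k))
    (fW W Dr n (W.s₀ n) (W.rep n l' k))
  z0 : |hW W n (W.rep n l k) (W.rep n l' k) 0| ≤ 67 * (Kq W) ^ 7 * W.B'.d n ^ x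
  bd : ∀ s, |W.crd n (W.rep n l k) (W.rep n l' k) s| ≤ Kq W
  r0 : G.rel k l l' 0 = 0
  rs : ∀ s, s ≠ 0 → G.rel k l l' s = W.crd n (W.rep n l k) (W.rep n l' k) s

section rows

variable (g : QWin W κ lam f Dr x)

include g

theorem QWin.MW_le67 {n : ℕ} (y : ℝ) : MW W * W.B'.d n ^ y ≤ 67 * (Kq W) ^ 7 * W.B'.d n ^ y := by
  have hK := g.Kq1
  have h1 : MW W ≤ 67 * (Kq W) ^ 7 := by
    have : Kq W ≤ (Kq W) ^ 7 := by
      calc Kq W = (Kq W) ^ 1 := (pow_one _).symm
        _ ≤ _ := pow_le_pow_right₀ hK (by norm_num)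
    have := g.MW_Kq
    linarith
  exact mul_le_mul_of_nonneg_right h1 (Real.rpow_pos_of_pos (W.B'.pos n) _).le

theorem QWin.rows (hE : ∀ᶠ n in (U : Filter ℕ), E' n ⊆ W.Cl n ∧ W.cfg E' n = W.cfg0 n (E' n)) :
    ∀ᶠ n in (U : Filter ℕ), ∀ k l l', (l, k) ∈ (W.cfg E' n).I → (l', k) ∈ (W.cfg E' n).I →
      RowAt W κ Dr (W.cfg E' n) n x k l l' := by
  filter_upwards [hE, g.coc] with n ⟨h1, h2⟩ ⟨gd, hL⟩ k l l' hl hl'
  rw [h2] at hl hl' ⊢
  obtain ⟨a1, a2, a3⟩ := Wnd.rep_of_mem h1 hl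
  obtain ⟨b1, b2, b3⟩ := Wnd.rep_of_mem h1 hl'
  have h0S : (0 : Fin 18) ∈ W.S := g.ww.h0
  refine ⟨hL _ gd.s0 _ a1 _ b1, ?_, fun s => (crd_MW g.ww gd a1 b1 s).trans g.MW_Kq, if_pos h0S,
    fun s hs => g.ww.rel_eq l l' k (by rw [g.eS, mem_singleton]; exact hs)⟩
  have h3 := lev_MW g.ww gd a1 b1 (a3.trans b3.symm) h0S (t := x) (by rw [g.etop])
  exact h3.trans (g.MW_le67 x)

/-- larger error -/
theorem QWin.eta {n : ℕ} {ε : ℝ} (hε : 0 < ε) :
    67 * (Kq W) ^ 7 * W.B'.d n ^ x ≤ 67 * (Kq W) ^ 7 * W.B'.d n ^ (x - ε) := by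
  have hK := g.Kq1
  refine mul_le_mul_of_nonneg_left ?_ (by positivity)
  exact Real.rpow_le_rpow_of_exponent_ge (W.B'.pos n) (W.B'.lt n).le (by linarith)

theorem QWin.eta' {n : ℕ} {ε X : ℝ} (h : X ≤ W.B'.d n ^ (x - ε)) :
    X ≤ 67 * (Kq W) ^ 7 * W.B'.d n ^ (x - ε) := by
  have hK := g.Kq1
  refine h.trans (le_mul_of_one_le_left (Real.rpow_pos_of_pos (W.B'.pos n) _).le ?_)
  have : 1 ≤ (Kq W) ^ 7 := one_le_pow₀ hK
  linarith

/-- the final constant -/
theorem QWin.fin {n : ℕ} {ε X c : ℝ} {j : ℕ} (hc : c ≤ 6000) (hc0 : 0 ≤ c) (hj : j ≤ 12)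
    (h1 : Cq W ≤ W.B'.d n ^ (-ε)) {y : ℝ}
    (h : X ≤ c * (Kq W) ^ j * (67 * (Kq W) ^ 7 * W.B'.d n ^ y)) : X ≤ W.B'.d n ^ (y - ε) := by
  have hK := g.Kq1
  have hρ := Real.rpow_pos_of_pos (W.B'.pos n) y
  have e1 : c * (Kq W) ^ j ≤ 6000 * (Kq W) ^ 12 :=
    mul_le_mul hc (pow_le_pow_right₀ hK hj) (by positivity) (by norm_num)
  have e2 : c * (Kq W) ^ j * (67 * (Kq W) ^ 7 * W.B'.d n ^ y) ≤
      6000 * (Kq W) ^ 12 * (67 * (Kq W) ^ 7 * W.B'.d n ^ y) :=
    mul_le_mul_of_nonneg_right e1 (by positivity)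
  have e3 : 6000 * (Kq W) ^ 12 * (67 * (Kq W) ^ 7 * W.B'.d n ^ y) = Cq W * W.B'.d n ^ y := by
    unfold Cq; ring
  rw [e3] at e2
  refine (h.trans e2).trans ((mul_le_mul_of_nonneg_right h1 hρ.le).trans (le_of_eq ?_))
  rw [← Real.rpow_add (W.B'.pos n)]
  congr 1; ring

/-- from `loose` to coordinates -/
theorem RowAt.crd {n k l l' : ℕ} {ε : ℝ} {p : Fin 18 → ℝ}
    (r : RowAt W κ Dr (W.cfg E' n) n x k l l') (h : (W.cfg E' n).loose p ε k l l') (s : Fin 18)
    (hs : s ≠ 0) : |W.crd n (W.rep n l k) (W.rep n l' k) s| ≤ W.B'.d n ^ (p s - ε) := by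
  have := h s
  rwa [r.rs s hs, Wnd.cfg_ρ] at this

/-- from coordinates to `loose` -/
theorem RowAt.loose {n k l l' : ℕ} {ε : ℝ} {p : Fin 18 → ℝ}
    (r : RowAt W κ Dr (W.cfg E' n) n x k l l')
    (h : ∀ s, s ≠ 0 → |W.crd n (W.rep n l k) (W.rep n l' k) s| ≤ W.B'.d n ^ (p s - ε)) :
    (W.cfg E' n).loose p ε k l l' := by
  intro s
  rw [Wnd.cfg_ρ]
  by_cases hs : s = 0
  · rw [hs, r.r0, abs_zero]; exact (Real.rpow_pos_of_pos (W.B'.pos n) _).le
  · rw [r.rs s hs]; exact h s hs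

omit g in
theorem qb_mem {S : Finset (Fin 18)} {y : ℝ} {s : Fin 18} (h : s ∈ S) : qb S y s = y := if_pos h
omit g in
theorem qb_not {S : Finset (Fin 18)} {y : ℝ} {s : Fin 18} (h : s ∉ S) : qb S y s = 0 := if_neg h

variable (hE : ∀ᶠ n in (U : Filter ℕ), E' n ⊆ W.Cl n ∧ W.cfg E' n = W.cfg0 n (E' n))

include hE

theorem QWin.bds : ∀ᶠ n in (U : Filter ℕ), ∀ k l, (l, k) ∈ (W.cfg E' n).I →
    (∀ i, |cH W i n k l| ≤ Kq W) ∧ (∀ q, |cF W Dr q n k l| ≤ Kq W) ∧
    |cS W κ Dr n k l| ≤ 3 * (Kq W) ^ 2 ∧ |cZ W κ Dr n k l| ≤ 3 * (Kq W) ^ 2 := by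
  filter_upwards [g.rows hE] with n hr k l hl
  have L := (hr k l l hl hl).loc
  have hK := g.Kq1
  have key : ∀ a b c : ℝ, |a| ≤ Kq W → |b| ≤ Kq W → |c| ≤ Kq W →
      |a + 2 * κ n * b * c| ≤ 3 * (Kq W) ^ 2 := by
    intro a b c ha hb hc
    have e : a + 2 * κ n * b * c = a + 2 * (κ n * (b * c)) := by ring
    rw [e]
    have h1 := kb L.hκ (mb hb hc)
    have h2 := abs_add_le a (2 * (κ n * (b * c)))
    rw [abs_mul 2, abs_two] at h2
    nlinarith
  exact ⟨L.bh, L.bw, key _ _ _ (L.bw 11) (L.bh 1) (L.bw 10), key _ _ _ (L.bw 8) (L.bh 1) (L.bw 7)⟩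

set_option maxHeartbeats 1000000 in
/-- **the rows at one height** -/
theorem QWin.qrow : QRow W.B' (W.cfg E') x (3 * (Kq W) ^ 2) 2 (0 : Fin 18 → ℝ) (qb {2, 3} x)
    (qb {2, 3, 14, 15} x) (qb {1, 11, 12} x) (qb {2, 3, 14, 15, 16} x) (qb {1, 11, 12, 16} x)
    (fun y => qb {1} y) (cH W 2) (cH W 3) (cH W 1) (cS W κ Dr) (cF W Dr 10) (cF W Dr 7)
    (cZ W κ Dr) (cF W Dr 12) κ where
  x0 := g.x0
  M1 := by
    have := one_le_pow₀ (n := 2) g.Kq1
    linarith
  C1 := by norm_num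
  kp1 := g.ww.hκ
  kpl := g.hk
  bd := by
    filter_upwards [g.bds hE] with n h k l hl
    obtain ⟨h1, h2, h3, h4⟩ := h k l hl
    have hK := g.Kq1
    have hKM : Kq W ≤ 3 * (Kq W) ^ 2 := by nlinarith
    exact ⟨(h1 2).trans hKM, (h1 3).trans hKM, (h1 1).trans hKM, h3, (h2 10).trans hKM,
      (h2 7).trans hKM, h4⟩
  pcl := by
    intro ε hε
    filter_upwards [g.rows hE, ev_const_le W.B' hε (Cq W)] with n hr hC k l l' hl hl' hlo
    have r := hr k l l' hl hl'
    have L := r.loc.mono (g.eta (n := n) hε)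
    have c := r.crd g hlo
    have z0 := r.z0.trans (g.eta hε)
    have c2 := g.eta' (by simpa [qb] using c 2 (by decide))
    have c3 := g.eta' (by simpa [qb] using c 3 (by decide))
    have c14 : |fW W Dr n (W.rep n l k) (W.rep n l' k) 10| ≤ 67 * (Kq W) ^ 7 * W.B'.d n ^ (x - ε) :=
      (fW_le _ _ _ _).trans (g.eta' (by simpa [qb] using c 14 (by decide)))
    have c15 : |fW W Dr n (W.rep n l k) (W.rep n l' k) 11| ≤ 67 * (Kq W) ^ 7 * W.B'.d n ^ (x - ε) :=
      (fW_le _ _ _ _).trans (g.eta' (by simpa [qb] using c 15 (by decide)))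
    obtain ⟨p1, p2, -⟩ := L.pbox z0 c2 c3
    have q1 := L.pos2 z0 c2
    have q2 := L.pos3 z0 c2 c3
    have q3 := p1 c14
    have q4 := L.ps q3 (p2 c15)
    have e0 : x - 2 * ε = (x - ε) - ε := by ring
    rw [e0]
    refine ⟨?_, ?_, ?_, ?_⟩
    · rw [abs_sub_comm]
      exact g.fin (c := 2) (j := 2) (by norm_num) (by norm_num) (by norm_num) hC q1
    · rw [abs_sub_comm]
      exact g.fin (c := 4) (j := 2) (by norm_num) (by norm_num) (by norm_num) hC q2
    · rw [abs_sub_comm]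
      refine g.fin (c := 1416) (j := 9) (by norm_num) (by norm_num) (by norm_num) hC
        (q4.trans (le_of_eq ?_))
      ring
    · rw [abs_sub_comm]
      exact g.fin (c := 472) (j := 8) (by norm_num) (by norm_num) (by norm_num) hC q3
  vcl := by
    intro ε hε
    filter_upwards [g.rows hE, ev_const_le W.B' hε (Cq W)] with n hr hC k l l' hl hl' hlo
    have r := hr k l l' hl hl'
    have hK := g.Kq1
    have L := r.loc.mono (g.eta (n := n) hε)
    have c := r.crd g hlo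
    have z0 := r.z0.trans (g.eta hε)
    have c1 := g.eta' (by simpa [qb] using c 1 (by decide))
    have c11 : |fW W Dr n (W.rep n l k) (W.rep n l' k) 7| ≤ 67 * (Kq W) ^ 7 * W.B'.d n ^ (x - ε) :=
      (fW_le _ _ _ _).trans (g.eta' (by simpa [qb] using c 11 (by decide)))
    have c12 : |fW W Dr n (W.rep n l k) (W.rep n l' k) 8| ≤ 67 * (Kq W) ^ 7 * W.B'.d n ^ (x - ε) :=
      (fW_le _ _ _ _).trans (g.eta' (by simpa [qb] using c 12 (by decide)))
    obtain ⟨p1, p2, -⟩ := L.vbox z0 c1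
    have q7 := p1 c11
    have q8 := p2 c12
    have hA : 67 * (Kq W) ^ 7 * W.B'.d n ^ (x - ε) ≤
        472 * (Kq W) ^ 8 * (67 * (Kq W) ^ 7 * W.B'.d n ^ (x - ε)) := by
      refine le_mul_of_one_le_left L.η0 ?_
      have : 1 ≤ (Kq W) ^ 8 := one_le_pow₀ hK
      linarith
    have q9 := L.vZ hA c1 q7 q8
    have e0 : x - 2 * ε = (x - ε) - ε := by ring
    rw [e0]
    refine ⟨?_, ?_, ?_⟩
    · rw [abs_sub_comm]
      refine g.fin (c := 1) (j := 0) (by norm_num) (by norm_num) (by norm_num) hC ?_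
      rw [pow_zero, one_mul, one_mul]
      have e : cH W 1 n k l' - cH W 1 n k l = hW W n (W.rep n l k) (W.rep n l' k) 1 := by
        have := L.g1
        unfold cH
        linarith
      rw [e]; exact c1
    · rw [abs_sub_comm]
      exact g.fin (c := 472) (j := 8) (by norm_num) (by norm_num) (by norm_num) hC q7
    · rw [abs_sub_comm]
      refine g.fin (c := 2360) (j := 9) (by norm_num) (by norm_num) (by norm_num) hC
        (q9.trans (le_of_eq ?_))
      ring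
  pPr := by
    intro ε hε
    filter_upwards [g.rows hE, ev_const_le W.B' hε (Cq W)] with n hr hC k l l' hl hl' hlo
    have r := hr k l l' hl hl'
    have L := r.loc.mono (g.eta (n := n) hε)
    have c := r.crd g hlo
    have z0 := r.z0.trans (g.eta hε)
    have c2 := g.eta' (by simpa [qb] using c 2 (by decide))
    have c3 := g.eta' (by simpa [qb] using c 3 (by decide))
    have c14 : |fW W Dr n (W.rep n l k) (W.rep n l' k) 10| ≤ 67 * (Kq W) ^ 7 * W.B'.d n ^ (x - ε) :=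
      (fW_le _ _ _ _).trans (g.eta' (by simpa [qb] using c 14 (by decide)))
    have c15 : |fW W Dr n (W.rep n l k) (W.rep n l' k) 11| ≤ 67 * (Kq W) ^ 7 * W.B'.d n ^ (x - ε) :=
      (fW_le _ _ _ _).trans (g.eta' (by simpa [qb] using c 15 (by decide)))
    have c16 : |fW W Dr n (W.rep n l k) (W.rep n l' k) 12| ≤ 67 * (Kq W) ^ 7 * W.B'.d n ^ (x - ε) :=
      (fW_le _ _ _ _).trans (g.eta' (by simpa [qb] using c 16 (by decide)))
    obtain ⟨p1, p2, p3⟩ := L.pbox z0 c2 c3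
    have q := L.pP (p1 c14) (p2 c15) (p3 c16)
    have e0 : x - 2 * ε = (x - ε) - ε := by ring
    rw [e0, abs_sub_comm]
    refine g.fin (c := 2360) (j := 10) (by norm_num) (by norm_num) (by norm_num) hC
      (q.trans (le_of_eq ?_))
    ring
  vPr := by
    intro ε hε
    filter_upwards [g.rows hE, ev_const_le W.B' hε (Cq W)] with n hr hC k l l' hl hl' hlo
    have r := hr k l l' hl hl'
    have hK := g.Kq1
    have L := r.loc.mono (g.eta (n := n) hε)
    have c := r.crd g hlo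
    have z0 := r.z0.trans (g.eta hε)
    have c1 := g.eta' (by simpa [qb] using c 1 (by decide))
    have c11 : |fW W Dr n (W.rep n l k) (W.rep n l' k) 7| ≤ 67 * (Kq W) ^ 7 * W.B'.d n ^ (x - ε) :=
      (fW_le _ _ _ _).trans (g.eta' (by simpa [qb] using c 11 (by decide)))
    have c12 : |fW W Dr n (W.rep n l k) (W.rep n l' k) 8| ≤ 67 * (Kq W) ^ 7 * W.B'.d n ^ (x - ε) :=
      (fW_le _ _ _ _).trans (g.eta' (by simpa [qb] using c 12 (by decide)))
    have c16 : |fW W Dr n (W.rep n l k) (W.rep n l' k) 12| ≤ 67 * (Kq W) ^ 7 * W.B'.d n ^ (x - ε) :=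
      (fW_le _ _ _ _).trans (g.eta' (by simpa [qb] using c 16 (by decide)))
    obtain ⟨p1, p2, p3⟩ := L.vbox z0 c1
    have hA : 67 * (Kq W) ^ 7 * W.B'.d n ^ (x - ε) ≤
        472 * (Kq W) ^ 8 * (67 * (Kq W) ^ 7 * W.B'.d n ^ (x - ε)) := by
      refine le_mul_of_one_le_left L.η0 ?_
      have : 1 ≤ (Kq W) ^ 8 := one_le_pow₀ hK
      linarith
    have q := L.vP hA z0 c1 (p1 c11) (p2 c12) (p3 c16)
    have e0 : x - 2 * ε = (x - ε) - ε := by ring
    rw [e0, abs_sub_comm]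
    refine g.fin (c := 5664) (j := 11) (by norm_num) (by norm_num) (by norm_num) hC
      (q.trans (le_of_eq ?_))
    ring
  all := by
    intro ε hε
    filter_upwards [g.rows hE, ev_const_le W.B' hε (Kq W)] with n hr hC k l l' hl hl'
    have r := hr k l l' hl hl'
    refine r.loose g fun s hs => ?_
    rw [Pi.zero_apply, zero_sub]
    exact (r.bd s).trans hC
  acl := by
    intro ε hε
    filter_upwards [g.rows hE, ev_const_le W.B' hε (Kq W), ev_const_le W.B' hε (Cq W)] with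
      n hr hC hC' k l l' hl hl' ha hb
    have r := hr k l l' hl hl'
    have hK := g.Kq1
    have K0 : 0 ≤ Kq W := by linarith
    have L := r.loc
    have hle : W.B'.d n ^ x ≤ 67 * (Kq W) ^ 7 * W.B'.d n ^ x := by
      refine le_mul_of_one_le_left (Real.rpow_pos_of_pos (W.B'.pos n) _).le ?_
      have : 1 ≤ (Kq W) ^ 7 := one_le_pow₀ hK
      linarith
    have i2 := L.inv2 r.z0 (ha.trans hle)
    set η := 67 * (Kq W) ^ 7 * W.B'.d n ^ x with hη
    have η0 : 0 ≤ η := L.η0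
    have i3 := L.inv3 (y := η) (τ := 2 * Kq W * η) (r.z0.trans (by nlinarith)) i2 (hb.trans hle)
    refine r.loose g fun s hs => ?_
    by_cases h2 : s = 2
    · subst h2
      rw [qb_mem (by decide)]
      refine g.fin (c := 2) (j := 1) (by norm_num) (by norm_num) (by norm_num) hC' ?_
      rw [pow_one]; exact i2
    by_cases h3 : s = 3
    · subst h3
      rw [qb_mem (by decide)]
      refine g.fin (c := 7) (j := 3) (by norm_num) (by norm_num) (by norm_num) hC'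
        (i3.trans ?_)
      have : η ≤ (Kq W) ^ 3 * η := le_mul_of_one_le_left η0 (one_le_pow₀ hK)
      have e : 3 * (Kq W) ^ 2 * (2 * Kq W * η) = 6 * ((Kq W) ^ 3 * η) := by ring
      rw [e]
      have e2 : 7 * (Kq W) ^ 3 * η = 7 * ((Kq W) ^ 3 * η) := by ring
      rw [e2]
      linarith
    rw [qb_not (by simp [h2, h3]), zero_sub]
    exact (r.bd s).trans hC
  ccl := by
    intro y hy hyx ε hε
    filter_upwards [g.rows hE, ev_const_le W.B' hε (Kq W)] with n hr hC k l l' hl hl' hc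
    have r := hr k l l' hl hl'
    refine r.loose g fun s hs => ?_
    by_cases h1 : s = 1
    · subst h1
      rw [qb_mem (by decide)]
      have e : W.crd n (W.rep n l k) (W.rep n l' k) 1 = cH W 1 n k l' - cH W 1 n k l := by
        have := r.loc.g1
        have e2 : hW W n (W.rep n l k) (W.rep n l' k) 1 =
          W.crd n (W.rep n l k) (W.rep n l' k) 1 := rfl
        unfold cH
        linarith
      rw [e]
      exact hc.trans (Real.rpow_le_rpow_of_exponent_ge (W.B'.pos n) (W.B'.lt n).le (by linarith))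
    · rw [qb_not (by simp [h1]), zero_sub]
      exact (r.bd s).trans hC

/-- **the rows of the spread box** -/
theorem QWin.srow (h7 : (7 : Fin 18) ∈ Dr) : SRow W.B' (W.cfg E') x 2 (qb (Sq Dr) x)
    (fun y => Function.update (qb (Sq Dr) x) 3 y) (cH W 2) (cH W 3) (cS W κ Dr) (cF W Dr 10)
    ((9 : Fin 18) ∈ Dr) := by
  have m2 : (2 : Fin 18) ∈ Sq Dr := by unfold Sq; split_ifs <;> decide
  have m14 : (14 : Fin 18) ∈ Sq Dr := by unfold Sq; split_ifs <;> decide
  have m15 : (9 : Fin 18) ∈ Dr → (15 : Fin 18) ∈ Sq Dr := fun h => by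
    unfold Sq; rw [if_pos h]; decide
  refine ⟨?_, ?_⟩
  · intro ε hε
    filter_upwards [g.rows hE, ev_const_le W.B' hε (Cq W)] with n hr hC k l l' hl hl' hlo
    have r := hr k l l' hl hl'
    have L := r.loc.mono (g.eta (n := n) hε)
    have c := r.crd g hlo
    have z0 := r.z0.trans (g.eta hε)
    have c2 := c 2 (by decide)
    rw [qb_mem m2] at c2
    have c2' := g.eta' c2
    have c14 := c 14 (by decide)
    rw [qb_mem m14] at c14
    have c14' : |fW W Dr n (W.rep n l k) (W.rep n l' k) 10| ≤ 67 * (Kq W) ^ 7 * W.B'.d n ^ (x - ε) :=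
      (fW_le _ _ _ _).trans (g.eta' c14)
    have w3 : fW W Dr n (W.s₀ n) (W.rep n l k) 3 = 0 := fW_dr h7
    obtain ⟨p1, p2⟩ := L.sbox z0 c2' w3
    have q1 := L.pos2 z0 c2'
    have q3 := p1 c14'
    have e0 : x - 2 * ε = (x - ε) - ε := by ring
    rw [e0]
    refine ⟨?_, ?_, fun h9 => ?_⟩
    · rw [abs_sub_comm]
      exact g.fin (c := 2) (j := 2) (by norm_num) (by norm_num) (by norm_num) hC q1
    · rw [abs_sub_comm]
      exact g.fin (c := 472) (j := 8) (by norm_num) (by norm_num) (by norm_num) hC q3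
    · have c15 := c 15 (by decide)
      rw [qb_mem (m15 h9)] at c15
      have c15' : |fW W Dr n (W.rep n l k) (W.rep n l' k) 11| ≤
          67 * (Kq W) ^ 7 * W.B'.d n ^ (x - ε) := (fW_le _ _ _ _).trans (g.eta' c15)
      have w5 : fW W Dr n (W.s₀ n) (W.rep n l k) 5 = 0 := fW_dr h9
      have q4 := L.ps q3 (p2 w5 c15')
      rw [abs_sub_comm]
      refine g.fin (c := 1416) (j := 9) (by norm_num) (by norm_num) (by norm_num) hC
        (q4.trans (le_of_eq ?_))
      ring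
  · intro y hy hyx ε hε
    filter_upwards [g.rows hE, ev_const_le W.B' hε (Kq W), ev_const_le W.B' hε (Cq W)] with
      n hr hC hC' k l l' hl hl' hlo hb
    have r := hr k l l' hl hl'
    have hK := g.Kq1
    have L := r.loc
    have c := r.crd g hlo
    have c2 := c 2 (by decide)
    rw [qb_mem m2] at c2
    have z0 := r.z0.trans (g.eta hε)
    have i3 := L.inv3 z0 (g.eta' c2) hb
    have e0 : ∀ t : ℝ, t - 2 * ε = (t - ε) - ε := fun t => by ring
    have hρ : ∀ t : ℝ, 0 < W.B'.d n ^ t := fun t => Real.rpow_pos_of_pos (W.B'.pos n) _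
    refine r.loose g fun s hs => ?_
    by_cases h3 : s = 3
    · subst h3
      rw [Function.update_self, e0]
      refine g.fin (c := 4) (j := 2) (by norm_num) (by norm_num) (by norm_num) hC' ?_
      refine i3.trans ?_
      have f1 : W.B'.d n ^ y ≤ 67 * (Kq W) ^ 7 * W.B'.d n ^ (y - ε) := by
        have f2 : W.B'.d n ^ y ≤ W.B'.d n ^ (y - ε) :=
          Real.rpow_le_rpow_of_exponent_ge (W.B'.pos n) (W.B'.lt n).le (by linarith)
        refine f2.trans (le_mul_of_one_le_left (hρ _).le ?_)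
        have : 1 ≤ (Kq W) ^ 7 := one_le_pow₀ hK
        linarith
      have f3 : 67 * (Kq W) ^ 7 * W.B'.d n ^ (x - ε) ≤ 67 * (Kq W) ^ 7 * W.B'.d n ^ (y - ε) :=
        mul_le_mul_of_nonneg_left (Real.rpow_le_rpow_of_exponent_ge (W.B'.pos n) (W.B'.lt n).le
          (by linarith)) (by positivity)
      set η := 67 * (Kq W) ^ 7 * W.B'.d n ^ (y - ε) with hη
      have η0 : 0 ≤ η := by have := hρ (y - ε); positivity
      have f4 := mul_le_mul_of_nonneg_left f3 (show 0 ≤ 3 * (Kq W) ^ 2 by positivity)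
      have f5 : η ≤ (Kq W) ^ 2 * η := le_mul_of_one_le_left η0 (one_le_pow₀ hK)
      have e : 4 * (Kq W) ^ 2 * η = 4 * ((Kq W) ^ 2 * η) := by ring
      rw [e]
      linarith
    · rw [Function.update_of_ne h3]
      by_cases hsS : s ∈ Sq Dr
      · have := c s hs
        refine this.trans ?_
        exact Real.rpow_le_rpow_of_exponent_ge (W.B'.pos n) (W.B'.lt n).le (by linarith)
      · rw [qb_not hsS, zero_sub]
        refine ((r.bd s).trans hC).trans ?_
        exact Real.rpow_le_rpow_of_exponent_ge (W.B'.pos n) (W.B'.lt n).le (by linarith)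

/-- **the rows of the evolution** -/
theorem QWin.qevo : QEvo2 W.B' (W.cfg E') x (3 * (Kq W) ^ 2) (cH W 2) (cH W 3) (cH W 1)
    (cS W κ Dr) (cF W Dr 10) (cF W Dr 7) (cZ W κ Dr) (cF W Dr 12) (cF W Dr 9) κ := by
  have zb : ∀ᶠ n in (U : Filter ℕ), ∀ k ∈ (W.cfg E' n).Z, ∀ k' ∈ (W.cfg E' n).Z,
      |(W.cfg E' n).z k' - (W.cfg E' n).z k| ≤ Kq W := by
    filter_upwards [hE, g.ww.ok.ev_good] with n ⟨h1, h2⟩ gd k hk k' hk'
    rw [h2] at hk hk' ⊢
    have hz : ∀ k ∈ (W.cfg0 n (E' n)).Z, |(W.cfg0 n (E' n)).z k| ≤ MW W := by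
      intro k hk
      obtain ⟨y, hy, rfl⟩ := mem_image.1 hk
      exact crd_MW g.ww gd gd.s0 (W.zrep_spec (h1 hy)).1 _
    have := abs_sub ((W.cfg0 n (E' n)).z k') ((W.cfg0 n (E' n)).z k)
    have := hz k hk
    have := hz k' hk'
    unfold Kq
    linarith
  have hK := g.Kq1
  have hKM : Kq W ≤ 3 * (Kq W) ^ 2 := by nlinarith
  refine ⟨?_, ?_, ?_⟩
  · filter_upwards [zb] with n h k hk k' hk'
    exact (h k hk k' hk').trans hKM
  · filter_upwards [g.bds hE] with n h k l hl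
    obtain ⟨h1, h2, h3, h4⟩ := h k l hl
    exact ⟨(h2 12).trans hKM, (h2 9).trans hKM⟩
  · intro ε hε
    filter_upwards [hE, g.coc, zb, ev_const_le W.B' hε (Cq W)] with
      n ⟨h1, h2⟩ ⟨gd, hL⟩ hz hC k k' l hl hl'
    have hkZ : ∀ {k l : ℕ}, (l, k) ∈ (W.cfg E' n).I → k ∈ (W.cfg E' n).Z := by
      intro k l hkl
      rw [h2] at hkl ⊢
      obtain ⟨y, hy, -, rfl⟩ := Wnd.mem_I.1 hkl
      exact mem_image_of_mem _ hy
    have hu := hz k (hkZ hl) k' (hkZ hl')
    rw [h2] at hl hl' hu ⊢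
    obtain ⟨a1, a2, a3⟩ := Wnd.rep_of_mem h1 hl
    obtain ⟨b1, b2, b3⟩ := Wnd.rep_of_mem h1 hl'
    have L := hL _ gd.s0 _ a1 _ b1
    have hz0 := g.ww.own_zero gd h1 hl hl' (t := x) (by rw [g.etop])
    have i0 : |hW W n (W.rep n l k) (W.rep n l k') 0 -
        ((W.cfg0 n (E' n)).z k' - (W.cfg0 n (E' n)).z k)| ≤ 67 * (Kq W) ^ 7 * W.B'.d n ^ x := by
      refine hz0.trans ?_
      rw [g.ekap, div_one]
      have k1 := g.K0_MW
      have k2 : 2 * W.K0 * W.B'.d n ^ x ≤ Kq W * W.B'.d n ^ x := by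
        refine mul_le_mul_of_nonneg_right ?_ (Real.rpow_pos_of_pos (W.B'.pos n) _).le
        unfold Kq; linarith
      refine k2.trans (mul_le_mul_of_nonneg_right ?_ (Real.rpow_pos_of_pos (W.B'.pos n) _).le)
      have : Kq W ≤ (Kq W) ^ 7 := by
        calc Kq W = (Kq W) ^ 1 := (pow_one _).symm
          _ ≤ _ := pow_le_pow_right₀ hK (by norm_num)
      have : 0 ≤ (Kq W) ^ 7 := by positivity
      linarith
    have own : ∀ s : Fin 18, s ≠ 0 → |W.crd n (W.rep n l k) (W.rep n l k') s| ≤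
        67 * (Kq W) ^ 7 * W.B'.d n ^ x := fun s hs =>
      (own_MW g.ww gd a1 b1 (a2.trans b2.symm) (s := s) (t := x)
        (by rw [g.eS, mem_singleton]; exact hs) (by rw [g.etop])).trans (g.MW_le67 x)
    have nz : ∀ q : Fin 14, (Fin.natAdd 4 q : Fin 18) ≠ 0 := by decide
    obtain ⟨e1, e2, e3, e4, e5, e6, e7, e8, e9⟩ := L.evo hu i0 (own 1 (by decide))
      (own 2 (by decide)) (own 3 (by decide)) fun q _ => (fW_le _ _ _ _).trans (own _ (nz q))
    have F : ∀ {X : ℝ}, X ≤ 5000 * (Kq W) ^ 12 * (67 * (Kq W) ^ 7 * W.B'.d n ^ x) →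
        X ≤ W.B'.d n ^ (x - ε) := fun h =>
      g.fin (c := 5000) (j := 12) (by norm_num) (by norm_num) (by norm_num) hC h
    exact ⟨F e1, F e2, F e3, F e4, F e5, F e6, F e7, F e8, F e9⟩

end rows

/-! ### the numbers -/

/-- legal boxes: decidable condition -/
def LQ (Dr Q Q' : Finset (Fin 18)) : Prop :=
  ∀ k, k ∉ Dr → ∀ l ∈ mlW k, (∀ s ∈ l, s ∉ Dr) → (k = 0 ∨ k ∈ Q') → ∃ s ∈ l, s = 0 ∨ s ∈ Q

instance (Dr Q Q' : Finset (Fin 18)) : Decidable (LQ Dr Q Q') := by unfold LQ; infer_instance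

theorem QWin.legQ (g : QWin W κ lam f Dr x) {Q Q' : Finset (Fin 18)} (hd : LQ Dr Q Q')
    {p : Fin 18 → ℝ} (h0 : ∀ s, 0 ≤ p s) (h1 : ∀ s, p s ≤ x) (hQ : ∀ s ∈ Q, p s = x)
    (hQ' : ∀ s, s ∉ Q' → p s = 0) : p ∈ W.legW := by
  refine g.leg p h0 h1 fun k hk l hl hs => ?_
  have hx := g.x0
  have v0 : ∀ s, 0 ≤ cut {0} p (fun _ => x) s := fun s => by
    by_cases hs : s ∈ ({0} : Finset (Fin 18))
    · rw [cut_of_mem hs]; exact hx.le
    · rw [cut_of_notMem hs]; exact h0 s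
  have vx : ∀ s, cut {0} p (fun _ => x) s ≤ x := fun s => by
    by_cases hs : s ∈ ({0} : Finset (Fin 18))
    · rw [cut_of_mem hs]
    · rw [cut_of_notMem hs]; exact h1 s
  have sum0 : ∀ l : List (Fin 18), 0 ≤ (l.map (cut {0} p (fun _ => x))).sum := fun l =>
    List.sum_nonneg fun y hy => by
      obtain ⟨s, -, rfl⟩ := List.mem_map.1 hy
      exact v0 s
  by_cases hk' : k = 0 ∨ k ∈ Q'
  · obtain ⟨s, hs1, hs2⟩ := hd k hk l hl hs hk'
    have e : cut {0} p (fun _ => x) s = x := by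
      rcases hs2 with h | h
      · subst h; exact cut_of_mem (mem_singleton_self 0)
      · by_cases h0 : s ∈ ({0} : Finset (Fin 18))
        · exact cut_of_mem h0
        · rw [cut_of_notMem h0]; exact hQ s h
    have h2 : cut {0} p (fun _ => x) s ≤ (l.map (cut {0} p (fun _ => x))).sum := by
      refine List.single_le_sum ?_ _ (List.mem_map_of_mem hs1)
      intro y hy
      obtain ⟨s, -, rfl⟩ := List.mem_map.1 hy
      exact v0 s
    exact (vx k).trans (e.ge.trans h2)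
  · push Not at hk'
    have e : cut {0} p (fun _ => x) k = 0 := by
      rw [cut_of_notMem (by rw [mem_singleton]; exact hk'.1)]
      exact hQ' k hk'.2
    rw [e]
    exact sum0 l

theorem QWin.leg_qb (g : QWin W κ lam f Dr x) {Q : Finset (Fin 18)} (hd : LQ Dr Q Q) :
    qb Q x ∈ W.legW :=
  g.legQ hd (fun s => by unfold qb; split_ifs; exacts [g.x0.le, le_rfl])
    (fun s => by unfold qb; split_ifs; exacts [le_rfl, g.x0.le]) (fun s hs => if_pos hs)
    (fun s hs => if_neg hs)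

theorem LQ_all (hdr : Dr = {4, 5, 6, 8} ∨ Dr = {4, 5, 6, 7, 8} ∨ Dr = {4, 5, 6, 7, 8, 9})
    {Q Q' : Finset (Fin 18)} (h : LQ {4, 5, 6, 8} Q Q') : LQ Dr Q Q' := by
  have s1 : ∀ s : Fin 18, s ∉ ({4, 5, 6, 7, 8, 9} : Finset (Fin 18)) →
    s ∉ ({4, 5, 6, 8} : Finset (Fin 18)) := by decide
  have s2 : ∀ s : Fin 18, s ∉ ({4, 5, 6, 7, 8} : Finset (Fin 18)) →
    s ∉ ({4, 5, 6, 8} : Finset (Fin 18)) := by decide
  rcases hdr with h1 | h1 | h1
  · rw [h1]; exact h
  · rw [h1]; exact fun k hk l hl hs hk' => h k (s2 k hk) l hl (fun s hs' => s2 s (hs s hs')) hk'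
  · rw [h1]; exact fun k hk l hl hs hk' => h k (s1 k hk) l hl (fun s hs' => s1 s (hs s hs')) hk'

/-- **the numbers in the window** -/
theorem QWin.qprof (g : QWin W κ lam f Dr x) (N : QNu W.nu Dr x m) :
    QProf W.legW W.nu x m (0 : Fin 18 → ℝ) (qb {2, 3} x) (qb {2, 3, 14, 15} x)
      (qb {1, 11, 12} x) (qb {1, 2, 3, 11, 12, 14, 15} x) (qb {2, 3, 14, 15, 16} x)
      (qb {1, 11, 12, 16} x) (fun y => qb {1} y) where
  m0 := N.m0
  l0 := g.legQ (Q := ∅) (Q' := ∅) (LQ_all g.dr (by decide)) (fun s => le_rfl)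
    (fun s => g.x0.le) (fun s hs => absurd hs (by simp)) (fun s _ => rfl)
  lA := g.leg_qb (LQ_all g.dr (by decide))
  lp := g.leg_qb (LQ_all g.dr (by decide))
  lv := g.leg_qb (LQ_all g.dr (by decide))
  lpv := g.leg_qb (LQ_all g.dr (by decide))
  lpP := g.leg_qb (LQ_all g.dr (by decide))
  lvP := g.leg_qb (LQ_all g.dr (by decide))
  lc := fun y hy hyx => g.legQ (Q := ∅) (Q' := {1}) (LQ_all g.dr (by decide))
    (fun s => by unfold qb; split_ifs; exacts [hy, le_rfl])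
    (fun s => by unfold qb; split_ifs; exacts [hyx, g.x0.le]) (fun s hs => absurd hs (by simp))
    (fun s hs => if_neg hs)
  por := by
    intro j
    have h : ∀ j : Fin 18,
        ((j ∈ ({1, 2, 3, 11, 12, 14, 15} : Finset (Fin 18)) ↔ j ∈ ({2, 3, 14, 15} : Finset (Fin 18))) ∨
        (j ∈ ({1, 2, 3, 11, 12, 14, 15} : Finset (Fin 18)) ↔ j ∈ ({1, 11, 12} : Finset (Fin 18)))) := by
      decide
    rcases h j with h | h
    · left; unfold qb; simp only [h]
    · right; unfold qb; simp only [h]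
  pge := by
    intro j
    have h : ∀ j : Fin 18, j ∈ ({2, 3, 14, 15} : Finset (Fin 18)) →
      j ∈ ({2, 3, 14, 15, 16} : Finset (Fin 18)) := by decide
    by_cases hj : j ∈ ({2, 3, 14, 15} : Finset (Fin 18))
    · rw [qb_mem hj, qb_mem (h j hj)]
    · rw [qb_not hj]; unfold qb; split_ifs; exacts [g.x0.le, le_rfl]
  vge := by
    intro j
    have h : ∀ j : Fin 18, j ∈ ({1, 11, 12} : Finset (Fin 18)) →
      j ∈ ({1, 11, 12, 16} : Finset (Fin 18)) := by decide
    by_cases hj : j ∈ ({1, 11, 12} : Finset (Fin 18))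
    · rw [qb_mem hj, qb_mem (h j hj)]
    · rw [qb_not hj]; unfold qb; split_ifs; exacts [g.x0.le, le_rfl]
  H1 := N.n1
  H2 := N.n2
  H3 := N.n3
  H4 := N.n4
  H5 := N.n5

/-- **the numbers of the spread box** -/
theorem QWin.sprof (g : QWin W κ lam f Dr x) (N : QNu W.nu Dr x m) (h7 : (7 : Fin 18) ∈ Dr) :
    SProf W.legW W.nu x m (qb (Sq Dr) x) (fun y => Function.update (qb (Sq Dr) x) 3 y) := by
  have h3 : (3 : Fin 18) ∉ Sq Dr := by unfold Sq; split_ifs <;> decide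
  have hL : LQ Dr (Sq Dr) (insert 3 (Sq Dr)) := by
    rcases g.dr with h | h | h
    · rw [h] at h7; exact absurd h7 (by decide)
    · rw [h]; decide
    · rw [h]; decide
  refine ⟨?_, fun y hy hyx => ?_, N.n6 h7⟩
  · refine g.legQ (Q := Sq Dr) (Q' := insert 3 (Sq Dr)) hL
      (fun s => by unfold qb; split_ifs; exacts [g.x0.le, le_rfl])
      (fun s => by unfold qb; split_ifs; exacts [le_rfl, g.x0.le]) (fun s hs => if_pos hs)
      (fun s hs => if_neg fun h => hs (mem_insert_of_mem h))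
  · refine g.legQ hL (fun s => ?_) (fun s => ?_) (fun s hs => ?_) (fun s hs => ?_)
    · by_cases h : s = 3
      · subst h; rw [Function.update_self]; exact hy
      · rw [Function.update_of_ne h]; unfold qb; split_ifs; exacts [g.x0.le, le_rfl]
    · by_cases h : s = 3
      · subst h; rw [Function.update_self]; exact hyx
      · rw [Function.update_of_ne h]; unfold qb; split_ifs; exacts [le_rfl, g.x0.le]
    · have h : s ≠ 3 := fun h => h3 (h ▸ hs)
      rw [Function.update_of_ne h, qb_mem hs]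
    · have h : s ≠ 3 := fun h => hs (h ▸ mem_insert_self _ _)
      rw [Function.update_of_ne h, qb_not fun h' => hs (mem_insert_of_mem h')]

end Crest.Agent.R136.Qd329
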