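import Crest.Agent.R136.Qd16_329

/-!
# R136: the bilinear rigidity (helper329), part 17: **`quad` in the window**

`QWin.quad` : in a window of `quad` with the numbers `QNu`, a `ρ^ε`-part of every honest set of
incidences satisfies `QuadRel`: an own gauge `j` on the slots `BB, AB, AA` (`q = 3, 5, 6`) explains
the slots `q = 3, 5, 6, 7, .., 12` of all pairs up to `ρ^(x-ε)`.
-/

set_option autoImplicit false
set_option linter.unusedSectionVars false
set_option linter.unusedVariables false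

open Filter Topology

namespace Crest.Agent.R136.Qd329

open Finset Crest.Agent.R136.NetW191 Crest.Agent.R136.Net191 Crest.Agent.R136.Qg926
open Crest.Agent.R136.EvW938 Crest.Agent.R136.RowW619 Crest.Agent.R136.Gf356
open Crest.Agent.R138.Ex926 (Base U)

variable {ι : ℕ → Type*} [∀ n, DecidableEq (ι n)] {W : Wnd 18 ι} {κ : ℕ → ℝ}
  {lam : ℕ → Fin 18 → ℝ} {f : ∀ n, ι n → FW} {Dr : Finset (Fin 18)} {x m : ℝ}

/-- **relation of all pairs**: own gauge `j` on the slots `3, 5, 6` (zero on the dropped slots) -/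
def QuadRel (W : Wnd 18 ι) (κ : ℕ → ℝ) (lam : ℕ → Fin 18 → ℝ) (f : ∀ n, ι n → FW)
    (Dr : Finset (Fin 18)) (n : ℕ) (x ε : ℝ) (G' : Finset (ι n)) : Prop :=
  ∃ j : ι n → Fin 14 → ℝ,
    (∀ y q, q ∉ ({3, 5, 6} : Finset (Fin 14)) ∨ (Fin.natAdd 4 q : Fin 18) ∈ Dr → j y q = 0) ∧
    (∀ y ∈ G', ∀ q, |j y q| ≤ W.B'.d n ^ (-ε) * sd W lam n (Fin.natAdd 4 q)) ∧
    ∀ y ∈ G', ∀ y' ∈ G', ∀ q ∈ ({3, 5, 6, 7, 8, 9, 10, 11, 12} : Finset (Fin 14)),
      (Fin.natAdd 4 q : Fin 18) ∉ Dr →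
      |coW (κ n) (f n y) (f n y') (Fin.natAdd 4 q) -
        (j y' q - tr (κ n) (frm (coW (κ n) (f n y) (f n y'))) (j y) q)| ≤
        W.B'.d n ^ (x - ε) * sd W lam n (Fin.natAdd 4 q)

theorem QuadRel.mono {n : ℕ} {ε : ℝ} {G G' : Finset (ι n)} (h : G' ⊆ G)
    (hG : QuadRel W κ lam f Dr n x ε G) : QuadRel W κ lam f Dr n x ε G' := by
  obtain ⟨j, h1, h2, h3⟩ := hG
  exact ⟨j, h1, fun y hy => h2 y (h hy), fun y hy y' hy' => h3 y (h hy) y' (h hy')⟩

theorem QuadRel.mono_eps {n : ℕ} {ε ε' : ℝ} {G : Finset (ι n)} (hsd : ∀ s, 0 ≤ sd W lam n s)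
    (h : ε ≤ ε') (hG : QuadRel W κ lam f Dr n x ε G) : QuadRel W κ lam f Dr n x ε' G := by
  obtain ⟨j, h1, h2, h3⟩ := hG
  have e1 : W.B'.d n ^ (x - ε) ≤ W.B'.d n ^ (x - ε') :=
    Real.rpow_le_rpow_of_exponent_ge (W.B'.pos n) (W.B'.lt n).le (by linarith)
  have e2 : W.B'.d n ^ (-ε) ≤ W.B'.d n ^ (-ε') :=
    Real.rpow_le_rpow_of_exponent_ge (W.B'.pos n) (W.B'.lt n).le (by linarith)
  exact ⟨j, h1, fun y hy q => (h2 y hy q).trans (mul_le_mul_of_nonneg_right e2 (hsd _)),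
    fun y hy y' hy' q hq hq' => (h3 y hy y' hy' q hq hq').trans
      (mul_le_mul_of_nonneg_right e1 (hsd _))⟩

/-- the arithmetic of the constants -/
theorem fin_num {K Λ η : ℝ} (hK : 1 ≤ K) (hΛ : 1 ≤ Λ) (hη : 0 ≤ η) :
    K + 470 * K ^ 7 * (3 * K * Λ) ≤ 2000 * K ^ 8 * Λ ∧
    η + (2 * η + 470 * K ^ 7 * η * (2000 * K ^ 8 * Λ) + (1 + 2 * K) * (20 * K ^ 4 * (Λ * η))) +
      470 * K ^ 7 * (2 * η + 470 * K ^ 7 * η * (2000 * K ^ 8 * Λ) +
        (1 + 2 * K) * (20 * K ^ 4 * (Λ * η))) ≤ 10 ^ 9 * K ^ 22 * (Λ * η) := by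
  have K0 : 0 ≤ K := by linarith
  set y := Λ * η with hy
  have hηy : η ≤ y := le_mul_of_one_le_left hη hΛ
  have y0 : 0 ≤ y := hη.trans hηy
  have pw : ∀ {i j : ℕ}, i ≤ j → K ^ i ≤ K ^ j := fun h => pow_le_pow_right₀ hK h
  constructor
  · have h1 : K ≤ K ^ 8 := by
      calc K = K ^ 1 := (pow_one K).symm
        _ ≤ _ := pw (by norm_num)
    have h2 : K ^ 8 ≤ K ^ 8 * Λ := le_mul_of_one_le_right (by positivity) hΛ
    have e : 470 * K ^ 7 * (3 * K * Λ) = 1410 * (K ^ 8 * Λ) := by ring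
    rw [e]
    have e2 : 2000 * K ^ 8 * Λ = 2000 * (K ^ 8 * Λ) := by ring
    rw [e2]
    linarith
  · have hB : 2 * η + 470 * K ^ 7 * η * (2000 * K ^ 8 * Λ) + (1 + 2 * K) * (20 * K ^ 4 * y) ≤
        940062 * (K ^ 15 * y) := by
      have e1 : 470 * K ^ 7 * η * (2000 * K ^ 8 * Λ) = 940000 * (K ^ 15 * y) := by
        rw [hy]; ring
      have e2 : (1 + 2 * K) * (20 * K ^ 4 * y) = 20 * (K ^ 4 * y) + 40 * (K ^ 5 * y) := by ring
      rw [e1, e2]
      have k1 : y ≤ K ^ 15 * y := le_mul_of_one_le_left y0 (one_le_pow₀ hK)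
      have k2 : K ^ 4 * y ≤ K ^ 15 * y := mul_le_mul_of_nonneg_right (pw (by norm_num)) y0
      have k3 : K ^ 5 * y ≤ K ^ 15 * y := mul_le_mul_of_nonneg_right (pw (by norm_num)) y0
      linarith
    set b := 2 * η + 470 * K ^ 7 * η * (2000 * K ^ 8 * Λ) + (1 + 2 * K) * (20 * K ^ 4 * y) with hb
    have h3 : 470 * K ^ 7 * b ≤ 470 * K ^ 7 * (940062 * (K ^ 15 * y)) :=
      mul_le_mul_of_nonneg_left hB (by positivity)
    have e3 : 470 * K ^ 7 * (940062 * (K ^ 15 * y)) = 441829140 * (K ^ 22 * y) := by ring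
    rw [e3] at h3
    have k1 : y ≤ K ^ 22 * y := le_mul_of_one_le_left y0 (one_le_pow₀ hK)
    have k2 : K ^ 15 * y ≤ K ^ 22 * y := mul_le_mul_of_nonneg_right (pw (by norm_num)) y0
    have e4 : 10 ^ 9 * K ^ 22 * y = 1000000000 * (K ^ 22 * y) := by ring
    rw [e4]
    have k0 : 0 ≤ K ^ 22 * y := by positivity
    linarith

theorem Jg_le (D : Fin 14 → ℝ) (q : Fin 14) : |Jg D q| ≤ |D q| := by
  unfold Jg; split_ifs
  · exact le_rfl
  · rw [abs_zero]; exact abs_nonneg _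

/-- the substitution of a flag without dropped components, raw against normalised -/
theorem QWin.raw_tr (g : QWin W κ lam f Dr x) (n : ℕ) {J : Fin 14 → ℝ}
    (hJ : ∀ q, (Fin.natAdd 4 q : Fin 18) ∈ Dr → J q = 0) (c : Fin 18 → ℝ) {q : Fin 14}
    (hq : (Fin.natAdd 4 q : Fin 18) ∉ Dr) :
    tr (κ n) (frm fun s => un W lam n s * c s) (fun q => un W lam n (Fin.natAdd 4 q) * J q) q =
      un W lam n (Fin.natAdd 4 q) * tr (κ n) (frm c) J q := by
  set b : Fin 18 → ℝ := Fin.append (m := 4) (n := 14) (fun _ => 0) J with hb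
  have eb : ∀ q : Fin 14, b (Fin.natAdd 4 q) = J q := fun q => Fin.append_right _ _ _
  have e1 : (fun q => un W lam n (Fin.natAdd 4 q) * J q) = flg fun s => un W lam n s * b s := by
    funext q'
    change _ = un W lam n (Fin.natAdd 4 q') * b (Fin.natAdd 4 q')
    rw [eb]
  rw [e1, tr_norm g.ww, tr_tms, eb]
  congr 2
  refine congrArg List.sum (List.map_congr_left fun t ht => ?_)
  unfold tmN Tm.ev
  rw [eb]
  by_cases hs : (Fin.natAdd 4 t.s : Fin 18) ∈ Dr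
  · rw [hJ _ hs, mul_zero, mul_zero, mul_zero]
  · have hc1 : cfl W lam n t.idx (Fin.natAdd 4 q) = 1 := by
      refine g.cfl_one hq (by rw [mlW_right]; exact List.mem_map_of_mem ht) ?_ n
      intro s hs'
      simp only [Tm.idx, List.mem_append, List.mem_map, List.mem_singleton] at hs'
      rcases hs' with ⟨i, -, rfl⟩ | rfl
      · exact g.nfr i
      · exact hs
    rw [hc1]
    have : (t.hl.map (frm c)) = t.hl.map fun i => c (Fin.castAdd 14 i) := rfl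
    rw [this]
    ring

set_option maxHeartbeats 2000000 in
/-- **`quad` in the window** -/
theorem QWin.quad (g : QWin W κ lam f Dr x) (N : QNu W.nu Dr x m) {E : ∀ n, Finset (ι n)}
    {Mu : ℕ → ℝ} (hE : Wnd.EOk W E Mu) {ε : ℝ} (hε : 0 < ε) :
    ∀ᶠ n in (U : Filter ℕ), ∃ G' ⊆ E n, W.B'.d n ^ ε * ((E n).card : ℝ) ≤ (G'.card : ℝ) ∧
      QuadRel W κ lam f Dr n x ε G' := by
  obtain ⟨E', gg, hP, -, hM⟩ := Wnd.EOk.exists_model (σ := 1) (R := x) g.ww.ok hE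
    (fun _ _ _ => 0) (g₀ := fun n => (n : ℝ))
    (tendsto_natCast_atTop_atTop.mono_left Crest.Agent.R138.Ex926.U_le_atTop) g.dens
    zero_le_one le_rfl (by rw [g.etop]) (fun y h0 h1 => by rw [g.ww.kz]; exact g.frost y h0 h1)
  have hE2 : ∀ᶠ n in (U : Filter ℕ), E' n ⊆ W.Cl n ∧ W.cfg E' n = W.cfg0 n (E' n) := by
    filter_upwards [Wnd.ev_cfg g.ww.ok hE hP] with n ⟨g1, h1, h2, h3⟩
    exact ⟨(hP.sub n).trans h1, h3⟩
  have he : 0 < ε / 4 := by positivity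
  filter_upwards [quad_full2 hM one_pos g.x0 (g.qrow hE2) (g.qevo hE2) (g.qprof N)
    (fun h7 => g.srow hE2 h7) (fun h7 => g.sprof N h7) g.h97 he,
    Crest.Agent.R136.Wk323.lines_pull g.ww.ok hE hP g.dens he, hE2, g.coc,
    ev_const_le W.B' he (10 ^ 9 * (Kq W) ^ 22 * (67 * (Kq W) ^ 7)),
    ev_const_le W.B' he (2000 * (Kq W) ^ 8)] with n hq hpull ⟨h1, h2⟩ ⟨gd, hL⟩ hC1 hC2
  obtain ⟨k, hk, l1, l2, m1, m2, s0, β0, ζ0, Z0, P0, R0, b1, b2, b3, b4, b5, b6, b7, b8, b9, b10,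
    b11, b12, b13, L2, hL2, hcard, hrel⟩ := hq
  have hpos : ∀ t : ℝ, 0 < W.B'.d n ^ t := fun t => Real.rpow_pos_of_pos (W.B'.pos n) t
  have hK := g.Kq1
  have K0 : 0 ≤ Kq W := by linarith
  set Λ := W.B'.d n ^ (-(ε / 4)) with hΛd
  have hΛ : 1 ≤ Λ := by
    rw [hΛd, ← Real.rpow_zero (W.B'.d n)]
    exact Real.rpow_le_rpow_of_exponent_ge (W.B'.pos n) (W.B'.lt n).le (by linarith)
  have hΛ0 : 0 ≤ Λ := by linarith
  set η := 67 * (Kq W) ^ 7 * W.B'.d n ^ (x - ε / 4) with hη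
  have η0 : 0 ≤ η := by have := hpos (x - ε / 4); positivity
  have toη : ∀ {X : ℝ}, X ≤ W.B'.d n ^ (x - ε / 4) → X ≤ η := fun h => g.eta' h
  have ηmono : 67 * (Kq W) ^ 7 * W.B'.d n ^ x ≤ η := g.eta he
  have nz : ∀ q : Fin 14, (Fin.natAdd 4 q : Fin 18) ≠ 0 := by decide
  rw [h2] at hL2 hcard hk
  refine ⟨(E' n).filter fun i => W.lc n i ∈ L2, (filter_subset _ _).trans (hP.sub n), ?_, ?_⟩
  · have hsub : L2 ⊆ (W.cfg E' n).L := by
      rw [h2]; exact fun l hl => (RCfg.mem_slice.1 (hL2 hl)).1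
    have := hpull L2 hsub (by rw [h2]; exact hcard)
    rwa [show 4 * (ε / 4) = ε by ring] at this
  -- the static flag
  set e3 : ℝ := if (7 : Fin 18) ∈ Dr then 0 else m1 / 2 with he3
  set e5 : ℝ := if (9 : Fin 18) ∈ Dr then 0 else l1 with he5
  set z := (W.cfg0 n (E' n)).z k with hz
  set EE := Eq0 e3 e5 (l2 / 2) s0 β0 ζ0 Z0 P0 R0 z with hEE
  have zE : Fz EE := Eq0_fz
  have d3 : |m1 - 2 * e3| ≤ η := by
    rw [he3]
    split_ifs with h7
    · rw [mul_zero, sub_zero]; exact toη (b12 h7)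
    · have : m1 - 2 * (m1 / 2) = 0 := by ring
      rw [this, abs_zero]; exact η0
  have d5 : |l1 - e5| ≤ η := by
    rw [he5]
    split_ifs with h9
    · rw [sub_zero]; exact toη (b13 h9)
    · rw [sub_self, abs_zero]; exact η0
  have be3 : |e3| ≤ Λ := by
    rw [he3]
    split_ifs
    · rw [abs_zero]; exact hΛ0
    · rw [abs_div, abs_two]; linarith [abs_nonneg m1]
  have be5 : |e5| ≤ Λ := by
    rw [he5]
    split_ifs
    · rw [abs_zero]; exact hΛ0
    · exact b1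
  have be6 : |l2 / 2| ≤ Λ := by rw [abs_div, abs_two]; linarith [abs_nonneg l2]
  have hzK : |z| ≤ Kq W := by
    obtain ⟨y, hy, rfl⟩ := mem_image.1 hk
    exact (crd_MW g.ww gd gd.s0 (W.zrep_spec (h1 hy)).1 _).trans g.MW_Kq
  have bE := Eq0_bd hK hΛ0 be3 be5 be6 b5 b6 b7 b8 b9 b10 hzK
  rw [← hEE] at bE
  obtain ⟨num1, num2⟩ := fin_num hK hΛ η0
  set δ := 2 * η + 470 * (Kq W) ^ 7 * η * (2000 * (Kq W) ^ 8 * Λ) +
    (1 + 2 * Kq W) * (20 * (Kq W) ^ 4 * (Λ * η)) with hδ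
  -- difference to the static flag, any incidence of the class
  have big : ∀ y ∈ W.Cl n, ∀ q,
      |(fW W Dr n (W.s₀ n) y - tr (κ n) (hW W n (W.s₀ n) y) EE) q| ≤ 2000 * (Kq W) ^ 8 * Λ := by
    intro y hy q
    have L := hL _ gd.s0 _ hy _ hy
    rw [Pi.sub_apply]
    have t1 := tr_small L.hκ hK (show 0 ≤ 3 * Kq W * Λ by positivity) L.bh bE q
    have t2 := L.bw q
    have t3 := abs_sub (fW W Dr n (W.s₀ n) y q) (tr (κ n) (hW W n (W.s₀ n) y) EE q)
    linarith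
  -- the static flag explains the slots `7 .. 12`
  have key : ∀ y ∈ (E' n).filter fun i => W.lc n i ∈ L2, y ∈ W.Cl n ∧ ∀ q, 7 ≤ q → q ≠ 13 →
      |fW W Dr n (W.s₀ n) y q - tr (κ n) (hW W n (W.s₀ n) y) EE q| ≤ δ := by
    intro y hy
    obtain ⟨hy1, hy2⟩ := mem_filter.1 hy
    have hyC := h1 hy1
    refine ⟨hyC, ?_⟩
    have hI : (W.lc n y, k) ∈ (W.cfg0 n (E' n)).I := (RCfg.mem_slice.1 (hL2 hy2)).2
    obtain ⟨a1, a2, a3⟩ := Wnd.rep_of_mem h1 hI
    obtain ⟨y0, hy0, hy01, hy02⟩ := Wnd.mem_I.1 hI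
    have r1 := W.zrep_spec (h1 hy0)
    rw [hy02] at r1
    set p := W.rep n (W.lc n y) k with hp
    have LA := (hL _ gd.s0 _ a1 _ hyC).mono ηmono
    have hzz : |hW W n (W.s₀ n) p 0 - z| ≤ η := by
      have ez : z = W.crd n (W.s₀ n) (W.zrep n k) 0 := by
        rw [hz]
        show W.crd n (W.s₀ n) (W.zrep n k) W.kz = _
        rw [g.ww.kz]
      have c0 := comp0 g.ww gd gd.s0 r1.1 a1
      have e : hW W n (W.s₀ n) p 0 - z = W.crd n (W.zrep n k) p 0 := by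
        rw [ez]
        change W.crd n (W.s₀ n) p 0 - _ = _
        rw [c0]; ring
      rw [e]
      have := lev_MW g.ww gd r1.1 a1 (r1.2.trans a3.symm) g.ww.h0 (t := x) (by rw [g.etop])
      exact (this.trans (g.MW_le67 x)).trans ηmono
    have fr := hrel _ hy2
    have fr' : FRel (κ n) l1 l2 m1 m2 s0 β0 ζ0 Z0 P0 R0 η (hW W n (W.s₀ n) p 2)
        (hW W n (W.s₀ n) p 3) (hW W n (W.s₀ n) p 1)
        (fW W Dr n (W.s₀ n) p 11 + 2 * κ n * hW W n (W.s₀ n) p 1 * fW W Dr n (W.s₀ n) p 10)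
        (fW W Dr n (W.s₀ n) p 10) (fW W Dr n (W.s₀ n) p 7)
        (fW W Dr n (W.s₀ n) p 8 + 2 * κ n * hW W n (W.s₀ n) p 1 * fW W Dr n (W.s₀ n) p 7)
        (fW W Dr n (W.s₀ n) p 12) (fW W Dr n (W.s₀ n) p 9) :=
      ⟨fr.rel.mono (toη le_rfl), fr.rΦ.trans (toη le_rfl), fr.rR.trans (toη le_rfl)⟩
    have hA := claimA LA.hκ hK hΛ η0 LA.bh hzz d3 d5 (toη b11)
      (show l2 = 2 * (l2 / 2) by ring) b7 b8 b10 fr'
    have own : ∀ s : Fin 18, s ≠ 0 → |W.crd n p y s| ≤ η := fun s hs =>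
      ((own_MW g.ww gd a1 hyC a2 (s := s) (t := x)
        (by rw [g.eS, mem_singleton]; exact hs) (by rw [g.etop])).trans (g.MW_le67 x)).trans ηmono
    intro q hq hq'
    have := claimB LA (u := hW W n p y 0) (LA.bh' 0) (by rw [sub_self, abs_zero]; exact η0)
      (own 1 (by decide)) (own 2 (by decide)) (own 3 (by decide))
      (fun q _ => (fW_le _ _ _ _).trans (own _ (nz q))) zE (big p a1) hA q hq hq'
    exact this
  -- the gauge
  refine ⟨fun y q => un W lam n (Fin.natAdd 4 q) *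
    Jg (fW W Dr n (W.s₀ n) y - tr (κ n) (hW W n (W.s₀ n) y) EE) q, ?_, ?_, ?_⟩
  · have hJD : ∀ y : ι n, ∀ q, q ∉ ({3, 5, 6} : Finset (Fin 14)) ∨ (Fin.natAdd 4 q : Fin 18) ∈ Dr →
        Jg (fW W Dr n (W.s₀ n) y - tr (κ n) (hW W n (W.s₀ n) y) EE) q = 0 := by
      intro y q hq
      by_cases hc : q = 3 ∨ q = 5 ∨ q = 6
      · have hqD : (Fin.natAdd 4 q : Fin 18) ∈ Dr := by
          rcases hq with h | h
          · exact absurd (by simpa using hc) h
          · exact h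
        unfold Jg
        rw [if_pos hc, Pi.sub_apply, fW_dr hqD]
        rcases hc with rfl | rfl | rfl
        · have h7 : (7 : Fin 18) ∈ Dr := hqD
          rw [zE.t3]
          have : EE 3 = e3 := rfl
          rw [this, he3, if_pos h7, sub_zero]
        · have h9 : (9 : Fin 18) ∈ Dr := hqD
          have h7 := g.h97 h9
          rw [zE.t5]
          have i1 : EE 3 = e3 := rfl
          have i2 : EE 5 = e5 := rfl
          rw [i1, i2, he3, he5, if_pos h7, if_pos h9]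
          ring
        · exact absurd hqD (g.nbig (by decide))
      · unfold Jg; rw [if_neg hc]
    intro y q hq
    beta_reduce
    rw [hJD y q hq, mul_zero]
  · intro y hy q
    beta_reduce
    obtain ⟨hyC, -⟩ := key y hy
    have hu : un W lam n (Fin.natAdd 4 q) = sd W lam n (Fin.natAdd 4 q) := by
      unfold un; rw [g.ekap, one_mul]
    have hs0 := g.ww.sd_pos n (Fin.natAdd 4 q)
    rw [hu, abs_mul, abs_of_pos hs0, mul_comm]
    refine mul_le_mul_of_nonneg_right ?_ hs0.le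
    refine ((Jg_le _ q).trans (big y hyC q)).trans ?_
    have := mul_le_mul_of_nonneg_right hC2 hΛ0
    refine this.trans ?_
    rw [hΛd, ← Real.rpow_add (W.B'.pos n)]
    exact Real.rpow_le_rpow_of_exponent_ge (W.B'.pos n) (W.B'.lt n).le (by linarith)
  · intro y hy y' hy' q hq hqD
    beta_reduce
    obtain ⟨hyC, hyk⟩ := key y hy
    obtain ⟨hyC', hyk'⟩ := key y' hy'
    have L := (hL _ gd.s0 _ hyC _ hyC').mono ηmono
    have hq13 : q ≠ 13 := by
      rintro rfl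
      exact absurd hq (by decide)
    have hpr := pair_rel L zE (g.fz _ _) hyk hyk' q hq13
    rw [fW_of hq13 hqD] at hpr
    have hJz : ∀ q, (Fin.natAdd 4 q : Fin 18) ∈ Dr →
        Jg (fW W Dr n (W.s₀ n) y - tr (κ n) (hW W n (W.s₀ n) y) EE) q = 0 := by
      intro q hqD
      by_cases hc : q = 3 ∨ q = 5 ∨ q = 6
      · unfold Jg
        rw [if_pos hc, Pi.sub_apply, fW_dr hqD]
        rcases hc with rfl | rfl | rfl
        · have h7 : (7 : Fin 18) ∈ Dr := hqD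
          rw [zE.t3]
          have : EE 3 = e3 := rfl
          rw [this, he3, if_pos h7, sub_zero]
        · have h9 : (9 : Fin 18) ∈ Dr := hqD
          have h7 := g.h97 h9
          rw [zE.t5]
          have i1 : EE 3 = e3 := rfl
          have i2 : EE 5 = e5 := rfl
          rw [i1, i2, he3, he5, if_pos h7, if_pos h9]
          ring
        · exact absurd hqD (g.nbig (by decide))
      · unfold Jg; rw [if_neg hc]
    have hraw := g.raw_tr n hJz (W.crd n y y') hqD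
    rw [g.ww.crd_fun gd hyC hyC'] at hraw
    rw [hraw, g.ww.crd_eq gd hyC hyC']
    have hs0 := g.ww.un_pos n (Fin.natAdd 4 q)
    have hu : un W lam n (Fin.natAdd 4 q) = sd W lam n (Fin.natAdd 4 q) := by
      unfold un; rw [g.ekap, one_mul]
    set u := un W lam n (Fin.natAdd 4 q) with hud
    have e : u * W.crd n y y' (Fin.natAdd 4 q) -
        (u * Jg (fW W Dr n (W.s₀ n) y' - tr (κ n) (hW W n (W.s₀ n) y') EE) q -
          u * tr (κ n) (frm (W.crd n y y'))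
            (Jg (fW W Dr n (W.s₀ n) y - tr (κ n) (hW W n (W.s₀ n) y) EE)) q) =
        u * (W.crd n y y' (Fin.natAdd 4 q) -
          (Jg (fW W Dr n (W.s₀ n) y' - tr (κ n) (hW W n (W.s₀ n) y') EE) q -
            tr (κ n) (hW W n y y')
              (Jg (fW W Dr n (W.s₀ n) y - tr (κ n) (hW W n (W.s₀ n) y) EE)) q)) := by
      unfold hW; ring
    rw [e, abs_mul, abs_of_pos hs0, ← hu, mul_comm]
    refine mul_le_mul_of_nonneg_right (hpr.trans ?_) hs0.le
    refine num2.trans ?_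
    have e2 : 10 ^ 9 * (Kq W) ^ 22 * (Λ * η) =
        (10 ^ 9 * (Kq W) ^ 22 * (67 * (Kq W) ^ 7)) * (Λ * W.B'.d n ^ (x - ε / 4)) := by
      rw [hη]; ring
    rw [e2]
    have h5 : 0 ≤ Λ * W.B'.d n ^ (x - ε / 4) := mul_nonneg hΛ0 (hpos _).le
    refine (mul_le_mul_of_nonneg_right hC1 h5).trans ?_
    rw [hΛd, ← Real.rpow_add (W.B'.pos n), ← Real.rpow_add (W.B'.pos n)]
    exact Real.rpow_le_rpow_of_exponent_ge (W.B'.pos n) (W.B'.lt n).le (by linarith)

end Crest.Agent.R136.Qd329
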