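import Mathlib

/-!
# R136: common neighbourhoods of triples (helper329), part 1

`triple_pigeon` : `L` = edges (with bounded multiplicity `W`) of a dense bipartite graph between the
cells `P` and `V`; if few triples of `V` are bad, some good triple has a common neighbourhood which
carries a positive part of `L`.
-/

set_option autoImplicit false

namespace Crest.Agent.R136.Qd329

open Finset

open Classical in
/-- **common neighbourhoods of triples** -/
theorem triple_pigeon {α : Type*} (L : Finset α) (pc vc : α → ℕ) (P V : Finset ℕ)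
    (hp : ∀ l ∈ L, pc l ∈ P) (hv : ∀ l ∈ L, vc l ∈ V) {W δ : ℝ} (hW : 0 < W) (hδ : 0 < δ)
    (fib : ∀ p v, ((L.filter fun l => pc l = p ∧ vc l = v).card : ℝ) ≤ W)
    (hL : L.Nonempty) (dens : δ * W * P.card * V.card ≤ L.card)
    (Bad : ℕ → ℕ → ℕ → Prop)
    (hbad : (((V ×ˢ V ×ˢ V).filter fun t => Bad t.1 t.2.1 t.2.2).card : ℝ) ≤
      δ ^ 3 / 16 * (V.card : ℝ) ^ 3) :
    ∃ v1 ∈ V, ∃ v2 ∈ V, ∃ v3 ∈ V, ¬ Bad v1 v2 v3 ∧ ∃ L1 ⊆ L,
      δ ^ 3 / 32 * (L.card : ℝ) ≤ L1.card ∧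
      ∀ l ∈ L1, (∃ l' ∈ L, pc l' = pc l ∧ vc l' = v1) ∧ (∃ l' ∈ L, pc l' = pc l ∧ vc l' = v2) ∧
        ∃ l' ∈ L, pc l' = pc l ∧ vc l' = v3 := by
  have hL0 : (0 : ℝ) < L.card := by exact_mod_cast hL.card_pos
  obtain ⟨l0, hl0⟩ := hL
  have hV0 : (0 : ℝ) < V.card := by exact_mod_cast card_pos.2 ⟨_, hv l0 hl0⟩
  -- neighbourhoods
  set Nb : α → Finset ℕ := fun l => V.filter fun v => ∃ l' ∈ L, pc l' = pc l ∧ vc l' = v with hNb
  set mm : ℕ → Finset α := fun p => L.filter fun l' => pc l' = p with hmm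
  have hmdeg : ∀ l, ((mm (pc l)).card : ℝ) ≤ W * (Nb l).card := by
    intro l
    have h1 : (mm (pc l)).card = ∑ v ∈ Nb l, ((mm (pc l)).filter fun l' => vc l' = v).card := by
      refine card_eq_sum_card_fiberwise fun l' hl' => ?_
      obtain ⟨a1, a2⟩ := mem_filter.1 (mem_coe.1 hl')
      exact mem_coe.2 (mem_filter.2 ⟨hv l' a1, l', a1, a2, rfl⟩)
    rw [h1]
    push_cast
    have h2 : ∀ v ∈ Nb l, ((((mm (pc l)).filter fun l' => vc l' = v).card : ℕ) : ℝ) ≤ W := by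
      intro v _
      refine le_trans ?_ (fib (pc l) v)
      refine Nat.cast_le.2 (card_le_card fun l' hl' => ?_)
      obtain ⟨a1, a2⟩ := mem_filter.1 hl'
      obtain ⟨b1, b2⟩ := mem_filter.1 a1
      exact mem_filter.2 ⟨b1, b2, a2⟩
    calc _ ≤ ∑ v ∈ Nb l, W := sum_le_sum h2
      _ = W * (Nb l).card := by rw [sum_const, nsmul_eq_mul]; ring
  -- popular position cells
  set L0 : Finset α := L.filter fun l => δ / 2 * W * V.card ≤ ((mm (pc l)).card : ℝ) with hL0d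
  have hL0c : (L.card : ℝ) / 2 ≤ L0.card := by
    have h1 : L0.card + (L.filter fun l => ¬ (δ / 2 * W * V.card ≤ ((mm (pc l)).card : ℝ))).card =
        L.card := card_filter_add_card_filter_not _
    have h2 : (((L.filter fun l => ¬ (δ / 2 * W * V.card ≤ ((mm (pc l)).card : ℝ))).card : ℕ) : ℝ) ≤
        L.card / 2 := by
      set Q := L.filter fun l => ¬ (δ / 2 * W * V.card ≤ ((mm (pc l)).card : ℝ)) with hQ
      have h3 : Q.card = ∑ p ∈ P, (Q.filter fun l => pc l = p).card := by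
        refine card_eq_sum_card_fiberwise fun l hl => ?_
        exact mem_coe.2 (hp l (mem_filter.1 (mem_coe.1 hl)).1)
      rw [h3]
      push_cast
      have h4 : ∀ p ∈ P, (((Q.filter fun l => pc l = p).card : ℕ) : ℝ) ≤ δ / 2 * W * V.card := by
        intro p _
        rcases (Q.filter fun l => pc l = p).eq_empty_or_nonempty with h | ⟨l, hl⟩
        · rw [h]; simp only [card_empty, Nat.cast_zero]; positivity
        · obtain ⟨a1, a2⟩ := mem_filter.1 hl
          obtain ⟨a3, a4⟩ := mem_filter.1 a1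
          have a5 := not_le.1 a4
          rw [a2] at a5
          refine le_trans ?_ a5.le
          refine Nat.cast_le.2 (card_le_card fun l' hl' => ?_)
          obtain ⟨b1, b2⟩ := mem_filter.1 hl'
          exact mem_filter.2 ⟨(mem_filter.1 b1).1, b2⟩
      calc _ ≤ ∑ p ∈ P, δ / 2 * W * V.card := sum_le_sum h4
        _ = (δ * W * P.card * V.card) / 2 := by rw [sum_const, nsmul_eq_mul]; ring
        _ ≤ _ := by linarith
    have h3 : (L0.card : ℝ) +
        (((L.filter fun l => ¬ (δ / 2 * W * V.card ≤ ((mm (pc l)).card : ℝ))).card : ℕ) : ℝ) =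
        L.card := by exact_mod_cast h1
    linarith
  -- good triples
  set T : Finset (ℕ × ℕ × ℕ) := (V ×ˢ V ×ˢ V).filter fun t => ¬ Bad t.1 t.2.1 t.2.2 with hT
  have hTc : (T.card : ℝ) ≤ (V.card : ℝ) ^ 3 := by
    have h1 : T.card ≤ (V ×ˢ V ×ˢ V).card := card_filter_le _ _
    rw [card_product, card_product] at h1
    have h2 : (T.card : ℝ) ≤ ((V.card * (V.card * V.card) : ℕ) : ℝ) := by exact_mod_cast h1
    refine h2.trans (le_of_eq ?_)
    push_cast; ring
  set Inc : ℕ × ℕ × ℕ → α → Prop := fun t l => t.1 ∈ Nb l ∧ t.2.1 ∈ Nb l ∧ t.2.2 ∈ Nb l with hInc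
  have hlow : ∀ l ∈ L0, δ ^ 3 / 16 * (V.card : ℝ) ^ 3 ≤ ((T.filter fun t => Inc t l).card : ℝ) := by
    intro l hl
    obtain ⟨_, a2⟩ := mem_filter.1 hl
    have a3 : δ / 2 * (V.card : ℝ) ≤ (Nb l).card := by
      have := a2.trans (hmdeg l)
      have h5 : δ / 2 * V.card * W ≤ (Nb l).card * W := by linarith
      exact le_of_mul_le_mul_right h5 hW
    have a4 : (δ / 2 * (V.card : ℝ)) ^ 3 ≤ ((Nb l).card : ℝ) ^ 3 :=
      pow_le_pow_left₀ (by positivity) a3 3
    have a5 : ((Nb l ×ˢ Nb l ×ˢ Nb l).card : ℝ) = ((Nb l).card : ℝ) ^ 3 := by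
      rw [card_product, card_product]; push_cast; ring
    have a6 : (Nb l ×ˢ Nb l ×ˢ Nb l) ⊆ (T.filter fun t => Inc t l) ∪
        ((V ×ˢ V ×ˢ V).filter fun t => Bad t.1 t.2.1 t.2.2) := by
      intro t ht
      obtain ⟨t1, t2, t3⟩ := t
      rw [mem_product, mem_product] at ht
      obtain ⟨b1, b2, b3⟩ := ht
      simp only at b1 b2 b3
      have hmem : (t1, t2, t3) ∈ V ×ˢ V ×ˢ V := by
        rw [mem_product, mem_product]
        exact ⟨(mem_filter.1 b1).1, (mem_filter.1 b2).1, (mem_filter.1 b3).1⟩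
      by_cases hb : Bad t1 t2 t3
      · exact mem_union_right _ (mem_filter.2 ⟨hmem, hb⟩)
      · exact mem_union_left _ (mem_filter.2 ⟨mem_filter.2 ⟨hmem, hb⟩, b1, b2, b3⟩)
    have a7 := card_le_card a6
    have a8 := a7.trans (card_union_le _ _)
    have a9 : ((Nb l ×ˢ Nb l ×ˢ Nb l).card : ℝ) ≤ ((T.filter fun t => Inc t l).card : ℝ) +
        (((V ×ˢ V ×ˢ V).filter fun t => Bad t.1 t.2.1 t.2.2).card : ℝ) := by exact_mod_cast a8
    have a10 : (δ / 2 * (V.card : ℝ)) ^ 3 = δ ^ 3 / 8 * (V.card : ℝ) ^ 3 := by ring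
    have : δ ^ 3 / 8 * (V.card : ℝ) ^ 3 = δ ^ 3 / 16 * (V.card : ℝ) ^ 3 +
      δ ^ 3 / 16 * (V.card : ℝ) ^ 3 := by ring
    linarith
  -- double counting
  have hdc : ∑ t ∈ T, ((L0.filter fun l => Inc t l).card : ℝ) =
      ∑ l ∈ L0, ((T.filter fun t => Inc t l).card : ℝ) := by
    have h := sum_card_bipartiteAbove_eq_sum_card_bipartiteBelow (s := T) (t := L0)
      (fun t l => Inc t l)
    unfold bipartiteAbove bipartiteBelow at h
    exact_mod_cast h
  have hsum : (L0.card : ℝ) * (δ ^ 3 / 16 * (V.card : ℝ) ^ 3) ≤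
      ∑ t ∈ T, ((L0.filter fun l => Inc t l).card : ℝ) := by
    rw [hdc]
    calc (L0.card : ℝ) * (δ ^ 3 / 16 * (V.card : ℝ) ^ 3)
        = ∑ l ∈ L0, δ ^ 3 / 16 * (V.card : ℝ) ^ 3 := by rw [sum_const, nsmul_eq_mul]
      _ ≤ _ := sum_le_sum hlow
  have hex : ∃ t ∈ T, δ ^ 3 / 16 * (L0.card : ℝ) ≤ ((L0.filter fun l => Inc t l).card : ℝ) := by
    by_contra hcon
    push Not at hcon
    have hL0' : 0 < (L0.card : ℝ) := by linarith
    have hc : 0 < δ ^ 3 / 16 * (L0.card : ℝ) := by positivity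
    rcases T.eq_empty_or_nonempty with h | h
    · rw [h, sum_empty] at hsum
      have : 0 < (L0.card : ℝ) * (δ ^ 3 / 16 * (V.card : ℝ) ^ 3) := by positivity
      linarith
    · have h1 : ∑ t ∈ T, ((L0.filter fun l => Inc t l).card : ℝ) <
          ∑ t ∈ T, δ ^ 3 / 16 * (L0.card : ℝ) := sum_lt_sum_of_nonempty h hcon
      rw [sum_const, nsmul_eq_mul] at h1
      have h2 := mul_le_mul_of_nonneg_right hTc hc.le
      have h3 : (V.card : ℝ) ^ 3 * (δ ^ 3 / 16 * (L0.card : ℝ)) =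
        (L0.card : ℝ) * (δ ^ 3 / 16 * (V.card : ℝ) ^ 3) := by ring
      linarith
  obtain ⟨⟨v1, v2, v3⟩, ht, hcard⟩ := hex
  obtain ⟨h1, h2⟩ := mem_filter.1 ht
  rw [mem_product, mem_product] at h1
  obtain ⟨b1, b2, b3⟩ := h1
  refine ⟨v1, b1, v2, b2, v3, b3, h2, L0.filter fun l => Inc (v1, v2, v3) l,
    (filter_subset _ _).trans (filter_subset _ _), ?_, ?_⟩
  · refine le_trans ?_ hcard
    have : 0 ≤ δ ^ 3 := by positivity
    nlinarith
  · intro l hl
    obtain ⟨_, c1, c2, c3⟩ := mem_filter.1 hl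
    exact ⟨(mem_filter.1 c1).2, (mem_filter.1 c2).2, (mem_filter.1 c3).2⟩

end Crest.Agent.R136.Qd329
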