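import Crest.Agent.R136.Qd1_329

/-!
# R136: the bilinear rigidity, finite form (helper329), part 2

`Grid` : lines at one height with position cells `pc` (data `a, b, s, β`), velocity cells `vc` (data
`c, ζ, Z`) and a function `Φ` such that `Φ - c s + κ c² β` is constant on position cells and
`Φ - ζ b - Z a` is constant on velocity cells.  `grid_quad` : a positive part satisfies
`s = l₁ b + l₂ a + ..`, `β = m₁ b + m₂ a + ..`, `ζ = l₁ c - κ m₁ c² + ..`, `Z = l₂ c - κ m₂ c² + ..`.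
-/

set_option autoImplicit false

namespace Crest.Agent.R136.Qd329

open Finset

/-! ### linear algebra -/

theorem solve1 {c1 c2 c3 κ κ0 r e M S T x12 x13 : ℝ} (hr : 0 < r) (hκ0 : 0 < κ0) (hκ : κ0 ≤ |κ|)
    (hκ1 : |κ| ≤ 1) (hM : 1 ≤ M) (he : 0 ≤ e) (hκ01 : κ0 ≤ 1) (hr1 : r ≤ 1)
    (h12 : r ≤ |c1 - c2|) (h13 : r ≤ |c1 - c3|) (h23 : r ≤ |c3 - c2|)
    (m1 : |c1| ≤ M) (m2 : |c2| ≤ M)
    (g12 : |(c1 - c2) * S - κ * (c1 ^ 2 - c2 ^ 2) * T - x12| ≤ e)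
    (g13 : |(c1 - c3) * S - κ * (c1 ^ 2 - c3 ^ 2) * T - x13| ≤ e) :
    |T - (x12 / (c1 - c2) - x13 / (c1 - c3)) / (κ * (c3 - c2))| ≤ 2 * e / (κ0 * r ^ 2) ∧
    |S - (x12 / (c1 - c2) + κ * (c1 + c2) *
      ((x12 / (c1 - c2) - x13 / (c1 - c3)) / (κ * (c3 - c2))))| ≤ 5 * M * e / (κ0 * r ^ 2) := by
  set u := (c1 - c2) * S - κ * (c1 ^ 2 - c2 ^ 2) * T - x12 with hu
  set v := (c1 - c3) * S - κ * (c1 ^ 2 - c3 ^ 2) * T - x13 with hv
  have n12 : c1 - c2 ≠ 0 := fun h => by rw [h, abs_zero] at h12; linarith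
  have n13 : c1 - c3 ≠ 0 := fun h => by rw [h, abs_zero] at h13; linarith
  have n23 : c3 - c2 ≠ 0 := fun h => by rw [h, abs_zero] at h23; linarith
  have nκ : κ ≠ 0 := fun h => by rw [h, abs_zero] at hκ; linarith
  set μ := (x12 / (c1 - c2) - x13 / (c1 - c3)) / (κ * (c3 - c2)) with hμ
  have hx12 : x12 = (c1 - c2) * S - κ * (c1 ^ 2 - c2 ^ 2) * T - u := by rw [hu]; ring
  have hx13 : x13 = (c1 - c3) * S - κ * (c1 ^ 2 - c3 ^ 2) * T - v := by rw [hv]; ring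
  have d12 : x12 / (c1 - c2) = S - κ * (c1 + c2) * T - u / (c1 - c2) := by
    rw [hx12]; field_simp; ring
  have d13 : x13 / (c1 - c3) = S - κ * (c1 + c3) * T - v / (c1 - c3) := by
    rw [hx13]; field_simp; ring
  have hT : T - μ = (u / (c1 - c2) - v / (c1 - c3)) / (κ * (c3 - c2)) := by
    rw [hμ, d12, d13]
    field_simp
    ring
  have bu : |u / (c1 - c2)| ≤ e / r := by
    rw [abs_div]; exact div_le_div₀ he g12 hr h12
  have bv : |v / (c1 - c3)| ≤ e / r := by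
    rw [abs_div]; exact div_le_div₀ he g13 hr h13
  have bT : |T - μ| ≤ 2 * e / (κ0 * r ^ 2) := by
    rw [hT, abs_div, abs_mul]
    have h1 : |u / (c1 - c2) - v / (c1 - c3)| ≤ 2 * (e / r) := by
      have := abs_sub (u / (c1 - c2)) (v / (c1 - c3)); linarith
    have h2 : κ0 * r ≤ |κ| * |c3 - c2| := mul_le_mul hκ h23 hr.le (abs_nonneg _)
    refine (div_le_div₀ (by positivity) h1 (by positivity) h2).trans (le_of_eq ?_)
    field_simp
  refine ⟨bT, ?_⟩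
  have e1 : S - (x12 / (c1 - c2) + κ * (c1 + c2) * μ) =
      κ * (c1 + c2) * (T - μ) + u / (c1 - c2) := by rw [d12]; ring
  rw [e1]
  have h3 : |κ * (c1 + c2) * (T - μ)| ≤ 2 * M * (2 * e / (κ0 * r ^ 2)) := by
    rw [abs_mul, abs_mul]
    have h4 : |c1 + c2| ≤ 2 * M := (abs_add_le _ _).trans (by linarith)
    have h5 : |κ| * |c1 + c2| ≤ 2 * M := by
      calc |κ| * |c1 + c2| ≤ 1 * (2 * M) := mul_le_mul hκ1 h4 (abs_nonneg _) zero_le_one
        _ = 2 * M := one_mul _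
    exact mul_le_mul h5 bT (abs_nonneg _) (by linarith)
  have h6 : e / r ≤ M * (e / (κ0 * r ^ 2)) := by
    have h7 : e / r ≤ e / (κ0 * r ^ 2) := by
      apply div_le_div_of_nonneg_left he (by positivity)
      nlinarith
    have h8 : 0 ≤ e / (κ0 * r ^ 2) := by positivity
    nlinarith
  refine (abs_add_le _ _).trans ?_
  have h9 : 5 * M * e / (κ0 * r ^ 2) = 2 * M * (2 * e / (κ0 * r ^ 2)) + M * (e / (κ0 * r ^ 2)) := by
    ring
  linarith

theorem solve2 {X Y a2 b2 a3 b3 ω e M : ℝ} (hω : 0 < ω) (hM : 0 ≤ M) (he : 0 ≤ e)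
    (hc : ω ≤ |b2 * a3 - b3 * a2|) (ha2 : |a2| ≤ 2 * M) (hb2 : |b2| ≤ 2 * M) (ha3 : |a3| ≤ 2 * M)
    (hb3 : |b3| ≤ 2 * M) (h2 : |X * b2 + Y * a2| ≤ e) (h3 : |X * b3 + Y * a3| ≤ e) :
    |X| ≤ 4 * M * e / ω ∧ |Y| ≤ 4 * M * e / ω := by
  have hp : 0 < |b2 * a3 - b3 * a2| := hω.trans_le hc
  have key : ∀ x : ℝ, |x * (b2 * a3 - b3 * a2)| ≤ 4 * M * e → |x| ≤ 4 * M * e / ω := by
    intro x hx
    rw [abs_mul] at hx
    rw [le_div_iff₀ hω]
    exact (mul_le_mul_of_nonneg_left hc (abs_nonneg x)).trans hx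
  constructor
  · apply key
    have e1 : X * (b2 * a3 - b3 * a2) = (X * b2 + Y * a2) * a3 - (X * b3 + Y * a3) * a2 := by ring
    rw [e1]
    refine (abs_sub _ _).trans ?_
    rw [abs_mul, abs_mul]
    have := mul_le_mul h2 ha3 (abs_nonneg _) he
    have := mul_le_mul h3 ha2 (abs_nonneg _) he
    linarith
  · apply key
    have e1 : Y * (b2 * a3 - b3 * a2) = (X * b3 + Y * a3) * b2 - (X * b2 + Y * a2) * b3 := by ring
    rw [e1]
    refine (abs_sub _ _).trans ?_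
    rw [abs_mul, abs_mul]
    have := mul_le_mul h3 hb2 (abs_nonneg _) he
    have := mul_le_mul h2 hb3 (abs_nonneg _) he
    linarith

theorem mul_close {x x' y y' δ M : ℝ} (h1 : |x - x'| ≤ δ) (h2 : |y - y'| ≤ δ) (h3 : |x| ≤ M)
    (h4 : |y'| ≤ M) : |x * y - x' * y'| ≤ 2 * M * δ := by
  have hδ : 0 ≤ δ := (abs_nonneg _).trans h1
  have hM : 0 ≤ M := (abs_nonneg _).trans h3
  have e : x * y - x' * y' = x * (y - y') + (x - x') * y' := by ring
  rw [e]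
  refine (abs_add_le _ _).trans ?_
  rw [abs_mul, abs_mul]
  have := mul_le_mul h3 h2 (abs_nonneg _) hM
  have := mul_le_mul h1 h4 (abs_nonneg _) hδ
  linarith

theorem sq_close {κ x x' y y' δ M : ℝ} (hκ : |κ| ≤ 1) (hM1 : 1 ≤ M) (h1 : |x - x'| ≤ δ)
    (h2 : |y - y'| ≤ δ) (h3 : |x| ≤ M)
    (h3' : |x'| ≤ M) (h4 : |y'| ≤ M) : |κ * x ^ 2 * y - κ * x' ^ 2 * y'| ≤ 3 * M ^ 2 * δ := by
  have hδ : 0 ≤ δ := (abs_nonneg _).trans h1
  have hM : 0 ≤ M := (abs_nonneg _).trans h3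
  have e : κ * x ^ 2 * y - κ * x' ^ 2 * y' =
    κ * (x * x * (y - y') + (x - x') * (x + x') * y') := by ring
  rw [e, abs_mul]
  have h5 : |x * x * (y - y')| ≤ M ^ 2 * δ := by
    rw [abs_mul, abs_mul]
    have := mul_le_mul h3 h3 (abs_nonneg _) hM
    calc |x| * |x| * |y - y'| ≤ M * M * δ := mul_le_mul this h2 (abs_nonneg _) (by positivity)
      _ = M ^ 2 * δ := by ring
  have h6 : |(x - x') * (x + x') * y'| ≤ 2 * M ^ 2 * δ := by
    rw [abs_mul, abs_mul]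
    have h7 : |x + x'| ≤ 2 * M := (abs_add_le _ _).trans (by linarith)
    have := mul_le_mul h1 h7 (abs_nonneg _) hδ
    calc |x - x'| * |x + x'| * |y'| ≤ δ * (2 * M) * M :=
          mul_le_mul this h4 (abs_nonneg _) (by positivity)
      _ = 2 * M ^ 2 * δ := by ring
  have h8 := abs_add_le (x * x * (y - y')) ((x - x') * (x + x') * y')
  have h9 : |x * x * (y - y') + (x - x') * (x + x') * y'| ≤ 3 * M ^ 2 * δ := by linarith
  calc |κ| * |x * x * (y - y') + (x - x') * (x + x') * y'| ≤ 1 * (3 * M ^ 2 * δ) :=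
        mul_le_mul hκ h9 (abs_nonneg _) zero_le_one
    _ = _ := one_mul _

/-! ### counting of bad triples -/

open Classical in
theorem bad_card (V : Finset ℕ) (Ex : ℕ → ℕ → Prop) (Bad : ℕ → ℕ → ℕ → Prop) {η η' : ℝ}
    (hη' : 0 ≤ η')
    (h1 : ∀ v1 ∈ V, ((V.filter fun v2 => Ex v1 v2).card : ℝ) ≤ η * V.card)
    (h2 : ∀ v1 ∈ V, ∀ v2 ∈ V, ¬ Ex v1 v2 →
      ((V.filter fun v3 => Bad v1 v2 v3).card : ℝ) ≤ η' * V.card) :
    (((V ×ˢ V ×ˢ V).filter fun t => Bad t.1 t.2.1 t.2.2).card : ℝ) ≤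
      (η + η') * (V.card : ℝ) ^ 3 := by
  have e1 : (((V ×ˢ V ×ˢ V).filter fun t => Bad t.1 t.2.1 t.2.2).card : ℝ) =
      ∑ v1 ∈ V, ∑ v2 ∈ V, ((V.filter fun v3 => Bad v1 v2 v3).card : ℝ) := by
    rw [card_filter, sum_product]
    push_cast
    refine sum_congr rfl fun v1 _ => ?_
    rw [sum_product]
    refine sum_congr rfl fun v2 _ => ?_
    rw [card_filter]
    push_cast
    rfl
  rw [e1]
  have hV : (0 : ℝ) ≤ V.card := Nat.cast_nonneg _
  have h3 : ∀ v1 ∈ V, ∑ v2 ∈ V, ((V.filter fun v3 => Bad v1 v2 v3).card : ℝ) ≤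
      (η + η') * (V.card : ℝ) ^ 2 := by
    intro v1 hv1
    rw [← sum_filter_add_sum_filter_not V (fun v2 => Ex v1 v2)]
    have a1 : ∑ v2 ∈ V.filter (fun v2 => Ex v1 v2), ((V.filter fun v3 => Bad v1 v2 v3).card : ℝ) ≤
        η * (V.card : ℝ) ^ 2 := by
      calc _ ≤ ∑ v2 ∈ V.filter (fun v2 => Ex v1 v2), (V.card : ℝ) :=
            sum_le_sum fun v2 _ => Nat.cast_le.2 (card_filter_le _ _)
        _ = ((V.filter fun v2 => Ex v1 v2).card : ℝ) * V.card := by rw [sum_const, nsmul_eq_mul]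
        _ ≤ η * V.card * V.card := mul_le_mul_of_nonneg_right (h1 v1 hv1) hV
        _ = _ := by ring
    have a2 : ∑ v2 ∈ V.filter (fun v2 => ¬ Ex v1 v2),
        ((V.filter fun v3 => Bad v1 v2 v3).card : ℝ) ≤ η' * (V.card : ℝ) ^ 2 := by
      calc _ ≤ ∑ v2 ∈ V.filter (fun v2 => ¬ Ex v1 v2), η' * (V.card : ℝ) :=
            sum_le_sum fun v2 hv2 => h2 v1 hv1 v2 (mem_filter.1 hv2).1 (mem_filter.1 hv2).2
        _ = ((V.filter fun v2 => ¬ Ex v1 v2).card : ℝ) * (η' * V.card) := by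
            rw [sum_const, nsmul_eq_mul]
        _ ≤ V.card * (η' * V.card) := by
            refine mul_le_mul_of_nonneg_right (Nat.cast_le.2 (card_filter_le _ _)) (by positivity)
        _ = _ := by ring
    calc _ ≤ η * (V.card : ℝ) ^ 2 + η' * (V.card : ℝ) ^ 2 := add_le_add a1 a2
      _ = _ := by ring
  calc _ ≤ ∑ v1 ∈ V, (η + η') * (V.card : ℝ) ^ 2 := sum_le_sum h3
    _ = (V.card : ℝ) * ((η + η') * (V.card : ℝ) ^ 2) := by rw [sum_const, nsmul_eq_mul]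
    _ = _ := by ring

end Crest.Agent.R136.Qd329
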