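import Crest.Agent.R136.Qd2_329

/-!
# R136: the bilinear rigidity, finite form (helper329), part 3

`Grid`, `grid_step1` (positions), `grid_step2` (velocities), `grid_quad`.
-/

set_option autoImplicit false

namespace Crest.Agent.R136.Qd329

open Finset

/-- lines at one height with position cells and velocity cells -/
structure Grid {α : Type*} (L : Finset α) (pc vc : α → ℕ) (a b c s β ζ Z Φ : α → ℝ)
    (κ M δ : ℝ) : Prop where
  M1 : 1 ≤ M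
  δ0 : 0 ≤ δ
  κ1 : |κ| ≤ 1
  bd : ∀ l ∈ L, |a l| ≤ M ∧ |b l| ≤ M ∧ |c l| ≤ M ∧ |s l| ≤ M ∧ |β l| ≤ M ∧ |ζ l| ≤ M ∧ |Z l| ≤ M
  pcl : ∀ l ∈ L, ∀ l' ∈ L, pc l = pc l' →
    |a l - a l'| ≤ δ ∧ |b l - b l'| ≤ δ ∧ |s l - s l'| ≤ δ ∧ |β l - β l'| ≤ δ
  vcl : ∀ l ∈ L, ∀ l' ∈ L, vc l = vc l' → |c l - c l'| ≤ δ ∧ |ζ l - ζ l'| ≤ δ ∧ |Z l - Z l'| ≤ δ
  pP : ∀ l ∈ L, ∀ l' ∈ L, pc l = pc l' →
    |(Φ l - c l * s l + κ * c l ^ 2 * β l) - (Φ l' - c l' * s l' + κ * c l' ^ 2 * β l')| ≤ δ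
  vP : ∀ l ∈ L, ∀ l' ∈ L, vc l = vc l' →
    |(Φ l - ζ l * b l - Z l * a l) - (Φ l' - ζ l' * b l' - Z l' * a l')| ≤ δ

variable {α : Type*} {L : Finset α} {pc vc : α → ℕ} {a b c s β ζ Z Φ : α → ℝ} {κ M δ : ℝ}

theorem Grid.mono (G : Grid L pc vc a b c s β ζ Z Φ κ M δ) {L' : Finset α} (h : L' ⊆ L) :
    Grid L' pc vc a b c s β ζ Z Φ κ M δ where
  M1 := G.M1
  δ0 := G.δ0
  κ1 := G.κ1
  bd := fun l hl => G.bd l (h hl)
  pcl := fun l hl l' hl' => G.pcl l (h hl) l' (h hl')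
  vcl := fun l hl l' hl' => G.vcl l (h hl) l' (h hl')
  pP := fun l hl l' hl' => G.pP l (h hl) l' (h hl')
  vP := fun l hl l' hl' => G.vP l (h hl) l' (h hl')

/-- constancy on a position cell with the data of another line of the cells -/
theorem Grid.pP' (G : Grid L pc vc a b c s β ζ Z Φ κ M δ) {l l' l0 l0' : α} (hl : l ∈ L)
    (hl' : l' ∈ L) (h0 : l0 ∈ L) (h0' : l0' ∈ L) (e : pc l = pc l') (e0 : vc l = vc l0)
    (e0' : vc l' = vc l0') {m m' : α} (hm : m ∈ L) (hm' : m' ∈ L) (em : pc m = pc l)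
    (em' : pc m' = pc l') :
    |(Φ l - c l0 * s m + κ * c l0 ^ 2 * β m) - (Φ l' - c l0' * s m' + κ * c l0' ^ 2 * β m')| ≤
      11 * M ^ 2 * δ := by
  have hM := G.M1
  have hδ := G.δ0
  have key : ∀ l l0 m : α, l ∈ L → l0 ∈ L → m ∈ L → vc l = vc l0 → pc m = pc l →
      |(Φ l - c l * s l + κ * c l ^ 2 * β l) - (Φ l - c l0 * s m + κ * c l0 ^ 2 * β m)| ≤
        5 * M ^ 2 * δ := by
    intro l l0 m hl h0 hm e0 em
    obtain ⟨_, _, p3, p4, p5, _, _⟩ := G.bd l hl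
    obtain ⟨_, _, q3, q4, q5, _, _⟩ := G.bd l0 h0
    obtain ⟨_, _, r3, r4, r5, _, _⟩ := G.bd m hm
    obtain ⟨v1, _, _⟩ := G.vcl l hl l0 h0 e0
    obtain ⟨_, _, w3, w4⟩ := G.pcl l hl m hm em.symm
    have h1 := mul_close v1 w3 p3 r4
    have h2 := sq_close G.κ1 hM v1 w4 p3 q3 r5
    have e1 : (Φ l - c l * s l + κ * c l ^ 2 * β l) - (Φ l - c l0 * s m + κ * c l0 ^ 2 * β m) =
      (κ * c l ^ 2 * β l - κ * c l0 ^ 2 * β m) - (c l * s l - c l0 * s m) := by ring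
    rw [e1]
    refine (abs_sub _ _).trans ?_
    nlinarith [mul_nonneg hδ (by nlinarith : 0 ≤ M ^ 2 - M)]
  have k1 := key l l0 m hl h0 hm e0 em
  have k2 := key l' l0' m' hl' h0' hm' e0' em'
  have k3 := G.pP l hl l' hl' e
  have e2 : (Φ l - c l0 * s m + κ * c l0 ^ 2 * β m) - (Φ l' - c l0' * s m' + κ * c l0' ^ 2 * β m') =
      ((Φ l - c l * s l + κ * c l ^ 2 * β l) - (Φ l' - c l' * s l' + κ * c l' ^ 2 * β l')) -
      ((Φ l - c l * s l + κ * c l ^ 2 * β l) - (Φ l - c l0 * s m + κ * c l0 ^ 2 * β m)) +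
      ((Φ l' - c l' * s l' + κ * c l' ^ 2 * β l') - (Φ l' - c l0' * s m' + κ * c l0' ^ 2 * β m')) := by
    ring
  rw [e2]
  refine (abs_add_le _ _).trans ?_
  have := abs_sub ((Φ l - c l * s l + κ * c l ^ 2 * β l) - (Φ l' - c l' * s l' + κ * c l' ^ 2 * β l'))
    ((Φ l - c l * s l + κ * c l ^ 2 * β l) - (Φ l - c l0 * s m + κ * c l0 ^ 2 * β m))
  nlinarith [mul_nonneg hδ (by nlinarith : 0 ≤ M ^ 2 - 1)]

/-- constancy on a velocity cell with the data of other lines of the cells -/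
theorem Grid.vP' (G : Grid L pc vc a b c s β ζ Z Φ κ M δ) {l l' l0 l0' : α} (hl : l ∈ L)
    (hl' : l' ∈ L) (h0 : l0 ∈ L) (h0' : l0' ∈ L) (e : vc l = vc l') (e0 : pc l = pc l0)
    (e0' : pc l' = pc l0') {m m' : α} (hm : m ∈ L) (hm' : m' ∈ L) (em : vc m = vc l)
    (em' : vc m' = vc l') :
    |(Φ l - ζ m * b l0 - Z m * a l0) - (Φ l' - ζ m' * b l0' - Z m' * a l0')| ≤ 9 * M * δ := by
  have hM := G.M1
  have hδ := G.δ0
  have key : ∀ l l0 m : α, l ∈ L → l0 ∈ L → m ∈ L → pc l = pc l0 → vc m = vc l →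
      |(Φ l - ζ l * b l - Z l * a l) - (Φ l - ζ m * b l0 - Z m * a l0)| ≤ 4 * M * δ := by
    intro l l0 m hl h0 hm e0 em
    obtain ⟨p1, p2, _, _, _, p6, p7⟩ := G.bd l hl
    obtain ⟨q1, q2, _, _, _, _, _⟩ := G.bd l0 h0
    obtain ⟨_, v2, v3⟩ := G.vcl l hl m hm em.symm
    obtain ⟨w1, w2, _, _⟩ := G.pcl l hl l0 h0 e0
    have h1 := mul_close v2 w2 p6 q2
    have h2 := mul_close v3 w1 p7 q1
    have e1 : (Φ l - ζ l * b l - Z l * a l) - (Φ l - ζ m * b l0 - Z m * a l0) =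
      -(ζ l * b l - ζ m * b l0) - (Z l * a l - Z m * a l0) := by ring
    rw [e1]
    refine (abs_sub _ _).trans ?_
    rw [abs_neg]
    linarith
  have k1 := key l l0 m hl h0 hm e0 em
  have k2 := key l' l0' m' hl' h0' hm' e0' em'
  have k3 := G.vP l hl l' hl' e
  have e2 : (Φ l - ζ m * b l0 - Z m * a l0) - (Φ l' - ζ m' * b l0' - Z m' * a l0') =
      ((Φ l - ζ l * b l - Z l * a l) - (Φ l' - ζ l' * b l' - Z l' * a l')) -
      ((Φ l - ζ l * b l - Z l * a l) - (Φ l - ζ m * b l0 - Z m * a l0)) +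
      ((Φ l' - ζ l' * b l' - Z l' * a l') - (Φ l' - ζ m' * b l0' - Z m' * a l0')) := by
    ring
  rw [e2]
  refine (abs_add_le _ _).trans ?_
  have := abs_sub ((Φ l - ζ l * b l - Z l * a l) - (Φ l' - ζ l' * b l' - Z l' * a l'))
    ((Φ l - ζ l * b l - Z l * a l) - (Φ l - ζ m * b l0 - Z m * a l0))
  nlinarith

/-- counting hypotheses -/
structure GCnt (L : Finset α) (pc vc : α → ℕ) (a b c : α → ℝ) (P V : Finset ℕ)
    (W D r q η : ℝ) : Prop where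
  hp : ∀ l ∈ L, pc l ∈ P
  hv : ∀ l ∈ L, vc l ∈ V
  W0 : 0 < W
  fib : ∀ p v, ((L.filter fun l => pc l = p ∧ vc l = v).card : ℝ) ≤ W
  η0 : 0 ≤ η
  hc : ∀ t : ℝ, ∀ A ⊆ V, (∀ v ∈ A, ∃ l ∈ L, vc l = v ∧ |c l - t| ≤ 2 * r) → (A.card : ℝ) ≤ η * V.card
  hs : ∀ n1 n2 t : ℝ, (|n1| = 1 ∨ |n2| = 1) → ∀ A ⊆ P,
    (∀ p ∈ A, ∃ l ∈ L, pc l = p ∧ |n1 * b l + n2 * a l - t| ≤ q) → (A.card : ℝ) ≤ η * P.card

/-- two cells contain lines with close `c` -/
def ClP (L : Finset α) (vc : α → ℕ) (c : α → ℝ) (r : ℝ) (v v' : ℕ) : Prop :=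
  ∃ l ∈ L, ∃ l' ∈ L, vc l = v ∧ vc l' = v' ∧ |c l - c l'| < r

/-- bad triples of velocity cells -/
def BadV (L : Finset α) (vc : α → ℕ) (c : α → ℝ) (r : ℝ) (v1 v2 v3 : ℕ) : Prop :=
  ClP L vc c r v1 v2 ∨ ClP L vc c r v1 v3 ∨ ClP L vc c r v2 v3

open Classical in
theorem badV_card (G : Grid L pc vc a b c s β ζ Z Φ κ M δ) {P V : Finset ℕ} {W D r q η : ℝ}
    (C : GCnt L pc vc a b c P V W D r q η) (hδr : δ ≤ r) (hη : 3 * η ≤ D ^ 3 / 16) :
    (((V ×ˢ V ×ˢ V).filter fun t => BadV L vc c r t.1 t.2.1 t.2.2).card : ℝ) ≤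
      D ^ 3 / 16 * (V.card : ℝ) ^ 3 := by
  have hclc : ∀ v1, ∀ A ⊆ V, (∀ v ∈ A, ClP L vc c r v1 v) → (A.card : ℝ) ≤ η * V.card := by
    intro v1 A hA hcA
    rcases A.eq_empty_or_nonempty with h | ⟨v0, hv0⟩
    · rw [h, card_empty, Nat.cast_zero]
      have := C.η0
      positivity
    · obtain ⟨k, hk, -, -, hkv, -, -⟩ := hcA v0 hv0
      refine C.hc (c k) A hA fun v hv => ?_
      obtain ⟨l, hl, l', hl', e1, e2, e3⟩ := hcA v hv
      refine ⟨l', hl', e2, ?_⟩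
      have h1 := (G.vcl l hl k hk (e1.trans hkv.symm)).1
      have e4 : c l' - c k = (c l - c k) - (c l - c l') := by ring
      rw [e4]
      have := abs_sub (c l - c k) (c l - c l')
      linarith
  have h1 := bad_card V (ClP L vc c r) (BadV L vc c r) (η := η) (η' := 2 * η)
    (by linarith [C.η0])
    (fun v1 _ => hclc v1 _ (filter_subset _ _) fun v hv => (mem_filter.1 hv).2)
    (fun v1 _ v2 _ hn => by
      have h2 : (V.filter fun v3 => BadV L vc c r v1 v2 v3) ⊆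
          (V.filter fun v3 => ClP L vc c r v1 v3) ∪ (V.filter fun v3 => ClP L vc c r v2 v3) := by
        intro v3 hv3
        obtain ⟨a1, a2⟩ := mem_filter.1 hv3
        rcases a2 with a2 | a2 | a2
        · exact absurd a2 hn
        · exact mem_union_left _ (mem_filter.2 ⟨a1, a2⟩)
        · exact mem_union_right _ (mem_filter.2 ⟨a1, a2⟩)
      have h3 := (card_le_card h2).trans (card_union_le _ _)
      have h4 : (((V.filter fun v3 => BadV L vc c r v1 v2 v3).card : ℕ) : ℝ) ≤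
          ((V.filter fun v3 => ClP L vc c r v1 v3).card : ℝ) +
          ((V.filter fun v3 => ClP L vc c r v2 v3).card : ℝ) := by
        exact_mod_cast h3
      have h5 := hclc v1 (V.filter fun v3 => ClP L vc c r v1 v3) (filter_subset _ _)
        fun v hv => (mem_filter.1 hv).2
      have h6 := hclc v2 (V.filter fun v3 => ClP L vc c r v2 v3) (filter_subset _ _)
        fun v hv => (mem_filter.1 hv).2
      linarith)
  refine h1.trans ?_
  have : 0 ≤ (V.card : ℝ) ^ 3 := by positivity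
  nlinarith

set_option maxHeartbeats 800000 in
/-- **positions** -/
theorem grid_step1 (G : Grid L pc vc a b c s β ζ Z Φ κ M δ) {P V : Finset ℕ} {W D r q η : ℝ}
    (C : GCnt L pc vc a b c P V W D r q η) (hL : L.Nonempty) (hD : 0 < D)
    (dens : D * W * P.card * V.card ≤ L.card) (hr : 0 < r) (hr1 : r ≤ 1) (hδr : δ ≤ r)
    {κ0 : ℝ} (hκ0 : 0 < κ0) (hκ01 : κ0 ≤ 1) (hκ : κ0 ≤ |κ|) (hη : 3 * η ≤ D ^ 3 / 16) :
    ∃ l1 l2 m1 m2 : ℝ, |l1| ≤ 10 * M ^ 2 / (κ0 * r ^ 2) ∧ |l2| ≤ 10 * M ^ 2 / (κ0 * r ^ 2) ∧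
      |m1| ≤ 4 * M / (κ0 * r ^ 2) ∧ |m2| ≤ 4 * M / (κ0 * r ^ 2) ∧
      ∃ L1 ⊆ L, D ^ 3 / 32 * (L.card : ℝ) ≤ L1.card ∧ ∀ l ∈ L1, ∀ l' ∈ L1,
        |(s l - s l') - l1 * (b l - b l') - l2 * (a l - a l')| ≤ 400 * M ^ 3 * δ / (κ0 * r ^ 2) ∧
        |(β l - β l') - m1 * (b l - b l') - m2 * (a l - a l')| ≤ 400 * M ^ 3 * δ / (κ0 * r ^ 2) := by
  have hM := G.M1
  have hδ := G.δ0
  obtain ⟨v1, -, v2, -, v3, -, hgood, L1, hL1, hcard, hcomp⟩ :=
    triple_pigeon L pc vc P V C.hp C.hv C.W0 hD C.fib hL dens _ (badV_card G C hδr hη)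
  have hL0 : (0 : ℝ) < L.card := by exact_mod_cast hL.card_pos
  have hL1ne : L1.Nonempty := by
    rw [← card_pos]
    have : (0 : ℝ) < L1.card := lt_of_lt_of_le (by positivity) hcard
    exact_mod_cast this
  obtain ⟨k, hk⟩ := hL1ne
  obtain ⟨⟨r1, hr1L, er1, fr1⟩, ⟨r2, hr2L, er2, fr2⟩, ⟨r3, hr3L, er3, fr3⟩⟩ := hcomp k hk
  have s12 : r ≤ |c r1 - c r2| := by
    by_contra h
    exact hgood (Or.inl ⟨r1, hr1L, r2, hr2L, fr1, fr2, not_le.1 h⟩)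
  have s13 : r ≤ |c r1 - c r3| := by
    by_contra h
    exact hgood (Or.inr (Or.inl ⟨r1, hr1L, r3, hr3L, fr1, fr3, not_le.1 h⟩))
  have s23 : r ≤ |c r3 - c r2| := by
    rw [abs_sub_comm]
    by_contra h
    exact hgood (Or.inr (Or.inr ⟨r2, hr2L, r3, hr3L, fr2, fr3, not_le.1 h⟩))
  obtain ⟨-, -, b13, -, -, b16, b17⟩ := G.bd r1 hr1L
  obtain ⟨-, -, b23, -, -, b26, b27⟩ := G.bd r2 hr2L
  obtain ⟨-, -, b33, -, -, b36, b37⟩ := G.bd r3 hr3L
  -- relation for one pair of cells, against the line k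
  have rel : ∀ l ∈ L1, ∀ p p' ri rj : _, p ∈ L → p' ∈ L → ri ∈ L → rj ∈ L → pc p = pc l →
      pc p' = pc l → pc ri = pc k → pc rj = pc k → vc p = vc ri → vc p' = vc rj →
      |(c ri - c rj) * (s l - s k) - κ * (c ri ^ 2 - c rj ^ 2) * (β l - β k) -
        ((ζ ri - ζ rj) * (b l - b k) + (Z ri - Z rj) * (a l - a k))| ≤ 40 * M ^ 2 * δ := by
    intro l hl p p' ri rj hp hp' hri hrj e1 e2 e3 e4 e5 e6
    have hlL := hL1 hl
    have hkL := hL1 hk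
    have g1 := G.pP' hp hp' hri hrj (e1.trans e2.symm) e5 e6 hlL hlL e1.symm e2.symm
    have g2 := G.pP' hri hrj hri hrj (e3.trans e4.symm) rfl rfl hkL hkL e3.symm e4.symm
    have g3 := G.vP' hp hri hlL hkL e5 e1 e3 hri hri e5.symm rfl
    have g4 := G.vP' hp' hrj hlL hkL e6 e2 e4 hrj hrj e6.symm rfl
    have hMδ : M * δ ≤ M ^ 2 * δ := by nlinarith [mul_nonneg hδ (by nlinarith : 0 ≤ M ^ 2 - M)]
    have e : (c ri - c rj) * (s l - s k) - κ * (c ri ^ 2 - c rj ^ 2) * (β l - β k) -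
        ((ζ ri - ζ rj) * (b l - b k) + (Z ri - Z rj) * (a l - a k)) =
        (((Φ p - ζ ri * b l - Z ri * a l) - (Φ ri - ζ ri * b k - Z ri * a k)) -
        ((Φ p' - ζ rj * b l - Z rj * a l) - (Φ rj - ζ rj * b k - Z rj * a k))) -
        (((Φ p - c ri * s l + κ * c ri ^ 2 * β l) - (Φ p' - c rj * s l + κ * c rj ^ 2 * β l)) -
        ((Φ ri - c ri * s k + κ * c ri ^ 2 * β k) - (Φ rj - c rj * s k + κ * c rj ^ 2 * β k))) := by
      ring
    rw [e]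
    have k1 := abs_sub (((Φ p - ζ ri * b l - Z ri * a l) - (Φ ri - ζ ri * b k - Z ri * a k)) -
        ((Φ p' - ζ rj * b l - Z rj * a l) - (Φ rj - ζ rj * b k - Z rj * a k)))
        (((Φ p - c ri * s l + κ * c ri ^ 2 * β l) - (Φ p' - c rj * s l + κ * c rj ^ 2 * β l)) -
        ((Φ ri - c ri * s k + κ * c ri ^ 2 * β k) - (Φ rj - c rj * s k + κ * c rj ^ 2 * β k)))
    have k2 := abs_sub ((Φ p - ζ ri * b l - Z ri * a l) - (Φ ri - ζ ri * b k - Z ri * a k))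
        ((Φ p' - ζ rj * b l - Z rj * a l) - (Φ rj - ζ rj * b k - Z rj * a k))
    have k3 := abs_sub ((Φ p - c ri * s l + κ * c ri ^ 2 * β l) -
        (Φ p' - c rj * s l + κ * c rj ^ 2 * β l))
        ((Φ ri - c ri * s k + κ * c ri ^ 2 * β k) - (Φ rj - c rj * s k + κ * c rj ^ 2 * β k))
    linarith
  have hδe : (0 : ℝ) ≤ 40 * M ^ 2 * δ := by positivity
  -- the slopes
  set z12 := (ζ r1 - ζ r2) / (c r1 - c r2) with hz12
  set z13 := (ζ r1 - ζ r3) / (c r1 - c r3) with hz13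
  set Z12 := (Z r1 - Z r2) / (c r1 - c r2) with hZ12
  set Z13 := (Z r1 - Z r3) / (c r1 - c r3) with hZ13
  set m1 := (z12 - z13) / (κ * (c r3 - c r2)) with hm1
  set m2 := (Z12 - Z13) / (κ * (c r3 - c r2)) with hm2
  have bq : ∀ x y : ℝ, |x| ≤ M → |y| ≤ M → ∀ w : ℝ, r ≤ |w| → |(x - y) / w| ≤ 2 * M / r := by
    intro x y hx hy w hw
    rw [abs_div]
    refine div_le_div₀ (by linarith) ?_ hr hw
    have := abs_sub x y; linarith
  have bz12 := bq _ _ b16 b26 _ s12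
  have bz13 := bq _ _ b16 b36 _ s13
  have bZ12 := bq _ _ b17 b27 _ s12
  have bZ13 := bq _ _ b17 b37 _ s13
  have bm : ∀ x y : ℝ, |x| ≤ 2 * M / r → |y| ≤ 2 * M / r →
      |(x - y) / (κ * (c r3 - c r2))| ≤ 4 * M / (κ0 * r ^ 2) := by
    intro x y hx hy
    rw [abs_div, abs_mul]
    have h1 : |x - y| ≤ 4 * M / r := by
      have := abs_sub x y
      have e : 4 * M / r = 2 * M / r + 2 * M / r := by ring
      linarith
    have h2 : κ0 * r ≤ |κ| * |c r3 - c r2| := mul_le_mul hκ s23 hr.le (abs_nonneg _)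
    refine (div_le_div₀ (by positivity) h1 (by positivity) h2).trans (le_of_eq ?_)
    field_simp
  have bm1 := bm _ _ bz12 bz13
  have bm2 := bm _ _ bZ12 bZ13
  have bl : ∀ x y : ℝ, |x| ≤ 2 * M / r → |y| ≤ 4 * M / (κ0 * r ^ 2) →
      |x + κ * (c r1 + c r2) * y| ≤ 10 * M ^ 2 / (κ0 * r ^ 2) := by
    intro x y hx hy
    have h1 : |κ * (c r1 + c r2) * y| ≤ 2 * M * (4 * M / (κ0 * r ^ 2)) := by
      rw [abs_mul, abs_mul]
      have h4 : |c r1 + c r2| ≤ 2 * M := (abs_add_le _ _).trans (by linarith)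
      have h5 : |κ| * |c r1 + c r2| ≤ 2 * M := by
        calc |κ| * |c r1 + c r2| ≤ 1 * (2 * M) := mul_le_mul G.κ1 h4 (abs_nonneg _) zero_le_one
          _ = 2 * M := one_mul _
      exact mul_le_mul h5 hy (abs_nonneg _) (by linarith)
    have h6 : 2 * M / r ≤ 2 * M ^ 2 / (κ0 * r ^ 2) := by
      refine div_le_div₀ (by positivity) (by nlinarith) (by positivity) ?_
      have : r ^ 2 ≤ r := by nlinarith
      nlinarith
    have e : 10 * M ^ 2 / (κ0 * r ^ 2) = 2 * M ^ 2 / (κ0 * r ^ 2) +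
      2 * M * (4 * M / (κ0 * r ^ 2)) := by ring
    have := abs_add_le x (κ * (c r1 + c r2) * y)
    linarith
  refine ⟨z12 + κ * (c r1 + c r2) * m1, Z12 + κ * (c r1 + c r2) * m2, m1, m2, bl _ _ bz12 bm1,
    bl _ _ bZ12 bm2, bm1, bm2, ?_⟩
  -- against the line k
  have main : ∀ l ∈ L1,
      |(s l - s k) - (z12 + κ * (c r1 + c r2) * m1) * (b l - b k) -
        (Z12 + κ * (c r1 + c r2) * m2) * (a l - a k)| ≤ 200 * M ^ 3 * δ / (κ0 * r ^ 2) ∧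
      |(β l - β k) - m1 * (b l - b k) - m2 * (a l - a k)| ≤ 80 * M ^ 2 * δ / (κ0 * r ^ 2) := by
    intro l hl
    obtain ⟨⟨p1, hp1, e1, f1⟩, ⟨p2, hp2, e2, f2⟩, ⟨p3, hp3, e3, f3⟩⟩ := hcomp l hl
    have g12 := rel l hl p1 p2 r1 r2 hp1 hp2 hr1L hr2L e1 e2 er1 er2 (f1.trans fr1.symm)
      (f2.trans fr2.symm)
    have g13 := rel l hl p1 p3 r1 r3 hp1 hp3 hr1L hr3L e1 e3 er1 er3 (f1.trans fr1.symm)
      (f3.trans fr3.symm)
    obtain ⟨k1, k2⟩ := solve1 hr hκ0 hκ G.κ1 hM hδe hκ01 hr1 s12 s13 s23 b13 b23 g12 g13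
    have x12 : ((ζ r1 - ζ r2) * (b l - b k) + (Z r1 - Z r2) * (a l - a k)) / (c r1 - c r2) =
        z12 * (b l - b k) + Z12 * (a l - a k) := by rw [hz12, hZ12]; ring
    have x13 : ((ζ r1 - ζ r3) * (b l - b k) + (Z r1 - Z r3) * (a l - a k)) / (c r1 - c r3) =
        z13 * (b l - b k) + Z13 * (a l - a k) := by rw [hz13, hZ13]; ring
    rw [x12, x13] at k1 k2
    have x : (z12 * (b l - b k) + Z12 * (a l - a k) - (z13 * (b l - b k) + Z13 * (a l - a k))) /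
        (κ * (c r3 - c r2)) = m1 * (b l - b k) + m2 * (a l - a k) := by rw [hm1, hm2]; ring
    rw [x] at k1 k2
    constructor
    · refine le_trans (le_of_eq ?_) (k2.trans (le_of_eq ?_))
      · congr 1; ring
      · ring
    · refine le_trans (le_of_eq ?_) (k1.trans (le_of_eq ?_))
      · congr 1; ring
      · ring
  refine ⟨L1, hL1, hcard, ?_⟩
  intro l hl l' hl'
  obtain ⟨k1, k2⟩ := main l hl
  obtain ⟨k3, k4⟩ := main l' hl'
  have hpos : 0 < κ0 * r ^ 2 := by positivity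
  constructor
  · have e : (s l - s l') - (z12 + κ * (c r1 + c r2) * m1) * (b l - b l') -
        (Z12 + κ * (c r1 + c r2) * m2) * (a l - a l') =
        ((s l - s k) - (z12 + κ * (c r1 + c r2) * m1) * (b l - b k) -
        (Z12 + κ * (c r1 + c r2) * m2) * (a l - a k)) -
        ((s l' - s k) - (z12 + κ * (c r1 + c r2) * m1) * (b l' - b k) -
        (Z12 + κ * (c r1 + c r2) * m2) * (a l' - a k)) := by ring
    rw [e]
    refine (abs_sub _ _).trans ?_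
    have e2 : 400 * M ^ 3 * δ / (κ0 * r ^ 2) = 200 * M ^ 3 * δ / (κ0 * r ^ 2) +
      200 * M ^ 3 * δ / (κ0 * r ^ 2) := by ring
    linarith
  · have e : (β l - β l') - m1 * (b l - b l') - m2 * (a l - a l') =
        ((β l - β k) - m1 * (b l - b k) - m2 * (a l - a k)) -
        ((β l' - β k) - m1 * (b l' - b k) - m2 * (a l' - a k)) := by ring
    rw [e]
    refine (abs_sub _ _).trans ?_
    have e2 : 80 * M ^ 2 * δ / (κ0 * r ^ 2) ≤ 200 * M ^ 3 * δ / (κ0 * r ^ 2) := by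
      refine div_le_div_of_nonneg_right ?_ hpos.le
      have h1 : M ^ 2 * δ ≤ M ^ 3 * δ := by
        have : 0 ≤ M ^ 2 * δ := by positivity
        nlinarith
      have : 0 ≤ M ^ 2 * δ := by positivity
      linarith
    have e3 : 400 * M ^ 3 * δ / (κ0 * r ^ 2) = 200 * M ^ 3 * δ / (κ0 * r ^ 2) +
      200 * M ^ 3 * δ / (κ0 * r ^ 2) := by ring
    linarith

end Crest.Agent.R136.Qd329
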