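import Crest.Agent.R136.Qd3_329

/-!
# R136: the bilinear rigidity, finite form (helper329), part 4

`grid_step2` (velocities) and `grid_quad`.
-/

set_option autoImplicit false

namespace Crest.Agent.R136.Qd329

open Finset

variable {α : Type*} {L : Finset α} {pc vc : α → ℕ} {a b c s β ζ Z Φ : α → ℝ} {κ M δ : ℝ}

/-- the triangle of three lines is degenerate -/
def crs (a b : α → ℝ) (l1 l2 l3 : α) : ℝ :=
  (b l2 - b l1) * (a l3 - a l1) - (b l3 - b l1) * (a l2 - a l1)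

/-- bad triples of position cells -/
def BadP (L : Finset α) (pc : α → ℕ) (a b : α → ℝ) (ω : ℝ) (p1 p2 p3 : ℕ) : Prop :=
  ∃ l1 ∈ L, ∃ l2 ∈ L, ∃ l3 ∈ L, pc l1 = p1 ∧ pc l2 = p2 ∧ pc l3 = p3 ∧ |crs a b l1 l2 l3| < ω

/-- two position cells are close in the coordinate `b` -/
def ClB (L : Finset α) (pc : α → ℕ) (b : α → ℝ) (q : ℝ) (p1 p2 : ℕ) : Prop :=
  ∃ l1 ∈ L, ∃ l2 ∈ L, pc l1 = p1 ∧ pc l2 = p2 ∧ |b l1 - b l2| < q

theorem crs_close (G : Grid L pc vc a b c s β ζ Z Φ κ M δ) {l1 l2 l3 k1 k2 : α} (h1 : l1 ∈ L)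
    (h2 : l2 ∈ L) (h3 : l3 ∈ L) (g1 : k1 ∈ L) (g2 : k2 ∈ L) (e1 : pc l1 = pc k1)
    (e2 : pc l2 = pc k2) : |crs a b l1 l2 l3 - crs a b k1 k2 l3| ≤ 16 * M * δ := by
  have hM := G.M1
  obtain ⟨a1, b1, -, -⟩ := G.pcl l1 h1 k1 g1 e1
  obtain ⟨a2, b2, -, -⟩ := G.pcl l2 h2 k2 g2 e2
  obtain ⟨ba1, bb1, -⟩ := G.bd l1 h1
  obtain ⟨ba2, bb2, -⟩ := G.bd l2 h2
  obtain ⟨ba3, bb3, -⟩ := G.bd l3 h3
  obtain ⟨ca1, cb1, -⟩ := G.bd k1 g1
  obtain ⟨ca2, cb2, -⟩ := G.bd k2 g2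
  have t1 : ∀ x y x' y' : ℝ, |x - x'| ≤ δ → |y - y'| ≤ δ → |(x - y) - (x' - y')| ≤ 2 * δ := by
    intro x y x' y' h h'
    have e : (x - y) - (x' - y') = (x - x') - (y - y') := by ring
    rw [e]
    have := abs_sub (x - x') (y - y')
    linarith
  have t2 : ∀ x y : ℝ, |x| ≤ M → |y| ≤ M → |x - y| ≤ 2 * M := by
    intro x y h h'
    have := abs_sub x y
    linarith
  have z : ∀ x : ℝ, |x - x| ≤ δ := by intro x; rw [sub_self, abs_zero]; exact G.δ0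
  have m1 := mul_close (t1 _ _ _ _ b2 b1) (t1 (a l3) _ (a l3) _ (z _) a1) (t2 _ _ bb2 bb1)
    (t2 _ _ ba3 ca1)
  have m2 := mul_close (t1 (b l3) _ (b l3) _ (z _) b1) (t1 _ _ _ _ a2 a1) (t2 _ _ bb3 bb1)
    (t2 _ _ ca2 ca1)
  unfold crs
  have e : (b l2 - b l1) * (a l3 - a l1) - (b l3 - b l1) * (a l2 - a l1) -
      ((b k2 - b k1) * (a l3 - a k1) - (b l3 - b k1) * (a k2 - a k1)) =
      ((b l2 - b l1) * (a l3 - a l1) - (b k2 - b k1) * (a l3 - a k1)) -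
      ((b l3 - b l1) * (a l2 - a l1) - (b l3 - b k1) * (a k2 - a k1)) := by ring
  rw [e]
  refine (abs_sub _ _).trans ?_
  linarith

open Classical in
theorem badP_card (G : Grid L pc vc a b c s β ζ Z Φ κ M δ) {P V : Finset ℕ} {W D r q η : ℝ}
    (C : GCnt L pc vc a b c P V W D r q η) (hq : 0 < q) (hδq : 2 * δ ≤ q)
    (hδω : 64 * M * δ ≤ q ^ 2) {E : ℝ} (hη : 2 * η ≤ E) :
    (((P ×ˢ P ×ˢ P).filter fun t => BadP L pc a b (q ^ 2 / 4) t.1 t.2.1 t.2.2).card : ℝ) ≤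
      E * (P.card : ℝ) ^ 3 := by
  have hM := G.M1
  have hδ := G.δ0
  have hP0 : (0 : ℝ) ≤ P.card := Nat.cast_nonneg _
  have h1 := bad_card P (ClB L pc b (q / 2)) (BadP L pc a b (q ^ 2 / 4)) (η := η) (η' := η) C.η0
    (fun p1 _ => by
      rcases (P.filter fun p2 => ClB L pc b (q / 2) p1 p2).eq_empty_or_nonempty with h | ⟨p0, h0⟩
      · rw [h, card_empty, Nat.cast_zero]
        exact mul_nonneg C.η0 hP0
      · obtain ⟨k, hk, -, -, hkp, -, -⟩ := (mem_filter.1 h0).2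
        refine C.hs 1 0 (b k) (Or.inl (by simp)) _ (filter_subset _ _) fun p hp => ?_
        obtain ⟨l1, hl1, l2, hl2, e1, e2, e3⟩ := (mem_filter.1 hp).2
        refine ⟨l2, hl2, e2, ?_⟩
        have h4 := (G.pcl l1 hl1 k hk (e1.trans hkp.symm)).2.1
        have e4 : 1 * b l2 + 0 * a l2 - b k = (b l1 - b k) - (b l1 - b l2) := by ring
        rw [e4]
        have := abs_sub (b l1 - b k) (b l1 - b l2)
        linarith)
    (fun p1 hp1 p2 hp2 hn => by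
      rcases (P.filter fun p3 => BadP L pc a b (q ^ 2 / 4) p1 p2 p3).eq_empty_or_nonempty with
        h | ⟨p0, h0⟩
      · rw [h, card_empty, Nat.cast_zero]
        exact mul_nonneg C.η0 hP0
      · obtain ⟨k1, hk1, k2, hk2, -, -, f1, f2, -, -⟩ := (mem_filter.1 h0).2
        have hfar : q / 2 ≤ |b k2 - b k1| := by
          by_contra hcon
          exact hn ⟨k1, hk1, k2, hk2, f1, f2, by rw [abs_sub_comm]; exact not_le.1 hcon⟩
        set Dd := max |b k2 - b k1| |a k2 - a k1| with hDd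
        have hD1 : q / 2 ≤ Dd := hfar.trans (le_max_left _ _)
        have hD0 : 0 < Dd := by linarith
        set n1 := -(a k2 - a k1) / Dd with hn1
        set n2 := (b k2 - b k1) / Dd with hn2
        have hn12 : |n1| = 1 ∨ |n2| = 1 := by
          rcases max_cases |b k2 - b k1| |a k2 - a k1| with ⟨h5, -⟩ | ⟨h5, -⟩
          · right
            rw [hn2, abs_div, abs_of_pos hD0, hDd, h5]
            exact div_self (by rw [← h5, ← hDd]; exact hD0.ne')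
          · left
            rw [hn1, abs_div, abs_neg, abs_of_pos hD0, hDd, h5]
            exact div_self (by rw [← h5, ← hDd]; exact hD0.ne')
        refine C.hs n1 n2 (n1 * b k1 + n2 * a k1) hn12 _ (filter_subset _ _) fun p hp => ?_
        obtain ⟨l1, hl1, l2, hl2, l3, hl3, e1, e2, e3, e4⟩ := (mem_filter.1 hp).2
        refine ⟨l3, hl3, e3, ?_⟩
        have h6 := crs_close G hl1 hl2 hl3 hk1 hk2 (e1.trans f1.symm) (e2.trans f2.symm)
        have h7 : |crs a b k1 k2 l3| ≤ q ^ 2 / 2 := by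
          have e5 : crs a b k1 k2 l3 = crs a b l1 l2 l3 - (crs a b l1 l2 l3 - crs a b k1 k2 l3) := by
            ring
          rw [e5]
          refine (abs_sub _ _).trans ?_
          linarith
        have e8 : n1 * b l3 + n2 * a l3 - (n1 * b k1 + n2 * a k1) = crs a b k1 k2 l3 / Dd := by
          rw [hn1, hn2]
          unfold crs
          field_simp
          ring
        rw [e8, abs_div, abs_of_pos hD0, div_le_iff₀ hD0]
        refine h7.trans ?_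
        nlinarith)
  refine h1.trans ?_
  have : 0 ≤ (P.card : ℝ) ^ 3 := by positivity
  nlinarith

set_option maxHeartbeats 800000 in
open Classical in
/-- **velocities** -/
theorem grid_step2 (G : Grid L pc vc a b c s β ζ Z Φ κ M δ) {P V : Finset ℕ} {W D r q η : ℝ}
    (C : GCnt L pc vc a b c P V W D r q η) (hq : 0 < q) (hδq : 2 * δ ≤ q)
    (hδω : 64 * M * δ ≤ q ^ 2) {L1 : Finset α} (hL1 : L1 ⊆ L) (hne : L1.Nonempty) {D1 : ℝ}
    (hD1 : 0 < D1) (dens : D1 * W * P.card * V.card ≤ L1.card) (hη : 2 * η ≤ D1 ^ 3 / 16)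
    {l1 l2 m1 m2 e1 : ℝ} (he1 : 40 * δ ≤ e1)
    (hrel : ∀ l ∈ L1, ∀ l' ∈ L1, |(s l - s l') - l1 * (b l - b l') - l2 * (a l - a l')| ≤ e1 ∧
        |(β l - β l') - m1 * (b l - b l') - m2 * (a l - a l')| ≤ e1) :
    ∃ L2 ⊆ L1, D1 ^ 3 / 32 * (L1.card : ℝ) ≤ L2.card ∧ ∀ l ∈ L2, ∀ l' ∈ L2,
        |(ζ l - ζ l') - l1 * (c l - c l') + κ * m1 * (c l ^ 2 - c l' ^ 2)| ≤
          160 * M ^ 3 * e1 / q ^ 2 ∧
        |(Z l - Z l') - l2 * (c l - c l') + κ * m2 * (c l ^ 2 - c l' ^ 2)| ≤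
          160 * M ^ 3 * e1 / q ^ 2 := by
  have hM := G.M1
  have hδ := G.δ0
  have he0 : 0 ≤ e1 := by linarith
  have hbad0 := badP_card G C hq hδq hδω hη
  have hdens' : D1 * W * V.card * P.card ≤ L1.card := by
    have e : D1 * W * V.card * P.card = D1 * W * P.card * V.card := by ring
    rw [e]; exact dens
  obtain ⟨p1, -, p2, -, p3, -, hgood, L2, hL2, hcard, hcomp⟩ :=
    triple_pigeon L1 vc pc V P (fun l hl => C.hv l (hL1 hl)) (fun l hl => C.hp l (hL1 hl)) C.W0 hD1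
      (fun v p => by
        refine le_trans ?_ (C.fib p v)
        refine Nat.cast_le.2 (card_le_card fun l hl => ?_)
        obtain ⟨x1, x2, x3⟩ := mem_filter.1 hl
        exact mem_filter.2 ⟨hL1 x1, x3, x2⟩) hne hdens' _ hbad0
  refine ⟨L2, hL2, hcard, ?_⟩
  have hL1c : (0 : ℝ) < L1.card := by exact_mod_cast hne.card_pos
  -- relation of one pair
  have rel : ∀ l ∈ L2, ∀ k ∈ L2, ∀ p p' ri rj : α, p ∈ L1 → p' ∈ L1 → ri ∈ L1 → rj ∈ L1 →
      vc p = vc l → vc p' = vc l → vc ri = vc k → vc rj = vc k → pc p = pc ri → pc p' = pc rj →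
      |(l1 * (c l - c k) - κ * m1 * (c l ^ 2 - c k ^ 2) - (ζ l - ζ k)) * (b ri - b rj) +
        (l2 * (c l - c k) - κ * m2 * (c l ^ 2 - c k ^ 2) - (Z l - Z k)) * (a ri - a rj)| ≤
        5 * M ^ 2 * e1 := by
    intro l hl k hk p p' ri rj hp hp' hri hrj e1' e2 e3 e4 e5 e6
    have hlL := hL1 (hL2 hl)
    have hkL := hL1 (hL2 hk)
    have hpL := hL1 hp
    have hp'L := hL1 hp'
    have hriL := hL1 hri
    have hrjL := hL1 hrj
    have g1 := G.vP' hpL hp'L hriL hrjL (e1'.trans e2.symm) e5 e6 hlL hlL e1'.symm e2.symm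
    have g2 := G.vP' hriL hrjL hriL hrjL (e3.trans e4.symm) rfl rfl hkL hkL e3.symm e4.symm
    have g3 := G.pP' hpL hriL hlL hkL e5 e1' e3 hriL hriL e5.symm rfl
    have g4 := G.pP' hp'L hrjL hlL hkL e6 e2 e4 hrjL hrjL e6.symm rfl
    obtain ⟨r1, r2⟩ := hrel ri hri rj hrj
    obtain ⟨-, -, bc, -⟩ := G.bd l hlL
    obtain ⟨-, -, bc', -⟩ := G.bd k hkL
    have hMδ : M * δ ≤ M ^ 2 * δ := by nlinarith [mul_nonneg hδ (by nlinarith : 0 ≤ M ^ 2 - M)]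
    -- combined
    have c1 : |(c l - c k) * (s ri - s rj) - κ * (c l ^ 2 - c k ^ 2) * (β ri - β rj) -
        ((ζ l - ζ k) * (b ri - b rj) + (Z l - Z k) * (a ri - a rj))| ≤ 40 * M ^ 2 * δ := by
      have e : (c l - c k) * (s ri - s rj) - κ * (c l ^ 2 - c k ^ 2) * (β ri - β rj) -
          ((ζ l - ζ k) * (b ri - b rj) + (Z l - Z k) * (a ri - a rj)) =
          (((Φ p - ζ l * b ri - Z l * a ri) - (Φ p' - ζ l * b rj - Z l * a rj)) -
          ((Φ ri - ζ k * b ri - Z k * a ri) - (Φ rj - ζ k * b rj - Z k * a rj))) -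
          (((Φ p - c l * s ri + κ * c l ^ 2 * β ri) - (Φ ri - c k * s ri + κ * c k ^ 2 * β ri)) -
          ((Φ p' - c l * s rj + κ * c l ^ 2 * β rj) - (Φ rj - c k * s rj + κ * c k ^ 2 * β rj))) := by
        ring
      rw [e]
      have k1 := abs_sub (((Φ p - ζ l * b ri - Z l * a ri) - (Φ p' - ζ l * b rj - Z l * a rj)) -
          ((Φ ri - ζ k * b ri - Z k * a ri) - (Φ rj - ζ k * b rj - Z k * a rj)))
          (((Φ p - c l * s ri + κ * c l ^ 2 * β ri) - (Φ ri - c k * s ri + κ * c k ^ 2 * β ri)) -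
          ((Φ p' - c l * s rj + κ * c l ^ 2 * β rj) - (Φ rj - c k * s rj + κ * c k ^ 2 * β rj)))
      have k2 := abs_sub ((Φ p - ζ l * b ri - Z l * a ri) - (Φ p' - ζ l * b rj - Z l * a rj))
          ((Φ ri - ζ k * b ri - Z k * a ri) - (Φ rj - ζ k * b rj - Z k * a rj))
      have k3 := abs_sub
        ((Φ p - c l * s ri + κ * c l ^ 2 * β ri) - (Φ ri - c k * s ri + κ * c k ^ 2 * β ri))
        ((Φ p' - c l * s rj + κ * c l ^ 2 * β rj) - (Φ rj - c k * s rj + κ * c k ^ 2 * β rj))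
      linarith
    have bΔ : |c l - c k| ≤ 2 * M := by have := abs_sub (c l) (c k); linarith
    have bΔ2 : |κ * (c l ^ 2 - c k ^ 2)| ≤ 2 * M ^ 2 := by
      have x1 : |c l ^ 2 - c k ^ 2| ≤ 2 * M ^ 2 := by
        have y1 : |c l ^ 2| ≤ M ^ 2 := by rw [abs_pow]; exact pow_le_pow_left₀ (abs_nonneg _) bc 2
        have y2 : |c k ^ 2| ≤ M ^ 2 := by rw [abs_pow]; exact pow_le_pow_left₀ (abs_nonneg _) bc' 2
        have := abs_sub (c l ^ 2) (c k ^ 2)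
        linarith
      rw [abs_mul]
      calc |κ| * |c l ^ 2 - c k ^ 2| ≤ 1 * (2 * M ^ 2) :=
            mul_le_mul G.κ1 x1 (abs_nonneg _) zero_le_one
        _ = _ := one_mul _
    have e : (l1 * (c l - c k) - κ * m1 * (c l ^ 2 - c k ^ 2) - (ζ l - ζ k)) * (b ri - b rj) +
        (l2 * (c l - c k) - κ * m2 * (c l ^ 2 - c k ^ 2) - (Z l - Z k)) * (a ri - a rj) =
        ((c l - c k) * (s ri - s rj) - κ * (c l ^ 2 - c k ^ 2) * (β ri - β rj) -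
        ((ζ l - ζ k) * (b ri - b rj) + (Z l - Z k) * (a ri - a rj))) -
        (c l - c k) * ((s ri - s rj) - l1 * (b ri - b rj) - l2 * (a ri - a rj)) +
        (κ * (c l ^ 2 - c k ^ 2)) * ((β ri - β rj) - m1 * (b ri - b rj) - m2 * (a ri - a rj)) := by
      ring
    rw [e]
    have q1 : |(c l - c k) * ((s ri - s rj) - l1 * (b ri - b rj) - l2 * (a ri - a rj))| ≤
        2 * M * e1 := by
      rw [abs_mul]; exact mul_le_mul bΔ r1 (abs_nonneg _) (by linarith)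
    have q2 : |(κ * (c l ^ 2 - c k ^ 2)) *
        ((β ri - β rj) - m1 * (b ri - b rj) - m2 * (a ri - a rj))| ≤ 2 * M ^ 2 * e1 := by
      rw [abs_mul]; exact mul_le_mul bΔ2 r2 (abs_nonneg _) (by positivity)
    refine (abs_add_le _ _).trans ?_
    have q3 := abs_sub ((c l - c k) * (s ri - s rj) - κ * (c l ^ 2 - c k ^ 2) * (β ri - β rj) -
        ((ζ l - ζ k) * (b ri - b rj) + (Z l - Z k) * (a ri - a rj)))
        ((c l - c k) * ((s ri - s rj) - l1 * (b ri - b rj) - l2 * (a ri - a rj)))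
    have q4 : 40 * M ^ 2 * δ ≤ M ^ 2 * e1 := by nlinarith [sq_nonneg M]
    have q5 : M * e1 ≤ M ^ 2 * e1 := by nlinarith [mul_nonneg he0 (by nlinarith : 0 ≤ M ^ 2 - M)]
    linarith
  intro l hl k hk
  obtain ⟨⟨t1, ht1, f1, g1⟩, ⟨t2, ht2, f2, g2⟩, ⟨t3, ht3, f3, g3⟩⟩ := hcomp l hl
  obtain ⟨⟨r1, hr1, x1, y1⟩, ⟨r2, hr2, x2, y2⟩, ⟨r3, hr3, x3, y3⟩⟩ := hcomp k hk
  have R2 := rel l hl k hk t2 t1 r2 r1 ht2 ht1 hr2 hr1 f2 f1 x2 x1 (g2.trans y2.symm)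
    (g1.trans y1.symm)
  have R3 := rel l hl k hk t3 t1 r3 r1 ht3 ht1 hr3 hr1 f3 f1 x3 x1 (g3.trans y3.symm)
    (g1.trans y1.symm)
  have hω : q ^ 2 / 4 ≤ |(b r2 - b r1) * (a r3 - a r1) - (b r3 - b r1) * (a r2 - a r1)| := by
    by_contra hcon
    exact hgood ⟨r1, hL1 hr1, r2, hL1 hr2, r3, hL1 hr3, y1, y2, y3, not_le.1 hcon⟩
  obtain ⟨b1, b1', -⟩ := G.bd r1 (hL1 hr1)
  obtain ⟨b2, b2', -⟩ := G.bd r2 (hL1 hr2)
  obtain ⟨b3, b3', -⟩ := G.bd r3 (hL1 hr3)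
  have t2' : ∀ x y : ℝ, |x| ≤ M → |y| ≤ M → |x - y| ≤ 2 * M := by
    intro x y h h'
    have := abs_sub x y
    linarith
  obtain ⟨k1, k2⟩ := solve2 (by positivity : 0 < q ^ 2 / 4) (by linarith : 0 ≤ M)
    (by positivity : 0 ≤ 5 * M ^ 2 * e1) hω (t2' _ _ b2 b1) (t2' _ _ b2' b1') (t2' _ _ b3 b1)
    (t2' _ _ b3' b1') R2 R3
  have e5 : 4 * M * (5 * M ^ 2 * e1) / (q ^ 2 / 4) = 80 * M ^ 3 * e1 / q ^ 2 := by
    field_simp; ring
  rw [e5] at k1 k2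
  have h80 : 80 * M ^ 3 * e1 / q ^ 2 ≤ 160 * M ^ 3 * e1 / q ^ 2 := by
    refine div_le_div_of_nonneg_right ?_ (by positivity)
    have : 0 ≤ M ^ 3 * e1 := by positivity
    nlinarith
  constructor
  · refine le_trans (le_of_eq ?_) (k1.trans h80)
    rw [← abs_neg]
    congr 1; ring
  · refine le_trans (le_of_eq ?_) (k2.trans h80)
    rw [← abs_neg]
    congr 1; ring

/-- **positions and velocities** -/
theorem grid_quad (G : Grid L pc vc a b c s β ζ Z Φ κ M δ) {P V : Finset ℕ} {W D r q η : ℝ}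
    (C : GCnt L pc vc a b c P V W D r q η) (hL : L.Nonempty) (hD : 0 < D)
    (dens : D * W * P.card * V.card ≤ L.card) (hr : 0 < r) (hr1 : r ≤ 1) (hδr : δ ≤ r)
    {κ0 : ℝ} (hκ0 : 0 < κ0) (hκ01 : κ0 ≤ 1) (hκ : κ0 ≤ |κ|) (hη : 3 * η ≤ D ^ 3 / 16)
    (hq : 0 < q) (hδq : 2 * δ ≤ q) (hδω : 64 * M * δ ≤ q ^ 2)
    (hη2 : 2 * η ≤ (D ^ 4 / 32) ^ 3 / 16) :
    ∃ l1 l2 m1 m2 : ℝ, |l1| ≤ 10 * M ^ 2 / (κ0 * r ^ 2) ∧ |l2| ≤ 10 * M ^ 2 / (κ0 * r ^ 2) ∧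
      |m1| ≤ 4 * M / (κ0 * r ^ 2) ∧ |m2| ≤ 4 * M / (κ0 * r ^ 2) ∧
      ∃ L2 ⊆ L, (D ^ 4 / 32) ^ 3 / 32 * (D ^ 3 / 32) * (L.card : ℝ) ≤ L2.card ∧
      ∀ l ∈ L2, ∀ l' ∈ L2,
        |(s l - s l') - l1 * (b l - b l') - l2 * (a l - a l')| ≤ 400 * M ^ 3 * δ / (κ0 * r ^ 2) ∧
        |(β l - β l') - m1 * (b l - b l') - m2 * (a l - a l')| ≤
          400 * M ^ 3 * δ / (κ0 * r ^ 2) ∧
        |(ζ l - ζ l') - l1 * (c l - c l') + κ * m1 * (c l ^ 2 - c l' ^ 2)| ≤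
          160 * M ^ 3 * (400 * M ^ 3 * δ / (κ0 * r ^ 2)) / q ^ 2 ∧
        |(Z l - Z l') - l2 * (c l - c l') + κ * m2 * (c l ^ 2 - c l' ^ 2)| ≤
          160 * M ^ 3 * (400 * M ^ 3 * δ / (κ0 * r ^ 2)) / q ^ 2 := by
  have hM := G.M1
  have hδ := G.δ0
  obtain ⟨l1, l2, m1, m2, hl1, hl2, hm1, hm2, L1, hL1, hc1, hrel⟩ :=
    grid_step1 G C hL hD dens hr hr1 hδr hκ0 hκ01 hκ hη
  have hL0 : (0 : ℝ) < L.card := by exact_mod_cast hL.card_pos
  have hne : L1.Nonempty := by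
    rw [← card_pos]
    have : (0 : ℝ) < L1.card := lt_of_lt_of_le (by positivity) hc1
    exact_mod_cast this
  have dens1 : D ^ 4 / 32 * W * P.card * V.card ≤ L1.card := by
    refine le_trans ?_ hc1
    have e : D ^ 4 / 32 * W * P.card * V.card = D ^ 3 / 32 * (D * W * P.card * V.card) := by ring
    rw [e]
    exact mul_le_mul_of_nonneg_left dens (by positivity)
  have he1 : 40 * δ ≤ 400 * M ^ 3 * δ / (κ0 * r ^ 2) := by
    rw [le_div_iff₀ (by positivity)]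
    have h1 : κ0 * r ^ 2 ≤ 1 := by
      have : r ^ 2 ≤ 1 := by nlinarith
      nlinarith
    have h2 : 1 ≤ M ^ 3 := one_le_pow₀ hM
    calc 40 * δ * (κ0 * r ^ 2) ≤ 40 * δ * 1 := mul_le_mul_of_nonneg_left h1 (by positivity)
      _ ≤ 400 * M ^ 3 * δ := by nlinarith
  obtain ⟨L2, hL2, hc2, hrel2⟩ := grid_step2 G C hq hδq hδω hL1 hne (by positivity) dens1 hη2 he1
    hrel
  refine ⟨l1, l2, m1, m2, hl1, hl2, hm1, hm2, L2, hL2.trans hL1, ?_, ?_⟩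
  · refine le_trans ?_ hc2
    rw [mul_assoc]
    exact mul_le_mul_of_nonneg_left hc1 (by positivity)
  · intro l hl l' hl'
    obtain ⟨k1, k2⟩ := hrel l (hL2 hl) l' (hL2 hl')
    obtain ⟨k3, k4⟩ := hrel2 l hl l' hl'
    exact ⟨k1, k2, k3, k4⟩

end Crest.Agent.R136.Qd329
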