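import Crest.Agent.R136.Qd5_329

/-!
# R136: the bilinear rigidity (helper329), part 6: one height of an `RUnif`

`QRow` = rows of the sheet at one height (position boxes, velocity boxes, constancy of the
bilinear form), `QProf` = the five facts about the profile.  `quad_one` : affine positions and
quadratic velocities on a `ρ^ε`-part of the lines alive at one height.
-/

set_option autoImplicit false

open Filter Topology

namespace Crest.Agent.R136.Qd329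

open Finset
open Crest.Agent.R138.Ex926 (Base U)
open Crest.Agent.R136.Gf356

variable {κ : Type}

/-- rows of the bilinear pair positions / velocities at one height -/
structure QRow (B : Base) (G : ℕ → RCfg κ) (x M C : ℝ) (p0 pA pp pv pP vP : κ → ℝ)
    (pc : ℝ → κ → ℝ) (a b c s β ζ Z Φ : ℕ → ℕ → ℕ → ℝ) (kp : ℕ → ℝ) : Prop where
  x0 : 0 < x
  M1 : 1 ≤ M
  C1 : 1 ≤ C
  kp1 : ∀ n, |kp n| ≤ 1
  kpl : ∀ ε : ℝ, 0 < ε → ∀ᶠ n in (U : Filter ℕ), B.d n ^ ε ≤ |kp n|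
  bd : ∀ᶠ n in (U : Filter ℕ), ∀ k l, (l, k) ∈ (G n).I → |a n k l| ≤ M ∧ |b n k l| ≤ M ∧
    |c n k l| ≤ M ∧ |s n k l| ≤ M ∧ |β n k l| ≤ M ∧ |ζ n k l| ≤ M ∧ |Z n k l| ≤ M
  pcl : ∀ ε : ℝ, 0 < ε → ∀ᶠ n in (U : Filter ℕ), ∀ k l l', (l, k) ∈ (G n).I →
    (l', k) ∈ (G n).I → (G n).loose pp ε k l l' →
      |a n k l - a n k l'| ≤ B.d n ^ (x - C * ε) ∧ |b n k l - b n k l'| ≤ B.d n ^ (x - C * ε) ∧
      |s n k l - s n k l'| ≤ B.d n ^ (x - C * ε) ∧ |β n k l - β n k l'| ≤ B.d n ^ (x - C * ε)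
  vcl : ∀ ε : ℝ, 0 < ε → ∀ᶠ n in (U : Filter ℕ), ∀ k l l', (l, k) ∈ (G n).I →
    (l', k) ∈ (G n).I → (G n).loose pv ε k l l' →
      |c n k l - c n k l'| ≤ B.d n ^ (x - C * ε) ∧ |ζ n k l - ζ n k l'| ≤ B.d n ^ (x - C * ε) ∧
      |Z n k l - Z n k l'| ≤ B.d n ^ (x - C * ε)
  pPr : ∀ ε : ℝ, 0 < ε → ∀ᶠ n in (U : Filter ℕ), ∀ k l l', (l, k) ∈ (G n).I →
    (l', k) ∈ (G n).I → (G n).loose pP ε k l l' →
      |(Φ n k l - c n k l * s n k l + kp n * c n k l ^ 2 * β n k l) -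
        (Φ n k l' - c n k l' * s n k l' + kp n * c n k l' ^ 2 * β n k l')| ≤ B.d n ^ (x - C * ε)
  vPr : ∀ ε : ℝ, 0 < ε → ∀ᶠ n in (U : Filter ℕ), ∀ k l l', (l, k) ∈ (G n).I →
    (l', k) ∈ (G n).I → (G n).loose vP ε k l l' →
      |(Φ n k l - ζ n k l * b n k l - Z n k l * a n k l) -
        (Φ n k l' - ζ n k l' * b n k l' - Z n k l' * a n k l')| ≤ B.d n ^ (x - C * ε)
  all : ∀ ε : ℝ, 0 < ε → ∀ᶠ n in (U : Filter ℕ), ∀ k l l', (l, k) ∈ (G n).I →
    (l', k) ∈ (G n).I → (G n).loose p0 ε k l l'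
  acl : ∀ ε : ℝ, 0 < ε → ∀ᶠ n in (U : Filter ℕ), ∀ k l l', (l, k) ∈ (G n).I →
    (l', k) ∈ (G n).I → |a n k l' - a n k l| ≤ B.d n ^ x → |b n k l' - b n k l| ≤ B.d n ^ x →
      (G n).loose pA ε k l l'
  ccl : ∀ y : ℝ, 0 ≤ y → y ≤ x → ∀ ε : ℝ, 0 < ε → ∀ᶠ n in (U : Filter ℕ), ∀ k l l',
    (l, k) ∈ (G n).I → (l', k) ∈ (G n).I → |c n k l' - c n k l| ≤ B.d n ^ y →
      (G n).loose (pc y) ε k l l'

/-- the five facts about the profile -/
structure QProf (Leg : Set (κ → ℝ)) (ν : (κ → ℝ) → ℝ) (x m : ℝ)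
    (p0 pA pp pv ppv pP vP : κ → ℝ) (pc : ℝ → κ → ℝ) : Prop where
  m0 : 0 < m
  l0 : p0 ∈ Leg
  lA : pA ∈ Leg
  lp : pp ∈ Leg
  lv : pv ∈ Leg
  lpv : ppv ∈ Leg
  lpP : pP ∈ Leg
  lvP : vP ∈ Leg
  lc : ∀ y, 0 ≤ y → y ≤ x → pc y ∈ Leg
  por : ∀ j, ppv j = pp j ∨ ppv j = pv j
  pge : ∀ j, pp j ≤ pP j
  vge : ∀ j, pv j ≤ vP j
  H1 : ν pp ≤ ν pP
  H2 : ν pv ≤ ν vP
  H3 : ν p0 + ν ppv ≤ ν pp + ν pv
  H4 : 2 * x ≤ ν p0 - ν pA
  H5 : ∀ y, 0 ≤ y → y ≤ x → m * y ≤ ν p0 - ν (pc y)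

/-- affine positions, quadratic velocities -/
def QRel (kp l1 l2 m1 m2 e : ℝ) (a b c s β ζ Z : ℕ → ℝ) (l l' : ℕ) : Prop :=
  |(s l - s l') - l1 * (b l - b l') - l2 * (a l - a l')| ≤ e ∧
  |(β l - β l') - m1 * (b l - b l') - m2 * (a l - a l')| ≤ e ∧
  |(ζ l - ζ l') - l1 * (c l - c l') + kp * m1 * (c l ^ 2 - c l' ^ 2)| ≤ e ∧
  |(Z l - Z l') - l2 * (c l - c l') + kp * m2 * (c l ^ 2 - c l' ^ 2)| ≤ e

section

variable {B : Base} {G : ℕ → RCfg κ} {Leg : Set (κ → ℝ)} {ν : (κ → ℝ) → ℝ} {D x M C m : ℝ}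
  {p0 pA pp pv ppv pP vP : κ → ℝ} {pc : ℝ → κ → ℝ} {a b c s β ζ Z Φ : ℕ → ℕ → ℕ → ℝ} {kp : ℕ → ℝ}

/-- **cells and dense part** -/
theorem cells (H : RUnif B G Leg ν D) (Q : QRow B G x M C p0 pA pp pv pP vP pc a b c s β ζ Z Φ kp)
    (P : QProf Leg ν x m p0 pA pp pv ppv pP vP pc) {ε : ℝ} (hε : 0 < ε) :
    ∀ᶠ n in (U : Filter ℕ), ∀ k, ((G n).slice k).Nonempty → ∃ lp lv : ℕ → ℕ,
      ∃ L ⊆ (G n).slice k,
      B.d n ^ (4 * D ^ 7 * ε) * (((G n).slice k).card : ℝ) ≤ L.card ∧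
      (∀ l ∈ L, ∀ l' ∈ L, lp l = lp l' → (G n).loose pP (D ^ 10 * ε) k l l') ∧
      (∀ l ∈ L, ∀ l' ∈ L, lv l = lv l' → (G n).loose vP (D ^ 10 * ε) k l l') ∧
      (∀ t ∈ (G n).slice k, lp t ∈ (G n).slice k ∧ (G n).loose pp (D ^ 3 * ε) k (lp t) t) ∧
      (∀ t ∈ (G n).slice k, lv t ∈ (G n).slice k ∧ (G n).loose pv (D ^ 3 * ε) k (lv t) t) ∧
      (∀ A ⊆ ((G n).slice k).image lp, (A.card : ℝ) * B.d n ^ (-ν pp + ε) ≤
        (((A.biUnion fun e => (G n).box pp ε e k)).card : ℝ)) ∧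
      (∀ A ⊆ ((G n).slice k).image lv, (A.card : ℝ) * B.d n ^ (-ν pv + ε) ≤
        (((A.biUnion fun e => (G n).box pv ε e k)).card : ℝ)) ∧
      B.d n ^ (-ν p0 + ν pp + 2 * D ^ 6 * ε) ≤ ((((G n).slice k).image lp).card : ℝ) ∧
      B.d n ^ (-ν p0 + ν pv + 2 * D ^ 6 * ε) ≤ ((((G n).slice k).image lv).card : ℝ) ∧
      (∀ e f, ((L.filter fun l => lp l = e ∧ lv l = f).card : ℝ) ≤
        B.d n ^ (-ν ppv - D ^ 6 * ε)) ∧
      B.d n ^ (8 * D ^ 7 * ε) * B.d n ^ (-ν ppv - D ^ 6 * ε) * (((G n).slice k).image lp).card *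
        (((G n).slice k).image lv).card ≤ L.card := by
  classical
  have hD := H.D1
  have hD0 : 0 < D := by linarith
  have h5 : 0 < D ^ 5 * ε := by positivity
  filter_upwards [net_facts H p0 pp P.l0 P.lp Q.all hε, net_facts H p0 pv P.l0 P.lv Q.all hε,
    popular H pp pP P.lp P.lpP P.pge h5, popular H pv vP P.lv P.lvP P.vge h5,
    H.up ppv P.lpv _ h5, H.up p0 P.l0 ε hε, Q.all ε hε] with
    n np nv qp qv hup hup0 hall k hne
  obtain ⟨lp, a1, a2, a3, a4, a5⟩ := np k hne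
  obtain ⟨lv, b1, b2, b3, b4, b5⟩ := nv k hne
  have hpos : ∀ t : ℝ, 0 < B.d n ^ t := fun t => rpos B n t
  have hp1 : ∀ j : ℕ, 1 ≤ D ^ j := fun j => one_le_pow₀ hD
  obtain ⟨T1, hT1, c1, d1⟩ := qp k _ (Subset.refl _) lp a2
  obtain ⟨T2, hT2, c2, d2⟩ := qv k T1 hT1 lv fun t ht t' ht' => b2 t (hT1 ht) t' (hT1 ht')
  have e10 : D ^ 5 * (D ^ 5 * ε) = D ^ 10 * ε := by ring
  rw [e10] at d1 d2
  have e7 : 2 * ((D ^ 2 + 1) * (D ^ 5 * ε)) ≤ 4 * D ^ 7 * ε := by
    have : (D ^ 2 + 1) * D ^ 5 ≤ 2 * D ^ 7 := by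
      have h2 : D ^ 5 ≤ D ^ 7 := pow_le_pow_right₀ hD (by norm_num)
      nlinarith
    nlinarith
  have hdens : B.d n ^ (4 * D ^ 7 * ε) * (((G n).slice k).card : ℝ) ≤ T2.card := by
    have f1 : B.d n ^ ((D ^ 2 + 1) * (D ^ 5 * ε)) * (((G n).slice k).card : ℝ) ≤ T1.card := by
      refine le_trans (mul_le_mul_of_nonneg_right (rpow_anti B n ?_) (Nat.cast_nonneg _)) c1
      linarith [P.H1]
    have f2 : B.d n ^ ((D ^ 2 + 1) * (D ^ 5 * ε)) * (T1.card : ℝ) ≤ T2.card := by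
      refine le_trans (mul_le_mul_of_nonneg_right (rpow_anti B n ?_) (Nat.cast_nonneg _)) c2
      linarith [P.H2]
    refine le_trans ?_ ((mul_le_mul_of_nonneg_left f1 (hpos _).le).trans f2)
    rw [← mul_assoc, ← rpow_add']
    refine mul_le_mul_of_nonneg_right (rpow_anti B n ?_) (Nat.cast_nonneg _)
    linarith
  have h66 : (D ^ 6 + 1) * ε ≤ 2 * D ^ 6 * ε := by
    have := hp1 6
    nlinarith
  have hpI : ∀ l ∈ T2, l ∈ (G n).slice k := fun l hl => hT1 (hT2 hl)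
  refine ⟨lp, lv, T2, fun l hl => hpI l hl, hdens,
    fun l hl l' hl' => d1 l (hT2 hl) l' (hT2 hl'), d2, a1, b1, a3, b3,
    (rpow_anti B n (by linarith)).trans a5, (rpow_anti B n (by linarith)).trans b5, ?_, ?_⟩
  · intro e f
    rcases (T2.filter fun l => lp l = e ∧ lv l = f).eq_empty_or_nonempty with h | ⟨l0, hl0⟩
    · rw [h, card_empty, Nat.cast_zero]; exact (hpos _).le
    · obtain ⟨g1, g2, g3⟩ := mem_filter.1 hl0
      have g4 := hup l0 k (H.memSlice.1 (hpI l0 g1))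
      refine le_trans (Nat.cast_le.2 (card_le_card ?_)) (g4.trans (rpow_anti B n ?_))
      · intro l hl
        obtain ⟨i1, i2, i3⟩ := mem_filter.1 hl
        refine RCfg.mem_box.2 ⟨hpI l i1, fun j => ?_⟩
        rcases P.por j with hj | hj
        · rw [hj]; exact a2 l0 (hpI l0 g1) l (hpI l i1) (g2.trans i2.symm) j
        · rw [hj]; exact b2 l0 (hpI l0 g1) l (hpI l i1) (g3.trans i3.symm) j
      · have : D * (D ^ 5 * ε) = D ^ 6 * ε := by ring
        linarith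
  · -- density
    set S : ℝ := (((G n).slice k).card : ℝ) with hS
    have hS0 : 0 ≤ S := Nat.cast_nonneg _
    have hSle : S ≤ B.d n ^ (-ν p0 - D * ε) := by
      obtain ⟨l0, hl0⟩ := hne
      have hl0I := H.memSlice.1 hl0
      refine le_trans (Nat.cast_le.2 (card_le_card ?_)) (hup0 l0 k hl0I)
      intro l hl
      exact RCfg.mem_box.2 ⟨hl, hall k l0 l hl0I (H.memSlice.1 hl)⟩
    refine le_trans ?_ hdens
    calc B.d n ^ (8 * D ^ 7 * ε) * B.d n ^ (-ν ppv - D ^ 6 * ε) *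
          (((G n).slice k).image lp).card * (((G n).slice k).image lv).card
        ≤ B.d n ^ (8 * D ^ 7 * ε) * B.d n ^ (-ν ppv - D ^ 6 * ε) *
          (B.d n ^ (ν pp - ε) * S) * (B.d n ^ (ν pv - ε) * B.d n ^ (-ν p0 - D * ε)) := by
          have g1 := b4.trans (mul_le_mul_of_nonneg_left hSle (hpos _).le)
          have := hpos (8 * D ^ 7 * ε)
          have := hpos (-ν ppv - D ^ 6 * ε)
          have := hpos (ν pp - ε)
          gcongr
      _ = B.d n ^ (8 * D ^ 7 * ε + (-ν ppv - D ^ 6 * ε) + (ν pp - ε) + (ν pv - ε) +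
          (-ν p0 - D * ε)) * S := by
          simp only [rpow_add']
          ring
      _ ≤ B.d n ^ (4 * D ^ 7 * ε) * S := by
          refine mul_le_mul_of_nonneg_right (rpow_anti B n ?_) hS0
          have i1 : D ^ 6 ≤ D ^ 7 := pow_le_pow_right₀ hD (by norm_num)
          have i2 : D ≤ D ^ 7 := by
            calc D = D ^ 1 := (pow_one D).symm
              _ ≤ D ^ 7 := pow_le_pow_right₀ hD (by norm_num)
          have i3 := hp1 7
          have i4 := mul_le_mul_of_nonneg_right i1 hε.le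
          have i5 := mul_le_mul_of_nonneg_right i2 hε.le
          have i6 := mul_le_mul_of_nonneg_right i3 hε.le
          have i7 := P.H3
          nlinarith

/-- **velocity cells with close `c` are few** -/
theorem few_c (H : RUnif B G Leg ν D) (Q : QRow B G x M C p0 pA pp pv pP vP pc a b c s β ζ Z Φ kp)
    (P : QProf Leg ν x m p0 pA pp pv ppv pP vP pc) {e : ℝ} (he : 0 < e)
    (hx1 : 101 * D ^ 7 * e / m ≤ x / 4) (hx2 : C * D ^ 10 * e + e ≤ x / 4) :
    ∀ᶠ n in (U : Filter ℕ), ∀ k, ∀ lv : ℕ → ℕ, ∀ L ⊆ (G n).slice k,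
      (∀ t ∈ (G n).slice k, lv t ∈ (G n).slice k ∧ (G n).loose pv (D ^ 3 * e) k (lv t) t) →
      (∀ A ⊆ ((G n).slice k).image lv, (A.card : ℝ) * B.d n ^ (-ν pv + e) ≤
        (((A.biUnion fun e' => (G n).box pv e e' k)).card : ℝ)) →
      B.d n ^ (-ν p0 + ν pv + 2 * D ^ 6 * e) ≤ ((((G n).slice k).image lv).card : ℝ) →
      ∀ t : ℝ, ∀ A ⊆ ((G n).slice k).image lv,
        (∀ v ∈ A, ∃ l ∈ L, lv l = v ∧ |c n k l - t| ≤ 2 * (B.d n ^ (101 * D ^ 7 * e / m) / 6)) →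
        (A.card : ℝ) ≤ B.d n ^ (97 * D ^ 7 * e) * (((G n).slice k).image lv).card := by
  classical
  have hD := H.D1
  have hD0 : 0 < D := by linarith
  have hm := P.m0
  have hC := Q.C1
  set y := 101 * D ^ 7 * e / m with hy
  have hy0 : 0 ≤ y := by positivity
  have hyx : y ≤ x := by have := Q.x0; linarith
  filter_upwards [Q.vcl _ (show 0 < D ^ 3 * e by positivity), Q.vcl e he,
    Q.ccl y hy0 hyx e he, H.up _ (P.lc y hy0 hyx) e he, ev_const_le B he 12] with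
    n v3 v1 hcc hup h12 k lv L hL hlv hA hV t A hAV hcl
  have hpos : ∀ t : ℝ, 0 < B.d n ^ t := fun t => rpos B n t
  rcases A.eq_empty_or_nonempty with rfl | ⟨v0, hv0⟩
  · rw [card_empty, Nat.cast_zero]
    exact mul_nonneg (hpos _).le (Nat.cast_nonneg _)
  have hδ : 12 * B.d n ^ (x - C * D ^ 10 * e) ≤ B.d n ^ y := by
    have h1 := mul_le_mul_of_nonneg_right h12 (hpos (x - C * D ^ 10 * e)).le
    refine h1.trans ?_
    rw [← rpow_add']
    exact rpow_anti B n (by linarith)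
  have h103 : D ^ 3 * e ≤ D ^ 10 * e :=
    mul_le_mul_of_nonneg_right (pow_le_pow_right₀ hD (by norm_num)) he.le
  have h1010 : e ≤ D ^ 10 * e := by
    have : 1 ≤ D ^ 10 := one_le_pow₀ hD
    nlinarith
  -- all lines of the small boxes
  have hall : ∀ m' ∈ A.biUnion fun e' => (G n).box pv e e' k,
      (m', k) ∈ (G n).I ∧ |c n k m' - t| ≤ 3 * (B.d n ^ y / 6) := by
    intro m' hm'
    obtain ⟨e', he', hme⟩ := mem_biUnion.1 hm'
    obtain ⟨i1, i2⟩ := RCfg.mem_box.1 hme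
    obtain ⟨l, hl, hle, hlt⟩ := hcl e' he'
    have hlS := hL hl
    obtain ⟨j1, j2⟩ := hlv l hlS
    rw [hle] at j1 j2
    have k1 := (v3 k e' l (H.memSlice.1 j1) (H.memSlice.1 hlS) j2).1
    have k2 := (v1 k e' m' (H.memSlice.1 j1) (H.memSlice.1 i1) i2).1
    have k3 : B.d n ^ (x - C * (D ^ 3 * e)) ≤ B.d n ^ (x - C * D ^ 10 * e) :=
      rpow_anti B n (by nlinarith)
    have k4 : B.d n ^ (x - C * e) ≤ B.d n ^ (x - C * D ^ 10 * e) :=
      rpow_anti B n (by nlinarith)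
    refine ⟨H.memSlice.1 i1, ?_⟩
    have e1 : c n k m' - t = (c n k l - t) + (c n k e' - c n k l) - (c n k e' - c n k m') := by ring
    rw [e1]
    have q1 := abs_sub ((c n k l - t) + (c n k e' - c n k l)) (c n k e' - c n k m')
    have q2 := abs_add_le (c n k l - t) (c n k e' - c n k l)
    linarith
  have hcard : (((A.biUnion fun e' => (G n).box pv e e' k)).card : ℝ) ≤
      B.d n ^ (m * y - ν p0 - D * e) := by
    rcases (A.biUnion fun e' => (G n).box pv e e' k).eq_empty_or_nonempty with h | ⟨m0, hm0⟩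
    · rw [h, card_empty, Nat.cast_zero]; exact (hpos _).le
    · obtain ⟨g1, g2⟩ := hall m0 hm0
      refine le_trans (Nat.cast_le.2 (card_le_card (t := (G n).box (pc y) e m0 k) ?_))
        ((hup m0 k g1).trans (rpow_anti B n ?_))
      · intro m' hm'
        obtain ⟨i1, i2⟩ := hall m' hm'
        refine RCfg.mem_box.2 ⟨H.memSlice.2 i1, hcc k m0 m' g1 i1 ?_⟩
        have e1 : c n k m' - c n k m0 = (c n k m' - t) - (c n k m0 - t) := by ring
        rw [e1]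
        have := abs_sub (c n k m' - t) (c n k m0 - t)
        linarith
      · have := P.H5 y hy0 hyx
        linarith
  have h1 := (hA A hAV).trans hcard
  have h2 : (A.card : ℝ) ≤ B.d n ^ (m * y - ν p0 - D * e) * B.d n ^ (ν pv - e) := by
    have h3 := mul_le_mul_of_nonneg_right h1 (hpos (ν pv - e)).le
    refine le_trans (le_of_eq ?_) h3
    rw [mul_assoc, ← rpow_add']
    have : -ν pv + e + (ν pv - e) = 0 := by ring
    rw [this, Real.rpow_zero, mul_one]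
  refine h2.trans ?_
  have hmy : m * y = 101 * D ^ 7 * e := by rw [hy]; field_simp
  calc B.d n ^ (m * y - ν p0 - D * e) * B.d n ^ (ν pv - e)
      ≤ B.d n ^ (97 * D ^ 7 * e) * B.d n ^ (-ν p0 + ν pv + 2 * D ^ 6 * e) := by
        rw [← rpow_add', ← rpow_add']
        refine rpow_anti B n ?_
        rw [hmy]
        have i1 : D ^ 6 * e ≤ D ^ 7 * e :=
          mul_le_mul_of_nonneg_right (pow_le_pow_right₀ hD (by norm_num)) he.le
        have i2 : D * e ≤ D ^ 7 * e := by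
          refine mul_le_mul_of_nonneg_right ?_ he.le
          calc D = D ^ 1 := (pow_one D).symm
            _ ≤ D ^ 7 := pow_le_pow_right₀ hD (by norm_num)
        have i3 : e ≤ D ^ 7 * e := by
          have : 1 ≤ D ^ 7 := one_le_pow₀ hD
          nlinarith
        nlinarith
    _ ≤ _ := mul_le_mul_of_nonneg_left hV (hpos _).le

/-- **position cells in a strip are few** -/
theorem few_s (H : RUnif B G Leg ν D) (Q : QRow B G x M C p0 pA pp pv pP vP pc a b c s β ζ Z Φ kp)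
    (P : QProf Leg ν x m p0 pA pp pv ppv pP vP pc) {e : ℝ} (he : 0 < e)
    (hx1 : 103 * D ^ 7 * e + e ≤ x / 4) (hx2 : C * D ^ 10 * e + e ≤ x / 4) :
    ∀ᶠ n in (U : Filter ℕ), ∀ k, ∀ lp : ℕ → ℕ, ∀ L ⊆ (G n).slice k,
      (∀ t ∈ (G n).slice k, lp t ∈ (G n).slice k ∧ (G n).loose pp (D ^ 3 * e) k (lp t) t) →
      (∀ A ⊆ ((G n).slice k).image lp, (A.card : ℝ) * B.d n ^ (-ν pp + e) ≤
        (((A.biUnion fun e' => (G n).box pp e e' k)).card : ℝ)) →
      B.d n ^ (-ν p0 + ν pp + 2 * D ^ 6 * e) ≤ ((((G n).slice k).image lp).card : ℝ) →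
      ∀ n1 n2 t : ℝ, (|n1| = 1 ∨ |n2| = 1) → ∀ A ⊆ ((G n).slice k).image lp,
        (∀ v ∈ A, ∃ l ∈ L, lp l = v ∧
          |n1 * b n k l + n2 * a n k l - t| ≤ B.d n ^ (103 * D ^ 7 * e)) →
        (A.card : ℝ) ≤ B.d n ^ (97 * D ^ 7 * e) * (((G n).slice k).image lp).card := by
  classical
  have hD := H.D1
  have hD0 : 0 < D := by linarith
  have hC := Q.C1
  have hM := Q.M1
  have hx := Q.x0
  filter_upwards [Q.pcl _ (show 0 < D ^ 3 * e by positivity), Q.pcl e he, Q.bd,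
    Q.acl e he, H.up _ P.lA e he, ev_const_le B he (48 * M)] with
    n v3 v1 hbd hac hup h48 k lp L hL hlp hA hV n1 n2 t hn A hAV hcl
  have hpos : ∀ t : ℝ, 0 < B.d n ^ t := fun t => rpos B n t
  have h103 : D ^ 3 * e ≤ D ^ 10 * e :=
    mul_le_mul_of_nonneg_right (pow_le_pow_right₀ hD (by norm_num)) he.le
  have h1010 : e ≤ D ^ 10 * e := by
    have : 1 ≤ D ^ 10 := one_le_pow₀ hD
    nlinarith
  have hδ : 4 * B.d n ^ (x - C * D ^ 10 * e) ≤ B.d n ^ (103 * D ^ 7 * e) := by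
    have h1 := mul_le_mul_of_nonneg_right ((by linarith : (4 : ℝ) ≤ 48 * M).trans h48)
      (hpos (x - C * D ^ 10 * e)).le
    refine h1.trans ?_
    rw [← rpow_add']
    exact rpow_anti B n (by linarith)
  -- normalisation
  set N := max |n1| |n2| with hN
  have hN1 : 1 ≤ N := by
    rcases hn with h | h
    · rw [← h]; exact le_max_left _ _
    · rw [← h]; exact le_max_right _ _
  have hN0 : 0 < N := by linarith
  have c1 : |n1 / N| ≤ 1 := by
    rw [abs_div, abs_of_pos hN0]; exact (div_le_one hN0).2 (le_max_left _ _)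
  have c2 : |n2 / N| ≤ 1 := by
    rw [abs_div, abs_of_pos hN0]; exact (div_le_one hN0).2 (le_max_right _ _)
  have c3 : 1 ≤ |n1 / N| ∨ 1 ≤ |n2 / N| := by
    rcases max_cases |n1| |n2| with ⟨h, -⟩ | ⟨h, -⟩
    · left; rw [abs_div, abs_of_pos hN0, hN, h, div_self]; rw [← h]; exact hN0.ne'
    · right; rw [abs_div, abs_of_pos hN0, hN, h, div_self]; rw [← h]; exact hN0.ne'
  set q := B.d n ^ (103 * D ^ 7 * e) with hq
  have hall : ∀ m' ∈ A.biUnion fun e' => (G n).box pp e e' k,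
      (m', k) ∈ (G n).I ∧ |n1 / N * b n k m' + n2 / N * a n k m' - t / N| ≤ 2 * q := by
    intro m' hm'
    obtain ⟨e', he', hme⟩ := mem_biUnion.1 hm'
    obtain ⟨i1, i2⟩ := RCfg.mem_box.1 hme
    obtain ⟨l, hl, hle, hlt⟩ := hcl e' he'
    have hlS := hL hl
    obtain ⟨j1, j2⟩ := hlp l hlS
    rw [hle] at j1 j2
    obtain ⟨a1, b1, -, -⟩ := v3 k e' l (H.memSlice.1 j1) (H.memSlice.1 hlS) j2
    obtain ⟨a2, b2, -, -⟩ := v1 k e' m' (H.memSlice.1 j1) (H.memSlice.1 i1) i2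
    have k3 : B.d n ^ (x - C * (D ^ 3 * e)) ≤ B.d n ^ (x - C * D ^ 10 * e) :=
      rpow_anti B n (by nlinarith)
    have k4 : B.d n ^ (x - C * e) ≤ B.d n ^ (x - C * D ^ 10 * e) :=
      rpow_anti B n (by nlinarith)
    refine ⟨H.memSlice.1 i1, ?_⟩
    set δ := B.d n ^ (x - C * D ^ 10 * e) with hδd
    have da : |a n k m' - a n k l| ≤ 2 * δ := by
      have e1 : a n k m' - a n k l = (a n k e' - a n k l) - (a n k e' - a n k m') := by ring
      rw [e1]
      have := abs_sub (a n k e' - a n k l) (a n k e' - a n k m')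
      linarith
    have db : |b n k m' - b n k l| ≤ 2 * δ := by
      have e1 : b n k m' - b n k l = (b n k e' - b n k l) - (b n k e' - b n k m') := by ring
      rw [e1]
      have := abs_sub (b n k e' - b n k l) (b n k e' - b n k m')
      linarith
    have h0 : |n1 / N * b n k l + n2 / N * a n k l - t / N| ≤ q := by
      have e1 : n1 / N * b n k l + n2 / N * a n k l - t / N =
          (n1 * b n k l + n2 * a n k l - t) / N := by ring
      rw [e1, abs_div, abs_of_pos hN0, div_le_iff₀ hN0]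
      refine hlt.trans ?_
      have : 0 < q := hpos _
      nlinarith
    have e1 : n1 / N * b n k m' + n2 / N * a n k m' - t / N =
        (n1 / N * b n k l + n2 / N * a n k l - t / N) + n1 / N * (b n k m' - b n k l) +
        n2 / N * (a n k m' - a n k l) := by ring
    rw [e1]
    have q1 := abs_add_le ((n1 / N * b n k l + n2 / N * a n k l - t / N) +
      n1 / N * (b n k m' - b n k l)) (n2 / N * (a n k m' - a n k l))
    have q2 := abs_add_le (n1 / N * b n k l + n2 / N * a n k l - t / N)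
      (n1 / N * (b n k m' - b n k l))
    have q3 : |n1 / N * (b n k m' - b n k l)| ≤ 1 * (2 * δ) := by
      rw [abs_mul]; exact mul_le_mul c1 db (abs_nonneg _) zero_le_one
    have q4 : |n2 / N * (a n k m' - a n k l)| ≤ 1 * (2 * δ) := by
      rw [abs_mul]; exact mul_le_mul c2 da (abs_nonneg _) zero_le_one
    linarith
  have hq2 : 2 * q ≤ 1 := by
    have h1 := mul_le_mul_of_nonneg_right ((by linarith : (2 : ℝ) ≤ 48 * M).trans h48)
      (hpos (103 * D ^ 7 * e)).le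
    refine h1.trans ?_
    rw [← rpow_add', ← Real.rpow_zero (B.d n)]
    refine rpow_anti B n ?_
    have : 1 ≤ D ^ 7 := one_le_pow₀ hD
    nlinarith
  have hwq : B.d n ^ x ≤ 2 * q := by
    have : B.d n ^ x ≤ q := rpow_anti B n (by linarith)
    have : 0 < q := hpos _
    linarith
  have hcard := strip_lines (A.biUnion fun e' => (G n).box pp e e' k) (a n k) (b n k) hM
    (hpos x) hwq hq2 (fun l hl => (hbd k l (hall l hl).1).1)
    (fun l hl => (hbd k l (hall l hl).1).2.1) (hpos (-ν pA - D * e)).le (fun l0 hl0 => by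
      have g1 := (hall l0 hl0).1
      refine le_trans (Nat.cast_le.2 (card_le_card ?_)) (hup l0 k g1)
      intro l hl
      obtain ⟨i1, i2, i3⟩ := mem_filter.1 hl
      have i4 := (hall l i1).1
      exact RCfg.mem_box.2 ⟨H.memSlice.2 i4, hac k l0 l g1 i4 i2 i3⟩)
    c3 (fun l hl => (hall l hl).2)
  have h1 := (hA A hAV).trans hcard
  have h2 : (A.card : ℝ) ≤ 24 * M * (2 * q) / (B.d n ^ x) ^ 2 * B.d n ^ (-ν pA - D * e) *
      B.d n ^ (ν pp - e) := by
    have h3 := mul_le_mul_of_nonneg_right h1 (hpos (ν pp - e)).le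
    refine le_trans (le_of_eq ?_) h3
    rw [mul_assoc, ← rpow_add']
    have : -ν pp + e + (ν pp - e) = 0 := by ring
    rw [this, Real.rpow_zero, mul_one]
  refine h2.trans ?_
  have e3 : 24 * M * (2 * q) / (B.d n ^ x) ^ 2 * B.d n ^ (-ν pA - D * e) * B.d n ^ (ν pp - e) =
      48 * M * (B.d n ^ (103 * D ^ 7 * e) * B.d n ^ (-2 * x) * B.d n ^ (-ν pA - D * e) *
        B.d n ^ (ν pp - e)) := by
    have e4 : B.d n ^ (-2 * x) = ((B.d n ^ x) ^ 2)⁻¹ := by
      rw [← Real.rpow_natCast, ← Real.rpow_mul (B.pos n).le, ← Real.rpow_neg (B.pos n).le]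
      congr 1
      push_cast
      ring
    rw [e4, hq]
    ring
  rw [e3, ← rpow_add', ← rpow_add', ← rpow_add']
  refine (mul_le_mul_of_nonneg_right h48 (hpos _).le).trans ?_
  rw [← rpow_add']
  refine le_trans (rpow_anti B n (s := 97 * D ^ 7 * e + (-ν p0 + ν pp + 2 * D ^ 6 * e)) ?_) ?_
  · have i1 : D ^ 6 * e ≤ D ^ 7 * e :=
      mul_le_mul_of_nonneg_right (pow_le_pow_right₀ hD (by norm_num)) he.le
    have i2 : D * e ≤ D ^ 7 * e := by
      refine mul_le_mul_of_nonneg_right ?_ he.le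
      calc D = D ^ 1 := (pow_one D).symm
        _ ≤ D ^ 7 := pow_le_pow_right₀ hD (by norm_num)
    have i3 : e ≤ D ^ 7 * e := by
      have : 1 ≤ D ^ 7 := one_le_pow₀ hD
      nlinarith
    have i4 := P.H4
    nlinarith
  · rw [rpow_add']
    exact mul_le_mul_of_nonneg_left hV (hpos _).le

end

end Crest.Agent.R136.Qd329
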