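import Crest.Agent.R136.Qd6_329

/-!
# R136: the bilinear rigidity (helper329), part 7: `quad_one`
-/

set_option autoImplicit false

open Filter Topology

namespace Crest.Agent.R136.Qd329

open Finset
open Crest.Agent.R138.Ex926 (Base U)
open Crest.Agent.R136.Gf356

variable {κ : Type} {B : Base} {G : ℕ → RCfg κ} {Leg : Set (κ → ℝ)} {ν : (κ → ℝ) → ℝ}
  {D x M C m : ℝ} {p0 pA pp pv ppv pP vP : κ → ℝ} {pc : ℝ → κ → ℝ}
  {a b c s β ζ Z Φ : ℕ → ℕ → ℕ → ℝ} {kp : ℕ → ℝ}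

/-- numerical bounds -/
theorem pow_bounds (B : Base) (n : ℕ) {M e y ε x E F : ℝ} (hM : 1 ≤ M) (he : 0 < e)
    (hF : 0 ≤ F) (hE : 0 ≤ E) (hy : 0 ≤ y) (hK : 2 ^ 30 * M ^ 6 ≤ B.d n ^ (-e))
    (hε : E + 210 * F + 2 * y + 3 * e ≤ ε) :
    10 * M ^ 2 / (B.d n ^ e * (B.d n ^ y / 6) ^ 2) ≤ B.d n ^ (-ε) ∧
    4 * M / (B.d n ^ e * (B.d n ^ y / 6) ^ 2) ≤ B.d n ^ (-ε) ∧
    400 * M ^ 3 * B.d n ^ (x - E) / (B.d n ^ e * (B.d n ^ y / 6) ^ 2) ≤ B.d n ^ (x - ε) ∧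
    160 * M ^ 3 * (400 * M ^ 3 * B.d n ^ (x - E) / (B.d n ^ e * (B.d n ^ y / 6) ^ 2)) /
      (B.d n ^ (103 * F)) ^ 2 ≤ B.d n ^ (x - ε) := by
  have hpos : ∀ t : ℝ, 0 < B.d n ^ t := fun t => rpos B n t
  have hcst : ∀ w t : ℝ, w ≤ 2 ^ 30 * M ^ 6 → ∀ t', t + e ≤ t' → w * B.d n ^ t' ≤ B.d n ^ t := by
    intro w t hw t' ht
    calc w * B.d n ^ t' ≤ B.d n ^ (-e) * B.d n ^ t' :=
          mul_le_mul_of_nonneg_right (hw.trans hK) (hpos _).le
      _ = B.d n ^ (-e + t') := by rw [rpow_add']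
      _ ≤ _ := rpow_anti B n (by linarith)
  have hM1 : 1 ≤ M ^ 6 := one_le_pow₀ hM
  have hM2 : M ^ 2 ≤ M ^ 6 := pow_le_pow_right₀ hM (by norm_num)
  have hM3 : M ≤ M ^ 6 := by
    calc M = M ^ 1 := (pow_one M).symm
      _ ≤ M ^ 6 := pow_le_pow_right₀ hM (by norm_num)
  have hM4 : M ^ 3 ≤ M ^ 6 := pow_le_pow_right₀ hM (by norm_num)
  have hr2 : B.d n ^ e * (B.d n ^ y / 6) ^ 2 = B.d n ^ (e + 2 * y) / 36 := by
    have e1 : (B.d n ^ y) ^ 2 = B.d n ^ (2 * y) := by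
      rw [← Real.rpow_natCast, ← Real.rpow_mul (B.pos n).le]
      congr 1
      push_cast
      ring
    rw [div_pow, e1, rpow_add']
    ring
  have hdiv : ∀ w t : ℝ, w * t / (B.d n ^ e * (B.d n ^ y / 6) ^ 2) =
      36 * w * (t * B.d n ^ (-(e + 2 * y))) := by
    intro w t
    rw [hr2, Real.rpow_neg (B.pos n).le]
    have := (hpos (e + 2 * y)).ne'
    field_simp
  have hq2 : (B.d n ^ (103 * F)) ^ 2 = B.d n ^ (206 * F) := by
    rw [← Real.rpow_natCast, ← Real.rpow_mul (B.pos n).le]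
    congr 1
    push_cast
    ring
  refine ⟨?_, ?_, ?_, ?_⟩
  · have h := hdiv (10 * M ^ 2) 1
    rw [mul_one, one_mul] at h
    rw [h]
    exact hcst _ _ (by linarith) _ (by linarith)
  · have h := hdiv (4 * M) 1
    rw [mul_one, one_mul] at h
    rw [h]
    exact hcst _ _ (by linarith) _ (by linarith)
  · rw [hdiv (400 * M ^ 3), ← rpow_add']
    exact hcst _ _ (by linarith) _ (by linarith)
  · rw [hdiv (400 * M ^ 3), ← rpow_add', hq2]
    have e3 : 160 * M ^ 3 * (36 * (400 * M ^ 3) *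
        B.d n ^ (x - E + -(e + 2 * y))) / B.d n ^ (206 * F) =
        (160 * 36 * 400 * M ^ 6) * (B.d n ^ (x - E + -(e + 2 * y)) *
        B.d n ^ (-(206 * F))) := by
      rw [Real.rpow_neg (B.pos n).le (206 * F)]
      ring
    rw [e3, ← rpow_add']
    exact hcst _ _ (by linarith) _ (by linarith)

set_option maxHeartbeats 1000000 in
/-- one height, fixed small parameter -/
theorem quad_fix (H : RUnif B G Leg ν D)
    (Q : QRow B G x M C p0 pA pp pv pP vP pc a b c s β ζ Z Φ kp)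
    (P : QProf Leg ν x m p0 pA pp pv ppv pP vP pc) {e ε : ℝ} (he : 0 < e)
    (h1 : 101 * D ^ 7 * e / m ≤ x / 16) (h2 : 103 * D ^ 7 * e + e ≤ x / 16)
    (h3 : C * D ^ 10 * e + e ≤ x / 4)
    (hε : C * D ^ 10 * e + 210 * D ^ 7 * e + 202 * D ^ 7 * e / m + 3 * e ≤ ε) :
    ∀ᶠ n in (U : Filter ℕ), ∀ k, ((G n).slice k).Nonempty → ∃ l1 l2 m1 m2 : ℝ,
      |l1| ≤ B.d n ^ (-ε) ∧ |l2| ≤ B.d n ^ (-ε) ∧ |m1| ≤ B.d n ^ (-ε) ∧ |m2| ≤ B.d n ^ (-ε) ∧
      ∃ L2 ⊆ (G n).slice k, B.d n ^ ε * (((G n).slice k).card : ℝ) ≤ L2.card ∧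
        ∀ l ∈ L2, ∀ l' ∈ L2, QRel (kp n) l1 l2 m1 m2 (B.d n ^ (x - ε)) (a n k) (b n k) (c n k)
          (s n k) (β n k) (ζ n k) (Z n k) l l' := by
  have hD := H.D1
  have hD0 : 0 < D := by linarith
  have hC := Q.C1
  have hM := Q.M1
  have hx := Q.x0
  have hm := P.m0
  have p7 : e ≤ D ^ 7 * e := by
    have : 1 ≤ D ^ 7 := one_le_pow₀ hD
    nlinarith
  have p10 : e ≤ C * D ^ 10 * e := by
    have h4 : 1 ≤ D ^ 10 := one_le_pow₀ hD
    have h5 : 1 ≤ C * D ^ 10 := by nlinarith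
    nlinarith
  have h107 : D ^ 7 * e ≤ D ^ 10 * e :=
    mul_le_mul_of_nonneg_right (pow_le_pow_right₀ hD (by norm_num)) he.le
  filter_upwards [cells H Q P he, few_c H Q P he (by linarith) (by linarith),
    few_s H Q P he (by linarith) (by linarith), Q.kpl e he, Q.bd,
    Q.pcl _ (show 0 < D ^ 10 * e by positivity), Q.vcl _ (show 0 < D ^ 10 * e by positivity),
    Q.pPr _ (show 0 < D ^ 10 * e by positivity), Q.vPr _ (show 0 < D ^ 10 * e by positivity),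
    ev_const_le B he (2 ^ 30 * M ^ 6)] with n hcell hfc hfs hkp hbd hpc hvc hpP hvP hK k hne
  have hpos : ∀ t : ℝ, 0 < B.d n ^ t := fun t => rpos B n t
  have hanti : ∀ s t : ℝ, s ≤ t → B.d n ^ t ≤ B.d n ^ s := fun s t h => rpow_anti B n h
  have hcst : ∀ w t : ℝ, w ≤ 2 ^ 30 * M ^ 6 → ∀ t', t + e ≤ t' → w * B.d n ^ t' ≤ B.d n ^ t := by
    intro w t hw t' ht
    calc w * B.d n ^ t' ≤ B.d n ^ (-e) * B.d n ^ t' :=
          mul_le_mul_of_nonneg_right (hw.trans hK) (hpos _).le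
      _ = B.d n ^ (-e + t') := by rw [rpow_add']
      _ ≤ _ := hanti _ _ (by linarith)
  have hM1 : 1 ≤ M ^ 6 := one_le_pow₀ hM
  have hM2 : M ^ 2 ≤ M ^ 6 := pow_le_pow_right₀ hM (by norm_num)
  have hM3 : M ≤ M ^ 6 := by
    calc M = M ^ 1 := (pow_one M).symm
      _ ≤ M ^ 6 := pow_le_pow_right₀ hM (by norm_num)
  have hM4 : M ^ 3 ≤ M ^ 6 := pow_le_pow_right₀ hM (by norm_num)
  obtain ⟨lp, lv, L, hLS, hLc, hLp, hLv, f1, f2, g1, g2, i1, i2, hfib, hdens⟩ := hcell k hne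
  have hS0 : (0 : ℝ) < (((G n).slice k).card : ℝ) := by exact_mod_cast hne.card_pos
  have hLne : L.Nonempty := by
    rw [← card_pos]
    have : (0 : ℝ) < L.card := lt_of_lt_of_le (mul_pos (hpos _) hS0) hLc
    exact_mod_cast this
  set δ := B.d n ^ (x - C * D ^ 10 * e) with hδ
  have ecd : C * (D ^ 10 * e) = C * D ^ 10 * e := by ring
  rw [ecd] at hpc hvc hpP hvP
  have hI : ∀ l ∈ L, (l, k) ∈ (G n).I := fun l hl => H.memSlice.1 (hLS hl)
  -- the grid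
  have hG : Grid L lp lv (a n k) (b n k) (c n k) (s n k) (β n k) (ζ n k) (Z n k) (Φ n k) (kp n)
      M δ := by
    refine ⟨hM, (hpos _).le, Q.kp1 n, fun l hl => hbd k l (hI l hl), ?_, ?_, ?_, ?_⟩
    · intro l hl l' hl' hll
      refine hpc k l l' (hI l hl) (hI l' hl') (H.loose_mono P.pge le_rfl (hLp l hl l' hl' hll))
    · intro l hl l' hl' hll
      refine hvc k l l' (hI l hl) (hI l' hl') (H.loose_mono P.vge le_rfl (hLv l hl l' hl' hll))
    · intro l hl l' hl' hll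
      exact hpP k l l' (hI l hl) (hI l' hl') (hLp l hl l' hl' hll)
    · intro l hl l' hl' hll
      exact hvP k l l' (hI l hl) (hI l' hl') (hLv l hl l' hl' hll)
  have hcnt : GCnt L lp lv (a n k) (b n k) (c n k) (((G n).slice k).image lp)
      (((G n).slice k).image lv) (B.d n ^ (-ν ppv - D ^ 6 * e)) (B.d n ^ (8 * D ^ 7 * e))
      (B.d n ^ (101 * D ^ 7 * e / m) / 6) (B.d n ^ (103 * D ^ 7 * e))
      (B.d n ^ (97 * D ^ 7 * e)) := by
    refine ⟨fun l hl => mem_image_of_mem _ (hLS hl), fun l hl => mem_image_of_mem _ (hLS hl),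
      hpos _, hfib, (hpos _).le, ?_, ?_⟩
    · intro t A hA h
      exact hfc k lv L hLS f2 g2 i2 t A hA h
    · intro n1 n2 t hn A hA h
      exact hfs k lp L hLS f1 g1 i1 n1 n2 t hn A hA h
  set y := 101 * D ^ 7 * e / m with hy
  have hy0 : 0 ≤ y := by positivity
  have hy2 : 202 * D ^ 7 * e / m = 2 * y := by rw [hy]; ring
  rw [hy2] at hε
  set q := B.d n ^ (103 * D ^ 7 * e) with hq
  set r := B.d n ^ y / 6 with hr
  have hr0 : 0 < r := by have := hpos y; positivity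
  have hDpow : ∀ (j : ℕ) (t : ℝ), 8 * D ^ 7 * e * j = t →
      (B.d n ^ (8 * D ^ 7 * e)) ^ j = B.d n ^ t := by
    intro j t ht
    rw [← Real.rpow_natCast, ← Real.rpow_mul (B.pos n).le, ht]
  have hD3 := hDpow 3 (24 * D ^ 7 * e) (by push_cast; ring)
  have hD12 := hDpow 12 (96 * D ^ 7 * e) (by push_cast; ring)
  have hD15 := hDpow 15 (120 * D ^ 7 * e) (by push_cast; ring)
  have hr1 : r ≤ 1 := by
    have : B.d n ^ y ≤ 1 := Real.rpow_le_one (B.pos n).le (B.lt n).le hy0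
    rw [hr]; linarith
  have hδr : δ ≤ r := by
    have := hcst 6 y (by linarith) (x - C * D ^ 10 * e) (by linarith)
    rw [hr]; linarith
  have hk01 : B.d n ^ e ≤ 1 := Real.rpow_le_one (B.pos n).le (B.lt n).le he.le
  have hη : 3 * B.d n ^ (97 * D ^ 7 * e) ≤ (B.d n ^ (8 * D ^ 7 * e)) ^ 3 / 16 := by
    rw [hD3]
    have := hcst 48 (24 * D ^ 7 * e) (by linarith) (97 * D ^ 7 * e) (by linarith)
    linarith only [this]
  have hδq : 2 * δ ≤ q :=
    hcst 2 _ (by linarith) _ (by linarith)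
  have hq2 : q ^ 2 = B.d n ^ (206 * D ^ 7 * e) := by
    rw [hq, ← Real.rpow_natCast, ← Real.rpow_mul (B.pos n).le]
    congr 1
    push_cast
    ring
  have hδω : 64 * M * δ ≤ q ^ 2 := by
    rw [hq2]
    exact hcst _ _ (by linarith) _ (by linarith)
  have hη2 : 2 * B.d n ^ (97 * D ^ 7 * e) ≤ ((B.d n ^ (8 * D ^ 7 * e)) ^ 4 / 32) ^ 3 / 16 := by
    have e1 : ((B.d n ^ (8 * D ^ 7 * e)) ^ 4 / 32) ^ 3 / 16 =
        (B.d n ^ (8 * D ^ 7 * e)) ^ 12 / (32 ^ 3 * 16) := by ring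
    rw [e1, hD12, le_div_iff₀ (by norm_num)]
    have := hcst (2 * (32 ^ 3 * 16)) (96 * D ^ 7 * e) (by linarith)
      (97 * D ^ 7 * e) (by linarith)
    linarith only [this]
  obtain ⟨l1, l2, m1, m2, hl1, hl2, hm1, hm2, L2, hL2, hc2, hrel⟩ :=
    grid_quad hG hcnt hLne (hpos _) hdens hr0 hr1 hδr (hpos e) hk01 hkp hη (hpos _) hδq hδω hη2
  -- bounds
  obtain ⟨b10, b4, e1, e2⟩ := pow_bounds B n (M := M) (e := e) (y := y) (ε := ε) (x := x)
    (E := C * D ^ 10 * e) (F := D ^ 7 * e) hM he (by positivity) (by positivity) hy0 hK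
    (by linarith)
  have e103 : 103 * (D ^ 7 * e) = 103 * D ^ 7 * e := by ring
  rw [e103] at e2
  refine ⟨l1, l2, m1, m2, hl1.trans b10, hl2.trans b10, hm1.trans b4, hm2.trans b4, L2,
    hL2.trans hLS, ?_, ?_⟩
  · refine le_trans ?_ (le_trans (mul_le_mul_of_nonneg_left hLc ?_) hc2)
    · have e1 : ((B.d n ^ (8 * D ^ 7 * e)) ^ 4 / 32) ^ 3 / 32 *
          ((B.d n ^ (8 * D ^ 7 * e)) ^ 3 / 32) *
          (B.d n ^ (4 * D ^ 7 * e) * (((G n).slice k).card : ℝ)) =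
          ((B.d n ^ (8 * D ^ 7 * e)) ^ 15 * B.d n ^ (4 * D ^ 7 * e) / 32 ^ 5) *
          (((G n).slice k).card : ℝ) := by ring
      rw [e1, hD15, ← rpow_add']
      refine mul_le_mul_of_nonneg_right ?_ hS0.le
      rw [le_div_iff₀ (by norm_num)]
      have := hcst (32 ^ 5) (120 * D ^ 7 * e + 4 * D ^ 7 * e) (by linarith)
        ε (by linarith)
      linarith only [this]
    · have := hpos (8 * D ^ 7 * e)
      positivity
  · intro l hl l' hl'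
    obtain ⟨k1, k2, k3, k4⟩ := hrel l hl l' hl'
    exact ⟨k1.trans e1, k2.trans e1, k3.trans e2, k4.trans e2⟩

/-- **one height** -/
theorem quad_one (H : RUnif B G Leg ν D)
    (Q : QRow B G x M C p0 pA pp pv pP vP pc a b c s β ζ Z Φ kp)
    (P : QProf Leg ν x m p0 pA pp pv ppv pP vP pc) {ε : ℝ} (hε : 0 < ε) :
    ∀ᶠ n in (U : Filter ℕ), ∀ k, ((G n).slice k).Nonempty → ∃ l1 l2 m1 m2 : ℝ,
      |l1| ≤ B.d n ^ (-ε) ∧ |l2| ≤ B.d n ^ (-ε) ∧ |m1| ≤ B.d n ^ (-ε) ∧ |m2| ≤ B.d n ^ (-ε) ∧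
      ∃ L2 ⊆ (G n).slice k, B.d n ^ ε * (((G n).slice k).card : ℝ) ≤ L2.card ∧
        ∀ l ∈ L2, ∀ l' ∈ L2, QRel (kp n) l1 l2 m1 m2 (B.d n ^ (x - ε)) (a n k) (b n k) (c n k)
          (s n k) (β n k) (ζ n k) (Z n k) l l' := by
  have hD := H.D1
  have hC := Q.C1
  have hx := Q.x0
  have hm := P.m0
  set t := min x ε with ht
  have ht0 : 0 < t := lt_min hx hε
  set K := 10000 * (C * D ^ 10 + D ^ 7 + D ^ 7 / m + 1) with hK
  have hD7 : 1 ≤ D ^ 7 := one_le_pow₀ hD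
  have hD10 : 1 ≤ D ^ 10 := one_le_pow₀ hD
  have hCD : 1 ≤ C * D ^ 10 := by nlinarith
  have hDm : 0 < D ^ 7 / m := by positivity
  have hK0 : 0 < K := by positivity
  set e := t / K with he
  have he0 : 0 < e := by positivity
  have heK : K * e = t := by rw [he]; field_simp
  have htx : t ≤ x := min_le_left _ _
  have htε : t ≤ ε := min_le_right _ _
  have q1 : 0 ≤ C * D ^ 10 * e := by positivity
  have q2 : 0 ≤ D ^ 7 * e := by positivity
  have q3 : 0 ≤ D ^ 7 / m * e := by positivity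
  have hexp : K * e = 10000 * (C * D ^ 10 * e) + 10000 * (D ^ 7 * e) +
      10000 * (D ^ 7 / m * e) + 10000 * e := by rw [hK]; ring
  have e1 : 101 * D ^ 7 * e / m = 101 * (D ^ 7 / m * e) := by ring
  have e2 : 202 * D ^ 7 * e / m = 202 * (D ^ 7 / m * e) := by ring
  refine quad_fix H Q P he0 ?_ ?_ ?_ ?_
  · rw [e1]; linarith
  · linarith
  · linarith
  · rw [e2]; linarith

end Crest.Agent.R136.Qd329
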