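import Crest.Agent.R136.Qd8_329

/-!
# R136: the bilinear rigidity (helper329), part 9: the slot `P` at one height

`ARel` = the relation in absolute form; `grid_phi` : the remainder of `Φ` is constant on a dense
part; `phi_one` : the same over an `RUnif`.
-/

set_option autoImplicit false

open Filter Topology

namespace Crest.Agent.R136.Qd329

open Finset
open Crest.Agent.R138.Ex926 (Base U)
open Crest.Agent.R136.Gf356

/-- the relation, absolute form: slopes `l1 l2 m1 m2`, constants `s0 β0 ζ0 Z0` -/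
structure ARel (κ l1 l2 m1 m2 s0 β0 ζ0 Z0 e a b c s β ζ Z : ℝ) : Prop where
  rs : |s - (l1 * b + l2 * a + s0)| ≤ e
  rβ : |β - (m1 * b + m2 * a + β0)| ≤ e
  rζ : |ζ - (l1 * c - κ * m1 * c ^ 2 + ζ0)| ≤ e
  rZ : |Z - (l2 * c - κ * m2 * c ^ 2 + Z0)| ≤ e

/-- the part of `Φ` given by the relation -/
def phiR (κ l1 l2 m1 m2 s0 β0 ζ0 Z0 a b c : ℝ) : ℝ :=
  c * (l1 * b + l2 * a + s0) - κ * c ^ 2 * (m1 * b + m2 * a + β0) + ζ0 * b + Z0 * a

section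

variable {α : Type*} {L : Finset α} {pc vc : α → ℕ} {a b c s β ζ Z Φ : α → ℝ} {κ M δ : ℝ}

/-- the remainder of `Φ` on position cells -/
theorem phi_p (G : Grid L pc vc a b c s β ζ Z Φ κ M δ) {l1 l2 m1 m2 s0 β0 ζ0 Z0 e Λ : ℝ}
    (he : 0 ≤ e) (hζ : |ζ0| ≤ Λ) (hZ : |Z0| ≤ Λ) {l l' : α} (hl : l ∈ L) (hl' : l' ∈ L)
    (hpc : pc l = pc l')
    (r : ARel κ l1 l2 m1 m2 s0 β0 ζ0 Z0 e (a l) (b l) (c l) (s l) (β l) (ζ l) (Z l))
    (r' : ARel κ l1 l2 m1 m2 s0 β0 ζ0 Z0 e (a l') (b l') (c l') (s l') (β l') (ζ l') (Z l')) :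
    |(Φ l - phiR κ l1 l2 m1 m2 s0 β0 ζ0 Z0 (a l) (b l) (c l)) -
      (Φ l' - phiR κ l1 l2 m1 m2 s0 β0 ζ0 Z0 (a l') (b l') (c l'))| ≤
      δ + 4 * M ^ 2 * e + 2 * Λ * δ := by
  have hM := G.M1
  have hδ := G.δ0
  have hΛ : 0 ≤ Λ := (abs_nonneg _).trans hζ
  obtain ⟨-, -, c1, -⟩ := G.bd l hl
  obtain ⟨-, -, c2, -⟩ := G.bd l' hl'
  obtain ⟨pa, pb, -, -⟩ := G.pcl l hl l' hl' hpc
  have p := G.pP l hl l' hl' hpc
  have key : ∀ k : α, |c k| ≤ M →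
      ARel κ l1 l2 m1 m2 s0 β0 ζ0 Z0 e (a k) (b k) (c k) (s k) (β k) (ζ k) (Z k) →
      |c k * (s k - (l1 * b k + l2 * a k + s0)) -
        κ * c k ^ 2 * (β k - (m1 * b k + m2 * a k + β0))| ≤ 2 * M ^ 2 * e := by
    intro k hk rk
    have h1 : |c k * (s k - (l1 * b k + l2 * a k + s0))| ≤ M * e := by
      rw [abs_mul]; exact mul_le_mul hk rk.rs (abs_nonneg _) (by linarith)
    have h3 : |κ * c k ^ 2| ≤ M ^ 2 := by
      rw [abs_mul, abs_pow]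
      calc |κ| * |c k| ^ 2 ≤ 1 * M ^ 2 :=
            mul_le_mul G.κ1 (pow_le_pow_left₀ (abs_nonneg _) hk 2) (by positivity) zero_le_one
        _ = _ := one_mul _
    have h2 : |κ * c k ^ 2 * (β k - (m1 * b k + m2 * a k + β0))| ≤ M ^ 2 * e := by
      rw [abs_mul]; exact mul_le_mul h3 rk.rβ (abs_nonneg _) (by positivity)
    have h4 : M * e ≤ M ^ 2 * e := mul_le_mul_of_nonneg_right (by nlinarith) he
    refine (abs_sub _ _).trans ?_
    linarith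
  have k1 := key l c1 r
  have k2 := key l' c2 r'
  have h5 : |ζ0 * (b l - b l')| ≤ Λ * δ := by
    rw [abs_mul]; exact mul_le_mul hζ pb (abs_nonneg _) hΛ
  have h6 : |Z0 * (a l - a l')| ≤ Λ * δ := by
    rw [abs_mul]; exact mul_le_mul hZ pa (abs_nonneg _) hΛ
  have e1 : (Φ l - phiR κ l1 l2 m1 m2 s0 β0 ζ0 Z0 (a l) (b l) (c l)) -
      (Φ l' - phiR κ l1 l2 m1 m2 s0 β0 ζ0 Z0 (a l') (b l') (c l')) =
      ((Φ l - c l * s l + κ * c l ^ 2 * β l) - (Φ l' - c l' * s l' + κ * c l' ^ 2 * β l')) +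
      (c l * (s l - (l1 * b l + l2 * a l + s0)) -
        κ * c l ^ 2 * (β l - (m1 * b l + m2 * a l + β0))) -
      (c l' * (s l' - (l1 * b l' + l2 * a l' + s0)) -
        κ * c l' ^ 2 * (β l' - (m1 * b l' + m2 * a l' + β0))) -
      ζ0 * (b l - b l') - Z0 * (a l - a l') := by
    unfold phiR; ring
  rw [e1]
  have tri : ∀ p1 p2 p3 p4 p5 : ℝ, |p1 + p2 - p3 - p4 - p5| ≤
      |p1| + |p2| + |p3| + |p4| + |p5| := by
    intro p1 p2 p3 p4 p5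
    have := abs_sub (p1 + p2 - p3 - p4) p5
    have := abs_sub (p1 + p2 - p3) p4
    have := abs_sub (p1 + p2) p3
    have := abs_add_le p1 p2
    linarith
  refine (tri _ _ _ _ _).trans ?_
  linarith

/-- the remainder of `Φ` on velocity cells -/
theorem phi_v (G : Grid L pc vc a b c s β ζ Z Φ κ M δ) {l1 l2 m1 m2 s0 β0 ζ0 Z0 e Λ : ℝ}
    (hs : |s0| ≤ Λ) (hβ : |β0| ≤ Λ) {l l' : α} (hl : l ∈ L) (hl' : l' ∈ L) (hvc : vc l = vc l')
    (r : ARel κ l1 l2 m1 m2 s0 β0 ζ0 Z0 e (a l) (b l) (c l) (s l) (β l) (ζ l) (Z l))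
    (r' : ARel κ l1 l2 m1 m2 s0 β0 ζ0 Z0 e (a l') (b l') (c l') (s l') (β l') (ζ l') (Z l')) :
    |(Φ l - phiR κ l1 l2 m1 m2 s0 β0 ζ0 Z0 (a l) (b l) (c l)) -
      (Φ l' - phiR κ l1 l2 m1 m2 s0 β0 ζ0 Z0 (a l') (b l') (c l'))| ≤
      δ + 4 * M * e + 3 * M * Λ * δ := by
  have hM := G.M1
  have hδ := G.δ0
  have hΛ : 0 ≤ Λ := (abs_nonneg _).trans hs
  obtain ⟨a1, b1, c1, -⟩ := G.bd l hl
  obtain ⟨a2, b2, c2, -⟩ := G.bd l' hl'
  obtain ⟨vcc, -, -⟩ := G.vcl l hl l' hl' hvc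
  have p := G.vP l hl l' hl' hvc
  have key : ∀ k : α, |a k| ≤ M → |b k| ≤ M →
      ARel κ l1 l2 m1 m2 s0 β0 ζ0 Z0 e (a k) (b k) (c k) (s k) (β k) (ζ k) (Z k) →
      |b k * (ζ k - (l1 * c k - κ * m1 * c k ^ 2 + ζ0)) +
        a k * (Z k - (l2 * c k - κ * m2 * c k ^ 2 + Z0))| ≤ 2 * M * e := by
    intro k hak hbk rk
    have h1 : |b k * (ζ k - (l1 * c k - κ * m1 * c k ^ 2 + ζ0))| ≤ M * e := by
      rw [abs_mul]; exact mul_le_mul hbk rk.rζ (abs_nonneg _) (by linarith)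
    have h2 : |a k * (Z k - (l2 * c k - κ * m2 * c k ^ 2 + Z0))| ≤ M * e := by
      rw [abs_mul]; exact mul_le_mul hak rk.rZ (abs_nonneg _) (by linarith)
    refine (abs_add_le _ _).trans ?_
    linarith
  have k1 := key l a1 b1 r
  have k2 := key l' a2 b2 r'
  have h5 : |s0 * (c l - c l')| ≤ Λ * δ := by
    rw [abs_mul]; exact mul_le_mul hs vcc (abs_nonneg _) hΛ
  have h6 : |κ * β0 * (c l ^ 2 - c l' ^ 2)| ≤ Λ * (2 * M * δ) := by
    have h7 : |κ * β0| ≤ Λ := by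
      rw [abs_mul]
      calc |κ| * |β0| ≤ 1 * Λ := mul_le_mul G.κ1 hβ (abs_nonneg _) zero_le_one
        _ = Λ := one_mul _
    have h8 : |c l ^ 2 - c l' ^ 2| ≤ 2 * M * δ := by
      have e1 : c l ^ 2 - c l' ^ 2 = (c l + c l') * (c l - c l') := by ring
      rw [e1, abs_mul]
      have := abs_add_le (c l) (c l')
      exact mul_le_mul (by linarith) vcc (abs_nonneg _) (by linarith)
    rw [abs_mul]
    exact mul_le_mul h7 h8 (abs_nonneg _) hΛ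
  have hM2 : Λ * δ ≤ M * Λ * δ := by
    have : 0 ≤ Λ * δ := mul_nonneg hΛ hδ
    nlinarith
  have e1 : (Φ l - phiR κ l1 l2 m1 m2 s0 β0 ζ0 Z0 (a l) (b l) (c l)) -
      (Φ l' - phiR κ l1 l2 m1 m2 s0 β0 ζ0 Z0 (a l') (b l') (c l')) =
      ((Φ l - ζ l * b l - Z l * a l) - (Φ l' - ζ l' * b l' - Z l' * a l')) +
      (b l * (ζ l - (l1 * c l - κ * m1 * c l ^ 2 + ζ0)) +
        a l * (Z l - (l2 * c l - κ * m2 * c l ^ 2 + Z0))) -
      (b l' * (ζ l' - (l1 * c l' - κ * m1 * c l' ^ 2 + ζ0)) +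
        a l' * (Z l' - (l2 * c l' - κ * m2 * c l' ^ 2 + Z0))) -
      s0 * (c l - c l') + κ * β0 * (c l ^ 2 - c l' ^ 2) := by
    unfold phiR; ring
  rw [e1]
  have tri : ∀ p1 p2 p3 p4 p5 : ℝ, |p1 + p2 - p3 - p4 + p5| ≤
      |p1| + |p2| + |p3| + |p4| + |p5| := by
    intro p1 p2 p3 p4 p5
    have := abs_add_le (p1 + p2 - p3 - p4) p5
    have := abs_sub (p1 + p2 - p3) p4
    have := abs_sub (p1 + p2) p3
    have := abs_add_le p1 p2
    linarith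
  refine (tri _ _ _ _ _).trans ?_
  linarith

/-- **the remainder of `Φ` is constant on a dense part** -/
theorem grid_phi (G : Grid L pc vc a b c s β ζ Z Φ κ M δ) {P V : Finset ℕ} {W D : ℝ}
    (hp : ∀ l ∈ L, pc l ∈ P) (hv : ∀ l ∈ L, vc l ∈ V) (hW : 0 < W)
    (fib : ∀ p v, ((L.filter fun l => pc l = p ∧ vc l = v).card : ℝ) ≤ W)
    (hL : L.Nonempty) (hD : 0 < D) (dens : D * W * P.card * V.card ≤ L.card)
    {l1 l2 m1 m2 s0 β0 ζ0 Z0 e Λ : ℝ} (he : 0 ≤ e) (hs : |s0| ≤ Λ) (hβ : |β0| ≤ Λ)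
    (hζ : |ζ0| ≤ Λ) (hZ : |Z0| ≤ Λ)
    (r : ∀ l ∈ L, ARel κ l1 l2 m1 m2 s0 β0 ζ0 Z0 e (a l) (b l) (c l) (s l) (β l) (ζ l) (Z l)) :
    ∃ L1 ⊆ L, D ^ 3 / 32 * (L.card : ℝ) ≤ L1.card ∧ ∀ l ∈ L1, ∀ l' ∈ L1,
      |(Φ l - phiR κ l1 l2 m1 m2 s0 β0 ζ0 Z0 (a l) (b l) (c l)) -
        (Φ l' - phiR κ l1 l2 m1 m2 s0 β0 ζ0 Z0 (a l') (b l') (c l'))| ≤
      3 * δ + 12 * M ^ 2 * e + 7 * M * Λ * δ := by
  have hM := G.M1
  have hδ := G.δ0
  have hΛ : 0 ≤ Λ := (abs_nonneg _).trans hs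
  obtain ⟨v1, -, v2, -, v3, -, -, L1, hL1, hcard, hcomp⟩ :=
    triple_pigeon L pc vc P V hp hv hW hD fib hL dens (fun _ _ _ => False) (by
      simp only [filter_false, card_empty, Nat.cast_zero]
      positivity)
  refine ⟨L1, hL1, hcard, fun l hl l' hl' => ?_⟩
  obtain ⟨⟨p, hpL, e1, f1⟩, -⟩ := hcomp l hl
  obtain ⟨⟨p', hpL', e2, f2⟩, -⟩ := hcomp l' hl'
  have k1 := phi_p G he hζ hZ (hL1 hl) hpL e1.symm (r l (hL1 hl)) (r p hpL)
  have k2 := phi_v G hs hβ hpL hpL' (f1.trans f2.symm) (r p hpL) (r p' hpL')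
  have k3 := phi_p G he hζ hZ hpL' (hL1 hl') e2 (r p' hpL') (r l' (hL1 hl'))
  have h1 : M * e ≤ M ^ 2 * e := mul_le_mul_of_nonneg_right (by nlinarith) he
  have h2 : Λ * δ ≤ M * Λ * δ := by
    have : 0 ≤ Λ * δ := mul_nonneg hΛ hδ
    nlinarith
  have e3 : (Φ l - phiR κ l1 l2 m1 m2 s0 β0 ζ0 Z0 (a l) (b l) (c l)) -
      (Φ l' - phiR κ l1 l2 m1 m2 s0 β0 ζ0 Z0 (a l') (b l') (c l')) =
      ((Φ l - phiR κ l1 l2 m1 m2 s0 β0 ζ0 Z0 (a l) (b l) (c l)) -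
        (Φ p - phiR κ l1 l2 m1 m2 s0 β0 ζ0 Z0 (a p) (b p) (c p))) +
      ((Φ p - phiR κ l1 l2 m1 m2 s0 β0 ζ0 Z0 (a p) (b p) (c p)) -
        (Φ p' - phiR κ l1 l2 m1 m2 s0 β0 ζ0 Z0 (a p') (b p') (c p'))) +
      ((Φ p' - phiR κ l1 l2 m1 m2 s0 β0 ζ0 Z0 (a p') (b p') (c p')) -
        (Φ l' - phiR κ l1 l2 m1 m2 s0 β0 ζ0 Z0 (a l') (b l') (c l'))) := by ring
  rw [e3]
  refine (abs_add_le _ _).trans ?_
  have := abs_add_le ((Φ l - phiR κ l1 l2 m1 m2 s0 β0 ζ0 Z0 (a l) (b l) (c l)) -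
        (Φ p - phiR κ l1 l2 m1 m2 s0 β0 ζ0 Z0 (a p) (b p) (c p)))
      ((Φ p - phiR κ l1 l2 m1 m2 s0 β0 ζ0 Z0 (a p) (b p) (c p)) -
        (Φ p' - phiR κ l1 l2 m1 m2 s0 β0 ζ0 Z0 (a p') (b p') (c p')))
  nlinarith

end

section

variable {κ : Type} {B : Base} {G : ℕ → RCfg κ} {Leg : Set (κ → ℝ)} {ν : (κ → ℝ) → ℝ}
  {D x M C m : ℝ} {p0 pA pp pv ppv pP vP : κ → ℝ} {pc : ℝ → κ → ℝ}
  {a b c s β ζ Z Φ : ℕ → ℕ → ℕ → ℝ} {kp : ℕ → ℝ}

/-- **cells and dense part of a dense set** -/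
theorem cellsT (H : RUnif B G Leg ν D)
    (Q : QRow B G x M C p0 pA pp pv pP vP pc a b c s β ζ Z Φ kp)
    (P : QProf Leg ν x m p0 pA pp pv ppv pP vP pc) {ε τ : ℝ} (hε : 0 < ε) :
    ∀ᶠ n in (U : Filter ℕ), ∀ k, ∀ T ⊆ (G n).slice k, T.Nonempty →
      B.d n ^ τ * (((G n).slice k).card : ℝ) ≤ T.card → ∃ lp lv : ℕ → ℕ, ∃ L ⊆ T,
      B.d n ^ (4 * D ^ 7 * ε) * (T.card : ℝ) ≤ L.card ∧
      (∀ l ∈ L, ∀ l' ∈ L, lp l = lp l' → (G n).loose pP (D ^ 10 * ε) k l l') ∧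
      (∀ l ∈ L, ∀ l' ∈ L, lv l = lv l' → (G n).loose vP (D ^ 10 * ε) k l l') ∧
      (∀ e f, ((L.filter fun l => lp l = e ∧ lv l = f).card : ℝ) ≤
        B.d n ^ (-ν ppv - D ^ 6 * ε)) ∧
      B.d n ^ (8 * D ^ 7 * ε + τ) * B.d n ^ (-ν ppv - D ^ 6 * ε) *
        (((G n).slice k).image lp).card * (((G n).slice k).image lv).card ≤ L.card := by
  classical
  have hD := H.D1
  have hD0 : 0 < D := by linarith
  have h5 : 0 < D ^ 5 * ε := by positivity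
  filter_upwards [net_facts H p0 pp P.l0 P.lp Q.all hε, net_facts H p0 pv P.l0 P.lv Q.all hε,
    popular H pp pP P.lp P.lpP P.pge h5, popular H pv vP P.lv P.lvP P.vge h5,
    H.up ppv P.lpv _ h5, H.up p0 P.l0 ε hε, Q.all ε hε] with
    n np nv qp qv hup hup0 hall k T hT hTne hTc
  have hne : ((G n).slice k).Nonempty := hTne.mono hT
  obtain ⟨lp, a1, a2, a3, a4, a5⟩ := np k hne
  obtain ⟨lv, b1, b2, b3, b4, b5⟩ := nv k hne
  have hpos : ∀ t : ℝ, 0 < B.d n ^ t := fun t => rpos B n t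
  obtain ⟨T1, hT1, c1, d1⟩ := qp k T hT lp fun t ht t' ht' => a2 t (hT ht) t' (hT ht')
  obtain ⟨T2, hT2, c2, d2⟩ := qv k T1 (hT1.trans hT) lv
    fun t ht t' ht' => b2 t (hT (hT1 ht)) t' (hT (hT1 ht'))
  have e10 : D ^ 5 * (D ^ 5 * ε) = D ^ 10 * ε := by ring
  rw [e10] at d1 d2
  have e7 : 2 * ((D ^ 2 + 1) * (D ^ 5 * ε)) ≤ 4 * D ^ 7 * ε := by
    have : (D ^ 2 + 1) * D ^ 5 ≤ 2 * D ^ 7 := by
      have h2 : D ^ 5 ≤ D ^ 7 := pow_le_pow_right₀ hD (by norm_num)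
      nlinarith
    nlinarith
  have hdens : B.d n ^ (4 * D ^ 7 * ε) * (T.card : ℝ) ≤ T2.card := by
    have f1 : B.d n ^ ((D ^ 2 + 1) * (D ^ 5 * ε)) * (T.card : ℝ) ≤ T1.card := by
      refine le_trans (mul_le_mul_of_nonneg_right (rpow_anti B n ?_) (Nat.cast_nonneg _)) c1
      linarith [P.H1]
    have f2 : B.d n ^ ((D ^ 2 + 1) * (D ^ 5 * ε)) * (T1.card : ℝ) ≤ T2.card := by
      refine le_trans (mul_le_mul_of_nonneg_right (rpow_anti B n ?_) (Nat.cast_nonneg _)) c2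
      linarith [P.H2]
    refine le_trans ?_ ((mul_le_mul_of_nonneg_left f1 (hpos _).le).trans f2)
    rw [← mul_assoc, ← rpow_add']
    refine mul_le_mul_of_nonneg_right (rpow_anti B n ?_) (Nat.cast_nonneg _)
    linarith
  have hpI : ∀ l ∈ T2, l ∈ (G n).slice k := fun l hl => hT (hT1 (hT2 hl))
  refine ⟨lp, lv, T2, fun l hl => hT1 (hT2 hl), hdens,
    fun l hl l' hl' => d1 l (hT2 hl) l' (hT2 hl'), d2, ?_, ?_⟩
  · intro e f
    rcases (T2.filter fun l => lp l = e ∧ lv l = f).eq_empty_or_nonempty with h | ⟨l0, hl0⟩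
    · rw [h, card_empty, Nat.cast_zero]; exact (hpos _).le
    · obtain ⟨g1, g2, g3⟩ := mem_filter.1 hl0
      have g4 := hup l0 k (H.memSlice.1 (hpI l0 g1))
      refine le_trans (Nat.cast_le.2 (card_le_card ?_)) (g4.trans (rpow_anti B n ?_))
      · intro l hl
        obtain ⟨i1, i2, i3⟩ := mem_filter.1 hl
        refine RCfg.mem_box.2 ⟨hpI l i1, fun j => ?_⟩
        rcases P.por j with hj | hj
        · rw [hj]; exact a2 l0 (hpI l0 g1) l (hpI l i1) (g2.trans i2.symm) j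
        · rw [hj]; exact b2 l0 (hpI l0 g1) l (hpI l i1) (g3.trans i3.symm) j
      · have : D * (D ^ 5 * ε) = D ^ 6 * ε := by ring
        linarith
  · set S : ℝ := (((G n).slice k).card : ℝ) with hS
    have hS0 : 0 ≤ S := Nat.cast_nonneg _
    have hSle : S ≤ B.d n ^ (-ν p0 - D * ε) := by
      obtain ⟨l0, hl0⟩ := hne
      have hl0I := H.memSlice.1 hl0
      refine le_trans (Nat.cast_le.2 (card_le_card ?_)) (hup0 l0 k hl0I)
      intro l hl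
      exact RCfg.mem_box.2 ⟨hl, hall k l0 l hl0I (H.memSlice.1 hl)⟩
    refine le_trans ?_ ((mul_le_mul_of_nonneg_left hTc (hpos _).le).trans hdens)
    calc B.d n ^ (8 * D ^ 7 * ε + τ) * B.d n ^ (-ν ppv - D ^ 6 * ε) *
          (((G n).slice k).image lp).card * (((G n).slice k).image lv).card
        ≤ B.d n ^ (8 * D ^ 7 * ε + τ) * B.d n ^ (-ν ppv - D ^ 6 * ε) *
          (B.d n ^ (ν pp - ε) * S) * (B.d n ^ (ν pv - ε) * B.d n ^ (-ν p0 - D * ε)) := by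
          have g1 := b4.trans (mul_le_mul_of_nonneg_left hSle (hpos _).le)
          have := hpos (8 * D ^ 7 * ε + τ)
          have := hpos (-ν ppv - D ^ 6 * ε)
          have := hpos (ν pp - ε)
          gcongr
      _ = B.d n ^ (8 * D ^ 7 * ε + τ + (-ν ppv - D ^ 6 * ε) + (ν pp - ε) + (ν pv - ε) +
          (-ν p0 - D * ε)) * S := by
          simp only [rpow_add']
          ring
      _ ≤ B.d n ^ (4 * D ^ 7 * ε + τ) * S := by
          refine mul_le_mul_of_nonneg_right (rpow_anti B n ?_) hS0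
          have i1 : D ^ 6 ≤ D ^ 7 := pow_le_pow_right₀ hD (by norm_num)
          have i2 : D ≤ D ^ 7 := by
            calc D = D ^ 1 := (pow_one D).symm
              _ ≤ D ^ 7 := pow_le_pow_right₀ hD (by norm_num)
          have i3 : 1 ≤ D ^ 7 := one_le_pow₀ hD
          have i4 := mul_le_mul_of_nonneg_right i1 hε.le
          have i5 := mul_le_mul_of_nonneg_right i2 hε.le
          have i6 := mul_le_mul_of_nonneg_right i3 hε.le
          have i7 := P.H3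
          nlinarith
      _ = B.d n ^ (4 * D ^ 7 * ε) * (B.d n ^ τ * S) := by rw [rpow_add']; ring

/-- **the slot `P` at one height** -/
theorem phi_one (H : RUnif B G Leg ν D)
    (Q : QRow B G x M C p0 pA pp pv pP vP pc a b c s β ζ Z Φ kp)
    (P : QProf Leg ν x m p0 pA pp pv ppv pP vP pc) {ε : ℝ} (hε : 0 < ε) :
    ∃ ε' > 0, ε' ≤ ε ∧ ∀ᶠ n in (U : Filter ℕ), ∀ k, ∀ T ⊆ (G n).slice k, T.Nonempty →
      B.d n ^ ε' * (((G n).slice k).card : ℝ) ≤ T.card → ∀ l1 l2 m1 m2 s0 β0 ζ0 Z0 : ℝ,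
      |s0| ≤ B.d n ^ (-ε') → |β0| ≤ B.d n ^ (-ε') → |ζ0| ≤ B.d n ^ (-ε') →
      |Z0| ≤ B.d n ^ (-ε') →
      (∀ l ∈ T, ARel (kp n) l1 l2 m1 m2 s0 β0 ζ0 Z0 (B.d n ^ (x - ε')) (a n k l) (b n k l)
        (c n k l) (s n k l) (β n k l) (ζ n k l) (Z n k l)) →
      ∃ L ⊆ T, B.d n ^ ε * (T.card : ℝ) ≤ L.card ∧ ∀ l ∈ L, ∀ l' ∈ L,
        |(Φ n k l - phiR (kp n) l1 l2 m1 m2 s0 β0 ζ0 Z0 (a n k l) (b n k l) (c n k l)) -
          (Φ n k l' - phiR (kp n) l1 l2 m1 m2 s0 β0 ζ0 Z0 (a n k l') (b n k l') (c n k l'))| ≤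
        B.d n ^ (x - ε) := by
  have hD := H.D1
  have hD0 : 0 < D := by linarith
  have hC := Q.C1
  have hM := Q.M1
  set K := 1000 * (C * D ^ 10 + D ^ 7 + 1) with hK
  have hK0 : 0 < K := by positivity
  have hK1 : 1 ≤ K := by
    have : 0 ≤ C * D ^ 10 + D ^ 7 := by positivity
    linarith
  set e := ε / K with he
  have he0 : 0 < e := by positivity
  have heK : K * e = ε := by rw [he]; field_simp
  have hexp : K * e = 1000 * (C * D ^ 10 * e) + 1000 * (D ^ 7 * e) + 1000 * e := by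
    rw [hK]; ring
  have q1 : 0 ≤ C * D ^ 10 * e := by positivity
  have q2 : 0 ≤ D ^ 7 * e := by positivity
  refine ⟨e, he0, by nlinarith, ?_⟩
  filter_upwards [cellsT H Q P (τ := e) he0, Q.bd,
    Q.pcl _ (show 0 < D ^ 10 * e by positivity), Q.vcl _ (show 0 < D ^ 10 * e by positivity),
    Q.pPr _ (show 0 < D ^ 10 * e by positivity), Q.vPr _ (show 0 < D ^ 10 * e by positivity),
    ev_const_le B he0 (100 * M ^ 2)] with n hcell hbd hpc hvc hpP hvP hK2 k T hT hTne hTc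
    l1 l2 m1 m2 s0 β0 ζ0 Z0 hs hβ hζ hZ hrel
  have hpos : ∀ t : ℝ, 0 < B.d n ^ t := fun t => rpos B n t
  have hcst : ∀ w t : ℝ, w ≤ 100 * M ^ 2 → ∀ t', t + e ≤ t' → w * B.d n ^ t' ≤ B.d n ^ t := by
    intro w t hw t' ht
    calc w * B.d n ^ t' ≤ B.d n ^ (-e) * B.d n ^ t' :=
          mul_le_mul_of_nonneg_right (hw.trans hK2) (hpos _).le
      _ = B.d n ^ (-e + t') := by rw [rpow_add']
      _ ≤ _ := rpow_anti B n (by linarith)
  have hM2 : 1 ≤ M ^ 2 := one_le_pow₀ hM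
  have hMM : M ≤ M ^ 2 := by nlinarith
  obtain ⟨lp, lv, L, hLT, hLc, hLp, hLv, hfib, hdens⟩ := hcell k T hT hTne hTc
  have hT0 : (0 : ℝ) < T.card := by exact_mod_cast hTne.card_pos
  have hLne : L.Nonempty := by
    rw [← card_pos]
    have : (0 : ℝ) < L.card := lt_of_lt_of_le (mul_pos (hpos _) hT0) hLc
    exact_mod_cast this
  set δ := B.d n ^ (x - C * D ^ 10 * e) with hδ
  have ecd : C * (D ^ 10 * e) = C * D ^ 10 * e := by ring
  rw [ecd] at hpc hvc hpP hvP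
  have hLS : L ⊆ (G n).slice k := hLT.trans hT
  have hI : ∀ l ∈ L, (l, k) ∈ (G n).I := fun l hl => H.memSlice.1 (hLS hl)
  have hG : Grid L lp lv (a n k) (b n k) (c n k) (s n k) (β n k) (ζ n k) (Z n k) (Φ n k) (kp n)
      M δ := by
    refine ⟨hM, (hpos _).le, Q.kp1 n, fun l hl => hbd k l (hI l hl), ?_, ?_, ?_, ?_⟩
    · intro l hl l' hl' hll
      exact hpc k l l' (hI l hl) (hI l' hl') (H.loose_mono P.pge le_rfl (hLp l hl l' hl' hll))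
    · intro l hl l' hl' hll
      exact hvc k l l' (hI l hl) (hI l' hl') (H.loose_mono P.vge le_rfl (hLv l hl l' hl' hll))
    · intro l hl l' hl' hll
      exact hpP k l l' (hI l hl) (hI l' hl') (hLp l hl l' hl' hll)
    · intro l hl l' hl' hll
      exact hvP k l l' (hI l hl) (hI l' hl') (hLv l hl l' hl' hll)
  obtain ⟨L1, hL1, hc1, hrel1⟩ := grid_phi hG (P := ((G n).slice k).image lp)
    (V := ((G n).slice k).image lv) (fun l hl => mem_image_of_mem _ (hLS hl))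
    (fun l hl => mem_image_of_mem _ (hLS hl)) (hpos _) hfib hLne (hpos _) hdens
    (hpos _).le hs hβ hζ hZ (fun l hl => hrel l (hLT hl))
  refine ⟨L1, hL1.trans hLT, ?_, ?_⟩
  · refine le_trans ?_ (le_trans (mul_le_mul_of_nonneg_left hLc ?_) hc1)
    · rw [← mul_assoc]
      refine mul_le_mul_of_nonneg_right ?_ hT0.le
      have e1 : (B.d n ^ (8 * D ^ 7 * e + e)) ^ 3 = B.d n ^ (24 * D ^ 7 * e + 3 * e) := by
        rw [← Real.rpow_natCast, ← Real.rpow_mul (B.pos n).le]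
        congr 1
        push_cast
        ring
      rw [e1, div_mul_eq_mul_div, ← rpow_add', le_div_iff₀ (by norm_num)]
      have := hcst 32 (24 * D ^ 7 * e + 3 * e + 4 * D ^ 7 * e) (by linarith) ε (by linarith)
      linarith only [this]
    · have := hpos (8 * D ^ 7 * e + e)
      positivity
  · intro l hl l' hl'
    refine (hrel1 l hl l' hl').trans ?_
    have e1 : 7 * M * B.d n ^ (-e) * δ = 7 * M * B.d n ^ (-e + (x - C * D ^ 10 * e)) := by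
      rw [rpow_add']; ring
    rw [e1]
    have h1 : 9 * B.d n ^ (x - C * D ^ 10 * e) ≤ B.d n ^ (x - ε) :=
      hcst _ _ (by linarith) _ (by linarith)
    have h2 : 36 * M ^ 2 * B.d n ^ (x - e) ≤ B.d n ^ (x - ε) :=
      hcst _ _ (by linarith) _ (by linarith)
    have h3 : 21 * M * B.d n ^ (-e + (x - C * D ^ 10 * e)) ≤ B.d n ^ (x - ε) :=
      hcst _ _ (by linarith) _ (by linarith)
    linarith

end

end Crest.Agent.R136.Qd329
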