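import Crest.Agent.R136.Win0_887
import Crest.Agent.R136.Bas5_938
import Crest.Agent.R136.HtW_887

/-!
# R136, thin branch (helper887): the profile side of `quad` (rung `s = 2`)

At a point of the rung `s = 2` of the W-chart with no visible slot on the surface, `btW 12 ≠ 0`,
`btW 13 ≠ 0` (true at the resonances `btW 7 = 0`, `btW 9 = 0`, `btW 10 = 0`), which is NOT dead
(`-A.1 < 5`), with `p = {A, B, B-slot, A-slot}`, `v = {c, zB, zA}`:

* (H1) `P` costs nothing given the `p`-box, (H2) `P` costs nothing given the `v`-box,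
* (H3) the groups split, (H4) `A, B` are full, (H5) `c` costs something.

If `P` costs something then the height link `P → N` (with the frame `B` coarse if `P ∥ B`) makes `N`
full, and the point is dead.
-/

set_option autoImplicit false
set_option linter.unusedSectionVars false
set_option linter.unusedVariables false

open Filter Topology

namespace Crest.Agent.R136.QdH887

open Finset Crest.Agent.R138.Ex926 Crest.Agent.R136.Net191 Crest.Agent.R136.Gf356
open Crest.Agent.R136.Qg926 Crest.Agent.R136.Dg219 Crest.Agent.R136.Aw413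
open Crest.Agent.R136.NetW191 Crest.Agent.R136.EvW938 Crest.Agent.R136.PrW464
open Crest.Agent.R136.LadW697 Crest.Agent.R136.AwJ774 Crest.Agent.R136.Bas938
open Crest.Agent.R136.Ht887 Crest.Agent.R136.Win887
open Crest.Agent.R136.K2S774 (cn)

/-! ### static data -/

/-- dropped slots of the rung `s = 2` -/
def D2 : Finset (Fin 18) := {4, 5, 6, 8}

theorem mem_D2 (k : Fin 18) : k ∈ DrW 2 ↔ k ∈ D2 := by
  have h : ∀ k : Fin 18, (4 ≤ k ∧ 2 < alW k) ↔ k ∈ D2 := by decide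
  rw [← h k]
  simp only [DrW, Set.mem_ofPred_eq]
  constructor
  · rintro ⟨h1, h2⟩; exact ⟨h1, by exact_mod_cast h2⟩
  · rintro ⟨h1, h2⟩; exact ⟨h1, by exact_mod_cast h2⟩

/-- natural integer vectors of the rung `s = 2` -/
def OkD (n : Fin 18 → ℕ) : Prop :=
  ∀ k, k ∉ D2 → ∀ l ∈ mlW k, (∀ s ∈ l, s ∉ D2) → n k ≤ (l.map n).sum

instance (n : Fin 18 → ℕ) : Decidable (OkD n) := by unfold OkD; infer_instance

theorem OkD.mem {n : Fin 18 → ℕ} (h : OkD n) {x : ℝ} (hx : 0 ≤ x) :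
    scV x n ∈ coneM (mA monW (actW (DrW 2))) := by
  rw [(actM_mA (DrW 2)).cone]
  intro k hk l hl hs
  rw [sum_scV]
  refine mul_le_mul_of_nonneg_left ?_ hx
  exact_mod_cast h k (fun h1 => hk ((mem_D2 k).2 h1)) l hl fun s hs' h1 =>
    hs s hs' ((mem_D2 s).2 h1)

/-- indicator -/
def ind (Q : Finset (Fin 18)) : Fin 18 → ℕ := fun k => if k ∈ Q then 1 else 0

/-- the box `x` on `Q` -/
def bv (x : ℝ) (Q : Finset (Fin 18)) : Fin 18 → ℝ := fun k => if k ∈ Q then x else 0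

theorem bv_eq (x : ℝ) (Q : Finset (Fin 18)) : bv x Q = scV x (ind Q) := by
  funext k; unfold bv scV ind; split_ifs <;> simp

theorem bv_mem {Q : Finset (Fin 18)} (h : OkD (ind Q)) {x : ℝ} (hx : 0 ≤ x) :
    bv x Q ∈ coneM (mA monW (actW (DrW 2))) := by rw [bv_eq]; exact h.mem hx

theorem bv_in {x : ℝ} {Q : Finset (Fin 18)} {k : Fin 18} (h : k ∈ Q) : bv x Q k = x := if_pos h
theorem bv_out {x : ℝ} {Q : Finset (Fin 18)} {k : Fin 18} (h : k ∉ Q) : bv x Q k = 0 := if_neg h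

/-! ### slopes of the rung `s = 2` -/

theorem TW2 {k : Fin 18} (hk : 4 ≤ k) (hD : k ∉ D2) : TW 2 k = 2 - alW k :=
  TW_flag hk fun h => hD ((mem_D2 k).1 h)

theorem TW2_0 (k : Fin 18) (hk : k ∈ ({1, 7, 9, 10, 11, 12, 13} : Finset (Fin 18))) :
    TW 2 k = 0 := by
  by_cases h1 : k = 1
  · rw [h1]; exact TW_c 2
  have h2 : ∀ k ∈ ({1, 7, 9, 10, 11, 12, 13} : Finset (Fin 18)), k ≠ 1 →
      4 ≤ k ∧ k ∉ D2 ∧ alW k = 2 := by decide
  obtain ⟨h4, hD, hal⟩ := h2 k hk h1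
  rw [TW2 h4 hD, hal]; norm_num

theorem TW2_1 (k : Fin 18) (hk : k ∈ ({0, 2, 3, 14, 15, 16} : Finset (Fin 18))) :
    TW 2 k = 1 := by
  have h2 : ∀ k ∈ ({0, 2, 3, 14, 15, 16} : Finset (Fin 18)), k = 0 ∨ k = 2 ∨ k = 3 ∨
      (4 ≤ k ∧ k ∉ D2 ∧ alW k = 1) := by decide
  rcases h2 k hk with rfl | rfl | rfl | ⟨h4, hD, hal⟩
  · exact TW_z 2
  · exact TW_A 2
  · exact TW_B 2
  · rw [TW2 h4 hD, hal]; norm_num

theorem TW2_2 : TW 2 17 = 2 := by
  rw [TW2 (by decide) (by decide), show alW 17 = 0 by decide]; norm_num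

theorem cases_D2 (k : Fin 18) : k ∈ D2 ∨ k ∈ ({1, 7, 9, 10, 11, 12, 13} : Finset (Fin 18)) ∨
    k ∈ ({0, 2, 3, 14, 15, 16} : Finset (Fin 18)) ∨ k = 17 := by
  revert k; decide

theorem btW_14 (θ : Fin 3 → ℝ) : btW θ 14 = -1 + 2 * θ 1 + (1 - θ 0) := by
  rw [btW_val, show wz 14 = -1 from rfl, show wc 14 = -2 from rfl, show wn 14 = 1 from rfl]
  push_cast; ring
theorem btW_15 (θ : Fin 3 → ℝ) : btW θ 15 = -1 + θ 1 + (1 - θ 0) := by
  rw [btW_val, show wz 15 = -1 from rfl, show wc 15 = -1 from rfl, show wn 15 = 1 from rfl]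
  push_cast; ring
theorem btW_16 (θ : Fin 3 → ℝ) : btW θ 16 = -1 + (1 - θ 0) := by
  rw [btW_val, show wz 16 = -1 from rfl, show wc 16 = 0 from rfl, show wn 16 = 1 from rfl]
  push_cast; ring
theorem btW_17 (θ : Fin 3 → ℝ) : btW θ 17 = 1 - θ 0 := by
  rw [btW_val, show wz 17 = 0 from rfl, show wc 17 = 0 from rfl, show wn 17 = 1 from rfl]
  push_cast; ring
theorem btW_12 (θ : Fin 3 → ℝ) : btW θ 12 = -2 + θ 1 + (1 - θ 0) := by
  rw [btW_val, show wz 12 = -2 from rfl, show wc 12 = -1 from rfl, show wn 12 = 1 from rfl]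
  push_cast; ring
theorem btW_13 (θ : Fin 3 → ℝ) : btW θ 13 = -2 + (1 - θ 0) := by
  rw [btW_val, show wz 13 = -2 from rfl, show wc 13 = 0 from rfl, show wn 13 = 1 from rfl]
  push_cast; ring
theorem btW_10 (θ : Fin 3 → ℝ) : btW θ 10 = -2 + 2 * θ 1 + (1 - θ 0) := by
  rw [btW_val, show wz 10 = -2 from rfl, show wc 10 = -2 from rfl, show wn 10 = 1 from rfl]
  push_cast; ring
theorem btW_9 (θ : Fin 3 → ℝ) : btW θ 9 = -2 + 3 * θ 1 + (1 - θ 0) := by
  rw [btW_val, show wz 9 = -2 from rfl, show wc 9 = -3 from rfl, show wn 9 = 1 from rfl]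
  push_cast; ring
theorem btW_7 (θ : Fin 3 → ℝ) : btW θ 7 = -2 + 4 * θ 1 + (1 - θ 0) := by
  rw [btW_val, show wz 7 = -2 from rfl, show wc 7 = -4 from rfl, show wn 7 = 1 from rfl]
  push_cast; ring

/-- **the resonances of the rung `s = 2` are not at `zA`, `R`** -/
theorem res_ne {θ : Fin 3 → ℝ} (hθ : 0 < θ 1)
    (hres : btW θ 7 = 0 ∨ btW θ 9 = 0 ∨ btW θ 10 = 0) : btW θ 12 ≠ 0 ∧ btW θ 13 ≠ 0 := by
  rw [btW_7, btW_9, btW_10] at hres
  rw [btW_12, btW_13]
  constructor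
  · intro h; rcases hres with h1 | h1 | h1 <;> linarith
  · intro h; rcases hres with h1 | h1 | h1 <;> linarith

/-- the group of `P` : `P`, possibly `B`, dropped slots -/
theorem grpP {θ : Fin 3 → ℝ} (hθ : 0 < θ 1) (h12 : btW θ 12 ≠ 0) (h13 : btW θ 13 ≠ 0) (j : Fin 18)
    (hj : gC (TW 2) (btW θ) j = gC (TW 2) (btW θ) 16) :
    j = 16 ∨ j ∈ D2 ∨ (j = 3 ∧ btW θ 10 = 0) := by
  have a16 : TW 2 16 = 1 := TW2_1 16 (by decide)
  have n16 : TW 2 16 ≠ 0 := by rw [a16]; exact one_ne_zero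
  rcases cases_D2 j with h | h | h | h
  · exact Or.inr (Or.inl h)
  · rw [gC_zero.2 (TW2_0 j h)] at hj
    exact absurd (gC_zero.1 hj.symm) n16
  · have aj : TW 2 j = 1 := TW2_1 j h
    rw [gC_eq (by rw [aj]; exact one_ne_zero) n16, aj, a16, btW_16, div_one, div_one] at hj
    have hc : ∀ k ∈ ({0, 2, 3, 14, 15, 16} : Finset (Fin 18)), k = 0 ∨ k = 2 ∨ k = 3 ∨ k = 14 ∨
        k = 15 ∨ k = 16 := by decide
    rw [btW_12] at h12
    rw [btW_13] at h13
    rcases hc j h with rfl | rfl | rfl | rfl | rfl | rfl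
    · rw [btW0] at hj; exact absurd (by linarith) h13
    · rw [btW2] at hj; exact absurd (by linarith) h12
    · right; right
      refine ⟨rfl, ?_⟩
      rw [btW3] at hj; rw [btW_10]; linarith
    · rw [btW_14] at hj; linarith
    · rw [btW_15] at hj; linarith
    · exact Or.inl rfl
  · subst h
    rw [gC_eq (by rw [TW2_2]; exact two_ne_zero) n16, TW2_2, a16, btW_16, btW_17, div_one] at hj
    rw [btW_13] at h13
    exact absurd (by linarith) h13

/-- the group of `N` does not see `P` -/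
theorem grpN {θ : Fin 3 → ℝ} (h13 : btW θ 13 ≠ 0) :
    gC (TW 2) (btW θ) 16 ≠ gC (TW 2) (btW θ) 17 := by
  intro hj
  have a16 : TW 2 16 = 1 := TW2_1 16 (by decide)
  rw [gC_eq (by rw [a16]; exact one_ne_zero) (by rw [TW2_2]; exact two_ne_zero), TW2_2, a16,
    btW_16, btW_17, div_one] at hj
  rw [btW_13] at h13
  exact absurd (by linarith) h13

/-- if `P ∥ B` then the group of `N` does not see `B` -/
theorem grpN3 {θ : Fin 3 → ℝ} (hθ : 0 < θ 1) (h10 : btW θ 10 = 0) :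
    gC (TW 2) (btW θ) 3 ≠ gC (TW 2) (btW θ) 17 := by
  intro hj
  have a3 : TW 2 3 = 1 := TW2_1 3 (by decide)
  rw [gC_eq (by rw [a3]; exact one_ne_zero) (by rw [TW2_2]; exact two_ne_zero), TW2_2, a3,
    btW3, btW_17, div_one] at hj
  rw [btW_10] at h10
  linarith

/-! ### one point -/

/-- the box `X` on `Z`, `t` on `P`, `w` on `N` -/
def cz (Z : Finset (Fin 18)) (X t w : ℝ) : Fin 18 → ℝ := b2 (bv X Z) 16 17 t w

section cz

variable {Z : Finset (Fin 18)} {X t w : ℝ}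

theorem cz_P : cz Z X t w 16 = t := b2_F
theorem cz_N : cz Z X t w 17 = w := b2_N (by decide)
theorem cz_o {k : Fin 18} (h1 : k ≠ 16) (h2 : k ≠ 17) : cz Z X t w k = bv X Z k := b2_o h1 h2

theorem cz_sc1 (h16 : (16 : Fin 18) ∉ Z) (h17 : (17 : Fin 18) ∉ Z) :
    cz Z X t X = scV t (ind (insert 16 (insert 17 Z))) + scV (X - t) (ind (insert 17 Z)) := by
  funext k
  rw [Pi.add_apply]
  by_cases h1 : k = 16
  · subst h1
    rw [cz_P]
    have e1 : ind (insert 16 (insert 17 Z)) 16 = 1 := by simp [ind]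
    have e2 : ind (insert 17 Z) 16 = 0 := by simp [ind, h16]
    simp [scV, e1, e2]
  · by_cases h2 : k = 17
    · subst h2
      rw [cz_N]
      have e1 : ind (insert 16 (insert 17 Z)) 17 = 1 := by simp [ind]
      have e2 : ind (insert 17 Z) 17 = 1 := by simp [ind]
      simp [scV, e1, e2]
    · rw [cz_o h1 h2]
      by_cases hk : k ∈ Z
      · have e1 : ind (insert 16 (insert 17 Z)) k = 1 := by simp [ind, hk]
        have e2 : ind (insert 17 Z) k = 1 := by simp [ind, hk]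
        simp [scV, e1, e2, bv_in hk]
      · have e1 : ind (insert 16 (insert 17 Z)) k = 0 := by simp [ind, hk, h1, h2]
        have e2 : ind (insert 17 Z) k = 0 := by simp [ind, hk, h2]
        simp [scV, e1, e2, bv_out hk]

theorem cz_sc2 (h16 : (16 : Fin 18) ∉ Z) (h17 : (17 : Fin 18) ∉ Z) :
    cz Z X t t = scV t (ind (insert 16 (insert 17 Z))) + scV (X - t) (ind Z) := by
  funext k
  rw [Pi.add_apply]
  by_cases h1 : k = 16
  · subst h1
    rw [cz_P]
    have e1 : ind (insert 16 (insert 17 Z)) 16 = 1 := by simp [ind]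
    have e2 : ind Z 16 = 0 := by simp [ind, h16]
    simp [scV, e1, e2]
  · by_cases h2 : k = 17
    · subst h2
      rw [cz_N]
      have e1 : ind (insert 16 (insert 17 Z)) 17 = 1 := by simp [ind]
      have e2 : ind Z 17 = 0 := by simp [ind, h17]
      simp [scV, e1, e2]
    · rw [cz_o h1 h2]
      by_cases hk : k ∈ Z
      · have e1 : ind (insert 16 (insert 17 Z)) k = 1 := by simp [ind, hk]
        have e2 : ind Z k = 1 := by simp [ind, hk]
        simp [scV, e1, e2, bv_in hk]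
      · have e1 : ind (insert 16 (insert 17 Z)) k = 0 := by simp [ind, hk, h1, h2]
        have e2 : ind Z k = 0 := by simp [ind, hk]
        simp [scV, e1, e2, bv_out hk]

end cz

/-- **decidable data of the link `P → N` with the narrow slots `Z`** -/
structure ZDat (Z P : Finset (Fin 18)) : Prop where
  ht : HtDat Z O0 P 12 13 1 0
  sub : ∀ q' : Fin 14, Fin.natAdd 4 q' ∈ Z → Fin.natAdd 4 q' ∈ P
  n16 : (16 : Fin 18) ∉ Z
  n17 : (17 : Fin 18) ∉ Z
  z : (0 : Fin 18) ∈ Z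
  v0 : OkV (fun _ => 0) 1 (ind Z)
  v17 : OkV (fun _ => 0) 1 (ind (insert 17 Z))
  v16 : OkV (fun _ => 0) 1 (ind (insert 16 (insert 17 Z)))

instance (Z P : Finset (Fin 18)) : Decidable (ZDat Z P) :=
  decidable_of_iff (HtDat Z O0 P 12 13 1 0 ∧
    (∀ q' : Fin 14, Fin.natAdd 4 q' ∈ Z → Fin.natAdd 4 q' ∈ P) ∧ (16 : Fin 18) ∉ Z ∧
    (17 : Fin 18) ∉ Z ∧ (0 : Fin 18) ∈ Z ∧ OkV (fun _ => 0) 1 (ind Z) ∧
    OkV (fun _ => 0) 1 (ind (insert 17 Z)) ∧ OkV (fun _ => 0) 1 (ind (insert 16 (insert 17 Z))))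
    ⟨fun ⟨a, b, c, d, e, f, g, h⟩ => ⟨a, b, c, d, e, f, g, h⟩,
      fun ⟨a, b, c, d, e, f, g, h⟩ => ⟨a, b, c, d, e, f, g, h⟩⟩

/-- everything narrow -/
theorem zdat_all : ZDat (Finset.univ \ {16, 17}) (O0 \ {1, 2, 3, 16, 17}) := by decide
/-- the frame `B` coarse -/
theorem zdat_B : ZDat (Finset.univ \ {3, 16, 17}) (O0 \ {1, 2, 3, 16, 17}) := by decide

theorem wdatA : WDat (fun _ => 0) (fun _ => 1) 1 {0} := by decide

theorem okD_of {n : Fin 18 → ℕ} (h : OkV (fun _ => 0) 1 n) : OkD n := by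
  intro k _ l hl _
  rcases h.2 k l hl with h1 | h1
  · have : (l.map (fun _ : Fin 18 => 0)).sum = 0 := by
      induction l with
      | nil => rfl
      | cons a l ih => simp
    omega
  · exact h1

section pt

variable {B Bo : Base} {I J : ∀ n : ℕ, Finset (ℕ × ℝ)}
  {co : ∀ n : ℕ, ℕ × ℝ → ℕ × ℝ → Fin 18 → ℝ} {kp : ℕ → ℝ} {u : ℕ → Fin 18 → ℝ}
  {F : ∀ n : ℕ, ℕ × ℝ → FW} {C : ℝ}
  {lam : (Fin 18 → ℝ) → ℝ} {a b : Fin 18 → ℝ} {A : ℝ × ℝ} {φ : ℕ → (Fin 18 → ℝ) → ℝ}
  {r : ℕ → ℝ} {κ : Fin 18 → ℝ} {V Tw : Fin 18 → Prop}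

theorem scV_one (X : ℝ) (k : Fin 18) : scV X (fun _ => 1) k = X := by simp [scV]

/-- **`P` costs something ⊢ `N` is full**, narrow slots `Z` -/
theorem posN (h : PtB B Bo I J co kp u F (mA monW (actW (DrW 2))) (DrW 2) C lam a b A φ r κ V Tw)
    (hV : ∀ k, ¬ V k) {Z P : Finset (Fin 18)} (hd : ZDat Z P) {X j : ℝ} (hX : 0 < X) (hj : 0 ≤ j)
    (hjX : j ≤ X) (hpos : lam (cz Z X j X) < lam (cz Z X 0 X)) :
    X - j ≤ lam (cz Z X 0 0) - lam (cz Z X 0 X) := by
  obtain ⟨W, E, g⟩ := PtB.win0 h wdatA hX fun k hk => absurd hk (hV k)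
  have cutc : ∀ t w, cut {0} (cz Z X t w) (scV X (fun _ => 1)) = cz Z X t w := by
    intro t w
    funext k
    by_cases hk : k = 0
    · subst hk
      rw [cut_of_mem (mem_singleton_self 0), scV_one, cz_o (by decide) (by decide), bv_in hd.z]
    · rw [cut_of_notMem (by rw [mem_singleton]; exact hk)]
  have nu : ∀ t w, W.nu (cz Z X t w) = lam (cz Z X t w) - lam (scV X (fun _ => 1)) := by
    intro t w
    unfold Wnd.nu
    rw [g.eS, g.etop, g.elam, cutc, scV_zero]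
    simp only [zero_add]
    ring
  have top : ∀ t w, t ≤ X → w ≤ X → ∀ s, cz Z X t w s ≤ X := by
    intro t w ht hw s
    by_cases h1 : s = 16
    · rw [h1, cz_P]; exact ht
    by_cases h2 : s = 17
    · rw [h2, cz_N]; exact hw
    rw [cz_o h1 h2]
    unfold bv; split_ifs
    · exact le_rfl
    · exact hX.le
  have leg : ∀ t w, t ≤ X → w ≤ X → (∃ n n' : Fin 18 → ℕ, OkV (fun _ => 0) 1 n ∧
      OkV (fun _ => 0) 1 n' ∧ ∃ α β : ℝ, 0 ≤ α ∧ 0 ≤ β ∧ α + β = X ∧
      cz Z X t w = scV α n + scV β n') → cz Z X t w ∈ W.legW := by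
    rintro t w ht hw ⟨n, n', hn, hn', α, β, hα, hβ, hs, e⟩
    refine ⟨?_, fun s _ => ?_⟩
    · rw [g.eS, g.etop, g.eMw, g.eR, cutc, e]
      have := leg_scV h.act hn hn' hα hβ hs
      exact this
    · rw [g.etop, scV_one]; exact top t w ht hw s
  have hbox : HtBox W Z O0 P 12 13 (bv X Z) (fun _ => 0) X :=
    HtBox.of_zero g.eS hX.le (fun s => by unfold bv; split_ifs <;> linarith)
      (fun s => by rw [g.etop, scV_one]) (fun s hs _ => bv_in hs)
      (fun s hs _ _ _ => bv_out hs) hd.sub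
  have key := hd.ht.pos g.ww g.ev g.mod hbox (x := X) (j := j) hX le_rfl le_rfl hj hjX
    (fun t h0 h1 => leg t X h1 le_rfl ⟨_, _, hd.v16, hd.v17, t, X - t, h0, by linarith, by ring,
      cz_sc1 hd.n16 hd.n17⟩)
    (fun t h0 h1 => leg t t h1 h1 ⟨_, _, hd.v16, hd.v0, t, X - t, h0, by linarith, by ring,
      cz_sc2 hd.n16 hd.n17⟩)
    (OwnV.zero W E fun _ _ => le_rfl)
    (cHt_ok g.ww hd.ht.wall one_ne_zero (fun h0 => absurd rfl h0)
      (Eventually.of_forall fun n => by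
        have := g.tight 17 (fun hm => absurd ((mem_D2 17).1 hm) (by decide)) [0, 16] (by decide)
          (fun s hs hm => by
            have h1 : ∀ s ∈ ([0, 16] : List (Fin 18)), s ∉ D2 := by decide
            exact h1 s hs ((mem_D2 s).1 hm)) rfl n
        have e : (List.map (W.X n) [0, 16]).sum = W.X n 0 + W.X n 16 := by simp
        rw [e] at this
        exact this))
    (by
      have e1 := nu j X
      have e2 := nu 0 X
      show W.nu (cz Z X j X) < W.nu (cz Z X 0 X)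
      rw [e1, e2]; linarith)
  have e1 := nu 0 0
  have e2 := nu 0 X
  have key' : X - j ≤ W.nu (cz Z X 0 0) - W.nu (cz Z X 0 X) := key
  rw [e1, e2] at key'
  linarith

/-! ### `P` costs nothing -/

theorem upd_mem {c : Fin 18 → ℝ} {n n' : Fin 18 → ℕ} {α β : ℝ} (hα : 0 ≤ α) (hβ : 0 ≤ β)
    (h1 : OkD n) (h2 : OkD n') (e : c = scV α n + scV β n') :
    c ∈ coneM (mA monW (actW (DrW 2))) := by
  rw [e]; exact cone_add (h1.mem hα) (h2.mem hβ)

theorem TW2_le (k : Fin 18) : TW 2 k ≤ 2 := by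
  rcases cases_D2 k with h | h | h | h
  · rw [TW, if_pos ((mem_D2 k).2 h)]; norm_num
  · rw [TW2_0 k h]; norm_num
  · rw [TW2_1 k h]; norm_num
  · rw [h, TW2_2]

theorem okAll : OkD (ind Finset.univ) := by decide
theorem okAll17 : OkD (ind (Finset.univ \ {17})) := by decide

/-- **`P` costs something (frame `B` coarse) ⊢ dead** -/
theorem dead_of_P {θ : Fin 3 → ℝ}
    (h : PtB B Bo I J co kp u F (mA monW (actW (DrW 2))) (DrW 2) C lam (TW 2) (btW θ) A φ r κ V Tw)
    (hG : BasG lam (mA monW (actW (DrW 2))) (DrW 2) (TW 2) (btW θ) V)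
    (hV : ∀ k, ¬ V k) (hθ : 0 < θ 1) (h12 : btW θ 12 ≠ 0) (h13 : btW θ 13 ≠ 0)
    {c c' : Fin 18 → ℝ} (hc : c ∈ coneM (mA monW (actW (DrW 2))))
    (hc' : c' ∈ coneM (mA monW (actW (DrW 2)))) (heq : ∀ j, j ≠ 16 → j ∉ DrW 2 → c j = c' j)
    (h16 : c 16 = 0) (ht : 0 ≤ c' 16) (h3 : btW θ 10 = 0 → c 3 = 0) (hlt : lam c' < lam c) :
    5 ≤ -A.1 := by
  obtain ⟨Z, P, hZ, hZ3, hZa⟩ : ∃ Z P : Finset (Fin 18), ZDat Z P ∧
      (btW θ 10 = 0 → (3 : Fin 18) ∉ Z) ∧
      (∀ j, j ≠ 16 → j ≠ 17 → (j = 3 → btW θ 10 ≠ 0) → j ∈ Z) := by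
    by_cases hb : btW θ 10 = 0
    · refine ⟨_, _, zdat_B, fun _ => by decide, fun j h1 h2 h3 => ?_⟩
      simp only [Finset.mem_sdiff, mem_univ, true_and, mem_insert, mem_singleton, not_or]
      exact ⟨fun e => h3 e hb, h1, h2⟩
    · refine ⟨_, _, zdat_all, fun e => absurd e hb, fun j h1 h2 _ => ?_⟩
      simp only [Finset.mem_sdiff, mem_univ, true_and, mem_insert, mem_singleton, not_or]
      exact ⟨h1, h2⟩
  set t := c' 16 with htd
  have cm : ∀ X : ℝ, t ≤ X → cz Z X t X ∈ coneM (mA monW (actW (DrW 2))) ∧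
      cz Z X 0 X ∈ coneM (mA monW (actW (DrW 2))) ∧
      cz Z X 0 0 ∈ coneM (mA monW (actW (DrW 2))) := by
    intro X hX
    refine ⟨upd_mem ht (by linarith) (okD_of hZ.v16) (okD_of hZ.v17) (cz_sc1 hZ.n16 hZ.n17),
      upd_mem le_rfl (by linarith) (okD_of hZ.v16) (okD_of hZ.v17) (cz_sc1 hZ.n16 hZ.n17),
      upd_mem le_rfl (by linarith) (okD_of hZ.v16) (okD_of hZ.v0) (cz_sc2 hZ.n16 hZ.n17)⟩
  have step : ∀ X : ℝ, 0 < X → t ≤ X → X - t ≤ lam (cz Z X 0 0) - lam (cz Z X 0 X) := by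
    intro X hX htX
    obtain ⟨m1, m2, m3⟩ := cm X htX
    refine posN h hV hZ hX ht htX ?_
    have e := h.slot (i := 16) hc hc' m2 m1 heq (fun j hj _ => by
        by_cases h17 : j = 17
        · rw [h17, cz_N, cz_N]
        · rw [cz_o hj h17, cz_o hj h17]) (by rw [h16, cz_P]) (by rw [cz_P])
      (fun j hj hj16 hjD => by
        rcases grpP hθ h12 h13 j hj with h1 | h1 | ⟨h1, h2⟩
        · exact absurd h1 hj16
        · exact absurd ((mem_D2 j).2 h1) hjD
        · subst h1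
          rw [h3 h2, cz_o (by decide) (by decide), bv_out (hZ3 h2)])
    linarith
  have step2 : ∀ X : ℝ, 0 < X → t ≤ X →
      X - t ≤ lam (bv X (Finset.univ \ {17})) - lam (bv X Finset.univ) := by
    intro X hX htX
    obtain ⟨m1, m2, m3⟩ := cm X htX
    refine (step X hX htX).trans (le_of_eq ?_)
    refine h.slot (i := 17) m3 m2 (bv_mem okAll17 hX.le) (bv_mem okAll hX.le) (fun j hj _ => ?_)
      (fun j hj _ => ?_) ?_ ?_ (fun j hj hj17 hjD => ?_)
    · by_cases h1 : j = 16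
      · rw [h1, cz_P, cz_P]
      · rw [cz_o h1 hj, cz_o h1 hj]
    · rw [bv_in (by simp [hj]), bv_in (mem_univ _)]
    · rw [cz_N, bv_out (by decide)]
    · rw [cz_N, bv_in (mem_univ _)]
    · have h1 : j ≠ 16 := fun e => grpN h13 (by rw [← e]; exact hj)
      have h2 : j = 3 → btW θ 10 ≠ 0 := fun e h10 => grpN3 hθ h10 (by rw [← e]; exact hj)
      rw [cz_o h1 hj17, bv_in (hZa j h1 hj17 h2), bv_in (by simp [hj17])]
  have fin := h.conc hG (fun t _ => ray_mem 2 t) (TW_nonneg (by norm_num)) (TW_z 2) (TW_A 2)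
    (TW_B 2) (s := 2) (Cc := t) (Eventually.frequently (by
      filter_upwards [eventually_gt_atTop 0, eventually_ge_atTop t] with T hT hTt
      have hX : 0 < 2 * T := by linarith
      have key := step2 (2 * T) hX (by linarith)
      have m1 : T • TW 2 ∈ coneM (mA monW (actW (DrW 2))) := ray_mem 2 T
      have nn : ∀ k, 0 ≤ (T • TW 2) k := fun k => by
        simp only [Pi.smul_apply, smul_eq_mul]
        exact mul_nonneg hT.le (TW_nonneg (by norm_num) k)
      have le2 : ∀ k, (T • TW 2) k ≤ 2 * T := fun k => by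
        simp only [Pi.smul_apply, smul_eq_mul]
        have := mul_le_mul_of_nonneg_left (TW2_le k) hT.le
        linarith
      have e17 : (T • TW 2) 17 = 2 * T := by
        simp only [Pi.smul_apply, smul_eq_mul, TW2_2]; ring
      have m2 := upd17_mem h.act m1 nn
      have m3 := bv_mem okAll17 hX.le
      have m4 := bv_mem okAll hX.le
      have einf : (T • TW 2) ⊓ bv (2 * T) (Finset.univ \ {17}) =
          Function.update (T • TW 2) 17 0 := by
        funext k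
        rw [Pi.inf_apply]
        by_cases hk : k = 17
        · subst hk
          rw [Function.update_self, bv_out (by decide)]
          exact inf_eq_right.2 (nn 17)
        · rw [Function.update_of_ne hk, bv_in (by simp [hk])]
          exact inf_eq_left.2 (le2 k)
      have esup : (T • TW 2) ⊔ bv (2 * T) (Finset.univ \ {17}) = bv (2 * T) Finset.univ := by
        funext k
        rw [Pi.sup_apply, bv_in (mem_univ k)]
        by_cases hk : k = 17
        · subst hk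
          rw [bv_out (by decide), e17]
          exact sup_eq_left.2 hX.le
        · rw [bv_in (by simp [hk])]
          exact sup_eq_right.2 (le2 k)
      have := h.aew.submod _ m1 _ m3 (by rw [einf]; exact m2) (by rw [esup]; exact m4)
      rw [einf, esup] at this
      linarith))
  linarith

/-- **numbers of `quad` at one scale `x`** : `p = {2, 3, 14, 15}`, `v = {1, 11, 12}` -/
structure QdL (lam : (Fin 18 → ℝ) → ℝ) (mm x : ℝ) : Prop where
  h1 : lam (bv x {0, 2, 3, 14, 15, 16}) = lam (bv x {0, 2, 3, 14, 15})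
  h2 : lam (bv x {0, 1, 11, 12, 16}) = lam (bv x {0, 1, 11, 12})
  h3 : lam (bv x {0}) + lam (bv x {0, 1, 2, 3, 11, 12, 14, 15}) =
    lam (bv x {0, 2, 3, 14, 15}) + lam (bv x {0, 1, 11, 12})
  h4 : lam (bv x {0, 2, 3}) ≤ lam (bv x {0}) - 2 * x
  h5 : ∀ y, 0 ≤ y → lam (Function.update (bv x {0}) 1 y) ≤ lam (bv x {0}) - mm * y

theorem bv_v4 (x : ℝ) : bv x {0, 2, 3} = v4 x 0 x x := by
  funext k
  refine cases4 (P := fun k => bv x {0, 2, 3} k = v4 x 0 x x k) ?_ ?_ ?_ ?_ ?_ k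
  · rw [v4_0, bv_in (by decide)]
  · rw [v4_1, bv_out (by decide)]
  · rw [v4_2, bv_in (by decide)]
  · rw [v4_3, bv_in (by decide)]
  · intro k hk
    rw [v4_o _ _ _ _ hk, bv_out]
    have : ∀ k : Fin 18, 4 ≤ k → k ∉ ({0, 2, 3} : Finset (Fin 18)) := by decide
    exact this k hk

theorem bv_v4' (x : ℝ) : bv x {0} = v4 x 0 0 0 := by
  funext k
  refine cases4 (P := fun k => bv x {0} k = v4 x 0 0 0 k) ?_ ?_ ?_ ?_ ?_ k
  · rw [v4_0, bv_in (by decide)]
  · rw [v4_1, bv_out (by decide)]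
  · rw [v4_2, bv_out (by decide)]
  · rw [v4_3, bv_out (by decide)]
  · intro k hk
    rw [v4_o _ _ _ _ hk, bv_out]
    have : ∀ k : Fin 18, 4 ≤ k → k ∉ ({0} : Finset (Fin 18)) := by decide
    exact this k hk

/-- boxes which differ in slots of slope `0` -/
theorem bv_grp {θ : Fin 3 → ℝ} {Q Q' : Finset (Fin 18)} {x : ℝ}
    (hQ : ∀ k, (k ∈ Q ↔ k ∈ Q') ∨ k ∈ ({1, 7, 9, 10, 11, 12, 13} : Finset (Fin 18))) (i : Fin 18)
    (hi : gC (TW 2) (btW θ) i ≠ 0) : bv x Q i = bv x Q' i := by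
  rcases hQ i with h | h
  · unfold bv; simp only [h]
  · exact absurd (gC_zero.2 (TW2_0 i h)) hi

/-- boxes which differ in slots of positive slope -/
theorem bv_grp0 {θ : Fin 3 → ℝ} {Q Q' : Finset (Fin 18)} {x : ℝ}
    (hQ : ∀ k, (k ∈ Q ↔ k ∈ Q') ∨ k ∈ ({0, 2, 3, 14, 15, 16} : Finset (Fin 18))) (i : Fin 18)
    (hi : gC (TW 2) (btW θ) i = 0) : bv x Q i = bv x Q' i := by
  rcases hQ i with h | h
  · unfold bv; simp only [h]
  · have := gC_zero.1 hi
    rw [TW2_1 i h] at this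
    exact absurd this one_ne_zero

set_option maxRecDepth 4000 in
/-- **numbers of `quad` at a point of the rung `s = 2` which is not dead** -/
theorem qdL_of {θ : Fin 3 → ℝ}
    (h : PtB B Bo I J co kp u F (mA monW (actW (DrW 2))) (DrW 2) C lam (TW 2) (btW θ) A φ r κ V Tw)
    (hG : BasG lam (mA monW (actW (DrW 2))) (DrW 2) (TW 2) (btW θ) V)
    (hV : ∀ k, ¬ V k) (hθ : 0 < θ 1) (h12 : btW θ 12 ≠ 0) (h13 : btW θ 13 ≠ 0)
    (hnd : -A.1 < 5) : ∃ mm : ℝ, 0 < mm ∧ ∀ x, 0 < x → QdL lam mm x := by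
  obtain ⟨mm, hmm, hsw⟩ := hG.sweep
  refine ⟨mm, hmm, fun x hx => ?_⟩
  have m : ∀ Q, OkD (ind Q) → bv x Q ∈ coneM (mA monW (actW (DrW 2))) := fun Q hQ =>
    bv_mem hQ hx.le
  have m0 := m {0} (by decide)
  have mp := m {0, 2, 3, 14, 15} (by decide)
  have mpP := m {0, 2, 3, 14, 15, 16} (by decide)
  have mv := m {0, 1, 11, 12} (by decide)
  have mvP := m {0, 1, 11, 12, 16} (by decide)
  have mvB := m {0, 1, 3, 11, 12} (by decide)
  have mvBP := m {0, 1, 3, 11, 12, 16} (by decide)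
  have mpv := m {0, 1, 2, 3, 11, 12, 14, 15} (by decide)
  have mono : ∀ Q Q' : Finset (Fin 18), Q ⊆ Q' → bv x Q ≤ bv x Q' := by
    intro Q Q' hQ k
    unfold bv
    split_ifs with h1 h2 h2
    · exact le_rfl
    · exact absurd (hQ h1) h2
    · exact hx.le
    · exact le_rfl
  -- (H2)
  have H2 : lam (bv x {0, 1, 11, 12, 16}) = lam (bv x {0, 1, 11, 12}) := by
    refine le_antisymm (h.aew.anti _ mv _ mvP (mono _ _ (by decide))) (not_lt.1 fun hlt => ?_)
    have := dead_of_P h hG hV hθ h12 h13 mv mvP (fun j hj _ => ?_) (bv_out (by decide))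
      (by rw [bv_in (by decide)]; exact hx.le) (fun _ => bv_out (by decide)) hlt
    · linarith
    · unfold bv
      have h1 : ∀ j : Fin 18, j ≠ 16 → (j ∈ ({0, 1, 11, 12} : Finset (Fin 18)) ↔
          j ∈ ({0, 1, 11, 12, 16} : Finset (Fin 18))) := by decide
      simp only [h1 j hj]
  -- (H1)
  have H1 : lam (bv x {0, 2, 3, 14, 15, 16}) = lam (bv x {0, 2, 3, 14, 15}) := by
    refine le_antisymm (h.aew.anti _ mp _ mpP (mono _ _ (by decide))) ?_
    have e1 := h.slot (i := 16) mp mpP mvB mvBP (fun j hj _ => by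
        unfold bv
        have h1 : ∀ j : Fin 18, j ≠ 16 → (j ∈ ({0, 2, 3, 14, 15} : Finset (Fin 18)) ↔
          j ∈ ({0, 2, 3, 14, 15, 16} : Finset (Fin 18))) := by decide
        simp only [h1 j hj]) (fun j hj _ => by
        unfold bv
        have h1 : ∀ j : Fin 18, j ≠ 16 → (j ∈ ({0, 1, 3, 11, 12} : Finset (Fin 18)) ↔
          j ∈ ({0, 1, 3, 11, 12, 16} : Finset (Fin 18))) := by decide
        simp only [h1 j hj]) (by rw [bv_out (by decide), bv_out (by decide)])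
      (by rw [bv_in (by decide), bv_in (by decide)]) (fun j hj hj16 hjD => by
        rcases grpP hθ h12 h13 j hj with h1 | h1 | ⟨h1, h2⟩
        · exact absurd h1 hj16
        · exact absurd ((mem_D2 j).2 h1) hjD
        · rw [h1, bv_in (by decide), bv_in (by decide)])
    have einf : bv x {0, 1, 3, 11, 12} ⊓ bv x {0, 1, 11, 12, 16} = bv x {0, 1, 11, 12} := by
      funext k
      rw [Pi.inf_apply]
      unfold bv
      have h1 : ∀ k : Fin 18, (k ∈ ({0, 1, 3, 11, 12} : Finset (Fin 18)) ∧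
          k ∈ ({0, 1, 11, 12, 16} : Finset (Fin 18))) ↔
          k ∈ ({0, 1, 11, 12} : Finset (Fin 18)) := by decide
      by_cases a1 : k ∈ ({0, 1, 3, 11, 12} : Finset (Fin 18))
      · by_cases a2 : k ∈ ({0, 1, 11, 12, 16} : Finset (Fin 18))
        · rw [if_pos a1, if_pos a2, if_pos ((h1 k).1 ⟨a1, a2⟩), inf_idem]
        · rw [if_pos a1, if_neg a2, if_neg fun hh => a2 ((h1 k).2 hh).2]
          exact inf_eq_right.2 hx.le
      · rw [if_neg a1, if_neg fun hh => a1 ((h1 k).2 hh).1]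
        refine inf_eq_left.2 ?_
        split_ifs
        · exact hx.le
        · exact le_rfl
    have esup : bv x {0, 1, 3, 11, 12} ⊔ bv x {0, 1, 11, 12, 16} =
        bv x {0, 1, 3, 11, 12, 16} := by
      funext k
      rw [Pi.sup_apply]
      unfold bv
      have h1 : ∀ k : Fin 18, (k ∈ ({0, 1, 3, 11, 12} : Finset (Fin 18)) ∨
          k ∈ ({0, 1, 11, 12, 16} : Finset (Fin 18))) ↔
          k ∈ ({0, 1, 3, 11, 12, 16} : Finset (Fin 18)) := by decide
      by_cases a1 : k ∈ ({0, 1, 3, 11, 12} : Finset (Fin 18))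
      · rw [if_pos a1, if_pos ((h1 k).1 (Or.inl a1))]
        refine sup_eq_left.2 ?_
        split_ifs
        · exact le_rfl
        · exact hx.le
      · by_cases a2 : k ∈ ({0, 1, 11, 12, 16} : Finset (Fin 18))
        · rw [if_neg a1, if_pos a2, if_pos ((h1 k).1 (Or.inr a2))]
          exact sup_eq_right.2 hx.le
        · rw [if_neg a1, if_neg a2, if_neg fun hh => ((h1 k).2 hh).elim a1 a2, sup_idem]
    have e2 := h.aew.submod _ mvB _ mvP (by rw [einf]; exact mv) (by rw [esup]; exact mvBP)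
    rw [einf, esup] at e2
    linarith
  refine ⟨H1, H2, ?_, ?_, ?_⟩
  · -- (H3)
    have := loss_eq h.aew.out 0 m0 mv mp mpv (bv_grp (by decide)) (bv_grp (by decide))
      (bv_grp0 (by decide)) (bv_grp0 (by decide))
    linarith
  · -- (H4)
    have e1 := h.full3 hG hx
    have e2 := h.aew.sharp 0 zero_mem _ m0 (fun k => by
      rw [Pi.zero_apply]; unfold bv; split_ifs
      · exact hx.le
      · exact le_rfl)
    rw [h.aew.zero] at e2
    have e3 : ∑ s, (bv x {0} s - (0 : Fin 18 → ℝ) s) = x := by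
      rw [sum_eq_single_of_mem (0 : Fin 18) (mem_univ _)]
      · rw [bv_in (by decide), Pi.zero_apply, sub_zero]
      · intro j _ hj
        rw [bv_out (by rw [mem_singleton]; exact hj), Pi.zero_apply, sub_zero]
    rw [e3] at e2
    rw [bv_v4]
    linarith
  · -- (H5)
    intro y hy
    have e1 := hsw _ m0 (bv_out (by decide)) (fun i hi h0 => by
      by_cases h1 : i = 0
      · rw [h1, TW_z] at h0; exact absurd h0 one_ne_zero
      · rw [bv_out (by rw [mem_singleton]; exact h1)]) y hy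
    have e2 : bv x {0} + y • e1W = Function.update (bv x {0}) 1 y := by
      funext k
      rw [Pi.add_apply, Pi.smul_apply, smul_eq_mul]
      by_cases h1 : k = 1
      · rw [h1, Function.update_self, bv_out (by decide)]; simp [e1W]
      · have : e1W k = 0 := by unfold e1W; rw [Pi.single_eq_of_ne h1]
        rw [Function.update_of_ne h1, this, mul_zero, add_zero]
    rwa [e2] at e1

/-- **`P` costs nothing** at a point of the rung `s = 2` which is not dead -/
theorem P_free {θ : Fin 3 → ℝ}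
    (h : PtB B Bo I J co kp u F (mA monW (actW (DrW 2))) (DrW 2) C lam (TW 2) (btW θ) A φ r κ V Tw)
    (hG : BasG lam (mA monW (actW (DrW 2))) (DrW 2) (TW 2) (btW θ) V)
    (hV : ∀ k, ¬ V k) (hθ : 0 < θ 1) (h12 : btW θ 12 ≠ 0) (h13 : btW θ 13 ≠ 0)
    (hnd : -A.1 < 5) {c c' : Fin 18 → ℝ} (hc : c ∈ coneM (mA monW (actW (DrW 2))))
    (hc' : c' ∈ coneM (mA monW (actW (DrW 2)))) (heq : ∀ j, j ≠ 16 → j ∉ DrW 2 → c j = c' j)
    (h0 : 0 ≤ c 16) (hle : c 16 ≤ c' 16) (h3 : 0 ≤ c 3) : lam c' = lam c := by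
  set X : ℝ := max (c' 16) (c 3) with hX
  have X16 : c' 16 ≤ X := le_max_left _ _
  have X3 : c 3 ≤ X := le_max_right _ _
  have X0 : 0 ≤ X := h3.trans X3
  -- `e β t` : `{0, 1, 11, 12} : X`, `3 : β`, `16 : t`
  set e : ℝ → ℝ → Fin 18 → ℝ := fun β t k => if k = 16 then t else if k = 3 then β else
    bv X {0, 1, 11, 12} k with he
  have e16 : ∀ β t, e β t 16 = t := fun β t => if_pos rfl
  have e3 : ∀ β t, e β t 3 = β := fun β t => by
    rw [he]; simp only [show (3 : Fin 18) ≠ 16 by decide, if_false, if_true]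
  have eo : ∀ β t k, k ≠ 16 → k ≠ 3 → e β t k = bv X {0, 1, 11, 12} k := fun β t k h1 h2 => by
    rw [he]; simp only [h1, h2, if_false]
  have o1 : OkD (ind {0, 1, 11, 12}) := by decide
  have o2 : OkD (ind {0, 1, 3, 11, 12}) := by decide
  have o3 : OkD (ind {0, 1, 11, 12, 16}) := by decide
  have o4 : OkD (ind {0, 1, 3, 11, 12, 16}) := by decide
  have em : ∀ β t, 0 ≤ β → β ≤ X → 0 ≤ t → t ≤ X →
      e β t ∈ coneM (mA monW (actW (DrW 2))) := by
    intro β t hβ hβX ht htX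
    rcases le_total β t with hbt | hbt
    · have e1 : e β t = scV β (ind {0, 1, 3, 11, 12, 16}) + scV (t - β) (ind {0, 1, 11, 12, 16}) +
          scV (X - t) (ind {0, 1, 11, 12}) := by
        funext k
        simp only [Pi.add_apply]
        by_cases k1 : k = 16
        · subst k1
          rw [e16]
          simp [scV, show ind {0, 1, 3, 11, 12, 16} 16 = 1 by decide,
            show ind {0, 1, 11, 12, 16} 16 = 1 by decide, show ind {0, 1, 11, 12} 16 = 0 by decide]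
        by_cases k2 : k = 3
        · subst k2
          rw [e3]
          simp [scV, show ind {0, 1, 3, 11, 12, 16} 3 = 1 by decide,
            show ind {0, 1, 11, 12, 16} 3 = 0 by decide, show ind {0, 1, 11, 12} 3 = 0 by decide]
        rw [eo _ _ _ k1 k2, bv_eq]
        have h1 : ∀ k : Fin 18, k ≠ 16 → k ≠ 3 → ind {0, 1, 3, 11, 12, 16} k =
          ind {0, 1, 11, 12} k ∧ ind {0, 1, 11, 12, 16} k = ind {0, 1, 11, 12} k := by decide
        obtain ⟨h2, h3⟩ := h1 k k1 k2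
        simp only [scV, h2, h3]; ring
      rw [e1]
      exact cone_add (cone_add (o4.mem hβ) (o3.mem (by linarith))) (o1.mem (by linarith))
    · have e1 : e β t = scV t (ind {0, 1, 3, 11, 12, 16}) + scV (β - t) (ind {0, 1, 3, 11, 12}) +
          scV (X - β) (ind {0, 1, 11, 12}) := by
        funext k
        simp only [Pi.add_apply]
        by_cases k1 : k = 16
        · subst k1
          rw [e16]
          simp [scV, show ind {0, 1, 3, 11, 12, 16} 16 = 1 by decide,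
            show ind {0, 1, 3, 11, 12} 16 = 0 by decide, show ind {0, 1, 11, 12} 16 = 0 by decide]
        by_cases k2 : k = 3
        · subst k2
          rw [e3]
          simp [scV, show ind {0, 1, 3, 11, 12, 16} 3 = 1 by decide,
            show ind {0, 1, 3, 11, 12} 3 = 1 by decide, show ind {0, 1, 11, 12} 3 = 0 by decide]
        rw [eo _ _ _ k1 k2, bv_eq]
        have h1 : ∀ k : Fin 18, k ≠ 16 → k ≠ 3 → ind {0, 1, 3, 11, 12, 16} k =
          ind {0, 1, 11, 12} k ∧ ind {0, 1, 3, 11, 12} k = ind {0, 1, 11, 12} k := by decide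
        obtain ⟨h2, h3⟩ := h1 k k1 k2
        simp only [scV, h2, h3]; ring
      rw [e1]
      exact cone_add (cone_add (o4.mem ht) (o2.mem (by linarith))) (o1.mem (by linarith))
  have eoff : ∀ β t t' k, k ≠ 16 → e β t k = e β t' k := fun β t t' k hk => by
    rw [he]; simp only [hk, if_false]
  -- with `B` coarse
  have step : ∀ t, 0 ≤ t → t ≤ X → lam (e 0 t) = lam (e 0 0) := by
    intro t ht htX
    have m1 := em 0 0 le_rfl X0 le_rfl X0
    have m2 := em 0 t le_rfl X0 ht htX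
    refine le_antisymm (h.aew.anti _ m1 _ m2 fun k => ?_) (not_lt.1 fun hlt => ?_)
    · by_cases hk : k = 16
      · rw [hk, e16, e16]; exact ht
      · rw [eoff 0 0 t k hk]
    · have := dead_of_P h hG hV hθ h12 h13 m1 m2 (fun j hj _ => eoff 0 0 t j hj) (e16 _ _)
        (by rw [e16]; exact ht) (fun _ => e3 _ _) hlt
      linarith
  have l16 : c 16 ≤ X := hle.trans X16
  have t16 : 0 ≤ c' 16 := h0.trans hle
  have n1 := em (c 3) (c 16) h3 X3 h0 l16
  have n2 := em (c 3) (c' 16) h3 X3 t16 X16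
  have e1 := h.slot (i := 16) hc hc' n1 n2 heq (fun j hj _ => eoff _ _ _ j hj) (e16 _ _).symm
    (e16 _ _).symm (fun j hj hj16 hjD => by
      rcases grpP hθ h12 h13 j hj with h1 | h1 | ⟨h1, h2⟩
      · exact absurd h1 hj16
      · exact absurd ((mem_D2 j).2 h1) hjD
      · rw [h1, e3])
  have n3 := em 0 (c 16) le_rfl X0 h0 l16
  have n4 := em 0 (c' 16) le_rfl X0 t16 X16
  have einf : e (c 3) (c 16) ⊓ e 0 (c' 16) = e 0 (c 16) := by
    funext k
    rw [Pi.inf_apply]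
    by_cases k1 : k = 16
    · rw [k1, e16, e16, e16]; exact inf_eq_left.2 hle
    by_cases k2 : k = 3
    · rw [k2, e3, e3, e3]; exact inf_eq_right.2 h3
    rw [eo _ _ _ k1 k2, eo _ _ _ k1 k2, eo _ _ _ k1 k2, inf_idem]
  have esup : e (c 3) (c 16) ⊔ e 0 (c' 16) = e (c 3) (c' 16) := by
    funext k
    rw [Pi.sup_apply]
    by_cases k1 : k = 16
    · rw [k1, e16, e16, e16]; exact sup_eq_right.2 hle
    by_cases k2 : k = 3
    · rw [k2, e3, e3, e3]; exact sup_eq_left.2 h3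
    rw [eo _ _ _ k1 k2, eo _ _ _ k1 k2, eo _ _ _ k1 k2, sup_idem]
  have e2 := h.aew.submod _ n1 _ n4 (by rw [einf]; exact n3) (by rw [esup]; exact n2)
  rw [einf, esup, step _ t16 X16, step _ h0 l16] at e2
  have e5 := h.aew.anti _ n1 _ n2 (fun k => by
    by_cases hk : k = 16
    · rw [hk, e16, e16]; exact hle
    · rw [eoff _ _ (c' 16) k hk])
  linarith

end pt

/-! ### `PtC` form -/

section ptC

variable {B Bo : Base} {I J : ℕ → Finset (ℕ × ℝ)} {co : ∀ n : ℕ, ℕ × ℝ → ℕ × ℝ → Fin 18 → ℝ}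
  {C : ℝ} {κ : ℕ → ℝ} {u : ℕ → Fin 18 → ℝ} {f : ℕ → ℕ × ℝ → FW} {K : ℝ} {θ q : Fin 3 → ℝ}
  {V T : Set (Fin 18)} {lam lo : (Fin 18 → ℝ) → ℝ} {A : ℝ × ℝ}
  {φ : ℕ → (Fin 18 → ℝ) → ℝ} {r : ℕ → ℝ}

open Crest.Agent.R136.NatW697 (KW)

/-- **numbers of `quad` at a point `PtC` of the rung `s = 2`**: dead or the numbers -/
theorem qdL_ptC (h : ThB830.PtC B Bo I J co C κ u f K θ q V T 2 lam lo A φ r)
    (hV : ∀ k ∈ V, KW θ k < 2) (hres : LadT830.Res2 θ) :
    5 ≤ -A.1 ∨ ∃ mm : ℝ, 0 < mm ∧ ∀ x, 0 < x → QdL lam mm x := by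
  obtain ⟨h12, h13⟩ := res_ne h.th1 hres
  rcases le_or_gt 5 (-A.1) with h5 | h5
  · exact Or.inl h5
  · exact Or.inr (qdL_of (PtB.of_ptC h h.ne) (BasG.of_ptC h h.q1 h.q2)
      (fun k hk => absurd hk.2 (hV k hk.1).ne) h.th1 h12 h13 h5)

/-- **`P` costs nothing** at a point `PtC` of the rung `s = 2`, or dead -/
theorem P_free_ptC (h : ThB830.PtC B Bo I J co C κ u f K θ q V T 2 lam lo A φ r)
    (hV : ∀ k ∈ V, KW θ k < 2) (h12 : btW θ 12 ≠ 0) (h13 : btW θ 13 ≠ 0) :
    5 ≤ -A.1 ∨ ∀ c ∈ coneM (mA monW (actW (DrW 2))), ∀ c' ∈ coneM (mA monW (actW (DrW 2))),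
      (∀ j, j ≠ 16 → j ∉ DrW 2 → c j = c' j) → 0 ≤ c 16 → c 16 ≤ c' 16 → 0 ≤ c 3 →
      lam c' = lam c := by
  rcases le_or_gt 5 (-A.1) with h5 | h5
  · exact Or.inl h5
  · exact Or.inr fun c hc c' hc' e h0 h1 h2 => P_free (PtB.of_ptC h h.ne)
      (BasG.of_ptC h h.q1 h.q2) (fun k hk => absurd hk.2 (hV k hk.1).ne) h.th1 h12 h13 h5
      hc hc' e h0 h1 h2

end ptC

end Crest.Agent.R136.QdH887
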