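import Crest.Agent.R136.Qd11_329
import Crest.Agent.R136.QdW_887

/-!
# R136, thin branch, `quad` (helper861), part 1: window algebra

* `QIn Dr W κ u f mm x` : the window of `quad` with general dropped slots
* `ntu` : natural units (multiplicative along ALL walls); `tc` : coordinates in natural units;
  dropped slots are tiny; `tc_mul`, `tc_tr` : exact transition
-/

set_option autoImplicit false
set_option linter.unusedSectionVars false
set_option linter.unusedVariables false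

open Filter Topology

namespace Crest.Agent.R136.Qe861

open Finset
open Crest.Agent.R138.Ex926 (Base U)
open Crest.Agent.R136.Gf356 Crest.Agent.R136.Qg926 Crest.Agent.R136.NetW191
open Crest.Agent.R136.EvW938 Crest.Agent.R136.Net191
open Crest.Agent.R136.PrW464 (grW grW_list)
open Crest.Agent.R136.QdH887 (bv)

/-- **the window of `quad`**, dropped slots `Dr` -/
structure QIn (Dr : Finset (Fin 18)) (W : Wnd 18 fun _ => ℕ × ℝ) (κ : ℕ → ℝ)
    (u : ℕ → Fin 18 → ℝ) (f : ∀ n : ℕ, ℕ × ℝ → FW) (mm x : ℝ) : Prop where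
  lo : ∀ k, k = 4 ∨ k = 5 ∨ k = 6 ∨ k = 8 → k ∈ Dr
  hi : ∀ k ∈ Dr, k = 4 ∨ k = 5 ∨ k = 6 ∨ k = 8 ∨ k = 7 ∨ k = 9
  x0 : 0 < x
  m0 : 0 < mm
  ww : WWnd W κ u f
  eS : W.S = {0}
  etop : W.top = fun _ => x
  ekap : W.kap = fun _ => 1
  dw : ∀ n, W.B'.d n = W.B.d n ^ W.w n
  hk : ∀ ε : ℝ, 0 < ε → ∀ᶠ n in (U : Filter ℕ), W.B'.d n ^ ε ≤ |κ n|
  tight : ∀ k, k ∉ Dr → ∀ l ∈ mlW k, (∀ s ∈ l, s ∉ Dr) → ∀ n, W.X n k = (l.map (W.X n)).sum
  gap : ∀ k, ∀ l ∈ mlW k, (k ∈ Dr ∨ ∃ s ∈ l, s ∈ Dr) → ∀ R : ℝ, ∀ᶠ n in (U : Filter ℕ),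
    W.X n k + R * W.w n ≤ (l.map (W.X n)).sum
  dens : W.lam W.top ≤ W.lam (cut W.S W.top 0) + W.lam (cut W.S 0 W.top)
  frost : ∀ y : ℝ, 0 ≤ y → y ≤ x → W.lam (Pi.single 0 y) ≤ -(1 * y)
  leg : ∀ p : Fin 18 → ℝ, (∀ s, 0 ≤ p s) → (∀ s, p s ≤ x) →
    (∀ k, k ∉ Dr → ∀ l ∈ mlW k, (∀ s ∈ l, s ∉ Dr) →
      cut {0} p (fun _ => x) k ≤ (l.map (cut {0} p (fun _ => x))).sum) → p ∈ W.legW
  n1 : W.nu (bv x {2, 3, 14, 15, 16}) = W.nu (bv x {2, 3, 14, 15})
  n2 : W.nu (bv x {1, 11, 12, 16}) = W.nu (bv x {1, 11, 12})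
  n3 : W.nu 0 + W.nu (bv x {1, 2, 3, 11, 12, 14, 15}) =
    W.nu (bv x {2, 3, 14, 15}) + W.nu (bv x {1, 11, 12})
  n4 : W.nu (bv x {2, 3}) ≤ W.nu 0 - 2 * x
  n5 : ∀ y, 0 ≤ y → W.nu (Pi.single 1 y) ≤ W.nu 0 - mm * y

/-! ### homogeneity of `tr` -/

/-- multiplicative units -/
def MulU (v : Fin 18 → ℝ) : Prop := ∀ k, ∀ l ∈ mlW k, (l.map v).prod = v k

theorem prod_mul_map {m : ℕ} (a b : Fin m → ℝ) (l : List (Fin m)) :
    (l.map fun i => a i * b i).prod = (l.map a).prod * (l.map b).prod := by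
  induction l with
  | nil => simp
  | cons i l ih =>
    simp only [List.map_cons, List.prod_cons, ih]
    ring

theorem ev_hom (κ : ℝ) (v : Fin 18 → ℝ) (h : Fin 4 → ℝ) (w : Fin 14 → ℝ) (t : Tm) :
    t.ev κ (fun i => v (Fin.castAdd 14 i) * h i) (fun q => v (Fin.natAdd 4 q) * w q) =
      (t.idx.map v).prod * t.ev κ h w := by
  have e1 : (t.idx.map v).prod =
      (t.hl.map fun i => v (Fin.castAdd 14 i)).prod * v (Fin.natAdd 4 t.s) := by
    simp [Tm.idx, List.map_append, List.prod_append, Function.comp_def]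
  unfold Tm.ev
  rw [e1, prod_mul_map]
  ring

theorem tr_hom {v : Fin 18 → ℝ} (hv : MulU v) (κ : ℝ) (h : Fin 4 → ℝ) (w : Fin 14 → ℝ)
    (q : Fin 14) :
    tr κ (fun i => v (Fin.castAdd 14 i) * h i) (fun q => v (Fin.natAdd 4 q) * w q) q =
      v (Fin.natAdd 4 q) * tr κ h w q := by
  rw [tr_tms, tr_tms, mul_add]
  congr 1
  have hL : ∀ t ∈ tms q, (t.idx.map v).prod = v (Fin.natAdd 4 q) := by
    intro t ht
    refine hv _ _ ?_
    rw [mlW_right]
    exact List.mem_map_of_mem ht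
  revert hL
  generalize tms q = L
  intro hL
  induction L with
  | nil => simp
  | cons a L ih =>
    simp only [List.map_cons, List.sum_cons]
    rw [ih fun t ht => hL t (List.mem_cons_of_mem _ ht), ev_hom, hL a List.mem_cons_self]
    ring

/-! ### the natural units of a window -/

/-- completing frames of the wall of `17` through a flag slot -/
def frl : Fin 18 → List (Fin 18) :=
  ![[], [], [], [], [2, 2, 2, 2], [2, 2, 3], [2, 2, 2], [3, 3], [2, 2, 0], [2, 3], [2, 2], [3, 0],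
    [2, 0], [0, 0], [3], [2], [0], []]

theorem frl_mem : ∀ k : Fin 18, 4 ≤ k → k ≠ 17 → frl k ++ [k] ∈ mlW 17 := by decide

theorem frl_lt : ∀ k : Fin 18, ∀ s ∈ frl k, s < 4 := by decide

/-- natural exponents -/
noncomputable def nX (W : Wnd 18 fun _ => ℕ × ℝ) (n : ℕ) (k : Fin 18) : ℝ :=
  grW (W.X n 0) (W.X n 1) (W.X n 17) k

/-- natural units -/
noncomputable def ntu (W : Wnd 18 fun _ => ℕ × ℝ) (u : ℕ → Fin 18 → ℝ) (n : ℕ) (s : Fin 18) : ℝ :=
  W.B.d n ^ nX W n s / u n s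

/-- coordinates in natural units -/
noncomputable def tc (W : Wnd 18 fun _ => ℕ × ℝ) (κ : ℕ → ℝ) (u : ℕ → Fin 18 → ℝ)
    (f : ∀ n : ℕ, ℕ × ℝ → FW) (n : ℕ) (x y : ℕ × ℝ) (s : Fin 18) : ℝ :=
  coW (κ n) (f n x) (f n y) s / ntu W u n s

/-- coordinates of the line `l` at the height `k`, seen from `s₀`, natural units -/
noncomputable def tq (W : Wnd 18 fun _ => ℕ × ℝ) (κ : ℕ → ℝ) (u : ℕ → Fin 18 → ℝ)
    (f : ∀ n : ℕ, ℕ × ℝ → FW) (n k l : ℕ) (s : Fin 18) : ℝ :=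
  tc W κ u f n (W.s₀ n) (W.rep n l k) s

/-- absolute derivative in `A` -/
noncomputable def qs (W : Wnd 18 fun _ => ℕ × ℝ) (κ : ℕ → ℝ) (u : ℕ → Fin 18 → ℝ)
    (f : ∀ n : ℕ, ℕ × ℝ → FW) (n k l : ℕ) : ℝ :=
  tq W κ u f n k l 15 + 2 * κ n * tq W κ u f n k l 1 * tq W κ u f n k l 14

/-- absolute `zA` -/
noncomputable def qZ (W : Wnd 18 fun _ => ℕ × ℝ) (κ : ℕ → ℝ) (u : ℕ → Fin 18 → ℝ)
    (f : ∀ n : ℕ, ℕ × ℝ → FW) (n k l : ℕ) : ℝ :=
  tq W κ u f n k l 12 + 2 * κ n * tq W κ u f n k l 1 * tq W κ u f n k l 11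

section

variable {Dr : Finset (Fin 18)} {W : Wnd 18 fun _ => ℕ × ℝ} {κ : ℕ → ℝ} {u : ℕ → Fin 18 → ℝ}
  {f : ∀ n : ℕ, ℕ × ℝ → FW} {mm x : ℝ}

namespace QIn

variable (g : QIn Dr W κ u f mm x)

include g

theorem lt4 {s : Fin 18} (hs : s < 4) : s ∉ Dr := by
  intro h
  rcases g.hi s h with h | h | h | h | h | h <;> subst h <;> exact absurd hs (by decide)

theorem ge10 {s : Fin 18} (hs : 10 ≤ s) : s ∉ Dr := by
  intro h
  rcases g.hi s h with h | h | h | h | h | h <;> subst h <;> exact absurd hs (by decide)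

theorem nX_low {n : ℕ} {s : Fin 18} (hs : s < 4) : W.X n s = nX W n s := by
  have t2 := g.tight 2 (g.lt4 (by decide)) [1, 0] (by decide) (fun s hs => g.lt4 (by
    revert s; decide)) n
  have t3 := g.tight 3 (g.lt4 (by decide)) [1, 2] (by decide) (fun s hs => g.lt4 (by
    revert s; decide)) n
  simp only [List.map_cons, List.map_nil, List.sum_cons, List.sum_nil, add_zero] at t2 t3
  have hs' : s = 0 ∨ s = 1 ∨ s = 2 ∨ s = 3 := by revert hs; revert s; decide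
  rcases hs' with h | h | h | h <;> subst h <;>
    simp [nX, grW, PrW464.wz, PrW464.wc, PrW464.wn] <;> linarith

theorem nX17 (n : ℕ) : W.X n 17 = nX W n 17 := by
  simp [nX, grW, PrW464.wz, PrW464.wc, PrW464.wn]

theorem sum_eq (n : ℕ) {k : Fin 18} (h4 : 4 ≤ k) (h17 : k ≠ 17) :
    ((frl k ++ [k]).map (W.X n)).sum - W.X n 17 = W.X n k - nX W n k := by
  have h1 := grW_list (W.X n 0) (W.X n 1) (W.X n 17) 17 (frl k ++ [k]) (frl_mem k h4 h17)
  have h2 : ((frl k).map (W.X n)).sum = ((frl k).map (nX W n)).sum := by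
    congr 1
    exact List.map_congr_left fun s hs => g.nX_low (frl_lt k s hs)
  have h3 := g.nX17 n
  simp only [List.map_append, List.sum_append, List.map_cons, List.map_nil, List.sum_cons,
    List.sum_nil, add_zero] at h1 ⊢
  change ((frl k).map (nX W n)).sum + nX W n k = nX W n 17 at h1
  rw [h2, h3]
  linarith

theorem nX_eq {n : ℕ} {k : Fin 18} (hk : k ∉ Dr) : W.X n k = nX W n k := by
  rcases lt_or_ge k 4 with h4 | h4
  · exact g.nX_low h4
  · by_cases h17 : k = 17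
    · subst h17; exact g.nX17 n
    · have h1 := g.sum_eq n h4 h17
      have h2 := g.tight 17 (g.ge10 (by decide)) (frl k ++ [k]) (frl_mem k h4 h17)
        (fun s hs => by
          rcases List.mem_append.1 hs with h | h
          · exact g.lt4 (frl_lt k s h)
          · rw [List.mem_singleton.1 h]; exact hk) n
      linarith

theorem nX_gap (R : ℝ) : ∀ᶠ n in (U : Filter ℕ), ∀ k ∈ Dr, nX W n k + R * W.w n ≤ W.X n k := by
  have h : ∀ k : Fin 18, ∀ᶠ n in (U : Filter ℕ), k ∈ Dr → nX W n k + R * W.w n ≤ W.X n k := by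
    intro k
    by_cases hk : k ∈ Dr
    · have h4 : 4 ≤ k := by
        by_contra h
        exact g.lt4 (not_le.1 h) hk
      have h17 : k ≠ 17 := by rintro rfl; exact g.ge10 (by decide) hk
      filter_upwards [g.gap 17 (frl k ++ [k]) (frl_mem k h4 h17) (Or.inr ⟨k, by simp, hk⟩) R] with
        n hn _
      have := g.sum_eq n h4 h17
      linarith
    · exact Filter.Eventually.of_forall fun n h => absurd h hk
  have := Filter.eventually_all.2 h
  filter_upwards [this] with n hn k hk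
  exact hn k hk

theorem ntu_pos (n : ℕ) (s : Fin 18) : 0 < ntu W u n s :=
  div_pos (Real.rpow_pos_of_pos (W.B.pos n) _) ((g.ww.hl n).pos s)

theorem ntu_mul (n : ℕ) : MulU (ntu W u n) := by
  intro k l hl
  have h1 := grW_list (W.X n 0) (W.X n 1) (W.X n 17) k l hl
  have h2 := (g.ww.hl n).mul k l hl
  have h3 : (l.map (ntu W u n)).prod = W.B.d n ^ (l.map (nX W n)).sum / (l.map (u n)).prod := by
    clear hl h1 h2
    induction l with
    | nil => simp
    | cons s l ih =>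
      simp only [List.map_cons, List.prod_cons, List.sum_cons, ih]
      rw [Real.rpow_add (W.B.pos n)]
      unfold ntu
      have := ((g.ww.hl n).pos s).ne'
      field_simp
  rw [h3, h2]
  unfold ntu
  congr 2

theorem ntu_eq {n : ℕ} {s : Fin 18} (hs : s ∉ Dr) : ntu W u n s = sd W u n s := by
  unfold ntu sd
  rw [g.nX_eq hs]

theorem ntu_dr (R : ℝ) : ∀ᶠ n in (U : Filter ℕ), ∀ s ∈ Dr,
    sd W u n s ≤ W.B'.d n ^ R * ntu W u n s := by
  filter_upwards [g.nX_gap R] with n hn s hs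
  have h1 := hn s hs
  unfold ntu sd
  rw [g.dw n, ← Real.rpow_mul (W.B.pos n).le, ← mul_div_assoc,
    ← Real.rpow_add (W.B.pos n)]
  refine div_le_div_of_nonneg_right ?_ ((g.ww.hl n).pos s).le
  exact Real.rpow_le_rpow_of_exponent_ge (W.B.pos n) (W.B.lt n).le (by linarith)

/-! #### transition -/

theorem tc_co (n : ℕ) (a b : ℕ × ℝ) (s : Fin 18) :
    coW (κ n) (f n a) (f n b) s = ntu W u n s * tc W κ u f n a b s := by
  unfold tc
  have := (g.ntu_pos n s).ne'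
  field_simp

theorem frm_tc (n : ℕ) (a b : ℕ × ℝ) :
    rel (κ n) (f n a).g (f n b).g = fun i => ntu W u n (Fin.castAdd 14 i) *
      frm (tc W κ u f n a b) i := by
  funext i
  have := g.tc_co n a b (Fin.castAdd 14 i)
  rw [coW_left] at this
  exact this

theorem flg_tc (n : ℕ) (a b : ℕ × ℝ) :
    tr (κ n) (f n b).g ((f n b).G - (f n a).G) = fun q => ntu W u n (Fin.natAdd 4 q) *
      flg (tc W κ u f n a b) q := by
  funext i
  have := g.tc_co n a b (Fin.natAdd 4 i)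
  rw [coW_right] at this
  exact this

/-- **transition of the frames** -/
theorem tc_mul (n : ℕ) (a b c : ℕ × ℝ) :
    frm (tc W κ u f n a c) = NetW191.mul (κ n) (frm (tc W κ u f n a b))
      (frm (tc W κ u f n b c)) := by
  have h := rel_rel (κ n) (f n a).g (f n b).g (f n c).g
  rw [g.frm_tc n a b, g.frm_tc n b c, g.frm_tc n a c] at h
  have m2 := g.ntu_mul n 2 [1, 0] (by decide)
  have m3 := g.ntu_mul n 3 [1, 2] (by decide)
  simp only [List.map_cons, List.map_nil, List.prod_cons, List.prod_nil, mul_one] at m2 m3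
  have p0 := (g.ntu_pos n 0).ne'
  have p1 := (g.ntu_pos n 1).ne'
  have p2 := (g.ntu_pos n 2).ne'
  have p3 := (g.ntu_pos n 3).ne'
  have i0 := congrFun h 0
  have i1 := congrFun h 1
  have i2 := congrFun h 2
  have i3 := congrFun h 3
  simp only [mul0, mul1, mul2, mul3] at i0 i1 i2 i3
  change ntu W u n 0 * _ + ntu W u n 0 * _ = ntu W u n 0 * _ at i0
  change ntu W u n 1 * _ + ntu W u n 1 * _ = ntu W u n 1 * _ at i1
  change ntu W u n 2 * _ + ntu W u n 2 * _ + ntu W u n 1 * _ * (ntu W u n 0 * _) =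
    ntu W u n 2 * _ at i2
  change ntu W u n 3 * _ + ntu W u n 3 * _ - 2 * κ n * (ntu W u n 1 * _) * (ntu W u n 2 * _) -
    κ n * (ntu W u n 1 * _) ^ 2 * (ntu W u n 0 * _) = ntu W u n 3 * _ at i3
  generalize frm (tc W κ u f n a b) = A at *
  generalize frm (tc W κ u f n b c) = B at *
  generalize frm (tc W κ u f n a c) = C at *
  have c0 : C 0 = NetW191.mul (κ n) A B 0 := by
    refine mul_left_cancel₀ p0 ?_
    rw [← i0, mul0]
    ring
  have c1 : C 1 = NetW191.mul (κ n) A B 1 := by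
    refine mul_left_cancel₀ p1 ?_
    rw [← i1, mul1]
    ring
  have c2 : C 2 = NetW191.mul (κ n) A B 2 := by
    refine mul_left_cancel₀ p2 ?_
    rw [← i2, mul2, ← m2]
    ring
  have c3 : C 3 = NetW191.mul (κ n) A B 3 := by
    refine mul_left_cancel₀ p3 ?_
    rw [← i3, mul3, ← m3, ← m2]
    ring
  funext i
  fin_cases i
  · exact c0
  · exact c1
  · exact c2
  · exact c3

/-- **transition of the flags** -/
theorem tc_tr (n : ℕ) (a b c : ℕ × ℝ) (q : Fin 14) :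
    tc W κ u f n a c (Fin.natAdd 4 q) = tr (κ n) (frm (tc W κ u f n b c))
      (flg (tc W κ u f n a b)) q + tc W κ u f n b c (Fin.natAdd 4 q) := by
  have h := congrFun (cocycle (κ n) (f n a) (f n b) (f n c)) q
  rw [Pi.add_apply, g.flg_tc n a c, g.flg_tc n b c, g.flg_tc n a b, g.frm_tc n b c,
    tr_hom (g.ntu_mul n)] at h
  have p := (g.ntu_pos n (Fin.natAdd 4 q)).ne'
  refine mul_left_cancel₀ p ?_
  change _ * _ = _ * _ + _ * _ at h
  rw [mul_add, add_comm]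
  exact h

/-! #### bounds -/

theorem tc_bd {n : ℕ} (gd : W.Good n) {a b : ℕ × ℝ} (ha : a ∈ W.Cl n) (hb : b ∈ W.Cl n)
    {s : Fin 18} (hs : s ∉ Dr) : |tc W κ u f n a b s| ≤ W.K0 := by
  have h1 := g.ww.bnd gd ha hb s
  have p := g.ntu_pos n s
  unfold tc
  rw [abs_div, abs_of_pos p, div_le_iff₀ p, g.ntu_eq hs]
  exact h1

theorem tc_dr (R : ℝ) : ∀ᶠ n in (U : Filter ℕ), W.Good n → ∀ a ∈ W.Cl n, ∀ b ∈ W.Cl n,
    ∀ s ∈ Dr, |tc W κ u f n a b s| ≤ W.K0 * W.B'.d n ^ R := by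
  filter_upwards [g.ntu_dr R] with n hn gd a ha b hb s hs
  have h1 := g.ww.bnd gd ha hb s
  have p := g.ntu_pos n s
  unfold tc
  rw [abs_div, abs_of_pos p, div_le_iff₀ p]
  have h2 := mul_le_mul_of_nonneg_left (hn s hs) (by linarith [g.ww.ok.K0_one] : 0 ≤ W.K0)
  refine h1.trans (h2.trans (le_of_eq (by ring)))

/-- in a slot which is not dropped `tc` is the coordinate of the window -/
theorem tc_crd {n : ℕ} (gd : W.Good n) {a b : ℕ × ℝ} (ha : a ∈ W.Cl n) (hb : b ∈ W.Cl n)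
    {s : Fin 18} (hs : s ∉ Dr) : tc W κ u f n a b s = W.crd n a b s := by
  unfold tc
  rw [g.ww.crd_eq gd ha hb, g.ntu_eq hs]
  have e : un W u n s = sd W u n s := by
    unfold un
    rw [g.ekap, one_mul]
  have := (g.ww.sd_pos n s).ne'
  rw [e]
  field_simp

/-- same height -/
theorem tc_lev {n : ℕ} (gd : W.Good n) {a b : ℕ × ℝ} (ha : a ∈ W.Cl n) (hb : b ∈ W.Cl n)
    (hz : W.zc n a = W.zc n b) : |tc W κ u f n a b 0| ≤ W.K0 * W.B'.d n ^ x := by
  have h := g.ww.crd_lev gd ha hb hz (s := 0) (t := x) (by rw [g.eS]; simp)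
    (by rw [g.etop])
  rw [g.ekap, div_one] at h
  rwa [g.tc_crd gd ha hb (g.lt4 (by decide))]

/-- same fat line -/
theorem tc_own {n : ℕ} (gd : W.Good n) {a b : ℕ × ℝ} (ha : a ∈ W.Cl n) (hb : b ∈ W.Cl n)
    (hl : W.lc n a = W.lc n b) {s : Fin 18} (h0 : s ≠ 0) (hs : s ∉ Dr) :
    |tc W κ u f n a b s| ≤ W.K0 * W.B'.d n ^ x := by
  have h := g.ww.crd_own gd ha hb hl (s := s) (t := x) (by rw [g.eS]; simpa using h0)
    (by rw [g.etop])
  rw [g.ekap, div_one] at h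
  rwa [g.tc_crd gd ha hb hs]

end QIn

end

end Crest.Agent.R136.Qe861
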