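import Crest.Agent.R136.Qe1_861

/-!
# R136, thin branch, `quad` (helper861), part 2: three vectors, finite estimates

`Tri κ K τ t r t'` : `t = (s₀, x)`, `r = (x, y)`, `t' = (s₀, y)` in natural units; the dropped slots
`4, 5, 6, 8` of `t` are tiny.
-/

set_option autoImplicit false
set_option linter.unusedVariables false

namespace Crest.Agent.R136.Qe861

open Crest.Agent.R136.NetW191 Crest.Agent.R136.EvW938

/-- three vectors -/
structure Tri (κ K τ : ℝ) (t r t' : Fin 18 → ℝ) : Prop where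
  κ1 : |κ| ≤ 1
  K1 : 1 ≤ K
  τ0 : 0 ≤ τ
  fr : frm t' = NetW191.mul κ (frm t) (frm r)
  fl : ∀ q, t' (Fin.natAdd 4 q) = tr κ (frm r) (flg t) q + r (Fin.natAdd 4 q)
  bt : ∀ s, |t s| ≤ K
  br : ∀ s, |r s| ≤ K
  bt' : ∀ s, |t' s| ≤ K
  dr : ∀ s : Fin 18, s = 4 ∨ s = 5 ∨ s = 6 ∨ s = 8 → |t s| ≤ K * τ

/-- dropped slots put to zero -/
def off (w : Fin 14 → ℝ) : Fin 14 → ℝ :=
  ![0, 0, 0, w 3, 0, w 5, w 6, w 7, w 8, w 9, w 10, w 11, w 12, w 13]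

theorem sides_one : SidesW fun _ => (1 : ℝ) where
  pos _ := zero_le_one
  wall k l _ := by
    simp

theorem pw {K : ℝ} (hK : 1 ≤ K) {m k : ℕ} (h : m ≤ k) : K ^ m ≤ K ^ k := pow_le_pow_right₀ hK h

theorem am {x y X Y : ℝ} (hx : |x| ≤ X) (hy : |y| ≤ Y) : |x * y| ≤ X * Y := by
  rw [abs_mul]
  exact mul_le_mul hx hy (abs_nonneg _) ((abs_nonneg _).trans hx)

/-- general comparison of the substitution -/
theorem tr_near {κ K τ : ℝ} (hκ : |κ| ≤ 1) (hK : 1 ≤ K) (hτ : 0 ≤ τ) {h h' : Fin 4 → ℝ}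
    {w w' : Fin 14 → ℝ} (h1 : ∀ i, |h i| ≤ K) (h2 : ∀ i, |h' i| ≤ K)
    (h3 : ∀ i, |h i - h' i| ≤ K * τ) (w1 : ∀ q, |w q| ≤ K) (w3 : ∀ q, |w q - w' q| ≤ K * τ)
    (q : Fin 14) : |tr κ h w q - tr κ h' w' q| ≤ 470 * K ^ 7 * τ := by
  have := tr_lip (X := fun _ => (1 : ℝ)) hκ sides_one hK hτ (h := h) (h' := h') (w := w) (w' := w')
    (fun i => by rw [mul_one]; exact h1 i) (fun i => by rw [mul_one]; exact h2 i)
    (fun i => by rw [mul_one]; exact h3 i) (fun i => by rw [mul_one]; exact w1 i)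
    (fun i => by rw [mul_one]; exact w3 i) q
  rwa [mul_one] at this

namespace Tri

variable {κ K τ : ℝ} {t r t' : Fin 18 → ℝ} (T : Tri κ K τ t r t')

include T

theorem e1 : t' 1 = t 1 + r 1 := congrFun T.fr 1
theorem e2 : t' 2 = t 2 + r 2 + t 1 * r 0 := congrFun T.fr 2
theorem e3 : t' 3 = t 3 + r 3 - 2 * κ * t 1 * r 2 - κ * t 1 ^ 2 * r 0 := congrFun T.fr 3

theorem near {h' : Fin 4 → ℝ} (h2 : ∀ i, |h' i| ≤ K)
    (h3 : ∀ i : Fin 4, |r (Fin.castAdd 14 i) - h' i| ≤ K * τ) (q : Fin 14) :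
    |tr κ (frm r) (flg t) q - tr κ h' (off (flg t)) q| ≤ 470 * K ^ 7 * τ := by
  have hK0 : 0 ≤ K * τ := mul_nonneg (by linarith [T.K1]) T.τ0
  refine tr_near T.κ1 T.K1 T.τ0 (fun i => T.br _) h2 h3 (fun q => T.bt _) ?_ q
  intro q
  have d : ∀ s : Fin 18, s = 4 ∨ s = 5 ∨ s = 6 ∨ s = 8 → |t s - 0| ≤ K * τ := fun s hs => by
    rw [sub_zero]; exact T.dr s hs
  have z : ∀ y : ℝ, |y - y| ≤ K * τ := fun y => by rw [sub_self, abs_zero]; exact hK0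
  fin_cases q
  · exact d 4 (by decide)
  · exact d 5 (by decide)
  · exact d 6 (by decide)
  · exact z _
  · exact d 8 (by decide)
  · exact z _
  · exact z _
  · exact z _
  · exact z _
  · exact z _
  · exact z _
  · exact z _
  · exact z _
  · exact z _

theorem flag {h' : Fin 4 → ℝ} (h2 : ∀ i, |h' i| ≤ K)
    (h3 : ∀ i : Fin 4, |r (Fin.castAdd 14 i) - h' i| ≤ K * τ) (q : Fin 14)
    (hr : |r (Fin.natAdd 4 q)| ≤ K * τ) :
    |t' (Fin.natAdd 4 q) - tr κ h' (off (flg t)) q| ≤ 471 * K ^ 7 * τ := by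
  have h := T.near h2 h3 q
  rw [T.fl q]
  have e : tr κ (frm r) (flg t) q + r (Fin.natAdd 4 q) - tr κ h' (off (flg t)) q =
      (tr κ (frm r) (flg t) q - tr κ h' (off (flg t)) q) + r (Fin.natAdd 4 q) := by ring
  rw [e]
  have k1 := abs_add_le (tr κ (frm r) (flg t) q - tr κ h' (off (flg t)) q) (r (Fin.natAdd 4 q))
  have k2 : K * τ ≤ K ^ 7 * τ := by
    refine mul_le_mul_of_nonneg_right ?_ T.τ0
    calc K = K ^ 1 := (pow_one K).symm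
      _ ≤ _ := pw T.K1 (by norm_num)
  linarith

/-- **box of positions** -/
theorem pos (r0 : |r 0| ≤ K * τ) (r2 : |r 2| ≤ K * τ) (r3 : |r 3| ≤ K * τ)
    (r14 : |r 14| ≤ K * τ) (r15 : |r 15| ≤ K * τ) :
    |t' 2 - t 2| ≤ 5000 * K ^ 9 * τ ∧ |t' 3 - t 3| ≤ 5000 * K ^ 9 * τ ∧
    |t' 14 - t 14| ≤ 471 * K ^ 7 * τ ∧
    |(t' 15 + 2 * κ * t' 1 * t' 14) - (t 15 + 2 * κ * t 1 * t 14)| ≤ 2400 * K ^ 8 * τ ∧
    (|r 16| ≤ K * τ → |t' 16 - (t 16 - κ * r 1 ^ 2 * t 14 + r 1 * t 15)| ≤ 471 * K ^ 7 * τ) := by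
  have hK := T.K1
  have hκ := T.κ1
  have hτ := T.τ0
  have hK0 : 0 ≤ K := by linarith
  have hKτ : 0 ≤ K * τ := mul_nonneg hK0 hτ
  set h' : Fin 4 → ℝ := ![0, r 1, 0, 0] with hh
  have g2 : ∀ i, |h' i| ≤ K := by
    intro i
    fin_cases i
    · change |(0 : ℝ)| ≤ K; rw [abs_zero]; exact hK0
    · exact T.br 1
    · change |(0 : ℝ)| ≤ K; rw [abs_zero]; exact hK0
    · change |(0 : ℝ)| ≤ K; rw [abs_zero]; exact hK0
  have g3 : ∀ i : Fin 4, |r (Fin.castAdd 14 i) - h' i| ≤ K * τ := by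
    intro i
    fin_cases i
    · change |r 0 - 0| ≤ K * τ; rw [sub_zero]; exact r0
    · change |r 1 - r 1| ≤ K * τ; rw [sub_self, abs_zero]; exact hKτ
    · change |r 2 - 0| ≤ K * τ; rw [sub_zero]; exact r2
    · change |r 3 - 0| ≤ K * τ; rw [sub_zero]; exact r3
  have f10 := T.flag g2 g3 10 r14
  have f11 := T.flag g2 g3 11 r15
  have v10 : tr κ h' (off (flg t)) 10 = t 14 := by
    rw [tr10]
    simp [hh, off, flg]
  have v11 : tr κ h' (off (flg t)) 11 = t 15 - 2 * κ * r 1 * t 14 := by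
    rw [tr11]
    simp [hh, off, flg]
  have v12 : tr κ h' (off (flg t)) 12 = t 16 - κ * r 1 ^ 2 * t 14 + r 1 * t 15 := by
    rw [tr12]
    simp [hh, off, flg]
  rw [v10] at f10
  rw [v11] at f11
  change |t' 14 - t 14| ≤ _ at f10
  change |t' 15 - _| ≤ _ at f11
  have p : ∀ m ≤ 9, K ^ m * τ ≤ K ^ 9 * τ := fun m hm => mul_le_mul_of_nonneg_right (pw hK hm) hτ
  have p1 := p 1 (by norm_num)
  have p2 := p 2 (by norm_num)
  have p3 := p 3 (by norm_num)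
  rw [pow_one] at p1
  have k1 : |t 1 * r 0| ≤ K ^ 2 * τ := (am (T.bt 1) r0).trans (le_of_eq (by ring))
  have k2 : |κ * (t 1 * r 2)| ≤ K ^ 2 * τ :=
    (am hκ (am (T.bt 1) r2)).trans (le_of_eq (by ring))
  have k3 : |κ * (t 1 * (t 1 * r 0))| ≤ K ^ 3 * τ :=
    (am hκ (am (T.bt 1) (am (T.bt 1) r0))).trans (le_of_eq (by ring))
  refine ⟨?_, ?_, f10, ?_, fun r16 => ?_⟩
  · have e : t' 2 - t 2 = r 2 + t 1 * r 0 := by rw [T.e2]; ring
    rw [e]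
    have := abs_add_le (r 2) (t 1 * r 0)
    linarith
  · have e : t' 3 - t 3 = r 3 - 2 * (κ * (t 1 * r 2)) - κ * (t 1 * (t 1 * r 0)) := by
      rw [T.e3]; ring
    rw [e]
    have a1 := abs_sub (r 3 - 2 * (κ * (t 1 * r 2))) (κ * (t 1 * (t 1 * r 0)))
    have a2 := abs_sub (r 3) (2 * (κ * (t 1 * r 2)))
    have a3 : |2 * (κ * (t 1 * r 2))| = 2 * |κ * (t 1 * r 2)| := by rw [abs_mul, abs_two]
    linarith
  · have e : (t' 15 + 2 * κ * t' 1 * t' 14) - (t 15 + 2 * κ * t 1 * t 14) =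
        (t' 15 - (t 15 - 2 * κ * r 1 * t 14)) + 2 * (κ * (t' 1 * (t' 14 - t 14))) := by
      rw [T.e1]; ring
    rw [e]
    have a1 := abs_add_le (t' 15 - (t 15 - 2 * κ * r 1 * t 14))
      (2 * (κ * (t' 1 * (t' 14 - t 14))))
    have a2 : |2 * (κ * (t' 1 * (t' 14 - t 14)))| = 2 * |κ * (t' 1 * (t' 14 - t 14))| := by
      rw [abs_mul, abs_two]
    have a3 : |κ * (t' 1 * (t' 14 - t 14))| ≤ 471 * (K ^ 8 * τ) :=
      (am hκ (am (T.bt' 1) f10)).trans (le_of_eq (by ring))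
    have a4 : K ^ 7 * τ ≤ K ^ 8 * τ := mul_le_mul_of_nonneg_right (pw hK (by norm_num)) hτ
    have a5 : 0 ≤ K ^ 8 * τ := by positivity
    linarith
  · have f12 := T.flag g2 g3 12 r16
    rw [v12] at f12
    exact f12

/-- **phase on the box of positions** -/
theorem posP (r0 : |r 0| ≤ K * τ) (r2 : |r 2| ≤ K * τ) (r3 : |r 3| ≤ K * τ)
    (r14 : |r 14| ≤ K * τ) (r15 : |r 15| ≤ K * τ) (r16 : |r 16| ≤ K * τ) :
    |(t' 16 - t' 1 * (t' 15 + 2 * κ * t' 1 * t' 14) + κ * t' 1 ^ 2 * t' 14) -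
      (t 16 - t 1 * (t 15 + 2 * κ * t 1 * t 14) + κ * t 1 ^ 2 * t 14)| ≤ 5000 * K ^ 9 * τ := by
  obtain ⟨-, -, h14, hs, h16⟩ := T.pos r0 r2 r3 r14 r15
  have h16 := h16 r16
  have hK := T.K1
  have hκ := T.κ1
  have hτ := T.τ0
  have hK0 : 0 ≤ K := by linarith
  have e : (t' 16 - t' 1 * (t' 15 + 2 * κ * t' 1 * t' 14) + κ * t' 1 ^ 2 * t' 14) -
      (t 16 - t 1 * (t 15 + 2 * κ * t 1 * t 14) + κ * t 1 ^ 2 * t 14) =
      (t' 16 - (t 16 - κ * r 1 ^ 2 * t 14 + r 1 * t 15)) -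
      t' 1 * ((t' 15 + 2 * κ * t' 1 * t' 14) - (t 15 + 2 * κ * t 1 * t 14)) +
      κ * (t' 1 * (t' 1 * (t' 14 - t 14))) := by
    rw [T.e1]; ring
  rw [e]
  have a1 := abs_add_le ((t' 16 - (t 16 - κ * r 1 ^ 2 * t 14 + r 1 * t 15)) -
      t' 1 * ((t' 15 + 2 * κ * t' 1 * t' 14) - (t 15 + 2 * κ * t 1 * t 14)))
      (κ * (t' 1 * (t' 1 * (t' 14 - t 14))))
  have a2 := abs_sub (t' 16 - (t 16 - κ * r 1 ^ 2 * t 14 + r 1 * t 15))
      (t' 1 * ((t' 15 + 2 * κ * t' 1 * t' 14) - (t 15 + 2 * κ * t 1 * t 14)))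
  have a3 : |κ * (t' 1 * (t' 1 * (t' 14 - t 14)))| ≤ 471 * (K ^ 9 * τ) :=
    (am hκ (am (T.bt' 1) (am (T.bt' 1) h14))).trans (le_of_eq (by ring))
  have a4 : |t' 1 * ((t' 15 + 2 * κ * t' 1 * t' 14) - (t 15 + 2 * κ * t 1 * t 14))| ≤
      2400 * (K ^ 9 * τ) := (am (T.bt' 1) hs).trans (le_of_eq (by ring))
  have a5 : K ^ 7 * τ ≤ K ^ 9 * τ := mul_le_mul_of_nonneg_right (pw hK (by norm_num)) hτ
  have a6 : 0 ≤ K ^ 9 * τ := by positivity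
  linarith

/-- **box of velocities** -/
theorem vel (r0 : |r 0| ≤ K * τ) (r1 : |r 1| ≤ K * τ) (r11 : |r 11| ≤ K * τ)
    (r12 : |r 12| ≤ K * τ) :
    |t' 1 - t 1| ≤ K * τ ∧ |t' 11 - t 11| ≤ 471 * K ^ 7 * τ ∧
    |(t' 12 + 2 * κ * t' 1 * t' 11) - (t 12 + 2 * κ * t 1 * t 11)| ≤ 1500 * K ^ 8 * τ ∧
    (|r 16| ≤ K * τ → |t' 16 - (t 16 + r 3 * t 11 + r 2 * t 12)| ≤ 471 * K ^ 7 * τ) := by
  have hK := T.K1
  have hκ := T.κ1
  have hτ := T.τ0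
  have hK0 : 0 ≤ K := by linarith
  have hKτ : 0 ≤ K * τ := mul_nonneg hK0 hτ
  set h' : Fin 4 → ℝ := ![0, 0, r 2, r 3] with hh
  have g2 : ∀ i, |h' i| ≤ K := by
    intro i
    fin_cases i
    · change |(0 : ℝ)| ≤ K; rw [abs_zero]; exact hK0
    · change |(0 : ℝ)| ≤ K; rw [abs_zero]; exact hK0
    · exact T.br 2
    · exact T.br 3
  have g3 : ∀ i : Fin 4, |r (Fin.castAdd 14 i) - h' i| ≤ K * τ := by
    intro i
    fin_cases i
    · change |r 0 - 0| ≤ K * τ; rw [sub_zero]; exact r0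
    · change |r 1 - 0| ≤ K * τ; rw [sub_zero]; exact r1
    · change |r 2 - r 2| ≤ K * τ; rw [sub_self, abs_zero]; exact hKτ
    · change |r 3 - r 3| ≤ K * τ; rw [sub_self, abs_zero]; exact hKτ
  have f7 := T.flag g2 g3 7 r11
  have f8 := T.flag g2 g3 8 r12
  have v7 : tr κ h' (off (flg t)) 7 = t 11 := by
    rw [tr7]
    simp [hh, off, flg]
  have v8 : tr κ h' (off (flg t)) 8 = t 12 := by
    rw [tr8]
    simp [hh, off, flg]
  have v12 : tr κ h' (off (flg t)) 12 = t 16 + r 3 * t 11 + r 2 * t 12 := by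
    rw [tr12]
    simp [hh, off, flg]
  rw [v7] at f7
  rw [v8] at f8
  change |t' 11 - t 11| ≤ _ at f7
  change |t' 12 - t 12| ≤ _ at f8
  refine ⟨?_, f7, ?_, fun r16 => ?_⟩
  · have e : t' 1 - t 1 = r 1 := by rw [T.e1]; ring
    rw [e]; exact r1
  · have e : (t' 12 + 2 * κ * t' 1 * t' 11) - (t 12 + 2 * κ * t 1 * t 11) =
        (t' 12 - t 12) + 2 * (κ * (t' 1 * (t' 11 - t 11))) + 2 * (κ * (r 1 * t 11)) := by
      rw [T.e1]; ring
    rw [e]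
    have a1 := abs_add_le ((t' 12 - t 12) + 2 * (κ * (t' 1 * (t' 11 - t 11))))
      (2 * (κ * (r 1 * t 11)))
    have a2 := abs_add_le (t' 12 - t 12) (2 * (κ * (t' 1 * (t' 11 - t 11))))
    have a3 : |2 * (κ * (t' 1 * (t' 11 - t 11)))| = 2 * |κ * (t' 1 * (t' 11 - t 11))| := by
      rw [abs_mul, abs_two]
    have a4 : |2 * (κ * (r 1 * t 11))| = 2 * |κ * (r 1 * t 11)| := by rw [abs_mul, abs_two]
    have a5 : |κ * (t' 1 * (t' 11 - t 11))| ≤ 471 * (K ^ 8 * τ) :=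
      (am hκ (am (T.bt' 1) f7)).trans (le_of_eq (by ring))
    have a6 : |κ * (r 1 * t 11)| ≤ K ^ 2 * τ :=
      (am hκ (am r1 (T.bt 11))).trans (le_of_eq (by ring))
    have a7 : K ^ 7 * τ ≤ K ^ 8 * τ := mul_le_mul_of_nonneg_right (pw hK (by norm_num)) hτ
    have a8 : K ^ 2 * τ ≤ K ^ 8 * τ := mul_le_mul_of_nonneg_right (pw hK (by norm_num)) hτ
    have a9 : 0 ≤ K ^ 8 * τ := by positivity
    linarith
  · have f12 := T.flag g2 g3 12 r16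
    rw [v12] at f12
    exact f12

/-- **phase on the box of velocities** -/
theorem velP (r0 : |r 0| ≤ K * τ) (r1 : |r 1| ≤ K * τ) (r11 : |r 11| ≤ K * τ)
    (r12 : |r 12| ≤ K * τ) (r16 : |r 16| ≤ K * τ) :
    |(t' 16 - t' 11 * t' 3 - (t' 12 + 2 * κ * t' 1 * t' 11) * t' 2) -
      (t 16 - t 11 * t 3 - (t 12 + 2 * κ * t 1 * t 11) * t 2)| ≤ 5000 * K ^ 9 * τ := by
  obtain ⟨-, h11, hZ, h16⟩ := T.vel r0 r1 r11 r12
  have h16 := h16 r16
  have hK := T.K1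
  have hκ := T.κ1
  have hτ := T.τ0
  have hK0 : 0 ≤ K := by linarith
  have e : (t' 16 - t' 11 * t' 3 - (t' 12 + 2 * κ * t' 1 * t' 11) * t' 2) -
      (t 16 - t 11 * t 3 - (t 12 + 2 * κ * t 1 * t 11) * t 2) =
      (t' 16 - (t 16 + r 3 * t 11 + r 2 * t 12)) - (t' 11 - t 11) * t' 3 -
      ((t' 12 + 2 * κ * t' 1 * t' 11) - (t 12 + 2 * κ * t 1 * t 11)) * t' 2 -
      (t 12 * (t 1 * r 0) + κ * (t 1 * (t 1 * (t 11 * r 0)))) := by
    rw [T.e2, T.e3]; ring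
  rw [e]
  have a1 := abs_sub ((t' 16 - (t 16 + r 3 * t 11 + r 2 * t 12)) - (t' 11 - t 11) * t' 3 -
      ((t' 12 + 2 * κ * t' 1 * t' 11) - (t 12 + 2 * κ * t 1 * t 11)) * t' 2)
      (t 12 * (t 1 * r 0) + κ * (t 1 * (t 1 * (t 11 * r 0))))
  have a2 := abs_sub ((t' 16 - (t 16 + r 3 * t 11 + r 2 * t 12)) - (t' 11 - t 11) * t' 3)
      (((t' 12 + 2 * κ * t' 1 * t' 11) - (t 12 + 2 * κ * t 1 * t 11)) * t' 2)
  have a3 := abs_sub (t' 16 - (t 16 + r 3 * t 11 + r 2 * t 12)) ((t' 11 - t 11) * t' 3)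
  have a4 := abs_add_le (t 12 * (t 1 * r 0)) (κ * (t 1 * (t 1 * (t 11 * r 0))))
  have b1 : |(t' 11 - t 11) * t' 3| ≤ 471 * (K ^ 8 * τ) :=
    (am h11 (T.bt' 3)).trans (le_of_eq (by ring))
  have b2 : |((t' 12 + 2 * κ * t' 1 * t' 11) - (t 12 + 2 * κ * t 1 * t 11)) * t' 2| ≤
      1500 * (K ^ 9 * τ) := (am hZ (T.bt' 2)).trans (le_of_eq (by ring))
  have b3 : |t 12 * (t 1 * r 0)| ≤ K ^ 3 * τ :=
    (am (T.bt 12) (am (T.bt 1) r0)).trans (le_of_eq (by ring))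
  have b4 : |κ * (t 1 * (t 1 * (t 11 * r 0)))| ≤ K ^ 4 * τ :=
    (am hκ (am (T.bt 1) (am (T.bt 1) (am (T.bt 11) r0)))).trans (le_of_eq (by ring))
  have p : ∀ m ≤ 9, K ^ m * τ ≤ K ^ 9 * τ := fun m hm => mul_le_mul_of_nonneg_right (pw hK hm) hτ
  have p7 := p 7 (by norm_num)
  have p8 := p 8 (by norm_num)
  have p3 := p 3 (by norm_num)
  have p4 := p 4 (by norm_num)
  have a6 : 0 ≤ K ^ 9 * τ := by positivity
  linarith

/-- **the same fat line, another height** -/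
theorem evo {v : ℝ} (hv : |r 0 - v| ≤ 2 * (K * τ)) (hr : ∀ s, s ≠ 0 → |r s| ≤ K * τ) :
    |t' 2 - (t 2 + v * t 1)| ≤ 5000 * K ^ 9 * τ ∧
    |t' 3 - (t 3 - κ * v * t 1 ^ 2)| ≤ 5000 * K ^ 9 * τ ∧
    |t' 1 - t 1| ≤ 5000 * K ^ 9 * τ ∧
    |(t' 15 + 2 * κ * t' 1 * t' 14) - ((t 15 + 2 * κ * t 1 * t 14) +
      v * (t 12 + 2 * κ * t 1 * t 11))| ≤ 5000 * K ^ 9 * τ ∧
    |t' 14 - (t 14 + v * t 11)| ≤ 5000 * K ^ 9 * τ ∧
    |t' 11 - t 11| ≤ 5000 * K ^ 9 * τ ∧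
    |(t' 12 + 2 * κ * t' 1 * t' 11) - (t 12 + 2 * κ * t 1 * t 11)| ≤ 5000 * K ^ 9 * τ ∧
    |t' 16 - (t 16 + 2 * v * t 13)| ≤ 5000 * K ^ 9 * τ ∧
    |t' 13 - t 13| ≤ 5000 * K ^ 9 * τ := by
  have hK := T.K1
  have hκ := T.κ1
  have hτ := T.τ0
  have hK0 : 0 ≤ K := by linarith
  have hKτ : 0 ≤ K * τ := mul_nonneg hK0 hτ
  set h' : Fin 4 → ℝ := ![r 0, 0, 0, 0] with hh
  have g2 : ∀ i, |h' i| ≤ K := by
    intro i
    fin_cases i
    · exact T.br 0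
    · change |(0 : ℝ)| ≤ K; rw [abs_zero]; exact hK0
    · change |(0 : ℝ)| ≤ K; rw [abs_zero]; exact hK0
    · change |(0 : ℝ)| ≤ K; rw [abs_zero]; exact hK0
  have g3 : ∀ i : Fin 4, |r (Fin.castAdd 14 i) - h' i| ≤ K * τ := by
    intro i
    fin_cases i
    · change |r 0 - r 0| ≤ K * τ; rw [sub_self, abs_zero]; exact hKτ
    · change |r 1 - 0| ≤ K * τ; rw [sub_zero]; exact hr 1 (by decide)
    · change |r 2 - 0| ≤ K * τ; rw [sub_zero]; exact hr 2 (by decide)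
    · change |r 3 - 0| ≤ K * τ; rw [sub_zero]; exact hr 3 (by decide)
  have f7 := T.flag g2 g3 7 (hr _ (by decide))
  have f8 := T.flag g2 g3 8 (hr _ (by decide))
  have f9 := T.flag g2 g3 9 (hr _ (by decide))
  have f10 := T.flag g2 g3 10 (hr _ (by decide))
  have f11 := T.flag g2 g3 11 (hr _ (by decide))
  have f12 := T.flag g2 g3 12 (hr _ (by decide))
  have v7 : tr κ h' (off (flg t)) 7 = t 11 := by
    rw [tr7]
    simp [hh, off, flg]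
  have v8 : tr κ h' (off (flg t)) 8 = t 12 := by
    rw [tr8]
    simp [hh, off, flg]
  have v9 : tr κ h' (off (flg t)) 9 = t 13 := by
    rw [tr9]
    simp [hh, off, flg]
  have v10 : tr κ h' (off (flg t)) 10 = t 14 + r 0 * t 11 := by
    rw [tr10]
    simp [hh, off, flg]
  have v11 : tr κ h' (off (flg t)) 11 = t 15 + r 0 * t 12 := by
    rw [tr11]
    simp [hh, off, flg]
  have v12 : tr κ h' (off (flg t)) 12 = t 16 + 2 * r 0 * t 13 := by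
    rw [tr12]
    simp [hh, off, flg]
  rw [v7] at f7
  rw [v8] at f8
  rw [v9] at f9
  rw [v10] at f10
  rw [v11] at f11
  rw [v12] at f12
  change |t' 11 - _| ≤ _ at f7
  change |t' 12 - _| ≤ _ at f8
  change |t' 13 - _| ≤ _ at f9
  change |t' 14 - _| ≤ _ at f10
  change |t' 15 - _| ≤ _ at f11
  change |t' 16 - _| ≤ _ at f12
  have p : ∀ m ≤ 9, K ^ m * τ ≤ K ^ 9 * τ := fun m hm => mul_le_mul_of_nonneg_right (pw hK hm) hτ
  have p1 := p 1 (by norm_num)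
  have p2 := p 2 (by norm_num)
  have p3 := p 3 (by norm_num)
  have p7 := p 7 (by norm_num)
  have p8 := p 8 (by norm_num)
  rw [pow_one] at p1
  have p9 : 0 ≤ K ^ 9 * τ := by positivity
  have r1 := hr 1 (by decide)
  have r2 := hr 2 (by decide)
  have r3 := hr 3 (by decide)
  have w1 : ∀ s, |(r 0 - v) * t s| ≤ 2 * (K ^ 2 * τ) := fun s =>
    (am hv (T.bt s)).trans (le_of_eq (by ring))
  refine ⟨?_, ?_, ?_, ?_, ?_, ?_, ?_, ?_, ?_⟩
  · have e : t' 2 - (t 2 + v * t 1) = r 2 + (r 0 - v) * t 1 := by rw [T.e2]; ring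
    rw [e]
    have := abs_add_le (r 2) ((r 0 - v) * t 1)
    linarith [w1 1]
  · have e : t' 3 - (t 3 - κ * v * t 1 ^ 2) =
        r 3 - 2 * (κ * (t 1 * r 2)) - κ * (t 1 * ((r 0 - v) * t 1)) := by
      rw [T.e3]; ring
    rw [e]
    have a1 := abs_sub (r 3 - 2 * (κ * (t 1 * r 2))) (κ * (t 1 * ((r 0 - v) * t 1)))
    have a2 := abs_sub (r 3) (2 * (κ * (t 1 * r 2)))
    have a3 : |2 * (κ * (t 1 * r 2))| = 2 * |κ * (t 1 * r 2)| := by rw [abs_mul, abs_two]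
    have k2 : |κ * (t 1 * r 2)| ≤ K ^ 2 * τ :=
      (am hκ (am (T.bt 1) r2)).trans (le_of_eq (by ring))
    have k3 : |κ * (t 1 * ((r 0 - v) * t 1))| ≤ 2 * (K ^ 3 * τ) :=
      (am hκ (am (T.bt 1) (w1 1))).trans (le_of_eq (by ring))
    linarith
  · have e : t' 1 - t 1 = r 1 := by rw [T.e1]; ring
    rw [e]
    linarith
  · have e : (t' 15 + 2 * κ * t' 1 * t' 14) - ((t 15 + 2 * κ * t 1 * t 14) +
        v * (t 12 + 2 * κ * t 1 * t 11)) =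
        (t' 15 - (t 15 + r 0 * t 12)) + 2 * (κ * (t' 1 * (t' 14 - (t 14 + r 0 * t 11)))) +
        2 * (κ * (r 1 * t 14)) + 2 * (κ * (r 1 * (r 0 * t 11))) + (r 0 - v) * t 12 +
        2 * (κ * (t 1 * ((r 0 - v) * t 11))) := by
      rw [T.e1]; ring
    rw [e]
    have b1 : |2 * (κ * (t' 1 * (t' 14 - (t 14 + r 0 * t 11))))| ≤ 942 * (K ^ 8 * τ) := by
      rw [abs_mul, abs_two]
      have := am hκ (am (T.bt' 1) f10)
      calc 2 * |κ * (t' 1 * (t' 14 - (t 14 + r 0 * t 11)))| ≤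
          2 * (1 * (K * (471 * K ^ 7 * τ))) := by linarith
        _ = _ := by ring
    have b2 : |2 * (κ * (r 1 * t 14))| ≤ 2 * (K ^ 2 * τ) := by
      rw [abs_mul, abs_two]
      have := am hκ (am r1 (T.bt 14))
      calc 2 * |κ * (r 1 * t 14)| ≤ 2 * (1 * (K * τ * K)) := by linarith
        _ = _ := by ring
    have b3 : |2 * (κ * (r 1 * (r 0 * t 11)))| ≤ 2 * (K ^ 3 * τ) := by
      rw [abs_mul, abs_two]
      have := am hκ (am r1 (am (T.br 0) (T.bt 11)))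
      calc 2 * |κ * (r 1 * (r 0 * t 11))| ≤ 2 * (1 * (K * τ * (K * K))) := by linarith
        _ = _ := by ring
    have b4 : |2 * (κ * (t 1 * ((r 0 - v) * t 11)))| ≤ 4 * (K ^ 3 * τ) := by
      rw [abs_mul, abs_two]
      have := am hκ (am (T.bt 1) (w1 11))
      calc 2 * |κ * (t 1 * ((r 0 - v) * t 11))| ≤ 2 * (1 * (K * (2 * (K ^ 2 * τ)))) := by
            linarith
        _ = _ := by ring
    have b5 := w1 12
    have a1 := abs_add_le ((t' 15 - (t 15 + r 0 * t 12)) +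
      2 * (κ * (t' 1 * (t' 14 - (t 14 + r 0 * t 11)))) +
        2 * (κ * (r 1 * t 14)) + 2 * (κ * (r 1 * (r 0 * t 11))) + (r 0 - v) * t 12)
        (2 * (κ * (t 1 * ((r 0 - v) * t 11))))
    have a2 := abs_add_le ((t' 15 - (t 15 + r 0 * t 12)) +
      2 * (κ * (t' 1 * (t' 14 - (t 14 + r 0 * t 11)))) +
        2 * (κ * (r 1 * t 14)) + 2 * (κ * (r 1 * (r 0 * t 11)))) ((r 0 - v) * t 12)
    have a3 := abs_add_le ((t' 15 - (t 15 + r 0 * t 12)) +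
      2 * (κ * (t' 1 * (t' 14 - (t 14 + r 0 * t 11)))) +
        2 * (κ * (r 1 * t 14))) (2 * (κ * (r 1 * (r 0 * t 11))))
    have a4 := abs_add_le ((t' 15 - (t 15 + r 0 * t 12)) +
      2 * (κ * (t' 1 * (t' 14 - (t 14 + r 0 * t 11))))) (2 * (κ * (r 1 * t 14)))
    have a5 := abs_add_le (t' 15 - (t 15 + r 0 * t 12))
      (2 * (κ * (t' 1 * (t' 14 - (t 14 + r 0 * t 11)))))
    linarith
  · have e : t' 14 - (t 14 + v * t 11) = (t' 14 - (t 14 + r 0 * t 11)) + (r 0 - v) * t 11 := by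
      ring
    rw [e]
    have := abs_add_le (t' 14 - (t 14 + r 0 * t 11)) ((r 0 - v) * t 11)
    linarith [w1 11]
  · linarith
  · have e : (t' 12 + 2 * κ * t' 1 * t' 11) - (t 12 + 2 * κ * t 1 * t 11) =
        (t' 12 - t 12) + 2 * (κ * (t' 1 * (t' 11 - t 11))) + 2 * (κ * (r 1 * t 11)) := by
      rw [T.e1]; ring
    rw [e]
    have a1 := abs_add_le ((t' 12 - t 12) + 2 * (κ * (t' 1 * (t' 11 - t 11))))
      (2 * (κ * (r 1 * t 11)))
    have a2 := abs_add_le (t' 12 - t 12) (2 * (κ * (t' 1 * (t' 11 - t 11))))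
    have a3 : |2 * (κ * (t' 1 * (t' 11 - t 11)))| = 2 * |κ * (t' 1 * (t' 11 - t 11))| := by
      rw [abs_mul, abs_two]
    have a4 : |2 * (κ * (r 1 * t 11))| = 2 * |κ * (r 1 * t 11)| := by rw [abs_mul, abs_two]
    have a5 : |κ * (t' 1 * (t' 11 - t 11))| ≤ 471 * (K ^ 8 * τ) :=
      (am hκ (am (T.bt' 1) f7)).trans (le_of_eq (by ring))
    have a6 : |κ * (r 1 * t 11)| ≤ K ^ 2 * τ :=
      (am hκ (am r1 (T.bt 11))).trans (le_of_eq (by ring))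
    linarith
  · have e : t' 16 - (t 16 + 2 * v * t 13) = (t' 16 - (t 16 + 2 * r 0 * t 13)) +
        2 * ((r 0 - v) * t 13) := by ring
    rw [e]
    have := abs_add_le (t' 16 - (t 16 + 2 * r 0 * t 13)) (2 * ((r 0 - v) * t 13))
    have a3 : |2 * ((r 0 - v) * t 13)| = 2 * |(r 0 - v) * t 13| := by rw [abs_mul, abs_two]
    linarith [w1 13]
  · linarith

/-- positions determine the box `{A, B}` -/
theorem boxA (r0 : |r 0| ≤ K * τ) (h2 : |t' 2 - t 2| ≤ τ) (h3 : |t' 3 - t 3| ≤ τ) :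
    |r 2| ≤ 5000 * K ^ 9 * τ ∧ |r 3| ≤ 5000 * K ^ 9 * τ := by
  have hK := T.K1
  have hκ := T.κ1
  have hτ := T.τ0
  have hK0 : 0 ≤ K := by linarith
  have p : ∀ m ≤ 9, K ^ m * τ ≤ K ^ 9 * τ := fun m hm => mul_le_mul_of_nonneg_right (pw hK hm) hτ
  have p0 := p 0 (by norm_num)
  have p1 := p 1 (by norm_num)
  have p2 := p 2 (by norm_num)
  have p3 := p 3 (by norm_num)
  rw [pow_one] at p1
  rw [pow_zero, one_mul] at p0
  have p9 : 0 ≤ K ^ 9 * τ := by positivity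
  have k1 : |t 1 * r 0| ≤ K ^ 2 * τ := (am (T.bt 1) r0).trans (le_of_eq (by ring))
  have k0 : τ ≤ K ^ 2 * τ := by
    have := mul_le_mul_of_nonneg_right (one_le_pow₀ hK (n := 2)) hτ
    linarith
  have q2 : |r 2| ≤ 2 * (K ^ 2 * τ) := by
    have e : r 2 = (t' 2 - t 2) - t 1 * r 0 := by rw [T.e2]; ring
    rw [e]
    have := abs_sub (t' 2 - t 2) (t 1 * r 0)
    linarith
  refine ⟨by linarith, ?_⟩
  have e : r 3 = (t' 3 - t 3) + 2 * (κ * (t 1 * r 2)) + κ * (t 1 * (t 1 * r 0)) := by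
    rw [T.e3]; ring
  rw [e]
  have a1 := abs_add_le ((t' 3 - t 3) + 2 * (κ * (t 1 * r 2))) (κ * (t 1 * (t 1 * r 0)))
  have a2 := abs_add_le (t' 3 - t 3) (2 * (κ * (t 1 * r 2)))
  have a3 : |2 * (κ * (t 1 * r 2))| = 2 * |κ * (t 1 * r 2)| := by rw [abs_mul, abs_two]
  have k2 : |κ * (t 1 * r 2)| ≤ 2 * (K ^ 3 * τ) :=
    (am hκ (am (T.bt 1) q2)).trans (le_of_eq (by ring))
  have k3 : |κ * (t 1 * (t 1 * r 0))| ≤ K ^ 3 * τ :=
    (am hκ (am (T.bt 1) (am (T.bt 1) r0))).trans (le_of_eq (by ring))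
  linarith

end Tri

end Crest.Agent.R136.Qe861
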