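import Crest.Agent.R136.Qe2_861
import Crest.Agent.R136.W1_938

/-!
# R136, thin branch, `quad` (helper861), part 3: the rows `QRow` and the evolution `QEvo2` over the
configuration `W.cfg E`
-/

set_option autoImplicit false
set_option linter.unusedVariables false
set_option linter.unusedSectionVars false

open Filter Topology

namespace Crest.Agent.R136.Qe861

open Finset
open Crest.Agent.R138.Ex926 (Base U)
open Crest.Agent.R136.Gf356 Crest.Agent.R136.Qg926 Crest.Agent.R136.NetW191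
open Crest.Agent.R136.EvW938 Crest.Agent.R136.Net191
open Crest.Agent.R136.QdH887 (bv)
open Crest.Agent.R136.Qd329 (QRow QEvo2)

section

variable {Dr : Finset (Fin 18)} {W : Wnd 18 fun _ => ℕ × ℝ} {κ : ℕ → ℝ} {u : ℕ → Fin 18 → ℝ}
  {f : ∀ n : ℕ, ℕ × ℝ → FW} {mm x : ℝ} {E : ∀ n : ℕ, Finset (ℕ × ℝ)}

/-- tiny dropped slots, good `n` -/
structure Gd (Dr : Finset (Fin 18)) (W : Wnd 18 fun _ => ℕ × ℝ) (κ : ℕ → ℝ)
    (u : ℕ → Fin 18 → ℝ) (f : ∀ n : ℕ, ℕ × ℝ → FW) (x : ℝ) (E : ∀ n : ℕ, Finset (ℕ × ℝ))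
    (n : ℕ) : Prop where
  gd : W.Good n
  sub : E n ⊆ W.Cl n
  eq : W.cfg E n = W.cfg0 n (E n)
  dr : ∀ a ∈ W.Cl n, ∀ b ∈ W.Cl n, ∀ s ∈ Dr, |tc W κ u f n a b s| ≤ W.K0 * W.B'.d n ^ x

namespace QIn

variable (g : QIn Dr W κ u f mm x)

include g

theorem ev_gd (hE : EvG W E) : ∀ᶠ n in (U : Filter ℕ), Gd Dr W κ u f x E n := by
  filter_upwards [hE, g.tc_dr x] with n h1 h2
  exact ⟨h1.1, h1.2.1, h1.2.2, h2 h1.1⟩

theorem K1 : 1 ≤ W.K0 := g.ww.ok.K0_one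

theorem px (n : ℕ) : W.B'.d n ^ x ≤ 1 := by
  rw [← Real.rpow_zero (W.B'.d n)]
  exact rpow_anti W.B' n g.x0.le

theorem tc_all {n : ℕ} (G : Gd Dr W κ u f x E n) {a b : ℕ × ℝ} (ha : a ∈ W.Cl n)
    (hb : b ∈ W.Cl n) (s : Fin 18) : |tc W κ u f n a b s| ≤ W.K0 := by
  by_cases hs : s ∈ Dr
  · refine (G.dr a ha b hb s hs).trans ?_
    have := mul_le_mul_of_nonneg_left (g.px n) (by linarith [g.K1] : 0 ≤ W.K0)
    linarith
  · exact g.tc_bd G.gd ha hb hs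

/-- three incidences -/
theorem tri {n : ℕ} (G : Gd Dr W κ u f x E n) {a b c : ℕ × ℝ} (ha : a ∈ W.Cl n)
    (hb : b ∈ W.Cl n) (hc : c ∈ W.Cl n) {τ : ℝ} (hτ : W.B'.d n ^ x ≤ τ) :
    Tri (κ n) W.K0 τ (tc W κ u f n a b) (tc W κ u f n b c) (tc W κ u f n a c) where
  κ1 := g.ww.hκ n
  K1 := g.K1
  τ0 := (Real.rpow_pos_of_pos (W.B'.pos n) _).le.trans hτ
  fr := g.tc_mul n a b c
  fl := g.tc_tr n a b c
  bt := g.tc_all G ha hb
  br := g.tc_all G hb hc
  bt' := g.tc_all G ha hc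
  dr := fun s hs => (G.dr a ha b hb s (g.lo s hs)).trans
    (mul_le_mul_of_nonneg_left hτ (by linarith [g.K1]))

/-- coordinates of the box -/
theorem rel_tc {n : ℕ} (G : Gd Dr W κ u f x E n) {k l l' : ℕ} (h1 : (l, k) ∈ (W.cfg0 n (E n)).I)
    (h2 : (l', k) ∈ (W.cfg0 n (E n)).I) {s : Fin 18} (h0 : s ≠ 0) (hs : s ∉ Dr) :
    (W.cfg0 n (E n)).rel k l l' s = tc W κ u f n (W.rep n l k) (W.rep n l' k) s := by
  obtain ⟨a1, a2, a3⟩ := Wnd.rep_of_mem G.sub h1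
  obtain ⟨b1, b2, b3⟩ := Wnd.rep_of_mem G.sub h2
  rw [g.tc_crd G.gd a1 b1 hs]
  exact g.ww.rel_eq l l' k (by rw [g.eS]; simpa using h0)

theorem rel_bd {n : ℕ} (G : Gd Dr W κ u f x E n) {k l l' : ℕ} (h1 : (l, k) ∈ (W.cfg0 n (E n)).I)
    (h2 : (l', k) ∈ (W.cfg0 n (E n)).I) (s : Fin 18) :
    |(W.cfg0 n (E n)).rel k l l' s| ≤ W.K0 := by
  have := g.ww.rel_le G.gd G.sub h1 h2 s
  rwa [g.ekap, div_one] at this

theorem same_height {n : ℕ} (G : Gd Dr W κ u f x E n) {k l l' : ℕ}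
    (h1 : (l, k) ∈ (W.cfg0 n (E n)).I) (h2 : (l', k) ∈ (W.cfg0 n (E n)).I) :
    |tc W κ u f n (W.rep n l k) (W.rep n l' k) 0| ≤ W.K0 * W.B'.d n ^ x := by
  obtain ⟨a1, a2, a3⟩ := Wnd.rep_of_mem G.sub h1
  obtain ⟨b1, b2, b3⟩ := Wnd.rep_of_mem G.sub h2
  exact g.tc_lev G.gd a1 b1 (a3.trans b3.symm)

theorem qs_bd {n : ℕ} (G : Gd Dr W κ u f x E n) {k l : ℕ} (h : (l, k) ∈ (W.cfg0 n (E n)).I) :
    |qs W κ u f n k l| ≤ 3 * W.K0 ^ 2 ∧ |qZ W κ u f n k l| ≤ 3 * W.K0 ^ 2 := by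
  obtain ⟨a1, a2, a3⟩ := Wnd.rep_of_mem G.sub h
  have hb := g.tc_all G G.gd.s0 a1
  have hK := g.K1
  have hK2 : W.K0 ≤ W.K0 ^ 2 := by nlinarith
  have key : ∀ p q r : ℝ, |p| ≤ W.K0 → |q| ≤ W.K0 → |r| ≤ W.K0 →
      |p + 2 * κ n * q * r| ≤ 3 * W.K0 ^ 2 := by
    intro p q r hp hq hr
    have e : p + 2 * κ n * q * r = p + 2 * (κ n * (q * r)) := by ring
    rw [e]
    have a1 := abs_add_le p (2 * (κ n * (q * r)))
    have a2 : |2 * (κ n * (q * r))| = 2 * |κ n * (q * r)| := by rw [abs_mul, abs_two]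
    have a3 : |κ n * (q * r)| ≤ W.K0 ^ 2 :=
      (am (g.ww.hκ n) (am hq hr)).trans (le_of_eq (by ring))
    linarith
  exact ⟨key _ _ _ (hb _) (hb _) (hb _), key _ _ _ (hb _) (hb _) (hb _)⟩

/-- **the rows** -/
theorem qrow (hE : EvG W E) :
    QRow W.B' (W.cfg E) x (3 * W.K0 ^ 2) 2 0 (bv x {2, 3}) (bv x {2, 3, 14, 15})
      (bv x {1, 11, 12}) (bv x {2, 3, 14, 15, 16}) (bv x {1, 11, 12, 16})
      (fun y => Pi.single 1 y)
      (fun n k l => tq W κ u f n k l 2) (fun n k l => tq W κ u f n k l 3)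
      (fun n k l => tq W κ u f n k l 1) (qs W κ u f) (fun n k l => tq W κ u f n k l 14)
      (fun n k l => tq W κ u f n k l 11) (qZ W κ u f) (fun n k l => tq W κ u f n k l 16) κ := by
  have hK := g.K1
  have hK2 : W.K0 ≤ W.K0 ^ 2 := by nlinarith
  have hK3 : 1 ≤ W.K0 ^ 2 := one_le_pow₀ hK
  have hgd := g.ev_gd hE
  -- constants
  have hc : ∀ ε : ℝ, 0 < ε → ∀ᶠ n in (U : Filter ℕ), 5000 * W.K0 ^ 9 ≤ W.B'.d n ^ (-ε) :=
    fun ε hε => ev_const_le W.B' hε _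
  have ab : ∀ n (ε C : ℝ), 0 < ε → C ≤ 5000 * W.K0 ^ 9 → 5000 * W.K0 ^ 9 ≤ W.B'.d n ^ (-ε) →
      C * W.B'.d n ^ (x - ε) ≤ W.B'.d n ^ (x - 2 * ε) := by
    intro n ε C hε hC h
    calc C * W.B'.d n ^ (x - ε) ≤ W.B'.d n ^ (-ε) * W.B'.d n ^ (x - ε) :=
          mul_le_mul_of_nonneg_right (hC.trans h) (Real.rpow_pos_of_pos (W.B'.pos n) _).le
      _ = W.B'.d n ^ (-ε + (x - ε)) := (rpow_add' _ _ _ _).symm
      _ = _ := by congr 1; ring
  have c7 : 471 * W.K0 ^ 7 ≤ 5000 * W.K0 ^ 9 := by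
    have := pw hK (show 7 ≤ 9 by norm_num)
    have : 0 ≤ W.K0 ^ 9 := by positivity
    linarith
  have c8 : 2400 * W.K0 ^ 8 ≤ 5000 * W.K0 ^ 9 := by
    have := pw hK (show 8 ≤ 9 by norm_num)
    have : 0 ≤ W.K0 ^ 9 := by positivity
    linarith
  have c8' : 1500 * W.K0 ^ 8 ≤ 5000 * W.K0 ^ 9 := by
    have : 0 ≤ W.K0 ^ 8 := by positivity
    linarith
  have c1 : W.K0 ≤ 5000 * W.K0 ^ 9 := by
    have := pw hK (show 1 ≤ 9 by norm_num)
    rw [pow_one] at this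
    have : 0 ≤ W.K0 ^ 9 := by positivity
    linarith
  have hτ : ∀ n (ε : ℝ), 0 < ε → W.B'.d n ^ x ≤ W.B'.d n ^ (x - ε) := fun n ε hε =>
    rpow_anti W.B' n (by linarith)
  have hτK : ∀ n (ε y : ℝ), |y| ≤ W.B'.d n ^ (x - ε) → |y| ≤ W.K0 * W.B'.d n ^ (x - ε) := by
    intro n ε y h
    refine h.trans ?_
    have := Real.rpow_pos_of_pos (W.B'.pos n) (x - ε)
    nlinarith
  -- unpacking a box
  have box : ∀ n (G : Gd Dr W κ u f x E n) (Q : Finset (Fin 18)) (ε : ℝ) (k l l' : ℕ),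
      (l, k) ∈ (W.cfg0 n (E n)).I → (l', k) ∈ (W.cfg0 n (E n)).I →
      (W.cfg0 n (E n)).loose (bv x Q) ε k l l' → ∀ s ∈ Q, s ≠ 0 → s ∉ Dr →
      |tc W κ u f n (W.rep n l k) (W.rep n l' k) s| ≤ W.K0 * W.B'.d n ^ (x - ε) := by
    intro n G Q ε k l l' h1 h2 hlo s hsQ h0 hs
    have h3 := hlo s
    rw [g.rel_tc G h1 h2 h0 hs] at h3
    have e : bv x Q s = x := by unfold bv; rw [if_pos hsQ]
    rw [e] at h3
    exact hτK n ε _ h3
  have r0' : ∀ n (G : Gd Dr W κ u f x E n) (ε : ℝ) (k l l' : ℕ), 0 < ε →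
      (l, k) ∈ (W.cfg0 n (E n)).I → (l', k) ∈ (W.cfg0 n (E n)).I →
      |tc W κ u f n (W.rep n l k) (W.rep n l' k) 0| ≤ W.K0 * W.B'.d n ^ (x - ε) := by
    intro n G ε k l l' hε h1 h2
    exact (g.same_height G h1 h2).trans
      (mul_le_mul_of_nonneg_left (hτ n ε hε) (by linarith))
  have TT : ∀ n (G : Gd Dr W κ u f x E n) (τ : ℝ) (k l l' : ℕ), W.B'.d n ^ x ≤ τ →
      (l, k) ∈ (W.cfg0 n (E n)).I → (l', k) ∈ (W.cfg0 n (E n)).I →
      Tri (κ n) W.K0 τ (tq W κ u f n k l) (tc W κ u f n (W.rep n l k) (W.rep n l' k))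
        (tq W κ u f n k l') := by
    intro n G τ k l l' ht h1 h2
    exact g.tri G G.gd.s0 (Wnd.rep_of_mem G.sub h1).1 (Wnd.rep_of_mem G.sub h2).1 ht
  have n4 : ∀ s : Fin 18, 10 ≤ s → s ∉ Dr := fun s hs => g.ge10 hs
  refine
    { x0 := g.x0
      M1 := by linarith
      C1 := by norm_num
      kp1 := g.ww.hκ
      kpl := g.hk
      bd := ?_
      pcl := ?_
      vcl := ?_
      pPr := ?_
      vPr := ?_
      all := ?_
      acl := ?_
      ccl := ?_ }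
  · filter_upwards [hgd] with n G
    rw [G.eq]
    intro k l h
    obtain ⟨a1, a2, a3⟩ := Wnd.rep_of_mem G.sub h
    have hb := g.tc_all G G.gd.s0 a1
    have hM : ∀ s, |tq W κ u f n k l s| ≤ 3 * W.K0 ^ 2 := fun s => (hb s).trans (by linarith)
    obtain ⟨s1, s2⟩ := g.qs_bd G h
    exact ⟨hM 2, hM 3, hM 1, s1, hM 14, hM 11, s2⟩
  · intro ε hε
    filter_upwards [hgd, hc ε hε] with n G hn
    rw [G.eq]
    intro k l l' h1 h2 hlo
    have T := TT n G _ k l l' (hτ n ε hε) h1 h2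
    have hb := box n G _ ε k l l' h1 h2 hlo
    obtain ⟨p1, p2, p3, p4, -⟩ := T.pos (r0' n G ε k l l' hε h1 h2)
      (hb 2 (by decide) (by decide) (g.lt4 (by decide)))
      (hb 3 (by decide) (by decide) (g.lt4 (by decide)))
      (hb 14 (by decide) (by decide) (n4 _ (by decide)))
      (hb 15 (by decide) (by decide) (n4 _ (by decide)))
    refine ⟨?_, ?_, ?_, ?_⟩
    · rw [abs_sub_comm]; exact p1.trans (ab n ε _ hε le_rfl hn)
    · rw [abs_sub_comm]; exact p2.trans (ab n ε _ hε le_rfl hn)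
    · rw [abs_sub_comm]; exact p4.trans (ab n ε _ hε c8 hn)
    · rw [abs_sub_comm]; exact p3.trans (ab n ε _ hε c7 hn)
  · intro ε hε
    filter_upwards [hgd, hc ε hε] with n G hn
    rw [G.eq]
    intro k l l' h1 h2 hlo
    have T := TT n G _ k l l' (hτ n ε hε) h1 h2
    have hb := box n G _ ε k l l' h1 h2 hlo
    obtain ⟨p1, p2, p3, -⟩ := T.vel (r0' n G ε k l l' hε h1 h2)
      (hb 1 (by decide) (by decide) (g.lt4 (by decide)))
      (hb 11 (by decide) (by decide) (n4 _ (by decide)))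
      (hb 12 (by decide) (by decide) (n4 _ (by decide)))
    refine ⟨?_, ?_, ?_⟩
    · rw [abs_sub_comm]; exact p1.trans (ab n ε _ hε c1 hn)
    · rw [abs_sub_comm]; exact p2.trans (ab n ε _ hε c7 hn)
    · rw [abs_sub_comm]; exact p3.trans (ab n ε _ hε c8' hn)
  · intro ε hε
    filter_upwards [hgd, hc ε hε] with n G hn
    rw [G.eq]
    intro k l l' h1 h2 hlo
    have T := TT n G _ k l l' (hτ n ε hε) h1 h2
    have hb := box n G _ ε k l l' h1 h2 hlo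
    have p := T.posP (r0' n G ε k l l' hε h1 h2)
      (hb 2 (by decide) (by decide) (g.lt4 (by decide)))
      (hb 3 (by decide) (by decide) (g.lt4 (by decide)))
      (hb 14 (by decide) (by decide) (n4 _ (by decide)))
      (hb 15 (by decide) (by decide) (n4 _ (by decide)))
      (hb 16 (by decide) (by decide) (n4 _ (by decide)))
    rw [abs_sub_comm]
    exact p.trans (ab n ε _ hε le_rfl hn)
  · intro ε hε
    filter_upwards [hgd, hc ε hε] with n G hn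
    rw [G.eq]
    intro k l l' h1 h2 hlo
    have T := TT n G _ k l l' (hτ n ε hε) h1 h2
    have hb := box n G _ ε k l l' h1 h2 hlo
    have p := T.velP (r0' n G ε k l l' hε h1 h2)
      (hb 1 (by decide) (by decide) (g.lt4 (by decide)))
      (hb 11 (by decide) (by decide) (n4 _ (by decide)))
      (hb 12 (by decide) (by decide) (n4 _ (by decide)))
      (hb 16 (by decide) (by decide) (n4 _ (by decide)))
    rw [abs_sub_comm]
    exact p.trans (ab n ε _ hε le_rfl hn)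
  · intro ε hε
    filter_upwards [hgd, hc ε hε] with n G hn
    rw [G.eq]
    intro k l l' h1 h2 j
    have := g.rel_bd G h1 h2 j
    refine this.trans (c1.trans (hn.trans (le_of_eq ?_)))
    change W.B'.d n ^ (-ε) = W.B'.d n ^ ((0 : Fin 18 → ℝ) j - ε)
    rw [Pi.zero_apply, zero_sub]
  · intro ε hε
    filter_upwards [hgd, hc ε hε] with n G hn
    rw [G.eq]
    intro k l l' h1 h2 ha hb j
    have T := TT n G _ k l l' le_rfl h1 h2
    obtain ⟨q2, q3⟩ := T.boxA (g.same_height G h1 h2) ha hb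
    have fin : 5000 * W.K0 ^ 9 * W.B'.d n ^ x ≤ W.B'.d n ^ (x - ε) := by
      calc 5000 * W.K0 ^ 9 * W.B'.d n ^ x ≤ W.B'.d n ^ (-ε) * W.B'.d n ^ x :=
            mul_le_mul_of_nonneg_right hn (Real.rpow_pos_of_pos (W.B'.pos n) _).le
        _ = W.B'.d n ^ (-ε + x) := (rpow_add' _ _ _ _).symm
        _ = _ := by congr 1; ring
    change |(W.cfg0 n (E n)).rel k l l' j| ≤ W.B'.d n ^ (bv x {2, 3} j - ε)
    by_cases hj : j ∈ ({2, 3} : Finset (Fin 18))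
    · have e : bv x {2, 3} j = x := by unfold bv; rw [if_pos hj]
      rw [e]
      rcases Finset.mem_insert.1 hj with h | h
      · subst h
        rw [g.rel_tc G h1 h2 (by decide) (g.lt4 (by decide))]
        exact q2.trans fin
      · rw [Finset.mem_singleton] at h
        subst h
        rw [g.rel_tc G h1 h2 (by decide) (g.lt4 (by decide))]
        exact q3.trans fin
    · have e : bv x {2, 3} j = 0 := by unfold bv; rw [if_neg hj]
      rw [e, zero_sub]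
      exact (g.rel_bd G h1 h2 j).trans (c1.trans hn)
  · intro y hy0 hyx ε hε
    filter_upwards [hgd, hc ε hε] with n G hn
    rw [G.eq]
    intro k l l' h1 h2 hcc j
    have T := TT n G _ k l l' le_rfl h1 h2
    change |(W.cfg0 n (E n)).rel k l l' j| ≤
      W.B'.d n ^ ((Pi.single 1 y : Fin 18 → ℝ) j - ε)
    by_cases hj : j = 1
    · subst hj
      rw [Pi.single_eq_same, g.rel_tc G h1 h2 (by decide) (g.lt4 (by decide))]
      have e : tc W κ u f n (W.rep n l k) (W.rep n l' k) 1 =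
          tq W κ u f n k l' 1 - tq W κ u f n k l 1 := by
        rw [T.e1]; ring
      rw [e]
      exact hcc.trans (rpow_anti W.B' n (by linarith))
    · rw [Pi.single_eq_of_ne hj, zero_sub]
      exact (g.rel_bd G h1 h2 j).trans (c1.trans hn)

/-- heights in natural units -/
theorem own0 {n : ℕ} (G : Gd Dr W κ u f x E n) {l k k' : ℕ} (h1 : (l, k) ∈ (W.cfg0 n (E n)).I)
    (h2 : (l, k') ∈ (W.cfg0 n (E n)).I) :
    |tc W κ u f n (W.rep n l k) (W.rep n l k') 0 -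
      ((W.cfg0 n (E n)).z k' - (W.cfg0 n (E n)).z k)| ≤ 2 * (W.K0 * W.B'.d n ^ x) := by
  obtain ⟨a1, a2, a3⟩ := Wnd.rep_of_mem G.sub h1
  obtain ⟨b1, b2, b3⟩ := Wnd.rep_of_mem G.sub h2
  have h := g.ww.own_zero G.gd G.sub h1 h2 (t := x) (by rw [g.etop])
  rw [g.ekap, div_one] at h
  rw [g.tc_crd G.gd a1 b1 (g.lt4 (by decide))]
  unfold ownC at h
  linarith

/-- own motion in natural units -/
theorem ownS {n : ℕ} (G : Gd Dr W κ u f x E n) {a b : ℕ × ℝ} (ha : a ∈ W.Cl n) (hb : b ∈ W.Cl n)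
    (hl : W.lc n a = W.lc n b) {s : Fin 18} (h0 : s ≠ 0) :
    |tc W κ u f n a b s| ≤ W.K0 * W.B'.d n ^ x := by
  by_cases hs : s ∈ Dr
  · exact G.dr a ha b hb s hs
  · exact g.tc_own G.gd ha hb hl h0 hs

/-- **the evolution** -/
theorem qevo (hE : EvG W E) :
    QEvo2 W.B' (W.cfg E) x (3 * W.K0 ^ 2)
      (fun n k l => tq W κ u f n k l 2) (fun n k l => tq W κ u f n k l 3)
      (fun n k l => tq W κ u f n k l 1) (qs W κ u f) (fun n k l => tq W κ u f n k l 14)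
      (fun n k l => tq W κ u f n k l 11) (qZ W κ u f) (fun n k l => tq W κ u f n k l 16)
      (fun n k l => tq W κ u f n k l 13) κ := by
  have hK := g.K1
  have hK2 : W.K0 ≤ W.K0 ^ 2 := by nlinarith
  have hgd := g.ev_gd hE
  refine ⟨?_, ?_, ?_⟩
  · filter_upwards [hgd] with n G
    rw [G.eq]
    intro k hk k' hk'
    have hz : ∀ k ∈ (W.cfg0 n (E n)).Z, |(W.cfg0 n (E n)).z k| ≤ W.K0 := by
      intro k hk
      obtain ⟨y, hy, rfl⟩ := mem_image.1 hk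
      have r1 := W.zrep_spec (G.sub hy)
      have := g.ww.crd_le G.gd G.gd.s0 r1.1 0
      rw [g.ekap, div_one] at this
      change |W.crd n (W.s₀ n) (W.zrep n (W.zc n y)) W.kz| ≤ W.K0
      rwa [g.ww.kz]
    have := abs_sub ((W.cfg0 n (E n)).z k') ((W.cfg0 n (E n)).z k)
    have := hz k hk
    have := hz k' hk'
    linarith
  · filter_upwards [hgd] with n G
    rw [G.eq]
    intro k l h
    obtain ⟨a1, a2, a3⟩ := Wnd.rep_of_mem G.sub h
    have hb := g.tc_all G G.gd.s0 a1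
    exact ⟨(hb 16).trans (by linarith), (hb 13).trans (by linarith)⟩
  · intro ε hε
    filter_upwards [hgd, ev_const_le W.B' hε (5000 * W.K0 ^ 9)] with n G hn
    rw [G.eq]
    intro k k' l h1 h2
    obtain ⟨a1, a2, a3⟩ := Wnd.rep_of_mem G.sub h1
    obtain ⟨b1, b2, b3⟩ := Wnd.rep_of_mem G.sub h2
    have T := g.tri G G.gd.s0 a1 b1 (τ := W.B'.d n ^ x) le_rfl
    have fin : 5000 * W.K0 ^ 9 * W.B'.d n ^ x ≤ W.B'.d n ^ (x - ε) := by
      calc 5000 * W.K0 ^ 9 * W.B'.d n ^ x ≤ W.B'.d n ^ (-ε) * W.B'.d n ^ x :=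
            mul_le_mul_of_nonneg_right hn (Real.rpow_pos_of_pos (W.B'.pos n) _).le
        _ = W.B'.d n ^ (-ε + x) := (rpow_add' _ _ _ _).symm
        _ = _ := by congr 1; ring
    obtain ⟨e1, e2, e3, e4, e5, e6, e7, e8, e9⟩ := T.evo (g.own0 G h1 h2)
      (fun s hs => g.ownS G a1 b1 (a2.trans b2.symm) hs)
    exact ⟨e1.trans fin, e2.trans fin, e3.trans fin, e4.trans fin, e5.trans fin,
      e6.trans fin, e7.trans fin, e8.trans fin, e9.trans fin⟩

end QIn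

end

end Crest.Agent.R136.Qe861
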