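import Crest.Agent.R136.Qg2_926

/-!
# R136: counts in a window and pruning (helper926), part 3

* `Ok.card_lc_le`, `Ok.card_zc_le`, `Ok.card_zb_le`, `Ok.card_pairs_ge`, `Ok.mult_le`: numbers of fat
  lines, heights, `(height, net label)`, pairs, multiplicities in the class.
* `EOk` : sets of incidences with controlled multiplicities (`Ok.eok_class`, `Ok.eok_section`).
* `Pruned`, `EOk.exists_pruned` : simultaneous pruning with arbitrarily slow loss.
-/

set_option autoImplicit false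
set_option linter.unusedSectionVars false
set_option linter.unusedVariables false

open Filter Topology

namespace Crest.Agent.R136.Qg926

open Finset Crest.Agent.R138.Ex926 Crest.Agent.R136.Net191 Crest.Agent.R136.Gf356

variable {m : ℕ} {ι : ℕ → Type*} [∀ n, DecidableEq (ι n)]

/-! ### finite pruning -/

open Classical in
/-- **pruning** for a finite set of partitions, no light classes survive -/
theorem prune_fs {α : Type*} [DecidableEq α] (E : Finset α) (F : Finset (α → ℕ)) :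
    ∃ E' ⊆ E, (E.card : ℝ) ≤ 2 * E'.card ∧ ∀ f ∈ F, ∀ i ∈ E',
      (E.card : ℝ) ≤ 2 * F.card * (E.image f).card * (R138.Ex926.cls E' f i).card := by
  classical
  rcases F.eq_empty_or_nonempty with rfl | hF
  · exact ⟨E, Subset.refl _, by linarith [(Nat.cast_nonneg E.card : (0 : ℝ) ≤ E.card)],
      fun f hf => absurd hf (Finset.notMem_empty _)⟩
  rcases E.eq_empty_or_nonempty with rfl | hE
  · exact ⟨∅, Subset.refl _, by simp, fun f _ i hi => absurd hi (Finset.notMem_empty _)⟩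
  have hF0 : (0 : ℝ) < F.card := by exact_mod_cast hF.card_pos
  have hE0 : (0 : ℝ) < E.card := by exact_mod_cast hE.card_pos
  have him : ∀ f : α → ℕ, (0 : ℝ) < (E.image f).card := fun f => by
    exact_mod_cast (hE.image f).card_pos
  obtain ⟨E', hE', h1, h2⟩ := prune (J := F) E (fun _ => (1 : ℝ)) (fun _ _ => zero_le_one)
    (fun j => j.1) (fun j => E.card / (2 * F.card * (E.image j.1).card)) (fun j => by positivity) (by
      rw [sum_const, nsmul_eq_mul, mul_one]
      have : ∀ j : F, (E.card : ℝ) / (2 * F.card * (E.image j.1).card) *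
          ((E.image j.1).card : ℝ) = E.card / (2 * F.card) := fun j => by
        have := him j.1
        field_simp
      rw [Finset.sum_congr rfl fun j _ => this j, sum_const, nsmul_eq_mul, card_univ,
        Fintype.card_coe]
      apply le_of_eq
      field_simp)
  rw [sum_const, sum_const, nsmul_eq_mul, nsmul_eq_mul, mul_one, mul_one] at h1
  refine ⟨E', hE', by linarith, fun f hf i hi => ?_⟩
  have h3 := h2 ⟨f, hf⟩ i hi
  rw [sum_const, nsmul_eq_mul, mul_one] at h3
  have h4 := him f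
  rw [div_le_iff₀ (by positivity)] at h3
  linarith

namespace Wnd

variable {W : Wnd m ι}

/-- the label at a net point together with the height -/
noncomputable def zb (W : Wnd m ι) (n : ℕ) (b : Fin m → ℝ) (i : ι n) : ℕ :=
  Nat.pair (W.zc n i) (enc (W.I n) (W.lab n b i))

/-- constant of the number of labels in a box -/
noncomputable def N (W : Wnd m ι) (K : ℝ) : ℝ := cN W.M W.C K

theorem Ok.N_pos (h : W.Ok) {K : ℝ} (hK : 1 ≤ K) : 0 < W.N K := cN_pos W.M h.C0 hK

section Finite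

variable {n : ℕ}

open Classical in
/-- number of `c'`-labels in a finer box -/
theorem Ok.card_lab_box (h : W.Ok) (g : W.Good n) {c c' : Fin m → ℝ} (hc : c' ∈ Leg W.Mw W.R')
    (hcc : c' ≤ c) {K : ℝ} (hK : 1 ≤ K) {A : Finset (ι n)} (hA : A ⊆ W.I n) {i : ι n}
    (hi : i ∈ W.I n) (hn : ∀ j ∈ A, W.bx n c K i j) :
    ((A.image (W.lab n c')).card : ℝ) ≤ W.N K := by
  have h1 := h.cls.card_zlab_le le_rfl (g.leg c' hc) (g.leg c' hc) hK hi
  simp only [sub_self, sum_const_zero, neg_zero, Real.rpow_zero, mul_one] at h1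
  refine le_trans ?_ h1
  refine Nat.cast_le.2 (card_le_card (image_subset_image fun j hj => ?_))
  exact mem_filter.2 ⟨hA hj, bx_anti hcc (by linarith) (hn j hj)⟩

theorem card_enc_image {α : Type*} [DecidableEq α] {β : Type*} [DecidableEq β] (I : Finset β)
    (f : α → β) (A : Finset α) : (A.image fun i => enc I (f i)).card ≤ (A.image f).card := by
  have : (A.image fun i => enc I (f i)) = (A.image f).image (enc I) := by
    rw [image_image]; rfl
  rw [this]; exact card_image_le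

/-- number of fat lines in a box which resolves the line slots -/
theorem Ok.card_lc_box (h : W.Ok) (g : W.Good n) {K : ℝ} (hK : 1 ≤ K) {A : Finset (ι n)}
    (hA : A ⊆ W.I n) {i : ι n} (hi : i ∈ W.I n) (hn : ∀ j ∈ A, W.bx n W.top K i j) :
    ((A.image (W.lc n)).card : ℝ) ≤ W.N K := by
  have hle : cut W.S W.top 0 ≤ W.top := by
    conv_rhs => rw [← cut_self W.S W.top]
    exact cut_mono (fun _ _ => le_rfl) (fun s _ => h.top_leg.1.nonneg s)
  refine le_trans ?_ (h.card_lab_box g h.lin_leg hle hK hA hi hn)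
  exact_mod_cast card_enc_image _ _ _

/-- number of heights in a box which resolves the level slots -/
theorem Ok.card_zc_box (h : W.Ok) (g : W.Good n) {c : Fin m → ℝ} (hc : cut W.S 0 W.top ≤ c)
    {K : ℝ} (hK : 1 ≤ K) {A : Finset (ι n)}
    (hA : A ⊆ W.I n) {i : ι n} (hi : i ∈ W.I n) (hn : ∀ j ∈ A, W.bx n c K i j) :
    ((A.image (W.zc n)).card : ℝ) ≤ W.N K := by
  refine le_trans ?_ (h.card_lab_box g h.lev_leg hc hK hA hi hn)
  exact_mod_cast card_enc_image _ _ _

end Finite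

theorem Ok.lin_nonneg (h : W.Ok) : 0 ≤ cut W.S W.top 0 := fun s => h.lin_leg.1.nonneg s

theorem Ok.lev_nonneg (h : W.Ok) : 0 ≤ cut W.S 0 W.top := fun s => h.lev_leg.1.nonneg s

/-- number of labels in the class -/
theorem Ok.card_lab_le (h : W.Ok) {ε : ℝ} (hε : 0 < ε) : ∀ᶠ n in (U : Filter ℕ),
    ∀ c ∈ Leg W.Mw W.R', ∀ A ⊆ W.Cl n,
      ((A.image (W.lab n c)).card : ℝ) ≤ W.B'.d n ^ (W.lam c - ε) := by
  filter_upwards [h.cls.up_count W.R' hε] with n h1 c hc A hA
  refine le_trans ?_ (h1 c (h.leg hc) (fun s => hc.1.nonneg s) (norm_le_of_Leg h.R0 hc))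
  exact_mod_cast card_le_card (image_subset_image hA)

/-- number of fat lines -/
theorem Ok.card_lc_le (h : W.Ok) {ε : ℝ} (hε : 0 < ε) : ∀ᶠ n in (U : Filter ℕ),
    ∀ A ⊆ W.Cl n, ((A.image (W.lc n)).card : ℝ) ≤ W.B'.d n ^ (W.lam (cut W.S W.top 0) - ε) := by
  filter_upwards [h.card_lab_le hε] with n h1 A hA
  refine le_trans ?_ (h1 _ h.lin_leg A hA)
  exact_mod_cast card_enc_image _ _ _

/-- number of heights -/
theorem Ok.card_zc_le (h : W.Ok) {ε : ℝ} (hε : 0 < ε) : ∀ᶠ n in (U : Filter ℕ),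
    ∀ A ⊆ W.Cl n, ((A.image (W.zc n)).card : ℝ) ≤ W.B'.d n ^ (W.lam (cut W.S 0 W.top) - ε) := by
  filter_upwards [h.card_lab_le hε] with n h1 A hA
  refine le_trans ?_ (h1 _ h.lev_leg A hA)
  exact_mod_cast card_enc_image _ _ _

theorem zb_eq {n : ℕ} {b : Fin m → ℝ} {i j : ι n} (he : W.zb n b i = W.zb n b j) :
    W.zc n i = W.zc n j ∧ enc (W.I n) (W.lab n b i) = enc (W.I n) (W.lab n b j) := by
  unfold zb at he
  exact Nat.pair_eq_pair.1 he

/-- number of pairs (height, net label) -/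
theorem Ok.card_zb_le (h : W.Ok) {ε : ℝ} (hε : 0 < ε) : ∀ᶠ n in (U : Filter ℕ),
    ∀ b ∈ Leg W.Mw W.R', cut W.S 0 W.top ≤ b → ∀ A ⊆ W.Cl n,
      ((A.image (W.zb n b)).card : ℝ) ≤ W.B'.d n ^ (W.lam b - ε) := by
  have hN := h.N_pos h.K0_one
  filter_upwards [h.card_lab_le (ε := ε / 2) (by positivity), h.ev_good,
    ev_const_le W.B' hN (ε := ε / 2) (by positivity)] with n h1 g h2 b hb hcb A hA
  classical
  have hpos : ∀ t : ℝ, 0 < W.B'.d n ^ t := fun t => Real.rpow_pos_of_pos (W.B'.pos n) t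
  have key : ((A.image (W.zb n b)).card : ℝ) ≤ W.N W.K0 * (A.image (W.lab n b)).card := by
    refine card_image_le_mul A _ _ fun x hx => ?_
    set O := R138.Ex926.cls A (W.lab n b) x with hO
    have hOI : O ⊆ W.I n := (cls_subset _ _ _).trans (hA.trans g.clI)
    have h3 := h.card_zc_box g hcb h.K0_one hOI (g.clI (hA hx)) (fun j hj =>
      h.near_lab g hb (g.clI (hA hx)) (hOI hj) (mem_cls.1 hj).2.symm)
    refine le_trans ?_ h3
    have e1 : O.image (W.zb n b) =
        (O.image (W.zc n)).image fun k => Nat.pair k (enc (W.I n) (W.lab n b x)) := by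
      rw [image_image]
      refine image_congr fun j hj => ?_
      have : W.lab n b j = W.lab n b x := (mem_cls.1 (Finset.mem_coe.1 hj)).2
      simp only [zb, Function.comp, this]
    rw [e1]
    exact_mod_cast card_image_le
  calc ((A.image (W.zb n b)).card : ℝ) ≤ W.N W.K0 * (A.image (W.lab n b)).card := key
    _ ≤ W.B'.d n ^ (-(ε / 2)) * W.B'.d n ^ (W.lam b - ε / 2) := by
        exact mul_le_mul h2 (h1 b hb A hA) (Nat.cast_nonneg _) (hpos _).le
    _ = W.B'.d n ^ (W.lam b - ε) := by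
        rw [← Real.rpow_add (W.B'.pos n)]; congr 1; ring

/-- code of the pair (fat line, height) -/
noncomputable def pc (W : Wnd m ι) (n : ℕ) (i : ι n) : ℕ × ℕ := (W.lc n i, W.zc n i)

/-- number of pairs, from below -/
theorem Ok.card_pairs_ge (h : W.Ok) {ε : ℝ} (hε : 0 < ε) : ∀ᶠ n in (U : Filter ℕ),
    W.B'.d n ^ (W.lam W.top + ε) ≤ (((W.Cl n).image (W.pc n)).card : ℝ) := by
  have hN := h.N_pos h.K0_one
  filter_upwards [h.cls.low_count W.R' (ε := ε / 2) (by positivity), h.ev_good,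
    ev_const_le W.B' hN (ε := ε / 2) (by positivity)] with n h1 g h2
  classical
  have hpos : ∀ t : ℝ, 0 < W.B'.d n ^ t := fun t => Real.rpow_pos_of_pos (W.B'.pos n) t
  have key : (((W.Cl n).image (W.lab n W.top)).card : ℝ) ≤
      W.N W.K0 * ((W.Cl n).image (W.pc n)).card := by
    refine card_image_le_mul _ _ _ fun x hx => ?_
    set O := R138.Ex926.cls (W.Cl n) (W.pc n) x with hO
    have hOI : O ⊆ W.I n := (cls_subset _ _ _).trans g.clI
    refine h.card_lab_box g h.top_leg le_rfl h.K0_one hOI (g.clI hx) fun j hj => ?_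
    have h3 := (mem_cls.1 hj).2
    exact h.near_top g hx (mem_cls.1 hj).1 (congrArg Prod.fst h3).symm (congrArg Prod.snd h3).symm
  have h3 := h1 W.top (h.leg h.top_leg) (norm_le_of_Leg h.R0 h.top_leg)
  have h4 : W.B'.d n ^ (W.lam W.top + ε / 2) ≤
      W.B'.d n ^ (-(ε / 2)) * ((W.Cl n).image (W.pc n)).card :=
    (h3.trans key).trans (mul_le_mul_of_nonneg_right h2 (Nat.cast_nonneg _))
  have h5 := mul_le_mul_of_nonneg_left h4 (hpos (ε / 2)).le
  rw [← mul_assoc, ← Real.rpow_add (W.B'.pos n), ← Real.rpow_add (W.B'.pos n)] at h5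
  have e1 : ε / 2 + (W.lam W.top + ε / 2) = W.lam W.top + ε := by ring
  rw [e1] at h5
  simpa using h5

/-- multiplicity of a pair in the class -/
theorem Ok.mult_le (h : W.Ok) {ε : ℝ} (hε : 0 < ε) : ∀ᶠ n in (U : Filter ℕ),
    ∀ i ∈ W.Cl n, ((R138.Ex926.cls (W.Cl n) (W.pc n) i).card : ℝ) ≤
      W.T n * W.B'.d n ^ (-W.lam W.top) * W.B'.d n ^ (-ε) := by
  filter_upwards [h.cls.near_up h.K0_one W.R' hε, h.ev_good, h.cls.csub] with n h1 g h2 i hi
  classical
  have h3 := h1 W.top (h.leg h.top_leg) (norm_le_of_Leg h.R0 h.top_leg) i (g.clI hi)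
  have h4 : ((R138.Ex926.cls (W.Cl n) (W.pc n) i).card : ℝ) ≤ (((W.J n).filter fun j =>
      wbox W.B W.B' W.co W.X n W.top W.K0 i j).card : ℝ) := by
    refine Nat.cast_le.2 (card_le_card fun j hj => mem_filter.2 ⟨h2 (mem_cls.1 hj).1, ?_⟩)
    have h5 := (mem_cls.1 hj).2
    exact h.near_top g hi (mem_cls.1 hj).1 (congrArg Prod.fst h5).symm (congrArg Prod.snd h5).symm
  refine (h4.trans h3).trans (le_of_eq ?_)
  rw [mul_assoc, ← Real.rpow_add (W.B'.pos n)]
  congr 2; ring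

/-! ### sets of incidences -/

/-- a set of incidences with multiplicities `≤ Mu` and of (almost) full size -/
structure EOk (W : Wnd m ι) (E : ∀ n, Finset (ι n)) (Mu : ℕ → ℝ) : Prop where
  sub : ∀ᶠ n in (U : Filter ℕ), E n ⊆ W.Cl n
  pos : ∀ n, 0 < Mu n
  mult : ∀ ε : ℝ, 0 < ε → ∀ᶠ n in (U : Filter ℕ), ∀ i ∈ E n,
    ((R138.Ex926.cls (E n) (W.pc n) i).card : ℝ) ≤ Mu n * W.B'.d n ^ (-ε)
  big : ∀ ε : ℝ, 0 < ε → ∀ᶠ n in (U : Filter ℕ),
    Mu n * W.B'.d n ^ (W.lam W.top + ε) ≤ ((E n).card : ℝ)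

/-- the whole class -/
theorem Ok.eok_class (h : W.Ok) : EOk W W.Cl (fun n => W.T n * W.B'.d n ^ (-W.lam W.top)) where
  sub := Eventually.of_forall fun n => Subset.refl _
  pos := fun n => mul_pos (h.cls.T0 n) (Real.rpow_pos_of_pos (W.B'.pos n) _)
  mult := fun ε hε => h.mult_le hε
  big := fun ε hε => by
    filter_upwards [h.cls.big ε hε] with n h1
    refine le_trans (le_of_eq ?_) h1
    rw [mul_assoc, ← Real.rpow_add (W.B'.pos n)]
    congr 2; ring

/-- dense subsets -/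
theorem EOk.refine {E E₁ : ∀ n, Finset (ι n)} {Mu : ℕ → ℝ} (h : EOk W E Mu)
    (hsub : ∀ᶠ n in (U : Filter ℕ), E₁ n ⊆ E n)
    (hd : ∀ ε : ℝ, 0 < ε → ∀ᶠ n in (U : Filter ℕ),
      W.B'.d n ^ ε * ((E n).card : ℝ) ≤ ((E₁ n).card : ℝ)) : EOk W E₁ Mu where
  sub := by filter_upwards [h.sub, hsub] with n a b using b.trans a
  pos := h.pos
  mult := fun ε hε => by
    filter_upwards [h.mult ε hε, hsub] with n h1 h2 i hi
    refine le_trans ?_ (h1 i (h2 hi))
    exact_mod_cast card_le_card (cls_mono h2 _ _)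
  big := fun ε hε => by
    filter_upwards [h.big (ε / 2) (by positivity), hd (ε / 2) (by positivity)] with n h1 h2
    have hp := Real.rpow_pos_of_pos (W.B'.pos n) (ε / 2)
    refine le_trans ?_ ((mul_le_mul_of_nonneg_left h1 hp.le).trans h2)
    rw [mul_comm (W.B'.d n ^ (ε / 2)), mul_assoc, ← Real.rpow_add (W.B'.pos n)]
    apply le_of_eq
    congr 2; ring

/-- one incidence per pair -/
noncomputable def sec (W : Wnd m ι) (n : ℕ) : Finset (ι n) :=
  (W.Cl n).filter fun i => W.rep n (W.lc n i) (W.zc n i) = i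

theorem mem_sec {n : ℕ} {i : ι n} :
    i ∈ W.sec n ↔ i ∈ W.Cl n ∧ W.rep n (W.lc n i) (W.zc n i) = i := by
  unfold sec; exact mem_filter

theorem sec_inj {n : ℕ} {i j : ι n} (hi : i ∈ W.sec n) (hj : j ∈ W.sec n)
    (h : W.pc n i = W.pc n j) : i = j := by
  have h1 := (mem_sec.1 hi).2
  have h2 := (mem_sec.1 hj).2
  have e1 : W.lc n i = W.lc n j := congrArg Prod.fst h
  have e2 : W.zc n i = W.zc n j := congrArg Prod.snd h
  rw [← h1, ← h2, e1, e2]

theorem rep_mem_sec {n : ℕ} {i : ι n} (hi : i ∈ W.Cl n) :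
    W.rep n (W.lc n i) (W.zc n i) ∈ W.sec n := by
  obtain ⟨h1, h2, h3⟩ := W.rep_spec hi
  refine mem_sec.2 ⟨h1, ?_⟩
  rw [h2, h3]

theorem sec_image (n : ℕ) : (W.sec n).image (W.pc n) = (W.Cl n).image (W.pc n) := by
  ext p
  simp only [mem_image]
  constructor
  · rintro ⟨i, hi, rfl⟩; exact ⟨i, (mem_sec.1 hi).1, rfl⟩
  · rintro ⟨i, hi, rfl⟩
    obtain ⟨h1, h2, h3⟩ := W.rep_spec hi
    refine ⟨_, rep_mem_sec hi, ?_⟩
    unfold pc
    rw [h2, h3]

theorem card_sec (n : ℕ) : (W.sec n).card = ((W.Cl n).image (W.pc n)).card := by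
  rw [← sec_image, card_image_of_injOn]
  intro i hi j hj he
  exact sec_inj hi hj he

theorem Ok.eok_section (h : W.Ok) : EOk W W.sec (fun _ => 1) where
  sub := Eventually.of_forall fun n => filter_subset _ _
  pos := fun n => one_pos
  mult := fun ε hε => by
    filter_upwards [] with n i hi
    have h1 : (R138.Ex926.cls (W.sec n) (W.pc n) i).card ≤ 1 := by
      rw [card_le_one]
      intro a ha b hb
      obtain ⟨a1, a2⟩ := mem_cls.1 ha
      obtain ⟨b1, b2⟩ := mem_cls.1 hb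
      exact sec_inj a1 b1 (a2.trans b2.symm)
    have h2 : (1 : ℝ) ≤ W.B'.d n ^ (-ε) :=
      Real.one_le_rpow_of_pos_of_le_one_of_nonpos (W.B'.pos n) (W.B'.lt n).le (by linarith)
    have h3 : ((R138.Ex926.cls (W.sec n) (W.pc n) i).card : ℝ) ≤ 1 := by exact_mod_cast h1
    linarith
  big := fun ε hε => by
    filter_upwards [h.card_pairs_ge hε] with n h1
    rw [card_sec, one_mul]
    exact h1

/-! ### simultaneous pruning -/

/-- **pruned sets**: all relevant classes of `E' n` have at least the average size divided by the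
slowly growing `g n` -/
structure Pruned (W : Wnd m ι) (E E' : ∀ n, Finset (ι n)) (g : ℕ → ℝ)
    (ex : ℕ → ∀ n, ι n → ℕ) : Prop where
  sub : ∀ n, E' n ⊆ E n
  half : ∀ n, ((E n).card : ℝ) ≤ 2 * (E' n).card
  g1 : ∀ n, 1 ≤ g n
  gsub : ∀ ε : ℝ, 0 < ε → ∀ᶠ n in (U : Filter ℕ), g n ≤ W.B'.d n ^ (-ε)
  lines : ∀ n, ∀ i ∈ E' n, ((E n).card : ℝ) ≤
    g n * ((E n).image (W.lc n)).card * (R138.Ex926.cls (E' n) (W.lc n) i).card
  slices : ∀ n, ∀ i ∈ E' n, ((E n).card : ℝ) ≤
    g n * ((E n).image (W.zc n)).card * (R138.Ex926.cls (E' n) (W.zc n) i).card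
  extra : ∀ j, ∀ᶠ n in (U : Filter ℕ), ∀ i ∈ E' n, ((E n).card : ℝ) ≤
    g n * ((E n).image (ex j n)).card * (R138.Ex926.cls (E' n) (ex j n) i).card
  net : ∀ η : ℝ, 0 < η → ∀ᶠ n in (U : Filter ℕ), ∀ q ∈ Leg W.Mw W.R', ∃ b ∈ Leg W.Mw W.R',
    q ≤ b ∧ ‖b - q‖ ≤ η ∧ ∀ i ∈ E' n, ((E n).card : ℝ) ≤
      g n * ((E n).image (W.zb n b)).card * (R138.Ex926.cls (E' n) (W.zb n b) i).card

/-- **pruning with arbitrarily slow loss** -/
theorem exists_pruned (W : Wnd m ι) (hR : 0 ≤ W.R') (E : ∀ n, Finset (ι n))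
    (ex : ℕ → ∀ n, ι n → ℕ) {g₀ : ℕ → ℝ} (hg₀ : Tendsto g₀ U atTop) :
    ∃ (E' : ∀ n, Finset (ι n)) (g : ℕ → ℝ), Pruned W E E' g ex ∧
      ∀ᶠ n in (U : Filter ℕ), g n ≤ g₀ n := by
  classical
  have hnet := fun l : ℕ => snet_Leg W.Mw hR (1 / ((l : ℝ) + 1)) (by positivity)
  choose G hG1 hG2 using hnet
  set F : ℕ → ∀ n, Finset (ι n → ℕ) := fun l n => {W.lc n, W.zc n} ∪ (G l).image (fun b => W.zb n b) ∪
    (range (l + 1)).image (fun j => ex j n) with hF
  set Nl : ℕ → ℝ := fun l => 2 * (2 + ((G l).card : ℝ) + ((l : ℝ) + 1)) with hNl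
  have hFc : ∀ l n, 2 * ((F l n).card : ℝ) ≤ Nl l := by
    intro l n
    have h1 : (F l n).card ≤ 2 + (G l).card + (l + 1) := by
      refine (card_union_le _ _).trans ?_
      have a1 : ((range (l + 1)).image (fun j => ex j n)).card ≤ l + 1 := by
        refine card_image_le.trans ?_
        simp
      have a2 : (({W.lc n, W.zc n} ∪ (G l).image (fun b => W.zb n b) :
          Finset (ι n → ℕ))).card ≤ 2 + (G l).card :=
        (card_union_le _ _).trans (Nat.add_le_add card_le_two card_image_le)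
      omega
    have h2 : ((F l n).card : ℝ) ≤ 2 + (G l).card + (l + 1) := by exact_mod_cast h1
    simp only [hNl]
    linarith
  have hNl1 : ∀ l, 1 ≤ Nl l := fun l => by
    simp only [hNl]
    have : (0 : ℝ) ≤ (G l).card := Nat.cast_nonneg _
    have : (0 : ℝ) ≤ l := Nat.cast_nonneg _
    linarith
  obtain ⟨k, hk, hk2⟩ := exists_diag (fun l n => Nl l ≤ g₀ n ∧ Nl l ≤ W.B'.L n) (fun l =>
    (hg₀.eventually_ge_atTop (Nl l)).and (W.B'.ev_L_ge (Nl l)))
  choose P hP1 hP2 hP3 using fun n : ℕ => prune_fs (E n) (F (k n) n)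
  have hbase : ∀ n, ∀ f ∈ F (k n) n, ∀ i ∈ P n, ((E n).card : ℝ) ≤
      Nl (k n) * ((E n).image f).card * (R138.Ex926.cls (P n) f i).card := by
    intro n f hf i hi
    refine (hP3 n f hf i hi).trans ?_
    have h1 : (0 : ℝ) ≤ ((E n).image f).card := Nat.cast_nonneg _
    have h2 : (0 : ℝ) ≤ (R138.Ex926.cls (P n) f i).card := Nat.cast_nonneg _
    exact mul_le_mul_of_nonneg_right (mul_le_mul_of_nonneg_right (hFc (k n) n) h1) h2
  refine ⟨P, fun n => Nl (k n),
    { sub := hP1, half := hP2, g1 := fun n => hNl1 _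
      gsub := fun ε hε => ?_
      lines := fun n i hi => hbase n _ (by simp [hF]) i hi
      slices := fun n i hi => hbase n _ (by simp [hF]) i hi
      extra := fun j => ?_
      net := fun η hη => ?_ }, hk2.mono fun n hn => (hn _ le_rfl).1⟩
  · filter_upwards [hk2, (Base.Sub.L (B := W.B')).ev_le hε] with n h1 h2
    refine (h1 _ le_rfl).2.trans ?_
    rw [← W.B'.exp_eq, ← Real.log_le_iff_le_exp h2.1]
    exact h2.2
  · filter_upwards [hk.eventually_ge_atTop j] with n hn i hi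
    refine hbase n _ ?_ i hi
    simp only [hF, mem_union, mem_image, mem_range]
    exact Or.inr ⟨j, by omega, rfl⟩
  · obtain ⟨N, hN⟩ := exists_nat_gt (1 / η)
    filter_upwards [hk.eventually_ge_atTop N] with n hn q hq
    obtain ⟨a, ha, b, hb, haq, hqb, hab⟩ := hG2 (k n) q hq
    refine ⟨b, hG1 _ b hb, hqb, ?_, fun i hi => hbase n _ ?_ i hi⟩
    · have h1 : ‖b - q‖ ≤ ‖b - a‖ := by
        refine (pi_norm_le_iff_of_nonneg (norm_nonneg _)).2 fun s => ?_
        have h2 := norm_le_pi_norm (b - a) s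
        rw [Real.norm_eq_abs, Pi.sub_apply] at h2 ⊢
        have h3 := haq s
        have h4 := hqb s
        rw [abs_of_nonneg (by linarith)] at h2 ⊢
        linarith
      refine (h1.trans hab).trans ?_
      have h3 : (N : ℝ) ≤ k n := by exact_mod_cast hn
      rw [div_le_iff₀ (by positivity)]
      rw [div_lt_iff₀ hη] at hN
      nlinarith
    · simp only [hF, mem_union, mem_image]
      exact Or.inl (Or.inr ⟨b, hb, rfl⟩)

end Wnd

end Crest.Agent.R136.Qg926
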