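import Crest.Agent.R136.Qg4_480

/-!
# R136: raw twist of windows (helper480), part 2: choice of the good incidences

* `ZWin.exists_tw` : strict drop of the profile in the flags `F` at the blow-up points gives a
  choice of the good incidences such that all classes inside have raw twist.
* `exists_wnd_tw`, `ZWin.exists_wnd_tw` : windows with raw twist from a profile and a tangent.
-/

set_option autoImplicit false
set_option linter.unusedSectionVars false
set_option linter.unusedVariables false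

open Filter Topology

namespace Crest.Agent.R136.Qg4480

open Finset Crest.Agent.R138.Ex926 Crest.Agent.R136.Net191 Crest.Agent.R136.Gf356
open Crest.Agent.R136.Qg926

variable {m : ℕ} {ι : ℕ → Type*} [∀ n, DecidableEq (ι n)]

theorem norm_cut_le (S : Finset (Fin m)) (p r : Fin m → ℝ) {t : ℝ} (ht : 0 ≤ t)
    (hr : ∀ k, |r k| ≤ t) : ‖cut S p r‖ ≤ ‖p‖ + t := by
  refine (pi_norm_le_iff_of_nonneg (by positivity)).2 fun k => ?_
  rw [Real.norm_eq_abs]
  have h1 := norm_le_pi_norm p k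
  rw [Real.norm_eq_abs] at h1
  unfold cut
  split_ifs
  · linarith [hr k, norm_nonneg p]
  · linarith

theorem abs_ind_le (F : Finset (Fin m)) {e e0 : ℝ} (he : 0 ≤ e) (hee : e ≤ e0) (k : Fin m) :
    |ind F e k| ≤ e0 := by
  unfold ind
  split_ifs
  · rwa [abs_of_nonneg he]
  · rw [abs_zero]; linarith

theorem ind_nonneg (F : Finset (Fin m)) {e : ℝ} (he : 0 ≤ e) : 0 ≤ ind F e := fun k => by
  show 0 ≤ ind F e k
  unfold ind
  split_ifs
  · exact he
  · exact le_rfl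

theorem cut_ind_le {S F : Finset (Fin m)} {top : Fin m → ℝ} {e e0 : ℝ} (hee : e ≤ e0)
    (htop : ∀ k, 0 ≤ top k) (heF : ∀ k ∈ F, e0 ≤ top k) : cut S top (ind F e) ≤ top := by
  intro k
  unfold cut ind
  split_ifs with h1 h2
  · exact hee.trans (heF k h2)
  · exact htop k
  · exact le_rfl

section

variable {B B₁ : Base} {I J : ∀ n, Finset (ι n)} {co : ∀ n, ι n → ι n → Fin m → ℝ}
  {M : Mons m} {C : ℝ} {X : ℕ → Fin m → ℝ} {w : ℕ → ℝ} {P : Set (Fin m → ℝ)} {T : ℕ → ℝ}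
  {ν : (Fin m → ℝ) → ℝ}

open Classical in
/-- the finite facts at the stage `l` -/
def Stage (B B₁ : Base) (I J : ∀ n, Finset (ι n)) (co : ∀ n, ι n → ι n → Fin m → ℝ)
    (M : Mons m) (C : ℝ) (X : ℕ → Fin m → ℝ) (w : ℕ → ℝ) (P : Set (Fin m → ℝ)) (T : ℕ → ℝ)
    (ν : (Fin m → ℝ) → ℝ) (x : Fin m → ℝ) (h : ℝ) (S : Finset (Fin m)) (top : Fin m → ℝ)
    (Fs : Finset (Finset (Fin m))) (e : ℕ → ℝ) (η : ℝ) (s : ℕ → ℕ → ℝ) (l n : ℕ) : Prop :=
  (∀ K ≤ l, ∀ a ≤ l, ((1 + h * B₁.L n) * ∏ i ∈ range K, (1 + |s i n|)) ^ a *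
    ((bad B B₁ I J co M C X w T ν x (x + h • cut S top 0) η n).card : ℝ) ≤ ((J n).card : ℝ)) ∧
  (∀ i ∈ I n, (((J n).filter fun j => wbox B B₁ co X n (x + h • top) (cK0 M C) i j).card : ℝ) ≤
    T n * B₁.d n ^ (-(ν (x + h • top) + η))) ∧
  (∀ F ∈ Fs, ∀ j ≤ l, x + h • cut S top (ind F (e j)) ∈ P → ∀ i ∈ I n,
    ((((J n).filter fun j' => wbox B B₁ co X n (x + h • cut S top (ind F (e j))) (cK0 M C)
      i j').image (zlab B I co M C X w n (x + h • top))).card : ℝ) ≤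
      B₁.d n ^ (-(ν (x + h • cut S top (ind F (e j))) - ν (x + h • top) + η))) ∧
  (∀ K ≤ l, ∀ a ≤ l, ((1 + h * B₁.L n) * ∏ i ∈ range K, (1 + |s i n|)) ^ a * cN M C (cK0 M C) ≤
    B₁.d n ^ (-η))

theorem ev_stage (hZ : ZWin B B₁ I J co M C X w P T ν) {x : Fin m → ℝ} {h : ℝ} (hpos : 0 < h)
    (S : Finset (Fin m)) (top : Fin m → ℝ) (Fs : Finset (Finset (Fin m))) {e0 : ℝ}
    (he0 : 0 < e0) (htop : ∀ k, 0 ≤ top k) (heF : ∀ F ∈ Fs, ∀ k ∈ F, e0 ≤ top k)
    (e : ℕ → ℝ) (he : ∀ j, 0 < e j ∧ e j ≤ e0)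
    (hx : x ∈ P) (hx1 : x + h • top ∈ P) (hx0 : x + h • cut S top 0 ∈ P) {η : ℝ} (hη : 0 < η)
    (s : ℕ → ℕ → ℝ) (hs : ∀ i, B₁.Sub (s i)) (l : ℕ) :
    ∀ᶠ n in (U : Filter ℕ), Stage B B₁ I J co M C X w P T ν x h S top Fs e η s l n := by
  have hK1 : 1 ≤ cK0 M C := cK0_one (hZ.chart 0).C0
  have hN : 0 < cN M C (cK0 M C) := cN_pos M (hZ.chart 0).C0 hK1
  set R : ℝ := ‖x‖ + h * (‖top‖ + e0) with hR
  have hnorm : ∀ r : Fin m → ℝ, (∀ k, |r k| ≤ e0) → ‖x + h • cut S top r‖ ≤ R := by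
    intro r hr
    refine (norm_add_le _ _).trans (add_le_add le_rfl ?_)
    rw [norm_smul, Real.norm_of_nonneg hpos.le]
    exact mul_le_mul_of_nonneg_left (norm_cut_le S top r he0.le hr) hpos.le
  have hnorm1 : ‖x + h • top‖ ≤ R := by
    refine (norm_add_le _ _).trans (add_le_add le_rfl ?_)
    rw [norm_smul, Real.norm_of_nonneg hpos.le]
    exact mul_le_mul_of_nonneg_left (by linarith) hpos.le
  have h1 : ∀ᶠ n in (U : Filter ℕ), ∀ K ∈ range (l + 1), ∀ a ∈ range (l + 1),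
      ((1 + h * B₁.L n) * ∏ i ∈ range K, (1 + |s i n|)) ^ a *
        ((bad B B₁ I J co M C X w T ν x (x + h • cut S top 0) η n).card : ℝ) ≤
        ((J n).card : ℝ) := by
    rw [Filter.eventually_all_finset]
    intro K _
    rw [Filter.eventually_all_finset]
    intro a _
    refine ev_bad hZ hx hx0 ?_ hη ?_
    rotate_left
    · filter_upwards [ev_loss B₁ hs hpos K a 1 one_pos (ε := η / 4) (by positivity)] with n hn
      rw [mul_one] at hn
      refine ⟨pow_nonneg (mul_nonneg ?_ ?_) _, hn⟩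
      · have := B₁.L_pos n
        positivity
      · linarith [one_le_prod_abs s K n]
    intro k
    simp only [Pi.add_apply, Pi.smul_apply, smul_eq_mul]
    have h2 : 0 ≤ cut S top 0 k := by
      unfold cut
      split_ifs
      · exact le_rfl
      · exact htop k
    have := mul_nonneg hpos.le h2
    linarith
  have h2 : ∀ᶠ n in (U : Filter ℕ), ∀ K ∈ range (l + 1), ∀ a ∈ range (l + 1),
      ((1 + h * B₁.L n) * ∏ i ∈ range K, (1 + |s i n|)) ^ a * cN M C (cK0 M C) ≤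
        B₁.d n ^ (-η) := by
    rw [Filter.eventually_all_finset]
    intro K _
    rw [Filter.eventually_all_finset]
    intro a _
    exact ev_loss B₁ hs hpos K a _ hN hη
  filter_upwards [h1, h2, hZ.near_up hK1 R hη, hZ.near_num hK1 R hη] with n h1 h2 h3 h4
  refine ⟨fun K hK a ha => h1 K (mem_range.2 (by omega)) a (mem_range.2 (by omega)),
    h3 _ hx1 hnorm1, fun F hF j hj hje i hi => ?_,
    fun K hK a ha => h2 K (mem_range.2 (by omega)) a (mem_range.2 (by omega))⟩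
  refine h4 _ hje (hnorm _ fun k => abs_ind_le F (he j).1.le (he j).2 k) _ hx1 hnorm1 ?_ i hi
  exact add_smul_mono hpos.le (cut_ind_le (he j).2 htop (heF F hF))

/-- **from the stages to the raw twist**, finite part -/
theorem near_of_stage (hZ : ZWin B B₁ I J co M C X w P T ν) (W : Wnd m ι) (hW : W.Ok)
    (hB : W.B = B) (hI : W.I = I) (hJ : W.J = J) (hco : W.co = co) (hM : W.M = M) (hC : W.C = C)
    {S : Finset (Fin m)} {top : Fin m → ℝ} (hS : W.S = S) (ht : W.top = top)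
    {n : ℕ} (g : W.Good n) (hClJ : W.Cl n ⊆ W.J n) {x : Fin m → ℝ} {h : ℝ} (hpos : 0 < h)
    (hX : W.X n = X n + w n • x) (hw : W.w n = w n * h) (hB' : W.B'.d n = B₁.d n ^ h)
    {Fs : Finset (Finset (Fin m))} {e : ℕ → ℝ} {η : ℝ}
    {s : ℕ → ℕ → ℝ} {l : ℕ} (hst : Stage B B₁ I J co M C X w P T ν x h S top Fs e η s l n)
    (hCl : ∀ i ∈ W.Cl n, i ∈ J n \ bad B B₁ I J co M C X w T ν x (x + h • cut S top 0) η n ∧
      W.Cl n = cls (J n) (zlab B I co M C X w n x) i)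
    {F : Finset (Fin m)} (hF : F ∈ Fs) (hFS : F ⊆ S) {j : ℕ} (hj : j ≤ l)
    (hjP : x + h • cut S top (ind F (e j)) ∈ P)
    (hdrop : 4 * η ≤ ν (x + h • cut S top 0) - ν (x + h • cut S top (ind F (e j))))
    {ε : ℝ} (hkap : ∀ k ∈ F, W.kap k * W.B'.d n ^ ε ≤ W.K0 * W.B'.d n ^ (e j))
    {K a : ℕ} (hK : K ≤ l) (ha : a ≤ l) {i : ι n} (hi : i ∈ W.Cl n) :
    lossP W.B'.L s K n ^ a * (((nearF W F n ε i).image (W.zc n)).card *
      ((T n * B₁.d n ^ (-(ν (x + h • top) + η))) * ((W.Cl n).image (W.lc n)).card)) ≤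
      ((W.Cl n).card : ℝ) := by
  classical
  subst hB hI hJ hco hM hC
  obtain ⟨-, h2, h3, h4⟩ := hst
  have hK1 : 1 ≤ cK0 W.M W.C := cK0_one (hZ.chart 0).C0
  have hN : 0 < cN W.M W.C (cK0 W.M W.C) := cN_pos W.M (hZ.chart 0).C0 hK1
  have hpos1 : ∀ t : ℝ, 0 < B₁.d n ^ t := fun t => Real.rpow_pos_of_pos (B₁.pos n) t
  have hTn := hZ.T0 n
  have hlab : ∀ c, W.lab n c = zlab W.B W.I W.co W.M W.C X w n (x + h • c) := by
    intro c
    show nlab W.B W.I W.co W.M W.C n (W.X n + W.w n • c) =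
      nlab W.B W.I W.co W.M W.C n (X n + w n • (x + h • c))
    rw [hX, hw, zoom_zoom]
  have hbx : ∀ c (K : ℝ) i j, W.bx n c K i j ↔ wbox W.B B₁ W.co X n (x + h • c) K i j := by
    intro c K i j
    rw [← hZ.near_iff]
    unfold Wnd.bx
    rw [← hW.cls.near_iff, hX, hw, zoom_zoom]
  -- the near incidences
  set A := nearF W F n ε i with hA
  have hAsub : ∀ j' ∈ A, j' ∈ W.Cl n ∧ W.lc n j' = W.lc n i ∧
      ∀ k ∈ F, |W.crd n i j' k| ≤ W.B'.d n ^ ε := fun j' hj' => by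
    have := mem_filter.1 hj'
    exact ⟨this.1, this.2.1, this.2.2⟩
  have hbe : ∀ j' ∈ A, wbox W.B B₁ W.co X n (x + h • cut S top (ind F (e j))) (cK0 W.M W.C)
      i j' := by
    intro j' hj'
    obtain ⟨a1, a2, a3⟩ := hAsub j' hj'
    rw [← hbx]
    have a4 := hW.near_lc g hi a1 a2.symm
    intro k
    by_cases hk : k ∈ F
    · have a5 := a3 k hk
      have hkk := hW.kap k
      have hBX : 0 < W.B.d n ^ W.X n k := Real.rpow_pos_of_pos (W.B.pos n) _
      unfold Wnd.crd at a5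
      rw [abs_div, abs_of_pos (mul_pos hkk hBX), div_le_iff₀ (mul_pos hkk hBX)] at a5
      have e1 : cut S top (ind F (e j)) k = e j := by
        rw [cut_of_mem (hFS hk)]; unfold ind; rw [if_pos hk]
      rw [e1]
      refine a5.trans ?_
      calc W.B'.d n ^ ε * (W.kap k * W.B.d n ^ W.X n k)
          = (W.kap k * W.B'.d n ^ ε) * W.B.d n ^ W.X n k := by ring
        _ ≤ (W.K0 * W.B'.d n ^ (e j)) * W.B.d n ^ W.X n k :=
            mul_le_mul_of_nonneg_right (hkap k hk) hBX.le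
        _ = cK0 W.M W.C * (W.B.d n ^ W.X n k * W.B'.d n ^ (e j)) := by
            unfold Wnd.K0; ring
    · have e1 : cut S top (ind F (e j)) k = cut W.S W.top 0 k := by
        rw [hS, ht]
        unfold cut ind
        rw [if_neg hk]
        rfl
      have := a4 k
      rw [← e1] at this
      exact this
  have hAJ : A ⊆ (W.J n).filter fun j' => wbox W.B B₁ W.co X n (x + h • cut S top (ind F (e j)))
      (cK0 W.M W.C) i j' := fun j' hj' =>
    mem_filter.2 ⟨hClJ (hAsub j' hj').1, hbe j' hj'⟩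
  have hAI : A ⊆ W.I n := fun j' hj' => g.clI (hAsub j' hj').1
  have c1 : ((A.image (W.zc n)).card : ℝ) ≤
      cN W.M W.C (cK0 W.M W.C) * (A.image (W.lab n W.top)).card := by
    refine card_image_le_mul A _ _ fun y hy => ?_
    have hOI : cls A (W.lab n W.top) y ⊆ W.I n := (cls_subset _ _ _).trans hAI
    refine hW.card_zc_box g (c := W.top) ?_ hW.K0_one hOI (hAI hy) (fun y' hy' =>
      hW.near_lab g hW.top_leg (hAI hy) (hOI hy') (mem_cls.1 hy').2.symm)
    conv_rhs => rw [← cut_self W.S W.top]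
    exact cut_mono (fun k _ => hW.top_leg.1.nonneg k) (fun _ _ => le_rfl)
  have c2 : ((A.image (W.lab n W.top)).card : ℝ) ≤
      B₁.d n ^ (-(ν (x + h • cut S top (ind F (e j))) - ν (x + h • top) + η)) := by
    refine le_trans ?_ (h3 F hF j hj hjP i (g.clI hi))
    rw [hlab, ht]
    exact_mod_cast card_le_card (image_subset_image hAJ)
  -- the lines
  obtain ⟨hi1, hi2⟩ := hCl i hi
  have c3 : (((W.Cl n).image (W.lc n)).card : ℝ) ≤
      ((cls (W.J n) (zlab W.B W.I W.co W.M W.C X w n x) i).image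
        (zlab W.B W.I W.co W.M W.C X w n (x + h • cut S top 0))).card := by
    rw [← hi2, ← hlab, ← hS, ← ht]
    exact_mod_cast Wnd.card_enc_image _ _ _
  have c4 := good_big (B := W.B) (B₁ := B₁) (I := W.I) (co := W.co) (M := W.M) (C := W.C) (X := X)
    (w := w) (T := T) (ν := ν) hi1
  have c5 := h4 K hK a ha
  have eL : W.B'.L n = h * B₁.L n := by
    have h1 : Real.log (W.B'.d n) = Real.log (B₁.d n ^ h) := by rw [hB']
    rw [Real.log_rpow (B₁.pos n), B₁.log_d, W.B'.log_d] at h1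
    linarith
  have eP : lossP W.B'.L s K n = (1 + h * B₁.L n) * ∏ i ∈ range K, (1 + |s i n|) := by
    unfold lossP; rw [eL]
  rw [eP]
  set Lp : ℝ := ((1 + h * B₁.L n) * ∏ i ∈ range K, (1 + |s i n|)) ^ a with hLp
  set NN : ℝ := cN W.M W.C (cK0 W.M W.C) with hNN
  have hLp0 : 0 ≤ Lp := by
    refine pow_nonneg (mul_nonneg ?_ ?_) _
    · have := B₁.L_pos n
      positivity
    · linarith [one_le_prod_abs s K n]
  set lines : ℝ := (((W.Cl n).image (W.lc n)).card : ℝ) with hlines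
  have hlines0 : 0 ≤ lines := Nat.cast_nonneg _
  set ve := ν (x + h • cut S top (ind F (e j))) with hve
  set v1 := ν (x + h • top) with hv1
  set v0 := ν (x + h • cut S top 0) with hv0
  have d1 : B₁.d n ^ (-η) * (B₁.d n ^ (-(ve - v1 + η)) * B₁.d n ^ (-(v1 + η))) ≤
      B₁.d n ^ (-v0 + η) := by
    rw [← Real.rpow_add (B₁.pos n), ← Real.rpow_add (B₁.pos n)]
    refine Real.rpow_le_rpow_of_exponent_ge (B₁.pos n) (B₁.lt n).le ?_
    linarith
  calc Lp * (((A.image (W.zc n)).card : ℝ) * ((T n * B₁.d n ^ (-(v1 + η))) * lines))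
      ≤ Lp * ((NN * B₁.d n ^ (-(ve - v1 + η))) * ((T n * B₁.d n ^ (-(v1 + η))) * lines)) := by
        refine mul_le_mul_of_nonneg_left ?_ hLp0
        refine mul_le_mul_of_nonneg_right (c1.trans (mul_le_mul_of_nonneg_left c2 hN.le)) ?_
        exact mul_nonneg (mul_pos hTn (hpos1 _)).le hlines0
    _ = (Lp * NN) * ((B₁.d n ^ (-(ve - v1 + η)) * B₁.d n ^ (-(v1 + η))) * (T n * lines)) := by
        ring
    _ ≤ B₁.d n ^ (-η) * ((B₁.d n ^ (-(ve - v1 + η)) * B₁.d n ^ (-(v1 + η))) * (T n * lines)) := by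
        refine mul_le_mul_of_nonneg_right c5 ?_
        exact mul_nonneg (mul_pos (hpos1 _) (hpos1 _)).le (mul_nonneg hTn.le hlines0)
    _ = (B₁.d n ^ (-η) * (B₁.d n ^ (-(ve - v1 + η)) * B₁.d n ^ (-(v1 + η)))) * (T n * lines) := by
        ring
    _ ≤ B₁.d n ^ (-v0 + η) * (T n * lines) :=
        mul_le_mul_of_nonneg_right d1 (mul_nonneg hTn.le hlines0)
    _ = (T n * B₁.d n ^ (-v0 + η)) * lines := by ring
    _ ≤ (T n * B₁.d n ^ (-v0 + η)) *
        ((cls (W.J n) (zlab W.B W.I W.co W.M W.C X w n x) i).image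
        (zlab W.B W.I W.co W.M W.C X w n (x + h • cut S top 0))).card :=
        mul_le_mul_of_nonneg_left c3 (mul_pos hTn (hpos1 _)).le
    _ ≤ ((cls (W.J n) (zlab W.B W.I W.co W.M W.C X w n x) i).card : ℝ) := c4
    _ = ((W.Cl n).card : ℝ) := by rw [← hi2]

/-- **choice of the good incidences** (outer window `ZWin`, moving base points `x l`, scales `h l`):
strict drop of `ν` in the flags `F` (all `F ∈ Fs` at once) at the points
`x l + h l • cut S top (ind F e)`. -/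
theorem _root_.Crest.Agent.R136.Qg926.ZWin.exists_tw (hZ : ZWin B B₁ I J co M C X w P T ν)
    {x : ℕ → Fin m → ℝ} {h : ℕ → ℝ} (hpos : ∀ l, 0 < h l)
    (S : Finset (Fin m)) (top : Fin m → ℝ) (Fs : Finset (Finset (Fin m))) {e0 : ℝ} (he0 : 0 < e0)
    (hFS : ∀ F ∈ Fs, F ⊆ S) (htop : ∀ k, 0 ≤ top k) (heF : ∀ F ∈ Fs, ∀ k ∈ F, e0 ≤ top k)
    (hxP : ∀ᶠ l in (atTop : Filter ℕ), x l ∈ P ∧ x l + h l • top ∈ P ∧ x l + h l • cut S top 0 ∈ P)
    (heP : ∀ F ∈ Fs, ∀ e, 0 < e → e ≤ e0 → ∀ᶠ l in (atTop : Filter ℕ),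
      x l + h l • cut S top (ind F e) ∈ P)
    (hdrop : ∀ F ∈ Fs, ∀ e, 0 < e → e ≤ e0 → ∀ᶠ l in (atTop : Filter ℕ),
      ν (x l + h l • cut S top (ind F e)) < ν (x l + h l • cut S top 0))
    (s : ℕ → ℕ → ℝ) (hs : ∀ i, B₁.Sub (s i)) :
    ∃ k : ℕ → ℕ, Tendsto k U atTop ∧ ∀ k' : ℕ → ℕ, Tendsto k' U atTop →
      (∀ᶠ n in (U : Filter ℕ), k' n ≤ k n) → ∃ (Gd : ∀ n, Finset (ι n)) (Mx : ℕ → ℝ),
        (∀ n, Gd n ⊆ J n) ∧
        (∀ B' : Base, (∀ n, B'.d n = B₁.d n ^ h (k' n)) → ∀ c : ℕ → ℝ, IsLoss B' s c →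
          ∀ᶠ n in (U : Filter ℕ), c n * ((J n \ Gd n).card : ℝ) ≤ (J n).card) ∧
        ∀ W : Wnd m ι, W.Ok → W.B = B → W.I = I → W.J = J → W.co = co → W.M = M → W.C = C →
          (W.X = fun n => X n + w n • x (k' n)) → (W.w = fun n => w n * h (k' n)) →
          (∀ n, W.B'.d n = B₁.d n ^ h (k' n)) → W.S = S → W.top = top →
          (∀ᶠ n in (U : Filter ℕ), W.Cl n = cls (Gd n) (W.lab n 0) (W.s₀ n)) →
          ∀ F ∈ Fs, Tw W F s Mx := by
  classical
  set e : ℕ → ℝ := fun j => e0 / ((j : ℝ) + 1) with he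
  have he1 : ∀ j, 0 < e j ∧ e j ≤ e0 := fun j => ⟨by positivity, by
    simp only [he]
    rw [div_le_iff₀ (by positivity)]
    nlinarith [(Nat.cast_nonneg j : (0 : ℝ) ≤ j)]⟩
  set f : ℕ → Finset (Fin m) × ℕ → ℝ := fun l q =>
    ν (x l + h l • cut S top 0) - ν (x l + h l • cut S top (ind q.1 (e q.2))) with hf
  choose η hη0 hη using fun l => exists_eta (Fs ×ˢ range (l + 1)) (f l)
  obtain ⟨k, hk, hk2⟩ := exists_diag (fun l n =>
    (x l ∈ P ∧ x l + h l • top ∈ P ∧ x l + h l • cut S top 0 ∈ P) →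
      Stage B B₁ I J co M C X w P T ν (x l) (h l) S top Fs e (η l) s l n) (by
    intro l
    by_cases hl : x l ∈ P ∧ x l + h l • top ∈ P ∧ x l + h l • cut S top 0 ∈ P
    · filter_upwards [ev_stage hZ (hpos l) S top Fs he0 htop heF e he1 hl.1 hl.2.1 hl.2.2 (hη0 l)
        s hs l] with n hn _ using hn
    · exact Eventually.of_forall fun n hn => absurd hn hl)
  refine ⟨k, hk, fun k' hk' hle => ?_⟩
  have hst : ∀ᶠ n in (U : Filter ℕ), Stage B B₁ I J co M C X w P T ν (x (k' n)) (h (k' n)) S top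
      Fs e (η (k' n)) s (k' n) n := by
    filter_upwards [hk2, hle, hk'.eventually hxP] with n h1 h2 h3 using h1 _ h2 h3
  refine ⟨fun n => J n \ bad B B₁ I J co M C X w T ν (x (k' n))
    (x (k' n) + h (k' n) • cut S top 0) (η (k' n)) n,
    fun n => T n * B₁.d n ^ (-(ν (x (k' n) + h (k' n) • top) + η (k' n))),
    fun n => sdiff_subset, fun B' hB' c hc => ?_, ?_⟩
  · obtain ⟨K, a, hKa⟩ := hc
    filter_upwards [hst, hKa, hk'.eventually_ge_atTop K, hk'.eventually_ge_atTop a] with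
      n h1 h6 h7 h8
    have h3 := h1.1 K h7 a h8
    have eL : B'.L n = h (k' n) * B₁.L n := by
      have h1 : Real.log (B'.d n) = Real.log (B₁.d n ^ h (k' n)) := by rw [hB' n]
      rw [Real.log_rpow (B₁.pos n), B₁.log_d, B'.log_d] at h1
      linarith
    have eP : lossP B'.L s K n = (1 + h (k' n) * B₁.L n) * ∏ i ∈ range K, (1 + |s i n|) := by
      unfold lossP; rw [eL]
    rw [eP] at h6
    have h4 : J n \ (J n \ bad B B₁ I J co M C X w T ν (x (k' n))
        (x (k' n) + h (k' n) • cut S top 0) (η (k' n)) n) =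
        bad B B₁ I J co M C X w T ν (x (k' n))
        (x (k' n) + h (k' n) • cut S top 0) (η (k' n)) n := by
      rw [sdiff_sdiff_right_self]
      exact inf_eq_right.2 (filter_subset _ _)
    have h5 : ((J n \ (J n \ bad B B₁ I J co M C X w T ν (x (k' n))
        (x (k' n) + h (k' n) • cut S top 0) (η (k' n)) n)).card : ℝ) =
        (bad B B₁ I J co M C X w T ν (x (k' n))
        (x (k' n) + h (k' n) • cut S top 0) (η (k' n)) n).card := by
      rw [h4]
    rw [h5]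
    exact (mul_le_mul_of_nonneg_right h6 (Nat.cast_nonneg _)).trans h3
  intro W hW hB hI hJ hco hM hC hX hw hB' hS ht hCl F hF
  have hcl : ∀ᶠ n in (U : Filter ℕ), W.Cl n ⊆ W.J n := hW.cls.csub
  have hlab0 : ∀ n, W.lab n 0 = zlab B I co M C X w n (x (k' n)) := by
    intro n
    show nlab W.B W.I W.co W.M W.C n (W.X n + W.w n • 0) =
      nlab B I co M C n (X n + w n • (x (k' n)))
    rw [hB, hI, hco, hM, hC, hX, smul_zero, add_zero]
  have hCl2 : ∀ᶠ n in (U : Filter ℕ), ∀ i ∈ W.Cl n,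
      i ∈ J n \ bad B B₁ I J co M C X w T ν (x (k' n))
        (x (k' n) + h (k' n) • cut S top 0) (η (k' n)) n ∧
      W.Cl n = cls (J n) (zlab B I co M C X w n (x (k' n))) i := by
    filter_upwards [hCl, hW.ev_good] with n h1 g i hi
    rw [hlab0] at h1
    have h2 : i ∈ cls (J n \ bad B B₁ I J co M C X w T ν (x (k' n))
        (x (k' n) + h (k' n) • cut S top 0) (η (k' n)) n)
        (zlab B I co M C X w n (x (k' n))) (W.s₀ n) := by rw [← h1]; exact hi
    obtain ⟨h3, h4⟩ := mem_cls.1 h2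
    refine ⟨h3, ?_⟩
    rw [h1, ← cls_congr h4]
    exact cls_good h3
  refine ⟨fun n => mul_pos (hZ.T0 n) (Real.rpow_pos_of_pos (B₁.pos n) _), ?_, ?_⟩
  · filter_upwards [hst, hW.ev_good, hcl] with n h1 g h2 i hi
    have h3 := h1.2.1 i (by rw [← hI]; exact g.clI hi)
    refine le_trans (Nat.cast_le.2 (card_le_card fun j hj => ?_)) h3
    obtain ⟨j1, j2⟩ := mem_cls.1 hj
    refine mem_filter.2 ⟨by rw [← hJ]; exact h2 j1, ?_⟩
    have h4 := hW.near_top g hi j1 (congrArg Prod.fst j2).symm (congrArg Prod.snd j2).symm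
    unfold Wnd.bx at h4
    rw [← hW.cls.near_iff, hX, hw] at h4
    rw [← hZ.near_iff, ← zoom_zoom]
    unfold Wnd.K0 at h4
    rw [hB, hco, hM, hC, ht] at h4
    exact h4
  · intro ε hε c hc
    obtain ⟨K, a, hKa⟩ := hc
    obtain ⟨j, hj⟩ := exists_nat_gt (2 * e0 / ε)
    have hje : e j ≤ ε / 2 := by
      simp only [he]
      rw [div_lt_iff₀ hε] at hj
      rw [div_le_iff₀ (by positivity)]
      nlinarith
    have hkap : ∀ᶠ n in (U : Filter ℕ), ∀ k ∈ F,
        W.kap k * W.B'.d n ^ ε ≤ W.K0 * W.B'.d n ^ (e j) := by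
      rw [Filter.eventually_all_finset]
      intro k _
      have hkk := hW.kap k
      filter_upwards [W.B'.ev_rpow_small (η := ε / 2) (c := 1 / W.kap k) (by positivity)
        (by positivity)] with n hn
      have h1 : W.B'.d n ^ ε = W.B'.d n ^ (ε / 2) * W.B'.d n ^ (ε / 2) := by
        rw [← Real.rpow_add (W.B'.pos n)]; congr 1; ring
      have h2 : W.B'.d n ^ (ε / 2) ≤ W.B'.d n ^ (e j) :=
        Real.rpow_le_rpow_of_exponent_ge (W.B'.pos n) (W.B'.lt n).le hje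
      have h3 := Real.rpow_pos_of_pos (W.B'.pos n) (ε / 2)
      have h4 : W.kap k * W.B'.d n ^ (ε / 2) ≤ 1 := by
        rw [le_div_iff₀ hkk] at hn; linarith
      have h5 := hW.K0_one
      calc W.kap k * W.B'.d n ^ ε = (W.kap k * W.B'.d n ^ (ε / 2)) * W.B'.d n ^ (ε / 2) := by
            rw [h1]; ring
        _ ≤ 1 * W.B'.d n ^ (ε / 2) := mul_le_mul_of_nonneg_right h4 h3.le
        _ ≤ W.K0 * W.B'.d n ^ (e j) := mul_le_mul h5 h2 h3.le (by linarith)
    filter_upwards [hst, hW.ev_good, hcl, hCl2, hkap, hKa, hk'.eventually_ge_atTop j,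
      hk'.eventually_ge_atTop K, hk'.eventually_ge_atTop a,
      hk'.eventually (heP F hF (e j) (he1 j).1 (he1 j).2),
      hk'.eventually (hdrop F hF (e j) (he1 j).1 (he1 j).2)] with
      n h1 g h2 h3 h4 h5 h6 h7 h8 h9 h10 i hi
    have h11 := hη (k' n) (F, j) (mem_product.2 ⟨hF, mem_range.2 (by omega)⟩) (sub_pos.2 h10)
    have h12 := near_of_stage hZ W hW hB hI hJ hco hM hC hS ht g h2 (hpos (k' n))
      (by rw [hX]) (by rw [hw]) (hB' n) h1 h3 hF (hFS F hF) h6 h9 h11 h4 h7 h8 hi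
    refine le_trans (mul_le_mul_of_nonneg_right h5 ?_) h12
    refine mul_nonneg (Nat.cast_nonneg _) (mul_nonneg ?_ (Nat.cast_nonneg _))
    exact (mul_pos (hZ.T0 n) (Real.rpow_pos_of_pos (B₁.pos n) _)).le

end

end Crest.Agent.R136.Qg4480
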