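import Crest.Agent.R136.Qg4b_480

/-!
# R136: raw twist of windows (helper480), part 3: windows with raw twist

* `exists_wnd_tw`, `exists_wnd_tw_ex` : from a profile, a tangent and the strict drop to windows
  with raw twist (`_ex`: with a second profile along the same blow-up);
* `ZWin.exists_wnd_tw` : the same inside an outer window.
-/

set_option autoImplicit false
set_option linter.unusedSectionVars false
set_option linter.unusedVariables false

open Filter Topology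

namespace Crest.Agent.R136.Qg4480

open Finset Crest.Agent.R138.Ex926 Crest.Agent.R136.Net191 Crest.Agent.R136.Gf356
open Crest.Agent.R136.Qg926

variable {m : ℕ} {ι : ℕ → Type*} [∀ n, DecidableEq (ι n)]

theorem tendsto_min_top {k1 k2 : ℕ → ℕ} {F : Filter ℕ} (h1 : Tendsto k1 F atTop)
    (h2 : Tendsto k2 F atTop) : Tendsto (fun n => min (k1 n) (k2 n)) F atTop :=
  tendsto_atTop.2 fun b => by
    filter_upwards [h1.eventually_ge_atTop b, h2.eventually_ge_atTop b] with n a1 a2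
      using le_min a1 a2

/-- `1 + |s|` is again a loss -/
theorem sub_one_add_abs {B : Base} {s : ℕ → ℝ} (h : B.Sub s) : B.Sub (fun n => 1 + |s n|) := by
  obtain ⟨h1, h2⟩ := Base.Sub.iff.1 h
  refine Base.Sub.iff.2 ⟨Eventually.of_forall fun n => by positivity, ?_⟩
  rw [Metric.tendsto_nhds]
  intro ε hε
  have h3 := (Metric.tendsto_nhds.1 h2) (ε / 2) (by positivity)
  filter_upwards [h1, h3, B.ev_L_ge (2 * Real.log 2 / ε + 1)] with n a1 a2 a3
  have hL := B.L_pos n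
  have hl2 : 0 < Real.log 2 := Real.log_pos (by norm_num)
  rw [Real.dist_eq, sub_zero] at a2 ⊢
  simp only [Base.lg] at a2 ⊢
  rw [abs_of_pos a1]
  have h4 : 0 ≤ Real.log (1 + s n) := Real.log_nonneg (by linarith)
  rw [abs_of_nonneg (div_nonneg h4 hL.le), div_lt_iff₀ hL]
  have h5 : Real.log (1 + s n) ≤ Real.log 2 + |Real.log (s n)| := by
    rcases le_total 1 (s n) with h6 | h6
    · have h7 : Real.log (1 + s n) ≤ Real.log (2 * s n) :=
        Real.log_le_log (by linarith) (by linarith)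
      rw [Real.log_mul (by norm_num) a1.ne'] at h7
      linarith [le_abs_self (Real.log (s n))]
    · have h7 : Real.log (1 + s n) ≤ Real.log 2 := Real.log_le_log (by linarith) (by linarith)
      linarith [abs_nonneg (Real.log (s n))]
  have h6 : |Real.log (s n)| < ε / 2 * B.L n := by
    rw [abs_div, abs_of_pos hL, div_lt_iff₀ hL] at a2
    exact a2
  have h7 : Real.log 2 < ε / 2 * B.L n := by
    have h8 : 2 * Real.log 2 / ε < B.L n := by linarith
    rw [div_lt_iff₀ hε] at h8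
    linarith
  linarith

theorem sub_prod {B : Base} {s : ℕ → ℕ → ℝ} (hs : ∀ i, B.Sub (s i)) (K : ℕ) :
    B.Sub (fun n => ∏ i ∈ range K, (1 + |s i n|)) := by
  induction K with
  | zero => simpa using (Base.Sub.const (B := B) one_pos)
  | succ K ih =>
    simp only [prod_range_succ]
    exact ih.mul (sub_one_add_abs (hs K))

theorem IsLoss.prod {B' : Base} {s : ℕ → ℕ → ℝ} (K a : ℕ) :
    IsLoss B' s (fun n => (∏ i ∈ range K, (1 + |s i n|)) ^ a) := by
  refine ⟨K, a, Eventually.of_forall fun n => ?_⟩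
  have h1 := one_le_prod_abs s K n
  have h2 := B'.L_pos n
  refine pow_le_pow_left₀ (by linarith) ?_ a
  unfold lossP
  nlinarith

section

variable {B B₁ B' : Base} {I J : ∀ n, Finset (ι n)} {co : ∀ n, ι n → ι n → Fin m → ℝ}
  {M : Mons m} {C : ℝ} {X : ℕ → Fin m → ℝ} {w : ℕ → ℝ} {D : Set (Fin m → ℝ)} {T : ℕ → ℝ}
  {lam : (Fin m → ℝ) → ℝ} {st : WSt m}

/-- common part: honest class inside the good incidences, base incidence in a dense set -/
theorem wnd_tw_core (hz : ZWin B B' I J co M C X w D T lam) (hst : st.Ok M D) (i₀ : ∀ n, ι n)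
    {Gd E : ∀ n, Finset (ι n)} {Mx : ℕ → ℝ} (hGd : ∀ n, Gd n ⊆ J n)
    (hE : ∀ᶠ n in (U : Filter ℕ), E n ⊆ J n) {s : ℕ → ℕ → ℝ} (hs : ∀ i, B'.Sub (s i)) (K a : ℕ)
    (hd : ∀ᶠ n in (U : Filter ℕ),
      ((J n).card : ℝ) ≤ (∏ i ∈ range K, (1 + |s i n|)) ^ a * (E n).card)
    (hsmall : ∀ c : ℕ → ℝ, IsLoss B' s c → ∀ᶠ n in (U : Filter ℕ),
      c n * ((J n \ Gd n).card : ℝ) ≤ (J n).card)
    {Fs : Finset (Finset (Fin m))}
    (htw : ∀ W : Wnd m ι, W.Ok → W.B = B → W.I = I → W.J = J → W.co = co → W.M = M → W.C = C →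
      W.X = X → W.w = w → W.B' = B' → W.S = st.S → W.top = st.top →
      (∀ᶠ n in (U : Filter ℕ), W.Cl n = cls (Gd n) (W.lab n 0) (W.s₀ n)) →
      ∀ F ∈ Fs, Tw W F s Mx) :
    ∃ s₀ : ∀ n, ι n, (∀ᶠ n in (U : Filter ℕ), s₀ n ∈ E n ∧ s₀ n ∈ Gd n) ∧
      (st.wnd B B' I J co M C X w D T lam
        (fun n => cls (Gd n) (zlab B I co M C X w n 0) (s₀ n)) s₀).Ok ∧
      ∀ F ∈ Fs, Tw (st.wnd B B' I J co M C X w D T lam
        (fun n => cls (Gd n) (zlab B I co M C X w n 0) (s₀ n)) s₀) F s Mx := by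
  classical
  obtain ⟨s₀, h1, h2⟩ := hz.exists_wnd hst i₀ (Gd := Gd) (E := fun n => E n ∩ Gd n)
    (Sd := fun n => 2 * (∏ i ∈ range K, (1 + |s i n|)) ^ a)
    (Eventually.of_forall hGd) (Eventually.of_forall fun n => inter_subset_right)
    ((Base.Sub.const two_pos).mul ((sub_prod hs K).pow a)) (by
      have h3 : IsLoss B' s (fun n => 2 * (∏ i ∈ range K, (1 + |s i n|)) ^ a) :=
        (IsLoss.const 2).mul (IsLoss.prod K a) (Eventually.of_forall fun n =>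
          pow_nonneg (by linarith [one_le_prod_abs s K n]) _)
      filter_upwards [hsmall _ h3, hd, hE] with n h4 h5 h6
      have hP : 0 ≤ (∏ i ∈ range K, (1 + |s i n|)) ^ a :=
        pow_nonneg (by linarith [one_le_prod_abs s K n]) _
      have h7 : ((E n).card : ℝ) ≤ ((E n ∩ Gd n).card : ℝ) + ((J n \ Gd n).card : ℝ) := by
        have h8 : (E n).card ≤ (E n ∩ Gd n).card + (J n \ Gd n).card := by
          rw [← card_inter_add_card_sdiff (E n) (Gd n)]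
          exact Nat.add_le_add_left (card_le_card (sdiff_subset_sdiff h6 (Subset.refl _))) _
        exact_mod_cast h8
      have h8 := mul_le_mul_of_nonneg_left h7 hP
      linarith)
  refine ⟨s₀, ?_, h2, ?_⟩
  · filter_upwards [h1] with n hn using mem_inter.1 hn
  · exact htw _ h2 rfl rfl rfl rfl rfl rfl rfl rfl rfl rfl rfl (Eventually.of_forall fun n => rfl)

end

/-! ### the profile as an outer window -/

theorem _root_.Crest.Agent.R136.Qg926.NProf.zwin {B : Base} {I J : ∀ n, Finset (ι n)}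
    {co : ∀ n, ι n → ι n → Fin m → ℝ} {M : Mons m} {C R : ℝ} {ν : (Fin m → ℝ) → ℝ}
    (hN : NProf B I J co M C R ν) :
    ZWin B B I J co M C (fun _ => 0) (fun _ => 1) (Leg M R) (fun n => B.d n ^ (-(ν 0)))
      (fun p => ν p - ν 0) := by
  have hlab : ∀ n c, zlab B I co M C (fun _ => 0) (fun _ => 1) n c = nlab B I co M C n c := by
    intro n c
    show nlab B I co M C n ((0 : Fin m → ℝ) + (1 : ℝ) • c) = _
    rw [zero_add, one_smul]
  exact
  { chart := hN.chart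
    sub := hN.sub
    ne := hN.ne
    w0 := fun _ => one_pos
    base := fun n => by rw [Real.rpow_one]
    zero := ⟨⟨fun _ => le_rfl, fun k e _ => by simp⟩, fun _ => hN.R0⟩
    legal := fun K => Eventually.of_forall fun n c hc _ => by
      show Legal M ((0 : Fin m → ℝ) + (1 : ℝ) • c)
      rw [zero_add, one_smul]
      exact hc.1
    prof :=
      { up := fun K ε hε => by
          filter_upwards [hN.prof.up ε hε] with n hn p hp _ i hi
          rw [hlab]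
          refine (hn p hp i hi).trans (le_of_eq ?_)
          rw [← Real.rpow_add (B.pos n)]
          congr 1; ring
        num := fun K ε hε => by
          filter_upwards [hN.prof.num ε hε] with n hn q hq _ p hp _ hqp i hi
          rw [hlab, hlab]
          refine (hn q hq p hp hqp i hi).trans (le_of_eq ?_)
          congr 1; ring
        root := fun K ε hε => by
          filter_upwards [hN.prof.root ε hε] with n hn p hp _
          rw [hlab]
          refine (mul_le_mul_of_nonneg_right (hn p hp)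
            (Real.rpow_nonneg (B.pos n).le _)).trans (le_of_eq ?_)
          rw [mul_assoc, ← Real.rpow_add (B.pos n)]
          congr 2; ring }
    lam0 := sub_self _
    T0 := fun n => Real.rpow_pos_of_pos (B.pos n) _
    lip := fun c hc c' hc' => by
      have := hN.lip c hc c' hc'
      rwa [sub_sub_sub_cancel_right]
    anti := fun c hc c' hc' hcc => sub_le_sub_right (hN.anti c hc c' hc' hcc) _
    sharp := fun c hc c' hc' hcc => by
      rw [sub_sub_sub_cancel_right]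
      exact hN.sharp c hc c' hc' hcc
    submod := fun c hc c' hc' hi _ => by
      have := hN.submod c hc c' hc' hi
      linarith }

/-- **windows with raw twist from a profile and a tangent**, with a second profile (own profile)
along the same blow-up; base incidence in a dense `E` -/
theorem exists_wnd_tw_ex {B : Base} {I J : ∀ n, Finset (ι n)}
    {co : ∀ n, ι n → ι n → Fin m → ℝ} {M : Mons m} {C R : ℝ} {ν : (Fin m → ℝ) → ℝ}
    (hN : NProf B I J co M C R ν)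
    {x : ℕ → Fin m → ℝ} {h : ℕ → ℝ} (hpos : ∀ l, 0 < h l) {D : Set (Fin m → ℝ)}
    (h0 : (0 : Fin m → ℝ) ∈ D) {lam : (Fin m → ℝ) → ℝ} (htan : IsTan (Leg M R) D ν x h lam)
    {κ : ℕ → Type*} [∀ n, DecidableEq (κ n)] {ol : ∀ n, (Fin m → ℝ) → ι n → κ n}
    {Po Do : Set (Fin m → ℝ)} {own lo : (Fin m → ℝ) → ℝ} (hO : QProf B J ol Po own)
    (h0o : (0 : Fin m → ℝ) ∈ Do) (htano : IsTan Po Do own x h lo)
    {st : WSt m} (hst : st.Ok M D) (s : ℕ → ℕ → ℝ) (hs : ∀ i, B.Sub (s i)) (i₀ : ∀ n, ι n)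
    {E : ∀ n, Finset (ι n)} (hE : ∀ᶠ n in (U : Filter ℕ), E n ⊆ J n) (K a : ℕ)
    (hd : ∀ᶠ n in (U : Filter ℕ),
      ((J n).card : ℝ) ≤ (∏ i ∈ range K, (1 + |s i n|)) ^ a * (E n).card)
    (Fs : Finset (Finset (Fin m))) {e0 : ℝ} (he0 : 0 < e0) (hFS : ∀ F ∈ Fs, F ⊆ st.S)
    (heF : ∀ F ∈ Fs, ∀ k ∈ F, e0 ≤ st.top k)
    (heD : ∀ F ∈ Fs, ∀ e, 0 < e → e ≤ e0 → cut st.S st.top (ind F e) ∈ D)
    (hdrop : ∀ F ∈ Fs, ∀ e, 0 < e → e ≤ e0 → ∀ᶠ l in (atTop : Filter ℕ),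
      ν (x l + h l • cut st.S st.top (ind F e)) < ν (x l + h l • cut st.S st.top 0)) :
    ∃ k : ℕ → ℕ, Tendsto k U atTop ∧ ∀ k' : ℕ → ℕ, Tendsto k' U atTop →
      (∀ᶠ n in (U : Filter ℕ), k' n ≤ k n) → ∃ (B' : Base) (Gd : ∀ n, Finset (ι n))
        (s₀ : ∀ n, ι n) (Mx : ℕ → ℝ),
        (∀ n, B'.d n = B.d n ^ h (k' n)) ∧ (∀ n, B'.L n = h (k' n) * B.L n) ∧
        (∀ i, B'.Sub (s i)) ∧ (∀ n, Gd n ⊆ J n) ∧
        (∀ c : ℕ → ℝ, IsLoss B' s c → ∀ᶠ n in (U : Filter ℕ),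
          c n * ((J n \ Gd n).card : ℝ) ≤ (J n).card) ∧
        (∀ᶠ n in (U : Filter ℕ), s₀ n ∈ E n ∧ s₀ n ∈ Gd n) ∧
        ZProf B' J (fun n c => ol n (x (k' n) + h (k' n) • c)) Do
          (fun n => B.d n ^ (-(own (x (k' n))))) lo ∧
        (st.wnd B B' I J co M C (fun n => x (k' n)) (fun n => h (k' n)) D
          (fun n => B.d n ^ (-(ν (x (k' n))))) lam
          (fun n => cls (Gd n) (zlab B I co M C (fun n => x (k' n)) (fun n => h (k' n)) n 0)
            (s₀ n)) s₀).Ok ∧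
        ∀ F ∈ Fs, Tw (st.wnd B B' I J co M C (fun n => x (k' n)) (fun n => h (k' n)) D
          (fun n => B.d n ^ (-(ν (x (k' n))))) lam
          (fun n => cls (Gd n) (zlab B I co M C (fun n => x (k' n)) (fun n => h (k' n)) n 0)
            (s₀ n)) s₀) F s Mx := by
  classical
  have hz0 := hN.zwin
  obtain ⟨k1, hk1, hk1'⟩ := exists_zwin_ex hN hpos h0 htan hO h0o htano s hs
  have htop : ∀ k, 0 ≤ st.top k := fun k => hst.top_leg.1.nonneg k
  obtain ⟨k2, hk2, hk2'⟩ := hz0.exists_tw hpos st.S st.top Fs he0 hFS htop heF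
    (by
      filter_upwards [htan.ev h0 one_pos, htan.ev (hst.leg hst.top_leg) one_pos,
        htan.ev (hst.leg hst.lin_leg) one_pos] with l a1 a2 a3
      refine ⟨?_, a2.1, a3.1⟩
      have := a1.1
      rwa [smul_zero, add_zero] at this)
    (fun F hF e he he' => (htan.ev (heD F hF e he he') one_pos).mono fun l hl => hl.1)
    (fun F hF e he he' => (hdrop F hF e he he').mono fun l hl => sub_lt_sub_right hl _) s hs
  refine ⟨fun n => min (k1 n) (k2 n), tendsto_min_top hk1 hk2, fun k' hk' hle => ?_⟩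
  obtain ⟨B', b1, b2, b3, b4, b5⟩ := hk1' k' hk' (hle.mono fun n hn => hn.trans (min_le_left _ _))
  obtain ⟨Gd, Mx, g1, g2, g3⟩ := hk2' k' hk' (hle.mono fun n hn => hn.trans (min_le_right _ _))
  obtain ⟨s₀, c1, c2, c3⟩ := wnd_tw_core b4 hst i₀ (Mx := Mx) (Fs := Fs) g1 hE b3 K a hd
    (g2 B' b1) (fun W hW hB hI hJ hco hM hC hX hw hB' hS ht hCl F hF =>
      g3 W hW hB hI hJ hco hM hC
        (by rw [hX]; funext n; show x (k' n) = (0 : Fin m → ℝ) + (1 : ℝ) • x (k' n)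
            rw [zero_add, one_smul])
        (by rw [hw]; funext n; show h (k' n) = 1 * h (k' n); rw [one_mul])
        (fun n => by rw [hB']; exact b1 n) hS ht hCl F hF)
  exact ⟨B', Gd, s₀, Mx, b1, b2, b3, g1, g2 B' b1, c1, b5, c2, c3⟩

/-- **windows with raw twist from a profile and a tangent** -/
theorem exists_wnd_tw {B : Base} {I J : ∀ n, Finset (ι n)}
    {co : ∀ n, ι n → ι n → Fin m → ℝ} {M : Mons m} {C R : ℝ} {ν : (Fin m → ℝ) → ℝ}
    (hN : NProf B I J co M C R ν)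
    {x : ℕ → Fin m → ℝ} {h : ℕ → ℝ} (hpos : ∀ l, 0 < h l) {D : Set (Fin m → ℝ)}
    (h0 : (0 : Fin m → ℝ) ∈ D) {lam : (Fin m → ℝ) → ℝ} (htan : IsTan (Leg M R) D ν x h lam)
    {st : WSt m} (hst : st.Ok M D) (s : ℕ → ℕ → ℝ) (hs : ∀ i, B.Sub (s i)) (i₀ : ∀ n, ι n)
    {E : ∀ n, Finset (ι n)} (hE : ∀ᶠ n in (U : Filter ℕ), E n ⊆ J n) (K a : ℕ)
    (hd : ∀ᶠ n in (U : Filter ℕ),
      ((J n).card : ℝ) ≤ (∏ i ∈ range K, (1 + |s i n|)) ^ a * (E n).card)
    (Fs : Finset (Finset (Fin m))) {e0 : ℝ} (he0 : 0 < e0) (hFS : ∀ F ∈ Fs, F ⊆ st.S)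
    (heF : ∀ F ∈ Fs, ∀ k ∈ F, e0 ≤ st.top k)
    (heD : ∀ F ∈ Fs, ∀ e, 0 < e → e ≤ e0 → cut st.S st.top (ind F e) ∈ D)
    (hdrop : ∀ F ∈ Fs, ∀ e, 0 < e → e ≤ e0 → ∀ᶠ l in (atTop : Filter ℕ),
      ν (x l + h l • cut st.S st.top (ind F e)) < ν (x l + h l • cut st.S st.top 0)) :
    ∃ k : ℕ → ℕ, Tendsto k U atTop ∧ ∀ k' : ℕ → ℕ, Tendsto k' U atTop →
      (∀ᶠ n in (U : Filter ℕ), k' n ≤ k n) → ∃ (B' : Base) (Gd : ∀ n, Finset (ι n))
        (s₀ : ∀ n, ι n) (Mx : ℕ → ℝ),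
        (∀ n, B'.d n = B.d n ^ h (k' n)) ∧ (∀ n, B'.L n = h (k' n) * B.L n) ∧
        (∀ i, B'.Sub (s i)) ∧ (∀ n, Gd n ⊆ J n) ∧
        (∀ c : ℕ → ℝ, IsLoss B' s c → ∀ᶠ n in (U : Filter ℕ),
          c n * ((J n \ Gd n).card : ℝ) ≤ (J n).card) ∧
        (∀ᶠ n in (U : Filter ℕ), s₀ n ∈ E n ∧ s₀ n ∈ Gd n) ∧
        (st.wnd B B' I J co M C (fun n => x (k' n)) (fun n => h (k' n)) D
          (fun n => B.d n ^ (-(ν (x (k' n))))) lam
          (fun n => cls (Gd n) (zlab B I co M C (fun n => x (k' n)) (fun n => h (k' n)) n 0)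
            (s₀ n)) s₀).Ok ∧
        ∀ F ∈ Fs, Tw (st.wnd B B' I J co M C (fun n => x (k' n)) (fun n => h (k' n)) D
          (fun n => B.d n ^ (-(ν (x (k' n))))) lam
          (fun n => cls (Gd n) (zlab B I co M C (fun n => x (k' n)) (fun n => h (k' n)) n 0)
            (s₀ n)) s₀) F s Mx := by
  obtain ⟨k, hk, hk2⟩ := exists_wnd_tw_ex hN hpos h0 htan hN.prof h0 htan hst s hs i₀ hE K a hd Fs
    he0 hFS heF heD hdrop
  refine ⟨k, hk, fun k' hk' hle => ?_⟩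
  obtain ⟨B', Gd, s₀, Mx, b1, b2, b3, b4, b5, b6, -, b8, b9⟩ := hk2 k' hk' hle
  exact ⟨B', Gd, s₀, Mx, b1, b2, b3, b4, b5, b6, b8, b9⟩

/-- **windows with raw twist inside an outer window**, with a second profile -/
theorem _root_.Crest.Agent.R136.Qg926.ZWin.exists_wnd_tw {B B₁ : Base} {I J : ∀ n, Finset (ι n)}
    {co : ∀ n, ι n → ι n → Fin m → ℝ} {M : Mons m} {C : ℝ} {X : ℕ → Fin m → ℝ} {w : ℕ → ℝ}
    {P : Set (Fin m → ℝ)} {T : ℕ → ℝ} {ν : (Fin m → ℝ) → ℝ}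
    (hN : ZWin B B₁ I J co M C X w P T ν)
    {x : ℕ → Fin m → ℝ} {b : ℝ} (hx : ∀ l, ‖x l‖ ≤ b) {h : ℕ → ℝ} (hpos : ∀ l, 0 < h l)
    (hh : Tendsto h atTop (𝓝 0)) {D : Set (Fin m → ℝ)}
    (h0 : (0 : Fin m → ℝ) ∈ D) {lam : (Fin m → ℝ) → ℝ} (htan : IsTan P D ν x h lam)
    {κ : ℕ → Type*} [∀ n, DecidableEq (κ n)] {ol : ∀ n, (Fin m → ℝ) → ι n → κ n}
    {Po Do : Set (Fin m → ℝ)} {To : ℕ → ℝ} (hTo : ∀ n, 0 < To n) {own lo : (Fin m → ℝ) → ℝ}
    (hO : ZProf B₁ J ol Po To own)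
    (h0o : (0 : Fin m → ℝ) ∈ Do) (htano : IsTan Po Do own x h lo)
    {st : WSt m} (hst : st.Ok M D) (s : ℕ → ℕ → ℝ) (hs : ∀ i, B₁.Sub (s i)) (i₀ : ∀ n, ι n)
    {E : ∀ n, Finset (ι n)} (hE : ∀ᶠ n in (U : Filter ℕ), E n ⊆ J n) (K a : ℕ)
    (hd : ∀ᶠ n in (U : Filter ℕ),
      ((J n).card : ℝ) ≤ (∏ i ∈ range K, (1 + |s i n|)) ^ a * (E n).card)
    (Fs : Finset (Finset (Fin m))) {e0 : ℝ} (he0 : 0 < e0) (hFS : ∀ F ∈ Fs, F ⊆ st.S)
    (heF : ∀ F ∈ Fs, ∀ k ∈ F, e0 ≤ st.top k)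
    (heD : ∀ F ∈ Fs, ∀ e, 0 < e → e ≤ e0 → cut st.S st.top (ind F e) ∈ D)
    (hdrop : ∀ F ∈ Fs, ∀ e, 0 < e → e ≤ e0 → ∀ᶠ l in (atTop : Filter ℕ),
      ν (x l + h l • cut st.S st.top (ind F e)) < ν (x l + h l • cut st.S st.top 0)) :
    ∃ k : ℕ → ℕ, Tendsto k U atTop ∧ ∀ k' : ℕ → ℕ, Tendsto k' U atTop →
      (∀ᶠ n in (U : Filter ℕ), k' n ≤ k n) → ∃ (B' : Base) (Gd : ∀ n, Finset (ι n))
        (s₀ : ∀ n, ι n) (Mx : ℕ → ℝ),
        (∀ n, B'.d n = B₁.d n ^ h (k' n)) ∧ (∀ n, B'.L n = h (k' n) * B₁.L n) ∧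
        (∀ i, B'.Sub (s i)) ∧ (∀ n, Gd n ⊆ J n) ∧
        (∀ c : ℕ → ℝ, IsLoss B' s c → ∀ᶠ n in (U : Filter ℕ),
          c n * ((J n \ Gd n).card : ℝ) ≤ (J n).card) ∧
        (∀ᶠ n in (U : Filter ℕ), s₀ n ∈ E n ∧ s₀ n ∈ Gd n) ∧
        ZProf B' J (fun n c => ol n (x (k' n) + h (k' n) • c)) Do
          (fun n => To n * B₁.d n ^ (-(own (x (k' n))))) lo ∧
        (st.wnd B B' I J co M C (fun n => X n + w n • x (k' n)) (fun n => w n * h (k' n)) D
          (fun n => T n * B₁.d n ^ (-(ν (x (k' n))))) lam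
          (fun n => cls (Gd n) (zlab B I co M C (fun n => X n + w n • x (k' n))
            (fun n => w n * h (k' n)) n 0) (s₀ n)) s₀).Ok ∧
        ∀ F ∈ Fs, Tw (st.wnd B B' I J co M C (fun n => X n + w n • x (k' n))
          (fun n => w n * h (k' n)) D (fun n => T n * B₁.d n ^ (-(ν (x (k' n))))) lam
          (fun n => cls (Gd n) (zlab B I co M C (fun n => X n + w n • x (k' n))
            (fun n => w n * h (k' n)) n 0) (s₀ n)) s₀) F s Mx := by
  classical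
  obtain ⟨k1, hk1, hk1'⟩ := hN.exists_zoom hx hpos hh h0 htan hTo hO h0o htano s hs
  have htop : ∀ k, 0 ≤ st.top k := fun k => hst.top_leg.1.nonneg k
  obtain ⟨k2, hk2, hk2'⟩ := hN.exists_tw hpos st.S st.top Fs he0 hFS htop heF
    (by
      filter_upwards [htan.ev h0 one_pos, htan.ev (hst.leg hst.top_leg) one_pos,
        htan.ev (hst.leg hst.lin_leg) one_pos] with l a1 a2 a3
      refine ⟨?_, a2.1, a3.1⟩
      have := a1.1
      rwa [smul_zero, add_zero] at this)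
    (fun F hF e he he' => (htan.ev (heD F hF e he he') one_pos).mono fun l hl => hl.1)
    hdrop s hs
  refine ⟨fun n => min (k1 n) (k2 n), tendsto_min_top hk1 hk2, fun k' hk' hle => ?_⟩
  obtain ⟨B', b1, b2, b3, b4, b5⟩ := hk1' k' hk' (hle.mono fun n hn => hn.trans (min_le_left _ _))
  obtain ⟨Gd, Mx, g1, g2, g3⟩ := hk2' k' hk' (hle.mono fun n hn => hn.trans (min_le_right _ _))
  obtain ⟨s₀, c1, c2, c3⟩ := wnd_tw_core b4 hst i₀ (Mx := Mx) (Fs := Fs) g1 hE b3 K a hd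
    (g2 B' b1) (fun W hW hB hI hJ hco hM hC hX hw hB' hS ht hCl F hF =>
      g3 W hW hB hI hJ hco hM hC hX hw (fun n => by rw [hB']; exact b1 n) hS ht hCl F hF)
  exact ⟨B', Gd, s₀, Mx, b1, b2, b3, g1, g2 B' b1, c1, b5, c2, c3⟩

end Crest.Agent.R136.Qg4480
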