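import Crest.Agent.R136.Qg5_926

/-!
# R136: zoom inside a zoomed profile (helper926)

* `exists_zzoom` : finitely many `ZProf`'s (base `B`), one blow-up sequence with moving base points:
  slower speeds give `ZProf`'s for the base `B ^ h`.
* `ZWin.exists_zoom` : a zoom window inside a zoom window (with a second profile).
-/

set_option autoImplicit false
set_option linter.unusedSectionVars false
set_option linter.unusedVariables false

open Filter Topology

namespace Crest.Agent.R136.Qg926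

open Finset Crest.Agent.R138.Ex926 Crest.Agent.R136.Net191 Crest.Agent.R136.Gf356

variable {m : ℕ} {ι : ℕ → Type*} [∀ n, DecidableEq (ι n)]

theorem zprof_comp' {B : Base} {κ κ' : ℕ → Type*} [∀ n, DecidableEq (κ n)]
    [∀ n, DecidableEq (κ' n)] {V : Type*} [LE V] [Norm V] {J : ∀ n, Finset (ι n)}
    {f : ∀ n, V → ι n → κ n} {P : Set V} {T : ℕ → ℝ} {ν : V → ℝ} (e : ∀ n, κ n → κ' n)
    (he : ∀ n, Function.Injective (e n)) (h : ZProf B J f P T ν) :
    ZProf B J (fun n p i => e n (f n p i)) P T ν where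
  up := fun C ε hε => by
    filter_upwards [h.up C ε hε] with n hn p hp hpC i hi
    rw [cls_comp (he n)]
    exact hn p hp hpC i hi
  num := fun C ε hε => by
    filter_upwards [h.num C ε hε] with n hn q hq hqC p hp hpC hqp i hi
    rw [cls_comp (he n), card_image_comp (he n)]
    exact hn q hq hqC p hp hpC hqp i hi
  root := fun C ε hε => by
    filter_upwards [h.root C ε hε] with n hn p hp hpC
    rw [card_image_comp (he n)]
    exact hn p hp hpC

theorem zoom_zoom (X x c : Fin m → ℝ) (w h : ℝ) :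
    X + w • x + (w * h) • c = X + w • (x + h • c) := by
  rw [smul_add, mul_smul, add_assoc]

theorem exists_zzoom (B : Base) {J : Type*} [Finite J] {I : ∀ n, Finset (ι n)}
    {κ : J → ℕ → Type*} [∀ j n, DecidableEq (κ j n)]
    {f : ∀ (j : J) (n : ℕ), (Fin m → ℝ) → ι n → κ j n} {P D : J → Set (Fin m → ℝ)}
    {T : J → ℕ → ℝ} (hT : ∀ j n, 0 < T j n)
    {ν lam : J → (Fin m → ℝ) → ℝ} (hν : ∀ j, ZProf B I (f j) (P j) (T j) (ν j))
    {x : ℕ → (Fin m → ℝ)} {h : ℕ → ℝ} (hpos : ∀ l, 0 < h l)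
    (hD : ∀ j, 0 ∈ D j) (htan : ∀ j, IsTan (P j) (D j) (ν j) x h (lam j))
    (s : ℕ → ℕ → ℝ) (hs : ∀ i, B.Sub (s i)) :
    ∃ k : ℕ → ℕ, Tendsto k U atTop ∧ ∀ k' : ℕ → ℕ, Tendsto k' U atTop →
      (∀ᶠ n in (U : Filter ℕ), k' n ≤ k n) → ∃ B' : Base,
        (∀ n, B'.d n = B.d n ^ h (k' n)) ∧ (∀ n, B'.L n = h (k' n) * B.L n) ∧
        (∀ i, B'.Sub (s i)) ∧
        ∀ j, ZProf B' I (fun n c => f j n (x (k' n) + h (k' n) • c)) (D j)
          (fun n => T j n * B.d n ^ (-(ν j (x (k' n))))) (lam j) := by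
  classical
  set e : ℕ → ℝ := fun l => h l / ((l : ℝ) + 1) with he
  have he0 : ∀ l, 0 < e l := fun l => div_pos (hpos l) (by positivity)
  set b : ℕ → ℝ := fun l => ‖x l‖ + h l * l with hb
  obtain ⟨k, hk, hk2⟩ := exists_diag (fun l n =>
    ((l : ℝ) ≤ h l * B.L n) ∧ (∀ i ≤ l, 0 < s i n ∧ |B.lg (s i) n| ≤ e l) ∧
    (∀ j, (∀ p ∈ P j, ‖p‖ ≤ b l → ∀ i ∈ I n,
        ((cls (I n) (f j n p) i).card : ℝ) ≤ T j n * B.d n ^ (-(ν j p + e l))) ∧
      (∀ q ∈ P j, ‖q‖ ≤ b l → ∀ p ∈ P j, ‖p‖ ≤ b l → q ≤ p → ∀ i ∈ I n,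
        (((cls (I n) (f j n q) i).image (f j n p)).card : ℝ) ≤ B.d n ^ (-(ν j q - ν j p + e l))) ∧
      (∀ p ∈ P j, ‖p‖ ≤ b l → (((I n).image (f j n p)).card : ℝ) * T j n ≤
        (I n).card * B.d n ^ (ν j p - e l)))) (by
    intro l
    have h1 : ∀ᶠ n in (U : Filter ℕ), ∀ i ∈ Finset.range (l + 1), 0 < s i n ∧ |B.lg (s i) n| ≤ e l := by
      rw [Filter.eventually_all_finset]
      intro i _
      obtain ⟨a1, a2⟩ := Base.Sub.iff.1 (hs i)
      have a3 := (Metric.tendsto_nhds.1 a2) (e l) (he0 l)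
      filter_upwards [a1, a3] with n b1 b2
      rw [Real.dist_eq, sub_zero] at b2
      exact ⟨b1, b2.le⟩
    have h2 : ∀ᶠ n in (U : Filter ℕ), (l : ℝ) ≤ h l * B.L n := by
      filter_upwards [B.ev_L_ge ((l : ℝ) / h l)] with n hn
      rw [div_le_iff₀ (hpos l)] at hn
      linarith
    have h3 := Filter.eventually_all.2 fun j => ((hν j).up (b l) (e l) (he0 l)).and
      (((hν j).num (b l) (e l) (he0 l)).and ((hν j).root (b l) (e l) (he0 l)))
    filter_upwards [h1, h2, h3] with n a1 a2 a3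
    exact ⟨a2, fun i hi => a1 i (Finset.mem_range.2 (Nat.lt_succ_of_le hi)), a3⟩)
  refine ⟨k, hk, fun k' hk' hle => ?_⟩
  have hev := hk2.and hle
  replace hev := hev.mono fun n hn => hn.1 _ hn.2
  have hL : Tendsto (fun n => h (k' n) * B.L n) U atTop := by
    have h1 : Tendsto (fun n => (k' n : ℝ)) U atTop := tendsto_natCast_atTop_atTop.comp hk'
    exact tendsto_atTop_mono' _ (hev.mono fun n hn => hn.1) h1
  set B' : Base := B.chg (fun n => h (k' n)) (fun n => hpos _) hL with hB'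
  have hsm : ∀ ε : ℝ, 0 < ε → ∀ᶠ n in (U : Filter ℕ), e (k' n) ≤ ε * h (k' n) := by
    intro ε hε
    obtain ⟨N, hN⟩ := exists_nat_gt (1 / ε)
    filter_upwards [hk'.eventually_ge_atTop N] with n hn
    have h2 : (N : ℝ) ≤ k' n := by exact_mod_cast hn
    have h3 : 1 / ((k' n : ℝ) + 1) ≤ ε := by
      rw [div_le_iff₀ (by positivity)]
      rw [div_lt_iff₀ hε] at hN
      nlinarith
    have h4 := mul_le_mul_of_nonneg_right h3 (hpos (k' n)).le
    calc e (k' n) = 1 / ((k' n : ℝ) + 1) * h (k' n) := by rw [he]; simp only; ring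
      _ ≤ _ := h4
  have hnorm : ∀ C : ℝ, ∀ᶠ n in (U : Filter ℕ), ∀ c : Fin m → ℝ, ‖c‖ ≤ C →
      ‖x (k' n) + h (k' n) • c‖ ≤ b (k' n) := by
    intro C
    obtain ⟨N, hN⟩ := exists_nat_ge C
    filter_upwards [hk'.eventually_ge_atTop N] with n hn c hc
    have h1 : (N : ℝ) ≤ k' n := by exact_mod_cast hn
    have h2 := hpos (k' n)
    refine (norm_add_le _ _).trans ?_
    rw [norm_smul, Real.norm_of_nonneg h2.le]
    have : h (k' n) * ‖c‖ ≤ h (k' n) * k' n := mul_le_mul_of_nonneg_left (by linarith) h2.le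
    simp only [hb]
    linarith
  have hd' : ∀ n t, B'.d n ^ t = B.d n ^ (h (k' n) * t) := by
    intro n t
    show (B.d n ^ h (k' n)) ^ t = _
    rw [← Real.rpow_mul (B.pos n).le]
  have hmon : ∀ n {a b : ℝ}, a ≤ b → B.d n ^ b ≤ B.d n ^ a := fun n a b hab =>
    Real.rpow_le_rpow_of_exponent_ge (B.pos n) (B.lt n).le hab
  refine ⟨B', fun n => rfl, fun n => B.chg_L _ _ hL n, fun i => ?_, fun j => ⟨?_, ?_, ?_⟩⟩
  · rw [Base.Sub.iff]
    refine ⟨(hs i).1.pos, ?_⟩
    rw [Metric.tendsto_nhds]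
    intro ε hε
    filter_upwards [hev, hsm (ε / 2) (by positivity), hk'.eventually_ge_atTop i] with n h1 h2 h3
    rw [Real.dist_eq, sub_zero, hB', Base.chg_lg, abs_div, abs_of_pos (hpos _),
      div_lt_iff₀ (hpos _)]
    have h4 := (h1.2.1 i h3).2
    have h5 := hpos (k' n)
    nlinarith
  · intro C ε hε
    have ht := hk'.eventually (htan j (max C 0) (ε / 2) (by positivity))
    filter_upwards [hev, hsm (ε / 2) (by positivity), ht, hnorm C] with n h1 h2 h3 h6 c hc hcC i hi
    obtain ⟨a1, a2⟩ := h3 c hc (hcC.trans (le_max_left _ _))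
    refine ((h1.2.2 j).1 _ a1 (h6 c hcC) i hi).trans ?_
    rw [hd', mul_assoc, ← Real.rpow_add (B.pos n)]
    refine mul_le_mul_of_nonneg_left (hmon n ?_) (hT j n).le
    obtain ⟨b1, b2⟩ := abs_le.1 a2
    nlinarith
  · intro C ε hε
    have ht := hk'.eventually (htan j (max C 0) (ε / 3) (by positivity))
    filter_upwards [hev, hsm (ε / 3) (by positivity), ht, hnorm C] with
      n h1 h2 h3 h6 c hc hcC c' hc' hcC' hcc i hi
    obtain ⟨a1, a2⟩ := h3 c hc (hcC.trans (le_max_left _ _))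
    obtain ⟨a1', a2'⟩ := h3 c' hc' (hcC'.trans (le_max_left _ _))
    have hord : x (k' n) + h (k' n) • c ≤ x (k' n) + h (k' n) • c' :=
      add_smul_mono (hpos _).le hcc
    refine ((h1.2.2 j).2.1 _ a1 (h6 c hcC) _ a1' (h6 c' hcC') hord i hi).trans ?_
    rw [hd']
    refine hmon n ?_
    obtain ⟨b1, b2⟩ := abs_le.1 a2
    obtain ⟨b1', b2'⟩ := abs_le.1 a2'
    nlinarith
  · intro C ε hε
    have ht := hk'.eventually (htan j (max C 0) (ε / 2) (by positivity))
    filter_upwards [hev, hsm (ε / 2) (by positivity), ht, hnorm C] with n h1 h2 h3 h6 c hc hcC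
    obtain ⟨a1, a2⟩ := h3 c hc (hcC.trans (le_max_left _ _))
    have h4 := (h1.2.2 j).2.2 _ a1 (h6 c hcC)
    have hdp := Real.rpow_pos_of_pos (B.pos n) (-(ν j (x (k' n))))
    calc (((I n).image (f j n (x (k' n) + h (k' n) • c))).card : ℝ) *
          (T j n * B.d n ^ (-(ν j (x (k' n)))))
        = ((((I n).image (f j n (x (k' n) + h (k' n) • c))).card : ℝ) * T j n) *
          B.d n ^ (-(ν j (x (k' n)))) := by ring
      _ ≤ ((I n).card * B.d n ^ (ν j (x (k' n) + h (k' n) • c) - e (k' n))) *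
          B.d n ^ (-(ν j (x (k' n)))) := mul_le_mul_of_nonneg_right h4 hdp.le
      _ = (I n).card * B.d n ^ (ν j (x (k' n) + h (k' n) • c) - e (k' n) - ν j (x (k' n))) := by
          rw [mul_assoc, ← Real.rpow_add (B.pos n)]; congr 2
      _ ≤ (I n).card * B'.d n ^ (lam j c - ε) := by
          refine mul_le_mul_of_nonneg_left ?_ (Nat.cast_nonneg _)
          rw [hd']
          refine hmon n ?_
          obtain ⟨b1, b2⟩ := abs_le.1 a2
          nlinarith

section

variable {B B₁ : Base} {I J : ∀ n, Finset (ι n)} {co : ∀ n, ι n → ι n → Fin m → ℝ}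
  {M : Mons m} {C : ℝ} {X : ℕ → Fin m → ℝ} {w : ℕ → ℝ} {P : Set (Fin m → ℝ)} {T : ℕ → ℝ}
  {ν : (Fin m → ℝ) → ℝ}

/-- **a zoom window inside a zoom window**, with a second profile; `x l` = bounded moving base
points in window units -/
theorem ZWin.exists_zoom (hN : ZWin B B₁ I J co M C X w P T ν)
    {x : ℕ → Fin m → ℝ} {b : ℝ} (hx : ∀ l, ‖x l‖ ≤ b) {h : ℕ → ℝ} (hpos : ∀ l, 0 < h l)
    (hh : Tendsto h atTop (𝓝 0)) {D : Set (Fin m → ℝ)}
    (h0 : (0 : Fin m → ℝ) ∈ D) {lam : (Fin m → ℝ) → ℝ} (htan : IsTan P D ν x h lam)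
    {κ : ℕ → Type*} [∀ n, DecidableEq (κ n)] {ol : ∀ n, (Fin m → ℝ) → ι n → κ n}
    {Po Do : Set (Fin m → ℝ)} {To : ℕ → ℝ} (hTo : ∀ n, 0 < To n) {own lo : (Fin m → ℝ) → ℝ}
    (hO : ZProf B₁ J ol Po To own)
    (h0o : (0 : Fin m → ℝ) ∈ Do) (htano : IsTan Po Do own x h lo)
    (s : ℕ → ℕ → ℝ) (hs : ∀ i, B₁.Sub (s i)) :
    ∃ k : ℕ → ℕ, Tendsto k U atTop ∧ ∀ k' : ℕ → ℕ, Tendsto k' U atTop →
      (∀ᶠ n in (U : Filter ℕ), k' n ≤ k n) → ∃ B' : Base,
        (∀ n, B'.d n = B₁.d n ^ h (k' n)) ∧ (∀ n, B'.L n = h (k' n) * B₁.L n) ∧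
        (∀ i, B'.Sub (s i)) ∧
        ZWin B B' I J co M C (fun n => X n + w n • x (k' n)) (fun n => w n * h (k' n)) D
          (fun n => T n * B₁.d n ^ (-(ν (x (k' n))))) lam ∧
        ZProf B' J (fun n c => ol n (x (k' n) + h (k' n) • c)) Do
          (fun n => To n * B₁.d n ^ (-(own (x (k' n))))) lo := by
  classical
  set f : ∀ (b : Bool) (n : ℕ), (Fin m → ℝ) → ι n → ι n ⊕ κ n := fun b n p i =>
    match b with
    | true => Sum.inl (zlab B I co M C X w n p i)
    | false => Sum.inr (ol n p i) with hf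
  set Pb : Bool → Set (Fin m → ℝ) := fun b => match b with
    | true => P
    | false => Po with hPb
  set Db : Bool → Set (Fin m → ℝ) := fun b => match b with
    | true => D
    | false => Do with hDb
  set Tb : Bool → ℕ → ℝ := fun b => match b with
    | true => T
    | false => To with hTb
  set νb : Bool → (Fin m → ℝ) → ℝ := fun b => match b with
    | true => ν
    | false => own with hνb
  set lb : Bool → (Fin m → ℝ) → ℝ := fun b => match b with
    | true => lam
    | false => lo with hlb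
  obtain ⟨k0, hk0, hk2⟩ := exists_zzoom B₁ (J := Bool) (I := J) (κ := fun _ n => ι n ⊕ κ n)
    (f := f) (P := Pb) (D := Db) (T := Tb) (ν := νb) (lam := lb) (fun b n => by
      cases b with
      | true => exact hN.T0 n
      | false => exact hTo n) (fun b => by
      cases b with
      | true => exact zprof_comp' (fun n => Sum.inl) (fun n => Sum.inl_injective) hN.prof
      | false => exact zprof_comp' (fun n => Sum.inr) (fun n => Sum.inr_injective) hO)
    (x := x) (h := h) hpos (fun b => by cases b <;> assumption)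
    (fun b => by cases b <;> assumption) s hs
  refine ⟨k0, hk0, fun k' hk' hle => ?_⟩
  obtain ⟨B', b1, b2, b3, b4⟩ := hk2 k' hk' hle
  refine ⟨B', b1, b2, b3,
    { chart := hN.chart, sub := hN.sub, ne := hN.ne, w0 := fun n => mul_pos (hN.w0 n) (hpos _)
      base := fun n => by
        rw [b1, hN.base, ← Real.rpow_mul (B.pos n).le]
      zero := h0
      legal := fun K => by
        have hsm : ∀ᶠ n in (U : Filter ℕ), h (k' n) * max K 0 ≤ 1 := by
          have h1 : Tendsto (fun n => h (k' n) * max K 0) U (𝓝 (0 * max K 0)) :=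
            (hh.comp hk').mul_const _
          rw [zero_mul] at h1
          exact (h1.eventually_lt_const one_pos).mono fun n hn => hn.le
        filter_upwards [hk'.eventually (htan K 1 one_pos), hN.legal (b + 1), hsm]
          with n hn hl hs1 c hc hcK
        rw [zoom_zoom]
        refine hl _ (hn c hc hcK).1 ?_
        refine (norm_add_le _ _).trans (add_le_add (hx _) ?_)
        rw [norm_smul, Real.norm_of_nonneg (hpos _).le]
        exact (mul_le_mul_of_nonneg_left (hcK.trans (le_max_left _ _)) (hpos _).le).trans hs1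
      prof := ?_
      lam0 := htan.zero hpos h0
      T0 := fun n => mul_pos (hN.T0 n) (Real.rpow_pos_of_pos (B₁.pos n) _)
      lip := htan.lip hpos hN.lip
      anti := htan.anti hpos (fun l c c' hcc => add_smul_mono (hpos l).le hcc) hN.anti
      sharp := tan_sharp htan hpos hN.sharp
      submod := fun c hc c' hc' hi hsup => htan.submod hpos hN.submod hc hc' hi hsup }, ?_⟩
  · have h1 := zprof_comp (fun n => Sum.inl) (fun n => Sum.inl_injective) (b4 true)
    have e1 : (fun (n : ℕ) (c : Fin m → ℝ) => zlab B I co M C X w n (x (k' n) + h (k' n) • c)) =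
        zlab B I co M C (fun n => X n + w n • x (k' n)) (fun n => w n * h (k' n)) := by
      funext n c
      show nlab B I co M C n (X n + w n • (x (k' n) + h (k' n) • c)) =
        nlab B I co M C n (X n + w n • x (k' n) + (w n * h (k' n)) • c)
      rw [zoom_zoom]
    rw [← e1]
    exact h1
  · exact zprof_comp (fun n => Sum.inr) (fun n => Sum.inr_injective) (b4 false)

end

end Crest.Agent.R136.Qg926
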