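import Crest.Agent.R136.QdW_887

/-!
# R136, thin branch (helper887): one point of a rung, dropped slots matter only at negative boxes

`PtN` = `PtB` (938) where the independence of the dropped slots is only known at vectors which are
`≥ 0` off the dropped slots (stages of 774 with more never-dropped slots `Z`).  `slot`, windows with
`S = {0}`, the base, the end of a row.
-/

set_option autoImplicit false
set_option linter.unusedSectionVars false
set_option linter.unusedVariables false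

open Filter Topology

namespace Crest.Agent.R136.Qgn887

open Finset Crest.Agent.R138.Ex926 Crest.Agent.R136.Net191 Crest.Agent.R136.Gf356
open Crest.Agent.R136.Qg926 Crest.Agent.R136.Dg219 Crest.Agent.R136.Aw413
open Crest.Agent.R136.NetW191 Crest.Agent.R136.EvW938 Crest.Agent.R136.PrW464
open Crest.Agent.R136.LadW697 Crest.Agent.R136.AwJ774 Crest.Agent.R136.Bas938
open Crest.Agent.R136.Ht887 Crest.Agent.R136.Win887
open Crest.Agent.R136.RowW619 Crest.Agent.R136.BaseW619 Crest.Agent.R136.LfW619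
open Crest.Agent.R136.Lf400
open Crest.Agent.R136.K2S774 (cn)

/-- **one point of a rung**, weak independence of the dropped slots -/
structure PtN (B Bo : Base) (I J : ∀ n : ℕ, Finset (ℕ × ℝ))
    (co : ∀ n : ℕ, ℕ × ℝ → ℕ × ℝ → Fin 18 → ℝ) (kp : ℕ → ℝ) (u : ℕ → Fin 18 → ℝ)
    (F : ∀ n : ℕ, ℕ × ℝ → FW) (Ma : Mons 18) (Dr : Set (Fin 18)) (C : ℝ)
    (lam : (Fin 18 → ℝ) → ℝ) (a b : Fin 18 → ℝ) (A : ℝ × ℝ) (φ : ℕ → (Fin 18 → ℝ) → ℝ)
    (r : ℕ → ℝ) (κ : Fin 18 → ℝ) (V Tw : Fin 18 → Prop) : Prop where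
  aew : AeW B Bo I J co monW Ma C lam a b A φ r 0 1 κ V Tw
  ch : ChW Bo I J co kp u F
  act : ActM Ma Dr
  ind : ∀ c ∈ coneM Ma, ∀ c' ∈ coneM Ma, (∀ i, i ∉ Dr → 0 ≤ c i) →
    (∀ i, i ∉ Dr → c i = c' i) → lam c = lam c'

section pt

variable {B Bo : Base} {I J : ∀ n : ℕ, Finset (ℕ × ℝ)}
  {co : ∀ n : ℕ, ℕ × ℝ → ℕ × ℝ → Fin 18 → ℝ} {kp : ℕ → ℝ} {u : ℕ → Fin 18 → ℝ}
  {F : ∀ n : ℕ, ℕ × ℝ → FW} {Ma : Mons 18} {Dr : Set (Fin 18)} {C : ℝ}
  {lam : (Fin 18 → ℝ) → ℝ} {a b : Fin 18 → ℝ} {A : ℝ × ℝ} {φ : ℕ → (Fin 18 → ℝ) → ℝ}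
  {r : ℕ → ℝ} {κ : Fin 18 → ℝ} {V Tw : Fin 18 → Prop}

/-- a point with strong independence -/
theorem PtN.of_ptB (h : PtB B Bo I J co kp u F Ma Dr C lam a b A φ r κ V Tw) :
    PtN B Bo I J co kp u F Ma Dr C lam a b A φ r κ V Tw :=
  ⟨h.aew, h.ch, h.act, fun c hc c' hc' _ e => h.ind c hc c' hc' e⟩

/-- loss of one slot: only the other slots of its group which are not dropped matter -/
theorem PtN.slot (h : PtN B Bo I J co kp u F Ma Dr C lam a b A φ r κ V Tw) {i : Fin 18}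
    {c c' d d' : Fin 18 → ℝ} (hc : c ∈ coneM Ma) (hc' : c' ∈ coneM Ma) (hd : d ∈ coneM Ma)
    (hd' : d' ∈ coneM Ma) (pc : ∀ j, j ∉ Dr → 0 ≤ c j) (pc' : ∀ j, j ∉ Dr → 0 ≤ c' j)
    (pd : ∀ j, j ∉ Dr → 0 ≤ d j) (pd' : ∀ j, j ∉ Dr → 0 ≤ d' j)
    (h1 : ∀ j, j ≠ i → j ∉ Dr → c j = c' j)
    (h2 : ∀ j, j ≠ i → j ∉ Dr → d j = d' j) (hci : c i = d i) (hci' : c' i = d' i)
    (h3 : ∀ j, gC a b j = gC a b i → j ≠ i → j ∉ Dr → c j = d j) :
    lam c - lam c' = lam d - lam d' := by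
  by_cases hi : i ∈ Dr
  · rw [h.ind c hc c' hc' pc fun j hj => h1 j (fun e => hj (e ▸ hi)) hj,
      h.ind d hd d' hd' pd fun j hj => h2 j (fun e => hj (e ▸ hi)) hj]
    ring
  · have key : ∀ x ∈ coneM Ma, (∀ j, j ∉ Dr → 0 ≤ x j) → lam x = lam (hat Dr x) := fun x hx px =>
      h.ind x hx _ (h.act.hat hx) px fun j hj => (hat_not x hj).symm
    rw [key c hc pc, key c' hc' pc', key d hd pd, key d' hd' pd']
    refine loss_slot h.aew.out i (h.act.hat hc) (h.act.hat hc') (h.act.hat hd) (h.act.hat hd')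
      (fun j hj => ?_) (fun j hj => ?_) (fun j hj => ?_) (by rw [hat_not _ hi, hat_not _ hi, hci'])
    · by_cases hjD : j ∈ Dr
      · rw [hat_mem _ hjD, hat_mem _ hjD]
      · rw [hat_not _ hjD, hat_not _ hjD, h1 j hj hjD]
    · by_cases hjD : j ∈ Dr
      · rw [hat_mem _ hjD, hat_mem _ hjD]
      · rw [hat_not _ hjD, hat_not _ hjD, h2 j hj hjD]
    · by_cases hjD : j ∈ Dr
      · rw [hat_mem _ hjD, hat_mem _ hjD]
      · rw [hat_not _ hjD, hat_not _ hjD]
        by_cases e : j = i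
        · rw [e, hci]
        · exact h3 j hj e hjD

/-- **density and Frostman conditions for `S = {0}`**, no condition on the groups -/
theorem PtN.dens0 (h : PtN B Bo I J co kp u F Ma Dr C lam a b A φ r κ V Tw)
    {n0 nt : Fin 18 → ℕ} {rr : ℕ} (hd : WDat n0 nt rr {0}) {y : ℝ} (hy : 0 < y)
    (hV : ∀ k, V k → n0 k + nt k = 0) :
    (wst Ma n0 nt rr {0} y).Dens (fun p => lam (scV y n0 + p) - lam (scV y n0)) 1 y where
  dens := by
    have hst := wst_ok h.act hd hy.le
    have h0 := (off_mem h.act hd hy.le).1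
    have m1 : scV y n0 + scV y nt ∈ coneM Ma := hst.leg hst.top_leg
    have m2 : scV y n0 + cut {0} (scV y nt) 0 ∈ coneM Ma := hst.leg hst.lin_leg
    have m3 : scV y n0 + cut {0} 0 (scV y nt) ∈ coneM Ma := hst.leg hst.lev_leg
    have hz0 : scV y n0 0 = 0 := by simp [scV, hd.z0]
    have hnt : ∀ k, 0 ≤ scV y nt k := fun k => by unfold scV; positivity
    have e1 := h.aew.own _ m2 _ m1 (fun k => by
      simp only [Pi.add_apply]
      by_cases hk : k ∈ ({0} : Finset (Fin 18))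
      · rw [cut_of_mem hk, Pi.zero_apply, add_zero]; have := hnt k; linarith
      · rw [cut_of_notMem hk]) (fun k hk => by
      have h1 := hV k hk
      have h2 : n0 k = 0 := by omega
      have h3 : nt k = 0 := by omega
      rw [Pi.add_apply, Pi.add_apply, hz0, cut_of_mem (mem_singleton_self 0)]
      by_cases hk0 : k ∈ ({0} : Finset (Fin 18))
      · rw [cut_of_mem hk0]; simp [scV, h2]
      · rw [cut_of_notMem hk0]; simp [scV, h2, h3])
    have e2 := h.aew.sharp _ h0 _ m3 (fun k => by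
      rw [Pi.add_apply]
      by_cases hk : k ∈ ({0} : Finset (Fin 18))
      · rw [cut_of_mem hk]; have := hnt k; linarith
      · rw [cut_of_notMem hk, Pi.zero_apply, add_zero])
    have e3 : ∑ s, ((scV y n0 + cut {0} 0 (scV y nt)) s - scV y n0 s) = scV y nt 0 := by
      rw [sum_eq_single_of_mem (0 : Fin 18) (mem_univ _)]
      · rw [Pi.add_apply, cut_of_mem (mem_singleton_self 0)]; ring
      · intro j _ hj
        rw [Pi.add_apply, cut_of_notMem (by rw [mem_singleton]; exact hj), Pi.zero_apply]; ring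
    rw [e3] at e2
    rw [Pi.add_apply, Pi.add_apply, cut_of_mem (mem_singleton_self 0), Pi.zero_apply, add_zero,
      one_mul] at e1
    show lam (scV y n0 + scV y nt) - lam (scV y n0) ≤
      (lam (scV y n0 + cut {0} (scV y nt) 0) - lam (scV y n0)) +
      (lam (scV y n0 + cut {0} 0 (scV y nt)) - lam (scV y n0))
    linarith
  σ0 := zero_le_one
  σ1 := le_rfl
  hR := by
    show y ≤ scV y nt 0
    have : (1 : ℝ) ≤ nt 0 := by exact_mod_cast hd.zt
    simp only [scV]; nlinarith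
  frost := fun t ht _ => by
    have hz0 : scV y n0 0 = 0 := by simp [scV, hd.z0]
    obtain ⟨h0, h1⟩ := off_mem h.act hd hy.le
    exact h.aew.frostO h0 (fun k hk => by
      have h1 := hV k hk
      have h2 : n0 k = 0 := by omega
      rw [hz0, mul_zero]; simp [scV, h2]) ht (h1 t ht)

/-- **window, pruned set, model, raw twist from the density condition** -/
theorem PtN.win_of_dens (h : PtN B Bo I J co kp u F Ma Dr C lam a b A φ r κ V Tw)
    {n0 nt : Fin 18 → ℕ} {rr : ℕ} {S : Finset (Fin 18)} (hd : WDat n0 nt rr S) {y : ℝ}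
    (hy : 0 < y)
    (hden : (wst Ma n0 nt rr S y).Dens (fun p => lam (scV y n0 + p) - lam (scV y n0)) 1 y)
    (hV0 : ∀ k, V k → n0 k = 0) (hVS : ∀ k, V k → k ∈ S ∨ nt k = 0) :
    ∃ (W : Wnd 18 fun _ => ℕ × ℝ) (E : ∀ n : ℕ, Finset (ℕ × ℝ)),
      WinB Ma Dr kp u F lam Tw n0 nt rr S y W E := by
  have hA := h.act
  have hst := wst_ok hA hd hy.le
  have hz0 : scV y n0 0 = 0 := by simp [scV, hd.z0]
  have h0 : scV y n0 ∈ coneM Ma := (off_mem hA hd hy.le).1
  have hc0 : ∀ k, V k → scV y n0 k ≤ κ k * scV y n0 0 := fun k hk => by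
    rw [hz0, mul_zero]; simp [scV, hV0 k hk]
  obtain ⟨W, g1, g2, g3⟩ := h.aew.wndO (scV y n0) h0 (wst Ma n0 nt rr S y) rfl hst
    (fun _ n => |kp n|⁻¹) (fun _ => h.ch.ks) J (fun _ => 1)
    (Eventually.of_forall fun n => Subset.refl _) h.ch.ne (Base.Sub.const one_pos)
    (Eventually.of_forall fun n => by rw [one_mul])
  obtain ⟨E, g, q1, q2, q3, q4⟩ := g1.model hden (fun _ _ _ => 0) (g₀ := fun n => 1 + W.B'.L n)
    (tendsto_atTop.2 fun b => (W.B'.ev_L_ge b).mono fun n hn => by linarith) hc0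
    (fun k hk => (hVS k hk).imp id fun h2 => by
      show scV y nt k = 0
      simp [scV, h2])
  refine ⟨W, E, ⟨?_, ?_, q3, g1.eS, g1.etop, g1.ekap, g1.elam, g1.eMw, g1.eR, ?_, ?_, ?_⟩⟩
  · exact
      { ok := g1.ok
        hκ := h.ch.k1
        hl := h.ch.gr
        hM := g1.eM
        hco := fun n i hi j hj s => by
          rw [g1.eI] at hi hj
          rw [g1.eco]
          exact h.ch.co n i hi j hj s
        kz := g1.ekz
        h0 := by rw [g1.eS]; exact hd.zS
        hS := by rw [g1.eS]; exact hd.hS }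
  · filter_upwards [Wnd.ev_cfg g1.ok g1.ok.eok_section q1] with n hn
    exact ⟨hn.1, (q1.sub n).trans hn.2.1, hn.2.2.2⟩
  · intro ε hε
    filter_upwards [(g2 0).ev_le hε, (g2 0).1.pos] with n hn hpos
    have h3 : 0 < |kp n| := inv_pos.1 hpos
    have h4 : 0 < W.B'.d n ^ ε := Real.rpow_pos_of_pos (W.B'.pos n) _
    have h5 := hn.2
    rw [Real.log_inv] at h5
    rw [Real.rpow_def_of_pos (W.B'.pos n), ← Real.exp_log h3]
    refine Real.exp_le_exp.2 ?_
    unfold Base.L at h5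
    linarith
  · intro k hk l hl hls hn0 n
    have h1 := g1.off k _ ((hA.iff k _).2 ⟨hk, l, hl, hls, rfl⟩) n
    rw [← sum_count, ← sum_count, sum_scV] at h1
    have h2 : y * (((l.map n0).sum : ℕ) : ℝ) - scV y n0 k = 0 := by
      rw [← hn0]; simp [scV]
    rw [h2, zero_mul, add_zero] at h1
    exact h1
  · intro s hs hT hnt hn0 he
    refine q4 s hs hT ?_ ?_ he
    · show 0 < scV y nt s
      have : (0:ℝ) < nt s := by exact_mod_cast Nat.pos_of_ne_zero hnt
      simp only [scV]; positivity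
    · show scV y n0 s = κ s * scV y n0 0
      rw [hz0, mul_zero]; simp [scV, hn0]

/-- **window with `S = {0}`**, no condition on the groups -/
theorem PtN.win0 (h : PtN B Bo I J co kp u F Ma Dr C lam a b A φ r κ V Tw)
    {n0 nt : Fin 18 → ℕ} {rr : ℕ} (hd : WDat n0 nt rr {0}) {y : ℝ} (hy : 0 < y)
    (hV : ∀ k, V k → n0 k + nt k = 0) :
    ∃ (W : Wnd 18 fun _ => ℕ × ℝ) (E : ∀ n : ℕ, Finset (ℕ × ℝ)),
      WinB Ma Dr kp u F lam Tw n0 nt rr {0} y W E :=
  PtN.win_of_dens h hd hy (PtN.dens0 h hd hy hV) (fun k hk => by have := hV k hk; omega)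
    fun k hk => Or.inr (by have := hV k hk; omega)

/-- the base window -/
theorem PtN.winB (h : PtN B Bo I J co kp u F Ma Dr C lam a b A φ r κ V Tw)
    (hG : BasG lam Ma Dr a b V) {y : ℝ} (hy : 0 < y) :
    ∃ (W : Wnd 18 fun _ => ℕ × ℝ) (E : ∀ n : ℕ, Finset (ℕ × ℝ)),
      WinB Ma Dr kp u F lam Tw (fun _ => 0) ntB 1 {0} y W E :=
  PtN.win0 h wdatB hy fun k hk => by rw [ntB_zero (hG.V4 k hk)]

/-- **`A` is full** -/
theorem PtN.fullA (h : PtN B Bo I J co kp u F Ma Dr C lam a b A φ r κ V Tw)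
    (hG : BasG lam Ma Dr a b V) {x : ℝ} (hx : 0 < x) :
    x ≤ lam (v4 x 0 0 0) - lam (v4 x 0 x 0) := by
  obtain ⟨W, E, g⟩ := h.winB hG hx
  obtain ⟨t0, t1, t2, t3⟩ := g.topB
  refine le_of_forall_pos_le_add fun j hj => ?_
  rcases le_or_gt x j with hxj | hxj
  · have := h.aew.anti _ (v4_mem h.act hx.le le_rfl le_rfl le_rfl (by linarith) (by linarith)
      (by linarith)) _ (v4_mem h.act (c := 0) (B := 0) hx.le le_rfl hx.le le_rfl (by linarith)
      (by linarith) (by linarith)) (show v4 x 0 0 0 ≤ v4 x 0 x 0 from fun k => by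
        unfold v4; split_ifs <;> linarith)
    linarith
  have key := height_pos_R g.mod (fun _ => (0:ℝ)) (sF := 1) (sN := 2) (by decide) hx le_rfl hj.le
    hxj.le
    (fun t h0 h1 => g.legB h.act (fun k hk => b2z _ _ hk) (by simp [b2]) hx.le
      (by simpa [b2] using h0) (by simpa [b2] using hx.le) (by simp [b2])
      (by simp [b2]; linarith) (by simp [b2]; linarith) (by simp [b2]; linarith)
      (by simpa [b2] using h1) (by simp [b2]) (by simpa [b2] using hx.le))
    (fun t h0 h1 => g.legB h.act (fun k hk => b2z _ _ hk) (by simp [b2]) hx.le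
      (by simpa [b2] using h0) (by simpa [b2] using h0) (by simp [b2])
      (by simp [b2]; linarith) (by simp [b2]; linarith) (by simp [b2]; linarith)
      (by simpa [b2] using h1) (by simpa [b2] using h1) (by simpa [b2] using hx.le))
    (htA' g.ww g.ev hx.le t0.ge t1.ge t2.ge (fun _ => le_rfl)
      (Eventually.of_forall fun n => g.tA hG.Dr4 n))
    (by
      rw [g.nuB fun k hk => b2z _ _ hk, g.nuB fun k hk => b2z _ _ hk]
      have := hG.sw h.act (t := j) hx.le hx.le le_rfl le_rfl hx.le hj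
      simp only [b2] at *
      simpa using this)
  have nu : ∀ t w : ℝ, W.nu (b2 (fun _ : Fin 18 => (0:ℝ)) 1 2 t w) =
      lam (v4 x t w 0) - lam (v4 x x x x) := by
    intro t w
    rw [g.nuB fun k hk => b2z _ _ hk, b2_F, b2_N (by decide), b2_o (by decide) (by decide)]
  rw [nu, nu] at key
  linarith

/-- **the base is full** -/
theorem PtN.full3 (h : PtN B Bo I J co kp u F Ma Dr C lam a b A φ r κ V Tw)
    (hG : BasG lam Ma Dr a b V) {x : ℝ} (hx : 0 < x) : lam (v4 x 0 x x) ≤ -(3 * x) := by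
  obtain ⟨W, E, g⟩ := h.winB hG hx
  obtain ⟨t0, t1, t2, t3⟩ := g.topB
  have m1 : v4 x 0 0 0 ∈ coneM Ma := v4_mem h.act hx.le le_rfl le_rfl le_rfl (by linarith)
    (by linarith) (by linarith)
  have m2 : v4 x 0 x x ∈ coneM Ma := v4_mem h.act hx.le le_rfl hx.le hx.le (by linarith)
    (by linarith) (by linarith)
  have hz : lam (v4 x 0 0 0) ≤ -x := by
    have := h.aew.own 0 zero_mem _ m1 (fun k => v4_nonneg hx.le le_rfl le_rfl le_rfl k)
      fun k _ => by simp
    rw [h.aew.zero, v4_0, Pi.zero_apply] at this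
    linarith
  have hA := h.fullA hG hx
  have hXf : x ≤ lam (v4 x x 0 x) - lam (v4 x x x x) := by
    refine hA.trans (le_of_eq ?_)
    refine h.slot (i := 2) m1 (v4_mem h.act hx.le le_rfl hx.le le_rfl (by linarith)
      (by linarith) (by linarith)) (v4_mem h.act hx.le hx.le le_rfl hx.le (by linarith)
      (by linarith) (by linarith)) (v4_mem h.act hx.le hx.le hx.le hx.le (by linarith)
      (by linarith) (by linarith)) (fun j _ => v4_nonneg hx.le le_rfl le_rfl le_rfl j)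
      (fun j _ => v4_nonneg hx.le le_rfl hx.le le_rfl j)
      (fun j _ => v4_nonneg hx.le hx.le le_rfl hx.le j)
      (fun j _ => v4_nonneg hx.le hx.le hx.le hx.le j) ?_ ?_ rfl rfl ?_
    · intro j hj _
      simp [v4, hj]
    · intro j hj _
      simp [v4, hj]
    · intro j hj hj2 _
      rcases hG.gA j hj with h1 | h1
      · rw [v4_o _ _ _ _ h1, v4_o _ _ _ _ h1]
      · exact absurd h1 hj2
  have key : ∀ j : ℝ, 0 < j → j ≤ x → 2 * x - j ≤ lam (v4 x 0 0 0) - lam (v4 x 0 x x) := by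
    intro j hj hjx
    have leg : ∀ X Fv N : ℝ, 0 ≤ X → 0 ≤ Fv → 0 ≤ N → X ≤ x → Fv ≤ x → N ≤ x → N ≤ Fv + X →
        bx (fun _ : Fin 18 => (0:ℝ)) 2 1 3 X Fv N ∈ W.legW := by
      intro X Fv N h1 h2 h3 h4 h5 h6 h7
      refine g.legB h.act (fun k hk => bxz _ _ _ hk) ?_ hx.le ?_ ?_ ?_ ?_ ?_ ?_ ?_ ?_ ?_
      · rw [bx0]
      · rw [bx1]; exact h2
      · rw [bx2]; exact h1
      · rw [bx3]; exact h3
      · rw [bx2, bx1]; linarith
      · rw [bx3, bx1, bx2]; exact h7
      · rw [bx3, bx1]; linarith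
      · rw [bx1]; exact h5
      · rw [bx2]; exact h4
      · rw [bx3]; exact h6
    have nu : ∀ X Fv N : ℝ, W.nu (bx (fun _ : Fin 18 => (0:ℝ)) 2 1 3 X Fv N) =
        lam (v4 x Fv X N) - lam (v4 x x x x) := by
      intro X Fv N
      rw [g.nuB fun k hk => bxz _ _ _ hk, bx1, bx2, bx3]
    have := baseB g.ww g.ev g.mod.toRUnif (fun _ => (0:ℝ)) hj.le hjx t0.ge g.hk
      (Eventually.of_forall fun n => g.tB hG.Dr4 n)
      { h0 := leg _ _ _ le_rfl le_rfl le_rfl hx.le hx.le hx.le (by linarith)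
        hL := leg _ _ _ le_rfl hx.le hx.le hx.le le_rfl le_rfl (by linarith)
        hQ' := leg _ _ _ hx.le hx.le hx.le le_rfl le_rfl le_rfl (by linarith)
        hQ := leg _ _ _ hx.le le_rfl hx.le le_rfl hx.le le_rfl (by linarith)
        hjj := leg _ _ _ le_rfl hj.le hj.le hx.le hjx hjx (by linarith)
        hQj := leg _ _ _ hx.le hj.le hx.le le_rfl hjx le_rfl (by linarith)
        hR := leg _ _ _ (by linarith) hx.le hx.le (by linarith) le_rfl le_rfl (by linarith) }
      (by rw [nu, nu]; linarith)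
      (by
        rw [nu, nu]
        have := hG.sw h.act (t := j) hx.le hx.le hx.le le_rfl le_rfl hj
        linarith)
    rw [nu, nu] at this
    linarith
  have h2 : 2 * x ≤ lam (v4 x 0 0 0) - lam (v4 x 0 x x) := by
    refine le_of_forall_pos_le_add fun j hj => ?_
    rcases le_or_gt j x with h1 | h1
    · have := key j hj h1; linarith
    · have := key x hx le_rfl; linarith
  linarith

/-- **end of a row** : `N` loses at least `s u - C` near the ray ⊢ full loss `3 + s` -/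
theorem PtN.conc (h : PtN B Bo I J co kp u F Ma Dr C lam a b A φ r κ V Tw)
    (hG : BasG lam Ma Dr a b V) (hnat : ∀ t : ℝ, 0 ≤ t → t • a ∈ coneM Ma)
    (hnn : ∀ k, 0 ≤ a k) (h0 : a 0 = 1) (h2 : a 2 = 1) (h3 : a 3 = 1) {s Cc : ℝ}
    (hN : ∃ᶠ t : ℝ in atTop, s * t - Cc ≤ lam (Function.update (t • a) 17 0) - lam (t • a)) :
    3 + s ≤ -A.1 := by
  refine full_of_ray h.aew.out (C := Cc) ((hN.and_eventually (eventually_gt_atTop 0)).mono ?_)
  rintro t ⟨ht, ht0⟩
  refine ⟨hnat t ht0.le, ?_⟩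
  have m0 := hnat t ht0.le
  have m1 : Function.update (t • a) 17 0 ∈ coneM Ma := upd17_mem h.act m0 fun k => by
    simp only [Pi.smul_apply, smul_eq_mul]
    exact mul_nonneg ht0.le (hnn k)
  have m2 : v4 t 0 t t ∈ coneM Ma := v4_mem h.act ht0.le le_rfl ht0.le ht0.le (by linarith)
    (by linarith) (by linarith)
  have hle : v4 t 0 t t ≤ Function.update (t • a) 17 0 := by
    intro k
    by_cases hk : k = 17
    · subst hk
      rw [Function.update_self, v4_o _ _ _ _ (by decide)]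
    · rw [Function.update_of_ne hk]
      simp only [Pi.smul_apply, smul_eq_mul]
      refine cases4 (P := fun k => v4 t 0 t t k ≤ t * a k) ?_ ?_ ?_ ?_ ?_ k
      · rw [v4_0, h0, mul_one]
      · rw [v4_1]; exact mul_nonneg ht0.le (hnn 1)
      · rw [v4_2, h2, mul_one]
      · rw [v4_3, h3, mul_one]
      · intro k hk
        rw [v4_o _ _ _ _ hk]; exact mul_nonneg ht0.le (hnn k)
  have e1 := h.aew.anti _ m2 _ m1 hle
  have e2 := h.full3 hG ht0
  linarith

end pt

end Crest.Agent.R136.Qgn887
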