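import Crest.Agent.R136.Qgn1_887

/-!
# R136, thin branch (helper887): numbers of `quad` at the points of the stage with more dropped slots

Dropped slots `Dr` with `{4, 5, 6, 8} ⊆ Dr ⊆ {4, 5, 6, 8, 7, 9}` (`DrOk`), ray `TD Dr` (`1` on the
dropped slots, `TW 2` off them).

* **`qdL_ofN`** : `QdL lam mm x` for every `x > 0` at a point `PtN` which is not dead (`-A.1 < 5`)
-/

set_option autoImplicit false
set_option linter.unusedSectionVars false
set_option linter.unusedVariables false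

open Filter Topology

namespace Crest.Agent.R136.Qgn887

open Finset Crest.Agent.R138.Ex926 Crest.Agent.R136.Net191 Crest.Agent.R136.Gf356
open Crest.Agent.R136.Qg926 Crest.Agent.R136.Dg219 Crest.Agent.R136.Aw413
open Crest.Agent.R136.NetW191 Crest.Agent.R136.EvW938 Crest.Agent.R136.PrW464
open Crest.Agent.R136.LadW697 Crest.Agent.R136.AwJ774 Crest.Agent.R136.Bas938
open Crest.Agent.R136.Ht887 Crest.Agent.R136.Win887 Crest.Agent.R136.QdH887
open Crest.Agent.R136.K2S774 (cn)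

/-- **the dropped slots** -/
structure DrOk (Dr : Set (Fin 18)) : Prop where
  lo : ∀ k ∈ D2, k ∈ Dr
  hi : ∀ k ∈ Dr, k ∈ D2 ∨ k = 7 ∨ k = 9

open Classical in
/-- **ray of the rung `2`**, dropped slots `Dr` -/
noncomputable def TD (Dr : Set (Fin 18)) (k : Fin 18) : ℝ := if k ∈ Dr then 1 else TW 2 k

theorem TD_not {Dr : Set (Fin 18)} {k : Fin 18} (hk : k ∉ Dr) : TD Dr k = TW 2 k := if_neg hk
theorem TD_mem {Dr : Set (Fin 18)} {k : Fin 18} (hk : k ∈ Dr) : TD Dr k = 1 := if_pos hk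

theorem DrOk.not {Dr : Set (Fin 18)} (hD : DrOk Dr) {k : Fin 18}
    (hk : k ∈ ({0, 1, 2, 3, 10, 11, 12, 13, 14, 15, 16, 17} : Finset (Fin 18))) : k ∉ Dr := by
  intro h
  have h1 : ∀ k ∈ ({0, 1, 2, 3, 10, 11, 12, 13, 14, 15, 16, 17} : Finset (Fin 18)),
      k ∉ D2 ∧ k ≠ 7 ∧ k ≠ 9 := by decide
  obtain ⟨h2, h3, h4⟩ := h1 k hk
  rcases hD.hi k h with h5 | h5 | h5
  · exact h2 h5
  · exact h3 h5
  · exact h4 h5

theorem DrOk.D2 : DrOk (DrW 2) where
  lo := fun k hk => (mem_D2 k).2 hk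
  hi := fun k hk => Or.inl ((mem_D2 k).1 hk)

/-- groups of two slots which are not dropped -/
theorem gTD {Dr : Set (Fin 18)} {b : Fin 18 → ℝ} {i j : Fin 18} (hi : i ∉ Dr) (hj : j ∉ Dr)
    (h : gC (TD Dr) b j = gC (TD Dr) b i) : gC (TW 2) b j = gC (TW 2) b i := by
  by_cases h0 : TW 2 i = 0
  · rw [gC_zero.2 h0]
    have hi0 : gC (TD Dr) b i = 0 := gC_zero.2 (by rw [TD_not hi, h0])
    rw [hi0] at h
    have := gC_zero.1 h
    rw [TD_not hj] at this
    exact gC_zero.2 this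
  · by_cases h1 : TW 2 j = 0
    · have hj0 : gC (TD Dr) b j = 0 := gC_zero.2 (by rw [TD_not hj, h1])
      rw [hj0] at h
      have := gC_zero.1 h.symm
      rw [TD_not hi] at this
      exact absurd this h0
    · rw [gC_eq (by rw [TD_not hj]; exact h1) (by rw [TD_not hi]; exact h0), TD_not hj,
        TD_not hi] at h
      rw [gC_eq h1 h0, h]

theorem TD_nonneg (Dr : Set (Fin 18)) (k : Fin 18) : 0 ≤ TD Dr k := by
  by_cases hk : k ∈ Dr
  · rw [TD_mem hk]; exact zero_le_one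
  · rw [TD_not hk]; exact TW_nonneg (by norm_num) k

theorem TD_le (Dr : Set (Fin 18)) (k : Fin 18) : TD Dr k ≤ 2 := by
  by_cases hk : k ∈ Dr
  · rw [TD_mem hk]; norm_num
  · rw [TD_not hk]; exact TW2_le k

section mem

variable {Ma : Mons 18} {Dr : Set (Fin 18)}

/-- from the cone of `DrW 2` to the cone of `Dr` -/
theorem cone_up (hA : ActM Ma Dr) (hD : DrOk Dr) {c c' : Fin 18 → ℝ}
    (hc : c ∈ coneM (mA monW (actW (DrW 2)))) (h : ∀ k, k ∉ Dr → c k = c' k) :
    c' ∈ coneM Ma := by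
  rw [hA.cone]
  rw [(actM_mA (DrW 2)).cone] at hc
  intro k hk l hl hs
  rw [← h k hk]
  refine (hc k (fun h1 => hk (hD.lo k ((mem_D2 k).1 h1))) l hl fun s hs' h1 =>
    hs s hs' (hD.lo s ((mem_D2 s).1 h1))).trans (le_of_eq ?_)
  congr 1
  exact List.map_congr_left fun s hs' => h s (hs s hs')

theorem bvN (hA : ActM Ma Dr) (hD : DrOk Dr) {Q : Finset (Fin 18)} (h : OkD (ind Q)) {x : ℝ}
    (hx : 0 ≤ x) : bv x Q ∈ coneM Ma := cone_up hA hD (bv_mem h hx) fun _ _ => rfl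

theorem scN (hA : ActM Ma Dr) (hD : DrOk Dr) {n n' : Fin 18 → ℕ} {α β : ℝ} {c : Fin 18 → ℝ}
    (hα : 0 ≤ α) (hβ : 0 ≤ β) (h1 : OkD n) (h2 : OkD n') (e : c = scV α n + scV β n') :
    c ∈ coneM Ma := cone_up hA hD (upd_mem hα hβ h1 h2 e) fun _ _ => rfl

theorem rayN (hA : ActM Ma Dr) (hD : DrOk Dr) {t : ℝ} (ht : 0 ≤ t) : t • TD Dr ∈ coneM Ma :=
  cone_up hA hD (ray_mem 2 t) fun k hk => by
    simp only [Pi.smul_apply, smul_eq_mul, TD_not hk]

end mem

theorem bv_nonneg {x : ℝ} (hx : 0 ≤ x) (Q : Finset (Fin 18)) (k : Fin 18) : 0 ≤ bv x Q k := by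
  unfold bv; split_ifs
  · exact hx
  · exact le_rfl

section pt

variable {B Bo : Base} {I J : ∀ n : ℕ, Finset (ℕ × ℝ)}
  {co : ∀ n : ℕ, ℕ × ℝ → ℕ × ℝ → Fin 18 → ℝ} {kp : ℕ → ℝ} {u : ℕ → Fin 18 → ℝ}
  {F : ∀ n : ℕ, ℕ × ℝ → FW} {Ma : Mons 18} {Dr : Set (Fin 18)} {C : ℝ}
  {lam : (Fin 18 → ℝ) → ℝ} {a b : Fin 18 → ℝ} {A : ℝ × ℝ} {φ : ℕ → (Fin 18 → ℝ) → ℝ}
  {r : ℕ → ℝ} {κ : Fin 18 → ℝ} {V Tw : Fin 18 → Prop}

/-- **`P` costs something ⊢ `N` is full**, narrow slots `Z` -/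
theorem posNN (h : PtN B Bo I J co kp u F Ma Dr C lam a b A φ r κ V Tw) (hD : DrOk Dr)
    (hV : ∀ k, ¬ V k) {Z P : Finset (Fin 18)} (hd : ZDat Z P) {X j : ℝ} (hX : 0 < X) (hj : 0 ≤ j)
    (hjX : j ≤ X) (hpos : lam (cz Z X j X) < lam (cz Z X 0 X)) :
    X - j ≤ lam (cz Z X 0 0) - lam (cz Z X 0 X) := by
  obtain ⟨W, E, g⟩ := PtN.win0 h wdatA hX fun k hk => absurd hk (hV k)
  have cutc : ∀ t w, cut {0} (cz Z X t w) (scV X (fun _ => 1)) = cz Z X t w := by
    intro t w
    funext k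
    by_cases hk : k = 0
    · subst hk
      rw [cut_of_mem (mem_singleton_self 0), scV_one, cz_o (by decide) (by decide), bv_in hd.z]
    · rw [cut_of_notMem (by rw [mem_singleton]; exact hk)]
  have nu : ∀ t w, W.nu (cz Z X t w) = lam (cz Z X t w) - lam (scV X (fun _ => 1)) := by
    intro t w
    unfold Wnd.nu
    rw [g.eS, g.etop, g.elam, cutc, scV_zero]
    simp only [zero_add]
    ring
  have top : ∀ t w, t ≤ X → w ≤ X → ∀ s, cz Z X t w s ≤ X := by
    intro t w ht hw s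
    by_cases h1 : s = 16
    · rw [h1, cz_P]; exact ht
    by_cases h2 : s = 17
    · rw [h2, cz_N]; exact hw
    rw [cz_o h1 h2]
    unfold bv; split_ifs
    · exact le_rfl
    · exact hX.le
  have leg : ∀ t w, t ≤ X → w ≤ X → (∃ n n' : Fin 18 → ℕ, OkV (fun _ => 0) 1 n ∧
      OkV (fun _ => 0) 1 n' ∧ ∃ α β : ℝ, 0 ≤ α ∧ 0 ≤ β ∧ α + β = X ∧
      cz Z X t w = scV α n + scV β n') → cz Z X t w ∈ W.legW := by
    rintro t w ht hw ⟨n, n', hn, hn', α, β, hα, hβ, hs, e⟩
    refine ⟨?_, fun s _ => ?_⟩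
    · rw [g.eS, g.etop, g.eMw, g.eR, cutc, e]
      have := leg_scV h.act hn hn' hα hβ hs
      exact this
    · rw [g.etop, scV_one]; exact top t w ht hw s
  have hbox : HtBox W Z O0 P 12 13 (bv X Z) (fun _ => 0) X :=
    HtBox.of_zero g.eS hX.le (fun s => by unfold bv; split_ifs <;> linarith)
      (fun s => by rw [g.etop, scV_one]) (fun s hs _ => bv_in hs)
      (fun s hs _ _ _ => bv_out hs) hd.sub
  have key := hd.ht.pos g.ww g.ev g.mod hbox (x := X) (j := j) hX le_rfl le_rfl hj hjX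
    (fun t h0 h1 => leg t X h1 le_rfl ⟨_, _, hd.v16, hd.v17, t, X - t, h0, by linarith, by ring,
      cz_sc1 hd.n16 hd.n17⟩)
    (fun t h0 h1 => leg t t h1 h1 ⟨_, _, hd.v16, hd.v0, t, X - t, h0, by linarith, by ring,
      cz_sc2 hd.n16 hd.n17⟩)
    (OwnV.zero W E fun _ _ => le_rfl)
    (cHt_ok g.ww hd.ht.wall one_ne_zero (fun h0 => absurd rfl h0)
      (Eventually.of_forall fun n => by
        have := g.tight 17 (hD.not (by decide)) [0, 16] (by decide)
          (fun s hs => hD.not (by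
            have h1 : ∀ s ∈ ([0, 16] : List (Fin 18)), s ∈
              ({0, 1, 2, 3, 10, 11, 12, 13, 14, 15, 16, 17} : Finset (Fin 18)) := by decide
            exact h1 s hs)) rfl n
        have e : (List.map (W.X n) [0, 16]).sum = W.X n 0 + W.X n 16 := by simp
        rw [e] at this
        exact this))
    (by
      have e1 := nu j X
      have e2 := nu 0 X
      show W.nu (cz Z X j X) < W.nu (cz Z X 0 X)
      rw [e1, e2]; linarith)
  have e1 := nu 0 0
  have e2 := nu 0 X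
  have key' : X - j ≤ W.nu (cz Z X 0 0) - W.nu (cz Z X 0 X) := key
  rw [e1, e2] at key'
  linarith

theorem cz_nonneg {Z : Finset (Fin 18)} {X t w : ℝ} (hX : 0 ≤ X) (ht : 0 ≤ t) (hw : 0 ≤ w)
    (k : Fin 18) : 0 ≤ cz Z X t w k := by
  by_cases h1 : k = 16
  · rw [h1, cz_P]; exact ht
  by_cases h2 : k = 17
  · rw [h2, cz_N]; exact hw
  rw [cz_o h1 h2]; exact bv_nonneg hX _ _

/-- **`P` costs something (frame `B` coarse) ⊢ dead** -/
theorem dead_of_PN {θ : Fin 3 → ℝ}
    (h : PtN B Bo I J co kp u F Ma Dr C lam (TD Dr) (btW θ) A φ r κ V Tw) (hD : DrOk Dr)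
    (hG : BasG lam Ma Dr (TD Dr) (btW θ) V)
    (hV : ∀ k, ¬ V k) (hθ : 0 < θ 1) (h12 : btW θ 12 ≠ 0) (h13 : btW θ 13 ≠ 0)
    {c c' : Fin 18 → ℝ} (hc : c ∈ coneM Ma)
    (hc' : c' ∈ coneM Ma) (pc : ∀ j, j ∉ Dr → 0 ≤ c j) (pc' : ∀ j, j ∉ Dr → 0 ≤ c' j)
    (heq : ∀ j, j ≠ 16 → j ∉ Dr → c j = c' j)
    (h16 : c 16 = 0) (ht : 0 ≤ c' 16) (h3 : btW θ 10 = 0 → c 3 = 0) (hlt : lam c' < lam c) :
    5 ≤ -A.1 := by
  obtain ⟨Z, P, hZ, hZ3, hZa⟩ : ∃ Z P : Finset (Fin 18), ZDat Z P ∧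
      (btW θ 10 = 0 → (3 : Fin 18) ∉ Z) ∧
      (∀ j, j ≠ 16 → j ≠ 17 → (j = 3 → btW θ 10 ≠ 0) → j ∈ Z) := by
    by_cases hb : btW θ 10 = 0
    · refine ⟨_, _, zdat_B, fun _ => by decide, fun j h1 h2 h3 => ?_⟩
      simp only [Finset.mem_sdiff, mem_univ, true_and, mem_insert, mem_singleton, not_or]
      exact ⟨fun e => h3 e hb, h1, h2⟩
    · refine ⟨_, _, zdat_all, fun e => absurd e hb, fun j h1 h2 _ => ?_⟩
      simp only [Finset.mem_sdiff, mem_univ, true_and, mem_insert, mem_singleton, not_or]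
      exact ⟨h1, h2⟩
  set t := c' 16 with htd
  have n16 : (16 : Fin 18) ∉ Dr := hD.not (by decide)
  have n17 : (17 : Fin 18) ∉ Dr := hD.not (by decide)
  have cm : ∀ X : ℝ, t ≤ X → cz Z X t X ∈ coneM Ma ∧
      cz Z X 0 X ∈ coneM Ma ∧ cz Z X 0 0 ∈ coneM Ma := by
    intro X hX
    refine ⟨scN h.act hD ht (by linarith) (okD_of hZ.v16) (okD_of hZ.v17) (cz_sc1 hZ.n16 hZ.n17),
      scN h.act hD le_rfl (by linarith) (okD_of hZ.v16) (okD_of hZ.v17) (cz_sc1 hZ.n16 hZ.n17),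
      scN h.act hD le_rfl (by linarith) (okD_of hZ.v16) (okD_of hZ.v0) (cz_sc2 hZ.n16 hZ.n17)⟩
  have step : ∀ X : ℝ, 0 < X → t ≤ X → X - t ≤ lam (cz Z X 0 0) - lam (cz Z X 0 X) := by
    intro X hX htX
    obtain ⟨m1, m2, m3⟩ := cm X htX
    refine posNN h hD hV hZ hX ht htX ?_
    have e := h.slot (i := 16) hc hc' m2 m1 pc pc'
      (fun j _ => cz_nonneg hX.le le_rfl hX.le j) (fun j _ => cz_nonneg hX.le ht hX.le j)
      heq (fun j hj _ => by
        by_cases h17 : j = 17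
        · rw [h17, cz_N, cz_N]
        · rw [cz_o hj h17, cz_o hj h17]) (by rw [h16, cz_P]) (by rw [cz_P])
      (fun j hj hj16 hjD => by
        rcases grpP hθ h12 h13 j (gTD n16 hjD hj) with h1 | h1 | ⟨h1, h2⟩
        · exact absurd h1 hj16
        · exact absurd (hD.lo j h1) hjD
        · subst h1
          rw [h3 h2, cz_o (by decide) (by decide), bv_out (hZ3 h2)])
    linarith
  have step2 : ∀ X : ℝ, 0 < X → t ≤ X →
      X - t ≤ lam (bv X (Finset.univ \ {17})) - lam (bv X Finset.univ) := by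
    intro X hX htX
    obtain ⟨m1, m2, m3⟩ := cm X htX
    refine (step X hX htX).trans (le_of_eq ?_)
    refine h.slot (i := 17) m3 m2 (bvN h.act hD okAll17 hX.le) (bvN h.act hD okAll hX.le)
      (fun j _ => cz_nonneg hX.le le_rfl le_rfl j) (fun j _ => cz_nonneg hX.le le_rfl hX.le j)
      (fun j _ => bv_nonneg hX.le _ j) (fun j _ => bv_nonneg hX.le _ j) (fun j hj _ => ?_)
      (fun j hj _ => ?_) ?_ ?_ (fun j hj hj17 hjD => ?_)
    · by_cases h1 : j = 16
      · rw [h1, cz_P, cz_P]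
      · rw [cz_o h1 hj, cz_o h1 hj]
    · rw [bv_in (by simp [hj]), bv_in (mem_univ _)]
    · rw [cz_N, bv_out (by decide)]
    · rw [cz_N, bv_in (mem_univ _)]
    · have hj' := gTD n17 hjD hj
      have h1 : j ≠ 16 := fun e => grpN h13 (by rw [← e]; exact hj')
      have h2 : j = 3 → btW θ 10 ≠ 0 := fun e h10 => grpN3 hθ h10 (by rw [← e]; exact hj')
      rw [cz_o h1 hj17, bv_in (hZa j h1 hj17 h2), bv_in (by simp [hj17])]
  have t17 : TD Dr 17 = 2 := by rw [TD_not n17, TW2_2]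
  have fin := h.conc hG (fun t ht => rayN h.act hD ht) (TD_nonneg Dr)
    (by rw [TD_not (hD.not (by decide)), TW_z]) (by rw [TD_not (hD.not (by decide)), TW_A])
    (by rw [TD_not (hD.not (by decide)), TW_B]) (s := 2) (Cc := t) (Eventually.frequently (by
      filter_upwards [eventually_gt_atTop 0, eventually_ge_atTop t] with T hT hTt
      have hX : 0 < 2 * T := by linarith
      have key := step2 (2 * T) hX (by linarith)
      have m1 : T • TD Dr ∈ coneM Ma := rayN h.act hD hT.le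
      have nn : ∀ k, 0 ≤ (T • TD Dr) k := fun k => by
        simp only [Pi.smul_apply, smul_eq_mul]
        exact mul_nonneg hT.le (TD_nonneg Dr k)
      have le2 : ∀ k, (T • TD Dr) k ≤ 2 * T := fun k => by
        simp only [Pi.smul_apply, smul_eq_mul]
        have := mul_le_mul_of_nonneg_left (TD_le Dr k) hT.le
        linarith
      have e17 : (T • TD Dr) 17 = 2 * T := by
        simp only [Pi.smul_apply, smul_eq_mul, t17]; ring
      have m2 := upd17_mem h.act m1 nn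
      have m3 := bvN h.act hD okAll17 hX.le
      have m4 := bvN h.act hD okAll hX.le
      have einf : (T • TD Dr) ⊓ bv (2 * T) (Finset.univ \ {17}) =
          Function.update (T • TD Dr) 17 0 := by
        funext k
        rw [Pi.inf_apply]
        by_cases hk : k = 17
        · subst hk
          rw [Function.update_self, bv_out (by decide)]
          exact inf_eq_right.2 (nn 17)
        · rw [Function.update_of_ne hk, bv_in (by simp [hk])]
          exact inf_eq_left.2 (le2 k)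
      have esup : (T • TD Dr) ⊔ bv (2 * T) (Finset.univ \ {17}) = bv (2 * T) Finset.univ := by
        funext k
        rw [Pi.sup_apply, bv_in (mem_univ k)]
        by_cases hk : k = 17
        · subst hk
          rw [bv_out (by decide), e17]
          exact sup_eq_left.2 hX.le
        · rw [bv_in (by simp [hk])]
          exact sup_eq_right.2 (le2 k)
      have := h.aew.submod _ m1 _ m3 (by rw [einf]; exact m2) (by rw [esup]; exact m4)
      rw [einf, esup] at this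
      linarith))
  linarith

/-- boxes which differ in slots of slope `0` -/
theorem bv_grpN (hD : DrOk Dr) {θ : Fin 3 → ℝ} {Q Q' : Finset (Fin 18)} {x : ℝ}
    (hQ : ∀ k, (k ∈ Q ↔ k ∈ Q') ∨ k ∈ ({1, 10, 11, 12, 13} : Finset (Fin 18))) (i : Fin 18)
    (hi : gC (TD Dr) (btW θ) i ≠ 0) : bv x Q i = bv x Q' i := by
  rcases hQ i with h | h
  · unfold bv; simp only [h]
  · have h1 : ∀ i ∈ ({1, 10, 11, 12, 13} : Finset (Fin 18)),
        i ∈ ({0, 1, 2, 3, 10, 11, 12, 13, 14, 15, 16, 17} : Finset (Fin 18)) ∧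
        i ∈ ({1, 7, 9, 10, 11, 12, 13} : Finset (Fin 18)) := by decide
    exact absurd (gC_zero.2 (by rw [TD_not (hD.not (h1 i h).1), TW2_0 i (h1 i h).2])) hi

/-- boxes which differ in slots of positive slope -/
theorem bv_grp0N (hD : DrOk Dr) {θ : Fin 3 → ℝ} {Q Q' : Finset (Fin 18)} {x : ℝ}
    (hQ : ∀ k, (k ∈ Q ↔ k ∈ Q') ∨ k ∈ ({0, 2, 3, 14, 15, 16} : Finset (Fin 18))) (i : Fin 18)
    (hi : gC (TD Dr) (btW θ) i = 0) : bv x Q i = bv x Q' i := by
  rcases hQ i with h | h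
  · unfold bv; simp only [h]
  · have h1 : ∀ i ∈ ({0, 2, 3, 14, 15, 16} : Finset (Fin 18)),
        i ∈ ({0, 1, 2, 3, 10, 11, 12, 13, 14, 15, 16, 17} : Finset (Fin 18)) := by decide
    have := gC_zero.1 hi
    rw [TD_not (hD.not (h1 i h)), TW2_1 i h] at this
    exact absurd this one_ne_zero

set_option maxRecDepth 4000 in
/-- **numbers of `quad` at a point of the rung `s = 2` which is not dead**, dropped slots `Dr` -/
theorem qdL_ofN {θ : Fin 3 → ℝ}
    (h : PtN B Bo I J co kp u F Ma Dr C lam (TD Dr) (btW θ) A φ r κ V Tw) (hD : DrOk Dr)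
    (hG : BasG lam Ma Dr (TD Dr) (btW θ) V)
    (hV : ∀ k, ¬ V k) (hθ : 0 < θ 1) (h12 : btW θ 12 ≠ 0) (h13 : btW θ 13 ≠ 0)
    (hnd : -A.1 < 5) : ∃ mm : ℝ, 0 < mm ∧ ∀ x, 0 < x → QdL lam mm x := by
  obtain ⟨mm, hmm, hsw⟩ := hG.sweep
  refine ⟨mm, hmm, fun x hx => ?_⟩
  have n16 : (16 : Fin 18) ∉ Dr := hD.not (by decide)
  have m : ∀ Q, OkD (ind Q) → bv x Q ∈ coneM Ma := fun Q hQ => bvN h.act hD hQ hx.le
  have m0 := m {0} (by decide)
  have mp := m {0, 2, 3, 14, 15} (by decide)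
  have mpP := m {0, 2, 3, 14, 15, 16} (by decide)
  have mv := m {0, 1, 11, 12} (by decide)
  have mvP := m {0, 1, 11, 12, 16} (by decide)
  have mvB := m {0, 1, 3, 11, 12} (by decide)
  have mvBP := m {0, 1, 3, 11, 12, 16} (by decide)
  have mpv := m {0, 1, 2, 3, 11, 12, 14, 15} (by decide)
  have pos : ∀ (Q : Finset (Fin 18)) (j : Fin 18), j ∉ Dr → 0 ≤ bv x Q j := fun Q j _ =>
    bv_nonneg hx.le Q j
  have mono : ∀ Q Q' : Finset (Fin 18), Q ⊆ Q' → bv x Q ≤ bv x Q' := by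
    intro Q Q' hQ k
    unfold bv
    split_ifs with h1 h2 h2
    · exact le_rfl
    · exact absurd (hQ h1) h2
    · exact hx.le
    · exact le_rfl
  -- (H2)
  have H2 : lam (bv x {0, 1, 11, 12, 16}) = lam (bv x {0, 1, 11, 12}) := by
    refine le_antisymm (h.aew.anti _ mv _ mvP (mono _ _ (by decide))) (not_lt.1 fun hlt => ?_)
    have := dead_of_PN h hD hG hV hθ h12 h13 mv mvP (pos _) (pos _) (fun j hj _ => ?_)
      (bv_out (by decide)) (by rw [bv_in (by decide)]; exact hx.le) (fun _ => bv_out (by decide))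
      hlt
    · linarith
    · unfold bv
      have h1 : ∀ j : Fin 18, j ≠ 16 → (j ∈ ({0, 1, 11, 12} : Finset (Fin 18)) ↔
          j ∈ ({0, 1, 11, 12, 16} : Finset (Fin 18))) := by decide
      simp only [h1 j hj]
  -- (H1)
  have H1 : lam (bv x {0, 2, 3, 14, 15, 16}) = lam (bv x {0, 2, 3, 14, 15}) := by
    refine le_antisymm (h.aew.anti _ mp _ mpP (mono _ _ (by decide))) ?_
    have e1 := h.slot (i := 16) mp mpP mvB mvBP (pos _) (pos _) (pos _) (pos _)
      (fun j hj _ => by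
        unfold bv
        have h1 : ∀ j : Fin 18, j ≠ 16 → (j ∈ ({0, 2, 3, 14, 15} : Finset (Fin 18)) ↔
          j ∈ ({0, 2, 3, 14, 15, 16} : Finset (Fin 18))) := by decide
        simp only [h1 j hj]) (fun j hj _ => by
        unfold bv
        have h1 : ∀ j : Fin 18, j ≠ 16 → (j ∈ ({0, 1, 3, 11, 12} : Finset (Fin 18)) ↔
          j ∈ ({0, 1, 3, 11, 12, 16} : Finset (Fin 18))) := by decide
        simp only [h1 j hj]) (by rw [bv_out (by decide), bv_out (by decide)])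
      (by rw [bv_in (by decide), bv_in (by decide)]) (fun j hj hj16 hjD => by
        rcases grpP hθ h12 h13 j (gTD n16 hjD hj) with h1 | h1 | ⟨h1, h2⟩
        · exact absurd h1 hj16
        · exact absurd (hD.lo j h1) hjD
        · rw [h1, bv_in (by decide), bv_in (by decide)])
    have einf : bv x {0, 1, 3, 11, 12} ⊓ bv x {0, 1, 11, 12, 16} = bv x {0, 1, 11, 12} := by
      funext k
      rw [Pi.inf_apply]
      unfold bv
      have h1 : ∀ k : Fin 18, (k ∈ ({0, 1, 3, 11, 12} : Finset (Fin 18)) ∧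
          k ∈ ({0, 1, 11, 12, 16} : Finset (Fin 18))) ↔
          k ∈ ({0, 1, 11, 12} : Finset (Fin 18)) := by decide
      by_cases a1 : k ∈ ({0, 1, 3, 11, 12} : Finset (Fin 18))
      · by_cases a2 : k ∈ ({0, 1, 11, 12, 16} : Finset (Fin 18))
        · rw [if_pos a1, if_pos a2, if_pos ((h1 k).1 ⟨a1, a2⟩), inf_idem]
        · rw [if_pos a1, if_neg a2, if_neg fun hh => a2 ((h1 k).2 hh).2]
          exact inf_eq_right.2 hx.le
      · rw [if_neg a1, if_neg fun hh => a1 ((h1 k).2 hh).1]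
        refine inf_eq_left.2 ?_
        split_ifs
        · exact hx.le
        · exact le_rfl
    have esup : bv x {0, 1, 3, 11, 12} ⊔ bv x {0, 1, 11, 12, 16} =
        bv x {0, 1, 3, 11, 12, 16} := by
      funext k
      rw [Pi.sup_apply]
      unfold bv
      have h1 : ∀ k : Fin 18, (k ∈ ({0, 1, 3, 11, 12} : Finset (Fin 18)) ∨
          k ∈ ({0, 1, 11, 12, 16} : Finset (Fin 18))) ↔
          k ∈ ({0, 1, 3, 11, 12, 16} : Finset (Fin 18)) := by decide
      by_cases a1 : k ∈ ({0, 1, 3, 11, 12} : Finset (Fin 18))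
      · rw [if_pos a1, if_pos ((h1 k).1 (Or.inl a1))]
        refine sup_eq_left.2 ?_
        split_ifs
        · exact le_rfl
        · exact hx.le
      · by_cases a2 : k ∈ ({0, 1, 11, 12, 16} : Finset (Fin 18))
        · rw [if_neg a1, if_pos a2, if_pos ((h1 k).1 (Or.inr a2))]
          exact sup_eq_right.2 hx.le
        · rw [if_neg a1, if_neg a2, if_neg fun hh => ((h1 k).2 hh).elim a1 a2, sup_idem]
    have e2 := h.aew.submod _ mvB _ mvP (by rw [einf]; exact mv) (by rw [esup]; exact mvBP)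
    rw [einf, esup] at e2
    linarith
  refine ⟨H1, H2, ?_, ?_, ?_⟩
  · -- (H3)
    have := loss_eq h.aew.out 0 m0 mv mp mpv (bv_grpN hD (by decide)) (bv_grpN hD (by decide))
      (bv_grp0N hD (by decide)) (bv_grp0N hD (by decide))
    linarith
  · -- (H4)
    have e1 := h.full3 hG hx
    have e2 := h.aew.sharp 0 zero_mem _ m0 (fun k => by
      rw [Pi.zero_apply]; exact bv_nonneg hx.le _ _)
    rw [h.aew.zero] at e2
    have e3 : ∑ s, (bv x {0} s - (0 : Fin 18 → ℝ) s) = x := by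
      rw [sum_eq_single_of_mem (0 : Fin 18) (mem_univ _)]
      · rw [bv_in (by decide), Pi.zero_apply, sub_zero]
      · intro j _ hj
        rw [bv_out (by rw [mem_singleton]; exact hj), Pi.zero_apply, sub_zero]
    rw [e3] at e2
    rw [bv_v4]
    linarith
  · -- (H5)
    intro y hy
    have e1 := hsw _ m0 (bv_out (by decide)) (fun i hi h0 => by
      by_cases h1 : i = 0
      · rw [h1, TD_not (hD.not (by decide)), TW_z] at h0; exact absurd h0 one_ne_zero
      · rw [bv_out (by rw [mem_singleton]; exact h1)]) y hy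
    have e2 : bv x {0} + y • e1W = Function.update (bv x {0}) 1 y := by
      funext k
      rw [Pi.add_apply, Pi.smul_apply, smul_eq_mul]
      by_cases h1 : k = 1
      · rw [h1, Function.update_self, bv_out (by decide)]; simp [e1W]
      · have : e1W k = 0 := by unfold e1W; rw [Pi.single_eq_of_ne h1]
        rw [Function.update_of_ne h1, this, mul_zero, add_zero]
    rwa [e2] at e1

end pt

end Crest.Agent.R136.Qgn887
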