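import Crest.Agent.R136.Qgn2_887
import Crest.Agent.R136.K2Y_774

/-!
# R136, thin branch (helper887): interior points of a stage with more dropped slots

* `TDs s Dr` : ray of the rung `s` with the dropped slots `Dr ⊇ DrW s`; `StgOk s Dr Z`.
* **`flemN`** : F-lemma of such a stage from one statement about `PtN` + `BasG`.
* **`hasQuadN`** : a stage of slope `2` (`Dr = DrW 2 ∪ J''`) over `CtxW` without visible wall of slope
  `2` at a resonance `Res2` has an interior point with the numbers `QdN` of `quad`.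
-/

set_option autoImplicit false
set_option linter.unusedSectionVars false
set_option linter.unusedVariables false

open Filter Topology

namespace Crest.Agent.R136.Qgn887

open Finset Crest.Agent.R138.Ex926 Crest.Agent.R136.Net191 Crest.Agent.R136.Gf356
open Crest.Agent.R136.Qg926 Crest.Agent.R136.Dg219 Crest.Agent.R136.Aw413
open Crest.Agent.R136.NetW191 Crest.Agent.R136.EvW938 Crest.Agent.R136.PrW464
open Crest.Agent.R136.LadW697 Crest.Agent.R136.AwJ774 Crest.Agent.R136.Bas938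
open Crest.Agent.R136.Ht887 Crest.Agent.R136.Win887 Crest.Agent.R136.QdH887
open Crest.Agent.R136.K2S774 Crest.Agent.R136.K2A146 Crest.Agent.R136.NatW697
open Crest.Agent.R136.LadT830 Crest.Agent.R136.ThB830 Crest.Agent.R136.Top484
open Crest.Agent.R136.Dg262 (X)
open Crest.Agent.R136.Rc146 (OutA)

open Classical in
/-- **ray of the rung `s`**, dropped slots `Dr` -/
noncomputable def TDs (s : ℝ) (Dr : Set (Fin 18)) (k : Fin 18) : ℝ := if k ∈ Dr then 1 else TW s k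

theorem TDs_not {s : ℝ} {Dr : Set (Fin 18)} {k : Fin 18} (hk : k ∉ Dr) : TDs s Dr k = TW s k :=
  if_neg hk
theorem TDs_mem {s : ℝ} {Dr : Set (Fin 18)} {k : Fin 18} (hk : k ∈ Dr) : TDs s Dr k = 1 :=
  if_pos hk
theorem TDs_two (Dr : Set (Fin 18)) : TDs 2 Dr = TD Dr := rfl

/-- **dropped slots `Dr` and never dropped slots `Z` of a stage of slope `s`** -/
structure StgOk (s : ℝ) (Dr Z : Set (Fin 18)) : Prop where
  lo : ∀ k ∈ DrW s, k ∈ Dr
  h4 : ∀ k ∈ Dr, 4 ≤ k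
  zz : ∀ k, k ∉ Dr → TW s k = 0 → k ∈ Z
  z0 : ∀ k ∈ Z, k ∉ Dr → TW s k = 0

theorem StgOk.not4 {s : ℝ} {Dr Z : Set (Fin 18)} (h : StgOk s Dr Z) {k : Fin 18}
    (hk : ¬ (4 : Fin 18) ≤ k) : k ∉ Dr := fun h1 => hk (h.h4 k h1)

theorem StgOk.TDs0 {s : ℝ} {Dr Z : Set (Fin 18)} (h : StgOk s Dr Z) : TDs s Dr 0 = 1 := by
  rw [TDs_not (h.not4 (by decide)), TW_z]
theorem StgOk.TDs1 {s : ℝ} {Dr Z : Set (Fin 18)} (h : StgOk s Dr Z) : TDs s Dr 1 = 0 := by
  rw [TDs_not (h.not4 (by decide)), TW_c]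
theorem StgOk.TDs2 {s : ℝ} {Dr Z : Set (Fin 18)} (h : StgOk s Dr Z) : TDs s Dr 2 = 1 := by
  rw [TDs_not (h.not4 (by decide)), TW_A]
theorem StgOk.TDs3 {s : ℝ} {Dr Z : Set (Fin 18)} (h : StgOk s Dr Z) : TDs s Dr 3 = 1 := by
  rw [TDs_not (h.not4 (by decide)), TW_B]

theorem TDs_nonneg {s : ℝ} (hs : 0 < s) (Dr : Set (Fin 18)) (k : Fin 18) : 0 ≤ TDs s Dr k := by
  by_cases hk : k ∈ Dr
  · rw [TDs_mem hk]; exact zero_le_one
  · rw [TDs_not hk]; exact ThB830.TW_nonneg s hs k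

/-- the ray is natural for the remaining walls -/
theorem natTDs {s : ℝ} {Dr Z : Set (Fin 18)} (hD : StgOk s Dr Z) : Nat QW (actW Dr) (TDs s Dr) := by
  intro w hw
  have e : ∀ k, k ∉ Dr → TDs s Dr k = saW s k := fun k hk => by
    rw [TDs_not hk, TW_of_not fun h => hk (hD.lo k h)]
  rw [e _ hw.1, nat_saW (fun _ => True) s w trivial]
  refine rhs_congr w fun i hi => (e i fun h => hi (hw.2 i h)).symm

/-- **data of the last rung**, `J = ∅` -/
theorem rungN {θ : Fin 3 → ℝ} {s : ℝ} (hs : 0 < s) {V Dr Z : Set (Fin 18)} (hD : StgOk s Dr Z) :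
    RungD QW (actW Dr) Dr Z V 0 (QdW θ) (btW θ) (TDs s Dr) (saW s) (btW θ) ∅ where
  T0 := TDs_nonneg hs Dr
  TJ := fun i hi => absurd hi (notMem_empty i)
  TZ := fun i _ hi => by
    by_cases hk : i ∈ Dr
    · rw [TDs_mem hk]; exact zero_lt_one
    · have h1 := TDs_nonneg hs Dr i
      rw [TDs_not hk] at h1 ⊢
      exact lt_of_le_of_ne h1 fun h => hi (hD.zz i hk h.symm)
  natT := natTDs hD
  bρ := fun _ _ => rfl
  TT := fun i hi => by rw [TDs_not hi, TW_of_not fun h => hi (hD.lo i h)]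
  qd := neg_saW_mem θ hs
  head := fun w _ h => absurd h (notMem_empty _)
  JZ := fun i hi => absurd hi (notMem_empty i)
  JT := fun i hi => absurd hi (notMem_empty i)
  Jz := notMem_empty _

/-! ### the stage -/

section stage

variable {P : Set (Fin 18 → ℝ)} {ν own : (Fin 18 → ℝ) → ℝ} {K : ℝ} {r0 : Fin 18 → ℝ}
  {θ : Fin 3 → ℝ} {g : ℝ} {q : Fin 3 → ℝ} {V T Z Dr : Set (Fin 18)} {s : ℝ}
  {lam lo lam' lo' : (Fin 18 → ℝ) → ℝ}

/-- **the sweep at a record box**, general stage -/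
theorem sweep_recN (H : Stage QW P ν own K r0 (btW θ) (DlW g q) (QdW θ) Z V 0 (btW θ) 1 (actW Dr)
    Dr lam lo) (ξ : ℝ) {t : ℝ} (ht : 0 ≤ t) :
    lam (ξ • btW θ + t • e1W) ≤ lam (ξ • btW θ) - (q 1 + 2 * q 2) * t := by
  have hbn : Nat QW (actW Dr) (btW θ) := nat_btW _ θ
  have hξ : ξ • btW θ ∈ cn QW (actW Dr) := (hbn.smul ξ).mem
  have h1 : lam (ξ • btW θ) = ξ * DlW g q (btW θ) := H.rcd ξ
  have m1 : ξ • btW θ + t • e1W ∈ cn QW (actW Dr) := add_e1_mem hξ ht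
  have m2 : ξ • btW θ + t • swW ∈ cn QW (actW Dr) := cn_nat_add (hbn.smul ξ) (swW_mem _) ht
  have h2 : lam (ξ • btW θ + t • swW) ≤ DlW g q (ξ • btW θ + t • grW 0 1 0) := by
    refine H.dmx _ m2 _ (sweep_mem θ ξ t) fun i hi => ?_
    have key : ∀ i : Fin 18, wc i ≤
        (![0, 1, 1, 2, 0, 0, 0, 0, 0, 0, 0, 0, 0, 0, 0, 0, 0, 0] : Fin 18 → ℤ) i := by
      decide
    have k2 : grW 0 1 0 i ≤ swW i := by
      have := key i
      have h5 : ((wc i : ℤ) : ℝ) ≤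
          (((![0, 1, 1, 2, 0, 0, 0, 0, 0, 0, 0, 0, 0, 0, 0, 0, 0, 0] : Fin 18 → ℤ) i : ℤ) : ℝ) := by
        exact_mod_cast this
      have h6 : (((![0, 1, 1, 2, 0, 0, 0, 0, 0, 0, 0, 0, 0, 0, 0, 0, 0, 0] : Fin 18 → ℤ) i : ℤ) : ℝ)
          = swW i := by
        fin_cases i <;> simp [swW]
      simp only [grW]
      rw [← h6]
      linarith
    simp only [Pi.add_apply, Pi.smul_apply, smul_eq_mul]
    have := mul_le_mul_of_nonneg_left k2 ht
    linarith
  rw [map_add, map_smul, map_smul, smul_eq_mul, smul_eq_mul, DlW_grW010] at h2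
  have h3 := H.prf.sharp _ m1 _ m2 (fun i => by
    simp only [Pi.add_apply, Pi.smul_apply, smul_eq_mul]
    have : e1W i ≤ swW i := by
      by_cases h : i = 1
      · subst h; simp [e1W, swW]
      · unfold e1W; rw [Pi.single_eq_of_ne h]; exact swW_nonneg i
    nlinarith)
  have h4 : ∑ i, ((ξ • btW θ + t • swW) i - (ξ • btW θ + t • e1W) i) = 3 * t := by
    have : ∀ i, (ξ • btW θ + t • swW) i - (ξ • btW θ + t • e1W) i = t * swW i - t * e1W i :=
      fun i => by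
      simp only [Pi.add_apply, Pi.smul_apply, smul_eq_mul]; ring
    rw [Finset.sum_congr rfl fun i _ => this i, Finset.sum_sub_distrib, ← Finset.mul_sum,
      ← Finset.mul_sum, sum_swW]
    have : ∑ i, e1W i = 1 := by simp [e1W]
    rw [this]; ring
  rw [h4] at h3
  linarith

/-- **the slot `c` left of the record line**, general stage -/
theorem sweepN (hD : StgOk s Dr Z) (hs : 0 < s)
    (H : Stage QW P ν own K r0 (btW θ) (DlW g q) (QdW θ) Z V 0 (btW θ) 1 (actW Dr) Dr lam lo)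
    {z : ℝ × ℝ} (hz : z.1 < 0) {k : ℕ → ℝ} (kpos : ∀ l, 0 < k l) (k0 : Tendsto k atTop (𝓝 0))
    (H1 : IsTan (cn QW (actW Dr)) (cn QW (actW Dr)) lam
      (fun _ => X 0 (TDs s Dr) (btW θ) z) k lam')
    {c : Fin 18 → ℝ} (hc : c ∈ cn QW (actW Dr)) (hc1 : c 1 = 0)
    (hcT : ∀ i, i ≠ 1 → TDs s Dr i = 0 → c i ≤ 0) {t : ℝ} (ht : 0 ≤ t) :
    lam' (c + t • e1W) ≤ lam' c - (q 1 + 2 * q 2) * t := by
  have := H.sweepR (nat_btW _ θ) (TDs_nonneg hs Dr) (natTDs hD) (fun i _ => rfl) hz kpos k0 H1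
    (u := e1W) (c' := c) (mm := q 1 + 2 * q 2) (σ := 0) (h := t) e1W_nonneg ht
    (fun σ h hh _ => by
      have := sweep_recN H σ hh
      linarith) hc (add_e1_mem hc ht) (fun i _ hT => by
      rw [zero_mul]
      by_cases h1 : i = 1
      · rw [h1, hc1]
      · exact hcT i h1 hT) (fun i _ hu => by
      have h1 : i = 1 := by
        by_contra hne
        exact hu (by unfold e1W; rw [Pi.single_eq_of_ne hne])
      rw [h1, hc1, hD.TDs1]
      exact ⟨rfl, by ring⟩)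
  linarith

/-- **weak independence of the dropped slots** at an interior point -/
theorem indN (hD : StgOk s Dr Z)
    (H : Stage QW P ν own K r0 (btW θ) (DlW g q) (QdW θ) Z V 0 (btW θ) 1 (actW Dr) Dr lam lo)
    {z : ℝ × ℝ} {k : ℕ → ℝ} (kpos : ∀ l, 0 < k l) (k0 : Tendsto k atTop (𝓝 0))
    (H1 : IsTan (cn QW (actW Dr)) (cn QW (actW Dr)) lam
      (fun _ => X 0 (TDs s Dr) (btW θ) z) k lam')
    {c c' : Fin 18 → ℝ} (hc : c ∈ cn QW (actW Dr)) (hc' : c' ∈ cn QW (actW Dr))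
    (pc : ∀ i, i ∉ Dr → 0 ≤ c i) (e : ∀ i, i ∉ Dr → c i = c' i) : lam' c = lam' c' := by
  have hB := bup_of_tan kpos k0 H1
  have L1 := hB.lim _ hc
  have L2 := hB.lim _ hc'
  refine tendsto_nhds_unique L1 (L2.congr fun l => ?_)
  have hy : Nat QW (actW Dr) (X 0 (TDs s Dr) (btW θ) z) := by
    rw [X_zero]
    exact ((natTDs hD).smul _).add ((nat_btW _ θ).smul _)
  have hk := kpos l
  have e1 : lam (X 0 (TDs s Dr) (btW θ) z + k l • c') =
      lam (X 0 (TDs s Dr) (btW θ) z + k l • c) := by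
    refine (H.ind _ (cn_nat_add hy hc hk.le) _ (cn_nat_add hy hc' hk.le) (fun i hi => ?_)
      ⟨z.2, fun i hi => ?_⟩).symm
    · simp only [Pi.add_apply, Pi.smul_apply, smul_eq_mul, e i hi]
    · have hiD : i ∉ Dr := H.ZD i hi
      rw [X_zero]
      simp only [Pi.add_apply, Pi.smul_apply, smul_eq_mul]
      rw [TDs_not hiD, hD.z0 i hi hiD]
      have := mul_nonneg hk.le (pc i hiD)
      linarith
  rw [e1]

end stage

/-! ### the F-lemma -/

section flem

variable {P : Set (Fin 18 → ℝ)} {ν own : (Fin 18 → ℝ) → ℝ} {K : ℝ} {r0 : Fin 18 → ℝ}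
  {θ : Fin 3 → ℝ} {g : ℝ} {q : Fin 3 → ℝ} {V T Z Dr : Set (Fin 18)} {s : ℝ}
  {lam lo : (Fin 18 → ℝ) → ℝ}

/-- groups of the frame slots -/
theorem grp4N (hθ : 0 < θ 1) (hD : StgOk s Dr Z) :
    (∀ j : Fin 18, gC (TDs s Dr) (btW θ) j = gC (TDs s Dr) (btW θ) 0 → 4 ≤ j ∨ j = 0) ∧
    (∀ j : Fin 18, gC (TDs s Dr) (btW θ) j = gC (TDs s Dr) (btW θ) 2 → 4 ≤ j ∨ j = 2) ∧
    (∀ j : Fin 18, gC (TDs s Dr) (btW θ) j = gC (TDs s Dr) (btW θ) 3 → 4 ≤ j ∨ j = 3) ∧
    (∀ j : Fin 18, TDs s Dr j = 0 → 4 ≤ j ∨ j = 1) := by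
  have z0 : TDs s Dr 0 ≠ 0 := by rw [hD.TDs0]; exact one_ne_zero
  have z2 : TDs s Dr 2 ≠ 0 := by rw [hD.TDs2]; exact one_ne_zero
  have z3 : TDs s Dr 3 ≠ 0 := by rw [hD.TDs3]; exact one_ne_zero
  have g1 : ∀ i, TDs s Dr i ≠ 0 → gC (TDs s Dr) (btW θ) 1 ≠ gC (TDs s Dr) (btW θ) i :=
    fun i hi e => by
    rw [gC_zero.2 hD.TDs1] at e
    exact hi (gC_zero.1 e.symm)
  refine ⟨fun j => ?_, fun j => ?_, fun j => ?_, fun j => ?_⟩
  · refine cases4 (P := fun j => gC (TDs s Dr) (btW θ) j = gC (TDs s Dr) (btW θ) 0 → 4 ≤ j ∨ j = 0)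
      (fun _ => Or.inr rfl) (fun e => absurd e (g1 0 z0)) (fun e => ?_) (fun e => ?_)
      (fun k hk _ => Or.inl hk) j
    · rw [gC_eq z2 z0, hD.TDs2, hD.TDs0, btW0, btW2] at e; linarith
    · rw [gC_eq z3 z0, hD.TDs3, hD.TDs0, btW0, btW3] at e; linarith
  · refine cases4 (P := fun j => gC (TDs s Dr) (btW θ) j = gC (TDs s Dr) (btW θ) 2 → 4 ≤ j ∨ j = 2)
      (fun e => ?_) (fun e => absurd e (g1 2 z2)) (fun _ => Or.inr rfl) (fun e => ?_)
      (fun k hk _ => Or.inl hk) j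
    · rw [gC_eq z0 z2, hD.TDs2, hD.TDs0, btW0, btW2] at e; linarith
    · rw [gC_eq z3 z2, hD.TDs3, hD.TDs2, btW3, btW2] at e; linarith
  · refine cases4 (P := fun j => gC (TDs s Dr) (btW θ) j = gC (TDs s Dr) (btW θ) 3 → 4 ≤ j ∨ j = 3)
      (fun e => ?_) (fun e => absurd e (g1 3 z3)) (fun e => ?_) (fun _ => Or.inr rfl)
      (fun k hk _ => Or.inl hk) j
    · rw [gC_eq z0 z3, hD.TDs3, hD.TDs0, btW0, btW3] at e; linarith
    · rw [gC_eq z2 z3, hD.TDs3, hD.TDs2, btW3, btW2] at e; linarith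
  · exact cases4 (P := fun j => TDs s Dr j = 0 → 4 ≤ j ∨ j = 1) (fun e => absurd e z0)
      (fun _ => Or.inr rfl) (fun e => absurd e z2) (fun e => absurd e z3)
      (fun k hk _ => Or.inl hk) j

/-- slopes of the visible slots -/
theorem visN (h : SlotOkW θ (fun k => k ∈ V) (fun k => k ∈ T)) (hs : ∀ k ∈ V, KW θ k ≤ s)
    {k : Fin 18} (hk : k ∈ V) (hkD : k ∉ Dr) :
    TDs s Dr k = s - KW θ k + btW θ k := by
  rw [TDs_not hkD]
  exact (vis_TWc h hs hk).2

/-- **the F-lemma of a stage with more dropped slots** from one statement about `PtN`, `BasG` -/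
theorem flemN (h : CtxW P ν own K r0 θ g q V T) (hs0 : 0 < s) (hs : ∀ k ∈ V, KW θ k ≤ s)
    (hD : StgOk s Dr Z)
    (hst : Stage QW P ν own K r0 (btW θ) (DlW g q) (QdW θ) Z V 0 (btW θ) 1 (actW Dr) Dr lam lo)
    {Vis : ((Fin 18 → ℝ) → ℝ) → Prop} {g' : ℝ}
    (H : ∀ (B Bo : Base) (I J : ℕ → Finset (ℕ × ℝ)) (co : ∀ n : ℕ, ℕ × ℝ → ℕ × ℝ → Fin 18 → ℝ)
      (C : ℝ) (κ : ℕ → ℝ) (u : ℕ → Fin 18 → ℝ) (f : ℕ → ℕ × ℝ → FW) (z : ℝ × ℝ) (k : ℕ → ℝ)
      (lam' lo' : (Fin 18 → ℝ) → ℝ) (A : ℝ × ℝ) (φ : ℕ → (Fin 18 → ℝ) → ℝ) (r : ℕ → ℝ),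
      z.1 < 0 → (∀ l, 0 < k l) → Tendsto k atTop (𝓝 0) →
      IsTan (cn QW (actW Dr)) (cn QW (actW Dr)) lam (fun _ => X 0 (TDs s Dr) (btW θ) z) k lam' →
      IsTan (cn QW (actW Dr)) (cn QW (actW Dr)) lo (fun _ => X 0 (TDs s Dr) (btW θ) z) k lo' →
      (∀ n i j k, co n i j k = u n k * coW (κ n) (f n i) (f n j) k) →
      PtN B Bo I J co κ u f (mA monW (actW Dr)) Dr C lam' (TDs s Dr) (btW θ) A φ r (btW θ)
        (fun k => k ∈ V ∧ KW θ k = s) (fun k => k ∈ T ∧ k ∈ V ∧ KW θ k = s) →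
      OutA (gC (TDs s Dr) (btW θ)) (cn QW (actW Dr)) (TDs s Dr) (btW θ)
        (dhC (TDs s Dr) (btW θ)) (nC (TDs s Dr) (btW θ)) lam' A φ r →
      BasG lam' (mA monW (actW Dr)) Dr (TDs s Dr) (btW θ) (fun k => k ∈ V ∧ KW θ k = s) →
      Prf (cn QW (actW Dr)) lam' lo' K →
      Vis lam' → g' ≤ -A.1 + DlW g q (saW s)) :
    FLemA QW (actW Dr) P ν own r0 (DlW g q) V 0 (btW θ) (TDs s Dr) (saW s) (btW θ) lam lo
      Vis g' := by
  have hVD : ∀ k ∈ V, k ∉ Dr := hst.TD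
  have hloc : locT V 0 (btW θ) (TDs s Dr) = fun k => k ∈ V ∧ KW θ k = s := by
    funext k
    simp only [locT, eq_iff_iff]
    constructor
    · rintro ⟨hk, hT⟩
      refine ⟨hk, ?_⟩
      rw [visN h.slots hs hk (hVD k hk), hD.TDs0] at hT
      linarith
    · rintro ⟨hk, hK⟩
      refine ⟨hk, ?_⟩
      rw [visN h.slots hs hk (hVD k hk), hD.TDs0, hK]
      ring
  intro z hz D' hD' k lam' lo' kpos k0 H1 H2 x' h' hJ hB φ rt out hVis
  obtain ⟨B, Bo, I, J, co, C, κ, u, f, hco, hu, hκ, hκs, hne, hae⟩ := h.ae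
  have hA := hae (actW Dr) x' h' lam' lo' (TDs s Dr) (TDs s Dr) (btW θ) _ φ rt
    (fun k => k ∈ T ∧ k ∈ V ∧ KW θ k = s) hJ hB (fun i hi => by
      rw [visN h.slots hs hi (hVD i hi), hD.TDs0]
      have := hs i hi
      linarith) (fun k hk => by rw [hloc]; exact hk) (by
      rintro ⟨-, hk, -⟩
      exact absurd (vis_al h.slots hk).1 (by decide)) out.toOutS
  rw [hloc] at hA
  refine H B Bo I J co C κ u f z k lam' lo' _ φ rt hz kpos k0 H1 H2 hco
    { aew := hA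
      ch :=
        { co := fun n i _ j _ k => hco n i j k
          gr := hu
          k1 := hκ
          ks := hκs
          ne := hne }
      act := actM_mA _
      ind := fun c hc c' hc' pc e => by
        rw [coneM_mA] at hc hc'
        exact indN hD hst kpos k0 H1 hc hc' pc e } out
    { Dr4 := hD.h4
      V4 := fun k hk => (vis_al h.slots hk.1).1
      gz := (grp4N h.θ1 hD).1
      gA := (grp4N h.θ1 hD).2.1
      a0 := (grp4N h.θ1 hD).2.2.2
      sweep := by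
        refine ⟨q 1 + 2 * q 2, by linarith [h.q1, h.q2], fun c hc h1 h2 t ht => ?_⟩
        rw [coneM_mA] at hc
        exact sweepN hD hs0 hst hz kpos k0 H1 hc h1 h2 ht }
    (hst.prf.tan kpos H1 H2) hVis

end flem

/-! ### the frame `B` given slots whose walls with `B` are dropped -/

/-- natural integer vectors for the walls which avoid `Fd` -/
def OkF (Fd : Finset (Fin 18)) (n : Fin 18 → ℕ) : Prop :=
  ∀ k, k ∉ Fd → ∀ l ∈ mlW k, (∀ s ∈ l, s ∉ Fd) → n k ≤ (l.map n).sum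

instance (Fd : Finset (Fin 18)) (n : Fin 18 → ℕ) : Decidable (OkF Fd n) := by
  unfold OkF; infer_instance

theorem okF_mem {Ma : Mons 18} {Dr : Set (Fin 18)} (hA : ActM Ma Dr) {Fd : Finset (Fin 18)}
    (hF : ∀ k ∈ Fd, k ∈ Dr) {n : Fin 18 → ℕ} (h : OkF Fd n) {x : ℝ} (hx : 0 ≤ x) :
    scV x n ∈ coneM Ma := by
  rw [hA.cone]
  intro k hk l hl hs
  rw [sum_scV]
  refine mul_le_mul_of_nonneg_left ?_ hx
  exact_mod_cast h k (fun h1 => hk (hF k h1)) l hl fun s hs' h1 => hs s hs' (hF s h1)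

/-- the box `x` on `Q`, `y` on `B` -/
theorem upd3_sc {Q : Finset (Fin 18)} (hQ : (3 : Fin 18) ∉ Q) (x y : ℝ) :
    Function.update (bv x Q) 3 y = scV y (ind (insert 3 Q)) + scV (x - y) (ind Q) := by
  funext k
  rw [Pi.add_apply]
  by_cases h1 : k = 3
  · subst h1
    rw [Function.update_self]
    have e1 : ind (insert 3 Q) 3 = 1 := by simp [ind]
    have e2 : ind Q 3 = 0 := by simp [ind, hQ]
    simp [scV, e1, e2]
  · rw [Function.update_of_ne h1]
    by_cases hk : k ∈ Q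
    · have e1 : ind (insert 3 Q) k = 1 := by simp [ind, hk]
      have e2 : ind Q k = 1 := by simp [ind, hk]
      simp [scV, e1, e2, bv_in hk]
    · have e1 : ind (insert 3 Q) k = 0 := by simp [ind, hk, h1]
      have e2 : ind Q k = 0 := by simp [ind, hk]
      simp [scV, e1, e2, bv_out hk]

section n6

variable {B Bo : Base} {I J : ∀ n : ℕ, Finset (ℕ × ℝ)}
  {co : ∀ n : ℕ, ℕ × ℝ → ℕ × ℝ → Fin 18 → ℝ} {kp : ℕ → ℝ} {u : ℕ → Fin 18 → ℝ}
  {F : ∀ n : ℕ, ℕ × ℝ → FW} {Ma : Mons 18} {Dr : Set (Fin 18)} {C : ℝ}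
  {lam : (Fin 18 → ℝ) → ℝ} {a b : Fin 18 → ℝ} {A : ℝ × ℝ} {φ : ℕ → (Fin 18 → ℝ) → ℝ}
  {r : ℕ → ℝ} {κ : Fin 18 → ℝ} {V Tw : Fin 18 → Prop}

/-- **`B` is full given `z`, `A` and slots which are not in its group** -/
theorem n6_of (h : PtN B Bo I J co kp u F Ma Dr C lam a b A φ r κ V Tw)
    (hG : BasG lam Ma Dr a b V) {Q : Finset (Fin 18)} {x : ℝ} (hx : 0 < x)
    (hQ0 : (0 : Fin 18) ∈ Q) (hQ2 : (2 : Fin 18) ∈ Q) (hQ3 : (3 : Fin 18) ∉ Q)
    {Fd : Finset (Fin 18)} (hF : ∀ k ∈ Fd, k ∈ Dr) (o1 : OkF Fd (ind Q))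
    (o2 : OkF Fd (ind (insert 3 Q)))
    (hgr : ∀ j ∈ Q, j ≠ 0 → j ≠ 2 → j ∉ Dr → gC a b j ≠ gC a b 3) {y : ℝ} (hy : 0 ≤ y)
    (hyx : y ≤ x) : lam (Function.update (bv x Q) 3 y) ≤ lam (bv x Q) - y := by
  have m1 : bv x Q ∈ coneM Ma := by rw [bv_eq]; exact okF_mem h.act hF o1 hx.le
  have m2 : Function.update (bv x Q) 3 y ∈ coneM Ma := by
    rw [upd3_sc hQ3]
    exact cone_add (okF_mem h.act hF o2 hy) (okF_mem h.act hF o1 (by linarith))
  have m3 : v4 x 0 x 0 ∈ coneM Ma := v4_mem h.act hx.le le_rfl hx.le le_rfl (by linarith)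
    (by linarith) (by linarith)
  have m4 : v4 x 0 x y ∈ coneM Ma := v4_mem h.act hx.le le_rfl hx.le hy (by linarith)
    (by linarith) (by linarith)
  have m5 : v4 x 0 x x ∈ coneM Ma := v4_mem h.act hx.le le_rfl hx.le hx.le (by linarith)
    (by linarith) (by linarith)
  have nn : ∀ j, 0 ≤ Function.update (bv x Q) 3 y j := fun j => by
    by_cases hj : j = 3
    · rw [hj, Function.update_self]; exact hy
    · rw [Function.update_of_ne hj]
      unfold bv; split_ifs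
      · exact hx.le
      · exact le_rfl
  have e := h.slot (i := 3) m1 m2 m3 m4
    (fun j _ => by
      unfold bv; split_ifs
      · exact hx.le
      · exact le_rfl)
    (fun j _ => nn j) (fun j _ => v4_nonneg hx.le le_rfl hx.le le_rfl j)
    (fun j _ => v4_nonneg hx.le le_rfl hx.le hy j)
    (fun j hj _ => by rw [Function.update_of_ne hj]) (fun j hj _ => by simp [v4, hj])
    (by rw [bv_out hQ3, v4_3]) (by rw [Function.update_self, v4_3]) (fun j hj hj3 hjD => by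
      by_cases h0 : j = 0
      · rw [h0, bv_in hQ0, v4_0]
      by_cases h2 : j = 2
      · rw [h2, bv_in hQ2, v4_2]
      by_cases hjQ : j ∈ Q
      · exact absurd hj (hgr j hjQ h0 h2 hjD)
      · rw [bv_out hjQ]
        by_cases h1 : j = 1
        · rw [h1, v4_1]
        · simp [v4, h0, h1, h2, hj3])
  have e1 := h.full3 hG hx
  have e2 := h.aew.sharp _ m4 _ m5 (fun k => by
    refine cases4 (P := fun k => v4 x 0 x y k ≤ v4 x 0 x x k) ?_ ?_ ?_ ?_ ?_ k
    · rw [v4_0, v4_0]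
    · rw [v4_1, v4_1]
    · rw [v4_2, v4_2]
    · rw [v4_3, v4_3]; exact hyx
    · intro k hk; rw [v4_o _ _ _ _ hk, v4_o _ _ _ _ hk])
  have e3 : ∑ s, (v4 x 0 x x s - v4 x 0 x y s) = x - y := by
    rw [sum_eq_single_of_mem (3 : Fin 18) (mem_univ _)]
    · rw [v4_3, v4_3]
    · intro j _ hj
      simp [v4, hj]
  rw [e3] at e2
  have e4 := h.aew.sharp 0 zero_mem _ m3 (fun k => by
    rw [Pi.zero_apply]; exact v4_nonneg hx.le le_rfl hx.le le_rfl k)
  rw [h.aew.zero] at e4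
  have e5 : ∑ s, (v4 x 0 x 0 s - (0 : Fin 18 → ℝ) s) = 2 * x := by
    have e6 : ∀ s, v4 x 0 x 0 s - (0 : Fin 18 → ℝ) s =
        (if s = 0 then x else 0) + (if s = 2 then x else 0) := by
      intro s
      refine cases4 (P := fun s => v4 x 0 x 0 s - (0 : Fin 18 → ℝ) s =
        (if s = 0 then x else 0) + (if s = 2 then x else 0)) ?_ ?_ ?_ ?_ ?_ s
      · rw [v4_0]; simp
      · rw [v4_1]; simp
      · rw [v4_2]; simp
      · rw [v4_3]; simp
      · intro k hk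
        have k0 : k ≠ 0 := by rintro rfl; exact absurd hk (by decide)
        have k2 : k ≠ 2 := by rintro rfl; exact absurd hk (by decide)
        rw [v4_o _ _ _ _ hk]; simp [k0, k2]
    rw [Finset.sum_congr rfl fun s _ => e6 s, Finset.sum_add_distrib]
    simp; ring
  rw [e5] at e4
  linarith

end n6

/-! ### quad -/

/-- **numbers of `quad` at an interior point** : `QdL` at every `x`, `z` costs at least its width
given every box -/
structure QdN (Dr : Set (Fin 18)) (lam : (Fin 18 → ℝ) → ℝ) (mm : ℝ) : Prop where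
  m0 : 0 < mm
  zero : lam 0 = 0
  sharp : ∀ c ∈ cn QW (actW Dr), ∀ c' ∈ cn QW (actW Dr), c ≤ c' →
    lam c - lam c' ≤ ∑ s, (c' s - c s)
  anti : ∀ c ∈ cn QW (actW Dr), ∀ c' ∈ cn QW (actW Dr), c ≤ c' → lam c' ≤ lam c
  own : ∀ c ∈ cn QW (actW Dr), ∀ c' ∈ cn QW (actW Dr), c ≤ c' → c' 0 - c 0 ≤ lam c - lam c'
  num : ∀ x, 0 < x → QdL lam mm x
  /-- `B` is full given `z, A, w_B` if `BB` is dropped -/
  n7 : (7 : Fin 18) ∈ Dr → ∀ x y : ℝ, 0 < x → 0 ≤ y → y ≤ x →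
    lam (Function.update (bv x {0, 2, 14}) 3 y) ≤ lam (bv x {0, 2, 14}) - y
  /-- `B` is full given `z, A, w_B, w_A` if `BB, AB` are dropped -/
  n9 : (7 : Fin 18) ∈ Dr → (9 : Fin 18) ∈ Dr → ∀ x y : ℝ, 0 < x → 0 ≤ y → y ≤ x →
    lam (Function.update (bv x {0, 2, 14, 15}) 3 y) ≤ lam (bv x {0, 2, 14, 15}) - y

section quad

variable {P : Set (Fin 18 → ℝ)} {ν own : (Fin 18 → ℝ) → ℝ} {K : ℝ} {r0 : Fin 18 → ℝ}
  {θ : Fin 3 → ℝ} {g : ℝ} {q : Fin 3 → ℝ} {V T Z Dr : Set (Fin 18)}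
  {lam lo : (Fin 18 → ℝ) → ℝ}

/-- the slots `Z` of the stage of `quad` -/
theorem stgOk2 (hD : DrOk Dr) (hZ : Z = {k | k = 1 ∨ (k ∈ JW 2 ∧ k ∉ Dr)}) : StgOk 2 Dr Z where
  lo := fun k hk => hD.lo k ((mem_D2 k).1 hk)
  h4 := fun k hk => by
    rcases hD.hi k hk with h | h | h
    · have h1 : ∀ k ∈ D2, (4 : Fin 18) ≤ k := by decide
      exact h1 k h
    · rw [h]; decide
    · rw [h]; decide
  zz := fun k hk h0 => by
    rw [hZ]
    rcases cases_D2 k with h | h | h | h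
    · exact absurd (hD.lo k h) hk
    · have h1 : ∀ k ∈ ({1, 7, 9, 10, 11, 12, 13} : Finset (Fin 18)), k = 1 ∨ k ∈ JW 2 := by decide
      rcases h1 k h with h2 | h2
      · exact Or.inl h2
      · exact Or.inr ⟨h2, hk⟩
    · rw [TW2_1 k h] at h0; exact absurd h0 one_ne_zero
    · rw [h, TW2_2] at h0; exact absurd h0 two_ne_zero
  z0 := fun k hk hkD => by
    rw [hZ] at hk
    rcases hk with h | ⟨h, -⟩
    · rw [h]; exact TW_c 2
    · have h1 : ∀ k ∈ JW 2, k ∈ ({1, 7, 9, 10, 11, 12, 13} : Finset (Fin 18)) := by decide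
      exact TW2_0 k (h1 k h)

/-- **the interior point of `quad`** : a stage of slope `2` with the dropped slots
`{4, 5, 6, 8} ⊆ Dr ⊆ {4, 5, 6, 8, 7, 9}` over `CtxW`, no visible wall of slope `2`, resonance `Res2` -/
theorem hasQuadN (h : CtxW P ν own K r0 θ g q V T) (hs : ∀ k ∈ V, KW θ k < 2) (hres : Res2 θ)
    (hD : DrOk Dr) (h7 : (7 : Fin 18) ∈ Dr → btW θ 7 ≠ 0) (h9 : (9 : Fin 18) ∈ Dr → btW θ 9 ≠ 0)
    (hZ : Z = {k | k = 1 ∨ (k ∈ JW 2 ∧ k ∉ Dr)})
    (hst : Stage QW P ν own K r0 (btW θ) (DlW g q) (QdW θ) Z V 0 (btW θ) 1 (actW Dr) Dr lam lo) :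
    ∃ z : ℝ × ℝ, z.1 < 0 ∧ ∃ k : ℕ → ℝ, (∀ l, 0 < k l) ∧ Tendsto k atTop (𝓝 0) ∧
      ∃ (lamI loI : (Fin 18 → ℝ) → ℝ) (mm : ℝ),
        IsTan (cn QW (actW Dr)) (cn QW (actW Dr)) lam (fun _ => X 0 (TD Dr) (btW θ) z) k lamI ∧
        IsTan (cn QW (actW Dr)) (cn QW (actW Dr)) lo (fun _ => X 0 (TD Dr) (btW θ) z) k loI ∧
        QdN Dr lamI mm := by
  obtain ⟨h12, h13⟩ := res_ne h.θ1 hres
  by_contra hcon
  have hg : 0 < g - q 0 := by
    have := h.q0; have := h.qg; linarith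
  refine deadA hst (recW θ _ _) (rungN (s := 2) two_pos (stgOk2 hD hZ)) hg
    (flemN h two_pos (fun k hk => (hs k hk).le) (stgOk2 hD hZ) hst (Vis := fun _ => True) ?_)
  intro B Bo I J co C κ u f z k lam' lo' A φ r hz kpos k0 H1 H2 hco hP hO hB hprf _
  rcases le_or_gt 5 (-A.1) with h5 | h5
  · have := full_enough (g := g) (q := q) (s := 2) (C := 0) (A := A) (by linarith)
    linarith
  · exfalso
    have hVf : ∀ k, ¬ (k ∈ V ∧ KW θ k = 2) := fun k hk => (hs k hk.1).ne hk.2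
    obtain ⟨mm, hm, hn⟩ := qdL_ofN hP hD hB hVf h.θ1 h12 h13 h5
    have g3 : ∀ j ∈ ({14, 15} : Finset (Fin 18)), j ∉ Dr →
        gC (TDs 2 Dr) (btW θ) j = gC (TDs 2 Dr) (btW θ) 3 → btW θ j = btW θ 3 := by
      intro j hj hjD e
      have h1 : ∀ j ∈ ({14, 15} : Finset (Fin 18)), j ∈ ({0, 2, 3, 14, 15, 16} : Finset (Fin 18)) :=
        by decide
      have n3 : (3 : Fin 18) ∉ Dr := hD.not (by decide)
      have t3 : TDs 2 Dr 3 = 1 := by rw [TDs_not n3, TW_B]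
      have tj : TDs 2 Dr j = 1 := by rw [TDs_not hjD, TW2_1 j (h1 j hj)]
      rw [gC_eq (by rw [tj]; exact one_ne_zero) (by rw [t3]; exact one_ne_zero), tj, t3, div_one,
        div_one] at e
      exact e
    refine hcon ⟨z, hz, k, kpos, k0, lam', lo', mm, H1, H2, hm, hP.aew.zero, ?_, ?_, ?_, hn,
      fun d7 x y hx hy hyx => ?_, fun d7 d9 x y hx hy hyx => ?_⟩
    · intro c hc c' hc' hcc
      exact hP.aew.sharp c (by rw [coneM_mA]; exact hc) c' (by rw [coneM_mA]; exact hc') hcc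
    · intro c hc c' hc' hcc
      exact hP.aew.anti c (by rw [coneM_mA]; exact hc) c' (by rw [coneM_mA]; exact hc') hcc
    · intro c hc c' hc' hcc
      have := hP.aew.own c (by rw [coneM_mA]; exact hc) c' (by rw [coneM_mA]; exact hc') hcc
        fun k hk => absurd hk (hVf k)
      linarith
    · refine n6_of hP hB hx (by decide) (by decide) (by decide) (Fd := {4, 5, 6, 8, 7})
        (fun k hk => ?_) (by decide) (by decide) (fun j hj h0 h2 hjD e => ?_) hy hyx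
      · rcases mem_insert.1 hk with e | hk
        · exact hD.lo k (by rw [e]; decide)
        rcases mem_insert.1 hk with e | hk
        · exact hD.lo k (by rw [e]; decide)
        rcases mem_insert.1 hk with e | hk
        · exact hD.lo k (by rw [e]; decide)
        rcases mem_insert.1 hk with e | hk
        · exact hD.lo k (by rw [e]; decide)
        · rw [mem_singleton.1 hk]; exact d7
      · have hj14 : j = 14 := by
          have h3 : ∀ j ∈ ({0, 2, 14} : Finset (Fin 18)), j ≠ 0 → j ≠ 2 → j = 14 := by decide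
          exact h3 j hj h0 h2
        subst hj14
        have := g3 14 (by decide) hjD e
        rw [btW_14, btW3] at this
        refine h7 d7 ?_
        rw [btW_7]; linarith
    · refine n6_of hP hB hx (by decide) (by decide) (by decide) (Fd := {4, 5, 6, 8, 7, 9})
        (fun k hk => ?_) (by decide) (by decide) (fun j hj h0 h2 hjD e => ?_) hy hyx
      · rcases mem_insert.1 hk with e | hk
        · exact hD.lo k (by rw [e]; decide)
        rcases mem_insert.1 hk with e | hk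
        · exact hD.lo k (by rw [e]; decide)
        rcases mem_insert.1 hk with e | hk
        · exact hD.lo k (by rw [e]; decide)
        rcases mem_insert.1 hk with e | hk
        · exact hD.lo k (by rw [e]; decide)
        rcases mem_insert.1 hk with e | hk
        · rw [e]; exact d7
        · rw [mem_singleton.1 hk]; exact d9
      · have hj14 : j = 14 ∨ j = 15 := by
          have h3 : ∀ j ∈ ({0, 2, 14, 15} : Finset (Fin 18)), j ≠ 0 → j ≠ 2 → j = 14 ∨ j = 15 := by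
            decide
          exact h3 j hj h0 h2
        rcases hj14 with hj14 | hj14
        · subst hj14
          have := g3 14 (by decide) hjD e
          rw [btW_14, btW3] at this
          refine h7 d7 ?_
          rw [btW_7]; linarith
        · subst hj14
          have := g3 15 (by decide) hjD e
          rw [btW_15, btW3] at this
          refine h9 d9 ?_
          rw [btW_9]; linarith

end quad

end Crest.Agent.R136.Qgn887
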