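import Crest.Agent.R136.Qgn3_887

/-!
# R136, thin branch (helper887): the interior point of `quad` with its structure

* `qdN_ofP` : the numbers `QdN` from `PtN` + `BasG` (`-A.1 < 5`).
* **`hasQuadNA`** : `hasQuadN` with `OutA` for the interior profile and `-A.1 < 5`.
-/

set_option autoImplicit false
set_option linter.unusedSectionVars false
set_option linter.unusedVariables false

open Filter Topology

namespace Crest.Agent.R136.Qgn887

open Finset Crest.Agent.R138.Ex926 Crest.Agent.R136.Net191 Crest.Agent.R136.Gf356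
open Crest.Agent.R136.Qg926 Crest.Agent.R136.Dg219 Crest.Agent.R136.Aw413
open Crest.Agent.R136.NetW191 Crest.Agent.R136.EvW938 Crest.Agent.R136.PrW464
open Crest.Agent.R136.LadW697 Crest.Agent.R136.AwJ774 Crest.Agent.R136.Bas938
open Crest.Agent.R136.Ht887 Crest.Agent.R136.Win887 Crest.Agent.R136.QdH887
open Crest.Agent.R136.K2S774 Crest.Agent.R136.K2A146 Crest.Agent.R136.NatW697
open Crest.Agent.R136.LadT830 Crest.Agent.R136.ThB830 Crest.Agent.R136.Top484
open Crest.Agent.R136.Dg262 (X)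
open Crest.Agent.R136.Rc146 (OutA)

section pt

variable {B Bo : Base} {I J : ∀ n : ℕ, Finset (ℕ × ℝ)}
  {co : ∀ n : ℕ, ℕ × ℝ → ℕ × ℝ → Fin 18 → ℝ} {kp : ℕ → ℝ} {u : ℕ → Fin 18 → ℝ}
  {F : ∀ n : ℕ, ℕ × ℝ → FW} {Dr : Set (Fin 18)} {C : ℝ}
  {lam : (Fin 18 → ℝ) → ℝ} {A : ℝ × ℝ} {φ : ℕ → (Fin 18 → ℝ) → ℝ}
  {r : ℕ → ℝ} {κ : Fin 18 → ℝ} {V Tw : Fin 18 → Prop}

/-- **the numbers of `quad`** at a point which is not dead -/
theorem qdN_ofP {θ : Fin 3 → ℝ}
    (hP : PtN B Bo I J co kp u F (mA monW (actW Dr)) Dr C lam (TD Dr) (btW θ) A φ r κ V Tw)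
    (hB : BasG lam (mA monW (actW Dr)) Dr (TD Dr) (btW θ) V) (hD : DrOk Dr)
    (hVf : ∀ k, ¬ V k) (hθ : 0 < θ 1) (hres : Res2 θ)
    (h7 : (7 : Fin 18) ∈ Dr → btW θ 7 ≠ 0) (h9 : (9 : Fin 18) ∈ Dr → btW θ 9 ≠ 0)
    (h5 : -A.1 < 5) : ∃ mm : ℝ, QdN Dr lam mm := by
  obtain ⟨h12, h13⟩ := res_ne hθ hres
  obtain ⟨mm, hm, hn⟩ := qdL_ofN hP hD hB hVf hθ h12 h13 h5
  have g3 : ∀ j ∈ ({14, 15} : Finset (Fin 18)), j ∉ Dr →
      gC (TD Dr) (btW θ) j = gC (TD Dr) (btW θ) 3 → btW θ j = btW θ 3 := by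
    intro j hj hjD e
    have h1 : ∀ j ∈ ({14, 15} : Finset (Fin 18)), j ∈ ({0, 2, 3, 14, 15, 16} : Finset (Fin 18)) :=
      by decide
    have n3 : (3 : Fin 18) ∉ Dr := hD.not (by decide)
    have t3 : TD Dr 3 = 1 := by rw [TD_not n3, TW_B]
    have tj : TD Dr j = 1 := by rw [TD_not hjD, TW2_1 j (h1 j hj)]
    rw [gC_eq (by rw [tj]; exact one_ne_zero) (by rw [t3]; exact one_ne_zero), tj, t3, div_one,
      div_one] at e
    exact e
  refine ⟨mm, hm, hP.aew.zero, ?_, ?_, ?_, hn,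
    fun d7 x y hx hy hyx => ?_, fun d7 d9 x y hx hy hyx => ?_⟩
  · intro c hc c' hc' hcc
    exact hP.aew.sharp c (by rw [coneM_mA]; exact hc) c' (by rw [coneM_mA]; exact hc') hcc
  · intro c hc c' hc' hcc
    exact hP.aew.anti c (by rw [coneM_mA]; exact hc) c' (by rw [coneM_mA]; exact hc') hcc
  · intro c hc c' hc' hcc
    have := hP.aew.own c (by rw [coneM_mA]; exact hc) c' (by rw [coneM_mA]; exact hc') hcc
      fun k hk => absurd hk (hVf k)
    linarith
  · refine n6_of hP hB hx (by decide) (by decide) (by decide) (Fd := {4, 5, 6, 8, 7})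
      (fun k hk => ?_) (by decide) (by decide) (fun j hj h0 h2 hjD e => ?_) hy hyx
    · rcases mem_insert.1 hk with e | hk
      · exact hD.lo k (by rw [e]; decide)
      rcases mem_insert.1 hk with e | hk
      · exact hD.lo k (by rw [e]; decide)
      rcases mem_insert.1 hk with e | hk
      · exact hD.lo k (by rw [e]; decide)
      rcases mem_insert.1 hk with e | hk
      · exact hD.lo k (by rw [e]; decide)
      · rw [mem_singleton.1 hk]; exact d7
    · have hj14 : j = 14 := by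
        have h3 : ∀ j ∈ ({0, 2, 14} : Finset (Fin 18)), j ≠ 0 → j ≠ 2 → j = 14 := by decide
        exact h3 j hj h0 h2
      subst hj14
      have := g3 14 (by decide) hjD e
      rw [btW_14, btW3] at this
      refine h7 d7 ?_
      rw [btW_7]; linarith
  · refine n6_of hP hB hx (by decide) (by decide) (by decide) (Fd := {4, 5, 6, 8, 7, 9})
      (fun k hk => ?_) (by decide) (by decide) (fun j hj h0 h2 hjD e => ?_) hy hyx
    · rcases mem_insert.1 hk with e | hk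
      · exact hD.lo k (by rw [e]; decide)
      rcases mem_insert.1 hk with e | hk
      · exact hD.lo k (by rw [e]; decide)
      rcases mem_insert.1 hk with e | hk
      · exact hD.lo k (by rw [e]; decide)
      rcases mem_insert.1 hk with e | hk
      · exact hD.lo k (by rw [e]; decide)
      rcases mem_insert.1 hk with e | hk
      · rw [e]; exact d7
      · rw [mem_singleton.1 hk]; exact d9
    · have hj14 : j = 14 ∨ j = 15 := by
        have h3 : ∀ j ∈ ({0, 2, 14, 15} : Finset (Fin 18)), j ≠ 0 → j ≠ 2 → j = 14 ∨ j = 15 := by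
          decide
        exact h3 j hj h0 h2
      rcases hj14 with hj14 | hj14
      · subst hj14
        have := g3 14 (by decide) hjD e
        rw [btW_14, btW3] at this
        refine h7 d7 ?_
        rw [btW_7]; linarith
      · subst hj14
        have := g3 15 (by decide) hjD e
        rw [btW_15, btW3] at this
        refine h9 d9 ?_
        rw [btW_9]; linarith

end pt

section quad

variable {P : Set (Fin 18 → ℝ)} {ν own : (Fin 18 → ℝ) → ℝ} {K : ℝ} {r0 : Fin 18 → ℝ}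
  {θ : Fin 3 → ℝ} {g : ℝ} {q : Fin 3 → ℝ} {V T Z Dr : Set (Fin 18)}
  {lam lo : (Fin 18 → ℝ) → ℝ}

/-- **the interior point of `quad`** with its structure `OutA` -/
theorem hasQuadNA (h : CtxW P ν own K r0 θ g q V T) (hs : ∀ k ∈ V, KW θ k < 2) (hres : Res2 θ)
    (hD : DrOk Dr) (h7 : (7 : Fin 18) ∈ Dr → btW θ 7 ≠ 0) (h9 : (9 : Fin 18) ∈ Dr → btW θ 9 ≠ 0)
    (hZ : Z = {k | k = 1 ∨ (k ∈ JW 2 ∧ k ∉ Dr)})
    (hst : Stage QW P ν own K r0 (btW θ) (DlW g q) (QdW θ) Z V 0 (btW θ) 1 (actW Dr) Dr lam lo) :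
    ∃ z : ℝ × ℝ, z.1 < 0 ∧ ∃ k : ℕ → ℝ, (∀ l, 0 < k l) ∧ Tendsto k atTop (𝓝 0) ∧
      ∃ (lamI loI : (Fin 18 → ℝ) → ℝ) (mm : ℝ) (A : ℝ × ℝ) (φ : ℕ → (Fin 18 → ℝ) → ℝ)
        (r : ℕ → ℝ),
        IsTan (cn QW (actW Dr)) (cn QW (actW Dr)) lam (fun _ => X 0 (TD Dr) (btW θ) z) k lamI ∧
        IsTan (cn QW (actW Dr)) (cn QW (actW Dr)) lo (fun _ => X 0 (TD Dr) (btW θ) z) k loI ∧
        OutA (gC (TD Dr) (btW θ)) (cn QW (actW Dr)) (TD Dr) (btW θ)
          (dhC (TD Dr) (btW θ)) (nC (TD Dr) (btW θ)) lamI A φ r ∧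
        -A.1 < 5 ∧ QdN Dr lamI mm := by
  by_contra hcon
  have hg : 0 < g - q 0 := by
    have := h.q0; have := h.qg; linarith
  refine deadA hst (recW θ _ _) (rungN (s := 2) two_pos (stgOk2 hD hZ)) hg
    (flemN h two_pos (fun k hk => (hs k hk).le) (stgOk2 hD hZ) hst (Vis := fun _ => True) ?_)
  intro B Bo I J co C κ u f z k lam' lo' A φ r hz kpos k0 H1 H2 hco hP hO hB hprf _
  rcases le_or_gt 5 (-A.1) with h5 | h5
  · have := full_enough (g := g) (q := q) (s := 2) (C := 0) (A := A) (by linarith)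
    linarith
  · exfalso
    have hVf : ∀ k, ¬ (k ∈ V ∧ KW θ k = 2) := fun k hk => (hs k hk.1).ne hk.2
    obtain ⟨mm, hq⟩ := qdN_ofP hP hB hD hVf h.θ1 hres h7 h9 h5
    exact hcon ⟨z, hz, k, kpos, k0, lam', lo', mm, A, φ, r, H1, H2, hO, h5, hq⟩

end quad

end Crest.Agent.R136.Qgn887
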