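import Crest.Agent.R136.Qgn5_887

/-!
# R136, thin branch (helper887): the numbers of `quad` at every base of the plane

* `shf_eq` : a loss in slots of positive slope is the same at every base of the plane.
* `sweepV` : the slot `c` costs at every base of the plane.
* `loTan` : the own profile of the interior point is `-(c 0)`.
* **`hasQuadA`** : the interior point of `quad` : `OutA`, `-A.1 < 5`, own profile, `QdN` at every base
  `X 0 (TD Dr) (btW θ) v` of the plane.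
-/

set_option autoImplicit false
set_option linter.unusedSectionVars false
set_option linter.unusedVariables false

open Filter Topology

namespace Crest.Agent.R136.Qgn887

open Finset Crest.Agent.R138.Ex926 Crest.Agent.R136.Net191 Crest.Agent.R136.Gf356
open Crest.Agent.R136.Qg926 Crest.Agent.R136.Dg219 Crest.Agent.R136.Aw413
open Crest.Agent.R136.NetW191 Crest.Agent.R136.EvW938 Crest.Agent.R136.PrW464
open Crest.Agent.R136.LadW697 Crest.Agent.R136.AwJ774 Crest.Agent.R136.Bas938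
open Crest.Agent.R136.Ht887 Crest.Agent.R136.Win887 Crest.Agent.R136.QdH887
open Crest.Agent.R136.K2S774 Crest.Agent.R136.K2A146 Crest.Agent.R136.NatW697
open Crest.Agent.R136.LadT830 Crest.Agent.R136.ThB830 Crest.Agent.R136.Top484
open Crest.Agent.R136.Dg262 (X)
open Crest.Agent.R136.Rc146 (OutA)

/-- **losses in slots of positive slope do not see the base** -/
theorem shf_eq {L : Set (Fin 18 → ℝ)} {T b : Fin 18 → ℝ} {lam : (Fin 18 → ℝ) → ℝ} {A : ℝ × ℝ}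
    {φ : ℕ → (Fin 18 → ℝ) → ℝ} {r : ℕ → ℝ}
    (hO : OutA (gC T b) L T b (dhC T b) (nC T b) lam A φ r) (T0 : ∀ i, 0 ≤ T i) {v : ℝ × ℝ}
    {c c' : Fin 18 → ℝ} (hc : c ∈ L) (hc' : c' ∈ L) (ha : X 0 T b v + c ∈ L)
    (ha' : X 0 T b v + c' ∈ L) (h0 : ∀ i, T i = 0 → c i = c' i) :
    lam (X 0 T b v + c) - lam (X 0 T b v + c') = lam c - lam c' := by
  have e : X 0 T b v = Tn T b v := by rw [Rc146.X_eq, zero_add]
  rw [e] at ha ha' ⊢
  rw [hO.sum _ ha, hO.sum _ ha', hO.sum _ hc, hO.sum _ hc', ← sum_sub_distrib, ← sum_sub_distrib]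
  refine sum_congr rfl fun j _ => ?_
  by_cases hj : j = 0
  · subst hj
    rw [hO.loc 0 (Tn T b v + c) (Tn T b v + c') fun i hi => by
      rw [Pi.add_apply, Pi.add_apply, h0 i (gC_zero.1 hi)],
      hO.loc 0 c c' fun i hi => h0 i (gC_zero.1 hi)]
    ring
  · have hp : ∀ i, gC T b i = j → 0 < dhC T b i := fun i hi => by
      have hT : T i ≠ 0 := fun h => hj (by rw [← hi]; exact gC_zero.2 h)
      unfold dhC
      rw [if_neg hT]
      exact lt_of_le_of_ne (T0 i) (Ne.symm hT)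
    rw [hO.add j hp v c hc, hO.add j hp v c' hc']
    ring

theorem cn_pl {Dr : Set (Fin 18)} {a c : Fin 18 → ℝ} (ha : K2S774.Nat QW (actW Dr) a)
    (hc : c ∈ cn QW (actW Dr)) : a + c ∈ cn QW (actW Dr) := by
  have := cn_nat_add ha hc (zero_le_one (α := ℝ))
  rwa [one_smul] at this

section stage

variable {P : Set (Fin 18 → ℝ)} {ν own : (Fin 18 → ℝ) → ℝ} {K : ℝ} {r0 : Fin 18 → ℝ}
  {θ : Fin 3 → ℝ} {g : ℝ} {q : Fin 3 → ℝ} {V T Z Dr : Set (Fin 18)} {s : ℝ}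
  {lam lo lam' lo' : (Fin 18 → ℝ) → ℝ}

/-- the bases of the plane are natural -/
theorem planeN (hD : StgOk s Dr Z) (θ : Fin 3 → ℝ) (v : ℝ × ℝ) :
    K2S774.Nat QW (actW Dr) (X 0 (TDs s Dr) (btW θ) v) := by
  rw [X_zero]
  exact ((natTDs hD).smul _).add ((nat_btW _ θ).smul _)

/-- **the slot `c` costs at every base of the plane** -/
theorem sweepV (hD : StgOk s Dr Z) (hs : 0 < s)
    (H : Stage QW P ν own K r0 (btW θ) (DlW g q) (QdW θ) Z V 0 (btW θ) 1 (actW Dr) Dr lam lo)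
    {z : ℝ × ℝ} (hz : z.1 < 0) {k : ℕ → ℝ} (kpos : ∀ l, 0 < k l) (k0 : Tendsto k atTop (𝓝 0))
    (H1 : IsTan (cn QW (actW Dr)) (cn QW (actW Dr)) lam
      (fun _ => X 0 (TDs s Dr) (btW θ) z) k lam') (v : ℝ × ℝ)
    {c : Fin 18 → ℝ} (hc : c ∈ cn QW (actW Dr)) (hc1 : c 1 = 0)
    (hcT : ∀ i, i ≠ 1 → TDs s Dr i = 0 → c i ≤ 0) {t : ℝ} (ht : 0 ≤ t) :
    lam' (X 0 (TDs s Dr) (btW θ) v + (c + t • e1W)) ≤
      lam' (X 0 (TDs s Dr) (btW θ) v + c) - (q 1 + 2 * q 2) * t := by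
  have hX : ∀ i, X 0 (TDs s Dr) (btW θ) v i = v.1 * TDs s Dr i + v.2 * btW θ i := fun i => by
    rw [X_zero]; simp only [Pi.add_apply, Pi.smul_apply, smul_eq_mul]
  have e : X 0 (TDs s Dr) (btW θ) v + (c + t • e1W) =
      (X 0 (TDs s Dr) (btW θ) v + c) + t • e1W := by rw [add_assoc]
  have m1 : X 0 (TDs s Dr) (btW θ) v + c ∈ cn QW (actW Dr) := cn_pl (planeN hD θ v) hc
  rw [e]
  have := H.sweepR (nat_btW _ θ) (TDs_nonneg hs Dr) (natTDs hD) (fun i _ => rfl) hz kpos k0 H1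
    (u := e1W) (c' := X 0 (TDs s Dr) (btW θ) v + c) (mm := q 1 + 2 * q 2) (σ := v.2) (h := t)
    e1W_nonneg ht
    (fun σ h hh _ => by
      have := sweep_recN H σ hh
      linarith) m1 (add_e1_mem m1 ht) (fun i _ hT => by
      rw [Pi.add_apply, hX, hT]
      by_cases h1 : i = 1
      · rw [h1, hc1]; linarith
      · have := hcT i h1 hT; linarith) (fun i _ hu => by
      have h1 : i = 1 := by
        by_contra hne
        exact hu (by unfold e1W; rw [Pi.single_eq_of_ne hne])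
      rw [h1, Pi.add_apply, hX, hc1, hD.TDs1]
      exact ⟨rfl, by ring⟩)
  linarith

/-- **the own profile of the interior point** -/
theorem loTan (h : SlotOkW θ (fun k => k ∈ V) (fun k => k ∈ T)) (hs : ∀ k ∈ V, KW θ k < s)
    (hD : StgOk s Dr Z) (hVD : ∀ k ∈ V, k ∉ Dr)
    (H : Stage QW P ν own K r0 (btW θ) (DlW g q) (QdW θ) Z V 0 (btW θ) 1 (actW Dr) Dr lam lo)
    {z : ℝ × ℝ} (hz : z.1 < 0) {k : ℕ → ℝ} (kpos : ∀ l, 0 < k l) (k0 : Tendsto k atTop (𝓝 0))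
    (H2 : IsTan (cn QW (actW Dr)) (cn QW (actW Dr)) lo
      (fun _ => X 0 (TDs s Dr) (btW θ) z) k lo') :
    ∀ c ∈ cn QW (actW Dr), lo' c = -(c 0) := by
  have hT : ∀ i ∈ V, btW θ i * TDs s Dr 0 < TDs s Dr i := fun i hi => by
    rw [visN h (fun k hk => (hs k hk).le) hi (hVD i hi), hD.TDs0]
    have := hs i hi
    linarith
  intro c hc
  have := (H.lo_tan (recW θ _ _) (natTDs hD) (fun i hi => (hT i hi).le) (fun i _ => rfl) hz kpos
    k0 H2).1 c hc fun i hi e => absurd e (hT i hi).ne'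
  rw [this, one_mul]

end stage

theorem qdL_mono {lam : (Fin 18 → ℝ) → ℝ} {mm m' x : ℝ} (h : QdL lam mm x) (hm : m' ≤ mm) :
    QdL lam m' x where
  h1 := h.h1
  h2 := h.h2
  h3 := h.h3
  h4 := h.h4
  h5 := fun y hy => (h.h5 y hy).trans (by
    have := mul_le_mul_of_nonneg_right hm hy
    linarith)

theorem QdN.mono {Dr : Set (Fin 18)} {lam : (Fin 18 → ℝ) → ℝ} {mm m' : ℝ} (h : QdN Dr lam mm)
    (h0 : 0 < m') (hm : m' ≤ mm) : QdN Dr lam m' where
  m0 := h0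
  zero := h.zero
  sharp := h.sharp
  anti := h.anti
  own := h.own
  num := fun x hx => qdL_mono (h.num x hx) hm
  n7 := h.n7
  n9 := h.n9

theorem upd_e1 (x y : ℝ) : bv x {0} + y • e1W = Function.update (bv x {0}) 1 y := by
  funext k
  rw [Pi.add_apply, Pi.smul_apply, smul_eq_mul]
  by_cases h1 : k = 1
  · rw [h1, Function.update_self, bv_out (by decide)]; simp [e1W]
  · have : e1W k = 0 := by unfold e1W; rw [Pi.single_eq_of_ne h1]
    rw [Function.update_of_ne h1, this, mul_zero, add_zero]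

set_option maxRecDepth 4000 in
/-- **the numbers at every base of the plane** -/
theorem qdN_plane {θ : Fin 3 → ℝ} {Dr : Set (Fin 18)} {lam : (Fin 18 → ℝ) → ℝ} {A : ℝ × ℝ}
    {φ : ℕ → (Fin 18 → ℝ) → ℝ} {r : ℕ → ℝ} {mm : ℝ}
    (hO : OutA (gC (TD Dr) (btW θ)) (cn QW (actW Dr)) (TD Dr) (btW θ) (dhC (TD Dr) (btW θ))
      (nC (TD Dr) (btW θ)) lam A φ r) (hD : DrOk Dr) (hq : QdN Dr lam mm) (v : ℝ × ℝ)
    (hsw : ∀ c ∈ cn QW (actW Dr), c 1 = 0 → (∀ i, i ≠ 1 → TD Dr i = 0 → c i ≤ 0) → ∀ t, 0 ≤ t →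
      lam (X 0 (TD Dr) (btW θ) v + (c + t • e1W)) ≤ lam (X 0 (TD Dr) (btW θ) v + c) - mm * t) :
    QdN Dr (fun p => lam (X 0 (TD Dr) (btW θ) v + p) - lam (X 0 (TD Dr) (btW θ) v)) mm := by
  have hs2 : StgOk 2 Dr {k | k = 1 ∨ (k ∈ JW 2 ∧ k ∉ Dr)} := stgOk2 hD rfl
  have hn : K2S774.Nat QW (actW Dr) (X 0 (TD Dr) (btW θ) v) := planeN hs2 θ v
  have pl : ∀ c ∈ cn QW (actW Dr), X 0 (TD Dr) (btW θ) v + c ∈ cn QW (actW Dr) :=
    fun c hc => cn_pl hn hc
  set a := X 0 (TD Dr) (btW θ) v with ha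
  have hact := actM_mA (Dr := Dr)
  have cl : ∀ c c' : Fin 18 → ℝ, c ≤ c' → a + c ≤ a + c' := fun c c' h => add_le_add le_rfl h
  have m : ∀ Q : Finset (Fin 18), OkD (ind Q) → ∀ x : ℝ, 0 < x → bv x Q ∈ cn QW (actW Dr) :=
    fun Q hQ x hx => by
      rw [← coneM_mA]; exact bvN (actM_mA _) hD hQ hx.le
  have S : ∀ c ∈ cn QW (actW Dr), ∀ c' ∈ cn QW (actW Dr), (∀ i, TD Dr i = 0 → c i = c' i) →
      lam (a + c) - lam (a + c') = lam c - lam c' := fun c hc c' hc' h0 =>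
    shf_eq hO (TD_nonneg Dr) hc hc' (pl c hc) (pl c' hc') h0
  have t1 : ∀ k ∈ ({0, 2, 3, 14, 15, 16} : Finset (Fin 18)), TD Dr k ≠ 0 := fun k hk => by
    have h1 : ∀ i ∈ ({0, 2, 3, 14, 15, 16} : Finset (Fin 18)),
        i ∈ ({0, 1, 2, 3, 10, 11, 12, 13, 14, 15, 16, 17} : Finset (Fin 18)) := by decide
    rw [TD_not (hD.not (h1 k hk)), TW2_1 k hk]
    exact one_ne_zero
  have SQ : ∀ (Q Q' : Finset (Fin 18)) (x : ℝ), bv x Q ∈ cn QW (actW Dr) →
      bv x Q' ∈ cn QW (actW Dr) →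
      (∀ k, (k ∈ Q ↔ k ∈ Q') ∨ k ∈ ({0, 2, 3, 14, 15, 16} : Finset (Fin 18))) →
      lam (a + bv x Q) - lam (a + bv x Q') = lam (bv x Q) - lam (bv x Q') := by
    intro Q Q' x h1 h2 h3
    refine S _ h1 _ h2 fun i hi => ?_
    rcases h3 i with h | h
    · unfold bv; simp only [h]
    · exact absurd hi (t1 i h)
  have mF : ∀ (Fd Q : Finset (Fin 18)), (∀ k ∈ Fd, k ∈ Dr) → OkF Fd (ind Q) → ∀ x : ℝ, 0 ≤ x →
      scV x (ind Q) ∈ cn QW (actW Dr) := fun Fd Q hF h x hx => by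
    rw [← coneM_mA]; exact okF_mem (actM_mA _) hF h hx
  have up3 : ∀ (Fd Q : Finset (Fin 18)), (∀ k ∈ Fd, k ∈ Dr) → OkF Fd (ind Q) →
      OkF Fd (ind (insert 3 Q)) → (3 : Fin 18) ∉ Q → ∀ x y : ℝ, 0 < x → 0 ≤ y → y ≤ x →
      lam (Function.update (bv x Q) 3 y) ≤ lam (bv x Q) - y →
      lam (a + Function.update (bv x Q) 3 y) ≤ lam (a + bv x Q) - y := by
    intro Fd Q hF o1 o2 hQ3 x y hx hy hyx h
    have m1 : bv x Q ∈ cn QW (actW Dr) := by rw [bv_eq]; exact mF Fd Q hF o1 x hx.le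
    have m2 : Function.update (bv x Q) 3 y ∈ cn QW (actW Dr) := by
      rw [upd3_sc hQ3, ← coneM_mA]
      refine cone_add ?_ ?_
      · rw [coneM_mA]; exact mF Fd _ hF o2 y hy
      · rw [coneM_mA]; exact mF Fd _ hF o1 _ (by linarith)
    have := S _ m2 _ m1 fun i hi => by
      have h3 : i ≠ 3 := fun e => t1 3 (by decide) (by rw [← e]; exact hi)
      rw [Function.update_of_ne h3]
    linarith
  refine ⟨hq.m0, by rw [add_zero, sub_self], ?_, ?_, ?_, ?_, ?_, ?_⟩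
  · intro c hc c' hc' hcc
    have h1 := hq.sharp _ (pl c hc) _ (pl c' hc') (cl c c' hcc)
    have h2 : ∑ s, ((a + c') s - (a + c) s) = ∑ s, (c' s - c s) :=
      sum_congr rfl fun s _ => by rw [Pi.add_apply, Pi.add_apply]; ring
    rw [h2] at h1
    linarith
  · intro c hc c' hc' hcc
    have := hq.anti _ (pl c hc) _ (pl c' hc') (cl c c' hcc)
    linarith
  · intro c hc c' hc' hcc
    have := hq.own _ (pl c hc) _ (pl c' hc') (cl c c' hcc)
    rw [Pi.add_apply, Pi.add_apply] at this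
    linarith
  · intro x hx
    have hx' := hq.num x hx
    have m0 := m {0} (by decide) x hx
    have mp := m {0, 2, 3, 14, 15} (by decide) x hx
    have mpP := m {0, 2, 3, 14, 15, 16} (by decide) x hx
    have mv := m {0, 1, 11, 12} (by decide) x hx
    have mvP := m {0, 1, 11, 12, 16} (by decide) x hx
    have mpv := m {0, 1, 2, 3, 11, 12, 14, 15} (by decide) x hx
    have m23 : bv x {0, 2, 3} ∈ cn QW (actW Dr) := by
      rw [← coneM_mA, bv_v4]
      exact v4_mem (actM_mA _) hx.le le_rfl hx.le hx.le (by linarith) (by linarith) (by linarith)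
    refine ⟨?_, ?_, ?_, ?_, ?_⟩
    · have := SQ {0, 2, 3, 14, 15, 16} {0, 2, 3, 14, 15} x mpP mp (by decide)
      have h1 := hx'.h1
      linarith
    · have := SQ {0, 1, 11, 12, 16} {0, 1, 11, 12} x mvP mv (by decide)
      have h1 := hx'.h2
      linarith
    · -- (H3)
      have g1 : ∀ (Q Q' : Finset (Fin 18)), (∀ k, (k ∈ Q ↔ k ∈ Q') ∨
          k ∈ ({1, 10, 11, 12, 13} : Finset (Fin 18))) → ∀ i,
          gC (TD Dr) (btW θ) i ≠ 0 → (a + bv x Q) i = (a + bv x Q') i := fun Q Q' h i hi => by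
        rw [Pi.add_apply, Pi.add_apply, bv_grpN hD h i hi]
      have g2 : ∀ (Q Q' : Finset (Fin 18)), (∀ k, (k ∈ Q ↔ k ∈ Q') ∨
          k ∈ ({0, 2, 3, 14, 15, 16} : Finset (Fin 18))) → ∀ i,
          gC (TD Dr) (btW θ) i = 0 → (a + bv x Q) i = (a + bv x Q') i := fun Q Q' h i hi => by
        rw [Pi.add_apply, Pi.add_apply, bv_grp0N hD h i hi]
      have := loss_eq hO.toOutS 0 (pl _ m0) (pl _ mv) (pl _ mp) (pl _ mpv)
        (g1 _ _ (by decide)) (g1 _ _ (by decide)) (g2 _ _ (by decide)) (g2 _ _ (by decide))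
      linarith
    · have := SQ {0, 2, 3} {0} x m23 m0 (by decide)
      have h1 := hx'.h4
      linarith
    · intro y hy
      have e1 := hsw _ m0 (bv_out (by decide)) (fun i hi h0 => by
        by_cases h1 : i = 0
        · rw [h1] at h0; exact absurd h0 (t1 0 (by decide))
        · rw [bv_out (by rw [mem_singleton]; exact h1)]) y hy
      rw [upd_e1] at e1
      linarith
  · intro d7 x y hx hy hyx
    have := up3 {4, 5, 6, 8, 7} {0, 2, 14} (fun k hk => by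
      rcases mem_insert.1 hk with e | hk
      · exact hD.lo k (by rw [e]; decide)
      rcases mem_insert.1 hk with e | hk
      · exact hD.lo k (by rw [e]; decide)
      rcases mem_insert.1 hk with e | hk
      · exact hD.lo k (by rw [e]; decide)
      rcases mem_insert.1 hk with e | hk
      · exact hD.lo k (by rw [e]; decide)
      · rw [mem_singleton.1 hk]; exact d7) (by decide) (by decide) (by decide) x y hx hy hyx
      (hq.n7 d7 x y hx hy hyx)
    linarith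
  · intro d7 d9 x y hx hy hyx
    have := up3 {4, 5, 6, 8, 7, 9} {0, 2, 14, 15} (fun k hk => by
      rcases mem_insert.1 hk with e | hk
      · exact hD.lo k (by rw [e]; decide)
      rcases mem_insert.1 hk with e | hk
      · exact hD.lo k (by rw [e]; decide)
      rcases mem_insert.1 hk with e | hk
      · exact hD.lo k (by rw [e]; decide)
      rcases mem_insert.1 hk with e | hk
      · exact hD.lo k (by rw [e]; decide)
      rcases mem_insert.1 hk with e | hk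
      · rw [e]; exact d7
      · rw [mem_singleton.1 hk]; exact d9) (by decide) (by decide) (by decide) x y hx hy hyx
      (hq.n9 d7 d9 x y hx hy hyx)
    linarith

section quad

variable {P : Set (Fin 18 → ℝ)} {ν own : (Fin 18 → ℝ) → ℝ} {K : ℝ} {r0 : Fin 18 → ℝ}
  {θ : Fin 3 → ℝ} {g : ℝ} {q : Fin 3 → ℝ} {V T Z Dr : Set (Fin 18)}
  {lam lo : (Fin 18 → ℝ) → ℝ}

/-- **the interior point of `quad`** with its structure, own profile and the numbers at every base -/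
theorem hasQuadA (h : CtxW P ν own K r0 θ g q V T) (hs : ∀ k ∈ V, KW θ k < 2) (hres : Res2 θ)
    (hD : DrOk Dr) (h7 : (7 : Fin 18) ∈ Dr → btW θ 7 ≠ 0) (h9 : (9 : Fin 18) ∈ Dr → btW θ 9 ≠ 0)
    (hZ : Z = {k | k = 1 ∨ (k ∈ JW 2 ∧ k ∉ Dr)})
    (hst : Stage QW P ν own K r0 (btW θ) (DlW g q) (QdW θ) Z V 0 (btW θ) 1 (actW Dr) Dr lam lo) :
    ∃ z : ℝ × ℝ, z.1 < 0 ∧ ∃ k : ℕ → ℝ, (∀ l, 0 < k l) ∧ Tendsto k atTop (𝓝 0) ∧
      ∃ (lamI loI : (Fin 18 → ℝ) → ℝ) (mm : ℝ) (A : ℝ × ℝ) (φ : ℕ → (Fin 18 → ℝ) → ℝ)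
        (r : ℕ → ℝ),
        IsTan (cn QW (actW Dr)) (cn QW (actW Dr)) lam (fun _ => X 0 (TD Dr) (btW θ) z) k lamI ∧
        IsTan (cn QW (actW Dr)) (cn QW (actW Dr)) lo (fun _ => X 0 (TD Dr) (btW θ) z) k loI ∧
        OutA (gC (TD Dr) (btW θ)) (cn QW (actW Dr)) (TD Dr) (btW θ)
          (dhC (TD Dr) (btW θ)) (nC (TD Dr) (btW θ)) lamI A φ r ∧
        -A.1 < 5 ∧ (∀ c ∈ cn QW (actW Dr), loI c = -(c 0)) ∧ QdN Dr lamI mm ∧
        ∀ v : ℝ × ℝ, QdN Dr (fun p => lamI (X 0 (TD Dr) (btW θ) v + p) -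
          lamI (X 0 (TD Dr) (btW θ) v)) mm := by
  obtain ⟨z, hz, k, kpos, k0, lamI, loI, mm, A, φ, r, H1, H2, hO, h5, hq⟩ :=
    hasQuadNA h hs hres hD h7 h9 hZ hst
  have hq0 : 0 < q 1 + 2 * q 2 := by linarith [h.q1, h.q2]
  have m1 : min mm (q 1 + 2 * q 2) ≤ mm := min_le_left _ _
  have m2 : min mm (q 1 + 2 * q 2) ≤ q 1 + 2 * q 2 := min_le_right _ _
  have m0 : 0 < min mm (q 1 + 2 * q 2) := lt_min hq.m0 hq0
  have hq' := hq.mono m0 m1
  refine ⟨z, hz, k, kpos, k0, lamI, loI, min mm (q 1 + 2 * q 2), A, φ, r, H1, H2, hO, h5,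
    loTan h.slots hs (stgOk2 hD hZ) hst.TD hst hz kpos k0 H2, hq',
    fun v => qdN_plane hO hD hq' v fun c hc h1 h2 t ht => ?_⟩
  have h3 := sweepV (stgOk2 hD hZ) two_pos hst hz kpos k0 H1 v hc h1 h2 ht
  rw [TDs_two] at h3
  have h4 := mul_le_mul_of_nonneg_right m2 ht
  linarith

end quad

end Crest.Agent.R136.Qgn887
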