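import Crest.Agent.R136.Qgn4_887
import Crest.Agent.R136.Qd17_329

/-!
# R136, thin branch (helper831): 887's window of `quad` gives 329's

* `dr_cases` : the dropped slots.
* **`qwin_of`**, **`qnu_of`** : `QWin` and `QNu` from `QdWD`.
-/

set_option autoImplicit false
set_option linter.unusedVariables false

open Finset Filter Topology

namespace Crest.Agent.R136.Qh831

open Crest.Agent.R136.Net191
open Crest.Agent.R136.NetW191
open Crest.Agent.R136.Qg926
open Crest.Agent.R136.EvW938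
open Crest.Agent.R138.Ex926
open Crest.Agent.R136.Qgn887 (QdWD S6)
open Crest.Agent.R136.QdH887 (bv)
open Crest.Agent.R136.Qd329 (QWin QNu qb QuadRel)

variable {Dr : Finset (Fin 18)} {W : Wnd 18 fun _ => ℕ × ℝ} {κ : ℕ → ℝ} {u : ℕ → Fin 18 → ℝ}
  {f : ∀ n : ℕ, ℕ × ℝ → FW} {mm x : ℝ}

theorem qwin_of (g : QdWD Dr W κ u f mm x)
    (dr : Dr = {4, 5, 6, 8} ∨ Dr = {4, 5, 6, 7, 8} ∨ Dr = {4, 5, 6, 7, 8, 9}) :
    QWin W κ u f Dr x where
  x0 := g.x0
  ww := g.ww
  eS := g.eS
  etop := g.etop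
  ekap := g.ekap
  dw := g.dw
  hk := g.hk
  dr := dr
  tight := g.tight
  gap := g.gap
  dens := g.dens
  frost := g.frost
  leg := g.leg

theorem qb_bv (Q : Finset (Fin 18)) (x : ℝ) : qb Q x = bv x Q := rfl

theorem qb_one (y : ℝ) : qb {1} y = Pi.single 1 y := by
  funext k
  unfold qb
  by_cases h : k = 1
  · subst h; simp
  · rw [Pi.single_eq_of_ne h, if_neg (by simpa using h)]

theorem qnu_of (g : QdWD Dr W κ u f mm x) : QNu W.nu Dr x mm where
  m0 := g.m0
  n1 := g.n1.ge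
  n2 := g.n2.ge
  n3 := g.n3.le
  n4 := by
    have := g.n4
    rw [qb_bv]
    linarith
  n5 := fun y h0 _ => by
    have := g.n5 y h0
    rw [qb_one]
    linarith
  n6 := fun h7 y h0 h1 => g.n6 h7 y h0 h1

end Crest.Agent.R136.Qh831
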