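import Crest.Agent.R136.Int5_599
import Crest.Agent.R136.RLb_66

/-!
# R136 (helper599): one correction `j` for all classes and all `ε`

* `one_j` : a family of statements `A n ε (class of s) j` with `j` depending on `ε` and on the class
  gives ONE `j` (one diagonal in `ε`, `j` chosen per class).
* `JRel` : the relation of `quad` / `lin` on a set `G` of flagged lines in 831's letters: size of `j`
  and pair law; `RelJ` := some `j` with support in `Q`.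
* **`rel_one`** : from the conclusion of `int_gen'` / `qd_core` / `ln_core` for `RelJ` to one `j`.
* **`rel_all`** : the same from the windows.
* `SzQ`, `ErQ` : the sizes of `quad` (dropped slots: natural times `ρ^(x-ε)`).
-/

set_option autoImplicit false
set_option linter.unusedVariables false
set_option linter.unusedSectionVars false

open Filter Topology

namespace Crest.Agent.R136.Qi599

open Finset Crest.Agent.R136.NetW191 Crest.Agent.R136.Net191 Crest.Agent.R136.Qg926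
open Crest.Agent.R136.EvW938 Crest.Agent.R136.Bas938 Crest.Agent.R136.Gf356
open Crest.Agent.R136.Aw413 Crest.Agent.R136.Dg219 Crest.Agent.R136.LadG697
open Crest.Agent.R136.Int599 (iw)
open Crest.Agent.R138.Ex926 (Base U cls)
open Crest.Agent.R138.Dp76 (Dense)

/-- **one `j` for all `ε` and all classes** -/
theorem one_j {ι β γ : Type*} [DecidableEq γ] {J1 : ℕ → Finset ι} {lab : ℕ → ι → γ} {z : β}
    {Sp : β → Prop} (hz : Sp z) (A : ℕ → ℝ → Finset ι → (ι → β) → Prop)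
    (hloc : ∀ n ε G j j', (∀ i ∈ G, j i = j' i) → A n ε G j → A n ε G j')
    (hε : ∀ n ε ε' G j, ε ≤ ε' → A n ε G j → A n ε' G j)
    (h : ∀ ε : ℝ, 0 < ε → ∀ᶠ n in (U : Filter ℕ), ∀ s ∈ J1 n, ∃ j : ι → β,
      (∀ i, Sp (j i)) ∧ A n ε (cls (J1 n) (lab n) s) j) :
    ∃ j : ℕ → ι → β, (∀ n i, Sp (j n i)) ∧ ∀ ε : ℝ, 0 < ε → ∀ᶠ n in (U : Filter ℕ),
      ∀ s ∈ J1 n, A n ε (cls (J1 n) (lab n) s) (j n) := by
  classical
  obtain ⟨e, he0, het, he⟩ := RL66.diag_eps (fun ε n => ∀ s ∈ J1 n, ∃ j : ι → β,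
      (∀ i, Sp (j i)) ∧ A n ε (cls (J1 n) (lab n) s) j) h
  set jj : ℕ → Finset ι → ι → β := fun n G =>
    if h : ∃ j : ι → β, (∀ i, Sp (j i)) ∧ A n (e n) G j then h.choose else fun _ => z with hjj
  have hsp : ∀ n G i, Sp (jj n G i) := by
    intro n G i
    by_cases h : ∃ j : ι → β, (∀ i, Sp (j i)) ∧ A n (e n) G j
    · have e1 : jj n G = h.choose := dif_pos h
      rw [e1]; exact h.choose_spec.1 i
    · have e1 : jj n G = fun _ => z := dif_neg h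
      rw [e1]; exact hz
  refine ⟨fun n i => jj n (cls (J1 n) (lab n) i) i, fun n i => hsp n _ i, fun ε hε0 => ?_⟩
  filter_upwards [he, het.eventually (gt_mem_nhds hε0)] with n hn hen s hs
  have h1 := hn s hs
  have e1 : jj n (cls (J1 n) (lab n) s) = h1.choose := dif_pos h1
  have h2 : A n (e n) (cls (J1 n) (lab n) s) (jj n (cls (J1 n) (lab n) s)) := by
    rw [e1]; exact h1.choose_spec.2
  refine hε n _ _ _ _ hen.le (hloc n _ _ _ _ (fun i hi => ?_) h2)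
  have h3 : lab n i = lab n s := (mem_filter.1 hi).2
  have h4 : cls (J1 n) (lab n) i = cls (J1 n) (lab n) s := by
    unfold cls
    rw [h3]
  show jj n (cls (J1 n) (lab n) s) i = jj n (cls (J1 n) (lab n) i) i
  rw [h4]

section rel

variable {ι : Type*} {u : Fin 18 → ℝ} {κ : ℝ} {F : ι → FW} {Qp : Set (Fin 14)}
  {S S' Er Er' : Fin 14 → ℝ} {G G' : Finset ι} {j j' : ι → Fin 14 → ℝ}

/-- **the relation** : sizes `S` of `j`, pair law with error `Er` in the slots of `Qp` -/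
structure JRel (u : Fin 18 → ℝ) (κ : ℝ) (F : ι → FW) (Qp : Set (Fin 14)) (S Er : Fin 14 → ℝ)
    (G : Finset ι) (j : ι → Fin 14 → ℝ) : Prop where
  size : ∀ i ∈ G, ∀ p, u (Fin.natAdd 4 p) * |j i p| ≤ S p
  pair : ∀ i ∈ G, ∀ i' ∈ G, ∀ p ∈ Qp, u (Fin.natAdd 4 p) *
    |coW κ (F i) (F i') (Fin.natAdd 4 p) - (j i' p - tr κ (rel κ (F i).g (F i').g) (j i) p)| ≤
      Er p

theorem JRel.mono (h : JRel u κ F Qp S Er G j) (hG : G' ⊆ G) (hS : ∀ p, S p ≤ S' p)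
    (hE : ∀ p, Er p ≤ Er' p) : JRel u κ F Qp S' Er' G' j where
  size i hi p := (h.size i (hG hi) p).trans (hS p)
  pair i hi i' hi' p hp := (h.pair i (hG hi) i' (hG hi') p hp).trans (hE p)

theorem JRel.loc (h : JRel u κ F Qp S Er G j) (hj : ∀ i ∈ G, j i = j' i) :
    JRel u κ F Qp S Er G j' where
  size i hi p := by rw [← hj i hi]; exact h.size i hi p
  pair i hi i' hi' p hp := by rw [← hj i hi, ← hj i' hi']; exact h.pair i hi i' hi' p hp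

/-- the frame of `coW` -/
theorem frm_coW (κ : ℝ) (f f' : FW) : frm (coW κ f f') = rel κ f.g f'.g := by
  funext i
  exact coW_left κ f f' i

end rel

/-- **the relation on a set** for some `j` with support in `Q` -/
def RelJ {ι : Type*} (u : ℕ → Fin 18 → ℝ) (κ : ℕ → ℝ) (F : ℕ → ι → FW) (Q Qp : Set (Fin 14))
    (S Er : ℕ → ℝ → Fin 14 → ℝ) (n : ℕ) (ε : ℝ) (G : Finset ι) : Prop :=
  ∃ j : ι → Fin 14 → ℝ, (∀ i, ∀ p, p ∉ Q → j i p = 0) ∧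
    JRel (u n) (κ n) (F n) Qp (S n ε) (Er n ε) G j

section main

variable {ι : Type*} {u : ℕ → Fin 18 → ℝ} {κ : ℕ → ℝ} {F : ℕ → ι → FW} {Q Qp : Set (Fin 14)}
  {S Er : ℕ → ℝ → Fin 14 → ℝ}

theorem RelJ.sub {n : ℕ} {ε : ℝ} {G G' : Finset ι} (hG : G' ⊆ G)
    (h : RelJ u κ F Q Qp S Er n ε G) : RelJ u κ F Q Qp S Er n ε G' := by
  obtain ⟨j, h1, h2⟩ := h
  exact ⟨j, h1, h2.mono hG (fun _ => le_rfl) fun _ => le_rfl⟩

theorem RelJ.weak (hS : ∀ n ε ε' p, ε ≤ ε' → S n ε p ≤ S n ε' p)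
    (hE : ∀ n ε ε' p, ε ≤ ε' → Er n ε p ≤ Er n ε' p) {n : ℕ} {ε ε' : ℝ} {G : Finset ι}
    (hε : ε ≤ ε') (h : RelJ u κ F Q Qp S Er n ε G) : RelJ u κ F Q Qp S Er n ε' G := by
  obtain ⟨j, h1, h2⟩ := h
  exact ⟨j, h1, h2.mono (Subset.refl _) (fun p => hS n _ _ p hε) fun p => hE n _ _ p hε⟩

/-- **one `j`** from the relation on all classes of `J1` (conclusion of `int_gen'`, `qd_core`,
`ln_core` for `RelJ`) -/
theorem rel_one {γ : Type*} [DecidableEq γ] {J1 : ℕ → Finset ι} {lab : ℕ → ι → γ}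
    (hS : ∀ n ε ε' p, ε ≤ ε' → S n ε p ≤ S n ε' p)
    (hE : ∀ n ε ε' p, ε ≤ ε' → Er n ε p ≤ Er n ε' p)
    (h : ∀ ε : ℝ, 0 < ε → ∀ᶠ n in (U : Filter ℕ), ∀ s ∈ J1 n,
      RelJ u κ F Q Qp S Er n ε (cls (J1 n) (lab n) s)) :
    ∃ j : ℕ → ι → Fin 14 → ℝ, (∀ n i p, p ∉ Q → j n i p = 0) ∧
      (∀ ε : ℝ, 0 < ε → ∀ᶠ n in (U : Filter ℕ), ∀ i ∈ J1 n, ∀ p,
        u n (Fin.natAdd 4 p) * |j n i p| ≤ S n ε p) ∧
      ∀ ε : ℝ, 0 < ε → ∀ᶠ n in (U : Filter ℕ), ∀ i ∈ J1 n, ∀ i' ∈ J1 n, lab n i = lab n i' →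
        ∀ p ∈ Qp, u n (Fin.natAdd 4 p) *
          |coW (κ n) (F n i) (F n i') (Fin.natAdd 4 p) -
            (j n i' p - tr (κ n) (rel (κ n) (F n i).g (F n i').g) (j n i) p)| ≤ Er n ε p := by
  obtain ⟨j, h1, h2⟩ := one_j (z := (0 : Fin 14 → ℝ)) (Sp := fun v : Fin 14 → ℝ => ∀ p, p ∉ Q → v p = 0)
    (fun p _ => rfl) (fun n ε G j => JRel (u n) (κ n) (F n) Qp (S n ε) (Er n ε) G j)
    (fun n ε G j j' hj h => h.loc hj)
    (fun n ε ε' G j hε h => h.mono (Subset.refl _) (fun p => hS n _ _ p hε) fun p => hE n _ _ p hε)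
    h
  refine ⟨j, h1, fun ε hε => ?_, fun ε hε => ?_⟩
  · filter_upwards [h2 ε hε] with n hn i hi p
    exact (hn i hi).size i (mem_filter.2 ⟨hi, rfl⟩) p
  · filter_upwards [h2 ε hε] with n hn i hi i' hi' hl p hp
    exact (hn i hi).pair i (mem_filter.2 ⟨hi, rfl⟩) i' (mem_filter.2 ⟨hi', hl.symm⟩) p hp

end main

section win

variable {B B' : Base} {I J : ℕ → Finset (ℕ × ℝ)}
  {kp : ℕ → ℝ} {u : ℕ → Fin 18 → ℝ} {f : ℕ → ℕ × ℝ → FW} {Y : ℕ → Fin 18 → ℝ}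
  {w : ℕ → ℝ} {Tz : ℕ → ℝ} {Ma : Mons 18} {Dr : Set (Fin 18)} {lam : (Fin 18 → ℝ) → ℝ}
  {Sw : Finset (Fin 18)} {x : ℝ} {Q Qp : Set (Fin 14)} {S Er : ℕ → ℝ → Fin 14 → ℝ}

/-- **from the windows to one `j` on a dense part** -/
theorem rel_all (hZ : ZWin B B' I J (coU u kp f) monW 67 Y w (coneM Ma) Tz lam)
    (hA : ActM Ma Dr) (hgr : ∀ n, GrU (u n)) (hk1 : ∀ n, |kp n| ≤ 1)
    (hd : WDat (fun _ => 0) (fun _ => 1) 1 Sw) (hx : 0 ≤ x)
    (hS : ∀ n ε ε' p, ε ≤ ε' → S n ε p ≤ S n ε' p)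
    (hE : ∀ n ε ε' p, ε ≤ ε' → Er n ε p ≤ Er n ε' p)
    (hres : ∀ (Gd : ℕ → Finset (ℕ × ℝ)) (s₀ : ℕ → ℕ × ℝ) (E : ℕ → Finset (ℕ × ℝ)) (Mu : ℕ → ℝ),
      (∀ n, Gd n ⊆ J n) →
      WWnd (iw B B' I J (coU u kp f) 67 Y w Ma Tz lam Sw x Gd s₀) kp u f →
      Wnd.EOk (iw B B' I J (coU u kp f) 67 Y w Ma Tz lam Sw x Gd s₀) E Mu →
      ∀ ε : ℝ, 0 < ε → ∀ᶠ n in (U : Filter ℕ), ∃ G ⊆ E n,
        B'.d n ^ ε * ((E n).card : ℝ) ≤ (G.card : ℝ) ∧ RelJ u kp f Q Qp S Er n ε G) :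
    ∃ J1 : ℕ → Finset (ℕ × ℝ), (∀ n, J1 n ⊆ J n) ∧ Dense B' J1 J ∧
      ∃ j : ℕ → ℕ × ℝ → Fin 14 → ℝ, (∀ n i p, p ∉ Q → j n i p = 0) ∧
      (∀ ε : ℝ, 0 < ε → ∀ᶠ n in (U : Filter ℕ), ∀ i ∈ J1 n, ∀ p,
        u n (Fin.natAdd 4 p) * |j n i p| ≤ S n ε p) ∧
      ∀ ε : ℝ, 0 < ε → ∀ᶠ n in (U : Filter ℕ), ∀ i ∈ J1 n, ∀ i' ∈ J1 n,
        zlab B I (coU u kp f) monW 67 Y w n 0 i = zlab B I (coU u kp f) monW 67 Y w n 0 i' →
        ∀ p ∈ Qp, u n (Fin.natAdd 4 p) *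
          |coW (kp n) (f n i) (f n i') (Fin.natAdd 4 p) -
            (j n i' p - tr (kp n) (rel (kp n) (f n i).g (f n i').g) (j n i) p)| ≤ Er n ε p := by
  obtain ⟨J1, h1, h2, h3⟩ := Int599.int_gen' hZ hA hgr hk1 hd hx (RelJ u kp f Q Qp S Er)
    (fun n ε G G' hG h => h.sub hG) (fun n ε ε' G hε h => h.weak hS hE hε) hres
  obtain ⟨j, h4, h5, h6⟩ := rel_one hS hE h3
  exact ⟨J1, h1, h2, j, h4, h5, h6⟩

end win

section sizes

variable {B B' : Base} {X : ℕ → Fin 18 → ℝ} {Dr : Set (Fin 18)} {x : ℝ}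

open Classical in
/-- sizes of `quad`: `B^X B'^(-ε)`, dropped slots natural times `B'^(x-ε)` -/
noncomputable def SzQ (B B' : Base) (X : ℕ → Fin 18 → ℝ) (Dr : Set (Fin 18)) (x : ℝ) (n : ℕ)
    (ε : ℝ) (p : Fin 14) : ℝ :=
  if Fin.natAdd 4 p ∈ Dr then B.d n ^ natX X n (Fin.natAdd 4 p) * B'.d n ^ (x - ε)
  else B.d n ^ X n (Fin.natAdd 4 p) * B'.d n ^ (-ε)

open Classical in
/-- errors of `quad`: `B^X B'^(x-ε)`, dropped slots natural times `B'^(x-ε)` -/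
noncomputable def ErQ (B B' : Base) (X : ℕ → Fin 18 → ℝ) (Dr : Set (Fin 18)) (x : ℝ) (n : ℕ)
    (ε : ℝ) (p : Fin 14) : ℝ :=
  if Fin.natAdd 4 p ∈ Dr then B.d n ^ natX X n (Fin.natAdd 4 p) * B'.d n ^ (x - ε)
  else B.d n ^ X n (Fin.natAdd 4 p) * B'.d n ^ (x - ε)

theorem SzQ_mono (n : ℕ) (ε ε' : ℝ) (p : Fin 14) (h : ε ≤ ε') :
    SzQ B B' X Dr x n ε p ≤ SzQ B B' X Dr x n ε' p := by
  have hb : ∀ a b : ℝ, b ≤ a → B'.d n ^ a ≤ B'.d n ^ b := fun a b hab =>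
    Real.rpow_le_rpow_of_exponent_ge (B'.pos n) (B'.lt n).le hab
  unfold SzQ
  split_ifs
  · exact mul_le_mul_of_nonneg_left (hb _ _ (by linarith)) (Real.rpow_nonneg (B.pos n).le _)
  · exact mul_le_mul_of_nonneg_left (hb _ _ (by linarith)) (Real.rpow_nonneg (B.pos n).le _)

theorem ErQ_mono (n : ℕ) (ε ε' : ℝ) (p : Fin 14) (h : ε ≤ ε') :
    ErQ B B' X Dr x n ε p ≤ ErQ B B' X Dr x n ε' p := by
  have hb : ∀ a b : ℝ, b ≤ a → B'.d n ^ a ≤ B'.d n ^ b := fun a b hab =>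
    Real.rpow_le_rpow_of_exponent_ge (B'.pos n) (B'.lt n).le hab
  unfold ErQ
  split_ifs
  · exact mul_le_mul_of_nonneg_left (hb _ _ (by linarith)) (Real.rpow_nonneg (B.pos n).le _)
  · exact mul_le_mul_of_nonneg_left (hb _ _ (by linarith)) (Real.rpow_nonneg (B.pos n).le _)

/-- every error of `quad` is natural times `B'^(x-ε)` if the base is natural from below -/
theorem ErQ_le {n : ℕ} {ε : ℝ} {p : Fin 14}
    (h : Fin.natAdd 4 p ∉ Dr → B.d n ^ X n (Fin.natAdd 4 p) ≤ B.d n ^ natX X n (Fin.natAdd 4 p)) :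
    ErQ B B' X Dr x n ε p ≤ B.d n ^ natX X n (Fin.natAdd 4 p) * B'.d n ^ (x - ε) := by
  unfold ErQ
  split_ifs with h1
  · exact le_rfl
  · exact mul_le_mul_of_nonneg_right (h h1) (Real.rpow_nonneg (B'.pos n).le _)

end sizes

end Crest.Agent.R136.Qi599
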