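import Crest.Agent.R136.Qi1_599
import Crest.Agent.R136.Qgn4_887
import Crest.Agent.R136.Qe1_861
import Crest.Agent.R136.Qd17_329

/-!
# R136 (helper599): the relation half of `quad` over a zoom window

* `qwin_of`, `qnu_of` : 887's window `QdWD` is 329's `QWin`, `QNu`.
* **`quad_relJ`** : `QWin.quad` in the letters of `RelJ` (`SzQ`, `ErQ`, all slots of `{3,5,6,..,12}`,
  dropped slots included).
* **`quad_one`** : interior zoom window with the numbers `QdN` ⊢ dense part, one `j`.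
-/

set_option autoImplicit false
set_option linter.unusedVariables false
set_option linter.unusedSectionVars false

open Filter Topology

namespace Crest.Agent.R136.Qi599

open Finset Crest.Agent.R136.NetW191 Crest.Agent.R136.Net191 Crest.Agent.R136.Qg926
open Crest.Agent.R136.EvW938 Crest.Agent.R136.Bas938 Crest.Agent.R136.Gf356
open Crest.Agent.R136.Aw413 Crest.Agent.R136.Dg219 Crest.Agent.R136.LadG697
open Crest.Agent.R136.Int599 (iw)
open Crest.Agent.R136.Qgn887 Crest.Agent.R136.QdH887 Crest.Agent.R136.Qd329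
open Crest.Agent.R136.LadW697 Crest.Agent.R136.AwJ774 Crest.Agent.R136.PrW464
open Crest.Agent.R136.K2S774 (cn)
open Crest.Agent.R138.Ex926 (Base U cls)
open Crest.Agent.R138.Dp76 (Dense)

section fin

variable {Dr : Finset (Fin 18)} {W : Wnd 18 fun _ => ℕ × ℝ} {κ : ℕ → ℝ} {u : ℕ → Fin 18 → ℝ}
  {f : ∀ n : ℕ, ℕ × ℝ → FW} {mm x : ℝ}

theorem dr_cases (hD : DrOk (↑Dr : Set (Fin 18))) (h97 : (9 : Fin 18) ∈ Dr → (7 : Fin 18) ∈ Dr) :
    Dr = {4, 5, 6, 8} ∨ Dr = {4, 5, 6, 7, 8} ∨ Dr = {4, 5, 6, 7, 8, 9} := by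
  have lo : ∀ k ∈ QdH887.D2, k ∈ Dr := fun k hk => by exact_mod_cast hD.lo k hk
  have hi : ∀ k ∈ Dr, k ∈ QdH887.D2 ∨ k = 7 ∨ k = 9 := fun k hk => hD.hi k (by exact_mod_cast hk)
  by_cases h9 : (9 : Fin 18) ∈ Dr
  · right; right
    have h7 := h97 h9
    ext k
    constructor
    · intro hk
      rcases hi k hk with h | h | h
      · clear hk; revert h; revert k; decide
      · subst h; decide
      · subst h; decide
    · intro hk
      have : k ∈ QdH887.D2 ∨ k = 7 ∨ k = 9 := by revert hk; revert k; decide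
      rcases this with h | h | h
      · exact lo k h
      · subst h; exact h7
      · subst h; exact h9
  · by_cases h7 : (7 : Fin 18) ∈ Dr
    · right; left
      ext k
      constructor
      · intro hk
        rcases hi k hk with h | h | h
        · clear hk; revert h; revert k; decide
        · subst h; decide
        · subst h; exact absurd hk h9
      · intro hk
        have : k ∈ QdH887.D2 ∨ k = 7 := by revert hk; revert k; decide
        rcases this with h | h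
        · exact lo k h
        · subst h; exact h7
    · left
      ext k
      constructor
      · intro hk
        rcases hi k hk with h | h | h
        · clear hk; revert h; revert k; decide
        · subst h; exact absurd hk h7
        · subst h; exact absurd hk h9
      · intro hk
        exact lo k (by revert hk; revert k; decide)

theorem qwin_of (g : QdWD Dr W κ u f mm x) (hD : DrOk (↑Dr : Set (Fin 18)))
    (h97 : (9 : Fin 18) ∈ Dr → (7 : Fin 18) ∈ Dr) : QWin W κ u f Dr x where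
  x0 := g.x0
  ww := g.ww
  eS := g.eS
  etop := g.etop
  ekap := g.ekap
  dw := g.dw
  hk := g.hk
  dr := dr_cases hD h97
  tight := g.tight
  gap := g.gap
  dens := g.dens
  frost := g.frost
  leg := g.leg

theorem bv_one (y : ℝ) : bv y {1} = Pi.single 1 y := by
  funext k
  unfold bv
  by_cases hk : k = 1
  · subst hk; simp
  · rw [if_neg (by simpa using hk), Pi.single_eq_of_ne hk]

theorem qnu_of (g : QdWD Dr W κ u f mm x) : QNu W.nu Dr x mm where
  m0 := g.m0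
  n1 := g.n1.symm.le
  n2 := g.n2.symm.le
  n3 := g.n3.le
  n4 := by
    have := g.n4
    change 2 * x ≤ W.nu 0 - W.nu (bv x {2, 3})
    linarith
  n5 := fun y h0 _ => by
    have := g.n5 y h0
    change mm * y ≤ W.nu 0 - W.nu (bv y {1})
    rw [bv_one]
    linarith
  n6 := g.n6

theorem qin_of (g : QdWD Dr W κ u f mm x) (hD : DrOk (↑Dr : Set (Fin 18))) :
    Qe861.QIn Dr W κ u f mm x where
  lo := fun k hk => by
    have : k ∈ QdH887.D2 := by revert hk; revert k; decide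
    exact_mod_cast hD.lo k this
  hi := fun k hk => by
    rcases hD.hi k (by exact_mod_cast hk) with h | h | h
    · clear hk; revert h; revert k; decide
    · exact Or.inr (Or.inr (Or.inr (Or.inr (Or.inl h))))
    · exact Or.inr (Or.inr (Or.inr (Or.inr (Or.inr h))))
  x0 := g.x0
  m0 := g.m0
  ww := g.ww
  eS := g.eS
  etop := g.etop
  ekap := g.ekap
  dw := g.dw
  hk := g.hk
  tight := g.tight
  gap := g.gap
  dens := g.dens
  frost := g.frost
  leg := g.leg
  n1 := g.n1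
  n2 := g.n2
  n3 := g.n3
  n4 := g.n4
  n5 := g.n5

/-- the correction does not move the dropped slots -/
theorem tr_drop {κ : ℝ} {h : Fin 4 → ℝ} {j : Fin 14 → ℝ} (h97 : (9 : Fin 18) ∈ Dr → (7 : Fin 18) ∈ Dr)
    (hj : ∀ q, q ∉ ({3, 5, 6} : Finset (Fin 14)) ∨ (Fin.natAdd 4 q : Fin 18) ∈ Dr → j q = 0)
    {p : Fin 14} (hp : p = 3 ∨ p = 5) (hd : (Fin.natAdd 4 p : Fin 18) ∈ Dr) : tr κ h j p = 0 := by
  have j0 : j 0 = 0 := hj 0 (Or.inl (by decide))
  have j1 : j 1 = 0 := hj 1 (Or.inl (by decide))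
  have j2 : j 2 = 0 := hj 2 (Or.inl (by decide))
  rcases hp with rfl | rfl
  · have j3 : j 3 = 0 := hj 3 (Or.inr hd)
    rw [tr3, j0, j1, j3]; ring
  · have j5 : j 5 = 0 := hj 5 (Or.inr hd)
    have j3 : j 3 = 0 := hj 3 (Or.inr (h97 hd))
    rw [tr5, j0, j1, j2, j3, j5]; ring

/-- **the relation of `quad` in the window**, letters of `RelJ` -/
theorem quad_relJ (g : QdWD Dr W κ u f mm x) (hD : DrOk (↑Dr : Set (Fin 18)))
    (h97 : (9 : Fin 18) ∈ Dr → (7 : Fin 18) ∈ Dr) {E : ℕ → Finset (ℕ × ℝ)} {Mu : ℕ → ℝ}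
    (hE : Wnd.EOk W E Mu) {ε : ℝ} (hε : 0 < ε) :
    ∀ᶠ n in (U : Filter ℕ), ∃ G ⊆ E n, W.B'.d n ^ ε * ((E n).card : ℝ) ≤ (G.card : ℝ) ∧
      RelJ u κ f {3, 5, 6} {3, 5, 6, 7, 8, 9, 10, 11, 12} (SzQ W.B W.B' W.X (↑Dr) x)
        (ErQ W.B W.B' W.X (↑Dr) x) n ε G := by
  classical
  have gi := qin_of g hD
  filter_upwards [(qwin_of g hD h97).quad (qnu_of g) hE hε, hE.sub, g.ww.ok.ev_good,
    gi.nX_gap x, Gf356.ev_const_le W.B' hε W.K0] with n hq hsub hgd hgap hK
  obtain ⟨G, hG, hc, j, h1, h2, h3⟩ := hq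
  have pu : ∀ k, 0 < u n k := fun k => (g.ww.hl n).pos k
  have hsd : ∀ k, u n k * sd W u n k = W.B.d n ^ W.X n k := fun k => by
    unfold sd
    have := (pu k).ne'
    field_simp
  refine ⟨G, hG, hc, j, fun i p hp => h1 i p (Or.inl (by simpa using hp)), ⟨?_, ?_⟩⟩
  · intro i hi p
    unfold SzQ
    split_ifs with hd
    · rw [h1 i p (Or.inr (by exact_mod_cast hd)), abs_zero, mul_zero]
      exact mul_nonneg (Real.rpow_nonneg (W.B.pos n).le _) (Real.rpow_nonneg (W.B'.pos n).le _)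
    · refine (mul_le_mul_of_nonneg_left (h2 i hi p) (pu _).le).trans (le_of_eq ?_)
      rw [mul_left_comm, hsd]
      ring
  · intro i hi i' hi' p hp
    have hp' : p ∈ ({3, 5, 6, 7, 8, 9, 10, 11, 12} : Finset (Fin 14)) := by
      simpa using hp
    unfold ErQ
    split_ifs with hd
    · have hd' : (Fin.natAdd 4 p : Fin 18) ∈ Dr := by exact_mod_cast hd
      have hp2 : p = 3 ∨ p = 5 := by
        rcases gi.hi _ hd' with h | h | h | h | h | h <;> revert h <;> revert hp' <;>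
          clear hp hd hd' h1 h2 h3 hc <;> revert p <;> decide
      have e1 : j i' p = 0 := h1 i' p (Or.inr hd')
      have e2 := tr_drop (κ := κ n) (h := rel (κ n) (f n i).g (f n i').g) h97 (h1 i) hp2 hd'
      rw [e1, e2, sub_zero, sub_zero]
      have k1 := g.ww.bnd hgd (hsub (hG hi)) (hsub (hG hi')) (Fin.natAdd 4 p)
      have k2 := hgap _ hd'
      have k3 : W.B.d n ^ W.X n (Fin.natAdd 4 p) ≤
          W.B.d n ^ natX W.X n (Fin.natAdd 4 p) * W.B'.d n ^ x := by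
        rw [g.dw n, ← Real.rpow_mul (W.B.pos n).le, ← Real.rpow_add (W.B.pos n)]
        refine Real.rpow_le_rpow_of_exponent_ge (W.B.pos n) (W.B.lt n).le ?_
        have e3 : natX W.X n (Fin.natAdd 4 p) = Qe861.nX W n (Fin.natAdd 4 p) := rfl
        rw [e3]
        linarith
      have k4 : W.K0 * W.B'.d n ^ x ≤ W.B'.d n ^ (x - ε) := by
        have : W.B'.d n ^ (x - ε) = W.B'.d n ^ (-ε) * W.B'.d n ^ x := by
          rw [← Real.rpow_add (W.B'.pos n)]; congr 1; ring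
        rw [this]
        exact mul_le_mul_of_nonneg_right hK (Real.rpow_nonneg (W.B'.pos n).le _)
      have k0 : 0 ≤ W.K0 := by linarith [g.ww.ok.K0_one]
      calc u n (Fin.natAdd 4 p) * |coW (κ n) (f n i) (f n i') (Fin.natAdd 4 p)|
          ≤ u n (Fin.natAdd 4 p) * (W.K0 * sd W u n (Fin.natAdd 4 p)) :=
            mul_le_mul_of_nonneg_left k1 (pu _).le
        _ = W.K0 * W.B.d n ^ W.X n (Fin.natAdd 4 p) := by rw [mul_left_comm, hsd]
        _ ≤ W.K0 * (W.B.d n ^ natX W.X n (Fin.natAdd 4 p) * W.B'.d n ^ x) :=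
            mul_le_mul_of_nonneg_left k3 k0
        _ = W.B.d n ^ natX W.X n (Fin.natAdd 4 p) * (W.K0 * W.B'.d n ^ x) := by ring
        _ ≤ _ := mul_le_mul_of_nonneg_left k4 (Real.rpow_nonneg (W.B.pos n).le _)
    · have hd' : (Fin.natAdd 4 p : Fin 18) ∉ Dr := fun h => hd (by exact_mod_cast h)
      have k := h3 i hi i' hi' p hp' hd'
      rw [frm_coW] at k
      refine (mul_le_mul_of_nonneg_left k (pu _).le).trans (le_of_eq ?_)
      rw [mul_left_comm, hsd]
      ring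

end fin

section zoom

variable {B B' : Base} {I J : ℕ → Finset (ℕ × ℝ)}
  {kp : ℕ → ℝ} {u : ℕ → Fin 18 → ℝ} {f : ℕ → ℕ × ℝ → FW} {Y : ℕ → Fin 18 → ℝ}
  {w : ℕ → ℝ} {Tz : ℕ → ℝ} {Dr : Finset (Fin 18)} {lam : (Fin 18 → ℝ) → ℝ} {x mm : ℝ}

/-- **RELATION HALF OF `quad`**, from the interior zoom window to one `j` on a dense part -/
theorem quad_one (hZ : ZWin B B' I J (coU u kp f) monW 67 Y w (cn QW (actW ↑Dr)) Tz lam)
    (hX : AwZ146.BasX monW (mA monW (actW ↑Dr)) (mA monW (actW ↑Dr)) Y w)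
    (hgr : ∀ n, GrU (u n)) (hk1 : ∀ n, |kp n| ≤ 1)
    (hkp : B'.Sub fun n => |kp n|⁻¹) (hD : DrOk ↑Dr)
    (h97 : (9 : Fin 18) ∈ Dr → (7 : Fin 18) ∈ Dr) (hN : QdN ↑Dr lam mm) (hx : 0 < x) :
    ∃ J1 : ℕ → Finset (ℕ × ℝ), (∀ n, J1 n ⊆ J n) ∧ Dense B' J1 J ∧
      ∃ j : ℕ → ℕ × ℝ → Fin 14 → ℝ,
      (∀ n i p, p ∉ ({3, 5, 6} : Set (Fin 14)) → j n i p = 0) ∧
      (∀ ε : ℝ, 0 < ε → ∀ᶠ n in (U : Filter ℕ), ∀ i ∈ J1 n, ∀ p,
        u n (Fin.natAdd 4 p) * |j n i p| ≤ SzQ B B' Y (↑Dr) x n ε p) ∧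
      ∀ ε : ℝ, 0 < ε → ∀ᶠ n in (U : Filter ℕ), ∀ i ∈ J1 n, ∀ i' ∈ J1 n,
        zlab B I (coU u kp f) monW 67 Y w n 0 i = zlab B I (coU u kp f) monW 67 Y w n 0 i' →
        ∀ p ∈ ({3, 5, 6, 7, 8, 9, 10, 11, 12} : Set (Fin 14)), u n (Fin.natAdd 4 p) *
          |coW (kp n) (f n i) (f n i') (Fin.natAdd 4 p) -
            (j n i' p - tr (kp n) (rel (kp n) (f n i).g (f n i').g) (j n i) p)| ≤
          ErQ B B' Y (↑Dr) x n ε p := by
  obtain ⟨J1, h1, h2, h3⟩ := qd_core hZ hX hgr hk1 hkp hD hN hx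
    (RelJ u kp f {3, 5, 6} {3, 5, 6, 7, 8, 9, 10, 11, 12} (SzQ B B' Y (↑Dr) x)
      (ErQ B B' Y (↑Dr) x))
    (fun n ε G G' hG h => h.sub hG)
    (fun n ε ε' G hε h => h.weak (fun n ε ε' p => SzQ_mono n ε ε' p)
      (fun n ε ε' p => ErQ_mono n ε ε' p) hε)
    fun Gd s₀ E Mu _ hw hE ε hε => quad_relJ hw hD h97 hE hε
  obtain ⟨j, h4, h5, h6⟩ := rel_one (fun n ε ε' p => SzQ_mono n ε ε' p)
    (fun n ε ε' p => ErQ_mono n ε ε' p) h3
  exact ⟨J1, h1, h2, j, h4, h5, h6⟩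

end zoom

end Crest.Agent.R136.Qi599
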