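import Crest.Agent.R136.Qr1_861

/-!
# R136, the specials of the thin pins (helper861), part 2: finite rows of `34`

Letters: `H, H'` = frames of the two lines seen from the base, `r, v` = frame and flag of the second
line seen from the first, `g` = frame of the base seen from the second line, `w, w'` = absolute
coefficients.
-/

set_option autoImplicit false
set_option linter.unusedVariables false
set_option linter.unusedSectionVars false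

namespace Crest.Agent.R136.Qr861

open Crest.Agent.R136.NetW191 Crest.Agent.R136.EvW938
open Crest.Agent.R136.Qe861 (am pw tr_near)

/-- a pair at one height -/
structure Pr (κ K τ : ℝ) (H r H' g : Fin 4 → ℝ) (v w w' : Fin 14 → ℝ) : Prop where
  κ1 : |κ| ≤ 1
  K1 : 1 ≤ K
  τ0 : 0 ≤ τ
  fr : H' = NetW191.mul κ H r
  gi : ∀ i, NetW191.mul κ H' g i = 0
  fl : ∀ q, w' q = w q + tr κ g v q
  bH : ∀ i, |H i| ≤ K
  bH' : ∀ i, |H' i| ≤ K
  br : ∀ i, |r i| ≤ K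
  bg : ∀ i, |g i| ≤ K
  bv : ∀ q, |v q| ≤ K
  bw : ∀ q, |w q| ≤ K
  bw' : ∀ q, |w' q| ≤ K
  z0 : |H 0| ≤ K * τ
  z0' : |H' 0| ≤ K * τ
  zr : |r 0| ≤ K * τ

/-- the frame of the base -/
def gh (κ : ℝ) (H' : Fin 4 → ℝ) : Fin 4 → ℝ := ![0, -H' 1, -H' 2, -(H' 3 + 2 * κ * H' 1 * H' 2)]

/-- the smallness -/
def dl (K τ : ℝ) : ℝ := 470 * (3 * K ^ 3) ^ 7 * τ

namespace Pr

variable {κ K τ : ℝ} {H r H' g : Fin 4 → ℝ} {v w w' : Fin 14 → ℝ}
  (P : Pr κ K τ H r H' g v w w')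

include P

theorem K0 : 0 ≤ K := by linarith [P.K1]

theorem dl_ge {m : ℕ} (hm : m ≤ 21) {c : ℝ} (hc : c ≤ 400) (hc0 : 0 ≤ c) :
    c * (K ^ m * τ) ≤ dl K τ := by
  have h1 := mul_le_mul_of_nonneg_right (pw P.K1 hm) P.τ0
  have h2 : (3 * K ^ 3) ^ 7 = 2187 * K ^ 21 := by ring
  have h3 : 0 ≤ K ^ 21 * τ := mul_nonneg (pow_nonneg P.K0 _) P.τ0
  unfold dl
  rw [h2]
  calc c * (K ^ m * τ) ≤ c * (K ^ 21 * τ) := mul_le_mul_of_nonneg_left h1 hc0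
    _ ≤ 470 * 2187 * (K ^ 21 * τ) := mul_le_mul_of_nonneg_right (by linarith) h3
    _ = _ := by ring

theorem dl0 : 0 ≤ dl K τ := by
  have := P.dl_ge (m := 0) (c := 0) (by norm_num) (by norm_num) le_rfl
  linarith

theorem e1 : H' 1 = H 1 + r 1 := congrFun P.fr 1
theorem e2 : H' 2 = H 2 + r 2 + H 1 * r 0 := congrFun P.fr 2
theorem e3 : H' 3 = H 3 + r 3 - 2 * κ * H 1 * r 2 - κ * H 1 ^ 2 * r 0 := congrFun P.fr 3

theorem g0 : g 0 = -H' 0 := by have := P.gi 0; rw [mul0] at this; linarith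
theorem g1 : g 1 = -H' 1 := by have := P.gi 1; rw [mul1] at this; linarith
theorem g2 : g 2 = -H' 2 + H' 1 * H' 0 := by
  have := P.gi 2; rw [mul2, P.g0] at this; linarith
theorem g3 : g 3 = -(H' 3 + 2 * κ * H' 1 * H' 2) + κ * (H' 1 * (H' 1 * H' 0)) := by
  have := P.gi 3
  rw [mul3, P.g0, P.g2] at this
  linear_combination this

theorem near_g : (∀ i, |gh κ H' i| ≤ 3 * K ^ 3) ∧ ∀ i, |g i - gh κ H' i| ≤ 3 * K ^ 3 * τ := by
  have hK := P.K1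
  have hK0 := P.K0
  have hτ := P.τ0
  have hκ := P.κ1
  have k1 : K ≤ K ^ 3 := by
    calc K = K ^ 1 := (pow_one K).symm
      _ ≤ _ := pw hK (by norm_num)
  have k2 : K ^ 2 ≤ K ^ 3 := pw hK (by norm_num)
  have k3 : 0 ≤ K ^ 3 := by positivity
  have t1 := mul_le_mul_of_nonneg_right k1 hτ
  have t2 := mul_le_mul_of_nonneg_right k2 hτ
  have t3 : 0 ≤ K ^ 3 * τ := by positivity
  constructor
  · intro i
    fin_cases i
    · change |(0 : ℝ)| ≤ _; rw [abs_zero]; positivity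
    · change |-H' 1| ≤ _; rw [abs_neg]; have := P.bH' 1; linarith
    · change |-H' 2| ≤ _; rw [abs_neg]; have := P.bH' 2; linarith
    · change |-(H' 3 + 2 * κ * H' 1 * H' 2)| ≤ _
      rw [abs_neg]
      have e : H' 3 + 2 * κ * H' 1 * H' 2 = H' 3 + 2 * (κ * (H' 1 * H' 2)) := by ring
      rw [e]
      have a1 := abs_add_le (H' 3) (2 * (κ * (H' 1 * H' 2)))
      have a2 : |2 * (κ * (H' 1 * H' 2))| = 2 * |κ * (H' 1 * H' 2)| := by
        rw [abs_mul, abs_two]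
      have a3 : |κ * (H' 1 * H' 2)| ≤ K ^ 2 :=
        (am hκ (am (P.bH' 1) (P.bH' 2))).trans (le_of_eq (by ring))
      have := P.bH' 3
      linarith
  · intro i
    fin_cases i
    · change |g 0 - 0| ≤ _
      rw [sub_zero, P.g0, abs_neg]
      have := P.z0'
      linarith
    · change |g 1 - -H' 1| ≤ _
      rw [P.g1, sub_self, abs_zero]
      positivity
    · change |g 2 - -H' 2| ≤ _
      have e : g 2 - -H' 2 = H' 1 * H' 0 := by rw [P.g2]; ring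
      rw [e]
      have : |H' 1 * H' 0| ≤ K ^ 2 * τ := (am (P.bH' 1) P.z0').trans (le_of_eq (by ring))
      linarith
    · change |g 3 - -(H' 3 + 2 * κ * H' 1 * H' 2)| ≤ _
      have e : g 3 - -(H' 3 + 2 * κ * H' 1 * H' 2) = κ * (H' 1 * (H' 1 * H' 0)) := by
        rw [P.g3]; ring
      rw [e]
      have : |κ * (H' 1 * (H' 1 * H' 0))| ≤ K ^ 3 * τ :=
        (am hκ (am (P.bH' 1) (am (P.bH' 1) P.z0'))).trans (le_of_eq (by ring))
      linarith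

/-- **the absolute coefficients** -/
theorem abs {v' : Fin 14 → ℝ} (h : ∀ q, |v q - v' q| ≤ K * τ) (q : Fin 14) :
    |(w' q - w q) - tr κ (gh κ H') v' q| ≤ dl K τ := by
  obtain ⟨n1, n2⟩ := P.near_g
  have hK := P.K1
  have hK0 := P.K0
  have k1 : K ≤ 3 * K ^ 3 := by
    have : K ≤ K ^ 3 := by
      calc K = K ^ 1 := (pow_one K).symm
        _ ≤ _ := pw hK (by norm_num)
    have : 0 ≤ K ^ 3 := by positivity
    linarith
  have h1 := tr_near P.κ1 (hK.trans k1) P.τ0 (h := g) (h' := gh κ H') (w := v) (w' := v')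
    (fun i => (P.bg i).trans k1) n1 n2 (fun q => (P.bv q).trans k1)
    (fun q => (h q).trans (mul_le_mul_of_nonneg_right k1 P.τ0)) q
  have e : (w' q - w q) - tr κ (gh κ H') v' q = tr κ g v q - tr κ (gh κ H') v' q := by
    rw [P.fl]; ring
  rw [e]
  exact h1

theorem zz (y : ℝ) : |y - y| ≤ K * τ := by
  rw [sub_self, abs_zero]; exact mul_nonneg P.K0 P.τ0

theorem sz {y : ℝ} (h : |y| ≤ K * τ) : |y - 0| ≤ K * τ := by rw [sub_zero]; exact h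

/-- `a` -/
theorem da (r2 : |r 2| ≤ K * τ) : |H' 2 - H 2| ≤ dl K τ := by
  have e : H' 2 - H 2 = r 2 + H 1 * r 0 := by rw [P.e2]; ring
  rw [e]
  have a1 := abs_add_le (r 2) (H 1 * r 0)
  have a2 : |H 1 * r 0| ≤ K ^ 2 * τ := (am (P.bH 1) P.zr).trans (le_of_eq (by ring))
  have a3 := P.dl_ge (m := 2) (c := 2) (by norm_num) (by norm_num) (by norm_num)
  have a4 := mul_le_mul_of_nonneg_right (pw P.K1 (show 1 ≤ 2 by norm_num)) P.τ0
  rw [pow_one] at a4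
  linarith

/-- `β` -/
theorem dβ : (H' 3 + 2 * κ * H' 1 * H' 2) - (H 3 + 2 * κ * H 1 * H 2) =
    r 3 + 2 * κ * r 1 * H' 2 + κ * (H 1 * (H 1 * r 0)) := by
  rw [P.e3, P.e1, P.e2]; ring

theorem h110 : |κ * (H 1 * (H 1 * r 0))| ≤ K ^ 3 * τ :=
  (am P.κ1 (am (P.bH 1) (am (P.bH 1) P.zr))).trans (le_of_eq (by ring))

/-- **positions** -/
theorem pcl (r2 : |r 2| ≤ K * τ) (v0 : |v 0| ≤ K * τ) (v1 : |v 1| ≤ K * τ) (v3 : |v 3| ≤ K * τ)
    (v5 : |v 5| ≤ K * τ) (v10 : |v 10| ≤ K * τ) (v11 : |v 11| ≤ K * τ) :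
    |H' 2 - H 2| ≤ 40 * K ^ 3 * dl K τ ∧ |w' 5 - w 5| ≤ 40 * K ^ 3 * dl K τ ∧
    |(2 * w' 10 + 4 * H' 2 * w' 5) - (2 * w 10 + 4 * H 2 * w 5)| ≤ 40 * K ^ 3 * dl K τ ∧
    |((w' 11 - 2 * κ * H' 1 * w' 10) + κ * H' 2 ^ 2 * (3 * w' 2) +
        H' 2 * (2 * (w' 6 - 2 * κ * H' 1 * w' 5)) +
        κ * (H' 1 * (2 * w' 10 + 4 * H' 2 * w' 5))) -
      ((w 11 - 2 * κ * H 1 * w 10) + κ * H 2 ^ 2 * (3 * w 2) +
        H 2 * (2 * (w 6 - 2 * κ * H 1 * w 5)) +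
        κ * (H 1 * (2 * w 10 + 4 * H 2 * w 5)))| ≤ 40 * K ^ 3 * dl K τ := by
  set v' : Fin 14 → ℝ := ![0, 0, v 2, 0, v 4, 0, v 6, v 7, v 8, v 9, 0, 0, v 12, v 13] with hv'
  have hv : ∀ q, |v q - v' q| ≤ K * τ := by
    intro q
    fin_cases q
    · exact P.sz v0
    · exact P.sz v1
    · exact P.zz _
    · exact P.sz v3
    · exact P.zz _
    · exact P.sz v5
    · exact P.zz _
    · exact P.zz _
    · exact P.zz _
    · exact P.zz _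
    · exact P.sz v10
    · exact P.sz v11
    · exact P.zz _
    · exact P.zz _
  have f2 := P.abs hv 2
  have f5 := P.abs hv 5
  have f6 := P.abs hv 6
  have f10 := P.abs hv 10
  have f11 := P.abs hv 11
  have t2 : tr κ (gh κ H') v' 2 = v 2 := by rw [tr2]; simp [gh, hv']
  have t5 : tr κ (gh κ H') v' 5 = 0 := by rw [tr5]; simp [gh, hv']
  have t6 : tr κ (gh κ H') v' 6 = v 6 - 3 * κ * H' 2 * v 2 := by
    rw [tr6]; simp [gh, hv']; ring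
  have t10 : tr κ (gh κ H') v' 10 = 0 := by rw [tr10]; simp [gh, hv']
  have t11 : tr κ (gh κ H') v' 11 = 3 * κ * H' 2 ^ 2 * v 2 - 2 * H' 2 * v 6 := by
    rw [tr11]; simp [gh, hv']; ring
  rw [t2] at f2
  rw [t5, sub_zero] at f5
  rw [t6] at f6
  rw [t10, sub_zero] at f10
  rw [t11] at f11
  have hK := P.K1
  have hK0 := P.K0
  have hκ := P.κ1
  have ha := P.da r2
  have d0 := P.dl0
  set d := dl K τ with hd
  have p : ∀ m ≤ 3, K ^ m * d ≤ K ^ 3 * d := fun m hm => mul_le_mul_of_nonneg_right (pw hK hm) d0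
  have p0 := p 0 (by norm_num)
  have p1 := p 1 (by norm_num)
  have p2 := p 2 (by norm_num)
  rw [pow_zero, one_mul] at p0
  rw [pow_one] at p1
  have p3 : 0 ≤ K ^ 3 * d := by positivity
  refine ⟨by linarith, by linarith, ?_, ?_⟩
  · have e : (2 * w' 10 + 4 * H' 2 * w' 5) - (2 * w 10 + 4 * H 2 * w 5) =
        2 * (w' 10 - w 10) + 4 * (H' 2 * (w' 5 - w 5)) + 4 * ((H' 2 - H 2) * w 5) := by ring
    rw [e]
    have a1 := abs_add_le (2 * (w' 10 - w 10) + 4 * (H' 2 * (w' 5 - w 5)))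
      (4 * ((H' 2 - H 2) * w 5))
    have a2 := abs_add_le (2 * (w' 10 - w 10)) (4 * (H' 2 * (w' 5 - w 5)))
    have b1 : |2 * (w' 10 - w 10)| = 2 * |w' 10 - w 10| := by rw [abs_mul, abs_two]
    have b2 : |4 * (H' 2 * (w' 5 - w 5))| = 4 * |H' 2 * (w' 5 - w 5)| := by
      rw [abs_mul, abs_of_pos (by norm_num : (0:ℝ) < 4)]
    have b3 : |4 * ((H' 2 - H 2) * w 5)| = 4 * |(H' 2 - H 2) * w 5| := by
      rw [abs_mul, abs_of_pos (by norm_num : (0:ℝ) < 4)]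
    have c1 : |H' 2 * (w' 5 - w 5)| ≤ K * d := am (P.bH' 2) f5
    have c2 : |(H' 2 - H 2) * w 5| ≤ d * K := am ha (P.bw 5)
    have c3 : d * K = K * d := mul_comm _ _
    linarith
  · have e : ((w' 11 - 2 * κ * H' 1 * w' 10) + κ * H' 2 ^ 2 * (3 * w' 2) +
        H' 2 * (2 * (w' 6 - 2 * κ * H' 1 * w' 5)) +
        κ * (H' 1 * (2 * w' 10 + 4 * H' 2 * w' 5))) -
      ((w 11 - 2 * κ * H 1 * w 10) + κ * H 2 ^ 2 * (3 * w 2) +
        H 2 * (2 * (w 6 - 2 * κ * H 1 * w 5)) +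
        κ * (H 1 * (2 * w 10 + 4 * H 2 * w 5))) =
        ((w' 11 - w 11) - (3 * κ * H' 2 ^ 2 * v 2 - 2 * H' 2 * v 6)) +
        3 * (κ * (H' 2 * (H' 2 * ((w' 2 - w 2) - v 2)))) +
        3 * (κ * ((H' 2 - H 2) * ((H' 2 + H 2) * w 2))) +
        2 * (H' 2 * ((w' 6 - w 6) - (v 6 - 3 * κ * H' 2 * v 2))) +
        2 * ((H' 2 - H 2) * w 6) := by ring
    rw [e]
    have c1 : |κ * (H' 2 * (H' 2 * ((w' 2 - w 2) - v 2)))| ≤ K ^ 2 * d :=
      (am hκ (am (P.bH' 2) (am (P.bH' 2) f2))).trans (le_of_eq (by ring))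
    have hs : |H' 2 + H 2| ≤ 2 * K := (abs_add_le _ _).trans (by
      have := P.bH' 2; have := P.bH 2; linarith)
    have c2 : |κ * ((H' 2 - H 2) * ((H' 2 + H 2) * w 2))| ≤ 2 * (K ^ 2 * d) :=
      (am hκ (am ha (am hs (P.bw 2)))).trans (le_of_eq (by ring))
    have c3 : |H' 2 * ((w' 6 - w 6) - (v 6 - 3 * κ * H' 2 * v 2))| ≤ K * d :=
      am (P.bH' 2) f6
    have c4 : |(H' 2 - H 2) * w 6| ≤ K * d := (am ha (P.bw 6)).trans (le_of_eq (by ring))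
    have b1 : |3 * (κ * (H' 2 * (H' 2 * ((w' 2 - w 2) - v 2))))| =
        3 * |κ * (H' 2 * (H' 2 * ((w' 2 - w 2) - v 2)))| := by
      rw [abs_mul, abs_of_pos (by norm_num : (0:ℝ) < 3)]
    have b2 : |3 * (κ * ((H' 2 - H 2) * ((H' 2 + H 2) * w 2)))| =
        3 * |κ * ((H' 2 - H 2) * ((H' 2 + H 2) * w 2))| := by
      rw [abs_mul, abs_of_pos (by norm_num : (0:ℝ) < 3)]
    have b3 : |2 * (H' 2 * ((w' 6 - w 6) - (v 6 - 3 * κ * H' 2 * v 2)))| =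
        2 * |H' 2 * ((w' 6 - w 6) - (v 6 - 3 * κ * H' 2 * v 2))| := by
      rw [abs_mul, abs_two]
    have b4 : |2 * ((H' 2 - H 2) * w 6)| = 2 * |(H' 2 - H 2) * w 6| := by
      rw [abs_mul, abs_two]
    have a1 := abs_add_le (((w' 11 - w 11) - (3 * κ * H' 2 ^ 2 * v 2 - 2 * H' 2 * v 6)) +
        3 * (κ * (H' 2 * (H' 2 * ((w' 2 - w 2) - v 2)))) +
        3 * (κ * ((H' 2 - H 2) * ((H' 2 + H 2) * w 2))) +
        2 * (H' 2 * ((w' 6 - w 6) - (v 6 - 3 * κ * H' 2 * v 2))))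
        (2 * ((H' 2 - H 2) * w 6))
    have a2 := abs_add_le (((w' 11 - w 11) - (3 * κ * H' 2 ^ 2 * v 2 - 2 * H' 2 * v 6)) +
        3 * (κ * (H' 2 * (H' 2 * ((w' 2 - w 2) - v 2)))) +
        3 * (κ * ((H' 2 - H 2) * ((H' 2 + H 2) * w 2))))
        (2 * (H' 2 * ((w' 6 - w 6) - (v 6 - 3 * κ * H' 2 * v 2))))
    have a3 := abs_add_le (((w' 11 - w 11) - (3 * κ * H' 2 ^ 2 * v 2 - 2 * H' 2 * v 6)) +
        3 * (κ * (H' 2 * (H' 2 * ((w' 2 - w 2) - v 2)))))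
        (3 * (κ * ((H' 2 - H 2) * ((H' 2 + H 2) * w 2))))
    have a4 := abs_add_le ((w' 11 - w 11) - (3 * κ * H' 2 ^ 2 * v 2 - 2 * H' 2 * v 6))
        (3 * (κ * (H' 2 * (H' 2 * ((w' 2 - w 2) - v 2)))))
    linarith

/-- **velocities** -/
theorem vcl (r1 : |r 1| ≤ K * τ) (r3 : |r 3| ≤ K * τ) (v0 : |v 0| ≤ K * τ) (v1 : |v 1| ≤ K * τ)
    (v2 : |v 2| ≤ K * τ) (v3 : |v 3| ≤ K * τ) (v6 : |v 6| ≤ K * τ) (v11 : |v 11| ≤ K * τ) :
    |H' 1 - H 1| ≤ 40 * K ^ 3 * dl K τ ∧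
    |(H' 3 + 2 * κ * H' 1 * H' 2) - (H 3 + 2 * κ * H 1 * H 2)| ≤ 40 * K ^ 3 * dl K τ ∧
    |3 * w' 2 - 3 * w 2| ≤ 40 * K ^ 3 * dl K τ ∧
    |2 * (w' 6 - 2 * κ * H' 1 * w' 5) - 2 * (w 6 - 2 * κ * H 1 * w 5)| ≤
      40 * K ^ 3 * dl K τ ∧
    |((w' 11 - 2 * κ * H' 1 * w' 10) + (H' 3 + 2 * κ * H' 1 * H' 2) * w' 5) -
      ((w 11 - 2 * κ * H 1 * w 10) + (H 3 + 2 * κ * H 1 * H 2) * w 5)| ≤
      40 * K ^ 3 * dl K τ := by
  set v' : Fin 14 → ℝ := ![0, 0, 0, 0, v 4, v 5, 0, v 7, v 8, v 9, v 10, 0, v 12, v 13] with hv'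
  have hv : ∀ q, |v q - v' q| ≤ K * τ := by
    intro q
    fin_cases q
    · exact P.sz v0
    · exact P.sz v1
    · exact P.sz v2
    · exact P.sz v3
    · exact P.zz _
    · exact P.zz _
    · exact P.sz v6
    · exact P.zz _
    · exact P.zz _
    · exact P.zz _
    · exact P.zz _
    · exact P.sz v11
    · exact P.zz _
    · exact P.zz _
  have f2 := P.abs hv 2
  have f5 := P.abs hv 5
  have f6 := P.abs hv 6
  have f10 := P.abs hv 10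
  have f11 := P.abs hv 11
  have t2 : tr κ (gh κ H') v' 2 = 0 := by rw [tr2]; simp [gh, hv']
  have t5 : tr κ (gh κ H') v' 5 = v 5 := by rw [tr5]; simp [gh, hv']
  have t6 : tr κ (gh κ H') v' 6 = 2 * κ * H' 1 * v 5 := by
    rw [tr6]; simp [gh, hv']
  have t10 : tr κ (gh κ H') v' 10 = v 10 - H' 2 * v 5 := by
    rw [tr10]; simp [gh, hv']; ring
  have t11 : tr κ (gh κ H') v' 11 = -(2 * κ * H' 1 * H' 2 * v 5) -
      (H' 3 + 2 * κ * H' 1 * H' 2) * v 5 + 2 * κ * H' 1 * v 10 := by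
    rw [tr11]; simp [gh, hv']; ring
  rw [t2, sub_zero] at f2
  rw [t5] at f5
  rw [t6] at f6
  rw [t10] at f10
  rw [t11] at f11
  have hK := P.K1
  have hK0 := P.K0
  have hκ := P.κ1
  have hτ := P.τ0
  have d0 := P.dl0
  have dβ := P.dβ
  have h110 := P.h110
  have q1 := P.dl_ge (m := 3) (c := 4) (by norm_num) (by norm_num) (by norm_num)
  have q2 := mul_le_mul_of_nonneg_right (pw hK (show 1 ≤ 3 by norm_num)) hτ
  have q3 := mul_le_mul_of_nonneg_right (pw hK (show 2 ≤ 3 by norm_num)) hτ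
  rw [pow_one] at q2
  have q4 : 0 ≤ K ^ 3 * τ := by positivity
  set d := dl K τ with hd
  have p : ∀ m ≤ 3, K ^ m * d ≤ K ^ 3 * d := fun m hm => mul_le_mul_of_nonneg_right (pw hK hm) d0
  have p0 := p 0 (by norm_num)
  have p1 := p 1 (by norm_num)
  have p2 := p 2 (by norm_num)
  rw [pow_zero, one_mul] at p0
  rw [pow_one] at p1
  have p3 : 0 ≤ K ^ 3 * d := by positivity
  have hc : |H' 1 - H 1| ≤ d := by
    have e : H' 1 - H 1 = r 1 := by rw [P.e1]; ring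
    rw [e]
    linarith
  have hb : |(H' 3 + 2 * κ * H' 1 * H' 2) - (H 3 + 2 * κ * H 1 * H 2)| ≤ d := by
    rw [dβ]
    have e : r 3 + 2 * κ * r 1 * H' 2 + κ * (H 1 * (H 1 * r 0)) =
        r 3 + 2 * (κ * (r 1 * H' 2)) + κ * (H 1 * (H 1 * r 0)) := by ring
    rw [e]
    have a1 := abs_add_le (r 3 + 2 * (κ * (r 1 * H' 2))) (κ * (H 1 * (H 1 * r 0)))
    have a2 := abs_add_le (r 3) (2 * (κ * (r 1 * H' 2)))
    have b1 : |2 * (κ * (r 1 * H' 2))| = 2 * |κ * (r 1 * H' 2)| := by rw [abs_mul, abs_two]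
    have c1 : |κ * (r 1 * H' 2)| ≤ K ^ 2 * τ :=
      (am hκ (am r1 (P.bH' 2))).trans (le_of_eq (by ring))
    linarith
  have bb : |H' 3 + 2 * κ * H' 1 * H' 2| ≤ 3 * K ^ 2 := by
    have e : H' 3 + 2 * κ * H' 1 * H' 2 = H' 3 + 2 * (κ * (H' 1 * H' 2)) := by ring
    rw [e]
    have a1 := abs_add_le (H' 3) (2 * (κ * (H' 1 * H' 2)))
    have a2 : |2 * (κ * (H' 1 * H' 2))| = 2 * |κ * (H' 1 * H' 2)| := by
      rw [abs_mul, abs_two]
    have a3 : |κ * (H' 1 * H' 2)| ≤ K ^ 2 :=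
      (am hκ (am (P.bH' 1) (P.bH' 2))).trans (le_of_eq (by ring))
    have a4 := P.bH' 3
    have a5 : K ≤ K ^ 2 := by
      calc K = K ^ 1 := (pow_one K).symm
        _ ≤ _ := pw hK (by norm_num)
    linarith
  refine ⟨by linarith, by linarith, ?_, ?_, ?_⟩
  · have e : 3 * w' 2 - 3 * w 2 = 3 * (w' 2 - w 2) := by ring
    rw [e, abs_mul, abs_of_pos (by norm_num : (0:ℝ) < 3)]
    linarith
  · have e : 2 * (w' 6 - 2 * κ * H' 1 * w' 5) - 2 * (w 6 - 2 * κ * H 1 * w 5) =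
        2 * ((w' 6 - w 6) - 2 * κ * H' 1 * v 5) - 4 * (κ * (H' 1 * ((w' 5 - w 5) - v 5))) -
        4 * (κ * ((H' 1 - H 1) * w 5)) := by ring
    rw [e]
    have a1 := abs_sub (2 * ((w' 6 - w 6) - 2 * κ * H' 1 * v 5) -
      4 * (κ * (H' 1 * ((w' 5 - w 5) - v 5)))) (4 * (κ * ((H' 1 - H 1) * w 5)))
    have a2 := abs_sub (2 * ((w' 6 - w 6) - 2 * κ * H' 1 * v 5))
      (4 * (κ * (H' 1 * ((w' 5 - w 5) - v 5))))
    have b1 : |2 * ((w' 6 - w 6) - 2 * κ * H' 1 * v 5)| =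
        2 * |(w' 6 - w 6) - 2 * κ * H' 1 * v 5| := by rw [abs_mul, abs_two]
    have b2 : |4 * (κ * (H' 1 * ((w' 5 - w 5) - v 5)))| =
        4 * |κ * (H' 1 * ((w' 5 - w 5) - v 5))| := by
      rw [abs_mul, abs_of_pos (by norm_num : (0:ℝ) < 4)]
    have b3 : |4 * (κ * ((H' 1 - H 1) * w 5))| = 4 * |κ * ((H' 1 - H 1) * w 5)| := by
      rw [abs_mul, abs_of_pos (by norm_num : (0:ℝ) < 4)]
    have c1 : |κ * (H' 1 * ((w' 5 - w 5) - v 5))| ≤ K * d :=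
      (am hκ (am (P.bH' 1) f5)).trans (le_of_eq (by ring))
    have c2 : |κ * ((H' 1 - H 1) * w 5)| ≤ K * d :=
      (am hκ (am hc (P.bw 5))).trans (le_of_eq (by ring))
    linarith
  · have e : ((w' 11 - 2 * κ * H' 1 * w' 10) + (H' 3 + 2 * κ * H' 1 * H' 2) * w' 5) -
      ((w 11 - 2 * κ * H 1 * w 10) + (H 3 + 2 * κ * H 1 * H 2) * w 5) =
      ((w' 11 - w 11) - (-(2 * κ * H' 1 * H' 2 * v 5) -
      (H' 3 + 2 * κ * H' 1 * H' 2) * v 5 + 2 * κ * H' 1 * v 10)) -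
      2 * (κ * (H' 1 * ((w' 10 - w 10) - (v 10 - H' 2 * v 5)))) -
      2 * (κ * ((H' 1 - H 1) * w 10)) +
      (H' 3 + 2 * κ * H' 1 * H' 2) * ((w' 5 - w 5) - v 5) +
      ((H' 3 + 2 * κ * H' 1 * H' 2) - (H 3 + 2 * κ * H 1 * H 2)) * w 5 := by ring
    rw [e]
    have c1 : |κ * (H' 1 * ((w' 10 - w 10) - (v 10 - H' 2 * v 5)))| ≤ K * d :=
      (am hκ (am (P.bH' 1) f10)).trans (le_of_eq (by ring))
    have c2 : |κ * ((H' 1 - H 1) * w 10)| ≤ K * d :=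
      (am hκ (am hc (P.bw 10))).trans (le_of_eq (by ring))
    have c3 : |(H' 3 + 2 * κ * H' 1 * H' 2) * ((w' 5 - w 5) - v 5)| ≤ 3 * (K ^ 2 * d) :=
      (am bb f5).trans (le_of_eq (by ring))
    have c4 : |((H' 3 + 2 * κ * H' 1 * H' 2) - (H 3 + 2 * κ * H 1 * H 2)) * w 5| ≤ K * d :=
      (am hb (P.bw 5)).trans (le_of_eq (by ring))
    have b1 : |2 * (κ * (H' 1 * ((w' 10 - w 10) - (v 10 - H' 2 * v 5))))| =
        2 * |κ * (H' 1 * ((w' 10 - w 10) - (v 10 - H' 2 * v 5)))| := by rw [abs_mul, abs_two]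
    have b2 : |2 * (κ * ((H' 1 - H 1) * w 10))| = 2 * |κ * ((H' 1 - H 1) * w 10)| := by
      rw [abs_mul, abs_two]
    have a1 := abs_add_le (((w' 11 - w 11) - (-(2 * κ * H' 1 * H' 2 * v 5) -
      (H' 3 + 2 * κ * H' 1 * H' 2) * v 5 + 2 * κ * H' 1 * v 10)) -
      2 * (κ * (H' 1 * ((w' 10 - w 10) - (v 10 - H' 2 * v 5)))) -
      2 * (κ * ((H' 1 - H 1) * w 10)) +
      (H' 3 + 2 * κ * H' 1 * H' 2) * ((w' 5 - w 5) - v 5))
      (((H' 3 + 2 * κ * H' 1 * H' 2) - (H 3 + 2 * κ * H 1 * H 2)) * w 5)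
    have a2 := abs_add_le (((w' 11 - w 11) - (-(2 * κ * H' 1 * H' 2 * v 5) -
      (H' 3 + 2 * κ * H' 1 * H' 2) * v 5 + 2 * κ * H' 1 * v 10)) -
      2 * (κ * (H' 1 * ((w' 10 - w 10) - (v 10 - H' 2 * v 5)))) -
      2 * (κ * ((H' 1 - H 1) * w 10)))
      ((H' 3 + 2 * κ * H' 1 * H' 2) * ((w' 5 - w 5) - v 5))
    have a3 := abs_sub (((w' 11 - w 11) - (-(2 * κ * H' 1 * H' 2 * v 5) -
      (H' 3 + 2 * κ * H' 1 * H' 2) * v 5 + 2 * κ * H' 1 * v 10)) -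
      2 * (κ * (H' 1 * ((w' 10 - w 10) - (v 10 - H' 2 * v 5)))))
      (2 * (κ * ((H' 1 - H 1) * w 10)))
    have a4 := abs_sub ((w' 11 - w 11) - (-(2 * κ * H' 1 * H' 2 * v 5) -
      (H' 3 + 2 * κ * H' 1 * H' 2) * v 5 + 2 * κ * H' 1 * v 10))
      (2 * (κ * (H' 1 * ((w' 10 - w 10) - (v 10 - H' 2 * v 5)))))
    linarith

/-- **`c`, `Y`** -/
theorem ccl (r1 : |r 1| ≤ K * τ) (v0 : |v 0| ≤ K * τ) (v1 : |v 1| ≤ K * τ)
    (v2 : |v 2| ≤ K * τ) : |H' 1 - H 1| ≤ 40 * K ^ 3 * dl K τ ∧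
    |3 * w' 2 - 3 * w 2| ≤ 40 * K ^ 3 * dl K τ := by
  set v' : Fin 14 → ℝ := ![0, 0, 0, v 3, v 4, v 5, v 6, v 7, v 8, v 9, v 10, v 11, v 12, v 13]
    with hv'
  have hv : ∀ q, |v q - v' q| ≤ K * τ := by
    intro q
    fin_cases q
    · exact P.sz v0
    · exact P.sz v1
    · exact P.sz v2
    all_goals exact P.zz _
  have f2 := P.abs hv 2
  have t2 : tr κ (gh κ H') v' 2 = 0 := by rw [tr2]; simp [gh, hv']
  rw [t2, sub_zero] at f2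
  have hK := P.K1
  have hK0 := P.K0
  have d0 := P.dl0
  have q1 := P.dl_ge (m := 1) (c := 1) (by norm_num) (by norm_num) (by norm_num)
  rw [pow_one, one_mul] at q1
  set d := dl K τ with hd
  have p0 : d ≤ K ^ 3 * d := le_mul_of_one_le_left d0 (one_le_pow₀ hK)
  have p3 : 0 ≤ K ^ 3 * d := by positivity
  refine ⟨?_, ?_⟩
  · have e : H' 1 - H 1 = r 1 := by rw [P.e1]; ring
    rw [e]
    linarith
  · have e : 3 * w' 2 - 3 * w 2 = 3 * (w' 2 - w 2) := by ring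
    rw [e, abs_mul, abs_of_pos (by norm_num : (0:ℝ) < 3)]
    linarith

/-- **`Z`-cells** -/
theorem zrow (r2 : |r 2| ≤ K * τ) (r3 : |r 3| ≤ K * τ) (v0 : |v 0| ≤ K * τ)
    (v1 : |v 1| ≤ K * τ) (v3 : |v 3| ≤ K * τ) (v5 : |v 5| ≤ K * τ) (v6 : |v 6| ≤ K * τ) :
    |H' 2 - H 2| ≤ 40 * K ^ 3 * dl K τ ∧ |w' 5 - w 5| ≤ 40 * K ^ 3 * dl K τ ∧
    |((H' 3 + 2 * κ * H' 1 * H' 2) - (H 3 + 2 * κ * H 1 * H 2)) -
      2 * κ * H' 2 * (H' 1 - H 1)| ≤ 40 * K ^ 3 * dl K τ ∧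
    |(2 * (w' 6 - 2 * κ * H' 1 * w' 5) + 4 * κ * H' 1 * w' 5 + 2 * κ * H' 2 * (3 * w' 2)) -
      (2 * (w 6 - 2 * κ * H 1 * w 5) + 4 * κ * H 1 * w 5 + 2 * κ * H 2 * (3 * w 2))| ≤
      40 * K ^ 3 * dl K τ := by
  set v' : Fin 14 → ℝ := ![0, 0, v 2, 0, v 4, 0, 0, v 7, v 8, v 9, v 10, v 11, v 12, v 13]
    with hv'
  have hv : ∀ q, |v q - v' q| ≤ K * τ := by
    intro q
    fin_cases q
    · exact P.sz v0
    · exact P.sz v1
    · exact P.zz _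
    · exact P.sz v3
    · exact P.zz _
    · exact P.sz v5
    · exact P.sz v6
    all_goals exact P.zz _
  have f2 := P.abs hv 2
  have f5 := P.abs hv 5
  have f6 := P.abs hv 6
  have t2 : tr κ (gh κ H') v' 2 = v 2 := by rw [tr2]; simp [gh, hv']
  have t5 : tr κ (gh κ H') v' 5 = 0 := by rw [tr5]; simp [gh, hv']
  have t6 : tr κ (gh κ H') v' 6 = -(3 * κ * H' 2 * v 2) := by
    rw [tr6]; simp [gh, hv']
  rw [t2] at f2
  rw [t5, sub_zero] at f5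
  rw [t6] at f6
  have hK := P.K1
  have hK0 := P.K0
  have hκ := P.κ1
  have hτ := P.τ0
  have ha := P.da r2
  have d0 := P.dl0
  have dβ := P.dβ
  have h110 := P.h110
  have q1 := P.dl_ge (m := 3) (c := 4) (by norm_num) (by norm_num) (by norm_num)
  have q2 := mul_le_mul_of_nonneg_right (pw hK (show 1 ≤ 3 by norm_num)) hτ
  rw [pow_one] at q2
  have q4 : 0 ≤ K ^ 3 * τ := by positivity
  set d := dl K τ with hd
  have p : ∀ m ≤ 3, K ^ m * d ≤ K ^ 3 * d := fun m hm => mul_le_mul_of_nonneg_right (pw hK hm) d0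
  have p0 := p 0 (by norm_num)
  have p1 := p 1 (by norm_num)
  rw [pow_zero, one_mul] at p0
  rw [pow_one] at p1
  have p3 : 0 ≤ K ^ 3 * d := by positivity
  refine ⟨by linarith, by linarith, ?_, ?_⟩
  · rw [dβ]
    have e : r 3 + 2 * κ * r 1 * H' 2 + κ * (H 1 * (H 1 * r 0)) - 2 * κ * H' 2 * (H' 1 - H 1) =
        r 3 + κ * (H 1 * (H 1 * r 0)) := by rw [P.e1]; ring
    rw [e]
    have a1 := abs_add_le (r 3) (κ * (H 1 * (H 1 * r 0)))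
    linarith
  · have e : (2 * (w' 6 - 2 * κ * H' 1 * w' 5) + 4 * κ * H' 1 * w' 5 +
        2 * κ * H' 2 * (3 * w' 2)) -
      (2 * (w 6 - 2 * κ * H 1 * w 5) + 4 * κ * H 1 * w 5 + 2 * κ * H 2 * (3 * w 2)) =
        2 * ((w' 6 - w 6) - -(3 * κ * H' 2 * v 2)) +
        6 * (κ * (H' 2 * ((w' 2 - w 2) - v 2))) + 6 * (κ * ((H' 2 - H 2) * w 2)) := by ring
    rw [e]
    have c1 : |κ * (H' 2 * ((w' 2 - w 2) - v 2))| ≤ K * d :=
      (am hκ (am (P.bH' 2) f2)).trans (le_of_eq (by ring))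
    have c2 : |κ * ((H' 2 - H 2) * w 2)| ≤ K * d :=
      (am hκ (am ha (P.bw 2))).trans (le_of_eq (by ring))
    have b1 : |2 * ((w' 6 - w 6) - -(3 * κ * H' 2 * v 2))| =
        2 * |(w' 6 - w 6) - -(3 * κ * H' 2 * v 2)| := by rw [abs_mul, abs_two]
    have b2 : |6 * (κ * (H' 2 * ((w' 2 - w 2) - v 2)))| =
        6 * |κ * (H' 2 * ((w' 2 - w 2) - v 2))| := by
      rw [abs_mul, abs_of_pos (by norm_num : (0:ℝ) < 6)]
    have b3 : |6 * (κ * ((H' 2 - H 2) * w 2))| = 6 * |κ * ((H' 2 - H 2) * w 2)| := by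
      rw [abs_mul, abs_of_pos (by norm_num : (0:ℝ) < 6)]
    have a1 := abs_add_le (2 * ((w' 6 - w 6) - -(3 * κ * H' 2 * v 2)) +
        6 * (κ * (H' 2 * ((w' 2 - w 2) - v 2)))) (6 * (κ * ((H' 2 - H 2) * w 2)))
    have a2 := abs_add_le (2 * ((w' 6 - w 6) - -(3 * κ * H' 2 * v 2)))
        (6 * (κ * (H' 2 * ((w' 2 - w 2) - v 2))))
    linarith

/-- **base cells** : `Y` sees the slot `6`, `F` sees the slot `9` -/
theorem base (v0 : |v 0| ≤ K * τ) (v1 : |v 1| ≤ K * τ) (v3 : |v 3| ≤ K * τ) :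
    |(w' 2 - w 2) - v 2| ≤ dl K τ ∧ |(w' 5 - w 5) - v 5| ≤ dl K τ := by
  set v' : Fin 14 → ℝ := ![0, 0, v 2, 0, v 4, v 5, v 6, v 7, v 8, v 9, v 10, v 11, v 12, v 13]
    with hv'
  have hv : ∀ q, |v q - v' q| ≤ K * τ := by
    intro q
    fin_cases q
    · exact P.sz v0
    · exact P.sz v1
    · exact P.zz _
    · exact P.sz v3
    all_goals exact P.zz _
  have f2 := P.abs hv 2
  have f5 := P.abs hv 5
  have t2 : tr κ (gh κ H') v' 2 = v 2 := by rw [tr2]; simp [gh, hv']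
  have t5 : tr κ (gh κ H') v' 5 = v 5 := by rw [tr5]; simp [gh, hv']
  rw [t2] at f2
  rw [t5] at f5
  exact ⟨f2, f5⟩

end Pr

end Crest.Agent.R136.Qr861
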