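import Mathlib

/-!
# R136, R2 (curved tilt without `g << q1`, 615's 18336): the two-step double count (helper500)

Abstract data: incidences `I : Finset (ι × η)` (line, height cell), class `s t` of a line in the
first system, class `s' t` in the second system, box `bx c t j` of the line `t` at the height `j` in
the frame of the class `c`, walk `N t j` = lines of the class `s' t` through the box of `t` at `j`.

* `pbox I s s' bx c c'` : boxes (with their heights) met by the incidences of the pair `(c, c')`;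
* `sbox I s N bx c c1` : boxes met by the steps from the class `c` to the class `c1`;
* `one_step` : the incidences whose pair `(s t, s' t)` meets at most `t0` boxes are at most
  `#classes * K * t0 * m`;
* `two_step` : the steps `(p, t')`, `t' ∈ N p`, whose pair `(s p, s t')` meets at most `t0` boxes are
  at most `#classes * K * t0 * m1 * m2`;
* `typical` : there is an incidence which is good itself and of which at least half of the steps are
  good in the three senses.
-/

set_option autoImplicit false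

open Finset

namespace Crest.Agent.R136.R2b500

/-- fibrewise bound of a sum -/
theorem sum_le_fib {α γ : Type} [DecidableEq γ] (A : Finset α) (g : α → γ) (f : α → ℝ) (X : ℝ)
    (h : ∀ c ∈ A.image g, ∑ p ∈ A.filter (fun p => g p = c), f p ≤ X) :
    ∑ p ∈ A, f p ≤ ((A.image g).card : ℝ) * X := by
  rw [← Finset.sum_fiberwise_of_maps_to (s := A) (t := A.image g) (g := g)
    (fun p hp => Finset.mem_image_of_mem g hp)]
  refine (Finset.sum_le_card_nsmul _ _ X h).trans (le_of_eq ?_)
  rw [nsmul_eq_mul]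

/-- fibrewise bound of a cardinality -/
theorem card_le_fib {α γ : Type} [DecidableEq γ] (A : Finset α) (g : α → γ) (X : ℝ)
    (h : ∀ c ∈ A.image g, ((A.filter fun p => g p = c).card : ℝ) ≤ X) :
    (A.card : ℝ) ≤ ((A.image g).card : ℝ) * X := by
  have := sum_le_fib A g (fun _ => (1 : ℝ)) X (fun c hc => by
    rw [Finset.sum_const, nsmul_eq_mul, mul_one]; exact h c hc)
  rwa [Finset.sum_const, nsmul_eq_mul, mul_one] at this

section

variable {ι η κ κ' β : Type} [DecidableEq ι] [DecidableEq η] [DecidableEq κ] [DecidableEq κ']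
  [DecidableEq β]

/-- boxes met by the incidences with the class pair `(c, c')` -/
def pbox (I : Finset (ι × η)) (s : ι → κ) (s' : ι → κ') (bx : κ → ι → η → β) (c : κ)
    (c' : κ') : Finset (β × η) :=
  (I.filter fun r => s r.1 = c ∧ s' r.1 = c').image fun r => (bx c r.1 r.2, r.2)

/-- boxes met by the steps with the class pair `(c, c1)` -/
def sbox (I : Finset (ι × η)) (s : ι → κ) (N : ι → η → Finset ι)
    (bx : κ → ι → η → β) (c c1 : κ) : Finset (β × η) :=
  (I.filter fun r => s r.1 = c ∧ ∃ t' ∈ N r.1 r.2, s t' = c1).image fun r => (bx c r.1 r.2, r.2)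

/-- **one step**: few boxes for a class pair is rare -/
theorem one_step (I : Finset (ι × η)) (s : ι → κ) (s' : ι → κ') (bx : κ → ι → η → β)
    {K m t0 : ℝ} (hK0 : 0 ≤ K) (hm0 : 0 ≤ m) (ht0 : 0 ≤ t0)
    (hK : ∀ c, (((I.filter fun p => s p.1 = c).image fun p => s' p.1).card : ℝ) ≤ K)
    (hm : ∀ c c' b j,
      ((I.filter fun p => s p.1 = c ∧ s' p.1 = c' ∧ bx c p.1 p.2 = b ∧ p.2 = j).card : ℝ) ≤ m) :
    ((I.filter fun p => ((pbox I s s' bx (s p.1) (s' p.1)).card : ℝ) ≤ t0).card : ℝ) ≤
      ((I.image fun p => s p.1).card : ℝ) * (K * (t0 * m)) := by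
  classical
  set A := I.filter fun p => ((pbox I s s' bx (s p.1) (s' p.1)).card : ℝ) ≤ t0 with hA
  have hAI : A ⊆ I := Finset.filter_subset _ _
  have h1 : (A.card : ℝ) ≤ ((A.image fun p => s p.1).card : ℝ) * (K * (t0 * m)) := by
    refine card_le_fib A (fun p => s p.1) _ fun c _ => ?_
    set A1 := A.filter fun p => s p.1 = c with hA1
    have h2 : (A1.card : ℝ) ≤ ((A1.image fun p => s' p.1).card : ℝ) * (t0 * m) := by
      refine card_le_fib A1 (fun p => s' p.1) _ fun c' hc' => ?_
      obtain ⟨p0, hp0, hp0'⟩ := Finset.mem_image.1 hc'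
      rw [hA1, Finset.mem_filter, hA, Finset.mem_filter] at hp0
      have hb : ((pbox I s s' bx c c').card : ℝ) ≤ t0 := by
        have := hp0.1.2
        rwa [hp0.2, hp0'] at this
      set A2 := A1.filter fun p => s' p.1 = c' with hA2
      have h3 : (A2.card : ℝ) ≤
          ((A2.image fun r => (bx c r.1 r.2, r.2)).card : ℝ) * m := by
        refine card_le_fib A2 (fun r => (bx c r.1 r.2, r.2)) _ fun bj _ => ?_
        refine le_trans ?_ (hm c c' bj.1 bj.2)
        exact_mod_cast Finset.card_le_card fun p hp => by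
          rw [Finset.mem_filter, hA2, Finset.mem_filter, hA1, Finset.mem_filter] at hp
          obtain ⟨⟨⟨h4, h5⟩, h6⟩, h7⟩ := hp
          rw [Finset.mem_filter]
          exact ⟨hAI h4, h5, h6, by rw [← h7], by rw [← h7]⟩
      have h8 : ((A2.image fun r => (bx c r.1 r.2, r.2)).card : ℝ) ≤ t0 := by
        refine le_trans ?_ hb
        exact_mod_cast Finset.card_le_card fun p hp => by
          obtain ⟨r, hr, hr'⟩ := Finset.mem_image.1 hp
          rw [hA2, Finset.mem_filter, hA1, Finset.mem_filter] at hr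
          unfold pbox
          exact Finset.mem_image.2 ⟨r, Finset.mem_filter.2 ⟨hAI hr.1.1, hr.1.2, hr.2⟩, hr'⟩
      exact h3.trans (mul_le_mul_of_nonneg_right h8 hm0)
    refine h2.trans (mul_le_mul_of_nonneg_right ?_ (mul_nonneg ht0 hm0))
    refine le_trans ?_ (hK c)
    exact_mod_cast Finset.card_le_card (Finset.image_subset_image fun p hp => by
      rw [hA1, Finset.mem_filter] at hp
      exact Finset.mem_filter.2 ⟨hAI hp.1, hp.2⟩)
  refine h1.trans (mul_le_mul_of_nonneg_right ?_ (mul_nonneg hK0 (mul_nonneg ht0 hm0)))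
  exact_mod_cast Finset.card_le_card (Finset.image_subset_image hAI)

/-- **two steps**: the steps `(p, t')` whose class pair `(s p, s t')` meets few boxes are rare -/
theorem two_step (I : Finset (ι × η)) (s : ι → κ) (N : ι → η → Finset ι) (bx : κ → ι → η → β)
    {K m1 m2 t0 : ℝ} (hK0 : 0 ≤ K) (hm1 : 0 ≤ m1) (hm2 : 0 ≤ m2) (ht0 : 0 ≤ t0)
    (hK : ∀ c, (((I.filter fun p => s p.1 = c).biUnion fun p => (N p.1 p.2).image s).card : ℝ) ≤ K)
    (h1 : ∀ c b j,
      ((I.filter fun p => s p.1 = c ∧ bx c p.1 p.2 = b ∧ p.2 = j).card : ℝ) ≤ m1)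
    (h2 : ∀ p ∈ I, ∀ c1, (((N p.1 p.2).filter fun t' => s t' = c1).card : ℝ) ≤ m2) :
    ∑ p ∈ I, (((N p.1 p.2).filter fun t' =>
        ((sbox I s N bx (s p.1) (s t')).card : ℝ) ≤ t0).card : ℝ) ≤
      ((I.image fun p => s p.1).card : ℝ) * (K * (t0 * (m1 * m2))) := by
  classical
  refine sum_le_fib I (fun p => s p.1) _ _ fun c _ => ?_
  set A := I.filter fun p => s p.1 = c with hA
  set R := A.biUnion fun p => (N p.1 p.2).image s with hR
  have hRK : (R.card : ℝ) ≤ K := hK c
  -- steps from the class `c` into a fixed class `c1`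
  have key : ∀ c1, ((sbox I s N bx c c1).card : ℝ) ≤ t0 →
      ∑ p ∈ A, (((N p.1 p.2).filter fun t' => s t' = c1).card : ℝ) ≤ t0 * (m1 * m2) := by
    intro c1 hc1
    set A1 := A.filter fun p => ∃ t' ∈ N p.1 p.2, s t' = c1 with hA1
    have e1 : ∑ p ∈ A, (((N p.1 p.2).filter fun t' => s t' = c1).card : ℝ) =
        ∑ p ∈ A1, (((N p.1 p.2).filter fun t' => s t' = c1).card : ℝ) := by
      rw [hA1]
      symm
      refine Finset.sum_filter_of_ne fun p _ hne => ?_
      have hne' : ((N p.1 p.2).filter fun t' => s t' = c1).card ≠ 0 := by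
        intro h0; exact hne (by rw [h0]; simp)
      obtain ⟨t', ht'⟩ := Finset.card_ne_zero.1 hne'
      rw [Finset.mem_filter] at ht'
      exact ⟨t', ht'.1, ht'.2⟩
    have e2 : ∑ p ∈ A1, (((N p.1 p.2).filter fun t' => s t' = c1).card : ℝ) ≤
        (A1.card : ℝ) * m2 := by
      refine (Finset.sum_le_card_nsmul _ _ m2 fun p hp => h2 p ?_ c1).trans (le_of_eq ?_)
      · rw [hA1, Finset.mem_filter, hA, Finset.mem_filter] at hp
        exact hp.1.1
      · rw [nsmul_eq_mul]
    have e3 : (A1.card : ℝ) ≤ ((A1.image fun r => (bx c r.1 r.2, r.2)).card : ℝ) * m1 := by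
      refine card_le_fib A1 (fun r => (bx c r.1 r.2, r.2)) _ fun bj _ => ?_
      refine le_trans ?_ (h1 c bj.1 bj.2)
      exact_mod_cast Finset.card_le_card fun p hp => by
        rw [Finset.mem_filter, hA1, Finset.mem_filter, hA, Finset.mem_filter] at hp
        obtain ⟨⟨⟨h4, h5⟩, _⟩, h7⟩ := hp
        rw [Finset.mem_filter]
        exact ⟨h4, h5, by rw [← h7], by rw [← h7]⟩
    have e4 : ((A1.image fun r => (bx c r.1 r.2, r.2)).card : ℝ) ≤ t0 := by
      refine le_trans ?_ hc1
      exact_mod_cast Finset.card_le_card fun p hp => by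
        obtain ⟨r, hr, hr'⟩ := Finset.mem_image.1 hp
        rw [hA1, Finset.mem_filter, hA, Finset.mem_filter] at hr
        unfold sbox
        exact Finset.mem_image.2 ⟨r, Finset.mem_filter.2 ⟨hr.1.1, hr.1.2, hr.2⟩, hr'⟩
    calc ∑ p ∈ A, (((N p.1 p.2).filter fun t' => s t' = c1).card : ℝ)
        ≤ (A1.card : ℝ) * m2 := e1 ▸ e2
      _ ≤ (t0 * m1) * m2 := mul_le_mul_of_nonneg_right
          (e3.trans (mul_le_mul_of_nonneg_right e4 hm1)) hm2
      _ = t0 * (m1 * m2) := by ring
  -- decompose the bad steps by the target class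
  have e5 : ∀ p ∈ A, (((N p.1 p.2).filter fun t' =>
        ((sbox I s N bx (s p.1) (s t')).card : ℝ) ≤ t0).card : ℝ) ≤
      ∑ c1 ∈ R.filter (fun c1 => ((sbox I s N bx c c1).card : ℝ) ≤ t0),
        (((N p.1 p.2).filter fun t' => s t' = c1).card : ℝ) := by
    intro p hp
    have hpc : s p.1 = c := (Finset.mem_filter.1 hp).2
    rw [hpc]
    set Bp := (N p.1 p.2).filter fun t' => ((sbox I s N bx c (s t')).card : ℝ) ≤ t0 with hBp
    have hmap : ∀ t' ∈ Bp, s t' ∈ R.filter (fun c1 => ((sbox I s N bx c c1).card : ℝ) ≤ t0) := by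
      intro t' ht'
      rw [hBp, Finset.mem_filter] at ht'
      rw [Finset.mem_filter]
      exact ⟨Finset.mem_biUnion.2 ⟨p, hp, Finset.mem_image_of_mem s ht'.1⟩, ht'.2⟩
    rw [Finset.card_eq_sum_card_fiberwise hmap]
    push_cast
    refine Finset.sum_le_sum fun c1 _ => ?_
    exact_mod_cast Finset.card_le_card fun t' ht' => by
      rw [Finset.mem_filter, hBp, Finset.mem_filter] at ht'
      exact Finset.mem_filter.2 ⟨ht'.1.1, ht'.2⟩
  refine (Finset.sum_le_sum e5).trans ?_
  rw [Finset.sum_comm]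
  refine (Finset.sum_le_card_nsmul _ _ (t0 * (m1 * m2)) fun c1 hc1 => ?_).trans ?_
  · exact key c1 (Finset.mem_filter.1 hc1).2
  · rw [nsmul_eq_mul]
    refine mul_le_mul_of_nonneg_right ?_ (mul_nonneg ht0 (mul_nonneg hm1 hm2))
    refine le_trans ?_ hRK
    exact_mod_cast Finset.card_le_card (Finset.filter_subset _ _)

/-- **backwards count**: the steps which end in a set of incidences -/
theorem back (I B : Finset (ι × η)) (N : ι → η → Finset ι) {m1 : ℝ}
    (h : ∀ p' ∈ B, ((I.filter fun p => p.2 = p'.2 ∧ p'.1 ∈ N p.1 p.2).card : ℝ) ≤ m1) :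
    ∑ p ∈ I, (((N p.1 p.2).filter fun t' => (t', p.2) ∈ B).card : ℝ) ≤ (B.card : ℝ) * m1 := by
  classical
  have e1 : ∀ p ∈ I, (((N p.1 p.2).filter fun t' => (t', p.2) ∈ B).card : ℝ) ≤
      ∑ p' ∈ B, (if p.2 = p'.2 ∧ p'.1 ∈ N p.1 p.2 then (1 : ℝ) else 0) := by
    intro p _
    rw [← Finset.sum_filter, Finset.sum_const, nsmul_eq_mul, mul_one]
    have : ((N p.1 p.2).filter fun t' => (t', p.2) ∈ B).card ≤
        (B.filter fun p' => p.2 = p'.2 ∧ p'.1 ∈ N p.1 p.2).card := by
      refine Finset.card_le_card_of_injOn (fun t' => (t', p.2)) ?_ ?_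
      · intro t' ht'
        rw [Finset.mem_coe, Finset.mem_filter] at ht'
        rw [Finset.mem_coe, Finset.mem_filter]
        exact ⟨ht'.2, rfl, ht'.1⟩
      · intro a _ b _ hab
        exact (Prod.mk.inj hab).1
    exact_mod_cast this
  refine (Finset.sum_le_sum e1).trans ?_
  rw [Finset.sum_comm]
  refine (Finset.sum_le_card_nsmul _ _ m1 fun p' hp' => ?_).trans (le_of_eq (by rw [nsmul_eq_mul]))
  rw [← Finset.sum_filter, Finset.sum_const, nsmul_eq_mul, mul_one]
  exact h p' hp'

/-- **typical incidence**: outside a small set `B` of incidences, with at least half of the steps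
good in both senses (`(t', p.2) ∉ B'` and `¬ bad p t'`). -/
theorem typical (I B B' : Finset (ι × η)) (N : ι → η → Finset ι) (bad : ι × η → ι → Prop)
    [∀ p t', Decidable (bad p t')] {m0 X Y : ℝ}
    (hm0 : 0 < m0) (hN : ∀ p ∈ I, m0 ≤ ((N p.1 p.2).card : ℝ))
    (hB : 2 * (B.card : ℝ) ≤ (I.card : ℝ))
    (hX : ∑ p ∈ I, (((N p.1 p.2).filter fun t' => (t', p.2) ∈ B').card : ℝ) ≤ X)
    (hY : ∑ p ∈ I, (((N p.1 p.2).filter fun t' => bad p t').card : ℝ) ≤ Y)
    (hXY : 4 * (X + Y) < m0 * (I.card : ℝ)) :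
    ∃ p ∈ I, p ∉ B ∧
      (((N p.1 p.2).filter fun t' => (t', p.2) ∈ B' ∨ bad p t').card : ℝ) ≤
        (1 / 2) * ((N p.1 p.2).card : ℝ) := by
  classical
  by_contra hcon
  push Not at hcon
  have h1 : ∀ p ∈ I.filter (fun p => p ∉ B), (1 / 2) * m0 ≤
      (((N p.1 p.2).filter fun t' => (t', p.2) ∈ B').card : ℝ) +
        (((N p.1 p.2).filter fun t' => bad p t').card : ℝ) := by
    intro p hp
    rw [Finset.mem_filter] at hp
    have h2 := hcon p hp.1 hp.2
    have h3 : (((N p.1 p.2).filter fun t' => (t', p.2) ∈ B' ∨ bad p t').card : ℝ) ≤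
        (((N p.1 p.2).filter fun t' => (t', p.2) ∈ B').card : ℝ) +
        (((N p.1 p.2).filter fun t' => bad p t').card : ℝ) := by
      rw [Finset.filter_or]
      exact_mod_cast Finset.card_union_le _ _
    have h4 := hN p hp.1
    linarith
  have h5 : ((I.filter fun p => p ∉ B).card : ℝ) * ((1 / 2) * m0) ≤
      ∑ p ∈ I.filter (fun p => p ∉ B), ((((N p.1 p.2).filter fun t' => (t', p.2) ∈ B').card : ℝ) +
        (((N p.1 p.2).filter fun t' => bad p t').card : ℝ)) := by
    have := Finset.card_nsmul_le_sum (I.filter fun p => p ∉ B) _ _ h1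
    rwa [nsmul_eq_mul] at this
  have h6 : ∑ p ∈ I.filter (fun p => p ∉ B),
      ((((N p.1 p.2).filter fun t' => (t', p.2) ∈ B').card : ℝ) +
        (((N p.1 p.2).filter fun t' => bad p t').card : ℝ)) ≤ X + Y := by
    rw [Finset.sum_add_distrib]
    refine add_le_add (le_trans ?_ hX) (le_trans ?_ hY)
    · exact Finset.sum_le_sum_of_subset_of_nonneg (Finset.filter_subset _ _)
        fun _ _ _ => Nat.cast_nonneg _
    · exact Finset.sum_le_sum_of_subset_of_nonneg (Finset.filter_subset _ _)
        fun _ _ _ => Nat.cast_nonneg _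
  have h7 : (I.card : ℝ) ≤ 2 * ((I.filter fun p => p ∉ B).card : ℝ) := by
    have h8 : (I.card : ℝ) ≤ ((I.filter fun p => p ∉ B).card : ℝ) + (B.card : ℝ) := by
      have : I ⊆ (I.filter fun p => p ∉ B) ∪ B := by
        intro p hp
        by_cases hpB : p ∈ B
        · exact Finset.mem_union_right _ hpB
        · exact Finset.mem_union_left _ (Finset.mem_filter.2 ⟨hp, hpB⟩)
      exact_mod_cast (Finset.card_le_card this).trans (Finset.card_union_le _ _)
    linarith
  nlinarith

end

end Crest.Agent.R136.R2b500
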