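import Crest.Agent.R136.R2b_500

/-!
# R136, PLAN 2 (3) (aligned curved pairs, volume form): the double count with numbers (helper500)

* `Step I u v bx' p t'` : the step set `N p` of an incidence `p = (t, j)` : the lines `t'` of the
  class `v t` with `(t', j)` in `I` and in the same box of the frame of `v t`;
* `aligned_count` : there is an incidence `p` whose pair `(u p, v p)` meets more than `t0` boxes such
  that at least half of the steps `t'` of `p` have both pairs `(u t', v t')` and `(u p, u t')` with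
  more than `t0` boxes;
* `aligned_false` : if for every such `p` few steps are of this kind, contradiction;
* `cap_count` : capture in `n` balls and few lines in every ball ⊢ few common lines in a box.
-/

set_option autoImplicit false

open Finset

namespace Crest.Agent.R136.R2b500

section

variable {ι κ κ' β β' : Type} [DecidableEq ι] [DecidableEq κ] [DecidableEq κ'] [DecidableEq β]
  [DecidableEq β']

/-- steps of the incidence `(t, j)`: lines of the same second class through the same box -/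
def nb (I : Finset (ι × ℕ)) (v : ι → κ') (bx' : κ' → ι → ℕ → β') (t : ι) (j : ℕ) : Finset ι :=
  ((I.filter fun p => p.2 = j ∧ v p.1 = v t ∧ bx' (v t) p.1 j = bx' (v t) t j).image Prod.fst)

theorem mem_nb {I : Finset (ι × ℕ)} {v : ι → κ'} {bx' : κ' → ι → ℕ → β'} {t t' : ι} {j : ℕ} :
    t' ∈ nb I v bx' t j ↔ (t', j) ∈ I ∧ v t' = v t ∧ bx' (v t) t' j = bx' (v t) t j := by
  unfold nb
  rw [mem_image]
  constructor
  · rintro ⟨p, hp, rfl⟩
    rw [mem_filter] at hp
    obtain ⟨h1, h2, h3, h4⟩ := hp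
    refine ⟨?_, h3, h4⟩
    rw [← h2]; exact h1
  · rintro ⟨h1, h2, h3⟩
    exact ⟨(t', j), mem_filter.2 ⟨h1, rfl, h2, h3⟩, rfl⟩

theorem card_nb (I : Finset (ι × ℕ)) (v : ι → κ') (bx' : κ' → ι → ℕ → β') (t : ι) (j : ℕ)
    (P : ι → Prop) [DecidablePred P] :
    ((nb I v bx' t j).filter P).card =
      (I.filter fun p => p.2 = j ∧ v p.1 = v t ∧ bx' (v t) p.1 j = bx' (v t) t j ∧ P p.1).card := by
  refine card_bij' (fun t' _ => (t', j)) (fun p _ => p.1) ?_ ?_ ?_ ?_
  · intro t' ht'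
    rw [mem_filter, mem_nb] at ht'
    exact mem_filter.2 ⟨ht'.1.1, rfl, ht'.1.2.1, ht'.1.2.2, ht'.2⟩
  · intro p hp
    rw [mem_filter] at hp
    obtain ⟨h1, h2, h3, h4, h5⟩ := hp
    rw [mem_filter, mem_nb]
    refine ⟨⟨?_, h3, h4⟩, h5⟩
    rw [← h2]; exact h1
  · intro t' _; rfl
  · intro p hp
    rw [mem_filter] at hp
    exact Prod.ext rfl hp.2.1.symm

/-- **two-step count with numbers.** `M` lines per class, `H` heights, deficit `X`, spreading `Y`,
`Q` and `Z` the losses of the hull and of the box threshold `t0 = Z H^2`. -/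
theorem aligned_count (I : Finset (ι × ℕ)) (u : ι → κ) (v : ι → κ')
    (bx : κ → ι → ℕ → β) (bx' : κ' → ι → ℕ → β') {M H X Y Q Z : ℝ}
    (hM : 0 < M) (hH : 0 < H) (hX : 1 ≤ X) (hY : 0 < Y) (hQ : 0 ≤ Q) (hZ : 0 ≤ Z)
    (hne : I.Nonempty)
    -- the classes are full
    (hfull : ((I.image fun p => u p.1).card : ℝ) * (M * H) ≤ X * (I.card : ℝ))
    -- box multiplicities
    (hlow : ∀ p ∈ I, M ≤ X * H ^ 2 * ((nb I v bx' p.1 p.2).card : ℝ))
    (hup : ∀ p ∈ I, H ^ 2 * ((I.filter fun r => u r.1 = u p.1 ∧ bx (u p.1) r.1 r.2 =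
      bx (u p.1) p.1 p.2 ∧ r.2 = p.2).card : ℝ) ≤ X * M)
    (hup' : ∀ p ∈ I, H ^ 2 * ((nb I v bx' p.1 p.2).card : ℝ) ≤ X * M)
    -- few common lines in a box
    (hcap : ∀ p ∈ I, Y * H ^ 2 * ((I.filter fun r => u r.1 = u p.1 ∧ v r.1 = v p.1 ∧
      bx (u p.1) r.1 r.2 = bx (u p.1) p.1 p.2 ∧ r.2 = p.2).card : ℝ) ≤ M)
    (hcap' : ∀ p ∈ I, ∀ c, Y * H ^ 2 * (((nb I v bx' p.1 p.2).filter fun t' => u t' = c).card : ℝ) ≤ M)
    -- hull
    (hK : ∀ c, (((I.filter fun p => u p.1 = c).image fun p => v p.1).card : ℝ) ≤ X * Q * H)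
    (hK' : ∀ c, (((I.filter fun p => u p.1 = c).biUnion fun p =>
      (nb I v bx' p.1 p.2).image u).card : ℝ) ≤ X * Q * H)
    (hnum : 8 * (X ^ 4 * Q * Z) < Y) :
    ∃ p ∈ I, Z * H ^ 2 < ((pbox I u v bx (u p.1) (v p.1)).card : ℝ) ∧
      (1 / 2) * ((nb I v bx' p.1 p.2).card : ℝ) ≤
      (((nb I v bx' p.1 p.2).filter fun t' =>
        Z * H ^ 2 < ((pbox I u v bx (u t') (v t')).card : ℝ) ∧
        Z * H ^ 2 < ((sbox I u (fun t j => nb I v bx' t j) bx (u p.1) (u t')).card : ℝ)).card : ℝ) := by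
  classical
  have hH2 : 0 < H ^ 2 := by positivity
  have hX0 : 0 < X := by linarith
  set B := I.filter fun p => ((pbox I u v bx (u p.1) (v p.1)).card : ℝ) ≤ Z * H ^ 2 with hB
  set N : ι → ℕ → Finset ι := fun t j => nb I v bx' t j with hN
  set nU : ℝ := ((I.image fun p => u p.1).card : ℝ) with hnU
  have hI0 : 0 < (I.card : ℝ) := by exact_mod_cast hne.card_pos
  have hZH : 0 ≤ Z * H ^ 2 := by positivity
  -- one step
  have h1 : (B.card : ℝ) ≤ nU * ((X * Q * H) * ((Z * H ^ 2) * (M / (Y * H ^ 2)))) := by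
    refine one_step I u v bx (K := X * Q * H) (m := M / (Y * H ^ 2)) (t0 := Z * H ^ 2)
      (by positivity) (by positivity) hZH hK ?_
    intro c c' b j
    rw [le_div_iff₀ (by positivity)]
    by_cases hem : (I.filter fun p => u p.1 = c ∧ v p.1 = c' ∧ bx c p.1 p.2 = b ∧ p.2 = j).Nonempty
    · obtain ⟨p, hp⟩ := hem
      rw [mem_filter] at hp
      obtain ⟨hpI, rfl, rfl, rfl, rfl⟩ := hp
      have := hcap p hpI
      linarith
    · rw [not_nonempty_iff_eq_empty] at hem
      rw [hem]; simp; exact hM.le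
  -- the incidences dominate
  have h2 : nU * (M * H) ≤ X * (I.card : ℝ) := hfull
  have e1 : nU * ((X * Q * H) * ((Z * H ^ 2) * (M / (Y * H ^ 2)))) =
      nU * (M * H) * (X * Q * Z / Y) := by
    field_simp
  have h3 : (B.card : ℝ) ≤ (I.card : ℝ) * (X ^ 2 * Q * Z / Y) := by
    refine h1.trans ?_
    rw [e1]
    calc nU * (M * H) * (X * Q * Z / Y) ≤ X * (I.card : ℝ) * (X * Q * Z / Y) :=
          mul_le_mul_of_nonneg_right h2 (by positivity)
      _ = _ := by ring
  -- numbers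
  have hr : X ^ 4 * Q * Z / Y < 1 / 8 := by
    rw [div_lt_iff₀ hY]; linarith
  have hr0 : 0 ≤ X ^ 4 * Q * Z / Y := by positivity
  have hr2 : X ^ 2 * Q * Z / Y ≤ X ^ 4 * Q * Z / Y := by
    refine div_le_div_of_nonneg_right ?_ hY.le
    have : X ^ 2 ≤ X ^ 4 := pow_le_pow_right₀ hX (by norm_num)
    exact mul_le_mul_of_nonneg_right (mul_le_mul_of_nonneg_right this hQ) hZ
  -- backwards
  have h4 : ∑ p ∈ I, (((N p.1 p.2).filter fun t' => (t', p.2) ∈ B).card : ℝ) ≤
      (B.card : ℝ) * (X * M / H ^ 2) := by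
    refine back I B N (m1 := X * M / H ^ 2) fun p' hp' => ?_
    rw [le_div_iff₀ hH2]
    have hp'I : p' ∈ I := (mem_filter.1 hp').1
    have := hup' p' hp'I
    have e : ((I.filter fun p => p.2 = p'.2 ∧ p'.1 ∈ N p.1 p.2).card) ≤
        (nb I v bx' p'.1 p'.2).card := by
      refine card_le_card_of_injOn (fun p => p.1) ?_ ?_
      · intro p hp
        rw [mem_coe, mem_filter] at hp
        obtain ⟨hpI, h5, h6⟩ := hp
        rw [hN] at h6
        rw [mem_nb] at h6
        obtain ⟨h7, h8, h9⟩ := h6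
        rw [mem_coe, mem_nb]
        refine ⟨?_, h8.symm, ?_⟩
        · rw [← h5]; exact hpI
        · rw [← h5, h8]; exact h9.symm
      · intro p hp r hr' hpr
        rw [mem_coe, mem_filter] at hp hr'
        exact Prod.ext hpr (hp.2.1.trans hr'.2.1.symm)
    have e' : ((I.filter fun p => p.2 = p'.2 ∧ p'.1 ∈ N p.1 p.2).card : ℝ) ≤
        ((nb I v bx' p'.1 p'.2).card : ℝ) := by exact_mod_cast e
    calc ((I.filter fun p => p.2 = p'.2 ∧ p'.1 ∈ N p.1 p.2).card : ℝ) * H ^ 2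
        ≤ ((nb I v bx' p'.1 p'.2).card : ℝ) * H ^ 2 := mul_le_mul_of_nonneg_right e' hH2.le
      _ ≤ _ := by linarith
  -- two steps
  have h5 : ∑ p ∈ I, (((N p.1 p.2).filter fun t' =>
        ((sbox I u N bx (u p.1) (u t')).card : ℝ) ≤ Z * H ^ 2).card : ℝ) ≤
      nU * ((X * Q * H) * ((Z * H ^ 2) * ((X * M / H ^ 2) * (M / (Y * H ^ 2))))) := by
    refine two_step I u N bx (K := X * Q * H) (m1 := X * M / H ^ 2) (m2 := M / (Y * H ^ 2))
      (t0 := Z * H ^ 2) (by positivity) (by positivity) (by positivity) hZH hK' ?_ ?_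
    · intro c b j
      rw [le_div_iff₀ hH2]
      by_cases hem : (I.filter fun p => u p.1 = c ∧ bx c p.1 p.2 = b ∧ p.2 = j).Nonempty
      · obtain ⟨p, hp⟩ := hem
        rw [mem_filter] at hp
        obtain ⟨hpI, rfl, rfl, rfl⟩ := hp
        have := hup p hpI
        linarith
      · rw [not_nonempty_iff_eq_empty] at hem
        rw [hem]; simp; positivity
    · intro p hp c1
      rw [le_div_iff₀ (by positivity)]
      have := hcap' p hp c1
      linarith
  have e2 : nU * ((X * Q * H) * ((Z * H ^ 2) * ((X * M / H ^ 2) * (M / (Y * H ^ 2))))) =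
      nU * (M * H) * (X ^ 2 * Q * Z / Y * (M / H ^ 2)) := by
    field_simp
  have h6 : ∑ p ∈ I, (((N p.1 p.2).filter fun t' =>
        ((sbox I u N bx (u p.1) (u t')).card : ℝ) ≤ Z * H ^ 2).card : ℝ) ≤
      (I.card : ℝ) * (X ^ 4 * Q * Z / Y) * (M / (X * H ^ 2)) := by
    refine h5.trans ?_
    rw [e2]
    calc nU * (M * H) * (X ^ 2 * Q * Z / Y * (M / H ^ 2))
        ≤ X * (I.card : ℝ) * (X ^ 2 * Q * Z / Y * (M / H ^ 2)) :=
          mul_le_mul_of_nonneg_right h2 (by positivity)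
      _ = _ := by field_simp
  have h7 : ∑ p ∈ I, (((N p.1 p.2).filter fun t' => (t', p.2) ∈ B).card : ℝ) ≤
      (I.card : ℝ) * (X ^ 4 * Q * Z / Y) * (M / (X * H ^ 2)) := by
    refine h4.trans ?_
    calc (B.card : ℝ) * (X * M / H ^ 2)
        ≤ (I.card : ℝ) * (X ^ 2 * Q * Z / Y) * (X * M / H ^ 2) :=
          mul_le_mul_of_nonneg_right h3 (by positivity)
      _ = _ := by field_simp
  have hm0 : 0 < M / (X * H ^ 2) := by positivity
  obtain ⟨p, hpI, hpB, hp⟩ := typical I B B N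
    (fun p t' => ((sbox I u N bx (u p.1) (u t')).card : ℝ) ≤ Z * H ^ 2) hm0
    (fun p hp => by
      rw [div_le_iff₀ (by positivity)]
      have := hlow p hp
      linarith)
    (by
      have : (I.card : ℝ) * (X ^ 2 * Q * Z / Y) ≤ (I.card : ℝ) * (1 / 8) :=
        mul_le_mul_of_nonneg_left (hr2.trans hr.le) hI0.le
      linarith)
    h7 h6
    (by
      have h8 : (I.card : ℝ) * (X ^ 4 * Q * Z / Y) < (I.card : ℝ) * (1 / 8) :=
        mul_lt_mul_of_pos_left hr hI0
      have h9 : (I.card : ℝ) * (X ^ 4 * Q * Z / Y) * (M / (X * H ^ 2)) <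
          (I.card : ℝ) * (1 / 8) * (M / (X * H ^ 2)) := mul_lt_mul_of_pos_right h8 hm0
      linarith)
  refine ⟨p, hpI, ?_, ?_⟩
  · by_contra hcon
    exact hpB (mem_filter.2 ⟨hpI, not_lt.1 hcon⟩)
  · -- complement of the good steps
    have hsub : (N p.1 p.2).filter (fun t' =>
        ¬ (Z * H ^ 2 < ((pbox I u v bx (u t') (v t')).card : ℝ) ∧
          Z * H ^ 2 < ((sbox I u N bx (u p.1) (u t')).card : ℝ))) ⊆
        (N p.1 p.2).filter fun t' => (t', p.2) ∈ B ∨
          ((sbox I u N bx (u p.1) (u t')).card : ℝ) ≤ Z * H ^ 2 := by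
      intro t' ht'
      rw [mem_filter] at ht' ⊢
      refine ⟨ht'.1, ?_⟩
      by_cases h10 : Z * H ^ 2 < ((pbox I u v bx (u t') (v t')).card : ℝ)
      · right
        by_contra h11
        exact ht'.2 ⟨h10, not_le.1 h11⟩
      · left
        have : (t', p.2) ∈ I := by
          have h12 : t' ∈ nb I v bx' p.1 p.2 := ht'.1
          exact (mem_nb.1 h12).1
        exact mem_filter.2 ⟨this, not_lt.1 h10⟩
    have h13 := card_le_card hsub
    have h14 := card_filter_add_card_filter_not (s := N p.1 p.2) (fun t' =>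
        (Z * H ^ 2 < ((pbox I u v bx (u t') (v t')).card : ℝ) ∧
          Z * H ^ 2 < ((sbox I u N bx (u p.1) (u t')).card : ℝ)))
    have h15 : (((N p.1 p.2).filter fun t' => (t', p.2) ∈ B ∨
          ((sbox I u N bx (u p.1) (u t')).card : ℝ) ≤ Z * H ^ 2).card : ℝ) ≤
        (1 / 2) * ((N p.1 p.2).card : ℝ) := hp
    have h13' : (((N p.1 p.2).filter (fun t' =>
        ¬ (Z * H ^ 2 < ((pbox I u v bx (u t') (v t')).card : ℝ) ∧
          Z * H ^ 2 < ((sbox I u N bx (u p.1) (u t')).card : ℝ)))).card : ℝ) ≤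
        (1 / 2) * ((N p.1 p.2).card : ℝ) := le_trans (by exact_mod_cast h13) h15
    have h14' : (((N p.1 p.2).filter (fun t' =>
        (Z * H ^ 2 < ((pbox I u v bx (u t') (v t')).card : ℝ) ∧
          Z * H ^ 2 < ((sbox I u N bx (u p.1) (u t')).card : ℝ)))).card : ℝ) +
        (((N p.1 p.2).filter (fun t' =>
        ¬ (Z * H ^ 2 < ((pbox I u v bx (u t') (v t')).card : ℝ) ∧
          Z * H ^ 2 < ((sbox I u N bx (u p.1) (u t')).card : ℝ)))).card : ℝ) =
        ((N p.1 p.2).card : ℝ) := by exact_mod_cast h14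
    show (1 / 2) * ((N p.1 p.2).card : ℝ) ≤ _
    linarith

end

end Crest.Agent.R136.R2b500
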