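import Crest.Agent.R136.R2c_500

/-!
# R136, PLAN 2 (3) (aligned curved pairs, volume form): pointwise form of the double count (helper500)

* `boxes A bx c` : boxes, with their heights, of the incidences of `A` in the frame of the class `c`;
* `few_inc` : if every class pair has at most `Z H^2` boxes of `Nd`-incidences, then the
  `Nd`-incidences are at most `#I X^2 Q Z / Y`;
* `aligned_path` : there are an incidence `p = (t, j)` and a step `t'` (same second class, same box)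
  with none of the bad properties `B0`, `Nd1`, `Nd2` and with `Gen p t'`;
* `cap_count` : capture in `n` balls and few lines in every ball ⊢ few common lines in a box.
-/

set_option autoImplicit false

open Finset

namespace Crest.Agent.R136.R2b500

section

variable {ι κ κ' β β' : Type} [DecidableEq ι] [DecidableEq κ] [DecidableEq κ'] [DecidableEq β]
  [DecidableEq β']

/-- boxes, with their heights, of a set of incidences in the frame of the class `c` -/
def boxes (A : Finset (ι × ℕ)) (bx : κ → ι → ℕ → β) (c : κ) : Finset (β × ℕ) :=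
  A.image fun r => (bx c r.1 r.2, r.2)

open Classical in
/-- **one step, pointwise** -/
theorem few_inc (I : Finset (ι × ℕ)) (u : ι → κ) (v : ι → κ') (bx : κ → ι → ℕ → β)
    (Nd : ι × ℕ → Prop) {M H X Y Q Z : ℝ} (hM : 0 < M) (hH : 0 < H) (hX : 0 < X) (hY : 0 < Y)
    (hQ : 0 ≤ Q) (hZ : 0 ≤ Z)
    (hfull : ((I.image fun p => u p.1).card : ℝ) * (M * H) ≤ X * (I.card : ℝ))
    (hcap : ∀ p ∈ I, Y * H ^ 2 * ((I.filter fun r => u r.1 = u p.1 ∧ v r.1 = v p.1 ∧
      bx (u p.1) r.1 r.2 = bx (u p.1) p.1 p.2 ∧ r.2 = p.2).card : ℝ) ≤ M)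
    (hK : ∀ c, (((I.filter fun p => u p.1 = c).image fun p => v p.1).card : ℝ) ≤ X * Q * H)
    (hNd : ∀ c c', ((boxes (I.filter fun p => u p.1 = c ∧ v p.1 = c' ∧ Nd p) bx c).card : ℝ) ≤
      Z * H ^ 2) :
    ((I.filter Nd).card : ℝ) ≤ (I.card : ℝ) * (X ^ 2 * Q * Z / Y) := by
  set J := I.filter Nd with hJ
  have hJI : J ⊆ I := filter_subset _ _
  have hZH : 0 ≤ Z * H ^ 2 := by positivity
  have h1 : ((J.filter fun p => ((pbox J u v bx (u p.1) (v p.1)).card : ℝ) ≤ Z * H ^ 2).card : ℝ) ≤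
      ((J.image fun p => u p.1).card : ℝ) * ((X * Q * H) * ((Z * H ^ 2) * (M / (Y * H ^ 2)))) := by
    refine one_step J u v bx (K := X * Q * H) (m := M / (Y * H ^ 2)) (t0 := Z * H ^ 2)
      (by positivity) (by positivity) hZH ?_ ?_
    · intro c
      refine le_trans ?_ (hK c)
      exact_mod_cast card_le_card (image_subset_image (filter_subset_filter _ hJI))
    · intro c c' b j
      rw [le_div_iff₀ (by positivity)]
      by_cases hem : (J.filter fun p => u p.1 = c ∧ v p.1 = c' ∧ bx c p.1 p.2 = b ∧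
          p.2 = j).Nonempty
      · obtain ⟨p, hp⟩ := hem
        rw [mem_filter] at hp
        obtain ⟨hpJ, rfl, rfl, rfl, rfl⟩ := hp
        have h2 := hcap p (hJI hpJ)
        have h3 : ((J.filter fun r => u r.1 = u p.1 ∧ v r.1 = v p.1 ∧
            bx (u p.1) r.1 r.2 = bx (u p.1) p.1 p.2 ∧ r.2 = p.2).card : ℝ) ≤
            ((I.filter fun r => u r.1 = u p.1 ∧ v r.1 = v p.1 ∧
            bx (u p.1) r.1 r.2 = bx (u p.1) p.1 p.2 ∧ r.2 = p.2).card : ℝ) := by
          exact_mod_cast card_le_card (filter_subset_filter _ hJI)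
        have h4 : 0 ≤ Y * H ^ 2 := by positivity
        nlinarith [mul_le_mul_of_nonneg_left h3 h4]
      · rw [not_nonempty_iff_eq_empty] at hem
        rw [hem]; simp; exact hM.le
  have h2 : (J.filter fun p => ((pbox J u v bx (u p.1) (v p.1)).card : ℝ) ≤ Z * H ^ 2) = J := by
    refine filter_true_of_mem fun p _ => ?_
    refine le_trans ?_ (hNd (u p.1) (v p.1))
    have : pbox J u v bx (u p.1) (v p.1) ⊆
        boxes (I.filter fun r => u r.1 = u p.1 ∧ v r.1 = v p.1 ∧ Nd r) bx (u p.1) := by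
      intro y hy
      unfold pbox at hy
      unfold boxes
      obtain ⟨r, hr, hr'⟩ := mem_image.1 hy
      rw [mem_filter, hJ, mem_filter] at hr
      exact mem_image.2 ⟨r, mem_filter.2 ⟨hr.1.1, hr.2.1, hr.2.2, hr.1.2⟩, hr'⟩
    exact_mod_cast card_le_card this
  rw [h2] at h1
  have h3 : ((J.image fun p => u p.1).card : ℝ) ≤ ((I.image fun p => u p.1).card : ℝ) := by
    exact_mod_cast card_le_card (image_subset_image hJI)
  have e1 : ((I.image fun p => u p.1).card : ℝ) *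
      ((X * Q * H) * ((Z * H ^ 2) * (M / (Y * H ^ 2)))) =
      ((I.image fun p => u p.1).card : ℝ) * (M * H) * (X * Q * Z / Y) := by
    field_simp
  calc (J.card : ℝ) ≤ ((J.image fun p => u p.1).card : ℝ) *
        ((X * Q * H) * ((Z * H ^ 2) * (M / (Y * H ^ 2)))) := h1
    _ ≤ ((I.image fun p => u p.1).card : ℝ) *
        ((X * Q * H) * ((Z * H ^ 2) * (M / (Y * H ^ 2)))) :=
        mul_le_mul_of_nonneg_right h3 (by positivity)
    _ = ((I.image fun p => u p.1).card : ℝ) * (M * H) * (X * Q * Z / Y) := e1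
    _ ≤ X * (I.card : ℝ) * (X * Q * Z / Y) := mul_le_mul_of_nonneg_right hfull (by positivity)
    _ = _ := by ring

open Classical in
/-- **the path** (input of the pointwise algebra V6). `p = (t, j)`, the step `t'` has the same second
class as `t` and goes through the same box of its frame at the height `j`. -/
theorem aligned_path (I : Finset (ι × ℕ)) (u : ι → κ) (v : ι → κ')
    (bx : κ → ι → ℕ → β) (bx' : κ' → ι → ℕ → β') (B0 : Finset (ι × ℕ)) (Nd1 : ι × ℕ → Prop)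
    (Nd2 Gen : ι × ℕ → ι → Prop) {M H X Y Q Z : ℝ}
    (hM : 0 < M) (hH : 0 < H) (hX : 1 ≤ X) (hY : 0 < Y) (hQ : 0 ≤ Q) (hZ : 0 ≤ Z)
    (hne : I.Nonempty)
    (hfull : ((I.image fun p => u p.1).card : ℝ) * (M * H) ≤ X * (I.card : ℝ))
    (hlow : ∀ p ∈ I, M ≤ X * H ^ 2 * ((nb I v bx' p.1 p.2).card : ℝ))
    (hup : ∀ p ∈ I, H ^ 2 * ((I.filter fun r => u r.1 = u p.1 ∧ bx (u p.1) r.1 r.2 =
      bx (u p.1) p.1 p.2 ∧ r.2 = p.2).card : ℝ) ≤ X * M)
    (hup' : ∀ p ∈ I, H ^ 2 * ((nb I v bx' p.1 p.2).card : ℝ) ≤ X * M)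
    (hcap : ∀ p ∈ I, Y * H ^ 2 * ((I.filter fun r => u r.1 = u p.1 ∧ v r.1 = v p.1 ∧
      bx (u p.1) r.1 r.2 = bx (u p.1) p.1 p.2 ∧ r.2 = p.2).card : ℝ) ≤ M)
    (hcap' : ∀ p ∈ I, ∀ c, Y * H ^ 2 *
      (((nb I v bx' p.1 p.2).filter fun t' => u t' = c).card : ℝ) ≤ M)
    (hK : ∀ c, (((I.filter fun p => u p.1 = c).image fun p => v p.1).card : ℝ) ≤ X * Q * H)
    (hK' : ∀ c, (((I.filter fun p => u p.1 = c).biUnion fun p =>
      (nb I v bx' p.1 p.2).image u).card : ℝ) ≤ X * Q * H)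
    (hNd1 : ∀ c c', ((boxes (I.filter fun p => u p.1 = c ∧ v p.1 = c' ∧ Nd1 p) bx c).card : ℝ) ≤
      Z * H ^ 2)
    (hNd2 : ∀ c c1, ((boxes (I.filter fun p => u p.1 = c ∧
      ∃ t' ∈ nb I v bx' p.1 p.2, u t' = c1 ∧ Nd2 p t') bx c).card : ℝ) ≤ Z * H ^ 2)
    (hB0 : 64 * X ^ 2 * (B0.card : ℝ) ≤ (I.card : ℝ))
    (hGen : ∀ p ∈ I, 8 * (((nb I v bx' p.1 p.2).filter fun t' => ¬ Gen p t').card : ℝ) ≤
      ((nb I v bx' p.1 p.2).card : ℝ))
    (hnum : 64 * (X ^ 4 * Q * Z) < Y) :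
    ∃ p ∈ I, ∃ t' ∈ nb I v bx' p.1 p.2, p ∉ B0 ∧ (t', p.2) ∉ B0 ∧ ¬ Nd1 p ∧ ¬ Nd1 (t', p.2) ∧
      ¬ Nd2 p t' ∧ Gen p t' := by
  have hX0 : 0 < X := by linarith
  have hH2 : 0 < H ^ 2 := by positivity
  set B := I.filter fun p => p ∈ B0 ∨ Nd1 p with hB
  set N : ι → ℕ → Finset ι := fun t j => nb I v bx' t j with hN
  set N2 : ι → ℕ → Finset ι := fun t j => (nb I v bx' t j).filter fun t' => Nd2 (t, j) t' with hN2
  set nU : ℝ := ((I.image fun p => u p.1).card : ℝ) with hnU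
  have hI0 : 0 < (I.card : ℝ) := by exact_mod_cast hne.card_pos
  have hZH : 0 ≤ Z * H ^ 2 := by positivity
  have hr : X ^ 4 * Q * Z / Y < 1 / 64 := by
    rw [div_lt_iff₀ hY]; linarith
  have hr0 : 0 ≤ X ^ 4 * Q * Z / Y := by positivity
  have hX2 : 1 ≤ X ^ 2 := one_le_pow₀ hX
  have e3 : X ^ 2 * (X ^ 2 * Q * Z / Y) = X ^ 4 * Q * Z / Y := by ring
  -- the bad incidences
  have h1 : (B.card : ℝ) ≤ (B0.card : ℝ) + (I.card : ℝ) * (X ^ 2 * Q * Z / Y) := by
    have h2 := few_inc I u v bx Nd1 hM hH hX0 hY hQ hZ hfull hcap hK hNd1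
    have h3 : B ⊆ B0 ∪ I.filter Nd1 := by
      intro p hp
      rw [hB, mem_filter] at hp
      rcases hp.2 with h | h
      · exact mem_union_left _ h
      · exact mem_union_right _ (mem_filter.2 ⟨hp.1, h⟩)
    have h4 : (B.card : ℝ) ≤ (B0.card : ℝ) + ((I.filter Nd1).card : ℝ) := by
      exact_mod_cast (card_le_card h3).trans (card_union_le _ _)
    linarith
  have h5 : X ^ 2 * (B.card : ℝ) ≤ (I.card : ℝ) * (1 / 32) := by
    have h6 : X ^ 2 * (B.card : ℝ) ≤
        X ^ 2 * (B0.card : ℝ) + (I.card : ℝ) * (X ^ 4 * Q * Z / Y) := by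
      have := mul_le_mul_of_nonneg_left h1 (by positivity : 0 ≤ X ^ 2)
      have e : X ^ 2 * ((B0.card : ℝ) + (I.card : ℝ) * (X ^ 2 * Q * Z / Y)) =
          X ^ 2 * (B0.card : ℝ) + (I.card : ℝ) * (X ^ 2 * (X ^ 2 * Q * Z / Y)) := by ring
      rw [e, e3] at this
      exact this
    have h7 : (I.card : ℝ) * (X ^ 4 * Q * Z / Y) ≤ (I.card : ℝ) * (1 / 64) :=
      mul_le_mul_of_nonneg_left hr.le hI0.le
    linarith
  -- backwards
  have h8 : ∑ p ∈ I, (((N p.1 p.2).filter fun t' => (t', p.2) ∈ B).card : ℝ) ≤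
      (B.card : ℝ) * (X * M / H ^ 2) := by
    refine back I B N (m1 := X * M / H ^ 2) fun p' hp' => ?_
    rw [le_div_iff₀ hH2]
    have hp'I : p' ∈ I := (mem_filter.1 hp').1
    have := hup' p' hp'I
    have e : ((I.filter fun p => p.2 = p'.2 ∧ p'.1 ∈ N p.1 p.2).card) ≤
        (nb I v bx' p'.1 p'.2).card := by
      refine card_le_card_of_injOn (fun p => p.1) ?_ ?_
      · intro p hp
        rw [mem_coe, mem_filter] at hp
        obtain ⟨hpI, h5, h6⟩ := hp
        rw [hN] at h6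
        rw [mem_nb] at h6
        obtain ⟨h7, h8, h9⟩ := h6
        rw [mem_coe, mem_nb]
        refine ⟨?_, h8.symm, ?_⟩
        · rw [← h5]; exact hpI
        · rw [← h5, h8]; exact h9.symm
      · intro p hp r hr' hpr
        rw [mem_coe, mem_filter] at hp hr'
        exact Prod.ext hpr (hp.2.1.trans hr'.2.1.symm)
    have e' : ((I.filter fun p => p.2 = p'.2 ∧ p'.1 ∈ N p.1 p.2).card : ℝ) ≤
        ((nb I v bx' p'.1 p'.2).card : ℝ) := by exact_mod_cast e
    calc ((I.filter fun p => p.2 = p'.2 ∧ p'.1 ∈ N p.1 p.2).card : ℝ) * H ^ 2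
        ≤ ((nb I v bx' p'.1 p'.2).card : ℝ) * H ^ 2 := mul_le_mul_of_nonneg_right e' hH2.le
      _ ≤ _ := by linarith
  have h9 : ∑ p ∈ I, (((N p.1 p.2).filter fun t' => (t', p.2) ∈ B).card : ℝ) ≤
      (I.card : ℝ) * (1 / 32) * (M / (X * H ^ 2)) := by
    refine h8.trans ?_
    have e : (B.card : ℝ) * (X * M / H ^ 2) = (X ^ 2 * (B.card : ℝ)) * (M / (X * H ^ 2)) := by
      field_simp
    rw [e]
    exact mul_le_mul_of_nonneg_right h5 (by positivity)
  -- two steps
  have h10 : ∑ p ∈ I, (((N2 p.1 p.2).filter fun t' =>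
        ((sbox I u N2 bx (u p.1) (u t')).card : ℝ) ≤ Z * H ^ 2).card : ℝ) ≤
      nU * ((X * Q * H) * ((Z * H ^ 2) * ((X * M / H ^ 2) * (M / (Y * H ^ 2))))) := by
    refine two_step I u N2 bx (K := X * Q * H) (m1 := X * M / H ^ 2) (m2 := M / (Y * H ^ 2))
      (t0 := Z * H ^ 2) (by positivity) (by positivity) (by positivity) hZH ?_ ?_ ?_
    · intro c
      refine le_trans ?_ (hK' c)
      have : ((I.filter fun p => u p.1 = c).biUnion fun p => (N2 p.1 p.2).image u) ⊆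
          (I.filter fun p => u p.1 = c).biUnion fun p => (nb I v bx' p.1 p.2).image u :=
        biUnion_mono fun p _ => image_subset_image (filter_subset _ _)
      exact_mod_cast card_le_card this
    · intro c b j
      rw [le_div_iff₀ hH2]
      by_cases hem : (I.filter fun p => u p.1 = c ∧ bx c p.1 p.2 = b ∧ p.2 = j).Nonempty
      · obtain ⟨p, hp⟩ := hem
        rw [mem_filter] at hp
        obtain ⟨hpI, rfl, rfl, rfl⟩ := hp
        have := hup p hpI
        linarith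
      · rw [not_nonempty_iff_eq_empty] at hem
        rw [hem]; simp; positivity
    · intro p hp c1
      rw [le_div_iff₀ (by positivity)]
      have h11 := hcap' p hp c1
      have h12 : (((N2 p.1 p.2).filter fun t' => u t' = c1).card : ℝ) ≤
          (((nb I v bx' p.1 p.2).filter fun t' => u t' = c1).card : ℝ) := by
        exact_mod_cast card_le_card (filter_subset_filter _ (filter_subset _ _))
      have h13 : 0 ≤ Y * H ^ 2 := by positivity
      nlinarith [mul_le_mul_of_nonneg_left h12 h13]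
  have h14 : ∀ p ∈ I, ((N2 p.1 p.2).filter fun t' =>
        ((sbox I u N2 bx (u p.1) (u t')).card : ℝ) ≤ Z * H ^ 2) = N2 p.1 p.2 := by
    intro p _
    refine filter_true_of_mem fun t' _ => ?_
    refine le_trans ?_ (hNd2 (u p.1) (u t'))
    have : sbox I u N2 bx (u p.1) (u t') ⊆ boxes (I.filter fun r => u r.1 = u p.1 ∧
        ∃ s ∈ nb I v bx' r.1 r.2, u s = u t' ∧ Nd2 r s) bx (u p.1) := by
      intro y hy
      unfold sbox at hy
      unfold boxes
      obtain ⟨r, hr1, hr2⟩ := mem_image.1 hy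
      rw [mem_filter] at hr1
      obtain ⟨hrI, hru, s, hs, hsu⟩ := hr1
      have hs' := mem_filter.1 hs
      exact mem_image.2 ⟨r, mem_filter.2 ⟨hrI, hru, s, hs'.1, hsu, hs'.2⟩, hr2⟩
    exact_mod_cast card_le_card this
  have e2 : nU * ((X * Q * H) * ((Z * H ^ 2) * ((X * M / H ^ 2) * (M / (Y * H ^ 2))))) =
      nU * (M * H) * (X ^ 2 * Q * Z / Y * (M / H ^ 2)) := by
    field_simp
  have h15 : ∑ p ∈ I, (((N p.1 p.2).filter fun t' => Nd2 p t').card : ℝ) ≤
      (I.card : ℝ) * (1 / 64) * (M / (X * H ^ 2)) := by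
    have h16 : ∑ p ∈ I, (((N p.1 p.2).filter fun t' => Nd2 p t').card : ℝ) =
        ∑ p ∈ I, (((N2 p.1 p.2).filter fun t' =>
        ((sbox I u N2 bx (u p.1) (u t')).card : ℝ) ≤ Z * H ^ 2).card : ℝ) := by
      refine sum_congr rfl fun p hp => ?_
      rw [h14 p hp]
    rw [h16]
    refine h10.trans ?_
    rw [e2]
    calc nU * (M * H) * (X ^ 2 * Q * Z / Y * (M / H ^ 2))
        ≤ X * (I.card : ℝ) * (X ^ 2 * Q * Z / Y * (M / H ^ 2)) :=
          mul_le_mul_of_nonneg_right hfull (by positivity)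
      _ = (I.card : ℝ) * (X ^ 4 * Q * Z / Y) * (M / (X * H ^ 2)) := by field_simp
      _ ≤ _ := mul_le_mul_of_nonneg_right
          (mul_le_mul_of_nonneg_left hr.le hI0.le) (by positivity)
  have hm0 : 0 < M / (X * H ^ 2) := by positivity
  have h5' : (B.card : ℝ) ≤ (I.card : ℝ) * (1 / 32) := by
    have h0 : 0 ≤ (B.card : ℝ) := Nat.cast_nonneg _
    nlinarith
  obtain ⟨p, hpI, hpB, hp⟩ := typical I B B N Nd2 hm0
    (fun p hp => by
      rw [div_le_iff₀ (by positivity)]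
      have := hlow p hp
      linarith)
    (by linarith)
    h9 h15
    (by
      have h17 : 0 < (I.card : ℝ) * (M / (X * H ^ 2)) := mul_pos hI0 hm0
      nlinarith)
  -- the step
  have hNp : 0 < ((N p.1 p.2).card : ℝ) := by
    have h18 := hlow p hpI
    by_contra hcon
    have h19 : ((nb I v bx' p.1 p.2).card : ℝ) ≤ 0 := not_lt.1 hcon
    have h20 : X * H ^ 2 * ((nb I v bx' p.1 p.2).card : ℝ) ≤ 0 :=
      mul_nonpos_of_nonneg_of_nonpos (by positivity) h19
    linarith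
  obtain ⟨t', ht', hgood⟩ : ∃ t' ∈ N p.1 p.2, ¬ (((t', p.2) ∈ B ∨ Nd2 p t') ∨ ¬ Gen p t') := by
    by_contra hcon
    push Not at hcon
    have h21 : N p.1 p.2 ⊆ ((N p.1 p.2).filter fun t' => (t', p.2) ∈ B ∨ Nd2 p t') ∪
        ((N p.1 p.2).filter fun t' => ¬ Gen p t') := by
      intro s hs
      by_cases h22 : (s, p.2) ∈ B ∨ Nd2 p s
      · exact mem_union_left _ (mem_filter.2 ⟨hs, h22⟩)
      · refine mem_union_right _ (mem_filter.2 ⟨hs, ?_⟩)
        rcases hcon s hs with h23 | h23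
        · exact absurd h23 h22
        · exact h23
    have h24 : ((N p.1 p.2).card : ℝ) ≤
        (((N p.1 p.2).filter fun t' => (t', p.2) ∈ B ∨ Nd2 p t').card : ℝ) +
        (((N p.1 p.2).filter fun t' => ¬ Gen p t').card : ℝ) := by
      exact_mod_cast (card_le_card h21).trans (card_union_le _ _)
    have h25 := hGen p hpI
    have h26 : 8 * (((N p.1 p.2).filter fun t' => ¬ Gen p t').card : ℝ) ≤
        ((N p.1 p.2).card : ℝ) := h25
    linarith
  push Not at hgood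
  obtain ⟨⟨hg1, hg2⟩, hg3⟩ := hgood
  have ht'I : (t', p.2) ∈ I := (mem_nb.1 ht').1
  have hpB' : ¬ (p ∈ B0 ∨ Nd1 p) := fun h => hpB (mem_filter.2 ⟨hpI, h⟩)
  have htB' : ¬ ((t', p.2) ∈ B0 ∨ Nd1 (t', p.2)) := fun h => hg1 (mem_filter.2 ⟨ht'I, h⟩)
  push Not at hpB' htB'
  exact ⟨p, hpI, t', ht', hpB'.1, htB'.1, hpB'.2, htB'.2, hg2, hg3⟩

/-- **capture**: the lines of `A` are in `n` balls (labels `V l`), every ball which contains a line
`t` of `A` holds at most `m` lines of `A` ⊢ `#A ≤ n m`. -/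
theorem cap_count {N : ℕ} (A : Finset ι) (Ball : Fin N → ι → Prop) {m : ℝ} (hm : 0 ≤ m)
    (hcov : ∀ t ∈ A, ∃ l, Ball l t)
    (hball : ∀ l, ∀ t ∈ A, Ball l t → ∃ S : Finset ι, (∀ t' ∈ A, Ball l t' → t' ∈ S) ∧
      (S.card : ℝ) ≤ m) :
    (A.card : ℝ) ≤ N * m := by
  classical
  have h1 : A ⊆ (univ : Finset (Fin N)).biUnion fun l => A.filter (Ball l) := by
    intro t ht
    obtain ⟨l, hl⟩ := hcov t ht
    exact mem_biUnion.2 ⟨l, mem_univ _, mem_filter.2 ⟨ht, hl⟩⟩
  have h2 : (A.card : ℝ) ≤ ∑ l : Fin N, ((A.filter (Ball l)).card : ℝ) := by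
    exact_mod_cast (card_le_card h1).trans card_biUnion_le
  refine h2.trans ((sum_le_card_nsmul _ _ m fun l _ => ?_).trans (le_of_eq ?_))
  · by_cases hem : (A.filter (Ball l)).Nonempty
    · obtain ⟨t, ht⟩ := hem
      rw [mem_filter] at ht
      obtain ⟨S, hS, hSm⟩ := hball l t ht.1 ht.2
      refine le_trans ?_ hSm
      exact_mod_cast card_le_card fun t' ht' => by
        rw [mem_filter] at ht'
        exact hS t' ht'.1 ht'.2
    · rw [not_nonempty_iff_eq_empty] at hem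
      rw [hem]; simpa using hm
  · rw [nsmul_eq_mul, card_univ, Fintype.card_fin]

end

end Crest.Agent.R136.R2b500
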