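import Crest.Agent.R136.R2d_500

/-!
# R136, PLAN 2 (3) (aligned curved pairs, volume form): start data of the double count (helper500)

* `card_classes` : classes with at least `M / W` elements: `#classes M ≤ W #P`;
* `prune_low` : the incidences in boxes of the second frame with fewer than `m` incidences are at
  most `#boxes m`, and the rest has at least `m` incidences in every box;
* `start_inc` : `P` lines, `u`, `v` full labelings, `Bad` few bad incidences ⊢ the incidence set
  `I` of `aligned_path` (hypotheses `hne`, `hfull`, `hlow`).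
-/

set_option autoImplicit false

open Finset

namespace Crest.Agent.R136.R2b500

section

variable {ι κ κ' β β' : Type} [DecidableEq ι] [DecidableEq κ] [DecidableEq κ'] [DecidableEq β]
  [DecidableEq β']

/-- number of classes -/
theorem card_classes (P : Finset ι) (u : ι → κ) {M W : ℝ}
    (h : ∀ t ∈ P, M ≤ W * ((P.filter fun s => u s = u t).card : ℝ)) :
    ((P.image u).card : ℝ) * M ≤ W * (P.card : ℝ) := by
  have h1 : (P.card : ℝ) = ∑ c ∈ P.image u, ((P.filter fun s => u s = c).card : ℝ) := by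
    rw [card_eq_sum_card_image u P]; push_cast; rfl
  rw [h1, mul_sum, ← nsmul_eq_mul]
  refine card_nsmul_le_sum _ _ _ fun c hc => ?_
  obtain ⟨t, ht, rfl⟩ := mem_image.1 hc
  exact h t ht

/-- the boxes of the second frame met by a set of incidences -/
def vboxes (I : Finset (ι × ℕ)) (v : ι → κ') (bx' : κ' → ι → ℕ → β') :
    Finset ((κ' × β') × ℕ) :=
  I.image fun p => ((v p.1, bx' (v p.1) p.1 p.2), p.2)

/-- **pruning**: one pass is enough, since the boxes of the second frame are disjoint -/
theorem prune_low (I0 : Finset (ι × ℕ)) (v : ι → κ') (bx' : κ' → ι → ℕ → β') {m : ℝ}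
    (hm : 0 ≤ m) : ∃ I ⊆ I0, (I0.card : ℝ) ≤ (I.card : ℝ) + ((vboxes I0 v bx').card : ℝ) * m ∧
      ∀ p ∈ I, m ≤ ((nb I v bx' p.1 p.2).card : ℝ) := by
  classical
  set lb : ι × ℕ → (κ' × β') × ℕ := fun p => ((v p.1, bx' (v p.1) p.1 p.2), p.2) with hlb
  set I := I0.filter fun p => m ≤ ((I0.filter fun r => lb r = lb p).card : ℝ) with hI
  have hnb : ∀ (J : Finset (ι × ℕ)) (p : ι × ℕ), (nb J v bx' p.1 p.2).card =
      (J.filter fun r => lb r = lb p).card := by
    intro J p
    have h1 := card_nb J v bx' p.1 p.2 (fun _ => True)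
    rw [filter_true_of_mem (fun _ _ => trivial)] at h1
    rw [h1]
    congr 1
    refine filter_congr fun r _ => ?_
    simp only [hlb, Prod.mk.injEq, and_true]
    constructor
    · rintro ⟨h2, h3, h4⟩
      refine ⟨⟨h3, ?_⟩, h2⟩
      rw [h3, h2]; exact h4
    · rintro ⟨⟨h3, h4⟩, h2⟩
      refine ⟨h2, h3, ?_⟩
      rw [h3, h2] at h4; exact h4
  refine ⟨I, filter_subset _ _, ?_, ?_⟩
  · have h2 : (I0.card : ℝ) = (I.card : ℝ) +
        ((I0.filter fun p => ¬ m ≤ ((I0.filter fun r => lb r = lb p).card : ℝ)).card : ℝ) := by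
      rw [hI]
      exact_mod_cast (card_filter_add_card_filter_not (s := I0)
        (fun p => m ≤ ((I0.filter fun r => lb r = lb p).card : ℝ))).symm
    rw [h2]
    refine add_le_add le_rfl ?_
    set R := I0.filter fun p => ¬ m ≤ ((I0.filter fun r => lb r = lb p).card : ℝ) with hR
    have h3 : (R.card : ℝ) ≤ ((R.image lb).card : ℝ) * m := by
      refine card_le_fib R lb m fun c hc => ?_
      obtain ⟨p, hp, rfl⟩ := mem_image.1 hc
      have hp' := (mem_filter.1 hp).2
      have h4 : ((R.filter fun r => lb r = lb p).card : ℝ) ≤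
          ((I0.filter fun r => lb r = lb p).card : ℝ) := by
        exact_mod_cast card_le_card (filter_subset_filter _ (filter_subset _ _))
      linarith [not_le.1 hp']
    refine h3.trans (mul_le_mul_of_nonneg_right ?_ hm)
    exact_mod_cast card_le_card (image_subset_image (filter_subset _ _))
  · intro p hp
    rw [hnb I p]
    have hp' := mem_filter.1 hp
    have h5 : (I.filter fun r => lb r = lb p) = I0.filter fun r => lb r = lb p := by
      ext r
      simp only [mem_filter, hI]
      constructor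
      · rintro ⟨⟨h6, _⟩, h7⟩; exact ⟨h6, h7⟩
      · rintro ⟨h6, h7⟩
        refine ⟨⟨h6, ?_⟩, h7⟩
        rw [h7]; exact hp'.2
    rw [h5]; exact hp'.2

open Classical in
/-- **start data.** `H` heights, at most `Cb H^2` boxes of the second frame per class and height,
`Bad` at most a quarter of the incidences. -/
theorem start_inc (P : Finset ι) (u : ι → κ) (v : ι → κ') (bx' : κ' → ι → ℕ → β') (H : ℕ)
    (Bad : Finset (ι × ℕ)) {M W Cb : ℝ} (hM : 0 < M) (hW : 1 ≤ W) (hCb : 1 ≤ Cb) (hH : 1 ≤ H)
    (hP : P.Nonempty)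
    (hu : ∀ t ∈ P, M ≤ W * ((P.filter fun s => u s = u t).card : ℝ))
    (hv : ∀ t ∈ P, M ≤ W * ((P.filter fun s => v s = v t).card : ℝ))
    (hbox : ∀ c' j, (((P.filter fun t => v t = c').image fun t => bx' c' t j).card : ℝ) ≤
      Cb * (H : ℝ) ^ 2)
    (hBad : 4 * (Bad.card : ℝ) ≤ (P.card : ℝ) * H) :
    ∃ I : Finset (ι × ℕ), I.Nonempty ∧ (∀ p ∈ I, p.1 ∈ P ∧ p.2 < H ∧ p ∉ Bad) ∧
      (P.card : ℝ) * H ≤ 2 * (I.card : ℝ) ∧
      ((I.image fun p => u p.1).card : ℝ) * (M * H) ≤ (4 * Cb * W) * (I.card : ℝ) ∧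
      ∀ p ∈ I, M ≤ (4 * Cb * W) * (H : ℝ) ^ 2 * ((nb I v bx' p.1 p.2).card : ℝ) := by
  have hH0 : (0 : ℝ) < H := by exact_mod_cast hH
  have hP0 : (0 : ℝ) < P.card := by exact_mod_cast hP.card_pos
  have hW0 : 0 < W := by linarith
  have hCb0 : 0 < Cb := by linarith
  set I1 : Finset (ι × ℕ) := (P ×ˢ range H).filter fun p => p ∉ Bad with hI1
  have h1 : (P.card : ℝ) * H ≤ (I1.card : ℝ) + (Bad.card : ℝ) := by
    have h2 : (P ×ˢ range H) ⊆ I1 ∪ Bad := by
      intro p hp
      by_cases h : p ∈ Bad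
      · exact mem_union_right _ h
      · exact mem_union_left _ (mem_filter.2 ⟨hp, h⟩)
    have h3 : ((P ×ˢ range H).card : ℝ) ≤ (I1.card : ℝ) + (Bad.card : ℝ) := by
      exact_mod_cast (card_le_card h2).trans (card_union_le _ _)
    rw [card_product, card_range] at h3
    push_cast at h3
    exact h3
  set m : ℝ := M / (4 * Cb * W * (H : ℝ) ^ 2) with hm
  have hm0 : 0 < m := by positivity
  obtain ⟨I, hII, hcard, hlow⟩ := prune_low I1 v bx' hm0.le
  -- number of boxes
  have h4 : ((vboxes I1 v bx').card : ℝ) ≤ ((P.image v).card : ℝ) * (Cb * (H : ℝ) ^ 2) * H := by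
    have h5 : vboxes I1 v bx' ⊆ ((P.image v) ×ˢ range H).biUnion fun cj =>
        ((P.filter fun t => v t = cj.1).image fun t => bx' cj.1 t cj.2).image
          fun b => ((cj.1, b), cj.2) := by
      intro y hy
      unfold vboxes at hy
      obtain ⟨p, hp, rfl⟩ := mem_image.1 hy
      rw [hI1, mem_filter, mem_product] at hp
      refine mem_biUnion.2 ⟨(v p.1, p.2), mem_product.2 ⟨mem_image_of_mem v hp.1.1, hp.1.2⟩, ?_⟩
      exact mem_image.2 ⟨bx' (v p.1) p.1 p.2,
        mem_image.2 ⟨p.1, mem_filter.2 ⟨hp.1.1, rfl⟩, rfl⟩, rfl⟩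
    have h6 : ((vboxes I1 v bx').card : ℝ) ≤ ∑ cj ∈ (P.image v) ×ˢ range H,
        ((((P.filter fun t => v t = cj.1).image fun t => bx' cj.1 t cj.2).image
          fun b => ((cj.1, b), cj.2)).card : ℝ) := by
      exact_mod_cast (card_le_card h5).trans card_biUnion_le
    refine h6.trans ((sum_le_card_nsmul _ _ (Cb * (H : ℝ) ^ 2) fun cj _ => ?_).trans ?_)
    · refine le_trans ?_ (hbox cj.1 cj.2)
      exact_mod_cast card_image_le
    · rw [nsmul_eq_mul, card_product, card_range]
      push_cast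
      exact le_of_eq (by ring)
  have h7 : ((P.image v).card : ℝ) * M ≤ W * (P.card : ℝ) := card_classes P v hv
  have h8 : ((vboxes I1 v bx').card : ℝ) * m ≤ (P.card : ℝ) * H / 4 := by
    calc ((vboxes I1 v bx').card : ℝ) * m
        ≤ (((P.image v).card : ℝ) * (Cb * (H : ℝ) ^ 2) * H) * m :=
          mul_le_mul_of_nonneg_right h4 hm0.le
      _ = (((P.image v).card : ℝ) * M) * H / (4 * W) := by
          rw [hm]; field_simp
      _ ≤ (W * (P.card : ℝ)) * H / (4 * W) := by gcongr
      _ = (P.card : ℝ) * H / 4 := by field_simp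
  have h9 : (P.card : ℝ) * H ≤ 2 * (I.card : ℝ) := by
    have := hcard
    linarith
  have hPH : 0 < (P.card : ℝ) * H := by positivity
  have hI0 : 0 < (I.card : ℝ) := by linarith
  refine ⟨I, ?_, ?_, h9, ?_, ?_⟩
  · exact card_pos.1 (by exact_mod_cast hI0)
  · intro p hp
    have := hII hp
    rw [hI1, mem_filter, mem_product, mem_range] at this
    exact ⟨this.1.1, this.1.2, this.2⟩
  · have h10 : ((I.image fun p => u p.1).card : ℝ) ≤ ((P.image u).card : ℝ) := by
      have : (I.image fun p => u p.1) ⊆ P.image u := by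
        intro c hc
        obtain ⟨p, hp, rfl⟩ := mem_image.1 hc
        have := hII hp
        rw [hI1, mem_filter, mem_product] at this
        exact mem_image_of_mem u this.1.1
      exact_mod_cast card_le_card this
    have h11 : ((P.image u).card : ℝ) * M ≤ W * (P.card : ℝ) := card_classes P u hu
    calc ((I.image fun p => u p.1).card : ℝ) * (M * H)
        ≤ ((P.image u).card : ℝ) * (M * H) := mul_le_mul_of_nonneg_right h10 (by positivity)
      _ = (((P.image u).card : ℝ) * M) * H := by ring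
      _ ≤ (W * (P.card : ℝ)) * H := mul_le_mul_of_nonneg_right h11 hH0.le
      _ = W * ((P.card : ℝ) * H) := by ring
      _ ≤ W * (2 * (I.card : ℝ)) := mul_le_mul_of_nonneg_left h9 hW0.le
      _ ≤ (4 * Cb * W) * (I.card : ℝ) := by
          have : 0 ≤ W * (I.card : ℝ) := by positivity
          nlinarith
  · intro p hp
    have h12 := hlow p hp
    rw [hm, div_le_iff₀ (by positivity)] at h12
    linarith

end

end Crest.Agent.R136.R2b500
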