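import Crest.Agent.R136.R2e_500

/-!
# R136, PLAN 2 (3) (aligned curved pairs, volume form): height bookkeeping (helper500)

* `three_sep` : a finite set of heights without three `s`-separated elements has at most `2 s`
  elements;
* `bad_heights` : if no line has three `s`-separated bad heights, the bad incidences are at most
  `2 s #P`;
* `nb_symm`, `nb_self` : the step relation.
-/

set_option autoImplicit false

open Finset

namespace Crest.Agent.R136.R2b500

/-- no three `s`-separated elements ⊢ at most `2 s` elements -/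
theorem three_sep (A : Finset ℕ) (s : ℕ) (hs : 1 ≤ s)
    (h : ∀ a ∈ A, ∀ b ∈ A, ∀ c ∈ A, a + s ≤ b → ¬ b + s ≤ c) : A.card ≤ 2 * s := by
  classical
  by_cases hA : A.Nonempty
  · set m := A.min' hA with hm
    set A2 := A.filter fun x => m + s ≤ x with hA2
    have h1 : (A.filter fun x => ¬ m + s ≤ x).card ≤ s := by
      have : (A.filter fun x => ¬ m + s ≤ x) ⊆ Finset.Ico m (m + s) := by
        intro x hx
        rw [mem_filter] at hx
        exact mem_Ico.2 ⟨A.min'_le x hx.1, not_le.1 hx.2⟩
      exact (card_le_card this).trans (by rw [Nat.card_Ico]; omega)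
    have h2 : A2.card ≤ s := by
      by_cases hne : A2.Nonempty
      · set m2 := A2.min' hne with hm2
        have hm2A := A2.min'_mem hne
        rw [← hm2, hA2, mem_filter] at hm2A
        have : A2 ⊆ Finset.Ico m2 (m2 + s) := by
          intro x hx
          refine mem_Ico.2 ⟨A2.min'_le x hx, ?_⟩
          by_contra hcon
          exact h m (A.min'_mem hA) m2 hm2A.1 x (mem_filter.1 hx).1 hm2A.2 (not_lt.1 hcon)
        exact (card_le_card this).trans (by rw [Nat.card_Ico]; omega)
      · rw [not_nonempty_iff_eq_empty] at hne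
        rw [hne]; simp
    have h3 : A2.card + (A.filter fun x => ¬ m + s ≤ x).card = A.card :=
      card_filter_add_card_filter_not (s := A) (fun x => m + s ≤ x)
    omega
  · rw [not_nonempty_iff_eq_empty] at hA
    rw [hA]; simp

section

variable {ι κ' β' : Type} [DecidableEq ι] [DecidableEq κ'] [DecidableEq β']

open Classical in
/-- few bad heights per line -/
theorem bad_heights (P : Finset ι) (H s : ℕ) (hs : 1 ≤ s) (Bad : ι × ℕ → Prop)
    (h : ∀ t ∈ P, ∀ a b c : ℕ, a + s ≤ b → b + s ≤ c → c < H → Bad (t, a) → Bad (t, b) →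
      ¬ Bad (t, c)) :
    (((P ×ˢ range H).filter Bad).card : ℝ) ≤ (P.card : ℝ) * (2 * s) := by
  have h1 : ((P ×ˢ range H).filter Bad) ⊆ P.biUnion fun t =>
      ((range H).filter fun j => Bad (t, j)).image fun j => (t, j) := by
    intro p hp
    rw [mem_filter, mem_product] at hp
    exact mem_biUnion.2 ⟨p.1, hp.1.1, mem_image.2 ⟨p.2, mem_filter.2 ⟨hp.1.2, hp.2⟩, rfl⟩⟩
  have h2 : (((P ×ˢ range H).filter Bad).card : ℝ) ≤ ∑ t ∈ P,
      ((((range H).filter fun j => Bad (t, j)).image fun j => (t, j)).card : ℝ) := by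
    exact_mod_cast (card_le_card h1).trans card_biUnion_le
  refine h2.trans ((sum_le_card_nsmul _ _ (2 * s : ℝ) fun t ht => ?_).trans
    (le_of_eq (by rw [nsmul_eq_mul])))
  have h3 : ((range H).filter fun j => Bad (t, j)).card ≤ 2 * s := by
    refine three_sep _ s hs fun a ha b hb c hc hab hbc => ?_
    rw [mem_filter, mem_range] at ha hb hc
    exact h t ht a b c hab hbc hc.1 ha.2 hb.2 hc.2
  exact_mod_cast (card_image_le.trans h3)

/-- the step relation is symmetric -/
theorem nb_symm {I : Finset (ι × ℕ)} {v : ι → κ'} {bx' : κ' → ι → ℕ → β'} {t t' : ι} {j : ℕ}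
    (ht : (t, j) ∈ I) (h : t' ∈ nb I v bx' t j) : t ∈ nb I v bx' t' j := by
  rw [mem_nb] at h ⊢
  obtain ⟨_, h2, h3⟩ := h
  exact ⟨ht, h2.symm, by rw [h2]; exact h3.symm⟩

theorem nb_self {I : Finset (ι × ℕ)} {v : ι → κ'} {bx' : κ' → ι → ℕ → β'} {t : ι} {j : ℕ}
    (ht : (t, j) ∈ I) : t ∈ nb I v bx' t j := mem_nb.2 ⟨ht, rfl, rfl⟩

end

end Crest.Agent.R136.R2b500
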