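import Crest.Agent.R136.R2f_500

/-!
# R136, PLAN 2 (3) (aligned curved pairs, volume form): end of the count (helper500)

* `al_end` : `start_inc` + `aligned_path` glued together. All counts are over the good incidences
  `(t, j)`, `t ∈ P`, `j < H`, `¬ Bad (t, j)`.
* `bad_union` : bad sets, class by class, of proportion `θ`.
-/

set_option autoImplicit false

open Finset

namespace Crest.Agent.R136.R2b500

section

variable {ι κ κ' β β' : Type} [DecidableEq ι] [DecidableEq κ] [DecidableEq κ'] [DecidableEq β]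
  [DecidableEq β']

open Classical in
/-- bad sets class by class -/
theorem bad_union (P : Finset ι) (u : ι → κ) (H : ℕ) (Bad : κ → ι × ℕ → Prop) {θ : ℝ}
    (h : ∀ c ∈ P.image u, ((((P.filter fun t => u t = c) ×ˢ range H).filter (Bad c)).card : ℝ) ≤
      θ * H * ((P.filter fun t => u t = c).card : ℝ)) :
    (((P ×ˢ range H).filter fun p => Bad (u p.1) p).card : ℝ) ≤ θ * H * (P.card : ℝ) := by
  have h1 : (P.card : ℝ) = ∑ c ∈ P.image u, ((P.filter fun s => u s = c).card : ℝ) := by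
    rw [card_eq_sum_card_image u P]; push_cast; rfl
  have h2 : ((P ×ˢ range H).filter fun p => Bad (u p.1) p) ⊆ (P.image u).biUnion fun c =>
      ((P.filter fun t => u t = c) ×ˢ range H).filter (Bad c) := by
    intro p hp
    rw [mem_filter, mem_product] at hp
    refine mem_biUnion.2 ⟨u p.1, mem_image_of_mem u hp.1.1, mem_filter.2 ⟨mem_product.2
      ⟨mem_filter.2 ⟨hp.1.1, rfl⟩, hp.1.2⟩, hp.2⟩⟩
  have h3 : (((P ×ˢ range H).filter fun p => Bad (u p.1) p).card : ℝ) ≤ ∑ c ∈ P.image u,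
      ((((P.filter fun t => u t = c) ×ˢ range H).filter (Bad c)).card : ℝ) := by
    exact_mod_cast (card_le_card h2).trans card_biUnion_le
  refine h3.trans ?_
  rw [h1, mul_sum]
  exact sum_le_sum h

open Classical in
/-- **end of (AL)** : path from the counts over the good incidences -/
theorem al_end (P : Finset ι) (u : ι → κ) (v : ι → κ') (bx : κ → ι → ℕ → β)
    (bx' : κ' → ι → ℕ → β') (H : ℕ) (Bad B0 Nd1 : ι × ℕ → Prop) (Nd2 Gen : ι × ℕ → ι → Prop)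
    {M W Cb X Y Q Z : ℝ} (hM : 0 < M) (hW : 1 ≤ W) (hCb : 1 ≤ Cb) (hH : 1 ≤ H)
    (hX : 4 * Cb * W ≤ X) (hY : 0 < Y) (hQ : 0 ≤ Q) (hZ : 0 ≤ Z) (hP : P.Nonempty)
    (hu : ∀ t ∈ P, M ≤ W * ((P.filter fun s => u s = u t).card : ℝ))
    (hv : ∀ t ∈ P, M ≤ W * ((P.filter fun s => v s = v t).card : ℝ))
    (hbox : ∀ c' j, (((P.filter fun t => v t = c').image fun t => bx' c' t j).card : ℝ) ≤
      Cb * (H : ℝ) ^ 2)
    (hBad : 4 * (((P ×ˢ range H).filter Bad).card : ℝ) ≤ (P.card : ℝ) * H)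
    (hB0 : 128 * X ^ 2 * (((P ×ˢ range H).filter B0).card : ℝ) ≤ (P.card : ℝ) * H)
    (hup : ∀ t ∈ P, ∀ j < H, ¬ Bad (t, j) → (H : ℝ) ^ 2 * ((P.filter fun s => ¬ Bad (s, j) ∧
      u s = u t ∧ bx (u t) s j = bx (u t) t j).card : ℝ) ≤ X * M)
    (hup' : ∀ t ∈ P, ∀ j < H, ¬ Bad (t, j) → (H : ℝ) ^ 2 * ((P.filter fun s => ¬ Bad (s, j) ∧
      v s = v t ∧ bx' (v t) s j = bx' (v t) t j).card : ℝ) ≤ X * M)
    (hcap : ∀ t ∈ P, ∀ j < H, ¬ Bad (t, j) → Y * (H : ℝ) ^ 2 * ((P.filter fun s =>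
      ¬ Bad (s, j) ∧ u s = u t ∧ v s = v t ∧ bx (u t) s j = bx (u t) t j).card : ℝ) ≤ M)
    (hcap' : ∀ t ∈ P, ∀ j < H, ¬ Bad (t, j) → Y * (H : ℝ) ^ 2 * ((P.filter fun s =>
      ¬ Bad (s, j) ∧ u s = u t ∧ v s = v t ∧ bx' (v t) s j = bx' (v t) t j).card : ℝ) ≤ M)
    (hK : ∀ c, (((P.filter fun t => u t = c).image v).card : ℝ) ≤ X * Q * H)
    (hK' : ∀ (c : κ) (T : Finset κ), (∀ c1 ∈ T, ∃ t ∈ P, ∃ t' ∈ P, ∃ j < H, u t = c ∧ u t' = c1 ∧
      v t' = v t ∧ bx' (v t) t' j = bx' (v t) t j ∧ ¬ Bad (t, j) ∧ ¬ Bad (t', j)) →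
      (T.card : ℝ) ≤ X * Q * H)
    (hNd1 : ∀ (c : κ) (c' : κ') (T : Finset (β × ℕ)), (∀ y ∈ T, ∃ t ∈ P, y.2 < H ∧ u t = c ∧
      v t = c' ∧ bx c t y.2 = y.1 ∧ ¬ Bad (t, y.2) ∧ Nd1 (t, y.2)) →
      (T.card : ℝ) ≤ Z * (H : ℝ) ^ 2)
    (hNd2 : ∀ (c c1 : κ) (T : Finset (β × ℕ)), (∀ y ∈ T, ∃ t ∈ P, ∃ t' ∈ P, y.2 < H ∧ u t = c ∧
      u t' = c1 ∧ v t' = v t ∧ bx' (v t) t' y.2 = bx' (v t) t y.2 ∧ bx c t y.2 = y.1 ∧
      ¬ Bad (t, y.2) ∧ ¬ Bad (t', y.2) ∧ Nd2 (t, y.2) t') → (T.card : ℝ) ≤ Z * (H : ℝ) ^ 2)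
    (hGen : ∀ t ∈ P, ∀ j < H, ¬ Bad (t, j) → 8 * (X * (H : ℝ) ^ 2 * ((P.filter fun s =>
      ¬ Bad (s, j) ∧ v s = v t ∧ bx' (v t) s j = bx' (v t) t j ∧ ¬ Gen (t, j) s).card : ℝ)) ≤ M)
    (hnum : 64 * (X ^ 4 * Q * Z) < Y) :
    ∃ t ∈ P, ∃ t' ∈ P, ∃ j < H, v t' = v t ∧ bx' (v t) t' j = bx' (v t) t j ∧
      ¬ Bad (t, j) ∧ ¬ Bad (t', j) ∧ ¬ B0 (t, j) ∧ ¬ B0 (t', j) ∧ ¬ Nd1 (t, j) ∧ ¬ Nd1 (t', j) ∧
      ¬ Nd2 (t, j) t' ∧ Gen (t, j) t' := by
  have hH0 : (0 : ℝ) < H := by exact_mod_cast hH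
  have hX1 : 1 ≤ X := by nlinarith
  have hX0 : 0 < X := by linarith
  set BadF := (P ×ˢ range H).filter Bad with hBadF
  set B0F := (P ×ˢ range H).filter B0 with hB0F
  obtain ⟨I, hne, hI, hPI, hfull, hlow⟩ := start_inc P u v bx' H BadF hM hW hCb hH hP hu hv hbox
    (by linarith)
  have hIB : ∀ p ∈ I, ¬ Bad p := by
    intro p hp hb
    obtain ⟨h1, h2, h3⟩ := hI p hp
    exact h3 (mem_filter.2 ⟨mem_product.2 ⟨h1, mem_range.2 h2⟩, hb⟩)
  -- a fibre of `I` at a fixed height is counted in `P`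
  have cnt : ∀ (j : ℕ) (R : ι → Prop) (A : Finset (ι × ℕ)) (S : Finset ι),
      (∀ r ∈ A, r ∈ I ∧ r.2 = j ∧ R r.1) → (∀ s, s ∈ P ∧ ¬ Bad (s, j) ∧ R s → s ∈ S) →
      (A.card : ℝ) ≤ (S.card : ℝ) := by
    intro j R A S hA hS
    have : A.card ≤ S.card := by
      refine card_le_card_of_injOn (fun r => r.1) ?_ ?_
      · intro r hr
        obtain ⟨h1, h2, h3⟩ := hA r hr
        refine mem_coe.2 (hS _ ⟨(hI r h1).1, ?_, h3⟩)
        rw [← h2]; exact hIB r h1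
      · intro r hr s hs hrs
        exact Prod.ext hrs ((hA r hr).2.1.trans (hA s hs).2.1.symm)
    exact_mod_cast this
  have cnt' : ∀ (p : ι × ℕ) (R : ι → Prop) (A S : Finset ι),
      (∀ s ∈ A, s ∈ nb I v bx' p.1 p.2 ∧ R s) →
      (∀ s, s ∈ P ∧ ¬ Bad (s, p.2) ∧ v s = v p.1 ∧
        bx' (v p.1) s p.2 = bx' (v p.1) p.1 p.2 ∧ R s → s ∈ S) →
      (A.card : ℝ) ≤ (S.card : ℝ) := by
    intro p R A S hA hS
    have : A ⊆ S := by
      intro s hs
      obtain ⟨h1, h2⟩ := hA s hs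
      rw [mem_nb] at h1
      exact hS s ⟨(hI _ h1.1).1, hIB _ h1.1, h1.2.1, h1.2.2, h2⟩
    exact_mod_cast card_le_card this
  have hfull' : ((I.image fun p => u p.1).card : ℝ) * (M * H) ≤ X * (I.card : ℝ) :=
    hfull.trans (mul_le_mul_of_nonneg_right hX (Nat.cast_nonneg _))
  have hlow' : ∀ p ∈ I, M ≤ X * (H : ℝ) ^ 2 * ((nb I v bx' p.1 p.2).card : ℝ) := by
    intro p hp
    refine (hlow p hp).trans (mul_le_mul_of_nonneg_right ?_ (Nat.cast_nonneg _))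
    exact mul_le_mul_of_nonneg_right hX (by positivity)
  obtain ⟨p, hpI, t', ht', h1, h2, h3, h4, h5, h6⟩ := aligned_path I u v bx bx'
    (B0F ∩ I) Nd1 Nd2 Gen (M := M) (H := (H : ℝ)) (X := X) (Y := Y) (Q := Q) (Z := Z) hM hH0 hX1 hY
    hQ hZ hne hfull' hlow'
    (by
      intro p hp
      refine le_trans (mul_le_mul_of_nonneg_left ?_ (by positivity))
        (hup p.1 (hI p hp).1 p.2 (hI p hp).2.1 (hIB p hp))
      refine cnt p.2 (fun s => u s = u p.1 ∧ bx (u p.1) s p.2 = bx (u p.1) p.1 p.2) _ _ ?_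
        (fun s hs => mem_filter.2 hs)
      intro r hr
      rw [mem_filter] at hr
      obtain ⟨h1, h2, h3, h4⟩ := hr
      refine ⟨h1, h4, h2, ?_⟩
      rw [← h4] at h3 ⊢; exact h3)
    (by
      intro p hp
      refine le_trans (mul_le_mul_of_nonneg_left ?_ (by positivity))
        (hup' p.1 (hI p hp).1 p.2 (hI p hp).2.1 (hIB p hp))
      exact cnt' p (fun _ => True) (nb I v bx' p.1 p.2) _ (fun s hs => ⟨hs, trivial⟩)
        (fun s hs => mem_filter.2 ⟨hs.1, hs.2.1, hs.2.2.1, hs.2.2.2.1⟩))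
    (by
      intro p hp
      refine le_trans (mul_le_mul_of_nonneg_left ?_ (by positivity))
        (hcap p.1 (hI p hp).1 p.2 (hI p hp).2.1 (hIB p hp))
      refine cnt p.2 (fun s => u s = u p.1 ∧ v s = v p.1 ∧
        bx (u p.1) s p.2 = bx (u p.1) p.1 p.2) _ _ ?_ (fun s hs => mem_filter.2 hs)
      intro r hr
      rw [mem_filter] at hr
      obtain ⟨h1, h2, h3, h4, h5⟩ := hr
      refine ⟨h1, h5, h2, h3, ?_⟩
      rw [← h5] at h4 ⊢; exact h4)
    (by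
      intro p hp c
      by_cases hem : ((nb I v bx' p.1 p.2).filter fun t' => u t' = c).Nonempty
      · obtain ⟨s, hs⟩ := hem
        rw [mem_filter] at hs
        obtain ⟨hs1, rfl⟩ := hs
        rw [mem_nb] at hs1
        obtain ⟨hs1, hs2, hs3⟩ := hs1
        refine le_trans (mul_le_mul_of_nonneg_left ?_ (by positivity))
          (hcap' s (hI _ hs1).1 p.2 (hI p hp).2.1 (hIB _ hs1))
        have hsub : ((nb I v bx' p.1 p.2).filter fun t' => u t' = u s) ⊆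
            (P.filter fun r => ¬ Bad (r, p.2) ∧ u r = u s ∧ v r = v s ∧
              bx' (v s) r p.2 = bx' (v s) s p.2) := by
          intro r hr
          rw [mem_filter, mem_nb] at hr
          obtain ⟨⟨hr1, hr2, hr3⟩, hr4⟩ := hr
          refine mem_filter.2 ⟨(hI _ hr1).1, hIB _ hr1, hr4, hr2.trans hs2.symm, ?_⟩
          rw [hs2, hr3, hs3]
        exact_mod_cast card_le_card hsub
      · rw [not_nonempty_iff_eq_empty] at hem
        rw [hem]; simpa using hM.le)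
    (by
      intro c
      refine le_trans ?_ (hK c)
      have : ((I.filter fun p => u p.1 = c).image fun p => v p.1) ⊆
          (P.filter fun t => u t = c).image v := by
        intro x hx
        obtain ⟨p, hp, rfl⟩ := mem_image.1 hx
        rw [mem_filter] at hp
        exact mem_image_of_mem v (mem_filter.2 ⟨(hI p hp.1).1, hp.2⟩)
      exact_mod_cast card_le_card this)
    (by
      intro c
      refine hK' c _ ?_
      intro c1 hc1
      rw [mem_biUnion] at hc1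
      obtain ⟨p, hp, hc1⟩ := hc1
      rw [mem_filter] at hp
      obtain ⟨s, hs, rfl⟩ := mem_image.1 hc1
      rw [mem_nb] at hs
      exact ⟨p.1, (hI p hp.1).1, s, (hI _ hs.1).1, p.2, (hI p hp.1).2.1, hp.2, rfl, hs.2.1, hs.2.2,
        hIB p hp.1, hIB _ hs.1⟩)
    (by
      intro c c'
      refine hNd1 c c' _ ?_
      intro y hy
      unfold boxes at hy
      obtain ⟨r, hr, rfl⟩ := mem_image.1 hy
      rw [mem_filter] at hr
      obtain ⟨h1, h2, h3, h4⟩ := hr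
      exact ⟨r.1, (hI r h1).1, (hI r h1).2.1, h2, h3, rfl, hIB r h1, h4⟩)
    (by
      intro c c1
      refine hNd2 c c1 _ ?_
      intro y hy
      unfold boxes at hy
      obtain ⟨r, hr, rfl⟩ := mem_image.1 hy
      rw [mem_filter] at hr
      obtain ⟨h1, h2, s, hs, h3, h4⟩ := hr
      rw [mem_nb] at hs
      exact ⟨r.1, (hI r h1).1, s, (hI _ hs.1).1, (hI r h1).2.1, h2, h3, hs.2.1, hs.2.2, rfl,
        hIB r h1, hIB _ hs.1, h4⟩)
    (by
      have h1 : ((B0F ∩ I).card : ℝ) ≤ (B0F.card : ℝ) := by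
        exact_mod_cast card_le_card inter_subset_left
      have h2 : 128 * X ^ 2 * ((B0F ∩ I).card : ℝ) ≤ 128 * X ^ 2 * (B0F.card : ℝ) :=
        mul_le_mul_of_nonneg_left h1 (by positivity)
      linarith)
    (by
      intro p hp
      have h1 := hGen p.1 (hI p hp).1 p.2 (hI p hp).2.1 (hIB p hp)
      have hXH : 0 < X * (H : ℝ) ^ 2 := by positivity
      have h3 := (h1.trans (hlow' p hp))
      have h4 : 8 * ((P.filter fun s => ¬ Bad (s, p.2) ∧ v s = v p.1 ∧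
          bx' (v p.1) s p.2 = bx' (v p.1) p.1 p.2 ∧ ¬ Gen (p.1, p.2) s).card : ℝ) ≤
          ((nb I v bx' p.1 p.2).card : ℝ) := by
        refine le_of_mul_le_mul_left (a := X * (H : ℝ) ^ 2) ?_ hXH
        linarith
      refine le_trans (mul_le_mul_of_nonneg_left ?_ (by norm_num)) h4
      exact cnt' p (fun s => ¬ Gen p s) _ _ (fun s hs => mem_filter.1 hs)
        (fun s hs => mem_filter.2 hs))
    hnum
  have ht'' := mem_nb.1 ht'
  have ht2 : (t', p.2) ∈ I := ht''.1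
  have hnB0 : ∀ q ∈ I, q ∉ B0F ∩ I → ¬ B0 q := by
    intro q hq hq' hb
    exact hq' (mem_inter.2 ⟨mem_filter.2 ⟨mem_product.2 ⟨(hI q hq).1,
      mem_range.2 (hI q hq).2.1⟩, hb⟩, hq⟩)
  exact ⟨p.1, (hI p hpI).1, t', (hI _ ht2).1, p.2, (hI p hpI).2.1, ht''.2.1, ht''.2.2, hIB p hpI,
    hIB _ ht2, hnB0 p hpI h1, hnB0 _ ht2 h2, h3, h4, h5, h6⟩

end

end Crest.Agent.R136.R2b500
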