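import Crest.Agent.R136.R2g_500

/-!
# R136, PLAN 2 (3): one-step contradiction (helper500)

`al_one` : if at EVERY good incidence the pair is nondegenerate (`hNd` bounds the number of boxes of
all the good incidences of a pair of classes by `Z H^2`), then `Y ≤ X^2 Q Z`.
-/

set_option autoImplicit false

open Finset

namespace Crest.Agent.R136.R2b500

section

variable {ι κ κ' β : Type} [DecidableEq ι] [DecidableEq κ] [DecidableEq κ'] [DecidableEq β]

open Classical in
/-- **one step** (base system `u`) -/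
theorem al_one (P : Finset ι) (u : ι → κ) (v : ι → κ') (bx : κ → ι → ℕ → β) (H : ℕ)
    (Bad : ι × ℕ → Prop) {M W X Y Q Z : ℝ} (hM : 0 < M) (hW : 1 ≤ W) (hH : 1 ≤ H)
    (hX : 2 * W ≤ X) (hY : 0 < Y) (hQ : 0 ≤ Q) (hZ : 0 ≤ Z) (hP : P.Nonempty)
    (hu : ∀ t ∈ P, M ≤ W * ((P.filter fun s => u s = u t).card : ℝ))
    (hBad : 4 * (((P ×ˢ range H).filter Bad).card : ℝ) ≤ (P.card : ℝ) * H)
    (hcap : ∀ t ∈ P, ∀ j < H, ¬ Bad (t, j) → Y * (H : ℝ) ^ 2 * ((P.filter fun s =>
      ¬ Bad (s, j) ∧ u s = u t ∧ v s = v t ∧ bx (u t) s j = bx (u t) t j).card : ℝ) ≤ M)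
    (hK : ∀ c, (((P.filter fun t => u t = c).image v).card : ℝ) ≤ X * Q * H)
    (hNd : ∀ (c : κ) (c' : κ') (T : Finset (β × ℕ)), (∀ y ∈ T, ∃ t ∈ P, y.2 < H ∧ u t = c ∧
      v t = c' ∧ bx c t y.2 = y.1 ∧ ¬ Bad (t, y.2)) → (T.card : ℝ) ≤ Z * (H : ℝ) ^ 2) :
    Y ≤ X ^ 2 * Q * Z := by
  have hH0 : (0 : ℝ) < H := by exact_mod_cast hH
  have hP0 : (0 : ℝ) < P.card := by exact_mod_cast hP.card_pos
  have hX0 : 0 < X := by linarith
  set BadF := (P ×ˢ range H).filter Bad with hBadF
  set I : Finset (ι × ℕ) := (P ×ˢ range H).filter fun p => ¬ Bad p with hI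
  have h1 : (I.card : ℝ) + (BadF.card : ℝ) = (P.card : ℝ) * H := by
    have h2 : BadF.card + I.card = (P ×ˢ range H).card := by
      rw [hBadF, hI]
      exact card_filter_add_card_filter_not (s := P ×ˢ range H) Bad
    rw [card_product, card_range] at h2
    have h3 : ((BadF.card + I.card : ℕ) : ℝ) = ((P.card * H : ℕ) : ℝ) := by rw [h2]
    push_cast at h3
    linarith
  have hPH : 0 < (P.card : ℝ) * H := mul_pos hP0 hH0
  have hI2 : (P.card : ℝ) * H ≤ 2 * (I.card : ℝ) := by linarith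
  have hI0 : 0 < (I.card : ℝ) := by linarith
  have hIm : ∀ p ∈ I, p.1 ∈ P ∧ p.2 < H ∧ ¬ Bad p := by
    intro p hp
    rw [hI, mem_filter, mem_product, mem_range] at hp
    exact ⟨hp.1.1, hp.1.2, hp.2⟩
  have hfull : ((I.image fun p => u p.1).card : ℝ) * (M * H) ≤ X * (I.card : ℝ) := by
    have h4 : ((I.image fun p => u p.1).card : ℝ) ≤ ((P.image u).card : ℝ) := by
      have : (I.image fun p => u p.1) ⊆ P.image u := by
        intro x hx
        obtain ⟨p, hp, rfl⟩ := mem_image.1 hx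
        exact mem_image_of_mem u (hIm p hp).1
      exact_mod_cast card_le_card this
    have h5 := card_classes P u hu
    calc ((I.image fun p => u p.1).card : ℝ) * (M * H)
        ≤ ((P.image u).card : ℝ) * (M * H) := mul_le_mul_of_nonneg_right h4 (by positivity)
      _ = ((P.image u).card : ℝ) * M * H := by ring
      _ ≤ W * (P.card : ℝ) * H := mul_le_mul_of_nonneg_right h5 hH0.le
      _ = W * ((P.card : ℝ) * H) := by ring
      _ ≤ W * (2 * (I.card : ℝ)) := mul_le_mul_of_nonneg_left hI2 (by linarith)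
      _ = 2 * W * (I.card : ℝ) := by ring
      _ ≤ X * (I.card : ℝ) := mul_le_mul_of_nonneg_right hX hI0.le
  obtain ⟨Nd, hNdI⟩ : ∃ Nd : ι × ℕ → Prop, ∀ p ∈ I, Nd p := ⟨fun _ => True, fun _ _ => trivial⟩
  have hfew := few_inc I u v bx Nd (M := M) (H := (H : ℝ)) (X := X) (Y := Y) (Q := Q)
    (Z := Z) hM hH0 hX0 hY hQ hZ hfull
    (by
      intro p hp
      refine le_trans (mul_le_mul_of_nonneg_left ?_ (by positivity))
        (hcap p.1 (hIm p hp).1 p.2 (hIm p hp).2.1 (hIm p hp).2.2)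
      have : (I.filter fun r => u r.1 = u p.1 ∧ v r.1 = v p.1 ∧
          bx (u p.1) r.1 r.2 = bx (u p.1) p.1 p.2 ∧ r.2 = p.2).card ≤
          (P.filter fun s => ¬ Bad (s, p.2) ∧ u s = u p.1 ∧ v s = v p.1 ∧
            bx (u p.1) s p.2 = bx (u p.1) p.1 p.2).card := by
        refine card_le_card_of_injOn (fun r => r.1) ?_ ?_
        · intro r hr
          rw [mem_coe, mem_filter] at hr
          obtain ⟨h1, h2, h3, h4, h5⟩ := hr
          refine mem_coe.2 (mem_filter.2 ⟨(hIm r h1).1, ?_, h2, h3, ?_⟩)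
          · rw [← h5]; exact (hIm r h1).2.2
          · rw [← h5] at h4 ⊢; exact h4
        · intro r hr s hs hrs
          rw [mem_coe, mem_filter] at hr hs
          exact Prod.ext hrs (hr.2.2.2.2.trans hs.2.2.2.2.symm)
      exact_mod_cast this)
    (by
      intro c
      refine le_trans ?_ (hK c)
      have : ((I.filter fun p => u p.1 = c).image fun p => v p.1) ⊆
          (P.filter fun t => u t = c).image v := by
        intro x hx
        obtain ⟨p, hp, rfl⟩ := mem_image.1 hx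
        rw [mem_filter] at hp
        exact mem_image_of_mem v (mem_filter.2 ⟨(hIm p hp.1).1, hp.2⟩)
      exact_mod_cast card_le_card this)
    (by
      intro c c'
      refine hNd c c' _ ?_
      intro y hy
      unfold boxes at hy
      obtain ⟨r, hr, rfl⟩ := mem_image.1 hy
      rw [mem_filter] at hr
      obtain ⟨h1, h2, h3, _⟩ := hr
      exact ⟨r.1, (hIm r h1).1, (hIm r h1).2.1, h2, h3, rfl, (hIm r h1).2.2⟩)
  have hfew : (I.card : ℝ) ≤ (I.card : ℝ) * (X ^ 2 * Q * Z / Y) := by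
    refine le_trans ?_ hfew
    exact_mod_cast card_le_card (fun p hp => mem_filter.2 ⟨hp, hNdI p hp⟩)
  have h6 : 1 ≤ X ^ 2 * Q * Z / Y := by
    by_contra hcon
    push Not at hcon
    have : (I.card : ℝ) * (X ^ 2 * Q * Z / Y) < (I.card : ℝ) * 1 :=
      mul_lt_mul_of_pos_left hcon hI0
    linarith
  rwa [le_div_iff₀ hY, one_mul] at h6

end

end Crest.Agent.R136.R2b500
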