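import Crest.Agent.R136.Crc_544

/-!
# R136, specials of the thin pins (helper493): the rows of a pair, `35`

Port of helper544's `Crb`, `Crc`: only the slot `Y²` of the pair is narrow.
-/

set_option autoImplicit false
set_option linter.unusedVariables false

namespace Crest.Agent.R136.R5493

open Crest.Agent.R136.NetW191 Crest.Agent.R136.EvW938 Crest.Agent.R136.Cr544

/-- **data of a pair** (normalised) -/
structure Pr5 (κ K τ : ℝ) (P P' : FW) : Prop where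
  hκ : |κ| ≤ 1
  K1 : 1 ≤ K
  τ0 : 0 ≤ τ
  τ1 : τ ≤ 1
  g : ∀ i, |P.g i| ≤ K
  g' : ∀ i, |P'.g i| ≤ K
  G : ∀ q, |P.G q| ≤ K
  G' : ∀ q, |P'.G q| ≤ K
  t : |P.g 0| ≤ τ
  t' : |P'.g 0| ≤ τ
  d4 : |coW κ P P' 4| ≤ τ

variable {κ K τ : ℝ} {P P' : FW}

/-- main part of the flag difference -/
def dl5 (P P' : FW) : Fin 14 → ℝ := fun q => if q = 0 then 0 else dl P P' q

theorem Pr5.main (H : Pr5 κ K τ P P') (q : Fin 14) :
    |coW κ P P' (Fin.natAdd 4 q) - tr κ (fr0 P') (dl5 P P') q| ≤ CP K * τ := by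
  obtain ⟨hκ, hK, hτ, hτ1, g, g', G, G', t, t', d4⟩ := H
  have hdl : ∀ q, |dl P P' q| ≤ 2 * K := fun q => by
    have h := abs_sub (P'.G q) (P.G q)
    have e : dl P P' q = P'.G q - P.G q := rfl
    rw [e]
    have := G q; have := G' q
    linarith
  have c4 : coW κ P P' 4 = dl P P' 0 := by
    have := coW_right κ P P' 0
    rw [tr0] at this
    exact this
  have a0 : |dl P P' 0| ≤ τ := by rw [← c4]; exact d4
  have K2 : (1 : ℝ) ≤ 2 * K := by linarith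
  have hr : coW κ P P' (Fin.natAdd 4 q) = tr κ P'.g (dl P P') q := coW_right _ _ _ _
  rw [hr]
  have h5 : (0 : ℝ) ≤ 5 * τ := by linarith
  have hbig : 5 * τ ≤ 2 * K * (5 * τ) * 1 := by nlinarith
  have h := tr_lip (κ := κ) (h := P'.g) (h' := fr0 P') (w := dl P P') (w' := dl5 P P')
    (X := fun _ => 1) hκ FlW464.sidesW_one (K := 2 * K) (τ := 5 * τ) K2 h5
    (fun i => by have := g' i; simp only [mul_one]; linarith)
    (fun i => by
      simp only [mul_one]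
      fin_cases i
      · change |(0 : ℝ)| ≤ _
        rw [abs_zero]; linarith
      · have := g' 1; change |P'.g 1| ≤ _; linarith
      · have := g' 2; change |P'.g 2| ≤ _; linarith
      · have := g' 3; change |P'.g 3| ≤ _; linarith)
    (fun i => by
      fin_cases i
      · change |P'.g 0 - 0| ≤ _
        rw [sub_zero]; linarith
      · change |P'.g 1 - P'.g 1| ≤ _
        rw [sub_self, abs_zero]; linarith
      · change |P'.g 2 - P'.g 2| ≤ _
        rw [sub_self, abs_zero]; linarith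
      · change |P'.g 3 - P'.g 3| ≤ _
        rw [sub_self, abs_zero]; linarith)
    (fun q => by simp only [mul_one]; exact hdl q)
    (fun q => by
      unfold dl5
      split_ifs with h
      · rw [sub_zero]
        subst h
        linarith
      · rw [sub_self, abs_zero]; linarith) q
  refine h.trans (le_of_eq ?_)
  unfold CP
  ring

/-! ### the functions of `35` -/

/-- `F` -/
def f5F (P : FW) : ℝ := 2 * P.G 3
/-- `K` -/
def f5K (κ : ℝ) (P : FW) : ℝ := P.G 5 - 4 * κ * (P.g 1 * P.G 3)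

/-- all small quantities of a pair -/
theorem Pr5.errs (H : Pr5 κ K τ P P') :
    |coW κ P P' 5 - dl P P' 1| ≤ CP K * τ ∧
    |coW κ P P' 7 - dl P P' 3| ≤ CP K * τ ∧
    |coW κ P P' 9 - (dl P P' 5 + 2 * κ * P'.g 2 * dl P P' 1 - 4 * κ * P'.g 1 * dl P P' 3)| ≤
      CP K * τ ∧
    |coW κ P P' 14 - (dl P P' 10 + κ * P'.g 2 ^ 2 * dl P P' 1 + 2 * P'.g 3 * dl P P' 3 +
      P'.g 2 * dl P P' 5)| ≤ CP K * τ := by
  have h1 := H.main 1
  have h3 := H.main 3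
  have h5 := H.main 5
  have h10 := H.main 10
  have z0 : fr0 P' 0 = 0 := rfl
  have z1 : fr0 P' 1 = P'.g 1 := rfl
  have z2 : fr0 P' 2 = P'.g 2 := rfl
  have z3 : fr0 P' 3 = P'.g 3 := rfl
  have d0 : dl5 P P' 0 = 0 := by simp [dl5]
  have dd : ∀ q : Fin 14, q ≠ 0 → dl5 P P' q = dl P P' q := by
    intro q a
    simp [dl5, a]
  have d1 := dd 1 (by decide)
  have d2 := dd 2 (by decide)
  have d3 := dd 3 (by decide)
  have d4 := dd 4 (by decide)
  have d5 := dd 5 (by decide)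
  have d7 := dd 7 (by decide)
  have d10 := dd 10 (by decide)
  rw [tr1, z0, d0, d1] at h1
  rw [tr3, z0, d0, d1, d3] at h3
  rw [tr5, z0, z1, z2, d0, d1, d2, d3, d5] at h5
  rw [tr10, z0, z2, z3, d0, d1, d2, d3, d4, d5, d7, d10] at h10
  refine ⟨?_, ?_, ?_, ?_⟩
  · refine le_trans (le_of_eq ?_) h1
    congr 1
    change coW κ P P' 5 - _ = coW κ P P' 5 - _
    ring
  · refine le_trans (le_of_eq ?_) h3
    congr 1
    change coW κ P P' 7 - _ = coW κ P P' 7 - _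
    ring
  · refine le_trans (le_of_eq ?_) h5
    congr 1
    change coW κ P P' 9 - _ = coW κ P P' 9 - _
    ring
  · refine le_trans (le_of_eq ?_) h10
    congr 1
    change coW κ P P' 14 - _ = coW κ P P' 14 - _
    ring

/-- common data of the rows -/
structure Dt5 (κ K τ e : ℝ) (P P' : FW) : Prop where
  H : Pr5 κ K τ P P'
  he : e = (1 + CP K) * τ
  κK : |κ| ≤ K
  τe : τ ≤ e
  D0 : |coW κ P P' 0| ≤ e
  e1 : |coW κ P P' 5 - dl P P' 1| ≤ e
  e3 : |coW κ P P' 7 - dl P P' 3| ≤ e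
  e5 : |coW κ P P' 9 - (dl P P' 5 + 2 * κ * P'.g 2 * dl P P' 1 - 4 * κ * P'.g 1 * dl P P' 3)| ≤ e
  e10 : |coW κ P P' 14 - (dl P P' 10 + κ * P'.g 2 ^ 2 * dl P P' 1 + 2 * P'.g 3 * dl P P' 3 +
      P'.g 2 * dl P P' 5)| ≤ e

theorem Pr5.dt (H : Pr5 κ K τ P P') : Dt5 κ K τ ((1 + CP K) * τ) P P' := by
  have hC := one_CP H.K1
  have hτ := H.τ0
  have h1 : CP K * τ ≤ (1 + CP K) * τ := by nlinarith
  obtain ⟨e1, e3, e5, e10⟩ := H.errs
  obtain ⟨f0, -⟩ := frames κ P P'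
  refine ⟨H, rfl, H.hκ.trans H.K1, by nlinarith, ?_, e1.trans h1, e3.trans h1, e5.trans h1,
    e10.trans h1⟩
  rw [f0]
  have := abs_sub (P'.g 0) (P.g 0)
  have := H.t
  have := H.t'
  nlinarith

theorem Dt5.row {e : ℝ} (D : Dt5 κ K τ e P P') {R : ℝ} (l : List (ℝ × ℝ)) (hl : l.length ≤ 12)
    (hR : R = (l.map fun p => p.1 * p.2).sum) (h : ∀ p ∈ l, |p.1| ≤ 100 * K ^ 4 ∧ |p.2| ≤ e) :
    |R| ≤ CR K * τ :=
  rowc D.H.K1 D.H.τ0 rfl D.he l hl hR h

/-- `a` -/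
theorem Dt5.ra {e : ℝ} (D : Dt5 κ K τ e P P') (d2 : |coW κ P P' 2| ≤ τ) :
    |P'.g 2 - P.g 2| ≤ CR K * τ := by
  have hK := D.H.K1
  obtain ⟨f0, f1, f2, f3⟩ := frames κ P P'
  refine D.row [(1, coW κ P P' 2), (P.g 1, coW κ P P' 0)] (by simp) ?_ ?_
  · simp only [List.map_cons, List.map_nil, List.sum_cons, List.sum_nil]
    rw [f2]; ring
  · simp only [List.forall_mem_cons, List.not_mem_nil, false_implies, implies_true, and_true]
    refine ⟨⟨up4 hK (mon0 hK (by norm_num)), d2.trans D.τe⟩, ?_, D.D0⟩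
    have := mon1 hK (n := 1) (by norm_num) (D.H.g 1)
    rw [one_mul] at this
    exact up4 hK this

/-- `F` -/
theorem Dt5.rF {e : ℝ} (D : Dt5 κ K τ e P P') (d7 : |coW κ P P' 7| ≤ τ) :
    |f5F P' - f5F P| ≤ CR K * τ := by
  have hK := D.H.K1
  refine D.row [(2, coW κ P P' 7), (-2, coW κ P P' 7 - dl P P' 3)] (by simp) ?_ ?_
  · simp only [List.map_cons, List.map_nil, List.sum_cons, List.sum_nil]
    have : dl P P' 3 = P'.G 3 - P.G 3 := rfl
    rw [this]; unfold f5F; ring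
  · simp only [List.forall_mem_cons, List.not_mem_nil, false_implies, implies_true, and_true]
    exact ⟨⟨up4 hK (mon0 hK (by norm_num)), d7.trans D.τe⟩,
      up4 hK (mon0 hK (by rw [abs_neg]; norm_num)), D.e3⟩

/-- `Y` -/
theorem Dt5.rY {e : ℝ} (D : Dt5 κ K τ e P P') (d5 : |coW κ P P' 5| ≤ τ) :
    |P'.G 1 - P.G 1| ≤ CR K * τ := by
  have hK := D.H.K1
  refine D.row [(1, coW κ P P' 5), (-1, coW κ P P' 5 - dl P P' 1)] (by simp) ?_ ?_
  · simp only [List.map_cons, List.map_nil, List.sum_cons, List.sum_nil]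
    have : dl P P' 1 = P'.G 1 - P.G 1 := rfl
    rw [this]; ring
  · simp only [List.forall_mem_cons, List.not_mem_nil, false_implies, implies_true, and_true]
    exact ⟨⟨up4 hK (mon0 hK (by norm_num)), d5.trans D.τe⟩,
      up4 hK (mon0 hK (by rw [abs_neg]; norm_num)), D.e1⟩

/-- `Q` -/
theorem Dt5.rQ {e : ℝ} (D : Dt5 κ K τ e P P') (d2 : |coW κ P P' 2| ≤ τ)
    (d7 : |coW κ P P' 7| ≤ τ) :
    |2 * P'.g 2 * f5F P' - 2 * P.g 2 * f5F P| ≤ CR K * τ := by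
  have hK := D.H.K1
  obtain ⟨f0, f1, f2, f3⟩ := frames κ P P'
  refine D.row [(4 * P'.g 2, coW κ P P' 7), (-4 * P'.g 2, coW κ P P' 7 - dl P P' 3),
    (4 * P.G 3, coW κ P P' 2), (4 * (P.G 3 * P.g 1), coW κ P P' 0)] (by simp) ?_ ?_
  · simp only [List.map_cons, List.map_nil, List.sum_cons, List.sum_nil]
    have h3 : dl P P' 3 = P'.G 3 - P.G 3 := rfl
    rw [h3]; unfold f5F
    linear_combination (4 * P.G 3) * f2
  · simp only [List.forall_mem_cons, List.not_mem_nil, false_implies, implies_true, and_true]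
    exact ⟨⟨up4 hK (mon1 hK (by norm_num) (D.H.g' 2)), d7.trans D.τe⟩,
      ⟨up4 hK (mon1 hK (by rw [abs_neg]; norm_num) (D.H.g' 2)), D.e3⟩,
      ⟨up4 hK (mon1 hK (by norm_num) (D.H.G 3)), d2.trans D.τe⟩,
      up4 hK (mon2 hK (by norm_num) (D.H.G 3) (D.H.g 1)), D.D0⟩

/-- the big row of the positions -/
theorem Dt5.rp {e : ℝ} (D : Dt5 κ K τ e P P') (d2 : |coW κ P P' 2| ≤ τ)
    (d7 : |coW κ P P' 7| ≤ τ) (d14 : |coW κ P P' 14| ≤ τ) :
    |(P'.G 10 + κ * P'.g 2 ^ 2 * P'.G 1 + P'.g 2 * f5K κ P' +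
        κ * (P'.g 1 * (2 * P'.g 2 * f5F P'))) -
      (P.G 10 + κ * P.g 2 ^ 2 * P.G 1 + P.g 2 * f5K κ P +
        κ * (P.g 1 * (2 * P.g 2 * f5F P)))| ≤ CR K * τ := by
  have hK := D.H.K1
  obtain ⟨f0, f1, f2, f3⟩ := frames κ P P'
  refine D.row [(1, coW κ P P' 14), (-1, coW κ P P' 14 - (dl P P' 10 +
      κ * P'.g 2 ^ 2 * dl P P' 1 + 2 * P'.g 3 * dl P P' 3 + P'.g 2 * dl P P' 5)),
    (-2 * P'.g 3, coW κ P P' 7), (2 * P'.g 3, coW κ P P' 7 - dl P P' 3),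
    (1 * (κ * P'.g 2 * P.G 1) + 1 * (κ * P.g 2 * P.G 1), coW κ P P' 2),
    (1 * P.G 5, coW κ P P' 2),
    (1 * (κ * P'.g 2 * P.G 1 * P.g 1) + 1 * (κ * P.g 2 * P.G 1 * P.g 1), coW κ P P' 0),
    (1 * (P.G 5 * P.g 1), coW κ P P' 0)] (by simp) ?_ ?_
  · simp only [List.map_cons, List.map_nil, List.sum_cons, List.sum_nil]
    have h1 : dl P P' 1 = P'.G 1 - P.G 1 := rfl
    have h3 : dl P P' 3 = P'.G 3 - P.G 3 := rfl
    have h5 : dl P P' 5 = P'.G 5 - P.G 5 := rfl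
    have h10 : dl P P' 10 = P'.G 10 - P.G 10 := rfl
    rw [h1, h3, h5, h10]; unfold f5F f5K
    linear_combination (κ * (P'.g 2 + P.g 2) * P.G 1 + P.G 5) * f2
  · simp only [List.forall_mem_cons, List.not_mem_nil, false_implies, implies_true, and_true]
    exact ⟨⟨up4 hK (mon0 hK (by norm_num)), d14.trans D.τe⟩,
      ⟨up4 hK (mon0 hK (by rw [abs_neg]; norm_num)), D.e10⟩,
      ⟨up4 hK (mon1 hK (by rw [abs_neg]; norm_num) (D.H.g' 3)), d7.trans D.τe⟩,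
      ⟨up4 hK (mon1 hK (by norm_num) (D.H.g' 3)), D.e3⟩,
      ⟨up4' hK (mon3 hK (by norm_num) D.κK (D.H.g' 2) (D.H.G 1))
        (mon3 hK (by norm_num) D.κK (D.H.g 2) (D.H.G 1)), d2.trans D.τe⟩,
      ⟨up4 hK (mon1 hK (by norm_num) (D.H.G 5)), d2.trans D.τe⟩,
      ⟨up4' hK (mon4 hK (by norm_num) D.κK (D.H.g' 2) (D.H.G 1) (D.H.g 1))
        (mon4 hK (by norm_num) D.κK (D.H.g 2) (D.H.G 1) (D.H.g 1)), D.D0⟩,
      up4 hK (mon2 hK (by norm_num) (D.H.G 5) (D.H.g 1)), D.D0⟩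

/-- `c` -/
theorem Dt5.rc {e : ℝ} (D : Dt5 κ K τ e P P') (d1 : |coW κ P P' 1| ≤ τ) :
    |P'.g 1 - P.g 1| ≤ CR K * τ := by
  have hK := D.H.K1
  obtain ⟨f0, f1, f2, f3⟩ := frames κ P P'
  refine D.row [(1, coW κ P P' 1)] (by simp) ?_ ?_
  · simp only [List.map_cons, List.map_nil, List.sum_cons, List.sum_nil]
    rw [f1]; ring
  · simp only [List.forall_mem_cons, List.not_mem_nil, false_implies, implies_true, and_true]
    exact ⟨up4 hK (mon0 hK (by norm_num)), d1.trans D.τe⟩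

/-- the coordinate `A` of the pair is bounded -/
theorem Dt5.D2' {e : ℝ} (D : Dt5 κ K τ e P P') : |coW κ P P' 2| ≤ 4 * K ^ 2 := by
  have hK := D.H.K1
  obtain ⟨f0, f1, f2, f3⟩ := frames κ P P'
  have e1 : coW κ P P' 2 = P'.g 2 - P.g 2 - P.g 1 * (P'.g 0 - P.g 0) := by
    rw [f2, f0]; ring
  rw [e1]
  have h1 := abs_sub (P'.g 2 - P.g 2) (P.g 1 * (P'.g 0 - P.g 0))
  have h2 := abs_sub (P'.g 2) (P.g 2)
  have h3 : |P.g 1 * (P'.g 0 - P.g 0)| ≤ K * 2 := by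
    rw [abs_mul]
    refine mul_le_mul (D.H.g 1) ?_ (abs_nonneg _) (by linarith)
    have := abs_sub (P'.g 0) (P.g 0)
    have := D.H.t
    have := D.H.t'
    have := D.H.τ1
    linarith
  have := D.H.g 2
  have := D.H.g' 2
  nlinarith

theorem Dt5.D2 {e : ℝ} (D : Dt5 κ K τ e P P') : |2 * (κ * coW κ P P' 2)| ≤ 25 * K ^ 4 := by
  have hK := D.H.K1
  have h1 := D.D2'
  rw [abs_mul, abs_mul, abs_two]
  have h2 := D.H.hκ
  have h3 : |κ| * |coW κ P P' 2| ≤ 1 * (4 * K ^ 2) :=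
    mul_le_mul h2 h1 (abs_nonneg _) (by norm_num)
  have h4 : K ^ 2 ≤ K ^ 4 := pow_le_pow_right₀ hK (by norm_num)
  nlinarith

/-- `β` on a cell of the velocities -/
theorem Dt5.rB {e : ℝ} (D : Dt5 κ K τ e P P') (d1 : |coW κ P P' 1| ≤ τ)
    (d3 : |coW κ P P' 3| ≤ τ) :
    |fB κ P' - fB κ P| ≤ CR K * τ := by
  have hK := D.H.K1
  obtain ⟨f0, f1, f2, f3⟩ := frames κ P P'
  refine D.row [(1, coW κ P P' 3), (2 * (κ * coW κ P P' 2) + 2 * (κ * P.g 2), coW κ P P' 1),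
    (2 * (κ * P'.g 1 * P.g 1) + -1 * (κ * P.g 1 * P.g 1), coW κ P P' 0)] (by simp) ?_ ?_
  · simp only [List.map_cons, List.map_nil, List.sum_cons, List.sum_nil]
    unfold Cr544.fB
    rw [f3, f2, f1]; ring
  · simp only [List.forall_mem_cons, List.not_mem_nil, false_implies, implies_true, and_true]
    exact ⟨⟨up4 hK (mon0 hK (by norm_num)), d3.trans D.τe⟩,
      ⟨up4' hK D.D2 (mon2 hK (by norm_num) D.κK (D.H.g 2)), d1.trans D.τe⟩,
      up4' hK (mon3 hK (by norm_num) D.κK (D.H.g' 1) (D.H.g 1))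
        (mon3 hK (by rw [abs_neg]; norm_num) D.κK (D.H.g 1) (D.H.g 1)), D.D0⟩

/-- `K` on a cell of the velocities -/
theorem Dt5.rK {e : ℝ} (D : Dt5 κ K τ e P P') (d1 : |coW κ P P' 1| ≤ τ) (d5 : |coW κ P P' 5| ≤ τ)
    (d9 : |coW κ P P' 9| ≤ τ) : |f5K κ P' - f5K κ P| ≤ CR K * τ := by
  have hK := D.H.K1
  obtain ⟨f0, f1, f2, f3⟩ := frames κ P P'
  refine D.row [(1, coW κ P P' 9), (-1, coW κ P P' 9 - (dl P P' 5 +
      2 * κ * P'.g 2 * dl P P' 1 - 4 * κ * P'.g 1 * dl P P' 3)),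
    (-2 * (κ * P'.g 2), coW κ P P' 5), (2 * (κ * P'.g 2), coW κ P P' 5 - dl P P' 1),
    (-4 * (κ * P.G 3), coW κ P P' 1)] (by simp) ?_ ?_
  · simp only [List.map_cons, List.map_nil, List.sum_cons, List.sum_nil]
    have h1 : dl P P' 1 = P'.G 1 - P.G 1 := rfl
    have h3 : dl P P' 3 = P'.G 3 - P.G 3 := rfl
    have h5 : dl P P' 5 = P'.G 5 - P.G 5 := rfl
    rw [h1, h3, h5]; unfold f5K
    linear_combination (-4 * κ * P.G 3) * f1
  · simp only [List.forall_mem_cons, List.not_mem_nil, false_implies, implies_true, and_true]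
    exact ⟨⟨up4 hK (mon0 hK (by norm_num)), d9.trans D.τe⟩,
      ⟨up4 hK (mon0 hK (by rw [abs_neg]; norm_num)), D.e5⟩,
      ⟨up4 hK (mon2 hK (by rw [abs_neg]; norm_num) D.κK (D.H.g' 2)), d5.trans D.τe⟩,
      ⟨up4 hK (mon2 hK (by norm_num) D.κK (D.H.g' 2)), D.e1⟩,
      up4 hK (mon2 hK (by rw [abs_neg]; norm_num) D.κK (D.H.G 3)), d1.trans D.τe⟩

/-- the big row of the velocities -/
theorem Dt5.rv {e : ℝ} (D : Dt5 κ K τ e P P') (d1 : |coW κ P P' 1| ≤ τ) (d3 : |coW κ P P' 3| ≤ τ)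
    (d5 : |coW κ P P' 5| ≤ τ) (d9 : |coW κ P P' 9| ≤ τ) (d14 : |coW κ P P' 14| ≤ τ) :
    |(P'.G 10 + fB κ P' * f5F P') - (P.G 10 + fB κ P * f5F P)| ≤ 2 * (CR K * τ) := by
  have hK := D.H.K1
  obtain ⟨f0, f1, f2, f3⟩ := frames κ P P'
  -- without the change of `β`
  have h1 : |(P'.G 10 + fB κ P' * f5F P') - (P.G 10 + fB κ P * f5F P) -
      2 * P.G 3 * (fB κ P' - fB κ P)| ≤ CR K * τ := by
    refine D.row [(1, coW κ P P' 14), (-1, coW κ P P' 14 - (dl P P' 10 +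
        κ * P'.g 2 ^ 2 * dl P P' 1 + 2 * P'.g 3 * dl P P' 3 + P'.g 2 * dl P P' 5)),
      (1 * (κ * P'.g 2 * P'.g 2), coW κ P P' 5),
      (-1 * (κ * P'.g 2 * P'.g 2), coW κ P P' 5 - dl P P' 1),
      (-1 * P'.g 2, coW κ P P' 9), (1 * P'.g 2, coW κ P P' 9 - (dl P P' 5 +
        2 * κ * P'.g 2 * dl P P' 1 - 4 * κ * P'.g 1 * dl P P' 3))] (by simp) ?_ ?_
    · simp only [List.map_cons, List.map_nil, List.sum_cons, List.sum_nil]
      have h1 : dl P P' 1 = P'.G 1 - P.G 1 := rfl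
      have h3 : dl P P' 3 = P'.G 3 - P.G 3 := rfl
      have h5 : dl P P' 5 = P'.G 5 - P.G 5 := rfl
      have h10 : dl P P' 10 = P'.G 10 - P.G 10 := rfl
      rw [h1, h3, h5, h10]; unfold f5F Cr544.fB
      ring
    · simp only [List.forall_mem_cons, List.not_mem_nil, false_implies, implies_true, and_true]
      exact ⟨⟨up4 hK (mon0 hK (by norm_num)), d14.trans D.τe⟩,
        ⟨up4 hK (mon0 hK (by rw [abs_neg]; norm_num)), D.e10⟩,
        ⟨up4 hK (mon3 hK (by norm_num) D.κK (D.H.g' 2) (D.H.g' 2)), d5.trans D.τe⟩,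
        ⟨up4 hK (mon3 hK (by rw [abs_neg]; norm_num) D.κK (D.H.g' 2) (D.H.g' 2)), D.e1⟩,
        ⟨up4 hK (mon1 hK (by rw [abs_neg]; norm_num) (D.H.g' 2)), d9.trans D.τe⟩,
        up4 hK (mon1 hK (by norm_num) (D.H.g' 2)), D.e5⟩
  have h2 : |2 * P.G 3 * (fB κ P' - fB κ P)| ≤ CR K * τ := by
    refine D.row [(2 * P.G 3, coW κ P P' 3), (2 * P.G 3 * (2 * (κ * coW κ P P' 2)) +
        4 * (κ * P.g 2 * P.G 3), coW κ P P' 1),
      (4 * (κ * P'.g 1 * P.g 1 * P.G 3) + -2 * (κ * P.g 1 * P.g 1 * P.G 3), coW κ P P' 0)]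
      (by simp) ?_ ?_
    · simp only [List.map_cons, List.map_nil, List.sum_cons, List.sum_nil]
      unfold Cr544.fB
      rw [f3, f2, f1]; ring
    · simp only [List.forall_mem_cons, List.not_mem_nil, false_implies, implies_true, and_true]
      refine ⟨⟨up4 hK (mon1 hK (by norm_num) (D.H.G 3)), d3.trans D.τe⟩,
        ⟨up4' hK ?_ (mon3 hK (by norm_num) D.κK (D.H.g 2) (D.H.G 3)), d1.trans D.τe⟩,
        up4' hK (mon4 hK (by norm_num) D.κK (D.H.g' 1) (D.H.g 1) (D.H.G 3))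
          (mon4 hK (by rw [abs_neg]; norm_num) D.κK (D.H.g 1) (D.H.g 1) (D.H.G 3)), D.D0⟩
      have h1 : |2 * (κ * coW κ P P' 2)| ≤ 8 * K ^ 2 := by
        rw [abs_mul, abs_mul, abs_two]
        have h5 : |κ| * |coW κ P P' 2| ≤ 1 * (4 * K ^ 2) :=
          mul_le_mul D.H.hκ D.D2' (abs_nonneg _) (by norm_num)
        linarith
      rw [abs_mul, abs_mul, abs_two]
      calc 2 * |P.G 3| * |2 * (κ * coW κ P P' 2)| ≤ 2 * K * (8 * K ^ 2) :=
            mul_le_mul (by linarith [D.H.G 3]) h1 (abs_nonneg _) (by linarith)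
        _ ≤ 25 * K ^ 4 := by
            have : K ^ 3 ≤ K ^ 4 := pow_le_pow_right₀ hK (by norm_num)
            nlinarith [show 0 ≤ K ^ 4 by positivity]
  have e1 : (P'.G 10 + fB κ P' * f5F P') - (P.G 10 + fB κ P * f5F P) =
      ((P'.G 10 + fB κ P' * f5F P') - (P.G 10 + fB κ P * f5F P) -
      2 * P.G 3 * (fB κ P' - fB κ P)) + 2 * P.G 3 * (fB κ P' - fB κ P) := by ring
  rw [e1]
  refine (abs_add_le _ _).trans ?_
  linarith

/-- backwards: slot `A` -/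
theorem Dt5.sa {e : ℝ} (D : Dt5 κ K τ e P P') : |coW κ P P' 2 - (P'.g 2 - P.g 2)| ≤ CR K * τ := by
  have hK := D.H.K1
  obtain ⟨f0, f1, f2, f3⟩ := frames κ P P'
  refine D.row [(-1 * P.g 1, coW κ P P' 0)] (by simp) ?_ ?_
  · simp only [List.map_cons, List.map_nil, List.sum_cons, List.sum_nil]
    rw [f2]; ring
  · simp only [List.forall_mem_cons, List.not_mem_nil, false_implies, implies_true, and_true]
    exact ⟨up4 hK (mon1 hK (by rw [abs_neg]; norm_num) (D.H.g 1)), D.D0⟩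

/-- backwards: slot `B` -/
theorem Dt5.sb {e : ℝ} (D : Dt5 κ K τ e P P') (d1 : |coW κ P P' 1| ≤ τ) :
    |coW κ P P' 3 - (fB κ P' - fB κ P)| ≤ CR K * τ := by
  have hK := D.H.K1
  obtain ⟨f0, f1, f2, f3⟩ := frames κ P P'
  refine D.row [(-1 * (2 * (κ * coW κ P P' 2)) + -2 * (κ * P.g 2), coW κ P P' 1),
    (-2 * (κ * P'.g 1 * P.g 1) + 1 * (κ * P.g 1 * P.g 1), coW κ P P' 0)] (by simp) ?_ ?_
  · simp only [List.map_cons, List.map_nil, List.sum_cons, List.sum_nil]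
    unfold Cr544.fB
    rw [f3, f2, f1]; ring
  · simp only [List.forall_mem_cons, List.not_mem_nil, false_implies, implies_true, and_true]
    refine ⟨⟨up4' hK ?_ (mon2 hK (by rw [abs_neg]; norm_num) D.κK (D.H.g 2)), d1.trans D.τe⟩,
      up4' hK (mon3 hK (by rw [abs_neg]; norm_num) D.κK (D.H.g' 1) (D.H.g 1))
        (mon3 hK (by norm_num) D.κK (D.H.g 1) (D.H.g 1)), D.D0⟩
    rw [abs_mul, abs_neg, abs_one, one_mul]
    exact D.D2

/-- backwards: slot `BY` -/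
theorem Dt5.sY {e : ℝ} (D : Dt5 κ K τ e P P') :
    |coW κ P P' 5 - (P'.G 1 - P.G 1)| ≤ CR K * τ := by
  have hK := D.H.K1
  refine D.row [(1, coW κ P P' 5 - dl P P' 1)] (by simp) ?_ ?_
  · simp only [List.map_cons, List.map_nil, List.sum_cons, List.sum_nil]
    have : dl P P' 1 = P'.G 1 - P.G 1 := rfl
    rw [this]; ring
  · simp only [List.forall_mem_cons, List.not_mem_nil, false_implies, implies_true, and_true]
    exact ⟨up4 hK (mon0 hK (by norm_num)), D.e1⟩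

/-- backwards: slot `BB` -/
theorem Dt5.sF {e : ℝ} (D : Dt5 κ K τ e P P') :
    |coW κ P P' 7 - (f5F P' - f5F P) / 2| ≤ CR K * τ := by
  have hK := D.H.K1
  refine D.row [(1, coW κ P P' 7 - dl P P' 3)] (by simp) ?_ ?_
  · simp only [List.map_cons, List.map_nil, List.sum_cons, List.sum_nil]
    have : dl P P' 3 = P'.G 3 - P.G 3 := rfl
    rw [this]; unfold f5F; ring
  · simp only [List.forall_mem_cons, List.not_mem_nil, false_implies, implies_true, and_true]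
    exact ⟨up4 hK (mon0 hK (by norm_num)), D.e3⟩

end Crest.Agent.R136.R5493
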