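import Crest.Agent.R136.LadG2_697

/-!
# R136, thin branch, walls (helper626): the gauged chart on one line

* `mvz κ z e q` : motion of the slot `q` of the correction `e` under the height shift `z`.
* `OwnLaw` : on pairs of `E` on one line the flag slots of wall slope `s` move like `mvz .. e`.
* `OwnLaw.ownz`, `OwnLaw.size'`, `OwnLaw.zero'` : fields of `GauW`.
-/

set_option autoImplicit false
set_option linter.unusedVariables false

open Finset Filter Topology

namespace Crest.Agent.R136.RL626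

open Crest.Agent.R136.Net191
open Crest.Agent.R136.NetW191
open Crest.Agent.R136.PrW464
open Crest.Agent.R136.NatW697
open Crest.Agent.R136.LadW697
open Crest.Agent.R136.LadG697
open Crest.Agent.R136.EvW938
open Crest.Agent.R136.GauW619
open Crest.Agent.R138.Ex926

/-- motion of the slot `q` of the correction `e` under the height shift `z` -/
def mvz (κ z : ℝ) (e : Fin 14 → ℝ) (q : Fin 14) : ℝ := tr κ ![z, 0, 0, 0] e q - e q

theorem hl_wc : ∀ q, ∀ t ∈ tms q, (∀ i ∈ t.hl, i = 0) →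
    wc (Fin.natAdd 4 t.s) = wc (Fin.natAdd 4 q) := by decide

theorem KW_eq_of_wc {θ : Fin 3 → ℝ} {p q : Fin 14}
    (h : wc (Fin.natAdd 4 p) = wc (Fin.natAdd 4 q)) :
    KW θ (Fin.natAdd 4 p) = KW θ (Fin.natAdd 4 q) := by
  have hn : ∀ p : Fin 14, wn (Fin.natAdd 4 p) = 1 := by decide
  unfold KW btW grW
  rw [h, hn p, hn q]
  ring

/-- the correction of wall slope `s` does not move the slots of other wall slopes -/
theorem mvz_zero {θ : Fin 3 → ℝ} {s κ z : ℝ} {e : Fin 14 → ℝ}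
    (he : ∀ p, KW θ (Fin.natAdd 4 p) ≠ s → e p = 0) {q : Fin 14}
    (hq : KW θ (Fin.natAdd 4 q) ≠ s) : mvz κ z e q = 0 := by
  unfold mvz
  rw [tr_tms, he q hq, zero_add, sub_zero]
  have key : ∀ L : List Tm, (∀ t ∈ L, t ∈ tms q) →
      (L.map (Tm.ev κ ![z, 0, 0, 0] e)).sum = 0 := by
    intro L
    induction L with
    | nil => intro _; simp
    | cons a L ih =>
      intro hL
      rw [List.map_cons, List.sum_cons, ih fun t ht => hL t (List.mem_cons_of_mem _ ht), add_zero]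
      have ha := hL a List.mem_cons_self
      by_cases h0 : ∀ i ∈ a.hl, i = 0
      · have h1 : KW θ (Fin.natAdd 4 a.s) ≠ s := by
          rw [KW_eq_of_wc (hl_wc q a ha h0)]; exact hq
        unfold Tm.ev
        rw [he a.s h1, mul_zero]
      · push Not at h0
        obtain ⟨i, hi, hi0⟩ := h0
        have h1 : (a.hl.map ![z, 0, 0, 0]).prod = 0 := by
          rw [List.prod_eq_zero_iff, List.mem_map]
          refine ⟨i, hi, ?_⟩
          fin_cases i
          · exact absurd rfl hi0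
          · rfl
          · rfl
          · rfl
        unfold Tm.ev
        rw [h1, mul_zero, zero_mul]
  exact key _ fun t ht => ht

/-- the natural sides satisfy the walls -/
theorem sides_nat {d : ℝ} (hd : 0 < d) {u : Fin 18 → ℝ} (hu : GrU u) (ζ χ ν : ℝ) :
    SidesW fun k => d ^ grW ζ χ ν k / u k := by
  refine ⟨fun s => (div_pos (Real.rpow_pos_of_pos hd _) (hu.pos s)).le, fun k l hl => ?_⟩
  have e1 : (l.map fun s => d ^ grW ζ χ ν s / u s).prod =
      d ^ (l.map (grW ζ χ ν)).sum / (l.map u).prod := by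
    clear hl
    induction l with
    | nil => simp
    | cons s l ih =>
      simp only [List.map_cons, List.prod_cons, List.sum_cons, ih]
      rw [Real.rpow_add hd]
      field_simp
  rw [e1, grW_list ζ χ ν k l hl, hu.mul k l hl]

/-- **the gauged label on one pair** -/
theorem new_pair {d κ : ℝ} (hd : 0 < d) (hκ : |κ| ≤ 1) {u : Fin 18 → ℝ} (hu : GrU u) {ζ χ ν : ℝ}
    {K τ : ℝ} (hK : 1 ≤ K) (hτ : 0 ≤ τ) (hτ1 : τ ≤ 1) {e : Fin 14 → ℝ} {f f' : FW}
    (he : ∀ p : Fin 14, u (Fin.natAdd 4 p) * |e p| ≤ K * d ^ grW ζ χ ν (Fin.natAdd 4 p))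
    (h0 : |u 0 * coW κ f f' 0| ≤ K * d ^ grW ζ χ ν 0)
    (h1 : ∀ i : Fin 4, i ≠ 0 → |u (Fin.castAdd 14 i) * coW κ f f' (Fin.castAdd 14 i)| ≤
      K * τ * d ^ grW ζ χ ν (Fin.castAdd 14 i)) {q : Fin 14} {E : ℝ}
    (hv : |u (Fin.natAdd 4 q) * coW κ f f' (Fin.natAdd 4 q) -
      u (Fin.natAdd 4 q) * mvz κ (coW κ f f' 0) e q| ≤ E * d ^ grW ζ χ ν (Fin.natAdd 4 q)) :
    |u (Fin.natAdd 4 q) * coW κ (gau κ e f) (gau κ e f') (Fin.natAdd 4 q)| ≤
      (E + 470 * K ^ 7 * τ) * d ^ grW ζ χ ν (Fin.natAdd 4 q) := by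
  have hX := sides_nat hd hu ζ χ ν
  have hdp : ∀ v : ℝ, 0 < d ^ v := fun v => Real.rpow_pos_of_pos hd _
  have hK0 : 0 ≤ K := by linarith
  have conv : ∀ (k : Fin 18) (x C : ℝ), |u k * x| ≤ C * d ^ grW ζ χ ν k →
      |x| ≤ C * (d ^ grW ζ χ ν k / u k) := by
    intro k x C h
    have := hu.pos k
    rw [mul_div_assoc', le_div_iff₀ this, mul_comm]
    rwa [abs_mul, abs_of_pos this] at h
  have e0 : rel κ f.g f'.g 0 = coW κ f f' 0 := (coW_left κ f f' 0).symm
  have hrel : ∀ i : Fin 4, |rel κ f.g f'.g i| ≤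
      K * (d ^ grW ζ χ ν (Fin.castAdd 14 i) / u (Fin.castAdd 14 i)) := by
    intro i
    rw [← coW_left]
    refine conv _ _ _ ?_
    by_cases hi : i = 0
    · subst hi; exact h0
    · refine (h1 i hi).trans ?_
      have := mul_le_mul_of_nonneg_left hτ1 hK0
      rw [mul_one] at this
      exact mul_le_mul_of_nonneg_right this (hdp _).le
  have key := own_gau (κ := κ) (e := e) (f := f) (f' := f')
    (X := fun k => d ^ grW ζ χ ν k / u k) (K := K) (τ := τ) hκ hX hK hτ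
    (fun p => by
      refine conv _ _ _ ?_
      rw [abs_mul, abs_of_pos (hu.pos _)]
      exact he p) (h' := ![coW κ f f' 0, 0, 0, 0]) hrel
    (fun i => by
      have hp := hX.pos (Fin.castAdd 14 i)
      by_cases hi : i = 0
      · subst hi
        have := hrel 0
        rw [e0] at this
        exact this
      · have : (![coW κ f f' 0, 0, 0, 0] : Fin 4 → ℝ) i = 0 := by
          fin_cases i
          · exact absurd rfl hi
          · rfl
          · rfl
          · rfl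
        rw [this, abs_zero]
        exact mul_nonneg hK0 hp)
    (fun i => by
      have hp := hX.pos (Fin.castAdd 14 i)
      by_cases hi : i = 0
      · subst hi
        have : rel κ f.g f'.g 0 - (![coW κ f f' 0, 0, 0, 0] : Fin 4 → ℝ) 0 = 0 := by
          rw [e0]; simp
        rw [this, abs_zero]
        exact mul_nonneg (mul_nonneg hK0 hτ) hp
      · have : (![coW κ f f' 0, 0, 0, 0] : Fin 4 → ℝ) i = 0 := by
          fin_cases i
          · exact absurd rfl hi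
          · rfl
          · rfl
          · rfl
        rw [this, sub_zero, ← coW_left]
        exact conv _ _ _ (h1 i hi))
    (q := q) (E := E * (d ^ grW ζ χ ν (Fin.natAdd 4 q) / u (Fin.natAdd 4 q)))
    (by
      refine conv _ _ _ ?_
      rw [mul_sub]
      exact hv)
  have hp := hu.pos (Fin.natAdd 4 q)
  rw [abs_mul, abs_of_pos hp]
  have h5 := mul_le_mul_of_nonneg_left key hp.le
  refine h5.trans (le_of_eq ?_)
  field_simp

/-- two corrections -/
theorem coW_gau_two (κ : ℝ) (e e' : Fin 14 → ℝ) (f f' : FW) (q : Fin 14) :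
    coW κ (gau κ e f) (gau κ e' f') (Fin.natAdd 4 q) =
      coW κ (gau κ e f) (gau κ e f') (Fin.natAdd 4 q) + (e' q - e q) := by
  rw [coW_right, coW_right, gau_G, gau_G, gau_G, gau_g, gau_g]
  have e1 : f'.G + tr κ (inv κ f'.g) e' - (f.G + tr κ (inv κ f.g) e) =
      (f'.G + tr κ (inv κ f'.g) e - (f.G + tr κ (inv κ f.g) e)) + tr κ (inv κ f'.g) e' -
        tr κ (inv κ f'.g) e := by
    abel
  rw [e1, tr_sub, tr_add, tr_inv, tr_inv, Pi.sub_apply, Pi.add_apply]
  ring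

theorem tr_single_mul (κ ψ : ℝ) (h : Fin 4 → ℝ) (j q : Fin 14) :
    tr κ h (Pi.single j ψ) q = ψ * tr κ h (Pi.single j 1) q := by
  have hs : ∀ p : Fin 14, (Pi.single j ψ : Fin 14 → ℝ) p = ψ * (Pi.single j 1 : Fin 14 → ℝ) p := by
    intro p
    by_cases hp : p = j
    · subst hp; simp
    · simp [Pi.single_eq_of_ne hp]
  rw [tr_tms, tr_tms, mul_add, ← hs q]
  congr 1
  have : ∀ L : List Tm, (L.map (Tm.ev κ h (Pi.single j ψ))).sum =
      ψ * (L.map (Tm.ev κ h (Pi.single j 1))).sum := by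
    intro L
    induction L with
    | nil => simp
    | cons a L ih =>
      rw [List.map_cons, List.sum_cons, List.map_cons, List.sum_cons, ih, mul_add]
      congr 1
      unfold Tm.ev
      rw [hs a.s]
      ring
  exact this _

theorem mvz_single (κ z ψ : ℝ) (j q : Fin 14) : mvz κ z (Pi.single j ψ) q =
    ψ * (tr κ (sh z) (Pi.single j 1) q - (Pi.single j 1 : Fin 14 → ℝ) q) := by
  have e1 : (Pi.single j ψ : Fin 14 → ℝ) q = ψ * (Pi.single j 1 : Fin 14 → ℝ) q := by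
    by_cases hp : q = j
    · subst hp; simp
    · simp [Pi.single_eq_of_ne hp]
  unfold mvz
  rw [tr_single_mul, e1]
  change ψ * tr κ (sh z) _ q - _ = _
  ring

theorem hl_wz : ∀ q, ∀ t ∈ tms q, (∀ i ∈ t.hl, i = 0) →
    wz (Fin.natAdd 4 t.s) < wz (Fin.natAdd 4 q) := by decide

/-- a slot of weight at most the weight of `j` is not moved by the height shift -/
theorem mvz_low {κ z ψ : ℝ} {j q : Fin 14}
    (h : wc (Fin.natAdd 4 j) = wc (Fin.natAdd 4 q) → wz (Fin.natAdd 4 q) ≤ wz (Fin.natAdd 4 j)) :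
    mvz κ z (Pi.single j ψ) q = 0 := by
  unfold mvz
  rw [tr_tms]
  have key : ∀ L : List Tm, (∀ t ∈ L, t ∈ tms q) →
      (L.map (Tm.ev κ ![z, 0, 0, 0] (Pi.single j ψ))).sum = 0 := by
    intro L
    induction L with
    | nil => intro _; simp
    | cons a L ih =>
      intro hL
      rw [List.map_cons, List.sum_cons, ih fun t ht => hL t (List.mem_cons_of_mem _ ht), add_zero]
      have ha := hL a List.mem_cons_self
      by_cases h0 : ∀ i ∈ a.hl, i = 0
      · have h1 : a.s ≠ j := by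
          intro hj
          have h2 := hl_wc q a ha h0
          have h3 := hl_wz q a ha h0
          rw [hj] at h2 h3
          exact absurd (h h2) (not_le.2 h3)
        unfold Tm.ev
        rw [Pi.single_eq_of_ne h1, mul_zero]
      · push Not at h0
        obtain ⟨i, hi, hi0⟩ := h0
        have h1 : (a.hl.map ![z, 0, 0, 0]).prod = 0 := by
          rw [List.prod_eq_zero_iff, List.mem_map]
          refine ⟨i, hi, ?_⟩
          fin_cases i
          · exact absurd rfl hi0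
          · rfl
          · rfl
          · rfl
        unfold Tm.ev
        rw [h1, mul_zero, zero_mul]
  rw [key _ fun t ht => ht]
  ring

/-- **OWN LAW** : pairs of `E` on one line -/
structure OwnLaw (θ : Fin 3 → ℝ) (s : ℝ) (V : Set (Fin 18)) (B B' : Base) (κ : ℕ → ℝ)
    (u : ℕ → Fin 18 → ℝ) (F : ℕ → ℕ × ℝ → FW) (X : ℕ → Fin 18 → ℝ) (R1 : ℝ)
    (E : ℕ → Finset (ℕ × ℝ)) (e : ℕ → ℕ × ℝ → Fin 14 → ℝ) : Prop where
  /-- the correction sits on resonant slots of wall slope `s` -/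
  supp : ∀ n i p, e n i p ≠ 0 → KW θ (Fin.natAdd 4 p) = s ∧ btW θ (Fin.natAdd 4 p) ≤ 0
  /-- natural size -/
  size : ∀ ε : ℝ, 0 < ε → ∀ᶠ n in (U : Filter ℕ), ∀ i ∈ E n, ∀ p : Fin 14,
    u n (Fin.natAdd 4 p) * |e n i p| ≤ B'.d n ^ (-ε) * B.d n ^ natX X n (Fin.natAdd 4 p)
  /-- one correction on every line -/
  same : ∀ᶠ n in (U : Filter ℕ), ∀ i ∈ E n, ∀ j ∈ E n, i.1 = j.1 → ∀ p : Fin 14,
    u n (Fin.natAdd 4 p) * |e n j p - e n i p| ≤ B'.d n ^ R1 * B.d n ^ natX X n (Fin.natAdd 4 p)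
  /-- own box -/
  ownc : ∀ ε : ℝ, 0 < ε → ∀ᶠ n in (U : Filter ℕ), ∀ i ∈ E n, ∀ j ∈ E n, i.1 = j.1 →
    ∀ k, |coU u κ F n i j k| ≤ B.d n ^ natX X n k * B'.d n ^ (ob0 V (20 * R1) k - ε)
  /-- the law -/
  law : ∀ᶠ n in (U : Filter ℕ), ∀ i ∈ E n, ∀ j ∈ E n, i.1 = j.1 → ∀ q : Fin 14,
    KW θ (Fin.natAdd 4 q) = s →
      |coU u κ F n i j (Fin.natAdd 4 q) -
        u n (Fin.natAdd 4 q) * mvz (κ n) (coW (κ n) (F n i) (F n j) 0) (e n i) q| ≤
        B'.d n ^ R1 * B.d n ^ natX X n (Fin.natAdd 4 q)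

section

variable {θ : Fin 3 → ℝ} {s : ℝ} {V : Set (Fin 18)} {B B' : Base} {κ : ℕ → ℝ}
  {u : ℕ → Fin 18 → ℝ} {F : ℕ → ℕ × ℝ → FW} {X : ℕ → Fin 18 → ℝ} {R1 : ℝ}
  {E : ℕ → Finset (ℕ × ℝ)} {e : ℕ → ℕ × ℝ → Fin 14 → ℝ}

/-- field `size` of `GauW` -/
theorem OwnLaw.size' (H : OwnLaw θ s V B B' κ u F X R1 E e) : ∀ ε : ℝ, 0 < ε →
    ∀ᶠ n in (U : Filter ℕ), ∀ i ∈ E n, ∀ p : Fin 14,
      u n (Fin.natAdd 4 p) * |e n i p| ≤ B.d n ^ natX X n (Fin.natAdd 4 p) *
        B'.d n ^ (max 0 (btW θ (Fin.natAdd 4 p)) - ε) := by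
  intro ε hε
  filter_upwards [H.size ε hε] with n hn i hi p
  by_cases h0 : e n i p = 0
  · rw [h0, abs_zero, mul_zero]
    exact mul_nonneg (Real.rpow_nonneg (B.pos n).le _) (Real.rpow_nonneg (B'.pos n).le _)
  · rw [max_eq_left (H.supp n i p h0).2, zero_sub, mul_comm (B.d n ^ _)]
    exact hn i hi p

/-- field `supp` of `GauW` -/
theorem OwnLaw.supp' (H : OwnLaw θ s V B B' κ u F X R1 E e) (hs : s ≠ 1 - θ 0) :
    ∀ n i, e n i 9 = 0 ∧ e n i 12 = 0 ∧ e n i 13 = 0 := by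
  have k9 : KW θ (Fin.natAdd 4 (9 : Fin 14)) = 1 - θ 0 := by
    have e1 : (Fin.natAdd 4 (9 : Fin 14) : Fin 18) = 13 := rfl
    rw [e1]; simp [KW, btW, grW, wz, wc, wn]
  have k12 : KW θ (Fin.natAdd 4 (12 : Fin 14)) = 1 - θ 0 := by
    have e1 : (Fin.natAdd 4 (12 : Fin 14) : Fin 18) = 16 := rfl
    rw [e1]; simp [KW, btW, grW, wz, wc, wn]
  have k13 : KW θ (Fin.natAdd 4 (13 : Fin 14)) = 1 - θ 0 := by
    have e1 : (Fin.natAdd 4 (13 : Fin 14) : Fin 18) = 17 := rfl
    rw [e1]; simp [KW, btW, grW, wz, wc, wn]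
  intro n i
  refine ⟨?_, ?_, ?_⟩
  · by_contra h; exact hs ((H.supp n i _ h).1.symm.trans k9)
  · by_contra h; exact hs ((H.supp n i _ h).1.symm.trans k12)
  · by_contra h; exact hs ((H.supp n i _ h).1.symm.trans k13)

/-- field `ownz` of `GauW` -/
theorem OwnLaw.ownz (H : OwnLaw θ s V B B' κ u F X R1 E e) (hR : 0 < R1)
    (hu : ∀ n, GrU (u n)) (hκ : ∀ n, |κ n| ≤ 1) (hV : ∀ k ∈ V, (4 : Fin 18) ≤ k) :
    ∀ ε : ℝ, 0 < ε → ∀ᶠ n in (U : Filter ℕ), ∀ i ∈ E n, ∀ j ∈ E n, i.1 = j.1 →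
      ∀ k, 4 ≤ k → k ∉ {k | k ∈ V ∧ KW θ k ≠ s} →
        |coU u κ (fG κ e F) n i j k| ≤ B.d n ^ natX X n k * B'.d n ^ (R1 - ε) := by
  intro ε hε
  set ε' : ℝ := min ε R1 / 8 with hε'
  have he0 : 0 < ε' := by positivity
  have he1 : ε' ≤ R1 / 8 := by
    rw [hε']; exact div_le_div_of_nonneg_right (min_le_right _ _) (by norm_num)
  have he2 : ε' ≤ ε / 8 := by
    rw [hε']; exact div_le_div_of_nonneg_right (min_le_left _ _) (by norm_num)
  filter_upwards [H.size ε' he0, H.same, H.ownc ε' he0, H.law,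
    Crest.Agent.R136.Gf356.ev_const_le B' (t := ε / 2) (by positivity) 472]
    with n hsz hsame hown hlaw hc i hi j hj hij k hk4 hkV
  have hdp : ∀ v : ℝ, 0 < B'.d n ^ v := fun v => Real.rpow_pos_of_pos (B'.pos n) _
  have hBp : ∀ v : ℝ, 0 < B.d n ^ v := fun v => Real.rpow_pos_of_pos (B.pos n) _
  have hmono : ∀ {v v' : ℝ}, v ≤ v' → B'.d n ^ v' ≤ B'.d n ^ v := fun {v v'} h =>
    Real.rpow_le_rpow_of_exponent_ge (B'.pos n) (B'.lt n).le h
  obtain ⟨q, rfl⟩ : ∃ q : Fin 14, k = Fin.natAdd 4 q := by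
    have h4 : (4 : ℕ) ≤ k.1 := hk4
    refine ⟨⟨k.1 - 4, by omega⟩, ?_⟩
    ext
    simp only [Fin.natAdd_mk]
    omega
  have hK : 1 ≤ B'.d n ^ (-ε') := by
    have := hmono (v := -ε') (v' := 0) (by linarith)
    rwa [Real.rpow_zero] at this
  have hτ1 : B'.d n ^ (20 * R1) ≤ 1 := by
    have := hmono (v := 0) (v' := 20 * R1) (by linarith)
    rwa [Real.rpow_zero] at this
  have hKτ : B'.d n ^ (-ε') * B'.d n ^ (20 * R1) = B'.d n ^ (20 * R1 - ε') := by
    rw [← Real.rpow_add (B'.pos n)]; congr 1; ring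
  have hnot : ∀ i : Fin 4, i ≠ 0 → ob0 V (20 * R1) (Fin.castAdd 14 i) = 20 * R1 := by
    intro i hi0
    unfold ob0
    rw [if_neg]
    rintro (h | h)
    · apply hi0
      have := congrArg Fin.val h
      ext
      simpa using this
    · have h4 : (4 : ℕ) ≤ (Fin.castAdd 14 i : Fin 18).val := hV _ h
      simp only [Fin.val_castAdd] at h4
      omega
  have hob0 : ob0 V (20 * R1) 0 = 0 := by unfold ob0; rw [if_pos (Or.inl rfl)]
  -- the law on this pair, error `d ^ R1`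
  have hv : |u n (Fin.natAdd 4 q) * coW (κ n) (F n i) (F n j) (Fin.natAdd 4 q) -
      u n (Fin.natAdd 4 q) * mvz (κ n) (coW (κ n) (F n i) (F n j) 0) (e n i) q| ≤
      B'.d n ^ R1 * B.d n ^ grW (X n 0) (X n 1) (X n 17) (Fin.natAdd 4 q) := by
    by_cases hs : KW θ (Fin.natAdd 4 q) = s
    · exact hlaw i hi j hj hij q hs
    · have hqV : Fin.natAdd 4 q ∉ V := fun h => hkV ⟨h, hs⟩
      have h0 : mvz (κ n) (coW (κ n) (F n i) (F n j) 0) (e n i) q = 0 :=
        mvz_zero (fun p hp => by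
          by_contra h
          exact hp (H.supp n i p h).1) hs
      rw [h0, mul_zero, sub_zero]
      have h1 := hown i hi j hj hij (Fin.natAdd 4 q)
      have h2 : ob0 V (20 * R1) (Fin.natAdd 4 q) = 20 * R1 := by
        unfold ob0
        rw [if_neg]
        rintro (h | h)
        · have := congrArg Fin.val h
          simp at this
        · exact hqV h
      rw [h2] at h1
      refine h1.trans ?_
      rw [mul_comm]
      exact mul_le_mul_of_nonneg_right (hmono (by linarith)) (hBp _).le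
  have key := new_pair (d := B.d n) (κ := κ n) (B.pos n) (hκ n) (hu n) (ζ := X n 0) (χ := X n 1)
    (ν := X n 17) (K := B'.d n ^ (-ε')) (τ := B'.d n ^ (20 * R1)) hK (hdp _).le hτ1
    (e := e n i) (f := F n i) (f' := F n j) (fun p => hsz i hi p)
    (by
      have h1 := hown i hi j hj hij 0
      rw [hob0, zero_sub, mul_comm] at h1
      exact h1)
    (fun a ha => by
      have h1 := hown i hi j hj hij (Fin.castAdd 14 a)
      rw [hnot a ha, mul_comm, ← hKτ] at h1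
      exact h1) (q := q) (E := B'.d n ^ R1) hv
  have e1 : coU u κ (fG κ e F) n i j (Fin.natAdd 4 q) = u n (Fin.natAdd 4 q) *
      coW (κ n) (gau (κ n) (e n i) (F n i)) (gau (κ n) (e n i) (F n j)) (Fin.natAdd 4 q) +
        u n (Fin.natAdd 4 q) * (e n j q - e n i q) := by
    unfold coU fG
    rw [coW_gau_two]
    ring
  have hδ : |u n (Fin.natAdd 4 q) * (e n j q - e n i q)| ≤
      B'.d n ^ R1 * B.d n ^ natX X n (Fin.natAdd 4 q) := by
    rw [abs_mul, abs_of_pos ((hu n).pos _)]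
    exact hsame i hi j hj hij q
  rw [e1]
  have h7 : (B'.d n ^ (-ε')) ^ 7 * B'.d n ^ (20 * R1) ≤ B'.d n ^ R1 := by
    rw [← Real.rpow_natCast, ← Real.rpow_mul (B'.pos n).le, ← Real.rpow_add (B'.pos n)]
    refine hmono ?_
    push_cast
    linarith
  have key2 : B'.d n ^ R1 + 470 * (B'.d n ^ (-ε')) ^ 7 * B'.d n ^ (20 * R1) + B'.d n ^ R1 ≤
      B'.d n ^ (R1 - ε) := by
    calc B'.d n ^ R1 + 470 * (B'.d n ^ (-ε')) ^ 7 * B'.d n ^ (20 * R1) + B'.d n ^ R1
        = 2 * B'.d n ^ R1 + 470 * ((B'.d n ^ (-ε')) ^ 7 * B'.d n ^ (20 * R1)) := by ring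
      _ ≤ 2 * B'.d n ^ R1 + 470 * B'.d n ^ R1 := by gcongr
      _ = 472 * B'.d n ^ R1 := by ring
      _ ≤ B'.d n ^ (-(ε / 2)) * B'.d n ^ R1 := mul_le_mul_of_nonneg_right hc (hdp _).le
      _ = B'.d n ^ (R1 - ε / 2) := by rw [← Real.rpow_add (B'.pos n)]; congr 1; ring
      _ ≤ B'.d n ^ (R1 - ε) := hmono (by linarith)
  have h8 := (abs_add_le _ _).trans (add_le_add key hδ)
  refine h8.trans ?_
  have h9 := mul_le_mul_of_nonneg_right key2 (hBp (natX X n (Fin.natAdd 4 q))).le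
  have e9 : natX X n (Fin.natAdd 4 q) = grW (X n 0) (X n 1) (X n 17) (Fin.natAdd 4 q) := rfl
  rw [← e9]
  linarith

end

end Crest.Agent.R136.RL626
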