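import Crest.Agent.R136.RL1_626

/-!
# R136, thin branch, walls (helper626): from the law of a record window to `OwnLaw`

* `drop_gap` : dropped slots are infinitely far inside the natural box.
* `ownLaw_of` : `OwnLaw` from the raw law (size, law on the lines of `E`, own box in `X`).
-/

set_option autoImplicit false
set_option linter.unusedVariables false

open Finset Filter Topology

namespace Crest.Agent.R136.RL626

open Crest.Agent.R136.Net191
open Crest.Agent.R136.NetW191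
open Crest.Agent.R136.PrW464
open Crest.Agent.R136.NatW697
open Crest.Agent.R136.LadW697
open Crest.Agent.R136.LadG697
open Crest.Agent.R136.EvW938
open Crest.Agent.R136.GauW619
open Crest.Agent.R136.AwJ774
open Crest.Agent.R136.K2S774
open Crest.Agent.R136.Qg926
open Crest.Agent.R138.Ex926

/-! ### dropped slots -/

theorem list17 : ∀ k : Fin 18, 4 ≤ k → k ≠ 17 → ∃ l ∈ mlW 17, k ∈ l ∧ (l.filter fun s => s ≠ k).all
    (fun s => decide (s < 4)) ∧ l.count k = 1 := by decide

theorem sum_split (l : List (Fin 18)) (k : Fin 18) (x : Fin 18 → ℝ) : (l.map x).sum =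
    ((l.filter fun s => s ≠ k).map x).sum + (l.count k : ℝ) * x k := by
  induction l with
  | nil => simp
  | cons a l ih =>
    by_cases h : a = k
    · subst h
      rw [List.map_cons, List.sum_cons, ih, List.count_cons_self, List.filter_cons_of_neg (by simp)]
      push_cast
      ring
    · rw [List.map_cons, List.sum_cons, ih, List.count_cons_of_ne h,
        List.filter_cons_of_pos (by simpa using h), List.map_cons, List.sum_cons]
      ring

/-- **dropped slots are infinitely far inside the natural box** -/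
theorem drop_gap {Dr : Set (Fin 18)} (hDr : ∀ k ∈ Dr, 4 ≤ k ∧ k ≠ 17) {X : ℕ → Fin 18 → ℝ}
    {w : ℕ → ℝ} (bas : AwZ146.BasX monW (mA monW (actW Dr)) (mA monW (actW Dr)) X w)
    (nat : ∀ n k, k ∉ Dr → X n k = natX X n k) (R : ℝ) :
    ∀ᶠ n in (U : Filter ℕ), ∀ k ∈ Dr, natX X n k + R * w n ≤ X n k := by
  classical
  have key : ∀ k : Fin 18, ∀ᶠ n in (U : Filter ℕ), k ∈ Dr → natX X n k + R * w n ≤ X n k := by
    intro k
    by_cases hk : k ∈ Dr
    swap
    · exact Eventually.of_forall fun n h => absurd h hk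
    obtain ⟨h4, h17⟩ := hDr k hk
    obtain ⟨l, hl, hkl, hall, hcnt⟩ := list17 k h4 h17
    have he : (fun s => l.count s) ∈ monW.mon 17 :=
      List.mem_toFinset.2 (List.mem_map.2 ⟨l, hl, rfl⟩)
    have hne : (fun s => l.count s) ∉ (mA monW (actW Dr)).mon 17 := by
      intro h
      obtain ⟨h1, h2⟩ := mem_mA.1 h
      have h3 : l.count k = 0 := h2.2 k hk
      omega
    filter_upwards [bas.gap 17 _ he hne R] with n hn _
    have h17D : (17 : Fin 18) ∉ Dr := fun h => (hDr 17 h).2 rfl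
    have e1 : ∑ s, ((l.count s : ℕ) : ℝ) * X n s = (l.map (X n)).sum := (sum_count l (X n)).symm ▸ rfl
    have e2 : ((l.filter fun s => s ≠ k).map (X n)).sum =
        ((l.filter fun s => s ≠ k).map (natX X n)).sum := by
      congr 1
      refine List.map_congr_left fun s hs => ?_
      have h5 : s < 4 := by
        have := List.all_eq_true.1 hall s hs
        simpa using this
      exact nat n s fun h => absurd (hDr s h).1 (not_le.2 h5)
    have e3 := sum_split l k (X n)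
    have e4 := sum_split l k (natX X n)
    have e5 : (l.map (natX X n)).sum = natX X n 17 := grW_list _ _ _ 17 l hl
    rw [hcnt, Nat.cast_one, one_mul] at e3 e4
    rw [nat n 17 h17D] at hn
    change _ ≤ ∑ s, ((l.count s : ℕ) : ℝ) * X n s at hn
    rw [e1, e3, e2] at hn
    linarith
  have := (Filter.eventually_all (l := (U : Filter ℕ))).2 key
  exact this

/-- sides of a record window: dropped slots are smaller than every power -/
theorem side_le {Dr : Set (Fin 18)} (hDr : ∀ k ∈ Dr, 4 ≤ k ∧ k ≠ 17) {B B' : Base}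
    {X : ℕ → Fin 18 → ℝ} {w : ℕ → ℝ}
    (bas : AwZ146.BasX monW (mA monW (actW Dr)) (mA monW (actW Dr)) X w)
    (nat : ∀ n k, k ∉ Dr → X n k = natX X n k) (hb : ∀ n, B'.d n = B.d n ^ w n) {R : ℝ} :
    ∀ᶠ n in (U : Filter ℕ), ∀ k ∈ Dr, B.d n ^ X n k ≤ B.d n ^ natX X n k * B'.d n ^ R := by
  filter_upwards [drop_gap hDr bas nat R] with n hn k hk
  rw [hb, ← Real.rpow_mul (B.pos n).le, ← Real.rpow_add (B.pos n)]
  refine Real.rpow_le_rpow_of_exponent_ge (B.pos n) (B.lt n).le ?_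
  rw [mul_comm (w n)]
  exact hn k hk

/-! ### the law -/

variable {θ : Fin 3 → ℝ} {s : ℝ} {V Dr : Set (Fin 18)} {B B' : Base} {κ : ℕ → ℝ}
  {u : ℕ → Fin 18 → ℝ} {F : ℕ → ℕ × ℝ → FW} {X : ℕ → Fin 18 → ℝ} {w : ℕ → ℝ} {R1 : ℝ}
  {E : ℕ → Finset (ℕ × ℝ)}

/-- a slot of rate `≤ 0` of the wall is not moved by a gauge of the slot of rate `0` -/
theorem mvz_rate {κ z ψ : ℝ} {j q : Fin 14} (hj : KW θ (Fin.natAdd 4 j) = s)
    (hj0 : btW θ (Fin.natAdd 4 j) = 0) (hq : KW θ (Fin.natAdd 4 q) = s)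
    (hq0 : btW θ (Fin.natAdd 4 q) ≤ 0) : mvz κ z (Pi.single j ψ) q = 0 := by
  refine mvz_low fun _ => ?_
  have h1 : ((wz (Fin.natAdd 4 q) : ℤ) : ℝ) ≤ ((wz (Fin.natAdd 4 j) : ℤ) : ℝ) := by
    unfold KW at hj hq
    linarith
  exact_mod_cast h1

/-- **`OwnLaw` from the raw law** -/
theorem ownLaw_of {j : Fin 14} {Vs : Finset (Fin 14)} {e0 : ℕ → ℕ × ℝ → ℝ} (hR : 0 < R1)
    {K C0 : ℝ} (hK : 20 * R1 ≤ K) (hu : ∀ n, GrU (u n))
    (hDr : ∀ k ∈ Dr, 4 ≤ k ∧ k ≠ 17)
    (bas : AwZ146.BasX monW (mA monW (actW Dr)) (mA monW (actW Dr)) X w)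
    (nat : ∀ n k, k ∉ Dr → X n k = natX X n k) (hb : ∀ n, B'.d n = B.d n ^ w n)
    (hV : ∀ k ∈ V, 4 ≤ k ∧ 0 < btW θ k) (hVD : ∀ k ∈ V, k ∉ Dr)
    (hj : KW θ (Fin.natAdd 4 j) = s) (hj0 : btW θ (Fin.natAdd 4 j) = 0)
    (hVs : ∀ q : Fin 14, KW θ (Fin.natAdd 4 q) = s → 0 < btW θ (Fin.natAdd 4 q) → q ∈ Vs)
    (hsize : ∀ ε : ℝ, 0 < ε → ∀ᶠ n in (U : Filter ℕ), ∀ i ∈ E n,
      u n (Fin.natAdd 4 j) * |e0 n i| ≤ B'.d n ^ (-ε) * B.d n ^ natX X n (Fin.natAdd 4 j))
    (hlaw : ∀ᶠ n in (U : Filter ℕ), ∀ i ∈ E n, ∀ i' ∈ E n, i.1 = i'.1 →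
      u n (Fin.natAdd 4 j) * |e0 n i' - e0 n i| ≤ B'.d n ^ R1 * B.d n ^ natX X n (Fin.natAdd 4 j) ∧
      ∀ q ∈ Vs, u n (Fin.natAdd 4 q) * |coW (κ n) (F n i) (F n i') (Fin.natAdd 4 q) -
        e0 n i * (tr (κ n) (sh (coW (κ n) (F n i) (F n i') 0)) (Pi.single j 1) q -
          (Pi.single j 1 : Fin 14 → ℝ) q)| ≤ B'.d n ^ R1 * B.d n ^ natX X n (Fin.natAdd 4 q))
    (hown : ∀ᶠ n in (U : Filter ℕ), ∀ i ∈ E n, ∀ i' ∈ E n, i.1 = i'.1 →
      ∀ k, |coU u κ F n i i' k| ≤ C0 * (B.d n ^ X n k * B'.d n ^ (ob0 V K k))) :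
    OwnLaw θ s V B B' κ u F X R1 E (fun n i => Pi.single j (e0 n i)) := by
  have hdp : ∀ (n : ℕ) (v : ℝ), 0 < B'.d n ^ v := fun n v => Real.rpow_pos_of_pos (B'.pos n) _
  have hBp : ∀ (n : ℕ) (v : ℝ), 0 < B.d n ^ v := fun n v => Real.rpow_pos_of_pos (B.pos n) _
  have hmono : ∀ (n : ℕ) {v v' : ℝ}, v ≤ v' → B'.d n ^ v' ≤ B'.d n ^ v := fun n {v v'} h =>
    Real.rpow_le_rpow_of_exponent_ge (B'.pos n) (B'.lt n).le h
  have hownc : ∀ ε : ℝ, 0 < ε → ∀ᶠ n in (U : Filter ℕ), ∀ i ∈ E n, ∀ j ∈ E n, i.1 = j.1 →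
      ∀ k, |coU u κ F n i j k| ≤ B.d n ^ natX X n k * B'.d n ^ (ob0 V (20 * R1) k - ε) := by
    intro ε hε
    filter_upwards [hown, side_le (B := B) (B' := B') hDr bas nat hb (R := 20 * R1),
      Crest.Agent.R136.Gf356.ev_const_le B' (t := ε) hε C0] with n h1 h2 h3 i hi i' hi' hii k
    have hob : ob0 V (20 * R1) k ≤ ob0 V K k := by
      unfold ob0
      split_ifs
      · exact le_rfl
      · exact hK
    have hob0 : 0 ≤ ob0 V K k := by
      unfold ob0
      split_ifs
      · exact le_rfl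
      · linarith
    have h4 : C0 * (B.d n ^ X n k * B'.d n ^ (ob0 V K k)) ≤
        B'.d n ^ (-ε) * (B.d n ^ X n k * B'.d n ^ (ob0 V K k)) :=
      mul_le_mul_of_nonneg_right h3 (mul_pos (hBp n _) (hdp n _)).le
    have h5 : B.d n ^ X n k * B'.d n ^ (ob0 V K k) ≤
        B.d n ^ natX X n k * B'.d n ^ (ob0 V (20 * R1) k) := by
      by_cases hk : k ∈ Dr
      · have e1 : ob0 V (20 * R1) k = 20 * R1 := by
          unfold ob0
          rw [if_neg]
          rintro (h | h)
          · have := (hDr k hk).1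
            rw [h] at this
            exact absurd this (by decide)
          · exact hVD k h hk
        rw [e1]
        have h6 : B'.d n ^ (ob0 V K k) ≤ 1 := by
          have := hmono n hob0
          rwa [Real.rpow_zero] at this
        have h7 := mul_le_mul_of_nonneg_left h6 (hBp n (X n k)).le
        rw [mul_one] at h7
        exact h7.trans (h2 k hk)
      · rw [nat n k hk]
        exact mul_le_mul_of_nonneg_left (hmono n hob) (hBp n _).le
    have h6 := mul_le_mul_of_nonneg_left h5 (hdp n (-ε)).le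
    have h7 : B'.d n ^ (-ε) * B'.d n ^ (ob0 V (20 * R1) k) = B'.d n ^ (ob0 V (20 * R1) k - ε) := by
      rw [← Real.rpow_add (B'.pos n)]; congr 1; ring
    calc |coU u κ F n i i' k| ≤ _ := h1 i hi i' hi' hii k
      _ ≤ _ := h4
      _ ≤ _ := h6
      _ = B.d n ^ natX X n k * (B'.d n ^ (-ε) * B'.d n ^ (ob0 V (20 * R1) k)) := by ring
      _ = _ := by rw [h7]
  refine ⟨?_, ?_, ?_, hownc, ?_⟩
  · intro n i p hp
    by_cases h : p = j
    · subst h
      exact ⟨hj, hj0.le⟩
    · exact absurd (Pi.single_eq_of_ne h _) hp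
  · intro ε hε
    filter_upwards [hsize ε hε] with n hn i hi p
    by_cases h : p = j
    · subst h
      simp only [Pi.single_eq_same]
      exact hn i hi
    · simp only [Pi.single_eq_of_ne h, abs_zero, mul_zero]
      exact (mul_pos (hdp n _) (hBp n _)).le
  · filter_upwards [hlaw] with n hn i hi i' hi' hii p
    by_cases h : p = j
    · subst h
      simp only [Pi.single_eq_same]
      exact (hn i hi i' hi' hii).1
    · simp only [Pi.single_eq_of_ne h, sub_zero, abs_zero, mul_zero]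
      exact (mul_pos (hdp n _) (hBp n _)).le
  · filter_upwards [hlaw, hownc R1 hR] with n hn hn2 i hi i' hi' hii q hq
    by_cases hqV : q ∈ Vs
    · have h1 := (hn i hi i' hi' hii).2 q hqV
      rw [mvz_single]
      have e1 : coU u κ F n i i' (Fin.natAdd 4 q) - u n (Fin.natAdd 4 q) *
          (e0 n i * (tr (κ n) (sh (coW (κ n) (F n i) (F n i') 0)) (Pi.single j 1) q -
            (Pi.single j 1 : Fin 14 → ℝ) q)) = u n (Fin.natAdd 4 q) *
          (coW (κ n) (F n i) (F n i') (Fin.natAdd 4 q) -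
            e0 n i * (tr (κ n) (sh (coW (κ n) (F n i) (F n i') 0)) (Pi.single j 1) q -
              (Pi.single j 1 : Fin 14 → ℝ) q)) := by
        unfold coU; ring
      rw [e1, abs_mul, abs_of_pos ((hu n).pos _)]
      exact h1
    · have hq0 : btW θ (Fin.natAdd 4 q) ≤ 0 := by
        by_contra h
        exact hqV (hVs q hq (not_le.1 h))
      rw [mvz_rate hj hj0 hq hq0, mul_zero, sub_zero]
      have h1 := hn2 i hi i' hi' hii (Fin.natAdd 4 q)
      have e1 : ob0 V (20 * R1) (Fin.natAdd 4 q) = 20 * R1 := by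
        unfold ob0
        rw [if_neg]
        rintro (h | h)
        · have := congrArg Fin.val h
          simp at this
        · exact absurd (hV _ h).2 (not_lt.2 hq0)
      rw [e1] at h1
      refine h1.trans ?_
      rw [mul_comm]
      exact mul_le_mul_of_nonneg_right (hmono n (by linarith)) (hBp n _).le

end Crest.Agent.R136.RL626
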