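import Crest.Agent.R136.LadG2_697
import Crest.Agent.R136.NetW6_191

/-!
# R136, thin branch, resonant walls (helper66): hand-over of the window chain

* `RecLaw` : record window of a stage, labels `gl` of the interior classes, constants `ψ`, and the
  law of the own motion of the slots `Tj` on pairs of incidences of one line with the same label.
-/

set_option autoImplicit false
set_option linter.unusedVariables false

open Finset Filter Topology

namespace Crest.Agent.R136.RL66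

open Crest.Agent.R136.Net191
open Crest.Agent.R136.NetW191
open Crest.Agent.R136.PrW464
open Crest.Agent.R136.NatW697
open Crest.Agent.R136.LadW697
open Crest.Agent.R136.LadG697
open Crest.Agent.R136.Top484
open Crest.Agent.R136.NatT550
open Crest.Agent.R136.ThS830
open Crest.Agent.R136.LadT830
open Crest.Agent.R136.Zpr779
open Crest.Agent.R136.Qg926
open Crest.Agent.R136.EvW938
open Crest.Agent.R136.GauW619
open Crest.Agent.R136.AwJ774
open Crest.Agent.R136.K2S774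
open Crest.Agent.R138.Ex926

/-- **hand-over** : `gl n i` = label of the interior class of `i` (any type), `ψ` = constant of the
law, `j` = slot of rate `0`, `Tj` = the slots of the wall with positive rate, `K` = precision -/
structure RecLaw (θ : Fin 3 → ℝ) (g : ℝ) (q : Fin 3 → ℝ) (V Dr : Set (Fin 18))
    (P : Set (Fin 18 → ℝ)) (ν own : (Fin 18 → ℝ) → ℝ) (r0 : Fin 18 → ℝ)
    (B B' : Base) (I0 J : ℕ → Finset (ℕ × ℝ)) (κ : ℕ → ℝ) (u : ℕ → Fin 18 → ℝ)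
    (F : ℕ → ℕ × ℝ → FW) (X : ℕ → Fin 18 → ℝ) (w Tn To : ℕ → ℝ)
    (lam lo : (Fin 18 → ℝ) → ℝ) (j : Fin 14) (Tj : Finset (Fin 14)) (γ : Type)
    [DecidableEq γ] (gl : ℕ → ℕ × ℝ → γ) (ψ : ℕ → γ → ℝ) (K : ℝ) : Prop where
  iw : IW B B' I0 J κ u F X w Dr Tn To lam lo
  st : StD P ν own r0 θ g q V Dr lam lo
  /-- D-max for all gauges (literal of `GauW`) -/
  gd : ∃ C : ℝ, 0 < C ∧ ∀ d ∈ QdW θ, ∀ K : ℝ, 1 ≤ K → ∀ ε : ℝ, 0 < ε → ∀ᶠ n in (U : Filter ℕ),
    ∀ e' : ℕ × ℝ → Fin 14 → ℝ,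
      (∀ j ∈ J n, (e' j 9 = 0 ∧ e' j 12 = 0 ∧ e' j 13 = 0) ∧
        ∀ k, u n (Fin.natAdd 4 k) * |e' j k| ≤ B.d n ^ (-C)) →
      ∀ i ∈ J n, ∀ G ⊆ J n, (∀ j ∈ G, ∀ k, |u n k * coW (κ n) (gau (κ n) (e' i) (F n i))
          (gau (κ n) (e' j) (F n j)) k| ≤ K * (B.d n ^ natX X n k * B'.d n ^ d k)) →
        (G.card : ℝ) ≤ Tn n * B'.d n ^ (-(DlW g q d + ε))
  /-- few interior labels on an own record class -/
  few : ∀ ε : ℝ, 0 < ε → ∀ᶠ n in (U : Filter ℕ), ∀ i ∈ J n,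
    (((cls (J n) (zolb B I0 (coU u κ F) monW 67 X w n 0) i).image (gl n)).card : ℝ) ≤
      B'.d n ^ (-ε)
  size : ∀ ε : ℝ, 0 < ε → ∀ᶠ n in (U : Filter ℕ), ∀ i ∈ J n,
    u n (Fin.natAdd 4 j) * |ψ n (gl n i)| ≤
      B'.d n ^ (-ε) * B.d n ^ natX X n (Fin.natAdd 4 j)
  /-- the law, on own pairs only -/
  law : ∀ ε : ℝ, 0 < ε → ∀ᶠ n in (U : Filter ℕ), ∀ i ∈ J n, ∀ i' ∈ J n, i.1 = i'.1 →
    gl n i = gl n i' → ∀ p ∈ Tj, u n (Fin.natAdd 4 p) *
      |coW (κ n) (F n i) (F n i') (Fin.natAdd 4 p) - ψ n (gl n i) *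
        tr (κ n) (sh (coW (κ n) (F n i) (F n i') 0)) (Pi.single j 1) p| ≤
      B'.d n ^ (K - ε) * B.d n ^ natX X n (Fin.natAdd 4 p)

end Crest.Agent.R136.RL66
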