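import Crest.Agent.R136.OwW4_831
import Crest.Agent.R136.LadG2_697

/-!
# R136, thin branch (helper66): D-max for all gauges at record windows

* `GdU` : the D-max bound for all gauges at a window, uniformly on bounded sets of boxes.
* `GdU.gd` : literal of `GauW.gd`; `GdU.sub` : dense parts; **`GdU.zoom`** : zoom at record points;
* **`gdU_stage`** : the windows of a stage of a `ZW` (from 831's `ZW.gd_unif`).
-/

set_option autoImplicit false
set_option linter.unusedVariables false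

open Finset Filter Topology

namespace Crest.Agent.R136.RL66

open Crest.Agent.R136.Net191
open Crest.Agent.R136.NetW191
open Crest.Agent.R136.PrW464
open Crest.Agent.R136.NatW697
open Crest.Agent.R136.LadW697
open Crest.Agent.R136.LadG697
open Crest.Agent.R136.ThS830
open Crest.Agent.R136.Zpr779
open Crest.Agent.R136.Qg926
open Crest.Agent.R136.EvW938
open Crest.Agent.R136.GauW619
open Crest.Agent.R136.AwJ774
open Crest.Agent.R136.K2S774
open Crest.Agent.R136.OwW831 (GdAt GdAt.mono)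
open Crest.Agent.R138.Ex926

section

variable {θ : Fin 3 → ℝ} {g : ℝ} {q : Fin 3 → ℝ} {B B' : Base} {I0 J J' : ℕ → Finset (ℕ × ℝ)}
  {κ : ℕ → ℝ} {u : ℕ → Fin 18 → ℝ} {F : ℕ → ℕ × ℝ → FW} {X : ℕ → Fin 18 → ℝ} {w Tn : ℕ → ℝ}
  {C : ℝ}

/-- **D-max for all gauges at a window**, uniformly on bounded sets -/
def GdU (θ : Fin 3 → ℝ) (g : ℝ) (q : Fin 3 → ℝ) (C : ℝ) (B B' : Base)
    (J : ℕ → Finset (ℕ × ℝ)) (κ : ℕ → ℝ) (u : ℕ → Fin 18 → ℝ) (F : ℕ → ℕ × ℝ → FW)
    (X : ℕ → Fin 18 → ℝ) (Tn : ℕ → ℝ) : Prop :=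
  ∀ R K ε : ℝ, 1 ≤ K → 0 < ε → ∀ᶠ n in (U : Filter ℕ), ∀ d ∈ QdW θ, ‖d‖ ≤ R →
    GdAt B B' J κ u F (natX X) Tn C K n d (DlW g q d + ε)

/-- literal of `GauW.gd` -/
theorem GdU.gd (H : GdU θ g q C B B' J κ u F X Tn) :
    ∀ d ∈ QdW θ, ∀ K : ℝ, 1 ≤ K → ∀ ε : ℝ, 0 < ε → ∀ᶠ n in (U : Filter ℕ),
      ∀ e' : ℕ × ℝ → Fin 14 → ℝ,
        (∀ j ∈ J n, (e' j 9 = 0 ∧ e' j 12 = 0 ∧ e' j 13 = 0) ∧
          ∀ k, u n (Fin.natAdd 4 k) * |e' j k| ≤ B.d n ^ (-C)) →
        ∀ i ∈ J n, ∀ G ⊆ J n, (∀ j ∈ G, ∀ k, |u n k * coW (κ n) (gau (κ n) (e' i) (F n i))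
            (gau (κ n) (e' j) (F n j)) k| ≤ K * (B.d n ^ natX X n k * B'.d n ^ d k)) →
          (G.card : ℝ) ≤ Tn n * B'.d n ^ (-(DlW g q d + ε)) :=
  fun d hd K hK ε hε => (H ‖d‖ K ε hK hε).mono fun n hn => hn d hd le_rfl

/-- subsets -/
theorem gdAt_sub {K : ℝ} {n : ℕ} {x : Fin 18 → ℝ} {E : ℝ} (hs : J' n ⊆ J n)
    (h : GdAt B B' J κ u F X Tn C K n x E) : GdAt B B' J' κ u F X Tn C K n x E := by
  classical
  intro e' he' i hi G hG hbox
  set e2 : ℕ × ℝ → Fin 14 → ℝ := fun j => if j ∈ J' n then e' j else 0 with he2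
  have h1 : ∀ j ∈ J' n, e2 j = e' j := fun j hj => if_pos hj
  refine h e2 (fun j hj => ?_) i (hs hi) G (hG.trans hs) (fun j hj k => ?_)
  · by_cases hj' : j ∈ J' n
    · rw [h1 j hj']; exact he' j hj'
    · have h2 : e2 j = 0 := if_neg hj'
      rw [h2]
      refine ⟨⟨rfl, rfl, rfl⟩, fun k => ?_⟩
      rw [Pi.zero_apply, abs_zero, mul_zero]
      exact (Real.rpow_pos_of_pos (B.pos n) _).le
  · rw [h1 i hi, h1 j (hG hj)]
    exact hbox j hj k

theorem GdU.sub (H : GdU θ g q C B B' J κ u F X Tn) (hs : ∀ᶠ n in (U : Filter ℕ), J' n ⊆ J n) :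
    GdU θ g q C B B' J' κ u F X Tn := fun R K ε hK hε => by
  filter_upwards [H R K ε hK hε, hs] with n h1 h2 d hd hdR
  exact gdAt_sub h2 (h1 d hd hdR)

/-- the normalisation may be changed eventually -/
theorem GdU.congrT {Tn' : ℕ → ℝ} (H : GdU θ g q C B B' J κ u F X Tn)
    (h : ∀ᶠ n in (U : Filter ℕ), Tn' n = Tn n) : GdU θ g q C B B' J κ u F X Tn' :=
  fun R K ε hK hε => by
    filter_upwards [H R K ε hK hε, h] with n h1 h2 d hd hdR e he i hi G hG hb
    rw [h2]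
    exact h1 d hd hdR e he i hi G hG hb

theorem btW_zero (θ : Fin 3 → ℝ) : btW θ 0 = 1 := by simp [btW, grW, wz, wc, wn]
theorem btW_one (θ : Fin 3 → ℝ) : btW θ 1 = -θ 1 := by simp [btW, grW, wz, wc, wn]

/-- natural completion of a shifted base -/
theorem natX_add {r : Fin 18 → ℝ} {t s : ℝ} (h0 : r 0 = t * btW θ 0) (h1 : r 1 = t * btW θ 1)
    (h17 : r 17 = t * btW θ 17) (n : ℕ) (k : Fin 18) {X' : ℕ → Fin 18 → ℝ}
    (hX : X' n = X n + s • r) : natX X' n k = natX X n k + s * (t * btW θ k) := by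
  unfold natX
  rw [hX]
  simp only [Pi.add_apply, Pi.smul_apply, smul_eq_mul, h0, h1, h17, btW_zero, btW_one, btW17]
  simp only [grW, btW]
  ring

/-- **zoom at record points** -/
theorem GdU.zoom (H : GdU θ g q C B B' J κ u F X Tn) (hbase : ∀ n, B'.d n = B.d n ^ w n)
    {r : ℕ → Fin 18 → ℝ} {t : ℕ → ℝ} {S : ℝ} (ht : ∀ l, |t l| ≤ S)
    (hr : ∀ l, r l 0 = t l * btW θ 0 ∧ r l 1 = t l * btW θ 1 ∧ r l 17 = t l * btW θ 17)
    {h : ℕ → ℝ} (hpos : ∀ l, 0 < h l) :
    ∃ kg : ℕ → ℕ, Tendsto kg U atTop ∧ ∀ k' : ℕ → ℕ, Tendsto k' U atTop →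
      (∀ᶠ n in (U : Filter ℕ), k' n ≤ kg n) → ∀ B'' : Base,
        (∀ n, B''.d n = B'.d n ^ h (k' n)) →
        GdU θ g q C B B'' J κ u F (fun n => X n + w n • r (k' n))
          (fun n => Tn n * B'.d n ^ (-(t (k' n) * DlW g q (btW θ)))) := by
  obtain ⟨kg, hkg, hP⟩ := exists_diag (fun l n => ∀ d ∈ QdW θ,
      ‖d‖ ≤ S * ‖btW θ‖ + h l * l →
      GdAt B B' J κ u F (natX X) Tn C (l + 1) n d (DlW g q d + h l / ((l : ℝ) + 1)))
    (fun l => H (S * ‖btW θ‖ + h l * l) (l + 1) (h l / ((l : ℝ) + 1))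
      (by have : (0 : ℝ) ≤ l := Nat.cast_nonneg _
          linarith)
      (div_pos (hpos l) (by positivity)))
  refine ⟨kg, hkg, fun k' hk' hle B'' hB'' R K ε hK hε => ?_⟩
  obtain ⟨N, hN⟩ := exists_nat_gt (max |R| (max K (1 / ε)))
  filter_upwards [hP, hle, hk'.eventually (eventually_ge_atTop N)] with n h1 h2 h3 d hd hdR e he i
    hi G hG hbox
  set l := k' n with hl
  have hNl : (N : ℝ) ≤ l := by exact_mod_cast h3
  have m1 : |R| < (l : ℝ) := ((le_max_left _ _).trans_lt hN).trans_le hNl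
  have m2 : max K (1 / ε) < (l : ℝ) := ((le_max_right _ _).trans_lt hN).trans_le hNl
  have hR : R ≤ l := (le_abs_self _).trans m1.le
  have hKl : K ≤ l := (le_max_left _ _).trans m2.le
  have hεl : 1 / ε < l := (le_max_right _ _).trans_lt m2
  have hh := hpos l
  have hxm : t l • btW θ + h l • d ∈ QdW θ := rec_add_mem hd (t l) hh.le
  have hxn : ‖t l • btW θ + h l • d‖ ≤ S * ‖btW θ‖ + h l * l := by
    refine (norm_add_le _ _).trans (add_le_add ?_ ?_)
    · rw [norm_smul, Real.norm_eq_abs]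
      exact mul_le_mul_of_nonneg_right (ht l) (norm_nonneg _)
    · rw [norm_smul, Real.norm_of_nonneg hh.le]
      exact mul_le_mul_of_nonneg_left (hdR.trans hR) hh.le
  have h4 := h1 l h2 _ hxm hxn e he i hi G hG
    (fun j hj k => by
      refine (hbox j hj k).trans ?_
      have e1 := natX_add (X := X) (X' := fun n => X n + w n • r (k' n)) (s := w n) (hr l).1
        (hr l).2.1 (hr l).2.2 n k rfl
      rw [e1]
      have e2 : B.d n ^ (natX X n k + w n * (t l * btW θ k)) * B''.d n ^ d k =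
          B.d n ^ natX X n k * B'.d n ^ (t l • btW θ + h l • d) k := by
        rw [Real.rpow_add (B.pos n), Real.rpow_mul (B.pos n).le, ← hbase n, hB'',
          ← Real.rpow_mul (B'.pos n).le, mul_assoc, ← Real.rpow_add (B'.pos n)]
        rfl
      rw [e2]
      refine mul_le_mul_of_nonneg_right (by linarith) ?_
      exact (mul_pos (Real.rpow_pos_of_pos (B.pos n) _) (Real.rpow_pos_of_pos (B'.pos n) _)).le)
  refine h4.trans ?_
  have hT : 0 ≤ Tn n ∨ Tn n < 0 := le_or_gt 0 (Tn n)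
  have e3 : Tn n * B'.d n ^ (-(t l * DlW g q (btW θ))) * B''.d n ^ (-(DlW g q d + ε)) =
      Tn n * B'.d n ^ (-(t l * DlW g q (btW θ) + h l * (DlW g q d + ε))) := by
    rw [hB'', ← Real.rpow_mul (B'.pos n).le, mul_assoc, ← Real.rpow_add (B'.pos n)]
    congr 2; ring
  have e4 : DlW g q (t l • btW θ + h l • d) = t l * DlW g q (btW θ) + h l * DlW g q d := by
    rw [map_add, map_smul, map_smul, smul_eq_mul, smul_eq_mul]
  rcases hT with hT | hT
  · show _ ≤ Tn n * B'.d n ^ (-(t l * DlW g q (btW θ))) * B''.d n ^ (-(DlW g q d + ε))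
    rw [e3, e4]
    refine mul_le_mul_of_nonneg_left ?_ hT
    refine Real.rpow_le_rpow_of_exponent_ge (B'.pos n) (B'.lt n).le ?_
    have h5 : 1 / ((l : ℝ) + 1) ≤ ε := by
      rw [div_le_iff₀ (by positivity)]
      rw [div_lt_iff₀ hε] at hεl
      nlinarith
    have h6 : h l / ((l : ℝ) + 1) ≤ h l * ε := by
      rw [div_eq_mul_one_div]
      exact mul_le_mul_of_nonneg_left h5 hh.le
    nlinarith
  · -- impossible: a cardinality is not negative
    exfalso
    have h7 : (G.card : ℝ) < 0 := h4.trans_lt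
      (mul_neg_of_neg_of_pos hT (Real.rpow_pos_of_pos (B'.pos n) _))
    exact absurd h7 (not_lt.2 (Nat.cast_nonneg _))

end

/-! ### the first windows -/

section

variable {θ : Fin 3 → ℝ} {g : ℝ} {q : Fin 3 → ℝ} {V T : Set (Fin 18)} {w0 R T0 : ℝ}
  {B B' : Base} {I0 I : ℕ → Finset (ℕ × ℝ)} {κ : ℕ → ℝ} {u : ℕ → Fin 18 → ℝ}
  {F : ℕ → ℕ × ℝ → FW} {X : ℕ → Fin 18 → ℝ} {w : ℕ → ℝ} {Tn To : ℕ → ℝ}
  {PD : Set (Fin 18 → ℝ)} {ν own : (Fin 18 → ℝ) → ℝ} {c₀ C : ℝ}

/-- margins of the record path -/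
theorem path_le (big : BigW θ w0 R T0) {v : ℝ} (h0 : 0 ≤ v) (h1 : v ≤ 1) (k : Fin 18) :
    pathW θ w0 v k ≤ R - 1 := by
  have a0 := big.bd h0 h1 0
  have a1 := big.bd h0 h1 1
  have b0 := big.T0
  have b1 := big.w0T
  have b2 := big.R0
  exact grW_le (by linarith) (by linarith) (by linarith) (by linarith) k

/-- record points plus small `d ∈ QdW` are legal -/
theorem path_add_leg (big : BigW θ w0 R T0) {v : ℝ} (h0 : 0 ≤ v) (h1 : v ≤ 1) {d : Fin 18 → ℝ}
    (hd : d ∈ QdW θ) {h : ℝ} (hh : 0 ≤ h) (hs : h * ‖d‖ ≤ 1) :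
    pathW θ w0 v + h • d ∈ Leg monW R := by
  have hab : ∀ k, |h * d k| ≤ 1 := fun k => by
    rw [abs_mul, abs_of_nonneg hh]
    refine (mul_le_mul_of_nonneg_left ?_ hh).trans hs
    have := norm_le_pi_norm d k
    rwa [Real.norm_eq_abs] at this
  refine ⟨legal_ofLists.2 ⟨fun k => ?_, fun k l hl => ?_⟩, fun k => ?_⟩
  · have h2 := big.path_ge h0 h1 k
    have h3 := (abs_le.1 (hab k)).1
    simp only [Pi.add_apply, Pi.smul_apply, smul_eq_mul]
    linarith
  · have h2 : d k ≤ (l.map d).sum := mem_cnW0.1 hd.1 k l hl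
    have h3 : (l.map (pathW θ w0 v)).sum = pathW θ w0 v k := grW_list _ _ _ k l hl
    have key : ∀ l : List (Fin 18), (l.map (pathW θ w0 v + h • d)).sum =
        (l.map (pathW θ w0 v)).sum + h * (l.map d).sum := by
      intro l
      induction l with
      | nil => simp
      | cons a l ih =>
        simp only [List.map_cons, List.sum_cons, ih, Pi.add_apply, Pi.smul_apply, smul_eq_mul]
        ring
    rw [key, h3]
    simp only [Pi.add_apply, Pi.smul_apply, smul_eq_mul]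
    have := mul_le_mul_of_nonneg_left h2 hh
    linarith
  · have h2 := path_le big h0 h1 k
    have h3 := (abs_le.1 (hab k)).2
    simp only [Pi.add_apply, Pi.smul_apply, smul_eq_mul]
    linarith

/-- all walls are equalities: the exponents are natural -/
theorem nat_unique {Y : Fin 18 → ℝ} (h : ∀ k, ∀ l ∈ mlW k, Y k = (l.map Y).sum) (k : Fin 18) :
    grW (Y 0) (Y 1) (Y 17) k = Y k := by
  have h2 : Y 2 = Y 1 + Y 0 := by simpa using h 2 [1, 0] (by decide)
  have h3 : Y 3 = Y 1 + Y 2 := by simpa using h 3 [1, 2] (by decide)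
  have a4 : Y 17 = Y 2 + (Y 2 + (Y 2 + (Y 2 + Y 4))) := by
    simpa using h 17 [2, 2, 2, 2, 4] (by decide)
  have a5 : Y 17 = Y 2 + (Y 2 + (Y 3 + Y 5)) := by simpa using h 17 [2, 2, 3, 5] (by decide)
  have a6 : Y 17 = Y 2 + (Y 2 + (Y 2 + Y 6)) := by simpa using h 17 [2, 2, 2, 6] (by decide)
  have a7 : Y 17 = Y 3 + (Y 3 + Y 7) := by simpa using h 17 [3, 3, 7] (by decide)
  have a8 : Y 17 = Y 2 + (Y 2 + (Y 0 + Y 8)) := by simpa using h 17 [2, 2, 0, 8] (by decide)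
  have a9 : Y 17 = Y 2 + (Y 3 + Y 9) := by simpa using h 17 [2, 3, 9] (by decide)
  have a10 : Y 17 = Y 2 + (Y 2 + Y 10) := by simpa using h 17 [2, 2, 10] (by decide)
  have a11 : Y 17 = Y 3 + (Y 0 + Y 11) := by simpa using h 17 [3, 0, 11] (by decide)
  have a12 : Y 17 = Y 2 + (Y 0 + Y 12) := by simpa using h 17 [2, 0, 12] (by decide)
  have a13 : Y 17 = Y 0 + (Y 0 + Y 13) := by simpa using h 17 [0, 0, 13] (by decide)
  have a14 : Y 17 = Y 3 + Y 14 := by simpa using h 17 [3, 14] (by decide)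
  have a15 : Y 17 = Y 2 + Y 15 := by simpa using h 17 [2, 15] (by decide)
  have a16 : Y 17 = Y 0 + Y 16 := by simpa using h 17 [0, 16] (by decide)
  fin_cases k <;> simp [grW, wz, wc, wn] <;> linarith

/-- the base of a `ZW` is natural -/
theorem natX_of_bas {w : ℕ → ℝ} (H : AwZ146.BasX monW monW monW X w) (n : ℕ) (k : Fin 18) :
    natX X n k = X n k := by
  refine nat_unique (fun k l hl => ?_) k
  have h1 := H.act k (fun s => l.count s)
    (List.mem_toFinset.2 (List.mem_map.2 ⟨l, hl, rfl⟩)) n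
  exact h1.trans (sum_count l (X n)).symm

/-- **the windows of a stage**; `HG` = 831's `ZW.gd_unif` -/
theorem gdU_stage (H : ZW θ g q V T w0 R T0 B B' I0 I κ u F X w Tn To PD ν own c₀)
    {v1 : ℝ} (HG : ∃ δ : ℝ, 0 < δ ∧ ∀ K ε : ℝ, 1 ≤ K → 0 < ε →
      ∀ᶠ n in (U : Filter ℕ), ∀ x ∈ Leg monW R, (∀ k, |x k - pathW θ w0 v1 k| ≤ δ) →
        x 17 ≤ 9 * w0 + max 0 (1 - θ 0) →
        GdAt B B' I κ u F X Tn C K n x (c₀ + DW g 0 q w0 x + ε)) (h0 : 0 < v1) (h1 : v1 < 1) {x : ℕ → Fin 18 → ℝ} {h : ℕ → ℝ} (hpos : ∀ l, 0 < h l)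
    (hh : Tendsto h atTop (𝓝 0)) {σ : ℕ → ℝ} (hσ0 : Tendsto σ atTop (𝓝 0))
    (hσ : ∀ l, x l 0 = pathW θ w0 v1 0 + σ l * btW θ 0 ∧
      x l 1 = pathW θ w0 v1 1 + σ l * btW θ 1 ∧ x l 17 = pathW θ w0 v1 17 + σ l * btW θ 17)
    (hν : Tendsto (fun l => (ν (x l) - ν (pathW θ w0 v1) - σ l * DlW g q (btW θ)) / h l) atTop
      (𝓝 0)) :
    ∃ kg : ℕ → ℕ, Tendsto kg U atTop ∧ ∀ k' : ℕ → ℕ, Tendsto k' U atTop →
      (∀ᶠ n in (U : Filter ℕ), k' n ≤ kg n) → ∀ B'' : Base,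
        (∀ n, B''.d n = B'.d n ^ h (k' n)) →
        GdU θ g q C B B'' I κ u F (fun n => X n + w n • x (k' n))
          (fun n => Tn n * B'.d n ^ (-(ν (x (k' n))))) := by
  obtain ⟨δ, hδ, HG⟩ := HG
  have hrec : c₀ + DW g 0 q w0 (pathW θ w0 v1) ≤ ν (pathW θ w0 v1) :=
    (H.ext.record v1 h0.le h1.le).2
  obtain ⟨kg, hkg, hP⟩ := exists_diag (fun l n => ∀ y ∈ Leg monW R,
      (∀ k, |y k - pathW θ w0 v1 k| ≤ δ) → y 17 ≤ 9 * w0 + max 0 (1 - θ 0) →
      GdAt B B' I κ u F X Tn C (l + 1) n y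
        (c₀ + DW g 0 q w0 y + h l / ((l : ℝ) + 1)))
    (fun l => HG (l + 1) (h l / ((l : ℝ) + 1))
      (by have : (0 : ℝ) ≤ l := Nat.cast_nonneg _
          linarith)
      (div_pos (hpos l) (by positivity)))
  refine ⟨kg, hkg, fun k' hk' hle B'' hB'' Rd K ε hK hε => ?_⟩
  -- conditions on the index
  obtain ⟨N, hN⟩ := exists_nat_gt (max K (2 / ε))
  have hnat : ∀ᶠ l : ℕ in (atTop : Filter ℕ), K ≤ (l : ℝ) ∧ 2 / ε < (l : ℝ) := by
    filter_upwards [eventually_ge_atTop N] with l hl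
    have h2 : (N : ℝ) ≤ l := by exact_mod_cast hl
    have m2 : max K (2 / ε) < (l : ℝ) := hN.trans_le h2
    exact ⟨(le_max_left _ _).trans m2.le, (le_max_right _ _).trans_lt m2⟩
  have hvl : Tendsto (fun l => v1 + σ l) atTop (𝓝 v1) := by
    have := hσ0.const_add v1
    rwa [add_zero] at this
  have hhR : Tendsto (fun l => h l * |Rd|) atTop (𝓝 0) := by
    have := hh.mul_const |Rd|
    rwa [zero_mul] at this
  have hnear : Tendsto (fun l => |σ l| * ‖btW θ‖ + h l * |Rd|) atTop (𝓝 0) := by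
    have h2 := (hσ0.abs.mul_const ‖btW θ‖).add hhR
    rwa [abs_zero, zero_mul, add_zero] at h2
  have h17 : ∀ᶠ l in (atTop : Filter ℕ), ∀ d ∈ QdW θ, ‖d‖ ≤ Rd →
      pathW θ w0 (v1 + σ l) 17 + h l * d 17 ≤ 9 * w0 + max 0 (1 - θ 0) := by
    have e17 : ∀ v, pathW θ w0 v 17 = 9 * w0 + (1 - θ 0) * v := fun v => by
      rw [pathW_nat, natW_N]
    have hd17 : ∀ l (d : Fin 18 → ℝ), ‖d‖ ≤ Rd → h l * d 17 ≤ h l * |Rd| := fun l d hd => by
      refine mul_le_mul_of_nonneg_left ?_ (hpos l).le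
      have h2 := norm_le_pi_norm d 17
      rw [Real.norm_eq_abs] at h2
      exact ((le_abs_self _).trans h2).trans (hd.trans (le_abs_self _))
    rcases lt_trichotomy (θ 0) 1 with h2 | h2 | h2
    · have h3 : Tendsto (fun l => (1 - θ 0) * (v1 + σ l) + h l * |Rd|) atTop
          (𝓝 ((1 - θ 0) * v1)) := by
        have := (hvl.const_mul (1 - θ 0)).add hhR
        rwa [add_zero] at this
      have h4 : (1 - θ 0) * v1 < 1 - θ 0 := by nlinarith
      filter_upwards [h3.eventually_lt_const h4] with l hl d _ hdR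
      rw [e17]
      have := hd17 l d hdR
      have := le_max_right 0 (1 - θ 0)
      linarith
    · filter_upwards with l d hd _
      rw [e17, h2, sub_self, zero_mul, add_zero, max_self, add_zero]
      have := mul_nonneg (hpos l).le (neg_nonneg.2 (hd.2 h2))
      linarith
    · have h3 : Tendsto (fun l => (1 - θ 0) * (v1 + σ l) + h l * |Rd|) atTop
          (𝓝 ((1 - θ 0) * v1)) := by
        have := (hvl.const_mul (1 - θ 0)).add hhR
        rwa [add_zero] at this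
      have h4 : (1 - θ 0) * v1 < 0 := by nlinarith
      filter_upwards [h3.eventually_lt_const h4] with l hl d _ hdR
      rw [e17]
      have := hd17 l d hdR
      have := le_max_left 0 (1 - θ 0)
      linarith
  have hνl : ∀ᶠ l in (atTop : Filter ℕ),
      -(ε / 2) ≤ (ν (x l) - ν (pathW θ w0 v1) - σ l * DlW g q (btW θ)) / h l :=
    (hν.eventually_const_lt (by linarith : -(ε / 2) < 0)).mono fun l hl => hl.le
  filter_upwards [hP, hle, hk'.eventually hnat, hk'.eventually (hvl.eventually_const_lt h0),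
    hk'.eventually (hvl.eventually_lt_const h1), hk'.eventually (hhR.eventually_lt_const one_pos),
    hk'.eventually (hnear.eventually_lt_const hδ), hk'.eventually h17, hk'.eventually hνl] with n
    p1 p2 p3 p4 p5 p6 p7 p8 p9 d hd hdR e he i hi G hG hbox
  set l := k' n with hl
  obtain ⟨hKl, hεl⟩ := p3
  have hhl := hpos l
  have hdR' : ‖d‖ ≤ |Rd| := hdR.trans (le_abs_self _)
  -- the box in the frame of the `ZW`
  set y : Fin 18 → ℝ := pathW θ w0 (v1 + σ l) + h l • d with hy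
  have hyL : y ∈ Leg monW R := path_add_leg H.big p4.le p5.le hd hhl.le
    ((mul_le_mul_of_nonneg_left hdR' hhl.le).trans p6.le)
  have hpe : pathW θ w0 (v1 + σ l) = pathW θ w0 v1 + σ l • btW θ := by
    funext k
    simp only [Pi.add_apply, Pi.smul_apply, smul_eq_mul, pathW_eq]
    ring
  have hyn : ∀ k, |y k - pathW θ w0 v1 k| ≤ δ := fun k => by
    have e1 : y k - pathW θ w0 v1 k = σ l * btW θ k + h l * d k := by
      rw [hy, hpe]
      simp only [Pi.add_apply, Pi.smul_apply, smul_eq_mul]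
      ring
    rw [e1]
    refine (abs_add_le _ _).trans ?_
    rw [abs_mul, abs_mul, abs_of_pos hhl]
    have h2 := norm_le_pi_norm (btW θ) k
    have h3 := norm_le_pi_norm d k
    rw [Real.norm_eq_abs] at h2 h3
    have h4 := mul_le_mul_of_nonneg_left h2 (abs_nonneg (σ l))
    have h5 := mul_le_mul_of_nonneg_left (h3.trans hdR') hhl.le
    linarith
  have h2 := p1 l p2 y hyL hyn (p8 d hd hdR) e he i hi G hG (fun j hj k => by
      refine (hbox j hj k).trans ?_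
      have e1 : natX (fun n => X n + w n • x (k' n)) n k =
          X n k + w n * pathW θ w0 (v1 + σ l) k := by
        have e2 : natX X n k = X n k := natX_of_bas H.bas n k
        rw [← e2]
        unfold natX
        simp only [Pi.add_apply, Pi.smul_apply, smul_eq_mul]
        rw [← hl, (hσ l).1, (hσ l).2.1, (hσ l).2.2, hpe]
        simp only [Pi.add_apply, Pi.smul_apply, smul_eq_mul, pathW, grW, btW]
        simp [wz, wc, wn]
        ring
      rw [e1]
      have e2 : B.d n ^ (X n k + w n * pathW θ w0 (v1 + σ l) k) * B''.d n ^ d k =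
          B.d n ^ X n k * B'.d n ^ y k := by
        rw [Real.rpow_add (B.pos n), Real.rpow_mul (B.pos n).le, ← H.ext.win.base n, hB'',
          ← Real.rpow_mul (B'.pos n).le, mul_assoc, ← Real.rpow_add (B'.pos n)]
        rfl
      rw [e2]
      refine mul_le_mul_of_nonneg_right (by linarith) ?_
      exact (mul_pos (Real.rpow_pos_of_pos (B.pos n) _) (Real.rpow_pos_of_pos (B'.pos n) _)).le)
  refine h2.trans ?_
  show _ ≤ Tn n * B'.d n ^ (-(ν (x l))) * B''.d n ^ (-(DlW g q d + ε))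
  have e3 : Tn n * B'.d n ^ (-(ν (x l))) * B''.d n ^ (-(DlW g q d + ε)) =
      Tn n * B'.d n ^ (-(ν (x l) + h l * (DlW g q d + ε))) := by
    rw [hB'', ← Real.rpow_mul (B'.pos n).le, mul_assoc, ← Real.rpow_add (B'.pos n)]
    congr 2; ring
  rw [e3]
  refine mul_le_mul_of_nonneg_left ?_ (H.ext.win.T0 n).le
  refine Real.rpow_le_rpow_of_exponent_ge (B'.pos n) (B'.lt n).le ?_
  have e4 : DW g 0 q w0 y = DW g 0 q w0 (pathW θ w0 v1) + σ l * DlW g q (btW θ) +
      h l * DlW g q d := by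
    rw [hy, DW_add, hpe, DW_add, map_smul, map_smul, smul_eq_mul, smul_eq_mul]
  rw [e4]
  have h5 : 1 / ((l : ℝ) + 1) ≤ ε / 2 := by
    rw [div_le_iff₀ (by positivity)]
    rw [div_lt_iff₀ hε] at hεl
    nlinarith
  have h6 : h l / ((l : ℝ) + 1) ≤ h l * (ε / 2) := by
    rw [div_eq_mul_one_div]
    exact mul_le_mul_of_nonneg_left h5 hhl.le
  rw [le_div_iff₀ hhl] at p9
  nlinarith

end

end Crest.Agent.R136.RL66
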