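import Crest.Agent.R136.Dg6_219
import Crest.Agent.R136.Dec1_146

/-!
# R136: record blow-up, part 0 (helper741): definitions (interface)

Natural plane `X x0 a b z`, record line `z00 + ξ r` in the plane (`lam r = 0`), half plane
`lam w < 0` below the record. Offsets at a record point: `q = Tn a b w + c` with `lam w < 0`,
`c` in the closed wall cone, `|c| ≤ κ |lam w|`.

* `RW`   : axioms of the closed wall cone used by the record blow-up (join, single raise, room);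
* `Reg`  : legal offsets near the half plane;
* `Del`, `Mk`, `Neg` : rescaled (mixed) increments along the record line `x ↦ bb + x • ρ`,
  negligible families (summable local integrals).
-/

set_option autoImplicit false

open Set Filter Topology Metric

namespace Crest.Agent.R136.Rb741

open Dg219 (Tn)

variable {ι : Type*} [Fintype ι] [DecidableEq ι]

/-- axioms of the closed wall cone `Lc` of a natural plane with slopes `a`, `b`, groups `g`:
`rk` = rank of the coordinates, `rm k` = room vector of the group `k` -/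
structure RW (g : ι → ℕ) (a b : ι → ℝ) (Lc : Set (ι → ℝ)) (rk : ι → ℕ) (rm : ℕ → ι → ℝ) :
    Prop where
  zero : (0 : ι → ℝ) ∈ Lc
  add : ∀ c ∈ Lc, ∀ d ∈ Lc, c + d ∈ Lc
  smul : ∀ c ∈ Lc, ∀ t : ℝ, 0 ≤ t → t • c ∈ Lc
  nat : ∀ z, Tn a b z ∈ Lc
  sup : ∀ c ∈ Lc, ∀ d ∈ Lc, c ⊔ d ∈ Lc
  /-- raising ONE coordinate of least rank among those where `c < d` -/
  raise : ∀ c ∈ Lc, ∀ d ∈ Lc, c ≤ d → ∀ i, (∀ j, rk j < rk i → c j = d j) →
    Function.update c i (d i) ∈ Lc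
  rm_in : ∀ k i, g i = k → rm k i = 0
  rm_off : ∀ k i, g i ≠ k → 1 ≤ rm k i
  /-- room: a vector which satisfies the walls inside the group `k` (it agrees on the group with a
  legal vector) becomes legal after adding `R • rm k`, `R ≥ C A`, `A` = bound of its size -/
  room : ∀ k, ∃ C : ℝ, 0 ≤ C ∧ ∀ (e : ι → ℝ) (A R : ℝ), 0 ≤ A → (∀ i, |e i| ≤ A) →
    (∃ c ∈ Lc, ∀ i, g i = k → c i = e i) → C * A ≤ R → e + R • rm k ∈ Lc

/-- linear functional of the plane -/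
def lin (lam z : ℝ × ℝ) : ℝ := lam.1 * z.1 + lam.2 * z.2

/-- legal offsets at a record point, near the half plane `lin lam < 0` -/
def Reg (a b : ι → ℝ) (Lc : Set (ι → ℝ)) (lam : ℝ × ℝ) (κ : ℝ) : Set (ι → ℝ) :=
  {q | ∃ (w : ℝ × ℝ) (c : ι → ℝ), q = Tn a b w + c ∧ lin lam w < 0 ∧ c ∈ Lc ∧
    ∀ i, |c i| ≤ κ * (-lin lam w)}

/-- legality of the small offsets of `Lc` near the points of the open set `U` of the record line -/
def LegR (P : Set (ι → ℝ)) (bb ρ : ι → ℝ) (Lc : Set (ι → ℝ)) (U : Set ℝ) : Prop :=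
  ∀ x₀ ∈ U, ∃ δ > 0, ∃ r > 0, ∀ x, |x - x₀| ≤ δ → ∀ c ∈ Lc, (∀ i, |c i| ≤ r) →
    bb + x • ρ + c ∈ P

/-- rescaled increment at the record point `bb + x • ρ`, offset `q`, step `u`, scale `2^-k` -/
noncomputable def Del (ν : (ι → ℝ) → ℝ) (bb ρ u q : ι → ℝ) (k : ℕ) (x : ℝ) : ℝ :=
  2 ^ k * (ν (bb + x • ρ + (1 / 2 : ℝ) ^ k • q) - ν (bb + x • ρ + (1 / 2 : ℝ) ^ k • (q + u)))

/-- rescaled mixed increment -/
noncomputable def Mk (ν : (ι → ℝ) → ℝ) (bb ρ u v q : ι → ℝ) (k : ℕ) (x : ℝ) : ℝ :=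
  Del ν bb ρ u q k x - Del ν bb ρ u (q + v) k x

/-- negligible: the local integrals of `|F k|` near `x₀` are summable -/
def Neg (x₀ δ : ℝ) (F : ℕ → ℝ → ℝ) : Prop :=
  ∀ R, 0 < R → R < δ → Summable fun k => ∫ x, Dec146.tent x₀ R x * |F k x|

/-- all small mixed increments between the groups `g i < g j`, `g i < m`, at closed legal offsets
near the half plane are negligible -/
def PP (ν : (ι → ℝ) → ℝ) (g : ι → ℕ) (a b : ι → ℝ) (Lc : Set (ι → ℝ)) (lam : ℝ × ℝ)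
    (bb ρ : ι → ℝ) (x₀ δ : ℝ) (m : ℕ) (κ : ℝ) : Prop :=
  ∀ i j, g i < m → g i < g j → ∀ (w : ℝ × ℝ) (c : ι → ℝ) (α β : ℝ), lin lam w < 0 →
    (∀ l, |c l| ≤ κ * (-lin lam w)) → 0 ≤ α → α ≤ κ * (-lin lam w) → 0 ≤ β →
    β ≤ κ * (-lin lam w) → c ∈ Lc → c + Pi.single i α ∈ Lc → c + Pi.single j β ∈ Lc →
    c + Pi.single i α + Pi.single j β ∈ Lc →
    Neg x₀ δ (Mk ν bb ρ (Pi.single i α) (Pi.single j β) (Tn a b w + c))

end Crest.Agent.R136.Rb741
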