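import Crest.Agent.R136.Rb0_741

/-!
# R136: record blow-up, part 1 (helper741): calculus of negligible families

`Ob F` : continuous and uniformly bounded. `Neg F` : local integrals of `|F k|` summable.
`Pos F` : the negative part of `F` is negligible. Translation by `O(2^-k)`; `Neg.tel`, `Neg.par`:
telescoping.
-/

set_option autoImplicit false

open Set Filter Topology MeasureTheory

namespace Crest.Agent.R136.Rb741

open Dec146 (tent)

/-- continuous, uniformly bounded -/
structure Ob (F : ℕ → ℝ → ℝ) : Prop where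
  cont : ∀ k, Continuous (F k)
  bdd : ∃ B, ∀ k x, |F k x| ≤ B

section ob

variable {F G : ℕ → ℝ → ℝ}

theorem Ob.add (hF : Ob F) (hG : Ob G) : Ob fun k x => F k x + G k x where
  cont := fun k => (hF.cont k).add (hG.cont k)
  bdd := by
    obtain ⟨B, hB⟩ := hF.bdd
    obtain ⟨C, hC⟩ := hG.bdd
    exact ⟨B + C, fun k x => (abs_add_le _ _).trans (add_le_add (hB k x) (hC k x))⟩

theorem Ob.neg (hF : Ob F) : Ob fun k x => -F k x where
  cont := fun k => (hF.cont k).neg
  bdd := by
    obtain ⟨B, hB⟩ := hF.bdd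
    exact ⟨B, fun k x => by rw [abs_neg]; exact hB k x⟩

theorem Ob.sub (hF : Ob F) (hG : Ob G) : Ob fun k x => F k x - G k x where
  cont := fun k => (hF.cont k).sub (hG.cont k)
  bdd := by
    obtain ⟨B, hB⟩ := hF.bdd
    obtain ⟨C, hC⟩ := hG.bdd
    exact ⟨B + C, fun k x => (abs_sub _ _).trans (add_le_add (hB k x) (hC k x))⟩

theorem Ob.mul_const (hF : Ob F) (c : ℝ) : Ob fun k x => c * F k x where
  cont := fun k => (hF.cont k).const_mul c
  bdd := by
    obtain ⟨B, hB⟩ := hF.bdd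
    exact ⟨|c| * B, fun k x => by
      rw [abs_mul]; exact mul_le_mul_of_nonneg_left (hB k x) (abs_nonneg c)⟩

theorem Ob.zero : Ob fun _ _ => (0 : ℝ) where
  cont := fun _ => continuous_const
  bdd := ⟨0, fun k x => by simp⟩

theorem Ob.shift (hF : Ob F) (c : ℕ → ℝ) : Ob fun k x => F k (x + c k) where
  cont := fun k => (hF.cont k).comp (continuous_add_const (c k))
  bdd := by
    obtain ⟨B, hB⟩ := hF.bdd
    exact ⟨B, fun k x => hB k _⟩

theorem Ob.succ (hF : Ob F) : Ob fun k x => F (k + 1) x where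
  cont := fun k => hF.cont (k + 1)
  bdd := by
    obtain ⟨B, hB⟩ := hF.bdd
    exact ⟨B, fun k x => hB (k + 1) x⟩

theorem Ob.npart (hF : Ob F) : Ob fun k x => max (-F k x) 0 where
  cont := fun k => (hF.cont k).neg.max continuous_const
  bdd := by
    obtain ⟨B, hB⟩ := hF.bdd
    refine ⟨B, fun k x => ?_⟩
    rw [abs_of_nonneg (le_max_right _ _)]
    exact max_le ((neg_le_abs _).trans (hB k x)) ((abs_nonneg _).trans (hB k x))

theorem Ob.sum {σ : Type*} (s : Finset σ) {F : σ → ℕ → ℝ → ℝ} (h : ∀ i ∈ s, Ob (F i)) :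
    Ob fun k x => ∑ i ∈ s, F i k x := by
  classical
  induction s using Finset.induction_on with
  | empty => simpa using Ob.zero
  | insert a s ha ih =>
    simp only [Finset.sum_insert ha]
    exact (h a (Finset.mem_insert_self _ _)).add (ih fun i hi => h i (Finset.mem_insert_of_mem hi))

end ob

section neg

variable {x₀ δ : ℝ} {F G : ℕ → ℝ → ℝ}

/-- nonnegative up to negligible -/
def Pos (x₀ δ : ℝ) (F : ℕ → ℝ → ℝ) : Prop := Neg x₀ δ fun k x => max (-F k x) 0

theorem Ob.integrable (hF : Ob F) (R : ℝ) (k : ℕ) : Integrable (fun x => tent x₀ R x * F k x) := by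
  obtain ⟨B, hB⟩ := hF.bdd
  exact Dec146.tent_mul_integrable volume x₀ R (hF.cont k).measurable (hB k)

theorem Ob.integrable_abs (hF : Ob F) (R : ℝ) (k : ℕ) :
    Integrable (fun x => tent x₀ R x * |F k x|) := by
  obtain ⟨B, hB⟩ := hF.bdd
  exact Dec146.tent_mul_integrable volume x₀ R (hF.cont k).abs.measurable (K := B)
    (fun x => by rw [abs_abs]; exact hB k x)

/-- comparison -/
theorem Neg.of_le (hF : Ob F) (hG : Ob G) (hn : Neg x₀ δ G) (k₀ : ℕ)
    (h : ∀ k, k₀ ≤ k → ∀ x, |x - x₀| ≤ δ → |F k x| ≤ |G k x|) : Neg x₀ δ F := by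
  intro R hR hRδ
  refine Summable.of_norm_bounded_eventually_nat (hn R hR hRδ) ?_
  filter_upwards [eventually_ge_atTop k₀] with k hk
  have h0 : 0 ≤ ∫ x, tent x₀ R x * |F k x| :=
    integral_nonneg fun x => mul_nonneg (Dec146.tent_nonneg _ _ _) (abs_nonneg _)
  rw [Real.norm_eq_abs, abs_of_nonneg h0]
  refine integral_mono (hF.integrable_abs R k) (hG.integrable_abs R k) fun x => ?_
  by_cases hx : |x - x₀| ≤ R
  · exact mul_le_mul_of_nonneg_left (h k hk x (hx.trans hRδ.le)) (Dec146.tent_nonneg _ _ _)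
  · have : tent x₀ R x = 0 := Dec146.tent_eq_zero (by rw [Real.norm_eq_abs]; linarith)
    simp only [this, zero_mul]; exact le_rfl

theorem Neg.zero : Neg x₀ δ fun _ _ => (0 : ℝ) := by
  intro R _ _
  simp only [abs_zero, mul_zero, integral_zero]
  exact summable_zero

theorem Neg.congr (h : ∀ k x, F k x = G k x) (hF : Neg x₀ δ F) : Neg x₀ δ G := by
  have : F = G := by funext k x; exact h k x
  rwa [← this]

theorem Neg.neg (hn : Neg x₀ δ F) : Neg x₀ δ fun k x => -F k x := by
  intro R hR hRδ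
  simpa only [abs_neg] using hn R hR hRδ

theorem Neg.abs (hn : Neg x₀ δ F) : Neg x₀ δ fun k x => |F k x| := by
  intro R hR hRδ
  simpa only [abs_abs] using hn R hR hRδ

/-- sum of two absolute values -/
theorem Neg.add_abs (hF : Ob F) (hG : Ob G) (h1 : Neg x₀ δ F) (h2 : Neg x₀ δ G) :
    Neg x₀ δ fun k x => |F k x| + |G k x| := by
  intro R hR hRδ
  refine ((h1 R hR hRδ).add (h2 R hR hRδ)).congr fun k => ?_
  rw [← integral_add (hF.integrable_abs R k) (hG.integrable_abs R k)]
  refine integral_congr_ae (Eventually.of_forall fun x => ?_)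
  simp only
  rw [abs_of_nonneg (add_nonneg (abs_nonneg (F k x)) (abs_nonneg (G k x))), mul_add]

theorem Ob.abs (hF : Ob F) : Ob fun k x => |F k x| where
  cont := fun k => (hF.cont k).abs
  bdd := by
    obtain ⟨B, hB⟩ := hF.bdd
    exact ⟨B, fun k x => by rw [abs_abs]; exact hB k x⟩

theorem Neg.add (hF : Ob F) (hG : Ob G) (h1 : Neg x₀ δ F) (h2 : Neg x₀ δ G) :
    Neg x₀ δ fun k x => F k x + G k x := by
  refine Neg.of_le (hF.add hG) (hF.abs.add hG.abs) (Neg.add_abs hF hG h1 h2) 0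
    fun k _ x _ => ?_
  rw [abs_of_nonneg (add_nonneg (abs_nonneg (F k x)) (abs_nonneg (G k x)))]
  exact abs_add_le _ _

theorem Neg.sub (hF : Ob F) (hG : Ob G) (h1 : Neg x₀ δ F) (h2 : Neg x₀ δ G) :
    Neg x₀ δ fun k x => F k x - G k x := by
  have := Neg.add hF hG.neg h1 h2.neg
  exact this.congr fun k x => by ring

theorem Neg.mul_const (c : ℝ) (h1 : Neg x₀ δ F) : Neg x₀ δ fun k x => c * F k x := by
  intro R hR hRδ
  refine ((h1 R hR hRδ).mul_left |c|).congr fun k => ?_
  rw [← integral_const_mul]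
  refine integral_congr_ae (Eventually.of_forall fun x => ?_)
  simp only
  rw [abs_mul]; ring

theorem Neg.sum {σ : Type*} (s : Finset σ) {F : σ → ℕ → ℝ → ℝ} (h : ∀ i ∈ s, Ob (F i))
    (hn : ∀ i ∈ s, Neg x₀ δ (F i)) : Neg x₀ δ fun k x => ∑ i ∈ s, F i k x := by
  classical
  induction s using Finset.induction_on with
  | empty => simpa using Neg.zero
  | insert a s ha ih =>
    simp only [Finset.sum_insert ha]
    exact Neg.add (h a (Finset.mem_insert_self _ _))
      (Ob.sum s fun i hi => h i (Finset.mem_insert_of_mem hi))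
      (hn a (Finset.mem_insert_self _ _))
      (ih (fun i hi => h i (Finset.mem_insert_of_mem hi))
        fun i hi => hn i (Finset.mem_insert_of_mem hi))

theorem Neg.pos (hF : Ob F) (h : Neg x₀ δ F) : Pos x₀ δ F := by
  refine Neg.of_le hF.npart hF h 0 fun k _ x _ => ?_
  rw [abs_of_nonneg (le_max_right _ _)]
  exact max_le (neg_le_abs _) (abs_nonneg _)

theorem Pos.congr (h : ∀ k x, F k x = G k x) (hF : Pos x₀ δ F) : Pos x₀ δ G := by
  have : F = G := by funext k x; exact h k x
  rwa [← this]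

theorem Pos.of_ev (hF : Ob F) (k₀ : ℕ) (h : ∀ k, k₀ ≤ k → ∀ x, |x - x₀| ≤ δ → 0 ≤ F k x) :
    Pos x₀ δ F := by
  refine Neg.of_le hF.npart Ob.zero Neg.zero k₀ fun k hk x hx => ?_
  rw [max_eq_right (by linarith [h k hk x hx])]

theorem Pos.add (hF : Ob F) (hG : Ob G) (h1 : Pos x₀ δ F) (h2 : Pos x₀ δ G) :
    Pos x₀ δ fun k x => F k x + G k x := by
  refine Neg.of_le (hF.add hG).npart (hF.npart.add hG.npart) (Neg.add hF.npart hG.npart h1 h2) 0
    fun k _ x _ => ?_
  have a1 := le_max_left (-F k x) 0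
  have a2 := le_max_right (-F k x) 0
  have a3 := le_max_left (-G k x) 0
  have a4 := le_max_right (-G k x) 0
  rw [abs_of_nonneg (le_max_right _ _), abs_of_nonneg (add_nonneg a2 a4)]
  exact max_le (by linarith) (by linarith)

/-- `F` and `-F` nonnegative up to negligible -/
theorem Pos.antisymm (hF : Ob F) (h1 : Pos x₀ δ F) (h2 : Pos x₀ δ fun k x => -F k x) :
    Neg x₀ δ F := by
  refine Neg.of_le hF (hF.npart.add hF.neg.npart) (Neg.add hF.npart hF.neg.npart h1 h2) 0
    fun k _ x _ => ?_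
  have a1 := le_max_left (-F k x) 0
  have a2 := le_max_right (-F k x) 0
  have a3 := le_max_left (- -F k x) 0
  have a4 := le_max_right (- -F k x) 0
  rw [abs_of_nonneg (add_nonneg a2 a4)]
  rw [abs_le]
  constructor <;> linarith

/-- if `F`, `G` are nonnegative up to negligible and `F + G` is negligible then so is `F` -/
theorem Pos.left (hF : Ob F) (hG : Ob G) (h1 : Pos x₀ δ F) (h2 : Pos x₀ δ G)
    (h : Neg x₀ δ fun k x => F k x + G k x) : Neg x₀ δ F := by
  refine h1.antisymm hF ?_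
  have h3 : Pos x₀ δ fun k x => -(F k x + G k x) := (h.neg).pos (hF.add hG).neg
  have h4 := Pos.add (hF.add hG).neg hG h3 h2
  exact h4.congr fun k x => by ring

/-! ### translations -/

theorem tent_int_shift (R σ : ℝ) (hF : Ob F) {c : ℝ} (hc : |c| ≤ σ) (k : ℕ) :
    ∫ x, tent x₀ R x * |F k (x + c)| ≤ ∫ x, tent x₀ (R + σ) x * |F k x| := by
  obtain ⟨B, hB⟩ := hF.bdd
  have h1 : (∫ x, tent x₀ R x * |F k (x + c)|) = ∫ x, tent x₀ R (x - c) * |F k x| := by
    have := integral_add_right_eq_self (μ := (volume : Measure ℝ))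
      (fun x => tent x₀ R (x - c) * |F k x|) c
    rw [← this]
    congr 1; ext x
    rw [add_sub_cancel_right]
  rw [h1]
  have hi : Integrable (fun x => tent x₀ R x * |F k (x + c)|) :=
    Dec146.tent_mul_integrable volume x₀ R
      (((hF.cont k).comp (continuous_add_const c)).abs.measurable) (K := B)
      (fun x => by rw [abs_abs]; exact hB k _)
  refine integral_mono ?_ (hF.integrable_abs (R + σ) k) fun x => ?_
  · refine (hi.comp_sub_right c).congr (Eventually.of_forall fun x => ?_)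
    simp
  · refine mul_le_mul_of_nonneg_right (Dec146.tent_shift ?_ x) (abs_nonneg _)
    rw [Real.norm_eq_abs]; exact hc

theorem small_ev {C σ : ℝ} (hσ : 0 < σ) : ∀ᶠ k : ℕ in atTop, C * (1 / 2) ^ k ≤ σ := by
  have h1 : Tendsto (fun k : ℕ => C * (1 / 2 : ℝ) ^ k) atTop (𝓝 (C * 0)) :=
    (tendsto_pow_atTop_nhds_zero_of_lt_one (by norm_num) (by norm_num)).const_mul C
  rw [mul_zero] at h1
  exact h1.eventually (ge_mem_nhds hσ)

theorem Neg.shift (hF : Ob F) (h : Neg x₀ δ F) {c : ℕ → ℝ} {C : ℝ}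
    (hc : ∀ k, |c k| ≤ C * (1 / 2) ^ k) : Neg x₀ δ fun k x => F k (x + c k) := by
  intro R hR hRδ
  set σ := (δ - R) / 2 with hσ
  have hσ0 : 0 < σ := by rw [hσ]; linarith
  refine Summable.of_norm_bounded_eventually_nat (h (R + σ) (by linarith) (by rw [hσ]; linarith)) ?_
  filter_upwards [small_ev (C := C) hσ0] with k hk
  have h0 : 0 ≤ ∫ x, tent x₀ R x * |F k (x + c k)| :=
    integral_nonneg fun x => mul_nonneg (Dec146.tent_nonneg _ _ _) (abs_nonneg _)
  rw [Real.norm_eq_abs, abs_of_nonneg h0]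
  exact tent_int_shift R σ hF ((hc k).trans hk) k

theorem Pos.shift (hF : Ob F) (h : Pos x₀ δ F) {c : ℕ → ℝ} {C : ℝ}
    (hc : ∀ k, |c k| ≤ C * (1 / 2) ^ k) : Pos x₀ δ fun k x => F k (x + c k) :=
  Neg.shift (F := fun k x => max (-F k x) 0) hF.npart h hc

theorem Neg.succ (h : Neg x₀ δ F) : Neg x₀ δ fun k x => F (k + 1) x := by
  intro R hR hRδ
  exact (summable_nat_add_iff (f := fun k => ∫ x, tent x₀ R x * |F k x|) 1).2 (h R hR hRδ)

theorem Pos.succ (h : Pos x₀ δ F) : Pos x₀ δ fun k x => F (k + 1) x :=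
  Neg.succ (F := fun k x => max (-F k x) 0) h

theorem Neg.of_succ (h : Neg x₀ δ fun k x => F (k + 1) x) : Neg x₀ δ F := by
  intro R hR hRδ
  exact (summable_nat_add_iff (f := fun k => ∫ x, tent x₀ R x * |F k x|) 1).1 (h R hR hRδ)

/-- translation of an integral -/
theorem shift_any (R : ℝ) : ∃ D : ℝ, 0 ≤ D ∧ ∀ (G : ℝ → ℝ) (B : ℝ), Continuous G → 0 ≤ B →
    (∀ x, |G x| ≤ B) → ∀ c : ℝ,
    |(∫ x, tent x₀ R x * G (x + c)) - ∫ x, tent x₀ R x * G x| ≤ D * B * |c| := by
  set I : ℝ := ∫ x, tent x₀ R x with hI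
  have hI0 : 0 ≤ I := integral_nonneg fun x => Dec146.tent_nonneg _ _ _
  have hcst := Dec146.cst_nonneg volume x₀ R
  refine ⟨Dec146.cst volume x₀ R + 2 * I, by positivity, ?_⟩
  intro G B hG hB0 hB c
  by_cases hc : |c| ≤ 1
  · have := Dec146.shift_est volume x₀ R hG.measurable hB0 hB (c := c)
      (by rw [Real.norm_eq_abs]; exact hc)
    rw [Real.norm_eq_abs] at this
    refine this.trans ?_
    have h1 : 0 ≤ B * (2 * I) * |c| := by positivity
    nlinarith
  · push Not at hc
    have hb : ∀ g : ℝ → ℝ, Continuous g → (∀ x, |g x| ≤ B) → |∫ x, tent x₀ R x * g x| ≤ B * I := by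
      intro g hg hgB
      rw [← Real.norm_eq_abs]
      refine (norm_integral_le_integral_norm _).trans ?_
      rw [hI, ← integral_const_mul]
      refine integral_mono (Dec146.tent_mul_integrable volume x₀ R hg.measurable hgB).norm
        ((Dec146.tent_integrable volume x₀ R).const_mul B) fun x => ?_
      simp only [Real.norm_eq_abs, abs_mul, abs_of_nonneg (Dec146.tent_nonneg x₀ R x)]
      rw [mul_comm]
      exact mul_le_mul_of_nonneg_right (hgB x) (Dec146.tent_nonneg _ _ _)
    have h1 := hb (fun x => G (x + c)) (hG.comp (continuous_add_const c)) (fun x => hB _)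
    have h2 := hb G hG hB
    refine (abs_sub _ _).trans ((add_le_add h1 h2).trans ?_)
    have h3 : B * I ≤ B * I * |c| := by
      have : 0 ≤ B * I := by positivity
      nlinarith
    have h4 : 0 ≤ Dec146.cst volume x₀ R * B * |c| := by positivity
    nlinarith

/-- a family which is nonnegative up to negligible, with bounded partial sums of the local
integrals, is negligible -/
theorem Pos.neg_of_int (hF : Ob F) (h : Pos x₀ δ F)
    (hb : ∀ R, 0 < R → R < δ → ∃ C, ∀ N : ℕ, ∑ k ∈ Finset.range N, ∫ x, tent x₀ R x * F k x ≤ C) :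
    Neg x₀ δ F := by
  intro R hR hRδ
  obtain ⟨C, hC⟩ := hb R hR hRδ
  have hs := h R hR hRδ
  set n : ℕ → ℝ := fun k => ∫ x, tent x₀ R x * |max (-F k x) 0| with hn
  have hn0 : ∀ k, 0 ≤ n k := fun k =>
    integral_nonneg fun x => mul_nonneg (Dec146.tent_nonneg _ _ _) (abs_nonneg _)
  have e : ∀ k, ∫ x, tent x₀ R x * |F k x| = (∫ x, tent x₀ R x * F k x) + 2 * n k := by
    intro k
    rw [hn, ← integral_const_mul, ← integral_add (hF.integrable R k)
      ((hF.npart.integrable_abs R k).const_mul 2)]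
    refine integral_congr_ae (Eventually.of_forall fun x => ?_)
    simp only
    rw [abs_of_nonneg (le_max_right (-F k x) 0)]
    rcases le_total 0 (F k x) with h1 | h1
    · rw [abs_of_nonneg h1, max_eq_right (by linarith)]; ring
    · rw [abs_of_nonpos h1, max_eq_left (by linarith)]; ring
  refine summable_of_sum_range_le (c := C + 2 * ∑' k, n k) (fun k =>
    integral_nonneg fun x => mul_nonneg (Dec146.tent_nonneg _ _ _) (abs_nonneg _)) fun N => ?_
  rw [Finset.sum_congr rfl fun k _ => e k, Finset.sum_add_distrib, ← Finset.mul_sum]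
  have h2 : ∑ k ∈ Finset.range N, n k ≤ ∑' k, n k := hs.sum_le_tsum _ fun k _ => hn0 k
  linarith [hC N]

theorem geom_bound (N : ℕ) : ∑ k ∈ Finset.range N, (1 / 2 : ℝ) ^ k ≤ 2 := by
  have h := (summable_geometric_of_lt_one (by norm_num : (0:ℝ) ≤ 1 / 2) (by norm_num)).sum_le_tsum
    (Finset.range N) (fun k _ => by positivity)
  rwa [tsum_geometric_of_lt_one (by norm_num) (by norm_num), show (1 - 1 / 2 : ℝ)⁻¹ = 2 by norm_num]
    at h

/-- telescoping along a translation at every scale -/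
theorem Neg.par {A : ℕ → ℝ → ℝ} (hA : Ob A) {c : ℕ → ℝ} {C : ℝ} (hC : 0 ≤ C)
    (hc : ∀ k, |c k| ≤ C * (1 / 2) ^ k) (h : Pos x₀ δ fun k x => A k x - A k (x + c k)) :
    Neg x₀ δ fun k x => A k x - A k (x + c k) := by
  refine h.neg_of_int (hA.sub (hA.shift c)) fun R hR _ => ?_
  obtain ⟨B, hB⟩ := hA.bdd
  have hB0 : 0 ≤ B := (abs_nonneg _).trans (hB 0 0)
  obtain ⟨D, hD, hD'⟩ := shift_any (x₀ := x₀) R
  refine ⟨D * B * C * 2, fun N => ?_⟩
  have h1 : ∀ k, ∫ x, tent x₀ R x * (A k x - A k (x + c k)) ≤ D * B * C * (1 / 2) ^ k := by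
    intro k
    have e : ∫ x, tent x₀ R x * (A k x - A k (x + c k)) =
        (∫ x, tent x₀ R x * A k x) - ∫ x, tent x₀ R x * A k (x + c k) := by
      rw [← integral_sub (hA.integrable R k) ((hA.shift c).integrable R k)]
      congr 1; ext x; ring
    rw [e]
    have h2 := (abs_le.1 (hD' (A k) B (hA.cont k) hB0 (hB k) (c k))).1
    have h3 : D * B * |c k| ≤ D * B * (C * (1 / 2) ^ k) :=
      mul_le_mul_of_nonneg_left (hc k) (by positivity)
    linarith
  refine (Finset.sum_le_sum fun k _ => h1 k).trans ?_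
  rw [← Finset.mul_sum]
  exact mul_le_mul_of_nonneg_left (geom_bound N) (by positivity)

/-- telescoping over the scales -/
theorem Neg.tel {A : ℕ → ℝ → ℝ} (hA : Ob A) {c : ℕ → ℝ} {C : ℝ} (hC : 0 ≤ C)
    (hc : ∀ k, |c k| ≤ C * (1 / 2) ^ k)
    (h : Pos x₀ δ fun k x => A k x - (A (k + 1) x + A (k + 1) (x + c k)) / 2) :
    Neg x₀ δ fun k x => A k x - (A (k + 1) x + A (k + 1) (x + c k)) / 2 := by
  have hA1 := hA.succ
  have hA2 := hA.succ.shift c
  have hO : Ob fun k x => A k x - (A (k + 1) x + A (k + 1) (x + c k)) / 2 := by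
    have := hA.sub ((hA1.add hA2).mul_const (1 / 2))
    have e : (fun k x => A k x - (A (k + 1) x + A (k + 1) (x + c k)) / 2) =
        fun k x => A k x - 1 / 2 * (A (k + 1) x + A (k + 1) (x + c k)) := by
      funext k x; ring
    rw [e]; exact this
  refine h.neg_of_int hO fun R hR _ => ?_
  obtain ⟨B, hB⟩ := hA.bdd
  have hB0 : 0 ≤ B := (abs_nonneg _).trans (hB 0 0)
  obtain ⟨D, hD, hD'⟩ := shift_any (x₀ := x₀) R
  set I : ℕ → ℝ := fun k => ∫ x, tent x₀ R x * A k x with hI
  set I0 : ℝ := ∫ x, tent x₀ R x with hI0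
  have hIb : ∀ k, |I k| ≤ B * I0 := by
    intro k
    rw [hI, ← Real.norm_eq_abs]
    refine (norm_integral_le_integral_norm _).trans ?_
    rw [hI0, ← integral_const_mul]
    refine integral_mono (hA.integrable R k).norm
      ((Dec146.tent_integrable volume x₀ R).const_mul B) fun x => ?_
    simp only [Real.norm_eq_abs, abs_mul, abs_of_nonneg (Dec146.tent_nonneg x₀ R x)]
    rw [mul_comm]
    exact mul_le_mul_of_nonneg_right (hB k x) (Dec146.tent_nonneg _ _ _)
  refine ⟨2 * (B * I0) + D * B * C * 2, fun N => ?_⟩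
  have h1 : ∀ k, ∫ x, tent x₀ R x * (A k x - (A (k + 1) x + A (k + 1) (x + c k)) / 2) ≤
      (I k - I (k + 1)) + D * B * C * (1 / 2) ^ k := by
    intro k
    have e : ∫ x, tent x₀ R x * (A k x - (A (k + 1) x + A (k + 1) (x + c k)) / 2) =
        I k - I (k + 1) / 2 - (∫ x, tent x₀ R x * A (k + 1) (x + c k)) / 2 := by
      have i1 := hA.integrable (x₀ := x₀) R k
      have i2 := hA.integrable (x₀ := x₀) R (k + 1)
      have i3 := hA2.integrable (x₀ := x₀) R k
      rw [hI]
      simp only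
      have e1 := integral_sub i1 (i2.div_const 2)
      have e2 := integral_sub (i1.sub (i2.div_const 2)) (i3.div_const 2)
      simp only [Pi.sub_apply] at e1 e2
      rw [← integral_div, ← integral_div, ← e1, ← e2]
      congr 1; ext x; ring
    rw [e]
    have h2 := (abs_le.1 (hD' (A (k + 1)) B (hA.cont (k + 1)) hB0 (hB (k + 1)) (c k))).1
    have h3 : D * B * |c k| ≤ D * B * (C * (1 / 2) ^ k) :=
      mul_le_mul_of_nonneg_left (hc k) (by positivity)
    have h4 : 0 ≤ D * B * (C * (1 / 2) ^ k) := by positivity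
    change -(D * B * |c k|) ≤ _ - I (k + 1) at h2
    linarith
  refine (Finset.sum_le_sum fun k _ => h1 k).trans ?_
  rw [Finset.sum_add_distrib, ← Finset.mul_sum, Finset.sum_range_sub' I N]
  have h5 : D * B * C * ∑ k ∈ Finset.range N, (1 / 2 : ℝ) ^ k ≤ D * B * C * 2 :=
    mul_le_mul_of_nonneg_left (geom_bound N) (by positivity)
  have h6 := abs_le.1 (hIb 0)
  have h7 := abs_le.1 (hIb N)
  linarith [h6.2, h7.1]

end neg

end Crest.Agent.R136.Rb741
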