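import Crest.Agent.R136.Rb1_741
import Crest.Agent.R136.Dg2_262

/-!
# R136: record blow-up, part 2 (helper741): segments

`RD` : record data. `RegW` : position near the half plane with reference point `w`.
`seg` : an increment of coordinates of the group `m` decreases, up to negligible, if the later
coordinates are raised; it does not see the earlier coordinates.
-/

set_option autoImplicit false
set_option linter.unusedSectionVars false

open Set Filter Topology MeasureTheory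

namespace Crest.Agent.R136.Rb741

open Dec146 (tent)
open Dg219 (Tn)
open Dg262 (Mix Inc SupOn Grp)

variable {ι : Type*} [Fintype ι] [DecidableEq ι]

/-! ### algebra of positions -/

theorem lin_comb (lam w w' : ℝ × ℝ) (α β : ℝ) :
    lin lam (α • w + β • w') = α * lin lam w + β * lin lam w' := by
  simp only [lin, Prod.fst_add, Prod.snd_add, Prod.smul_fst, Prod.smul_snd, smul_eq_mul]; ring

theorem Tn_comb (a b : ι → ℝ) (w w' : ℝ × ℝ) (α β : ℝ) :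
    Tn a b (α • w + β • w') = α • Tn a b w + β • Tn a b w' := by
  funext i
  simp only [Tn, Prod.fst_add, Prod.snd_add, Prod.smul_fst, Prod.smul_snd, smul_eq_mul,
    Pi.add_apply, Pi.smul_apply]; ring

theorem Tn_add (a b : ι → ℝ) (w w' : ℝ × ℝ) : Tn a b (w + w') = Tn a b w + Tn a b w' := by
  have := Tn_comb a b w w' 1 1
  simpa using this

theorem lin_add (lam w w' : ℝ × ℝ) : lin lam (w + w') = lin lam w + lin lam w' := by
  have := lin_comb lam w w' 1 1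
  simpa using this

theorem lin_smul (lam w : ℝ × ℝ) (t : ℝ) : lin lam (t • w) = t * lin lam w := by
  simp only [lin, Prod.smul_fst, Prod.smul_snd, smul_eq_mul]; ring

theorem Tn_smul (a b : ι → ℝ) (w : ℝ × ℝ) (t : ℝ) : Tn a b (t • w) = t • Tn a b w := by
  funext i
  simp only [Tn, Prod.smul_fst, Prod.smul_snd, smul_eq_mul, Pi.smul_apply]; ring

/-- `q` is a legal offset near the half plane, with reference point `w` -/
def RegW (a b : ι → ℝ) (Lc : Set (ι → ℝ)) (lam : ℝ × ℝ) (κ : ℝ) (w : ℝ × ℝ) (q : ι → ℝ) : Prop :=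
  0 < -lin lam w ∧ q - Tn a b w ∈ Lc ∧ ∀ i, |q i - Tn a b w i| ≤ κ * (-lin lam w)

/-- record data near the record point `x₀` -/
structure RD (ν : (ι → ℝ) → ℝ) (P : Set (ι → ℝ)) (K : ℝ) (g : ι → ℕ) (a b : ι → ℝ)
    (wv : ℕ → ℝ × ℝ) (Lc : Set (ι → ℝ)) (rk : ι → ℕ) (rm : ℕ → ι → ℝ) (lam r : ℝ × ℝ)
    (bb : ι → ℝ) (κ0 x₀ δ rr : ℝ) : Prop where
  Kn : 0 ≤ K
  lip : ∀ p q, |ν p - ν q| ≤ K * dist p q
  sup : SupOn ν P
  rw : RW g a b Lc rk rm
  grp : Grp a b g wv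
  lamr : lin lam r = 0
  /-- same sign of the slopes along the record line inside every group -/
  ss : ∀ i j, g i = g j → (Tn a b r i = 0 ∧ Tn a b r j = 0) ∨ 0 < Tn a b r i * Tn a b r j
  /-- a group parallel to the record line: the later coordinates all move in the same direction -/
  par : ∀ i, Tn a b r i = 0 → ∃ t : ℝ, ∀ l, g i < g l → 0 < t * Tn a b r l
  κp : 0 < κ0
  rp : 0 < rr
  leg : ∀ x, |x - x₀| ≤ δ → ∀ q ∈ Reg a b Lc lam κ0, (∀ i, |q i| ≤ rr) →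
    bb + x • Tn a b r + q ∈ P

section

variable {ν : (ι → ℝ) → ℝ} {P : Set (ι → ℝ)} {K : ℝ} {g : ι → ℕ} {a b : ι → ℝ}
  {wv : ℕ → ℝ × ℝ} {Lc : Set (ι → ℝ)} {rk : ι → ℕ} {rm : ℕ → ι → ℝ} {lam r : ℝ × ℝ}
  {bb : ι → ℝ} {κ0 x₀ δ rr : ℝ}

theorem RegW.reg {κ : ℝ} {w : ℝ × ℝ} {q : ι → ℝ} (h : RegW a b Lc lam κ w q) :
    q ∈ Reg a b Lc lam κ :=
  ⟨w, q - Tn a b w, by abel, by linarith [h.1], h.2.1, h.2.2⟩

theorem RegW.mono {κ κ' : ℝ} (hκ : κ ≤ κ') {w : ℝ × ℝ} {q : ι → ℝ}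
    (h : RegW a b Lc lam κ w q) : RegW a b Lc lam κ' w q :=
  ⟨h.1, h.2.1, fun i => (h.2.2 i).trans (mul_le_mul_of_nonneg_right hκ h.1.le)⟩

theorem RegW.comb (hR : RW g a b Lc rk rm) {κ : ℝ} {w w' : ℝ × ℝ} {q q' : ι → ℝ}
    (h : RegW a b Lc lam κ w q) (h' : RegW a b Lc lam κ w' q') {α β : ℝ} (hα : 0 ≤ α)
    (hβ : 0 ≤ β) (hαβ : 0 < α + β) : RegW a b Lc lam κ (α • w + β • w') (α • q + β • q') := by
  have e : α • q + β • q' - Tn a b (α • w + β • w') =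
      α • (q - Tn a b w) + β • (q' - Tn a b w') := by
    rw [Tn_comb, smul_sub, smul_sub]; abel
  refine ⟨?_, ?_, ?_⟩
  · rw [lin_comb]
    rcases hα.eq_or_lt with h0 | h0
    · have : 0 < β := by linarith
      rw [← h0]; nlinarith [h'.1]
    · nlinarith [h.1, h'.1]
  · rw [e]
    exact hR.add _ (hR.smul _ h.2.1 _ hα) _ (hR.smul _ h'.2.1 _ hβ)
  · intro i
    have e2 : (α • q + β • q') i - Tn a b (α • w + β • w') i =
        α * (q i - Tn a b w i) + β * (q' i - Tn a b w' i) := by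
      have := congrFun e i
      simpa using this
    rw [e2, lin_comb]
    have h1 := h.2.2 i
    have h2 := h'.2.2 i
    rw [abs_le] at h1 h2 ⊢
    constructor <;> nlinarith [h1.1, h1.2, h2.1, h2.2]

theorem RegW.smul (hR : RW g a b Lc rk rm) {κ : ℝ} {w : ℝ × ℝ} {q : ι → ℝ}
    (h : RegW a b Lc lam κ w q) {t : ℝ} (ht : 0 < t) : RegW a b Lc lam κ (t • w) (t • q) := by
  have := RegW.comb hR h h ht.le le_rfl (by linarith : 0 < t + 0)
  simpa using this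

theorem RegW.seg (hR : RW g a b Lc rk rm) {κ : ℝ} {w w' : ℝ × ℝ} {q q' : ι → ℝ}
    (h : RegW a b Lc lam κ w q) (h' : RegW a b Lc lam κ w' q') {s : ℝ} (hs : 0 ≤ s)
    (hs1 : s ≤ 1) : RegW a b Lc lam κ ((1 - s) • w + s • w') ((1 - s) • q + s • q') :=
  RegW.comb hR h h' (by linarith) hs (by linarith)

/-- translation along the record line -/
theorem RegW.shift (hR : RW g a b Lc rk rm) (hr : lin lam r = 0) {κ : ℝ} {w : ℝ × ℝ} {q : ι → ℝ}
    (h : RegW a b Lc lam κ w q) (t : ℝ) :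
    RegW a b Lc lam κ (w + t • r) (q + t • Tn a b r) := by
  have e : lin lam (w + t • r) = lin lam w := by rw [lin_add, lin_smul, hr]; ring
  have e2 : Tn a b (w + t • r) = Tn a b w + t • Tn a b r := by rw [Tn_add, Tn_smul]
  refine ⟨by rw [e]; exact h.1, ?_, ?_⟩
  · rw [e2, add_sub_add_right_eq_sub]; exact h.2.1
  · intro i
    rw [e, e2]
    have : (q + t • Tn a b r) i - (Tn a b w + t • Tn a b r) i = q i - Tn a b w i := by
      simp only [Pi.add_apply]; ring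
    rw [this]; exact h.2.2 i

theorem reg_smul {κ : ℝ} (hR : RW g a b Lc rk rm) {q : ι → ℝ} (h : q ∈ Reg a b Lc lam κ) {t : ℝ}
    (ht : 0 < t) : t • q ∈ Reg a b Lc lam κ := by
  obtain ⟨w, c, rfl, h1, h2, h3⟩ := h
  refine ⟨t • w, t • c, by rw [Tn_smul, smul_add], ?_, hR.smul _ h2 _ ht.le, fun i => ?_⟩
  · rw [lin_smul]; nlinarith
  · rw [lin_smul, Pi.smul_apply, smul_eq_mul, abs_mul, abs_of_pos ht]
    have := h3 i
    nlinarith

/-! ### increments -/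

theorem hpow_pos (k : ℕ) : (0 : ℝ) < (1 / 2) ^ k := by positivity

theorem two_mul_half (k : ℕ) : (2 : ℝ) ^ k * (1 / 2) ^ k = 1 := by
  rw [← mul_pow]; norm_num

theorem cont_of_lip (hK : 0 ≤ K) (hν : ∀ p q : ι → ℝ, |ν p - ν q| ≤ K * dist p q) :
    Continuous ν := by
  have : LipschitzWith ⟨K, hK⟩ ν := LipschitzWith.of_dist_le_mul fun p q => by
    rw [Real.dist_eq]; exact hν p q
  exact this.continuous

variable {ρ : ι → ℝ}

theorem Del_ob (hK : 0 ≤ K) (hν : ∀ p q : ι → ℝ, |ν p - ν q| ≤ K * dist p q) (u q : ι → ℝ) :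
    Ob (Del ν bb ρ u q) where
  cont := fun k => by
    have h := cont_of_lip hK hν
    unfold Del
    fun_prop
  bdd := by
    refine ⟨K * ‖u‖, fun k x => ?_⟩
    unfold Del
    rw [abs_mul, abs_of_pos (by positivity : (0:ℝ) < 2 ^ k)]
    have h1 := hν (bb + x • ρ + (1 / 2 : ℝ) ^ k • q) (bb + x • ρ + (1 / 2 : ℝ) ^ k • (q + u))
    have h2 : dist (bb + x • ρ + (1 / 2 : ℝ) ^ k • q) (bb + x • ρ + (1 / 2 : ℝ) ^ k • (q + u)) =
        (1 / 2) ^ k * ‖u‖ := by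
      rw [dist_eq_norm, smul_add, show bb + x • ρ + (1 / 2 : ℝ) ^ k • q -
        (bb + x • ρ + ((1 / 2 : ℝ) ^ k • q + (1 / 2 : ℝ) ^ k • u)) = -((1 / 2 : ℝ) ^ k • u) by abel,
        norm_neg, norm_smul, Real.norm_of_nonneg (hpow_pos k).le]
    rw [h2] at h1
    calc (2:ℝ) ^ k * |ν (bb + x • ρ + (1 / 2 : ℝ) ^ k • q) -
        ν (bb + x • ρ + (1 / 2 : ℝ) ^ k • (q + u))| ≤ 2 ^ k * (K * ((1 / 2) ^ k * ‖u‖)) :=
          mul_le_mul_of_nonneg_left h1 (by positivity)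
      _ = K * ‖u‖ * (2 ^ k * (1 / 2) ^ k) := by ring
      _ = K * ‖u‖ := by rw [two_mul_half, mul_one]

theorem Mk_ob (hK : 0 ≤ K) (hν : ∀ p q : ι → ℝ, |ν p - ν q| ≤ K * dist p q) (u v q : ι → ℝ) :
    Ob (Mk ν bb ρ u v q) := (Del_ob hK hν u q).sub (Del_ob hK hν u (q + v))

theorem Del_shift (u q : ι → ℝ) (t : ℝ) (k : ℕ) (x : ℝ) :
    Del ν bb ρ u (q + t • ρ) k x = Del ν bb ρ u q k (x + (1 / 2) ^ k * t) := by
  unfold Del
  congr 2
  · congr 1
    rw [smul_add, add_smul, smul_smul]; abel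
  · congr 1
    rw [smul_add, smul_add, smul_add, add_smul, smul_smul]; abel

theorem Del_half (u q : ι → ℝ) (k : ℕ) (x : ℝ) :
    Del ν bb ρ u q k x =
      (Del ν bb ρ u ((2:ℝ) • q) (k + 1) x + Del ν bb ρ u ((2:ℝ) • q + u) (k + 1) x) / 2 := by
  unfold Del
  have e1 : (1 / 2 : ℝ) ^ (k + 1) • ((2:ℝ) • q) = (1 / 2 : ℝ) ^ k • q := by
    rw [smul_smul]; congr 1; rw [pow_succ]; ring
  have e2 : (1 / 2 : ℝ) ^ (k + 1) • ((2:ℝ) • q + u + u) = (1 / 2 : ℝ) ^ k • (q + u) := by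
    have : (2:ℝ) • q + u + u = (2:ℝ) • (q + u) := by rw [smul_add, two_smul ℝ u]; abel
    rw [this, smul_smul]; congr 1; rw [pow_succ]; ring
  rw [e1, e2, pow_succ]; ring

theorem Del_add (u v q : ι → ℝ) (k : ℕ) (x : ℝ) :
    Del ν bb ρ (u + v) q k x = Del ν bb ρ u q k x + Del ν bb ρ v (q + u) k x := by
  unfold Del
  rw [add_assoc q u v]; ring

theorem Del_zero (q : ι → ℝ) (k : ℕ) (x : ℝ) : Del ν bb ρ 0 q k x = 0 := by
  unfold Del; simp

theorem Mk_eq_mix (u v q : ι → ℝ) (k : ℕ) (x : ℝ) :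
    Mk ν bb ρ u v q k x = 2 ^ k * Mix ν ((1 / 2 : ℝ) ^ k • u) ((1 / 2 : ℝ) ^ k • v)
      (bb + x • ρ + (1 / 2 : ℝ) ^ k • q) := by
  unfold Mk Del Mix
  have e1 : bb + x • ρ + (1 / 2 : ℝ) ^ k • (q + u) =
      bb + x • ρ + (1 / 2 : ℝ) ^ k • q + (1 / 2 : ℝ) ^ k • u := by rw [smul_add]; abel
  have e2 : bb + x • ρ + (1 / 2 : ℝ) ^ k • (q + v) =
      bb + x • ρ + (1 / 2 : ℝ) ^ k • q + (1 / 2 : ℝ) ^ k • v := by rw [smul_add]; abel
  have e3 : bb + x • ρ + (1 / 2 : ℝ) ^ k • (q + v + u) =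
      bb + x • ρ + (1 / 2 : ℝ) ^ k • q + (1 / 2 : ℝ) ^ k • u + (1 / 2 : ℝ) ^ k • v := by
    rw [smul_add, smul_add]; abel
  rw [e1, e2, e3]; ring

theorem Mk_symm (u v q : ι → ℝ) (k : ℕ) (x : ℝ) :
    Mk ν bb ρ u v q k x = Mk ν bb ρ v u q k x := by
  rw [Mk_eq_mix, Mk_eq_mix, Dg262.mix_symm]

/-- exact supermodularity -/
theorem pos_mix (D : RD ν P K g a b wv Lc rk rm lam r bb κ0 x₀ δ rr) {u v q : ι → ℝ}
    (hu : ∀ l, 0 ≤ u l) (hv : ∀ l, 0 ≤ v l) (huv : ∀ l, u l = 0 ∨ v l = 0)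
    (h0 : q ∈ Reg a b Lc lam κ0) (h1 : q + u ∈ Reg a b Lc lam κ0)
    (h2 : q + v ∈ Reg a b Lc lam κ0) (h3 : q + u + v ∈ Reg a b Lc lam κ0) :
    Pos x₀ δ (Mk ν bb (Tn a b r) u v q) := by
  set M : ℝ := ‖q‖ + ‖u‖ + ‖v‖ with hM
  have hM0 : 0 ≤ M := by positivity
  obtain ⟨k₀, hk₀⟩ := (small_ev (C := M) D.rp).exists_forall_of_atTop
  refine Pos.of_ev (Mk_ob D.Kn D.lip u v q) k₀ fun k hk x hx => ?_
  rw [Mk_eq_mix]
  refine mul_nonneg (by positivity) ?_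
  have hh := hpow_pos k
  have hMk : M * (1 / 2) ^ k ≤ rr := hk₀ k hk
  have mem : ∀ s : ι → ℝ, s ∈ Reg a b Lc lam κ0 → ‖s‖ ≤ M →
      bb + x • Tn a b r + (1 / 2 : ℝ) ^ k • s ∈ P := by
    intro s hs hsM
    refine D.leg x hx _ (reg_smul D.rw hs hh) fun i => ?_
    rw [Pi.smul_apply, smul_eq_mul, abs_mul, abs_of_pos hh]
    have h5 : |s i| ≤ M := by
      have := norm_le_pi_norm s i
      rw [Real.norm_eq_abs] at this
      exact this.trans hsM
    calc (1 / 2 : ℝ) ^ k * |s i| ≤ (1 / 2) ^ k * M := mul_le_mul_of_nonneg_left h5 hh.le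
      _ ≤ rr := by rw [mul_comm]; exact hMk
  have n0 := norm_nonneg q
  have n1 := norm_nonneg u
  have n2 := norm_nonneg v
  refine Dg262.mix_nonneg D.sup (fun l => ?_) (fun l => ?_) (fun l => ?_) ?_ ?_ ?_ ?_
  · exact mul_nonneg hh.le (hu l)
  · exact mul_nonneg hh.le (hv l)
  · rcases huv l with h | h
    · left; rw [Pi.smul_apply, h, smul_zero]
    · right; rw [Pi.smul_apply, h, smul_zero]
  · exact mem q h0 (by rw [hM]; linarith)
  · rw [add_assoc, ← smul_add]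
    exact mem _ h1 ((norm_add_le _ _).trans (by rw [hM]; linarith))
  · rw [add_assoc, ← smul_add]
    exact mem _ h2 ((norm_add_le _ _).trans (by rw [hM]; linarith))
  · rw [add_assoc, add_assoc, ← smul_add, ← smul_add, ← add_assoc]
    refine mem _ h3 ((norm_add_le _ _).trans ?_)
    have := norm_add_le q u
    rw [hM]; linarith

end

end Crest.Agent.R136.Rb741
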