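import Crest.Agent.R136.Rb2_741

/-!
# R136: record blow-up, part 3 (helper741): comparison of positions

`lower` : an increment of coordinates of the group `m` does not see the earlier coordinates.
`small` : it decreases, up to negligible, if the later coordinates are raised (same reference).
`seg`   : the same between two arbitrary positions near the half plane.
-/

set_option autoImplicit false
set_option linter.unusedSectionVars false

open Set Filter Topology MeasureTheory

namespace Crest.Agent.R136.Rb741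

open Dec146 (tent)
open Dg219 (Tn)
open Dg262 (Mix Inc SupOn Grp)

variable {ι : Type*} [Fintype ι] [DecidableEq ι]

section

variable {ν : (ι → ℝ) → ℝ} {P : Set (ι → ℝ)} {K : ℝ} {g : ι → ℕ} {a b : ι → ℝ}
  {wv : ℕ → ℝ × ℝ} {Lc : Set (ι → ℝ)} {rk : ι → ℕ} {rm : ℕ → ι → ℝ} {lam r : ℝ × ℝ}
  {bb : ι → ℝ} {κ0 x₀ δ rr : ℝ}

/-- monotone chain of single raises inside the wall cone -/
theorem chain (hR : RW g a b Lc rk rm) {c d : ι → ℝ} (hcd : c ≤ d) (E : Set (ι → ℝ))
    (hc : ∀ e ∈ E, c + e ∈ Lc) (hd : ∀ e ∈ E, d + e ∈ Lc) (Q : (ι → ℝ) → Prop) (h0 : Q c)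
    (hs : ∀ y i t, c ≤ y → y + Pi.single i t ≤ d → 0 < t → t = d i - c i →
      (∀ e ∈ E, y + e ∈ Lc) → (∀ e ∈ E, y + Pi.single i t + e ∈ Lc) → Q y →
      Q (y + Pi.single i t)) : Q d := by
  have main : ∀ (n : ℕ) (y : ι → ℝ), (Finset.univ.filter fun j => y j ≠ d j).card = n → c ≤ y →
      y ≤ d → (∀ j, y j = c j ∨ y j = d j) → (∀ e ∈ E, y + e ∈ Lc) → Q y → Q d := by
    intro n
    induction n with
    | zero =>
      intro y hn _ _ _ _ hQ
      have : y = d := by
        funext j
        by_contra hj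
        have : j ∈ Finset.univ.filter fun j => y j ≠ d j := by simp [hj]
        rw [Finset.card_eq_zero.1 hn] at this
        simp at this
      rwa [← this]
    | succ n ih =>
      intro y hn hcy hyd hcd' hE hQ
      have hne : (Finset.univ.filter fun j => y j ≠ d j).Nonempty := by
        rw [← Finset.card_pos, hn]; omega
      obtain ⟨i, hi, hmin⟩ := Finset.exists_min_image _ rk hne
      have hi' : y i ≠ d i := by simpa using hi
      have hyi : y i = c i := (hcd' i).resolve_right hi'
      have ht : 0 < d i - c i := by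
        have := hyd i
        rw [hyi] at this hi'
        exact sub_pos.2 (lt_of_le_of_ne this hi')
      set y' : ι → ℝ := y + Pi.single i (d i - c i) with hy'
      have hy'i : y' i = d i := by simp [hy', hyi]
      have hy'j : ∀ j, j ≠ i → y' j = y j := by
        intro j hj; simp [hy', Pi.single_eq_of_ne hj]
      have hy'd : y' ≤ d := by
        intro j
        by_cases hj : j = i
        · subst hj; rw [hy'i]
        · rw [hy'j j hj]; exact hyd j
      have hE' : ∀ e ∈ E, y' + e ∈ Lc := by
        intro e he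
        have h1 : y' + e = Function.update (y + e) i ((d + e) i) := by
          funext j
          by_cases hj : j = i
          · subst hj; simp [hy'i]
          · rw [Function.update_of_ne hj, Pi.add_apply, hy'j j hj, Pi.add_apply]
        rw [h1]
        refine hR.raise _ (hE e he) _ (hd e he) (fun j => ?_) i fun j hj => ?_
        · exact add_le_add (hyd j) le_rfl
        · have : y j = d j := by
            by_contra hj'
            have := hmin j (by simp [hj'])
            omega
          rw [Pi.add_apply, Pi.add_apply, this]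
      refine ih y' ?_ ?_ hy'd ?_ hE' ?_
      · have h2 : (Finset.univ.filter fun j => y' j ≠ d j) =
            (Finset.univ.filter fun j => y j ≠ d j).erase i := by
          ext j
          simp only [Finset.mem_filter, Finset.mem_univ, true_and, Finset.mem_erase]
          by_cases hj : j = i
          · subst hj; simp [hy'i]
          · rw [hy'j j hj]; simp [hj]
        rw [h2, Finset.card_erase_of_mem hi, hn]; rfl
      · intro j
        by_cases hj : j = i
        · subst hj; rw [hy'i]; exact hcd j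
        · rw [hy'j j hj]; exact hcy j
      · intro j
        by_cases hj : j = i
        · subst hj; right; exact hy'i
        · rw [hy'j j hj]; exact hcd' j
      · exact hs y i _ hcy hy'd ht rfl hE hE' hQ
  exact main _ c rfl le_rfl hcd (fun j => Or.inl rfl) hc h0

/-- inner chain: the increment `z` at `y` and at `y + γ e_i` -/
theorem lower_step (D : RD ν P K g a b wv Lc rk rm lam r bb κ0 x₀ δ rr) {m : ℕ} {κ : ℝ}
    (hP : PP ν g a b Lc lam bb (Tn a b r) x₀ δ m κ) {w : ℝ × ℝ} (hw : lin lam w < 0)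
    {y z : ι → ℝ} {i : ι} {t : ℝ} (gi : g i < m)
    (hzm : ∀ l, g l ≠ m → z l = 0) (hz : ∀ l, 0 ≤ z l) (ht : 0 ≤ t) (htκ : t ≤ κ * (-lin lam w))
    (hzκ : ∀ l, z l ≤ κ * (-lin lam w))
    (bd : ∀ q : ι → ℝ, y ≤ q → q ≤ y + z → ∀ l, |q l - Tn a b w l| ≤ κ * (-lin lam w))
    (h1 : y - Tn a b w ∈ Lc) (h2 : y + z - Tn a b w ∈ Lc)
    (h3 : y + Pi.single i t - Tn a b w ∈ Lc) (h4 : y + z + Pi.single i t - Tn a b w ∈ Lc) :
    Neg x₀ δ fun k x => Del ν bb (Tn a b r) z y k x -
      Del ν bb (Tn a b r) z (y + Pi.single i t) k x := by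
  have hO : ∀ u q, Ob (Del ν bb (Tn a b r) u q) := fun u q => Del_ob D.Kn D.lip u q
  obtain ⟨Q, hQ⟩ : ∃ Q : (ι → ℝ) → Prop, ∀ y', Q y' ↔ Neg x₀ δ fun k x =>
      Del ν bb (Tn a b r) (y' - y) y k x -
          Del ν bb (Tn a b r) (y' - y) (y + Pi.single i t) k x := ⟨_, fun _ => Iff.rfl⟩
  have hle : y ≤ y + z := fun l => by have := hz l; simp; linarith
  have main : Q (y + z) := by
    refine chain D.rw hle {-Tn a b w, Pi.single i t - Tn a b w} ?_ ?_ Q ?_ ?_
    · intro e he
      rcases he with rfl | he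
      · rwa [← sub_eq_add_neg]
      · rw [mem_singleton_iff.1 he, ← add_sub_assoc]; exact h3
    · intro e he
      rcases he with rfl | he
      · rwa [← sub_eq_add_neg]
      · rw [mem_singleton_iff.1 he, ← add_sub_assoc]; exact h4
    · refine (hQ _).2 (Neg.zero.congr fun k x => ?_)
      rw [sub_self, Del_zero, Del_zero, sub_zero]
    · intro y' j α hy1 hy2 hα hαj hF hF' hQ'
      rw [hQ] at hQ' ⊢
      have gj : g j = m := by
        by_contra h
        have := hzm j h
        rw [Pi.add_apply, this] at hαj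
        linarith
      have hαz : α = z j := by rw [hαj, Pi.add_apply]; ring
      have hm : Neg x₀ δ (Mk ν bb (Tn a b r) (Pi.single i t) (Pi.single j α) y') := by
        have e0 : y' = Tn a b w + (y' - Tn a b w) := by abel
        rw [e0]
        refine hP i j gi (by omega) w (y' - Tn a b w) t α hw ?_ ht htκ hα.le ?_ ?_ ?_
          ?_ ?_
        · intro l
          refine bd y' hy1 (fun l => ?_) l
          have e1 := hy2 l
          have h0 : 0 ≤ (Pi.single j α : ι → ℝ) l := Dg262.single_nonneg hα.le l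
          simp only [Pi.add_apply] at e1 ⊢
          linarith
        · rw [hαz]; exact hzκ j
        · have := hF _ (Or.inl rfl)
          rwa [← sub_eq_add_neg] at this
        · have := hF _ (Or.inr rfl)
          have e1 : y' - Tn a b w + Pi.single i t = y' + (Pi.single i t - Tn a b w) := by abel
          rwa [e1]
        · have := hF' _ (Or.inl rfl)
          have e1 : y' - Tn a b w + Pi.single j α = y' + Pi.single j α + -Tn a b w := by abel
          rwa [e1]
        · have := hF' _ (Or.inr rfl)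
          have e1 : y' - Tn a b w + Pi.single i t + Pi.single j α =
              y' + Pi.single j α + (Pi.single i t - Tn a b w) := by abel
          rwa [e1]
      have hm' : Neg x₀ δ (Mk ν bb (Tn a b r) (Pi.single j α) (Pi.single i t) y') :=
        hm.congr fun k x => Mk_symm _ _ _ _ _
      have := Neg.add ((hO _ _).sub (hO _ _)) (Mk_ob D.Kn D.lip _ _ _) hQ' hm'
      refine this.congr fun k x => ?_
      have e1 : y' + Pi.single j α - y = (y' - y) + Pi.single j α := by abel
      rw [e1, Del_add, Del_add]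
      unfold Mk
      have e2 : y + (y' - y) = y' := by abel
      have e3 : y + Pi.single i t + (y' - y) = y' + Pi.single i t := by abel
      rw [e2, e3]; ring
  have e1 : y + z - y = z := by abel
  rw [hQ, e1] at main
  exact main

/-- an increment of the group `m` does not see the earlier coordinates -/
theorem lower (D : RD ν P K g a b wv Lc rk rm lam r bb κ0 x₀ δ rr) {m : ℕ} {κ : ℝ}
    (hP : PP ν g a b Lc lam bb (Tn a b r) x₀ δ m (2 * κ)) {w : ℝ × ℝ} {p p' z : ι → ℝ}
    (hzm : ∀ l, g l ≠ m → z l = 0) (hz : ∀ l, 0 ≤ z l)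
    (h1 : RegW a b Lc lam κ w p) (h2 : RegW a b Lc lam κ w (p + z))
    (h3 : RegW a b Lc lam κ w p') (h4 : RegW a b Lc lam κ w (p' + z)) (hle : p ≤ p')
    (hd : ∀ l, m ≤ g l → p l = p' l) :
    Neg x₀ δ fun k x => Del ν bb (Tn a b r) z p k x - Del ν bb (Tn a b r) z p' k x := by
  have hO : ∀ u q, Ob (Del ν bb (Tn a b r) u q) := fun u q => Del_ob D.Kn D.lip u q
  have hlin := h1.1
  have bd : ∀ y : ι → ℝ, p ≤ y → y ≤ p' + z → ∀ l, |y l - Tn a b w l| ≤ 2 * κ * (-lin lam w) := by
    intro y hy1 hy2 l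
    have e1 := abs_le.1 (h1.2.2 l)
    have e2 := abs_le.1 (h4.2.2 l)
    have e3 := hy1 l
    have e4 := hy2 l
    have e5 : 0 ≤ κ * (-lin lam w) := (abs_nonneg _).trans (h1.2.2 l)
    rw [abs_le]; constructor <;> linarith [e1.1, e1.2, e2.1, e2.2]
  obtain ⟨Q, hQd⟩ : ∃ Q : (ι → ℝ) → Prop, ∀ y, Q y ↔ Neg x₀ δ fun k x =>
      Del ν bb (Tn a b r) z p k x - Del ν bb (Tn a b r) z y k x := ⟨_, fun _ => Iff.rfl⟩
  suffices H : Q p' from (hQd p').1 H
  refine chain D.rw hle {-Tn a b w, z - Tn a b w} ?_ ?_ Q ?_ ?_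
  rotate_left 2
  · exact (hQd p).2 (Neg.zero.congr fun k x => by ring)
  · intro y i t hpy hyp' ht hti hE hE' hQ
    rw [hQd] at hQ ⊢
    have gi : g i < m := by
      by_contra h
      have := hd i (by omega)
      rw [← this] at hti
      linarith
    have hyp : y ≤ p' := fun l => by
      have := hyp' l
      have h0 : 0 ≤ (Pi.single i t : ι → ℝ) l := Dg262.single_nonneg ht.le l
      simp only [Pi.add_apply] at this
      linarith
    have step : Neg x₀ δ fun k x => Del ν bb (Tn a b r) z y k x -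
        Del ν bb (Tn a b r) z (y + Pi.single i t) k x := by
      refine lower_step D hP (w := w) (by linarith) gi hzm hz ht.le ?_ ?_ ?_ ?_ ?_ ?_ ?_
      · have e1 := abs_le.1 (h1.2.2 i)
        have e2 := abs_le.1 (h3.2.2 i)
        rw [hti]; linarith [e1.1, e1.2, e2.1, e2.2]
      · intro l
        have e1 := abs_le.1 (h1.2.2 l)
        have e2 := abs_le.1 (h2.2.2 l)
        rw [Pi.add_apply] at e2
        linarith [e1.1, e1.2, e2.1, e2.2]
      · intro q hq1 hq2
        exact bd q (hpy.trans hq1) (hq2.trans (add_le_add hyp le_rfl))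
      · have := hE _ (Or.inl rfl)
        rwa [← sub_eq_add_neg] at this
      · have := hE _ (Or.inr rfl)
        rwa [← add_sub_assoc] at this
      · have := hE' _ (Or.inl rfl)
        rwa [← sub_eq_add_neg] at this
      · have := hE' _ (Or.inr rfl)
        have e1 : y + z + Pi.single i t - Tn a b w = y + Pi.single i t + (z - Tn a b w) := by abel
        rwa [e1]
    have := Neg.add ((hO _ _).sub (hO _ _)) ((hO _ _).sub (hO _ _)) hQ step
    exact this.congr fun k x => by ring
  · intro e he
    rcases he with rfl | he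
    · rw [← sub_eq_add_neg]; exact h1.2.1
    · rw [mem_singleton_iff.1 he, ← add_sub_assoc]; exact h2.2.1
  · intro e he
    rcases he with rfl | he
    · rw [← sub_eq_add_neg]; exact h3.2.1
    · rw [mem_singleton_iff.1 he, ← add_sub_assoc]; exact h4.2.1

/-- comparison of two positions with the same reference point -/
theorem small (D : RD ν P K g a b wv Lc rk rm lam r bb κ0 x₀ δ rr) {m : ℕ} {κ : ℝ}
    (hκ0 : κ ≤ κ0)
    (hP : PP ν g a b Lc lam bb (Tn a b r) x₀ δ m (2 * κ)) {w : ℝ × ℝ} {p p' z : ι → ℝ}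
    (hzm : ∀ l, g l ≠ m → z l = 0) (hz : ∀ l, 0 ≤ z l)
    (h1 : RegW a b Lc lam κ w p) (h2 : RegW a b Lc lam κ w (p + z))
    (h3 : RegW a b Lc lam κ w p') (h4 : RegW a b Lc lam κ w (p' + z))
    (hG : ∀ l, g l = m → p l = p' l) (hl : ∀ l, m < g l → p l ≤ p' l) :
    Pos x₀ δ fun k x => Del ν bb (Tn a b r) z p k x - Del ν bb (Tn a b r) z p' k x := by
  have hO : ∀ u q, Ob (Del ν bb (Tn a b r) u q) := fun u q => Del_ob D.Kn D.lip u q
  have hsup : ∀ q q' : ι → ℝ, RegW a b Lc lam κ w q → RegW a b Lc lam κ w q' →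
      RegW a b Lc lam κ w (q ⊔ q') := by
    intro q q' hq hq'
    refine ⟨hq.1, ?_, fun i => ?_⟩
    · have := D.rw.sup _ hq.2.1 _ hq'.2.1
      rwa [← sup_sub] at this
    · rw [Pi.sup_apply]
      rcases le_total (q i) (q' i) with h | h
      · rw [sup_eq_right.2 h]; exact hq'.2.2 i
      · rw [sup_eq_left.2 h]; exact hq.2.2 i
  have e1 : p ⊔ p' + z = (p + z) ⊔ (p' + z) := sup_add _ _ _
  have h5 := hsup _ _ h1 h3
  have h6 : RegW a b Lc lam κ w (p ⊔ p' + z) := by rw [e1]; exact hsup _ _ h2 h4
  have A1 : Pos x₀ δ fun k x => Del ν bb (Tn a b r) z p k x -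
      Del ν bb (Tn a b r) z (p ⊔ p') k x := by
    have e2 : p + (p ⊔ p' - p) = p ⊔ p' := by abel
    have := pos_mix D (u := z) (v := p ⊔ p' - p) (q := p) hz (fun l => ?_) (fun l => ?_)
      (h1.mono hκ0).reg (h2.mono hκ0).reg ?_ ?_
    · unfold Mk at this
      rw [e2] at this
      exact this
    · have : p l ≤ (p ⊔ p') l := le_sup_left
      rw [Pi.sub_apply]; linarith
    · by_cases hlm : g l = m
      · right
        rw [Pi.sub_apply, Pi.sup_apply, ← hG l hlm, sup_idem, sub_self]
      · left; exact hzm l hlm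
    · rw [e2]; exact (h5.mono hκ0).reg
    · have e3 : p + z + (p ⊔ p' - p) = p ⊔ p' + z := by abel
      rw [e3]; exact (h6.mono hκ0).reg
  have A2 : Neg x₀ δ fun k x => Del ν bb (Tn a b r) z p' k x -
      Del ν bb (Tn a b r) z (p ⊔ p') k x := by
    refine lower D hP hzm hz h3 h4 h5 h6 le_sup_right fun l hlm => ?_
    rw [Pi.sup_apply]
    rcases hlm.eq_or_lt with h | h
    · rw [hG l h.symm, sup_idem]
    · rw [sup_eq_right.2 (hl l h)]
  have A3 := Pos.add ((hO _ _).sub (hO _ _)) ((hO _ _).sub (hO _ _)).neg A1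
    (A2.neg.pos ((hO _ _).sub (hO _ _)).neg)
  exact A3.congr fun k x => by ring

theorem near_step (hR : RW g a b Lc rk rm) {κ : ℝ} (hκ : 0 < κ) {w w' : ℝ × ℝ}
    (h : 0 < -lin lam w) (h' : 0 < -lin lam w') :
    ∃ N : ℕ, 0 < N ∧ ∀ s t : ℝ, 0 ≤ s → s ≤ t → t ≤ 1 → (t - s) * N ≤ 1 → ∀ q q' : ι → ℝ,
      RegW a b Lc lam κ w q → RegW a b Lc lam κ w' q' →
      RegW a b Lc lam (2 * κ) ((1 - s) • w + s • w') ((1 - t) • q + t • q') := by
  set μ := min (-lin lam w) (-lin lam w') with hμ
  have hμ0 : 0 < μ := lt_min h h'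
  set M : ℝ := κ * |lin lam (w' - w)| + ‖Tn a b (w' - w)‖ with hM
  have hM0 : 0 ≤ M := by positivity
  obtain ⟨N, hN⟩ := exists_nat_gt (M / (κ * μ))
  have hκμ : 0 < κ * μ := by positivity
  have hN' : M < N * (κ * μ) := by rwa [div_lt_iff₀ hκμ] at hN
  have hN0 : 0 < (N : ℝ) := lt_of_le_of_lt (by positivity) hN
  refine ⟨N, by exact_mod_cast hN0, ?_⟩
  intro s t hs hst ht hts q q' hq hq'
  have H := RegW.seg hR hq hq' (hs.trans hst) ht
  have eW : (1 - t) • w + t • w' = (1 - s) • w + s • w' + (t - s) • (w' - w) := by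
    ext <;> simp <;> ring
  have hls : μ ≤ -lin lam ((1 - s) • w + s • w') := by
    rw [lin_comb]
    have e1 : μ ≤ -lin lam w := min_le_left _ _
    have e2 : μ ≤ -lin lam w' := min_le_right _ _
    nlinarith
  have eT : (1 - t) • q + t • q' - Tn a b ((1 - s) • w + s • w') =
      ((1 - t) • q + t • q' - Tn a b ((1 - t) • w + t • w')) + Tn a b ((t - s) • (w' - w)) := by
    have := congrArg (Tn a b) eW
    rw [Tn_add a b _ ((t - s) • (w' - w))] at this
    rw [this]; abel
  have hsm : (t - s) * M ≤ κ * μ := by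
    have : (t - s) * M ≤ (t - s) * (N * (κ * μ)) :=
      mul_le_mul_of_nonneg_left hN'.le (by linarith)
    nlinarith
  refine ⟨by linarith, ?_, fun i => ?_⟩
  · rw [eT]; exact hR.add _ H.2.1 _ (hR.nat _)
  · have e1 : ((1 - t) • q + t • q') i - Tn a b ((1 - s) • w + s • w') i =
        (((1 - t) • q + t • q') i - Tn a b ((1 - t) • w + t • w') i) +
          (t - s) * Tn a b (w' - w) i := by
      have := congrFun eT i
      rw [Tn_smul] at this
      simpa using this
    rw [e1]
    have e2 := H.2.2 i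
    have e3 : lin lam ((1 - t) • w + t • w') =
        lin lam ((1 - s) • w + s • w') + (t - s) * lin lam (w' - w) := by
      rw [eW, lin_add, lin_smul]
    rw [e3] at e2
    have e4 : |(t - s) * Tn a b (w' - w) i| ≤ (t - s) * ‖Tn a b (w' - w)‖ := by
      rw [abs_mul, abs_of_nonneg (by linarith : 0 ≤ t - s)]
      refine mul_le_mul_of_nonneg_left ?_ (by linarith)
      have := norm_le_pi_norm (Tn a b (w' - w)) i
      rwa [Real.norm_eq_abs] at this
    have e5 := abs_add_le (((1 - t) • q + t • q') i - Tn a b ((1 - t) • w + t • w') i)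
      ((t - s) * Tn a b (w' - w) i)
    have e6 : κ * (-(lin lam ((1 - s) • w + s • w') + (t - s) * lin lam (w' - w))) ≤
        κ * (-lin lam ((1 - s) • w + s • w')) + (t - s) * (κ * |lin lam (w' - w)|) := by
      have := neg_abs_le (lin lam (w' - w))
      have h7 : 0 ≤ (t - s) * κ := mul_nonneg (by linarith) hκ.le
      nlinarith
    have e7 : (t - s) * (κ * |lin lam (w' - w)|) + (t - s) * ‖Tn a b (w' - w)‖ ≤ κ * μ := by
      rw [← mul_add]; exact hsm
    have e8 : κ * μ ≤ κ * (-lin lam ((1 - s) • w + s • w')) :=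
      mul_le_mul_of_nonneg_left hls hκ.le
    linarith

/-- comparison of two positions -/
theorem seg (D : RD ν P K g a b wv Lc rk rm lam r bb κ0 x₀ δ rr) {m : ℕ} {κ : ℝ}
    (hκ : 0 < κ) (hκ0 : 2 * κ ≤ κ0)
    (hP : PP ν g a b Lc lam bb (Tn a b r) x₀ δ m (4 * κ)) {w w' : ℝ × ℝ} {p p' z : ι → ℝ}
    (hzm : ∀ l, g l ≠ m → z l = 0) (hz : ∀ l, 0 ≤ z l)
    (h1 : RegW a b Lc lam κ w p) (h2 : RegW a b Lc lam κ w (p + z))
    (h3 : RegW a b Lc lam κ w' p') (h4 : RegW a b Lc lam κ w' (p' + z))
    (hG : ∀ l, g l = m → p l = p' l) (hl : ∀ l, m < g l → p l ≤ p' l) :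
    Pos x₀ δ fun k x => Del ν bb (Tn a b r) z p k x - Del ν bb (Tn a b r) z p' k x := by
  have hO : ∀ u q, Ob (Del ν bb (Tn a b r) u q) := fun u q => Del_ob D.Kn D.lip u q
  obtain ⟨N, hN, hstep⟩ := near_step (w := w) (w' := w') D.rw hκ h1.1 h3.1
  have hN' : (0 : ℝ) < N := by exact_mod_cast hN
  have main : ∀ n : ℕ, n ≤ N → Pos x₀ δ fun k x => Del ν bb (Tn a b r) z p k x -
      Del ν bb (Tn a b r) z ((1 - (n : ℝ) / N) • p + ((n : ℝ) / N) • p') k x := by
    intro n
    induction n with
    | zero =>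
      intro _
      refine (Neg.zero.pos Ob.zero).congr fun k x => ?_
      simp
    | succ n ih =>
      intro hn
      have hI := ih (by omega)
      set s : ℝ := (n : ℝ) / N with hs
      set t : ℝ := ((n + 1 : ℕ) : ℝ) / N with ht
      have hs0 : 0 ≤ s := by positivity
      have hst : s ≤ t := by
        rw [hs, ht]; push_cast
        exact div_le_div_of_nonneg_right (by linarith) hN'.le
      have ht1 : t ≤ 1 := by
        rw [ht, div_le_one hN']; exact_mod_cast hn
      have hts : (t - s) * N ≤ 1 := by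
        rw [hs, ht]; push_cast
        field_simp; linarith
      have es : ∀ s : ℝ, (1 - s) • p + s • p' + z = (1 - s) • (p + z) + s • (p' + z) := by
        intro s; ext l; simp; ring
      have hsm := small D (m := m) (κ := 2 * κ) hκ0 (by rwa [← mul_assoc, show (2:ℝ) * 2 = 4 by
        norm_num]) (w := (1 - s) • w + s • w') (p := (1 - s) • p + s • p')
        (p' := (1 - t) • p + t • p') (z := z) hzm hz
        (hstep s s hs0 le_rfl (hst.trans ht1) (by simp) _ _ h1 h3)
        (by rw [es]; exact hstep s s hs0 le_rfl (hst.trans ht1) (by simp) _ _ h2 h4)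
        (hstep s t hs0 hst ht1 hts _ _ h1 h3)
        (by rw [es]; exact hstep s t hs0 hst ht1 hts _ _ h2 h4)
        (fun l hlm => by
          simp only [Pi.add_apply, Pi.smul_apply, smul_eq_mul, hG l hlm]; ring)
        (fun l hlm => by
          simp only [Pi.add_apply, Pi.smul_apply, smul_eq_mul]
          have := hl l hlm
          nlinarith)
      have := Pos.add ((hO _ _).sub (hO _ _)) ((hO _ _).sub (hO _ _)) hI hsm
      exact this.congr fun k x => by ring
  have := main N le_rfl
  rw [div_self hN'.ne'] at this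
  exact this.congr fun k x => by simp

end

end Crest.Agent.R136.Rb741
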