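import Crest.Agent.R136.Rb3_741

/-!
# R136: record blow-up, part 4 (helper741): steps of a whole group

`sgn` : if a legal offset vanishes on a group which is not parallel to the record line, its later
coordinates have a fixed sign. `dg1`, `dg2`, `dg3` : the step `y ρ` of the whole group does not see
the other coordinates (up to negligible).
-/

set_option autoImplicit false
set_option linter.unusedSectionVars false

open Set Filter Topology MeasureTheory

namespace Crest.Agent.R136.Rb741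

open Dec146 (tent)
open Dg219 (Tn)
open Dg262 (Mix Inc SupOn Grp)

variable {ι : Type*} [Fintype ι] [DecidableEq ι]

theorem exists_min {f : ι → ℝ} {p : ι → Prop} (h : ∀ l, p l → 0 < f l) :
    ∃ d : ℝ, 0 < d ∧ ∀ l, p l → d ≤ f l := by
  have h1 : ∀ᶠ d : ℝ in 𝓝[>] 0, ∀ l, p l → d ≤ f l := by
    refine Filter.eventually_all.2 fun l => ?_
    by_cases hl : p l
    · have : ∀ᶠ d : ℝ in 𝓝[>] 0, d ≤ f l :=
        nhdsWithin_le_nhds (ge_mem_nhds (h l hl))
      filter_upwards [this] with d hd _ using hd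
    · exact Eventually.of_forall fun d hl' => absurd hl' hl
  obtain ⟨d, hd, hd'⟩ := (h1.and self_mem_nhdsWithin).exists
  exact ⟨d, hd', hd⟩

/-- decomposition of the plane: direction of a group, direction of the record line -/
theorem basis {u r w : ℝ × ℝ} (h : u.1 * r.2 - u.2 * r.1 ≠ 0) :
    w = ((w.1 * r.2 - w.2 * r.1) / (u.1 * r.2 - u.2 * r.1)) • u +
      ((u.1 * w.2 - u.2 * w.1) / (u.1 * r.2 - u.2 * r.1)) • r := by
  ext
  · simp only [Prod.fst_add, Prod.smul_fst, smul_eq_mul]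
    rw [div_mul_eq_mul_div, div_mul_eq_mul_div, ← add_div, eq_div_iff h]; ring
  · simp only [Prod.snd_add, Prod.smul_snd, smul_eq_mul]
    rw [div_mul_eq_mul_div, div_mul_eq_mul_div, ← add_div, eq_div_iff h]; ring

section

variable {ν : (ι → ℝ) → ℝ} {P : Set (ι → ℝ)} {K : ℝ} {g : ι → ℕ} {a b : ι → ℝ}
  {wv : ℕ → ℝ × ℝ} {Lc : Set (ι → ℝ)} {rk : ι → ℕ} {rm : ℕ → ι → ℝ} {lam r : ℝ × ℝ}
  {bb : ι → ℝ} {κ0 x₀ δ rr : ℝ}

theorem det_ne (hg : Grp a b g wv) {i l : ι} (hi : Tn a b r i ≠ 0) (hl : g i < g l) :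
    (wv (g i)).1 * r.2 - (wv (g i)).2 * r.1 ≠ 0 := by
  intro h
  have h1 := hg.fix i
  have h2 := hg.up i l hl
  have h3 : a i * r.1 + b i * r.2 ≠ 0 := hi
  set u := wv (g i)
  -- (a i, b i) kills u; u parallel r; so it kills r unless u = 0
  have e1 : u.1 * (a i * r.1 + b i * r.2) = 0 := by linear_combination r.1 * h1 + b i * h
  have e2 : u.2 * (a i * r.1 + b i * r.2) = 0 := by linear_combination r.2 * h1 - a i * h
  have u1 : u.1 = 0 := (mul_eq_zero.1 e1).resolve_right h3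
  have u2 : u.2 = 0 := (mul_eq_zero.1 e2).resolve_right h3
  rw [u1, u2] at h2
  simp at h2

/-- sign of the later coordinates of a legal offset which vanishes on the group of `i` -/
theorem sgn (hg : Grp a b g wv) (hr : lin lam r = 0) {i l0 : ι} (hi : Tn a b r i ≠ 0)
    (hl0 : g i < g l0) :
    ∃ κs : ℝ, 0 < κs ∧ ∃ σ : ℝ, (σ = 1 ∨ σ = -1) ∧ ∀ κ : ℝ, κ ≤ κs → ∀ w q,
      RegW a b Lc lam κ w q → (∀ j, g j = g i → q j = 0) → ∀ l, g i < g l → 0 < σ * q l := by
  set u := wv (g i) with hu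
  have hdet := det_ne (r := r) hg hi hl0
  rw [← hu] at hdet
  obtain ⟨dm, hdm, hdm'⟩ := exists_min (f := Tn a b u) (p := fun l => g i < g l)
    fun l hl => hg.up i l hl
  have hTu : Tn a b u i = 0 := hg.fix i
  by_cases hlu : lin lam u = 0
  · refine ⟨1, one_pos, 1, Or.inl rfl, ?_⟩
    intro κ _ w q hq
    exfalso
    have h1 := hq.1
    rw [basis (w := w) hdet, lin_comb, hlu, hr] at h1
    simp at h1
  set θ : ℝ := |lin lam u| with hθ
  have hθ0 : 0 < θ := abs_pos.2 hlu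
  set Mr : ℝ := ‖Tn a b r‖ / |Tn a b r i| + 1 with hMr
  have hρi : 0 < |Tn a b r i| := abs_pos.2 hi
  have hMr0 : 0 < Mr := by positivity
  set σ : ℝ := if 0 < lin lam u then -1 else 1 with hσ
  have hσ1 : σ = 1 ∨ σ = -1 := by rw [hσ]; split_ifs <;> simp
  have hσu : σ * lin lam u = -θ := by
    rw [hσ, hθ]; split_ifs with h
    · rw [abs_of_pos h]; ring
    · rw [abs_of_nonpos (not_lt.1 h)]; ring
  have hσσ : σ * σ = 1 := by rcases hσ1 with h | h <;> rw [h] <;> norm_num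
  have hσa : |σ| = 1 := by rcases hσ1 with h | h <;> rw [h] <;> simp
  refine ⟨dm / θ / Mr / 2, by positivity, σ, hσ1, ?_⟩
  intro κ hκ w q hq hq0 l hl
  set τ : ℝ := (w.1 * r.2 - w.2 * r.1) / (u.1 * r.2 - u.2 * r.1) with hτ
  set μ : ℝ := (u.1 * w.2 - u.2 * w.1) / (u.1 * r.2 - u.2 * r.1) with hμ
  have hw : w = τ • u + μ • r := basis hdet
  have hlw : lin lam w = τ * lin lam u := by rw [hw, lin_comb, hr]; ring
  set H : ℝ := -lin lam w with hH
  have hH0 : 0 < H := hq.1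
  -- σ τ θ = H
  have hτH : σ * τ * θ = H := by
    have : σ * τ * θ = -(σ * σ) * (τ * lin lam u) + σ * τ * (θ + σ * lin lam u) := by ring
    rw [this, hσσ, hσu, hH, hlw]; ring
  have hTw : ∀ j, Tn a b w j = τ * Tn a b u j + μ * Tn a b r j := by
    intro j
    have := congrFun (Tn_comb a b u r τ μ) j
    rw [← hw] at this
    simpa using this
  have hκH : 0 ≤ κ * H := (abs_nonneg _).trans (hq.2.2 i)
  have h1 : |μ| * |Tn a b r i| ≤ κ * H := by
    have := hq.2.2 i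
    rw [hq0 i rfl, hTw i, hTu, mul_zero, zero_add, zero_sub, abs_neg, abs_mul] at this
    exact this
  have h2 : |μ * Tn a b r l| ≤ κ * H * (‖Tn a b r‖ / |Tn a b r i|) := by
    have e1 : |Tn a b r l| ≤ ‖Tn a b r‖ := by
      have := norm_le_pi_norm (Tn a b r) l
      rwa [Real.norm_eq_abs] at this
    rw [abs_mul]
    calc |μ| * |Tn a b r l| ≤ |μ| * ‖Tn a b r‖ := mul_le_mul_of_nonneg_left e1 (abs_nonneg _)
      _ = (|μ| * |Tn a b r i|) * (‖Tn a b r‖ / |Tn a b r i|) := by field_simp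
      _ ≤ κ * H * (‖Tn a b r‖ / |Tn a b r i|) := mul_le_mul_of_nonneg_right h1 (by positivity)
  have h3 := hq.2.2 l
  have h4 : |q l - τ * Tn a b u l| ≤ κ * H * Mr := by
    have e1 : q l - τ * Tn a b u l = (q l - Tn a b w l) + μ * Tn a b r l := by
      rw [hTw l]; ring
    rw [e1, hMr]
    have := abs_add_le (q l - Tn a b w l) (μ * Tn a b r l)
    have e2 : κ * H * (‖Tn a b r‖ / |Tn a b r i| + 1) =
      κ * H * (‖Tn a b r‖ / |Tn a b r i|) + κ * H := by ring
    rw [e2]; linarith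
  have h5 : |σ * (q l - τ * Tn a b u l)| ≤ κ * H * Mr := by
    rw [abs_mul, hσa, one_mul]; exact h4
  have h6 : H / θ * dm ≤ σ * τ * Tn a b u l := by
    have e1 : σ * τ = H / θ := by rw [eq_div_iff hθ0.ne']; exact hτH
    rw [e1]
    exact mul_le_mul_of_nonneg_left (hdm' l hl) (by positivity)
  have h7 : κ * H * Mr ≤ H / θ * dm / 2 := by
    have e1 : κ * Mr ≤ dm / θ / 2 := by
      calc κ * Mr ≤ dm / θ / Mr / 2 * Mr := mul_le_mul_of_nonneg_right hκ hMr0.le
        _ = dm / θ / 2 := by field_simp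
    calc κ * H * Mr = κ * Mr * H := by ring
      _ ≤ dm / θ / 2 * H := mul_le_mul_of_nonneg_right e1 hH0.le
      _ = H / θ * dm / 2 := by ring
  have h8 : 0 < H / θ * dm := by positivity
  have h9 := (abs_le.1 h5).1
  have e : σ * q l = σ * τ * Tn a b u l + σ * (q l - τ * Tn a b u l) := by ring
  rw [e]; linarith

/-- `seg` with a sign -/
theorem segs (D : RD ν P K g a b wv Lc rk rm lam r bb κ0 x₀ δ rr) {m : ℕ} {κ : ℝ}
    (hκ : 0 < κ) (hκ0 : 2 * κ ≤ κ0)
    (hP : PP ν g a b Lc lam bb (Tn a b r) x₀ δ m (4 * κ)) {w w' : ℝ × ℝ} {p p' z : ι → ℝ}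
    (hzm : ∀ l, g l ≠ m → z l = 0) (hz : ∀ l, 0 ≤ z l)
    (h1 : RegW a b Lc lam κ w p) (h2 : RegW a b Lc lam κ w (p + z))
    (h3 : RegW a b Lc lam κ w' p') (h4 : RegW a b Lc lam κ w' (p' + z))
    (hG : ∀ l, g l = m → p l = p' l) {σ : ℝ} (hσ : σ = 1 ∨ σ = -1)
    (hl : ∀ l, m < g l → 0 ≤ σ * (p' l - p l)) :
    Pos x₀ δ fun k x => σ * (Del ν bb (Tn a b r) z p k x - Del ν bb (Tn a b r) z p' k x) := by
  rcases hσ with rfl | rfl
  · exact (seg D hκ hκ0 hP hzm hz h1 h2 h3 h4 hG fun l hl' => by linarith [hl l hl']).congr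
      fun k x => by ring
  · exact (seg D hκ hκ0 hP hzm hz h3 h4 h1 h2 (fun l hl' => (hG l hl').symm)
      fun l hl' => by linarith [hl l hl']).congr fun k x => by ring

/-- whole group step: doubling -/
theorem dg1 (D : RD ν P K g a b wv Lc rk rm lam r bb κ0 x₀ δ rr) {m : ℕ} {κ : ℝ}
    (hκ : 0 < κ) (hκ0 : 2 * κ ≤ κ0)
    (hP : PP ν g a b Lc lam bb (Tn a b r) x₀ δ m (4 * κ)) {σ : ℝ} (hσ : σ = 1 ∨ σ = -1)
    (hs : ∀ w q, RegW a b Lc lam κ w q → (∀ j, g j = m → q j = 0) → ∀ l, m < g l → 0 < σ * q l)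
    {y : ℝ} {u : ι → ℝ} (hu : ∀ i, g i = m → u i = y * Tn a b r i)
    (hum : ∀ i, g i ≠ m → u i = 0) (hu0 : ∀ i, 0 ≤ u i) {w : ℝ × ℝ} {q : ι → ℝ}
    (h1 : RegW a b Lc lam κ w q) (h2 : RegW a b Lc lam κ w (q + u))
    (hq : ∀ i, g i = m → q i = 0) :
    Neg x₀ δ fun k x => Del ν bb (Tn a b r) u q k x -
      Del ν bb (Tn a b r) u ((2:ℝ) • q) k x := by
  have hO : ∀ u q, Ob (Del ν bb (Tn a b r) u q) := fun u q => Del_ob D.Kn D.lip u q
  have hσσ : σ * σ = 1 := by rcases hσ with h | h <;> rw [h] <;> norm_num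
  set p1 : ι → ℝ := (2:ℝ) • q with hp1
  set p2 : ι → ℝ := (2:ℝ) • q + u + (-y) • Tn a b r with hp2
  have R1 : RegW a b Lc lam κ ((2:ℝ) • w) p1 := RegW.smul D.rw h1 two_pos
  have R1' : RegW a b Lc lam κ ((2:ℝ) • w) (p1 + u) := by
    have := RegW.comb D.rw h1 h2 zero_le_one zero_le_one (by norm_num : (0:ℝ) < 1 + 1)
    have e1 : (1:ℝ) • w + (1:ℝ) • w = (2:ℝ) • w := by rw [one_smul, two_smul]
    have e2 : (1:ℝ) • q + (1:ℝ) • (q + u) = p1 + u := by
      rw [hp1, one_smul, one_smul, two_smul]; abel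
    rwa [e1, e2] at this
  have R2 : RegW a b Lc lam κ ((2:ℝ) • w + (-y) • r) p2 := RegW.shift D.rw D.lamr R1' (-y)
  have R2' : RegW a b Lc lam κ ((2:ℝ) • w + (-y) • r) (p2 + u) := by
    have := RegW.shift D.rw D.lamr (RegW.smul D.rw h2 two_pos) (-y)
    have e2 : (2:ℝ) • (q + u) + (-y) • Tn a b r = p2 + u := by
      rw [hp2, smul_add, two_smul ℝ u]; abel
    rwa [e2] at this
  have R3 : RegW a b Lc lam κ (w + (-y) • r) (q + u + (-y) • Tn a b r) :=
    RegW.shift D.rw D.lamr h2 (-y)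
  have s1 := hs _ _ h1 hq
  have s3 := hs _ _ R3 fun j hj => by
    simp only [Pi.add_apply, Pi.smul_apply, smul_eq_mul, hq j hj, hu j hj]; ring
  have B1 : Pos x₀ δ fun k x => σ * (Del ν bb (Tn a b r) u q k x -
      Del ν bb (Tn a b r) u p1 k x) := by
    refine segs D hκ hκ0 hP hum hu0 h1 h2 R1 R1' (fun l hl => ?_) hσ fun l hl => ?_
    · rw [hp1, Pi.smul_apply, hq l hl, smul_zero]
    · rw [hp1, Pi.smul_apply, smul_eq_mul]
      have := s1 l hl
      linarith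
  have B2 : Pos x₀ δ fun k x => σ * (Del ν bb (Tn a b r) u q k x -
      Del ν bb (Tn a b r) u p2 k x) := by
    refine segs D hκ hκ0 hP hum hu0 h1 h2 R2 R2' (fun l hl => ?_) hσ fun l hl => ?_
    · simp only [hp2, Pi.add_apply, Pi.smul_apply, smul_eq_mul, hq l hl, hu l hl]; ring
    · have := s3 l hl
      simp only [hp2, Pi.add_apply, Pi.smul_apply, smul_eq_mul, hum l (by omega)] at this ⊢
      linarith
  -- scales
  set c : ℕ → ℝ := fun k => (1 / 2) ^ (k + 1) * y with hc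
  have hcb : ∀ k, |c k| ≤ |y| * (1 / 2) ^ k := by
    intro k
    have : (0:ℝ) < (1 / 2) ^ k := by positivity
    rw [hc]; simp only
    rw [abs_mul, abs_of_pos (by positivity : (0:ℝ) < (1 / 2) ^ (k + 1)), pow_succ]
    nlinarith [abs_nonneg y]
  set A : ℕ → ℝ → ℝ := Del ν bb (Tn a b r) u q with hA
  have hAO : Ob A := hO _ _
  have hrec : ∀ k x, A k x = (Del ν bb (Tn a b r) u p1 (k + 1) x +
      Del ν bb (Tn a b r) u p2 (k + 1) (x + c k)) / 2 := by
    intro k x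
    rw [hA, Del_half, hp2]
    congr 2
    have e1 : (2:ℝ) • q + u = ((2:ℝ) • q + u + (-y) • Tn a b r) + y • Tn a b r := by
      rw [add_assoc, ← add_smul]; simp
    conv_lhs => rw [e1, Del_shift]
  have O1 : Ob fun k x => σ * (A k x - Del ν bb (Tn a b r) u p1 k x) :=
    (hAO.sub (hO _ _)).mul_const σ
  have O2 : Ob fun k x => σ * (A k x - Del ν bb (Tn a b r) u p2 k x) :=
    (hAO.sub (hO _ _)).mul_const σ
  have P1 := B1.succ
  have P2 := (Pos.shift O2 B2 hcb)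
  have O2s : Ob fun k x => σ * (A (k + 1) (x + c k) -
      Del ν bb (Tn a b r) u p2 (k + 1) (x + c k)) := (O2.succ).shift c
  have P2s : Pos x₀ δ fun k x => σ * (A (k + 1) (x + c k) -
      Del ν bb (Tn a b r) u p2 (k + 1) (x + c k)) :=
    Pos.shift (F := fun k x => σ * (A (k + 1) x - Del ν bb (Tn a b r) u p2 (k + 1) x))
      O2.succ B2.succ hcb
  have Psum := Pos.add O1.succ O2s P1 P2s
  have htel : Neg x₀ δ fun k x => (-σ) * A k x -
      ((-σ) * A (k + 1) x + (-σ) * A (k + 1) (x + c k)) / 2 := by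
    refine Neg.tel (A := fun k x => (-σ) * A k x) (hAO.mul_const (-σ)) (abs_nonneg y) hcb ?_
    have hh : Pos x₀ δ fun k x => (1 / 2 : ℝ) *
        (σ * (A (k + 1) x - Del ν bb (Tn a b r) u p1 (k + 1) x) +
          σ * (A (k + 1) (x + c k) - Del ν bb (Tn a b r) u p2 (k + 1) (x + c k))) := by
      refine Neg.of_le (((O1.succ.add O2s).mul_const (1/2)).npart) ((O1.succ.add O2s).npart)
        Psum 0 fun k _ x _ => ?_
      rw [abs_of_nonneg (le_max_right _ _), abs_of_nonneg (le_max_right _ _)]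
      have m1 := le_max_left (-(σ * (A (k + 1) x - Del ν bb (Tn a b r) u p1 (k + 1) x) +
          σ * (A (k + 1) (x + c k) - Del ν bb (Tn a b r) u p2 (k + 1) (x + c k)))) 0
      have m2 := le_max_right (-(σ * (A (k + 1) x - Del ν bb (Tn a b r) u p1 (k + 1) x) +
          σ * (A (k + 1) (x + c k) - Del ν bb (Tn a b r) u p2 (k + 1) (x + c k)))) 0
      exact max_le (by linarith) m2
    refine hh.congr fun k x => ?_
    rw [hrec k x]; ring
  have hsum : Neg x₀ δ fun k x => σ * (A (k + 1) x - Del ν bb (Tn a b r) u p1 (k + 1) x) +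
      σ * (A (k + 1) (x + c k) - Del ν bb (Tn a b r) u p2 (k + 1) (x + c k)) := by
    refine (htel.mul_const 2).congr fun k x => ?_
    rw [hrec k x]; ring
  have hN1 := Pos.left O1.succ O2s P1 P2s hsum
  have hN := Neg.of_succ (F := fun k x => σ * (A k x - Del ν bb (Tn a b r) u p1 k x)) hN1
  refine (hN.mul_const σ).congr fun k x => ?_
  rw [← mul_assoc, hσσ, one_mul]

/-- whole group step at two positions which vanish on the group -/
theorem dg2 (D : RD ν P K g a b wv Lc rk rm lam r bb κ0 x₀ δ rr) {m : ℕ} {κ : ℝ}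
    (hκ : 0 < κ) (hκ0 : 2 * κ ≤ κ0)
    (hP : PP ν g a b Lc lam bb (Tn a b r) x₀ δ m (4 * κ)) {σ : ℝ} (hσ : σ = 1 ∨ σ = -1)
    (hs : ∀ w q, RegW a b Lc lam κ w q → (∀ j, g j = m → q j = 0) → ∀ l, m < g l → 0 < σ * q l)
    {y : ℝ} {u : ι → ℝ} (hu : ∀ i, g i = m → u i = y * Tn a b r i)
    (hum : ∀ i, g i ≠ m → u i = 0) (hu0 : ∀ i, 0 ≤ u i) {w w' : ℝ × ℝ} {q q' : ι → ℝ}
    (h1 : RegW a b Lc lam κ w q) (h2 : RegW a b Lc lam κ w (q + u))
    (hq : ∀ i, g i = m → q i = 0)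
    (h1' : RegW a b Lc lam κ w' q') (h2' : RegW a b Lc lam κ w' (q' + u))
    (hq' : ∀ i, g i = m → q' i = 0) :
    Neg x₀ δ fun k x => Del ν bb (Tn a b r) u q k x - Del ν bb (Tn a b r) u q' k x := by
  have hO : ∀ u q, Ob (Del ν bb (Tn a b r) u q) := fun u q => Del_ob D.Kn D.lip u q
  have hσσ : σ * σ = 1 := by rcases hσ with h | h <;> rw [h] <;> norm_num
  have hpow : ∀ (N : ℕ) (w : ℝ × ℝ) (q : ι → ℝ), RegW a b Lc lam κ w q →
      RegW a b Lc lam κ w (q + u) →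
      RegW a b Lc lam κ ((2:ℝ) ^ N • w) ((2:ℝ) ^ N • q) ∧
      RegW a b Lc lam κ ((2:ℝ) ^ N • w) ((2:ℝ) ^ N • q + u) := by
    intro N w q h1 h2
    have h2N : (1:ℝ) ≤ 2 ^ N := one_le_pow₀ (by norm_num)
    refine ⟨RegW.smul D.rw h1 (by positivity), ?_⟩
    have := RegW.comb D.rw h1 h2 (sub_nonneg.2 h2N) zero_le_one (by linarith)
    have e1 : ((2:ℝ) ^ N - 1) • w + (1:ℝ) • w = (2:ℝ) ^ N • w := by rw [← add_smul]; simp
    have e2 : ((2:ℝ) ^ N - 1) • q + (1:ℝ) • (q + u) = (2:ℝ) ^ N • q + u := by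
      rw [one_smul, sub_smul, one_smul]; abel
    rwa [e1, e2] at this
  have hdb : ∀ (N : ℕ) (w : ℝ × ℝ) (q : ι → ℝ), RegW a b Lc lam κ w q →
      RegW a b Lc lam κ w (q + u) → (∀ i, g i = m → q i = 0) →
      Neg x₀ δ fun k x => Del ν bb (Tn a b r) u q k x -
        Del ν bb (Tn a b r) u ((2:ℝ) ^ N • q) k x := by
    intro N w q h1 h2 hq
    induction N with
    | zero => exact Neg.zero.congr fun k x => by simp
    | succ N ih =>
      obtain ⟨H1, H2⟩ := hpow N w q h1 h2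
      have := dg1 D hκ hκ0 hP hσ hs hu hum hu0 H1 H2 fun i hi => by
        rw [Pi.smul_apply, hq i hi, smul_zero]
      have := Neg.add ((hO _ _).sub (hO _ _)) ((hO _ _).sub (hO _ _)) ih this
      refine this.congr fun k x => ?_
      rw [smul_smul, pow_succ, mul_comm (2:ℝ) (2 ^ N)]; ring
  have half : ∀ (w w' : ℝ × ℝ) (q q' : ι → ℝ), RegW a b Lc lam κ w q →
      RegW a b Lc lam κ w (q + u) → (∀ i, g i = m → q i = 0) → RegW a b Lc lam κ w' q' →
      RegW a b Lc lam κ w' (q' + u) → (∀ i, g i = m → q' i = 0) →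
      Pos x₀ δ fun k x => σ * (Del ν bb (Tn a b r) u q' k x - Del ν bb (Tn a b r) u q k x) := by
    intro w w' q q' h1 h2 hq h1' h2' hq'
    have hN : ∃ N : ℕ, ∀ l, m < g l → |q' l| ≤ 2 ^ N * (σ * q l) := by
      have h3 : ∀ᶠ N : ℕ in atTop, ∀ l, m < g l → |q' l| ≤ 2 ^ N * (σ * q l) := by
        refine Filter.eventually_all.2 fun l => ?_
        by_cases hl : m < g l
        · have h4 : Tendsto (fun N : ℕ => (2:ℝ) ^ N * (σ * q l)) atTop atTop :=
            (tendsto_pow_atTop_atTop_of_one_lt (by norm_num)).atTop_mul_const (hs _ _ h1 hq l hl)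
          filter_upwards [h4.eventually_ge_atTop |q' l|] with N hN _ using hN
        · exact Eventually.of_forall fun N hl' => absurd hl' hl
      exact h3.exists
    obtain ⟨N, hN⟩ := hN
    obtain ⟨H1, H2⟩ := hpow N w q h1 h2
    have A1 := segs D hκ hκ0 hP hum hu0 h1' h2' H1 H2 (fun l hl => by
      rw [Pi.smul_apply, hq l hl, smul_zero, hq' l hl]) hσ fun l hl => by
        have h3 := hN l hl
        rw [Pi.smul_apply, smul_eq_mul]
        have h4 : |σ * q' l| = |q' l| := by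
          rw [abs_mul]
          rcases hσ with h | h <;> rw [h] <;> simp
        have h5 := (abs_le.1 h4.le).2
        nlinarith
    have A2 := hdb N w q h1 h2 hq
    have A3 : Neg x₀ δ fun k x => (-σ) * (Del ν bb (Tn a b r) u q k x -
        Del ν bb (Tn a b r) u ((2:ℝ) ^ N • q) k x) := A2.mul_const (-σ)
    have := Pos.add (((hO _ _).sub (hO _ _)).mul_const σ) (((hO _ _).sub (hO _ _)).mul_const (-σ))
      A1 (A3.pos (((hO _ _).sub (hO _ _)).mul_const (-σ)))
    exact this.congr fun k x => by ring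
  have H1 := half w w' q q' h1 h2 hq h1' h2' hq'
  have H2 := half w' w q' q h1' h2' hq' h1 h2 hq
  have H3 := Pos.antisymm (((hO _ _).sub (hO _ _)).mul_const σ) H2 (H1.congr fun k x => by ring)
  refine (H3.mul_const σ).congr fun k x => ?_
  rw [← mul_assoc, hσσ, one_mul]

/-- whole group step at two positions on the record line of the group -/
theorem dg3 (D : RD ν P K g a b wv Lc rk rm lam r bb κ0 x₀ δ rr) {m : ℕ} {κ : ℝ}
    (hκ : 0 < κ) (hκ0 : 2 * κ ≤ κ0)
    (hP : PP ν g a b Lc lam bb (Tn a b r) x₀ δ m (4 * κ)) {σ : ℝ} (hσ : σ = 1 ∨ σ = -1)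
    (hs : ∀ w q, RegW a b Lc lam κ w q → (∀ j, g j = m → q j = 0) → ∀ l, m < g l → 0 < σ * q l)
    {y : ℝ} {u : ι → ℝ} (hu : ∀ i, g i = m → u i = y * Tn a b r i)
    (hum : ∀ i, g i ≠ m → u i = 0) (hu0 : ∀ i, 0 ≤ u i) {w w' : ℝ × ℝ} {q q' : ι → ℝ} (s : ℝ)
    (h1 : RegW a b Lc lam κ w q) (h2 : RegW a b Lc lam κ w (q + u))
    (hq : ∀ i, g i = m → q i = -s * Tn a b r i)
    (h1' : RegW a b Lc lam κ w' q') (h2' : RegW a b Lc lam κ w' (q' + u))
    (hq' : ∀ i, g i = m → q' i = -s * Tn a b r i) :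
    Neg x₀ δ fun k x => Del ν bb (Tn a b r) u q k x - Del ν bb (Tn a b r) u q' k x := by
  have hO : ∀ u q, Ob (Del ν bb (Tn a b r) u q) := fun u q => Del_ob D.Kn D.lip u q
  have sh : ∀ (w : ℝ × ℝ) (q : ι → ℝ), RegW a b Lc lam κ w (q + u) →
      RegW a b Lc lam κ (w + s • r) (q + s • Tn a b r + u) := by
    intro w q h
    have := RegW.shift D.rw D.lamr h s
    have e : q + u + s • Tn a b r = q + s • Tn a b r + u := by abel
    rwa [e] at this
  have H := dg2 D hκ hκ0 hP hσ hs hu hum hu0 (RegW.shift D.rw D.lamr h1 s) (sh w q h2)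
    (fun i hi => by simp only [Pi.add_apply, Pi.smul_apply, smul_eq_mul, hq i hi]; ring)
    (RegW.shift D.rw D.lamr h1' s) (sh w' q' h2')
    (fun i hi => by simp only [Pi.add_apply, Pi.smul_apply, smul_eq_mul, hq' i hi]; ring)
  have := Neg.shift ((hO _ _).sub (hO _ _)) H (c := fun k => -((1 / 2) ^ k * s)) (C := |s|)
    (fun k => by rw [abs_neg, abs_mul, abs_of_pos (hpow_pos k)]; linarith)
  refine this.congr fun k x => ?_
  rw [Del_shift, Del_shift]
  have : x + -((1 / 2 : ℝ) ^ k * s) + (1 / 2) ^ k * s = x := by ring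
  rw [this]

end

end Crest.Agent.R136.Rb741
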