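import Crest.Agent.R136.Rb4_741

/-!
# R136: record blow-up, part 5 (helper741): decoupling at the record

`dom` : induction step for a group which is not parallel to the record line; `parl` : the same for a
parallel group. `pp_all` : all small mixed increments between different groups, at closed legal
offsets near the half plane, are negligible.
-/

set_option autoImplicit false
set_option linter.unusedSectionVars false

open Set Filter Topology MeasureTheory

namespace Crest.Agent.R136.Rb741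

open Dec146 (tent)
open Dg219 (Tn)
open Dg262 (Mix Inc SupOn Grp)

variable {ι : Type*} [Fintype ι] [DecidableEq ι]

section

variable {ν : (ι → ℝ) → ℝ} {P : Set (ι → ℝ)} {K : ℝ} {g : ι → ℕ} {a b : ι → ℝ}
  {wv : ℕ → ℝ × ℝ} {Lc : Set (ι → ℝ)} {rk : ι → ℕ} {rm : ℕ → ι → ℝ} {lam r : ℝ × ℝ}
  {bb : ι → ℝ} {κ0 x₀ δ rr : ℝ}

theorem PP.mono {m : ℕ} {κ κ' : ℝ} (hκ : κ ≤ κ')
    (h : PP ν g a b Lc lam bb (Tn a b r) x₀ δ m κ') :
    PP ν g a b Lc lam bb (Tn a b r) x₀ δ m κ := by
  intro i j hi hij w c α β hw hc hα hα' hβ hβ' h1 h2 h3 h4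
  have e : κ * (-lin lam w) ≤ κ' * (-lin lam w) := mul_le_mul_of_nonneg_right hκ (by linarith)
  exact h i j hi hij w c α β hw (fun l => (hc l).trans e) hα (hα'.trans e) hβ (hβ'.trans e)
    h1 h2 h3 h4

theorem regW_off {κ H : ℝ} {w : ℝ × ℝ} (hw : 0 < -lin lam w) {c : ι → ℝ} (hc : c ∈ Lc)
    (hcb : ∀ l, |c l| ≤ H) (hH : H ≤ κ * (-lin lam w)) :
    RegW a b Lc lam κ w (Tn a b w + c) := by
  refine ⟨hw, ?_, fun i => ?_⟩
  · rwa [add_sub_cancel_left]
  · have : (Tn a b w + c) i - Tn a b w i = c i := by rw [Pi.add_apply]; ring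
    rw [this]; exact (hcb i).trans hH

/-- mixed increment between the group `m`, parallel to the record line, and a later coordinate -/
theorem parl (D : RD ν P K g a b wv Lc rk rm lam r bb κ0 x₀ δ rr) {m : ℕ} {κ : ℝ}
    (hκ : 0 < κ) (hκ0 : 2 * κ ≤ κ0)
    (hP : PP ν g a b Lc lam bb (Tn a b r) x₀ δ m (4 * κ))
    (hm : ∀ i, g i = m → Tn a b r i = 0) {i j : ι} (hi : g i = m) (hij : g i < g j)
    {w : ℝ × ℝ} {c : ι → ℝ} {α β : ℝ} (hw : lin lam w < 0)
    (hc : ∀ l, |c l| ≤ κ / 4 * (-lin lam w)) (hα : 0 ≤ α) (hα' : α ≤ κ / 4 * (-lin lam w))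
    (hβ : 0 ≤ β) (hβ' : β ≤ κ / 4 * (-lin lam w)) (h1 : c ∈ Lc) (h2 : c + Pi.single i α ∈ Lc)
    (h3 : c + Pi.single j β ∈ Lc) (h4 : c + Pi.single i α + Pi.single j β ∈ Lc) :
    Neg x₀ δ (Mk ν bb (Tn a b r) (Pi.single i α) (Pi.single j β) (Tn a b w + c)) := by
  have hO : ∀ u q, Ob (Del ν bb (Tn a b r) u q) := fun u q => Del_ob D.Kn D.lip u q
  have hne : i ≠ j := by rintro rfl; omega
  have hw' : 0 < -lin lam w := by linarith
  obtain ⟨t, ht⟩ := D.par i (hm i hi)
  obtain ⟨dm, hdm, hdm'⟩ := exists_min (f := fun l => t * Tn a b r l) (p := fun l => g i < g l) ht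
  set T : ℝ := t * (β / dm) with hT
  have hTl : ∀ l, g i < g l → β ≤ T * Tn a b r l := by
    intro l hl
    have h5 := hdm' l hl
    have h6 : β / dm * dm = β := by field_simp
    calc β = β / dm * dm := h6.symm
      _ ≤ β / dm * (t * Tn a b r l) := mul_le_mul_of_nonneg_left h5 (by positivity)
      _ = T * Tn a b r l := by rw [hT]; ring
  have sg : ∀ (i : ι) (α : ℝ), 0 ≤ α → ∀ l, 0 ≤ (Pi.single i α : ι → ℝ) l := fun i α hα l =>
    Dg262.single_nonneg hα l
  have hH : κ / 4 * (-lin lam w) + κ / 4 * (-lin lam w) + κ / 4 * (-lin lam w) ≤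
      κ * (-lin lam w) := by nlinarith
  have b1 : ∀ l, |c l| ≤ κ * (-lin lam w) := fun l => (hc l).trans (by nlinarith)
  have b2 : ∀ (i : ι) (α : ℝ), 0 ≤ α → α ≤ κ / 4 * (-lin lam w) → ∀ l,
      |(c + Pi.single i α : ι → ℝ) l| ≤ κ / 4 * (-lin lam w) + κ / 4 * (-lin lam w) := by
    intro i α hα hα' l
    rw [Pi.add_apply]
    exact (abs_add_le _ _).trans (add_le_add (hc l) ((Dg262.single_abs hα l).trans hα'))
  have b3 : ∀ l, |(c + Pi.single i α + Pi.single j β : ι → ℝ) l| ≤ κ * (-lin lam w) := by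
    intro l
    change |(c + Pi.single i α : ι → ℝ) l + (Pi.single j β : ι → ℝ) l| ≤ _
    have h5 := b2 i α hα hα' l
    have h6 := (Dg262.single_abs hβ (i := j) l).trans hβ'
    exact (abs_add_le _ _).trans (by linarith)
  have R1 : RegW a b Lc lam κ w (Tn a b w + c) := regW_off hw' h1 b1 le_rfl
  have R2 : RegW a b Lc lam κ w (Tn a b w + c + Pi.single i α) := by
    rw [add_assoc]; exact regW_off hw' h2 (b2 i α hα hα') (by linarith [hH, hc i, abs_nonneg (c i)])
  have R3 : RegW a b Lc lam κ w (Tn a b w + c + Pi.single j β) := by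
    rw [add_assoc]; exact regW_off hw' h3 (b2 j β hβ hβ') (by linarith [hH, hc i, abs_nonneg (c i)])
  have R4 : RegW a b Lc lam κ w (Tn a b w + c + Pi.single j β + Pi.single i α) := by
    have e : Tn a b w + c + Pi.single j β + Pi.single i α =
        Tn a b w + (c + Pi.single i α + Pi.single j β) := by abel
    rw [e]; exact regW_off hw' h4 b3 le_rfl
  have S1 := RegW.shift D.rw D.lamr R1 T
  have S2 : RegW a b Lc lam κ (w + T • r) (Tn a b w + c + T • Tn a b r + Pi.single i α) := by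
    have := RegW.shift D.rw D.lamr R2 T
    have e : Tn a b w + c + Pi.single i α + T • Tn a b r =
        Tn a b w + c + T • Tn a b r + Pi.single i α := by abel
    rwa [e] at this
  have A1 : Pos x₀ δ (Mk ν bb (Tn a b r) (Pi.single i α) (Pi.single j β) (Tn a b w + c)) := by
    refine pos_mix D (sg i α hα) (sg j β hβ) (fun l => ?_) (R1.mono (by linarith)).reg
      (R2.mono (by linarith)).reg (R3.mono (by linarith)).reg ?_
    · by_cases hl : l = i
      · right; subst hl; rw [Pi.single_eq_of_ne hne]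
      · left; rw [Pi.single_eq_of_ne hl]
    · have e : Tn a b w + c + Pi.single i α + Pi.single j β =
        Tn a b w + c + Pi.single j β + Pi.single i α := by abel
      rw [e]; exact (R4.mono (by linarith)).reg
  have A2 : Pos x₀ δ fun k x => Del ν bb (Tn a b r) (Pi.single i α) (Tn a b w + c + Pi.single j β)
      k x - Del ν bb (Tn a b r) (Pi.single i α) (Tn a b w + c + T • Tn a b r) k x := by
    refine seg D hκ hκ0 hP (fun l hl => ?_) (sg i α hα) R3 R4 S1 S2 (fun l hl => ?_)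
      fun l hl => ?_
    · rw [Pi.single_eq_of_ne]; rintro rfl; exact hl hi
    · have hlj : l ≠ j := by rintro rfl; omega
      simp only [Pi.add_apply, Pi.smul_apply, smul_eq_mul, hm l hl, Pi.single_eq_of_ne hlj]; ring
    · have h5 := hTl l (by omega)
      have h6 := (le_abs_self _).trans (Dg262.single_abs hβ (i := j) l)
      simp only [Pi.add_apply, Pi.smul_apply, smul_eq_mul]
      linarith
  have O1 := Mk_ob (bb := bb) (ρ := Tn a b r) D.Kn D.lip (Pi.single i α) (Pi.single j β)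
    (Tn a b w + c)
  have O2 := (hO (Pi.single i α) (Tn a b w + c + Pi.single j β)).sub
    (hO (Pi.single i α) (Tn a b w + c + T • Tn a b r))
  have A3 := Pos.add O1 O2 A1 A2
  have A4 : Neg x₀ δ fun k x => Del ν bb (Tn a b r) (Pi.single i α) (Tn a b w + c) k x -
      Del ν bb (Tn a b r) (Pi.single i α) (Tn a b w + c) k (x + (1 / 2) ^ k * T) := by
    refine Neg.par (A := Del ν bb (Tn a b r) (Pi.single i α) (Tn a b w + c)) (hO _ _)
      (c := fun k => (1 / 2) ^ k * T) (C := |T|) (abs_nonneg T) (fun k => ?_) ?_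
    · rw [abs_mul, abs_of_pos (hpow_pos k)]; linarith
    · refine A3.congr fun k x => ?_
      unfold Mk
      rw [Del_shift]; ring
  refine Pos.left O1 O2 A1 A2 (A4.congr fun k x => ?_)
  unfold Mk
  rw [Del_shift]; ring

/-- restriction of a vector to the group `m` -/
def rst (g : ι → ℕ) (m : ℕ) (v : ι → ℝ) : ι → ℝ := fun i => if g i = m then v i else 0

theorem rst_in {m : ℕ} {v : ι → ℝ} {i : ι} (h : g i = m) : rst g m v i = v i := if_pos h

theorem rst_off {m : ℕ} {v : ι → ℝ} {i : ι} (h : g i ≠ m) : rst g m v i = 0 := if_neg h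

set_option maxHeartbeats 4000000 in
/-- mixed increment between the group `m`, not parallel to the record line, and a later
coordinate, reference point `τ • wv m` -/
theorem dom0 (D : RD ν P K g a b wv Lc rk rm lam r bb κ0 x₀ δ rr) {m : ℕ} {κ : ℝ}
    (hκ : 0 < κ) (hκ0 : 2 * κ ≤ κ0)
    (hP : PP ν g a b Lc lam bb (Tn a b r) x₀ δ m (4 * κ)) {σ : ℝ} (hσ : σ = 1 ∨ σ = -1)
    (hs : ∀ w q, RegW a b Lc lam κ w q → (∀ j, g j = m → q j = 0) → ∀ l, m < g l → 0 < σ * q l)
    {y0 : ℝ} (hy0 : ∀ i, g i = m → 0 < y0 * Tn a b r i) (hy1 : |y0| = 1)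
    (hu0 : ∀ i, g i = m → Tn a b (wv m) i = 0)
    (hup : ∀ l, m < g l → 0 < Tn a b (wv m) l) :
    ∃ ε : ℝ, 0 < ε ∧ ∀ i j, g i = m → m < g j → ∀ (τ : ℝ) (c : ι → ℝ) (α β H : ℝ),
      H = -lin lam (τ • wv m) → 0 < H → (∀ l, |c l| ≤ ε * H) → 0 ≤ α → α ≤ ε * H →
      0 ≤ β → β ≤ ε * H → c ∈ Lc → c + Pi.single i α ∈ Lc → c + Pi.single j β ∈ Lc →
      c + Pi.single i α + Pi.single j β ∈ Lc →
      Neg x₀ δ (Mk ν bb (Tn a b r) (Pi.single i α) (Pi.single j β) (Tn a b (τ • wv m) + c)) := by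
  have hO : ∀ u q, Ob (Del ν bb (Tn a b r) u q) := fun u q => Del_ob D.Kn D.lip u q
  have sg : ∀ (i : ι) (α : ℝ), 0 ≤ α → ∀ l, 0 ≤ (Pi.single i α : ι → ℝ) l := fun i α hα l =>
    Dg262.single_nonneg hα l
  obtain ⟨dρ, hdρ, hdρ'⟩ := exists_min (f := fun i => y0 * Tn a b r i) (p := fun i => g i = m) hy0
  obtain ⟨du, hdu, hdu'⟩ := exists_min (f := Tn a b (wv m)) (p := fun l => m < g l) hup
  obtain ⟨C, hC0, hroom⟩ := D.rw.room m
  set N : ℝ := ‖Tn a b r‖ with hN
  have hN0 : 0 ≤ N := norm_nonneg _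
  set B : ℝ := ‖rm m‖ with hB
  have hB0 : 0 ≤ B := norm_nonneg _
  set a1 : ℝ := 2 * N / dρ + 2 with ha1
  have ha10 : 2 ≤ a1 := by have : 0 ≤ 2 * N / dρ := by positivity
                           linarith
  set a2 : ℝ := C * a1 + 2 with ha2
  have ha20 : 2 ≤ a2 := by have : 0 ≤ C * a1 := by positivity
                           linarith
  set a3 : ℝ := a1 + a2 * B with ha3
  have ha30 : 2 ≤ a3 := by have : 0 ≤ a2 * B := by positivity
                           linarith
  set a4 : ℝ := (1 + a2 * B) / du with ha4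
  have ha40 : 0 < a4 := by positivity
  set Λ : ℝ := |lin lam (wv m)| with hΛ
  have hΛ0 : 0 ≤ Λ := abs_nonneg _
  set ε : ℝ := min (κ / (2 * a3)) (1 / (2 * (a4 * Λ + 1))) with hε
  have hε0 : 0 < ε := lt_min (by positivity) (by positivity)
  have hε1 : ε * a3 ≤ κ / 2 := by
    calc ε * a3 ≤ κ / (2 * a3) * a3 := mul_le_mul_of_nonneg_right (min_le_left _ _) (by linarith)
      _ = κ / 2 := by field_simp
  have hε2 : ε * (a4 * Λ) ≤ 1 / 2 := by
    have h5 : ε * (a4 * Λ + 1) ≤ 1 / 2 := by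
      calc ε * (a4 * Λ + 1) ≤ 1 / (2 * (a4 * Λ + 1)) * (a4 * Λ + 1) :=
            mul_le_mul_of_nonneg_right (min_le_right _ _) (by positivity)
        _ = 1 / 2 := by field_simp
    nlinarith
  clear_value ε a4 a3 a2 a1
  refine ⟨ε, hε0, ?_⟩
  intro i j hi hj τ c α β H hH hH0 hc hα hα' hβ hβ' h1 h2 h3 h4
  set u := wv m with hu
  have hne : i ≠ j := by rintro rfl; omega
  have hεH : 0 < ε * H := by positivity
  set S : ℝ := 2 * (ε * H) / dρ with hS
  have hS0 : 0 < S := by positivity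
  have hSρ : ∀ l, g l = m → 2 * (ε * H) ≤ S * (y0 * Tn a b r l) := by
    intro l hl
    calc 2 * (ε * H) = S * dρ := by rw [hS]; field_simp
      _ ≤ S * (y0 * Tn a b r l) := mul_le_mul_of_nonneg_left (hdρ' l hl) hS0.le
  have hSN : ∀ l, |S * (y0 * Tn a b r l)| ≤ S * N := by
    intro l
    rw [abs_mul, abs_mul, hy1, one_mul, abs_of_pos hS0]
    refine mul_le_mul_of_nonneg_left ?_ hS0.le
    have := norm_le_pi_norm (Tn a b r) l
    rwa [Real.norm_eq_abs] at this
  set A : ℝ := a1 * (ε * H) with hA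
  have hA0 : 0 ≤ A := by positivity
  have hAS : A = S * N + 2 * (ε * H) := by rw [hA, ha1, hS]; field_simp
  set R : ℝ := a2 * (ε * H) with hR
  have hR0 : 0 ≤ R := by positivity
  have hRC : C * A ≤ R := by rw [hR, ha2, hA]; nlinarith
  have hR2 : 2 * (ε * H) ≤ R := by rw [hR]; nlinarith
  -- vectors on the group
  set s1 : ι → ℝ := rst g m fun l => S * (y0 * Tn a b r l) with hs1
  set z1 : ι → ℝ := rst g m c + s1 with hz1
  set z2 : ι → ℝ := Pi.single i α with hz2
  set z3 : ι → ℝ := s1 - rst g m c - z2 with hz3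
  clear_value z3 z2 z1 s1 R A S
  have z2m : ∀ l, g l ≠ m → z2 l = 0 := by
    intro l hl; rw [hz2, Pi.single_eq_of_ne]; rintro rfl; exact hl hi
  have z1m : ∀ l, g l ≠ m → z1 l = 0 := by
    intro l hl; rw [hz1, Pi.add_apply, hs1, rst_off hl, rst_off hl, add_zero]
  have z3m : ∀ l, g l ≠ m → z3 l = 0 := by
    intro l hl
    rw [hz3, Pi.sub_apply, Pi.sub_apply, hs1, rst_off hl, rst_off hl, z2m l hl]; ring
  have z20 : ∀ l, 0 ≤ z2 l := by rw [hz2]; exact sg i α hα
  have z2b : ∀ l, |z2 l| ≤ ε * H := by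
    intro l; rw [hz2]; exact (Dg262.single_abs hα l).trans hα'
  have z10 : ∀ l, 0 ≤ z1 l := by
    intro l
    by_cases hl : g l = m
    · rw [hz1, Pi.add_apply, hs1, rst_in hl, rst_in hl]
      have := (abs_le.1 (hc l)).1
      have := hSρ l hl
      linarith
    · rw [z1m l hl]
  have z30 : ∀ l, 0 ≤ z3 l := by
    intro l
    by_cases hl : g l = m
    · rw [hz3, Pi.sub_apply, Pi.sub_apply, hs1, rst_in hl, rst_in hl]
      have e1 := (abs_le.1 (hc l)).2
      have e2 := hSρ l hl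
      have e3 := (le_abs_self _).trans (z2b l)
      linarith
    · rw [z3m l hl]
  -- corners of the group: e0 = - s1, e1 = rst c, e2 = rst c + z2, e3 = s1
  have room : ∀ e : ι → ℝ, (∀ l, |e l| ≤ A) → (∃ c' ∈ Lc, ∀ l, g l = m → c' l = e l) →
      e + R • rm m ∈ Lc ∧ ∀ l, |(e + R • rm m) l| ≤ ε * H * a3 := by
    intro e he hc'
    refine ⟨hroom e A R hA0 he hc' hRC, fun l => ?_⟩
    have e1 : |rm m l| ≤ B := by
      have := norm_le_pi_norm (rm m) l
      rwa [Real.norm_eq_abs] at this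
    rw [Pi.add_apply, Pi.smul_apply, smul_eq_mul]
    calc |e l + R * rm m l| ≤ |e l| + |R * rm m l| := abs_add_le _ _
      _ ≤ A + R * B := by
        rw [abs_mul, abs_of_nonneg hR0]
        exact add_le_add (he l) (mul_le_mul_of_nonneg_left e1 hR0)
      _ = ε * H * a3 := by rw [hA, hR, ha3]; ring
  have bs1 : ∀ l, |s1 l| ≤ A := by
    intro l
    by_cases hl : g l = m
    · rw [hs1, rst_in hl]; exact (hSN l).trans (by rw [hAS]; linarith)
    · rw [hs1, rst_off hl, abs_zero]; exact hA0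
  have E0 := room (-s1) (fun l => by rw [Pi.neg_apply, abs_neg]; exact bs1 l)
    ⟨Tn a b ((-(S * y0)) • r), D.rw.nat _, fun l hl => by
      rw [Tn_smul, Pi.smul_apply, smul_eq_mul, Pi.neg_apply, hs1, rst_in hl]; ring⟩
  have E1 := room (rst g m c) (fun l => by
      by_cases hl : g l = m
      · rw [rst_in hl]; exact (hc l).trans (by rw [hA]; nlinarith)
      · rw [rst_off hl, abs_zero]; exact hA0)
    ⟨c, h1, fun l hl => by rw [rst_in hl]⟩
  have E2 := room (rst g m c + z2) (fun l => by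
      have e3 := z2b l
      by_cases hl : g l = m
      · rw [Pi.add_apply, rst_in hl]
        exact (abs_add_le _ _).trans (by rw [hA]; have := hc l; nlinarith)
      · rw [Pi.add_apply, rst_off hl, z2m l hl, add_zero, abs_zero]; exact hA0)
    ⟨c + z2, h2, fun l hl => by rw [Pi.add_apply, Pi.add_apply, rst_in hl]⟩
  have E3 := room s1 bs1
    ⟨Tn a b ((S * y0) • r), D.rw.nat _, fun l hl => by
      rw [Tn_smul, Pi.smul_apply, smul_eq_mul, hs1, rst_in hl]; ring⟩
  -- the two room positions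
  set τ' : ℝ := -(a4 * (ε * H)) with hτ'
  have hτ'0 : τ' ≤ 0 := by rw [hτ']; have : 0 ≤ a4 * (ε * H) := by positivity
                           linarith
  set w' : ℝ × ℝ := (τ + τ') • u with hw'
  set w'' : ℝ × ℝ := τ • u with hw''
  have hHw' : H / 2 ≤ -lin lam w' := by
    have e1 : lin lam w' = lin lam w'' + τ' * lin lam u := by
      rw [hw', hw'', lin_smul, lin_smul]; ring
    have e2 : τ' * lin lam u ≤ a4 * (ε * H) * Λ := by
      rw [hτ', hΛ]
      have e3 := neg_abs_le (lin lam u)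
      have e4 : 0 ≤ a4 * (ε * H) := by positivity
      nlinarith
    have e5 : a4 * (ε * H) * Λ = ε * (a4 * Λ) * H := by ring
    have e6 : ε * (a4 * Λ) * H ≤ 1 / 2 * H := mul_le_mul_of_nonneg_right hε2 hH0.le
    rw [e1]; linarith
  have hw'p : 0 < -lin lam w' := by linarith
  have hw''p : 0 < -lin lam w'' := by rw [← hH]; exact hH0
  have k1 : ε * H * a3 ≤ κ * (-lin lam w') := by
    calc ε * H * a3 = ε * a3 * H := by ring
      _ ≤ κ / 2 * H := mul_le_mul_of_nonneg_right hε1 hH0.le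
      _ = κ * (H / 2) := by ring
      _ ≤ κ * (-lin lam w') := mul_le_mul_of_nonneg_left hHw' hκ.le
  have k2 : ε * H * a3 ≤ κ * (-lin lam w'') := by
    rw [← hH]
    calc ε * H * a3 = ε * a3 * H := by ring
      _ ≤ κ / 2 * H := mul_le_mul_of_nonneg_right hε1 hH0.le
      _ ≤ κ * H := by nlinarith
  have Tw' : ∀ l, g l = m → Tn a b w' l = 0 := by
    intro l hl; rw [hw', Tn_smul, Pi.smul_apply, hu0 l hl, smul_zero]
  have Tw'' : ∀ l, g l = m → Tn a b w'' l = 0 := by
    intro l hl; rw [hw'', Tn_smul, Pi.smul_apply, hu0 l hl, smul_zero]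
  have rmG : ∀ l, g l = m → rm m l = 0 := fun l hl => D.rw.rm_in m l hl
  -- positions `pos w e = Tn w + (e + R rm)`
  set q' : ι → ℝ := Tn a b w' + (-s1 + R • rm m) with hq'
  set q'' : ι → ℝ := Tn a b w'' + (-s1 + R • rm m) with hq''
  clear_value q' q''
  have f1 : ∀ v : ℝ × ℝ, Tn a b v + (-s1 + R • rm m) + z1 =
      Tn a b v + (rst g m c + R • rm m) := by intro v; rw [hz1]; abel
  have f2 : ∀ v : ℝ × ℝ, Tn a b v + (-s1 + R • rm m) + z1 + z2 =
      Tn a b v + (rst g m c + z2 + R • rm m) := by intro v; rw [hz1]; abel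
  have f3 : ∀ v : ℝ × ℝ, Tn a b v + (-s1 + R • rm m) + z1 + z2 + z3 =
      Tn a b v + (s1 + R • rm m) := by intro v; rw [hz1, hz3]; abel
  have P0' : RegW a b Lc lam κ w' q' := by rw [hq']; exact regW_off hw'p E0.1 E0.2 k1
  have P1' : RegW a b Lc lam κ w' (q' + z1) := by rw [hq', f1]; exact regW_off hw'p E1.1 E1.2 k1
  have P2' : RegW a b Lc lam κ w' (q' + z1 + z2) := by
    rw [hq', f2]; exact regW_off hw'p E2.1 E2.2 k1
  have P3' : RegW a b Lc lam κ w' (q' + z1 + z2 + z3) := by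
    rw [hq', f3]; exact regW_off hw'p E3.1 E3.2 k1
  have P0'' : RegW a b Lc lam κ w'' q'' := by rw [hq'']; exact regW_off hw''p E0.1 E0.2 k2
  have P1'' : RegW a b Lc lam κ w'' (q'' + z1) := by
    rw [hq'', f1]; exact regW_off hw''p E1.1 E1.2 k2
  have P2'' : RegW a b Lc lam κ w'' (q'' + z1 + z2) := by
    rw [hq'', f2]; exact regW_off hw''p E2.1 E2.2 k2
  have P3'' : RegW a b Lc lam κ w'' (q'' + z1 + z2 + z3) := by
    rw [hq'', f3]; exact regW_off hw''p E3.1 E3.2 k2
  have gq : ∀ l, g l = m → q' l = q'' l := by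
    intro l hl
    simp only [hq', hq'', Pi.add_apply, Tw' l hl, Tw'' l hl]
  have lq : ∀ l, m < g l → q' l ≤ q'' l := by
    intro l hl
    have e1 : Tn a b w' l ≤ Tn a b w'' l := by
      rw [hw', hw'', Tn_smul, Tn_smul, Pi.smul_apply, Pi.smul_apply, smul_eq_mul, smul_eq_mul]
      have := hup l hl
      nlinarith
    simp only [hq', hq'', Pi.add_apply]
    linarith
  -- three comparisons
  have C1 : Pos x₀ δ fun k x => Del ν bb (Tn a b r) z1 q' k x -
      Del ν bb (Tn a b r) z1 q'' k x := seg D hκ hκ0 hP z1m z10 P0' P1' P0'' P1'' gq lq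
  have C2 : Pos x₀ δ fun k x => Del ν bb (Tn a b r) z2 (q' + z1) k x -
      Del ν bb (Tn a b r) z2 (q'' + z1) k x :=
    seg D hκ hκ0 hP z2m z20 P1' P2' P1'' P2''
      (fun l hl => by rw [Pi.add_apply, Pi.add_apply, gq l hl])
      (fun l hl => by rw [Pi.add_apply, Pi.add_apply]; linarith [lq l hl])
  have C3 : Pos x₀ δ fun k x => Del ν bb (Tn a b r) z3 (q' + z1 + z2) k x -
      Del ν bb (Tn a b r) z3 (q'' + z1 + z2) k x :=
    seg D hκ hκ0 hP z3m z30 P2' P3' P2'' P3''
      (fun l hl => by simp only [Pi.add_apply, gq l hl])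
      (fun l hl => by simp only [Pi.add_apply]; linarith [lq l hl])
  -- the whole step
  have hU : z1 + (z2 + z3) = s1 + s1 := by rw [hz1, hz3]; abel
  have HU : Neg x₀ δ fun k x => Del ν bb (Tn a b r) (z1 + (z2 + z3)) q' k x -
      Del ν bb (Tn a b r) (z1 + (z2 + z3)) q'' k x := by
    have g1 : ∀ l, g l = m → (-s1 : ι → ℝ) l = -(S * y0) * Tn a b r l := by
      intro l hl; rw [Pi.neg_apply, hs1, rst_in hl]; ring
    refine dg3 D hκ hκ0 hP hσ hs (y := 2 * (S * y0)) (fun l hl => ?_) (fun l hl => ?_)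
      (fun l => ?_) (S * y0) P0' ?_ (fun l hl => ?_) P0'' ?_ (fun l hl => ?_)
    · rw [hU, Pi.add_apply, hs1, rst_in hl]; ring
    · rw [hU, Pi.add_apply, hs1, rst_off hl]; ring
    · rw [Pi.add_apply, Pi.add_apply]; linarith [z10 l, z20 l, z30 l]
    · have e : q' + (z1 + (z2 + z3)) = q' + z1 + z2 + z3 := by abel
      rw [e]; exact P3'
    · rw [hq', Pi.add_apply, Pi.add_apply, Tw' l hl, g1 l hl, Pi.smul_apply, rmG l hl]; simp
    · have e : q'' + (z1 + (z2 + z3)) = q'' + z1 + z2 + z3 := by abel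
      rw [e]; exact P3''
    · rw [hq'', Pi.add_apply, Pi.add_apply, Tw'' l hl, g1 l hl, Pi.smul_apply, rmG l hl]; simp
  have C4 : Neg x₀ δ fun k x => Del ν bb (Tn a b r) z2 (q' + z1) k x -
      Del ν bb (Tn a b r) z2 (q'' + z1) k x := by
    refine Pos.left ((hO _ _).sub (hO _ _)) (((hO _ _).sub (hO _ _)).add ((hO _ _).sub (hO _ _)))
      C2 (Pos.add ((hO _ _).sub (hO _ _)) ((hO _ _).sub (hO _ _)) C1 C3) (HU.congr fun k x => ?_)
    rw [Del_add z1 (z2 + z3) q', Del_add z2 z3 (q' + z1), Del_add z1 (z2 + z3) q'',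
      Del_add z2 z3 (q'' + z1)]; ring
  -- sandwich
  have b2 : ∀ (i : ι) (α : ℝ), 0 ≤ α → α ≤ ε * H → ∀ l,
      |(c + Pi.single i α : ι → ℝ) l| ≤ ε * H * 2 := by
    intro i α hα hα' l
    rw [Pi.add_apply]
    refine (abs_add_le _ _).trans ?_
    have := (Dg262.single_abs hα (i := i) l).trans hα'
    linarith [hc l]
  have k3 : ε * H * 2 ≤ κ * (-lin lam w'') := by
    refine le_trans ?_ k2
    exact mul_le_mul_of_nonneg_left ha30 hεH.le
  have R1 : RegW a b Lc lam κ w'' (Tn a b w'' + c) :=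
    regW_off hw''p h1 (fun l => (hc l).trans (by linarith)) k3
  have R2 : RegW a b Lc lam κ w'' (Tn a b w'' + c + z2) := by
    rw [add_assoc]
    refine regW_off hw''p h2 ?_ k3
    rw [hz2]; exact b2 i α hα hα'
  have R3 : RegW a b Lc lam κ w'' (Tn a b w'' + c + Pi.single j β) := by
    rw [add_assoc]; exact regW_off hw''p h3 (b2 j β hβ hβ') k3
  have R4 : RegW a b Lc lam κ w'' (Tn a b w'' + c + Pi.single j β + z2) := by
    have e : Tn a b w'' + c + Pi.single j β + z2 =
        Tn a b w'' + (c + z2 + Pi.single j β) := by abel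
    rw [e]
    refine regW_off hw''p h4 (fun l => ?_) k3
    by_cases hl : l = j
    · rw [Pi.add_apply, Pi.add_apply, hz2, hl, Pi.single_eq_of_ne hne.symm, Pi.single_eq_same,
        add_zero]
      refine (abs_add_le _ _).trans ?_
      rw [abs_of_nonneg hβ]; linarith [hc j]
    · rw [Pi.add_apply, Pi.single_eq_of_ne hl, add_zero, hz2]
      exact b2 i α hα hα' l
  have A1 : Pos x₀ δ (Mk ν bb (Tn a b r) z2 (Pi.single j β) (Tn a b w'' + c)) := by
    refine pos_mix D z20 (sg j β hβ) (fun l => ?_) (R1.mono (by linarith)).reg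
      (R2.mono (by linarith)).reg (R3.mono (by linarith)).reg ?_
    · by_cases hl : l = i
      · right; subst hl; rw [Pi.single_eq_of_ne hne]
      · left; rw [hz2, Pi.single_eq_of_ne hl]
    · have e : Tn a b w'' + c + z2 + Pi.single j β =
        Tn a b w'' + c + Pi.single j β + z2 := by abel
      rw [e]; exact (R4.mono (by linarith)).reg
  have bB : ∀ l, rm m l ≤ B := by
    intro l
    have := norm_le_pi_norm (rm m) l
    rw [Real.norm_eq_abs] at this
    exact (le_abs_self _).trans this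
  have A2 : Pos x₀ δ fun k x => Del ν bb (Tn a b r) z2 (q' + z1) k x -
      Del ν bb (Tn a b r) z2 (Tn a b w'' + c) k x := by
    refine seg D hκ hκ0 hP z2m z20 P1' P2' R1 R2 (fun l hl => ?_) (fun l hl => ?_)
    · rw [hq', f1, Pi.add_apply, Pi.add_apply, Pi.add_apply, Tw' l hl, Tw'' l hl, Pi.smul_apply,
        rmG l hl, rst_in hl, smul_zero, add_zero]
    · rw [hq', f1, Pi.add_apply, Pi.add_apply, Pi.add_apply, Pi.smul_apply,
        rst_off (by omega), zero_add, smul_eq_mul, hw', hw'', Tn_smul, Tn_smul, Pi.smul_apply,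
        Pi.smul_apply, smul_eq_mul, smul_eq_mul]
      have e1 := hdu' l hl
      have e2 : τ' * Tn a b u l ≤ -((1 + a2 * B) * (ε * H)) := by
        have e3 : τ' * Tn a b u l ≤ τ' * du := mul_le_mul_of_nonpos_left e1 hτ'0
        have e4 : τ' * du = -((1 + a2 * B) * (ε * H)) := by rw [hτ', ha4]; field_simp
        linarith
      have e5 : R * rm m l ≤ R * B := mul_le_mul_of_nonneg_left (bB l) hR0
      have e6 : R * B = a2 * B * (ε * H) := by rw [hR]; ring
      have e7 := (abs_le.1 (hc l)).1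
      linarith
  have A3 : Pos x₀ δ fun k x => Del ν bb (Tn a b r) z2 (Tn a b w'' + c + Pi.single j β) k x -
      Del ν bb (Tn a b r) z2 (q'' + z1) k x := by
    refine seg D hκ hκ0 hP z2m z20 R3 R4 P1'' P2'' (fun l hl => ?_) (fun l hl => ?_)
    · have hlj : l ≠ j := by rintro rfl; omega
      rw [hq'', f1, Pi.add_apply, Pi.add_apply, Pi.add_apply, Pi.add_apply, Tw'' l hl,
        Pi.smul_apply, rmG l hl, rst_in hl, smul_zero, Pi.single_eq_of_ne hlj]
      ring
    · rw [hq'', f1, Pi.add_apply, Pi.add_apply, Pi.add_apply, Pi.add_apply, Pi.smul_apply,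
        rst_off (by omega), zero_add, smul_eq_mul]
      have e1 := D.rw.rm_off m l (by omega)
      have e2 := (abs_le.1 (hc l)).2
      have e3 := (le_abs_self _).trans ((Dg262.single_abs hβ (i := j) l).trans hβ')
      have e4 : R ≤ R * rm m l := le_mul_of_one_le_right hR0 e1
      linarith
  have O1 := Mk_ob (bb := bb) (ρ := Tn a b r) D.Kn D.lip z2 (Pi.single j β) (Tn a b w'' + c)
  refine Pos.left O1 (((hO _ _).sub (hO _ _)).add ((hO _ _).sub (hO _ _))) A1
    (Pos.add ((hO _ _).sub (hO _ _)) ((hO _ _).sub (hO _ _)) A2 A3) (C4.congr fun k x => ?_)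
  unfold Mk; ring

/-- induction step -/
theorem pp_succ (D : RD ν P K g a b wv Lc rk rm lam r bb κ0 x₀ δ rr) {m : ℕ} {κ1 : ℝ}
    (hκ1 : 0 < κ1) (hP1 : PP ν g a b Lc lam bb (Tn a b r) x₀ δ m κ1) :
    ∃ κ : ℝ, 0 < κ ∧ PP ν g a b Lc lam bb (Tn a b r) x₀ δ (m + 1) κ := by
  by_cases hex : ∃ i l, g i = m ∧ g i < g l
  swap
  · refine ⟨κ1, hκ1, ?_⟩
    intro i j hi hij
    by_cases him : g i = m
    · exact absurd ⟨i, j, him, hij⟩ hex
    · exact hP1 i j (by omega) hij
  obtain ⟨i0, l0, hi0, hl0⟩ := hex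
  by_cases hρ : Tn a b r i0 = 0
  · -- parallel group
    have hm : ∀ i, g i = m → Tn a b r i = 0 := by
      intro i hi
      rcases D.ss i0 i (by rw [hi0, hi]) with h | h
      · exact h.2
      · rw [hρ, zero_mul] at h; exact absurd h (lt_irrefl 0)
    set κ : ℝ := min (κ1 / 4) (κ0 / 2) with hκ
    have hκp : 0 < κ := lt_min (by linarith) (by linarith [D.κp])
    have hκ4 : 4 * κ ≤ κ1 := by have := min_le_left (κ1 / 4) (κ0 / 2); linarith
    have hκ0 : 2 * κ ≤ κ0 := by have := min_le_right (κ1 / 4) (κ0 / 2); linarith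
    have hP := hP1.mono hκ4
    refine ⟨κ / 4, by linarith, ?_⟩
    intro i j hi hij w c α β hw hc hα hα' hβ hβ' h1 h2 h3 h4
    by_cases him : g i = m
    · exact parl D hκp hκ0 hP hm him hij hw hc hα hα' hβ hβ' h1 h2 h3 h4
    · exact (hP.mono (by linarith : κ / 4 ≤ 4 * κ)) i j (by omega) hij w c α β hw hc hα hα' hβ hβ'
        h1 h2 h3 h4
  · obtain ⟨κs, hκs, σ, hσ, hs⟩ := sgn (Lc := Lc) D.grp D.lamr hρ hl0
    rw [hi0] at hs
    set κ : ℝ := min (min (κ1 / 4) (κ0 / 2)) κs with hκ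
    have hκp : 0 < κ := lt_min (lt_min (by linarith) (by linarith [D.κp])) hκs
    have e1 : κ ≤ min (κ1 / 4) (κ0 / 2) := min_le_left _ _
    have hκ4 : 4 * κ ≤ κ1 := by have := min_le_left (κ1 / 4) (κ0 / 2); linarith
    have hκ0 : 2 * κ ≤ κ0 := by have := min_le_right (κ1 / 4) (κ0 / 2); linarith
    have hκκs : κ ≤ κs := min_le_right _ _
    have hP := hP1.mono hκ4
    have hdet := det_ne (r := r) D.grp hρ hl0
    rw [hi0] at hdet
    have hys : ∃ y0 : ℝ, |y0| = 1 ∧ ∀ i, g i = m → 0 < y0 * Tn a b r i := by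
      rcases lt_or_gt_of_ne hρ with h | h
      · refine ⟨-1, by simp, fun i hi => ?_⟩
        rcases D.ss i0 i (by rw [hi0, hi]) with h' | h'
        · exact absurd h'.1 hρ
        · by_contra h''
          nlinarith [not_lt.1 h'']
      · refine ⟨1, by simp, fun i hi => ?_⟩
        rcases D.ss i0 i (by rw [hi0, hi]) with h' | h'
        · exact absurd h'.1 hρ
        · by_contra h''
          nlinarith [not_lt.1 h'']
    obtain ⟨y0, hy1, hy2⟩ := hys
    have hu0 : ∀ i, g i = m → Tn a b (wv m) i = 0 := by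
      intro i hi
      have := D.grp.fix i
      rw [hi] at this; exact this
    have hup : ∀ l, m < g l → 0 < Tn a b (wv m) l := by
      intro l hl
      have := D.grp.up i0 l (by omega)
      rw [hi0] at this; exact this
    obtain ⟨ε, hε, hdom⟩ := dom0 D hκp hκ0 hP hσ (fun w q h => hs κ hκκs w q h) hy2 hy1 hu0 hup
    refine ⟨min ε κ, lt_min hε hκp, ?_⟩
    intro i j hi hij w c α β hw hc hα hα' hβ hβ' h1 h2 h3 h4
    by_cases him : g i = m
    · set τ : ℝ := (w.1 * r.2 - w.2 * r.1) / ((wv m).1 * r.2 - (wv m).2 * r.1) with hτ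
      set μ : ℝ := ((wv m).1 * w.2 - (wv m).2 * w.1) / ((wv m).1 * r.2 - (wv m).2 * r.1) with hμ
      have hwe : w = τ • wv m + μ • r := basis hdet
      have hlw : lin lam w = lin lam (τ • wv m) := by rw [hwe, lin_add, lin_smul lam r, D.lamr]; ring
      have hmin : min ε κ * (-lin lam w) ≤ ε * (-lin lam w) :=
        mul_le_mul_of_nonneg_right (min_le_left _ _) (by linarith)
      have H := hdom i j him (by omega) τ c α β (-lin lam w) (by rw [hlw]) (by linarith)
        (fun l => (hc l).trans hmin) hα (hα'.trans hmin) hβ (hβ'.trans hmin) h1 h2 h3 h4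
      have H2 := Neg.shift (Mk_ob D.Kn D.lip _ _ _) H (c := fun k => (1 / 2) ^ k * μ) (C := |μ|)
        (fun k => by rw [abs_mul, abs_of_pos (hpow_pos k)]; linarith)
      refine H2.congr fun k x => ?_
      have e2 : Tn a b w + c = Tn a b (τ • wv m) + c + μ • Tn a b r := by
        conv_lhs => rw [hwe, Tn_add, Tn_smul a b r]
        abel
      have e3 : Tn a b (τ • wv m) + c + μ • Tn a b r + Pi.single j β =
          Tn a b (τ • wv m) + c + Pi.single j β + μ • Tn a b r := by abel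
      unfold Mk
      rw [e2, e3, Del_shift, Del_shift]
    · exact (hP.mono (by
        have := min_le_right ε κ
        linarith : min ε κ ≤ 4 * κ)) i j (by omega) hij w c α β hw hc hα hα' hβ hβ'
        h1 h2 h3 h4

theorem pp_all (D : RD ν P K g a b wv Lc rk rm lam r bb κ0 x₀ δ rr) (m : ℕ) :
    ∃ κ : ℝ, 0 < κ ∧ PP ν g a b Lc lam bb (Tn a b r) x₀ δ m κ := by
  induction m with
  | zero => exact ⟨1, one_pos, fun i j hi => by omega⟩
  | succ m ih =>
    obtain ⟨κ, hκ, h⟩ := ih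
    exact pp_succ D hκ h

/-- **record blow-up**: all small mixed increments between different groups, at closed legal
offsets near the half plane, are negligible along the record line -/
theorem pp (D : RD ν P K g a b wv Lc rk rm lam r bb κ0 x₀ δ rr) :
    ∃ κ : ℝ, 0 < κ ∧ ∀ i j, g i < g j → ∀ (w : ℝ × ℝ) (c : ι → ℝ) (α β : ℝ), lin lam w < 0 →
      (∀ l, |c l| ≤ κ * (-lin lam w)) → 0 ≤ α → α ≤ κ * (-lin lam w) → 0 ≤ β →
      β ≤ κ * (-lin lam w) → c ∈ Lc → c + Pi.single i α ∈ Lc → c + Pi.single j β ∈ Lc →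
      c + Pi.single i α + Pi.single j β ∈ Lc →
      Neg x₀ δ (Mk ν bb (Tn a b r) (Pi.single i α) (Pi.single j β) (Tn a b w + c)) := by
  obtain ⟨κ, hκ, h⟩ := pp_all D (Finset.univ.sup g + 1)
  exact ⟨κ, hκ, fun i j hij => h i j (Nat.lt_succ_of_le (Finset.le_sup (Finset.mem_univ i))) hij⟩

end

end Crest.Agent.R136.Rb741
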