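import Crest.Agent.R136.Rb5_741
import Crest.Agent.R136.Rbw4_219
import Crest.Agent.R136.Rc5_683

/-!
# R136: record blow-up, part 6 (helper741): `PP` for a surface of the walls

`ppu` : the hypothesis `Srf.PPU` of `Rc683.ae_rec_tan`, if the signs of `dh` agree inside every
group (no zero slopes: such slots have to be frozen first, see `Sl1_741`).
-/

set_option autoImplicit false
set_option linter.unusedSectionVars false
set_option linter.unusedVariables false

open Set Filter Topology MeasureTheory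

namespace Crest.Agent.R136.Rb741

open Dg219 (Tn Walls lf zz)
open Dg262 (Mix Inc SupOn Grp X)
open Rc146 (gapW SDir)
open Rc683 (Srf)

variable {ι : Type*} [Fintype ι] [DecidableEq ι]

section

variable {ν : (ι → ℝ) → ℝ} {P : Set (ι → ℝ)} {K : ℝ} {g : ι → ℕ} {a b : ι → ℝ}
  {wv : ℕ → ℝ × ℝ} {Lc : Set (ι → ℝ)} {rk : ι → ℕ} {rm : ℕ → ι → ℝ} {lam r : ℝ × ℝ}
  {bb : ι → ℝ} {κ0 x₀ δ rr : ℝ}

theorem pp_forall (D : RD ν P K g a b wv Lc rk rm lam r bb κ0 x₀ δ rr) :
    ∃ κ : ℝ, 0 < κ ∧ ∀ m, PP ν g a b Lc lam bb (Tn a b r) x₀ δ m κ := by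
  obtain ⟨κ, hκ, h⟩ := pp_all D (Finset.univ.sup g + 1)
  exact ⟨κ, hκ, fun m i j _ hij =>
    h i j (Nat.lt_succ_of_le (Finset.le_sup (Finset.mem_univ i))) hij⟩

/-- a nonzero slope parallel to the record line: the later coordinates move in one direction -/
theorem par_of (hg : Grp a b g wv) (hr : r ≠ 0) {i : ι} (hne : a i ≠ 0 ∨ b i ≠ 0)
    (h : Tn a b r i = 0) : ∃ t : ℝ, ∀ l, g i < g l → 0 < t * Tn a b r l := by
  set u := wv (g i) with hu
  have h1 : a i * u.1 + b i * u.2 = 0 := hg.fix i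
  have h2 : a i * r.1 + b i * r.2 = 0 := h
  have key : ∃ t : ℝ, u = t • r := by
    by_cases ha : a i = 0
    · have hb : b i ≠ 0 := by rcases hne with h' | h'
                              · exact absurd ha h'
                              · exact h'
      rw [ha] at h1 h2
      have u2 : u.2 = 0 := by
        have : b i * u.2 = 0 := by linarith
        exact (mul_eq_zero.1 this).resolve_left hb
      have r2 : r.2 = 0 := by
        have : b i * r.2 = 0 := by linarith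
        exact (mul_eq_zero.1 this).resolve_left hb
      have r1 : r.1 ≠ 0 := fun h' => hr (Prod.ext h' r2)
      refine ⟨u.1 / r.1, Prod.ext ?_ ?_⟩
      · simp only [Prod.smul_fst, smul_eq_mul]; field_simp
      · simp only [Prod.smul_snd, smul_eq_mul]; rw [u2, r2, mul_zero]
    · have r2 : r.2 ≠ 0 := by
        intro h'
        rw [h', mul_zero, add_zero] at h2
        exact hr (Prod.ext ((mul_eq_zero.1 h2).resolve_left ha) h')
      refine ⟨u.2 / r.2, Prod.ext ?_ ?_⟩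
      · simp only [Prod.smul_fst, smul_eq_mul]
        have e : a i * (u.1 * r.2) = a i * (u.2 * r.1) := by
          linear_combination r.2 * h1 - u.2 * h2
        have e' := mul_left_cancel₀ ha e
        field_simp; linarith
      · simp only [Prod.smul_snd, smul_eq_mul]; field_simp
  obtain ⟨t, ht⟩ := key
  refine ⟨t, fun l hl => ?_⟩
  have h3 : 0 < Tn a b u l := hg.up i l hl
  rw [ht, Tn_smul, Pi.smul_apply, smul_eq_mul] at h3
  exact h3

end

section

variable {W : Type*} [Fintype W] {Q : Walls ι W} {lo hi y0 ρ0 : ι → ℝ}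

/-- two forms with the same kernel -/
theorem form_mul {l r A : ℝ × ℝ} (hl : l ≠ 0) (hr : r ≠ 0) (hlr : lf l r = 0) (hA : lf A r = 0) :
    ∃ t : ℝ, A.1 = -(t * l.1) ∧ A.2 = -(t * l.2) := by
  unfold lf at hlr hA
  have hl2 : l.1 ^ 2 + l.2 ^ 2 ≠ 0 := by
    intro h
    apply hl
    exact Prod.ext (by simp only [Prod.fst_zero]; nlinarith [sq_nonneg l.1, sq_nonneg l.2])
      (by simp only [Prod.snd_zero]; nlinarith [sq_nonneg l.1, sq_nonneg l.2])
  have hdet : A.1 * l.2 - A.2 * l.1 = 0 := by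
    by_contra hd
    apply hr
    have e1 : (A.1 * l.2 - A.2 * l.1) * r.1 = 0 := by linear_combination l.2 * hA - A.2 * hlr
    have e2 : (A.1 * l.2 - A.2 * l.1) * r.2 = 0 := by linear_combination A.1 * hlr - l.1 * hA
    exact Prod.ext ((mul_eq_zero.1 e1).resolve_left hd) ((mul_eq_zero.1 e2).resolve_left hd)
  refine ⟨-((A.1 * l.1 + A.2 * l.2) / (l.1 ^ 2 + l.2 ^ 2)), ?_, ?_⟩
  · field_simp
    linear_combination l.2 * hdet
  · field_simp
    linear_combination -l.1 * hdet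

/-- record points of the line = record points of the surface -/
theorem mem_UR {s : Srf ι} (ok : s.Ok Q y0 ρ0) {ξ : ℝ} (hξ : (ξ, (0:ℝ)) ∈ Q.O lo hi y0 ρ0 0) :
    ξ ∈ Q.UR lo hi s.x0 s.a s.b s.z00 s.r s.l := by
  have e : X s.x0 s.a s.b (s.z00 + ξ • s.r) = X y0 ρ0 0 (ξ, (0:ℝ)) := by
    rw [Rc683.line_eq, Dg219.X_add, ok.dir, ok.base]
  refine ⟨fun k => by rw [e]; exact hξ.1 k, fun w => ?_⟩
  rw [e]
  rcases hξ.2 w with h | h
  · by_cases hw : Q.Act s.x0 s.a s.b w
    · exact Or.inl hw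
    · refine Or.inr (Or.inl ⟨?_, ?_⟩)
      · rw [ok.base]; exact h.1
      · have h1 := ok.strict w h hw
        set A : ℝ × ℝ := (Q.rhs w s.a - s.a (Q.hd w), Q.rhs w s.b - s.b (Q.hd w)) with hA
        have hgap : ∀ z, gapW Q s.a s.b w z = lf A z := by
          intro z
          unfold gapW lf
          rw [Walls.rhs_Tn]
          change _ - (s.a (Q.hd w) * z.1 + s.b (Q.hd w) * z.2) = _
          ring
        have h2 : lf A s.r = 0 := by
          rw [← hgap, gapW, ok.dir]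
          rw [h.2.1]; ring
        obtain ⟨t, ht1, ht2⟩ := form_mul ok.l0 ok.r0 ok.lr h2
        refine ⟨t, ?_, ht1, ht2⟩
        rw [hgap] at h1
        have h3 : lf A (zz s.l (-1)) = -(t * lf s.l (zz s.l (-1))) := by
          unfold lf; rw [ht1, ht2]; ring
        rw [h3, Dg219.lf_zz ok.l0] at h1
        linarith
  · exact Or.inr (Or.inr h)

/-- **`PP` for a surface**: slopes of one sign in every group, no zero slopes -/
theorem ppu {s : Srf ι} (ok : s.Ok Q y0 ρ0) {wv : ℕ → ℝ × ℝ} (hg : Grp s.a s.b s.g wv)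
    (hdh : ∀ i j, s.g i = s.g j → 0 < s.dh i * s.dh j) {ν : (ι → ℝ) → ℝ} {K : ℝ} (hK : 0 ≤ K)
    (hν : ∀ p q, |ν p - ν q| ≤ K * dist p q) (hs : SupOn ν (Q.P lo hi)) {U : Set ℝ}
    (hU : ∀ ξ ∈ U, (ξ, (0:ℝ)) ∈ Q.O lo hi y0 ρ0 0) : s.PPU Q ν U := by
  have hne0 : ∀ i, s.dh i ≠ 0 := by
    intro i h
    have := hdh i i rfl
    rw [h, mul_zero] at this
    exact lt_irrefl _ this
  have hne : ∀ i, s.a i ≠ 0 ∨ s.b i ≠ 0 := by
    intro i
    rw [ok.sd.fst i, ok.sd.snd i]
    by_contra h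
    push Not at h
    apply ok.sd.ne i
    exact Prod.ext ((mul_eq_zero.1 h.1).resolve_left (hne0 i))
      ((mul_eq_zero.1 h.2).resolve_left (hne0 i))
  have hlr : lin s.l s.r = 0 := ok.lr
  have hss : ∀ i j, s.g i = s.g j → (Tn s.a s.b s.r i = 0 ∧ Tn s.a s.b s.r j = 0) ∨
      0 < Tn s.a s.b s.r i * Tn s.a s.b s.r j := by
    intro i j hij
    rw [ok.sd.Tn_eq, ok.sd.Tn_eq, hij]
    by_cases h0 : lf (s.n (s.g j)) s.r = 0
    · left; rw [h0, zero_mul, zero_mul]; exact ⟨rfl, rfl⟩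
    · right
      have := hdh i j hij
      have h1 : 0 < lf (s.n (s.g j)) s.r ^ 2 := by positivity
      nlinarith
  obtain ⟨κ0, hκ0, hleg⟩ := Walls.legR' (Q := Q) (x0 := s.x0) (a := s.a) (b := s.b) (lo := lo)
    (hi := hi) (z00 := s.z00) hlr
  intro x₀ hx₀
  obtain ⟨δ, hδ, rr, hrr, hl⟩ := hleg x₀ (mem_UR ok (hU x₀ hx₀))
  obtain ⟨κ, hκ, h⟩ := pp_forall (ν := ν) (P := Q.P lo hi) (K := K) (g := s.g) (a := s.a)
    (b := s.b) (wv := wv) (Lc := Q.L s.x0 s.a s.b) (rk := Q.rk) (rm := Q.rm s.g) (lam := s.l)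
    (r := s.r) (bb := X s.x0 s.a s.b s.z00) (κ0 := κ0) (x₀ := x₀) (δ := δ) (rr := rr)
    { Kn := hK, lip := hν, sup := hs, rw := Walls.rwG hg (Walls.full_of_ne hne), grp := hg
      lamr := hlr, ss := hss, par := fun i hi => par_of hg ok.r0 (hne i) hi, κp := hκ0
      rp := hrr, leg := hl }
  exact ⟨δ, hδ, κ, hκ, h⟩

end

end Crest.Agent.R136.Rb741
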