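import Crest.Agent.R136.Rbw_219
import Crest.Agent.R136.Dg8_219

/-!
# R136: record blow-up, instance for `Net191.Leg M R` (helper219)
-/

set_option autoImplicit false

open Set Filter Topology Metric

namespace Crest.Agent.R136.Dg219

open Dg262 (X X_cont)
open Net191 (Mons Legal Leg)

variable {m : ℕ}

/-- axioms of the record blow-up for the walls of a triangular chart -/
theorem leg_rw (M : Mons m) {x0 a b : Fin m → ℝ} {g : Fin m → ℕ} {n : ℕ → ℝ × ℝ} {dh : Fin m → ℝ}
    (hd : Dir g a b n dh) :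
    Rb741.RW g a b ((mw M).L x0 a b) (fun i => i.val) ((mw M).rm g) :=
  Walls.rw hd

/-- legality near a record line in `Leg M R` -/
theorem leg_legR (M : Mons m) {R : ℝ} {x0 a b : Fin m → ℝ} (z00 r : ℝ × ℝ) :
    Rb741.LegR (Leg M R) (X x0 a b z00) (Tn a b r) ((mw M).L x0 a b)
      {ξ : ℝ | z00 + ξ • r ∈ (mw M).O (fun _ => 0) (fun _ => R) x0 a b} := by
  rw [← mw_P M R]
  exact Walls.legR z00 r

end Crest.Agent.R136.Dg219
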