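import Crest.Agent.R136.Dg5_219

/-!
# R136: record blow-up, consumer half (helper146), part 1: splitting with room for some groups only

* `GeoH`      : window cone `LH` (open part `D`) in the wall cone `L`, room for the groups in `S`
* `LocCross`  : vanishing of small mixed differences; `sep_loc` : block separation
* `inc_eqH`, `reprH` : increments in directions supported on the groups of `S`
* `phi_monoH`, `phi_supH` : monotonicity, supermodularity of the group functions, on the whole `L`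
-/

set_option autoImplicit false
set_option linter.unusedSectionVars false
set_option linter.unusedVariables false

open Set Filter Topology Metric

namespace Crest.Agent.R136.Rc146

open Dg219 (e Cross Sep step_any sep_box grid sep_closed pr pr_add pr_smul pr_in pr_off Cone phi rm
  gset mem_gset sum_pr sum_all phi_congr phi_zero rm_congr mem_ball_pi sum_pr_sub)

variable {ι κ : Type*} [Fintype ι] [DecidableEq ι] [DecidableEq κ]

/-! ### local vanishing of mixed differences -/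

/-- small mixed differences vanish near every point of `D` -/
def LocCross (grp : ι → κ) (D : Set (ι → ℝ)) (g : (ι → ℝ) → ℝ) : Prop :=
  ∀ c0 ∈ D, ∃ r : ℝ, 0 < r ∧ Cross grp (closedBall c0 r) g

/-- **block separation on an open convex set from local information** -/
theorem sep_loc {grp : ι → κ} {D : Set (ι → ℝ)} {g : (ι → ℝ) → ℝ} (h : LocCross grp D g)
    (hc : Convex ℝ D) : Sep grp D g := by
  intro k c d e' hd he h1 h2 h3 h4
  set P : ℝ × ℝ → (ι → ℝ) := fun x => c + x.1 • d + x.2 • e' with hP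
  have cP : Continuous P := by rw [hP]; fun_prop
  have hmem : ∀ x ∈ Icc (0:ℝ) 1 ×ˢ Icc (0:ℝ) 1, P x ∈ D := by
    rintro ⟨s, t⟩ ⟨⟨hs0, hs1⟩, ht0, ht1⟩
    have a1 : (1 - s) • c + s • (c + d) ∈ D := hc h1 h2 (by linarith) hs0 (by ring)
    have a2 : (1 - s) • (c + e') + s • (c + d + e') ∈ D := hc h3 h4 (by linarith) hs0 (by ring)
    have a3 := hc a1 a2 (a := 1 - t) (b := t) (by linarith) ht0 (by ring)
    convert a3 using 1
    rw [hP]
    funext l
    simp only [Pi.add_apply, Pi.smul_apply, smul_eq_mul]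
    ring
  have hK : IsCompact (P '' (Icc (0:ℝ) 1 ×ˢ Icc (0:ℝ) 1)) :=
    (isCompact_Icc.prod isCompact_Icc).image cP
  -- Lebesgue number
  choose! R hR0 hR using h
  obtain ⟨δ, hδ, hδK⟩ := lebesgue_number_lemma_of_metric (s := P '' (Icc (0:ℝ) 1 ×ˢ Icc (0:ℝ) 1))
    (c := fun x : D => ball (x : ι → ℝ) (R x)) hK (fun _ => isOpen_ball) (by
      rintro _ ⟨x, hx, rfl⟩
      exact mem_iUnion.2 ⟨⟨P x, hmem x hx⟩, mem_ball_self (hR0 _ (hmem x hx))⟩)
  set r : ℝ := δ / 2 with hr'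
  have hr : 0 < r := by positivity
  obtain ⟨N, hN⟩ := exists_nat_gt ((‖d‖ + ‖e'‖) / r)
  have hN0 : (0:ℝ) < N := lt_of_le_of_lt (by positivity) hN
  have hsmall : ‖d‖ + ‖e'‖ ≤ r * N := by
    rw [div_lt_iff₀ hr] at hN; linarith
  set F : ℕ → ℕ → ℝ := fun a b => g (P ((a:ℝ) / N, (b:ℝ) / N)) with hF
  have hcell : ∀ a < N, ∀ b < N, F (a + 1) (b + 1) + F a b = F (a + 1) b + F a (b + 1) := by
    intro a ha b hb
    have haN : (a:ℝ) / N ∈ Icc (0:ℝ) 1 := by
      constructor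
      · positivity
      · rw [div_le_one hN0]; exact_mod_cast ha.le
    have hbN : (b:ℝ) / N ∈ Icc (0:ℝ) 1 := by
      constructor
      · positivity
      · rw [div_le_one hN0]; exact_mod_cast hb.le
    set c' := P ((a:ℝ) / N, (b:ℝ) / N) with hc'
    obtain ⟨x, hx⟩ := hδK c' (mem_image_of_mem P (Set.mk_mem_prod haN hbN))
    have hcr : Cross grp (closedBall c' r) g := by
      have hsub : closedBall c' r ⊆ closedBall (x : ι → ℝ) (R x) :=
        (closedBall_subset_ball (by rw [hr']; linarith)).trans (hx.trans ball_subset_closedBall)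
      intro i j hij c α β hα hβ m1 m2 m3 m4
      exact hR _ x.2 i j hij c α β hα hβ (hsub m1) (hsub m2) (hsub m3) (hsub m4)
    have nd : ‖(1 / (N:ℝ)) • d‖ ≤ r := by
      rw [norm_smul, Real.norm_eq_abs, abs_of_pos (by positivity), one_div, inv_mul_le_iff₀ hN0]
      have := norm_nonneg e'
      linarith
    have ne' : ‖(1 / (N:ℝ)) • e'‖ ≤ r := by
      rw [norm_smul, Real.norm_eq_abs, abs_of_pos (by positivity), one_div, inv_mul_le_iff₀ hN0]
      have := norm_nonneg d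
      linarith
    have key := sep_box hcr hr.le subset_rfl k (c := c') (d := (1 / (N:ℝ)) • d)
      (e' := (1 / (N:ℝ)) • e')
      (fun l hl => by rw [Pi.smul_apply, hd l hl, smul_zero])
      (fun l hl => by rw [Pi.smul_apply, he l hl, smul_zero])
      (mem_closedBall_self hr.le)
      (by rw [mem_closedBall, dist_eq_norm, add_sub_cancel_left]; exact nd)
      (by rw [mem_closedBall, dist_eq_norm, add_sub_cancel_left]; exact ne')
    have q1 : P (((a + 1 : ℕ):ℝ) / N, (b:ℝ) / N) = c' + (1 / (N:ℝ)) • d := by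
      rw [hc', hP]; funext l
      simp only [Pi.add_apply, Pi.smul_apply, smul_eq_mul]; push_cast; ring
    have q2 : P ((a:ℝ) / N, ((b + 1 : ℕ):ℝ) / N) = c' + (1 / (N:ℝ)) • e' := by
      rw [hc', hP]; funext l
      simp only [Pi.add_apply, Pi.smul_apply, smul_eq_mul]; push_cast; ring
    have q3 : P (((a + 1 : ℕ):ℝ) / N, ((b + 1 : ℕ):ℝ) / N) =
        c' + (1 / (N:ℝ)) • d + (1 / (N:ℝ)) • e' := by
      rw [hc', hP]; funext l
      simp only [Pi.add_apply, Pi.smul_apply, smul_eq_mul]; push_cast; ring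
    simp only [hF]
    rw [q1, q2, q3, ← hc']
    exact key
  have := grid hcell
  simp only [hF, hP] at this
  rw [div_self hN0.ne'] at this
  simpa using this

/-! ### geometry -/

/-- `LH` window cone with open part `D` in the wall cone `L`, room `ρ k` for the groups in `S` -/
structure GeoH (grp : ι → κ) (S : Finset κ) (D LH L : Set (ι → ℝ)) (ρ : κ → ι → ℝ)
    (ρs : ι → ℝ) : Prop where
  coneL : Cone L
  cone : Cone LH
  subL : LH ⊆ L
  off : ∀ k ∈ S, ∀ i, grp i = k → ρ k i = 0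
  mem : ∀ k ∈ S, ρ k ∈ LH
  ex : ∀ k ∈ S, ∀ c ∈ L, ∃ R : ℝ, 0 ≤ R ∧ pr grp k c + R • ρ k ∈ LH
  opn : IsOpen D
  conv : Convex ℝ D
  sub : D ⊆ LH
  inn : ∀ c ∈ LH, ∀ ε : ℝ, 0 < ε → c + ε • ρs ∈ D

section

variable {grp : ι → κ} {S : Finset κ} {D LH L : Set (ι → ℝ)} {g : (ι → ℝ) → ℝ} {ρ : κ → ι → ℝ}
  {ρs : ι → ℝ}

theorem GeoH.rs (hG : GeoH grp S D LH L ρ ρs) : ρs ∈ LH := by
  apply hG.sub
  have := hG.inn 0 hG.cone.zero 1 one_pos
  simpa using this

theorem GeoH.mono (hG : GeoH grp S D LH L ρ ρs) {k : κ} (hk : k ∈ S) {y : ι → ℝ} {R R' : ℝ}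
    (h : y + R • ρ k ∈ LH) (hR : R ≤ R') : y + R' • ρ k ∈ LH := by
  have : y + R' • ρ k = y + R • ρ k + (R' - R) • ρ k := by
    rw [add_assoc, ← add_smul]; congr 2; ring
  rw [this]
  exact hG.cone.add _ h _ (hG.cone.smul _ (hG.mem k hk) _ (by linarith))

/-- the cylinder of the group `k` : vectors whose part in the group has room -/
def Cy (grp : ι → κ) (LH : Set (ι → ℝ)) (ρ : κ → ι → ℝ) (k : κ) : Set (ι → ℝ) :=
  {c | ∃ R : ℝ, 0 ≤ R ∧ pr grp k c + R • ρ k ∈ LH}

theorem GeoH.cy (hG : GeoH grp S D LH L ρ ρs) {k : κ} (hk : k ∈ S) {c : ι → ℝ} (hc : c ∈ L) :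
    c ∈ Cy grp LH ρ k := hG.ex k hk c hc

theorem cy_congr {k : κ} {c c' : ι → ℝ} (h : pr grp k c = pr grp k c') :
    c ∈ Cy grp LH ρ k ↔ c' ∈ Cy grp LH ρ k := by
  unfold Cy
  simp only [mem_ofPred_eq, h]

theorem cy_add (hG : GeoH grp S D LH L ρ ρs) {k : κ} {c d : ι → ℝ}
    (hc : c ∈ Cy grp LH ρ k) (hd : d ∈ Cy grp LH ρ k) : c + d ∈ Cy grp LH ρ k := by
  obtain ⟨R1, h10, h1⟩ := hc
  obtain ⟨R2, h20, h2⟩ := hd
  refine ⟨R1 + R2, by linarith, ?_⟩
  have e : pr grp k (c + d) + (R1 + R2) • ρ k =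
      (pr grp k c + R1 • ρ k) + (pr grp k d + R2 • ρ k) := by
    rw [pr_add, add_smul]; abel
  rw [e]; exact hG.cone.add _ h1 _ h2

theorem cy_smul (hG : GeoH grp S D LH L ρ ρs) {k : κ} {c : ι → ℝ}
    (hc : c ∈ Cy grp LH ρ k) {t : ℝ} (ht : 0 ≤ t) : t • c ∈ Cy grp LH ρ k := by
  obtain ⟨R1, h10, h1⟩ := hc
  refine ⟨t * R1, mul_nonneg ht h10, ?_⟩
  have e : pr grp k (t • c) + (t * R1) • ρ k = t • (pr grp k c + R1 • ρ k) := by
    rw [pr_smul, smul_add, mul_smul]
  rw [e]; exact hG.cone.smul _ h1 _ ht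

theorem rm_specH {k : κ} {c : ι → ℝ} (hc : c ∈ Cy grp LH ρ k) :
    0 ≤ rm grp LH ρ k c ∧ pr grp k c + rm grp LH ρ k c • ρ k ∈ LH := by
  have h : ∃ R : ℝ, 0 ≤ R ∧ pr grp k c + R • ρ k ∈ LH := hc
  rw [rm, dif_pos h]
  exact Classical.choose_spec h

theorem phi_eqH' (hG : GeoH grp S D LH L ρ ρs) (hg : Sep grp LH g) {k : κ} (hk : k ∈ S)
    {c : ι → ℝ} {R R' : ℝ} (hR : 0 ≤ R) (hR' : 0 ≤ R') (h1 : pr grp k c + R • ρ k ∈ LH)
    (h2 : pr grp k c + R' • ρ k ∈ LH) :
    g (pr grp k c + R • ρ k) - g (R • ρ k) = g (pr grp k c + R' • ρ k) - g (R' • ρ k) := by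
  have m1 : R • ρ k ∈ LH := hG.cone.smul _ (hG.mem k hk) _ hR
  have m2 : R' • ρ k ∈ LH := hG.cone.smul _ (hG.mem k hk) _ hR'
  have q1 : R • ρ k + (R' - R) • ρ k = R' • ρ k := by rw [← add_smul]; congr 1; ring
  have q2 : R • ρ k + pr grp k c = pr grp k c + R • ρ k := add_comm _ _
  have q3 : R • ρ k + pr grp k c + (R' - R) • ρ k = pr grp k c + R' • ρ k := by
    rw [q2, add_assoc, q1]
  have := hg k (R • ρ k) (pr grp k c) ((R' - R) • ρ k) (fun l hl => pr_off k c hl)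
    (fun l hl => by rw [Pi.smul_apply, hG.off k hk l hl, smul_zero]) m1 (by rw [q2]; exact h1)
    (by rw [q1]; exact m2) (by rw [q3]; exact h2)
  rw [q3, q2, q1] at this
  linarith

/-- the group function does not depend on the room -/
theorem phi_eqH (hG : GeoH grp S D LH L ρ ρs) (hg : Sep grp LH g) {k : κ} (hk : k ∈ S)
    {c : ι → ℝ} {R : ℝ} (hR : 0 ≤ R) (h1 : pr grp k c + R • ρ k ∈ LH) :
    phi grp LH g ρ k c = g (pr grp k c + R • ρ k) - g (R • ρ k) :=
  phi_eqH' hG hg hk (rm_specH ⟨R, hR, h1⟩).1 hR (rm_specH ⟨R, hR, h1⟩).2 h1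

theorem prd_eq {k : κ} {d : ι → ℝ} (hd : ∀ l, grp l ≠ k → d l = 0) : pr grp k d = d := by
  funext i
  by_cases hi : grp i = k
  · exact pr_in k d hi
  · rw [pr_off k d hi, hd i hi]

/-- increments in a group direction are increments of the group function -/
theorem inc_eqH (hG : GeoH grp S D LH L ρ ρs) (hg : Sep grp LH g) {k : κ} (hk : k ∈ S)
    {c d : ι → ℝ} (hd : ∀ l, grp l ≠ k → d l = 0) (hc : c ∈ LH) (hcd : c + d ∈ LH) :
    g (c + d) - g c = phi grp LH g ρ k (c + d) - phi grp LH g ρ k c := by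
  obtain ⟨R1, h10, h1⟩ := hG.ex k hk c (hG.subL hc)
  obtain ⟨R2, h20, h2⟩ := hG.ex k hk _ (hG.subL hcd)
  set R := R1 + R2 with hR
  have hR0 : 0 ≤ R := by linarith
  have m1 : pr grp k c + R • ρ k ∈ LH := hG.mono hk h1 (by linarith)
  have m2 : pr grp k (c + d) + R • ρ k ∈ LH := hG.mono hk h2 (by linarith)
  rw [phi_eqH hG hg hk hR0 m2, phi_eqH hG hg hk hR0 m1]
  have prd : pr grp k d = d := prd_eq hd
  set e' : ι → ℝ := pr grp k c + R • ρ k - c with he'
  have q1 : c + e' = pr grp k c + R • ρ k := by rw [he']; abel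
  have q2 : c + d + e' = pr grp k (c + d) + R • ρ k := by
    rw [he', pr_add, prd]; abel
  have := hg k c d e' hd (fun l hl => by
    rw [he', Pi.sub_apply, Pi.add_apply, pr_in k c hl, Pi.smul_apply, hG.off k hk l hl]; simp)
    hc hcd (by rw [q1]; exact m1) (by rw [q2]; exact m2)
  rw [q1, q2] at this
  linarith

/-- small step: the increment is the sum of the increments of the groups -/
theorem step_sumH (hG : GeoH grp S D LH L ρ ρs) (hg : Sep grp LH g) {c0 : ι → ℝ} {r : ℝ}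
    (hr : 0 ≤ r) (hD : closedBall c0 r ⊆ LH) {d : ι → ℝ} (hd : ‖d‖ ≤ r) (T : Finset κ)
    (hT : T ⊆ S) :
    g (c0 + ∑ k ∈ T, pr grp k d) - g c0 =
      ∑ k ∈ T, (phi grp LH g ρ k (c0 + d) - phi grp LH g ρ k c0) := by
  have mem : ∀ S : Finset κ, c0 + ∑ k ∈ S, pr grp k d ∈ LH := by
    intro S
    apply hD
    rw [mem_ball_pi hr]
    intro i
    rw [Pi.add_apply, sum_pr, add_sub_cancel_left]
    by_cases h : grp i ∈ S
    · rw [if_pos h]
      exact (by rw [← Real.norm_eq_abs]; exact norm_le_pi_norm d i : |d i| ≤ ‖d‖).trans hd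
    · rw [if_neg h, abs_zero]; exact hr
  have m0 : c0 ∈ LH := hD (mem_closedBall_self hr)
  have m1 : c0 + d ∈ LH := by
    apply hD
    rw [mem_closedBall, dist_eq_norm, add_sub_cancel_left]; exact hd
  induction T using Finset.induction_on with
  | empty => simp
  | insert a T ha ih =>
    rw [Finset.sum_insert ha, Finset.sum_insert ha]
    have haS : a ∈ S := hT (Finset.mem_insert_self _ _)
    have ih := ih ((Finset.subset_insert _ _).trans hT)
    have h1 := inc_eqH hG hg haS (c := c0 + ∑ k ∈ T, pr grp k d) (d := pr grp a d)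
      (fun l hl => pr_off a d hl) (mem T) (by
        have := mem (insert a T)
        rw [Finset.sum_insert ha] at this
        rw [add_assoc, add_comm (∑ k ∈ T, pr grp k d)]; exact this)
    have e1 : c0 + (pr grp a d + ∑ k ∈ T, pr grp k d) = c0 + ∑ k ∈ T, pr grp k d + pr grp a d := by
      abel
    have c1 : phi grp LH g ρ a (c0 + ∑ k ∈ T, pr grp k d + pr grp a d) =
        phi grp LH g ρ a (c0 + d) := by
      apply phi_congr
      funext i
      by_cases hi : grp i = a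
      · rw [pr_in a _ hi, pr_in a _ hi, Pi.add_apply, Pi.add_apply, Pi.add_apply, sum_pr,
          if_neg (by rw [hi]; exact ha), pr_in a d hi, add_zero]
      · rw [pr_off a _ hi, pr_off a _ hi]
    have c2 : phi grp LH g ρ a (c0 + ∑ k ∈ T, pr grp k d) = phi grp LH g ρ a c0 := by
      apply phi_congr
      funext i
      by_cases hi : grp i = a
      · rw [pr_in a _ hi, pr_in a _ hi, Pi.add_apply, sum_pr, if_neg (by rw [hi]; exact ha),
          add_zero]
      · rw [pr_off a _ hi, pr_off a _ hi]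
    rw [c1, c2] at h1
    rw [e1]
    linarith

theorem sum_supp {T : Finset κ} {d : ι → ℝ} (hd : ∀ i, grp i ∉ T → d i = 0) :
    ∑ k ∈ T, pr grp k d = d := by
  funext i
  rw [sum_pr]
  by_cases h : grp i ∈ T
  · rw [if_pos h]
  · rw [if_neg h, hd i h]

/-- **representation on the open part**, directions supported on the groups of `S` -/
theorem repr_openH (hG : GeoH grp S D LH L ρ ρs) (hg : Sep grp LH g) {c d : ι → ℝ}
    (hd : ∀ i, grp i ∉ S → d i = 0) (hseg : ∀ t ∈ Icc (0:ℝ) 1, c + t • d ∈ D) :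
    g (c + d) - g c = ∑ k ∈ S, (phi grp LH g ρ k (c + d) - phi grp LH g ρ k c) := by
  set P : ℝ → (ι → ℝ) := fun t => c + t • d with hP
  have cP : Continuous P := by rw [hP]; fun_prop
  have hK : IsCompact (P '' Icc (0:ℝ) 1) := isCompact_Icc.image cP
  obtain ⟨r, hr, hrD⟩ := hK.exists_cthickening_subset_open hG.opn (by
    rintro _ ⟨x, hx, rfl⟩; exact hseg x hx)
  obtain ⟨N, hN⟩ := exists_nat_gt (‖d‖ / r)
  have hN0 : (0:ℝ) < N := lt_of_le_of_lt (by positivity) hN
  have hsmall : ‖d‖ ≤ r * N := by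
    rw [div_lt_iff₀ hr] at hN; linarith
  have hcell : ∀ a < N, g (P (((a + 1 : ℕ):ℝ) / N)) - g (P ((a:ℝ) / N)) =
      ∑ k ∈ S, (phi grp LH g ρ k (P (((a + 1 : ℕ):ℝ) / N)) -
        phi grp LH g ρ k (P ((a:ℝ) / N))) := by
    intro a ha
    have haN : (a:ℝ) / N ∈ Icc (0:ℝ) 1 := by
      constructor
      · positivity
      · rw [div_le_one hN0]; exact_mod_cast ha.le
    have hball : closedBall (P ((a:ℝ) / N)) r ⊆ LH :=
      ((closedBall_subset_cthickening (mem_image_of_mem P haN) r).trans hrD).trans hG.sub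
    have nd : ‖(1 / (N:ℝ)) • d‖ ≤ r := by
      rw [norm_smul, Real.norm_eq_abs, abs_of_pos (by positivity), one_div, inv_mul_le_iff₀ hN0]
      linarith
    have key := step_sumH hG hg hr.le hball nd S subset_rfl
    rw [sum_supp (d := (1 / (N:ℝ)) • d) (fun i hi => by rw [Pi.smul_apply, hd i hi, smul_zero])]
      at key
    have q1 : P (((a + 1 : ℕ):ℝ) / N) = P ((a:ℝ) / N) + (1 / (N:ℝ)) • d := by
      rw [hP]; funext l
      simp only [Pi.add_apply, Pi.smul_apply, smul_eq_mul]; push_cast; ring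
    rw [q1]
    exact key
  have hall : ∀ a ≤ N, g (P ((a:ℝ) / N)) - g (P 0) =
      ∑ k ∈ S, (phi grp LH g ρ k (P ((a:ℝ) / N)) - phi grp LH g ρ k (P 0)) := by
    intro a
    induction a with
    | zero => intro _; simp
    | succ a ih =>
      intro ha
      have h1 := ih (by omega)
      have h2 := hcell a (by omega)
      have h3 : ∑ k ∈ S, (phi grp LH g ρ k (P (((a + 1 : ℕ):ℝ) / N)) - phi grp LH g ρ k (P 0)) =
          ∑ k ∈ S, (phi grp LH g ρ k (P (((a + 1 : ℕ):ℝ) / N)) -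
            phi grp LH g ρ k (P ((a:ℝ) / N))) +
          ∑ k ∈ S, (phi grp LH g ρ k (P ((a:ℝ) / N)) - phi grp LH g ρ k (P 0)) := by
        rw [← Finset.sum_add_distrib]
        exact Finset.sum_congr rfl fun k _ => by ring
      rw [h3, ← h1, ← h2]; ring
  have := hall N le_rfl
  rw [div_self hN0.ne'] at this
  simpa [hP] using this

theorem phi_limH (hG : GeoH grp S D LH L ρ ρs) (hg : Sep grp LH g) (gc : Continuous g) {k : κ}
    (hk : k ∈ S) {c : ι → ℝ} (hc : c ∈ L) :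
    Tendsto (fun ε : ℝ => phi grp LH g ρ k (c + ε • ρs)) (𝓝[>] 0) (𝓝 (phi grp LH g ρ k c)) := by
  obtain ⟨R1, h10, h1⟩ := hG.ex k hk c hc
  obtain ⟨R2, h20, h2⟩ := hG.ex k hk ρs (hG.subL hG.rs)
  set R := R1 + R2 with hR
  have hR0 : 0 ≤ R := by linarith
  have m1 : pr grp k c + R • ρ k ∈ LH := hG.mono hk h1 (by linarith)
  have m2 : ∀ ε : ℝ, 0 < ε → ε ≤ 1 → pr grp k (c + ε • ρs) + R • ρ k ∈ LH := by
    intro ε h0 h1'
    have h3 : pr grp k (c + ε • ρs) + (R1 + ε * R2) • ρ k ∈ LH := by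
      have e : pr grp k (c + ε • ρs) + (R1 + ε * R2) • ρ k =
          (pr grp k c + R1 • ρ k) + ε • (pr grp k ρs + R2 • ρ k) := by
        rw [pr_add, pr_smul, add_smul, mul_smul, smul_add]; abel
      rw [e]; exact hG.cone.add _ h1 _ (hG.cone.smul _ h2 _ h0.le)
    exact hG.mono hk h3 (by nlinarith)
  rw [phi_eqH hG hg hk hR0 m1]
  have h6 : Tendsto (fun ε : ℝ => g ((pr grp k c + ε • pr grp k ρs) + R • ρ k) - g (R • ρ k))
      (𝓝[>] 0) (𝓝 (g (pr grp k c + R • ρ k) - g (R • ρ k))) := by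
    have h5 : Continuous fun ε : ℝ =>
        g ((pr grp k c + ε • pr grp k ρs) + R • ρ k) - g (R • ρ k) :=
      (gc.comp (by fun_prop)).sub continuous_const
    have := h5.tendsto 0
    simp only [zero_smul, add_zero] at this
    exact this.mono_left nhdsWithin_le_nhds
  refine h6.congr' ?_
  filter_upwards [Ioo_mem_nhdsGT one_pos] with ε hε
  rw [phi_eqH hG hg hk hR0 (m2 ε hε.1 hε.2.le), pr_add, pr_smul]

/-- **representation** : increments between two points of `LH` with the same coordinates in the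
groups outside `S` -/
theorem reprH (hG : GeoH grp S D LH L ρ ρs) (hg : Sep grp LH g) (gc : Continuous g)
    {c c' : ι → ℝ} (hc : c ∈ LH) (hc' : c' ∈ LH) (hcc : ∀ i, grp i ∉ S → c' i = c i) :
    g c' - g c = ∑ k ∈ S, (phi grp LH g ρ k c' - phi grp LH g ρ k c) := by
  have key : ∀ ε : ℝ, 0 < ε → g (c' + ε • ρs) - g (c + ε • ρs) = ∑ k ∈ S,
      (phi grp LH g ρ k (c' + ε • ρs) - phi grp LH g ρ k (c + ε • ρs)) := by
    intro ε hε
    have h1 := repr_openH hG hg (c := c + ε • ρs) (d := c' - c) (by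
      intro i hi; rw [Pi.sub_apply, hcc i hi, sub_self]) (by
      intro t ht
      have a1 := hG.inn c hc ε hε
      have a2 := hG.inn c' hc' ε hε
      have a3 := hG.conv a1 a2 (a := 1 - t) (b := t) (by linarith [ht.2]) ht.1 (by ring)
      convert a3 using 1
      funext l
      simp only [Pi.add_apply, Pi.smul_apply, Pi.sub_apply, smul_eq_mul]
      ring)
    have e1 : c + ε • ρs + (c' - c) = c' + ε • ρs := by abel
    rw [e1] at h1
    exact h1
  have lim : ∀ x : ι → ℝ, Tendsto (fun ε : ℝ => g (x + ε • ρs)) (𝓝[>] 0) (𝓝 (g x)) := by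
    intro x
    have : Continuous fun ε : ℝ => g (x + ε • ρs) := gc.comp (by fun_prop)
    have h5 := this.tendsto 0
    rw [zero_smul, add_zero] at h5
    exact h5.mono_left nhdsWithin_le_nhds
  have l1 := (lim c').sub (lim c)
  have l2 : Tendsto (fun ε : ℝ => ∑ k ∈ S, (phi grp LH g ρ k (c' + ε • ρs) -
      phi grp LH g ρ k (c + ε • ρs))) (𝓝[>] 0)
      (𝓝 (∑ k ∈ S, (phi grp LH g ρ k c' - phi grp LH g ρ k c))) :=
    tendsto_finsetSum _ fun k hk =>
      (phi_limH hG hg gc hk (hG.subL hc')).sub (phi_limH hG hg gc hk (hG.subL hc))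
  exact tendsto_nhds_unique (l1.congr' (by
    filter_upwards [self_mem_nhdsWithin] with ε hε
    exact key ε hε)) l2

/-- monotonicity and Lipschitz bound of the group functions, on the whole cylinder -/
theorem phi_monoH (hG : GeoH grp S D LH L ρ ρs) (hg : Sep grp LH g)
    (hm : ∀ c ∈ LH, ∀ c' ∈ LH, c ≤ c' → 0 ≤ g c - g c' ∧ g c - g c' ≤ ∑ i, (c' i - c i))
    {k : κ} (hk : k ∈ S) {c c' : ι → ℝ} (hc : c ∈ Cy grp LH ρ k) (hc' : c' ∈ Cy grp LH ρ k)
    (hcc : ∀ i, grp i = k → c i ≤ c' i) :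
    0 ≤ phi grp LH g ρ k c - phi grp LH g ρ k c' ∧
      phi grp LH g ρ k c - phi grp LH g ρ k c' ≤
      ∑ i ∈ Finset.univ.filter (fun i => grp i = k), (c' i - c i) := by
  obtain ⟨R1, h10, h1⟩ := hc
  obtain ⟨R2, h20, h2⟩ := hc'
  set R := R1 + R2 with hR
  have hR0 : 0 ≤ R := by linarith
  have m1 : pr grp k c + R • ρ k ∈ LH := hG.mono hk h1 (by linarith)
  have m2 : pr grp k c' + R • ρ k ∈ LH := hG.mono hk h2 (by linarith)
  rw [phi_eqH hG hg hk hR0 m1, phi_eqH hG hg hk hR0 m2]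
  have h3 := hm _ m1 _ m2 (by
    intro i
    rw [Pi.add_apply, Pi.add_apply]
    by_cases hi : grp i = k
    · rw [pr_in k c hi, pr_in k c' hi]; linarith [hcc i hi]
    · rw [pr_off k c hi, pr_off k c' hi])
  rw [sum_pr_sub] at h3
  constructor
  · linarith [h3.1]
  · linarith [h3.2]

theorem inf_prH (k : κ) (p q : ι → ℝ) (x : ι → ℝ) :
    (pr grp k p + x) ⊓ (pr grp k q + x) = pr grp k (p ⊓ q) + x := by
  funext i
  simp only [Pi.inf_apply, Pi.add_apply]
  by_cases hi : grp i = k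
  · rw [pr_in k _ hi, pr_in k _ hi, pr_in k _ hi, Pi.inf_apply]
    exact (inf_add _ _ _).symm
  · rw [pr_off k _ hi, pr_off k _ hi, pr_off k _ hi, inf_idem]

theorem sup_prH (k : κ) (p q : ι → ℝ) (x : ι → ℝ) :
    (pr grp k p + x) ⊔ (pr grp k q + x) = pr grp k (p ⊔ q) + x := by
  funext i
  simp only [Pi.sup_apply, Pi.add_apply]
  by_cases hi : grp i = k
  · rw [pr_in k _ hi, pr_in k _ hi, pr_in k _ hi, Pi.sup_apply]
    exact (sup_add _ _ _).symm
  · rw [pr_off k _ hi, pr_off k _ hi, pr_off k _ hi, sup_idem]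

/-- supermodularity of the group functions, on the whole wall cone -/
theorem phi_supH (hG : GeoH grp S D LH L ρ ρs) (hg : Sep grp LH g)
    (hs : ∀ p ∈ LH, ∀ q ∈ LH, p ⊓ q ∈ LH → p ⊔ q ∈ LH → g p + g q ≤ g (p ⊔ q) + g (p ⊓ q))
    {k : κ} (hk : k ∈ S) {p q : ι → ℝ} (hp : p ∈ Cy grp LH ρ k) (hq : q ∈ Cy grp LH ρ k)
    (h1 : p ⊓ q ∈ Cy grp LH ρ k) (h2 : p ⊔ q ∈ Cy grp LH ρ k) :
    phi grp LH g ρ k p + phi grp LH g ρ k q ≤
      phi grp LH g ρ k (p ⊔ q) + phi grp LH g ρ k (p ⊓ q) := by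
  obtain ⟨R1, r1, s1⟩ := hp
  obtain ⟨R2, r2, s2⟩ := hq
  obtain ⟨R3, r3, s3⟩ := h1
  obtain ⟨R4, r4, s4⟩ := h2
  set R := R1 + R2 + R3 + R4 with hR
  have hR0 : 0 ≤ R := by linarith
  have m1 : pr grp k p + R • ρ k ∈ LH := hG.mono hk s1 (by linarith)
  have m2 : pr grp k q + R • ρ k ∈ LH := hG.mono hk s2 (by linarith)
  have m3 : pr grp k (p ⊓ q) + R • ρ k ∈ LH := hG.mono hk s3 (by linarith)
  have m4 : pr grp k (p ⊔ q) + R • ρ k ∈ LH := hG.mono hk s4 (by linarith)
  rw [phi_eqH hG hg hk hR0 m1, phi_eqH hG hg hk hR0 m2,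
    phi_eqH hG hg hk hR0 m3, phi_eqH hG hg hk hR0 m4]
  have h3 := hs _ m1 _ m2 (by rw [inf_prH]; exact m3) (by rw [sup_prH]; exact m4)
  rw [inf_prH, sup_prH] at h3
  linarith

/-- Lipschitz bound of the group functions, on the whole cylinder -/
theorem phi_lipH (hG : GeoH grp S D LH L ρ ρs) (hg : Sep grp LH g) {K : ℝ}
    (hlip : ∀ p ∈ LH, ∀ q ∈ LH, |g p - g q| ≤ K * dist p q)
    {k : κ} (hk : k ∈ S) {c c' : ι → ℝ} (hc : c ∈ Cy grp LH ρ k) (hc' : c' ∈ Cy grp LH ρ k) :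
    |phi grp LH g ρ k c - phi grp LH g ρ k c'| ≤ K * dist (pr grp k c) (pr grp k c') := by
  obtain ⟨R1, h10, h1⟩ := hc
  obtain ⟨R2, h20, h2⟩ := hc'
  set R := R1 + R2 with hR
  have hR0 : 0 ≤ R := by linarith
  have m1 : pr grp k c + R • ρ k ∈ LH := hG.mono hk h1 (by linarith)
  have m2 : pr grp k c' + R • ρ k ∈ LH := hG.mono hk h2 (by linarith)
  rw [phi_eqH hG hg hk hR0 m1, phi_eqH hG hg hk hR0 m2, sub_sub_sub_cancel_right]
  refine (hlip _ m1 _ m2).trans (le_of_eq ?_)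
  rw [dist_add_right]

end

end Crest.Agent.R136.Rc146
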