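import Crest.Agent.R136.Rc1_146
import Crest.Agent.R136.Dg6_219

/-!
# R136: record blow-up, consumer half (helper146), part 2: the window cone of a half plane

Half plane `lf l w ≤ 0` of the natural plane with directions `a, b`; window cone
`LH = {Tn w + c | lf l w ≤ 0, c ∈ L, ‖c‖ ≤ c0 (-lf l w)}`.
`geoH` : `GeoH` for the groups whose slope is not parallel to `l`.
`LH_sub` : `LH` lies in the cone of the walls active along the record line if `c0` is small.
-/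

set_option autoImplicit false
set_option linter.unusedSectionVars false
set_option linter.unusedVariables false

open Set Filter Topology Metric

namespace Crest.Agent.R136.Rc146

open Dg262 (X X_cont)
open Dg219

variable {ι κ W : Type*} [Fintype ι] [DecidableEq ι] [DecidableEq κ] [Fintype W]

/-- the closed window cone -/
def LH (L : Set (ι → ℝ)) (a b : ι → ℝ) (l : ℝ × ℝ) (c0 : ℝ) : Set (ι → ℝ) :=
  {p | ∃ (w : ℝ × ℝ) (c : ι → ℝ), lf l w ≤ 0 ∧ c ∈ L ∧ ‖c‖ ≤ c0 * -(lf l w) ∧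
    p = Tn a b w + c}

/-- the open window cone -/
def DH (D : Set (ι → ℝ)) (a b : ι → ℝ) (l : ℝ × ℝ) (c0 : ℝ) : Set (ι → ℝ) :=
  {p | ∃ (w : ℝ × ℝ) (c : ι → ℝ), lf l w < 0 ∧ c ∈ D ∧ ‖c‖ < c0 * -(lf l w) ∧
    p = Tn a b w + c}

/-- directions of the groups, with sign (zero allowed) -/
structure SDir (grp : ι → κ) (a b : ι → ℝ) (n : κ → ℝ × ℝ) (dh : ι → ℝ) : Prop where
  fst : ∀ i, a i = dh i * (n (grp i)).1
  snd : ∀ i, b i = dh i * (n (grp i)).2
  ne : ∀ i, n (grp i) ≠ 0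
  det : ∀ i j, grp i ≠ grp j → det2 (n (grp i)) (n (grp j)) ≠ 0

theorem Dir.sdir {grp : ι → κ} {a b : ι → ℝ} {n : κ → ℝ × ℝ} {dh : ι → ℝ}
    (h : Dir grp a b n dh) : SDir grp a b n dh := ⟨h.fst, h.snd, h.ne, h.det⟩

theorem SDir.Tn_eq {grp : ι → κ} {a b : ι → ℝ} {n : κ → ℝ × ℝ} {dh : ι → ℝ}
    (h : SDir grp a b n dh) (z : ℝ × ℝ) (i : ι) : Tn a b z i = lf (n (grp i)) z * dh i := by
  simp only [Tn, lf]; rw [h.fst i, h.snd i]; ring

/-- groups not parallel to the record line -/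
noncomputable def SH (grp : ι → κ) (n : κ → ℝ × ℝ) (l : ℝ × ℝ) : Finset κ := by
  classical exact (gset grp).filter (fun k => det2 (n k) l ≠ 0)

theorem mem_SH {grp : ι → κ} {n : κ → ℝ × ℝ} {l : ℝ × ℝ} {k : κ} :
    k ∈ SH grp n l ↔ k ∈ gset grp ∧ det2 (n k) l ≠ 0 := by
  unfold SH; rw [Finset.mem_filter]

/-- direction fixing the group `k`, one unit into the half plane -/
noncomputable def vd (n : κ → ℝ × ℝ) (l : ℝ × ℝ) (k : κ) : ℝ × ℝ :=
  ((n k).2 / det2 (n k) l, -((n k).1 / det2 (n k) l))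

theorem lf_vd_n (n : κ → ℝ × ℝ) (l : ℝ × ℝ) (k : κ) : lf (n k) (vd n l k) = 0 := by
  simp only [lf, vd]; ring

theorem lf_vd_l {n : κ → ℝ × ℝ} {l : ℝ × ℝ} {k : κ} (h : det2 (n k) l ≠ 0) :
    lf l (vd n l k) = -1 := by
  have h1 : lf l (vd n l k) = -(det2 (n k) l / det2 (n k) l) := by
    simp only [lf, vd]
    have : det2 (n k) l = (n k).1 * l.2 - (n k).2 * l.1 := rfl
    rw [show det2 (n k) l / det2 (n k) l =
      ((n k).1 * l.2 - (n k).2 * l.1) / det2 (n k) l from by rw [← this]]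
    ring
  rw [h1, div_self h]

/-- room for the group `k` -/
noncomputable def rmH (ρ : κ → ι → ℝ) (a b : ι → ℝ) (n : κ → ℝ × ℝ) (l : ℝ × ℝ)
    (c0 : ℝ) (k : κ) : ι → ℝ :=
  Tn a b (vd n l k) + (c0 / (2 * (1 + ‖ρ k‖))) • ρ k

/-- interior direction -/
noncomputable def rsH (ρs : ι → ℝ) (a b : ι → ℝ) (l : ℝ × ℝ) (c0 : ℝ) : ι → ℝ :=
  Tn a b (zz l (-1)) + (c0 / (2 * (1 + ‖ρs‖))) • ρs

theorem Tn_add (a b : ι → ℝ) (z z' : ℝ × ℝ) : Tn a b (z + z') = Tn a b z + Tn a b z' := by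
  funext i; simp only [Tn, Pi.add_apply, Prod.fst_add, Prod.snd_add]; ring

theorem Tn_smul (a b : ι → ℝ) (t : ℝ) (z : ℝ × ℝ) : Tn a b (t • z) = t • Tn a b z := by
  funext i; simp only [Tn, Pi.smul_apply, smul_eq_mul, Prod.smul_fst, Prod.smul_snd]; ring

theorem Tn_zero (a b : ι → ℝ) : Tn a b (0 : ℝ × ℝ) = 0 := by
  funext i; simp [Tn]

theorem lf_add (l z z' : ℝ × ℝ) : lf l (z + z') = lf l z + lf l z' := by
  simp only [lf, Prod.fst_add, Prod.snd_add]; ring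

theorem lf_smul (l : ℝ × ℝ) (t : ℝ) (z : ℝ × ℝ) : lf l (t • z) = t * lf l z := by
  simp only [lf, Prod.smul_fst, Prod.smul_snd, smul_eq_mul]; ring

theorem lf_zero (l : ℝ × ℝ) : lf l (0 : ℝ × ℝ) = 0 := by simp [lf]

theorem half_lt {c0 x : ℝ} (hc0 : 0 < c0) (hx : 0 ≤ x) : c0 / (2 * (1 + x)) * x ≤ c0 / 2 := by
  rw [div_mul_eq_mul_div, div_le_div_iff₀ (by positivity) (by norm_num)]
  nlinarith

section

variable {L D : Set (ι → ℝ)} {a b : ι → ℝ} {l : ℝ × ℝ} {c0 : ℝ}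

theorem LH_cone (hL : Cone L) (hc0 : 0 < c0) : Cone (LH L a b l c0) where
  zero := ⟨0, 0, by rw [lf_zero], hL.zero, by rw [lf_zero]; simp, by rw [Tn_zero]; simp⟩
  add := by
    rintro _ ⟨w, c, h1, h2, h3, rfl⟩ _ ⟨w', c', h1', h2', h3', rfl⟩
    refine ⟨w + w', c + c', by rw [lf_add]; linarith, hL.add _ h2 _ h2', ?_, ?_⟩
    · rw [lf_add]
      refine (norm_add_le _ _).trans ?_
      linarith
    · rw [Tn_add]; abel
  smul := by
    rintro _ ⟨w, c, h1, h2, h3, rfl⟩ t ht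
    refine ⟨t • w, t • c, ?_, hL.smul _ h2 _ ht, ?_, ?_⟩
    · rw [lf_smul]; exact mul_nonpos_of_nonneg_of_nonpos ht h1
    · rw [lf_smul, norm_smul, Real.norm_of_nonneg ht]
      have := mul_le_mul_of_nonneg_left h3 ht
      linarith
    · rw [Tn_smul, smul_add]

theorem DH_sub (hDL : D ⊆ L) : DH D a b l c0 ⊆ LH L a b l c0 := by
  rintro _ ⟨w, c, h1, h2, h3, rfl⟩
  exact ⟨w, c, h1.le, hDL h2, h3.le, rfl⟩

theorem LH_subL (hL : Cone L) (hnat : ∀ z, Tn a b z ∈ L) : LH L a b l c0 ⊆ L := by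
  rintro _ ⟨w, c, h1, h2, h3, rfl⟩
  exact hL.add _ (hnat w) _ h2

theorem Tn_memLH (hL : Cone L) {w : ℝ × ℝ} (hc0 : 0 < c0) (hw : lf l w ≤ 0) :
    Tn a b w ∈ LH L a b l c0 :=
  ⟨w, 0, hw, hL.zero, by rw [norm_zero]; exact mul_nonneg hc0.le (by linarith), by simp⟩

theorem DH_open (hD : IsOpen D) : IsOpen (DH D a b l c0) := by
  have e : DH D a b l c0 = ⋃ w : ℝ × ℝ, ⋃ (_ : lf l w < 0),
      (fun p : ι → ℝ => p - Tn a b w) ⁻¹' (D ∩ {c | ‖c‖ < c0 * -(lf l w)}) := by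
    ext p
    simp only [DH, mem_ofPred_eq, mem_iUnion, mem_preimage, mem_inter_iff, exists_prop]
    constructor
    · rintro ⟨w, c, h1, h2, h3, rfl⟩
      exact ⟨w, h1, by rw [add_sub_cancel_left]; exact ⟨h2, h3⟩⟩
    · rintro ⟨w, h1, h2, h3⟩
      exact ⟨w, p - Tn a b w, h1, h2, h3, by abel⟩
  rw [e]
  refine isOpen_iUnion fun w => isOpen_iUnion fun _ => ?_
  refine (hD.inter ?_).preimage (by fun_prop)
  exact isOpen_lt continuous_norm continuous_const

theorem DH_convex (hD : Convex ℝ D) : Convex ℝ (DH D a b l c0) := by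
  rintro _ ⟨w, c, h1, h2, h3, rfl⟩ _ ⟨w', c', h1', h2', h3', rfl⟩ s t hs ht hst
  refine ⟨s • w + t • w', s • c + t • c', ?_, hD h2 h2' hs ht hst, ?_, ?_⟩
  · rw [lf_add, lf_smul, lf_smul]
    rcases hs.eq_or_lt with h | h
    · rw [← h] at hst ⊢
      have : t = 1 := by linarith
      rw [this]; linarith
    · nlinarith
  · rw [lf_add, lf_smul, lf_smul]
    refine (norm_add_le _ _).trans_lt ?_
    rw [norm_smul, norm_smul, Real.norm_of_nonneg hs, Real.norm_of_nonneg ht]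
    rcases hs.eq_or_lt with h | h
    · rw [← h] at hst ⊢
      have : t = 1 := by linarith
      rw [this]; linarith
    · nlinarith
  · rw [Tn_add, Tn_smul, Tn_smul, smul_add, smul_add]; abel

theorem DH_inn (hl : l ≠ 0) (hc0 : 0 < c0) {ρs : ι → ℝ}
    (hinn : ∀ c ∈ L, ∀ ε : ℝ, 0 < ε → c + ε • ρs ∈ D) {p : ι → ℝ} (hp : p ∈ LH L a b l c0)
    {ε : ℝ} (hε : 0 < ε) : p + ε • rsH ρs a b l c0 ∈ DH D a b l c0 := by
  obtain ⟨w, c, h1, h2, h3, rfl⟩ := hp
  set δ : ℝ := c0 / (2 * (1 + ‖ρs‖)) with hδ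
  have hδ0 : 0 < δ := by positivity
  refine ⟨w + ε • zz l (-1), c + (ε * δ) • ρs, ?_, ?_, ?_, ?_⟩
  · rw [lf_add, lf_smul, lf_zz hl]; nlinarith
  · exact hinn c h2 _ (by positivity)
  · rw [lf_add, lf_smul, lf_zz hl]
    refine (norm_add_le _ _).trans_lt ?_
    rw [norm_smul, Real.norm_of_nonneg (by positivity : 0 ≤ ε * δ)]
    have h4 := half_lt hc0 (norm_nonneg ρs)
    have h5 : ε * δ * ‖ρs‖ ≤ ε * (c0 / 2) := by
      rw [mul_assoc]; exact mul_le_mul_of_nonneg_left h4 hε.le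
    nlinarith
  · unfold rsH
    rw [Tn_add, Tn_smul, smul_add, smul_smul]
    abel

/-- **geometry of the window cone** -/
theorem geoH {grp : ι → κ} {n : κ → ℝ × ℝ} {dh : ι → ℝ} {ρ : κ → ι → ℝ} {ρs : ι → ℝ}
    (hG : Geo grp D L ρ ρs) (hnat : ∀ z, Tn a b z ∈ L) (hd : SDir grp a b n dh) (hl : l ≠ 0)
    (hc0 : 0 < c0) : GeoH grp (SH grp n l) (DH D a b l c0) (LH L a b l c0) L
      (rmH ρ a b n l c0) (rsH ρs a b l c0) where
  coneL := hG.cone
  cone := LH_cone hG.cone hc0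
  subL := LH_subL hG.cone hnat
  off := fun k hk i hi => by
    unfold rmH
    rw [Pi.add_apply, Pi.smul_apply, hd.Tn_eq, hi, lf_vd_n, hG.room.off k i hi]
    simp
  mem := fun k hk => by
    have h0 := (mem_SH.1 hk).2
    refine ⟨vd n l k, _, by rw [lf_vd_l h0]; norm_num,
      hG.cone.smul _ (hG.room.mem k) _ (by positivity), ?_, rfl⟩
    rw [lf_vd_l h0, norm_smul, Real.norm_of_nonneg (by positivity)]
    have := half_lt hc0 (norm_nonneg (ρ k))
    linarith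
  ex := fun k hk c hc => by
    have h0 := (mem_SH.1 hk).2
    obtain ⟨R1, h10, h1⟩ := hG.room.ex k c hc
    set ε : ℝ := c0 / (2 * (1 + ‖ρ k‖)) with hε
    have hε0 : 0 < ε := by positivity
    set R : ℝ := R1 / ε + 2 * ‖pr grp k c‖ / c0 with hR
    have hR0 : 0 ≤ R := by positivity
    refine ⟨R, hR0, R • vd n l k, pr grp k c + (R * ε) • ρ k, ?_, ?_, ?_, ?_⟩
    · rw [lf_smul, lf_vd_l h0]; linarith
    · refine hG.room.mono hG.cone h1 ?_
      have : R * ε = R1 + 2 * ‖pr grp k c‖ / c0 * ε := by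
        rw [hR, add_mul, div_mul_cancel₀ _ hε0.ne']
      rw [this]
      have : 0 ≤ 2 * ‖pr grp k c‖ / c0 * ε := by positivity
      linarith
    · rw [lf_smul, lf_vd_l h0]
      refine (norm_add_le _ _).trans ?_
      rw [norm_smul, Real.norm_of_nonneg (by positivity : 0 ≤ R * ε)]
      have h4 := half_lt hc0 (norm_nonneg (ρ k))
      have h5 : R * ε * ‖ρ k‖ ≤ R * (c0 / 2) := by
        rw [mul_assoc]; exact mul_le_mul_of_nonneg_left h4 hR0
      have h6 : 2 * ‖pr grp k c‖ / c0 ≤ R := by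
        rw [hR]; have : 0 ≤ R1 / ε := by positivity
        linarith
      rw [div_le_iff₀ hc0] at h6
      linarith
    · unfold rmH
      rw [Tn_smul, smul_add, smul_smul]; abel
  opn := DH_open hG.opn
  conv := DH_convex hG.conv
  sub := DH_sub hG.sub
  inn := fun c hc ε hε => DH_inn hl hc0 hG.inn hc hε

end

section

variable {Q : Walls ι W} {x0 a b : ι → ℝ} {l : ℝ × ℝ} {c0 : ℝ}

/-- the linear gap of a wall along the plane -/
def gapW (Q : Walls ι W) (a b : ι → ℝ) (w : W) (z : ℝ × ℝ) : ℝ :=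
  Q.rhs w (Tn a b z) - Tn a b z (Q.hd w)

theorem gapW_add (w : W) (z z' : ℝ × ℝ) :
    gapW Q a b w (z + z') = gapW Q a b w z + gapW Q a b w z' := by
  unfold gapW; rw [Tn_add, Q.rhs_add, Pi.add_apply]; ring

theorem gapW_smul (w : W) (t : ℝ) (z : ℝ × ℝ) :
    gapW Q a b w (t • z) = t * gapW Q a b w z := by
  unfold gapW; rw [Tn_smul, Q.rhs_smul, Pi.smul_apply, smul_eq_mul]; ring

/-- a vector in the kernel of a form is a multiple of `r` -/
theorem ker_lf {l r z : ℝ × ℝ} (hl : l ≠ 0) (hr : r ≠ 0) (hlr : lf l r = 0) (hz : lf l z = 0) :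
    ∃ s : ℝ, z = s • r := by
  have hl2 : l.1 ^ 2 + l.2 ^ 2 ≠ 0 := by
    intro h
    apply hl
    exact Prod.ext (by simp only [Prod.fst_zero]; nlinarith [sq_nonneg l.1, sq_nonneg l.2])
      (by simp only [Prod.snd_zero]; nlinarith [sq_nonneg l.1, sq_nonneg l.2])
  -- `r` and `z` are multiples of `(-l.2, l.1)`
  have key : ∀ y : ℝ × ℝ, lf l y = 0 →
      y = ((l.1 * y.2 - l.2 * y.1) / (l.1 ^ 2 + l.2 ^ 2)) • ((-l.2, l.1) : ℝ × ℝ) := by
    intro y hy
    simp only [lf] at hy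
    ext
    · simp only [Prod.smul_fst, smul_eq_mul]
      field_simp
      linear_combination l.1 * hy
    · simp only [Prod.smul_snd, smul_eq_mul]
      field_simp
      linear_combination l.2 * hy
  set A : (ℝ × ℝ) → ℝ := fun y => (l.1 * y.2 - l.2 * y.1) / (l.1 ^ 2 + l.2 ^ 2) with hA
  have h1 := key r hlr
  have h2 := key z hz
  have hr0 : A r ≠ 0 := by
    intro h
    apply hr
    have h1' : r = A r • ((-l.2, l.1) : ℝ × ℝ) := h1
    rw [h1', h, zero_smul]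
  have h1' : r = A r • ((-l.2, l.1) : ℝ × ℝ) := h1
  have h2' : z = A z • ((-l.2, l.1) : ℝ × ℝ) := h2
  refine ⟨A z / A r, ?_⟩
  generalize A z = x at h2'
  generalize A r = y at h1' hr0
  rw [h2', h1', smul_smul, div_mul_cancel₀ _ hr0]

/-- **the window cone lies in the cone of the record line** : for small `c0`, if the walls which are
active along the record line `y0 + ξ ρ0` and not along the surface are strict on the half plane -/
theorem LH_sub {y0 r0 : ι → ℝ} {r : ℝ × ℝ} (hl : l ≠ 0) (hr : r ≠ 0) (hlr : lf l r = 0)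
    (hTr : Tn a b r = r0)
    (hleg : ∀ w, Q.Act y0 r0 0 w → ¬ Q.Act x0 a b w → 0 < gapW Q a b w (zz l (-1))) :
    ∃ c1 : ℝ, 0 < c1 ∧ ∀ c0 : ℝ, c0 ≤ c1 → LH (Q.L x0 a b) a b l c0 ⊆ Q.L y0 r0 0 := by
  classical
  set B : W → ℝ := fun w => 1 + ∑ s, (Q.co w s : ℝ) with hB
  have hB0 : ∀ w, 0 < B w := fun w => by
    have : (0:ℝ) ≤ ∑ s, (Q.co w s : ℝ) := Finset.sum_nonneg fun s _ => Nat.cast_nonneg _
    simp only [hB]; linarith
  have hbd : ∀ w (c : ι → ℝ), -(B w * ‖c‖) ≤ Q.rhs w c - c (Q.hd w) := by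
    intro w c
    have h1 : -((∑ s, (Q.co w s : ℝ)) * ‖c‖) ≤ Q.rhs w c := by
      unfold Walls.rhs
      rw [Finset.sum_mul, ← Finset.sum_neg_distrib]
      refine Finset.sum_le_sum fun s _ => ?_
      rw [← mul_neg]
      refine mul_le_mul_of_nonneg_left ?_ (Nat.cast_nonneg _)
      have := norm_le_pi_norm c s
      rw [Real.norm_eq_abs] at this
      linarith [neg_abs_le (c s)]
    have h2 : c (Q.hd w) ≤ ‖c‖ := by
      have := norm_le_pi_norm c (Q.hd w)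
      rw [Real.norm_eq_abs] at this
      linarith [le_abs_self (c (Q.hd w))]
    simp only [hB]
    linarith
  obtain ⟨c1, hc1, hc1w⟩ : ∃ c1 : ℝ, 0 < c1 ∧ ∀ w, Q.Act y0 r0 0 w → ¬ Q.Act x0 a b w →
      c1 * B w ≤ gapW Q a b w (zz l (-1)) := by
    by_cases hne : Nonempty W
    · set κ' : W → ℝ := fun w => if Q.Act y0 r0 0 w ∧ ¬ Q.Act x0 a b w then
        gapW Q a b w (zz l (-1)) / B w else 1 with hκ
      have hκ0 : ∀ w, 0 < κ' w := by
        intro w
        simp only [hκ]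
        split_ifs with h
        · exact div_pos (hleg w h.1 h.2) (hB0 w)
        · exact one_pos
      obtain ⟨w0, -, hw0⟩ := Finset.exists_min_image Finset.univ κ' Finset.univ_nonempty
      refine ⟨κ' w0, hκ0 w0, fun w h1 h2 => ?_⟩
      have h3 := hw0 w (Finset.mem_univ w)
      simp only [hκ] at h3 ⊢
      rw [if_pos (⟨h1, h2⟩ : Q.Act y0 r0 0 w ∧ ¬ Q.Act x0 a b w)] at h3
      rwa [le_div_iff₀ (hB0 w)] at h3
    · exact ⟨1, one_pos, fun w => (hne ⟨w⟩).elim⟩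
  refine ⟨c1, hc1, fun c0 hc0 => ?_⟩
  rintro _ ⟨z, c, h1, h2, h3, rfl⟩ w hw
  by_cases hact : Q.Act x0 a b w
  · exact Walls.cone.add _ (Walls.Tn_mem z) _ h2 w hact
  · have hgr : gapW Q a b w r = 0 := by
      unfold gapW
      rw [hTr, hw.2.1, sub_self]
    obtain ⟨s, hs⟩ := ker_lf (z := z - (-(lf l z)) • zz l (-1)) hl hr hlr (by
      rw [sub_eq_add_neg, ← neg_smul, lf_add, lf_smul, lf_zz hl]; ring)
    have hz : z = s • r + (-(lf l z)) • zz l (-1) := by rw [← hs]; abel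
    have hgz : gapW Q a b w z = -(lf l z) * gapW Q a b w (zz l (-1)) := by
      conv_lhs => rw [hz]
      rw [gapW_add, gapW_smul, gapW_smul, hgr]; ring
    have h4 := hbd w c
    have h5 := hc1w w hw hact
    have h6 : c0 * B w ≤ gapW Q a b w (zz l (-1)) :=
      (mul_le_mul_of_nonneg_right hc0 (hB0 w).le).trans h5
    have h7 : B w * ‖c‖ ≤ -(lf l z) * gapW Q a b w (zz l (-1)) := by
      have a1 : B w * ‖c‖ ≤ B w * (c0 * -(lf l z)) := mul_le_mul_of_nonneg_left h3 (hB0 w).le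
      have a2 : -(lf l z) * (c0 * B w) ≤ -(lf l z) * gapW Q a b w (zz l (-1)) :=
        mul_le_mul_of_nonneg_left h6 (by linarith)
      linarith
    rw [← hgz] at h7
    unfold gapW at h7
    rw [Q.rhs_add, Pi.add_apply]
    linarith

end

end Crest.Agent.R136.Rc146
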