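import Crest.Agent.R136.Rc2_146
import Crest.Agent.R136.Dg8_219

/-!
# R136: record blow-up, consumer half (helper146), part 3: the second blow-up

* `tan_diag` : tangent of a tangent, moving base points
* `phi_tan`  : group functions of the tangent
* `OutH`     : output for one surface (half plane with window cone): splitting, linear rates
* `outH_of`  : `OutH` for the tangents at good points of the record line
* `ae_good`  : almost every point of the record line is good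
-/

set_option autoImplicit false
set_option linter.unusedSectionVars false
set_option linter.unusedVariables false

open Set Filter Topology Metric MeasureTheory

namespace Crest.Agent.R136.Rc146

open Dg219
open Crest.Agent.R138

/-! ### tangents -/

section

variable {V : Type*} [NormedAddCommGroup V] [NormedSpace ℝ V]

theorem tan_congr {P D : Set V} {ν lam lam' : V → ℝ} {x : ℕ → V} {h : ℕ → ℝ}
    (H : Ex926.IsTan P D ν x h lam) (he : ∀ c ∈ D, lam' c = lam c) :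
    Ex926.IsTan P D ν x h lam' := by
  intro C ε hε
  filter_upwards [H C ε hε] with l hl c hc hcC
  rw [he c hc]; exact hl c hc hcC

theorem tan_congr' {P D : Set V} {ν ν' lam : V → ℝ} {x : ℕ → V} {h : ℕ → ℝ}
    (H : Ex926.IsTan P D ν x h lam) (hx : ∀ l, x l ∈ P) (he : ∀ c ∈ P, ν' c = ν c) :
    Ex926.IsTan P D ν' x h lam := by
  intro C ε hε
  filter_upwards [H C ε hε] with l hl c hc hcC
  have h1 := hl c hc hcC
  rw [he _ h1.1, he _ (hx l)]; exact h1

theorem tan_mono {P D D' : Set V} {ν lam : V → ℝ} {x : ℕ → V} {h : ℕ → ℝ}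
    (H : Ex926.IsTan P D ν x h lam) (hD : D' ⊆ D) : Ex926.IsTan P D' ν x h lam := by
  intro C ε hε
  filter_upwards [H C ε hε] with l hl c hc hcC
  exact hl c (hD hc) hcC

/-- **tangent of a tangent**, moving base points -/
theorem tan_diag {P L : Set V} {ν g lam : V → ℝ} {x : ℕ → V} {y : V} {h k : ℕ → ℝ}
    (hpos : ∀ l, 0 < h l) (kpos : ∀ l, 0 < k l) (hy : y ∈ L)
    (hL : ∀ c ∈ L, ∀ t : ℝ, 0 ≤ t → y + t • c ∈ L)
    (H1 : Ex926.IsTan P L ν x h g) (H2 : Ex926.IsTan L L g (fun _ => y) k lam) :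
    ∃ ψ : ℕ → ℕ, (∀ m, m ≤ ψ m) ∧ Ex926.IsTan P L ν (fun m => x (ψ m) + h (ψ m) • y)
      (fun m => h (ψ m) * k m) lam := by
  have key : ∀ m : ℕ, ∃ l : ℕ, m ≤ l ∧ ∀ c ∈ L, ‖c‖ ≤ ‖y‖ + k m * m →
      x l + h l • c ∈ P ∧ |ν (x l + h l • c) - ν (x l) - h l * g c| ≤ k m / (m + 1) * h l := by
    intro m
    have h1 := H1 (‖y‖ + k m * m) (k m / (m + 1)) (div_pos (kpos m) (by positivity))
    obtain ⟨l, hl1, hl2⟩ := (h1.and (eventually_ge_atTop m)).exists
    exact ⟨l, hl2, hl1⟩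
  choose ψ hψ hψ2 using key
  refine ⟨ψ, hψ, fun C ε hε => ?_⟩
  obtain ⟨N1, hN1⟩ := exists_nat_gt C
  obtain ⟨N2, hN2⟩ := exists_nat_gt (4 / ε)
  filter_upwards [H2 C (ε / 2) (by positivity), eventually_ge_atTop (max N1 N2)]
    with m hm hmN c hc hcC
  have m1 : (N1 : ℝ) ≤ m := by exact_mod_cast (le_max_left _ _).trans hmN
  have m2 : (N2 : ℝ) ≤ m := by exact_mod_cast (le_max_right _ _).trans hmN
  have hk := kpos m
  have hh := hpos (ψ m)
  have hp : y + k m • c ∈ L := hL c hc _ hk.le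
  have hpn : ‖y + k m • c‖ ≤ ‖y‖ + k m * m := by
    refine (norm_add_le _ _).trans ?_
    rw [norm_smul, Real.norm_of_nonneg hk.le]
    have : k m * ‖c‖ ≤ k m * m := mul_le_mul_of_nonneg_left (by linarith) hk.le
    linarith
  have hyn : ‖y‖ ≤ ‖y‖ + k m * m := by
    have : 0 ≤ k m * (m : ℝ) := by positivity
    linarith
  have a1 := hψ2 m _ hp hpn
  have a2 := hψ2 m y hy hyn
  have a3 := (hm c hc hcC).2
  have e1 : x (ψ m) + h (ψ m) • y + (h (ψ m) * k m) • c =
      x (ψ m) + h (ψ m) • (y + k m • c) := by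
    rw [smul_add, smul_smul, add_assoc]
  refine ⟨by rw [e1]; exact a1.1, ?_⟩
  rw [e1]
  have b1 := a1.2
  have b2 := a2.2
  have b3 : |h (ψ m) * (g (y + k m • c) - g y - k m * lam c)| ≤ h (ψ m) * (ε / 2 * k m) := by
    rw [abs_mul, abs_of_pos hh]
    exact mul_le_mul_of_nonneg_left a3 hh.le
  have b4 : k m / (m + 1) ≤ ε / 4 * k m := by
    rw [div_le_iff₀ (by positivity)]
    have : 4 / ε < (m : ℝ) + 1 := by linarith
    rw [div_lt_iff₀ hε] at this
    nlinarith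
  have b5 : k m / (m + 1) * h (ψ m) ≤ ε / 4 * k m * h (ψ m) :=
    mul_le_mul_of_nonneg_right b4 hh.le
  rw [abs_le] at b1 b2 b3 ⊢
  constructor <;> nlinarith [b1.1, b1.2, b2.1, b2.2, b3.1, b3.2]

end

variable {ι κ : Type*} [Fintype ι] [DecidableEq ι] [DecidableEq κ]

section

variable {grp : ι → κ} {S : Finset κ} {D LW L : Set (ι → ℝ)} {G lam : (ι → ℝ) → ℝ}
  {ρ : κ → ι → ℝ} {ρs y : ι → ℝ} {t : ℕ → ℝ}

theorem sep_tan (hcone : Cone LW) (hg : Sep grp LW G) (hy : y ∈ LW) (ht : ∀ l, 0 < t l)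
    (hlim : ∀ c ∈ LW, Tendsto (fun l => (G (y + t l • c) - G y) / t l) atTop (𝓝 (lam c))) :
    Sep grp LW lam := by
  intro k c d e' hd he h1 h2 h3 h4
  have l1 := (hlim _ h4).add (hlim _ h1)
  have l2 := (hlim _ h2).add (hlim _ h3)
  refine tendsto_nhds_unique (l1.congr fun l => ?_) l2
  have hm : ∀ c ∈ LW, y + t l • c ∈ LW := fun c hc =>
    hcone.add _ hy _ (hcone.smul _ hc _ (ht l).le)
  have := hg k (y + t l • c) (t l • d) (t l • e') (fun l' hl' => by
      rw [Pi.smul_apply, hd l' hl', smul_zero]) (fun l' hl' => by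
      rw [Pi.smul_apply, he l' hl', smul_zero]) (hm _ h1)
    (by rw [add_assoc, ← smul_add]; exact hm _ h2)
    (by rw [add_assoc, ← smul_add]; exact hm _ h3)
    (by rw [add_assoc, add_assoc, ← smul_add, ← smul_add, ← add_assoc]; exact hm _ h4)
  rw [show y + t l • c + t l • d + t l • e' = y + t l • (c + d + e') by
    rw [smul_add, smul_add]; abel, show y + t l • c + t l • d = y + t l • (c + d) by
    rw [smul_add]; abel, show y + t l • c + t l • e' = y + t l • (c + e') by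
    rw [smul_add]; abel] at this
  rw [← add_div, ← add_div]
  congr 1
  linarith

theorem pr_pr (k : κ) (c : ι → ℝ) : pr grp k (pr grp k c) = pr grp k c := by
  funext i
  by_cases hi : grp i = k
  · rw [pr_in k _ hi]
  · rw [pr_off k _ hi, pr_off k _ hi]

/-- group functions of the tangent -/
theorem phi_tan (hG : GeoH grp S D LW L ρ ρs) (hg : Sep grp LW G) {k : κ} (hk : k ∈ S)
    (hy : y ∈ LW) (ht : ∀ l, 0 < t l)
    (hlim : ∀ c ∈ LW, Tendsto (fun l => (G (y + t l • c) - G y) / t l) atTop (𝓝 (lam c)))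
    {c : ι → ℝ} (hc : c ∈ Cy grp LW ρ k) :
    Tendsto (fun l => (phi grp LW G ρ k (y + t l • c) - phi grp LW G ρ k y) / t l) atTop
      (𝓝 (phi grp LW lam ρ k c)) := by
  have hgl : Sep grp LW lam := sep_tan hG.cone hg hy ht hlim
  obtain ⟨R, hR, h1⟩ := hc
  have h2 : R • ρ k ∈ LW := hG.cone.smul _ (hG.mem k hk) _ hR
  rw [phi_eqH hG hgl hk hR h1]
  refine ((hlim _ h1).sub (hlim _ h2)).congr fun l => ?_
  have hm : ∀ c ∈ LW, y + t l • c ∈ LW := fun c hc =>
    hG.cone.add _ hy _ (hG.cone.smul _ hc _ (ht l).le)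
  have prρ : pr grp k (ρ k) = 0 := by
    funext i
    by_cases hi : grp i = k
    · rw [pr_in k _ hi, hG.off k hk i hi]; rfl
    · rw [pr_off k _ hi]; rfl
  have h3 := inc_eqH hG hg hk (c := y + t l • (R • ρ k)) (d := t l • pr grp k c)
    (fun l' hl' => by rw [Pi.smul_apply, pr_off k c hl', smul_zero]) (hm _ h2)
    (by rw [add_assoc, ← smul_add, add_comm (R • ρ k)]; exact hm _ h1)
  have e1 : y + t l • (R • ρ k) + t l • pr grp k c = y + t l • (pr grp k c + R • ρ k) := by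
    rw [smul_add]; abel
  rw [e1] at h3
  have e2 : phi grp LW G ρ k (y + t l • (pr grp k c + R • ρ k)) =
      phi grp LW G ρ k (y + t l • c) := by
    apply phi_congr
    rw [pr_add, pr_add, pr_smul, pr_smul, pr_add, pr_smul, prρ, smul_zero, add_zero, pr_pr]
  have e3 : phi grp LW G ρ k (y + t l • (R • ρ k)) = phi grp LW G ρ k y := by
    apply phi_congr
    rw [pr_add, pr_smul, pr_smul, prρ, smul_zero, smul_zero, add_zero]
  rw [e2, e3] at h3
  rw [← sub_div, sub_sub_sub_cancel_right, h3]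

end

/-! ### natural functions of one variable -/

section

variable {grp : ι → κ} {S : Finset κ} {D LW L : Set (ι → ℝ)} {G lam : (ι → ℝ) → ℝ}
  {ρ : κ → ι → ℝ} {ρs : ι → ℝ} {a b : ι → ℝ} {n : κ → ℝ × ℝ} {dh : ι → ℝ}

/-- the group function along the natural direction of the group -/
noncomputable def fnat (grp : ι → κ) (LW : Set (ι → ℝ)) (G : (ι → ℝ) → ℝ) (ρ : κ → ι → ℝ)
    (a b : ι → ℝ) (n : κ → ℝ × ℝ) (k : κ) (u : ℝ) : ℝ :=
  phi grp LW G ρ k (Tn a b (zz (n k) u))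

theorem pr_nat (hd : SDir grp a b n dh) {k : κ} (hk : k ∈ gset grp) {c : ι → ℝ} {u : ℝ}
    (hc : ∀ i, grp i = k → c i = u * dh i) :
    pr grp k c = pr grp k (Tn a b (zz (n k) u)) := by
  obtain ⟨i0, -, hi0⟩ := Finset.mem_image.1 hk
  have hn : n k ≠ 0 := by rw [← hi0]; exact hd.ne i0
  funext i
  by_cases hi : grp i = k
  · rw [pr_in k _ hi, pr_in k _ hi, hc i hi, hd.Tn_eq, hi, lf_zz hn]
  · rw [pr_off k _ hi, pr_off k _ hi]

theorem fnat_eq (hd : SDir grp a b n dh) {k : κ} (hk : k ∈ gset grp) {c : ι → ℝ} {u : ℝ}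
    (hc : ∀ i, grp i = k → c i = u * dh i) : phi grp LW G ρ k c = fnat grp LW G ρ a b n k u :=
  phi_congr (pr_nat hd hk hc)

theorem fnat_lip (hG : GeoH grp S D LW L ρ ρs) (hg : Sep grp LW G) {K : ℝ} (hK : 0 ≤ K)
    (hlip : ∀ p ∈ LW, ∀ q ∈ LW, |G p - G q| ≤ K * dist p q) (hnat : ∀ z, Tn a b z ∈ L)
    (hd : SDir grp a b n dh) (hSg : S ⊆ gset grp) {k : κ} (hk : k ∈ S) (u v : ℝ) :
    |fnat grp LW G ρ a b n k u - fnat grp LW G ρ a b n k v| ≤ K * ‖dh‖ * |u - v| := by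
  obtain ⟨i0, -, hi0⟩ := Finset.mem_image.1 (hSg hk)
  have hn : n k ≠ 0 := by rw [← hi0]; exact hd.ne i0
  refine (phi_lipH hG hg hlip hk (hG.cy hk (hnat _)) (hG.cy hk (hnat _))).trans ?_
  rw [mul_assoc]
  refine mul_le_mul_of_nonneg_left ?_ hK
  rw [dist_pi_le_iff (by positivity)]
  intro i
  by_cases hi : grp i = k
  · rw [pr_in k _ hi, pr_in k _ hi, hd.Tn_eq, hd.Tn_eq, hi, lf_zz hn, lf_zz hn, Real.dist_eq,
      ← sub_mul, abs_mul, mul_comm]
    refine mul_le_mul_of_nonneg_right ?_ (abs_nonneg _)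
    rw [← Real.norm_eq_abs]; exact norm_le_pi_norm dh i
  · rw [pr_off k _ hi, pr_off k _ hi, dist_self]; positivity

/-- almost every `σ` : all natural functions are differentiable -/
theorem ae_fnat (hG : GeoH grp S D LW L ρ ρs) (hg : Sep grp LW G) {K : ℝ} (hK : 0 ≤ K)
    (hlip : ∀ p ∈ LW, ∀ q ∈ LW, |G p - G q| ≤ K * dist p q) (hnat : ∀ z, Tn a b z ∈ L)
    (hd : SDir grp a b n dh) (hSg : S ⊆ gset grp) {r : ℝ × ℝ} (hr : ∀ k ∈ S, lf (n k) r ≠ 0) :
    ∀ᵐ σ : ℝ, ∀ k ∈ S, DifferentiableAt ℝ (fnat grp LW G ρ a b n k) (σ * lf (n k) r) := by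
  have h1 : ∀ k ∈ S, ∀ᵐ σ : ℝ,
      DifferentiableAt ℝ (fnat grp LW G ρ a b n k) (σ * lf (n k) r) := by
    intro k hk
    set c := lf (n k) r with hc
    have hc0 : c ≠ 0 := hr k hk
    have hL1 : LipschitzWith (Real.toNNReal (K * ‖dh‖ * |c|))
        (fun σ : ℝ => fnat grp LW G ρ a b n k (σ * c)) := by
      apply LipschitzWith.of_dist_le_mul
      intro u v
      rw [Real.coe_toNNReal _ (by positivity), Real.dist_eq, Real.dist_eq]
      refine (fnat_lip hG hg hK hlip hnat hd hSg hk _ _).trans (le_of_eq ?_)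
      rw [← sub_mul, abs_mul]; ring
    filter_upwards [hL1.ae_differentiableAt (μ := volume)] with σ hσ
    have e : fnat grp LW G ρ a b n k =
        (fun σ : ℝ => fnat grp LW G ρ a b n k (σ * c)) ∘ (fun u : ℝ => u / c) := by
      funext u
      simp only [Function.comp]
      rw [div_mul_cancel₀ _ hc0]
    rw [e]
    apply DifferentiableAt.comp
    · rw [mul_div_cancel_right₀ _ hc0]; exact hσ
    · exact differentiableAt_id.div_const _
  have h2 := (ae_ball_iff (μ := (volume : Measure ℝ)) (Finset.countable_toSet S)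
    (p := fun σ k _ => DifferentiableAt ℝ (fnat grp LW G ρ a b n k) (σ * lf (n k) r))).2 h1
  exact h2

/-- **output for one surface** : `LW` window cone of the half plane `lf l w ≤ 0`, `L` wall cone of
the surface, `S` the groups not parallel to the record line -/
structure OutH (grp : ι → κ) (S : Finset κ) (LW L : Set (ι → ℝ)) (a b : ι → ℝ) (l : ℝ × ℝ)
    (dh : ι → ℝ) (n : κ → ℝ × ℝ) (lam : (ι → ℝ) → ℝ) (φ : κ → (ι → ℝ) → ℝ) (r : κ → ℝ) :
    Prop where
  split : ∀ c ∈ LW, ∀ c' ∈ LW, (∀ i, grp i ∉ S → c' i = c i) →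
    lam c' - lam c = ∑ k ∈ S, (φ k c' - φ k c)
  loc : ∀ k c c', (∀ i, grp i = k → c i = c' i) → φ k c = φ k c'
  zero : ∀ k c, (∀ i, grp i = k → c i = 0) → φ k c = 0
  mono : ∀ k ∈ S, ∀ c ∈ L, ∀ c' ∈ L, (∀ i, grp i = k → c i ≤ c' i) → 0 ≤ φ k c - φ k c' ∧
    φ k c - φ k c' ≤ ∑ i ∈ Finset.univ.filter (fun i => grp i = k), (c' i - c i)
  /-- supermodular; only the coordinates of the group matter -/
  smod : ∀ k ∈ S, ∀ p ∈ L, ∀ q ∈ L, ∀ s ∈ L, ∀ t ∈ L,
    (∀ i, grp i = k → s i = min (p i) (q i)) → (∀ i, grp i = k → t i = max (p i) (q i)) →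
    φ k p + φ k q ≤ φ k t + φ k s
  rate : ∀ k ∈ S, ∀ c ∈ L, ∀ u : ℝ, (∀ i, grp i = k → c i = u * dh i) → φ k c = -(r k * u)
  r_nonneg : ∀ k ∈ S, (∀ i, grp i = k → 0 ≤ dh i) → 0 ≤ r k
  r_le : ∀ k ∈ S, (∀ i, grp i = k → 0 ≤ dh i) →
    r k ≤ ∑ i ∈ Finset.univ.filter (fun i => grp i = k), dh i

/-- **the output at good points of the record line** : `G` separated on the window cone `LW`,
monotone, Lipschitz, supermodular on the cone `M ⊇ LW`; `y = Tn z` a point of the closed half plane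
at which the natural functions are differentiable; `lam` any pointwise blow-up of `G` at `y` -/
theorem outH_of (hG : GeoH grp S D LW L ρ ρs) (hg : Sep grp LW G) {M : Set (ι → ℝ)}
    (hM : Cone M) (hLM : LW ⊆ M)
    (hm : ∀ c ∈ M, ∀ c' ∈ M, c ≤ c' → 0 ≤ G c - G c' ∧ G c - G c' ≤ ∑ i, (c' i - c i))
    (hs : ∀ p ∈ M, ∀ q ∈ M, p ⊓ q ∈ M → p ⊔ q ∈ M → G p + G q ≤ G (p ⊔ q) + G (p ⊓ q))
    {K : ℝ} (hK : 0 ≤ K) (hlip : ∀ p ∈ M, ∀ q ∈ M, |G p - G q| ≤ K * dist p q)
    (hnat : ∀ z, Tn a b z ∈ L) (hd : SDir grp a b n dh) (hSg : S ⊆ gset grp) (l : ℝ × ℝ)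
    {z : ℝ × ℝ} (hz : Tn a b z ∈ LW)
    (hdiff : ∀ k ∈ S, DifferentiableAt ℝ (fnat grp LW G ρ a b n k) (lf (n k) z))
    {h : ℕ → ℝ} (H : BUp M M G (Tn a b z) h lam) :
    ∃ r : κ → ℝ, (∀ k, r k = -(deriv (fnat grp LW G ρ a b n k) (lf (n k) z))) ∧
      OutH grp S LW L a b l dh n lam (phi grp LW lam ρ) r := by
  have hlim : ∀ c ∈ LW, Tendsto (fun l => (G (Tn a b z + h l • c) - G (Tn a b z)) / h l) atTop
      (𝓝 (lam c)) := fun c hc => H.lim c (hLM hc)
  have hgl : Sep grp LW lam := sep_tan hG.cone hg hz H.pos hlim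
  -- continuous extension of `lam`
  have hlipl : LipschitzOnWith ⟨K, hK⟩ lam M := LipschitzOnWith.of_dist_le_mul fun p hp q hq => by
    rw [Real.dist_eq]; exact H.lip hlip p hp q hq
  obtain ⟨lam', hl', he⟩ := hlipl.extend_real
  have heW : ∀ c ∈ LW, lam c = lam' c := fun c hc => he (hLM hc)
  have hgl' : Sep grp LW lam' := by
    intro k c d e' hd he' h1 h2 h3 h4
    rw [← heW _ h1, ← heW _ h2, ← heW _ h3, ← heW _ h4]
    exact hgl k c d e' hd he' h1 h2 h3 h4
  have hphi : ∀ k ∈ S, ∀ c ∈ Cy grp LW ρ k, phi grp LW lam' ρ k c = phi grp LW lam ρ k c := by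
    intro k hk c hc
    obtain ⟨R, hR, h1⟩ := hc
    rw [phi_eqH hG hgl' hk hR h1, phi_eqH hG hgl hk hR h1, heW _ h1,
      heW _ (hG.cone.smul _ (hG.mem k hk) _ hR)]
  have hml : ∀ c ∈ LW, ∀ c' ∈ LW, c ≤ c' → 0 ≤ lam c - lam c' ∧
      lam c - lam c' ≤ ∑ i, (c' i - c i) := fun c hc c' hc' hcc =>
    H.mono hm c (hLM hc) c' (hLM hc') hcc
  have hsl : ∀ p ∈ LW, ∀ q ∈ LW, p ⊓ q ∈ LW → p ⊔ q ∈ LW →
      lam p + lam q ≤ lam (p ⊔ q) + lam (p ⊓ q) := fun p hp q hq h1 h2 =>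
    H.smod (fun p hp q hq h1 h2 => hs p hp q hq h1 h2) p (hLM hp) q (hLM hq) (hLM h1) (hLM h2)
  have hrate : ∀ k ∈ S, ∀ c ∈ L, ∀ u : ℝ, (∀ i, grp i = k → c i = u * dh i) →
      phi grp LW lam ρ k c = deriv (fnat grp LW G ρ a b n k) (lf (n k) z) * u := by
    intro k hk c hc u hcu
    have h1 := phi_tan hG hg hk hz H.pos hlim (hG.cy hk hc)
    have h2 : ∀ l', phi grp LW G ρ k (Tn a b z + h l' • c) =
        fnat grp LW G ρ a b n k (lf (n k) z + h l' * u) := by
      intro l'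
      refine fnat_eq hd (hSg hk) fun i hi => ?_
      rw [Pi.add_apply, Pi.smul_apply, smul_eq_mul, hcu i hi, hd.Tn_eq, hi]; ring
    have h3 : phi grp LW G ρ k (Tn a b z) = fnat grp LW G ρ a b n k (lf (n k) z) := by
      refine fnat_eq hd (hSg hk) fun i hi => ?_
      rw [hd.Tn_eq, hi]
    simp only [h2, h3] at h1
    have h4 := (hdiff k hk).hasDerivAt
    set f := fnat grp LW G ρ a b n k with hf
    set u0 := lf (n k) z with hu0
    -- derivative along `h l' * u`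
    have h5 : HasDerivAt (fun s : ℝ => f (u0 + s * u)) (deriv f u0 * u) 0 := by
      have h6 : HasDerivAt (fun s : ℝ => u0 + s * u) u 0 := by
        simpa using ((hasDerivAt_id (0:ℝ)).mul_const u).const_add u0
      have h7 : HasDerivAt f (deriv f u0) (u0 + 0 * u) := by rw [zero_mul, add_zero]; exact h4
      exact HasDerivAt.comp (0:ℝ) h7 h6
    have h6 := h5.tendsto_slope_zero
    simp only [zero_add, zero_mul, add_zero] at h6
    have h7 : Tendsto h atTop (𝓝[≠] 0) :=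
      tendsto_nhdsWithin_iff.2 ⟨H.zero, Eventually.of_forall fun l' => (H.pos l').ne'⟩
    have h8 := h6.comp h7
    refine tendsto_nhds_unique h1 (h8.congr fun l' => ?_)
    simp only [Function.comp, smul_eq_mul]
    rw [div_eq_inv_mul]
  refine ⟨fun k => -(deriv (fnat grp LW G ρ a b n k) (lf (n k) z)), fun k => rfl, ?_, ?_, ?_, ?_,
    ?_, ?_, ?_, ?_⟩
  · intro c hc c' hc' hcc
    have h1 := reprH hG hgl' hl'.continuous hc hc' hcc
    rw [← heW c hc, ← heW c' hc'] at h1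
    rw [h1]
    refine Finset.sum_congr rfl fun k hk => ?_
    rw [hphi k hk _ (hG.cy hk (hG.subL hc')), hphi k hk _ (hG.cy hk (hG.subL hc))]
  · intro k c c' hcc
    apply phi_congr
    funext i
    by_cases hi : grp i = k
    · rw [pr_in k _ hi, pr_in k _ hi, hcc i hi]
    · rw [pr_off k _ hi, pr_off k _ hi]
  · intro k c hc
    exact phi_zero k hc
  · intro k hk c hc c' hc' hcc
    exact phi_monoH hG hgl hml hk (hG.cy hk hc) (hG.cy hk hc') hcc
  · intro k hk p hp q hq s hs' t ht hsi hti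
    have e1 : pr grp k s = pr grp k (p ⊓ q) := by
      funext i
      by_cases hi : grp i = k
      · rw [pr_in k _ hi, pr_in k _ hi, hsi i hi]; rfl
      · rw [pr_off k _ hi, pr_off k _ hi]
    have e2 : pr grp k t = pr grp k (p ⊔ q) := by
      funext i
      by_cases hi : grp i = k
      · rw [pr_in k _ hi, pr_in k _ hi, hti i hi]; rfl
      · rw [pr_off k _ hi, pr_off k _ hi]
    have h1 := phi_supH hG hgl hsl hk (hG.cy hk hp) (hG.cy hk hq)
      ((cy_congr e1).1 (hG.cy hk hs')) ((cy_congr e2).1 (hG.cy hk ht))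
    rw [phi_congr e1, phi_congr e2]
    exact h1
  · intro k hk c hc u hcu
    rw [hrate k hk c hc u hcu]; ring
  · intro k hk hpos
    obtain ⟨i0, -, hi0⟩ := Finset.mem_image.1 (hSg hk)
    have hn : n k ≠ 0 := by rw [← hi0]; exact hd.ne i0
    have hval : ∀ i, grp i = k → Tn a b (zz (n k) 1) i = 1 * dh i := by
      intro i hi; rw [hd.Tn_eq, hi, lf_zz hn]
    have h1 := phi_monoH hG hgl hml hk (hG.cy hk hG.coneL.zero) (hG.cy hk (hnat (zz (n k) 1)))
      (fun i hi => by rw [hval i hi]; simpa using hpos i hi)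
    rw [hrate k hk _ (hnat _) 1 hval, phi_zero k (c := 0) (fun i _ => rfl)] at h1
    linarith [h1.1]
  · intro k hk hpos
    obtain ⟨i0, -, hi0⟩ := Finset.mem_image.1 (hSg hk)
    have hn : n k ≠ 0 := by rw [← hi0]; exact hd.ne i0
    have hval : ∀ i, grp i = k → Tn a b (zz (n k) 1) i = 1 * dh i := by
      intro i hi; rw [hd.Tn_eq, hi, lf_zz hn]
    have h1 := phi_monoH hG hgl hml hk (hG.cy hk hG.coneL.zero) (hG.cy hk (hnat (zz (n k) 1)))
      (fun i hi => by rw [hval i hi]; simpa using hpos i hi)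
    rw [hrate k hk _ (hnat _) 1 hval, phi_zero k (c := 0) (fun i _ => rfl)] at h1
    have h2 := h1.2
    have h3 : ∑ i ∈ Finset.univ.filter (fun i => grp i = k),
        (Tn a b (zz (n k) 1) i - (0 : ι → ℝ) i) =
        ∑ i ∈ Finset.univ.filter (fun i => grp i = k), dh i := by
      refine Finset.sum_congr rfl fun i hi => ?_
      rw [Finset.mem_filter] at hi
      rw [hval i hi.2]; simp
    rw [h3] at h2
    linarith

end

end Crest.Agent.R136.Rc146
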