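import Crest.Agent.R136.Rc3_146
import Crest.Agent.R136.Dec4_146

/-!
# R136: record blow-up, consumer half (helper146), part 4: stationarity inside a group

* `ae_statH`   : almost every point of the record line is stationary for every group function
* `statH_of`   : increments of the moves inside a group do not depend on the position
-/

set_option autoImplicit false
set_option linter.unusedSectionVars false
set_option linter.unusedVariables false

open Set Filter Topology Metric MeasureTheory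

namespace Crest.Agent.R136.Rc146

open Dg219
open Crest.Agent.R138

variable {ι κ : Type*} [Fintype ι] [DecidableEq ι] [DecidableEq κ]

/-- the natural direction of the group `k` as a linear map on `ℝ` -/
noncomputable def Lk (grp : ι → κ) (dh : ι → ℝ) (k : κ) : ℝ →ₗ[ℝ] (ι → ℝ) :=
  LinearMap.toSpanSingleton ℝ (ι → ℝ) (pr grp k dh)

theorem Lk_apply (grp : ι → κ) (dh : ι → ℝ) (k : κ) (u : ℝ) :
    Lk grp dh k u = u • pr grp k dh := rfl

/-- moves inside a group: raise by `y * dh`; the coordinates which are not raised are behind (I) -/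
def MvI (grp : ι → κ) (dh : ι → ℝ) (k : κ) (c d : ι → ℝ) (y : ℝ) : Prop :=
  ∀ i, grp i = k → (c i = 0 ∧ d i = y * dh i ∧ 0 ≤ d i) ∨ (d i = 0 ∧ c i ≤ 0 ∧ c i ≤ y * dh i)

/-- moves inside a group: raise by `y * dh`; the coordinates which are not raised are ahead (II) -/
def MvII (grp : ι → κ) (dh : ι → ℝ) (k : κ) (c d : ι → ℝ) (y : ℝ) : Prop :=
  ∀ i, grp i = k → (c i = 0 ∧ d i = y * dh i ∧ 0 ≤ d i) ∨ (d i = 0 ∧ 0 ≤ c i ∧ y * dh i ≤ c i)

section

variable {grp : ι → κ} {S : Finset κ} {D LW L : Set (ι → ℝ)} {G lam : (ι → ℝ) → ℝ}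
  {ρ : κ → ι → ℝ} {ρs : ι → ℝ} {a b : ι → ℝ} {n : κ → ℝ × ℝ} {dh : ι → ℝ}

theorem Lk_i {k : κ} {i : ι} (hi : grp i = k) (u : ℝ) : Lk grp dh k u i = u * dh i := by
  rw [Lk_apply, Pi.smul_apply, pr_in k _ hi, smul_eq_mul]

theorem Lk_off {k : κ} {i : ι} (hi : grp i ≠ k) (u : ℝ) : Lk grp dh k u i = 0 := by
  rw [Lk_apply, Pi.smul_apply, pr_off k _ hi, smul_zero]

theorem Lk_cy (hG : GeoH grp S D LW L ρ ρs) (hnat : ∀ z, Tn a b z ∈ L) (hd : SDir grp a b n dh)
    (hSg : S ⊆ gset grp) {k : κ} (hk : k ∈ S) (u : ℝ) : Lk grp dh k u ∈ Cy grp LW ρ k := by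
  have h1 := pr_nat hd (hSg hk) (c := Lk grp dh k u) (u := u) fun i hi => Lk_i hi u
  exact (cy_congr h1).2 (hG.cy hk (hnat _))

theorem cone_Lk (hG : GeoH grp S D LW L ρ ρs) (hnat : ∀ z, Tn a b z ∈ L)
    (hd : SDir grp a b n dh) (hSg : S ⊆ gset grp) {k : κ} (hk : k ∈ S) :
    Dec146.Cone (Lk grp dh k) (Cy grp LW ρ k) where
  smul := fun c hc t ht => cy_smul hG hc ht
  add := fun c hc c' hc' => cy_add hG hc hc'
  nat := fun u => Lk_cy hG hnat hd hSg hk u

/-- Lipschitz extension of the group function from its cylinder -/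
theorem phi_ext (hG : GeoH grp S D LW L ρ ρs) (hg : Sep grp LW G) {K : ℝ} (hK : 0 ≤ K)
    (hlip : ∀ p ∈ LW, ∀ q ∈ LW, |G p - G q| ≤ K * dist p q) {k : κ} (hk : k ∈ S) :
    ∃ Φ : (ι → ℝ) → ℝ, (∀ p q, |Φ p - Φ q| ≤ K * ‖p - q‖) ∧
      ∀ c ∈ Cy grp LW ρ k, Φ c = phi grp LW G ρ k c := by
  have h1 : LipschitzOnWith ⟨K, hK⟩ (phi grp LW G ρ k) (Cy grp LW ρ k) := by
    refine LipschitzOnWith.of_dist_le_mul fun p hp q hq => ?_
    rw [Real.dist_eq]
    refine (phi_lipH hG hg hlip hk hp hq).trans ?_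
    refine mul_le_mul_of_nonneg_left ?_ hK
    rw [dist_pi_le_iff dist_nonneg]
    intro i
    by_cases hi : grp i = k
    · rw [pr_in k _ hi, pr_in k _ hi]; exact dist_le_pi_dist p q i
    · rw [pr_off k _ hi, pr_off k _ hi, dist_self]; exact dist_nonneg
  obtain ⟨Φ, hΦ, he⟩ := h1.extend_real
  refine ⟨Φ, fun p q => ?_, fun c hc => (he hc).symm⟩
  have := hΦ.dist_le_mul p q
  rw [Real.dist_eq, dist_eq_norm] at this
  exact this

/-- stationary point of the group function -/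
def StatK (grp : ι → κ) (LW : Set (ι → ℝ)) (G : (ι → ℝ) → ℝ) (ρ : κ → ι → ℝ) (dh : ι → ℝ)
    (k : κ) (x : ℝ) : Prop :=
  ∀ w z : ι → ℝ, ∀ y : ℝ, w ∈ Cy grp LW ρ k → w + z ∈ Cy grp LW ρ k →
    (Dec146.MoveI (Lk grp dh k) w z y ∨ Dec146.MoveII (Lk grp dh k) w z y) → ∀ u : ℝ,
    Tendsto (fun h : ℝ =>
      ((phi grp LW G ρ k (Lk grp dh k x + h • (Lk grp dh k u + w)) -
        phi grp LW G ρ k (Lk grp dh k x + h • (Lk grp dh k u + w + z))) -
      (phi grp LW G ρ k (Lk grp dh k x + h • w) -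
        phi grp LW G ρ k (Lk grp dh k x + h • (w + z)))) / h) (𝓝[>] 0) (𝓝 0)

theorem ae_statK (hG : GeoH grp S D LW L ρ ρs) (hg : Sep grp LW G) {K : ℝ} (hK : 0 ≤ K)
    (hlip : ∀ p ∈ LW, ∀ q ∈ LW, |G p - G q| ≤ K * dist p q)
    (hs : ∀ p ∈ LW, ∀ q ∈ LW, p ⊓ q ∈ LW → p ⊔ q ∈ LW → G p + G q ≤ G (p ⊔ q) + G (p ⊓ q))
    (hnat : ∀ z, Tn a b z ∈ L) (hd : SDir grp a b n dh) (hSg : S ⊆ gset grp) {k : κ}
    (hk : k ∈ S) : ∀ᵐ x : ℝ, StatK grp LW G ρ dh k x := by
  obtain ⟨Φ, hΦ, he⟩ := phi_ext hG hg hK hlip hk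
  have hC := cone_Lk hG hnat hd hSg hk
  have hsup : Dec146.Sup4 Φ (Cy grp LW ρ k) := by
    intro p hp q hq h1 h2
    rw [he p hp, he q hq, he _ h1, he _ h2]
    exact phi_supH hG hg hs hk hp hq h1 h2
  have hdom : Dec146.Dom 0 (Lk grp dh k) (Cy grp LW ρ k) (Cy grp LW ρ k) (univ : Set ℝ) := by
    intro x₀ _
    refine ⟨1, one_pos, 1, one_pos, fun x _ c hc _ => ?_⟩
    rw [zero_add]
    exact hC.add _ (hC.nat x) _ hc
  filter_upwards [Dec146.ae_statAt (μ := (volume : Measure ℝ)) hK hΦ hsup hC hdom] with x hx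
  intro w z y hw hwz hm u
  have h1 := hx (mem_univ x) (w, z, y) ⟨hw, hwz, hm⟩ u
  refine h1.congr' ?_
  filter_upwards [self_mem_nhdsWithin] with h hh
  have hh' : (0:ℝ) ≤ h := le_of_lt hh
  have m : ∀ v ∈ Cy grp LW ρ k, Lk grp dh k x + h • v ∈ Cy grp LW ρ k := fun v hv =>
    hC.add _ (hC.nat x) _ (hC.smul _ hv _ hh')
  have m1 : Lk grp dh k u + w ∈ Cy grp LW ρ k := hC.add _ (hC.nat u) _ hw
  have m2 : Lk grp dh k u + w + z ∈ Cy grp LW ρ k := by
    rw [add_assoc]; exact hC.add _ (hC.nat u) _ hwz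
  unfold Dec146.GG Dec146.Inc
  rw [← he _ (m _ m1), ← he _ (m _ m2), ← he _ (m _ hw), ← he _ (m _ hwz)]
  have e1 : (0 : ι → ℝ) + Lk grp dh k (x + h • u) + h • w =
      Lk grp dh k x + h • (Lk grp dh k u + w) := by
    rw [map_add, map_smul, smul_add]; abel
  have e2 : Lk grp dh k x + h • (Lk grp dh k u + w) + h • z =
      Lk grp dh k x + h • (Lk grp dh k u + w + z) := by
    rw [smul_add _ (Lk grp dh k u + w) z]; abel
  have e3 : (0 : ι → ℝ) + Lk grp dh k x + h • w = Lk grp dh k x + h • w := by abel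
  have e4 : Lk grp dh k x + h • w + h • z = Lk grp dh k x + h • (w + z) := by
    rw [smul_add]; abel
  simp only [e1, e3]
  rw [e2, e4]

/-- pull back of an almost everywhere statement by a dilation -/
theorem ae_mul {p : ℝ → Prop} (h : ∀ᵐ x : ℝ, p x) {c : ℝ} (hc : c ≠ 0) :
    ∀ᵐ σ : ℝ, p (σ * c) := by
  rw [ae_iff] at h ⊢
  have h1 : {σ : ℝ | ¬ p (σ * c)} = (fun x : ℝ => x * c) ⁻¹' {x : ℝ | ¬ p x} := rfl
  rw [h1, Real.volume_preimage_mul_right hc, h, mul_zero]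

/-- almost every point of the record line is stationary for all group functions -/
theorem ae_statH (hG : GeoH grp S D LW L ρ ρs) (hg : Sep grp LW G) {K : ℝ} (hK : 0 ≤ K)
    (hlip : ∀ p ∈ LW, ∀ q ∈ LW, |G p - G q| ≤ K * dist p q)
    (hs : ∀ p ∈ LW, ∀ q ∈ LW, p ⊓ q ∈ LW → p ⊔ q ∈ LW → G p + G q ≤ G (p ⊔ q) + G (p ⊓ q))
    (hnat : ∀ z, Tn a b z ∈ L) (hd : SDir grp a b n dh) (hSg : S ⊆ gset grp) {r : ℝ × ℝ}
    (hr : ∀ k ∈ S, lf (n k) r ≠ 0) :
    ∀ᵐ σ : ℝ, ∀ k ∈ S, StatK grp LW G ρ dh k (σ * lf (n k) r) := by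
  have h1 : ∀ k ∈ S, ∀ᵐ σ : ℝ, StatK grp LW G ρ dh k (σ * lf (n k) r) := fun k hk =>
    ae_mul (ae_statK hG hg hK hlip hs hnat hd hSg hk) (hr k hk)
  exact (ae_ball_iff (μ := (volume : Measure ℝ)) (Finset.countable_toSet S)
    (p := fun σ k _ => StatK grp LW G ρ dh k (σ * lf (n k) r))).2 h1

/-- stationarity of the group function `φ` along the natural plane -/
def Stat (grp : ι → κ) (L : Set (ι → ℝ)) (a b dh : ι → ℝ) (φ : κ → (ι → ℝ) → ℝ) (k : κ) : Prop :=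
  ∀ c ∈ L, ∀ d : ι → ℝ, c + d ∈ L → ∀ y : ℝ,
    (MvI grp dh k c d y ∨ MvII grp dh k c d y) → ∀ z : ℝ × ℝ,
      φ k (Tn a b z + c) - φ k (Tn a b z + (c + d)) = φ k c - φ k (c + d)

/-- **stationarity inside the groups** of the tangent at a stationary point -/
theorem statH_of (hG : GeoH grp S D LW L ρ ρs) (hg : Sep grp LW G)
    (hnat : ∀ z, Tn a b z ∈ L) (hd : SDir grp a b n dh) (hSg : S ⊆ gset grp) {k : κ} (hk : k ∈ S)
    {z0 : ℝ × ℝ} (hz : Tn a b z0 ∈ LW) (hst : StatK grp LW G ρ dh k (lf (n k) z0))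
    {h : ℕ → ℝ} (hpos : ∀ l, 0 < h l) (h0 : Tendsto h atTop (𝓝 0))
    (hlim : ∀ c ∈ LW, Tendsto (fun l => (G (Tn a b z0 + h l • c) - G (Tn a b z0)) / h l) atTop
      (𝓝 (lam c))) : Stat grp L a b dh (phi grp LW lam ρ) k := by
  intro c hc d hcd y hm z
  set x := lf (n k) z0 with hx
  set u := lf (n k) z with hu
  set w : ι → ℝ := pr grp k c with hw
  set v : ι → ℝ := pr grp k d with hv
  have hwv : w + v = pr grp k (c + d) := by rw [hw, hv, pr_add]
  have hwC : w ∈ Cy grp LW ρ k := (cy_congr (by rw [hw, pr_pr])).2 (hG.cy hk hc)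
  have hwvC : w + v ∈ Cy grp LW ρ k := by
    rw [hwv]; exact (cy_congr (by rw [pr_pr])).2 (hG.cy hk hcd)
  have hC := cone_Lk hG hnat hd hSg hk
  have hm' : Dec146.MoveI (Lk grp dh k) w v y ∨ Dec146.MoveII (Lk grp dh k) w v y := by
    rcases hm with hm | hm
    · left
      intro i
      by_cases hi : grp i = k
      · have h1 := hm i hi
        rw [hw, hv, pr_in k _ hi, pr_in k _ hi, Lk_i hi]
        exact h1
      · left
        rw [hw, hv, pr_off k _ hi, pr_off k _ hi, Lk_off hi]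
        exact ⟨rfl, rfl, le_rfl⟩
    · right
      intro i
      by_cases hi : grp i = k
      · have h1 := hm i hi
        rw [hw, hv, pr_in k _ hi, pr_in k _ hi, Lk_i hi]
        exact h1
      · left
        rw [hw, hv, pr_off k _ hi, pr_off k _ hi, Lk_off hi]
        exact ⟨rfl, rfl, le_rfl⟩
  have ht : Tendsto h atTop (𝓝[>] 0) :=
    tendsto_nhdsWithin_iff.2 ⟨h0, Eventually.of_forall fun l => hpos l⟩
  have h1 := (hst w v y hwC hwvC hm' u).comp ht
  -- the four limits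
  have pt : ∀ q ∈ Cy grp LW ρ k, Tendsto (fun l => (phi grp LW G ρ k (Lk grp dh k x + h l • q) -
      phi grp LW G ρ k (Tn a b z0)) / h l) atTop (𝓝 (phi grp LW lam ρ k q)) := by
    intro q hq
    refine (phi_tan hG hg hk hz hpos hlim hq).congr fun l => ?_
    congr 2
    apply phi_congr
    funext i
    by_cases hi : grp i = k
    · rw [pr_in k _ hi, pr_in k _ hi, Pi.add_apply, Pi.add_apply, Lk_i hi, hd.Tn_eq, hi]
    · rw [pr_off k _ hi, pr_off k _ hi]
  have m1 : Lk grp dh k u + w ∈ Cy grp LW ρ k := hC.add _ (hC.nat u) _ hwC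
  have m2 : Lk grp dh k u + w + v ∈ Cy grp LW ρ k := by
    rw [add_assoc]; exact hC.add _ (hC.nat u) _ hwvC
  have h2 := ((pt _ m1).sub (pt _ m2)).sub ((pt _ hwC).sub (pt _ hwvC))
  have h3 := tendsto_nhds_unique (h2.congr fun l => by
    simp only [Function.comp]
    show _ = ((phi grp LW G ρ k (Lk grp dh k x + h l • (Lk grp dh k u + w)) -
        phi grp LW G ρ k (Lk grp dh k x + h l • (Lk grp dh k u + w + v))) -
      (phi grp LW G ρ k (Lk grp dh k x + h l • w) -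
        phi grp LW G ρ k (Lk grp dh k x + h l • (w + v)))) / h l
    ring) h1
  have e1 : phi grp LW lam ρ k (Tn a b z + c) = phi grp LW lam ρ k (Lk grp dh k u + w) := by
    apply phi_congr
    funext i
    by_cases hi : grp i = k
    · rw [pr_in k _ hi, pr_in k _ hi, Pi.add_apply, Pi.add_apply, Lk_i hi, hd.Tn_eq, hi, hw,
        pr_in k _ hi]
    · rw [pr_off k _ hi, pr_off k _ hi]
  have e2 : phi grp LW lam ρ k (Tn a b z + (c + d)) =
      phi grp LW lam ρ k (Lk grp dh k u + w + v) := by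
    apply phi_congr
    funext i
    by_cases hi : grp i = k
    · rw [pr_in k _ hi, pr_in k _ hi, Pi.add_apply, Pi.add_apply, Pi.add_apply, Pi.add_apply,
        Lk_i hi, hd.Tn_eq, hi, hw, hv, pr_in k _ hi, pr_in k _ hi]; ring
    · rw [pr_off k _ hi, pr_off k _ hi]
  have e3 : phi grp LW lam ρ k c = phi grp LW lam ρ k w := phi_congr (by rw [hw, pr_pr])
  have e4 : phi grp LW lam ρ k (c + d) = phi grp LW lam ρ k (w + v) :=
    phi_congr (by rw [hwv, pr_pr])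
  rw [e1, e2, e3, e4]
  linarith

end

end Crest.Agent.R136.Rc146
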