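import Crest.Agent.R136.Rc4_146

/-!
# R136: record blow-up, consumer half (helper146), part 5: full invariance, homogeneity

For a group `k` with all `dh i > 0`:
* `add_of`  : `φ k (Tn z + c) = φ k (Tn z) + φ k c` for all legal `c` (decomposition of the way from
  `c` up to a natural position into moves of type II)
* `lim_of`  : `φ k (h c) / h` converges as `h → 0+` (subadditivity)
* `hom_of`  : after one more blow-up at `0` the group function is positively homogeneous
-/

set_option autoImplicit false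
set_option linter.unusedSectionVars false
set_option linter.unusedVariables false

open Set Filter Topology Metric MeasureTheory

namespace Crest.Agent.R136.Rc146

open Dg219

/-- subadditive functions have a derivative at `0` -/
theorem subadd_lim {F : ℝ → ℝ} {C : ℝ} (h0 : ∀ h, 0 < h → 0 ≤ F h) (hC : ∀ h, 0 < h → F h ≤ C * h)
    (hsub : ∀ h h', 0 < h → 0 < h' → F (h + h') ≤ F h + F h') :
    ∃ A : ℝ, Tendsto (fun h => F h / h) (𝓝[>] 0) (𝓝 A) := by
  have hC0 : 0 ≤ C := by
    have := (h0 1 one_pos).trans (hC 1 one_pos); linarith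
  set T : Set ℝ := (fun h => F h / h) '' Ioi 0 with hT
  have hb : BddAbove T := ⟨C, by
    rintro _ ⟨h, hh, rfl⟩
    simp only
    rw [div_le_iff₀ hh]; exact hC h hh⟩
  have hne : T.Nonempty := ⟨_, 1, mem_Ioi.2 one_pos, rfl⟩
  set A := sSup T with hA
  have hle : ∀ h, 0 < h → F h ≤ A * h := by
    intro h hh
    rw [← div_le_iff₀ hh]
    exact le_csSup hb ⟨h, hh, rfl⟩
  have hmul : ∀ (n : ℕ) (h : ℝ), 0 < h → F ((n + 1 : ℕ) * h) ≤ (n + 1 : ℕ) * F h := by
    intro n h hh
    induction n with
    | zero => simp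
    | succ n ih =>
      have h1 := hsub ((n + 1 : ℕ) * h) h (by positivity) hh
      have e : ((n + 1 + 1 : ℕ) : ℝ) * h = ((n + 1 : ℕ) : ℝ) * h + h := by push_cast; ring
      rw [e]
      refine h1.trans ?_
      have e2 : ((n + 1 + 1 : ℕ) : ℝ) * F h = ((n + 1 : ℕ) : ℝ) * F h + F h := by push_cast; ring
      rw [e2]; linarith
  refine ⟨A, ?_⟩
  rw [Metric.tendsto_nhdsWithin_nhds]
  intro ε hε
  obtain ⟨_, ⟨h1, hh1, rfl⟩, hlt⟩ := exists_lt_of_lt_csSup hne (show A - ε / 2 < A by linarith)
  have hh1' : (0:ℝ) < h1 := hh1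
  simp only at hlt
  refine ⟨min h1 (ε * h1 / (2 * (C + 1))), lt_min hh1' (by positivity), fun {h} hh hd => ?_⟩
  have hh' : (0:ℝ) < h := hh
  rw [Real.dist_eq, sub_zero, abs_of_pos hh'] at hd
  have hd1 := hd.trans_le (min_le_left _ _)
  have hd2 := hd.trans_le (min_le_right _ _)
  rw [lt_div_iff₀ (by positivity)] at hd2
  rw [Real.dist_eq, abs_lt]
  have hub : F h / h ≤ A := by rw [div_le_iff₀ hh']; exact hle h hh'
  refine ⟨?_, by linarith⟩
  -- lower bound
  obtain ⟨n, hn⟩ : ∃ n : ℕ, (n : ℝ) * h < h1 ∧ h1 ≤ ((n + 1 : ℕ) : ℝ) * h := by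
    have hex : ∃ m : ℕ, h1 ≤ ((m + 1 : ℕ) : ℝ) * h := by
      obtain ⟨m, hm⟩ := exists_nat_ge (h1 / h)
      refine ⟨m, ?_⟩
      rw [div_le_iff₀ hh'] at hm
      push_cast; nlinarith
    classical
    refine ⟨Nat.find hex, ?_, Nat.find_spec hex⟩
    rcases Nat.eq_zero_or_pos (Nat.find hex) with h0 | h0
    · rw [h0]; simpa using hh1'
    · have := Nat.find_min hex (m := Nat.find hex - 1) (by omega)
      rw [Nat.sub_add_cancel h0] at this
      exact not_le.1 this
  have hn0 : n ≠ 0 := by
    rintro rfl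
    have := hn.2
    simp only [zero_add, Nat.cast_one, one_mul] at this
    linarith
  obtain ⟨m, rfl⟩ : ∃ m, n = m + 1 := ⟨n - 1, by omega⟩
  have hs : 0 < h1 - ((m + 1 : ℕ) : ℝ) * h := by linarith [hn.1]
  have a1 := hsub (((m + 1 : ℕ) : ℝ) * h) (h1 - ((m + 1 : ℕ) : ℝ) * h) (by positivity) hs
  rw [add_sub_cancel] at a1
  have a2 := hmul m h hh'
  have a3 := hC _ hs
  have a4 : h1 - ((m + 1 : ℕ) : ℝ) * h ≤ h := by
    have := hn.2
    push_cast at this ⊢
    linarith
  have a5 : C * (h1 - ((m + 1 : ℕ) : ℝ) * h) ≤ C * h := mul_le_mul_of_nonneg_left a4 hC0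
  rw [lt_div_iff₀ hh1'] at hlt
  -- `F h1 ≤ (m+1) F h + C h`
  have a6 : F h1 ≤ ((m + 1 : ℕ) : ℝ) * F h + C * h := by linarith
  have a7 : ((m + 1 : ℕ) : ℝ) * F h ≤ h1 / h * F h := by
    refine mul_le_mul_of_nonneg_right ?_ (h0 h hh')
    rw [le_div_iff₀ hh']; linarith [hn.1]
  have a8 : (A - ε / 2) * h1 ≤ h1 * (F h / h) + C * h := by
    have e : h1 / h * F h = h1 * (F h / h) := by ring
    rw [← e]; linarith
  have a9 : C * h ≤ ε / 2 * h1 - 0 := by
    have : C * h ≤ (C + 1) * h := by nlinarith
    nlinarith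
  have a10 : C * h < ε / 2 * h1 := by nlinarith
  have a11 : (A - ε) * h1 < h1 * (F h / h) := by nlinarith
  have a12 : A - ε < F h / h := by
    by_contra hcon
    push Not at hcon
    have := mul_le_mul_of_nonneg_left hcon hh1'.le
    linarith
  linarith

variable {ι κ : Type*} [Fintype ι] [DecidableEq ι] [DecidableEq κ]

/-- data of one group function -/
structure GF (grp : ι → κ) (L : Set (ι → ℝ)) (a b dh : ι → ℝ) (n : κ → ℝ × ℝ) (k : κ)
    (φ : (ι → ℝ) → ℝ) (r : ℝ) : Prop where
  cone : Cone L
  sup : ∀ c ∈ L, ∀ d ∈ L, c ⊔ d ∈ L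
  nat : ∀ z, Tn a b z ∈ L
  eq : ∀ z i, grp i = k → Tn a b z i = lf (n k) z * dh i
  nk : n k ≠ 0
  pos : ∀ i, grp i = k → 0 < dh i
  loc : ∀ c c', (∀ i, grp i = k → c i = c' i) → φ c = φ c'
  zero : φ 0 = 0
  mono : ∀ c ∈ L, ∀ c' ∈ L, (∀ i, grp i = k → c i ≤ c' i) → 0 ≤ φ c - φ c' ∧
    φ c - φ c' ≤ ∑ i ∈ Finset.univ.filter (fun i => grp i = k), (c' i - c i)
  smod : ∀ p ∈ L, ∀ q ∈ L, ∀ s ∈ L, ∀ t ∈ L,
    (∀ i, grp i = k → s i = min (p i) (q i)) → (∀ i, grp i = k → t i = max (p i) (q i)) →
    φ p + φ q ≤ φ t + φ s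
  rate : ∀ c ∈ L, ∀ u : ℝ, (∀ i, grp i = k → c i = u * dh i) → φ c = -(r * u)
  stat : ∀ c ∈ L, ∀ d : ι → ℝ, c + d ∈ L → ∀ y : ℝ,
    MvII grp dh k c d y → ∀ z : ℝ × ℝ,
      φ (Tn a b z + c) - φ (Tn a b z + (c + d)) = φ c - φ (c + d)

section

variable {grp : ι → κ} {L : Set (ι → ℝ)} {a b dh : ι → ℝ} {n : κ → ℝ × ℝ} {k : κ}
  {φ : (ι → ℝ) → ℝ} {r : ℝ}

/-- natural position at level `u` -/
noncomputable def nt (a b : ι → ℝ) (n : κ → ℝ × ℝ) (k : κ) (u : ℝ) : ι → ℝ := Tn a b (zz (n k) u)

theorem GF.nt_i (H : GF grp L a b dh n k φ r) (u : ℝ) {i : ι} (hi : grp i = k) :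
    nt a b n k u i = u * dh i := by
  unfold nt; rw [H.eq _ i hi, lf_zz H.nk]

theorem GF.nt_mem (H : GF grp L a b dh n k φ r) (u : ℝ) : nt a b n k u ∈ L := H.nat _

/-- levels above which something remains -/
noncomputable def lev (grp : ι → κ) (dh : ι → ℝ) (k : κ) (U : ℝ) (c : ι → ℝ) : Finset ℝ :=
  insert U ((Finset.univ.filter (fun i => grp i = k)).image (fun i => c i / dh i))

/-- **induction along the levels** : a property of legal vectors below the natural level `U` which
holds at the level `U` and is inherited downwards by moves of type II holds everywhere -/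
theorem GF.ind (H : GF grp L a b dh n k φ r) (U : ℝ) (p : (ι → ℝ) → Prop)
    (h0 : ∀ c ∈ L, (∀ i, grp i = k → c i = U * dh i) → p c)
    (hstep : ∀ c ∈ L, ∀ d : ι → ℝ, ∀ m y : ℝ, 0 < y → c + d ∈ L →
      (∀ i, grp i = k → (c i = m * dh i ∧ d i = y * dh i) ∨ (d i = 0 ∧ (m + y) * dh i ≤ c i)) →
      p (c + d) → p c) :
    ∀ c ∈ L, (∀ i, grp i = k → c i ≤ U * dh i) → p c := by
  classical
  have key : ∀ N : ℕ, ∀ c ∈ L, (∀ i, grp i = k → c i ≤ U * dh i) →
      (lev grp dh k U c).card ≤ N + 1 → p c := by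
    intro N
    induction N with
    | zero =>
      intro c hc hcU hcard
      refine h0 c hc fun i hi => ?_
      have h1 : c i / dh i ∈ lev grp dh k U c :=
        Finset.mem_insert_of_mem (Finset.mem_image.2 ⟨i, by simp [hi], rfl⟩)
      have h2 : U ∈ lev grp dh k U c := Finset.mem_insert_self _ _
      have h3 := Finset.card_le_one.1 (by simpa using hcard) _ h1 _ h2
      rw [← h3, div_mul_cancel₀ _ (H.pos i hi).ne']
    | succ N ih =>
      intro c hc hcU hcard
      by_cases hall : ∀ i, grp i = k → c i = U * dh i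
      · exact h0 c hc hall
      push Not at hall
      obtain ⟨i1, hi1, hne1⟩ := hall
      set T := lev grp dh k U c with hT
      have hTne : T.Nonempty := ⟨U, Finset.mem_insert_self _ _⟩
      have hmemT : ∀ i, grp i = k → c i / dh i ∈ T := fun i hi =>
        Finset.mem_insert_of_mem (Finset.mem_image.2 ⟨i, by simp [hi], rfl⟩)
      have hTle : ∀ t ∈ T, t ≤ U := by
        intro t ht
        rcases Finset.mem_insert.1 ht with rfl | ht
        · exact le_rfl
        · obtain ⟨i, hi, rfl⟩ := Finset.mem_image.1 ht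
          simp only [Finset.mem_filter, Finset.mem_univ, true_and] at hi
          rw [div_le_iff₀ (H.pos i hi)]; exact hcU i hi
      set m := T.min' hTne with hm
      have hmU : m < U := by
        have h1 : m ≤ c i1 / dh i1 := Finset.min'_le _ _ (hmemT i1 hi1)
        have h2 : c i1 / dh i1 < U := by
          rw [div_lt_iff₀ (H.pos i1 hi1)]
          exact lt_of_le_of_ne (hcU i1 hi1) hne1
        linarith
      have hT'ne : (T.erase m).Nonempty :=
        ⟨U, Finset.mem_erase.2 ⟨hmU.ne', Finset.mem_insert_self _ _⟩⟩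
      set m' := (T.erase m).min' hT'ne with hm'
      have hm'T : m' ∈ T.erase m := Finset.min'_mem _ _
      have hmm' : m < m' := by
        have h1 : m ≤ m' := Finset.min'_le _ _ (Finset.mem_of_mem_erase hm'T)
        exact lt_of_le_of_ne h1 (Finset.ne_of_mem_erase hm'T).symm
      have hm'U : m' ≤ U := hTle _ (Finset.mem_of_mem_erase hm'T)
      -- the join with the level `m'`
      set c' := c ⊔ nt a b n k m' with hc'
      have hc'L : c' ∈ L := H.sup _ hc _ (H.nt_mem m')
      have hc'i : ∀ i, grp i = k → c' i = max (c i) (m' * dh i) := by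
        intro i hi
        rw [hc', Pi.sup_apply, H.nt_i m' hi]
      have hdich : ∀ i, grp i = k → c i = m * dh i ∨ m' * dh i ≤ c i := by
        intro i hi
        by_cases h1 : c i / dh i = m
        · left; rw [← h1, div_mul_cancel₀ _ (H.pos i hi).ne']
        · right
          have h2 : m' ≤ c i / dh i :=
            Finset.min'_le _ _ (Finset.mem_erase.2 ⟨h1, hmemT i hi⟩)
          rwa [le_div_iff₀ (H.pos i hi)] at h2
      refine hstep c hc (c' - c) m (m' - m) (by linarith) (by rw [add_sub_cancel]; exact hc'L) ?_ ?_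
      · intro i hi
        rw [Pi.sub_apply, hc'i i hi]
        rcases hdich i hi with h1 | h1
        · left
          refine ⟨h1, ?_⟩
          rw [h1, max_eq_right (by nlinarith [H.pos i hi])]; ring
        · right
          rw [max_eq_left h1, sub_self, add_sub_cancel]
          exact ⟨rfl, h1⟩
      · rw [add_sub_cancel]
        refine ih c' hc'L (fun i hi => ?_) ?_
        · rw [hc'i i hi]
          exact max_le (hcU i hi) (mul_le_mul_of_nonneg_right hm'U (H.pos i hi).le)
        · have hsub : lev grp dh k U c' ⊆ T.erase m := by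
            intro t ht
            rcases Finset.mem_insert.1 ht with rfl | ht
            · exact Finset.mem_erase.2 ⟨hmU.ne', Finset.mem_insert_self _ _⟩
            · obtain ⟨i, hi, rfl⟩ := Finset.mem_image.1 ht
              simp only [Finset.mem_filter, Finset.mem_univ, true_and] at hi
              rw [hc'i i hi]
              rcases hdich i hi with h1 | h1
              · rw [h1, max_eq_right (by nlinarith [H.pos i hi]),
                  mul_div_cancel_right₀ _ (H.pos i hi).ne']
                exact hm'T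
              · rw [max_eq_left h1]
                refine Finset.mem_erase.2 ⟨?_, hmemT i hi⟩
                intro h2
                rw [div_eq_iff (H.pos i hi).ne'] at h2
                rw [h2] at h1
                have := H.pos i hi
                nlinarith
          have h1 := Finset.card_le_card hsub
          rw [Finset.card_erase_of_mem (Finset.min'_mem _ _)] at h1
          omega
  intro c hc hcU
  exact key (lev grp dh k U c).card c hc hcU (Nat.le_succ _)

theorem GF.exists_top (H : GF grp L a b dh n k φ r) (c : ι → ℝ) :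
    ∃ U : ℝ, ∀ i, grp i = k → c i ≤ U * dh i := by
  classical
  refine ⟨∑ i ∈ Finset.univ.filter (fun i => grp i = k), |c i / dh i|, fun i hi => ?_⟩
  have h1 : |c i / dh i| ≤ ∑ i ∈ Finset.univ.filter (fun i => grp i = k), |c i / dh i| :=
    Finset.single_le_sum (f := fun i => |c i / dh i|) (fun i _ => abs_nonneg _) (by simp [hi])
  have h2 := le_abs_self (c i / dh i)
  rw [← div_le_iff₀ (H.pos i hi)]
  linarith

/-- translation by the natural plane, for the vector at the level -/
theorem GF.tr_mem (H : GF grp L a b dh n k φ r) {c : ι → ℝ} (hc : c ∈ L) (u : ℝ) :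
    c - nt a b n k u ∈ L := by
  have e : c - nt a b n k u = c + nt a b n k (-u) := by
    unfold nt
    have : Tn a b (zz (n k) (-u)) = -Tn a b (zz (n k) u) := by
      have h1 : zz (n k) (-u) = (-1 : ℝ) • zz (n k) u := by
        ext <;> simp [zz, neg_div]
      rw [h1, Tn_smul]; simp
    rw [this]; abel
  rw [e]
  exact H.cone.add _ hc _ (H.nt_mem _)

/-- **translation invariance** of the increments from `c` up to a natural position -/
theorem GF.inv (H : GF grp L a b dh n k φ r) (U : ℝ) (z : ℝ × ℝ) :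
    ∀ c ∈ L, (∀ i, grp i = k → c i ≤ U * dh i) →
      φ (Tn a b z + c) - φ (Tn a b z + nt a b n k U) = φ c - φ (nt a b n k U) := by
  refine H.ind U _ ?_ ?_
  · intro c hc hcU
    have h1 : φ (Tn a b z + c) = φ (Tn a b z + nt a b n k U) := H.loc _ _ fun i hi => by
      rw [Pi.add_apply, Pi.add_apply, hcU i hi, H.nt_i U hi]
    have h2 : φ c = φ (nt a b n k U) := H.loc _ _ fun i hi => by rw [hcU i hi, H.nt_i U hi]
    rw [h1, h2]; ring
  · intro c hc d m y hy hcd hm ih
    set c0 := c - nt a b n k m with hc0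
    have hc0L : c0 ∈ L := H.tr_mem hc m
    have hc0d : c0 + d ∈ L := by
      have : c0 + d = (c + d) - nt a b n k m := by rw [hc0]; abel
      rw [this]; exact H.tr_mem hcd m
    have hmv : MvII grp dh k c0 d y := by
      intro i hi
      rw [hc0, Pi.sub_apply, H.nt_i m hi]
      rcases hm i hi with ⟨h1, h2⟩ | ⟨h1, h2⟩
      · left
        exact ⟨by rw [h1]; ring, h2, by rw [h2]; exact mul_nonneg hy.le (H.pos i hi).le⟩
      · right
        have h3 := H.pos i hi
        refine ⟨h1, ?_, ?_⟩ <;> nlinarith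
    have s1 := H.stat c0 hc0L d hc0d y hmv (z + zz (n k) m)
    have s2 := H.stat c0 hc0L d hc0d y hmv (zz (n k) m)
    have e1 : Tn a b (z + zz (n k) m) + c0 = Tn a b z + c := by
      rw [Tn_add, hc0]; unfold nt; abel
    have e2 : Tn a b (z + zz (n k) m) + (c0 + d) = Tn a b z + (c + d) := by
      rw [Tn_add, hc0]; unfold nt; abel
    have e3 : Tn a b (zz (n k) m) + c0 = c := by rw [hc0]; unfold nt; abel
    have e4 : Tn a b (zz (n k) m) + (c0 + d) = c + d := by rw [hc0]; unfold nt; abel
    rw [e1, e2] at s1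
    rw [e3, e4] at s2
    linarith

/-- **full invariance** : the group function is additive with respect to the natural plane -/
theorem GF.add (H : GF grp L a b dh n k φ r) (z : ℝ × ℝ) {c : ι → ℝ} (hc : c ∈ L) :
    φ (Tn a b z + c) = φ (Tn a b z) + φ c := by
  obtain ⟨U, hU⟩ := H.exists_top c
  have h1 := H.inv U z c hc hU
  have h2 : φ (Tn a b z + nt a b n k U) = -(r * (lf (n k) z + U)) :=
    H.rate _ (H.cone.add _ (H.nat z) _ (H.nt_mem U)) _ fun i hi => by
      rw [Pi.add_apply, H.eq z i hi, H.nt_i U hi]; ring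
  have h3 : φ (Tn a b z) = -(r * lf (n k) z) := H.rate _ (H.nat z) _ fun i hi => H.eq z i hi
  have h4 : φ (nt a b n k U) = -(r * U) := H.rate _ (H.nt_mem U) _ fun i hi => H.nt_i U hi
  rw [h2, h4] at h1
  rw [h3]
  linarith

/-- **directional derivative at `0`** of the group function -/
theorem GF.lim (H : GF grp L a b dh n k φ r) {c : ι → ℝ} (hc : c ∈ L) :
    ∃ A : ℝ, Tendsto (fun h : ℝ => φ (h • c) / h) (𝓝[>] 0) (𝓝 A) := by
  obtain ⟨U, hU⟩ := H.exists_top c
  refine H.ind U (fun c => ∃ A : ℝ, Tendsto (fun h : ℝ => φ (h • c) / h) (𝓝[>] 0) (𝓝 A)) ?_ ?_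
    c hc hU
  · intro c hc hcU
    refine ⟨-(r * U), tendsto_const_nhds.congr' ?_⟩
    filter_upwards [self_mem_nhdsWithin] with h hh
    have hh' : (0:ℝ) < h := hh
    rw [H.rate (h • c) (H.cone.smul _ hc _ hh'.le) (h * U) fun i hi => by
      rw [Pi.smul_apply, smul_eq_mul, hcU i hi]; ring]
    field_simp
  · intro c hc d m y hy hcd hm ⟨A1, hA1⟩
    set c0 := c - nt a b n k m with hc0
    have hc0L : c0 ∈ L := H.tr_mem hc m
    have hc0d : c0 + d ∈ L := by
      have : c0 + d = (c + d) - nt a b n k m := by rw [hc0]; abel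
      rw [this]; exact H.tr_mem hcd m
    have hi0 : ∀ i, grp i = k → (c0 i = 0 ∧ d i = y * dh i) ∨ (d i = 0 ∧ y * dh i ≤ c0 i) := by
      intro i hi
      rw [hc0, Pi.sub_apply, H.nt_i m hi]
      rcases hm i hi with ⟨h1, h2⟩ | ⟨h1, h2⟩
      · left; exact ⟨by rw [h1]; ring, h2⟩
      · right; exact ⟨h1, by nlinarith⟩
    have sm : ∀ v ∈ L, ∀ t : ℝ, 0 ≤ t → t • v ∈ L := fun v hv t ht => H.cone.smul _ hv _ ht
    -- the cost of the move
    set F : ℝ → ℝ := fun h => φ (h • c0) - φ (h • (c0 + d)) with hF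
    have hF0 : ∀ h, 0 < h → 0 ≤ F h ∧
        F h ≤ (∑ i ∈ Finset.univ.filter (fun i => grp i = k), d i) * h := by
      intro h hh
      have h1 := H.mono (h • c0) (sm _ hc0L _ hh.le) (h • (c0 + d)) (sm _ hc0d _ hh.le) (by
        intro i hi
        simp only [Pi.smul_apply, Pi.add_apply, smul_eq_mul]
        have : 0 ≤ d i := by
          rcases hi0 i hi with ⟨_, h2⟩ | ⟨h2, _⟩
          · rw [h2]; exact mul_nonneg hy.le (H.pos i hi).le
          · rw [h2]
        nlinarith)
      refine ⟨h1.1, h1.2.trans (le_of_eq ?_)⟩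
      rw [Finset.sum_mul]
      refine Finset.sum_congr rfl fun i _ => ?_
      simp only [Pi.smul_apply, Pi.add_apply, smul_eq_mul]; ring
    have hsub : ∀ h h', 0 < h → 0 < h' → F (h + h') ≤ F h + F h' := by
      intro h h' hh hh'
      -- intermediate position
      set Qp : ι → ℝ := h • (c0 + d) + h' • c0 with hQ
      have hQL : Qp ∈ L := H.cone.add _ (sm _ hc0d _ hh.le) _ (sm _ hc0L _ hh'.le)
      have hPL : (h + h') • c0 ∈ L := sm _ hc0L _ (by linarith)
      have hP'L : (h + h') • (c0 + d) ∈ L := sm _ hc0d _ (by linarith)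
      have b1 : φ ((h + h') • c0) - φ Qp ≤ F h := by
        have := H.smod ((h + h') • c0) hPL (h • (c0 + d)) (sm _ hc0d _ hh.le) (h • c0)
          (sm _ hc0L _ hh.le) Qp hQL
          (by
            intro i hi
            simp only [Pi.smul_apply, Pi.add_apply, smul_eq_mul]
            have h3 := H.pos i hi
            rcases hi0 i hi with ⟨h1, h2⟩ | ⟨h1, h2⟩
            · rw [h1, h2, min_eq_left (by nlinarith [mul_pos hy h3])]; ring
            · have h4 : 0 ≤ c0 i := (mul_nonneg hy.le h3.le).trans h2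
              rw [h1, add_zero, min_eq_right (by nlinarith)])
          (by
            intro i hi
            simp only [hQ, Pi.smul_apply, Pi.add_apply, smul_eq_mul]
            have h3 := H.pos i hi
            rcases hi0 i hi with ⟨h1, h2⟩ | ⟨h1, h2⟩
            · rw [h1, h2, max_eq_right (by nlinarith [mul_pos hy h3])]; ring
            · have h4 : 0 ≤ c0 i := (mul_nonneg hy.le h3.le).trans h2
              rw [h1, add_zero, max_eq_left (by nlinarith)]; ring)
        simp only [hF]; linarith
      have b2 : φ Qp - φ ((h + h') • (c0 + d)) ≤ F h' := by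
        -- translate to the level 0
        set c2 := Qp - nt a b n k (h * y) with hc2
        have hc2L : c2 ∈ L := H.tr_mem hQL _
        have hc2i : ∀ i, grp i = k → (c0 i = 0 ∧ d i = y * dh i ∧ c2 i = 0) ∨
            (d i = 0 ∧ h' * c0 i ≤ c2 i) := by
          intro i hi
          rw [hc2, Pi.sub_apply, H.nt_i _ hi]
          simp only [hQ, Pi.smul_apply, Pi.add_apply, smul_eq_mul]
          rcases hi0 i hi with ⟨h1, h2⟩ | ⟨h1, h2⟩
          · left; exact ⟨h1, h2, by rw [h1, h2]; ring⟩
          · right; exact ⟨h1, by rw [h1]; nlinarith⟩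
        have hc2d : c2 + h' • d ∈ L := by
          have : c2 + h' • d = ((h + h') • (c0 + d)) - nt a b n k (h * y) := by
            rw [hc2, hQ]; funext i
            simp only [Pi.sub_apply, Pi.add_apply, Pi.smul_apply, smul_eq_mul]; ring
          rw [this]; exact H.tr_mem hP'L _
        have hmv : MvII grp dh k c2 (h' • d) (h' * y) := by
          intro i hi
          have h3 := H.pos i hi
          rw [Pi.smul_apply, smul_eq_mul]
          rcases hc2i i hi with ⟨h1, h2, h4⟩ | ⟨h1, h2⟩
          · left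
            refine ⟨h4, by rw [h2]; ring, ?_⟩
            rw [h2]; exact mul_nonneg hh'.le (mul_nonneg hy.le h3.le)
          · right
            have h5 : y * dh i ≤ c0 i := by
              rcases hi0 i hi with ⟨q1, q2⟩ | ⟨q1, q2⟩
              · rw [h1] at q2
                have := mul_pos hy h3
                linarith
              · exact q2
            have h6 : 0 ≤ c0 i := (mul_nonneg hy.le h3.le).trans h5
            refine ⟨by rw [h1, mul_zero], ?_, ?_⟩ <;> nlinarith
        have s := H.stat c2 hc2L (h' • d) hc2d (h' * y) hmv (zz (n k) (h * y))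
        have e3 : Tn a b (zz (n k) (h * y)) + c2 = Qp := by rw [hc2]; unfold nt; abel
        have e4 : Tn a b (zz (n k) (h * y)) + (c2 + h' • d) = (h + h') • (c0 + d) := by
          rw [← add_assoc, e3, hQ]; funext i
          simp only [Pi.add_apply, Pi.smul_apply, smul_eq_mul]; ring
        rw [e3, e4] at s
        rw [s]
        have := H.smod c2 hc2L (h' • (c0 + d)) (sm _ hc0d _ hh'.le) (h' • c0)
          (sm _ hc0L _ hh'.le) (c2 + h' • d) hc2d
          (by
            intro i hi
            simp only [Pi.smul_apply, Pi.add_apply, smul_eq_mul]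
            have h3 := H.pos i hi
            rcases hc2i i hi with ⟨h1, h2, h4⟩ | ⟨h1, h2⟩
            · rw [h1, h2, h4, min_eq_left (by nlinarith [mul_pos hy h3, mul_pos hh' (mul_pos hy h3)])]
              ring
            · rw [h1, add_zero, min_eq_right h2])
          (by
            intro i hi
            simp only [Pi.smul_apply, Pi.add_apply, smul_eq_mul]
            have h3 := H.pos i hi
            rcases hc2i i hi with ⟨h1, h2, h4⟩ | ⟨h1, h2⟩
            · rw [h1, h2, h4, max_eq_right (by nlinarith [mul_pos hy h3, mul_pos hh' (mul_pos hy h3)])]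
              ring
            · rw [h1, add_zero, mul_zero, add_zero, max_eq_left h2])
        simp only [hF]; linarith
      simp only [hF] at b1 b2 ⊢
      linarith
    obtain ⟨A2, hA2⟩ := subadd_lim (fun h hh => (hF0 h hh).1) (fun h hh => (hF0 h hh).2) hsub
    -- `φ (h c) = φ (h (c + d)) + F h`
    refine ⟨A1 + A2, (hA1.add hA2).congr' ?_⟩
    filter_upwards [self_mem_nhdsWithin] with h hh
    have hh' : (0:ℝ) < h := hh
    have hkey : φ (h • c) - φ (h • (c + d)) = φ (h • c0) - φ (h • (c0 + d)) := by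
      have e1 : h • c = Tn a b (zz (n k) (h * m)) + h • c0 := by
        have : Tn a b (zz (n k) (h * m)) = h • nt a b n k m := by
          unfold nt
          rw [← Tn_smul]; congr 1
          ext <;> simp only [zz, Prod.smul_fst, Prod.smul_snd, smul_eq_mul] <;> ring
        rw [this, hc0, smul_sub]; abel
      have e2 : h • (c + d) = Tn a b (zz (n k) (h * m)) + h • (c0 + d) := by
        rw [smul_add, e1, smul_add]; abel
      rw [e1, e2, H.add _ (sm _ hc0L _ hh'.le), H.add _ (sm _ hc0d _ hh'.le)]; ring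
    simp only [hF]
    rw [← add_div]
    congr 1
    linarith

end

end Crest.Agent.R136.Rc146
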