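import Crest.Agent.R136.Rc5_146

/-!
# R136: record blow-up, consumer half (helper146), part 6: the complete output for one surface

`RecOut` = `OutH` + stationarity + additivity with respect to the natural plane + homogeneity.
`recOut_of` : `G` separated on the window cone, second blow-up `lam` at a good point of the record
line, third blow-up `lam2` of `lam` at `0`.
-/

set_option autoImplicit false
set_option linter.unusedSectionVars false
set_option linter.unusedVariables false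

open Set Filter Topology Metric MeasureTheory

namespace Crest.Agent.R136.Rc146

open Dg219

variable {ι κ : Type*} [Fintype ι] [DecidableEq ι] [DecidableEq κ]

section

variable {grp : ι → κ} {L : Set (ι → ℝ)} {a b dh : ι → ℝ} {n : κ → ℝ × ℝ} {k : κ}
  {φ φ2 : (ι → ℝ) → ℝ} {r : ℝ}

/-- homogeneity after a zoom at `0` -/
theorem GF.hom_of (H : GF grp L a b dh n k φ r) {t : ℕ → ℝ} (tpos : ∀ l, 0 < t l)
    (t0 : Tendsto t atTop (𝓝 0))
    (hlim : ∀ c ∈ L, Tendsto (fun l => φ (t l • c) / t l) atTop (𝓝 (φ2 c))) :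
    ∀ c ∈ L, ∀ s : ℝ, 0 ≤ s → φ2 (s • c) = s * φ2 c := by
  intro c hc s hs
  have ht : Tendsto t atTop (𝓝[>] 0) :=
    tendsto_nhdsWithin_iff.2 ⟨t0, Eventually.of_forall fun l => tpos l⟩
  rcases hs.eq_or_lt with rfl | hs'
  · rw [zero_smul, zero_mul]
    have h1 := hlim 0 H.cone.zero
    refine tendsto_nhds_unique h1 (tendsto_const_nhds.congr fun l => ?_)
    rw [smul_zero, H.zero, zero_div]
  · obtain ⟨A, hA⟩ := H.lim hc
    have h1 : φ2 c = A := tendsto_nhds_unique (hlim c hc) (hA.comp ht)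
    have ht2 : Tendsto (fun l => t l * s) atTop (𝓝[>] 0) :=
      tendsto_nhdsWithin_iff.2 ⟨by simpa using t0.mul_const s,
        Eventually.of_forall fun l => mul_pos (tpos l) hs'⟩
    have h2 := (hA.comp ht2).const_mul s
    rw [h1]
    refine tendsto_nhds_unique (hlim _ (H.cone.smul _ hc _ hs)) (h2.congr fun l => ?_)
    simp only [Function.comp]
    rw [smul_smul, ← mul_div_assoc, mul_comm (t l) s, mul_div_mul_left _ _ hs'.ne']

end

/-- **complete output of the record blow-up for one surface** -/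
structure RecOut (grp : ι → κ) (S : Finset κ) (LW L : Set (ι → ℝ)) (a b : ι → ℝ) (l : ℝ × ℝ)
    (dh : ι → ℝ) (n : κ → ℝ × ℝ) (lam : (ι → ℝ) → ℝ) (φ : κ → (ι → ℝ) → ℝ) (r : κ → ℝ) :
    Prop extends OutH grp S LW L a b l dh n lam φ r where
  stat : ∀ k ∈ S, Stat grp L a b dh φ k
  /-- additive with respect to the natural plane: constants on the half plane -/
  add : ∀ k ∈ S, (∀ i, grp i = k → 0 < dh i) → ∀ z, ∀ c ∈ L,
    φ k (Tn a b z + c) = φ k (Tn a b z) + φ k c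
  /-- positively homogeneous -/
  hom : ∀ k ∈ S, (∀ i, grp i = k → 0 < dh i) → ∀ c ∈ L, ∀ t : ℝ, 0 ≤ t → φ k (t • c) = t * φ k c

section

variable {grp : ι → κ} {S : Finset κ} {D LW L M : Set (ι → ℝ)} {G lam lam2 : (ι → ℝ) → ℝ}
  {ρ : κ → ι → ℝ} {ρs : ι → ℝ} {a b : ι → ℝ} {n : κ → ℝ × ℝ} {dh : ι → ℝ} {l : ℝ × ℝ}
  {φ : κ → (ι → ℝ) → ℝ} {r : κ → ℝ}

theorem OutH.gf (H : OutH grp S LW L a b l dh n lam φ r) (hL : Cone L)
    (hsup : ∀ c ∈ L, ∀ d ∈ L, c ⊔ d ∈ L) (hnat : ∀ z, Tn a b z ∈ L) (hd : SDir grp a b n dh)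
    (hSg : S ⊆ gset grp) {k : κ} (hk : k ∈ S) (hst : Stat grp L a b dh φ k)
    (hpos : ∀ i, grp i = k → 0 < dh i) : GF grp L a b dh n k (φ k) (r k) where
  cone := hL
  sup := hsup
  nat := hnat
  eq := fun z i hi => by rw [hd.Tn_eq, hi]
  nk := by
    obtain ⟨i0, -, hi0⟩ := Finset.mem_image.1 (hSg hk)
    rw [← hi0]; exact hd.ne i0
  pos := hpos
  loc := H.loc k
  zero := H.zero k 0 fun i _ => rfl
  mono := H.mono k hk
  smod := H.smod k hk
  rate := H.rate k hk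
  stat := fun c hc d hcd y hm z => hst c hc d hcd y (Or.inr hm) z

/-- stationarity survives a zoom at `0` -/
theorem stat_zoom (hG : GeoH grp S D LW L ρ ρs) (hg : Sep grp LW lam)
    (hnat : ∀ z, Tn a b z ∈ L) {k : κ} (hk : k ∈ S)
    (hst : Stat grp L a b dh (phi grp LW lam ρ) k) {t : ℕ → ℝ} (tpos : ∀ l, 0 < t l)
    (hlim : ∀ c ∈ LW, Tendsto (fun l => (lam ((0 : ι → ℝ) + t l • c) - lam 0) / t l) atTop
      (𝓝 (lam2 c))) : Stat grp L a b dh (phi grp LW lam2 ρ) k := by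
  intro c hc d hcd y hm z
  have pt : ∀ q ∈ L, Tendsto (fun l => (phi grp LW lam ρ k (t l • q) -
      phi grp LW lam ρ k 0) / t l) atTop (𝓝 (phi grp LW lam2 ρ k q)) := by
    intro q hq
    refine (phi_tan hG hg hk hG.cone.zero tpos hlim (hG.cy hk hq)).congr fun l => ?_
    rw [zero_add]
  have m1 : Tn a b z + c ∈ L := hG.coneL.add _ (hnat z) _ hc
  have m2 : Tn a b z + (c + d) ∈ L := hG.coneL.add _ (hnat z) _ hcd
  have h1 := (pt _ m1).sub (pt _ m2)
  have h2 := (pt _ hc).sub (pt _ hcd)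
  refine tendsto_nhds_unique h1 (h2.congr fun l => ?_)
  have ht := (tpos l).le
  have hm' : MvI grp dh k (t l • c) (t l • d) (t l * y) ∨
      MvII grp dh k (t l • c) (t l • d) (t l * y) := by
    rcases hm with hm | hm
    · left
      intro i hi
      simp only [Pi.smul_apply, smul_eq_mul]
      rcases hm i hi with ⟨a1, a2, a3⟩ | ⟨a1, a2, a3⟩
      · left; exact ⟨by rw [a1, mul_zero], by rw [a2]; ring, mul_nonneg ht a3⟩
      · right
        exact ⟨by rw [a1, mul_zero], mul_nonpos_of_nonneg_of_nonpos ht a2, by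
          rw [mul_assoc]; exact mul_le_mul_of_nonneg_left a3 ht⟩
    · right
      intro i hi
      simp only [Pi.smul_apply, smul_eq_mul]
      rcases hm i hi with ⟨a1, a2, a3⟩ | ⟨a1, a2, a3⟩
      · left; exact ⟨by rw [a1, mul_zero], by rw [a2]; ring, mul_nonneg ht a3⟩
      · right
        exact ⟨by rw [a1, mul_zero], mul_nonneg ht a2, by
          rw [mul_assoc]; exact mul_le_mul_of_nonneg_left a3 ht⟩
  have s := hst (t l • c) (hG.coneL.smul _ hc _ ht) (t l • d)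
    (by rw [← smul_add]; exact hG.coneL.smul _ hcd _ ht) (t l * y) hm' (t l • z)
  rw [Tn_smul, ← smul_add, ← smul_add, ← smul_add] at s
  rw [← sub_div, ← sub_div]
  congr 1
  linarith

/-- **THE COMPLETE OUTPUT** : `G` (first blow-up) separated on the window cone `LW`, monotone,
Lipschitz, supermodular on the cone `M ⊇ LW`; `lam` blow-up of `G` at the good point `Tn z` of the
record line, `lam2` blow-up of `lam` at `0`. -/
theorem recOut_of (hG : GeoH grp S D LW L ρ ρs) (hg : Sep grp LW G)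
    (hM : Cone M) (hLM : LW ⊆ M)
    (hm : ∀ c ∈ M, ∀ c' ∈ M, c ≤ c' → 0 ≤ G c - G c' ∧ G c - G c' ≤ ∑ i, (c' i - c i))
    (hs : ∀ p ∈ M, ∀ q ∈ M, p ⊓ q ∈ M → p ⊔ q ∈ M → G p + G q ≤ G (p ⊔ q) + G (p ⊓ q))
    {K : ℝ} (hK : 0 ≤ K) (hlip : ∀ p ∈ M, ∀ q ∈ M, |G p - G q| ≤ K * dist p q)
    (hsup : ∀ c ∈ L, ∀ d ∈ L, c ⊔ d ∈ L)
    (hnat : ∀ z, Tn a b z ∈ L) (hd : SDir grp a b n dh) (hSg : S ⊆ gset grp) (l : ℝ × ℝ)
    {z : ℝ × ℝ} (hz : Tn a b z ∈ LW)
    (hdiff : ∀ k ∈ S, DifferentiableAt ℝ (fnat grp LW G ρ a b n k) (lf (n k) z))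
    (hst : ∀ k ∈ S, StatK grp LW G ρ dh k (lf (n k) z))
    {h t : ℕ → ℝ} (H : BUp M M G (Tn a b z) h lam) (H2 : BUp M M lam 0 t lam2) :
    ∃ r : κ → ℝ, (∀ k, r k = -(deriv (fnat grp LW G ρ a b n k) (lf (n k) z))) ∧
      RecOut grp S LW L a b l dh n lam2 (phi grp LW lam2 ρ)
        (fun k => -(deriv (fnat grp LW lam ρ a b n k) 0)) ∧
      (∀ k ∈ S, -(deriv (fnat grp LW lam ρ a b n k) 0) = r k) := by
  obtain ⟨r, hr, hout⟩ := outH_of hG hg hM hLM hm hs hK hlip hnat hd hSg l hz hdiff H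
  have hlimG : ∀ c ∈ LW, Tendsto (fun l => (G (Tn a b z + h l • c) - G (Tn a b z)) / h l) atTop
      (𝓝 (lam c)) := fun c hc => H.lim c (hLM hc)
  have hgl : Sep grp LW lam := sep_tan hG.cone hg hz H.pos hlimG
  have hstl : ∀ k ∈ S, Stat grp L a b dh (phi grp LW lam ρ) k := fun k hk =>
    statH_of hG hg hnat hd hSg hk hz (hst k hk) H.pos H.zero hlimG
  -- properties of `lam` on `M`
  have hml := H.mono hm
  have hsl := H.smod (fun p hp q hq h1 h2 => hs p hp q hq h1 h2)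
  have hlipl := H.lip hlip
  -- natural functions of `lam`
  have hfn : ∀ k ∈ S, ∀ u : ℝ, fnat grp LW lam ρ a b n k u = -(r k) * u := by
    intro k hk u
    obtain ⟨i0, -, hi0⟩ := Finset.mem_image.1 (hSg hk)
    have hn : n k ≠ 0 := by rw [← hi0]; exact hd.ne i0
    have := hout.rate k hk _ (hnat (zz (n k) u)) u fun i hi => by
      rw [hd.Tn_eq, hi, lf_zz hn]
    unfold fnat
    rw [this]; ring
  have hder : ∀ k ∈ S, HasDerivAt (fnat grp LW lam ρ a b n k) (-(r k)) 0 := by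
    intro k hk
    have e : fnat grp LW lam ρ a b n k = fun u => -(r k) * u := funext (hfn k hk)
    rw [e]
    simpa using (hasDerivAt_id (0:ℝ)).const_mul (-(r k))
  have H2' : BUp M M lam (Tn a b 0) t lam2 := by rw [Tn_zero]; exact H2
  have hz0 : Tn a b (0 : ℝ × ℝ) ∈ LW := by rw [Tn_zero]; exact hG.cone.zero
  obtain ⟨r2, hr2, hout2⟩ := outH_of hG hgl hM hLM hml hsl hK hlipl hnat hd hSg l hz0
    (fun k hk => by rw [lf_zero]; exact (hder k hk).differentiableAt) H2'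
  have hlim2 : ∀ c ∈ LW, Tendsto (fun l => (lam ((0 : ι → ℝ) + t l • c) - lam 0) / t l) atTop
      (𝓝 (lam2 c)) := fun c hc => H2.lim c (hLM hc)
  have hst2 : ∀ k ∈ S, Stat grp L a b dh (phi grp LW lam2 ρ) k := fun k hk =>
    stat_zoom hG hgl hnat hk (hstl k hk) H2.pos hlim2
  have er2 : r2 = fun k => -(deriv (fnat grp LW lam ρ a b n k) 0) := by
    funext k; rw [hr2 k, lf_zero]
  rw [er2] at hout2
  refine ⟨r, hr, ⟨hout2, hst2, ?_, ?_⟩, fun k hk => by rw [(hder k hk).deriv, neg_neg]⟩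
  · intro k hk hpos z' c hc
    exact (hout2.gf hG.coneL hsup hnat hd hSg hk (hst2 k hk) hpos).add z' hc
  · intro k hk hpos c hc s hs'
    have hgf := hout.gf hG.coneL hsup hnat hd hSg hk (hstl k hk) hpos
    refine hgf.hom_of H2.pos H2.zero (fun q hq => ?_) c hc s hs'
    refine (phi_tan hG hgl hk hG.cone.zero H2.pos hlim2 (hG.cy hk hq)).congr fun l' => ?_
    rw [zero_add, phi_zero k (c := 0) (fun i _ => rfl), sub_zero]

end

section

variable {grp : ι → κ} {S : Finset κ} {LW L : Set (ι → ℝ)} {lam : (ι → ℝ) → ℝ}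
  {a b : ι → ℝ} {n : κ → ℝ × ℝ} {dh : ι → ℝ} {l : ℝ × ℝ}
  {φ : κ → (ι → ℝ) → ℝ} {r : κ → ℝ}

/-- **windows** : increments from a natural position of the closed half plane -/
theorem RecOut.win (H : RecOut grp S LW L a b l dh n lam φ r) (hnat : ∀ z, Tn a b z ∈ L)
    (hpos : ∀ i, grp i ∈ S → 0 < dh i) {w : ℝ × ℝ} {c : ι → ℝ} (hw : Tn a b w ∈ LW)
    (hc : c ∈ L) (hwc : Tn a b w + c ∈ LW) (hcp : ∀ i, grp i ∉ S → c i = 0) :
    lam (Tn a b w + c) - lam (Tn a b w) = ∑ k ∈ S, φ k c := by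
  rw [H.split _ hw _ hwc (fun i hi => by rw [Pi.add_apply, hcp i hi, add_zero])]
  refine Finset.sum_congr rfl fun k hk => ?_
  rw [H.add k hk (fun i hi => hpos i (by rw [hi]; exact hk)) w c hc]
  ring

/-- natural plane -/
theorem RecOut.nat (H : RecOut grp S LW L a b l dh n lam φ r) (hnat : ∀ z, Tn a b z ∈ L)
    (hd : SDir grp a b n dh) {w w' : ℝ × ℝ} (hw : Tn a b w ∈ LW) (hw' : Tn a b w' ∈ LW)
    (hww : ∀ i, grp i ∉ S → Tn a b w' i = Tn a b w i) :
    lam (Tn a b w') - lam (Tn a b w) = -∑ k ∈ S, r k * (lf (n k) w' - lf (n k) w) := by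
  rw [H.split _ hw _ hw' hww, ← Finset.sum_neg_distrib]
  refine Finset.sum_congr rfl fun k hk => ?_
  rw [H.rate k hk _ (hnat w) (lf (n k) w) (fun i hi => by rw [hd.Tn_eq, hi]),
    H.rate k hk _ (hnat w') (lf (n k) w') (fun i hi => by rw [hd.Tn_eq, hi])]
  ring

/-- if no group is parallel to the record line -/
theorem RecOut.full (H : RecOut grp S LW L a b l dh n lam φ r) (hall : ∀ i, grp i ∈ S)
    (h0 : (0 : ι → ℝ) ∈ LW) (hl0 : lam 0 = 0) {c : ι → ℝ} (hc : c ∈ LW) :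
    lam c = ∑ k ∈ S, φ k c := by
  have h1 := H.split 0 h0 c hc (fun i hi => absurd (hall i) hi)
  rw [hl0, sub_zero] at h1
  rw [h1]
  refine Finset.sum_congr rfl fun k _ => ?_
  rw [H.zero k 0 (fun i _ => rfl), sub_zero]

end

end Crest.Agent.R136.Rc146
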