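import Crest.Agent.R136.Rc6_146
import Crest.Agent.R136.Rbw3_219

/-!
# R136: the complete output at interior points (helper146)

`leg_rec` : `ν` as in 219's `leg_outS`. At almost every point `z` of the natural plane, along every
sequence of scales there are tangents of `ν` at base points `X (z + s l • z1) → X z` of the plane
with `Rc146.RecOut` for ALL groups on the WHOLE wall cone: decoupled, additive with respect to the
natural plane and positively homogeneous (groups with positive `dh`), rates `Σ_k r k * n k = - D`.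
-/

set_option autoImplicit false
set_option linter.unusedSectionVars false
set_option linter.unusedVariables false

open Set Filter Topology Metric MeasureTheory

namespace Crest.Agent.R136.Rc146

open Dg219
open Dg262 (X X_cont SupOn)
open Net191 (Mons Legal Leg)
open Crest.Agent.R138

variable {ι κ : Type*} [Fintype ι] [DecidableEq ι] [DecidableEq κ]

/-- the whole cone as a window cone -/
theorem geoI {grp : ι → κ} {D L : Set (ι → ℝ)} {ρ : κ → ι → ℝ} {ρs : ι → ℝ}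
    (hG : Geo grp D L ρ ρs) : GeoH grp (gset grp) D L L ρ ρs where
  coneL := hG.cone
  cone := hG.cone
  subL := subset_rfl
  off := fun k _ => hG.room.off k
  mem := fun k _ => hG.room.mem k
  ex := fun k _ => hG.room.ex k
  opn := hG.opn
  conv := hG.conv
  sub := hG.sub
  inn := hG.inn

/-- a direction outside finitely many lines -/
theorem exists_gen (S : Finset κ) (n : κ → ℝ × ℝ) (hn : ∀ k ∈ S, n k ≠ 0) :
    ∃ z1 : ℝ × ℝ, ∀ k ∈ S, lf (n k) z1 ≠ 0 := by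
  classical
  set B : Finset ℝ := S.image (fun k => -((n k).1 / (n k).2)) with hB
  obtain ⟨x, hx⟩ := Infinite.exists_notMem_finset B
  refine ⟨(1, x), fun k hk h => ?_⟩
  simp only [lf, mul_one] at h
  by_cases h2 : (n k).2 = 0
  · rw [h2, zero_mul, add_zero] at h
    exact hn k hk (Prod.ext h h2)
  · apply hx
    refine Finset.mem_image.2 ⟨k, hk, ?_⟩
    field_simp
    linarith

section

variable {grp : ι → κ} {L : Set (ι → ℝ)} {dh : ι → ℝ} {n : κ → ℝ × ℝ} {lam : (ι → ℝ) → ℝ}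
  {A : ℝ × ℝ} {φ : κ → (ι → ℝ) → ℝ} {r : κ → ℝ}

theorem sum_loc_sep (hsum : ∀ c ∈ L, lam c = ∑ k ∈ gset grp, φ k c)
    (hloc : ∀ k c c', (∀ i, grp i = k → c i = c' i) → φ k c = φ k c') : Sep grp L lam := by
  intro k c d e' hd he h1 h2 h3 h4
  rw [hsum _ h1, hsum _ h2, hsum _ h3, hsum _ h4, ← Finset.sum_add_distrib,
    ← Finset.sum_add_distrib]
  refine Finset.sum_congr rfl fun j _ => ?_
  by_cases hj : j = k
  · have e1 : φ j (c + d + e') = φ j (c + d) := hloc j _ _ fun i hi => by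
      rw [Pi.add_apply, he i (by rw [hi, hj]), add_zero]
    have e2 : φ j (c + e') = φ j c := hloc j _ _ fun i hi => by
      rw [Pi.add_apply, he i (by rw [hi, hj]), add_zero]
    rw [e1, e2]
  · have e1 : φ j (c + d + e') = φ j (c + e') := hloc j _ _ fun i hi => by
      rw [Pi.add_apply, Pi.add_apply, Pi.add_apply, hd i (by rw [hi]; exact hj), add_zero]
    have e2 : φ j (c + d) = φ j c := hloc j _ _ fun i hi => by
      rw [Pi.add_apply, hd i (by rw [hi]; exact hj), add_zero]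
    rw [e1, e2]; ring

/-- the group functions are unique -/
theorem phi_uniq {D : Set (ι → ℝ)} {ρ : κ → ι → ℝ} {ρs : ι → ℝ} (hG : Geo grp D L ρ ρs)
    (hsum : ∀ c ∈ L, lam c = ∑ k ∈ gset grp, φ k c)
    (hloc : ∀ k c c', (∀ i, grp i = k → c i = c' i) → φ k c = φ k c')
    (hzero : ∀ k c, (∀ i, grp i = k → c i = 0) → φ k c = 0) {k : κ} (hk : k ∈ gset grp)
    {c : ι → ℝ} (hc : c ∈ L) : phi grp L lam ρ k c = φ k c := by
  have hg := sum_loc_sep hsum hloc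
  obtain ⟨R, hR, h1⟩ := hG.room.ex k c hc
  rw [phi_eqH (geoI hG) hg hk hR h1]
  have h2 : R • ρ k ∈ L := hG.cone.smul _ (hG.room.mem k) _ hR
  rw [hsum _ h1, hsum _ h2, ← Finset.sum_sub_distrib, Finset.sum_eq_single k]
  · have e1 : φ k (pr grp k c + R • ρ k) = φ k c := hloc k _ _ fun i hi => by
      rw [Pi.add_apply, pr_in k _ hi, Pi.smul_apply, hG.room.off k i hi, smul_zero, add_zero]
    have e2 : φ k (R • ρ k) = 0 := hzero k _ fun i hi => by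
      rw [Pi.smul_apply, hG.room.off k i hi, smul_zero]
    rw [e1, e2, sub_zero]
  · intro j _ hj
    have e1 : φ j (pr grp k c + R • ρ k) = φ j (R • ρ k) := hloc j _ _ fun i hi => by
      rw [Pi.add_apply, pr_off k _ (by rw [hi]; exact hj), zero_add]
    rw [e1, sub_self]
  · intro h; exact absurd hk h

end

variable {m : ℕ}

theorem mwL_sup (M : Mons m) (x0 a b : Fin m → ℝ) :
    ∀ c ∈ (mw M).L x0 a b, ∀ d ∈ (mw M).L x0 a b, c ⊔ d ∈ (mw M).L x0 a b := by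
  intro c hc d hd w hw
  rw [Pi.sup_apply]
  exact sup_le ((hc w hw).trans (Walls.rhs_mono w le_sup_left))
    ((hd w hw).trans (Walls.rhs_mono w le_sup_right))

/-- **complete output at interior points** -/
theorem leg_rec (M : Mons m) {R : ℝ} {ν : (Fin m → ℝ) → ℝ} {K : ℝ} (hK : 0 ≤ K)
    (hν : ∀ p ∈ Leg M R, ∀ q ∈ Leg M R, |ν p - ν q| ≤ K * ‖p - q‖)
    (hm : ∀ p ∈ Leg M R, ∀ q ∈ Leg M R, p ≤ q → ν q ≤ ν p ∧ ν p - ν q ≤ ∑ i, (q i - p i))
    (hs : ∀ p ∈ Leg M R, ∀ q ∈ Leg M R, p ⊓ q ∈ Leg M R → ν p + ν q ≤ ν (p ⊔ q) + ν (p ⊓ q))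
    {x0 a b : Fin m → ℝ} {g : Fin m → ℕ} {wv : ℕ → ℝ × ℝ} (hGr : Dg262.Grp a b g wv)
    {grp : Fin m → κ} (hgg : ∀ i j, g i = g j ↔ grp i = grp j)
    {n : κ → ℝ × ℝ} {dh : Fin m → ℝ} (hd : DirS grp a b n dh) :
    ∀ᵐ z : ℝ × ℝ, z ∈ (mw M).O (fun _ => 0) (fun _ => R) x0 a b → ∃ D : ℝ × ℝ →L[ℝ] ℝ,
      HasFDerivAt (fun z => ν (X x0 a b z)) D z ∧
      ∀ (h : ℕ → ℝ), (∀ l, 0 < h l) → Tendsto h atTop (𝓝 0) →
        ∃ (z1 : ℝ × ℝ) (s h' : ℕ → ℝ) (ψ : ℕ → ℕ) (lam : (Fin m → ℝ) → ℝ)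
          (φ : κ → (Fin m → ℝ) → ℝ) (r : κ → ℝ),
          Tendsto ψ atTop atTop ∧ (∀ l, s l = h (ψ l)) ∧ (∀ l, 0 < h' l) ∧
          (∀ l, h' l ≤ h (ψ l)) ∧ Tendsto h' atTop (𝓝 0) ∧
          Ex926.IsTan (Leg M R) ((mw M).L x0 a b) ν (fun l => X x0 a b (z + s l • z1)) h' lam ∧
          RecOut grp (gset grp) ((mw M).L x0 a b) ((mw M).L x0 a b) a b 0 dh n lam φ r ∧
          lam 0 = 0 ∧
          ∀ z' : ℝ × ℝ, lf (D (1, 0), D (0, 1)) z' = -∑ k ∈ gset grp, r k * lf (n k) z' := by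
  filter_upwards [leg_outS M hK hν hm hs hGr hgg hd] with z hz hzO
  obtain ⟨D, hD, H⟩ := hz hzO
  refine ⟨D, hD, fun h hpos h0 => ?_⟩
  set L := (mw M).L x0 a b with hL
  have hgeo : Geo grp ((mw M).D x0 a b) L ((mw M).rm grp) (mw M).rs :=
    Walls.geoG hGr (mw_full M x0 a b) hgg
  have hGI := geoI hgeo
  have hcone : Cone L := hgeo.cone
  have hnat : ∀ z, Tn a b z ∈ L := fun z => Walls.Tn_mem z
  have hd' : SDir grp a b n dh := ⟨hd.fst, hd.snd, hd.ne, hd.det⟩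
  -- first tangent
  obtain ⟨ψ0, hψ0, g0, ht0⟩ := leg_tan M hK hν hzO hpos h0
  have hpos0 : ∀ l, 0 < h (ψ0 l) := fun l => hpos _
  have hz0 : Tendsto (fun l => h (ψ0 l)) atTop (𝓝 0) := h0.comp hψ0.tendsto_atTop
  obtain ⟨φ0, r0, hout⟩ := H _ hpos0 hz0 g0 ht0
  have B0 : BUp (Leg M R) L ν (X x0 a b z) (fun l => h (ψ0 l)) g0 := bup_of_tan hpos0 hz0 ht0
  have hν' : ∀ p ∈ Leg M R, ∀ q ∈ Leg M R, |ν p - ν q| ≤ K * dist p q := fun p hp q hq => by
    rw [dist_eq_norm]; exact hν p hp q hq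
  have hlipOn : LipschitzOnWith ⟨K, hK⟩ g0 L := LipschitzOnWith.of_dist_le_mul fun p hp q hq => by
    rw [Real.dist_eq]; exact B0.lip hν' p hp q hq
  obtain ⟨G, hG, heG⟩ := hlipOn.extend_real
  have hlipG : ∀ p ∈ L, ∀ q ∈ L, |G p - G q| ≤ K * dist p q := fun p _ q _ => by
    rw [← Real.dist_eq]; exact hG.dist_le_mul p q
  have hm' : ∀ p ∈ Leg M R, ∀ q ∈ Leg M R, p ≤ q → 0 ≤ ν p - ν q ∧ ν p - ν q ≤ ∑ i, (q i - p i) :=
    fun p hp q hq hpq => ⟨by linarith [(hm p hp q hq hpq).1], (hm p hp q hq hpq).2⟩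
  have hmG : ∀ c ∈ L, ∀ c' ∈ L, c ≤ c' → 0 ≤ G c - G c' ∧ G c - G c' ≤ ∑ i, (c' i - c i) := by
    intro c hc c' hc' hcc
    rw [← heG hc, ← heG hc']; exact B0.mono hm' c hc c' hc' hcc
  have hsG : ∀ p ∈ L, ∀ q ∈ L, p ⊓ q ∈ L → p ⊔ q ∈ L → G p + G q ≤ G (p ⊔ q) + G (p ⊓ q) := by
    intro p hp q hq h1 h2
    rw [← heG hp, ← heG hq, ← heG h1, ← heG h2]
    exact B0.smod (fun p hp q hq h1 _ => hs p hp q hq h1) p hp q hq h1 h2
  have hsumG : ∀ c ∈ L, G c = ∑ k ∈ gset grp, φ0 k c := fun c hc => by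
    rw [← heG hc]; exact hout.sum c hc
  have hsepG : Sep grp L G := sum_loc_sep hsumG hout.loc
  -- natural functions of `G` are linear
  have hfn : ∀ k ∈ gset grp, ∀ u : ℝ, fnat grp L G ((mw M).rm grp) a b n k u = -(r0 k) * u := by
    intro k hk u
    obtain ⟨i0, -, hi0⟩ := Finset.mem_image.1 hk
    have hn : n k ≠ 0 := by rw [← hi0]; exact hd.ne i0
    unfold fnat
    rw [phi_uniq hgeo hsumG hout.loc hout.zero hk (hnat _),
      hout.rate k _ (hnat _) u fun i hi => by rw [hd.Tn_eq, hi, lf_zz hn]]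
    ring
  have hder : ∀ k ∈ gset grp, ∀ u : ℝ,
      HasDerivAt (fnat grp L G ((mw M).rm grp) a b n k) (-(r0 k)) u := by
    intro k hk u
    have e : fnat grp L G ((mw M).rm grp) a b n k = fun u => -(r0 k) * u := funext (hfn k hk)
    rw [e]
    simpa using (hasDerivAt_id u).const_mul (-(r0 k))
  -- a stationary point
  obtain ⟨z1, hz1⟩ := exists_gen (gset grp) n fun k hk => by
    obtain ⟨i0, -, hi0⟩ := Finset.mem_image.1 hk
    rw [← hi0]; exact hd.ne i0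
  obtain ⟨σ, hσ⟩ := (ae_statH hGI hsepG hK hlipG hsG hnat hd' subset_rfl hz1).exists
  set y := Tn a b (σ • z1) with hy
  have hyL : y ∈ L := hnat _
  have hlf : ∀ k, lf (n k) (σ • z1) = σ * lf (n k) z1 := fun k => lf_smul _ _ _
  -- second tangent
  have hk1 : ∀ j : ℕ, (0:ℝ) < 1 / ((j : ℝ) + 1) := fun j => by positivity
  have hk10 : Tendsto (fun j : ℕ => (1:ℝ) / ((j : ℝ) + 1)) atTop (𝓝 0) :=
    tendsto_one_div_add_atTop_nhds_zero_nat
  have hLc : IsClosed L := Walls.isClosed_L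
  obtain ⟨ψ1, hψ1, lam1, ht1⟩ := AeT501.exists_tangent (P := L) (D := L) hLc (ν := G) hK
    (fun p hp q hq => by rw [← dist_eq_norm]; exact hlipG p hp q hq) (X := y)
    (fun C => ⟨1, one_pos, fun t ht _ c hc _ => hcone.add _ hyL _ (hcone.smul _ hc _ ht.le)⟩)
    hk1 hk10 hcone.zero
  have hk1' : ∀ j, (0:ℝ) < 1 / ((ψ1 j : ℝ) + 1) := fun j => hk1 _
  have hk10' : Tendsto (fun j : ℕ => (1:ℝ) / ((ψ1 j : ℝ) + 1)) atTop (𝓝 0) :=
    hk10.comp hψ1.tendsto_atTop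
  have B1 : BUp L L G y (fun j => 1 / ((ψ1 j : ℝ) + 1)) lam1 := bup_of_tan hk1' hk10' ht1
  have hlip1 := B1.lip hlipG
  -- third tangent
  obtain ⟨ψ2, hψ2, lam2, ht2⟩ := AeT501.exists_tangent (P := L) (D := L) hLc (ν := lam1) hK
    (fun p hp q hq => by rw [← dist_eq_norm]; exact hlip1 p hp q hq) (X := 0)
    (fun C => ⟨1, one_pos, fun t ht _ c hc _ => by
      rw [zero_add]; exact hcone.smul _ hc _ ht.le⟩)
    hk1 hk10 hcone.zero
  have hk2' : ∀ j, (0:ℝ) < 1 / ((ψ2 j : ℝ) + 1) := fun j => hk1 _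
  have hk20' : Tendsto (fun j : ℕ => (1:ℝ) / ((ψ2 j : ℝ) + 1)) atTop (𝓝 0) :=
    hk10.comp hψ2.tendsto_atTop
  have B2 : BUp L L lam1 0 (fun j => 1 / ((ψ2 j : ℝ) + 1)) lam2 := bup_of_tan hk2' hk20' ht2
  obtain ⟨r, hr, hrec, hrr⟩ := recOut_of hGI hsepG hcone subset_rfl hmG hsG hK hlipG
    (mwL_sup M x0 a b) hnat hd' subset_rfl 0 (z := σ • z1) hyL
    (fun k hk => (hder k hk _).differentiableAt) (fun k hk => by rw [hlf]; exact hσ k hk) B1 B2
  have hr0 : ∀ k ∈ gset grp, r k = r0 k := fun k hk => by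
    rw [hr k, (hder k hk _).deriv, neg_neg]
  -- the diagonals
  have ht0' : Ex926.IsTan (Leg M R) L ν (fun _ => X x0 a b z) (fun l => h (ψ0 l)) G :=
    tan_congr ht0 fun c hc => (heG hc).symm
  obtain ⟨θ1, hθ1, hd1⟩ := tan_diag hpos0 hk1' hyL
    (fun c hc t ht => hcone.add _ hyL _ (hcone.smul _ hc _ ht)) ht0' ht1
  have hp1 : ∀ j, 0 < h (ψ0 (θ1 j)) * (1 / ((ψ1 j : ℝ) + 1)) := fun j =>
    mul_pos (hpos _) (hk1' j)
  obtain ⟨θ2, hθ2, hd2⟩ := tan_diag hp1 hk2' hcone.zero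
    (fun c hc t ht => by rw [zero_add]; exact hcone.smul _ hc _ ht) hd1 ht2
  have hθ1t : Tendsto θ1 atTop atTop := tendsto_atTop_mono hθ1 tendsto_id
  have hθ2t : Tendsto θ2 atTop atTop := tendsto_atTop_mono hθ2 tendsto_id
  have hψt : Tendsto (fun j => ψ0 (θ1 (θ2 j))) atTop atTop :=
    hψ0.tendsto_atTop.comp (hθ1t.comp hθ2t)
  have hle1 : ∀ j : ℕ, (1:ℝ) / ((j : ℝ) + 1) ≤ 1 := fun j => by
    rw [div_le_one (by positivity)]
    have : (0:ℝ) ≤ j := Nat.cast_nonneg j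
    linarith
  have hle : ∀ j, h (ψ0 (θ1 (θ2 j))) * (1 / ((ψ1 (θ2 j) : ℝ) + 1)) * (1 / ((ψ2 j : ℝ) + 1)) ≤
      h (ψ0 (θ1 (θ2 j))) := by
    intro j
    have a1 := hle1 (ψ1 (θ2 j))
    have a2 := hle1 (ψ2 j)
    have a3 := hpos (ψ0 (θ1 (θ2 j)))
    have a4 := hk1 (ψ1 (θ2 j))
    calc h (ψ0 (θ1 (θ2 j))) * (1 / ((ψ1 (θ2 j) : ℝ) + 1)) * (1 / ((ψ2 j : ℝ) + 1))
        ≤ h (ψ0 (θ1 (θ2 j))) * (1 / ((ψ1 (θ2 j) : ℝ) + 1)) * 1 :=
          mul_le_mul_of_nonneg_left a2 (mul_pos a3 a4).le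
      _ ≤ h (ψ0 (θ1 (θ2 j))) * 1 * 1 := by
          rw [mul_one, mul_one, mul_one]
          exact mul_le_of_le_one_right a3.le a1
      _ = h (ψ0 (θ1 (θ2 j))) := by ring
  have hpos3 : ∀ j, 0 < h (ψ0 (θ1 (θ2 j))) * (1 / ((ψ1 (θ2 j) : ℝ) + 1)) *
      (1 / ((ψ2 j : ℝ) + 1)) := fun j => mul_pos (hp1 _) (hk2' j)
  refine ⟨σ • z1, fun j => h (ψ0 (θ1 (θ2 j))), fun j => h (ψ0 (θ1 (θ2 j))) *
    (1 / ((ψ1 (θ2 j) : ℝ) + 1)) * (1 / ((ψ2 j : ℝ) + 1)), fun j => ψ0 (θ1 (θ2 j)), lam2, _, _,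
    hψt, fun _ => rfl, hpos3, hle, ?_, ?_, hrec, B2.lam0 hcone.zero, ?_⟩
  · exact squeeze_zero (fun j => (hpos3 j).le) hle (h0.comp hψt)
  · have e : (fun l => X x0 a b (z + h (ψ0 (θ1 (θ2 l))) • σ • z1)) =
        fun m_1 => X x0 a b z + h (ψ0 (θ1 (θ2 m_1))) • y +
          (h (ψ0 (θ1 (θ2 m_1))) * (1 / ((ψ1 (θ2 m_1) : ℝ) + 1))) • (0 : Fin m → ℝ) := by
      funext j
      rw [X_add, smul_zero, add_zero]
    simp only [e]
    exact hd2
  · intro z'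
    rw [hout.total z']
    congr 1
    refine Finset.sum_congr rfl fun k hk => ?_
    rw [hrr k hk, hr0 k hk]

end Crest.Agent.R136.Rc146
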