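import Mathlib

/-!
# R136 (one-level crude tilt), helper705: rows

`Sys f J`: functions `f 0, f 1, ..` on the interval `J` with `f k' = f (k+1) / θ`, `θ ∈ [1/2, 2]`, and
`|f 5| ≤ 25 |f 3| + 100 |f 1|`.  `gron`: the values at one point control the values at all points;
`pts`: sixteen separated points with small `f 0` in a short interval bound everything.
-/

set_option autoImplicit false
set_option linter.unusedVariables false

namespace Crest.Agent.R136.Sa705

open Set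

/-- a chain of derivatives with a closing relation -/
structure Sys (f : ℕ → ℝ → ℝ) (J : Set ℝ) : Prop where
  der : ∀ k, k ≤ 4 → ∀ t ∈ J, ∃ θ : ℝ, 1 / 2 ≤ θ ∧ θ ≤ 2 ∧ HasDerivWithinAt (f k) (f (k + 1) t / θ) J t
  top : ∀ t ∈ J, |f 5 t| ≤ 25 * |f 3 t| + 100 * |f 1 t|

theorem Sys.mono {f : ℕ → ℝ → ℝ} {J J' : Set ℝ} (h : Sys f J) (hJ : J' ⊆ J) : Sys f J' where
  der := by
    intro k hk t ht
    obtain ⟨θ, h1, h2, h3⟩ := h.der k hk t (hJ ht)
    exact ⟨θ, h1, h2, h3.mono hJ⟩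
  top := fun t ht => h.top t (hJ ht)

/-- reflection -/
theorem Sys.neg {f : ℕ → ℝ → ℝ} {α β : ℝ} (h : Sys f (Icc α β)) :
    Sys (fun k t => (-1) ^ k * f k (-t)) (Icc (-β) (-α)) where
  der := by
    intro k hk t ht
    have ht' : -t ∈ Icc α β := ⟨by linarith [ht.2], by linarith [ht.1]⟩
    obtain ⟨θ, h1, h2, h3⟩ := h.der k hk (-t) ht'
    refine ⟨θ, h1, h2, ?_⟩
    have hn : HasDerivWithinAt (fun s : ℝ => -s) (-1) (Icc (-β) (-α)) t :=
      (hasDerivAt_id t).neg.hasDerivWithinAt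
    have h4 := h3.comp t hn (fun s hs => (⟨by linarith [hs.2], by linarith [hs.1]⟩ : -s ∈ Icc α β))
    have h5 := h4.const_mul ((-1 : ℝ) ^ k)
    refine h5.congr_deriv ?_
    simp only [pow_succ]
    ring
  top := by
    intro t ht
    have ht' : -t ∈ Icc α β := ⟨by linarith [ht.2], by linarith [ht.1]⟩
    have := h.top (-t) ht'
    simp only [abs_mul, abs_pow, abs_neg, abs_one, one_pow, one_mul]
    exact this

/-- size of the derivatives -/
theorem Sys.next {f : ℕ → ℝ → ℝ} {J : Set ℝ} (h : Sys f J) {t B : ℝ} (ht : t ∈ J)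
    (hB : ∀ k, k ≤ 4 → |f k t| ≤ B) {k : ℕ} (hk : k ≤ 4) : |f (k + 1) t| ≤ 125 * B := by
  have hB0 : 0 ≤ B := (abs_nonneg _).trans (hB 0 (by norm_num))
  rcases Nat.lt_or_ge k 4 with h4 | h4
  · have := hB (k + 1) h4
    linarith
  · have e : k = 4 := le_antisymm hk h4
    subst e
    have h1 := h.top t ht
    have h2 := hB 3 (by norm_num)
    have h3 := hB 1 (by norm_num)
    have e5 : (4 + 1 : ℕ) = 5 := rfl
    rw [e5]
    linarith

theorem gron_right {f : ℕ → ℝ → ℝ} {α β B : ℝ} (h : Sys f (Icc α β)) {s t : ℝ}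
    (hs : s ∈ Icc α β) (ht : t ∈ Icc α β) (hst : s ≤ t) (hB : ∀ k, k ≤ 4 → |f k s| ≤ B) :
    ∀ k, k ≤ 4 → |f k t| ≤ Real.exp (250 * (t - s)) * B := by
  have hB0 : 0 ≤ B := (abs_nonneg _).trans (hB 0 (by norm_num))
  have hsub : Icc s β ⊆ Icc α β := Icc_subset_Icc_left hs.1
  have h' := h.mono hsub
  choose! θ hθ1 hθ2 hθ3 using h'.der
  set u : ℝ → Fin 5 → ℝ := fun x k => f k x with hu
  set u' : ℝ → Fin 5 → ℝ := fun x k => f (k + 1) x / θ k x with hu'
  have hder : ∀ x ∈ Icc s β, HasDerivWithinAt u (u' x) (Icc s β) x := by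
    intro x hx
    rw [hasDerivWithinAt_pi]
    intro k
    exact hθ3 k (by omega) x hx
  have key := norm_le_gronwallBound_of_norm_deriv_right_le (f := u) (f' := u') (δ := B) (K := 250)
    (ε := 0) (a := s) (b := β) (fun x hx => (hder x hx).continuousWithinAt)
    (fun x hx => by
      have hx' : x ∈ Icc s β := Ico_subset_Icc_self hx
      refine (hder x hx').mono_of_mem_nhdsWithin ?_
      rw [mem_nhdsWithin]
      exact ⟨Iio β, isOpen_Iio, hx.2, fun y hy => ⟨hx.1.trans hy.2, (mem_Iio.1 hy.1).le⟩⟩)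
    ((pi_norm_le_iff_of_nonneg hB0).2 fun k => by
      rw [Real.norm_eq_abs]; exact hB k (by omega))
    (fun x hx => by
      have hx' : x ∈ Icc s β := Ico_subset_Icc_self hx
      rw [add_zero]
      refine (pi_norm_le_iff_of_nonneg (by positivity)).2 fun k => ?_
      have hn : ∀ j, j ≤ 4 → |f j x| ≤ ‖u x‖ := by
        intro j hj
        have := norm_le_pi_norm (u x) (⟨j, by omega⟩ : Fin 5)
        rw [Real.norm_eq_abs] at this
        exact this
      have h1 := h'.next hx' hn (k := k) (by omega)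
      have h2 := hθ1 k (by omega) x hx'
      rw [Real.norm_eq_abs]
      change |f (k + 1) x / θ k x| ≤ _
      rw [abs_div, abs_of_pos (by linarith : 0 < θ k x), div_le_iff₀ (by linarith)]
      have h3 : 0 ≤ ‖u x‖ := norm_nonneg _
      nlinarith)
  intro k hk
  have h1 := key t ⟨hst, ht.2⟩
  rw [gronwallBound_ε0] at h1
  have h2 := norm_le_pi_norm (u t) (⟨k, by omega⟩ : Fin 5)
  rw [Real.norm_eq_abs] at h2
  have h3 : |f k t| ≤ ‖u t‖ := h2
  rw [mul_comm] at h1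
  exact h3.trans h1

/-- **the values at one point control the values at all points** -/
theorem gron {f : ℕ → ℝ → ℝ} {α β B : ℝ} (h : Sys f (Icc α β)) {s t : ℝ} (hs : s ∈ Icc α β)
    (ht : t ∈ Icc α β) (hB : ∀ k, k ≤ 4 → |f k s| ≤ B) :
    ∀ k, k ≤ 4 → |f k t| ≤ Real.exp (250 * |t - s|) * B := by
  rcases le_total s t with hst | hst
  · rw [abs_of_nonneg (by linarith)]; exact gron_right h hs ht hst hB
  · rw [abs_of_nonpos (by linarith)]
    have hs' : -s ∈ Icc (-β) (-α) := ⟨by linarith [hs.2], by linarith [hs.1]⟩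
    have ht' : -t ∈ Icc (-β) (-α) := ⟨by linarith [ht.2], by linarith [ht.1]⟩
    have := gron_right h.neg hs' ht' (by linarith) (B := B) (fun k hk => by
      simp only [abs_mul, abs_pow, abs_neg, abs_one, one_pow, one_mul, neg_neg]
      exact hB k hk)
    intro k hk
    have h1 := this k hk
    simp only [abs_mul, abs_pow, abs_neg, abs_one, one_pow, one_mul, neg_neg] at h1
    have e : -(t - s) = -t - -s := by ring
    rw [e]; exact h1

/-- one step of the mean value theorem on separated points -/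
theorem rolle {f : ℕ → ℝ → ℝ} {α β : ℝ} (h : Sys f (Icc α β)) {k m : ℕ} (hk : k ≤ 4) {δ μ : ℝ}
    (hδ : 0 < δ) {t : ℕ → ℝ} (ht : ∀ i < 2 * m, t i ∈ Icc α β)
    (hsep : ∀ i, i + 1 < 2 * m → t i + δ ≤ t (i + 1)) (hf : ∀ i < 2 * m, |f k (t i)| ≤ μ) :
    ∃ s : ℕ → ℝ, (∀ i < m, s i ∈ Icc α β) ∧ (∀ i, i + 1 < m → s i + δ ≤ s (i + 1)) ∧
      ∀ i < m, |f (k + 1) (s i)| ≤ 4 * μ / δ := by
  have key : ∀ i, i < m → ∃ s : ℝ, t (2 * i) ≤ s ∧ s ≤ t (2 * i + 1) ∧ |f (k + 1) s| ≤ 4 * μ / δ := by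
    intro i hi
    have h1 := hsep (2 * i) (by omega)
    have a1 := ht (2 * i) (by omega)
    have a2 := ht (2 * i + 1) (by omega)
    have hlt : t (2 * i) < t (2 * i + 1) := by linarith
    have hsub : Icc (t (2 * i)) (t (2 * i + 1)) ⊆ Icc α β := Icc_subset_Icc a1.1 a2.2
    choose! θ hθ1 hθ2 hθ3 using h.der
    have hcont : ContinuousOn (f k) (Icc (t (2 * i)) (t (2 * i + 1))) := fun x hx =>
      ((hθ3 k hk x (hsub hx)).continuousWithinAt).mono hsub
    obtain ⟨s, hs, hs'⟩ := exists_hasDerivAt_eq_slope (f k) (fun x => f (k + 1) x / θ k x) hlt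
      hcont (fun x hx => (hθ3 k hk x (hsub (Ioo_subset_Icc_self hx))).hasDerivAt
        (Icc_mem_nhds (lt_of_le_of_lt a1.1 hx.1) (lt_of_lt_of_le hx.2 a2.2)))
    have hsI : s ∈ Icc α β := hsub (Ioo_subset_Icc_self hs)
    refine ⟨s, hs.1.le, hs.2.le, ?_⟩
    have b1 := hf (2 * i) (by omega)
    have b2 := hf (2 * i + 1) (by omega)
    have hθp : 0 < θ k s := by linarith [hθ1 k hk s hsI]
    have hd : 0 < t (2 * i + 1) - t (2 * i) := by linarith
    have h2 : |f (k + 1) s / θ k s| * (t (2 * i + 1) - t (2 * i)) ≤ 2 * μ := by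
      rw [hs', abs_div, abs_of_pos hd, div_mul_cancel₀ _ hd.ne']
      exact (abs_sub _ _).trans (by linarith)
    have h3 : |f (k + 1) s / θ k s| * δ ≤ 2 * μ :=
      (mul_le_mul_of_nonneg_left (by linarith) (abs_nonneg _)).trans h2
    rw [abs_div, abs_of_pos hθp, div_mul_eq_mul_div, div_le_iff₀ hθp] at h3
    rw [le_div_iff₀ hδ]
    have h4 : 0 ≤ μ := (abs_nonneg _).trans b1
    have h5 := hθ2 k hk s hsI
    nlinarith
  choose! s hs using key
  refine ⟨s, fun i hi => ?_, fun i hi => ?_, fun i hi => (hs i hi).2.2⟩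
  · obtain ⟨h1, h2, -⟩ := hs i hi
    exact ⟨(ht (2 * i) (by omega)).1.trans h1, h2.trans (ht (2 * i + 1) (by omega)).2⟩
  · have h1 := (hs i (by omega)).2.1
    have h2 := (hs (i + 1) hi).1
    have h3 := hsep (2 * i + 1) (by omega)
    have e : 2 * (i + 1) = 2 * i + 1 + 1 := by ring
    rw [e] at h2
    linarith

/-- **sixteen points** -/
theorem pts {f : ℕ → ℝ → ℝ} {α β : ℝ} (h : Sys f (Icc α β)) (hL : β - α ≤ 1 / 2000) {δ lam : ℝ}
    (hδ : 0 < δ) (hδ1 : δ ≤ 1) {t : ℕ → ℝ} (ht : ∀ i < 16, t i ∈ Icc α β)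
    (hsep : ∀ i, i + 1 < 16 → t i + δ ≤ t (i + 1)) (hf : ∀ i < 16, |f 0 (t i)| ≤ lam) {x : ℝ}
    (hx : x ∈ Icc α β) : ∀ k, k ≤ 4 → |f k x| ≤ 512 * lam / δ ^ 4 := by
  have hl0 : 0 ≤ lam := (abs_nonneg _).trans (hf 0 (by norm_num))
  obtain ⟨t1, a1, b1, c1⟩ := rolle h (k := 0) (m := 8) (by norm_num) hδ ht hsep hf
  obtain ⟨t2, a2, b2, c2⟩ := rolle h (k := 1) (m := 4) (by norm_num) hδ a1 b1 c1
  obtain ⟨t3, a3, b3, c3⟩ := rolle h (k := 2) (m := 2) (by norm_num) hδ a2 b2 c2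
  obtain ⟨t4, a4, b4, c4⟩ := rolle h (k := 3) (m := 1) (by norm_num) hδ a3 b3 c3
  have hδ4 : 0 < δ ^ 4 := by positivity
  have hex : ∀ k, k ≤ 4 → ∃ s ∈ Icc α β, |f k s| ≤ 256 * lam / δ ^ 4 := by
    have p1 : δ ^ 4 ≤ 1 := pow_le_one₀ hδ.le hδ1
    have p2 : δ ^ 3 ≤ 1 := pow_le_one₀ hδ.le hδ1
    have p3 : δ ^ 2 ≤ 1 := pow_le_one₀ hδ.le hδ1
    intro k hk
    interval_cases k
    · refine ⟨t 0, ht 0 (by norm_num), (hf 0 (by norm_num)).trans ?_⟩
      rw [le_div_iff₀ hδ4]; nlinarith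
    · refine ⟨t1 0, a1 0 (by norm_num), (c1 0 (by norm_num)).trans ?_⟩
      rw [div_le_div_iff₀ hδ hδ4]
      have : 4 * lam * δ ^ 4 = (4 * lam * δ) * δ ^ 3 := by ring
      rw [this]
      have : (4 * lam * δ) * δ ^ 3 ≤ (4 * lam * δ) * 1 := by gcongr
      nlinarith [mul_nonneg hl0 hδ.le]
    · refine ⟨t2 0, a2 0 (by norm_num), (c2 0 (by norm_num)).trans ?_⟩
      have e : 4 * (4 * lam / δ) / δ = 16 * lam / δ ^ 2 := by field_simp; ring
      rw [e, div_le_div_iff₀ (by positivity) hδ4]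
      have : 16 * lam * δ ^ 4 = (16 * lam * δ ^ 2) * δ ^ 2 := by ring
      rw [this]
      have h0 : 0 ≤ 16 * lam * δ ^ 2 := by positivity
      have : (16 * lam * δ ^ 2) * δ ^ 2 ≤ (16 * lam * δ ^ 2) * 1 := by gcongr
      nlinarith
    · refine ⟨t3 0, a3 0 (by norm_num), (c3 0 (by norm_num)).trans ?_⟩
      have e : 4 * (4 * (4 * lam / δ) / δ) / δ = 64 * lam / δ ^ 3 := by field_simp; ring
      rw [e, div_le_div_iff₀ (by positivity) hδ4]
      have : 64 * lam * δ ^ 4 = (64 * lam * δ ^ 3) * δ := by ring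
      rw [this]
      have h0 : 0 ≤ 64 * lam * δ ^ 3 := by positivity
      have : (64 * lam * δ ^ 3) * δ ≤ (64 * lam * δ ^ 3) * 1 := by gcongr
      nlinarith
    · refine ⟨t4 0, a4 0 (by norm_num), (c4 0 (by norm_num)).trans ?_⟩
      have e : 4 * (4 * (4 * (4 * lam / δ) / δ) / δ) / δ = 256 * lam / δ ^ 4 := by field_simp; ring
      rw [e]
  -- the largest value at `x`
  obtain ⟨k0, hk0, hmax⟩ := Finset.exists_max_image (Finset.range 5) (fun k => |f k x|)
    ⟨0, by simp⟩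
  set B0 := |f k0 x| with hB0
  have hB : ∀ k, k ≤ 4 → |f k x| ≤ B0 := fun k hk => hmax k (Finset.mem_range.2 (by omega))
  have hk04 : k0 ≤ 4 := by have := Finset.mem_range.1 hk0; omega
  have hB00 : 0 ≤ B0 := abs_nonneg _
  have hexp : ∀ y ∈ Icc α β, ∀ k, k ≤ 4 → |f k y| ≤ 2 * B0 := by
    intro y hy k hk
    have h1 := gron h hx hy hB k hk
    refine h1.trans (mul_le_mul_of_nonneg_right ?_ hB00)
    have h2 : |y - x| ≤ 1 / 2000 := by
      rw [abs_le]; constructor <;> linarith [hy.1, hy.2, hx.1, hx.2]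
    have h3 : 250 * |y - x| ≤ 1 / 8 := by linarith
    have h4 : Real.exp (250 * |y - x|) ≤ Real.exp (1 / 8) := Real.exp_le_exp.2 h3
    have h5 : Real.exp (1 / 8) ≤ 2 := by
      have : Real.exp (1 / 8) ≤ 1 / (1 - 1 / 8) := Real.exp_bound_div_one_sub_of_interval' (by norm_num) (by norm_num) |>.le
      refine this.trans (by norm_num)
    exact h4.trans h5
  obtain ⟨s, hs, hs'⟩ := hex k0 hk04
  have hlip : |f k0 x - f k0 s| ≤ 500 * B0 * |x - s| := by
    choose! θ hθ1 hθ2 hθ3 using h.der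
    have := (convex_Icc α β).norm_image_sub_le_of_norm_hasDerivWithin_le (f := f k0)
      (f' := fun y => f (k0 + 1) y / θ k0 y) (C := 500 * B0) (fun y hy => hθ3 k0 hk04 y hy)
      (fun y hy => by
        have h1 := h.next hy (hexp y hy) hk04
        have h2 := hθ1 k0 hk04 y hy
        rw [Real.norm_eq_abs, abs_div, abs_of_pos (by linarith : 0 < θ k0 y),
          div_le_iff₀ (by linarith)]
        nlinarith) hs hx
    rwa [Real.norm_eq_abs, Real.norm_eq_abs] at this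
  have h2 : |x - s| ≤ 1 / 2000 := by
    rw [abs_le]; constructor <;> linarith [hs.1, hs.2, hx.1, hx.2]
  have h3 : |f k0 x - f k0 s| ≤ B0 / 4 := by
    refine hlip.trans ?_
    have := mul_le_mul_of_nonneg_left h2 (by positivity : 0 ≤ 500 * B0)
    linarith
  have h4 : B0 ≤ B0 / 4 + 256 * lam / δ ^ 4 := by
    have : |f k0 x| ≤ |f k0 x - f k0 s| + |f k0 s| := by
      have := abs_add_le (f k0 x - f k0 s) (f k0 s)
      rwa [sub_add_cancel] at this
    linarith
  intro k hk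
  refine (hB k hk).trans ?_
  have e : 512 * lam / δ ^ 4 = 2 * (256 * lam / δ ^ 4) := by ring
  have h5 : 0 ≤ 256 * lam / δ ^ 4 := by positivity
  rw [e]
  linarith

/-- an algebra of functions on a square with two derivations, rows and columns are chains -/
structure Alg {V : Type} (ev : V → ℝ → ℝ → ℝ) (D1 D2 : V → V) (I : Set ℝ) : Prop where
  row : ∀ (p : V) (x2 : ℝ), x2 ∈ I → Sys (fun k t => ev (D1^[k] p) t x2) I
  col : ∀ (p : V) (x1 : ℝ), x1 ∈ I → Sys (fun k t => ev (D2^[k] p) x1 t) I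

end Crest.Agent.R136.Sa705
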