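import Mathlib

/-!
# R136 (S0187): counting of the grid labels of a sublevel set with large derivative (helper214)
-/

set_option autoImplicit false

namespace Crest.Agent.R136.Row214

open Set

/-- labels of an interval of length `2 r` -/
theorem label_mem {δ r t t0 : ℝ} (hδ : 0 < δ) (h : |t - t0| ≤ r) :
    ⌊t / δ⌋ ∈ Finset.Icc ⌊(t0 - r) / δ⌋ ⌊(t0 + r) / δ⌋ := by
  rw [abs_le] at h
  rw [Finset.mem_Icc]
  constructor
  · exact Int.floor_le_floor (div_le_div_of_nonneg_right (by linarith) hδ.le)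
  · exact Int.floor_le_floor (div_le_div_of_nonneg_right (by linarith) hδ.le)

theorem label_card {δ r t0 : ℝ} (hδ : 0 < δ) (hr : 0 ≤ r) :
    ((Finset.Icc ⌊(t0 - r) / δ⌋ ⌊(t0 + r) / δ⌋).card : ℝ) ≤ 2 * r / δ + 2 := by
  rw [Int.card_Icc]
  have h1 : ⌊(t0 - r) / δ⌋ ≤ ⌊(t0 + r) / δ⌋ :=
    Int.floor_le_floor (div_le_div_of_nonneg_right (by linarith) hδ.le)
  have h2 : (0 : ℤ) ≤ ⌊(t0 + r) / δ⌋ + 1 - ⌊(t0 - r) / δ⌋ := by linarith
  have h3 : (((⌊(t0 + r) / δ⌋ + 1 - ⌊(t0 - r) / δ⌋).toNat : ℕ) : ℝ) =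
      ((⌊(t0 + r) / δ⌋ + 1 - ⌊(t0 - r) / δ⌋ : ℤ) : ℝ) := by
    rw [← Int.cast_natCast, Int.toNat_of_nonneg h2]
  rw [h3]
  push_cast
  have h4 := Int.floor_le ((t0 + r) / δ)
  have h5 := Int.lt_floor_add_one ((t0 - r) / δ)
  have h6 : (t0 + r) / δ - (t0 - r) / δ = 2 * r / δ := by ring
  linarith

/-- **one row**: labels of `{|g| ≤ a, |g'| ≥ b}` -/
theorem row_count {g g' : ℝ → ℝ} {t1 t2 K a b δ : ℝ}
    (hg : ∀ t ∈ Icc t1 t2, HasDerivAt g (g' t) t)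
    (hK : ∀ s ∈ Icc t1 t2, ∀ t ∈ Icc t1 t2, |g' t - g' s| ≤ K * |t - s|)
    (hK0 : 0 < K) (hb : 0 < b) (ha : 0 ≤ a) (hδ : 0 < δ) (hI : t2 - t1 ≤ 1) :
    ∃ F : Finset ℤ, (F.card : ℝ) ≤ (2 * K / b + 2) * (8 * a / (b * δ) + 2) ∧
      ∀ t ∈ Icc t1 t2, |g t| ≤ a → b ≤ |g' t| → ⌊t / δ⌋ ∈ F := by
  classical
  set ℓ := b / (2 * K) with hℓ
  have hℓ0 : 0 < ℓ := by positivity
  -- in one piece all good points are close
  have close : ∀ s ∈ Icc t1 t2, ∀ t ∈ Icc t1 t2, |g s| ≤ a → |g t| ≤ a → b ≤ |g' s| →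
      |t - s| ≤ ℓ → |t - s| ≤ 4 * a / b := by
    intro s hs t ht hgs hgt hgs' hst
    rcases eq_or_ne t s with rfl | hne
    · simp only [sub_self, abs_zero]; positivity
    -- mean value between s and t
    obtain ⟨ξ, hξI, hξst, hξ⟩ : ∃ ξ, ξ ∈ Icc t1 t2 ∧ |ξ - s| ≤ |t - s| ∧
        g t - g s = g' ξ * (t - s) := by
      rcases lt_or_gt_of_ne hne with hlt | hlt
      · obtain ⟨ξ, hξ, hξ'⟩ := exists_hasDerivAt_eq_slope g g' hlt
          (fun x hx => (hg x ⟨ht.1.trans hx.1, hx.2.trans hs.2⟩).continuousAt.continuousWithinAt)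
          (fun x hx => hg x ⟨ht.1.trans hx.1.le, hx.2.le.trans hs.2⟩)
        refine ⟨ξ, ⟨ht.1.trans hξ.1.le, hξ.2.le.trans hs.2⟩, ?_, ?_⟩
        · rw [abs_of_neg (by linarith [hξ.2] : ξ - s < 0), abs_of_neg (by linarith : t - s < 0)]
          linarith [hξ.1]
        · rw [hξ']
          have : s - t ≠ 0 := by linarith
          field_simp
          ring
      · obtain ⟨ξ, hξ, hξ'⟩ := exists_hasDerivAt_eq_slope g g' hlt
          (fun x hx => (hg x ⟨hs.1.trans hx.1, hx.2.trans ht.2⟩).continuousAt.continuousWithinAt)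
          (fun x hx => hg x ⟨hs.1.trans hx.1.le, hx.2.le.trans ht.2⟩)
        refine ⟨ξ, ⟨hs.1.trans hξ.1.le, hξ.2.le.trans ht.2⟩, ?_, ?_⟩
        · rw [abs_of_pos (by linarith [hξ.1] : 0 < ξ - s), abs_of_pos (by linarith : 0 < t - s)]
          linarith [hξ.2]
        · rw [hξ']
          have : t - s ≠ 0 := by linarith
          field_simp
    have h1 : |g' ξ - g' s| ≤ b / 2 := by
      refine (hK s hs ξ hξI).trans ?_
      calc K * |ξ - s| ≤ K * ℓ := mul_le_mul_of_nonneg_left (hξst.trans hst) hK0.le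
        _ = b / 2 := by rw [hℓ]; field_simp
    have h2 : b / 2 ≤ |g' ξ| := by
      have h3 := abs_sub_abs_le_abs_sub (g' s) (g' ξ)
      rw [abs_sub_comm] at h1
      linarith
    have h3 : |g t - g s| ≤ 2 * a := (abs_sub _ _).trans (by linarith)
    rw [hξ, abs_mul] at h3
    have h4 : b / 2 * |t - s| ≤ 2 * a := (mul_le_mul_of_nonneg_right h2 (abs_nonneg _)).trans h3
    rw [le_div_iff₀ hb]
    linarith
  -- good points
  set Good : ℝ → Prop := fun t => t ∈ Icc t1 t2 ∧ |g t| ≤ a ∧ b ≤ |g' t| with hGood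
  set idx : ℝ → ℤ := fun t => ⌊(t - t1) / ℓ⌋ with hidx
  -- representative of each piece
  have hrep : ∀ j : ℤ, ∃ t0, (∃ t, Good t ∧ idx t = j) → Good t0 ∧ idx t0 = j := by
    intro j
    by_cases h : ∃ t, Good t ∧ idx t = j
    · obtain ⟨t, ht⟩ := h
      exact ⟨t, fun _ => ht⟩
    · exact ⟨0, fun h' => absurd h' h⟩
  choose rep hrep using hrep
  set J : Finset ℤ := Finset.Icc 0 ⌊1 / ℓ⌋ with hJ
  set G : ℤ → Finset ℤ := fun j => Finset.Icc ⌊(rep j - 4 * a / b) / δ⌋ ⌊(rep j + 4 * a / b) / δ⌋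
    with hG
  refine ⟨J.biUnion G, ?_, ?_⟩
  · have h1 : ((J.biUnion G).card : ℝ) ≤ ∑ j ∈ J, ((G j).card : ℝ) := by
      exact_mod_cast Finset.card_biUnion_le
    have h2 : ∀ j ∈ J, ((G j).card : ℝ) ≤ 8 * a / (b * δ) + 2 := by
      intro j _
      refine (label_card hδ (by positivity)).trans (le_of_eq ?_)
      field_simp
      ring
    have h3 : ∑ j ∈ J, ((G j).card : ℝ) ≤ (J.card : ℝ) * (8 * a / (b * δ) + 2) := by
      refine (Finset.sum_le_sum h2).trans (le_of_eq ?_)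
      rw [Finset.sum_const, nsmul_eq_mul]
    have h4 : (J.card : ℝ) ≤ 2 * K / b + 2 := by
      rw [hJ, Int.card_Icc]
      have h5 : (0 : ℤ) ≤ ⌊1 / ℓ⌋ := Int.floor_nonneg.2 (by positivity)
      have h6 : (((⌊1 / ℓ⌋ + 1 - 0).toNat : ℕ) : ℝ) = ((⌊1 / ℓ⌋ + 1 - 0 : ℤ) : ℝ) := by
        rw [← Int.cast_natCast, Int.toNat_of_nonneg (by linarith)]
      rw [h6]
      push_cast
      have h7 := Int.floor_le (1 / ℓ)
      have h8 : 1 / ℓ = 2 * K / b := by rw [hℓ]; field_simp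
      linarith
    exact h1.trans (h3.trans (mul_le_mul_of_nonneg_right h4 (by positivity)))
  · intro t ht hga hgb
    have hgood : Good t := ⟨ht, hga, hgb⟩
    obtain ⟨⟨hr1, hr2, hr3⟩, hr4⟩ := hrep (idx t) ⟨t, hgood, rfl⟩
    rw [Finset.mem_biUnion]
    refine ⟨idx t, ?_, ?_⟩
    · rw [hJ, Finset.mem_Icc]
      constructor
      · exact Int.floor_nonneg.2 (div_nonneg (by linarith [ht.1]) hℓ0.le)
      · exact Int.floor_le_floor (div_le_div_of_nonneg_right (by linarith [ht.2]) hℓ0.le)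
    · have hd : |t - rep (idx t)| ≤ ℓ := by
        have e1 := Int.floor_le ((t - t1) / ℓ)
        have e2 := Int.lt_floor_add_one ((t - t1) / ℓ)
        have e3 := Int.floor_le ((rep (idx t) - t1) / ℓ)
        have e4 := Int.lt_floor_add_one ((rep (idx t) - t1) / ℓ)
        have e5 : ⌊(rep (idx t) - t1) / ℓ⌋ = ⌊(t - t1) / ℓ⌋ := hr4
        rw [e5] at e3 e4
        have e6 : (t - rep (idx t)) / ℓ = (t - t1) / ℓ - (rep (idx t) - t1) / ℓ := by ring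
        have e7 : |(t - rep (idx t)) / ℓ| ≤ 1 := by
          rw [e6, abs_le]
          constructor <;> linarith
        rw [abs_div, abs_of_pos hℓ0, div_le_one hℓ0] at e7
        exact e7
      exact label_mem hδ (close _ hr1 t ht hr2 hga hr3 hd)

/-- **the plane**: labels of `{|f| ≤ a, |∂₁ f| ≥ b}` -/
theorem plane_count {f f1 : ℝ → ℝ → ℝ} {r K a b δ : ℝ}
    (hf : ∀ y, |y| ≤ r → ∀ x, |x| ≤ r → HasDerivAt (fun x => f x y) (f1 x y) x)
    (hy : ∀ x, |x| ≤ r → ∀ y, |y| ≤ r → ∀ y', |y'| ≤ r → |f x y' - f x y| ≤ K * |y' - y|)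
    (hy1 : ∀ x, |x| ≤ r → ∀ y, |y| ≤ r → ∀ y', |y'| ≤ r → |f1 x y' - f1 x y| ≤ K * |y' - y|)
    (hx1 : ∀ y, |y| ≤ r → ∀ x, |x| ≤ r → ∀ x', |x'| ≤ r → |f1 x' y - f1 x y| ≤ K * |x' - x|)
    (hK0 : 0 < K) (hb : 0 < b) (ha : 0 ≤ a) (hδ : 0 < δ) (hr0 : 0 ≤ r) (hr : 2 * r ≤ 1)
    (hδ' : K * δ ≤ b / 2) :
    ∃ F : Finset (ℤ × ℤ), (F.card : ℝ) ≤
      (1 / δ + 2) * ((4 * K / b + 2) * (16 * (a + K * δ) / (b * δ) + 2)) ∧
      ∀ x y, |x| ≤ r → |y| ≤ r → |f x y| ≤ a → b ≤ |f1 x y| → (⌊x / δ⌋, ⌊y / δ⌋) ∈ F := by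
  classical
  have hKδ : 0 ≤ K * δ := by positivity
  -- one row
  have hrow : ∀ y, |y| ≤ r → ∃ F : Finset ℤ, (F.card : ℝ) ≤
      (4 * K / b + 2) * (16 * (a + K * δ) / (b * δ) + 2) ∧
      ∀ x, |x| ≤ r → |f x y| ≤ a + K * δ → b / 2 ≤ |f1 x y| → ⌊x / δ⌋ ∈ F := by
    intro y hyr
    obtain ⟨F, hF, hF'⟩ := row_count (g := fun x => f x y) (g' := fun x => f1 x y) (t1 := -r)
      (t2 := r) (K := K) (a := a + K * δ) (b := b / 2) (δ := δ)
      (fun x hx => hf y hyr x (abs_le.2 hx))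
      (fun s hs t ht => hx1 y hyr s (abs_le.2 hs) t (abs_le.2 ht)) hK0 (by linarith)
      (by linarith) hδ (by linarith)
    refine ⟨F, hF.trans (le_of_eq ?_), fun x hx h1 h2 => hF' x (abs_le.1 hx) h1 h2⟩
    field_simp
    ring
  -- representative of each row
  have hrep : ∀ j : ℤ, ∃ y0, (∃ y, |y| ≤ r ∧ ⌊y / δ⌋ = j) → |y0| ≤ r ∧ ⌊y0 / δ⌋ = j := by
    intro j
    by_cases h : ∃ y, |y| ≤ r ∧ ⌊y / δ⌋ = j
    · obtain ⟨y, hy⟩ := h
      exact ⟨y, fun _ => hy⟩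
    · exact ⟨0, fun h' => absurd h' h⟩
  choose rep hrep using hrep
  have hF : ∀ j : ℤ, ∃ F : Finset ℤ, (F.card : ℝ) ≤
      (4 * K / b + 2) * (16 * (a + K * δ) / (b * δ) + 2) ∧
      (|rep j| ≤ r → ∀ x, |x| ≤ r → |f x (rep j)| ≤ a + K * δ → b / 2 ≤ |f1 x (rep j)| →
        ⌊x / δ⌋ ∈ F) := by
    intro j
    by_cases h : |rep j| ≤ r
    · obtain ⟨F, h1, h2⟩ := hrow _ h
      exact ⟨F, h1, fun _ => h2⟩
    · exact ⟨∅, by simp; positivity, fun h' => absurd h' h⟩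
  choose F hF1 hF2 using hF
  set J : Finset ℤ := Finset.Icc ⌊(0 - r) / δ⌋ ⌊(0 + r) / δ⌋ with hJ
  refine ⟨J.biUnion fun j => (F j).image fun i => (i, j), ?_, ?_⟩
  · set Z := (4 * K / b + 2) * (16 * (a + K * δ) / (b * δ) + 2) with hZ
    have hZ0 : 0 ≤ Z := by rw [hZ]; positivity
    have h1 : ((J.biUnion fun j => (F j).image fun i => (i, j)).card : ℝ) ≤
        ∑ j ∈ J, (((F j).image fun i => (i, j)).card : ℝ) := by
      exact_mod_cast Finset.card_biUnion_le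
    have h2 : ∀ j ∈ J, (((F j).image fun i => (i, j)).card : ℝ) ≤ Z := by
      intro j _
      refine le_trans ?_ (hF1 j)
      exact_mod_cast Finset.card_image_le
    have h3 : ∑ j ∈ J, (((F j).image fun i => (i, j)).card : ℝ) ≤ (J.card : ℝ) * Z := by
      refine (Finset.sum_le_sum h2).trans (le_of_eq ?_)
      rw [Finset.sum_const, nsmul_eq_mul]
    have h4 : (J.card : ℝ) ≤ 1 / δ + 2 := by
      refine (label_card hδ hr0).trans ?_
      have : 2 * r / δ ≤ 1 / δ := div_le_div_of_nonneg_right hr hδ.le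
      linarith
    exact h1.trans (h3.trans (mul_le_mul_of_nonneg_right h4 hZ0))
  · intro x y hx hyr h1 h2
    obtain ⟨hr1, hr2⟩ := hrep ⌊y / δ⌋ ⟨y, hyr, rfl⟩
    have hd : |rep ⌊y / δ⌋ - y| ≤ δ := by
      have e1 := Int.floor_le (y / δ)
      have e2 := Int.lt_floor_add_one (y / δ)
      have e3 := Int.floor_le (rep ⌊y / δ⌋ / δ)
      have e4 := Int.lt_floor_add_one (rep ⌊y / δ⌋ / δ)
      rw [hr2] at e3 e4
      have e6 : (rep ⌊y / δ⌋ - y) / δ = rep ⌊y / δ⌋ / δ - y / δ := by ring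
      have e7 : |(rep ⌊y / δ⌋ - y) / δ| ≤ 1 := by
        rw [e6, abs_le]
        constructor <;> linarith
      rwa [abs_div, abs_of_pos hδ, div_le_one hδ] at e7
    have k1 := hy x hx y hyr _ hr1
    have k2 := hy1 x hx y hyr _ hr1
    have k3 : K * |rep ⌊y / δ⌋ - y| ≤ K * δ := mul_le_mul_of_nonneg_left hd hK0.le
    rw [Finset.mem_biUnion]
    refine ⟨⌊y / δ⌋, ?_, ?_⟩
    · rw [hJ]
      exact label_mem hδ (by simpa using hyr)
    · rw [Finset.mem_image]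
      refine ⟨⌊x / δ⌋, hF2 _ hr1 x hx ?_ ?_, rfl⟩
      · have := abs_sub_abs_le_abs_sub (f x (rep ⌊y / δ⌋)) (f x y)
        linarith
      · have := abs_sub_abs_le_abs_sub (f1 x y) (f1 x (rep ⌊y / δ⌋))
        rw [abs_sub_comm] at this
        linarith

end Crest.Agent.R136.Row214
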