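import Crest.Agent.R136.NatT_550
import Crest.Agent.R136.GD5_186
import Crest.Agent.R136.GR4_650

/-!
# R136, straight chart (helper638), part 8: `NatT550.ThickPre` from the marked sequence with slots

`thickPre_of` : marked sequence of sheets + slots (`SlotQ`) + geometry of the marks (inputs of 650's
`gR_couQ`) + bounded slopes ⊢ `ThickPre`, with `PD = PDQ` (186).
-/

set_option autoImplicit false
set_option linter.unusedVariables false

open Finset Filter Topology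

namespace Crest.Agent.R136.Wq638

open Crest.Agent.R138.Ex926 (Base U)
open Crest.Agent.R138.Dp76 (dpow_pos dpow_add dpow_le dpow_le_one)
open Crest.Agent.R138.Mk163 (zc zl rho alive own)
open Crest.Agent.R138.MkRef627 (lc kc own_one mem_alive)
open Crest.Agent.R136.MkA627
open Crest.Agent.R136.Net191
open Crest.Agent.R136.NetQ186
open Crest.Agent.R136.GeoQ186
open Crest.Agent.R136.Sh605
open Crest.Agent.R136.Top484
open Crest.Agent.R136.GR650 (LinW gR_couQ)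
open Crest.Agent.R136.NatT550 (ParOk SlotOk ThickPre Gap23)

variable {p : Par4} {D : Dat4}

/-- the marks are sheets with the common widths -/
theorem mark_ord {c Λ : ℝ → ℝ} {τ : Fin 3 → ℝ → ℝ}
    (h : MkA D.B D.I (D.G p) D.lev D.A c Λ τ D.f D.b D.vm D.w) (v : ℚ) (h0 : 0 ≤ v) (h1 : v ≤ 1) :
    ∀ᶠ n in (U : Filter ℕ), D.r0 n ≤ D.w 0 n v ∧ D.w 0 n v ≤ D.w 2 n v ∧
      D.w 2 n v ≤ D.w 1 n v ∧ D.w 1 n v ≤ rho (D.lev n v) := by
  filter_upwards [h.ne, h.mark v h0 h1] with n hne hmk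
  obtain ⟨x, hx⟩ := hne
  have hal : x.1 ∈ alive (D.I n) (D.lev n v) (zc (D.lev n v) x.2) := mem_alive.2 ⟨x, hx, rfl, rfl⟩
  obtain ⟨-, ⟨hs, hρ, -⟩, -, h4⟩ := hmk _ _ hal
  have e0 := h4 0
  have e1 := h4 1
  have e2 := h4 2
  simp only [Dat4.G, geo4, Matrix.cons_val] at e0 e1 e2
  rw [← e0, ← e1, ← e2]
  exact ⟨hs.r0_le, hs.a_le, hs.w_le, hρ⟩

theorem linW_of {c Λ : ℝ → ℝ}
    (h : MkA D.B D.I (D.G p) D.lev D.A c Λ (fun j v => p.θ j * (1 - v)) D.f D.b D.vm D.w) :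
    LinW D.B D.lev D.w p.θ where
  lev_lim := h.lev_lim
  wpos := h.wpos
  tau := h.tau
  ord := fun v h0 h1 => (mark_ord h v h0 h1).mono fun n hn => ⟨hn.2.1, hn.2.2.1⟩

/-- the record box of level `0` is one sheet -/
theorem path_PDQ {c Λ : ℝ → ℝ} {w0 R T0 : ℝ}
    (h : MkA D.B D.I (D.G p) D.lev D.A c Λ (fun j v => p.θ j * (1 - v)) D.f D.b D.vm D.w)
    (hb : BigQ p.θ w0 R T0) (hθ : 0 < p.θ 1) :
    pathQ p.θ w0 R 0 ∈ PDQ D.B D.r0 D.lev D.w w0 R := by
  have hL := hb.path_leg le_rfl zero_le_one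
  have hmk := mark_ord h 0 le_rfl zero_le_one
  have hmk1 := mark_ord h 1 zero_le_one le_rfl
  have hw : ∀ᶠ n in (U : Filter ℕ), ∀ k, 0 < D.w k n 0 :=
    Filter.eventually_all.2 fun k => h.wpos k 0 le_rfl zero_le_one
  have p0 : pathQ p.θ w0 R 0 0 = w0 := by simp [pathQ]
  have p8 : pathQ p.θ w0 R 0 8 = 2 * w0 := by simp [pathQ]
  have p9 : pathQ p.θ w0 R 0 9 = 3 * w0 := by simp [pathQ]
  have p10 : pathQ p.θ w0 R 0 10 = 4 * w0 := by simp [pathQ]
  have one_le : ∀ ε : ℝ, 0 < ε → ∀ n, 1 ≤ D.B.d n ^ (-ε) := fun ε hε n =>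
    Real.one_le_rpow_of_pos_of_le_one_of_nonpos (D.B.pos n) (D.B.lt n).le (by linarith)
  refine ⟨hL, by rw [p0], by rw [p0]; linarith, ⟨?_, ?_, ?_, ?_⟩⟩
  · intro ε hε
    filter_upwards [hmk, hw] with n hn hw
    rw [p8, p9]
    unfold uA uB
    have e1 : D.w 2 n 0 / rho (D.lev n 0) * D.B.d n ^ (-(2 * w0)) * D.B.d n ^ (3 * w0) =
        D.w 2 n 0 / rho (D.lev n 0) * D.B.d n ^ w0 := by
      rw [mul_assoc, ← dpow_add]; congr 2; ring
    have e2 : D.w 1 n 0 / rho (D.lev n 0) * D.B.d n ^ (-w0) * D.B.d n ^ (2 * w0) =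
        D.w 1 n 0 / rho (D.lev n 0) * D.B.d n ^ w0 := by
      rw [mul_assoc, ← dpow_add]; congr 2; ring
    rw [e1, e2]
    have hp := dpow_pos D.B n w0
    have hr := rho_pos (D.lev n 0)
    have h1 : D.w 2 n 0 / rho (D.lev n 0) * D.B.d n ^ w0 ≤
        D.w 1 n 0 / rho (D.lev n 0) * D.B.d n ^ w0 :=
      mul_le_mul_of_nonneg_right (div_le_div_of_nonneg_right hn.2.2.1 hr.le) hp.le
    refine h1.trans (le_mul_of_one_le_left ?_ (one_le ε hε n))
    have := hw 1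
    positivity
  · intro ε hε
    filter_upwards [hmk, hw] with n hn hw
    rw [p9, p10]
    unfold uY uB
    have e1 : D.w 2 n 0 / rho (D.lev n 0) * D.B.d n ^ (-(2 * w0)) * D.B.d n ^ (3 * w0) =
        D.w 2 n 0 / rho (D.lev n 0) * D.B.d n ^ w0 := by
      rw [mul_assoc, ← dpow_add]; congr 2; ring
    have e2 : D.w 0 n 0 / rho (D.lev n 0) * D.B.d n ^ (-(3 * w0)) * D.B.d n ^ (4 * w0) =
        D.w 0 n 0 / rho (D.lev n 0) * D.B.d n ^ w0 := by
      rw [mul_assoc, ← dpow_add]; congr 2; ring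
    rw [e1, e2]
    have hp := dpow_pos D.B n w0
    have hr := rho_pos (D.lev n 0)
    have h1 : D.w 0 n 0 / rho (D.lev n 0) * D.B.d n ^ w0 ≤
        D.w 2 n 0 / rho (D.lev n 0) * D.B.d n ^ w0 :=
      mul_le_mul_of_nonneg_right (div_le_div_of_nonneg_right hn.2.1 hr.le) hp.le
    refine h1.trans (le_mul_of_one_le_left ?_ (one_le ε hε n))
    have := hw 2
    positivity
  · intro ε hε
    filter_upwards [hmk, hw] with n hn hw
    rw [p10]
    unfold uY uH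
    have hr := rho_pos (D.lev n 0)
    have e3 : (2 : ℝ) ^ D.lev n 0 = (rho (D.lev n 0))⁻¹ := by unfold rho; simp
    have e1 : D.w 0 n 0 / rho (D.lev n 0) * D.B.d n ^ (-(3 * w0)) /
        (D.B.d n ^ w0 * 2 ^ D.lev n 0) * D.B.d n ^ (4 * w0) = D.w 0 n 0 := by
      rw [e3]
      have e4 : D.B.d n ^ (4 * w0) = D.B.d n ^ w0 * D.B.d n ^ (3 * w0) := by
        rw [← dpow_add]; congr 1; ring
      have e5 : D.B.d n ^ (-(3 * w0)) = (D.B.d n ^ (3 * w0))⁻¹ := Real.rpow_neg (D.B.pos n).le _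
      rw [e4, e5]
      have q1 := (dpow_pos D.B n w0).ne'
      have q2 := (dpow_pos D.B n (3 * w0)).ne'
      field_simp
    rw [e1]
    exact hn.1.trans (le_mul_of_one_le_left (hw 0).le (one_le ε hε n))
  · refine ⟨p.θ 1 / 2, by linarith, ?_⟩
    have ht := (h.tau 1 0 le_rfl zero_le_one).eventually_const_lt
      (show p.θ 1 / 2 < p.θ 1 * (1 - ((0 : ℚ) : ℝ)) by push_cast; linarith)
    filter_upwards [hmk1, hw, ht, h.wpos 1 1 zero_le_one le_rfl] with n hn hw ht hw1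
    rw [p0, p8]
    unfold uA
    have hr := rho_pos (D.lev n 0)
    have hr1 := rho_pos (D.lev n 1)
    have e1 : D.w 1 n 0 / rho (D.lev n 0) * D.B.d n ^ (-w0) *
        D.B.d n ^ (2 * w0 - w0 - p.θ 1 / 2) =
        D.w 1 n 0 / rho (D.lev n 0) * D.B.d n ^ (-(p.θ 1 / 2)) := by
      rw [mul_assoc, ← dpow_add]; congr 2; ring
    rw [e1]
    -- the quotient
    rw [lt_div_iff₀ (D.B.L_pos n)] at ht
    have hq : 0 < (rho (D.lev n 0) / D.w 1 n 0) / (rho (D.lev n 1) / D.w 1 n 1) := by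
      have := hw 1
      positivity
    have h3 : D.B.d n ^ (-(p.θ 1 / 2)) ≤
        (rho (D.lev n 0) / D.w 1 n 0) / (rho (D.lev n 1) / D.w 1 n 1) := by
      rw [← Real.log_le_log_iff (dpow_pos D.B n _) hq, Real.log_rpow (D.B.pos n)]
      unfold Base.L at ht
      linarith
    have h4 : (rho (D.lev n 0) / D.w 1 n 0) / (rho (D.lev n 1) / D.w 1 n 1) ≤
        rho (D.lev n 0) / D.w 1 n 0 := by
      refine div_le_self (by have := hw 1; positivity) ?_
      rw [le_div_iff₀ hw1, one_mul]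
      exact hn.2.2.2
    calc D.w 1 n 0 / rho (D.lev n 0) * D.B.d n ^ (-(p.θ 1 / 2)) ≤
          D.w 1 n 0 / rho (D.lev n 0) * (rho (D.lev n 0) / D.w 1 n 0) :=
          mul_le_mul_of_nonneg_left (h3.trans h4) (div_pos (hw 1) hr).le
      _ = 1 := by
          have := (hw 1).ne'
          field_simp

/-- **`ThickPre` from the marked sequence with slots.** -/
theorem thickPre_of {η : ℝ} {π : Equiv.Perm (Fin 3)} {eE fA fB : ℕ → ℕ × ℝ → ℝ}
    {V T : Fin 11 → Prop} {w0 R T0 : ℝ} {sc : Fin 11 → ℕ → ℝ}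
    (ok : ParOk η p) (slots : SlotOk p.θ V T) (big : BigQ p.θ w0 R T0)
    (mka : MkA D.B D.I (D.G p) D.lev D.A (fun v => p.g * v) (fun v => 0 * v)
      (fun j v => p.θ j * (1 - v)) D.f D.b D.vm D.w)
    (flag : ∀ n, ∀ x ∈ D.I n, |eE n x| ≤ 1 ∧ |fA n x| ≤ 1 ∧ |fB n x| ≤ 1)
    (flag2 : ∀ n, ∀ x ∈ D.I n, |eE n x| + |fA n x + eE n x * fB n x| ≤ 1)
    (flag3 : Gap23 D → ∃ c : ℝ, c < 1 ∧ ∀ n, ∀ x ∈ D.I n, |fB n x| ≤ c)
    (wrs : Rng D.B D.wr D.cr D.w)
    (hS : SlotQ D.B D.I D.lev D.w p.θ (incQ π D.L eE fA fB) sc V T)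
    {E : ℕ → ℚ → ℕ × ℤ → Fin 3 → V3} {c : ℕ → ℚ → ℕ × ℤ → Ln4}
    (hadm : ∀ u : ℚ, 0 ≤ u → u ≤ 1 → ∀ᶠ n in (U : Filter ℕ), ∀ x ∈ D.I n,
      Adm π (E n u (kc (D.lev n u) (D.f n u) x)))
    (hin : ∀ u : ℚ, 0 ≤ u → u ≤ 1 → ∀ ε : ℝ, 0 < ε → ∀ᶠ n in (U : Filter ℕ), ∀ x ∈ D.I n, ∀ z,
      zl (D.lev n u) (zc (D.lev n u) x.2) ≤ z →
      z ≤ zl (D.lev n u) (zc (D.lev n u) x.2) + rho (D.lev n u) →
        InK (E n u (kc (D.lev n u) (D.f n u) x)) (c n u (kc (D.lev n u) (D.f n u) x))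
          (fun j => D.w j n u * D.B.d n ^ (-ε)) z ((D.L n x.1).pos z))
    (hfl : ∀ u : ℚ, 0 ≤ u → u ≤ 1 → ∀ ε : ℝ, 0 < ε → ∀ᶠ n in (U : Filter ℕ), ∀ x ∈ D.I n,
      |eE n x - sE π (E n u (kc (D.lev n u) (D.f n u) x))| ≤
        D.w 2 n u / D.w 1 n u * D.B.d n ^ (-ε) ∧
      |fB n x - sB π (E n u (kc (D.lev n u) (D.f n u) x))| ≤
        D.w 0 n u / D.w 2 n u * D.B.d n ^ (-ε) ∧
      |(fA n x - sA π (E n u (kc (D.lev n u) (D.f n u) x))) +
        sE π (E n u (kc (D.lev n u) (D.f n u) x)) *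
          (fB n x - sB π (E n u (kc (D.lev n u) (D.f n u) x)))| ≤
        D.w 0 n u / D.w 1 n u * D.B.d n ^ (-ε)) :
    ThickPre η p D π eE fA fB V T w0 R T0 (PDQ D.B D.r0 D.lev D.w w0 R) where
  ok := ok
  slots := slots
  big := big
  flag := flag
  flag2 := flag2
  flag3 := flag3
  wrs := wrs
  pd := fun x hx => by
    have h := (w0_zero mka).mix (w0_one mka)
    obtain ⟨h1, h2, h3, h4, h5, h6, h7⟩ := hx
    refine mem_PDQ h h1 h2 h3 ?_ ?_ ?_ ?_
    · rcases le_total (p.θ 1) (p.θ 2) with hl | hl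
      · rw [max_eq_right (by linarith)]
        rw [min_eq_right (by linarith)] at h5
        linarith
      · rw [max_eq_left (by linarith)]
        rw [min_eq_left (by linarith)] at h5
        linarith
    · rcases le_total (p.θ 2) (p.θ 0) with hl | hl
      · rw [max_eq_right (by linarith)]
        rw [min_eq_right (by linarith)] at h6
        linarith
      · rw [max_eq_left (by linarith)]
        rw [min_eq_left (by linarith)] at h6
        linarith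
    · linarith
    · rw [max_eq_right ok.θ1.le]
      linarith
  pre := by
    have hq : ∀ j, 0 ≤ p.q j := by
      intro j
      fin_cases j
      · exact ok.q0.1
      · exact ok.g0.2.le
      · exact ok.q2.1.le
    exact preQ4 mka big (fun n i J t _ => rfl) hS ⟨_, path_PDQ mka big ok.θ1⟩ PDQ_leg
      (gD_couQ mka wrs hq (fun n x hx => (flag n x hx).1) (fun n x hx => (flag n x hx).2.1)
        (fun n x hx => (flag n x hx).2.2))
      (gR_couQ (linW_of mka) big hadm hin hfl)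

end Crest.Agent.R136.Wq638
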