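import Crest.Agent.R136.ReE0_436
import Crest.Agent.R136.Wq8_638

/-!
# R136 (S0187), case E: re-flag (helper436): raw systems and literals of the pieces

`RawS` : marked sequence + flags such that marked classes lie in natural boxes, in raw coordinates.
`InvS` : the slot `k` is constant along every line, to infinite order.
-/

set_option autoImplicit false
set_option linter.unusedVariables false

open Finset Filter Topology

namespace Crest.Agent.R136.Re436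

open Crest.Agent.R138.Ex926 (Base U)
open Crest.Agent.R138.Mk163 (zc zl rho alive)
open Crest.Agent.R138.MkRef627 (lc kc)
open Crest.Agent.R136.MkA627
open Crest.Agent.R136.Net191
open Crest.Agent.R136.NetQ186
open Crest.Agent.R136.Wq638
open Crest.Agent.R136.Top484
open Crest.Agent.R136.NatT550

/-- natural sizes of the marks of level `u`, raw coordinates (`coQ` of `incQ`) -/
noncomputable def natW (D : Dat4) (n : ℕ) (u : ℚ) : Fin 11 → ℝ :=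
  ![rho (D.lev n u), 0, D.w 2 n u / D.w 1 n u, D.w 0 n u / D.w 2 n u, D.w 0 n u / D.w 1 n u,
    D.w 1 n u / rho (D.lev n u), D.w 2 n u / rho (D.lev n u), D.w 0 n u / rho (D.lev n u),
    D.w 1 n u, D.w 2 n u, D.w 0 n u]

/-- **raw system**: marked sequence with flags, marked classes lie in natural boxes -/
structure RawS (p : Par4) (D : Dat4) (π : Equiv.Perm (Fin 3)) (eE fA fB : ℕ → ℕ × ℝ → ℝ) : Prop where
  mka : MkA D.B D.I (D.G p) D.lev D.A (fun v => p.g * v) (fun v => 0 * v)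
    (fun j v => p.θ j * (1 - v)) D.f D.b D.vm D.w
  near : ∀ u : ℚ, 0 ≤ u → u ≤ 1 → ∀ ε : ℝ, 0 < ε → ∀ᶠ n in (U : Filter ℕ), ∀ x ∈ D.I n,
    ∀ y ∈ D.I n, kc (D.lev n u) (D.f n u) y = kc (D.lev n u) (D.f n u) x → ∀ k,
      |coQ (incQ π D.L eE fA fB n x) (incQ π D.L eE fA fB n y) k| ≤ natW D n u k * D.B.d n ^ (-ε)
  /-- range of the tests -/
  wrs : Rng D.B D.wr D.cr D.w

/-- flags at most one (incidences of `D.I`); `fA + eE fB` = third component of the direction -/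
def FlagB (D : Dat4) (eE fA fB : ℕ → ℕ × ℝ → ℝ) : Prop :=
  ∀ n, ∀ x ∈ D.I n, |eE n x| ≤ 1 ∧ |fA n x| ≤ 1 ∧ |fB n x| ≤ 1 ∧
    |eE n x| + |fA n x + eE n x * fB n x| ≤ 1

/-- bounds of the flags which are used by the re-flag -/
structure FlagC (D : Dat4) (eE fA fB : ℕ → ℕ × ℝ → ℝ) : Prop where
  bd : FlagB D eE fA fB
  gap : Gap23 D → ∃ c : ℝ, c < 1 ∧ ∀ n, ∀ x ∈ D.I n, |fB n x| ≤ c

/-- the slot `k` is constant along the lines, to infinite order -/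
def InvS (D : Dat4) (π : Equiv.Perm (Fin 3)) (eE fA fB : ℕ → ℕ × ℝ → ℝ) (k : Fin 11) : Prop :=
  ∀ M : ℝ, ∀ᶠ n in (U : Filter ℕ), ∀ x ∈ D.I n, ∀ y ∈ D.I n, y.1 = x.1 →
    |coQ (incQ π D.L eE fA fB n x) (incQ π D.L eE fA fB n y) k| ≤ natW D n 0 k * D.B.d n ^ M

/-- the data seen through a zoom (the same as `Ut262.zooD`) -/
def zooR (D : Dat4) (B' : Base) (I' : ℕ → Finset (ℕ × ℝ)) (A' : ℕ → ℝ) (mm : ℕ → ℚ → ℚ) : Dat4 :=
  { D with
    B := B'
    I := I'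
    lev := fun n x => D.lev n (mm n x)
    A := A'
    f := fun n x => D.f n (mm n x)
    b := fun n x => D.b n (mm n x)
    vm := fun n x => D.vm n (mm n x)
    w := fun j n x => D.w j n (mm n x) }

/-- **(P1) raw system ⊢ ThickPre** (new dichotomy of the slots by 627's `TSys.natTQ` / `outF`) -/
def PreOfRaw (η : ℝ) : Prop :=
  ∀ (p : Par4) (D : Dat4) (π : Equiv.Perm (Fin 3)) (eE fA fB : ℕ → ℕ × ℝ → ℝ),
    ParOk η p → RawS p D π eE fA fB → FlagC D eE fA fB → p.θ 0 = p.θ 2 →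
    InvS D π eE fA fB 3 →
    (InvS D π eE fA fB 2 ∨ 0 < btQ p.θ 2) → (InvS D π eE fA fB 4 ∨ 0 < btQ p.θ 4) →
    ∃ (D' : Dat4) (V T : Fin 11 → Prop) (w0 R T0 : ℝ) (PD : Set (Fin 11 → ℝ)),
      ThickPre η p D' π eE fA fB V T w0 R T0 PD ∧ ¬ V 3 ∧ (InvS D π eE fA fB 2 → ¬ V 2) ∧
        (InvS D π eE fA fB 4 → ¬ V 4) ∧ (Gap23 D → Gap23 D')

/-- **(P2) ThickPre ⊢ raw system**, own closeness in raw coordinates: visible or not, the slots
`2, 3, 4` of one line in one cell of level `u` -/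
def RawOfPre (η : ℝ) : Prop :=
  ∀ (p : Par4) (D : Dat4) (π : Equiv.Perm (Fin 3)) (eE fA fB : ℕ → ℕ × ℝ → ℝ)
    (V T : Fin 11 → Prop) (w0 R T0 : ℝ) (PD : Set (Fin 11 → ℝ)),
    ThickPre η p D π eE fA fB V T w0 R T0 PD →
    RawS p D π eE fA fB ∧
    /- invisible slots: constant along lines beyond every level -/
    ∀ k, isSl k → ¬ V k → ∃ c : ℝ, 0 < c ∧ ∀ u : ℚ, 0 ≤ u → u ≤ 1 → ∀ᶠ n in (U : Filter ℕ),
      ∀ x ∈ D.I n, ∀ y ∈ D.I n, y.1 = x.1 →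
        |coQ (incQ π D.L eE fA fB n x) (incQ π D.L eE fA fB n y) k| ≤ natW D n u k * D.B.d n ^ c

/-- **same-line relation of the flags**, all precisions relative to the level `u`, one gap `θ`:
on a part `S` of `D.I` of share `d^(h ε)`, for every line and every cell of level `u` the pairs
`(E, F_a)` lie on one straight line up to `d^(h θ)` (natural units) -/
def LineRel (D : Dat4) (π : Equiv.Perm (Fin 3)) (eE fA fB : ℕ → ℕ × ℝ → ℝ) : Prop :=
  ∃ θ : ℝ, 0 < θ ∧ ∀ ε : ℝ, 0 < ε → ∃ (u : ℚ) (h : ℝ), 0 ≤ u ∧ 0 < h ∧ h ≤ ε ∧ (u : ℝ) + h ≤ 1 ∧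
    ∀ᶠ n in (U : Filter ℕ), ∃ S ⊆ D.I n, D.B.d n ^ (h * ε) * ((D.I n).card : ℝ) ≤ (S.card : ℝ) ∧
      ∀ x ∈ S, ∃ a b : ℝ, a ^ 2 + b ^ 2 = 1 ∧ ∀ y ∈ S, y.1 = x.1 →
        zc (D.lev n u) y.2 = zc (D.lev n u) x.2 →
          |a * (coQ (incQ π D.L eE fA fB n x) (incQ π D.L eE fA fB n y) 2 / natW D n u 2) +
            b * (coQ (incQ π D.L eE fA fB n x) (incQ π D.L eE fA fB n y) 4 / natW D n u 4)| ≤
            D.B.d n ^ (h * θ)

/-- **(P4) window relation ⊢ same-line relation** (saturation by `comb`, popular label per line and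
cell) -/
def LineOfFlag (η : ℝ) : Prop :=
  ∀ (p : Par4) (D : Dat4) (I1 : ℕ → Finset (ℕ × ℝ)) (π : Equiv.Perm (Fin 3))
    (eE fA fB : ℕ → ℕ × ℝ → ℝ) (V T : Fin 11 → Prop) (w0 R T0 : ℝ) (PD : Set (Fin 11 → ℝ))
    (ν own : (Fin 11 → ℝ) → ℝ) (c₀ : ℝ),
    Thick η p D I1 π eE fA fB V T w0 R T0 PD ν own c₀ → V 2 → ¬ V 3 → p.θ 0 = p.θ 2 →
      FlagRel p D I1 π eE fA fB w0 R → LineRel D π eE fA fB

/-- **(P3') re-flag without exchange**: `β` = any function, `|β| ≤ (w0 / w2) d^(-ε)` -/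
def RawFlag : Prop :=
  ∀ (p : Par4) (D : Dat4) (π : Equiv.Perm (Fin 3)) (eE fA fB β : ℕ → ℕ × ℝ → ℝ),
    RawS p D π eE fA fB → p.θ 0 = p.θ 2 →
    (∀ ε : ℝ, 0 < ε → ∀ᶠ n in (U : Filter ℕ), ∀ x ∈ D.I n,
      |β n x| ≤ D.w 0 n 0 / D.w 2 n 0 * D.B.d n ^ (-ε)) →
    RawS p D π eE (fun n x => fA n x - β n x * eE n x) (fun n x => fB n x + β n x)

/-- **(P3) exchange of the names 2 and 3 for raw systems** (no gap): new narrow width = old
thickness; `φ` = any new `F_b`, `|φ| ≤ 1` -/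
def RawExch : Prop :=
  ∀ (p : Par4) (D : Dat4) (π : Equiv.Perm (Fin 3)) (eE fA fB φ : ℕ → ℕ × ℝ → ℝ),
    RawS p D π eE fA fB → p.θ 0 = p.θ 2 → ¬ Gap23 D →
    (∀ᶠ n in (U : Filter ℕ), ∀ x ∈ D.I n, |eE n x| ≤ 1 ∧ |fA n x| ≤ 1 ∧ |fB n x| ≤ 1 ∧ |φ n x| ≤ 1) →
    RawS p D (π * Equiv.swap 0 2) (fun n x => fA n x + eE n x * fB n x)
      (fun n x => eE n x - φ n x * (fA n x + eE n x * fB n x)) φ

end Crest.Agent.R136.Re436
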