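import Crest.Agent.R136.TopB_550

/-!
# R136 (S0187), case E: re-flag (helper436), part 0: literals

`FlagRel` : output of the window half (323): at ONE interior level `v` with zoom length `w` the
direction vectors `(E, F_a + F_b E)` of a dense part of the sample lie on one line per base class, up
to `d^(w θ)` in natural units.  `pF2` : the pattern after the re-flag.
-/

set_option autoImplicit false
set_option linter.unusedVariables false

open Finset Filter Topology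

namespace Crest.Agent.R136.Re436

open Crest.Agent.R138.Ex926 (Base U)
open Crest.Agent.R136.Net191
open Crest.Agent.R136.NetQ186
open Crest.Agent.R136.Wq638
open Crest.Agent.R136.Top484
open Crest.Agent.R136.NatT550

/-- **relation of the flags in the window classes** (`X` = base box, natural at the level `v`).
`I0` = `D.I`, `I1` = the sample; label `c` = `nlab` of the box `X`; `i c` = an incidence with label
`c`; `a b` = unit normal, `e` = constant of the class. -/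
def FlagRel (p : Par4) (D : Dat4) (I1 : ℕ → Finset (ℕ × ℝ)) (π : Equiv.Perm (Fin 3))
    (eE fA fB : ℕ → ℕ × ℝ → ℝ) (w0 R : ℝ) : Prop :=
  ∃ θ : ℝ, 0 < θ ∧ ∀ ε : ℝ, 0 < ε → ∃ (v w : ℝ) (X : Fin 11 → ℝ), 0 < v ∧ 0 < w ∧ w ≤ ε ∧
    v + w < 1 ∧ X ∈ Leg monQ R ∧ X 0 = w0 + v ∧ X 2 = w0 + (p.θ 1 - p.θ 2) * v ∧ X 3 = w0 ∧
    X 4 = 2 * w0 + (p.θ 1 - p.θ 2) * v ∧
    ∀ᶠ n in (U : Filter ℕ), ∃ S ⊆ I1 n, D.B.d n ^ (w * ε) * ((I1 n).card : ℝ) ≤ (S.card : ℝ) ∧
      ∃ (i : ℕ × ℝ → ℕ × ℝ) (a b e : ℕ × ℝ → ℝ), ∀ y ∈ S, ∀ c,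
        nlab D.B D.I (couQ D.B D.lev D.w w0 (incQ π D.L eE fA fB)) monQ 2 n X y = c →
          a c ^ 2 + b c ^ 2 = 1 ∧ i c ∈ D.I n ∧
          nlab D.B D.I (couQ D.B D.lev D.w w0 (incQ π D.L eE fA fB)) monQ 2 n X (i c) = c ∧
          |a c * (couQ D.B D.lev D.w w0 (incQ π D.L eE fA fB) n (i c) y 2 / D.B.d n ^ X 2) +
            b c * ((couQ D.B D.lev D.w w0 (incQ π D.L eE fA fB) n (i c) y 4 +
              couQ D.B D.lev D.w w0 (incQ π D.L eE fA fB) n (i c) y 3 *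
                couQ D.B D.lev D.w w0 (incQ π D.L eE fA fB) n (i c) y 2) / D.B.d n ^ X 4) - e c| ≤
            D.B.d n ^ (w * θ)

/-- **window half of case E** (helper323) -/
def WinE (η : ℝ) : Prop :=
  ∀ (p : Par4) (D : Dat4) (I1 : ℕ → Finset (ℕ × ℝ)) (π : Equiv.Perm (Fin 3))
    (eE fA fB : ℕ → ℕ × ℝ → ℝ) (V T : Fin 11 → Prop) (w0 R T0 : ℝ) (PD : Set (Fin 11 → ℝ))
    (ν own : (Fin 11 → ℝ) → ℝ) (c₀ : ℝ),
    Thick η p D I1 π eE fA fB V T w0 R T0 PD ν own c₀ → TopB550.pE p V →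
      FlagRel p D I1 π eE fA fB w0 R

/-- the pattern after the re-flag: only 21, thickness parallel to the narrow width -/
def pF2 (p : Par4) (V : Fin 11 → Prop) : Prop := V 2 ∧ ¬ V 3 ∧ ¬ V 4 ∧ p.θ 0 = p.θ 2

end Crest.Agent.R136.Re436
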