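import Mathlib
import Crest.Agent.R136.ZoomA_102

/-!
# R136 (S0187), case E: re-flag (helper436), part 1: zoom restricted to a dense part

`zoomW` : `ZoomA102.zoomA` with the window sets as input.
`zoomR` : zoom of a marked sequence inside parts of share `B.d ^ (h k * e k)`, `e k → 0`, carrying any
property of parts (monotone under subsets).
-/

set_option autoImplicit false
set_option linter.unusedVariables false

open Finset Filter Topology

namespace Crest.Agent.R136.Re436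

open Crest.Agent.R138.Ex926 (Base U exists_diag)
open Crest.Agent.R138.Mk163 (zc zl rho alive)
open Crest.Agent.R138.Dp76 (Dense)
open Crest.Agent.R138.MkRef627 (lc kc)
open Crest.Agent.R138.MkZoom779
open Crest.Agent.R136.MkA627
open Crest.Agent.R136.ZoomA102

/-! ### windows in which a part is dense -/

theorem win_dense {I S : Finset (ℕ × ℝ)} {i0 i1 : ℕ} {δ a b : ℝ} (h01 : i0 ≤ i1) (hS : S ⊆ I)
    (hne : I.Nonempty) (hδ : 0 < δ) (ha : 0 < a) (hb : 0 < b)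
    (hd : δ * (I.card : ℝ) ≤ S.card)
    (hf : ∀ x ∈ I, a ≤ ((I.filter fun y => lc i1 y = lc i1 x).card : ℝ) ∧
      ((I.filter fun y => lc i1 y = lc i1 x).card : ℝ) ≤ b) :
    ∃ (I' : Finset (ℕ × ℝ)) (J0 : ℤ), IsWin I I' i0 i1 J0 ∧ I'.Nonempty ∧
      δ * a * (I'.card : ℝ) ≤ b * ((I'.filter fun x => x ∈ S).card : ℝ) := by
  classical
  -- the cell
  obtain ⟨J0, hJ, hJ1⟩ : ∃ J0 : ℤ, (I.filter fun x => zc i0 x.2 = J0).Nonempty ∧
      δ * ((I.filter fun x => zc i0 x.2 = J0).card : ℝ) ≤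
        ((S.filter fun x => zc i0 x.2 = J0).card : ℝ) := by
    by_contra hc
    push Not at hc
    have e1 : (I.card : ℝ) = ∑ J ∈ I.image (fun x => zc i0 x.2),
        ((I.filter fun x => zc i0 x.2 = J).card : ℝ) := by
      rw [card_eq_sum_card_fiberwise (f := fun x : ℕ × ℝ => zc i0 x.2)
        (t := I.image (fun x => zc i0 x.2)) (fun x hx => mem_coe.2 (mem_image_of_mem _ hx))]
      push_cast
      rfl
    have e2 : (S.card : ℝ) = ∑ J ∈ I.image (fun x => zc i0 x.2),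
        ((S.filter fun x => zc i0 x.2 = J).card : ℝ) := by
      rw [card_eq_sum_card_fiberwise (f := fun x : ℕ × ℝ => zc i0 x.2)
        (t := I.image (fun x => zc i0 x.2))
        (fun x hx => mem_coe.2 (mem_image_of_mem (fun x : ℕ × ℝ => zc i0 x.2) (hS hx)))]
      push_cast
      rfl
    have h3 : (S.card : ℝ) < δ * I.card := by
      rw [e1, e2, mul_sum]
      refine sum_lt_sum_of_nonempty (hne.image _) fun J hJ => ?_
      obtain ⟨x, hx, hxJ⟩ := mem_image.1 hJ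
      exact hc J ⟨x, mem_filter.2 ⟨hx, hxJ⟩⟩
    linarith
  set IJ := I.filter fun x => zc i0 x.2 = J0 with hIJ
  set SJ := S.filter fun x => zc i0 x.2 = J0 with hSJ
  have hSI : SJ ⊆ IJ := filter_subset_filter _ hS
  obtain ⟨T, hTS, hT1, hT2⟩ := exists_rep SJ i1
  obtain ⟨T', hTS', hT1', hT2'⟩ := exists_rep (IJ.filter fun x => lc i1 x ∉ SJ.image (lc i1)) i1
  have hT'I : T' ⊆ IJ := fun x hx => (mem_filter.1 (hTS' hx)).1
  have hno : ∀ x ∈ T, ∀ y ∈ T', x.1 = y.1 → zc i1 x.2 = zc i1 y.2 → False := by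
    intro x hx y hy h1 h2
    refine (mem_filter.1 (hTS' hy)).2 (mem_image.2 ⟨x, hTS hx, ?_⟩)
    exact Prod.ext h1 h2
  have hWin : IsWin I (T ∪ T') i0 i1 J0 := by
    refine ⟨fun x hx => ?_, fun x hx => ?_, fun x hx y hy h1 h2 => ?_, fun y hy hyJ => ?_⟩
    · rcases mem_union.1 hx with h | h
      · exact (mem_filter.1 (hSI (hTS h))).1
      · exact (mem_filter.1 (hT'I h)).1
    · rcases mem_union.1 hx with h | h
      · exact (mem_filter.1 (hSI (hTS h))).2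
      · exact (mem_filter.1 (hT'I h)).2
    · rcases mem_union.1 hx with hx | hx <;> rcases mem_union.1 hy with hy | hy
      · exact hT1 x hx y hy h1 h2
      · exact (hno x hx y hy h1 h2).elim
      · exact (hno y hy x hx h1.symm h2.symm).elim
      · exact hT1' x hx y hy h1 h2
    · have hyI : y ∈ IJ := mem_filter.2 ⟨hy, hyJ⟩
      by_cases hc : lc i1 y ∈ SJ.image (lc i1)
      · obtain ⟨z, hz, hzy⟩ := mem_image.1 hc
        obtain ⟨x, hx, h1, h2⟩ := hT2 z hz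
        have hz1 : z.1 = y.1 := (Prod.mk.inj hzy).1
        have hz2 : zc i1 z.2 = zc i1 y.2 := (Prod.mk.inj hzy).2
        exact ⟨x, mem_union_left _ hx, h1.trans hz1, h2.trans hz2⟩
      · obtain ⟨x, hx, h1, h2⟩ := hT2' y (mem_filter.2 ⟨hyI, hc⟩)
        exact ⟨x, mem_union_right _ hx, h1, h2⟩
  refine ⟨T ∪ T', J0, hWin, ?_, ?_⟩
  · obtain ⟨y, hy⟩ := hJ
    obtain ⟨hy1, hy2⟩ := mem_filter.1 hy
    obtain ⟨x, hx, -⟩ := hWin.full y hy1 hy2
    exact ⟨x, hx⟩
  -- counts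
  have c1 : a * ((T ∪ T').card : ℝ) ≤ (IJ.card : ℝ) := by
    have hinj : Set.InjOn (lc i1) (T ∪ T' : Finset (ℕ × ℝ)) := by
      intro x hx y hy hxy
      exact hWin.one x (mem_coe.1 hx) y (mem_coe.1 hy) (Prod.mk.inj hxy).1 (Prod.mk.inj hxy).2
    have e1 : ((T ∪ T').card : ℝ) = (((T ∪ T').image (lc i1)).card : ℝ) := by
      rw [card_image_of_injOn hinj]
    have e2 : (IJ.card : ℝ) = ∑ o ∈ IJ.image (lc i1), ((IJ.filter fun y => lc i1 y = o).card : ℝ) := by
      rw [card_eq_sum_card_fiberwise (f := lc i1) (t := IJ.image (lc i1))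
        (fun x hx => mem_coe.2 (mem_image_of_mem _ hx))]
      push_cast
      rfl
    have hsub : (T ∪ T').image (lc i1) ⊆ IJ.image (lc i1) := by
      refine image_subset_image fun x hx => ?_
      exact mem_filter.2 ⟨hWin.sub hx, hWin.cell x hx⟩
    rw [e1, e2]
    calc a * (((T ∪ T').image (lc i1)).card : ℝ) ≤ a * ((IJ.image (lc i1)).card : ℝ) :=
          mul_le_mul_of_nonneg_left (by exact_mod_cast card_le_card hsub) ha.le
      _ = ∑ o ∈ IJ.image (lc i1), a := by rw [sum_const, nsmul_eq_mul, mul_comm]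
      _ ≤ _ := by
          refine sum_le_sum fun o ho => ?_
          obtain ⟨x, hx, rfl⟩ := mem_image.1 ho
          obtain ⟨hx1, hx2⟩ := mem_filter.1 hx
          refine (hf x hx1).1.trans ?_
          refine Nat.cast_le.2 (card_le_card fun y hy => ?_)
          obtain ⟨hy1, hy2⟩ := mem_filter.1 hy
          refine mem_filter.2 ⟨mem_filter.2 ⟨hy1, ?_⟩, hy2⟩
          rw [← hx2]
          exact Crest.Agent.R138.MkZoom779.zc_nested h01 (Prod.mk.inj hy2).2
  have c2 : (SJ.card : ℝ) ≤ b * ((T ∪ T').filter fun x => x ∈ S).card := by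
    have e2 : (SJ.card : ℝ) = ∑ o ∈ SJ.image (lc i1), ((SJ.filter fun y => lc i1 y = o).card : ℝ) := by
      rw [card_eq_sum_card_fiberwise (f := lc i1) (t := SJ.image (lc i1))
        (fun x hx => mem_coe.2 (mem_image_of_mem _ hx))]
      push_cast
      rfl
    have h1 : (SJ.image (lc i1)).card ≤ T.card := by
      have : SJ.image (lc i1) ⊆ T.image (lc i1) := by
        intro o ho
        obtain ⟨y, hy, rfl⟩ := mem_image.1 ho
        obtain ⟨x, hx, h1, h2⟩ := hT2 y hy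
        exact mem_image.2 ⟨x, hx, Prod.ext h1 h2⟩
      exact (card_le_card this).trans card_image_le
    have h2 : T.card ≤ ((T ∪ T').filter fun x => x ∈ S).card := by
      refine card_le_card fun x hx => mem_filter.2 ⟨mem_union_left _ hx, ?_⟩
      exact (mem_filter.1 (hTS hx)).1
    have h3 : ((SJ.image (lc i1)).card : ℝ) ≤ ((T ∪ T').filter fun x => x ∈ S).card := by
      exact_mod_cast h1.trans h2
    rw [e2]
    calc ∑ o ∈ SJ.image (lc i1), ((SJ.filter fun y => lc i1 y = o).card : ℝ)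
        ≤ ∑ o ∈ SJ.image (lc i1), b := by
          refine sum_le_sum fun o ho => ?_
          obtain ⟨x, hx, rfl⟩ := mem_image.1 ho
          refine le_trans ?_ (hf x (hS (mem_filter.1 hx).1)).2
          refine Nat.cast_le.2 (card_le_card fun y hy => ?_)
          obtain ⟨hy1, hy2⟩ := mem_filter.1 hy
          exact mem_filter.2 ⟨hS (mem_filter.1 hy1).1, hy2⟩
      _ = b * ((SJ.image (lc i1)).card : ℝ) := by rw [sum_const, nsmul_eq_mul, mul_comm]
      _ ≤ _ := mul_le_mul_of_nonneg_left h3 hb.le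
  calc δ * a * ((T ∪ T').card : ℝ) = δ * (a * ((T ∪ T').card : ℝ)) := by ring
    _ ≤ δ * (IJ.card : ℝ) := mul_le_mul_of_nonneg_left c1 hδ.le
    _ ≤ (SJ.card : ℝ) := hJ1
    _ ≤ _ := c2

/-! ### zoom with prescribed windows -/

section zoomW

variable {σ κ : Type*} {B : Base} {I : ℕ → Finset (ℕ × ℝ)} {G : Geo σ κ}
    {lev : ℕ → ℚ → ℕ} {A : ℕ → ℝ} {c Λ : ℝ → ℝ} {τ : κ → ℝ → ℝ} {f : ℕ → ℚ → ℕ → ℤ → ℕ}
    {b : ℕ → ℚ → ℕ → σ} {vm : ℕ → ℚ → ℝ} {w : κ → ℕ → ℚ → ℝ}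

/-- **zoom with prescribed windows** (`zoomA` of 102 with the windows as input). -/
theorem zoomW [Countable κ] (H : MkA B I G lev A c Λ τ f b vm w) {h : ℕ → ℝ} {m : ℕ → ℚ → ℚ}
    {c' Λ' : ℝ → ℝ} {τ' : κ → ℝ → ℝ} (hpos : ∀ k, 0 < h k)
    (hmem : ∀ k, ∀ x : ℚ, 0 ≤ x → x ≤ 1 → 0 ≤ m k x ∧ m k x ≤ 1)
    (hmono : ∀ x y : ℚ, 0 ≤ x → x ≤ y → y ≤ 1 → ∀ᶠ k in atTop, m k x ≤ m k y)
    (hlev : ∀ x y : ℚ, 0 ≤ x → x ≤ y → y ≤ 1 →
      Tendsto (fun k => ((m k y : ℝ) - m k x) / h k) atTop (𝓝 ((y : ℝ) - x)))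
    (hc : ∀ x : ℚ, 0 ≤ x → x ≤ 1 →
      Tendsto (fun k => (c (m k x) - c (m k 0)) / h k) atTop (𝓝 (c' x)))
    (hΛ : ∀ x : ℚ, 0 ≤ x → x ≤ 1 →
      Tendsto (fun k => (Λ (m k x) - Λ (m k 0)) / h k) atTop (𝓝 (Λ' x)))
    (hτ : ∀ j, ∀ x : ℚ, 0 ≤ x → x ≤ 1 →
      Tendsto (fun k => (τ j (m k x) - τ j (m k 1)) / h k) atTop (𝓝 (τ' j x)))
    (hlam : ∀ u v : ℝ, 0 ≤ u → u ≤ v → v ≤ 1 → 0 ≤ Λ' v - Λ' u ∧ Λ' v - Λ' u ≤ v - u)
    (hc0 : c' 0 = 0) (hΛ0 : Λ' 0 = 0) (hτ1 : ∀ j, τ' j 1 = 0) :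
    ∃ s0 : ℕ → ℕ, Tendsto s0 U atTop ∧ ∀ s : ℕ → ℕ, Tendsto s U atTop →
      (∀ᶠ n in (U : Filter ℕ), s n ≤ s0 n) →
      ∀ (I' : ℕ → Finset (ℕ × ℝ)) (J0 : ℕ → ℤ),
        (∀ n, IsWin (I n) (I' n) (lev n (m (s n) 0)) (lev n (m (s n) 1)) (J0 n)) →
        (∀ n, (I n).Nonempty → (I' n).Nonempty) →
      ∃ (B' : Base) (A' : ℕ → ℝ), (∀ n, B'.d n = B.d n ^ h (s n)) ∧
        MkA B' I' G (fun n x => lev n (m (s n) x)) A' c' Λ' τ' (fun n x => f n (m (s n) x))
          (fun n x => b n (m (s n) x)) (fun n x => vm n (m (s n) x))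
          (fun j n x => w j n (m (s n) x)) := by
  classical
  obtain ⟨enc, henc⟩ := Countable.exists_injective_nat κ
  have hfin : ∀ k : ℕ, {j : κ | enc j ≤ k}.Finite := fun k =>
    (Set.finite_Iic k).preimage henc.injOn
  have hevκ : ∀ j : κ, ∀ᶠ k : ℕ in atTop, j ∈ {j : κ | enc j ≤ k} := fun j => by
    filter_upwards [eventually_ge_atTop (enc j)] with k hk using hk
  -- the stages
  obtain ⟨s0, hs0, hs0'⟩ := exists_diag (fun k n =>
    ((k : ℝ) + 1) ≤ h k * B.L n ∧ Real.log ((I n).card : ℝ) ≤ B.d n ^ (-(del h k)) ∧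
    (I n).Nonempty ∧ (∀ x ∈ Fq k, R1s B I G lev A c f b vm w (m k x) (del h k) n) ∧
    (∀ x ∈ Fq k, ∀ y ∈ Fq k, m k x ≤ m k y → R2s B I lev Λ (m k x) (m k y) (del h k) n) ∧
    ∀ j ∈ {j : κ | enc j ≤ k}, (0 < w j n 1 ∧
      ∀ x ∈ Fq k, PW B lev τ w j (m k x) (del h k) n)) (by
    intro k
    have hd := del_pos hpos k
    have e1 : ∀ᶠ n in (U : Filter ℕ), ((k : ℝ) + 1) ≤ h k * B.L n := by
      filter_upwards [B.ev_L_ge (((k : ℝ) + 1) / h k)] with n hn
      rw [div_le_iff₀ (hpos k)] at hn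
      linarith
    have e4 : ∀ᶠ n in (U : Filter ℕ), ∀ x ∈ Fq k,
        R1s B I G lev A c f b vm w (m k x) (del h k) n := by
      rw [Filter.eventually_all_finset]
      intro x hx
      obtain ⟨hx0, hx1⟩ := Fq_mem hx
      exact ev_R1 H (hmem k x hx0 hx1).1 (hmem k x hx0 hx1).2 hd
    have e5 : ∀ᶠ n in (U : Filter ℕ), ∀ x ∈ Fq k, ∀ y ∈ Fq k, m k x ≤ m k y →
        R2s B I lev Λ (m k x) (m k y) (del h k) n := by
      rw [Filter.eventually_all_finset]
      intro x hx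
      rw [Filter.eventually_all_finset]
      intro y hy
      obtain ⟨hx0, hx1⟩ := Fq_mem hx
      obtain ⟨hy0, hy1⟩ := Fq_mem hy
      rcases le_or_gt (m k x) (m k y) with hxy | hxy
      · filter_upwards [ev_R2 H (hmem k x hx0 hx1).1 hxy (hmem k y hy0 hy1).2 hd] with n hn _
        exact hn
      · exact Eventually.of_forall fun n hn => absurd hn (not_le.2 hxy)
    have e6 : ∀ᶠ n in (U : Filter ℕ), ∀ j ∈ {j : κ | enc j ≤ k}, (0 < w j n 1 ∧
        ∀ x ∈ Fq k, PW B lev τ w j (m k x) (del h k) n) := by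
      rw [Filter.eventually_all_finite (hfin k)]
      intro j hj
      refine (H.wpos j 1 zero_le_one le_rfl).and ?_
      rw [Filter.eventually_all_finset]
      intro x hx
      obtain ⟨hx0, hx1⟩ := Fq_mem hx
      exact ev_PW H j (hmem k x hx0 hx1).1 (hmem k x hx0 hx1).2 hd
    filter_upwards [e1, H.card (del h k) hd, H.ne, e4, e5, e6] with n a1 a2 a3 a4 a5 a6
    exact ⟨a1, a2, a3, a4, a5, a6⟩)
  refine ⟨s0, hs0, fun s hs hsle I' J0 hwin hne => ?_⟩
  have hP := (hs0'.and hsle).mono fun n hn => hn.1 (s n) hn.2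
  have hF : ∀ x : ℚ, 0 ≤ x → x ≤ 1 → ∀ᶠ n in (U : Filter ℕ), x ∈ Fq (s n) := fun x h0 h1 =>
    hs.eventually (ev_mem_Fq h0 h1)
  have hM : ∀ x y : ℚ, 0 ≤ x → x ≤ y → y ≤ 1 → ∀ᶠ n in (U : Filter ℕ), m (s n) x ≤ m (s n) y :=
    fun x y h0 h1 h2 => hs.eventually (hmono x y h0 h1 h2)
  -- the base
  have hlim : Tendsto (fun n => h (s n) * B.L n) U atTop := by
    have h1 : Tendsto (fun n => (s n : ℝ)) U atTop := tendsto_natCast_atTop_atTop.comp hs
    refine tendsto_atTop_mono' _ ?_ h1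
    filter_upwards [hP] with n hn
    linarith [hn.1]
  obtain ⟨B', hB', hL'⟩ := exists_base B (fun n => hpos (s n)) hlim
  have hBp : ∀ n a, B'.d n ^ a = B.d n ^ (h (s n) * a) := by
    intro n a
    rw [hB', ← Real.rpow_mul (B.pos n).le]
  -- amplitude
  set A' : ℕ → ℝ := fun n => A n * B.d n ^ (-(c (m (s n) 0))) with hA'
  -- errors
  have hem : ∀ x : ℚ, 0 ≤ x → x ≤ 1 → ∀ ε : ℝ, 0 < ε → ∀ᶠ n in (U : Filter ℕ),
      |((m (s n) x : ℝ) - m (s n) 0) - h (s n) * x| ≤ ε * h (s n) := by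
    intro x h0 h1 ε hε
    have h2 := hlev 0 x le_rfl h0 h1
    rw [Rat.cast_zero, sub_zero] at h2
    exact err (a := fun k => (m k x : ℝ) - m k 0) hpos h2 hs hε
  have hec : ∀ x : ℚ, 0 ≤ x → x ≤ 1 → ∀ ε : ℝ, 0 < ε → ∀ᶠ n in (U : Filter ℕ),
      |(c (m (s n) x) - c (m (s n) 0)) - h (s n) * c' x| ≤ ε * h (s n) := by
    intro x h0 h1 ε hε
    exact err (a := fun k => c (m k x) - c (m k 0)) hpos (hc x h0 h1) hs hε
  have heΛ : ∀ x : ℚ, 0 ≤ x → x ≤ 1 → ∀ ε : ℝ, 0 < ε → ∀ᶠ n in (U : Filter ℕ),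
      |(Λ (m (s n) x) - Λ (m (s n) 0)) - h (s n) * Λ' x| ≤ ε * h (s n) := by
    intro x h0 h1 ε hε
    exact err (a := fun k => Λ (m k x) - Λ (m k 0)) hpos (hΛ x h0 h1) hs hε
  have heτ : ∀ j, ∀ x : ℚ, 0 ≤ x → x ≤ 1 → ∀ ε : ℝ, 0 < ε → ∀ᶠ n in (U : Filter ℕ),
      |(τ j (m (s n) x) - τ j (m (s n) 1)) - h (s n) * τ' j x| ≤ ε * h (s n) := by
    intro j x h0 h1 ε hε
    exact err (a := fun k => τ j (m k x) - τ j (m k 1)) hpos (hτ j x h0 h1) hs hε
  -- comparison of the amplitudes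
  have hamp : ∀ x : ℚ, 0 ≤ x → x ≤ 1 → ∀ ε : ℝ, 0 < ε → ∀ᶠ n in (U : Filter ℕ),
      ampA B A c n (m (s n) x) ≤ B.d n ^ (-(ε * h (s n))) * ampA B' A' c' n x ∧
      ampA B' A' c' n x ≤ B.d n ^ (-(ε * h (s n))) * ampA B A c n (m (s n) x) := by
    intro x h0 h1 ε hε
    filter_upwards [hec x h0 h1 ε hε] with n a2
    obtain ⟨a2, a2'⟩ := abs_le.1 a2
    have hAn := H.Apos n
    unfold ampA
    rw [hBp, hA']
    simp only
    constructor
    · have e3 : B.d n ^ (-(ε * h (s n))) * (A n * B.d n ^ (-(c (m (s n) 0))) *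
          B.d n ^ (h (s n) * (-(c' x)))) =
          A n * B.d n ^ (-(ε * h (s n)) + -(c (m (s n) 0)) + h (s n) * (-(c' x))) := by
        rw [Real.rpow_add (B.pos n), Real.rpow_add (B.pos n)]
        ring
      rw [e3]
      have h2 := dpow_le B n (a := -(ε * h (s n)) + -(c (m (s n) 0)) + h (s n) * (-(c' x)))
        (b := -(c (m (s n) x))) (by linarith)
      gcongr
    · have e3 : B.d n ^ (-(ε * h (s n))) * (A n * B.d n ^ (-(c (m (s n) x)))) =
          A n * B.d n ^ (-(ε * h (s n)) + -(c (m (s n) x))) := by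
        rw [Real.rpow_add (B.pos n)]
        ring
      have e4 : A n * B.d n ^ (-(c (m (s n) 0))) * B.d n ^ (h (s n) * (-(c' x))) =
          A n * B.d n ^ (-(c (m (s n) 0)) + h (s n) * (-(c' x))) := by
        rw [Real.rpow_add (B.pos n)]
        ring
      rw [e3, e4]
      have h2 := dpow_le B n (a := -(ε * h (s n)) + -(c (m (s n) x)))
        (b := -(c (m (s n) 0)) + h (s n) * (-(c' x))) (by linarith)
      gcongr
  have hamp0 : ∀ n x, 0 < ampA B A c n x := by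
    intro n x
    unfold ampA
    exact mul_pos (H.Apos n) (dpow_pos B n _)
  have hamp0' : (∀ n, 0 < A' n) → ∀ n x, 0 < ampA B' A' c' n x := by
    intro hA0 n x
    unfold ampA
    exact mul_pos (hA0 n) (dpow_pos B' n _)
  -- nested levels
  have hlv0 : ∀ x : ℚ, 0 ≤ x → x ≤ 1 → ∀ᶠ n in (U : Filter ℕ),
      lev n (m (s n) 0) ≤ lev n (m (s n) x) ∧ lev n (m (s n) x) ≤ lev n (m (s n) 1) := by
    intro x h0 h1
    filter_upwards [hP, hF x h0 h1, hM 0 x le_rfl h0 h1, hM x 1 h0 h1 le_rfl] with n a1 a2 a3 a4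
    exact ⟨(a1.2.2.2.2.1 0 (zero_mem_Fq _) x a2 a3).le,
      (a1.2.2.2.2.1 x a2 1 (one_mem_Fq _) a4).le⟩
  refine ⟨B', A', hB', ?_⟩
  refine
    { ne := ?_, card := ?_, Apos := ?_, c0 := hc0
      lam0 := hΛ0, lam := hlam, tau1 := hτ1, lev_mono := ?_, lev_lim := ?_, cell0 := ?_, one := ?_
      own := ?_, dmax := ?_, mark := ?_, near := ?_, vpos := ?_, wpos := ?_, tau := ?_ }
  · -- ne
    filter_upwards [hP] with n hn using hne n hn.2.2.1
  · -- card
    intro ε hε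
    filter_upwards [hP, ev_del hpos hs hε] with n hn hd
    rw [hBp]
    have h1 : (0 : ℝ) < (I' n).card := by exact_mod_cast Finset.card_pos.2 (hne n hn.2.2.1)
    have h2 : ((I' n).card : ℝ) ≤ (I n).card := by
      exact_mod_cast Finset.card_le_card (hwin n).sub
    refine (Real.log_le_log h1 h2).trans (hn.2.1.trans (dpow_le B n ?_))
    linarith
  · -- Apos
    intro n
    exact mul_pos (H.Apos n) (dpow_pos B n _)
  · -- lev_mono
    intro u v h0 huv h1
    filter_upwards [hP, hF u h0 (huv.trans h1), hF v (h0.trans huv) h1, hM u v h0 huv h1]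
      with n a1 a2 a3 a4
    exact (a1.2.2.2.2.1 u a2 v a3 a4).le
  · -- lev_lim
    intro u v h0 huv h1
    rw [Metric.tendsto_nhds]
    intro ε hε
    filter_upwards [hP, hF u h0 (huv.trans h1), hF v (h0.trans huv) h1, hM u v h0 huv h1,
      hem u h0 (huv.trans h1) (ε / 8) (by positivity),
      hem v (h0.trans huv) h1 (ε / 8) (by positivity), ev_del hpos hs (ε := ε / 4) (by positivity)]
      with n a1 a2 a3 a4 a5 a6 a7
    have hh := hpos (s n)
    have hLn := B.L_pos n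
    have h2 := (a1.2.2.2.2.1 u a2 v a3 a4).ll
    rw [Real.dist_eq, hL']
    set X : ℝ := ((lev n (m (s n) v) : ℝ) - lev n (m (s n) u)) * Real.log 2 / B.L n with hX
    have e1 : ((lev n (m (s n) v) : ℝ) - lev n (m (s n) u)) * Real.log 2 / (h (s n) * B.L n) -
        ((v : ℝ) - u) = (X - h (s n) * (v - u)) / h (s n) := by
      rw [hX]
      field_simp
    rw [e1, abs_div, abs_of_pos hh, div_lt_iff₀ hh]
    have h3 : |X - h (s n) * (v - u)| ≤ 3 / 4 * ε * h (s n) := by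
      rw [abs_le] at h2 a5 a6 ⊢
      constructor <;> nlinarith
    have : 0 < ε * h (s n) := mul_pos hε hh
    linarith
  · -- cell0
    refine Eventually.of_forall fun n x hx y hy => ?_
    exact ((hwin n).cell x hx).trans ((hwin n).cell y hy).symm
  · -- one
    exact Eventually.of_forall fun n x hx y hy h1 h2 => (hwin n).one x hx y hy h1 h2
  · -- own
    intro u v h0 huv h1 ε hε
    filter_upwards [hP, hF u h0 (huv.trans h1), hF v (h0.trans huv) h1, hM u v h0 huv h1,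
      hem u h0 (huv.trans h1) (ε / 8) (by positivity),
      hem v (h0.trans huv) h1 (ε / 8) (by positivity),
      heΛ u h0 (huv.trans h1) (ε / 8) (by positivity),
      heΛ v (h0.trans huv) h1 (ε / 8) (by positivity),
      ev_del hpos hs (ε := ε / 4) (by positivity), hlv0 u h0 (huv.trans h1),
      hlv0 v (h0.trans huv) h1]
      with n a1 a2 a3 a4 a5 a6 b5 b6 a7 c1 c2 x hx
    have h2 := (a1.2.2.2.2.1 u a2 v a3 a4).ow x ((hwin n).sub hx)
    rw [own_eq (hwin n) c1.1 c1.2 c2.2 hx, hBp, hBp]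
    have hh := hpos (s n)
    rw [abs_le] at a5 a6 b5 b6
    constructor
    · refine le_trans (dpow_le B n ?_) h2.1
      nlinarith
    · refine h2.2.trans (dpow_le B n ?_)
      nlinarith
  · -- dmax
    intro v h0 h1 ε hε
    filter_upwards [hP, hF v h0 h1, hamp v h0 h1 (ε / 2) (by positivity),
      ev_del hpos hs (ε := ε / 2) (by positivity)] with n a1 a2 a3 a4 J σ0 hσ0
    have h2 := (a1.2.2.2.1 v a2).dm J σ0 hσ0
    have hp0 : 0 < B.d n ^ (-del h (s n)) * ampA B A c n (m (s n) v) :=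
      mul_pos (dpow_pos B n _) (hamp0 n _)
    have hval : 0 ≤ G.val n (lev n (m (s n) v)) J σ0 := by
      by_contra hneg
      have h3 := mul_neg_of_pos_of_neg hp0 (not_le.1 hneg)
      have h4 : (0 : ℝ) ≤ (((alive (I n) (lev n (m (s n) v)) J).filter fun t =>
        G.mem n (lev n (m (s n) v)) J σ0 t).card : ℝ) := by positivity
      linarith
    have h3 : (((alive (I' n) (lev n (m (s n) v)) J).filter fun t =>
        G.mem n (lev n (m (s n) v)) J σ0 t).card : ℝ) ≤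
        (((alive (I n) (lev n (m (s n) v)) J).filter fun t =>
        G.mem n (lev n (m (s n) v)) J σ0 t).card : ℝ) := by
      exact_mod_cast Finset.card_le_card (Finset.filter_subset_filter _ (alive_sub (hwin n) J))
    refine h3.trans (h2.trans (mul_le_mul_of_nonneg_right ?_ hval))
    rw [hBp]
    calc B.d n ^ (-del h (s n)) * ampA B A c n (m (s n) v)
        ≤ B.d n ^ (-(ε / 2 * h (s n))) * (B.d n ^ (-(ε / 2 * h (s n))) *
          ampA B' A' c' n v) := by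
          have h4 := dpow_le B n (a := -(ε / 2 * h (s n))) (b := -del h (s n)) (by linarith)
          have h5 := (hamp0 n (m (s n) v)).le
          have h6 := (dpow_pos B n (-(ε / 2 * h (s n)))).le
          exact mul_le_mul h4 a3.1 h5 h6
      _ = _ := by
          rw [← mul_assoc, ← Real.rpow_add (B.pos n)]
          congr 2
          ring
  · -- mark
    intro v h0 h1
    filter_upwards [hP, hF v h0 h1] with n a1 a2 J t ht
    exact (a1.2.2.2.1 v a2).mr J t (alive_sub (hwin n) J ht)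
  · -- near
    intro v h0 h1 ε hε
    filter_upwards [hP, hF v h0 h1, hamp v h0 h1 (ε / 2) (by positivity),
      ev_del hpos hs (ε := ε / 2) (by positivity), hlv0 v h0 h1] with n a1 a2 a3 a4 c1 J t ht
    have hp1 := a1.2.2.2.1 v a2
    have hal := alive_eq (hwin n) c1.1 c1.2 ⟨t, ht⟩
    have h2 := hp1.nr J t (by rw [← hal]; exact ht)
    rw [hal]
    have hX : (0 : ℝ) ≤ (((alive (I n) (lev n (m (s n) v)) J).filter fun s_1 =>
        f n (m (s n) v) s_1 J = f n (m (s n) v) t J).card : ℝ) := by positivity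
    calc ampA B' A' c' n v * vm n (m (s n) v)
        ≤ (B.d n ^ (-(ε / 2 * h (s n))) * ampA B A c n (m (s n) v)) * vm n (m (s n) v) :=
          mul_le_mul_of_nonneg_right a3.2 hp1.vp.le
      _ = B.d n ^ (-(ε / 2 * h (s n))) * (ampA B A c n (m (s n) v) * vm n (m (s n) v)) := by ring
      _ ≤ B.d n ^ (-(ε / 2 * h (s n))) * (B.d n ^ (-del h (s n)) *
          (((alive (I n) (lev n (m (s n) v)) J).filter fun s_1 =>
          f n (m (s n) v) s_1 J = f n (m (s n) v) t J).card : ℝ)) :=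
          mul_le_mul_of_nonneg_left h2 (dpow_pos B n _).le
      _ ≤ B.d n ^ (-(ε / 2 * h (s n))) * (B.d n ^ (-(ε / 2 * h (s n))) *
          (((alive (I n) (lev n (m (s n) v)) J).filter fun s_1 =>
          f n (m (s n) v) s_1 J = f n (m (s n) v) t J).card : ℝ)) := by
          refine mul_le_mul_of_nonneg_left (mul_le_mul_of_nonneg_right ?_ hX) (dpow_pos B n _).le
          exact dpow_le B n (by linarith)
      _ = _ := by
          rw [hBp, ← mul_assoc, ← Real.rpow_add (B.pos n)]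
          congr 2
          ring
  · -- vpos
    intro v h0 h1
    filter_upwards [hP, hF v h0 h1] with n a1 a2
    exact (a1.2.2.2.1 v a2).vp
  · -- wpos
    intro j v h0 h1
    filter_upwards [hP, hF v h0 h1, hs.eventually (hevκ j)] with n a1 a2 a3
    exact ((a1.2.2.2.2.2 j a3).2 v a2).wp
  · -- tau
    intro j v h0 h1
    rw [Metric.tendsto_nhds]
    intro ε hε
    filter_upwards [hP, hF v h0 h1, heτ j v h0 h1 (ε / 4) (by positivity),
      ev_del hpos hs (ε := ε / 4) (by positivity), hs.eventually (hevκ j)]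
      with n a1 a2 a5 a7 a8
    have hh := hpos (s n)
    have hLn := B.L_pos n
    have hp0 := a1.2.2.2.2.2 j a8
    have hp1 := hp0.2 v a2
    have hp2 := hp0.2 1 (one_mem_Fq _)
    have t1 := hp1.ta
    have t2 := hp2.ta
    have hr : ∀ i : ℕ, 0 < rho i := fun i => by
      unfold Crest.Agent.R138.Mk163.rho; positivity
    have hw2v : 0 < w j n (m (s n) v) := hp1.wp
    have hw21 : 0 < w j n (m (s n) 1) := hp2.wp
    have hw1 : 0 < w j n 1 := hp0.1
    rw [Real.dist_eq, hL']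
    set Rv : ℝ := rho (lev n (m (s n) v)) / w j n (m (s n) v) with hRv
    set Rm : ℝ := rho (lev n (m (s n) 1)) / w j n (m (s n) 1) with hRm
    set R1 : ℝ := rho (lev n 1) / w j n 1 with hR1
    have pv : 0 < Rv := div_pos (hr _) hw2v
    have pm : 0 < Rm := div_pos (hr _) hw21
    have p1 : 0 < R1 := div_pos (hr _) hw1
    rw [Real.log_div pv.ne' p1.ne'] at t1
    rw [Real.log_div pm.ne' p1.ne'] at t2
    rw [Real.log_div pv.ne' pm.ne']
    set X : ℝ := (Real.log Rv - Real.log R1) / B.L n with hX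
    set Y : ℝ := (Real.log Rm - Real.log R1) / B.L n with hY
    have e1 : (Real.log Rv - Real.log Rm) / (h (s n) * B.L n) - τ' j v =
        ((X - Y) - h (s n) * τ' j v) / h (s n) := by
      rw [hX, hY]
      field_simp
      ring
    rw [e1, abs_div, abs_of_pos hh, div_lt_iff₀ hh]
    have h3 : |(X - Y) - h (s n) * τ' j v| ≤ 3 / 4 * ε * h (s n) := by
      rw [abs_le] at t1 t2 a5 ⊢
      constructor <;> nlinarith
    have : 0 < ε * h (s n) := mul_pos hε hh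
    linarith


open Classical in
/-- **zoom inside dense parts, carrying a monotone property of parts.** -/
theorem zoomR [Countable κ] (H : MkA B I G lev A c Λ τ f b vm w) {h : ℕ → ℝ} {m : ℕ → ℚ → ℚ}
    {c' Λ' : ℝ → ℝ} {τ' : κ → ℝ → ℝ} (hpos : ∀ k, 0 < h k)
    (hmem : ∀ k, ∀ x : ℚ, 0 ≤ x → x ≤ 1 → 0 ≤ m k x ∧ m k x ≤ 1)
    (hmono : ∀ x y : ℚ, 0 ≤ x → x ≤ y → y ≤ 1 → ∀ᶠ k in atTop, m k x ≤ m k y)
    (hlev : ∀ x y : ℚ, 0 ≤ x → x ≤ y → y ≤ 1 →
      Tendsto (fun k => ((m k y : ℝ) - m k x) / h k) atTop (𝓝 ((y : ℝ) - x)))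
    (hc : ∀ x : ℚ, 0 ≤ x → x ≤ 1 →
      Tendsto (fun k => (c (m k x) - c (m k 0)) / h k) atTop (𝓝 (c' x)))
    (hΛ : ∀ x : ℚ, 0 ≤ x → x ≤ 1 →
      Tendsto (fun k => (Λ (m k x) - Λ (m k 0)) / h k) atTop (𝓝 (Λ' x)))
    (hτ : ∀ j, ∀ x : ℚ, 0 ≤ x → x ≤ 1 →
      Tendsto (fun k => (τ j (m k x) - τ j (m k 1)) / h k) atTop (𝓝 (τ' j x)))
    (hlam : ∀ u v : ℝ, 0 ≤ u → u ≤ v → v ≤ 1 → 0 ≤ Λ' v - Λ' u ∧ Λ' v - Λ' u ≤ v - u)
    (hc0 : c' 0 = 0) (hΛ0 : Λ' 0 = 0) (hτ1 : ∀ j, τ' j 1 = 0)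
    {e : ℕ → ℝ} (he : Tendsto e atTop (𝓝 0)) {P : ℕ → ℕ → Finset (ℕ × ℝ) → Prop}
    (hPm : ∀ k n, ∀ S T : Finset (ℕ × ℝ), T ⊆ S → P k n S → P k n T)
    (hP : ∀ k, ∀ᶠ n in (U : Filter ℕ), ∃ S ⊆ I n,
      B.d n ^ (h k * e k) * ((I n).card : ℝ) ≤ (S.card : ℝ) ∧ P k n S) :
    ∃ (s : ℕ → ℕ) (B' : Base) (I' : ℕ → Finset (ℕ × ℝ)) (A' : ℕ → ℝ), Tendsto s U atTop ∧
      (∀ n, B'.d n = B.d n ^ h (s n)) ∧ (∀ n, I' n ⊆ I n) ∧
      MkA B' I' G (fun n x => lev n (m (s n) x)) A' c' Λ' τ' (fun n x => f n (m (s n) x))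
        (fun n x => b n (m (s n) x)) (fun n x => vm n (m (s n) x))
        (fun j n x => w j n (m (s n) x)) ∧
      ∀ᶠ n in (U : Filter ℕ), P (s n) n (I' n) := by
  obtain ⟨s0, hs0, hz⟩ := zoomW H hpos hmem hmono hlev hc hΛ hτ hlam hc0 hΛ0 hτ1
  set X : ℕ → ℝ := fun k => -(1 - ((m k 1 : ℚ) : ℝ)) + (Λ 1 - Λ ((m k 1 : ℚ) : ℝ)) with hX
  obtain ⟨s1, hs1, hs1'⟩ := exists_diag (fun k n =>
    (∃ S ⊆ I n, B.d n ^ (h k * e k) * ((I n).card : ℝ) ≤ (S.card : ℝ) ∧ P k n S) ∧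
    (m k 0 ≤ m k 1 → lev n (m k 0) ≤ lev n (m k 1)) ∧ (I n).Nonempty ∧
    ∀ x ∈ I n, B.d n ^ (X k + del h k) ≤
        (((I n).filter fun y => lc (lev n (m k 1)) y = lc (lev n (m k 1)) x).card : ℝ) ∧
      (((I n).filter fun y => lc (lev n (m k 1)) y = lc (lev n (m k 1)) x).card : ℝ) ≤
        B.d n ^ (X k - del h k)) (by
    intro k
    have e2 : ∀ᶠ n in (U : Filter ℕ), m k 0 ≤ m k 1 → lev n (m k 0) ≤ lev n (m k 1) := by
      rcases le_or_gt (m k 0) (m k 1) with hh | hh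
      · filter_upwards [H.lev_mono (m k 0) (m k 1) (hmem k 0 le_rfl zero_le_one).1 hh
          (hmem k 1 zero_le_one le_rfl).2] with n hn _ using hn
      · exact Eventually.of_forall fun n hn => absurd hn (not_le.2 hh)
    filter_upwards [hP k, e2, H.ne, fib_bounds H (m k 1) (hmem k 1 zero_le_one le_rfl).1
      (hmem k 1 zero_le_one le_rfl).2 (del_pos hpos k)] with n a1 a2 a3 a4
    exact ⟨a1, a2, a3, a4⟩)
  set s : ℕ → ℕ := fun n => min (s0 n) (s1 n) with hs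
  have hst : Tendsto s U atTop := by
    rw [tendsto_atTop]
    intro K
    filter_upwards [tendsto_atTop.1 hs0 K, tendsto_atTop.1 hs1 K] with n h1 h2 using le_min h1 h2
  have hgood := hs1'.mono fun n hn => hn (s n) (min_le_right _ _)
  have hm01 : ∀ᶠ n in (U : Filter ℕ), m (s n) 0 ≤ m (s n) 1 :=
    hst.eventually (hmono 0 1 le_rfl zero_le_one le_rfl)
  -- the windows
  have hwin : ∀ n, ∃ (I' : Finset (ℕ × ℝ)) (J0 : ℤ) (T : Finset (ℕ × ℝ)),
      IsWin (I n) I' (lev n (m (s n) 0)) (lev n (m (s n) 1)) J0 ∧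
      ((I n).Nonempty → I'.Nonempty) ∧ T ⊆ I' ∧
      (((∃ S ⊆ I n, B.d n ^ (h (s n) * e (s n)) * ((I n).card : ℝ) ≤ (S.card : ℝ) ∧ P (s n) n S) ∧
        lev n (m (s n) 0) ≤ lev n (m (s n) 1) ∧ (I n).Nonempty ∧
        ∀ x ∈ I n, B.d n ^ (X (s n) + del h (s n)) ≤
          (((I n).filter fun y => lc (lev n (m (s n) 1)) y = lc (lev n (m (s n) 1)) x).card : ℝ) ∧
          (((I n).filter fun y => lc (lev n (m (s n) 1)) y = lc (lev n (m (s n) 1)) x).card : ℝ) ≤
          B.d n ^ (X (s n) - del h (s n))) →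
        P (s n) n T ∧ B.d n ^ (h (s n) * e (s n) + 2 * del h (s n)) * (I'.card : ℝ) ≤ (T.card : ℝ)) := by
    intro n
    by_cases hc : (∃ S ⊆ I n, B.d n ^ (h (s n) * e (s n)) * ((I n).card : ℝ) ≤ (S.card : ℝ) ∧
        P (s n) n S) ∧
        lev n (m (s n) 0) ≤ lev n (m (s n) 1) ∧ (I n).Nonempty ∧
        ∀ x ∈ I n, B.d n ^ (X (s n) + del h (s n)) ≤
          (((I n).filter fun y => lc (lev n (m (s n) 1)) y = lc (lev n (m (s n) 1)) x).card : ℝ) ∧
          (((I n).filter fun y => lc (lev n (m (s n) 1)) y = lc (lev n (m (s n) 1)) x).card : ℝ) ≤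
          B.d n ^ (X (s n) - del h (s n))
    · obtain ⟨⟨S, hS1, hS2, hS3⟩, h2, h3, h4⟩ := hc
      obtain ⟨I', J0, w1, w2, w3⟩ := win_dense h2 hS1 h3 (dpow_pos B n _) (dpow_pos B n _)
        (dpow_pos B n _) hS2 h4
      refine ⟨I', J0, I'.filter fun x => x ∈ S, w1, fun _ => w2, filter_subset _ _, fun _ => ⟨?_, ?_⟩⟩
      · exact hPm _ _ _ _ (fun x hx => (mem_filter.1 hx).2) hS3
      · have hp := dpow_pos B n (X (s n) - del h (s n))
        have e1 : B.d n ^ (h (s n) * e (s n)) * B.d n ^ (X (s n) + del h (s n)) =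
            B.d n ^ (X (s n) - del h (s n)) * B.d n ^ (h (s n) * e (s n) + 2 * del h (s n)) := by
          rw [← Real.rpow_add (B.pos n), ← Real.rpow_add (B.pos n)]
          congr 1
          ring
        rw [e1, mul_assoc] at w3
        exact le_of_mul_le_mul_left w3 hp
    · obtain ⟨I', J0, w1, w2⟩ := exists_win (I n) (lev n (m (s n) 0)) (lev n (m (s n) 1))
      exact ⟨I', J0, ∅, w1, w2, empty_subset _, fun hc' => absurd hc' hc⟩
  choose I' J0 T w1 w2 w3 w4 using hwin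
  obtain ⟨B', A', hB', hM'⟩ := hz s hst (Eventually.of_forall fun n => min_le_left _ _) I' J0 w1 w2
  have hd : Dense B' T I' := by
    refine ⟨Eventually.of_forall w3, fun η hη => ?_⟩
    have he' : ∀ᶠ n in (U : Filter ℕ), e (s n) < η / 3 :=
      hst.eventually (he.eventually_lt_const (by positivity))
    filter_upwards [hgood, hm01, he', ev_del hpos hst (ε := η / 3) (by positivity)]
      with n a1 a2 a3 a4
    have h5 := (w4 n ⟨a1.1, a1.2.1 a2, a1.2.2.1, a1.2.2.2⟩).2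
    refine le_trans (mul_le_mul_of_nonneg_right ?_ (Nat.cast_nonneg _)) h5
    rw [hB', ← Real.rpow_mul (B.pos n).le]
    refine dpow_le B n ?_
    have hh := hpos (s n)
    nlinarith
  obtain ⟨J', j1, j2, -, j3⟩ := MkA.refine' hM' hd
  refine ⟨s, B', J', A', hst, hB', fun n => (j1 n).trans ((w3 n).trans (w1 n).sub), j3, ?_⟩
  filter_upwards [hgood, hm01] with n a1 a2
  exact hPm _ _ _ _ (j1 n) (w4 n ⟨a1.1, a1.2.1 a2, a1.2.2.1, a1.2.2.2⟩).1

end zoomW

end Crest.Agent.R136.Re436
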