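import Crest.Agent.R136.ReE1_436
import Crest.Agent.R136.ReD_436

/-!
# R136 (S0187), case E: re-flag (helper436), part 2: zoom of raw systems
-/

set_option autoImplicit false
set_option linter.unusedVariables false

open Finset Filter Topology

namespace Crest.Agent.R136.Re436

open Crest.Agent.R138.Ex926 (Base U exists_diag)
open Crest.Agent.R138.Mk163 (zc zl rho alive)
open Crest.Agent.R138.Dp76 (Dense)
open Crest.Agent.R138.MkRef627 (lc kc)
open Crest.Agent.R138.MkZoom779 (Fq Fq_mem ev_mem_Fq dpow_pos dpow_le)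
open Crest.Agent.R136.MkA627
open Crest.Agent.R136.Net191
open Crest.Agent.R136.NetQ186
open Crest.Agent.R136.Wq638
open Crest.Agent.R136.Top484
open Crest.Agent.R136.NatT550

/-- a dense part of a raw system contains a dense raw system -/
theorem RawS.refine {p : Par4} {D : Dat4} {π : Equiv.Perm (Fin 3)} {eE fA fB : ℕ → ℕ × ℝ → ℝ}
    (h : RawS p D π eE fA fB) {J : ℕ → Finset (ℕ × ℝ)} (hJ : Dense D.B J D.I)
    (hJ' : ∀ n, J n ⊆ D.I n) :
    ∃ J' : ℕ → Finset (ℕ × ℝ), (∀ n, J' n ⊆ J n) ∧ RawS p (subD D J') π eE fA fB := by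
  obtain ⟨J', j1, -, -, j3⟩ := MkA.refine' h.mka hJ
  refine ⟨J', j1, ⟨j3, fun u h0 h1 ε hε => ?_, h.wrs⟩⟩
  filter_upwards [h.near u h0 h1 ε hε] with n hn x hx y hy
  exact hn x (hJ' n (j1 n hx)) y (hJ' n (j1 n hy))

/-- **zoom of a raw system inside dense parts** -/
theorem RawS.zoom {p : Par4} {D : Dat4} {π : Equiv.Perm (Fin 3)} {eE fA fB : ℕ → ℕ × ℝ → ℝ}
    (hR : RawS p D π eE fA fB) {u r : ℕ → ℚ} (hu : ∀ k, 0 ≤ u k) (hr : ∀ k, 0 < r k)
    (hur : ∀ k, u k + r k ≤ 1) {e : ℕ → ℝ} (he : Tendsto e atTop (𝓝 0))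
    {P : ℕ → ℕ → Finset (ℕ × ℝ) → Prop}
    (hPm : ∀ k n, ∀ S T : Finset (ℕ × ℝ), T ⊆ S → P k n S → P k n T)
    (hP : ∀ k, ∀ᶠ n in (U : Filter ℕ), ∃ S ⊆ D.I n,
      D.B.d n ^ ((r k : ℝ) * e k) * ((D.I n).card : ℝ) ≤ (S.card : ℝ) ∧ P k n S) :
    ∃ (s : ℕ → ℕ) (B' : Base) (I' : ℕ → Finset (ℕ × ℝ)) (A' : ℕ → ℝ), Tendsto s U atTop ∧
      (∀ n, B'.d n = D.B.d n ^ ((r (s n) : ℚ) : ℝ)) ∧ (∀ n, I' n ⊆ D.I n) ∧
      RawS p (zooR D B' I' A' fun n x => u (s n) + r (s n) * x) π eE fA fB ∧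
      ∀ᶠ n in (U : Filter ℕ), P (s n) n (I' n) := by
  have hrR : ∀ k, (0 : ℝ) < (r k : ℝ) := fun k => by exact_mod_cast hr k
  have hmem : ∀ k, ∀ x : ℚ, 0 ≤ x → x ≤ 1 → 0 ≤ u k + r k * x ∧ u k + r k * x ≤ 1 := by
    intro k x h0 h1
    have h2 := hu k
    have h3 := hr k
    have h4 := hur k
    constructor
    · positivity
    · nlinarith
  have hdiv : ∀ (a : ℝ) (k : ℕ) (x y : ℚ),
      (a * ((u k + r k * y : ℚ) : ℝ) - a * ((u k + r k * x : ℚ) : ℝ)) / (r k : ℝ) =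
        a * ((y : ℝ) - x) := by
    intro a k x y
    have := (hrR k).ne'
    push_cast
    field_simp
    ring
  obtain ⟨s, B', I', A', s1, s2, s3, s4, s5⟩ := zoomR (h := fun k => (r k : ℝ))
    (m := fun k x => u k + r k * x) (c' := fun v => p.g * v) (Λ' := fun v => 0 * v)
    (τ' := fun j v => p.θ j * (1 - v)) hR.mka hrR hmem
    (fun x y _ hxy _ => Eventually.of_forall fun k => by
      have := hr k
      nlinarith)
    (fun x y _ _ _ => by
      have h1 := fun k => hdiv 1 k x y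
      simp only [one_mul] at h1
      simp only [h1]
      exact tendsto_const_nhds)
    (fun x _ _ => by
      have h1 := fun k => hdiv p.g k 0 x
      simp only [Rat.cast_zero, sub_zero] at h1
      simp only [h1]
      exact tendsto_const_nhds)
    (fun x _ _ => by simp)
    (fun j x _ _ => by
      have h1 : ∀ k, (p.θ j * (1 - ((u k + r k * x : ℚ) : ℝ)) -
          p.θ j * (1 - ((u k + r k * 1 : ℚ) : ℝ))) / (r k : ℝ) = p.θ j * (1 - x) := by
        intro k
        have := (hrR k).ne'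
        push_cast
        field_simp
        ring
      simp only [h1]
      exact tendsto_const_nhds)
    (fun u v _ huv _ => by constructor <;> linarith) (by simp) (by simp) (fun j => by simp) he
    (P := fun k n S => P k n S ∧ (∀ x ∈ Fq k, ∀ i ∈ D.I n, ∀ j ∈ D.I n,
      kc (D.lev n (u k + r k * x)) (D.f n (u k + r k * x)) j =
        kc (D.lev n (u k + r k * x)) (D.f n (u k + r k * x)) i → ∀ t,
      |coQ (incQ π D.L eE fA fB n i) (incQ π D.L eE fA fB n j) t| ≤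
        natW D n (u k + r k * x) t * D.B.d n ^ (-((r k : ℝ) / (k + 1)))) ∧
      ∀ x ∈ Fq k, ∀ j, 0 < D.w j n (u k + r k * x) ∧
        D.wr j n ≤ D.B.d n ^ (k : ℝ) * D.w j n (u k + r k * x) ∧
        D.w j n (u k + r k * x) ≤ D.B.d n ^ (k : ℝ) * D.cr j n)
    (fun k n S T hTS h => ⟨hPm k n S T hTS h.1, h.2⟩) (by
      intro k
      have e2 : ∀ᶠ n in (U : Filter ℕ), ∀ x ∈ Fq k, ∀ j, 0 < D.w j n (u k + r k * x) ∧
          D.wr j n ≤ D.B.d n ^ (k : ℝ) * D.w j n (u k + r k * x) ∧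
          D.w j n (u k + r k * x) ≤ D.B.d n ^ (k : ℝ) * D.cr j n := by
        rw [Filter.eventually_all_finset]
        intro x hx
        obtain ⟨hx0, hx1⟩ := Fq_mem hx
        rw [Filter.eventually_all]
        intro j
        filter_upwards [hR.mka.wpos j _ (hmem k x hx0 hx1).1 (hmem k x hx0 hx1).2,
          hR.wrs (k : ℝ) j _ (hmem k x hx0 hx1).1 (hmem k x hx0 hx1).2] with n a1 a2
        exact ⟨a1, a2⟩
      have e1 : ∀ᶠ n in (U : Filter ℕ), ∀ x ∈ Fq k, ∀ i ∈ D.I n, ∀ j ∈ D.I n,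
          kc (D.lev n (u k + r k * x)) (D.f n (u k + r k * x)) j =
            kc (D.lev n (u k + r k * x)) (D.f n (u k + r k * x)) i → ∀ t,
          |coQ (incQ π D.L eE fA fB n i) (incQ π D.L eE fA fB n j) t| ≤
            natW D n (u k + r k * x) t * D.B.d n ^ (-((r k : ℝ) / (k + 1))) := by
        rw [Filter.eventually_all_finset]
        intro x hx
        obtain ⟨hx0, hx1⟩ := Fq_mem hx
        have hd : 0 < (r k : ℝ) / (k + 1) := div_pos (hrR k) (by positivity)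
        exact hR.near _ (hmem k x hx0 hx1).1 (hmem k x hx0 hx1).2 _ hd
      filter_upwards [hP k, e1, e2] with n h1 h2 h3
      obtain ⟨S, a1, a2, a3⟩ := h1
      exact ⟨S, a1, a2, a3, h2, h3⟩)
  refine ⟨s, B', I', A', s1, s2, s3, ⟨s4, fun v h0 h1 ε hε => ?_, fun C j v h0 h1 => ?_⟩,
    s5.mono fun n hn => hn.1⟩
  swap
  · have hC : ∀ᶠ n in (U : Filter ℕ), |C| ≤ (s n : ℝ) :=
      (tendsto_natCast_atTop_atTop.comp s1).eventually_ge_atTop |C|
    filter_upwards [s5, s1.eventually (ev_mem_Fq h0 h1), hC] with n a1 a2 a3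
    obtain ⟨b1, b2, b3⟩ := a1.2.2 v a2 j
    show D.wr j n ≤ B'.d n ^ C * D.w j n (u (s n) + r (s n) * v) ∧
      D.w j n (u (s n) + r (s n) * v) ≤ B'.d n ^ C * D.cr j n
    have h7 := hrR (s n)
    have h8 : (r (s n) : ℝ) ≤ 1 := by
      have h9 := hur (s n)
      have h10 := hu (s n)
      have : r (s n) ≤ 1 := by linarith
      exact_mod_cast this
    have e1 : D.B.d n ^ ((s n : ℕ) : ℝ) ≤ B'.d n ^ C := by
      rw [s2, ← Real.rpow_mul (D.B.pos n).le]
      refine dpow_le D.B n ?_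
      have h11 := le_abs_self C
      have h12 := abs_nonneg C
      nlinarith
    have hcr : 0 ≤ D.cr j n := by
      have h13 := b1.le.trans b3
      exact nonneg_of_mul_nonneg_right h13 (dpow_pos D.B n _)
    exact ⟨b2.trans (mul_le_mul_of_nonneg_right e1 b1.le),
      b3.trans (mul_le_mul_of_nonneg_right e1 hcr)⟩
  have hlim : ∀ᶠ n in (U : Filter ℕ), 1 / ((s n : ℝ) + 1) < ε :=
    (tendsto_one_div_add_atTop_nhds_zero_nat.comp s1).eventually_lt_const hε
  filter_upwards [s5, s1.eventually (ev_mem_Fq h0 h1), hlim] with n a1 a2 a3 x hx y hy hk t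
  have h5 := a1.2.1 v a2 x (s3 n hx) y (s3 n hy) hk t
  show _ ≤ natW D n (u (s n) + r (s n) * v) t * B'.d n ^ (-ε)
  refine h5.trans ?_
  have hn0 : 0 ≤ natW D n (u (s n) + r (s n) * v) t := by
    have h6 := (abs_nonneg _).trans h5
    exact nonneg_of_mul_nonneg_left h6 (dpow_pos D.B n _)
  refine mul_le_mul_of_nonneg_left ?_ hn0
  rw [s2, ← Real.rpow_mul (D.B.pos n).le]
  refine dpow_le D.B n ?_
  have h7 := hrR (s n)
  have e1 : (r (s n) : ℝ) / ((s n : ℝ) + 1) = (r (s n) : ℝ) * (1 / ((s n : ℝ) + 1)) := by ring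
  rw [e1]
  nlinarith

end Crest.Agent.R136.Re436
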