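import Crest.Agent.R136.ReE2_436
import Crest.Agent.R136.Ut2_627

/-!
# R136 (S0187), case E: re-flag (helper436), part 3: relation of infinite order after a zoom

`LineInf` : on every line the pairs `(E, F_a)` lie on one straight line, to infinite order.
`exists_lineInf` : `RawS` + slot 3 invisible + `LineRel` ⊢ a zoom with `RawS`, `InvS 3`, `LineInf`.
-/

set_option autoImplicit false
set_option linter.unusedVariables false

open Finset Filter Topology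

namespace Crest.Agent.R136.Re436

open Crest.Agent.R138.Ex926 (Base U exists_diag)
open Crest.Agent.R138.Mk163 (zc zl rho alive)
open Crest.Agent.R138.Dp76 (Dense)
open Crest.Agent.R138.MkRef627 (lc kc)
open Crest.Agent.R138.MkZoom779 (Fq Fq_mem ev_mem_Fq dpow_pos dpow_le)
open Crest.Agent.R136.MkA627
open Crest.Agent.R136.Net191
open Crest.Agent.R136.NetQ186
open Crest.Agent.R136.Wq638
open Crest.Agent.R136.Top484
open Crest.Agent.R136.NatT550
open Crest.Agent.R136.Ut627 (prF btF prLinF wpos_all)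
open Crest.Agent.R136.Slt627 (eq_exp)

/-- relation of infinite order on every line -/
def LineInf (D : Dat4) (π : Equiv.Perm (Fin 3)) (eE fA fB : ℕ → ℕ × ℝ → ℝ) : Prop :=
  ∀ M : ℝ, ∀ᶠ n in (U : Filter ℕ), ∀ x ∈ D.I n, ∃ a b : ℝ, a ^ 2 + b ^ 2 = 1 ∧ ∀ y ∈ D.I n,
    y.1 = x.1 →
      |a * (coQ (incQ π D.L eE fA fB n x) (incQ π D.L eE fA fB n y) 2 / natW D n 0 2) +
        b * (coQ (incQ π D.L eE fA fB n x) (incQ π D.L eE fA fB n y) 4 / natW D n 0 4)| ≤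
        D.B.d n ^ M

/-- infinite gap between thickness and narrow width -/
def GapInf (D : Dat4) : Prop :=
  ∀ M : ℝ, ∀ᶠ n in (U : Filter ℕ), D.w 0 n 0 ≤ D.B.d n ^ M * D.w 2 n 0

/-- no gap -/
def NoGap (D : Dat4) : Prop :=
  ∀ γ : ℝ, 0 < γ → ∀ᶠ n in (U : Filter ℕ), D.B.d n ^ γ * D.w 2 n 0 ≤ D.w 0 n 0

theorem noGap_of {D : Dat4} (h : ¬ Gap23 D) : NoGap D := by
  intro γ hγ
  have h1 : ¬ ∀ᶠ n in (U : Filter ℕ), D.w 0 n 0 ≤ D.B.d n ^ γ * D.w 2 n 0 := fun hc => h ⟨γ, hγ, hc⟩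
  rw [← Ultrafilter.eventually_not] at h1
  filter_upwards [h1] with n hn using (not_le.1 hn).le

theorem GapInf.gap {D : Dat4} (h : GapInf D) : Gap23 D := ⟨1, one_pos, h 1⟩

/-- comparison of the ratio `w 0 / w 2` at two levels, `θ 0 = θ 2` -/
theorem ratio_lev {p : Par4} {D : Dat4}
    (hM : MkA D.B D.I (D.G p) D.lev D.A (fun v => p.g * v) (fun v => 0 * v)
      (fun j v => p.θ j * (1 - v)) D.f D.b D.vm D.w) (h02 : p.θ 0 = p.θ 2) {u : ℚ} (h0 : 0 ≤ u)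
    (h1 : u ≤ 1) {ε : ℝ} (hε : 0 < ε) :
    ∀ᶠ n in (U : Filter ℕ), (∀ k, 0 < D.w k n u) ∧ (∀ k, 0 < D.w k n 0) ∧
      D.w 0 n u / D.w 2 n u ≤ D.w 0 n 0 / D.w 2 n 0 * D.B.d n ^ (-ε) ∧
      D.w 0 n 0 / D.w 2 n 0 * D.B.d n ^ ε ≤ D.w 0 n u / D.w 2 n u := by
  have hp := prLinF hM 1
  have h2 := hp.2 u h0 h1
  have hb : btF p.θ 1 * (u : ℝ) = 0 := by
    show (p.θ 2 - p.θ 0) * (u : ℝ) = 0
    rw [h02]; ring
  rw [hb] at h2
  have h3 := (Metric.tendsto_nhds.1 h2) ε hε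
  filter_upwards [h3, wpos_all hM h0 h1, wpos_all hM le_rfl zero_le_one] with n a1 a2 a3
  rw [Real.dist_eq, sub_zero] at a1
  obtain ⟨a4, a5⟩ := abs_le.1 a1.le
  have hS : 0 < D.w 0 n 0 / D.w 2 n 0 := div_pos (a3 0) (a3 2)
  have hP : 0 < D.w 0 n u / D.w 2 n u := div_pos (a2 0) (a2 2)
  have h5 := eq_exp (B := D.B) (n := n) hS hP
  refine ⟨a2, a3, ?_, ?_⟩
  · rw [h5]
    exact mul_le_mul_of_nonneg_left (dpow_le D.B n a4) hS.le
  · rw [h5]
    exact mul_le_mul_of_nonneg_left (dpow_le D.B n a5) hS.le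

set_option maxHeartbeats 800000 in
/-- **zoom which makes the relation infinite** -/
theorem exists_lineInf {p : Par4} {D : Dat4} {π : Equiv.Perm (Fin 3)} {eE fA fB : ℕ → ℕ × ℝ → ℝ}
    (hR : RawS p D π eE fA fB) (h02 : p.θ 0 = p.θ 2)
    (h3 : ∃ c : ℝ, 0 < c ∧ ∀ u : ℚ, 0 ≤ u → u ≤ 1 → ∀ᶠ n in (U : Filter ℕ),
      ∀ x ∈ D.I n, ∀ y ∈ D.I n, y.1 = x.1 →
        |coQ (incQ π D.L eE fA fB n x) (incQ π D.L eE fA fB n y) 3| ≤
          natW D n u 3 * D.B.d n ^ c) (hL : LineRel D π eE fA fB) :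
    ∃ D' : Dat4, D'.L = D.L ∧ (∀ n, D'.I n ⊆ D.I n) ∧ RawS p D' π eE fA fB ∧
      InvS D' π eE fA fB 3 ∧ LineInf D' π eE fA fB ∧ (Gap23 D → GapInf D') ∧
      (¬ Gap23 D → NoGap D') := by
  obtain ⟨θ, hθ, hL⟩ := hL
  obtain ⟨c, hc, h3⟩ := h3
  have hε : ∀ k : ℕ, (0 : ℝ) < 1 / ((k : ℝ) + 1) ^ 2 := fun k => by positivity
  choose u h hu hh hhe hul hS using fun k : ℕ => hL (1 / ((k : ℝ) + 1) ^ 2) (hε k)
  have hr : ∀ k : ℕ, ∃ r : ℚ, h k / (2 * ((k : ℝ) + 1)) < (r : ℝ) ∧ (r : ℝ) < h k / ((k : ℝ) + 1) :=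
    fun k => exists_rat_btwn (by
      have h1 := hh k
      rw [div_lt_div_iff₀ (by positivity) (by positivity)]
      nlinarith)
  choose r hr1 hr2 using hr
  have hr0 : ∀ k, 0 < r k := fun k => by
    have h1 := hh k
    have : (0 : ℝ) < (r k : ℝ) := lt_trans (by positivity) (hr1 k)
    exact_mod_cast this
  have hr0' : ∀ k, (0 : ℝ) < (r k : ℝ) := fun k => by exact_mod_cast hr0 k
  have hrk : ∀ k : ℕ, (r k : ℝ) * ((k : ℝ) + 1) ≤ h k := fun k => by
    have := (hr2 k).le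
    rwa [le_div_iff₀ (by positivity)] at this
  have hrh : ∀ k : ℕ, (r k : ℝ) ≤ h k := fun k => by
    have h1 := hrk k
    have h2 := hr0' k
    have h4 : (0 : ℝ) ≤ (k : ℝ) := Nat.cast_nonneg k
    nlinarith
  have hr1' : ∀ k : ℕ, (r k : ℝ) ≤ 1 := fun k => by
    have h1 := hrh k
    have h2 := hul k
    have h3 : (0 : ℝ) ≤ (u k : ℝ) := by exact_mod_cast hu k
    linarith
  -- gap at the levels
  obtain ⟨γ, hγ, hgap⟩ : ∃ γ : ℝ, 0 < γ ∧ ∀ k, ∀ᶠ n in (U : Filter ℕ),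
      (Gap23 D → D.w 0 n (u k) ≤ D.B.d n ^ γ * D.w 2 n (u k)) ∧
      (¬ Gap23 D → D.B.d n ^ ((r k : ℝ) * (1 / ((k : ℝ) + 1))) * D.w 2 n (u k) ≤
        D.w 0 n (u k)) := by
    have hu1 : ∀ k, u k ≤ 1 := fun k => by
      have h1 := hul k
      have h2 := hh k
      have : ((u k : ℚ) : ℝ) ≤ 1 := by linarith
      exact_mod_cast this
    by_cases hG : Gap23 D
    · obtain ⟨γ, hγ, hg⟩ := hG
      refine ⟨γ / 2, by positivity, fun k => ?_⟩
      filter_upwards [hg, ratio_lev hR.mka h02 (hu k) (hu1 k) (ε := γ / 2) (by positivity)]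
        with n a1 a2
      obtain ⟨b1, b2, b3, b4⟩ := a2
      refine ⟨fun _ => ?_, fun hn => absurd ⟨γ, hγ, hg⟩ hn⟩
      rw [← div_le_iff₀ (b1 2)]
      refine b3.trans ?_
      rw [← div_le_iff₀ (b2 2)] at a1
      calc D.w 0 n 0 / D.w 2 n 0 * D.B.d n ^ (-(γ / 2)) ≤ D.B.d n ^ γ * D.B.d n ^ (-(γ / 2)) :=
            mul_le_mul_of_nonneg_right a1 (dpow_pos D.B n _).le
        _ = D.B.d n ^ (γ / 2) := by rw [← Real.rpow_add (D.B.pos n)]; congr 1; ring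
    · refine ⟨1, one_pos, fun k => ?_⟩
      have hk : 0 < (r k : ℝ) * (1 / ((k : ℝ) + 1)) / 2 := by
        have := hr0' k
        positivity
      filter_upwards [noGap_of hG _ hk, ratio_lev hR.mka h02 (hu k) (hu1 k) hk] with n a1 a2
      obtain ⟨b1, b2, b3, b4⟩ := a2
      refine ⟨fun hn => absurd hn hG, fun _ => ?_⟩
      rw [← le_div_iff₀ (b1 2)]
      refine le_trans ?_ b4
      rw [← le_div_iff₀ (b2 2)] at a1
      calc D.B.d n ^ ((r k : ℝ) * (1 / ((k : ℝ) + 1)))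
          = D.B.d n ^ ((r k : ℝ) * (1 / ((k : ℝ) + 1)) / 2) *
            D.B.d n ^ ((r k : ℝ) * (1 / ((k : ℝ) + 1)) / 2) := by
            rw [← Real.rpow_add (D.B.pos n)]; congr 1; ring
        _ ≤ _ := mul_le_mul_of_nonneg_right a1 (dpow_pos D.B n _).le
  obtain ⟨s, B', I', A', s1, s2, s3, s4, s5⟩ := hR.zoom (u := u) (r := r) hu hr0
    (fun k => by
      have h1 := hul k
      have h2 := hrh k
      have : ((u k + r k : ℚ) : ℝ) ≤ 1 := by push_cast; linarith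
      exact_mod_cast this)
    (e := fun k => h k * (1 / ((k : ℝ) + 1) ^ 2) / (r k : ℝ)) (by
      refine squeeze_zero (g := fun k : ℕ => 2 * (1 / ((k : ℝ) + 1))) (fun k => ?_) (fun k => ?_) ?_
      · have h1 := hh k
        have h2 := hr0' k
        positivity
      · have h1 := hr1 k
        have h2 := hr0' k
        have h4 := hh k
        rw [div_lt_iff₀ (by positivity)] at h1
        rw [div_le_iff₀ h2]
        have e1 : 2 * (1 / ((k : ℝ) + 1)) * (r k : ℝ) =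
            ((r k : ℝ) * (2 * ((k : ℝ) + 1))) * (1 / ((k : ℝ) + 1) ^ 2) := by
          field_simp
        rw [e1]
        exact mul_le_mul_of_nonneg_right h1.le (by positivity)
      · have := (tendsto_one_div_add_atTop_nhds_zero_nat (𝕜 := ℝ)).const_mul 2
        simpa using this)
    (P := fun k n S =>
      (∀ x ∈ S, ∃ a b : ℝ, a ^ 2 + b ^ 2 = 1 ∧ ∀ y ∈ S, y.1 = x.1 →
        zc (D.lev n (u k)) y.2 = zc (D.lev n (u k)) x.2 →
          |a * (coQ (incQ π D.L eE fA fB n x) (incQ π D.L eE fA fB n y) 2 / natW D n (u k) 2) +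
            b * (coQ (incQ π D.L eE fA fB n x) (incQ π D.L eE fA fB n y) 4 / natW D n (u k) 4)| ≤
            D.B.d n ^ (h k * θ)) ∧
      (∀ x ∈ D.I n, ∀ y ∈ D.I n, y.1 = x.1 →
        |coQ (incQ π D.L eE fA fB n x) (incQ π D.L eE fA fB n y) 3| ≤
          natW D n (u k) 3 * D.B.d n ^ c) ∧
      (Gap23 D → D.w 0 n (u k) ≤ D.B.d n ^ γ * D.w 2 n (u k)) ∧
      (¬ Gap23 D → D.B.d n ^ ((r k : ℝ) * (1 / ((k : ℝ) + 1))) * D.w 2 n (u k) ≤
        D.w 0 n (u k)) ∧ ∀ j, 0 < D.w j n (u k))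
    (fun k n S T hTS hP => by
      refine ⟨fun x hx => ?_, hP.2⟩
      obtain ⟨a, b, h1, h2⟩ := hP.1 x (hTS hx)
      exact ⟨a, b, h1, fun y hy => h2 y (hTS hy)⟩)
    (by
      intro k
      have hu1 : u k ≤ 1 := by
        have h1 := hul k
        have h2 := hh k
        have : ((u k : ℚ) : ℝ) ≤ 1 := by linarith
        exact_mod_cast this
      filter_upwards [hS k, h3 (u k) (hu k) hu1, hgap k, wpos_all hR.mka (hu k) hu1]
        with n a1 a2 a3 a4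
      obtain ⟨S, b1, b2, b3⟩ := a1
      refine ⟨S, b1, ?_, b3, a2, a3.1, a3.2, a4⟩
      have e1 : (r k : ℝ) * (h k * (1 / ((k : ℝ) + 1) ^ 2) / (r k : ℝ)) =
          h k * (1 / ((k : ℝ) + 1) ^ 2) := by
        have := (hr0' k).ne'
        field_simp
      rw [e1]
      exact b2)
  have hM0 : ∀ n, (u (s n) + r (s n) * 0 : ℚ) = u (s n) := fun n => by ring
  have hrs : ∀ n, (0 : ℝ) < (r (s n) : ℝ) := fun n => hr0' _
  have hBe : ∀ n (a : ℝ), B'.d n ^ a = D.B.d n ^ ((r (s n) : ℝ) * a) := fun n a => by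
    rw [s2, ← Real.rpow_mul (D.B.pos n).le]
  have hNat : ∀ n t, natW (zooR D B' I' A' fun n x => u (s n) + r (s n) * x) n 0 t =
      natW D n (u (s n)) t := fun n t => by
    show natW D n (u (s n) + r (s n) * 0) t = _
    rw [hM0]
  have hlarge : ∀ C : ℝ, ∀ᶠ n in (U : Filter ℕ), C ≤ (s n : ℝ) := fun C =>
    (tendsto_natCast_atTop_atTop.comp s1).eventually_ge_atTop C
  have hrsm : ∀ δ : ℝ, 0 < δ → ∀ᶠ n in (U : Filter ℕ), (r (s n) : ℝ) ≤ δ := fun δ hδ => by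
    have h1 : ∀ᶠ n in (U : Filter ℕ), 1 / ((s n : ℝ) + 1) < δ :=
      (tendsto_one_div_add_atTop_nhds_zero_nat.comp s1).eventually_lt_const hδ
    filter_upwards [h1] with n hn
    have h2 := hrk (s n)
    have h3 : h (s n) ≤ 1 := by
      have h4 := hul (s n)
      have h5 : (0 : ℝ) ≤ (u (s n) : ℝ) := by exact_mod_cast hu (s n)
      linarith
    have h4 : (r (s n) : ℝ) ≤ 1 / ((s n : ℝ) + 1) := by
      rw [le_div_iff₀ (by positivity)]
      linarith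
    linarith
  refine ⟨zooR D B' I' A' fun n x => u (s n) + r (s n) * x, rfl, s3, s4, ?_, ?_, ?_, ?_⟩
  · -- InvS 3
    intro M
    have h1 : ∀ᶠ n in (U : Filter ℕ), (r (s n) : ℝ) ≤ c / (|M| + 1) :=
      hrsm _ (div_pos hc (by positivity))
    filter_upwards [s5, h1] with n a1 a2 x hx y hy hxy
    rw [hNat]
    show _ ≤ _ * B'.d n ^ M
    rw [hBe]
    refine (a1.2.1 x (s3 n hx) y (s3 n hy) hxy).trans ?_
    have hn0 : 0 ≤ natW D n (u (s n)) 3 := by
      have := a1.2.2.2.2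
      exact (div_pos (this 0) (this 2)).le
    refine mul_le_mul_of_nonneg_left (dpow_le D.B n ?_) hn0
    rw [le_div_iff₀ (by positivity)] at a2
    have h5 := le_abs_self M
    have h6 := hrs n
    nlinarith
  · -- LineInf
    intro M
    filter_upwards [s5, hlarge (|M| / θ), s4.mka.cell0] with n a1 a2 a3 x hx
    obtain ⟨a, b, h1, h2⟩ := a1.1 x hx
    refine ⟨a, b, h1, fun y hy hxy => ?_⟩
    have hz : zc (D.lev n (u (s n))) y.2 = zc (D.lev n (u (s n))) x.2 := by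
      have h5 : zc (D.lev n (u (s n) + r (s n) * 0)) y.2 =
          zc (D.lev n (u (s n) + r (s n) * 0)) x.2 := a3 y hy x hx
      rwa [hM0] at h5
    have h5 := h2 y hy hxy hz
    rw [hNat, hNat]
    refine h5.trans ?_
    show _ ≤ B'.d n ^ M
    rw [hBe]
    refine dpow_le D.B n ?_
    have h6 := hrk (s n)
    have h7 := hrs n
    rw [div_le_iff₀ hθ] at a2
    have h8 := le_abs_self M
    have h9 : (r (s n) : ℝ) * M ≤ (r (s n) : ℝ) * ((s n : ℝ) * θ) :=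
      mul_le_mul_of_nonneg_left (h8.trans a2) h7.le
    have h10 : (r (s n) : ℝ) * ((s n : ℝ) + 1) * θ ≤ h (s n) * θ :=
      mul_le_mul_of_nonneg_right h6 hθ.le
    nlinarith [mul_pos h7 hθ]
  · -- gap
    intro hG M
    have h1 : ∀ᶠ n in (U : Filter ℕ), (r (s n) : ℝ) ≤ γ / (|M| + 1) :=
      hrsm _ (div_pos hγ (by positivity))
    filter_upwards [s5, h1] with n a1 a2
    show D.w 0 n (u (s n) + r (s n) * 0) ≤ B'.d n ^ M * D.w 2 n (u (s n) + r (s n) * 0)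
    rw [hM0, hBe]
    refine (a1.2.2.1 hG).trans ?_
    refine mul_le_mul_of_nonneg_right (dpow_le D.B n ?_) (a1.2.2.2.2 2).le
    rw [le_div_iff₀ (by positivity)] at a2
    have h5 := le_abs_self M
    have h6 := hrs n
    nlinarith
  · -- no gap
    intro hG δ hδ
    have h1 : ∀ᶠ n in (U : Filter ℕ), 1 / ((s n : ℝ) + 1) < δ :=
      (tendsto_one_div_add_atTop_nhds_zero_nat.comp s1).eventually_lt_const hδ
    filter_upwards [s5, h1] with n a1 a2
    show B'.d n ^ δ * D.w 2 n (u (s n) + r (s n) * 0) ≤ D.w 0 n (u (s n) + r (s n) * 0)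
    rw [hM0, hBe]
    refine le_trans ?_ (a1.2.2.2.1 hG)
    refine mul_le_mul_of_nonneg_right (dpow_le D.B n ?_) (a1.2.2.2.2 2).le
    exact mul_le_mul_of_nonneg_left a2.le (hrs n).le

end Crest.Agent.R136.Re436
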