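import Crest.Agent.R136.Exch2_201

/-!
# R136: new plane `V3` through `V2`, same names (helper201)

`θ 0 = θ 2`.  New flags `fa - β e`, `fb + β`, `β` any function with `|β| ≤ d^(-ε) w₀/w₂` (all `ε`).
`couQ_rf` : the chart; `reflag_pre` : `ThickPre` for the new flags, `own_near` and `tw` of the three
slots being the input.
-/

set_option autoImplicit false
set_option linter.unusedVariables false

open Finset Filter Topology

namespace Crest.Agent.R136.Exch201

open Crest.Agent.R138.Ex926 (Base U QProf)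
open Crest.Agent.R138.Dp76 (dpow_pos dpow_add dpow_le dpow_le_one)
open Crest.Agent.R138.Mk163 (zc zl rho alive)
open Crest.Agent.R138.MkRef627 (lc kc)
open Crest.Agent.R136.MkA627
open Crest.Agent.R136.Net191
open Crest.Agent.R136.NetQ186
open Crest.Agent.R136.GeoQ186
open Crest.Agent.R136.Sh605
open Crest.Agent.R136.Lq196
open Crest.Agent.R136.Wq638
open Crest.Agent.R136.Top484
open Crest.Agent.R136.NatT550
open Crest.Agent.R136.TopB550

/-- the same incidence with another plane `V3` through `V2` -/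
def rfI (i : Fq4) (β : ℝ) : Fq4 where
  A := i.A
  B := i.B
  ca := i.ca
  cb := i.cb
  y0 := i.y0
  y1 := i.y1
  y2 := i.y2
  z := i.z
  e := i.e
  fa := i.fa - β * i.e
  fb := i.fb + β

theorem coQ_rfI (i j : Fq4) (β β' : ℝ) :
    coQ (rfI i β) (rfI j β') 0 = coQ i j 0 ∧
    coQ (rfI i β) (rfI j β') 1 = coQ i j 1 ∧
    coQ (rfI i β) (rfI j β') 2 = coQ i j 2 ∧
    coQ (rfI i β) (rfI j β') 3 = coQ i j 3 + (β' - β) ∧
    coQ (rfI i β) (rfI j β') 4 = coQ i j 4 - β' * coQ i j 2 ∧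
    coQ (rfI i β) (rfI j β') 5 = coQ i j 5 ∧
    coQ (rfI i β) (rfI j β') 6 = coQ i j 6 ∧
    coQ (rfI i β) (rfI j β') 7 = coQ i j 7 - β * coQ i j 6 ∧
    coQ (rfI i β) (rfI j β') 8 = coQ i j 8 ∧
    coQ (rfI i β) (rfI j β') 9 = coQ i j 9 ∧
    coQ (rfI i β) (rfI j β') 10 = coQ i j 10 - β * coQ i j 9 := by
  simp only [coQ, rfI, Fq4.pa, Fq4.pb, Fq4.py, Fq4.vy, Matrix.cons_val]
  refine ⟨trivial, trivial, trivial, by ring, by ring, trivial, trivial, by ring, trivial,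
    trivial, by ring⟩

/-- new slope of `V3`, wide direction -/
def aR (eE fA β : ℕ → ℕ × ℝ → ℝ) : ℕ → ℕ × ℝ → ℝ := fun n x => fA n x - β n x * eE n x

/-- new slope of `V3`, narrow direction -/
def bR (fB β : ℕ → ℕ × ℝ → ℝ) : ℕ → ℕ × ℝ → ℝ := fun n x => fB n x + β n x

section

variable {B : Base} {lev : ℕ → ℚ → ℕ} {w : Fin 3 → ℕ → ℚ → ℝ} {w0 : ℝ} {π : Equiv.Perm (Fin 3)}
  {L : ℕ → ℕ → Ln4} {eE fA fB β : ℕ → ℕ × ℝ → ℝ} {n : ℕ}

theorem couQ_rf (hw : ∀ k, 0 < w k n 0) (x y : ℕ × ℝ) {C C' : Fin 11 → ℝ}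
    (hC : C = couQ B lev w w0 (incQ π L eE fA fB) n x y) {r : ℝ} (hr : r = rt B lev w w0 n)
    (hC' : C' = couQ B lev w w0 (incQ π L eE (aR eE fA β) (bR fB β)) n x y) :
    (∀ k, k ≠ 3 → k ≠ 4 → k ≠ 7 → k ≠ 10 → C' k = C k) ∧
    C' 3 = C 3 + r⁻¹ * (β n y - β n x) ∧ C' 4 = C 4 - r⁻¹ * β n y * C 2 ∧
    C' 7 = C 7 - r⁻¹ * β n x * C 6 ∧ C' 10 = C 10 - r⁻¹ * β n x * C 9 := by
  have hH := uH_pos (B := B) (lev := lev) (w0 := w0) n
  have ha := uA_pos (B := B) (lev := lev) (w0 := w0) (hw 1)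
  have hb := uB_pos (B := B) (lev := lev) (w0 := w0) (hw 2)
  have hy := uY_pos (B := B) (lev := lev) (w0 := w0) (hw 0)
  have e0 : ∀ k, C k = sfac (uH B lev w0 n) (uA B lev w w0 n) (uB B lev w w0 n)
      (uY B lev w w0 n) k * coQ (incQ π L eE fA fB n x) (incQ π L eE fA fB n y) k := fun k => by
    rw [hC]
    exact coQ_scl hH.ne' ha.ne' hb.ne' hy.ne' _ _ _
  have e1 : ∀ k, C' k = sfac (uH B lev w0 n) (uA B lev w w0 n) (uB B lev w w0 n)
      (uY B lev w w0 n) k * coQ (rfI (incQ π L eE fA fB n x) (β n x))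
        (rfI (incQ π L eE fA fB n y) (β n y)) k := fun k => by
    rw [hC']
    exact coQ_scl hH.ne' ha.ne' hb.ne' hy.ne' _ _ _
  obtain ⟨k0, k1, k2, k3, k4, k5, k6, k7, k8, k9, k10⟩ :=
    coQ_rfI (incQ π L eE fA fB n x) (incQ π L eE fA fB n y) (β n x) (β n y)
  have hr' : r = uY B lev w w0 n / uB B lev w w0 n := hr
  clear hr hC hC'
  generalize incQ π L eE fA fB n x = i at *
  generalize incQ π L eE fA fB n y = j at *
  generalize uH B lev w0 n = H at *
  generalize uA B lev w w0 n = Wa at *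
  generalize uB B lev w w0 n = Wb at *
  generalize uY B lev w w0 n = Wy at *
  generalize β n x = g1 at *
  generalize β n y = g2 at *
  have h1 := hH.ne'
  have h2 := ha.ne'
  have h3 := hb.ne'
  have h4 := hy.ne'
  subst hr'
  have s2 : sfac H Wa Wb Wy 2 = Wa / Wb := rfl
  have s3 : sfac H Wa Wb Wy 3 = Wb / Wy := rfl
  have s4 : sfac H Wa Wb Wy 4 = Wa / Wy := rfl
  have s6 : sfac H Wa Wb Wy 6 = 1 / Wb := rfl
  have s7 : sfac H Wa Wb Wy 7 = 1 / Wy := rfl
  have s9 : sfac H Wa Wb Wy 9 = H / Wb := rfl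
  have s10 : sfac H Wa Wb Wy 10 = H / Wy := rfl
  refine ⟨?_, ?_, ?_, ?_, ?_⟩
  · intro k a3 a4 a7 a10
    rw [e1, e0]
    congr 1
    fin_cases k
    · exact k0
    · exact k1
    · exact k2
    · exact absurd rfl a3
    · exact absurd rfl a4
    · exact k5
    · exact k6
    · exact absurd rfl a7
    · exact k8
    · exact k9
    · exact absurd rfl a10
  · rw [e1, e0, k3, s3]; field_simp
  · rw [e1, e0, e0, k4, s2, s4]; field_simp
  · rw [e1, e0, e0, k7, s6, s7]; field_simp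
  · rw [e1, e0, e0, k10, s9, s10]; field_simp

end

/-- size of the new coordinates -/
theorem rfb {d k X Y a w0 δ : ℝ} (hd : 0 < d) (hd1 : d < 1) (hδ : 0 ≤ δ)
    (h3 : 3 ≤ d ^ (-δ)) (hk : |k| ≤ d ^ (w0 - δ))
    (hX : |X| ≤ d ^ (a + w0 - δ)) (hY : |Y| ≤ d ^ (a - δ)) :
    |X - k * Y| ≤ d ^ (a + w0 - 3 * δ) := by
  have p0 := Real.rpow_pos_of_pos hd (a + w0 - 2 * δ)
  have e1 : |k| * |Y| ≤ d ^ (a + w0 - 2 * δ) := by
    calc |k| * |Y| ≤ d ^ (w0 - δ) * d ^ (a - δ) :=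
          mul_le_mul hk hY (abs_nonneg _) (Real.rpow_nonneg hd.le _)
      _ = d ^ (a + w0 - 2 * δ) := by rw [← Real.rpow_add hd]; congr 1; ring
  have e2 : |X| ≤ d ^ (a + w0 - 2 * δ) :=
    hX.trans (Real.rpow_le_rpow_of_exponent_ge hd hd1.le (by linarith))
  have e3 : |X - k * Y| ≤ 2 * d ^ (a + w0 - 2 * δ) := by
    refine (abs_sub _ _).trans ?_
    rw [abs_mul]
    linarith
  refine e3.trans ?_
  have e4 : d ^ (a + w0 - 3 * δ) = d ^ (-δ) * d ^ (a + w0 - 2 * δ) := by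
    rw [← Real.rpow_add hd]; congr 1; ring
  rw [e4]
  nlinarith

variable {η : ℝ} {p : Par4} {D : Dat4} {π : Equiv.Perm (Fin 3)}
  {eE fA fB β : ℕ → ℕ × ℝ → ℝ} {V T V' T' : Fin 11 → Prop} {w0 R T0 : ℝ}
  {PD : Set (Fin 11 → ℝ)}

/-- `β` in the enlarged units -/
theorem rt_beta {c Λ : ℝ → ℝ} {τ : Fin 3 → ℝ → ℝ}
    (h : MkA D.B D.I (D.G p) D.lev D.A c Λ τ D.f D.b D.vm D.w)
    (hβ : ∀ ε : ℝ, 0 < ε → ∀ᶠ n in (U : Filter ℕ), ∀ x ∈ D.I n,
      |β n x| ≤ D.B.d n ^ (-ε) * (D.w 0 n 0 / D.w 2 n 0)) (w0 : ℝ)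
    {ε : ℝ} (hε : 0 < ε) : ∀ᶠ n in (U : Filter ℕ), (∀ k, 0 < D.w k n 0) ∧
      0 < rt D.B D.lev D.w w0 n ∧
      ∀ x ∈ D.I n, |(rt D.B D.lev D.w w0 n)⁻¹ * β n x| ≤ D.B.d n ^ (w0 - ε) := by
  have hw : ∀ᶠ n in (U : Filter ℕ), ∀ k, 0 < D.w k n 0 :=
    Filter.eventually_all.2 fun k => h.wpos k 0 le_rfl zero_le_one
  filter_upwards [hw, hβ ε hε] with n a1 a2
  have h0 := a1 0
  have h2 := a1 2
  have p0 := dpow_pos D.B n (-w0)
  have hr : 0 < rt D.B D.lev D.w w0 n := by rw [rt_eq a1]; positivity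
  refine ⟨a1, hr, fun x hx => ?_⟩
  rw [abs_mul, abs_of_pos (inv_pos.2 hr), rt_eq a1, mul_inv, inv_div,
    ← Real.rpow_neg (D.B.pos n).le, neg_neg]
  calc D.w 2 n 0 / D.w 0 n 0 * D.B.d n ^ w0 * |β n x|
      ≤ D.w 2 n 0 / D.w 0 n 0 * D.B.d n ^ w0 *
        (D.B.d n ^ (-ε) * (D.w 0 n 0 / D.w 2 n 0)) :=
        mul_le_mul_of_nonneg_left (a2 x hx) (mul_pos (div_pos h2 h0) (dpow_pos D.B n _)).le
    _ = D.B.d n ^ w0 * D.B.d n ^ (-ε) := by
        generalize D.B.d n ^ w0 = a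
        generalize D.B.d n ^ (-ε) = b
        field_simp
    _ = D.B.d n ^ (w0 - ε) := by rw [← dpow_add]; congr 1

open Classical in
/-- **new plane `V3` through the same `V2`.** -/
theorem reflag_pre (h : ThickPre η p D π eE fA fB V T w0 R T0 PD) (hθ : p.θ 0 = p.θ 2)
    (hβ : ∀ ε : ℝ, 0 < ε → ∀ᶠ n in (U : Filter ℕ), ∀ x ∈ D.I n,
      |β n x| ≤ D.B.d n ^ (-ε) * (D.w 0 n 0 / D.w 2 n 0))
    (h2 : ∀ n, ∀ x ∈ D.I n, |aR eE fA β n x| ≤ 1 ∧ |bR fB β n x| ≤ 1)
    (hf3 : Gap23 D → ∃ c : ℝ, c < 1 ∧ ∀ n, ∀ x ∈ D.I n, |bR fB β n x| ≤ c)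
    (hs : SlotOk p.θ V' T')
    (hown : ∀ k, isSl k → ∀ u : ℚ, 0 ≤ u → u ≤ 1 → ∀ ε : ℝ, 0 < ε → ∀ᶠ n in (U : Filter ℕ),
      ∀ x ∈ D.I n, ∀ y ∈ D.I n, lc (D.lev n u) y = lc (D.lev n u) x →
      |couQ D.B D.lev D.w w0 (incQ π D.L eE (aR eE fA β) (bR fB β)) n x y k| ≤
        D.B.d n ^ (ownQ p.θ w0 R V' u k - ε))
    (htw : ∀ k, T' k → ∀ u : ℚ, 0 ≤ u → u < 1 → ∀ ρ : ℝ, ownQ p.θ w0 R V' u k < ρ →
      ∃ γ : ℝ, 0 < γ ∧ ∀ᶠ n in (U : Filter ℕ), ∀ x ∈ D.I n,
      (((D.I n).filter fun y => lc (D.lev n u) y = lc (D.lev n u) x ∧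
        |couQ D.B D.lev D.w w0 (incQ π D.L eE (aR eE fA β) (bR fB β)) n x y k| ≤
          D.B.d n ^ ρ).card : ℝ) ≤ D.B.d n ^ (γ - (1 - 0) * (1 - (u : ℝ)))) :
    ThickPre η p D π eE (aR eE fA β) (bR fB β) V' T' w0 R T0
      (PDQ D.B D.r0 D.lev D.w w0 R) where
  ok := h.ok
  slots := hs
  big := h.big
  flag := fun n x hx => ⟨(h.flag n x hx).1, h2 n x hx⟩
  flag2 := fun n x hx => by
    have h1 := h.flag2 n x hx
    have e1 : aR eE fA β n x + eE n x * bR fB β n x = fA n x + eE n x * fB n x := by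
      simp only [aR, bR]
      ring
    rw [e1]
    exact h1
  flag3 := hf3
  wrs := h.wrs
  pd := fun x hx => by
    have h := (w0_zero h.pre.mka).mix (w0_one h.pre.mka)
    obtain ⟨h1, h2, h3, h4, h5, h6, h7⟩ := hx
    refine mem_PDQ h h1 h2 h3 ?_ ?_ ?_ ?_
    · rcases le_total (p.θ 1) (p.θ 2) with hl | hl
      · rw [max_eq_right (by linarith)]
        rw [min_eq_right (by linarith)] at h5
        linarith
      · rw [max_eq_left (by linarith)]
        rw [min_eq_left (by linarith)] at h5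
        linarith
    · rcases le_total (p.θ 2) (p.θ 0) with hl | hl
      · rw [max_eq_right (by linarith)]
        rw [min_eq_right (by linarith)] at h6
        linarith
      · rw [max_eq_left (by linarith)]
        rw [min_eq_left (by linarith)] at h6
        linarith
    · linarith
    · rw [max_eq_right (by linarith [‹ThickPre η p D π eE fA fB V T w0 R T0 PD›.ok.θ1])]
      linarith
  pre := by
    have hq : ∀ j, 0 ≤ p.q j := by
      intro j
      fin_cases j
      · exact h.ok.q0.1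
      · exact h.ok.g0.2.le
      · exact h.ok.q2.1.le
    refine
      { mka := h.pre.mka
        chart := fun n => chart_couQ n (D.I n)
        zco := fun n x _ y _ => zco_Q n x y
        w00 := h.pre.w00
        w0R := h.pre.w0R
        N0pos := h.pre.N0pos
        PDne := ⟨_, path_PDQ h.pre.mka h.big h.ok.θ1⟩
        PDleg := PDQ_leg
        gD := gD_couQ h.pre.mka h.wrs hq (fun n x hx => (h.flag n x hx).1)
          (fun n x hx => (h2 n x hx).1) (fun n x hx => (h2 n x hx).2)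
        rleg := fun v h0 h1 => h.big.path_leg h0 h1
        rpos := h.big.path_pos V'
        rlip := h.big.path_lip V' _ _ _
        gR := ?_
        gH := h.pre.gH
        oz := fun v _ _ => ownQ_zero p.θ w0 R V' v
        own_near := ?_
        tw := htw }
    · -- the record boxes
      intro u h0 h1 ε hε
      filter_upwards [h.pre.gR u h0 h1 (ε / 4) (by linarith), rt_beta h.pre.mka hβ w0
        (ε := ε / 4) (by linarith), ev3 D.B (ε := ε / 4) (by linarith)]
        with n a1 a2 a3 x hx y hy hxy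
      obtain ⟨hw, hr, hb⟩ := a2
      have hC := a1 x hx y hy hxy
      have hd := D.B.pos n
      have hd1 := D.B.lt n
      have hmono : ∀ {a b : ℝ}, b ≤ a → D.B.d n ^ a ≤ D.B.d n ^ b := fun hab =>
        dpow_le D.B n hab
      set C := couQ D.B D.lev D.w w0 (incQ π D.L eE fA fB) n x y with hCdef
      obtain ⟨js, j3, j4, j7, j10⟩ := couQ_rf (β := β) hw x y hCdef rfl rfl
      have c2 := hC 2
      have c3 := hC 3
      have c4 := hC 4
      have c6 := hC 6
      have c7 := hC 7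
      have c9 := hC 9
      have c10 := hC 10
      simp only [pathQ, Matrix.cons_val] at c2 c3 c4 c6 c7 c9 c10
      have bx := hb x hx
      have bY := hb y hy
      have k4 := rfb (a := w0 + (p.θ 1 - p.θ 2) * u) hd hd1 (by linarith) a3 bY
        (X := C 4) (Y := C 2) (by rw [hθ] at c4; convert c4 using 2; ring) c2
      have k7 := rfb (a := 2 * w0 - p.θ 2 * u) hd hd1 (by linarith) a3 bx
        (X := C 7) (Y := C 6) (by rw [hθ] at c7; convert c7 using 2; ring) c6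
      have k10 := rfb (a := 3 * w0 + (1 - p.θ 2) * u) hd hd1 (by linarith) a3 bx
        (X := C 10) (Y := C 9) (by rw [hθ] at c10; convert c10 using 2; ring) c9
      rw [← j4] at k4
      rw [← j7] at k7
      rw [← j10] at k10
      intro k
      by_cases q3 : k = 3
      · subst q3
        rw [j3]
        simp only [pathQ, Matrix.cons_val]
        rw [hθ] at c3 ⊢
        have t1 : |(rt D.B D.lev D.w w0 n)⁻¹ * (β n y - β n x)| ≤ 2 * D.B.d n ^ (w0 - ε / 4) := by
          rw [mul_sub]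
          refine (abs_sub _ _).trans ?_
          linarith
        have t2 : D.B.d n ^ (w0 + (p.θ 2 - p.θ 2) * u - ε / 4) = D.B.d n ^ (w0 - ε / 4) := by
          congr 1; ring
        rw [t2] at c3
        have t3 : |C 3 + (rt D.B D.lev D.w w0 n)⁻¹ * (β n y - β n x)| ≤
            3 * D.B.d n ^ (w0 - ε / 4) := (abs_add_le _ _).trans (by linarith)
        refine t3.trans ?_
        have t4 : D.B.d n ^ (w0 + (p.θ 2 - p.θ 2) * u - ε) =
            D.B.d n ^ (-(ε / 4)) * (D.B.d n ^ (w0 - ε / 4)) * D.B.d n ^ (-(ε / 2)) := by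
          rw [← dpow_add, ← dpow_add]; congr 1; ring
        rw [t4]
        have t5 : 1 ≤ D.B.d n ^ (-(ε / 2)) :=
          Real.one_le_rpow_of_pos_of_le_one_of_nonpos hd hd1.le (by linarith)
        have t6 := dpow_pos D.B n (w0 - ε / 4)
        calc 3 * D.B.d n ^ (w0 - ε / 4) ≤ D.B.d n ^ (-(ε / 4)) * D.B.d n ^ (w0 - ε / 4) :=
              mul_le_mul_of_nonneg_right a3 t6.le
          _ ≤ _ := le_mul_of_one_le_right (by positivity) t5
      by_cases q4 : k = 4
      · subst q4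
        refine k4.trans (hmono ?_)
        simp only [pathQ, Matrix.cons_val]
        rw [hθ]; linarith
      by_cases q7 : k = 7
      · subst q7
        refine k7.trans (hmono ?_)
        simp only [pathQ, Matrix.cons_val]
        rw [hθ]; linarith
      by_cases q10 : k = 10
      · subst q10
        refine k10.trans (hmono ?_)
        simp only [pathQ, Matrix.cons_val]
        rw [hθ]; linarith
      rw [js k q3 q4 q7 q10]
      exact (hC k).trans (hmono (by linarith))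
    · -- one line
      intro u h0 h1 ε hε
      have hw : ∀ᶠ n in (U : Filter ℕ), ∀ k, 0 < D.w k n 0 :=
        Filter.eventually_all.2 fun k => h.pre.mka.wpos k 0 le_rfl zero_le_one
      filter_upwards [hown 2 (Or.inl rfl) u h0 h1 ε hε,
        hown 3 (Or.inr (Or.inl rfl)) u h0 h1 ε hε, hown 4 (Or.inr (Or.inr rfl)) u h0 h1 ε hε,
        h.pre.own_near u h0 h1 ε hε, hw] with n b2 b3 b4 b0 aw x hx y hy hl k
      by_cases hk : isSl k
      · rcases hk with rfl | rfl | rfl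
        · exact b2 x hx y hy hl
        · exact b3 x hx y hy hl
        · exact b4 x hx y hy hl
      by_cases hk0 : k = 0
      · subst hk0
        have := b0 x hx y hy hl 0
        rw [zco_Q, ownQ_zero] at this ⊢
        exact this
      · unfold couQ
        rw [coQ_scl (uH_pos n).ne' (uA_pos (aw 1)).ne' (uB_pos (aw 2)).ne' (uY_pos (aw 0)).ne']
        have : coQ (incQ π D.L eE (aR eE fA β) (bR fB β) n x)
            (incQ π D.L eE (aR eE fA β) (bR fB β) n y) k = 0 := by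
          have hxy : y.1 = x.1 := by
            unfold lc at hl
            exact (Prod.mk.inj hl).1
          unfold incQ
          rw [hxy]
          exact coQ_line _ _ _ _ _ _ _ _ _ hk0 hk
        rw [this, mul_zero, abs_zero]
        exact (dpow_pos D.B n _).le

end Crest.Agent.R136.Exch201
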