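import Crest.Agent.R136.ReD_436
import Crest.Agent.R136.Rfl1_201

/-!
# R136 (S0187), case E: pieces (P3), (P3') of 436's back end (helper201)

`rawFlag : RawFlag`, `rawExch : RawExch`.
-/

set_option autoImplicit false
set_option linter.unusedVariables false

open Finset Filter Topology

namespace Crest.Agent.R136.Exch201

open Crest.Agent.R138.Ex926 (Base U QProf)
open Crest.Agent.R138.Dp76 (dpow_pos dpow_add dpow_le dpow_le_one)
open Crest.Agent.R138.Mk163 (zc zl rho alive)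
open Crest.Agent.R138.MkRef627 (lc kc)
open Crest.Agent.R136.MkA627
open Crest.Agent.R136.Net191
open Crest.Agent.R136.NetQ186
open Crest.Agent.R136.GeoQ186
open Crest.Agent.R136.Sh605
open Crest.Agent.R136.Wq638
open Crest.Agent.R136.Top484
open Crest.Agent.R136.NatT550
open Crest.Agent.R136.Re436

variable {p : Par4} {D : Dat4}

/-- thickness over narrow width has the same exponent at all levels if `θ 0 = θ 2` -/
theorem ratio_lv {c Λ : ℝ → ℝ}
    (h : MkA D.B D.I (D.G p) D.lev D.A c Λ (fun j v => p.θ j * (1 - v)) D.f D.b D.vm D.w)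
    (hθ : p.θ 0 = p.θ 2) {u v : ℚ} (hu0 : 0 ≤ u) (hu1 : u ≤ 1) (hv0 : 0 ≤ v) (hv1 : v ≤ 1)
    {ε : ℝ} (hε : 0 < ε) : ∀ᶠ n in (U : Filter ℕ),
      D.w 0 n u / D.w 2 n u ≤ D.w 0 n v / D.w 2 n v * D.B.d n ^ (-ε) := by
  have hw : ∀ x : ℚ, 0 ≤ x → x ≤ 1 → ∀ᶠ n in (U : Filter ℕ), ∀ k, 0 < D.w k n x := fun x a b =>
    Filter.eventually_all.2 fun k => h.wpos k x a b
  have ht := (((h.tau 2 u hu0 hu1).sub (h.tau 0 u hu0 hu1)).sub
    ((h.tau 2 v hv0 hv1).sub (h.tau 0 v hv0 hv1))).eventually_lt_const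
      (show _ < ε by
        have e : p.θ 2 * (1 - (u : ℝ)) - p.θ 0 * (1 - (u : ℝ)) -
          (p.θ 2 * (1 - (v : ℝ)) - p.θ 0 * (1 - (v : ℝ))) = 0 := by rw [hθ]; ring
        rw [e]; exact hε)
  filter_upwards [ht, hw u hu0 hu1, hw v hv0 hv1, hw 1 zero_le_one le_rfl] with n a1 a2 a3 a4
  have hL := D.B.L_pos n
  have u0 := a2 0
  have u2 := a2 2
  have v0 := a3 0
  have v2 := a3 2
  have o0 := a4 0
  have o2 := a4 2
  have ru := rho_pos (D.lev n u)
  have rv := rho_pos (D.lev n v)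
  have r1 := rho_pos (D.lev n 1)
  rw [← sub_div, ← sub_div, ← sub_div, div_lt_iff₀ hL] at a1
  have l : ∀ {a b c d : ℝ}, 0 < a → 0 < b → 0 < c → 0 < d →
      Real.log (a / b / (c / d)) = Real.log a - Real.log b - (Real.log c - Real.log d) :=
    fun ha hb hc hd => by
      rw [Real.log_div (div_pos ha hb).ne' (div_pos hc hd).ne', Real.log_div ha.ne' hb.ne',
        Real.log_div hc.ne' hd.ne']
  rw [l ru u2 r1 o2, l ru u0 r1 o0, l rv v2 r1 o2, l rv v0 r1 o0] at a1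
  rw [← Real.log_le_log_iff (by positivity) (mul_pos (div_pos v0 v2) (dpow_pos D.B n _)),
    Real.log_mul (div_pos v0 v2).ne' (dpow_pos D.B n _).ne', Real.log_rpow (D.B.pos n),
    Real.log_div u0.ne' u2.ne', Real.log_div v0.ne' v2.ne']
  unfold Base.L at a1
  linarith

/-- no gap: the two sizes agree at every level -/
theorem nogap_lv {c Λ : ℝ → ℝ}
    (h : MkA D.B D.I (D.G p) D.lev D.A c Λ (fun j v => p.θ j * (1 - v)) D.f D.b D.vm D.w)
    (hθ : p.θ 0 = p.θ 2) (hg : ¬ Gap23 D) {u : ℚ} (hu0 : 0 ≤ u) (hu1 : u ≤ 1)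
    {ε : ℝ} (hε : 0 < ε) : ∀ᶠ n in (U : Filter ℕ),
      D.w 2 n u ≤ D.w 0 n u * D.B.d n ^ (-ε) := by
  have hn : ∀ᶠ n in (U : Filter ℕ), ¬ (D.w 0 n 0 ≤ D.B.d n ^ (ε / 2) * D.w 2 n 0) := by
    rw [Ultrafilter.eventually_not]
    intro hc
    exact hg ⟨ε / 2, by linarith, hc⟩
  have hw : ∀ x : ℚ, 0 ≤ x → x ≤ 1 → ∀ᶠ n in (U : Filter ℕ), ∀ k, 0 < D.w k n x := fun x a b =>
    Filter.eventually_all.2 fun k => h.wpos k x a b
  filter_upwards [hn, ratio_lv h hθ le_rfl zero_le_one hu0 hu1 (ε := ε / 2) (by linarith),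
    hw u hu0 hu1, hw 0 le_rfl zero_le_one] with n a1 a2 a3 a4
  push Not at a1
  have u0 := a3 0
  have u2 := a3 2
  have v0 := a4 0
  have v2 := a4 2
  have e1 : D.B.d n ^ (ε / 2) ≤ D.w 0 n 0 / D.w 2 n 0 := by
    rw [le_div_iff₀ v2]; exact a1.le
  have e2 := e1.trans a2
  rw [div_mul_eq_mul_div, le_div_iff₀ u2] at e2
  have e3 : D.B.d n ^ (-(ε / 2)) * (D.B.d n ^ (ε / 2) * D.w 2 n u) ≤
      D.B.d n ^ (-(ε / 2)) * (D.w 0 n u * D.B.d n ^ (-(ε / 2))) :=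
    mul_le_mul_of_nonneg_left e2 (dpow_pos D.B n _).le
  have e4 : D.B.d n ^ (-(ε / 2)) * (D.B.d n ^ (ε / 2) * D.w 2 n u) = D.w 2 n u := by
    rw [← mul_assoc, ← dpow_add, neg_add_cancel, Real.rpow_zero, one_mul]
  have e5 : D.B.d n ^ (-(ε / 2)) * (D.w 0 n u * D.B.d n ^ (-(ε / 2))) =
      D.w 0 n u * D.B.d n ^ (-ε) := by
    rw [mul_comm, mul_assoc, ← dpow_add]; congr 2; ring
  rw [e4, e5] at e3
  exact e3

/-- sizes of the exchanged pair, raw form: `a` = thickness, `b` = narrow, `s` = common unit,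
`E = d^(-δ)` -/
theorem exr {a b s E f g X Y : ℝ} (ha : 0 ≤ a) (hab : a ≤ b) (hba : b ≤ a * E) (hs : 0 ≤ s)
    (hE : 3 ≤ E) (hf : |f| ≤ 1) (hg : |g| ≤ 1) (hX : |X| ≤ a * s * E) (hY : |Y| ≤ b * s * E) :
    |X + f * Y| ≤ b * s * (E * E * E) ∧ |Y - g * (X + f * Y)| ≤ a * s * (E * E * E) := by
  have hb : 0 ≤ b := ha.trans hab
  have bs : 0 ≤ b * s := mul_nonneg hb hs
  have hE0 : 0 ≤ E := by linarith
  have e2 : |f| * |Y| ≤ b * s * E :=
    (mul_le_mul hf hY (abs_nonneg _) zero_le_one).trans (by rw [one_mul])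
  have e1 : |X| ≤ b * s * E :=
    hX.trans (mul_le_mul_of_nonneg_right (mul_le_mul_of_nonneg_right hab hs) hE0)
  have e3 : |X + f * Y| ≤ 2 * (b * s * E) := by
    refine (abs_add_le _ _).trans ?_
    rw [abs_mul]
    linarith
  have p0 : 0 ≤ b * s * E := mul_nonneg bs hE0
  have e5 : |Y - g * (X + f * Y)| ≤ 3 * (b * s * E) := by
    refine (abs_sub _ _).trans ?_
    rw [abs_mul]
    have := mul_le_mul hg e3 (abs_nonneg _) zero_le_one
    linarith
  have e6 : 3 * (b * s * E) ≤ b * s * (E * E) := by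
    have := mul_le_mul_of_nonneg_right hE p0
    calc 3 * (b * s * E) ≤ E * (b * s * E) := this
      _ = _ := by ring
  constructor
  · have : b * s * (E * E) ≤ b * s * (E * E * E) := by
      refine mul_le_mul_of_nonneg_left ?_ bs
      exact le_mul_of_one_le_right (mul_nonneg hE0 hE0) (by linarith)
    linarith
  · refine (e5.trans e6).trans ?_
    calc b * s * (E * E) ≤ a * E * s * (E * E) :=
          mul_le_mul_of_nonneg_right (mul_le_mul_of_nonneg_right hba hs) (by positivity)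
      _ = _ := by ring

/-- natural sizes -/
noncomputable def nW (ρ a b c : ℝ) : Fin 11 → ℝ :=
  ![ρ, 0, b / c, a / b, a / c, c / ρ, b / ρ, a / ρ, c, b, a]

theorem natW_eq (D : Dat4) (n : ℕ) (u : ℚ) :
    natW D n u = nW (rho (D.lev n u)) (D.w 0 n u) (D.w 2 n u) (D.w 1 n u) := rfl

theorem exch_num {C C' : Fin 11 → ℝ} {ρ a b c E f1 f2 g1 g2 : ℝ} (hr : 0 < ρ) (w0 : 0 < a)
    (w1 : 0 < c) (w2 : 0 < b) (o02 : a ≤ b) (hba : b ≤ a * E) (hE : 3 ≤ E)
    (fx : |f1| ≤ 1) (fy : |f2| ≤ 1) (gx : |g1| ≤ 1) (gy : |g2| ≤ 1)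
    (hC : ∀ k, |C k| ≤ nW ρ a b c k * E)
    (k0 : C' 0 = C 0) (k1 : C' 1 = 0) (k2 : C' 2 = C 4 + f2 * C 2) (k3 : C' 3 = g2 - g1)
    (k4 : C' 4 = C 2 - g2 * (C 4 + f2 * C 2)) (k5 : C' 5 = C 5) (k6 : C' 6 = C 7 + f1 * C 6)
    (k7 : C' 7 = C 6 - g1 * (C 7 + f1 * C 6)) (k8 : C' 8 = C 8) (k9 : C' 9 = C 10 + f1 * C 9)
    (k10 : C' 10 = C 9 - g1 * (C 10 + f1 * C 9)) (k : Fin 11) :
    |C' k| ≤ nW ρ a b c k * (E * E * E) := by
  have c0 : |C 0| ≤ ρ * E := hC 0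
  have c2 : |C 2| ≤ b / c * E := hC 2
  have c4 : |C 4| ≤ a / c * E := hC 4
  have c5 : |C 5| ≤ c / ρ * E := hC 5
  have c6 : |C 6| ≤ b / ρ * E := hC 6
  have c7 : |C 7| ≤ a / ρ * E := hC 7
  have c8 : |C 8| ≤ c * E := hC 8
  have c9 : |C 9| ≤ b * E := hC 9
  have c10 : |C 10| ≤ a * E := hC 10
  have hE1 : 1 ≤ E := by linarith
  have hE0 : 0 ≤ E := by linarith
  have hEE : E ≤ E * E := le_mul_of_one_le_right hE0 hE1
  have hE3 : E ≤ E * E * E := hEE.trans (le_mul_of_one_le_right (mul_nonneg hE0 hE0) hE1)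
  have mono : ∀ {x W : ℝ}, 0 ≤ W → |x| ≤ W * E → |x| ≤ W * (E * E * E) := fun hW hx =>
    hx.trans (mul_le_mul_of_nonneg_left hE3 hW)
  obtain ⟨q2, q4⟩ := exr (s := 1 / c) (f := f2) (g := g2) (X := C 4) (Y := C 2) w0.le o02
    hba (one_div_pos.2 w1).le hE fy gy (by rw [mul_one_div]; exact c4) (by rw [mul_one_div]; exact c2)
  obtain ⟨q6, q7⟩ := exr (s := 1 / ρ) (f := f1) (g := g1) (X := C 7) (Y := C 6) w0.le o02
    hba (one_div_pos.2 hr).le hE fx gx (by rw [mul_one_div]; exact c7) (by rw [mul_one_div]; exact c6)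
  obtain ⟨q9, q10⟩ := exr (s := 1) (f := f1) (g := g1) (X := C 10) (Y := C 9) w0.le o02
    hba zero_le_one hE fx gx (by rw [mul_one]; exact c10) (by rw [mul_one]; exact c9)
  rw [← k2, mul_one_div] at q2
  rw [← k4, mul_one_div] at q4
  rw [← k6, mul_one_div] at q6
  rw [← k7, mul_one_div] at q7
  rw [← k9, mul_one] at q9
  rw [← k10, mul_one] at q10
  rw [← k0] at c0
  rw [← k5] at c5
  rw [← k8] at c8
  have t3 : |C' 3| ≤ a / b * (E * E * E) := by
    rw [k3]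
    have e1 : |g2 - g1| ≤ 3 := (abs_sub _ _).trans (by linarith)
    have e2 : 1 ≤ a / b * E := by
      rw [div_mul_eq_mul_div, le_div_iff₀ w2, one_mul]
      exact hba
    calc |g2 - g1| ≤ 3 := e1
      _ ≤ 1 * (E * E) := by rw [one_mul]; exact hE.trans hEE
      _ ≤ a / b * E * (E * E) := mul_le_mul_of_nonneg_right e2 (mul_nonneg hE0 hE0)
      _ = _ := by ring
  have t0 := mono hr.le c0
  have t1 : |C' 1| ≤ 0 * (E * E * E) := by rw [k1, abs_zero, zero_mul]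
  have t5 := mono (div_pos w1 hr).le c5
  have t8 := mono w1.le c8
  fin_cases k
  · exact t0
  · exact t1
  · exact q2
  · exact t3
  · exact q4
  · exact t5
  · exact q6
  · exact q7
  · exact t8
  · exact q9
  · exact q10

theorem flag_num {C C' : Fin 11 → ℝ} {ρ a b c E g1 g2 : ℝ} (hr : 0 < ρ) (w0 : 0 < a)
    (w1 : 0 < c) (w2 : 0 < b) (hE : 3 ≤ E)
    (gx : |g1| ≤ a / b * (E * E)) (gy : |g2| ≤ a / b * (E * E))
    (hC : ∀ k, |C k| ≤ nW ρ a b c k * E)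
    (k0 : C' 0 = C 0) (k1 : C' 1 = C 1) (k2 : C' 2 = C 2) (k3 : C' 3 = C 3 + (g2 - g1))
    (k4 : C' 4 = C 4 - g2 * C 2) (k5 : C' 5 = C 5) (k6 : C' 6 = C 6)
    (k7 : C' 7 = C 7 - g1 * C 6) (k8 : C' 8 = C 8) (k9 : C' 9 = C 9)
    (k10 : C' 10 = C 10 - g1 * C 9) (k : Fin 11) :
    |C' k| ≤ nW ρ a b c k * (E * E * E * E) := by
  have c0 : |C 0| ≤ ρ * E := hC 0
  have c1 : |C 1| ≤ 0 * E := hC 1
  have c2 : |C 2| ≤ b / c * E := hC 2
  have c3 : |C 3| ≤ a / b * E := hC 3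
  have c4 : |C 4| ≤ a / c * E := hC 4
  have c5 : |C 5| ≤ c / ρ * E := hC 5
  have c6 : |C 6| ≤ b / ρ * E := hC 6
  have c7 : |C 7| ≤ a / ρ * E := hC 7
  have c8 : |C 8| ≤ c * E := hC 8
  have c9 : |C 9| ≤ b * E := hC 9
  have c10 : |C 10| ≤ a * E := hC 10
  have hE1 : 1 ≤ E := by linarith
  have hE0 : 0 < E := by linarith
  have hEE : E ≤ E * E := le_mul_of_one_le_right hE0.le hE1
  have hE3 : E ≤ E * E * E := hEE.trans (le_mul_of_one_le_right (mul_nonneg hE0.le hE0.le) hE1)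
  have hE2 : E ≤ E * E * E * E :=
    hE3.trans (le_mul_of_one_le_right (mul_nonneg (mul_nonneg hE0.le hE0.le) hE0.le) hE1)
  have mono : ∀ {x W : ℝ}, 0 ≤ W → |x| ≤ W * E → |x| ≤ W * (E * E * E * E) := fun hW hx =>
    hx.trans (mul_le_mul_of_nonneg_left hE2 hW)
  have prod : ∀ {X g Y s : ℝ}, 0 ≤ s → |g| ≤ a / b * (E * E) →
      |Y| ≤ b * s * E → |X| ≤ a * s * E → |X - g * Y| ≤ a * s * (E * E * E * E) := by
    intro X g Y s hs hg hY hX
    have e1 : |g| * |Y| ≤ a * s * (E * E * E) := by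
      calc |g| * |Y| ≤ a / b * (E * E) * (b * s * E) :=
            mul_le_mul hg hY (abs_nonneg _) (by positivity)
        _ = _ := by field_simp
    refine (abs_sub _ _).trans ?_
    rw [abs_mul]
    have e2 : 0 ≤ a * s := mul_nonneg w0.le hs
    have e4 : a * s * E ≤ a * s * (E * E * E) := mul_le_mul_of_nonneg_left hE3 e2
    have e5 : a * s * (E * E * E) * 2 ≤ a * s * (E * E * E) * E :=
      mul_le_mul_of_nonneg_left (by linarith) (by positivity)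
    calc |X| + |g| * |Y| ≤ a * s * (E * E * E) * 2 := by linarith
      _ ≤ _ := e5
      _ = _ := by ring
  have t3 : |C' 3| ≤ a / b * (E * E * E * E) := by
    rw [k3]
    have hq : 0 < a / b := div_pos w0 w2
    refine (abs_add_le _ _).trans ?_
    have e1 : |g2 - g1| ≤ 2 * (a / b * (E * E)) := (abs_sub _ _).trans (by linarith)
    have e2 : a / b * E ≤ a / b * (E * E) := mul_le_mul_of_nonneg_left hEE hq.le
    have e3 : a / b * (E * E) * 3 ≤ a / b * (E * E) * (E * E) :=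
      mul_le_mul_of_nonneg_left (hE.trans hEE) (mul_nonneg hq.le (mul_nonneg hE0.le hE0.le))
    calc |C 3| + |g2 - g1| ≤ a / b * (E * E) * 3 := by linarith
      _ ≤ _ := e3
      _ = _ := by ring
  have t4 : |C' 4| ≤ a / c * (E * E * E * E) := by
    rw [k4]
    have := prod (s := 1 / c) (X := C 4) (Y := C 2) (one_div_pos.2 w1).le gy
      (by rw [mul_one_div]; exact c2) (by rw [mul_one_div]; exact c4)
    rw [mul_one_div] at this
    exact this
  have t7 : |C' 7| ≤ a / ρ * (E * E * E * E) := by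
    rw [k7]
    have := prod (s := 1 / ρ) (X := C 7) (Y := C 6) (one_div_pos.2 hr).le gx
      (by rw [mul_one_div]; exact c6) (by rw [mul_one_div]; exact c7)
    rw [mul_one_div] at this
    exact this
  have t10 : |C' 10| ≤ a * (E * E * E * E) := by
    rw [k10]
    have := prod (s := 1) (X := C 10) (Y := C 9) zero_le_one gx
      (by rw [mul_one]; exact c9) (by rw [mul_one]; exact c10)
    rw [mul_one] at this
    exact this
  rw [← k0] at c0
  rw [← k1] at c1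
  rw [← k2] at c2
  rw [← k5] at c5
  rw [← k6] at c6
  rw [← k8] at c8
  rw [← k9] at c9
  have t0 := mono hr.le c0
  have t1 := mono le_rfl c1
  have t2 := mono (div_pos w2 w1).le c2
  have t5 := mono (div_pos w1 hr).le c5
  have t6 := mono (div_pos w2 hr).le c6
  have t8 := mono w1.le c8
  have t9 := mono w2.le c9
  fin_cases k
  · exact t0
  · exact t1
  · exact t2
  · exact t3
  · exact t4
  · exact t5
  · exact t6
  · exact t7
  · exact t8
  · exact t9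
  · exact t10

/-- **(P3)** -/
theorem rawExch : RawExch := by
  intro p D π eE fA fB φ h hθ hg hfl
  refine ⟨h.mka, fun u hu0 hu1 ε hε => ?_, h.wrs⟩
  have hw : ∀ᶠ n in (U : Filter ℕ), ∀ k, 0 < D.w k n u :=
    Filter.eventually_all.2 fun k => h.mka.wpos k u hu0 hu1
  filter_upwards [h.near u hu0 hu1 (ε / 3) (by linarith), hfl, hw, mark_ord h.mka u hu0 hu1,
    nogap_lv h.mka hθ hg hu0 hu1 (ε := ε / 3) (by linarith), ev3 D.B (ε := ε / 3) (by linarith)]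
    with n a1 a2 a3 a4 a5 a6 x hx y hy hxy k
  have hE3 : D.B.d n ^ (-ε) =
      D.B.d n ^ (-(ε / 3)) * D.B.d n ^ (-(ε / 3)) * D.B.d n ^ (-(ε / 3)) := by
    rw [← dpow_add, ← dpow_add]; congr 1; ring
  have key : ∀ z : ℕ × ℝ, incQ (π * Equiv.swap 0 2) D.L (fun n x => fA n x + eE n x * fB n x)
      (fun n x => eE n x - φ n x * (fA n x + eE n x * fB n x)) φ n z =
      exI (incQ π D.L eE fA fB n z) (φ n z) := fun z => incQ_ex z
  obtain ⟨k0, k1, k2, k3, k4, k5, k6, k7, k8, k9, k10⟩ :=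
    coQ_exI (incQ π D.L eE fA fB n x) (incQ π D.L eE fA fB n y) rfl rfl (φ n x) (φ n y)
  rw [hE3, key x, key y, natW_eq]
  exact exch_num (rho_pos _) (a3 0) (a3 1) (a3 2) a4.2.1 a5 a6 (a2 x hx).2.2.1 (a2 y hy).2.2.1
    (a2 x hx).2.2.2 (a2 y hy).2.2.2 (a1 x hx y hy hxy) k0 k1 k2 k3 k4 k5 k6 k7 k8 k9 k10 k

/-- **(P3')** -/
theorem rawFlag : RawFlag := by
  intro p D π eE fA fB β h hθ hβ
  refine ⟨h.mka, fun u hu0 hu1 ε hε => ?_, h.wrs⟩
  have hw : ∀ᶠ n in (U : Filter ℕ), ∀ k, 0 < D.w k n u :=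
    Filter.eventually_all.2 fun k => h.mka.wpos k u hu0 hu1
  filter_upwards [h.near u hu0 hu1 (ε / 4) (by linarith), hβ (ε / 4) (by linarith), hw,
    ratio_lv h.mka hθ le_rfl zero_le_one hu0 hu1 (ε := ε / 4) (by linarith),
    ev3 D.B (ε := ε / 4) (by linarith)]
    with n a1 a2 a3 a5 a6 x hx y hy hxy k
  have hE3 : D.B.d n ^ (-ε) = D.B.d n ^ (-(ε / 4)) * D.B.d n ^ (-(ε / 4)) *
      D.B.d n ^ (-(ε / 4)) * D.B.d n ^ (-(ε / 4)) := by
    rw [← dpow_add, ← dpow_add, ← dpow_add]; congr 1; ring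
  have key : ∀ z : ℕ × ℝ, incQ π D.L eE (fun n x => fA n x - β n x * eE n x)
      (fun n x => fB n x + β n x) n z = rfI (incQ π D.L eE fA fB n z) (β n z) := fun z => rfl
  obtain ⟨k0, k1, k2, k3, k4, k5, k6, k7, k8, k9, k10⟩ :=
    coQ_rfI (incQ π D.L eE fA fB n x) (incQ π D.L eE fA fB n y) (β n x) (β n y)
  have bb : ∀ {b : ℝ}, |b| ≤ D.w 0 n 0 / D.w 2 n 0 * D.B.d n ^ (-(ε / 4)) →
      |b| ≤ D.w 0 n u / D.w 2 n u * (D.B.d n ^ (-(ε / 4)) * D.B.d n ^ (-(ε / 4))) := fun hb => by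
    refine hb.trans ?_
    rw [← mul_assoc]
    exact mul_le_mul_of_nonneg_right a5 (dpow_pos D.B n _).le
  rw [hE3, key x, key y, natW_eq]
  exact flag_num (rho_pos _) (a3 0) (a3 1) (a3 2) a6 (bb (a2 x hx)) (bb (a2 y hy))
    (a1 x hx y hy hxy) k0 k1 k2 k3 k4 k5 k6 k7 k8 k9 k10 k

end Crest.Agent.R136.Exch201
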