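import Crest.Agent.R136.ReE3_436
import Crest.Agent.R136.ReP3_201

/-!
# R136 (S0187), case E: re-flag (helper436), part 4: choice of the new flags
-/

set_option autoImplicit false
set_option linter.unusedVariables false

open Finset Filter Topology

namespace Crest.Agent.R136.Re436

open Crest.Agent.R138.Ex926 (Base U exists_diag)
open Crest.Agent.R138.Mk163 (zc zl rho alive)
open Crest.Agent.R138.Dp76 (Dense)
open Crest.Agent.R138.Ps627 (dense_of_half)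
open Crest.Agent.R138.MkRef627 (lc kc)
open Crest.Agent.R138.MkZoom779 (Fq Fq_mem ev_mem_Fq dpow_pos dpow_le)
open Crest.Agent.R136.MkA627
open Crest.Agent.R136.Net191
open Crest.Agent.R136.NetQ186
open Crest.Agent.R136.Wq638
open Crest.Agent.R136.Top484
open Crest.Agent.R136.NatT550
open Crest.Agent.R136.Ut627 (prF btF prLinF wpos_all)
open Crest.Agent.R136.Slt627 (eq_exp)
open Crest.Agent.R136.Sh605 (Ln4)

section

variable (π : Equiv.Perm (Fin 3)) (L : ℕ → ℕ → Ln4) (eE fA fB : ℕ → ℕ × ℝ → ℝ) (n : ℕ) (x y : ℕ × ℝ)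

theorem sl2 : coQ (incQ π L eE fA fB n x) (incQ π L eE fA fB n y) 2 = eE n y - eE n x := rfl
theorem sl3 : coQ (incQ π L eE fA fB n x) (incQ π L eE fA fB n y) 3 = fB n y - fB n x := rfl
theorem sl4 : coQ (incQ π L eE fA fB n x) (incQ π L eE fA fB n y) 4 =
    (fA n y - fA n x) + eE n x * (fB n y - fB n x) := rfl

end

section

variable {p : Par4} {D : Dat4} {π : Equiv.Perm (Fin 3)} {eE fA fB : ℕ → ℕ × ℝ → ℝ}

theorem natW_two (D : Dat4) (n : ℕ) (u : ℚ) : natW D n u 2 = D.w 2 n u / D.w 1 n u := rfl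
theorem natW_three (D : Dat4) (n : ℕ) (u : ℚ) : natW D n u 3 = D.w 0 n u / D.w 2 n u := rfl
theorem natW_four (D : Dat4) (n : ℕ) (u : ℚ) : natW D n u 4 = D.w 0 n u / D.w 1 n u := rfl

/-- incidences of one line, level `0` -/
theorem RawS.near0 (h : RawS p D π eE fA fB) {ε : ℝ} (hε : 0 < ε) :
    ∀ᶠ n in (U : Filter ℕ), (∀ j, 0 < D.w j n 0) ∧ ∀ x ∈ D.I n, ∀ y ∈ D.I n, y.1 = x.1 → ∀ k,
      |coQ (incQ π D.L eE fA fB n x) (incQ π D.L eE fA fB n y) k| ≤
        natW D n 0 k * D.B.d n ^ (-ε) := by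
  filter_upwards [h.near 0 le_rfl zero_le_one ε hε, h.mka.cell0, wpos_all h.mka le_rfl zero_le_one]
    with n a1 a2 a3
  refine ⟨a3, fun x hx y hy hxy k => a1 x hx y hy ?_ k⟩
  have h1 := a2 x hx y hy
  unfold kc
  rw [hxy, h1]

theorem natW_mul {D : Dat4} {n : ℕ} (h : ∀ j, 0 < D.w j n 0) :
    natW D n 0 2 * natW D n 0 3 = natW D n 0 4 := by
  rw [natW_two, natW_three, natW_four]
  have h1 := (h 1).ne'
  have h2 := (h 2).ne'
  field_simp

/-- `C * d^(M+1) ≤ d^M` for large `n` -/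
theorem ev_absorb (B : Base) {C : ℝ} (hC : 0 ≤ C) {ε : ℝ} (hε : 0 < ε) :
    ∀ᶠ n in (U : Filter ℕ), ∀ M : ℝ, C * B.d n ^ (M + ε) ≤ B.d n ^ M := by
  filter_upwards [Crest.Agent.R136.TD627.ev_const B hC hε] with n hn M
  have h1 := hn 1 M zero_le_one
  simpa using h1

/-- **one unit vector per line** -/
theorem LineInf.fn (hL : LineInf D π eE fA fB) (hR : RawS p D π eE fA fB)
    (h3 : InvS D π eE fA fB 3) :
    ∃ a b : ℕ → ℕ → ℝ, (∀ᶠ n in (U : Filter ℕ), ∀ x ∈ D.I n, a n x.1 ^ 2 + b n x.1 ^ 2 = 1) ∧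
      ∀ M : ℝ, ∀ᶠ n in (U : Filter ℕ), ∀ x ∈ D.I n, ∀ y ∈ D.I n, y.1 = x.1 →
        |a n x.1 * (coQ (incQ π D.L eE fA fB n x) (incQ π D.L eE fA fB n y) 2 / natW D n 0 2) +
          b n x.1 * (coQ (incQ π D.L eE fA fB n x) (incQ π D.L eE fA fB n y) 4 / natW D n 0 4)| ≤
          D.B.d n ^ M := by
  classical
  obtain ⟨k, hk, hk'⟩ := exists_diag (fun k n => ∀ x ∈ D.I n, ∃ a b : ℝ, a ^ 2 + b ^ 2 = 1 ∧
    ∀ y ∈ D.I n, y.1 = x.1 →
      |a * (coQ (incQ π D.L eE fA fB n x) (incQ π D.L eE fA fB n y) 2 / natW D n 0 2) +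
        b * (coQ (incQ π D.L eE fA fB n x) (incQ π D.L eE fA fB n y) 4 / natW D n 0 4)| ≤
        D.B.d n ^ (k : ℝ)) (fun k => hL k)
  have hk2 := hk'.mono fun n hn => hn (k n) le_rfl
  have hch : ∀ n t, ∃ (a b : ℝ) (z : ℕ × ℝ),
      ((∀ x ∈ D.I n, ∃ a b : ℝ, a ^ 2 + b ^ 2 = 1 ∧ ∀ y ∈ D.I n, y.1 = x.1 →
      |a * (coQ (incQ π D.L eE fA fB n x) (incQ π D.L eE fA fB n y) 2 / natW D n 0 2) +
        b * (coQ (incQ π D.L eE fA fB n x) (incQ π D.L eE fA fB n y) 4 / natW D n 0 4)| ≤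
        D.B.d n ^ (k n : ℝ)) → (∃ x ∈ D.I n, x.1 = t) →
      z ∈ D.I n ∧ z.1 = t ∧ a ^ 2 + b ^ 2 = 1 ∧ ∀ y ∈ D.I n, y.1 = z.1 →
      |a * (coQ (incQ π D.L eE fA fB n z) (incQ π D.L eE fA fB n y) 2 / natW D n 0 2) +
        b * (coQ (incQ π D.L eE fA fB n z) (incQ π D.L eE fA fB n y) 4 / natW D n 0 4)| ≤
        D.B.d n ^ (k n : ℝ)) := by
    intro n t
    by_cases h1 : ∀ x ∈ D.I n, ∃ a b : ℝ, a ^ 2 + b ^ 2 = 1 ∧ ∀ y ∈ D.I n, y.1 = x.1 →
      |a * (coQ (incQ π D.L eE fA fB n x) (incQ π D.L eE fA fB n y) 2 / natW D n 0 2) +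
        b * (coQ (incQ π D.L eE fA fB n x) (incQ π D.L eE fA fB n y) 4 / natW D n 0 4)| ≤
        D.B.d n ^ (k n : ℝ)
    · by_cases h2 : ∃ x ∈ D.I n, x.1 = t
      · obtain ⟨z, hz, hzt⟩ := h2
        obtain ⟨a, b, h3, h4⟩ := h1 z hz
        exact ⟨a, b, z, fun _ _ => ⟨hz, hzt, h3, h4⟩⟩
      · exact ⟨0, 0, (0, 0), fun _ h => absurd h h2⟩
    · exact ⟨0, 0, (0, 0), fun h _ => absurd h h1⟩
  choose a b z hz using hch
  refine ⟨a, b, ?_, fun M => ?_⟩
  · filter_upwards [hk2] with n hn x hx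
    exact (hz n x.1 hn ⟨x, hx, rfl⟩).2.2.1
  · have hkM : ∀ᶠ n in (U : Filter ℕ), M + 1 ≤ (k n : ℝ) :=
      (tendsto_natCast_atTop_atTop.comp hk).eventually_ge_atTop _
    filter_upwards [hk2, hkM, hR.near0 one_pos, h3 (M + 2), ev_absorb D.B (C := 3) (by norm_num)
      one_pos] with n a1 a2 a3 a4 a5 x hx y hy hxy
    obtain ⟨z1, z2, z3, z4⟩ := hz n x.1 a1 ⟨x, hx, rfl⟩
    obtain ⟨hw, a3⟩ := a3
    have r1 := z4 x hx z2.symm
    have r2 := z4 y hy (hxy.trans z2.symm)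
    have n1 := a3 (z n x.1) z1 x hx z2.symm 2
    have n2 := a4 x hx y hy hxy
    rw [sl2, sl4] at r1 r2
    rw [sl2] at n1
    rw [sl3] at n2
    rw [sl2, sl4]
    have W2 : 0 < natW D n 0 2 := div_pos (hw 2) (hw 1)
    have W3 : 0 < natW D n 0 3 := div_pos (hw 0) (hw 2)
    have W4 : 0 < natW D n 0 4 := div_pos (hw 0) (hw 1)
    set X : ℝ := b n x.1 * ((eE n x - eE n (z n x.1)) * (fB n y - fB n x) / natW D n 0 4) with hX
    have hb : |b n x.1| ≤ 1 := by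
      rw [← sq_le_one_iff_abs_le_one]
      nlinarith [sq_nonneg (a n x.1)]
    have hXb : |X| ≤ D.B.d n ^ (M + 1) := by
      rw [hX, abs_mul, abs_div, abs_mul, abs_of_pos W4]
      have h5 : |eE n x - eE n (z n x.1)| * |fB n y - fB n x| / natW D n 0 4 ≤
          D.B.d n ^ (M + 1) := by
        rw [div_le_iff₀ W4, ← natW_mul hw]
        calc |eE n x - eE n (z n x.1)| * |fB n y - fB n x|
            ≤ (natW D n 0 2 * D.B.d n ^ (-(1 : ℝ))) * (natW D n 0 3 * D.B.d n ^ (M + 2)) :=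
              mul_le_mul n1 n2 (abs_nonneg _) (mul_pos W2 (dpow_pos D.B n _)).le
          _ = D.B.d n ^ (M + 1) * (natW D n 0 2 * natW D n 0 3) := by
              have e1 : D.B.d n ^ (M + 1) = D.B.d n ^ (-(1 : ℝ)) * D.B.d n ^ (M + 2) := by
                rw [← Real.rpow_add (D.B.pos n)]; congr 1; ring
              rw [e1]; ring
      have h6 : 0 ≤ |eE n x - eE n (z n x.1)| * |fB n y - fB n x| / natW D n 0 4 := by positivity
      calc |b n x.1| * (|eE n x - eE n (z n x.1)| * |fB n y - fB n x| / natW D n 0 4)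
          ≤ 1 * (|eE n x - eE n (z n x.1)| * |fB n y - fB n x| / natW D n 0 4) :=
            mul_le_mul_of_nonneg_right hb h6
        _ ≤ _ := by rw [one_mul]; exact h5
    have hdk : D.B.d n ^ (k n : ℝ) ≤ D.B.d n ^ (M + 1) := dpow_le D.B n a2
    have hfin := a5 M
    have key : a n x.1 * ((eE n y - eE n x) / natW D n 0 2) +
        b n x.1 * (((fA n y - fA n x) + eE n x * (fB n y - fB n x)) / natW D n 0 4) =
        (a n x.1 * ((eE n y - eE n (z n x.1)) / natW D n 0 2) +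
          b n x.1 * (((fA n y - fA n (z n x.1)) +
            eE n (z n x.1) * (fB n y - fB n (z n x.1))) / natW D n 0 4)) -
        (a n x.1 * ((eE n x - eE n (z n x.1)) / natW D n 0 2) +
          b n x.1 * (((fA n x - fA n (z n x.1)) +
            eE n (z n x.1) * (fB n x - fB n (z n x.1))) / natW D n 0 4)) + X := by
      rw [hX]
      have e2 := W2.ne'
      have e4 := W4.ne'
      field_simp
      ring
    rw [key]
    refine (abs_add_le _ _).trans ?_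
    refine (add_le_add (abs_sub _ _) hXb).trans ?_
    linarith

end

end Crest.Agent.R136.Re436
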