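import Crest.Agent.R136.ReE4_436

/-!
# R136 (S0187), case E: re-flag (helper436), part 5: new flags in the three cases
-/

set_option autoImplicit false
set_option linter.unusedVariables false

open Finset Filter Topology

namespace Crest.Agent.R136.Re436

open Crest.Agent.R138.Ex926 (Base U exists_diag)
open Crest.Agent.R138.Mk163 (zc zl rho alive)
open Crest.Agent.R138.Dp76 (Dense)
open Crest.Agent.R138.Ps627 (dense_of_half)
open Crest.Agent.R138.MkRef627 (lc kc)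
open Crest.Agent.R138.MkZoom779 (Fq Fq_mem ev_mem_Fq dpow_pos dpow_le)
open Crest.Agent.R136.MkA627
open Crest.Agent.R136.Net191
open Crest.Agent.R136.NetQ186
open Crest.Agent.R136.Wq638
open Crest.Agent.R136.Top484
open Crest.Agent.R136.NatT550
open Crest.Agent.R136.Ut627 (prF btF prLinF wpos_all)
open Crest.Agent.R136.Slt627 (eq_exp)
open Crest.Agent.R136.Sh605 (Ln4)

section

variable {p : Par4} {D : Dat4} {π : Equiv.Perm (Fin 3)} {eE fA fB : ℕ → ℕ × ℝ → ℝ}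

/-- output of the choice of the flags -/
structure FlagOut (p : Par4) (D' : Dat4) (π' : Equiv.Perm (Fin 3)) (e' fa' fb' : ℕ → ℕ × ℝ → ℝ) :
    Prop where
  raw : RawS p D' π' e' fa' fb'
  flag : FlagC D' e' fa' fb'
  inv3 : InvS D' π' e' fa' fb' 3
  fin : InvS D' π' e' fa' fb' 4 ∨ (InvS D' π' e' fa' fb' 2 ∧ GapInf D')

theorem InvS.sub {k : Fin 11} (h : InvS D π eE fA fB k) {J : ℕ → Finset (ℕ × ℝ)}
    (hJ : ∀ n, J n ⊆ D.I n) : InvS (subD D J) π eE fA fB k := by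
  intro M
  filter_upwards [h M] with n hn x hx y hy hxy
  exact hn x (hJ n hx) y (hJ n hy) hxy

/-- **`E` finer than natural by a power: zoom at the level `0`** -/
theorem zoom_two (hR : RawS p D π eE fA fB) (h3 : InvS D π eE fA fB 3) (hG : GapInf D)
    {c : ℝ} (hc : 0 < c) (h2 : ∀ᶠ n in (U : Filter ℕ), ∀ x ∈ D.I n, ∀ y ∈ D.I n, y.1 = x.1 →
      |coQ (incQ π D.L eE fA fB n x) (incQ π D.L eE fA fB n y) 2| ≤ natW D n 0 2 * D.B.d n ^ c) :
    ∃ D' : Dat4, D'.L = D.L ∧ (∀ n, D'.I n ⊆ D.I n) ∧ RawS p D' π eE fA fB ∧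
      InvS D' π eE fA fB 3 ∧ InvS D' π eE fA fB 2 ∧ GapInf D' := by
  have hr0 : ∀ k : ℕ, (0 : ℚ) < 1 / ((k : ℚ) + 1) := fun k => by positivity
  have hr1 : ∀ k : ℕ, (1 : ℚ) / ((k : ℚ) + 1) ≤ 1 := fun k => by
    rw [div_le_one (by positivity)]
    linarith [Nat.cast_nonneg (α := ℚ) k]
  obtain ⟨s, B', I', A', s1, s2, s3, s4, s5⟩ := hR.zoom (u := fun _ => 0)
    (r := fun k => 1 / ((k : ℚ) + 1)) (fun _ => le_rfl) hr0
    (fun k => by simpa using hr1 k) (e := fun _ => 0) tendsto_const_nhds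
    (P := fun k n S => (∀ x ∈ D.I n, ∀ y ∈ D.I n, y.1 = x.1 →
        |coQ (incQ π D.L eE fA fB n x) (incQ π D.L eE fA fB n y) 2| ≤
          natW D n 0 2 * D.B.d n ^ c) ∧
      (∀ x ∈ D.I n, ∀ y ∈ D.I n, y.1 = x.1 →
        |coQ (incQ π D.L eE fA fB n x) (incQ π D.L eE fA fB n y) 3| ≤
          natW D n 0 3 * D.B.d n ^ (k : ℝ)) ∧ D.w 0 n 0 ≤ D.B.d n ^ (k : ℝ) * D.w 2 n 0 ∧
      ∀ j, 0 < D.w j n 0) (fun k n S T hTS hP => hP) (fun k => by
        filter_upwards [h2, h3 k, hG k, wpos_all hR.mka le_rfl zero_le_one] with n a1 a2 a3 a4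
        exact ⟨D.I n, Subset.refl _, by simp, a1, a2, a3, a4⟩)
  have hrs : ∀ n, (0 : ℝ) < ((1 / ((s n : ℚ) + 1) : ℚ) : ℝ) := fun n => by exact_mod_cast hr0 (s n)
  have hrs1 : ∀ n, ((1 / ((s n : ℚ) + 1) : ℚ) : ℝ) ≤ 1 := fun n => by exact_mod_cast hr1 (s n)
  have hrc : ∀ n, ((1 / ((s n : ℚ) + 1) : ℚ) : ℝ) = 1 / ((s n : ℝ) + 1) := fun n => by push_cast; rfl
  have hBe : ∀ n (a : ℝ), B'.d n ^ a = D.B.d n ^ (((1 / ((s n : ℚ) + 1) : ℚ) : ℝ) * a) := fun n a => by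
    rw [s2, ← Real.rpow_mul (D.B.pos n).le]
  have hM0 : ∀ n, (0 + 1 / ((s n : ℚ) + 1) * 0 : ℚ) = 0 := fun n => by ring
  have hNat : ∀ n t, natW (zooR D B' I' A' fun n x => 0 + 1 / ((s n : ℚ) + 1) * x) n 0 t =
      natW D n 0 t := fun n t => by
    show natW D n (0 + 1 / ((s n : ℚ) + 1) * 0) t = _
    rw [hM0]
  have hlarge : ∀ C : ℝ, ∀ᶠ n in (U : Filter ℕ), C ≤ (s n : ℝ) := fun C =>
    (tendsto_natCast_atTop_atTop.comp s1).eventually_ge_atTop C
  refine ⟨zooR D B' I' A' fun n x => 0 + 1 / ((s n : ℚ) + 1) * x, rfl, s3, s4, ?_, ?_, ?_⟩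
  · intro M
    filter_upwards [s5, hlarge |M|] with n a1 a2 x hx y hy hxy
    rw [hNat]
    show _ ≤ _ * B'.d n ^ M
    rw [hBe]
    refine (a1.2.1 x (s3 n hx) y (s3 n hy) hxy).trans ?_
    have hn0 : 0 ≤ natW D n 0 3 := (div_pos (a1.2.2.2 0) (a1.2.2.2 2)).le
    refine mul_le_mul_of_nonneg_left (dpow_le D.B n ?_) hn0
    have h5 := le_abs_self M
    have h6 := hrs n
    have h7 := hrs1 n
    have h8 := abs_nonneg M
    nlinarith
  · intro M
    filter_upwards [s5, hlarge (|M| / c)] with n a1 a2 x hx y hy hxy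
    rw [hNat]
    show _ ≤ _ * B'.d n ^ M
    rw [hBe]
    refine (a1.1 x (s3 n hx) y (s3 n hy) hxy).trans ?_
    have hn0 : 0 ≤ natW D n 0 2 := (div_pos (a1.2.2.2 2) (a1.2.2.2 1)).le
    refine mul_le_mul_of_nonneg_left (dpow_le D.B n ?_) hn0
    have h5 := le_abs_self M
    rw [div_le_iff₀ hc] at a2
    rw [hrc, div_mul_eq_mul_div, one_mul, div_le_iff₀ (by positivity)]
    nlinarith
  · intro M
    filter_upwards [s5, hlarge |M|] with n a1 a2
    show D.w 0 n (0 + 1 / ((s n : ℚ) + 1) * 0) ≤ B'.d n ^ M * D.w 2 n (0 + 1 / ((s n : ℚ) + 1) * 0)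
    rw [hM0, hBe]
    refine a1.2.2.1.trans ?_
    refine mul_le_mul_of_nonneg_right (dpow_le D.B n ?_) (a1.2.2.2 2).le
    have h5 := le_abs_self M
    have h6 := hrs n
    have h7 := hrs1 n
    have h8 := abs_nonneg M
    nlinarith

/-- a dense part from the negation of a density -/
theorem half_or {I J : ℕ → Finset (ℕ × ℝ)} (hJ : ∀ n, J n ⊆ I n)
    (h : ¬ ∀ᶠ n in (U : Filter ℕ), (I n).card ≤ 2 * (J n).card) :
    ∀ᶠ n in (U : Filter ℕ), (I n).card ≤ 2 * (I n \ J n).card := by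
  classical
  rw [← Ultrafilter.eventually_not] at h
  filter_upwards [h] with n hn
  have h1 := card_sdiff_add_card_inter (I n) (J n)
  rw [inter_eq_right.2 (hJ n)] at h1
  omega

end

end Crest.Agent.R136.Re436
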