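import Crest.Agent.R136.ReE5_436

/-!
# R136 (S0187), case E: re-flag (helper436), part 6: the gap case
-/

set_option autoImplicit false
set_option linter.unusedVariables false

open Finset Filter Topology

namespace Crest.Agent.R136.Re436

open Crest.Agent.R138.Ex926 (Base U exists_diag)
open Crest.Agent.R138.Mk163 (zc zl rho alive)
open Crest.Agent.R138.Dp76 (Dense)
open Crest.Agent.R138.Ps627 (dense_of_half)
open Crest.Agent.R138.MkRef627 (lc kc)
open Crest.Agent.R138.MkZoom779 (Fq Fq_mem ev_mem_Fq dpow_pos dpow_le)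
open Crest.Agent.R136.MkA627
open Crest.Agent.R136.Net191
open Crest.Agent.R136.NetQ186
open Crest.Agent.R136.Wq638
open Crest.Agent.R136.Top484
open Crest.Agent.R136.NatT550
open Crest.Agent.R136.Ut627 (prF btF prLinF wpos_all)
open Crest.Agent.R136.Sh605 (Ln4)

section

variable {p : Par4} {D : Dat4} {π : Equiv.Perm (Fin 3)} {eE fA fB : ℕ → ℕ × ℝ → ℝ}

theorem dense_card {B : Base} {I J : ℕ → Finset (ℕ × ℝ)} (hJ : ∀ n, J n ⊆ I n)
    (h : ∀ᶠ n in (U : Filter ℕ), (I n).card ≤ 2 * (J n).card) : Dense B J I :=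
  dense_of_half (by
    filter_upwards [h] with n hn
    exact ⟨hJ n, by exact_mod_cast hn⟩)

open Classical in
/-- gap, `|b|` power-small on half of the incidences: `E` becomes invisible -/
theorem flags_gap_small (hR : RawS p D π eE fA fB) (h3 : InvS D π eE fA fB 3) (hG : GapInf D)
    (hF : FlagB D eE fA fB) {a b : ℕ → ℕ → ℝ}
    (hab : ∀ᶠ n in (U : Filter ℕ), ∀ x ∈ D.I n, a n x.1 ^ 2 + b n x.1 ^ 2 = 1)
    (hrel : ∀ M : ℝ, ∀ᶠ n in (U : Filter ℕ), ∀ x ∈ D.I n, ∀ y ∈ D.I n, y.1 = x.1 →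
        |a n x.1 * (coQ (incQ π D.L eE fA fB n x) (incQ π D.L eE fA fB n y) 2 / natW D n 0 2) +
          b n x.1 * (coQ (incQ π D.L eE fA fB n x) (incQ π D.L eE fA fB n y) 4 / natW D n 0 4)| ≤
          D.B.d n ^ M) {c : ℝ} (hc : 0 < c)
    (hS : ∀ᶠ n in (U : Filter ℕ), (D.I n).card ≤
      2 * ((D.I n).filter fun x => |b n x.1| ≤ D.B.d n ^ c).card)
    {c1 : ℝ} (hc1 : c1 < 1) (hFc : ∀ n, ∀ x ∈ D.I n, |fB n x| ≤ c1) :
    ∃ D' : Dat4, FlagOut p D' π eE fA fB := by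
  obtain ⟨J', j1, j2⟩ := hR.refine (J := fun n => (D.I n).filter fun x => |b n x.1| ≤ D.B.d n ^ c)
    (dense_card (fun n => filter_subset _ _) hS) (fun n => filter_subset _ _)
  have hJI : ∀ n, J' n ⊆ D.I n := fun n => (j1 n).trans (filter_subset _ _)
  obtain ⟨D', z1, z2, z3, z4, z5, z6⟩ := zoom_two (D := subD D J') j2 (h3.sub hJI) hG
    (c := c / 2) (by positivity) (by
      filter_upwards [hab, hrel c, hR.near0 (ε := c / 4) (by positivity),
        ev_absorb D.B (C := 4) (ε := c / 4) (by norm_num) (by positivity),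
        ev_absorb D.B (C := 2) (ε := c) (by norm_num) hc] with n a1 a2 a3 a4 a5 x hx y hy hxy
      show |coQ (incQ π D.L eE fA fB n x) (incQ π D.L eE fA fB n y) 2| ≤
        natW D n 0 2 * D.B.d n ^ (c / 2)
      obtain ⟨hw, a3⟩ := a3
      have hxI := hJI n hx
      have hyI := hJI n hy
      have hb : |b n x.1| ≤ D.B.d n ^ c := (mem_filter.1 (j1 n hx)).2
      have W2 : 0 < natW D n 0 2 := div_pos (hw 2) (hw 1)
      have W4 : 0 < natW D n 0 4 := div_pos (hw 0) (hw 1)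
      have r0 := a2 x hxI y hyI hxy
      have r4 := a3 x hxI y hyI hxy 4
      set s2 : ℝ := coQ (incQ π D.L eE fA fB n x) (incQ π D.L eE fA fB n y) 2 with hs2
      set s4 : ℝ := coQ (incQ π D.L eE fA fB n x) (incQ π D.L eE fA fB n y) 4 with hs4
      have hd1 : D.B.d n ^ c ≤ 1 / 2 := by
        have := a5 0
        rw [zero_add, Real.rpow_zero] at this
        linarith
      have ha : 1 / 2 ≤ |a n x.1| := by
        have h1 := a1 x hxI
        have h2 : b n x.1 ^ 2 ≤ (1 / 2) ^ 2 := by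
          rw [← sq_abs]
          exact pow_le_pow_left₀ (abs_nonneg _) (hb.trans hd1) 2
        by_contra hlt
        push Not at hlt
        have h3 : a n x.1 ^ 2 < (1 / 2) ^ 2 := by
          rw [← sq_abs]
          exact pow_lt_pow_left₀ hlt (abs_nonneg _) (by norm_num)
        nlinarith
      have h4 : |b n x.1 * (s4 / natW D n 0 4)| ≤ D.B.d n ^ (3 * c / 4) := by
        rw [abs_mul, abs_div, abs_of_pos W4]
        have h5 : |s4| / natW D n 0 4 ≤ D.B.d n ^ (-(c / 4)) := by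
          rw [div_le_iff₀ W4, mul_comm]; exact r4
        calc |b n x.1| * (|s4| / natW D n 0 4) ≤ D.B.d n ^ c * D.B.d n ^ (-(c / 4)) :=
              mul_le_mul hb h5 (by positivity) (dpow_pos D.B n _).le
          _ = _ := by rw [← Real.rpow_add (D.B.pos n)]; congr 1; ring
      have h5 : |a n x.1 * (s2 / natW D n 0 2)| ≤ 2 * D.B.d n ^ (3 * c / 4) := by
        have h6 : a n x.1 * (s2 / natW D n 0 2) = (a n x.1 * (s2 / natW D n 0 2) +
            b n x.1 * (s4 / natW D n 0 4)) - b n x.1 * (s4 / natW D n 0 4) := by ring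
        rw [h6]
        refine (abs_sub _ _).trans ?_
        have h7 : D.B.d n ^ c ≤ D.B.d n ^ (3 * c / 4) := dpow_le D.B n (by linarith)
        linarith
      rw [abs_mul, abs_div, abs_of_pos W2] at h5
      have h6 : |s2| / natW D n 0 2 ≤ 4 * D.B.d n ^ (3 * c / 4) := by
        have h7 : 0 ≤ |s2| / natW D n 0 2 := by positivity
        nlinarith
      have h7 := a4 (c / 2)
      have e1 : c / 2 + c / 4 = 3 * c / 4 := by ring
      rw [e1] at h7
      have h8 := h6.trans h7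
      rw [div_le_iff₀ W2] at h8
      linarith)
  exact ⟨D', z3, ⟨fun n x hx => hF n x (hJI n (z2 n hx)),
    fun _ => ⟨c1, hc1, fun n x hx => hFc n x (hJI n (z2 n hx))⟩⟩, z4, Or.inr ⟨z5, z6⟩⟩

/-- new flags without exchange: flag bounds -/
theorem flagB_num {e fa fb β : ℝ} (h1 : |e| ≤ 1) (h2 : |e| + |fa + e * fb| ≤ 1)
    (h3 : |fb + β| ≤ 1) : |e| ≤ 1 ∧ |fa - β * e| ≤ 1 ∧ |fb + β| ≤ 1 ∧
      |e| + |(fa - β * e) + e * (fb + β)| ≤ 1 := by
  refine ⟨h1, ?_, h3, ?_⟩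
  · have e1 : fa - β * e = (fa + e * fb) - e * (fb + β) := by ring
    rw [e1]
    refine (abs_sub _ _).trans ?_
    rw [abs_mul]
    have := mul_le_mul_of_nonneg_left h3 (abs_nonneg e)
    linarith
  · have e1 : (fa - β * e) + e * (fb + β) = fa + e * fb := by ring
    rw [e1]
    exact h2

open Classical in
/-- gap, `|b| ≥ d^o(1)` : re-flag -/
theorem flags_gap_big (hR : RawS p D π eE fA fB) (h02 : p.θ 0 = p.θ 2)
    (h3 : InvS D π eE fA fB 3) (hG : GapInf D)
    (hF : FlagB D eE fA fB) {c : ℝ} (hc : c < 1) (hFc : ∀ n, ∀ x ∈ D.I n, |fB n x| ≤ c)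
    {a b : ℕ → ℕ → ℝ}
    (hab : ∀ᶠ n in (U : Filter ℕ), ∀ x ∈ D.I n, a n x.1 ^ 2 + b n x.1 ^ 2 = 1)
    (hrel : ∀ M : ℝ, ∀ᶠ n in (U : Filter ℕ), ∀ x ∈ D.I n, ∀ y ∈ D.I n, y.1 = x.1 →
        |a n x.1 * (coQ (incQ π D.L eE fA fB n x) (incQ π D.L eE fA fB n y) 2 / natW D n 0 2) +
          b n x.1 * (coQ (incQ π D.L eE fA fB n x) (incQ π D.L eE fA fB n y) 4 / natW D n 0 4)| ≤
          D.B.d n ^ M)
    (hS : ∀ c : ℝ, 0 < c → ∀ᶠ n in (U : Filter ℕ), (D.I n).card ≤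
      2 * ((D.I n) \ (D.I n).filter fun x => |b n x.1| ≤ D.B.d n ^ c).card) :
    ∃ (D' : Dat4) (fa' fb' : ℕ → ℕ × ℝ → ℝ), FlagOut p D' π eE fa' fb' := by
  obtain ⟨k, hk, hk'⟩ := exists_diag (fun k n => (D.I n).card ≤
    2 * ((D.I n) \ (D.I n).filter fun x => |b n x.1| ≤ D.B.d n ^ (1 / ((k : ℝ) + 1))).card)
    (fun k => hS _ (by positivity))
  have hk2 := hk'.mono fun n hn => hn (k n) le_rfl
  obtain ⟨J', j1, j2⟩ := hR.refine
    (J := fun n => (D.I n) \ (D.I n).filter fun x => |b n x.1| ≤ D.B.d n ^ (1 / ((k n : ℝ) + 1)))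
    (dense_card (fun n => sdiff_subset) hk2) (fun n => sdiff_subset)
  have hJI : ∀ n, J' n ⊆ D.I n := fun n => (j1 n).trans sdiff_subset
  have hbk : ∀ n, ∀ x ∈ J' n, D.B.d n ^ (1 / ((k n : ℝ) + 1)) < |b n x.1| := by
    intro n x hx
    have h1 := mem_sdiff.1 (j1 n hx)
    by_contra hlt
    exact h1.2 (mem_filter.2 ⟨h1.1, not_lt.1 hlt⟩)
  have hk0 : ∀ ε : ℝ, 0 < ε → ∀ᶠ n in (U : Filter ℕ), 1 / ((k n : ℝ) + 1) < ε := fun ε hε =>
    (tendsto_one_div_add_atTop_nhds_zero_nat.comp hk).eventually_lt_const hε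
  -- the new slope
  set β0 : ℕ → ℕ × ℝ → ℝ := fun n x =>
    -(a n x.1 / b n x.1) * (D.w 0 n 0 / D.w 2 n 0) with hβ0
  set β : ℕ → ℕ × ℝ → ℝ := fun n x => if |β0 n x| ≤ (1 - c) / 2 then β0 n x else 0 with hβ
  have hβc : ∀ n x, |β n x| ≤ (1 - c) / 2 := by
    intro n x
    simp only [hβ]
    split_ifs with h
    · exact h
    · rw [abs_zero]; linarith
  have hβline : ∀ n x y, y.1 = x.1 → β n y = β n x := by
    intro n x y hxy
    simp only [hβ, hβ0, hxy]
  have hβ0b : ∀ ε : ℝ, 0 < ε → ∀ᶠ n in (U : Filter ℕ), ∀ x ∈ J' n,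
      |β0 n x| ≤ D.w 0 n 0 / D.w 2 n 0 * D.B.d n ^ (-ε) := by
    intro ε hε
    filter_upwards [hab, hk0 ε hε, wpos_all hR.mka le_rfl zero_le_one] with n a1 a2 hw x hx
    have h1 := a1 x (hJI n hx)
    have h2 := hbk n x hx
    have ha : |a n x.1| ≤ 1 := by
      rw [← sq_le_one_iff_abs_le_one]
      nlinarith [sq_nonneg (b n x.1)]
    have hw0 : 0 < D.w 0 n 0 / D.w 2 n 0 := div_pos (hw 0) (hw 2)
    have hbp : 0 < |b n x.1| := (dpow_pos D.B n _).trans h2
    have h3 : |a n x.1| / |b n x.1| ≤ D.B.d n ^ (-ε) := by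
      rw [div_le_iff₀ hbp]
      have h4 : D.B.d n ^ (-ε) * D.B.d n ^ (1 / ((k n : ℝ) + 1)) ≤ D.B.d n ^ (-ε) * |b n x.1| :=
        mul_le_mul_of_nonneg_left h2.le (dpow_pos D.B n _).le
      have h5 : (1 : ℝ) ≤ D.B.d n ^ (-ε) * D.B.d n ^ (1 / ((k n : ℝ) + 1)) := by
        rw [← Real.rpow_add (D.B.pos n)]
        have := dpow_le D.B n (show -ε + 1 / ((k n : ℝ) + 1) ≤ 0 by linarith)
        rwa [Real.rpow_zero] at this
      linarith
    simp only [hβ0]
    rw [abs_mul, abs_neg, abs_div, abs_of_pos hw0, mul_comm]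
    exact mul_le_mul_of_nonneg_left h3 hw0.le
  have hβeq : ∀ᶠ n in (U : Filter ℕ), ∀ x ∈ J' n, β n x = β0 n x := by
    have hsm : ∀ᶠ n in (U : Filter ℕ), D.B.d n ^ (1 : ℝ) ≤ (1 - c) / 2 := by
      have h1 : ∀ᶠ n in (U : Filter ℕ),
          (1 / ((1 - c) / 2)) * D.B.d n ^ ((0 : ℝ) + 1) ≤ D.B.d n ^ (0 : ℝ) :=
        (ev_absorb D.B (C := 1 / ((1 - c) / 2)) (div_pos one_pos (by linarith)).le one_pos).mono
          fun n hn => hn 0
      filter_upwards [h1] with n hn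
      rw [Real.rpow_zero, zero_add, one_div, inv_mul_le_iff₀ (by linarith), mul_one] at hn
      exact hn
    filter_upwards [hβ0b 1 one_pos, hG 2, hsm, wpos_all hR.mka le_rfl zero_le_one]
      with n a1 a2 a3 hw x hx
    have h1 := a1 x hx
    have h2 : D.w 0 n 0 / D.w 2 n 0 ≤ D.B.d n ^ (2 : ℝ) := by
      rw [div_le_iff₀ (hw 2)]; exact a2
    have h3 : |β0 n x| ≤ D.B.d n ^ (1 : ℝ) := by
      refine h1.trans ((mul_le_mul_of_nonneg_right h2 (dpow_pos D.B n _).le).trans (le_of_eq ?_))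
      rw [← Real.rpow_add (D.B.pos n)]
      norm_num
    simp only [hβ]
    rw [if_pos (h3.trans a3)]
  have hβb : ∀ ε : ℝ, 0 < ε → ∀ᶠ n in (U : Filter ℕ), ∀ x ∈ (subD D J').I n,
      |β n x| ≤ (subD D J').w 0 n 0 / (subD D J').w 2 n 0 * (subD D J').B.d n ^ (-ε) := by
    intro ε hε
    filter_upwards [hβ0b ε hε, hβeq] with n a1 a2 x hx
    rw [a2 x hx]
    exact a1 x hx
  have hRaw := Crest.Agent.R136.Exch201.rawFlag p (subD D J') π eE fA fB β j2 h02 hβb
  have hnb : ∀ n, ∀ x ∈ J' n, |fB n x + β n x| ≤ (1 + c) / 2 := by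
    intro n x hx
    refine (abs_add_le _ _).trans ?_
    have h1 := hFc n x (hJI n hx)
    have h2 := hβc n x
    linarith
  refine ⟨subD D J', fun n x => fA n x - β n x * eE n x, fun n x => fB n x + β n x, hRaw,
    ⟨?_, fun _ => ⟨(1 + c) / 2, by linarith, hnb⟩⟩, ?_, ?_⟩
  · intro n x hx
    obtain ⟨f1, f2, f3, f4⟩ := hF n x (hJI n hx)
    refine flagB_num f1 f4 ?_
    have h1 := hnb n x hx
    linarith
  · intro M
    filter_upwards [h3 M] with n hn x hx y hy hxy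
    have h1 := hn x (hJI n hx) y (hJI n hy) hxy
    rw [sl3] at h1 ⊢
    rw [hβline n x y hxy]
    have e1 : fB n y + β n x - (fB n x + β n x) = fB n y - fB n x := by ring
    rw [e1]
    exact h1
  · left
    intro M
    filter_upwards [hrel (M + 1), hβeq, hk0 1 one_pos, wpos_all hR.mka le_rfl zero_le_one]
      with n a1 a2 a3 hw x hx y hy hxy
    have h1 := a1 x (hJI n hx) y (hJI n hy) hxy
    have hb := hbk n x hx
    have hbd : D.B.d n ^ (1 : ℝ) ≤ |b n x.1| := (dpow_le D.B n a3.le).trans hb.le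
    have W2 : 0 < natW D n 0 2 := div_pos (hw 2) (hw 1)
    have W4 : 0 < natW D n 0 4 := div_pos (hw 0) (hw 1)
    have hb0 : b n x.1 ≠ 0 := by
      intro h0
      rw [h0, abs_zero] at hb
      exact absurd hb (not_lt.2 (dpow_pos D.B n _).le)
    have hbp : 0 < |b n x.1| := abs_pos.2 hb0
    rw [sl2, sl4] at h1
    rw [sl4]
    have hb1 := hβline n x y hxy
    simp only [hb1, a2 x hx]
    have hr : D.w 0 n 0 / D.w 2 n 0 = natW D n 0 4 / natW D n 0 2 := by
      rw [natW_two, natW_four]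
      have q1 := (hw 1).ne'
      have q2 := (hw 2).ne'
      field_simp
    have key : fA n y - β0 n x * eE n y - (fA n x - β0 n x * eE n x) +
        eE n x * (fB n y + β0 n x - (fB n x + β0 n x)) =
        (natW D n 0 4 / b n x.1) * (a n x.1 * ((eE n y - eE n x) / natW D n 0 2) +
          b n x.1 * (((fA n y - fA n x) + eE n x * (fB n y - fB n x)) / natW D n 0 4)) := by
      simp only [hβ0]
      rw [hr]
      have q2 := W2.ne'
      have q4 := W4.ne'
      field_simp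
      ring
    rw [key, abs_mul, abs_div, abs_of_pos W4]
    show _ ≤ natW D n 0 4 * D.B.d n ^ M
    calc natW D n 0 4 / |b n x.1| * |a n x.1 * ((eE n y - eE n x) / natW D n 0 2) +
          b n x.1 * (((fA n y - fA n x) + eE n x * (fB n y - fB n x)) / natW D n 0 4)|
        ≤ natW D n 0 4 / |b n x.1| * D.B.d n ^ (M + 1) :=
          mul_le_mul_of_nonneg_left h1 (div_pos W4 hbp).le
      _ = natW D n 0 4 * (D.B.d n ^ (M + 1) / |b n x.1|) := by ring
      _ ≤ natW D n 0 4 * D.B.d n ^ M := by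
          refine mul_le_mul_of_nonneg_left ?_ W4.le
          rw [div_le_iff₀ hbp, Real.rpow_add (D.B.pos n)]
          exact mul_le_mul_of_nonneg_left hbd (dpow_pos D.B n _).le

open Classical in
/-- **gap case** -/
theorem flags_gap (hR : RawS p D π eE fA fB) (h02 : p.θ 0 = p.θ 2)
    (h3 : InvS D π eE fA fB 3) (hL : LineInf D π eE fA fB) (hG : GapInf D)
    (hF : FlagB D eE fA fB) {c : ℝ} (hc : c < 1) (hFc : ∀ n, ∀ x ∈ D.I n, |fB n x| ≤ c) :
    ∃ (D' : Dat4) (fa' fb' : ℕ → ℕ × ℝ → ℝ), FlagOut p D' π eE fa' fb' := by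
  obtain ⟨a, b, hab, hrel⟩ := hL.fn hR h3
  by_cases hS : ∃ c0 : ℝ, 0 < c0 ∧ ∀ᶠ n in (U : Filter ℕ), (D.I n).card ≤
      2 * ((D.I n).filter fun x => |b n x.1| ≤ D.B.d n ^ c0).card
  · obtain ⟨c0, hc0, hS⟩ := hS
    obtain ⟨D', h⟩ := flags_gap_small hR h3 hG hF hab hrel hc0 hS hc hFc
    exact ⟨D', fA, fB, h⟩
  · push Not at hS
    refine flags_gap_big hR h02 h3 hG hF hc hFc hab hrel fun c0 hc0 => ?_
    exact half_or (fun n => filter_subset _ _) (fun hc => by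
      have h1 := hS c0 hc0
      obtain ⟨n, h3, h4⟩ := (h1.and hc).exists
      omega)

end

end Crest.Agent.R136.Re436
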