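import Crest.Agent.R136.ReE6_436

/-!
# R136 (S0187), case E: re-flag (helper436), part 7: the case without gap, choice of the flags
-/

set_option autoImplicit false
set_option linter.unusedVariables false

open Finset Filter Topology

namespace Crest.Agent.R136.Re436

open Crest.Agent.R138.Ex926 (Base U exists_diag)
open Crest.Agent.R138.Mk163 (zc zl rho alive)
open Crest.Agent.R138.Dp76 (Dense)
open Crest.Agent.R138.Ps627 (dense_of_half)
open Crest.Agent.R138.MkRef627 (lc kc)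
open Crest.Agent.R138.MkZoom779 (Fq Fq_mem ev_mem_Fq dpow_pos dpow_le)
open Crest.Agent.R136.MkA627
open Crest.Agent.R136.Net191
open Crest.Agent.R136.NetQ186
open Crest.Agent.R136.Wq638
open Crest.Agent.R136.Top484
open Crest.Agent.R136.NatT550
open Crest.Agent.R136.Ut627 (prF btF prLinF wpos_all)
open Crest.Agent.R136.Sh605 (Ln4)

section

variable {p : Par4} {D : Dat4} {π : Equiv.Perm (Fin 3)} {eE fA fB : ℕ → ℕ × ℝ → ℝ}

theorem NoGap.not_gap (h : NoGap D) (hw : ∀ᶠ n in (U : Filter ℕ), ∀ j, 0 < D.w j n 0) :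
    ¬ Gap23 D := by
  rintro ⟨γ, hγ, hg⟩
  obtain ⟨n, ⟨h1, h2⟩, h3⟩ := ((hg.and (h (γ / 2) (by positivity))).and hw).exists
  have h4 : D.B.d n ^ (γ / 2) * D.w 2 n 0 ≤ D.B.d n ^ γ * D.w 2 n 0 := h2.trans h1
  have h5 := le_of_mul_le_mul_right h4 (h3 2)
  have h6 : D.B.d n ^ γ < D.B.d n ^ (γ / 2) :=
    Real.rpow_lt_rpow_of_exponent_gt (D.B.pos n) (D.B.lt n) (by linarith)
  exact absurd h5 (not_le.2 h6)

/-- lower bound of the denominators -/
theorem den_low {a b r G : ℝ} (hab : a ^ 2 + b ^ 2 = 1) (hr : 0 < r) (hbG : |b| ≤ G)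
    (h : |a| * r ≤ 2 * G) : min r 1 / 4 ≤ G := by
  by_contra hlt
  push Not at hlt
  have h1 : G < 1 / 4 := lt_of_lt_of_le hlt (by
    have := min_le_right r 1
    linarith)
  have h2 : G < r / 4 := lt_of_lt_of_le hlt (by
    have := min_le_left r 1
    linarith)
  have hb2 : b ^ 2 ≤ (1 / 4) ^ 2 := by
    rw [← sq_abs]
    exact pow_le_pow_left₀ (abs_nonneg _) (by linarith) 2
  have ha : 1 / 2 < |a| := by
    by_contra hc
    push Not at hc
    have : a ^ 2 ≤ (1 / 2) ^ 2 := by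
      rw [← sq_abs]
      exact pow_le_pow_left₀ (abs_nonneg _) hc 2
    nlinarith
  nlinarith

/-- the denominators are at least `d` -/
theorem ev_min (hN : NoGap D) (hw : ∀ᶠ n in (U : Filter ℕ), ∀ j, 0 < D.w j n 0) :
    ∀ᶠ n in (U : Filter ℕ), D.B.d n ^ (1 : ℝ) ≤ min (D.w 0 n 0 / D.w 2 n 0) 1 / 4 := by
  filter_upwards [hN (1 / 2) (by norm_num), hw, ev_absorb D.B (C := 4) (ε := 1 / 2) (by norm_num)
    (by norm_num)] with n a1 a2 a3
  have h1 : D.B.d n ^ (1 / 2 : ℝ) ≤ D.w 0 n 0 / D.w 2 n 0 := by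
    rw [le_div_iff₀ (a2 2)]; exact a1
  have h2 : D.B.d n ^ (1 / 2 : ℝ) ≤ 1 := by
    have := dpow_le D.B n (show (0 : ℝ) ≤ 1 / 2 by norm_num)
    rwa [Real.rpow_zero] at this
  have h3 := a3 (1 / 2)
  have e1 : (1 / 2 : ℝ) + 1 / 2 = 1 := by norm_num
  rw [e1] at h3
  have h4 := le_min h1 h2
  linarith

open Classical in
/-- no gap, direct type -/
theorem flags_nogap_dir (hR : RawS p D π eE fA fB) (h02 : p.θ 0 = p.θ 2)
    (h3 : InvS D π eE fA fB 3) (hN : NoGap D) (hF : FlagB D eE fA fB)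
    {a b : ℕ → ℕ → ℝ}
    (hab : ∀ᶠ n in (U : Filter ℕ), ∀ x ∈ D.I n, a n x.1 ^ 2 + b n x.1 ^ 2 = 1)
    (hrel : ∀ M : ℝ, ∀ᶠ n in (U : Filter ℕ), ∀ x ∈ D.I n, ∀ y ∈ D.I n, y.1 = x.1 →
        |a n x.1 * (coQ (incQ π D.L eE fA fB n x) (incQ π D.L eE fA fB n y) 2 / natW D n 0 2) +
          b n x.1 * (coQ (incQ π D.L eE fA fB n x) (incQ π D.L eE fA fB n y) 4 / natW D n 0 4)| ≤
          D.B.d n ^ M)
    (hS : ∀ᶠ n in (U : Filter ℕ), (D.I n).card ≤ 2 * ((D.I n).filter fun x =>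
      |a n x.1 * (D.w 0 n 0 / D.w 2 n 0) - b n x.1 * fB n x| ≤ |b n x.1|).card) :
    ∃ (D' : Dat4) (fa' fb' : ℕ → ℕ × ℝ → ℝ), FlagOut p D' π eE fa' fb' := by
  obtain ⟨J', j1, j2⟩ := hR.refine (J := fun n => (D.I n).filter fun x =>
      |a n x.1 * (D.w 0 n 0 / D.w 2 n 0) - b n x.1 * fB n x| ≤ |b n x.1|)
    (dense_card (fun n => filter_subset _ _) hS) (fun n => filter_subset _ _)
  have hJI : ∀ n, J' n ⊆ D.I n := fun n => (j1 n).trans (filter_subset _ _)
  have hJ : ∀ n, ∀ x ∈ J' n,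
      |a n x.1 * (D.w 0 n 0 / D.w 2 n 0) - b n x.1 * fB n x| ≤ |b n x.1| := fun n x hx =>
    (mem_filter.1 (j1 n hx)).2
  have hw := wpos_all hR.mka le_rfl zero_le_one
  set β : ℕ → ℕ × ℝ → ℝ := fun n x => -(a n x.1 * (D.w 0 n 0 / D.w 2 n 0)) / b n x.1 with hβ
  have hβline : ∀ n x y, y.1 = x.1 → β n y = β n x := by
    intro n x y hxy
    simp only [hβ, hxy]
  have hfb : ∀ n, ∀ x ∈ J' n, |fB n x + β n x| ≤ 1 := by
    intro n x hx
    obtain ⟨f1, f2, f3, f4⟩ := hF n x (hJI n hx)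
    by_cases hb : b n x.1 = 0
    · simp only [hβ, hb, div_zero, add_zero]
      exact f3
    · have e1 : fB n x + β n x =
          -(a n x.1 * (D.w 0 n 0 / D.w 2 n 0) - b n x.1 * fB n x) / b n x.1 := by
        simp only [hβ]
        field_simp
        ring
      rw [e1, abs_div, abs_neg, div_le_one (abs_pos.2 hb)]
      exact hJ n x hx
  have hbl : ∀ᶠ n in (U : Filter ℕ), ∀ x ∈ J' n, D.B.d n ^ (1 : ℝ) ≤ |b n x.1| := by
    filter_upwards [hab, ev_min hN hw, hw] with n a1 a2 a3 x hx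
    refine a2.trans (den_low (a1 x (hJI n hx)) (div_pos (a3 0) (a3 2)) le_rfl ?_)
    obtain ⟨f1, f2, f3, f4⟩ := hF n x (hJI n hx)
    have h1 := hJ n x hx
    have hr := div_pos (a3 0) (a3 2)
    have h2 : |a n x.1 * (D.w 0 n 0 / D.w 2 n 0)| ≤ |b n x.1| + |b n x.1 * fB n x| := by
      have e1 : a n x.1 * (D.w 0 n 0 / D.w 2 n 0) =
        (a n x.1 * (D.w 0 n 0 / D.w 2 n 0) - b n x.1 * fB n x) + b n x.1 * fB n x := by ring
      rw [e1]
      exact (abs_add_le _ _).trans (add_le_add h1 le_rfl)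
    rw [abs_mul, abs_of_pos hr, abs_mul] at h2
    have h3 := mul_le_mul_of_nonneg_left f3 (abs_nonneg (b n x.1))
    linarith
  have hβb : ∀ ε : ℝ, 0 < ε → ∀ᶠ n in (U : Filter ℕ), ∀ x ∈ (subD D J').I n,
      |β n x| ≤ (subD D J').w 0 n 0 / (subD D J').w 2 n 0 * (subD D J').B.d n ^ (-ε) := by
    intro ε hε
    filter_upwards [hN (ε / 2) (by positivity), hw,
      ev_absorb D.B (C := 2) (ε := ε / 2) (by norm_num) (by positivity)] with n a1 a2 a3 x hx
    obtain ⟨f1, f2, f3, f4⟩ := hF n x (hJI n hx)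
    have h1 := hfb n x hx
    have h2 : |β n x| ≤ 2 := by
      have e1 : β n x = (fB n x + β n x) - fB n x := by ring
      rw [e1]
      refine (abs_sub _ _).trans ?_
      linarith
    refine h2.trans ?_
    show (2 : ℝ) ≤ D.w 0 n 0 / D.w 2 n 0 * D.B.d n ^ (-ε)
    have h4 : D.B.d n ^ (ε / 2) ≤ D.w 0 n 0 / D.w 2 n 0 := by
      rw [le_div_iff₀ (a2 2)]; exact a1
    have h5 : D.B.d n ^ (ε / 2) * D.B.d n ^ (-ε) ≤ D.w 0 n 0 / D.w 2 n 0 * D.B.d n ^ (-ε) :=
      mul_le_mul_of_nonneg_right h4 (dpow_pos D.B n _).le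
    refine le_trans ?_ h5
    rw [← Real.rpow_add (D.B.pos n)]
    have h6 := a3 (-(ε / 2))
    rw [neg_add_cancel, Real.rpow_zero, mul_one] at h6
    refine h6.trans (le_of_eq ?_)
    congr 1; ring
  have hRaw := Crest.Agent.R136.Exch201.rawFlag p (subD D J') π eE fA fB β j2 h02 hβb
  refine ⟨subD D J', fun n x => fA n x - β n x * eE n x, fun n x => fB n x + β n x, hRaw,
    ⟨?_, fun hg => absurd hg (hN.not_gap hw)⟩, ?_, ?_⟩
  · intro n x hx
    obtain ⟨f1, f2, f3, f4⟩ := hF n x (hJI n hx)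
    exact flagB_num f1 f4 (hfb n x hx)
  · intro M
    filter_upwards [h3 M] with n hn x hx y hy hxy
    have h1 := hn x (hJI n hx) y (hJI n hy) hxy
    rw [sl3] at h1 ⊢
    rw [hβline n x y hxy]
    have e1 : fB n y + β n x - (fB n x + β n x) = fB n y - fB n x := by ring
    rw [e1]
    exact h1
  · left
    intro M
    filter_upwards [hrel (M + 1), hbl, hw] with n a1 a2 hw x hx y hy hxy
    have h1 := a1 x (hJI n hx) y (hJI n hy) hxy
    have hbd := a2 x hx
    have W2 : 0 < natW D n 0 2 := div_pos (hw 2) (hw 1)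
    have W4 : 0 < natW D n 0 4 := div_pos (hw 0) (hw 1)
    have hbp : 0 < |b n x.1| := (dpow_pos D.B n _).trans_le hbd
    have hb0 : b n x.1 ≠ 0 := abs_pos.1 hbp
    rw [sl2, sl4] at h1
    rw [sl4]
    have hb1 := hβline n x y hxy
    simp only [hb1]
    have hr : D.w 0 n 0 / D.w 2 n 0 = natW D n 0 4 / natW D n 0 2 := by
      rw [natW_two, natW_four]
      have q1 := (hw 1).ne'
      have q2 := (hw 2).ne'
      field_simp
    have key : fA n y - β n x * eE n y - (fA n x - β n x * eE n x) +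
        eE n x * (fB n y + β n x - (fB n x + β n x)) =
        (natW D n 0 4 / b n x.1) * (a n x.1 * ((eE n y - eE n x) / natW D n 0 2) +
          b n x.1 * (((fA n y - fA n x) + eE n x * (fB n y - fB n x)) / natW D n 0 4)) := by
      simp only [hβ]
      rw [hr]
      have q2 := W2.ne'
      have q4 := W4.ne'
      field_simp
      ring
    rw [key, abs_mul, abs_div, abs_of_pos W4]
    show _ ≤ natW D n 0 4 * D.B.d n ^ M
    calc natW D n 0 4 / |b n x.1| * |a n x.1 * ((eE n y - eE n x) / natW D n 0 2) +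
          b n x.1 * (((fA n y - fA n x) + eE n x * (fB n y - fB n x)) / natW D n 0 4)|
        ≤ natW D n 0 4 / |b n x.1| * D.B.d n ^ (M + 1) :=
          mul_le_mul_of_nonneg_left h1 (div_pos W4 hbp).le
      _ = natW D n 0 4 * (D.B.d n ^ (M + 1) / |b n x.1|) := by ring
      _ ≤ natW D n 0 4 * D.B.d n ^ M := by
          refine mul_le_mul_of_nonneg_left ?_ W4.le
          rw [div_le_iff₀ hbp, Real.rpow_add (D.B.pos n)]
          exact mul_le_mul_of_nonneg_left hbd (dpow_pos D.B n _).le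

open Classical in
/-- no gap, exchanged type -/
theorem flags_nogap_exch (hR : RawS p D π eE fA fB) (h02 : p.θ 0 = p.θ 2)
    (h3 : InvS D π eE fA fB 3) (hN : NoGap D) (hF : FlagB D eE fA fB)
    {a b : ℕ → ℕ → ℝ}
    (hab : ∀ᶠ n in (U : Filter ℕ), ∀ x ∈ D.I n, a n x.1 ^ 2 + b n x.1 ^ 2 = 1)
    (hrel : ∀ M : ℝ, ∀ᶠ n in (U : Filter ℕ), ∀ x ∈ D.I n, ∀ y ∈ D.I n, y.1 = x.1 →
        |a n x.1 * (coQ (incQ π D.L eE fA fB n x) (incQ π D.L eE fA fB n y) 2 / natW D n 0 2) +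
          b n x.1 * (coQ (incQ π D.L eE fA fB n x) (incQ π D.L eE fA fB n y) 4 / natW D n 0 4)| ≤
          D.B.d n ^ M)
    (hS : ∀ᶠ n in (U : Filter ℕ), (D.I n).card ≤ 2 * ((D.I n) \ (D.I n).filter fun x =>
      |a n x.1 * (D.w 0 n 0 / D.w 2 n 0) - b n x.1 * fB n x| ≤ |b n x.1|).card) :
    ∃ (D' : Dat4) (π' : Equiv.Perm (Fin 3)) (e' fa' fb' : ℕ → ℕ × ℝ → ℝ),
      FlagOut p D' π' e' fa' fb' := by
  obtain ⟨J', j1, j2⟩ := hR.refine (J := fun n => (D.I n) \ (D.I n).filter fun x =>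
      |a n x.1 * (D.w 0 n 0 / D.w 2 n 0) - b n x.1 * fB n x| ≤ |b n x.1|)
    (dense_card (fun n => sdiff_subset) hS) (fun n => sdiff_subset)
  have hJI : ∀ n, J' n ⊆ D.I n := fun n => (j1 n).trans sdiff_subset
  set G : ℕ → ℕ × ℝ → ℝ := fun n x =>
    a n x.1 * (D.w 0 n 0 / D.w 2 n 0) - b n x.1 * fB n x with hGd
  have hJ : ∀ n, ∀ x ∈ J' n, |b n x.1| < |G n x| := by
    intro n x hx
    have h1 := mem_sdiff.1 (j1 n hx)
    by_contra hlt
    exact h1.2 (mem_filter.2 ⟨h1.1, not_lt.1 hlt⟩)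
  have hw := wpos_all hR.mka le_rfl zero_le_one
  set φ : ℕ → ℕ × ℝ → ℝ := fun n x => -b n x.1 / G n x with hφ
  have hφ1 : ∀ n, ∀ x ∈ J' n, |φ n x| ≤ 1 := by
    intro n x hx
    have h1 := hJ n x hx
    have h2 : 0 < |G n x| := (abs_nonneg _).trans_lt h1
    simp only [hφ]
    rw [abs_div, abs_neg, div_le_one h2]
    exact h1.le
  have hGl : ∀ᶠ n in (U : Filter ℕ), ∀ x ∈ J' n, D.B.d n ^ (1 : ℝ) ≤ |G n x| := by
    filter_upwards [hab, ev_min hN hw, hw] with n a1 a2 a3 x hx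
    have h1 := hJ n x hx
    refine a2.trans (den_low (a1 x (hJI n hx)) (div_pos (a3 0) (a3 2)) h1.le ?_)
    obtain ⟨f1, f2, f3, f4⟩ := hF n x (hJI n hx)
    have hr := div_pos (a3 0) (a3 2)
    have h2 : |a n x.1 * (D.w 0 n 0 / D.w 2 n 0)| ≤ |G n x| + |b n x.1 * fB n x| := by
      have e1 : a n x.1 * (D.w 0 n 0 / D.w 2 n 0) = G n x + b n x.1 * fB n x := by
        simp only [hGd]; ring
      rw [e1]
      exact abs_add_le _ _
    rw [abs_mul, abs_of_pos hr, abs_mul] at h2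
    have h3 := mul_le_mul_of_nonneg_left f3 (abs_nonneg (b n x.1))
    linarith
  have hng : ¬ Gap23 (subD D J') := hN.not_gap hw
  have hRaw := Crest.Agent.R136.Exch201.rawExch p (subD D J') π eE fA fB φ j2 h02 hng
    (Eventually.of_forall fun n x hx => by
      obtain ⟨f1, f2, f3, f4⟩ := hF n x (hJI n hx)
      exact ⟨f1, f2, f3, hφ1 n x hx⟩)
  refine ⟨subD D J', _, _, _, _, hRaw, ⟨?_, fun hg => absurd hg hng⟩, ?_, ?_⟩
  · intro n x hx
    obtain ⟨f1, f2, f3, f4⟩ := hF n x (hJI n hx)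
    have h1 := hφ1 n x hx
    have hc : |fA n x + eE n x * fB n x| ≤ 1 := by
      have := abs_nonneg (eE n x)
      linarith
    refine ⟨hc, ?_, h1, ?_⟩
    · refine (abs_sub _ _).trans ?_
      rw [abs_mul]
      have := mul_le_mul_of_nonneg_right h1 (abs_nonneg (fA n x + eE n x * fB n x))
      linarith
    · have e1 : eE n x - φ n x * (fA n x + eE n x * fB n x) +
          (fA n x + eE n x * fB n x) * φ n x = eE n x := by ring
      rw [e1]
      linarith
  · intro M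
    filter_upwards [h3 M] with n hn x hx y hy hxy
    have h1 := hn x (hJI n hx) y (hJI n hy) hxy
    rw [sl3] at h1 ⊢
    refine le_trans ?_ h1
    have gx := hJ n x hx
    have gy := hJ n y hy
    have px : 0 < |G n x| := (abs_nonneg _).trans_lt gx
    have py : 0 < |G n y| := (abs_nonneg _).trans_lt gy
    have nx : G n x ≠ 0 := abs_pos.1 px
    have ny : G n y ≠ 0 := abs_pos.1 py
    have e1 : φ n y - φ n x = -(b n x.1 * b n x.1 * (fB n y - fB n x)) / (G n x * G n y) := by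
      have e2 : G n y = G n x - b n x.1 * (fB n y - fB n x) := by
        simp only [hGd, hxy]; ring
      simp only [hφ, hxy]
      rw [div_sub_div _ _ ny nx, div_eq_div_iff (mul_ne_zero ny nx) (mul_ne_zero nx ny)]
      rw [e2]
      ring
    rw [e1, abs_div, abs_neg, abs_mul, abs_mul, abs_mul, div_le_iff₀ (mul_pos px py)]
    rw [hxy] at gy
    have h2 : |b n x.1| * |b n x.1| ≤ |G n x| * |G n y| :=
      mul_le_mul gx.le gy.le (abs_nonneg _) px.le
    calc |b n x.1| * |b n x.1| * |fB n y - fB n x| ≤ |G n x| * |G n y| * |fB n y - fB n x| :=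
          mul_le_mul_of_nonneg_right h2 (abs_nonneg _)
      _ = _ := by ring
  · left
    intro M
    filter_upwards [hrel (M + 1), hGl, hw] with n a1 a2 hw x hx y hy hxy
    have h1 := a1 x (hJI n hx) y (hJI n hy) hxy
    have hGd1 := a2 y hy
    have W2 : 0 < natW D n 0 2 := div_pos (hw 2) (hw 1)
    have W4 : 0 < natW D n 0 4 := div_pos (hw 0) (hw 1)
    have hGp : 0 < |G n y| := (dpow_pos D.B n _).trans_le hGd1
    have hG0 : G n y ≠ 0 := abs_pos.1 hGp
    rw [sl2, sl4] at h1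
    rw [sl4]
    have hr : D.w 0 n 0 / D.w 2 n 0 = natW D n 0 4 / natW D n 0 2 := by
      rw [natW_two, natW_four]
      have q1 := (hw 1).ne'
      have q2 := (hw 2).ne'
      field_simp
    have hφy : φ n y * G n y = -b n x.1 := by
      simp only [hφ, hxy]
      field_simp
    have hGy : G n y = a n x.1 * (natW D n 0 4 / natW D n 0 2) - b n x.1 * fB n y := by
      simp only [hGd, hxy]
      rw [hr]
    have key : eE n y - φ n y * (fA n y + eE n y * fB n y) -
        (eE n x - φ n x * (fA n x + eE n x * fB n x)) +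
        (fA n x + eE n x * fB n x) * (φ n y - φ n x) =
        (natW D n 0 4 / G n y) * (a n x.1 * ((eE n y - eE n x) / natW D n 0 2) +
          b n x.1 * (((fA n y - fA n x) + eE n x * (fB n y - fB n x)) / natW D n 0 4)) := by
      have q2 := W2.ne'
      have q4 := W4.ne'
      refine mul_right_cancel₀ hG0 ?_
      have e1 : (eE n y - φ n y * (fA n y + eE n y * fB n y) -
          (eE n x - φ n x * (fA n x + eE n x * fB n x)) +
          (fA n x + eE n x * fB n x) * (φ n y - φ n x)) * G n y =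
          (eE n y - eE n x) * G n y - (φ n y * G n y) *
            ((fA n y - fA n x) + eE n x * (fB n y - fB n x) + (eE n y - eE n x) * fB n y) := by
        ring
      have e2 : natW D n 0 4 / G n y * (a n x.1 * ((eE n y - eE n x) / natW D n 0 2) +
          b n x.1 * (((fA n y - fA n x) + eE n x * (fB n y - fB n x)) / natW D n 0 4)) * G n y =
          natW D n 0 4 * (a n x.1 * ((eE n y - eE n x) / natW D n 0 2) +
          b n x.1 * (((fA n y - fA n x) + eE n x * (fB n y - fB n x)) / natW D n 0 4)) := by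
        rw [mul_right_comm, div_mul_cancel₀ _ hG0]
      rw [e1, e2, hφy, hGy]
      generalize natW D n 0 4 = w4 at q4 ⊢
      generalize natW D n 0 2 = w2 at q2 ⊢
      field_simp
      ring
    rw [key, abs_mul, abs_div, abs_of_pos W4]
    show _ ≤ natW D n 0 4 * D.B.d n ^ M
    calc natW D n 0 4 / |G n y| * |a n x.1 * ((eE n y - eE n x) / natW D n 0 2) +
          b n x.1 * (((fA n y - fA n x) + eE n x * (fB n y - fB n x)) / natW D n 0 4)|
        ≤ natW D n 0 4 / |G n y| * D.B.d n ^ (M + 1) :=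
          mul_le_mul_of_nonneg_left h1 (div_pos W4 hGp).le
      _ = natW D n 0 4 * (D.B.d n ^ (M + 1) / |G n y|) := by ring
      _ ≤ natW D n 0 4 * D.B.d n ^ M := by
          refine mul_le_mul_of_nonneg_left ?_ W4.le
          rw [div_le_iff₀ hGp, Real.rpow_add (D.B.pos n)]
          exact mul_le_mul_of_nonneg_left hGd1 (dpow_pos D.B n _).le

open Classical in
/-- **choice of the new flags** -/
theorem exists_flags (hR : RawS p D π eE fA fB) (h02 : p.θ 0 = p.θ 2)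
    (h3 : InvS D π eE fA fB 3) (hL : LineInf D π eE fA fB) (hF : FlagB D eE fA fB)
    (hG : (GapInf D ∧ ∃ c : ℝ, c < 1 ∧ ∀ n, ∀ x ∈ D.I n, |fB n x| ≤ c) ∨ NoGap D) :
    ∃ (D' : Dat4) (π' : Equiv.Perm (Fin 3)) (e' fa' fb' : ℕ → ℕ × ℝ → ℝ),
      FlagOut p D' π' e' fa' fb' := by
  rcases hG with ⟨hG, c, hc, hFc⟩ | hN
  · obtain ⟨D', fa', fb', h⟩ := flags_gap hR h02 h3 hL hG hF hc hFc
    exact ⟨D', π, eE, fa', fb', h⟩
  · obtain ⟨a, b, hab, hrel⟩ := hL.fn hR h3
    by_cases hS : ∀ᶠ n in (U : Filter ℕ), (D.I n).card ≤ 2 * ((D.I n).filter fun x =>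
      |a n x.1 * (D.w 0 n 0 / D.w 2 n 0) - b n x.1 * fB n x| ≤ |b n x.1|).card
    · obtain ⟨D', fa', fb', h⟩ := flags_nogap_dir hR h02 h3 hN hF hab hrel hS
      exact ⟨D', π, eE, fa', fb', h⟩
    · exact flags_nogap_exch hR h02 h3 hN hF hab hrel
        (half_or (fun n => filter_subset _ _) hS)

end

end Crest.Agent.R136.Re436
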