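import Crest.Agent.R136.ReL3_344

/-!
# R136 (S0187), case E: window relation ⊢ same-line relation (helper344), part 4: `lineOfFlag`
-/

set_option autoImplicit false
set_option linter.unusedVariables false
set_option linter.unusedSectionVars false

open Finset Filter Topology

namespace Crest.Agent.R136.ReL344

open Crest.Agent.R138.Ex926 (Base U)
open Crest.Agent.R138.Dp76 (dpow_pos dpow_add dpow_le dpow_le_one)
open Crest.Agent.R138.Mk163 (zc zl rho alive)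
open Crest.Agent.R138.MkRef627 (lc kc)
open Crest.Agent.R136.MkA627
open Crest.Agent.R136.Net191
open Crest.Agent.R136.NetQ186
open Crest.Agent.R136.GeoQ186
open Crest.Agent.R136.Wq638
open Crest.Agent.R136.Top484
open Crest.Agent.R136.NatT550
open Crest.Agent.R136.Sh605 (Ln4 V3)

/-- slots in the enlarged units -/
theorem couQ_slot {B : Base} {lev : ℕ → ℚ → ℕ} {w : Fin 3 → ℕ → ℚ → ℝ} {w0 : ℝ}
    {F : ℕ → ℕ × ℝ → Fq4} {n : ℕ} (hw : ∀ j, 0 < w j n 0) {k : Fin 11} (hk : isSl k)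
    (x y : ℕ × ℝ) : couQ B lev w w0 F n x y k =
      B.d n ^ (wtQ k * w0) / prQ w k n 0 * coQ (F n x) (F n y) k := by
  unfold couQ
  rw [coQ_scl (uH_pos n).ne' (uA_pos (hw 1)).ne' (uB_pos (hw 2)).ne' (uY_pos (hw 0)).ne',
    sfac_slot hk hw]

/-- **the relation at one scale**, in natural units of the level `u` -/
theorem scale_rel {B : Base} {lev : ℕ → ℚ → ℕ} {w : Fin 3 → ℕ → ℚ → ℝ} {w0 R v : ℝ}
    {F : ℕ → ℕ × ℝ → Fq4} {I : ℕ → Finset (ℕ × ℝ)} {n : ℕ} {u : ℚ} {β ε₁ E1 τ e a b : ℝ}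
    {X : Fin 11 → ℝ} {i x mx : ℕ × ℝ} (hR : 0 ≤ R) (hw0 : 0 ≤ w0) (hwR : w0 ≤ R)
    (hX : X ∈ Leg monQ R) (hX2 : X 2 = w0 + β * v) (hX3 : X 3 = w0) (hX4 : X 4 = 2 * w0 + β * v)
    (hβv : 0 ≤ w0 + β * v)
    (hwp : ∀ j, 0 < w j n 0) (hwu : ∀ j, 0 < w j n u)
    (hr2 : B.d n ^ (β * u + ε₁) * prQ w 2 n 0 ≤ prQ w 2 n u)
    (hr4 : B.d n ^ (β * u + ε₁) * prQ w 4 n 0 ≤ prQ w 4 n u)
    (hab : a ^ 2 + b ^ 2 = 1)
    (hi : i ∈ I n) (hx : x ∈ I n) (hmx : mx ∈ I n)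
    (hlx : nlab B I (couQ B lev w w0 F) monQ 2 n (fun _ => R) mx =
      nlab B I (couQ B lev w w0 F) monQ 2 n (fun _ => R) x)
    (hli : nlab B I (couQ B lev w w0 F) monQ 2 n X i = nlab B I (couQ B lev w w0 F) monQ 2 n X mx)
    (hGx : |a * (couQ B lev w w0 F n i mx 2 / B.d n ^ X 2) +
      b * ((couQ B lev w w0 F n i mx 4 + couQ B lev w w0 F n i mx 3 * couQ B lev w w0 F n i mx 2) /
        B.d n ^ X 4) - e| ≤ E1)
    (hE1 : E1 ≤ B.d n ^ τ) (hτ : τ ≤ R - 1 - (2 * w0 + β * v))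
    (hC : (8 * Kq ^ 2 + 3) * (2 * (1 + 2 * Kq)) ≤ B.d n ^ (-ε₁)) :
    ∃ a' b' : ℝ, a' ^ 2 + b' ^ 2 = 1 ∧ ∀ y my : ℕ × ℝ, y ∈ I n → my ∈ I n →
      nlab B I (couQ B lev w w0 F) monQ 2 n (fun _ => R) my =
        nlab B I (couQ B lev w w0 F) monQ 2 n (fun _ => R) y →
      nlab B I (couQ B lev w w0 F) monQ 2 n X i = nlab B I (couQ B lev w w0 F) monQ 2 n X my →
      |a * (couQ B lev w w0 F n i my 2 / B.d n ^ X 2) +
        b * ((couQ B lev w w0 F n i my 4 +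
          couQ B lev w w0 F n i my 3 * couQ B lev w w0 F n i my 2) / B.d n ^ X 4) - e| ≤ E1 →
      |couQ B lev w w0 F n x y 2| ≤ 1 → |couQ B lev w w0 F n x y 3| ≤ B.d n ^ (R - 1) →
      |a' * (coQ (F n x) (F n y) 2 / prQ w 2 n u) + b' * (coQ (F n x) (F n y) 4 / prQ w 4 n u)| ≤
        B.d n ^ (τ - (β * (u - v) + ε₁) - ε₁) := by
  have hch : ∀ n, Chart (I n) (couQ B lev w w0 F n) monQ 2 := fun n => chart_couQ n (I n)
  have hd := B.pos n
  have hd1 := (B.lt n).le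
  have hK := Kq_one
  have ha1 : |a| ≤ 1 := by rw [abs_le]; constructor <;> nlinarith [sq_nonneg b]
  have hb1 : |b| ≤ 1 := by rw [abs_le]; constructor <;> nlinarith [sq_nonneg a]
  have hX24 : X 4 = X 2 + w0 := by rw [hX2, hX4]; ring
  rw [hX24] at hGx
  -- the units
  have p2 : 0 < prQ w 2 n 0 := prQ_pos hwp
  have p4 : 0 < prQ w 4 n 0 := prQ_pos hwp
  have q2 : 0 < prQ w 2 n u := prQ_pos hwu
  have q4 : 0 < prQ w 4 n u := prQ_pos hwu
  have s2 : isSl 2 := Or.inl rfl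
  have s4 : isSl 4 := Or.inr (Or.inr rfl)
  have w2 : wtQ 2 = 1 := by simp [wtQ]
  have w4 : wtQ 4 = 2 := by simp [wtQ]
  set l2 : ℝ := B.d n ^ (wtQ 2 * w0) / prQ w 2 n 0 * prQ w 2 n u / B.d n ^ X 2 with hl2
  set l4 : ℝ := B.d n ^ (wtQ 4 * w0) / prQ w 4 n 0 * prQ w 4 n u / B.d n ^ (X 2 + w0) with hl4
  set l : ℝ := B.d n ^ (β * (u - v) + ε₁) with hl
  have hl0 : 0 < l := dpow_pos B n _
  have hle2 : l ≤ l2 := by
    have e1 : B.d n ^ (wtQ 2 * w0) = B.d n ^ (-(β * v)) * B.d n ^ X 2 := by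
      rw [← dpow_add, w2, hX2]; congr 1; ring
    have e2 : l = B.d n ^ (-(β * v)) * B.d n ^ (β * u + ε₁) := by
      rw [hl, ← dpow_add]; congr 1; ring
    rw [hl2, e1, e2]
    have e3 : B.d n ^ (-(β * v)) * B.d n ^ X 2 / prQ w 2 n 0 * prQ w 2 n u / B.d n ^ X 2 =
        B.d n ^ (-(β * v)) * (prQ w 2 n u / prQ w 2 n 0) := by
      have := (dpow_pos B n (X 2)).ne'
      field_simp
    rw [e3]
    refine mul_le_mul_of_nonneg_left ?_ (dpow_pos B n _).le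
    rw [le_div_iff₀ p2]
    exact hr2
  have hle4 : l ≤ l4 := by
    have e1 : B.d n ^ (wtQ 4 * w0) = B.d n ^ (-(β * v)) * B.d n ^ (X 2 + w0) := by
      rw [← dpow_add, w4, hX2]; congr 1; ring
    have e2 : l = B.d n ^ (-(β * v)) * B.d n ^ (β * u + ε₁) := by
      rw [hl, ← dpow_add]; congr 1; ring
    rw [hl4, e1, e2]
    have e3 : B.d n ^ (-(β * v)) * B.d n ^ (X 2 + w0) / prQ w 4 n 0 * prQ w 4 n u /
        B.d n ^ (X 2 + w0) = B.d n ^ (-(β * v)) * (prQ w 4 n u / prQ w 4 n 0) := by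
      have := (dpow_pos B n (X 2 + w0)).ne'
      field_simp
    rw [e3]
    refine mul_le_mul_of_nonneg_left ?_ (dpow_pos B n _).le
    rw [le_div_iff₀ p4]
    exact hr4
  -- closeness of the mate
  have near3 : ∀ my ∈ I n, nlab B I (couQ B lev w w0 F) monQ 2 n X i =
      nlab B I (couQ B lev w w0 F) monQ 2 n X my →
      |couQ B lev w w0 F n i my 3| ≤ Kq * B.d n ^ w0 := by
    intro my hmy h1
    have := near_of_nlab hch hX.1 hi hmy h1 3
    rwa [hX3] at this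
  have nearR : ∀ y my, y ∈ I n → my ∈ I n →
      nlab B I (couQ B lev w w0 F) monQ 2 n (fun _ => R) my =
        nlab B I (couQ B lev w w0 F) monQ 2 n (fun _ => R) y →
      ∀ k, |couQ B lev w w0 F n my y k| ≤ Kq * B.d n ^ R := fun y my hy hmy h1 k =>
    near_of_nlab hch (legal_const hR) hmy hy h1 k
  have hX2n : 0 ≤ X 2 := by rw [hX2]; exact hβv
  -- the value of `φ`
  have hφ : |couQ B lev w w0 F n i x 3 / B.d n ^ w0| ≤ 2 * Kq := by
    have h1 : couQ B lev w w0 F n i x 3 = couQ B lev w w0 F n i mx 3 +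
        couQ B lev w w0 F n mx x 3 := co3_add _ _ _
    have h2 := near3 mx hmx hli
    have h3 := nearR x mx hx hmx hlx 3
    have h4 : B.d n ^ R ≤ B.d n ^ w0 := Real.rpow_le_rpow_of_exponent_ge hd hd1 hwR
    have h5 := abs_add_le (couQ B lev w w0 F n i mx 3) (couQ B lev w w0 F n mx x 3)
    rw [abs_div, abs_of_pos (dpow_pos B n w0), div_le_iff₀ (dpow_pos B n w0), h1]
    nlinarith
  obtain ⟨a', b', h1, h2⟩ := norm_rel hab hφ hl0 hle2 hle4
  refine ⟨a', b', h1, fun y my hy hmy hly hliy hGy hxy2 hxy3 => ?_⟩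
  rw [hX24] at hGy
  have hfix := (fix_rel (i := scl (uH B lev w0 n) (uA B lev w w0 n) (uB B lev w w0 n)
      (uY B lev w w0 n) (F n i)) (x := scl (uH B lev w0 n) (uA B lev w w0 n) (uB B lev w w0 n)
      (uY B lev w w0 n) (F n x)) (y := scl (uH B lev w0 n) (uA B lev w w0 n) (uB B lev w w0 n)
      (uY B lev w w0 n) (F n y)) (mx := scl (uH B lev w0 n) (uA B lev w w0 n) (uB B lev w w0 n)
      (uY B lev w w0 n) (F n mx)) (my := scl (uH B lev w0 n) (uA B lev w w0 n) (uB B lev w w0 n)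
      (uY B lev w w0 n) (F n my)) hd hd1 hK ha1 hb1 hX2n hw0 hwR (nearR x mx hx hmx hlx)
      (nearR y my hy hmy hly) (near3 mx hmx hli) (near3 my hmy hliy) hGx hGy hxy2 hxy3).2
  change |(a + b * (couQ B lev w w0 F n i x 3 / B.d n ^ w0)) *
      (couQ B lev w w0 F n x y 2 / B.d n ^ X 2) +
        b * (couQ B lev w w0 F n x y 4 / B.d n ^ (X 2 + w0))| ≤ _ at hfix
  have c2 : couQ B lev w w0 F n x y 2 / B.d n ^ X 2 =
      l2 * (coQ (F n x) (F n y) 2 / prQ w 2 n u) := by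
    rw [couQ_slot hwp s2, hl2]
    field_simp
  have c4 : couQ B lev w w0 F n x y 4 / B.d n ^ (X 2 + w0) =
      l4 * (coQ (F n x) (F n y) 4 / prQ w 4 n u) := by
    rw [couQ_slot hwp s4, hl4]
    field_simp
  rw [c2, c4] at hfix
  refine (h2 _ _ _ hfix).trans ?_
  have hE : 2 * E1 + (8 * Kq ^ 2 + 1) * B.d n ^ (R - 1 - (X 2 + w0)) ≤
      (8 * Kq ^ 2 + 3) * B.d n ^ τ := by
    have e1 : B.d n ^ (R - 1 - (X 2 + w0)) ≤ B.d n ^ τ := by
      refine Real.rpow_le_rpow_of_exponent_ge hd hd1 ?_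
      rw [hX2]
      linarith
    have e2 : (8 * Kq ^ 2 + 1) * B.d n ^ (R - 1 - (X 2 + w0)) ≤ (8 * Kq ^ 2 + 1) * B.d n ^ τ :=
      mul_le_mul_of_nonneg_left e1 (by positivity)
    linarith
  have hq : 0 < 2 * (1 + 2 * Kq) := by linarith
  calc (2 * E1 + (8 * Kq ^ 2 + 1) * B.d n ^ (R - 1 - (X 2 + w0))) * (2 * (1 + 2 * Kq) / l) ≤
      ((8 * Kq ^ 2 + 3) * B.d n ^ τ) * (2 * (1 + 2 * Kq) / l) :=
        mul_le_mul_of_nonneg_right hE (by positivity)
    _ = ((8 * Kq ^ 2 + 3) * (2 * (1 + 2 * Kq))) * (B.d n ^ τ / l) := by ring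
    _ ≤ B.d n ^ (-ε₁) * (B.d n ^ τ / l) := mul_le_mul_of_nonneg_right hC (by positivity)
    _ = B.d n ^ (τ - (β * (u - v) + ε₁) - ε₁) := by
        rw [hl, ← Real.rpow_sub hd, ← dpow_add]
        congr 1; ring

set_option maxHeartbeats 2000000 in
/-- **(P4)** -/
theorem lineOfFlag (η : ℝ) : Re436.LineOfFlag η := by
  classical
  intro p D I1 π eE fA fB V T w0 R T0 PD ν own c₀ h hV2 hV3 hθ hFR
  obtain ⟨θ, hθ0, hrel⟩ := hFR
  have hb := h.tp.big
  have hT0 := hb.T0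
  have hw0T := hb.w0T
  have hR0' := hb.R0
  have hR : 0 ≤ R := by linarith
  have hw0 : 0 ≤ w0 := by linarith
  have hwR : w0 ≤ R := by linarith
  have hm := h.tp.pre.mka
  set β : ℝ := p.θ 1 - p.θ 2 with hβ
  have hβ0 : 0 < β := by
    have := (h.tp.slots.vis 2 hV2).2
    simp [btQ] at this
    linarith
  have hβT : β ≤ 2 * T0 := by
    have a1 := abs_le.1 (hb.th 1)
    have a2 := abs_le.1 (hb.th 2)
    rw [hβ]; linarith [a1.2, a2.1]
  set θ₁ : ℝ := min θ 1 with hθ₁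
  have hθ₁0 : 0 < θ₁ := lt_min hθ0 one_pos
  have hθ₁1 : θ₁ ≤ 1 := min_le_right _ _
  have hθ₁θ : θ₁ ≤ θ := min_le_left _ _
  refine ⟨θ₁ / 2, by positivity, fun ε hε => ?_⟩
  obtain ⟨v, w, X, hv, hw, hwε, hvw, hX, hX0, hX2, hX3, hX4, hev⟩ := hrel (ε / 2) (half_pos hε)
  have hw1 : w ≤ 1 := by linarith
  -- the level `u`
  have hwθ : 0 < w * θ₁ := mul_pos hw hθ₁0
  obtain ⟨u, hu1, hu2⟩ : ∃ u : ℚ, v < (u : ℝ) ∧ (u : ℝ) < min (1 - w) (v + w * θ₁ / (8 * β)) := by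
    refine exists_rat_btwn (lt_min (by linarith) ?_)
    have : 0 < w * θ₁ / (8 * β) := by positivity
    linarith
  have hu3 : (u : ℝ) < 1 - w := hu2.trans_le (min_le_left _ _)
  have hu4 : (u : ℝ) < v + w * θ₁ / (8 * β) := hu2.trans_le (min_le_right _ _)
  have hβu : β * (u - v) ≤ w * θ₁ / 8 := by
    have h1 : (u : ℝ) - v ≤ w * θ₁ / (8 * β) := by linarith
    calc β * (u - v) ≤ β * (w * θ₁ / (8 * β)) := mul_le_mul_of_nonneg_left h1 hβ0.le
      _ = w * θ₁ / 8 := by field_simp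
  have hu0 : (0 : ℚ) ≤ u := by
    have : (0 : ℝ) < (u : ℝ) := hv.trans hu1
    exact_mod_cast this.le
  have hu01 : u ≤ (1 : ℚ) := by
    have : (u : ℝ) ≤ 1 := by linarith
    exact_mod_cast this
  have hur0 : (0 : ℝ) ≤ u := by exact_mod_cast hu0
  have hur1 : (u : ℝ) ≤ 1 := by exact_mod_cast hu01
  -- the loss
  set W := Wg with hW
  have hW0 : 0 ≤ W := Wg_nonneg
  set ε₁ : ℝ := min (w * ε / (2 * (W + 3))) (w * θ₁ / 16) with hε₁
  have hε₁0 : 0 < ε₁ := lt_min (by positivity) (by positivity)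
  have hε₁a : (W + 3) * ε₁ ≤ w * ε / 2 := by
    have h1 : ε₁ ≤ w * ε / (2 * (W + 3)) := min_le_left _ _
    calc (W + 3) * ε₁ ≤ (W + 3) * (w * ε / (2 * (W + 3))) :=
          mul_le_mul_of_nonneg_left h1 (by linarith)
      _ = w * ε / 2 := by field_simp
  have hε₁b : ε₁ ≤ w * θ₁ / 16 := min_le_right _ _
  have hwθ1 : w * θ₁ ≤ 1 := by nlinarith
  have hε₁c : ε₁ ≤ 1 := by linarith
  refine ⟨u, w, hu0, hw, by linarith, by linarith, ?_⟩
  obtain ⟨K, -, hK2, hK3⟩ := h.comb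
  -- own path at `u`
  have hown0 : ∀ k, 1 ≤ ownQ p.θ w0 R V u k := by
    intro k
    unfold ownQ
    split_ifs
    · linarith
    · exact (hb.path_bd hur0 hur1 k).1
    · linarith
  have hXo : ∀ k, X k ≤ ownQ p.θ w0 R V u k := by
    intro k
    unfold ownQ
    split_ifs with h1 h2
    · rw [h1, hX0]; linarith
    · rcases (h.tp.slots.vis k h2).1 with rfl | rfl | rfl
      · rw [hX2]
        simp only [pathQ, Matrix.cons_val]
        nlinarith
      · exact absurd h2 hV3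
      · rw [hX4]
        simp only [pathQ, Matrix.cons_val]
        rw [hθ]
        nlinarith
    · exact hX.2 k
  have hr2 := ratio_ev hm 2 1 hu0 hu01 hε₁0
  have hr4 := ratio_ev hm 0 1 hu0 hu01 hε₁0
  have hwp : ∀ᶠ n in (U : Filter ℕ), ∀ j, 0 < D.w j n 0 :=
    Filter.eventually_all.2 fun k => hm.wpos k 0 le_rfl zero_le_one
  have hwu : ∀ᶠ n in (U : Filter ℕ), ∀ j, 0 < D.w j n u :=
    Filter.eventually_all.2 fun k => hm.wpos k u hu0 hu01
  filter_upwards [hev, h.tp.pre.own_near u hu0 hu01 ε₁ hε₁0, hK2, hK3 ε₁ hε₁0, hr2, hr4, hwp, hwu,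
    ev_c D.B hε₁0 (16 * Nq), ev_c D.B hε₁0 ((8 * Kq ^ 2 + 3) * (2 * (1 + 2 * Kq)))] with
    n g1 g2 g3 g4 g5 g6 g7 g8 g9 g10
  obtain ⟨S, hS1, hS2, i, a, b, e, hS3⟩ := g1
  have hd := D.B.pos n
  have hd1 := (D.B.lt n).le
  have hI1 := h.ext.sub n
  set co := couQ D.B D.lev D.w w0 (incQ π D.L eE fA fB) with hco
  -- the saturated set
  set F' : Finset (ℕ × ℝ) := (D.I n).filter fun j => ∃ i ∈ S,
    nlab D.B D.I co monQ 2 n (fun _ => R) j = nlab D.B D.I co monQ 2 n (fun _ => R) i ∧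
      zc (D.lev n 1) j.2 = zc (D.lev n 1) i.2 with hF'
  have hF'I : F' ⊆ D.I n := Finset.filter_subset _ _
  have hc1 := g3 S hS1 F' hF'I fun i hi j hj h1 h2 =>
    Finset.mem_filter.2 ⟨hj, i, hi, h1, h2⟩
  have hmate : ∀ j, ∃ m, j ∈ F' → m ∈ S ∧ nlab D.B D.I co monQ 2 n (fun _ => R) j =
      nlab D.B D.I co monQ 2 n (fun _ => R) m := by
    intro j
    by_cases hj : j ∈ F'
    · obtain ⟨_, m, hm1, hm2, _⟩ := Finset.mem_filter.1 hj
      exact ⟨m, fun _ => ⟨hm1, hm2⟩⟩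
    · exact ⟨j, fun h => absurd h hj⟩
  choose μ hμ using hmate
  have hSI : S ⊆ D.I n := hS1.trans hI1
  have hgl := group_labels (F := incQ π D.L eE fA fB) hR hX hε₁0.le hXo
    (fun k => hε₁c.trans (hown0 k)) g2 F' hF'I μ (fun j hj => hSI (hμ j hj).1)
    (fun j hj => (hμ j hj).2)
  obtain ⟨S', hS'1, hS'2, hS'3⟩ := pop_label F' (lc (D.lev n u))
    (fun j' => nlab D.B D.I co monQ 2 n X (μ j')) (N := Nq * D.B.d n ^ (-(Wg * ε₁)))
    (fun j hj => by convert hgl j hj)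
  refine ⟨S', hS'1.trans hF'I, ?_, ?_⟩
  · -- counting
    have hKn : (0 : ℝ) ≤ K n := Nat.cast_nonneg _
    have c1 : (K n : ℝ) * S.card ≤ 16 * F'.card := by exact_mod_cast hc1
    have c2 : D.B.d n ^ (w * (ε / 2)) * (D.B.d n ^ ε₁ * ((D.I n).card : ℝ)) ≤ K n * S.card := by
      calc D.B.d n ^ (w * (ε / 2)) * (D.B.d n ^ ε₁ * ((D.I n).card : ℝ)) ≤
          D.B.d n ^ (w * (ε / 2)) * (K n * (I1 n).card) :=
            mul_le_mul_of_nonneg_left g4 (dpow_pos D.B n _).le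
        _ = K n * (D.B.d n ^ (w * (ε / 2)) * (I1 n).card) := by ring
        _ ≤ K n * S.card := mul_le_mul_of_nonneg_left hS2 hKn
    have c3 : (D.B.d n ^ (w * (ε / 2)) * D.B.d n ^ ε₁) * ((D.I n).card : ℝ) ≤
        (16 * Nq) * D.B.d n ^ (-(Wg * ε₁)) * S'.card := by
      have := mul_le_mul_of_nonneg_left hS'2 (show (0 : ℝ) ≤ 16 by norm_num)
      calc (D.B.d n ^ (w * (ε / 2)) * D.B.d n ^ ε₁) * ((D.I n).card : ℝ) =
          D.B.d n ^ (w * (ε / 2)) * (D.B.d n ^ ε₁ * ((D.I n).card : ℝ)) := by ring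
        _ ≤ 16 * F'.card := c2.trans c1
        _ ≤ 16 * (Nq * D.B.d n ^ (-(Wg * ε₁)) * S'.card) := this
        _ = (16 * Nq) * D.B.d n ^ (-(Wg * ε₁)) * S'.card := by ring
    have c4 : (16 * Nq) * D.B.d n ^ (-(Wg * ε₁)) * (S'.card : ℝ) ≤
        D.B.d n ^ (-((W + 1) * ε₁)) * S'.card := by
      refine mul_le_mul_of_nonneg_right ?_ (Nat.cast_nonneg _)
      calc (16 * Nq) * D.B.d n ^ (-(Wg * ε₁)) ≤ D.B.d n ^ (-ε₁) * D.B.d n ^ (-(Wg * ε₁)) :=
            mul_le_mul_of_nonneg_right g9 (dpow_pos D.B n _).le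
        _ = D.B.d n ^ (-((W + 1) * ε₁)) := by
            rw [← dpow_add, hW]; congr 1; ring
    have c5 := c3.trans c4
    -- multiply by `d^((W+1) ε₁)`
    have c6 := mul_le_mul_of_nonneg_left c5 (dpow_pos D.B n ((W + 1) * ε₁)).le
    have e1 : D.B.d n ^ ((W + 1) * ε₁) * (D.B.d n ^ (-((W + 1) * ε₁)) * (S'.card : ℝ)) =
        S'.card := by
      rw [← mul_assoc, ← dpow_add, add_neg_cancel, Real.rpow_zero, one_mul]
    have e2 : D.B.d n ^ ((W + 1) * ε₁) * ((D.B.d n ^ (w * (ε / 2)) * D.B.d n ^ ε₁) *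
        ((D.I n).card : ℝ)) = D.B.d n ^ ((W + 1) * ε₁ + w * (ε / 2) + ε₁) *
          ((D.I n).card : ℝ) := by
      rw [dpow_add, dpow_add]; ring
    rw [e1, e2] at c6
    refine le_trans ?_ c6
    refine mul_le_mul_of_nonneg_right ?_ (Nat.cast_nonneg _)
    refine Real.rpow_le_rpow_of_exponent_ge hd hd1 ?_
    have e3 : (W + 1) * ε₁ + w * (ε / 2) + ε₁ = (W + 3) * ε₁ - ε₁ + w * ε / 2 := by ring
    rw [e3]
    linarith
  · -- the relation
    intro x hx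
    have hxF := hS'1 hx
    have hxI := hF'I hxF
    obtain ⟨hmx1, hmx2⟩ := hμ x hxF
    set c := nlab D.B D.I co monQ 2 n X (μ x) with hc
    obtain ⟨hab, hic, hlic, hG⟩ := hS3 (μ x) hmx1 c rfl
    have hβv : 0 ≤ w0 + β * v := add_nonneg hw0 (mul_nonneg hβ0.le hv.le)
    have hτ : w * θ₁ ≤ R - 1 - (2 * w0 + β * v) := by
      have h1 : β * v ≤ 2 * T0 := by
        calc β * v ≤ β * 1 := mul_le_mul_of_nonneg_left (by linarith) hβ0.le
          _ ≤ 2 * T0 := by linarith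
      linarith
    have hE1 : D.B.d n ^ (w * θ) ≤ D.B.d n ^ (w * θ₁) :=
      Real.rpow_le_rpow_of_exponent_ge hd hd1 (mul_le_mul_of_nonneg_left hθ₁θ hw.le)
    have hq2 : D.B.d n ^ (β * u + ε₁) * prQ D.w 2 n 0 ≤ prQ D.w 2 n u := by
      simpa [prQ] using g5
    have hq4 : D.B.d n ^ (β * u + ε₁) * prQ D.w 4 n 0 ≤ prQ D.w 4 n u := by
      rw [hθ] at g6
      simpa [prQ] using g6
    obtain ⟨a', b', h1, h2⟩ := scale_rel (F := incQ π D.L eE fA fB) (I := D.I) (u := u) (v := v)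
      (i := i c) (x := x) (mx := μ x) hR hw0 hwR hX hX2 hX3 hX4 hβv g7 g8 hq2 hq4 hab hic hxI
      (hSI hmx1) hmx2.symm hlic hG hE1 hτ g10
    refine ⟨a', b', h1, fun y hy hyx hzc => ?_⟩
    have hyF := hS'1 hy
    have hyI := hF'I hyF
    obtain ⟨hmy1, hmy2⟩ := hμ y hyF
    have hlc : lc (D.lev n u) y = lc (D.lev n u) x := Prod.ext hyx hzc
    have hcy : nlab D.B D.I co monQ 2 n X (μ y) = c := hS'3 y hy x hx hlc
    obtain ⟨-, -, -, hGy⟩ := hS3 (μ y) hmy1 c hcy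
    have hnear := g2 x hxI y hyI hlc
    have h3 := h2 y (μ y) hyI (hSI hmy1) hmy2.symm (hlic.trans hcy.symm) hGy
      ((hnear 2).trans (dpow_le_one D.B n (by linarith [hown0 2])))
      ((hnear 3).trans (Real.rpow_le_rpow_of_exponent_ge hd hd1 (by
        have : ownQ p.θ w0 R V u 3 = R := by
          unfold ownQ
          rw [if_neg (by decide), if_neg hV3]
        rw [this]; linarith)))
    rw [(natW_slot D n u).1, (natW_slot D n u).2]
    refine h3.trans (Real.rpow_le_rpow_of_exponent_ge hd hd1 ?_)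
    have e4 : w * (θ₁ / 2) = w * θ₁ / 2 := by ring
    rw [e4]
    linarith

end Crest.Agent.R136.ReL344
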