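import Crest.Agent.R136.ReP1_346

/-!
# R136 (S0187), case E: (P1) raw system ⊢ `ThickPre` (helper346), part 2

`mka_congr`, `slotQ_congr` : eventually equal families of incidences;
`thickPre_of_gR` : `Wq638.thickPre_of` with the record closeness given;
`preOfRaw : PreOfRaw η`.
-/

set_option autoImplicit false
set_option linter.unusedVariables false

open Finset Filter Topology

namespace Crest.Agent.R136.ReP346

open Crest.Agent.R138.Ex926 (Base U)
open Crest.Agent.R138.Dp76 (dpow_pos dpow_add dpow_le dpow_le_one)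
open Crest.Agent.R138.Mk163 (zc zl rho alive own)
open Crest.Agent.R138.MkRef627 (lc kc)
open Crest.Agent.R136.MkA627
open Crest.Agent.R136.Net191
open Crest.Agent.R136.NetQ186
open Crest.Agent.R136.GeoQ186 (w0_zero w0_one mem_PDQ PDQ PDQ_leg gD_couQ)
open Crest.Agent.R136.Sh605 (Ln4 V3)
open Crest.Agent.R136.Wq638
open Crest.Agent.R136.Top484
open Crest.Agent.R136.NatT550
open Crest.Agent.R136.GR650 (LinW)
open Crest.Agent.R136.TD627 (TSys InvT CarryH ps ps_pos ps_eq)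
open Crest.Agent.R136.Ut627 (tdF tdF_d coF prF btF wpos_all Vis Tie SlotT)
open Crest.Agent.R136.Ut262 (up3 sl3 btQ_sl3 up3_isSl slotQ_of)
open Crest.Agent.R136.Re436

section congr

variable {σ κ : Type*} {B : Base} {I J : ℕ → Finset (ℕ × ℝ)} {G : Geo σ κ} {lev : ℕ → ℚ → ℕ}
    {A : ℕ → ℝ} {c Λ : ℝ → ℝ} {τ : κ → ℝ → ℝ} {f : ℕ → ℚ → ℕ → ℤ → ℕ} {b : ℕ → ℚ → ℕ → σ}
    {vm : ℕ → ℚ → ℝ} {w : κ → ℕ → ℚ → ℝ}

theorem mka_congr (h : MkA B I G lev A c Λ τ f b vm w) (hs : ∀ n, J n ⊆ I n)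
    (he : ∀ᶠ n in (U : Filter ℕ), J n = I n) : MkA B J G lev A c Λ τ f b vm w := by
  refine h.of_fib hs ?_ (fun v h0 h1 ε hε => ?_) fun v h0 h1 ε hε => ?_
  · filter_upwards [h.ne, he] with n a1 a2
    rw [a2]; exact a1
  · filter_upwards [he] with n a2 x hx
    rw [a2]
    exact mul_le_of_le_one_left (Nat.cast_nonneg _) (dpow_le_one B n hε.le)
  · filter_upwards [he] with n a2 x hx
    rw [a2]
    exact mul_le_of_le_one_left (Nat.cast_nonneg _) (dpow_le_one B n hε.le)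

theorem slotQ_congr {w : Fin 3 → ℕ → ℚ → ℝ} {θ : Fin 3 → ℝ} {F : ℕ → ℕ × ℝ → Fq4}
    {sc : Fin 11 → ℕ → ℝ} {V T : Fin 11 → Prop} (h : SlotQ B I lev w θ F sc V T)
    (he : ∀ᶠ n in (U : Filter ℕ), J n = I n) : SlotQ B J lev w θ F sc V T where
  vis := h.vis
  tied := h.tied
  scpos := h.scpos
  sc0 := h.sc0
  rot := fun k hk u h0 h1 ε hε => by
    filter_upwards [h.rot k hk u h0 h1 ε hε, he] with n a1 a2
    rw [a2]; exact a1
  inv := fun k hk hV M => by
    filter_upwards [h.inv k hk hV M, he] with n a1 a2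
    rw [a2]; exact a1
  tw := fun k hk u h0 h1 r hr => by
    obtain ⟨γ, hγ, h2⟩ := h.tw k hk u h0 h1 r hr
    refine ⟨γ, hγ, ?_⟩
    filter_upwards [h2, he] with n a1 a2
    rw [a2]; exact a1

end congr

section final

variable {p : Par4} {D : Dat4}

/-- **`ThickPre` from the marked sequence with slots**, record closeness given -/
theorem thickPre_of_gR {η : ℝ} {π : Equiv.Perm (Fin 3)} {eE fA fB : ℕ → ℕ × ℝ → ℝ}
    {V T : Fin 11 → Prop} {w0 R T0 : ℝ} {sc : Fin 11 → ℕ → ℝ}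
    (ok : ParOk η p) (slots : SlotOk p.θ V T) (big : BigQ p.θ w0 R T0)
    (mka : MkA D.B D.I (D.G p) D.lev D.A (fun v => p.g * v) (fun v => 0 * v)
      (fun j v => p.θ j * (1 - v)) D.f D.b D.vm D.w)
    (flag : ∀ n, ∀ x ∈ D.I n, |eE n x| ≤ 1 ∧ |fA n x| ≤ 1 ∧ |fB n x| ≤ 1)
    (flag2 : ∀ n, ∀ x ∈ D.I n, |eE n x| + |fA n x + eE n x * fB n x| ≤ 1)
    (flag3 : Gap23 D → ∃ c : ℝ, c < 1 ∧ ∀ n, ∀ x ∈ D.I n, |fB n x| ≤ c)
    (wrs : Rng D.B D.wr D.cr D.w)
    (hS : SlotQ D.B D.I D.lev D.w p.θ (incQ π D.L eE fA fB) sc V T)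
    (gR : ∀ u : ℚ, 0 ≤ u → u ≤ 1 → ∀ ε : ℝ, 0 < ε → ∀ᶠ n in (U : Filter ℕ), ∀ x ∈ D.I n,
      ∀ y ∈ D.I n, kc (D.lev n u) (D.f n u) y = kc (D.lev n u) (D.f n u) x →
        ∀ k, |couQ D.B D.lev D.w w0 (incQ π D.L eE fA fB) n x y k| ≤
          D.B.d n ^ (pathQ p.θ w0 R u k - ε)) :
    ThickPre η p D π eE fA fB V T w0 R T0 (PDQ D.B D.r0 D.lev D.w w0 R) where
  ok := ok
  slots := slots
  big := big
  flag := flag
  flag2 := flag2
  flag3 := flag3
  wrs := wrs
  pd := fun x hx => by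
    have h := (w0_zero mka).mix (w0_one mka)
    obtain ⟨h1, h2, h3, h4, h5, h6, h7⟩ := hx
    refine mem_PDQ h h1 h2 h3 ?_ ?_ ?_ ?_
    · rcases le_total (p.θ 1) (p.θ 2) with hl | hl
      · rw [max_eq_right (by linarith)]
        rw [min_eq_right (by linarith)] at h5
        linarith
      · rw [max_eq_left (by linarith)]
        rw [min_eq_left (by linarith)] at h5
        linarith
    · rcases le_total (p.θ 2) (p.θ 0) with hl | hl
      · rw [max_eq_right (by linarith)]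
        rw [min_eq_right (by linarith)] at h6
        linarith
      · rw [max_eq_left (by linarith)]
        rw [min_eq_left (by linarith)] at h6
        linarith
    · linarith
    · rw [max_eq_right ok.θ1.le]
      linarith
  pre := by
    have hq : ∀ j, 0 ≤ p.q j := by
      intro j
      fin_cases j
      · exact ok.q0.1
      · exact ok.g0.2.le
      · exact ok.q2.1.le
    exact preQ4 mka big (fun n i J t _ => rfl) hS ⟨_, path_PDQ mka big ok.θ1⟩ PDQ_leg
      (gD_couQ mka wrs hq (fun n x hx => (flag n x hx).1) (fun n x hx => (flag n x hx).2.1)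
        (fun n x hx => (flag n x hx).2.2)) gR

/-- **(P1)** -/
theorem preOfRaw (η : ℝ) : PreOfRaw η := by
  classical
  intro p D π eE fA fB ok h hfl hθ hI3 hI2 hI4
  obtain ⟨γ, hγ, hgap⟩ := exists_gap h hθ
  have hβ : ∀ j, InvT tdF D.B D.I j (flR eE fA fB) (ps (prF D.w) 0 j) ∨ 0 < btF p.θ j := by
    intro j
    fin_cases j
    · rcases hI2 with h2 | h2
      · exact Or.inl (invT_of h (k := 2) (Or.inl rfl) h2)
      · refine Or.inr ?_
        rw [btQ_sl3 p.θ (k := 2) (Or.inl rfl)] at h2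
        exact h2
    · exact Or.inl (invT_of h (k := 3) (Or.inr (Or.inl rfl)) hI3)
    · rcases hI4 with h2 | h2
      · exact Or.inl (invT_of h (k := 4) (Or.inr (Or.inr rfl)) h2)
      · refine Or.inr ?_
        rw [btQ_sl3 p.θ (k := 4) (Or.inr (Or.inr rfl))] at h2
        exact h2
  obtain ⟨H, mm, B', I', A', sc', h1, h2, h3, h4, h5, hQ, hS, -, hslot⟩ :=
    (tsysR h).natTQ (carryR h hθ hgap) hβ (C0 := fun j => |btF p.θ j| + 1) fun j => by
      have := le_abs_self (btF p.θ j)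
      linarith
  obtain ⟨hSl, hOk⟩ := slotQ_of hS hslot π D.L
  -- the family of incidences, a subset for all `n`
  set J : ℕ → Finset (ℕ × ℝ) := fun n => if I' n ⊆ D.I n then I' n else ∅ with hJ
  have hJI : ∀ n, J n ⊆ I' n := by
    intro n
    rw [hJ]
    dsimp only
    split_ifs with hc
    · exact Finset.Subset.refl _
    · exact Finset.empty_subset _
  have hJD : ∀ n, J n ⊆ D.I n := by
    intro n
    rw [hJ]
    dsimp only
    split_ifs with hc
    · exact hc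
    · exact Finset.empty_subset _
  have hJe : ∀ᶠ n in (U : Filter ℕ), J n = I' n := by
    filter_upwards [h5] with n hn
    rw [hJ]
    dsimp only
    rw [if_pos hn]
  set D' : Dat4 := zooR D B' J A' mm with hD'
  have hM' : MkA D'.B D'.I (D'.G p) D'.lev D'.A (fun v => p.g * v) (fun v => 0 * v)
      (fun j v => p.θ j * (1 - v)) D'.f D'.b D'.vm D'.w := mka_congr hS.mka hJI hJe
  have hSl' : SlotQ D'.B D'.I D'.lev D'.w p.θ (incQ π D'.L eE fA fB) (fun k => sc' (sl3 k))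
      (up3 (Vis B' I' (flR eE fA fB) sc')) (up3 (Tie B' I' (flR eE fA fB) sc')) :=
    slotQ_congr hSl hJe
  obtain ⟨T0, w0, R, hbig⟩ := exists_bigQ p.θ
  have hpow : ∀ n a, B'.d n ^ a = D.B.d n ^ (H n * a) := by
    intro n a
    rw [h4, ← Real.rpow_mul (D.B.pos n).le]
  have hvis : ∀ k, isSl k → InvS D π eE fA fB k →
      ¬ up3 (Vis B' I' (flR eE fA fB) sc') k := by
    intro k hk hI hV
    obtain ⟨-, hV'⟩ := up3_isSl hV
    refine hV' fun M => ?_
    set i : ℕ := ⌈|M| + 1 + |btF p.θ (sl3 k)|⌉₊ with hi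
    have hi' : |M| + 1 + |btF p.θ (sl3 k)| ≤ (i : ℝ) := Nat.le_ceil _
    filter_upwards [hQ.2 i 0 le_rfl zero_le_one 1 one_pos, h5,
      hS.pr_le (sl3 k) le_rfl zero_le_one one_pos] with n a1 a2 a3 x hx y hy hxy
    obtain ⟨-, -, q3, -, -, -⟩ := a1
    have b1 := q3 k hk hI x (a2 hx) y (a2 hy) hxy
    rw [tdF_d, coF_flR π D.L eE fA fB hk]
    refine b1.trans ?_
    rw [natW_sl D n _ hk]
    have c1 : prF D.w (sl3 k) n (mm n 0) ≤ sc' (sl3 k) n * B'.d n ^ (-(1 : ℝ)) := by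
      have := a3.1
      simp only [Rat.cast_zero, mul_zero, zero_sub] at this
      exact this
    have c2 : D.B.d n ^ (i : ℝ) ≤ B'.d n ^ (i : ℝ) := by
      rw [hpow]
      refine dpow_le D.B n ?_
      have := (h1 n).2
      have : (0 : ℝ) ≤ i := Nat.cast_nonneg _
      nlinarith
    have hp0 : 0 ≤ sc' (sl3 k) n * B'.d n ^ (-(1 : ℝ)) :=
      (mul_pos (hS.scpos _ n) (dpow_pos B' n _)).le
    calc prF D.w (sl3 k) n (mm n 0) * D.B.d n ^ (i : ℝ) ≤
          sc' (sl3 k) n * B'.d n ^ (-(1 : ℝ)) * B'.d n ^ (i : ℝ) :=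
          mul_le_mul c1 c2 (dpow_pos D.B n _).le hp0
      _ = sc' (sl3 k) n * B'.d n ^ (-1 + (i : ℝ)) := by rw [mul_assoc, ← dpow_add]
      _ ≤ sc' (sl3 k) n * B'.d n ^ M := by
          refine mul_le_mul_of_nonneg_left (dpow_le B' n ?_) (hS.scpos _ n).le
          have := le_abs_self M
          have := abs_nonneg (btF p.θ (sl3 k))
          linarith
  have hgg : Gap23 D' → Gap23 D := by
    rintro ⟨γ', hγ', hg'⟩
    by_contra hg
    obtain ⟨n, ⟨a1, a2⟩, a3⟩ := ((hQ.2 0 0 le_rfl zero_le_one (γ' / 2) (by positivity)).and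
      hg').and (Eventually.of_forall fun n => h1 n) |>.exists
    obtain ⟨q1, -, -, -, q5, -⟩ := a1
    have b1 : D.B.d n ^ (H n * (γ' / 2)) * D.w 2 n (mm n 0) ≤ D.w 0 n (mm n 0) := q5 hg
    have b2 : D.w 0 n (mm n 0) ≤ B'.d n ^ γ' * D.w 2 n (mm n 0) := a2
    have b3 := le_of_mul_le_mul_right (b1.trans b2) (q1 2)
    rw [← hpow] at b3
    have b4 : B'.d n ^ γ' < B'.d n ^ (γ' / 2) :=
      Real.rpow_lt_rpow_of_exponent_gt (B'.pos n) (B'.lt n) (by linarith)
    exact absurd b3 (not_le.2 b4)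
  refine ⟨D', _, _, w0, R, T0, _, thickPre_of_gR ok hOk hbig hM'
    (fun n x hx => ?_) (fun n x hx => (hfl.bd n x (hJD n hx)).2.2.2)
    (fun hg => (hfl.gap (hgg hg)).imp fun c hc => ⟨hc.1, fun n x hx => hc.2 n x (hJD n hx)⟩)
    ?_ hSl' ?_, hvis 3 (Or.inr (Or.inl rfl)) hI3,
    fun h2 => hvis 2 (Or.inl rfl) h2, fun h2 => hvis 4 (Or.inr (Or.inr rfl)) h2, fun hg => ?_⟩
  · obtain ⟨f1, f2, f3, -⟩ := hfl.bd n x (hJD n hx)
    exact ⟨f1, f2, f3⟩
  · intro C k v h0 hv1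
    obtain ⟨i, hi⟩ := exists_nat_ge |C|
    filter_upwards [hQ.2 i v h0 hv1 1 one_pos] with n hn
    obtain ⟨q1, -, -, -, -, q6⟩ := hn
    obtain ⟨q7, q8⟩ := q6 k
    have hH := h1 n
    have e1 : D.B.d n ^ (i : ℝ) ≤ B'.d n ^ C := by
      rw [hpow]
      refine dpow_le D.B n ?_
      have h2 := le_abs_self C
      have h3 := abs_nonneg C
      nlinarith [hH.1, hH.2]
    have hwk : 0 < D.w k n (mm n v) := q1 k
    have hcr : 0 ≤ D.cr k n := by
      have h13 := hwk.le.trans q8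
      exact nonneg_of_mul_nonneg_right h13 (dpow_pos D.B n _)
    exact ⟨q7.trans (mul_le_mul_of_nonneg_right e1 hwk.le),
      q8.trans (mul_le_mul_of_nonneg_right e1 hcr)⟩
  · refine gR_raw (linW_of hM') fun u h0 h1 ε hε => ?_
    filter_upwards [hQ.2 0 u h0 h1 ε hε] with n a1 x hx y hy hxy k
    obtain ⟨-, q2, -, -, -, -⟩ := a1
    have b1 := q2 x (hJD n hx) y (hJD n hy) hxy k
    have e1 : D'.B.d n ^ (-ε) = D.B.d n ^ (-(H n * ε)) := by
      show B'.d n ^ (-ε) = _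
      rw [hpow]; congr 1; ring
    rw [e1]
    exact b1
  · refine ⟨γ, hγ, ?_⟩
    filter_upwards [hQ.2 0 0 le_rfl zero_le_one 1 one_pos] with n a1
    obtain ⟨q1, -, -, q4, -, -⟩ := a1
    have b1 := q4 hg
    refine (show D.w 0 n (mm n 0) ≤ D.B.d n ^ γ * D.w 2 n (mm n 0) from b1).trans ?_
    show D.B.d n ^ γ * D.w 2 n (mm n 0) ≤ B'.d n ^ γ * D.w 2 n (mm n 0)
    refine mul_le_mul_of_nonneg_right ?_ (q1 2).le
    rw [hpow]
    refine dpow_le D.B n ?_
    have := (h1 n).2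
    nlinarith

end final

end Crest.Agent.R136.ReP346
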