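import Crest.Agent.R136.ReP1_346

/-!
# R136 (S0187), case E: (P2) `ThickPre` ⊢ raw system (helper210)

`LinW.sizes0_lo` : lower bound of the sizes of the record box; `raw_of_couQ` : chart coordinates in
enlarged units ⊢ raw coordinates; `rawOfPre : RawOfPre η`.
-/

set_option autoImplicit false
set_option linter.unusedVariables false

open Finset Filter Topology

namespace Crest.Agent.R136.ReQ210

open Crest.Agent.R138.Ex926 (Base U)
open Crest.Agent.R138.Dp76 (dpow_pos dpow_add dpow_le dpow_le_one)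
open Crest.Agent.R138.Mk163 (zc zl rho alive own)
open Crest.Agent.R138.MkRef627 (lc kc)
open Crest.Agent.R136.MkA627
open Crest.Agent.R136.Net191
open Crest.Agent.R136.NetQ186
open Crest.Agent.R136.GeoQ186 (sfac coQ_scl scl)
open Crest.Agent.R136.Sh605 (Ln4 V3)
open Crest.Agent.R136.Wq638
open Crest.Agent.R136.Top484
open Crest.Agent.R136.NatT550
open Crest.Agent.R136.GR650 (LinW ev_rho)
open Crest.Agent.R136.ReP346 (natV sfac_natV sfac_pos natW_nonneg)
open Crest.Agent.R136.Re436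

section sizes

variable {B : Base} {lev : ℕ → ℚ → ℕ} {w : Fin 3 → ℕ → ℚ → ℝ} {θ : Fin 3 → ℝ} {w0 R : ℝ}

/-- lower bound of the sizes of the record box, in the units of level `0` -/
theorem sizes0_lo (h : LinW B lev w θ) {u : ℚ} (u0 : 0 ≤ u) (u1 : u ≤ 1) {t : ℝ} (ht : 0 < t) :
    ∀ᶠ n in (U : Filter ℕ), ∀ k : Fin 11, k ≠ 1 →
      B.d n ^ (pathQ θ w0 R u k + t) ≤
      ![Wq638.uH B lev w0 n * rho (lev n u), 0,
        (w 2 n u / rho (lev n u) / uB B lev w w0 n) / (w 1 n u / rho (lev n u) / uA B lev w w0 n),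
        (w 0 n u / rho (lev n u) / uY B lev w w0 n) / (w 2 n u / rho (lev n u) / uB B lev w w0 n),
        (w 0 n u / rho (lev n u) / uY B lev w w0 n) / (w 1 n u / rho (lev n u) / uA B lev w w0 n),
        w 1 n u / rho (lev n u) / uA B lev w w0 n, w 2 n u / rho (lev n u) / uB B lev w w0 n,
        w 0 n u / rho (lev n u) / uY B lev w w0 n,
        Wq638.uH B lev w0 n * rho (lev n u) * (w 1 n u / rho (lev n u) / uA B lev w w0 n),
        Wq638.uH B lev w0 n * rho (lev n u) * (w 2 n u / rho (lev n u) / uB B lev w w0 n),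
        Wq638.uH B lev w0 n * rho (lev n u) * (w 0 n u / rho (lev n u) / uY B lev w w0 n)] k := by
  have h2 : (0 : ℝ) < t / 2 := by positivity
  have hz := ev_rho (h.lev_lim 0 u le_rfl u0 u1) h2
  filter_upwards [hz, h.ang0 0 u0 u1 h2, h.ang0 1 u0 u1 h2, h.ang0 2 u0 u1 h2,
    h.wpos 0 0 le_rfl zero_le_one, h.wpos 1 0 le_rfl zero_le_one, h.wpos 2 0 le_rfl zero_le_one,
    h.wpos 0 u u0 u1, h.wpos 1 u u0 u1, h.wpos 2 u u0 u1] with n hz a0 a1 a2 p0 p1 p2 q0 q1 q2 k hk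
  have add : ∀ a b : ℝ, B.d n ^ a * B.d n ^ b = B.d n ^ (a + b) := fun a b => (dpow_add B n a b).symm
  have dp := dpow_pos B n
  have hρ := rho_pos (lev n u)
  have hρ0 := rho_pos (lev n 0)
  have key : ∀ (j : Fin 3) (s W : ℝ), W = w j n 0 / rho (lev n 0) * B.d n ^ (-s) →
      0 < w j n u → 0 < w j n 0 →
      B.d n ^ (-(θ j * u) + t / 2) ≤ (w j n u / rho (lev n u)) / (w j n 0 / rho (lev n 0)) →
      (w j n u / rho (lev n u)) / (w j n 0 / rho (lev n 0)) ≤ B.d n ^ (-(θ j * u) - t / 2) →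
      B.d n ^ (s - θ j * u + t / 2) ≤ w j n u / rho (lev n u) / W ∧
      w j n u / rho (lev n u) / W ≤ B.d n ^ (s - θ j * u - t / 2) := by
    intro j s W hW hu h1 a b
    have e1 : w j n u / rho (lev n u) / W =
        (w j n u / rho (lev n u)) / (w j n 0 / rho (lev n 0)) * B.d n ^ s := by
      rw [hW, Real.rpow_neg (B.pos n).le]
      have := dp s
      field_simp
    rw [e1]
    constructor
    · calc B.d n ^ (s - θ j * u + t / 2) = B.d n ^ (-(θ j * u) + t / 2) * B.d n ^ s := by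
            rw [add]; congr 1; ring
        _ ≤ _ := mul_le_mul_of_nonneg_right a (dp s).le
    · calc _ ≤ B.d n ^ (-(θ j * u) - t / 2) * B.d n ^ s :=
            mul_le_mul_of_nonneg_right b (dp s).le
        _ = _ := by rw [add]; congr 1; ring
  obtain ⟨ly, hy⟩ := key 0 (3 * w0) (uY B lev w w0 n) rfl q0 p0 a0.1 a0.2
  obtain ⟨la, ha⟩ := key 1 w0 (uA B lev w w0 n) rfl q1 p1 a1.1 a1.2
  obtain ⟨lb, hb⟩ := key 2 (2 * w0) (uB B lev w w0 n) rfl q2 p2 a2.1 a2.2
  have hH : B.d n ^ (w0 + u + t / 2) ≤ Wq638.uH B lev w0 n * rho (lev n u) := by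
    have e1 : Wq638.uH B lev w0 n * rho (lev n u) =
        B.d n ^ w0 * (rho (lev n u) / rho (lev n 0)) := by
      unfold Wq638.uH
      have : rho (lev n 0) = ((2 : ℝ) ^ (lev n 0))⁻¹ := by unfold rho; rw [one_div]
      rw [this, div_inv_eq_mul]; ring
    rw [e1]
    calc B.d n ^ (w0 + u + t / 2) = B.d n ^ w0 * B.d n ^ ((u : ℝ) - (0 : ℚ) + t / 2) := by
          rw [add]; congr 1; push_cast; ring
      _ ≤ _ := mul_le_mul_of_nonneg_left hz.1 (dp w0).le
  generalize Wq638.uH B lev w0 n * rho (lev n u) = Z at hH ⊢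
  generalize w 0 n u / rho (lev n u) / uY B lev w w0 n = Y at ly hy ⊢
  generalize w 1 n u / rho (lev n u) / uA B lev w w0 n = A at la ha ⊢
  generalize w 2 n u / rho (lev n u) / uB B lev w w0 n = Q at lb hb ⊢
  have hY0 : 0 < Y := (dp _).trans_le ly
  have hA0 : 0 < A := (dp _).trans_le la
  have hQ0 : 0 < Q := (dp _).trans_le lb
  have quo : ∀ {X Y a b c : ℝ}, 0 < Y → B.d n ^ a ≤ X → Y ≤ B.d n ^ b → a - b ≤ c →
      B.d n ^ c ≤ X / Y := by
    intro X Y a b c h0 h1 h2 h3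
    calc B.d n ^ c ≤ B.d n ^ (a - b) := dpow_le B n h3
      _ = B.d n ^ a / B.d n ^ b := by rw [← Real.rpow_sub (B.pos n)]
      _ ≤ X / Y := div_le_div₀ ((dp a).le.trans h1) h1 h0 h2
  have prd : ∀ {X Y a b c : ℝ}, B.d n ^ a ≤ X → B.d n ^ b ≤ Y → a + b ≤ c →
      B.d n ^ c ≤ X * Y := by
    intro X Y a b c h1 h2 h3
    calc B.d n ^ c ≤ B.d n ^ (a + b) := dpow_le B n h3
      _ = B.d n ^ a * B.d n ^ b := (add a b).symm
      _ ≤ X * Y := mul_le_mul h1 h2 (dp b).le ((dp a).le.trans h1)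
  fin_cases k
  · show B.d n ^ (w0 + u + t) ≤ Z
    exact (dpow_le B n (by linarith)).trans hH
  · exact absurd rfl hk
  · show B.d n ^ (w0 + (θ 1 - θ 2) * u + t) ≤ Q / A
    exact quo hA0 lb ha (by linarith)
  · show B.d n ^ (w0 + (θ 2 - θ 0) * u + t) ≤ Y / Q
    exact quo hQ0 ly hb (by linarith)
  · show B.d n ^ (2 * w0 + (θ 1 - θ 0) * u + t) ≤ Y / A
    exact quo hA0 ly ha (by linarith)
  · show B.d n ^ (w0 - θ 1 * u + t) ≤ A
    exact (dpow_le B n (by linarith)).trans la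
  · show B.d n ^ (2 * w0 - θ 2 * u + t) ≤ Q
    exact (dpow_le B n (by linarith)).trans lb
  · show B.d n ^ (3 * w0 - θ 0 * u + t) ≤ Y
    exact (dpow_le B n (by linarith)).trans ly
  · show B.d n ^ (2 * w0 + (1 - θ 1) * u + t) ≤ Z * A
    exact prd hH la (by linarith)
  · show B.d n ^ (3 * w0 + (1 - θ 2) * u + t) ≤ Z * Q
    exact prd hH lb (by linarith)
  · show B.d n ^ (4 * w0 + (1 - θ 0) * u + t) ≤ Z * Y
    exact prd hH ly (by linarith)

/-- **chart coordinates ⊢ raw coordinates** -/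
theorem raw_of_couQ (h : LinW B lev w θ) (R : ℝ) {F : ℕ → ℕ × ℝ → Fq4} {u : ℚ} (u0 : 0 ≤ u)
    (u1 : u ≤ 1) {t : ℝ} (ht : 0 < t) :
    ∀ᶠ n in (U : Filter ℕ), ∀ (x y : ℕ × ℝ) (k : Fin 11), k ≠ 1 → ∀ r : ℝ,
      |couQ B lev w w0 F n x y k| ≤ B.d n ^ r →
        |coQ (F n x) (F n y) k| ≤ natV lev w n u k * B.d n ^ (r - pathQ θ w0 R u k - t) := by
  filter_upwards [sizes0_lo (w0 := w0) (R := R) h u0 u1 ht,
    h.wpos 0 0 le_rfl zero_le_one, h.wpos 1 0 le_rfl zero_le_one, h.wpos 2 0 le_rfl zero_le_one,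
    h.wpos 0 u u0 u1, h.wpos 1 u u0 u1, h.wpos 2 u u0 u1]
    with n hsz p0 p1 p2 q0 q1 q2 x y k hk r hr
  have dp := dpow_pos B n
  have hρ := rho_pos (lev n u)
  have hH : 0 < Wq638.uH B lev w0 n := Wq638.uH_pos n
  have hWa : 0 < uA B lev w w0 n := Wq638.uA_pos p1
  have hWb : 0 < uB B lev w w0 n := Wq638.uB_pos p2
  have hWy : 0 < uY B lev w w0 n := Wq638.uY_pos p0
  have hs := sfac_pos hH hWa hWb hWy k
  have h5 := hsz k hk
  rw [← sfac_natV hH.ne' hWa.ne' hWb.ne' hWy.ne' hρ.ne' q0.ne' q1.ne' q2.ne' k] at h5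
  have h6 : sfac (Wq638.uH B lev w0 n) (uA B lev w w0 n) (uB B lev w w0 n) (uY B lev w w0 n) k *
      |coQ (F n x) (F n y) k| ≤ B.d n ^ r := by
    refine le_trans (le_of_eq ?_) hr
    show _ = |coQ (scl _ _ _ _ (F n x)) (scl _ _ _ _ (F n y)) k|
    rw [coQ_scl hH.ne' hWa.ne' hWb.ne' hWy.ne', abs_mul, abs_of_pos hs]
  have h7 : B.d n ^ r ≤
      (sfac (Wq638.uH B lev w0 n) (uA B lev w w0 n) (uB B lev w w0 n) (uY B lev w w0 n) k *
        natV lev w n u k) * B.d n ^ (r - pathQ θ w0 R u k - t) := by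
    calc B.d n ^ r = B.d n ^ (pathQ θ w0 R u k + t) * B.d n ^ (r - pathQ θ w0 R u k - t) := by
          rw [← dpow_add]; congr 1; ring
      _ ≤ _ := mul_le_mul_of_nonneg_right h5 (dp _).le
  have h8 := h6.trans h7
  rw [mul_assoc] at h8
  exact le_of_mul_le_mul_left h8 hs

end sizes

/-- **(P2)** -/
theorem rawOfPre (η : ℝ) : RawOfPre η := by
  intro p D π eE fA fB V T w0 R T0 PD h
  have hL := linW_of h.pre.mka
  refine ⟨⟨h.pre.mka, ?_, h.wrs⟩, ?_⟩
  · intro u u0 u1 ε hε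
    have h2 : 0 < ε / 2 := by positivity
    filter_upwards [h.pre.gR u u0 u1 _ h2,
      raw_of_couQ (w0 := w0) hL R (F := incQ π D.L eE fA fB) u0 u1 h2] with n h1 h2 x hx y hy hxy k
    by_cases hk : k = 1
    · subst hk
      show |(0 : ℝ) - 0| ≤ 0 * _
      simp
    · refine (h2 x y k hk _ (h1 x hx y hy hxy k)).trans (le_of_eq ?_)
      show natW D n u k * _ = natW D n u k * _
      congr 2
      ring
  · intro k hk hV
    refine ⟨1, one_pos, fun u u0 u1 => ?_⟩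
    have hwp : ∀ᶠ n in (U : Filter ℕ), ∀ j, 0 < D.w j n u :=
      Filter.eventually_all.2 fun j => h.pre.mka.wpos j u u0 u1
    have hhalf : (0 : ℝ) < 1 / 2 := by norm_num
    filter_upwards [h.pre.own_near 0 le_rfl zero_le_one _ hhalf, h.pre.mka.cell0,
      raw_of_couQ (w0 := w0) hL R (F := incQ π D.L eE fA fB) u0 u1 hhalf, hwp]
      with n h1 h2 h3 h4 x hx y hy hxy
    have hlc : lc (D.lev n 0) y = lc (D.lev n 0) x := Prod.ext hxy (h2 y hy x hx)
    have hk0 : k ≠ 0 := by rcases hk with rfl | rfl | rfl <;> decide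
    have hk1 : k ≠ 1 := by rcases hk with rfl | rfl | rfl <;> decide
    have h5 := h1 x hx y hy hlc k
    have e1 : ownQ p.θ w0 R V ((0 : ℚ) : ℝ) k = R := by
      unfold ownQ
      rw [if_neg hk0, if_neg hV]
    rw [e1] at h5
    refine (h3 x y k hk1 _ h5).trans ?_
    show natW D n u k * _ ≤ natW D n u k * _
    refine mul_le_mul_of_nonneg_left (dpow_le D.B n ?_) (natW_nonneg h4 k)
    have v0 : (0 : ℝ) ≤ u := by exact_mod_cast u0
    have v1 : (u : ℝ) ≤ 1 := by exact_mod_cast u1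
    have b0 := h.big.bd v0 v1 0
    have b1 := h.big.bd v0 v1 1
    have b2 := h.big.bd v0 v1 2
    have b3 := h.big.R0
    have b4 := h.big.w0T
    have b5 := h.big.T0
    rcases hk with rfl | rfl | rfl
    · show 1 ≤ R - 1 / 2 - (w0 + (p.θ 1 - p.θ 2) * u) - 1 / 2
      linarith [b0.1, b0.2, b1.1, b1.2, b2.1, b2.2]
    · show 1 ≤ R - 1 / 2 - (w0 + (p.θ 2 - p.θ 0) * u) - 1 / 2
      linarith [b0.1, b0.2, b1.1, b1.2, b2.1, b2.2]
    · show 1 ≤ R - 1 / 2 - (2 * w0 + (p.θ 1 - p.θ 0) * u) - 1 / 2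
      linarith [b0.1, b0.2, b1.1, b1.2, b2.1, b2.2]

end Crest.Agent.R136.ReQ210
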