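import Crest.Agent.R136.ReE7_436
import Crest.Agent.R136.ReP2_346
import Crest.Agent.R136.ReQ1_210
import Crest.Agent.R136.ReL4_344

/-!
# R136 (S0187), case E: re-flag (helper436), part 8: glue

`reflag` : thick system of case E / E3 + same-line relation of the flags ⊢ a new thick system with
pattern `pF2`, `pA`, `pC1` or `pC1s`.
-/

set_option autoImplicit false
set_option linter.unusedVariables false

open Finset Filter Topology

namespace Crest.Agent.R136.Re436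

open Crest.Agent.R138.Ex926 (Base U exists_diag)
open Crest.Agent.R138.Mk163 (zc zl rho alive)
open Crest.Agent.R138.Dp76 (Dense)
open Crest.Agent.R138.MkRef627 (lc kc)
open Crest.Agent.R138.MkZoom779 (dpow_pos dpow_le)
open Crest.Agent.R136.MkA627
open Crest.Agent.R136.Net191
open Crest.Agent.R136.NetQ186
open Crest.Agent.R136.Wq638
open Crest.Agent.R136.Top484
open Crest.Agent.R136.NatT550
open Crest.Agent.R136.TopB550
open Crest.Agent.R136.Ut627 (wpos_all)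

theorem flagC_of {η : ℝ} {p : Par4} {D : Dat4} {π : Equiv.Perm (Fin 3)}
    {eE fA fB : ℕ → ℕ × ℝ → ℝ} {V T : Fin 11 → Prop} {w0 R T0 : ℝ} {PD : Set (Fin 11 → ℝ)}
    (h : ThickPre η p D π eE fA fB V T w0 R T0 PD) : FlagC D eE fA fB :=
  ⟨fun n x hx => ⟨(h.flag n x hx).1, (h.flag n x hx).2.1, (h.flag n x hx).2.2, h.flag2 n x hx⟩,
    h.flag3⟩

/-- **re-flag** -/
theorem reflag {η : ℝ} {p : Par4} {D : Dat4} {π : Equiv.Perm (Fin 3)}
    {eE fA fB : ℕ → ℕ × ℝ → ℝ} {V T : Fin 11 → Prop} {w0 R T0 : ℝ} {PD : Set (Fin 11 → ℝ)}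
    (h : ThickPre η p D π eE fA fB V T w0 R T0 PD) (hV3 : ¬ V 3) (h02 : p.θ 0 = p.θ 2)
    (hb : 0 < btQ p.θ 2) (hL : LineRel D π eE fA fB) :
    ∃ (D' : Dat4) (π' : Equiv.Perm (Fin 3)) (e' fa' fb' : ℕ → ℕ × ℝ → ℝ) (V' T' : Fin 11 → Prop)
      (w0' R' T0' : ℝ) (PD' : Set (Fin 11 → ℝ)),
      ThickPre η p D' π' e' fa' fb' V' T' w0' R' T0' PD' ∧ ¬ V' 3 ∧
        (¬ V' 4 ∨ (¬ V' 2 ∧ Gap23 D')) := by
  obtain ⟨hR, hinv⟩ := Crest.Agent.R136.ReQ210.rawOfPre η _ _ _ _ _ _ _ _ _ _ _ _ h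
  have hF := flagC_of h
  have s3 : isSl 3 := by simp [isSl]
  obtain ⟨D1, e1, e2, e3, e4, e5, e6, e7⟩ := exists_lineInf hR h02 (hinv 3 s3 hV3) hL
  have hFB : FlagB D1 eE fA fB := fun n x hx => hF.bd n x (e2 n hx)
  have hG : (GapInf D1 ∧ ∃ c : ℝ, c < 1 ∧ ∀ n, ∀ x ∈ D1.I n, |fB n x| ≤ c) ∨ NoGap D1 := by
    by_cases hg : Gap23 D
    · obtain ⟨c, hc, h1⟩ := hF.gap hg
      exact Or.inl ⟨e6 hg, c, hc, fun n x hx => h1 n x (e2 n hx)⟩
    · exact Or.inr (e7 hg)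
  obtain ⟨D2, π', e', fa', fb', hO⟩ := exists_flags e3 h02 e4 e5 hFB hG
  have hb4 : 0 < btQ p.θ 4 := by
    have : btQ p.θ 4 = btQ p.θ 2 := by
      simp only [btQ]
      simp [h02]
    rw [this]; exact hb
  obtain ⟨D3, V', T', w0', R', T0', PD', k1, k2, k3, k4, k5⟩ :=
    Crest.Agent.R136.ReP346.preOfRaw η p D2 π' e' fa' fb' h.ok hO.raw hO.flag h02 hO.inv3
      (Or.inr hb) (Or.inr hb4)
  refine ⟨D3, π', e', fa', fb', V', T', w0', R', T0', PD', k1, k2, ?_⟩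
  rcases hO.fin with h4 | ⟨h2, hg⟩
  · exact Or.inl (k4 h4)
  · exact Or.inr ⟨k3 h2, k5 hg.gap⟩

/-- **the dead patterns kill the re-flagged system** -/
theorem dead_of_pre {η : ℝ} (hF2 : Dead η pF2) (hA : Dead η pA) (hC1 : DeadG η pC1)
    (hC1s : DeadG η pC1s) {p : Par4} {D : Dat4} {π : Equiv.Perm (Fin 3)}
    {eE fA fB : ℕ → ℕ × ℝ → ℝ} {V T : Fin 11 → Prop} {w0 R T0 : ℝ} {PD : Set (Fin 11 → ℝ)}
    (h : ThickPre η p D π eE fA fB V T w0 R T0 PD) (hV3 : ¬ V 3) (h02 : p.θ 0 = p.θ 2)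
    (hb : 0 < btQ p.θ 2) (h4 : ¬ V 4 ∨ (¬ V 2 ∧ Gap23 D)) : False := by
  obtain ⟨J, I1, ν, own, c₀, hJ, hT⟩ := thick_of_pre h
  have h21 : p.θ 2 < p.θ 1 := by
    have h1 : btQ p.θ 2 = p.θ 1 - p.θ 2 := by
      simp [btQ]
    linarith
  by_cases v2 : V 2
  · have v4 : ¬ V 4 := h4.elim id fun h => absurd v2 h.1
    exact hF2 _ _ _ _ _ _ _ _ _ _ _ _ _ _ _ _ hT ⟨v2, hV3, v4, h02⟩
  · by_cases v4 : V 4
    · have hg : Gap23 D := (h4.resolve_left fun h => h v4).2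
      have hg' : p.θ 0 ≠ p.θ 2 ∨ Gap23 (subD D J) := Or.inr hg
      by_cases hs : LLs p
      · exact hC1s _ _ _ _ _ _ _ _ _ _ _ _ _ _ _ _ hT ⟨v2, v4, hs⟩ hg'
      · exact hC1 _ _ _ _ _ _ _ _ _ _ _ _ _ _ _ _ hT ⟨v2, v4, Or.inl h21, hs⟩ hg'
    · exact hA _ _ _ _ _ _ _ _ _ _ _ _ _ _ _ _ hT ⟨v2, hV3, v4⟩

/-- the relation is trivial if `E` is invisible -/
theorem lineRel_of_two {D : Dat4} {π : Equiv.Perm (Fin 3)} {eE fA fB : ℕ → ℕ × ℝ → ℝ}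
    (hw : ∀ᶠ n in (U : Filter ℕ), ∀ k, 0 < D.w k n 0)
    (h2 : ∃ c : ℝ, 0 < c ∧ ∀ u : ℚ, 0 ≤ u → u ≤ 1 → ∀ᶠ n in (U : Filter ℕ),
      ∀ x ∈ D.I n, ∀ y ∈ D.I n, y.1 = x.1 →
        |coQ (incQ π D.L eE fA fB n x) (incQ π D.L eE fA fB n y) 2| ≤
          natW D n u 2 * D.B.d n ^ c) : LineRel D π eE fA fB := by
  obtain ⟨c, hc, h2⟩ := h2
  refine ⟨c, hc, fun ε hε => ⟨0, min ε 1, le_rfl, lt_min hε one_pos, min_le_left _ _, by
    have := min_le_right ε 1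
    push_cast
    linarith, ?_⟩⟩
  filter_upwards [h2 0 le_rfl zero_le_one, hw] with n hn hw
  refine ⟨D.I n, Subset.refl _, ?_, fun x hx => ⟨1, 0, by norm_num, fun y hy hxy hz => ?_⟩⟩
  · have h1 : D.B.d n ^ (min ε 1 * ε) ≤ 1 :=
      Real.rpow_le_one (D.B.pos n).le (D.B.lt n).le (mul_nonneg (lt_min hε one_pos).le hε.le)
    exact mul_le_of_le_one_left (Nat.cast_nonneg _) h1
  · have h1 := hn x hx y hy hxy
    have hp : 0 < natW D n 0 2 := div_pos (hw 2) (hw 1)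
    rw [one_mul, zero_mul, add_zero, abs_div, abs_of_pos hp, div_le_iff₀ hp]
    refine h1.trans ?_
    rw [mul_comm]
    refine mul_le_mul_of_nonneg_right (dpow_le D.B n ?_) hp.le
    have := min_le_right ε 1
    nlinarith

/-- **case E**, over the window half `WinE` -/
theorem caseE {η : ℝ} (hW : WinE η) (hF2 : Dead η pF2) (hA : Dead η pA)
    (hC1 : DeadG η pC1) (hC1s : DeadG η pC1s) : Dead η pE := by
  intro p D I1 π eE fA fB V T w0 R T0 PD ν own c₀ h hE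
  have hL := Crest.Agent.R136.ReL344.lineOfFlag η _ _ _ _ _ _ _ _ _ _ _ _ _ _ _ _ h hE.1 hE.2.1
    hE.2.2 (hW _ _ _ _ _ _ _ _ _ _ _ _ _ _ _ _ h hE)
  have hb := (h.tp.slots.vis 2 hE.1).2
  obtain ⟨D', π', e', fa', fb', V', T', w0', R', T0', PD', k1, k2, k3⟩ :=
    reflag h.tp hE.2.1 hE.2.2 hb hL
  exact dead_of_pre hF2 hA hC1 hC1s k1 k2 hE.2.2 hb k3

/-- **case E3** : `E` invisible, thickness parallel to the narrow width (with or without gap) -/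
theorem caseE3' {η : ℝ} (hF2 : Dead η pF2) (hA : Dead η pA) (hC1 : DeadG η pC1)
    (hC1s : DeadG η pC1s) : Dead η pE3 := by
  intro p D I1 π eE fA fB V T w0 R T0 PD ν own c₀ h hE
  obtain ⟨hR, hinv⟩ := Crest.Agent.R136.ReQ210.rawOfPre η _ _ _ _ _ _ _ _ _ _ _ _ h.tp
  have s2 : isSl 2 := by simp [isSl]
  have hb4 := (h.tp.slots.vis 4 hE.2.1).2
  have hb : 0 < btQ p.θ 2 := by
    have : btQ p.θ 2 = btQ p.θ 4 := by
      simp only [btQ]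
      simp [hE.2.2]
    rw [this]; exact hb4
  have hV3 : ¬ V 3 := fun h3 => by
    have h1 := (h.tp.slots.vis 3 h3).2
    have h2 : btQ p.θ 3 = 0 := by
      simp [btQ, hE.2.2]
    linarith
  have hL := lineRel_of_two (wpos_all hR.mka le_rfl zero_le_one) (hinv 2 s2 hE.1)
  obtain ⟨D', π', e', fa', fb', V', T', w0', R', T0', PD', k1, k2, k3⟩ :=
    reflag h.tp hV3 hE.2.2 hb hL
  exact dead_of_pre hF2 hA hC1 hC1s k1 k2 hE.2.2 hb k3

/-- **case E3** -/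
theorem caseE3 {η : ℝ} (hF2 : Dead η pF2) (hA : Dead η pA) (hC1 : DeadG η pC1)
    (hC1s : DeadG η pC1s) : DeadN η pE3 :=
  fun p D I1 π eE fA fB V T w0 R T0 PD ν own c₀ h hE _ =>
    caseE3' hF2 hA hC1 hC1s p D I1 π eE fA fB V T w0 R T0 PD ν own c₀ h hE

end Crest.Agent.R136.Re436
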