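import Crest.Agent.R136.ReD_436

/-!
# R136 (S0187), case E: window relation ⊢ same-line relation (helper344), part 1: tools
-/

set_option autoImplicit false
set_option linter.unusedVariables false
set_option linter.unusedSectionVars false

open Finset Filter Topology

namespace Crest.Agent.R136.ReL344

open Crest.Agent.R138.Ex926 (Base U)
open Crest.Agent.R138.Dp76 (dpow_pos dpow_add dpow_le dpow_le_one)
open Crest.Agent.R138.Mk163 (zc zl rho alive)
open Crest.Agent.R138.MkRef627 (lc kc)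
open Crest.Agent.R136.MkA627
open Crest.Agent.R136.Net191
open Crest.Agent.R136.NetQ186
open Crest.Agent.R136.GeoQ186
open Crest.Agent.R136.Wq638
open Crest.Agent.R136.Sh605 (Ln4 V3)

open Classical in
/-- one label per group -/
theorem pop_label {ι γ α : Type*} (F : Finset ι) (g : ι → γ) (κ : ι → α) {N : ℝ}
    (hN : ∀ j ∈ F, (((F.filter fun j' => g j' = g j).image κ).card : ℝ) ≤ N) :
    ∃ S ⊆ F, (F.card : ℝ) ≤ N * (S.card : ℝ) ∧ ∀ x ∈ S, ∀ y ∈ S, g x = g y → κ x = κ y := by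
  -- popular label of the group `c`
  have h1 : ∀ c : γ, ∃ a : Option α, ((F.filter fun j => g j = c).card : ℝ) ≤
      N * (((F.filter fun j => g j = c).filter fun j => some (κ j) = a).card : ℝ) := by
    intro c
    rcases (F.filter fun j => g j = c).eq_empty_or_nonempty with he | ⟨j0, hj0⟩
    · exact ⟨none, by rw [he]; simp⟩
    obtain ⟨hj1, hj2⟩ := Finset.mem_filter.1 hj0
    have hNj := hN j0 hj1
    rw [hj2] at hNj
    set Fc := F.filter fun j => g j = c with hFc
    by_contra hcon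
    push Not at hcon
    have hne : (Fc.image κ).Nonempty := ⟨κ j0, Finset.mem_image_of_mem _ hj0⟩
    have e1 : (Fc.card : ℝ) = ∑ a ∈ Fc.image κ, ((Fc.filter fun j => κ j = a).card : ℝ) := by
      have : Fc.card = ∑ a ∈ Fc.image κ, (Fc.filter fun j => κ j = a).card :=
        Finset.card_eq_sum_card_fiberwise fun j hj => Finset.mem_image_of_mem _ hj
      rw [this]; push_cast; rfl
    have e2 : ∀ a ∈ Fc.image κ, N * ((Fc.filter fun j => κ j = a).card : ℝ) < (Fc.card : ℝ) := by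
      intro a _
      have := hcon (some a)
      simpa using this
    have e3 : ∑ a ∈ Fc.image κ, N * ((Fc.filter fun j => κ j = a).card : ℝ) <
        ∑ _a ∈ Fc.image κ, (Fc.card : ℝ) := Finset.sum_lt_sum_of_nonempty hne e2
    rw [← Finset.mul_sum, ← e1, Finset.sum_const, nsmul_eq_mul] at e3
    have e4 : ((Fc.image κ).card : ℝ) * (Fc.card : ℝ) ≤ N * (Fc.card : ℝ) :=
      mul_le_mul_of_nonneg_right hNj (Nat.cast_nonneg _)
    linarith
  choose a ha using h1
  refine ⟨F.filter fun j => some (κ j) = a (g j), Finset.filter_subset _ _, ?_, ?_⟩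
  · have e1 : (F.card : ℝ) = ∑ c ∈ F.image g, ((F.filter fun j => g j = c).card : ℝ) := by
      have : F.card = ∑ c ∈ F.image g, (F.filter fun j => g j = c).card :=
        Finset.card_eq_sum_card_fiberwise fun j hj => Finset.mem_image_of_mem _ hj
      rw [this]; push_cast; rfl
    have e2 : ((F.filter fun j => some (κ j) = a (g j)).card : ℝ) = ∑ c ∈ F.image g,
        (((F.filter fun j => g j = c).filter fun j => some (κ j) = a c).card : ℝ) := by
      have : (F.filter fun j => some (κ j) = a (g j)).card = ∑ c ∈ F.image g,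
          ((F.filter fun j => some (κ j) = a (g j)).filter fun j => g j = c).card :=
        Finset.card_eq_sum_card_fiberwise fun j hj =>
          Finset.mem_image_of_mem _ (Finset.mem_filter.1 hj).1
      rw [this]
      push_cast
      refine Finset.sum_congr rfl fun c _ => ?_
      congr 2
      ext j
      simp only [Finset.mem_filter]
      constructor
      · rintro ⟨⟨x1, x2⟩, x3⟩
        exact ⟨⟨x1, x3⟩, by rw [← x3]; exact x2⟩
      · rintro ⟨⟨x1, x3⟩, x2⟩
        exact ⟨⟨x1, by rw [x3]; exact x2⟩, x3⟩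
    rw [e1, e2, Finset.mul_sum]
    exact Finset.sum_le_sum fun c _ => ha c
  · intro x hx y hy hxy
    have h2 := (Finset.mem_filter.1 hx).2
    have h3 := (Finset.mem_filter.1 hy).2
    rw [← hxy] at h3
    exact Option.some.inj (h2.trans h3.symm)

/-- the relation seen from two incidences -/
theorem rel_shift (i x y : Fq4) (a b p2 p4 : ℝ) :
    (a * (coQ i y 2 / p2) + b * ((coQ i y 4 + coQ i y 3 * coQ i y 2) / p4)) -
      (a * (coQ i x 2 / p2) + b * ((coQ i x 4 + coQ i x 3 * coQ i x 2) / p4)) =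
    a * (coQ x y 2 / p2) + b * ((coQ x y 4 + coQ x y 2 * coQ i y 3) / p4) := by
  simp only [coQ, Matrix.cons_val]
  ring

theorem co3_add (i x y : Fq4) : coQ i y 3 = coQ i x 3 + coQ x y 3 := by
  simp only [coQ, Matrix.cons_val]
  ring

/-- natural size of a slot -/
theorem natW_slot (D : Top484.Dat4) (n : ℕ) (u : ℚ) :
    Re436.natW D n u 2 = prQ D.w 2 n u ∧ Re436.natW D n u 4 = prQ D.w 4 n u := by
  constructor
  · simp [Re436.natW, prQ]
  · simp [Re436.natW, prQ]

section ratio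

variable {σ : Type*} {B : Base} {I : ℕ → Finset (ℕ × ℝ)} {G : Geo σ (Fin 3)} {lev : ℕ → ℚ → ℕ}
    {A : ℕ → ℝ} {c Λ : ℝ → ℝ} {θ : Fin 3 → ℝ} {f : ℕ → ℚ → ℕ → ℤ → ℕ} {b : ℕ → ℚ → ℕ → σ}
    {vm : ℕ → ℚ → ℝ} {w : Fin 3 → ℕ → ℚ → ℝ}

/-- ratio of two widths at level `u` over level `0` -/
theorem ratio_lim (h : MkA B I G lev A c Λ (fun j v => θ j * (1 - v)) f b vm w) (i j : Fin 3)
    {u : ℚ} (h0 : 0 ≤ u) (h1 : u ≤ 1) :
    Tendsto (fun n => Real.log ((w i n u / w j n u) / (w i n 0 / w j n 0)) / B.L n) U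
      (𝓝 (-((θ j - θ i) * u))) := by
  have t1 := h.tau i u h0 h1
  have t2 := h.tau i 0 le_rfl zero_le_one
  have t3 := h.tau j u h0 h1
  have t4 := h.tau j 0 le_rfl zero_le_one
  have t5 := (t3.sub t4).sub (t1.sub t2)
  have e1 : θ j * (1 - (u : ℝ)) - θ j * (1 - ((0 : ℚ) : ℝ)) - (θ i * (1 - (u : ℝ)) -
      θ i * (1 - ((0 : ℚ) : ℝ))) = -((θ j - θ i) * u) := by
    push_cast; ring
  rw [e1] at t5
  refine t5.congr' ?_
  filter_upwards [h.wpos i u h0 h1, h.wpos i 0 le_rfl zero_le_one, h.wpos j u h0 h1,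
    h.wpos j 0 le_rfl zero_le_one, h.wpos i 1 zero_le_one le_rfl,
    h.wpos j 1 zero_le_one le_rfl] with n a1 a2 a3 a4 a5 a6
  have r1 := rho_pos (lev n u)
  have r2 := rho_pos (lev n 0)
  have r3 := rho_pos (lev n 1)
  have lg : ∀ x y z t : ℝ, 0 < x → 0 < y → 0 < z → 0 < t → Real.log ((x / y) / (z / t)) =
      (Real.log x - Real.log y) - (Real.log z - Real.log t) := by
    intro x y z t hx hy hz ht
    rw [Real.log_div (div_pos hx hy).ne' (div_pos hz ht).ne', Real.log_div hx.ne' hy.ne',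
      Real.log_div hz.ne' ht.ne']
  rw [lg _ _ _ _ r1 a1 r3 a5, lg _ _ _ _ r2 a2 r3 a5, lg _ _ _ _ r1 a3 r3 a6,
    lg _ _ _ _ r2 a4 r3 a6, lg _ _ _ _ a1 a3 a2 a4]
  ring

/-- lower and upper bound of the ratio -/
theorem ratio_ev (h : MkA B I G lev A c Λ (fun j v => θ j * (1 - v)) f b vm w) (i j : Fin 3)
    {u : ℚ} (h0 : 0 ≤ u) (h1 : u ≤ 1) {ε : ℝ} (hε : 0 < ε) :
    ∀ᶠ n in (U : Filter ℕ), B.d n ^ ((θ j - θ i) * u + ε) * (w i n 0 / w j n 0) ≤
      w i n u / w j n u := by
  filter_upwards [(ratio_lim h i j h0 h1).eventually_const_lt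
    (show -((θ j - θ i) * (u : ℝ)) - ε < -((θ j - θ i) * u) by linarith),
    h.wpos i u h0 h1, h.wpos i 0 le_rfl zero_le_one, h.wpos j u h0 h1,
    h.wpos j 0 le_rfl zero_le_one] with n hn a1 a2 a3 a4
  have hL := B.L_pos n
  rw [lt_div_iff₀ hL] at hn
  have hp : 0 < (w i n u / w j n u) / (w i n 0 / w j n 0) :=
    div_pos (div_pos a1 a3) (div_pos a2 a4)
  rw [← le_div_iff₀ (div_pos a2 a4), ← Real.log_le_log_iff (dpow_pos B n _) hp,
    Real.log_rpow (B.pos n)]
  have hL2 : B.L n = -Real.log (B.d n) := rfl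
  rw [hL2] at hn
  nlinarith

end ratio

section labels

variable {B : Base} {I : ℕ → Finset (ℕ × ℝ)} {co : ∀ n : ℕ, ℕ × ℝ → ℕ × ℝ → Fin 11 → ℝ}

theorem legal_const {R : ℝ} (hR : 0 ≤ R) : Legal monQ (fun _ : Fin 11 => R) where
  nonneg := fun _ => hR
  wall := fun k e he => by
    have h1 := monQ.one_le he
    have h2 : (1 : ℝ) ≤ ∑ s, (e s : ℝ) := by exact_mod_cast h1
    rw [← Finset.sum_mul]
    nlinarith

end labels

end Crest.Agent.R136.ReL344
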