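import Crest.Agent.R136.ReL1_344

/-!
# R136 (S0187), case E: window relation ⊢ same-line relation (helper344), part 2: one scale
-/

set_option autoImplicit false
set_option linter.unusedVariables false
set_option linter.unusedSectionVars false

open Finset Filter Topology

namespace Crest.Agent.R136.ReL344

open Crest.Agent.R138.Ex926 (Base U)
open Crest.Agent.R138.Dp76 (dpow_pos dpow_add dpow_le dpow_le_one)
open Crest.Agent.R138.Mk163 (zc zl rho alive)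
open Crest.Agent.R138.MkRef627 (lc kc)
open Crest.Agent.R136.MkA627
open Crest.Agent.R136.Net191
open Crest.Agent.R136.NetQ186
open Crest.Agent.R136.GeoQ186
open Crest.Agent.R136.Wq638
open Crest.Agent.R136.Sh605 (Ln4 V3)

theorem ev_c (B : Base) {t : ℝ} (ht : 0 < t) (C : ℝ) :
    ∀ᶠ n in (U : Filter ℕ), C ≤ B.d n ^ (-t) := by
  have hC : 0 < 1 / (|C| + 1) := by positivity
  have h0 : Tendsto (fun n => B.d n ^ t) U (𝓝 0) := by
    have := B.lim0.rpow_const (p := t) (Or.inr ht.le)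
    simpa [Real.zero_rpow ht.ne'] using this
  filter_upwards [h0.eventually (gt_mem_nhds hC)] with n hn
  have hd := B.pos n
  rw [Real.rpow_neg hd.le]
  have h1 : 0 < B.d n ^ t := Real.rpow_pos_of_pos hd t
  rw [lt_div_iff₀ (by positivity)] at hn
  calc C ≤ |C| + 1 := by linarith [le_abs_self C]
    _ ≤ (B.d n ^ t)⁻¹ := by
        rw [le_inv_comm₀ (by positivity) h1, ← one_div, le_div_iff₀ (by positivity)]
        exact hn.le

/-- normalised relation -/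
theorem norm_rel {a b φ Φ l2 l4 l : ℝ} (hab : a ^ 2 + b ^ 2 = 1) (hφ : |φ| ≤ Φ) (hl : 0 < l)
    (h2 : l ≤ l2) (h4 : l ≤ l4) :
    ∃ a' b' : ℝ, a' ^ 2 + b' ^ 2 = 1 ∧ ∀ Q2 Q4 E : ℝ,
      |(a + b * φ) * (l2 * Q2) + b * (l4 * Q4)| ≤ E →
        |a' * Q2 + b' * Q4| ≤ E * (2 * (1 + Φ) / l) := by
  have hΦ : 0 ≤ Φ := (abs_nonneg _).trans hφ
  set P := (a + b * φ) * l2 with hP
  set Q := b * l4 with hQ
  have ha1 : |a| ≤ 1 := by
    rw [abs_le]; constructor <;> nlinarith [sq_nonneg b]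
  have hb1 : |b| ≤ 1 := by
    rw [abs_le]; constructor <;> nlinarith [sq_nonneg a]
  -- size of the first pair
  have hs1 : 1 ≤ |a| + |b| := by
    have e1 : |a| ^ 2 = a ^ 2 := sq_abs a
    have e2 : |b| ^ 2 = b ^ 2 := sq_abs b
    nlinarith [abs_nonneg a, abs_nonneg b]
  have hs2 : |a| ≤ |a + b * φ| + |b| * Φ := by
    have e1 : a = (a + b * φ) - b * φ := by ring
    have e2 := abs_sub (a + b * φ) (b * φ)
    rw [← e1] at e2
    have e3 : |b * φ| ≤ |b| * Φ := by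
      rw [abs_mul]; exact mul_le_mul_of_nonneg_left hφ (abs_nonneg _)
    linarith
  have hs3 : 1 ≤ (1 + Φ) * (|a + b * φ| + |b|) := by
    nlinarith [abs_nonneg (a + b * φ), abs_nonneg b]
  have hl2 : 0 < l2 := hl.trans_le h2
  have hl4 : 0 < l4 := hl.trans_le h4
  have hPa : l * |a + b * φ| ≤ |P| := by
    rw [hP, abs_mul, abs_of_pos hl2, mul_comm]
    exact mul_le_mul_of_nonneg_left h2 (abs_nonneg _)
  have hQa : l * |b| ≤ |Q| := by
    rw [hQ, abs_mul, abs_of_pos hl4, mul_comm]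
    exact mul_le_mul_of_nonneg_left h4 (abs_nonneg _)
  have hPQ : l ≤ (1 + Φ) * (|P| + |Q|) := by
    calc l = l * 1 := (mul_one l).symm
      _ ≤ l * ((1 + Φ) * (|a + b * φ| + |b|)) := mul_le_mul_of_nonneg_left hs3 hl.le
      _ = (1 + Φ) * (l * |a + b * φ| + l * |b|) := by ring
      _ ≤ (1 + Φ) * (|P| + |Q|) :=
        mul_le_mul_of_nonneg_left (add_le_add hPa hQa) (by linarith)
  have hΦ1 : 0 < 1 + Φ := by linarith
  have hsum : 0 < |P| + |Q| := by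
    by_contra hc
    have : (1 + Φ) * (|P| + |Q|) ≤ 0 := by nlinarith [not_lt.1 hc]
    linarith
  set N := Real.sqrt (P ^ 2 + Q ^ 2) with hN
  have hNN : N ^ 2 = P ^ 2 + Q ^ 2 := Real.sq_sqrt (by positivity)
  have hN0 : 0 ≤ N := Real.sqrt_nonneg _
  have hNge : |P| + |Q| ≤ 2 * N := by
    have e1 : |P| ≤ N := Real.abs_le_sqrt (by nlinarith [sq_nonneg Q])
    have e2 : |Q| ≤ N := Real.abs_le_sqrt (by nlinarith [sq_nonneg P])
    linarith
  have hNpos : 0 < N := by linarith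
  refine ⟨P / N, Q / N, ?_, fun Q2 Q4 E hE => ?_⟩
  · rw [div_pow, div_pow, ← add_div, ← hNN, div_self (by positivity)]
  · have e1 : P / N * Q2 + Q / N * Q4 = ((a + b * φ) * (l2 * Q2) + b * (l4 * Q4)) / N := by
      rw [hP, hQ]; field_simp
    rw [e1, abs_div, abs_of_pos hNpos]
    have hE0 : 0 ≤ E := (abs_nonneg _).trans hE
    calc |(a + b * φ) * (l2 * Q2) + b * (l4 * Q4)| / N ≤ E / N :=
          div_le_div_of_nonneg_right hE hN0
      _ = E * (1 / N) := by ring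
      _ ≤ E * (2 * (1 + Φ) / l) := by
          refine mul_le_mul_of_nonneg_left ?_ hE0
          rw [div_le_div_iff₀ hNpos hl]
          nlinarith

/-- the relation between two incidences with mates of the same label -/
theorem fix_rel {i x y mx my : Fq4} {a b e d X2 w0 R K E1 : ℝ} (hd : 0 < d) (hd1 : d ≤ 1)
    (hK : 1 ≤ K) (ha : |a| ≤ 1) (hb : |b| ≤ 1) (hX2 : 0 ≤ X2) (hw0 : 0 ≤ w0) (hwR : w0 ≤ R)
    (hx : ∀ k, |coQ mx x k| ≤ K * d ^ R) (hy : ∀ k, |coQ my y k| ≤ K * d ^ R)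
    (h3x : |coQ i mx 3| ≤ K * d ^ w0) (h3y : |coQ i my 3| ≤ K * d ^ w0)
    (hGx : |a * (coQ i mx 2 / d ^ X2) + b * ((coQ i mx 4 + coQ i mx 3 * coQ i mx 2) /
      d ^ (X2 + w0)) - e| ≤ E1)
    (hGy : |a * (coQ i my 2 / d ^ X2) + b * ((coQ i my 4 + coQ i my 3 * coQ i my 2) /
      d ^ (X2 + w0)) - e| ≤ E1)
    (hxy2 : |coQ x y 2| ≤ 1) (hxy3 : |coQ x y 3| ≤ d ^ (R - 1)) :
    |coQ i x 3 / d ^ w0| ≤ 2 * K ∧
    |(a + b * (coQ i x 3 / d ^ w0)) * (coQ x y 2 / d ^ X2) + b * (coQ x y 4 / d ^ (X2 + w0))| ≤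
      2 * E1 + (8 * K ^ 2 + 1) * d ^ (R - 1 - (X2 + w0)) := by
  have hW : 0 < d ^ w0 := Real.rpow_pos_of_pos hd _
  have hD2 : 0 < d ^ X2 := Real.rpow_pos_of_pos hd _
  have hr : 0 < d ^ R := Real.rpow_pos_of_pos hd _
  have hD4 : d ^ (X2 + w0) = d ^ X2 * d ^ w0 := Real.rpow_add hd _ _
  have hW1 : d ^ w0 ≤ 1 := Real.rpow_le_one hd.le hd1 hw0
  have hrW : d ^ R ≤ d ^ w0 := Real.rpow_le_rpow_of_exponent_ge hd hd1 hwR
  have hK0 : 0 ≤ K := by linarith
  -- slot 3 from `i`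
  have g3 : ∀ z mz : Fq4, (∀ k, |coQ mz z k| ≤ K * d ^ R) → |coQ i mz 3| ≤ K * d ^ w0 →
      |coQ i z 3| ≤ 2 * K * d ^ w0 := by
    intro z mz h1 h2
    rw [co3_add i mz z]
    have h3 := abs_add_le (coQ i mz 3) (coQ mz z 3)
    have h4 := h1 3
    have h5 : K * d ^ R ≤ K * d ^ w0 := mul_le_mul_of_nonneg_left hrW hK0
    linarith
  -- moving to the mate
  have gm : ∀ z mz : Fq4, (∀ k, |coQ mz z k| ≤ K * d ^ R) → |coQ i mz 3| ≤ K * d ^ w0 →
      |a * (coQ i mz 2 / d ^ X2) + b * ((coQ i mz 4 + coQ i mz 3 * coQ i mz 2) /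
        d ^ (X2 + w0)) - e| ≤ E1 →
      |a * (coQ i z 2 / d ^ X2) + b * ((coQ i z 4 + coQ i z 3 * coQ i z 2) /
        d ^ (X2 + w0)) - e| ≤ E1 + 4 * K ^ 2 * (d ^ R / d ^ (X2 + w0)) := by
    intro z mz h1 h2 h3
    have h4 := rel_shift i mz z a b (d ^ X2) (d ^ (X2 + w0))
    have h5 := g3 z mz h1 h2
    have c2 := h1 2
    have c4 := h1 4
    have t1 : |a * (coQ mz z 2 / d ^ X2)| ≤ K * (d ^ R / d ^ (X2 + w0)) := by
      rw [abs_mul, abs_div, abs_of_pos hD2]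
      calc |a| * (|coQ mz z 2| / d ^ X2) ≤ 1 * (K * d ^ R / d ^ X2) := by
            refine mul_le_mul ha (div_le_div_of_nonneg_right c2 hD2.le) (by positivity) zero_le_one
        _ = K * (d ^ R / d ^ X2) := by ring
        _ ≤ K * (d ^ R / d ^ (X2 + w0)) := by
            refine mul_le_mul_of_nonneg_left ?_ hK0
            refine div_le_div_of_nonneg_left hr.le (by rw [hD4]; positivity) ?_
            rw [hD4]
            nlinarith
    have t2 : |coQ mz z 4 + coQ mz z 2 * coQ i z 3| ≤ 3 * K ^ 2 * d ^ R := by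
      have s1 := abs_add_le (coQ mz z 4) (coQ mz z 2 * coQ i z 3)
      have s2 : |coQ mz z 2 * coQ i z 3| ≤ (K * d ^ R) * (2 * K * d ^ w0) := by
        rw [abs_mul]; exact mul_le_mul c2 h5 (abs_nonneg _) (by positivity)
      have s3 : (K * d ^ R) * (2 * K * d ^ w0) ≤ (K * d ^ R) * (2 * K * 1) :=
        mul_le_mul_of_nonneg_left (mul_le_mul_of_nonneg_left hW1 (by linarith)) (by positivity)
      have s4 : K * d ^ R ≤ K ^ 2 * d ^ R :=
        mul_le_mul_of_nonneg_right (by nlinarith) hr.le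
      nlinarith
    have t3 : |b * ((coQ mz z 4 + coQ mz z 2 * coQ i z 3) / d ^ (X2 + w0))| ≤
        3 * K ^ 2 * (d ^ R / d ^ (X2 + w0)) := by
      have hp : 0 < d ^ (X2 + w0) := by rw [hD4]; positivity
      rw [abs_mul, abs_div, abs_of_pos hp]
      calc |b| * (|coQ mz z 4 + coQ mz z 2 * coQ i z 3| / d ^ (X2 + w0)) ≤
            1 * (3 * K ^ 2 * d ^ R / d ^ (X2 + w0)) :=
            mul_le_mul hb (div_le_div_of_nonneg_right t2 hp.le) (by positivity) zero_le_one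
        _ = 3 * K ^ 2 * (d ^ R / d ^ (X2 + w0)) := by ring
    have t4 : K * (d ^ R / d ^ (X2 + w0)) ≤ K ^ 2 * (d ^ R / d ^ (X2 + w0)) :=
      mul_le_mul_of_nonneg_right (by nlinarith) (by rw [hD4]; positivity)
    have e1 : a * (coQ i z 2 / d ^ X2) + b * ((coQ i z 4 + coQ i z 3 * coQ i z 2) /
        d ^ (X2 + w0)) - e = (a * (coQ i mz 2 / d ^ X2) + b * ((coQ i mz 4 +
          coQ i mz 3 * coQ i mz 2) / d ^ (X2 + w0)) - e) +
        (a * (coQ mz z 2 / d ^ X2) + b * ((coQ mz z 4 + coQ mz z 2 * coQ i z 3) /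
          d ^ (X2 + w0))) := by
      rw [← h4]; ring
    rw [e1]
    have s5 := abs_add_le (a * (coQ i mz 2 / d ^ X2) + b * ((coQ i mz 4 +
          coQ i mz 3 * coQ i mz 2) / d ^ (X2 + w0)) - e) (a * (coQ mz z 2 / d ^ X2) +
            b * ((coQ mz z 4 + coQ mz z 2 * coQ i z 3) / d ^ (X2 + w0)))
    have s6 := abs_add_le (a * (coQ mz z 2 / d ^ X2))
      (b * ((coQ mz z 4 + coQ mz z 2 * coQ i z 3) / d ^ (X2 + w0)))
    linarith
  have Gx := gm x mx hx h3x hGx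
  have Gy := gm y my hy h3y hGy
  have hφ := g3 x mx hx h3x
  refine ⟨?_, ?_⟩
  · rw [abs_div, abs_of_pos hW, div_le_iff₀ hW]
    exact hφ
  · have h4 := rel_shift i x y a b (d ^ X2) (d ^ (X2 + w0))
    have h5 := co3_add i x y
    have hp : 0 < d ^ (X2 + w0) := by rw [hD4]; positivity
    have e1 : (a + b * (coQ i x 3 / d ^ w0)) * (coQ x y 2 / d ^ X2) +
        b * (coQ x y 4 / d ^ (X2 + w0)) =
        (a * (coQ x y 2 / d ^ X2) + b * ((coQ x y 4 + coQ x y 2 * coQ i y 3) / d ^ (X2 + w0))) -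
          b * (coQ x y 2 * coQ x y 3 / d ^ (X2 + w0)) := by
      rw [h5, hD4]
      field_simp
      ring
    have t1 : |b * (coQ x y 2 * coQ x y 3 / d ^ (X2 + w0))| ≤ d ^ (R - 1) / d ^ (X2 + w0) := by
      rw [abs_mul, abs_div, abs_of_pos hp, abs_mul]
      have s1 : |coQ x y 2| * |coQ x y 3| ≤ 1 * d ^ (R - 1) :=
        mul_le_mul hxy2 hxy3 (abs_nonneg _) zero_le_one
      calc |b| * (|coQ x y 2| * |coQ x y 3| / d ^ (X2 + w0)) ≤
            1 * (1 * d ^ (R - 1) / d ^ (X2 + w0)) :=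
            mul_le_mul hb (div_le_div_of_nonneg_right s1 hp.le) (by positivity) zero_le_one
        _ = d ^ (R - 1) / d ^ (X2 + w0) := by ring
    have t2 : d ^ R / d ^ (X2 + w0) ≤ d ^ (R - 1 - (X2 + w0)) := by
      rw [← Real.rpow_sub hd]
      exact Real.rpow_le_rpow_of_exponent_ge hd hd1 (by linarith)
    have t3 : d ^ (R - 1) / d ^ (X2 + w0) = d ^ (R - 1 - (X2 + w0)) := (Real.rpow_sub hd _ _).symm
    rw [e1, ← h4]
    have s1 := abs_sub ((a * (coQ i y 2 / d ^ X2) + b * ((coQ i y 4 + coQ i y 3 * coQ i y 2) /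
      d ^ (X2 + w0))) - (a * (coQ i x 2 / d ^ X2) + b * ((coQ i x 4 + coQ i x 3 * coQ i x 2) /
      d ^ (X2 + w0)))) (b * (coQ x y 2 * coQ x y 3 / d ^ (X2 + w0)))
    have s2 : |(a * (coQ i y 2 / d ^ X2) + b * ((coQ i y 4 + coQ i y 3 * coQ i y 2) /
      d ^ (X2 + w0))) - (a * (coQ i x 2 / d ^ X2) + b * ((coQ i x 4 + coQ i x 3 * coQ i x 2) /
      d ^ (X2 + w0)))| ≤ 2 * (E1 + 4 * K ^ 2 * (d ^ R / d ^ (X2 + w0))) := by
      rw [abs_le] at Gx Gy ⊢
      constructor <;> linarith [Gx.1, Gx.2, Gy.1, Gy.2]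
    have s3 : 4 * K ^ 2 * (d ^ R / d ^ (X2 + w0)) ≤ 4 * K ^ 2 * d ^ (R - 1 - (X2 + w0)) :=
      mul_le_mul_of_nonneg_left t2 (by positivity)
    rw [t3] at t1
    linarith

end Crest.Agent.R136.ReL344
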