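import Crest.Agent.R136.ReL2_344

/-!
# R136 (S0187), case E: window relation ⊢ same-line relation (helper344), part 3
-/

set_option autoImplicit false
set_option linter.unusedVariables false
set_option linter.unusedSectionVars false

open Finset Filter Topology

namespace Crest.Agent.R136.ReL344

open Crest.Agent.R138.Ex926 (Base U)
open Crest.Agent.R138.Dp76 (dpow_pos dpow_add dpow_le dpow_le_one)
open Crest.Agent.R138.Mk163 (zc zl rho alive)
open Crest.Agent.R138.MkRef627 (lc kc)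
open Crest.Agent.R136.MkA627
open Crest.Agent.R136.Net191
open Crest.Agent.R136.NetQ186
open Crest.Agent.R136.GeoQ186
open Crest.Agent.R136.Wq638
open Crest.Agent.R136.Top484
open Crest.Agent.R136.NatT550
open Crest.Agent.R136.Sh605 (Ln4 V3)

/-- constants -/
noncomputable def Kq : ℝ := cK0 monQ 2
noncomputable def Nq : ℝ := cN monQ 2 (triC monQ 2 Kq)
noncomputable def Wg : ℝ := ∑ k, wg monQ k

theorem Kq_one : 1 ≤ Kq := cK0_one zero_le_two

theorem Nq_pos : 0 < Nq :=
  cN_pos monQ zero_le_two (Kq_one.trans (triC_ge zero_le_two Kq_one))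

theorem Wg_nonneg : 0 ≤ Wg := Finset.sum_nonneg fun k _ => zero_le_one.trans (wg_one monQ k)

open Classical in
/-- number of labels of the mates of one line and cell -/
theorem group_labels {B : Base} {lev : ℕ → ℚ → ℕ} {w : Fin 3 → ℕ → ℚ → ℝ} {w0 R ε₁ : ℝ}
    {F : ℕ → ℕ × ℝ → Fq4} {I : ℕ → Finset (ℕ × ℝ)} {n : ℕ} {u : ℚ} {X o : Fin 11 → ℝ}
    (hR : 0 ≤ R) (hX : X ∈ Leg monQ R) (hε : 0 ≤ ε₁) (hXo : ∀ k, X k ≤ o k) (ho : ∀ k, ε₁ ≤ o k)
    (hown : ∀ x ∈ I n, ∀ y ∈ I n, lc (lev n u) y = lc (lev n u) x → ∀ k,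
      |couQ B lev w w0 F n x y k| ≤ B.d n ^ (o k - ε₁))
    (F' : Finset (ℕ × ℝ)) (hF' : F' ⊆ I n) (μ : ℕ × ℝ → ℕ × ℝ) (hμI : ∀ j ∈ F', μ j ∈ I n)
    (hμ : ∀ j ∈ F', nlab B I (couQ B lev w w0 F) monQ 2 n (fun _ => R) j =
      nlab B I (couQ B lev w w0 F) monQ 2 n (fun _ => R) (μ j)) (j0 : ℕ × ℝ) (hj0 : j0 ∈ F') :
    (((F'.filter fun j' => lc (lev n u) j' = lc (lev n u) j0).image
      fun j' => nlab B I (couQ B lev w w0 F) monQ 2 n X (μ j')).card : ℝ) ≤
      Nq * B.d n ^ (-(Wg * ε₁)) := by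
  have hch : ∀ n, Chart (I n) (couQ B lev w w0 F n) monQ 2 := fun n => chart_couQ n (I n)
  have hd := B.pos n
  have hd1 := (B.lt n).le
  set P : Fin 11 → ℝ := lowp monQ ε₁ X with hP
  have hPL : P ∈ Leg monQ R := lowp_mem hR hε hX
  have hPX : P ≤ X := by
    intro k
    refine max_le ?_ (hX.1.nonneg k)
    have := mul_nonneg (zero_le_one.trans (wg_one monQ k)) hε
    linarith
  have hPo : ∀ k, P k ≤ o k - ε₁ := by
    intro k
    refine max_le ?_ (by linarith [ho k])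
    have h1 := hXo k
    have h2 : ε₁ ≤ wg monQ k * ε₁ := by nlinarith [wg_one monQ k]
    linarith
  have hK := Kq_one
  have hK2 : 1 ≤ triC monQ 2 Kq := hK.trans (triC_ge zero_le_two hK)
  have hmain := card_nlab_le (B := B) hch hPL.1 hX.1 hPX hK2 (hF' hj0)
  have hsum : ∑ s, (X s - P s) ≤ Wg * ε₁ := by
    unfold Wg
    rw [Finset.sum_mul]
    refine Finset.sum_le_sum fun s _ => ?_
    have : X s - wg monQ s * ε₁ ≤ P s := le_max_left _ _
    linarith
  have hpow : B.d n ^ (-(∑ s, (X s - P s))) ≤ B.d n ^ (-(Wg * ε₁)) :=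
    Real.rpow_le_rpow_of_exponent_ge hd hd1 (by linarith)
  have hsub : ((F'.filter fun j' => lc (lev n u) j' = lc (lev n u) j0).image
      fun j' => nlab B I (couQ B lev w w0 F) monQ 2 n X (μ j')) ⊆
      ((I n).filter fun j => Near (couQ B lev w w0 F n) (B.d n) P (triC monQ 2 Kq) j0 j).image
        (nlab B I (couQ B lev w w0 F) monQ 2 n X) := by
    intro c hc
    obtain ⟨j', hj', rfl⟩ := Finset.mem_image.1 hc
    obtain ⟨h1, h2⟩ := Finset.mem_filter.1 hj'
    refine Finset.mem_image.2 ⟨μ j', Finset.mem_filter.2 ⟨hμI j' h1, ?_⟩, rfl⟩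
    have n1 : Near (couQ B lev w w0 F n) (B.d n) P Kq j0 j' := by
      intro k
      have h3 := hown j0 (hF' hj0) j' (hF' h1) h2 k
      have h4 : B.d n ^ (o k - ε₁) ≤ B.d n ^ P k :=
        Real.rpow_le_rpow_of_exponent_ge hd hd1 (hPo k)
      have h5 : B.d n ^ P k ≤ Kq * B.d n ^ P k := by
        have := Real.rpow_pos_of_pos hd (P k)
        nlinarith
      linarith
    have n2 : Near (couQ B lev w w0 F n) (B.d n) P Kq j' (μ j') :=
      (near_of_nlab hch (legal_const hR) (hF' h1) (hμI j' h1) (hμ j' h1)).anti hd hd1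
        (zero_le_one.trans hK) (fun k => hPL.2 k)
    exact (hch n).tri hPL.1 hd hd1 hK (hF' hj0) (hF' h1) (hμI j' h1) n1 n2
  calc (((F'.filter fun j' => lc (lev n u) j' = lc (lev n u) j0).image
      fun j' => nlab B I (couQ B lev w w0 F) monQ 2 n X (μ j')).card : ℝ) ≤
      ((((I n).filter fun j => Near (couQ B lev w w0 F n) (B.d n) P (triC monQ 2 Kq) j0 j).image
        (nlab B I (couQ B lev w w0 F) monQ 2 n X)).card : ℝ) := by
        exact_mod_cast Finset.card_le_card hsub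
    _ ≤ Nq * B.d n ^ (-(∑ s, (X s - P s))) := by
        unfold Nq
        convert hmain
    _ ≤ Nq * B.d n ^ (-(Wg * ε₁)) := mul_le_mul_of_nonneg_left hpow Nq_pos.le

end Crest.Agent.R136.ReL344
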