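import Mathlib
import Crest.Agent.R136.Ut2_627
import Crest.Agent.R136.TD5_627

/-!
# R136, U6 thick side (helper627): output of the second zoom for the flags of planks

`OutF` : one structure with everything the consumers of the second zoom need; `outF` : existence.
-/

set_option autoImplicit false
set_option linter.unusedVariables false
set_option linter.unusedSectionVars false

open Finset Filter Topology

namespace Crest.Agent.R136.Ut627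

open Crest.Agent.R138.Ex926 (Base U)
open Crest.Agent.R138.Dp76
open Crest.Agent.R138.Mk163 (zc zl rho alive own Negl)
open Crest.Agent.R136.MkA627
open Crest.Agent.R136.TD627

/-- trichotomy of one slot -/
def SlotT {m : ℕ} {φ : Type*} (P : TDist φ m) (β : Fin m → ℝ) (B : Base)
    (I : ℕ → Finset (ℕ × ℝ)) (lev : ℕ → ℚ → ℕ) (fl : ℕ → ℕ × ℝ → φ) (sc : Fin m → ℕ → ℝ)
    (C0 : Fin m → ℝ) (j : Fin m) : Prop :=
  InvT P B I j fl (sc j) ∨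
    (0 < β j ∧ RotT P B I lev j fl (sc j) (C0 j) (fun u => β j * u)) ∨
    (0 < β j ∧ ∃ a ∈ P.M.mon j, ∑ t, (a t : ℝ) * β t = β j ∧
      ∀ t, a t ≠ 0 → ¬ InvT P B I t fl (sc t))

/-- capped slot of a plank: the slot `F_a`, with `E` and `F_b` visible -/
theorem SlotT.planks {θ : Fin 3 → ℝ} {B : Base} {I : ℕ → Finset (ℕ × ℝ)} {lev : ℕ → ℚ → ℕ}
    {fl : ℕ → ℕ × ℝ → Fin 3 → ℝ} {sc : Fin 3 → ℕ → ℝ} {C0 : Fin 3 → ℝ} {j : Fin 3}
    (h : SlotT tdF (btF θ) B I lev fl sc C0 j) :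
    InvT tdF B I j fl (sc j) ∨
      (0 < btF θ j ∧ RotT tdF B I lev j fl (sc j) (C0 j) (fun u => btF θ j * u)) ∨
      (j = 2 ∧ 0 < btF θ 2 ∧ ¬ InvT tdF B I 0 fl (sc 0) ∧ ¬ InvT tdF B I 1 fl (sc 1)) := by
  rcases h with h | h | ⟨h0, a, ha, -, h1⟩
  · exact Or.inl h
  · exact Or.inr (Or.inl h)
  · obtain ⟨rfl, rfl⟩ := mem_monF (show a ∈ monF.mon j from ha)
    exact Or.inr (Or.inr ⟨rfl, h0, h1 0 (by simp), h1 1 (by simp)⟩)

/-- **output of the second zoom for the flags of planks**: `H n` = length of the window, `mm n` =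
level map, `B' I' A' sc'` = base, incidences, amplitude, scales of the window. -/
structure OutF {σ : Type*} (Q : ℕ → ℕ → ℚ → ℝ → Prop) (G : Geo σ (Fin 3)) (g s : ℝ) (θ : Fin 3 → ℝ)
    (B : Base) (I : ℕ → Finset (ℕ × ℝ)) (lev : ℕ → ℚ → ℕ) (f : ℕ → ℚ → ℕ → ℤ → ℕ)
    (b : ℕ → ℚ → ℕ → σ) (vm : ℕ → ℚ → ℝ) (w : Fin 3 → ℕ → ℚ → ℝ)
    (sn : ℕ → ℚ → ℕ × ℝ → Fin 3 → ℝ) (fl : ℕ → ℕ × ℝ → Fin 3 → ℝ)
    (H : ℕ → ℝ) (mm : ℕ → ℚ → ℚ) (B' : Base) (I' : ℕ → Finset (ℕ × ℝ)) (A' : ℕ → ℝ)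
    (sc' : Fin 3 → ℕ → ℝ) : Prop where
  H01 : ∀ n, 0 < H n ∧ H n ≤ 1
  mm01 : ∀ n, ∀ x : ℚ, 0 ≤ x → x ≤ 1 → 0 ≤ mm n x ∧ mm n x ≤ 1
  mmq : ∀ n, ∀ x y : ℚ, (mm n y : ℝ) - mm n x = H n * ((y : ℝ) - x)
  Bd : ∀ n, B'.d n = B.d n ^ H n
  sub : ∀ᶠ n in (U : Filter ℕ), I' n ⊆ I n
  carry : CarryH fun i n v δ => Q i n (mm n v) (H n * δ)
  sys : TSys tdF G g s θ (btF θ) B' I' (fun n x => lev n (mm n x)) A' (fun n x => f n (mm n x))
    (fun n x => b n (mm n x)) (fun n x => vm n (mm n x)) (fun j n x => w j n (mm n x))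
    (fun n x => sn n (mm n x)) (prF fun j n x => w j n (mm n x)) fl sc'
  slot : ∀ j, SlotT tdF (btF θ) B' I' (fun n x => lev n (mm n x)) fl sc'
    (fun j => |btF θ j| + 1) j

section

variable {σ : Type*} {Q : ℕ → ℕ → ℚ → ℝ → Prop} {G : Geo σ (Fin 3)} {g s : ℝ} {θ : Fin 3 → ℝ}
    {B : Base} {I : ℕ → Finset (ℕ × ℝ)} {lev : ℕ → ℚ → ℕ} {A : ℕ → ℝ}
    {f : ℕ → ℚ → ℕ → ℤ → ℕ} {b : ℕ → ℚ → ℕ → σ} {vm : ℕ → ℚ → ℝ} {w : Fin 3 → ℕ → ℚ → ℝ}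
    {sn : ℕ → ℚ → ℕ × ℝ → Fin 3 → ℝ}

/-- **second zoom for the flags of planks, with carried properties.** -/
theorem outF {C : ℝ} (hC : 0 ≤ C)
    (hM : MkA B I G lev A (fun v => g * v) (fun v => s * v) (fun j v => θ j * (1 - v)) f b vm w)
    (hsn : SnCell I lev sn) (hT : ∀ j, TiltT tdF B I sn (prF w) j C) (hQ : CarryH Q) :
    ∃ (H : ℕ → ℝ) (mm : ℕ → ℚ → ℚ) (B' : Base) (I' : ℕ → Finset (ℕ × ℝ)) (A' : ℕ → ℝ)
      (sc' : Fin 3 → ℕ → ℝ),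
      OutF Q G g s θ B I lev f b vm w sn (flF θ sn) H mm B' I' A' sc' := by
  obtain ⟨J, hJI, hJd, hS, hI⟩ := tsysF hC hM hsn hT
  obtain ⟨H, mm, B', I', A', sc', h1, h2, h3, h4, h5, h6, h7, h8, h9⟩ :=
    NatTQ.mono (Eventually.of_forall hJI) (hS.natTQ hQ hI (C0 := fun j => |btF θ j| + 1) fun j => by
      have := le_abs_self (btF θ j)
      linarith)
  exact ⟨H, mm, B', I', A', sc', h1, h2, h3, h4, h5, h6, h7, h9⟩

/-- the same from the tilt everywhere -/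
theorem tiltT_of_tiltE {C : ℝ} {c Λ : ℝ → ℝ} {τ : Fin 3 → ℝ → ℝ}
    (hM : MkA B I G lev A c Λ τ f b vm w) {j : Fin 3} (hT : TiltE tdF B I sn (prF w) j C) :
    TiltT tdF B I sn (prF w) j C := by
  intro u v h0 huv h1 ε hε
  refine Negl.false.mono ?_
  filter_upwards [hT u v h0 huv h1 (ε / 2) (by positivity),
    wpos_all hM h0 (huv.le.trans h1)] with n a1 a2 x hx hcon
  have hp : 0 < prF w j n u := by
    fin_cases j
    · exact div_pos (a2 2) (a2 1)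
    · exact div_pos (a2 0) (a2 2)
    · exact div_pos (a2 0) (a2 1)
  have hM0 : 0 < max (prF w j n u) (prF w j n v) := hp.trans_le (le_max_left _ _)
  have h2 := hcon.trans (a1 x hx)
  have h3 := le_of_mul_le_mul_left h2 hM0
  have h4 : B.d n ^ (-(C * ((v : ℝ) - u)) - ε / 2) < B.d n ^ (-(C * ((v : ℝ) - u)) - ε) := by
    refine Real.rpow_lt_rpow_of_exponent_gt (B.pos n) (B.lt n) (by linarith)
  exact absurd h3 (not_le.2 h4)

end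

section out

variable {σ : Type*} {Q : ℕ → ℕ → ℚ → ℝ → Prop} {G : Geo σ (Fin 3)} {g s : ℝ} {θ : Fin 3 → ℝ}
    {B : Base} {I : ℕ → Finset (ℕ × ℝ)} {lev : ℕ → ℚ → ℕ} {A : ℕ → ℝ}
    {f : ℕ → ℚ → ℕ → ℤ → ℕ} {b : ℕ → ℚ → ℕ → σ} {vm : ℕ → ℚ → ℝ} {w : Fin 3 → ℕ → ℚ → ℝ}
    {sn : ℕ → ℚ → ℕ × ℝ → Fin 3 → ℝ} {fl : ℕ → ℕ × ℝ → Fin 3 → ℝ} {sc : Fin 3 → ℕ → ℝ}

/-- closeness in the frame of the composite flag -/
theorem close_fl (h : TSys tdF G g s θ (btF θ) B I lev A f b vm w sn (prF w) fl sc)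
    {v : ℚ} (h0 : 0 ≤ v) (h1 : v ≤ 1) {ε : ℝ} (hε : 0 < ε) : ∀ᶠ n in (U : Filter ℕ), ∀ x ∈ I n,
      |sn n v x 0 - fl n x 0| ≤ w 2 n v / w 1 n v * B.d n ^ (-ε) ∧
      |sn n v x 1 - fl n x 1| ≤ w 0 n v / w 2 n v * B.d n ^ (-ε) ∧
      |(sn n v x 2 - fl n x 2) + fl n x 0 * (sn n v x 1 - fl n x 1)| ≤
        w 0 n v / w 1 n v * B.d n ^ (-ε) := by
  filter_upwards [h.close 0 v h0 h1 ε hε, h.close 1 v h0 h1 ε hε, h.close 2 v h0 h1 ε hε]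
    with n a0 a1 a2 x hx
  exact ⟨a0 x hx, a1 x hx, a2 x hx⟩

/-- closeness in the frame of the mark -/
theorem close_sn (h : TSys tdF G g s θ (btF θ) B I lev A f b vm w sn (prF w) fl sc)
    {v : ℚ} (h0 : 0 ≤ v) (h1 : v ≤ 1) {ε : ℝ} (hε : 0 < ε) : ∀ᶠ n in (U : Filter ℕ), ∀ x ∈ I n,
      |fl n x 0 - sn n v x 0| ≤ w 2 n v / w 1 n v * B.d n ^ (-ε) ∧
      |fl n x 1 - sn n v x 1| ≤ w 0 n v / w 2 n v * B.d n ^ (-ε) ∧
      |(fl n x 2 - sn n v x 2) + sn n v x 0 * (fl n x 1 - sn n v x 1)| ≤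
        w 0 n v / w 1 n v * B.d n ^ (-ε) := by
  filter_upwards [close_fl h h0 h1 hε, close_fl h h0 h1 (ε := ε / 4) (by positivity),
    wpos_all h.mka h0 h1, ev_const B (C := (2 : ℝ)) (ε := ε / 4) (by norm_num) (by positivity)]
    with n a1 a2 a3 a4 x hx
  obtain ⟨b0, b1, b2⟩ := a1 x hx
  obtain ⟨c0, c1, c2⟩ := a2 x hx
  refine ⟨by rwa [abs_sub_comm], by rwa [abs_sub_comm], ?_⟩
  have e1 : fl n x 2 - sn n v x 2 + sn n v x 0 * (fl n x 1 - sn n v x 1) =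
      -((sn n v x 2 - fl n x 2) + fl n x 0 * (sn n v x 1 - fl n x 1)) +
        -((sn n v x 0 - fl n x 0) * (sn n v x 1 - fl n x 1)) := by ring
  rw [e1]
  refine (abs_add_le _ _).trans ?_
  rw [abs_neg, abs_neg, abs_mul]
  have p0 : 0 < w 2 n v / w 1 n v := div_pos (a3 2) (a3 1)
  have p2 : 0 < w 0 n v / w 1 n v := div_pos (a3 0) (a3 1)
  have hmul : w 2 n v / w 1 n v * (w 0 n v / w 2 n v) = w 0 n v / w 1 n v := by
    have := a3 1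
    have := a3 2
    field_simp
  have hprod : |sn n v x 0 - fl n x 0| * |sn n v x 1 - fl n x 1| ≤
      w 0 n v / w 1 n v * B.d n ^ (-(ε / 2)) := by
    calc |sn n v x 0 - fl n x 0| * |sn n v x 1 - fl n x 1|
        ≤ (w 2 n v / w 1 n v * B.d n ^ (-(ε / 4))) * (w 0 n v / w 2 n v * B.d n ^ (-(ε / 4))) :=
          mul_le_mul c0 c1 (abs_nonneg _) (mul_pos p0 (dpow_pos B n _)).le
      _ = (w 2 n v / w 1 n v * (w 0 n v / w 2 n v)) * (B.d n ^ (-(ε / 4)) * B.d n ^ (-(ε / 4))) := by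
          ring
      _ = _ := by
          rw [hmul, ← dpow_add]
          congr 2
          ring
  have h4 := a4 (w 0 n v / w 1 n v) (-ε) p2.le
  have h5 : w 0 n v / w 1 n v * B.d n ^ (-(ε / 4)) ≤ w 0 n v / w 1 n v * B.d n ^ (-ε + ε / 4) :=
    mul_le_mul_of_nonneg_left (dpow_le B n (by linarith)) p2.le
  have h6 : w 0 n v / w 1 n v * B.d n ^ (-(ε / 2)) ≤ w 0 n v / w 1 n v * B.d n ^ (-ε + ε / 4) :=
    mul_le_mul_of_nonneg_left (dpow_le B n (by linarith)) p2.le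
  linarith

end out

end Crest.Agent.R136.Ut627
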