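import Mathlib
import Crest.Agent.R136.Ut4_627

/-!
# R136, U6 thick side (helper627): visible and tied slots of the flags of planks

`visF` : if `E` and `F_b` are tied, then `F_a` is visible; `slotOk3` : summary.
-/

set_option autoImplicit false
set_option linter.unusedVariables false
set_option linter.unusedSectionVars false

open Finset Filter Topology

namespace Crest.Agent.R136.Ut627

open Crest.Agent.R138.Ex926 (Base U)
open Crest.Agent.R138.Dp76
open Crest.Agent.R138.Ps926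
open Crest.Agent.R138.Mk163 (zc zl rho alive own Negl)
open Crest.Agent.R136.MkA627
open Crest.Agent.R136.TD627
open Crest.Agent.R136.Slt627 (own_pos card_fibre)

variable {σ : Type*} {G : Geo σ (Fin 3)} {g s : ℝ} {θ : Fin 3 → ℝ}
    {B : Base} {I : ℕ → Finset (ℕ × ℝ)} {lev : ℕ → ℚ → ℕ} {A : ℕ → ℝ}
    {f : ℕ → ℚ → ℕ → ℤ → ℕ} {b : ℕ → ℚ → ℕ → σ} {vm : ℕ → ℚ → ℝ} {w : Fin 3 → ℕ → ℚ → ℝ}
    {sn : ℕ → ℚ → ℕ × ℝ → Fin 3 → ℝ} {fl : ℕ → ℕ × ℝ → Fin 3 → ℝ} {sc : Fin 3 → ℕ → ℝ}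

open Classical in
/-- a tied slot rotates: some incidence of the line is far -/
theorem exists_far {j : Fin 3} {C0 : ℝ}
    (hM : MkA B I G lev A (fun v => g * v) (fun v => s * v) (fun j v => θ j * (1 - v)) f b vm w)
    (hR : RotT tdF B I lev j fl (sc j) C0 (fun u => btF θ j * u)) {r : ℝ} (hr : 0 < r)
    (hrC : r ≤ C0) : ∀ᶠ n in (U : Filter ℕ), ∀ x ∈ I n, ∃ y ∈ I n, y.1 = x.1 ∧
      sc j n * B.d n ^ r < |coF (fl n x) (fl n y) j| := by
  obtain ⟨γ, hγ, h1⟩ := hR.tw 0 le_rfl one_pos r (by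
    show btF θ j * ((0 : ℚ) : ℝ) < r
    push_cast; rw [mul_zero]; exact hr) hrC
  filter_upwards [h1, dpow_small B hγ (ε := 1) one_pos, card_fibre hM] with n a1 a2 a3 x hx
  by_contra hcon
  push Not at hcon
  have b1 := a1 x hx
  have e1 : ((I n).filter fun y => y.1 = x.1 ∧ zc (lev n 0) y.2 = zc (lev n 0) x.2 ∧
      tdF.d j n (fl n x) (fl n y) ≤ sc j n * B.d n ^ r) =
      (I n).filter fun y => y.1 = x.1 ∧ zc (lev n 0) y.2 = zc (lev n 0) x.2 := by
    refine filter_congr fun y hy => ⟨fun hh => ⟨hh.1, hh.2.1⟩, fun hh => ⟨hh.1, hh.2, ?_⟩⟩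
    exact hcon y hy hh.1
  rw [e1, a3 x hx 0] at b1
  have hp : (0 : ℝ) < ((own (I n) (lev n 0) (lev n 1) x).card : ℝ) := by
    exact_mod_cast own_pos hx
  have b2 := mul_lt_mul_of_pos_right a2 hp
  linarith

/-- **if `E` and `F_b` are tied, then `F_a` is visible.** -/
theorem visF (hS : TSys tdF G g s θ (btF θ) B I lev A f b vm w sn (prF w) fl sc) {C0 : Fin 3 → ℝ}
    (hC0 : 0 < C0 0) (hC1 : 0 < C0 1)
    (h0 : RotT tdF B I lev 0 fl (sc 0) (C0 0) (fun u => btF θ 0 * u))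
    (h1 : RotT tdF B I lev 1 fl (sc 1) (C0 1) (fun u => btF θ 1 * u)) :
    ¬ InvT tdF B I 2 fl (sc 2) := by
  intro hI
  set r : ℝ := min (C0 0) (C0 1) with hr
  have hr0 : 0 < r := lt_min hC0 hC1
  have hfalse : ∀ᶠ n in (U : Filter ℕ), False := by
    filter_upwards [exists_far hS.mka h0 hr0 (min_le_left _ _),
      exists_far hS.mka h1 hr0 (min_le_right _ _), hI (2 * r + 3 + 1), hS.mka.ne,
      hS.pr_le 0 le_rfl zero_le_one one_pos, hS.pr_le 1 le_rfl zero_le_one one_pos,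
      hS.pr_le 2 le_rfl zero_le_one one_pos, wpos_all hS.mka le_rfl zero_le_one,
      dpow_small B (c := 1) one_pos (ε := 1 / 3) (by norm_num)] with n a0 a1 a2 a3 p0 p1 p2 a4 a5
    obtain ⟨x, hx⟩ := a3
    obtain ⟨y, hy, hyx, hE⟩ := a0 x hx
    obtain ⟨z, hz, hzy, hF⟩ := a1 y hy
    have c1 := a2 x hx y hy hyx
    have c2 := a2 y hy z hz hzy
    have c3 := a2 x hx z hz (hzy.trans hyx)
    rw [tdF_d] at c1 c2 c3
    have e1 : coF (fl n x) (fl n y) 0 * coF (fl n y) (fl n z) 1 =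
        coF (fl n x) (fl n y) 2 + coF (fl n y) (fl n z) 2 - coF (fl n x) (fl n z) 2 := by
      simp only [coF_zero, coF_one, coF_two]; ring
    have s0 := hS.scpos 0 n
    have s1 := hS.scpos 1 n
    have s2 := hS.scpos 2 n
    have hmul := prF_mul a4
    simp only [Rat.cast_zero, mul_zero, zero_sub, zero_add] at p0 p1 p2
    -- `sc₂ d³ ≤ sc₀ sc₁`
    have q2 : sc 2 n * B.d n ^ (3 : ℝ) ≤ sc 0 n * sc 1 n := by
      have t0 : 0 < prF w 0 n 0 := div_pos (a4 2) (a4 1)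
      have t1 : 0 < prF w 1 n 0 := div_pos (a4 0) (a4 2)
      have u1 : prF w 0 n 0 * prF w 1 n 0 ≤
          (sc 0 n * B.d n ^ (-(1 : ℝ))) * (sc 1 n * B.d n ^ (-(1 : ℝ))) :=
        mul_le_mul p0.1 p1.1 t1.le (mul_pos s0 (dpow_pos B n _)).le
      rw [hmul] at u1
      have u2 := p2.2.trans u1
      have u3 := mul_le_mul_of_nonneg_right u2 (dpow_pos B n (2 : ℝ)).le
      calc sc 2 n * B.d n ^ (3 : ℝ) = sc 2 n * B.d n ^ (1 : ℝ) * B.d n ^ (2 : ℝ) := by
            rw [mul_assoc, ← dpow_add]; norm_num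
        _ ≤ _ := u3
        _ = sc 0 n * sc 1 n * (B.d n ^ (-(1 : ℝ)) * B.d n ^ (-(1 : ℝ)) * B.d n ^ (2 : ℝ)) := by ring
        _ = sc 0 n * sc 1 n := by
            rw [← dpow_add, ← dpow_add]; norm_num
    have hlow : sc 2 n * B.d n ^ (2 * r + 3) < |coF (fl n x) (fl n y) 0| *
        |coF (fl n y) (fl n z) 1| := by
      have v1 : sc 0 n * B.d n ^ r * (sc 1 n * B.d n ^ r) <
          |coF (fl n x) (fl n y) 0| * |coF (fl n y) (fl n z) 1| :=
        mul_lt_mul'' hE hF (mul_pos s0 (dpow_pos B n _)).le (mul_pos s1 (dpow_pos B n _)).le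
      refine lt_of_le_of_lt ?_ v1
      calc sc 2 n * B.d n ^ (2 * r + 3) = (sc 2 n * B.d n ^ (3 : ℝ)) * B.d n ^ (2 * r) := by
            rw [mul_assoc, ← dpow_add]; ring_nf
        _ ≤ (sc 0 n * sc 1 n) * B.d n ^ (2 * r) :=
            mul_le_mul_of_nonneg_right q2 (dpow_pos B n _).le
        _ = sc 0 n * B.d n ^ r * (sc 1 n * B.d n ^ r) := by
            have : B.d n ^ (2 * r) = B.d n ^ r * B.d n ^ r := by
              rw [← dpow_add]; congr 1; ring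
            rw [this]; ring
    have hup : |coF (fl n x) (fl n y) 0| * |coF (fl n y) (fl n z) 1| ≤
        3 * (sc 2 n * B.d n ^ (2 * r + 3 + 1)) := by
      rw [← abs_mul, e1]
      have k1 := abs_sub (coF (fl n x) (fl n y) 2 + coF (fl n y) (fl n z) 2)
        (coF (fl n x) (fl n z) 2)
      have k2 := abs_add_le (coF (fl n x) (fl n y) 2) (coF (fl n y) (fl n z) 2)
      linarith
    have h3 : 3 * (sc 2 n * B.d n ^ (2 * r + 3 + 1)) ≤ sc 2 n * B.d n ^ (2 * r + 3) := by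
      rw [dpow_add B n (2 * r + 3) 1]
      have hd := dpow_pos B n (2 * r + 3)
      have : 3 * B.d n ^ (1 : ℝ) ≤ 1 := by linarith
      calc 3 * (sc 2 n * (B.d n ^ (2 * r + 3) * B.d n ^ (1 : ℝ)))
          = (sc 2 n * B.d n ^ (2 * r + 3)) * (3 * B.d n ^ (1 : ℝ)) := by ring
        _ ≤ (sc 2 n * B.d n ^ (2 * r + 3)) * 1 :=
            mul_le_mul_of_nonneg_left this (mul_pos s2 hd).le
        _ = _ := mul_one _
    linarith
  obtain ⟨n, hn⟩ := hfalse.exists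
  exact hn

/-- `V j` : the slot `j` is visible -/
def Vis (B : Base) (I : ℕ → Finset (ℕ × ℝ)) (fl : ℕ → ℕ × ℝ → Fin 3 → ℝ) (sc : Fin 3 → ℕ → ℝ)
    (j : Fin 3) : Prop := ¬ InvT tdF B I j fl (sc j)

/-- `T j` : the slot `j` is visible and not capped -/
def Tie (B : Base) (I : ℕ → Finset (ℕ × ℝ)) (fl : ℕ → ℕ × ℝ → Fin 3 → ℝ) (sc : Fin 3 → ℕ → ℝ)
    (j : Fin 3) : Prop :=
  Vis B I fl sc j ∧ (j = 2 → ¬ (Vis B I fl sc 0 ∧ Vis B I fl sc 1))

/-- **summary of the slots of planks.** -/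
theorem slotOk3 (hS : TSys tdF G g s θ (btF θ) B I lev A f b vm w sn (prF w) fl sc)
    (hT : ∀ j, SlotT tdF (btF θ) B I lev fl sc (fun j => |btF θ j| + 1) j) :
    (∀ j, Vis B I fl sc j → 0 < btF θ j) ∧
    (∀ j, Tie B I fl sc j →
      RotT tdF B I lev j fl (sc j) (|btF θ j| + 1) (fun u => btF θ j * u)) ∧
    (∀ j, Vis B I fl sc j → ¬ Tie B I fl sc j → j = 2 ∧ Vis B I fl sc 0 ∧ Vis B I fl sc 1) ∧
    (Vis B I fl sc 0 → Vis B I fl sc 1 → Vis B I fl sc 2 ∧ ¬ Tie B I fl sc 2) := by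
  have hrot : ∀ j, Tie B I fl sc j →
      RotT tdF B I lev j fl (sc j) (|btF θ j| + 1) (fun u => btF θ j * u) := by
    intro j hj
    rcases (hT j).planks with h | h | h
    · exact absurd h hj.1
    · exact h.2
    · exact absurd ⟨h.2.2.1, h.2.2.2⟩ (hj.2 h.1)
  refine ⟨fun j hj => ?_, hrot, fun j hj hjT => ?_, fun h0 h1 => ⟨?_, fun h => h.2 rfl ⟨h0, h1⟩⟩⟩
  · rcases hT j with h | h | h
    · exact absurd h hj
    · exact h.1
    · exact h.1
  · by_contra hcon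
    apply hjT
    refine ⟨hj, fun hj2 hV => hcon ⟨hj2, hV.1, hV.2⟩⟩
  · exact visF hS (C0 := fun j => |btF θ j| + 1) (by positivity) (by positivity)
      (hrot 0 ⟨h0, fun h => absurd h (by decide)⟩) (hrot 1 ⟨h1, fun h => absurd h (by decide)⟩)

end Crest.Agent.R136.Ut627
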