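import Crest.Agent.R136.Ut4_262
import Crest.Agent.R136.Ut5_627
import Crest.Agent.R136.Wq8_638

/-!
# R136 (S0187), U6 thick side (helper262), part 4: slopes of the marks, final assembly

`snD` : clipped slopes of the marks; `tiltE_snD`, `snCell_snD` : inputs of 627's `outF`;
`thickPre_of_flat` : linear marked sequence with flat marks and flat tilt ⊢ `ThickPre`.
-/

set_option autoImplicit false
set_option linter.unusedVariables false
set_option linter.unusedSectionVars false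

open Finset Filter Topology

namespace Crest.Agent.R136.Ut262

open Crest.Agent.R138.Ex926 (Base U)
open Crest.Agent.R138.Dp76
open Crest.Agent.R138.Mk163 (zc zl rho alive own Negl)
open Crest.Agent.R138.MkRef627 (kc)
open Crest.Agent.R136.MkA627 Crest.Agent.R136.Sh605 Crest.Agent.R136.K4 Crest.Agent.R136.Top484
open Crest.Agent.R136.GeoQ186 (fr fr_adm fr_ortho sA sB sE sA_fr sB_fr sE_fr Adm cLn fpv pv)
open Crest.Agent.R136.Ut627 (prF prF_zero prF_one prF_two prLinF wpos_all btF tdF tdF_d coF coF_zero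
  coF_one coF_two SnCell flF tiltT_of_tiltE OutF outF close_sn)
open Crest.Agent.R136.TD627 (TiltE TiltT CarryH ev_const)
open Crest.Agent.R136.NatT550 (ParOk SlotOk ThickPre)
open Crest.Agent.R136.Wq638 (thickPre_of)

/-! ### everything up to the second zoom -/

/-- **rotated window**: the relevant axes of all marks are near the standard ones -/
theorem exists_mkN {p : Par4} {D : Dat4}
    (hM : MkA D.B D.I (D.G p) D.lev D.A (fun v => p.g * v) (fun v => 0 * v)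
      (fun j v => p.θ j * (1 - v)) D.f D.b D.vm D.w) (hF : FlatMk D) (hT : TiltF D)
    (hR : Rng D.B D.wr D.cr D.w) :
    ∃ (D' : Dat4) (C c : ℝ) (dE dB : Prop), 0 ≤ C ∧ MkW p D' C c dE dB ∧
      ∀ v : ℚ, 0 ≤ v → v ≤ 1 → ∀ᶠ n in (U : Filter ℕ), ∀ x ∈ D'.I n,
        Nst dE dB (1 / 5) (mkS D' n v x).e := by
  obtain ⟨C, J, hC, -, -, h1⟩ := exists_mkF hM hF hT hR
  obtain ⟨B', I', A', c, dE, dB, -, -, h2⟩ := exists_mkW h1
  obtain ⟨R, J', -, -, -, h3, h4⟩ := exists_rot h2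
  exact ⟨_, C, c, dE, dB, hC, h3, fun v h0 hv => h3.chain hC h4 h0 hv⟩

/-! ### slopes of the marks -/

/-- clipped slope -/
noncomputable def cl (y : ℝ) : ℝ := if |y| ≤ 2 / 5 then y else 0

theorem cl_abs (y : ℝ) : |cl y| ≤ 2 / 5 := by
  unfold cl
  split_ifs with h
  · exact h
  · rw [abs_zero]; norm_num

theorem cl_of {y : ℝ} (h : |y| ≤ 2 / 5) : cl y = y := if_pos h

/-- clipped slopes `(e, fb, fa)` of a frame -/
noncomputable def slF (dE dB : Prop) (F : Fin 3 → V3) : Fin 3 → ℝ :=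
  ![cl (slE dE dB F), cl (slB dE dB F), cl (slA dE dB F)]

theorem slF_abs (dE dB : Prop) (F : Fin 3 → V3) (j : Fin 3) : |slF dE dB F j| ≤ 2 / 5 := by
  fin_cases j <;> exact cl_abs _

/-- slopes of the marks -/
noncomputable def snD (D : Dat4) (dE dB : Prop) (n : ℕ) (v : ℚ) (x : ℕ × ℝ) : Fin 3 → ℝ :=
  slF dE dB (mkS D n v x).e

theorem slF_of {dE dB : Prop} {F : Fin 3 → V3} (h : Nst dE dB (1 / 5) F) :
    slF dE dB F = ![slE dE dB F, slB dE dB F, slA dE dB F] := by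
  obtain ⟨a, b, c⟩ := h.small (by norm_num) (by norm_num)
  unfold slF
  rw [cl_of (by linarith), cl_of (by linarith), cl_of (by linarith)]

theorem snCell_snD (D : Dat4) (dE dB : Prop) : SnCell D.I D.lev (snD D dE dB) := by
  intro v h0 h1
  refine Eventually.of_forall fun n x hx y hy hxy hz => ?_
  unfold snD mkS
  rw [hxy, hz]

section

variable {p : Par4} {D : Dat4} {C c : ℝ} {dE dB : Prop}

/-- degenerate slots -/
theorem MkW.deg (h : MkW p D C c dE dB) {v : ℚ} (h0 : 0 ≤ v) (h1 : v ≤ 1) {δ : ℝ} (hδ : 0 < δ) :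
    ∀ᶠ n in (U : Filter ℕ), (dE → D.w 1 n v ≤ D.w 2 n v * D.B.d n ^ (-δ)) ∧
      (dB → D.w 2 n v ≤ D.w 0 n v * D.B.d n ^ (-δ)) := by
  have hE : ∀ᶠ n in (U : Filter ℕ), dE → D.w 1 n v ≤ D.w 2 n v * D.B.d n ^ (-δ) := by
    by_cases hd : dE
    · filter_upwards [h.E1 hd v h0 h1 δ hδ, wpos_all h.mka h0 h1] with n a1 a2 _
      rw [prF_zero, le_div_iff₀ (a2 1)] at a1
      have p1 := dpow_pos D.B n δ
      rw [Real.rpow_neg (D.B.pos n).le, ← div_eq_mul_inv, le_div_iff₀ p1]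
      linarith
    · exact Eventually.of_forall fun n hn => absurd hn hd
  have hB : ∀ᶠ n in (U : Filter ℕ), dB → D.w 2 n v ≤ D.w 0 n v * D.B.d n ^ (-δ) := by
    by_cases hd : dB
    · filter_upwards [h.B1 hd v h0 h1 δ hδ, wpos_all h.mka h0 h1] with n a1 a2 _
      rw [prF_one, le_div_iff₀ (a2 2)] at a1
      have p1 := dpow_pos D.B n δ
      rw [Real.rpow_neg (D.B.pos n).le, ← div_eq_mul_inv, le_div_iff₀ p1]
      linarith
    · exact Eventually.of_forall fun n hn => absurd hn hd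
  exact hE.and hB

/-- comparison of the precisions of degenerate slots -/
theorem prF_deg {w : Fin 3 → ℕ → ℚ → ℝ} {n : ℕ} {v : ℚ} {K : ℝ} (h : ∀ k, 0 < w k n v) :
    (w 1 n v ≤ w 2 n v * K → prF w 1 n v ≤ K * prF w 2 n v) ∧
      (w 2 n v ≤ w 0 n v * K → prF w 0 n v ≤ K * prF w 2 n v) := by
  rw [prF_zero, prF_one, prF_two]
  have p0 := h 0
  have p1 := h 1
  have p2 := h 2
  constructor
  · intro h1
    rw [div_le_iff₀ p2]
    have e1 : K * (w 0 n v / w 1 n v) * w 2 n v = w 0 n v * (w 2 n v * K) / w 1 n v := by ring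
    rw [e1, le_div_iff₀ p1]
    exact mul_le_mul_of_nonneg_left h1 p0.le
  · intro h1
    rw [← mul_div_assoc]
    exact div_le_div_of_nonneg_right (by linarith) p1.le

/-- **tilt of the slopes** -/
theorem tiltE_snD (h : MkW p D C c dE dB)
    (hN : ∀ v : ℚ, 0 ≤ v → v ≤ 1 → ∀ᶠ n in (U : Filter ℕ), ∀ x ∈ D.I n,
      Nst dE dB (1 / 5) (mkS D n v x).e) (j : Fin 3) :
    TiltE tdF D.B D.I (snD D dE dB) (prF D.w) j C := by
  intro u v h0 huv h1 ε hε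
  have hu1 := huv.le.trans h1
  have hv0 := h0.trans huv.le
  filter_upwards [h.tilt u v h0 huv h1 (ε / 4) (by positivity), hN u h0 hu1, hN v hv0 h1,
    h.deg h0 hu1 (show 0 < ε / 4 by positivity), h.deg hv0 h1 (show 0 < ε / 4 by positivity),
    wpos_all h.mka h0 hu1, wpos_all h.mka hv0 h1, ord4 h.mka h0 hu1, ord4 h.mka hv0 h1,
    ev_const D.B (C := (16 : ℝ)) (ε := ε / 2) (by norm_num) (by positivity)]
    with n a1 a2 a3 a4 a5 a6 a7 a8 a9 a10 x hx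
  obtain ⟨⟨t1, t2⟩, ⟨t3, t4⟩, ⟨t5, t6⟩⟩ := a1 x hx
  have Nu := a2 x hx
  have Nv := a3 x hx
  set K : ℝ := D.B.d n ^ (-(ε / 4)) with hK
  have hK1 : 1 ≤ K := by
    have := dpow_le D.B n (show -(ε / 4) ≤ 0 by linarith)
    rwa [Real.rpow_zero] at this
  have hK0 : 0 ≤ K := by linarith
  obtain ⟨q0, q1, q2⟩ := tb_le (C := C) (ε := ε / 4) a6 a7 a8 a9
  have hmx : ∀ i : Fin 3, prF D.w i n u ≤ K * prF D.w 2 n u → prF D.w i n v ≤ K * prF D.w 2 n v →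
      tb D C u v (ε / 4) n i ≤ K * tb D C u v (ε / 4) n 2 := by
    intro i b1 b2
    unfold tb
    rw [← mul_assoc]
    refine mul_le_mul_of_nonneg_right (max_le (b1.trans ?_) (b2.trans ?_)) (dpow_pos D.B n _).le
    · exact mul_le_mul_of_nonneg_left (le_max_left _ _) hK0
    · exact mul_le_mul_of_nonneg_left (le_max_right _ _) hK0
  have kE : dE → tb D C u v (ε / 4) n 1 ≤ K * tb D C u v (ε / 4) n 2 := fun hd =>
    hmx 1 ((prF_deg a6).1 (a4.1 hd)) ((prF_deg a7).1 (a5.1 hd))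
  have kB : dB → tb D C u v (ε / 4) n 0 ≤ K * tb D C u v (ε / 4) n 2 := fun hd =>
    hmx 0 ((prF_deg a6).2 (a4.2 hd)) ((prF_deg a7).2 (a5.2 hd))
  have hsd := slot_diff Nu Nv (by norm_num) hK1 q0.le q1 q2 kE kB
    (by rw [dt_comm]; exact t2) (by rw [dt_comm]; exact t4) (by rw [dt_comm]; exact t6)
    (by rw [dt_comm]; exact t5)
  -- numbers
  have hnum : ∀ i : Fin 3, 16 * (K * tb D C u v (ε / 4) n i) ≤
      max (prF D.w i n u) (prF D.w i n v) * D.B.d n ^ (-(C * ((v : ℝ) - u)) - ε) := by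
    intro i
    have hS : 0 ≤ max (prF D.w i n u) (prF D.w i n v) := (prF_pos a6 i).le.trans (le_max_left _ _)
    have h2 := a10 (max (prF D.w i n u) (prF D.w i n v)) (-(C * ((v : ℝ) - u)) - ε) hS
    have e1 : K * tb D C u v (ε / 4) n i = max (prF D.w i n u) (prF D.w i n v) *
        D.B.d n ^ (-(C * ((v : ℝ) - u)) - ε + ε / 2) := by
      unfold tb
      rw [hK, mul_left_comm, ← dpow_add]
      congr 2
      ring
    rw [e1]
    exact h2
  have hbig : ∀ i : Fin 3, 16 * tb D C u v (ε / 4) n i ≤ 16 * (K * tb D C u v (ε / 4) n i) := by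
    intro i
    have : 0 ≤ tb D C u v (ε / 4) n i := by
      unfold tb
      exact mul_nonneg ((prF_pos a6 i).le.trans (le_max_left _ _)) (dpow_pos D.B n _).le
    nlinarith
  rw [tdF_d]
  unfold snD
  rw [slF_of Nu, slF_of Nv]
  fin_cases j
  · exact hsd.1.trans ((hbig 0).trans (hnum 0))
  · exact hsd.2.1.trans ((hbig 1).trans (hnum 1))
  · exact hsd.2.2.trans (hnum 2)

/-- properties carried by the second zoom -/
def QN (D : Dat4) (dE dB : Prop) (i n : ℕ) (v : ℚ) (δ : ℝ) : Prop :=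
  (∀ x ∈ D.I n, Nst dE dB (1 / 5) (mkS D n v x).e) ∧
    (dE → D.w 1 n v ≤ D.w 2 n v * D.B.d n ^ (-δ)) ∧
    (dB → D.w 2 n v ≤ D.w 0 n v * D.B.d n ^ (-δ)) ∧ 0 < D.w 2 n v ∧ 0 < D.w 0 n v ∧
    ∀ k : Fin 3, D.wr k n ≤ D.B.d n ^ (i : ℝ) * D.w k n v ∧
      D.w k n v ≤ D.B.d n ^ (i : ℝ) * D.cr k n

end

/-! ### slots of the chart -/

section slots

open Crest.Agent.R136.Ut627 (Vis Tie slotOk3 SlotT)
open Crest.Agent.R136.TD627 (TSys InvT RotT)
open Crest.Agent.R136.Wq638 (SlotQ incQ isSl btQ prQ)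
open Crest.Agent.R136.NetQ186 (coQ Fq4)

/-- a property of the three slots as a property of the chart coordinates -/
def up3 (P : Fin 3 → Prop) (k : Fin 11) : Prop := (k = 2 ∧ P 0) ∨ (k = 3 ∧ P 1) ∨ (k = 4 ∧ P 2)

/-- slot of a chart coordinate -/
def sl3 (k : Fin 11) : Fin 3 := if k = 2 then 0 else if k = 3 then 1 else 2

theorem up3_isSl {P : Fin 3 → Prop} {k : Fin 11} (h : up3 P k) : isSl k ∧ P (sl3 k) := by
  rcases h with ⟨rfl, h⟩ | ⟨rfl, h⟩ | ⟨rfl, h⟩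
  · exact ⟨Or.inl rfl, h⟩
  · exact ⟨Or.inr (Or.inl rfl), h⟩
  · exact ⟨Or.inr (Or.inr rfl), h⟩

theorem up3_of {P : Fin 3 → Prop} {k : Fin 11} (hk : isSl k) (h : P (sl3 k)) : up3 P k := by
  rcases hk with rfl | rfl | rfl
  · exact Or.inl ⟨rfl, h⟩
  · exact Or.inr (Or.inl ⟨rfl, h⟩)
  · exact Or.inr (Or.inr ⟨rfl, h⟩)

theorem btQ_sl3 (θ : Fin 3 → ℝ) {k : Fin 11} (hk : isSl k) : btQ θ k = btF θ (sl3 k) := by
  rcases hk with rfl | rfl | rfl <;> simp [btQ, btF, sl3]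

theorem prQ_sl3 (w : Fin 3 → ℕ → ℚ → ℝ) {k : Fin 11} (hk : isSl k) (n : ℕ) (v : ℚ) :
    prQ w k n v = prF w (sl3 k) n v := by
  rcases hk with rfl | rfl | rfl <;> simp [prQ, prF, sl3]

theorem coQ_sl3 (π : Equiv.Perm (Fin 3)) (L : ℕ → ℕ → Ln4) (fl : ℕ → ℕ × ℝ → Fin 3 → ℝ)
    {k : Fin 11} (hk : isSl k) (n : ℕ) (x y : ℕ × ℝ) :
    coQ (incQ π L (fun n x => fl n x 0) (fun n x => fl n x 2) (fun n x => fl n x 1) n x)
      (incQ π L (fun n x => fl n x 0) (fun n x => fl n x 2) (fun n x => fl n x 1) n y) k =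
      coF (fl n x) (fl n y) (sl3 k) := by
  rcases hk with rfl | rfl | rfl <;> rfl

/-- **slots of the second zoom ⊢ slots of the chart** -/
theorem slotQ_of {σ : Type*} {G : Geo σ (Fin 3)} {g s : ℝ} {θ : Fin 3 → ℝ} {B : Base}
    {I : ℕ → Finset (ℕ × ℝ)} {lev : ℕ → ℚ → ℕ} {A : ℕ → ℝ} {f : ℕ → ℚ → ℕ → ℤ → ℕ}
    {b : ℕ → ℚ → ℕ → σ} {vm : ℕ → ℚ → ℝ} {w : Fin 3 → ℕ → ℚ → ℝ}
    {sn : ℕ → ℚ → ℕ × ℝ → Fin 3 → ℝ} {fl : ℕ → ℕ × ℝ → Fin 3 → ℝ} {sc : Fin 3 → ℕ → ℝ}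
    (hS : TSys tdF G g s θ (btF θ) B I lev A f b vm w sn (prF w) fl sc)
    (hT : ∀ j, SlotT tdF (btF θ) B I lev fl sc (fun j => |btF θ j| + 1) j)
    (π : Equiv.Perm (Fin 3)) (L : ℕ → ℕ → Ln4) :
    SlotQ B I lev w θ (incQ π L (fun n x => fl n x 0) (fun n x => fl n x 2) (fun n x => fl n x 1))
      (fun k => sc (sl3 k)) (up3 (Vis B I fl sc)) (up3 (Tie B I fl sc)) ∧
    SlotOk θ (up3 (Vis B I fl sc)) (up3 (Tie B I fl sc)) := by
  obtain ⟨p1, p2, p3, p4⟩ := slotOk3 hS hT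
  have tied : ∀ k, up3 (Tie B I fl sc) k → up3 (Vis B I fl sc) k := fun k hk => by
    obtain ⟨h1, h2⟩ := up3_isSl hk
    exact up3_of h1 h2.1
  refine ⟨⟨fun k hk => (up3_isSl hk).1, tied, fun k n => hS.scpos _ n, ?_, ?_, ?_, ?_⟩,
    ⟨tied, fun k hk => ?_, fun k hk hkT => ?_, fun h2 h3 => ?_⟩⟩
  · intro k hk
    have := hS.prc (sl3 k) 0 le_rfl zero_le_one
    simp only [Rat.cast_zero, mul_zero] at this
    simpa only [prQ_sl3 w hk] using this
  · intro k hk u h0 h1 ε hε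
    obtain ⟨hs, -⟩ := up3_isSl hk
    filter_upwards [hS.same_cell (sl3 k) h0 h1 hε] with n hn x hx y hy hxy hz
    rw [coQ_sl3 π L fl hs, btQ_sl3 θ hs]
    exact hn x hx y hy hxy hz
  · intro k hk hkV M
    have hI : InvT tdF B I (sl3 k) fl (sc (sl3 k)) := by
      by_contra hc
      exact hkV (up3_of hk hc)
    filter_upwards [hI M] with n hn x hx y hy hxy
    rw [coQ_sl3 π L fl hk]
    exact hn x hx y hy hxy
  · intro k hk u h0 h1 r hr
    obtain ⟨hs, hT'⟩ := up3_isSl hk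
    have hR := p2 _ hT'
    rw [btQ_sl3 θ hs] at hr
    set C0 : ℝ := |btF θ (sl3 k)| + 1 with hC0
    have hu1 : (u : ℝ) < 1 := by exact_mod_cast h1
    have hu0 : (0 : ℝ) ≤ u := by exact_mod_cast h0
    have hC : btF θ (sl3 k) * u < C0 := by
      have h3 := le_abs_self (btF θ (sl3 k))
      have h4 := abs_nonneg (btF θ (sl3 k))
      nlinarith
    obtain ⟨γ, hγ, h2⟩ := hR.tw u h0 h1 (min r C0) (lt_min hr hC) (min_le_right _ _)
    refine ⟨γ, hγ, ?_⟩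
    filter_upwards [h2] with n hn x hx
    refine le_trans (Nat.cast_le.2 (card_le_card fun y hy => ?_)) (hn x hx)
    rw [mem_filter] at hy ⊢
    refine ⟨hy.1, hy.2.1, hy.2.2.1, ?_⟩
    have h5 := hy.2.2.2
    rw [coQ_sl3 π L fl hs] at h5
    rw [tdF_d]
    exact h5.trans (mul_le_mul_of_nonneg_left (dpow_le B n (min_le_left _ _)) (hS.scpos _ n).le)
  · obtain ⟨hs, hV⟩ := up3_isSl hk
    refine ⟨hs, ?_⟩
    rw [btQ_sl3 θ hs]
    exact p1 _ hV
  · obtain ⟨hs, hV⟩ := up3_isSl hk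
    obtain ⟨q1, q2, q3⟩ := p3 (sl3 k) hV fun hc => hkT (up3_of hs hc)
    refine ⟨?_, Or.inl ⟨rfl, q2⟩, Or.inr (Or.inl ⟨rfl, q3⟩)⟩
    rcases hs with rfl | rfl | rfl
    · exact absurd q1 (by decide)
    · exact absurd q1 (by decide)
    · rfl
  · obtain ⟨q1, q2⟩ := p4 (up3_isSl h2).2 (up3_isSl h3).2
    exact ⟨Or.inr (Or.inr ⟨rfl, q1⟩), fun h4 => q2 (up3_isSl h4).2⟩

end slots

/-! ### final assembly -/

section final

variable {p : Par4} {D : Dat4} {C c : ℝ} {dE dB : Prop}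

theorem carry_QN (h : MkW p D C c dE dB)
    (hN : ∀ v : ℚ, 0 ≤ v → v ≤ 1 → ∀ᶠ n in (U : Filter ℕ), ∀ x ∈ D.I n,
      Nst dE dB (1 / 5) (mkS D n v x).e) : CarryH (QN D dE dB) := by
  refine ⟨fun i n v δ δ' hδ hQ => ?_, fun i v h0 h1 δ hδ => ?_⟩
  · obtain ⟨q1, q2, q3, q4, q5, q6⟩ := hQ
    have hd : D.B.d n ^ (-δ) ≤ D.B.d n ^ (-δ') := dpow_le D.B n (by linarith)
    exact ⟨q1, fun hd' => (q2 hd').trans (mul_le_mul_of_nonneg_left hd q4.le),
      fun hd' => (q3 hd').trans (mul_le_mul_of_nonneg_left hd q5.le), q4, q5, q6⟩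
  · filter_upwards [hN v h0 h1, h.deg h0 h1 hδ, wpos_all h.mka h0 h1,
      h.wrs (i : ℝ) 0 v h0 h1, h.wrs (i : ℝ) 1 v h0 h1, h.wrs (i : ℝ) 2 v h0 h1]
      with n a1 a2 a3 a4 a5 a6
    refine ⟨a1, a2.1, a2.2, a3 2, a3 0, fun k => ?_⟩
    fin_cases k
    · exact a4
    · exact a5
    · exact a6

/-- the composite slopes are at most one -/
theorem flF_abs (θ : Fin 3 → ℝ) (D : Dat4) (dE dB : Prop) (n : ℕ) (x : ℕ × ℝ) :
    |flF θ (snD D dE dB) n x 0| ≤ 1 ∧ |flF θ (snD D dE dB) n x 1| ≤ 1 ∧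
      |flF θ (snD D dE dB) n x 2| ≤ 1 := by
  have hs : ∀ v j, |snD D dE dB n v x j| ≤ 2 / 5 := fun v j => slF_abs _ _ _ j
  refine ⟨(hs _ 0).trans (by norm_num), (hs _ 1).trans (by norm_num), ?_⟩
  show |snD D dE dB n _ x 2 + snD D dE dB n _ x 0 * snD D dE dB n _ x 1 -
    snD D dE dB n _ x 0 * snD D dE dB n _ x 1| ≤ 1
  refine (s2 (a2 (hs _ 2) (m2 (hs _ 0) (hs _ 1))) (m2 (hs _ 0) (hs _ 1))).trans (by norm_num)

/-- the flag of the exchanged chart -/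
theorem flF_abs2 (θ : Fin 3 → ℝ) (D : Dat4) (dE dB : Prop) (n : ℕ) (x : ℕ × ℝ) :
    |flF θ (snD D dE dB) n x 0| +
      |flF θ (snD D dE dB) n x 2 + flF θ (snD D dE dB) n x 0 * flF θ (snD D dE dB) n x 1| ≤ 1 := by
  have hs : ∀ v j, |snD D dE dB n v x j| ≤ 2 / 5 := fun v j => slF_abs _ _ _ j
  have h1 : |flF θ (snD D dE dB) n x 0| ≤ 2 / 5 := hs _ 0
  have h2 : |flF θ (snD D dE dB) n x 2 +
      flF θ (snD D dE dB) n x 0 * flF θ (snD D dE dB) n x 1| ≤ 2 / 5 + 2 / 5 * (2 / 5) := by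
    have e : flF θ (snD D dE dB) n x 2 + flF θ (snD D dE dB) n x 0 * flF θ (snD D dE dB) n x 1 =
        Ut627.FS θ (snD D dE dB) n (Ut627.lvl (btF θ 2)) x := by
      show Ut627.FS θ (snD D dE dB) n (Ut627.lvl (btF θ 2)) x - Ut627.eS θ (snD D dE dB) n x *
        Ut627.bS θ (snD D dE dB) n x + Ut627.eS θ (snD D dE dB) n x *
        Ut627.bS θ (snD D dE dB) n x = _
      ring
    rw [e]
    exact a2 (hs _ 2) (m2 (hs _ 0) (hs _ 1))
  linarith

/-- the flag `F_b` is at most `2/5` -/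
theorem flF_abs3 (θ : Fin 3 → ℝ) (D : Dat4) (dE dB : Prop) (n : ℕ) (x : ℕ × ℝ) :
    |flF θ (snD D dE dB) n x 1| ≤ 2 / 5 := slF_abs _ _ _ 1

/-- the data of the second zoom -/
def zooD (D : Dat4) (B' : Base) (I' : ℕ → Finset (ℕ × ℝ)) (A' : ℕ → ℝ) (mm : ℕ → ℚ → ℚ) :
    Dat4 where
  B := B'
  I := I'
  L := D.L
  r0 := D.r0
  wr := D.wr
  cr := D.cr
  lev := fun n x => D.lev n (mm n x)
  A := A'
  f := fun n x => D.f n (mm n x)
  b := fun n x => D.b n (mm n x)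
  vm := fun n x => D.vm n (mm n x)
  w := fun j n x => D.w j n (mm n x)

/-- **a line of a flat mark in the frame of its slopes** -/
theorem in_fr {t : Ln4} {S : Plk4} {z0 ρ K w0 w1 w2 z : ℝ}
    (hm : InSheet t S.e S.c S.w S.q S.a z0 ρ) (hf : ∀ z x, S.q z x = dt (S.e 0) (x - S.c.pos z))
    (hN : Nst dE dB (1 / 5) S.e) (e0 : S.a = w0) (e1 : S.w 1 = w1) (e2 : S.w 2 = w2)
    (hK : 1 ≤ K) (p0 : 0 ≤ w0) (h02 : w0 ≤ w2) (h21 : w2 ≤ w1) (kE : dE → w1 ≤ K * w2)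
    (kB : dB → w2 ≤ K * w0) (h0 : z0 ≤ z) (h1 : z ≤ z0 + ρ) :
    |dt (fr (slF dE dB S.e 2) (slF dE dB S.e 1) (slF dE dB S.e 0) 0) (t.pos z - S.c.pos z)| ≤
      24 * K ^ 2 * w0 ∧
    |dt (fr (slF dE dB S.e 2) (slF dE dB S.e 1) (slF dE dB S.e 0) 1) (t.pos z - S.c.pos z)| ≤
      24 * K ^ 2 * w1 ∧
    |dt (fr (slF dE dB S.e 2) (slF dE dB S.e 1) (slF dE dB S.e 0) 2) (t.pos z - S.c.pos z)| ≤
      24 * K ^ 2 * w2 := by
  obtain ⟨i1, i2⟩ := hm z h0 h1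
  have y1 := i1 1
  have y2 := i1 2
  rw [hf] at i2
  rw [e0] at i2
  rw [e1] at y1
  rw [e2] at y2
  rw [slF_of hN]
  exact fr_size hN (by norm_num) (by norm_num) hK p0 h02 h21 kE kB i2 y1 y2

/-- **U6, thick side**: linear marked sequence, flat marks, flat tilt ⊢ `ThickPre`. -/
theorem thickPre_of_flat {η : ℝ} (ok : ParOk η p)
    (hM : MkA D.B D.I (D.G p) D.lev D.A (fun v => p.g * v) (fun v => 0 * v)
      (fun j v => p.θ j * (1 - v)) D.f D.b D.vm D.w) (hF : FlatMk D) (hT : TiltF D)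
    (hR : Rng D.B D.wr D.cr D.w) :
    ∃ (D' : Dat4) (π : Equiv.Perm (Fin 3)) (eE fA fB : ℕ → ℕ × ℝ → ℝ) (V T : Fin 11 → Prop)
      (w0 R T0 : ℝ) (PD : Set (Fin 11 → ℝ)), ThickPre η p D' π eE fA fB V T w0 R T0 PD := by
  obtain ⟨D1, C, c, dE, dB, hC, hW, hN⟩ := exists_mkN hM hF hT hR
  obtain ⟨H, mm, B', I', A', sc', hO⟩ := outF hC hW.mka (snCell_snD D1 dE dB)
    (fun j => tiltT_of_tiltE hW.mka (tiltE_snD hW hN j)) (carry_QN hW hN)
  obtain ⟨T0, w0, R, hbig⟩ := Crest.Agent.R136.Wq638.exists_bigQ p.θ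
  obtain ⟨hSl, hOk⟩ := slotQ_of hO.sys hO.slot (Equiv.refl _) D1.L
  have hM' : MkA (zooD D1 B' I' A' mm).B (zooD D1 B' I' A' mm).I ((zooD D1 B' I' A' mm).G p)
      (zooD D1 B' I' A' mm).lev (zooD D1 B' I' A' mm).A (fun v => p.g * v) (fun v => 0 * v)
      (fun j v => p.θ j * (1 - v)) (zooD D1 B' I' A' mm).f (zooD D1 B' I' A' mm).b
      (zooD D1 B' I' A' mm).vm (zooD D1 B' I' A' mm).w := hO.sys.mka
  refine ⟨zooD D1 B' I' A' mm, Equiv.refl _, fun n x => flF p.θ (snD D1 dE dB) n x 0,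
    fun n x => flF p.θ (snD D1 dE dB) n x 2, fun n x => flF p.θ (snD D1 dE dB) n x 1, _, _, w0, R,
    T0, _, thickPre_of (D := zooD D1 B' I' A' mm) ok hOk hbig hM' (fun n x _ => ?_)
      (fun n x _ => flF_abs2 p.θ D1 dE dB n x)
      (fun _ => ⟨2 / 5, by norm_num, fun n x _ => flF_abs3 p.θ D1 dE dB n x⟩) ?_ hSl
      (E := fun n u a => fr (slF dE dB (D1.b n (mm n u) a.1).e 2)
        (slF dE dB (D1.b n (mm n u) a.1).e 1) (slF dE dB (D1.b n (mm n u) a.1).e 0))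
      (c := fun n u a => (D1.b n (mm n u) a.1).c) ?_ ?_ ?_⟩
  · obtain ⟨f0, f1, f2⟩ := flF_abs p.θ D1 dE dB n x
    exact ⟨f0, f2, f1⟩
  · intro C k v h0 h1
    obtain ⟨i, hi⟩ := exists_nat_ge C
    filter_upwards [hO.carry.2 i v h0 h1 1 one_pos, wpos_all hM' h0 h1] with n hn hw
    obtain ⟨-, -, -, -, -, q6⟩ := hn
    obtain ⟨q7, q8⟩ := q6 k
    have hH := hO.H01 n
    have e1 : D1.B.d n ^ (i : ℝ) ≤ B'.d n ^ C := by
      rw [hO.Bd, ← Real.rpow_mul (D1.B.pos n).le]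
      refine dpow_le D1.B n ?_
      have h2 : (0 : ℝ) ≤ i := Nat.cast_nonneg i
      rcases le_total C 0 with hC0 | hC0
      · exact (mul_nonpos_of_nonneg_of_nonpos hH.1.le hC0).trans h2
      · exact (mul_le_of_le_one_left hC0 hH.2).trans hi
    have hwk : 0 < D1.w k n (mm n v) := hw k
    have hcr : 0 < D1.cr k n := by
      by_contra hcon
      push Not at hcon
      have h3 := mul_nonneg (dpow_pos D1.B n (i : ℝ)).le (neg_nonneg.2 hcon)
      linarith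
    exact ⟨q7.trans (mul_le_mul_of_nonneg_right e1 hwk.le),
      q8.trans (mul_le_mul_of_nonneg_right e1 hcr.le)⟩
  · intro u h0 h1
    refine Eventually.of_forall fun n x hx => ?_
    have hs := slF_abs dE dB (D1.b n (mm n u) (kc ((zooD D1 B' I' A' mm).lev n u)
      ((zooD D1 B' I' A' mm).f n u) x).1).e
    exact fr_adm (Equiv.refl _) ((hs 2).trans (by norm_num)) ((hs 1).trans (by norm_num))
      ((hs 0).trans (by norm_num))
  · intro u h0 h1 ε hε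
    filter_upwards [mark4 hM' h0 h1, ord4 hM' h0 h1, wpos_all hM' h0 h1, hO.sub,
      hO.carry.2 0 u h0 h1 (ε / 4) (by positivity),
      ev_const B' (C := (24 : ℝ)) (ε := ε / 2) (by norm_num) (by positivity)]
      with n a1 a2 a3 a4 a5 a6 x hx z hz0 hz1
    obtain ⟨m1, -, m2, m3, m4⟩ := a1 x hx
    obtain ⟨q1, q2, q3, -, -, -⟩ := a5
    have hKe : B'.d n ^ (-(ε / 4)) = D1.B.d n ^ (-(H n * (ε / 4))) := by
      rw [hO.Bd, ← Real.rpow_mul (D1.B.pos n).le]; congr 1; ring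
    have hK1 : 1 ≤ B'.d n ^ (-(ε / 4)) := by
      have := dpow_le B' n (show -(ε / 4) ≤ 0 by linarith)
      rwa [Real.rpow_zero] at this
    obtain ⟨r0, r1, r2⟩ := in_fr (dE := dE) (dB := dB) (K := B'.d n ^ (-(ε / 4))) m1
      (fun z x => hW.flat n (mm n u) _ z x) (q1 x (a4 hx)) m2 m3 m4 hK1 (a3 0).le a2.1 a2.2
      (fun hd => by rw [hKe, mul_comm]; exact q2 hd) (fun hd => by rw [hKe, mul_comm]; exact q3 hd)
      hz0 hz1
    have hnum : ∀ j, 24 * (B'.d n ^ (-(ε / 4))) ^ 2 * (zooD D1 B' I' A' mm).w j n u ≤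
        (zooD D1 B' I' A' mm).w j n u * B'.d n ^ (-ε) := by
      intro j
      have h2 := a6 ((zooD D1 B' I' A' mm).w j n u) (-ε) (a3 j).le
      have e1 : (B'.d n ^ (-(ε / 4))) ^ 2 = B'.d n ^ (-ε + ε / 2) := by
        rw [pow_two, ← dpow_add]; congr 1; ring
      rw [e1]
      linarith
    intro j
    fin_cases j
    · exact r0.trans (hnum 0)
    · exact r1.trans (hnum 1)
    · exact r2.trans (hnum 2)
  · intro u h0 h1 ε hε
    filter_upwards [close_sn hO.sys h0 h1 hε] with n hn x hx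
    have h2 := hn x hx
    have e0 : ∀ a b c : ℝ, sE (Equiv.refl (Fin 3)) (fr a b c) = c := fun a b c =>
      sE_fr (Fa := a) (Fb := b) (E := c) (Equiv.refl (Fin 3))
    have e1 : ∀ a b c : ℝ, sB (Equiv.refl (Fin 3)) (fr a b c) = b := fun a b c =>
      sB_fr (Fa := a) (Fb := b) (E := c) (Equiv.refl (Fin 3))
    have e2 : ∀ a b c : ℝ, sA (Equiv.refl (Fin 3)) (fr a b c) = a := fun a b c =>
      sA_fr (Fa := a) (Fb := b) (E := c) (Equiv.refl (Fin 3))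
    simp only [e0, e1, e2]
    exact h2

end final

end Crest.Agent.R136.Ut262
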