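import Crest.Agent.R136.ReD_436
import Crest.Agent.R136.Ut6_262

/-!
# R136 (S0187), case E: (P1) raw system ⊢ `ThickPre` (helper346), part 1

`flR`, `snR` : flags and flags of the marks (value at a chosen representative of the class);
`tsysR` : raw system ⊢ `TSys`; `invT_of` : `InvS` ⊢ `InvT`; `QR`, `carryR` : carried properties;
`gR_raw` : record closeness in raw coordinates ⊢ `gR` of `PreQ`.
-/

set_option autoImplicit false
set_option linter.unusedVariables false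

open Finset Filter Topology

namespace Crest.Agent.R136.ReP346

open Crest.Agent.R138.Ex926 (Base U)
open Crest.Agent.R138.Dp76 (dpow_pos dpow_add dpow_le dpow_le_one)
open Crest.Agent.R138.Mk163 (zc zl rho alive own)
open Crest.Agent.R138.MkRef627 (lc kc)
open Crest.Agent.R136.MkA627
open Crest.Agent.R136.Net191
open Crest.Agent.R136.NetQ186
open Crest.Agent.R136.GeoQ186 (sfac coQ_scl scl)
open Crest.Agent.R136.Sh605 (Ln4 V3)
open Crest.Agent.R136.Wq638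
open Crest.Agent.R136.Top484
open Crest.Agent.R136.NatT550
open Crest.Agent.R136.GR650 (LinW)
open Crest.Agent.R136.TD627 (TSys InvT CarryH ps ps_pos ps_eq pr_pair)
open Crest.Agent.R136.Ut627 (tdF tdF_d coF prF prLinF prodF btF wpos_all)
open Crest.Agent.R136.Ut262 (up3 sl3 coQ_sl3 btQ_sl3 prQ_sl3 up3_isSl)
open Crest.Agent.R136.Re436

/-- flags in the order of `tdF` -/
def flR (eE fA fB : ℕ → ℕ × ℝ → ℝ) (n : ℕ) (x : ℕ × ℝ) : Fin 3 → ℝ :=
  ![eE n x, fB n x, fA n x]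

open Classical in
/-- a representative of the class `a` of level `v` -/
noncomputable def repC (D : Dat4) (n : ℕ) (v : ℚ) (a : ℕ × ℤ) : ℕ × ℝ :=
  if h : ∃ y ∈ D.I n, kc (D.lev n v) (D.f n v) y = a then h.choose else (0, 0)

theorem repC_spec {D : Dat4} {n : ℕ} {v : ℚ} {x : ℕ × ℝ} (hx : x ∈ D.I n) :
    repC D n v (kc (D.lev n v) (D.f n v) x) ∈ D.I n ∧
      kc (D.lev n v) (D.f n v) (repC D n v (kc (D.lev n v) (D.f n v) x)) =
        kc (D.lev n v) (D.f n v) x := by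
  have h : ∃ y ∈ D.I n, kc (D.lev n v) (D.f n v) y = kc (D.lev n v) (D.f n v) x := ⟨x, hx, rfl⟩
  unfold repC
  rw [dif_pos h]
  exact h.choose_spec

/-- flags of the marks -/
noncomputable def snR (D : Dat4) (eE fA fB : ℕ → ℕ × ℝ → ℝ) (n : ℕ) (v : ℚ) (x : ℕ × ℝ) :
    Fin 3 → ℝ := flR eE fA fB n (repC D n v (kc (D.lev n v) (D.f n v) x))

theorem coF_flR (π : Equiv.Perm (Fin 3)) (L : ℕ → ℕ → Ln4) (eE fA fB : ℕ → ℕ × ℝ → ℝ)
    {k : Fin 11} (hk : isSl k) (n : ℕ) (x y : ℕ × ℝ) :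
    coF (flR eE fA fB n x) (flR eE fA fB n y) (sl3 k) =
      coQ (incQ π L eE fA fB n x) (incQ π L eE fA fB n y) k :=
  (coQ_sl3 π L (flR eE fA fB) hk n x y).symm

theorem natW_sl (D : Dat4) (n : ℕ) (u : ℚ) {k : Fin 11} (hk : isSl k) :
    natW D n u k = prF D.w (sl3 k) n u := by
  rcases hk with rfl | rfl | rfl <;> rfl

/-- coordinate of a slot -/
def kS (j : Fin 3) : Fin 11 := ![2, 3, 4] j

theorem kS_isSl (j : Fin 3) : isSl (kS j) := by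
  fin_cases j
  · exact Or.inl rfl
  · exact Or.inr (Or.inl rfl)
  · exact Or.inr (Or.inr rfl)

theorem sl3_kS (j : Fin 3) : sl3 (kS j) = j := by
  fin_cases j <;> simp [kS, sl3]

section

variable {p : Par4} {D : Dat4} {π : Equiv.Perm (Fin 3)} {eE fA fB : ℕ → ℕ × ℝ → ℝ}

/-- **slot system of a raw system** -/
theorem tsysR (h : RawS p D π eE fA fB) :
    TSys tdF (D.G p) p.g 0 p.θ (btF p.θ) D.B D.I D.lev D.A D.f D.b D.vm D.w
      (snR D eE fA fB) (prF D.w) (flR eE fA fB) (ps (prF D.w) 0) where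
  mka := h.mka
  scpos := ps_pos (prF D.w) 0
  prpos := fun j => (prLinF h.mka j).1
  prc := by
    intro j v h0 h1
    refine ((prLinF h.mka j).2 v h0 h1).congr' ?_
    filter_upwards [(prLinF h.mka j).1 0 le_rfl zero_le_one] with n hn
    rw [ps_eq hn]
  cell := by
    intro j v h0 h1 ε hε
    filter_upwards [(prLinF h.mka j).1 v h0 h1] with n hp x hx y hy hxy hz
    have e1 : kc (D.lev n v) (D.f n v) y = kc (D.lev n v) (D.f n v) x := by
      unfold kc; rw [hxy, hz]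
    unfold snR
    rw [e1, tdF.self]
    exact (mul_pos hp (dpow_pos D.B n _)).le
  close := by
    intro j v h0 h1 ε hε
    filter_upwards [h.near v h0 h1 ε hε] with n hn x hx
    obtain ⟨r1, r2⟩ := repC_spec (v := v) hx
    have h2 := hn x hx _ r1 r2 (kS j)
    rw [natW_sl D n v (kS_isSl j), ← coF_flR π D.L eE fA fB (kS_isSl j), sl3_kS] at h2
    exact h2
  wpr := prodF h.mka

theorem ps_ev (h : RawS p D π eE fA fB) (j : Fin 3) : ∀ᶠ n in (U : Filter ℕ),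
    ps (prF D.w) 0 j n = prF D.w j n 0 := by
  filter_upwards [(prLinF h.mka j).1 0 le_rfl zero_le_one] with n hn using ps_eq hn

theorem invT_of (h : RawS p D π eE fA fB) {k : Fin 11} (hk : isSl k)
    (hI : InvS D π eE fA fB k) :
    InvT tdF D.B D.I (sl3 k) (flR eE fA fB) (ps (prF D.w) 0 (sl3 k)) := by
  intro M
  filter_upwards [hI M, ps_ev h (sl3 k)] with n hn e1 x hx y hy hxy
  rw [tdF_d, coF_flR π D.L eE fA fB hk, e1, ← natW_sl D n 0 hk]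
  exact hn x hx y hy hxy

/-- carried properties -/
def QR (D : Dat4) (π : Equiv.Perm (Fin 3)) (eE fA fB : ℕ → ℕ × ℝ → ℝ) (γ : ℝ) (i n : ℕ) (v : ℚ)
    (δ : ℝ) : Prop :=
  (∀ j, 0 < D.w j n v) ∧
  (∀ x ∈ D.I n, ∀ y ∈ D.I n, kc (D.lev n v) (D.f n v) y = kc (D.lev n v) (D.f n v) x → ∀ k,
    |coQ (incQ π D.L eE fA fB n x) (incQ π D.L eE fA fB n y) k| ≤
      natW D n v k * D.B.d n ^ (-δ)) ∧
  (∀ k, isSl k → InvS D π eE fA fB k → ∀ x ∈ D.I n, ∀ y ∈ D.I n, y.1 = x.1 →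
    |coQ (incQ π D.L eE fA fB n x) (incQ π D.L eE fA fB n y) k| ≤
      natW D n v k * D.B.d n ^ (i : ℝ)) ∧
  (Gap23 D → D.w 0 n v ≤ D.B.d n ^ γ * D.w 2 n v) ∧
  (¬ Gap23 D → D.B.d n ^ δ * D.w 2 n v ≤ D.w 0 n v) ∧
  ∀ k : Fin 3, D.wr k n ≤ D.B.d n ^ (i : ℝ) * D.w k n v ∧
    D.w k n v ≤ D.B.d n ^ (i : ℝ) * D.cr k n

theorem natW_nonneg {D : Dat4} {n : ℕ} {v : ℚ} (h : ∀ j, 0 < D.w j n v) (k : Fin 11) :
    0 ≤ natW D n v k := by
  have h0 := (h 0).le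
  have h1 := (h 1).le
  have h2 := (h 2).le
  have hr := (rho_pos (D.lev n v)).le
  unfold natW
  fin_cases k
  · exact hr
  · exact le_rfl
  · exact div_nonneg h2 h1
  · exact div_nonneg h0 h2
  · exact div_nonneg h0 h1
  · exact div_nonneg h1 hr
  · exact div_nonneg h2 hr
  · exact div_nonneg h0 hr
  · exact h1
  · exact h2
  · exact h0

/-- rates of the slots of a raw system -/
theorem pr_pair' (h : RawS p D π eE fA fB) (j : Fin 3) {u s : ℚ} (h0 : 0 ≤ u) (h1 : u ≤ 1)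
    (h2 : 0 ≤ s) (h3 : s ≤ 1) {δ : ℝ} (hδ : btF p.θ j * ((u : ℝ) - s) < δ) :
    ∀ᶠ n in (U : Filter ℕ), prF D.w j n s ≤ prF D.w j n u * D.B.d n ^ (-δ) :=
  pr_pair (β := btF p.θ) (prLinF h.mka) j h0 h1 h2 h3 hδ

theorem exists_gap (h : RawS p D π eE fA fB) (hθ : p.θ 0 = p.θ 2) :
    ∃ γ : ℝ, 0 < γ ∧ ∀ v : ℚ, 0 ≤ v → v ≤ 1 → ∀ᶠ n in (U : Filter ℕ),
      (Gap23 D → D.w 0 n v ≤ D.B.d n ^ γ * D.w 2 n v) := by
  by_cases hg : Gap23 D
  · obtain ⟨γ, hγ, h1⟩ := hg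
    refine ⟨γ / 2, by positivity, fun v v0 v1 => ?_⟩
    filter_upwards [h1, pr_pair' h 1 (u := 0) (s := v) le_rfl zero_le_one v0 v1 (δ := γ / 2) (by
      show (p.θ 2 - p.θ 0) * _ < _
      rw [hθ, sub_self, zero_mul]; positivity), wpos_all h.mka le_rfl zero_le_one,
      wpos_all h.mka v0 v1] with n a1 a2 a3 a4 _
    have e1 : D.w 0 n 0 / D.w 2 n 0 ≤ D.B.d n ^ γ := by
      rw [div_le_iff₀ (a3 2)]; exact a1
    have e2 : D.w 0 n v / D.w 2 n v ≤ D.w 0 n 0 / D.w 2 n 0 * D.B.d n ^ (-(γ / 2)) := a2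
    have e3 : D.w 0 n v / D.w 2 n v ≤ D.B.d n ^ (γ / 2) := by
      refine e2.trans ?_
      calc D.w 0 n 0 / D.w 2 n 0 * D.B.d n ^ (-(γ / 2)) ≤
            D.B.d n ^ γ * D.B.d n ^ (-(γ / 2)) :=
            mul_le_mul_of_nonneg_right e1 (dpow_pos D.B n _).le
        _ = D.B.d n ^ (γ / 2) := by rw [← dpow_add]; congr 1; ring
    rwa [div_le_iff₀ (a4 2)] at e3
  · exact ⟨1, one_pos, fun v v0 v1 => Eventually.of_forall fun n hc => absurd hc hg⟩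

/-- no gap at all levels -/
theorem nogap_all (h : RawS p D π eE fA fB) (hθ : p.θ 0 = p.θ 2) {v : ℚ} (v0 : 0 ≤ v)
    (v1 : v ≤ 1) {δ : ℝ} (hδ : 0 < δ) : ∀ᶠ n in (U : Filter ℕ),
      (¬ Gap23 D → D.B.d n ^ δ * D.w 2 n v ≤ D.w 0 n v) := by
  by_cases hg : Gap23 D
  · exact Eventually.of_forall fun n hc => absurd hg hc
  · have h1 : ¬ ∀ᶠ n in (U : Filter ℕ), D.w 0 n 0 ≤ D.B.d n ^ (δ / 2) * D.w 2 n 0 :=
      fun hc => hg ⟨δ / 2, by positivity, hc⟩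
    rw [← Ultrafilter.eventually_not] at h1
    filter_upwards [h1, pr_pair' h 1 (u := v) (s := 0) v0 v1 le_rfl zero_le_one (δ := δ / 2) (by
      show (p.θ 2 - p.θ 0) * _ < _
      rw [hθ, sub_self, zero_mul]; positivity), wpos_all h.mka le_rfl zero_le_one,
      wpos_all h.mka v0 v1] with n a1 a2 a3 a4 _
    have e1 : D.B.d n ^ (δ / 2) ≤ D.w 0 n 0 / D.w 2 n 0 := by
      rw [le_div_iff₀ (a3 2)]; exact (not_le.1 a1).le
    have e2 : D.w 0 n 0 / D.w 2 n 0 ≤ D.w 0 n v / D.w 2 n v * D.B.d n ^ (-(δ / 2)) := a2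
    have e3 : D.B.d n ^ δ ≤ D.w 0 n v / D.w 2 n v := by
      have e4 : D.B.d n ^ (δ / 2) * D.B.d n ^ (δ / 2) ≤
          D.w 0 n v / D.w 2 n v * D.B.d n ^ (-(δ / 2)) * D.B.d n ^ (δ / 2) :=
        mul_le_mul_of_nonneg_right (e1.trans e2) (dpow_pos D.B n _).le
      rw [← dpow_add, mul_assoc, ← dpow_add, neg_add_cancel, Real.rpow_zero, mul_one] at e4
      rwa [add_halves] at e4
    rwa [le_div_iff₀ (a4 2)] at e3

/-- **the carried properties** -/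
theorem carryR (h : RawS p D π eE fA fB) (hθ : p.θ 0 = p.θ 2) {γ : ℝ}
    (hγ : ∀ v : ℚ, 0 ≤ v → v ≤ 1 → ∀ᶠ n in (U : Filter ℕ),
      (Gap23 D → D.w 0 n v ≤ D.B.d n ^ γ * D.w 2 n v)) :
    CarryH (QR D π eE fA fB γ) := by
  refine ⟨fun i n v δ δ' hδ hQ => ?_, fun i v h0 h1 δ hδ => ?_⟩
  · obtain ⟨q1, q2, q3, q4, q5, q6⟩ := hQ
    refine ⟨q1, fun x hx y hy hxy k => (q2 x hx y hy hxy k).trans ?_, q3, q4,
      fun hg => (mul_le_mul_of_nonneg_right (dpow_le D.B n hδ) (q1 2).le).trans (q5 hg), q6⟩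
    exact mul_le_mul_of_nonneg_left (dpow_le D.B n (by linarith)) (natW_nonneg q1 k)
  · have hinv : ∀ k, isSl k → InvS D π eE fA fB k → ∀ᶠ n in (U : Filter ℕ), ∀ x ∈ D.I n,
        ∀ y ∈ D.I n, y.1 = x.1 →
        |coQ (incQ π D.L eE fA fB n x) (incQ π D.L eE fA fB n y) k| ≤
          natW D n v k * D.B.d n ^ (i : ℝ) := by
      intro k hk hI
      set β := btF p.θ (sl3 k) with hβ
      have hv0 : (0 : ℝ) ≤ v := by exact_mod_cast h0
      have hv1 : (v : ℝ) ≤ 1 := by exact_mod_cast h1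
      have hlt : btF p.θ (sl3 k) * ((v : ℝ) - (0 : ℚ)) < |β| + 1 := by
        have := le_abs_self β
        have := abs_nonneg β
        push_cast
        rw [← hβ]
        nlinarith
      filter_upwards [hI ((i : ℝ) + (|β| + 1)),
        pr_pair' h (sl3 k) (u := v) (s := 0) h0 h1 le_rfl zero_le_one hlt] with n a1 a2 x hx y hy hxy
      refine (a1 x hx y hy hxy).trans ?_
      rw [natW_sl D n 0 hk, natW_sl D n v hk]
      calc prF D.w (sl3 k) n 0 * D.B.d n ^ ((i : ℝ) + (|β| + 1)) ≤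
            (prF D.w (sl3 k) n v * D.B.d n ^ (-(|β| + 1))) * D.B.d n ^ ((i : ℝ) + (|β| + 1)) :=
            mul_le_mul_of_nonneg_right a2 (dpow_pos D.B n _).le
        _ = prF D.w (sl3 k) n v * D.B.d n ^ (i : ℝ) := by
            rw [mul_assoc, ← dpow_add]; congr 2; ring
    have hinv' : ∀ᶠ n in (U : Filter ℕ), ∀ k, isSl k → InvS D π eE fA fB k → ∀ x ∈ D.I n,
        ∀ y ∈ D.I n, y.1 = x.1 →
        |coQ (incQ π D.L eE fA fB n x) (incQ π D.L eE fA fB n y) k| ≤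
          natW D n v k * D.B.d n ^ (i : ℝ) := by
      rw [Filter.eventually_all]
      intro k
      by_cases hk : isSl k ∧ InvS D π eE fA fB k
      · filter_upwards [hinv k hk.1 hk.2] with n hn _ _ using hn
      · exact Eventually.of_forall fun n a b => absurd ⟨a, b⟩ hk
    have hwr : ∀ᶠ n in (U : Filter ℕ), ∀ k : Fin 3, D.wr k n ≤ D.B.d n ^ (i : ℝ) * D.w k n v ∧
        D.w k n v ≤ D.B.d n ^ (i : ℝ) * D.cr k n :=
      Filter.eventually_all.2 fun k => h.wrs (i : ℝ) k v h0 h1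
    filter_upwards [wpos_all h.mka h0 h1, h.near v h0 h1 δ hδ, hinv', hγ v h0 h1,
      nogap_all h hθ h0 h1 hδ, hwr] with n a1 a2 a3 a4 a5 a6
    exact ⟨a1, a2, a3, a4, a5, a6⟩

end

/-! ### record closeness -/

section gR

variable {B : Base} {I : ℕ → Finset (ℕ × ℝ)} {lev : ℕ → ℚ → ℕ} {f : ℕ → ℚ → ℕ → ℤ → ℕ}
  {w : Fin 3 → ℕ → ℚ → ℝ} {θ : Fin 3 → ℝ} {w0 R : ℝ}

/-- natural sizes -/
noncomputable def natV (lev : ℕ → ℚ → ℕ) (w : Fin 3 → ℕ → ℚ → ℝ) (n : ℕ) (u : ℚ) : Fin 11 → ℝ :=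
  ![rho (lev n u), 0, w 2 n u / w 1 n u, w 0 n u / w 2 n u, w 0 n u / w 1 n u,
    w 1 n u / rho (lev n u), w 2 n u / rho (lev n u), w 0 n u / rho (lev n u),
    w 1 n u, w 2 n u, w 0 n u]

theorem sfac_natV {H Wa Wb Wy ρ w0 w1 w2 : ℝ} (hH : H ≠ 0) (ha : Wa ≠ 0) (hb : Wb ≠ 0)
    (hy : Wy ≠ 0) (hρ : ρ ≠ 0) (h0 : w0 ≠ 0) (h1 : w1 ≠ 0) (h2 : w2 ≠ 0) (k : Fin 11) :
    sfac H Wa Wb Wy k * ![ρ, 0, w2 / w1, w0 / w2, w0 / w1, w1 / ρ, w2 / ρ, w0 / ρ, w1, w2, w0] k =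
      ![H * ρ, 0, (w2 / ρ / Wb) / (w1 / ρ / Wa), (w0 / ρ / Wy) / (w2 / ρ / Wb),
        (w0 / ρ / Wy) / (w1 / ρ / Wa), w1 / ρ / Wa, w2 / ρ / Wb, w0 / ρ / Wy,
        H * ρ * (w1 / ρ / Wa), H * ρ * (w2 / ρ / Wb), H * ρ * (w0 / ρ / Wy)] k := by
  fin_cases k
  · rfl
  · show 1 / (H * Wy) * 0 = 0
    rw [mul_zero]
  · show Wa / Wb * (w2 / w1) = (w2 / ρ / Wb) / (w1 / ρ / Wa)
    field_simp
  · show Wb / Wy * (w0 / w2) = (w0 / ρ / Wy) / (w2 / ρ / Wb)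
    field_simp
  · show Wa / Wy * (w0 / w1) = (w0 / ρ / Wy) / (w1 / ρ / Wa)
    field_simp
  · show 1 / Wa * (w1 / ρ) = w1 / ρ / Wa
    field_simp
  · show 1 / Wb * (w2 / ρ) = w2 / ρ / Wb
    field_simp
  · show 1 / Wy * (w0 / ρ) = w0 / ρ / Wy
    field_simp
  · show H / Wa * w1 = H * ρ * (w1 / ρ / Wa)
    field_simp
  · show H / Wb * w2 = H * ρ * (w2 / ρ / Wb)
    field_simp
  · show H / Wy * w0 = H * ρ * (w0 / ρ / Wy)
    field_simp

theorem sfac_pos {H Wa Wb Wy : ℝ} (hH : 0 < H) (ha : 0 < Wa) (hb : 0 < Wb) (hy : 0 < Wy)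
    (k : Fin 11) : 0 < sfac H Wa Wb Wy k := by
  unfold sfac
  fin_cases k
  · exact hH
  · exact div_pos one_pos (mul_pos hH hy)
  · exact div_pos ha hb
  · exact div_pos hb hy
  · exact div_pos ha hy
  · exact div_pos one_pos ha
  · exact div_pos one_pos hb
  · exact div_pos one_pos hy
  · exact div_pos hH ha
  · exact div_pos hH hb
  · exact div_pos hH hy

/-- **record closeness in raw coordinates ⊢ `gR`** -/
theorem gR_raw (h : LinW B lev w θ) {F : ℕ → ℕ × ℝ → Fq4}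
    (hn : ∀ u : ℚ, 0 ≤ u → u ≤ 1 → ∀ ε : ℝ, 0 < ε → ∀ᶠ n in (U : Filter ℕ), ∀ x ∈ I n, ∀ y ∈ I n,
      kc (lev n u) (f n u) y = kc (lev n u) (f n u) x → ∀ k,
        |coQ (F n x) (F n y) k| ≤ natV lev w n u k * B.d n ^ (-ε))
    (u : ℚ) (u0 : 0 ≤ u) (u1 : u ≤ 1) (ε : ℝ) (hε : 0 < ε) :
    ∀ᶠ n in (U : Filter ℕ), ∀ x ∈ I n, ∀ y ∈ I n,
      kc (lev n u) (f n u) y = kc (lev n u) (f n u) x → ∀ k,
        |couQ B lev w w0 F n x y k| ≤ B.d n ^ (pathQ θ w0 R u k - ε) := by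
  have h2 : 0 < ε / 2 := by positivity
  filter_upwards [hn u u0 u1 _ h2, h.sizes0 (w0 := w0) (R := R) u0 u1 h2,
    h.wpos 0 0 le_rfl zero_le_one, h.wpos 1 0 le_rfl zero_le_one, h.wpos 2 0 le_rfl zero_le_one,
    h.wpos 0 u u0 u1, h.wpos 1 u u0 u1, h.wpos 2 u u0 u1]
    with n hn hsz p0 p1 p2 q0 q1 q2 x hx y hy hxy k
  have dp := dpow_pos B n
  have hρ := rho_pos (lev n u)
  have hH : 0 < Wq638.uH B lev w0 n := Wq638.uH_pos n
  have hWa : 0 < uA B lev w w0 n := Wq638.uA_pos p1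
  have hWb : 0 < uB B lev w w0 n := Wq638.uB_pos p2
  have hWy : 0 < uY B lev w w0 n := Wq638.uY_pos p0
  have h1 := hn x hx y hy hxy k
  show |coQ (scl _ _ _ _ (F n x)) (scl _ _ _ _ (F n y)) k| ≤ B.d n ^ (pathQ θ w0 R u k - ε)
  rw [coQ_scl hH.ne' hWa.ne' hWb.ne' hWy.ne', abs_mul, abs_of_pos (sfac_pos hH hWa hWb hWy k)]
  by_cases hk : k = 1
  · subst hk
    have e0 : natV lev w n u 1 = 0 := rfl
    rw [e0, zero_mul] at h1
    have e1 : |coQ (F n x) (F n y) 1| = 0 := le_antisymm h1 (abs_nonneg _)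
    rw [e1, mul_zero]
    exact (dp _).le
  · have h5 := hsz k hk
    rw [← sfac_natV hH.ne' hWa.ne' hWb.ne' hWy.ne' hρ.ne' q0.ne' q1.ne' q2.ne' k] at h5
    calc sfac (Wq638.uH B lev w0 n) (uA B lev w w0 n) (uB B lev w w0 n) (uY B lev w w0 n) k *
          |coQ (F n x) (F n y) k| ≤
          sfac (Wq638.uH B lev w0 n) (uA B lev w w0 n) (uB B lev w w0 n) (uY B lev w w0 n) k *
            (natV lev w n u k * B.d n ^ (-(ε / 2))) :=
          mul_le_mul_of_nonneg_left h1 (sfac_pos hH hWa hWb hWy k).le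
      _ = (sfac (Wq638.uH B lev w0 n) (uA B lev w w0 n) (uB B lev w w0 n) (uY B lev w w0 n) k *
            natV lev w n u k) * B.d n ^ (-(ε / 2)) := by ring
      _ ≤ B.d n ^ (pathQ θ w0 R u k - ε / 2) * B.d n ^ (-(ε / 2)) :=
          mul_le_mul_of_nonneg_right h5 (dp _).le
      _ = B.d n ^ (pathQ θ w0 R u k - ε) := by rw [← dpow_add]; congr 1; ring

end gR

end Crest.Agent.R136.ReP346
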