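import Crest.Agent.R136.NetW6_191

/-!
# R136, thin case K > 2 (helper619): recentring, part 1 (real algebra)

`w` = own rotation of a line `T` (14 slots of `NetW_191`) between two heights, `h` = relative frame
of a second line `T'` at the same height (`h 0 = 0`).  Own rotation of `T'` = `tr κ h w` up to the
precision of the flags.  If the A-slot (11) is small for `T` and for suitable partners `T'`, then
all slots of the N-jet `11, 5, 1, 3, 10, 6, 2, 0` are small; the slots `8, 7, 4` follow from the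
cocycle identity in the heights.
-/

set_option autoImplicit false
set_option linter.unusedVariables false

namespace Crest.Agent.R136.Rec619

open Crest.Agent.R136.NetW191

variable {κ : ℝ} {h : Fin 4 → ℝ} {w : Fin 14 → ℝ}

lemma tr11_flat (h0 : h 0 = 0) : tr κ h w 11 = w 11 + h 3 * w 5 +
    h 2 * (4 * κ ^ 2 * h 2 ^ 2 * w 0 - 2 * κ ^ 2 * h 1 * h 2 * w 1 + 2 * κ * h 3 * w 1 +
      3 * κ * h 2 * w 2 - 2 * κ * h 1 * w 5 + 2 * w 6) +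
    h 1 * (-(4 * κ * h 3 * w 3) - 2 * κ * w 10) := by
  simp only [tr11, h0]; ring

lemma tr5_flat (h0 : h 0 = 0) : tr κ h w 5 = w 5 + 2 * κ * h 2 * w 1 - 4 * κ * h 1 * w 3 := by
  simp only [tr5, h0]; ring

lemma tr10_flat (h0 : h 0 = 0) : tr κ h w 10 = w 10 + κ * h 2 ^ 2 * w 1 + 2 * h 3 * w 3 +
    h 2 * w 5 := by
  simp only [tr10, h0]; ring

lemma tr6_flat (h0 : h 0 = 0) : tr κ h w 6 = w 6 + 6 * κ ^ 2 * h 2 ^ 2 * w 0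
      - 4 * κ ^ 2 * h 1 * h 2 * w 1 + κ * h 3 * w 1 + 3 * κ * h 2 * w 2 + 4 * κ ^ 2 * h 1 ^ 2 * w 3
      - 2 * κ * h 1 * w 5 := by
  simp only [tr6, h0]; ring

lemma tr2_flat (h0 : h 0 = 0) : tr κ h w 2 = w 2 + 4 * κ * h 2 * w 0 - 2 * κ * h 1 * w 1 := by
  simp only [tr2, h0]; ring

lemma tr1_flat (h0 : h 0 = 0) : tr κ h w 1 = w 1 := by simp only [tr1, h0]; ring

lemma tr3_flat (h0 : h 0 = 0) : tr κ h w 3 = w 3 := by simp only [tr3, h0]; ring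

lemma tr0_flat : tr κ h w 0 = w 0 := by simp only [tr0]

lemma am {a b x y : ℝ} (ha : |a| ≤ x) (hb : |b| ≤ y) : |a * b| ≤ x * y := by
  rw [abs_mul]
  exact mul_le_mul ha hb (abs_nonneg _) ((abs_nonneg _).trans ha)

lemma aa {a b x y : ℝ} (ha : |a| ≤ x) (hb : |b| ≤ y) : |a + b| ≤ x + y :=
  (abs_add_le a b).trans (add_le_add ha hb)

lemma as {a b x y : ℝ} (ha : |a| ≤ x) (hb : |b| ≤ y) : |a - b| ≤ x + y :=
  (abs_sub a b).trans (add_le_add ha hb)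

lemma an {a x : ℝ} (ha : |a| ≤ x) : |-a| ≤ x := by rwa [abs_neg]

lemma ac {c a x : ℝ} (hc : 0 ≤ c) (ha : |a| ≤ x) : |c * a| ≤ c * x := by
  rw [abs_mul, abs_of_nonneg hc]
  exact mul_le_mul_of_nonneg_left ha hc

lemma ap {a x : ℝ} (n : ℕ) (ha : |a| ≤ x) : |a ^ n| ≤ x ^ n := by
  rw [abs_pow]
  exact pow_le_pow_left₀ (abs_nonneg _) ha n

/-- from `|x| |w| ≤ E`, `1 ≤ Λ |x|` to `|w| ≤ Λ E` -/
lemma div_le {x y E Λ : ℝ} (h1 : 1 ≤ Λ * |x|) (h2 : |x * y| ≤ E) (hΛ : 0 ≤ Λ) : |y| ≤ Λ * E := by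
  rw [abs_mul] at h2
  have h3 := mul_le_mul_of_nonneg_left h2 hΛ
  have h4 : |y| ≤ Λ * |x| * |y| := by
    have := mul_le_mul_of_nonneg_right h1 (abs_nonneg y)
    linarith
  linarith [mul_assoc Λ |x| |y|]

/-- **step 1** : partner with `(c, A)` frozen, `B` spread: slot 5 (`AB`) is small -/
lemma step1 {Λ e : ℝ} (hΛ : 1 ≤ Λ) (he : 0 ≤ e) (he1 : e ≤ 1) (hκ : |κ| ≤ 1)
    (hw : ∀ j, |w j| ≤ Λ) (h0 : h 0 = 0) (h1 : |h 1| ≤ e) (h2 : |h 2| ≤ e) (h3 : |h 3| ≤ Λ)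
    (h3' : 1 ≤ Λ * |h 3|) (a : |w 11| ≤ e) (a' : |tr κ h w 11| ≤ e) :
    |w 5| ≤ 23 * Λ ^ 3 * e := by
  have h1' : |h 1| ≤ 1 := h1.trans he1
  have h2' : |h 2| ≤ 1 := h2.trans he1
  have b1 : |4 * κ ^ 2 * h 2 ^ 2 * w 0 - 2 * κ ^ 2 * h 1 * h 2 * w 1 + 2 * κ * h 3 * w 1 +
      3 * κ * h 2 * w 2 - 2 * κ * h 1 * w 5 + 2 * w 6| ≤ 4 * 1 ^ 2 * 1 ^ 2 * Λ +
      2 * 1 ^ 2 * 1 * 1 * Λ + 2 * 1 * Λ * Λ + 3 * 1 * 1 * Λ + 2 * 1 * 1 * Λ + 2 * Λ := by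
    refine aa (as (aa (aa (as ?_ ?_) ?_) ?_) ?_) ?_
    · exact am (am (ac (by norm_num) (ap 2 hκ)) (ap 2 h2')) (hw 0)
    · exact am (am (am (ac (by norm_num) (ap 2 hκ)) h1') h2') (hw 1)
    · exact am (am (ac (by norm_num) hκ) h3) (hw 1)
    · exact am (am (ac (by norm_num) hκ) h2') (hw 2)
    · exact am (am (ac (by norm_num) hκ) h1') (hw 5)
    · exact ac (by norm_num) (hw 6)
  have b2 : |-(4 * κ * h 3 * w 3) - 2 * κ * w 10| ≤ 4 * 1 * Λ * Λ + 2 * 1 * Λ :=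
    as (an (am (am (ac (by norm_num) hκ) h3) (hw 3))) (am (ac (by norm_num) hκ) (hw 10))
  have e1 : h 3 * w 5 = tr κ h w 11 - w 11 - (h 2 * (4 * κ ^ 2 * h 2 ^ 2 * w 0 -
      2 * κ ^ 2 * h 1 * h 2 * w 1 + 2 * κ * h 3 * w 1 +
      3 * κ * h 2 * w 2 - 2 * κ * h 1 * w 5 + 2 * w 6) +
    h 1 * (-(4 * κ * h 3 * w 3) - 2 * κ * w 10)) := by
    rw [tr11_flat h0]; ring
  have b3 : |h 3 * w 5| ≤ e + e + (e * (4 * 1 ^ 2 * 1 ^ 2 * Λ +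
      2 * 1 ^ 2 * 1 * 1 * Λ + 2 * 1 * Λ * Λ + 3 * 1 * 1 * Λ + 2 * 1 * 1 * Λ + 2 * Λ) +
      e * (4 * 1 * Λ * Λ + 2 * 1 * Λ)) := by
    rw [e1]
    exact as (as a' a) (aa (am h2 b1) (am h1 b2))
  have b4 : |h 3 * w 5| ≤ 23 * Λ ^ 2 * e := by
    refine b3.trans ?_
    have c1 : Λ ≤ Λ ^ 2 := by nlinarith
    have c2 : (1 : ℝ) ≤ Λ ^ 2 := by nlinarith
    nlinarith [mul_nonneg he (sub_nonneg.2 c1), mul_nonneg he (sub_nonneg.2 c2)]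
  have := div_le h3' b4 (by linarith)
  calc |w 5| ≤ Λ * (23 * Λ ^ 2 * e) := this
    _ = _ := by ring

/-- **step 2** : partner with `c` frozen, `A` spread: slot 1 (`BY`) is small -/
lemma step2 {Λ e e5 : ℝ} (hΛ : 1 ≤ Λ) (he : 0 ≤ e) (hκ : |κ| ≤ 1) (hκ' : 1 ≤ Λ * |κ|)
    (hw : ∀ j, |w j| ≤ Λ) (h0 : h 0 = 0) (h1 : |h 1| ≤ e)
    (h2' : 1 ≤ Λ * |h 2|) (a : |w 5| ≤ e5) (a' : |tr κ h w 5| ≤ e5) :
    |w 1| ≤ Λ ^ 2 * (e5 + 2 * Λ * e) := by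
  have e1 : κ * (h 2 * w 1) = (tr κ h w 5 - w 5 + 4 * (κ * (h 1 * w 3))) / 2 := by
    rw [tr5_flat h0]; ring
  have b1 : |κ * (h 2 * w 1)| ≤ (e5 + e5 + 4 * (1 * (e * Λ))) / 2 := by
    rw [e1, abs_div, abs_two]
    exact div_le_div_of_nonneg_right (aa (as a' a) (ac (by norm_num) (am hκ (am h1 (hw 3)))))
      (by norm_num)
  have b2 := div_le hκ' b1 (by linarith)
  have b3 := div_le h2' b2 (by linarith)
  calc |w 1| ≤ _ := b3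
    _ = _ := by ring

/-- **step 3** : partner with `A` frozen, `c` spread: slot 3 (`B²`) is small -/
lemma step3 {Λ e e5 : ℝ} (hΛ : 1 ≤ Λ) (he : 0 ≤ e) (hκ : |κ| ≤ 1) (hκ' : 1 ≤ Λ * |κ|)
    (hw : ∀ j, |w j| ≤ Λ) (h0 : h 0 = 0) (h2 : |h 2| ≤ e)
    (h1' : 1 ≤ Λ * |h 1|) (a : |w 5| ≤ e5) (a' : |tr κ h w 5| ≤ e5) :
    |w 3| ≤ Λ ^ 2 * (e5 + Λ * e) := by
  have e1 : κ * (h 1 * w 3) = (w 5 - tr κ h w 5 + 2 * (κ * (h 2 * w 1))) / 4 := by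
    rw [tr5_flat h0]; ring
  have b1 : |κ * (h 1 * w 3)| ≤ (e5 + e5 + 2 * (1 * (e * Λ))) / 4 := by
    rw [e1, abs_div, abs_of_pos (by norm_num : (0:ℝ) < 4)]
    exact div_le_div_of_nonneg_right (aa (as a a') (ac (by norm_num) (am hκ (am h2 (hw 1)))))
      (by norm_num)
  have b2 := div_le hκ' b1 (by linarith)
  have b3 := div_le h1' b2 (by linarith)
  have h5 : 0 ≤ e5 := (abs_nonneg _).trans a
  calc |w 3| ≤ _ := b3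
    _ = Λ ^ 2 * (e5 + Λ * e) / 2 := by ring
    _ ≤ _ := by
      have : 0 ≤ Λ ^ 2 * (e5 + Λ * e) := by positivity
      linarith

/-- **step 4** : partner with `A` frozen, `c` spread: slot 10 (`B`) is small -/
lemma step4 {Λ e e3 e5 : ℝ} (hΛ : 1 ≤ Λ) (he : 0 ≤ e) (he1 : e ≤ 1) (hκ : |κ| ≤ 1)
    (hκ' : 1 ≤ Λ * |κ|) (hw : ∀ j, |w j| ≤ Λ) (h0 : h 0 = 0) (h1 : |h 1| ≤ Λ) (h2 : |h 2| ≤ e)
    (h3 : |h 3| ≤ Λ) (h1' : 1 ≤ Λ * |h 1|) (a : |w 11| ≤ e) (a' : |tr κ h w 11| ≤ e)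
    (b5 : |w 5| ≤ e5) (b3 : |w 3| ≤ e3) :
    |w 10| ≤ Λ ^ 2 * (9 * Λ ^ 2 * e + Λ * e5 + 2 * Λ ^ 2 * e3) := by
  have h2' : |h 2| ≤ 1 := h2.trans he1
  have c1 : |4 * κ ^ 2 * h 2 ^ 2 * w 0 - 2 * κ ^ 2 * h 1 * h 2 * w 1 + 2 * κ * h 3 * w 1 +
      3 * κ * h 2 * w 2 - 2 * κ * h 1 * w 5 + 2 * w 6| ≤ 4 * 1 ^ 2 * 1 ^ 2 * Λ +
      2 * 1 ^ 2 * Λ * 1 * Λ + 2 * 1 * Λ * Λ + 3 * 1 * 1 * Λ + 2 * 1 * Λ * Λ + 2 * Λ := by
    refine aa (as (aa (aa (as ?_ ?_) ?_) ?_) ?_) ?_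
    · exact am (am (ac (by norm_num) (ap 2 hκ)) (ap 2 h2')) (hw 0)
    · exact am (am (am (ac (by norm_num) (ap 2 hκ)) h1) h2') (hw 1)
    · exact am (am (ac (by norm_num) hκ) h3) (hw 1)
    · exact am (am (ac (by norm_num) hκ) h2') (hw 2)
    · exact am (am (ac (by norm_num) hκ) h1) (hw 5)
    · exact ac (by norm_num) (hw 6)
  have e1 : κ * (h 1 * w 10) = (w 11 - tr κ h w 11 + h 3 * w 5 +
      h 2 * (4 * κ ^ 2 * h 2 ^ 2 * w 0 -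
      2 * κ ^ 2 * h 1 * h 2 * w 1 + 2 * κ * h 3 * w 1 +
      3 * κ * h 2 * w 2 - 2 * κ * h 1 * w 5 + 2 * w 6) - 4 * (κ * (h 1 * (h 3 * w 3)))) / 2 := by
    rw [tr11_flat h0]; ring
  have c2 : |κ * (h 1 * w 10)| ≤ (e + e + Λ * e5 + e * (4 * 1 ^ 2 * 1 ^ 2 * Λ +
      2 * 1 ^ 2 * Λ * 1 * Λ + 2 * 1 * Λ * Λ + 3 * 1 * 1 * Λ + 2 * 1 * Λ * Λ + 2 * Λ) +
      4 * (1 * (Λ * (Λ * e3)))) / 2 := by
    rw [e1, abs_div, abs_two]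
    exact div_le_div_of_nonneg_right (as (aa (aa (as a a') (am h3 b5)) (am h2 c1))
      (ac (by norm_num) (am hκ (am h1 (am h3 b3))))) (by norm_num)
  have c3 : |κ * (h 1 * w 10)| ≤ 9 * Λ ^ 2 * e + Λ * e5 + 2 * Λ ^ 2 * e3 := by
    refine c2.trans ?_
    have d1 : Λ ≤ Λ ^ 2 := by nlinarith
    have d2 : (1 : ℝ) ≤ Λ ^ 2 := by nlinarith
    have d5 : 0 ≤ Λ * e5 := mul_nonneg (by linarith) ((abs_nonneg _).trans b5)
    nlinarith [mul_nonneg he (sub_nonneg.2 d1), mul_nonneg he (sub_nonneg.2 d2)]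
  have c4 := div_le hκ' c3 (by linarith)
  have c5 := div_le h1' c4 (by linarith)
  calc |w 10| ≤ _ := c5
    _ = _ := by ring

/-- three values of `a x + b x² + c x³` at separated points -/
lemma cubic {a b c x y z Λ E : ℝ} (hΛ : 1 ≤ Λ) (hx : |x| ≤ Λ) (hy : |y| ≤ Λ) (hz : |z| ≤ Λ)
    (hx' : 1 ≤ Λ * |x|) (hy' : 1 ≤ Λ * |y|) (hz' : 1 ≤ Λ * |z|) (hxy : 1 ≤ Λ * |x - y|)
    (hxz : 1 ≤ Λ * |x - z|) (hyz : 1 ≤ Λ * |y - z|)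
    (h1 : |a * x + b * x ^ 2 + c * x ^ 3| ≤ E) (h2 : |a * y + b * y ^ 2 + c * y ^ 3| ≤ E)
    (h3 : |a * z + b * z ^ 2 + c * z ^ 3| ≤ E) :
    |c| ≤ 4 * Λ ^ 3 * E ∧ |b| ≤ 10 * Λ ^ 4 * E ∧ |a| ≤ 15 * Λ ^ 5 * E := by
  have hΛ0 : 0 ≤ Λ := by linarith
  have hE : 0 ≤ E := (abs_nonneg _).trans h1
  have p1 : |a + b * x + c * x ^ 2| ≤ Λ * E := by
    refine div_le hx' ?_ hΛ0
    have : x * (a + b * x + c * x ^ 2) = a * x + b * x ^ 2 + c * x ^ 3 := by ring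
    rwa [this]
  have p2 : |a + b * y + c * y ^ 2| ≤ Λ * E := by
    refine div_le hy' ?_ hΛ0
    have : y * (a + b * y + c * y ^ 2) = a * y + b * y ^ 2 + c * y ^ 3 := by ring
    rwa [this]
  have p3 : |a + b * z + c * z ^ 2| ≤ Λ * E := by
    refine div_le hz' ?_ hΛ0
    have : z * (a + b * z + c * z ^ 2) = a * z + b * z ^ 2 + c * z ^ 3 := by ring
    rwa [this]
  have q1 : |b + c * (x + y)| ≤ Λ * (Λ * E + Λ * E) := by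
    refine div_le hxy ?_ hΛ0
    have : (x - y) * (b + c * (x + y)) = (a + b * x + c * x ^ 2) - (a + b * y + c * y ^ 2) := by
      ring
    rw [this]
    exact as p1 p2
  have q2 : |b + c * (x + z)| ≤ Λ * (Λ * E + Λ * E) := by
    refine div_le hxz ?_ hΛ0
    have : (x - z) * (b + c * (x + z)) = (a + b * x + c * x ^ 2) - (a + b * z + c * z ^ 2) := by
      ring
    rw [this]
    exact as p1 p3
  have r1 : |c| ≤ Λ * (Λ * (Λ * E + Λ * E) + Λ * (Λ * E + Λ * E)) := by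
    refine div_le hyz ?_ hΛ0
    have : (y - z) * c = (b + c * (x + y)) - (b + c * (x + z)) := by ring
    rw [this]
    exact as q1 q2
  have r1' : |c| ≤ 4 * Λ ^ 3 * E := r1.trans (le_of_eq (by ring))
  have r2 : |b| ≤ Λ * (Λ * E + Λ * E) + 4 * Λ ^ 3 * E * (Λ + Λ) := by
    have : b = (b + c * (x + y)) - c * (x + y) := by ring
    rw [this]
    exact as q1 (am r1' (aa hx hy))
  have k1 : (1 : ℝ) ≤ Λ ^ 2 := by nlinarith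
  have r2' : |b| ≤ 10 * Λ ^ 4 * E := by
    refine r2.trans ?_
    nlinarith [mul_nonneg (mul_nonneg (sq_nonneg Λ) hE) (sub_nonneg.2 k1)]
  have r3 : |a| ≤ Λ * E + 10 * Λ ^ 4 * E * Λ + 4 * Λ ^ 3 * E * Λ ^ 2 := by
    have : a = (a + b * x + c * x ^ 2) - b * x - c * x ^ 2 := by ring
    rw [this]
    exact as (as p1 (am r2' hx)) (am r1' (ap 2 hx))
  have r3' : |a| ≤ 15 * Λ ^ 5 * E := by
    refine r3.trans ?_
    have k2 : (1 : ℝ) ≤ Λ ^ 4 := by nlinarith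
    nlinarith [mul_nonneg (mul_nonneg hΛ0 hE) (sub_nonneg.2 k2)]
  exact ⟨r1', r2', r3'⟩

/-- **step 5** : three partners with `A` spread: slots 6 (`A²`), 2 (`AY`), 0 (`Y²`) are small -/
lemma step5 {Λ e E : ℝ} (hΛ : 1 ≤ Λ) (he : 0 ≤ e) (hE : e ≤ E) (hκ : |κ| ≤ 1)
    (hκ' : 1 ≤ Λ * |κ|) (b5 : |w 5| ≤ E) (b1 : |w 1| ≤ E) (b3 : |w 3| ≤ E) (b10 : |w 10| ≤ E)
    (g : Fin 3 → Fin 4 → ℝ) (g0 : ∀ i, g i 0 = 0) (g1 : ∀ i, |g i 1| ≤ Λ)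
    (g2 : ∀ i, |g i 2| ≤ Λ) (g3 : ∀ i, |g i 3| ≤ Λ) (g2' : ∀ i, 1 ≤ Λ * |g i 2|)
    (g01 : 1 ≤ Λ * |g 0 2 - g 1 2|) (g02 : 1 ≤ Λ * |g 0 2 - g 2 2|)
    (g12 : 1 ≤ Λ * |g 1 2 - g 2 2|)
    (a : |w 11| ≤ e) (a' : ∀ i, |tr κ (g i) w 11| ≤ e) :
    |w 0| ≤ 15 * Λ ^ 8 * E ∧ |w 2| ≤ 50 * Λ ^ 8 * E ∧ |w 6| ≤ 113 * Λ ^ 8 * E := by
  have hΛ0 : 0 ≤ Λ := by linarith
  have hE0 : 0 ≤ E := he.trans hE
  have key : ∀ i, |(2 * w 6) * g i 2 + (3 * κ * w 2) * g i 2 ^ 2 +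
      (4 * κ ^ 2 * w 0) * g i 2 ^ 3| ≤ 15 * Λ ^ 3 * E := by
    intro i
    have e1 : (2 * w 6) * g i 2 + (3 * κ * w 2) * g i 2 ^ 2 + (4 * κ ^ 2 * w 0) * g i 2 ^ 3 =
        tr κ (g i) w 11 - w 11 - g i 3 * w 5 + 2 * (κ ^ 2 * (g i 1 * (g i 2 ^ 2 * w 1))) -
        2 * (κ * (g i 2 * (g i 3 * w 1))) + 4 * (κ * (g i 1 * (g i 3 * w 3))) +
        2 * (κ * (g i 1 * (g i 2 * w 5))) + 2 * (κ * (g i 1 * w 10)) := by
      rw [tr11_flat (g0 i)]; ring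
    have c1 : |(2 * w 6) * g i 2 + (3 * κ * w 2) * g i 2 ^ 2 + (4 * κ ^ 2 * w 0) * g i 2 ^ 3| ≤
        E + E + Λ * E + 2 * (1 ^ 2 * (Λ * (Λ ^ 2 * E))) +
        2 * (1 * (Λ * (Λ * E))) + 4 * (1 * (Λ * (Λ * E))) +
        2 * (1 * (Λ * (Λ * E))) + 2 * (1 * (Λ * E)) := by
      rw [e1]
      refine aa (aa (aa (as (aa (as (as ((a' i).trans hE) (a.trans hE)) (am (g3 i) b5)) ?_)
        ?_) ?_) ?_) ?_
      · exact ac (by norm_num) (am (ap 2 hκ) (am (g1 i) (am (ap 2 (g2 i)) b1)))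
      · exact ac (by norm_num) (am hκ (am (g2 i) (am (g3 i) b1)))
      · exact ac (by norm_num) (am hκ (am (g1 i) (am (g3 i) b3)))
      · exact ac (by norm_num) (am hκ (am (g1 i) (am (g2 i) b5)))
      · exact ac (by norm_num) (am hκ (am (g1 i) b10))
    refine c1.trans ?_
    have d1 : (1 : ℝ) ≤ Λ ^ 2 := by nlinarith
    have d2 : Λ ≤ Λ ^ 3 := by nlinarith
    have d3 : Λ ^ 2 ≤ Λ ^ 3 := by nlinarith
    have d4 : (1 : ℝ) ≤ Λ ^ 3 := hΛ.trans d2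
    nlinarith [mul_nonneg hE0 (sub_nonneg.2 d2), mul_nonneg hE0 (sub_nonneg.2 d3),
      mul_nonneg hE0 (sub_nonneg.2 d4)]
  obtain ⟨k1, k2, k3⟩ := cubic hΛ (g2 0) (g2 1) (g2 2) (g2' 0) (g2' 1) (g2' 2) g01 g02 g12
    (key 0) (key 1) (key 2)
  have hΛ2 : (1 : ℝ) ≤ Λ ^ 2 := by nlinarith
  have hΛ7 : Λ ^ 7 ≤ Λ ^ 8 := pow_le_pow_right₀ hΛ (by norm_num)
  refine ⟨?_, ?_, ?_⟩
  · have m1 : |κ * (κ * w 0)| ≤ 15 * Λ ^ 6 * E := by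
      have : κ * (κ * w 0) = (4 * κ ^ 2 * w 0) / 4 := by ring
      rw [this, abs_div, abs_of_pos (by norm_num : (0:ℝ) < 4), div_le_iff₀ (by norm_num)]
      exact k1.trans (le_of_eq (by ring))
    have m2 := div_le hκ' m1 hΛ0
    have m3 := div_le hκ' m2 hΛ0
    exact m3.trans (le_of_eq (by ring))
  · have m1 : |κ * w 2| ≤ 50 * Λ ^ 7 * E := by
      have : κ * w 2 = (3 * κ * w 2) / 3 := by ring
      rw [this, abs_div, abs_of_pos (by norm_num : (0:ℝ) < 3), div_le_iff₀ (by norm_num)]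
      exact k2.trans (le_of_eq (by ring))
    have m2 := div_le hκ' m1 hΛ0
    exact m2.trans (le_of_eq (by ring))
  · have m1 : |w 6| ≤ 225 * Λ ^ 8 * E / 2 := by
      have : w 6 = (2 * w 6) / 2 := by ring
      rw [this, abs_div, abs_two]
      exact div_le_div_of_nonneg_right (k3.trans (le_of_eq (by ring))) (by norm_num)
    have : 0 ≤ Λ ^ 8 * E := by positivity
    linarith

/-- the slots of the N-jet -/
def Njet : Finset (Fin 14) := {0, 1, 2, 3, 5, 6, 10, 11}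

/-- **all slots of the N-jet from the A-slot** (normalised coordinates).  `v T` = own rotation of
`T` in the frame of `T`, `hh T T'` = frame of `T'` seen from `T`, `S1` = lines which have a partner
with `(c, A)` frozen and `B` spread. -/
theorem all_small {Λ e : ℝ} (hΛ : 1 ≤ Λ) (he : 0 ≤ e) (he1 : 2 * e ≤ 1) (hκ : |κ| ≤ 1)
    (hκ' : 1 ≤ Λ * |κ|) {ι : Type*} (v : ι → Fin 14 → ℝ) (hh : ι → ι → Fin 4 → ℝ) (S S1 : Set ι)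
    (hS1 : S1 ⊆ S) (hv : ∀ T ∈ S, ∀ j, |v T j| ≤ Λ) (hv11 : ∀ T ∈ S, |v T 11| ≤ e)
    (hh0 : ∀ T ∈ S, ∀ T' ∈ S, hh T T' 0 = 0) (hhΛ : ∀ T ∈ S, ∀ T' ∈ S, ∀ i, |hh T T' i| ≤ Λ)
    (r11 : ∀ T ∈ S, ∀ T' ∈ S, |v T' 11 - tr κ (hh T T') (v T) 11| ≤ e)
    (r5 : ∀ T ∈ S, ∀ T' ∈ S, |v T' 5 - tr κ (hh T T') (v T) 5| ≤ e)
    (p1 : ∀ T ∈ S1, ∃ T' ∈ S, |hh T T' 1| ≤ e ∧ |hh T T' 2| ≤ e ∧ 1 ≤ Λ * |hh T T' 3|)
    {T : ι} (hT : T ∈ S1)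
    (p2 : ∃ T' ∈ S1, |hh T T' 1| ≤ e ∧ 1 ≤ Λ * |hh T T' 2|)
    (p3 : ∃ T' ∈ S1, |hh T T' 2| ≤ e ∧ 1 ≤ Λ * |hh T T' 1|)
    (p5 : ∃ f : Fin 3 → ι, (∀ i, f i ∈ S) ∧ (∀ i, 1 ≤ Λ * |hh T (f i) 2|) ∧
      1 ≤ Λ * |hh T (f 0) 2 - hh T (f 1) 2| ∧ 1 ≤ Λ * |hh T (f 0) 2 - hh T (f 2) 2| ∧
      1 ≤ Λ * |hh T (f 1) 2 - hh T (f 2) 2|) :
    ∀ j ∈ Njet, |v T j| ≤ 20000 * Λ ^ 17 * e := by
  have hΛ0 : 0 ≤ Λ := by linarith
  have hΛk : ∀ k : ℕ, (1 : ℝ) ≤ Λ ^ k := fun k => one_le_pow₀ hΛ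
  have h11 : ∀ T ∈ S, ∀ T' ∈ S, |tr κ (hh T T') (v T) 11| ≤ 2 * e := by
    intro T hT T' hT'
    have := aa (r11 T hT T' hT') (hv11 T' hT')
    have e1 : tr κ (hh T T') (v T) 11 = -(v T' 11 - tr κ (hh T T') (v T) 11) + v T' 11 := by ring
    rw [e1]
    exact (aa (an (r11 T hT T' hT')) (hv11 T' hT')).trans (by linarith)
  have s5 : ∀ T ∈ S1, |v T 5| ≤ 46 * Λ ^ 3 * e := by
    intro T hT
    obtain ⟨T', hT', a1, a2, a3⟩ := p1 T hT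
    have := step1 hΛ (by linarith : 0 ≤ 2 * e) he1 hκ (hv T (hS1 hT)) (hh0 T (hS1 hT) T' hT')
      (a1.trans (by linarith)) (a2.trans (by linarith)) (hhΛ T (hS1 hT) T' hT' 3) a3
      ((hv11 T (hS1 hT)).trans (by linarith)) (h11 T (hS1 hT) T' hT')
    linarith
  have s5' : ∀ T ∈ S1, ∀ T' ∈ S1, |tr κ (hh T T') (v T) 5| ≤ 47 * Λ ^ 3 * e := by
    intro T hT T' hT'
    have e1 : tr κ (hh T T') (v T) 5 = -(v T' 5 - tr κ (hh T T') (v T) 5) + v T' 5 := by ring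
    rw [e1]
    refine (aa (an (r5 T (hS1 hT) T' (hS1 hT'))) (s5 T' hT')).trans ?_
    nlinarith [mul_nonneg he (sub_nonneg.2 (hΛk 3))]
  have hTS := hS1 hT
  have b5 := s5 T hT
  -- slot 1
  obtain ⟨T2, hT2, a1, a2⟩ := p2
  have b1 : |v T 1| ≤ 51 * Λ ^ 5 * e := by
    have := step2 hΛ he hκ hκ' (hv T hTS) (hh0 T hTS T2 (hS1 hT2)) a1 a2
      (b5.trans (by nlinarith [mul_nonneg he (hΛ0.trans (by linarith : Λ ≤ Λ)), mul_nonneg he (pow_nonneg hΛ0 3)] : 46 * Λ ^ 3 * e ≤ 47 * Λ ^ 3 * e)) (s5' T hT T2 hT2)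
    refine this.trans ?_
    have d : Λ ^ 3 ≤ Λ ^ 5 := pow_le_pow_right₀ hΛ (by norm_num)
    have : Λ ^ 2 * (47 * Λ ^ 3 * e + 2 * Λ * e) = 47 * Λ ^ 5 * e + 2 * (Λ ^ 3 * e) := by ring
    rw [this]
    nlinarith [mul_nonneg he (sub_nonneg.2 d), mul_nonneg he (pow_nonneg hΛ0 5)]
  -- slots 3 and 10
  obtain ⟨T3, hT3, a3, a4⟩ := p3
  have b3 : |v T 3| ≤ 51 * Λ ^ 5 * e := by
    have := step3 hΛ he hκ hκ' (hv T hTS) (hh0 T hTS T3 (hS1 hT3)) a3 a4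
      (b5.trans (by nlinarith [mul_nonneg he (pow_nonneg hΛ0 3)] : 46 * Λ ^ 3 * e ≤ 47 * Λ ^ 3 * e))
      (s5' T hT T3 hT3)
    refine this.trans ?_
    have d : Λ ^ 3 ≤ Λ ^ 5 := pow_le_pow_right₀ hΛ (by norm_num)
    have : Λ ^ 2 * (47 * Λ ^ 3 * e + Λ * e) = 47 * Λ ^ 5 * e + (Λ ^ 3 * e) := by ring
    rw [this]
    nlinarith [mul_nonneg he (sub_nonneg.2 d), mul_nonneg he (pow_nonneg hΛ0 5)]
  have b10 : |v T 10| ≤ 170 * Λ ^ 9 * e := by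
    have := step4 hΛ (by linarith : 0 ≤ 2 * e) he1 hκ hκ' (hv T hTS)
      (hh0 T hTS T3 (hS1 hT3)) (hhΛ T hTS T3 (hS1 hT3) 1) (a3.trans (by linarith))
      (hhΛ T hTS T3 (hS1 hT3) 3) a4 ((hv11 T hTS).trans (by linarith)) (h11 T hTS T3 (hS1 hT3))
      b5 b3
    refine this.trans ?_
    have e1 : Λ ^ 2 * (9 * Λ ^ 2 * (2 * e) + Λ * (46 * Λ ^ 3 * e) + 2 * Λ ^ 2 * (51 * Λ ^ 5 * e)) =
        18 * (Λ ^ 4 * e) + 46 * (Λ ^ 6 * e) + 102 * (Λ ^ 9 * e) := by ring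
    rw [e1]
    have d1 : Λ ^ 4 * e ≤ Λ ^ 9 * e :=
      mul_le_mul_of_nonneg_right (pow_le_pow_right₀ hΛ (by norm_num)) he
    have d2 : Λ ^ 6 * e ≤ Λ ^ 9 * e :=
      mul_le_mul_of_nonneg_right (pow_le_pow_right₀ hΛ (by norm_num)) he
    have d3 : 0 ≤ Λ ^ 9 * e := by positivity
    linarith
  -- slots 6, 2, 0
  have up : ∀ k m : ℕ, k ≤ m → Λ ^ k * e ≤ Λ ^ m * e := fun k m hkm =>
    mul_le_mul_of_nonneg_right (pow_le_pow_right₀ hΛ hkm) he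
  have u9 : 0 ≤ Λ ^ 9 * e := by positivity
  have u17 : 0 ≤ Λ ^ 17 * e := by positivity
  obtain ⟨f, f1, f2, f3, f4, f5⟩ := p5
  obtain ⟨c0, c2, c6⟩ := step5 (E := 170 * Λ ^ 9 * e) hΛ (by linarith : 0 ≤ 2 * e) (by
      have := up 0 9 (by norm_num)
      rw [pow_zero, one_mul] at this
      linarith) hκ hκ'
    (b5.trans (by have := up 3 9 (by norm_num); linarith))
    (b1.trans (by have := up 5 9 (by norm_num); linarith))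
    (b3.trans (by have := up 5 9 (by norm_num); linarith)) b10
    (fun i => hh T (f i)) (fun i => hh0 T hTS _ (f1 i)) (fun i => hhΛ T hTS _ (f1 i) 1)
    (fun i => hhΛ T hTS _ (f1 i) 2) (fun i => hhΛ T hTS _ (f1 i) 3) f2 f3 f4 f5
    ((hv11 T hTS).trans (by linarith)) (fun i => h11 T hTS _ (f1 i))
  intro j hj
  have hj' : j = 0 ∨ j = 1 ∨ j = 2 ∨ j = 3 ∨ j = 5 ∨ j = 6 ∨ j = 10 ∨ j = 11 := by
    simpa [Njet] using hj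
  have v0 := up 0 17 (by norm_num)
  have v3 := up 3 17 (by norm_num)
  have v5 := up 5 17 (by norm_num)
  have v9 := up 9 17 (by norm_num)
  rw [pow_zero, one_mul] at v0
  rcases hj' with rfl | rfl | rfl | rfl | rfl | rfl | rfl | rfl
  · refine c0.trans ?_
    have : 15 * Λ ^ 8 * (170 * Λ ^ 9 * e) = 2550 * (Λ ^ 17 * e) := by ring
    linarith
  · linarith
  · refine c2.trans ?_
    have : 50 * Λ ^ 8 * (170 * Λ ^ 9 * e) = 8500 * (Λ ^ 17 * e) := by ring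
    linarith
  · linarith
  · linarith
  · refine c6.trans ?_
    have : 113 * Λ ^ 8 * (170 * Λ ^ 9 * e) = 19210 * (Λ ^ 17 * e) := by ring
    linarith
  · linarith
  · linarith [hv11 T hTS]

/-! ### the slots `zA, zB, zY` from the cocycle in the heights -/

/-- own rotations of one line: `v12 : z₁ → z₂`, `v23`, `v13`; `v13 = v23 + tr (sh u) v12` -/
theorem slots_z {κ u Λ e : ℝ} (hΛ : 1 ≤ Λ) (hκ' : 1 ≤ Λ * |κ|) (hu' : 1 ≤ Λ * |u|)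
    (hu : |u| ≤ 1) {v12 v23 v13 : Fin 14 → ℝ} (hc : ∀ j, |v13 j - v23 j - tr κ (sh u) v12 j| ≤ e)
    (h12 : ∀ j ∈ Njet, |v12 j| ≤ e) (h23 : ∀ j ∈ Njet, |v23 j| ≤ e)
    (h13 : ∀ j ∈ Njet, |v13 j| ≤ e) :
    |v12 8| ≤ 4 * Λ * e ∧ |v12 4| ≤ 4 * Λ ^ 2 * e ∧ |v12 7| ≤ 8 * Λ ^ 3 * e := by
  have hΛ0 : 0 ≤ Λ := by linarith
  have he : 0 ≤ e := (abs_nonneg _).trans (hc 0)
  have m6 : (6 : Fin 14) ∈ Njet := by decide
  have m10 : (10 : Fin 14) ∈ Njet := by decide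
  have m11 : (11 : Fin 14) ∈ Njet := by decide
  have k8 : |u * v12 8| ≤ 4 * e := by
    have e1 : u * v12 8 = v13 11 - v23 11 - v12 11 - (v13 11 - v23 11 - tr κ (sh u) v12 11) := by
      rw [tr_sh11]; ring
    rw [e1]
    exact (as (as (as (h13 _ m11) (h23 _ m11)) (h12 _ m11)) (hc 11)).trans (by linarith)
  have k4 : |κ * (u * v12 4)| ≤ 4 * e := by
    have e1 : κ * (u * v12 4) = v13 6 - v23 6 - v12 6 - (v13 6 - v23 6 - tr κ (sh u) v12 6) := by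
      rw [tr_sh6]; ring
    rw [e1]
    exact (as (as (as (h13 _ m6) (h23 _ m6)) (h12 _ m6)) (hc 6)).trans (by linarith)
  have k4' := div_le hu' (div_le hκ' k4 hΛ0) hΛ0
  have k4'' : |v12 4| ≤ 4 * Λ ^ 2 * e := k4'.trans (le_of_eq (by ring))
  have k7 : |u * v12 7| ≤ 4 * e + 1 ^ 2 * (4 * Λ ^ 2 * e) := by
    have e1 : u * v12 7 = (v13 10 - v23 10 - v12 10 - (v13 10 - v23 10 - tr κ (sh u) v12 10)) -
        u ^ 2 * v12 4 := by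
      rw [tr_sh10]; ring
    rw [e1]
    refine as ?_ (am (ap 2 hu) k4'')
    exact (as (as (as (h13 _ m10) (h23 _ m10)) (h12 _ m10)) (hc 10)).trans (by linarith)
  refine ⟨(div_le hu' k8 hΛ0).trans (le_of_eq (by ring)), k4'', ?_⟩
  refine (div_le hu' k7 hΛ0).trans ?_
  have d : Λ * e ≤ Λ ^ 3 * e :=
    mul_le_mul_of_nonneg_right (by nlinarith [mul_nonneg hΛ0 (mul_nonneg hΛ0 (sub_nonneg.2 hΛ))]) he
  have : Λ * (4 * e + 1 ^ 2 * (4 * Λ ^ 2 * e)) = 4 * (Λ * e) + 4 * (Λ ^ 3 * e) := by ring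
  rw [this]
  linarith

end Crest.Agent.R136.Rec619
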