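import Crest.Agent.R136.Gr2_356

/-!
# R136, resonances of the thin chart (helper648), part 1: counting over 356's models

* `pair_cell` : for every popular pair of heights `(k, k')` (many common alive lines) there are two
  common lines in one cell of the box `p` at the height `k` which are not in one cell of `Q t`.
* `pair_many` : there are a height `k₀` and two lines `i, l` in one cell of `p` at `k₀`, not in one
  cell of `Q t`, and a `ρ^(C ε)`-part of the pairs `(k, k')` of heights at which both are alive and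
  `r`-close; all pairs among `k₀, k, k'` are popular.
-/

set_option autoImplicit false
set_option linter.unusedVariables false
set_option linter.unusedSectionVars false

open Filter Topology Finset

namespace Crest.Agent.R136.Res1648

open Crest.Agent.R138.Ex926 (Base U)
open Crest.Agent.R136.Gf356

/-! ### finite combinatorics -/

/-- pairs in one fibre -/
theorem sq_pairs {α β : Type*} [DecidableEq α] [DecidableEq β] (T : Finset α) (f : α → β) :
    (T.card : ℝ) ^ 2 ≤ ((T.image f).card : ℝ) *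
      (((T ×ˢ T).filter fun q => f q.1 = f q.2).card : ℝ) := by
  have h1 : (T.card : ℝ) = ∑ c ∈ T.image f, ((T.filter fun i => f i = c).card : ℝ) := by
    have : T.card = ∑ c ∈ T.image f, (T.filter fun i => f i = c).card :=
      Finset.card_eq_sum_card_fiberwise fun i hi => Finset.mem_image_of_mem _ hi
    exact_mod_cast this
  have h2 := sq_sum_le_card_mul_sum_sq (s := T.image f)
    (f := fun c => ((T.filter fun i => f i = c).card : ℝ))
  rw [← h1] at h2
  refine h2.trans (mul_le_mul_of_nonneg_left ?_ (Nat.cast_nonneg _))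
  have h3 : ((T ×ˢ T).filter fun q => f q.1 = f q.2).card =
      ∑ c ∈ T.image f, (((T ×ˢ T).filter fun q => f q.1 = f q.2).filter
        fun q => f q.1 = c).card :=
    Finset.card_eq_sum_card_fiberwise fun q hq =>
      Finset.mem_image_of_mem _ (mem_product.1 (mem_filter.1 hq).1).1
  rw [h3]
  push_cast
  refine sum_le_sum fun c _ => ?_
  have h4 : (T.filter fun i => f i = c) ×ˢ (T.filter fun i => f i = c) ⊆
      ((T ×ˢ T).filter fun q => f q.1 = f q.2).filter fun q => f q.1 = c := by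
    intro q hq
    obtain ⟨a, b⟩ := mem_product.1 hq
    obtain ⟨a1, a2⟩ := mem_filter.1 a
    obtain ⟨b1, b2⟩ := mem_filter.1 b
    exact mem_filter.2 ⟨mem_filter.2 ⟨mem_product.2 ⟨a1, b1⟩, a2.trans b2.symm⟩, a2⟩
  have h5 := card_le_card h4
  rw [card_product] at h5
  rw [sq]
  exact_mod_cast h5

open Classical in
/-- rich triples of heights -/
theorem rich_triples {ι : Type*} [DecidableEq ι] (L : Finset ι) (Z : Finset ℕ)
    (al : ι → ℕ → Prop) {θ : ℝ} (hθ : 0 < θ) (hL : L.Nonempty) (hZ : Z.Nonempty)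
    (hal : ∀ i ∈ L, θ * (Z.card : ℝ) ≤ ((Z.filter fun k => al i k).card : ℝ)) :
    ∃ k₀ ∈ Z, θ ^ 3 / 2 * (Z.card : ℝ) ^ 2 ≤ (((Z ×ˢ Z).filter fun q =>
      θ ^ 3 / 2 * (L.card : ℝ) ≤
        ((L.filter fun i => al i k₀ ∧ al i q.1 ∧ al i q.2).card : ℝ)).card : ℝ) := by
  have hZ0 : (0 : ℝ) < Z.card := by exact_mod_cast hZ.card_pos
  have hL0 : (0 : ℝ) < L.card := by exact_mod_cast hL.card_pos
  set N : ℕ → ℕ × ℕ → ℝ := fun k₀ q =>
    ((L.filter fun i => al i k₀ ∧ al i q.1 ∧ al i q.2).card : ℝ) with hN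
  set R : ℕ → Finset (ℕ × ℕ) := fun k₀ => (Z ×ˢ Z).filter fun q => θ ^ 3 / 2 * (L.card : ℝ) ≤ N k₀ q
    with hR
  by_contra hcon
  push Not at hcon
  have h1 : ∑ k₀ ∈ Z, ∑ q ∈ Z ×ˢ Z, N k₀ q =
      ∑ i ∈ L, ((Z.filter fun k => al i k).card : ℝ) ^ 3 := by
    have e1 : ∀ k₀ q, N k₀ q = ∑ i ∈ L, (if al i k₀ then (1 : ℝ) else 0) *
        ((if al i q.1 then 1 else 0) * (if al i q.2 then 1 else 0)) := by
      intro k₀ q
      simp only [hN]
      rw [card_filter]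
      push_cast
      refine sum_congr rfl fun i _ => ?_
      by_cases h1 : al i k₀ <;> by_cases h2 : al i q.1 <;> by_cases h3 : al i q.2 <;>
        simp [h1, h2, h3]
    have e2 : ∀ i, ((Z.filter fun k => al i k).card : ℝ) = ∑ k ∈ Z, if al i k then (1 : ℝ) else 0 := by
      intro i
      rw [card_filter]
      push_cast
      rfl
    simp only [e1, e2]
    calc ∑ k₀ ∈ Z, ∑ q ∈ Z ×ˢ Z, ∑ i ∈ L, (if al i k₀ then (1 : ℝ) else 0) *
          ((if al i q.1 then 1 else 0) * (if al i q.2 then 1 else 0))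
        = ∑ k₀ ∈ Z, ∑ i ∈ L, ∑ q ∈ Z ×ˢ Z, (if al i k₀ then (1 : ℝ) else 0) *
          ((if al i q.1 then 1 else 0) * (if al i q.2 then 1 else 0)) :=
          sum_congr rfl fun k₀ _ => sum_comm
      _ = ∑ i ∈ L, ∑ k₀ ∈ Z, ∑ q ∈ Z ×ˢ Z, (if al i k₀ then (1 : ℝ) else 0) *
          ((if al i q.1 then 1 else 0) * (if al i q.2 then 1 else 0)) := sum_comm
      _ = _ := by
          refine sum_congr rfl fun i _ => ?_
          have e3 : ∀ k₀, ∑ q ∈ Z ×ˢ Z, (if al i k₀ then (1 : ℝ) else 0) *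
              ((if al i q.1 then 1 else 0) * (if al i q.2 then 1 else 0)) =
              (if al i k₀ then (1 : ℝ) else 0) *
                ((∑ k ∈ Z, if al i k then (1 : ℝ) else 0) *
                  (∑ k ∈ Z, if al i k then (1 : ℝ) else 0)) := by
            intro k₀
            rw [← mul_sum, sum_product, sum_mul_sum]
          simp only [e3]
          rw [← sum_mul]
          ring
  have h2 : (L.card : ℝ) * (θ ^ 3 * (Z.card : ℝ) ^ 3) ≤
      ∑ i ∈ L, ((Z.filter fun k => al i k).card : ℝ) ^ 3 := by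
    calc (L.card : ℝ) * (θ ^ 3 * (Z.card : ℝ) ^ 3) = ∑ i ∈ L, θ ^ 3 * (Z.card : ℝ) ^ 3 := by
          rw [sum_const, nsmul_eq_mul]
      _ ≤ _ := sum_le_sum fun i hi => by
          rw [← mul_pow]
          exact pow_le_pow_left₀ (by positivity) (hal i hi) 3
  have h3 : ∀ k₀ ∈ Z, ∑ q ∈ Z ×ˢ Z, N k₀ q < θ ^ 3 * (Z.card : ℝ) ^ 2 * L.card := by
    intro k₀ hk₀
    have hlt := hcon k₀ hk₀
    have e1 : ∑ q ∈ Z ×ˢ Z, N k₀ q = ∑ q ∈ R k₀, N k₀ q +
        ∑ q ∈ (Z ×ˢ Z).filter (fun q => ¬ (θ ^ 3 / 2 * (L.card : ℝ) ≤ N k₀ q)), N k₀ q :=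
      (sum_filter_add_sum_filter_not _ _ _).symm
    have e2 : ∑ q ∈ R k₀, N k₀ q ≤ ((R k₀).card : ℝ) * L.card := by
      calc ∑ q ∈ R k₀, N k₀ q ≤ ∑ q ∈ R k₀, (L.card : ℝ) :=
            sum_le_sum fun q _ => by
              simp only [hN]
              exact_mod_cast card_le_card (filter_subset _ _)
        _ = _ := by rw [sum_const, nsmul_eq_mul]
    have e3 : ∑ q ∈ (Z ×ˢ Z).filter (fun q => ¬ (θ ^ 3 / 2 * (L.card : ℝ) ≤ N k₀ q)), N k₀ q ≤
        (Z.card : ℝ) ^ 2 * (θ ^ 3 / 2 * L.card) := by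
      calc _ ≤ ∑ q ∈ (Z ×ˢ Z).filter (fun q => ¬ (θ ^ 3 / 2 * (L.card : ℝ) ≤ N k₀ q)),
            θ ^ 3 / 2 * (L.card : ℝ) := sum_le_sum fun q hq => (not_le.1 (mem_filter.1 hq).2).le
        _ = (((Z ×ˢ Z).filter (fun q => ¬ (θ ^ 3 / 2 * (L.card : ℝ) ≤ N k₀ q))).card : ℝ) *
            (θ ^ 3 / 2 * L.card) := by rw [sum_const, nsmul_eq_mul]
        _ ≤ _ := by
            refine mul_le_mul_of_nonneg_right ?_ (by positivity)
            have := card_le_card (filter_subset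
              (fun q => ¬ (θ ^ 3 / 2 * (L.card : ℝ) ≤ N k₀ q)) (Z ×ˢ Z))
            rw [card_product] at this
            rw [sq]
            exact_mod_cast this
    have e4 : ((R k₀).card : ℝ) * L.card < θ ^ 3 / 2 * (Z.card : ℝ) ^ 2 * L.card :=
      mul_lt_mul_of_pos_right hlt hL0
    rw [e1]
    linarith
  have h4 : ∑ k₀ ∈ Z, ∑ q ∈ Z ×ˢ Z, N k₀ q < ∑ k₀ ∈ Z, θ ^ 3 * (Z.card : ℝ) ^ 2 * L.card :=
    sum_lt_sum_of_nonempty hZ h3
  rw [sum_const, nsmul_eq_mul, h1] at h4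
  have e5 : (Z.card : ℝ) * (θ ^ 3 * (Z.card : ℝ) ^ 2 * L.card) =
      (L.card : ℝ) * (θ ^ 3 * (Z.card : ℝ) ^ 3) := by ring
  rw [e5] at h4
  exact absurd h2 (not_le.2 h4)

open Classical in
/-- an element which is related to many -/
theorem exists_rel {α β : Type*} (X : Finset α) (Y : Finset β)
    (r : α → β → Prop) {a b : ℝ} (hb : 0 < b) (hY : Y.Nonempty) (ha : 0 < a)
    (hX : (X.card : ℝ) ≤ b) (hr : ∀ y ∈ Y, a ≤ ((X.filter fun x => r x y).card : ℝ)) :
    ∃ x ∈ X, a / b * (Y.card : ℝ) ≤ ((Y.filter fun y => r x y).card : ℝ) := by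
  have h1 : ∑ x ∈ X, ((Y.filter fun y => r x y).card : ℝ) =
      ∑ y ∈ Y, ((X.filter fun x => r x y).card : ℝ) := by
    have : ∑ x ∈ X, (Y.filter fun y => r x y).card = ∑ y ∈ Y, (X.filter fun x => r x y).card := by
      simp only [Finset.card_filter]
      exact Finset.sum_comm
    exact_mod_cast this
  have h2 : (Y.card : ℝ) * a ≤ ∑ x ∈ X, ((Y.filter fun y => r x y).card : ℝ) := by
    rw [h1]
    calc (Y.card : ℝ) * a = ∑ y ∈ Y, a := by rw [sum_const, nsmul_eq_mul]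
      _ ≤ _ := sum_le_sum hr
  by_contra hcon
  push Not at hcon
  obtain ⟨y, hy⟩ := hY
  have hY0 : (0 : ℝ) < Y.card := by exact_mod_cast card_pos.2 ⟨y, hy⟩
  have hXne : X.Nonempty := by
    have h3 : 0 < ((X.filter fun x => r x y).card : ℝ) := lt_of_lt_of_le ha (hr y hy)
    have h4 : 0 < (X.filter fun x => r x y).card := by exact_mod_cast h3
    obtain ⟨x, hx⟩ := card_pos.1 h4
    exact ⟨x, (mem_filter.1 hx).1⟩
  have h5 : ∑ x ∈ X, ((Y.filter fun y => r x y).card : ℝ) < ∑ x ∈ X, a / b * (Y.card : ℝ) :=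
    sum_lt_sum_of_nonempty hXne hcon
  rw [sum_const, nsmul_eq_mul] at h5
  have h6 : (X.card : ℝ) * (a / b * (Y.card : ℝ)) ≤ b * (a / b * (Y.card : ℝ)) :=
    mul_le_mul_of_nonneg_right hX (by positivity)
  have h7 : b * (a / b * (Y.card : ℝ)) = (Y.card : ℝ) * a := by field_simp
  linarith

/-! ### popular pairs -/

section

variable {κ : Type} {B : Base} {G : ℕ → RCfg κ} {Leg : Set (κ → ℝ)} {ν : (κ → ℝ) → ℝ}
  {σ R D : ℝ}

open Classical in
/-- popular pair of heights: a `ρ^c`-part of the lines is alive at both -/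
def Pop (B : Base) (G : ℕ → RCfg κ) (c : ℝ) (n k k' : ℕ) : Prop :=
  B.d n ^ c * ((G n).L.card : ℝ) ≤
    (((G n).L.filter fun i => (i, k) ∈ (G n).I ∧ (i, k') ∈ (G n).I).card : ℝ)

open Classical in
theorem Pop.of_triple {c : ℝ} {n k k' k'' : ℕ}
    (h : B.d n ^ c * ((G n).L.card : ℝ) ≤ (((G n).L.filter fun i =>
      (i, k) ∈ (G n).I ∧ (i, k') ∈ (G n).I ∧ (i, k'') ∈ (G n).I).card : ℝ)) :
    Pop B G c n k k' ∧ Pop B G c n k k'' ∧ Pop B G c n k' k'' := by
  refine ⟨h.trans ?_, h.trans ?_, h.trans ?_⟩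
  · exact_mod_cast card_le_card fun i hi => by
      obtain ⟨a, b, c, d⟩ := mem_filter.1 hi
      exact mem_filter.2 ⟨a, b, c⟩
  · exact_mod_cast card_le_card fun i hi => by
      obtain ⟨a, b, c, d⟩ := mem_filter.1 hi
      exact mem_filter.2 ⟨a, b, d⟩
  · exact_mod_cast card_le_card fun i hi => by
      obtain ⟨a, b, c, d⟩ := mem_filter.1 hi
      exact mem_filter.2 ⟨a, c, d⟩

theorem exp_le_of {n : ℕ} {a b : ℝ} (h : B.d n ^ a ≤ B.d n ^ b) : b ≤ a := by
  by_contra hc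
  push Not at hc
  exact absurd h (not_le.2 (Real.rpow_lt_rpow_of_exponent_gt (B.pos n) (B.lt n) hc))

open Classical in
/-- **two lines for every popular pair of heights** -/
theorem pair_cell (H : RUnif B G Leg ν D) (p : κ → ℝ) (hp : p ∈ Leg) (Q : ℝ → κ → ℝ) {x s : ℝ}
    (hs : 0 < s) (hQ : ∀ t : ℝ, 0 ≤ t → t ≤ x → Q t ∈ Leg)
    (hloss : ∀ t : ℝ, 0 ≤ t → t ≤ x → s * t ≤ ν p - ν (Q t)) {b C4 : ℝ} (hb : 0 ≤ b)
    (hC4 : 0 < C4) :
    ∃ C : ℝ, 0 < C ∧ ∀ ε : ℝ, 0 < ε → C * ε ≤ x → ∀ᶠ n in (U : Filter ℕ), ∀ k k',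
      Pop B G (b * ε) n k k' → ∃ i l, (i, k) ∈ (G n).I ∧ (i, k') ∈ (G n).I ∧
        (l, k) ∈ (G n).I ∧ (l, k') ∈ (G n).I ∧ (G n).loose p (D ^ 5 * ε) k i l ∧
        ¬ (G n).loose (Q (C * ε)) (C4 * ε) k i l := by
  have hD := H.D1
  have hD0 : 0 < D := by linarith
  set C : ℝ := (b + 2 + D * C4) / s with hC
  have hCpos : 0 < C := by positivity
  refine ⟨C, hCpos, fun ε hε hx => ?_⟩
  have hCε : 0 ≤ C * ε := by positivity
  filter_upwards [H.exists_lab p hp hε, H.up (Q (C * ε)) (hQ _ hCε hx) (C4 * ε) (by positivity)]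
    with n hlab hup k k' hpop
  have hd : ∀ u : ℝ, 0 < B.d n ^ u := fun u => rpos B n u
  set T := (G n).L.filter fun i => (i, k) ∈ (G n).I ∧ (i, k') ∈ (G n).I with hT
  have hI : ∀ i ∈ T, (i, k) ∈ (G n).I ∧ (i, k') ∈ (G n).I := fun i hi => (mem_filter.1 hi).2
  obtain ⟨⟨i1, k1⟩, hI1⟩ := H.nonempty n
  have hL0 : (0 : ℝ) < (G n).L.card := by
    exact_mod_cast card_pos.2 ⟨i1, H.memL hI1⟩
  have hT0 : (0 : ℝ) < T.card := lt_of_lt_of_le (mul_pos (hd _) hL0) hpop
  have hTne : T.Nonempty := card_pos.1 (by exact_mod_cast hT0)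
  obtain ⟨lab, l1, l2⟩ := hlab k T (fun i hi => H.memSlice.2 (hI i hi).1) (G n).L (fun t _ =>
    RCfg.box_subset_slice.trans (filter_subset _ _))
  obtain ⟨i0, hi0, hfib⟩ := exists_fibre T lab hTne l2
  set S := T.filter fun i => lab i = lab i0 with hS
  have hSlow : B.d n ^ (-ν p + (b + 1) * ε) ≤ (S.card : ℝ) := by
    have g1 : B.d n ^ (b * ε) * ((G n).L.card : ℝ) ≤
        (G n).L.card * B.d n ^ (ν p - ε) * (S.card : ℝ) := hpop.trans hfib
    have g2 : B.d n ^ (b * ε) ≤ (S.card : ℝ) * B.d n ^ (ν p - ε) := by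
      have : B.d n ^ (b * ε) * ((G n).L.card : ℝ) ≤
          ((S.card : ℝ) * B.d n ^ (ν p - ε)) * ((G n).L.card : ℝ) := by linarith
      exact le_of_mul_le_mul_right this hL0
    have g3 : B.d n ^ (-ν p + (b + 1) * ε) * B.d n ^ (ν p - ε) = B.d n ^ (b * ε) := by
      rw [← rpow_add']; congr 1; ring
    rw [← g3] at g2
    exact le_of_mul_le_mul_right g2 (hd _)
  by_contra hcon
  push Not at hcon
  have hsub : S ⊆ (G n).box (Q (C * ε)) (C4 * ε) i0 k := by
    intro l hl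
    obtain ⟨a1, a2⟩ := mem_filter.1 hl
    exact RCfg.mem_box.2 ⟨H.memSlice.2 (hI l a1).1, hcon i0 l (hI i0 hi0).1 (hI i0 hi0).2
      (hI l a1).1 (hI l a1).2 (l1 i0 hi0 l a1 a2.symm)⟩
  have h1 : B.d n ^ (-ν p + (b + 1) * ε) ≤ B.d n ^ (-ν (Q (C * ε)) - D * (C4 * ε)) := by
    refine hSlow.trans (le_trans ?_ (hup i0 k (hI i0 hi0).1))
    exact_mod_cast card_le_card hsub
  have h2 := exp_le_of h1
  have h3 := hloss (C * ε) hCε hx
  have h4 : s * (C * ε) = (b + 2 + D * C4) * ε := by rw [hC]; field_simp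
  nlinarith

/-- labels inside labels -/
theorem card_image_pair {α β : Type*} [DecidableEq α] [DecidableEq β] (T : Finset α) (f : α → ℕ)
    (F : ℕ → α → β) {M : ℝ}
    (hF : ∀ c ∈ T.image f, ((((T.filter fun i => f i = c).image (F c)).card : ℕ) : ℝ) ≤ M) :
    (((T.image fun i => (f i, F (f i) i)).card : ℕ) : ℝ) ≤ ((T.image f).card : ℝ) * M := by
  have h1 : (T.image fun i => (f i, F (f i) i)) ⊆
      (T.image f).biUnion fun c => ((T.filter fun i => f i = c).image (F c)).image (Prod.mk c) := by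
    intro q hq
    obtain ⟨i, hi, rfl⟩ := mem_image.1 hq
    refine mem_biUnion.2 ⟨f i, mem_image_of_mem _ hi, ?_⟩
    exact mem_image_of_mem _ (mem_image_of_mem _ (mem_filter.2 ⟨hi, rfl⟩))
  calc (((T.image fun i => (f i, F (f i) i)).card : ℕ) : ℝ)
      ≤ ((((T.image f).biUnion fun c => ((T.filter fun i => f i = c).image (F c)).image
          (Prod.mk c)).card : ℕ) : ℝ) := by exact_mod_cast card_le_card h1
    _ ≤ ∑ c ∈ T.image f, (((((T.filter fun i => f i = c).image (F c)).image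
          (Prod.mk c)).card : ℕ) : ℝ) := by exact_mod_cast card_biUnion_le
    _ ≤ ∑ c ∈ T.image f, M := sum_le_sum fun c hc => le_trans (by
        exact_mod_cast card_image_le) (hF c hc)
    _ = _ := by rw [sum_const, nsmul_eq_mul]

set_option maxHeartbeats 1000000 in
open Classical in
/-- **two lines in one cell which meet at many pairs of heights** -/
theorem pair_many (H : RModel B G σ R Leg ν D) (p pT r : κ → ℝ) (hp : p ∈ Leg) (hpT : pT ∈ Leg)
    (hr : r ∈ Leg) (hTr : ∀ j, pT j ≤ r j) (hz : ν pT ≤ ν r) {C1 : ℝ} (hC1 : 0 < C1)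
    (inT : ∀ ε : ℝ, 0 < ε → ∀ᶠ n in (U : Filter ℕ), ∀ k k' i i', (i, k) ∈ (G n).I →
      (i, k') ∈ (G n).I → (i', k) ∈ (G n).I → (i', k') ∈ (G n).I → (G n).loose p ε k i i' →
      (G n).loose pT (C1 * ε) k' i i')
    (Q : ℝ → κ → ℝ) {x s : ℝ} (hs : 0 < s) (hQ : ∀ t : ℝ, 0 ≤ t → t ≤ x → Q t ∈ Leg)
    (hloss : ∀ t : ℝ, 0 ≤ t → t ≤ x → s * t ≤ ν p - ν (Q t)) {C4 : ℝ} (hC4 : 0 < C4) :
    ∃ C : ℝ, 0 < C ∧ ∀ ε : ℝ, 0 < ε → C * ε ≤ x → ∀ᶠ n in (U : Filter ℕ),
      ∃ k₀ i l : ℕ, ∃ P ⊆ (G n).Z ×ˢ (G n).Z, (i, k₀) ∈ (G n).I ∧ (l, k₀) ∈ (G n).I ∧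
        (G n).loose p (D ^ 5 * ε) k₀ i l ∧ ¬ (G n).loose (Q (C * ε)) (C4 * ε) k₀ i l ∧
        B.d n ^ (C * ε) * ((G n).Z.card : ℝ) ^ 2 ≤ (P.card : ℝ) ∧
        ∀ q ∈ P, (i, q.1) ∈ (G n).I ∧ (l, q.1) ∈ (G n).I ∧ (i, q.2) ∈ (G n).I ∧
          (l, q.2) ∈ (G n).I ∧ (G n).loose r (C * ε) q.1 i l ∧ (G n).loose r (C * ε) q.2 i l ∧
          Pop B G (4 * ε) n k₀ q.1 ∧ Pop B G (4 * ε) n k₀ q.2 ∧ Pop B G (4 * ε) n q.1 q.2 := by
  have hD := H.D1
  have hD0 : 0 < D := by linarith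
  obtain ⟨E, hE⟩ : ∃ E : ℝ, E = 2 * ((D ^ 2 + 1) * (C1 * D ^ 5)) := ⟨_, rfl⟩
  have hE0 : 0 < E := by rw [hE]; positivity
  obtain ⟨C, hC⟩ : ∃ C : ℝ, C = (11 + E + D * C4) / s + D ^ 5 * (C1 * D ^ 5) +
    (14 + E + D * D ^ 5) := ⟨_, rfl⟩
  have c1 : 0 < (11 + E + D * C4) / s := by positivity
  have c2 : 0 < D ^ 5 * (C1 * D ^ 5) := by positivity
  have c3 : 0 < 14 + E + D * D ^ 5 := by positivity
  have hCpos : 0 < C := by rw [hC]; linarith
  have hCs : 11 + E + D * C4 ≤ s * C := by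
    have : s * ((11 + E + D * C4) / s) = 11 + E + D * C4 := by field_simp
    rw [hC, mul_add, mul_add, this]
    have := mul_pos hs c2
    have := mul_pos hs c3
    linarith
  refine ⟨C, hCpos, fun ε hε hx => ?_⟩
  have hCε : 0 ≤ C * ε := by positivity
  have hε5 : 0 < D ^ 5 * ε := by positivity
  have hε1 : 0 < C1 * (D ^ 5 * ε) := by positivity
  filter_upwards [H.line ε hε, H.exists_lab p hp hε, inT (D ^ 5 * ε) hε5,
    H.exists_lab_loose pT r hpT hr hTr hε1, H.up p hp (D ^ 5 * ε) hε5,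
    H.up (Q (C * ε)) (hQ _ hCε hx) (C4 * ε) (by positivity), ev_const_le B hε 2]
    with n hline hlab hin hlabr hup hupQ h2
  have hd : ∀ u : ℝ, 0 < B.d n ^ u := fun u => rpos B n u
  have hdn : ∀ {u v : ℝ}, u ≤ v → B.d n ^ v ≤ B.d n ^ u := fun {u v} h => rpow_anti B n h
  obtain ⟨⟨i1, k1⟩, hI1⟩ := H.nonempty n
  have hLne : (G n).L.Nonempty := ⟨i1, H.memL hI1⟩
  have hZne : (G n).Z.Nonempty := ⟨k1, H.memZ hI1⟩
  have hL0 : (0 : ℝ) < (G n).L.card := by exact_mod_cast hLne.card_pos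
  have hZ0 : (0 : ℝ) < (G n).Z.card := by exact_mod_cast hZne.card_pos
  obtain ⟨k₀, hk₀, hrich⟩ := rich_triples (G n).L (G n).Z (fun i k => (i, k) ∈ (G n).I) (hd ε)
    hLne hZne (fun i hi => by
      have := hline i hi
      unfold RCfg.hts at this
      convert this)
  have hhalf : ∀ a : ℝ, B.d n ^ (a + ε) ≤ B.d n ^ a / 2 := by
    intro a
    rw [le_div_iff₀ two_pos]
    calc B.d n ^ (a + ε) * 2 ≤ B.d n ^ (a + ε) * B.d n ^ (-ε) :=
          mul_le_mul_of_nonneg_left h2 (hd _).le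
      _ = B.d n ^ a := by rw [← rpow_add']; congr 1; ring
  have hθ : B.d n ^ (4 * ε) ≤ (B.d n ^ ε) ^ 3 / 2 := by
    have e1 : (B.d n ^ ε) ^ 3 = B.d n ^ (3 * ε) := by
      have : (3 : ℝ) * ε = ε + (ε + ε) := by ring
      rw [this, rpow_add', rpow_add']; ring
    rw [e1]
    have := hhalf (3 * ε)
    have e2 : 3 * ε + ε = 4 * ε := by ring
    rwa [e2] at this
  set Y := ((G n).Z ×ˢ (G n).Z).filter fun q =>
      (B.d n ^ ε) ^ 3 / 2 * ((G n).L.card : ℝ) ≤
        (((G n).L.filter fun i => (i, k₀) ∈ (G n).I ∧ (i, q.1) ∈ (G n).I ∧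
          (i, q.2) ∈ (G n).I).card : ℝ) with hY
  have hYcard : B.d n ^ (4 * ε) * ((G n).Z.card : ℝ) ^ 2 ≤ (Y.card : ℝ) := by
    refine (mul_le_mul_of_nonneg_right hθ (by positivity)).trans (hrich.trans (le_of_eq ?_))
    rw [hY]
    congr!
  have hYne : Y.Nonempty := by
    have : (0 : ℝ) < Y.card := lt_of_lt_of_le (by have := hd (4 * ε); positivity) hYcard
    exact card_pos.1 (by exact_mod_cast this)
  have hYt : ∀ q ∈ Y, B.d n ^ (4 * ε) * ((G n).L.card : ℝ) ≤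
      (((G n).L.filter fun i => (i, k₀) ∈ (G n).I ∧ (i, q.1) ∈ (G n).I ∧
          (i, q.2) ∈ (G n).I).card : ℝ) := fun q hq =>
    (mul_le_mul_of_nonneg_right hθ hL0.le).trans (mem_filter.1 hq).2
  -- the pairs of lines
  set X := ((G n).L ×ˢ (G n).L).filter fun q => (q.1, k₀) ∈ (G n).I ∧ (q.2, k₀) ∈ (G n).I ∧
    (G n).loose p (D ^ 5 * ε) k₀ q.1 q.2 ∧ ¬ (G n).loose (Q (C * ε)) (C4 * ε) k₀ q.1 q.2 with hX
  have hXcard : (X.card : ℝ) ≤ (G n).L.card * B.d n ^ (-ν p - D * (D ^ 5 * ε)) := by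
    have e1 : X.card = ∑ i ∈ (G n).L, (X.filter fun q => q.1 = i).card :=
      Finset.card_eq_sum_card_fiberwise fun q hq => (mem_product.1 (mem_filter.1 hq).1).1
    have e2 : ∀ i ∈ (G n).L, (((X.filter fun q => q.1 = i).card : ℕ) : ℝ) ≤
        B.d n ^ (-ν p - D * (D ^ 5 * ε)) := by
      intro i hi
      rcases (X.filter fun q => q.1 = i).eq_empty_or_nonempty with h0 | ⟨q0, hq0⟩
      · rw [h0]; simpa using (hd _).le
      · obtain ⟨a1, a2⟩ := mem_filter.1 hq0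
        have hiI : (i, k₀) ∈ (G n).I := by rw [← a2]; exact (mem_filter.1 a1).2.1
        refine le_trans ?_ (hup i k₀ hiI)
        refine mod_cast card_le_card_of_injOn (fun q => q.2) ?_ ?_
        · intro q hq
          obtain ⟨b1, b2⟩ := mem_filter.1 (mem_coe.1 hq)
          obtain ⟨b3, b4, b5, b6, b7⟩ := mem_filter.1 b1
          rw [b2] at b6
          exact mem_coe.2 (RCfg.mem_box.2 ⟨H.memSlice.2 b5, b6⟩)
        · intro q hq q' hq' h
          have b1 := (mem_filter.1 (mem_coe.1 hq)).2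
          have b2 := (mem_filter.1 (mem_coe.1 hq')).2
          exact Prod.ext (b1.trans b2.symm) h
    rw [e1]
    push_cast
    calc ∑ i ∈ (G n).L, (((X.filter fun q => q.1 = i).card : ℕ) : ℝ)
        ≤ ∑ i ∈ (G n).L, B.d n ^ (-ν p - D * (D ^ 5 * ε)) := sum_le_sum e2
      _ = _ := by rw [sum_const, nsmul_eq_mul]
  -- the relation
  obtain ⟨Rl, hRl⟩ : ∃ Rl : ℕ × ℕ → ℕ × ℕ → Prop, ∀ q y, Rl q y ↔
      ((q.1, y.1) ∈ (G n).I ∧ (q.2, y.1) ∈ (G n).I ∧ (q.1, y.2) ∈ (G n).I ∧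
        (q.2, y.2) ∈ (G n).I ∧ (G n).loose r (C * ε) y.1 q.1 q.2 ∧
        (G n).loose r (C * ε) y.2 q.1 q.2) := ⟨_, fun _ _ => Iff.rfl⟩
  have hrel : ∀ y ∈ Y, (G n).L.card * B.d n ^ (-ν p + (10 + E) * ε) ≤
      ((X.filter fun q => Rl q y).card : ℝ) := by
    intro y hy
    set T := (G n).L.filter fun i => (i, k₀) ∈ (G n).I ∧ (i, y.1) ∈ (G n).I ∧ (i, y.2) ∈ (G n).I
      with hT
    have hTc : B.d n ^ (4 * ε) * ((G n).L.card : ℝ) ≤ (T.card : ℝ) := hYt y hy
    have hI : ∀ i ∈ T, (i, k₀) ∈ (G n).I ∧ (i, y.1) ∈ (G n).I ∧ (i, y.2) ∈ (G n).I := fun i hi =>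
      (mem_filter.1 hi).2
    obtain ⟨lab, l1, l2⟩ := hlab k₀ T (fun i hi => H.memSlice.2 (hI i hi).1) (G n).L (fun t _ =>
      RCfg.box_subset_slice.trans (filter_subset _ _))
    have hsubT : ∀ c, (T.filter fun i => lab i = c) ⊆ T := fun c => filter_subset _ _
    have hcell : ∀ c, ∀ i ∈ T.filter (fun i => lab i = c), ∀ i' ∈ T.filter (fun i => lab i = c),
        (G n).loose p (D ^ 5 * ε) k₀ i i' := by
      intro c i hi i' hi'
      obtain ⟨a1, a2⟩ := mem_filter.1 hi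
      obtain ⟨b1, b2⟩ := mem_filter.1 hi'
      exact l1 i a1 i' b1 (a2.trans b2.symm)
    have hA : ∀ c, ∃ lb : ℕ → ℕ, (∀ t ∈ T.filter (fun i => lab i = c),
        ∀ t' ∈ T.filter (fun i => lab i = c), lb t = lb t' →
          (G n).loose r (D ^ 5 * (C1 * (D ^ 5 * ε))) y.1 t t') ∧
        ((((T.filter fun i => lab i = c).image lb).card : ℕ) : ℝ) ≤
          B.d n ^ (-(ν pT - ν r) - (D ^ 2 + 1) * (C1 * (D ^ 5 * ε))) := by
      intro c
      refine hlabr y.1 _ (fun i hi => H.memSlice.2 (hI i (hsubT c hi)).2.1) ?_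
      intro i hi i' hi'
      exact hin k₀ y.1 i i' (hI i (hsubT c hi)).1 (hI i (hsubT c hi)).2.1 (hI i' (hsubT c hi')).1
        (hI i' (hsubT c hi')).2.1 (hcell c i hi i' hi')
    have hB : ∀ c, ∃ lb : ℕ → ℕ, (∀ t ∈ T.filter (fun i => lab i = c),
        ∀ t' ∈ T.filter (fun i => lab i = c), lb t = lb t' →
          (G n).loose r (D ^ 5 * (C1 * (D ^ 5 * ε))) y.2 t t') ∧
        ((((T.filter fun i => lab i = c).image lb).card : ℕ) : ℝ) ≤
          B.d n ^ (-(ν pT - ν r) - (D ^ 2 + 1) * (C1 * (D ^ 5 * ε))) := by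
      intro c
      refine hlabr y.2 _ (fun i hi => H.memSlice.2 (hI i (hsubT c hi)).2.2) ?_
      intro i hi i' hi'
      exact hin k₀ y.2 i i' (hI i (hsubT c hi)).1 (hI i (hsubT c hi)).2.2 (hI i' (hsubT c hi')).1
        (hI i' (hsubT c hi')).2.2 (hcell c i hi i' hi')
    choose lbA hA1 hA2 using hA
    choose lbB hB1 hB2 using hB
    set A1 : ℝ := B.d n ^ (-((D ^ 2 + 1) * (C1 * (D ^ 5 * ε)))) with hA1def
    have hA1pos : 0 < A1 := hd _
    have hAle : B.d n ^ (-(ν pT - ν r) - (D ^ 2 + 1) * (C1 * (D ^ 5 * ε))) ≤ A1 :=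
      hdn (by linarith)
    set Φ : ℕ → ℕ × (ℕ × ℕ) := fun i => (lab i, (lbA (lab i) i, lbB (lab i) i)) with hΦ
    have hΦc : ((T.image Φ).card : ℝ) ≤ (G n).L.card * B.d n ^ (ν p - ε) * (A1 * A1) := by
      have g1 := card_image_pair T lab (fun c i => (lbA c i, lbB c i)) (M := A1 * A1) (by
        intro c _
        have h1 : ((T.filter fun i => lab i = c).image fun i => (lbA c i, lbB c i)) ⊆
            ((T.filter fun i => lab i = c).image (lbA c)) ×ˢ
              ((T.filter fun i => lab i = c).image (lbB c)) := by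
          intro q hq
          obtain ⟨i, hi, rfl⟩ := mem_image.1 hq
          exact mem_product.2 ⟨mem_image_of_mem _ hi, mem_image_of_mem _ hi⟩
        have h2 := card_le_card h1
        rw [card_product] at h2
        calc ((((T.filter fun i => lab i = c).image fun i => (lbA c i, lbB c i)).card : ℕ) : ℝ)
            ≤ ((((T.filter fun i => lab i = c).image (lbA c)).card : ℕ) : ℝ) *
              ((((T.filter fun i => lab i = c).image (lbB c)).card : ℕ) : ℝ) := by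
              exact_mod_cast h2
          _ ≤ A1 * A1 := mul_le_mul ((hA2 c).trans hAle) ((hB2 c).trans hAle)
              (Nat.cast_nonneg _) hA1pos.le)
      exact g1.trans (mul_le_mul_of_nonneg_right l2 (by positivity))
    set PR := (T ×ˢ T).filter fun q => Φ q.1 = Φ q.2 with hPR
    have hsq : (T.card : ℝ) ^ 2 ≤ ((T.image Φ).card : ℝ) * (PR.card : ℝ) := sq_pairs T Φ
    have hPRlow : (G n).L.card * B.d n ^ (-ν p + (9 + E) * ε) ≤ (PR.card : ℝ) := by
      have g1 : (B.d n ^ (4 * ε) * ((G n).L.card : ℝ)) ^ 2 ≤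
          ((G n).L.card * B.d n ^ (ν p - ε) * (A1 * A1)) * (PR.card : ℝ) :=
        (pow_le_pow_left₀ (mul_nonneg (hd _).le hL0.le) hTc 2).trans
          (hsq.trans (mul_le_mul_of_nonneg_right hΦc (Nat.cast_nonneg _)))
      have g2 : ((G n).L.card * B.d n ^ (ν p - ε) * (A1 * A1)) *
          ((G n).L.card * B.d n ^ (-ν p + (9 + E) * ε)) =
          (B.d n ^ (4 * ε) * ((G n).L.card : ℝ)) ^ 2 := by
        have e1 : B.d n ^ (ν p - ε) * (A1 * A1) * B.d n ^ (-ν p + (9 + E) * ε) =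
            B.d n ^ (4 * ε) * B.d n ^ (4 * ε) := by
          rw [hA1def, ← rpow_add', ← rpow_add', ← rpow_add', ← rpow_add']
          congr 1
          rw [hE]; ring
        calc ((G n).L.card * B.d n ^ (ν p - ε) * (A1 * A1)) *
              ((G n).L.card * B.d n ^ (-ν p + (9 + E) * ε))
            = ((G n).L.card : ℝ) ^ 2 *
              (B.d n ^ (ν p - ε) * (A1 * A1) * B.d n ^ (-ν p + (9 + E) * ε)) := by ring
          _ = _ := by rw [e1]; ring
      rw [← g2] at g1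
      exact le_of_mul_le_mul_left g1 (mul_pos (mul_pos hL0 (hd _)) (mul_pos hA1pos hA1pos))
    -- bad pairs
    set BD := PR.filter fun q => (G n).loose (Q (C * ε)) (C4 * ε) k₀ q.1 q.2 with hBD
    have hBDc : (BD.card : ℝ) ≤ (G n).L.card * B.d n ^ (-ν (Q (C * ε)) - D * (C4 * ε)) := by
      have e1 : BD.card = ∑ i ∈ (G n).L, (BD.filter fun q => q.1 = i).card :=
        Finset.card_eq_sum_card_fiberwise fun q hq =>
          (mem_filter.1 (mem_product.1 (mem_filter.1 (mem_filter.1 hq).1).1).1).1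
      have e2 : ∀ i ∈ (G n).L, (((BD.filter fun q => q.1 = i).card : ℕ) : ℝ) ≤
          B.d n ^ (-ν (Q (C * ε)) - D * (C4 * ε)) := by
        intro i hi
        rcases (BD.filter fun q => q.1 = i).eq_empty_or_nonempty with h0 | ⟨q0, hq0⟩
        · rw [h0]; simpa using (hd _).le
        · obtain ⟨a1, a2⟩ := mem_filter.1 hq0
          have hiI : (i, k₀) ∈ (G n).I := by
            rw [← a2]
            exact (hI _ (mem_product.1 (mem_filter.1 (mem_filter.1 a1).1).1).1).1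
          refine le_trans ?_ (hupQ i k₀ hiI)
          refine mod_cast card_le_card_of_injOn (fun q => q.2) ?_ ?_
          · intro q hq
            obtain ⟨b1, b2⟩ := mem_filter.1 (mem_coe.1 hq)
            obtain ⟨b3, b4⟩ := mem_filter.1 b1
            rw [b2] at b4
            exact mem_coe.2 (RCfg.mem_box.2
              ⟨H.memSlice.2 (hI _ (mem_product.1 (mem_filter.1 b3).1).2).1, b4⟩)
          · intro q hq q' hq' h
            have b1 := (mem_filter.1 (mem_coe.1 hq)).2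
            have b2 := (mem_filter.1 (mem_coe.1 hq')).2
            exact Prod.ext (b1.trans b2.symm) h
      rw [e1]
      push_cast
      calc ∑ i ∈ (G n).L, (((BD.filter fun q => q.1 = i).card : ℕ) : ℝ)
          ≤ ∑ i ∈ (G n).L, B.d n ^ (-ν (Q (C * ε)) - D * (C4 * ε)) := sum_le_sum e2
        _ = _ := by rw [sum_const, nsmul_eq_mul]
    have hBDle : (BD.card : ℝ) ≤ (G n).L.card * (B.d n ^ (-ν p + (9 + E) * ε) / 2) := by
      refine hBDc.trans (mul_le_mul_of_nonneg_left ?_ hL0.le)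
      refine le_trans (hdn ?_) (hhalf _)
      have g1 := hloss (C * ε) hCε hx
      have g2 : (11 + E + D * C4) * ε ≤ s * C * ε := mul_le_mul_of_nonneg_right hCs hε.le
      nlinarith
    have hsub : PR ⊆ (X.filter fun q => Rl q y) ∪ BD := by
      intro q hq
      by_cases hb : (G n).loose (Q (C * ε)) (C4 * ε) k₀ q.1 q.2
      · exact mem_union_right _ (mem_filter.2 ⟨hq, hb⟩)
      refine mem_union_left _ ?_
      obtain ⟨a1, a2⟩ := mem_filter.1 hq
      obtain ⟨a3, a4⟩ := mem_product.1 a1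
      obtain ⟨b1, b2, b3⟩ := hI _ a3
      obtain ⟨d1, d2, d3⟩ := hI _ a4
      have e1 : lab q.1 = lab q.2 := congrArg Prod.fst a2
      have e2 : lbA (lab q.1) q.1 = lbA (lab q.2) q.2 := congrArg (fun z => z.2.1) a2
      have e3 : lbB (lab q.1) q.1 = lbB (lab q.2) q.2 := congrArg (fun z => z.2.2) a2
      rw [← e1] at e2 e3
      have m1 : q.1 ∈ T.filter (fun i => lab i = lab q.1) := mem_filter.2 ⟨a3, rfl⟩
      have m2 : q.2 ∈ T.filter (fun i => lab i = lab q.1) := mem_filter.2 ⟨a4, e1.symm⟩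
      have f1 := hA1 (lab q.1) q.1 m1 q.2 m2 e2
      have f2 := hB1 (lab q.1) q.1 m1 q.2 m2 e3
      have hle : D ^ 5 * (C1 * (D ^ 5 * ε)) ≤ C * ε := by
        have : D ^ 5 * (C1 * (D ^ 5 * ε)) = D ^ 5 * (C1 * D ^ 5) * ε := by ring
        rw [this, hC]
        exact mul_le_mul_of_nonneg_right (by linarith) hε.le
      refine mem_filter.2 ⟨mem_filter.2 ⟨mem_product.2 ⟨(mem_filter.1 a3).1, (mem_filter.1 a4).1⟩,
        b1, d1, l1 _ a3 _ a4 e1, hb⟩, (hRl q y).2 ⟨b2, d2, b3, d3, ?_, ?_⟩⟩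
      · exact H.loose_mono (fun _ => le_rfl) hle f1
      · exact H.loose_mono (fun _ => le_rfl) hle f2
    have h3 : (PR.card : ℝ) ≤ ((X.filter fun q => Rl q y).card : ℝ) + (BD.card : ℝ) := by
      exact_mod_cast (card_le_card hsub).trans (card_union_le _ _)
    have h4 := hhalf (-ν p + (9 + E) * ε)
    have e4 : -ν p + (9 + E) * ε + ε = -ν p + (10 + E) * ε := by ring
    rw [e4] at h4
    have h5 := mul_le_mul_of_nonneg_left h4 hL0.le
    nlinarith
  obtain ⟨⟨i, l⟩, hx1, hx2⟩ := exists_rel X Y Rl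
    (a := (G n).L.card * B.d n ^ (-ν p + (10 + E) * ε))
    (b := (G n).L.card * B.d n ^ (-ν p - D * (D ^ 5 * ε)))
    (mul_pos hL0 (hd _)) hYne (mul_pos hL0 (hd _)) hXcard hrel
  obtain ⟨a1, a2, a3, a4, a5⟩ := mem_filter.1 hx1
  refine ⟨k₀, i, l, Y.filter (fun y => Rl (i, l) y),
    (filter_subset _ _).trans (filter_subset _ _), a2, a3, a4, a5, ?_, ?_⟩
  · refine le_trans ?_ hx2
    have e1 : (G n).L.card * B.d n ^ (-ν p + (10 + E) * ε) /
        ((G n).L.card * B.d n ^ (-ν p - D * (D ^ 5 * ε))) = B.d n ^ ((10 + E + D * D ^ 5) * ε) := by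
      rw [mul_div_mul_left _ _ hL0.ne', div_eq_iff (hd _).ne', ← rpow_add']
      congr 1
      ring
    rw [e1]
    calc B.d n ^ (C * ε) * ((G n).Z.card : ℝ) ^ 2
        ≤ B.d n ^ ((10 + E + D * D ^ 5) * ε) * (B.d n ^ (4 * ε) * ((G n).Z.card : ℝ) ^ 2) := by
          rw [← mul_assoc, ← rpow_add']
          refine mul_le_mul_of_nonneg_right (hdn ?_) (by positivity)
          have : (14 + E + D * D ^ 5) * ε ≤ C * ε := by
            rw [hC]
            exact mul_le_mul_of_nonneg_right (by linarith) hε.le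
          linarith
      _ ≤ _ := mul_le_mul_of_nonneg_left hYcard (hd _).le
  · intro y hy
    obtain ⟨b1, b0⟩ := mem_filter.1 hy
    obtain ⟨b2, b3, b4, b5, b6, b7⟩ := (hRl _ _).1 b0
    obtain ⟨p1, p2, p3⟩ := Pop.of_triple (hYt y b1)
    exact ⟨b2, b3, b4, b5, b6, b7, p1, p2, p3⟩

open Classical in
/-- **separated partners**: from a `ρ^(c ε)`-part of the pairs of heights to a part of the heights
each of which has a partner at distance `≥ ρ^(C ε)` -/
theorem sep_heights (H : RModel B G σ R Leg ν D) (hσ : 0 < σ) {c : ℝ} (hc : 0 ≤ c) :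
    ∃ C : ℝ, 0 < C ∧ ∀ ε : ℝ, 0 < ε → C * ε ≤ R → ∀ᶠ n in (U : Filter ℕ),
      ∀ P ⊆ (G n).Z ×ˢ (G n).Z, B.d n ^ (c * ε) * ((G n).Z.card : ℝ) ^ 2 ≤ (P.card : ℝ) →
      B.d n ^ (C * ε) * ((G n).Z.card : ℝ) ≤
        ((((G n).Z.filter fun k => ∃ k', (k, k') ∈ P ∧
          B.d n ^ (C * ε) < |(G n).z k' - (G n).z k|)).card : ℝ) := by
  have hD := H.D1
  obtain ⟨C, hC⟩ : ∃ C : ℝ, C = (c + 3) / σ + (c + 1) := ⟨_, rfl⟩
  have c1 : 0 < (c + 3) / σ := by positivity
  have hC0 : 0 < C := by rw [hC]; linarith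
  refine ⟨C, hC0, fun ε hε hR => ?_⟩
  have hy0 : 0 ≤ C * ε := by positivity
  filter_upwards [H.frost (C * ε) hy0 hR ε hε, ev_const_le B hε 2] with n hfr h2 P hPZ hP
  have hd : ∀ u : ℝ, 0 < B.d n ^ u := fun u => rpos B n u
  have hdn : ∀ {u v : ℝ}, u ≤ v → B.d n ^ v ≤ B.d n ^ u := fun {u v} h => rpow_anti B n h
  obtain ⟨⟨i1, k1⟩, hI1⟩ := H.nonempty n
  have hZ0 : (0 : ℝ) < (G n).Z.card := by exact_mod_cast card_pos.2 ⟨k1, H.memZ hI1⟩
  have hhalf : ∀ a : ℝ, B.d n ^ (a + ε) ≤ B.d n ^ a / 2 := by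
    intro a
    rw [le_div_iff₀ two_pos]
    calc B.d n ^ (a + ε) * 2 ≤ B.d n ^ (a + ε) * B.d n ^ (-ε) :=
          mul_le_mul_of_nonneg_left h2 (hd _).le
      _ = B.d n ^ a := by rw [← rpow_add']; congr 1; ring
  set W := (G n).Z.filter fun k => ∃ k', (k, k') ∈ P ∧
    B.d n ^ (C * ε) < |(G n).z k' - (G n).z k| with hW
  have e1 : P.card = ∑ k ∈ (G n).Z, (P.filter fun q => q.1 = k).card :=
    Finset.card_eq_sum_card_fiberwise fun q hq => (mem_product.1 (hPZ hq)).1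
  have e2 : ∀ k ∈ (G n).Z, k ∈ W → (((P.filter fun q => q.1 = k).card : ℕ) : ℝ) ≤
      (G n).Z.card := by
    intro k _ _
    refine mod_cast card_le_card_of_injOn (fun q => q.2) ?_ ?_
    · intro q hq
      exact mem_coe.2 (mem_product.1 (hPZ (mem_filter.1 (mem_coe.1 hq)).1)).2
    · intro q hq q' hq' h
      have b1 := (mem_filter.1 (mem_coe.1 hq)).2
      have b2 := (mem_filter.1 (mem_coe.1 hq')).2
      exact Prod.ext (b1.trans b2.symm) h
  have e3 : ∀ k ∈ (G n).Z, k ∉ W → (((P.filter fun q => q.1 = k).card : ℕ) : ℝ) ≤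
      B.d n ^ (c * ε) / 2 * (G n).Z.card := by
    intro k hk hkW
    have h1 : (((P.filter fun q => q.1 = k).card : ℕ) : ℝ) ≤
        (((G n).hbox (C * ε) k).card : ℝ) := by
      refine mod_cast card_le_card_of_injOn (fun q => q.2) ?_ ?_
      · intro q hq
        obtain ⟨b1, b2⟩ := mem_filter.1 (mem_coe.1 hq)
        have b3 := (mem_product.1 (hPZ b1)).2
        refine mem_coe.2 (mem_filter.2 ⟨b3, ?_⟩)
        by_contra hcon
        push Not at hcon
        rw [H.base n] at hcon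
        refine hkW (mem_filter.2 ⟨hk, q.2, ?_, hcon⟩)
        rw [← b2]
        exact b1
      · intro q hq q' hq' h
        have b1 := (mem_filter.1 (mem_coe.1 hq)).2
        have b2 := (mem_filter.1 (mem_coe.1 hq')).2
        exact Prod.ext (b1.trans b2.symm) h
    refine h1.trans ((hfr k hk).trans (mul_le_mul_of_nonneg_right ?_ hZ0.le))
    refine le_trans (hdn ?_) (hhalf _)
    have : σ * ((c + 3) / σ) = c + 3 := by field_simp
    have h5 : c + 3 ≤ σ * C := by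
      rw [hC, mul_add, this]
      have : 0 ≤ σ * (c + 1) := by positivity
      linarith
    have := mul_le_mul_of_nonneg_right h5 hε.le
    nlinarith
  have e4 : (P.card : ℝ) ≤ (W.card : ℝ) * (G n).Z.card +
      (G n).Z.card * (B.d n ^ (c * ε) / 2 * (G n).Z.card) := by
    rw [e1]
    push_cast
    have hWZ : W ⊆ (G n).Z := filter_subset _ _
    rw [← sum_sdiff hWZ]
    have g1 : ∑ k ∈ (G n).Z \ W, (((P.filter fun q => q.1 = k).card : ℕ) : ℝ) ≤
        (G n).Z.card * (B.d n ^ (c * ε) / 2 * (G n).Z.card) := by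
      calc _ ≤ ∑ k ∈ (G n).Z \ W, (B.d n ^ (c * ε) / 2 * ((G n).Z.card : ℝ)) :=
            sum_le_sum fun k hk => e3 k (mem_sdiff.1 hk).1 (mem_sdiff.1 hk).2
        _ = (((G n).Z \ W).card : ℝ) * (B.d n ^ (c * ε) / 2 * (G n).Z.card) := by
            rw [sum_const, nsmul_eq_mul]
        _ ≤ _ := by
            refine mul_le_mul_of_nonneg_right ?_ (by have := hd (c * ε); positivity)
            exact_mod_cast card_le_card sdiff_subset
    have g2 : ∑ k ∈ W, (((P.filter fun q => q.1 = k).card : ℕ) : ℝ) ≤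
        (W.card : ℝ) * (G n).Z.card := by
      calc _ ≤ ∑ k ∈ W, ((G n).Z.card : ℝ) := sum_le_sum fun k hk => e2 k (hWZ hk) hk
        _ = _ := by rw [sum_const, nsmul_eq_mul]
    linarith
  have h5 : B.d n ^ (c * ε) / 2 * ((G n).Z.card : ℝ) ≤ (W.card : ℝ) := by
    have : B.d n ^ (c * ε) / 2 * ((G n).Z.card : ℝ) * (G n).Z.card ≤
        (W.card : ℝ) * (G n).Z.card := by nlinarith
    exact le_of_mul_le_mul_right this hZ0
  refine le_trans (mul_le_mul_of_nonneg_right (le_trans (hdn ?_) (hhalf (c * ε))) hZ0.le) h5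
  have : (c + 1) * ε ≤ C * ε := by
    rw [hC]
    exact mul_le_mul_of_nonneg_right (by linarith) hε.le
  linarith

end

end Crest.Agent.R136.Res1648
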