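import Crest.Agent.R136.Gr2_356

/-!
# R136: transfer principle with a twist depending on the line (helper938)

`transferI_R` : `transfer_R` of helper356 where the good pairs of heights may depend on the line and
are only a `ρ^ε`-part of all pairs.  `shiftI_R` : visible shift of a slot `sX` in a slot `sN` with
a multiplier depending on the line.
-/

set_option autoImplicit false
set_option linter.unusedVariables false
set_option linter.unusedSectionVars false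

open Filter Topology Finset

namespace Crest.Agent.R136.TrI938

open Crest.Agent.R138.Ex926 (Base U)
open Crest.Agent.R136.Gf356

variable {κ : Type} {B : Base} {G : ℕ → RCfg κ} {Leg : Set (κ → ℝ)} {ν : (κ → ℝ) → ℝ}
  {σ R D : ℝ}

/-- a pair of heights which is good for many lines -/
theorem good_pairI {L Z : Finset ℕ} {I : Finset (ℕ × ℕ)} {T : ℕ → Finset (ℕ × ℕ)} {θ τ : ℝ}
    (hθ : 0 ≤ θ) (hτ : 0 ≤ τ) (hL : L.Nonempty) (hZ : Z.Nonempty) (h : ℕ → Finset ℕ)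
    (hh : ∀ i ∈ L, h i ⊆ Z) (hal : ∀ i ∈ L, θ * (Z.card : ℝ) ≤ ((h i).card : ℝ))
    (hT : ∀ i ∈ L, T i ⊆ h i ×ˢ h i) (hTc : ∀ i ∈ L, τ * ((h i).card : ℝ) ^ 2 ≤ ((T i).card : ℝ)) :
    ∃ k ∈ Z, ∃ k' ∈ Z, τ * θ ^ 2 * (L.card : ℝ) ≤
      ((L.filter fun i => (k, k') ∈ T i).card : ℝ) := by
  classical
  by_contra hcon
  push Not at hcon
  have hZ0 : (0 : ℝ) < Z.card := by exact_mod_cast hZ.card_pos
  have hL0 : (0 : ℝ) < L.card := by exact_mod_cast hL.card_pos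
  have h1 : ∑ i ∈ L, ((T i).card : ℝ) =
      ∑ q ∈ Z ×ˢ Z, ((L.filter fun i => q ∈ T i).card : ℝ) := by
    have e : ∀ i ∈ L, (T i).card = ((Z ×ˢ Z).filter fun q => q ∈ T i).card := by
      intro i hi
      congr 1
      ext q
      rw [Finset.mem_filter]
      constructor
      · intro hq
        have := Finset.mem_product.1 (hT i hi hq)
        exact ⟨Finset.mem_product.2 ⟨hh i hi this.1, hh i hi this.2⟩, hq⟩
      · exact fun hq => hq.2
    have : ∑ i ∈ L, (T i).card = ∑ q ∈ Z ×ˢ Z, (L.filter fun i => q ∈ T i).card := by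
      rw [Finset.sum_congr rfl e]
      simp only [Finset.card_filter]
      exact Finset.sum_comm
    exact_mod_cast this
  have h2 : (L.card : ℝ) * (τ * θ ^ 2 * (Z.card : ℝ) ^ 2) ≤ ∑ i ∈ L, ((T i).card : ℝ) := by
    calc (L.card : ℝ) * (τ * θ ^ 2 * (Z.card : ℝ) ^ 2)
        = ∑ i ∈ L, τ * θ ^ 2 * (Z.card : ℝ) ^ 2 := by rw [Finset.sum_const, nsmul_eq_mul]
      _ ≤ _ := Finset.sum_le_sum fun i hi => by
          refine le_trans ?_ (hTc i hi)
          have e6 : (θ * (Z.card : ℝ)) ^ 2 ≤ ((h i).card : ℝ) ^ 2 :=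
            pow_le_pow_left₀ (by positivity) (hal i hi) 2
          have := mul_le_mul_of_nonneg_left e6 hτ
          calc τ * θ ^ 2 * (Z.card : ℝ) ^ 2 = τ * (θ * (Z.card : ℝ)) ^ 2 := by ring
            _ ≤ _ := this
  have hne : (Z ×ˢ Z).Nonempty := hZ.product hZ
  have h3 : ∑ q ∈ Z ×ˢ Z, ((L.filter fun i => q ∈ T i).card : ℝ) <
      ∑ q ∈ Z ×ˢ Z, τ * θ ^ 2 * (L.card : ℝ) := by
    refine Finset.sum_lt_sum_of_nonempty hne fun q hq => ?_
    obtain ⟨a, b⟩ := Finset.mem_product.1 hq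
    exact hcon q.1 a q.2 b
  rw [Finset.sum_const, nsmul_eq_mul, Finset.card_product] at h3
  push_cast at h3
  have e : (Z.card : ℝ) * Z.card * (τ * θ ^ 2 * L.card) =
      (L.card : ℝ) * (τ * θ ^ 2 * (Z.card : ℝ) ^ 2) := by ring
  rw [e] at h3
  linarith

/-- **transfer principle**, good pairs depending on the line. -/
theorem transferI_R (H : RModel B G σ R Leg ν D) (p p' pT r : κ → ℝ)
    (hp : p ∈ Leg) (hp' : p' ∈ Leg) (hpT : pT ∈ Leg) (hr : r ∈ Leg) (hTr : ∀ j, pT j ≤ r j)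
    (good : ℕ → ℝ → ℕ → ℕ → ℕ → Prop)
    (hgood : ∀ ε : ℝ, 0 < ε → ∀ᶠ n in (U : Filter ℕ), ∀ i ∈ (G n).L,
      ∃ T ⊆ ((G n).hts i) ×ˢ ((G n).hts i), (∀ q ∈ T, good n ε i q.1 q.2) ∧
      B.d n ^ ε * (((G n).hts i).card : ℝ) ^ 2 ≤ (T.card : ℝ))
    (hgeo : ∀ C0 : ℝ, 0 < C0 → ∃ C1 : ℝ, 0 < C1 ∧ ∀ C2 : ℝ, 0 < C2 → ∃ C3 : ℝ, 0 < C3 ∧
      ∀ ε : ℝ, 0 < ε → ∀ᶠ n in (U : Filter ℕ), ∀ k ∈ (G n).Z, ∀ k' ∈ (G n).Z,
      ∀ i i', (i, k) ∈ (G n).I → (i, k') ∈ (G n).I → (i', k) ∈ (G n).I →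
      (i', k') ∈ (G n).I → good n ε i k k' → good n ε i' k k' →
      (G n).loose p (C0 * ε) k i i' →
      (G n).loose pT (C1 * ε) k' i i' ∧
      ((G n).loose r (C2 * ε) k' i i' → (G n).loose p' (C3 * ε) k i i')) :
    ν p - ν p' ≤ ν pT - ν r := by
  classical
  have hD := H.D1
  have hD0 : 0 < D := by linarith
  obtain ⟨C1, hC1, hgeo1⟩ := hgeo (D ^ 5) (by positivity)
  obtain ⟨C3, hC3, hgeo2⟩ := hgeo1 (D ^ 5 * C1) (by positivity)
  have key := le_of_ev B (-ν p) (-(ν pT - ν r) - ν p') ((D ^ 2 + 1) * C1 + D * C3 + 6) 1 (by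
    intro ε hε
    have hC1ε : 0 < C1 * ε := by positivity
    have hC3ε : 0 < C3 * ε := by positivity
    filter_upwards [H.line ε hε, hgood ε hε, hgeo2 ε hε, H.exists_lab p hp hε,
      H.exists_lab_loose pT r hpT hr hTr hC1ε, H.up p' hp' (C3 * ε) hC3ε] with n hline hgoodn
      hgeon hlabp hcells hup
    have hpow : ∀ t : ℝ, 0 < B.d n ^ t := fun t => rpos B n t
    obtain ⟨⟨i1, k1⟩, hI1⟩ := H.nonempty n
    have hLne : (G n).L.Nonempty := ⟨i1, H.memL hI1⟩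
    have hZne : (G n).Z.Nonempty := ⟨k1, H.memZ hI1⟩
    have hL0 : (0 : ℝ) < (G n).L.card := by exact_mod_cast hLne.card_pos
    choose! T hT1 hT2 hT3 using hgoodn
    -- good pair
    obtain ⟨k, hk, k', hk', hcard⟩ := good_pairI (I := (G n).I) (hpow ε).le (hpow ε).le hLne hZne
      (fun i => (G n).hts i) (fun i hi => Finset.filter_subset _ _) hline hT1 hT3
    set T0 := (G n).L.filter fun i => (k, k') ∈ T i with hT0
    have hT0I : ∀ i ∈ T0, (i, k) ∈ (G n).I ∧ (i, k') ∈ (G n).I ∧ good n ε i k k' := by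
      intro i hi
      obtain ⟨a, b⟩ := Finset.mem_filter.1 hi
      have c := Finset.mem_product.1 (hT1 i a b)
      exact ⟨(RCfg.mem_hts.1 c.1).2, (RCfg.mem_hts.1 c.2).2, hT2 i a _ b⟩
    have hT0pos : (0 : ℝ) < T0.card := by
      have e1 := hpow ε
      exact lt_of_lt_of_le (by positivity) hcard
    have hT0ne : T0.Nonempty := by rw [← Finset.card_pos]; exact_mod_cast hT0pos
    -- cells at `k`
    obtain ⟨lab, hlab1, hlab2⟩ := hlabp k T0 (fun i hi => H.memSlice.2 (hT0I i hi).1) (G n).L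
      (fun t _ => RCfg.box_subset_slice.trans (Finset.filter_subset _ _))
    obtain ⟨i0, hi0, hfib⟩ := exists_fibre T0 lab hT0ne hlab2
    set S := T0.filter fun i => lab i = lab i0 with hS
    have hSI : ∀ i ∈ S, (i, k) ∈ (G n).I ∧ (i, k') ∈ (G n).I ∧ good n ε i k k' := by
      intro i hi
      exact hT0I i (Finset.mem_filter.1 hi).1
    have hSnear : ∀ i ∈ S, ∀ i' ∈ S, (G n).loose p (D ^ 5 * ε) k i i' := by
      intro i hi i' hi'
      obtain ⟨a1, a2⟩ := Finset.mem_filter.1 hi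
      obtain ⟨b1, b2⟩ := Finset.mem_filter.1 hi'
      exact hlab1 i a1 i' b1 (by rw [a2, b2])
    -- lower bound of `S`
    have hSlow : B.d n ^ (-ν p + 4 * ε) ≤ (S.card : ℝ) := by
      have g1 : B.d n ^ ε * (B.d n ^ ε) ^ 2 * ((G n).L.card : ℝ) ≤
          (G n).L.card * B.d n ^ (ν p - ε) * (S.card : ℝ) := hcard.trans hfib
      have g2 : B.d n ^ ε * (B.d n ^ ε) ^ 2 ≤ B.d n ^ (ν p - ε) * (S.card : ℝ) := by
        have : (B.d n ^ ε * (B.d n ^ ε) ^ 2) * ((G n).L.card : ℝ) ≤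
            (B.d n ^ (ν p - ε) * (S.card : ℝ)) * ((G n).L.card : ℝ) := by linarith
        exact le_of_mul_le_mul_right this hL0
      have g3 : B.d n ^ (3 * ε) = B.d n ^ ε * (B.d n ^ ε) ^ 2 := by
        rw [sq, ← rpow_add', ← rpow_add']; congr 1; ring
      have g4 : B.d n ^ (3 * ε) ≤ (S.card : ℝ) * B.d n ^ (ν p - ε) := by
        rw [g3]
        exact g2.trans (le_of_eq (mul_comm _ _))
      have g5 : B.d n ^ (-ν p + 4 * ε) * B.d n ^ (ν p - ε) = B.d n ^ (3 * ε) := by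
        rw [← rpow_add']; congr 1; ring
      rw [← g5] at g4
      exact le_of_mul_le_mul_right g4 (hpow _)
    -- cells at `k'`
    have hSsl : S ⊆ (G n).slice k' := fun i hi => H.memSlice.2 (hSI i hi).2.1
    have hgeoS : ∀ i ∈ S, ∀ i' ∈ S, (G n).loose pT (C1 * ε) k' i i' ∧
        ((G n).loose r (D ^ 5 * C1 * ε) k' i i' → (G n).loose p' (C3 * ε) k i i') := by
      intro i hi i' hi'
      exact hgeon k hk k' hk' i i' (hSI i hi).1 (hSI i hi).2.1 (hSI i' hi').1 (hSI i' hi').2.1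
        (hSI i hi).2.2 (hSI i' hi').2.2 (hSnear i hi i' hi')
    obtain ⟨lab', hlab1', hlab2'⟩ := hcells k' S hSsl (fun i hi i' hi' => (hgeoS i hi i' hi').1)
    have hSne : S.Nonempty := ⟨i0, Finset.mem_filter.2 ⟨hi0, rfl⟩⟩
    obtain ⟨i2, hi2, hfib2⟩ := exists_fibre S lab' hSne hlab2'
    have hfc : ((S.filter fun i => lab' i = lab' i2).card : ℝ) ≤
        B.d n ^ (-ν p' - D * (C3 * ε)) := by
      refine le_trans ?_ (hup i2 k (hSI i2 hi2).1)
      refine mod_cast Finset.card_le_card ?_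
      intro i hi
      obtain ⟨b1, b2⟩ := Finset.mem_filter.1 hi
      refine RCfg.mem_box.2 ⟨H.memSlice.2 (hSI i b1).1, ?_⟩
      refine (hgeoS i2 hi2 i b1).2 ?_
      have := hlab1' i2 hi2 i b1 b2.symm
      have e1 : D ^ 5 * (C1 * ε) = D ^ 5 * C1 * ε := by ring
      rwa [e1] at this
    calc B.d n ^ (-ν p + ((D ^ 2 + 1) * C1 + D * C3 + 6) * ε)
        ≤ B.d n ^ (-ν p + 4 * ε) := rpow_anti B n (by
          have : 0 ≤ ((D ^ 2 + 1) * C1 + D * C3) * ε := by positivity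
          nlinarith)
      _ ≤ (S.card : ℝ) := hSlow
      _ ≤ _ := hfib2
      _ ≤ B.d n ^ (-(ν pT - ν r) - (D ^ 2 + 1) * (C1 * ε)) * B.d n ^ (-ν p' - D * (C3 * ε)) :=
          mul_le_mul_of_nonneg_left hfc (hpow _).le
      _ = B.d n ^ (-(ν pT - ν r) - ν p' - ((D ^ 2 + 1) * C1 + D * C3) * ε) := by
          rw [← rpow_add']; congr 1; ring
      _ ≤ B.d n ^ (-(ν pT - ν r) - ν p' - ((D ^ 2 + 1) * C1 + D * C3 + 6) * ε) :=
          rpow_anti B n (by nlinarith)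
      _ = _ := by rw [one_mul])
  linarith

/-- **raw twist depending on the line**: a `ρ^ε`-part of the pairs of heights of every line has a
multiplier `> ρ^ε`. -/
def RawTwI (B : Base) (G : ℕ → RCfg κ) (φ : ℕ → ℕ → ℕ → ℕ → ℝ) : Prop :=
  ∀ ε : ℝ, 0 < ε → ∀ᶠ n in (U : Filter ℕ), ∀ i ∈ (G n).L,
    ∃ T ⊆ ((G n).hts i) ×ˢ ((G n).hts i), (∀ q ∈ T, B.d n ^ ε < |φ n i q.1 q.2|) ∧
    B.d n ^ ε * (((G n).hts i).card : ℝ) ^ 2 ≤ (T.card : ℝ)

/-- the usual raw twist is a special case -/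
theorem RawTwI.of_half (H : RModel B G σ R Leg ν D) {φ : ℕ → ℕ → ℕ → ℝ}
    (h : ∀ ε : ℝ, 0 < ε → ∀ᶠ n in (U : Filter ℕ), ∀ i ∈ (G n).L,
      ∀ T ⊆ ((G n).hts i) ×ˢ ((G n).hts i), (∀ q ∈ T, |φ n q.1 q.2| ≤ B.d n ^ ε) →
      2 * (T.card : ℝ) ≤ (((G n).hts i).card : ℝ) ^ 2) :
    RawTwI B G fun n _ k k' => φ n k k' := by
  classical
  intro ε hε
  filter_upwards [h ε hε, ev_const_le B hε 2] with n hn h2 i hi
  refine ⟨(((G n).hts i) ×ˢ ((G n).hts i)).filter fun q => B.d n ^ ε < |φ n q.1 q.2|,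
    Finset.filter_subset _ _, fun q hq => (Finset.mem_filter.1 hq).2, ?_⟩
  have h3 := hn i hi ((((G n).hts i) ×ˢ ((G n).hts i)).filter fun q =>
    ¬ B.d n ^ ε < |φ n q.1 q.2|) (Finset.filter_subset _ _)
    fun q hq => not_lt.1 (Finset.mem_filter.1 hq).2
  have h4 := Finset.card_filter_add_card_filter_not (s := ((G n).hts i) ×ˢ ((G n).hts i))
    fun q => B.d n ^ ε < |φ n q.1 q.2|
  rw [Finset.card_product] at h4
  have h5 : ((((((G n).hts i) ×ˢ ((G n).hts i)).filter fun q =>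
      B.d n ^ ε < |φ n q.1 q.2|).card : ℝ) +
      ((((G n).hts i) ×ˢ ((G n).hts i)).filter fun q => ¬ B.d n ^ ε < |φ n q.1 q.2|).card) =
      (((G n).hts i).card : ℝ) * ((G n).hts i).card := by exact_mod_cast h4
  have h6 : B.d n ^ ε ≤ 1 / 2 := by
    have a3 : B.d n ^ ε * B.d n ^ (-ε) = 1 := by
      rw [← rpow_add', add_neg_cancel, Real.rpow_zero]
    have a4 := rpos B n ε
    nlinarith
  have h7 : 0 ≤ (((G n).hts i).card : ℝ) ^ 2 := by positivity
  have h8 := mul_le_mul_of_nonneg_right h6 h7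
  nlinarith

/-- **visible shift**, multiplier depending on the line. -/
theorem shiftI_R (H : RModel B G σ R Leg ν D) (p p' pT r : κ → ℝ)
    (hp : p ∈ Leg) (hp' : p' ∈ Leg) (hpT : pT ∈ Leg) (hr : r ∈ Leg) (hTr : ∀ j, pT j ≤ r j)
    (sX sN : κ) {y : ℝ} (hX : p' sX ≤ y) (ho : ∀ j, j ≠ sX → p' j ≤ p j) (hN : y ≤ r sN)
    (φ : ℕ → ℕ → ℕ → ℕ → ℝ) (htw : RawTwI B G φ)
    (hgeo : ∀ C0 : ℝ, 0 < C0 → ∃ C1 : ℝ, 0 < C1 ∧ ∀ ε : ℝ, 0 < ε → ∀ᶠ n in (U : Filter ℕ),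
      ∀ k ∈ (G n).Z, ∀ k' ∈ (G n).Z, ∀ i i', (i, k) ∈ (G n).I → (i, k') ∈ (G n).I →
      (i', k) ∈ (G n).I → (i', k') ∈ (G n).I → (G n).loose p (C0 * ε) k i i' →
      (G n).loose pT (C1 * ε) k' i i' ∧
      |(G n).rel k' i i' sN - φ n i k k' * (G n).rel k i i' sX| ≤ B.d n ^ (y - C1 * ε)) :
    ν p - ν p' ≤ ν pT - ν r := by
  refine transferI_R H p p' pT r hp hp' hpT hr hTr (fun n ε i k k' => B.d n ^ ε < |φ n i k k'|)
    (fun ε hε => htw ε hε) ?_
  intro C0 hC0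
  obtain ⟨C1, hC1, h1⟩ := hgeo C0 hC0
  refine ⟨C1, hC1, fun C2 hC2 => ⟨C0 + C1 + C2 + 2, by positivity, fun ε hε => ?_⟩⟩
  filter_upwards [h1 ε hε, ev_const_le B hε 2] with n hn h2 k hk k' hk' i i' hi hi' hl hl' hnb _
    hlo
  obtain ⟨a1, a2⟩ := hn k hk k' hk' i i' hi hi' hl hl' hlo
  refine ⟨a1, fun hr' j => ?_⟩
  have hpow : ∀ t : ℝ, 0 < B.d n ^ t := fun t => rpos B n t
  rw [H.base n]
  by_cases hj : j = sX
  · subst hj
    have b1 : |(G n).rel k' i i' sN| ≤ B.d n ^ (y - (C1 + C2) * ε) := by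
      have := hr' sN
      rw [H.base n] at this
      refine this.trans (rpow_anti B n ?_)
      have : 0 ≤ C1 * ε := by positivity
      nlinarith
    have b2 : |φ n i k k' * (G n).rel k i i' j| ≤ 2 * B.d n ^ (y - (C1 + C2) * ε) := by
      have e1 : φ n i k k' * (G n).rel k i i' j = (G n).rel k' i i' sN -
          ((G n).rel k' i i' sN - φ n i k k' * (G n).rel k i i' j) := by ring
      rw [e1]
      have b3 := abs_sub ((G n).rel k' i i' sN)
        ((G n).rel k' i i' sN - φ n i k k' * (G n).rel k i i' j)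
      have b4 : B.d n ^ (y - C1 * ε) ≤ B.d n ^ (y - (C1 + C2) * ε) := rpow_anti B n (by
        have : 0 ≤ C2 * ε := by positivity
        nlinarith)
      linarith
    rw [abs_mul] at b2
    have b5 : B.d n ^ ε * |(G n).rel k i i' j| ≤ 2 * B.d n ^ (y - (C1 + C2) * ε) :=
      (mul_le_mul_of_nonneg_right hnb.le (abs_nonneg _)).trans b2
    have b6 : |(G n).rel k i i' j| ≤ B.d n ^ (-ε) * (2 * B.d n ^ (y - (C1 + C2) * ε)) := by
      have e2 : B.d n ^ (-ε) * B.d n ^ ε = 1 := by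
        rw [← rpow_add', neg_add_cancel, Real.rpow_zero]
      calc |(G n).rel k i i' j| = B.d n ^ (-ε) * (B.d n ^ ε * |(G n).rel k i i' j|) := by
            rw [← mul_assoc, e2, one_mul]
        _ ≤ _ := mul_le_mul_of_nonneg_left b5 (hpow _).le
    calc |(G n).rel k i i' j| ≤ B.d n ^ (-ε) * (2 * B.d n ^ (y - (C1 + C2) * ε)) := b6
      _ ≤ B.d n ^ (-ε) * (B.d n ^ (-ε) * B.d n ^ (y - (C1 + C2) * ε)) := by
          refine mul_le_mul_of_nonneg_left ?_ (hpow _).le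
          exact mul_le_mul_of_nonneg_right h2 (hpow _).le
      _ = B.d n ^ (y - (C1 + C2 + 2) * ε) := by
          rw [← rpow_add', ← rpow_add']; congr 1; ring
      _ ≤ _ := rpow_anti B n (by
          have : 0 ≤ C0 * ε := by positivity
          nlinarith)
  · have := hlo j
    rw [H.base n] at this
    refine this.trans (rpow_anti B n ?_)
    have h3 := ho j hj
    have : 0 ≤ (C1 + C2 + 2) * ε := by positivity
    nlinarith

end Crest.Agent.R136.TrI938
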