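import Crest.Agent.R136.EvW3_938
import Crest.Agent.R136.TrI_938

/-!
# R136: row (i) of 5b (weight 1), part a: the slot `P` sees `c` (helper938)

Own rotation of weight 1 (slots `zA` = 12 and `A` = 15); all line slots of the pair narrow (`η`)
except `c`.  Then `P` at the new height is `-(own 15 + u * own 12) * c` up to `η`.
-/

set_option autoImplicit false
set_option linter.unusedSectionVars false
set_option linter.unusedVariables false

open Filter Topology

namespace Crest.Agent.R136.EvW938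

open Finset Crest.Agent.R136.NetW191 Crest.Agent.R136.Net191 Crest.Agent.R136.Qg926
open Crest.Agent.R136.PqG464 (wtW wtW_list)
open Crest.Agent.R138.Ex926 (Base U)

section raw

variable {κ : ℝ} {S : Finset (Fin 18)} {X : Fin 18 → ℝ} {K η : ℝ} {a b : Fin 18 → ℝ}

/-- the frame at the new height has natural size -/
theorem frE_le (hκ : |κ| ≤ 1) (hX : SidesW X) (hK : 1 ≤ K) {u : ℝ} (hu : |u| ≤ K * X 0)
    (hb : ∀ s, |b s| ≤ K * X s) (i : Fin 4) :
    |frE κ u b i| ≤ 2 * K ^ 3 * X (Fin.castAdd 14 i) := by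
  obtain ⟨w2, w3, w4⟩ := walls_frame hX
  have X0 := hX.pos 0
  have X1 := hX.pos 1
  have X2 := hX.pos 2
  have X3 := hX.pos 3
  have K0 : 0 ≤ K := by linarith
  have K2 : K ≤ K ^ 3 := by nlinarith [mul_nonneg K0 K0]
  have K3 : K * K ≤ K ^ 3 := by nlinarith [mul_nonneg K0 K0]
  have p7 : |u * b 1| ≤ (K * K) * X 2 := by
    rw [mul_comm u]
    exact bm (hb 1) hu K0 K0 X1 w2
  have p8 : |b 1 * (u * b 1)| ≤ (K * (K * K)) * X 3 := bm (hb 1) p7 K0 (by positivity) X1 w3
  have s1 : ∀ {D : ℝ}, 0 ≤ D → K * D ≤ K ^ 3 * D := fun hD => mul_le_mul_of_nonneg_right K2 hD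
  have s2 : ∀ {D : ℝ}, 0 ≤ D → K * K * D ≤ K ^ 3 * D := fun hD =>
    mul_le_mul_of_nonneg_right K3 hD
  have v0 : ∀ {D : ℝ}, 0 ≤ D → 0 ≤ K ^ 3 * D := fun hD => by positivity
  fin_cases i
  · change |(0 : ℝ)| ≤ 2 * K ^ 3 * X 0
    rw [abs_zero]
    positivity
  · change |b 1| ≤ 2 * K ^ 3 * X 1
    have := hb 1
    have := s1 X1
    have := v0 X1
    linarith
  · change |b 2 + u * b 1| ≤ 2 * K ^ 3 * X 2
    have := hb 2
    have := s1 X2
    have := s2 X2
    have := abs_add_le (b 2) (u * b 1)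
    linarith
  · change |b 3 - κ * u * b 1 ^ 2| ≤ 2 * K ^ 3 * X 3
    have h : b 3 - κ * u * b 1 ^ 2 = b 3 - κ * (b 1 * (u * b 1)) := by ring
    rw [h]
    have g1 := abs_sub (b 3) (κ * (b 1 * (u * b 1)))
    have g2 : |κ * (b 1 * (u * b 1))| ≤ (K * (K * K)) * X 3 := by
      rw [abs_mul]
      calc |κ| * |b 1 * (u * b 1)| ≤ 1 * |b 1 * (u * b 1)| :=
            mul_le_mul_of_nonneg_right hκ (abs_nonneg _)
        _ ≤ _ := by linarith
    have q6 : K * (K * K) = K ^ 3 := by ring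
    rw [q6] at g2
    have := hb 3
    have := s1 X3
    linarith

/-- the two weight-1 slots of a flag -/
def two (w : Fin 14 → ℝ) : Fin 14 → ℝ := fun q => if q = 8 ∨ q = 11 then w q else 0

lemma two8 (w : Fin 14 → ℝ) : two w 8 = w 8 := by simp [two]
lemma two11 (w : Fin 14 → ℝ) : two w 11 = w 11 := by simp [two]
lemma two_ne {w : Fin 14 → ℝ} {q : Fin 14} (h1 : q ≠ 8) (h2 : q ≠ 11) : two w q = 0 := by
  simp [two, h1, h2]

lemma tr_two12 {h : Fin 4 → ℝ} (w : Fin 14 → ℝ) (h0 : h 0 = 0) :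
    tr κ h (two w) 12 = h 2 * w 8 + h 1 * w 11 := by
  rw [tr12]
  simp only [h0, two8, two11, two_ne (w := w) (show (0 : Fin 14) ≠ 8 by decide) (by decide),
    two_ne (w := w) (show (1 : Fin 14) ≠ 8 by decide) (by decide),
    two_ne (w := w) (show (2 : Fin 14) ≠ 8 by decide) (by decide),
    two_ne (w := w) (show (3 : Fin 14) ≠ 8 by decide) (by decide),
    two_ne (w := w) (show (4 : Fin 14) ≠ 8 by decide) (by decide),
    two_ne (w := w) (show (5 : Fin 14) ≠ 8 by decide) (by decide),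
    two_ne (w := w) (show (6 : Fin 14) ≠ 8 by decide) (by decide),
    two_ne (w := w) (show (7 : Fin 14) ≠ 8 by decide) (by decide),
    two_ne (w := w) (show (9 : Fin 14) ≠ 8 by decide) (by decide),
    two_ne (w := w) (show (10 : Fin 14) ≠ 8 by decide) (by decide),
    two_ne (w := w) (show (12 : Fin 14) ≠ 8 by decide) (by decide)]
  ring

/-- flags of the line slots do not see the weight-1 rotation -/
lemma tr_two_line {h : Fin 4 → ℝ} (w : Fin 14 → ℝ) (h0 : h 0 = 0) {q : Fin 14} (hq : w q = 0)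
    (h9 : q ≠ 9) (h12 : q ≠ 12) (h13 : q ≠ 13) : tr κ h (two w) q = 0 := by
  have z0 := two_ne (w := w) (show (0 : Fin 14) ≠ 8 by decide) (by decide)
  have z1 := two_ne (w := w) (show (1 : Fin 14) ≠ 8 by decide) (by decide)
  have z2 := two_ne (w := w) (show (2 : Fin 14) ≠ 8 by decide) (by decide)
  have z3 := two_ne (w := w) (show (3 : Fin 14) ≠ 8 by decide) (by decide)
  have z4 := two_ne (w := w) (show (4 : Fin 14) ≠ 8 by decide) (by decide)
  have z5 := two_ne (w := w) (show (5 : Fin 14) ≠ 8 by decide) (by decide)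
  have z6 := two_ne (w := w) (show (6 : Fin 14) ≠ 8 by decide) (by decide)
  have z7 := two_ne (w := w) (show (7 : Fin 14) ≠ 8 by decide) (by decide)
  have z10 := two_ne (w := w) (show (10 : Fin 14) ≠ 8 by decide) (by decide)
  fin_cases q
  · show tr κ h (two w) 0 = 0
    rw [tr0, z0]
  · show tr κ h (two w) 1 = 0
    rw [tr1, z0, z1]; ring
  · show tr κ h (two w) 2 = 0
    rw [tr2, z0, z1, z2]; ring
  · show tr κ h (two w) 3 = 0
    rw [tr3, z0, z1, z3]; ring
  · show tr κ h (two w) 4 = 0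
    rw [tr4, z0, z1, z2, z4]; ring
  · show tr κ h (two w) 5 = 0
    rw [tr5, z0, z1, z2, z3, z5]; ring
  · show tr κ h (two w) 6 = 0
    rw [tr6, z0, z1, z2, z3, z4, z5, z6]; ring
  · show tr κ h (two w) 7 = 0
    rw [tr7, z0, z1, z2, z3, z4, z5, z7]; ring
  · have hq' : w 8 = 0 := hq
    show tr κ h (two w) 8 = 0
    rw [tr8, z0, z1, z2, z3, z4, z5, z6, z7, two8, hq']; ring
  · exact absurd rfl h9
  · show tr κ h (two w) 10 = 0
    rw [tr10, z0, z1, z2, z3, z4, z5, z7, z10]; ring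
  · have hq' : w 11 = 0 := hq
    show tr κ h (two w) 11 = 0
    rw [tr11, z0, z1, z2, z3, z4, z5, z6, z7, z10, two11, hq', h0]; ring
  · exact absurd rfl h12
  · exact absurd rfl h13

/-- **the slot `P` sees `c`**, raw form -/
theorem rowP_raw (hκ : |κ| ≤ 1) (hX : SidesW X) (hK : 1 ≤ K) (hη : 0 ≤ η)
    (n13 : (13 : Fin 18) ∉ S) (n16 : (16 : Fin 18) ∉ S) (n17 : (17 : Fin 18) ∉ S)
    (ha : ∀ s, |a s| ≤ K * X s)
    (ha' : ∀ s ∈ S, s ≠ 0 → s ≠ 12 → s ≠ 15 → |a s| ≤ K * η * X s)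
    (hb : ∀ s, |b s| ≤ K * X s) (n2 : (2 : Fin 18) ∉ S)
    (hb' : ∀ s, s ∉ S → s ≠ 1 → |b s| ≤ K * η * X s) :
    (∀ q : Fin 14, Fin.natAdd 4 q ∉ S → q ≠ 9 → q ≠ 12 → q ≠ 13 →
      |evoW κ S a b (Fin.natAdd 4 q)| ≤ 942 * (2 * K ^ 3) ^ 7 * η * X (Fin.natAdd 4 q)) ∧
    |evoW κ S a b 16 + b 1 * (onS S (flg a) 11 + a 0 * onS S (flg a) 8)| ≤
      942 * (2 * K ^ 3) ^ 7 * η * X 16 := by
  have K0 : 0 ≤ K := by linarith
  have hKK : K ≤ K ^ 3 := by nlinarith [mul_nonneg K0 K0]
  have hK3 : 1 ≤ K ^ 3 := one_le_pow₀ hK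
  set L := 2 * K ^ 3 with hL
  have hL1 : 1 ≤ L := by linarith
  have hKL : K ≤ L := by linarith
  have hL0 : 0 ≤ L := by linarith
  have hLL : L * L ≤ L ^ 7 := by
    have : L ^ 2 ≤ L ^ 7 := pow_le_pow_right₀ hL1 (by norm_num)
    nlinarith
  have L1 : ∀ {x D : ℝ}, 0 ≤ D → |x| ≤ K * D → |x| ≤ L * D := fun hD h =>
    h.trans (mul_le_mul_of_nonneg_right hKL hD)
  have L2 : ∀ {x D : ℝ}, 0 ≤ D → |x| ≤ K * η * D → |x| ≤ L * η * D := fun hD h =>
    h.trans (mul_le_mul_of_nonneg_right (mul_le_mul_of_nonneg_right hKL hη) hD)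
  have hfr := frE_le hκ hX hK (ha 0) hb
  have hsh : ∀ i : Fin 4, |sh (a 0) i| ≤ L * X (Fin.castAdd 14 i) := by
    intro i
    fin_cases i
    · exact L1 (hX.pos _) (ha 0)
    · change |(0 : ℝ)| ≤ L * X 1
      rw [abs_zero]; exact mul_nonneg hL0 (hX.pos _)
    · change |(0 : ℝ)| ≤ L * X 2
      rw [abs_zero]; exact mul_nonneg hL0 (hX.pos _)
    · change |(0 : ℝ)| ≤ L * X 3
      rw [abs_zero]; exact mul_nonneg hL0 (hX.pos _)
  have hsame : ∀ (h : Fin 4 → ℝ) (i : Fin 4), |h i - h i| ≤ L * η * X (Fin.castAdd 14 i) := by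
    intro h i
    rw [sub_self, abs_zero]
    exact mul_nonneg (mul_nonneg hL0 hη) (hX.pos _)
  -- the b-part
  have g1 : ∀ q : Fin 14, |tr κ (sh (a 0)) (offS S (flg b)) q| ≤
      470 * L ^ 7 * η * X (Fin.natAdd 4 q) := by
    intro q
    have := tr_lip (h' := sh (a 0)) (w' := 0) hκ hX hL1 hη hsh hsh (hsame _)
      (w := offS S (flg b)) (fun q => by
        unfold offS flg
        split_ifs with hq
        · rw [abs_zero]; exact mul_nonneg hL0 (hX.pos _)
        · exact L1 (hX.pos _) (hb _))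
      (fun q => by
        rw [Pi.zero_apply, sub_zero]
        unfold offS flg
        split_ifs with hq
        · rw [abs_zero]; exact mul_nonneg (mul_nonneg hL0 hη) (hX.pos _)
        · refine L2 (hX.pos _) (hb' _ hq ?_)
          intro he
          have := congrArg Fin.val he
          simp at this
          omega) q
    rwa [tr_zero, Pi.zero_apply, sub_zero] at this
  -- the a-part
  have g2 : ∀ q : Fin 14, |tr κ (frE κ (a 0) b) (onS S (flg a)) q -
      tr κ (frE κ (a 0) b) (two (onS S (flg a))) q| ≤ 470 * L ^ 7 * η * X (Fin.natAdd 4 q) := by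
    intro q
    refine tr_lip (h' := frE κ (a 0) b) hκ hX hL1 hη hfr hfr (hsame _) (fun q => ?_)
      (fun q => ?_) q
    · unfold onS flg
      split_ifs with hq
      · exact L1 (hX.pos _) (ha _)
      · rw [abs_zero]; exact mul_nonneg hL0 (hX.pos _)
    · unfold two
      split_ifs with hq
      · rw [sub_self, abs_zero]; exact mul_nonneg (mul_nonneg hL0 hη) (hX.pos _)
      · rw [sub_zero]
        push Not at hq
        unfold onS flg
        split_ifs with hqS
        · refine L2 (hX.pos _) (ha' _ hqS ?_ ?_ ?_)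
          · intro he
            have := congrArg Fin.val he
            simp at this
          · intro he
            have := congrArg Fin.val he
            simp at this
            exact hq.1 (Fin.ext (by simpa using (by omega : (q : ℕ) = 8)))
          · intro he
            have := congrArg Fin.val he
            simp at this
            exact hq.2 (Fin.ext (by simpa using (by omega : (q : ℕ) = 11)))
        · rw [abs_zero]; exact mul_nonneg (mul_nonneg hL0 hη) (hX.pos _)
  refine ⟨?_, ?_⟩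
  · intro q hq h9 h12 h13
    have e1 : evoW κ S a b (Fin.natAdd 4 q) = tr κ (sh (a 0)) (offS S (flg b)) q -
        tr κ (frE κ (a 0) b) (onS S (flg a)) q := Fin.append_right _ _ _
    have e2 := tr_two_line (κ := κ) (h := frE κ (a 0) b) (onS S (flg a)) rfl (onS_not hq) h9 h12
      h13
    have h1 := g1 q
    have h2 := g2 q
    rw [e2, sub_zero] at h2
    rw [e1]
    refine (abs_sub _ _).trans ?_
    have h3 : 0 ≤ L ^ 7 * η * X (Fin.natAdd 4 q) :=
      mul_nonneg (mul_nonneg (by positivity) hη) (hX.pos _)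
    nlinarith
  · have e1 : evoW κ S a b 16 = tr κ (sh (a 0)) (offS S (flg b)) 12 -
        tr κ (frE κ (a 0) b) (onS S (flg a)) 12 := rfl
    have e2 := tr_two12 (κ := κ) (h := frE κ (a 0) b) (onS S (flg a)) rfl
    have e3 : frE κ (a 0) b 2 = b 2 + a 0 * b 1 := rfl
    have e4 : frE κ (a 0) b 1 = b 1 := rfl
    rw [e3, e4] at e2
    have h1 := g1 12
    have h2 := g2 12
    have e5 : evoW κ S a b 16 + b 1 * (onS S (flg a) 11 + a 0 * onS S (flg a) 8) =
        tr κ (sh (a 0)) (offS S (flg b)) 12 -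
        (tr κ (frE κ (a 0) b) (onS S (flg a)) 12 -
          tr κ (frE κ (a 0) b) (two (onS S (flg a))) 12) - b 2 * onS S (flg a) 8 := by
      rw [e1, e2]; ring
    rw [e5]
    have w12 : X 2 * X 12 ≤ X 16 := by
      have := hX.wall 16 [2, 12] (by decide)
      simpa using this
    have h8 : |onS S (flg a) 8| ≤ K * X 12 := by
      unfold onS flg
      split_ifs with hq
      · exact ha _
      · rw [abs_zero]; exact mul_nonneg K0 (hX.pos _)
    have h3 : |b 2 * onS S (flg a) 8| ≤ (K * η * K) * X 16 :=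
      bm (hb' 2 n2 (by decide)) h8 (mul_nonneg K0 hη) K0 (hX.pos _) w12
    have h4 := abs_sub (tr κ (sh (a 0)) (offS S (flg b)) 12 -
        (tr κ (frE κ (a 0) b) (onS S (flg a)) 12 -
          tr κ (frE κ (a 0) b) (two (onS S (flg a))) 12)) (b 2 * onS S (flg a) 8)
    have h5 := abs_sub (tr κ (sh (a 0)) (offS S (flg b)) 12)
        (tr κ (frE κ (a 0) b) (onS S (flg a)) 12 -
          tr κ (frE κ (a 0) b) (two (onS S (flg a))) 12)
    have h6 : (K * η * K) * X 16 ≤ L ^ 7 * η * X 16 := by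
      have : K * K ≤ L ^ 7 := (mul_le_mul hKL hKL K0 hL0).trans hLL
      have e : K * η * K = K * K * η := by ring
      rw [e]
      exact mul_le_mul_of_nonneg_right (mul_le_mul_of_nonneg_right this hη) (hX.pos _)
    have h7 : 0 ≤ L ^ 7 * η * X 16 := mul_nonneg (mul_nonneg (by positivity) hη) (hX.pos _)
    have e6 : X (Fin.natAdd 4 (12 : Fin 14)) = X 16 := rfl
    rw [e6] at h1 h2
    nlinarith

end raw

end Crest.Agent.R136.EvW938
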