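import Crest.Agent.R136.Res1_648
import Crest.Agent.R136.W1a_938
import Crest.Agent.R136.NetW7_191

/-!
# R136: rows at the wall resonances of 5b (helper648), part 2: finite rows, general part

`Raw κ S V X K τ f A lc zc` : a set `A` of incidences with flags `f` and sides `X` (W-chart), level
slots `S`, own motion only in the slot `z` and in the flag slots `V` (up to `τ`).

* `Raw.lev_row`, `Raw.lin_row`, `Raw.frm_row` : rows of the second line;
* `Raw.own_comp`, `Raw.ref_comp` : cocycles along a line;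
* `Raw.spread` : from "the own motion of ONE line `i`, from ONE height, is `ψ * fk`" to the same
  statement for all lines, between all heights, with `ψ` replaced by `ψ - β_j(line)`.
-/

set_option autoImplicit false
set_option linter.unusedVariables false
set_option linter.unusedSectionVars false

namespace Crest.Agent.R136.Res2648

open Finset Crest.Agent.R136.NetW191 Crest.Agent.R136.EvW938

/-- keep the slots of `V` -/
def only (V : Finset (Fin 14)) (w : Fin 14 → ℝ) : Fin 14 → ℝ := fun q => if q ∈ V then w q else 0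

/-- motion of the unit flag `j` -/
noncomputable def fk (κ u : ℝ) (j q : Fin 14) : ℝ :=
  tr κ (sh u) (Pi.single j 1) q - (Pi.single j 1 : Fin 14 → ℝ) q

/-- right-hand side of the rows -/
def row (κ : ℝ) (S : Finset (Fin 18)) (V : Finset (Fin 14)) (a b : Fin 18 → ℝ) (q : Fin 14) : ℝ :=
  tr κ (sh (a 0)) (offS S (flg b)) q - tr κ (frE κ (a 0) b) (only V (flg a)) q

/-- **incidences with own motion in `z` and `V`** -/
structure Raw {β : Type*} (κ : ℝ) (S : Finset (Fin 18)) (V : Finset (Fin 14)) (X : Fin 18 → ℝ)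
    (K τ : ℝ) (f : β → FW) (A : Set β) (lc zc : β → ℕ) : Prop where
  hκ : |κ| ≤ 1
  hX : SidesW X
  pos : ∀ s, 0 < X s
  hK : 1 ≤ K
  hτ : 0 ≤ τ
  hτ1 : τ ≤ 1
  h0 : (0 : Fin 18) ∈ S
  h1 : (1 : Fin 18) ∉ S
  h2 : (2 : Fin 18) ∉ S
  h3 : (3 : Fin 18) ∉ S
  hV : ∀ q ∈ V, Fin.natAdd 4 q ∈ S
  bnd : ∀ x ∈ A, ∀ y ∈ A, ∀ s, |coW κ (f x) (f y) s| ≤ K * X s
  own : ∀ x ∈ A, ∀ x' ∈ A, lc x = lc x' → ∀ s, s ≠ 0 → (∀ q ∈ V, s ≠ Fin.natAdd 4 q) →
    |coW κ (f x) (f x') s| ≤ K * τ * X s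
  lev : ∀ x ∈ A, ∀ y ∈ A, zc x = zc y → ∀ s ∈ S, |coW κ (f x) (f y) s| ≤ K * τ * X s

/-- the constant of the rows -/
noncomputable def CR (K : ℝ) : ℝ := CW K + 470 * (2 * K ^ 3) ^ 7

lemma evoW_right (κ : ℝ) (S : Finset (Fin 18)) (a b : Fin 18 → ℝ) (q : Fin 14) :
    evoW κ S a b (Fin.natAdd 4 q) = tr κ (sh (a 0)) (offS S (flg b)) q -
      tr κ (frE κ (a 0) b) (onS S (flg a)) q := by
  unfold evoW
  rw [Fin.append_right]
  rfl

lemma evoW_left (κ : ℝ) (S : Finset (Fin 18)) (a b : Fin 18 → ℝ) (i : Fin 4) :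
    evoW κ S a b (Fin.castAdd 14 i) = frE κ (a 0) b i := by
  unfold evoW
  rw [Fin.append_left]

lemma natAdd_ne_zero (q : Fin 14) : (Fin.natAdd 4 q : Fin 18) ≠ 0 := by
  intro he
  have := congrArg Fin.val he
  simp at this

lemma natAdd_inj {q q' : Fin 14} (h : (Fin.natAdd 4 q : Fin 18) = Fin.natAdd 4 q') : q = q' := by
  have := congrArg Fin.val h
  simp only [Fin.val_natAdd] at this
  exact Fin.ext (by omega)

lemma coW_zero (κ : ℝ) (f f' : FW) : coW κ f f' 0 = f'.g 0 - f.g 0 :=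
  coW_left κ f f' 0

section

variable {β : Type*} {κ : ℝ} {S : Finset (Fin 18)} {V : Finset (Fin 14)} {X : Fin 18 → ℝ}
  {K τ : ℝ} {f : β → FW} {A : Set β} {lc zc : β → ℕ}

lemma CR_ge (hK : 1 ≤ K) : 0 ≤ CR K ∧ CW K ≤ CR K ∧ 470 * (2 * K ^ 3) ^ 7 ≤ CR K ∧
    470 * K ^ 7 ≤ CR K ∧ K ≤ CR K := by
  have K0 : 0 ≤ K := by linarith
  have h1 := CW_pos hK
  have h2 : 1 ≤ K ^ 3 := one_le_pow₀ hK
  have h3 : K ≤ 2 * K ^ 3 := by nlinarith [mul_nonneg K0 K0]
  have h4 : K ^ 7 ≤ (2 * K ^ 3) ^ 7 := pow_le_pow_left₀ K0 h3 7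
  have h5 : K ≤ K ^ 7 := by
    calc K = K ^ 1 := (pow_one K).symm
      _ ≤ K ^ 7 := pow_le_pow_right₀ hK (by norm_num)
  have h6 : 0 ≤ K ^ 7 := by positivity
  unfold CR
  refine ⟨by positivity, ?_, ?_, ?_, ?_⟩ <;> linarith

namespace Raw

variable (R : Raw κ S V X K τ f A lc zc)

include R

lemma off {x x' : β} (hx : x ∈ A) (hx' : x' ∈ A) (hl : lc x = lc x') (s : Fin 18) (hs : s ∉ S) :
    |coW κ (f x) (f x') s| ≤ K * τ * X s := by
  refine R.own x hx x' hx' hl s ?_ ?_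
  · rintro rfl; exact hs R.h0
  · rintro q hq rfl; exact hs (R.hV q hq)

lemma K0 : 0 ≤ K := by linarith [R.hK]

/-- the two forms of the rows -/
theorem row_evoW {x x' y : β} (hx : x ∈ A) (hx' : x' ∈ A) (hy : y ∈ A) (hl : lc x = lc x')
    (q : Fin 14) : |evoW κ S (coW κ (f x) (f x')) (coW κ (f x) (f y)) (Fin.natAdd 4 q) -
      row κ S V (coW κ (f x) (f x')) (coW κ (f x) (f y)) q| ≤
      470 * (2 * K ^ 3) ^ 7 * τ * X (Fin.natAdd 4 q) := by
  have hK0 := R.K0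
  have hK := R.hK
  have hL : 1 ≤ 2 * K ^ 3 := by
    have := one_le_pow₀ hK (n := 3)
    linarith
  have hKL : K ≤ 2 * K ^ 3 := by nlinarith [mul_nonneg hK0 hK0]
  have hfr := frE_le R.hκ R.hX hK (u := coW κ (f x) (f x') 0) (R.bnd x hx x' hx' 0)
    (R.bnd x hx y hy)
  have key := tr_lip (q := q) (h := frE κ (coW κ (f x) (f x') 0) (coW κ (f x) (f y)))
    (h' := frE κ (coW κ (f x) (f x') 0) (coW κ (f x) (f y)))
    (w := only V (flg (coW κ (f x) (f x')))) (w' := onS S (flg (coW κ (f x) (f x'))))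
    R.hκ R.hX hL R.hτ hfr hfr (fun i => by
      rw [sub_self, abs_zero]
      exact mul_nonneg (mul_nonneg (by linarith) R.hτ) (R.pos _).le)
    (fun q => by
      unfold only
      split_ifs with hq
      · exact (R.bnd x hx x' hx' _).trans (mul_le_mul_of_nonneg_right hKL (R.pos _).le)
      · rw [abs_zero]; exact mul_nonneg (by linarith) (R.pos _).le)
    (fun q => by
      unfold only
      split_ifs with hq
      · rw [onS_mem (R.hV q hq), sub_self, abs_zero]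
        exact mul_nonneg (mul_nonneg (by linarith) R.hτ) (R.pos _).le
      · by_cases hS : (Fin.natAdd 4 q : Fin 18) ∈ S
        · rw [onS_mem hS, zero_sub, abs_neg]
          refine (R.own x hx x' hx' hl _ (natAdd_ne_zero q) ?_).trans ?_
          · intro q' hq' he
            exact hq (natAdd_inj he ▸ hq')
          · exact mul_le_mul_of_nonneg_right (mul_le_mul_of_nonneg_right hKL R.hτ) (R.pos _).le
        · rw [onS_not hS, sub_self, abs_zero]
          exact mul_nonneg (mul_nonneg (by linarith) R.hτ) (R.pos _).le)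
  rw [evoW_right]
  unfold row
  have e : tr κ (sh (coW κ (f x) (f x') 0)) (offS S (flg (coW κ (f x) (f y)))) q -
      tr κ (frE κ (coW κ (f x) (f x') 0) (coW κ (f x) (f y)))
        (onS S (flg (coW κ (f x) (f x')))) q -
      (tr κ (sh (coW κ (f x) (f x') 0)) (offS S (flg (coW κ (f x) (f y)))) q -
      tr κ (frE κ (coW κ (f x) (f x') 0) (coW κ (f x) (f y)))
        (only V (flg (coW κ (f x) (f x')))) q) =
      tr κ (frE κ (coW κ (f x) (f x') 0) (coW κ (f x) (f y)))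
        (only V (flg (coW κ (f x) (f x')))) q -
      tr κ (frE κ (coW κ (f x) (f x') 0) (coW κ (f x) (f y)))
        (onS S (flg (coW κ (f x) (f x')))) q := by ring
  rw [e]
  exact key

section four

variable {x x' y y' : β} (hx : x ∈ A) (hx' : x' ∈ A) (hy : y ∈ A) (hy' : y' ∈ A)
  (hl : lc x = lc x') (hl' : lc y = lc y') (hz : zc x = zc y) (hz' : zc x' = zc y')

include hx hx' hy hy' hl hl' hz hz'

/-- **own motion of the second line** -/
theorem lev_row {q : Fin 14} (hq : Fin.natAdd 4 q ∈ S) :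
    |coW κ (f y) (f y') (Fin.natAdd 4 q) +
      row κ S V (coW κ (f x) (f x')) (coW κ (f x) (f y)) q| ≤
      CR K * τ * X (Fin.natAdd 4 q) := by
  have g1 := ownW_fat R.hκ R.h0 R.h1 R.h2 R.h3 R.hX R.hK R.hτ (R.bnd x hx x' hx')
    (R.bnd x hx y hy) (R.bnd y hy y' hy') (R.bnd x' hx' y' hy') (R.off hx hx' hl)
    (R.off hy hy' hl') (R.lev x hx y hy hz) (R.lev x' hx' y' hy' hz') q hq
  have g2 := R.row_evoW hx hx' hy hl q
  have e : CR K * τ * X (Fin.natAdd 4 q) = CW K * τ * X (Fin.natAdd 4 q) +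
      470 * (2 * K ^ 3) ^ 7 * τ * X (Fin.natAdd 4 q) := by unfold CR; ring
  rw [e]
  rw [abs_le] at g1 g2 ⊢
  constructor <;> linarith [g1.1, g1.2, g2.1, g2.2]

/-- **evolution of the flag slots** -/
theorem lin_row {q : Fin 14} (hq : Fin.natAdd 4 q ∉ S) :
    |coW κ (f x') (f y') (Fin.natAdd 4 q) -
      row κ S V (coW κ (f x) (f x')) (coW κ (f x) (f y)) q| ≤
      CR K * τ * X (Fin.natAdd 4 q) := by
  have g1 := evoW_fat R.hκ R.h0 R.h1 R.h2 R.h3 R.hX R.hK R.hτ (R.bnd x hx x' hx')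
    (R.bnd x hx y hy) (R.bnd y hy y' hy') (R.bnd x' hx' y' hy') (R.off hx hx' hl)
    (R.off hy hy' hl') (R.lev x hx y hy hz) (R.lev x' hx' y' hy' hz') _ hq
  have g2 := R.row_evoW hx hx' hy hl q
  have e : CR K * τ * X (Fin.natAdd 4 q) = CW K * τ * X (Fin.natAdd 4 q) +
      470 * (2 * K ^ 3) ^ 7 * τ * X (Fin.natAdd 4 q) := by unfold CR; ring
  rw [e]
  rw [abs_le] at g1 g2 ⊢
  constructor <;> linarith [g1.1, g1.2, g2.1, g2.2]

/-- **evolution of the frame** -/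
theorem frm_row {i : Fin 4} (hi : Fin.castAdd 14 i ∉ S) :
    |coW κ (f x') (f y') (Fin.castAdd 14 i) -
      frE κ (coW κ (f x) (f x') 0) (coW κ (f x) (f y)) i| ≤
      CR K * τ * X (Fin.castAdd 14 i) := by
  have g1 := evoW_fat R.hκ R.h0 R.h1 R.h2 R.h3 R.hX R.hK R.hτ (R.bnd x hx x' hx')
    (R.bnd x hx y hy) (R.bnd y hy y' hy') (R.bnd x' hx' y' hy') (R.off hx hx' hl)
    (R.off hy hy' hl') (R.lev x hx y hy hz) (R.lev x' hx' y' hy' hz') _ hi
  rw [evoW_left] at g1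
  refine g1.trans ?_
  exact mul_le_mul_of_nonneg_right (mul_le_mul_of_nonneg_right (CR_ge R.hK).2.1 R.hτ) (R.pos _).le

/-- the height slots agree -/
theorem hgt_row : |coW κ (f y) (f y') 0 - coW κ (f x) (f x') 0| ≤ 2 * K * τ * X 0 := by
  have g1 := R.lev x hx y hy hz 0 R.h0
  have g2 := R.lev x' hx' y' hy' hz' 0 R.h0
  have e : coW κ (f y) (f y') 0 - coW κ (f x) (f x') 0 =
      coW κ (f x') (f y') 0 - coW κ (f x) (f y) 0 := by
    simp only [coW_zero]; ring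
  rw [e]
  have h := abs_sub (coW κ (f x') (f y') 0) (coW κ (f x) (f y) 0)
  linarith

end four

lemma comp_id (x x' x'' : β) (q : Fin 14) : coW κ (f x) (f x'') (Fin.natAdd 4 q) =
    coW κ (f x') (f x'') (Fin.natAdd 4 q) +
      tr κ (frm (coW κ (f x') (f x''))) (flg (coW κ (f x) (f x'))) q := by
  have e1 := congrFun (cocycle κ (f x) (f x') (f x'')) q
  rw [Pi.add_apply] at e1
  rw [coW_right, coW_right, frm_coW, flg_coW]
  exact e1

lemma flg_only {x x' : β} (hx : x ∈ A) (hx' : x' ∈ A) (hl : lc x = lc x') (q : Fin 14) :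
    |flg (coW κ (f x) (f x')) q - only V (flg (coW κ (f x) (f x'))) q| ≤
      K * τ * X (Fin.natAdd 4 q) := by
  unfold only
  split_ifs with hq
  · rw [sub_self, abs_zero]
    exact mul_nonneg (mul_nonneg R.K0 R.hτ) (R.pos _).le
  · rw [sub_zero]
    exact R.own x hx x' hx' hl _ (natAdd_ne_zero q) fun q' hq' he => hq (natAdd_inj he ▸ hq')

lemma frm_sh {x x' : β} (hx : x ∈ A) (hx' : x' ∈ A) (hl : lc x = lc x') (i : Fin 4) :
    |frm (coW κ (f x) (f x')) i - sh (coW κ (f x) (f x') 0) i| ≤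
      K * τ * X (Fin.castAdd 14 i) := by
  fin_cases i
  · change |coW κ (f x) (f x') 0 - coW κ (f x) (f x') 0| ≤ K * τ * X 0
    rw [sub_self, abs_zero]
    exact mul_nonneg (mul_nonneg R.K0 R.hτ) (R.pos _).le
  · change |coW κ (f x) (f x') 1 - 0| ≤ K * τ * X 1
    rw [sub_zero]
    exact R.off hx hx' hl 1 R.h1
  · change |coW κ (f x) (f x') 2 - 0| ≤ K * τ * X 2
    rw [sub_zero]
    exact R.off hx hx' hl 2 R.h2
  · change |coW κ (f x) (f x') 3 - 0| ≤ K * τ * X 3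
    rw [sub_zero]
    exact R.off hx hx' hl 3 R.h3

lemma sh_le {x x' : β} (hx : x ∈ A) (hx' : x' ∈ A) (i : Fin 4) :
    |sh (coW κ (f x) (f x') 0) i| ≤ K * X (Fin.castAdd 14 i) := by
  fin_cases i
  · exact R.bnd x hx x' hx' 0
  · change |(0 : ℝ)| ≤ K * X 1
    rw [abs_zero]; exact mul_nonneg R.K0 (R.pos _).le
  · change |(0 : ℝ)| ≤ K * X 2
    rw [abs_zero]; exact mul_nonneg R.K0 (R.pos _).le
  · change |(0 : ℝ)| ≤ K * X 3
    rw [abs_zero]; exact mul_nonneg R.K0 (R.pos _).le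

/-- **composition along one line** -/
theorem own_comp {x x' x'' : β} (hx : x ∈ A) (hx' : x' ∈ A) (hx'' : x'' ∈ A)
    (hl : lc x = lc x') (hl' : lc x' = lc x'') (q : Fin 14) :
    |coW κ (f x) (f x'') (Fin.natAdd 4 q) - coW κ (f x') (f x'') (Fin.natAdd 4 q) -
      tr κ (sh (coW κ (f x') (f x'') 0)) (only V (flg (coW κ (f x) (f x')))) q| ≤
      470 * K ^ 7 * τ * X (Fin.natAdd 4 q) := by
  have key := tr_lip (q := q) (h := frm (coW κ (f x') (f x'')))
    (h' := sh (coW κ (f x') (f x'') 0)) (w := flg (coW κ (f x) (f x')))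
    (w' := only V (flg (coW κ (f x) (f x')))) R.hκ R.hX R.hK R.hτ
    (fun i => R.bnd x' hx' x'' hx'' _) (R.sh_le hx' hx'') (R.frm_sh hx' hx'' hl')
    (fun q => R.bnd x hx x' hx' _) (R.flg_only hx hx' hl)
  rw [R.comp_id x x' x'' q]
  have e : coW κ (f x') (f x'') (Fin.natAdd 4 q) +
      tr κ (frm (coW κ (f x') (f x''))) (flg (coW κ (f x) (f x'))) q -
      coW κ (f x') (f x'') (Fin.natAdd 4 q) -
      tr κ (sh (coW κ (f x') (f x'') 0)) (only V (flg (coW κ (f x) (f x')))) q =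
      tr κ (frm (coW κ (f x') (f x''))) (flg (coW κ (f x) (f x'))) q -
      tr κ (sh (coW κ (f x') (f x'') 0)) (only V (flg (coW κ (f x) (f x')))) q := by ring
  rw [e]
  exact key

/-- **change of the reference on its line** -/
theorem ref_comp {x x' y : β} (hx : x ∈ A) (hx' : x' ∈ A) (hy : y ∈ A)
    (hl : lc x = lc x') (j : Fin 14) (hj : ∀ h w, tr κ h (only V w) j = 0) :
    |coW κ (f x) (f y) (Fin.natAdd 4 j) - coW κ (f x') (f y) (Fin.natAdd 4 j)| ≤
      470 * K ^ 7 * τ * X (Fin.natAdd 4 j) := by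
  have key := tr_lip (q := j) (h := frm (coW κ (f x') (f y)))
    (h' := frm (coW κ (f x') (f y))) (w := flg (coW κ (f x) (f x')))
    (w' := only V (flg (coW κ (f x) (f x')))) R.hκ R.hX R.hK R.hτ
    (fun i => R.bnd x' hx' y hy _) (fun i => R.bnd x' hx' y hy _) (fun i => by
      rw [sub_self, abs_zero]
      exact mul_nonneg (mul_nonneg R.K0 R.hτ) (R.pos _).le)
    (fun q => R.bnd x hx x' hx' _) (R.flg_only hx hx' hl)
  rw [hj, sub_zero] at key
  rw [R.comp_id x x' y j]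
  have e : coW κ (f x') (f y) (Fin.natAdd 4 j) +
      tr κ (frm (coW κ (f x') (f y))) (flg (coW κ (f x) (f x'))) j -
      coW κ (f x') (f y) (Fin.natAdd 4 j) =
      tr κ (frm (coW κ (f x') (f y))) (flg (coW κ (f x) (f x'))) j := by ring
  rw [e]
  exact key

end Raw

end

/-! ### the motion of the unit flag -/

lemma mul_sh (κ u u' : ℝ) : mul κ (sh u) (sh u') = sh (u + u') := by
  funext k
  fin_cases k <;> simp [mul, sh]

lemma fk_fun (κ u : ℝ) (j : Fin 14) :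
    fk κ u j = tr κ (sh u) (Pi.single j 1) - (Pi.single j 1 : Fin 14 → ℝ) := rfl

/-- cocycle of `fk` -/
lemma fk_add (κ u u' : ℝ) (j q : Fin 14) :
    tr κ (sh u') (fk κ u j) q = fk κ (u + u') j q - fk κ u' j q := by
  rw [fk_fun κ u j, tr_sub, ← tr_mul, mul_sh]
  unfold fk
  rw [Pi.sub_apply]
  ring

lemma smul_fk (κ u c : ℝ) (j q : Fin 14) :
    c * fk κ u j q = tr κ (sh u) (c • Pi.single j 1) q - (c • (Pi.single j 1 : Fin 14 → ℝ)) q := by
  rw [NetW191.tr_smul, Pi.smul_apply, Pi.smul_apply, smul_eq_mul, smul_eq_mul]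
  unfold fk
  ring

lemma single_le {X : Fin 18 → ℝ} (hX : ∀ s, 0 < X s) {c D : ℝ} {j : Fin 14} (hD : 0 ≤ D)
    (hc : |c| ≤ D * X (Fin.natAdd 4 j)) (q : Fin 14) :
    |(c • (Pi.single j 1 : Fin 14 → ℝ)) q| ≤ D * X (Fin.natAdd 4 q) := by
  rw [Pi.smul_apply, smul_eq_mul]
  by_cases h : q = j
  · subst h
    rw [Pi.single_eq_same, mul_one]
    exact hc
  · rw [Pi.single_eq_of_ne h, mul_zero, abs_zero]
    exact mul_nonneg hD (hX _).le

/-- algebraic conditions on the pair (own slots, source) -/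
structure Adm (V : Finset (Fin 14)) (j : Fin 14) : Prop where
  jV : j ∉ V
  zero : ∀ (κ : ℝ) (h : Fin 4 → ℝ) (w : Fin 14 → ℝ), tr κ h (only V w) j = 0
  own : ∀ (κ : ℝ) (h : Fin 4 → ℝ) (w : Fin 14 → ℝ), h 0 = 0 → ∀ q ∈ V,
    tr κ h (only V w) q = w q
  sup : ∀ (κ u : ℝ) (q : Fin 14), q ∉ V → fk κ u j q = 0

/-- the constant of `spread` -/
noncomputable def CS (K M Ch : ℝ) : ℝ :=
  CR K + Ch + 470 * K ^ 7 + 470 * M ^ 7 + 1 + 470 * K ^ 7 * (470 * K ^ 7) + 470 * (2 * M) ^ 7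

section

variable {β : Type*} {κ : ℝ} {S : Finset (Fin 18)} {V : Finset (Fin 14)} {X : Fin 18 → ℝ}
  {K τ : ℝ} {f : β → FW} {A : Set β} {lc zc : β → ℕ} {j : Fin 14}

/-- size of `fk` -/
lemma fk_size (hκ : |κ| ≤ 1) (hX : SidesW X) (pos : ∀ s, 0 < X s) (hK : 1 ≤ K) {u : ℝ}
    (hu : |u| ≤ K * X 0) {q : Fin 14} (hq : q ≠ j) :
    X (Fin.natAdd 4 j) * |fk κ u j q| ≤ 470 * K ^ 7 * X (Fin.natAdd 4 q) := by
  have hK0 : 0 ≤ K := by linarith
  have key := tr_size (q := q) (h := sh u) (w := X (Fin.natAdd 4 j) • Pi.single j 1) hκ hX hK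
    (fun i => by
      fin_cases i
      · exact hu
      · change |(0 : ℝ)| ≤ K * X 1
        rw [abs_zero]; exact mul_nonneg hK0 (pos _).le
      · change |(0 : ℝ)| ≤ K * X 2
        rw [abs_zero]; exact mul_nonneg hK0 (pos _).le
      · change |(0 : ℝ)| ≤ K * X 3
        rw [abs_zero]; exact mul_nonneg hK0 (pos _).le)
    (fun q => single_le pos hK0 (by
      rw [abs_of_pos (pos _)]
      nlinarith [pos (Fin.natAdd 4 j)]) q)
  have e := smul_fk κ u (X (Fin.natAdd 4 j)) j q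
  have e2 : (X (Fin.natAdd 4 j) • (Pi.single j 1 : Fin 14 → ℝ)) q = 0 := by
    rw [Pi.smul_apply, Pi.single_eq_of_ne hq, smul_zero]
  rw [e2, sub_zero] at e
  have e3 : X (Fin.natAdd 4 j) * |fk κ u j q| = |X (Fin.natAdd 4 j) * fk κ u j q| := by
    rw [abs_mul, abs_of_pos (pos _)]
  rw [e3, e]
  exact key

namespace Raw

variable (R : Raw κ S V X K τ f A lc zc)

include R

/-- **from one line and one height to all lines and heights** -/
theorem spread (ad : Adm V j) {ψ η M Ch : ℝ} (hM : 2 * K ≤ M) (hη : τ ≤ η)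
    (hCh : 0 ≤ Ch) (hψ : |ψ| ≤ M * X (Fin.natAdd 4 j))
    (hsh : ∀ x ∈ A, ∀ x' ∈ A, ∀ y ∈ A, lc x = lc x' → zc x = zc y → ∀ q ∈ V,
      |tr κ (sh (coW κ (f x) (f x') 0)) (offS S (flg (coW κ (f x) (f y)))) q -
        coW κ (f x) (f y) (Fin.natAdd 4 j) * fk κ (coW κ (f x) (f x') 0) j q| ≤
        Ch * η * X (Fin.natAdd 4 q))
    {x₀ x x' y y' : β} (hx₀ : x₀ ∈ A) (hx : x ∈ A) (hx' : x' ∈ A) (hy : y ∈ A) (hy' : y' ∈ A)
    (hl₀ : lc x₀ = lc x) (hl : lc x = lc x') (hl' : lc y = lc y') (hz : zc x = zc y)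
    (hz' : zc x' = zc y')
    (h1 : ∀ q ∈ V, |coW κ (f x₀) (f x) (Fin.natAdd 4 q) - ψ * fk κ (coW κ (f x₀) (f x) 0) j q| ≤
      η * X (Fin.natAdd 4 q))
    (h2 : ∀ q ∈ V, |coW κ (f x₀) (f x') (Fin.natAdd 4 q) -
      ψ * fk κ (coW κ (f x₀) (f x') 0) j q| ≤ η * X (Fin.natAdd 4 q)) :
    ∀ q ∈ V, |coW κ (f y) (f y') (Fin.natAdd 4 q) -
      (ψ - coW κ (f x₀) (f y) (Fin.natAdd 4 j)) * fk κ (coW κ (f y) (f y') 0) j q| ≤
      CS K M Ch * η * X (Fin.natAdd 4 q) := by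
  intro q hq
  have hK := R.hK
  have hK0 := R.K0
  have hM1 : 1 ≤ M := by linarith
  have hM0 : 0 ≤ M := by linarith
  have hKM : K ≤ M := by linarith
  have hη0 : 0 ≤ η := R.hτ.trans hη
  have hXq := R.pos (Fin.natAdd 4 q)
  have hXj := R.pos (Fin.natAdd 4 j)
  have hqj : q ≠ j := fun h => ad.jV (h ▸ hq)
  set u := coW κ (f x) (f x') 0 with hu
  set u₀ := coW κ (f x₀) (f x) 0 with hu₀
  set v := coW κ (f y) (f y') 0 with hv
  have hu01 : coW κ (f x₀) (f x') 0 = u₀ + u := by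
    rw [hu, hu₀]; simp only [coW_zero]; ring
  -- (a) the row of the second line
  have ga := R.lev_row hx hx' hy hy' hl hl' hz hz' (R.hV q hq)
  have gb := hsh x hx x' hx' y hy hl hz q hq
  have gc : tr κ (frE κ (coW κ (f x) (f x') 0) (coW κ (f x) (f y)))
      (only V (flg (coW κ (f x) (f x')))) q = coW κ (f x) (f x') (Fin.natAdd 4 q) :=
    ad.own κ _ _ rfl q hq
  have erow : row κ S V (coW κ (f x) (f x')) (coW κ (f x) (f y)) q =
      tr κ (sh (coW κ (f x) (f x') 0)) (offS S (flg (coW κ (f x) (f y)))) q -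
        coW κ (f x) (f x') (Fin.natAdd 4 q) := by
    unfold row
    rw [gc]
  rw [erow] at ga
  -- (d) composition on the first line
  have gd := R.own_comp hx₀ hx hx' hl₀ hl q
  -- (e) the transported part
  have ge : |tr κ (sh u) (only V (flg (coW κ (f x₀) (f x)))) q -
      tr κ (sh u) (ψ • fk κ u₀ j) q| ≤ 470 * M ^ 7 * η * X (Fin.natAdd 4 q) := by
    have hsM : ∀ i : Fin 4, |sh u i| ≤ M * X (Fin.castAdd 14 i) := fun i =>
      (R.sh_le hx hx' i).trans (mul_le_mul_of_nonneg_right hKM (R.pos _).le)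
    refine tr_lip (q := q) R.hκ R.hX hM1 hη0 hsM hsM (fun i => by
      rw [sub_self, abs_zero]
      exact mul_nonneg (mul_nonneg hM0 hη0) (R.pos _).le) (fun p => ?_) (fun p => ?_)
    · unfold only
      split_ifs with hp
      · exact (R.bnd _ hx₀ _ hx _).trans (mul_le_mul_of_nonneg_right hKM (R.pos _).le)
      · rw [abs_zero]; exact mul_nonneg hM0 (R.pos _).le
    · have hηM : η * X (Fin.natAdd 4 p) ≤ M * η * X (Fin.natAdd 4 p) := by
        refine mul_le_mul_of_nonneg_right ?_ (R.pos _).le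
        nlinarith
      unfold only
      split_ifs with hp
      · exact (h1 p hp).trans hηM
      · rw [Pi.smul_apply, ad.sup κ u₀ p hp, smul_zero, sub_zero, abs_zero]
        exact mul_nonneg (mul_nonneg hM0 hη0) (R.pos _).le
  rw [NetW191.tr_smul, Pi.smul_apply, smul_eq_mul, fk_add] at ge
  -- (f)
  have gf := h2 q hq
  rw [hu01] at gf
  -- (g) the reference
  have gg := R.ref_comp hx₀ hx hy hl₀ j (ad.zero κ)
  have gs := fk_size (j := j) R.hκ R.hX R.pos hK (u := u) (R.bnd x hx x' hx' 0) hqj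
  have gg2 : |(coW κ (f x₀) (f y) (Fin.natAdd 4 j) - coW κ (f x) (f y) (Fin.natAdd 4 j)) *
      fk κ u j q| ≤ 470 * K ^ 7 * (470 * K ^ 7) * η * X (Fin.natAdd 4 q) := by
    rw [abs_mul]
    calc |coW κ (f x₀) (f y) (Fin.natAdd 4 j) - coW κ (f x) (f y) (Fin.natAdd 4 j)| *
          |fk κ u j q| ≤ (470 * K ^ 7 * τ * X (Fin.natAdd 4 j)) * |fk κ u j q| :=
          mul_le_mul_of_nonneg_right gg (abs_nonneg _)
      _ = (470 * K ^ 7 * τ) * (X (Fin.natAdd 4 j) * |fk κ u j q|) := by ring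
      _ ≤ (470 * K ^ 7 * τ) * (470 * K ^ 7 * X (Fin.natAdd 4 q)) := by
          refine mul_le_mul_of_nonneg_left gs ?_
          have := R.hτ
          positivity
      _ = τ * (470 * K ^ 7 * (470 * K ^ 7) * X (Fin.natAdd 4 q)) := by ring
      _ ≤ η * (470 * K ^ 7 * (470 * K ^ 7) * X (Fin.natAdd 4 q)) :=
          mul_le_mul_of_nonneg_right hη (by positivity)
      _ = _ := by ring
  -- (h) the height slots
  set ψ' := ψ - coW κ (f x₀) (f y) (Fin.natAdd 4 j) with hψ'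
  have hψ'b : |ψ'| ≤ 2 * M * X (Fin.natAdd 4 j) := by
    have h3 := R.bnd x₀ hx₀ y hy (Fin.natAdd 4 j)
    have h4 := abs_sub ψ (coW κ (f x₀) (f y) (Fin.natAdd 4 j))
    have h5 := mul_le_mul_of_nonneg_right hKM hXj.le
    rw [hψ']
    linarith
  have gh : |ψ' * fk κ u j q - ψ' * fk κ v j q| ≤
      470 * (2 * M) ^ 7 * η * X (Fin.natAdd 4 q) := by
    have hh := R.hgt_row hx hx' hy hy' hl hl' hz hz'
    have h2M : K ≤ 2 * M := by linarith
    have key := tr_lip (q := q) (h := sh u) (h' := sh v) (w := ψ' • Pi.single j 1)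
      (w' := ψ' • Pi.single j 1) R.hκ R.hX (K := 2 * M) (by linarith) hη0
      (fun i => (R.sh_le hx hx' i).trans (mul_le_mul_of_nonneg_right h2M (R.pos _).le))
      (fun i => (R.sh_le hy hy' i).trans (mul_le_mul_of_nonneg_right h2M (R.pos _).le))
      (fun i => by
        fin_cases i
        · change |u - v| ≤ 2 * M * η * X 0
          rw [abs_sub_comm]
          refine hh.trans (mul_le_mul_of_nonneg_right ?_ (R.pos _).le)
          exact mul_le_mul (by linarith) hη R.hτ (by linarith)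
        · change |(0 : ℝ) - 0| ≤ 2 * M * η * X 1
          rw [sub_zero, abs_zero]; exact mul_nonneg (mul_nonneg (by linarith) hη0) (R.pos _).le
        · change |(0 : ℝ) - 0| ≤ 2 * M * η * X 2
          rw [sub_zero, abs_zero]; exact mul_nonneg (mul_nonneg (by linarith) hη0) (R.pos _).le
        · change |(0 : ℝ) - 0| ≤ 2 * M * η * X 3
          rw [sub_zero, abs_zero]; exact mul_nonneg (mul_nonneg (by linarith) hη0) (R.pos _).le)
      (fun p => single_le R.pos (by linarith) hψ'b p) (fun p => by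
        rw [sub_self, abs_zero]
        exact mul_nonneg (mul_nonneg (by linarith) hη0) (R.pos _).le)
    rw [smul_fk, smul_fk]
    have e : tr κ (sh u) (ψ' • Pi.single j 1) q - (ψ' • (Pi.single j 1 : Fin 14 → ℝ)) q -
        (tr κ (sh v) (ψ' • Pi.single j 1) q - (ψ' • (Pi.single j 1 : Fin 14 → ℝ)) q) =
        tr κ (sh u) (ψ' • Pi.single j 1) q - tr κ (sh v) (ψ' • Pi.single j 1) q := by ring
    rw [e]
    exact key
  -- sum
  have hτη : ∀ {C : ℝ}, 0 ≤ C → C * τ * X (Fin.natAdd 4 q) ≤ C * η * X (Fin.natAdd 4 q) :=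
    fun hC => mul_le_mul_of_nonneg_right (mul_le_mul_of_nonneg_left hη hC) hXq.le
  have ga' := ga.trans (hτη (CR_ge hK).1)
  have gd' := gd.trans (hτη (by positivity))
  have e : CS K M Ch * η * X (Fin.natAdd 4 q) = CR K * η * X (Fin.natAdd 4 q) +
      Ch * η * X (Fin.natAdd 4 q) + 470 * K ^ 7 * η * X (Fin.natAdd 4 q) +
      470 * M ^ 7 * η * X (Fin.natAdd 4 q) + η * X (Fin.natAdd 4 q) +
      470 * K ^ 7 * (470 * K ^ 7) * η * X (Fin.natAdd 4 q) +
      470 * (2 * M) ^ 7 * η * X (Fin.natAdd 4 q) := by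
    unfold CS; ring
  rw [e]
  have hψe : ψ' * fk κ u j q = ψ * fk κ u j q -
      coW κ (f x₀) (f y) (Fin.natAdd 4 j) * fk κ u j q := by rw [hψ']; ring
  rw [sub_mul] at gg2
  rw [hψe] at gh
  rw [mul_sub] at ge
  rw [abs_le] at ga' gb gd' ge gf gg2 gh ⊢
  constructor
  · linarith [ga'.1, ga'.2, gb.1, gb.2, gd'.1, gd'.2, ge.1, ge.2, gf.1, gf.2, gg2.1, gg2.2,
      gh.1, gh.2]
  · linarith [ga'.1, ga'.2, gb.1, gb.2, gd'.1, gd'.2, ge.1, ge.2, gf.1, gf.2, gg2.1, gg2.2,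
      gh.1, gh.2]

end Raw

end

end Crest.Agent.R136.Res2648
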