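import Crest.Agent.R136.Res2_648

/-!
# R136: rows at the wall resonances of 5b (helper648), part 3: the four resonances, finite rows

* `adm_AY`, `adm_BY`, `adm_YY`, `adm_zY` : `Adm V j`;
* `AY_ratio`, `BY_ratio`, `YY_ratio`, `zY_ratio` : the ratio seen by a pair `b 1` small, `b 2` (`b 3`)
  not small;
* `YY_r1`, `zY_r1` : the relation seen by a pair `b 2` small, `b 1` not small, for every line;
* `YY_fin`, `zY_fin` : the own motion is `ψ * fk`.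
-/

set_option autoImplicit false
set_option linter.unusedVariables false
set_option linter.unusedSectionVars false

namespace Crest.Agent.R136.Res2648

open Finset Crest.Agent.R136.NetW191 Crest.Agent.R136.EvW938

lemma forall14 {P : Fin 14 → Prop} (h0 : P 0) (h1 : P 1) (h2 : P 2) (h3 : P 3) (h4 : P 4)
    (h5 : P 5) (h6 : P 6) (h7 : P 7) (h8 : P 8) (h9 : P 9) (h10 : P 10) (h11 : P 11)
    (h12 : P 12) (h13 : P 13) : ∀ q, P q := by
  intro q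
  fin_cases q <;> assumption

/-! ### values of `fk` -/

section
variable (κ u : ℝ)

lemma fk_AY : fk κ u 2 5 = u := by
  unfold fk; rw [tr_sh5]; simp [Pi.single_apply]
lemma fk_BY : fk κ u 1 3 = u := by
  unfold fk; rw [tr_sh3]; simp [Pi.single_apply]
lemma fk_YY1 : fk κ u 0 1 = 2 * u := by
  unfold fk; rw [tr_sh1]; simp [Pi.single_apply]
lemma fk_YY3 : fk κ u 0 3 = u ^ 2 := by
  unfold fk; rw [tr_sh3]; simp [Pi.single_apply]
lemma fk_zY6 : fk κ u 4 6 = κ * u := by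
  unfold fk; rw [tr_sh6]; simp [Pi.single_apply]
lemma fk_zY7 : fk κ u 4 7 = 2 * u := by
  unfold fk; rw [tr_sh7]; simp [Pi.single_apply]
lemma fk_zY10 : fk κ u 4 10 = u ^ 2 := by
  unfold fk; rw [tr_sh10]; simp [Pi.single_apply]

end

theorem adm_AY : Adm {5} 2 where
  jV := by decide
  zero κ h w := by rw [tr2]; simp [only]
  own κ h w h0 q hq := by
    rw [mem_singleton] at hq
    subst hq
    rw [tr5]; simp [only]
  sup κ u := by
    refine forall14 ?_ ?_ ?_ ?_ ?_ ?_ ?_ ?_ ?_ ?_ ?_ ?_ ?_ ?_ <;> intro hq <;>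
    first
    | exact absurd hq (by decide)
    | (unfold fk
       simp [tr_sh0, tr_sh1, tr_sh2, tr_sh3, tr_sh4, tr_sh5, tr_sh6, tr_sh7, tr_sh8, tr_sh9,
         tr_sh10, tr_sh11, tr_sh12, tr_sh13, Pi.single_apply])

theorem adm_BY : Adm {3} 1 where
  jV := by decide
  zero κ h w := by rw [tr1]; simp [only]
  own κ h w h0 q hq := by
    rw [mem_singleton] at hq
    subst hq
    rw [tr3]; simp [only]
  sup κ u := by
    refine forall14 ?_ ?_ ?_ ?_ ?_ ?_ ?_ ?_ ?_ ?_ ?_ ?_ ?_ ?_ <;> intro hq <;>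
    first
    | exact absurd hq (by decide)
    | (unfold fk
       simp [tr_sh0, tr_sh1, tr_sh2, tr_sh3, tr_sh4, tr_sh5, tr_sh6, tr_sh7, tr_sh8, tr_sh9,
         tr_sh10, tr_sh11, tr_sh12, tr_sh13, Pi.single_apply])

theorem adm_YY : Adm {1, 3} 0 where
  jV := by decide
  zero κ h w := by rw [tr0]; simp [only]
  own κ h w h0 q hq := by
    simp only [mem_insert, mem_singleton] at hq
    rcases hq with rfl | rfl
    · rw [tr1, h0]; simp [only]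
    · rw [tr3, h0]; simp [only]
  sup κ u := by
    refine forall14 ?_ ?_ ?_ ?_ ?_ ?_ ?_ ?_ ?_ ?_ ?_ ?_ ?_ ?_ <;> intro hq <;>
    first
    | exact absurd hq (by decide)
    | (unfold fk
       simp [tr_sh0, tr_sh1, tr_sh2, tr_sh3, tr_sh4, tr_sh5, tr_sh6, tr_sh7, tr_sh8, tr_sh9,
         tr_sh10, tr_sh11, tr_sh12, tr_sh13, Pi.single_apply])

theorem adm_zY : Adm {6, 7, 10} 4 where
  jV := by decide
  zero κ h w := by rw [tr4]; simp [only]
  own κ h w h0 q hq := by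
    simp only [mem_insert, mem_singleton] at hq
    rcases hq with rfl | rfl | rfl
    · rw [tr6]; simp [only]
    · rw [tr7]; simp [only]
    · rw [tr10, h0]; simp [only]
  sup κ u := by
    refine forall14 ?_ ?_ ?_ ?_ ?_ ?_ ?_ ?_ ?_ ?_ ?_ ?_ ?_ ?_ <;> intro hq <;>
    first
    | exact absurd hq (by decide)
    | (unfold fk
       simp [tr_sh0, tr_sh1, tr_sh2, tr_sh3, tr_sh4, tr_sh5, tr_sh6, tr_sh7, tr_sh8, tr_sh9,
         tr_sh10, tr_sh11, tr_sh12, tr_sh13, Pi.single_apply])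

/-! ### rows -/

section rows

variable (κ : ℝ) {S : Finset (Fin 18)} (a b : Fin 18 → ℝ)

lemma offS_on {q : Fin 14} {s : Fin 18} (hs : Fin.natAdd 4 q = s) (h : s ∈ S) (w : Fin 14 → ℝ) :
    offS S w q = 0 := offS_mem (hs ▸ h)

lemma offS_of {q : Fin 14} {s : Fin 18} (hs : Fin.natAdd 4 q = s) (h : s ∉ S)
    (b : Fin 18 → ℝ) : offS S (flg b) q = b s := by
  rw [offS_not (hs ▸ h)]
  unfold flg
  rw [hs]

lemma flg_at {q : Fin 14} {s : Fin 18} (hs : Fin.natAdd 4 q = s) (b : Fin 18 → ℝ) :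
    flg b q = b s := by
  unfold flg
  rw [hs]

/-- slot `B` (14), own slot `AB` (9), all of it -/
lemma row_AY (h14 : (14 : Fin 18) ∈ S) (h11 : (11 : Fin 18) ∉ S) (h8 : (8 : Fin 18) ∉ S) :
    row κ S {5} a b 10 = a 0 * b 11 + a 0 ^ 2 * b 8 - (b 2 + a 0 * b 1) * a 9 := by
  unfold row
  rw [tr_sh10, tr10, offS_on (q := 10) (s := 14) rfl h14, offS_of (q := 7) (s := 11) rfl h11,
    offS_of (q := 4) (s := 8) rfl h8]
  simp only [only, flg_at (q := 5) (s := 9) rfl]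
  simp [frE]

lemma row_BY (h14 : (14 : Fin 18) ∉ S) (h11 : (11 : Fin 18) ∉ S) (h8 : (8 : Fin 18) ∉ S) :
    row κ S {3} a b 10 = b 14 + a 0 * b 11 + a 0 ^ 2 * b 8 -
      2 * (b 3 - κ * a 0 * b 1 ^ 2) * a 7 := by
  unfold row
  rw [tr_sh10, tr10, offS_of (q := 10) (s := 14) rfl h14, offS_of (q := 7) (s := 11) rfl h11,
    offS_of (q := 4) (s := 8) rfl h8]
  simp only [only, flg_at (q := 3) (s := 7) rfl]
  simp [frE]

lemma row_BY8 (h8 : (8 : Fin 18) ∉ S) : row κ S {3} a b 4 = b 8 := by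
  unfold row
  rw [tr_sh4, tr4, offS_of (q := 4) (s := 8) rfl h8]
  simp [only]

lemma row_YY (h9 : (9 : Fin 18) ∈ S) (h6 : (6 : Fin 18) ∉ S) :
    row κ S {1, 3} a b 5 = a 0 * b 6 - 2 * κ * (b 2 + a 0 * b 1) * a 5 +
      4 * κ * b 1 * a 7 := by
  unfold row
  rw [tr_sh5, tr5, offS_on (q := 5) (s := 9) rfl h9, offS_of (q := 2) (s := 6) rfl h6]
  simp only [only, flg_at (q := 1) (s := 5) rfl, flg_at (q := 3) (s := 7) rfl]
  simp [frE]
  ring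

lemma row_zY (h15 : (15 : Fin 18) ∈ S) (h12 : (12 : Fin 18) ∉ S) :
    row κ S {6, 7, 10} a b 11 = a 0 * b 12 - 2 * (b 2 + a 0 * b 1) * a 10 +
      2 * κ * b 1 * a 14 := by
  unfold row
  rw [tr_sh11, tr11, offS_on (q := 11) (s := 15) rfl h15, offS_of (q := 8) (s := 12) rfl h12]
  simp only [only, flg_at (q := 6) (s := 10) rfl, flg_at (q := 7) (s := 11) rfl,
    flg_at (q := 10) (s := 14) rfl]
  simp [frE]
  ring

/-- the shear part of the own slots -/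
lemma sh_AY (h9 : (9 : Fin 18) ∈ S) (h6 : (6 : Fin 18) ∉ S) (u : ℝ) : ∀ q ∈ ({5} : Finset (Fin 14)),
    tr κ (sh u) (offS S (flg b)) q = b 6 * fk κ u 2 q := by
  intro q hq
  rw [mem_singleton] at hq
  subst hq
  rw [tr_sh5, fk_AY, offS_on (q := 5) (s := 9) rfl h9, offS_of (q := 2) (s := 6) rfl h6]
  ring

lemma sh_YY (h5 : (5 : Fin 18) ∈ S) (h7 : (7 : Fin 18) ∈ S) (h4 : (4 : Fin 18) ∉ S) (u : ℝ) :
    ∀ q ∈ ({1, 3} : Finset (Fin 14)),
    tr κ (sh u) (offS S (flg b)) q = b 4 * fk κ u 0 q := by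
  intro q hq
  simp only [mem_insert, mem_singleton] at hq
  rcases hq with rfl | rfl
  · rw [tr_sh1, fk_YY1, offS_on (q := 1) (s := 5) rfl h5, offS_of (q := 0) (s := 4) rfl h4]
    ring
  · rw [tr_sh3, fk_YY3, offS_on (q := 3) (s := 7) rfl h7, offS_on (q := 1) (s := 5) rfl h5,
      offS_of (q := 0) (s := 4) rfl h4]
    ring

lemma sh_zY (h10 : (10 : Fin 18) ∈ S) (h11 : (11 : Fin 18) ∈ S) (h14 : (14 : Fin 18) ∈ S)
    (h8 : (8 : Fin 18) ∉ S) (u : ℝ) : ∀ q ∈ ({6, 7, 10} : Finset (Fin 14)),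
    tr κ (sh u) (offS S (flg b)) q = b 8 * fk κ u 4 q := by
  intro q hq
  simp only [mem_insert, mem_singleton] at hq
  rcases hq with rfl | rfl | rfl
  · rw [tr_sh6, fk_zY6, offS_on (q := 6) (s := 10) rfl h10, offS_of (q := 4) (s := 8) rfl h8]
    ring
  · rw [tr_sh7, fk_zY7, offS_on (q := 7) (s := 11) rfl h11, offS_of (q := 4) (s := 8) rfl h8]
    ring
  · rw [tr_sh10, fk_zY10, offS_on (q := 10) (s := 14) rfl h14,
      offS_on (q := 7) (s := 11) rfl h11, offS_of (q := 4) (s := 8) rfl h8]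
    ring

/-- slot `BY`: with the `YY` part -/
lemma sh_BY (h7 : (7 : Fin 18) ∈ S) (h5 : (5 : Fin 18) ∉ S) (u : ℝ) :
    ∀ q ∈ ({3} : Finset (Fin 14)),
    tr κ (sh u) (offS S (flg b)) q - b 5 * fk κ u 1 q = u ^ 2 * offS S (flg b) 0 := by
  intro q hq
  rw [mem_singleton] at hq
  subst hq
  rw [tr_sh3, fk_BY, offS_on (q := 3) (s := 7) rfl h7, offS_of (q := 1) (s := 5) rfl h5]
  ring

end rows

/-! ### finite statements -/

lemma divb {N D E β P Q T : ℝ} (hβ : 0 < β) (hQ : 0 < Q) (hT : 0 ≤ T) (hE : 0 ≤ E)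
    (hN : |N| ≤ E * P) (hP : P = Q * T) (hD : β * Q ≤ |D|) : |N / D| ≤ E / β * T := by
  have hD0 : 0 < |D| := lt_of_lt_of_le (mul_pos hβ hQ) hD
  rw [abs_div, div_le_iff₀ hD0]
  calc |N| ≤ E * P := hN
    _ = (E / β * T) * (β * Q) := by rw [hP]; field_simp
    _ ≤ (E / β * T) * |D| := mul_le_mul_of_nonneg_left hD (by positivity)

section fin

variable {β' : Type*} {κ : ℝ} {S : Finset (Fin 18)} {X : Fin 18 → ℝ}
  {K τ : ℝ} {f : β' → FW} {A : Set β'} {lc zc : β' → ℕ}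

/-- the row of an own slot outside `V` -/
theorem Raw.row_small {V : Finset (Fin 14)} (R : Raw κ S V X K τ f A lc zc) {x x' y y' : β'}
    (hx : x ∈ A) (hx' : x' ∈ A) (hy : y ∈ A) (hy' : y' ∈ A)
    (hl : lc x = lc x') (hl' : lc y = lc y') (hz : zc x = zc y) (hz' : zc x' = zc y')
    {q : Fin 14} (hq : Fin.natAdd 4 q ∈ S) (hqV : q ∉ V) :
    |row κ S V (coW κ (f x) (f x')) (coW κ (f x) (f y)) q| ≤
      (CR K + K) * τ * X (Fin.natAdd 4 q) := by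
  have g1 := R.lev_row hx hx' hy hy' hl hl' hz hz' hq
  have g2 := R.own y hy y' hy' hl' (Fin.natAdd 4 q) (natAdd_ne_zero q)
    (fun q' hq' he => hqV (natAdd_inj he ▸ hq'))
  have e : (CR K + K) * τ * X (Fin.natAdd 4 q) = CR K * τ * X (Fin.natAdd 4 q) +
      K * τ * X (Fin.natAdd 4 q) := by ring
  rw [e]
  rw [abs_le] at g1 g2 ⊢
  constructor <;> linarith [g1.1, g1.2, g2.1, g2.2]

/-- **`AY` : the ratio** -/
theorem AY_ratio (R : Raw κ S {5} X K τ f A lc zc) (h14 : (14 : Fin 18) ∈ S)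
    (h11 : (11 : Fin 18) ∉ S) (h8 : (8 : Fin 18) ∉ S) (t14 : X 14 = X 2 * X 9)
    (t11 : X 11 = X 2 * X 6) {x x' y y' : β'} (hx : x ∈ A) (hx' : x' ∈ A) (hy : y ∈ A)
    (hy' : y' ∈ A) (hl : lc x = lc x') (hl' : lc y = lc y') (hz : zc x = zc y)
    (hz' : zc x' = zc y') {δ β : ℝ} (hδ : 0 ≤ δ) (hβ : 0 < β)
    (b1 : |coW κ (f x) (f y) 1| ≤ δ * X 1) (b8 : |coW κ (f x) (f y) 8| ≤ δ * X 8)
    (b2 : β * X 2 ≤ |coW κ (f x) (f y) 2|) :
    |coW κ (f x) (f x') 9 - coW κ (f x) (f y) 11 / coW κ (f x) (f y) 2 *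
      coW κ (f x) (f x') 0| ≤ ((CR K + K) * τ + 2 * K ^ 2 * δ) / β * X 9 ∧
    |coW κ (f x) (f y) 11 / coW κ (f x) (f y) 2| ≤ K / β * X 6 := by
  have hK := R.hK
  have hK0 := R.K0
  have hC := (CR_ge hK).1
  have hτ := R.hτ
  have g := R.row_small hx hx' hy hy' hl hl' hz hz' (q := 10) h14 (by decide)
  rw [row_AY κ _ _ h14 h11 h8] at g
  change _ ≤ (CR K + K) * τ * X 14 at g
  set a := coW κ (f x) (f x') with ha
  set b := coW κ (f x) (f y) with hb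
  have ab : ∀ s, |a s| ≤ K * X s := R.bnd x hx x' hx'
  have bb : ∀ s, |b s| ≤ K * X s := R.bnd x hx y hy
  have w2 : X 1 * X 0 ≤ X 2 := (walls_frame R.hX).1
  have w14 : X 0 * (X 0 * X 8) ≤ X 14 := by
    have := R.hX.wall 14 [0, 0, 8] (by decide)
    simpa only [List.map_cons, List.map_nil, List.prod_cons, List.prod_nil, mul_one] using this
  have X0 := (R.pos 0).le
  have X9 := (R.pos 9).le
  have m1 : |a 0 * (a 0 * b 8)| ≤ (K * (K * δ)) * X 14 :=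
    bm (ab 0) (bm (ab 0) b8 hK0 hδ X0 le_rfl) hK0 (by positivity) X0 w14
  have m2 : |b 1 * a 0| ≤ (δ * K) * X 2 := bm b1 (ab 0) hδ hK0 (R.pos 1).le w2
  have m3 : |b 1 * a 0 * a 9| ≤ (δ * K * K) * X 14 :=
    bm m2 (ab 9) (by positivity) hK0 (R.pos 2).le t14.ge
  have hN : |a 0 * b 11 - b 2 * a 9| ≤ ((CR K + K) * τ + 2 * K ^ 2 * δ) * X 14 := by
    have e : a 0 * b 11 - b 2 * a 9 = (a 0 * b 11 + a 0 ^ 2 * b 8 - (b 2 + a 0 * b 1) * a 9) -
        a 0 * (a 0 * b 8) + b 1 * a 0 * a 9 := by ring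
    have e2 : ((CR K + K) * τ + 2 * K ^ 2 * δ) * X 14 = (CR K + K) * τ * X 14 +
        (K * (K * δ)) * X 14 + (δ * K * K) * X 14 := by ring
    rw [e, e2]
    rw [abs_le] at g m1 m3 ⊢
    constructor <;> linarith [g.1, g.2, m1.1, m1.2, m3.1, m3.2]
  have hb2 : b 2 ≠ 0 := by
    intro h0
    rw [h0, abs_zero] at b2
    linarith [mul_pos hβ (R.pos 2)]
  constructor
  · have e : a 9 - b 11 / b 2 * a 0 = -((a 0 * b 11 - b 2 * a 9) / b 2) := by
      field_simp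
      ring
    rw [e, abs_neg]
    exact divb hβ (R.pos 2) X9 (by positivity) hN t14 b2
  · exact divb hβ (R.pos 2) (R.pos 6).le hK0 (bb 11) t11 b2

/-- **`BY` : the ratio** (slot `B` is a line slot) -/
theorem BY_ratio (R : Raw κ S {3} X K τ f A lc zc) (h14 : (14 : Fin 18) ∉ S)
    (h11 : (11 : Fin 18) ∉ S) (h8 : (8 : Fin 18) ∉ S) (t14 : X 14 = X 3 * X 7)
    (t11 : X 11 = X 3 * X 5) {x x' y y' : β'} (hx : x ∈ A) (hx' : x' ∈ A) (hy : y ∈ A)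
    (hy' : y' ∈ A) (hl : lc x = lc x') (hl' : lc y = lc y') (hz : zc x = zc y)
    (hz' : zc x' = zc y') {δ β : ℝ} (hδ : 0 ≤ δ) (hβ : 0 < β)
    (b1 : |coW κ (f x) (f y) 1| ≤ δ * X 1) (b8 : |coW κ (f x) (f y) 8| ≤ δ * X 8)
    (b14 : |coW κ (f x) (f y) 14| ≤ δ * X 14) (r14 : |coW κ (f x') (f y') 14| ≤ δ * X 14)
    (b3 : β * X 3 ≤ |coW κ (f x) (f y) 3|) :
    |coW κ (f x) (f x') 7 - coW κ (f x) (f y) 11 / (2 * coW κ (f x) (f y) 3) *
      coW κ (f x) (f x') 0| ≤ (CR K * τ + (2 + 3 * K ^ 3) * δ) / β * X 7 ∧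
    |coW κ (f x) (f y) 11 / (2 * coW κ (f x) (f y) 3)| ≤ K / β * X 5 := by
  have hK := R.hK
  have hK0 := R.K0
  have hC := (CR_ge hK).1
  have hτ := R.hτ
  have g := R.lin_row hx hx' hy hy' hl hl' hz hz' (q := 10) h14
  rw [row_BY κ _ _ h14 h11 h8] at g
  change |coW κ (f x') (f y') 14 - _| ≤ CR K * τ * X 14 at g
  set r := coW κ (f x') (f y') with hr
  set a := coW κ (f x) (f x') with ha
  set b := coW κ (f x) (f y) with hb
  have ab : ∀ s, |a s| ≤ K * X s := R.bnd x hx x' hx'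
  have bb : ∀ s, |b s| ≤ K * X s := R.bnd x hx y hy
  have w2 : X 1 * X 0 ≤ X 2 := (walls_frame R.hX).1
  have w3 : X 1 * (X 1 * X 0) ≤ X 3 := (walls_frame R.hX).2.2
  have w14 : X 0 * (X 0 * X 8) ≤ X 14 := by
    have := R.hX.wall 14 [0, 0, 8] (by decide)
    simpa only [List.map_cons, List.map_nil, List.prod_cons, List.prod_nil, mul_one] using this
  have X0 := (R.pos 0).le
  have X1 := (R.pos 1).le
  have X3 := (R.pos 3).le
  have X7 := (R.pos 7).le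
  have X14 := (R.pos 14).le
  have m1 : |a 0 * (a 0 * b 8)| ≤ (K * (K * δ)) * X 14 :=
    bm (ab 0) (bm (ab 0) b8 hK0 hδ X0 le_rfl) hK0 (by positivity) X0 w14
  have m2 : |b 1 * (b 1 * a 0)| ≤ (δ * (K * K)) * X 3 :=
    bm b1 (bm (bb 1) (ab 0) hK0 hK0 X1 le_rfl) hδ (by positivity) X1 w3
  have m3 : |b 1 * (b 1 * a 0) * a 7| ≤ (δ * (K * K) * K) * X 14 :=
    bm m2 (ab 7) (by positivity) hK0 X3 t14.ge
  have m4 : |κ * (b 1 * (b 1 * a 0) * a 7)| ≤ (δ * (K * K) * K) * X 14 := by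
    rw [abs_mul]
    calc |κ| * |b 1 * (b 1 * a 0) * a 7| ≤ 1 * |b 1 * (b 1 * a 0) * a 7| :=
          mul_le_mul_of_nonneg_right R.hκ (abs_nonneg _)
      _ ≤ _ := by linarith
  have hN : |a 0 * b 11 - 2 * b 3 * a 7| ≤ (CR K * τ + (2 + 3 * K ^ 3) * δ) * X 14 := by
    have e : a 0 * b 11 - 2 * b 3 * a 7 = -(r 14 - (b 14 + a 0 * b 11 + a 0 ^ 2 * b 8 -
        2 * (b 3 - κ * a 0 * b 1 ^ 2) * a 7)) + r 14 - b 14 -
        a 0 * (a 0 * b 8) - 2 * (κ * (b 1 * (b 1 * a 0) * a 7)) := by ring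
    have K23 : K * (K * δ) ≤ K ^ 3 * δ := by
      have h1 : K * K ≤ K ^ 3 := by nlinarith [mul_nonneg hK0 hK0]
      have h2 := mul_le_mul_of_nonneg_right h1 hδ
      linarith
    have e2 : (CR K * τ + (2 + 3 * K ^ 3) * δ) * X 14 = CR K * τ * X 14 +
        δ * X 14 + δ * X 14 + (K ^ 3 * δ) * X 14 + 2 * ((δ * (K * K) * K) * X 14) := by ring
    have m1' := m1.trans (mul_le_mul_of_nonneg_right K23 X14)
    rw [e, e2]
    rw [abs_le] at g m1' m4 b14 r14 ⊢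
    constructor <;> linarith [g.1, g.2, m1'.1, m1'.2, m4.1, m4.2, b14.1, b14.2, r14.1, r14.2]
  have hb3 : b 3 ≠ 0 := by
    intro h0
    rw [h0, abs_zero] at b3
    linarith [mul_pos hβ (R.pos 3)]
  have b3' : β * X 3 ≤ |2 * b 3| := by
    rw [abs_mul, abs_two]
    linarith [abs_nonneg (b 3)]
  constructor
  · have e : a 7 - b 11 / (2 * b 3) * a 0 = -((a 0 * b 11 - 2 * b 3 * a 7) / (2 * b 3)) := by
      field_simp
      ring
    rw [e, abs_neg]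
    exact divb hβ (R.pos 3) X7 (by positivity) hN t14 b3'
  · exact divb hβ (R.pos 3) (R.pos 5).le hK0 (bb 11) t11 b3'

/-- **`YY` : the ratio** -/
theorem YY_ratio (R : Raw κ S {1, 3} X K τ f A lc zc) (h9 : (9 : Fin 18) ∈ S)
    (h6 : (6 : Fin 18) ∉ S) (t9 : X 9 = X 2 * X 5) (t9' : X 9 = X 1 * X 7)
    (t6 : X 6 = X 2 * X 4) {x x' y y' : β'} (hx : x ∈ A) (hx' : x' ∈ A) (hy : y ∈ A)
    (hy' : y' ∈ A) (hl : lc x = lc x') (hl' : lc y = lc y') (hz : zc x = zc y)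
    (hz' : zc x' = zc y') {δ β : ℝ} (hδ : 0 ≤ δ) (hβ : 0 < β)
    (b1 : |coW κ (f x) (f y) 1| ≤ δ * X 1)
    (b2 : β * X 2 ≤ |κ| * |coW κ (f x) (f y) 2|) :
    |coW κ (f x) (f x') 5 - coW κ (f x) (f y) 6 / (4 * κ * coW κ (f x) (f y) 2) *
      (2 * coW κ (f x) (f x') 0)| ≤ ((CR K + K) * τ + 6 * K ^ 2 * δ) / β * X 5 ∧
    |coW κ (f x) (f y) 6 / (4 * κ * coW κ (f x) (f y) 2)| ≤ K / β * X 4 := by
  have hK := R.hK
  have hK0 := R.K0
  have hC := (CR_ge hK).1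
  have hτ := R.hτ
  have g := R.row_small hx hx' hy hy' hl hl' hz hz' (q := 5) h9 (by decide)
  rw [row_YY κ _ _ h9 h6] at g
  change _ ≤ (CR K + K) * τ * X 9 at g
  set a := coW κ (f x) (f x') with ha
  set b := coW κ (f x) (f y) with hb
  have ab : ∀ s, |a s| ≤ K * X s := R.bnd x hx x' hx'
  have bb : ∀ s, |b s| ≤ K * X s := R.bnd x hx y hy
  have w2 : X 1 * X 0 ≤ X 2 := (walls_frame R.hX).1
  have X9 := (R.pos 9).le
  have kb : ∀ {v D : ℝ}, |v| ≤ D → |κ * v| ≤ D := by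
    intro v D h
    rw [abs_mul]
    calc |κ| * |v| ≤ 1 * |v| := mul_le_mul_of_nonneg_right R.hκ (abs_nonneg _)
      _ ≤ D := by linarith
  have m2 : |b 1 * a 0| ≤ (δ * K) * X 2 := bm b1 (ab 0) hδ hK0 (R.pos 1).le w2
  have m3 : |κ * (b 1 * a 0 * a 5)| ≤ (δ * K * K) * X 9 :=
    kb (bm m2 (ab 5) (by positivity) hK0 (R.pos 2).le t9.ge)
  have m4 : |κ * (b 1 * a 7)| ≤ (δ * K) * X 9 :=
    kb (bm b1 (ab 7) hδ hK0 (R.pos 1).le t9'.ge)
  have hN : |a 0 * b 6 - 2 * κ * b 2 * a 5| ≤ ((CR K + K) * τ + 6 * K ^ 2 * δ) * X 9 := by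
    have e : a 0 * b 6 - 2 * κ * b 2 * a 5 = (a 0 * b 6 - 2 * κ * (b 2 + a 0 * b 1) * a 5 +
      4 * κ * b 1 * a 7) + 2 * (κ * (b 1 * a 0 * a 5)) - 4 * (κ * (b 1 * a 7)) := by ring
    have K12 : δ * K ≤ δ * K * K := le_mul_of_one_le_right (by positivity) hK
    have e2 : ((CR K + K) * τ + 6 * K ^ 2 * δ) * X 9 = (CR K + K) * τ * X 9 +
        2 * ((δ * K * K) * X 9) + 4 * ((δ * K * K) * X 9) := by ring
    have m4' := m4.trans (mul_le_mul_of_nonneg_right K12 X9)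
    rw [e, e2]
    rw [abs_le] at g m3 m4' ⊢
    constructor <;> linarith [g.1, g.2, m3.1, m3.2, m4'.1, m4'.2]
  have hκb : κ * b 2 ≠ 0 := by
    intro h0
    rw [← abs_mul, h0, abs_zero] at b2
    linarith [mul_pos hβ (R.pos 2)]
  have hκ0 : κ ≠ 0 := left_ne_zero_of_mul hκb
  have hb2 : b 2 ≠ 0 := right_ne_zero_of_mul hκb
  have b2' : β * X 2 ≤ |2 * κ * b 2| := by
    rw [abs_mul, abs_mul, abs_two]
    have : 0 ≤ |κ| * |b 2| := by positivity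
    linarith
  have b2'' : β * X 2 ≤ |4 * κ * b 2| := by
    rw [abs_mul, abs_mul, abs_of_pos (show (0 : ℝ) < 4 by norm_num)]
    have : 0 ≤ |κ| * |b 2| := by positivity
    linarith
  constructor
  · have e : a 5 - b 6 / (4 * κ * b 2) * (2 * a 0) =
        -((a 0 * b 6 - 2 * κ * b 2 * a 5) / (2 * κ * b 2)) := by
      field_simp
      ring
    rw [e, abs_neg]
    exact divb hβ (R.pos 2) (R.pos 5).le (by positivity) hN t9 b2'
  · exact divb hβ (R.pos 2) (R.pos 4).le hK0 (bb 6) t6 b2''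

/-- **`zY` : the ratio** -/
theorem zY_ratio (R : Raw κ S {6, 7, 10} X K τ f A lc zc) (h15 : (15 : Fin 18) ∈ S)
    (h12 : (12 : Fin 18) ∉ S) (t15 : X 15 = X 2 * X 10) (t15' : X 15 = X 1 * X 14)
    (t12 : X 12 = X 2 * X 8) {x x' y y' : β'} (hx : x ∈ A) (hx' : x' ∈ A) (hy : y ∈ A)
    (hy' : y' ∈ A) (hl : lc x = lc x') (hl' : lc y = lc y') (hz : zc x = zc y)
    (hz' : zc x' = zc y') {δ β : ℝ} (hδ : 0 ≤ δ) (hβ : 0 < β)
    (b1 : |coW κ (f x) (f y) 1| ≤ δ * X 1)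
    (b2 : β * X 2 ≤ |κ| * |coW κ (f x) (f y) 2|) :
    |coW κ (f x) (f x') 10 - coW κ (f x) (f y) 12 / (2 * κ * coW κ (f x) (f y) 2) *
      (κ * coW κ (f x) (f x') 0)| ≤ ((CR K + K) * τ + 4 * K ^ 2 * δ) / β * X 10 ∧
    |coW κ (f x) (f y) 12 / (2 * κ * coW κ (f x) (f y) 2)| ≤ K / β * X 8 := by
  have hK := R.hK
  have hK0 := R.K0
  have hC := (CR_ge hK).1
  have hτ := R.hτ
  have g := R.row_small hx hx' hy hy' hl hl' hz hz' (q := 11) h15 (by decide)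
  rw [row_zY κ _ _ h15 h12] at g
  change _ ≤ (CR K + K) * τ * X 15 at g
  set a := coW κ (f x) (f x') with ha
  set b := coW κ (f x) (f y) with hb
  have ab : ∀ s, |a s| ≤ K * X s := R.bnd x hx x' hx'
  have bb : ∀ s, |b s| ≤ K * X s := R.bnd x hx y hy
  have w2 : X 1 * X 0 ≤ X 2 := (walls_frame R.hX).1
  have X15 := (R.pos 15).le
  have kb : ∀ {v D : ℝ}, |v| ≤ D → |κ * v| ≤ D := by
    intro v D h
    rw [abs_mul]
    calc |κ| * |v| ≤ 1 * |v| := mul_le_mul_of_nonneg_right R.hκ (abs_nonneg _)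
      _ ≤ D := by linarith
  have m2 : |b 1 * a 0| ≤ (δ * K) * X 2 := bm b1 (ab 0) hδ hK0 (R.pos 1).le w2
  have m3 : |b 1 * a 0 * a 10| ≤ (δ * K * K) * X 15 :=
    bm m2 (ab 10) (by positivity) hK0 (R.pos 2).le t15.ge
  have m4 : |κ * (b 1 * a 14)| ≤ (δ * K) * X 15 :=
    kb (bm b1 (ab 14) hδ hK0 (R.pos 1).le t15'.ge)
  have hN : |a 0 * b 12 - 2 * b 2 * a 10| ≤ ((CR K + K) * τ + 4 * K ^ 2 * δ) * X 15 := by
    have e : a 0 * b 12 - 2 * b 2 * a 10 = (a 0 * b 12 - 2 * (b 2 + a 0 * b 1) * a 10 +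
      2 * κ * b 1 * a 14) + 2 * (b 1 * a 0 * a 10) - 2 * (κ * (b 1 * a 14)) := by ring
    have K12 : δ * K ≤ δ * K * K := le_mul_of_one_le_right (by positivity) hK
    have e2 : ((CR K + K) * τ + 4 * K ^ 2 * δ) * X 15 = (CR K + K) * τ * X 15 +
        2 * ((δ * K * K) * X 15) + 2 * ((δ * K * K) * X 15) := by ring
    have m4' := m4.trans (mul_le_mul_of_nonneg_right K12 X15)
    rw [e, e2]
    rw [abs_le] at g m3 m4' ⊢
    constructor <;> linarith [g.1, g.2, m3.1, m3.2, m4'.1, m4'.2]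
  have hκb : κ * b 2 ≠ 0 := by
    intro h0
    rw [← abs_mul, h0, abs_zero] at b2
    linarith [mul_pos hβ (R.pos 2)]
  have hκ0 : κ ≠ 0 := left_ne_zero_of_mul hκb
  have hb2 : b 2 ≠ 0 := right_ne_zero_of_mul hκb
  have hκ1 := R.hκ
  have b2' : β * X 2 ≤ |2 * b 2| := by
    rw [abs_mul, abs_two]
    have h1 := mul_le_mul_of_nonneg_right hκ1 (abs_nonneg (b 2))
    linarith [abs_nonneg (b 2)]
  have b2'' : β * X 2 ≤ |2 * κ * b 2| := by
    rw [abs_mul, abs_mul, abs_two]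
    have : 0 ≤ |κ| * |b 2| := by positivity
    linarith
  constructor
  · have e : a 10 - b 12 / (2 * κ * b 2) * (κ * a 0) =
        -((a 0 * b 12 - 2 * b 2 * a 10) / (2 * b 2)) := by
      field_simp
      ring
    rw [e, abs_neg]
    exact divb hβ (R.pos 2) (R.pos 10).le (by positivity) hN t15 b2'
  · exact divb hβ (R.pos 2) (R.pos 8).le hK0 (bb 12) t12 b2''

end fin

/-! ### the second relation -/

section fin2

variable {β' : Type*} {κ : ℝ} {S : Finset (Fin 18)} {X : Fin 18 → ℝ}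
  {K τ : ℝ} {f : β' → FW} {A : Set β'} {lc zc : β' → ℕ}

/-- **`YY` : relation of the two own slots**, seen by a pair with `b 1` not small -/
theorem YY_r1 (R : Raw κ S {1, 3} X K τ f A lc zc) (h9 : (9 : Fin 18) ∈ S)
    (h6 : (6 : Fin 18) ∉ S) (t9 : X 9 = X 2 * X 5) (t9' : X 9 = X 1 * X 7)
    {x x' y y' : β'} (hx : x ∈ A) (hx' : x' ∈ A) (hy : y ∈ A)
    (hy' : y' ∈ A) (hl : lc x = lc x') (hl' : lc y = lc y') (hz : zc x = zc y)
    (hz' : zc x' = zc y') {δ β : ℝ} (hδ : 0 ≤ δ) (hβ : 0 < β)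
    (b2 : |coW κ (f x) (f y) 2| ≤ δ * X 2) (b6 : |coW κ (f x) (f y) 6| ≤ δ * X 6)
    (b1 : β * X 1 ≤ |κ| * |coW κ (f x) (f y) 1|) :
    |coW κ (f x) (f x') 7 - coW κ (f x) (f x') 0 * coW κ (f x) (f x') 5 / 2| ≤
      ((CR K + K) * τ + 3 * K * δ) / β * X 7 := by
  have hK := R.hK
  have hK0 := R.K0
  have hC := (CR_ge hK).1
  have hτ := R.hτ
  have g := R.row_small hx hx' hy hy' hl hl' hz hz' (q := 5) h9 (by decide)
  rw [row_YY κ _ _ h9 h6] at g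
  change _ ≤ (CR K + K) * τ * X 9 at g
  set a := coW κ (f x) (f x') with ha
  set b := coW κ (f x) (f y) with hb
  have ab : ∀ s, |a s| ≤ K * X s := R.bnd x hx x' hx'
  have X9 := (R.pos 9).le
  have w9 : X 0 * X 6 ≤ X 9 := by
    have := R.hX.wall 9 [0, 6] (by decide)
    simpa only [List.map_cons, List.map_nil, List.prod_cons, List.prod_nil, mul_one] using this
  have kb : ∀ {v D : ℝ}, |v| ≤ D → |κ * v| ≤ D := by
    intro v D h
    rw [abs_mul]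
    calc |κ| * |v| ≤ 1 * |v| := mul_le_mul_of_nonneg_right R.hκ (abs_nonneg _)
      _ ≤ D := by linarith
  have m1 : |a 0 * b 6| ≤ (K * δ) * X 9 := bm (ab 0) b6 hK0 hδ (R.pos 0).le w9
  have m2 : |κ * (b 2 * a 5)| ≤ (δ * K) * X 9 :=
    kb (bm b2 (ab 5) hδ hK0 (R.pos 2).le t9.ge)
  have hN : |4 * κ * b 1 * (a 7 - a 0 * a 5 / 2)| ≤ ((CR K + K) * τ + 3 * K * δ) * X 9 := by
    have e : 4 * κ * b 1 * (a 7 - a 0 * a 5 / 2) = (a 0 * b 6 - 2 * κ * (b 2 + a 0 * b 1) * a 5 +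
      4 * κ * b 1 * a 7) - a 0 * b 6 + 2 * (κ * (b 2 * a 5)) := by ring
    have e2 : ((CR K + K) * τ + 3 * K * δ) * X 9 = (CR K + K) * τ * X 9 +
        (K * δ) * X 9 + 2 * ((δ * K) * X 9) := by ring
    rw [e, e2]
    rw [abs_le] at g m1 m2 ⊢
    constructor <;> linarith [g.1, g.2, m1.1, m1.2, m2.1, m2.2]
  have hκb : κ * b 1 ≠ 0 := by
    intro h0
    rw [← abs_mul, h0, abs_zero] at b1
    linarith [mul_pos hβ (R.pos 1)]
  have hκ0 : κ ≠ 0 := left_ne_zero_of_mul hκb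
  have hb1 : b 1 ≠ 0 := right_ne_zero_of_mul hκb
  have b1' : β * X 1 ≤ |4 * κ * b 1| := by
    rw [abs_mul, abs_mul, abs_of_pos (show (0 : ℝ) < 4 by norm_num)]
    have : 0 ≤ |κ| * |b 1| := by positivity
    linarith
  have e : a 7 - a 0 * a 5 / 2 = (4 * κ * b 1 * (a 7 - a 0 * a 5 / 2)) / (4 * κ * b 1) := by
    field_simp
  rw [e]
  exact divb hβ (R.pos 1) (R.pos 7).le (by positivity) hN t9' b1'

/-- the relation of `YY_r1` does not depend on the line -/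
theorem YY_tr (R : Raw κ S {1, 3} X K τ f A lc zc) (h5 : (5 : Fin 18) ∈ S)
    (h7 : (7 : Fin 18) ∈ S) (h4 : (4 : Fin 18) ∉ S)
    {x x' y y' : β'} (hx : x ∈ A) (hx' : x' ∈ A) (hy : y ∈ A)
    (hy' : y' ∈ A) (hl : lc x = lc x') (hl' : lc y = lc y') (hz : zc x = zc y)
    (hz' : zc x' = zc y') {E : ℝ}
    (h : |coW κ (f x) (f x') 7 - coW κ (f x) (f x') 0 * coW κ (f x) (f x') 5 / 2| ≤ E * X 7) :
    |coW κ (f y) (f y') 7 - coW κ (f y) (f y') 0 * coW κ (f y) (f y') 5 / 2| ≤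
      (E + (CR K + K ^ 2 + K * CR K) * τ) * X 7 := by
  have hK := R.hK
  have hK0 := R.K0
  have hC := (CR_ge hK).1
  have hτ := R.hτ
  have g1 := R.lev_row hx hx' hy hy' hl hl' hz hz' (q := 1) h5
  have g3 := R.lev_row hx hx' hy hy' hl hl' hz hz' (q := 3) h7
  have g0 := R.hgt_row hx hx' hy hy' hl hl' hz hz'
  unfold row at g1 g3
  rw [sh_YY κ _ h5 h7 h4 _ 1 (by decide), fk_YY1, adm_YY.own κ _ _ rfl 1 (by decide)] at g1
  rw [sh_YY κ _ h5 h7 h4 _ 3 (by decide), fk_YY3, adm_YY.own κ _ _ rfl 3 (by decide)] at g3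
  change |coW κ (f y) (f y') 5 + (_ - coW κ (f x) (f x') 5)| ≤ CR K * τ * X 5 at g1
  change |coW κ (f y) (f y') 7 + (_ - coW κ (f x) (f x') 7)| ≤ CR K * τ * X 7 at g3
  have ab : ∀ s, |coW κ (f x) (f x') s| ≤ K * X s := R.bnd x hx x' hx'
  have eb : ∀ s, |coW κ (f y) (f y') s| ≤ K * X s := R.bnd y hy y' hy'
  set a := coW κ (f x) (f x') with ha
  set b := coW κ (f x) (f y) with hb
  set e := coW κ (f y) (f y') with he
  have w7 : X 0 * X 5 ≤ X 7 := by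
    have := R.hX.wall 7 [0, 5] (by decide)
    simpa only [List.map_cons, List.map_nil, List.prod_cons, List.prod_nil, mul_one] using this
  have X7 := (R.pos 7).le
  have m1 : |(e 0 - a 0) * e 5| ≤ (2 * K * τ * K) * X 7 :=
    bm g0 (eb 5) (by positivity) hK0 (R.pos 0).le w7
  have m2 : |a 0 * (e 5 + (b 4 * (2 * a 0) - a 5))| ≤ (K * (CR K * τ)) * X 7 :=
    bm (ab 0) g1 hK0 (by positivity) (R.pos 0).le w7
  have e1 : e 7 - e 0 * e 5 / 2 = (a 7 - a 0 * a 5 / 2) + (e 7 + (b 4 * a 0 ^ 2 - a 7)) -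
      (e 0 - a 0) * e 5 / 2 - a 0 * (e 5 + (b 4 * (2 * a 0) - a 5)) / 2 := by ring
  have e2 : (E + (CR K + K ^ 2 + K * CR K) * τ) * X 7 = E * X 7 + CR K * τ * X 7 +
      (2 * K * τ * K) * X 7 / 2 + (K * (CR K * τ)) * X 7 := by ring
  have n2 : 0 ≤ (K * (CR K * τ)) * X 7 := by positivity
  rw [e1, e2]
  rw [abs_le] at h g3 m1 m2 ⊢
  constructor <;> linarith [h.1, h.2, g3.1, g3.2, m1.1, m1.2, m2.1, m2.2]

/-- **`zY` : relation of the two own slots**, seen by a pair with `b 1` not small -/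
theorem zY_r1 (R : Raw κ S {6, 7, 10} X K τ f A lc zc) (h15 : (15 : Fin 18) ∈ S)
    (h12 : (12 : Fin 18) ∉ S) (t15 : X 15 = X 2 * X 10) (t15' : X 15 = X 1 * X 14)
    {x x' y y' : β'} (hx : x ∈ A) (hx' : x' ∈ A) (hy : y ∈ A)
    (hy' : y' ∈ A) (hl : lc x = lc x') (hl' : lc y = lc y') (hz : zc x = zc y)
    (hz' : zc x' = zc y') {δ β : ℝ} (hδ : 0 ≤ δ) (hβ : 0 < β)
    (b2 : |coW κ (f x) (f y) 2| ≤ δ * X 2) (b12 : |coW κ (f x) (f y) 12| ≤ δ * X 12)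
    (b1 : β * X 1 ≤ |coW κ (f x) (f y) 1|) :
    |κ * coW κ (f x) (f x') 14 - coW κ (f x) (f x') 0 * coW κ (f x) (f x') 10| ≤
      ((CR K + K) * τ + 3 * K * δ) / β * X 14 := by
  have hK := R.hK
  have hK0 := R.K0
  have hC := (CR_ge hK).1
  have hτ := R.hτ
  have g := R.row_small hx hx' hy hy' hl hl' hz hz' (q := 11) h15 (by decide)
  rw [row_zY κ _ _ h15 h12] at g
  change _ ≤ (CR K + K) * τ * X 15 at g
  set a := coW κ (f x) (f x') with ha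
  set b := coW κ (f x) (f y) with hb
  have ab : ∀ s, |a s| ≤ K * X s := R.bnd x hx x' hx'
  have X15 := (R.pos 15).le
  have w15 : X 0 * X 12 ≤ X 15 := by
    have := R.hX.wall 15 [0, 12] (by decide)
    simpa only [List.map_cons, List.map_nil, List.prod_cons, List.prod_nil, mul_one] using this
  have m1 : |a 0 * b 12| ≤ (K * δ) * X 15 := bm (ab 0) b12 hK0 hδ (R.pos 0).le w15
  have m2 : |b 2 * a 10| ≤ (δ * K) * X 15 := bm b2 (ab 10) hδ hK0 (R.pos 2).le t15.ge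
  have hN : |2 * b 1 * (κ * a 14 - a 0 * a 10)| ≤ ((CR K + K) * τ + 3 * K * δ) * X 15 := by
    have e : 2 * b 1 * (κ * a 14 - a 0 * a 10) = (a 0 * b 12 - 2 * (b 2 + a 0 * b 1) * a 10 +
      2 * κ * b 1 * a 14) - a 0 * b 12 + 2 * (b 2 * a 10) := by ring
    have e2 : ((CR K + K) * τ + 3 * K * δ) * X 15 = (CR K + K) * τ * X 15 +
        (K * δ) * X 15 + 2 * ((δ * K) * X 15) := by ring
    rw [e, e2]
    rw [abs_le] at g m1 m2 ⊢
    constructor <;> linarith [g.1, g.2, m1.1, m1.2, m2.1, m2.2]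
  have hb1 : b 1 ≠ 0 := by
    intro h0
    rw [h0, abs_zero] at b1
    linarith [mul_pos hβ (R.pos 1)]
  have b1' : β * X 1 ≤ |2 * b 1| := by
    rw [abs_mul, abs_two]
    linarith [abs_nonneg (b 1)]
  have e : κ * a 14 - a 0 * a 10 = (2 * b 1 * (κ * a 14 - a 0 * a 10)) / (2 * b 1) := by
    field_simp
  rw [e]
  exact divb hβ (R.pos 1) (R.pos 14).le (by positivity) hN t15' b1'

/-- the relation of `zY_r1` does not depend on the line -/
theorem zY_tr (R : Raw κ S {6, 7, 10} X K τ f A lc zc) (h10 : (10 : Fin 18) ∈ S)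
    (h11 : (11 : Fin 18) ∈ S) (h14 : (14 : Fin 18) ∈ S) (h8 : (8 : Fin 18) ∉ S)
    (t14 : X 14 = X 0 * X 10)
    {x x' y y' : β'} (hx : x ∈ A) (hx' : x' ∈ A) (hy : y ∈ A)
    (hy' : y' ∈ A) (hl : lc x = lc x') (hl' : lc y = lc y') (hz : zc x = zc y)
    (hz' : zc x' = zc y') {E : ℝ}
    (h : |κ * coW κ (f x) (f x') 14 - coW κ (f x) (f x') 0 * coW κ (f x) (f x') 10| ≤
      E * X 14) :
    |κ * coW κ (f y) (f y') 14 - coW κ (f y) (f y') 0 * coW κ (f y) (f y') 10| ≤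
      (E + (CR K + 2 * K ^ 2 + K * CR K) * τ) * X 14 := by
  have hK := R.hK
  have hK0 := R.K0
  have hC := (CR_ge hK).1
  have hτ := R.hτ
  have g1 := R.lev_row hx hx' hy hy' hl hl' hz hz' (q := 6) h10
  have g3 := R.lev_row hx hx' hy hy' hl hl' hz hz' (q := 10) h14
  have g0 := R.hgt_row hx hx' hy hy' hl hl' hz hz'
  unfold row at g1 g3
  rw [sh_zY κ _ h10 h11 h14 h8 _ 6 (by decide), fk_zY6,
    adm_zY.own κ _ _ rfl 6 (by decide)] at g1
  rw [sh_zY κ _ h10 h11 h14 h8 _ 10 (by decide), fk_zY10,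
    adm_zY.own κ _ _ rfl 10 (by decide)] at g3
  change |coW κ (f y) (f y') 10 + (_ - coW κ (f x) (f x') 10)| ≤ CR K * τ * X 10 at g1
  change |coW κ (f y) (f y') 14 + (_ - coW κ (f x) (f x') 14)| ≤ CR K * τ * X 14 at g3
  have ab : ∀ s, |coW κ (f x) (f x') s| ≤ K * X s := R.bnd x hx x' hx'
  have eb : ∀ s, |coW κ (f y) (f y') s| ≤ K * X s := R.bnd y hy y' hy'
  set a := coW κ (f x) (f x') with ha
  set b := coW κ (f x) (f y) with hb
  set e := coW κ (f y) (f y') with he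
  have X14 := (R.pos 14).le
  have kb : ∀ {v D : ℝ}, |v| ≤ D → |κ * v| ≤ D := by
    intro v D h
    rw [abs_mul]
    calc |κ| * |v| ≤ 1 * |v| := mul_le_mul_of_nonneg_right R.hκ (abs_nonneg _)
      _ ≤ D := by linarith
  have m1 : |(e 0 - a 0) * e 10| ≤ (2 * K * τ * K) * X 14 :=
    bm g0 (eb 10) (by positivity) hK0 (R.pos 0).le t14.ge
  have m2 : |a 0 * (e 10 + (b 8 * (κ * a 0) - a 10))| ≤ (K * (CR K * τ)) * X 14 :=
    bm (ab 0) g1 hK0 (by positivity) (R.pos 0).le t14.ge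
  have m3 := kb g3
  have e1 : κ * e 14 - e 0 * e 10 = (κ * a 14 - a 0 * a 10) +
      κ * (e 14 + (b 8 * a 0 ^ 2 - a 14)) -
      (e 0 - a 0) * e 10 - a 0 * (e 10 + (b 8 * (κ * a 0) - a 10)) := by ring
  have e2 : (E + (CR K + 2 * K ^ 2 + K * CR K) * τ) * X 14 = E * X 14 + CR K * τ * X 14 +
      (2 * K * τ * K) * X 14 + (K * (CR K * τ)) * X 14 := by ring
  rw [e1, e2]
  rw [abs_le] at h m3 m1 m2 ⊢
  constructor <;> linarith [h.1, h.2, m3.1, m3.2, m1.1, m1.2, m2.1, m2.2]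

/-- **`YY` : the own motion is `ψ * fk`** -/
theorem YY_fin (R : Raw κ S {1, 3} X K τ f A lc zc) {x x' : β'} (hx : x ∈ A) (hx' : x' ∈ A)
    {ψ E1 E2 : ℝ} (hE1 : 0 ≤ E1) (hE2 : 0 ≤ E2)
    (h5 : |coW κ (f x) (f x') 5 - ψ * (2 * coW κ (f x) (f x') 0)| ≤ E1 * X 5)
    (h7 : |coW κ (f x) (f x') 7 - coW κ (f x) (f x') 0 * coW κ (f x) (f x') 5 / 2| ≤
      E2 * X 7) : ∀ q ∈ ({1, 3} : Finset (Fin 14)),
      |coW κ (f x) (f x') (Fin.natAdd 4 q) - ψ * fk κ (coW κ (f x) (f x') 0) 0 q| ≤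
      (E1 + K * E1 + E2) * X (Fin.natAdd 4 q) := by
  have hK0 := R.K0
  have a0 := R.bnd x hx x' hx' 0
  have w7 : X 0 * X 5 ≤ X 7 := by
    have := R.hX.wall 7 [0, 5] (by decide)
    simpa only [List.map_cons, List.map_nil, List.prod_cons, List.prod_nil, mul_one] using this
  have X5 := (R.pos 5).le
  have X7 := (R.pos 7).le
  intro q hq
  simp only [mem_insert, mem_singleton] at hq
  rcases hq with rfl | rfl
  · rw [fk_YY1]
    change |coW κ (f x) (f x') 5 - _| ≤ _ * X 5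
    refine h5.trans (mul_le_mul_of_nonneg_right ?_ X5)
    have : 0 ≤ K * E1 := by positivity
    linarith
  · rw [fk_YY3]
    change |coW κ (f x) (f x') 7 - _| ≤ _ * X 7
    set a := coW κ (f x) (f x') with ha
    have m1 : |a 0 * (a 5 - ψ * (2 * a 0))| ≤ (K * E1) * X 7 :=
      bm a0 h5 hK0 hE1 (R.pos 0).le w7
    have e : a 7 - ψ * a 0 ^ 2 = (a 7 - a 0 * a 5 / 2) + a 0 * (a 5 - ψ * (2 * a 0)) / 2 := by
      ring
    have e2 : (E1 + K * E1 + E2) * X 7 = E1 * X 7 + (K * E1) * X 7 + E2 * X 7 := by ring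
    have n1 : 0 ≤ E1 * X 7 := by positivity
    have n2 : 0 ≤ (K * E1) * X 7 := by positivity
    rw [e, e2]
    rw [abs_le] at h7 m1 ⊢
    constructor <;> linarith [h7.1, h7.2, m1.1, m1.2]

/-- **`zY` : the own motion is `ψ * fk`** -/
theorem zY_fin (R : Raw κ S {6, 7, 10} X K τ f A lc zc) (t14 : X 14 = X 0 * X 10)
    (t14' : X 14 = X 0 * X 11) {x₀ x x' : β'} (hx₀ : x₀ ∈ A) (hx : x ∈ A) (hx' : x' ∈ A)
    (hl₀ : lc x₀ = lc x) (hl : lc x = lc x')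
    {ψ E1 E2 β : ℝ} (hE1 : 0 ≤ E1) (hE2 : 0 ≤ E2) (hβ : 0 < β) (hβ1 : β ≤ |κ|)
    (hβv : β * X 0 ≤ |κ| * |coW κ (f x) (f x') 0|)
    (h1 : |coW κ (f x₀) (f x) 10 - ψ * (κ * coW κ (f x₀) (f x) 0)| ≤ E1 * X 10)
    (h2 : |coW κ (f x₀) (f x') 10 - ψ * (κ * coW κ (f x₀) (f x') 0)| ≤ E1 * X 10)
    (r1 : |κ * coW κ (f x₀) (f x) 14 - coW κ (f x₀) (f x) 0 * coW κ (f x₀) (f x) 10| ≤
      E2 * X 14)
    (r2 : |κ * coW κ (f x₀) (f x') 14 - coW κ (f x₀) (f x') 0 * coW κ (f x₀) (f x') 10| ≤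
      E2 * X 14)
    (r3 : |κ * coW κ (f x) (f x') 14 - coW κ (f x) (f x') 0 * coW κ (f x) (f x') 10| ≤
      E2 * X 14) : ∀ q ∈ ({6, 7, 10} : Finset (Fin 14)),
      |coW κ (f x₀) (f x) (Fin.natAdd 4 q) - ψ * fk κ (coW κ (f x₀) (f x) 0) 4 q| ≤
      (E1 + (3 * E2 + 3 * K * E1 + 470 * K ^ 7 * (1 + K) * τ) / β) *
        X (Fin.natAdd 4 q) := by
  have hK := R.hK
  have hK0 := R.K0
  have hτ := R.hτ
  have c6 := R.own_comp hx₀ hx hx' hl₀ hl 6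
  have c10 := R.own_comp hx₀ hx hx' hl₀ hl 10
  rw [tr_sh6] at c6
  rw [tr_sh10] at c10
  simp only [only, flg_at (q := 6) (s := 10) rfl, flg_at (q := 7) (s := 11) rfl,
    flg_at (q := 10) (s := 14) rfl] at c6 c10
  rw [if_pos (by decide), if_neg (by decide)] at c6
  rw [if_pos (by decide), if_pos (by decide), if_neg (by decide)] at c10
  change |coW κ (f x₀) (f x') 10 - coW κ (f x) (f x') 10 - _| ≤ 470 * K ^ 7 * τ * X 10 at c6
  change |coW κ (f x₀) (f x') 14 - coW κ (f x) (f x') 14 - _| ≤ 470 * K ^ 7 * τ * X 14 at c10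
  have hu : coW κ (f x₀) (f x') 0 = coW κ (f x₀) (f x) 0 + coW κ (f x) (f x') 0 := by
    simp only [coW_zero]; ring
  rw [hu] at h2 r2
  have ab := R.bnd x₀ hx₀ x hx
  have cb := R.bnd x hx x' hx'
  set a := coW κ (f x₀) (f x) with ha
  set a' := coW κ (f x₀) (f x') with ha'
  set c := coW κ (f x) (f x') with hc
  have X10 := (R.pos 10).le
  have X14 := (R.pos 14).le
  have X11 := (R.pos 11).le
  have kb : ∀ {v D : ℝ}, |v| ≤ D → |κ * v| ≤ D := by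
    intro v D h
    rw [abs_mul]
    calc |κ| * |v| ≤ 1 * |v| := mul_le_mul_of_nonneg_right R.hκ (abs_nonneg _)
      _ ≤ D := by linarith
  have w : X 0 * X 10 ≤ X 14 := t14.ge
  -- products
  have m1 : |a 0 * (a 10 - ψ * (κ * a 0))| ≤ (K * E1) * X 14 :=
    bm (ab 0) h1 hK0 hE1 (R.pos 0).le w
  have m2 : |a 0 * (a' 10 - ψ * (κ * (a 0 + c 0)))| ≤ (K * E1) * X 14 :=
    bm (ab 0) h2 hK0 hE1 (R.pos 0).le w
  have m3 : |c 0 * (a 10 - ψ * (κ * a 0))| ≤ (K * E1) * X 14 :=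
    bm (cb 0) h1 hK0 hE1 (R.pos 0).le w
  have m4 : |c 0 * (a' 10 - c 10 - (a 10 + κ * c 0 * 0))| ≤ (K * (470 * K ^ 7 * τ)) * X 14 :=
    bm (cb 0) c6 hK0 (by positivity) (R.pos 0).le w
  have m5 := kb c10
  have hE3 : 0 ≤ 3 * E2 + 3 * K * E1 + 470 * K ^ 7 * (1 + K) * τ := by positivity
  have key : |κ * c 0 * (a 11 - ψ * (2 * a 0))| ≤
      (3 * E2 + 3 * K * E1 + 470 * K ^ 7 * (1 + K) * τ) * X 14 := by
    have e : κ * c 0 * (a 11 - ψ * (2 * a 0)) =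
        -(κ * (a' 14 - c 14 - (a 14 + c 0 * a 11 + c 0 ^ 2 * 0))) +
        (κ * a' 14 - (a 0 + c 0) * a' 10) - (κ * c 14 - c 0 * c 10) - (κ * a 14 - a 0 * a 10) +
        c 0 * (a' 10 - c 10 - (a 10 + κ * c 0 * 0)) +
        a 0 * (a' 10 - ψ * (κ * (a 0 + c 0))) - a 0 * (a 10 - ψ * (κ * a 0)) +
        c 0 * (a 10 - ψ * (κ * a 0)) := by ring
    have e2 : (3 * E2 + 3 * K * E1 + 470 * K ^ 7 * (1 + K) * τ) * X 14 =
        E2 * X 14 + E2 * X 14 + E2 * X 14 + (K * E1) * X 14 + (K * E1) * X 14 +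
        (K * E1) * X 14 + 470 * K ^ 7 * τ * X 14 + (K * (470 * K ^ 7 * τ)) * X 14 := by ring
    rw [e, e2]
    rw [abs_le] at r1 r2 r3 m1 m2 m3 m4 m5 ⊢
    constructor <;> linarith [r1.1, r1.2, r2.1, r2.2, r3.1, r3.2, m1.1, m1.2, m2.1, m2.2,
      m3.1, m3.2, m4.1, m4.2, m5.1, m5.2]
  have hκc : κ * c 0 ≠ 0 := by
    intro h0
    rw [← abs_mul, h0, abs_zero] at hβv
    linarith [mul_pos hβ (R.pos 0)]
  have hκ0 : κ ≠ 0 := left_ne_zero_of_mul hκc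
  have hc0 : c 0 ≠ 0 := right_ne_zero_of_mul hκc
  have f7 : |a 11 - ψ * (2 * a 0)| ≤
      (3 * E2 + 3 * K * E1 + 470 * K ^ 7 * (1 + K) * τ) / β * X 11 := by
    have e : a 11 - ψ * (2 * a 0) = (κ * c 0 * (a 11 - ψ * (2 * a 0))) / (κ * c 0) := by
      field_simp
    rw [e]
    exact divb hβ (R.pos 0) X11 hE3 key t14' (by rw [abs_mul]; exact hβv)
  have f10 : |a 14 - ψ * a 0 ^ 2| ≤
      (3 * E2 + 3 * K * E1 + 470 * K ^ 7 * (1 + K) * τ) / β * X 14 := by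
    have e : a 14 - ψ * a 0 ^ 2 = (κ * (a 14 - ψ * a 0 ^ 2)) / κ := by
      field_simp
    rw [e]
    refine divb (Q := 1) hβ one_pos X14 hE3 ?_ (one_mul _).symm (by rw [mul_one]; exact hβ1)
    have e1 : κ * (a 14 - ψ * a 0 ^ 2) = (κ * a 14 - a 0 * a 10) +
        a 0 * (a 10 - ψ * (κ * a 0)) := by ring
    have e2 : (3 * E2 + 3 * K * E1 + 470 * K ^ 7 * (1 + K) * τ) * X 14 =
        E2 * X 14 + 2 * (E2 * X 14) + (K * E1) * X 14 + 2 * ((K * E1) * X 14) +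
        470 * K ^ 7 * (1 + K) * τ * X 14 := by ring
    have n1 : 0 ≤ E2 * X 14 := by positivity
    have n2 : 0 ≤ (K * E1) * X 14 := by positivity
    have n3 : 0 ≤ 470 * K ^ 7 * (1 + K) * τ * X 14 := by positivity
    rw [e1, e2]
    rw [abs_le] at r1 m1 ⊢
    constructor <;> linarith [r1.1, r1.2, m1.1, m1.2]
  have hE4 : 0 ≤ (3 * E2 + 3 * K * E1 + 470 * K ^ 7 * (1 + K) * τ) / β := by positivity
  intro q hq
  simp only [mem_insert, mem_singleton] at hq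
  rcases hq with rfl | rfl | rfl
  · rw [fk_zY6]
    change |a 10 - _| ≤ _ * X 10
    exact h1.trans (mul_le_mul_of_nonneg_right (by linarith) X10)
  · rw [fk_zY7]
    change |a 11 - _| ≤ _ * X 11
    exact f7.trans (mul_le_mul_of_nonneg_right (by linarith) X11)
  · rw [fk_zY10]
    change |a 14 - _| ≤ _ * X 14
    exact f10.trans (mul_le_mul_of_nonneg_right (by linarith) X14)

end fin2

end Crest.Agent.R136.Res2648
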