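import Crest.Agent.R136.Res3_648

/-!
# R136: wall resonances of 5b (helper648), part 4: from the window to `Raw`

* `mass_of_heights` : a part of the heights carries its share of the incidences;
* `WinD` : hypotheses on the window, common part;  `ResQ` : the output;
* `WinD.raw` : `Raw` for all incidences of the pairs of the configuration;
* `resq_of` : from the motion of one line to `ResQ`.
-/

set_option autoImplicit false
set_option linter.unusedVariables false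
set_option linter.unusedSectionVars false

open Filter Topology

namespace Crest.Agent.R136.Res2648

open Finset Crest.Agent.R136.NetW191 Crest.Agent.R136.Net191 Crest.Agent.R136.Qg926
open Crest.Agent.R136.EvW938 Crest.Agent.R136.Gf356 Crest.Agent.R136.Res1648
open Crest.Agent.R138.Ex926 (Base U)

/-! ### masses -/

section mass

variable {m : ℕ} {ι : ℕ → Type*} [∀ n, DecidableEq (ι n)] {W : Wnd m ι}
  {E E' : ∀ n, Finset (ι n)} {Mu g : ℕ → ℝ} {ex : ℕ → ∀ n, ι n → ℕ}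

open Classical in
/-- **a part of the heights carries its share of the incidences** -/
theorem mass_of_heights (h : W.Ok) (hE : Wnd.EOk W E Mu) (hP : Wnd.Pruned W E E' g ex)
    (hdens : W.lam W.top ≤ W.lam (cut W.S W.top 0) + W.lam (cut W.S 0 W.top)) {ε : ℝ}
    (hε : 0 < ε) : ∀ᶠ n in (U : Filter ℕ), ∀ (t : ℝ) (H : Finset ℕ), H ⊆ (W.cfg E' n).Z →
      W.B'.d n ^ t * ((W.cfg E' n).Z.card : ℝ) ≤ (H.card : ℝ) →
      Mu n * W.B'.d n ^ (W.lam W.top + t + ε) ≤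
        (((E' n).filter fun i => W.zc n i ∈ H).card : ℝ) := by
  have hε4 : 0 < ε / 4 := by positivity
  filter_upwards [Wnd.ev_cfg h hE hP, Wnd.ev_hts h hE hP hdens hε4, h.card_zc_le hε4,
    hE.big (ε / 4) hε4, hP.gsub (ε / 4) hε4] with n g8 g2 g3 g4 g5 t H hH hcard
  obtain ⟨hgood, hEC, hne, hcfg⟩ := g8
  set ρ := W.B'.d n with hρ
  have hd : ∀ u : ℝ, 0 < ρ ^ u := fun u => rpos W.B' n u
  have hdn : ∀ {u v : ℝ}, u ≤ v → ρ ^ v ≤ ρ ^ u := fun {u v} h' => rpow_anti W.B' n h'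
  have radd : ∀ u v : ℝ, ρ ^ (u + v) = ρ ^ u * ρ ^ v := fun u v => rpow_add' W.B' n u v
  rw [hcfg] at hH hcard
  set Z := (W.cfg0 n (E' n)).Z with hZ
  have hZim : Z = (E' n).image (W.zc n) := rfl
  have hEC' : E' n ⊆ W.Cl n := (hP.sub n).trans hEC
  set G' := (E' n).filter fun i => W.zc n i ∈ H with hG'
  have c1 : (G'.card : ℝ) = ∑ k ∈ H, (((E' n).filter fun i => W.zc n i = k).card : ℝ) := by
    have h1 : G'.card = ∑ k ∈ H, (G'.filter fun i => W.zc n i = k).card :=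
      card_eq_sum_card_fiberwise fun i hi => (mem_filter.1 hi).2
    rw [h1]
    push_cast
    refine sum_congr rfl fun k hk => ?_
    congr 2
    ext i
    simp only [hG', mem_filter]
    constructor
    · rintro ⟨⟨a1, a2⟩, a3⟩; exact ⟨a1, a3⟩
    · rintro ⟨a1, a3⟩; exact ⟨⟨a1, a3 ▸ hk⟩, a3⟩
  set N0 : ℝ := (((E n).image (W.zc n)).card : ℝ) with hN0
  have hE0 : (0 : ℝ) < (E n).card := lt_of_lt_of_le (mul_pos (hE.pos n) (hd _)) g4
  have hN00 : 0 < N0 := by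
    have h1 : (E n).Nonempty := card_pos.1 (by exact_mod_cast hE0)
    have h2 := (h1.image (W.zc n)).card_pos
    rw [hN0]
    exact_mod_cast h2
  have hg1 := hP.g1 n
  have c2 : ∀ k ∈ H, ((E n).card : ℝ) / (ρ ^ (-(ε / 4)) * N0) ≤
      (((E' n).filter fun i => W.zc n i = k).card : ℝ) := by
    intro k hk
    have hkZ := hH hk
    rw [hZim] at hkZ
    obtain ⟨i, hi, rfl⟩ := mem_image.1 hkZ
    have h1 := hP.slices n i hi
    rw [div_le_iff₀ (mul_pos (hd _) hN00)]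
    have e1 : R138.Ex926.cls (E' n) (W.zc n) i = (E' n).filter fun j => W.zc n j = W.zc n i := by
      ext j
      rw [R138.Ex926.mem_cls, mem_filter]
    rw [e1] at h1
    refine h1.trans ?_
    have h2 : (0 : ℝ) ≤ (((E' n).filter fun j => W.zc n j = W.zc n i).card : ℝ) :=
      Nat.cast_nonneg _
    calc g n * N0 * (((E' n).filter fun j => W.zc n j = W.zc n i).card : ℝ)
        ≤ ρ ^ (-(ε / 4)) * N0 * (((E' n).filter fun j => W.zc n j = W.zc n i).card : ℝ) := by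
          refine mul_le_mul_of_nonneg_right ?_ h2
          exact mul_le_mul_of_nonneg_right g5 hN00.le
      _ = _ := by ring
  have c3 : (H.card : ℝ) * (((E n).card : ℝ) / (ρ ^ (-(ε / 4)) * N0)) ≤ (G'.card : ℝ) := by
    rw [c1, ← nsmul_eq_mul, ← sum_const]
    exact sum_le_sum c2
  -- number of heights
  obtain ⟨i0, hi0⟩ := hne
  have c4 : ρ ^ (W.lam (cut W.S 0 W.top) + ε / 4) ≤ (Z.card : ℝ) := by
    refine (g2 (W.lc n i0) (mem_image_of_mem _ hi0)).trans ?_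
    exact Nat.cast_le.2 (card_le_card fun k hk => (RCfg.mem_hts.1 hk).1)
  have c5 : N0 ≤ ρ ^ (W.lam (cut W.S 0 W.top) - ε / 4) := g3 (E n) hEC
  have c6 : ρ ^ t * ρ ^ (W.lam (cut W.S 0 W.top) + ε / 4) ≤ (H.card : ℝ) :=
    (mul_le_mul_of_nonneg_left c4 (hd _).le).trans hcard
  have hT0 := hE.pos n
  refine le_trans ?_ c3
  rw [← mul_div_assoc, le_div_iff₀ (mul_pos (hd _) hN00)]
  calc Mu n * ρ ^ (W.lam W.top + t + ε) * (ρ ^ (-(ε / 4)) * N0)
      ≤ Mu n * ρ ^ (W.lam W.top + t + ε) *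
          (ρ ^ (-(ε / 4)) * ρ ^ (W.lam (cut W.S 0 W.top) - ε / 4)) := by
        refine mul_le_mul_of_nonneg_left ?_ (mul_pos hT0 (hd _)).le
        exact mul_le_mul_of_nonneg_left c5 (hd _).le
    _ = Mu n * ρ ^ ((W.lam W.top + t + ε) +
          (-(ε / 4) + (W.lam (cut W.S 0 W.top) - ε / 4))) := by
        rw [radd (W.lam W.top + t + ε) (-(ε / 4) + (W.lam (cut W.S 0 W.top) - ε / 4)),
          radd (-(ε / 4)) (W.lam (cut W.S 0 W.top) - ε / 4)]
        ring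
    _ ≤ Mu n * ρ ^ ((t + (W.lam (cut W.S 0 W.top) + ε / 4)) + (W.lam W.top + ε / 4)) := by
        refine mul_le_mul_of_nonneg_left (hdn ?_) hT0.le
        linarith
    _ = ρ ^ t * ρ ^ (W.lam (cut W.S 0 W.top) + ε / 4) * (Mu n * ρ ^ (W.lam W.top + ε / 4)) := by
        rw [radd (t + (W.lam (cut W.S 0 W.top) + ε / 4)) (W.lam W.top + ε / 4),
          radd t (W.lam (cut W.S 0 W.top) + ε / 4)]
        ring
    _ ≤ (H.card : ℝ) * ((E n).card : ℝ) :=
        mul_le_mul c6 g4 (mul_pos hT0 (hd _)).le (Nat.cast_nonneg _)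

end mass

/-! ### incidences of one pair (line, height) -/

/-- own motion between other representatives of the same pairs -/
theorem own_rep {κ : ℝ} (hκ : |κ| ≤ 1) {X : Fin 18 → ℝ} (hX : SidesW X) {K τ : ℝ} (hK : 1 ≤ K)
    (hτ : 0 ≤ τ) (hτ1 : τ ≤ 1) {r r' x x' : FW}
    (h1 : ∀ s, |coW κ r x s| ≤ K * τ * X s) (h2 : ∀ s, |coW κ r' x' s| ≤ K * τ * X s)
    (h3 : ∀ s, |coW κ r r' s| ≤ K * X s) (h4 : ∀ s, |coW κ x x' s| ≤ K * X s) (q : Fin 14) :
    |coW κ x x' (Fin.natAdd 4 q) - coW κ r r' (Fin.natAdd 4 q)| ≤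
      (K + 940 * K ^ 7) * τ * X (Fin.natAdd 4 q) := by
  have hK0 : 0 ≤ K := by linarith
  have Kτ : K * τ ≤ K := mul_le_of_le_one_right hK0 hτ1
  have e1 := congrFun (cocycle κ r r' x') q
  have e2 := congrFun (cocycle κ r x x') q
  rw [Pi.add_apply] at e1 e2
  rw [← coW_right, ← coW_right, ← frm_coW, ← flg_coW] at e1 e2
  have k1 := tr_lip (q := q) (h := frm (coW κ r' x')) (h' := 0) (w := flg (coW κ r r'))
    (w' := flg (coW κ r r')) hκ hX hK hτ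
    (fun i => (h2 _).trans (mul_le_mul_of_nonneg_right Kτ (hX.pos _)))
    (fun i => by rw [Pi.zero_apply, abs_zero]; exact mul_nonneg hK0 (hX.pos _))
    (fun i => by rw [Pi.zero_apply, sub_zero]; exact h2 _) (fun q => h3 _)
    (fun q => by rw [sub_self, abs_zero]; exact mul_nonneg (mul_nonneg hK0 hτ) (hX.pos _))
  have k2 := tr_lip (q := q) (h := frm (coW κ x x')) (h' := frm (coW κ x x'))
    (w := flg (coW κ r x)) (w' := 0) hκ hX hK hτ (fun i => h4 _) (fun i => h4 _)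
    (fun i => by rw [sub_self, abs_zero]; exact mul_nonneg (mul_nonneg hK0 hτ) (hX.pos _))
    (fun q => (h1 _).trans (mul_le_mul_of_nonneg_right Kτ (hX.pos _)))
    (fun q => by rw [Pi.zero_apply, sub_zero]; exact h1 _)
  rw [NetW191.tr_id] at k1
  rw [tr_zero, Pi.zero_apply, sub_zero] at k2
  have k3 := h2 (Fin.natAdd 4 q)
  change |_ - coW κ r r' (Fin.natAdd 4 q)| ≤ _ at k1
  have e : coW κ x x' (Fin.natAdd 4 q) - coW κ r r' (Fin.natAdd 4 q) =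
      coW κ r' x' (Fin.natAdd 4 q) +
      (tr κ (frm (coW κ r' x')) (flg (coW κ r r')) q - coW κ r r' (Fin.natAdd 4 q)) -
      tr κ (frm (coW κ x x')) (flg (coW κ r x)) q := by linarith
  have e3 : (K + 940 * K ^ 7) * τ * X (Fin.natAdd 4 q) = K * τ * X (Fin.natAdd 4 q) +
      470 * K ^ 7 * τ * X (Fin.natAdd 4 q) + 470 * K ^ 7 * τ * X (Fin.natAdd 4 q) := by ring
  rw [e, e3]
  rw [abs_le] at k1 k2 k3 ⊢
  constructor <;> linarith [k1.1, k1.2, k2.1, k2.2, k3.1, k3.2]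

/-! ### the window -/

section window

variable {ι : ℕ → Type*} [∀ n, DecidableEq (ι n)]

/-- **the output at one `n`** -/
def ResQ (W : Wnd 18 ι) (κ : ℕ → ℝ) (lam : ℕ → Fin 18 → ℝ) (f : ∀ n, ι n → FW) (j : Fin 14)
    (V : Finset (Fin 14)) (x : ℝ) (n : ℕ) (ε : ℝ) (G : Finset (ι n)) : Prop :=
  ∃ x0 ∈ W.Cl n, ∃ ψ : ℝ, |ψ| ≤ W.B'.d n ^ (-ε) * sd W lam n (Fin.natAdd 4 j) ∧
    ∀ i ∈ G, ∀ i' ∈ G, W.lc n i = W.lc n i' → ∀ q ∈ V,
      |coW (κ n) (f n i) (f n i') (Fin.natAdd 4 q) -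
        (ψ - coW (κ n) (f n x0) (f n i) (Fin.natAdd 4 j)) *
          (tr (κ n) (sh (coW (κ n) (f n i) (f n i') 0)) (Pi.single j 1) q -
            (Pi.single j 1 : Fin 14 → ℝ) q)| ≤
        W.B'.d n ^ (x - ε) * sd W lam n (Fin.natAdd 4 q)

/-- **hypotheses on the window**, common part; `V` = own slots of the resonance -/
structure WinD (W : Wnd 18 ι) (κ : ℕ → ℝ) (lam : ℕ → Fin 18 → ℝ) (f : ∀ n, ι n → FW)
    (V : Finset (Fin 14)) (E : ∀ n, Finset (ι n)) (x σ : ℝ) : Prop where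
  x_pos : 0 < x
  σ0 : 0 < σ
  σ1 : σ ≤ 1
  hV : ∀ q ∈ V, Fin.natAdd 4 q ∈ W.S
  top : ∀ s, x ≤ W.top s
  dens : W.lam W.top ≤ W.lam (cut W.S W.top 0) + W.lam (cut W.S 0 W.top)
  frost : ∀ y : ℝ, 0 ≤ y → y ≤ x → W.lam (Pi.single 0 y) ≤ -(σ * y)
  kap : ∀ ε : ℝ, 0 < ε → ∀ᶠ n in (U : Filter ℕ), W.B'.d n ^ ε ≤ |κ n|
  inv : ∀ ε : ℝ, 0 < ε → ∀ᶠ n in (U : Filter ℕ), ∀ i k k', (i, k) ∈ (W.cfg E n).I →
    (i, k') ∈ (W.cfg E n).I → ∀ s ∈ W.S, s ≠ 0 → (∀ q ∈ V, s ≠ Fin.natAdd 4 q) →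
    |ownC W n i k k' s| ≤ W.B'.d n ^ (x - ε)

/-- all incidences of the pairs of the configuration -/
def Aset (W : Wnd 18 ι) (E : ∀ n, Finset (ι n)) (n : ℕ) : Set (ι n) :=
  {i | i ∈ W.Cl n ∧ (W.lc n i, W.zc n i) ∈ (W.cfg E n).I}

/-- the constant of `WinD.raw` -/
noncomputable def KR (W : Wnd 18 ι) : ℝ := W.K0 + (W.K0 + 940 * W.K0 ^ 7) + W.K2

variable {W : Wnd 18 ι} {κ : ℕ → ℝ} {lam : ℕ → Fin 18 → ℝ} {f : ∀ n, ι n → FW}
  {V : Finset (Fin 14)} {x σ : ℝ} {E E' : ∀ n, Finset (ι n)} {Mu g : ℕ → ℝ}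
  {ex : ℕ → ∀ n, ι n → ℕ}

theorem KR_one (h : W.Ok) : 1 ≤ KR W := by
  have h1 := h.K0_one
  have h2 := Wnd.K2_one h
  have h3 : 0 ≤ W.K0 ^ 7 := by positivity
  unfold KR
  linarith

/-- **`Raw` in the window** -/
theorem WinD.raw (D : WinD W κ lam f V E x σ) (h : WWnd W κ lam f) (hE : Wnd.EOk W E Mu)
    (hP : Wnd.Pruned W E E' g ex) {ε : ℝ} (hε : 0 < ε) (hεx : ε ≤ x) :
    ∀ᶠ n in (U : Filter ℕ), W.Good n ∧ E' n ⊆ W.Cl n ∧ W.cfg E' n = W.cfg0 n (E' n) ∧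
      Raw (κ n) W.S V (sd W lam n) (KR W) (W.B'.d n ^ (x - ε)) (f n) (Aset W E' n)
        (W.lc n) (W.zc n) := by
  filter_upwards [Wnd.ev_cfg h.ok hE hP, D.inv ε hε] with n g1 g2
  obtain ⟨hg, hEC, hne, hcfg⟩ := g1
  have hE'C : E' n ⊆ W.Cl n := (hP.sub n).trans hEC
  have hneE : (E n).Nonempty := hne.mono (hP.sub n)
  have hcfgE : W.cfg E n = W.cfg0 n (E n) := Wnd.cfg_eq hEC hg.clI hneE
  refine ⟨hg, hE'C, hcfg, ?_⟩
  have hK := KR_one h.ok
  have hK0 := h.ok.K0_one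
  have hK2 := Wnd.K2_one h.ok
  have hK7 : 0 ≤ W.K0 ^ 7 := by positivity
  have hKK : W.K0 ≤ KR W := by unfold KR; linarith
  set ρ := W.B'.d n with hρ
  have hd : ∀ u : ℝ, 0 < ρ ^ u := fun u => rpos W.B' n u
  have hdn : ∀ {u v : ℝ}, u ≤ v → ρ ^ v ≤ ρ ^ u := fun {u v} h' => rpow_anti W.B' n h'
  have hτ1 : ρ ^ (x - ε) ≤ 1 := Real.rpow_le_one (W.B'.pos n).le (W.B'.lt n).le (by linarith)
  have sp := h.sd_pos n
  have hKτ : ∀ {s : Fin 18} {y : ℝ}, |y| ≤ W.K0 * ρ ^ (x - ε) * sd W lam n s →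
      |y| ≤ KR W * ρ ^ (x - ε) * sd W lam n s := fun {s y} hy =>
    hy.trans (mul_le_mul_of_nonneg_right (mul_le_mul_of_nonneg_right hKK (hd _).le) (sp s).le)
  have htop : ∀ s, x - ε ≤ W.top s := fun s => by linarith [D.top s]
  -- representatives
  have hA : ∀ i ∈ Aset W E' n, ∃ r, r ∈ W.Cl n ∧ W.lc n r = W.lc n i ∧ W.zc n r = W.zc n i ∧
      r = W.rep n (W.lc n i) (W.zc n i) := fun i hi =>
    ⟨_, (W.rep_spec hi.1).1, (W.rep_spec hi.1).2.1, (W.rep_spec hi.1).2.2, rfl⟩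
  have hI : ∀ i ∈ Aset W E' n, (W.lc n i, W.zc n i) ∈ (W.cfg E n).I := by
    intro i hi
    have h1 := hi.2
    rw [hcfg] at h1
    rw [hcfgE]
    obtain ⟨y, hy, e1, e2⟩ := Wnd.mem_I.1 h1
    exact Wnd.mem_I.2 ⟨y, hP.sub n hy, e1, e2⟩
  have hbx : ∀ r ∈ W.Cl n, ∀ i ∈ W.Cl n, W.lc n r = W.lc n i → W.zc n r = W.zc n i →
      ∀ s, |coW (κ n) (f n r) (f n i) s| ≤ W.K0 * ρ ^ (x - ε) * sd W lam n s := by
    intro r hr i hi e1 e2 s
    by_cases hs : s ∈ W.S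
    · exact h.lev_small hg hr hi e2 hs (htop s)
    · exact h.own_small hg hr hi e1 hs (htop s)
  refine
    { hκ := h.hκ n, hX := h.sides hg, pos := sp, hK := hK, hτ := (hd _).le, hτ1 := hτ1
      h0 := h.h0, h1 := h.n1, h2 := h.n2, h3 := h.n3, hV := D.hV
      bnd := fun i hi i' hi' s => (h.bnd hg hi.1 hi'.1 s).trans
        (mul_le_mul_of_nonneg_right hKK (sp s).le)
      own := ?_
      lev := fun i hi i' hi' hz s hs => hKτ (h.lev_small hg hi.1 hi'.1 hz hs (htop s)) }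
  intro i hi i' hi' hl s hs0 hsV
  by_cases hs : s ∈ W.S
  · obtain ⟨r, r1, r2, r3, r4⟩ := hA i hi
    obtain ⟨r', r1', r2', r3', r4'⟩ := hA i' hi'
    obtain ⟨q, rfl⟩ : ∃ q : Fin 14, s = Fin.natAdd 4 q := by
      induction s using Fin.addCases (m := 4) (n := 14) with
      | left p =>
        exfalso
        fin_cases p
        · exact hs0 rfl
        · exact h.n1 hs
        · exact h.n2 hs
        · exact h.n3 hs
      | right q => exact ⟨q, rfl⟩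
    have k1 := own_rep (h.hκ n) (h.sides hg) hK0 (hd (x - ε)).le hτ1 (hbx r r1 i hi.1 r2 r3)
      (hbx r' r1' i' hi'.1 r2' r3') (h.bnd hg r1 r1') (h.bnd hg hi.1 hi'.1) q
    have k2 := g2 (W.lc n i) (W.zc n i) (W.zc n i') (hI i hi)
      (by rw [hl]; exact hI i' hi') _ hs hs0 hsV
    have k3 : |coW (κ n) (f n r) (f n r') (Fin.natAdd 4 q)| ≤
        W.K2 * ρ ^ (x - ε) * sd W lam n (Fin.natAdd 4 q) := by
      have e1 : coW (κ n) (f n r) (f n r') (Fin.natAdd 4 q) = un W lam n (Fin.natAdd 4 q) *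
          ownC W n (W.lc n i) (W.zc n i) (W.zc n i') (Fin.natAdd 4 q) := by
        rw [h.crd_eq hg r1 r1', r4, r4', ← hl]
        rfl
      rw [e1]
      refine (h.raw_le k2).trans ?_
      refine mul_le_mul_of_nonneg_right ?_ (sp _).le
      exact mul_le_mul_of_nonneg_right (Wnd.kap_le_K2 h.ok _) (hd _).le
    have k4 := abs_add_le (coW (κ n) (f n i) (f n i') (Fin.natAdd 4 q) -
      coW (κ n) (f n r) (f n r') (Fin.natAdd 4 q)) (coW (κ n) (f n r) (f n r') (Fin.natAdd 4 q))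
    rw [sub_add_cancel] at k4
    have e2 : KR W * ρ ^ (x - ε) * sd W lam n (Fin.natAdd 4 q) =
        W.K0 * ρ ^ (x - ε) * sd W lam n (Fin.natAdd 4 q) +
        (W.K0 + 940 * W.K0 ^ 7) * ρ ^ (x - ε) * sd W lam n (Fin.natAdd 4 q) +
        W.K2 * ρ ^ (x - ε) * sd W lam n (Fin.natAdd 4 q) := by unfold KR; ring
    have k5 : 0 ≤ W.K0 * ρ ^ (x - ε) * sd W lam n (Fin.natAdd 4 q) := by
      have := sp (Fin.natAdd 4 q)
      have := hd (x - ε)
      positivity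
    rw [e2]
    linarith
  · exact hKτ (h.own_small hg hi.1 hi'.1 hl hs (htop s))

/-- the representative of a pair of the configuration -/
theorem rep_Aset {n : ℕ} (hE : E n ⊆ W.Cl n) (hcfg : W.cfg E n = W.cfg0 n (E n)) {i k : ℕ}
    (hi : (i, k) ∈ (W.cfg E n).I) : W.rep n i k ∈ Aset W E n ∧ W.lc n (W.rep n i k) = i ∧
      W.zc n (W.rep n i k) = k := by
  have h0 := hi
  rw [hcfg] at hi
  obtain ⟨a, b, c⟩ := Wnd.rep_of_mem hE hi
  exact ⟨⟨a, by rw [b, c]; exact h0⟩, b, c⟩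

/-- raw coordinates of two lines at one height -/
theorem co_rel {n : ℕ} (h : WWnd W κ lam f) (hg : W.Good n) (hE : E n ⊆ W.Cl n)
    (hcfg : W.cfg E n = W.cfg0 n (E n)) {i l k : ℕ}
    (hi : (i, k) ∈ (W.cfg E n).I) (hl : (l, k) ∈ (W.cfg E n).I) {s : Fin 18} (hs : s ∉ W.S) :
    coW (κ n) (f n (W.rep n i k)) (f n (W.rep n l k)) s =
      un W lam n s * (W.cfg E n).rel k i l s := by
  rw [h.crd_eq hg (rep_Aset hE hcfg hi).1.1 (rep_Aset hE hcfg hl).1.1, hcfg,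
    WWnd.rel_eq h i l k hs]

end window

end Crest.Agent.R136.Res2648
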