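import Crest.Agent.R136.Res4_648

/-!
# R136: wall resonances of 5b (helper648), part 5: the output

* `resq_of` : from the motion of one line to `ResQ` on a dense part;
* `AY_win`, `BY_win`, `YY_win`, `zY_win` : the four resonances.
-/

set_option autoImplicit false
set_option linter.unusedVariables false
set_option linter.unusedSectionVars false

open Filter Topology

namespace Crest.Agent.R136.Res2648

open Finset Crest.Agent.R136.NetW191 Crest.Agent.R136.Net191 Crest.Agent.R136.Qg926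
open Crest.Agent.R136.EvW938 Crest.Agent.R136.Gf356 Crest.Agent.R136.Res1648
open Crest.Agent.R138.Ex926 (Base U)

section

variable {ι : ℕ → Type*} [∀ n, DecidableEq (ι n)]
variable {W : Wnd 18 ι} {κ : ℕ → ℝ} {lam : ℕ → Fin 18 → ℝ} {f : ∀ n, ι n → FW}
  {V : Finset (Fin 14)} {x σ : ℝ} {E E' : ∀ n, Finset (ι n)} {Mu g : ℕ → ℝ}
  {ex : ℕ → ∀ n, ι n → ℕ}

lemma CS_le {K M Ch : ℝ} (hK : 1 ≤ K) (hCh : 0 ≤ Ch) (hM : 1 ≤ M) :
    CS K M Ch ≤ (CR K + Ch + 470 * K ^ 7 + 1 + 470 * K ^ 7 * (470 * K ^ 7) +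
      470 + 470 * 128) * M ^ 7 := by
  have h1 : 1 ≤ M ^ 7 := one_le_pow₀ hM
  have h2 := (CR_ge hK).1
  have h3 : 0 ≤ CR K + Ch + 470 * K ^ 7 + 1 + 470 * K ^ 7 * (470 * K ^ 7) := by positivity
  have h4 := le_mul_of_one_le_right h3 h1
  unfold CS
  have e : (2 * M) ^ 7 = 128 * M ^ 7 := by ring
  rw [e]
  linarith

/-- **from the motion of one line to the output** -/
theorem resq_of (D : WinD W κ lam f V E x σ) (h : WWnd W κ lam f) (hE : Wnd.EOk W E Mu)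
    (hP : Wnd.Pruned W E E' g ex) {j : Fin 14} (ad : Adm V j) {Ch : ℝ} (hCh : 0 ≤ Ch)
    (hsh : ∀ ε : ℝ, 0 < ε → ∀ᶠ n in (U : Filter ℕ), ∀ i ∈ Aset W E' n, ∀ i' ∈ Aset W E' n,
      ∀ l ∈ Aset W E' n, W.lc n i = W.lc n i' → W.zc n i = W.zc n l → ∀ q ∈ V,
      |tr (κ n) (sh (coW (κ n) (f n i) (f n i') 0)) (offS W.S (flg (coW (κ n) (f n i) (f n l)))) q -
        coW (κ n) (f n i) (f n l) (Fin.natAdd 4 j) *
          fk (κ n) (coW (κ n) (f n i) (f n i') 0) j q| ≤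
        Ch * W.B'.d n ^ (x - ε) * sd W lam n (Fin.natAdd 4 q))
    {C : ℝ} (hC : 0 < C)
    (hfin : ∀ ε : ℝ, 0 < ε → C * ε ≤ x → ∀ᶠ n in (U : Filter ℕ),
      ∃ (k₀ i : ℕ) (ψ : ℝ) (H : Finset ℕ), H ⊆ (W.cfg E' n).Z ∧
        W.B'.d n ^ (C * ε) * ((W.cfg E' n).Z.card : ℝ) ≤ (H.card : ℝ) ∧
        (i, k₀) ∈ (W.cfg E' n).I ∧ (∀ k ∈ H, (i, k) ∈ (W.cfg E' n).I) ∧
        |ψ| ≤ W.B'.d n ^ (-(C * ε)) * sd W lam n (Fin.natAdd 4 j) ∧
        ∀ k ∈ H, ∀ q ∈ V,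
          |coW (κ n) (f n (W.rep n i k₀)) (f n (W.rep n i k)) (Fin.natAdd 4 q) -
            ψ * fk (κ n) (coW (κ n) (f n (W.rep n i k₀)) (f n (W.rep n i k)) 0) j q| ≤
            W.B'.d n ^ (x - C * ε) * sd W lam n (Fin.natAdd 4 q)) :
    ∀ ε : ℝ, 0 < ε → ∀ᶠ n in (U : Filter ℕ), ∃ G ⊆ E n,
      Mu n * W.B'.d n ^ (W.lam W.top + ε) ≤ (G.card : ℝ) ∧ ResQ W κ lam f j V x n ε G := by
  classical
  intro ε hε
  have hx := D.x_pos
  set m₀ : ℝ := min ε x with hm₀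
  have hm0 : 0 < m₀ := lt_min hε hx
  have hm1 : m₀ ≤ ε := min_le_left _ _
  have hm2 : m₀ ≤ x := min_le_right _ _
  set ε₁ : ℝ := m₀ / (9 * (C + 1)) with hε₁
  have hC1 : 0 < 9 * (C + 1) := by positivity
  have hε1 : 0 < ε₁ := by positivity
  set δ : ℝ := (C + 1) * ε₁ with hδ
  have hδ0 : 0 < δ := by positivity
  have hδm : 9 * δ = m₀ := by
    rw [hδ, hε₁]
    field_simp
  have hCε : C * ε₁ ≤ δ := by rw [hδ]; nlinarith
  have h1ε : ε₁ ≤ δ := by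
    rw [hδ]
    have : 0 < C * ε₁ := by positivity
    linarith
  have hKR := KR_one h.ok
  set c1 : ℝ := CR (KR W) + Ch + 470 * (KR W) ^ 7 + 1 + 470 * (KR W) ^ 7 * (470 * (KR W) ^ 7) +
      470 + 470 * 128 with hc1
  filter_upwards [D.raw h hE hP hε1 (by linarith), hsh ε₁ hε1, hfin ε₁ hε1 (by linarith),
    mass_of_heights h.ok hE hP D.dens (ε := ε / 2) (by positivity),
    ev_const_le W.B' hδ0 (2 * KR W), ev_const_le W.B' hδ0 c1] with n g1 g2 g3 g4 g5 g6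
  obtain ⟨hg, hEC, hcfg, R⟩ := g1
  obtain ⟨k₀, i, ψ, H, hH, hcard, hi0, hiH, hψ, hmot⟩ := g3
  set ρ := W.B'.d n with hρ
  have hd : ∀ u : ℝ, 0 < ρ ^ u := fun u => rpos W.B' n u
  have hdn : ∀ {u v : ℝ}, u ≤ v → ρ ^ v ≤ ρ ^ u := fun {u v} h' => rpow_anti W.B' n h'
  have radd : ∀ u v : ℝ, ρ ^ (u + v) = ρ ^ u * ρ ^ v := fun u v => rpow_add' W.B' n u v
  have sp := h.sd_pos n
  refine ⟨(E' n).filter fun i => W.zc n i ∈ H, (filter_subset _ _).trans (hP.sub n), ?_, ?_⟩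
  · refine le_trans ?_ (g4 (C * ε₁) H hH hcard)
    refine mul_le_mul_of_nonneg_left (hdn ?_) (hE.pos n).le
    linarith
  · obtain ⟨rA, rl, rz⟩ := rep_Aset hEC hcfg hi0
    refine ⟨W.rep n i k₀, rA.1, ψ, ?_, ?_⟩
    · refine hψ.trans (mul_le_mul_of_nonneg_right (hdn ?_) (sp _).le)
      linarith
    · intro l hl l' hl' hll q hq
      obtain ⟨hlE, hlH⟩ := mem_filter.1 hl
      obtain ⟨hlE', hlH'⟩ := mem_filter.1 hl'
      have hk := hiH _ hlH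
      have hk' := hiH _ hlH'
      obtain ⟨pA, pl, pz⟩ := rep_Aset hEC hcfg hk
      obtain ⟨pA', pl', pz'⟩ := rep_Aset hEC hcfg hk'
      have lA : l ∈ Aset W E' n := ⟨hEC hlE, by
        rw [hcfg]; exact Wnd.mem_I.2 ⟨l, hlE, rfl, rfl⟩⟩
      have lA' : l' ∈ Aset W E' n := ⟨hEC hlE', by
        rw [hcfg]; exact Wnd.mem_I.2 ⟨l', hlE', rfl, rfl⟩⟩
      have hτη : ρ ^ (x - ε₁) ≤ ρ ^ (x - δ) := hdn (by linarith)
      have hηη : ρ ^ (x - C * ε₁) ≤ ρ ^ (x - δ) := hdn (by linarith)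
      have key := R.spread (j := j) ad (ψ := ψ) (η := ρ ^ (x - δ)) (M := ρ ^ (-δ)) (Ch := Ch)
        g5 hτη hCh
        (hψ.trans (mul_le_mul_of_nonneg_right (hdn (by linarith)) (sp _).le))
        (fun a ha a' ha' b hb e1 e2 p hp => (g2 a ha a' ha' b hb e1 e2 p hp).trans
          (mul_le_mul_of_nonneg_right (mul_le_mul_of_nonneg_left hτη hCh) (sp _).le))
        rA pA pA' lA lA' (rl.trans pl.symm) (pl.trans pl'.symm) hll pz pz'
        (fun p hp => (hmot _ hlH p hp).trans (mul_le_mul_of_nonneg_right hηη (sp _).le))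
        (fun p hp => (hmot _ hlH' p hp).trans (mul_le_mul_of_nonneg_right hηη (sp _).le)) q hq
      have hM1 : 1 ≤ ρ ^ (-δ) := by linarith
      have hCS := CS_le hKR hCh hM1
      have e7 : (ρ ^ (-δ)) ^ 7 = ρ ^ (-(7 * δ)) := by
        rw [← Real.rpow_natCast, ← Real.rpow_mul (W.B'.pos n).le]
        congr 1
        push_cast
        ring
      rw [e7, ← hc1] at hCS
      refine key.trans (mul_le_mul_of_nonneg_right ?_ (sp _).le)
      calc CS (KR W) (ρ ^ (-δ)) Ch * ρ ^ (x - δ)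
          ≤ (c1 * ρ ^ (-(7 * δ))) * ρ ^ (x - δ) :=
            mul_le_mul_of_nonneg_right hCS (hd _).le
        _ ≤ (ρ ^ (-δ) * ρ ^ (-(7 * δ))) * ρ ^ (x - δ) := by
            refine mul_le_mul_of_nonneg_right ?_ (hd _).le
            exact mul_le_mul_of_nonneg_right g6 (hd _).le
        _ = ρ ^ (-δ + -(7 * δ) + (x - δ)) := by rw [radd (-δ + -(7 * δ)), radd (-δ)]
        _ ≤ ρ ^ (x - ε) := hdn (by linarith)

end

/-! ### boxes and rates -/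

/-- exponent `x` in the slots of `T` -/
def bxs (T : Finset (Fin 18)) (x : ℝ) : Fin 18 → ℝ := fun s => if s ∈ T then x else 0

/-- **the slot `a` costs at the rate `s` given the slots `T`** -/
structure Rate {ι : ℕ → Type*} [∀ n, DecidableEq (ι n)] (W : Wnd 18 ι) (T : Finset (Fin 18))
    (a : Fin 18) (x s : ℝ) : Prop where
  pos : 0 < s
  aT : a ∉ T
  aS : a ∉ W.S
  TS : ∀ b ∈ T, b ∉ W.S
  leg : ∀ t, 0 ≤ t → t ≤ x → Function.update (bxs T x) a t ∈ W.legW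
  rate : ∀ t, 0 ≤ t → t ≤ x → s * t ≤ W.nu (bxs T x) - W.nu (Function.update (bxs T x) a t)

section

variable {ι : ℕ → Type*} [∀ n, DecidableEq (ι n)]
variable {W : Wnd 18 ι} {κ : ℕ → ℝ} {lam : ℕ → Fin 18 → ℝ} {f : ∀ n, ι n → FW}
  {V : Finset (Fin 14)} {x σ : ℝ} {E E' : ∀ n, Finset (ι n)} {Mu g : ℕ → ℝ}
  {ex : ℕ → ∀ n, ι n → ℕ} {T : Finset (Fin 18)} {a : Fin 18} {s : ℝ}

theorem Rate.leg0 (Rt : Rate W T a x s) (hx : 0 ≤ x) : bxs T x ∈ W.legW := by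
  have h1 := Rt.leg 0 le_rfl hx
  have e : Function.update (bxs T x) a 0 = bxs T x := by
    rw [Function.update_eq_self_iff]
    exact (if_neg Rt.aT).symm
  rwa [e] at h1

/-- the box of the dropped slot -/
theorem big_slot {G : RCfg (Fin 18)} {p : Fin 18 → ℝ} {c t : ℝ} {k i l : ℕ}
    (hl : G.loose p c k i l) (hn : ¬ G.loose (Function.update p a t) c k i l) :
    G.ρ ^ (t - c) < |G.rel k i l a| := by
  by_contra hcon
  push Not at hcon
  refine hn fun s => ?_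
  by_cases hs : s = a
  · subst hs
    rw [Function.update_self]
    exact hcon
  · rw [Function.update_of_ne hs]
    exact hl s

/-- facts on a pair of lines at one height -/
structure Two (W : Wnd 18 ι) (κ : ℕ → ℝ) (lam : ℕ → Fin 18 → ℝ) (f : ∀ n, ι n → FW)
    (E : ∀ n, Finset (ι n)) (T : Finset (Fin 18)) (a : Fin 18) (x c : ℝ) (n k i l : ℕ) :
    Prop where
  hi : (i, k) ∈ (W.cfg E n).I
  hl : (l, k) ∈ (W.cfg E n).I
  sm : ∀ b ∈ T, |coW (κ n) (f n (W.rep n i k)) (f n (W.rep n l k)) b| ≤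
    W.B'.d n ^ (x - c) * sd W lam n b
  big : W.B'.d n ^ c * sd W lam n a ≤ |coW (κ n) (f n (W.rep n i k)) (f n (W.rep n l k)) a|

/-- from the configuration to raw coordinates -/
theorem ev_two (h : WWnd W κ lam f) (hE : Wnd.EOk W E Mu) (hP : Wnd.Pruned W E E' g ex)
    (Rt : Rate W T a x s) {ε : ℝ} (hε : 0 < ε) :
    ∀ᶠ n in (U : Filter ℕ), ∀ (c t : ℝ) (k i l : ℕ), (i, k) ∈ (W.cfg E' n).I →
      (l, k) ∈ (W.cfg E' n).I → (W.cfg E' n).loose (bxs T x) c k i l →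
      ¬ (W.cfg E' n).loose (Function.update (bxs T x) a t) c k i l → 0 ≤ c →
      ∀ c', t + ε ≤ c' → c + ε ≤ c' → Two W κ lam f E' T a x c' n k i l := by
  filter_upwards [Wnd.ev_cfg h.ok hE hP, ev_const_le W.B' hε W.K2,
    ev_const_le W.B' hε (1 / W.kap a)] with n g1 g2 g3 c t k i l hi hl hlo hnl hc c' ht hc'
  obtain ⟨hg, hEC, hne, hcfg⟩ := g1
  have hE'C : E' n ⊆ W.Cl n := (hP.sub n).trans hEC
  have hρe : (W.cfg E' n).ρ = W.B'.d n := Wnd.cfg_ρ E' n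
  set ρ := W.B'.d n with hρ
  have hd : ∀ u : ℝ, 0 < ρ ^ u := fun u => rpos W.B' n u
  have hdn : ∀ {u v : ℝ}, u ≤ v → ρ ^ v ≤ ρ ^ u := fun {u v} h' => rpow_anti W.B' n h'
  have radd : ∀ u v : ℝ, ρ ^ (u + v) = ρ ^ u * ρ ^ v := fun u v => rpow_add' W.B' n u v
  have sp := h.sd_pos n
  refine ⟨hi, hl, fun b hb => ?_, ?_⟩
  · have h1 := hlo b
    rw [hρe] at h1
    have e1 : bxs T x b = x := if_pos hb
    rw [e1] at h1
    rw [co_rel h hg hE'C hcfg hi hl (Rt.TS b hb)]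
    refine (h.raw_le h1).trans (mul_le_mul_of_nonneg_right ?_ (sp b).le)
    calc W.kap b * ρ ^ (x - c) ≤ ρ ^ (-ε) * ρ ^ (x - c) :=
          mul_le_mul_of_nonneg_right ((Wnd.kap_le_K2 h.ok b).trans g2) (hd _).le
      _ = ρ ^ (-ε + (x - c)) := (radd _ _).symm
      _ ≤ ρ ^ (x - c') := hdn (by linarith)
  · have h1 := big_slot hlo hnl
    rw [hρe] at h1
    rw [co_rel h hg hE'C hcfg hi hl Rt.aS, abs_mul, abs_of_pos (h.un_pos n a)]
    have hk := h.ok.kap a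
    have h2 : 1 ≤ W.kap a * ρ ^ (-ε) := by
      rw [div_le_iff₀ hk] at g3
      linarith
    have h3 : ρ ^ c' ≤ W.kap a * ρ ^ (t - c) := by
      calc ρ ^ c' ≤ 1 * ρ ^ c' := by rw [one_mul]
        _ ≤ (W.kap a * ρ ^ (-ε)) * ρ ^ c' := mul_le_mul_of_nonneg_right h2 (hd _).le
        _ = W.kap a * ρ ^ (-ε + c') := by rw [radd]; ring
        _ ≤ W.kap a * ρ ^ (t - c) := mul_le_mul_of_nonneg_left (hdn (by linarith)) hk.le
    calc ρ ^ c' * sd W lam n a ≤ (W.kap a * ρ ^ (t - c)) * sd W lam n a :=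
          mul_le_mul_of_nonneg_right h3 (sp a).le
      _ = un W lam n a * ρ ^ (t - c) := by unfold un; ring
      _ ≤ un W lam n a * |(W.cfg E' n).rel k i l a| :=
          mul_le_mul_of_nonneg_left h1.le (h.un_pos n a).le

theorem zero_legW (h : W.Ok) : (0 : Fin 18 → ℝ) ∈ W.legW :=
  ⟨h.lev_leg, fun s _ => h.top_leg.1.nonneg s⟩

/-- relative coordinates are bounded -/
theorem loose_zero (h : WWnd W κ lam f) (hE : Wnd.EOk W E Mu) (hP : Wnd.Pruned W E E' g ex)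
    {ε : ℝ} (hε : 0 < ε) : ∀ᶠ n in (U : Filter ℕ), ∀ k i l, (i, k) ∈ (W.cfg E' n).I →
      (l, k) ∈ (W.cfg E' n).I → (W.cfg E' n).loose 0 ε k i l := by
  have hb : ∀ᶠ n in (U : Filter ℕ), ∀ s : Fin 18, W.K0 / W.kap s ≤ W.B'.d n ^ (-ε) := by
    rw [Filter.eventually_all]
    intro s
    exact ev_const_le W.B' hε _
  filter_upwards [Wnd.ev_cfg h.ok hE hP, hb] with n g1 g2 k i l hi hl s
  obtain ⟨hg, hEC, hne, hcfg⟩ := g1
  have hE'C : E' n ⊆ W.Cl n := (hP.sub n).trans hEC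
  have hρe : (W.cfg E' n).ρ = W.B'.d n := Wnd.cfg_ρ E' n
  rw [hρe, Pi.zero_apply, zero_sub]
  rw [hcfg] at hi hl ⊢
  exact (h.rel_le hg hE'C hi hl s).trans (g2 s)

open Classical in
/-- **two lines in one cell which meet at many pairs of heights** -/
theorem two_many (h : WWnd W κ lam f) (hE : Wnd.EOk W E Mu) (hP : Wnd.Pruned W E E' g ex)
    (H : RModel W.B' (W.cfg E') σ x W.legW W.nu W.Dc) (hx : 0 < x) (Rt : Rate W T a x s)
    (pT r : Fin 18 → ℝ) (hpT : pT ∈ W.legW)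
    (hr : r ∈ W.legW) (hTr : ∀ j, pT j ≤ r j) (hz : W.nu pT ≤ W.nu r) {C1 : ℝ} (hC1 : 0 < C1)
    (inT : ∀ ε : ℝ, 0 < ε → ∀ᶠ n in (U : Filter ℕ), ∀ k k' i i', (i, k) ∈ (W.cfg E' n).I →
      (i, k') ∈ (W.cfg E' n).I → (i', k) ∈ (W.cfg E' n).I → (i', k') ∈ (W.cfg E' n).I →
      (W.cfg E' n).loose (bxs T x) ε k i i' → (W.cfg E' n).loose pT (C1 * ε) k' i i') :
    ∃ C : ℝ, 0 < C ∧ ∀ ε : ℝ, 0 < ε → C * ε ≤ x → ∀ᶠ n in (U : Filter ℕ),
      ∃ k₀ i l : ℕ, ∃ P ⊆ (W.cfg E' n).Z ×ˢ (W.cfg E' n).Z,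
        Two W κ lam f E' T a x (C * ε) n k₀ i l ∧
        W.B'.d n ^ (C * ε) * ((W.cfg E' n).Z.card : ℝ) ^ 2 ≤ (P.card : ℝ) ∧
        ∀ q ∈ P, (i, q.1) ∈ (W.cfg E' n).I ∧ (l, q.1) ∈ (W.cfg E' n).I ∧
          (i, q.2) ∈ (W.cfg E' n).I ∧ (l, q.2) ∈ (W.cfg E' n).I ∧
          (W.cfg E' n).loose r (C * ε) q.1 i l ∧ (W.cfg E' n).loose r (C * ε) q.2 i l ∧
          Pop W.B' (W.cfg E') (4 * ε) n k₀ q.1 ∧ Pop W.B' (W.cfg E') (4 * ε) n k₀ q.2 ∧
          Pop W.B' (W.cfg E') (4 * ε) n q.1 q.2 := by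
  have hD := H.D1
  have hD0 : 0 < W.Dc := by linarith
  have hD5 : 0 < W.Dc ^ 5 := by positivity
  obtain ⟨C0, hC0, hmain⟩ := pair_many H (bxs T x) pT r (Rt.leg0 hx.le) hpT hr hTr hz hC1 inT
    (fun t => Function.update (bxs T x) a t) Rt.pos Rt.leg Rt.rate (C4 := W.Dc ^ 5) hD5
  refine ⟨C0 + W.Dc ^ 5 + 1, by positivity, fun ε hε hCx => ?_⟩
  have h1 : C0 * ε ≤ x := by nlinarith
  filter_upwards [hmain ε hε h1, ev_two (κ := κ) (lam := lam) (f := f) h hE hP Rt hε] with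
    n ⟨k₀, i, l, P, hPZ, hi, hl, hlo, hnl, hcard, hq⟩ g2
  have hdn : ∀ {u v : ℝ}, u ≤ v → W.B'.d n ^ v ≤ W.B'.d n ^ u := fun {u v} h' =>
    rpow_anti W.B' n h'
  have hρe : (W.cfg E' n).ρ = W.B'.d n := Wnd.cfg_ρ E' n
  refine ⟨k₀, i, l, P, hPZ, ?_, ?_, fun q hqP => ?_⟩
  · exact g2 (W.Dc ^ 5 * ε) (C0 * ε) k₀ i l hi hl hlo hnl (by positivity) _ (by nlinarith)
      (by nlinarith)
  · refine le_trans ?_ hcard
    exact mul_le_mul_of_nonneg_right (hdn (by nlinarith)) (by positivity)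
  · obtain ⟨a1, a2, a3, a4, a5, a6, a7, a8, a9⟩ := hq q hqP
    refine ⟨a1, a2, a3, a4, fun s => ?_, fun s => ?_, a7, a8, a9⟩
    · refine (a5 s).trans ?_
      rw [hρe]
      exact hdn (by nlinarith)
    · refine (a6 s).trans ?_
      rw [hρe]
      exact hdn (by nlinarith)

/-- **two lines for every popular pair of heights** -/
theorem two_cell (h : WWnd W κ lam f) (hE : Wnd.EOk W E Mu) (hP : Wnd.Pruned W E E' g ex)
    (H : RModel W.B' (W.cfg E') σ x W.legW W.nu W.Dc) (hx : 0 < x) (Rt : Rate W T a x s) :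
    ∃ C : ℝ, 0 < C ∧ ∀ ε : ℝ, 0 < ε → C * ε ≤ x → ∀ᶠ n in (U : Filter ℕ), ∀ k k',
      Pop W.B' (W.cfg E') (4 * ε) n k k' → ∃ i l, (i, k') ∈ (W.cfg E' n).I ∧
        (l, k') ∈ (W.cfg E' n).I ∧ Two W κ lam f E' T a x (C * ε) n k i l := by
  have hD := H.D1
  have hD0 : 0 < W.Dc := by linarith
  have hD5 : 0 < W.Dc ^ 5 := by positivity
  obtain ⟨C0, hC0, hmain⟩ := pair_cell H.toRUnif (bxs T x) (Rt.leg0 hx.le)
    (fun t => Function.update (bxs T x) a t) Rt.pos Rt.leg Rt.rate (b := 4) (C4 := W.Dc ^ 5)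
    (by norm_num) hD5
  refine ⟨C0 + W.Dc ^ 5 + 1, by positivity, fun ε hε hCx => ?_⟩
  have h1 : C0 * ε ≤ x := by nlinarith
  filter_upwards [hmain ε hε h1, ev_two (κ := κ) (lam := lam) (f := f) h hE hP Rt hε] with
    n g1 g2 k k' hpop
  obtain ⟨i, l, hi, hi', hl, hl', hlo, hnl⟩ := g1 k k' hpop
  exact ⟨i, l, hi', hl', g2 (W.Dc ^ 5 * ε) (C0 * ε) k i l hi hl hlo hnl (by positivity) _
    (by nlinarith) (by nlinarith)⟩

/-- tight walls -/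
theorem sd_mul (h : WWnd W κ lam f) {n : ℕ} {u v s : Fin 18} (hl : [u, v] ∈ mlW s)
    (ht : W.X n s = W.X n u + W.X n v) : sd W lam n s = sd W lam n u * sd W lam n v := by
  have h1 := (h.hl n).mul s [u, v] hl
  simp only [List.map_cons, List.map_nil, List.prod_cons, List.prod_nil, mul_one] at h1
  have hu := ((h.hl n).pos u).ne'
  have hv := ((h.hl n).pos v).ne'
  unfold sd
  rw [ht, Real.rpow_add (W.B.pos n), ← h1]
  field_simp

/-- heights of a set of pairs -/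
theorem card_fst {Z : Finset ℕ} {P : Finset (ℕ × ℕ)} (hP : P ⊆ Z ×ˢ Z) {c : ℝ}
    (hc : c * (Z.card : ℝ) ^ 2 ≤ (P.card : ℝ)) (hZ : Z.Nonempty) :
    c * (Z.card : ℝ) ≤ ((P.image Prod.fst).card : ℝ) := by
  have hZ0 : (0 : ℝ) < Z.card := by exact_mod_cast hZ.card_pos
  have h1 : P ⊆ (P.image Prod.fst) ×ˢ Z := fun q hq =>
    mem_product.2 ⟨mem_image_of_mem _ hq, (mem_product.1 (hP hq)).2⟩
  have h2 : (P.card : ℝ) ≤ ((P.image Prod.fst).card : ℝ) * Z.card := by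
    have := card_le_card h1
    rw [card_product] at this
    exact_mod_cast this
  have h3 : (c * (Z.card : ℝ)) * Z.card ≤ ((P.image Prod.fst).card : ℝ) * Z.card := by
    calc (c * (Z.card : ℝ)) * Z.card = c * (Z.card : ℝ) ^ 2 := by ring
      _ ≤ _ := hc.trans h2
  exact le_of_mul_le_mul_right h3 hZ0

end

end Crest.Agent.R136.Res2648
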