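import Crest.Agent.R136.Res6_648

/-!
# R136: wall resonances of 5b (helper648), part 7: the windows `zY` ((3, 2)) and `BY` ((3, 4))
-/

set_option autoImplicit false
set_option linter.unusedVariables false
set_option linter.unusedSectionVars false

open Filter Topology

namespace Crest.Agent.R136.Res2648

open Finset Crest.Agent.R136.NetW191 Crest.Agent.R136.Net191 Crest.Agent.R136.Qg926
open Crest.Agent.R136.EvW938 Crest.Agent.R136.Gf356 Crest.Agent.R136.Res1648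
open Crest.Agent.R138.Ex926 (Base U)

section

variable {ι : ℕ → Type*} [∀ n, DecidableEq (ι n)]
variable {W : Wnd 18 ι} {κ : ℕ → ℝ} {lam : ℕ → Fin 18 → ℝ} {f : ∀ n, ι n → FW}
  {V : Finset (Fin 14)} {x σ : ℝ} {E E' : ∀ n, Finset (ι n)} {Mu g : ℕ → ℝ}
  {ex : ℕ → ∀ n, ι n → ℕ} {T : Finset (Fin 18)} {a : Fin 18} {s : ℝ}

/-- distance of two heights, raw coordinates of any line -/
theorem ev_hgt (h : WWnd W κ lam f) (hE : Wnd.EOk W E Mu) (hP : Wnd.Pruned W E E' g ex)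
    (hx0 : x ≤ W.top 0) {ε : ℝ} (hε : 0 < ε) :
    ∀ᶠ n in (U : Filter ℕ), ∀ c : ℝ, c + ε ≤ x → ∀ i k k', (i, k) ∈ (W.cfg E' n).I →
      (i, k') ∈ (W.cfg E' n).I → W.B'.d n ^ c < |(W.cfg E' n).z k' - (W.cfg E' n).z k| →
      W.B'.d n ^ (c + ε) * sd W lam n 0 ≤
        |coW (κ n) (f n (W.rep n i k)) (f n (W.rep n i k')) 0| := by
  have hk0 := h.ok.kap 0
  filter_upwards [Wnd.ev_cfg h.ok hE hP, ev_const_le W.B' hε (4 * W.K0 / W.kap 0),
    ev_const_le W.B' hε (2 / W.kap 0)] with n g1 g2 g3 c hc i k k' hi hi' hz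
  obtain ⟨hg, hEC, hne, hcfg⟩ := g1
  have hE'C : E' n ⊆ W.Cl n := (hP.sub n).trans hEC
  set ρ := W.B'.d n with hρ
  have hd : ∀ u : ℝ, 0 < ρ ^ u := fun u => rpos W.B' n u
  have hdn : ∀ {u v : ℝ}, u ≤ v → ρ ^ v ≤ ρ ^ u := fun {u v} h' => rpow_anti W.B' n h'
  have radd : ∀ u v : ℝ, ρ ^ (u + v) = ρ ^ u * ρ ^ v := fun u v => rpow_add' W.B' n u v
  have sp := h.sd_pos n
  have A1 := (rep_Aset hE'C hcfg hi).1.1
  have A2 := (rep_Aset hE'C hcfg hi').1.1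
  rw [hcfg] at hz hi hi'
  have h1 := h.own_zero hg hE'C hi hi' hx0
  have h2 : |(W.cfg0 n (E' n)).z k' - (W.cfg0 n (E' n)).z k| - 2 * W.K0 * ρ ^ x / W.kap 0 ≤
      |ownC W n i k k' 0| := by
    have h3 := abs_sub_abs_le_abs_sub ((W.cfg0 n (E' n)).z k' - (W.cfg0 n (E' n)).z k)
      (ownC W n i k k' 0)
    rw [abs_sub_comm _ (ownC W n i k k' 0)] at h3
    linarith
  have h4 : 2 * W.K0 * ρ ^ x / W.kap 0 ≤ ρ ^ c / 2 := by
    have e1 : 2 * W.K0 * ρ ^ x / W.kap 0 = (4 * W.K0 / W.kap 0) * ρ ^ x / 2 := by ring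
    rw [e1]
    refine div_le_div_of_nonneg_right ?_ two_pos.le
    calc (4 * W.K0 / W.kap 0) * ρ ^ x ≤ ρ ^ (-ε) * ρ ^ x :=
          mul_le_mul_of_nonneg_right g2 (hd _).le
      _ = ρ ^ (-ε + x) := (radd _ _).symm
      _ ≤ ρ ^ c := hdn (by linarith)
  have h5 : ρ ^ c / 2 ≤ |ownC W n i k k' 0| := by linarith
  have e2 : coW (κ n) (f n (W.rep n i k)) (f n (W.rep n i k')) 0 =
      un W lam n 0 * ownC W n i k k' 0 := h.crd_eq hg A1 A2 0
  rw [e2, abs_mul, abs_of_pos (h.un_pos n 0)]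
  have h6 : ρ ^ (c + ε) ≤ W.kap 0 * (ρ ^ c / 2) := by
    rw [div_le_iff₀ hk0] at g3
    have h7 : 1 ≤ W.kap 0 * ρ ^ (-ε) / 2 := by linarith
    calc ρ ^ (c + ε) = 1 * ρ ^ (c + ε) := (one_mul _).symm
      _ ≤ (W.kap 0 * ρ ^ (-ε) / 2) * ρ ^ (c + ε) := mul_le_mul_of_nonneg_right h7 (hd _).le
      _ = W.kap 0 * ((ρ ^ (-ε) * ρ ^ (c + ε)) / 2) := by ring
      _ = W.kap 0 * (ρ ^ c / 2) := by rw [← radd]; congr 3; ring
  calc ρ ^ (c + ε) * sd W lam n 0 ≤ (W.kap 0 * (ρ ^ c / 2)) * sd W lam n 0 :=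
        mul_le_mul_of_nonneg_right h6 (sp 0).le
    _ = un W lam n 0 * (ρ ^ c / 2) := by unfold un; ring
    _ ≤ un W lam n 0 * |ownC W n i k k' 0| :=
        mul_le_mul_of_nonneg_left h5 (h.un_pos n 0).le

/-- **the resonance `zY`** -/
theorem zY_win (h : WWnd W κ lam f) (hE : Wnd.EOk W E Mu) (D : WinD W κ lam f {6, 7, 10} E x σ)
    (s15 : (15 : Fin 18) ∈ W.S) (s8 : (8 : Fin 18) ∉ W.S) (s12 : (12 : Fin 18) ∉ W.S)
    (t10 : ∀ᶠ n in (U : Filter ℕ), W.X n 10 = W.X n 0 + W.X n 8)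
    (t11 : ∀ᶠ n in (U : Filter ℕ), W.X n 11 = W.X n 0 + W.X n 8)
    (t14 : ∀ᶠ n in (U : Filter ℕ), W.X n 14 = W.X n 0 + W.X n 11)
    (t12 : ∀ᶠ n in (U : Filter ℕ), W.X n 12 = W.X n 2 + W.X n 8)
    (t15 : ∀ᶠ n in (U : Filter ℕ), W.X n 15 = W.X n 2 + W.X n 10)
    (t15' : ∀ᶠ n in (U : Filter ℕ), W.X n 15 = W.X n 1 + W.X n 14)
    (Rt : Rate W {1} 2 x s) {s' : ℝ} (Rt' : Rate W {2, 12} 1 x s') :
    ∀ ε : ℝ, 0 < ε → ∀ᶠ n in (U : Filter ℕ), ∃ G ⊆ E n,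
      Mu n * W.B'.d n ^ (W.lam W.top + ε) ≤ (G.card : ℝ) ∧
        ResQ W κ lam f 4 {6, 7, 10} x n ε G := by
  classical
  have hx := D.x_pos
  obtain ⟨E', g, hP, H⟩ := D.model h hE
  have s10 : (10 : Fin 18) ∈ W.S := D.hV 6 (by decide)
  have s11 : (11 : Fin 18) ∈ W.S := D.hV 7 (by decide)
  have s14 : (14 : Fin 18) ∈ W.S := D.hV 10 (by decide)
  obtain ⟨C, hC, hmany⟩ := two_many0 h hE hP H hx Rt
  obtain ⟨C', hC', hcell⟩ := two_cell (κ := κ) (lam := lam) (f := f) h hE hP H hx Rt'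
  obtain ⟨C3, hC3, hsep⟩ := sep_heights H D.σ0 hC.le
  have hKR := KR_one h.ok
  have hK0 : 0 ≤ KR W := by linarith
  have hCR := (CR_ge hKR).1
  refine resq_of D h hE hP adm_zY (Ch := 0) le_rfl ?_ (C := 2 * C + 2 * C' + C3 + 10)
    (by positivity) ?_
  · intro ε hε
    filter_upwards with n i hi i' hi' l hl e1 e2 q hq
    have := sh_zY (κ n) (coW (κ n) (f n i) (f n l)) s10 s11 s14 s8
      (coW (κ n) (f n i) (f n i') 0) q hq
    rw [this]
    change |coW (κ n) (f n i) (f n l) 8 * _ - coW (κ n) (f n i) (f n l) 8 * _| ≤ _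
    rw [sub_self, abs_zero, zero_mul, zero_mul]
  · intro ε hε hεx
    have hCε : 0 < C * ε := by positivity
    have hCε' : 0 < C' * ε := by positivity
    have hCε3 : 0 < C3 * ε := by positivity
    have hεx1 : ε ≤ x := by linarith
    have hK2 : 0 ≤ KR W ^ 2 := by positivity
    have hK7 : 0 ≤ KR W ^ 7 := by positivity
    obtain ⟨A, hA⟩ : ∃ A : ℝ, A = (CR (KR W) + KR W + 4 * KR W ^ 2) +
      (CR (KR W) + KR W + 3 * KR W) + (CR (KR W) + 2 * KR W ^ 2 + KR W * CR (KR W)) +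
      (7 + 3 * KR W + 470 * KR W ^ 7 * (1 + KR W)) := ⟨_, rfl⟩
    filter_upwards [hmany ε hε (by linarith), hcell ε hε (by linarith), D.raw h hE hP hε hεx1,
      t10, t11, t14, t12, t15, t15', D.kap ε hε, ev_const_le W.B' hε A,
      hsep ε hε (by linarith), ev_hgt (κ := κ) (lam := lam) (f := f) h hE hP (D.top 0) hε]
      with n g1 gc g2 q10 q11 q14 q12 q15 q15' gκ g5 g6 g7
    obtain ⟨k₀, i, l, P, hPZ, hT, hcard, hq⟩ := g1
    obtain ⟨hg, hEC, hcfg, R⟩ := g2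
    set ρ := W.B'.d n with hρ
    have hρ0 : 0 < ρ := W.B'.pos n
    have hρ1 : ρ ≤ 1 := (W.B'.lt n).le
    have hd : ∀ u : ℝ, 0 < ρ ^ u := fun u => rpos W.B' n u
    have hdn : ∀ {u v : ℝ}, u ≤ v → ρ ^ v ≤ ρ ^ u := fun {u v} h' => rpow_anti W.B' n h'
    have radd : ∀ u v : ℝ, ρ ^ (u + v) = ρ ^ u * ρ ^ v := fun u v => rpow_add' W.B' n u v
    have sp := h.sd_pos n
    have T10 := sd_mul h (n := n) (u := 0) (v := 8) (s := 10) (by decide) q10
    have T11 := sd_mul h (n := n) (u := 0) (v := 8) (s := 11) (by decide) q11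
    have T14' := sd_mul h (n := n) (u := 0) (v := 11) (s := 14) (by decide) q14
    have T12 := sd_mul h (n := n) (u := 2) (v := 8) (s := 12) (by decide) q12
    have T15 := sd_mul h (n := n) (u := 2) (v := 10) (s := 15) (by decide) q15
    have T15' := sd_mul h (n := n) (u := 1) (v := 14) (s := 15) (by decide) q15'
    have T14 : sd W lam n 14 = sd W lam n 0 * sd W lam n 10 := by rw [T14', T11, ← T10]
    obtain ⟨xA, xl, xz⟩ := rep_Aset hEC hcfg hT.hi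
    obtain ⟨yA, yl, yz⟩ := rep_Aset hEC hcfg hT.hl
    have nn1 : 0 ≤ CR (KR W) + KR W + 4 * KR W ^ 2 := by positivity
    have nn2 : 0 ≤ CR (KR W) + KR W + 3 * KR W := by positivity
    have nn3 : 0 ≤ CR (KR W) + 2 * KR W ^ 2 + KR W * CR (KR W) := by positivity
    have nn4 : 0 ≤ 470 * KR W ^ 7 * (1 + KR W) := by positivity
    have A1 : CR (KR W) + KR W + 4 * KR W ^ 2 ≤ ρ ^ (-ε) := by
      refine le_trans ?_ g5
      rw [hA]; linarith
    have A2 : CR (KR W) + KR W + 3 * KR W ≤ ρ ^ (-ε) := by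
      refine le_trans ?_ g5
      rw [hA]; linarith
    have A3 : CR (KR W) + 2 * KR W ^ 2 + KR W * CR (KR W) ≤ ρ ^ (-ε) := by
      refine le_trans ?_ g5
      rw [hA]; linarith
    have A4 : 7 + 3 * KR W + 470 * KR W ^ 7 * (1 + KR W) ≤ ρ ^ (-ε) := by
      refine le_trans ?_ g5
      rw [hA]; linarith
    have hA5 : KR W ≤ ρ ^ (-ε) := by linarith
    have hbig : ∀ {c : ℝ} {v w : ℝ}, ρ ^ c * v ≤ |w| → 0 < v →
        ρ ^ (c + ε) * v ≤ |κ n| * |w| := by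
      intro c v w h1 hv
      calc ρ ^ (c + ε) * v = ρ ^ ε * (ρ ^ c * v) := by rw [radd]; ring
        _ ≤ |κ n| * |w| := mul_le_mul gκ h1 (by have := hd c; positivity) (abs_nonneg _)
    -- the ratio, for every height of a pair
    set ψ : ℝ := coW (κ n) (f n (W.rep n i k₀)) (f n (W.rep n l k₀)) 12 /
      (2 * κ n * coW (κ n) (f n (W.rep n i k₀)) (f n (W.rep n l k₀)) 2) with hψ
    have m1 : ((CR (KR W) + KR W) * ρ ^ (x - ε) + 4 * KR W ^ 2 * ρ ^ (x - C * ε)) /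
        ρ ^ (C * ε + ε) ≤ ρ ^ (x - (2 * C + 2 * C' + 5) * ε) := by
      have h1 : (CR (KR W) + KR W) * ρ ^ (x - ε) + 4 * KR W ^ 2 * ρ ^ (x - C * ε) ≤
          (CR (KR W) + KR W + 4 * KR W ^ 2) * ρ ^ (x - (C * ε + ε)) := by
        have a1 := mul_le_mul_of_nonneg_left (hdn (show x - (C * ε + ε) ≤ x - ε by linarith))
          (show 0 ≤ CR (KR W) + KR W by linarith)
        have a2 := mul_le_mul_of_nonneg_left
          (hdn (show x - (C * ε + ε) ≤ x - C * ε by linarith))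
          (show 0 ≤ 4 * KR W ^ 2 by positivity)
        linarith
      exact (quo hρ0 hρ1 A1 h1 (b := C * ε + ε)).trans (hdn (by linarith))
    have m2 : ((CR (KR W) + KR W) * ρ ^ (x - ε) + 3 * KR W * ρ ^ (x - C' * ε)) /
        ρ ^ (C' * ε) ≤ ρ ^ (x - (2 * C + 2 * C' + 5) * ε) := by
      have h1 : (CR (KR W) + KR W) * ρ ^ (x - ε) + 3 * KR W * ρ ^ (x - C' * ε) ≤
          (CR (KR W) + KR W + 3 * KR W) * ρ ^ (x - (C' * ε + ε)) := by
        have a1 := mul_le_mul_of_nonneg_left (hdn (show x - (C' * ε + ε) ≤ x - ε by linarith))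
          (show 0 ≤ CR (KR W) + KR W by linarith)
        have a2 := mul_le_mul_of_nonneg_left
          (hdn (show x - (C' * ε + ε) ≤ x - C' * ε by linarith))
          (show 0 ≤ 3 * KR W by positivity)
        linarith
      exact (quo hρ0 hρ1 A2 h1 (b := C' * ε)).trans (hdn (by linarith))
    have m3 : (CR (KR W) + 2 * KR W ^ 2 + KR W * CR (KR W)) * ρ ^ (x - ε) ≤
        ρ ^ (x - (2 * C + 2 * C' + 5) * ε) := by
      calc _ ≤ ρ ^ (-ε) * ρ ^ (x - ε) := mul_le_mul_of_nonneg_right A3 (hd _).le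
        _ = ρ ^ (-ε + (x - ε)) := (radd _ _).symm
        _ ≤ _ := hdn (by linarith)
    set e5 : ℝ := ρ ^ (x - (2 * C + 2 * C' + 5) * ε) with he5
    have he0 : 0 < e5 := hd _
    have rat : ∀ k, (i, k) ∈ (W.cfg E' n).I → (l, k) ∈ (W.cfg E' n).I →
        |coW (κ n) (f n (W.rep n i k₀)) (f n (W.rep n i k)) 10 -
          ψ * (κ n * coW (κ n) (f n (W.rep n i k₀)) (f n (W.rep n i k)) 0)| ≤
          e5 * sd W lam n 10 := by
      intro k p1 p2
      obtain ⟨xA', xl', xz'⟩ := rep_Aset hEC hcfg p1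
      obtain ⟨yA', yl', yz'⟩ := rep_Aset hEC hcfg p2
      exact (zY_ratio R s15 s12 T15 T15' T12 xA xA' yA yA' (xl.trans xl'.symm)
        (yl.trans yl'.symm) (xz.trans yz.symm) (xz'.trans yz'.symm) (hd (x - C * ε)).le
        (hd (C * ε + ε)) (hT.sm 1 (by decide)) (hbig hT.big (sp 2))).1.trans
        (mul_le_mul_of_nonneg_right m1 (sp _).le)
    -- the second relation
    have rel2 : ∀ k k', (i, k) ∈ (W.cfg E' n).I → (i, k') ∈ (W.cfg E' n).I →
        Pop W.B' (W.cfg E') (4 * ε) n k k' →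
        |κ n * coW (κ n) (f n (W.rep n i k)) (f n (W.rep n i k')) 14 -
          coW (κ n) (f n (W.rep n i k)) (f n (W.rep n i k')) 0 *
          coW (κ n) (f n (W.rep n i k)) (f n (W.rep n i k')) 10| ≤
          (2 * e5) * sd W lam n 14 := by
      intro k k' p1 p2 hpop
      obtain ⟨xA', xl', xz'⟩ := rep_Aset hEC hcfg p1
      obtain ⟨yA', yl', yz'⟩ := rep_Aset hEC hcfg p2
      obtain ⟨i1, l1, c1, c2, hT'⟩ := gc k k' hpop
      obtain ⟨uA, ul, uz⟩ := rep_Aset hEC hcfg hT'.hi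
      obtain ⟨vA, vl, vz⟩ := rep_Aset hEC hcfg hT'.hl
      obtain ⟨uA', ul', uz'⟩ := rep_Aset hEC hcfg c1
      obtain ⟨vA', vl', vz'⟩ := rep_Aset hEC hcfg c2
      have r2 := zY_r1 R s15 s12 T15 T15' uA uA' vA vA' (ul.trans ul'.symm) (vl.trans vl'.symm)
        (uz.trans vz.symm) (uz'.trans vz'.symm) (hd (x - C' * ε)).le (hd (C' * ε))
        (hT'.sm 2 (by decide)) (hT'.sm 12 (by decide)) hT'.big
      have r3 := zY_tr R s10 s11 s14 s8 T14 uA uA' xA' yA' (ul.trans ul'.symm)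
        (xl'.trans yl'.symm) (uz.trans xz'.symm) (uz'.trans yz'.symm) r2
      refine r3.trans (mul_le_mul_of_nonneg_right ?_ (sp _).le)
      linarith
    -- the set of heights
    obtain ⟨H₀, hHZ, hHP, hH⟩ : ∃ H₀ : Finset ℕ, H₀ ⊆ (W.cfg E' n).Z ∧ (∀ k ∈ H₀, ∃ k',
        (k, k') ∈ P ∧ ρ ^ (C3 * ε) < |(W.cfg E' n).z k' - (W.cfg E' n).z k|) ∧
        ρ ^ (C3 * ε) * ((W.cfg E' n).Z.card : ℝ) ≤ (H₀.card : ℝ) := by
      refine ⟨_, ?_, ?_, g6 P hPZ hcard⟩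
      · exact filter_subset _ _
      · exact fun k hk => (mem_filter.1 hk).2
    refine ⟨k₀, i, ψ, H₀, hHZ, ?_, hT.hi, ?_, ?_, ?_⟩
    rotate_left 1
    · intro k hk
      obtain ⟨k', hkP, hkz⟩ := hHP k hk
      exact (hq (k, k') hkP).1
    · -- size of ψ
      have key := (zY_ratio R s15 s12 T15 T15' T12 xA xA yA yA rfl rfl (xz.trans yz.symm)
        (xz.trans yz.symm) (hd (x - C * ε)).le
        (hd (C * ε + ε)) (hT.sm 1 (by decide)) (hbig hT.big (sp 2))).2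
      refine key.trans ?_
      refine mul_le_mul_of_nonneg_right ?_ (sp _).le
      have h1 : KR W ≤ ρ ^ (-ε) * ρ ^ (0 : ℝ) := by rw [Real.rpow_zero, mul_one]; exact hA5
      have h2 := quo (v := KR W) (A := ρ ^ (-ε)) (a := 0) (b := C * ε + ε) (e := ε) hρ0 hρ1
        le_rfl h1
      exact h2.trans (hdn (by linarith))
    · intro k hk q hqV
      obtain ⟨k', hkP, hkz⟩ := hHP k hk
      obtain ⟨p1, p2, p3, p4, p5, p6, p7⟩ := hq (k, k') hkP
      obtain ⟨xA', xl', xz'⟩ := rep_Aset hEC hcfg p1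
      obtain ⟨xA'', xl'', xz''⟩ := rep_Aset hEC hcfg p3
      have hv := g7 (C3 * ε) (by linarith) i k k' p1 p3 hkz
      have hv2 := hbig hv (sp 0)
      have hκ2 : ρ ^ (C3 * ε + ε + ε) ≤ |κ n| := (hdn (by linarith)).trans gκ
      have key := zY_fin R T14 T14' xA xA' xA'' (xl.trans xl'.symm) (xl'.trans xl''.symm)
        he0.le (by linarith : (0 : ℝ) ≤ 2 * e5) (hd (C3 * ε + ε + ε)) hκ2 hv2
        (rat k p1 p2) (rat k' p3 p4) (rel2 k₀ k hT.hi p1 p5) (rel2 k₀ k' hT.hi p3 p6)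
        (rel2 k k' p1 p3 p7) q hqV
      refine key.trans (mul_le_mul_of_nonneg_right ?_ (sp _).le)
      have hτe : ρ ^ (x - ε) ≤ e5 := hdn (by linarith)
      have h1 : 3 * (2 * e5) + 3 * KR W * e5 + 470 * KR W ^ 7 * (1 + KR W) * ρ ^ (x - ε) ≤
          (6 + 3 * KR W + 470 * KR W ^ 7 * (1 + KR W)) *
          ρ ^ (x - (2 * C + 2 * C' + 5) * ε) := by
        rw [← he5]
        have a1 := mul_le_mul_of_nonneg_left hτe nn4
        linarith
      have h2 := quo hρ0 hρ1 (by linarith) h1 (b := C3 * ε + ε + ε) (e := ε)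
      have h3 : ρ ^ (x - (2 * C + 2 * C' + 5) * ε - (C3 * ε + ε + ε) - ε) ≤
          ρ ^ (x - (2 * C + 2 * C' + C3 + 9) * ε) := hdn (by linarith)
      have h4 : e5 ≤ ρ ^ (x - (2 * C + 2 * C' + C3 + 9) * ε) := hdn (by linarith)
      have h5 : e5 + (3 * (2 * e5) + 3 * KR W * e5 +
          470 * KR W ^ 7 * (1 + KR W) * ρ ^ (x - ε)) / ρ ^ (C3 * ε + ε + ε) ≤
          2 * ρ ^ (x - (2 * C + 2 * C' + C3 + 9) * ε) := by linarith
      refine h5.trans ?_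
      calc 2 * ρ ^ (x - (2 * C + 2 * C' + C3 + 9) * ε) ≤
            ρ ^ (-ε) * ρ ^ (x - (2 * C + 2 * C' + C3 + 9) * ε) :=
            mul_le_mul_of_nonneg_right (by linarith) (hd _).le
        _ = ρ ^ (-ε + (x - (2 * C + 2 * C' + C3 + 9) * ε)) := (radd _ _).symm
        _ ≤ _ := hdn (by linarith)
    · refine le_trans ?_ hH
      exact mul_le_mul_of_nonneg_right (hdn (by linarith)) (Nat.cast_nonneg _)

end

end Crest.Agent.R136.Res2648
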