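import Crest.Agent.R136.Res7_648

/-!
# R136: wall resonances of 5b (helper648), part 8: the window `BY` ((w, K) = (3, 4))

The pair of lines has `c, A, zY, B-slot : x` and `B` not narrow; the slot `B-slot` is narrow at the
other heights because it costs nothing given `c, A, zY` (`free`).
-/

set_option autoImplicit false
set_option linter.unusedVariables false
set_option linter.unusedSectionVars false

open Filter Topology

namespace Crest.Agent.R136.Res2648

open Finset Crest.Agent.R136.NetW191 Crest.Agent.R136.Net191 Crest.Agent.R136.Qg926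
open Crest.Agent.R136.EvW938 Crest.Agent.R136.Gf356 Crest.Agent.R136.Res1648
open Crest.Agent.R138.Ex926 (Base U)

section

variable {ι : ℕ → Type*} [∀ n, DecidableEq (ι n)]
variable {W : Wnd 18 ι} {κ : ℕ → ℝ} {lam : ℕ → Fin 18 → ℝ} {f : ∀ n, ι n → FW}
  {V : Finset (Fin 14)} {x σ : ℝ} {E E' : ∀ n, Finset (ι n)} {Mu g : ℕ → ℝ}
  {ex : ℕ → ∀ n, ι n → ℕ} {T : Finset (Fin 18)} {a : Fin 18} {s : ℝ}

/-- slack wall of `BB` -/
theorem sd_slack (h : WWnd W κ lam f) {n : ℕ}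
    (hw : W.X n 7 + x * W.w n ≤ W.X n 0 + W.X n 0 + W.X n 4) :
    sd W lam n 0 * (sd W lam n 0 * sd W lam n 4) ≤ W.B'.d n ^ x * sd W lam n 7 := by
  have h1 := (h.hl n).mul 7 [0, 0, 4] (by decide)
  simp only [List.map_cons, List.map_nil, List.prod_cons, List.prod_nil, mul_one] at h1
  have hu := ((h.hl n).pos 0)
  have hv := ((h.hl n).pos 4)
  have h7 := ((h.hl n).pos 7)
  have e1 : sd W lam n 0 * (sd W lam n 0 * sd W lam n 4) =
      W.B.d n ^ (W.X n 0 + W.X n 0 + W.X n 4) / lam n 7 := by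
    unfold sd
    rw [Real.rpow_add (W.B.pos n), Real.rpow_add (W.B.pos n), ← h1]
    field_simp
  have e2 : W.B'.d n ^ x * sd W lam n 7 = W.B.d n ^ (W.X n 7 + x * W.w n) / lam n 7 := by
    unfold sd
    rw [h.ok.cls.base n, ← Real.rpow_mul (W.B.pos n).le, Real.rpow_add (W.B.pos n),
      mul_comm (W.w n) x]
    ring
  rw [e1, e2]
  exact div_le_div_of_nonneg_right
    (Real.rpow_le_rpow_of_exponent_ge (W.B.pos n) (W.B.lt n).le hw) h7.le

/-- transfer of `c, A, zY` -/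
theorem BY_inT (h : WWnd W κ lam f) (hE : Wnd.EOk W E Mu) (hP : Wnd.Pruned W E E' g ex)
    (D : WinD W κ lam f {3} E x σ) (s8 : (8 : Fin 18) ∉ W.S) {ε : ℝ} (hε : 0 < ε) :
    ∀ᶠ n in (U : Filter ℕ), ∀ k k' i i', (i, k) ∈ (W.cfg E' n).I →
      (i, k') ∈ (W.cfg E' n).I → (i', k) ∈ (W.cfg E' n).I → (i', k') ∈ (W.cfg E' n).I →
      (W.cfg E' n).loose (bxs {1, 2, 8, 14} x) ε k i i' →
      (W.cfg E' n).loose (bxs {1, 2, 8} x) (2 * ε) k' i i' := by
  have hx := D.x_pos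
  rcases lt_or_ge x ε with hxε | hxε
  · filter_upwards [loose_zero h hE hP hε] with n g1 k k' i i' h1 h2 h3 h4 h5
    have g2 := g1 k' i i' h2 h4
    have hρe : (W.cfg E' n).ρ = W.B'.d n := Wnd.cfg_ρ E' n
    intro s
    refine (g2 s).trans ?_
    rw [hρe]
    refine rpow_anti W.B' n ?_
    rw [Pi.zero_apply]
    unfold bxs
    split_ifs <;> linarith
  · have hKR := KR_one h.ok
    have hK0 : 0 ≤ KR W := by linarith
    have hCR := (CR_ge hKR).1
    have hK2 := Wnd.K2_one h.ok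
    obtain ⟨A, hA⟩ : ∃ A : ℝ, A = CR (KR W) + W.K2 + KR W * W.K2 := ⟨_, rfl⟩
    have hb : ∀ᶠ n in (U : Filter ℕ), ∀ s : Fin 18, A / W.kap s ≤ W.B'.d n ^ (-ε) := by
      rw [Filter.eventually_all]
      intro s
      exact ev_const_le W.B' hε _
    filter_upwards [loose_zero h hE hP hε, D.raw h hE hP hε hxε, hb] with
      n g1 g2 g3 k k' i i' h1 h2 h3 h4 h5
    obtain ⟨hg, hEC, hcfg, R⟩ := g2
    have hρe : (W.cfg E' n).ρ = W.B'.d n := Wnd.cfg_ρ E' n
    set ρ := W.B'.d n with hρ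
    have hd : ∀ u : ℝ, 0 < ρ ^ u := fun u => rpos W.B' n u
    have hdn : ∀ {u v : ℝ}, u ≤ v → ρ ^ v ≤ ρ ^ u := fun {u v} h' => rpow_anti W.B' n h'
    have radd : ∀ u v : ℝ, ρ ^ (u + v) = ρ ^ u * ρ ^ v := fun u v => rpow_add' W.B' n u v
    have sp := h.sd_pos n
    obtain ⟨xA, xl, xz⟩ := rep_Aset hEC hcfg h1
    obtain ⟨xA', xl', xz'⟩ := rep_Aset hEC hcfg h2
    obtain ⟨yA, yl, yz⟩ := rep_Aset hEC hcfg h3
    obtain ⟨yA', yl', yz'⟩ := rep_Aset hEC hcfg h4
    have e1 := xl.trans xl'.symm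
    have e2 := yl.trans yl'.symm
    have e3 := xz.trans yz.symm
    have e4 := xz'.trans yz'.symm
    -- smallness at the first height
    have hsm : ∀ s : Fin 18, s ∈ ({1, 2, 8, 14} : Finset (Fin 18)) → s ∉ W.S →
        |coW (κ n) (f n (W.rep n i k)) (f n (W.rep n i' k)) s| ≤
        W.K2 * ρ ^ (x - ε) * sd W lam n s := by
      intro s hs hsS
      have h6 := h5 s
      rw [hρe, show bxs {1, 2, 8, 14} x s = x from if_pos hs] at h6
      rw [co_rel h hg hEC hcfg h1 h3 hsS]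
      refine (h.raw_le h6).trans (mul_le_mul_of_nonneg_right ?_ (sp s).le)
      exact mul_le_mul_of_nonneg_right (Wnd.kap_le_K2 h.ok s) (hd _).le
    have b1 := hsm 1 (by decide) h.n1
    have b2 := hsm 2 (by decide) h.n2
    have b8 := hsm 8 (by decide) s8
    have f1 := R.frm_row xA xA' yA yA' e1 e2 e3 e4 (i := 1) h.n1
    have f2 := R.frm_row xA xA' yA yA' e1 e2 e3 e4 (i := 2) h.n2
    have f8 := R.lin_row xA xA' yA yA' e1 e2 e3 e4 (q := 4) s8
    rw [row_BY8 (κ n) _ _ s8] at f8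
    change |coW (κ n) _ _ 1 - coW (κ n) (f n (W.rep n i k)) (f n (W.rep n i' k)) 1| ≤
      _ * sd W lam n 1 at f1
    change |coW (κ n) _ _ 2 - (coW (κ n) (f n (W.rep n i k)) (f n (W.rep n i' k)) 2 +
      coW (κ n) (f n (W.rep n i k)) (f n (W.rep n i k')) 0 *
      coW (κ n) (f n (W.rep n i k)) (f n (W.rep n i' k)) 1)| ≤ _ * sd W lam n 2 at f2
    change |coW (κ n) _ _ 8 - coW (κ n) (f n (W.rep n i k)) (f n (W.rep n i' k)) 8| ≤
      _ * sd W lam n 8 at f8
    have w2 : sd W lam n 1 * sd W lam n 0 ≤ sd W lam n 2 := (walls_frame R.hX).1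
    have m2 : |coW (κ n) (f n (W.rep n i k)) (f n (W.rep n i' k)) 1 *
        coW (κ n) (f n (W.rep n i k)) (f n (W.rep n i k')) 0| ≤
        (W.K2 * ρ ^ (x - ε) * KR W) * sd W lam n 2 :=
      bm b1 (R.bnd _ xA _ xA' 0) (by have := hd (x - ε); positivity) hK0 (sp 1).le w2
    have hAn : 0 ≤ KR W * W.K2 := by positivity
    have hfin : ∀ s : Fin 18, s ∉ W.S →
        |coW (κ n) (f n (W.rep n i k')) (f n (W.rep n i' k')) s| ≤
          A * ρ ^ (x - ε) * sd W lam n s → |(W.cfg E' n).rel k' i i' s| ≤ ρ ^ (x - 2 * ε) := by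
      intro s hs h6
      rw [co_rel h hg hEC hcfg h2 h4 hs, abs_mul, abs_of_pos (h.un_pos n s)] at h6
      have hk := h.ok.kap s
      have h7 : |(W.cfg E' n).rel k' i i' s| ≤ A / W.kap s * ρ ^ (x - ε) := by
        have e5 : A * ρ ^ (x - ε) * sd W lam n s = un W lam n s * (A / W.kap s * ρ ^ (x - ε)) := by
          unfold un
          field_simp
        rw [e5] at h6
        exact le_of_mul_le_mul_left h6 (h.un_pos n s)
      calc |(W.cfg E' n).rel k' i i' s| ≤ A / W.kap s * ρ ^ (x - ε) := h7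
        _ ≤ ρ ^ (-ε) * ρ ^ (x - ε) := mul_le_mul_of_nonneg_right (g3 s) (hd _).le
        _ = ρ ^ (-ε + (x - ε)) := (radd _ _).symm
        _ ≤ _ := hdn (by linarith)
    have hsum : ∀ {s : Fin 18} {r v w : ℝ}, |r - v| ≤ CR (KR W) * ρ ^ (x - ε) * sd W lam n s →
        |v| ≤ w * sd W lam n s → w ≤ (W.K2 + KR W * W.K2) * ρ ^ (x - ε) →
        |r| ≤ A * ρ ^ (x - ε) * sd W lam n s := by
      intro s r v w h6 h7 h8
      have h9 := mul_le_mul_of_nonneg_right h8 (sp s).le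
      have e5 : A * ρ ^ (x - ε) * sd W lam n s = CR (KR W) * ρ ^ (x - ε) * sd W lam n s +
          (W.K2 + KR W * W.K2) * ρ ^ (x - ε) * sd W lam n s := by rw [hA]; ring
      rw [e5]
      have h10 := abs_add_le (r - v) v
      rw [sub_add_cancel] at h10
      linarith
    have hρx := hd (x - ε)
    have nn : 0 ≤ KR W * W.K2 * ρ ^ (x - ε) := by positivity
    intro s
    rw [hρe]
    by_cases hs1 : s = 1
    · subst hs1
      rw [show bxs {1, 2, 8} x 1 = x from if_pos (by decide)]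
      exact hfin 1 h.n1 (hsum f1 b1 (by linarith))
    by_cases hs2 : s = 2
    · subst hs2
      rw [show bxs {1, 2, 8} x 2 = x from if_pos (by decide)]
      refine hfin 2 h.n2 (hsum (w := W.K2 * ρ ^ (x - ε) + W.K2 * ρ ^ (x - ε) * KR W) f2 ?_
        (by linarith))
      have h10 := abs_add_le (coW (κ n) (f n (W.rep n i k)) (f n (W.rep n i' k)) 2)
        (coW (κ n) (f n (W.rep n i k)) (f n (W.rep n i k')) 0 *
        coW (κ n) (f n (W.rep n i k)) (f n (W.rep n i' k)) 1)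
      rw [mul_comm (coW (κ n) (f n (W.rep n i k)) (f n (W.rep n i k')) 0)] at h10 ⊢
      linarith
    by_cases hs8 : s = 8
    · subst hs8
      rw [show bxs {1, 2, 8} x 8 = x from if_pos (by decide)]
      exact hfin 8 s8 (hsum f8 b8 (by linarith))
    · have e6 : bxs {1, 2, 8} x s = 0 := if_neg (by simp [hs1, hs2, hs8])
      rw [e6]
      have h6 := g1 k' i i' h2 h4 s
      rw [hρe, Pi.zero_apply] at h6
      exact h6.trans (hdn (by linarith))

/-- **the resonance `BY`** -/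
theorem BY_win (h : WWnd W κ lam f) (hE : Wnd.EOk W E Mu) (D : WinD W κ lam f {3} E x σ)
    (s4 : (4 : Fin 18) ∈ W.S ∨
      ∀ᶠ n in (U : Filter ℕ), W.X n 7 + x * W.w n ≤ W.X n 0 + W.X n 0 + W.X n 4)
    (s5 : (5 : Fin 18) ∉ W.S) (s8 : (8 : Fin 18) ∉ W.S) (s11 : (11 : Fin 18) ∉ W.S)
    (s14 : (14 : Fin 18) ∉ W.S)
    (t14 : ∀ᶠ n in (U : Filter ℕ), W.X n 14 = W.X n 3 + W.X n 7)
    (t11 : ∀ᶠ n in (U : Filter ℕ), W.X n 11 = W.X n 3 + W.X n 5)
    (Rt : Rate W {1, 2, 8, 14} 3 x s) (lT : bxs {1, 2, 8} x ∈ W.legW)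
    (free : W.nu (bxs {1, 2, 8} x) ≤ W.nu (bxs {1, 2, 8, 14} x)) :
    ∀ ε : ℝ, 0 < ε → ∀ᶠ n in (U : Filter ℕ), ∃ G ⊆ E n,
      Mu n * W.B'.d n ^ (W.lam W.top + ε) ≤ (G.card : ℝ) ∧ ResQ W κ lam f 1 {3} x n ε G := by
  have hx := D.x_pos
  obtain ⟨E', g, hP, H⟩ := D.model h hE
  have s7 : (7 : Fin 18) ∈ W.S := D.hV 3 (by decide)
  have hTr : ∀ j, bxs {1, 2, 8} x j ≤ bxs {1, 2, 8, 14} x j := by
    intro j
    unfold bxs
    by_cases h1 : j ∈ ({1, 2, 8} : Finset (Fin 18))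
    · rw [if_pos h1, if_pos (by
        simp only [mem_insert, mem_singleton] at h1 ⊢
        tauto)]
    · rw [if_neg h1]
      split_ifs
      · exact hx.le
      · exact le_rfl
  obtain ⟨C, hC, hmany⟩ := two_many h hE hP H hx Rt (bxs {1, 2, 8} x) (bxs {1, 2, 8, 14} x) lT
    (Rt.leg0 hx.le) hTr free two_pos (fun ε hε => BY_inT h hE hP D s8 hε)
  have hKR := KR_one h.ok
  have hK0 : 0 ≤ KR W := by linarith
  have hCR := (CR_ge hKR).1
  refine resq_of D h hE hP adm_BY (Ch := KR W ^ 3) (by positivity) ?_ (C := 2 * C + 4)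
    (by positivity) ?_
  · intro ε hε
    by_cases h4 : (4 : Fin 18) ∈ W.S
    · filter_upwards with n i hi i' hi' l hl e1 e2 q hq
      have h1 := sh_BY (κ n) (coW (κ n) (f n i) (f n l)) s7 s5 (coW (κ n) (f n i) (f n i') 0) q hq
      rw [offS_on (q := 0) (s := 4) rfl h4, mul_zero] at h1
      change |tr (κ n) _ _ q - coW (κ n) (f n i) (f n l) 5 * _| ≤ _
      rw [h1, abs_zero]
      have := h.sd_pos n (Fin.natAdd 4 q)
      have := rpos W.B' n (x - ε)
      positivity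
    · have s4' := s4.resolve_left h4
      rcases lt_or_ge x ε with hxε | hxε
      all_goals
        filter_upwards [s4', h.ok.ev_good] with n hs hg i hi i' hi' l hl e1 e2 q hq
        have h1 := sh_BY (κ n) (coW (κ n) (f n i) (f n l)) s7 s5
          (coW (κ n) (f n i) (f n i') 0) q hq
        rw [offS_of (q := 0) (s := 4) rfl h4] at h1
        change |tr (κ n) _ _ q - coW (κ n) (f n i) (f n l) 5 * _| ≤ _
        rw [h1]
        have hKK : W.K0 ≤ KR W := by
          have := h.ok.K0_one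
          have := Wnd.K2_one h.ok
          unfold KR
          have : 0 ≤ W.K0 ^ 7 := by positivity
          linarith
        have sp := h.sd_pos n
        have bu := (h.bnd hg hi.1 hi'.1 0).trans (mul_le_mul_of_nonneg_right hKK (sp 0).le)
        have b4 := (h.bnd hg hi.1 hl.1 4).trans (mul_le_mul_of_nonneg_right hKK (sp 4).le)
        have m1 := bm bu (bm bu b4 hK0 hK0 (sp 0).le le_rfl) hK0 (by positivity) (sp 0).le
          (sd_slack h hs)
        have e3 : coW (κ n) (f n i) (f n i') 0 ^ 2 * coW (κ n) (f n i) (f n l) 4 =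
            coW (κ n) (f n i) (f n i') 0 * (coW (κ n) (f n i) (f n i') 0 *
              coW (κ n) (f n i) (f n l) 4) := by ring
        rw [e3]
        rw [mem_singleton] at hq
        subst hq
        change _ ≤ KR W ^ 3 * W.B'.d n ^ (x - ε) * sd W lam n 7
        refine m1.trans ?_
        have h2 : W.B'.d n ^ x ≤ W.B'.d n ^ (x - ε) := rpow_anti W.B' n (by linarith)
        have h3 := mul_le_mul_of_nonneg_right h2 (sp 7).le
        have h4 := mul_le_mul_of_nonneg_left h3 (show 0 ≤ KR W * (KR W * KR W) by positivity)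
        refine h4.trans (le_of_eq ?_)
        ring
  · intro ε hε hεx
    have hCε : 0 < C * ε := by positivity
    have hεx1 : ε ≤ x := by linarith
    have hK3 : 0 ≤ KR W ^ 3 := by positivity
    have hK2 := Wnd.K2_one h.ok
    filter_upwards [hmany ε hε (by linarith), D.raw h hE hP hε hεx1, t14, t11,
      ev_const_le W.B' hε (CR (KR W) + (2 + 3 * KR W ^ 3) + W.K2 + KR W)] with n g1 g2 g3 g4 g5
    obtain ⟨k₀, i, l, P, hPZ, hT, hcard, hq⟩ := g1
    obtain ⟨hg, hEC, hcfg, R⟩ := g2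
    have hρe : (W.cfg E' n).ρ = W.B'.d n := Wnd.cfg_ρ E' n
    set ρ := W.B'.d n with hρ
    have hρ0 : 0 < ρ := W.B'.pos n
    have hρ1 : ρ ≤ 1 := (W.B'.lt n).le
    have hd : ∀ u : ℝ, 0 < ρ ^ u := fun u => rpos W.B' n u
    have hdn : ∀ {u v : ℝ}, u ≤ v → ρ ^ v ≤ ρ ^ u := fun {u v} h' => rpow_anti W.B' n h'
    have radd : ∀ u v : ℝ, ρ ^ (u + v) = ρ ^ u * ρ ^ v := fun u v => rpow_add' W.B' n u v
    have sp := h.sd_pos n
    have T14 := sd_mul h (n := n) (u := 3) (v := 7) (s := 14) (by decide) g3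
    have T11 := sd_mul h (n := n) (u := 3) (v := 5) (s := 11) (by decide) g4
    obtain ⟨xA, xl, xz⟩ := rep_Aset hEC hcfg hT.hi
    obtain ⟨yA, yl, yz⟩ := rep_Aset hEC hcfg hT.hl
    have A1 : CR (KR W) + (2 + 3 * KR W ^ 3) ≤ ρ ^ (-ε) := by linarith
    have A2 : W.K2 ≤ ρ ^ (-ε) := by linarith
    have A3 : KR W ≤ ρ ^ (-ε) := by linarith
    have hδ : ∀ b ∈ ({1, 2, 8, 14} : Finset (Fin 18)),
        |coW (κ n) (f n (W.rep n i k₀)) (f n (W.rep n l k₀)) b| ≤
        ρ ^ (x - (C * ε + ε)) * sd W lam n b := fun b hb =>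
      (hT.sm b hb).trans (mul_le_mul_of_nonneg_right (hdn (by linarith)) (sp b).le)
    refine ⟨k₀, i, coW (κ n) (f n (W.rep n i k₀)) (f n (W.rep n l k₀)) 11 /
      (2 * coW (κ n) (f n (W.rep n i k₀)) (f n (W.rep n l k₀)) 3), P.image Prod.fst, ?_, ?_,
      hT.hi, ?_, ?_, ?_⟩
    · intro k hk
      obtain ⟨q, hqP, rfl⟩ := mem_image.1 hk
      exact (mem_product.1 (hPZ hqP)).1
    · refine le_trans ?_ (card_fst hPZ hcard (Z_nonempty H n))
      exact mul_le_mul_of_nonneg_right (hdn (by linarith)) (Nat.cast_nonneg _)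
    · intro k hk
      obtain ⟨q, hqP, rfl⟩ := mem_image.1 hk
      exact (hq q hqP).1
    · -- size of ψ
      have hb11 := R.bnd _ xA _ yA 11
      have b3' : ρ ^ (C * ε) * sd W lam n 3 ≤
          |2 * coW (κ n) (f n (W.rep n i k₀)) (f n (W.rep n l k₀)) 3| := by
        rw [abs_mul, abs_two]
        have := hT.big
        linarith [abs_nonneg (coW (κ n) (f n (W.rep n i k₀)) (f n (W.rep n l k₀)) 3)]
      refine (divb (hd (C * ε)) (sp 3) (sp 5).le hK0 hb11 T11 b3').trans ?_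
      refine mul_le_mul_of_nonneg_right ?_ (sp _).le
      have h1 : KR W ≤ ρ ^ (-ε) * ρ ^ (0 : ℝ) := by rw [Real.rpow_zero, mul_one]; exact A3
      have h2 := quo (v := KR W) (A := ρ ^ (-ε)) (a := 0) (b := C * ε) (e := ε) hρ0 hρ1
        le_rfl h1
      exact h2.trans (hdn (by linarith))
    · intro k hk q hqV
      obtain ⟨p, hpP, rfl⟩ := mem_image.1 hk
      obtain ⟨p1, p2, p3, p4, p5, -⟩ := hq p hpP
      obtain ⟨xA', xl', xz'⟩ := rep_Aset hEC hcfg p1
      obtain ⟨yA', yl', yz'⟩ := rep_Aset hEC hcfg p2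
      have r14 : |coW (κ n) (f n (W.rep n i p.1)) (f n (W.rep n l p.1)) 14| ≤
          ρ ^ (x - (C * ε + ε)) * sd W lam n 14 := by
        have h6 := p5 14
        rw [hρe, show bxs {1, 2, 8, 14} x 14 = x from if_pos (by decide)] at h6
        rw [co_rel h hg hEC hcfg p1 p2 s14]
        refine (h.raw_le h6).trans (mul_le_mul_of_nonneg_right ?_ (sp 14).le)
        calc W.kap 14 * ρ ^ (x - C * ε) ≤ ρ ^ (-ε) * ρ ^ (x - C * ε) :=
              mul_le_mul_of_nonneg_right ((Wnd.kap_le_K2 h.ok 14).trans A2) (hd _).le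
          _ = ρ ^ (-ε + (x - C * ε)) := (radd _ _).symm
          _ ≤ _ := hdn (by linarith)
      have key := (BY_ratio R s14 s11 s8 T14 T11 xA xA' yA yA' (xl.trans xl'.symm)
        (yl.trans yl'.symm) (xz.trans yz.symm) (xz'.trans yz'.symm)
        (hd (x - (C * ε + ε))).le (hd (C * ε)) (hδ 1 (by decide)) (hδ 8 (by decide))
        (hδ 14 (by decide)) r14 hT.big).1
      rw [mem_singleton] at hqV
      subst hqV
      rw [fk_BY]
      refine key.trans (mul_le_mul_of_nonneg_right ?_ (sp _).le)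
      have h1 : CR (KR W) * ρ ^ (x - ε) + (2 + 3 * KR W ^ 3) * ρ ^ (x - (C * ε + ε)) ≤
          (CR (KR W) + (2 + 3 * KR W ^ 3)) * ρ ^ (x - (C * ε + ε)) := by
        have a1 := mul_le_mul_of_nonneg_left (hdn (show x - (C * ε + ε) ≤ x - ε by linarith)) hCR
        linarith
      refine (quo hρ0 hρ1 A1 h1 (b := C * ε)).trans (hdn ?_)
      linarith

end

end Crest.Agent.R136.Res2648
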