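import Crest.Agent.R136.Inv2_599
import Crest.Agent.R136.Res8_648
import Crest.Agent.R136.Bas4_938

/-!
# R136 (helper599): the wall resonances at one point of a rung (producer of 648's inputs)

* `WinC` : window of constant resolution `y` (top `y` in every slot) at a point of a rung, from any
  `WAtO` with static data `wst Ma n0 1 1 S y` (`PtB.winC`).
* `PtB.winD` : `WinD` for a dense part of any set of incidences, `PtB.rate` : `Rate`.
* **`AY_pt`, `YY_pt`, `zY_pt`, `BY_pt`** : the four resonances: `ResQ` on a dense part of any `E`,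
  hypotheses: visible slots, group of `z`, level density, rates of `lam` (boxes `bxs T y`).
-/

set_option autoImplicit false
set_option linter.unusedSectionVars false
set_option linter.unusedVariables false

open Filter Topology

namespace Crest.Agent.R136.Res599

open Finset Crest.Agent.R138.Ex926 Crest.Agent.R136.Net191 Crest.Agent.R136.Gf356
open Crest.Agent.R136.Qg926 Crest.Agent.R136.Dg219 Crest.Agent.R136.Aw413
open Crest.Agent.R136.NetW191 Crest.Agent.R136.EvW938
open Crest.Agent.R136.Bas938 Crest.Agent.R136.Res2648 Crest.Agent.R136.Inv599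

/-! ### boxes -/

/-- indicator -/
def ind (T : Finset (Fin 18)) : Fin 18 → ℕ := fun k => if k ∈ T then 1 else 0

theorem scV_ind (T : Finset (Fin 18)) (y : ℝ) : scV y (ind T) = bxs T y := by
  funext k
  unfold scV ind bxs
  split_ifs <;> simp

theorem scV_one (y : ℝ) : scV y (fun _ => 1) = bxs univ y := by
  rw [← scV_ind]
  congr 1
  funext k
  simp [ind]

theorem bxs_mem {T : Finset (Fin 18)} {y : ℝ} {k : Fin 18} (hk : k ∈ T) : bxs T y k = y :=
  if_pos hk
theorem bxs_not {T : Finset (Fin 18)} {y : ℝ} {k : Fin 18} (hk : k ∉ T) : bxs T y k = 0 :=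
  if_neg hk

theorem bxs_zero (y : ℝ) : bxs {0} y = Pi.single 0 y := by
  funext k
  by_cases hk : k = 0
  · subst hk; simp [bxs]
  · rw [Pi.single_eq_of_ne hk, bxs_not (by simpa using hk)]

/-- the box `T` is legal at the offset `n0` -/
abbrev Ok1 (n0 : Fin 18 → ℕ) (T : Finset (Fin 18)) : Prop := OkV n0 1 (ind T)

/-- `update` as a sum -/
theorem upd_scV {T : Finset (Fin 18)} {a : Fin 18} (ha : a ∉ T) (y t : ℝ) :
    scV t (ind (insert a T)) + scV (y - t) (ind T) = Function.update (bxs T y) a t := by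
  funext k
  rw [Pi.add_apply]
  by_cases hk : k = a
  · subst hk
    rw [Function.update_self]
    simp [scV, ind, ha]
  · rw [Function.update_of_ne hk]
    unfold scV ind bxs
    by_cases hT : k ∈ T
    · rw [if_pos (mem_insert_of_mem hT), if_pos hT, if_pos hT]; push_cast; ring
    · rw [if_neg (by simp [hk, hT]), if_neg hT, if_neg hT]; simp

/-! ### the window -/

/-- **window of constant resolution `y`** at a point of a rung -/
structure WinC (Ma : Mons 18) (Dr : Set (Fin 18)) (kp : ℕ → ℝ) (u : ℕ → Fin 18 → ℝ)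
    (F : ∀ n : ℕ, ℕ × ℝ → FW) (lam : (Fin 18 → ℝ) → ℝ) (n0 : Fin 18 → ℕ)
    (S : Finset (Fin 18)) (y : ℝ) (W : Wnd 18 fun _ => ℕ × ℝ) : Prop where
  ww : WWnd W kp u F
  eS : W.S = S
  etop : W.top = bxs univ y
  elam : W.lam = fun p => lam (scV y n0 + p) - lam (scV y n0)
  eMw : W.Mw = offM Ma (scV y n0) (y * (1 : ℕ))
  eR : W.R' = y * (1 : ℕ)
  /-- the conic is not degenerate -/
  hk : ∀ ε : ℝ, 0 < ε → ∀ᶠ n in (U : Filter ℕ), W.B'.d n ^ ε ≤ |kp n|
  /-- tight walls -/
  tight : ∀ k, k ∉ Dr → ∀ l ∈ mlW k, (∀ s ∈ l, s ∉ Dr) → n0 k = (l.map n0).sum → ∀ n,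
    W.X n k = (l.map (W.X n)).sum
  /-- the walls with a dropped slot are at infinite distance -/
  gap : ∀ k, ∀ l ∈ mlW k, (k ∈ Dr ∨ ∃ s ∈ l, s ∈ Dr) → ∀ R : ℝ, ∀ᶠ n in (U : Filter ℕ),
    W.X n k + R * W.w n ≤ (l.map (W.X n)).sum

section pt

variable {B Bo : Base} {I J : ∀ n : ℕ, Finset (ℕ × ℝ)}
  {co : ∀ n : ℕ, ℕ × ℝ → ℕ × ℝ → Fin 18 → ℝ} {kp : ℕ → ℝ} {u : ℕ → Fin 18 → ℝ}
  {F : ∀ n : ℕ, ℕ × ℝ → FW} {Ma : Mons 18} {Dr : Set (Fin 18)} {C : ℝ}
  {lam : (Fin 18 → ℝ) → ℝ} {a b : Fin 18 → ℝ} {A : ℝ × ℝ} {φ : ℕ → (Fin 18 → ℝ) → ℝ}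
  {r : ℕ → ℝ} {κ : Fin 18 → ℝ} {V Tw : Fin 18 → Prop}
  {n0 : Fin 18 → ℕ} {S : Finset (Fin 18)} {y : ℝ} {W : Wnd 18 fun _ => ℕ × ℝ}

/-- **the window facts** from any window of `AeW.wndO` with the static data of `S` -/
theorem winC (h : PtB B Bo I J co kp u F Ma Dr C lam a b A φ r κ V Tw)
    (hd : WDat n0 (fun _ => 1) 1 S)
    (g1 : WAtO B I co monW Ma C lam κ V Tw (scV y n0) (wst Ma n0 (fun _ => 1) 1 S y) W)
    (g2 : W.B'.Sub fun n => |kp n|⁻¹) : WinC Ma Dr kp u F lam n0 S y W where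
  ww :=
    { ok := g1.ok
      hκ := h.ch.k1
      hl := h.ch.gr
      hM := g1.eM
      hco := fun n i hi j hj s => by
        rw [g1.eI] at hi hj
        rw [g1.eco]
        exact h.ch.co n i hi j hj s
      kz := g1.ekz
      h0 := by rw [g1.eS]; exact hd.zS
      hS := by rw [g1.eS]; exact hd.hS }
  eS := g1.eS
  etop := by rw [g1.etop, ← scV_one]; rfl
  elam := g1.elam
  eMw := g1.eMw
  eR := g1.eR
  hk := by
    intro ε hε
    filter_upwards [g2.ev_le hε, g2.1.pos] with n hn hpos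
    have h3 : 0 < |kp n| := inv_pos.1 hpos
    have h5 := hn.2
    rw [Real.log_inv] at h5
    rw [Real.rpow_def_of_pos (W.B'.pos n), ← Real.exp_log h3]
    refine Real.exp_le_exp.2 ?_
    unfold Base.L at h5
    linarith
  tight := by
    intro k hk l hl hls hn0 n
    have h1 := g1.off k _ ((h.act.iff k _).2 ⟨hk, l, hl, hls, rfl⟩) n
    rw [← sum_count, ← sum_count, sum_scV] at h1
    have h2 : y * (((l.map n0).sum : ℕ) : ℝ) - scV y n0 k = 0 := by
      rw [← hn0]; simp [scV]
    rw [h2, zero_mul, add_zero] at h1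
    exact h1
  gap := by
    intro k l hl hDr R
    have h1 : (fun s => l.count s) ∉ Ma.mon k := by
      intro hm
      obtain ⟨hk, l', hl', hls, he⟩ := (h.act.iff k _).1 hm
      rcases hDr with hk' | ⟨s, hs, hsD⟩
      · exact hk hk'
      · have h2 : l.count s = l'.count s := congrFun he s
        have h3 : 0 < l'.count s := by rw [← h2]; exact List.count_pos_iff.2 hs
        exact hls s (List.count_pos_iff.1 h3) hsD
    filter_upwards [g1.gap k _ (mem_monW.2 ⟨l, hl, rfl⟩) h1 R] with n hn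
    rw [sum_count]
    exact hn

/-- the offset in the dropped slots is not seen -/
theorem lam_off (h : PtB B Bo I J co kp u F Ma Dr C lam a b A φ r κ V Tw)
    (h0D : ∀ k, n0 k ≠ 0 → k ∈ Dr) {p : Fin 18 → ℝ} (hp : scV y n0 + p ∈ coneM Ma) :
    lam (scV y n0 + p) = lam p := by
  have e : ∀ i, i ∉ Dr → (scV y n0 + p) i = p i := by
    intro i hi
    have : n0 i = 0 := by
      by_contra hc
      exact hi (h0D i hc)
    simp [scV, this]
  exact h.ind _ hp _ (h.act.congr e hp) e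

variable (h : PtB B Bo I J co kp u F Ma Dr C lam a b A φ r κ V Tw)
  (h0D : ∀ k, n0 k ≠ 0 → k ∈ Dr) (hW : WinC Ma Dr kp u F lam n0 S y W)
  (hoff : ∀ k, ∀ l ∈ mlW k, n0 k ≤ (l.map n0).sum)

include h h0D hW hoff

theorem cone_of {p : Fin 18 → ℝ} (hy : 0 ≤ y) (hp : p ∈ Leg W.Mw W.R') :
    scV y n0 + p ∈ coneM Ma := by
  rw [hW.eMw, hW.eR] at hp
  exact leg_coneN h.act hoff hy hp

theorem lamW {p : Fin 18 → ℝ} (hy : 0 ≤ y) (hp : p ∈ Leg W.Mw W.R') : W.lam p = lam p := by
  have h1 := cone_of h h0D hW hoff hy hp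
  have h2 : lam (scV y n0) = 0 := by
    have h3 := cone_of h h0D hW hoff hy hW.ww.ok.zero_leg
    have h4 := lam_off h h0D h3
    rw [add_zero] at h4
    rw [h4, h.aew.zero]
  rw [hW.elam]
  show lam (scV y n0 + p) - lam (scV y n0) = lam p
  rw [h2, sub_zero, lam_off h h0D h1]

omit h0D hoff in
theorem leg_bxs {T : Finset (Fin 18)} (hy : 0 ≤ y) (o : Ok1 n0 T) :
    bxs T y ∈ Leg W.Mw W.R' := by
  rw [hW.eMw, hW.eR, ← scV_ind]
  exact leg_one h.act o hy

omit h0D hoff in
theorem leg_upd {T : Finset (Fin 18)} {a' : Fin 18} (ha : a' ∉ T) (o : Ok1 n0 T)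
    (o' : Ok1 n0 (insert a' T)) {t : ℝ} (ht : 0 ≤ t) (hty : t ≤ y) :
    Function.update (bxs T y) a' t ∈ Leg W.Mw W.R' := by
  rw [hW.eMw, hW.eR, ← upd_scV ha]
  exact leg_scV h.act o' o ht (by linarith) (by ring)

/-- **rates** -/
theorem rate (hy : 0 ≤ y) {T : Finset (Fin 18)} {a' : Fin 18} {s : ℝ} (hs : 0 < s)
    (haT : a' ∉ T) (haS : a' ∉ S) (hTS : ∀ b ∈ T, b ∉ S) (k1 : Ok1 n0 (S ∪ T))
    (k2 : Ok1 n0 (insert a' (S ∪ T)))
    (hR : ∀ t, 0 ≤ t → t ≤ y →
      s * t ≤ lam (bxs (S ∪ T) y) - lam (Function.update (bxs (S ∪ T) y) a' t)) :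
    Rate W T a' y s := by
  have haU : a' ∉ S ∪ T := by simp [haT, haS]
  have e1 : cut W.S (bxs T y) W.top = bxs (S ∪ T) y := by
    funext k
    rw [hW.eS, hW.etop]
    by_cases hk : k ∈ S
    · rw [cut_of_mem hk, bxs_mem (mem_univ _), bxs_mem (mem_union_left _ hk)]
    · rw [cut_of_notMem hk]
      by_cases hT : k ∈ T
      · rw [bxs_mem hT, bxs_mem (mem_union_right _ hT)]
      · rw [bxs_not hT, bxs_not (by simp [hk, hT])]
  have e2 : ∀ t, cut W.S (Function.update (bxs T y) a' t) W.top =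
      Function.update (bxs (S ∪ T) y) a' t := by
    intro t
    rw [← e1]
    funext k
    rw [hW.eS]
    by_cases hk : k = a'
    · subst hk
      rw [cut_of_notMem haS, Function.update_self, Function.update_self]
    · rw [Function.update_of_ne hk]
      by_cases hkS : k ∈ S
      · rw [cut_of_mem hkS, cut_of_mem hkS]
      · rw [cut_of_notMem hkS, cut_of_notMem hkS, Function.update_of_ne hk]
  refine ⟨hs, haT, by rw [hW.eS]; exact haS, by rw [hW.eS]; exact hTS, ?_, ?_⟩
  · intro t ht hty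
    refine ⟨?_, fun k hk => ?_⟩
    · rw [e2]
      exact leg_upd h hW haU k1 k2 ht hty
    · rw [hW.etop, bxs_mem (mem_univ _)]
      by_cases hk' : k = a'
      · subst hk'; rw [Function.update_self]; exact hty
      · rw [Function.update_of_ne hk']
        by_cases hT : k ∈ T
        · rw [bxs_mem hT]
        · rw [bxs_not hT]; exact hy
  · intro t ht hty
    unfold Wnd.nu
    rw [e1, e2, lamW h h0D hW hoff hy (leg_bxs h hW hy k1),
      lamW h h0D hW hoff hy (leg_upd h hW haU k1 k2 ht hty)]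
    have := hR t ht hty
    linarith

/-- **`WinD` for a dense part of any set of incidences** -/
theorem winD (hy : 0 < y) (hz0 : n0 0 = 0) (hV0 : ∀ k, V k → n0 k = 0) {Vf : Finset (Fin 14)}
    (hVf : ∀ q ∈ Vf, Fin.natAdd 4 q ∈ S) (hVV : ∀ k, V k → ∃ q ∈ Vf, k = Fin.natAdd 4 q)
    (hgr : ∀ j, gC a b 0 = gC a b j → j ∈ S ∨ j ∈ Dr)
    (L : lam (bxs {0} y) ≤ lam (bxs S y))
    (o1 : Ok1 n0 (univ \ ({0} ∪ Vf.image (Fin.natAdd 4))))
    (o2 : WDat n0 (ind (univ \ S.erase 0)) 1 {0}) (o3 : Ok1 n0 S)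
    {E : ∀ n : ℕ, Finset (ℕ × ℝ)} {Mu : ℕ → ℝ} (hE : Wnd.EOk W E Mu) :
    ∃ E₁ : ∀ n : ℕ, Finset (ℕ × ℝ), (∀ n, E₁ n ⊆ E n) ∧ Wnd.EOk W E₁ Mu ∧
      (∀ ε : ℝ, 0 < ε → ∀ᶠ n in (U : Filter ℕ),
        W.B'.d n ^ ε * ((E n).card : ℝ) ≤ ((E₁ n).card : ℝ)) ∧
      WinD W kp u F Vf E₁ y 1 := by
  have hst := wst_ok h.act o2 hy.le
  have h0 : scV y n0 ∈ coneM Ma := by
    have := cone_of h h0D hW hoff hy.le hW.ww.ok.zero_leg
    rwa [add_zero] at this
  have hz : scV y n0 0 = 0 := by simp [scV, hz0]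
  have h0S : (0 : Fin 18) ∈ S := by have := hW.ww.h0; rwa [hW.eS] at this
  have hc0 : ∀ k, V k → scV y n0 k ≤ κ k * scV y n0 0 := fun k hk => by
    rw [hz, mul_zero]; simp [scV, hV0 k hk]
  have hone : ∀ t, 0 ≤ t → t ≤ y → scV y n0 + Pi.single (0 : Fin 18) t ∈ coneM Ma := by
    intro t ht _
    rw [h.act.cone]
    intro k _ l hl _
    rw [sum_add', sum_scV]
    have h1 : (0:ℝ) ≤ (l.map (Pi.single (0 : Fin 18) t : Fin 18 → ℝ)).sum := by
      refine List.sum_nonneg fun x hx => ?_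
      obtain ⟨i, _, rfl⟩ := List.mem_map.1 hx
      by_cases hi : i = 0
      · subst hi; simpa using ht
      · rw [Pi.single_eq_of_ne hi]
    have h2 : y * (n0 k : ℝ) ≤ y * ((l.map n0).sum : ℕ) :=
      mul_le_mul_of_nonneg_left (by exact_mod_cast hoff k l hl) hy.le
    have h3 : k ≠ 0 := by
      rintro rfl
      have : mlW 0 = [] := by decide
      rw [this] at hl
      exact absurd hl (List.not_mem_nil)
    rw [Pi.add_apply, Pi.single_eq_of_ne h3, add_zero]
    unfold scV
    linarith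
  -- the shading for `z` alone
  have hden := h.dens (st := wst Ma n0 (ind (univ \ S.erase 0)) 1 {0} y) h0 hc0 rfl hst
    (fun i j hij hi => by
      have hi0 : i = 0 := by simpa using (show i ∈ ({0} : Finset (Fin 18)) from hi)
      subst hi0
      rcases hgr j hij with hj | hj
      · by_cases hj0 : j = 0
        · left
          show j ∈ ({0} : Finset (Fin 18))
          simp [hj0]
        · right; left
          show scV y (ind (univ \ S.erase 0)) j = 0
          rw [scV_ind, bxs_not]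
          simp [hj0, hj]
      · exact Or.inr (Or.inr hj)) (R := y) (by
      show y ≤ scV y (ind (univ \ S.erase 0)) 0
      rw [scV_ind, bxs_mem (by simp)]) hone
  have hfr : ∀ t, 0 ≤ t → t ≤ y → W.lam (Pi.single 0 t) ≤ -(1 * t) := by
    intro t ht hty
    rw [hW.elam]
    exact hden.frost t ht hty
  have hd1 := hden.dens
  have t1 : cut ({0} : Finset (Fin 18)) (bxs (univ \ S.erase 0) y) 0 = cut W.S W.top 0 := by
    funext k
    rw [hW.eS, hW.etop]
    by_cases hk : k = 0
    · subst hk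
      rw [cut_of_mem (by simp), cut_of_mem h0S]
    · rw [cut_of_notMem (by simpa using hk)]
      by_cases hkS : k ∈ S
      · rw [cut_of_mem hkS, bxs_not (by simp [hk, hkS])]; rfl
      · rw [cut_of_notMem hkS, bxs_mem (by simp [hkS]), bxs_mem (mem_univ _)]
  have t2 : cut ({0} : Finset (Fin 18)) 0 (bxs (univ \ S.erase 0) y) = Pi.single 0 y := by
    rw [cut_single (S := {0}), bxs_mem (by simp)]
  have t3 : cut (W.S.erase 0) W.top 0 = bxs (univ \ S.erase 0) y := by
    funext k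
    rw [hW.eS, hW.etop]
    by_cases hk : k ∈ S.erase 0
    · rw [cut_of_mem hk, bxs_not (by simp [hk])]; rfl
    · rw [cut_of_notMem hk, bxs_mem (mem_univ k),
        bxs_mem (show k ∈ univ \ S.erase 0 from Finset.mem_sdiff.2 ⟨mem_univ _, hk⟩)]
  have t4 : cut W.S 0 W.top = bxs S y := by
    funext k
    rw [hW.eS, hW.etop]
    by_cases hk : k ∈ S
    · rw [cut_of_mem hk, bxs_mem (mem_univ _), bxs_mem hk]
    · rw [cut_of_notMem hk, bxs_not hk]; rfl
  have t5 : W.top 0 = y := by rw [hW.etop, bxs_mem (mem_univ _)]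
  have hsh : W.lam (cut (W.S.erase 0) W.top 0) ≤
      W.lam (cut W.S W.top 0) + W.lam (Pi.single 0 (W.top 0)) := by
    have h1 : W.lam (bxs (univ \ S.erase 0) y) ≤
        W.lam (cut ({0} : Finset (Fin 18)) (bxs (univ \ S.erase 0) y) 0) +
        W.lam (cut ({0} : Finset (Fin 18)) 0 (bxs (univ \ S.erase 0) y)) := by
      rw [hW.elam, ← scV_ind]
      exact hd1
    rw [t1, t2] at h1
    rwa [t3, t5]
  have hz1 : (Pi.single 0 y : Fin 18 → ℝ) ∈ Leg W.Mw W.R' := by
    rw [← bxs_zero]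
    exact leg_bxs h hW hy.le (by
      have := o2.lev
      refine ⟨fun k => ?_, fun k l hl => ?_⟩
      · unfold ind; split_ifs <;> simp
      · rcases this.2 k l hl with h5 | h5
        · exact Or.inl h5
        · right
          have e : (fun k => if k ∈ ({0} : Finset (Fin 18)) then ind (univ \ S.erase 0) k else 0) =
              ind {0} := by
            funext k
            unfold ind
            by_cases hk : k = 0
            · subst hk; simp
            · simp [hk]
          rw [e] at h5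
          exact h5)
  have hfl : W.lam (Pi.single 0 (W.top 0)) ≤ W.lam (cut W.S 0 W.top) := by
    rw [t5, t4, lamW h h0D hW hoff hy.le hz1, lamW h h0D hW hoff hy.le (leg_bxs h hW hy.le o3),
      ← bxs_zero]
    exact L
  have hanti : ∀ c ∈ {p | scV y n0 + p ∈ coneM Ma}, ∀ c' ∈ {p | scV y n0 + p ∈ coneM Ma},
      c ≤ c' → W.lam c' ≤ W.lam c := by
    intro c hc c' hc' hcc
    rw [hW.elam]
    have := h.aew.anti _ hc _ hc' (add_le_add_right hcc _)
    show lam (scV y n0 + c') - lam (scV y n0) ≤ lam (scV y n0 + c) - lam (scV y n0)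
    linarith
  have hdens : W.lam W.top ≤ W.lam (cut W.S W.top 0) + W.lam (cut W.S 0 W.top) := by
    refine dens_of_flags (kz := 0) hW.ww.h0 (fun s => ?_) hanti ?_ ?_ hsh hfl
    · exact hW.ww.ok.top_leg.1.nonneg s
    · exact cone_of h h0D hW hoff hy.le hW.ww.ok.top_leg
    · rw [t3, ← scV_ind]
      exact hst.leg hst.top_leg
  -- the fat line
  have hlow : lowV W Vf = bxs (univ \ ({0} ∪ Vf.image (Fin.natAdd 4))) y := by
    funext k
    unfold lowV
    rw [hW.etop, bxs_mem (mem_univ _)]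
    by_cases hk : k = 0 ∨ ∃ q ∈ Vf, k = Fin.natAdd 4 q
    · rw [if_pos hk, bxs_not]
      intro hm
      refine (Finset.mem_sdiff.1 hm).2 (mem_union.2 ?_)
      rcases hk with hk | ⟨q, hq, hk⟩
      · exact Or.inl (mem_singleton.2 hk)
      · exact Or.inr (mem_image.2 ⟨q, hq, hk.symm⟩)
    · rw [if_neg hk, bxs_mem]
      refine Finset.mem_sdiff.2 ⟨mem_univ _, fun hm => hk ?_⟩
      rcases mem_union.1 hm with hm | hm
      · exact Or.inl (mem_singleton.1 hm)
      · obtain ⟨q, hq, hk'⟩ := mem_image.1 hm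
        exact Or.inr ⟨q, hq, hk'.symm⟩
  have lowl : lowV W Vf ∈ Leg W.Mw W.R' := by
    rw [hlow]; exact leg_bxs h hW hy.le o1
  have hown : W.lam W.top ≤ W.lam (lowV W Vf) + W.lam (cut W.S 0 W.top) := by
    have c1 := cone_of h h0D hW hoff hy.le lowl
    have c2 := cone_of h h0D hW hoff hy.le hW.ww.ok.top_leg
    have l0 : lowV W Vf 0 = 0 := by unfold lowV; rw [if_pos (Or.inl rfl)]
    have h1 := h.aew.own _ c1 _ c2 (by
      refine add_le_add_right ?_ _
      intro k
      unfold lowV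
      split_ifs
      · exact hW.ww.ok.top_leg.1.nonneg k
      · exact le_rfl) (fun k hk => by
        rw [Pi.add_apply, Pi.add_apply, hz, l0, add_zero, mul_zero]
        obtain ⟨q, hq, hk'⟩ := hVV k hk
        have e1 : lowV W Vf k = 0 := by unfold lowV; rw [if_pos (Or.inr ⟨q, hq, hk'⟩)]
        rw [e1]
        simp [scV, hV0 k hk])
    rw [Pi.add_apply, Pi.add_apply, hz, l0, t5] at h1
    have h2 : W.lam W.top + y ≤ W.lam (lowV W Vf) := by
      rw [hW.elam]
      show lam (scV y n0 + W.top) - lam (scV y n0) + y ≤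
        lam (scV y n0 + lowV W Vf) - lam (scV y n0)
      linarith
    have h3 : -y ≤ W.lam (Pi.single 0 y) := by
      have h4 := h.aew.sharp _ h0 _ (hone y hy.le le_rfl) (by
        intro k
        rw [Pi.add_apply]
        by_cases hk : k = 0
        · subst hk; simp [hy.le]
        · rw [Pi.single_eq_of_ne hk]; simp)
      have h5 : ∑ s, ((scV y n0 + (Pi.single (0 : Fin 18) y : Fin 18 → ℝ)) s - scV y n0 s) = y := by
        rw [sum_congr rfl fun s _ => show (scV y n0 + (Pi.single (0 : Fin 18) y : Fin 18 → ℝ)) s -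
          scV y n0 s = (Pi.single (0 : Fin 18) y : Fin 18 → ℝ) s by rw [Pi.add_apply]; ring]
        simp
      rw [h5] at h4
      rw [hW.elam]
      show -y ≤ lam (scV y n0 + Pi.single 0 y) - lam (scV y n0)
      linarith
    rw [t5] at hfl
    linarith
  exact exists_winD hW.ww hE hy one_pos le_rfl (fun q hq => by rw [hW.eS]; exact hVf q hq)
    (fun s => by rw [hW.etop, bxs_mem (mem_univ _)]) hdens hfr hW.hk lowl hown

end pt

end Crest.Agent.R136.Res599
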