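import Crest.Agent.R136.Gf1_356

/-!
# R136 (S0187): RIG_E, finite combinatorics I (helper344)

* `pairs_of_triples`: many meeting triples ⇒ many pairs of lines;
* `strip_pairs`: heavy subsets of one pencil meet often;
* `pop_val`: few parallel heavy strips ⇒ one popular strip;
* `two_strips`: two transversal strips meet in a small ball.
-/

set_option autoImplicit false
set_option linter.unusedVariables false

open Finset

namespace Crest.Agent.R136.RgE344

/-- many triples (height, line, line) of meeting lines give many pairs of lines -/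
theorem pairs_of_triples (L Z : Finset ℕ) (z x c : ℕ → ℝ) (T : Finset (ℕ × ℕ × ℕ)) {δ κ t K : ℝ}
    (hδ : 0 < δ) (ht : 0 < t) (hZ : Z.Nonempty)
    (hT : ∀ q ∈ T, q.1 ∈ Z ∧ q.2.1 ∈ L ∧ q.2.2 ∈ L ∧
      |(x q.2.2 + z q.1 * c q.2.2) - (x q.2.1 + z q.1 * c q.2.1)| ≤ δ)
    (hbig : κ * δ * (L.card : ℝ) ^ 2 * (Z.card : ℝ) ≤ (T.card : ℝ))
    (hclose : ∀ k ∈ Z, ∀ l ∈ L, ((T.filter fun q => (q.1 = k ∧ q.2.1 = l) ∧
      |c q.2.2 - c l| ≤ t).card : ℝ) ≤ κ / 2 * δ * (L.card : ℝ))
    (hF : ∀ k ∈ Z, ((Z.filter fun k' => |z k' - z k| ≤ 2 * δ / t).card : ℝ) ≤ K * (Z.card : ℝ)) :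
    κ / 2 * δ * (L.card : ℝ) ^ 2 ≤ K * ((T.image Prod.snd).card : ℝ) := by
  classical
  have hZ0 : (0 : ℝ) < Z.card := by exact_mod_cast hZ.card_pos
  set T1 := T.filter fun q => |c q.2.2 - c q.2.1| ≤ t with hT1
  set T2 := T.filter fun q => ¬ |c q.2.2 - c q.2.1| ≤ t with hT2
  have h1 : (T1.card : ℝ) ≤ κ / 2 * δ * (L.card : ℝ) ^ 2 * (Z.card : ℝ) := by
    have e1 : T1.card = ∑ kl ∈ Z ×ˢ L, (T1.filter fun q => (q.1, q.2.1) = kl).card := by
      refine Finset.card_eq_sum_card_fiberwise fun q hq => ?_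
      have hq' := hT q (Finset.mem_filter.1 hq).1
      exact Finset.mem_product.2 ⟨hq'.1, hq'.2.1⟩
    rw [e1]
    push_cast
    calc ∑ kl ∈ Z ×ˢ L, ((T1.filter fun q => (q.1, q.2.1) = kl).card : ℝ)
        ≤ ∑ kl ∈ Z ×ˢ L, κ / 2 * δ * (L.card : ℝ) := by
          refine Finset.sum_le_sum fun kl hkl => ?_
          obtain ⟨hk, hl⟩ := Finset.mem_product.1 hkl
          refine le_trans ?_ (hclose kl.1 hk kl.2 hl)
          refine mod_cast Finset.card_le_card fun q hq => ?_
          obtain ⟨a1, a2⟩ := Finset.mem_filter.1 hq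
          obtain ⟨a3, a4⟩ := Finset.mem_filter.1 a1
          have a5 : q.1 = kl.1 := by rw [← a2]
          have a6 : q.2.1 = kl.2 := by rw [← a2]
          refine Finset.mem_filter.2 ⟨a3, ⟨a5, a6⟩, ?_⟩
          rw [← a6]
          exact a4
      _ = _ := by
          rw [Finset.sum_const, nsmul_eq_mul, Finset.card_product]
          push_cast
          ring
  have h2 : (T.card : ℝ) = T1.card + T2.card := by
    exact_mod_cast (Finset.card_filter_add_card_filter_not (s := T)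
      (fun q => |c q.2.2 - c q.2.1| ≤ t)).symm
  have h3 : κ / 2 * δ * (L.card : ℝ) ^ 2 * (Z.card : ℝ) ≤ (T2.card : ℝ) := by nlinarith
  -- fibres over pairs
  have h4 : (T2.card : ℝ) ≤ ((T2.image Prod.snd).card : ℝ) * (K * (Z.card : ℝ)) := by
    have e1 : T2.card = ∑ pr ∈ T2.image Prod.snd, (T2.filter fun q => q.2 = pr).card :=
      Finset.card_eq_sum_card_fiberwise fun q hq => Finset.mem_image_of_mem _ hq
    rw [e1]
    push_cast
    rw [← nsmul_eq_mul, ← Finset.sum_const]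
    refine Finset.sum_le_sum fun pr hpr => ?_
    obtain ⟨q0, hq0, rfl⟩ := Finset.mem_image.1 hpr
    obtain ⟨b1, b2⟩ := Finset.mem_filter.1 hq0
    have b3 := hT q0 b1
    refine le_trans ?_ (hF q0.1 b3.1)
    have e2 : ((T2.filter fun q => q.2 = q0.2).card) ≤
        ((T2.filter fun q => q.2 = q0.2).image Prod.fst).card := by
      rw [Finset.card_image_of_injOn]
      intro q hq q' hq' hqq
      have g1 := (Finset.mem_filter.1 hq).2
      have g2 := (Finset.mem_filter.1 hq').2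
      exact Prod.ext hqq (by rw [g1, g2])
    have e2' : ((T2.filter fun q => q.2 = q0.2).card : ℝ) ≤
        (((T2.filter fun q => q.2 = q0.2).image Prod.fst).card : ℝ) := by exact_mod_cast e2
    refine le_trans e2' ?_
    refine mod_cast Finset.card_le_card fun k hk => ?_
    obtain ⟨q, hq, rfl⟩ := Finset.mem_image.1 hk
    obtain ⟨g1, g2⟩ := Finset.mem_filter.1 hq
    obtain ⟨g3, g4⟩ := Finset.mem_filter.1 g1
    have g5 := hT q g3
    refine Finset.mem_filter.2 ⟨g5.1, ?_⟩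
    rw [g2] at g5
    have g6 := g5.2.2.2
    have g7 := b3.2.2.2
    rw [not_le] at b2
    have g8 : |z q.1 - z q0.1| * |c q0.2.2 - c q0.2.1| ≤ 2 * δ := by
      rw [← abs_mul]
      have e3 : (z q.1 - z q0.1) * (c q0.2.2 - c q0.2.1) =
          ((x q0.2.2 + z q.1 * c q0.2.2) - (x q0.2.1 + z q.1 * c q0.2.1)) -
          ((x q0.2.2 + z q0.1 * c q0.2.2) - (x q0.2.1 + z q0.1 * c q0.2.1)) := by ring
      rw [e3]
      exact (abs_sub _ _).trans (by linarith)
    rw [le_div_iff₀ ht]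
    exact (mul_le_mul_of_nonneg_left b2.le (abs_nonneg _)).trans g8
  have h5 : ((T2.image Prod.snd).card : ℝ) ≤ ((T.image Prod.snd).card : ℝ) := by
    exact_mod_cast Finset.card_le_card (Finset.image_subset_image (Finset.filter_subset _ _))
  have hK : 0 ≤ K := by
    obtain ⟨k, hk⟩ := hZ
    have := hF k hk
    by_contra hcon
    rw [not_le] at hcon
    have h6 : K * (Z.card : ℝ) < 0 := mul_neg_of_neg_of_pos hcon hZ0
    linarith [(Nat.cast_nonneg ((Z.filter fun k' => |z k' - z k| ≤ 2 * δ / t).card) : (0 : ℝ) ≤ _)]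
  have h7 : κ / 2 * δ * (L.card : ℝ) ^ 2 * (Z.card : ℝ) ≤
      K * ((T.image Prod.snd).card : ℝ) * (Z.card : ℝ) := by
    calc _ ≤ _ := h3
      _ ≤ _ := h4
      _ ≤ ((T.image Prod.snd).card : ℝ) * (K * (Z.card : ℝ)) :=
          mul_le_mul_of_nonneg_right h5 (by positivity)
      _ = _ := by ring
  exact le_of_mul_le_mul_right h7 hZ0

/-- heavy subsets `H i` of one set `Q` meet often -/
theorem strip_pairs {ι : Type*} [DecidableEq ι] (P Q : Finset ι) (H : ι → Finset ι)
    (hH : ∀ i ∈ P, H i ⊆ Q) {h : ℝ} (hh0 : 0 ≤ h) (hh : ∀ i ∈ P, h ≤ ((H i).card : ℝ))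
    (hQ : Q.Nonempty) :
    h ^ 2 * (P.card : ℝ) ^ 2 ≤ 2 * (Q.card : ℝ) ^ 2 *
      (((P ×ˢ P).filter fun q => h ^ 2 ≤ 2 * (Q.card : ℝ) * ((H q.1 ∩ H q.2).card : ℝ)).card : ℝ) := by
  classical
  have hQ0 : (0 : ℝ) < Q.card := by exact_mod_cast hQ.card_pos
  -- `∑_{i,i'} |H i ∩ H i'| = ∑_l m(l)^2`
  obtain ⟨m, hm⟩ : ∃ m : ι → ℝ, ∀ l, m l = ((P.filter fun i => l ∈ H i).card : ℝ) :=
    ⟨_, fun _ => rfl⟩
  have h1 : ∑ q ∈ P ×ˢ P, ((H q.1 ∩ H q.2).card : ℝ) = ∑ l ∈ Q, m l ^ 2 := by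
    have e1 : ∀ q ∈ P ×ˢ P, ((H q.1 ∩ H q.2).card : ℝ) =
        ∑ l ∈ Q, (if l ∈ H q.1 then (1 : ℝ) else 0) * (if l ∈ H q.2 then (1 : ℝ) else 0) := by
      intro q hq
      obtain ⟨hq1, hq2⟩ := Finset.mem_product.1 hq
      have e2 : H q.1 ∩ H q.2 = Q.filter fun l => l ∈ H q.1 ∧ l ∈ H q.2 := by
        ext l
        simp only [Finset.mem_inter, Finset.mem_filter]
        exact ⟨fun h => ⟨hH q.1 hq1 h.1, h⟩, fun h => h.2⟩
      rw [e2, Finset.card_filter]
      push_cast
      refine Finset.sum_congr rfl fun l _ => ?_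
      by_cases a : l ∈ H q.1 <;> by_cases b : l ∈ H q.2 <;> simp [a, b]
    rw [Finset.sum_congr rfl e1, Finset.sum_comm]
    refine Finset.sum_congr rfl fun l _ => ?_
    rw [Finset.sum_product]
    have e3 : ∀ i ∈ P, ∑ j ∈ P, (if l ∈ H i then (1 : ℝ) else 0) * (if l ∈ H j then (1 : ℝ) else 0) =
        (if l ∈ H i then (1 : ℝ) else 0) * m l := by
      intro i _
      rw [← Finset.mul_sum, hm]
      congr 1
      rw [Finset.card_filter]
      push_cast
      rfl
    have e4 : m l = ∑ i ∈ P, (if l ∈ H i then (1 : ℝ) else 0) := by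
      rw [hm, Finset.card_filter]
      push_cast
      rfl
    rw [Finset.sum_congr rfl e3, ← Finset.sum_mul, ← e4]
    ring
  have h2 : h * (P.card : ℝ) ≤ ∑ l ∈ Q, m l := by
    have e1 : ∑ l ∈ Q, m l = ∑ i ∈ P, ((H i).card : ℝ) := by
      have e2 : ∀ l ∈ Q, m l = ∑ i ∈ P, if l ∈ H i then (1 : ℝ) else 0 := by
        intro l _
        rw [hm, Finset.card_filter]
        push_cast
        rfl
      rw [Finset.sum_congr rfl e2, Finset.sum_comm]
      refine Finset.sum_congr rfl fun i hi => ?_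
      have e3 : H i = Q.filter fun l => l ∈ H i := by
        ext l
        simp only [Finset.mem_filter]
        exact ⟨fun h => ⟨hH i hi h, h⟩, fun h => h.2⟩
      conv_rhs => rw [e3]
      rw [Finset.card_filter]
      push_cast
      rfl
    rw [e1, mul_comm, ← nsmul_eq_mul, ← Finset.sum_const]
    exact Finset.sum_le_sum hh
  have h3 : (∑ l ∈ Q, m l) ^ 2 ≤ (Q.card : ℝ) * ∑ l ∈ Q, m l ^ 2 := sq_sum_le_card_mul_sum_sq
  have h4 : (h * (P.card : ℝ)) ^ 2 ≤ (Q.card : ℝ) * ∑ q ∈ P ×ˢ P, ((H q.1 ∩ H q.2).card : ℝ) := by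
    rw [h1]
    refine le_trans ?_ h3
    exact pow_le_pow_left₀ (by positivity) h2 2
  set W := (P ×ˢ P).filter fun q => h ^ 2 ≤ 2 * (Q.card : ℝ) * ((H q.1 ∩ H q.2).card : ℝ) with hW
  have h5 : ∑ q ∈ P ×ˢ P, ((H q.1 ∩ H q.2).card : ℝ) ≤
      (W.card : ℝ) * Q.card + (P.card : ℝ) ^ 2 * (h ^ 2 / (2 * Q.card)) := by
    rw [← Finset.sum_filter_add_sum_filter_not (P ×ˢ P)
      (fun q => h ^ 2 ≤ 2 * (Q.card : ℝ) * ((H q.1 ∩ H q.2).card : ℝ)), ← hW]
    refine add_le_add ?_ ?_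
    · rw [← nsmul_eq_mul, ← Finset.sum_const]
      refine Finset.sum_le_sum fun q hq => ?_
      have hq1 := (Finset.mem_product.1 (Finset.mem_filter.1 hq).1).1
      exact_mod_cast Finset.card_le_card (Finset.inter_subset_left.trans (hH _ hq1))
    · have e1 : ((P ×ˢ P).card : ℝ) = (P.card : ℝ) ^ 2 := by
        rw [Finset.card_product]; push_cast; ring
      rw [← e1]
      calc _ ≤ ∑ q ∈ (P ×ˢ P).filter (fun q => ¬ h ^ 2 ≤ 2 * (Q.card : ℝ) *
            ((H q.1 ∩ H q.2).card : ℝ)), h ^ 2 / (2 * (Q.card : ℝ)) := by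
            refine Finset.sum_le_sum fun q hq => ?_
            have := (Finset.mem_filter.1 hq).2
            rw [not_le] at this
            rw [le_div_iff₀ (by positivity)]
            linarith
        _ = _ := by rw [Finset.sum_const, nsmul_eq_mul]
        _ ≤ _ := by
            refine mul_le_mul_of_nonneg_right ?_ (by positivity)
            exact_mod_cast Finset.card_le_card (Finset.filter_subset _ _)
  have h6 : (Q.card : ℝ) * ((P.card : ℝ) ^ 2 * (h ^ 2 / (2 * Q.card))) =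
      (P.card : ℝ) ^ 2 * h ^ 2 / 2 := by
    field_simp
  nlinarith [mul_le_mul_of_nonneg_left h5 hQ0.le]

/-- few parallel heavy strips ⇒ one popular strip -/
theorem pop_val {ι : Type*} [DecidableEq ι] (P Q : Finset ι) (o : ι → ℝ) {w h : ℝ}
    (hw : 0 < w) (hh : 0 < h)
    (hP : ∀ i ∈ P, h ≤ ((Q.filter fun l => |o l - o i| ≤ w).card : ℝ)) :
    ∃ P' ⊆ P, h * (P.card : ℝ) ≤ 3 * (Q.card : ℝ) * (P'.card : ℝ) ∧
      ∀ i ∈ P', ∀ i' ∈ P', |o i' - o i| ≤ w := by
  classical
  rcases P.eq_empty_or_nonempty with rfl | hne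
  · exact ⟨∅, subset_rfl, by simp, by simp⟩
  set f : ι → ℤ := fun l => ⌊o l / w⌋ with hf
  have hfl : ∀ l, (f l : ℝ) * w ≤ o l ∧ o l < ((f l : ℝ) + 1) * w := by
    intro l
    constructor
    · have := Int.floor_le (o l / w)
      rwa [le_div_iff₀ hw] at this
    · have := Int.lt_floor_add_one (o l / w)
      rwa [div_lt_iff₀ hw] at this
  set C := P.image f with hC
  have hCne : C.Nonempty := hne.image f
  have hC0 : (0 : ℝ) < C.card := by exact_mod_cast hCne.card_pos
  -- number of cells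
  have h1 : h * (C.card : ℝ) ≤ 3 * (Q.card : ℝ) := by
    have e1 : ∀ a ∈ C, h ≤ ((Q.filter fun l => f l = a - 1).card : ℝ) +
        ((Q.filter fun l => f l = a).card : ℝ) + ((Q.filter fun l => f l = a + 1).card : ℝ) := by
      intro a ha
      obtain ⟨i, hi, rfl⟩ := Finset.mem_image.1 ha
      refine (hP i hi).trans ?_
      have e2 : (Q.filter fun l => |o l - o i| ≤ w) ⊆ ((Q.filter fun l => f l = f i - 1) ∪
          (Q.filter fun l => f l = f i)) ∪ (Q.filter fun l => f l = f i + 1) := by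
        intro l hl
        obtain ⟨l1, l2⟩ := Finset.mem_filter.1 hl
        have g1 := hfl l
        have g2 := hfl i
        rw [abs_le] at l2
        have g3 : (f l : ℝ) < f i + 2 := by
          by_contra hcon
          push Not at hcon
          have : ((f i : ℝ) + 2) * w ≤ (f l : ℝ) * w := mul_le_mul_of_nonneg_right hcon hw.le
          nlinarith [g1.1, g2.2]
        have g4 : (f i : ℝ) < f l + 2 := by
          by_contra hcon
          push Not at hcon
          have : ((f l : ℝ) + 2) * w ≤ (f i : ℝ) * w := mul_le_mul_of_nonneg_right hcon hw.le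
          nlinarith [g1.2, g2.1]
        have g3' : f l < f i + 2 := by exact_mod_cast g3
        have g4' : f i < f l + 2 := by exact_mod_cast g4
        simp only [Finset.mem_union, Finset.mem_filter]
        have : f l = f i - 1 ∨ f l = f i ∨ f l = f i + 1 := by omega
        rcases this with h | h | h
        · exact Or.inl (Or.inl ⟨l1, h⟩)
        · exact Or.inl (Or.inr ⟨l1, h⟩)
        · exact Or.inr ⟨l1, h⟩
      have e3 := Finset.card_le_card e2
      have e4 := Finset.card_union_le ((Q.filter fun l => f l = f i - 1) ∪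
          (Q.filter fun l => f l = f i)) (Q.filter fun l => f l = f i + 1)
      have e5 := Finset.card_union_le (Q.filter fun l => f l = f i - 1) (Q.filter fun l => f l = f i)
      exact_mod_cast (e3.trans (e4.trans (Nat.add_le_add_right e5 _)))
    have e6 : ∀ s : ℤ, ∑ a ∈ C, ((Q.filter fun l => f l = a + s).card : ℝ) ≤ (Q.card : ℝ) := by
      intro s
      have : ∑ a ∈ C, (Q.filter fun l => f l = a + s).card ≤ Q.card := by
        rw [← Finset.card_biUnion]
        · exact Finset.card_le_card (Finset.biUnion_subset.2 fun a _ => Finset.filter_subset _ _)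
        · intro a _ b _ hab
          rw [Function.onFun, Finset.disjoint_filter]
          intro l _ h1 h2
          exact hab (by omega)
      exact_mod_cast this
    have e7 : h * (C.card : ℝ) ≤ ∑ a ∈ C, (((Q.filter fun l => f l = a - 1).card : ℝ) +
        ((Q.filter fun l => f l = a).card : ℝ) + ((Q.filter fun l => f l = a + 1).card : ℝ)) := by
      rw [mul_comm, ← nsmul_eq_mul, ← Finset.sum_const]
      exact Finset.sum_le_sum e1
    rw [Finset.sum_add_distrib, Finset.sum_add_distrib] at e7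
    have e8 := e6 (-1)
    have e9 := e6 0
    have e10 := e6 1
    simp only [add_zero] at e9
    have e11 : ∀ a : ℤ, a + -1 = a - 1 := fun a => by ring
    simp only [e11] at e8
    linarith
  -- popular cell
  obtain ⟨a, ha, hacard⟩ : ∃ a ∈ C, (P.card : ℝ) ≤ (C.card : ℝ) * ((P.filter fun i => f i = a).card : ℝ) := by
    by_contra hcon
    push Not at hcon
    have e1 : (P.card : ℝ) = ∑ a ∈ C, ((P.filter fun i => f i = a).card : ℝ) := by
      have : P.card = ∑ a ∈ C, (P.filter fun i => f i = a).card :=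
        Finset.card_eq_sum_card_fiberwise fun i hi => Finset.mem_image_of_mem _ hi
      rw [this]; push_cast; rfl
    have e2 : ∑ a ∈ C, ((C.card : ℝ) * ((P.filter fun i => f i = a).card : ℝ)) <
        ∑ _a ∈ C, (P.card : ℝ) := Finset.sum_lt_sum_of_nonempty hCne hcon
    rw [← Finset.mul_sum, ← e1, Finset.sum_const, nsmul_eq_mul] at e2
    exact lt_irrefl _ e2
  refine ⟨P.filter fun i => f i = a, Finset.filter_subset _ _, ?_, ?_⟩
  · calc h * (P.card : ℝ) ≤ h * ((C.card : ℝ) * ((P.filter fun i => f i = a).card : ℝ)) :=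
          mul_le_mul_of_nonneg_left hacard hh.le
      _ = (h * (C.card : ℝ)) * ((P.filter fun i => f i = a).card : ℝ) := by ring
      _ ≤ _ := mul_le_mul_of_nonneg_right h1 (Nat.cast_nonneg _)
  · intro i hi i' hi'
    have g1 := hfl i
    have g2 := hfl i'
    rw [(Finset.mem_filter.1 hi).2] at g1
    rw [(Finset.mem_filter.1 hi').2] at g2
    rw [abs_le]
    constructor <;> nlinarith [g1.1, g1.2, g2.1, g2.2]

/-- two transversal strips meet in a small ball -/
theorem two_strips {b b' D : Fin 2 → ℝ} (hb : b 0 ^ 2 + b 1 ^ 2 = 1)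
    (hb' : b' 0 ^ 2 + b' 1 ^ 2 = 1) {w : ℝ} (h1 : |b 0 * D 0 + b 1 * D 1| ≤ w)
    (h2 : |b' 0 * D 0 + b' 1 * D 1| ≤ w) (j : Fin 2) :
    |b 0 * b' 1 - b 1 * b' 0| * |D j| ≤ 2 * w := by
  have hle : ∀ {b : Fin 2 → ℝ}, b 0 ^ 2 + b 1 ^ 2 = 1 → ∀ j, |b j| ≤ 1 := by
    intro b hb j
    rw [← sq_le_one_iff_abs_le_one]
    fin_cases j
    · show b 0 ^ 2 ≤ 1
      nlinarith [sq_nonneg (b 1)]
    · show b 1 ^ 2 ≤ 1
      nlinarith [sq_nonneg (b 0)]
  have hw : 0 ≤ w := (abs_nonneg _).trans h1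
  rw [← abs_mul]
  have key : ∀ s t : ℝ, |s| ≤ 1 → |t| ≤ 1 →
      |s * (b 0 * D 0 + b 1 * D 1) - t * (b' 0 * D 0 + b' 1 * D 1)| ≤ 2 * w := by
    intro s t hs ht
    refine (abs_sub _ _).trans ?_
    rw [abs_mul, abs_mul]
    have a1 : |s| * |b 0 * D 0 + b 1 * D 1| ≤ 1 * w := mul_le_mul hs h1 (abs_nonneg _) (by norm_num)
    have a2 : |t| * |b' 0 * D 0 + b' 1 * D 1| ≤ 1 * w :=
      mul_le_mul ht h2 (abs_nonneg _) (by norm_num)
    linarith
  fin_cases j
  · show |(b 0 * b' 1 - b 1 * b' 0) * D 0| ≤ 2 * w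
    have := key (b' 1) (b 1) (hle hb' 1) (hle hb 1)
    have e : (b 0 * b' 1 - b 1 * b' 0) * D 0 =
      b' 1 * (b 0 * D 0 + b 1 * D 1) - b 1 * (b' 0 * D 0 + b' 1 * D 1) := by ring
    rw [e]; exact this
  · show |(b 0 * b' 1 - b 1 * b' 0) * D 1| ≤ 2 * w
    have := key (b' 0) (b 0) (hle hb' 0) (hle hb 0)
    have e : (b 0 * b' 1 - b 1 * b' 0) * D 1 =
      -(b' 0 * (b 0 * D 0 + b 1 * D 1) - b 0 * (b' 0 * D 0 + b' 1 * D 1)) := by ring
    rw [e, abs_neg]; exact this

end Crest.Agent.R136.RgE344
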