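import Crest.Agent.R136.RgE1_344

/-!
# R136 (S0187): RIG_E, finite combinatorics II (helper344): COH

One common normal for a dense set of incidences, from heavy strips.
-/

set_option autoImplicit false
set_option linter.unusedVariables false

open Finset

namespace Crest.Agent.R136.RgE344

/-- relative block velocity -/
def dv (w : ℕ → Fin 2 → ℝ) (c : ℕ → ℝ) (e : Fin 2 → ℝ) (i l : ℕ) : Fin 2 → ℝ := fun j =>
  (w l j - w i j) - e j * (c l - c i)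

theorem dv_sub (w : ℕ → Fin 2 → ℝ) (c : ℕ → ℝ) (e : Fin 2 → ℝ) (i l l' : ℕ) (j : Fin 2) :
    dv w c e l l' j = dv w c e i l' j - dv w c e i l j := by
  unfold dv; ring

/-- angle between the normals of two strips with many common lines -/
theorem angle_small {A δ β : ℝ} (hA : 2 ≤ A) (hδ : 0 < δ) (hβ : 0 < β) {b b' : Fin 2 → ℝ}
    (hb : b 0 ^ 2 + b 1 ^ 2 = 1) (hb' : b' 0 ^ 2 + b' 1 ^ 2 = 1) {N : ℝ} (hN : 0 < N)
    (S : Finset ℕ) (w : ℕ → Fin 2 → ℝ) (c : ℕ → ℝ) (e : Fin 2 → ℝ) (i i' : ℕ)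
    (hS : δ * N ≤ 4 * A ^ 3 * (S.card : ℝ))
    (h1 : ∀ l ∈ S, |b 0 * dv w c e i l 0 + b 1 * dv w c e i l 1| ≤ A * δ)
    (h2 : ∀ l ∈ S, |b' 0 * dv w c e i' l 0 + b' 1 * dv w c e i' l 1| ≤ A * δ)
    (hB : ∀ l ∈ S, ∀ r : ℝ, δ ≤ r → r ≤ 1 → ((S.filter fun l' => ∀ j, |dv w c e l l' j| ≤ r).card : ℝ) ≤
      A * δ * r ^ β * N) :
    |b 0 * b' 1 - b 1 * b' 0| ≤ A ^ (3 + 6 / β) * δ := by
  classical
  have hA0 : 0 < A := by linarith
  have hA1 : 1 ≤ A := by linarith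
  set s := |b 0 * b' 1 - b 1 * b' 0| with hs
  have hs0 : 0 ≤ s := abs_nonneg _
  have hSne : S.Nonempty := by
    rw [← Finset.card_pos]
    have : (0 : ℝ) < S.card := by
      by_contra hcon
      rw [not_lt] at hcon
      have h3 : 4 * A ^ 3 * (S.card : ℝ) ≤ 0 := mul_nonpos_of_nonneg_of_nonpos (by positivity) hcon
      have h4 : 0 < δ * N := by positivity
      linarith
    exact_mod_cast this
  have hpow : (1 : ℝ) ≤ A ^ (6 / β) := Real.one_le_rpow hA1 (by positivity)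
  have hexp : A ^ (3 + 6 / β) = A ^ 3 * A ^ (6 / β) := by
    rw [Real.rpow_add hA0]
    norm_num
  rcases le_or_gt s (4 * A * δ) with hle | hgt
  · refine hle.trans ?_
    rw [hexp]
    have h4 : 4 * A ≤ A ^ 3 := by nlinarith [mul_nonneg (show (0:ℝ) ≤ A - 2 by linarith) (show (0:ℝ) ≤ A + 2 by linarith)]
    have h5 : A ^ 3 ≤ A ^ 3 * A ^ (6 / β) := by nlinarith [pow_pos hA0 3]
    exact mul_le_mul_of_nonneg_right (h4.trans h5) hδ.le
  -- `r = 4 A δ / s`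
  have hspos : 0 < s := lt_trans (by positivity) hgt
  have hs1 : s ≤ 2 := by
    have hle : ∀ {b : Fin 2 → ℝ}, b 0 ^ 2 + b 1 ^ 2 = 1 → ∀ j, |b j| ≤ 1 := by
      intro b hb j
      rw [← sq_le_one_iff_abs_le_one]
      fin_cases j
      · show b 0 ^ 2 ≤ 1
        nlinarith [sq_nonneg (b 1)]
      · show b 1 ^ 2 ≤ 1
        nlinarith [sq_nonneg (b 0)]
    rw [hs]
    refine (abs_sub _ _).trans ?_
    rw [abs_mul, abs_mul]
    have a1 : |b 0| * |b' 1| ≤ 1 * 1 := mul_le_mul (hle hb 0) (hle hb' 1) (abs_nonneg _) (by norm_num)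
    have a2 : |b 1| * |b' 0| ≤ 1 * 1 := mul_le_mul (hle hb 1) (hle hb' 0) (abs_nonneg _) (by norm_num)
    linarith
  set r := 4 * A * δ / s with hr
  have hr0 : 0 < r := by positivity
  have hr1 : r ≤ 1 := by
    rw [hr, div_le_one hspos]
    exact hgt.le
  have hrδ : δ ≤ r := by
    rw [hr, le_div_iff₀ hspos]
    nlinarith
  obtain ⟨l0, hl0⟩ := hSne
  have hsub : S ⊆ S.filter fun l' => ∀ j, |dv w c e l0 l' j| ≤ r := by
    intro l' hl'
    refine Finset.mem_filter.2 ⟨hl', fun j => ?_⟩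
    have g1 : |b 0 * dv w c e l0 l' 0 + b 1 * dv w c e l0 l' 1| ≤ 2 * A * δ := by
      have e1 : b 0 * dv w c e l0 l' 0 + b 1 * dv w c e l0 l' 1 =
          (b 0 * dv w c e i l' 0 + b 1 * dv w c e i l' 1) -
            (b 0 * dv w c e i l0 0 + b 1 * dv w c e i l0 1) := by
        rw [dv_sub w c e i l0 l' 0, dv_sub w c e i l0 l' 1]; ring
      rw [e1]
      exact (abs_sub _ _).trans (by linarith [h1 l' hl', h1 l0 hl0])
    have g2 : |b' 0 * dv w c e l0 l' 0 + b' 1 * dv w c e l0 l' 1| ≤ 2 * A * δ := by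
      have e1 : b' 0 * dv w c e l0 l' 0 + b' 1 * dv w c e l0 l' 1 =
          (b' 0 * dv w c e i' l' 0 + b' 1 * dv w c e i' l' 1) -
            (b' 0 * dv w c e i' l0 0 + b' 1 * dv w c e i' l0 1) := by
        rw [dv_sub w c e i' l0 l' 0, dv_sub w c e i' l0 l' 1]; ring
      rw [e1]
      exact (abs_sub _ _).trans (by linarith [h2 l' hl', h2 l0 hl0])
    have g3 := two_strips hb hb' g1 g2 j
    rw [hr, le_div_iff₀ hspos]
    rw [← hs] at g3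
    linarith
  have h3 : (S.card : ℝ) ≤ A * δ * r ^ β * N := by
    refine le_trans ?_ (hB l0 hl0 r hrδ hr1)
    exact_mod_cast Finset.card_le_card hsub
  -- `r^β ≥ A^(-6)`
  have h4 : 1 ≤ A ^ 6 * r ^ β := by
    have h5 : δ * N ≤ 4 * A ^ 3 * (A * δ * r ^ β * N) := hS.trans (mul_le_mul_of_nonneg_left h3 (by positivity))
    have h6 : (1 : ℝ) * (δ * N) ≤ (4 * A ^ 4 * r ^ β) * (δ * N) := by nlinarith
    have h7 : (1 : ℝ) ≤ 4 * A ^ 4 * r ^ β := le_of_mul_le_mul_right h6 (by positivity)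
    have h8 : 4 * A ^ 4 ≤ A ^ 6 := by
      have : (4 : ℝ) ≤ A ^ 2 := by nlinarith
      nlinarith [pow_pos hA0 4]
    exact h7.trans (mul_le_mul_of_nonneg_right h8 (by positivity))
  have h5 : 1 ≤ A ^ (6 / β) * r := by
    have e1 : (A ^ (6 / β) * r) ^ β = A ^ 6 * r ^ β := by
      rw [Real.mul_rpow (by positivity) hr0.le, ← Real.rpow_mul hA0.le]
      have : 6 / β * β = (6 : ℕ) := by
        field_simp
        norm_num
      rw [this, Real.rpow_natCast]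
    by_contra hcon
    rw [not_le] at hcon
    have h6 : (A ^ (6 / β) * r) ^ β < 1 := Real.rpow_lt_one (by positivity) hcon hβ
    rw [e1] at h6
    linarith
  have h6 : s ≤ A ^ (6 / β) * (4 * A * δ) := by
    have : s * 1 ≤ s * (A ^ (6 / β) * r) := mul_le_mul_of_nonneg_left h5 hs0
    have e1 : s * (A ^ (6 / β) * r) = A ^ (6 / β) * (4 * A * δ) := by
      rw [hr]; field_simp
    linarith
  refine h6.trans ?_
  rw [hexp]
  have h7 : 4 * A ≤ A ^ 3 := by nlinarith [mul_nonneg (show (0:ℝ) ≤ A - 2 by linarith) (show (0:ℝ) ≤ A + 2 by linarith)]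
  have h8 : A ^ (6 / β) * (4 * A * δ) = (4 * A) * (A ^ (6 / β) * δ) := by ring
  rw [h8]
  have h9 : (4 * A) * (A ^ (6 / β) * δ) ≤ A ^ 3 * (A ^ (6 / β) * δ) :=
    mul_le_mul_of_nonneg_right h7 (by positivity)
  linarith [h9]

/-- number of mesh cells of `[-1, 1]` -/
theorem card_cells {h : ℝ} (hh : 0 < h) (hh1 : h ≤ 1) (S : Finset ℤ)
    (hS : ∀ a ∈ S, ∃ X : ℝ, |X| ≤ 1 ∧ a = ⌊X / h⌋) : (S.card : ℝ) ≤ 4 / h := by
  have h1 : S ⊆ Finset.Icc ⌊(-1 : ℝ) / h⌋ ⌊(1 : ℝ) / h⌋ := by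
    intro a ha
    obtain ⟨X, hX, rfl⟩ := hS a ha
    rw [abs_le] at hX
    rw [Finset.mem_Icc]
    exact ⟨Int.floor_le_floor (div_le_div_of_nonneg_right hX.1 hh.le),
      Int.floor_le_floor (div_le_div_of_nonneg_right hX.2 hh.le)⟩
  have h2 := Finset.card_le_card h1
  rw [Int.card_Icc] at h2
  have h3 : (⌊(1 : ℝ) / h⌋ : ℝ) ≤ 1 / h := Int.floor_le _
  have h4 : (-1 : ℝ) / h < ⌊(-1 : ℝ) / h⌋ + 1 := Int.lt_floor_add_one _
  have h5 : (⌊(-1 : ℝ) / h⌋ : ℤ) ≤ ⌊(1 : ℝ) / h⌋ :=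
    Int.floor_le_floor (div_le_div_of_nonneg_right (by norm_num) hh.le)
  have h6 : ((⌊(1 : ℝ) / h⌋ + 1 - ⌊(-1 : ℝ) / h⌋).toNat : ℝ) =
      (⌊(1 : ℝ) / h⌋ : ℝ) + 1 - (⌊(-1 : ℝ) / h⌋ : ℝ) := by
    have : ((⌊(1 : ℝ) / h⌋ + 1 - ⌊(-1 : ℝ) / h⌋).toNat : ℤ) =
      ⌊(1 : ℝ) / h⌋ + 1 - ⌊(-1 : ℝ) / h⌋ := Int.toNat_of_nonneg (by omega)
    exact_mod_cast this
  have h7 : (S.card : ℝ) ≤ (⌊(1 : ℝ) / h⌋ : ℝ) + 1 - (⌊(-1 : ℝ) / h⌋ : ℝ) := by
    rw [← h6]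
    exact_mod_cast h2
  have h8 : (1 : ℝ) ≤ 1 / h := by rw [le_div_iff₀ hh]; linarith
  have e1 : (-1 : ℝ) / h = -(1 / h) := by ring
  rw [e1] at h4
  have e2 : (4 : ℝ) / h = 4 * (1 / h) := by ring
  rw [e2]
  rw [e1] at h7
  linarith

end Crest.Agent.R136.RgE344
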