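import Crest.Agent.R136.RgE2_344

/-!
# R136 (S0187): RIG_E, finite combinatorics III (helper344): COH, the theorem
-/

set_option autoImplicit false
set_option linter.unusedVariables false

open Finset

namespace Crest.Agent.R136.RgE344

/-- hypotheses of COH (losses are powers of `A`) -/
structure CohData (A δ m β : ℝ) (L Z : Finset ℕ) (I Ig : Finset (ℕ × ℕ)) (z x c : ℕ → ℝ)
    (w e b : ℕ → Fin 2 → ℝ) (H : ℕ → ℕ → Finset ℕ) : Prop where
  A2 : 2 ≤ A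
  δ0 : 0 < δ
  m0 : 0 < m
  m1 : m ≤ 1
  β0 : 0 < β
  small : A ^ (20 + 15 / m) * δ ≤ 1
  L0 : L.Nonempty
  Z0 : Z.Nonempty
  sub : I ⊆ L ×ˢ Z
  gsub : Ig ⊆ I
  bX : ∀ l k, (l, k) ∈ I → |x l + z k * c l| ≤ 1
  be : ∀ k ∈ Z, ∀ j, |e k j| ≤ 2
  bc : ∀ l ∈ L, |c l| ≤ 1 ∧ ∀ j, |w l j| ≤ 1
  unit : ∀ i, b i 0 ^ 2 + b i 1 ^ 2 = 1
  frost : ∀ k ∈ Z, ∀ r : ℝ, δ ≤ r → r ≤ 1 →
    ((Z.filter fun k' => |z k' - z k| ≤ r).card : ℝ) ≤ A * r * (Z.card : ℝ)
  up : ∀ l k, (l, k) ∈ I → ∀ r : ℝ, δ ≤ r → r ≤ 2 →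
    ((L.filter fun l' => (l', k) ∈ I ∧ |(x l' + z k * c l') - (x l + z k * c l)| ≤ 2 * δ ∧
      |c l' - c l| ≤ r).card : ℝ) ≤ A * δ * r ^ m * (L.card : ℝ)
  ball : ∀ l k, (l, k) ∈ I → ∀ r : ℝ, δ ≤ r → r ≤ 1 →
    ((L.filter fun l' => (l', k) ∈ I ∧ |(x l' + z k * c l') - (x l + z k * c l)| ≤ 2 * δ ∧
      ∀ j, |dv w c (e k) l l' j| ≤ r).card : ℝ) ≤ A * δ * r ^ β * (L.card : ℝ)
  dens : (L.card : ℝ) * (Z.card : ℝ) ≤ A * (Ig.card : ℝ)
  H_sub : ∀ i k, (i, k) ∈ Ig → H i k ⊆ L.filter fun l => (l, k) ∈ I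
  H_card : ∀ i k, (i, k) ∈ Ig → δ * (L.card : ℝ) ≤ A * ((H i k).card : ℝ)
  H_X : ∀ i k, (i, k) ∈ Ig → ∀ l ∈ H i k, |(x l + z k * c l) - (x i + z k * c i)| ≤ δ
  H_b : ∀ i k, (i, k) ∈ Ig → ∀ l ∈ H i k,
    |b i 0 * dv w c (e k) i l 0 + b i 1 * dv w c (e k) i l 1| ≤ δ

/-- a set of incidences is the disjoint union of its pencils -/
theorem card_pencils (L Z : Finset ℕ) (S : Finset (ℕ × ℕ)) (hS : S ⊆ L ×ˢ Z) (cell : ℕ → ℕ → ℤ) :
    (S.card : ℝ) = ∑ ka ∈ S.image (fun q => (q.2, cell q.2 q.1)),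
      ((L.filter fun i => (i, ka.1) ∈ S ∧ cell ka.1 i = ka.2).card : ℝ) := by
  classical
  have h1 : S.card = ∑ ka ∈ S.image (fun q => (q.2, cell q.2 q.1)),
      (S.filter fun q => (q.2, cell q.2 q.1) = ka).card :=
    Finset.card_eq_sum_card_fiberwise fun q hq => Finset.mem_image_of_mem _ hq
  rw [h1]
  push_cast
  refine Finset.sum_congr rfl fun ka _ => ?_
  congr 1
  refine Finset.card_bij' (fun q _ => q.1) (fun i _ => (i, ka.1)) ?_ ?_ ?_ ?_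
  · intro q hq
    obtain ⟨g1, g2⟩ := Finset.mem_filter.1 hq
    have g3 : q.2 = ka.1 := by rw [← g2]
    have g4 : cell q.2 q.1 = ka.2 := by rw [← g2]
    refine Finset.mem_filter.2 ⟨(Finset.mem_product.1 (hS g1)).1, ?_, ?_⟩
    · rw [← g3]; exact g1
    · rw [← g3]; exact g4
  · intro i hi
    obtain ⟨g1, g2, g3⟩ := Finset.mem_filter.1 hi
    refine Finset.mem_filter.2 ⟨g2, ?_⟩
    exact Prod.ext rfl g3
  · intro q hq
    obtain ⟨g1, g2⟩ := Finset.mem_filter.1 hq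
    have g3 : q.2 = ka.1 := by rw [← g2]
    exact Prod.ext rfl g3.symm
  · intro i hi
    rfl

/-- lines of large degree -/
theorem prune_lines (L Z : Finset ℕ) (S : Finset (ℕ × ℕ)) (hS : S ⊆ L ×ˢ Z) {A : ℝ} (hA : 0 < A)
    (h : (L.card : ℝ) * (Z.card : ℝ) ≤ A * (S.card : ℝ)) :
    ∃ L1 ⊆ L, (∀ l ∈ L1, (Z.card : ℝ) ≤ 2 * A * ((S.filter fun q => q.1 = l).card : ℝ)) ∧
      (L.card : ℝ) * (Z.card : ℝ) ≤ 2 * A * ((S.filter fun q => q.1 ∈ L1).card : ℝ) := by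
  classical
  set L1 := L.filter fun l => (Z.card : ℝ) ≤ 2 * A * ((S.filter fun q => q.1 = l).card : ℝ) with hL1
  refine ⟨L1, Finset.filter_subset _ _, fun l hl => (Finset.mem_filter.1 hl).2, ?_⟩
  have h1 : (S.card : ℝ) = ((S.filter fun q => q.1 ∈ L1).card : ℝ) +
      ((S.filter fun q => ¬ q.1 ∈ L1).card : ℝ) := by
    exact_mod_cast (Finset.card_filter_add_card_filter_not (s := S) (fun q => q.1 ∈ L1)).symm
  have h2 : 2 * A * ((S.filter fun q => ¬ q.1 ∈ L1).card : ℝ) ≤ (L.card : ℝ) * (Z.card : ℝ) := by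
    have e1 : (S.filter fun q => ¬ q.1 ∈ L1).card = ∑ l ∈ L \ L1,
        ((S.filter fun q => ¬ q.1 ∈ L1).filter fun q => q.1 = l).card := by
      refine Finset.card_eq_sum_card_fiberwise fun q hq => ?_
      obtain ⟨g1, g2⟩ := Finset.mem_filter.1 hq
      exact Finset.mem_sdiff.2 ⟨(Finset.mem_product.1 (hS g1)).1, g2⟩
    rw [e1]
    push_cast
    rw [Finset.mul_sum]
    calc ∑ l ∈ L \ L1, 2 * A * (((S.filter fun q => ¬ q.1 ∈ L1).filter fun q => q.1 = l).card : ℝ)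
        ≤ ∑ l ∈ L \ L1, (Z.card : ℝ) := by
          refine Finset.sum_le_sum fun l hl => ?_
          obtain ⟨g1, g2⟩ := Finset.mem_sdiff.1 hl
          have g3 : ¬ (Z.card : ℝ) ≤ 2 * A * ((S.filter fun q => q.1 = l).card : ℝ) := fun hcon =>
            g2 (Finset.mem_filter.2 ⟨g1, hcon⟩)
          rw [not_le] at g3
          refine le_trans ?_ g3.le
          refine mul_le_mul_of_nonneg_left ?_ (by positivity)
          refine mod_cast Finset.card_le_card fun q hq => ?_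
          obtain ⟨a1, a2⟩ := Finset.mem_filter.1 hq
          exact Finset.mem_filter.2 ⟨(Finset.mem_filter.1 a1).1, a2⟩
      _ = ((L \ L1).card : ℝ) * (Z.card : ℝ) := by rw [Finset.sum_const, nsmul_eq_mul]
      _ ≤ _ := by
          refine mul_le_mul_of_nonneg_right ?_ (Nat.cast_nonneg _)
          exact_mod_cast Finset.card_le_card Finset.sdiff_subset
  nlinarith

/-- restriction to lines of large degree -/
theorem card_restr (Z : Finset ℕ) (S : Finset (ℕ × ℕ)) (L2 : Finset ℕ) {A : ℝ}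
    (h : ∀ l ∈ L2, (Z.card : ℝ) ≤ 2 * A * ((S.filter fun q => q.1 = l).card : ℝ)) :
    (L2.card : ℝ) * (Z.card : ℝ) ≤ 2 * A * ((S.filter fun q => q.1 ∈ L2).card : ℝ) := by
  classical
  have e1 : (S.filter fun q => q.1 ∈ L2).card = ∑ l ∈ L2,
      ((S.filter fun q => q.1 ∈ L2).filter fun q => q.1 = l).card :=
    Finset.card_eq_sum_card_fiberwise fun q hq => (Finset.mem_filter.1 hq).2
  rw [e1]
  push_cast
  rw [Finset.mul_sum, ← nsmul_eq_mul, ← Finset.sum_const]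
  refine Finset.sum_le_sum fun l hl => (h l hl).trans (le_of_eq ?_)
  have e2 : (S.filter fun q => q.1 = l) =
      (S.filter fun q => q.1 ∈ L2).filter fun q => q.1 = l := by
    ext q
    simp only [Finset.mem_filter]
    constructor
    · rintro ⟨h0, h1⟩
      exact ⟨⟨h0, h1 ▸ hl⟩, h1⟩
    · rintro ⟨⟨h0, _⟩, h1⟩
      exact ⟨h0, h1⟩
  rw [e2]

/-- pairs of one pencil with close normals -/
theorem pencil_pairs {A δ m β : ℝ} {L Z : Finset ℕ} {I Ig : Finset (ℕ × ℕ)} {z x c : ℕ → ℝ}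
    {w e b : ℕ → Fin 2 → ℝ} {H : ℕ → ℕ → Finset ℕ} (D : CohData A δ m β L Z I Ig z x c w e b H)
    (k : ℕ) (P : Finset ℕ) (hP : ∀ i ∈ P, (i, k) ∈ Ig)
    (hPX : ∀ i ∈ P, ∀ i' ∈ P, |(x i' + z k * c i') - (x i + z k * c i)| ≤ δ) :
    (P.card : ℝ) ^ 2 ≤ 8 * A ^ 4 * (((P ×ˢ P).filter fun q =>
      |b q.1 0 * b q.2 1 - b q.1 1 * b q.2 0| ≤ A ^ (3 + 6 / β) * δ).card : ℝ) := by
  classical
  rcases P.eq_empty_or_nonempty with rfl | ⟨i0, hi0⟩
  · simp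
  have hA2 := D.A2
  have hA0 : 0 < A := by linarith
  have hδ := D.δ0
  have hm0 := D.m0
  have hm1 := D.m1
  have hL0 : (0 : ℝ) < L.card := by exact_mod_cast D.L0.card_pos
  have hi0I := D.gsub (hP i0 hi0)
  set Q := L.filter fun l' => (l', k) ∈ I ∧ |(x l' + z k * c l') - (x i0 + z k * c i0)| ≤ 2 * δ ∧
      |c l' - c i0| ≤ 2 with hQ
  have h2m : (2 : ℝ) ^ m ≤ 2 := by
    calc (2 : ℝ) ^ m ≤ 2 ^ (1 : ℝ) := Real.rpow_le_rpow_of_exponent_le (by norm_num) hm1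
      _ = 2 := Real.rpow_one 2
  have hδ2 : δ ≤ 2 := by
    have h1 : (1 : ℝ) ≤ A ^ (20 + 15 / m) := Real.one_le_rpow (by linarith) (by positivity)
    have := D.small
    nlinarith
  have hQc : (Q.card : ℝ) ≤ 2 * A * δ * L.card := by
    refine (D.up i0 k hi0I 2 hδ2 le_rfl).trans ?_
    have : A * δ * 2 ^ m * (L.card : ℝ) ≤ A * δ * 2 * (L.card : ℝ) := by gcongr
    linarith
  have hmemQ : ∀ i ∈ P, ∀ l ∈ H i k, l ∈ Q := by
    intro i hi l hl
    have g1 := D.H_sub i k (hP i hi) hl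
    obtain ⟨g2, g3⟩ := Finset.mem_filter.1 g1
    have g4 := D.H_X i k (hP i hi) l hl
    have g5 := hPX i0 hi0 i hi
    refine Finset.mem_filter.2 ⟨g2, g3, ?_, ?_⟩
    · rw [abs_le] at g4 g5 ⊢
      constructor <;> linarith [g4.1, g4.2, g5.1, g5.2]
    · have a1 := (D.bc l g2).1
      have a2 := (D.bc i0 (Finset.mem_product.1 (D.sub hi0I)).1).1
      exact (abs_sub _ _).trans (by linarith)
  have hi0Q : i0 ∈ Q := by
    refine Finset.mem_filter.2 ⟨(Finset.mem_product.1 (D.sub hi0I)).1, hi0I, ?_, ?_⟩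
    · simp; positivity
    · simp
  have key := strip_pairs P Q (fun i => H i k) (fun i hi l hl => hmemQ i hi l hl)
    (h := δ * L.card / A) (by positivity) (fun i hi => by
      rw [div_le_iff₀ hA0]
      have := D.H_card i k (hP i hi)
      linarith) ⟨i0, hi0Q⟩
  have hsub : ((P ×ˢ P).filter fun q => (δ * L.card / A) ^ 2 ≤
      2 * (Q.card : ℝ) * (((H q.1 k) ∩ (H q.2 k)).card : ℝ)) ⊆ (P ×ˢ P).filter fun q =>
      |b q.1 0 * b q.2 1 - b q.1 1 * b q.2 0| ≤ A ^ (3 + 6 / β) * δ := by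
    intro q hq
    obtain ⟨g1, g2⟩ := Finset.mem_filter.1 hq
    obtain ⟨g3, g4⟩ := Finset.mem_product.1 g1
    refine Finset.mem_filter.2 ⟨g1, ?_⟩
    refine angle_small hA2 hδ D.β0 (D.unit _) (D.unit _) hL0 ((H q.1 k) ∩ (H q.2 k)) w c (e k)
      q.1 q.2 ?_ ?_ ?_ ?_
    · -- size of the intersection
      have g5 : (δ * L.card / A) ^ 2 ≤ 2 * (2 * A * δ * L.card) *
          (((H q.1 k) ∩ (H q.2 k)).card : ℝ) := by
        refine g2.trans ?_
        exact mul_le_mul_of_nonneg_right (mul_le_mul_of_nonneg_left hQc (by norm_num))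
          (Nat.cast_nonneg _)
      have g6 : (δ * L.card / A) ^ 2 = (δ * L.card) * (δ * L.card) / A ^ 2 := by
        field_simp
      rw [g6, div_le_iff₀ (by positivity)] at g5
      have g7 : (δ * L.card) * (δ * L.card) ≤ (δ * L.card) *
          (4 * A ^ 3 * (((H q.1 k) ∩ (H q.2 k)).card : ℝ)) := by
        refine g5.trans (le_of_eq ?_)
        ring
      exact le_of_mul_le_mul_left g7 (by positivity)
    · intro l hl
      exact (D.H_b q.1 k (hP _ g3) l (Finset.mem_inter.1 hl).1).trans (by nlinarith)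
    · intro l hl
      exact (D.H_b q.2 k (hP _ g4) l (Finset.mem_inter.1 hl).2).trans (by nlinarith)
    · intro l hl r hr hr1
      have g5 := D.H_sub q.1 k (hP _ g3) (Finset.mem_inter.1 hl).1
      obtain ⟨g6, g7⟩ := Finset.mem_filter.1 g5
      refine le_trans ?_ (D.ball l k g7 r hr hr1)
      refine mod_cast Finset.card_le_card fun l' hl' => ?_
      obtain ⟨a1, a2⟩ := Finset.mem_filter.1 hl'
      obtain ⟨a3, a4⟩ := Finset.mem_inter.1 a1
      obtain ⟨a5, a6⟩ := Finset.mem_filter.1 (D.H_sub q.1 k (hP _ g3) a3)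
      refine Finset.mem_filter.2 ⟨a5, a6, ?_, a2⟩
      have b1 := D.H_X q.1 k (hP _ g3) l (Finset.mem_inter.1 hl).1
      have b2 := D.H_X q.1 k (hP _ g3) l' a3
      rw [abs_le] at b1 b2 ⊢
      constructor <;> linarith [b1.1, b1.2, b2.1, b2.2]
  set W := (P ×ˢ P).filter fun q =>
      |b q.1 0 * b q.2 1 - b q.1 1 * b q.2 0| ≤ A ^ (3 + 6 / β) * δ with hW
  have h1 : (δ * L.card / A) ^ 2 * (P.card : ℝ) ^ 2 ≤ 2 * (2 * A * δ * L.card) ^ 2 * (W.card : ℝ) := by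
    refine key.trans ?_
    have h2 := Finset.card_le_card hsub
    have h3 : (Q.card : ℝ) ^ 2 ≤ (2 * A * δ * L.card) ^ 2 := pow_le_pow_left₀ (Nat.cast_nonneg _) hQc 2
    have h4 : ((((P ×ˢ P).filter fun q => (δ * L.card / A) ^ 2 ≤
      2 * (Q.card : ℝ) * (((H q.1 k) ∩ (H q.2 k)).card : ℝ)).card : ℕ) : ℝ) ≤ (W.card : ℝ) := by
      exact_mod_cast h2
    calc _ ≤ 2 * (Q.card : ℝ) ^ 2 * (W.card : ℝ) := mul_le_mul_of_nonneg_left h4 (by positivity)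
      _ ≤ _ := by
        refine mul_le_mul_of_nonneg_right ?_ (Nat.cast_nonneg _)
        linarith
  have h2 : (δ * L.card / A) ^ 2 = (δ * L.card) ^ 2 / A ^ 2 := by rw [div_pow]
  rw [h2, div_mul_eq_mul_div, div_le_iff₀ (by positivity)] at h1
  have h3 : (δ * (L.card : ℝ)) ^ 2 * (P.card : ℝ) ^ 2 ≤ (δ * (L.card : ℝ)) ^ 2 *
      (8 * A ^ 4 * (W.card : ℝ)) := by
    refine h1.trans (le_of_eq ?_)
    ring
  exact le_of_mul_le_mul_left h3 (by positivity)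

end Crest.Agent.R136.RgE344
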