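import Crest.Agent.R136.RgE3_344

/-!
# R136 (S0187): RIG_E, finite combinatorics IV (helper344): COH, end of the proof
-/

set_option autoImplicit false
set_option linter.unusedVariables false

open Finset

namespace Crest.Agent.R136.RgE344

variable {A δ m β : ℝ} {L Z : Finset ℕ} {I Ig : Finset (ℕ × ℕ)} {z x c : ℕ → ℝ}
    {w e b : ℕ → Fin 2 → ℝ} {H : ℕ → ℕ → Finset ℕ}

theorem floor_eq_close {h s t : ℝ} (hh : 0 < h) (hst : ⌊s / h⌋ = ⌊t / h⌋) : |t - s| ≤ h := by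
  have g1 := Int.floor_le (s / h)
  have g2 := Int.lt_floor_add_one (s / h)
  have g3 := Int.floor_le (t / h)
  have g4 := Int.lt_floor_add_one (t / h)
  rw [hst] at g1 g2
  rw [le_div_iff₀ hh] at g1 g3
  rw [div_lt_iff₀ hh] at g2 g4
  rw [abs_le]
  constructor <;> linarith

theorem CohData.small1 (D : CohData A δ m β L Z I Ig z x c w e b H) : A * δ ≤ 1 := by
  have hA2 := D.A2
  have hm0 := D.m0
  have h1 : A ≤ A ^ (20 + 15 / m) := by
    calc A = A ^ (1 : ℝ) := (Real.rpow_one A).symm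
      _ ≤ _ := Real.rpow_le_rpow_of_exponent_le (by linarith) (by
        have : 0 ≤ 15 / m := by positivity
        linarith)
  exact (mul_le_mul_of_nonneg_right h1 D.δ0.le).trans D.small

set_option maxHeartbeats 1000000 in
/-- many pairs of lines with close normals -/
theorem coh_pairs (D : CohData A δ m β L Z I Ig z x c w e b H) (S : Finset (ℕ × ℕ)) (hS : S ⊆ Ig)
    (hdens : (L.card : ℝ) * (Z.card : ℝ) ≤ 2 * A * (S.card : ℝ)) :
    ∃ W : Finset (ℕ × ℕ), (∀ q ∈ W, (∃ k, (q.1, k) ∈ S) ∧ (∃ k, (q.2, k) ∈ S) ∧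
        |b q.1 0 * b q.2 1 - b q.1 1 * b q.2 0| ≤ A ^ (3 + 6 / β) * δ) ∧
      (L.card : ℝ) ^ 2 ≤ A ^ (16 + 15 / m) * (W.card : ℝ) := by
  classical
  have hA2 := D.A2
  have hA0 : 0 < A := by linarith
  have hδ := D.δ0
  have hm0 := D.m0
  have hm1 := D.m1
  have hL0 : (0 : ℝ) < L.card := by exact_mod_cast D.L0.card_pos
  have hZ0 : (0 : ℝ) < Z.card := by exact_mod_cast D.Z0.card_pos
  have hAδ := D.small1
  have hI := D.sub
  have hSI : S ⊆ L ×ˢ Z := (hS.trans D.gsub).trans hI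
  obtain ⟨h, hh⟩ : ∃ h : ℝ, h = δ := ⟨δ, rfl⟩
  have hh0 : 0 < h := by rw [hh]; exact hδ
  have hh1 : h ≤ 1 := by rw [hh]; nlinarith
  set cell : ℕ → ℕ → ℤ := fun k l => ⌊(x l + z k * c l) / h⌋ with hcell
  set KA := S.image (fun q => (q.2, cell q.2 q.1)) with hKA
  set P : ℕ × ℤ → Finset ℕ := fun ka => L.filter fun i => (i, ka.1) ∈ S ∧ cell ka.1 i = ka.2 with hP
  have hPcard : (S.card : ℝ) = ∑ ka ∈ KA, ((P ka).card : ℝ) := card_pencils L Z S hSI cell
  set ϖ := A ^ (3 + 6 / β) * δ with hϖ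
  set T : Finset (ℕ × ℕ × ℕ) := (Z ×ˢ (L ×ˢ L)).filter fun q => (q.2.1, q.1) ∈ S ∧
    (q.2.2, q.1) ∈ S ∧ cell q.1 q.2.1 = cell q.1 q.2.2 ∧
    |b q.2.1 0 * b q.2.2 1 - b q.2.1 1 * b q.2.2 0| ≤ ϖ with hT
  -- number of cells
  have hKAc : (KA.card : ℝ) ≤ Z.card * (4 / h) := by
    have h1 : KA ⊆ Z ×ˢ (KA.image Prod.snd) := by
      intro ka hka
      refine Finset.mem_product.2 ⟨?_, Finset.mem_image_of_mem _ hka⟩
      obtain ⟨q, hq, rfl⟩ := Finset.mem_image.1 hka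
      exact (Finset.mem_product.1 (hSI hq)).2
    have h2 := Finset.card_le_card h1
    rw [Finset.card_product] at h2
    have h3 : ((KA.image Prod.snd).card : ℝ) ≤ 4 / h := by
      refine card_cells hh0 hh1 _ fun a ha => ?_
      obtain ⟨ka, hka, rfl⟩ := Finset.mem_image.1 ha
      obtain ⟨q, hq, rfl⟩ := Finset.mem_image.1 hka
      exact ⟨_, D.bX q.1 q.2 (D.gsub (hS hq)), rfl⟩
    calc (KA.card : ℝ) ≤ (Z.card : ℝ) * ((KA.image Prod.snd).card : ℝ) := by exact_mod_cast h2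
      _ ≤ _ := mul_le_mul_of_nonneg_left h3 hZ0.le
  -- pairs in one pencil
  have hpen : ∀ ka ∈ KA, ((P ka).card : ℝ) ^ 2 ≤ 8 * A ^ 4 *
      ((T.filter fun q => (q.1, cell q.1 q.2.1) = ka).card : ℝ) := by
    intro ka hka
    have hkZ : ka.1 ∈ Z := by
      obtain ⟨q, hq, rfl⟩ := Finset.mem_image.1 hka
      exact (Finset.mem_product.1 (hSI hq)).2
    have h1 := pencil_pairs D ka.1 (P ka) (fun i hi => hS (Finset.mem_filter.1 hi).2.1)
      (fun i hi i' hi' => by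
        have a1 := (Finset.mem_filter.1 hi).2.2
        have a2 := (Finset.mem_filter.1 hi').2.2
        rw [← hh]
        exact floor_eq_close hh0 (a1.trans a2.symm))
    refine h1.trans ?_
    refine mul_le_mul_of_nonneg_left ?_ (by positivity)
    have h2 : (((P ka) ×ˢ (P ka)).filter fun q =>
        |b q.1 0 * b q.2 1 - b q.1 1 * b q.2 0| ≤ A ^ (3 + 6 / β) * δ).image
        (fun q => ((ka.1, q) : ℕ × ℕ × ℕ)) ⊆ T.filter fun q => (q.1, cell q.1 q.2.1) = ka := by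
      intro r hr
      obtain ⟨q, hq, rfl⟩ := Finset.mem_image.1 hr
      obtain ⟨g1, g2⟩ := Finset.mem_filter.1 hq
      obtain ⟨g3, g4⟩ := Finset.mem_product.1 g1
      obtain ⟨a1, a2, a3⟩ := Finset.mem_filter.1 g3
      obtain ⟨b1, b2, b3⟩ := Finset.mem_filter.1 g4
      refine Finset.mem_filter.2 ⟨Finset.mem_filter.2 ⟨Finset.mem_product.2
        ⟨hkZ, Finset.mem_product.2 ⟨a1, b1⟩⟩, a2, b2, a3.trans b3.symm, g2⟩, ?_⟩
      exact Prod.ext rfl a3
    have h3 := Finset.card_le_card h2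
    rw [Finset.card_image_of_injective _ (fun a b hab => (Prod.ext_iff.1 hab).2)] at h3
    exact_mod_cast h3
  have hTsum : ∑ ka ∈ KA, ((T.filter fun q => (q.1, cell q.1 q.2.1) = ka).card : ℝ) = (T.card : ℝ) := by
    have : T.card = ∑ ka ∈ KA, (T.filter fun q => (q.1, cell q.1 q.2.1) = ka).card := by
      refine Finset.card_eq_sum_card_fiberwise fun q hq => ?_
      obtain ⟨_, g2, _⟩ := Finset.mem_filter.1 hq
      exact Finset.mem_image.2 ⟨(q.2.1, q.1), g2, rfl⟩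
    rw [this]; push_cast; rfl
  -- Cauchy-Schwarz
  have hCS : (S.card : ℝ) ^ 2 ≤ (KA.card : ℝ) * (8 * A ^ 4 * (T.card : ℝ)) := by
    have h1 : (∑ ka ∈ KA, ((P ka).card : ℝ)) ^ 2 ≤ (KA.card : ℝ) * ∑ ka ∈ KA, ((P ka).card : ℝ) ^ 2 :=
      sq_sum_le_card_mul_sum_sq
    rw [← hPcard] at h1
    refine h1.trans (mul_le_mul_of_nonneg_left ?_ (Nat.cast_nonneg _))
    calc ∑ ka ∈ KA, ((P ka).card : ℝ) ^ 2 ≤ ∑ ka ∈ KA, 8 * A ^ 4 *
          ((T.filter fun q => (q.1, cell q.1 q.2.1) = ka).card : ℝ) := Finset.sum_le_sum hpen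
      _ = _ := by rw [← Finset.mul_sum, hTsum]
  have hTbig : (A ^ 13)⁻¹ * h * (L.card : ℝ) ^ 2 * (Z.card : ℝ) ≤ (T.card : ℝ) := by
    have h1 : ((L.card : ℝ) * Z.card) ^ 2 ≤ (2 * A * (S.card : ℝ)) ^ 2 :=
      pow_le_pow_left₀ (by positivity) hdens 2
    have h2 : (S.card : ℝ) ^ 2 ≤ (Z.card * (4 / h)) * (8 * A ^ 4 * (T.card : ℝ)) :=
      hCS.trans (mul_le_mul_of_nonneg_right hKAc (by positivity))
    have h3 : ((L.card : ℝ) * Z.card) ^ 2 ≤ 4 * A ^ 2 * ((Z.card * (4 / h)) *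
        (8 * A ^ 4 * (T.card : ℝ))) := by nlinarith
    have h4 : 4 * A ^ 2 * (((Z.card : ℝ) * (4 / h)) * (8 * A ^ 4 * (T.card : ℝ))) =
        128 * A ^ 6 * (Z.card : ℝ) * (T.card : ℝ) / h := by
      field_simp; ring
    rw [h4, le_div_iff₀ hh0] at h3
    have h5 : (h * (L.card : ℝ) ^ 2 * Z.card) * (Z.card : ℝ) ≤ (128 * A ^ 6 * (T.card : ℝ)) * Z.card := by
      nlinarith
    have h6 : h * (L.card : ℝ) ^ 2 * Z.card ≤ 128 * A ^ 6 * (T.card : ℝ) :=
      le_of_mul_le_mul_right h5 hZ0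
    have h7 : (128 : ℝ) * A ^ 6 ≤ A ^ 13 := by
      have : (2 : ℝ) ^ 7 ≤ A ^ 7 := pow_le_pow_left₀ (by norm_num) hA2 7
      have h8 : (0 : ℝ) < A ^ 6 := by positivity
      nlinarith
    have h8 : h * (L.card : ℝ) ^ 2 * Z.card ≤ A ^ 13 * (T.card : ℝ) :=
      h6.trans (mul_le_mul_of_nonneg_right h7 (Nat.cast_nonneg _))
    have h9 : (A ^ 13)⁻¹ * h * (L.card : ℝ) ^ 2 * (Z.card : ℝ) =
        (A ^ 13)⁻¹ * (h * (L.card : ℝ) ^ 2 * Z.card) := by ring
    rw [h9, inv_mul_le_iff₀ (by positivity)]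
    exact h8
  -- distances
  set t : ℝ := (A ^ (15 / m))⁻¹ with ht
  have ht14 : (0 : ℝ) < A ^ (15 / m) := Real.rpow_pos_of_pos hA0 _
  have ht141 : (1 : ℝ) ≤ A ^ (15 / m) := Real.one_le_rpow (by linarith) (by positivity)
  have ht0 : 0 < t := inv_pos.2 ht14
  have ht1 : t ≤ 1 := inv_le_one_of_one_le₀ ht141
  have hbig : A ^ (20 + 15 / m) = A ^ 20 * A ^ (15 / m) := by
    rw [Real.rpow_add hA0]; norm_num
  have hsm : A ^ 20 * A ^ (15 / m) * δ ≤ 1 := by rw [← hbig]; exact D.small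
  have hA20 : 2 * A ≤ A ^ 20 := by
    calc 2 * A ≤ A * A := by nlinarith
      _ = A ^ 2 := by ring
      _ ≤ A ^ 20 := pow_le_pow_right₀ (by linarith) (by norm_num)
  have hδt : δ ≤ t := by
    rw [ht, le_inv_comm₀ hδ ht14]
    rw [← one_div, le_div_iff₀ hδ]
    refine le_trans ?_ hsm
    refine mul_le_mul_of_nonneg_right ?_ hδ.le
    have : (1 : ℝ) ≤ A ^ 20 := one_le_pow₀ (by linarith)
    nlinarith
  have htm : t ^ m = (A ^ 15)⁻¹ := by
    rw [ht, Real.inv_rpow ht14.le, ← Real.rpow_mul hA0.le]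
    have : 15 / m * m = (15 : ℕ) := by
      field_simp
      norm_num
    rw [this, Real.rpow_natCast]
  have hmain := pairs_of_triples L Z z x c T (δ := h) (κ := (A ^ 13)⁻¹) (t := t)
    (K := A * (2 * h / t)) hh0 ht0 D.Z0 ?_ hTbig ?_ ?_
  · refine ⟨T.image Prod.snd, ?_, ?_⟩
    · intro q hq
      obtain ⟨r, hr, rfl⟩ := Finset.mem_image.1 hq
      obtain ⟨g1, g2, g3, g4, g5⟩ := Finset.mem_filter.1 hr
      exact ⟨⟨r.1, g2⟩, ⟨r.1, g3⟩, g5⟩
    · -- final arithmetic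
      have e1 : A * (2 * h / t) = 2 * h * (A * A ^ (15 / m)) := by
        rw [ht, div_inv_eq_mul]; ring
      rw [e1] at hmain
      have e2 : (A ^ 13)⁻¹ / 2 * h * (L.card : ℝ) ^ 2 = h * ((A ^ 13)⁻¹ / 2 * (L.card : ℝ) ^ 2) := by
        ring
      have e3 : 2 * h * (A * A ^ (15 / m)) * (((T.image Prod.snd).card : ℕ) : ℝ) =
          h * (2 * A * A ^ (15 / m) * ((T.image Prod.snd).card : ℝ)) := by ring
      rw [e2, e3] at hmain
      have h1 := le_of_mul_le_mul_left hmain hh0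
      have h2 : (L.card : ℝ) ^ 2 ≤ 4 * A ^ 14 * A ^ (15 / m) * ((T.image Prod.snd).card : ℝ) := by
        have h3 : (A ^ 13)⁻¹ / 2 * (L.card : ℝ) ^ 2 = (L.card : ℝ) ^ 2 / (2 * A ^ 13) := by
          field_simp
        rw [h3, div_le_iff₀ (by positivity)] at h1
        refine h1.trans (le_of_eq ?_)
        ring
      refine h2.trans ?_
      refine mul_le_mul_of_nonneg_right ?_ (Nat.cast_nonneg _)
      have h3 : A ^ (16 + 15 / m) = A ^ 16 * A ^ (15 / m) := by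
        rw [Real.rpow_add hA0]; norm_num
      rw [h3]
      refine mul_le_mul_of_nonneg_right ?_ ht14.le
      have h4 : (4 : ℝ) ≤ A ^ 2 := by nlinarith
      have h5 : (0 : ℝ) < A ^ 14 := by positivity
      nlinarith
  · intro q hq
    obtain ⟨g1, g2, g3, g4, g5⟩ := Finset.mem_filter.1 hq
    obtain ⟨a1, a2⟩ := Finset.mem_product.1 g1
    obtain ⟨a3, a4⟩ := Finset.mem_product.1 a2
    exact ⟨a1, a3, a4, floor_eq_close hh0 g4⟩
  · intro k hk l hl
    by_cases hne : (T.filter fun q => (q.1 = k ∧ q.2.1 = l) ∧ |c q.2.2 - c l| ≤ t).Nonempty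
    swap
    · rw [Finset.not_nonempty_iff_eq_empty] at hne
      rw [hne]
      simp
      positivity
    obtain ⟨q0, hq0⟩ := hne
    obtain ⟨a0, ⟨a1, a2⟩, a3⟩ := Finset.mem_filter.1 hq0
    obtain ⟨g1, g2, g3, g4, g5⟩ := Finset.mem_filter.1 a0
    rw [a1, a2] at g2
    have hlI : (l, k) ∈ I := D.gsub (hS g2)
    have h1 : ((T.filter fun q => (q.1 = k ∧ q.2.1 = l) ∧ |c q.2.2 - c l| ≤ t).card : ℝ) ≤
        ((L.filter fun l' => (l', k) ∈ I ∧ |(x l' + z k * c l') - (x l + z k * c l)| ≤ 2 * δ ∧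
          |c l' - c l| ≤ t).card : ℝ) := by
      have h2 : (T.filter fun q => (q.1 = k ∧ q.2.1 = l) ∧ |c q.2.2 - c l| ≤ t).card ≤
          ((T.filter fun q => (q.1 = k ∧ q.2.1 = l) ∧ |c q.2.2 - c l| ≤ t).image
            fun q => q.2.2).card := by
        rw [Finset.card_image_of_injOn]
        intro q hq q' hq' hqq
        obtain ⟨_, ⟨b1, b2⟩, _⟩ := Finset.mem_filter.1 hq
        obtain ⟨_, ⟨c1, c2⟩, _⟩ := Finset.mem_filter.1 hq'
        exact Prod.ext (b1.trans c1.symm) (Prod.ext (b2.trans c2.symm) hqq)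
      have h3 : (((T.filter fun q => (q.1 = k ∧ q.2.1 = l) ∧ |c q.2.2 - c l| ≤ t).image
            fun q => q.2.2)) ⊆ (L.filter fun l' => (l', k) ∈ I ∧
            |(x l' + z k * c l') - (x l + z k * c l)| ≤ 2 * δ ∧ |c l' - c l| ≤ t) := by
        intro l' hl'
        obtain ⟨q, hq, rfl⟩ := Finset.mem_image.1 hl'
        obtain ⟨b0, ⟨b1, b2⟩, b3⟩ := Finset.mem_filter.1 hq
        obtain ⟨d1, d2, d3, d4, d5⟩ := Finset.mem_filter.1 b0
        obtain ⟨_, d6⟩ := Finset.mem_product.1 d1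
        refine Finset.mem_filter.2 ⟨(Finset.mem_product.1 d6).2, ?_, ?_, b3⟩
        · rw [← b1]; exact D.gsub (hS d3)
        · have := floor_eq_close hh0 d4
          rw [b1, b2] at this
          refine this.trans ?_
          rw [hh]; linarith
      exact_mod_cast h2.trans (Finset.card_le_card h3)
    refine h1.trans ((D.up l k hlI t hδt (by linarith)).trans ?_)
    rw [htm]
    have h4 : A * (A ^ 15)⁻¹ ≤ (A ^ 13)⁻¹ / 2 := by
      have e : A * (A ^ 15)⁻¹ = 1 / A ^ 14 := by field_simp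
      rw [e, inv_eq_one_div, div_div, div_le_div_iff₀ (by positivity) (by positivity)]
      have : (0 : ℝ) < A ^ 13 := by positivity
      nlinarith
    calc A * δ * (A ^ 15)⁻¹ * (L.card : ℝ) = h * (L.card : ℝ) * (A * (A ^ 15)⁻¹) := by rw [hh]; ring
      _ ≤ h * (L.card : ℝ) * ((A ^ 13)⁻¹ / 2) := mul_le_mul_of_nonneg_left h4 (by positivity)
      _ = _ := by ring
  · intro k hk
    have h1 : δ ≤ 2 * h / t := by
      rw [le_div_iff₀ ht0]
      have : δ * t ≤ δ * 1 := mul_le_mul_of_nonneg_left ht1 hδ.le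
      rw [hh]; nlinarith
    have h2 : 2 * h / t ≤ 1 := by
      rw [ht, div_inv_eq_mul, hh]
      refine le_trans ?_ hsm
      have : 2 * δ * A ^ (15 / m) = 2 * (A ^ (15 / m) * δ) := by ring
      rw [this]
      have e : A ^ 20 * A ^ (15 / m) * δ = A ^ 20 * (A ^ (15 / m) * δ) := by ring
      rw [e]
      exact mul_le_mul_of_nonneg_right (by linarith) (by positivity)
    exact D.frost k hk _ h1 h2

end Crest.Agent.R136.RgE344
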