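import Crest.Agent.R136.RgE4_344

/-!
# R136 (S0187): RIG_E, finite combinatorics V (helper344): COH, conclusion
-/

set_option autoImplicit false
set_option linter.unusedVariables false

open Finset

namespace Crest.Agent.R136.RgE344

/-- popular values in every pencil, then one parity class of the mesh cells: the value `o k l` is
determined by the `X`-cell -/
theorem pop_all {A δ ϖ : ℝ} (hA : 0 < A) (hδ : 0 < δ) (hϖ : 0 < ϖ) (L Z : Finset ℕ)
    (hL : L.Nonempty) (I S : Finset (ℕ × ℕ)) (hI : I ⊆ L ×ˢ Z) (hS : S ⊆ I) (X : ℕ → ℕ → ℝ)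
    (o : ℕ → ℕ → ℝ) (H : ℕ → ℕ → Finset ℕ)
    (hcard : ∀ i k, (i, k) ∈ I → ((L.filter fun l => (l, k) ∈ I ∧ |X k l - X k i| ≤ 2 * δ).card : ℝ) ≤
      2 * A * δ * (L.card : ℝ))
    (hsub : ∀ i k, (i, k) ∈ S → H i k ⊆ L.filter fun l => (l, k) ∈ I)
    (hHc : ∀ i k, (i, k) ∈ S → δ * (L.card : ℝ) ≤ A * ((H i k).card : ℝ))
    (hHX : ∀ i k, (i, k) ∈ S → ∀ l ∈ H i k, |X k l - X k i| ≤ δ)
    (hHo : ∀ i k, (i, k) ∈ S → ∀ l ∈ H i k, |o k l - o k i| ≤ ϖ) :
    ∃ S' ⊆ S, (S.card : ℝ) ≤ 12 * A ^ 2 * (S'.card : ℝ) ∧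
      ∀ k i l, (i, k) ∈ S' → (l, k) ∈ S' → |X k l - X k i| ≤ δ → |o k l - o k i| ≤ ϖ := by
  classical
  have hL0 : (0 : ℝ) < L.card := by exact_mod_cast hL.card_pos
  obtain ⟨h, hh⟩ : ∃ h : ℝ, h = δ := ⟨δ, rfl⟩
  have hh0 : 0 < h := by rw [hh]; exact hδ
  set cell : ℕ → ℕ → ℤ := fun k l => ⌊X k l / h⌋ with hcell
  have hSL : S ⊆ L ×ˢ Z := hS.trans hI
  set P : ℕ × ℤ → Finset ℕ := fun ka => L.filter fun i => (i, ka.1) ∈ S ∧ cell ka.1 i = ka.2 with hP
  set KA := S.image (fun q => (q.2, cell q.2 q.1)) with hKA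
  have hPcard : (S.card : ℝ) = ∑ ka ∈ KA, ((P ka).card : ℝ) := card_pencils L Z S hSL cell
  -- popular value in every pencil
  have hpop : ∀ ka : ℕ × ℤ, ∃ P' ⊆ P ka, ((P ka).card : ℝ) ≤ 6 * A ^ 2 * (P'.card : ℝ) ∧
      ∀ i ∈ P', ∀ i' ∈ P', |o ka.1 i' - o ka.1 i| ≤ ϖ := by
    intro ka
    rcases (P ka).eq_empty_or_nonempty with he | ⟨i0, hi0⟩
    · exact ⟨∅, Finset.empty_subset _, by rw [he]; simp, by simp⟩
    obtain ⟨i0L, i0S, i0c⟩ := Finset.mem_filter.1 hi0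
    set Q := L.filter fun l => (l, ka.1) ∈ I ∧ |X ka.1 l - X ka.1 i0| ≤ 2 * δ with hQ
    have hQc : (Q.card : ℝ) ≤ 2 * A * δ * L.card := hcard i0 ka.1 (hS i0S)
    obtain ⟨P', hP'1, hP'2, hP'3⟩ := pop_val (P ka) Q (o ka.1) (w := ϖ) (h := δ * L.card / A) hϖ
      (by positivity) (by
        intro i hi
        obtain ⟨iL, iS, ic⟩ := Finset.mem_filter.1 hi
        have g1 : δ * (L.card : ℝ) / A ≤ ((H i ka.1).card : ℝ) := by
          rw [div_le_iff₀ hA]
          have := hHc i ka.1 iS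
          linarith
        refine g1.trans ?_
        refine mod_cast Finset.card_le_card fun l hl => ?_
        obtain ⟨g2, g3⟩ := Finset.mem_filter.1 (hsub i ka.1 iS hl)
        refine Finset.mem_filter.2 ⟨Finset.mem_filter.2 ⟨g2, g3, ?_⟩, hHo i ka.1 iS l hl⟩
        have g4 := hHX i ka.1 iS l hl
        have g5 : |X ka.1 i - X ka.1 i0| ≤ h := floor_eq_close hh0 (i0c.trans ic.symm)
        rw [abs_le] at g4 g5 ⊢
        constructor <;> linarith [g4.1, g4.2, g5.1, g5.2])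
    refine ⟨P', hP'1, ?_, hP'3⟩
    have g1 : δ * L.card / A * ((P ka).card : ℝ) ≤ 3 * (2 * A * δ * L.card) * (P'.card : ℝ) :=
      hP'2.trans (mul_le_mul_of_nonneg_right (mul_le_mul_of_nonneg_left hQc (by norm_num))
        (Nat.cast_nonneg _))
    have g2 : δ * L.card / A * ((P ka).card : ℝ) = (δ * L.card) * ((P ka).card : ℝ) / A := by ring
    rw [g2, div_le_iff₀ hA] at g1
    have g3 : (δ * L.card) * ((P ka).card : ℝ) ≤ (δ * L.card) * (6 * A ^ 2 * (P'.card : ℝ)) := by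
      refine g1.trans (le_of_eq ?_)
      ring
    exact le_of_mul_le_mul_left g3 (by positivity)
  choose P' hP'1 hP'2 hP'3 using hpop
  set S4 := S.filter fun q => q.1 ∈ P' (q.2, cell q.2 q.1) with hS4
  have hS4c : (S.card : ℝ) ≤ 6 * A ^ 2 * (S4.card : ℝ) := by
    have e1 : S4.card = ∑ ka ∈ KA, (S4.filter fun q => (q.2, cell q.2 q.1) = ka).card :=
      Finset.card_eq_sum_card_fiberwise fun q hq =>
        Finset.mem_image_of_mem _ (Finset.mem_filter.1 hq).1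
    rw [hPcard, e1]
    push_cast
    rw [Finset.mul_sum]
    refine Finset.sum_le_sum fun ka _ => (hP'2 ka).trans ?_
    refine mul_le_mul_of_nonneg_left ?_ (by positivity)
    have e2 : (P' ka).image (fun i => ((i, ka.1) : ℕ × ℕ)) ⊆
        S4.filter fun q => (q.2, cell q.2 q.1) = ka := by
      intro q hq
      obtain ⟨i, hi, rfl⟩ := Finset.mem_image.1 hq
      obtain ⟨g1, g2, g3⟩ := Finset.mem_filter.1 (hP'1 ka hi)
      have g4 : ((ka.1, cell ka.1 i) : ℕ × ℤ) = ka := Prod.ext rfl g3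
      refine Finset.mem_filter.2 ⟨Finset.mem_filter.2 ⟨g2, ?_⟩, g4⟩
      show i ∈ P' (ka.1, cell ka.1 i)
      rw [g4]; exact hi
    have e3 := Finset.card_le_card e2
    rw [Finset.card_image_of_injective _ (fun a b hab => (Prod.ext_iff.1 hab).1)] at e3
    exact_mod_cast e3
  -- parity
  have hval : ∀ k i l, (i, k) ∈ S4 → (l, k) ∈ S4 → cell k i = cell k l → |o k l - o k i| ≤ ϖ := by
    intro k i l hi hl hc
    have g1 := (Finset.mem_filter.1 hi).2
    have g2 := (Finset.mem_filter.1 hl).2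
    simp only at g1 g2
    rw [← hc] at g2
    exact hP'3 (k, cell k i) i g1 l g2
  have hpar : ∀ p : ℤ → Prop, [DecidablePred p] → (∀ a b : ℤ, p a → p b → |a - b| ≤ 1 → a = b) →
      ∀ k i l, (i, k) ∈ S4.filter (fun q => p (cell q.2 q.1)) →
        (l, k) ∈ S4.filter (fun q => p (cell q.2 q.1)) →
        |X k l - X k i| ≤ δ → |o k l - o k i| ≤ ϖ := by
    intro p _ hp k i l hi hl hX
    obtain ⟨i1, i2⟩ := Finset.mem_filter.1 hi
    obtain ⟨l1, l2⟩ := Finset.mem_filter.1 hl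
    refine hval k i l i1 l1 (hp _ _ i2 l2 ?_)
    have g0 : |X k l / h - X k i / h| ≤ 1 := by
      rw [← sub_div, abs_div, abs_of_pos hh0, div_le_one hh0, hh]
      exact hX
    rw [abs_le] at g0
    have g1 : ⌊X k l / h⌋ ≤ ⌊X k i / h⌋ + 1 := by
      rw [← Int.floor_add_one]
      exact Int.floor_le_floor (by linarith [g0.2])
    have g2 : ⌊X k i / h⌋ ≤ ⌊X k l / h⌋ + 1 := by
      rw [← Int.floor_add_one]
      exact Int.floor_le_floor (by linarith [g0.1])
    rw [abs_le]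
    constructor
    · show -1 ≤ ⌊X k i / h⌋ - ⌊X k l / h⌋
      omega
    · show ⌊X k i / h⌋ - ⌊X k l / h⌋ ≤ 1
      omega
  have hsplit : (S4.card : ℝ) = ((S4.filter fun q => Even (cell q.2 q.1)).card : ℝ) +
      ((S4.filter fun q => ¬ Even (cell q.2 q.1)).card : ℝ) := by
    exact_mod_cast (Finset.card_filter_add_card_filter_not (s := S4)
      (fun q => Even (cell q.2 q.1))).symm
  rcases le_total ((S4.filter fun q => ¬ Even (cell q.2 q.1)).card : ℝ)
    ((S4.filter fun q => Even (cell q.2 q.1)).card : ℝ) with hle | hle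
  · refine ⟨S4.filter fun q => Even (cell q.2 q.1),
      (Finset.filter_subset _ _).trans (Finset.filter_subset _ _), ?_, ?_⟩
    · refine hS4c.trans ?_
      have : (S4.card : ℝ) ≤ 2 * ((S4.filter fun q => Even (cell q.2 q.1)).card : ℝ) := by linarith
      calc 6 * A ^ 2 * (S4.card : ℝ) ≤ 6 * A ^ 2 * (2 * ((S4.filter fun q =>
            Even (cell q.2 q.1)).card : ℝ)) := mul_le_mul_of_nonneg_left this (by positivity)
        _ = _ := by ring
    · refine hpar (fun a => Even a) ?_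
      intro a b ha hb hab
      obtain ⟨r, rfl⟩ := ha
      obtain ⟨s, rfl⟩ := hb
      rw [abs_le] at hab
      omega
  · refine ⟨S4.filter fun q => ¬ Even (cell q.2 q.1),
      (Finset.filter_subset _ _).trans (Finset.filter_subset _ _), ?_, ?_⟩
    · refine hS4c.trans ?_
      have : (S4.card : ℝ) ≤ 2 * ((S4.filter fun q => ¬ Even (cell q.2 q.1)).card : ℝ) := by
        linarith
      calc 6 * A ^ 2 * (S4.card : ℝ) ≤ 6 * A ^ 2 * (2 * ((S4.filter fun q =>
            ¬ Even (cell q.2 q.1)).card : ℝ)) := mul_le_mul_of_nonneg_left this (by positivity)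
        _ = _ := by ring
    · refine hpar (fun a => ¬ Even a) ?_
      intro a b ha hb hab
      rw [Int.not_even_iff_odd] at ha hb
      obtain ⟨r, rfl⟩ := ha
      obtain ⟨s, rfl⟩ := hb
      rw [abs_le] at hab
      omega

/-- a strip around `i` for one normal is a strip for a nearby normal -/
theorem turn_strip {u b D : Fin 2 → ℝ} {s t M : ℝ} (hu : u 0 ^ 2 + u 1 ^ 2 = 1)
    (hb : b 0 ^ 2 + b 1 ^ 2 = 1) (hdet : |u 0 * b 1 - u 1 * b 0| ≤ s)
    (hD : |b 0 * D 0 + b 1 * D 1| ≤ t) (hM : ∀ j, |D j| ≤ M) :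
    |u 0 * D 0 + u 1 * D 1| ≤ t + s * (2 * M) := by
  have hle : ∀ {b : Fin 2 → ℝ}, b 0 ^ 2 + b 1 ^ 2 = 1 → ∀ j, |b j| ≤ 1 := by
    intro b hb j
    rw [← sq_le_one_iff_abs_le_one]
    fin_cases j
    · show b 0 ^ 2 ≤ 1
      nlinarith [sq_nonneg (b 1)]
    · show b 1 ^ 2 ≤ 1
      nlinarith [sq_nonneg (b 0)]
  have hs0 : 0 ≤ s := (abs_nonneg _).trans hdet
  have ht0 : 0 ≤ t := (abs_nonneg _).trans hD
  have hM0 : 0 ≤ M := (abs_nonneg _).trans (hM 0)
  have e1 : u 0 * D 0 + u 1 * D 1 = (u 0 * b 0 + u 1 * b 1) * (b 0 * D 0 + b 1 * D 1) +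
      (u 0 * b 1 - u 1 * b 0) * (b 1 * D 0 - b 0 * D 1) := by
    have : u 0 * D 0 + u 1 * D 1 = (b 0 ^ 2 + b 1 ^ 2) * (u 0 * D 0 + u 1 * D 1) := by
      rw [hb, one_mul]
    rw [this]; ring
  have h1 : |u 0 * b 0 + u 1 * b 1| ≤ 1 := by
    rw [← sq_le_one_iff_abs_le_one]
    nlinarith [sq_nonneg (u 0 * b 1 - u 1 * b 0)]
  have h2 : |b 1 * D 0 - b 0 * D 1| ≤ 2 * M := by
    refine (abs_sub _ _).trans ?_
    rw [abs_mul, abs_mul]
    have a1 : |b 1| * |D 0| ≤ 1 * M := mul_le_mul (hle hb 1) (hM 0) (abs_nonneg _) (by norm_num)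
    have a2 : |b 0| * |D 1| ≤ 1 * M := mul_le_mul (hle hb 0) (hM 1) (abs_nonneg _) (by norm_num)
    linarith
  rw [e1]
  refine (abs_add_le _ _).trans ?_
  rw [abs_mul, abs_mul]
  have a1 : |u 0 * b 0 + u 1 * b 1| * |b 0 * D 0 + b 1 * D 1| ≤ 1 * t :=
    mul_le_mul h1 hD (abs_nonneg _) (by norm_num)
  have a2 : |u 0 * b 1 - u 1 * b 0| * |b 1 * D 0 - b 0 * D 1| ≤ s * (2 * M) :=
    mul_le_mul hdet h2 (abs_nonneg _) hs0
  linarith

variable {A δ m β : ℝ} {L Z : Finset ℕ} {I Ig : Finset (ℕ × ℕ)} {z x c : ℕ → ℝ}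
    {w e b : ℕ → Fin 2 → ℝ} {H : ℕ → ℕ → Finset ℕ}

set_option maxHeartbeats 1000000 in
/-- **COH**: one normal for a dense set of incidences -/
theorem coh (D : CohData A δ m β L Z I Ig z x c w e b H) :
    ∃ (u : Fin 2 → ℝ) (I' : Finset (ℕ × ℕ)), u 0 ^ 2 + u 1 ^ 2 = 1 ∧ I' ⊆ Ig ∧
      (L.card : ℝ) * (Z.card : ℝ) ≤ A ^ (24 + 15 / m) * (I'.card : ℝ) ∧
      ∀ k i l, (i, k) ∈ I' → (l, k) ∈ I' →
        |(x l + z k * c l) - (x i + z k * c i)| ≤ δ →
        |(u 0 * w l 0 + u 1 * w l 1 - (u 0 * e k 0 + u 1 * e k 1) * c l) -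
          (u 0 * w i 0 + u 1 * w i 1 - (u 0 * e k 0 + u 1 * e k 1) * c i)| ≤
            A ^ (7 + 6 / β) * δ := by
  classical
  have hA2 := D.A2
  have hA0 : 0 < A := by linarith
  have hA1 : 1 ≤ A := by linarith
  have hδ := D.δ0
  have hm0 := D.m0
  have hm1 := D.m1
  have hL0 : (0 : ℝ) < L.card := by exact_mod_cast D.L0.card_pos
  have hZ0 : (0 : ℝ) < Z.card := by exact_mod_cast D.Z0.card_pos
  obtain ⟨L1, hL1, hdeg, hdens⟩ := prune_lines L Z Ig (D.gsub.trans D.sub) hA0 D.dens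
  obtain ⟨W, hW1, hW2⟩ := coh_pairs D (Ig.filter fun q => q.1 ∈ L1) (Finset.filter_subset _ _) hdens
  set K : ℝ := 16 + 15 / m with hK
  set ϖ := A ^ (3 + 6 / β) * δ with hϖ
  have hAK : (0 : ℝ) < A ^ K := Real.rpow_pos_of_pos hA0 _
  have hWL : ∀ q ∈ W, q.1 ∈ L1 ∧ q.2 ∈ L1 := by
    intro q hq
    obtain ⟨⟨k, hk⟩, ⟨k', hk'⟩, _⟩ := hW1 q hq
    exact ⟨(Finset.mem_filter.1 hk).2, (Finset.mem_filter.1 hk').2⟩
  -- a popular line
  obtain ⟨i0, hi0L, hi0⟩ : ∃ i0 ∈ L, (L.card : ℝ) ≤ A ^ K * ((W.filter fun q => q.1 = i0).card : ℝ) := by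
    by_contra hcon
    push Not at hcon
    have e1 : (W.card : ℝ) = ∑ i ∈ L, ((W.filter fun q => q.1 = i).card : ℝ) := by
      have : W.card = ∑ i ∈ L, (W.filter fun q => q.1 = i).card :=
        Finset.card_eq_sum_card_fiberwise fun q hq => hL1 (hWL q hq).1
      rw [this]; push_cast; rfl
    have e2 : ∑ i ∈ L, A ^ K * ((W.filter fun q => q.1 = i).card : ℝ) < ∑ _i ∈ L, (L.card : ℝ) :=
      Finset.sum_lt_sum_of_nonempty D.L0 hcon
    rw [← Finset.mul_sum, ← e1, Finset.sum_const, nsmul_eq_mul] at e2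
    have : (L.card : ℝ) ^ 2 = L.card * L.card := sq _
    linarith
  set u := b i0 with hu
  have hu1 : u 0 ^ 2 + u 1 ^ 2 = 1 := D.unit i0
  set L2 := L1.filter fun l => |u 0 * b l 1 - u 1 * b l 0| ≤ ϖ with hL2
  have hL2c : (L.card : ℝ) ≤ A ^ K * (L2.card : ℝ) := by
    refine hi0.trans (mul_le_mul_of_nonneg_left ?_ hAK.le)
    have h1 : ((W.filter fun q => q.1 = i0).image fun q => q.2) ⊆ L2 := by
      intro l hl
      obtain ⟨q, hq, rfl⟩ := Finset.mem_image.1 hl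
      obtain ⟨g1, g2⟩ := Finset.mem_filter.1 hq
      refine Finset.mem_filter.2 ⟨(hWL q g1).2, ?_⟩
      have := (hW1 q g1).2.2
      rw [g2] at this
      exact this
    have h2 := Finset.card_le_card h1
    rw [Finset.card_image_of_injOn] at h2
    · exact_mod_cast h2
    · intro q hq q' hq' hqq
      exact Prod.ext ((Finset.mem_filter.1 hq).2.trans (Finset.mem_filter.1 hq').2.symm) hqq
  set I3 := Ig.filter fun q => q.1 ∈ L2 with hI3
  have hI3c : (L.card : ℝ) * (Z.card : ℝ) ≤ A ^ (K + 2) * (I3.card : ℝ) := by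
    have h1 := card_restr Z Ig L2 (A := A) (fun l hl => hdeg l (Finset.mem_filter.1 hl).1)
    calc (L.card : ℝ) * (Z.card : ℝ) ≤ (A ^ K * (L2.card : ℝ)) * Z.card :=
          mul_le_mul_of_nonneg_right hL2c hZ0.le
      _ = A ^ K * ((L2.card : ℝ) * Z.card) := by ring
      _ ≤ A ^ K * (2 * A * (I3.card : ℝ)) := mul_le_mul_of_nonneg_left h1 hAK.le
      _ = (A ^ K * (2 * A)) * (I3.card : ℝ) := by ring
      _ ≤ _ := by
        refine mul_le_mul_of_nonneg_right ?_ (Nat.cast_nonneg _)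
        have e3 : A ^ (K + 2) = A ^ K * A ^ 2 := by
          rw [Real.rpow_add hA0 K 2]; norm_num
        rw [e3]
        refine mul_le_mul_of_nonneg_left ?_ hAK.le
        nlinarith
  -- strips around every line of `I3` for the common normal
  set o : ℕ → ℕ → ℝ := fun k l => u 0 * w l 0 + u 1 * w l 1 - (u 0 * e k 0 + u 1 * e k 1) * c l with ho
  have hodv : ∀ k i l, o k l - o k i = u 0 * dv w c (e k) i l 0 + u 1 * dv w c (e k) i l 1 := by
    intro k i l
    simp only [ho, dv]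
    ring
  have hpow : (1 : ℝ) ≤ A ^ (3 + 6 / β) := Real.one_le_rpow hA1 (by
    have := D.β0
    positivity)
  have hpow2 : A ^ (7 + 6 / β) = A ^ 4 * A ^ (3 + 6 / β) := by
    rw [show (7 : ℝ) + 6 / β = 4 + (3 + 6 / β) by ring, Real.rpow_add hA0]
    norm_num
  have hA4 : (16 : ℝ) ≤ A ^ 4 := by
    have : (2 : ℝ) ^ 4 ≤ A ^ 4 := pow_le_pow_left₀ (by norm_num) hA2 4
    norm_num at this
    exact this
  have hpop := pop_all (ϖ := A ^ (7 + 6 / β) * δ) hA0 hδ (by positivity) L Z D.L0 I I3 D.sub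
    ((Finset.filter_subset _ _).trans D.gsub) (fun k l => x l + z k * c l) o H ?_ ?_ ?_ ?_ ?_
  · obtain ⟨I', hI'1, hI'2, hI'3⟩ := hpop
    refine ⟨u, I', hu1, hI'1.trans (Finset.filter_subset _ _), ?_, hI'3⟩
    calc (L.card : ℝ) * (Z.card : ℝ) ≤ A ^ (K + 2) * (I3.card : ℝ) := hI3c
      _ ≤ A ^ (K + 2) * (12 * A ^ 2 * (I'.card : ℝ)) :=
          mul_le_mul_of_nonneg_left hI'2 (by positivity)
      _ = (A ^ (K + 2) * (12 * A ^ 2)) * (I'.card : ℝ) := by ring
      _ ≤ _ := by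
        refine mul_le_mul_of_nonneg_right ?_ (Nat.cast_nonneg _)
        have e1 : (24 : ℝ) + 15 / m = (K + 2) + 6 := by rw [hK]; ring
        rw [e1, Real.rpow_add hA0 (K + 2) 6]
        refine mul_le_mul_of_nonneg_left ?_ (Real.rpow_pos_of_pos hA0 _).le
        have e2 : A ^ (6 : ℝ) = A ^ 4 * A ^ 2 := by
          rw [show (6 : ℝ) = ((6 : ℕ) : ℝ) by norm_num, Real.rpow_natCast]
          ring
        rw [e2]
        refine mul_le_mul_of_nonneg_right ?_ (by positivity)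
        linarith
  · intro i k hik
    have hiL := (Finset.mem_product.1 (D.sub hik)).1
    have h2m : (2 : ℝ) ^ m ≤ 2 := by
      calc (2 : ℝ) ^ m ≤ 2 ^ (1 : ℝ) := Real.rpow_le_rpow_of_exponent_le (by norm_num) hm1
        _ = 2 := Real.rpow_one 2
    have hδ2 : δ ≤ 2 := by
      have h1 := D.small1
      nlinarith
    have h1 := D.up i k hik 2 hδ2 le_rfl
    refine le_trans ?_ (h1.trans ?_)
    · refine mod_cast Finset.card_le_card fun l hl => ?_
      obtain ⟨g1, g2, g3⟩ := Finset.mem_filter.1 hl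
      refine Finset.mem_filter.2 ⟨g1, g2, g3, ?_⟩
      have a1 := (D.bc l g1).1
      have a2 := (D.bc i hiL).1
      exact (abs_sub _ _).trans (by linarith)
    · calc A * δ * 2 ^ m * (L.card : ℝ) ≤ A * δ * 2 * (L.card : ℝ) := by gcongr
        _ = _ := by ring
  · intro i k hik
    exact D.H_sub i k (Finset.mem_filter.1 hik).1
  · intro i k hik
    exact D.H_card i k (Finset.mem_filter.1 hik).1
  · intro i k hik
    exact D.H_X i k (Finset.mem_filter.1 hik).1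
  · intro i k hik l hl
    obtain ⟨g1, g2⟩ := Finset.mem_filter.1 hik
    obtain ⟨g3, g4⟩ := Finset.mem_filter.1 g2
    have hikI := D.gsub g1
    obtain ⟨hiL, hkZ⟩ := Finset.mem_product.1 (D.sub hikI)
    obtain ⟨g5, g6⟩ := Finset.mem_filter.1 (D.H_sub i k g1 hl)
    rw [hodv]
    have h1 := turn_strip (M := 6) hu1 (D.unit i) g4 (D.H_b i k g1 l hl) (by
      intro j
      unfold dv
      have a1 := (D.bc l g5).2 j
      have a2 := (D.bc i hiL).2 j
      have a3 := (D.bc l g5).1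
      have a4 := (D.bc i hiL).1
      have a5 := D.be k hkZ j
      have a6 : |c l - c i| ≤ 2 := (abs_sub _ _).trans (by linarith)
      have a7 : |e k j * (c l - c i)| ≤ 2 * 2 := by
        rw [abs_mul]
        exact mul_le_mul a5 a6 (abs_nonneg _) (by norm_num)
      have a8 : |w l j - w i j| ≤ 2 := (abs_sub _ _).trans (by linarith)
      exact (abs_sub _ _).trans (by linarith))
    refine h1.trans ?_
    rw [hpow2, hϖ]
    have h2 : A * δ ≤ A ^ (3 + 6 / β) * δ := by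
      refine mul_le_mul_of_nonneg_right ?_ hδ.le
      calc A = A ^ (1 : ℝ) := (Real.rpow_one A).symm
        _ ≤ _ := Real.rpow_le_rpow_of_exponent_le hA1 (by
          have := D.β0
          have : 0 ≤ 6 / β := by positivity
          linarith)
    have h3 : 13 * (A ^ (3 + 6 / β) * δ) ≤ A ^ 4 * (A ^ (3 + 6 / β) * δ) :=
      mul_le_mul_of_nonneg_right (by linarith) (by positivity)
    nlinarith

end Crest.Agent.R136.RgE344
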