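import Crest.Agent.R136.WkN_344

/-!
# R136 (S0187): RIG_E, definitions and literals (helper344)

Case (E): `θ₂ = θ₃`, slots 21 and 31 tied.  All flags are level slots (heights `k` = cells of
`(z, E, F_a, F_b)`).  `W = (X_b, N)`, `W' = (C_b, P)`; `e k = (E, f_a + f_b E)`.
-/

set_option autoImplicit false
set_option linter.unusedVariables false

open Filter Topology Finset

namespace Crest.Agent.R136.RgE344

open Crest.Agent.R136.Sh605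
open Crest.Agent.R138.Ex926 (Base U)
open Crest.Agent.R136.Gf356
open Crest.Agent.R136.Wk323 (coA)

/-- a window of case (E) in absolute coordinates: straight lines `T n l`, flags are functions of the
level cell `k` -/
structure AbsE (B : Base) (G : ℕ → RCfg (Fin 11)) (x : ℝ) (T : ℕ → ℕ → Ln4)
    (E fa fb : ℕ → ℕ → ℝ) : Prop where
  bd : ∀ᶠ n in (U : Filter ℕ), ∀ l k, (l, k) ∈ (G n).I → |(G n).z k| ≤ 1 ∧
    (∀ j, |(T n l).pos ((G n).z k) j| ≤ 1) ∧ (∀ j, |(T n l).v j| ≤ 1) ∧ |E n k| ≤ 1 ∧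
      |fa n k| ≤ 1 ∧ |fb n k| ≤ 1
  bdr : ∀ᶠ n in (U : Filter ℕ), ∀ k i l, (i, k) ∈ (G n).I → (l, k) ∈ (G n).I →
    ∀ s, |(G n).rel k i l s| ≤ 1
  rel : ∀ ε : ℝ, 0 < ε → ∀ᶠ n in (U : Filter ℕ), ∀ k i l, (i, k) ∈ (G n).I → (l, k) ∈ (G n).I →
    ∀ s ∈ ({5, 6, 7, 8, 9, 10} : Finset (Fin 11)),
      |(G n).rel k i l s - coA (T n i) (T n l) (E n k) (E n k) (fa n k) (fa n k) (fb n k)
        ((G n).z k) s| ≤ B.d n ^ (x - ε)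

/-- box exponents: `X_a : a`, `W = (X_b, N) : b`, `C_a : c`, `W' = (C_b, P) : d` -/
def qE (a b c d : ℝ) : Fin 11 → ℝ := ![0, 0, 0, 0, 0, c, d, d, a, b, b]

/-- the profile of a window of case (E): `X_a` full, `W` of rate `y < 2`, `C_a` of rate `m > 0`,
`W'` of rate `β` given `X_a` -/
structure ProfE (Leg : Set (Fin 11 → ℝ)) (ν : (Fin 11 → ℝ) → ℝ) (x y m β : ℝ) : Prop where
  x0 : 0 < x
  y0 : 0 ≤ y
  y2 : y < 2
  m0 : 0 < m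
  m1 : m ≤ 1
  β0 : 0 ≤ β
  leg : ∀ a b c d : ℝ, 0 ≤ a → a ≤ x → 0 ≤ b → b ≤ x → 0 ≤ c → c ≤ x → 0 ≤ d → d ≤ x →
    qE a b c d ∈ Leg
  form : ∀ a b c d : ℝ, 0 ≤ d → d ≤ a → a ≤ x → 0 ≤ b → b ≤ x → 0 ≤ c → c ≤ x →
    ν (qE a b c d) = ν (qE 0 0 0 0) - (a + y * b + m * c + β * d)

/-- position slope vector at the level cell `k` -/
def eE (E fa fb : ℕ → ℕ → ℝ) (n k : ℕ) : Fin 2 → ℝ := ![E n k, fa n k + fb n k * E n k]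

/-- velocity vector in the block -/
def wE (T : ℕ → ℕ → Ln4) (n l : ℕ) : Fin 2 → ℝ := ![(T n l).v 2, (T n l).v 0]

/-- relative block velocity `W'` of `l` seen from `i` at the level cell `k` -/
def dE (T : ℕ → ℕ → Ln4) (E fa fb : ℕ → ℕ → ℝ) (n k i l : ℕ) : Fin 2 → ℝ := fun j =>
  (wE T n l j - wE T n i j) - eE E fa fb n k j * ((T n l).v 1 - (T n i).v 1)

/-- **target**: RIG_E -/
def RigE : Prop :=
  ∀ (B : Base) (G : ℕ → RCfg (Fin 11)) (Leg : Set (Fin 11 → ℝ)) (ν : (Fin 11 → ℝ) → ℝ)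
    (D R x y m β : ℝ) (T : ℕ → ℕ → Ln4) (E fa fb : ℕ → ℕ → ℝ),
    RModel B G 1 R Leg ν D → x ≤ R → AbsE B G x T E fa fb → ProfE Leg ν x y m β →
    ∃ θ : ℝ, 0 < θ ∧ ∀ ε : ℝ, 0 < ε → ∀ᶠ n in (U : Filter ℕ), ∃ (u : Fin 2 → ℝ) (e0 c0 : ℝ),
      u 0 ^ 2 + u 1 ^ 2 = 1 ∧ ∃ I' ⊆ (G n).I, B.d n ^ ε * ((G n).I.card : ℝ) ≤ (I'.card : ℝ) ∧
        ∀ l k, (l, k) ∈ I' →
          |u 0 * eE E fa fb n k 0 + u 1 * eE E fa fb n k 1 - e0| ≤ B.d n ^ θ ∧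
          |u 0 * wE T n l 0 + u 1 * wE T n l 1 - e0 * (T n l).v 1 - c0| ≤ B.d n ^ θ

/-- **heavy strips** (piece for 356): from `strip_alt_R`; every line `i` has a unit normal `b i`
such that at most heights of `i` a `ρ^ε`-part of its `X`-pencil lies in the strip around `i`.
`s < x (1 - y/2)`. -/
def StripsE (B : Base) (G : ℕ → RCfg (Fin 11)) (s : ℝ) (T : ℕ → ℕ → Ln4) (E fa fb : ℕ → ℕ → ℝ) :
    Prop :=
  ∀ ε : ℝ, 0 < ε → ∀ᶠ n in (U : Filter ℕ), ∃ (b : ℕ → Fin 2 → ℝ) (Ig : Finset (ℕ × ℕ)),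
    (∀ i, b i 0 ^ 2 + b i 1 ^ 2 = 1) ∧ Ig ⊆ (G n).I ∧
    B.d n ^ ε * (((G n).L.card : ℝ) * ((G n).Z.card : ℝ)) ≤ (Ig.card : ℝ) ∧
    ∀ i k, (i, k) ∈ Ig → ∃ H ⊆ (G n).slice k,
      B.d n ^ (s + ε) * ((G n).L.card : ℝ) ≤ (H.card : ℝ) ∧
      ∀ l ∈ H, |(T n l).pos ((G n).z k) 1 - (T n i).pos ((G n).z k) 1| ≤ B.d n ^ (s - ε) ∧
        |b i 0 * dE T E fa fb n k i l 0 + b i 1 * dE T E fa fb n k i l 1| ≤ B.d n ^ (s - ε)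

end Crest.Agent.R136.RgE344
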