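import Crest.Agent.R136.RgE5_344
import Crest.Agent.R136.WkE_344
import Crest.Agent.R136.Prn3_779

/-!
# R136 (S0187): RIG_E, asymptotic wrapper I (helper344): counts of a window of case (E)
-/

set_option autoImplicit false
set_option linter.unusedVariables false
set_option linter.unusedSectionVars false

open Filter Topology Finset

namespace Crest.Agent.R136.RgE344

open Crest.Agent.R136.Sh605
open Crest.Agent.R138.Ex926 (Base U)
open Crest.Agent.R136.Gf356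
open Crest.Agent.R136.RgN344
open Crest.Agent.R136.Wk323 (coA one_le_rpow_neg ev_mul_le)

variable {B : Base} {G : ℕ → RCfg (Fin 11)} {Leg : Set (Fin 11 → ℝ)} {ν : (Fin 11 → ℝ) → ℝ}
  {D R x y m β : ℝ} {T : ℕ → ℕ → Ln4} {E fa fb : ℕ → ℕ → ℝ}

/-! ### uniformity in a real parameter -/

theorem ev_grid {s η : ℝ} (hs : 0 ≤ s) (hη : 0 < η) (Q : ℝ → ℕ → Prop)
    (h : ∀ t, 0 ≤ t → t ≤ s → ∀ᶠ n in (U : Filter ℕ), Q t n) :
    ∀ᶠ n in (U : Filter ℕ), ∀ t, 0 ≤ t → t ≤ s → ∃ t', 0 ≤ t' ∧ t' ≤ t ∧ t ≤ t' + η ∧ Q t' n := by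
  obtain ⟨J, hJ⟩ := exists_nat_gt (s / η)
  have hev : ∀ᶠ n in (U : Filter ℕ), ∀ j ∈ Finset.range (J + 1), η * j ≤ s → Q (η * j) n := by
    rw [Filter.eventually_all_finset]
    intro j hj
    by_cases hjs : η * j ≤ s
    · filter_upwards [h (η * j) (by positivity) hjs] with n hn _ using hn
    · exact Eventually.of_forall fun n hc => absurd hc hjs
  filter_upwards [hev] with n hn t ht0 hts
  have hfl : (⌊t / η⌋₊ : ℝ) ≤ t / η := Nat.floor_le (by positivity)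
  have hfl2 : t / η < (⌊t / η⌋₊ : ℝ) + 1 := Nat.lt_floor_add_one _
  have h1 : η * (⌊t / η⌋₊ : ℝ) ≤ t := by
    rw [le_div_iff₀ hη] at hfl
    linarith
  have h2 : t ≤ η * (⌊t / η⌋₊ : ℝ) + η := by
    rw [div_lt_iff₀ hη] at hfl2
    linarith
  refine ⟨η * ⌊t / η⌋₊, by positivity, h1, h2, hn _ ?_ (h1.trans hts)⟩
  rw [Finset.mem_range]
  have h3 : (⌊t / η⌋₊ : ℝ) < J := by
    refine lt_of_le_of_lt hfl (lt_of_le_of_lt ?_ hJ)
    exact div_le_div_of_nonneg_right hts hη.le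
  have h4 : ⌊t / η⌋₊ < J := by exact_mod_cast h3
  omega

theorem exists_exp (B : Base) (n : ℕ) {s r : ℝ} (hr : B.d n ^ s ≤ r) (hr1 : r ≤ 1) :
    ∃ t, 0 ≤ t ∧ t ≤ s ∧ B.d n ^ t = r := by
  have hr0 : 0 < r := lt_of_lt_of_le (rpos B n s) hr
  have hlogd : Real.log (B.d n) < 0 := Real.log_neg (B.pos n) (B.lt n)
  have hdy : B.d n ^ (Real.log r / Real.log (B.d n)) = r := by
    rw [Real.rpow_def_of_pos (B.pos n), mul_div_cancel₀ _ hlogd.ne, Real.exp_log hr0]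
  refine ⟨Real.log r / Real.log (B.d n), div_nonneg_of_nonpos (Real.log_nonpos hr0.le hr1) hlogd.le,
    ?_, hdy⟩
  by_contra hcon
  push Not at hcon
  have g1 := Real.rpow_lt_rpow_of_exponent_gt (B.pos n) (B.lt n) hcon
  rw [hdy] at g1
  linarith

/-- mesh point for a real number `r` -/
theorem ev_grid_r {s η : ℝ} (hs : 0 ≤ s) (hη : 0 < η) (Q : ℝ → ℕ → Prop)
    (h : ∀ t, 0 ≤ t → t ≤ s → ∀ᶠ n in (U : Filter ℕ), Q t n) :
    ∀ᶠ n in (U : Filter ℕ), ∀ r, B.d n ^ s ≤ r → r ≤ 1 →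
      ∃ t, 0 ≤ t ∧ t ≤ s ∧ r ≤ B.d n ^ t ∧ B.d n ^ t ≤ B.d n ^ (-η) * r ∧ Q t n := by
  filter_upwards [ev_grid hs hη Q h] with n hn r hr hr1
  obtain ⟨t, ht0, hts, rfl⟩ := exists_exp B n hr hr1
  obtain ⟨t', h1, h2, h3, h4⟩ := hn t ht0 hts
  refine ⟨t', h1, h2.trans hts, rpow_anti B n h2, ?_, h4⟩
  rw [← rpow_add']
  exact rpow_anti B n (by linarith)

/-! ### coordinates -/

theorem qE_le {a b c d z : ℝ} (hz : 0 ≤ z) (ha : a ≤ z) (hb : b ≤ z) (hc : c ≤ z) (hd : d ≤ z)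
    (s : Fin 11) : qE a b c d s ≤ z := by
  fin_cases s
  · exact hz
  · exact hz
  · exact hz
  · exact hz
  · exact hz
  · exact hc
  · exact hd
  · exact hd
  · exact ha
  · exact hb
  · exact hb

/-- relative coordinates small ⇒ absolute relative coordinates small -/
theorem AbsE.co_le (A : AbsE B G x T E fa fb) (H : RUnif B G Leg ν D) {p : Fin 11 → ℝ}
    (hp : ∀ s, p s ≤ x) {ε : ℝ} (hε : 0 < ε) :
    ∀ᶠ n in (U : Filter ℕ), ∀ k i l, (i, k) ∈ (G n).I → (l, k) ∈ (G n).I →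
      (G n).loose p ε k i l → ∀ s ∈ ({5, 6, 7, 8, 9, 10} : Finset (Fin 11)),
        |coA (T n i) (T n l) (E n k) (E n k) (fa n k) (fa n k) (fb n k) ((G n).z k) s| ≤
          2 * B.d n ^ (p s - ε) := by
  filter_upwards [A.rel ε hε] with n h k i l hi hl hlo s hs
  have h1 := h k i l hi hl s hs
  have h2 := hlo s
  rw [H.base n] at h2
  have h3 : B.d n ^ (x - ε) ≤ B.d n ^ (p s - ε) := rpow_anti B n (by linarith [hp s])
  rw [abs_le] at *
  constructor <;> linarith [h1.1, h1.2, h2.1, h2.2]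

/-- the two coordinates of `W'` -/
theorem dE_le {n k i l : ℕ} {z t : ℝ} (hfb : |fb n k| ≤ 1)
    (h6 : |coA (T n i) (T n l) (E n k) (E n k) (fa n k) (fa n k) (fb n k) z 6| ≤ t)
    (h7 : |coA (T n i) (T n l) (E n k) (E n k) (fa n k) (fa n k) (fb n k) z 7| ≤ t) (j : Fin 2) :
    |dE T E fa fb n k i l j| ≤ 2 * t := by
  have h6' : |((T n l).v 2 - (T n i).v 2) - E n k * ((T n l).v 1 - (T n i).v 1)| ≤ t := h6
  have h7' : |((T n l).v 0 - (T n i).v 0) - fa n k * ((T n l).v 1 - (T n i).v 1) -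
    fb n k * ((T n l).v 2 - (T n i).v 2)| ≤ t := h7
  have ht : 0 ≤ t := (abs_nonneg _).trans h6'
  have h8 : |fb n k * (((T n l).v 2 - (T n i).v 2) - E n k * ((T n l).v 1 - (T n i).v 1))| ≤ t := by
    rw [abs_mul]
    calc _ ≤ 1 * t := mul_le_mul hfb h6' (abs_nonneg _) (by norm_num)
      _ = t := one_mul t
  fin_cases j
  · show |((T n l).v 2 - (T n i).v 2) - E n k * ((T n l).v 1 - (T n i).v 1)| ≤ 2 * t
    linarith
  · show |((T n l).v 0 - (T n i).v 0) - (fa n k + fb n k * E n k) *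
      ((T n l).v 1 - (T n i).v 1)| ≤ 2 * t
    have e : ((T n l).v 0 - (T n i).v 0) - (fa n k + fb n k * E n k) *
      ((T n l).v 1 - (T n i).v 1) = (((T n l).v 0 - (T n i).v 0) -
        fa n k * ((T n l).v 1 - (T n i).v 1) - fb n k * ((T n l).v 2 - (T n i).v 2)) +
        fb n k * (((T n l).v 2 - (T n i).v 2) - E n k * ((T n l).v 1 - (T n i).v 1)) := by ring
    rw [e]
    exact (abs_add_le _ _).trans (by linarith)

/-- absolute coordinates small ⇒ relative coordinates small (`b = 0`) -/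
theorem AbsE.loose_of (A : AbsE B G x T E fa fb) (H : RUnif B G Leg ν D) {a c d : ℝ}
    (ha : a ≤ x) (hc : c ≤ x) (hd : d ≤ x) {ε : ℝ} (hε : 0 < ε) (K : ℝ) :
    ∀ᶠ n in (U : Filter ℕ), ∀ k i l, (i, k) ∈ (G n).I → (l, k) ∈ (G n).I →
      (0 < a → |(T n l).pos ((G n).z k) 1 - (T n i).pos ((G n).z k) 1| ≤ K * B.d n ^ (a - ε)) →
      (0 < c → |(T n l).v 1 - (T n i).v 1| ≤ K * B.d n ^ (c - ε)) →
      (0 < d → ∀ j, |dE T E fa fb n k i l j| ≤ K * B.d n ^ (d - ε)) →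
      (G n).loose (qE a 0 c d) (2 * ε) k i l := by
  filter_upwards [A.rel ε hε, A.bdr, A.bd, ev_const_le B hε (2 * |K| + 1)] with n h hbd hb hK
    k i l hi hl h1 h2 h3 s
  rw [H.base n]
  obtain ⟨_, _, _, _, _, bfb⟩ := hb i k hi
  have htriv : ∀ t : ℝ, t ≤ 0 → |(G n).rel k i l s| ≤ B.d n ^ (t - 2 * ε) := by
    intro t ht
    refine (hbd k i l hi hl s).trans ?_
    have := one_le_rpow_neg B n (t := 2 * ε - t) (by linarith)
    have e1 : -(2 * ε - t) = t - 2 * ε := by ring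
    rwa [e1] at this
  have hgen : ∀ t : ℝ, t ≤ x → s ∈ ({5, 6, 7, 8, 9, 10} : Finset (Fin 11)) →
      |coA (T n i) (T n l) (E n k) (E n k) (fa n k) (fa n k) (fb n k) ((G n).z k) s| ≤
        2 * |K| * B.d n ^ (t - ε) → |(G n).rel k i l s| ≤ B.d n ^ (t - 2 * ε) := by
    intro t ht hs hco
    have g1 := h k i l hi hl s hs
    have g3 : B.d n ^ (x - ε) ≤ B.d n ^ (t - ε) := rpow_anti B n (by linarith)
    have g4 : (2 * |K| + 1) * B.d n ^ (t - ε) ≤ B.d n ^ (t - 2 * ε) := by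
      have e1 : B.d n ^ (t - 2 * ε) = B.d n ^ (-ε) * B.d n ^ (t - ε) := by
        rw [← rpow_add']; congr 1; ring
      rw [e1]
      exact mul_le_mul_of_nonneg_right hK (rpos B n _).le
    refine le_trans ?_ g4
    rw [abs_le] at *
    constructor <;> linarith [g1.1, g1.2, hco.1, hco.2]
  have hKK : ∀ t : ℝ, K * B.d n ^ t ≤ |K| * B.d n ^ t := fun t =>
    mul_le_mul_of_nonneg_right (le_abs_self K) (rpos B n _).le
  have hK0 : ∀ t : ℝ, 0 ≤ |K| * B.d n ^ t := fun t => mul_nonneg (abs_nonneg _) (rpos B n _).le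
  fin_cases s
  · exact htriv 0 le_rfl
  · exact htriv 0 le_rfl
  · exact htriv 0 le_rfl
  · exact htriv 0 le_rfl
  · exact htriv 0 le_rfl
  · show |(G n).rel k i l 5| ≤ B.d n ^ (c - 2 * ε)
    rcases le_or_gt c 0 with h0 | h0
    · exact htriv c h0
    · refine hgen c hc (by decide) ?_
      show |(T n l).v 1 - (T n i).v 1| ≤ 2 * |K| * B.d n ^ (c - ε)
      linarith [h2 h0, hKK (c - ε), hK0 (c - ε)]
  · show |(G n).rel k i l 6| ≤ B.d n ^ (d - 2 * ε)
    rcases le_or_gt d 0 with h0 | h0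
    · exact htriv d h0
    · refine hgen d hd (by decide) ?_
      have := h3 h0 0
      have e0 : dE T E fa fb n k i l 0 = coA (T n i) (T n l) (E n k) (E n k) (fa n k) (fa n k)
        (fb n k) ((G n).z k) 6 := rfl
      rw [e0] at this
      have e1 : (⟨6, by decide⟩ : Fin 11) = 6 := rfl
      show |coA (T n i) (T n l) (E n k) (E n k) (fa n k) (fa n k)
        (fb n k) ((G n).z k) 6| ≤ 2 * |K| * B.d n ^ (d - ε)
      linarith [hKK (d - ε), hK0 (d - ε)]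
  · show |(G n).rel k i l 7| ≤ B.d n ^ (d - 2 * ε)
    rcases le_or_gt d 0 with h0 | h0
    · exact htriv d h0
    · refine hgen d hd (by decide) ?_
      have g0 := h3 h0 0
      have g1 := h3 h0 1
      have e0 : coA (T n i) (T n l) (E n k) (E n k) (fa n k) (fa n k)
        (fb n k) ((G n).z k) 7 = dE T E fa fb n k i l 1 - fb n k * dE T E fa fb n k i l 0 := by
        show ((T n l).v 0 - (T n i).v 0) - fa n k * ((T n l).v 1 - (T n i).v 1) -
          fb n k * ((T n l).v 2 - (T n i).v 2) =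
          (((T n l).v 0 - (T n i).v 0) - (fa n k + fb n k * E n k) *
          ((T n l).v 1 - (T n i).v 1)) - fb n k * (((T n l).v 2 - (T n i).v 2) -
          E n k * ((T n l).v 1 - (T n i).v 1))
        ring
      show |coA (T n i) (T n l) (E n k) (E n k) (fa n k) (fa n k)
        (fb n k) ((G n).z k) 7| ≤ 2 * |K| * B.d n ^ (d - ε)
      rw [e0]
      have g2 : |fb n k * dE T E fa fb n k i l 0| ≤ |K| * B.d n ^ (d - ε) := by
        rw [abs_mul]
        calc _ ≤ 1 * (K * B.d n ^ (d - ε)) := mul_le_mul bfb g0 (abs_nonneg _) (by norm_num)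
          _ ≤ _ := by linarith [hKK (d - ε)]
      refine (abs_sub _ _).trans ?_
      linarith [hKK (d - ε), hK0 (d - ε)]
  · show |(G n).rel k i l 8| ≤ B.d n ^ (a - 2 * ε)
    rcases le_or_gt a 0 with h0 | h0
    · exact htriv a h0
    · refine hgen a ha (by decide) ?_
      show |(T n l).pos ((G n).z k) 1 - (T n i).pos ((G n).z k) 1| ≤ 2 * |K| * B.d n ^ (a - ε)
      linarith [h1 h0, hKK (a - ε), hK0 (a - ε)]
  · exact htriv 0 le_rfl
  · exact htriv 0 le_rfl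

/-! ### counts -/

theorem bd_zero (A : AbsE B G x T E fa fb) (H : RUnif B G Leg ν D) :
    Bd G (qE 0 0 0 0) 1 := by
  intro ε hε
  filter_upwards [A.bdr] with n h k i l hi hl s
  rw [H.base n]
  refine (h k i l hi hl s).trans ?_
  have h1 : qE 0 0 0 0 s ≤ 0 := qE_le le_rfl le_rfl le_rfl le_rfl le_rfl s
  have := one_le_rpow_neg B n (t := 1 * ε - qE 0 0 0 0 s) (by linarith)
  have e1 : -(1 * ε - qE 0 0 0 0 s) = qE 0 0 0 0 s - 1 * ε := by ring
  rwa [e1] at this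

theorem ProfE.zero (P : ProfE Leg ν x y m β) : qE 0 0 0 0 ∈ Leg :=
  P.leg 0 0 0 0 le_rfl P.x0.le le_rfl P.x0.le le_rfl P.x0.le le_rfl P.x0.le

theorem L_pos (H : RUnif B G Leg ν D) (n : ℕ) : (0 : ℝ) < (G n).L.card := by
  obtain ⟨⟨i1, k1⟩, hI1⟩ := H.nonempty n
  have : (G n).L.Nonempty := ⟨i1, H.memL hI1⟩
  exact_mod_cast this.card_pos

/-- number of lines from below -/
theorem L_ge (H : RUnif B G Leg ν D) (P : ProfE Leg ν x y m β) {ε : ℝ} (hε : 0 < ε) :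
    ∀ᶠ n in (U : Filter ℕ), B.d n ^ (-ν (qE 0 0 0 0) + ε) ≤ ((G n).L.card : ℝ) := by
  filter_upwards [slice_ge H _ P.zero hε] with n h
  obtain ⟨⟨i1, k1⟩, hI1⟩ := H.nonempty n
  refine (h i1 k1 hI1).trans ?_
  exact mod_cast Finset.card_le_card (Finset.filter_subset _ _)

/-- upper bound of the number of lines near `i` -/
theorem cntUp (H : RUnif B G Leg ν D) (A : AbsE B G x T E fa fb) (P : ProfE Leg ν x y m β)
    {a c d : ℝ} (hd0 : 0 ≤ d) (hda : d ≤ a) (hax : a ≤ x) (hc0 : 0 ≤ c) (hcx : c ≤ x) {ε : ℝ}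
    (hε : 0 < ε) (K : ℝ) :
    ∀ᶠ n in (U : Filter ℕ), ∀ i k, (i, k) ∈ (G n).I → ∀ F ⊆ (G n).slice k,
      (∀ l ∈ F, (0 < a → |(T n l).pos ((G n).z k) 1 - (T n i).pos ((G n).z k) 1| ≤
          K * B.d n ^ (a - ε)) ∧
        (0 < c → |(T n l).v 1 - (T n i).v 1| ≤ K * B.d n ^ (c - ε)) ∧
        (0 < d → ∀ j, |dE T E fa fb n k i l j| ≤ K * B.d n ^ (d - ε))) →
      (F.card : ℝ) ≤ B.d n ^ (a + m * c + β * d - (2 * D + 1) * ε) * ((G n).L.card : ℝ) := by
  have hx := P.x0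
  have hleg : qE a 0 c d ∈ Leg := P.leg a 0 c d (hd0.trans hda) hax le_rfl hx.le hc0 hcx hd0
    (hda.trans hax)
  have h2ε : 0 < 2 * ε := by positivity
  filter_upwards [A.loose_of H hax hcx (hda.trans hax) hε K, H.up _ hleg _ h2ε, L_ge H P hε]
    with n h1 h2 h3 i k hik F hF hc
  have h4 : (F.card : ℝ) ≤ B.d n ^ (-ν (qE a 0 c d) - D * (2 * ε)) := by
    refine le_trans ?_ (h2 i k hik)
    refine mod_cast Finset.card_le_card fun l hl => RCfg.mem_box.2 ⟨hF hl, ?_⟩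
    obtain ⟨c1, c2, c3⟩ := hc l hl
    exact h1 k i l hik (H.memSlice.1 (hF hl)) c1 c2 c3
  rw [P.form a 0 c d hd0 hda hax le_rfl hx.le hc0 hcx] at h4
  refine h4.trans ?_
  have e1 : B.d n ^ (-(ν (qE 0 0 0 0) - (a + y * 0 + m * c + β * d)) - D * (2 * ε)) =
      B.d n ^ (a + m * c + β * d - (2 * D + 1) * ε) * B.d n ^ (-ν (qE 0 0 0 0) + ε) := by
    rw [← rpow_add']
    congr 1
    ring
  rw [e1]
  exact mul_le_mul_of_nonneg_left h3 (rpos B n _).le

/-- the `(X, C)`-count, uniform in the radius -/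
theorem upC (H : RUnif B G Leg ν D) (A : AbsE B G x T E fa fb) (P : ProfE Leg ν x y m β)
    {s : ℝ} (hs : 0 < s) (hsx : s ≤ x) {ε : ℝ} (hε : 0 < ε) :
    ∀ᶠ n in (U : Filter ℕ), ∀ i k, (i, k) ∈ (G n).I → ∀ r, B.d n ^ s ≤ r → r ≤ 2 →
      ∀ F ⊆ (G n).slice k,
      (∀ l ∈ F, |(T n l).pos ((G n).z k) 1 - (T n i).pos ((G n).z k) 1| ≤ 2 * B.d n ^ (s - ε) ∧
        |(T n l).v 1 - (T n i).v 1| ≤ r) →
      (F.card : ℝ) ≤ B.d n ^ (s - (2 * D + 2) * ε) * r ^ m * ((G n).L.card : ℝ) := by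
  have hx := P.x0
  have hm0 := P.m0
  have hm1 := P.m1
  filter_upwards [ev_grid_r (B := B) hs.le hε (fun t n => ∀ i k, (i, k) ∈ (G n).I →
      ∀ F ⊆ (G n).slice k,
      (∀ l ∈ F, (0 < s → |(T n l).pos ((G n).z k) 1 - (T n i).pos ((G n).z k) 1| ≤
          2 * B.d n ^ (s - ε)) ∧
        (0 < t → |(T n l).v 1 - (T n i).v 1| ≤ 2 * B.d n ^ (t - ε)) ∧
        ((0 : ℝ) < 0 → ∀ j, |dE T E fa fb n k i l j| ≤ 2 * B.d n ^ ((0 : ℝ) - ε))) →
      (F.card : ℝ) ≤ B.d n ^ (s + m * t + β * 0 - (2 * D + 1) * ε) * ((G n).L.card : ℝ))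
    (fun t ht0 hts => cntUp H A P le_rfl hs.le hsx ht0 (hts.trans hsx) hε 2)] with n h
    i k hik r hr hr2 F hF hc
  have hL := L_pos H n
  have hr0 : 0 < r := lt_of_lt_of_le (rpos B n s) hr
  -- the case of large radius is the radius one
  obtain ⟨r', hr'1, hr's, hr'r, hr'⟩ : ∃ r', r' ≤ 1 ∧ B.d n ^ s ≤ r' ∧ r' ≤ r ∧
      (r' < r → r' = 1) := by
    rcases le_or_gt r 1 with h1 | h1
    · exact ⟨r, h1, hr, le_rfl, fun h => absurd h (lt_irrefl _)⟩
    · exact ⟨1, le_rfl, Real.rpow_le_one (B.pos n).le (B.lt n).le hs.le, h1.le, fun _ => rfl⟩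
  obtain ⟨t, ht0, hts, h1, h2, h3⟩ := h r' hr's hr'1
  have hr'0 : 0 < r' := lt_of_lt_of_le (rpos B n s) hr's
  have h4 := h3 i k hik F hF (fun l hl => ⟨fun _ => (hc l hl).1, fun htp => ?_, fun h0 =>
    absurd h0 (lt_irrefl _)⟩)
  · refine h4.trans ?_
    refine mul_le_mul_of_nonneg_right ?_ hL.le
    have e1 : B.d n ^ (s + m * t + β * 0 - (2 * D + 1) * ε) =
        B.d n ^ (s - (2 * D + 1) * ε) * (B.d n ^ t) ^ m := by
      rw [← Real.rpow_mul (B.pos n).le, ← rpow_add']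
      congr 1
      ring
    rw [e1]
    have e2 : (B.d n ^ t) ^ m ≤ B.d n ^ (-ε) * r ^ m := by
      calc (B.d n ^ t) ^ m ≤ (B.d n ^ (-ε) * r') ^ m :=
            Real.rpow_le_rpow (rpos B n _).le h2 hm0.le
        _ = B.d n ^ (-ε * m) * r' ^ m := by
            rw [Real.mul_rpow (rpos B n _).le hr'0.le, ← Real.rpow_mul (B.pos n).le]
        _ ≤ B.d n ^ (-ε) * r ^ m := by
            refine mul_le_mul (rpow_anti B n (by nlinarith))
              (Real.rpow_le_rpow hr'0.le hr'r hm0.le) (Real.rpow_nonneg hr'0.le _) (rpos B n _).le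
    calc B.d n ^ (s - (2 * D + 1) * ε) * (B.d n ^ t) ^ m
        ≤ B.d n ^ (s - (2 * D + 1) * ε) * (B.d n ^ (-ε) * r ^ m) :=
          mul_le_mul_of_nonneg_left e2 (rpos B n _).le
      _ = _ := by
          rw [← mul_assoc, ← rpow_add']
          congr 2
          ring
  · -- the coordinate `C`
    have h5 := (hc l hl).2
    have h6 : B.d n ^ t ≤ B.d n ^ (t - ε) := rpow_anti B n (by linarith)
    have h7 : r ≤ 2 * r' := by
      rcases hr'r.lt_or_eq with h0 | h0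
      · rw [hr' h0]; linarith
      · rw [h0]; linarith
    have h8 : 0 < B.d n ^ (t - ε) := rpos B n _
    linarith

/-- the `(X, W')`-count, uniform in the radius -/
theorem upW (H : RUnif B G Leg ν D) (A : AbsE B G x T E fa fb) (P : ProfE Leg ν x y m β)
    {s : ℝ} (hs : 0 < s) (hsx : s ≤ x) {ε : ℝ} (hε : 0 < ε) :
    ∀ᶠ n in (U : Filter ℕ), ∀ i k, (i, k) ∈ (G n).I → ∀ r, B.d n ^ s ≤ r → r ≤ 1 →
      ∀ F ⊆ (G n).slice k,
      (∀ l ∈ F, |(T n l).pos ((G n).z k) 1 - (T n i).pos ((G n).z k) 1| ≤ 2 * B.d n ^ (s - ε) ∧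
        ∀ j, |dE T E fa fb n k i l j| ≤ r) →
      (F.card : ℝ) ≤ B.d n ^ (s - (2 * D + 1 + β) * ε) * r ^ β * ((G n).L.card : ℝ) := by
  have hx := P.x0
  have hβ := P.β0
  filter_upwards [ev_grid_r (B := B) hs.le hε (fun t n => t ≤ s → ∀ i k, (i, k) ∈ (G n).I →
      ∀ F ⊆ (G n).slice k,
      (∀ l ∈ F, (0 < s → |(T n l).pos ((G n).z k) 1 - (T n i).pos ((G n).z k) 1| ≤
          2 * B.d n ^ (s - ε)) ∧
        ((0 : ℝ) < 0 → |(T n l).v 1 - (T n i).v 1| ≤ 2 * B.d n ^ ((0 : ℝ) - ε)) ∧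
        (0 < t → ∀ j, |dE T E fa fb n k i l j| ≤ 2 * B.d n ^ (t - ε))) →
      (F.card : ℝ) ≤ B.d n ^ (s + m * 0 + β * t - (2 * D + 1) * ε) * ((G n).L.card : ℝ))
    (fun t ht0 hts => by
      filter_upwards [cntUp H A P ht0 hts hsx le_rfl hx.le hε 2] with n hn _ using hn)] with n h
    i k hik r hr hr1 F hF hc
  have hL := L_pos H n
  have hr0 : 0 < r := lt_of_lt_of_le (rpos B n s) hr
  obtain ⟨t, ht0, hts, h1, h2, h3⟩ := h r hr hr1
  have h4 := h3 hts i k hik F hF (fun l hl => ⟨fun _ => (hc l hl).1, fun h0 =>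
    absurd h0 (lt_irrefl _), fun htp j => ?_⟩)
  · refine h4.trans ?_
    refine mul_le_mul_of_nonneg_right ?_ hL.le
    have e1 : B.d n ^ (s + m * 0 + β * t - (2 * D + 1) * ε) =
        B.d n ^ (s - (2 * D + 1) * ε) * (B.d n ^ t) ^ β := by
      rw [← Real.rpow_mul (B.pos n).le, ← rpow_add']
      congr 1
      ring
    rw [e1]
    have e2 : (B.d n ^ t) ^ β ≤ B.d n ^ (-(β * ε)) * r ^ β := by
      calc (B.d n ^ t) ^ β ≤ (B.d n ^ (-ε) * r) ^ β :=
            Real.rpow_le_rpow (rpos B n _).le h2 hβ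
        _ = B.d n ^ (-ε * β) * r ^ β := by
            rw [Real.mul_rpow (rpos B n _).le hr0.le, ← Real.rpow_mul (B.pos n).le]
        _ = _ := by congr 2; ring
    calc B.d n ^ (s - (2 * D + 1) * ε) * (B.d n ^ t) ^ β
        ≤ B.d n ^ (s - (2 * D + 1) * ε) * (B.d n ^ (-(β * ε)) * r ^ β) :=
          mul_le_mul_of_nonneg_left e2 (rpos B n _).le
      _ = _ := by
          rw [← mul_assoc, ← rpow_add']
          congr 2
          ring
  · have h5 := (hc l hl).2 j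
    have h6 : B.d n ^ t ≤ B.d n ^ (t - ε) := rpow_anti B n (by linarith)
    have h8 : 0 < B.d n ^ (t - ε) := rpos B n _
    linarith

/-- Frostman heights, uniform in the radius -/
theorem frostE (H : RModel B G 1 R Leg ν D) {s : ℝ} (hs : 0 ≤ s) (hsR : s ≤ R) {ε : ℝ}
    (hε : 0 < ε) :
    ∀ᶠ n in (U : Filter ℕ), ∀ k ∈ (G n).Z, ∀ r, B.d n ^ s ≤ r → r ≤ 1 →
      (((G n).Z.filter fun k' => |(G n).z k' - (G n).z k| ≤ r).card : ℝ) ≤
        B.d n ^ (-(2 * ε)) * r * ((G n).Z.card : ℝ) := by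
  filter_upwards [ev_grid_r (B := B) hs hε (fun t n => ∀ k ∈ (G n).Z,
      (((G n).hbox t k).card : ℝ) ≤ B.d n ^ (1 * t - ε) * ((G n).Z.card : ℝ))
    (fun t ht0 hts => H.frost t ht0 (hts.trans hsR) ε hε)] with n h k hk r hr hr1
  obtain ⟨t, ht0, hts, h1, h2, h3⟩ := h r hr hr1
  have h4 := h3 k hk
  have h5 : (((G n).Z.filter fun k' => |(G n).z k' - (G n).z k| ≤ r).card : ℝ) ≤
      (((G n).hbox t k).card : ℝ) := by
    refine mod_cast Finset.card_le_card fun k' hk' => ?_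
    obtain ⟨g1, g2⟩ := Finset.mem_filter.1 hk'
    unfold RCfg.hbox
    refine Finset.mem_filter.2 ⟨g1, ?_⟩
    rw [H.base n]
    exact g2.trans h1
  refine h5.trans (h4.trans ?_)
  refine mul_le_mul_of_nonneg_right ?_ (Nat.cast_nonneg _)
  calc B.d n ^ (1 * t - ε) = B.d n ^ (-ε) * B.d n ^ t := by rw [← rpow_add']; congr 1; ring
    _ ≤ B.d n ^ (-ε) * (B.d n ^ (-ε) * r) := mul_le_mul_of_nonneg_left h2 (rpos B n _).le
    _ = _ := by rw [← mul_assoc, ← rpow_add']; congr 2; ring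

/-- density of the incidences -/
theorem densE (H : RModel B G 1 R Leg ν D) {ε : ℝ} (hε : 0 < ε) :
    ∀ᶠ n in (U : Filter ℕ), B.d n ^ ε * (((G n).L.card : ℝ) * ((G n).Z.card : ℝ)) ≤
      ((G n).I.card : ℝ) := by
  filter_upwards [Crest.Agent.R136.Prn779.card_lines H hε] with n hn
  have h1 := hn (G n).L (Finset.Subset.refl _)
  refine le_trans (le_of_eq ?_) (h1.trans ?_)
  · ring
  · exact mod_cast Finset.card_le_card (Finset.filter_subset _ _)

/-- all lines of a model are alive somewhere -/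
theorem hts_nonempty (H : RModel B G 1 R Leg ν D) :
    ∀ᶠ n in (U : Filter ℕ), ∀ i ∈ (G n).L, ∃ k, (i, k) ∈ (G n).I := by
  filter_upwards [H.line 1 one_pos] with n hn i hi
  have h1 := hn i hi
  have hZ : (0 : ℝ) < (G n).Z.card := by
    exact_mod_cast (Z_nonempty H.toRUnif n).card_pos
  have h2 : (0 : ℝ) < ((G n).hts i).card := lt_of_lt_of_le (mul_pos (rpos B n 1) hZ) h1
  have h3 : ((G n).hts i).Nonempty := by
    rw [← Finset.card_pos]
    exact_mod_cast h2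
  obtain ⟨k, hk⟩ := h3
  exact ⟨k, H.memHts.1 hk⟩

end Crest.Agent.R136.RgE344
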