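import Crest.Agent.R136.WkE_344

/-!
# R136 (S0187): RIG_E, target with uniform exponent (helper344)
-/

set_option autoImplicit false
set_option linter.unusedVariables false

open Filter Topology Finset

namespace Crest.Agent.R136.RgE344

open Crest.Agent.R136.Sh605
open Crest.Agent.R138.Ex926 (Base U)
open Crest.Agent.R136.Gf356

/-- **target**: RIG_E, the exponent `θ` depends on `x, y, m, β` only -/
def RigE' : Prop :=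
  ∀ x y m β : ℝ, 0 < x → 0 ≤ y → y < 2 → 0 < m → m ≤ 1 → 0 ≤ β → ∃ θ : ℝ, 0 < θ ∧
    ∀ (B : Base) (G : ℕ → RCfg (Fin 11)) (Leg : Set (Fin 11 → ℝ)) (ν : (Fin 11 → ℝ) → ℝ)
    (D R : ℝ) (T : ℕ → ℕ → Ln4) (E fa fb : ℕ → ℕ → ℝ),
    RModel B G 1 R Leg ν D → x ≤ R → AbsE B G x T E fa fb → ProfE Leg ν x y m β →
    ∀ ε : ℝ, 0 < ε → ∀ᶠ n in (U : Filter ℕ), ∃ (u : Fin 2 → ℝ) (e0 c0 : ℝ),
      u 0 ^ 2 + u 1 ^ 2 = 1 ∧ ∃ I' ⊆ (G n).I, B.d n ^ ε * ((G n).I.card : ℝ) ≤ (I'.card : ℝ) ∧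
        ∀ l k, (l, k) ∈ I' →
          |u 0 * eE E fa fb n k 0 + u 1 * eE E fa fb n k 1 - e0| ≤ B.d n ^ θ ∧
          |u 0 * wE T n l 0 + u 1 * wE T n l 1 - e0 * (T n l).v 1 - c0| ≤ B.d n ^ θ

theorem RigE'.rigE (h : RigE') : RigE := by
  intro B G Leg ν D R x y m β T E fa fb H hxR A P
  obtain ⟨θ, h1, h2⟩ := h x y m β P.x0 P.y0 P.y2 P.m0 P.m1 P.β0
  exact ⟨θ, h1, h2 B G Leg ν D R T E fa fb H hxR A P⟩

end Crest.Agent.R136.RgE344
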