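import Crest.Agent.R136.RgE6_344
import Crest.Agent.R136.WkE2_344

/-!
# R136 (S0187): RIG_E, asymptotic wrapper II (helper344): (STAR)
-/

set_option autoImplicit false
set_option linter.unusedVariables false
set_option linter.unusedSectionVars false

open Filter Topology Finset

namespace Crest.Agent.R136.RgE344

open Crest.Agent.R136.Sh605
open Crest.Agent.R138.Ex926 (Base U)
open Crest.Agent.R136.Gf356
open Crest.Agent.R136.RgN344
open Crest.Agent.R136.Wk323 (coA one_le_rpow_neg ev_mul_le)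

variable {B : Base} {G : ℕ → RCfg (Fin 11)} {Leg : Set (Fin 11 → ℝ)} {ν : (Fin 11 → ℝ) → ℝ}
  {D R x y m β : ℝ} {T : ℕ → ℕ → Ln4} {E fa fb : ℕ → ℕ → ℝ}

/-- absolute value of the linear functional `u` on the block, seen from the height `k` -/
def oE (T : ℕ → ℕ → Ln4) (E fa fb : ℕ → ℕ → ℝ) (u : Fin 2 → ℝ) (n k l : ℕ) : ℝ :=
  u 0 * wE T n l 0 + u 1 * wE T n l 1 -
    (u 0 * eE E fa fb n k 0 + u 1 * eE E fa fb n k 1) * (T n l).v 1

theorem oE_sub (T : ℕ → ℕ → Ln4) (E fa fb : ℕ → ℕ → ℝ) (u : Fin 2 → ℝ) (n k i l : ℕ) :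
    oE T E fa fb u n k l - oE T E fa fb u n k i =
      u 0 * dE T E fa fb n k i l 0 + u 1 * dE T E fa fb n k i l 1 := by
  unfold oE dE
  ring

/-- bounds of the coordinates -/
theorem bdsE (H : RModel B G 1 R Leg ν D) (A : AbsE B G x T E fa fb) :
    ∀ᶠ n in (U : Filter ℕ),
      (∀ l k, (l, k) ∈ (G n).I → |(T n l).p 1 + (G n).z k * (T n l).v 1| ≤ 1) ∧
      (∀ k ∈ (G n).Z, |(G n).z k| ≤ 1 ∧ ∀ j, |eE E fa fb n k j| ≤ 2) ∧
      (∀ l ∈ (G n).L, |(T n l).p 1| ≤ 2 ∧ |(T n l).v 1| ≤ 1 ∧ ∀ j, |wE T n l j| ≤ 1) := by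
  filter_upwards [A.bd, hts_nonempty H, slice_nonempty H] with n h1 h2 h3
  refine ⟨fun l k hlk => (h1 l k hlk).2.1 1, fun k hk => ?_, fun l hl => ?_⟩
  · obtain ⟨l, hl⟩ := h3 k hk
    obtain ⟨bz, _, _, bE, bfa, bfb⟩ := h1 l k (H.memSlice.1 hl)
    refine ⟨bz, fun j => ?_⟩
    fin_cases j
    · show |E n k| ≤ 2
      linarith
    · show |fa n k + fb n k * E n k| ≤ 2
      have : |fb n k * E n k| ≤ 1 := by
        rw [abs_mul]
        calc _ ≤ 1 * 1 := mul_le_mul bfb bE (abs_nonneg _) (by norm_num)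
          _ = 1 := by norm_num
      exact (abs_add_le _ _).trans (by linarith)
  · obtain ⟨k, hk⟩ := h2 l hl
    obtain ⟨bz, bp, bv, _, _, _⟩ := h1 l k hk
    have h4 : |(T n l).p 1 + (G n).z k * (T n l).v 1| ≤ 1 := bp 1
    have h5 : |(G n).z k * (T n l).v 1| ≤ 1 := by
      rw [abs_mul]
      calc _ ≤ 1 * 1 := mul_le_mul bz (bv 1) (abs_nonneg _) (by norm_num)
        _ = 1 := by norm_num
    refine ⟨?_, bv 1, fun j => ?_⟩
    · rw [abs_le] at *
      constructor <;> linarith [h4.1, h4.2, h5.1, h5.2]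
    · fin_cases j
      · exact bv 2
      · exact bv 0

set_option maxHeartbeats 1000000 in
/-- **(STAR), `β > 0`** -/
theorem star_pos (H : RModel B G 1 R Leg ν D) (hxR : x ≤ R) (A : AbsE B G x T E fa fb)
    (P : ProfE Leg ν x y m β) (hβ : 0 < β) {s : ℝ} (hs : 0 < s) (hsx : s ≤ x)
    (hS : StripsE B G s T E fa fb) {ε : ℝ} (hε : 0 < ε) :
    ∀ᶠ n in (U : Filter ℕ), ∃ (u : Fin 2 → ℝ) (I' : Finset (ℕ × ℕ)), u 0 ^ 2 + u 1 ^ 2 = 1 ∧
      I' ⊆ (G n).I ∧ B.d n ^ ε * (((G n).L.card : ℝ) * ((G n).Z.card : ℝ)) ≤ (I'.card : ℝ) ∧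
      ∀ k i l, (i, k) ∈ I' → (l, k) ∈ I' →
        |((T n l).p 1 + (G n).z k * (T n l).v 1) - ((T n i).p 1 + (G n).z k * (T n i).v 1)| ≤
          B.d n ^ s →
        |oE T E fa fb u n k l - oE T E fa fb u n k i| ≤ B.d n ^ (s - ε) := by
  classical
  have hD := H.D1
  have hx := P.x0
  have hm0 := P.m0
  have hm1 := P.m1
  -- losses
  set K1 : ℝ := 24 + 15 / m with hK1
  set K2 : ℝ := 7 + 6 / β with hK2
  have hK10 : 24 ≤ K1 := by
    have : 0 ≤ 15 / m := by positivity
    linarith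
  have hK20 : 7 ≤ K2 := by
    have : 0 ≤ 6 / β := by positivity
    linarith
  set Ca : ℝ := 2 * D + 2 + β + 2 with hCa
  have hCa0 : 4 ≤ Ca := by linarith
  -- `A = d ^ (-(Ca η))`
  obtain ⟨η, hη, hη1, hη2⟩ : ∃ η : ℝ, 0 < η ∧ (K1 + K2) * Ca * η + η ≤ ε ∧
      (K1 + K2) * Ca * η + η ≤ s := by
    set Q := (K1 + K2) * Ca + 1 with hQ
    have hQ0 : 0 < Q := by positivity
    refine ⟨min ε s / Q, by positivity, ?_, ?_⟩
    · have : Q * (min ε s / Q) = min ε s := by field_simp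
      calc (K1 + K2) * Ca * (min ε s / Q) + min ε s / Q = Q * (min ε s / Q) := by rw [hQ]; ring
        _ ≤ ε := by rw [this]; exact min_le_left _ _
    · have : Q * (min ε s / Q) = min ε s := by field_simp
      calc (K1 + K2) * Ca * (min ε s / Q) + min ε s / Q = Q * (min ε s / Q) := by rw [hQ]; ring
        _ ≤ s := by rw [this]; exact min_le_right _ _
  set α : ℝ := Ca * η with hα
  have hα0 : 0 < α := by positivity
  have hα4 : 4 * η ≤ α := mul_le_mul_of_nonneg_right hCa0 hη.le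
  have hA1 : K1 * α + K2 * α + η ≤ ε := by
    have : K1 * α + K2 * α = (K1 + K2) * Ca * η := by rw [hα]; ring
    linarith
  have hA2 : K1 * α + K2 * α + η ≤ s := by
    have : K1 * α + K2 * α = (K1 + K2) * Ca * η := by rw [hα]; ring
    linarith
  have hKα1 : 0 ≤ K1 * α := by positivity
  have hKα2 : 0 ≤ K2 * α := by positivity
  filter_upwards [hS η hη, bdsE H A, upC H.toRUnif A P hs hsx hη, upW H.toRUnif A P hs hsx hη,
    frostE H hs.le (hsx.trans hxR) hη, ev_const_le B hα0 2] with n g1 g2 g3 g4 g5 g6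
  obtain ⟨b, Ig, hb, hIg, hIgc, hstr⟩ := g1
  obtain ⟨b1, b2, b3⟩ := g2
  have hpos : ∀ t : ℝ, 0 < B.d n ^ t := fun t => rpos B n t
  set δ : ℝ := B.d n ^ (s - η) with hδ
  set AA : ℝ := B.d n ^ (-α) with hAA
  have hAA0 : 0 < AA := hpos _
  choose! Hs hHs1 hHs2 hHs3 using hstr
  have hsplit : ∀ t u : ℝ, B.d n ^ t * B.d n ^ u = B.d n ^ (t + u) := fun t u =>
    (rpow_add' B n t u).symm
  have hIsub := H.sub n
  have D0 : CohData AA δ m β (G n).L (G n).Z (G n).I Ig (G n).z (fun l => (T n l).p 1)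
      (fun l => (T n l).v 1) (wE T n) (eE E fa fb n) b Hs := by
    refine
      { A2 := g6
        δ0 := hpos _
        m0 := hm0
        m1 := hm1
        β0 := hβ
        small := ?_
        L0 := ?_
        Z0 := Z_nonempty H.toRUnif n
        sub := hIsub
        gsub := hIg
        bX := fun l k hlk => b1 l k hlk
        be := fun k hk => (b2 k hk).2
        bc := fun l hl => ⟨(b3 l hl).2.1, (b3 l hl).2.2⟩
        unit := hb
        frost := ?_
        up := ?_
        ball := ?_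
        dens := ?_
        H_sub := ?_
        H_card := ?_
        H_X := ?_
        H_b := ?_ }
    · -- small
      rw [hAA, hδ, ← Real.rpow_mul (B.pos n).le, hsplit]
      refine Real.rpow_le_one (B.pos n).le (B.lt n).le ?_
      have : -α * (20 + 15 / m) = -(K1 * α) + 4 * α := by rw [hK1]; ring
      rw [this]
      linarith
    · obtain ⟨⟨i1, k1⟩, hI1⟩ := H.nonempty n
      exact ⟨i1, H.memL hI1⟩
    · intro k hk r hr hr1
      have hr0 : B.d n ^ s ≤ r := (rpow_anti B n (by linarith)).trans hr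
      have hr00 : 0 < r := lt_of_lt_of_le (hpos _) hr0
      refine (g5 k hk r hr0 hr1).trans ?_
      refine mul_le_mul_of_nonneg_right (mul_le_mul_of_nonneg_right ?_ hr00.le) (Nat.cast_nonneg _)
      exact rpow_anti B n (by linarith)
    · intro l k hlk r hr hr2
      have hr0 : B.d n ^ s ≤ r := (rpow_anti B n (by linarith)).trans hr
      have hr00 : 0 < r := lt_of_lt_of_le (hpos _) hr0
      have key := g3 l k hlk r hr0 hr2 ((G n).L.filter fun l' => (l', k) ∈ (G n).I ∧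
        |((T n l').p 1 + (G n).z k * (T n l').v 1) - ((T n l).p 1 + (G n).z k * (T n l).v 1)| ≤
          2 * δ ∧ |(T n l').v 1 - (T n l).v 1| ≤ r) (by
        intro l' hl'
        obtain ⟨c1, c2, c3, c4⟩ := Finset.mem_filter.1 hl'
        exact Finset.mem_filter.2 ⟨c1, c2⟩) (by
        intro l' hl'
        obtain ⟨c1, c2, c3, c4⟩ := Finset.mem_filter.1 hl'
        exact ⟨c3, c4⟩)
      refine key.trans ?_
      refine mul_le_mul_of_nonneg_right ?_ (Nat.cast_nonneg _)
      refine mul_le_mul_of_nonneg_right ?_ (Real.rpow_nonneg hr00.le _)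
      rw [hAA, hδ, hsplit]
      refine rpow_anti B n ?_
      have : α = (2 * D + 2 + β + 2) * η := hα
      nlinarith
    · intro l k hlk r hr hr1
      have hr0 : B.d n ^ s ≤ r := (rpow_anti B n (by linarith)).trans hr
      have hr00 : 0 < r := lt_of_lt_of_le (hpos _) hr0
      have key := g4 l k hlk r hr0 hr1 ((G n).L.filter fun l' => (l', k) ∈ (G n).I ∧
        |((T n l').p 1 + (G n).z k * (T n l').v 1) - ((T n l).p 1 + (G n).z k * (T n l).v 1)| ≤
          2 * δ ∧ ∀ j, |dv (wE T n) (fun l => (T n l).v 1) (eE E fa fb n k) l l' j| ≤ r) (by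
        intro l' hl'
        obtain ⟨c1, c2, c3, c4⟩ := Finset.mem_filter.1 hl'
        exact Finset.mem_filter.2 ⟨c1, c2⟩) (by
        intro l' hl'
        obtain ⟨c1, c2, c3, c4⟩ := Finset.mem_filter.1 hl'
        exact ⟨c3, c4⟩)
      refine key.trans ?_
      refine mul_le_mul_of_nonneg_right ?_ (Nat.cast_nonneg _)
      refine mul_le_mul_of_nonneg_right ?_ (Real.rpow_nonneg hr00.le _)
      rw [hAA, hδ, hsplit]
      refine rpow_anti B n ?_
      have : α = (2 * D + 2 + β + 2) * η := hα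
      nlinarith
    · -- dens
      have h1 : ((G n).L.card : ℝ) * ((G n).Z.card : ℝ) =
          B.d n ^ (-η) * (B.d n ^ η * (((G n).L.card : ℝ) * ((G n).Z.card : ℝ))) := by
        rw [← mul_assoc, hsplit]
        simp
      rw [h1]
      calc B.d n ^ (-η) * (B.d n ^ η * (((G n).L.card : ℝ) * ((G n).Z.card : ℝ)))
          ≤ B.d n ^ (-η) * (Ig.card : ℝ) := mul_le_mul_of_nonneg_left hIgc (hpos _).le
        _ ≤ _ := mul_le_mul_of_nonneg_right (rpow_anti B n (by linarith)) (Nat.cast_nonneg _)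
    · intro i k hik l hl
      exact hHs1 i k hik hl
    · intro i k hik
      have h1 := hHs2 i k hik
      calc δ * ((G n).L.card : ℝ) ≤ AA * (B.d n ^ (s + η) * ((G n).L.card : ℝ)) := by
            rw [← mul_assoc]
            refine mul_le_mul_of_nonneg_right ?_ (Nat.cast_nonneg _)
            rw [hδ, hAA, hsplit]
            exact rpow_anti B n (by linarith)
        _ ≤ _ := mul_le_mul_of_nonneg_left h1 hAA0.le
    · intro i k hik l hl
      exact (hHs3 i k hik l hl).1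
    · intro i k hik l hl
      exact (hHs3 i k hik l hl).2
  obtain ⟨u, I', hu, hI', hI'c, hstar⟩ := coh D0
  refine ⟨u, I', hu, hI'.trans hIg, ?_, ?_⟩
  · have h1 : B.d n ^ ε * (((G n).L.card : ℝ) * ((G n).Z.card : ℝ)) ≤
        B.d n ^ ε * (AA ^ K1 * (I'.card : ℝ)) := mul_le_mul_of_nonneg_left hI'c (hpos _).le
    refine h1.trans ?_
    rw [← mul_assoc, hAA, ← Real.rpow_mul (B.pos n).le, hsplit]
    have h2 : B.d n ^ (ε + -α * K1) ≤ 1 := Real.rpow_le_one (B.pos n).le (B.lt n).le (by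
      have : -α * K1 = -(K1 * α) := by ring
      linarith)
    calc _ ≤ 1 * (I'.card : ℝ) := mul_le_mul_of_nonneg_right h2 (Nat.cast_nonneg _)
      _ = _ := one_mul _
  · intro k i l hi hl hX
    have h1 := hstar k i l hi hl (hX.trans (by rw [hδ]; exact rpow_anti B n (by linarith)))
    refine h1.trans ?_
    rw [hAA, hδ, ← Real.rpow_mul (B.pos n).le, hsplit]
    refine rpow_anti B n ?_
    have : -α * (7 + 6 / β) = -(K2 * α) := by rw [hK2]; ring
    rw [this]
    linarith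

end Crest.Agent.R136.RgE344
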