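import Crest.Agent.R136.RgE7_344

/-!
# R136 (S0187): RIG_E, asymptotic wrapper III (helper344): (STAR) for `β = 0`, Lemma A on windows
-/

set_option autoImplicit false
set_option linter.unusedVariables false
set_option linter.unusedSectionVars false

open Filter Topology Finset

namespace Crest.Agent.R136.RgE344

open Crest.Agent.R136.Sh605
open Crest.Agent.R138.Ex926 (Base U)
open Crest.Agent.R136.Gf356
open Crest.Agent.R136.RgN344
open Crest.Agent.R136.Wk323 (coA one_le_rpow_neg ev_mul_le)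

variable {B : Base} {G : ℕ → RCfg (Fin 11)} {Leg : Set (Fin 11 → ℝ)} {ν : (Fin 11 → ℝ) → ℝ}
  {D R x y m β : ℝ} {T : ℕ → ℕ → Ln4} {E fa fb : ℕ → ℕ → ℝ}

/-- (STAR) at one configuration -/
def StarE (B : Base) (G : ℕ → RCfg (Fin 11)) (T : ℕ → ℕ → Ln4) (E fa fb : ℕ → ℕ → ℝ) (s ε : ℝ)
    (u : Fin 2 → ℝ) (n : ℕ) (I' : Finset (ℕ × ℕ)) : Prop :=
  ∀ k i l, (i, k) ∈ I' → (l, k) ∈ I' →
    |((T n l).p 1 + (G n).z k * (T n l).v 1) - ((T n i).p 1 + (G n).z k * (T n i).v 1)| ≤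
      B.d n ^ s →
    |oE T E fa fb u n k l - oE T E fa fb u n k i| ≤ B.d n ^ (s - ε)

theorem StarE.mono {s ε ε' : ℝ} {u : Fin 2 → ℝ} {n : ℕ} {I' I'' : Finset (ℕ × ℕ)}
    (h : StarE B G T E fa fb s ε u n I') (hI : I'' ⊆ I') (hε : ε ≤ ε') :
    StarE B G T E fa fb s ε' u n I'' := fun k i l hi hl hX =>
  (h k i l (hI hi) (hI hl) hX).trans (rpow_anti B n (by linarith))

set_option maxHeartbeats 1000000 in
/-- **(STAR), `β = 0`**: both components -/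
theorem star_zero (H : RModel B G 1 R Leg ν D) (hxR : x ≤ R) (A : AbsE B G x T E fa fb)
    (P : ProfE Leg ν x y m 0) {s : ℝ} (hs : 0 < s) (hsx : s ≤ x) {ε : ℝ} (hε : 0 < ε) :
    ∀ᶠ n in (U : Filter ℕ), ∃ I' : Finset (ℕ × ℕ), I' ⊆ (G n).I ∧
      B.d n ^ ε * (((G n).L.card : ℝ) * ((G n).Z.card : ℝ)) ≤ (I'.card : ℝ) ∧
      StarE B G T E fa fb s ε ![1, 0] n I' ∧ StarE B G T E fa fb s ε ![0, 1] n I' := by
  classical
  have hD := H.D1
  have hx := P.x0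
  set Ca : ℝ := 4 * D + 6 with hCa
  have hCa0 : 10 ≤ Ca := by linarith
  obtain ⟨η, hη, hηε⟩ : ∃ η : ℝ, 0 < η ∧ (4 * Ca + 3) * η = ε := by
    refine ⟨ε / (4 * Ca + 3), by positivity, ?_⟩
    field_simp
  set α : ℝ := Ca * η with hα
  have hα0 : 0 < α := by positivity
  have h4α : 4 * α + 3 * η = ε := by rw [hα]; linarith
  have hleg : qE s 0 0 s ∈ Leg := P.leg s 0 0 s hs.le hsx le_rfl hx.le le_rfl hx.le hs.le hsx
  have h2η : 0 < 2 * η := by positivity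
  filter_upwards [bdsE H A, cntUp H.toRUnif A P le_rfl hs.le hsx le_rfl hx.le h2η 2,
    H.low _ hleg _ hη, lines_le H _ P.zero one_pos (bd_zero A H.toRUnif) hη,
    A.co_le H.toRUnif (p := qE s 0 0 s) (qE_le hx.le hsx hx.le hx.le hsx) hη, densE H hη,
    ev_const_le B hη 144, A.bd] with n g2 g3 g4 g5 g6 g7 g8 g9
  obtain ⟨b1, b2, b3⟩ := g2
  have hpos : ∀ t : ℝ, 0 < B.d n ^ t := fun t => rpos B n t
  set δ : ℝ := B.d n ^ (s - 2 * η) with hδ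
  set AA : ℝ := B.d n ^ (-α) with hAA
  have hAA0 : 0 < AA := hpos _
  have hsplit : ∀ t u : ℝ, B.d n ^ t * B.d n ^ u = B.d n ^ (t + u) := fun t u =>
    (rpow_add' B n t u).symm
  have hIsub := H.sub n
  have hLne : (G n).L.Nonempty := by
    obtain ⟨⟨i1, k1⟩, hI1⟩ := H.nonempty n
    exact ⟨i1, H.memL hI1⟩
  have h4d : 4 * B.d n ^ (s - η) ≤ δ := by
    have : δ = B.d n ^ (-η) * B.d n ^ (s - η) := by rw [hδ, hsplit]; congr 1; ring
    rw [this]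
    exact mul_le_mul_of_nonneg_right (by linarith) (hpos _).le
  -- the boxes
  set Hs : ℕ → ℕ → Finset ℕ := fun i k => (G n).box (qE s 0 0 s) η i k with hHs
  have hcard : ∀ i k, (i, k) ∈ (G n).I → (((G n).L.filter fun l => (l, k) ∈ (G n).I ∧
      |(fun k l => (T n l).p 1 + (G n).z k * (T n l).v 1) k l -
        (fun k l => (T n l).p 1 + (G n).z k * (T n l).v 1) k i| ≤ 2 * δ).card : ℝ) ≤
      2 * AA * δ * ((G n).L.card : ℝ) := by
    intro i k hik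
    have h1 := g3 i k hik ((G n).L.filter fun l => (l, k) ∈ (G n).I ∧
      |(fun k l => (T n l).p 1 + (G n).z k * (T n l).v 1) k l -
        (fun k l => (T n l).p 1 + (G n).z k * (T n l).v 1) k i| ≤ 2 * δ) (by
      intro l' hl'
      obtain ⟨c1, c2, c3⟩ := Finset.mem_filter.1 hl'
      exact Finset.mem_filter.2 ⟨c1, c2⟩) (by
      intro l' hl'
      obtain ⟨c1, c2, c3⟩ := Finset.mem_filter.1 hl'
      exact ⟨fun _ => c3, fun h0 => absurd h0 (lt_irrefl _), fun h0 => absurd h0 (lt_irrefl _)⟩)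
    refine h1.trans ?_
    refine mul_le_mul_of_nonneg_right ?_ (Nat.cast_nonneg _)
    have h2 : B.d n ^ (s + m * 0 + 0 * 0 - (2 * D + 1) * (2 * η)) ≤ AA * δ := by
      rw [hAA, hδ, hsplit]
      refine rpow_anti B n ?_
      have : α = (4 * D + 6) * η := hα
      nlinarith
    have h3 : 0 < AA * δ := mul_pos hAA0 (hpos _)
    linarith
  have hsub : ∀ i k, (i, k) ∈ (G n).I → Hs i k ⊆ (G n).L.filter fun l => (l, k) ∈ (G n).I :=
    fun i k _ => RCfg.box_subset_slice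
  have hHc : ∀ i k, (i, k) ∈ (G n).I → δ * ((G n).L.card : ℝ) ≤ AA * ((Hs i k).card : ℝ) := by
    intro i k hik
    have h1 := g4 i k hik
    rw [P.form s 0 0 s hs.le le_rfl hsx le_rfl hx.le le_rfl hx.le] at h1
    calc δ * ((G n).L.card : ℝ) ≤ δ * B.d n ^ (-ν (qE 0 0 0 0) - (D * 1 + 1) * η) :=
          mul_le_mul_of_nonneg_left g5 (hpos _).le
      _ ≤ AA * B.d n ^ (-(ν (qE 0 0 0 0) - (s + y * 0 + m * 0 + 0 * s)) + η) := by
          rw [hδ, hAA, hsplit, hsplit]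
          refine rpow_anti B n ?_
          have : α = (4 * D + 6) * η := hα
          nlinarith
      _ ≤ _ := mul_le_mul_of_nonneg_left h1 hAA0.le
  have hHX : ∀ i k, (i, k) ∈ (G n).I → ∀ l ∈ Hs i k,
      |(fun k l => (T n l).p 1 + (G n).z k * (T n l).v 1) k l -
        (fun k l => (T n l).p 1 + (G n).z k * (T n l).v 1) k i| ≤ δ := by
    intro i k hik l hl
    obtain ⟨l1, l2⟩ := RCfg.mem_box.1 hl
    have h1 := g6 k i l hik (H.memSlice.1 l1) l2 8 (by decide)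
    have h2 : |((T n l).p 1 + (G n).z k * (T n l).v 1) - ((T n i).p 1 + (G n).z k * (T n i).v 1)| ≤
      2 * B.d n ^ (s - η) := h1
    refine h2.trans ?_
    have := hpos (s - η)
    linarith
  have hHd : ∀ i k, (i, k) ∈ (G n).I → ∀ l ∈ Hs i k, ∀ j, |dE T E fa fb n k i l j| ≤ δ := by
    intro i k hik l hl j
    obtain ⟨l1, l2⟩ := RCfg.mem_box.1 hl
    have hli := H.memSlice.1 l1
    have h6 := g6 k i l hik hli l2 6 (by decide)
    have h7 := g6 k i l hik hli l2 7 (by decide)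
    obtain ⟨_, _, _, _, _, bfb⟩ := g9 i k hik
    have h6' : |coA (T n i) (T n l) (E n k) (E n k) (fa n k) (fa n k) (fb n k) ((G n).z k) 6| ≤
      2 * B.d n ^ (s - η) := h6
    have h7' : |coA (T n i) (T n l) (E n k) (E n k) (fa n k) (fa n k) (fb n k) ((G n).z k) 7| ≤
      2 * B.d n ^ (s - η) := h7
    have := dE_le bfb h6' h7' j
    linarith
  have ho : ∀ j : Fin 2, ∀ i k, (i, k) ∈ (G n).I → ∀ l ∈ Hs i k,
      |(oE T E fa fb (if j = 0 then ![1, 0] else ![0, 1]) n) k l -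
        (oE T E fa fb (if j = 0 then ![1, 0] else ![0, 1]) n) k i| ≤ δ := by
    intro j i k hik l hl
    rw [oE_sub]
    fin_cases j
    · simpa using hHd i k hik l hl 0
    · simpa using hHd i k hik l hl 1
  obtain ⟨S1, hS1, hS1c, hS1o⟩ := pop_all (ϖ := δ) hAA0 (hpos _) (hpos _) (G n).L (G n).Z hLne
    (G n).I (G n).I hIsub (Finset.Subset.refl _)
    (fun k l => (T n l).p 1 + (G n).z k * (T n l).v 1) _ Hs hcard hsub hHc hHX (ho 0)
  obtain ⟨S2, hS2, hS2c, hS2o⟩ := pop_all (ϖ := δ) hAA0 (hpos _) (hpos _) (G n).L (G n).Z hLne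
    (G n).I S1 hIsub hS1
    (fun k l => (T n l).p 1 + (G n).z k * (T n l).v 1) _ Hs hcard (fun i k h => hsub i k (hS1 h))
    (fun i k h => hHc i k (hS1 h)) (fun i k h => hHX i k (hS1 h)) (fun i k h => ho 1 i k (hS1 h))
  have hδε : δ ≤ B.d n ^ (s - ε) := rpow_anti B n (by nlinarith)
  have hsδ : B.d n ^ s ≤ δ := rpow_anti B n (by linarith)
  refine ⟨S2, hS2.trans hS1, ?_, ?_, ?_⟩
  · have h1 : ((G n).I.card : ℝ) ≤ 144 * AA ^ 4 * (S2.card : ℝ) := by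
      calc ((G n).I.card : ℝ) ≤ 12 * AA ^ 2 * (S1.card : ℝ) := hS1c
        _ ≤ 12 * AA ^ 2 * (12 * AA ^ 2 * (S2.card : ℝ)) :=
            mul_le_mul_of_nonneg_left hS2c (by positivity)
        _ = _ := by ring
    have h2 : AA ^ 4 = B.d n ^ (-(4 * α)) := by
      rw [hAA, ← Real.rpow_natCast, ← Real.rpow_mul (B.pos n).le]
      congr 1
      push_cast
      ring
    have h3 : 144 * AA ^ 4 ≤ B.d n ^ (-η - 4 * α) := by
      rw [h2]
      calc 144 * B.d n ^ (-(4 * α)) ≤ B.d n ^ (-η) * B.d n ^ (-(4 * α)) :=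
            mul_le_mul_of_nonneg_right g8 (hpos _).le
        _ = _ := by rw [hsplit]; congr 1
    have h4 : B.d n ^ η * (((G n).L.card : ℝ) * ((G n).Z.card : ℝ)) ≤
        B.d n ^ (-η - 4 * α) * (S2.card : ℝ) :=
      g7.trans (h1.trans (mul_le_mul_of_nonneg_right h3 (Nat.cast_nonneg _)))
    have h5 : B.d n ^ ε * (((G n).L.card : ℝ) * ((G n).Z.card : ℝ)) =
        B.d n ^ (ε - η) * (B.d n ^ η * (((G n).L.card : ℝ) * ((G n).Z.card : ℝ))) := by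
      have e : B.d n ^ ε = B.d n ^ (ε - η) * B.d n ^ η := by rw [hsplit]; congr 1; ring
      rw [e, mul_assoc]
    rw [h5]
    refine (mul_le_mul_of_nonneg_left h4 (hpos _).le).trans ?_
    rw [← mul_assoc, hsplit]
    have h6 : B.d n ^ (ε - η + (-η - 4 * α)) ≤ 1 :=
      Real.rpow_le_one (B.pos n).le (B.lt n).le (by linarith)
    calc _ ≤ 1 * (S2.card : ℝ) := mul_le_mul_of_nonneg_right h6 (Nat.cast_nonneg _)
      _ = _ := one_mul _
  · intro k i l hi hl hX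
    have := hS1o k i l (hS2 hi) (hS2 hl) (hX.trans hsδ)
    exact this.trans hδε
  · intro k i l hi hl hX
    have := hS2o k i l hi hl (hX.trans hsδ)
    exact this.trans hδε

/-! ### Lemma A -/

/-- the conclusion of Lemma A at the parameters `θ, C, ε, δ` -/
def LemAIn (m θ C ε δ : ℝ) : Prop :=
  ∀ (L Z : Finset ℕ) (I : Finset (ℕ × ℕ)) (z f x c p : ℕ → ℝ), I ⊆ L ×ˢ Z → I.Nonempty →
    δ ^ ε * (L.card : ℝ) * (Z.card : ℝ) ≤ (I.card : ℝ) →
    (∀ k ∈ Z, |z k| ≤ 1 ∧ |f k| ≤ 1) →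
    (∀ l ∈ L, |x l| ≤ 2 ∧ |c l| ≤ 1 ∧ |p l| ≤ 1) →
    (∀ k ∈ Z, ∀ r : ℝ, δ ≤ r → r ≤ 1 →
      ((Z.filter fun k' => |z k' - z k| ≤ r).card : ℝ) ≤ δ ^ (-ε) * r * (Z.card : ℝ)) →
    (∀ l k, (l, k) ∈ I → ∀ r : ℝ, δ ≤ r → r ≤ 2 →
      ((L.filter fun l' => (l', k) ∈ I ∧ |(x l' + z k * c l') - (x l + z k * c l)| ≤ δ ∧
        |c l' - c l| ≤ r).card : ℝ) ≤ δ ^ (-ε) * δ * r ^ m * (L.card : ℝ)) →
    (∀ l l' k, (l, k) ∈ I → (l', k) ∈ I → |(x l' + z k * c l') - (x l + z k * c l)| ≤ δ →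
      |p l' - p l - f k * (c l' - c l)| ≤ δ ^ (1 - ε)) →
    ∃ μ c0 q0 : ℝ, |μ| ≤ δ ^ (-(C * ε)) ∧ ∃ I' ⊆ I,
      δ ^ (C * ε) * (L.card : ℝ) * (Z.card : ℝ) ≤ (I'.card : ℝ) ∧
      ∀ l k, (l, k) ∈ I' → |f k - μ * z k - c0| ≤ δ ^ θ ∧
        |p l + μ * x l - c0 * c l - q0| ≤ δ ^ θ

/-- Lemma A -/
def LemA (m : ℝ) : Prop :=
  ∃ θ : ℝ, 0 < θ ∧ ∃ C : ℝ, 1 ≤ C ∧ ∃ ε₀ : ℝ, 0 < ε₀ ∧ ∀ ε : ℝ, 0 < ε → ε ≤ ε₀ →
    ∃ δ₀ : ℝ, 0 < δ₀ ∧ ∀ δ : ℝ, 0 < δ → δ ≤ δ₀ → LemAIn m θ C ε δ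

set_option maxHeartbeats 1000000 in
/-- **Lemma A on a window** -/
theorem lemA_step (H : RModel B G 1 R Leg ν D) (hxR : x ≤ R) (A : AbsE B G x T E fa fb)
    (P : ProfE Leg ν x y m β) {s : ℝ} (hs : 0 < s) (hsx : s ≤ x) {θ C ε₀ : ℝ} (hθ : 0 < θ)
    (hC : 1 ≤ C) (hε₀ : 0 < ε₀)
    (hLA : ∀ ε : ℝ, 0 < ε → ε ≤ ε₀ → ∃ δ₀ : ℝ, 0 < δ₀ ∧ ∀ δ : ℝ, 0 < δ → δ ≤ δ₀ →
      LemAIn m θ C ε δ) {ε : ℝ} (hε : 0 < ε) :
    ∃ ε₁ : ℝ, 0 < ε₁ ∧ ε₁ ≤ ε ∧ ∀ᶠ n in (U : Filter ℕ), ∀ (u : Fin 2 → ℝ) (I₁ : Finset (ℕ × ℕ)),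
      u 0 ^ 2 + u 1 ^ 2 = 1 → I₁ ⊆ (G n).I →
      B.d n ^ ε₁ * (((G n).L.card : ℝ) * ((G n).Z.card : ℝ)) ≤ (I₁.card : ℝ) →
      StarE B G T E fa fb s ε₁ u n I₁ →
      ∃ μ c0 q0 : ℝ, |μ| ≤ B.d n ^ (-ε) ∧ ∃ I₂ ⊆ I₁,
        B.d n ^ ε * (((G n).L.card : ℝ) * ((G n).Z.card : ℝ)) ≤ (I₂.card : ℝ) ∧
        ∀ l k, (l, k) ∈ I₂ →
          |u 0 * eE E fa fb n k 0 + u 1 * eE E fa fb n k 1 - μ * (G n).z k - c0| ≤
            B.d n ^ (s * θ / 2) ∧
          |u 0 * wE T n l 0 + u 1 * wE T n l 1 + μ * (T n l).p 1 - c0 * (T n l).v 1 - q0| ≤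
            B.d n ^ (s * θ / 2) := by
  classical
  have hD := H.D1
  have hx := P.x0
  have hm0 := P.m0
  -- `ε'` of Lemma A
  obtain ⟨ε', hε', hε'1, hε'2⟩ : ∃ ε' : ℝ, 0 < ε' ∧ ε' ≤ ε₀ ∧ 2 * (s * (C * ε')) ≤ ε := by
    refine ⟨min ε₀ (ε / (2 * (s * C))), by positivity, min_le_left _ _, ?_⟩
    have h1 : min ε₀ (ε / (2 * (s * C))) ≤ ε / (2 * (s * C)) := min_le_right _ _
    calc 2 * (s * (C * min ε₀ (ε / (2 * (s * C))))) ≤ 2 * (s * (C * (ε / (2 * (s * C))))) := by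
          gcongr
      _ = ε := by field_simp
  obtain ⟨δ₀, hδ₀, hδ₀'⟩ := hLA ε' hε' hε'1
  have hsε' : 0 < s * ε' := by positivity
  have hCsε : s * ε' ≤ s * (C * ε') := by
    refine mul_le_mul_of_nonneg_left ?_ hs.le
    nlinarith
  refine ⟨s * ε', hsε', by linarith, ?_⟩
  obtain ⟨η, hη, hηε⟩ : ∃ η : ℝ, 0 < η ∧ (2 * D + 2) * η = s * ε' := by
    refine ⟨s * ε' / (2 * D + 2), by positivity, ?_⟩
    field_simp
  have hη2 : 2 * η ≤ s * ε' := by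
    rw [← hηε]
    nlinarith
  have hsθ : 0 < s * θ / 2 := by positivity
  have hsCε : 0 < s * (C * ε') := by positivity
  filter_upwards [bdsE H A, upC H.toRUnif A P hs hsx hη, frostE H hs.le (hsx.trans hxR) hη,
    ev_const_le B hs (1 / δ₀), ev_const_le B hsθ 4, ev_const_le B hsCε 4]
    with n g1 g2 g3 g4 g5 g6 u I₁ hu hI₁ hI₁c hstar
  obtain ⟨b1, b2, b3⟩ := g1
  have hpos : ∀ t : ℝ, 0 < B.d n ^ t := fun t => rpos B n t
  have hsplit : ∀ t u : ℝ, B.d n ^ t * B.d n ^ u = B.d n ^ (t + u) := fun t u =>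
    (rpow_add' B n t u).symm
  set δ : ℝ := B.d n ^ s with hδ
  have hδ0 : 0 < δ := hpos _
  have hδδ₀ : δ ≤ δ₀ := by
    rw [div_le_iff₀ hδ₀] at g4
    have h1 : B.d n ^ (-s) * δ = 1 := by rw [hδ, hsplit]; simp
    have h2 : δ * 1 ≤ δ * (B.d n ^ (-s) * δ₀) := mul_le_mul_of_nonneg_left g4 hδ0.le
    have h3 : δ * (B.d n ^ (-s) * δ₀) = (B.d n ^ (-s) * δ) * δ₀ := by ring
    rw [h3, h1] at h2
    linarith
  have hδt : ∀ t : ℝ, δ ^ t = B.d n ^ (s * t) := fun t => by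
    rw [hδ, ← Real.rpow_mul (B.pos n).le]
  have hu1 : ∀ j, |u j| ≤ 1 := by
    intro j
    rw [← sq_le_one_iff_abs_le_one]
    fin_cases j
    · show u 0 ^ 2 ≤ 1
      nlinarith [sq_nonneg (u 1)]
    · show u 1 ^ 2 ≤ 1
      nlinarith [sq_nonneg (u 0)]
  have hdot : ∀ (a b M : ℝ), |a| ≤ M → |b| ≤ M → |u 0 * a + u 1 * b| ≤ 2 * M := by
    intro a b M ha hb
    have hM : 0 ≤ M := (abs_nonneg _).trans ha
    refine (abs_add_le _ _).trans ?_
    rw [abs_mul, abs_mul]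
    have e1 : |u 0| * |a| ≤ 1 * M := mul_le_mul (hu1 0) ha (abs_nonneg _) (by norm_num)
    have e2 : |u 1| * |b| ≤ 1 * M := mul_le_mul (hu1 1) hb (abs_nonneg _) (by norm_num)
    linarith
  have hLZ : (0 : ℝ) < ((G n).L.card : ℝ) * ((G n).Z.card : ℝ) := by
    refine mul_pos (L_pos H.toRUnif n) ?_
    exact_mod_cast (Z_nonempty H.toRUnif n).card_pos
  have hI₁ne : I₁.Nonempty := by
    rw [← Finset.card_pos]
    have : (0 : ℝ) < I₁.card := lt_of_lt_of_le (mul_pos (hpos _) hLZ) hI₁c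
    exact_mod_cast this
  have hfour : ∀ a : ℝ, |a / 4| = |a| / 4 := fun a => by
    rw [abs_div]; norm_num
  obtain ⟨μ, c0, q0, hμ, I₂, hI₂, hI₂c, hrel⟩ := hδ₀' δ hδ0 hδδ₀ (G n).L (G n).Z I₁ (G n).z
    (fun k => (u 0 * eE E fa fb n k 0 + u 1 * eE E fa fb n k 1) / 4) (fun l => (T n l).p 1)
    (fun l => (T n l).v 1) (fun l => (u 0 * wE T n l 0 + u 1 * wE T n l 1) / 4)
    (hI₁.trans (H.sub n)) hI₁ne (by
      rw [hδt, mul_assoc]
      exact hI₁c) (fun k hk => ⟨(b2 k hk).1, by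
        rw [hfour]
        have := hdot _ _ 2 ((b2 k hk).2 0) ((b2 k hk).2 1)
        linarith⟩) (fun l hl => ⟨(b3 l hl).1, (b3 l hl).2.1, by
        rw [hfour]
        have := hdot _ _ 1 ((b3 l hl).2.2 0) ((b3 l hl).2.2 1)
        linarith⟩) (by
      intro k hk r hr hr1
      have hr0 : 0 < r := lt_of_lt_of_le hδ0 hr
      refine (g3 k hk r hr hr1).trans ?_
      refine mul_le_mul_of_nonneg_right (mul_le_mul_of_nonneg_right ?_ hr0.le) (Nat.cast_nonneg _)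
      rw [hδt]
      exact rpow_anti B n (by linarith)) (by
      intro l k hlk r hr hr2
      have hr0 : 0 < r := lt_of_lt_of_le hδ0 hr
      have key := g2 l k (hI₁ hlk) r hr hr2 ((G n).L.filter fun l' => (l', k) ∈ I₁ ∧
        |((T n l').p 1 + (G n).z k * (T n l').v 1) - ((T n l).p 1 + (G n).z k * (T n l).v 1)| ≤
          δ ∧ |(T n l').v 1 - (T n l).v 1| ≤ r) (by
        intro l' hl'
        obtain ⟨c1, c2, c3, c4⟩ := Finset.mem_filter.1 hl'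
        exact Finset.mem_filter.2 ⟨c1, hI₁ c2⟩) (by
        intro l' hl'
        obtain ⟨c1, c2, c3, c4⟩ := Finset.mem_filter.1 hl'
        refine ⟨?_, c4⟩
        have h1 : δ ≤ B.d n ^ (s - η) := rpow_anti B n (by linarith)
        have h2 := hpos (s - η)
        exact c3.trans (by linarith))
      refine key.trans ?_
      refine mul_le_mul_of_nonneg_right ?_ (Nat.cast_nonneg _)
      refine mul_le_mul_of_nonneg_right ?_ (Real.rpow_nonneg hr0.le _)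
      rw [hδt, hδ, hsplit]
      refine rpow_anti B n ?_
      rw [hηε]
      linarith) (by
      intro l l' k hl hl' hX
      have h1 := hstar k l l' hl hl' hX
      have h2 : (u 0 * wE T n l' 0 + u 1 * wE T n l' 1) / 4 -
          (u 0 * wE T n l 0 + u 1 * wE T n l 1) / 4 -
          (u 0 * eE E fa fb n k 0 + u 1 * eE E fa fb n k 1) / 4 * ((T n l').v 1 - (T n l).v 1) =
          (oE T E fa fb u n k l' - oE T E fa fb u n k l) / 4 := by
        unfold oE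
        ring
      rw [h2, hfour, hδt]
      have h3 : B.d n ^ (s * (1 - ε')) = B.d n ^ (s - s * ε') := by congr 1; ring
      rw [h3]
      have h4 := hpos (s - s * ε')
      linarith)
  refine ⟨4 * μ, 4 * c0, 4 * q0, ?_, I₂, hI₂, ?_, ?_⟩
  · rw [abs_mul, abs_of_pos (by norm_num : (0 : ℝ) < 4)]
    rw [hδt] at hμ
    calc 4 * |μ| ≤ B.d n ^ (-(s * (C * ε'))) * B.d n ^ (s * (-(C * ε'))) :=
          mul_le_mul g6 hμ (abs_nonneg _) (hpos _).le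
      _ ≤ _ := by
          rw [hsplit]
          refine rpow_anti B n ?_
          nlinarith
  · rw [hδt, mul_assoc] at hI₂c
    refine le_trans ?_ hI₂c
    exact mul_le_mul_of_nonneg_right (rpow_anti B n (by linarith)) hLZ.le
  · intro l k hlk
    obtain ⟨r1, r2⟩ := hrel l k hlk
    have h1 : 4 * δ ^ θ ≤ B.d n ^ (s * θ / 2) := by
      rw [hδt]
      have e1 : B.d n ^ (s * θ / 2) = B.d n ^ (-(s * θ / 2)) * B.d n ^ (s * θ) := by
        rw [hsplit]; congr 1; ring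
      rw [e1]
      exact mul_le_mul_of_nonneg_right g5 (hpos _).le
    have h4 : ∀ a b : ℝ, 4 * a = b → |a| ≤ δ ^ θ → |b| ≤ B.d n ^ (s * θ / 2) := by
      intro a b hab ha
      rw [← hab, abs_mul, abs_of_pos (by norm_num : (0 : ℝ) < 4)]
      linarith
    refine ⟨h4 _ _ ?_ r1, h4 _ _ ?_ r2⟩
    · ring
    · ring

end Crest.Agent.R136.RgE344
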