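import Crest.Agent.R136.Gr2_356

/-!
# R136: counting on relative models (helper344): block (N) of the RIG wrapper of helper323

* `grid_count` : number of grid labels of mesh `δ`, if every point of `T` has a box of `≥ m0` points
  inside `W` on which the coordinates vary by `≤ w`;
* `RUnif.lab_le` : number of grid labels of mesh `ρ^x` of a set contained in one loose `p`-box,
  when loose `r`-boxes have width `≤ ρ^(x - C1 ε)` in the label coordinates : `≤ ρ^(-(ν p - ν r) - C ε)`;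
* `RUnif.card_close_le` : number of pairwise `p`-close lines;
* `RUnif.lab_ge` : lower bound of the number of labels;
* `RModel.*` : global versions (labels of lines, all heights together).
-/

set_option autoImplicit false
set_option linter.unusedVariables false
set_option linter.unusedSectionVars false

open Filter Topology Finset

namespace Crest.Agent.R136.RgN344

open Crest.Agent.R138.Ex926 (Base U)
open Crest.Agent.R136.Gf356

/-- grid label of mesh `δ` -/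
noncomputable def gl {m : ℕ} (δ : ℝ) (c : Fin m → ℝ) : Fin m → ℤ := fun j => ⌊c j / δ⌋

theorem abs_sub_lt_of_gl_eq {m : ℕ} {δ : ℝ} (hδ : 0 < δ) {c c' : Fin m → ℝ}
    (h : gl δ c = gl δ c') (j : Fin m) : |c j - c' j| < δ := by
  have h1 : ⌊c j / δ⌋ = ⌊c' j / δ⌋ := congrFun h j
  have h2 := Int.abs_sub_lt_one_of_floor_eq_floor h1
  rw [← sub_div, abs_div, abs_of_pos hδ, div_lt_one hδ] at h2
  exact h2

/-- the labels of points at distance `≤ w` -/
theorem gl_mem_box {m : ℕ} {δ w : ℝ} (hδ : 0 < δ) {c c' : Fin m → ℝ}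
    (h : ∀ j, |c j - c' j| ≤ w) :
    gl δ c ∈ Fintype.piFinset fun j => Finset.Icc ⌊(c' j - w) / δ⌋ ⌊(c' j + w) / δ⌋ := by
  rw [Fintype.mem_piFinset]
  intro j
  have h1 := abs_le.1 (h j)
  rw [Finset.mem_Icc]
  constructor
  · exact Int.floor_le_floor (div_le_div_of_nonneg_right (by linarith [h1.1]) hδ.le)
  · exact Int.floor_le_floor (div_le_div_of_nonneg_right (by linarith [h1.2]) hδ.le)

theorem card_gl_box {m : ℕ} {δ w : ℝ} (hδ : 0 < δ) (hw : 0 ≤ w) (c' : Fin m → ℝ) :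
    ((Fintype.piFinset fun j => Finset.Icc ⌊(c' j - w) / δ⌋ ⌊(c' j + w) / δ⌋).card : ℝ) ≤
      (2 * w / δ + 2) ^ m := by
  rw [Fintype.card_piFinset]
  push_cast
  have h : ∀ j : Fin m, ((Finset.Icc ⌊(c' j - w) / δ⌋ ⌊(c' j + w) / δ⌋).card : ℝ) ≤
      2 * w / δ + 2 := by
    intro j
    rw [Int.card_Icc]
    have h1 : (⌊(c' j + w) / δ⌋ : ℝ) ≤ (c' j + w) / δ := Int.floor_le _
    have h2 : (c' j - w) / δ < ⌊(c' j - w) / δ⌋ + 1 := Int.lt_floor_add_one _
    have h3 : ⌊(c' j - w) / δ⌋ ≤ ⌊(c' j + w) / δ⌋ :=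
      Int.floor_le_floor (div_le_div_of_nonneg_right (by linarith) hδ.le)
    have h4 : (((⌊(c' j + w) / δ⌋ + 1 - ⌊(c' j - w) / δ⌋).toNat : ℕ) : ℝ) =
        (⌊(c' j + w) / δ⌋ : ℝ) + 1 - ⌊(c' j - w) / δ⌋ := by
      have : (((⌊(c' j + w) / δ⌋ + 1 - ⌊(c' j - w) / δ⌋).toNat : ℤ) : ℝ) =
          ((⌊(c' j + w) / δ⌋ + 1 - ⌊(c' j - w) / δ⌋ : ℤ) : ℝ) := by
        rw [Int.toNat_of_nonneg (by omega)]
      push_cast at this
      exact_mod_cast this
    rw [h4]
    have h5 : (c' j + w) / δ - (c' j - w) / δ = 2 * w / δ := by field_simp; ring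
    linarith
  calc ∏ j : Fin m, ((Finset.Icc ⌊(c' j - w) / δ⌋ ⌊(c' j + w) / δ⌋).card : ℝ)
      ≤ ∏ _j : Fin m, (2 * w / δ + 2) :=
        Finset.prod_le_prod (fun _ _ => Nat.cast_nonneg _) fun j _ => h j
    _ = _ := by simp

/-- **grid labels and boxes** -/
theorem grid_count {ι : Type*} [DecidableEq ι] {m : ℕ} (T W : Finset ι) (F : ι → Fin m → ℝ)
    {δ w m0 : ℝ} (hδ : 0 < δ) (hw : 0 ≤ w)
    (hS : ∀ i ∈ T, ∃ S ⊆ W, (∀ l ∈ S, ∀ j, |F l j - F i j| ≤ w) ∧ m0 ≤ (S.card : ℝ)) :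
    ((T.image fun i => gl δ (F i)).card : ℝ) * m0 ≤ (2 * w / δ + 2) ^ m * (W.card : ℝ) := by
  classical
  rcases T.eq_empty_or_nonempty with rfl | ⟨i00, _⟩
  · simp only [Finset.image_empty, Finset.card_empty, Nat.cast_zero, zero_mul]
    have : 0 ≤ 2 * w / δ + 2 := by positivity
    positivity
  have : Nonempty ι := ⟨i00⟩
  set lab : ι → (Fin m → ℤ) := fun i => gl δ (F i) with hlab
  -- representatives
  have hrep : ∀ c ∈ T.image lab, ∃ i ∈ T, lab i = c := fun c hc => by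
    obtain ⟨i, hi, h⟩ := Finset.mem_image.1 hc
    exact ⟨i, hi, h⟩
  choose! rep hrepT hreplab using hrep
  set T' : Finset ι := (T.image lab).image rep with hT'
  have hinj : Set.InjOn rep (T.image lab) := by
    intro c hc c' hc' h
    rw [← hreplab c hc, ← hreplab c' hc', h]
  have hcard : T'.card = (T.image lab).card := Finset.card_image_of_injOn hinj
  have hT'T : T' ⊆ T := by
    intro i hi
    obtain ⟨c, hc, rfl⟩ := Finset.mem_image.1 hi
    exact hrepT c hc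
  have hlinj : ∀ i ∈ T', ∀ i' ∈ T', lab i = lab i' → i = i' := by
    intro i hi i' hi' h
    obtain ⟨c, hc, rfl⟩ := Finset.mem_image.1 hi
    obtain ⟨c', hc', rfl⟩ := Finset.mem_image.1 hi'
    rw [hreplab c hc, hreplab c' hc'] at h
    rw [h]
  choose! S hSW hSF hSm using hS
  have h1 : (T'.card : ℝ) * m0 ≤ ∑ i ∈ T', ((S i).card : ℝ) := by
    rw [← nsmul_eq_mul, ← Finset.sum_const]
    exact Finset.sum_le_sum fun i hi => hSm i (hT'T hi)
  have h2 : ∑ i ∈ T', ((S i).card : ℝ) ≤ ∑ l ∈ W, ((T'.filter fun i => l ∈ S i).card : ℝ) := by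
    have e1 : ∀ i ∈ T', ((S i).card : ℝ) = ∑ l ∈ W, if l ∈ S i then (1 : ℝ) else 0 := by
      intro i hi
      rw [Finset.sum_ite_mem, Finset.inter_eq_right.2 (hSW i (hT'T hi))]
      simp
    rw [Finset.sum_congr rfl e1, Finset.sum_comm]
    refine le_of_eq (Finset.sum_congr rfl fun l _ => ?_)
    rw [Finset.card_filter]
    push_cast
    rfl
  have h3 : ∀ l ∈ W, ((T'.filter fun i => l ∈ S i).card : ℝ) ≤ (2 * w / δ + 2) ^ m := by
    intro l _
    refine le_trans ?_ (card_gl_box hδ hw (F l))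
    refine mod_cast Finset.card_le_card_of_injOn lab ?_ ?_
    · intro i hi
      have hi' := Finset.mem_filter.1 (Finset.mem_coe.1 hi)
      refine Finset.mem_coe.2 (gl_mem_box hδ fun j => ?_)
      rw [abs_sub_comm]
      exact hSF i (hT'T hi'.1) l hi'.2 j
    · intro i hi i' hi' h
      exact hlinj i (Finset.mem_filter.1 (Finset.mem_coe.1 hi)).1 i'
        (Finset.mem_filter.1 (Finset.mem_coe.1 hi')).1 h
  rw [← hcard]
  calc (T'.card : ℝ) * m0 ≤ ∑ l ∈ W, ((T'.filter fun i => l ∈ S i).card : ℝ) := h1.trans h2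
    _ ≤ ∑ _l ∈ W, (2 * w / δ + 2) ^ m := Finset.sum_le_sum h3
    _ = _ := by rw [Finset.sum_const, nsmul_eq_mul, mul_comm]

/-- `r`-separated points in an interval of length `2 w` -/
theorem sep_count {ι : Type*} [DecidableEq ι] (T : Finset ι) (N : ι → ℝ) {r w : ℝ} (hr : 0 < r)
    (hw : 0 ≤ w) (hclose : ∀ i ∈ T, ∀ i' ∈ T, |N i - N i'| ≤ w)
    (hsep : ∀ i ∈ T, ∀ i' ∈ T, i ≠ i' → r ≤ |N i - N i'|) : (T.card : ℝ) ≤ 2 * w / r + 2 := by
  classical
  rcases T.eq_empty_or_nonempty with rfl | ⟨i0, hi0⟩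
  · simp only [Finset.card_empty, Nat.cast_zero]
    positivity
  have h := card_gl_box (m := 1) hr hw (fun _ => N i0)
  rw [pow_one] at h
  refine le_trans ?_ h
  refine mod_cast Finset.card_le_card_of_injOn (fun i => gl r (fun _ : Fin 1 => N i)) ?_ ?_
  · intro i hi
    exact Finset.mem_coe.2 (gl_mem_box hr fun _ => hclose i (Finset.mem_coe.1 hi) i0 hi0)
  · intro i hi i' hi' heq
    by_contra hne
    have h1 := abs_sub_lt_of_gl_eq hr heq 0
    have h2 := hsep i (Finset.mem_coe.1 hi) i' (Finset.mem_coe.1 hi') hne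
    linarith

/-- labels of lines which are alive at a `κ₀`-part of the heights: global number of labels -/
theorem image_line_le {ι α : Type*} [DecidableEq ι] [DecidableEq α] (L : Finset ι) (Z : Finset ℕ)
    (al : ι → ℕ → Prop) [∀ i k, Decidable (al i k)] (lab : ι → α) {κ₀ M : ℝ} (hZ : Z.Nonempty)
    (hline : ∀ i ∈ L, κ₀ * (Z.card : ℝ) ≤ ((Z.filter fun k => al i k).card : ℝ))
    (h : ∀ k ∈ Z, (((L.filter fun i => al i k).image lab).card : ℝ) ≤ M) :
    κ₀ * ((L.image lab).card : ℝ) ≤ M := by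
  classical
  rcases L.eq_empty_or_nonempty with rfl | ⟨i00, _⟩
  · obtain ⟨k, hk⟩ := hZ
    have := h k hk
    simp only [Finset.image_empty, Finset.card_empty, Nat.cast_zero, mul_zero]
    exact le_trans (Nat.cast_nonneg _) this
  have : Nonempty ι := ⟨i00⟩
  have hrep : ∀ c ∈ L.image lab, ∃ i ∈ L, lab i = c := fun c hc => by
    obtain ⟨i, hi, h⟩ := Finset.mem_image.1 hc
    exact ⟨i, hi, h⟩
  choose! rep hrepL hreplab using hrep
  have hZ0 : (0 : ℝ) < Z.card := by exact_mod_cast hZ.card_pos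
  have h1 : ((L.image lab).card : ℝ) * (κ₀ * Z.card) ≤
      ∑ c ∈ L.image lab, ((Z.filter fun k => al (rep c) k).card : ℝ) := by
    rw [← nsmul_eq_mul, ← Finset.sum_const]
    exact Finset.sum_le_sum fun c hc => hline _ (hrepL c hc)
  have h2 : ∑ c ∈ L.image lab, ((Z.filter fun k => al (rep c) k).card : ℝ) ≤
      ∑ k ∈ Z, (((L.filter fun i => al i k).image lab).card : ℝ) := by
    have e1 : ∀ c ∈ L.image lab, ((Z.filter fun k => al (rep c) k).card : ℝ) =
        ∑ k ∈ Z, if al (rep c) k then (1 : ℝ) else 0 := by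
      intro c _
      rw [Finset.card_filter]
      push_cast
      rfl
    rw [Finset.sum_congr rfl e1, Finset.sum_comm]
    refine Finset.sum_le_sum fun k _ => ?_
    have e2 : ∑ c ∈ L.image lab, (if al (rep c) k then (1 : ℝ) else 0) =
        (((L.image lab).filter fun c => al (rep c) k).card : ℝ) := by
      rw [Finset.card_filter]
      push_cast
      rfl
    rw [e2]
    refine mod_cast Finset.card_le_card ?_
    intro c hc
    obtain ⟨h3, h4⟩ := Finset.mem_filter.1 hc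
    exact Finset.mem_image.2 ⟨rep c, Finset.mem_filter.2 ⟨hrepL c h3, h4⟩, hreplab c h3⟩
  have h3 : ∑ k ∈ Z, (((L.filter fun i => al i k).image lab).card : ℝ) ≤ Z.card * M := by
    rw [← nsmul_eq_mul, ← Finset.sum_const]
    exact Finset.sum_le_sum h
  have h4 : (κ₀ * ((L.image lab).card : ℝ)) * Z.card ≤ M * Z.card := by
    calc (κ₀ * ((L.image lab).card : ℝ)) * Z.card = ((L.image lab).card : ℝ) * (κ₀ * Z.card) := by
          ring
      _ ≤ Z.card * M := h1.trans (h2.trans h3)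
      _ = M * Z.card := mul_comm _ _
  exact le_of_mul_le_mul_right h4 hZ0

/-! ### `RUnif` -/

variable {κ : Type} {B : Base} {G : ℕ → RCfg κ} {Leg : Set (κ → ℝ)} {ν : (κ → ℝ) → ℝ} {D : ℝ}

/-- number of pairwise close lines alive at one height -/
theorem card_close_le (H : RUnif B G Leg ν D) (p : κ → ℝ) (hp : p ∈ Leg) {C ε : ℝ} (hC : 0 < C)
    (hε : 0 < ε) :
    ∀ᶠ n in (U : Filter ℕ), ∀ k, ∀ T ⊆ (G n).slice k,
      (∀ i ∈ T, ∀ i' ∈ T, (G n).loose p (C * ε) k i i') →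
      (T.card : ℝ) ≤ B.d n ^ (-ν p - D * C * ε) := by
  filter_upwards [H.up p hp (C * ε) (by positivity)] with n h k T hT hc
  rcases T.eq_empty_or_nonempty with rfl | ⟨t0, ht0⟩
  · simpa using (rpos B n _).le
  have h1 := h t0 k (H.memSlice.1 (hT ht0))
  rw [← mul_assoc] at h1
  refine le_trans ?_ h1
  refine mod_cast Finset.card_le_card fun i hi => RCfg.mem_box.2 ⟨hT hi, hc t0 ht0 i hi⟩

/-- **lines and labels**: if lines with the same label are `p`-close then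
`#lines ≤ #labels · ρ^(-ν p - D C ε)` -/
theorem card_le_lab (H : RUnif B G Leg ν D) (p : κ → ℝ) (hp : p ∈ Leg) {C ε : ℝ} (hC : 0 < C)
    (hε : 0 < ε) :
    ∀ᶠ n in (U : Filter ℕ), ∀ k, ∀ T ⊆ (G n).slice k, ∀ (α : Type) [DecidableEq α] (lab : ℕ → α),
      (∀ i ∈ T, ∀ i' ∈ T, lab i = lab i' → (G n).loose p (C * ε) k i i') →
      (T.card : ℝ) ≤ ((T.image lab).card : ℝ) * B.d n ^ (-ν p - D * C * ε) := by
  filter_upwards [card_close_le H p hp hC hε] with n h k T hT α _ lab hlab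
  have h1 : (T.card : ℝ) = ∑ c ∈ T.image lab, ((T.filter fun i => lab i = c).card : ℝ) := by
    have : T.card = ∑ c ∈ T.image lab, (T.filter fun i => lab i = c).card :=
      Finset.card_eq_sum_card_fiberwise fun i hi => Finset.mem_image_of_mem _ hi
    rw [this]
    push_cast
    rfl
  rw [h1, ← nsmul_eq_mul, ← Finset.sum_const]
  refine Finset.sum_le_sum fun c _ => ?_
  refine h k _ ((Finset.filter_subset _ _).trans hT) ?_
  intro i hi i' hi'
  obtain ⟨a1, a2⟩ := Finset.mem_filter.1 hi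
  obtain ⟨b1, b2⟩ := Finset.mem_filter.1 hi'
  exact hlab i a1 i' b1 (a2.trans b2.symm)

/-- **number of grid labels** of mesh `ρ^x` of a set inside one loose `p`-box, if loose `r`-boxes
have width `≤ ρ^(x - C1 ε)` in the label coordinates -/
theorem lab_le (H : RUnif B G Leg ν D) (p r : κ → ℝ) (hp : p ∈ Leg) (hr : r ∈ Leg)
    (hpr : ∀ j, p j ≤ r j) {m : ℕ} {x C1 : ℝ} (hC1 : 0 ≤ C1)
    (co : ℕ → ℕ → ℕ → Fin m → ℝ)
    (hco : ∀ ε : ℝ, 0 < ε → ∀ᶠ n in (U : Filter ℕ), ∀ k i l, (i, k) ∈ (G n).I →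
      (l, k) ∈ (G n).I → (G n).loose r ε k i l → ∀ j, |co n k l j - co n k i j| ≤
      B.d n ^ (x - C1 * ε)) {C0 ε : ℝ} (hC0 : 1 ≤ C0) (hε : 0 < ε) :
    ∀ᶠ n in (U : Filter ℕ), ∀ k i0, (i0, k) ∈ (G n).I → ∀ T ⊆ (G n).slice k,
      (∀ i ∈ T, (G n).loose p (C0 * ε) k i0 i) →
      ((T.image fun i => gl (B.d n ^ x) (co n k i)).card : ℝ) ≤
        B.d n ^ (-(ν p - ν r) - (D * (D * C0) + m * (C1 + 1) + 1) * ε) := by
  classical
  have hD := H.D1
  have hC0ε : 0 < C0 * ε := by positivity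
  filter_upwards [hco ε hε, H.low r hr ε hε, H.tri p hp (C0 * ε) hC0ε,
    H.up p hp (D * (C0 * ε)) (by positivity), ev_const_le B hε 4] with n h1 h2 h3 h4 h5
  intro k i0 hi0 T hT hTc
  have hpow : ∀ t : ℝ, 0 < B.d n ^ t := fun t => rpos B n t
  have key := grid_count T ((G n).box p (D * (C0 * ε)) i0 k) (fun i => co n k i)
    (δ := B.d n ^ x) (w := B.d n ^ (x - C1 * ε)) (m0 := B.d n ^ (-ν r + ε)) (hpow _) (hpow _).le
    (by
      intro i hi
      have hiI := H.memSlice.1 (hT hi)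
      refine ⟨(G n).box r ε i k, ?_, ?_, h2 i k hiI⟩
      · intro l hl
        obtain ⟨l1, l2⟩ := RCfg.mem_box.1 hl
        refine RCfg.mem_box.2 ⟨l1, h3 k i0 i l hi0 hiI (H.memSlice.1 l1) (hTc i hi) ?_⟩
        exact H.loose_mono hpr (by nlinarith) l2
      · intro l hl j
        obtain ⟨l1, l2⟩ := RCfg.mem_box.1 hl
        exact h1 k i l hiI (H.memSlice.1 l1) l2 j)
  have e1 : 2 * B.d n ^ (x - C1 * ε) / B.d n ^ x + 2 ≤ B.d n ^ (-((C1 + 1) * ε)) := by
    have a1 : B.d n ^ (x - C1 * ε) / B.d n ^ x = B.d n ^ (-(C1 * ε)) := by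
      rw [div_eq_iff (hpow _).ne', ← rpow_add']
      congr 1
      ring
    have a2 : (1 : ℝ) ≤ B.d n ^ (-(C1 * ε)) :=
      Real.one_le_rpow_of_pos_of_le_one_of_nonpos (B.pos n) (B.lt n).le
        (by have : 0 ≤ C1 * ε := by positivity
            linarith)
    have a3 : B.d n ^ (-((C1 + 1) * ε)) = B.d n ^ (-(C1 * ε)) * B.d n ^ (-ε) := by
      rw [← rpow_add']
      congr 1
      ring
    rw [mul_div_assoc, a1, a3]
    nlinarith
  have e2 : (2 * B.d n ^ (x - C1 * ε) / B.d n ^ x + 2) ^ m ≤ B.d n ^ (-(m * (C1 + 1) * ε)) := by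
    have a1 : (B.d n ^ (-((C1 + 1) * ε))) ^ m = B.d n ^ (-(m * (C1 + 1) * ε)) := by
      rw [← Real.rpow_natCast (B.d n ^ (-((C1 + 1) * ε))) m, ← Real.rpow_mul (B.pos n).le]
      congr 1
      ring
    rw [← a1]
    refine pow_le_pow_left₀ ?_ e1 m
    have := (hpow (x - C1 * ε)).le
    have := (hpow x).le
    positivity
  have e3 : B.d n ^ (-ν r + ε) * B.d n ^ (ν r - ε) = 1 := by
    rw [← rpow_add']
    have : -ν r + ε + (ν r - ε) = 0 := by ring
    rw [this, Real.rpow_zero]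
  calc ((T.image fun i => gl (B.d n ^ x) (co n k i)).card : ℝ)
      = ((T.image fun i => gl (B.d n ^ x) (co n k i)).card : ℝ) * B.d n ^ (-ν r + ε) *
          B.d n ^ (ν r - ε) := by rw [mul_assoc, e3, mul_one]
    _ ≤ ((2 * B.d n ^ (x - C1 * ε) / B.d n ^ x + 2) ^ m *
          (((G n).box p (D * (C0 * ε)) i0 k).card : ℝ)) * B.d n ^ (ν r - ε) :=
        mul_le_mul_of_nonneg_right key (hpow _).le
    _ ≤ (B.d n ^ (-(m * (C1 + 1) * ε)) * B.d n ^ (-ν p - D * (D * (C0 * ε)))) *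
          B.d n ^ (ν r - ε) := by
        refine mul_le_mul_of_nonneg_right ?_ (hpow _).le
        exact mul_le_mul e2 (h4 i0 k hi0) (Nat.cast_nonneg _) (hpow _).le
    _ = _ := by
        rw [← rpow_add', ← rpow_add']
        congr 1
        ring

/-- **fibre bound**, uniform in the window `y ∈ [0, x]`: lines pairwise in loose `q y`-boxes, with
`ρ^x`-separated values of the coordinate `Nc` -/
theorem fib_le (H : RUnif B G Leg ν D) {x a C1 C2 : ℝ} (hx : 0 < x) (ha : 0 ≤ a) (hC1 : 1 ≤ C1)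
    (hC2 : 0 ≤ C2) (q : ℝ → κ → ℝ) (hq : ∀ y, 0 ≤ y → y ≤ x → q y ∈ Leg)
    (hqm : ∀ y y', 0 ≤ y → y ≤ y' → y' ≤ x → ∀ j, q y j ≤ q y' j)
    (hν : ∀ y, 0 ≤ y → y ≤ x → ν (q y) - ν (q x) ≤ a * (x - y))
    (Nc : ℕ → ℕ → ℕ → ℝ)
    (hNc : ∀ ε : ℝ, 0 < ε → ∀ᶠ n in (U : Filter ℕ), ∀ k i l, (i, k) ∈ (G n).I →
      (l, k) ∈ (G n).I → (G n).loose (q x) ε k i l → |Nc n k l - Nc n k i| ≤
      B.d n ^ (x - C2 * ε)) {ε : ℝ} (hε : 0 < ε) :
    ∀ᶠ n in (U : Filter ℕ), ∀ k, ∀ T ⊆ (G n).slice k, ∀ y, 0 ≤ y → y ≤ x →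
      (∀ i ∈ T, ∀ i' ∈ T, (G n).loose (q y) (C1 * ε) k i i') →
      (∀ i ∈ T, ∀ i' ∈ T, i ≠ i' → B.d n ^ x ≤ |Nc n k i - Nc n k i'|) →
      (T.card : ℝ) ≤ B.d n ^ (-(a * (x - y)) -
        ((D ^ 2 + 1) * C1 + a + C2 * (D ^ 5 * C1) + 1) * ε) := by
  classical
  have hD := H.D1
  have hD0 : 0 < D := by linarith
  obtain ⟨J, hJ⟩ := exists_nat_gt (x / ε)
  have hJ0 : 0 < J := by
    rcases Nat.eq_zero_or_pos J with h | h
    · rw [h] at hJ
      have : 0 < x / ε := by positivity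
      simp at hJ
      linarith
    · exact h
  have hJr : (0 : ℝ) < J := by exact_mod_cast hJ0
  have hstep : x / J ≤ ε := by
    rw [div_le_iff₀ hJr]
    have := (div_lt_iff₀ hε).1 hJ
    linarith
  have hmesh : ∀ j : ℕ, j ≤ J → 0 ≤ x * j / J ∧ x * j / J ≤ x := by
    intro j hj
    have hjr : (j : ℝ) ≤ J := by exact_mod_cast hj
    refine ⟨by positivity, ?_⟩
    rw [div_le_iff₀ hJr]
    nlinarith
  have hC1ε : 0 < C1 * ε := by positivity
  have hcells : ∀ᶠ n in (U : Filter ℕ), ∀ j ∈ Finset.range (J + 1), ∀ k, ∀ T ⊆ (G n).slice k,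
      (∀ i ∈ T, ∀ i' ∈ T, (G n).loose (q (x * j / J)) (C1 * ε) k i i') →
      ∃ lab : ℕ → ℕ, (∀ t ∈ T, ∀ t' ∈ T, lab t = lab t' →
          (G n).loose (q x) (D ^ 5 * (C1 * ε)) k t t') ∧
        ((T.image lab).card : ℝ) ≤
          B.d n ^ (-(ν (q (x * j / J)) - ν (q x)) - (D ^ 2 + 1) * (C1 * ε)) := by
    rw [Filter.eventually_all_finset]
    intro j hj
    have hj' : j ≤ J := by
      have := Finset.mem_range.1 hj
      omega
    exact H.exists_lab_loose _ _ (hq _ (hmesh j hj').1 (hmesh j hj').2) (hq x hx.le le_rfl)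
      (hqm _ _ (hmesh j hj').1 (hmesh j hj').2 le_rfl) hC1ε
  have hD5 : 0 < D ^ 5 * (C1 * ε) := by positivity
  filter_upwards [hcells, hNc _ hD5, ev_const_le B hε 4] with n h1 h2 h3 k T hT y hy0 hyx hcl hsep
  have hpow : ∀ t : ℝ, 0 < B.d n ^ t := fun t => rpos B n t
  -- the mesh point below `y`
  obtain ⟨j, hj, hjy, hyj⟩ : ∃ j : ℕ, j ≤ J ∧ x * j / J ≤ y ∧ y ≤ x * j / J + ε := by
    refine ⟨⌊y * J / x⌋₊, ?_, ?_, ?_⟩
    · have e1 : y * J / x ≤ J := by
        rw [div_le_iff₀ hx]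
        nlinarith
      have e2 : (⌊y * J / x⌋₊ : ℝ) ≤ J := (Nat.floor_le (by positivity)).trans e1
      exact_mod_cast e2
    · have e2 : (⌊y * J / x⌋₊ : ℝ) ≤ y * J / x := Nat.floor_le (by positivity)
      rw [div_le_iff₀ hJr]
      have e3 : (⌊y * J / x⌋₊ : ℝ) * x ≤ y * J := (le_div_iff₀ hx).1 e2
      linarith
    · have e2 : y * J / x < (⌊y * J / x⌋₊ : ℝ) + 1 := Nat.lt_floor_add_one _
      have e3 : y * J < ((⌊y * J / x⌋₊ : ℝ) + 1) * x := (div_lt_iff₀ hx).1 e2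
      have e4 : y ≤ x * (⌊y * J / x⌋₊ : ℝ) / J + x / J := by
        rw [← add_div, le_div_iff₀ hJr]
        linarith
      linarith
  have hj1 : j ∈ Finset.range (J + 1) := Finset.mem_range.2 (by omega)
  obtain ⟨lab, hlab1, hlab2⟩ := h1 j hj1 k T hT (fun i hi i' hi' =>
    H.loose_mono (hqm _ _ (hmesh j hj).1 hjy hyx) le_rfl (hcl i hi i' hi'))
  have h4 : (T.card : ℝ) = ∑ c ∈ T.image lab, ((T.filter fun i => lab i = c).card : ℝ) := by
    have : T.card = ∑ c ∈ T.image lab, (T.filter fun i => lab i = c).card :=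
      Finset.card_eq_sum_card_fiberwise fun i hi => Finset.mem_image_of_mem _ hi
    rw [this]
    push_cast
    rfl
  have h5 : ∀ c ∈ T.image lab, ((T.filter fun i => lab i = c).card : ℝ) ≤
      B.d n ^ (-((C2 * (D ^ 5 * C1) + 1) * ε)) := by
    intro c _
    have a1 := sep_count (T.filter fun i => lab i = c) (fun i => Nc n k i) (r := B.d n ^ x)
      (w := B.d n ^ (x - C2 * (D ^ 5 * (C1 * ε)))) (hpow _) (hpow _).le (by
        intro i hi i' hi'
        obtain ⟨a1, a2⟩ := Finset.mem_filter.1 hi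
        obtain ⟨b1, b2⟩ := Finset.mem_filter.1 hi'
        exact h2 k i' i (H.memSlice.1 (hT b1)) (H.memSlice.1 (hT a1))
          (hlab1 i' b1 i a1 (b2.trans a2.symm))) (by
        intro i hi i' hi' hne
        exact hsep i (Finset.mem_filter.1 hi).1 i' (Finset.mem_filter.1 hi').1 hne)
    refine a1.trans ?_
    have a2 : B.d n ^ (x - C2 * (D ^ 5 * (C1 * ε))) / B.d n ^ x =
        B.d n ^ (-(C2 * (D ^ 5 * (C1 * ε)))) := by
      rw [div_eq_iff (hpow _).ne', ← rpow_add']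
      congr 1
      ring
    have a3 : (1 : ℝ) ≤ B.d n ^ (-(C2 * (D ^ 5 * (C1 * ε)))) :=
      Real.one_le_rpow_of_pos_of_le_one_of_nonpos (B.pos n) (B.lt n).le
        (by have : 0 ≤ C2 * (D ^ 5 * (C1 * ε)) := by positivity
            linarith)
    have a4 : B.d n ^ (-((C2 * (D ^ 5 * C1) + 1) * ε)) =
        B.d n ^ (-(C2 * (D ^ 5 * (C1 * ε)))) * B.d n ^ (-ε) := by
      rw [← rpow_add']
      congr 1
      ring
    rw [mul_div_assoc, a2, a4]
    nlinarith
  calc (T.card : ℝ) = ∑ c ∈ T.image lab, ((T.filter fun i => lab i = c).card : ℝ) := h4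
    _ ≤ ∑ _c ∈ T.image lab, B.d n ^ (-((C2 * (D ^ 5 * C1) + 1) * ε)) := Finset.sum_le_sum h5
    _ = ((T.image lab).card : ℝ) * B.d n ^ (-((C2 * (D ^ 5 * C1) + 1) * ε)) := by
        rw [Finset.sum_const, nsmul_eq_mul]
    _ ≤ B.d n ^ (-(ν (q (x * j / J)) - ν (q x)) - (D ^ 2 + 1) * (C1 * ε)) *
          B.d n ^ (-((C2 * (D ^ 5 * C1) + 1) * ε)) :=
        mul_le_mul_of_nonneg_right hlab2 (hpow _).le
    _ = B.d n ^ (-(ν (q (x * j / J)) - ν (q x)) - (D ^ 2 + 1) * (C1 * ε) -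
          (C2 * (D ^ 5 * C1) + 1) * ε) := by
        rw [← rpow_add', ← sub_eq_add_neg]
    _ ≤ _ := by
        refine rpow_anti B n ?_
        have b1 := hν _ (hmesh j hj).1 (hmesh j hj).2
        have b2 : a * (x - x * j / J) ≤ a * (x - y) + a * ε := by
          have : x - x * j / J ≤ (x - y) + ε := by linarith
          nlinarith
        nlinarith

end Crest.Agent.R136.RgN344
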