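import Crest.Agent.R136.RgN1_344

/-!
# R136: counting on relative models, part 2 (helper344): block (N) of the RIG wrapper of helper323

Global counts on a `RModel`: slices, lines, labels of lines (all heights together), concentration of a
label coordinate, realised cells.
-/

set_option autoImplicit false
set_option linter.unusedVariables false
set_option linter.unusedSectionVars false

open Filter Topology Finset

namespace Crest.Agent.R136.RgN344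

open Crest.Agent.R138.Ex926 (Base U)
open Crest.Agent.R136.Gf356

variable {κ : Type} {B : Base} {G : ℕ → RCfg κ} {Leg : Set (κ → ℝ)} {ν : (κ → ℝ) → ℝ} {D : ℝ}
  {σ R : ℝ}

/-- all lines alive at one height are close for the exponent `p0` (the unit box) -/
def Bd (G : ℕ → RCfg κ) (p0 : κ → ℝ) (Cb : ℝ) : Prop := ∀ ε : ℝ, 0 < ε → ∀ᶠ n in (U : Filter ℕ),
  ∀ k i l, (i, k) ∈ (G n).I → (l, k) ∈ (G n).I → (G n).loose p0 (Cb * ε) k i l

theorem slice_ge (H : RUnif B G Leg ν D) (p0 : κ → ℝ) (hp0 : p0 ∈ Leg) {ε : ℝ} (hε : 0 < ε) :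
    ∀ᶠ n in (U : Filter ℕ), ∀ i k, (i, k) ∈ (G n).I →
      B.d n ^ (-ν p0 + ε) ≤ (((G n).slice k).card : ℝ) := by
  filter_upwards [H.low p0 hp0 ε hε] with n h i k hik
  exact (h i k hik).trans (mod_cast Finset.card_le_card RCfg.box_subset_slice)

theorem slice_le (H : RUnif B G Leg ν D) (p0 : κ → ℝ) (hp0 : p0 ∈ Leg) {Cb : ℝ} (hCb : 0 < Cb)
    (hbd : Bd G p0 Cb) {ε : ℝ} (hε : 0 < ε) :
    ∀ᶠ n in (U : Filter ℕ), ∀ k, (((G n).slice k).card : ℝ) ≤ B.d n ^ (-ν p0 - D * Cb * ε) := by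
  filter_upwards [card_close_le H p0 hp0 hCb hε, hbd ε hε] with n h h2 k
  exact h k _ (Finset.Subset.refl _) fun i hi i' hi' => h2 k i i' (H.memSlice.1 hi) (H.memSlice.1 hi')

/-- slices of a model are nonempty -/
theorem slice_nonempty (H : RModel B G σ R Leg ν D) :
    ∀ᶠ n in (U : Filter ℕ), ∀ k ∈ (G n).Z, ((G n).slice k).Nonempty := by
  filter_upwards [H.slice 1 one_pos] with n h k hk
  obtain ⟨⟨i1, k1⟩, hI1⟩ := H.nonempty n
  have hL0 : (0 : ℝ) < (G n).L.card := by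
    have : (G n).L.Nonempty := ⟨i1, H.memL hI1⟩
    exact_mod_cast this.card_pos
  have h1 := h k hk
  have h2 := rpos B n 1
  have h3 : (0 : ℝ) < ((G n).slice k).card := lt_of_lt_of_le (by positivity) h1
  rw [← Finset.card_pos]
  exact_mod_cast h3

theorem Z_nonempty (H : RUnif B G Leg ν D) (n : ℕ) : (G n).Z.Nonempty := by
  obtain ⟨⟨i1, k1⟩, hI1⟩ := H.nonempty n
  exact ⟨k1, H.memZ hI1⟩

theorem lines_le (H : RModel B G σ R Leg ν D) (p0 : κ → ℝ) (hp0 : p0 ∈ Leg) {Cb : ℝ} (hCb : 0 < Cb)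
    (hbd : Bd G p0 Cb) {ε : ℝ} (hε : 0 < ε) :
    ∀ᶠ n in (U : Filter ℕ), ((G n).L.card : ℝ) ≤ B.d n ^ (-ν p0 - (D * Cb + 1) * ε) := by
  filter_upwards [slice_le H.toRUnif p0 hp0 hCb hbd hε, H.slice ε hε] with n h1 h2
  obtain ⟨k, hk⟩ := Z_nonempty H.toRUnif n
  have h3 := (h2 k hk).trans (h1 k)
  have e1 : B.d n ^ (-ν p0 - D * Cb * ε) =
      B.d n ^ ε * B.d n ^ (-ν p0 - (D * Cb + 1) * ε) := by
    rw [← rpow_add']
    congr 1
    ring
  rw [e1] at h3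
  exact le_of_mul_le_mul_left h3 (rpos B n ε)

/-- **labels of lines**: number of labels of the lines of `L'`, all heights together -/
theorem labels_le (H : RModel B G σ R Leg ν D) (p r : κ → ℝ) (hp : p ∈ Leg) (hr : r ∈ Leg)
    (hpr : ∀ j, p j ≤ r j) {m : ℕ} {x C1 : ℝ} (hC1 : 0 ≤ C1) (co : ℕ → ℕ → Fin m → ℝ)
    (hco : ∀ ε : ℝ, 0 < ε → ∀ᶠ n in (U : Filter ℕ), ∀ k i l, (i, k) ∈ (G n).I →
      (l, k) ∈ (G n).I → (G n).loose r ε k i l → ∀ j, |co n l j - co n i j| ≤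
      B.d n ^ (x - C1 * ε)) {C0 ε : ℝ} (hC0 : 1 ≤ C0) (hε : 0 < ε) :
    ∀ᶠ n in (U : Filter ℕ), ∀ L' ⊆ (G n).L,
      (∀ k, ∀ i ∈ L', ∀ l ∈ L', (i, k) ∈ (G n).I → (l, k) ∈ (G n).I →
        (G n).loose p (C0 * ε) k i l) →
      ((L'.image fun i => gl (B.d n ^ x) (co n i)).card : ℝ) ≤
        B.d n ^ (-(ν p - ν r) - (D * (D * C0) + m * (C1 + 1) + 2) * ε) := by
  classical
  filter_upwards [lab_le H.toRUnif p r hp hr hpr hC1 (fun n _ i => co n i) hco hC0 hε,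
    H.line ε hε] with n h1 h2 L' hL' hcl
  have key := image_line_le L' (G n).Z (fun i k => (i, k) ∈ (G n).I)
    (fun i => gl (B.d n ^ x) (co n i)) (κ₀ := B.d n ^ ε)
    (M := B.d n ^ (-(ν p - ν r) - (D * (D * C0) + m * (C1 + 1) + 1) * ε))
    (Z_nonempty H.toRUnif n) (fun i hi => h2 i (hL' hi)) (by
      intro k hk
      rcases (L'.filter fun i => (i, k) ∈ (G n).I).eq_empty_or_nonempty with he | ⟨i0, hi0⟩
      · rw [he]
        simpa using (rpos B n _).le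
      · obtain ⟨a1, a2⟩ := Finset.mem_filter.1 hi0
        refine h1 k i0 a2 _ (fun i hi => ?_) (fun i hi => ?_)
        · exact H.memSlice.2 (Finset.mem_filter.1 hi).2
        · obtain ⟨b1, b2⟩ := Finset.mem_filter.1 hi
          exact hcl k i0 a1 i b1 a2 b2)
  have e1 : B.d n ^ (-(ν p - ν r) - (D * (D * C0) + m * (C1 + 1) + 1) * ε) =
      B.d n ^ ε * B.d n ^ (-(ν p - ν r) - (D * (D * C0) + m * (C1 + 1) + 2) * ε) := by
    rw [← rpow_add']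
    congr 1
    ring
  rw [e1] at key
  exact le_of_mul_le_mul_left key (rpos B n ε)

/-- lower bound of the number of labels seen at one height -/
theorem labels_ge (H : RUnif B G Leg ν D) (p0 r : κ → ℝ) (hp0 : p0 ∈ Leg) (hr : r ∈ Leg)
    {C ε : ℝ} (hC : 0 < C) (hε : 0 < ε) :
    ∀ᶠ n in (U : Filter ℕ), ∀ i k, (i, k) ∈ (G n).I → ∀ (α : Type) [DecidableEq α] (lab : ℕ → α),
      (∀ i ∈ (G n).slice k, ∀ i' ∈ (G n).slice k, lab i = lab i' → (G n).loose r (C * ε) k i i') →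
      B.d n ^ (-(ν p0 - ν r) + (D * C + 1) * ε) ≤ ((((G n).slice k).image lab).card : ℝ) := by
  filter_upwards [slice_ge H p0 hp0 hε, card_le_lab H r hr hC hε] with n h1 h2 i k hik α _ lab hlab
  have h3 := (h1 i k hik).trans (h2 k _ (Finset.Subset.refl _) α lab hlab)
  have hpow : ∀ t : ℝ, 0 < B.d n ^ t := fun t => rpos B n t
  have e1 : B.d n ^ (-ν p0 + ε) = B.d n ^ (-(ν p0 - ν r) + (D * C + 1) * ε) *
      B.d n ^ (-ν r - D * C * ε) := by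
    rw [← rpow_add']
    congr 1
    ring
  rw [e1] at h3
  exact le_of_mul_le_mul_right h3 (hpow _)

/-- **concentration**: the lines of `L'` are pairwise `pc`-close; `ν p0 - ν pc ≥ g`; then their
labels are a `ρ^(g - C ε)`-part of all labels. -/
theorem conc_le (H : RModel B G σ R Leg ν D) (p0 pc r : κ → ℝ) (hp0 : p0 ∈ Leg) (hpc : pc ∈ Leg)
    (hr : r ∈ Leg) (hcr : ∀ j, pc j ≤ r j) {g : ℝ} (hg : g ≤ ν p0 - ν pc) {m : ℕ} {x C1 : ℝ}
    (hC1 : 0 ≤ C1) (co : ℕ → ℕ → Fin m → ℝ)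
    (hco : ∀ ε : ℝ, 0 < ε → ∀ᶠ n in (U : Filter ℕ), ∀ k i l, (i, k) ∈ (G n).I →
      (l, k) ∈ (G n).I → (G n).loose r ε k i l → ∀ j, |co n l j - co n i j| ≤
      B.d n ^ (x - C1 * ε)) {C : ℝ} (hC : 0 < C)
    (hfine : ∀ ε : ℝ, 0 < ε → ∀ᶠ n in (U : Filter ℕ), ∀ k i l, (i, k) ∈ (G n).I →
      (l, k) ∈ (G n).I → gl (B.d n ^ x) (co n i) = gl (B.d n ^ x) (co n l) →
      (G n).loose r (C * ε) k i l) {C0 ε : ℝ} (hC0 : 1 ≤ C0) (hε : 0 < ε) :
    ∀ᶠ n in (U : Filter ℕ), ∀ L' ⊆ (G n).L,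
      (∀ k, ∀ i ∈ L', ∀ l ∈ L', (i, k) ∈ (G n).I → (l, k) ∈ (G n).I →
        (G n).loose pc (C0 * ε) k i l) →
      ((L'.image fun i => gl (B.d n ^ x) (co n i)).card : ℝ) ≤
        B.d n ^ (g - (D * (D * C0) + m * (C1 + 1) + D * C + 3) * ε) *
          (((G n).L.image fun i => gl (B.d n ^ x) (co n i)).card : ℝ) := by
  classical
  filter_upwards [labels_le H pc r hpc hr hcr hC1 co hco hC0 hε,
    labels_ge H.toRUnif p0 r hp0 hr hC hε, hfine ε hε] with n h1 h2 h3 L' hL' hcl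
  have h4 := h1 L' hL' hcl
  obtain ⟨⟨i1, k1⟩, hI1⟩ := H.nonempty n
  have h5 := h2 i1 k1 hI1 (Fin m → ℤ) (fun i => gl (B.d n ^ x) (co n i)) (fun i hi i' hi' h =>
    h3 k1 i i' (H.memSlice.1 hi) (H.memSlice.1 hi') h)
  have h6 : ((((G n).slice k1).image fun i => gl (B.d n ^ x) (co n i)).card : ℝ) ≤
      (((G n).L.image fun i => gl (B.d n ^ x) (co n i)).card : ℝ) := by
    refine mod_cast Finset.card_le_card (Finset.image_subset_image ?_)
    intro i hi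
    exact (RCfg.mem_slice.1 hi).1
  have hpow : ∀ t : ℝ, 0 < B.d n ^ t := fun t => rpos B n t
  refine h4.trans ?_
  refine le_trans ?_ (mul_le_mul_of_nonneg_left (h5.trans h6) (hpow _).le)
  rw [← rpow_add']
  refine rpow_anti B n ?_
  nlinarith

/-- **realised cells at one height**: `#cells ≥ ρ^(C ε) · #pos · #Γ` when
`ν p0 + ν pa ≤ ν pp + ν pd` (decoupling). -/
theorem cells_ge (H : RModel B G σ R Leg ν D) (p0 pp pd pa : κ → ℝ) (hp0 : p0 ∈ Leg)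
    (hpp : pp ∈ Leg) (hpd : pd ∈ Leg) (hpa : pa ∈ Leg) (h0p : ∀ j, p0 j ≤ pp j)
    (h0d : ∀ j, p0 j ≤ pd j)
    (hdec : ν p0 + ν pa ≤ ν pp + ν pd) {Cb : ℝ} (hCb : 1 ≤ Cb) (hbd : Bd G p0 Cb)
    {mp md : ℕ} {x C1 : ℝ} (hC1 : 0 ≤ C1)
    (cp : ℕ → ℕ → ℕ → Fin mp → ℝ) (cd : ℕ → ℕ → Fin md → ℝ)
    (hcp : ∀ ε : ℝ, 0 < ε → ∀ᶠ n in (U : Filter ℕ), ∀ k i l, (i, k) ∈ (G n).I →
      (l, k) ∈ (G n).I → (G n).loose pp ε k i l → ∀ j, |cp n k l j - cp n k i j| ≤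
      B.d n ^ (x - C1 * ε))
    (hcd : ∀ ε : ℝ, 0 < ε → ∀ᶠ n in (U : Filter ℕ), ∀ k i l, (i, k) ∈ (G n).I →
      (l, k) ∈ (G n).I → (G n).loose pd ε k i l → ∀ j, |cd n l j - cd n i j| ≤
      B.d n ^ (x - C1 * ε)) {C : ℝ} (hC : 0 < C)
    (hfine : ∀ ε : ℝ, 0 < ε → ∀ᶠ n in (U : Filter ℕ), ∀ k i l, (i, k) ∈ (G n).I →
      (l, k) ∈ (G n).I → gl (B.d n ^ x) (cp n k i) = gl (B.d n ^ x) (cp n k l) →
      gl (B.d n ^ x) (cd n i) = gl (B.d n ^ x) (cd n l) →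
      (G n).loose pa (C * ε) k i l) {ε : ℝ} (hε : 0 < ε) :
    ∀ᶠ n in (U : Filter ℕ), ∀ i k, (i, k) ∈ (G n).I →
      B.d n ^ ((2 * (D * (D * Cb)) + mp * (C1 + 1) + md * (C1 + 1) + D * C + 4) * ε) *
        ((((G n).slice k).image fun i => gl (B.d n ^ x) (cp n k i)).card : ℝ) *
        (((G n).L.image fun i => gl (B.d n ^ x) (cd n i)).card : ℝ) ≤
      ((((G n).slice k).image fun i =>
        (gl (B.d n ^ x) (cp n k i), gl (B.d n ^ x) (cd n i))).card : ℝ) := by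
  classical
  filter_upwards [lab_le H.toRUnif p0 pp hp0 hpp h0p hC1 cp hcp hCb hε,
    labels_le H p0 pd hp0 hpd h0d hC1 cd hcd hCb hε,
    labels_ge H.toRUnif p0 pa hp0 hpa hC hε, hfine ε hε, hbd ε hε] with n h1 h2 h3 h4 h5 i k hik
  have hpow : ∀ t : ℝ, 0 < B.d n ^ t := fun t => rpos B n t
  have g1 := h1 k i hik _ (Finset.Subset.refl _) (fun l hl => h5 k i l hik (H.memSlice.1 hl))
  have g2 := h2 _ (Finset.Subset.refl _) (fun k i _ l _ hi hl => h5 k i l hi hl)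
  have g3 := h3 i k hik _ (fun i => (gl (B.d n ^ x) (cp n k i), gl (B.d n ^ x) (cd n i)))
    (fun i hi i' hi' h => h4 k i i' (H.memSlice.1 hi) (H.memSlice.1 hi') (Prod.mk.inj h).1
      (Prod.mk.inj h).2)
  refine le_trans ?_ g3
  have g4 := mul_le_mul g1 g2 (Nat.cast_nonneg _) (hpow _).le
  rw [mul_assoc]
  refine (mul_le_mul_of_nonneg_left g4 (hpow _).le).trans ?_
  rw [← rpow_add', ← rpow_add']
  refine rpow_anti B n ?_
  nlinarith

end Crest.Agent.R136.RgN344
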