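import Crest.Agent.R136.WkE_344
import Crest.Agent.R136.Gr0_356

/-!
# R136 (S0187): RIG_E, piece ROWS, part 1 (helper210)

Absolute coordinates of a case (E) window: `Xc` (position along), `Wc` (block position), `Nr` (row
coordinate `u · W`), `Fr` (coordinate along the row).  Loose boxes in absolute coordinates; the row
identity and its difference form; finite lemmas.
-/

set_option autoImplicit false
set_option linter.unusedVariables false
set_option linter.unusedSectionVars false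

open Filter Topology Finset

namespace Crest.Agent.R136.RgR210

open Crest.Agent.R136.Sh605
open Crest.Agent.R138.Ex926 (Base U)
open Crest.Agent.R136.Gf356
open Crest.Agent.R136.Wk323 (coA one_le_rpow_neg ev_mul_le)
open Crest.Agent.R136.RgN344
open Crest.Agent.R136.RgE344

variable {B : Base} {G : ℕ → RCfg (Fin 11)} {Leg : Set (Fin 11 → ℝ)} {ν : (Fin 11 → ℝ) → ℝ}
  {D R x y m β : ℝ} {T : ℕ → ℕ → Ln4} {E fa fb : ℕ → ℕ → ℝ}

/-! ### finite lemmas -/

/-- cells of `f` against cells of `g` -/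
theorem image_card_le {ι α γ : Type*} [DecidableEq ι] [DecidableEq α] [DecidableEq γ]
    (S : Finset ι) (f : ι → α) (g : ι → γ) {M : ℝ}
    (h : ∀ s ∈ S, (((S.filter fun i => g i = g s).image f).card : ℝ) ≤ M) :
    ((S.image f).card : ℝ) ≤ ((S.image g).card : ℝ) * M := by
  have h1 : S.image f ⊆ (S.image g).biUnion fun c => (S.filter fun i => g i = c).image f := by
    intro a ha
    obtain ⟨i, hi, rfl⟩ := Finset.mem_image.1 ha
    exact Finset.mem_biUnion.2 ⟨g i, Finset.mem_image_of_mem _ hi,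
      Finset.mem_image_of_mem _ (Finset.mem_filter.2 ⟨hi, rfl⟩)⟩
  calc ((S.image f).card : ℝ)
      ≤ (((S.image g).biUnion fun c => (S.filter fun i => g i = c).image f).card : ℝ) := by
        exact_mod_cast Finset.card_le_card h1
    _ ≤ ∑ c ∈ S.image g, (((S.filter fun i => g i = c).image f).card : ℝ) := by
        exact_mod_cast Finset.card_biUnion_le
    _ ≤ ∑ _c ∈ S.image g, M := by
        refine Finset.sum_le_sum fun c hc => ?_
        obtain ⟨s, hs, rfl⟩ := Finset.mem_image.1 hc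
        exact h s hs
    _ = _ := by rw [Finset.sum_const, nsmul_eq_mul]

/-- number of grid labels of a set of small diameter -/
theorem gl_card_le {ι : Type*} [DecidableEq ι] {r : ℕ} (S : Finset ι) (F : ι → Fin r → ℝ)
    {δ w : ℝ} (hδ : 0 < δ) (hw : 0 ≤ w) (h : ∀ i ∈ S, ∀ i' ∈ S, ∀ j, |F i j - F i' j| ≤ w) :
    ((S.image fun i => gl δ (F i)).card : ℝ) ≤ (2 * w / δ + 2) ^ r := by
  classical
  rcases S.eq_empty_or_nonempty with rfl | ⟨i0, hi0⟩
  · simp only [Finset.image_empty, Finset.card_empty, Nat.cast_zero]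
    positivity
  · refine le_trans ?_ (card_gl_box hδ hw (F i0))
    refine mod_cast Finset.card_le_card ?_
    intro c hc
    obtain ⟨i, hi, rfl⟩ := Finset.mem_image.1 hc
    exact gl_mem_box hδ fun j => h i hi i0 hi0 j

/-- a height outside a small set of bad heights at which many elements of `S` are alive -/
theorem far_height {ι : Type*} [DecidableEq ι] (S : Finset ι) (Z : Finset ℕ) (al : ι → ℕ → Prop)
    [∀ i, DecidablePred (al i)] (bad : ℕ → Prop) [DecidablePred bad] {θ : ℝ} (hθ : 0 ≤ θ)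
    (hS : S.Nonempty) (hZ : Z.Nonempty)
    (hal : ∀ l ∈ S, θ * (Z.card : ℝ) ≤ ((Z.filter fun k => al l k).card : ℝ))
    (hbad : 2 * ((Z.filter bad).card : ℝ) < θ * (Z.card : ℝ)) :
    ∃ k ∈ Z, ¬ bad k ∧ θ / 2 * (S.card : ℝ) ≤ ((S.filter fun l => al l k).card : ℝ) := by
  classical
  by_contra hcon
  push Not at hcon
  have hS0 : (0 : ℝ) < S.card := by exact_mod_cast hS.card_pos
  have hZ0 : (0 : ℝ) < Z.card := by exact_mod_cast hZ.card_pos
  have h1 : ∑ l ∈ S, ((Z.filter fun k => al l k).card : ℝ) =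
      ∑ k ∈ Z, ((S.filter fun l => al l k).card : ℝ) := by
    have : ∑ l ∈ S, (Z.filter fun k => al l k).card = ∑ k ∈ Z, (S.filter fun l => al l k).card := by
      simp only [Finset.card_filter]
      exact Finset.sum_comm
    exact_mod_cast this
  have h2 : (S.card : ℝ) * (θ * (Z.card : ℝ)) ≤ ∑ k ∈ Z, ((S.filter fun l => al l k).card : ℝ) := by
    rw [← h1, ← nsmul_eq_mul, ← Finset.sum_const]
    exact Finset.sum_le_sum hal
  have h3 : ∑ k ∈ Z, ((S.filter fun l => al l k).card : ℝ) =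
      ∑ k ∈ Z.filter bad, ((S.filter fun l => al l k).card : ℝ) +
      ∑ k ∈ Z.filter (fun k => ¬ bad k), ((S.filter fun l => al l k).card : ℝ) :=
    (Finset.sum_filter_add_sum_filter_not Z bad _).symm
  have h4 : ∑ k ∈ Z.filter bad, ((S.filter fun l => al l k).card : ℝ) ≤
      ((Z.filter bad).card : ℝ) * (S.card : ℝ) := by
    rw [← nsmul_eq_mul, ← Finset.sum_const]
    refine Finset.sum_le_sum fun k _ => ?_
    exact_mod_cast Finset.card_le_card (Finset.filter_subset _ _)
  have h5 : ∑ k ∈ Z.filter (fun k => ¬ bad k), ((S.filter fun l => al l k).card : ℝ) ≤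
      (Z.card : ℝ) * (θ / 2 * (S.card : ℝ)) := by
    calc _ ≤ ∑ k ∈ Z.filter (fun k => ¬ bad k), θ / 2 * (S.card : ℝ) := by
          refine Finset.sum_le_sum fun k hk => ?_
          obtain ⟨a1, a2⟩ := Finset.mem_filter.1 hk
          exact (hcon k a1 a2).le
      _ = ((Z.filter fun k => ¬ bad k).card : ℝ) * (θ / 2 * (S.card : ℝ)) := by
          rw [Finset.sum_const, nsmul_eq_mul]
      _ ≤ _ := by
          refine mul_le_mul_of_nonneg_right ?_ (by positivity)
          exact_mod_cast Finset.card_le_card (Finset.filter_subset _ _)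
  have h6 : 2 * ((Z.filter bad).card : ℝ) * (S.card : ℝ) < θ * (Z.card : ℝ) * (S.card : ℝ) :=
    mul_lt_mul_of_pos_right hbad hS0
  nlinarith

/-! ### coordinates -/

/-- position along the window -/
def Xc (G : ℕ → RCfg (Fin 11)) (T : ℕ → ℕ → Ln4) (n k l : ℕ) : ℝ := (T n l).pos ((G n).z k) 1

/-- block position at the level cell `k` -/
def Wc (G : ℕ → RCfg (Fin 11)) (T : ℕ → ℕ → Ln4) (E fa fb : ℕ → ℕ → ℝ) (n k l : ℕ) : Fin 2 → ℝ :=
  ![(T n l).pos ((G n).z k) 2 - eE E fa fb n k 0 * Xc G T n k l,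
    (T n l).pos ((G n).z k) 0 - eE E fa fb n k 1 * Xc G T n k l]

/-- row coordinate -/
def Nr (G : ℕ → RCfg (Fin 11)) (T : ℕ → ℕ → Ln4) (E fa fb : ℕ → ℕ → ℝ) (u : ℕ → Fin 2 → ℝ)
    (n k l : ℕ) : ℝ := u n 0 * Wc G T E fa fb n k l 0 + u n 1 * Wc G T E fa fb n k l 1

/-- coordinate along the row -/
def Fr (G : ℕ → RCfg (Fin 11)) (T : ℕ → ℕ → Ln4) (E fa fb : ℕ → ℕ → ℝ) (u : ℕ → Fin 2 → ℝ)
    (n k l : ℕ) : ℝ := u n 0 * Wc G T E fa fb n k l 1 - u n 1 * Wc G T E fa fb n k l 0

theorem qE_le {a b c d r : ℝ} (hr : 0 ≤ r) (ha : a ≤ r) (hb : b ≤ r) (hc : c ≤ r) (hd : d ≤ r)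
    (s : Fin 11) : qE a b c d s ≤ r := by
  unfold qE
  fin_cases s <;> simp <;> assumption

theorem qE_mono {a b c d a' b' c' d' : ℝ} (ha : a ≤ a') (hb : b ≤ b') (hc : c ≤ c') (hd : d ≤ d')
    (s : Fin 11) : qE a b c d s ≤ qE a' b' c' d' s := by
  unfold qE
  fin_cases s <;> simp <;> assumption

theorem u_le {b : Fin 2 → ℝ} (hb : b 0 ^ 2 + b 1 ^ 2 = 1) (j : Fin 2) : |b j| ≤ 1 := by
  rw [← sq_le_one_iff_abs_le_one]
  fin_cases j
  · show b 0 ^ 2 ≤ 1
    nlinarith [sq_nonneg (b 1)]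
  · show b 1 ^ 2 ≤ 1
    nlinarith [sq_nonneg (b 0)]

/-- loose boxes are small in absolute coordinates -/
theorem co_le (A : AbsE B G x T E fa fb) (H : RUnif B G Leg ν D) (hx : 0 ≤ x) {a b c d : ℝ}
    (ha : a ≤ x) (hb : b ≤ x) (hc : c ≤ x) (hd : d ≤ x) {ε : ℝ} (hε : 0 < ε) :
    ∀ᶠ n in (U : Filter ℕ), ∀ k i l, (i, k) ∈ (G n).I → (l, k) ∈ (G n).I →
      (G n).loose (qE a b c d) ε k i l →
        |Xc G T n k l - Xc G T n k i| ≤ 2 * B.d n ^ (a - ε) ∧
        (∀ j, |Wc G T E fa fb n k l j - Wc G T E fa fb n k i j| ≤ 4 * B.d n ^ (b - ε)) ∧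
        |(T n l).v 1 - (T n i).v 1| ≤ 2 * B.d n ^ (c - ε) := by
  filter_upwards [A.rel ε hε, A.bd] with n h hbd k i l hi hl hlo
  obtain ⟨-, -, -, hE1, hfa1, hfb1⟩ := hbd i k hi
  have key : ∀ s ∈ ({5, 6, 7, 8, 9, 10} : Finset (Fin 11)),
      |coA (T n i) (T n l) (E n k) (E n k) (fa n k) (fa n k) (fb n k) ((G n).z k) s| ≤
        2 * B.d n ^ (qE a b c d s - ε) := by
    intro s hs
    have h1 := h k i l hi hl s hs
    have h2 := hlo s
    rw [H.base n] at h2
    have h3 : B.d n ^ (x - ε) ≤ B.d n ^ (qE a b c d s - ε) :=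
      rpow_anti B n (by linarith [qE_le hx ha hb hc hd s])
    rw [abs_le] at *
    constructor <;> linarith [h1.1, h1.2, h2.1, h2.2]
  have k5 := key 5 (by simp)
  have k8 := key 8 (by simp)
  have k9 := key 9 (by simp)
  have k10 := key 10 (by simp)
  change |(T n l).v 1 - (T n i).v 1| ≤ 2 * B.d n ^ (c - ε) at k5
  change |(T n l).pos ((G n).z k) 1 - (T n i).pos ((G n).z k) 1| ≤ 2 * B.d n ^ (a - ε) at k8
  change |((T n l).pos ((G n).z k) 2 - (T n i).pos ((G n).z k) 2) -
    E n k * ((T n l).pos ((G n).z k) 1 - (T n i).pos ((G n).z k) 1)| ≤ 2 * B.d n ^ (b - ε) at k9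
  change |((T n l).pos ((G n).z k) 0 - (T n i).pos ((G n).z k) 0) -
    fa n k * ((T n l).pos ((G n).z k) 1 - (T n i).pos ((G n).z k) 1) -
    fb n k * ((T n l).pos ((G n).z k) 2 - (T n i).pos ((G n).z k) 2)| ≤ 2 * B.d n ^ (b - ε) at k10
  refine ⟨k8, ?_, k5⟩
  have hp := rpos B n (b - ε)
  intro j
  fin_cases j
  · show |((T n l).pos ((G n).z k) 2 - E n k * (T n l).pos ((G n).z k) 1) -
      ((T n i).pos ((G n).z k) 2 - E n k * (T n i).pos ((G n).z k) 1)| ≤ _
    have e : ((T n l).pos ((G n).z k) 2 - E n k * (T n l).pos ((G n).z k) 1) -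
      ((T n i).pos ((G n).z k) 2 - E n k * (T n i).pos ((G n).z k) 1) =
      ((T n l).pos ((G n).z k) 2 - (T n i).pos ((G n).z k) 2) -
      E n k * ((T n l).pos ((G n).z k) 1 - (T n i).pos ((G n).z k) 1) := by ring
    rw [e]
    linarith
  · show |((T n l).pos ((G n).z k) 0 - (fa n k + fb n k * E n k) * (T n l).pos ((G n).z k) 1) -
      ((T n i).pos ((G n).z k) 0 - (fa n k + fb n k * E n k) * (T n i).pos ((G n).z k) 1)| ≤ _
    have e : ((T n l).pos ((G n).z k) 0 - (fa n k + fb n k * E n k) * (T n l).pos ((G n).z k) 1) -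
      ((T n i).pos ((G n).z k) 0 - (fa n k + fb n k * E n k) * (T n i).pos ((G n).z k) 1) =
      (((T n l).pos ((G n).z k) 0 - (T n i).pos ((G n).z k) 0) -
      fa n k * ((T n l).pos ((G n).z k) 1 - (T n i).pos ((G n).z k) 1) -
      fb n k * ((T n l).pos ((G n).z k) 2 - (T n i).pos ((G n).z k) 2)) +
      fb n k * (((T n l).pos ((G n).z k) 2 - (T n i).pos ((G n).z k) 2) -
      E n k * ((T n l).pos ((G n).z k) 1 - (T n i).pos ((G n).z k) 1)) := by ring
    rw [e]
    refine (abs_add_le _ _).trans ?_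
    have h5 : |fb n k * (((T n l).pos ((G n).z k) 2 - (T n i).pos ((G n).z k) 2) -
      E n k * ((T n l).pos ((G n).z k) 1 - (T n i).pos ((G n).z k) 1))| ≤
        1 * (2 * B.d n ^ (b - ε)) := by
      rw [abs_mul]
      exact mul_le_mul hfb1 k9 (abs_nonneg _) (by norm_num)
    linarith

/-- absolute coordinates small ⇒ loose -/
theorem loose_of (A : AbsE B G x T E fa fb) (H : RUnif B G Leg ν D) (hx : 0 ≤ x) {a b c d : ℝ}
    (ha : a ≤ x) (hb : b ≤ x) (hc : c ≤ x) (hd : d ≤ x) {ε : ℝ} (hε : 0 < ε) (K : ℝ) :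
    ∀ᶠ n in (U : Filter ℕ), ∀ k i l, (i, k) ∈ (G n).I → (l, k) ∈ (G n).I →
      (0 < a → |Xc G T n k l - Xc G T n k i| ≤ K * B.d n ^ (a - ε)) →
      (0 < b → ∀ j, |Wc G T E fa fb n k l j - Wc G T E fa fb n k i j| ≤ K * B.d n ^ (b - ε)) →
      (0 < c → |(T n l).v 1 - (T n i).v 1| ≤ K * B.d n ^ (c - ε)) →
      (0 < d → ∀ j, |dE T E fa fb n k i l j| ≤ K * B.d n ^ (d - ε)) →
      (G n).loose (qE a b c d) (2 * ε) k i l := by
  filter_upwards [A.rel ε hε, A.bdr, A.bd, ev_const_le B hε (2 * |K| + 1)] with n h hbdr hbd hK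
    k i l hi hl hX hW hC hdE s
  obtain ⟨-, -, -, hE1, hfa1, hfb1⟩ := hbd i k hi
  rw [H.base n]
  by_cases hs0 : qE a b c d s ≤ 0
  · refine (hbdr k i l hi hl s).trans ?_
    have := one_le_rpow_neg B n (t := 2 * ε - qE a b c d s) (by linarith)
    have e1 : -(2 * ε - qE a b c d s) = qE a b c d s - 2 * ε := by ring
    rwa [e1] at this
  · rw [not_le] at hs0
    -- the absolute coordinates
    have habs : s ∈ ({5, 6, 7, 8, 9, 10} : Finset (Fin 11)) ∧
        |coA (T n i) (T n l) (E n k) (E n k) (fa n k) (fa n k) (fb n k) ((G n).z k) s| ≤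
          2 * |K| * B.d n ^ (qE a b c d s - ε) := by
      have hKa : ∀ t v : ℝ, |v| ≤ K * B.d n ^ t → |v| ≤ 2 * |K| * B.d n ^ t := by
        intro t v hv
        have h1 := rpos B n t
        have h2 : K * B.d n ^ t ≤ |K| * B.d n ^ t :=
          mul_le_mul_of_nonneg_right (le_abs_self K) h1.le
        have h3 : 0 ≤ |K| * B.d n ^ t := by positivity
        linarith
      have hcomb : ∀ t v w f : ℝ, |f| ≤ 1 → |v| ≤ K * B.d n ^ t → |w| ≤ K * B.d n ^ t →
          |v - f * w| ≤ 2 * |K| * B.d n ^ t := by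
        intro t v w f hf hv hw
        have h1 := rpos B n t
        have h2 : K * B.d n ^ t ≤ |K| * B.d n ^ t :=
          mul_le_mul_of_nonneg_right (le_abs_self K) h1.le
        refine (abs_sub _ _).trans ?_
        rw [abs_mul]
        have h3 : |f| * |w| ≤ 1 * (|K| * B.d n ^ t) :=
          mul_le_mul hf (hw.trans h2) (abs_nonneg _) (by norm_num)
        linarith
      fin_cases s
      · exact absurd hs0 (lt_irrefl _)
      · exact absurd hs0 (lt_irrefl _)
      · exact absurd hs0 (lt_irrefl _)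
      · exact absurd hs0 (lt_irrefl _)
      · exact absurd hs0 (lt_irrefl _)
      · refine ⟨by simp, ?_⟩
        exact hKa _ _ (hC hs0)
      · refine ⟨by simp, ?_⟩
        exact hKa _ _ (hdE hs0 0)
      · refine ⟨by simp, ?_⟩
        change |((T n l).v 0 - (T n i).v 0) - fa n k * ((T n l).v 1 - (T n i).v 1) -
          fb n k * ((T n l).v 2 - (T n i).v 2)| ≤ 2 * |K| * B.d n ^ (d - ε)
        have h1 := hdE hs0 1
        have h0 := hdE hs0 0
        have e : ((T n l).v 0 - (T n i).v 0) - fa n k * ((T n l).v 1 - (T n i).v 1) -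
            fb n k * ((T n l).v 2 - (T n i).v 2) = dE T E fa fb n k i l 1 -
            fb n k * dE T E fa fb n k i l 0 := by
          simp only [dE, wE, eE, Matrix.cons_val_zero, Matrix.cons_val_one]
          ring
        rw [e]
        exact hcomb _ _ _ _ hfb1 h1 h0
      · refine ⟨by simp, ?_⟩
        exact hKa _ _ (hX hs0)
      · refine ⟨by simp, ?_⟩
        change |((T n l).pos ((G n).z k) 2 - (T n i).pos ((G n).z k) 2) -
          E n k * ((T n l).pos ((G n).z k) 1 - (T n i).pos ((G n).z k) 1)| ≤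
          2 * |K| * B.d n ^ (b - ε)
        have h0 := hW hs0 0
        have e : ((T n l).pos ((G n).z k) 2 - (T n i).pos ((G n).z k) 2) -
          E n k * ((T n l).pos ((G n).z k) 1 - (T n i).pos ((G n).z k) 1) =
          Wc G T E fa fb n k l 0 - Wc G T E fa fb n k i 0 := by
          simp only [Wc, eE, Xc, Matrix.cons_val_zero, Matrix.cons_val_one]
          ring
        rw [e]
        exact hKa _ _ h0
      · refine ⟨by simp, ?_⟩
        change |((T n l).pos ((G n).z k) 0 - (T n i).pos ((G n).z k) 0) -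
          fa n k * ((T n l).pos ((G n).z k) 1 - (T n i).pos ((G n).z k) 1) -
          fb n k * ((T n l).pos ((G n).z k) 2 - (T n i).pos ((G n).z k) 2)| ≤
          2 * |K| * B.d n ^ (b - ε)
        have h0 := hW hs0 0
        have h1 := hW hs0 1
        have e : ((T n l).pos ((G n).z k) 0 - (T n i).pos ((G n).z k) 0) -
          fa n k * ((T n l).pos ((G n).z k) 1 - (T n i).pos ((G n).z k) 1) -
          fb n k * ((T n l).pos ((G n).z k) 2 - (T n i).pos ((G n).z k) 2) =
          (Wc G T E fa fb n k l 1 - Wc G T E fa fb n k i 1) -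
          fb n k * (Wc G T E fa fb n k l 0 - Wc G T E fa fb n k i 0) := by
          simp only [Wc, eE, Xc, Matrix.cons_val_zero, Matrix.cons_val_one]
          ring
        rw [e]
        exact hcomb _ _ _ _ hfb1 h1 h0
    obtain ⟨hs, h2⟩ := habs
    have h1 := h k i l hi hl s hs
    have h3 : B.d n ^ (x - ε) ≤ B.d n ^ (qE a b c d s - ε) :=
      rpow_anti B n (by linarith [qE_le hx ha hb hc hd s])
    have h4 : (2 * |K| + 1) * B.d n ^ (qE a b c d s - ε) ≤ B.d n ^ (qE a b c d s - 2 * ε) := by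
      have e1 : B.d n ^ (qE a b c d s - 2 * ε) = B.d n ^ (-ε) * B.d n ^ (qE a b c d s - ε) := by
        rw [← rpow_add']; congr 1; ring
      rw [e1]
      exact mul_le_mul_of_nonneg_right hK (rpos B n _).le
    refine le_trans ?_ h4
    have h6 : |(G n).rel k i l s| ≤ |(G n).rel k i l s - coA (T n i) (T n l) (E n k) (E n k)
        (fa n k) (fa n k) (fb n k) ((G n).z k) s| + |coA (T n i) (T n l) (E n k) (E n k)
        (fa n k) (fa n k) (fb n k) ((G n).z k) s| := by
      have := abs_add_le ((G n).rel k i l s - coA (T n i) (T n l) (E n k) (E n k)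
        (fa n k) (fa n k) (fb n k) ((G n).z k) s) (coA (T n i) (T n l) (E n k) (E n k)
        (fa n k) (fa n k) (fb n k) ((G n).z k) s)
      simpa using this
    linarith

end Crest.Agent.R136.RgR210
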