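import Crest.Agent.R136.RgR1_210

/-!
# R136 (S0187): RIG_E, piece ROWS, part 2 (helper210)

The row identity, and the upper bound: `#(W-cells of a row) ≤ ρ^(a - y τ - C ε)` when
`|μ| ≥ ρ^(τ - a)`.
-/

set_option autoImplicit false
set_option linter.unusedVariables false
set_option linter.unusedSectionVars false

open Filter Topology Finset

namespace Crest.Agent.R136.RgR210

open Crest.Agent.R136.Sh605
open Crest.Agent.R138.Ex926 (Base U)
open Crest.Agent.R136.Gf356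
open Crest.Agent.R136.Wk323 (coA one_le_rpow_neg ev_mul_le)
open Crest.Agent.R136.RgN344
open Crest.Agent.R136.RgE344

variable {B : Base} {G : ℕ → RCfg (Fin 11)} {Leg : Set (Fin 11 → ℝ)} {ν : (Fin 11 → ℝ) → ℝ}
  {D R x y m β : ℝ} {T : ℕ → ℕ → Ln4} {E fa fb : ℕ → ℕ → ℝ}
  {τ : ℝ} {u : ℕ → Fin 2 → ℝ} {μ c0 q0 : ℕ → ℝ}

/-- the coherent relations of the window -/
structure RowH (B : Base) (G : ℕ → RCfg (Fin 11)) (T : ℕ → ℕ → Ln4) (E fa fb : ℕ → ℕ → ℝ)
    (τ : ℝ) (u : ℕ → Fin 2 → ℝ) (μ c0 q0 : ℕ → ℝ) : Prop where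
  hu : ∀ n, u n 0 ^ 2 + u n 1 ^ 2 = 1
  hrel : ∀ ε : ℝ, 0 < ε → ∀ᶠ n in (U : Filter ℕ), ∀ l k, (l, k) ∈ (G n).I →
    |u n 0 * eE E fa fb n k 0 + u n 1 * eE E fa fb n k 1 - μ n * (G n).z k - c0 n| ≤
      B.d n ^ (τ - ε) ∧
    |u n 0 * wE T n l 0 + u n 1 * wE T n l 1 + μ n * (T n l).p 1 - c0 n * (T n l).v 1 - q0 n| ≤
      B.d n ^ (τ - ε)
  hμ : ∀ ε : ℝ, 0 < ε → ∀ᶠ n in (U : Filter ℕ), |μ n| ≤ B.d n ^ (-ε)

/-- same row, up to `w` -/
def nr (G : ℕ → RCfg (Fin 11)) (T : ℕ → ℕ → Ln4) (E fa fb : ℕ → ℕ → ℝ) (u : ℕ → Fin 2 → ℝ)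
    (w : ℝ) (n k l i : ℕ) : Prop :=
  |Xc G T n k l - Xc G T n k i| ≤ w ∧ |(T n l).v 1 - (T n i).v 1| ≤ w ∧
    |Nr G T E fa fb u n k l - Nr G T E fa fb u n k i| ≤ w

open Classical in
/-- the lines alive at the height `k` in the row of `i` -/
noncomputable def rowS (G : ℕ → RCfg (Fin 11)) (T : ℕ → ℕ → Ln4) (E fa fb : ℕ → ℕ → ℝ)
    (u : ℕ → Fin 2 → ℝ) (w : ℝ) (n k i : ℕ) : Finset ℕ :=
  ((G n).slice k).filter fun l => nr G T E fa fb u w n k l i

/-- number of cells of a set -/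
noncomputable def cl (G : ℕ → RCfg (Fin 11)) (T : ℕ → ℕ → Ln4) (E fa fb : ℕ → ℕ → ℝ)
    (δ : ℝ) (n k : ℕ) (S : Finset ℕ) : ℕ := (S.image fun l => gl δ (Wc G T E fa fb n k l)).card

theorem mem_rowS {w : ℝ} {n k i l : ℕ} : l ∈ rowS G T E fa fb u w n k i ↔
    l ∈ (G n).slice k ∧ nr G T E fa fb u w n k l i := by
  classical
  unfold rowS
  rw [Finset.mem_filter]

theorem Nr_diff_le (hu : ∀ n, u n 0 ^ 2 + u n 1 ^ 2 = 1) {n k l i : ℕ} {w : ℝ}
    (h : ∀ j, |Wc G T E fa fb n k l j - Wc G T E fa fb n k i j| ≤ w) :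
    |Nr G T E fa fb u n k l - Nr G T E fa fb u n k i| ≤ 2 * w := by
  unfold Nr
  have e : u n 0 * Wc G T E fa fb n k l 0 + u n 1 * Wc G T E fa fb n k l 1 -
      (u n 0 * Wc G T E fa fb n k i 0 + u n 1 * Wc G T E fa fb n k i 1) =
      u n 0 * (Wc G T E fa fb n k l 0 - Wc G T E fa fb n k i 0) +
      u n 1 * (Wc G T E fa fb n k l 1 - Wc G T E fa fb n k i 1) := by ring
  rw [e]
  refine (abs_add_le _ _).trans ?_
  rw [abs_mul, abs_mul]
  have h0 := mul_le_mul (u_le (hu n) 0) (h 0) (abs_nonneg _) (by norm_num)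
  have h1 := mul_le_mul (u_le (hu n) 1) (h 1) (abs_nonneg _) (by norm_num)
  linarith

theorem Fr_diff_le (hu : ∀ n, u n 0 ^ 2 + u n 1 ^ 2 = 1) {n k l i : ℕ} {w : ℝ}
    (h : ∀ j, |Wc G T E fa fb n k l j - Wc G T E fa fb n k i j| ≤ w) :
    |Fr G T E fa fb u n k l - Fr G T E fa fb u n k i| ≤ 2 * w := by
  unfold Fr
  have e : u n 0 * Wc G T E fa fb n k l 1 - u n 1 * Wc G T E fa fb n k l 0 -
      (u n 0 * Wc G T E fa fb n k i 1 - u n 1 * Wc G T E fa fb n k i 0) =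
      u n 0 * (Wc G T E fa fb n k l 1 - Wc G T E fa fb n k i 1) -
      u n 1 * (Wc G T E fa fb n k l 0 - Wc G T E fa fb n k i 0) := by ring
  rw [e]
  refine (abs_sub _ _).trans ?_
  rw [abs_mul, abs_mul]
  have h0 := mul_le_mul (u_le (hu n) 0) (h 1) (abs_nonneg _) (by norm_num)
  have h1 := mul_le_mul (u_le (hu n) 1) (h 0) (abs_nonneg _) (by norm_num)
  linarith

theorem W_diff_le (hu : ∀ n, u n 0 ^ 2 + u n 1 ^ 2 = 1) {n k l i : ℕ} {w w' : ℝ}
    (h : |Nr G T E fa fb u n k l - Nr G T E fa fb u n k i| ≤ w)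
    (h' : |Fr G T E fa fb u n k l - Fr G T E fa fb u n k i| ≤ w') (j : Fin 2) :
    |Wc G T E fa fb n k l j - Wc G T E fa fb n k i j| ≤ w + w' := by
  have hu1 := hu n
  have h0 := u_le hu1 0
  have h1 := u_le hu1 1
  have a1 := mul_le_mul h0 h (abs_nonneg _) (by norm_num)
  have a2 := mul_le_mul h1 h (abs_nonneg _) (by norm_num)
  have a3 := mul_le_mul h0 h' (abs_nonneg _) (by norm_num)
  have a4 := mul_le_mul h1 h' (abs_nonneg _) (by norm_num)
  rw [← abs_mul] at a1 a2 a3 a4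
  fin_cases j
  · show |Wc G T E fa fb n k l 0 - Wc G T E fa fb n k i 0| ≤ w + w'
    have e : Wc G T E fa fb n k l 0 - Wc G T E fa fb n k i 0 =
        u n 0 * (Nr G T E fa fb u n k l - Nr G T E fa fb u n k i) -
        u n 1 * (Fr G T E fa fb u n k l - Fr G T E fa fb u n k i) := by
      unfold Nr Fr
      linear_combination (-(Wc G T E fa fb n k l 0 - Wc G T E fa fb n k i 0)) * hu1
    rw [e]
    exact (abs_sub _ _).trans (by linarith)
  · show |Wc G T E fa fb n k l 1 - Wc G T E fa fb n k i 1| ≤ w + w'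
    have e : Wc G T E fa fb n k l 1 - Wc G T E fa fb n k i 1 =
        u n 1 * (Nr G T E fa fb u n k l - Nr G T E fa fb u n k i) +
        u n 0 * (Fr G T E fa fb u n k l - Fr G T E fa fb u n k i) := by
      unfold Nr Fr
      linear_combination (-(Wc G T E fa fb n k l 1 - Wc G T E fa fb n k i 1)) * hu1
    rw [e]
    exact (abs_add_le _ _).trans (by linarith)

/-- **the row identity** -/
theorem row_form (A : AbsE B G x T E fa fb) (Q : RowH B G T E fa fb τ u μ c0 q0) {ε : ℝ}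
    (hε : 0 < ε) : ∀ᶠ n in (U : Filter ℕ), ∀ l k, (l, k) ∈ (G n).I →
      |Nr G T E fa fb u n k l - ((u n 0 * (T n l).p 2 + u n 1 * (T n l).p 0 -
        c0 n * (T n l).p 1) + q0 n * (G n).z k - 2 * μ n * (G n).z k * (T n l).p 1 -
        μ n * (G n).z k ^ 2 * (T n l).v 1)| ≤ 2 * B.d n ^ (τ - ε) := by
  filter_upwards [A.bd, Q.hrel ε hε] with n hbd hrel l k hl
  obtain ⟨hz, hpos, -, -, -, -⟩ := hbd l k hl
  obtain ⟨h1, h2⟩ := hrel l k hl
  set r1 := u n 0 * eE E fa fb n k 0 + u n 1 * eE E fa fb n k 1 - μ n * (G n).z k - c0 n with hr1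
  set r2 := u n 0 * wE T n l 0 + u n 1 * wE T n l 1 + μ n * (T n l).p 1 - c0 n * (T n l).v 1 -
    q0 n with hr2
  have e : Nr G T E fa fb u n k l - ((u n 0 * (T n l).p 2 + u n 1 * (T n l).p 0 -
        c0 n * (T n l).p 1) + q0 n * (G n).z k - 2 * μ n * (G n).z k * (T n l).p 1 -
        μ n * (G n).z k ^ 2 * (T n l).v 1) =
      (G n).z k * r2 - (T n l).pos ((G n).z k) 1 * r1 := by
    simp only [hr1, hr2, Nr, Wc, Xc, wE, Ln4.pos, Matrix.cons_val_zero, Matrix.cons_val_one]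
    ring
  rw [e]
  refine (abs_sub _ _).trans ?_
  rw [abs_mul, abs_mul]
  have a1 := mul_le_mul hz h2 (abs_nonneg _) (by norm_num)
  have a2 := mul_le_mul (hpos 1) h1 (abs_nonneg _) (by norm_num)
  linarith

/-- **difference form of the row identity** -/
theorem row_diff (A : AbsE B G x T E fa fb) (Q : RowH B G T E fa fb τ u μ c0 q0) {ε : ℝ}
    (hε : 0 < ε) : ∀ᶠ n in (U : Filter ℕ), ∀ k k' l l', (l, k) ∈ (G n).I → (l', k) ∈ (G n).I →
      (l, k') ∈ (G n).I → (l', k') ∈ (G n).I →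
      |(Nr G T E fa fb u n k' l - Nr G T E fa fb u n k' l') -
        (Nr G T E fa fb u n k l - Nr G T E fa fb u n k l') +
        2 * μ n * ((G n).z k' - (G n).z k) * (Xc G T n k l - Xc G T n k l') +
        μ n * ((G n).z k' - (G n).z k) ^ 2 * ((T n l).v 1 - (T n l').v 1)| ≤
        8 * B.d n ^ (τ - ε) := by
  filter_upwards [row_form A Q hε] with n h k k' l l' h1 h2 h3 h4
  have a1 := abs_le.1 (h l k h1)
  have a2 := abs_le.1 (h l' k h2)
  have a3 := abs_le.1 (h l k' h3)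
  have a4 := abs_le.1 (h l' k' h4)
  simp only [Xc, Ln4.pos]
  rw [abs_le]
  constructor
  · nlinarith [a1.1, a1.2, a2.1, a2.2, a3.1, a3.2, a4.1, a4.2]
  · nlinarith [a1.1, a1.2, a2.1, a2.2, a3.1, a3.2, a4.1, a4.2]

/-- **thin rows, I**: mass of the lines with given `C` and `N` -/
theorem mass_le (H : RModel B G 1 R Leg ν D) (A : AbsE B G x T E fa fb)
    (P : ProfE Leg ν x y m β) (hτ : 0 < τ) (hτx : τ ≤ x) (Q : RowH B G T E fa fb τ u μ c0 q0)
    {a : ℝ} (ha0 : 0 ≤ a) (haτ : a ≤ τ)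
    (hμa : 0 < a → ∀ᶠ n in (U : Filter ℕ), B.d n ^ (τ - a) ≤ |μ n|) {ε : ℝ} (hε : 0 < ε)
    (hεR : 3 * ε ≤ R) :
    ∀ᶠ n in (U : Filter ℕ), ∀ k i, (i, k) ∈ (G n).I → ∀ S ⊆ (G n).slice k,
      (∀ l ∈ S, |(T n l).v 1 - (T n i).v 1| ≤ B.d n ^ (τ - 2 * ε) ∧
        |Nr G T E fa fb u n k l - Nr G T E fa fb u n k i| ≤ B.d n ^ (τ - 2 * ε)) →
      (S.card : ℝ) ≤ B.d n ^ (-ν (qE a τ τ 0) - y * τ - (4 * D ^ 2 + 12 * D + 9) * ε) := by
  classical
  have hD := H.D1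
  have hx0 := P.x0.le
  have hax : a ≤ x := haτ.trans hτx
  have hLa : qE a τ τ 0 ∈ Leg := P.leg _ _ _ _ ha0 hax hτ.le hτx hτ.le hτx le_rfl hx0
  have hLp : qE 0 0 τ 0 ∈ Leg := P.leg _ _ _ _ le_rfl hx0 le_rfl hx0 hτ.le hτx le_rfl hx0
  have hLr : qE 0 τ τ 0 ∈ Leg := P.leg _ _ _ _ le_rfl hx0 hτ.le hτx hτ.le hτx le_rfl hx0
  have hνpr : ν (qE 0 0 τ 0) - ν (qE 0 τ τ 0) = y * τ := by
    rw [P.form 0 0 τ 0 le_rfl le_rfl hx0 le_rfl hx0 hτ.le hτx,
      P.form 0 τ τ 0 le_rfl le_rfl hx0 hτ.le hτx hτ.le hτx]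
    ring
  -- labels
  have hlab := lab_le H.toRUnif (qE 0 0 τ 0) (qE 0 τ τ 0) hLp hLr
    (qE_mono le_rfl hτ.le le_rfl le_rfl) (m := 2) (x := τ) (C1 := 2) (by norm_num)
    (fun n k l => Wc G T E fa fb n k l) (by
      intro ε' hε'
      filter_upwards [co_le A H.toRUnif hx0 (a := 0) (b := τ) (c := τ) (d := 0) hx0 hτx hτx hx0 hε',
        ev_mul_le B (K := 4) hε'] with n h1 h2 k i l hi hl hlo j
      refine ((h1 k i l hi hl hlo).2.1 j).trans ((h2 _).trans (le_of_eq ?_))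
      congr 1
      ring) (C0 := 4) (ε := ε) (by norm_num) hε
  have hsame := card_le_lab H.toRUnif (qE a τ τ 0) hLa (C := 12) (ε := ε) (by norm_num) hε
  have hloC := loose_of A H.toRUnif hx0 (a := 0) (b := 0) (c := τ) (d := 0) hx0 hx0 hτx hx0
    (ε := 2 * ε) (by positivity) 2
  have hloA := loose_of A H.toRUnif hx0 (a := a) (b := τ) (c := τ) (d := 0) hax hτx hτx hx0
    (ε := 6 * ε) (by positivity) 10
  have hμa' : ∀ᶠ n in (U : Filter ℕ), 0 < a → B.d n ^ (τ - a) ≤ |μ n| := by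
    by_cases h : 0 < a
    · filter_upwards [hμa h] with n hn _ using hn
    · exact Filter.Eventually.of_forall fun n hn => absurd hn h
  filter_upwards [hlab, hsame, hloC, hloA, hμa', row_diff A Q hε, Q.hμ ε hε, A.bd,
    H.line ε hε, H.frost (3 * ε) (by positivity) hεR ε hε, ev_const_le B hε 3] with
    n h1 h2 h3 h4 h5 h6 h7 h8 h9 h10 h11 k i hi S hS hSi
  have hpow : ∀ t : ℝ, 0 < B.d n ^ t := fun t => rpos B n t
  rcases S.eq_empty_or_nonempty with rfl | hSne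
  · simpa using (hpow _).le
  have hkZ := H.memZ hi
  have hZne : (G n).Z.Nonempty := ⟨k, hkZ⟩
  have hZ0 : (0 : ℝ) < (G n).Z.card := by exact_mod_cast hZne.card_pos
  have hε1 : B.d n ^ ε * B.d n ^ (-ε) = 1 := by rw [← rpow_add', add_neg_cancel, Real.rpow_zero]
  -- a far height
  obtain ⟨k0, hk0, hfar, hmany⟩ := far_height S (G n).Z (fun l k => (l, k) ∈ (G n).I)
    (fun k' => |(G n).z k' - (G n).z k| ≤ B.d n ^ (3 * ε)) (θ := B.d n ^ ε) (hpow _).le hSne hZne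
    (fun l hl => h9 l (H.memL (H.memSlice.1 (hS hl)))) (by
      have b1 := h10 k hkZ
      unfold RCfg.hbox at b1
      rw [H.base n] at b1
      have b2 : B.d n ^ (1 * (3 * ε) - ε) = B.d n ^ ε * B.d n ^ ε := by
        rw [← rpow_add']; congr 1; ring
      rw [b2] at b1
      have b3 : 3 * B.d n ^ ε ≤ 1 := by
        have := mul_le_mul_of_nonneg_left h11 (hpow ε).le
        linarith
      have b4 : 3 * (B.d n ^ ε * B.d n ^ ε * ((G n).Z.card : ℝ)) ≤
          B.d n ^ ε * ((G n).Z.card : ℝ) := by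
        have := mul_le_mul_of_nonneg_right b3
          (mul_nonneg (hpow ε).le hZ0.le : 0 ≤ B.d n ^ ε * ((G n).Z.card : ℝ))
        linarith
      have b5 : 0 < B.d n ^ ε * ((G n).Z.card : ℝ) := mul_pos (hpow _) hZ0
      have b6 : (((G n).Z.filter fun k' => |(G n).z k' - (G n).z k| ≤ B.d n ^ (3 * ε)).card : ℝ) ≤
          B.d n ^ ε * B.d n ^ ε * ((G n).Z.card : ℝ) := by
        refine le_trans (le_of_eq ?_) b1
        congr 2
      linarith)
  rw [not_le] at hfar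
  set S' := S.filter fun l => (l, k0) ∈ (G n).I with hS'
  have hS'S : S' ⊆ S := Finset.filter_subset _ _
  have hS'k0 : ∀ l ∈ S', (l, k0) ∈ (G n).I := fun l hl => (Finset.mem_filter.1 hl).2
  have hS'k : ∀ l ∈ S', (l, k) ∈ (G n).I := fun l hl => H.memSlice.1 (hS (hS'S hl))
  have hS'sl : S' ⊆ (G n).slice k0 := fun l hl => H.memSlice.2 (hS'k0 l hl)
  have hC' : ∀ l ∈ S', ∀ l' ∈ S', |(T n l').v 1 - (T n l).v 1| ≤ 2 * B.d n ^ (τ - 2 * ε) := by
    intro l hl l' hl'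
    have c1 := abs_le.1 (hSi l (hS'S hl)).1
    have c2 := abs_le.1 (hSi l' (hS'S hl')).1
    rw [abs_le]
    constructor <;> linarith [c1.1, c1.2, c2.1, c2.2]
  have hN' : ∀ l ∈ S', ∀ l' ∈ S', |Nr G T E fa fb u n k l' - Nr G T E fa fb u n k l| ≤
      2 * B.d n ^ (τ - 2 * ε) := by
    intro l hl l' hl'
    have c1 := abs_le.1 (hSi l (hS'S hl)).2
    have c2 := abs_le.1 (hSi l' (hS'S hl')).2
    rw [abs_le]
    constructor <;> linarith [c1.1, c1.2, c2.1, c2.2]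
  -- number of labels
  have hnl : ((S'.image fun l => gl (B.d n ^ τ) (Wc G T E fa fb n k0 l)).card : ℝ) ≤
      B.d n ^ (-(y * τ) - (4 * D ^ 2 + 7) * ε) := by
    rcases S'.eq_empty_or_nonempty with he | ⟨i1, hi1⟩
    · rw [he]
      simpa using (hpow _).le
    · have d1 := h1 k0 i1 (hS'k0 i1 hi1) S' hS'sl (by
        intro l hl
        have d2 := h3 k0 i1 l (hS'k0 i1 hi1) (hS'k0 l hl) (fun h => absurd h (lt_irrefl _))
          (fun h => absurd h (lt_irrefl _)) (fun _ => hC' i1 hi1 l hl)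
          (fun h => absurd h (lt_irrefl _))
        have e : 2 * (2 * ε) = 4 * ε := by ring
        rwa [e] at d2)
      rw [hνpr] at d1
      refine d1.trans (le_of_eq ?_)
      congr 1
      push_cast
      ring
  -- lines with the same label
  have hsm := h2 k0 S' hS'sl (Fin 2 → ℤ) (fun l => gl (B.d n ^ τ) (Wc G T E fa fb n k0 l)) (by
    intro l hl l' hl' heq
    have d0 := h4 k0 l l' (hS'k0 l hl) (hS'k0 l' hl')
    have hW : ∀ j, |Wc G T E fa fb n k0 l' j - Wc G T E fa fb n k0 l j| ≤ B.d n ^ τ := by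
      intro j
      rw [abs_sub_comm]
      exact (abs_sub_lt_of_gl_eq (hpow τ) heq j).le
    have d1 := d0 (by
      intro ha
      have f1 := h6 k0 k l' l (hS'k0 l' hl') (hS'k0 l hl) (hS'k l' hl') (hS'k l hl)
      have f2 := hN' l hl l' hl'
      have f3 := Nr_diff_le (u := u) Q.hu hW
      have f4 := hC' l hl l' hl'
      have hz1 := (h8 l k (hS'k l hl)).1
      have hz2 := (h8 l k0 (hS'k0 l hl)).1
      have f5 : |(G n).z k - (G n).z k0| ≤ 2 := by
        have g1 := abs_le.1 hz1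
        have g2 := abs_le.1 hz2
        rw [abs_le]
        constructor <;> linarith [g1.1, g1.2, g2.1, g2.2]
      have f6 : |μ n * ((G n).z k - (G n).z k0) ^ 2 * ((T n l').v 1 - (T n l).v 1)| ≤
          B.d n ^ (-ε) * 4 * (2 * B.d n ^ (τ - 2 * ε)) := by
        rw [abs_mul, abs_mul, abs_pow]
        have g1 : |(G n).z k - (G n).z k0| ^ 2 ≤ 4 := by
          nlinarith [abs_nonneg ((G n).z k - (G n).z k0)]
        exact mul_le_mul (mul_le_mul h7 g1 (by positivity) (hpow _).le) f4 (abs_nonneg _)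
          (by have := hpow (-ε); positivity)
      have f7 : |2 * μ n * ((G n).z k - (G n).z k0) * (Xc G T n k0 l' - Xc G T n k0 l)| ≤
          20 * B.d n ^ (τ - 3 * ε) := by
        have g1 := abs_le.1 f1
        have g2 := abs_le.1 f2
        have g3 := abs_le.1 f3
        have g6 := abs_le.1 f6
        have g7 : B.d n ^ (-ε) * 4 * (2 * B.d n ^ (τ - 2 * ε)) = 8 * B.d n ^ (τ - 3 * ε) := by
          have : B.d n ^ (τ - 3 * ε) = B.d n ^ (-ε) * B.d n ^ (τ - 2 * ε) := by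
            rw [← rpow_add']; congr 1; ring
          rw [this]
          ring
        rw [g7] at g6
        have g8 : B.d n ^ τ ≤ B.d n ^ (τ - 3 * ε) := rpow_anti B n (by linarith)
        have g9 : B.d n ^ (τ - 2 * ε) ≤ B.d n ^ (τ - 3 * ε) := rpow_anti B n (by linarith)
        have g10 : B.d n ^ (τ - ε) ≤ B.d n ^ (τ - 3 * ε) := rpow_anti B n (by linarith)
        rw [abs_le]
        constructor <;> linarith [g1.1, g1.2, g2.1, g2.2, g3.1, g3.2, g6.1, g6.2]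
      have f8 := h5 ha
      rw [abs_mul, abs_mul, abs_mul, abs_two] at f7
      have f9 : B.d n ^ (3 * ε) ≤ |(G n).z k - (G n).z k0| := by
        rw [abs_sub_comm]
        exact hfar.le
      have f10 : 2 * B.d n ^ (τ - a) * B.d n ^ (3 * ε) * |Xc G T n k0 l' - Xc G T n k0 l| ≤
          20 * B.d n ^ (τ - 3 * ε) := by
        refine le_trans ?_ f7
        refine mul_le_mul_of_nonneg_right ?_ (abs_nonneg _)
        exact mul_le_mul (by linarith) f9 (hpow _).le (by positivity)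
      have f11 : 20 * B.d n ^ (τ - 3 * ε) =
          2 * B.d n ^ (τ - a) * B.d n ^ (3 * ε) * (10 * B.d n ^ (a - 6 * ε)) := by
        have : B.d n ^ (τ - 3 * ε) = B.d n ^ (τ - a) * B.d n ^ (3 * ε) * B.d n ^ (a - 6 * ε) := by
          rw [← rpow_add', ← rpow_add']; congr 1; ring
        rw [this]
        ring
      rw [f11] at f10
      exact le_of_mul_le_mul_left f10 (by have := hpow (τ - a); have := hpow (3 * ε); positivity))
      (fun _ j => (hW j).trans (by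
        have g1 : B.d n ^ τ ≤ B.d n ^ (τ - 6 * ε) := rpow_anti B n (by linarith)
        have g2 := hpow (τ - 6 * ε)
        linarith))
      (fun _ => (hC' l hl l' hl').trans (by
        have g1 : B.d n ^ (τ - 2 * ε) ≤ B.d n ^ (τ - 6 * ε) := rpow_anti B n (by linarith)
        have g2 := hpow (τ - 6 * ε)
        linarith))
      (fun h => absurd h (lt_irrefl _))
    have e : 2 * (6 * ε) = 12 * ε := by ring
    rwa [e] at d1)
  -- conclusion
  have hfin : (S.card : ℝ) ≤ B.d n ^ (-(2 * ε)) * (S'.card : ℝ) := by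
    have g1 : B.d n ^ (-(2 * ε)) = B.d n ^ (-ε) * B.d n ^ (-ε) := by
      rw [← rpow_add']; congr 1; ring
    have g2 := mul_le_mul_of_nonneg_left hmany (hpow (-ε)).le
    have g3 : B.d n ^ (-ε) * (B.d n ^ ε / 2 * (S.card : ℝ)) = (S.card : ℝ) / 2 := by
      linear_combination ((S.card : ℝ) / 2) * hε1
    rw [g3] at g2
    have g4 : (0 : ℝ) ≤ B.d n ^ (-ε) * (S'.card : ℝ) := by positivity
    rw [g1]
    nlinarith
  have hA0 : B.d n ^ (-ν (qE a τ τ 0) - y * τ - (4 * D ^ 2 + 12 * D + 9) * ε) =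
      B.d n ^ (-(2 * ε)) * (B.d n ^ (-(y * τ) - (4 * D ^ 2 + 7) * ε) *
        B.d n ^ (-ν (qE a τ τ 0) - D * 12 * ε)) := by
    rw [← rpow_add', ← rpow_add']; congr 1; ring
  rw [hA0]
  refine hfin.trans (mul_le_mul_of_nonneg_left ?_ (hpow _).le)
  refine hsm.trans ?_
  exact mul_le_mul_of_nonneg_right hnl (hpow _).le

/-- **thin rows, II**: number of `W`-cells of a row -/
theorem row_le (H : RModel B G 1 R Leg ν D) (A : AbsE B G x T E fa fb)
    (P : ProfE Leg ν x y m β) (hτ : 0 < τ) (hτx : τ ≤ x) (Q : RowH B G T E fa fb τ u μ c0 q0)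
    {a : ℝ} (ha0 : 0 ≤ a) (haτ : a ≤ τ)
    (hμa : 0 < a → ∀ᶠ n in (U : Filter ℕ), B.d n ^ (τ - a) ≤ |μ n|) {ε : ℝ} (hε : 0 < ε)
    (hεR : 3 * ε ≤ R) :
    ∀ᶠ n in (U : Filter ℕ), ∀ k i, (i, k) ∈ (G n).I →
      (cl G T E fa fb (B.d n ^ τ) n k (rowS G T E fa fb u (B.d n ^ τ) n k i) : ℝ) ≤
        B.d n ^ (a - y * τ - (4 * D ^ 2 + 12 * D + 14) * ε) := by
  classical
  have hD := H.D1
  have hx0 := P.x0.le
  have hax : a ≤ x := haτ.trans hτx
  have hLr : qE 0 τ τ 0 ∈ Leg := P.leg _ _ _ _ le_rfl hx0 hτ.le hτx hτ.le hτx le_rfl hx0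
  filter_upwards [mass_le H A P hτ hτx Q ha0 haτ hμa hε hεR,
    co_le A H.toRUnif hx0 (a := 0) (b := τ) (c := τ) (d := 0) hx0 hτx hτx hx0 hε,
    H.low (qE 0 τ τ 0) hLr ε hε, ev_const_le B hε 10] with n h1 h2 h3 h4 k i hi
  have hpow : ∀ t : ℝ, 0 < B.d n ^ t := fun t => rpos B n t
  have hb : ∀ t : ℝ, 10 * B.d n ^ t ≤ B.d n ^ (t - ε) := by
    intro t
    have e1 : B.d n ^ (t - ε) = B.d n ^ (-ε) * B.d n ^ t := by
      rw [← rpow_add']; congr 1; ring
    rw [e1]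
    exact mul_le_mul_of_nonneg_right h4 (hpow t).le
  set S := ((G n).slice k).filter fun l => |(T n l).v 1 - (T n i).v 1| ≤ B.d n ^ (τ - 2 * ε) ∧
    |Nr G T E fa fb u n k l - Nr G T E fa fb u n k i| ≤ B.d n ^ (τ - 2 * ε) with hS
  have hSc := h1 k i hi S (Finset.filter_subset _ _) (fun l hl => (Finset.mem_filter.1 hl).2)
  have key := grid_count (rowS G T E fa fb u (B.d n ^ τ) n k i) S
    (fun l => Wc G T E fa fb n k l) (δ := B.d n ^ τ) (w := 4 * B.d n ^ (τ - ε))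
    (m0 := B.d n ^ (-ν (qE 0 τ τ 0) + ε)) (hpow _) (by have := hpow (τ - ε); positivity) (by
      intro i' hi'
      obtain ⟨hsl, hr1, hr2, hr3⟩ := mem_rowS.1 hi'
      have hi'I := H.memSlice.1 hsl
      refine ⟨(G n).box (qE 0 τ τ 0) ε i' k, ?_, ?_, h3 i' k hi'I⟩
      · intro l hl
        obtain ⟨l1, l2⟩ := RCfg.mem_box.1 hl
        obtain ⟨-, g2, g3⟩ := h2 k i' l hi'I (H.memSlice.1 l1) l2
        have g4 := Nr_diff_le (u := u) Q.hu g2
        have g5 := hb (τ - ε)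
        have e5 : τ - ε - ε = τ - 2 * ε := by ring
        rw [e5] at g5
        have g6 : B.d n ^ τ ≤ B.d n ^ (τ - ε) := rpow_anti B n (by linarith)
        have g7 := hpow (τ - ε)
        refine Finset.mem_filter.2 ⟨l1, ?_, ?_⟩
        · have b1 := abs_le.1 g3
          have b2 := abs_le.1 hr2
          rw [abs_le]
          constructor <;> linarith [b1.1, b1.2, b2.1, b2.2]
        · have b1 := abs_le.1 g4
          have b2 := abs_le.1 hr3
          rw [abs_le]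
          constructor <;> linarith [b1.1, b1.2, b2.1, b2.2]
      · intro l hl j
        obtain ⟨l1, l2⟩ := RCfg.mem_box.1 hl
        exact (h2 k i' l hi'I (H.memSlice.1 l1) l2).2.1 j)
  have e1 : 2 * (4 * B.d n ^ (τ - ε)) / B.d n ^ τ + 2 ≤ B.d n ^ (-(2 * ε)) := by
    have a1 : B.d n ^ (τ - ε) / B.d n ^ τ = B.d n ^ (-ε) := by
      rw [div_eq_iff (hpow _).ne', ← rpow_add']
      congr 1
      ring
    have a2 : 2 * (4 * B.d n ^ (τ - ε)) / B.d n ^ τ = 8 * B.d n ^ (-ε) := by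
      rw [← a1]; ring
    have a3 : B.d n ^ (-(2 * ε)) = B.d n ^ (-ε) * B.d n ^ (-ε) := by
      rw [← rpow_add']; congr 1; ring
    rw [a2, a3]
    nlinarith
  have e2 : (2 * (4 * B.d n ^ (τ - ε)) / B.d n ^ τ + 2) ^ 2 ≤ B.d n ^ (-(4 * ε)) := by
    have a1 : (B.d n ^ (-(2 * ε))) ^ 2 = B.d n ^ (-(4 * ε)) := by
      rw [sq, ← rpow_add']; congr 1; ring
    rw [← a1]
    refine pow_le_pow_left₀ ?_ e1 2
    have := hpow (τ - ε)
    have := hpow τ
    positivity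
  have hν : -ν (qE a τ τ 0) - y * τ = a - y * τ - ν (qE 0 τ τ 0) := by
    rw [P.form a τ τ 0 le_rfl ha0 hax hτ.le hτx hτ.le hτx,
      P.form 0 τ τ 0 le_rfl le_rfl hx0 hτ.le hτx hτ.le hτx]
    ring
  have hfin : (cl G T E fa fb (B.d n ^ τ) n k (rowS G T E fa fb u (B.d n ^ τ) n k i) : ℝ) *
      B.d n ^ (-ν (qE 0 τ τ 0) + ε) ≤
      B.d n ^ (a - y * τ - (4 * D ^ 2 + 12 * D + 14) * ε) * B.d n ^ (-ν (qE 0 τ τ 0) + ε) := by
    refine key.trans ?_
    refine (mul_le_mul e2 hSc (Nat.cast_nonneg _) (hpow _).le).trans ?_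
    rw [← rpow_add', ← rpow_add', hν]
    refine rpow_anti B n ?_
    nlinarith
  exact le_of_mul_le_mul_right hfin (hpow _)

end Crest.Agent.R136.RgR210
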