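import Crest.Agent.R136.RgR2_210

/-!
# R136 (S0187): RIG_E, piece ROWS, part 3 (helper210)

Full rows: rows persist in the height; at the row with the largest number of `W`-cells Kaufman's count
gives `#cells ≥ ρ^(-τ + ε)` if `β > 0`.
-/

set_option autoImplicit false
set_option linter.unusedVariables false
set_option linter.unusedSectionVars false

open Filter Topology Finset

namespace Crest.Agent.R136.RgR210

open Crest.Agent.R136.Sh605
open Crest.Agent.R138.Ex926 (Base U)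
open Crest.Agent.R136.Gf356
open Crest.Agent.R136.Wk323 (coA one_le_rpow_neg ev_mul_le)
open Crest.Agent.R136.RgN344
open Crest.Agent.R136.RgE344

variable {B : Base} {G : ℕ → RCfg (Fin 11)} {Leg : Set (Fin 11 → ℝ)} {ν : (Fin 11 → ℝ) → ℝ}
  {D R x y m β : ℝ} {T : ℕ → ℕ → Ln4} {E fa fb : ℕ → ℕ → ℝ}
  {τ : ℝ} {u : ℕ → Fin 2 → ℝ} {μ c0 q0 : ℕ → ℝ}

theorem floor_card_le {ι : Type*} [DecidableEq ι] (S : Finset ι) (f : ι → ℝ) {r w : ℝ}
    (hr : 0 < r) (hw : 0 ≤ w) (h : ∀ i ∈ S, ∀ i' ∈ S, |f i - f i'| ≤ w) :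
    ((S.image fun i => ⌊f i / r⌋).card : ℝ) ≤ 2 * w / r + 2 := by
  classical
  have h1 := gl_card_le S (fun i (_ : Fin 1) => f i) hr hw (fun i hi i' hi' _ => h i hi i' hi')
  rw [pow_one] at h1
  refine le_trans ?_ h1
  have h2 : (S.image fun i => ⌊f i / r⌋) =
      (S.image fun i => gl r (fun _ : Fin 1 => f i)).image fun c => c 0 := by
    rw [Finset.image_image]
    rfl
  rw [h2]
  exact_mod_cast Finset.card_image_le

theorem nr_mono {w w' : ℝ} (hw : w ≤ w') {n k l l' : ℕ} (h : nr G T E fa fb u w n k l l') :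
    nr G T E fa fb u w' n k l l' := ⟨h.1.trans hw, h.2.1.trans hw, h.2.2.trans hw⟩

theorem nr_tri {w w' : ℝ} {n k l l' i : ℕ} (h : nr G T E fa fb u w n k l i)
    (h' : nr G T E fa fb u w' n k l' i) : nr G T E fa fb u (w + w') n k l l' := by
  obtain ⟨a1, a2, a3⟩ := h
  obtain ⟨b1, b2, b3⟩ := h'
  have a1 := abs_le.1 a1
  have a2 := abs_le.1 a2
  have a3 := abs_le.1 a3
  have b1 := abs_le.1 b1
  have b2 := abs_le.1 b2
  have b3 := abs_le.1 b3
  refine ⟨?_, ?_, ?_⟩ <;> rw [abs_le] <;> constructor <;>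
    linarith [a1.1, a1.2, a2.1, a2.2, a3.1, a3.2, b1.1, b1.2, b2.1, b2.2, b3.1, b3.2]

/-- **rows persist** -/
theorem nr_transport (A : AbsE B G x T E fa fb) (Q : RowH B G T E fa fb τ u μ c0 q0) {c : ℝ}
    (hc : 0 ≤ c) {ε : ℝ} (hε : 0 < ε) : ∀ᶠ n in (U : Filter ℕ), ∀ k k' l l', (l, k) ∈ (G n).I →
      (l', k) ∈ (G n).I → (l, k') ∈ (G n).I → (l', k') ∈ (G n).I →
      nr G T E fa fb u (B.d n ^ (τ - c * ε)) n k l l' →
        nr G T E fa fb u (B.d n ^ (τ - (c + 1) * ε)) n k' l l' := by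
  have hε2 : 0 < ε / 2 := by positivity
  filter_upwards [row_diff A Q hε2, Q.hμ _ hε2, A.bd, ev_const_le B hε2 17] with n h1 h2 h3 h4
    k k' l l' hl hl' hlk hlk' hn
  have hpow : ∀ t : ℝ, 0 < B.d n ^ t := fun t => rpos B n t
  set g := B.d n ^ (-(ε / 2)) with hg
  set w := B.d n ^ (τ - c * ε) with hw
  have hw0 : 0 < w := hpow _
  have hw' : B.d n ^ (τ - (c + 1) * ε) = g * (g * w) := by
    rw [hg, hw, ← rpow_add', ← rpow_add']; congr 1; ring
  have hg0 : 0 < g := hpow _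
  have hgw : g * w ≥ 17 * w := mul_le_mul_of_nonneg_right h4 hw0.le
  have hggw : g * (g * w) ≥ 17 * (g * w) := mul_le_mul_of_nonneg_right h4 (by positivity)
  obtain ⟨n1, n2, n3⟩ := hn
  have hz1 := abs_le.1 (h3 l k hl).1
  have hz2 := abs_le.1 (h3 l k' hlk).1
  have hΔ : |(G n).z k' - (G n).z k| ≤ 2 := by
    rw [abs_le]
    constructor <;> linarith [hz1.1, hz1.2, hz2.1, hz2.2]
  rw [hw']
  refine ⟨?_, ?_, ?_⟩
  · have e : Xc G T n k' l - Xc G T n k' l' = (Xc G T n k l - Xc G T n k l') +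
        ((G n).z k' - (G n).z k) * ((T n l).v 1 - (T n l').v 1) := by
      simp only [Xc, Ln4.pos]
      ring
    rw [e]
    refine (abs_add_le _ _).trans ?_
    rw [abs_mul]
    have := mul_le_mul hΔ n2 (abs_nonneg _) (by norm_num)
    linarith
  · linarith
  · have a1 := h1 k k' l l' hl hl' hlk hlk'
    have a2 : |2 * μ n * ((G n).z k' - (G n).z k) * (Xc G T n k l - Xc G T n k l')| ≤
        2 * g * 2 * w := by
      rw [abs_mul, abs_mul, abs_mul, abs_two]
      have b1 : 2 * |μ n| ≤ 2 * g := by linarith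
      exact mul_le_mul (mul_le_mul b1 hΔ (abs_nonneg _) (by positivity)) n1 (abs_nonneg _)
        (by positivity)
    have a3 : |μ n * ((G n).z k' - (G n).z k) ^ 2 * ((T n l).v 1 - (T n l').v 1)| ≤
        g * 4 * w := by
      rw [abs_mul, abs_mul, abs_pow]
      have b1 : |(G n).z k' - (G n).z k| ^ 2 ≤ 4 := by
        nlinarith [abs_nonneg ((G n).z k' - (G n).z k)]
      exact mul_le_mul (mul_le_mul h2 b1 (by positivity) hg0.le) n2 (abs_nonneg _) (by positivity)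
    have a4 : B.d n ^ (τ - ε / 2) ≤ g * w := by
      rw [hg, hw, ← rpow_add']
      refine rpow_anti B n ?_
      nlinarith
    generalize 2 * μ n * ((G n).z k' - (G n).z k) * (Xc G T n k l - Xc G T n k l') = t1 at a1 a2
    generalize μ n * ((G n).z k' - (G n).z k) ^ 2 * ((T n l).v 1 - (T n l').v 1) = t2 at a1 a3
    have a1' := abs_le.1 a1
    have a2' := abs_le.1 a2
    have a3' := abs_le.1 a3
    have n3' := abs_le.1 n3
    have hg1 : w ≤ g * w := by linarith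
    rw [abs_le]
    constructor <;> linarith [a1'.1, a1'.2, a2'.1, a2'.2, a3'.1, a3'.2, n3'.1, n3'.2]

/-- cells of a widened row -/
theorem cells_le_max {δ w : ℝ} (hδ : 0 < δ) (hw : 0 ≤ w) {n k Rm : ℕ}
    (hRm : ∀ i, (i, k) ∈ (G n).I → cl G T E fa fb δ n k (rowS G T E fa fb u δ n k i) ≤ Rm)
    (S : Finset ℕ) (hSs : S ⊆ (G n).slice k) (hSI : ∀ l ∈ S, (l, k) ∈ (G n).I)
    (hS : ∀ l ∈ S, ∀ l' ∈ S, nr G T E fa fb u w n k l l') :
    (cl G T E fa fb δ n k S : ℝ) ≤ (2 * w / δ + 2) ^ 3 * (Rm : ℝ) := by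
  classical
  have h1 := image_card_le S (fun l => gl δ (Wc G T E fa fb n k l))
    (fun l => gl δ ![Xc G T n k l, (T n l).v 1, Nr G T E fa fb u n k l]) (M := (Rm : ℝ)) (by
      intro s hs
      have h0 : ((cl G T E fa fb δ n k (rowS G T E fa fb u δ n k s) : ℕ) : ℝ) ≤ (Rm : ℝ) := by
        exact_mod_cast hRm s (hSI s hs)
      refine le_trans ?_ h0
      unfold cl
      refine mod_cast Finset.card_le_card (Finset.image_subset_image ?_)
      intro l hl
      obtain ⟨l1, l2⟩ := Finset.mem_filter.1 hl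
      refine mem_rowS.2 ⟨hSs l1, ?_, ?_, ?_⟩
      · exact (abs_sub_lt_of_gl_eq hδ l2 0).le
      · exact (abs_sub_lt_of_gl_eq hδ l2 1).le
      · exact (abs_sub_lt_of_gl_eq hδ l2 2).le)
  refine h1.trans ?_
  refine mul_le_mul_of_nonneg_right ?_ (Nat.cast_nonneg _)
  refine gl_card_le S _ hδ hw ?_
  intro l hl l' hl' j
  obtain ⟨a1, a2, a3⟩ := hS l hl l' hl'
  fin_cases j
  · exact a1
  · exact a2
  · exact a3

/-- the constants of widened rows -/
theorem wide_le {c ε : ℝ} (hc : 0 ≤ c) (hε : 0 < ε) : ∀ᶠ n in (U : Filter ℕ),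
    (2 * B.d n ^ (τ - c * ε) / B.d n ^ τ + 2) ^ 3 ≤ B.d n ^ (-((3 * c + 1) * ε)) := by
  filter_upwards [ev_const_le B hε 64] with n h
  have hpow : ∀ t : ℝ, 0 < B.d n ^ t := fun t => rpos B n t
  have a1 : B.d n ^ (τ - c * ε) / B.d n ^ τ = B.d n ^ (-(c * ε)) := by
    rw [div_eq_iff (hpow _).ne', ← rpow_add']
    congr 1
    ring
  have a2 : (1 : ℝ) ≤ B.d n ^ (-(c * ε)) := one_le_rpow_neg B n (by positivity)
  have a3 : 2 * B.d n ^ (τ - c * ε) / B.d n ^ τ + 2 ≤ 4 * B.d n ^ (-(c * ε)) := by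
    rw [mul_div_assoc, a1]
    linarith
  have a4 : (2 * B.d n ^ (τ - c * ε) / B.d n ^ τ + 2) ^ 3 ≤ (4 * B.d n ^ (-(c * ε))) ^ 3 := by
    refine pow_le_pow_left₀ ?_ a3 3
    have := hpow (τ - c * ε)
    have := hpow τ
    positivity
  refine a4.trans ?_
  have a5 : B.d n ^ (-((3 * c + 1) * ε)) = B.d n ^ (-ε) * (B.d n ^ (-(c * ε))) ^ 3 := by
    have : (B.d n ^ (-(c * ε))) ^ 3 = B.d n ^ (-(c * ε) + -(c * ε) + -(c * ε)) := by
      rw [rpow_add', rpow_add']; ring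
    rw [this, ← rpow_add']; congr 1; ring
  rw [a5]
  have a6 : (0 : ℝ) ≤ (B.d n ^ (-(c * ε))) ^ 3 := by positivity
  nlinarith

theorem eE_le {n k : ℕ} (hE1 : |E n k| ≤ 1) (hfa1 : |fa n k| ≤ 1) (hfb1 : |fb n k| ≤ 1) (j : Fin 2) :
    |eE E fa fb n k j| ≤ 2 := by
  fin_cases j
  · show |E n k| ≤ 2
    linarith
  · show |fa n k + fb n k * E n k| ≤ 2
    refine (abs_add_le _ _).trans ?_
    rw [abs_mul]
    have := mul_le_mul hfb1 hE1 (abs_nonneg _) (by norm_num)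
    linarith

/-- the velocity of close lines of a row -/
theorem vel_close (A : AbsE B G x T E fa fb) (Q : RowH B G T E fa fb τ u μ c0 q0) {s : ℝ}
    (hs0 : 0 ≤ s) (hsτ : s ≤ τ) {ε : ℝ} (hε : 0 < ε) : ∀ᶠ n in (U : Filter ℕ),
      ∀ k l l', (l, k) ∈ (G n).I → (l', k) ∈ (G n).I →
      nr G T E fa fb u (B.d n ^ (τ - 3 * ε)) n k l' l →
      |(u n 0 * (T n l').v 0 - u n 1 * (T n l').v 2) -
          (u n 0 * (T n l).v 0 - u n 1 * (T n l).v 2)| ≤ 2 * B.d n ^ (s - 6 * ε) →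
      ∀ j, |wE T n l' j - wE T n l j| ≤ 3 * B.d n ^ (s - 6 * ε) := by
  filter_upwards [Q.hμ ε hε, Q.hrel ε hε, A.bd, ev_const_le B hε 10] with n h6 h7 h8 h9
    k l l' hl hl' hnr v1
  have hpow : ∀ t : ℝ, 0 < B.d n ^ t := fun t => rpos B n t
  obtain ⟨m1, m2, m3⟩ := hnr
  obtain ⟨hz, -, -, hE1, hfa1, hfb1⟩ := h8 l k hl
  have he0 := eE_le hE1 hfa1 hfb1 0
  have he1 := eE_le hE1 hfa1 hfb1 1
  -- `c0` is bounded
  have hc0 : |c0 n| ≤ 6 * B.d n ^ (-ε) := by
    have b1 := (h7 l k hl).1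
    have b2 : B.d n ^ (τ - ε) ≤ B.d n ^ (-ε) := rpow_anti B n (by linarith)
    have b3 : |μ n * (G n).z k| ≤ B.d n ^ (-ε) * 1 := by
      rw [abs_mul]
      exact mul_le_mul h6 hz (abs_nonneg _) (hpow _).le
    have b4 := mul_le_mul (u_le (Q.hu n) 0) he0 (abs_nonneg _) (by norm_num)
    have b5 := mul_le_mul (u_le (Q.hu n) 1) he1 (abs_nonneg _) (by norm_num)
    rw [← abs_mul] at b4 b5
    have b6 : (1 : ℝ) ≤ B.d n ^ (-ε) := one_le_rpow_neg B n hε.le
    have b1' := abs_le.1 b1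
    have b3' := abs_le.1 b3
    have b4' := abs_le.1 b4
    have b5' := abs_le.1 b5
    rw [abs_le]
    constructor <;> linarith [b1'.1, b1'.2, b3'.1, b3'.2, b4'.1, b4'.2, b5'.1, b5'.2]
  -- the row component of the velocity
  have hN' : |u n 0 * (wE T n l' 0 - wE T n l 0) + u n 1 * (wE T n l' 1 - wE T n l 1)| ≤
      B.d n ^ (s - 6 * ε) := by
    have b1 := (h7 l k hl).2
    have b2 := (h7 l' k hl').2
    have b3 : |μ n * ((T n l').p 1 - (T n l).p 1)| ≤
        B.d n ^ (-ε) * (2 * B.d n ^ (τ - 3 * ε)) := by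
      rw [abs_mul]
      refine mul_le_mul h6 ?_ (abs_nonneg _) (hpow _).le
      have e : (T n l').p 1 - (T n l).p 1 = (Xc G T n k l' - Xc G T n k l) -
          (G n).z k * ((T n l').v 1 - (T n l).v 1) := by
        simp only [Xc, Ln4.pos]
        ring
      rw [e]
      refine (abs_sub _ _).trans ?_
      rw [abs_mul]
      have := mul_le_mul hz m2 (abs_nonneg _) (by norm_num)
      linarith
    have b4 : |c0 n * ((T n l').v 1 - (T n l).v 1)| ≤
        6 * B.d n ^ (-ε) * B.d n ^ (τ - 3 * ε) := by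
      rw [abs_mul]
      exact mul_le_mul hc0 m2 (abs_nonneg _) (by have := hpow (-ε); positivity)
    have b5 : B.d n ^ (τ - ε) ≤ B.d n ^ (-ε) * B.d n ^ (τ - 3 * ε) := by
      rw [← rpow_add']
      exact rpow_anti B n (by linarith)
    have b6 : 10 * (B.d n ^ (-ε) * B.d n ^ (τ - 3 * ε)) ≤ B.d n ^ (s - 6 * ε) := by
      have c1 : B.d n ^ (-ε) * (B.d n ^ (-ε) * B.d n ^ (τ - 3 * ε)) ≤ B.d n ^ (s - 6 * ε) := by
        rw [← rpow_add', ← rpow_add']
        exact rpow_anti B n (by linarith)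
      refine le_trans ?_ c1
      refine mul_le_mul_of_nonneg_right h9 ?_
      exact (mul_pos (hpow _) (hpow _)).le
    have b7 := mul_pos (hpow (-ε)) (hpow (τ - 3 * ε))
    have e : u n 0 * (wE T n l' 0 - wE T n l 0) + u n 1 * (wE T n l' 1 - wE T n l 1) =
        (u n 0 * wE T n l' 0 + u n 1 * wE T n l' 1 + μ n * (T n l').p 1 - c0 n * (T n l').v 1 -
          q0 n) -
        (u n 0 * wE T n l 0 + u n 1 * wE T n l 1 + μ n * (T n l).p 1 - c0 n * (T n l).v 1 -
          q0 n) - μ n * ((T n l').p 1 - (T n l).p 1) + c0 n * ((T n l').v 1 - (T n l).v 1) := by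
      ring
    rw [e]
    refine le_trans ?_ b6
    have b1' := abs_le.1 b1
    have b2' := abs_le.1 b2
    have b3' := abs_le.1 b3
    have b4' := abs_le.1 b4
    rw [abs_le]
    constructor <;> linarith [b1'.1, b1'.2, b2'.1, b2'.2, b3'.1, b3'.2, b4'.1, b4'.2]
  have hV' : |u n 0 * (wE T n l' 1 - wE T n l 1) - u n 1 * (wE T n l' 0 - wE T n l 0)| ≤
      2 * B.d n ^ (s - 6 * ε) := by
    have e : u n 0 * (wE T n l' 1 - wE T n l 1) - u n 1 * (wE T n l' 0 - wE T n l 0) =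
        (u n 0 * (T n l').v 0 - u n 1 * (T n l').v 2) -
          (u n 0 * (T n l).v 0 - u n 1 * (T n l).v 2) := by
      simp only [wE, Matrix.cons_val_zero, Matrix.cons_val_one]
      ring
    rw [e]
    exact v1
  have hu1 := Q.hu n
  have a1 := mul_le_mul (u_le hu1 0) hN' (abs_nonneg _) (by norm_num)
  have a2 := mul_le_mul (u_le hu1 1) hN' (abs_nonneg _) (by norm_num)
  have a3 := mul_le_mul (u_le hu1 0) hV' (abs_nonneg _) (by norm_num)
  have a4 := mul_le_mul (u_le hu1 1) hV' (abs_nonneg _) (by norm_num)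
  rw [← abs_mul] at a1 a2 a3 a4
  intro j
  fin_cases j
  · show |wE T n l' 0 - wE T n l 0| ≤ _
    have e : wE T n l' 0 - wE T n l 0 =
        u n 0 * (u n 0 * (wE T n l' 0 - wE T n l 0) + u n 1 * (wE T n l' 1 - wE T n l 1)) -
        u n 1 * (u n 0 * (wE T n l' 1 - wE T n l 1) - u n 1 * (wE T n l' 0 - wE T n l 0)) := by
      linear_combination (-(wE T n l' 0 - wE T n l 0)) * hu1
    rw [e]
    exact (abs_sub _ _).trans (by linarith)
  · show |wE T n l' 1 - wE T n l 1| ≤ _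
    have e : wE T n l' 1 - wE T n l 1 =
        u n 1 * (u n 0 * (wE T n l' 0 - wE T n l 0) + u n 1 * (wE T n l' 1 - wE T n l 1)) +
        u n 0 * (u n 0 * (wE T n l' 1 - wE T n l 1) - u n 1 * (wE T n l' 0 - wE T n l 0)) := by
      linear_combination (-(wE T n l' 1 - wE T n l 1)) * hu1
    rw [e]
    exact (abs_add_le _ _).trans (by linarith)

/-! ### the largest row -/

section big

variable {i0 k0 : ℕ → ℕ} {Rm : ℕ → ℕ} {κR : ℝ}

/-- lower bound of the fibre -/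
theorem S_lower (H : RModel B G 1 R Leg ν D) (A : AbsE B G x T E fa fb)
    (P : ProfE Leg ν x y m β) (hτ : 0 < τ) (hτx : τ ≤ x) (Q : RowH B G T E fa fb τ u μ c0 q0)
    (hI0 : ∀ n, (i0 n, k0 n) ∈ (G n).I)
    (hRm0 : ∀ n, Rm n = cl G T E fa fb (B.d n ^ τ) n (k0 n)
      (rowS G T E fa fb u (B.d n ^ τ) n (k0 n) (i0 n)))
    (hlo : ∀ ε : ℝ, 0 < ε → ∀ᶠ n in (U : Filter ℕ), B.d n ^ (-κR + ε) ≤ (Rm n : ℝ))
    {ε : ℝ} (hε : 0 < ε) : ∀ᶠ n in (U : Filter ℕ),
      B.d n ^ (-(κR + ν (qE τ τ τ 0)) + 6 * ε) ≤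
        ((rowS G T E fa fb u (B.d n ^ (τ - 2 * ε)) n (k0 n) (i0 n)).card : ℝ) := by
  classical
  have hD := H.D1
  have hx0 := P.x0.le
  have hL : qE τ τ τ 0 ∈ Leg := P.leg _ _ _ _ hτ.le hτx hτ.le hτx hτ.le hτx le_rfl hx0
  filter_upwards [hlo ε hε, H.low (qE τ τ τ 0) hL ε hε,
    co_le A H.toRUnif hx0 (a := τ) (b := τ) (c := τ) (d := 0) hτx hτx hτx hx0 hε,
    ev_const_le B hε 10] with n h1 h2 h3 h4
  have hpow : ∀ t : ℝ, 0 < B.d n ^ t := fun t => rpos B n t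
  have hb : ∀ t : ℝ, 10 * B.d n ^ t ≤ B.d n ^ (t - ε) := by
    intro t
    have e1 : B.d n ^ (t - ε) = B.d n ^ (-ε) * B.d n ^ t := by
      rw [← rpow_add']; congr 1; ring
    rw [e1]
    exact mul_le_mul_of_nonneg_right h4 (hpow t).le
  have key := grid_count (rowS G T E fa fb u (B.d n ^ τ) n (k0 n) (i0 n))
    (rowS G T E fa fb u (B.d n ^ (τ - 2 * ε)) n (k0 n) (i0 n))
    (fun l => Wc G T E fa fb n (k0 n) l) (δ := B.d n ^ τ) (w := 4 * B.d n ^ (τ - ε))
    (m0 := B.d n ^ (-ν (qE τ τ τ 0) + ε)) (hpow _) (by have := hpow (τ - ε); positivity) (by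
      intro i' hi'
      obtain ⟨hsl, hr1, hr2, hr3⟩ := mem_rowS.1 hi'
      have hi'I := H.memSlice.1 hsl
      refine ⟨(G n).box (qE τ τ τ 0) ε i' (k0 n), ?_, ?_, h2 i' (k0 n) hi'I⟩
      · intro l hl
        obtain ⟨l1, l2⟩ := RCfg.mem_box.1 hl
        obtain ⟨g1, g2, g3⟩ := h3 (k0 n) i' l hi'I (H.memSlice.1 l1) l2
        have g4 := Nr_diff_le (u := u) Q.hu g2
        have g5 := hb (τ - ε)
        have e5 : τ - ε - ε = τ - 2 * ε := by ring
        rw [e5] at g5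
        have g6 : B.d n ^ τ ≤ B.d n ^ (τ - ε) := rpow_anti B n (by linarith)
        have g7 := hpow (τ - ε)
        refine mem_rowS.2 ⟨l1, ?_, ?_, ?_⟩
        · have b1 := abs_le.1 g1
          have b2 := abs_le.1 hr1
          rw [abs_le]
          constructor <;> linarith [b1.1, b1.2, b2.1, b2.2]
        · have b1 := abs_le.1 g3
          have b2 := abs_le.1 hr2
          rw [abs_le]
          constructor <;> linarith [b1.1, b1.2, b2.1, b2.2]
        · have b1 := abs_le.1 g4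
          have b2 := abs_le.1 hr3
          rw [abs_le]
          constructor <;> linarith [b1.1, b1.2, b2.1, b2.2]
      · intro l hl j
        obtain ⟨l1, l2⟩ := RCfg.mem_box.1 hl
        exact (h3 (k0 n) i' l hi'I (H.memSlice.1 l1) l2).2.1 j)
  have e1 : 2 * (4 * B.d n ^ (τ - ε)) / B.d n ^ τ + 2 ≤ B.d n ^ (-(2 * ε)) := by
    have a1 : B.d n ^ (τ - ε) / B.d n ^ τ = B.d n ^ (-ε) := by
      rw [div_eq_iff (hpow _).ne', ← rpow_add']
      congr 1
      ring
    have a2 : 2 * (4 * B.d n ^ (τ - ε)) / B.d n ^ τ = 8 * B.d n ^ (-ε) := by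
      rw [← a1]; ring
    have a3 : B.d n ^ (-(2 * ε)) = B.d n ^ (-ε) * B.d n ^ (-ε) := by
      rw [← rpow_add']; congr 1; ring
    rw [a2, a3]
    nlinarith
  have e2 : (2 * (4 * B.d n ^ (τ - ε)) / B.d n ^ τ + 2) ^ 2 ≤ B.d n ^ (-(4 * ε)) := by
    have a1 : (B.d n ^ (-(2 * ε))) ^ 2 = B.d n ^ (-(4 * ε)) := by
      rw [sq, ← rpow_add']; congr 1; ring
    rw [← a1]
    refine pow_le_pow_left₀ ?_ e1 2
    have := hpow (τ - ε)
    have := hpow τ
    positivity
  have e3 : B.d n ^ (-κR + ε) * B.d n ^ (-ν (qE τ τ τ 0) + ε) ≤ B.d n ^ (-(4 * ε)) *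
      ((rowS G T E fa fb u (B.d n ^ (τ - 2 * ε)) n (k0 n) (i0 n)).card : ℝ) := by
    refine le_trans ?_ (key.trans (mul_le_mul_of_nonneg_right e2 (Nat.cast_nonneg _)))
    refine mul_le_mul_of_nonneg_right ?_ (hpow _).le
    rw [hRm0 n] at h1
    exact h1
  have e4 : B.d n ^ (-κR + ε) * B.d n ^ (-ν (qE τ τ τ 0) + ε) =
      B.d n ^ (-(4 * ε)) * B.d n ^ (-(κR + ν (qE τ τ τ 0)) + 6 * ε) := by
    rw [← rpow_add', ← rpow_add']; congr 1; ring
  rw [e4] at e3
  exact le_of_mul_le_mul_left e3 (hpow _)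

theorem S_pair {ε : ℝ} (hε : 0 < ε) : ∀ᶠ n in (U : Filter ℕ),
    ∀ l ∈ rowS G T E fa fb u (B.d n ^ (τ - 2 * ε)) n (k0 n) (i0 n),
    ∀ l' ∈ rowS G T E fa fb u (B.d n ^ (τ - 2 * ε)) n (k0 n) (i0 n),
      nr G T E fa fb u (B.d n ^ (τ - 3 * ε)) n (k0 n) l l' := by
  filter_upwards [ev_const_le B hε 2] with n h l hl l' hl'
  have e1 : B.d n ^ (τ - 3 * ε) = B.d n ^ (-ε) * B.d n ^ (τ - 2 * ε) := by
    rw [← rpow_add']; congr 1; ring
  refine nr_mono ?_ (nr_tri (mem_rowS.1 hl).2 (mem_rowS.1 hl').2)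
  rw [e1]
  have := rpos B n (τ - 2 * ε)
  nlinarith

set_option maxHeartbeats 1000000 in
/-- close pairs -/
theorem close_le (H : RModel B G 1 R Leg ν D) (A : AbsE B G x T E fa fb)
    (P : ProfE Leg ν x y m β) (hτ : 0 < τ) (hτx : τ ≤ x) (Q : RowH B G T E fa fb τ u μ c0 q0)
    (hI0 : ∀ n, (i0 n, k0 n) ∈ (G n).I)
    (hRm : ∀ n i k, (i, k) ∈ (G n).I →
      cl G T E fa fb (B.d n ^ τ) n k (rowS G T E fa fb u (B.d n ^ τ) n k i) ≤ Rm n)
    (hup : ∀ ε : ℝ, 0 < ε → ∀ᶠ n in (U : Filter ℕ), (Rm n : ℝ) ≤ B.d n ^ (-κR - ε))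
    {s : ℝ} (hs0 : 0 ≤ s) (hsτ : s ≤ τ) {ε : ℝ} (hε : 0 < ε) : ∀ᶠ n in (U : Filter ℕ),
      ∀ Qs ⊆ rowS G T E fa fb u (B.d n ^ (τ - 2 * ε)) n (k0 n) (i0 n),
      (∀ l ∈ Qs, ∀ l' ∈ Qs,
        |(u n 0 * (T n l').v 0 - u n 1 * (T n l').v 2) -
          (u n 0 * (T n l).v 0 - u n 1 * (T n l).v 2)| ≤ 2 * B.d n ^ (s - 6 * ε) ∧
        |Fr G T E fa fb u n (k0 n) l' - Fr G T E fa fb u n (k0 n) l| ≤
          2 * B.d n ^ (s - 13 * ε)) →
      (Qs.card : ℝ) ≤ B.d n ^ (-(min κR (τ - s) + ν (qE τ τ τ s)) - (17 + 12 * D) * ε) := by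
  classical
  have hD := H.D1
  have hx0 := P.x0.le
  have hsx : s ≤ x := hsτ.trans hτx
  have hL : qE τ τ τ s ∈ Leg := P.leg _ _ _ _ hτ.le hτx hτ.le hτx hτ.le hτx hs0 hsx
  filter_upwards [S_pair (G := G) (T := T) (E := E) (fa := fa) (fb := fb) (u := u) (τ := τ)
      (i0 := i0) (k0 := k0) hε,
    wide_le (B := B) (τ := τ) (c := 3) (by norm_num) hε, hup ε hε,
    card_le_lab H.toRUnif (qE τ τ τ s) hL (C := 12) (ε := ε) (by norm_num) hε,
    loose_of A H.toRUnif hx0 (a := τ) (b := τ) (c := τ) (d := s) hτx hτx hτx hsx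
      (ε := 6 * ε) (by positivity) 5,
    vel_close A Q hs0 hsτ hε, A.bd, ev_const_le B hε 864] with n h1 h2 h3 h4 h5 h6 h8 h9 Qs hQs hcl
  have hpow : ∀ t : ℝ, 0 < B.d n ^ t := fun t => rpos B n t
  have hQsl : Qs ⊆ (G n).slice (k0 n) := fun l hl => (mem_rowS.1 (hQs hl)).1
  have hQI : ∀ l ∈ Qs, (l, k0 n) ∈ (G n).I := fun l hl => H.memSlice.1 (hQsl hl)
  have hnr : ∀ l ∈ Qs, ∀ l' ∈ Qs, nr G T E fa fb u (B.d n ^ (τ - 3 * ε)) n (k0 n) l l' :=
    fun l hl l' hl' => h1 l (hQs hl) l' (hQs hl')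
  -- number of cells, first bound
  have hc1 : (cl G T E fa fb (B.d n ^ τ) n (k0 n) Qs : ℝ) ≤ B.d n ^ (-κR - 11 * ε) := by
    have a1 := cells_le_max (hpow τ) (hpow (τ - 3 * ε)).le (fun i hi => hRm n i (k0 n) hi) Qs
      hQsl hQI hnr
    refine a1.trans ((mul_le_mul h2 h3 (Nat.cast_nonneg _) (hpow _).le).trans ?_)
    rw [← rpow_add']
    exact rpow_anti B n (by linarith)
  -- number of cells, second bound
  have hc2 : (cl G T E fa fb (B.d n ^ τ) n (k0 n) Qs : ℝ) ≤ B.d n ^ (-(τ - s) - 17 * ε) := by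
    have e1 : B.d n ^ (τ - 3 * ε) / B.d n ^ τ = B.d n ^ (-(3 * ε)) := by
      rw [div_eq_iff (hpow _).ne', ← rpow_add']
      congr 1
      ring
    have e2 : B.d n ^ (s - 13 * ε) / B.d n ^ τ = B.d n ^ (s - τ - 13 * ε) := by
      rw [div_eq_iff (hpow _).ne', ← rpow_add']
      congr 1
      ring
    have e3 : (1 : ℝ) ≤ B.d n ^ (-(3 * ε)) := one_le_rpow_neg B n (by positivity)
    have e4 : (1 : ℝ) ≤ B.d n ^ (s - τ - 13 * ε) := by
      have := one_le_rpow_neg B n (t := τ - s + 13 * ε) (by linarith)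
      have e : -(τ - s + 13 * ε) = s - τ - 13 * ε := by ring
      rwa [e] at this
    have a1 := image_card_le Qs (fun l => gl (B.d n ^ τ) (Wc G T E fa fb n (k0 n) l))
      (fun l => ⌊Nr G T E fa fb u n (k0 n) l / B.d n ^ τ⌋)
      (M := 6 * B.d n ^ (s - τ - 13 * ε) * 36) (by
        intro s1 hs1
        have b1 := image_card_le (Qs.filter fun l => ⌊Nr G T E fa fb u n (k0 n) l / B.d n ^ τ⌋ =
            ⌊Nr G T E fa fb u n (k0 n) s1 / B.d n ^ τ⌋)
          (fun l => gl (B.d n ^ τ) (Wc G T E fa fb n (k0 n) l))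
          (fun l => ⌊Fr G T E fa fb u n (k0 n) l / B.d n ^ τ⌋) (M := 36) (by
            intro s2 hs2
            have c1 := gl_card_le (((Qs.filter fun l =>
                ⌊Nr G T E fa fb u n (k0 n) l / B.d n ^ τ⌋ =
                ⌊Nr G T E fa fb u n (k0 n) s1 / B.d n ^ τ⌋)).filter fun l =>
                ⌊Fr G T E fa fb u n (k0 n) l / B.d n ^ τ⌋ =
                ⌊Fr G T E fa fb u n (k0 n) s2 / B.d n ^ τ⌋)
              (fun l => Wc G T E fa fb n (k0 n) l) (δ := B.d n ^ τ) (w := 2 * B.d n ^ τ)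
              (hpow _) (by have := hpow τ; positivity) (by
                intro l hl l' hl' j
                obtain ⟨d1, d2⟩ := Finset.mem_filter.1 hl
                obtain ⟨d3, d4⟩ := Finset.mem_filter.1 d1
                obtain ⟨g1, g2⟩ := Finset.mem_filter.1 hl'
                obtain ⟨g3, g4⟩ := Finset.mem_filter.1 g1
                have f1 : |Nr G T E fa fb u n (k0 n) l - Nr G T E fa fb u n (k0 n) l'| ≤
                    B.d n ^ τ := by
                  have := Int.abs_sub_lt_one_of_floor_eq_floor (d4.trans g4.symm)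
                  rw [← sub_div, abs_div, abs_of_pos (hpow τ), div_lt_one (hpow τ)] at this
                  exact this.le
                have f2 : |Fr G T E fa fb u n (k0 n) l - Fr G T E fa fb u n (k0 n) l'| ≤
                    B.d n ^ τ := by
                  have := Int.abs_sub_lt_one_of_floor_eq_floor (d2.trans g2.symm)
                  rw [← sub_div, abs_div, abs_of_pos (hpow τ), div_lt_one (hpow τ)] at this
                  exact this.le
                have f3 := W_diff_le Q.hu f1 f2 j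
                linarith)
            refine c1.trans (le_of_eq ?_)
            have : 2 * (2 * B.d n ^ τ) / B.d n ^ τ = 4 := by
              have := (hpow τ).ne'
              field_simp
              norm_num
            rw [this]
            norm_num)
        refine b1.trans ?_
        refine mul_le_mul_of_nonneg_right ?_ (by norm_num)
        have b2 := floor_card_le (Qs.filter fun l =>
            ⌊Nr G T E fa fb u n (k0 n) l / B.d n ^ τ⌋ =
            ⌊Nr G T E fa fb u n (k0 n) s1 / B.d n ^ τ⌋)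
          (fun l => Fr G T E fa fb u n (k0 n) l) (r := B.d n ^ τ) (w := 2 * B.d n ^ (s - 13 * ε))
          (hpow _) (by have := hpow (s - 13 * ε); positivity) (fun l hl l' hl' =>
            (hcl l' (Finset.mem_filter.1 hl').1 l (Finset.mem_filter.1 hl).1).2)
        refine b2.trans ?_
        have b3 : 2 * (2 * B.d n ^ (s - 13 * ε)) / B.d n ^ τ = 4 * B.d n ^ (s - τ - 13 * ε) := by
          rw [← e2]; ring
        rw [b3]
        linarith)
    have a2 := floor_card_le Qs (fun l => Nr G T E fa fb u n (k0 n) l) (r := B.d n ^ τ)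
      (w := B.d n ^ (τ - 3 * ε)) (hpow _) (hpow _).le (fun l hl l' hl' => (hnr l hl l' hl').2.2)
    have a3 : 2 * B.d n ^ (τ - 3 * ε) / B.d n ^ τ + 2 ≤ 4 * B.d n ^ (-(3 * ε)) := by
      rw [mul_div_assoc, e1]
      linarith
    have a4 : (cl G T E fa fb (B.d n ^ τ) n (k0 n) Qs : ℝ) ≤
        4 * B.d n ^ (-(3 * ε)) * (6 * B.d n ^ (s - τ - 13 * ε) * 36) :=
      a1.trans (mul_le_mul_of_nonneg_right (a2.trans a3)
        (by have := hpow (s - τ - 13 * ε); positivity))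
    refine a4.trans ?_
    have a5 : B.d n ^ (-(τ - s) - 17 * ε) =
        B.d n ^ (-ε) * (B.d n ^ (-(3 * ε)) * B.d n ^ (s - τ - 13 * ε)) := by
      rw [← rpow_add', ← rpow_add']; congr 1; ring
    rw [a5]
    have a6 : 0 < B.d n ^ (-(3 * ε)) * B.d n ^ (s - τ - 13 * ε) := mul_pos (hpow _) (hpow _)
    nlinarith
  -- lines with the same cell
  have hsame := h4 (k0 n) Qs hQsl (Fin 2 → ℤ)
    (fun l => gl (B.d n ^ τ) (Wc G T E fa fb n (k0 n) l)) (by
    intro l hl l' hl' heq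
    have hW : ∀ j, |Wc G T E fa fb n (k0 n) l' j - Wc G T E fa fb n (k0 n) l j| ≤ B.d n ^ τ := by
      intro j
      rw [abs_sub_comm]
      exact (abs_sub_lt_of_gl_eq (hpow τ) heq j).le
    obtain ⟨m1, m2, m3⟩ := hnr l' hl' l hl
    obtain ⟨v1, v2⟩ := hcl l hl l' hl'
    obtain ⟨hz, -, -, hE1, hfa1, hfb1⟩ := h8 l (k0 n) (hQI l hl)
    have p1 : B.d n ^ (τ - 3 * ε) ≤ B.d n ^ (s - 6 * ε) := rpow_anti B n (by linarith)
    have p2 : B.d n ^ (τ - 3 * ε) ≤ B.d n ^ (τ - 6 * ε) := rpow_anti B n (by linarith)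
    have p3 : B.d n ^ τ ≤ B.d n ^ (τ - 6 * ε) := rpow_anti B n (by linarith)
    have p4 := hpow (τ - 6 * ε)
    have p5 := hpow (s - 6 * ε)
    have he := eE_le hE1 hfa1 hfb1
    have hw := h6 (k0 n) l l' (hQI l hl) (hQI l' hl') (hnr l' hl' l hl) v1
    have d1 := h5 (k0 n) l l' (hQI l hl) (hQI l' hl') (fun _ => m1.trans (by linarith))
      (fun _ j => (hW j).trans (by linarith)) (fun _ => m2.trans (by linarith))
      (fun _ j => by
        unfold dE
        refine (abs_sub _ _).trans ?_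
        rw [abs_mul]
        have a1 := hw j
        have a2 := mul_le_mul (he j) m2 (abs_nonneg _) (by norm_num)
        linarith)
    have e : 2 * (6 * ε) = 12 * ε := by ring
    rwa [e] at d1)
  have hc : (cl G T E fa fb (B.d n ^ τ) n (k0 n) Qs : ℝ) ≤
      B.d n ^ (-(min κR (τ - s)) - 17 * ε) := by
    rcases le_total κR (τ - s) with h | h
    · rw [min_eq_left h]
      exact hc1.trans (rpow_anti B n (by linarith))
    · rw [min_eq_right h]
      exact hc2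
  have e1 : B.d n ^ (-(min κR (τ - s) + ν (qE τ τ τ s)) - (17 + 12 * D) * ε) =
      B.d n ^ (-(min κR (τ - s)) - 17 * ε) * B.d n ^ (-ν (qE τ τ τ s) - D * 12 * ε) := by
    rw [← rpow_add']; congr 1; ring
  rw [e1]
  exact hsame.trans (mul_le_mul_of_nonneg_right hc (hpow _).le)

end big

end Crest.Agent.R136.RgR210
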