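import Crest.Agent.R136.RgR3_210

/-!
# R136 (S0187): RIG_E, piece ROWS, part 4 (helper210): `rowsE`
-/

set_option autoImplicit false
set_option linter.unusedVariables false
set_option linter.unusedSectionVars false

open Filter Topology Finset

namespace Crest.Agent.R136.RgR210

open Crest.Agent.R136.Sh605
open Crest.Agent.R138.Ex926 (Base U)
open Crest.Agent.R136.Gf356
open Crest.Agent.R136.Wk323 (coA one_le_rpow_neg ev_mul_le)
open Crest.Agent.R136.RgN344
open Crest.Agent.R136.RgE344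

variable {B : Base} {G : ℕ → RCfg (Fin 11)} {Leg : Set (Fin 11 → ℝ)} {ν : (Fin 11 → ℝ) → ℝ}
  {D R x y m β : ℝ} {T : ℕ → ℕ → Ln4} {E fa fb : ℕ → ℕ → ℝ}
  {τ : ℝ} {u : ℕ → Fin 2 → ℝ} {μ c0 q0 : ℕ → ℝ} {i0 k0 : ℕ → ℕ} {Rm : ℕ → ℕ} {κR : ℝ}

/-- evolution of the coordinate along the row -/
theorem F_evo (H : RModel B G 1 R Leg ν D) (A : AbsE B G x T E fa fb)
    (Q : RowH B G T E fa fb τ u μ c0 q0) {ε : ℝ} (hε : 0 < ε) : ∀ᶠ n in (U : Filter ℕ),
      ∀ k ∈ (G n).Z, ∀ l ∈ rowS G T E fa fb u (B.d n ^ (τ - 2 * ε)) n (k0 n) (i0 n),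
      ∀ l' ∈ rowS G T E fa fb u (B.d n ^ (τ - 2 * ε)) n (k0 n) (i0 n),
      (l, k) ∈ (G n).I → (l', k) ∈ (G n).I →
      |Fr G T E fa fb u n k l - Fr G T E fa fb u n k l' -
        ((Fr G T E fa fb u n (k0 n) l - Fr G T E fa fb u n (k0 n) l') +
        ((G n).z k - (G n).z (k0 n)) * ((u n 0 * (T n l).v 0 - u n 1 * (T n l).v 2) -
          (u n 0 * (T n l').v 0 - u n 1 * (T n l').v 2)))| ≤ B.d n ^ (τ - 6 * ε) := by
  filter_upwards [S_pair (G := G) (T := T) (E := E) (fa := fa) (fb := fb) (u := u) (τ := τ)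
      (i0 := i0) (k0 := k0) hε, A.bd, ev_const_le B hε 20] with n h1 h2 h3 k hk l hl l' hl' hlk hl'k
  have hpow : ∀ t : ℝ, 0 < B.d n ^ t := fun t => rpos B n t
  obtain ⟨m1, m2, m3⟩ := h1 l hl l' hl'
  have hlk0 : (l, k0 n) ∈ (G n).I := H.memSlice.1 (mem_rowS.1 hl).1
  obtain ⟨hz, -, -, hE, hfa, hfb⟩ := h2 l k hlk
  obtain ⟨hz0, -, -, hE0, hfa0, hfb0⟩ := h2 l (k0 n) hlk0
  have he := eE_le hE hfa hfb
  have he0 := eE_le hE0 hfa0 hfb0
  have hg : ∀ k, (∀ j, |eE E fa fb n k j| ≤ 2) →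
      |u n 0 * eE E fa fb n k 1 - u n 1 * eE E fa fb n k 0| ≤ 4 := by
    intro k he
    refine (abs_sub _ _).trans ?_
    rw [abs_mul, abs_mul]
    have a1 := mul_le_mul (u_le (Q.hu n) 0) (he 1) (abs_nonneg _) (by norm_num)
    have a2 := mul_le_mul (u_le (Q.hu n) 1) (he 0) (abs_nonneg _) (by norm_num)
    linarith
  have hzz : |(G n).z k - (G n).z (k0 n)| ≤ 2 := by
    have a1 := abs_le.1 hz
    have a2 := abs_le.1 hz0
    rw [abs_le]
    constructor <;> linarith [a1.1, a1.2, a2.1, a2.2]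
  have e : Fr G T E fa fb u n k l - Fr G T E fa fb u n k l' -
        ((Fr G T E fa fb u n (k0 n) l - Fr G T E fa fb u n (k0 n) l') +
        ((G n).z k - (G n).z (k0 n)) * ((u n 0 * (T n l).v 0 - u n 1 * (T n l).v 2) -
          (u n 0 * (T n l').v 0 - u n 1 * (T n l').v 2))) =
      (u n 0 * eE E fa fb n (k0 n) 1 - u n 1 * eE E fa fb n (k0 n) 0) *
        (Xc G T n (k0 n) l - Xc G T n (k0 n) l') -
      (u n 0 * eE E fa fb n k 1 - u n 1 * eE E fa fb n k 0) *
        ((Xc G T n (k0 n) l - Xc G T n (k0 n) l') +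
          ((G n).z k - (G n).z (k0 n)) * ((T n l).v 1 - (T n l').v 1)) := by
    simp only [Fr, Wc, Xc, Ln4.pos, Matrix.cons_val_zero, Matrix.cons_val_one]
    ring
  rw [e]
  have b1 : |(u n 0 * eE E fa fb n (k0 n) 1 - u n 1 * eE E fa fb n (k0 n) 0) *
        (Xc G T n (k0 n) l - Xc G T n (k0 n) l')| ≤ 4 * B.d n ^ (τ - 3 * ε) := by
    rw [abs_mul]
    exact mul_le_mul (hg _ he0) m1 (abs_nonneg _) (by norm_num)
  have b2 : |(Xc G T n (k0 n) l - Xc G T n (k0 n) l') +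
      ((G n).z k - (G n).z (k0 n)) * ((T n l).v 1 - (T n l').v 1)| ≤
      3 * B.d n ^ (τ - 3 * ε) := by
    refine (abs_add_le _ _).trans ?_
    rw [abs_mul]
    have := mul_le_mul hzz m2 (abs_nonneg _) (by norm_num)
    linarith
  have b3 : |(u n 0 * eE E fa fb n k 1 - u n 1 * eE E fa fb n k 0) *
        ((Xc G T n (k0 n) l - Xc G T n (k0 n) l') +
          ((G n).z k - (G n).z (k0 n)) * ((T n l).v 1 - (T n l').v 1))| ≤
        4 * (3 * B.d n ^ (τ - 3 * ε)) := by
    rw [abs_mul]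
    exact mul_le_mul (hg _ he) b2 (abs_nonneg _) (by norm_num)
  refine (abs_sub _ _).trans ?_
  have b4 : B.d n ^ (-ε) * B.d n ^ (τ - 3 * ε) ≤ B.d n ^ (τ - 6 * ε) := by
    rw [← rpow_add']
    exact rpow_anti B n (by linarith)
  have b5 := hpow (τ - 3 * ε)
  nlinarith

/-- number of cells of the fibre at every height -/
theorem cells_all (H : RModel B G 1 R Leg ν D) (A : AbsE B G x T E fa fb)
    (P : ProfE Leg ν x y m β) (hτ : 0 < τ) (Q : RowH B G T E fa fb τ u μ c0 q0)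
    (hRm : ∀ n i k, (i, k) ∈ (G n).I →
      cl G T E fa fb (B.d n ^ τ) n k (rowS G T E fa fb u (B.d n ^ τ) n k i) ≤ Rm n)
    (hup : ∀ ε : ℝ, 0 < ε → ∀ᶠ n in (U : Filter ℕ), (Rm n : ℝ) ≤ B.d n ^ (-κR - ε))
    {ε : ℝ} (hε : 0 < ε) : ∀ᶠ n in (U : Filter ℕ), ∀ k ∈ (G n).Z,
      ((((rowS G T E fa fb u (B.d n ^ (τ - 2 * ε)) n (k0 n) (i0 n)).filter
        fun l => (l, k) ∈ (G n).I).image
          fun l => ⌊Fr G T E fa fb u n k l / B.d n ^ (τ - 6 * ε)⌋).card : ℝ) ≤
        1 * B.d n ^ (-κR - 15 * ε) := by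
  classical
  filter_upwards [S_pair (G := G) (T := T) (E := E) (fa := fa) (fb := fb) (u := u) (τ := τ)
      (i0 := i0) (k0 := k0) hε, nr_transport A Q (c := 3) (by norm_num) hε,
    wide_le (B := B) (τ := τ) (c := 4) (by norm_num) hε, hup ε hε, ev_const_le B hε 6]
    with n h1 h2 h3 h4 h5 k hk
  have hpow : ∀ t : ℝ, 0 < B.d n ^ t := fun t => rpos B n t
  set Sk := (rowS G T E fa fb u (B.d n ^ (τ - 2 * ε)) n (k0 n) (i0 n)).filter
        fun l => (l, k) ∈ (G n).I with hSk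
  have hSkI : ∀ l ∈ Sk, (l, k) ∈ (G n).I := fun l hl => (Finset.mem_filter.1 hl).2
  have hSkS : ∀ l ∈ Sk, l ∈ rowS G T E fa fb u (B.d n ^ (τ - 2 * ε)) n (k0 n) (i0 n) :=
    fun l hl => (Finset.mem_filter.1 hl).1
  have hSks : Sk ⊆ (G n).slice k := fun l hl => H.memSlice.2 (hSkI l hl)
  have hnr : ∀ l ∈ Sk, ∀ l' ∈ Sk, nr G T E fa fb u (B.d n ^ (τ - 4 * ε)) n k l l' := by
    intro l hl l' hl'
    have a1 := h2 (k0 n) k l l' (H.memSlice.1 (mem_rowS.1 (hSkS l hl)).1)
      (H.memSlice.1 (mem_rowS.1 (hSkS l' hl')).1) (hSkI l hl) (hSkI l' hl')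
      (h1 l (hSkS l hl) l' (hSkS l' hl'))
    have e : (3 + 1 : ℝ) * ε = 4 * ε := by ring
    rwa [e] at a1
  have hcl := cells_le_max (hpow τ) (hpow (τ - 4 * ε)).le (fun i hi => hRm n i k hi) Sk hSks
    hSkI hnr
  have hcl2 : (cl G T E fa fb (B.d n ^ τ) n k Sk : ℝ) ≤ B.d n ^ (-κR - 14 * ε) := by
    refine hcl.trans ((mul_le_mul h3 h4 (Nat.cast_nonneg _) (hpow _).le).trans ?_)
    rw [← rpow_add']
    exact rpow_anti B n (by linarith)
  have hF := image_card_le Sk (fun l => ⌊Fr G T E fa fb u n k l / B.d n ^ (τ - 6 * ε)⌋)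
    (fun l => gl (B.d n ^ τ) (Wc G T E fa fb n k l)) (M := 6) (by
      intro s hs
      have b1 := floor_card_le (Sk.filter fun l => gl (B.d n ^ τ) (Wc G T E fa fb n k l) =
          gl (B.d n ^ τ) (Wc G T E fa fb n k s)) (fun l => Fr G T E fa fb u n k l)
        (r := B.d n ^ (τ - 6 * ε)) (w := 2 * B.d n ^ τ) (hpow _)
        (by have := hpow τ; positivity) (by
          intro l hl l' hl'
          refine Fr_diff_le Q.hu fun j => ?_
          have c1 := (Finset.mem_filter.1 hl).2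
          have c2 := (Finset.mem_filter.1 hl').2
          exact (abs_sub_lt_of_gl_eq (hpow τ) (c1.trans c2.symm) j).le)
      refine b1.trans ?_
      have b2 : 2 * (2 * B.d n ^ τ) / B.d n ^ (τ - 6 * ε) ≤ 4 := by
        rw [div_le_iff₀ (hpow _)]
        have : B.d n ^ τ ≤ B.d n ^ (τ - 6 * ε) := rpow_anti B n (by linarith)
        linarith
      linarith)
  rw [one_mul]
  refine hF.trans ?_
  have e : B.d n ^ (-κR - 15 * ε) = B.d n ^ (-κR - 14 * ε) * B.d n ^ (-ε) := by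
    rw [← rpow_add']; congr 1; ring
  rw [e]
  exact mul_le_mul hcl2 h5 (by norm_num) (hpow _).le

/-- **full rows**: at the largest row the number of cells has exponent `≥ τ` -/
theorem row_ge (H : RModel B G 1 R Leg ν D) (hxR : x ≤ R) (A : AbsE B G x T E fa fb)
    (P : ProfE Leg ν x y m β) (hβ : 0 < β) (hτ : 0 < τ) (hτx : τ ≤ x)
    (Q : RowH B G T E fa fb τ u μ c0 q0)
    (hI0 : ∀ n, (i0 n, k0 n) ∈ (G n).I)
    (hRm : ∀ n i k, (i, k) ∈ (G n).I →
      cl G T E fa fb (B.d n ^ τ) n k (rowS G T E fa fb u (B.d n ^ τ) n k i) ≤ Rm n)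
    (hRm0 : ∀ n, Rm n = cl G T E fa fb (B.d n ^ τ) n (k0 n)
      (rowS G T E fa fb u (B.d n ^ τ) n (k0 n) (i0 n)))
    (hup : ∀ ε : ℝ, 0 < ε → ∀ᶠ n in (U : Filter ℕ), (Rm n : ℝ) ≤ B.d n ^ (-κR - ε))
    (hlo : ∀ ε : ℝ, 0 < ε → ∀ᶠ n in (U : Filter ℕ), B.d n ^ (-κR + ε) ≤ (Rm n : ℝ)) :
    τ ≤ κR := by
  classical
  have hD := H.D1
  have hx0 := P.x0.le
  have hstep : ∀ J : ℕ, 0 < J → τ - (τ / β + τ) / J ≤ κR := by
    intro J hJ
    have hJr : (0 : ℝ) < J := by exact_mod_cast hJ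
    obtain ⟨j, hj, hkey⟩ := kauf_exE B
      (fun ε n => rowS G T E fa fb u (B.d n ^ (τ - 2 * ε)) n (k0 n) (i0 n))
      (fun _ n => (G n).Z) (fun n k => (G n).z k - (G n).z (k0 n))
      (fun n l k => (l, k) ∈ (G n).I) (fun n l k => Fr G T E fa fb u n k l)
      (fun n l => Fr G T E fa fb u n (k0 n) l)
      (fun n l => u n 0 * (T n l).v 0 - u n 1 * (T n l).v 2)
      (x := τ) (σ := 1) (α := κR + ν (qE τ τ τ 0)) (κ := κR) (C := 6) (C2 := 17 + 12 * D) (C0 := 1)
      hτ (by norm_num) le_rfl (by norm_num) (by linarith) hJ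
      (fun j => min κR (τ - sc τ J j) + ν (qE τ τ τ (sc τ J j)))
      (fun ε hε => Filter.Eventually.of_forall fun n => Z_nonempty H.toRUnif n)
      (by
        intro ε hε
        filter_upwards [slice_nonempty H, A.bd, ev_const_le B (t := 6 * ε) (by positivity) 2]
          with n h1 h2 h3 k hk
        obtain ⟨l, hl⟩ := h1 k hk
        have a1 := abs_le.1 (h2 l k (H.memSlice.1 hl)).1
        have a2 := abs_le.1 (h2 (i0 n) (k0 n) (hI0 n)).1
        refine le_trans ?_ h3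
        rw [abs_le]
        constructor <;> linarith [a1.1, a1.2, a2.1, a2.2])
      (by
        intro ε hε
        filter_upwards [F_evo H A Q (i0 := i0) (k0 := k0) hε] with n h1 k hk l hl l' hl' hlk hl'k
        exact h1 k hk l hl l' hl' hlk hl'k)
      (fun ε hε => S_lower H A P hτ hτx Q hI0 hRm0 hlo hε)
      (by
        intro ε hε
        filter_upwards [cells_all H A P hτ Q hRm hup (i0 := i0) (k0 := k0) hε] with n h1 k hk
        refine (h1 k hk).trans ?_
        rw [one_mul, one_mul]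
        exact rpow_anti B n (by nlinarith))
      (by
        intro ε hε
        filter_upwards [H.line ε hε] with n h1 l hl
        refine le_trans ?_ (h1 l (H.memL (H.memSlice.1 (mem_rowS.1 hl).1)))
        exact mul_le_mul_of_nonneg_right (rpow_anti B n (by linarith)) (Nat.cast_nonneg _))
      (by
        intro ε hε
        filter_upwards [A.bd, ev_const_le B (t := 6 * ε) (by positivity) 4] with n h2 h3
          l hl l' hl'
        have b1 := (h2 l (k0 n) (H.memSlice.1 (mem_rowS.1 hl).1)).2.2.1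
        have b2 := (h2 l' (k0 n) (H.memSlice.1 (mem_rowS.1 hl').1)).2.2.1
        have c1 := mul_le_mul (u_le (Q.hu n) 0) (b1 0) (abs_nonneg _) (by norm_num)
        have c2 := mul_le_mul (u_le (Q.hu n) 1) (b1 2) (abs_nonneg _) (by norm_num)
        have c3 := mul_le_mul (u_le (Q.hu n) 0) (b2 0) (abs_nonneg _) (by norm_num)
        have c4 := mul_le_mul (u_le (Q.hu n) 1) (b2 2) (abs_nonneg _) (by norm_num)
        rw [← abs_mul] at c1 c2 c3 c4
        have c1 := abs_le.1 c1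
        have c2 := abs_le.1 c2
        have c3 := abs_le.1 c3
        have c4 := abs_le.1 c4
        refine le_trans ?_ h3
        rw [abs_le]
        constructor <;> linarith [c1.1, c1.2, c2.1, c2.2, c3.1, c3.2, c4.1, c4.2])
      (by
        intro j hj ε hε
        filter_upwards [close_le H A P hτ hτx Q hI0 hRm hup (s := sc τ J j) (sc_nonneg hτ.le J j)
          (sc_le hτ.le hJ hj) hε] with n h1 i hi
        refine h1 _ (Finset.filter_subset _ _) ?_
        intro l hl l' hl'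
        obtain ⟨-, a1, a2⟩ := Finset.mem_filter.1 hl
        obtain ⟨-, b1, b2⟩ := Finset.mem_filter.1 hl'
        have e : (2 * 6 + 1 : ℝ) * ε = 13 * ε := by ring
        rw [e] at a2 b2
        have a1 := abs_le.1 a1
        have a2 := abs_le.1 a2
        have b1 := abs_le.1 b1
        have b2 := abs_le.1 b2
        constructor <;> rw [abs_le] <;> constructor <;>
          linarith [a1.1, a1.2, a2.1, a2.2, b1.1, b1.2, b2.1, b2.2])
      (by
        intro y' hy0 hyτ ε hε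
        by_cases hle : ε ≤ y'
        · filter_upwards [H.frost (y' - ε) (by linarith) (by linarith) ε hε] with n h1 k hk
          have b1 := h1 k hk
          unfold RCfg.hbox at b1
          rw [H.base n] at b1
          have e : (((G n).Z.filter fun k' => |((G n).z k' - (G n).z (k0 n)) -
              ((G n).z k - (G n).z (k0 n))| ≤ B.d n ^ (y' - ε)).card : ℝ) ≤
              B.d n ^ (1 * (y' - ε) - ε) * ((G n).Z.card : ℝ) := by
            refine le_trans ?_ b1
            refine mod_cast Finset.card_le_card ?_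
            intro k' hk'
            obtain ⟨c1, c2⟩ := Finset.mem_filter.1 hk'
            refine Finset.mem_filter.2 ⟨c1, ?_⟩
            have e2 : ((G n).z k' - (G n).z (k0 n)) - ((G n).z k - (G n).z (k0 n)) =
              (G n).z k' - (G n).z k := by ring
            rwa [e2] at c2
          refine e.trans (mul_le_mul_of_nonneg_right (rpow_anti B n ?_) (Nat.cast_nonneg _))
          nlinarith
        · rw [not_le] at hle
          refine Filter.Eventually.of_forall fun n k hk => ?_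
          have b3 : (((G n).Z.filter fun k' => |((G n).z k' - (G n).z (k0 n)) -
              ((G n).z k - (G n).z (k0 n))| ≤ B.d n ^ (y' - ε)).card : ℝ) ≤ (G n).Z.card := by
            exact_mod_cast Finset.card_le_card (Finset.filter_subset _ _)
          refine b3.trans ?_
          have b4 : (1 : ℝ) ≤ B.d n ^ (1 * y' - (17 + 12 * D) * ε) := by
            apply Real.one_le_rpow_of_pos_of_le_one_of_nonpos (B.pos n) (B.lt n).le
            nlinarith
          nlinarith [(Nat.cast_nonneg (G n).Z.card : (0 : ℝ) ≤ _)])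
    have hs0 := sc_nonneg hτ.le J j
    have hsτ := sc_le hτ.le hJ hj
    rw [P.form τ τ τ 0 le_rfl hτ.le hτx hτ.le hτx hτ.le hτx,
      P.form τ τ τ (sc τ J j) hs0 hsτ hτx hτ.le hτx hτ.le hτx, sc_succ τ hJ j] at hkey
    have h1 : β * sc τ J j + (τ - sc τ J j - τ / J) ≤ min κR (τ - sc τ J j) := by linarith
    have h2 := h1.trans (min_le_left _ _)
    have h3 := h1.trans (min_le_right _ _)
    have h4 : sc τ J j ≤ τ / J / β := by
      rw [le_div_iff₀ hβ]
      linarith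
    have h5 : (τ / β + τ) / J = τ / J / β + τ / J := by
      rw [add_div, div_right_comm]
    have h6 : 0 ≤ β * sc τ J j := mul_nonneg hβ.le hs0
    rw [h5]
    linarith
  by_contra hcon
  rw [not_le] at hcon
  have hg : 0 < τ - κR := by linarith
  obtain ⟨J, hJ⟩ := exists_nat_gt ((τ / β + τ) / (τ - κR))
  have hpos : 0 < τ / β + τ := by positivity
  have hJ0 : (0 : ℝ) < J := lt_trans (by positivity) hJ
  have hJn : 0 < J := by exact_mod_cast hJ0
  have h1 := hstep J hJn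
  have h2 : (τ / β + τ) / J < τ - κR := by
    rw [div_lt_iff₀ hJ0]
    have := (div_lt_iff₀ hg).1 hJ
    linarith
  linarith

/-- **ROWS** (literal of helper344) -/
theorem rowsE (H : RModel B G 1 R Leg ν D) (hxR : x ≤ R) (A : AbsE B G x T E fa fb)
    (P : ProfE Leg ν x y m β) (hβ : 0 < β) {τ : ℝ} (hτ : 0 < τ) (hτx : τ ≤ x)
    (u : ℕ → Fin 2 → ℝ) (hu : ∀ n, u n 0 ^ 2 + u n 1 ^ 2 = 1) (μ c0 q0 : ℕ → ℝ)
    (hrel : ∀ ε : ℝ, 0 < ε → ∀ᶠ n in (U : Filter ℕ), ∀ l k, (l, k) ∈ (G n).I →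
      |u n 0 * eE E fa fb n k 0 + u n 1 * eE E fa fb n k 1 - μ n * (G n).z k - c0 n| ≤
        B.d n ^ (τ - ε) ∧
      |u n 0 * wE T n l 0 + u n 1 * wE T n l 1 + μ n * (T n l).p 1 - c0 n * (T n l).v 1 -
        q0 n| ≤ B.d n ^ (τ - ε))
    (hμ : ∀ ε : ℝ, 0 < ε → ∀ᶠ n in (U : Filter ℕ), |μ n| ≤ B.d n ^ (-ε)) :
    ∀ ε : ℝ, 0 < ε → ∀ᶠ n in (U : Filter ℕ), |μ n| ≤ B.d n ^ ((2 - y) * τ - ε) := by
  classical
  intro ε0 hε0
  have hD := H.D1
  have hx0 := P.x0
  have hR0 : 0 < R := lt_of_lt_of_le hx0 hxR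
  have hy2 := P.y2
  have hy0 := P.y0
  have Q : RowH B G T E fa fb τ u μ c0 q0 := ⟨hu, hrel, hμ⟩
  by_cases hbig : (2 - y) * τ < ε0
  · filter_upwards [hμ (ε0 - (2 - y) * τ) (by linarith)] with n hn
    have e : -(ε0 - (2 - y) * τ) = (2 - y) * τ - ε0 := by ring
    rwa [e] at hn
  rw [not_lt] at hbig
  rcases Crest.Agent.R138.Ex926.ev_em (fun n => |μ n| ≤ B.d n ^ ((2 - y) * τ - ε0)) with h | h
  · exact h
  exfalso
  -- the exponent `a`
  set a := max 0 ((y - 1) * τ + ε0) with ha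
  have ha0 : 0 ≤ a := le_max_left _ _
  have ha1 : (y - 1) * τ + ε0 ≤ a := le_max_right _ _
  have haτ : a ≤ τ := max_le hτ.le (by nlinarith)
  have hμa : 0 < a → ∀ᶠ n in (U : Filter ℕ), B.d n ^ (τ - a) ≤ |μ n| := by
    intro hpos
    have e : τ - a = (2 - y) * τ - ε0 := by
      have : a = (y - 1) * τ + ε0 := by
        rcases max_choice 0 ((y - 1) * τ + ε0) with h | h
        · rw [ha, h] at hpos
          exact absurd hpos (lt_irrefl _)
        · rw [ha, h]
      rw [this]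
      ring
    rw [e]
    filter_upwards [h] with n hn
    exact (not_le.1 hn).le
  -- the largest row
  have hmax : ∀ n, ∃ q : ℕ × ℕ, q ∈ (G n).I ∧ ∀ q' ∈ (G n).I,
      cl G T E fa fb (B.d n ^ τ) n q'.2 (rowS G T E fa fb u (B.d n ^ τ) n q'.2 q'.1) ≤
        cl G T E fa fb (B.d n ^ τ) n q.2 (rowS G T E fa fb u (B.d n ^ τ) n q.2 q.1) := by
    intro n
    obtain ⟨q, hq, hq2⟩ := Finset.exists_max_image (G n).I (fun q =>
      cl G T E fa fb (B.d n ^ τ) n q.2 (rowS G T E fa fb u (B.d n ^ τ) n q.2 q.1)) (H.nonempty n)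
    exact ⟨q, hq, hq2⟩
  choose q hq hq2 using hmax
  set Rm : ℕ → ℕ := fun n =>
    cl G T E fa fb (B.d n ^ τ) n (q n).2 (rowS G T E fa fb u (B.d n ^ τ) n (q n).2 (q n).1) with hRm
  have hI0 : ∀ n, ((q n).1, (q n).2) ∈ (G n).I := fun n => hq n
  have hRm1 : ∀ n, 1 ≤ Rm n := by
    intro n
    have h1 : (q n).1 ∈ rowS G T E fa fb u (B.d n ^ τ) n (q n).2 (q n).1 := by
      refine mem_rowS.2 ⟨H.memSlice.2 (hI0 n), ?_, ?_, ?_⟩ <;> rw [sub_self, abs_zero] <;>
        exact (rpos B n τ).le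
    simp only [hRm]
    unfold cl
    exact Finset.card_pos.2 ⟨_, Finset.mem_image_of_mem _ h1⟩
  -- the upper bound
  set CA := 4 * D ^ 2 + 12 * D + 14 with hCA
  have hCA0 : 0 < CA := by positivity
  set ε := min (ε0 / (2 * CA)) (R / 3) with hε
  have hεpos : 0 < ε := lt_min (by positivity) (by positivity)
  have hεR : 3 * ε ≤ R := by
    have := min_le_right (ε0 / (2 * CA)) (R / 3)
    linarith
  have hεC : CA * ε ≤ ε0 / 2 := by
    have h1 := min_le_left (ε0 / (2 * CA)) (R / 3)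
    have h2 : CA * (ε0 / (2 * CA)) = ε0 / 2 := by field_simp
    rw [← h2]
    exact mul_le_mul_of_nonneg_left h1 hCA0.le
  have hUp : ∀ᶠ n in (U : Filter ℕ), (Rm n : ℝ) ≤ B.d n ^ (-(τ - ε0 / 2)) := by
    filter_upwards [row_le H A P hτ hτx Q ha0 haτ hμa hεpos hεR] with n h1
    refine (h1 (q n).2 (q n).1 (hI0 n)).trans (rpow_anti B n ?_)
    nlinarith
  have hLow : ∀ᶠ n in (U : Filter ℕ), (1 : ℝ) ≤ (Rm n : ℝ) :=
    Filter.Eventually.of_forall fun n => by exact_mod_cast hRm1 n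
  have hPB : B.PB (fun n => (Rm n : ℝ)) := by
    refine Base.PB.of_bounds (C := τ) ?_ ?_
    · filter_upwards [hLow] with n hn
      refine le_trans ?_ hn
      exact Real.rpow_le_one (B.pos n).le (B.lt n).le hτ.le
    · filter_upwards [hUp] with n hn
      exact hn.trans (rpow_anti B n (by linarith))
  set κR := B.ex (fun n => (Rm n : ℝ)) with hκR
  have hup : ∀ ε : ℝ, 0 < ε → ∀ᶠ n in (U : Filter ℕ), (Rm n : ℝ) ≤ B.d n ^ (-κR - ε) := by
    intro ε hε
    have := Base.ex_lt_iff_dpow hPB (a := κR + ε) (by linarith)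
    filter_upwards [this] with n hn
    have e : -(κR + ε) = -κR - ε := by ring
    rw [e] at hn
    exact hn.le
  have hlo : ∀ ε : ℝ, 0 < ε → ∀ᶠ n in (U : Filter ℕ), B.d n ^ (-κR + ε) ≤ (Rm n : ℝ) := by
    intro ε hε
    have := Base.lt_ex_dpow hPB (a := κR - ε) (by linarith)
    filter_upwards [this] with n hn
    have e : -(κR - ε) = -κR + ε := by ring
    rw [e] at hn
    exact hn.le
  have hge := row_ge H hxR A P hβ hτ hτx Q (i0 := fun n => (q n).1) (k0 := fun n => (q n).2)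
    (Rm := Rm) (κR := κR) hI0 (fun n i k hik => hq2 n (i, k) hik) (fun n => rfl) hup hlo
  have hle : κR ≤ τ - ε0 / 2 := by
    have := Base.ex_lt_of_dpow_of_le hPB hUp
    exact this
  linarith

end Crest.Agent.R136.RgR210
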