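import Crest.Agent.R136.Aw2_413
import Crest.Agent.R136.Net2b_191

/-!
# R136 (helper480): a slot with vanishing coordinate is invisible

* `nu_slot` : the chart coordinate of the slot `j` vanishes on `I` ⊢ the profile does not depend on
  the slot `j`;
* `tan_slot` : the same for tangents (`IsTan`), also for tangents of tangents.
-/

set_option autoImplicit false
set_option linter.unusedSectionVars false
set_option linter.unusedVariables false

open Filter Topology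

namespace Crest.Agent.R136.Rgl480

open Finset Crest.Agent.R138.Ex926 Crest.Agent.R136.Net191 Crest.Agent.R136.Gf356
open Crest.Agent.R136.Qg926

variable {m : ℕ} {ι : ℕ → Type*} [∀ n, DecidableEq (ι n)]

/-- the relation `Near` does not see the slot `j` -/
theorem near_slot {ι : Type*} {I : Finset ι} {co : ι → ι → Fin m → ℝ} {d K : ℝ} (hd : 0 < d)
    (hK : 0 ≤ K) {j : Fin m} (h0 : ∀ a ∈ I, ∀ b ∈ I, co a b j = 0) {p q : Fin m → ℝ}
    (hpq : ∀ i, i ≠ j → p i = q i) {a b : ι} (ha : a ∈ I) (hb : b ∈ I)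
    (h : Near co d p K a b) : Near co d q K a b := by
  intro k
  by_cases hk : k = j
  · subst hk
    rw [h0 a ha b hb, abs_zero]
    exact mul_nonneg hK (Real.rpow_nonneg hd.le _)
  · rw [← hpq k hk]
    exact h k

/-- one half -/
theorem nu_slot_le {B : Base} {I J : ∀ n, Finset (ι n)} {co : ∀ n, ι n → ι n → Fin m → ℝ}
    {M : Mons m} {C : ℝ} {P : Set (Fin m → ℝ)} {ν : (Fin m → ℝ) → ℝ}
    (h : ∀ n, Chart (I n) (co n) M C) (hP : ∀ p ∈ P, Legal M p)
    (hsub : ∀ᶠ n in (U : Filter ℕ), J n ⊆ I n) (hne : ∀ᶠ n in (U : Filter ℕ), (J n).Nonempty)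
    (hν : QProf B J (nlab B I co M C) P ν) {j : Fin m}
    (h0 : ∀ n, ∀ a ∈ I n, ∀ b ∈ I n, co n a b j = 0) {p q : Fin m → ℝ} (hp : p ∈ P) (hq : q ∈ P)
    (hpq : ∀ i, i ≠ j → p i = q i) : ν p ≤ ν q := by
  classical
  have hK : 1 ≤ cK0 M C := cK0_one (h 0).C0
  refine le_of_forall_pos_le_add fun ε hε => ?_
  have hε2 : 0 < ε / 2 := by positivity
  obtain ⟨n, h1, h2, h3, h4⟩ := ((hν.ev_big hne hε2).and
    ((prof_near_up h hP hsub hν hK hε2).and (hsub.and hne))).exists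
  obtain ⟨i, hi, hbig⟩ := h1 p hp
  have hsub' : cls (J n) (nlab B I co M C n p) i ⊆
      (J n).filter fun l => Near (co n) (B.d n) q (cK0 M C) i l := by
    intro l hl
    obtain ⟨hlJ, hli⟩ := mem_cls.1 hl
    rw [mem_filter]
    exact ⟨hlJ, near_slot (B.pos n) (by linarith) (h0 n) hpq (h3 hi) (h3 hlJ)
      (near_of_nlab h (hP p hp) (h3 hi) (h3 hlJ) hli.symm)⟩
  have h5 := h2 q hq i (h3 hi)
  have h6 : ((cls (J n) (nlab B I co M C n p) i).card : ℝ) ≤ B.d n ^ (-(ν q + ε / 2)) := by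
    refine le_trans ?_ h5
    exact_mod_cast card_le_card hsub'
  have hA1 : (1 : ℝ) ≤ (cls (J n) (nlab B I co M C n p) i).card := cls_card_pos hi
  rw [← B.exp_eq] at h6
  have e2 := Real.log_le_log (by linarith) h6
  rw [Real.log_exp] at e2
  have hL := B.L_pos n
  have e3 : ν p * B.L n ≤ (ν q + ε) * B.L n := by nlinarith
  exact le_of_mul_le_mul_right e3 hL

/-- **a slot with vanishing coordinate is invisible** -/
theorem nu_slot {B : Base} {I J : ∀ n, Finset (ι n)} {co : ∀ n, ι n → ι n → Fin m → ℝ}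
    {M : Mons m} {C R : ℝ} {ν : (Fin m → ℝ) → ℝ} (h : NProf B I J co M C R ν) {j : Fin m}
    (h0 : ∀ n, ∀ a ∈ I n, ∀ b ∈ I n, co n a b j = 0) {p q : Fin m → ℝ} (hp : p ∈ Leg M R)
    (hq : q ∈ Leg M R) (hpq : ∀ i, i ≠ j → p i = q i) : ν p = ν q :=
  le_antisymm
    (nu_slot_le h.chart (fun p hp => hp.1) h.sub h.ne h.prof h0 hp hq hpq)
    (nu_slot_le h.chart (fun p hp => hp.1) h.sub h.ne h.prof h0 hq hp
      fun i hi => (hpq i hi).symm)

/-- **the same for tangents**: `ν` does not see `j` on `P` ⊢ `lam` does not see `j` -/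
theorem tan_slot {P L : Set (Fin m → ℝ)} {ν lam : (Fin m → ℝ) → ℝ} {x : ℕ → Fin m → ℝ}
    {k : ℕ → ℝ} (hk : ∀ l, 0 < k l) (ht : IsTan P L ν x k lam) {j : Fin m}
    (hν : ∀ p ∈ P, ∀ q ∈ P, (∀ i, i ≠ j → p i = q i) → ν p = ν q) {c c' : Fin m → ℝ}
    (hc : c ∈ L) (hc' : c' ∈ L) (hcc : ∀ i, i ≠ j → c i = c' i) : lam c = lam c' := by
  have key : ∀ d ∈ L, ∀ d' ∈ L, (∀ i, i ≠ j → d i = d' i) → lam d ≤ lam d' := by
    intro d hd d' hd' hdd
    refine le_of_forall_pos_le_add fun ε hε => ?_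
    obtain ⟨l, ⟨m1, h1⟩, ⟨m2, h2⟩⟩ := ((ht.ev hd (ε := ε / 2) (by positivity)).and
      (ht.ev hd' (ε := ε / 2) (by positivity))).exists
    have h3 := hν _ m1 _ m2 fun i hi => by
      simp only [Pi.add_apply, Pi.smul_apply, smul_eq_mul]
      rw [hdd i hi]
    have hkl := hk l
    rw [abs_le] at h1 h2
    rw [h3] at h1
    have h4 : k l * lam d ≤ k l * (lam d' + ε) := by nlinarith [h1.1, h1.2, h2.1, h2.2]
    exact le_of_mul_le_mul_left h4 hkl
  exact le_antisymm (key c hc c' hc' hcc) (key c' hc' c hc fun i hi => (hcc i hi).symm)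

end Crest.Agent.R136.Rgl480
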