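import Crest.Agent.R136.Ev6_356

/-!
# R136: evolution of 926's windows in 186's chart, STRAIGHT charts (helper501)

Copy of the last steps of helper356's `Ev3`, `Ev5`, `Ev6` for straight charts (`y2 = 0`): slot `1`
(`R`) is identically zero, so nothing is asked of `W.top 1`.
-/

set_option autoImplicit false
set_option linter.unusedSectionVars false
set_option linter.unusedVariables false

open Filter Topology

namespace Crest.Agent.R136.Rgl501

open Finset Crest.Agent.R136.NetQ186 Crest.Agent.R136.Net191 Crest.Agent.R136.Qg926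
open Crest.Agent.R136.Gf356 Crest.Agent.R136.Ev356 Crest.Agent.R136.Ev356.QWnd
open Crest.Agent.R138.Ex926 (Base U)

variable {ι : ℕ → Type*} [∀ n, DecidableEq (ι n)]

/-- straight chart -/
def StrQ (W : Wnd 11 ι) (f : ∀ n, ι n → Fq4) : Prop := ∀ n, ∀ i ∈ W.I n, (f n i).y2 = 0

variable {W : Wnd 11 ι} {f : ∀ n, ι n → Fq4}

section

variable (h : QWnd W f) (hst : StrQ W f)

include h

theorem one_notMem : (1 : Fin 11) ∉ W.S := h.notMem (by simp)

theorem ne_one {s : Fin 11} (hs : s ∈ W.S) : s ≠ 1 := fun e => one_notMem h (e ▸ hs)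

theorem crd_levS {n : ℕ} (g : W.Good n) {x y : ι n} (hx : x ∈ W.Cl n) (hy : y ∈ W.Cl n)
    (hl : W.zc n x = W.zc n y) {t : ℝ} {s : Fin 11} (hs : s ∈ W.S)
    (ht : ∀ s, s ≠ 1 → t ≤ W.top s) :
    |W.crd n x y s| ≤ (W.K0 / W.kap s) * W.B'.d n ^ t :=
  h.crd_lev g hx hy hl hs (ht s (ne_one h hs))

theorem own_addS {n : ℕ} (g : W.Good n) {x x' z z' : ι n} (hx : x ∈ W.Cl n) (hx' : x' ∈ W.Cl n)
    (hz : z ∈ W.Cl n) (hz' : z' ∈ W.Cl n) (hl : W.zc n x = W.zc n z)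
    (hl' : W.zc n x' = W.zc n z') {t : ℝ} {s : Fin 11} (hs : s ∈ W.S)
    (hs' : s = 0 ∨ s = 2 ∨ s = 3) (ht : ∀ s, s ≠ 1 → t ≤ W.top s) :
    |W.crd n x x' s - W.crd n z z' s| ≤ (2 * W.K0 / W.kap s) * W.B'.d n ^ t :=
  h.own_add g hx hx' hz hz' hl hl' hs hs' (ht s (ne_one h hs))

include hst

theorem co_one {n : ℕ} (g : W.Good n) {x y : ι n} (hx : x ∈ W.Cl n) (hy : y ∈ W.Cl n) :
    coQ (f n x) (f n y) 1 = 0 := by
  have h1 := hst n x (g.clI hx)
  have h2 := hst n y (g.clI hy)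
  simp [coQ, h1, h2]

theorem crd_one {n : ℕ} (g : W.Good n) {x y : ι n} (hx : x ∈ W.Cl n) (hy : y ∈ W.Cl n) :
    W.crd n x y 1 = 0 := by
  have h1 := h.crd_eq g hx hy 1
  rw [co_one h hst g hx hy] at h1
  rcases mul_eq_zero.1 h1.symm with h2 | h2
  · exact absurd h2 (h.un_pos n 1).ne'
  · exact h2

theorem own_smallS {n : ℕ} (g : W.Good n) {x x' : ι n} (hx : x ∈ W.Cl n) (hx' : x' ∈ W.Cl n)
    (hl : W.lc n x = W.lc n x') {t : ℝ} {s : Fin 11} (hs : s ∉ W.S)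
    (ht : ∀ s, s ≠ 1 → t ≤ W.top s) :
    |coQ (f n x) (f n x') s| ≤ (W.K0 * W.B'.d n ^ t) * W.B.d n ^ W.X n s := by
  by_cases h1 : s = 1
  · subst h1
    rw [co_one h hst g hx hx', abs_zero]
    exact mul_nonneg (mul_nonneg (by linarith [h.ok.K0_one])
      (Real.rpow_nonneg (W.B'.pos n).le _)) (Real.rpow_nonneg (W.B.pos n).le _)
  · exact h.own_small g hx hx' hl hs (ht s h1)

theorem crd_ownS {n : ℕ} (g : W.Good n) {x y : ι n} (hx : x ∈ W.Cl n) (hy : y ∈ W.Cl n)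
    (hl : W.lc n x = W.lc n y) {t : ℝ} {s : Fin 11} (hs : s ∉ W.S)
    (ht : ∀ s, s ≠ 1 → t ≤ W.top s) :
    |W.crd n x y s| ≤ (W.K0 / W.kap s) * W.B'.d n ^ t := by
  by_cases h1 : s = 1
  · subst h1
    rw [crd_one h hst g hx hy, abs_zero]
    exact mul_nonneg (div_nonneg (by linarith [h.ok.K0_one]) (h.ok.kap 1).le)
      (Real.rpow_nonneg (W.B'.pos n).le _)
  · exact h.crd_own g hx hy hl hs (ht s h1)

/-- evolution in the window -/
theorem evoWS {n : ℕ} (g : W.Good n) {x x' y y' : ι n} (hx : x ∈ W.Cl n) (hx' : x' ∈ W.Cl n)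
    (hy : y ∈ W.Cl n) (hy' : y' ∈ W.Cl n) (hl : W.lc n x = W.lc n x') (hl' : W.lc n y = W.lc n y')
    {t : ℝ} (ht : ∀ s, s ≠ 1 → t ≤ W.top s)
    (s : Fin 11) (hs : s = 1 ∨ s = 5 ∨ s = 6 ∨ s = 7 ∨ s = 8 ∨ s = 9 ∨ s = 10) :
    |W.crd n x' y' s - evoN W n (W.crd n x x') (W.crd n x y) s| ≤
      (100 * W.K0 ^ 4 / W.kap s) * W.B'.d n ^ t := by
  have h1 := evo_fat (x := f n x) (x' := f n x') (y := f n y) (y' := f n y') (h.sides g)
    h.ok.K0_one (Real.rpow_nonneg (W.B'.pos n).le t) (h.bnd g hx hx') (h.bnd g hx hy)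
    (fun s hs => own_smallS h hst g hx hx' hl (h.notMem hs) ht)
    (fun s hs => own_smallS h hst g hy hy' hl' (h.notMem hs) ht) s hs
  have hu : ∀ s, un W n s ≠ 0 := fun s => (h.un_pos n s).ne'
  have key : coQ (f n x') (f n y') s - evoRHS (coQ (f n x) (f n x')) (coQ (f n x) (f n y)) s =
      un W n s * (W.crd n x' y' s - evoN W n (W.crd n x x') (W.crd n x y) s) := by
    have ea : ∀ s, coQ (f n x) (f n x') s = un W n s * W.crd n x x' s := h.crd_eq g hx hx'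
    have eb : ∀ s, coQ (f n x) (f n y) s = un W n s * W.crd n x y s := h.crd_eq g hx hy
    have ee : ∀ s, coQ (f n x') (f n y') s = un W n s * W.crd n x' y' s := h.crd_eq g hx' hy'
    rcases hs with rfl | rfl | rfl | rfl | rfl | rfl | rfl
    · simp only [evoRHS, evoN, ee, ea, eb, Matrix.cons_val]
      ring
    · simp only [evoRHS, evoN, ee, ea, eb, Matrix.cons_val]
      ring
    · simp only [evoRHS, evoN, ee, ea, eb, Matrix.cons_val, cf]
      have := hu 6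
      field_simp
    · simp only [evoRHS, evoN, ee, ea, eb, Matrix.cons_val, cf]
      have := hu 7
      field_simp
    · simp only [evoRHS, evoN, ee, ea, eb, Matrix.cons_val, cf]
      have := hu 8
      field_simp
    · simp only [evoRHS, evoN, ee, ea, eb, Matrix.cons_val, cf]
      have := hu 8
      have := hu 9
      field_simp
    · simp only [evoRHS, evoN, ee, ea, eb, Matrix.cons_val, cf]
      have := hu 7
      have := hu 8
      have := hu 9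
      have := hu 10
      field_simp
  rw [key, abs_mul, abs_of_pos (h.un_pos n s)] at h1
  have hk := h.ok.kap s
  have hd := Real.rpow_pos_of_pos (W.B.pos n) (W.X n s)
  rw [div_mul_eq_mul_div, le_div_iff₀ hk]
  unfold un at h1
  refine le_of_mul_le_mul_left (le_trans (le_of_eq ?_) (h1.trans (le_of_eq ?_))) hd
  · ring
  · ring

/-- own motion is a function of the heights -/
theorem own_apS {n : ℕ} (g : W.Good n) {x x' : ι n} (hx : x ∈ W.Cl n)
    (hx' : x' ∈ W.Cl n) (hl : W.lc n x = W.lc n x') {t : ℝ} (ht : ∀ s, s ≠ 1 → t ≤ W.top s) (s : Fin 11) :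
    Ap (W.B'.d n ^ t) (20 * MW W ^ 3) (14 * MW W ^ 3)
      (W.crd n (W.rep n (W.lc n x) (W.zc n x)) (W.rep n (W.lc n x) (W.zc n x')) s)
      (own W n (W.zc n x) (W.zc n x') (fsl W n (W.lc n x) (W.zc n x) 2)
        (fsl W n (W.lc n x) (W.zc n x) 3) s) := by
  obtain ⟨a1, a2, a3⟩ := W.rep_spec hx
  obtain ⟨a1', a2', a3'⟩ := W.rep_spec hx'
  rw [← hl] at a1' a2' a3'
  obtain ⟨c1, c2⟩ := W.zrep_spec hx
  obtain ⟨c1', c2'⟩ := W.zrep_spec hx'
  set i := W.lc n x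
  set k₀ := W.zc n x
  set k := W.zc n x'
  set r := W.rep n i k₀
  set r' := W.rep n i k
  set z := W.zrep n k₀
  set z' := W.zrep n k
  set M := MW W with hM
  set η := W.B'.d n ^ t with hη
  have hη0 : 0 ≤ η := Real.rpow_nonneg (W.B'.pos n).le t
  have hM1 : 1 ≤ M := h.MW_one
  have M3 : M ≤ M ^ 3 := le_self_pow₀ hM1 (by norm_num)
  have M32 : M ^ 2 ≤ M ^ 3 := pow_le_pow_right₀ hM1 (by norm_num)
  have B : ∀ {u v : ι n}, u ∈ W.Cl n → v ∈ W.Cl n → ∀ s, |W.crd n u v s| ≤ M :=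
    fun hu hv s => h.crd_MW g hu hv s
  -- additive flags
  have hmot : ∀ s : Fin 11, s = 0 ∨ s = 2 ∨ s = 3 → Ap η M M (W.crd n r r' s) (mot W n k₀ k s) := by
    intro s hs
    unfold mot
    split_ifs with hsS
    · refine ⟨B a1 a1' s, B c1 c1' s, ?_⟩
      exact h.small_of2 (own_addS h g a1 a1' c1 c1' (a3.trans c2.symm) (a3'.trans c2'.symm) hsS hs
        ht)
    · refine ⟨B a1 a1' s, by rw [abs_zero]; linarith, ?_⟩
      rw [sub_zero]
      exact h.small_of (crd_ownS h hst g a1 a1' (a2.trans a2'.symm) hsS ht)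
  have hfsl : ∀ s : Fin 11, Ap η M M (W.crd n z r s) (fsl W n i k₀ s) := by
    intro s
    unfold fsl
    split_ifs with hsS
    · refine ⟨B c1 a1 s, by rw [abs_zero]; linarith, ?_⟩
      rw [sub_zero]
      exact h.small_of (crd_levS h g c1 a1 (c2.trans a3.symm) hsS ht)
    · refine ⟨B c1 a1 s, B c1 a1 s, ?_⟩
      rw [sub_self, abs_zero]
      exact mul_nonneg (by linarith) hη0
  by_cases hs4 : s = 4
  · subst hs4
    unfold own
    rw [if_pos rfl]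
    split_ifs with hS4
    · have e1 := h.crd_four g c1 a1 a1'
      have e2 := h.crd_four g c1 a1' c1'
      have e3 := h.crd_add g c1 a1 a1' (s := 2) (by simp)
      have e4 := h.crd_add g c1 a1 a1' (s := 3) (by simp)
      have e5 := h.crd_add g c1 a1' c1' (s := 3) (by simp)
      have l1 : Ap η M M (W.crd n z r 4) 0 := by
        refine ⟨B c1 a1 4, by rw [abs_zero]; linarith, ?_⟩
        rw [sub_zero]
        exact h.small_of (crd_levS h g c1 a1 (c2.trans a3.symm) hS4 ht)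
      have l2 : Ap η M M (W.crd n r' z' 4) 0 := by
        refine ⟨B a1' c1' 4, by rw [abs_zero]; linarith, ?_⟩
        rw [sub_zero]
        exact h.small_of (crd_levS h g a1' c1' (a3'.trans c2'.symm) hS4 ht)
      have hcf : |cf W n 2 3 4| ≤ M := (h.cfB g).2.2.2.2.2.2.2.2.2.2
      have key := (((Ap.const (η := η) hη0 (B c1 c1' 4)).sub l1).sub l2).add
        ((Ap.const (η := η) hη0 hcf).mul (((hfsl 2).mul (hmot 3 (by simp))).add
        (((hfsl 2).add (hmot 2 (by simp))).mul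
          (((Ap.const (η := η) hη0 (B c1 c1' 3)).sub (hfsl 3)).sub (hmot 3 (by simp))))))
      have ea : W.crd n z z' 4 - W.crd n z r 4 - W.crd n r' z' 4 + cf W n 2 3 4 *
          (W.crd n z r 2 * W.crd n r r' 3 + (W.crd n z r 2 + W.crd n r r' 2) *
            (W.crd n z z' 3 - W.crd n z r 3 - W.crd n r r' 3)) = W.crd n r r' 4 := by
        have e6 : W.crd n z z' 3 - W.crd n z r 3 - W.crd n r r' 3 = W.crd n r' z' 3 := by linarith
        rw [e6, ← e3]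
        linarith
      rw [ea, sub_zero, sub_zero] at key
      refine ⟨key.l.trans ?_, key.r.trans ?_, key.mono hη0 ?_⟩
      · nlinarith
      · nlinarith
      · nlinarith
    · refine ⟨(B a1 a1' 4).trans (by nlinarith), by rw [abs_zero]; positivity, ?_⟩
      rw [sub_zero]
      refine (h.small_of (crd_ownS h hst g a1 a1' (a2.trans a2'.symm) hS4 ht)).trans ?_
      exact mul_le_mul_of_nonneg_right (by nlinarith) hη0
  · unfold own
    rw [if_neg hs4]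
    by_cases hs : s = 0 ∨ s = 2 ∨ s = 3
    · have := hmot s hs
      refine ⟨this.l.trans (by nlinarith), this.r.trans (by nlinarith), this.mono hη0 (by nlinarith)⟩
    · have hsS : s ∉ W.S := by
        intro hm
        have := h.hS s hm
        tauto
      unfold mot
      rw [if_neg hsS]
      refine ⟨(B a1 a1' s).trans (by nlinarith), by rw [abs_zero]; positivity, ?_⟩
      rw [sub_zero]
      refine (h.small_of (crd_ownS h hst g a1 a1' (a2.trans a2'.symm) hsS ht)).trans ?_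
      exact mul_le_mul_of_nonneg_right (by nlinarith) hη0

/-- evolution of `rel`, slots `c, C_a, .., N` -/
theorem evoR00S {n : ℕ} (g : W.Good n) {E : Finset (ι n)} (hE : E ⊆ W.Cl n) {k₀ k i l : ℕ}
    (h1 : (i, k₀) ∈ (W.cfg0 n E).I) (h2 : (i, k) ∈ (W.cfg0 n E).I)
    (h3 : (l, k₀) ∈ (W.cfg0 n E).I) (h4 : (l, k) ∈ (W.cfg0 n E).I) {t : ℝ}
    (ht : ∀ s, s ≠ 1 → t ≤ W.top s) (s : Fin 11)
    (hs : s = 1 ∨ s = 5 ∨ s = 6 ∨ s = 7 ∨ s = 8 ∨ s = 9 ∨ s = 10) :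
    |(W.cfg0 n E).rel k i l s -
      evoN W n (own W n k₀ k (fsl W n i k₀ 2) (fsl W n i k₀ 3)) ((W.cfg0 n E).rel k₀ i l) s| ≤
      CE W * W.B'.d n ^ t := by
  obtain ⟨a1, a2, a3⟩ := rep_of_mem hE h1
  obtain ⟨b1, b2, b3⟩ := rep_of_mem hE h2
  obtain ⟨c1, c2, c3⟩ := rep_of_mem hE h3
  obtain ⟨d1, d2, d3⟩ := rep_of_mem hE h4
  have hM := h.MW_one
  have M3 : MW W ≤ MW W ^ 3 := le_self_pow₀ hM (by norm_num)
  have hη0 : 0 ≤ W.B'.d n ^ t := Real.rpow_nonneg (W.B'.pos n).le t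
  have e1 := evoWS h hst g a1 b1 c1 d1 (a2.trans b2.symm) (c2.trans d2.symm) ht s hs
  have hap : ∀ s, Ap (14 * MW W ^ 3 * W.B'.d n ^ t) (20 * MW W ^ 3) 1
      (W.crd n (W.rep n i k₀) (W.rep n i k) s)
      (own W n k₀ k (fsl W n i k₀ 2) (fsl W n i k₀ 3) s) := by
    intro s
    have := own_apS h hst g a1 b1 (a2.trans b2.symm) ht s
    rw [a2, a3, b3] at this
    exact ⟨this.l, this.r, by rw [one_mul]; exact this.d⟩
  have hbp : ∀ s, s = 1 ∨ s = 5 ∨ s = 6 ∨ s = 7 ∨ s = 8 ∨ s = 9 ∨ s = 10 →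
      Ap (14 * MW W ^ 3 * W.B'.d n ^ t) (20 * MW W ^ 3) 1
      (W.crd n (W.rep n i k₀) (W.rep n l k₀) s) ((W.cfg0 n E).rel k₀ i l s) := by
    intro s hs
    rw [rel_cfg0, if_neg (h.notMem hs)]
    have hb := h.crd_MW g a1 c1 s
    refine ⟨hb.trans (by linarith), hb.trans (by linarith), ?_⟩
    rw [sub_self, abs_zero]
    positivity
  have hcf : CfB W n (20 * MW W ^ 3) := by
    have hb : MW W ≤ 20 * MW W ^ 3 := by linarith
    obtain ⟨x1, x2, x3, x4, x5, x6, x7, x8, x9, x10, x11⟩ := h.cfB g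
    exact ⟨x1.trans hb, x2.trans hb, x3.trans hb, x4.trans hb, x5.trans hb, x6.trans hb,
      x7.trans hb, x8.trans hb, x9.trans hb, x10.trans hb, x11.trans hb⟩
  have e2 := evoN_lip (by linarith) (by positivity) hcf hap hbp s hs
  have e3 := (h.CE_le s).1
  rw [rel_cfg0, if_neg (h.notMem hs)]
  have e4 := abs_sub_le (W.crd n (W.rep n i k) (W.rep n l k) s)
    (evoN W n (W.crd n (W.rep n i k₀) (W.rep n i k)) (W.crd n (W.rep n i k₀) (W.rep n l k₀)) s)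
    (evoN W n (own W n k₀ k (fsl W n i k₀ 2) (fsl W n i k₀ 3)) ((W.cfg0 n E).rel k₀ i l) s)
  have e5 := mul_le_mul_of_nonneg_right e3 hη0
  linarith

/-- additive flags -/
theorem evoR23S {n : ℕ} (g : W.Good n) {E : Finset (ι n)} (hE : E ⊆ W.Cl n) {k₀ k i l : ℕ}
    (h1 : (i, k₀) ∈ (W.cfg0 n E).I) (h2 : (i, k) ∈ (W.cfg0 n E).I)
    (h3 : (l, k₀) ∈ (W.cfg0 n E).I) (h4 : (l, k) ∈ (W.cfg0 n E).I) {t : ℝ}
    (ht : ∀ s, s ≠ 1 → t ≤ W.top s) (s : Fin 11) (hs : s = 2 ∨ s = 3) (hsS : s ∉ W.S) :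
    |(W.cfg0 n E).rel k i l s - (W.cfg0 n E).rel k₀ i l s| ≤ (2 * MW W) * W.B'.d n ^ t := by
  obtain ⟨a1, a2, a3⟩ := rep_of_mem hE h1
  obtain ⟨b1, b2, b3⟩ := rep_of_mem hE h2
  obtain ⟨c1, c2, c3⟩ := rep_of_mem hE h3
  obtain ⟨d1, d2, d3⟩ := rep_of_mem hE h4
  have hs' : s = 0 ∨ s = 1 ∨ s = 2 ∨ s = 3 ∨ s = 5 := by tauto
  have e1 := h.crd_add g a1 b1 d1 hs'
  have e2 := h.crd_add g a1 c1 d1 hs'
  have e3 := h.small_of (crd_ownS h hst g a1 b1 (a2.trans b2.symm) hsS ht)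
  have e4 := h.small_of (crd_ownS h hst g c1 d1 (c2.trans d2.symm) hsS ht)
  rw [rel_cfg0, rel_cfg0, if_neg hsS, if_neg hsS]
  have e5 : W.crd n (W.rep n i k) (W.rep n l k) s - W.crd n (W.rep n i k₀) (W.rep n l k₀) s =
      W.crd n (W.rep n l k₀) (W.rep n l k) s - W.crd n (W.rep n i k₀) (W.rep n i k) s := by
    linarith
  rw [e5]
  have e6 := abs_sub (W.crd n (W.rep n l k₀) (W.rep n l k) s)
    (W.crd n (W.rep n i k₀) (W.rep n i k) s)
  linarith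

/-- the flag `F_a` -/
theorem evoR4S {n : ℕ} (g : W.Good n) {E : Finset (ι n)} (hE : E ⊆ W.Cl n) {k₀ k i l : ℕ}
    (h1 : (i, k₀) ∈ (W.cfg0 n E).I) (h2 : (i, k) ∈ (W.cfg0 n E).I)
    (h3 : (l, k₀) ∈ (W.cfg0 n E).I) (h4 : (l, k) ∈ (W.cfg0 n E).I) {t : ℝ}
    (ht : ∀ s, s ≠ 1 → t ≤ W.top s) (h4S : (4 : Fin 11) ∉ W.S) :
    |(W.cfg0 n E).rel k i l 4 - ((W.cfg0 n E).rel k₀ i l 4 + cf W n 2 3 4 *
      (mot W n k₀ k 2 * (W.cfg0 n E).rel k₀ i l 3 - (W.cfg0 n E).rel k₀ i l 2 * mot W n k₀ k 3))| ≤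
      (10 * MW W ^ 3) * W.B'.d n ^ t := by
  obtain ⟨a1, a2, a3⟩ := rep_of_mem hE h1
  obtain ⟨b1, b2, b3⟩ := rep_of_mem hE h2
  obtain ⟨c1, c2, c3⟩ := rep_of_mem hE h3
  obtain ⟨d1, d2, d3⟩ := rep_of_mem hE h4
  set M := MW W with hM
  set η := W.B'.d n ^ t with hη
  have hη0 : 0 ≤ η := Real.rpow_nonneg (W.B'.pos n).le t
  have hM1 : 1 ≤ M := h.MW_one
  have M3 : M ≤ M ^ 3 := le_self_pow₀ hM1 (by norm_num)
  have B : ∀ {u v : ι n}, u ∈ W.Cl n → v ∈ W.Cl n → ∀ s, |W.crd n u v s| ≤ M :=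
    fun hu hv s => h.crd_MW g hu hv s
  set x := W.rep n i k₀
  set x' := W.rep n i k
  set y := W.rep n l k₀
  set y' := W.rep n l k
  have kz : k₀ ∈ (W.cfg0 n E).Z := mem_image.2 (by
    obtain ⟨u, hu, -, h6⟩ := mem_cfg0 h1; exact ⟨u, hu, h6⟩)
  have kz' : k ∈ (W.cfg0 n E).Z := mem_image.2 (by
    obtain ⟨u, hu, -, h6⟩ := mem_cfg0 h2; exact ⟨u, hu, h6⟩)
  obtain ⟨z1, z2⟩ := zrep_of_mem hE kz
  obtain ⟨z1', z2'⟩ := zrep_of_mem hE kz'
  -- own motion of a line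
  have hmot : ∀ {u u' : ι n}, u ∈ W.Cl n → u' ∈ W.Cl n → W.lc n u = W.lc n u' →
      W.zc n u = k₀ → W.zc n u' = k → ∀ s : Fin 11, s = 0 ∨ s = 2 ∨ s = 3 →
      Ap η M M (W.crd n u u' s) (mot W n k₀ k s) := by
    intro u u' hu hu' hlc hzu hzu' s hs
    unfold mot
    split_ifs with hsS
    · refine ⟨B hu hu' s, B z1 z1' s, ?_⟩
      exact h.small_of2 (own_addS h g hu hu' z1 z1' (hzu.trans z2.symm) (hzu'.trans z2'.symm) hsS hs
        ht)
    · refine ⟨B hu hu' s, by rw [abs_zero]; linarith, ?_⟩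
      rw [sub_zero]
      exact h.small_of (crd_ownS h hst g hu hu' hlc hsS ht)
  -- relative coordinates
  have hrel : ∀ s : Fin 11, Ap η M M (W.crd n x y s) ((W.cfg0 n E).rel k₀ i l s) := by
    intro s
    rw [rel_cfg0]
    split_ifs with hsS
    · refine ⟨B a1 c1 s, by rw [abs_zero]; linarith, ?_⟩
      rw [sub_zero]
      exact h.small_of (crd_levS h g a1 c1 (a3.trans c3.symm) hsS ht)
    · refine ⟨B a1 c1 s, B a1 c1 s, ?_⟩
      rw [sub_self, abs_zero]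
      exact mul_nonneg (by linarith) hη0
  have hcf : |cf W n 2 3 4| ≤ M := (h.cfB g).2.2.2.2.2.2.2.2.2.2
  have e1 := h.crd_four g a1 b1 d1
  have e2 := h.crd_four g a1 c1 d1
  have f2 := h.crd_add g a1 b1 d1 (s := 2) (by simp)
  have f3 := h.crd_add g a1 b1 d1 (s := 3) (by simp)
  have f2' := h.crd_add g a1 c1 d1 (s := 2) (by simp)
  have f3' := h.crd_add g a1 c1 d1 (s := 3) (by simp)
  have own4 : ∀ {u u' : ι n}, u ∈ W.Cl n → u' ∈ W.Cl n → W.lc n u = W.lc n u' →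
      Ap η M M (W.crd n u u' 4) 0 := by
    intro u u' hu hu' hlc
    refine ⟨B hu hu' 4, by rw [abs_zero]; linarith, ?_⟩
    rw [sub_zero]
    exact h.small_of (crd_ownS h hst g hu hu' hlc h4S ht)
  have o4x := own4 a1 b1 (a2.trans b2.symm)
  have o4y := own4 c1 d1 (c2.trans d2.symm)
  have m2x := hmot a1 b1 (a2.trans b2.symm) a3 b3 2 (by simp)
  have m3x := hmot a1 b1 (a2.trans b2.symm) a3 b3 3 (by simp)
  have m3y := hmot c1 d1 (c2.trans d2.symm) c3 d3 3 (by simp)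
  -- exact identity
  have key : W.crd n x' y' 4 = W.crd n x y 4 + W.crd n y y' 4 - W.crd n x x' 4 +
      cf W n 2 3 4 * (W.crd n x x' 2 * (W.crd n x y 3 + W.crd n y y' 3 - W.crd n x x' 3) -
        W.crd n x y 2 * W.crd n y y' 3) := by
    have e3 : W.crd n x' y' 3 = W.crd n x y 3 + W.crd n y y' 3 - W.crd n x x' 3 := by linarith
    rw [← e3]
    linarith
  have apr := (((Ap.const (η := η) hη0 (B a1 c1 4)).add o4y).sub o4x).add
    ((Ap.const (η := η) hη0 hcf).mul ((m2x.mul (((hrel 3).add m3y).sub m3x)).sub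
      ((hrel 2).mul m3y)))
  rw [← key] at apr
  have e4 : (W.cfg0 n E).rel k₀ i l 4 = W.crd n x y 4 := by rw [rel_cfg0, if_neg h4S]
  have e5 : (W.cfg0 n E).rel k i l 4 = W.crd n x' y' 4 := by rw [rel_cfg0, if_neg h4S]
  rw [e4, e5]
  have e6 : W.crd n x y 4 + 0 - 0 + cf W n 2 3 4 * (mot W n k₀ k 2 *
      ((W.cfg0 n E).rel k₀ i l 3 + mot W n k₀ k 3 - mot W n k₀ k 3) -
        (W.cfg0 n E).rel k₀ i l 2 * mot W n k₀ k 3) = W.crd n x y 4 + cf W n 2 3 4 *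
      (mot W n k₀ k 2 * (W.cfg0 n E).rel k₀ i l 3 - (W.cfg0 n E).rel k₀ i l 2 *
        mot W n k₀ k 3) := by ring
  rw [e6] at apr
  refine apr.mono hη0 ?_
  nlinarith

/-- all line slots -/
theorem evoR0S {n : ℕ} (g : W.Good n) {E : Finset (ι n)} (hE : E ⊆ W.Cl n) {k₀ k i l : ℕ}
    (h1 : (i, k₀) ∈ (W.cfg0 n E).I) (h2 : (i, k) ∈ (W.cfg0 n E).I)
    (h3 : (l, k₀) ∈ (W.cfg0 n E).I) (h4 : (l, k) ∈ (W.cfg0 n E).I) {t : ℝ}
    (ht : ∀ s, s ≠ 1 → t ≤ W.top s) (s : Fin 11) (hs : s ∉ W.S) (h0S : (0 : Fin 11) ∈ W.S) :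
    |(W.cfg0 n E).rel k i l s -
      evoG W n (own W n k₀ k (fsl W n i k₀ 2) (fsl W n i k₀ 3)) ((W.cfg0 n E).rel k₀ i l) s| ≤
      CE W * W.B'.d n ^ t := by
  have hM := h.MW_one
  have hη0 : 0 ≤ W.B'.d n ^ t := Real.rpow_nonneg (W.B'.pos n).le t
  have hCE : ∀ c, c ≤ 18 * (20 * MW W ^ 3) ^ 4 * (14 * MW W ^ 3) → c ≤ CE W := by
    intro c hc
    have h5 := (h.CE_le 0).1
    have : 0 ≤ 100 * W.K0 ^ 4 / W.kap 0 := div_nonneg (by positivity) (h.ok.kap 0).le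
    linarith
  have hM15 : MW W ≤ MW W ^ 15 := le_self_pow₀ hM (by norm_num)
  have hM3 : MW W ^ 3 ≤ MW W ^ 15 := pow_le_pow_right₀ hM (by norm_num)
  have e15 : 18 * (20 * MW W ^ 3) ^ 4 * (14 * MW W ^ 3) = 40320000 * MW W ^ 15 := by ring
  have hM0 : 0 ≤ MW W ^ 15 := by positivity
  by_cases hs4 : s = 4
  · subst hs4
    have e1 := evoR4S h hst g hE h1 h2 h3 h4 ht hs
    have e2 : own W n k₀ k (fsl W n i k₀ 2) (fsl W n i k₀ 3) 2 = mot W n k₀ k 2 := by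
      unfold own; rw [if_neg (by decide)]
    have e3 : own W n k₀ k (fsl W n i k₀ 2) (fsl W n i k₀ 3) 3 = mot W n k₀ k 3 := by
      unfold own; rw [if_neg (by decide)]
    unfold evoG
    rw [if_pos rfl, e2, e3]
    refine e1.trans (mul_le_mul_of_nonneg_right (hCE _ ?_) hη0)
    rw [e15]; linarith
  · unfold evoG
    rw [if_neg hs4]
    by_cases hs23 : s = 2 ∨ s = 3
    · have e1 := evoR23S h hst g hE h1 h2 h3 h4 ht s hs23 hs
      have e2 : evoN W n (own W n k₀ k (fsl W n i k₀ 2) (fsl W n i k₀ 3))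
          ((W.cfg0 n E).rel k₀ i l) s = (W.cfg0 n E).rel k₀ i l s := by
        rcases hs23 with rfl | rfl
        · simp only [evoN, Matrix.cons_val]
        · simp only [evoN, Matrix.cons_val]
      rw [e2]
      refine e1.trans (mul_le_mul_of_nonneg_right (hCE _ ?_) hη0)
      rw [e15]; linarith
    · refine evoR00S h hst g hE h1 h2 h3 h4 ht s ?_
      have h0 : s ≠ 0 := fun e => hs (e ▸ h0S)
      have key : ∀ s : Fin 11, s ≠ 4 → ¬(s = 2 ∨ s = 3) → s ≠ 0 →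
        s = 1 ∨ s = 5 ∨ s = 6 ∨ s = 7 ∨ s = 8 ∨ s = 9 ∨ s = 10 := by decide
      exact key s hs4 hs23 h0

section Cfg

variable {E : ∀ n, Finset (ι n)}

/-- **evolution of `rel`** in `W.cfg E`, straight chart -/
theorem evoRS (hc : ∀ᶠ n in (U : Filter ℕ), W.Good n ∧ E n ⊆ W.Cl n ∧
      W.cfg E n = W.cfg0 n (E n)) (h0S : (0 : Fin 11) ∈ W.S) {t : ℝ} (ht : ∀ s, s ≠ 1 → t ≤ W.top s) :
    ∀ᶠ n in (U : Filter ℕ), ∀ k₀ k i l, (i, k₀) ∈ (W.cfg E n).I → (i, k) ∈ (W.cfg E n).I →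
      (l, k₀) ∈ (W.cfg E n).I → (l, k) ∈ (W.cfg E n).I → ∀ s, s ∉ W.S →
      |(W.cfg E n).rel k i l s -
        evoG W n (own W n k₀ k (fsl W n i k₀ 2) (fsl W n i k₀ 3)) ((W.cfg E n).rel k₀ i l) s| ≤
        CE W * W.B'.d n ^ t := by
  filter_upwards [hc] with n hn k₀ k i l h1 h2 h3 h4 s hs
  obtain ⟨g, hE, hcfg⟩ := hn
  rw [hcfg] at h1 h2 h3 h4 ⊢
  exact evoR0S h hst g hE h1 h2 h3 h4 ht s hs h0S

end Cfg

end

end Crest.Agent.R136.Rgl501
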