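import Crest.Agent.R136.Rich_335
import Crest.Agent.R136.SubD_335

/-!
# R136 / U5, non-degeneracy (3.0): rich sub-cells from ONE sub-cell per line (helper335)

`SubD` : a family `P` of (line, cell of level `lev n v + k`) with D-max, such that every incidence has
a sub-cell in `P`.  It follows from D-max at all natural levels (`AllD`, `v < 1`), from the deep D-max,
and passes to parts.  `rich_cell2` : rich sub-cells from `SubD`.
-/

set_option autoImplicit false
set_option linter.unusedVariables false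
set_option linter.unusedSectionVars false

open Finset Filter Topology

namespace Crest.Agent.R136.Ndc335

open Crest.Agent.R138.Ex926 Crest.Agent.R138.Dp76
open Crest.Agent.R138.Mk163 (zc zl rho alive own Negl)
open Crest.Agent.R138.MkRef627 (lc kc mem_alive card_class alive_mono)
open Crest.Agent.R138.ArgM163 (ev_const_mul ev_const)
open Crest.Agent.R136.MkA627 Crest.Agent.R136.Dia770

open Classical in
/-- **rich sub-cells**, finite version, every pair has a sub-cell in `P` -/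
theorem rich_fin2 (I : Finset (ℕ × ℝ)) {i k : ℕ} (P : Finset (ℕ × ℤ))
    (hcov0 : ∀ o ∈ I.image (lc i), ∃ j : ℤ, j / 2 ^ k = o.2 ∧ (o.1, j) ∈ P)
    (φ : ℕ → ℤ → ℕ) (N : ℤ → ℕ → ℕ → Prop) {K thr η : ℝ} (hK : 0 ≤ K) (hthr0 : 0 < thr)
    (hη : 0 ≤ η)
    (poor : ∀ J : ℤ, ∀ t0 ∈ alive I i J, ∀ A ⊆ (alive I i J).filter fun s => φ s J = φ t0 J,
      ∀ θ : ℝ, 0 ≤ θ →
        ((A.filter fun t => ((A.filter fun t' => N J t t').card : ℝ) < θ * A.card).card : ℝ) ≤
          K * (θ * A.card))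
    (hthr : ∀ J : ℤ, ∀ t ∈ alive I i J, K * (2 ^ k * thr) ≤
      η * (((alive I i J).filter fun s => φ s J = φ t J).card : ℝ)) :
    (((I.image (lc i)).filter fun o => ∀ j : ℤ, j / 2 ^ k = o.2 →
        (((alive I i o.2).filter fun t' => φ t' o.2 = φ o.1 o.2 ∧ N o.2 o.1 t' ∧
          (t', j) ∈ P).card : ℝ) < thr).card : ℝ) ≤
      η * ((I.image (lc i)).card : ℝ) := by
  set O := I.image (lc i) with hO
  set cov : ℕ × ℤ → Prop := fun o => ∃ j, j / 2 ^ k = o.2 ∧ (o.1, j) ∈ P with hcov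
  set bad : ℕ × ℤ → Prop := fun o => ∀ j : ℤ, j / 2 ^ k = o.2 →
        (((alive I i o.2).filter fun t' => φ t' o.2 = φ o.1 o.2 ∧ N o.2 o.1 t' ∧
          (t', j) ∈ P).card : ℝ) < thr with hbad
  have hcb : ((O.filter fun o => cov o ∧ bad o).card : ℝ) ≤ η * O.card := by
    set κ : ℕ × ℤ → ℕ × ℤ := fun o => (φ o.1 o.2, o.2) with hκ
    have h1 : ((O.filter fun o => cov o ∧ bad o).card : ℝ) =
        ∑ y ∈ O.image κ, (((O.filter fun o => cov o ∧ bad o).filter fun o => κ o = y).card : ℝ) := by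
      rw [card_eq_sum_card_fiberwise (f := κ) (t := O.image κ)
        (fun o ho => mem_image_of_mem _ (mem_filter.1 ho).1)]
      push_cast; rfl
    have h2 : (O.card : ℝ) = ∑ y ∈ O.image κ, ((O.filter fun o => κ o = y).card : ℝ) := by
      rw [card_eq_sum_card_image κ O]
      push_cast; rfl
    rw [h1, h2, mul_sum]
    refine sum_le_sum fun y hy => ?_
    obtain ⟨o0, ho0, rfl⟩ := mem_image.1 hy
    obtain ⟨x0, hx0, hx0o⟩ := mem_image.1 ho0
    have hal : o0.1 ∈ alive I i o0.2 := mem_alive.2 ⟨x0, hx0, by rw [← hx0o]; rfl, by rw [← hx0o]; rfl⟩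
    set cls := (alive I i o0.2).filter fun s => φ s o0.2 = φ o0.1 o0.2 with hcls
    have e3 : ((O.filter fun o => κ o = κ o0).card : ℝ) = cls.card := by
      rw [hcls, card_class I i o0.2 (fun s => φ s o0.2) (φ o0.1 o0.2)]
      congr 2
      ext o
      simp only [mem_filter, hκ, Prod.mk.injEq, hO]
      constructor
      · rintro ⟨a1, a2, a3⟩
        exact ⟨a1, a3, by rw [← a3]; exact a2.trans (by rw [a3])⟩
      · rintro ⟨a1, a3, a2⟩
        exact ⟨a1, by rw [a3]; exact a2, a3⟩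
    rw [e3]
    set A := cls.filter fun s => cov (s, o0.2) with hA
    -- the bad pairs of the class are poor in `A`
    have e4 : (((O.filter fun o => cov o ∧ bad o).filter fun o => κ o = κ o0).card : ℝ) ≤
        ((A.filter fun t => ((A.filter fun t' => N o0.2 t t').card : ℝ) <
          (2 ^ k * thr / A.card) * A.card).card : ℝ) := by
      norm_cast
      refine card_le_card_of_injOn (fun o => o.1) ?_ ?_
      · intro o ho
        have ho' := mem_filter.1 (mem_coe.1 ho)
        have ho'' := mem_filter.1 ho'.1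
        have hk2 : o.2 = o0.2 := (Prod.mk.inj ho'.2).2
        have hk1 : φ o.1 o0.2 = φ o0.1 o0.2 := by
          have := (Prod.mk.inj ho'.2).1
          rw [hk2] at this
          exact this
        have hoA : o.1 ∈ alive I i o0.2 := by
          obtain ⟨x, hx, hxo⟩ := mem_image.1 ho''.1
          exact mem_alive.2 ⟨x, hx, by rw [← hxo]; rfl, by rw [← hk2, ← hxo]; rfl⟩
        have hoo : (o.1, o0.2) = o := by rw [← hk2]
        have hmA : o.1 ∈ A := by
          rw [hA, mem_filter, hcls, mem_filter]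
          refine ⟨⟨hoA, hk1⟩, ?_⟩
          rw [hoo]; exact ho''.2.1
        refine mem_coe.2 (mem_filter.2 ⟨hmA, ?_⟩)
        have hApos : (0:ℝ) < A.card := by exact_mod_cast card_pos.2 ⟨_, hmA⟩
        rw [div_mul_cancel₀ _ hApos.ne']
        -- near lines in A are covered by the sub-cells
        have hsub : (A.filter fun t' => N o0.2 o.1 t') ⊆
            (Finset.Ico (o0.2 * 2 ^ k) (o0.2 * 2 ^ k + 2 ^ k)).biUnion fun j =>
              (alive I i o.2).filter fun t' => φ t' o.2 = φ o.1 o.2 ∧ N o.2 o.1 t' ∧ (t', j) ∈ P := by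
          intro t' ht'
          rw [mem_filter, hA, mem_filter, hcls, mem_filter] at ht'
          obtain ⟨⟨⟨a1, a2⟩, j, a3, a4⟩, a5⟩ := ht'
          rw [mem_biUnion]
          refine ⟨j, ico_div.2 a3, ?_⟩
          rw [mem_filter, hk2]
          exact ⟨a1, a2.trans hk1.symm, a5, a4⟩
        have h5 : ((A.filter fun t' => N o0.2 o.1 t').card : ℝ) ≤
            ∑ j ∈ Finset.Ico (o0.2 * 2 ^ k) (o0.2 * 2 ^ k + 2 ^ k),
              (((alive I i o.2).filter fun t' => φ t' o.2 = φ o.1 o.2 ∧ N o.2 o.1 t' ∧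
                (t', j) ∈ P).card : ℝ) := by
          have := (card_le_card hsub).trans card_biUnion_le
          exact_mod_cast this
        refine lt_of_le_of_lt h5 ?_
        have h6 : (Finset.Ico (o0.2 * 2 ^ k) (o0.2 * 2 ^ k + 2 ^ k)).Nonempty := by
          rw [nonempty_Ico]
          have : (0:ℤ) < 2 ^ k := by positivity
          linarith
        have h7 := sum_lt_sum_of_nonempty h6 (f := fun j =>
              (((alive I i o.2).filter fun t' => φ t' o.2 = φ o.1 o.2 ∧ N o.2 o.1 t' ∧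
                (t', j) ∈ P).card : ℝ)) (g := fun _ => thr) (by
            intro j hj
            exact ho''.2.2 j (by rw [ico_div.1 hj, hk2]))
        refine lt_of_lt_of_le h7 (le_of_eq ?_)
        rw [sum_const, Int.card_Ico, nsmul_eq_mul]
        have e2 : o0.2 * 2 ^ k + 2 ^ k - o0.2 * 2 ^ k = ((2 ^ k : ℕ) : ℤ) := by push_cast; ring
        rw [e2, Int.toNat_natCast, Nat.cast_pow, Nat.cast_ofNat]
      · intro o ho o' ho' h
        have ho1 := (mem_filter.1 (mem_coe.1 ho)).2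
        have ho2 := (mem_filter.1 (mem_coe.1 ho')).2
        have h3 : o.2 = o'.2 := (Prod.mk.inj ho1).2.trans (Prod.mk.inj ho2).2.symm
        exact Prod.ext h h3
    refine e4.trans ?_
    rcases A.eq_empty_or_nonempty with hAe | hAn
    · rw [hAe]
      simp only [filter_empty, card_empty, Nat.cast_zero]
      positivity
    · have hApos : (0:ℝ) < A.card := by exact_mod_cast card_pos.2 hAn
      have h8 := poor o0.2 o0.1 hal A (filter_subset _ _) (2 ^ k * thr / A.card) (by positivity)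
      refine h8.trans ?_
      rw [div_mul_cancel₀ _ hApos.ne']
      exact hthr o0.2 o0.1 hal
  refine le_trans ?_ hcb
  norm_cast
  refine card_le_card fun o ho => ?_
  rw [mem_filter] at ho ⊢
  exact ⟨ho.1, hcov0 o ho.1, ho.2⟩

section

variable {σ κ : Type} {B : Base} {I : ℕ → Finset (ℕ × ℝ)} {G : Geo σ κ} {lev : ℕ → ℚ → ℕ}
    {A : ℕ → ℝ} {g : ℝ} {c Λ : ℝ → ℝ} {τ : κ → ℝ → ℝ} {f : ℕ → ℚ → ℕ → ℤ → ℕ} {b : ℕ → ℚ → ℕ → σ}
    {vm : ℕ → ℚ → ℝ} {w : κ → ℕ → ℚ → ℝ} {r0 : ℕ → ℝ}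

theorem level_room (hlim : ∀ u v : ℚ, 0 ≤ u → u ≤ v → v ≤ 1 →
    Tendsto (fun n => ((lev n v : ℝ) - lev n u) * Real.log 2 / B.L n) U (𝓝 ((v : ℝ) - u)))
    {v : ℚ} (hv0 : 0 ≤ v) (hv1 : v < 1) (k : ℕ) :
    ∀ᶠ n in (U : Filter ℕ), lev n v + k ≤ lev n 1 := by
  have h1 := hlim v 1 hv0 hv1.le le_rfl
  have hv1' : (v : ℝ) < 1 := by exact_mod_cast hv1
  have e1 : ((1 : ℚ) : ℝ) = 1 := by norm_num
  rw [e1] at h1
  have hpos : 0 < (1 - (v : ℝ)) / 2 := by linarith
  filter_upwards [h1.eventually_const_lt (show (1 - (v : ℝ)) / 2 < 1 - v by linarith),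
    ev_const_mul B (C := (2 : ℝ) ^ (k + 1)) (by positivity) hpos] with n h2 h3
  have hL := B.L_pos n
  rw [lt_div_iff₀ hL] at h2
  have h4 := Real.log_le_log (mul_pos (by positivity) (dpow_pos B n _)) h3
  rw [Real.log_one, Real.log_mul (by positivity) (dpow_pos B n _).ne', Real.log_pow,
    Real.log_rpow (B.pos n)] at h4
  have hl2 : 0 < Real.log 2 := Real.log_pos (by norm_num)
  have h5 : ((k + 1 : ℕ) : ℝ) * Real.log 2 ≤ (1 - (v : ℝ)) / 2 * B.L n := by
    unfold Base.L
    linarith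
  have h6 : ((k + 1 : ℕ) : ℝ) * Real.log 2 < ((lev n 1 : ℝ) - lev n v) * Real.log 2 := by linarith
  have h7 : ((k + 1 : ℕ) : ℝ) < (lev n 1 : ℝ) - lev n v := lt_of_mul_lt_mul_right h6 hl2.le
  push_cast at h7
  have h8 : ((lev n v + k : ℕ) : ℝ) ≤ ((lev n 1 : ℕ) : ℝ) := by push_cast; linarith
  exact_mod_cast h8

open Classical in
/-- **from D-max at all natural levels**, `v < 1` -/
theorem subD_of_allD (h : AllD B I G lev A g) (hA : ∀ n, 0 < A n)
    (hval : ∀ n i j s, G.adm n i j s → 0 ≤ G.val n i j s)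
    (hmono : ∀ u v : ℚ, 0 ≤ u → u ≤ v → v ≤ 1 → ∀ᶠ n in (U : Filter ℕ), lev n u ≤ lev n v)
    (hlim : ∀ u v : ℚ, 0 ≤ u → u ≤ v → v ≤ 1 →
      Tendsto (fun n => ((lev n v : ℝ) - lev n u) * Real.log 2 / B.L n) U (𝓝 ((v : ℝ) - u)))
    {v : ℚ} (hv0 : 0 ≤ v) (hv1 : v < 1) (k : ℕ) : SubD B I G lev A g v k := by
  intro ε hε
  have hε2 : 0 < ε / 2 := by positivity
  refine ⟨fun n => (I n).image (lc (lev n v + k)), ?_, ?_⟩
  · refine Eventually.of_forall fun n x hx => ⟨zc (lev n v + k) x.2, ?_, mem_image_of_mem _ hx⟩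
    have := zc_div (Nat.le_add_right (lev n v) k) x.2
    rw [this]
    congr 2
    omega
  · have h1 := hlim 0 v le_rfl hv0 hv1.le
    have e0 : ((0 : ℚ) : ℝ) = 0 := by norm_num
    rw [e0, sub_zero] at h1
    have h2 : Tendsto (fun n => g * (((lev n v : ℝ) - lev n 0) * Real.log 2 / B.L n)) U
        (𝓝 (g * v)) := h1.const_mul g
    filter_upwards [h (ε / 2) hε2, level_room hlim hv0 hv1 k, hmono 0 v le_rfl hv0 hv1.le,
      h2.eventually_lt_const (show g * (v : ℝ) < g * v + ε / 2 by linarith)] with n n1 n2 n3 n4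
    intro j s hs
    have hdp := fun a => dpow_pos B n a
    have hL := B.L_pos n
    have h5 := n1 (lev n v + k) (by omega) n2 j s hs
    have h6 : ((((I n).image (lc (lev n v + k))).filter fun o => o.2 = j ∧
        G.mem n (lev n v + k) j s o.1).card : ℝ) ≤
        (((alive (I n) (lev n v + k) j).filter fun t => G.mem n (lev n v + k) j s t).card : ℝ) := by
      norm_cast
      refine card_le_card_of_injOn (fun o => o.1) ?_ ?_
      · intro o ho
        have ho' := mem_filter.1 (mem_coe.1 ho)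
        obtain ⟨x, hx, hxo⟩ := mem_image.1 ho'.1
        refine mem_coe.2 (mem_filter.2 ⟨mem_alive.2 ⟨x, hx, by rw [← hxo]; rfl, ?_⟩, ho'.2.2⟩)
        rw [← ho'.2.1, ← hxo]; rfl
      · intro o ho o' ho' hh
        have h1 := (mem_filter.1 (mem_coe.1 ho)).2.1
        have h2 := (mem_filter.1 (mem_coe.1 ho')).2.1
        exact Prod.ext hh (h1.trans h2.symm)
    refine (h6.trans h5).trans (mul_le_mul_of_nonneg_right ?_ (hval _ _ _ _ hs))
    -- the growth factor
    have h7 : (2:ℝ) ^ (g * (((lev n v + k : ℕ) : ℝ) - lev n 0)) ≤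
        B.d n ^ (-(g * v + ε / 2)) * 2 ^ (g * k) := by
      have e1 : g * (((lev n v + k : ℕ) : ℝ) - lev n 0) =
          g * ((lev n v : ℝ) - lev n 0) + g * k := by push_cast; ring
      rw [e1, Real.rpow_add (by norm_num)]
      refine mul_le_mul_of_nonneg_right ?_ (by positivity)
      rw [← Real.log_le_log_iff (by positivity) (hdp _), Real.log_rpow (by norm_num),
        Real.log_rpow (B.pos n)]
      have e2 : g * (((lev n v : ℝ) - lev n 0) * Real.log 2 / B.L n) =
          (g * ((lev n v : ℝ) - lev n 0) * Real.log 2) / B.L n := by ring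
      rw [e2, div_lt_iff₀ hL] at n4
      unfold Base.L at n4
      linarith
    have h8 : (2:ℝ) ^ (g * k) ≤ 2 ^ ((g + ε) * k) := by
      apply Real.rpow_le_rpow_of_exponent_le (by norm_num)
      have : (0:ℝ) ≤ ε * k := by positivity
      linarith
    have e3 : B.d n ^ (-(ε / 2)) * B.d n ^ (-(g * v + ε / 2)) =
        B.d n ^ (-ε) * B.d n ^ (-(g * v)) := by
      rw [← dpow_add, ← dpow_add]; congr 1; ring
    have hAn := hA n
    have q1 := hdp (-(ε / 2))
    have q2 := hdp (-(g * v + ε / 2))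
    calc B.d n ^ (-(ε / 2)) * (A n * 2 ^ (g * (((lev n v + k : ℕ) : ℝ) - lev n 0))) ≤
          B.d n ^ (-(ε / 2)) * (A n * (B.d n ^ (-(g * v + ε / 2)) * 2 ^ ((g + ε) * k))) := by
          refine mul_le_mul_of_nonneg_left (mul_le_mul_of_nonneg_left ?_ hAn.le) q1.le
          exact h7.trans (mul_le_mul_of_nonneg_left h8 q2.le)
      _ = (B.d n ^ (-(ε / 2)) * B.d n ^ (-(g * v + ε / 2))) * A n * 2 ^ ((g + ε) * k) := by ring
      _ = _ := by rw [e3]; ring

open Classical in
/-- **rich sub-cells** for a marked sequence, from `SubD` -/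
theorem rich_cell2 (h : MkA B I G lev A (fun v => g * v) (fun v => 0 * v) τ f b vm w)
    {v : ℚ} (hv0 : 0 ≤ v) (hv1 : v ≤ 1) {k : ℕ} (hd : SubD B I G lev A g v k)
    (N : ℕ → ℤ → ℕ → ℕ → Prop) {K : ℝ} (hK : 0 ≤ K)
    (poor : ∀ᶠ n in (U : Filter ℕ), ∀ J : ℤ, ∀ t0 ∈ alive (I n) (lev n v) J,
      ∀ A' ⊆ (alive (I n) (lev n v) J).filter fun s => f n v s J = f n v t0 J,
      ∀ θ : ℝ, 0 ≤ θ →
        ((A'.filter fun t => ((A'.filter fun t' => N n J t t').card : ℝ) < θ * A'.card).card : ℝ) ≤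
          K * (θ * A'.card)) {ε ε' : ℝ} (hε : 0 < ε) (hε' : 0 < ε') :
    ∃ P : ℕ → Finset (ℕ × ℤ),
      (∀ᶠ n in (U : Filter ℕ), ∀ (j : ℤ) (s : σ), G.adm n (lev n v + k) j s →
        (((P n).filter fun o => o.2 = j ∧ G.mem n (lev n v + k) j s o.1).card : ℝ) ≤
          B.d n ^ (-ε') * (A n * B.d n ^ (-(g * v))) * 2 ^ ((g + ε') * k) *
            G.val n (lev n v + k) j s) ∧
      Negl B I fun n x => ∀ j : ℤ, j / 2 ^ k = zc (lev n v) x.2 →
        (((alive (I n) (lev n v) (zc (lev n v) x.2)).filter fun t' =>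
          f n v t' (zc (lev n v) x.2) = f n v x.1 (zc (lev n v) x.2) ∧
            N n (zc (lev n v) x.2) x.1 t' ∧ (t', j) ∈ P n).card : ℝ) <
          B.d n ^ ε * (ampA B A (fun v => g * v) n v * vm n v) := by
  obtain ⟨P, hcov, hmax⟩ := hd ε' hε'
  refine ⟨P, hmax, ?_⟩
  · set μ : ℝ := ε / 8 with hμ
    have hμ0 : 0 < μ := by rw [hμ]; positivity
    have hμε : 8 * μ ≤ ε := by rw [hμ]; linarith
    refine ⟨μ, hμ0, ?_⟩
    have hC : 0 < (1 + K) * 2 ^ k := by positivity
    filter_upwards [hcov, h.near v hv0 hv1 (ε / 2) (by linarith),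
      fib_bounds h v hv0 hv1 hμ0, ev_const_mul B hC hμ0, h.vpos v hv0 hv1, poor]
      with n n1 n3 n4 n5 n6 n7
    have hdp := fun a => dpow_pos B n a
    have hamp : 0 < ampA B A (fun v => g * v) n v := mul_pos (h.Apos n) (hdp _)
    have hR := rich_fin2 (I n) (P n) (by
        intro o ho
        obtain ⟨x, hx, rfl⟩ := mem_image.1 ho
        exact n1 x hx) (f n v) (N n) hK
      (thr := B.d n ^ ε * (ampA B A (fun v => g * v) n v * vm n v))
      (η := K * 2 ^ k * B.d n ^ (ε / 2)) (by have := hdp ε; positivity)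
      (by have := hdp (ε / 2); positivity) n7 (by
        intro J t ht
        have h3 := n3 J t ht
        have e1 : B.d n ^ ε = B.d n ^ (ε / 2) * B.d n ^ (ε / 2) := by rw [← dpow_add]; congr 1; ring
        have e2 : B.d n ^ (ε / 2) * B.d n ^ (-(ε / 2)) = 1 := by
          rw [← dpow_add, add_neg_cancel, Real.rpow_zero]
        have h4 : B.d n ^ (ε / 2) * (ampA B A (fun v => g * v) n v * vm n v) ≤
            (((alive (I n) (lev n v) J).filter fun s => f n v s J = f n v t J).card : ℝ) := by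
          refine (mul_le_mul_of_nonneg_left h3 (hdp (ε / 2)).le).trans (le_of_eq ?_)
          rw [← mul_assoc, e2, one_mul]
        calc K * (2 ^ k * (B.d n ^ ε * (ampA B A (fun v => g * v) n v * vm n v)))
            = K * 2 ^ k * B.d n ^ (ε / 2) *
              (B.d n ^ (ε / 2) * (ampA B A (fun v => g * v) n v * vm n v)) := by rw [e1]; ring
          _ ≤ _ := mul_le_mul_of_nonneg_left h4 (by have := hdp (ε / 2); positivity))
    have hB := bad_inc (I n) (lev n v) (fun o => ∀ j : ℤ, j / 2 ^ k = o.2 →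
        (((alive (I n) (lev n v) o.2).filter fun t' => f n v t' o.2 = f n v o.1 o.2 ∧
          N n o.2 o.1 t' ∧ (t', j) ∈ P n).card : ℝ) <
          B.d n ^ ε * (ampA B A (fun v => g * v) n v * vm n v)) (hdp _) (hdp _).le
        (by have := hdp (ε / 2); positivity) (fun x hx => (n4 x hx).1)
        (fun x hx => (n4 x hx).2) hR
    refine le_trans (le_of_eq ?_) (hB.trans ?_)
    · rfl
    · have h0 : (0:ℝ) ≤ ((I n).card : ℝ) := Nat.cast_nonneg _
      refine mul_le_mul_of_nonneg_right ?_ h0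
      rw [← Real.rpow_sub (B.pos n)]
      have e1 : -(1 - (v:ℝ)) + (0 * (1:ℝ) - 0 * (v:ℝ)) - μ - (-(1 - (v:ℝ)) + (0 * (1:ℝ) - 0 * (v:ℝ)) + μ)
          = -(2 * μ) := by ring
      rw [e1]
      have a2 : B.d n ^ (ε / 2) ≤ B.d n ^ (4 * μ) := dpow_le B n (by linarith)
      have a3 : B.d n ^ (4 * μ) * B.d n ^ (-(2 * μ)) = B.d n ^ μ * B.d n ^ μ := by
        rw [← dpow_add, ← dpow_add]; congr 1; ring
      have p1 := hdp (-(2 * μ))
      have p2 := hdp μ
      have p3 := hdp (4 * μ)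
      calc (K * 2 ^ k * B.d n ^ (ε / 2)) * B.d n ^ (-(2 * μ))
          ≤ (K * 2 ^ k * B.d n ^ (4 * μ)) * B.d n ^ (-(2 * μ)) := by gcongr
        _ = K * 2 ^ k * (B.d n ^ (4 * μ) * B.d n ^ (-(2 * μ))) := by ring
        _ ≤ (1 + K) * 2 ^ k * (B.d n ^ (4 * μ) * B.d n ^ (-(2 * μ))) := by
            refine mul_le_mul_of_nonneg_right ?_ (by positivity)
            have : (0:ℝ) < 2 ^ k := by positivity
            nlinarith
        _ = ((1 + K) * 2 ^ k * B.d n ^ μ) * B.d n ^ μ := by rw [a3]; ring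
        _ ≤ 1 * B.d n ^ μ := mul_le_mul_of_nonneg_right n5 p2.le
        _ = _ := one_mul _

end

end Crest.Agent.R136.Ndc335
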