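import Crest.Agent.R136.Deep0_770
import Crest.Agent.R138.ArgM1_163

/-!
# R136 / U5, non-degeneracy (3.0), sequence half: rich sub-cells (helper335)

* `rich_fin` : a part `P` of the deep objects (level `i + k`) which contains almost all of them.  The
  pairs (line, cell of level `i`) which have, in no sub-cell, many near lines of their class in `P`,
  are few.
* `rich_cell` : the same for a marked sequence with deep D-max (`DeepP`).
-/

set_option autoImplicit false
set_option linter.unusedVariables false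
set_option linter.unusedSectionVars false

open Finset Filter Topology

namespace Crest.Agent.R136.Ndc335

open Crest.Agent.R138.Ex926 Crest.Agent.R138.Dp76
open Crest.Agent.R138.Mk163 (zc zl rho alive own Negl)
open Crest.Agent.R138.MkRef627 (lc kc mem_alive card_class alive_mono)
open Crest.Agent.R138.ArgM163 (ev_const_mul ev_const)
open Crest.Agent.R136.MkA627 Crest.Agent.R136.Dia770

open Classical in
/-- **rich sub-cells**, finite version -/
theorem rich_fin (I : Finset (ℕ × ℝ)) {i l1 k : ℕ} (hil : i ≤ l1) (P : Finset (ℕ × ℤ))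
    (hP : P ⊆ extO I l1 (i + k)) {δ : ℝ} (hδ0 : 0 ≤ δ)
    (hδ : ((extO I l1 (i + k)).card : ℝ) ≤ P.card + δ * (extO I l1 (i + k)).card)
    (φ : ℕ → ℤ → ℕ) (N : ℤ → ℕ → ℕ → Prop) {K thr η : ℝ} (hK : 0 ≤ K) (hthr0 : 0 < thr)
    (hη : 0 ≤ η)
    (poor : ∀ J : ℤ, ∀ t0 ∈ alive I i J, ∀ A ⊆ (alive I i J).filter fun s => φ s J = φ t0 J,
      ∀ θ : ℝ, 0 ≤ θ →
        ((A.filter fun t => ((A.filter fun t' => N J t t').card : ℝ) < θ * A.card).card : ℝ) ≤
          K * (θ * A.card))
    (hthr : ∀ J : ℤ, ∀ t ∈ alive I i J, K * (2 ^ k * thr) ≤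
      η * (((alive I i J).filter fun s => φ s J = φ t J).card : ℝ)) :
    (((I.image (lc i)).filter fun o => ∀ j : ℤ, j / 2 ^ k = o.2 →
        (((alive I i o.2).filter fun t' => φ t' o.2 = φ o.1 o.2 ∧ N o.2 o.1 t' ∧
          (t', j) ∈ P).card : ℝ) < thr).card : ℝ) ≤
      (δ * 2 ^ k + η) * ((I.image (lc i)).card : ℝ) := by
  set O := I.image (lc i) with hO
  set E := extO I l1 (i + k) with hE
  have hanc : ∀ o ∈ E, (o.1, o.2 / 2 ^ k) ∈ O := by
    intro o ho
    obtain ⟨x, hx, hxo⟩ := extO_anc (i := i) hil (by omega) ho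
    have e1 : i + k - i = k := by omega
    rw [e1] at hxo
    exact mem_image.2 ⟨x, hx, hxo⟩
  -- every pair has a child
  have hchild : ∀ o ∈ O, ∃ p ∈ E, (p.1, p.2 / 2 ^ k) = o := by
    intro o ho
    obtain ⟨x, hx, rfl⟩ := mem_image.1 ho
    rcases le_total (i + k) l1 with h | h
    · refine ⟨lc (i + k) x, (mem_extO_le h).2 ⟨x, hx, rfl⟩, ?_⟩
      simp only [lc, Prod.mk.injEq, true_and]
      rw [zc_div (show i ≤ i + k by omega) x.2]
      congr 2; omega
    · refine ⟨(x.1, zc l1 x.2 * 2 ^ (i + k - l1)), (mem_extO_ge h).2 ⟨x, hx, ?_⟩, ?_⟩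
      · simp only [lc, Prod.mk.injEq, true_and]
        rw [Int.mul_ediv_cancel _ (by positivity)]
      · simp only [lc, Prod.mk.injEq, true_and]
        rw [zc_div hil x.2]
        have e1 : (2:ℤ) ^ k = 2 ^ (i + k - l1) * 2 ^ (l1 - i) := by
          rw [← pow_add]; congr 1; omega
        rw [e1, ← Int.ediv_ediv_of_nonneg (by positivity), Int.mul_ediv_cancel _ (by positivity)]
  -- number of children
  have hEO : (E.card : ℝ) ≤ 2 ^ k * O.card := by
    have h1 : E.card ≤ 2 ^ k * O.card := by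
      refine card_le_mul_card_image_of_maps_to (f := fun o : ℕ × ℤ => (o.1, o.2 / 2 ^ k)) hanc
        (2 ^ k) ?_
      intro o ho
      have h2 : (E.filter fun p => (p.1, p.2 / 2 ^ k) = o) ⊆
          (Finset.Ico (o.2 * 2 ^ k) (o.2 * 2 ^ k + 2 ^ k)).image fun j => (o.1, j) := by
        intro p hp
        rw [mem_filter] at hp
        rw [mem_image]
        refine ⟨p.2, ico_div.2 ?_, ?_⟩
        · rw [← hp.2]
        · rw [← hp.2]
      refine (card_le_card h2).trans (card_image_le.trans ?_)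
      rw [Int.card_Ico]
      have e2 : o.2 * 2 ^ k + 2 ^ k - o.2 * 2 ^ k = ((2 ^ k : ℕ) : ℤ) := by push_cast; ring
      rw [e2, Int.toNat_natCast]
    have h2 : (E.card : ℝ) ≤ ((2 ^ k * O.card : ℕ) : ℝ) := by exact_mod_cast h1
    push_cast at h2
    linarith
  set cov : ℕ × ℤ → Prop := fun o => ∃ j, j / 2 ^ k = o.2 ∧ (o.1, j) ∈ P with hcov
  set bad : ℕ × ℤ → Prop := fun o => ∀ j : ℤ, j / 2 ^ k = o.2 →
        (((alive I i o.2).filter fun t' => φ t' o.2 = φ o.1 o.2 ∧ N o.2 o.1 t' ∧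
          (t', j) ∈ P).card : ℝ) < thr with hbad
  -- uncovered pairs
  have hunc : ((O.filter fun o => ¬ cov o).card : ℝ) ≤ δ * 2 ^ k * O.card := by
    have h1 : (O.filter fun o => ¬ cov o).card ≤ (E \ P).card := by
      have hsel : ∀ o : ℕ × ℤ, ∃ p : ℕ × ℤ, o ∈ O → p ∈ E ∧ (p.1, p.2 / 2 ^ k) = o := by
        intro o
        by_cases ho : o ∈ O
        · obtain ⟨p, hp, hpo⟩ := hchild o ho
          exact ⟨p, fun _ => ⟨hp, hpo⟩⟩
        · exact ⟨o, fun h => absurd h ho⟩
      choose s hs using hsel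
      refine card_le_card_of_injOn s ?_ ?_
      · intro o ho
        have ho' := mem_filter.1 (mem_coe.1 ho)
        refine mem_coe.2 (mem_sdiff.2 ⟨(hs o ho'.1).1, fun hsP => ho'.2 ?_⟩)
        refine ⟨(s o).2, congrArg Prod.snd (hs o ho'.1).2, ?_⟩
        have e1 : (s o).1 = o.1 := by
          have := congrArg Prod.fst (hs o ho'.1).2
          exact this
        rw [← e1]
        exact hsP
      · intro o ho o' ho' h
        have ho1 := mem_filter.1 (mem_coe.1 ho)
        have ho2 := mem_filter.1 (mem_coe.1 ho')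
        rw [← (hs o ho1.1).2, ← (hs o' ho2.1).2, h]
    have h2 : ((E \ P).card : ℝ) ≤ δ * E.card := by
      have h3 : ((E \ P).card : ℝ) = E.card - P.card := by
        rw [card_sdiff_of_subset hP, Nat.cast_sub (card_le_card hP)]
      rw [h3]; linarith
    calc ((O.filter fun o => ¬ cov o).card : ℝ) ≤ ((E \ P).card : ℝ) := by exact_mod_cast h1
      _ ≤ δ * E.card := h2
      _ ≤ δ * (2 ^ k * O.card) := mul_le_mul_of_nonneg_left hEO hδ0
      _ = _ := by ring
  -- covered bad pairs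
  have hcb : ((O.filter fun o => cov o ∧ bad o).card : ℝ) ≤ η * O.card := by
    set κ : ℕ × ℤ → ℕ × ℤ := fun o => (φ o.1 o.2, o.2) with hκ
    have h1 : ((O.filter fun o => cov o ∧ bad o).card : ℝ) =
        ∑ y ∈ O.image κ, (((O.filter fun o => cov o ∧ bad o).filter fun o => κ o = y).card : ℝ) := by
      rw [card_eq_sum_card_fiberwise (f := κ) (t := O.image κ)
        (fun o ho => mem_image_of_mem _ (mem_filter.1 ho).1)]
      push_cast; rfl
    have h2 : (O.card : ℝ) = ∑ y ∈ O.image κ, ((O.filter fun o => κ o = y).card : ℝ) := by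
      rw [card_eq_sum_card_image κ O]
      push_cast; rfl
    rw [h1, h2, mul_sum]
    refine sum_le_sum fun y hy => ?_
    obtain ⟨o0, ho0, rfl⟩ := mem_image.1 hy
    obtain ⟨x0, hx0, hx0o⟩ := mem_image.1 ho0
    have hal : o0.1 ∈ alive I i o0.2 := mem_alive.2 ⟨x0, hx0, by rw [← hx0o]; rfl, by rw [← hx0o]; rfl⟩
    set cls := (alive I i o0.2).filter fun s => φ s o0.2 = φ o0.1 o0.2 with hcls
    have e3 : ((O.filter fun o => κ o = κ o0).card : ℝ) = cls.card := by
      rw [hcls, card_class I i o0.2 (fun s => φ s o0.2) (φ o0.1 o0.2)]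
      congr 2
      ext o
      simp only [mem_filter, hκ, Prod.mk.injEq, hO]
      constructor
      · rintro ⟨a1, a2, a3⟩
        exact ⟨a1, a3, by rw [← a3]; exact a2.trans (by rw [a3])⟩
      · rintro ⟨a1, a3, a2⟩
        exact ⟨a1, by rw [a3]; exact a2, a3⟩
    rw [e3]
    set A := cls.filter fun s => cov (s, o0.2) with hA
    -- the bad pairs of the class are poor in `A`
    have e4 : (((O.filter fun o => cov o ∧ bad o).filter fun o => κ o = κ o0).card : ℝ) ≤
        ((A.filter fun t => ((A.filter fun t' => N o0.2 t t').card : ℝ) <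
          (2 ^ k * thr / A.card) * A.card).card : ℝ) := by
      norm_cast
      refine card_le_card_of_injOn (fun o => o.1) ?_ ?_
      · intro o ho
        have ho' := mem_filter.1 (mem_coe.1 ho)
        have ho'' := mem_filter.1 ho'.1
        have hk2 : o.2 = o0.2 := (Prod.mk.inj ho'.2).2
        have hk1 : φ o.1 o0.2 = φ o0.1 o0.2 := by
          have := (Prod.mk.inj ho'.2).1
          rw [hk2] at this
          exact this
        have hoA : o.1 ∈ alive I i o0.2 := by
          obtain ⟨x, hx, hxo⟩ := mem_image.1 ho''.1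
          exact mem_alive.2 ⟨x, hx, by rw [← hxo]; rfl, by rw [← hk2, ← hxo]; rfl⟩
        have hoo : (o.1, o0.2) = o := by rw [← hk2]
        have hmA : o.1 ∈ A := by
          rw [hA, mem_filter, hcls, mem_filter]
          refine ⟨⟨hoA, hk1⟩, ?_⟩
          rw [hoo]; exact ho''.2.1
        refine mem_coe.2 (mem_filter.2 ⟨hmA, ?_⟩)
        have hApos : (0:ℝ) < A.card := by exact_mod_cast card_pos.2 ⟨_, hmA⟩
        rw [div_mul_cancel₀ _ hApos.ne']
        -- near lines in A are covered by the sub-cells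
        have hsub : (A.filter fun t' => N o0.2 o.1 t') ⊆
            (Finset.Ico (o0.2 * 2 ^ k) (o0.2 * 2 ^ k + 2 ^ k)).biUnion fun j =>
              (alive I i o.2).filter fun t' => φ t' o.2 = φ o.1 o.2 ∧ N o.2 o.1 t' ∧ (t', j) ∈ P := by
          intro t' ht'
          rw [mem_filter, hA, mem_filter, hcls, mem_filter] at ht'
          obtain ⟨⟨⟨a1, a2⟩, j, a3, a4⟩, a5⟩ := ht'
          rw [mem_biUnion]
          refine ⟨j, ico_div.2 a3, ?_⟩
          rw [mem_filter, hk2]
          exact ⟨a1, a2.trans hk1.symm, a5, a4⟩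
        have h5 : ((A.filter fun t' => N o0.2 o.1 t').card : ℝ) ≤
            ∑ j ∈ Finset.Ico (o0.2 * 2 ^ k) (o0.2 * 2 ^ k + 2 ^ k),
              (((alive I i o.2).filter fun t' => φ t' o.2 = φ o.1 o.2 ∧ N o.2 o.1 t' ∧
                (t', j) ∈ P).card : ℝ) := by
          have := (card_le_card hsub).trans card_biUnion_le
          exact_mod_cast this
        refine lt_of_le_of_lt h5 ?_
        have h6 : (Finset.Ico (o0.2 * 2 ^ k) (o0.2 * 2 ^ k + 2 ^ k)).Nonempty := by
          rw [nonempty_Ico]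
          have : (0:ℤ) < 2 ^ k := by positivity
          linarith
        have h7 := sum_lt_sum_of_nonempty h6 (f := fun j =>
              (((alive I i o.2).filter fun t' => φ t' o.2 = φ o.1 o.2 ∧ N o.2 o.1 t' ∧
                (t', j) ∈ P).card : ℝ)) (g := fun _ => thr) (by
            intro j hj
            exact ho''.2.2 j (by rw [ico_div.1 hj, hk2]))
        refine lt_of_lt_of_le h7 (le_of_eq ?_)
        rw [sum_const, Int.card_Ico, nsmul_eq_mul]
        have e2 : o0.2 * 2 ^ k + 2 ^ k - o0.2 * 2 ^ k = ((2 ^ k : ℕ) : ℤ) := by push_cast; ring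
        rw [e2, Int.toNat_natCast, Nat.cast_pow, Nat.cast_ofNat]
      · intro o ho o' ho' h
        have ho1 := (mem_filter.1 (mem_coe.1 ho)).2
        have ho2 := (mem_filter.1 (mem_coe.1 ho')).2
        have h3 : o.2 = o'.2 := (Prod.mk.inj ho1).2.trans (Prod.mk.inj ho2).2.symm
        exact Prod.ext h h3
    refine e4.trans ?_
    rcases A.eq_empty_or_nonempty with hAe | hAn
    · rw [hAe]
      simp only [filter_empty, card_empty, Nat.cast_zero]
      positivity
    · have hApos : (0:ℝ) < A.card := by exact_mod_cast card_pos.2 hAn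
      have h8 := poor o0.2 o0.1 hal A (filter_subset _ _) (2 ^ k * thr / A.card) (by positivity)
      refine h8.trans ?_
      rw [div_mul_cancel₀ _ hApos.ne']
      exact hthr o0.2 o0.1 hal
  have hfin : (O.filter bad).card ≤ (O.filter fun o => ¬ cov o).card +
      (O.filter fun o => cov o ∧ bad o).card := by
    refine (card_le_card (t := (O.filter fun o => ¬ cov o) ∪ (O.filter fun o => cov o ∧ bad o))
      fun o ho => ?_).trans (card_union_le _ _)
    rw [mem_filter] at ho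
    rw [mem_union, mem_filter, mem_filter]
    by_cases hc : cov o
    · exact Or.inr ⟨ho.1, hc, ho.2⟩
    · exact Or.inl ⟨ho.1, hc⟩
  have hfin' : ((O.filter bad).card : ℝ) ≤ ((O.filter fun o => ¬ cov o).card : ℝ) +
      ((O.filter fun o => cov o ∧ bad o).card : ℝ) := by exact_mod_cast hfin
  calc ((O.filter bad).card : ℝ) ≤ _ := hfin'
    _ ≤ δ * 2 ^ k * O.card + η * O.card := add_le_add hunc hcb
    _ = _ := by ring

/-- a set of pairs which is a small part of all pairs carries a small part of the incidences -/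
theorem bad_inc (I : Finset (ℕ × ℝ)) (i : ℕ) (bad : ℕ × ℤ → Prop) [DecidablePred bad]
    {lo hi κ : ℝ} (hlo : 0 < lo) (hhi : 0 ≤ hi) (hκ : 0 ≤ κ)
    (h1 : ∀ x ∈ I, lo ≤ ((I.filter fun y => lc i y = lc i x).card : ℝ))
    (h2 : ∀ x ∈ I, ((I.filter fun y => lc i y = lc i x).card : ℝ) ≤ hi)
    (h3 : (((I.image (lc i)).filter bad).card : ℝ) ≤ κ * ((I.image (lc i)).card : ℝ)) :
    ((I.filter fun x => bad (lc i x)).card : ℝ) ≤ κ * (hi / lo) * I.card := by
  classical
  have e1 : ((I.filter fun x => bad (lc i x)).card : ℝ) ≤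
      (((I.image (lc i)).filter bad).card : ℝ) * hi := by
    have hm : ∀ x ∈ I.filter fun x => bad (lc i x), lc i x ∈ (I.image (lc i)).filter bad := by
      intro x hx
      rw [mem_filter] at hx
      exact mem_filter.2 ⟨mem_image_of_mem _ hx.1, hx.2⟩
    rw [card_eq_sum_card_fiberwise hm]
    push_cast
    refine (sum_le_sum (g := fun _ => hi) ?_).trans ?_
    · intro o ho
      rw [mem_filter] at ho
      obtain ⟨x, hx, rfl⟩ := mem_image.1 ho.1
      refine le_trans ?_ (h2 x hx)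
      exact_mod_cast card_le_card (filter_subset_filter _ (filter_subset _ _))
    · rw [sum_const, nsmul_eq_mul]
  have e2 : ((I.image (lc i)).card : ℝ) * lo ≤ I.card := by
    rw [card_eq_sum_card_image (lc i) I]
    push_cast
    rw [← nsmul_eq_mul, ← sum_const]
    refine sum_le_sum fun o ho => ?_
    obtain ⟨x, hx, rfl⟩ := mem_image.1 ho
    exact h1 x hx
  have e3 : ((I.image (lc i)).card : ℝ) ≤ I.card / lo := by rw [le_div_iff₀ hlo]; exact e2
  calc ((I.filter fun x => bad (lc i x)).card : ℝ) ≤ _ := e1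
    _ ≤ κ * ((I.image (lc i)).card : ℝ) * hi := mul_le_mul_of_nonneg_right h3 hhi
    _ ≤ κ * (I.card / lo) * hi :=
        mul_le_mul_of_nonneg_right (mul_le_mul_of_nonneg_left e3 hκ) hhi
    _ = _ := by ring

section

variable {σ κ : Type} {B : Base} {I : ℕ → Finset (ℕ × ℝ)} {G : Geo σ κ} {lev : ℕ → ℚ → ℕ}
    {A : ℕ → ℝ} {g : ℝ} {τ : κ → ℝ → ℝ} {f : ℕ → ℚ → ℕ → ℤ → ℕ} {b : ℕ → ℚ → ℕ → σ}
    {vm : ℕ → ℚ → ℝ} {w : κ → ℕ → ℚ → ℝ} {r0 : ℕ → ℝ}

open Classical in
/-- deep D-max at the level `lev n v + k` -/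
def DeepAt (B : Base) (I : ℕ → Finset (ℕ × ℝ)) (G : Geo σ κ) (lev : ℕ → ℚ → ℕ) (A : ℕ → ℝ) (g : ℝ)
    (v : ℚ) (k : ℕ) : Prop :=
  ∀ ε : ℝ, 0 < ε → ∃ P : ℕ → Finset (ℕ × ℤ), (∀ n, P n ⊆ extO (I n) (lev n 1) (lev n v + k)) ∧
    (∃ γ : ℝ, 0 < γ ∧ ∀ᶠ n in (U : Filter ℕ), ((extO (I n) (lev n 1) (lev n v + k)).card : ℝ) ≤
      (P n).card + B.d n ^ γ * (extO (I n) (lev n 1) (lev n v + k)).card) ∧
    ∀ᶠ n in (U : Filter ℕ), ∀ (j : ℤ) (s : σ), G.adm n (lev n v + k) j s →
      (((P n).filter fun o => o.2 = j ∧ G.mem n (lev n v + k) j s o.1).card : ℝ) ≤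
        B.d n ^ (-ε) * (A n * B.d n ^ (-(g * v))) * 2 ^ ((g + ε) * k) * G.val n (lev n v + k) j s

theorem dense_self (B : Base) (I : ℕ → Finset (ℕ × ℝ)) : Dense B I I :=
  ⟨Eventually.of_forall fun n => Subset.rfl, fun η hη =>
    Eventually.of_forall fun n => by
      have := dpow_le_one B n hη.le
      have h0 : (0:ℝ) ≤ ((I n).card : ℝ) := Nat.cast_nonneg _
      nlinarith⟩

theorem deepAt_of {v : ℚ} (hv0 : 0 ≤ v) (hv1 : v ≤ 1) {k : ℕ} (hd : DeepP B I G lev A g r0)
    (hr0 : ∀ᶠ n in (U : Filter ℕ), r0 n ≤ rho (lev n v + k)) : DeepAt B I G lev A g v k := by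
  intro ε hε
  obtain ⟨P, hP, hcard, hmax⟩ := hd v hv0 hv1 (fun n => lev n v + k)
    (Eventually.of_forall fun n => Nat.le_add_right _ _) hr0 I (dense_self B I) ε hε
  refine ⟨P, hP, hcard, ?_⟩
  filter_upwards [hmax] with n hn j s hs
  have := hn j s hs
  have e1 : (((lev n v + k : ℕ) : ℝ) - (lev n v : ℝ)) = k := by push_cast; ring
  simp only [e1] at this
  exact this

open Classical in
/-- **rich sub-cells** for a marked sequence -/
theorem rich_cell (h : MkA B I G lev A (fun v => g * v) (fun v => 0 * v) τ f b vm w)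
    {v : ℚ} (hv0 : 0 ≤ v) (hv1 : v ≤ 1) {k : ℕ} (hd : DeepAt B I G lev A g v k)
    (N : ℕ → ℤ → ℕ → ℕ → Prop) {K : ℝ} (hK : 0 ≤ K)
    (poor : ∀ᶠ n in (U : Filter ℕ), ∀ J : ℤ, ∀ t0 ∈ alive (I n) (lev n v) J,
      ∀ A' ⊆ (alive (I n) (lev n v) J).filter fun s => f n v s J = f n v t0 J,
      ∀ θ : ℝ, 0 ≤ θ →
        ((A'.filter fun t => ((A'.filter fun t' => N n J t t').card : ℝ) < θ * A'.card).card : ℝ) ≤
          K * (θ * A'.card)) {ε ε' : ℝ} (hε : 0 < ε) (hε' : 0 < ε') :
    ∃ P : ℕ → Finset (ℕ × ℤ), (∀ n, P n ⊆ extO (I n) (lev n 1) (lev n v + k)) ∧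
      (∀ᶠ n in (U : Filter ℕ), ∀ (j : ℤ) (s : σ), G.adm n (lev n v + k) j s →
        (((P n).filter fun o => o.2 = j ∧ G.mem n (lev n v + k) j s o.1).card : ℝ) ≤
          B.d n ^ (-ε') * (A n * B.d n ^ (-(g * v))) * 2 ^ ((g + ε') * k) *
            G.val n (lev n v + k) j s) ∧
      Negl B I fun n x => ∀ j : ℤ, j / 2 ^ k = zc (lev n v) x.2 →
        (((alive (I n) (lev n v) (zc (lev n v) x.2)).filter fun t' =>
          f n v t' (zc (lev n v) x.2) = f n v x.1 (zc (lev n v) x.2) ∧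
            N n (zc (lev n v) x.2) x.1 t' ∧ (t', j) ∈ P n).card : ℝ) <
          B.d n ^ ε * (ampA B A (fun v => g * v) n v * vm n v) := by
  obtain ⟨P, hP, ⟨γ, hγ, hcard⟩, hmax⟩ := hd ε' hε'
  refine ⟨P, hP, hmax, ?_⟩
  · set μ : ℝ := min γ ε / 8 with hμ
    have hμ0 : 0 < μ := by rw [hμ]; positivity
    have hμγ : 8 * μ ≤ γ := by rw [hμ]; linarith [min_le_left γ ε]
    have hμε : 8 * μ ≤ ε := by rw [hμ]; linarith [min_le_right γ ε]
    refine ⟨μ, hμ0, ?_⟩
    have hC : 0 < (1 + K) * 2 ^ k := by positivity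
    filter_upwards [hcard, h.lev_mono v 1 hv0 hv1 le_rfl, h.near v hv0 hv1 (ε / 2) (by linarith),
      fib_bounds h v hv0 hv1 hμ0, ev_const_mul B hC hμ0, h.vpos v hv0 hv1, poor]
      with n n1 n2 n3 n4 n5 n6 n7
    have hdp := fun a => dpow_pos B n a
    have hamp : 0 < ampA B A (fun v => g * v) n v := mul_pos (h.Apos n) (hdp _)
    have hR := rich_fin (I n) n2 (P n) (hP n) (hdp γ).le n1 (f n v) (N n) hK
      (thr := B.d n ^ ε * (ampA B A (fun v => g * v) n v * vm n v))
      (η := K * 2 ^ k * B.d n ^ (ε / 2)) (by have := hdp ε; positivity)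
      (by have := hdp (ε / 2); positivity) n7 (by
        intro J t ht
        have h3 := n3 J t ht
        have e1 : B.d n ^ ε = B.d n ^ (ε / 2) * B.d n ^ (ε / 2) := by rw [← dpow_add]; congr 1; ring
        have e2 : B.d n ^ (ε / 2) * B.d n ^ (-(ε / 2)) = 1 := by
          rw [← dpow_add, add_neg_cancel, Real.rpow_zero]
        have h4 : B.d n ^ (ε / 2) * (ampA B A (fun v => g * v) n v * vm n v) ≤
            (((alive (I n) (lev n v) J).filter fun s => f n v s J = f n v t J).card : ℝ) := by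
          refine (mul_le_mul_of_nonneg_left h3 (hdp (ε / 2)).le).trans (le_of_eq ?_)
          rw [← mul_assoc, e2, one_mul]
        calc K * (2 ^ k * (B.d n ^ ε * (ampA B A (fun v => g * v) n v * vm n v)))
            = K * 2 ^ k * B.d n ^ (ε / 2) *
              (B.d n ^ (ε / 2) * (ampA B A (fun v => g * v) n v * vm n v)) := by rw [e1]; ring
          _ ≤ _ := mul_le_mul_of_nonneg_left h4 (by have := hdp (ε / 2); positivity))
    have hB := bad_inc (I n) (lev n v) (fun o => ∀ j : ℤ, j / 2 ^ k = o.2 →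
        (((alive (I n) (lev n v) o.2).filter fun t' => f n v t' o.2 = f n v o.1 o.2 ∧
          N n o.2 o.1 t' ∧ (t', j) ∈ P n).card : ℝ) <
          B.d n ^ ε * (ampA B A (fun v => g * v) n v * vm n v)) (hdp _) (hdp _).le
        (by have := hdp γ; have := hdp (ε / 2); positivity) (fun x hx => (n4 x hx).1)
        (fun x hx => (n4 x hx).2) hR
    refine le_trans (le_of_eq ?_) (hB.trans ?_)
    · rfl
    · have h0 : (0:ℝ) ≤ ((I n).card : ℝ) := Nat.cast_nonneg _
      refine mul_le_mul_of_nonneg_right ?_ h0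
      rw [← Real.rpow_sub (B.pos n)]
      have e1 : -(1 - (v:ℝ)) + (0 * (1:ℝ) - 0 * (v:ℝ)) - μ - (-(1 - (v:ℝ)) + (0 * (1:ℝ) - 0 * (v:ℝ)) + μ)
          = -(2 * μ) := by ring
      rw [e1]
      have a1 : B.d n ^ γ ≤ B.d n ^ (4 * μ) := dpow_le B n (by linarith)
      have a2 : B.d n ^ (ε / 2) ≤ B.d n ^ (4 * μ) := dpow_le B n (by linarith)
      have a3 : B.d n ^ (4 * μ) * B.d n ^ (-(2 * μ)) = B.d n ^ μ * B.d n ^ μ := by
        rw [← dpow_add, ← dpow_add]; congr 1; ring
      have p1 := hdp (-(2 * μ))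
      have p2 := hdp μ
      calc (B.d n ^ γ * 2 ^ k + K * 2 ^ k * B.d n ^ (ε / 2)) * B.d n ^ (-(2 * μ))
          ≤ (B.d n ^ (4 * μ) * 2 ^ k + K * 2 ^ k * B.d n ^ (4 * μ)) * B.d n ^ (-(2 * μ)) := by gcongr
        _ = (1 + K) * 2 ^ k * (B.d n ^ (4 * μ) * B.d n ^ (-(2 * μ))) := by ring
        _ = ((1 + K) * 2 ^ k * B.d n ^ μ) * B.d n ^ μ := by rw [a3]; ring
        _ ≤ 1 * B.d n ^ μ := mul_le_mul_of_nonneg_right n5 p2.le
        _ = _ := one_mul _

end

end Crest.Agent.R136.Ndc335
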