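import Crest.Agent.R136.Rig9_418

/-!
# R136, (RIG) on an `RModel`, dense part with one slope (helper418)
-/

set_option autoImplicit false
set_option linter.unusedVariables false
set_option linter.unusedSectionVars false

open Filter Topology Finset

namespace Crest.Agent.R136.Rig418

open Crest.Agent.R138.Ex926 (Base U exists_diag)
open Crest.Agent.R138.Tub70 (KM32)
open Crest.Agent.R138.Dp76
open Crest.Agent.R138.Ps627 Crest.Agent.R138.Ps926
open Crest.Agent.R136.Gf356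
open Crest.Agent.R136.Prn779

variable {κ : Type}

open Classical in
/-- **popular set of lines**: for every `m`, `ρ^(1/(m+1))` of the lines satisfy `E m`. -/
theorem RModel.pop_set [Finite κ] {B : Base} {G : ℕ → RCfg κ} {σ R : ℝ}
    {Leg : Set (κ → ℝ)} {ν : (κ → ℝ) → ℝ} {D : ℝ} (H : RModel B G σ R Leg ν D)
    {α : Type} [Inhabited α] (E : ℕ → ℕ → α → ℕ → Prop)
    (hE : ∀ m : ℕ, ∀ᶠ n in (U : Filter ℕ), ∃ a : α, B.d n ^ (1 / ((m : ℝ) + 1)) * ((G n).L.card : ℝ) ≤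
      ((((G n).L).filter fun l => E m n a l).card : ℝ))
    {P : Type*} [Countable P] (Ru ru : P → ∀ n, ℕ × ℕ → ℕ × ℕ → Prop)
    (hself : ∀ j, ∀ᶠ n in (U : Filter ℕ), ∀ i ∈ (G n).I, Ru j n i i)
    (hdisj : ∀ j, ∀ᶠ n in (U : Filter ℕ), ∀ i ∈ (G n).I, ∀ i' ∈ (G n).I, ∀ l ∈ (G n).I,
      ru j n i l → ru j n i' l → Ru j n i i') :
    ∃ I' : ℕ → Finset (ℕ × ℕ), (∀ n, I' n ⊆ (G n).I) ∧ Dense B I' (fun n => (G n).I) ∧
      RModel B (fun n => restr (G n) (I' n)) σ R Leg ν D ∧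
      (∀ j, ∀ ε : ℝ, 0 < ε → ∀ᶠ n in (U : Filter ℕ), ∀ i ∈ I' n,
        B.d n ^ ε * ((((G n).I).filter fun l => ru j n i l).card : ℝ) ≤
          (((I' n).filter fun l => Ru j n i l).card : ℝ)) ∧
      ∃ (s : ℕ → ℕ) (a : ℕ → α), Tendsto s U atTop ∧
        ∀ᶠ n in (U : Filter ℕ), ∀ l k, (l, k) ∈ I' n → E (s n) n (a n) l := by
  obtain ⟨s, hs, hs2⟩ := exists_diag (fun m n => ∃ a : α,
    B.d n ^ (1 / ((m : ℝ) + 1)) * ((G n).L.card : ℝ) ≤
      ((((G n).L).filter fun l => E m n a l).card : ℝ)) hE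
  have hex : ∀ n, ∃ a : α, (∀ j ≤ s n, ∃ a : α,
      B.d n ^ (1 / ((j : ℝ) + 1)) * ((G n).L.card : ℝ) ≤
      ((((G n).L).filter fun l => E j n a l).card : ℝ)) →
      B.d n ^ (1 / ((s n : ℝ) + 1)) * ((G n).L.card : ℝ) ≤
      ((((G n).L).filter fun l => E (s n) n a l).card : ℝ) := by
    intro n
    by_cases h : ∀ j ≤ s n, ∃ a : α, B.d n ^ (1 / ((j : ℝ) + 1)) * ((G n).L.card : ℝ) ≤
      ((((G n).L).filter fun l => E j n a l).card : ℝ)
    · obtain ⟨a, ha⟩ := h (s n) le_rfl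
      exact ⟨a, fun _ => ha⟩
    · exact ⟨default, fun h' => absurd h' h⟩
  choose a ha using hex
  set J : ℕ → Finset (ℕ × ℕ) := fun n => (G n).I.filter fun y => E (s n) n (a n) y.1 with hJdef
  have hJ : Dense B J (fun n => (G n).I) := by
    refine ⟨Eventually.of_forall fun n => filter_subset _ _, fun η hη => ?_⟩
    have h1 : ∀ᶠ n in (U : Filter ℕ), 1 / ((s n : ℝ) + 1) ≤ η / 2 := by
      have h3 := (tendsto_one_div_add_atTop_nhds_zero_nat.comp hs).eventually_lt_const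
        (show (0 : ℝ) < η / 2 by positivity)
      filter_upwards [h3] with n hn using hn.le
    filter_upwards [h1, hs2, card_lines H (ε := η / 2) (by positivity)] with n a1 a2 a3
    set T := (((G n).L).filter fun l => E (s n) n (a n) l) with hT
    have b1 : B.d n ^ (1 / ((s n : ℝ) + 1)) * ((G n).L.card : ℝ) ≤ (T.card : ℝ) := ha n a2
    have b3 := a3 T (filter_subset _ _)
    have b4 : ((((G n).I).filter fun y => y.1 ∈ T).card : ℝ) ≤ ((J n).card : ℝ) := by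
      refine Nat.cast_le.2 (card_le_card fun y hy => ?_)
      rw [mem_filter] at hy
      rw [hJdef, mem_filter]
      exact ⟨hy.1, (mem_filter.1 hy.2).2⟩
    have b5 : (((G n).I).card : ℝ) ≤ ((G n).L.card : ℝ) * ((G n).Z.card : ℝ) := by
      have := card_le_card (H.sub n)
      rw [card_product] at this
      exact_mod_cast this
    have b6 : B.d n ^ (η / 2) ≤ B.d n ^ (1 / ((s n : ℝ) + 1)) := dpow_le B n a1
    have b7 : B.d n ^ (η / 2) * ((G n).L.card : ℝ) ≤ (T.card : ℝ) :=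
      (mul_le_mul_of_nonneg_right b6 (Nat.cast_nonneg _)).trans b1
    have b8 : B.d n ^ η = B.d n ^ (η / 2) * B.d n ^ (η / 2) := by
      rw [← dpow_add]; congr 1; ring
    calc B.d n ^ η * (((G n).I).card : ℝ)
        ≤ B.d n ^ η * (((G n).L.card : ℝ) * ((G n).Z.card : ℝ)) :=
          mul_le_mul_of_nonneg_left b5 (dpow_pos B n _).le
      _ = B.d n ^ (η / 2) * ((G n).Z.card : ℝ) * (B.d n ^ (η / 2) * ((G n).L.card : ℝ)) := by
          rw [b8]; ring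
      _ ≤ B.d n ^ (η / 2) * ((G n).Z.card : ℝ) * (T.card : ℝ) :=
          mul_le_mul_of_nonneg_left b7 (mul_nonneg (dpow_pos B n _).le (Nat.cast_nonneg _))
      _ ≤ _ := b3.trans b4
  obtain ⟨I', h1, h2, h3, h4, h5, h6⟩ := RModel.refine_core H hJ Ru ru hself hdisj
  refine ⟨I', h1, (dense_of_half (by filter_upwards [h2, h3] with n a b using ⟨a, b⟩)).trans hJ,
    h4, h6, s, a, hs, ?_⟩
  filter_upwards [h2] with n a1 l k hl
  have b1 := a1 hl
  rw [hJdef, mem_filter] at b1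
  exact b1.2

open Classical in
/-- **(RIG), refined configuration with one slope.** -/
theorem rig_refine [Finite κ] (hKM : ∀ V : ℝ, KM32 V) {B : Base} {G : ℕ → RCfg κ} {R : ℝ}
    {Leg : Set (κ → ℝ)} {ν : (κ → ℝ) → ℝ} {D : ℝ} (H : RModel B G 1 R Leg ν D)
    {V x μ C : ℝ} {A F c E : ℕ → ℕ → ℝ} {p0 pA : κ → ℝ} {pW : ℝ → ℝ → κ → ℝ}
    (h : RigIn B G Leg ν V x μ C A F c E p0 pA pW) (hxR : x ≤ R)
    {P : Type*} [Countable P] (Ru ru : P → ∀ n, ℕ × ℕ → ℕ × ℕ → Prop)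
    (hself : ∀ j, ∀ᶠ n in (U : Filter ℕ), ∀ i ∈ (G n).I, Ru j n i i)
    (hdisj : ∀ j, ∀ᶠ n in (U : Filter ℕ), ∀ i ∈ (G n).I, ∀ i' ∈ (G n).I, ∀ l ∈ (G n).I,
      ru j n i l → ru j n i' l → Ru j n i i') :
    ∃ I' : ℕ → Finset (ℕ × ℕ), (∀ n, I' n ⊆ (G n).I) ∧ Dense B I' (fun n => (G n).I) ∧
      RModel B (fun n => restr (G n) (I' n)) 1 R Leg ν D ∧
      (∀ j, ∀ ε : ℝ, 0 < ε → ∀ᶠ n in (U : Filter ℕ), ∀ i ∈ I' n,
        B.d n ^ ε * ((((G n).I).filter fun l => ru j n i l).card : ℝ) ≤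
          (((I' n).filter fun l => Ru j n i l).card : ℝ)) ∧
      ∃ s F0 E0 : ℕ → ℝ, ∀ ε : ℝ, 0 < ε → ∀ᶠ n in (U : Filter ℕ), |s n| ≤ B.d n ^ (-ε) ∧
        ∀ l k, (l, k) ∈ I' n → |F n l - s n * A n l - F0 n| ≤ B.d n ^ (x - ε) ∧
          |E n l - s n * c n l - E0 n| ≤ B.d n ^ (x - ε) := by
  obtain ⟨I', h1, h2, h3, h4, s, a, hs, h5⟩ := RModel.pop_set H (α := ℝ × ℝ × ℝ)
    (fun m n a l => |a.1| ≤ B.d n ^ (-(1 / ((m : ℝ) + 1))) ∧
      |F n l - a.1 * A n l - a.2.1| ≤ B.d n ^ (x - 1 / ((m : ℝ) + 1)) ∧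
      |E n l - a.1 * c n l - a.2.2| ≤ B.d n ^ (x - 1 / ((m : ℝ) + 1)))
    (fun m => by
      filter_upwards [rig_model hKM H h hxR (η := 1 / ((m : ℝ) + 1)) (by positivity)] with n hn
      obtain ⟨s, F0, E0, e1, e2⟩ := hn
      refine ⟨(s, F0, E0), e2.trans (Nat.cast_le.mpr (Finset.card_le_card fun l hl => ?_))⟩
      simp only [Finset.mem_filter] at hl ⊢
      exact ⟨hl.1, e1, hl.2⟩)
    Ru ru hself hdisj
  refine ⟨I', h1, h2, h3, h4, fun n => (a n).1, fun n => (a n).2.1, fun n => (a n).2.2, ?_⟩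
  intro ε hε
  have hsε : ∀ᶠ n in (U : Filter ℕ), 1 / ((s n : ℝ) + 1) ≤ ε := by
    have h6 := (tendsto_one_div_add_atTop_nhds_zero_nat.comp hs).eventually_lt_const hε
    filter_upwards [h6] with n hn using hn.le
  filter_upwards [hsε, h5] with n b1 b2
  obtain ⟨⟨l0, k0⟩, hl0⟩ := h3.nonempty n
  have hl0' : (l0, k0) ∈ I' n := by
    simpa [restr] using hl0
  refine ⟨(b2 l0 k0 hl0').1.trans (dpow_le B n (by linarith)), ?_⟩
  intro l k hl
  obtain ⟨c1, c2, c3⟩ := b2 l k hl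
  exact ⟨c2.trans (dpow_le B n (by linarith)), c3.trans (dpow_le B n (by linarith))⟩

end Crest.Agent.R136.Rig418
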