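import Crest.Agent.R136.Rig2_418

/-!
# R136, (RIG), finite form, part 3 (helper418): the extremal plank

`rig_plank`: the plank given by Kakeya in `ℝ³`, with both inequalities (thin side of the width of
the resolution, long side long and transversal to `{⟪v, e⟫ = const}`).
-/

set_option autoImplicit false

open Finset

namespace Crest.Agent.R136.Rig418

open Crest.Agent.R138.Defs (E2)
open Crest.Agent.R136.Slb480
open Crest.Agent.R138.Tub70 (InPl KM32)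

open Classical in
/-- **(RIG), the extremal plank.** -/
theorem rig_plank (hKM : ∀ V : ℝ, KM32 V) (V : ℝ) (hV : 0 ≤ V) (ε : ℝ) (hε : 0 < ε) :
    ∃ C : ℝ, 0 < C ∧ ∀ H : ℕ, 1 ≤ H → V + 2 ≤ (H : ℝ) → ∀ (ι : Type) [Fintype ι] [Nonempty ι]
      (p v : ι → E2) (e : E2) (I : Finset (ι × ℤ)) (m lam K a μ : ℝ), 0 < m → 0 < lam → 0 < K →
      0 ≤ a → a ≤ 2 → 0 ≤ μ → ‖e‖ ≤ 1 →
      (∀ i, ‖p i‖ ≤ V ∧ ‖v i‖ ≤ V) → (∀ x ∈ I, |x.2| ≤ (H : ℤ)) →
      (∀ i, lam * H ≤ ((I.filter fun x => x.1 = i).card : ℝ)) →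
      (∀ x ∈ I, m ≤ ((I.filter fun y => y.2 = x.2 ∧
        ‖ps p v y.1 (x.2 / H) - ps p v x.1 (x.2 / H)‖ ≤ 1 / H).card : ℝ)) →
      (∀ i, ∀ r w : ℝ, 1 / (H : ℝ) ≤ r → 1 / (H : ℝ) ≤ w →
        ((Finset.univ.filter fun i' => ‖p i' - p i‖ ≤ r ∧ |inner ℝ (v i' - v i) e| ≤ w).card : ℝ) ≤
          K * (m * (r * H) ^ a) * w ^ μ) →
      ∃ (b : OrthonormalBasis (Fin 2) ℝ E2) (s : Fin 2 → ℝ) (p0 v0 : E2) (j0 j1 : Fin 2),
        j0 ≠ j1 ∧ s j0 ≤ s j1 ∧ (∀ j, 1 / (H : ℝ) ≤ s j ∧ s j ≤ 1) ∧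
        (s j0 * H) ^ (2 - a) ≤ C * K * (H : ℝ) ^ ε / lam ^ 2 *
          (4 * (|inner ℝ e (b j1)| * s j1 + s j0)) ^ μ ∧
        m * lam ^ 2 / (C * (H : ℝ) ^ ε) * (s j0 * s j1) * (H : ℝ) ^ 2 ≤
          ((Finset.univ.filter fun i => InPl b s p0 v0 (p i) (v i)).card : ℝ) := by
  obtain ⟨C, hC, key⟩ := exists_plank hKM V hV ε hε
  refine ⟨80 * C, by positivity, ?_⟩
  intro H hH hHV ι _ _ p v e I m lam K a μ hm hlam hK ha0 ha2 hμ he hpv hI hline hmult hU
  have hH0 : (0 : ℝ) < H := by exact_mod_cast hH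
  have hHε : 0 < (H : ℝ) ^ ε := Real.rpow_pos_of_pos hH0 ε
  obtain ⟨b, s, p0, v0, hs, hcard⟩ := key H hH hHV ι p v I m lam hm hlam hpv hI hline hmult
  -- the thin index
  obtain ⟨j0, j1, hj, hs01⟩ : ∃ j0 j1 : Fin 2, j0 ≠ j1 ∧ s j0 ≤ s j1 := by
    rcases le_total (s 0) (s 1) with h | h
    · exact ⟨0, 1, by decide, h⟩
    · exact ⟨1, 0, by decide, h⟩
  have hprod : s 0 * s 1 = s j0 * s j1 := by
    rcases fin2_pair hj with ⟨e0, e1⟩ | ⟨e0, e1⟩
    · rw [e0, e1]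
    · rw [e0, e1, mul_comm]
  have hs0 : 0 < s j0 := lt_of_lt_of_le (by positivity) (hs j0).1
  have hs1 : 0 < s j1 := lt_of_lt_of_le hs0 hs01
  rw [hprod] at hcard
  have hDpos : 0 < m * lam ^ 2 / (C * (H : ℝ) ^ ε) * (s j0 * s j1) * (H : ℝ) ^ 2 := by
    positivity
  have hne : (Finset.univ.filter fun i => InPl b s p0 v0 (p i) (v i)).Nonempty := by
    rw [← Finset.card_pos]
    have : (0 : ℝ) < ((Finset.univ.filter fun i => InPl b s p0 v0 (p i) (v i)).card : ℝ) :=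
      hDpos.trans hcard
    exact_mod_cast this
  obtain ⟨i1, hi1, hball⟩ := plank_ball p v b s p0 v0 hj hs0 hs01 hne
  set r : ℝ := s j0 with hr
  have hr1 : r ≤ 1 := (hs j0).2
  have hrH : 1 ≤ r * H := by
    have := (hs j0).1
    rw [div_le_iff₀ hH0] at this
    exact this
  set Nb : ℝ := ((Finset.univ.filter fun i => InPl b s p0 v0 (p i) (v i) ∧
          ‖p i - p i1‖ ≤ 4 * r).card : ℝ) with hNb
  -- lower bound for the ball
  have hlow : m * lam ^ 2 * (r * H) ^ (2 : ℕ) / (5 * (C * (H : ℝ) ^ ε)) ≤ Nb := by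
    have h1 : m * lam ^ 2 / (C * (H : ℝ) ^ ε) * (s j0 * s j1) * (H : ℝ) ^ 2 <
        5 * (s j1 / s j0) * Nb := lt_of_lt_of_le hcard hball
    have h2 : m * lam ^ 2 / (C * (H : ℝ) ^ ε) * (s j0 * s j1) * (H : ℝ) ^ 2 =
        5 * (s j1 / s j0) * (m * lam ^ 2 * (r * H) ^ (2 : ℕ) / (5 * (C * (H : ℝ) ^ ε))) := by
      rw [hr]
      field_simp
    rw [h2] at h1
    exact (lt_of_mul_lt_mul_left h1 (by positivity)).le
  have hstrip : ∀ i, InPl b s p0 v0 (p i) (v i) → ∀ j, |inner ℝ (v i - v i1) (b j)| ≤ 4 * s j := by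
    intro i hi j
    rw [show v i - v i1 = (v i - v0) - (v i1 - v0) by abel, inner_sub_left]
    have g1 := InPl.vel hi j
    have g2 := InPl.vel hi1 j
    rw [abs_le] at g1 g2 ⊢
    constructor <;> linarith [g1.1, g1.2, g2.1, g2.2]
  have heb : ∀ j, |inner ℝ e (b j)| ≤ 1 := by
    intro j
    refine (abs_real_inner_le_norm _ _).trans ?_
    rw [b.norm_eq_one, mul_one]
    exact he
  set W : ℝ := 4 * (|inner ℝ e (b j1)| * s j1 + r) with hW
  have hW0 : 1 / (H : ℝ) ≤ W := by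
    have h1 := (hs j0).1
    have h2 : 0 ≤ |inner ℝ e (b j1)| * s j1 := mul_nonneg (abs_nonneg _) hs1.le
    rw [hW]; linarith
  -- upper bound for the ball
  have hup : Nb ≤ K * (m * (4 * r * H) ^ a) * W ^ μ := by
    refine le_trans ?_ (hU i1 (4 * r) W (by linarith [(hs j0).1]) hW0)
    rw [hNb]
    norm_cast
    refine Finset.card_le_card fun i hi => ?_
    rw [Finset.mem_filter] at hi ⊢
    refine ⟨Finset.mem_univ _, hi.2.2, ?_⟩
    have h1 := inner_le_of_coord b (v i - v i1) e (s := fun j => 4 * s j) (hstrip i hi.2.1)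
    refine h1.trans ?_
    have h2 : ∑ j, |inner ℝ e (b j)| * (4 * s j) =
        |inner ℝ e (b j0)| * (4 * s j0) + |inner ℝ e (b j1)| * (4 * s j1) := by
      rw [Fin.sum_univ_two]
      rcases fin2_pair hj with ⟨e0, e1⟩ | ⟨e0, e1⟩
      · rw [e0, e1]
      · rw [e0, e1, add_comm]
    rw [h2]
    have h3 : |inner ℝ e (b j0)| * (4 * s j0) ≤ 4 * r := by
      have := mul_le_mul_of_nonneg_right (heb j0) (by positivity : 0 ≤ 4 * s j0)
      linarith
    rw [hW]; linarith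
  refine ⟨b, s, p0, v0, j0, j1, hj, hs01, hs, ?_, ?_⟩
  · -- thinness
    have h1 := hlow.trans hup
    have hrH0 : 0 < r * H := by positivity
    have h4 : (4 * r * H) ^ a ≤ 16 * (r * H) ^ a := by
      rw [mul_assoc, Real.mul_rpow (by norm_num) hrH0.le]
      refine mul_le_mul_of_nonneg_right ?_ (Real.rpow_nonneg hrH0.le _)
      calc (4 : ℝ) ^ a ≤ 4 ^ (2 : ℝ) := Real.rpow_le_rpow_of_exponent_le (by norm_num) ha2
        _ = 16 := by norm_num
    have hWμ : 0 ≤ W ^ μ := Real.rpow_nonneg (le_trans (by positivity) hW0) _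
    have h5 : m * lam ^ 2 * (r * H) ^ (2 : ℕ) / (5 * (C * (H : ℝ) ^ ε)) ≤
        K * (m * (16 * (r * H) ^ a)) * W ^ μ := by
      refine h1.trans ?_
      refine mul_le_mul_of_nonneg_right ?_ hWμ
      refine mul_le_mul_of_nonneg_left ?_ hK.le
      exact mul_le_mul_of_nonneg_left h4 hm.le
    rw [div_le_iff₀ (by positivity)] at h5
    have h6 : (r * H) ^ (2 - a) = (r * H) ^ (2 : ℕ) / (r * H) ^ a := by
      rw [Real.rpow_sub hrH0]
      norm_num
    rw [h6, div_le_iff₀ (Real.rpow_pos_of_pos hrH0 _)]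
    have h7 : m * (lam ^ 2 * (r * H) ^ (2 : ℕ)) ≤
        m * (80 * C * K * (H : ℝ) ^ ε * W ^ μ * (r * H) ^ a) := by
      refine le_trans (le_of_eq (by ring)) (h5.trans (le_of_eq ?_))
      ring
    have h8 := le_of_mul_le_mul_left h7 hm
    have h9 : 80 * C * K * (H : ℝ) ^ ε / lam ^ 2 * W ^ μ * (r * H) ^ a =
        (80 * C * K * (H : ℝ) ^ ε * W ^ μ * (r * H) ^ a) / lam ^ 2 := by ring
    rw [h9, le_div_iff₀ (by positivity)]
    linarith
  · refine le_trans ?_ hcard.le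
    refine mul_le_mul_of_nonneg_right (mul_le_mul_of_nonneg_right ?_ (by positivity))
      (by positivity)
    refine div_le_div_of_nonneg_left (by positivity) (by positivity) ?_
    nlinarith [mul_pos hC hHε]

end Crest.Agent.R136.Rig418
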