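import Crest.Agent.R136.Rig3_418

/-!
# R136, (RIG), finite form, part 4 (helper418): whole class, coordinates

Lines of `ℝ³` in coordinates: position `(A + z c, F + z E)`. If the lines are as few as the marks of
ONE coordinate allow (`#ι ≤ m H^(1+ε)`: the flag `F` costs nothing given the position) and `c` is
not concentrated, then a part `≥ H^(-η)` of ALL lines satisfies `F = s A + F0`, `E = s c + E0` up to
`H^(η-1)`, with ONE slope `|s| ≤ H^η`.
-/

set_option autoImplicit false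

open Finset

namespace Crest.Agent.R136.Rig418

open Crest.Agent.R138.Defs (E2)
open Crest.Agent.R136.Slb480
open Crest.Agent.R138.Tub70 (InPl KM32)

lemma e2_norm_le (x : E2) : ‖x‖ ≤ |x 0| + |x 1| := by
  rw [EuclideanSpace.norm_eq, Fin.sum_univ_two]
  refine Real.sqrt_le_iff.mpr ⟨by positivity, ?_⟩
  rw [Real.norm_eq_abs, Real.norm_eq_abs]
  nlinarith [abs_nonneg (x 0), abs_nonneg (x 1)]

lemma e2_inner (x y : E2) : inner ℝ x y = x 0 * y 0 + x 1 * y 1 := by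
  rw [PiLp.inner_apply, Fin.sum_univ_two]
  simp [mul_comm]

/-- in the plane the two entries off the diagonal of a rotation agree -/
lemma basis_cross (b : OrthonormalBasis (Fin 2) ℝ E2) {j0 j1 : Fin 2} (hj : j0 ≠ j1) :
    |(b j0) 1| = |(b j1) 0| := by
  have h1 : (b j0) 0 ^ 2 + (b j0) 1 ^ 2 = 1 := by
    have := b.norm_eq_one j0
    rw [EuclideanSpace.norm_eq, Fin.sum_univ_two, Real.sqrt_eq_one, Real.norm_eq_abs,
      Real.norm_eq_abs, sq_abs, sq_abs] at this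
    exact this
  have h2 : (b j0) 0 ^ 2 + (b j1) 0 ^ 2 = 1 := by
    set e : E2 := EuclideanSpace.single 0 1 with he
    have h3 := b.sum_sq_norm_inner_right e
    have h4 : ∀ j, inner ℝ (b j) e = (b j) 0 := by
      intro j
      rw [e2_inner, he]
      simp
    have h5 : ‖e‖ = 1 := by rw [he]; simp
    rw [Fin.sum_univ_two, h4, h4, h5, Real.norm_eq_abs, Real.norm_eq_abs, sq_abs, sq_abs] at h3
    rcases fin2_pair hj with ⟨e0, e1⟩ | ⟨e0, e1⟩
    · rw [e0, e1]; linarith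
    · rw [e0, e1]; linarith
  rw [← sq_eq_sq_iff_abs_eq_abs]
  linarith

/-- powers of a large number beat constants -/
lemma exists_large (c t : ℝ) (ht : 0 < t) : ∃ H0 : ℕ, ∀ H : ℕ, H0 ≤ H → c ≤ (H : ℝ) ^ t := by
  have h1 : Filter.Tendsto (fun n : ℕ => (n : ℝ) ^ t) Filter.atTop Filter.atTop :=
    (tendsto_rpow_atTop ht).comp tendsto_natCast_atTop_atTop
  obtain ⟨H0, h⟩ := Filter.eventually_atTop.mp (h1.eventually_ge_atTop c)
  exact ⟨H0, h⟩

open Classical in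
/-- **(RIG), whole class, coordinates.** Lines `(A i + z c i, F i + z E i)` of `ℝ³`. -/
theorem rig_class (hKM : ∀ V : ℝ, KM32 V) (V : ℝ) (hV : 0 ≤ V) (μ η : ℝ) (hμ : 0 < μ)
    (hη : 0 < η) : ∃ ε : ℝ, 0 < ε ∧ ∃ H0 : ℕ, ∀ H : ℕ, H0 ≤ H →
    ∀ (ι : Type) [Fintype ι] [Nonempty ι] (A F c E : ι → ℝ) (I : Finset (ι × ℤ)) (m : ℝ), 0 < m →
      (∀ i, |A i| ≤ V ∧ |F i| ≤ V ∧ |c i| ≤ V ∧ |E i| ≤ V) → (∀ x ∈ I, |x.2| ≤ (H : ℤ)) →
      (∀ i, (H : ℝ) ^ (1 - ε) ≤ ((I.filter fun x => x.1 = i).card : ℝ)) →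
      (∀ x ∈ I, m ≤ ((I.filter fun y => y.2 = x.2 ∧
        |(A y.1 + x.2 / H * c y.1) - (A x.1 + x.2 / H * c x.1)| ≤ 1 / (2 * H) ∧
        |(F y.1 + x.2 / H * E y.1) - (F x.1 + x.2 / H * E x.1)| ≤ 1 / (2 * H)).card : ℝ)) →
      (Fintype.card ι : ℝ) ≤ m * (H : ℝ) ^ (1 + ε) →
      (∀ i, ∀ r w : ℝ, 1 / (H : ℝ) ≤ r → 1 / (H : ℝ) ≤ w →
        ((Finset.univ.filter fun i' => |A i' - A i| ≤ r ∧ |F i' - F i| ≤ r ∧
          |c i' - c i| ≤ w).card : ℝ) ≤ (H : ℝ) ^ ε * (m * (r * H)) * w ^ μ) →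
      ∃ s F0 E0 : ℝ, |s| ≤ (H : ℝ) ^ η ∧
        (Fintype.card ι : ℝ) * (H : ℝ) ^ (-η) ≤
          ((Finset.univ.filter fun i => |F i - s * A i - F0| ≤ (H : ℝ) ^ (η - 1) ∧
            |E i - s * c i - E0| ≤ (H : ℝ) ^ (η - 1)).card : ℝ) := by
  obtain ⟨η', hη', hη1, hηη⟩ : ∃ η' : ℝ, 0 < η' ∧ η' ≤ 1 ∧ η' ≤ η :=
    ⟨min η 1, lt_min hη one_pos, min_le_right _ _, min_le_left _ _⟩
  obtain ⟨ε, hε, hε1, hε2⟩ : ∃ ε : ℝ, 0 < ε ∧ ε ≤ η' / 16 ∧ ε ≤ η' * μ / 16 :=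
    ⟨min (η' / 16) (η' * μ / 16), lt_min (by positivity) (by positivity), min_le_left _ _,
      min_le_right _ _⟩
  obtain ⟨C, hC, key⟩ := rig_plank hKM (2 * V) (by positivity) ε hε
  -- thresholds
  set D : ℝ := C * 8 ^ μ with hD
  have hD0 : 0 < D := by positivity
  obtain ⟨H1, hH1⟩ := exists_large (C * (4 + 4 * D) ^ μ + 1) (η' * μ / 4) (by positivity)
  obtain ⟨H2, hH2⟩ := exists_large (2 * D + C) (η' / 4) (by positivity)
  obtain ⟨H3, hH3⟩ := exists_nat_ge (2 * V + 2)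
  refine ⟨ε, hε, max (max H1 H2) (max H3 1), ?_⟩
  intro H hHm ι _ _ A F c E I m hm hbd hI hline hmult hfew hU
  have hH1' := hH1 H (le_trans (le_trans (le_max_left _ _) (le_max_left _ _)) hHm)
  have hH2' := hH2 H (le_trans (le_trans (le_max_right _ _) (le_max_left _ _)) hHm)
  have hH3' : 2 * V + 2 ≤ (H : ℝ) := hH3.trans (by
    exact_mod_cast le_trans (le_trans (le_max_left _ _) (le_max_right _ _)) hHm)
  have hHge : 1 ≤ H := le_trans (le_trans (le_max_right _ _) (le_max_right _ _)) hHm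
  have hH0 : (0 : ℝ) < H := by exact_mod_cast hHge
  have hHR : (1 : ℝ) ≤ H := by exact_mod_cast hHge
  set p : ι → E2 := fun i => !₂[A i, F i] with hp
  set v : ι → E2 := fun i => !₂[c i, E i] with hv
  set e : E2 := EuclideanSpace.single 0 1 with he
  have hp0 : ∀ i, (p i) 0 = A i := fun i => by simp [hp]
  have hp1 : ∀ i, (p i) 1 = F i := fun i => by simp [hp]
  have hv0 : ∀ i, (v i) 0 = c i := fun i => by simp [hv]
  have hv1 : ∀ i, (v i) 1 = E i := fun i => by simp [hv]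
  have hpv : ∀ i, ‖p i‖ ≤ 2 * V ∧ ‖v i‖ ≤ 2 * V := by
    intro i
    obtain ⟨g1, g2, g3, g4⟩ := hbd i
    constructor
    · refine (e2_norm_le _).trans ?_
      rw [hp0, hp1]; linarith
    · refine (e2_norm_le _).trans ?_
      rw [hv0, hv1]; linarith
  have hlam : ∀ i, (H : ℝ) ^ (-ε) * H ≤ ((I.filter fun x => x.1 = i).card : ℝ) := by
    intro i
    refine le_trans (le_of_eq ?_) (hline i)
    rw [show (1 : ℝ) - ε = -ε + 1 by ring, Real.rpow_add hH0, Real.rpow_one]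
  have hmult' : ∀ x ∈ I, m ≤ ((I.filter fun y => y.2 = x.2 ∧
        ‖ps p v y.1 (x.2 / H) - ps p v x.1 (x.2 / H)‖ ≤ 1 / H).card : ℝ) := by
    intro x hx
    refine (hmult x hx).trans ?_
    refine Nat.cast_le.mpr (Finset.card_le_card fun y hy => ?_)
    rw [Finset.mem_filter] at hy ⊢
    refine ⟨hy.1, hy.2.1, ?_⟩
    refine (e2_norm_le _).trans ?_
    have e0 : (ps p v y.1 (x.2 / H) - ps p v x.1 (x.2 / H)) 0 =
        (A y.1 + x.2 / H * c y.1) - (A x.1 + x.2 / H * c x.1) := by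
      simp only [ps, PiLp.sub_apply, PiLp.add_apply, PiLp.smul_apply, smul_eq_mul, hp0, hv0]
    have e1 : (ps p v y.1 (x.2 / H) - ps p v x.1 (x.2 / H)) 1 =
        (F y.1 + x.2 / H * E y.1) - (F x.1 + x.2 / H * E x.1) := by
      simp only [ps, PiLp.sub_apply, PiLp.add_apply, PiLp.smul_apply, smul_eq_mul, hp1, hv1]
    rw [e0, e1]
    have : (1 : ℝ) / H = 1 / (2 * H) + 1 / (2 * H) := by field_simp; norm_num
    rw [this]
    exact add_le_add hy.2.2.1 hy.2.2.2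
  have hU' : ∀ i, ∀ r w : ℝ, 1 / (H : ℝ) ≤ r → 1 / (H : ℝ) ≤ w →
        ((Finset.univ.filter fun i' => ‖p i' - p i‖ ≤ r ∧ |inner ℝ (v i' - v i) e| ≤ w).card : ℝ) ≤
          (H : ℝ) ^ ε * (m * (r * H) ^ (1 : ℝ)) * w ^ μ := by
    intro i r w hr hw
    rw [Real.rpow_one]
    refine le_trans ?_ (hU i r w hr hw)
    refine Nat.cast_le.mpr (Finset.card_le_card fun i' hi => ?_)
    rw [Finset.mem_filter] at hi ⊢
    refine ⟨Finset.mem_univ _, ?_, ?_, ?_⟩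
    · have h1 := PiLp.norm_apply_le (p i' - p i) 0
      rw [PiLp.sub_apply, hp0, hp0, Real.norm_eq_abs] at h1
      exact h1.trans hi.2.1
    · have h1 := PiLp.norm_apply_le (p i' - p i) 1
      rw [PiLp.sub_apply, hp1, hp1, Real.norm_eq_abs] at h1
      exact h1.trans hi.2.1
    · have h1 := hi.2.2
      rw [e2_inner, he] at h1
      simpa [hv0] using h1
  have hene : ‖e‖ ≤ 1 := by rw [he]; simp
  have hHε : 0 < (H : ℝ) ^ ε := Real.rpow_pos_of_pos hH0 ε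
  obtain ⟨b, s, p0, v0, j0, j1, hj, hs01, hs, hthin, hcard⟩ :=
    key H hHge hH3' ι p v e I m ((H : ℝ) ^ (-ε)) ((H : ℝ) ^ ε) 1 μ hm
      (Real.rpow_pos_of_pos hH0 _) hHε (by norm_num) (by norm_num) hμ.le hene hpv hI hlam hmult' hU'
  have hs0 : 0 < s j0 := lt_of_lt_of_le (by positivity) (hs j0).1
  have hs1 : 0 < s j1 := lt_of_lt_of_le hs0 hs01
  have hcross := basis_cross b hj
  have hein : ∀ j, inner ℝ e (b j) = (b j) 0 := by
    intro j
    rw [e2_inner, he]; simp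
  rw [hein] at hthin
  set κ : ℝ := |(b j1) 0| with hκ
  have hκ1 : κ ≤ 1 := by
    have h1 := PiLp.norm_apply_le (b j1) 0
    rw [b.norm_eq_one, Real.norm_eq_abs] at h1
    exact h1
  have hκ0 : 0 ≤ κ := abs_nonneg _
  set W : ℝ := 4 * (κ * s j1 + s j0) with hW
  have hW0 : 0 < W := by
    rw [hW]
    have : 0 ≤ κ * s j1 := mul_nonneg hκ0 hs1.le
    linarith
  have hW8 : W ≤ 8 := by
    have h1 : κ * s j1 ≤ 1 := mul_le_one₀ hκ1 hs1.le (hs j1).2
    rw [hW]; linarith [(hs j0).2]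
  -- the thin side
  have hpow : C * (H : ℝ) ^ ε * (H : ℝ) ^ ε / ((H : ℝ) ^ (-ε)) ^ 2 = C * (H : ℝ) ^ (4 * ε) := by
    have h1 : ((H : ℝ) ^ (-ε)) ^ 2 = ((H : ℝ) ^ (2 * ε))⁻¹ := by
      rw [← Real.rpow_natCast, ← Real.rpow_mul hH0.le, ← Real.rpow_neg hH0.le]
      congr 1
      push_cast; ring
    rw [h1, div_inv_eq_mul, mul_assoc C, mul_assoc C, ← Real.rpow_add hH0, ← Real.rpow_add hH0]
    congr 2
    ring
  have hthin' : s j0 * H ≤ C * (H : ℝ) ^ (4 * ε) * W ^ μ := by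
    rw [hpow] at hthin
    rw [show (2 : ℝ) - 1 = 1 by norm_num, Real.rpow_one] at hthin
    exact hthin
  have hs0H : 1 ≤ s j0 * H := by
    have := (hs j0).1
    rwa [div_le_iff₀ hH0] at this
  have hH4 : 0 < (H : ℝ) ^ (4 * ε) := Real.rpow_pos_of_pos hH0 _
  have hsD : s j0 ≤ D * (H : ℝ) ^ (4 * ε - 1) := by
    have h1 : W ^ μ ≤ 8 ^ μ := Real.rpow_le_rpow hW0.le hW8 hμ.le
    have h2 : s j0 * H ≤ D * (H : ℝ) ^ (4 * ε) := by
      refine hthin'.trans ((mul_le_mul_of_nonneg_left h1 (by positivity)).trans (le_of_eq ?_))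
      rw [hD]; ring
    rw [Real.rpow_sub hH0, Real.rpow_one, ← mul_div_assoc, le_div_iff₀ hH0]
    exact h2
  -- the long side, and transversality
  have hlong : (H : ℝ) ^ (-(η' / 2)) ≤ κ * s j1 := by
    by_contra hcon
    push Not at hcon
    have h1 : s j0 ≤ D * (H : ℝ) ^ (-(η' / 2)) := by
      refine hsD.trans (mul_le_mul_of_nonneg_left ?_ hD0.le)
      exact Real.rpow_le_rpow_of_exponent_le hHR (by linarith)
    have h2 : W ≤ (4 + 4 * D) * (H : ℝ) ^ (-(η' / 2)) := by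
      rw [hW]; nlinarith
    have h3 : W ^ μ ≤ (4 + 4 * D) ^ μ * (H : ℝ) ^ (-(η' * μ / 2)) := by
      refine (Real.rpow_le_rpow hW0.le h2 hμ.le).trans (le_of_eq ?_)
      rw [Real.mul_rpow (by positivity) (Real.rpow_nonneg hH0.le _), ← Real.rpow_mul hH0.le]
      congr 2
      ring
    have h4 : (1 : ℝ) ≤ C * (H : ℝ) ^ (4 * ε) * ((4 + 4 * D) ^ μ * (H : ℝ) ^ (-(η' * μ / 2))) :=
      hs0H.trans (hthin'.trans (mul_le_mul_of_nonneg_left h3 (by positivity)))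
    have h5 : (H : ℝ) ^ (4 * ε) * (H : ℝ) ^ (-(η' * μ / 2)) ≤ ((H : ℝ) ^ (η' * μ / 4))⁻¹ := by
      rw [← Real.rpow_add hH0, ← Real.rpow_neg hH0.le]
      exact Real.rpow_le_rpow_of_exponent_le hHR (by linarith)
    have h6 : (1 : ℝ) ≤ C * (4 + 4 * D) ^ μ * ((H : ℝ) ^ (η' * μ / 4))⁻¹ := by
      refine h4.trans ?_
      calc C * (H : ℝ) ^ (4 * ε) * ((4 + 4 * D) ^ μ * (H : ℝ) ^ (-(η' * μ / 2)))
          = C * (4 + 4 * D) ^ μ * ((H : ℝ) ^ (4 * ε) * (H : ℝ) ^ (-(η' * μ / 2))) := by ring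
        _ ≤ _ := mul_le_mul_of_nonneg_left h5 (by positivity)
    have h7 : 0 < (H : ℝ) ^ (η' * μ / 4) := Real.rpow_pos_of_pos hH0 _
    rw [← div_eq_mul_inv, le_div_iff₀ h7, one_mul] at h6
    linarith
  have hη2 : 0 < (H : ℝ) ^ (-(η' / 2)) := Real.rpow_pos_of_pos hH0 _
  have hκs : (H : ℝ) ^ (-(η' / 2)) ≤ κ :=
    hlong.trans (mul_le_of_le_one_right hκ0 (hs j1).2)
  have hs1s : (H : ℝ) ^ (-(η' / 2)) ≤ s j1 :=
    hlong.trans (mul_le_of_le_one_left hs1.le hκ1)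
  have hκpos : 0 < κ := hη2.trans_le hκs
  have hHη4 : 0 < (H : ℝ) ^ (η' / 4) := Real.rpow_pos_of_pos hH0 _
  -- slope
  set x0 : ℝ := (b j0) 0 with hx0
  set y0 : ℝ := (b j0) 1 with hy0
  have hy0κ : |y0| = κ := hcross
  have hy0ne : y0 ≠ 0 := by
    intro h
    rw [h, abs_zero] at hy0κ
    exact hκpos.ne hy0κ
  have hx01 : |x0| ≤ 1 := by
    have h1 := PiLp.norm_apply_le (b j0) 0
    rw [b.norm_eq_one, Real.norm_eq_abs] at h1
    exact h1
  have hdiv : ∀ t w : ℝ, |t| ≤ w → |t / y0| ≤ w / κ := by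
    intro t w h
    rw [abs_div, hy0κ]
    exact div_le_div_of_nonneg_right h hκpos.le
  have hinv : 1 / κ ≤ (H : ℝ) ^ (η' / 2) := by
    rw [div_le_iff₀ hκpos]
    have h1 := mul_le_mul_of_nonneg_left hκs (Real.rpow_pos_of_pos hH0 (η' / 2)).le
    rw [← Real.rpow_add hH0] at h1
    simpa using h1
  have hwid : 2 * s j0 / κ ≤ (H : ℝ) ^ (η - 1) := by
    have h1 : 2 * s j0 / κ ≤ 2 * (D * (H : ℝ) ^ (4 * ε - 1)) * (H : ℝ) ^ (η' / 2) := by
      rw [div_eq_mul_one_div]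
      exact mul_le_mul (by linarith) hinv (by positivity) (by positivity)
    refine h1.trans ?_
    have h2 : 2 * (D * (H : ℝ) ^ (4 * ε - 1)) * (H : ℝ) ^ (η' / 2) ≤
        (H : ℝ) ^ (η' / 4) * ((H : ℝ) ^ (4 * ε - 1) * (H : ℝ) ^ (η' / 2)) := by
      have h3 : 2 * D ≤ (H : ℝ) ^ (η' / 4) := by linarith
      calc 2 * (D * (H : ℝ) ^ (4 * ε - 1)) * (H : ℝ) ^ (η' / 2)
          = 2 * D * ((H : ℝ) ^ (4 * ε - 1) * (H : ℝ) ^ (η' / 2)) := by ring
        _ ≤ _ := mul_le_mul_of_nonneg_right h3 (by positivity)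
    refine h2.trans ?_
    rw [← Real.rpow_add hH0, ← Real.rpow_add hH0]
    exact Real.rpow_le_rpow_of_exponent_le hHR (by linarith)
  refine ⟨-(x0 / y0), inner ℝ p0 (b j0) / y0, inner ℝ v0 (b j0) / y0, ?_, ?_⟩
  · rw [abs_neg]
    refine (hdiv x0 1 hx01).trans (hinv.trans ?_)
    exact Real.rpow_le_rpow_of_exponent_le hHR (by linarith)
  · have hcnt : (Fintype.card ι : ℝ) * (H : ℝ) ^ (-η) ≤
        m * ((H : ℝ) ^ (-ε)) ^ 2 / (C * (H : ℝ) ^ ε) * (s j0 * s j1) * (H : ℝ) ^ 2 := by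
      have h1 : (Fintype.card ι : ℝ) * (H : ℝ) ^ (-η) ≤ m * (H : ℝ) ^ (1 + ε - η') := by
        refine (mul_le_mul_of_nonneg_right hfew (Real.rpow_pos_of_pos hH0 _).le).trans ?_
        rw [mul_assoc, ← Real.rpow_add hH0]
        refine mul_le_mul_of_nonneg_left ?_ hm.le
        exact Real.rpow_le_rpow_of_exponent_le hHR (by linarith)
      have h2 : m * ((H : ℝ) ^ (-ε)) ^ 2 / (C * (H : ℝ) ^ ε) * (s j0 * s j1) * (H : ℝ) ^ 2 =
          m / C * ((H : ℝ) ^ (1 - 3 * ε) * ((s j0 * H) * s j1)) := by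
        have h3 : (H : ℝ) ^ (1 - 3 * ε) = ((H : ℝ) ^ (-ε)) ^ 2 / (H : ℝ) ^ ε * H := by
          rw [← Real.rpow_natCast, ← Real.rpow_mul hH0.le, ← Real.rpow_sub hH0]
          nth_rewrite 3 [← Real.rpow_one (H : ℝ)]
          rw [← Real.rpow_add hH0]
          congr 1
          push_cast; ring
        rw [h3]
        field_simp
      rw [h2]
      have h4 : (H : ℝ) ^ (-(η' / 2)) ≤ (s j0 * H) * s j1 := by
        refine hs1s.trans ?_
        exact le_mul_of_one_le_left hs1.le hs0H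
      have h5 : (H : ℝ) ^ (1 + ε - η') ≤ 1 / C * ((H : ℝ) ^ (1 - 3 * ε) * (H : ℝ) ^ (-(η' / 2))) := by
        rw [div_mul_eq_mul_div, one_mul, le_div_iff₀ hC, ← Real.rpow_add hH0]
        have h6 : C ≤ (H : ℝ) ^ (η' / 4) := by linarith
        refine (mul_le_mul_of_nonneg_left h6 (Real.rpow_pos_of_pos hH0 _).le).trans ?_
        rw [← Real.rpow_add hH0]
        exact Real.rpow_le_rpow_of_exponent_le hHR (by linarith)
      refine h1.trans ?_
      calc m * (H : ℝ) ^ (1 + ε - η')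
          ≤ m * (1 / C * ((H : ℝ) ^ (1 - 3 * ε) * (H : ℝ) ^ (-(η' / 2)))) :=
            mul_le_mul_of_nonneg_left h5 hm.le
        _ = m / C * ((H : ℝ) ^ (1 - 3 * ε) * (H : ℝ) ^ (-(η' / 2))) := by ring
        _ ≤ _ := by
          refine mul_le_mul_of_nonneg_left ?_ (by positivity)
          exact mul_le_mul_of_nonneg_left h4 (Real.rpow_pos_of_pos hH0 _).le
    refine hcnt.trans (hcard.trans ?_)
    refine Nat.cast_le.mpr (Finset.card_le_card fun i hi => ?_)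
    rw [Finset.mem_filter] at hi ⊢
    have g1 := InPl.pos hi.2 j0
    have g2 := InPl.vel hi.2 j0
    rw [inner_sub_left, e2_inner (p i), hp0, hp1, ← hx0, ← hy0] at g1
    rw [inner_sub_left, e2_inner (v i), hv0, hv1, ← hx0, ← hy0] at g2
    refine ⟨Finset.mem_univ _, ?_, ?_⟩
    · have h1 := hdiv _ _ (g1.trans (by linarith : s j0 ≤ 2 * s j0))
      refine le_trans (le_of_eq ?_) (h1.trans hwid)
      congr 1
      field_simp
      ring
    · have h1 := hdiv _ _ g2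
      refine le_trans (le_of_eq ?_) (h1.trans hwid)
      congr 1
      field_simp
      ring

end Crest.Agent.R136.Rig418
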