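import Crest.Agent.R136.Rig4_418

/-!
# R136, (RIG), finite form, part 5 (helper418): upper bounds only at incidences

The same as `rig_plank` / `rig_class`, but the type I upper bound is only used for the fibres of the
incidence set at one height (this is what uniform counts of a finite configuration give).
-/

set_option autoImplicit false

open Finset

namespace Crest.Agent.R136.Rig418

open Crest.Agent.R138.Defs (E2)
open Crest.Agent.R136.Slb480
open Crest.Agent.R138.Tub70 (InPl KM32)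

/-- position inside a plank at any height of `[-1, 1]` -/
lemma InPl.posz {b : OrthonormalBasis (Fin 2) ℝ E2} {s : Fin 2 → ℝ} {p0 v0 p v : E2}
    (h : InPl b s p0 v0 p v) (j : Fin 2) {z : ℝ} (hz : |z| ≤ 1) :
    |inner ℝ ((p + z • v) - (p0 + z • v0)) (b j)| ≤ 3 * s j := by
  have h1 := InPl.pos h j
  have h2 := InPl.vel h j
  have e1 : (p + z • v) - (p0 + z • v0) = (p - p0) + z • (v - v0) := by
    rw [smul_sub]; abel
  rw [e1, inner_add_left, inner_smul_left]
  have h3 : |(starRingEnd ℝ) z * inner ℝ (v - v0) (b j)| ≤ 2 * s j := by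
    rw [abs_mul]
    simp only [conj_trivial]
    calc |z| * |inner ℝ (v - v0) (b j)| ≤ 1 * |inner ℝ (v - v0) (b j)| :=
          mul_le_mul_of_nonneg_right hz (abs_nonneg _)
      _ ≤ 2 * s j := by rw [one_mul]; exact h2
  refine (abs_add_le _ _).trans ?_
  linarith

open Classical in
/-- a set of lines in a plank, at one height, has a ball of radius the thickness with the expected
part -/
theorem plank_ballz {ι : Type} (p v : ι → E2) (b : OrthonormalBasis (Fin 2) ℝ E2)
    (s : Fin 2 → ℝ) (p0 v0 : E2) {j0 j1 : Fin 2} (hj : j0 ≠ j1) (hs0 : 0 < s j0)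
    (hs : s j0 ≤ s j1) {z : ℝ} (hz : |z| ≤ 1) (T : Finset ι)
    (hT : ∀ i ∈ T, InPl b s p0 v0 (p i) (v i)) (hne : T.Nonempty) :
    ∃ i1 ∈ T, (T.card : ℝ) ≤
        9 * (s j1 / s j0) * ((T.filter fun i => ‖ps p v i z - ps p v i1 z‖ ≤ 12 * s j0).card : ℝ) := by
  set k : ι → ℤ := fun i => ⌊inner ℝ (ps p v i z - (p0 + z • v0)) (b j1) / s j0⌋ with hk
  set n : ℕ := ⌈3 * s j1 / s j0⌉₊ with hn
  have hs1 : 0 < s j1 := lt_of_lt_of_le hs0 hs
  have hsub : T.image k ⊆ Finset.Icc (-(n : ℤ)) n := by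
    intro y hy
    obtain ⟨i, hi, rfl⟩ := Finset.mem_image.mp hy
    have h1 : |inner ℝ (ps p v i z - (p0 + z • v0)) (b j1)| ≤ 3 * s j1 :=
      InPl.posz (hT i hi) j1 hz
    rw [abs_le] at h1
    have h2 : 3 * s j1 / s j0 ≤ (n : ℝ) := Nat.le_ceil _
    rw [Finset.mem_Icc]
    constructor
    · simp only [hk]
      rw [Int.le_floor]
      push_cast
      rw [le_div_iff₀ hs0]
      rw [div_le_iff₀ hs0] at h2
      linarith [h1.1]
    · have h3 : ((⌊inner ℝ (ps p v i z - (p0 + z • v0)) (b j1) / s j0⌋ : ℤ) : ℝ) ≤ (n : ℝ) := by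
        refine (Int.floor_le _).trans ?_
        refine le_trans ?_ h2
        exact div_le_div_of_nonneg_right h1.2 hs0.le
      simp only [hk]
      exact_mod_cast h3
  have hcard : ((T.image k).card : ℝ) ≤ 9 * (s j1 / s j0) := by
    have h1 := Finset.card_le_card hsub
    have h2 : (Finset.Icc (-(n : ℤ)) n).card = 2 * n + 1 := by
      rw [Int.card_Icc]; omega
    rw [h2] at h1
    have h3 : (n : ℝ) < 3 * s j1 / s j0 + 1 :=
      Nat.ceil_lt_add_one (div_pos (by linarith) hs0).le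
    have h4 : ((T.image k).card : ℝ) ≤ 2 * (n : ℝ) + 1 := by exact_mod_cast h1
    have h5 : 1 ≤ s j1 / s j0 := by rw [le_div_iff₀ hs0]; linarith
    have h6 : 3 * s j1 / s j0 = 3 * (s j1 / s j0) := by ring
    rw [h6] at h3
    linarith
  have hine : (T.image k).Nonempty := hne.image k
  have hc0 : (0 : ℝ) < ((T.image k).card : ℝ) := by exact_mod_cast hine.card_pos
  obtain ⟨y, hy, hyle⟩ := Finset.exists_le_of_sum_le (s := T.image k)
    (f := fun _ => (T.card : ℝ) / ((T.image k).card : ℝ))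
    (g := fun y => ((T.filter fun i => k i = y).card : ℝ)) hine (by
      rw [Finset.sum_const, nsmul_eq_mul, mul_div_cancel₀ _ hc0.ne']
      have := Finset.card_eq_sum_card_fiberwise (s := T) (t := T.image k) (f := k)
        (fun i hi => Finset.mem_image_of_mem k hi)
      have h2 : (T.card : ℝ) = ∑ y ∈ T.image k, ((T.filter fun i => k i = y).card : ℝ) := by
        exact_mod_cast this
      exact h2.le)
  obtain ⟨i1, hi1, hi1y⟩ := Finset.mem_image.mp hy
  refine ⟨i1, hi1, ?_⟩
  rw [div_le_iff₀ hc0] at hyle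
  have hfib : (T.filter fun i => k i = y) ⊆
      T.filter fun i => ‖ps p v i z - ps p v i1 z‖ ≤ 12 * s j0 := by
    intro i hi
    rw [Finset.mem_filter] at hi
    rw [Finset.mem_filter]
    refine ⟨hi.1, ?_⟩
    have hsplit : ps p v i z - ps p v i1 z =
        (ps p v i z - (p0 + z • v0)) - (ps p v i1 z - (p0 + z • v0)) := by abel
    have h1 : k i = k i1 := hi.2.trans hi1y.symm
    have h2 := Int.abs_sub_lt_one_of_floor_eq_floor h1
    have h3 : |inner ℝ (ps p v i z - ps p v i1 z) (b j1)| ≤ 6 * s j0 := by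
      have e1 : inner ℝ (ps p v i z - ps p v i1 z) (b j1) =
          s j0 * (inner ℝ (ps p v i z - (p0 + z • v0)) (b j1) / s j0 -
          inner ℝ (ps p v i1 z - (p0 + z • v0)) (b j1) / s j0) := by
        rw [hsplit, inner_sub_left]
        field_simp
      rw [e1, abs_mul, abs_of_pos hs0]
      nlinarith
    have h4 : |inner ℝ (ps p v i z - ps p v i1 z) (b j0)| ≤ 6 * s j0 := by
      rw [hsplit, inner_sub_left]
      have g1 : |inner ℝ (ps p v i z - (p0 + z • v0)) (b j0)| ≤ 3 * s j0 :=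
        InPl.posz (hT i hi.1) j0 hz
      have g2 : |inner ℝ (ps p v i1 z - (p0 + z • v0)) (b j0)| ≤ 3 * s j0 :=
        InPl.posz (hT i1 hi1) j0 hz
      rw [abs_le] at g1 g2 ⊢
      constructor <;> linarith [g1.1, g1.2, g2.1, g2.2]
    have h5 := norm_le_of_coord b (ps p v i z - ps p v i1 z) (r := 6 * s j0) (fun j => by
      rcases fin2_cases hj j with e | e
      · rw [e]; exact h4
      · rw [e]; exact h3)
    linarith
  have hle : ((T.filter fun i => k i = y).card : ℝ) ≤
      ((T.filter fun i => ‖ps p v i z - ps p v i1 z‖ ≤ 12 * s j0).card : ℝ) := by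
    exact_mod_cast Finset.card_le_card hfib
  calc (T.card : ℝ) ≤ ((T.filter fun i => k i = y).card : ℝ) * ((T.image k).card : ℝ) := hyle
    _ ≤ ((T.filter fun i => ‖ps p v i z - ps p v i1 z‖ ≤ 12 * s j0).card : ℝ) *
        (9 * (s j1 / s j0)) := mul_le_mul hle hcard hc0.le (Nat.cast_nonneg _)
    _ = _ := by ring

open Classical in
/-- a height at which many lines of `T` are alive -/
theorem exists_height {ι : Type} (I : Finset (ι × ℤ)) (T : Finset ι) (H : ℕ)
    (hH : 1 ≤ H) (lam : ℝ) (hI : ∀ x ∈ I, |x.2| ≤ (H : ℤ))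
    (hline : ∀ i ∈ T, lam * H ≤ ((I.filter fun x => x.1 = i).card : ℝ)) :
    ∃ k : ℤ, |k| ≤ (H : ℤ) ∧
      lam * (T.card : ℝ) ≤ 3 * ((T.filter fun i => (i, k) ∈ I).card : ℝ) := by
  have hH0 : (0 : ℝ) < H := by exact_mod_cast hH
  set Zs : Finset ℤ := Finset.Icc (-(H : ℤ)) H with hZ
  have hZc : ((Zs.card : ℕ) : ℝ) ≤ 3 * H := by
    have : Zs.card = 2 * H + 1 := by rw [hZ, Int.card_Icc]; omega
    rw [this]; push_cast
    have : (1 : ℝ) ≤ H := by exact_mod_cast hH
    linarith
  have hZne : Zs.Nonempty := ⟨0, by rw [hZ, Finset.mem_Icc]; omega⟩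
  have hZ0 : (0 : ℝ) < (Zs.card : ℝ) := by exact_mod_cast hZne.card_pos
  -- double count
  have hdc : ∑ k ∈ Zs, ((T.filter fun i => (i, k) ∈ I).card : ℝ) =
      ∑ i ∈ T, ((Zs.filter fun k => (i, k) ∈ I).card : ℝ) := by
    have h1 : ∀ k, ((T.filter fun i => (i, k) ∈ I).card : ℝ) =
        ∑ i ∈ T, if (i, k) ∈ I then (1 : ℝ) else 0 := by
      intro k
      rw [Finset.card_filter]; push_cast; rfl
    have h2 : ∀ i, ((Zs.filter fun k => (i, k) ∈ I).card : ℝ) =
        ∑ k ∈ Zs, if (i, k) ∈ I then (1 : ℝ) else 0 := by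
      intro i
      rw [Finset.card_filter]; push_cast; rfl
    simp_rw [h1, h2]
    exact Finset.sum_comm
  have hline2 : ∀ i ∈ T, lam * H ≤ ((Zs.filter fun k => (i, k) ∈ I).card : ℝ) := by
    intro i hi
    refine (hline i hi).trans ?_
    refine Nat.cast_le.mpr ?_
    refine Finset.card_le_card_of_injOn (fun x => x.2) ?_ ?_
    · intro x hx
      rw [Finset.mem_coe, Finset.mem_filter] at hx
      rw [Finset.mem_coe, Finset.mem_filter]
      have h1 := hI x hx.1
      rw [abs_le] at h1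
      refine ⟨by rw [hZ, Finset.mem_Icc]; exact h1, ?_⟩
      have : (i, x.2) = x := by rw [← hx.2]
      rw [this]; exact hx.1
    · intro x hx y hy hxy
      rw [Finset.mem_coe, Finset.mem_filter] at hx hy
      exact Prod.ext (hx.2.trans hy.2.symm) hxy
  obtain ⟨k, hk, hkle⟩ := Finset.exists_le_of_sum_le (s := Zs)
    (f := fun _ => lam * H * (T.card : ℝ) / (Zs.card : ℝ))
    (g := fun k => ((T.filter fun i => (i, k) ∈ I).card : ℝ)) hZne (by
      rw [Finset.sum_const, nsmul_eq_mul, mul_div_cancel₀ _ hZ0.ne', hdc]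
      calc lam * H * (T.card : ℝ) = ∑ _i ∈ T, lam * H := by
            rw [Finset.sum_const, nsmul_eq_mul]; ring
        _ ≤ _ := Finset.sum_le_sum hline2)
  refine ⟨k, ?_, ?_⟩
  · rw [hZ, Finset.mem_Icc] at hk
    exact abs_le.mpr hk
  · rw [div_le_iff₀ hZ0] at hkle
    have h1 : lam * H * (T.card : ℝ) ≤ ((T.filter fun i => (i, k) ∈ I).card : ℝ) * (3 * H) :=
      hkle.trans (mul_le_mul_of_nonneg_left hZc (Nat.cast_nonneg _))
    have h2 : H * (lam * (T.card : ℝ)) ≤ H * (3 * ((T.filter fun i => (i, k) ∈ I).card : ℝ)) := by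
      linarith
    exact le_of_mul_le_mul_left h2 hH0

end Crest.Agent.R136.Rig418
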