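import Crest.Agent.R136.Rig5_418

/-!
# R136, (RIG), finite form, part 6 (helper418): plank and class theorems, upper bounds at incidences
-/

set_option autoImplicit false

open Finset

namespace Crest.Agent.R136.Rig418

open Crest.Agent.R138.Defs (E2)
open Crest.Agent.R136.Slb480
open Crest.Agent.R138.Tub70 (InPl KM32)

open Classical in
/-- **(RIG), the extremal plank**, upper bound only at incidences. -/
theorem rig_plankI (hKM : ∀ V : ℝ, KM32 V) (V : ℝ) (hV : 0 ≤ V) (ε : ℝ) (hε : 0 < ε) :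
    ∃ C : ℝ, 0 < C ∧ ∀ H : ℕ, 1 ≤ H → V + 2 ≤ (H : ℝ) → ∀ (ι : Type) [Fintype ι] [Nonempty ι]
      (p v : ι → E2) (e : E2) (I : Finset (ι × ℤ)) (m lam K a μ : ℝ), 0 < m → 0 < lam → 0 < K →
      0 ≤ a → a ≤ 2 → 0 ≤ μ → ‖e‖ ≤ 1 →
      (∀ i, ‖p i‖ ≤ V ∧ ‖v i‖ ≤ V) → (∀ x ∈ I, |x.2| ≤ (H : ℤ)) →
      (∀ i, lam * H ≤ ((I.filter fun x => x.1 = i).card : ℝ)) →
      (∀ x ∈ I, m ≤ ((I.filter fun y => y.2 = x.2 ∧
        ‖ps p v y.1 (x.2 / H) - ps p v x.1 (x.2 / H)‖ ≤ 1 / H).card : ℝ)) →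
      (∀ x ∈ I, ∀ r w : ℝ, 1 / (H : ℝ) ≤ r → 1 / (H : ℝ) ≤ w →
        ((I.filter fun y => y.2 = x.2 ∧ ‖ps p v y.1 (x.2 / H) - ps p v x.1 (x.2 / H)‖ ≤ r ∧
          |inner ℝ (v y.1 - v x.1) e| ≤ w).card : ℝ) ≤ K * (m * (r * H) ^ a) * w ^ μ) →
      ∃ (b : OrthonormalBasis (Fin 2) ℝ E2) (s : Fin 2 → ℝ) (p0 v0 : E2) (j0 j1 : Fin 2),
        j0 ≠ j1 ∧ s j0 ≤ s j1 ∧ (∀ j, 1 / (H : ℝ) ≤ s j ∧ s j ≤ 1) ∧
        (s j0 * H) ^ (2 - a) ≤ C * K * (H : ℝ) ^ ε / lam ^ 3 *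
          (4 * (|inner ℝ e (b j1)| * s j1 + s j0)) ^ μ ∧
        m * lam ^ 2 / (C * (H : ℝ) ^ ε) * (s j0 * s j1) * (H : ℝ) ^ 2 ≤
          ((Finset.univ.filter fun i => InPl b s p0 v0 (p i) (v i)).card : ℝ) := by
  obtain ⟨C, hC, key⟩ := exists_plank hKM V hV ε hε
  refine ⟨4000 * C, by positivity, ?_⟩
  intro H hH hHV ι _ _ p v e I m lam K a μ hm hlam hK ha0 ha2 hμ he hpv hI hline hmult hU
  have hH0 : (0 : ℝ) < H := by exact_mod_cast hH
  have hHε : 0 < (H : ℝ) ^ ε := Real.rpow_pos_of_pos hH0 ε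
  obtain ⟨b, s, p0, v0, hs, hcard⟩ := key H hH hHV ι p v I m lam hm hlam hpv hI hline hmult
  -- the thin index
  obtain ⟨j0, j1, hj, hs01⟩ : ∃ j0 j1 : Fin 2, j0 ≠ j1 ∧ s j0 ≤ s j1 := by
    rcases le_total (s 0) (s 1) with h | h
    · exact ⟨0, 1, by decide, h⟩
    · exact ⟨1, 0, by decide, h⟩
  have hprod : s 0 * s 1 = s j0 * s j1 := by
    rcases fin2_pair hj with ⟨e0, e1⟩ | ⟨e0, e1⟩
    · rw [e0, e1]
    · rw [e0, e1, mul_comm]
  have hs0 : 0 < s j0 := lt_of_lt_of_le (by positivity) (hs j0).1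
  have hs1 : 0 < s j1 := lt_of_lt_of_le hs0 hs01
  rw [hprod] at hcard
  have hDpos : 0 < m * lam ^ 2 / (C * (H : ℝ) ^ ε) * (s j0 * s j1) * (H : ℝ) ^ 2 := by
    positivity
  set T := Finset.univ.filter fun i => InPl b s p0 v0 (p i) (v i) with hTdef
  have hTpl : ∀ i ∈ T, InPl b s p0 v0 (p i) (v i) := fun i hi => (Finset.mem_filter.mp hi).2
  obtain ⟨k, hk, hkT⟩ := exists_height I T H hH lam hI (fun i _ => hline i)
  set Tk := T.filter fun i => (i, k) ∈ I with hTk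
  have hTkne : Tk.Nonempty := by
    rw [← Finset.card_pos]
    have h1 : 0 < lam * (T.card : ℝ) := mul_pos hlam (hDpos.trans hcard)
    have h2 : (0 : ℝ) < (Tk.card : ℝ) := by linarith
    exact_mod_cast h2
  have hz : |(k : ℝ) / H| ≤ 1 := by
    rw [abs_div, abs_of_pos hH0, div_le_one hH0]
    have : ((|k| : ℤ) : ℝ) ≤ ((H : ℤ) : ℝ) := Int.cast_le.mpr hk
    simpa using this
  obtain ⟨i1, hi1, hball⟩ := plank_ballz p v b s p0 v0 hj hs0 hs01 hz Tk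
    (fun i hi => hTpl i (Finset.mem_filter.mp hi).1) hTkne
  set r : ℝ := s j0 with hr
  have hr1 : r ≤ 1 := (hs j0).2
  have hrH : 1 ≤ r * H := by
    have := (hs j0).1
    rw [div_le_iff₀ hH0] at this
    exact this
  set Nb : ℝ := ((Tk.filter fun i => ‖ps p v i (k / H) - ps p v i1 (k / H)‖ ≤ 12 * r).card : ℝ)
    with hNb
  -- lower bound for the ball
  have hlow : m * lam ^ 3 * (r * H) ^ (2 : ℕ) / (27 * (C * (H : ℝ) ^ ε)) ≤ Nb := by
    have h1 : lam * (m * lam ^ 2 / (C * (H : ℝ) ^ ε) * (s j0 * s j1) * (H : ℝ) ^ 2) ≤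
        27 * (s j1 / s j0) * Nb := by
      have g1 := mul_le_mul_of_nonneg_left hcard.le hlam.le
      linarith
    have h2 : lam * (m * lam ^ 2 / (C * (H : ℝ) ^ ε) * (s j0 * s j1) * (H : ℝ) ^ 2) =
        27 * (s j1 / s j0) * (m * lam ^ 3 * (r * H) ^ (2 : ℕ) / (27 * (C * (H : ℝ) ^ ε))) := by
      rw [hr]
      field_simp
    rw [h2] at h1
    exact le_of_mul_le_mul_left h1 (by positivity)
  have hi1T := (Finset.mem_filter.mp hi1).1
  have hi1I := (Finset.mem_filter.mp hi1).2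
  have hstrip : ∀ i ∈ T, ∀ j, |inner ℝ (v i - v i1) (b j)| ≤ 4 * s j := by
    intro i hi j
    rw [show v i - v i1 = (v i - v0) - (v i1 - v0) by abel, inner_sub_left]
    have g1 := InPl.vel (hTpl i hi) j
    have g2 := InPl.vel (hTpl i1 hi1T) j
    rw [abs_le] at g1 g2 ⊢
    constructor <;> linarith [g1.1, g1.2, g2.1, g2.2]
  have heb : ∀ j, |inner ℝ e (b j)| ≤ 1 := by
    intro j
    refine (abs_real_inner_le_norm _ _).trans ?_
    rw [b.norm_eq_one, mul_one]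
    exact he
  set W : ℝ := 4 * (|inner ℝ e (b j1)| * s j1 + r) with hW
  have hW0 : 1 / (H : ℝ) ≤ W := by
    have h1 := (hs j0).1
    have h2 : 0 ≤ |inner ℝ e (b j1)| * s j1 := mul_nonneg (abs_nonneg _) hs1.le
    rw [hW]; linarith
  -- upper bound for the ball
  have hup : Nb ≤ K * (m * (12 * r * H) ^ a) * W ^ μ := by
    refine le_trans ?_ (hU (i1, k) hi1I (12 * r) W (by linarith [(hs j0).1]) hW0)
    rw [hNb]
    refine Nat.cast_le.mpr ?_
    refine Finset.card_le_card_of_injOn (fun i => (i, k)) ?_ ?_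
    · intro i hi
      rw [Finset.mem_coe, Finset.mem_filter] at hi
      have hiT := (Finset.mem_filter.mp hi.1).1
      rw [Finset.mem_coe, Finset.mem_filter]
      refine ⟨(Finset.mem_filter.mp hi.1).2, rfl, hi.2, ?_⟩
      have h1 := inner_le_of_coord b (v i - v i1) e (s := fun j => 4 * s j) (hstrip i hiT)
      refine h1.trans ?_
      have h2 : ∑ j, |inner ℝ e (b j)| * (4 * s j) =
          |inner ℝ e (b j0)| * (4 * s j0) + |inner ℝ e (b j1)| * (4 * s j1) := by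
        rw [Fin.sum_univ_two]
        rcases fin2_pair hj with ⟨e0, e1⟩ | ⟨e0, e1⟩
        · rw [e0, e1]
        · rw [e0, e1, add_comm]
      rw [h2]
      have h3 : |inner ℝ e (b j0)| * (4 * s j0) ≤ 4 * r := by
        have := mul_le_mul_of_nonneg_right (heb j0) (by positivity : 0 ≤ 4 * s j0)
        linarith
      rw [hW]; linarith
    · intro i _ i' _ h
      exact (Prod.ext_iff.mp h).1
  refine ⟨b, s, p0, v0, j0, j1, hj, hs01, hs, ?_, ?_⟩
  · -- thinness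
    have h1 := hlow.trans hup
    have hrH0 : 0 < r * H := by positivity
    have h4 : (12 * r * H) ^ a ≤ 144 * (r * H) ^ a := by
      rw [mul_assoc, Real.mul_rpow (by norm_num) hrH0.le]
      refine mul_le_mul_of_nonneg_right ?_ (Real.rpow_nonneg hrH0.le _)
      calc (12 : ℝ) ^ a ≤ 12 ^ (2 : ℝ) := Real.rpow_le_rpow_of_exponent_le (by norm_num) ha2
        _ = 144 := by norm_num
    have hWμ : 0 ≤ W ^ μ := Real.rpow_nonneg (le_trans (by positivity) hW0) _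
    have h5 : m * lam ^ 3 * (r * H) ^ (2 : ℕ) / (27 * (C * (H : ℝ) ^ ε)) ≤
        K * (m * (144 * (r * H) ^ a)) * W ^ μ := by
      refine h1.trans ?_
      refine mul_le_mul_of_nonneg_right ?_ hWμ
      refine mul_le_mul_of_nonneg_left ?_ hK.le
      exact mul_le_mul_of_nonneg_left h4 hm.le
    rw [div_le_iff₀ (by positivity)] at h5
    have h6 : (r * H) ^ (2 - a) = (r * H) ^ (2 : ℕ) / (r * H) ^ a := by
      rw [Real.rpow_sub hrH0]
      norm_num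
    have hPa : 0 < (r * H) ^ a := Real.rpow_pos_of_pos hrH0 _
    rw [h6, div_le_iff₀ hPa]
    have h7 : m * (lam ^ 3 * (r * H) ^ (2 : ℕ)) ≤
        m * (3888 * (C * K * (H : ℝ) ^ ε * W ^ μ * (r * H) ^ a)) := by
      refine le_trans (le_of_eq (by ring)) (h5.trans (le_of_eq ?_))
      ring
    have h8 := le_of_mul_le_mul_left h7 hm
    have h9 : 4000 * C * K * (H : ℝ) ^ ε / lam ^ 3 * W ^ μ * (r * H) ^ a =
        (4000 * (C * K * (H : ℝ) ^ ε * W ^ μ * (r * H) ^ a)) / lam ^ 3 := by ring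
    rw [h9, le_div_iff₀ (by positivity)]
    have h10 : 0 ≤ C * K * (H : ℝ) ^ ε * W ^ μ * (r * H) ^ a := by positivity
    linarith
  · refine le_trans ?_ hcard.le
    refine mul_le_mul_of_nonneg_right (mul_le_mul_of_nonneg_right ?_ (by positivity))
      (by positivity)
    refine div_le_div_of_nonneg_left (by positivity) (by positivity) ?_
    nlinarith [mul_pos hC hHε]

open Classical in
/-- **(RIG), whole class, coordinates**, upper bound only at incidences. Lines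
`(A i + z c i, F i + z E i)` of `ℝ³`. -/
theorem rig_classI (hKM : ∀ V : ℝ, KM32 V) (V : ℝ) (hV : 0 ≤ V) (μ η : ℝ) (hμ : 0 < μ)
    (hη : 0 < η) : ∃ ε : ℝ, 0 < ε ∧ ∃ H0 : ℕ, ∀ H : ℕ, H0 ≤ H →
    ∀ (ι : Type) [Fintype ι] [Nonempty ι] (A F c E : ι → ℝ) (I : Finset (ι × ℤ)) (m : ℝ), 0 < m →
      (∀ i, |A i| ≤ V ∧ |F i| ≤ V ∧ |c i| ≤ V ∧ |E i| ≤ V) → (∀ x ∈ I, |x.2| ≤ (H : ℤ)) →
      (∀ i, (H : ℝ) ^ (1 - ε) ≤ ((I.filter fun x => x.1 = i).card : ℝ)) →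
      (∀ x ∈ I, m ≤ ((I.filter fun y => y.2 = x.2 ∧
        |(A y.1 + x.2 / H * c y.1) - (A x.1 + x.2 / H * c x.1)| ≤ 1 / (2 * H) ∧
        |(F y.1 + x.2 / H * E y.1) - (F x.1 + x.2 / H * E x.1)| ≤ 1 / (2 * H)).card : ℝ)) →
      (Fintype.card ι : ℝ) ≤ m * (H : ℝ) ^ (1 + ε) →
      (∀ x ∈ I, ∀ r w : ℝ, 1 / (H : ℝ) ≤ r → 1 / (H : ℝ) ≤ w →
        ((I.filter fun y => y.2 = x.2 ∧
          |(A y.1 + x.2 / H * c y.1) - (A x.1 + x.2 / H * c x.1)| ≤ r ∧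
          |(F y.1 + x.2 / H * E y.1) - (F x.1 + x.2 / H * E x.1)| ≤ r ∧
          |c y.1 - c x.1| ≤ w).card : ℝ) ≤ (H : ℝ) ^ ε * (m * (r * H)) * w ^ μ) →
      ∃ s F0 E0 : ℝ, |s| ≤ (H : ℝ) ^ η ∧
        (Fintype.card ι : ℝ) * (H : ℝ) ^ (-η) ≤
          ((Finset.univ.filter fun i => |F i - s * A i - F0| ≤ (H : ℝ) ^ (η - 1) ∧
            |E i - s * c i - E0| ≤ (H : ℝ) ^ (η - 1)).card : ℝ) := by
  obtain ⟨η', hη', hη1, hηη⟩ : ∃ η' : ℝ, 0 < η' ∧ η' ≤ 1 ∧ η' ≤ η :=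
    ⟨min η 1, lt_min hη one_pos, min_le_right _ _, min_le_left _ _⟩
  obtain ⟨ε, hε, hε1, hε2⟩ : ∃ ε : ℝ, 0 < ε ∧ ε ≤ η' / 20 ∧ ε ≤ η' * μ / 20 :=
    ⟨min (η' / 20) (η' * μ / 20), lt_min (by positivity) (by positivity), min_le_left _ _,
      min_le_right _ _⟩
  obtain ⟨C, hC, key⟩ := rig_plankI hKM (2 * V) (by positivity) ε hε
  -- thresholds
  set D : ℝ := C * 8 ^ μ with hD
  have hD0 : 0 < D := by positivity
  obtain ⟨H1, hH1⟩ := exists_large (C * (4 + 4 * D) ^ μ + 1) (η' * μ / 4) (by positivity)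
  obtain ⟨H2, hH2⟩ := exists_large (2 * D + C) (η' / 4) (by positivity)
  obtain ⟨H3, hH3⟩ := exists_nat_ge (2 * V + 2)
  refine ⟨ε, hε, max (max H1 H2) (max H3 1), ?_⟩
  intro H hHm ι _ _ A F c E I m hm hbd hI hline hmult hfew hU
  have hH1' := hH1 H (le_trans (le_trans (le_max_left _ _) (le_max_left _ _)) hHm)
  have hH2' := hH2 H (le_trans (le_trans (le_max_right _ _) (le_max_left _ _)) hHm)
  have hH3' : 2 * V + 2 ≤ (H : ℝ) := hH3.trans (by
    exact_mod_cast le_trans (le_trans (le_max_left _ _) (le_max_right _ _)) hHm)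
  have hHge : 1 ≤ H := le_trans (le_trans (le_max_right _ _) (le_max_right _ _)) hHm
  have hH0 : (0 : ℝ) < H := by exact_mod_cast hHge
  have hHR : (1 : ℝ) ≤ H := by exact_mod_cast hHge
  set p : ι → E2 := fun i => !₂[A i, F i] with hp
  set v : ι → E2 := fun i => !₂[c i, E i] with hv
  set e : E2 := EuclideanSpace.single 0 1 with he
  have hp0 : ∀ i, (p i) 0 = A i := fun i => by simp [hp]
  have hp1 : ∀ i, (p i) 1 = F i := fun i => by simp [hp]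
  have hv0 : ∀ i, (v i) 0 = c i := fun i => by simp [hv]
  have hv1 : ∀ i, (v i) 1 = E i := fun i => by simp [hv]
  have hpv : ∀ i, ‖p i‖ ≤ 2 * V ∧ ‖v i‖ ≤ 2 * V := by
    intro i
    obtain ⟨g1, g2, g3, g4⟩ := hbd i
    constructor
    · refine (e2_norm_le _).trans ?_
      rw [hp0, hp1]; linarith
    · refine (e2_norm_le _).trans ?_
      rw [hv0, hv1]; linarith
  have hlam : ∀ i, (H : ℝ) ^ (-ε) * H ≤ ((I.filter fun x => x.1 = i).card : ℝ) := by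
    intro i
    refine le_trans (le_of_eq ?_) (hline i)
    rw [show (1 : ℝ) - ε = -ε + 1 by ring, Real.rpow_add hH0, Real.rpow_one]
  have hmult' : ∀ x ∈ I, m ≤ ((I.filter fun y => y.2 = x.2 ∧
        ‖ps p v y.1 (x.2 / H) - ps p v x.1 (x.2 / H)‖ ≤ 1 / H).card : ℝ) := by
    intro x hx
    refine (hmult x hx).trans ?_
    refine Nat.cast_le.mpr (Finset.card_le_card fun y hy => ?_)
    rw [Finset.mem_filter] at hy ⊢
    refine ⟨hy.1, hy.2.1, ?_⟩
    refine (e2_norm_le _).trans ?_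
    have e0 : (ps p v y.1 (x.2 / H) - ps p v x.1 (x.2 / H)) 0 =
        (A y.1 + x.2 / H * c y.1) - (A x.1 + x.2 / H * c x.1) := by
      simp only [ps, PiLp.sub_apply, PiLp.add_apply, PiLp.smul_apply, smul_eq_mul, hp0, hv0]
    have e1 : (ps p v y.1 (x.2 / H) - ps p v x.1 (x.2 / H)) 1 =
        (F y.1 + x.2 / H * E y.1) - (F x.1 + x.2 / H * E x.1) := by
      simp only [ps, PiLp.sub_apply, PiLp.add_apply, PiLp.smul_apply, smul_eq_mul, hp1, hv1]
    rw [e0, e1]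
    have : (1 : ℝ) / H = 1 / (2 * H) + 1 / (2 * H) := by field_simp; norm_num
    rw [this]
    exact add_le_add hy.2.2.1 hy.2.2.2
  have e0 : ∀ y x : ι × ℤ, (ps p v y.1 (x.2 / H) - ps p v x.1 (x.2 / H)) 0 =
      (A y.1 + x.2 / H * c y.1) - (A x.1 + x.2 / H * c x.1) := by
    intro y x
    simp only [ps, PiLp.sub_apply, PiLp.add_apply, PiLp.smul_apply, smul_eq_mul, hp0, hv0]
  have e1 : ∀ y x : ι × ℤ, (ps p v y.1 (x.2 / H) - ps p v x.1 (x.2 / H)) 1 =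
      (F y.1 + x.2 / H * E y.1) - (F x.1 + x.2 / H * E x.1) := by
    intro y x
    simp only [ps, PiLp.sub_apply, PiLp.add_apply, PiLp.smul_apply, smul_eq_mul, hp1, hv1]
  have hU' : ∀ x ∈ I, ∀ r w : ℝ, 1 / (H : ℝ) ≤ r → 1 / (H : ℝ) ≤ w →
        ((I.filter fun y => y.2 = x.2 ∧ ‖ps p v y.1 (x.2 / H) - ps p v x.1 (x.2 / H)‖ ≤ r ∧
          |inner ℝ (v y.1 - v x.1) e| ≤ w).card : ℝ) ≤
          (H : ℝ) ^ ε * (m * (r * H) ^ (1 : ℝ)) * w ^ μ := by
    intro x hx r w hr hw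
    rw [Real.rpow_one]
    refine le_trans ?_ (hU x hx r w hr hw)
    refine Nat.cast_le.mpr (Finset.card_le_card fun y hy => ?_)
    rw [Finset.mem_filter] at hy ⊢
    refine ⟨hy.1, hy.2.1, ?_, ?_, ?_⟩
    · have h1 := PiLp.norm_apply_le (ps p v y.1 (x.2 / H) - ps p v x.1 (x.2 / H)) 0
      rw [e0, Real.norm_eq_abs] at h1
      exact h1.trans hy.2.2.1
    · have h1 := PiLp.norm_apply_le (ps p v y.1 (x.2 / H) - ps p v x.1 (x.2 / H)) 1
      rw [e1, Real.norm_eq_abs] at h1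
      exact h1.trans hy.2.2.1
    · have h1 := hy.2.2.2
      rw [e2_inner, he] at h1
      simpa [hv0] using h1
  have hene : ‖e‖ ≤ 1 := by rw [he]; simp
  have hHε : 0 < (H : ℝ) ^ ε := Real.rpow_pos_of_pos hH0 ε
  obtain ⟨b, s, p0, v0, j0, j1, hj, hs01, hs, hthin, hcard⟩ :=
    key H hHge hH3' ι p v e I m ((H : ℝ) ^ (-ε)) ((H : ℝ) ^ ε) 1 μ hm
      (Real.rpow_pos_of_pos hH0 _) hHε (by norm_num) (by norm_num) hμ.le hene hpv hI hlam hmult' hU'
  have hs0 : 0 < s j0 := lt_of_lt_of_le (by positivity) (hs j0).1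
  have hs1 : 0 < s j1 := lt_of_lt_of_le hs0 hs01
  have hcross := basis_cross b hj
  have hein : ∀ j, inner ℝ e (b j) = (b j) 0 := by
    intro j
    rw [e2_inner, he]; simp
  rw [hein] at hthin
  set κ : ℝ := |(b j1) 0| with hκ
  have hκ1 : κ ≤ 1 := by
    have h1 := PiLp.norm_apply_le (b j1) 0
    rw [b.norm_eq_one, Real.norm_eq_abs] at h1
    exact h1
  have hκ0 : 0 ≤ κ := abs_nonneg _
  set W : ℝ := 4 * (κ * s j1 + s j0) with hW
  have hW0 : 0 < W := by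
    rw [hW]
    have : 0 ≤ κ * s j1 := mul_nonneg hκ0 hs1.le
    linarith
  have hW8 : W ≤ 8 := by
    have h1 : κ * s j1 ≤ 1 := mul_le_one₀ hκ1 hs1.le (hs j1).2
    rw [hW]; linarith [(hs j0).2]
  -- the thin side
  have hpow : C * (H : ℝ) ^ ε * (H : ℝ) ^ ε / ((H : ℝ) ^ (-ε)) ^ 3 = C * (H : ℝ) ^ (5 * ε) := by
    have h1 : ((H : ℝ) ^ (-ε)) ^ 3 = ((H : ℝ) ^ (3 * ε))⁻¹ := by
      rw [← Real.rpow_natCast, ← Real.rpow_mul hH0.le, ← Real.rpow_neg hH0.le]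
      congr 1
      push_cast; ring
    rw [h1, div_inv_eq_mul, mul_assoc C, mul_assoc C, ← Real.rpow_add hH0, ← Real.rpow_add hH0]
    congr 2
    ring
  have hthin' : s j0 * H ≤ C * (H : ℝ) ^ (5 * ε) * W ^ μ := by
    rw [hpow] at hthin
    rw [show (2 : ℝ) - 1 = 1 by norm_num, Real.rpow_one] at hthin
    exact hthin
  have hs0H : 1 ≤ s j0 * H := by
    have := (hs j0).1
    rwa [div_le_iff₀ hH0] at this
  have hH4 : 0 < (H : ℝ) ^ (5 * ε) := Real.rpow_pos_of_pos hH0 _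
  have hsD : s j0 ≤ D * (H : ℝ) ^ (5 * ε - 1) := by
    have h1 : W ^ μ ≤ 8 ^ μ := Real.rpow_le_rpow hW0.le hW8 hμ.le
    have h2 : s j0 * H ≤ D * (H : ℝ) ^ (5 * ε) := by
      refine hthin'.trans ((mul_le_mul_of_nonneg_left h1 (by positivity)).trans (le_of_eq ?_))
      rw [hD]; ring
    rw [Real.rpow_sub hH0, Real.rpow_one, ← mul_div_assoc, le_div_iff₀ hH0]
    exact h2
  -- the long side, and transversality
  have hlong : (H : ℝ) ^ (-(η' / 2)) ≤ κ * s j1 := by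
    by_contra hcon
    push Not at hcon
    have h1 : s j0 ≤ D * (H : ℝ) ^ (-(η' / 2)) := by
      refine hsD.trans (mul_le_mul_of_nonneg_left ?_ hD0.le)
      exact Real.rpow_le_rpow_of_exponent_le hHR (by linarith)
    have h2 : W ≤ (4 + 4 * D) * (H : ℝ) ^ (-(η' / 2)) := by
      rw [hW]; nlinarith
    have h3 : W ^ μ ≤ (4 + 4 * D) ^ μ * (H : ℝ) ^ (-(η' * μ / 2)) := by
      refine (Real.rpow_le_rpow hW0.le h2 hμ.le).trans (le_of_eq ?_)
      rw [Real.mul_rpow (by positivity) (Real.rpow_nonneg hH0.le _), ← Real.rpow_mul hH0.le]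
      congr 2
      ring
    have h4 : (1 : ℝ) ≤ C * (H : ℝ) ^ (5 * ε) * ((4 + 4 * D) ^ μ * (H : ℝ) ^ (-(η' * μ / 2))) :=
      hs0H.trans (hthin'.trans (mul_le_mul_of_nonneg_left h3 (by positivity)))
    have h5 : (H : ℝ) ^ (5 * ε) * (H : ℝ) ^ (-(η' * μ / 2)) ≤ ((H : ℝ) ^ (η' * μ / 4))⁻¹ := by
      rw [← Real.rpow_add hH0, ← Real.rpow_neg hH0.le]
      exact Real.rpow_le_rpow_of_exponent_le hHR (by linarith)
    have h6 : (1 : ℝ) ≤ C * (4 + 4 * D) ^ μ * ((H : ℝ) ^ (η' * μ / 4))⁻¹ := by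
      refine h4.trans ?_
      calc C * (H : ℝ) ^ (5 * ε) * ((4 + 4 * D) ^ μ * (H : ℝ) ^ (-(η' * μ / 2)))
          = C * (4 + 4 * D) ^ μ * ((H : ℝ) ^ (5 * ε) * (H : ℝ) ^ (-(η' * μ / 2))) := by ring
        _ ≤ _ := mul_le_mul_of_nonneg_left h5 (by positivity)
    have h7 : 0 < (H : ℝ) ^ (η' * μ / 4) := Real.rpow_pos_of_pos hH0 _
    rw [← div_eq_mul_inv, le_div_iff₀ h7, one_mul] at h6
    linarith
  have hη2 : 0 < (H : ℝ) ^ (-(η' / 2)) := Real.rpow_pos_of_pos hH0 _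
  have hκs : (H : ℝ) ^ (-(η' / 2)) ≤ κ :=
    hlong.trans (mul_le_of_le_one_right hκ0 (hs j1).2)
  have hs1s : (H : ℝ) ^ (-(η' / 2)) ≤ s j1 :=
    hlong.trans (mul_le_of_le_one_left hs1.le hκ1)
  have hκpos : 0 < κ := hη2.trans_le hκs
  have hHη4 : 0 < (H : ℝ) ^ (η' / 4) := Real.rpow_pos_of_pos hH0 _
  -- slope
  set x0 : ℝ := (b j0) 0 with hx0
  set y0 : ℝ := (b j0) 1 with hy0
  have hy0κ : |y0| = κ := hcross
  have hy0ne : y0 ≠ 0 := by
    intro h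
    rw [h, abs_zero] at hy0κ
    exact hκpos.ne hy0κ
  have hx01 : |x0| ≤ 1 := by
    have h1 := PiLp.norm_apply_le (b j0) 0
    rw [b.norm_eq_one, Real.norm_eq_abs] at h1
    exact h1
  have hdiv : ∀ t w : ℝ, |t| ≤ w → |t / y0| ≤ w / κ := by
    intro t w h
    rw [abs_div, hy0κ]
    exact div_le_div_of_nonneg_right h hκpos.le
  have hinv : 1 / κ ≤ (H : ℝ) ^ (η' / 2) := by
    rw [div_le_iff₀ hκpos]
    have h1 := mul_le_mul_of_nonneg_left hκs (Real.rpow_pos_of_pos hH0 (η' / 2)).le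
    rw [← Real.rpow_add hH0] at h1
    simpa using h1
  have hwid : 2 * s j0 / κ ≤ (H : ℝ) ^ (η - 1) := by
    have h1 : 2 * s j0 / κ ≤ 2 * (D * (H : ℝ) ^ (5 * ε - 1)) * (H : ℝ) ^ (η' / 2) := by
      rw [div_eq_mul_one_div]
      exact mul_le_mul (by linarith) hinv (by positivity) (by positivity)
    refine h1.trans ?_
    have h2 : 2 * (D * (H : ℝ) ^ (5 * ε - 1)) * (H : ℝ) ^ (η' / 2) ≤
        (H : ℝ) ^ (η' / 4) * ((H : ℝ) ^ (5 * ε - 1) * (H : ℝ) ^ (η' / 2)) := by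
      have h3 : 2 * D ≤ (H : ℝ) ^ (η' / 4) := by linarith
      calc 2 * (D * (H : ℝ) ^ (5 * ε - 1)) * (H : ℝ) ^ (η' / 2)
          = 2 * D * ((H : ℝ) ^ (5 * ε - 1) * (H : ℝ) ^ (η' / 2)) := by ring
        _ ≤ _ := mul_le_mul_of_nonneg_right h3 (by positivity)
    refine h2.trans ?_
    rw [← Real.rpow_add hH0, ← Real.rpow_add hH0]
    exact Real.rpow_le_rpow_of_exponent_le hHR (by linarith)
  refine ⟨-(x0 / y0), inner ℝ p0 (b j0) / y0, inner ℝ v0 (b j0) / y0, ?_, ?_⟩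
  · rw [abs_neg]
    refine (hdiv x0 1 hx01).trans (hinv.trans ?_)
    exact Real.rpow_le_rpow_of_exponent_le hHR (by linarith)
  · have hcnt : (Fintype.card ι : ℝ) * (H : ℝ) ^ (-η) ≤
        m * ((H : ℝ) ^ (-ε)) ^ 2 / (C * (H : ℝ) ^ ε) * (s j0 * s j1) * (H : ℝ) ^ 2 := by
      have h1 : (Fintype.card ι : ℝ) * (H : ℝ) ^ (-η) ≤ m * (H : ℝ) ^ (1 + ε - η') := by
        refine (mul_le_mul_of_nonneg_right hfew (Real.rpow_pos_of_pos hH0 _).le).trans ?_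
        rw [mul_assoc, ← Real.rpow_add hH0]
        refine mul_le_mul_of_nonneg_left ?_ hm.le
        exact Real.rpow_le_rpow_of_exponent_le hHR (by linarith)
      have h2 : m * ((H : ℝ) ^ (-ε)) ^ 2 / (C * (H : ℝ) ^ ε) * (s j0 * s j1) * (H : ℝ) ^ 2 =
          m / C * ((H : ℝ) ^ (1 - 3 * ε) * ((s j0 * H) * s j1)) := by
        have h3 : (H : ℝ) ^ (1 - 3 * ε) = ((H : ℝ) ^ (-ε)) ^ 2 / (H : ℝ) ^ ε * H := by
          rw [← Real.rpow_natCast, ← Real.rpow_mul hH0.le, ← Real.rpow_sub hH0]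
          nth_rewrite 3 [← Real.rpow_one (H : ℝ)]
          rw [← Real.rpow_add hH0]
          congr 1
          push_cast; ring
        rw [h3]
        field_simp
      rw [h2]
      have h4 : (H : ℝ) ^ (-(η' / 2)) ≤ (s j0 * H) * s j1 := by
        refine hs1s.trans ?_
        exact le_mul_of_one_le_left hs1.le hs0H
      have h5 : (H : ℝ) ^ (1 + ε - η') ≤ 1 / C * ((H : ℝ) ^ (1 - 3 * ε) * (H : ℝ) ^ (-(η' / 2))) := by
        rw [div_mul_eq_mul_div, one_mul, le_div_iff₀ hC, ← Real.rpow_add hH0]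
        have h6 : C ≤ (H : ℝ) ^ (η' / 4) := by linarith
        refine (mul_le_mul_of_nonneg_left h6 (Real.rpow_pos_of_pos hH0 _).le).trans ?_
        rw [← Real.rpow_add hH0]
        exact Real.rpow_le_rpow_of_exponent_le hHR (by linarith)
      refine h1.trans ?_
      calc m * (H : ℝ) ^ (1 + ε - η')
          ≤ m * (1 / C * ((H : ℝ) ^ (1 - 3 * ε) * (H : ℝ) ^ (-(η' / 2)))) :=
            mul_le_mul_of_nonneg_left h5 hm.le
        _ = m / C * ((H : ℝ) ^ (1 - 3 * ε) * (H : ℝ) ^ (-(η' / 2))) := by ring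
        _ ≤ _ := by
          refine mul_le_mul_of_nonneg_left ?_ (by positivity)
          exact mul_le_mul_of_nonneg_left h4 (Real.rpow_pos_of_pos hH0 _).le
    refine hcnt.trans (hcard.trans ?_)
    refine Nat.cast_le.mpr (Finset.card_le_card fun i hi => ?_)
    rw [Finset.mem_filter] at hi ⊢
    have g1 := InPl.pos hi.2 j0
    have g2 := InPl.vel hi.2 j0
    rw [inner_sub_left, e2_inner (p i), hp0, hp1, ← hx0, ← hy0] at g1
    rw [inner_sub_left, e2_inner (v i), hv0, hv1, ← hx0, ← hy0] at g2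
    refine ⟨Finset.mem_univ _, ?_, ?_⟩
    · have h1 := hdiv _ _ (g1.trans (by linarith : s j0 ≤ 2 * s j0))
      refine le_trans (le_of_eq ?_) (h1.trans hwid)
      congr 1
      field_simp
      ring
    · have h1 := hdiv _ _ g2
      refine le_trans (le_of_eq ?_) (h1.trans hwid)
      congr 1
      field_simp
      ring

end Crest.Agent.R136.Rig418
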