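import Crest.Agent.R136.Rig6_418

/-!
# R136, (RIG), finite form, part 7 (helper418): finsets of lines, pruning
-/

set_option autoImplicit false

open Finset

namespace Crest.Agent.R136.Rig418

open Crest.Agent.R138.Defs (E2)
open Crest.Agent.R136.Slb480
open Crest.Agent.R138.Tub70 (InPl KM32)

/-- remove poor fibres of two maps -/
theorem prune2 {α β γ : Type*} [DecidableEq α] [DecidableEq β] [DecidableEq γ]
    (f : α → β) (g : α → γ) (a b : ℝ) :
    ∀ (N : ℕ) (I : Finset α), I.card = N → ∃ J ⊆ I,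
      (∀ x ∈ J, a ≤ ((J.filter fun y => f y = f x).card : ℝ)) ∧
      (∀ x ∈ J, b ≤ ((J.filter fun y => g y = g x).card : ℝ)) ∧
      (I.card : ℝ) ≤ J.card + max a 0 * (I.image f).card + max b 0 * (I.image g).card := by
  intro N
  induction N using Nat.strong_induction_on with
  | _ N IH =>
    intro I hN
    by_cases h1 : ∃ x ∈ I, ((I.filter fun y => f y = f x).card : ℝ) < a
    · obtain ⟨x, hx, hlt⟩ := h1
      set I1 := I.filter fun y => ¬ f y = f x with hI1
      have hsplit : (I.filter fun y => f y = f x).card + I1.card = I.card :=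
        Finset.card_filter_add_card_filter_not (s := I) (fun y => f y = f x)
      have hxm : x ∈ I.filter fun y => f y = f x := Finset.mem_filter.mpr ⟨hx, rfl⟩
      have hpos : 0 < (I.filter fun y => f y = f x).card := Finset.card_pos.mpr ⟨x, hxm⟩
      obtain ⟨J, hJ, j1, j2, j3⟩ := IH I1.card (by omega) I1 rfl
      refine ⟨J, hJ.trans (Finset.filter_subset _ _), j1, j2, ?_⟩
      have him : (I1.image f).card + 1 ≤ (I.image f).card := by
        have hsub : I1.image f ⊆ (I.image f).erase (f x) := by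
          intro y hy
          obtain ⟨i, hi, rfl⟩ := Finset.mem_image.mp hy
          rw [Finset.mem_filter] at hi
          exact Finset.mem_erase.mpr ⟨hi.2, Finset.mem_image_of_mem f hi.1⟩
        have h2 := Finset.card_le_card hsub
        rw [Finset.card_erase_of_mem (Finset.mem_image_of_mem f hx)] at h2
        have h3 : 0 < (I.image f).card := Finset.card_pos.mpr ⟨f x, Finset.mem_image_of_mem f hx⟩
        omega
      have hig : (I1.image g).card ≤ (I.image g).card :=
        Finset.card_le_card (Finset.image_subset_image (Finset.filter_subset _ _))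
      have e1 : (I.card : ℝ) = ((I.filter fun y => f y = f x).card : ℝ) + I1.card := by
        exact_mod_cast hsplit.symm
      have e2 : ((I1.image f).card : ℝ) + 1 ≤ (I.image f).card := by exact_mod_cast him
      have e3 : ((I1.image g).card : ℝ) ≤ (I.image g).card := by exact_mod_cast hig
      have e4 : max a 0 * ((I1.image f).card + 1 : ℝ) ≤ max a 0 * (I.image f).card :=
        mul_le_mul_of_nonneg_left e2 (le_max_right _ _)
      have e5 : max b 0 * ((I1.image g).card : ℝ) ≤ max b 0 * (I.image g).card :=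
        mul_le_mul_of_nonneg_left e3 (le_max_right _ _)
      have e6 : a ≤ max a 0 := le_max_left _ _
      linarith
    · by_cases h2 : ∃ x ∈ I, ((I.filter fun y => g y = g x).card : ℝ) < b
      · obtain ⟨x, hx, hlt⟩ := h2
        set I1 := I.filter fun y => ¬ g y = g x with hI1
        have hsplit : (I.filter fun y => g y = g x).card + I1.card = I.card :=
          Finset.card_filter_add_card_filter_not (s := I) (fun y => g y = g x)
        have hxm : x ∈ I.filter fun y => g y = g x := Finset.mem_filter.mpr ⟨hx, rfl⟩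
        have hpos : 0 < (I.filter fun y => g y = g x).card := Finset.card_pos.mpr ⟨x, hxm⟩
        obtain ⟨J, hJ, j1, j2, j3⟩ := IH I1.card (by omega) I1 rfl
        refine ⟨J, hJ.trans (Finset.filter_subset _ _), j1, j2, ?_⟩
        have him : (I1.image g).card + 1 ≤ (I.image g).card := by
          have hsub : I1.image g ⊆ (I.image g).erase (g x) := by
            intro y hy
            obtain ⟨i, hi, rfl⟩ := Finset.mem_image.mp hy
            rw [Finset.mem_filter] at hi
            exact Finset.mem_erase.mpr ⟨hi.2, Finset.mem_image_of_mem g hi.1⟩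
          have h2 := Finset.card_le_card hsub
          rw [Finset.card_erase_of_mem (Finset.mem_image_of_mem g hx)] at h2
          have h3 : 0 < (I.image g).card := Finset.card_pos.mpr ⟨g x, Finset.mem_image_of_mem g hx⟩
          omega
        have hig : (I1.image f).card ≤ (I.image f).card :=
          Finset.card_le_card (Finset.image_subset_image (Finset.filter_subset _ _))
        have e1 : (I.card : ℝ) = ((I.filter fun y => g y = g x).card : ℝ) + I1.card := by
          exact_mod_cast hsplit.symm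
        have e2 : ((I1.image g).card : ℝ) + 1 ≤ (I.image g).card := by exact_mod_cast him
        have e3 : ((I1.image f).card : ℝ) ≤ (I.image f).card := by exact_mod_cast hig
        have e4 : max b 0 * ((I1.image g).card + 1 : ℝ) ≤ max b 0 * (I.image g).card :=
          mul_le_mul_of_nonneg_left e2 (le_max_right _ _)
        have e5 : max a 0 * ((I1.image f).card : ℝ) ≤ max a 0 * (I.image f).card :=
          mul_le_mul_of_nonneg_left e3 (le_max_right _ _)
        have e6 : b ≤ max b 0 := le_max_left _ _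
        linarith
      · push Not at h1 h2
        refine ⟨I, Finset.Subset.refl _, h1, h2, ?_⟩
        have := mul_nonneg (le_max_right a 0) (Nat.cast_nonneg (α := ℝ) (I.image f).card)
        have := mul_nonneg (le_max_right b 0) (Nat.cast_nonneg (α := ℝ) (I.image g).card)
        linarith

open Classical in
/-- (RIG) for a finset of lines -/
theorem rig_classL (hKM : ∀ V : ℝ, KM32 V) (V : ℝ) (hV : 0 ≤ V) (μ η : ℝ) (hμ : 0 < μ)
    (hη : 0 < η) : ∃ ε : ℝ, 0 < ε ∧ ∃ H0 : ℕ, ∀ H : ℕ, H0 ≤ H →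
    ∀ (L : Finset ℕ), L.Nonempty → ∀ (A F c E : ℕ → ℝ) (I : Finset (ℕ × ℤ)) (m : ℝ), 0 < m →
      (∀ x ∈ I, x.1 ∈ L) →
      (∀ i ∈ L, |A i| ≤ V ∧ |F i| ≤ V ∧ |c i| ≤ V ∧ |E i| ≤ V) → (∀ x ∈ I, |x.2| ≤ (H : ℤ)) →
      (∀ i ∈ L, (H : ℝ) ^ (1 - ε) ≤ ((I.filter fun x => x.1 = i).card : ℝ)) →
      (∀ x ∈ I, m ≤ ((I.filter fun y => y.2 = x.2 ∧
        |(A y.1 + x.2 / H * c y.1) - (A x.1 + x.2 / H * c x.1)| ≤ 1 / (2 * H) ∧
        |(F y.1 + x.2 / H * E y.1) - (F x.1 + x.2 / H * E x.1)| ≤ 1 / (2 * H)).card : ℝ)) →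
      (L.card : ℝ) ≤ m * (H : ℝ) ^ (1 + ε) →
      (∀ x ∈ I, ∀ r w : ℝ, 1 / (H : ℝ) ≤ r → 1 / (H : ℝ) ≤ w →
        ((I.filter fun y => y.2 = x.2 ∧
          |(A y.1 + x.2 / H * c y.1) - (A x.1 + x.2 / H * c x.1)| ≤ r ∧
          |(F y.1 + x.2 / H * E y.1) - (F x.1 + x.2 / H * E x.1)| ≤ r ∧
          |c y.1 - c x.1| ≤ w).card : ℝ) ≤ (H : ℝ) ^ ε * (m * (r * H)) * w ^ μ) →
      ∃ s F0 E0 : ℝ, |s| ≤ (H : ℝ) ^ η ∧
        (L.card : ℝ) * (H : ℝ) ^ (-η) ≤
          ((L.filter fun i => |F i - s * A i - F0| ≤ (H : ℝ) ^ (η - 1) ∧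
            |E i - s * c i - E0| ≤ (H : ℝ) ^ (η - 1)).card : ℝ) := by
  obtain ⟨ε, hε, H0, key⟩ := rig_classI hKM V hV μ η hμ hη
  refine ⟨ε, hε, H0, ?_⟩
  intro H hH L hL A F c E I m hm hIL hbd hI hline hmult hfew hU
  have hne : Nonempty ↥L := hL.coe_sort
  set φ : ↥L × ℤ → ℕ × ℤ := fun x => (x.1.1, x.2) with hφ
  have hinj : Function.Injective φ := by
    intro x y h
    have h1 := Prod.ext_iff.mp h
    exact Prod.ext (Subtype.ext h1.1) h1.2
  set I' : Finset (↥L × ℤ) := I.preimage φ hinj.injOn with hI'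
  have hmem : ∀ x, x ∈ I' ↔ φ x ∈ I := fun x => by rw [hI', Finset.mem_preimage]
  have hcp : ∀ (P : ℕ × ℤ → Prop) (d1 : DecidablePred P) (d2 : DecidablePred fun x => P (φ x)),
      ((@Finset.filter _ (fun x => P (φ x)) d2 I').card : ℝ) =
      ((@Finset.filter _ P d1 I).card : ℝ) := by
    intro P d1 d2
    refine Nat.cast_inj.mpr ?_
    refine Finset.card_bij (fun x _ => φ x) ?_ ?_ ?_
    · intro x hx
      rw [Finset.mem_filter] at hx ⊢
      exact ⟨(hmem x).mp hx.1, hx.2⟩
    · intro x _ y _ h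
      exact hinj h
    · intro y hy
      rw [Finset.mem_filter] at hy
      refine ⟨(⟨y.1, hIL y hy.1⟩, y.2), ?_, rfl⟩
      rw [Finset.mem_filter]
      exact ⟨(hmem _).mpr hy.1, hy.2⟩
  obtain ⟨s, F0, E0, hs, hout⟩ := key H hH ↥L (fun i => A i.1) (fun i => F i.1) (fun i => c i.1)
    (fun i => E i.1) I' m hm (fun i => hbd i.1 i.2)
    (fun x hx => hI (φ x) ((hmem x).mp hx))
    (fun i => by
      refine (hline i.1 i.2).trans (le_trans (hcp (fun y => y.1 = i.1) _
        (fun _ => Classical.propDecidable _)).ge ?_)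
      refine Nat.cast_le.mpr (Finset.card_le_card ?_)
      intro x hx
      simp only [Finset.mem_filter] at hx ⊢
      exact ⟨hx.1, Subtype.ext hx.2⟩)
    (fun x hx => by
      exact (hmult (φ x) ((hmem x).mp hx)).trans (hcp (fun y => y.2 = (φ x).2 ∧
        |(A y.1 + (φ x).2 / H * c y.1) - (A (φ x).1 + (φ x).2 / H * c (φ x).1)| ≤ 1 / (2 * H) ∧
        |(F y.1 + (φ x).2 / H * E y.1) - (F (φ x).1 + (φ x).2 / H * E (φ x).1)| ≤ 1 / (2 * H))
        _ _).ge)
    (by rw [Fintype.card_coe]; exact hfew)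
    (fun x hx r w hr hw => by
      exact (hcp (fun y => y.2 = (φ x).2 ∧
        |(A y.1 + (φ x).2 / H * c y.1) - (A (φ x).1 + (φ x).2 / H * c (φ x).1)| ≤ r ∧
        |(F y.1 + (φ x).2 / H * E y.1) - (F (φ x).1 + (φ x).2 / H * E (φ x).1)| ≤ r ∧
        |c y.1 - c (φ x).1| ≤ w) _ _).le.trans (hU (φ x) ((hmem x).mp hx) r w hr hw))
  refine ⟨s, F0, E0, hs, ?_⟩
  rw [Fintype.card_coe] at hout
  refine hout.trans (Nat.cast_le.mpr ?_)
  refine Finset.card_le_card_of_injOn (fun i => i.1) ?_ ?_
  · intro i hi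
    rw [Finset.mem_coe, Finset.mem_filter] at hi
    rw [Finset.mem_coe, Finset.mem_filter]
    exact ⟨i.2, hi.2⟩
  · intro i _ i' _ h
    exact Subtype.ext h

end Crest.Agent.R136.Rig418
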