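import Crest.Agent.R136.Rig7_418

/-!
# R136, (RIG), finite form, part 8 (helper418): lines, real heights, uniform slices

`rig_fin`: the finite statement in the form given by uniform counts of a configuration: lines `L`,
heights `Z` (real numbers `z k`), incidences `I`.
-/

set_option autoImplicit false

open Finset

namespace Crest.Agent.R136.Rig418

open Crest.Agent.R138.Tub70 (KM32)

/-- the nearest height number -/
noncomputable def rd (z : ℕ → ℝ) (H : ℕ) (k : ℕ) : ℤ := round (z k * H)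

lemma rd_near {z : ℕ → ℝ} {H : ℕ} (hH : (0 : ℝ) < H) (k : ℕ) :
    |((rd z H k : ℤ) : ℝ) / H - z k| ≤ 1 / (2 * H) := by
  have h1 := abs_sub_round (z k * H)
  have e1 : ((rd z H k : ℤ) : ℝ) / H - z k = -(z k * H - round (z k * H)) / H := by
    unfold rd
    field_simp
    ring
  rw [e1, abs_div, abs_neg, abs_of_pos hH, div_le_div_iff₀ hH (by positivity)]
  nlinarith

lemma rd_abs {z : ℕ → ℝ} {H : ℕ} {k : ℕ} (hz : |z k| ≤ 1) : |rd z H k| ≤ (H : ℤ) := by
  have h1 := abs_sub_round (z k * H)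
  have hH : (0 : ℝ) ≤ H := Nat.cast_nonneg _
  have h2 : |z k * H| ≤ H := by
    rw [abs_mul, abs_of_nonneg hH]
    exact mul_le_of_le_one_left hH hz
  have h3 : |((rd z H k : ℤ) : ℝ)| < H + 1 := by
    unfold rd
    rw [abs_le] at h1 h2
    rw [abs_lt]
    constructor <;> linarith [h1.1, h1.2, h2.1, h2.2]
  have h4 : ((|rd z H k| : ℤ) : ℝ) < (((H : ℤ) + 1 : ℤ) : ℝ) := by
    push_cast
    exact h3
  have h5 : |rd z H k| < (H : ℤ) + 1 := Int.cast_lt.mp h4
  omega

/-- distance at two heights -/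
lemma height_move {A c A' c' z u : ℝ} :
    (A' + u * c') - (A + u * c) = ((A' + z * c') - (A + z * c)) + (u - z) * (c' - c) := by
  ring

open Classical in
/-- **(RIG), finite form for uniform slices.** -/
theorem rig_fin (hKM : ∀ V : ℝ, KM32 V) (V : ℝ) (hV : 0 ≤ V) (μ η : ℝ) (hμ : 0 < μ)
    (hη : 0 < η) : ∃ ε : ℝ, 0 < ε ∧ ∃ H0 : ℕ, ∀ H : ℕ, H0 ≤ H →
    ∀ (L Z : Finset ℕ) (I : Finset (ℕ × ℕ)) (z A F c E : ℕ → ℝ), L.Nonempty → Z.Nonempty →
      (∀ k ∈ Z, |z k| ≤ 1) →
      (∀ i ∈ L, |A i| ≤ V ∧ |F i| ≤ V ∧ |c i| ≤ V ∧ |E i| ≤ V) →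
      (∀ k ∈ Z, (H : ℝ) ^ (-ε) * (L.card : ℝ) ≤ ((L.filter fun l => (l, k) ∈ I).card : ℝ)) →
      (∀ k ∈ Z, ((Z.filter fun k' => |z k' - z k| ≤ 1 / H).card : ℝ) ≤
        (H : ℝ) ^ (ε - 1) * (Z.card : ℝ)) →
      (∀ k ∈ Z, ∃ lab : ℕ → ℕ,
        (∀ i ∈ L, ∀ l ∈ L, (i, k) ∈ I → (l, k) ∈ I → lab l = lab i →
          |(A l + z k * c l) - (A i + z k * c i)| ≤ 1 / H ∧
          |(F l + z k * E l) - (F i + z k * E i)| ≤ 1 / H) ∧
        (((L.filter fun l => (l, k) ∈ I).image lab).card : ℝ) ≤ (H : ℝ) ^ (1 + ε)) →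
      (∀ k ∈ Z, ∀ i ∈ L, (i, k) ∈ I → ∀ r w : ℝ, 1 / (H : ℝ) ≤ r → 1 / (H : ℝ) ≤ w →
        ((L.filter fun l => (l, k) ∈ I ∧ |(A l + z k * c l) - (A i + z k * c i)| ≤ r ∧
          |(F l + z k * E l) - (F i + z k * E i)| ≤ r ∧ |c l - c i| ≤ w).card : ℝ) ≤
          (H : ℝ) ^ ε * (L.card : ℝ) * r * w ^ μ) →
      ∃ s F0 E0 : ℝ, |s| ≤ (H : ℝ) ^ η ∧
        (L.card : ℝ) * (H : ℝ) ^ (-η) ≤
          ((L.filter fun i => |F i - s * A i - F0| ≤ (H : ℝ) ^ (η - 1) ∧
            |E i - s * c i - E0| ≤ (H : ℝ) ^ (η - 1)).card : ℝ) := by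
  obtain ⟨ε', hε', H1, key⟩ := rig_classL hKM 1 (by norm_num) μ (η / 2) hμ (by positivity)
  set K : ℝ := 8 * (V + 1) with hK
  have hK8 : 8 ≤ K := by rw [hK]; linarith
  have hK0 : 0 < K := by linarith
  obtain ⟨ε, hε, hεε, hεη⟩ : ∃ ε : ℝ, 0 < ε ∧ ε ≤ ε' / 8 ∧ ε ≤ η / 4 :=
    ⟨min (ε' / 8) (η / 4), lt_min (by positivity) (by positivity), min_le_left _ _,
      min_le_right _ _⟩
  obtain ⟨H2, hH2⟩ := exists_large (24 * (K * K ^ μ) + 12) (ε' / 2) (by positivity)
  obtain ⟨H3, hH3⟩ := exists_large (K + 2) (η / 4) (by positivity)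
  refine ⟨ε, hε, max (max H1 H2) (max H3 1), ?_⟩
  intro H hHm L Z I z A F c E hL hZ hz hbd hslice hfrost hcells hU
  have hH1' : H1 ≤ H := le_trans (le_trans (le_max_left _ _) (le_max_left _ _)) hHm
  have hH2' := hH2 H (le_trans (le_trans (le_max_right _ _) (le_max_left _ _)) hHm)
  have hH3' := hH3 H (le_trans (le_trans (le_max_left _ _) (le_max_right _ _)) hHm)
  have hHge : 1 ≤ H := le_trans (le_trans (le_max_right _ _) (le_max_right _ _)) hHm
  have hH0 : (0 : ℝ) < H := by exact_mod_cast hHge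
  have hHR : (1 : ℝ) ≤ H := by exact_mod_cast hHge
  have hL0 : (0 : ℝ) < (L.card : ℝ) := by exact_mod_cast hL.card_pos
  have hZ0 : (0 : ℝ) < (Z.card : ℝ) := by exact_mod_cast hZ.card_pos
  have hKμ : 0 < K ^ μ := Real.rpow_pos_of_pos hK0 _
  have hpw : ∀ t : ℝ, 0 < (H : ℝ) ^ t := fun t => Real.rpow_pos_of_pos hH0 t
  -- height numbers and representatives
  set J0 : Finset ℤ := Z.image (rd z H) with hJ0
  have hrep : ∀ j ∈ J0, ∃ k ∈ Z, rd z H k = j := fun j hj => by
    obtain ⟨k, hk, h⟩ := Finset.mem_image.mp hj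
    exact ⟨k, hk, h⟩
  choose! kap hkapZ hkap using hrep
  choose! lab hlab1 hlab2 using hcells
  have hkn : ∀ j ∈ J0, |(j : ℝ) / H - z (kap j)| ≤ 1 / (2 * H) := by
    intro j hj
    have := rd_near (z := z) hH0 (kap j)
    rwa [hkap j hj] at this
  have hJabs : ∀ j ∈ J0, |j| ≤ (H : ℤ) := by
    intro j hj
    rw [← hkap j hj]
    exact rd_abs (hz _ (hkapZ j hj))
  have hJ0ne : J0.Nonempty := hZ.image _
  have hJ0pos : (0 : ℝ) < (J0.card : ℝ) := by exact_mod_cast hJ0ne.card_pos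
  have hJ0le : (J0.card : ℝ) ≤ 3 * H := by
    have h1 : J0 ⊆ Finset.Icc (-(H : ℤ)) H := by
      intro j hj
      rw [Finset.mem_Icc]
      exact abs_le.mp (hJabs j hj)
    have h2 := Finset.card_le_card h1
    have h3 : (Finset.Icc (-(H : ℤ)) H).card = 2 * H + 1 := by rw [Int.card_Icc]; omega
    rw [h3] at h2
    have h4 : (J0.card : ℝ) ≤ 2 * H + 1 := by exact_mod_cast h2
    linarith
  have hJ0ge : (H : ℝ) ^ (1 - ε) ≤ (J0.card : ℝ) := by
    have h1 : (Z.card : ℝ) = ∑ j ∈ J0, ((Z.filter fun k => rd z H k = j).card : ℝ) := by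
      exact_mod_cast Finset.card_eq_sum_card_fiberwise (s := Z) (t := J0) (f := rd z H)
        (fun i hi => Finset.mem_image_of_mem _ hi)
    have h2 : ∀ j ∈ J0, ((Z.filter fun k => rd z H k = j).card : ℝ) ≤
        (H : ℝ) ^ (ε - 1) * (Z.card : ℝ) := by
      intro j hj
      refine le_trans ?_ (hfrost (kap j) (hkapZ j hj))
      refine Nat.cast_le.mpr (Finset.card_le_card fun k hk => ?_)
      rw [Finset.mem_filter] at hk ⊢
      refine ⟨hk.1, ?_⟩
      have g1 := rd_near (z := z) hH0 k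
      rw [hk.2] at g1
      have g2 := hkn j hj
      have g3 : (1 : ℝ) / H = 1 / (2 * H) + 1 / (2 * H) := by field_simp; norm_num
      rw [g3]
      rw [abs_le] at g1 g2 ⊢
      constructor <;> linarith [g1.1, g1.2, g2.1, g2.2]
    have h3 : (Z.card : ℝ) ≤ J0.card * ((H : ℝ) ^ (ε - 1) * (Z.card : ℝ)) := by
      rw [h1]
      nth_rewrite 2 [← h1]
      refine (Finset.sum_le_sum h2).trans ?_
      rw [Finset.sum_const, nsmul_eq_mul]
    have h4 : 1 ≤ J0.card * (H : ℝ) ^ (ε - 1) := by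
      have : (1 : ℝ) * Z.card ≤ (J0.card * (H : ℝ) ^ (ε - 1)) * Z.card := by linarith
      exact le_of_mul_le_mul_right this hZ0
    have h5 : (H : ℝ) ^ (1 - ε) * (H : ℝ) ^ (ε - 1) = 1 := by
      rw [← Real.rpow_add hH0]; simp
    have h6 : (H : ℝ) ^ (1 - ε) * (H : ℝ) ^ (ε - 1) ≤ J0.card * (H : ℝ) ^ (ε - 1) := by
      rw [h5]; exact h4
    exact le_of_mul_le_mul_right h6 (hpw _)
  -- the incidences
  set I1 : Finset (ℕ × ℤ) := (L ×ˢ J0).filter fun x => (x.1, kap x.2) ∈ I with hI1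
  have hI1m : ∀ x ∈ I1, x.1 ∈ L ∧ x.2 ∈ J0 ∧ (x.1, kap x.2) ∈ I := by
    intro x hx
    rw [hI1, Finset.mem_filter, Finset.mem_product] at hx
    exact ⟨hx.1.1, hx.1.2, hx.2⟩
  have hI1card : (J0.card : ℝ) * ((H : ℝ) ^ (-ε) * (L.card : ℝ)) ≤ (I1.card : ℝ) := by
    have h1 : (I1.card : ℝ) = ∑ j ∈ J0, ((I1.filter fun x => x.2 = j).card : ℝ) := by
      exact_mod_cast Finset.card_eq_sum_card_fiberwise (s := I1) (t := J0) (f := fun x => x.2)
        (fun i hi => (hI1m i hi).2.1)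
    rw [h1, ← nsmul_eq_mul, ← Finset.sum_const]
    refine Finset.sum_le_sum fun j hj => ?_
    refine (hslice (kap j) (hkapZ j hj)).trans (Nat.cast_le.mpr ?_)
    refine Finset.card_le_card_of_injOn (fun l => (l, j)) ?_ ?_
    · intro l hl
      rw [Finset.mem_coe, Finset.mem_filter] at hl
      rw [Finset.mem_coe, Finset.mem_filter, hI1, Finset.mem_filter, Finset.mem_product]
      exact ⟨⟨⟨hl.1, hj⟩, hl.2⟩, rfl⟩
    · intro l _ l' _ h
      exact (Prod.ext_iff.mp h).1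
  have hI1pos : (0 : ℝ) < (I1.card : ℝ) :=
    lt_of_lt_of_le (mul_pos hJ0pos (mul_pos (hpw _) hL0)) hI1card
  -- cells
  set g : ℕ × ℤ → ℤ × ℕ := fun x => (x.2, lab (kap x.2) x.1) with hg
  have hgcard : ((I1.image g).card : ℝ) ≤ 3 * H * (H : ℝ) ^ (1 + ε) := by
    have h1 : ((I1.image g).card : ℝ) =
        ∑ j ∈ J0, (((I1.image g).filter fun y => y.1 = j).card : ℝ) := by
      exact_mod_cast Finset.card_eq_sum_card_fiberwise (s := I1.image g) (t := J0)
        (f := fun y => y.1) (fun y hy => by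
          obtain ⟨x, hx, rfl⟩ := Finset.mem_image.mp hy
          exact (hI1m x hx).2.1)
    rw [h1]
    refine (Finset.sum_le_sum (g := fun _ => (H : ℝ) ^ (1 + ε)) fun j hj => ?_).trans ?_
    · refine le_trans (Nat.cast_le.mpr ?_) (hlab2 (kap j) (hkapZ j hj))
      refine Finset.card_le_card_of_injOn (fun y => y.2) ?_ ?_
      · intro y hy
        rw [Finset.mem_coe, Finset.mem_filter] at hy
        obtain ⟨hy1, hy2⟩ := hy
        obtain ⟨x, hx, rfl⟩ := Finset.mem_image.mp hy1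
        have hx2 : x.2 = j := hy2
        rw [Finset.mem_coe, Finset.mem_image]
        refine ⟨x.1, ?_, by simp only [hg, hx2]⟩
        rw [Finset.mem_filter]
        have h2 := hI1m x hx
        rw [hx2] at h2
        exact ⟨h2.1, h2.2.2⟩
      · intro y hy y' hy' h
        rw [Finset.mem_coe, Finset.mem_filter] at hy hy'
        exact Prod.ext (hy.2.trans hy'.2.symm) h
    · rw [Finset.sum_const, nsmul_eq_mul]
      exact mul_le_mul_of_nonneg_right hJ0le (hpw _).le
  have hfcard : ((I1.image Prod.fst).card : ℝ) ≤ (L.card : ℝ) := by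
    refine Nat.cast_le.mpr (Finset.card_le_card fun y hy => ?_)
    obtain ⟨x, hx, rfl⟩ := Finset.mem_image.mp hy
    exact (hI1m x hx).1
  -- pruning
  set a : ℝ := (I1.card : ℝ) / (4 * L.card) with ha
  set b : ℝ := (I1.card : ℝ) / (4 * (3 * H * (H : ℝ) ^ (1 + ε))) with hb
  have ha0 : 0 < a := by rw [ha]; positivity
  have hb0 : 0 < b := by rw [hb]; have := hpw (1 + ε); positivity
  obtain ⟨J, hJI, hJa, hJb, hJcard⟩ := prune2 (Prod.fst : ℕ × ℤ → ℕ) g a b I1.card I1 rfl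
  rw [max_eq_left ha0.le, max_eq_left hb0.le] at hJcard
  have hJhalf : (I1.card : ℝ) ≤ 2 * J.card := by
    have h1 : a * ((I1.image Prod.fst).card : ℝ) ≤ (I1.card : ℝ) / 4 := by
      refine (mul_le_mul_of_nonneg_left hfcard ha0.le).trans (le_of_eq ?_)
      rw [ha]; field_simp
    have h2 : b * ((I1.image g).card : ℝ) ≤ (I1.card : ℝ) / 4 := by
      refine (mul_le_mul_of_nonneg_left hgcard hb0.le).trans (le_of_eq ?_)
      rw [hb]
      have := (hpw (1 + ε)).ne'
      field_simp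
    linarith
  have hJpos : (0 : ℝ) < (J.card : ℝ) := by linarith
  have hJne : J.Nonempty := by
    rw [← Finset.card_pos]; exact_mod_cast hJpos
  set L1 : Finset ℕ := J.image Prod.fst with hL1
  have hL1ne : L1.Nonempty := hJne.image _
  have hL1L : L1 ⊆ L := by
    intro l hl
    obtain ⟨x, hx, rfl⟩ := Finset.mem_image.mp hl
    exact (hI1m x (hJI hx)).1
  have hL1c : ((L1.card : ℕ) : ℝ) ≤ L.card := Nat.cast_le.mpr (Finset.card_le_card hL1L)
  -- lower bound for b
  have hbH : (L.card : ℝ) * (H : ℝ) ^ (-(3 * ε)) / 12 ≤ b * H := by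
    have h1 : (H : ℝ) ^ (1 - 2 * ε) * L.card ≤ I1.card := by
      refine le_trans ?_ hI1card
      have : (H : ℝ) ^ (1 - 2 * ε) = (H : ℝ) ^ (1 - ε) * (H : ℝ) ^ (-ε) := by
        rw [← Real.rpow_add hH0]; congr 1; ring
      rw [this, mul_assoc]
      exact mul_le_mul_of_nonneg_right hJ0ge (mul_pos (hpw _) hL0).le
    have h2 : b * H = I1.card / (12 * (H : ℝ) ^ (1 + ε)) := by
      rw [hb]
      have := (hpw (1 + ε)).ne'
      field_simp
      ring
    have h3 : (H : ℝ) ^ (-(3 * ε)) = (H : ℝ) ^ (1 - 2 * ε) / (H : ℝ) ^ (1 + ε) := by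
      rw [← Real.rpow_sub hH0]; congr 1; ring
    rw [h2, h3]
    rw [show (L.card : ℝ) * ((H : ℝ) ^ (1 - 2 * ε) / (H : ℝ) ^ (1 + ε)) / 12 =
      (H : ℝ) ^ (1 - 2 * ε) * L.card / (12 * (H : ℝ) ^ (1 + ε)) by
        have := (hpw (1 + ε)).ne'
        field_simp]
    exact div_le_div_of_nonneg_right h1 (by have := hpw (1 + ε); positivity)
  have hbig : 24 * (K * K ^ μ) + 12 ≤ (H : ℝ) ^ (ε' - 4 * ε) :=
    hH2'.trans (Real.rpow_le_rpow_of_exponent_le hHR (by linarith))
  have hbig3 : 12 ≤ (H : ℝ) ^ (ε' - 3 * ε) := by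
    have h1 : (H : ℝ) ^ (ε' - 4 * ε) ≤ (H : ℝ) ^ (ε' - 3 * ε) :=
      Real.rpow_le_rpow_of_exponent_le hHR (by linarith)
    have h2 : 0 < 24 * (K * K ^ μ) := by positivity
    linarith
  have hinv : 1 / (2 * (H : ℝ)) * (2 * V) = V / H := by field_simp
  -- apply the class theorem
  obtain ⟨s, F0, E0, hs, hout⟩ := key H hH1' L1 hL1ne (fun i => A i / K) (fun i => F i / K)
    (fun i => c i / K) (fun i => E i / K) J b hb0
    (fun x hx => Finset.mem_image_of_mem _ hx)
    (fun i hi => by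
      obtain ⟨g1, g2, g3, g4⟩ := hbd i (hL1L hi)
      have hVK : V ≤ K := by rw [hK]; linarith
      refine ⟨?_, ?_, ?_, ?_⟩ <;>
      · rw [abs_div, abs_of_pos hK0, div_le_one hK0]
        linarith)
    (fun x hx => hJabs _ (hI1m x (hJI hx)).2.1)
    (fun i hi => by
      obtain ⟨x, hx, rfl⟩ := Finset.mem_image.mp hi
      refine le_trans ?_ (hJa x hx)
      rw [ha, le_div_iff₀ (by positivity)]
      have h1 : (H : ℝ) ^ (1 - ε') * 4 ≤ (J0.card : ℝ) * (H : ℝ) ^ (-ε) := by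
        have h2 : (H : ℝ) ^ (1 - ε') * 4 ≤ (H : ℝ) ^ (1 - ε') * (H : ℝ) ^ (ε' - 3 * ε) :=
          mul_le_mul_of_nonneg_left (by linarith) (hpw _).le
        refine h2.trans ?_
        rw [← Real.rpow_add hH0]
        have h3 : (H : ℝ) ^ (1 - ε' + (ε' - 3 * ε)) ≤ (H : ℝ) ^ (1 - ε + -ε) :=
          Real.rpow_le_rpow_of_exponent_le hHR (by linarith)
        refine h3.trans ?_
        rw [Real.rpow_add hH0]
        exact mul_le_mul_of_nonneg_right hJ0ge (hpw _).le
      calc (H : ℝ) ^ (1 - ε') * (4 * L.card) = ((H : ℝ) ^ (1 - ε') * 4) * L.card := by ring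
        _ ≤ ((J0.card : ℝ) * (H : ℝ) ^ (-ε)) * L.card := mul_le_mul_of_nonneg_right h1 hL0.le
        _ = (J0.card : ℝ) * ((H : ℝ) ^ (-ε) * L.card) := by ring
        _ ≤ _ := hI1card)
    (fun x hx => by
      refine (hJb x hx).trans (Nat.cast_le.mpr (Finset.card_le_card fun y hy => ?_))
      rw [Finset.mem_filter] at hy ⊢
      obtain ⟨hyJ, hgy⟩ := hy
      have e1 : y.2 = x.2 := (Prod.ext_iff.mp hgy).1
      have e2 : lab (kap y.2) y.1 = lab (kap x.2) x.1 := (Prod.ext_iff.mp hgy).2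
      rw [e1] at e2
      have hx1 := hI1m x (hJI hx)
      have hy1 := hI1m y (hJI hyJ)
      rw [e1] at hy1
      obtain ⟨n1, n2⟩ := hlab1 (kap x.2) (hkapZ _ hx1.2.1) x.1 hx1.1 y.1 hy1.1 hx1.2.2 hy1.2.2 e2
      have hkk := hkn x.2 hx1.2.1
      obtain ⟨bx1, bx2, bx3, bx4⟩ := hbd x.1 hx1.1
      obtain ⟨by1, by2, by3, by4⟩ := hbd y.1 hy1.1
      have hcc : |c y.1 - c x.1| ≤ 2 * V := by
        rw [abs_le] at bx3 by3 ⊢
        constructor <;> linarith [bx3.1, bx3.2, by3.1, by3.2]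
      have hEE : |E y.1 - E x.1| ≤ 2 * V := by
        rw [abs_le] at bx4 by4 ⊢
        constructor <;> linarith [bx4.1, bx4.2, by4.1, by4.2]
      have hfin : ∀ t : ℝ, |t| ≤ 1 / H + V / H → |t / K| ≤ 1 / (2 * H) := by
        intro t ht
        rw [abs_div, abs_of_pos hK0, div_le_iff₀ hK0]
        refine ht.trans ?_
        rw [← add_div, div_le_iff₀ hH0]
        have : 1 / (2 * (H : ℝ)) * K * H = K / 2 := by field_simp
        rw [this, hK]
        linarith
      refine ⟨hyJ, e1, ?_, ?_⟩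
      · have h1 : (A y.1 / K + x.2 / H * (c y.1 / K)) - (A x.1 / K + x.2 / H * (c x.1 / K)) =
            ((A y.1 + x.2 / H * c y.1) - (A x.1 + x.2 / H * c x.1)) / K := by
          field_simp
        rw [h1]
        refine hfin _ ?_
        rw [height_move (z := z (kap x.2))]
        refine (abs_add_le _ _).trans (add_le_add n1 ?_)
        rw [abs_mul, ← hinv]
        exact mul_le_mul hkk hcc (abs_nonneg _) (by positivity)
      · have h1 : (F y.1 / K + x.2 / H * (E y.1 / K)) - (F x.1 / K + x.2 / H * (E x.1 / K)) =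
            ((F y.1 + x.2 / H * E y.1) - (F x.1 + x.2 / H * E x.1)) / K := by
          field_simp
        rw [h1]
        refine hfin _ ?_
        rw [height_move (z := z (kap x.2))]
        refine (abs_add_le _ _).trans (add_le_add n2 ?_)
        rw [abs_mul, ← hinv]
        exact mul_le_mul hkk hEE (abs_nonneg _) (by positivity))
    (by
      refine hL1c.trans ?_
      have h1 : (L.card : ℝ) ≤ b * H * (H : ℝ) ^ ε' := by
        have h2 := mul_le_mul_of_nonneg_right hbH (hpw ε').le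
        refine le_trans ?_ h2
        have h3 : (H : ℝ) ^ (-(3 * ε)) * (H : ℝ) ^ ε' = (H : ℝ) ^ (ε' - 3 * ε) := by
          rw [← Real.rpow_add hH0]; congr 1; ring
        calc (L.card : ℝ) = L.card * 12 / 12 := by ring
          _ ≤ L.card * (H : ℝ) ^ (ε' - 3 * ε) / 12 := by
              refine div_le_div_of_nonneg_right ?_ (by norm_num)
              exact mul_le_mul_of_nonneg_left hbig3 hL0.le
          _ = L.card * (H : ℝ) ^ (-(3 * ε)) / 12 * (H : ℝ) ^ ε' := by rw [← h3]; ring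
      rw [Real.rpow_add hH0, Real.rpow_one]
      linarith)
    (fun x hx r w hr hw => by
      have hx1 := hI1m x (hJI hx)
      have hkk := hkn x.2 hx1.2.1
      obtain ⟨bx1, bx2, bx3, bx4⟩ := hbd x.1 hx1.1
      have hr0 : 0 < r := lt_of_lt_of_le (by positivity) hr
      have hw0 : 0 < w := lt_of_lt_of_le (by positivity) hw
      have hcnt := hU (kap x.2) (hkapZ _ hx1.2.1) x.1 hx1.1 hx1.2.2 (2 * K * r) (K * w)
        (hr.trans (by nlinarith)) (hw.trans (by nlinarith))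
      have hVr : V / H ≤ K * r := by
        have h1 : V / H = V * (1 / H) := by ring
        rw [h1]
        exact mul_le_mul (by rw [hK]; linarith) hr (by positivity) hK0.le
      refine le_trans (Nat.cast_le.mpr ?_) (hcnt.trans ?_)
      · refine Finset.card_le_card_of_injOn (fun y => y.1) ?_ ?_
        · intro y hy
          rw [Finset.mem_coe, Finset.mem_filter] at hy
          obtain ⟨hyJ, e1, q1, q2, q3⟩ := hy
          have hy1 := hI1m y (hJI hyJ)
          rw [e1] at hy1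
          obtain ⟨by1, by2, by3, by4⟩ := hbd y.1 hy1.1
          have hcc : |c y.1 - c x.1| ≤ 2 * V := by
            rw [abs_le] at bx3 by3 ⊢
            constructor <;> linarith [bx3.1, bx3.2, by3.1, by3.2]
          have hEE : |E y.1 - E x.1| ≤ 2 * V := by
            rw [abs_le] at bx4 by4 ⊢
            constructor <;> linarith [bx4.1, bx4.2, by4.1, by4.2]
          have hkk' : |z (kap x.2) - (x.2 : ℝ) / H| ≤ 1 / (2 * H) := by
            rw [abs_sub_comm]; exact hkk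
          have hmul : ∀ t : ℝ, |t / K| ≤ r → |t| ≤ K * r := by
            intro t ht
            rw [abs_div, abs_of_pos hK0, div_le_iff₀ hK0] at ht
            linarith
          rw [Finset.mem_coe, Finset.mem_filter]
          refine ⟨hy1.1, hy1.2.2, ?_, ?_, ?_⟩
          · have h1 : (A y.1 / K + x.2 / H * (c y.1 / K)) - (A x.1 / K + x.2 / H * (c x.1 / K)) =
                ((A y.1 + x.2 / H * c y.1) - (A x.1 + x.2 / H * c x.1)) / K := by
              field_simp
            rw [h1] at q1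
            rw [height_move (z := (x.2 : ℝ) / H)]
            have h2 := hmul _ q1
            have h3 : |(z (kap x.2) - (x.2 : ℝ) / H) * (c y.1 - c x.1)| ≤ V / H := by
              rw [abs_mul, ← hinv]
              exact mul_le_mul hkk' hcc (abs_nonneg _) (by positivity)
            refine (abs_add_le _ _).trans ?_
            linarith
          · have h1 : (F y.1 / K + x.2 / H * (E y.1 / K)) - (F x.1 / K + x.2 / H * (E x.1 / K)) =
                ((F y.1 + x.2 / H * E y.1) - (F x.1 + x.2 / H * E x.1)) / K := by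
              field_simp
            rw [h1] at q2
            rw [height_move (z := (x.2 : ℝ) / H)]
            have h2 := hmul _ q2
            have h3 : |(z (kap x.2) - (x.2 : ℝ) / H) * (E y.1 - E x.1)| ≤ V / H := by
              rw [abs_mul, ← hinv]
              exact mul_le_mul hkk' hEE (abs_nonneg _) (by positivity)
            refine (abs_add_le _ _).trans ?_
            linarith
          · rw [← sub_div, abs_div, abs_of_pos hK0, div_le_iff₀ hK0] at q3
            linarith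
        · intro y hy y' hy' h
          rw [Finset.mem_coe, Finset.mem_filter] at hy hy'
          exact Prod.ext h (hy.2.1.trans hy'.2.1.symm)
      · rw [Real.mul_rpow hK0.le hw0.le]
        have hwμ : 0 ≤ w ^ μ := Real.rpow_nonneg hw0.le _
        have h1 : (H : ℝ) ^ ε * (L.card : ℝ) * (2 * K * r) * (K ^ μ * w ^ μ) =
            ((H : ℝ) ^ ε * (2 * (K * K ^ μ)) * L.card) * (r * w ^ μ) := by ring
        have h2 : (H : ℝ) ^ ε' * (b * (r * H)) * w ^ μ = ((H : ℝ) ^ ε' * (b * H)) * (r * w ^ μ) := by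
          ring
        rw [h1, h2]
        refine mul_le_mul_of_nonneg_right ?_ (mul_nonneg hr0.le hwμ)
        have h3 : (H : ℝ) ^ ε * (2 * (K * K ^ μ)) * L.card ≤
            (H : ℝ) ^ ε' * ((L.card : ℝ) * (H : ℝ) ^ (-(3 * ε)) / 12) := by
          have h4 : (H : ℝ) ^ ε' * ((L.card : ℝ) * (H : ℝ) ^ (-(3 * ε)) / 12) =
              (H : ℝ) ^ ε * ((H : ℝ) ^ (ε' - 4 * ε) / 12) * L.card := by
            have : (H : ℝ) ^ ε' * (H : ℝ) ^ (-(3 * ε)) = (H : ℝ) ^ ε * (H : ℝ) ^ (ε' - 4 * ε) := by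
              rw [← Real.rpow_add hH0, ← Real.rpow_add hH0]; congr 1; ring
            calc (H : ℝ) ^ ε' * ((L.card : ℝ) * (H : ℝ) ^ (-(3 * ε)) / 12)
                = ((H : ℝ) ^ ε' * (H : ℝ) ^ (-(3 * ε))) * L.card / 12 := by ring
              _ = _ := by rw [this]; ring
          rw [h4]
          refine mul_le_mul_of_nonneg_right ?_ hL0.le
          refine mul_le_mul_of_nonneg_left ?_ (hpw ε).le
          linarith
        exact h3.trans (mul_le_mul_of_nonneg_left hbH (hpw ε').le))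
  -- conclusion
  have hL1big : (L.card : ℝ) * (H : ℝ) ^ (-η) ≤ (L1.card : ℝ) * (H : ℝ) ^ (-(η / 2)) := by
    have h1 : (J.card : ℝ) ≤ L1.card * J0.card := by
      have h2 : (J.card : ℝ) = ∑ l ∈ L1, ((J.filter fun x => x.1 = l).card : ℝ) := by
        exact_mod_cast Finset.card_eq_sum_card_fiberwise (s := J) (t := L1) (f := Prod.fst)
          (fun i hi => Finset.mem_image_of_mem _ hi)
      rw [h2]
      refine (Finset.sum_le_sum (g := fun _ => (J0.card : ℝ)) fun l _ => ?_).trans ?_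
      · refine Nat.cast_le.mpr ?_
        refine Finset.card_le_card_of_injOn (fun x => x.2) ?_ ?_
        · intro x hx
          rw [Finset.mem_coe, Finset.mem_filter] at hx
          exact (hI1m x (hJI hx.1)).2.1
        · intro x hx y hy h
          rw [Finset.mem_coe, Finset.mem_filter] at hx hy
          exact Prod.ext (hx.2.trans hy.2.symm) h
      · rw [Finset.sum_const, nsmul_eq_mul]
    have h3 : (J0.card : ℝ) * ((H : ℝ) ^ (-ε) * L.card) ≤ J0.card * (2 * L1.card) := by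
      calc (J0.card : ℝ) * ((H : ℝ) ^ (-ε) * L.card) ≤ I1.card := hI1card
        _ ≤ 2 * J.card := hJhalf
        _ ≤ 2 * (L1.card * J0.card) := by linarith
        _ = _ := by ring
    have h4 : (H : ℝ) ^ (-ε) * L.card ≤ 2 * L1.card := le_of_mul_le_mul_left h3 hJ0pos
    have h5 : (H : ℝ) ^ (-η) = (H : ℝ) ^ (-ε) * (H : ℝ) ^ (ε - η) := by
      rw [← Real.rpow_add hH0]; congr 1; ring
    have h6 : 2 * (H : ℝ) ^ (ε - η) ≤ (H : ℝ) ^ (-(η / 2)) := by
      have h7 : (2 : ℝ) ≤ (H : ℝ) ^ (η / 4) := by linarith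
      calc 2 * (H : ℝ) ^ (ε - η) ≤ (H : ℝ) ^ (η / 4) * (H : ℝ) ^ (ε - η) :=
            mul_le_mul_of_nonneg_right h7 (hpw _).le
        _ = (H : ℝ) ^ (η / 4 + (ε - η)) := by rw [← Real.rpow_add hH0]
        _ ≤ _ := Real.rpow_le_rpow_of_exponent_le hHR (by linarith)
    calc (L.card : ℝ) * (H : ℝ) ^ (-η) = ((H : ℝ) ^ (-ε) * L.card) * (H : ℝ) ^ (ε - η) := by
          rw [h5]; ring
      _ ≤ (2 * L1.card) * (H : ℝ) ^ (ε - η) := mul_le_mul_of_nonneg_right h4 (hpw _).le
      _ = L1.card * (2 * (H : ℝ) ^ (ε - η)) := by ring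
      _ ≤ _ := mul_le_mul_of_nonneg_left h6 (Nat.cast_nonneg _)
  have hKw : K * (H : ℝ) ^ (η / 2 - 1) ≤ (H : ℝ) ^ (η - 1) := by
    have h1 : K ≤ (H : ℝ) ^ (η / 4) := by linarith
    calc K * (H : ℝ) ^ (η / 2 - 1) ≤ (H : ℝ) ^ (η / 4) * (H : ℝ) ^ (η / 2 - 1) :=
          mul_le_mul_of_nonneg_right h1 (hpw _).le
      _ = (H : ℝ) ^ (η / 4 + (η / 2 - 1)) := by rw [← Real.rpow_add hH0]
      _ ≤ _ := Real.rpow_le_rpow_of_exponent_le hHR (by linarith)
  refine ⟨s, K * F0, K * E0, hs.trans (Real.rpow_le_rpow_of_exponent_le hHR (by linarith)), ?_⟩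
  refine hL1big.trans (hout.trans (Nat.cast_le.mpr (Finset.card_le_card fun i hi => ?_)))
  rw [Finset.mem_filter] at hi ⊢
  obtain ⟨hi1, q1, q2⟩ := hi
  refine ⟨hL1L hi1, ?_, ?_⟩
  · have e1 : F i - s * A i - K * F0 = K * (F i / K - s * (A i / K) - F0) := by
      field_simp
    rw [e1, abs_mul, abs_of_pos hK0]
    exact (mul_le_mul_of_nonneg_left q1 hK0.le).trans hKw
  · have e1 : E i - s * c i - K * E0 = K * (E i / K - s * (c i / K) - E0) := by
      field_simp
    rw [e1, abs_mul, abs_of_pos hK0]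
    exact (mul_le_mul_of_nonneg_left q2 hK0.le).trans hKw

end Crest.Agent.R136.Rig418
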