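import Crest.Agent.R136.Rig8_418
import Crest.Agent.R136.Prn3_779

/-!
# R136, (RIG) on an `RModel` (helper418)

`RigIn`: one box of an `RModel` with full heights (`σ = 1`), lines of `ℝ³`
`z ↦ (A + z c, F + z E)` attached to its lines; `F` costs nothing given `A`; `c` costs.
`rig_model`: a part `ρ^η` of the lines has one slope.
-/

set_option autoImplicit false
set_option linter.unusedVariables false
set_option linter.unusedSectionVars false

open Filter Topology Finset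

namespace Crest.Agent.R136.Rig418

open Crest.Agent.R138.Ex926 (Base U exists_diag)
open Crest.Agent.R138.Tub70 (KM32)
open Crest.Agent.R138.Dp76
open Crest.Agent.R136.Gf356
open Crest.Agent.R136.Prn779

variable {κ : Type}

/-- the data of (RIG): `x` = size of the window, `μ` = rate of `c` -/
structure RigIn (B : Base) (G : ℕ → RCfg κ) (Leg : Set (κ → ℝ)) (ν : (κ → ℝ) → ℝ)
    (V x μ C : ℝ) (A F c E : ℕ → ℕ → ℝ) (p0 pA : κ → ℝ) (pW : ℝ → ℝ → κ → ℝ) : Prop where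
  V0 : 0 ≤ V
  x0 : 0 < x
  μ0 : 0 < μ
  C1 : 1 ≤ C
  zb : ∀ᶠ n in (U : Filter ℕ), ∀ k ∈ (G n).Z, |(G n).z k| ≤ 1
  bd : ∀ᶠ n in (U : Filter ℕ), ∀ l ∈ (G n).L,
    |A n l| ≤ V ∧ |F n l| ≤ V ∧ |c n l| ≤ V ∧ |E n l| ≤ V
  p0L : p0 ∈ Leg
  pAL : pA ∈ Leg
  p0A : ∀ j, p0 j ≤ pA j
  one : OneBox G p0
  /-- the fine box sees `(A, F)` at precision `x` -/
  fine : ∀ ε : ℝ, 0 < ε → ∀ᶠ n in (U : Filter ℕ), ∀ k i l, (i, k) ∈ (G n).I → (l, k) ∈ (G n).I →
    (G n).loose pA ε k i l →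
    |(A n l + (G n).z k * c n l) - (A n i + (G n).z k * c n i)| ≤ B.d n ^ (x - C * ε) ∧
    |(F n l + (G n).z k * E n l) - (F n i + (G n).z k * E n i)| ≤ B.d n ^ (x - C * ε)
  /-- `F` costs nothing given `A` -/
  few : ν p0 - ν pA ≤ x
  pWL : ∀ r w : ℝ, 0 ≤ r → r ≤ x → 0 ≤ w → w ≤ x → pW r w ∈ Leg
  coarse : ∀ r w : ℝ, 0 ≤ r → r ≤ x → 0 ≤ w → w ≤ x → ∀ ε : ℝ, 0 < ε →
    ∀ᶠ n in (U : Filter ℕ), ∀ k i l, (i, k) ∈ (G n).I → (l, k) ∈ (G n).I →
    |(A n l + (G n).z k * c n l) - (A n i + (G n).z k * c n i)| ≤ B.d n ^ (r - ε) →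
    |(F n l + (G n).z k * E n l) - (F n i + (G n).z k * E n i)| ≤ B.d n ^ (r - ε) →
    |c n l - c n i| ≤ B.d n ^ (w - ε) → (G n).loose (pW r w) (C * ε) k i l
  /-- `A` is full and `c` has rate `≥ μ` given `(A, F)` -/
  cnt : ∀ r w : ℝ, 0 ≤ r → r ≤ x → 0 ≤ w → w ≤ x → ν (pW r w) ≤ ν p0 - r - μ * w

/-- rounding of a radius to a finite grid of exponents -/
lemma grid {ρ x ε r V4 : ℝ} (hρ0 : 0 < ρ) (hρ1 : ρ < 1) (hx : 0 < x) (hε : 0 < ε) {J : ℕ}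
    (hJ : x / ((J : ℝ) + 1) ≤ ε) (hr : ρ ^ x ≤ r) (hV : V4 ≤ ρ ^ (-ε)) :
    ∃ j ∈ Finset.range (J + 2), (∀ t : ℝ, |t| ≤ r → |t| ≤ V4 →
      |t| ≤ ρ ^ (x * (j : ℝ) / ((J : ℝ) + 1) - ε)) ∧ ρ ^ (x * (j : ℝ) / ((J : ℝ) + 1)) ≤ r * ρ ^ (-ε) := by
  have hρε : 1 ≤ ρ ^ (-ε) := by
    rw [Real.rpow_neg hρ0.le]
    exact (one_le_inv₀ (Real.rpow_pos_of_pos hρ0 _)).mpr (Real.rpow_le_one hρ0.le hρ1.le hε.le)
  have hr0 : 0 < r := lt_of_lt_of_le (Real.rpow_pos_of_pos hρ0 _) hr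
  have hJ1 : (0 : ℝ) < (J : ℝ) + 1 := by positivity
  by_cases h1 : 1 ≤ r
  · refine ⟨0, by simp, ?_, ?_⟩
    · intro t _ ht
      simpa using ht.trans hV
    · simp only [Nat.cast_zero, mul_zero, zero_div, Real.rpow_zero]
      exact one_le_mul_of_one_le_of_one_le h1 hρε
  · push Not at h1
    -- exponent of r
    set u : ℝ := Real.logb ρ r with hu
    have hru : ρ ^ u = r := Real.rpow_logb hρ0 hρ1.ne hr0
    have hux : u ≤ x := by
      by_contra hcon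
      push Not at hcon
      have := Real.rpow_lt_rpow_of_exponent_gt hρ0 hρ1 hcon
      rw [hru] at this
      linarith
    have hu0 : 0 ≤ u := by
      by_contra hcon
      push Not at hcon
      have := Real.rpow_lt_rpow_of_exponent_gt hρ0 hρ1 hcon
      rw [hru, Real.rpow_zero] at this
      linarith
    set j : ℕ := ⌊u * ((J : ℝ) + 1) / x⌋₊ with hj
    have hj1 : (j : ℝ) ≤ u * ((J : ℝ) + 1) / x := Nat.floor_le (by positivity)
    have hj2 : u * ((J : ℝ) + 1) / x < (j : ℝ) + 1 := Nat.lt_floor_add_one _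
    have hjJ : (j : ℝ) ≤ (J : ℝ) + 1 := by
      refine hj1.trans ?_
      rw [div_le_iff₀ hx, mul_comm ((J : ℝ) + 1) x]
      exact mul_le_mul_of_nonneg_right hux hJ1.le
    have hle : x * (j : ℝ) / ((J : ℝ) + 1) ≤ u := by
      rw [div_le_iff₀ hJ1]
      rw [le_div_iff₀ hx] at hj1
      linarith
    have hge : u ≤ x * (j : ℝ) / ((J : ℝ) + 1) + ε := by
      have h2 : u < x * (j : ℝ) / ((J : ℝ) + 1) + x / ((J : ℝ) + 1) := by
        rw [← add_div, lt_div_iff₀ hJ1]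
        rw [div_lt_iff₀ hx] at hj2
        linarith
      linarith
    refine ⟨j, ?_, ?_, ?_⟩
    · rw [Finset.mem_range]
      have : j ≤ J + 1 := by exact_mod_cast hjJ
      omega
    · intro t ht _
      refine ht.trans ?_
      rw [← hru]
      exact Real.rpow_le_rpow_of_exponent_ge hρ0 hρ1.le (by linarith)
    · rw [← hru, ← Real.rpow_add hρ0]
      exact Real.rpow_le_rpow_of_exponent_ge hρ0 hρ1.le (by linarith)

lemma diff_bd {V a a' c c' z : ℝ} (ha : |a| ≤ V) (ha' : |a'| ≤ V) (hc : |c| ≤ V) (hc' : |c'| ≤ V)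
    (hz : |z| ≤ 1) : |(a' + z * c') - (a + z * c)| ≤ 4 * V := by
  have hm : ∀ t : ℝ, |t| ≤ V → |z * t| ≤ V := by
    intro t ht
    rw [abs_mul]
    calc |z| * |t| ≤ 1 * |t| := mul_le_mul_of_nonneg_right hz (abs_nonneg _)
      _ ≤ V := by rw [one_mul]; exact ht
  have h1 := abs_sub (a' + z * c') (a + z * c)
  have h2 := abs_add_le a' (z * c')
  have h3 := abs_add_le a (z * c)
  have h4 := hm c hc
  have h5 := hm c' hc'
  linarith

open Classical in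
/-- **(RIG) on an `RModel`.** -/
theorem rig_model (hKM : ∀ V : ℝ, KM32 V) {B : Base} {G : ℕ → RCfg κ} {R : ℝ}
    {Leg : Set (κ → ℝ)} {ν : (κ → ℝ) → ℝ} {D : ℝ} (H : RModel B G 1 R Leg ν D)
    {V x μ C : ℝ} {A F c E : ℕ → ℕ → ℝ} {p0 pA : κ → ℝ} {pW : ℝ → ℝ → κ → ℝ}
    (h : RigIn B G Leg ν V x μ C A F c E p0 pA pW) (hxR : x ≤ R) {η : ℝ} (hη : 0 < η) :
    ∀ᶠ n in (U : Filter ℕ), ∃ s F0 E0 : ℝ, |s| ≤ B.d n ^ (-η) ∧
      B.d n ^ η * ((G n).L.card : ℝ) ≤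
        ((((G n).L).filter fun l => |F n l - s * A n l - F0| ≤ B.d n ^ (x - η) ∧
          |E n l - s * c n l - E0| ≤ B.d n ^ (x - η)).card : ℝ) := by
  have hV := h.V0
  have hx := h.x0
  have hμ := h.μ0
  have hC := h.C1
  have hC0 : 0 < C := by linarith
  have hD := H.D1
  have hD0 : 0 < D := by linarith
  -- parameters
  obtain ⟨η', hη', hη1, hηx⟩ : ∃ η' : ℝ, 0 < η' ∧ η' ≤ 1 ∧ η' * x ≤ η / 2 := by
    refine ⟨min 1 (η / (2 * x)), lt_min one_pos (by positivity), min_le_left _ _, ?_⟩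
    have h1 : min 1 (η / (2 * x)) ≤ η / (2 * x) := min_le_right _ _
    have h2 : min 1 (η / (2 * x)) * x ≤ η / (2 * x) * x := mul_le_mul_of_nonneg_right h1 hx.le
    refine h2.trans (le_of_eq ?_)
    field_simp
  obtain ⟨ε1, hε1, H0, key⟩ := rig_fin hKM V hV μ η' hμ hη'
  obtain ⟨ε2, hε2, hε21, hε2h⟩ : ∃ ε2 : ℝ, 0 < ε2 ∧ ε2 ≤ ε1 ∧ ε2 ≤ 1 / 2 :=
    ⟨min ε1 (1 / 2), lt_min hε1 (by norm_num), min_le_left _ _, min_le_right _ _⟩
  obtain ⟨N, hN8, hNC, hND, hNW⟩ : ∃ N : ℝ, 8 ≤ N ∧ 8 * (C * D ^ 5) ≤ N ∧ 8 * (D ^ 2 + 1) ≤ N ∧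
      8 * (μ + D * C + 3) ≤ N :=
    ⟨8 + 8 * (C * D ^ 5) + 8 * (D ^ 2 + 1) + 8 * (μ + D * C + 3), by
      have : 0 ≤ 8 * (C * D ^ 5) + 8 * (D ^ 2 + 1) + 8 * (μ + D * C + 3) := by positivity
      linarith, by
      have : 0 ≤ 8 + 8 * (D ^ 2 + 1) + 8 * (μ + D * C + 3) := by positivity
      linarith, by
      have : 0 ≤ 8 + 8 * (C * D ^ 5) + 8 * (μ + D * C + 3) := by positivity
      linarith, by
      have : 0 ≤ 8 + 8 * (C * D ^ 5) + 8 * (D ^ 2 + 1) := by positivity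
      linarith⟩
  have hN0 : 0 < N := by linarith
  obtain ⟨ε, hε, hεx, hεη⟩ : ∃ ε : ℝ, 0 < ε ∧ N * ε ≤ x * ε2 ∧ N * ε ≤ η := by
    refine ⟨min (x * ε2) η / N, by positivity, ?_, ?_⟩
    · rw [mul_div_cancel₀ _ hN0.ne']; exact min_le_left _ _
    · rw [mul_div_cancel₀ _ hN0.ne']; exact min_le_right _ _
  set δ : ℝ := C * D ^ 5 * ε with hδ
  have hδ0 : 0 < δ := by rw [hδ]; positivity
  have hδN : 8 * δ ≤ N * ε := by
    rw [hδ]
    calc 8 * (C * D ^ 5 * ε) = (8 * (C * D ^ 5)) * ε := by ring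
      _ ≤ N * ε := mul_le_mul_of_nonneg_right hNC hε.le
  have hDN : 8 * ((D ^ 2 + 1) * ε) ≤ N * ε := by
    calc 8 * ((D ^ 2 + 1) * ε) = (8 * (D ^ 2 + 1)) * ε := by ring
      _ ≤ N * ε := mul_le_mul_of_nonneg_right hND hε.le
  have hWN : 8 * ((μ + D * C + 3) * ε) ≤ N * ε := by
    calc 8 * ((μ + D * C + 3) * ε) = (8 * (μ + D * C + 3)) * ε := by ring
      _ ≤ N * ε := mul_le_mul_of_nonneg_right hNW hε.le
  have hεN : 8 * ε ≤ N * ε := mul_le_mul_of_nonneg_right hN8 hε.le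
  have hxε2 : x * ε2 ≤ x / 2 := by
    have := mul_le_mul_of_nonneg_left hε2h hx.le
    linarith
  have h2δx : 2 * δ ≤ x / 2 := by linarith
  obtain ⟨J, hJ⟩ : ∃ J : ℕ, x / ((J : ℝ) + 1) ≤ ε := by
    obtain ⟨J, hJ⟩ := exists_nat_ge (x / ε)
    refine ⟨J, ?_⟩
    rw [div_le_iff₀ (by positivity)]
    rw [div_le_iff₀ hε] at hJ
    have e1 : ε * ((J : ℝ) + 1) = J * ε + ε := by ring
    linarith
  have hgr : ∀ j ∈ Finset.range (J + 2), 0 ≤ x * (j : ℝ) / ((J : ℝ) + 1) ∧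
      x * (j : ℝ) / ((J : ℝ) + 1) ≤ x := by
    intro j hj
    rw [Finset.mem_range] at hj
    have h1 : (j : ℝ) ≤ (J : ℝ) + 1 := by
      have : j ≤ J + 1 := by omega
      exact_mod_cast this
    refine ⟨by positivity, ?_⟩
    rw [div_le_iff₀ (by positivity)]
    exact mul_le_mul_of_nonneg_left h1 hx.le
  -- eventual facts
  have hcoarse : ∀ᶠ n in (U : Filter ℕ), ∀ j ∈ Finset.range (J + 2), ∀ j' ∈ Finset.range (J + 2),
      (∀ k i l, (i, k) ∈ (G n).I → (l, k) ∈ (G n).I →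
      |(A n l + (G n).z k * c n l) - (A n i + (G n).z k * c n i)| ≤
        B.d n ^ (x * (j : ℝ) / ((J : ℝ) + 1) - ε) →
      |(F n l + (G n).z k * E n l) - (F n i + (G n).z k * E n i)| ≤
        B.d n ^ (x * (j : ℝ) / ((J : ℝ) + 1) - ε) →
      |c n l - c n i| ≤ B.d n ^ (x * (j' : ℝ) / ((J : ℝ) + 1) - ε) →
      (G n).loose (pW (x * (j : ℝ) / ((J : ℝ) + 1)) (x * (j' : ℝ) / ((J : ℝ) + 1))) (C * ε) k i l) ∧
      (∀ i k, (i, k) ∈ (G n).I → (((G n).box (pW (x * (j : ℝ) / ((J : ℝ) + 1))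
        (x * (j' : ℝ) / ((J : ℝ) + 1))) (C * ε) i k).card : ℝ) ≤
        B.d n ^ (-ν (pW (x * (j : ℝ) / ((J : ℝ) + 1)) (x * (j' : ℝ) / ((J : ℝ) + 1))) -
          D * (C * ε))) := by
    rw [Filter.eventually_all_finset]
    intro j hj
    rw [Filter.eventually_all_finset]
    intro j' hj'
    obtain ⟨a1, a2⟩ := hgr j hj
    obtain ⟨b1, b2⟩ := hgr j' hj'
    filter_upwards [h.coarse _ _ a1 a2 b1 b2 ε hε,
      H.up _ (h.pWL _ _ a1 a2 b1 b2) (C * ε) (by positivity)] with n e1 e2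
    exact ⟨e1, e2⟩
  have hRle : x - 2 * δ ≤ R := by linarith
  have hx2δ : 0 ≤ x - 2 * δ := by linarith
  filter_upwards [h.zb, h.bd, h.one ε hε, h.fine (D ^ 5 * ε) (by positivity),
    H.exists_lab_loose p0 pA h.p0L h.pAL h.p0A hε, H.slice ε hε, H.frost (x - 2 * δ) hx2δ hRle ε hε,
    H.low p0 h.p0L ε hε, hcoarse, ev_const_le B hδ0 4, ev_const_le B hε (4 * V),
    ev_const_le B (t := x - 2 * δ) (by linarith) ((H0 : ℝ) + 1)] with
    n hzb hbd hone hfine hlab hslice hfrost hlow hco hδ4 hV4 hH0n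
  set ρ : ℝ := B.d n with hρ
  have hρ0 : 0 < ρ := B.pos n
  have hρ1 : ρ < 1 := B.lt n
  have hpw : ∀ t : ℝ, 0 < ρ ^ t := fun t => Real.rpow_pos_of_pos hρ0 t
  have hanti : ∀ {s t : ℝ}, s ≤ t → ρ ^ t ≤ ρ ^ s := fun hst =>
    Real.rpow_le_rpow_of_exponent_ge hρ0 hρ1.le hst
  have hadd : ∀ s t : ℝ, ρ ^ (s + t) = ρ ^ s * ρ ^ t := fun s t => Real.rpow_add hρ0 s t
  -- H
  set Hn : ℕ := ⌊ρ ^ (-(x - δ))⌋₊ with hHn
  have hbig1 : 1 ≤ ρ ^ (-(x - δ)) := by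
    have h1 : ρ ^ (0 : ℝ) ≤ ρ ^ (-(x - δ)) := hanti (by linarith)
    rwa [Real.rpow_zero] at h1
  have hHle : (Hn : ℝ) ≤ ρ ^ (-(x - δ)) := Nat.floor_le (hpw _).le
  have hHgt : ρ ^ (-(x - δ)) < (Hn : ℝ) + 1 := Nat.lt_floor_add_one _
  have hHge1 : 1 ≤ Hn := Nat.floor_pos.mpr hbig1
  have hHR : (1 : ℝ) ≤ Hn := by exact_mod_cast hHge1
  have hHpos : (0 : ℝ) < Hn := by linarith
  have hHge : ρ ^ (-(x - 2 * δ)) ≤ (Hn : ℝ) := by
    have h1 : ρ ^ (-(x - δ)) = ρ ^ (-(x - 2 * δ)) * ρ ^ (-δ) := by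
      rw [← hadd]; congr 1; ring
    have h2 : 4 * ρ ^ (-(x - 2 * δ)) ≤ ρ ^ (-(x - δ)) := by
      rw [h1]
      have := mul_le_mul_of_nonneg_left hδ4 (hpw (-(x - 2 * δ))).le
      linarith
    have h3 := hpw (-(x - 2 * δ))
    have h4 : (Hn : ℝ) + 1 ≤ 2 * Hn := by linarith
    linarith
  have hH0' : H0 ≤ Hn := by
    have h1 : (H0 : ℝ) + 1 ≤ (Hn : ℝ) := hH0n.trans hHge
    have h2 : (H0 : ℝ) ≤ (Hn : ℝ) := by linarith
    exact_mod_cast h2
  -- comparison of powers of H and ρ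
  have hHup : ∀ t : ℝ, 0 ≤ t → (Hn : ℝ) ^ t ≤ ρ ^ (-(x * t)) := by
    intro t ht
    calc (Hn : ℝ) ^ t ≤ (ρ ^ (-x)) ^ t :=
          Real.rpow_le_rpow hHpos.le (hHle.trans (hanti (by linarith))) ht
      _ = ρ ^ (-(x * t)) := by rw [← Real.rpow_mul hρ0.le]; congr 1; ring
  have hHlow : ∀ t : ℝ, 0 ≤ t → ρ ^ (-((x - 2 * δ) * t)) ≤ (Hn : ℝ) ^ t := by
    intro t ht
    calc ρ ^ (-((x - 2 * δ) * t)) = (ρ ^ (-(x - 2 * δ))) ^ t := by
          rw [← Real.rpow_mul hρ0.le]; congr 1; ring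
      _ ≤ _ := Real.rpow_le_rpow (hpw _).le hHge ht
  have hHneg : ∀ t : ℝ, 0 ≤ t → (Hn : ℝ) ^ (-t) ≤ ρ ^ ((x - 2 * δ) * t) := by
    intro t ht
    have h1 := hHlow t ht
    rw [Real.rpow_neg hHpos.le, show (x - 2 * δ) * t = -(-((x - 2 * δ) * t)) by ring,
      Real.rpow_neg hρ0.le]
    exact inv_anti₀ (hpw _) h1
  have hHneg' : ∀ t : ℝ, 0 ≤ t → ρ ^ (x * t) ≤ (Hn : ℝ) ^ (-t) := by
    intro t ht
    have h1 := hHup t ht
    rw [Real.rpow_neg hHpos.le, show x * t = -(-(x * t)) by ring, Real.rpow_neg hρ0.le]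
    exact inv_anti₀ (Real.rpow_pos_of_pos hHpos _) h1
  have hinvH : ρ ^ (x - δ) ≤ 1 / (Hn : ℝ) := by
    rw [le_div_iff₀ hHpos]
    have h1 := mul_le_mul_of_nonneg_left hHle (hpw (x - δ)).le
    rw [← hadd] at h1
    simpa using h1
  have hinvH2 : 1 / (Hn : ℝ) ≤ ρ ^ (x - 2 * δ) := by
    rw [div_le_iff₀ hHpos]
    have h1 := mul_le_mul_of_nonneg_left hHge (hpw (x - 2 * δ)).le
    rw [← hadd] at h1
    simpa using h1
  -- nonempty
  obtain ⟨⟨i0, k0⟩, hi0⟩ := H.nonempty n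
  have hLne : (G n).L.Nonempty := ⟨i0, H.toRUnif.memL hi0⟩
  have hZne : (G n).Z.Nonempty := ⟨k0, H.toRUnif.memZ hi0⟩
  have hLpos : (0 : ℝ) < ((G n).L.card : ℝ) := by exact_mod_cast hLne.card_pos
  have hsl : ∀ k, ((G n).L.filter fun l => (l, k) ∈ (G n).I) = (G n).slice k := fun k => rfl
  -- number of lines from below
  have hLlow : ρ ^ (-ν p0 + ε) ≤ ((G n).L.card : ℝ) := by
    refine (hlow i0 k0 hi0).trans (Nat.cast_le.mpr (Finset.card_le_card fun l hl => ?_))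
    exact (RCfg.mem_slice.1 (RCfg.mem_box.1 hl).1).1
  obtain ⟨s, F0, E0, hs, hout⟩ := key Hn hH0' (G n).L (G n).Z (G n).I (G n).z (A n) (F n) (c n) (E n)
    hLne hZne hzb hbd
    (fun k hk => by
      rw [hsl]
      refine le_trans (mul_le_mul_of_nonneg_right ?_ (Nat.cast_nonneg _)) (hslice k hk)
      refine (hHneg ε1 hε1.le).trans (hanti ?_)
      have h1 : x / 2 * ε2 ≤ (x - 2 * δ) * ε1 :=
        mul_le_mul (by linarith) hε21 hε2.le hx2δ
      have e1 : x / 2 * ε2 = x * ε2 / 2 := by ring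
      linarith)
    (fun k hk => by
      refine le_trans (Nat.cast_le.mpr (Finset.card_le_card fun k' hk' => ?_))
        ((hfrost k hk).trans (mul_le_mul_of_nonneg_right ?_ (Nat.cast_nonneg _)))
      · rw [Finset.mem_filter] at hk'
        unfold RCfg.hbox
        rw [Finset.mem_filter, H.base n]
        exact ⟨hk'.1, hk'.2.trans hinvH2⟩
      · have e1 : x * (1 - ε2) = x - x * ε2 := by ring
        have h1 : ρ ^ (1 * (x - 2 * δ) - ε) ≤ ρ ^ (x * (1 - ε2)) := hanti (by linarith)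
        refine h1.trans ((hHneg' (1 - ε2) (by linarith)).trans ?_)
        exact Real.rpow_le_rpow_of_exponent_le hHR (by linarith))
    (fun k hk => by
      obtain ⟨lab, l1, l2⟩ := hlab k ((G n).slice k) (Finset.Subset.refl _) (fun i hi i' hi' =>
        hone i i' k (H.toRUnif.memSlice.1 hi) (H.toRUnif.memSlice.1 hi'))
      refine ⟨lab, ?_, ?_⟩
      · intro i hi l hl hik hlk heq
        have h1 := l1 i (H.toRUnif.memSlice.2 hik) l (H.toRUnif.memSlice.2 hlk) heq.symm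
        obtain ⟨f1, f2⟩ := hfine k i l hik hlk h1
        have h2 : ρ ^ (x - C * (D ^ 5 * ε)) ≤ 1 / (Hn : ℝ) := by
          refine le_trans (le_of_eq ?_) hinvH
          rw [hδ]; congr 1; ring
        exact ⟨f1.trans h2, f2.trans h2⟩
      · rw [hsl]
        refine l2.trans ?_
        have h1 : ρ ^ (-(ν p0 - ν pA) - (D ^ 2 + 1) * ε) ≤ ρ ^ (-((x - 2 * δ) * (1 + ε2))) := by
          refine hanti ?_
          have := h.few
          have h3 : 2 * δ * ε2 ≤ δ := by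
            have := mul_le_mul_of_nonneg_left hε2h (by positivity : 0 ≤ 2 * δ)
            linarith
          have e1 : (x - 2 * δ) * (1 + ε2) = x + x * ε2 - 2 * δ - 2 * δ * ε2 := by ring
          linarith
        refine h1.trans ((hHlow (1 + ε2) (by linarith)).trans ?_)
        exact Real.rpow_le_rpow_of_exponent_le hHR (by linarith))
    (fun k hk i hi hik r w hr hw => by
      have hrx : ρ ^ x ≤ r := (hanti (by linarith)).trans (hinvH.trans hr)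
      have hwx : ρ ^ x ≤ w := (hanti (by linarith)).trans (hinvH.trans hw)
      have hr0 : 0 < r := lt_of_lt_of_le (hpw _) hrx
      have hw0 : 0 < w := lt_of_lt_of_le (hpw _) hwx
      obtain ⟨j, hj, j1, j2⟩ := grid hρ0 hρ1 hx hε hJ hrx hV4
      obtain ⟨j', hj', j1', j2'⟩ := grid hρ0 hρ1 hx hε hJ hwx hV4
      obtain ⟨co1, co2⟩ := hco j hj j' hj'
      obtain ⟨a1, a2⟩ := hgr j hj
      obtain ⟨b1, b2⟩ := hgr j' hj'
      set r' : ℝ := x * (j : ℝ) / ((J : ℝ) + 1) with hr'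
      set w' : ℝ := x * (j' : ℝ) / ((J : ℝ) + 1) with hw'
      have hzk := hzb k hk
      have hVb : ∀ l ∈ (G n).L, |(A n l + (G n).z k * c n l) - (A n i + (G n).z k * c n i)| ≤ 4 * V ∧
          |(F n l + (G n).z k * E n l) - (F n i + (G n).z k * E n i)| ≤ 4 * V ∧
          |c n l - c n i| ≤ 4 * V := by
        intro l hl
        obtain ⟨g1, g2, g3, g4⟩ := hbd l hl
        obtain ⟨q1, q2, q3, q4⟩ := hbd i hi
        refine ⟨diff_bd q1 g1 q3 g3 hzk, diff_bd q2 g2 q4 g4 hzk, ?_⟩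
        exact (abs_sub _ _).trans (by linarith)
      have hcard : (((G n).L.filter fun l => (l, k) ∈ (G n).I ∧
          |(A n l + (G n).z k * c n l) - (A n i + (G n).z k * c n i)| ≤ r ∧
          |(F n l + (G n).z k * E n l) - (F n i + (G n).z k * E n i)| ≤ r ∧
          |c n l - c n i| ≤ w).card : ℝ) ≤ ρ ^ (-ν (pW r' w') - D * (C * ε)) := by
        refine le_trans (Nat.cast_le.mpr (Finset.card_le_card fun l hl => ?_)) (co2 i k hik)
        rw [Finset.mem_filter] at hl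
        obtain ⟨hl1, hl2, m1, m2, m3⟩ := hl
        obtain ⟨v1, v2, v3⟩ := hVb l hl1
        refine RCfg.mem_box.2 ⟨H.toRUnif.memSlice.2 hl2, ?_⟩
        exact co1 k i l hik hl2 (j1 _ m1 v1) (j1 _ m2 v2) (j1' _ m3 v3)
      refine hcard.trans ?_
      have hcnt := h.cnt r' w' a1 a2 b1 b2
      have e1 : ρ ^ (-ν (pW r' w') - D * (C * ε)) ≤
          ρ ^ (-(D * (C * ε))) * ρ ^ (-ν p0) * ρ ^ r' * (ρ ^ w') ^ μ := by
        rw [← Real.rpow_mul hρ0.le, ← hadd, ← hadd, ← hadd]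
        refine hanti ?_
        have e0 : w' * μ = μ * w' := mul_comm _ _
        linarith
      refine e1.trans ?_
      have e2 : (ρ ^ w') ^ μ ≤ w ^ μ * ρ ^ (-(ε * μ)) := by
        calc (ρ ^ w') ^ μ ≤ (w * ρ ^ (-ε)) ^ μ := Real.rpow_le_rpow (hpw _).le j2' hμ.le
          _ = w ^ μ * ρ ^ (-(ε * μ)) := by
              rw [Real.mul_rpow hw0.le (hpw _).le, ← Real.rpow_mul hρ0.le]
              congr 2; ring
      have hwμ : 0 ≤ w ^ μ := Real.rpow_nonneg hw0.le _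
      have e3 : ρ ^ (-(D * (C * ε))) * ρ ^ (-ν p0) * ρ ^ r' * (ρ ^ w') ^ μ ≤
          ρ ^ (-(D * (C * ε))) * ρ ^ (-ν p0) * (r * ρ ^ (-ε)) * (w ^ μ * ρ ^ (-(ε * μ))) := by
        refine mul_le_mul ?_ e2 (Real.rpow_nonneg (hpw _).le _) ?_
        · exact mul_le_mul_of_nonneg_left j2 (mul_pos (hpw _) (hpw _)).le
        · exact mul_nonneg (mul_pos (hpw _) (hpw _)).le (mul_pos hr0 (hpw _)).le
      refine e3.trans ?_
      have e4 : ρ ^ (-(D * (C * ε))) * ρ ^ (-ν p0) * (r * ρ ^ (-ε)) * (w ^ μ * ρ ^ (-(ε * μ))) =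
          (ρ ^ (-((μ + D * C + 2) * ε)) * ρ ^ (-ν p0 + ε)) * r * w ^ μ := by
        have : ρ ^ (-(D * (C * ε))) * ρ ^ (-ν p0) * ρ ^ (-ε) * ρ ^ (-(ε * μ)) =
            ρ ^ (-((μ + D * C + 2) * ε)) * ρ ^ (-ν p0 + ε) := by
          rw [← hadd, ← hadd, ← hadd, ← hadd]; congr 1; ring
        rw [← this]; ring
      rw [e4]
      refine mul_le_mul_of_nonneg_right (mul_le_mul_of_nonneg_right ?_ hr0.le) hwμ
      refine mul_le_mul ?_ hLlow (hpw _).le (Real.rpow_nonneg hHpos.le _)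
      have e5 : ρ ^ (-((μ + D * C + 2) * ε)) ≤ ρ ^ (-((x - 2 * δ) * ε2)) := by
        refine hanti ?_
        have h1 : x / 2 * ε2 ≤ (x - 2 * δ) * ε2 := mul_le_mul_of_nonneg_right (by linarith) hε2.le
        have e0 : x / 2 * ε2 = x * ε2 / 2 := by ring
        have e1' : (μ + D * C + 3) * ε = (μ + D * C + 2) * ε + ε := by ring
        linarith
      refine e5.trans ((hHlow ε2 hε2.le).trans ?_)
      exact Real.rpow_le_rpow_of_exponent_le hHR hε21)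
  refine ⟨s, F0, E0, ?_, ?_⟩
  · refine hs.trans ((hHup η' hη'.le).trans (hanti ?_))
    have e1 : x * η' = η' * x := mul_comm _ _
    linarith
  · have h1 : ρ ^ η * ((G n).L.card : ℝ) ≤ ((G n).L.card : ℝ) * (Hn : ℝ) ^ (-η') := by
      rw [mul_comm]
      refine mul_le_mul_of_nonneg_left ?_ hLpos.le
      refine le_trans (hanti ?_) (hHneg' η' hη'.le)
      have e1 : x * η' = η' * x := mul_comm _ _
      linarith
    refine h1.trans (hout.trans (Nat.cast_le.mpr (Finset.card_le_card fun l hl => ?_)))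
    rw [Finset.mem_filter] at hl ⊢
    have h2 : (Hn : ℝ) ^ (η' - 1) ≤ ρ ^ (x - η) := by
      rw [show η' - 1 = -(1 - η') by ring]
      refine (hHneg (1 - η') (by linarith)).trans (hanti ?_)
      have h3 : 2 * δ ≤ η / 2 := by linarith
      have h4 : 0 ≤ 2 * δ * η' := by positivity
      have e1 : (x - 2 * δ) * (1 - η') = x - 2 * δ - η' * x + 2 * δ * η' := by ring
      linarith
    exact ⟨hl.1, hl.2.1.trans h2, hl.2.2.trans h2⟩

end Crest.Agent.R136.Rig418
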