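import Mathlib
import Crest.Agent.R136.Rk3_601

/-!
# R136 (U4, PLAN 2 (3) = (AL), leaf (E) = V6) in the literal of AlD_121 (helper601)

Base class `q0 = U t`, middle class `q1 = V t`, end class `q2 = U t'`, all jets at one point.
* `h6_rows`    : the rows of `th q0 q1` are small at the direction `v'` of `T'`.
* `line_delta` : the value of `th q2 q1` at the direction of a line of both sheets.
-/

set_option autoImplicit false

namespace Crest.Agent.R136.Rk601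

/-- **composition of the Hessians**, intrinsic error: `P = q2 - μ q1`, `μ = q2.a0 / q1.a0`; only the
mixed derivative of `P` in the direction of `q0`'s tangent space and the normal one enter. -/
theorem th_comp2 {q0 q1 q2 : Jt} {B1 B2 η : ℝ} (h0 : q0.a0 ≠ 0) (h1 : q1.a0 ≠ 0)
    (hη : ∀ i, |tg q0 q1 i| ≤ η * |q1.a0|)
    (hB1 : ∀ i, |(q2.h0 i - q2.a0 / q1.a0 * q1.h0 i) +
      (q2.h00 - q2.a0 / q1.a0 * q1.h00) * sl q0 i| ≤ B1)
    (hB2 : |q2.h00 - q2.a0 / q1.a0 * q1.h00| ≤ B2) (i j : Fin 3) :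
    |th q0 q2 i j - (q2.a0 / q1.a0 * th q0 q1 i j + th q1 q2 i j)| ≤ 2 * B1 * η + B2 * η ^ 2 := by
  have hB1' : 0 ≤ B1 := (abs_nonneg _).trans (hB1 0)
  have hB2' : 0 ≤ B2 := (abs_nonneg _).trans hB2
  have ha1 : 0 < |q1.a0| := abs_pos.2 h1
  have hη' : 0 ≤ η := by
    by_contra hc
    have h2 := (abs_nonneg _).trans (hη 0)
    nlinarith
  have hd : ∀ i, |sl q0 i - sl q1 i| ≤ η := fun i => by
    rw [sl_sub h0 h1, abs_div, div_le_iff₀ ha1]; exact hη i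
  have key : th q0 q2 i j - (q2.a0 / q1.a0 * th q0 q1 i j + th q1 q2 i j) =
      ((q2.h0 i - q2.a0 / q1.a0 * q1.h0 i) + (q2.h00 - q2.a0 / q1.a0 * q1.h00) * sl q0 i) *
          (sl q0 j - sl q1 j) +
        ((q2.h0 j - q2.a0 / q1.a0 * q1.h0 j) + (q2.h00 - q2.a0 / q1.a0 * q1.h00) * sl q0 j) *
          (sl q0 i - sl q1 i) +
        -((q2.h00 - q2.a0 / q1.a0 * q1.h00) * ((sl q0 i - sl q1 i) * (sl q0 j - sl q1 j))) := by
    have e : q2.a0 / q0.a0 = q2.a0 / q1.a0 * (q1.a0 / q0.a0) := by field_simp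
    simp only [th, lf]
    rw [e]
    ring
  rw [key]
  refine (abs_add_three _ _ _).trans ?_
  rw [abs_neg, abs_mul, abs_mul, abs_mul, abs_mul]
  have h2 := mul_le_mul (hB1 i) (hd j) (abs_nonneg _) hB1'
  have h3 := mul_le_mul (hB1 j) (hd i) (abs_nonneg _) hB1'
  have h4 := mul_le_mul hB2 (mul_le_mul (hd i) (hd j) (abs_nonneg _) hη') (by positivity) hB2'
  have e5 : 2 * B1 * η + B2 * η ^ 2 = B1 * η + B1 * η + B2 * (η * η) := by ring
  rw [e5]
  linarith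

/-- **V6 at one point** (no bound for the slopes is used). -/
theorem h6_rows {q0 q1 q2 : Jt} {v : Fin 3 → ℝ} {K m δ c B1 B2 η : ℝ} (hK : 1 ≤ K)
    (h0 : q0.a0 ≠ 0) (h2 : q2.a0 ≠ 0) (y0 : q0.Sym) (y1 : q1.Sym) (y2 : q2.Sym)
    (hμ : |q1.a0 / q2.a0| ≤ K) (hη : ∀ i, |tg q0 q2 i| ≤ η * |q2.a0|)
    (hB1 : ∀ i, |(q1.h0 i - q1.a0 / q2.a0 * q2.h0 i) +
      (q1.h00 - q1.a0 / q2.a0 * q2.h00) * sl q0 i| ≤ B1)
    (hB2 : |q1.h00 - q1.a0 / q2.a0 * q2.h00| ≤ B2) (hc : 0 ≤ c)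
    (herr : c * (2 * B1 * η + B2 * η ^ 2) ≤ m)
    (b1 : ∀ i j, c * |th q0 q1 i j| ≤ K) (b2 : ∀ i j, c * |th q2 q1 i j| ≤ K)
    (l1 : ∃ i j, 1 / K ≤ c * |th q0 q1 i j|) (l2 : ∃ i j, 1 / K ≤ c * |th q2 q1 i j|)
    (m1 : ∀ i j k l, c ^ 2 * |mn (th q0 q1) i j k l| ≤ m)
    (m2 : ∀ i j k l, c ^ 2 * |mn (th q2 q1) i j k l| ≤ m)
    (m3 : ∀ i j k l, c ^ 2 * |mn (th q0 q2) i j k l| ≤ m)
    (hm : m ≤ 1 / (4 * K ^ 4)) (hv : ∀ i, |v i| ≤ K) (hδ : c * |qf (th q2 q1) v| ≤ δ) (i : Fin 3) :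
    c * |∑ j, th q0 q1 i j * v j| ≤ 1000 * K ^ 6 * (Real.sqrt δ + Real.sqrt m) := by
  have hK0 : (0 : ℝ) < K := by linarith
  have hK2 : (1 : ℝ) ≤ K ^ 2 := one_le_pow₀ hK
  have hm0 : 0 ≤ m := (mul_nonneg (sq_nonneg c) (abs_nonneg _)).trans (m1 0 0 0 0)
  have hδ0 : 0 ≤ δ := (mul_nonneg hc (abs_nonneg _)).trans hδ
  have hmm : m ≤ K ^ 2 * m := le_mul_of_one_le_left hm0 hK2
  have hab : ∀ x : ℝ, |c * x| = c * |x| := fun x => by rw [abs_mul, abs_of_nonneg hc]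
  set μ := q1.a0 / q2.a0 with hμd
  obtain ⟨s, n, hs, hn, -, hsn, hnv⟩ := h6_alg (H1 := fun i j => c * th q0 q1 i j)
    (H2 := fun i j => -(c * th q2 q1 i j)) (H := fun i j => c * μ * th q0 q2 i j)
    (v := v) (K := K) (m := K ^ 2 * m) (δ := δ) hK
    (fun i j => by show c * th q0 q1 i j = c * th q0 q1 j i; rw [th_symm y0 y1])
    (fun i j => by show -(c * th q2 q1 i j) = -(c * th q2 q1 j i); rw [th_symm y2 y1])
    (fun i j => by show |c * th q0 q1 i j| ≤ K; rw [hab]; exact b1 i j)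
    (fun i j => by show |-(c * th q2 q1 i j)| ≤ K; rw [abs_neg, hab]; exact b2 i j)
    (by obtain ⟨i, j, h⟩ := l1; exact ⟨i, j, by show _ ≤ |c * th q0 q1 i j|; rw [hab]; exact h⟩)
    (by
      obtain ⟨i, j, h⟩ := l2
      exact ⟨i, j, by show _ ≤ |-(c * th q2 q1 i j)|; rw [abs_neg, hab]; exact h⟩)
    (fun i j k l => by
      rw [mn_smul, abs_mul, abs_of_nonneg (sq_nonneg c)]; exact (m1 i j k l).trans hmm)
    (fun i j k l => by
      have e : mn (fun i j => -(c * th q2 q1 i j)) i j k l = c ^ 2 * mn (th q2 q1) i j k l := by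
        unfold mn; ring
      rw [e, abs_mul, abs_of_nonneg (sq_nonneg c)]; exact (m2 i j k l).trans hmm)
    (fun i j k l => by
      rw [mn_smul, mul_pow, abs_mul, abs_mul, abs_of_nonneg (sq_nonneg c),
        abs_of_nonneg (sq_nonneg μ)]
      have h3 : μ ^ 2 ≤ K ^ 2 := by
        rw [← sq_abs μ]; exact pow_le_pow_left₀ (abs_nonneg _) hμ 2
      have h4 := m3 i j k l
      calc c ^ 2 * μ ^ 2 * |mn (th q0 q2) i j k l|
          = μ ^ 2 * (c ^ 2 * |mn (th q0 q2) i j k l|) := by ring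
        _ ≤ K ^ 2 * m := mul_le_mul h3 h4 (by positivity) (by positivity))
    (fun i j => by
      have e : c * μ * th q0 q2 i j - (c * th q0 q1 i j + -(c * th q2 q1 i j)) =
          c * (-(th q0 q1 i j - (μ * th q0 q2 i j + th q2 q1 i j))) := by ring
      show |c * μ * th q0 q2 i j - (c * th q0 q1 i j + -(c * th q2 q1 i j))| ≤ K ^ 2 * m
      rw [e, hab, abs_neg]
      exact ((mul_le_mul_of_nonneg_left (th_comp2 (q0 := q0) (q1 := q2) (q2 := q1) h0 h2 hη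
        hB1 hB2 i j) hc).trans herr).trans hmm)
    (by
      have h1 : K ^ 2 * m ≤ K ^ 2 * (1 / (4 * K ^ 4)) := mul_le_mul_of_nonneg_left hm (by positivity)
      have h2 : K ^ 2 * (1 / (4 * K ^ 4)) = 1 / (4 * K ^ 2) := by field_simp
      rw [h2] at h1; exact h1)
    hv
    (by
      have e : qf (fun i j => -(c * th q2 q1 i j)) v = c * (-(qf (th q2 q1) v)) := by
        unfold qf; simp only [Fin.sum_univ_three]; ring
      rw [e, hab, abs_neg]; exact hδ)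
  -- the row
  have hrow : c * |∑ j, th q0 q1 i j * v j| = |∑ j, (c * th q0 q1 i j) * v j| := by
    rw [← hab, Finset.mul_sum]
    congr 1
    exact Finset.sum_congr rfl fun j _ => by ring
  have hdec : ∑ j, (c * th q0 q1 i j) * v j =
      s * n i * dp n v + ∑ j, (c * th q0 q1 i j - s * n i * n j) * v j := by
    unfold dp
    rw [Finset.mul_sum, ← Finset.sum_add_distrib]
    exact Finset.sum_congr rfl fun j _ => by ring
  have hs' : |s| = 1 := by rcases hs with h | h <;> rw [h] <;> simp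
  have herr2 : |∑ j, (c * th q0 q1 i j - s * n i * n j) * v j| ≤ 3 * (2 * K * (K ^ 2 * m) * K) :=
    dp_le (n := fun j => c * th q0 q1 i j - s * n i * n j) (v := v) (fun j => hsn i j) hv
  have hsm : Real.sqrt (K ^ 2 * m) = K * Real.sqrt m := by
    rw [Real.sqrt_mul (by positivity), Real.sqrt_sq hK0.le]
  rw [hsm] at hnv
  have hsδ := Real.sqrt_nonneg δ
  have hsm0 := Real.sqrt_nonneg m
  have hsqm : Real.sqrt m ^ 2 = m := Real.sq_sqrt hm0
  have hm14 : m ≤ 1 / 4 := by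
    refine hm.trans ?_
    have : (1 : ℝ) ≤ K ^ 4 := one_le_pow₀ hK
    rw [div_le_div_iff₀ (by positivity) (by norm_num)]
    linarith
  have hmsq : m ≤ Real.sqrt m := by
    have h5 : Real.sqrt m ≤ 1 := Real.sqrt_le_one.2 (by linarith)
    calc m = Real.sqrt m * Real.sqrt m := by rw [← sq, hsqm]
      _ ≤ Real.sqrt m * 1 := mul_le_mul_of_nonneg_left h5 hsm0
      _ = Real.sqrt m := mul_one _
  rw [hrow, hdec]
  refine (abs_add_le _ _).trans ?_
  rw [abs_mul, abs_mul, hs', one_mul]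
  have h5 : |n i| * |dp n v| ≤ 2 * K * (300 * K ^ 4 * (Real.sqrt δ + K * Real.sqrt m)) :=
    mul_le_mul (hn i) hnv (abs_nonneg _) (by positivity)
  have p56 : K ^ 5 ≤ K ^ 6 := pow_le_pow_right₀ hK (by norm_num)
  have p46 : K ^ 4 ≤ K ^ 6 := pow_le_pow_right₀ hK (by norm_num)
  have e1 : 2 * K * (300 * K ^ 4 * (Real.sqrt δ + K * Real.sqrt m)) =
      600 * (K ^ 5 * Real.sqrt δ) + 600 * (K ^ 6 * Real.sqrt m) := by ring
  have e2 : 3 * (2 * K * (K ^ 2 * m) * K) = 6 * (K ^ 4 * m) := by ring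
  have e3 : 1000 * K ^ 6 * (Real.sqrt δ + Real.sqrt m) =
      1000 * (K ^ 6 * Real.sqrt δ) + 1000 * (K ^ 6 * Real.sqrt m) := by ring
  have f1 : K ^ 5 * Real.sqrt δ ≤ K ^ 6 * Real.sqrt δ := mul_le_mul_of_nonneg_right p56 hsδ
  have f2 : K ^ 4 * m ≤ K ^ 6 * Real.sqrt m := mul_le_mul p46 hmsq hm0 (by positivity)
  have f3 : 0 ≤ K ^ 6 * Real.sqrt δ := by positivity
  have f4 : 0 ≤ K ^ 6 * Real.sqrt m := by positivity
  rw [e1] at h5
  rw [e2] at herr2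
  rw [e3]
  linarith

/-- second derivative of a jet in the direction `(y; v)` -/
def d2 (J : Jt) (y : ℝ) (v : Fin 3 → ℝ) : ℝ := J.h00 * y ^ 2 + 2 * y * dp J.h0 v + qf J.h v

/-- the tangential Hessian on `v` = second derivative on the lift of `v` -/
theorem qf_th {q q' : Jt} (v : Fin 3 → ℝ) :
    qf (th q q') v = d2 q' (dp (sl q) v) v - q'.a0 / q.a0 * d2 q (dp (sl q) v) v := by
  unfold th lf d2 qf dp
  simp only [Fin.sum_univ_three]
  ring

/-- **a line of both sheets**: `(y; v)` = direction of `T'`; `q`, `q'` = jets of the two sheets at a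
point of (or near) the line. -/
theorem line_delta {q q' : Jt} {v : Fin 3 → ℝ} {y K B1 B2 a1 a2 : ℝ} (hK : 1 ≤ K)
    (h : q.a0 ≠ 0) (hμ : |q'.a0 / q.a0| ≤ K) (hv : ∀ i, |v i| ≤ K)
    (hB1 : ∀ i, |(q'.h0 i - q'.a0 / q.a0 * q.h0 i) +
      (q'.h00 - q'.a0 / q.a0 * q.h00) * sl q i| ≤ B1)
    (hB2 : |q'.h00 - q'.a0 / q.a0 * q.h00| ≤ B2)
    (d1 : |d2 q y v| ≤ a1) (d1' : |d2 q' y v| ≤ a1)
    (hl : |q.a0 * y + dp q.a v| ≤ a2 * |q.a0|) :
    |qf (th q q') v| ≤ 2 * K * a1 + 6 * K * B1 * a2 + B2 * a2 ^ 2 := by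
  have hK0 : (0 : ℝ) < K := by linarith
  have hB1' : 0 ≤ B1 := (abs_nonneg _).trans (hB1 0)
  have hB2' : 0 ≤ B2 := (abs_nonneg _).trans hB2
  have ha1 : 0 ≤ a1 := (abs_nonneg _).trans d1
  have hq : 0 < |q.a0| := abs_pos.2 h
  have hd : |dp (sl q) v - y| ≤ a2 := by
    have e : dp (sl q) v - y = -(q.a0 * y + dp q.a v) / q.a0 := by
      unfold dp sl; simp only [Fin.sum_univ_three]; field_simp; ring
    rw [e, abs_div, abs_neg, div_le_iff₀ hq]; exact hl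
  have ha2 : 0 ≤ a2 := (abs_nonneg _).trans hd
  have key : qf (th q q') v = (d2 q' y v - q'.a0 / q.a0 * d2 q y v) +
      2 * (dp (sl q) v - y) * dp (fun i => (q'.h0 i - q'.a0 / q.a0 * q.h0 i) +
        (q'.h00 - q'.a0 / q.a0 * q.h00) * sl q i) v +
      -((q'.h00 - q'.a0 / q.a0 * q.h00) * (dp (sl q) v - y) ^ 2) := by
    rw [qf_th]
    unfold d2 dp
    simp only [Fin.sum_univ_three]
    ring
  rw [key]
  refine (abs_add_three _ _ _).trans ?_
  have t1 : |d2 q' y v - q'.a0 / q.a0 * d2 q y v| ≤ a1 + K * a1 := by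
    refine (abs_sub _ _).trans ?_
    rw [abs_mul]
    exact add_le_add d1' (mul_le_mul hμ d1 (abs_nonneg _) hK0.le)
  have t2 : |2 * (dp (sl q) v - y) * dp (fun i => (q'.h0 i - q'.a0 / q.a0 * q.h0 i) +
        (q'.h00 - q'.a0 / q.a0 * q.h00) * sl q i) v| ≤ 2 * a2 * (3 * (B1 * K)) := by
    rw [abs_mul, abs_mul, abs_of_pos (by norm_num : (0 : ℝ) < 2)]
    exact mul_le_mul (mul_le_mul_of_nonneg_left hd (by norm_num)) (dp_le hB1 hv) (abs_nonneg _)
      (by positivity)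
  have t3 : |-((q'.h00 - q'.a0 / q.a0 * q.h00) * (dp (sl q) v - y) ^ 2)| ≤ B2 * a2 ^ 2 := by
    rw [abs_neg, abs_mul, abs_pow]
    exact mul_le_mul hB2 (pow_le_pow_left₀ (abs_nonneg _) hd 2) (by positivity) hB2'
  have e1 : a1 + K * a1 ≤ 2 * K * a1 := by nlinarith
  have e2 : 2 * a2 * (3 * (B1 * K)) = 6 * K * B1 * a2 := by ring
  linarith

end Crest.Agent.R136.Rk601
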