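import Crest.Agent.R136.Rk5_601
import Crest.Agent.R136.Chm_862

/-!
# R136 (U4, PLAN 2 (3) = (AL), leaf (E) = V6), closing step, jets (helper601)

`v6_close`: jets at one point `x` in the chart of `U t`: `q0` of `U t`, `q1` of `V t`, `q2` of `U t'`.
`ω` = thickness of the plank, `κ ω` = curvature extent, `s` = discrepancy, `v` = velocity of `T'`.
-/

set_option autoImplicit false

namespace Crest.Agent.R136.Rk601

open Crest.Agent.R136.Chm862 (gm df)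

/-- `q1 - (q1.a0 / q2.a0) q2` is the difference of the two linearised functions over `q0` -/
theorem df_pair {q0 q1 q2 : Jt} (h0 : q0.a0 ≠ 0) (h2 : q2.a0 ≠ 0) :
    (q1.h00 - q1.a0 / q2.a0 * q2.h00 = (df q0 q1).h00 - q1.a0 / q2.a0 * (df q0 q2).h00) ∧
    ∀ i, (q1.h0 i - q1.a0 / q2.a0 * q2.h0 i) +
      (q1.h00 - q1.a0 / q2.a0 * q2.h00) * sl q0 i =
      gm q0 (df q0 q1) i - q1.a0 / q2.a0 * gm q0 (df q0 q2) i := by
  constructor
  · simp only [df, Jt.addm]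
    field_simp
    ring
  · intro i
    simp only [gm, df, Jt.addm]
    have e : q1.a0 / q2.a0 * (-(q2.a0 / q0.a0)) = -(q1.a0 / q0.a0) := by field_simp
    linear_combination (q0.h0 i + sl q0 i * q0.h00) * e

set_option maxHeartbeats 1600000 in
/-- **V6, closing step** -/
theorem v6_close {q0 q1 q2 : Jt} {v : Fin 3 → ℝ} {y K ω κ s l m a h : ℝ} (hK : 1 ≤ K)
    (ω0 : 0 < ω) (κ0 : 0 < κ) (s0 : 0 < s) (l0 : 0 ≤ l) (a0 : 0 ≤ a) (h0' : 0 ≤ h)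
    (hs : s ≤ K * (κ * ω)) (hh : h ≤ 1) (ha : a ≤ K * (κ * ω)) (h0 : q0.a0 ≠ 0)
    (h2 : ω / K ≤ |q2.a0|) (h1 : |q1.a0| ≤ K * ω)
    (y0 : q0.Sym) (y1 : q1.Sym) (y2 : q2.Sym)
    (n1 : ∀ i, κ * |gm q0 (df q0 q1) i| ≤ K * s) (n1' : κ ^ 2 * |(df q0 q1).h00| ≤ K * s)
    (n2 : ∀ i, κ * |gm q0 (df q0 q2) i| ≤ K * s) (n2' : κ ^ 2 * |(df q0 q2).h00| ≤ K * s)
    (ht : ∀ i, |tg q0 q2 i| ≤ l * s) (b1 : ∀ i j, |th q0 q1 i j| ≤ K * s)
    (b2 : ∀ i j, |th q2 q1 i j| ≤ K * s) (l1 : ∃ i j, s ≤ K * |th q0 q1 i j|)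
    (l2 : ∃ i j, s ≤ K * |th q2 q1 i j|) (m1 : ∀ i j k l, |mn (th q0 q1) i j k l| ≤ m * s ^ 2)
    (m2 : ∀ i j k l, |mn (th q2 q1) i j k l| ≤ m * s ^ 2)
    (m3 : ∀ i j k l, |mn (th q0 q2) i j k l| ≤ m * s ^ 2) (hlm : 12 * K ^ 8 * l ≤ m)
    (hm : m ≤ 1 / (4 * K ^ 8)) (hv : ∀ i, |v i| ≤ K) (d1 : |d2 q2 y v| ≤ K * a)
    (d1' : |d2 q1 y v| ≤ K * a) (hl : |q2.a0 * y + dp q2.a v| ≤ K * (a + κ * ω * h)) (i : Fin 3) :
    |∑ j, th q0 q1 i j * v j| ≤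
      s * (1000 * K ^ 12 * (Real.sqrt (100 * K ^ 10 * (a / s + a / (κ * ω) + h)) + Real.sqrt m)) := by
  have hK0 : (0 : ℝ) < K := by linarith
  have hKK : K ≤ K ^ 2 := by nlinarith
  have hK2 : (1 : ℝ) ≤ K ^ 2 := one_le_pow₀ hK
  have hq2 : q2.a0 ≠ 0 := by
    intro hc
    rw [hc, abs_zero] at h2
    have : 0 < ω / K := by positivity
    linarith
  have hq2' : 0 < |q2.a0| := abs_pos.2 hq2
  obtain ⟨e1, e2⟩ := df_pair (q0 := q0) (q1 := q1) (q2 := q2) h0 hq2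
  have hωq : ω ≤ K * |q2.a0| := by
    rw [div_le_iff₀ hK0] at h2; linarith
  -- the ratio
  have hμ : |q1.a0 / q2.a0| ≤ K ^ 2 := by
    rw [abs_div, div_le_iff₀ hq2']
    calc |q1.a0| ≤ K * ω := h1
      _ ≤ K * (K * |q2.a0|) := mul_le_mul_of_nonneg_left hωq hK0.le
      _ = K ^ 2 * |q2.a0| := by ring
  -- the mixed and normal derivatives
  obtain ⟨B1, hB1⟩ : ∃ x : ℝ, x = 2 * K ^ 3 * (s / κ) := ⟨_, rfl⟩
  obtain ⟨B2, hB2⟩ : ∃ x : ℝ, x = 2 * K ^ 3 * (s / κ ^ 2) := ⟨_, rfl⟩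
  have hdiv : ∀ x : ℝ, κ * |x| ≤ K * s → |x| ≤ K * (s / κ) := fun x hx => by
    rw [← mul_div_assoc, le_div_iff₀ κ0]; linarith
  have hdiv2 : ∀ x : ℝ, κ ^ 2 * |x| ≤ K * s → |x| ≤ K * (s / κ ^ 2) := fun x hx => by
    rw [← mul_div_assoc, le_div_iff₀ (by positivity)]; linarith
  have hb1 : ∀ i, |(q1.h0 i - q1.a0 / q2.a0 * q2.h0 i) +
      (q1.h00 - q1.a0 / q2.a0 * q2.h00) * sl q0 i| ≤ B1 := fun i => by
    rw [e2 i]
    refine (abs_sub _ _).trans ?_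
    rw [abs_mul]
    have g1 := hdiv _ (n1 i)
    have g2 := mul_le_mul hμ (hdiv _ (n2 i)) (abs_nonneg _) (by positivity)
    have g3 : K * (s / κ) ≤ K ^ 3 * (s / κ) :=
      mul_le_mul_of_nonneg_right (by nlinarith [pow_le_pow_right₀ hK (show 1 ≤ 3 by norm_num)])
        (by positivity)
    calc _ ≤ K * (s / κ) + K ^ 2 * (K * (s / κ)) := add_le_add g1 g2
      _ = K * (s / κ) + K ^ 3 * (s / κ) := by ring
      _ ≤ B1 := by rw [hB1]; linarith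
  have hb2 : |q1.h00 - q1.a0 / q2.a0 * q2.h00| ≤ B2 := by
    rw [e1]
    refine (abs_sub _ _).trans ?_
    rw [abs_mul]
    have g1 := hdiv2 _ n1'
    have g2 := mul_le_mul hμ (hdiv2 _ n2') (abs_nonneg _) (by positivity)
    have g3 : K * (s / κ ^ 2) ≤ K ^ 3 * (s / κ ^ 2) :=
      mul_le_mul_of_nonneg_right (by nlinarith [pow_le_pow_right₀ hK (show 1 ≤ 3 by norm_num)])
        (by positivity)
    calc _ ≤ K * (s / κ ^ 2) + K ^ 2 * (K * (s / κ ^ 2)) := add_le_add g1 g2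
      _ = K * (s / κ ^ 2) + K ^ 3 * (s / κ ^ 2) := by ring
      _ ≤ B2 := by rw [hB2]; linarith
  have hkω : 0 < κ * ω := by positivity
  -- slopes
  obtain ⟨η, hη⟩ : ∃ x : ℝ, x = K * l * s / ω := ⟨_, rfl⟩
  have hη' : ∀ i, |tg q0 q2 i| ≤ η * |q2.a0| := fun i => by
    refine (ht i).trans ?_
    rw [hη, div_mul_eq_mul_div, le_div_iff₀ ω0]
    calc l * s * ω ≤ l * s * (K * |q2.a0|) := mul_le_mul_of_nonneg_left hωq (by positivity)
      _ = K * l * s * |q2.a0| := by ring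
  have hm0 : 0 ≤ m := le_trans (by positivity) hlm
  have hl1 : l ≤ 1 := by
    have h5 : (1 : ℝ) ≤ K ^ 8 := one_le_pow₀ hK
    have h6 : 1 / (4 * K ^ 8) ≤ 1 := by
      rw [div_le_one (by positivity)]; linarith
    nlinarith
  have hsk : s / (κ * ω) ≤ K := by rw [div_le_iff₀ hkω]; exact hs
  have hsk0 : 0 ≤ s / (κ * ω) := by positivity
  have herr : 1 / s * (2 * B1 * η + B2 * η ^ 2) ≤ m := by
    have e : 1 / s * (2 * B1 * η + B2 * η ^ 2) = 4 * K ^ 4 * l * (s / (κ * ω)) +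
        2 * K ^ 5 * l ^ 2 * (s / (κ * ω)) ^ 2 := by
      rw [hB1, hB2, hη]; field_simp; ring
    rw [e]
    have g1 : 4 * K ^ 4 * l * (s / (κ * ω)) ≤ 4 * K ^ 4 * l * K :=
      mul_le_mul_of_nonneg_left hsk (by positivity)
    have g2 : 2 * K ^ 5 * l ^ 2 * (s / (κ * ω)) ^ 2 ≤ 2 * K ^ 5 * l * K ^ 2 := by
      have g3 : (s / (κ * ω)) ^ 2 ≤ K ^ 2 := pow_le_pow_left₀ hsk0 hsk 2
      have g4 : l ^ 2 ≤ l := by nlinarith
      calc 2 * K ^ 5 * l ^ 2 * (s / (κ * ω)) ^ 2 ≤ 2 * K ^ 5 * l ^ 2 * K ^ 2 :=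
            mul_le_mul_of_nonneg_left g3 (by positivity)
        _ ≤ 2 * K ^ 5 * l * K ^ 2 := by
            refine mul_le_mul_of_nonneg_right ?_ (by positivity)
            exact mul_le_mul_of_nonneg_left g4 (by positivity)
    have g5 : K ^ 5 * l ≤ K ^ 8 * l :=
      mul_le_mul_of_nonneg_right (pow_le_pow_right₀ hK (by norm_num)) l0
    have g6 : K ^ 7 * l ≤ K ^ 8 * l :=
      mul_le_mul_of_nonneg_right (pow_le_pow_right₀ hK (by norm_num)) l0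
    have g7 : 0 ≤ K ^ 8 * l := by positivity
    calc _ ≤ 4 * K ^ 4 * l * K + 2 * K ^ 5 * l * K ^ 2 := add_le_add g1 g2
      _ = 4 * (K ^ 5 * l) + 2 * (K ^ 7 * l) := by ring
      _ ≤ 12 * (K ^ 8 * l) := by linarith
      _ ≤ m := by linarith
  -- the line
  obtain ⟨a2, ha2⟩ : ∃ x : ℝ, x = K ^ 2 * (a + κ * ω * h) / ω := ⟨_, rfl⟩
  have hline : |q2.a0 * y + dp q2.a v| ≤ a2 * |q2.a0| := by
    refine hl.trans ?_
    rw [ha2, div_mul_eq_mul_div, le_div_iff₀ ω0]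
    calc K * (a + κ * ω * h) * ω ≤ K * (a + κ * ω * h) * (K * |q2.a0|) :=
          mul_le_mul_of_nonneg_left hωq (by positivity)
      _ = K ^ 2 * (a + κ * ω * h) * |q2.a0| := by ring
  have hv2 : ∀ i, |v i| ≤ K ^ 2 := fun i => (hv i).trans hKK
  -- th q2 q1 on v; the derivatives over q2 instead of q0
  have hd21 : ∀ i, |(q1.h0 i - q1.a0 / q2.a0 * q2.h0 i) +
      (q1.h00 - q1.a0 / q2.a0 * q2.h00) * sl q2 i| ≤ 3 * K ^ 5 * (s / κ) := fun i => by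
    have e : (q1.h0 i - q1.a0 / q2.a0 * q2.h0 i) +
        (q1.h00 - q1.a0 / q2.a0 * q2.h00) * sl q2 i =
        ((q1.h0 i - q1.a0 / q2.a0 * q2.h0 i) + (q1.h00 - q1.a0 / q2.a0 * q2.h00) * sl q0 i) +
        (q1.h00 - q1.a0 / q2.a0 * q2.h00) * -(sl q0 i - sl q2 i) := by ring
    rw [e]
    refine (abs_add_le _ _).trans ?_
    have hd : |sl q0 i - sl q2 i| ≤ η := by
      rw [sl_sub h0 hq2, abs_div, div_le_iff₀ hq2']; exact hη' i
    rw [abs_mul, abs_neg]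
    have g1 := mul_le_mul hb2 hd (abs_nonneg _) ((abs_nonneg _).trans hb2)
    have g2 : B2 * η = 2 * K ^ 4 * l * (s / (κ * ω)) * (s / κ) := by
      rw [hB2, hη]; field_simp
    have g3 : 2 * K ^ 4 * l * (s / (κ * ω)) * (s / κ) ≤ K ^ 5 * (s / κ) := by
      refine mul_le_mul_of_nonneg_right ?_ (by positivity)
      have hl2 : 2 * l ≤ 1 := by
        have h5 : (1 : ℝ) ≤ K ^ 8 := one_le_pow₀ hK
        have h6 : 1 / (4 * K ^ 8) ≤ 1 := by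
          rw [div_le_one (by positivity)]; linarith
        nlinarith
      calc 2 * K ^ 4 * l * (s / (κ * ω)) ≤ 2 * K ^ 4 * l * K :=
            mul_le_mul_of_nonneg_left hsk (by positivity)
        _ = K ^ 5 * (2 * l) := by ring
        _ ≤ K ^ 5 * 1 := mul_le_mul_of_nonneg_left hl2 (by positivity)
        _ = K ^ 5 := mul_one _
    have g4 : B1 ≤ 2 * K ^ 5 * (s / κ) := by
      rw [hB1]
      refine mul_le_mul_of_nonneg_right ?_ (by positivity)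
      have := pow_le_pow_right₀ hK (show 3 ≤ 5 by norm_num)
      linarith
    have g5 := hb1 i
    calc _ ≤ B1 + B2 * η := add_le_add g5 g1
      _ ≤ 2 * K ^ 5 * (s / κ) + K ^ 5 * (s / κ) := by rw [g2]; exact add_le_add g4 g3
      _ = 3 * K ^ 5 * (s / κ) := by ring
  have hδ0 := line_delta (q := q2) (q' := q1) (v := v) (y := y) (K := K ^ 2)
    (B1 := 3 * K ^ 5 * (s / κ)) (B2 := B2) (a1 := K * a) (a2 := a2) hK2 hq2 hμ hv2 hd21 hb2 d1 d1'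
    hline
  obtain ⟨δ, hδ⟩ : ∃ x : ℝ, x = 100 * K ^ 10 * (a / s + a / (κ * ω) + h) := ⟨_, rfl⟩
  have hakω : a / (κ * ω) ≤ K := by rw [div_le_iff₀ hkω]; exact ha
  have haK0 : 0 ≤ a / (κ * ω) := by positivity
  have hass : 0 ≤ a / s := by positivity
  have hδ1 : 1 / s * |qf (th q2 q1) v| ≤ δ := by
    have g0 : 1 / s * |qf (th q2 q1) v| ≤ 1 / s * (2 * K ^ 2 * (K * a) +
        6 * K ^ 2 * (3 * K ^ 5 * (s / κ)) * a2 + B2 * a2 ^ 2) :=
      mul_le_mul_of_nonneg_left hδ0 (by positivity)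
    have e : 1 / s * (2 * K ^ 2 * (K * a) + 6 * K ^ 2 * (3 * K ^ 5 * (s / κ)) * a2 + B2 * a2 ^ 2) =
        2 * K ^ 3 * (a / s) + 18 * K ^ 9 * (a / (κ * ω) + h) +
          2 * K ^ 7 * (a / (κ * ω) + h) ^ 2 := by
      rw [hB2, ha2]; field_simp; ring
    rw [e] at g0
    set x : ℝ := a / (κ * ω) + h with hx
    have hx0 : 0 ≤ x := by positivity
    have hx1 : x ≤ 2 * K := by linarith
    have g1 : 2 * K ^ 7 * x ^ 2 ≤ 4 * K ^ 8 * x := by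
      have : x ^ 2 ≤ 2 * K * x := by nlinarith
      calc 2 * K ^ 7 * x ^ 2 ≤ 2 * K ^ 7 * (2 * K * x) := mul_le_mul_of_nonneg_left this (by positivity)
        _ = 4 * K ^ 8 * x := by ring
    have p1 : K ^ 3 ≤ K ^ 10 := pow_le_pow_right₀ hK (by norm_num)
    have p2 : K ^ 9 ≤ K ^ 10 := pow_le_pow_right₀ hK (by norm_num)
    have p3 : K ^ 8 ≤ K ^ 10 := pow_le_pow_right₀ hK (by norm_num)
    have q1' : K ^ 3 * (a / s) ≤ K ^ 10 * (a / s) := mul_le_mul_of_nonneg_right p1 hass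
    have q2' : K ^ 9 * x ≤ K ^ 10 * x := mul_le_mul_of_nonneg_right p2 hx0
    have q3' : K ^ 8 * x ≤ K ^ 10 * x := mul_le_mul_of_nonneg_right p3 hx0
    have q4' : 0 ≤ K ^ 10 * (a / s) := by positivity
    have q5' : 0 ≤ K ^ 10 * x := by positivity
    have e5 : δ = 100 * (K ^ 10 * (a / s)) + 100 * (K ^ 10 * x) := by rw [hδ, hx]; ring
    rw [e5]
    linarith
  have hab : ∀ x : ℝ, 1 / s * |x| ≤ K → True := fun _ _ => trivial
  have hsc : ∀ x B : ℝ, |x| ≤ B * s → 1 / s * |x| ≤ B := fun x B hx => by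
    rw [one_div_mul_eq_div, div_le_iff₀ s0]; exact hx
  have hKM : K * s ≤ K ^ 2 * s := mul_le_mul_of_nonneg_right hKK s0.le
  have hmn : ∀ x : ℝ, |x| ≤ m * s ^ 2 → (1 / s) ^ 2 * |x| ≤ m := fun x hx => by
    rw [div_pow, one_pow, one_div_mul_eq_div, div_le_iff₀ (by positivity)]; exact hx
  have hlo : ∀ x : ℝ, s ≤ K * |x| → 1 / K ^ 2 ≤ 1 / s * |x| := fun x hx => by
    rw [one_div_mul_eq_div, div_le_div_iff₀ (by positivity) s0]
    calc 1 * s ≤ K * |x| := by linarith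
      _ ≤ K ^ 2 * |x| := mul_le_mul_of_nonneg_right hKK (abs_nonneg _)
      _ = |x| * K ^ 2 := by ring
  have fin := h6_rows (q0 := q0) (q1 := q1) (q2 := q2) (v := v) (K := K ^ 2) (m := m) (δ := δ)
    (c := 1 / s) (B1 := B1) (B2 := B2) (η := η) hK2 h0 hq2 y0 y1 y2 hμ hη' hb1 hb2 (by positivity)
    herr (fun i j => hsc _ _ ((b1 i j).trans hKM)) (fun i j => hsc _ _ ((b2 i j).trans hKM))
    (by obtain ⟨i, j, h⟩ := l1; exact ⟨i, j, hlo _ h⟩)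
    (by obtain ⟨i, j, h⟩ := l2; exact ⟨i, j, hlo _ h⟩)
    (fun i j k l => hmn _ (m1 i j k l)) (fun i j k l => hmn _ (m2 i j k l))
    (fun i j k l => hmn _ (m3 i j k l))
    (by
      refine hm.trans (le_of_eq ?_)
      ring)
    hv2 hδ1 i
  rw [one_div_mul_eq_div, div_le_iff₀ s0] at fin
  rw [← hδ]
  calc _ ≤ _ := fin
    _ = _ := by ring

end Crest.Agent.R136.Rk601
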