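import Crest.Agent.R136.Rk6_601
import Crest.Agent.R136.AlD_601
import Crest.Agent.R136.Cap2_102
import Crest.Agent.R136.KapP_335

/-!
# R136 (U4, PLAN 2 (3) = (AL), leaf (E) = V6), geometry of one line of two sheets (helper601)
-/

set_option autoImplicit false

namespace Crest.Agent.R136.Rk601

open Crest.Agent.R136.Sh605 Crest.Agent.R136.Tl102
open Crest.Agent.R136.K4 (Plk4)
open Crest.Agent.R136.Tlt51 (Shp InP)
open Crest.Agent.R136.KapP335 (kapP kapP_eq)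
open Crest.Agent.R136.Gbx862 (zj)
open Crest.Agent.R136.AlD601
open Crest.Agent.R136.Chm862 (gm df)

/-- quadratic function of one variable, bounded on an interval of length `1` -/
theorem quad_bd {c0 c1 c2 A ζ0 : ℝ} (h0 : 0 ≤ ζ0) (h1 : ζ0 ≤ 1)
    (h : ∀ ζ, 0 ≤ ζ0 + ζ → ζ0 + ζ ≤ 1 → |c0 + c1 * ζ + c2 * ζ ^ 2| ≤ A) :
    |c1| ≤ 10 * A ∧ |c2| ≤ 8 * A := by
  have a0 := h (-ζ0) (by linarith) (by linarith)
  have a1 := h (1 / 2 - ζ0) (by linarith) (by linarith)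
  have a2 := h (1 - ζ0) (by linarith) (by linarith)
  rw [abs_le] at a0 a1 a2
  have e1 : c2 / 2 = (c0 + c1 * (-ζ0) + c2 * (-ζ0) ^ 2) - 2 * (c0 + c1 * (1 / 2 - ζ0) +
      c2 * (1 / 2 - ζ0) ^ 2) + (c0 + c1 * (1 - ζ0) + c2 * (1 - ζ0) ^ 2) := by ring
  have e2 : c1 = (c0 + c1 * (1 - ζ0) + c2 * (1 - ζ0) ^ 2) -
      (c0 + c1 * (-ζ0) + c2 * (-ζ0) ^ 2) - c2 * (1 - 2 * ζ0) := by ring
  have h2 : |c2| ≤ 8 * A := by
    rw [abs_le]; constructor <;> linarith [a0.1, a0.2, a1.1, a1.2, a2.1, a2.2]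
  have h3 : |c2 * (1 - 2 * ζ0)| ≤ 8 * A := by
    rw [abs_mul]
    have h4 : |1 - 2 * ζ0| ≤ 1 := by rw [abs_le]; constructor <;> linarith
    calc |c2| * |1 - 2 * ζ0| ≤ |c2| * 1 := mul_le_mul_of_nonneg_left h4 (abs_nonneg _)
      _ ≤ 8 * A := by linarith
  refine ⟨?_, h2⟩
  rw [abs_le] at h3
  rw [abs_le]
  constructor <;> linarith [a0.1, a0.2, a2.1, a2.2, h3.1, h3.2]

/-- values in a direction, in terms of the jet -/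
theorem dir_jet {q : ℝ → V3 → ℝ} {f : Fin 3 → V3} {V : V3} {z : ℝ} {X : V3} {ρ : ℝ} {J : Jt}
    (h : JetAt q f V z X ρ J) {v' : V3} {y u1 v1 : ℝ}
    (hv : ρ • v' = ρ • V + cmb f ![y, u1, v1]) (ζ : ℝ) :
    q (z + ρ * ζ) (X + (ρ * ζ) • v') = q z X + ζ * (J.a0 * y + dp J.a ![1, u1, v1]) +
      ζ ^ 2 / 2 * d2 J y ![1, u1, v1] := by
  have h1 := jet_line h (T := ⟨X - z • v', v'⟩)
    (by funext i; simp only [Ln4.pos, Pi.sub_apply, Pi.smul_apply, smul_eq_mul]; ring) hv ζ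
  have e : (⟨X - z • v', v'⟩ : Ln4).pos (z + ρ * ζ) = X + (ρ * ζ) • v' := by
    funext i
    simp only [Ln4.pos, Pi.sub_apply, Pi.add_apply, Pi.smul_apply, smul_eq_mul]; ring
  rw [e] at h1
  exact h1

/-- a quadratic function along a line -/
theorem line_quad {q : ℝ → V3 → ℝ} (hq : IsQ q) (T : Ln4) (z ρ : ℝ) :
    ∃ c1 c2 : ℝ, ∀ ζ, q (z + ρ * ζ) (T.pos (z + ρ * ζ)) = q z (T.pos z) + c1 * ζ + c2 * ζ ^ 2 := by
  obtain ⟨J, -, hJ⟩ := exists_jet hq 0 T.v z (T.pos z) ρ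
  refine ⟨J.a 0, J.h 0 0 / 2, fun ζ => ?_⟩
  have h1 := hJ 0 ζ 0 0
  have e : T.pos z + (ρ * ζ) • T.v + cmb 0 ![0, 0, 0] = T.pos (z + ρ * ζ) := by
    funext i
    simp only [Ln4.pos, cmb, Pi.add_apply, Pi.smul_apply, smul_eq_mul, Pi.zero_apply]; ring
  rw [e] at h1
  rw [h1]
  simp only [dp, qf, Fin.sum_univ_three, Matrix.cons_val]
  ring

/-- values along a parallel of `T'`, from the expansion around `T'` -/
theorem par_line {q : ℝ → V3 → ℝ} {e : Fin 3 → V3} {w : V3} (he : Ortho e) (hw : ∀ k, w k ≠ 0)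
    {T' : Ln4} {z0 ρ : ℝ} {b0 b1 : V3} {G : QF} (hE : IsExp q e w T' z0 ρ b0 b1 G) (ζ0 ζ : ℝ)
    (X : V3) : q (z0 + ρ * ζ0 + ρ * ζ) (X + (ρ * ζ) • T'.v) =
      q (z0 + ρ * ζ0 + ρ * ζ) (T'.pos (z0 + ρ * ζ0 + ρ * ζ)) +
        w 0 * (Fq b0 b1 G ζ0 (pc e w T' (z0 + ρ * ζ0) X) +
          ζ * dt b1 (pc e w T' (z0 + ρ * ζ0) X)) := by
  have h1 := hE (ζ0 + ζ) (pc e w T' (z0 + ρ * ζ0) X)
  have e0 : z0 + ρ * (ζ0 + ζ) = z0 + ρ * ζ0 + ρ * ζ := by ring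
  rw [e0] at h1
  have e1 : T'.pos (z0 + ρ * ζ0 + ρ * ζ) + cmb (fr e w) (pc e w T' (z0 + ρ * ζ0) X) =
      X + (ρ * ζ) • T'.v := by
    have h2 := cmb_pc he hw T' (z0 + ρ * ζ0) X
    funext i
    have h3 := congrFun h2 i
    simp only [Pi.add_apply, Ln4.pos, Pi.smul_apply, smul_eq_mul] at h3 ⊢
    linear_combination h3
  rw [e1] at h1
  rw [h1]
  simp only [Fq, dt, bz]
  ring

/-- direction of `T'` in a chart, and the derivatives of `q` along `T'` at a point `X` -/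
theorem along {q : ℝ → V3 → ℝ} (hq : IsQ q) {e : Fin 3 → V3} {w : V3} (he : Ortho e)
    (hw : ∀ k, w k ≠ 0) {T' : Ln4} {z0 ρ : ℝ} {b0 b1 : V3} {G : QF}
    (hE : IsExp q e w T' z0 ρ b0 b1 G) {a ζ0 : ℝ} (h0 : 0 ≤ ζ0) (h1 : ζ0 ≤ 1)
    (ha : ∀ ζ, 0 ≤ ζ → ζ ≤ 1 → |q (z0 + ρ * ζ) (T'.pos (z0 + ρ * ζ))| ≤ a) (X : V3)
    {f : Fin 3 → V3} {V : V3} {J : Jt} (hJ : JetAt q f V (z0 + ρ * ζ0) X ρ J) {y u1 v1 : ℝ}
    (hv : ρ • T'.v = ρ • V + cmb f ![y, u1, v1]) :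
    |d2 J y ![1, u1, v1]| ≤ 16 * a ∧
      |(J.a0 * y + dp J.a ![1, u1, v1]) - w 0 * dt b1 (pc e w T' (z0 + ρ * ζ0) X)| ≤ 10 * a := by
  obtain ⟨c1, c2, hc⟩ := line_quad hq T' (z0 + ρ * ζ0) ρ
  obtain ⟨k1, k2⟩ := quad_bd (c0 := q (z0 + ρ * ζ0) (T'.pos (z0 + ρ * ζ0))) (c1 := c1) (c2 := c2)
    (A := a) h0 h1 (fun ζ g0 g1 => by
      rw [← hc ζ]
      have := ha (ζ0 + ζ) g0 g1
      have e0 : z0 + ρ * (ζ0 + ζ) = z0 + ρ * ζ0 + ρ * ζ := by ring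
      rwa [e0] at this)
  have key : ∀ ζ : ℝ, q (z0 + ρ * ζ0) X + ζ * (J.a0 * y + dp J.a ![1, u1, v1]) +
      ζ ^ 2 / 2 * d2 J y ![1, u1, v1] = (q (z0 + ρ * ζ0) (T'.pos (z0 + ρ * ζ0)) + c1 * ζ +
        c2 * ζ ^ 2) + w 0 * (Fq b0 b1 G ζ0 (pc e w T' (z0 + ρ * ζ0) X) +
          ζ * dt b1 (pc e w T' (z0 + ρ * ζ0) X)) := fun ζ => by
    rw [← dir_jet hJ hv ζ, par_line he hw hE ζ0 ζ X, hc ζ]
  have p := key 1
  have n := key (-1)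
  have o := key 0
  have e2 : d2 J y ![1, u1, v1] = 2 * c2 := by linarith
  have e3 : (J.a0 * y + dp J.a ![1, u1, v1]) - w 0 * dt b1 (pc e w T' (z0 + ρ * ζ0) X) = c1 := by
    linarith
  rw [e2, e3, abs_mul, abs_of_pos (by norm_num : (0 : ℝ) < 2)]
  exact ⟨by linarith, k1⟩

/-- **derivative of the sheet's function along `T'` at a point `X` of the sheet near `T'`** -/
theorem along_near {q : ℝ → V3 → ℝ} {e : Fin 3 → V3} {c : Ln4} {w : V3} {z0 ρ : ℝ}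
    (S : StP e c w q z0 ρ) (hρ : 0 ≤ ρ) {T' : Ln4}
    (hT : ∀ z, z0 ≤ z → z ≤ z0 + ρ → InK e c w z (T'.pos z)) {b0 b1 : V3} {G : QF}
    (hE : IsExp q e w T' z0 ρ b0 b1 G) {a ζ0 : ℝ} (h0 : 0 ≤ ζ0) (h1 : ζ0 ≤ 1)
    (ha : ∀ ζ, 0 ≤ ζ → ζ ≤ 1 → |q (z0 + ρ * ζ) (T'.pos (z0 + ρ * ζ))| ≤ a) {X : V3}
    (hX : InK e c w (z0 + ρ * ζ0) X) (hXa : |q (z0 + ρ * ζ0) X| ≤ a) {h : ℝ} (hh : h ≤ 1 / 8)
    (x1 : |pc e w T' (z0 + ρ * ζ0) X 1| ≤ h) (x2 : |pc e w T' (z0 + ρ * ζ0) X 2| ≤ h)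
    {f : Fin 3 → V3} {V : V3} {J : Jt} (hJ : JetAt q f V (z0 + ρ * ζ0) X ρ J) {y u1 v1 : ℝ}
    (hv : ρ • T'.v = ρ • V + cmb f ![y, u1, v1]) :
    |J.a0 * y + dp J.a ![1, u1, v1]| ≤ 16 * a + 10 * (h * (w 0 * kap b0 b1 G)) := by
  have hwne : ∀ i, w i ≠ 0 := fun i => (S.pos i).ne'
  have hw0 := S.pos 0
  obtain ⟨-, k1⟩ := along S.isQ S.ortho hwne hE h0 h1 ha X hJ hv
  have N := hE.nrmC S hρ hT
  obtain ⟨-, -, -, -, b10, -, -, -, -⟩ := N.b1_le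
  have hh0 : 0 ≤ h := (abs_nonneg _).trans x1
  have hy := yc_le S hρ hT hE h0 h1 hX hh x1 x2
  have hTa := ha ζ0 h0 h1
  set x := pc e w T' (z0 + ρ * ζ0) X with hx
  have hκ := kap_nonneg b0 b1 G
  have m1 : |shB1 b0 b1 1| ≤ kap b0 b1 G := le_max_of_le_left (le_max_left _ _)
  have m2 : |shB1 b0 b1 2| ≤ kap b0 b1 G := le_max_of_le_left (le_max_right _ _)
  have e1 : dt b1 x = b1 0 * yc b0 x + shB1 b0 b1 1 * x 1 + shB1 b0 b1 2 * x 2 := by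
    simp only [dt, yc, shB1, Matrix.cons_val]; ring
  have t1 : |b1 0 * yc b0 x| ≤ 3 / 2 * |yc b0 x| := by
    rw [abs_mul]; exact mul_le_mul_of_nonneg_right b10 (abs_nonneg _)
  have t2 : |shB1 b0 b1 1 * x 1| ≤ kap b0 b1 G * h := by
    rw [abs_mul]; exact mul_le_mul m1 x1 (abs_nonneg _) hκ
  have t3 : |shB1 b0 b1 2 * x 2| ≤ kap b0 b1 G * h := by
    rw [abs_mul]; exact mul_le_mul m2 x2 (abs_nonneg _) hκ
  have t4 : |dt b1 x| ≤ 3 / 2 * |yc b0 x| + 2 * (kap b0 b1 G * h) := by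
    rw [e1]
    refine (abs_add_three _ _ _).trans ?_
    linarith
  have t5 : |w 0 * dt b1 x| ≤ 6 * a + 10 * (h * (w 0 * kap b0 b1 G)) := by
    rw [abs_mul, abs_of_pos hw0]
    have h5 := mul_le_mul_of_nonneg_left t4 hw0.le
    have h6 : w 0 * (3 / 2 * |yc b0 x| + 2 * (kap b0 b1 G * h)) =
        3 / 2 * (w 0 * |yc b0 x|) + 2 * (h * (w 0 * kap b0 b1 G)) := by ring
    have h7 : 5 * h * (w 0 * kap b0 b1 G) = 5 * (h * (w 0 * kap b0 b1 G)) := by ring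
    have h8 : 0 ≤ h * (w 0 * kap b0 b1 G) := by positivity
    rw [h7] at hy
    rw [h6] at h5
    linarith
  have e6 : J.a0 * y + dp J.a ![1, u1, v1] = (J.a0 * y + dp J.a ![1, u1, v1] - w 0 * dt b1 x) +
      w 0 * dt b1 x := by ring
  rw [e6]
  refine (abs_add_le _ _).trans ?_
  linarith

/-- the direction of `T'` in the chart of `S` -/
theorem dir_vS {S : Plk4} (he : Ortho S.e) (hw : ∀ k, S.w k ≠ 0) (ρ : ℝ) (T' : Ln4) :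
    ρ • T'.v = ρ • S.c.v + cmb (fr S.e S.w)
      ![ρ * dt (S.e 0) (T'.v - S.c.v) / S.w 0, vS S ρ T' 1, vS S ρ T' 2] := by
  funext i
  have h1 := he.expand (T'.v - S.c.v) i
  have e0 : ρ * dt (S.e 0) (T'.v - S.c.v) / S.w 0 * (S.w 0 * S.e 0 i) =
      ρ * (dt (S.e 0) (T'.v - S.c.v) * S.e 0 i) := by field_simp [hw 0]
  have e1 : ρ * dt (S.e 1) (T'.v - S.c.v) / S.w 1 * (S.w 1 * S.e 1 i) =
      ρ * (dt (S.e 1) (T'.v - S.c.v) * S.e 1 i) := by field_simp [hw 1]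
  have e2 : ρ * dt (S.e 2) (T'.v - S.c.v) / S.w 2 * (S.w 2 * S.e 2 i) =
      ρ * (dt (S.e 2) (T'.v - S.c.v) * S.e 2 i) := by field_simp [hw 2]
  simp only [Pi.add_apply, Pi.smul_apply, smul_eq_mul, cmb, fr, vS, Matrix.cons_val]
  rw [e0, e1, e2]
  simp only [Pi.sub_apply] at h1
  linear_combination ρ * h1

theorem vS_eq (S : Plk4) (ρ : ℝ) (T' : Ln4) :
    (![1, vS S ρ T' 1, vS S ρ T' 2] : Fin 3 → ℝ) = vS S ρ T' := by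
  funext i; fin_cases i <;> rfl

end Crest.Agent.R136.Rk601
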