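import Crest.Agent.R136.Res8_648
import Crest.Agent.R136.LadG1_697

/-!
# R136, wall resonances (helper648): LITERALS of the interior numbers and of the absolute relation

* `S0 V` : the level slots which may move on a line (`z` and the slots `4 + q`, `q ∈ V`)
* `NumW S V lam`, `NumR S T a s lam` : numbers of the tangent `lam` at the interior point
* `ResA` : `ResQ` in absolute units (labels of a `ZWin`, no `Wnd`)
-/

set_option autoImplicit false
set_option linter.unusedVariables false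

open Filter Topology

namespace Crest.Agent.R136.Rnl648

open Finset Crest.Agent.R136.NetW191 Crest.Agent.R136.Net191 Crest.Agent.R136.Qg926
open Crest.Agent.R136.EvW938 Crest.Agent.R136.Res2648 Crest.Agent.R136.LadG697
open Crest.Agent.R138.Ex926 (Base U)

/-- level slots which may move on a line -/
def S0 (V : Finset (Fin 14)) : Finset (Fin 18) := insert 0 (V.image (Fin.natAdd 4))

/-- **numbers of the window of a resonance**, for every resolution `x` -/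
structure NumW (S : Finset (Fin 18)) (V : Finset (Fin 14)) (lam : (Fin 18 → ℝ) → ℝ) : Prop where
  dens : ∀ x : ℝ, 0 ≤ x →
    lam (fun _ => x) ≤ lam (cut S (fun _ => x) 0) + lam (cut S 0 (fun _ => x))
  frost : ∀ y : ℝ, 0 ≤ y → lam (Pi.single 0 y) ≤ -y
  /-- the invisible level slots cost nothing on fat lines -/
  inv : ∀ x : ℝ, 0 ≤ x → lam (cut S (fun _ => x) 0) ≤ lam (cut (S0 V) (fun _ => x) 0)

/-- **rate of the slot `a` on the fibre `T : x`** -/
def NumR (S T : Finset (Fin 18)) (a : Fin 18) (s : ℝ) (lam : (Fin 18 → ℝ) → ℝ) : Prop :=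
  0 < s ∧ ∀ x t : ℝ, 0 ≤ t → t ≤ x →
    s * t ≤ lam (cut S (bxs T x) fun _ => x) -
      lam (cut S (Function.update (bxs T x) a t) fun _ => x)

/-- **the relation of a resonance in absolute units** (class `G`, resolution `x`, loss `ε`) -/
def ResA (B B' : Base) (I : ℕ → Finset (ℕ × ℝ)) (u : ℕ → Fin 18 → ℝ) (κ : ℕ → ℝ)
    (F : ℕ → ℕ × ℝ → FW) (Y : ℕ → Fin 18 → ℝ) (w : ℕ → ℝ) (S : Finset (Fin 18)) (j : Fin 14)
    (V : Finset (Fin 14)) (x : ℝ) (n : ℕ) (ε : ℝ) (G : Finset (ℕ × ℝ)) : Prop :=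
  ∃ x0 ∈ I n, ∃ ψ : ℝ,
    u n (Fin.natAdd 4 j) * |ψ| ≤ B'.d n ^ (-ε) * B.d n ^ Y n (Fin.natAdd 4 j) ∧
    (∀ i ∈ G, ∀ s, u n s * |coW (κ n) (F n x0) (F n i) s| ≤ B'.d n ^ (-ε) * B.d n ^ Y n s) ∧
    ∀ i ∈ G, ∀ i' ∈ G,
      zlab B I (coU u κ F) monW 67 Y w n (cut S (fun _ => x) 0) i =
        zlab B I (coU u κ F) monW 67 Y w n (cut S (fun _ => x) 0) i' → ∀ q ∈ V,
      u n (Fin.natAdd 4 q) * |coW (κ n) (F n i) (F n i') (Fin.natAdd 4 q) -
        (ψ - coW (κ n) (F n x0) (F n i) (Fin.natAdd 4 j)) *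
          (tr (κ n) (sh (coW (κ n) (F n i) (F n i') 0)) (Pi.single j 1) q -
            (Pi.single j 1 : Fin 14 → ℝ) q)| ≤
        B'.d n ^ (x - ε) * B.d n ^ Y n (Fin.natAdd 4 q)

section mono

variable {B B' : Base} {I : ℕ → Finset (ℕ × ℝ)} {u : ℕ → Fin 18 → ℝ} {κ : ℕ → ℝ}
  {F : ℕ → ℕ × ℝ → FW} {Y : ℕ → Fin 18 → ℝ} {w : ℕ → ℝ} {S : Finset (Fin 18)} {j : Fin 14}
  {V : Finset (Fin 14)} {x : ℝ} {n : ℕ} {ε ε' : ℝ} {G G' : Finset (ℕ × ℝ)}

theorem ResA.mono (h : G' ⊆ G) (H : ResA B B' I u κ F Y w S j V x n ε G) :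
    ResA B B' I u κ F Y w S j V x n ε G' := by
  obtain ⟨x0, h0, ψ, h1, h2, h3⟩ := H
  exact ⟨x0, h0, ψ, h1, fun i hi => h2 i (h hi), fun i hi i' hi' => h3 i (h hi) i' (h hi')⟩

theorem ResA.weak (hε : ε ≤ ε') (H : ResA B B' I u κ F Y w S j V x n ε G) :
    ResA B B' I u κ F Y w S j V x n ε' G := by
  obtain ⟨x0, h0, ψ, h1, h2, h3⟩ := H
  have hd : ∀ s, 0 ≤ B.d n ^ Y n s := fun s => (Real.rpow_pos_of_pos (B.pos n) _).le
  have e1 : B'.d n ^ (-ε) ≤ B'.d n ^ (-ε') :=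
    Real.rpow_le_rpow_of_exponent_ge (B'.pos n) (B'.lt n).le (by linarith)
  have e2 : B'.d n ^ (x - ε) ≤ B'.d n ^ (x - ε') :=
    Real.rpow_le_rpow_of_exponent_ge (B'.pos n) (B'.lt n).le (by linarith)
  exact ⟨x0, h0, ψ, h1.trans (mul_le_mul_of_nonneg_right e1 (hd _)),
    fun i hi s => (h2 i hi s).trans (mul_le_mul_of_nonneg_right e1 (hd _)),
    fun i hi i' hi' hl q hq => (h3 i hi i' hi' hl q hq).trans
      (mul_le_mul_of_nonneg_right e2 (hd _))⟩

end mono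

end Crest.Agent.R136.Rnl648
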