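import Crest.Agent.R136.Val4_289
import Crest.Agent.R136.Sh3_605
import Crest.Agent.R136.Sh7_321

/-!
# R136 (U4): rounding of sheets to dyadic widths (helper289)

`rnd_C` : every finite set of lines of a sheet of the class `ShC` has a `1 / 17 ^ 9` part in a
`ShC`-sheet (same frame) whose widths are dyadic multiples of the resolution; a cigar (`w 0 = w 2`)
gives a cigar. `rnd_cfg` : the form for objects and `LegC`; `cap5_comp` : comparison of the sizes.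
-/

set_option autoImplicit false
set_option linter.unusedVariables false

open Finset

namespace Crest.Agent.R136.Rnd289

open Sh605 UB289 Sh321 K4 KS879 En879 Val289

noncomputable section

/-! ### clamping -/

/-- `u` clamped to `[-s, s]` -/
def clp (s u : ℝ) : ℝ := max (-s) (min s u)

theorem clp_abs {s u : ℝ} (hs : 0 ≤ s) : |clp s u| ≤ s := by
  unfold clp
  rw [abs_le]
  constructor
  · exact le_max_left _ _
  · exact max_le (by linarith) (min_le_left _ _)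

/-- a point close to `u` is at distance `≤ w'` from the clamped `u` -/
theorem clp_close {w w' u t : ℝ} (h1 : w' ≤ w) (h2 : w / 8 ≤ w') (hu : |u| ≤ w) (ht : |t| ≤ w)
    (htu : |t - u| ≤ w / 8) : |t - clp (w - w') u| ≤ w' := by
  unfold clp
  rw [abs_le] at hu ht htu ⊢
  rcases le_total (w - w') u with h3 | h3
  · rw [min_eq_left h3, max_eq_right (by linarith)]
    constructor <;> linarith
  · rw [min_eq_right h3]
    rcases le_total (-(w - w')) u with h4 | h4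
    · rw [max_eq_right h4]
      constructor <;> linarith
    · rw [max_eq_left h4]
      constructor <;> linarith

/-! ### the centre line -/

/-- coordinates of a line relative to `c` -/
def crd (e : Fin 3 → V3) (c t : Ln4) (z : ℝ) (i : Fin 3) : ℝ := dt (e i) (t.pos z - c.pos z)

theorem crd_affine (e : Fin 3 → V3) (c t : Ln4) {z0 ρ : ℝ} (hρ : 0 < ρ) (z : ℝ) (i : Fin 3) :
    crd e c t z i = (crd e c t z0 i * (z0 + ρ - z) + crd e c t (z0 + ρ) i * (z - z0)) / ρ := by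
  rw [eq_div_iff hρ.ne']
  simp only [crd, dt, Pi.sub_apply, Ln4.pos]
  ring

/-- the line with coordinates `A` at height `z0` and `B` at height `z0 + ρ`, relative to `c` -/
def cen (e : Fin 3 → V3) (c : Ln4) (z0 ρ : ℝ) (A B : Fin 3 → ℝ) : Ln4 where
  p := fun k => c.p k + ∑ i, (A i * (z0 + ρ) - B i * z0) / ρ * e i k
  v := fun k => c.v k + ∑ i, (B i - A i) / ρ * e i k

theorem cen_crd {e : Fin 3 → V3} (he : Ortho e) (c : Ln4) {z0 ρ : ℝ} (hρ : 0 < ρ)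
    (A B : Fin 3 → ℝ) (z : ℝ) (i : Fin 3) :
    crd e c (cen e c z0 ρ A B) z i = (A i * (z0 + ρ - z) + B i * (z - z0)) / ρ := by
  have h1 : ∀ k, (cen e c z0 ρ A B).pos z k - c.pos z k =
      ∑ j, (A j * (z0 + ρ - z) + B j * (z - z0)) / ρ * e j k := by
    intro k
    simp only [Ln4.pos, cen, Fin.sum_univ_three]
    field_simp
    ring
  have h2 : crd e c (cen e c z0 ρ A B) z i =
      ∑ j, (A j * (z0 + ρ - z) + B j * (z - z0)) / ρ * dt (e i) (e j) := by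
    unfold crd
    simp only [dt, Pi.sub_apply, h1, Fin.sum_univ_three]
    ring
  rw [h2]
  simp only [he i]
  rw [Finset.sum_eq_single i]
  · rw [if_pos rfl, mul_one]
  · intro j _ hj
    rw [if_neg (Ne.symm hj), mul_zero]
  · intro h; exact absurd (mem_univ i) h

theorem conv_abs {z0 ρ z a b m : ℝ} (hρ : 0 < ρ) (h0 : z0 ≤ z) (h1 : z ≤ z0 + ρ) (ha : |a| ≤ m)
    (hb : |b| ≤ m) : |(a * (z0 + ρ - z) + b * (z - z0)) / ρ| ≤ m := by
  rw [abs_div, abs_of_pos hρ, div_le_iff₀ hρ]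
  have g0 : 0 ≤ z - z0 := by linarith
  have g1 : 0 ≤ z0 + ρ - z := by linarith
  calc |a * (z0 + ρ - z) + b * (z - z0)| ≤ |a| * (z0 + ρ - z) + |b| * (z - z0) := by
        refine (abs_add_le _ _).trans ?_
        rw [abs_mul, abs_mul, abs_of_nonneg g0, abs_of_nonneg g1]
    _ ≤ m * (z0 + ρ - z) + m * (z - z0) := by gcongr
    _ = m * ρ := by ring

/-- the centre line of the class of `y` -/
def ctl (e : Fin 3 → V3) (c : Ln4) (w w' : V3) (z0 ρ : ℝ) (y : Ln4) : Ln4 :=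
  cen e c z0 ρ (fun i => clp (w i - w' i) (crd e c y z0 i))
    (fun i => clp (w i - w' i) (crd e c y (z0 + ρ) i))

theorem ctl_abs {e : Fin 3 → V3} (he : Ortho e) {c : Ln4} {w w' : V3} {z0 ρ : ℝ} (hρ : 0 < ρ)
    (hw : ∀ i, w' i ≤ w i) (y : Ln4) {z : ℝ} (h0 : z0 ≤ z) (h1 : z ≤ z0 + ρ) (i : Fin 3) :
    |crd e c (ctl e c w w' z0 ρ y) z i| ≤ w i - w' i := by
  unfold ctl
  rw [cen_crd he c hρ]
  exact conv_abs hρ h0 h1 (clp_abs (by linarith [hw i])) (clp_abs (by linarith [hw i]))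

theorem crd_sub (e : Fin 3 → V3) (c t y : Ln4) (z : ℝ) (i : Fin 3) :
    dt (e i) (t.pos z - y.pos z) = crd e c t z i - crd e c y z i := by
  simp only [crd, dt, Pi.sub_apply]; ring

theorem ctl_close {e : Fin 3 → V3} (he : Ortho e) {c : Ln4} {w w' : V3} {z0 ρ : ℝ} (hρ : 0 < ρ)
    (hw : ∀ i, w' i ≤ w i) (hw8 : ∀ i, w i / 8 ≤ w' i) {y t : Ln4}
    (hy0 : ∀ i, |crd e c y z0 i| ≤ w i) (hy1 : ∀ i, |crd e c y (z0 + ρ) i| ≤ w i)
    (ht0 : ∀ i, |crd e c t z0 i| ≤ w i) (ht1 : ∀ i, |crd e c t (z0 + ρ) i| ≤ w i)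
    (c0 : ∀ i, |dt (e i) (t.pos z0 - y.pos z0)| ≤ 1 / 8 * w i)
    (c1 : ∀ i, |dt (e i) (t.pos (z0 + ρ) - y.pos (z0 + ρ))| ≤ 1 / 8 * w i)
    {z : ℝ} (h0 : z0 ≤ z) (h1 : z ≤ z0 + ρ) (i : Fin 3) :
    |dt (e i) (t.pos z - (ctl e c w w' z0 ρ y).pos z)| ≤ w' i := by
  have k0 := c0 i
  have k1 := c1 i
  rw [crd_sub e c t y] at k0 k1
  have g0 := clp_close (hw i) (hw8 i) (hy0 i) (ht0 i) (k0.trans (le_of_eq (by ring)))
  have g1 := clp_close (hw i) (hw8 i) (hy1 i) (ht1 i) (k1.trans (le_of_eq (by ring)))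
  rw [crd_sub e c t]
  unfold ctl
  rw [cen_crd he c hρ, crd_affine e c t hρ z i]
  have e1 : (crd e c t z0 i * (z0 + ρ - z) + crd e c t (z0 + ρ) i * (z - z0)) / ρ -
      (clp (w i - w' i) (crd e c y z0 i) * (z0 + ρ - z) +
        clp (w i - w' i) (crd e c y (z0 + ρ) i) * (z - z0)) / ρ =
      ((crd e c t z0 i - clp (w i - w' i) (crd e c y z0 i)) * (z0 + ρ - z) +
        (crd e c t (z0 + ρ) i - clp (w i - w' i) (crd e c y (z0 + ρ) i)) * (z - z0)) / ρ := by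
    ring
  rw [e1]
  exact conv_abs hρ h0 h1 g0 g1

/-! ### quadratic functions along a line -/

theorem quad_bound {k0 k1 k2 z0 ρ δ z : ℝ} (hρ : 0 < ρ) (h0 : z0 ≤ z) (h1 : z ≤ z0 + ρ)
    (a0 : |k0 + k1 * z0 + k2 * z0 ^ 2| ≤ δ)
    (a1 : |k0 + k1 * (z0 + ρ / 2) + k2 * (z0 + ρ / 2) ^ 2| ≤ δ)
    (a2 : |k0 + k1 * (z0 + ρ) + k2 * (z0 + ρ) ^ 2| ≤ δ) :
    |k0 + k1 * z + k2 * z ^ 2| ≤ 3 * δ := by
  set s : ℝ := (z - z0) / ρ with hs
  have hs0 : 0 ≤ s := div_nonneg (by linarith) hρ.le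
  have hs1 : s ≤ 1 := by rw [hs, div_le_one hρ]; linarith
  have hz : z = z0 + s * ρ := by rw [hs]; field_simp; ring
  have e1 : k0 + k1 * z + k2 * z ^ 2 =
      (k0 + k1 * z0 + k2 * z0 ^ 2) * ((1 - s) * (1 - 2 * s)) +
      (k0 + k1 * (z0 + ρ / 2) + k2 * (z0 + ρ / 2) ^ 2) * (4 * s * (1 - s)) +
      (k0 + k1 * (z0 + ρ) + k2 * (z0 + ρ) ^ 2) * (s * (2 * s - 1)) := by
    rw [hz]; ring
  have b0 : |(1 - s) * (1 - 2 * s)| ≤ 1 := by
    rw [abs_le]; constructor <;> nlinarith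
  have b1 : |4 * s * (1 - s)| ≤ 1 := by
    rw [abs_le]; constructor <;> nlinarith [sq_nonneg (2 * s - 1)]
  have b2 : |s * (2 * s - 1)| ≤ 1 := by
    rw [abs_le]; constructor <;> nlinarith [sq_nonneg (4 * s - 1)]
  have hδ : 0 ≤ δ := (abs_nonneg _).trans a0
  rw [e1]
  have tri : ∀ x y u : ℝ, |x| ≤ δ → |y| ≤ δ → |u| ≤ δ → |x + y + u| ≤ 3 * δ := by
    intro x y u hx hy hu
    rw [abs_le] at *
    constructor <;> linarith
  have mm : ∀ x y : ℝ, |x| ≤ δ → |y| ≤ 1 → |x * y| ≤ δ := by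
    intro x y hx hy
    rw [abs_mul]
    calc |x| * |y| ≤ δ * 1 := mul_le_mul hx hy (abs_nonneg _) hδ
      _ = δ := mul_one _
  exact tri _ _ _ (mm _ _ a0 b0) (mm _ _ a1 b1) (mm _ _ a2 b2)

/-! ### the rounded sheet -/

/-- admissible change of the widths -/
structure Wd (w w' : V3) (a a' r0 : ℝ) : Prop where
  a_le : a' ≤ a
  a_ge : a ≤ 2 * a'
  w0_le : w' 0 ≤ w 0
  w0_ge : w 0 ≤ 2 * w' 0
  w2_le : w' 2 ≤ w 2
  w2_ge : w 2 ≤ 4 * w' 2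
  w1_le : w' 1 ≤ w 1
  w1_ge : w 1 ≤ 8 * w' 1
  r1 : w 0 * w' 1 ≤ w' 0 * w 1
  r2 : w 0 * w' 2 ≤ w' 0 * w 2
  r0_le : r0 ≤ a'
  a0 : a' ≤ w' 0
  w02 : w' 0 ≤ w' 2
  w21 : w' 2 ≤ w' 1

variable {e : Fin 3 → V3} {c : Ln4} {w w' : V3} {q : ℝ → V3 → ℝ} {a a' z0 ρ r0 : ℝ}

theorem Wd.le (W : Wd w w' a a' r0) (i : Fin 3) : w' i ≤ w i := by
  fin_cases i
  · exact W.w0_le
  · exact W.w1_le
  · exact W.w2_le

theorem Wd.pos (hr : 0 < r0) (W : Wd w w' a a' r0) : 0 < a' ∧ 0 < w' 0 ∧ 0 < w' 2 ∧ 0 < w' 1 := by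
  have h1 := hr.trans_le W.r0_le
  have h0 := h1.trans_le W.a0
  have h2 := h0.trans_le W.w02
  exact ⟨h1, h0, h2, h2.trans_le W.w21⟩

theorem Wd.ge8 (hr : 0 < r0) (W : Wd w w' a a' r0) (i : Fin 3) :
    w i / 8 ≤ w' i := by
  obtain ⟨-, h0, h2, h1⟩ := W.pos hr
  have g2 := W.w2_ge
  have g1 := W.w1_ge
  have g0 := W.w0_ge
  fin_cases i
  · show w 0 / 8 ≤ w' 0; linarith
  · show w 1 / 8 ≤ w' 1; linarith
  · show w 2 / 8 ≤ w' 2; linarith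

theorem shC_wpos (S : ShC e c w q a z0 ρ r0) (hr : 0 < r0) (i : Fin 3) : 0 < w i := by
  obtain ⟨-, h0, h2, h1⟩ := S.pos hr
  fin_cases i
  · exact h0
  · exact h1
  · exact h2

/-- the sheet of the class of `y` -/
theorem rnd_sheet (S : ShC e c w q a z0 ρ r0) (hr : 0 < r0) (hρ : 0 < ρ)
    (W : Wd w w' a a' r0) (y : Ln4) :
    ShC e (ctl e c w w' z0 ρ y) w' (fun z x => q z x - q z (y.pos z)) a' z0 ρ r0 := by
  obtain ⟨pa, p0, p2, p1⟩ := W.pos hr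
  obtain ⟨qa, q0, q2, q1⟩ := S.pos hr
  have hin : ∀ {z : ℝ} {x : V3}, z0 ≤ z → z ≤ z0 + ρ →
      InK e (ctl e c w w' z0 ρ y) (dbl3 w') z x → InK e c (dbl3 w) z x := by
    intro z x h0 h1 hx i
    have g1 := hx i
    have g2 := ctl_abs (c := c) S.ortho hρ W.le y h0 h1 i
    have g3 := W.le i
    have e1 : dt (e i) (x - c.pos z) = dt (e i) (x - (ctl e c w w' z0 ρ y).pos z) +
        crd e c (ctl e c w w' z0 ρ y) z i := by
      simp only [crd, dt, Pi.sub_apply]; ring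
    rw [e1]
    refine (abs_add_le _ _).trans ?_
    unfold dbl3 at g1 ⊢
    linarith
  refine ⟨S.ortho, S.isQ.sub_along y, W.r0_le, W.a0, W.w02, W.w21, ?_, ?_, ?_⟩
  · intro z h0 h1 x τ hτ hx hx'
    have := S.st0 z h0 h1 x τ hτ (hin h0 h1 hx) (hin h0 h1 hx')
    have e1 : q z (x + τ • e 0) - q z (y.pos z) - (q z x - q z (y.pos z)) =
        q z (x + τ • e 0) - q z x := by ring
    rw [e1]
    exact this
  · intro z h0 h1 x τ hτ hx hx'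
    have := S.st1 z h0 h1 x τ hτ (hin h0 h1 hx) (hin h0 h1 hx')
    have e1 : q z (x + τ • e 1) - q z (y.pos z) - (q z x - q z (y.pos z)) =
        q z (x + τ • e 1) - q z x := by ring
    rw [e1]
    refine this.trans (mul_le_mul_of_nonneg_right ?_ hτ)
    rw [div_le_div_iff₀ q1 p1]
    exact W.r1
  · intro z h0 h1 x τ hτ hx hx'
    have := S.st2 z h0 h1 x τ hτ (hin h0 h1 hx) (hin h0 h1 hx')
    have e1 : q z (x + τ • e 2) - q z (y.pos z) - (q z x - q z (y.pos z)) =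
        q z (x + τ • e 2) - q z x := by ring
    rw [e1]
    refine this.trans (mul_le_mul_of_nonneg_right ?_ hτ)
    rw [div_le_div_iff₀ q2 p2]
    exact W.r2

/-- nodes -/
def node (z0 ρ : ℝ) : Fin 3 → ℝ := ![z0, z0 + ρ / 2, z0 + ρ]

/-- full code of a line -/
def fcode (n : ℕ) (e : Fin 3 → V3) (c : Ln4) (w : V3) (q : ℝ → V3 → ℝ) (a z0 ρ : ℝ) (t : Ln4) :
    ((Fin 3 → ℤ) × (Fin 3 → ℤ)) × (Fin 3 → ℤ) :=
  (code e c w (1 / (n : ℝ)) z0 (z0 + ρ) t,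
    fun k => ⌊q (node z0 ρ k) (t.pos (node z0 ρ k)) / (a / n)⌋)

/-- membership -/
theorem rnd_mem (S : ShC e c w q a z0 ρ r0) (hr : 0 < r0) (hρ : 0 < ρ)
    (W : Wd w w' a a' r0) {n : ℕ} (hn : n = 8) {y t : Ln4} (hy : InSheet y e c w q a z0 ρ)
    (ht : InSheet t e c w q a z0 ρ)
    (hc : fcode n e c w q a z0 ρ t = fcode n e c w q a z0 ρ y) :
    InSheet t e (ctl e c w w' z0 ρ y) w' (fun z x => q z x - q z (y.pos z)) a' z0 ρ := by
  obtain ⟨pa, p0, p2, p1⟩ := W.pos hr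
  obtain ⟨qa, q0, q2, q1⟩ := S.pos hr
  have hw : ∀ i, 0 < w i := shC_wpos S hr
  unfold fcode at hc
  rw [Prod.ext_iff] at hc
  obtain ⟨hc1, hc2⟩ := hc
  have hn8 : (n:ℝ) = 8 := by rw [hn]; norm_num
  have hnp : (0:ℝ) < n := by rw [hn8]; norm_num
  obtain ⟨c0, c1⟩ := code_close (by positivity) hw hc1
  rw [hn8] at c0 c1
  intro z h0 h1
  have hz0 := le_refl z0
  have hz1 : z0 ≤ z0 + ρ := by linarith
  refine ⟨fun i => ctl_close S.ortho hρ W.le (W.ge8 hr) (hy z0 hz0 hz1).1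
    (hy (z0 + ρ) hz1 le_rfl).1 (ht z0 hz0 hz1).1 (ht (z0 + ρ) hz1 le_rfl).1
    (fun i => (c0 i).trans (le_of_eq (by norm_num))) (fun i => (c1 i).trans (le_of_eq (by norm_num)))
    h0 h1 i, ?_⟩
  obtain ⟨k0, k1, k2, hk⟩ := S.isQ.along t
  obtain ⟨l0, l1, l2, hl⟩ := S.isQ.along y
  have key : ∀ k, |q (node z0 ρ k) (t.pos (node z0 ρ k)) -
      q (node z0 ρ k) (y.pos (node z0 ρ k))| ≤ a / n :=
    fun k => floor_close (by positivity) (congrFun hc2 k)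
  rw [hn8] at key
  have n0 := key 0
  have n1 := key 1
  have n2 := key 2
  simp only [node, Matrix.cons_val_zero, Matrix.cons_val_one, Matrix.cons_val] at n0 n1 n2
  have ex : ∀ z, q z (t.pos z) - q z (y.pos z) =
      (k0 - l0) + (k1 - l1) * z + (k2 - l2) * z ^ 2 := by
    intro z; rw [hk, hl]; ring
  rw [ex] at n0 n1 n2
  beta_reduce
  rw [ex]
  have := quad_bound hρ h0 h1 n0 n1 n2
  have := W.a_ge
  linarith

/-- the set of codes -/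
def cset (n : ℕ) : Finset (((Fin 3 → ℤ) × (Fin 3 → ℤ)) × (Fin 3 → ℤ)) :=
  ((Fintype.piFinset fun _ : Fin 3 => Icc (-(n:ℤ)) n) ×ˢ
      (Fintype.piFinset fun _ : Fin 3 => Icc (-(n:ℤ)) n)) ×ˢ
      (Fintype.piFinset fun _ : Fin 3 => Icc (-(n:ℤ)) n)

theorem cset_card (n : ℕ) : (cset n).card = (2 * n + 1) ^ 9 := by
  unfold cset
  rw [card_product, code_card, Fintype.card_piFinset]
  have : (Icc (-(n:ℤ)) n).card = 2 * n + 1 := by rw [Int.card_Icc]; omega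
  simp only [this, prod_const, card_univ, Fintype.card_fin]
  ring

theorem fcode_mem (S : ShC e c w q a z0 ρ r0) (hr : 0 < r0) (hρ : 0 < ρ) {n : ℕ} (hn : 0 < n)
    {t : Ln4} (ht : InSheet t e c w q a z0 ρ) : fcode n e c w q a z0 ρ t ∈ cset n := by
  have hnp : (0:ℝ) < n := by exact_mod_cast hn
  obtain ⟨qa, q0, q2, q1⟩ := S.pos hr
  have hw : ∀ i, 0 < w i := shC_wpos S hr
  unfold cset
  rw [mem_product]
  refine ⟨code_mem hρ.le hn hw ht, ?_⟩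
  rw [Fintype.mem_piFinset]
  intro k
  have hk : z0 ≤ node z0 ρ k ∧ node z0 ρ k ≤ z0 + ρ := by
    fin_cases k
    · show z0 ≤ z0 ∧ z0 ≤ z0 + ρ
      constructor <;> linarith
    · show z0 ≤ z0 + ρ / 2 ∧ z0 + ρ / 2 ≤ z0 + ρ
      constructor <;> linarith
    · show z0 ≤ z0 + ρ ∧ z0 + ρ ≤ z0 + ρ
      constructor <;> linarith
  have h1 := (ht _ hk.1 hk.2).2
  show ⌊q (node z0 ρ k) (t.pos (node z0 ρ k)) / (a / n)⌋ ∈ _
  set x := q (node z0 ρ k) (t.pos (node z0 ρ k)) with hx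
  have h2 : |x / (a / n)| ≤ n := by
    rw [abs_div, abs_of_pos (by positivity : 0 < a / n), div_le_iff₀ (by positivity)]
    calc |x| ≤ a := h1
      _ = n * (a / n) := by field_simp
  rw [abs_le] at h2
  rw [mem_Icc]
  constructor
  · rw [Int.le_floor]
    push_cast
    exact h2.1
  · have h3 : (⌊x / (a / n)⌋ : ℝ) ≤ n := (Int.floor_le _).trans h2.2
    exact_mod_cast h3

open Classical in
/-- popular class -/
theorem rnd_pop {ι : Type} (S : ShC e c w q a z0 ρ r0) (hr : 0 < r0) (hρ : 0 < ρ)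
    (W : Wd w w' a a' r0) (L : ι → Ln4) (T : Finset ι)
    (hT : ∀ t ∈ T, InSheet (L t) e c w q a z0 ρ) :
    ∃ y : Ln4, (T.card : ℝ) ≤ 17 ^ 9 * ((T.filter fun t => InSheet (L t) e
      (ctl e c w w' z0 ρ y) w' (fun z x => q z x - q z (y.pos z)) a' z0 ρ).card : ℝ) := by
  classical
  rcases T.eq_empty_or_nonempty with h0 | hne
  · refine ⟨c, ?_⟩
    rw [h0, card_empty, Nat.cast_zero]
    positivity
  obtain ⟨n, hn⟩ : ∃ n : ℕ, n = 8 := ⟨8, rfl⟩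
  have hn0 : 0 < n := by rw [hn]; norm_num
  have hPc : (((cset n).card : ℕ) : ℝ) = 17 ^ 9 := by
    rw [cset_card, hn]; norm_num
  have hmap : ∀ t ∈ T, fcode n e c w q a z0 ρ (L t) ∈ cset n :=
    fun t ht => fcode_mem S hr hρ hn0 (hT t ht)
  have hPne : (cset n).Nonempty := by
    obtain ⟨t, ht⟩ := hne
    exact ⟨_, hmap t ht⟩
  obtain ⟨b, hb, hb2⟩ := Finset.exists_le_card_fiber_of_nsmul_le_card_of_maps_to (s := T)
    (t := cset n) (f := fun t => fcode n e c w q a z0 ρ (L t)) (b := (T.card : ℝ) / 17 ^ 9)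
    hmap hPne (by
      rw [nsmul_eq_mul, hPc, mul_div_cancel₀]
      norm_num)
  rw [div_le_iff₀ (by positivity)] at hb2
  have hpos : (0:ℝ) < T.card := by exact_mod_cast card_pos.2 hne
  have hfne : (T.filter fun t => fcode n e c w q a z0 ρ (L t) = b).Nonempty := by
    rw [← card_pos]
    by_contra hn
    have h0 : (T.filter fun t => fcode n e c w q a z0 ρ (L t) = b).card = 0 := by omega
    rw [h0, Nat.cast_zero, zero_mul] at hb2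
    linarith
  obtain ⟨y, hy⟩ := hfne
  rw [mem_filter] at hy
  refine ⟨L y, hb2.trans ?_⟩
  rw [mul_comm]
  refine mul_le_mul_of_nonneg_left (Nat.cast_le.2 (card_le_card fun t ht => ?_)) (by positivity)
  rw [mem_filter] at ht ⊢
  exact ⟨ht.1, rnd_mem S hr hρ W hn (hT y hy.1) (hT t ht.1) (ht.2.trans hy.2.symm)⟩

/-- dyadic rounding -/
theorem exists_dy {r x : ℝ} (hr : 0 < r) (h : r ≤ x) :
    ∃ n : ℕ, r * 2 ^ n ≤ x ∧ x < r * 2 ^ (n + 1) := by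
  obtain ⟨n, h1, h2⟩ := exists_nat_pow_near (x := x / r) (y := (2:ℝ))
    (by rw [le_div_iff₀ hr]; linarith) (by norm_num)
  rw [le_div_iff₀ hr] at h1
  rw [div_lt_iff₀ hr] at h2
  exact ⟨n, by linarith, by linarith⟩

theorem dy_le {r : ℝ} (hr : 0 < r) {i j : ℕ} (h : r * 2 ^ i < r * 2 ^ (j + 1)) :
    r * 2 ^ i ≤ r * 2 ^ j := by
  have h1 := lt_of_mul_lt_mul_left h hr.le
  have h2 : i < j + 1 := (pow_lt_pow_iff_right₀ (by norm_num : (1:ℝ) < 2)).1 h1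
  exact mul_le_mul_of_nonneg_left (pow_le_pow_right₀ (by norm_num) (by omega)) hr.le

theorem dy_eq {r : ℝ} (hr : 0 < r) {l n : ℕ} (h1 : r * 2 ^ n ≤ r * 2 ^ l)
    (h2 : r * 2 ^ l < r * 2 ^ (n + 1)) : n = l := by
  have g1 := le_of_mul_le_mul_left h1 hr
  have g2 := lt_of_mul_lt_mul_left h2 hr.le
  have k1 : n ≤ l := (pow_le_pow_iff_right₀ (by norm_num : (1:ℝ) < 2)).1 g1
  have k2 : l < n + 1 := (pow_lt_pow_iff_right₀ (by norm_num : (1:ℝ) < 2)).1 g2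
  omega

/-- the dyadic widths of a sheet -/
theorem exists_wd (S : ShC e c w q a z0 ρ r0) (hr : 0 < r0) :
    ∃ (i l j k : ℕ), Wd w ![r0 * 2 ^ l, r0 * 2 ^ k, r0 * 2 ^ j] a (r0 * 2 ^ i) r0 ∧
      (w 0 = w 2 → l = j) := by
  obtain ⟨qa, q0, q2, q1⟩ := S.pos hr
  obtain ⟨i, hi1, hi2⟩ := exists_dy hr S.r0_le
  obtain ⟨l, hl1, hl2⟩ := exists_dy hr (S.r0_le.trans S.w0_ge)
  have hl0 : 0 < r0 * 2 ^ l := by positivity
  have hr0l : r0 ≤ r0 * 2 ^ l := le_mul_of_one_le_right hr.le (one_le_pow₀ (by norm_num))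
  have hx2 : r0 * 2 ^ l ≤ w 2 * (r0 * 2 ^ l) / w 0 := by
    rw [le_div_iff₀ q0]
    calc r0 * 2 ^ l * w 0 ≤ r0 * 2 ^ l * w 2 := mul_le_mul_of_nonneg_left S.w0_le hl0.le
      _ = _ := by ring
  obtain ⟨j, hj1, hj2⟩ := exists_dy hr (hr0l.trans hx2)
  have hj0 : 0 < r0 * 2 ^ j := by positivity
  have hx : r0 * 2 ^ j ≤ w 1 * (r0 * 2 ^ j) / w 2 := by
    rw [le_div_iff₀ q2]
    calc r0 * 2 ^ j * w 2 ≤ r0 * 2 ^ j * w 1 := mul_le_mul_of_nonneg_left S.w_le hj0.le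
      _ = _ := by ring
  have hr0j : r0 ≤ r0 * 2 ^ j := le_mul_of_one_le_right hr.le (one_le_pow₀ (by norm_num))
  obtain ⟨k, hk1, hk2⟩ := exists_dy hr (hr0j.trans hx)
  refine ⟨i, l, j, k, ?_, ?_⟩
  swap
  · intro h02
    rw [h02, mul_div_cancel_left₀ _ q2.ne'] at hj1 hj2
    exact (dy_eq hr hj1 hj2).symm
  have e0 : (![r0 * 2 ^ l, r0 * 2 ^ k, r0 * 2 ^ j] : V3) 0 = r0 * 2 ^ l := rfl
  have e1 : (![r0 * 2 ^ l, r0 * 2 ^ k, r0 * 2 ^ j] : V3) 1 = r0 * 2 ^ k := rfl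
  have e2 : (![r0 * 2 ^ l, r0 * 2 ^ k, r0 * 2 ^ j] : V3) 2 = r0 * 2 ^ j := rfl
  -- cleared inequalities
  have cj1 : r0 * 2 ^ j * w 0 ≤ w 2 * (r0 * 2 ^ l) := (le_div_iff₀ q0).1 hj1
  have cj2 : w 2 * (r0 * 2 ^ l) < r0 * 2 ^ (j + 1) * w 0 := (div_lt_iff₀ q0).1 hj2
  have ck1 : r0 * 2 ^ k * w 2 ≤ w 1 * (r0 * 2 ^ j) := (le_div_iff₀ q2).1 hk1
  have ck2 : w 1 * (r0 * 2 ^ j) < r0 * 2 ^ (k + 1) * w 2 := (div_lt_iff₀ q2).1 hk2
  have jw : r0 * 2 ^ j ≤ w 2 := by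
    refine hj1.trans ?_
    rw [div_le_iff₀ q0]
    exact mul_le_mul_of_nonneg_left hl1 q2.le
  have w2j : w 2 ≤ 4 * (r0 * 2 ^ j) := by
    rw [pow_succ] at cj2 hl2
    have h3 : w 2 * (r0 * 2 ^ l) ≤ (4 * (r0 * 2 ^ j)) * (r0 * 2 ^ l) := by
      calc w 2 * (r0 * 2 ^ l) ≤ r0 * (2 ^ j * 2) * w 0 := cj2.le
        _ ≤ r0 * (2 ^ j * 2) * (r0 * (2 ^ l * 2)) :=
            mul_le_mul_of_nonneg_left hl2.le (by positivity)
        _ = _ := by ring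
    exact le_of_mul_le_mul_right h3 hl0
  refine ⟨hi1, ?_, ?_, ?_, ?_, ?_, ?_, ?_, ?_, ?_, ?_, ?_, ?_, ?_⟩
  · rw [pow_succ] at hi2; linarith
  · rw [e0]; exact hl1
  · rw [e0]; rw [pow_succ] at hl2; linarith
  · rw [e2]; exact jw
  · rw [e2]; exact w2j
  · rw [e1]
    refine hk1.trans ?_
    rw [div_le_iff₀ q2]
    exact mul_le_mul_of_nonneg_left jw q1.le
  · rw [e1]
    rw [pow_succ] at ck2
    have h3 : w 1 * (r0 * 2 ^ j) ≤ (8 * (r0 * 2 ^ k)) * (r0 * 2 ^ j) := by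
      calc w 1 * (r0 * 2 ^ j) ≤ r0 * (2 ^ k * 2) * w 2 := ck2.le
        _ ≤ r0 * (2 ^ k * 2) * (4 * (r0 * 2 ^ j)) :=
            mul_le_mul_of_nonneg_left w2j (by positivity)
        _ = _ := by ring
    exact le_of_mul_le_mul_right h3 hj0
  · rw [e0, e1]
    have h3 : (w 0 * (r0 * 2 ^ k)) * w 2 ≤ (r0 * 2 ^ l * w 1) * w 2 := by
      calc (w 0 * (r0 * 2 ^ k)) * w 2 = w 0 * (r0 * 2 ^ k * w 2) := by ring
        _ ≤ w 0 * (w 1 * (r0 * 2 ^ j)) := mul_le_mul_of_nonneg_left ck1 q0.le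
        _ = w 1 * (r0 * 2 ^ j * w 0) := by ring
        _ ≤ w 1 * (w 2 * (r0 * 2 ^ l)) := mul_le_mul_of_nonneg_left cj1 q1.le
        _ = _ := by ring
    exact le_of_mul_le_mul_right h3 q2
  · rw [e0, e2]; linarith
  · exact le_mul_of_one_le_right hr.le (one_le_pow₀ (by norm_num))
  · rw [e0]
    exact dy_le hr (lt_of_le_of_lt (hi1.trans S.w0_ge) hl2)
  · rw [e0, e2]
    exact dy_le hr (lt_of_le_of_lt hx2 hj2)
  · rw [e1, e2]
    exact dy_le hr (lt_of_le_of_lt hx hk2)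

open Classical in
/-- **rounding of a sheet** -/
theorem rnd_C {ι : Type} (S : ShC e c w q a z0 ρ r0) (hr : 0 < r0) (hρ : 0 < ρ) (L : ι → Ln4)
    (T : Finset ι) (hT : ∀ t ∈ T, InSheet (L t) e c w q a z0 ρ) :
    ∃ (c' : Ln4) (w' : V3) (q' : ℝ → V3 → ℝ) (a' : ℝ) (i j k : ℕ),
      ShC e c' w' q' a' z0 ρ r0 ∧ a' = r0 * 2 ^ i ∧ w' 2 = r0 * 2 ^ j ∧ w' 1 = r0 * 2 ^ k ∧
      (a' ≤ a ∧ a ≤ 2 * a') ∧ (w' 2 ≤ w 2 ∧ w 2 ≤ 4 * w' 2) ∧ (w' 1 ≤ w 1 ∧ w 1 ≤ 8 * w' 1) ∧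
      (w' 0 ≤ w 0 ∧ w 0 ≤ 2 * w' 0) ∧ (w 0 = w 2 → w' 0 = w' 2) ∧
      (T.card : ℝ) ≤ 17 ^ 9 *
        ((T.filter fun t => InSheet (L t) e c' w' q' a' z0 ρ).card : ℝ) := by
  obtain ⟨i, l, j, k, W, h02⟩ := exists_wd S hr
  obtain ⟨y, hy⟩ := rnd_pop S hr hρ W L T hT
  refine ⟨_, _, _, _, i, j, k, rnd_sheet S hr hρ W y, rfl, rfl, rfl, ⟨W.a_le, W.a_ge⟩,
    ⟨W.w2_le, W.w2_ge⟩, ⟨W.w1_le, W.w1_ge⟩, ⟨W.w0_le, W.w0_ge⟩, ?_, hy⟩
  intro h
  rw [h02 h]; rfl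

/-! ### objects -/

/-- dyadic shapes at resolution `r` -/
def Dy (r : ℝ) (K : Plk4) : Prop :=
  ∃ i j k : ℕ, K.a = r * 2 ^ i ∧ K.w 2 = r * 2 ^ j ∧ K.w 1 = r * 2 ^ k

/-- `K'` is comparable to `K` -/
structure Comp (K K' : Plk4) : Prop where
  ja : K'.j = K.j
  a_le : K'.a ≤ K.a
  a_ge : K.a ≤ 8 * K'.a
  w2_le : K'.w 2 ≤ K.w 2
  w2_ge : K.w 2 ≤ 8 * K'.w 2
  w1_le : K'.w 1 ≤ K.w 1
  w1_ge : K.w 1 ≤ 8 * K'.w 1

open Classical in
/-- **rounding for objects**, class `LegC` -/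
theorem rnd_cfg {m : ℕ} {r Λ : ℝ} {K : Plk4} (hr : 0 < r) (hK : LegC m r Λ K)
    (O : Finset (Ln4 × ℤ)) (hO : ∀ o ∈ O, In4 m K o) :
    ∃ K' : Plk4, LegC m r Λ K' ∧ Dy r K' ∧ Comp K K' ∧
      (O.card : ℝ) ≤ 17 ^ 9 * ((O.filter (In4 m K')).card : ℝ) := by
  obtain ⟨c', w', q', a', i, j, k, hS, ha, h2, h1, ba, b2, b1, -, -, hc⟩ :=
    rnd_C hK.1 hr (by positivity) (fun o : Ln4 × ℤ => o.1) O (fun o ho => (hO o ho).2)
  have pa : 0 < a' := (hS.pos hr).1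
  have p2 : 0 < w' 2 := (hS.pos hr).2.2.1
  refine ⟨⟨K.j, K.e, c', w', q', a'⟩, ⟨hS, b1.1.trans hK.2⟩, ⟨i, j, k, ha, h2, h1⟩,
    ⟨rfl, ba.1, by show K.a ≤ 8 * a'; linarith [ba.2], b2.1,
      by show K.w 2 ≤ 8 * w' 2; linarith [b2.2], b1.1, b1.2⟩, hc.trans ?_⟩
  refine mul_le_mul_of_nonneg_left (Nat.cast_le.2 (card_le_card fun o ho => ?_)) (by positivity)
  rw [mem_filter] at ho ⊢
  exact ⟨ho.1, (hO o ho.1).1, ho.2⟩

/-- comparison of the sizes of comparable sheets -/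
theorem cap5_comp {q : Fin 3 → ℝ} {m : ℕ} {K K' : Plk4} (h : Comp K K') (ha : 0 < K.a)
    (h2 : 0 < K.w 2) (h1 : 0 < K.w 1) :
    cap5 q m K' ≤ (2:ℝ) ^ (3 * qs q) * cap5 q m K ∧
      cap5 q m K ≤ (2:ℝ) ^ (9 + 3 * qs q) * cap5 q m K' := by
  have e8 : (2:ℝ) ^ (3:ℝ) = 8 := by norm_num
  have pa : 0 < K'.a := by have := h.a_ge; linarith
  have p2 : 0 < K'.w 2 := by have := h.w2_ge; linarith
  have p1 : 0 < K'.w 1 := by have := h.w1_ge; linarith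
  have g1 := h.a_le
  have g2 := h.w2_le
  have g3 := h.w1_le
  have g4 := h.a_ge
  have g5 := h.w2_ge
  have g6 := h.w1_ge
  have r1 := rew_le q m 0 (B := 3) ha pa h2 p2 h1 p1 (by rw [e8]; linarith) (by rw [e8]; linarith)
    (by rw [e8]; linarith) (by rw [e8]; linarith) (by rw [e8]; linarith) (by rw [e8]; linarith)
  have r2 := rew_le q m 0 (B := 3) pa ha p2 h2 p1 h1 (by rw [e8]; linarith) (by rw [e8]; linarith)
    (by rw [e8]; linarith) (by rw [e8]; linarith) (by rw [e8]; linarith) (by rw [e8]; linarith)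
  have e3 : qs q * ((3:ℝ) + ((0:ℕ) : ℝ)) = 3 * qs q := by push_cast; ring
  rw [e3, add_zero] at r1 r2
  have hr0 : 0 ≤ rew q m K.a (K.w 2) (K.w 1) := by unfold rew; positivity
  have hr1 : 0 ≤ rew q m K'.a (K'.w 2) (K'.w 1) := by unfold rew; positivity
  constructor
  · rw [cap5_eq, cap5_eq]
    calc K'.a * K'.w 2 * K'.w 1 * rew q m K'.a (K'.w 2) (K'.w 1)
        ≤ K.a * K.w 2 * K.w 1 * ((2:ℝ) ^ (3 * qs q) * rew q m K.a (K.w 2) (K.w 1)) := by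
          gcongr
      _ = _ := by ring
  · rw [cap5_eq, cap5_eq]
    calc K.a * K.w 2 * K.w 1 * rew q m K.a (K.w 2) (K.w 1)
        ≤ (8 * K'.a) * (8 * K'.w 2) * (8 * K'.w 1) *
          ((2:ℝ) ^ (3 * qs q) * rew q m K'.a (K'.w 2) (K'.w 1)) := by
          gcongr
      _ = ((2:ℝ) ^ (9:ℝ) * (2:ℝ) ^ (3 * qs q)) *
          (K'.a * K'.w 2 * K'.w 1 * rew q m K'.a (K'.w 2) (K'.w 1)) := by
          have : (2:ℝ) ^ (9:ℝ) = 512 := by norm_num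
          rw [this]; ring
      _ = _ := by rw [← Real.rpow_add (by norm_num)]

end

end Crest.Agent.R136.Rnd289
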