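import Crest.Agent.R136.Sa1_705

/-!
# R136 (S0187), Step A (705): one slice of the graph of a quadratic function (helper214)

`Q2` = quadratic functions in `(y, t)`; `Q2.D F` = Hamiltonian derivation of `F`, which satisfies
`D⁵ = 5 ν D³ - 4 ν² D`; along a graph `y = φ t` inside a level set of `F` all functions
`(D^k p)(φ t, t)` form a chain `Sys`.
-/

set_option autoImplicit false

namespace Crest.Agent.R136.Row214

open Set Filter Topology
open Crest.Agent.R136.Sa705 (Sys Alg)

/-- quadratic functions in `(y, t)` -/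
@[ext] structure Q2 where
  k : ℝ
  h : ℝ
  g : ℝ
  e : ℝ
  f : ℝ
  c : ℝ

namespace Q2

/-- value -/
def ev (p : Q2) (y t : ℝ) : ℝ := p.k * y ^ 2 + p.h * (y * t) + p.g * t ^ 2 + p.e * y + p.f * t + p.c

/-- derivative in `y` -/
def dy (p : Q2) (y t : ℝ) : ℝ := 2 * p.k * y + p.h * t + p.e

/-- derivative in `t` -/
def dt (p : Q2) (y t : ℝ) : ℝ := p.h * y + 2 * p.g * t + p.f

/-- Hamiltonian derivation -/
def D (F p : Q2) : Q2 where
  k := 2 * F.k * p.h - 2 * F.h * p.k
  h := 4 * F.k * p.g - 4 * F.g * p.k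
  g := 2 * F.h * p.g - 2 * F.g * p.h
  e := 2 * F.k * p.f + F.e * p.h - F.h * p.e - 2 * F.f * p.k
  f := F.h * p.f + 2 * F.e * p.g - 2 * F.g * p.e - F.f * p.h
  c := F.e * p.f - F.f * p.e

theorem D_ev (F p : Q2) (y t : ℝ) :
    (D F p).ev y t = F.dy y t * p.dt y t - F.dt y t * p.dy y t := by
  simp only [ev, D, dy, dt]; ring

/-- discriminant -/
def nu (F : Q2) : ℝ := F.h ^ 2 - 4 * F.k * F.g

/-- linear combination -/
def comb (a b : ℝ) (p q : Q2) : Q2 where
  k := a * p.k + b * q.k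
  h := a * p.h + b * q.h
  g := a * p.g + b * q.g
  e := a * p.e + b * q.e
  f := a * p.f + b * q.f
  c := a * p.c + b * q.c

theorem D_five (F p : Q2) : D F (D F (D F (D F (D F p)))) =
    comb (5 * F.nu) (-(4 * F.nu ^ 2)) (D F (D F (D F p))) (D F p) := by
  ext <;> simp only [D, comb, nu] <;> ring

theorem top (F p : Q2) {B y t : ℝ} (hν : |F.nu| ≤ B) :
    |(D F (D F (D F (D F (D F p))))).ev y t| ≤
      5 * B * |(D F (D F (D F p))).ev y t| + 4 * B ^ 2 * |(D F p).ev y t| := by
  rw [D_five]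
  have e : (comb (5 * F.nu) (-(4 * F.nu ^ 2)) (D F (D F (D F p))) (D F p)).ev y t =
      5 * F.nu * (D F (D F (D F p))).ev y t - 4 * F.nu ^ 2 * (D F p).ev y t := by
    generalize D F (D F (D F p)) = q1
    generalize D F p = q2
    simp only [comb, ev]; ring
  rw [e]
  refine (abs_sub _ _).trans ?_
  have hB : 0 ≤ B := (abs_nonneg _).trans hν
  have h1 : |5 * F.nu * (D F (D F (D F p))).ev y t| ≤ 5 * B * |(D F (D F (D F p))).ev y t| := by
    rw [abs_mul]
    refine mul_le_mul_of_nonneg_right ?_ (abs_nonneg _)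
    rw [abs_mul, abs_of_pos (by norm_num : (0 : ℝ) < 5)]
    linarith
  have h2 : |4 * F.nu ^ 2 * (D F p).ev y t| ≤ 4 * B ^ 2 * |(D F p).ev y t| := by
    rw [abs_mul]
    refine mul_le_mul_of_nonneg_right ?_ (abs_nonneg _)
    rw [abs_mul, abs_of_pos (by norm_num : (0 : ℝ) < 4), abs_pow]
    have := pow_le_pow_left₀ (abs_nonneg _) hν 2
    linarith
  exact add_le_add h1 h2

end Q2

/-- the graph data of a slice -/
structure Gr (F : Q2) (s : ℝ) (φ : ℝ → ℝ) (J : Set ℝ) : Prop where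
  small : ∀ t ∈ J, |φ t| ≤ 1 / 4
  eq : ∀ t ∈ J, F.ev (φ t) t = s
  st : ∀ t ∈ J, ∀ y, |y| ≤ 1 / 2 → 1 / 2 ≤ F.dy y t ∧ F.dy y t ≤ 2

variable {F : Q2} {s : ℝ} {φ : ℝ → ℝ} {J : Set ℝ}

/-- difference quotient of the graph -/
theorem Gr.quot (H : Gr F s φ J) {t t' : ℝ} (ht : t ∈ J) (ht' : t' ∈ J) :
    φ t' = φ t + (t' - t) *
      (-(F.h * φ t + F.g * (t' + t) + F.f) / F.dy ((φ t' + φ t) / 2) t') := by
  have h1 := H.eq t ht
  have h2 := H.eq t' ht'
  have h3 : |(φ t' + φ t) / 2| ≤ 1 / 2 := by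
    have a := abs_le.1 (H.small t ht)
    have b := abs_le.1 (H.small t' ht')
    rw [abs_le]; constructor <;> linarith [a.1, a.2, b.1, b.2]
  have h4 : 0 < F.dy ((φ t' + φ t) / 2) t' := by linarith [(H.st t' ht' _ h3).1]
  have h5 : (φ t' - φ t) * F.dy ((φ t' + φ t) / 2) t' +
      (t' - t) * (F.h * φ t + F.g * (t' + t) + F.f) = 0 := by
    have : (φ t' - φ t) * F.dy ((φ t' + φ t) / 2) t' +
      (t' - t) * (F.h * φ t + F.g * (t' + t) + F.f) = F.ev (φ t') t' - F.ev (φ t) t := by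
      simp only [Q2.ev, Q2.dy]; ring
    rw [this, h1, h2, sub_self]
  have h6 : (φ t' - φ t) = -((t' - t) * (F.h * φ t + F.g * (t' + t) + F.f)) /
      F.dy ((φ t' + φ t) / 2) t' := by
    rw [eq_div_iff h4.ne']; linarith
  have h7 : -((t' - t) * (F.h * φ t + F.g * (t' + t) + F.f)) / F.dy ((φ t' + φ t) / 2) t' =
      (t' - t) * (-(F.h * φ t + F.g * (t' + t) + F.f) / F.dy ((φ t' + φ t) / 2) t') := by ring
  rw [h7] at h6
  linarith

/-- the graph is continuous -/
theorem Gr.cont (H : Gr F s φ J) {t : ℝ} (ht : t ∈ J) : ContinuousWithinAt φ J t := by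
  rw [ContinuousWithinAt, tendsto_iff_norm_sub_tendsto_zero]
  have hlim : Tendsto (fun t' : ℝ => 2 * |t' - t| * |F.h * φ t + F.g * (t' + t) + F.f|) (𝓝[J] t)
      (𝓝 0) := by
    have hc : Continuous (fun t' : ℝ => 2 * |t' - t| * |F.h * φ t + F.g * (t' + t) + F.f|) := by
      fun_prop
    have h0 := hc.tendsto t
    simp only [sub_self, abs_zero, mul_zero, zero_mul] at h0
    exact h0.mono_left nhdsWithin_le_nhds
  refine squeeze_zero' (Eventually.of_forall fun t' => norm_nonneg _) ?_ hlim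
  filter_upwards [self_mem_nhdsWithin] with t' ht'
  have h1 := H.quot ht ht'
  have h3 : |(φ t' + φ t) / 2| ≤ 1 / 2 := by
    have a := abs_le.1 (H.small t ht)
    have b := abs_le.1 (H.small t' ht')
    rw [abs_le]; constructor <;> linarith [a.1, a.2, b.1, b.2]
  have h4 := (H.st t' ht' _ h3).1
  have h5 : φ t' - φ t = (t' - t) *
      (-(F.h * φ t + F.g * (t' + t) + F.f) / F.dy ((φ t' + φ t) / 2) t') := by linarith
  rw [Real.norm_eq_abs, h5, abs_mul, abs_div, abs_neg,
    abs_of_pos (by linarith : 0 < F.dy ((φ t' + φ t) / 2) t')]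
  have h6 : |F.h * φ t + F.g * (t' + t) + F.f| / F.dy ((φ t' + φ t) / 2) t' ≤
      2 * |F.h * φ t + F.g * (t' + t) + F.f| := by
    rw [div_le_iff₀ (by linarith)]
    nlinarith [abs_nonneg (F.h * φ t + F.g * (t' + t) + F.f)]
  calc |t' - t| * (|F.h * φ t + F.g * (t' + t) + F.f| / F.dy ((φ t' + φ t) / 2) t') ≤
      |t' - t| * (2 * |F.h * φ t + F.g * (t' + t) + F.f|) :=
        mul_le_mul_of_nonneg_left h6 (abs_nonneg _)
    _ = _ := by ring

/-- derivative of the graph -/
theorem Gr.deriv (H : Gr F s φ J) {t : ℝ} (ht : t ∈ J) :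
    HasDerivWithinAt φ (-F.dt (φ t) t / F.dy (φ t) t) J t := by
  rw [hasDerivWithinAt_iff_tendsto_slope]
  have hφ := H.cont ht
  have hdy : 0 < F.dy (φ t) t := by
    have := (H.st t ht (φ t) ((H.small t ht).trans (by norm_num))).1
    linarith
  have hw : ContinuousWithinAt (fun t' => -(F.h * φ t + F.g * (t' + t) + F.f) /
      F.dy ((φ t' + φ t) / 2) t') J t := by
    apply ContinuousWithinAt.div
    · exact (by fun_prop : Continuous fun t' : ℝ => -(F.h * φ t + F.g * (t' + t) + F.f))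
        |>.continuousWithinAt
    · unfold Q2.dy
      have h1 : ContinuousWithinAt (fun t' => (φ t' + φ t) / 2) J t := by
        exact (hφ.add continuousWithinAt_const).div_const 2
      exact (((continuousWithinAt_const).mul h1).add
        ((continuousWithinAt_const).mul continuousWithinAt_id)).add continuousWithinAt_const
    · have : (φ t + φ t) / 2 = φ t := by ring
      rw [this]; exact hdy.ne'
  have hlim : Tendsto (fun t' => -(F.h * φ t + F.g * (t' + t) + F.f) /
      F.dy ((φ t' + φ t) / 2) t') (𝓝[J \ {t}] t) (𝓝 (-F.dt (φ t) t / F.dy (φ t) t)) := by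
    have h1 := hw.tendsto
    have e1 : (φ t + φ t) / 2 = φ t := by ring
    have e2 : F.h * φ t + F.g * (t + t) + F.f = F.dt (φ t) t := by simp only [Q2.dt]; ring
    rw [e1, e2] at h1
    exact h1.mono_left (nhdsWithin_mono _ sdiff_subset)
  refine hlim.congr' ?_
  filter_upwards [self_mem_nhdsWithin] with t' ht'
  have hne : t' - t ≠ 0 := sub_ne_zero.2 ht'.2
  have h5 := H.quot ht ht'.1
  rw [slope_def_field, eq_div_iff hne]
  linarith

/-- derivative of a quadratic function along the graph -/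
theorem Gr.deriv_ev (H : Gr F s φ J) (p : Q2) {t : ℝ} (ht : t ∈ J) :
    HasDerivWithinAt (fun t => p.ev (φ t) t) ((Q2.D F p).ev (φ t) t / F.dy (φ t) t) J t := by
  have hφ := H.deriv ht
  have hdy : 0 < F.dy (φ t) t := by
    have := (H.st t ht (φ t) ((H.small t ht).trans (by norm_num))).1
    linarith
  have hid : HasDerivWithinAt (fun t : ℝ => t) 1 J t := hasDerivWithinAt_id t J
  have h1 := (((((hφ.pow 2).const_mul p.k).add ((hφ.mul hid).const_mul p.h)).add
    ((hid.pow 2).const_mul p.g)).add (hφ.const_mul p.e)).add (hid.const_mul p.f)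
  have h2 := h1.add_const p.c
  have h3 : HasDerivWithinAt (fun t => p.ev (φ t) t)
      (p.dy (φ t) t * (-F.dt (φ t) t / F.dy (φ t) t) + p.dt (φ t) t) J t := by
    refine (h2.congr_deriv ?_).congr (fun x _ => ?_) ?_
    · simp only [Q2.dy, Q2.dt]; push_cast; ring
    · simp only [Q2.ev, Pi.add_apply, Pi.mul_apply, Pi.pow_apply]
    · simp only [Q2.ev, Pi.add_apply, Pi.mul_apply, Pi.pow_apply]
  refine h3.congr_deriv ?_
  rw [Q2.D_ev]
  field_simp
  ring

/-- **the chain of a slice** -/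
theorem Gr.sys (H : Gr F s φ J) (hν : |F.nu| ≤ 5) (p : Q2) :
    Sys (fun k t => ((Q2.D F)^[k] p).ev (φ t) t) J where
  der := by
    intro k _ t ht
    obtain ⟨h1, h2⟩ := H.st t ht (φ t) ((H.small t ht).trans (by norm_num))
    refine ⟨F.dy (φ t) t, h1, h2, ?_⟩
    have := H.deriv_ev ((Q2.D F)^[k] p) ht
    rw [Function.iterate_succ_apply']
    exact this
  top := by
    intro t _
    have := Q2.top F p (y := φ t) (t := t) hν
    simp only [Function.iterate_succ, Function.comp_apply, Function.iterate_zero, id_eq]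
    refine this.trans (le_of_eq ?_)
    norm_num

end Crest.Agent.R136.Row214
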