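import Crest.Agent.R136.Row1_214
import Crest.Agent.R136.Cap1_102

/-!
# R136 (S0187), Step A (705): `core_rows`, the graph of a sheet and its derivations (helper214)
-/

set_option autoImplicit false

namespace Crest.Agent.R136.Row214

open Set Filter Topology
open Crest.Agent.R136.Sa705 (Sys Alg)
open Crest.Agent.R136.Sh605 (V3 Ln4 IsQ)
open Crest.Agent.R136.Tl102 (QF Fq bz NrmC)

/-- quadratic functions in `(y, u, v)` -/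
@[ext] structure Q3 where
  yy : ℝ
  yu : ℝ
  yv : ℝ
  uu : ℝ
  uv : ℝ
  vv : ℝ
  ly : ℝ
  lu : ℝ
  lv : ℝ
  c : ℝ

namespace Q3

/-- value -/
def ev (p : Q3) (y u v : ℝ) : ℝ :=
  p.yy * y ^ 2 + p.yu * (y * u) + p.yv * (y * v) + p.uu * u ^ 2 + p.uv * (u * v) + p.vv * v ^ 2 +
    p.ly * y + p.lu * u + p.lv * v + p.c

/-- exchange of `u` and `v` -/
def sw (p : Q3) : Q3 := ⟨p.yy, p.yv, p.yu, p.vv, p.uv, p.uu, p.ly, p.lv, p.lu, p.c⟩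

theorem sw_sw (p : Q3) : p.sw.sw = p := rfl

theorem sw_ev (p : Q3) (y u v : ℝ) : p.sw.ev y u v = p.ev y v u := by
  simp only [ev, sw]; ring

/-- slice in `(y, u)` -/
def sl (p : Q3) (v : ℝ) : Q2 :=
  ⟨p.yy, p.yu, p.uu, p.ly + p.yv * v, p.lu + p.uv * v, p.c + p.lv * v + p.vv * v ^ 2⟩

theorem sl_ev (p : Q3) (y u v : ℝ) : (p.sl v).ev y u = p.ev y u v := by
  simp only [ev, sl, Q2.ev]; ring

/-- `F_y ∂_u - F_u ∂_y` -/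
def D1 (F p : Q3) : Q3 where
  yy := 2 * F.yy * p.yu - 2 * F.yu * p.yy
  yu := 4 * F.yy * p.uu - 4 * F.uu * p.yy
  yv := 2 * F.yy * p.uv + F.yv * p.yu - F.yu * p.yv - 2 * F.uv * p.yy
  uu := 2 * F.yu * p.uu - 2 * F.uu * p.yu
  uv := F.yu * p.uv + 2 * F.yv * p.uu - 2 * F.uu * p.yv - F.uv * p.yu
  vv := F.yv * p.uv - F.uv * p.yv
  ly := 2 * F.yy * p.lu + F.ly * p.yu - F.yu * p.ly - 2 * F.lu * p.yy
  lu := F.yu * p.lu + 2 * F.ly * p.uu - 2 * F.uu * p.ly - F.lu * p.yu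
  lv := F.yv * p.lu + F.ly * p.uv - F.uv * p.ly - F.lu * p.yv
  c := F.ly * p.lu - F.lu * p.ly

theorem sl_D1 (F p : Q3) (v : ℝ) : (D1 F p).sl v = Q2.D (F.sl v) (p.sl v) := by
  ext <;> simp only [D1, sl, Q2.D] <;> ring

theorem sl_iter (F p : Q3) (v : ℝ) (k : ℕ) :
    ((D1 F)^[k] p).sl v = (Q2.D (F.sl v))^[k] (p.sl v) := by
  induction k with
  | zero => rfl
  | succ k ih => rw [Function.iterate_succ_apply', Function.iterate_succ_apply', sl_D1, ih]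

/-- `F_y ∂_v - F_v ∂_y` -/
def D2 (F p : Q3) : Q3 := (D1 F.sw p.sw).sw

theorem D2_iter (F p : Q3) (k : ℕ) : (D2 F)^[k] p = ((D1 F.sw)^[k] p.sw).sw := by
  induction k with
  | zero => rfl
  | succ k ih => rw [Function.iterate_succ_apply', Function.iterate_succ_apply', ih, D2, sw_sw]

end Q3

/-- the graph data on a square -/
structure Gr3 (F : Q3) (s : ℝ) (φ : ℝ → ℝ → ℝ) (I : Set ℝ) : Prop where
  small : ∀ x1 ∈ I, ∀ x2 ∈ I, |φ x1 x2| ≤ 1 / 4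
  eq : ∀ x1 ∈ I, ∀ x2 ∈ I, F.ev (φ x1 x2) x1 x2 = s
  st : ∀ x1 ∈ I, ∀ x2 ∈ I, ∀ y, |y| ≤ 1 / 2 →
    1 / 2 ≤ 2 * F.yy * y + F.yu * x1 + F.yv * x2 + F.ly ∧
      2 * F.yy * y + F.yu * x1 + F.yv * x2 + F.ly ≤ 2

theorem Gr3.gr1 {F : Q3} {s : ℝ} {φ : ℝ → ℝ → ℝ} {I : Set ℝ} (H : Gr3 F s φ I) {x2 : ℝ}
    (h2 : x2 ∈ I) : Gr (F.sl x2) s (fun t => φ t x2) I where
  small := fun t ht => H.small t ht x2 h2
  eq := fun t ht => by rw [Q3.sl_ev]; exact H.eq t ht x2 h2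
  st := fun t ht y hy => by
    have := H.st t ht x2 h2 y hy
    simp only [Q2.dy, Q3.sl]
    constructor <;> linarith [this.1, this.2]

theorem Gr3.swap {F : Q3} {s : ℝ} {φ : ℝ → ℝ → ℝ} {I : Set ℝ} (H : Gr3 F s φ I) :
    Gr3 F.sw s (fun x1 x2 => φ x2 x1) I where
  small := fun x1 h1 x2 h2 => H.small x2 h2 x1 h1
  eq := fun x1 h1 x2 h2 => by rw [Q3.sw_ev]; exact H.eq x2 h2 x1 h1
  st := fun x1 h1 x2 h2 y hy => by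
    have := H.st x2 h2 x1 h1 y hy
    simp only [Q3.sw]
    constructor <;> linarith [this.1, this.2]

/-- **rows and columns of a graph** -/
theorem Gr3.alg {F : Q3} {s : ℝ} {φ : ℝ → ℝ → ℝ} {I : Set ℝ} (H : Gr3 F s φ I)
    (hG : |F.yy| ≤ 1 ∧ |F.yu| ≤ 1 ∧ |F.yv| ≤ 1 ∧ |F.uu| ≤ 1 ∧ |F.vv| ≤ 1) :
    Alg (fun p x1 x2 => p.ev (φ x1 x2) x1 x2) (Q3.D1 F) (Q3.D2 F) I := by
  have hν : ∀ a b c : ℝ, |a| ≤ 1 → |b| ≤ 1 → |c| ≤ 1 → |b ^ 2 - 4 * a * c| ≤ 5 := by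
    intro a b c ha hb hc
    have h1 : |b ^ 2| ≤ 1 := by
      rw [abs_pow]; exact pow_le_one₀ (abs_nonneg _) hb
    have h2 : |4 * a * c| ≤ 4 := by
      rw [abs_mul, abs_mul, abs_of_pos (by norm_num : (0 : ℝ) < 4)]
      have := mul_le_mul ha hc (abs_nonneg _) (by norm_num)
      nlinarith
    refine (abs_sub _ _).trans ?_
    linarith
  obtain ⟨g1, g2, g3, g4, g5⟩ := hG
  refine ⟨fun p x2 h2 => ?_, fun p x1 h1 => ?_⟩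
  · have := (H.gr1 h2).sys (hν F.yy F.yu F.uu g1 g2 g4) (p.sl x2)
    have e : (fun (k : ℕ) (t : ℝ) => ((Q3.D1 F)^[k] p).ev (φ t x2) t x2) =
        fun k t => ((Q2.D (F.sl x2))^[k] (p.sl x2)).ev (φ t x2) t := by
      funext k t
      rw [← Q3.sl_iter, Q3.sl_ev]
    rw [e]; exact this
  · have := (H.swap.gr1 h1).sys (hν F.yy F.yv F.vv g1 g3 g5) (p.sw.sl x1)
    have e : (fun (k : ℕ) (t : ℝ) => ((Q3.D2 F)^[k] p).ev (φ x1 t) x1 t) =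
        fun k t => ((Q2.D (F.sw.sl x1))^[k] (p.sw.sl x1)).ev (φ x1 t) t := by
      funext k t
      rw [← Q3.sl_iter, Q3.sl_ev, Q3.D2_iter, Q3.sw_ev]
    rw [e]; exact this

/-- the function of the sheet at one height -/
def FQ (b0 b1 : V3) (G : QF) (ζ : ℝ) : Q3 :=
  ⟨G.yy, G.yu, G.yv, G.uu, G.uv, G.vv, b0 0 + ζ * b1 0, b0 1 + ζ * b1 1, b0 2 + ζ * b1 2, 0⟩

theorem FQ_ev (b0 b1 : V3) (G : QF) (ζ y u v : ℝ) :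
    (FQ b0 b1 G ζ).ev y u v = Fq b0 b1 G ζ ![y, u, v] := by
  simp only [Q3.ev, FQ, Fq, Sh605.dt, bz, QF.ev, Matrix.cons_val]; ring

/-- the slice in the height -/
def FZ (b0 b1 : V3) (G : QF) (u v : ℝ) : Q2 :=
  ⟨G.yy, b1 0, 0, b0 0 + G.yu * u + G.yv * v, b1 1 * u + b1 2 * v,
    b0 1 * u + b0 2 * v + G.uu * u ^ 2 + G.uv * (u * v) + G.vv * v ^ 2⟩

theorem FZ_ev (b0 b1 : V3) (G : QF) (ζ y u v : ℝ) :
    (FZ b0 b1 G u v).ev y ζ = Fq b0 b1 G ζ ![y, u, v] := by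
  simp only [Q2.ev, FZ, Fq, Sh605.dt, bz, QF.ev, Matrix.cons_val]; ring

/-- polynomials of degree `≤ 2` in `(ζ, y, x1, x2)` -/
def P4 (p : ℝ → ℝ → ℝ → ℝ → ℝ) : Prop :=
  ∃ (A : Q3) (c : V3) (c3 c4 : ℝ), ∀ ζ y x1 x2, p ζ y x1 x2 =
    A.ev y x1 x2 + ζ * (c 0 * y + c 1 * x1 + c 2 * x2) + (c3 * ζ + c4 * ζ ^ 2)

/-- the square -/
def Iq : Set ℝ := Icc (-(1 / 32)) (1 / 32)

theorem Iq_abs {x : ℝ} (hx : x ∈ Iq) : |x| ≤ 1 / 32 := abs_le.2 hx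

/-- steepness -/
theorem st_of {b0 b1 : V3} {G : QF} (N : NrmC b0 b1 G) {ζ x1 x2 y : ℝ} (hζ : ζ ∈ Icc (0 : ℝ) 1)
    (h1 : x1 ∈ Iq) (h2 : x2 ∈ Iq) (hy : |y| ≤ 1 / 2) :
    1 / 2 ≤ 2 * G.yy * y + G.yu * x1 + G.yv * x2 + (b0 0 + ζ * b1 0) ∧
      2 * G.yy * y + G.yu * x1 + G.yv * x2 + (b0 0 + ζ * b1 0) ≤ 2 := by
  have h := N.st ζ hζ.1 hζ.2 (2 * y) x1 x2 (by rw [abs_mul, abs_of_pos (by norm_num : (0:ℝ) < 2)]; linarith)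
    ((Iq_abs h1).trans (by norm_num)) ((Iq_abs h2).trans (by norm_num))
  constructor <;> linarith [h.1, h.2]

/-- the values at `y = ± 1/4` -/
theorem bracket {b0 b1 : V3} {G : QF} (N : NrmC b0 b1 G) {s : ℝ} (hs : |s| ≤ 1 / 100)
    {ζ x1 x2 : ℝ} (hζ : ζ ∈ Icc (0 : ℝ) 1) (h1 : x1 ∈ Iq) (h2 : x2 ∈ Iq) :
    Fq b0 b1 G ζ ![-(1 / 4), x1, x2] ≤ s ∧ s ≤ Fq b0 b1 G ζ ![1 / 4, x1, x2] := by
  obtain ⟨m1, m2, m3, m4, m5, m6⟩ := N.G_le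
  have a1 := Iq_abs h1
  have a2 := Iq_abs h2
  have hk : ∀ c d : ℝ, |c| ≤ 1 → |c + d| ≤ 1 → |c + ζ * d| ≤ 1 := by
    intro c d hc hd
    have e : c + ζ * d = (1 - ζ) * c + ζ * (c + d) := by ring
    rw [abs_le] at hc hd
    rw [e, abs_le]
    constructor <;> nlinarith [hc.1, hc.2, hd.1, hd.2, hζ.1, hζ.2]
  have k1 := hk _ _ N.b01 N.b11
  have k2 := hk _ _ N.b02 N.b12
  -- the value at `y = 0`
  have e0 : |(b0 1 + ζ * b1 1) * x1 + (b0 2 + ζ * b1 2) * x2 + G.uu * x1 ^ 2 + G.uv * (x1 * x2) +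
      G.vv * x2 ^ 2| ≤ 1 / 15 := by
    have t1 : |(b0 1 + ζ * b1 1) * x1| ≤ 1 * (1 / 32) := Tl102.mul_abs_le k1 a1
    have t2 : |(b0 2 + ζ * b1 2) * x2| ≤ 1 * (1 / 32) := Tl102.mul_abs_le k2 a2
    have t3 : |G.uu * x1 ^ 2| ≤ 1 * (1 / 32) ^ 2 := Tl102.mul_abs_le m4 (by
      rw [abs_pow]; exact pow_le_pow_left₀ (abs_nonneg _) a1 2)
    have t4 : |G.uv * (x1 * x2)| ≤ 1 * (1 / 32 * (1 / 32)) :=
      Tl102.mul_abs_le m5 (Tl102.mul_abs_le a1 a2)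
    have t5 : |G.vv * x2 ^ 2| ≤ 1 * (1 / 32) ^ 2 := Tl102.mul_abs_le m6 (by
      rw [abs_pow]; exact pow_le_pow_left₀ (abs_nonneg _) a2 2)
    rw [abs_le] at t1 t2 t3 t4 t5 ⊢
    constructor <;> linarith [t1.1, t1.2, t2.1, t2.2, t3.1, t3.2, t4.1, t4.2, t5.1, t5.2]
  have ev : ∀ y, Fq b0 b1 G ζ ![y, x1, x2] = ((b0 1 + ζ * b1 1) * x1 + (b0 2 + ζ * b1 2) * x2 +
      G.uu * x1 ^ 2 + G.uv * (x1 * x2) + G.vv * x2 ^ 2) +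
      y * (2 * G.yy * (y / 2) + G.yu * x1 + G.yv * x2 + (b0 0 + ζ * b1 0)) := by
    intro y
    simp only [Fq, Sh605.dt, bz, QF.ev, Matrix.cons_val]; ring
  rw [ev, ev]
  have s1 := st_of N hζ h1 h2 (y := -(1 / 4) / 2) (by rw [abs_le]; constructor <;> norm_num)
  have s2 := st_of N hζ h1 h2 (y := (1 / 4) / 2) (by rw [abs_le]; constructor <;> norm_num)
  rw [abs_le] at e0 hs
  constructor
  · nlinarith [s1.1, s1.2, e0.1, e0.2, hs.1, hs.2]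
  · nlinarith [s2.1, s2.2, e0.1, e0.2, hs.1, hs.2]

/-- uniqueness of the height -/
theorem uniq {b0 b1 : V3} {G : QF} (N : NrmC b0 b1 G) {ζ x1 x2 y y' : ℝ}
    (hζ : ζ ∈ Icc (0 : ℝ) 1) (h1 : x1 ∈ Iq) (h2 : x2 ∈ Iq) (hy : |y| ≤ 1 / 2) (hy' : |y'| ≤ 1 / 2)
    (h : Fq b0 b1 G ζ ![y, x1, x2] = Fq b0 b1 G ζ ![y', x1, x2]) : y = y' := by
  have hm : |(y + y') / 2| ≤ 1 / 2 := by
    rw [abs_le] at hy hy' ⊢
    constructor <;> linarith [hy.1, hy.2, hy'.1, hy'.2]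
  have hst := (st_of N hζ h1 h2 hm).1
  have e : (y - y') * (2 * G.yy * ((y + y') / 2) + G.yu * x1 + G.yv * x2 + (b0 0 + ζ * b1 0)) =
      Fq b0 b1 G ζ ![y, x1, x2] - Fq b0 b1 G ζ ![y', x1, x2] := by
    simp only [Fq, Sh605.dt, bz, QF.ev, Matrix.cons_val]; ring
  rw [h, sub_self] at e
  rcases mul_eq_zero.1 e with h3 | h3
  · linarith
  · linarith

/-- **the graph of a sheet and its derivations** (literal of 705) -/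
theorem core_rows {b0 b1 : V3} {G : QF} (N : NrmC b0 b1 G) {s : ℝ} (hs : |s| ≤ 1 / 100) :
    ∃ ψ : ℝ → ℝ → ℝ → ℝ,
      (∀ ζ ∈ Icc (0 : ℝ) 1, ∀ x1 ∈ Iq, ∀ x2 ∈ Iq, |ψ ζ x1 x2| ≤ 1 / 4 ∧
        Fq b0 b1 G ζ ![ψ ζ x1 x2, x1, x2] = s ∧
        ∀ y, |y| ≤ 1 / 2 → Fq b0 b1 G ζ ![y, x1, x2] = s → y = ψ ζ x1 x2) ∧
      ∀ p : ℝ → ℝ → ℝ → ℝ → ℝ, P4 p →
        (∀ x1 ∈ Iq, ∀ x2 ∈ Iq, ∃ f : ℕ → ℝ → ℝ, (∀ ζ, f 0 ζ = p ζ (ψ ζ x1 x2) x1 x2) ∧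
          Sys f (Icc 0 1)) ∧
        (∀ ζ ∈ Icc (0 : ℝ) 1, ∃ (V : Type) (ev : V → ℝ → ℝ → ℝ) (D1 D2 : V → V) (p0 : V),
          Alg ev D1 D2 Iq ∧ ∀ x1 x2, ev p0 x1 x2 = p ζ (ψ ζ x1 x2) x1 x2) := by
  have hex : ∀ ζ x1 x2 : ℝ, ∃ y, ζ ∈ Icc (0 : ℝ) 1 → x1 ∈ Iq → x2 ∈ Iq →
      |y| ≤ 1 / 4 ∧ Fq b0 b1 G ζ ![y, x1, x2] = s := by
    intro ζ x1 x2
    by_cases h : ζ ∈ Icc (0 : ℝ) 1 ∧ x1 ∈ Iq ∧ x2 ∈ Iq
    · obtain ⟨hζ, h1, h2⟩ := h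
      have hc : ContinuousOn (fun y => Fq b0 b1 G ζ ![y, x1, x2]) (Icc (-(1 / 4)) (1 / 4)) := by
        have : (fun y => Fq b0 b1 G ζ ![y, x1, x2]) = fun y => (FQ b0 b1 G ζ).ev y x1 x2 := by
          funext y; rw [FQ_ev]
        rw [this]
        unfold Q3.ev
        fun_prop
      obtain ⟨y, hy, hys⟩ := intermediate_value_Icc (by norm_num) hc (bracket N hs hζ h1 h2)
      exact ⟨y, fun _ _ _ => ⟨abs_le.2 hy, hys⟩⟩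
    · exact ⟨0, fun a b c => absurd ⟨a, b, c⟩ h⟩
  choose ψ hψ using hex
  obtain ⟨m1, m2, m3, m4, m5, m6⟩ := N.G_le
  refine ⟨ψ, fun ζ hζ x1 h1 x2 h2 => ?_, fun p hp => ?_⟩
  · obtain ⟨a1, a2⟩ := hψ ζ x1 x2 hζ h1 h2
    refine ⟨a1, a2, fun y hy hys => ?_⟩
    exact uniq N hζ h1 h2 hy (a1.trans (by norm_num)) (hys.trans a2.symm)
  · obtain ⟨A, c, c3, c4, hA⟩ := hp
    refine ⟨fun x1 h1 x2 h2 => ?_, fun ζ hζ => ?_⟩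
    · have HG : Gr (FZ b0 b1 G x1 x2) s (fun ζ => ψ ζ x1 x2) (Icc 0 1) := by
        refine ⟨fun ζ hζ => (hψ ζ x1 x2 hζ h1 h2).1, fun ζ hζ => ?_, fun ζ hζ y hy => ?_⟩
        · rw [FZ_ev]; exact (hψ ζ x1 x2 hζ h1 h2).2
        · have := st_of N hζ h1 h2 hy
          simp only [Q2.dy, FZ]
          constructor <;> linarith [this.1, this.2]
      have hν : |(FZ b0 b1 G x1 x2).nu| ≤ 5 := by
        have hb := N.b1_le.2.2.2.2.1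
        simp only [Q2.nu, FZ, mul_zero, sub_zero]
        rw [abs_pow]
        have := pow_le_pow_left₀ (abs_nonneg _) hb 2
        norm_num at this ⊢
        linarith
      refine ⟨_, fun ζ => ?_, HG.sys hν ⟨A.yy, c 0, c4, A.ly + A.yu * x1 + A.yv * x2,
        c 1 * x1 + c 2 * x2 + c3, A.c + A.lu * x1 + A.lv * x2 + A.uu * x1 ^ 2 +
        A.uv * (x1 * x2) + A.vv * x2 ^ 2⟩⟩
      rw [hA]
      simp only [Function.iterate_zero, id_eq, Q2.ev, Q3.ev]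
      ring
    · have HG : Gr3 (FQ b0 b1 G ζ) s (ψ ζ) Iq := by
        refine ⟨fun x1 h1 x2 h2 => (hψ ζ x1 x2 hζ h1 h2).1, fun x1 h1 x2 h2 => ?_,
          fun x1 h1 x2 h2 y hy => st_of N hζ h1 h2 hy⟩
        rw [FQ_ev]; exact (hψ ζ x1 x2 hζ h1 h2).2
      refine ⟨Q3, _, _, _, ⟨A.yy, A.yu, A.yv, A.uu, A.uv, A.vv, A.ly + ζ * c 0, A.lu + ζ * c 1,
        A.lv + ζ * c 2, A.c + c3 * ζ + c4 * ζ ^ 2⟩, HG.alg ⟨m1, m2, m3, m4, m6⟩,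
        fun x1 x2 => ?_⟩
      rw [hA]
      simp only [Q3.ev]
      ring

/-- a quadratic function in plank coordinates around a line -/
theorem P4.of_isQ {q : ℝ → V3 → ℝ} (hq : IsQ q) (T : Ln4) (f : Fin 3 → V3) (z0 ρ : ℝ) :
    P4 fun ζ y x1 x2 => q (z0 + ρ * ζ) (T.pos (z0 + ρ * ζ) + Tl102.cmb f ![y, x1, x2]) := by
  obtain ⟨c0, c1, c2, b, d, g, h⟩ := hq
  set A : V3 := fun i => b i + ∑ j, (g i j + g j i) * T.p j with hA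
  set B : V3 := fun i => d i + ∑ j, (g i j + g j i) * T.v j with hB
  refine ⟨⟨∑ i, ∑ j, g i j * (f 0 i * f 0 j),
      ∑ i, ∑ j, g i j * (f 0 i * f 1 j + f 1 i * f 0 j),
      ∑ i, ∑ j, g i j * (f 0 i * f 2 j + f 2 i * f 0 j),
      ∑ i, ∑ j, g i j * (f 1 i * f 1 j),
      ∑ i, ∑ j, g i j * (f 1 i * f 2 j + f 2 i * f 1 j),
      ∑ i, ∑ j, g i j * (f 2 i * f 2 j),
      ∑ i, (A i + z0 * B i) * f 0 i, ∑ i, (A i + z0 * B i) * f 1 i,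
      ∑ i, (A i + z0 * B i) * f 2 i, q z0 (T.pos z0)⟩,
    fun k => ρ * ∑ i, B i * f k i,
    ρ * (c1 + 2 * c2 * z0 + (∑ i, (b i * T.v i + d i * (T.p i + 2 * z0 * T.v i))) +
      ∑ i, ∑ j, g i j * (T.p i * T.v j + T.v i * T.p j + 2 * z0 * (T.v i * T.v j))),
    ρ ^ 2 * (c2 + (∑ i, d i * T.v i) + ∑ i, ∑ j, g i j * (T.v i * T.v j)), ?_⟩
  intro ζ y x1 x2
  simp only [h]
  simp only [Fin.sum_univ_three, Sh605.Ln4.pos, Tl102.cmb, Pi.add_apply, Q3.ev, hA, hB,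
    Matrix.cons_val]
  ring

end Crest.Agent.R136.Row214
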