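import Crest.Agent.R136.Bas5_938
import Crest.Agent.R136.DLw2_619

/-!
# R136 (helper938): row (i) of the thin ladder, weight `1`, part 1: raw twist of `phiP`

* `raw_pairs0` : raw twist of one slot together with the height
* `twPa` : `phiP` is visible if `12` is (tight wall `16 = 1 + 0 + 12`); `twPI` (619) : if `15` is
-/

set_option autoImplicit false
set_option linter.unusedSectionVars false
set_option linter.unusedVariables false

open Filter Topology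

namespace Crest.Agent.R136.RowI938

open Finset Crest.Agent.R136.NetW191 Crest.Agent.R136.Net191 Crest.Agent.R136.Qg926
open Crest.Agent.R136.EvW938 Crest.Agent.R136.RowW619 Crest.Agent.R136.Lf400
open Crest.Agent.R136.LfW619 Crest.Agent.R136.Ht887 Crest.Agent.R136.BaseW619
open Crest.Agent.R136.TrI938 Crest.Agent.R136.DLow619
open Crest.Agent.R136.Aw413 (RawL)
open Crest.Agent.R138.Ex926 (Base U)
open Crest.Agent.R136.Gf356

variable {ι : ℕ → Type*} [∀ n, DecidableEq (ι n)] {W : Wnd 18 ι} {κ : ℕ → ℝ}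
  {lam : ℕ → Fin 18 → ℝ} {f : ∀ n, ι n → FW}

/-- **raw twist of one slot together with the height** -/
theorem raw_pairs0 (h : WWnd W κ lam f) {E : ∀ n, Finset (ι n)} (hE : EvG W E)
    {Leg : Set (Fin 18 → ℝ)} {ν : (Fin 18 → ℝ) → ℝ} {R D : ℝ}
    (H : RModel W.B' (W.cfg E) 1 R Leg ν D) (hR : 0 < R) {y : ℝ} (hy : 0 < y) (ht : y ≤ W.top 0)
    {v : Fin 18} (hv : RawL W E v) :
    ∀ ε : ℝ, 0 < ε → ∀ᶠ n in (U : Filter ℕ), ∀ i ∈ (W.cfg E n).L,
      ∃ T ⊆ ((W.cfg E n).hts i) ×ˢ ((W.cfg E n).hts i),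
        (∀ q ∈ T, W.B'.d n ^ ε < |ownC W n i q.1 q.2 v| ∧
          W.B'.d n ^ ε < |ownC W n i q.1 q.2 0|) ∧
        1 / 4 * (((W.cfg E n).hts i).card : ℝ) ^ 2 ≤ (T.card : ℝ) := by
  classical
  intro ε hε
  set x0 : ℝ := min (min (ε / 2) (y / 2)) R with hx0
  have x0p : 0 < x0 := lt_min (lt_min (by linarith) (by linarith)) hR
  have x0e : 2 * x0 ≤ ε := by
    have := (min_le_left _ R).trans (min_le_left (ε / 2) (y / 2)); rw [← hx0] at this; linarith
  have x0y : 2 * x0 ≤ y := by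
    have := (min_le_left _ R).trans (min_le_right (ε / 2) (y / 2)); rw [← hx0] at this; linarith
  have x0R : x0 ≤ R := min_le_right _ _
  have hK := h.ok.K0_one
  have hk0 := h.ok.kap 0
  filter_upwards [hE, raw_pairs hv ε hε, H.frost x0 x0p.le x0R (x0 / 4) (by positivity),
    H.line (x0 / 4) (by positivity), ev_const_le W.B' (show 0 < x0 / 2 by positivity) 4,
    ev_const_le W.B' x0p (2 * (2 * W.K0 / W.kap 0) + 4)] with n hn h1 h2 h3 h4 h5 i hi
  obtain ⟨g, hsub, heq⟩ := hn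
  obtain ⟨T, hT1, hT2, hT3⟩ := h1 i hi
  have h3i := h3 i hi
  have hρ := H.base n
  have hpos : ∀ t : ℝ, 0 < W.B'.d n ^ t := fun t => Real.rpow_pos_of_pos (W.B'.pos n) _
  have hadd : ∀ s t : ℝ, W.B'.d n ^ s * W.B'.d n ^ t = W.B'.d n ^ (s + t) := fun s t =>
    (Real.rpow_add (W.B'.pos n) s t).symm
  have anti : ∀ {s t : ℝ}, s ≤ t → W.B'.d n ^ t ≤ W.B'.d n ^ s := fun hst =>
    Real.rpow_le_rpow_of_exponent_ge (W.B'.pos n) (W.B'.lt n).le hst
  set Hs := (W.cfg E n).hts i with hHs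
  -- few near heights
  have hnear : ∀ k ∈ Hs, (((Hs.filter fun k' => |(W.cfg E n).z k' - (W.cfg E n).z k| ≤
      W.B'.d n ^ x0).card : ℕ) : ℝ) ≤ 1 / 4 * (Hs.card : ℝ) := by
    intro k hk
    have hkZ : k ∈ (W.cfg E n).Z := (RCfg.mem_hts.1 hk).1
    have a1 : ((Hs.filter fun k' => |(W.cfg E n).z k' - (W.cfg E n).z k| ≤
        W.B'.d n ^ x0).card : ℝ) ≤ (((W.cfg E n).hbox x0 k).card : ℝ) := by
      refine mod_cast Finset.card_le_card ?_
      intro k' hk'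
      obtain ⟨b1, b2⟩ := Finset.mem_filter.1 hk'
      unfold RCfg.hbox
      rw [Finset.mem_filter, hρ]
      exact ⟨(RCfg.mem_hts.1 b1).1, b2⟩
    have a2 := h2 k hkZ
    have a3 : (((W.cfg E n).Z.card : ℕ) : ℝ) ≤ W.B'.d n ^ (-(x0 / 4)) * (Hs.card : ℝ) := by
      have e1 : W.B'.d n ^ (-(x0 / 4)) * W.B'.d n ^ (x0 / 4) = 1 := by
        rw [hadd, neg_add_cancel, Real.rpow_zero]
      have := mul_le_mul_of_nonneg_left h3i (hpos (-(x0 / 4))).le
      rwa [← mul_assoc, e1, one_mul] at this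
    have a4 : W.B'.d n ^ (1 * x0 - x0 / 4) * W.B'.d n ^ (-(x0 / 4)) ≤ 1 / 4 := by
      rw [hadd]
      have e : 1 * x0 - x0 / 4 + -(x0 / 4) = x0 / 2 := by ring
      rw [e]
      have e1 : W.B'.d n ^ (x0 / 2) * W.B'.d n ^ (-(x0 / 2)) = 1 := by
        rw [hadd, add_neg_cancel, Real.rpow_zero]
      have := mul_le_mul_of_nonneg_left h4 (hpos (x0 / 2)).le
      rw [e1] at this
      linarith
    calc ((Hs.filter fun k' => |(W.cfg E n).z k' - (W.cfg E n).z k| ≤ W.B'.d n ^ x0).card : ℝ)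
        ≤ W.B'.d n ^ (1 * x0 - x0 / 4) * (((W.cfg E n).Z.card : ℕ) : ℝ) := a1.trans a2
      _ ≤ W.B'.d n ^ (1 * x0 - x0 / 4) * (W.B'.d n ^ (-(x0 / 4)) * (Hs.card : ℝ)) :=
          mul_le_mul_of_nonneg_left a3 (hpos _).le
      _ = (W.B'.d n ^ (1 * x0 - x0 / 4) * W.B'.d n ^ (-(x0 / 4))) * (Hs.card : ℝ) := by ring
      _ ≤ _ := mul_le_mul_of_nonneg_right a4 (Nat.cast_nonneg _)
  -- pairs
  set Tn := (Hs ×ˢ Hs).filter fun q => |(W.cfg E n).z q.2 - (W.cfg E n).z q.1| ≤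
    W.B'.d n ^ x0 with hTn
  have hTnc : (Tn.card : ℝ) ≤ 1 / 4 * (Hs.card : ℝ) ^ 2 := by
    have e1 : Tn.card = ∑ k ∈ Hs, (Hs.filter fun k' => |(W.cfg E n).z k' - (W.cfg E n).z k| ≤
        W.B'.d n ^ x0).card := by
      rw [hTn, Finset.card_eq_sum_card_fiberwise (f := Prod.fst) (t := Hs) (fun q hq => by
        have := (Finset.mem_filter.1 hq).1
        exact (Finset.mem_product.1 this).1)]
      refine Finset.sum_congr rfl fun k hk => ?_
      refine Finset.card_bij (fun q _ => q.2) ?_ ?_ ?_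
      · intro q hq
        obtain ⟨a1, a2⟩ := Finset.mem_filter.1 hq
        obtain ⟨a3, a4⟩ := Finset.mem_filter.1 a1
        rw [← a2]
        exact Finset.mem_filter.2 ⟨(Finset.mem_product.1 a3).2, a4⟩
      · intro q hq q' hq' heq
        have a2 := (Finset.mem_filter.1 hq).2
        have a2' := (Finset.mem_filter.1 hq').2
        exact Prod.ext (a2.trans a2'.symm) heq
      · intro k' hk'
        obtain ⟨a1, a2⟩ := Finset.mem_filter.1 hk'
        exact ⟨(k, k'), Finset.mem_filter.2 ⟨Finset.mem_filter.2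
          ⟨Finset.mem_product.2 ⟨hk, a1⟩, a2⟩, rfl⟩, rfl⟩
    rw [e1]
    push_cast
    calc ∑ k ∈ Hs, ((Hs.filter fun k' => |(W.cfg E n).z k' - (W.cfg E n).z k| ≤
          W.B'.d n ^ x0).card : ℝ) ≤ ∑ _k ∈ Hs, 1 / 4 * (Hs.card : ℝ) :=
          Finset.sum_le_sum hnear
      _ = 1 / 4 * (Hs.card : ℝ) ^ 2 := by
          rw [Finset.sum_const, nsmul_eq_mul]; ring
  refine ⟨T \ Tn, Finset.sdiff_subset.trans hT1, ?_, ?_⟩
  · intro q hq
    obtain ⟨q1, q2⟩ := Finset.mem_sdiff.1 hq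
    refine ⟨hT2 q q1, ?_⟩
    have hqm := Finset.mem_product.1 (hT1 q1)
    have hI1 : (i, q.1) ∈ (W.cfg E n).I := (RCfg.mem_hts.1 hqm.1).2
    have hI2 : (i, q.2) ∈ (W.cfg E n).I := (RCfg.mem_hts.1 hqm.2).2
    have hz : W.B'.d n ^ x0 < |(W.cfg E n).z q.2 - (W.cfg E n).z q.1| := by
      by_contra hcon
      exact q2 (Finset.mem_filter.2 ⟨hT1 q1, not_lt.1 hcon⟩)
    rw [heq] at hI1 hI2 hz
    have ho := h.own_zero g hsub hI1 hI2 ht
    have e1 : W.B'.d n ^ x0 * W.B'.d n ^ (-x0) = 1 := by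
      rw [hadd, add_neg_cancel, Real.rpow_zero]
    have hC : (2 * (2 * W.K0 / W.kap 0) + 4) * W.B'.d n ^ x0 ≤ 1 := by
      have := mul_le_mul_of_nonneg_right h5 (hpos x0).le
      rwa [mul_comm (W.B'.d n ^ (-x0)), e1] at this
    have hCk : 0 ≤ 2 * W.K0 / W.kap 0 := by positivity
    have e2 : 2 * W.K0 * W.B'.d n ^ y / W.kap 0 ≤ 1 / 2 * W.B'.d n ^ x0 := by
      calc 2 * W.K0 * W.B'.d n ^ y / W.kap 0 = 2 * W.K0 / W.kap 0 * W.B'.d n ^ y := by ring
        _ ≤ 2 * W.K0 / W.kap 0 * W.B'.d n ^ (x0 + x0) :=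
            mul_le_mul_of_nonneg_left (anti (by linarith)) hCk
        _ = (2 * W.K0 / W.kap 0 * W.B'.d n ^ x0) * W.B'.d n ^ x0 := by rw [← hadd]; ring
        _ ≤ _ := by
            refine mul_le_mul_of_nonneg_right ?_ (hpos _).le
            nlinarith [hpos x0]
    have e3 : W.B'.d n ^ ε < 1 / 2 * W.B'.d n ^ x0 := by
      calc W.B'.d n ^ ε ≤ W.B'.d n ^ (x0 + x0) := anti (by linarith)
        _ = W.B'.d n ^ x0 * W.B'.d n ^ x0 := (hadd _ _).symm
        _ < _ := by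
            refine mul_lt_mul_of_pos_right ?_ (hpos _)
            nlinarith [hpos x0]
    have e4 := abs_sub_abs_le_abs_sub ((W.cfg0 n (E n)).z q.2 - (W.cfg0 n (E n)).z q.1)
      (ownC W n i q.1 q.2 0)
    have e5 := abs_sub_comm ((W.cfg0 n (E n)).z q.2 - (W.cfg0 n (E n)).z q.1)
      (ownC W n i q.1 q.2 0)
    rw [e5] at e4
    linarith
  · have e1 : (T.card : ℝ) ≤ ((T \ Tn).card : ℝ) + Tn.card := by
      exact_mod_cast Finset.card_le_card_sdiff_add_card (s := T) (t := Tn)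
    linarith

/-- **raw twist of `phiP`** if `12` is visible -/
theorem twPa (h : WWnd W κ lam f) {E : ∀ n, Finset (ι n)} (hE : EvG W E)
    {Leg : Set (Fin 18 → ℝ)} {ν : (Fin 18 → ℝ) → ℝ} {R D : ℝ}
    (H : RModel W.B' (W.cfg E) 1 R Leg ν D) (hR : 0 < R) (hv : RawL W E 12) {t : ℝ}
    (ht0 : 0 < t) (ht : ∀ s, t ≤ W.top s)
    (htg : ∀ᶠ n in (U : Filter ℕ), W.X n 16 = W.X n 1 + (W.X n 0 + W.X n 12)) :
    RawTwI W.B' (W.cfg E) (phiP W lam) := by
  refine twP h hE ht0 ht fun ε hε => ?_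
  have hcf := cf_ok h (l := [1, 0, 12]) (s := 16) (by decide) (by
    filter_upwards [htg] with n hn
    rw [hn]; simp)
  filter_upwards [raw_pairs0 h hE H hR ht0 (ht 0) hv (ε / 3) (by positivity),
    hcf (ε / 3) (by positivity), ev_const_le W.B' hε 4] with n h1 h2 h3 i hi
  obtain ⟨T, hT1, hT2, hT3⟩ := h1 i hi
  have hpos : ∀ t : ℝ, 0 < W.B'.d n ^ t := fun t => Real.rpow_pos_of_pos (W.B'.pos n) _
  refine ⟨T, hT1, fun q hq => Or.inr ?_, ?_⟩
  · obtain ⟨a1, a0⟩ := hT2 q hq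
    have a2 := h2.1
    rw [abs_of_pos (h.cfl_pos n _ _)] at a2
    have e : W.B'.d n ^ ε = W.B'.d n ^ (ε / 3) * (W.B'.d n ^ (ε / 3) * W.B'.d n ^ (ε / 3)) := by
      rw [← Real.rpow_add (W.B'.pos n), ← Real.rpow_add (W.B'.pos n)]; congr 1; ring
    rw [e, abs_mul]
    calc W.B'.d n ^ (ε / 3) * (W.B'.d n ^ (ε / 3) * W.B'.d n ^ (ε / 3))
        < W.B'.d n ^ (ε / 3) * (|ownC W n i q.1 q.2 0| * |ownC W n i q.1 q.2 12|) :=
          mul_lt_mul_of_pos_left (mul_lt_mul'' a0 a1 (hpos _).le (hpos _).le) (hpos _)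
      _ ≤ _ := mul_le_mul_of_nonneg_right a2 (by positivity)
  · refine le_trans (mul_le_mul_of_nonneg_right ?_ (sq_nonneg _)) hT3
    have a3 : W.B'.d n ^ ε * W.B'.d n ^ (-ε) = 1 := by
      rw [← Real.rpow_add (W.B'.pos n), add_neg_cancel, Real.rpow_zero]
    have a4 := hpos ε
    nlinarith

end Crest.Agent.R136.RowI938
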