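import Crest.Agent.R136.RowI1_938
import Crest.Agent.R136.P0_830
import Crest.Agent.R136.LadG1_697

/-!
# R136 (helper938): row `deadhi1` of the thin ladder (`K > 2`, dominant slots of weight `1`)

* `grS`, `gr16`, `gr17` : groups of `z`, `P`, `N` on the rung `s = KW 15 > 2`
* `rateP_pos` : the slot `P` costs something (`c`-shift, one window with an offset)
* `rateN_one` : the slot `N` is full (height link `P → N`)
* **`deadhi1`** : the row
-/

set_option autoImplicit false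
set_option linter.unusedSectionVars false
set_option linter.unusedVariables false

open Filter Topology

namespace Crest.Agent.R136.RowI938

open Finset Crest.Agent.R136.NetW191 Crest.Agent.R136.Net191 Crest.Agent.R136.Qg926
open Crest.Agent.R136.EvW938 Crest.Agent.R136.RowW619 Crest.Agent.R136.Lf400
open Crest.Agent.R136.LfW619 Crest.Agent.R136.Ht887 Crest.Agent.R136.BaseW619
open Crest.Agent.R136.TrI938 Crest.Agent.R136.DLow619 Crest.Agent.R136.Bas938
open Crest.Agent.R136.LadW697 Crest.Agent.R136.NatW697 Crest.Agent.R136.PrW464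
open Crest.Agent.R136.Dg219
open Crest.Agent.R136.AwJ774
open Crest.Agent.R136.ThB830 (PtC)
open Crest.Agent.R136.Aw413
open Crest.Agent.R138.Ex926 (Base U)
open Crest.Agent.R136.Gf356

/-! ### integer vectors with a parameter -/

theorem sum_lin (b e : Fin 18 → ℕ) (N : ℕ) (l : List (Fin 18)) :
    (l.map fun k => b k + N * e k).sum = (l.map b).sum + N * (l.map e).sum := by
  induction l with
  | nil => simp
  | cons a l ih => simp only [List.map_cons, List.sum_cons, ih]; ring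

theorem okV_lin {b e n : Fin 18 → ℕ} {r : ℕ} (he : ∀ k, ∀ l ∈ mlW k, e k ≤ (l.map e).sum)
    (h : OkV b r n) (N : ℕ) : OkV (fun k => b k + N * e k) r n := by
  refine ⟨h.1, fun k l hl => ?_⟩
  rw [sum_lin]
  have h1 := Nat.mul_le_mul_left N (he k l hl)
  rcases h.2 k l hl with h2 | h2
  · left
    show b k + N * e k + r ≤ _
    omega
  · right; exact h2

theorem wdat_lin {b e nt : Fin 18 → ℕ} {r : ℕ} {S : Finset (Fin 18)}
    (he : ∀ k, ∀ l ∈ mlW k, e k ≤ (l.map e).sum) (he0 : e 0 = 0) (h : WDat b nt r S) (N : ℕ) :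
    WDat (fun k => b k + N * e k) nt r S where
  off := fun k l hl => by
    rw [sum_lin]
    exact Nat.add_le_add (h.off k l hl) (Nat.mul_le_mul_left N (he k l hl))
  top := okV_lin he h.top N
  lin := okV_lin he h.lin N
  lev := okV_lin he h.lev N
  zS := h.zS
  hS := h.hS
  z0 := by simp [h.z0, he0]
  zt := h.zt

/-! ### the data of the window of the `c`-shift -/

/-- level slots -/
def SI : Finset (Fin 18) := {0, 12, 15}

/-- slots of `c`-weight `≥ 2` -/
def Z9 : Finset (Fin 18) := {4, 5, 6, 7, 8, 9, 10, 11, 14}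

/-- offset, `t` in the slot `12` -/
def bI (t : ℕ) : Fin 18 → ℕ := fun k => if k ∈ Z9 then 2 else if k = 12 then t else 0

/-- direction of the offset -/
def eI : Fin 18 → ℕ := fun k => if k = 1 ∨ k = 2 ∨ k = 3 ∨ k = 13 ∨ k = 16 then 1 else 0

def n1 : Fin 18 → ℕ := fun _ => 1
/-- everything narrow but `c` -/
def nP : Fin 18 → ℕ := fun k => if k = 1 then 0 else 1
/-- all flags narrow -/
def nT : Fin 18 → ℕ := fun k => if k = 1 ∨ k = 2 ∨ k = 3 ∨ k = 13 ∨ k = 16 ∨ k = 17 then 0 else 1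
/-- all flags and `P` narrow -/
def nR : Fin 18 → ℕ := fun k => if k = 1 ∨ k = 2 ∨ k = 3 ∨ k = 13 ∨ k = 17 then 0 else 1

theorem eI_nat : ∀ k, ∀ l ∈ mlW k, eI k ≤ (l.map eI).sum := by decide
theorem wdI0 : WDat (bI 0) n1 1 SI := by decide
theorem wdI1 : WDat (bI 1) n1 1 SI := by decide
theorem okP0 : OkV (bI 0) 1 nP := by decide
theorem okP1 : OkV (bI 1) 1 nP := by decide
theorem okT0 : OkV (bI 0) 1 nT := by decide
theorem okT1 : OkV (bI 1) 1 nT := by decide
theorem okR0 : OkV (bI 0) 1 nR := by decide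
theorem okR1 : OkV (bI 1) 1 nR := by decide

/-! ### groups -/

section grp

variable {θ : Fin 3 → ℝ} {s : ℝ}

theorem flags3 : ∀ k : Fin 18, 4 ≤ k → (k = 13 ∨ k = 16 ∨ k = 17) ∨ (k = 12 ∨ k = 15) ∨
    (wc k ≤ -2 ∧ k ∈ Z9) := by decide

theorem wcs : wc 13 = 0 ∧ wc 16 = 0 ∧ wc 17 = 0 ∧ wc 12 = -1 ∧ wc 15 = -1 := by decide

theorem als : alW 13 = 2 ∧ alW 16 = 1 ∧ alW 17 = 0 ∧ alW 12 = 2 ∧ alW 15 = 1 := by decide

theorem not_Dr (hs : 2 < s) {k : Fin 18} (h : alW k ≤ 2) : k ∉ DrW s := by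
  rintro ⟨_, h2⟩
  have : ((alW k : ℤ) : ℝ) ≤ 2 := by exact_mod_cast h
  linarith

/-- `KW k - s` on the rung `s = KW 15` -/
theorem KW_sub (hK : KW θ 15 = s) {k : Fin 18} (hk : 4 ≤ k) :
    KW θ k - s = -((wc k : ℝ) + 1) * θ 1 := by
  rw [← hK, KW_flag θ hk, KW_flag θ (k := 15) (by decide), wcs.2.2.2.2]
  push_cast; ring

/-- ratio of a flag -/
theorem ratio (hK : KW θ 15 = s) {k : Fin 18} (hk : 4 ≤ k) (hD : k ∉ DrW s)
    (h0 : TW s k ≠ 0) : btW θ k / TW s k = 1 - ((wc k : ℝ) + 1) * θ 1 / TW s k := by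
  rw [btW_TW θ hk hD, KW_sub hK hk]
  field_simp
  ring

theorem TWk (hs : 2 < s) : TW s 16 = s - 1 ∧ TW s 17 = s ∧ TW s 12 = s - 2 ∧ TW s 15 = s - 1 ∧
    TW s 13 = s - 2 := by
  obtain ⟨a1, a2, a3, a4, a5⟩ := als
  refine ⟨?_, ?_, ?_, ?_, ?_⟩
  · rw [TW_flag (by decide) (not_Dr hs (by rw [a2]; decide)), a2]; push_cast; ring
  · rw [TW_flag (by decide) (not_Dr hs (by rw [a3]; decide)), a3]; push_cast; ring
  · rw [TW_flag (by decide) (not_Dr hs (by rw [a4])), a4]; push_cast; ring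
  · rw [TW_flag (by decide) (not_Dr hs (by rw [a5]; decide)), a5]; push_cast; ring
  · rw [TW_flag (by decide) (not_Dr hs (by rw [a1])), a1]; push_cast; ring

/-- a flag which is not dropped with positive slope -/
theorem TW_pos (hs : 2 < s) {k : Fin 18} (hD : k ∉ DrW s) (h0 : TW s k ≠ 0) : 0 < TW s k :=
  lt_of_le_of_ne (TW_nonneg (by linarith) k) (Ne.symm h0)

/-- common core: the slots in a group of a given ratio -/
theorem grp_core (hθ : 0 < θ 1) (hs : 2 < s) (hK : KW θ 15 = s) {i : Fin 18} (hi : 4 ≤ i)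
    (hDi : i ∉ DrW s) (h0i : TW s i ≠ 0) {j : Fin 18}
    (e : gC (TW s) (btW θ) j = gC (TW s) (btW θ) i) (hD : j ∉ DrW s) :
    (j = 0 ∧ (wc i : ℝ) + 1 = 0) ∨ (j = 2 ∧ (wc i : ℝ) + 1 = TW s i) ∨
      (j = 3 ∧ (wc i : ℝ) + 1 = 2 * TW s i) ∨
      (4 ≤ j ∧ TW s j ≠ 0 ∧ ((wc j : ℝ) + 1) * TW s i = ((wc i : ℝ) + 1) * TW s j) := by
  have h0j : TW s j ≠ 0 := by
    intro h
    rw [gC_zero.2 h] at e
    exact h0i (gC_zero.1 e.symm)
  rw [gC_eq h0j h0i, ratio hK hi hDi h0i] at e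
  suffices key : ∀ j : Fin 18, j ∉ DrW s → TW s j ≠ 0 →
      btW θ j / TW s j = 1 - ((wc i : ℝ) + 1) * θ 1 / TW s i →
      (j = 0 ∧ (wc i : ℝ) + 1 = 0) ∨ (j = 2 ∧ (wc i : ℝ) + 1 = TW s i) ∨
      (j = 3 ∧ (wc i : ℝ) + 1 = 2 * TW s i) ∨
      (4 ≤ j ∧ TW s j ≠ 0 ∧ ((wc j : ℝ) + 1) * TW s i = ((wc i : ℝ) + 1) * TW s j) from
    key j hD h0j e
  intro j
  refine cases4 (P := fun j => j ∉ DrW s → TW s j ≠ 0 →
      btW θ j / TW s j = 1 - ((wc i : ℝ) + 1) * θ 1 / TW s i →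
      (j = 0 ∧ (wc i : ℝ) + 1 = 0) ∨ (j = 2 ∧ (wc i : ℝ) + 1 = TW s i) ∨
      (j = 3 ∧ (wc i : ℝ) + 1 = 2 * TW s i) ∨
      (4 ≤ j ∧ TW s j ≠ 0 ∧ ((wc j : ℝ) + 1) * TW s i = ((wc i : ℝ) + 1) * TW s j))
    ?_ ?_ ?_ ?_ ?_ j
  · intro _ _ e
    left
    refine ⟨rfl, ?_⟩
    rw [btW0, TW_z, div_one] at e
    have h1 : ((wc i : ℝ) + 1) * θ 1 / TW s i = 0 := by linarith
    rw [div_eq_zero_iff] at h1
    rcases h1 with h1 | h1
    · rcases mul_eq_zero.1 h1 with h2 | h2
      · exact h2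
      · exact absurd h2 hθ.ne'
    · exact absurd h1 h0i
  · intro _ h _; exact absurd (TW_c s) h
  · intro _ _ e
    right; left
    refine ⟨rfl, ?_⟩
    rw [btW2, TW_A, div_one] at e
    have h1 : ((wc i : ℝ) + 1) * θ 1 / TW s i = θ 1 := by linarith
    rw [div_eq_iff h0i] at h1
    have h2 : θ 1 * ((wc i : ℝ) + 1) = θ 1 * TW s i := by linarith
    exact mul_left_cancel₀ hθ.ne' h2
  · intro _ _ e
    right; right; left
    refine ⟨rfl, ?_⟩
    rw [btW3, TW_B, div_one] at e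
    have h1 : ((wc i : ℝ) + 1) * θ 1 / TW s i = 2 * θ 1 := by linarith
    rw [div_eq_iff h0i] at h1
    have h2 : θ 1 * ((wc i : ℝ) + 1) = θ 1 * (2 * TW s i) := by linarith
    exact mul_left_cancel₀ hθ.ne' h2
  · intro k hk hDk h0k e
    right; right; right
    refine ⟨hk, h0k, ?_⟩
    rw [ratio hK hk hDk h0k] at e
    have h1 : ((wc k : ℝ) + 1) * θ 1 / TW s k = ((wc i : ℝ) + 1) * θ 1 / TW s i := by linarith
    rw [div_eq_div_iff h0k h0i] at h1
    have h2 : θ 1 * (((wc k : ℝ) + 1) * TW s i) = θ 1 * (((wc i : ℝ) + 1) * TW s k) := by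
      linarith
    exact mul_left_cancel₀ hθ.ne' h2

/-- **`P` is alone in its group** -/
theorem gr16 (hθ : 0 < θ 1) (hs : 2 < s) (hK : KW θ 15 = s) (j : Fin 18)
    (e : gC (TW s) (btW θ) j = gC (TW s) (btW θ) 16) : j = 16 ∨ j ∈ DrW s := by
  by_cases hD : j ∈ DrW s
  · exact Or.inr hD
  left
  obtain ⟨t16, t17, t12, t15, t13⟩ := TWk hs
  obtain ⟨w13, w16, w17, w12, w15⟩ := wcs
  have h0 : TW s 16 ≠ 0 := by rw [t16]; linarith
  rcases grp_core hθ hs hK (i := 16) (by decide) (not_Dr hs (by decide)) h0 e hD with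
    ⟨_, h⟩ | ⟨_, h⟩ | ⟨_, h⟩ | ⟨hj, h0j, h⟩
  · rw [w16] at h; norm_num at h
  · rw [w16, t16] at h; push_cast at h; linarith
  · rw [w16, t16] at h; push_cast at h; linarith
  · rw [w16, t16] at h
    have hp := TW_pos hs hD h0j
    rcases flags3 j hj with (rfl | rfl | rfl) | (rfl | rfl) | ⟨h1, _⟩
    · rw [w13, t13] at h; push_cast at h; linarith
    · rfl
    · rw [w17, t17] at h; push_cast at h; linarith
    · rw [w12, t12] at h; push_cast at h; linarith
    · rw [w15, t15] at h; push_cast at h; linarith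
    · have h2 : ((wc j : ℤ) : ℝ) ≤ -2 := by exact_mod_cast h1
      have h3 : 0 < s - 1 := by linarith
      have : ((wc j : ℝ) + 1) * (s - 1) < 0 := mul_neg_of_neg_of_pos (by linarith) h3
      push_cast at h
      nlinarith

/-- **`N` is alone in its group** -/
theorem gr17 (hθ : 0 < θ 1) (hs : 2 < s) (hK : KW θ 15 = s) (j : Fin 18)
    (e : gC (TW s) (btW θ) j = gC (TW s) (btW θ) 17) : j = 17 ∨ j ∈ DrW s := by
  by_cases hD : j ∈ DrW s
  · exact Or.inr hD
  left
  obtain ⟨t16, t17, t12, t15, t13⟩ := TWk hs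
  obtain ⟨w13, w16, w17, w12, w15⟩ := wcs
  have h0 : TW s 17 ≠ 0 := by rw [t17]; linarith
  rcases grp_core hθ hs hK (i := 17) (by decide) (not_Dr hs (by decide)) h0 e hD with
    ⟨_, h⟩ | ⟨_, h⟩ | ⟨_, h⟩ | ⟨hj, h0j, h⟩
  · rw [w17] at h; norm_num at h
  · rw [w17, t17] at h; push_cast at h; linarith
  · rw [w17, t17] at h; push_cast at h; linarith
  · rw [w17, t17] at h
    have hp := TW_pos hs hD h0j
    rcases flags3 j hj with (rfl | rfl | rfl) | (rfl | rfl) | ⟨h1, _⟩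
    · rw [w13, t13] at h; push_cast at h; linarith
    · rw [w16, t16] at h; push_cast at h; linarith
    · rfl
    · rw [w12, t12] at h; push_cast at h; linarith
    · rw [w15, t15] at h; push_cast at h; linarith
    · have h2 : ((wc j : ℤ) : ℝ) ≤ -2 := by exact_mod_cast h1
      have h3 : 0 < s := by linarith
      have : ((wc j : ℝ) + 1) * s < 0 := mul_neg_of_neg_of_pos (by linarith) h3
      push_cast at h
      nlinarith

/-- **the group of `z`** -/
theorem grS (hθ : 0 < θ 1) (hs : 2 < s) (hK : KW θ 15 = s) (i j : Fin 18)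
    (e : gC (TW s) (btW θ) i = gC (TW s) (btW θ) j) (hi : i ∈ SI) : j ∈ SI ∨ j ∈ DrW s := by
  by_cases hD : j ∈ DrW s
  · exact Or.inr hD
  left
  obtain ⟨t16, t17, t12, t15, t13⟩ := TWk hs
  obtain ⟨w13, w16, w17, w12, w15⟩ := wcs
  have core : ∀ i : Fin 18, (i = 12 ∨ i = 15) → gC (TW s) (btW θ) j = gC (TW s) (btW θ) i →
      j ∈ SI := by
    intro i hi e
    have hi4 : 4 ≤ i := by rcases hi with rfl | rfl <;> decide
    have hDi : i ∉ DrW s := by rcases hi with rfl | rfl <;> exact not_Dr hs (by decide)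
    have wi : wc i = -1 := by rcases hi with rfl | rfl <;> decide
    have h0 : TW s i ≠ 0 := by
      rcases hi with rfl | rfl
      · rw [t12]; linarith
      · rw [t15]; linarith
    have hpi := TW_pos hs hDi h0
    rcases grp_core hθ hs hK hi4 hDi h0 e hD with ⟨rfl, h⟩ | ⟨_, h⟩ | ⟨_, h⟩ | ⟨hj, h0j, h⟩
    · decide
    · rw [wi] at h; push_cast at h; linarith
    · rw [wi] at h; push_cast at h; linarith
    · rw [wi] at h
      rcases flags3 j hj with (rfl | rfl | rfl) | (rfl | rfl) | ⟨h1, _⟩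
      · rw [w13] at h; push_cast at h; linarith
      · rw [w16] at h; push_cast at h; linarith
      · rw [w17] at h; push_cast at h; linarith
      · decide
      · decide
      · have h2 : ((wc j : ℤ) : ℝ) ≤ -2 := by exact_mod_cast h1
        have : ((wc j : ℝ) + 1) * TW s i < 0 := mul_neg_of_neg_of_pos (by linarith) hpi
        push_cast at h
        nlinarith
  have z15 : gC (TW s) (btW θ) 0 = gC (TW s) (btW θ) 15 := by
    have h0 : TW s 15 ≠ 0 := by rw [t15]; linarith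
    rw [gC_eq (by rw [TW_z]; exact one_ne_zero) h0, ratio hK (by decide)
      (not_Dr hs (by decide)) h0, w15, btW0, TW_z]
    push_cast; ring
  have hi' : i = 0 ∨ i = 12 ∨ i = 15 := by simpa [SI] using hi
  rcases hi' with rfl | rfl | rfl
  · exact core 15 (Or.inr rfl) (by rw [← z15]; exact e.symm)
  · exact core 12 (Or.inl rfl) e.symm
  · exact core 15 (Or.inr rfl) e.symm

/-- the slots in the group of `c` -/
theorem gr1 (hs : 2 < s) (j : Fin 18) (e : gC (TW s) (btW θ) j = gC (TW s) (btW θ) 1)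
    (hj : j ≠ 1) (hD : j ∉ DrW s) : j ∈ Z9 := by
  rw [gC_zero.2 (TW_c s)] at e
  have h0 := gC_zero.1 e
  rcases (cases4 (P := fun j => TW s j = 0 → 4 ≤ j ∨ j = 1) (fun e => absurd e (by
    rw [TW_z]; exact one_ne_zero)) (fun _ => Or.inr rfl) (fun e => absurd e (by
    rw [TW_A]; exact one_ne_zero)) (fun e => absurd e (by rw [TW_B]; exact one_ne_zero))
    (fun k hk _ => Or.inl hk) j) h0 with h4 | h4
  · obtain ⟨t16, t17, t12, t15, t13⟩ := TWk hs
    rcases flags3 j h4 with (rfl | rfl | rfl) | (rfl | rfl) | ⟨_, h1⟩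
    · rw [t13] at h0; linarith
    · rw [t16] at h0; linarith
    · rw [t17] at h0; linarith
    · rw [t12] at h0; linarith
    · rw [t15] at h0; linarith
    · exact h1
  · exact absurd h4 hj

end grp

end Crest.Agent.R136.RowI938
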