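import Crest.Agent.R136.RowI2_938

/-!
# R136 (helper938): row `deadhi1` of the thin ladder, part 3: the windows and the row

* `exists_closs` : the slot `c` costs something at some multiple of the unit, given the slots of
  `c`-weight `≥ 2` narrow
* `rateP_core`, `rateP_pos` : the rate of `P` is positive
* `rateN_one` : the rate of `N` is `≥ 1`
* **`deadhi1`** : `DeadC fun g θ V s => Top θ (· ∈ V) s ∧ 2 < s ∧ KW θ 15 = s`
-/

set_option autoImplicit false
set_option linter.unusedSectionVars false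
set_option linter.unusedVariables false

open Filter Topology

namespace Crest.Agent.R136.RowI938

open Finset Crest.Agent.R136.NetW191 Crest.Agent.R136.Net191 Crest.Agent.R136.Qg926
open Crest.Agent.R136.EvW938 Crest.Agent.R136.RowW619 Crest.Agent.R136.Lf400
open Crest.Agent.R136.LfW619 Crest.Agent.R136.Ht887 Crest.Agent.R136.BaseW619
open Crest.Agent.R136.TrI938 Crest.Agent.R136.DLow619 Crest.Agent.R136.Bas938
open Crest.Agent.R136.LadW697 Crest.Agent.R136.NatW697 Crest.Agent.R136.PrW464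
open Crest.Agent.R136.Dg219
open Crest.Agent.R136.AwJ774
open Crest.Agent.R136.ThB830 (PtC)
open Crest.Agent.R136.P0830 (ptB_of basG_of)
open Crest.Agent.R136.LadT830 (Top)
open Crest.Agent.R136.Aw413
open Crest.Agent.R138.Ex926 (Base U)
open Crest.Agent.R136.Gf356

/-! ### legality by domination -/

theorem sum_ge {c : Fin 18 → ℝ} (h0 : ∀ k, 0 ≤ c k) {l : List (Fin 18)} {s : Fin 18}
    (hs : s ∈ l) : c s ≤ (l.map c).sum := by
  refine List.single_le_sum ?_ _ (List.mem_map_of_mem hs)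
  intro x hx
  obtain ⟨i, _, rfl⟩ := List.mem_map.1 hx
  exact h0 i

theorem sum_nn {c : Fin 18 → ℝ} (h0 : ∀ k, 0 ≤ c k) (l : List (Fin 18)) :
    0 ≤ (l.map c).sum := by
  refine List.sum_nonneg ?_
  intro x hx
  obtain ⟨i, _, rfl⟩ := List.mem_map.1 hx
  exact h0 i

theorem mem_dom {Ma : Mons 18} {Dr : Set (Fin 18)} (hM : ActM Ma Dr) {c : Fin 18 → ℝ}
    (h0 : ∀ k, 0 ≤ c k) (h : ∀ k, ∀ l ∈ mlW k, c k ≤ 0 ∨ ∃ s ∈ l, c k ≤ c s) :
    c ∈ coneM Ma := by
  rw [hM.cone]
  intro k _ l hl _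
  rcases h k l hl with h1 | ⟨s, hs, h1⟩
  · exact h1.trans (sum_nn h0 l)
  · exact h1.trans (sum_ge h0 hs)

theorem leg_dom {Ma : Mons 18} {Dr : Set (Fin 18)} (hM : ActM Ma Dr) {c0 : Fin 18 → ℝ} {R : ℝ}
    {c : Fin 18 → ℝ} (h0 : ∀ k, 0 ≤ c k) (hR : ∀ k, c k ≤ R)
    (h : ∀ k, ∀ l ∈ mlW k, c k ≤ 0 ∨ ∃ s ∈ l, c k ≤ c s) : c ∈ Leg (offM Ma c0 R) R := by
  refine ⟨⟨h0, fun k e he => ?_⟩, hR⟩
  obtain ⟨h1, _⟩ := mem_offM.1 he
  obtain ⟨hk, l, hl, hs, rfl⟩ := (hM.iff k e).1 h1
  rw [← sum_count]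
  rcases h k l hl with h1 | ⟨s, hs, h1⟩
  · exact h1.trans (sum_nn h0 l)
  · exact h1.trans (sum_ge h0 hs)

/-! ### the loss of `c` -/

/-- `c : t`, slots of `c`-weight `≥ 2` at `3 y` -/
def wI (y t : ℝ) : Fin 18 → ℝ := fun k => if k = 1 then t else if k ∈ Z9 then 3 * y else 0

theorem domZ : ∀ k ∈ Z9, ∀ l ∈ mlW k, ∃ s ∈ l, s ∈ Z9 := by decide
theorem one_Z9 : (1 : Fin 18) ∉ Z9 := by decide

theorem wI_nonneg {y t : ℝ} (hy : 0 ≤ y) (ht : 0 ≤ t) (k : Fin 18) : 0 ≤ wI y t k := by
  unfold wI; split_ifs <;> first | exact ht | exact le_rfl | positivity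

theorem wI_mem {Ma : Mons 18} {Dr : Set (Fin 18)} (hM : ActM Ma Dr) {y t : ℝ} (hy : 0 ≤ y)
    (ht : 0 ≤ t) : wI y t ∈ coneM Ma := by
  refine mem_dom hM (wI_nonneg hy ht) fun k l hl => ?_
  by_cases h1 : k = 1
  · subst h1
    have : mlW 1 = [] := by decide
    rw [this] at hl; exact absurd hl (List.not_mem_nil)
  by_cases hZ : k ∈ Z9
  · obtain ⟨s, hs, hsZ⟩ := domZ k hZ l hl
    have hs1 : s ≠ 1 := fun e => one_Z9 (e ▸ hsZ)
    right
    refine ⟨s, hs, ?_⟩
    simp [wI, h1, hZ, hs1, hsZ]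
  · left
    simp [wI, h1, hZ]

section pt

variable {B Bo : Base} {I J : ∀ n : ℕ, Finset (ℕ × ℝ)}
  {co : ∀ n : ℕ, ℕ × ℝ → ℕ × ℝ → Fin 18 → ℝ} {κ : ℕ → ℝ} {u : ℕ → Fin 18 → ℝ}
  {f : ∀ n : ℕ, ℕ × ℝ → FW} {C : ℝ}
  {lam : (Fin 18 → ℝ) → ℝ} {A : ℝ × ℝ} {φ : ℕ → (Fin 18 → ℝ) → ℝ}
  {r : ℕ → ℝ}

/-- **the slot `c` costs something**, given the slots of `c`-weight `≥ 2` at `3 y` -/
theorem exists_closs {Ma : Mons 18} {Dr : Set (Fin 18)} {a b κ' : Fin 18 → ℝ}
    {V' Tw : Fin 18 → Prop}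
    (h : PtB B Bo I J co κ u f Ma Dr C lam a b A φ r κ' V' Tw)
    (hG : BasG lam Ma Dr a b V') {y : ℝ} (hy : 0 < y) :
    ∃ N : ℕ, lam (wI y ((N + 1 : ℕ) * y)) < lam (wI y (N * y)) := by
  by_contra hcon
  push Not at hcon
  have hM := h.act
  have key : ∀ M : ℕ, lam (wI y 0) ≤ lam (wI y (M * y)) := by
    intro M
    induction M with
    | zero => simp
    | succ M ih => exact ih.trans (hcon M)
  obtain ⟨mm, hm, hsw⟩ := hG.sweep
  set S0 : ℝ := ∑ s, (wI y 0 s - (0 : Fin 18 → ℝ) s) with hS0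
  have h0 : -S0 ≤ lam (wI y 0) := by
    have := h.aew.sharp 0 zero_mem _ (wI_mem hM hy.le le_rfl) fun k => wI_nonneg hy.le le_rfl k
    rw [h.aew.zero] at this
    linarith
  have hmy : 0 < mm * y := mul_pos hm hy
  obtain ⟨M, hMb⟩ := exists_nat_gt (S0 / (mm * y))
  rw [div_lt_iff₀ hmy] at hMb
  have hMy : (0 : ℝ) ≤ M * y := by positivity
  have m1 : v4 0 (M * y) 0 0 ∈ coneM Ma := v4_mem hM le_rfl hMy le_rfl le_rfl (by linarith)
    (by linarith) (by linarith)
  have e1 : (0 : Fin 18 → ℝ) + (M * y) • e1W = v4 0 (M * y) 0 0 := by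
    funext k
    simp only [Pi.add_apply, Pi.smul_apply, smul_eq_mul, Pi.zero_apply, zero_add]
    by_cases hk : k = 1
    · subst hk
      have : e1W 1 = 1 := by simp [e1W]
      rw [this, mul_one, v4_1]
    · have : e1W k = 0 := by unfold e1W; rw [Pi.single_eq_of_ne hk]
      rw [this, mul_zero]
      simp [v4, hk]
  have h1 := hsw 0 zero_mem rfl (fun i _ _ => le_rfl) (M * y) hMy
  rw [e1, h.aew.zero] at h1
  have h2 := h.aew.anti _ m1 _ (wI_mem hM hy.le hMy) (by
    intro k
    by_cases hk : k = 1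
    · subst hk; rw [v4_1]; simp [wI]
    · have : v4 0 (M * y) 0 0 k = 0 := by simp [v4, hk]
      rw [this]
      exact wI_nonneg hy.le hMy k)
  have h3 := key M
  nlinarith

variable {K : ℝ} {θ q : Fin 3 → ℝ} {V T : Set (Fin 18)} {s : ℝ} {lo : (Fin 18 → ℝ) → ℝ}

/-- the visible slots of the rung -/
theorem vis1215 (h : PtC B Bo I J co C κ u f K θ q V T s lam lo A φ r) (hs : 2 < s)
    (hK : KW θ 15 = s) {k : Fin 18} (hk : k ∈ V ∧ KW θ k = s) : k = 12 ∨ k = 15 := by
  have h4 := (h.vis k hk.1).1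
  have h1 := KW_sub hK h4
  rw [hk.2, sub_self] at h1
  have h2 : ((wc k : ℝ) + 1) = 0 := by
    have := h.th1
    have h3 : ((wc k : ℝ) + 1) * θ 1 = 0 := by linarith
    rcases mul_eq_zero.1 h3 with h4 | h4
    · exact h4
    · exact absurd h4 this.ne'
  rcases flags3 k h4 with (rfl | rfl | rfl) | h3 | ⟨h3, _⟩
  · rw [wcs.1] at h2; norm_num at h2
  · rw [wcs.2.1] at h2; norm_num at h2
  · rw [wcs.2.2.1] at h2; norm_num at h2
  · exact h3
  · have : ((wc k : ℤ) : ℝ) ≤ -2 := by exact_mod_cast h3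
    linarith

set_option maxHeartbeats 1000000 in
/-- **the rate of `P` is positive** (one window, `t` = offset of the slot `12`) -/
theorem rateP_core (h : PtC B Bo I J co C κ u f K θ q V T s lam lo A φ r) (hs : 2 < s)
    (hK : KW θ 15 = s) (t : ℕ) (hd : WDat (bI t) n1 1 SI) (okP : OkV (bI t) 1 nP)
    (okT : OkV (bI t) 1 nT) (okR : OkV (bI t) 1 nR)
    (ht : ∀ k, (k ∈ V ∧ KW θ k = s) → bI t k = 0)
    (hraw : ∀ (N : ℕ) (W : Wnd 18 fun _ => ℕ × ℝ) (E : ∀ n : ℕ, Finset (ℕ × ℝ)),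
      WinB (mA monW (actW (DrW s))) (DrW s) κ u f lam (fun k => k ∈ T ∧ k ∈ V ∧ KW θ k = s)
        (fun k => bI t k + N * eI k) n1 1 SI 1 W E → RawTwI W.B' (W.cfg E) (phiP W u)) :
    0 < r (gC (TW s) (btW θ) 16) / TW s 16 := by
  have hP := ptB_of h
  have hG := basG_of h
  have hM := hP.act
  obtain ⟨N, hN⟩ := exists_closs hP hG (y := 1) one_pos
  set n0 : Fin 18 → ℕ := fun k => bI t k + N * eI k with hn0
  have hdN : WDat n0 n1 1 SI := wdat_lin eI_nat rfl hd N
  obtain ⟨W, E, g⟩ := hP.win hdN (y := 1) one_pos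
    (fun i j e hi => (grS h.th1 hs hK i j e hi).imp id Or.inr)
    (fun k hk => by
      have e1 := ht k hk
      have e2 : eI k = 0 := by rcases vis1215 h hs hK hk with rfl | rfl <;> decide
      rw [hn0]
      simp only [e1, e2, mul_zero, add_zero])
    (fun k hk => by
      left
      rcases vis1215 h hs hK hk with rfl | rfl <;> decide)
  have htw := hraw N W E g
  have cutn : ∀ n : Fin 18 → ℕ, (∀ k ∈ SI, n k = 1) → cut W.S (scV 1 n) W.top = scV 1 n := by
    intro n hn
    rw [g.eS, g.etop]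
    funext k
    by_cases hk : k ∈ SI
    · rw [cut_of_mem hk]
      simp [scV, hn k hk, n1]
    · rw [cut_of_notMem hk]
  have leg : ∀ n : Fin 18 → ℕ, OkV (bI t) 1 n → (∀ k ∈ SI, n k = 1) → scV 1 n ∈ W.legW := by
    intro n hn hS
    constructor
    · rw [cutn n hS, g.eMw, g.eR]
      exact leg_one hM (okV_lin eI_nat hn N) zero_le_one
    · intro k _
      rw [g.etop]
      have : (n k : ℝ) ≤ 1 := by exact_mod_cast hn.1 k
      simp only [scV, n1]
      push_cast
      linarith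
  have nuv : ∀ n : Fin 18 → ℕ, (∀ k ∈ SI, n k = 1) → W.nu (scV 1 n) =
      lam (scV 1 n0 + scV 1 n) - lam (scV 1 n0 + scV 1 n1) := by
    intro n hS
    unfold Wnd.nu
    rw [cutn n hS, g.elam, g.etop]
    ring
  have mem : ∀ n : Fin 18 → ℕ, OkV (bI t) 1 n → scV 1 n0 + scV 1 n ∈
      coneM (mA monW (actW (DrW s))) := fun n hn =>
    leg_coneN hM hdN.off zero_le_one (leg_one hM (okV_lin eI_nat hn N) zero_le_one)
  have sP : ∀ k ∈ SI, nP k = 1 := by decide
  have s1 : ∀ k ∈ SI, n1 k = 1 := by decide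
  have sT : ∀ k ∈ SI, nT k = 1 := by decide
  have sR : ∀ k ∈ SI, nR k = 1 := by decide
  have hle : ∀ {n n' : Fin 18 → ℕ}, (∀ k, n k ≤ n' k) → ∀ k, scV 1 n k ≤ scV 1 n' k := by
    intro n n' hn k
    have : (n k : ℝ) ≤ n' k := by exact_mod_cast hn k
    simp only [scV]; linarith
  have key := rowP_shift g.ww g.ev g.mod (y := 1)
    (fun k => by rw [g.etop]; simp [scV, n1])
    (fun ε _ => Eventually.of_forall fun n i k k' _ _ v hv h0 h12 h15 => by
      rw [g.eS] at hv
      have : v = 0 ∨ v = 12 ∨ v = 15 := by simpa [SI] using hv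
      rcases this with e | e | e
      · exact absurd e h0
      · exact absurd e h12
      · exact absurd e h15)
    htw (scV 1 nP) (scV 1 n1) (scV 1 nT) (scV 1 nR) (leg nP okP sP) (leg n1 hd.top s1)
    (leg nT okT sT) (leg nR okR sR) (hle (by decide)) (by simp [scV, n1])
    (fun j hj => by
      have : ∀ j : Fin 18, j ≠ 1 → n1 j ≤ nP j := by decide
      have h2 : ((n1 j : ℕ) : ℝ) ≤ nP j := by exact_mod_cast this j hj
      simp only [scV]; linarith)
    (fun v _ hv => by
      have : ∀ j : Fin 18, j ≠ 1 → 1 ≤ nP j := by decide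
      have h2 : (1 : ℝ) ≤ nP v := by exact_mod_cast this v hv
      simp only [scV]; linarith)
    (fun v hv => by
      have : nT v = 0 := by
        rcases hv with rfl | rfl | rfl | rfl | rfl | rfl <;> decide
      simp [scV, this])
    (fun v _ => by
      have : ∀ j : Fin 18, nT j ≤ 1 := by decide
      have h2 : (nT v : ℝ) ≤ 1 := by exact_mod_cast this v
      simp only [scV]; linarith)
    (by
      have : nR 16 = 1 := by decide
      simp [scV, this])
  rw [nuv nP sP, nuv n1 s1, nuv nT sT, nuv nR sR] at key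
  -- the loss of `c`
  have hc : lam (scV 1 n0 + scV 1 nP) - lam (scV 1 n0 + scV 1 n1) =
      lam (wI 1 (N * 1)) - lam (wI 1 ((N + 1 : ℕ) * 1)) := by
    have b1 : bI t 1 = 0 := rfl
    have e1 : eI 1 = 1 := rfl
    refine hP.slot (i := 1) (mem nP okP) (mem n1 hd.top)
      (wI_mem hM zero_le_one (by positivity)) (wI_mem hM zero_le_one (by positivity))
      (fun j hj _ => ?_) (fun j hj _ => ?_) ?_ ?_ (fun j e hj hD => ?_)
    · have : nP j = n1 j := by
        have : ∀ j : Fin 18, j ≠ 1 → nP j = n1 j := by decide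
        exact this j hj
      simp [scV, this]
    · simp [wI, hj]
    · have : nP 1 = 0 := rfl
      simp only [Pi.add_apply, scV, hn0, b1, e1, this, wI, if_true]
      push_cast; ring
    · have : n1 1 = 1 := rfl
      simp only [Pi.add_apply, scV, hn0, b1, e1, this, wI, if_true]
      push_cast; ring
    · have hZ := gr1 (θ := θ) hs j e hj hD
      have b2 : bI t j = 2 := if_pos hZ
      have e2 : eI j = 0 := by
        have : ∀ j ∈ Z9, eI j = 0 := by decide
        exact this j hZ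
      have n2 : nP j = 1 := by
        have : ∀ j ∈ Z9, nP j = 1 := by decide
        exact this j hZ
      simp only [Pi.add_apply, scV, hn0, b2, e2, n2, wI, if_neg hj, if_pos hZ]
      push_cast; ring
  -- the loss of `P`
  have hPl : lam (scV 1 n0 + scV 1 nT) - lam (scV 1 n0 + scV 1 nR) =
      r (gC (TW s) (btW θ) 16) / TW s 16 * ((scV 1 n0 + scV 1 nR) 16 -
        (scV 1 n0 + scV 1 nT) 16) := by
    refine hP.single (i := 16) ?_ (not_Dr hs (by decide)) (gr16 h.th1 hs hK) (mem nT okT)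
      (mem nR okR) (fun j hj _ => ?_)
    · rw [(TWk hs).1]; linarith
    · have : nT j = nR j := by
        have : ∀ j : Fin 18, j ≠ 16 → nT j = nR j := by decide
        exact this j hj
      simp [scV, this]
  have e16 : (scV 1 n0 + scV 1 nR) 16 - (scV 1 n0 + scV 1 nT) 16 = 1 := by
    have a1 : nR 16 = 1 := rfl
    have a2 : nT 16 = 0 := rfl
    simp only [Pi.add_apply, scV, a1, a2]
    push_cast; ring
  rw [e16, mul_one] at hPl
  linarith

/-! ### the raw twist -/

theorem cap12 : ∀ l ∈ mlW 12, ∃ a ∈ l, a = 1 ∨ a = 2 ∨ a = 3 := by decide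
theorem cap15 : ∀ l ∈ mlW 15, (∃ a ∈ l, a = 1 ∨ a = 2 ∨ a = 3) ∨ 12 ∈ l := by decide

/-- dominant slots: `12` is tied or `12` is invisible and `15` is tied -/
theorem tied_cases (hS : SlotOkW θ (fun k => k ∈ V) (fun k => k ∈ T)) (hθ : 0 < θ 1)
    (hs : 2 < s) (hK : KW θ 15 = s)
    (hV : ∃ k, k ∈ V ∧ KW θ k = s) : (12 ∈ V ∧ 12 ∈ T) ∨ (12 ∉ V ∧ 15 ∈ V ∧ 15 ∈ T) := by
  have hnot : ∀ a : Fin 18, (a = 1 ∨ a = 2 ∨ a = 3) → ¬ (a = 0 ∨ a ∈ V) := by
    intro a ha h0
    rcases h0 with h0 | h0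
    · rcases ha with rfl | rfl | rfl <;> exact absurd h0 (by decide)
    · have := (hS.vis a h0).1.1
      rcases ha with rfl | rfl | rfl <;> exact absurd this (by decide)
  have c12 : 12 ∈ V → 12 ∈ T := by
    intro h
    by_contra hT
    obtain ⟨l, hl, hl2⟩ := hS.cap 12 h hT
    obtain ⟨a, ha, h1⟩ := cap12 l hl
    exact hnot a h1 (hl2 a ha)
  by_cases h12 : 12 ∈ V
  · exact Or.inl ⟨h12, c12 h12⟩
  right
  obtain ⟨k, hk, hkK⟩ := hV
  have hk4 := (hS.vis k hk).1.1
  have h1 := KW_sub hK hk4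
  rw [hkK, sub_self] at h1
  have h2 : ((wc k : ℝ) + 1) = 0 := by
    have h3 : ((wc k : ℝ) + 1) * θ 1 = 0 := by linarith
    rcases mul_eq_zero.1 h3 with h4 | h4
    · exact h4
    · exact absurd h4 hθ.ne'
  have hk15 : k = 15 := by
    rcases flags3 k hk4 with (rfl | rfl | rfl) | (rfl | rfl) | ⟨h3, _⟩
    · rw [wcs.1] at h2; norm_num at h2
    · rw [wcs.2.1] at h2; norm_num at h2
    · rw [wcs.2.2.1] at h2; norm_num at h2
    · exact absurd hk h12
    · rfl
    · have : ((wc k : ℤ) : ℝ) ≤ -2 := by exact_mod_cast h3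
      linarith
  subst hk15
  refine ⟨h12, hk, ?_⟩
  by_contra hT
  obtain ⟨l, hl, hl2⟩ := hS.cap 15 hk hT
  rcases cap15 l hl with ⟨a, ha, h1⟩ | h1
  · exact hnot a h1 (hl2 a ha)
  · rcases hl2 12 h1 with h2 | h2
    · exact absurd h2 (by decide)
    · exact h12 h2

/-- KW of the slots `12`, `15` -/
theorem KW12 (hK : KW θ 15 = s) : KW θ 12 = s := by
  have h1 := KW_sub hK (k := 12) (by decide)
  rw [wcs.2.2.2.1] at h1
  push_cast at h1
  linarith

/-- an integer vector with a parameter is in the cone -/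
theorem mem_lin {Ma : Mons 18} {Dr : Set (Fin 18)} (hM : ActM Ma Dr) {b e : Fin 18 → ℕ}
    (hb : ∀ k, ∀ l ∈ mlW k, b k ≤ (l.map b).sum) (he : ∀ k, ∀ l ∈ mlW k, e k ≤ (l.map e).sum)
    (N : ℕ) : scV 1 (fun k => b k + N * e k) ∈ coneM Ma := by
  rw [hM.cone]
  intro k _ l hl _
  rw [sum_scV, sum_lin]
  have h1 := Nat.add_le_add (hb k l hl) (Nat.mul_le_mul_left N (he k l hl))
  have h2 : ((b k + N * e k : ℕ) : ℝ) ≤ (((l.map b).sum + N * (l.map e).sum : ℕ) : ℝ) := by
    exact_mod_cast h1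
  simp only [scV, one_mul]
  exact h2

/-- offset + tops + the level slot `v` -/
def bv (t : ℕ) (v : Fin 18) : Fin 18 → ℕ := fun k => if k ∈ SI then
  (if k = v then bI t k + 1 else bI t k) else bI t k + 1

theorem bv12 : ∀ k, ∀ l ∈ mlW k, bv 0 12 k ≤ (l.map (bv 0 12)).sum := by decide
theorem bv15 : ∀ k, ∀ l ∈ mlW k, bv 1 15 k ≤ (l.map (bv 1 15)).sum := by decide

theorem bv_eq (t N : ℕ) (v : Fin 18) :
    scV 1 (fun k => bI t k + N * eI k) + cut SI (scV 1 n1) (Pi.single v 1) =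
      scV 1 (fun k => bv t v k + N * eI k) ∨ v ∉ SI := by
  by_cases hv : v ∈ SI
  · left
    funext k
    rw [Pi.add_apply]
    by_cases hk : k ∈ SI
    · rw [cut_of_mem hk]
      by_cases hkv : k = v
      · subst hkv
        simp only [scV, bv, if_pos hk, if_true, Pi.single_eq_same]
        push_cast; ring
      · rw [Pi.single_eq_of_ne hkv]
        simp only [scV, bv, if_pos hk, if_neg hkv]
        push_cast; ring
    · rw [cut_of_notMem hk]
      simp only [scV, bv, if_neg hk, n1]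
      push_cast; ring
  · exact Or.inr hv

/-- **the rate of `P` is positive** -/
theorem rateP_pos (h : PtC B Bo I J co C κ u f K θ q V T s lam lo A φ r) (hs : 2 < s)
    (hK : KW θ 15 = s) (hc : (12 ∈ V ∧ 12 ∈ T) ∨ (12 ∉ V ∧ 15 ∈ V ∧ 15 ∈ T)) :
    0 < r (gC (TW s) (btW θ) 16) / TW s 16 := by
  have hD : ∀ k : Fin 18, alW k ≤ 2 → k ∉ DrW s := fun k hk => not_Dr hs hk
  have hD4 : ∀ k : Fin 18, ¬ 4 ≤ k → k ∉ DrW s := fun k hk hm => hk hm.1
  rcases hc with ⟨h1, h2⟩ | ⟨h1, h2, h3⟩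
  · refine rateP_core h hs hK 0 wdI0 okP0 okT0 okR0 (fun k hk => ?_) fun N W E g => ?_
    · rcases vis1215 h hs hK hk with rfl | rfl <;> decide
    · have hR : RawL W E 12 := g.tw 12 (by decide) ⟨h2, h1, KW12 hK⟩ (by decide) (by
        have a1 : bI 0 12 = 0 := by decide
        have a2 : eI 12 = 0 := by decide
        simp only [a1, a2, mul_zero, add_zero]) ⟨1, one_pos, by
        rcases bv_eq 0 N 12 with e | e
        · rw [e]
          exact mem_lin (actM_mA _) bv12 eI_nat N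
        · exact absurd (by decide) e⟩
      refine twPa g.ww g.ev g.mod one_pos hR one_pos (fun k => by rw [g.etop]; simp [scV, n1])
        (Eventually.of_forall fun n => ?_)
      have := g.tight 16 (hD 16 (by decide)) [1, 0, 12] (by decide) (fun a ha => by
        have : a = 1 ∨ a = 0 ∨ a = 12 := by simpa using ha
        rcases this with rfl | rfl | rfl
        · exact hD4 _ (by decide)
        · exact hD4 _ (by decide)
        · exact hD _ (by decide)) (by
        show bI 0 16 + N * eI 16 = _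
        rw [sum_lin]
        have a1 : bI 0 16 = (([1, 0, 12] : List (Fin 18)).map (bI 0)).sum := by decide
        have a2 : eI 16 = (([1, 0, 12] : List (Fin 18)).map eI).sum := by decide
        rw [a1, a2]) n
      simpa using this
  · refine rateP_core h hs hK 1 wdI1 okP1 okT1 okR1 (fun k hk => ?_) fun N W E g => ?_
    · rcases vis1215 h hs hK hk with rfl | rfl
      · exact absurd hk.1 h1
      · decide
    · have hR : RawL W E 15 := g.tw 15 (by decide) ⟨h3, h2, hK⟩ (by decide) (by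
        have a1 : bI 1 15 = 0 := by decide
        have a2 : eI 15 = 0 := by decide
        simp only [a1, a2, mul_zero, add_zero]) ⟨1, one_pos, by
        rcases bv_eq 1 N 15 with e | e
        · rw [e]
          exact mem_lin (actM_mA _) bv15 eI_nat N
        · exact absurd (by decide) e⟩
      refine twPI g.ww g.ev hR one_pos (fun k => by rw [g.etop]; simp [scV, n1])
        (Eventually.of_forall fun n => ?_)
      have := g.tight 16 (hD 16 (by decide)) [1, 15] (by decide) (fun a ha => by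
        have : a = 1 ∨ a = 15 := by simpa using ha
        rcases this with rfl | rfl
        · exact hD4 _ (by decide)
        · exact hD _ (by decide)) (by
        show bI 1 16 + N * eI 16 = _
        rw [sum_lin]
        have a1 : bI 1 16 = (([1, 15] : List (Fin 18)).map (bI 1)).sum := by decide
        have a2 : eI 16 = (([1, 15] : List (Fin 18)).map eI).sum := by decide
        rw [a1, a2]) n
      simpa using this

/-! ### the height link `P → N` -/

def D5 : Finset (Fin 18) := {0, 1, 2, 3, 13}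
/-- tops of the window of the height link -/
def nN : Fin 18 → ℕ := fun k => if k ∈ D5 ∨ k = 16 ∨ k = 17 then 1 else 0
theorem wdN : WDat (fun _ => 0) nN 1 {0} := by decide
theorem domN : ∀ k : Fin 18, k ∈ D5 ∨ k = 16 ∨ k = 17 → ∀ l ∈ mlW k, ∃ a ∈ l, a ∈ D5 := by decide
/-- base box of the height link -/
def bN : Fin 18 → ℝ := fun k => if k = 1 ∨ k = 2 ∨ k = 3 ∨ k = 13 then 1 else 0
/-- the boxes of the height link -/
def cN (t w : ℝ) : Fin 18 → ℝ :=
  fun k => if k = 16 then t else if k = 17 then w else if k ∈ D5 then 1 else 0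

theorem cN_o (t w : ℝ) {k : Fin 18} (h1 : k ≠ 16) (h2 : k ≠ 17) :
    cN t w k = if k ∈ D5 then 1 else 0 := by simp [cN, h1, h2]

theorem cN_nonneg {t w : ℝ} (ht : 0 ≤ t) (hw : 0 ≤ w) (k : Fin 18) : 0 ≤ cN t w k := by
  unfold cN; split_ifs <;> first | exact ht | exact hw | exact zero_le_one | exact le_rfl

theorem cN_le {t w : ℝ} (ht : t ≤ 1) (hw : w ≤ 1) (k : Fin 18) : cN t w k ≤ 1 := by
  unfold cN; split_ifs <;> first | exact ht | exact hw | exact zero_le_one | exact le_rfl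

theorem cN_dom {t w : ℝ} (ht : t ≤ 1) (hw : w ≤ 1) (k : Fin 18) :
    ∀ l ∈ mlW k, cN t w k ≤ 0 ∨ ∃ a ∈ l, cN t w k ≤ cN t w a := by
  intro l hl
  by_cases h : k ∈ D5 ∨ k = 16 ∨ k = 17
  · obtain ⟨a, ha, haD⟩ := domN k h l hl
    have h16 : a ≠ 16 := by rintro rfl; exact absurd haD (by decide)
    have h17 : a ≠ 17 := by rintro rfl; exact absurd haD (by decide)
    right
    refine ⟨a, ha, ?_⟩
    rw [cN_o t w h16 h17, if_pos haD]
    exact cN_le ht hw k
  · push Not at h
    left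
    rw [cN_o t w h.2.1 h.2.2, if_neg h.1]

theorem cut_bN (t w : ℝ) : cut {0} (b2 bN 16 17 t w) (scV 1 nN) = cN t w := by
  funext k
  by_cases h0 : k = 0
  · subst h0
    rw [cut_of_mem (by simp), cN_o t w (by decide) (by decide)]
    have : nN 0 = 1 := by decide
    simp [scV, this, D5]
  · rw [cut_of_notMem (by rw [mem_singleton]; exact h0)]
    unfold b2 cN bN
    by_cases h16 : k = 16
    · simp [h16]
    · by_cases h17 : k = 17
      · simp [h17]
      · rw [if_neg h16, if_neg h17, if_neg h16, if_neg h17]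
        congr 1
        simp [D5, h0]

set_option maxHeartbeats 1000000 in
/-- **the rate of `N` is full** -/
theorem rateN_one (h : PtC B Bo I J co C κ u f K θ q V T s lam lo A φ r) (hs : 2 < s)
    (hK : KW θ 15 = s) (hr : 0 < r (gC (TW s) (btW θ) 16) / TW s 16) :
    1 ≤ r (gC (TW s) (btW θ) 17) / TW s 17 := by
  have hP := ptB_of h
  have hM := hP.act
  obtain ⟨W, E, g⟩ := hP.win wdN (y := 1) one_pos
    (fun i j e hi => by
      have hi' : i ∈ SI := by rw [mem_singleton] at hi; subst hi; decide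
      rcases grS h.th1 hs hK i j e hi' with h1 | h1
      · have : j = 0 ∨ j = 12 ∨ j = 15 := by simpa [SI] using h1
        rcases this with rfl | rfl | rfl
        · exact Or.inl (mem_singleton_self _)
        · exact Or.inr (Or.inl (by decide))
        · exact Or.inr (Or.inl (by decide))
      · exact Or.inr (Or.inr h1))
    (fun _ _ => rfl)
    (fun k hk => by
      right
      rcases vis1215 h hs hK hk with rfl | rfl <;> decide)
  have topv : ∀ k, k ∈ D5 ∨ k = 16 ∨ k = 17 → W.top k = 1 := by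
    intro k hk
    rw [g.etop]
    simp [scV, nN, hk]
  have leg : ∀ t w : ℝ, 0 ≤ t → t ≤ 1 → 0 ≤ w → w ≤ 1 → b2 bN 16 17 t w ∈ W.legW := by
    intro t w ht ht1 hw hw1
    constructor
    · rw [g.eS, g.etop, g.eMw, g.eR, cut_bN, Nat.cast_one, mul_one]
      exact leg_dom hM (cN_nonneg ht hw) (cN_le ht1 hw1) (cN_dom ht1 hw1)
    · intro k hk
      by_cases h16 : k = 16
      · subst h16; rw [b2_F, topv 16 (by decide)]; exact ht1
      by_cases h17 : k = 17
      · subst h17; rw [b2_N (by decide), topv 17 (by decide)]; exact hw1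
      rw [b2_o h16 h17]
      unfold bN
      split_ifs with hb
      · rw [topv k (by left; rcases hb with rfl | rfl | rfl | rfl <;> decide)]
      · rw [g.etop]; simp only [scV]; positivity
  have nuv : ∀ t w : ℝ, W.nu (b2 bN 16 17 t w) = lam (cN t w) - lam (scV 1 nN) := by
    intro t w
    unfold Wnd.nu
    rw [g.eS, g.etop, g.elam, cut_bN, scV_zero]
    simp only [zero_add]
    ring
  have mem : ∀ t w : ℝ, 0 ≤ t → t ≤ 1 → 0 ≤ w → w ≤ 1 →
      cN t w ∈ coneM (mA monW (actW (DrW s))) := fun t w ht ht1 hw hw1 =>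
    mem_dom hM (cN_nonneg ht hw) (cN_dom ht1 hw1)
  have l16 : ∀ j w : ℝ, 0 ≤ j → j ≤ 1 → 0 ≤ w → w ≤ 1 → lam (cN 0 w) - lam (cN j w) =
      r (gC (TW s) (btW θ) 16) / TW s 16 * j := by
    intro j w hj hj1 hw hw1
    have := hP.single (i := 16) (by rw [(TWk hs).1]; linarith) (not_Dr hs (by decide))
      (gr16 h.th1 hs hK) (mem 0 w le_rfl zero_le_one hw hw1) (mem j w hj hj1 hw hw1)
      (fun k hk _ => by simp [cN, hk])
    rw [this]
    simp [cN]
  have l17 : lam (cN 0 0) - lam (cN 0 1) = r (gC (TW s) (btW θ) 17) / TW s 17 := by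
    have := hP.single (i := 17) (by rw [(TWk hs).2.1]; linarith) (not_Dr hs (by decide))
      (gr17 h.th1 hs hK) (mem 0 0 le_rfl zero_le_one le_rfl zero_le_one)
      (mem 0 1 le_rfl zero_le_one zero_le_one le_rfl)
      (fun k hk _ => by simp [cN, hk])
    rw [this]
    simp [cN]
  have hb : HtBox W {0, 1, 2, 3, 13} {1, 2, 3, 13, 17} {13} 12 13 bN (fun _ => 0) 1 := by
    refine ⟨?_, ?_, ?_, ?_, fun _ => le_rfl, rfl, ?_, ?_, ?_, ?_, ?_, ?_⟩
    · rw [g.eS]; decide
    · rw [g.eS]; decide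
    · intro k; unfold bN; split_ifs <;> norm_num
    · intro k; rw [g.etop]; simp only [scV]; positivity
    · intro k hk hkS
      rw [g.eS, mem_singleton] at hkS
      have : k = 1 ∨ k = 2 ∨ k = 3 ∨ k = 13 := by
        have : k = 0 ∨ k = 1 ∨ k = 2 ∨ k = 3 ∨ k = 13 := by simpa using hk
        exact this.resolve_left hkS
      simp [bN, this]
    · intro k hk _
      rw [topv k (Or.inl hk)]
    · intro k hk _
      have : k = 1 ∨ k = 2 ∨ k = 3 ∨ k = 13 ∨ k = 17 := by simpa using hk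
      rw [topv k (by rcases this with rfl | rfl | rfl | rfl | rfl <;> decide)]
    · intro k hk hkS
      rw [g.eS, mem_singleton] at hkS
      subst hkS
      exact absurd hk (by decide)
    · intro k hk hkS h1 h2
      have : ¬ (k = 1 ∨ k = 2 ∨ k = 3 ∨ k = 13) := by
        rintro (rfl | rfl | rfl | rfl) <;> exact hk (by decide)
      simp [bN, this]
    · intro q' hq' _
      have : ∀ q' : Fin 14, Fin.natAdd 4 q' ∈ ({0, 1, 2, 3, 13} : Finset (Fin 18)) →
          Fin.natAdd 4 q' ∈ ({13} : Finset (Fin 18)) := by decide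
      exact this q' hq'
  have hcf := cHt_ok g.ww ht_P_N_coarse.wall one_ne_zero (fun h0 => absurd rfl h0)
    (Eventually.of_forall fun n => by
      have := g.tight 17 (not_Dr hs (by decide)) [0, 16] (by decide) (fun a ha => by
        have : a = 0 ∨ a = 16 := by simpa using ha
        rcases this with rfl | rfl
        · exact fun hm => absurd hm.1 (by decide)
        · exact not_Dr hs (by decide)) rfl n
      simpa using this)
  have main : ∀ j : ℝ, 0 < j → j ≤ 1 → 1 - j ≤ r (gC (TW s) (btW θ) 17) / TW s 17 := by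
    intro j hj hj1
    have := ht_P_N_coarse.pos g.ww g.ev g.mod hb (x := 1) (j := j) one_pos le_rfl le_rfl hj.le hj1
      (fun t h0 h1 => leg t 1 h0 h1 zero_le_one le_rfl)
      (fun t h0 h1 => leg t t h0 h1 h0 h1) (OwnV.zero W E fun _ _ => le_rfl) hcf
      (by
        have e := l16 j 1 hj.le hj1 zero_le_one le_rfl
        have e2 := mul_pos hr hj
        have e3 := nuv j 1
        have e4 := nuv 0 1
        show W.nu (b2 bN 16 17 j 1) < W.nu (b2 bN 16 17 0 1)
        rw [e3, e4]; linarith)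
    have this' : 1 - j ≤ W.nu (b2 bN 16 17 0 0) - W.nu (b2 bN 16 17 0 1) := this
    rw [nuv, nuv] at this'
    linarith
  refine le_of_forall_pos_le_add fun j hj => ?_
  rcases le_or_gt j 1 with h1 | h1
  · have := main j hj h1; linarith
  · have := main 1 one_pos le_rfl; linarith

/-- **full loss** -/
theorem full_hi1 (h : PtC B Bo I J co C κ u f K θ q V T s lam lo A φ r)
    (hS : SlotOkW θ (fun k => k ∈ V) (fun k => k ∈ T)) (hs : 2 < s)
    (hK : KW θ 15 = s) (hV : ∃ k, k ∈ V ∧ KW θ k = s) : 3 + s ≤ -A.1 := by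
  have hr := rateN_one h hs hK (rateP_pos h hs hK (tied_cases hS h.th1 hs hK hV))
  refine conc_ptC h h.ne h.q1 h.q2 (x := s) (Cc := 0) (Filter.Eventually.frequently ?_)
  filter_upwards [eventually_gt_atTop 0] with t ht
  have hP := ptB_of h
  have m0 := ray_mem s t
  have m1 := upd17_mem hP.act m0 fun k => by
    simp only [Pi.smul_apply, smul_eq_mul]
    exact mul_nonneg ht.le (TW_nonneg h.s0.le k)
  have e := hP.single (i := 17) (by rw [(TWk hs).2.1]; linarith) (not_Dr hs (by decide))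
    (gr17 h.th1 hs hK) m1 m0 (fun j hj _ => by rw [Function.update_of_ne hj])
  rw [Function.update_self, Pi.smul_apply, smul_eq_mul, (TWk hs).2.1] at e
  rw [e]
  have h2 : 0 ≤ t * s := by positivity
  rw [(TWk hs).2.1] at hr
  nlinarith

end pt

/-- **row `deadhi1`** : `K > 2`, the dominant slots have `c`-weight `1` -/
theorem deadhi1 : DeadC fun g θ V s => Top θ (fun k => k ∈ V) s ∧ 2 < s ∧ KW θ 15 = s := by
  refine ThB830.deadC_of (fun g θ V s h => ⟨by linarith [h.2.1], h.1.2⟩) ?_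
  intro P ν own K r0 θ g q V T s h hp
  have hg := h.g0
  refine ⟨g / 2, by linarith, fun B Bo I J co C κ u f lam lo A φ r hP => ?_⟩
  obtain ⟨⟨hV, -⟩, hs, hK⟩ := hp
  have h1 := full_hi1 hP h.slots hs hK hV
  have h2 := ThB830.full_enough (g := g) (q := q) (C := 0) (s := s) (A := A) (by linarith)
  have h3 := h.qt
  have h4 : s - 1 ≤ max (-(θ 0)) 0 + 4 * |θ 1| := by
    rw [← hK, KW_flag θ (k := 15) (by decide), wcs.2.2.2.2]
    have a0 := le_max_left (-(θ 0)) 0
    have a1 := le_abs_self (θ 1)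
    have a2 := abs_nonneg (θ 1)
    push_cast
    linarith
  have h5 := mul_le_mul_of_nonneg_left h4 h.q0
  linarith

end Crest.Agent.R136.RowI938
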