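import Mathlib

/-!
# R136 (helper823): choice of the three rewards at a differentiability point (msg 15062 (1), 15174 (1))

`β : (Fin 3 → ℝ) → ℝ` = supremum of the gap, rewards `q 0` (wide width), `q 1` (narrow width),
`q 2` (thickness).  `exists_rewards3` : a point `q` with `0 < q 2 ≤ η q 1`, `q 1 ≤ η g`, `g ≤ η q 0`,
`g ^ 2 ≤ η (q 0) (q 1)`, `0 < g = β q`, at which `β` is (Fréchet) differentiable with gradient `-θ`,
`θ 0 ≥ κ > 0`.
-/

set_option autoImplicit false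

namespace Crest.Agent.R136.Rw823

open Set Filter Topology MeasureTheory

/-- a Lipschitz function of three variables which drops along all lines of a box has a point of
differentiability with a negative partial derivative. -/
theorem exists_deriv_le {G : (ℝ × ℝ) × ℝ → ℝ} {K : NNReal} {y1 y2 z1 z2 a b κ : ℝ} (hy : y1 < y2)
    (hz : z1 < z2) (hab : a < b)
    (hG : LipschitzOnWith K G ((Icc y1 y2 ×ˢ Icc z1 z2) ×ˢ Icc a b))
    (hd : ∀ y ∈ Ioo y1 y2, ∀ z ∈ Ioo z1 z2, G ((y, z), b) - G ((y, z), a) < -κ * (b - a)) :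
    ∃ p ∈ (Ioo y1 y2 ×ˢ Ioo z1 z2) ×ˢ Ioo a b, DifferentiableAt ℝ G p ∧
      fderiv ℝ G p ((0, 0), 1) ≤ -κ := by
  by_contra hcon
  push Not at hcon
  obtain ⟨g, hgL, hgE⟩ := hG.extend_real
  have hopen : IsOpen ((Ioo y1 y2 ×ˢ Ioo z1 z2) ×ˢ Ioo a b) :=
    (isOpen_Ioo.prod isOpen_Ioo).prod isOpen_Ioo
  have hsub : (Ioo y1 y2 ×ˢ Ioo z1 z2) ×ˢ Ioo a b ⊆ (Icc y1 y2 ×ˢ Icc z1 z2) ×ˢ Icc a b :=
    prod_mono (prod_mono Ioo_subset_Icc_self Ioo_subset_Icc_self) Ioo_subset_Icc_self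
  have hEq : ∀ p ∈ (Ioo y1 y2 ×ˢ Ioo z1 z2) ×ˢ Ioo a b, G =ᶠ[𝓝 p] g := fun p hp =>
    Filter.eventuallyEq_of_mem (hopen.mem_nhds hp) fun x hx => hgE (hsub hx)
  have i1 : (volume : Measure (ℝ × ℝ)).IsAddHaarMeasure :=
    inferInstanceAs ((volume : Measure ℝ).prod (volume : Measure ℝ)).IsAddHaarMeasure
  have i2 : (volume : Measure ((ℝ × ℝ) × ℝ)).IsAddHaarMeasure :=
    inferInstanceAs ((volume : Measure (ℝ × ℝ)).prod (volume : Measure ℝ)).IsAddHaarMeasure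
  have hae : ∀ᵐ p : (ℝ × ℝ) × ℝ, DifferentiableAt ℝ g p := hgL.ae_differentiableAt
  have hae2 : ∀ᵐ y : ℝ × ℝ, ∀ᵐ x : ℝ, DifferentiableAt ℝ g (y, x) :=
    Measure.ae_ae_of_ae_prod (μ := (volume : Measure (ℝ × ℝ))) (ν := (volume : Measure ℝ)) hae
  -- a good pair `(y, z)`
  have hpos : (volume : Measure (ℝ × ℝ)) (Ioo y1 y2 ×ˢ Ioo z1 z2) ≠ 0 := by
    refine (IsOpen.measure_pos _ (isOpen_Ioo.prod isOpen_Ioo) ?_).ne'
    exact (nonempty_Ioo.2 hy).prod (nonempty_Ioo.2 hz)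
  obtain ⟨y, hyR, hyae⟩ : ∃ y ∈ Ioo y1 y2 ×ˢ Ioo z1 z2, ∀ᵐ x : ℝ, DifferentiableAt ℝ g (y, x) := by
    by_contra hno
    push Not at hno
    apply hpos
    refine measure_mono_null (fun y hy => ?_) (ae_iff.1 hae2)
    intro hall
    exact hno y hy (hall.mono fun x hx => not_not.2 hx)
  set h : ℝ → ℝ := fun x => g (y, x) with hh
  have hLip : LipschitzWith K h := by
    intro s t
    refine (hgL (y, s) (y, t)).trans ?_
    rw [Prod.edist_eq]
    simp
  have hAC : AbsolutelyContinuousOnInterval h a b := by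
    refine LipschitzOnWith.absolutelyContinuousOnInterval (K := K) ?_
    exact hLip.lipschitzOnWith
  have hint := hAC.integral_deriv_eq_sub
  have hii := hAC.intervalIntegrable_deriv
  have hder : ∀ᵐ x : ℝ, x ∈ Ioo a b → -κ ≤ deriv h x := by
    filter_upwards [hyae] with x hx hxab
    have hmem : (y, x) ∈ (Ioo y1 y2 ×ˢ Ioo z1 z2) ×ˢ Ioo a b := ⟨hyR, hxab⟩
    have hGd : DifferentiableAt ℝ G (y, x) := (hEq _ hmem).differentiableAt_iff.2 hx
    have h1 := hcon _ hmem hGd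
    have h2 : HasFDerivAt g (fderiv ℝ g (y, x)) (y, x) := hx.hasFDerivAt
    have h3 : HasDerivAt (fun x : ℝ => ((y, x) : (ℝ × ℝ) × ℝ)) ((0, 0), 1) x := by
      exact (hasDerivAt_const x y).prodMk (hasDerivAt_id x)
    have h4 : HasDerivAt h (fderiv ℝ g (y, x) ((0, 0), 1)) x := by
      have := h2.comp_hasDerivAt x h3
      exact this
    rw [h4.deriv, ← (hEq _ hmem).fderiv_eq]
    exact h1.le
  have hge : -κ * (b - a) ≤ ∫ x in a..b, deriv h x := by
    have h1 : ∫ _ in a..b, (-κ) ≤ ∫ x in a..b, deriv h x := by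
      refine intervalIntegral.integral_mono_ae_restrict hab.le ?_ hii ?_
      · exact intervalIntegrable_const
      · rw [Filter.EventuallyLE, ae_restrict_iff' measurableSet_Icc]
        have hne : ∀ c : ℝ, ∀ᵐ x : ℝ, x ≠ c := fun c => by
          simp [ae_iff]
        filter_upwards [hder, hne a, hne b] with x hx hxa hxb hxI
        exact hx ⟨lt_of_le_of_ne hxI.1 (Ne.symm hxa), lt_of_le_of_ne hxI.2 hxb⟩
    simpa [mul_comm] using h1
  have e1 : h b = G ((y.1, y.2), b) := by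
    have := hgE (show (y, b) ∈ (Icc y1 y2 ×ˢ Icc z1 z2) ×ˢ Icc a b from
      ⟨prod_mono Ioo_subset_Icc_self Ioo_subset_Icc_self hyR, right_mem_Icc.2 hab.le⟩)
    rw [hh]; exact this.symm
  have e2 : h a = G ((y.1, y.2), a) := by
    have := hgE (show (y, a) ∈ (Icc y1 y2 ×ˢ Icc z1 z2) ×ˢ Icc a b from
      ⟨prod_mono Ioo_subset_Icc_self Ioo_subset_Icc_self hyR, left_mem_Icc.2 hab.le⟩)
    rw [hh]; exact this.symm
  have h5 := hd y.1 hyR.1 y.2 hyR.2
  rw [hint, e1, e2] at hge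
  linarith

/-- the last crossing interval of a Lipschitz (continuous) function. -/
theorem exists_cross {f : ℝ → ℝ} {q0 Q t : ℝ} (hq : q0 ≤ Q) (hf : ContinuousOn f (Icc q0 Q))
    (ht : 0 < t) (h0 : t ≤ f q0) (hQ : f Q ≤ 0) :
    ∃ a b : ℝ, q0 ≤ a ∧ a < b ∧ b ≤ Q ∧ t ≤ f a ∧ f b ≤ t / 4 ∧
      ∀ x ∈ Ioo a b, t / 4 ≤ f x ∧ f x ≤ t := by
  have hcl : IsClosed {x | x ∈ Icc q0 Q ∧ t ≤ f x} := by
    have := hf.preimage_isClosed_of_isClosed isClosed_Icc (isClosed_Ici (a := t))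
    simpa [preimage, inter_def] using this
  set S : Set ℝ := {x | x ∈ Icc q0 Q ∧ t ≤ f x} with hS
  have hSne : S.Nonempty := ⟨q0, left_mem_Icc.2 hq, h0⟩
  have hSb : BddAbove S := ⟨Q, fun x hx => hx.1.2⟩
  set a := sSup S with ha
  have haS : a ∈ S := hcl.csSup_mem hSne hSb
  have haQ : a < Q := by
    refine lt_of_le_of_ne haS.1.2 fun he => ?_
    have := haS.2
    rw [he] at this
    linarith
  have hlt : ∀ x, a < x → x ≤ Q → f x < t := by
    intro x hx hxQ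
    by_contra hge
    push Not at hge
    have : x ≤ a := le_csSup hSb ⟨⟨haS.1.1.trans hx.le, hxQ⟩, hge⟩
    linarith
  have hcl2 : IsClosed {x | x ∈ Icc a Q ∧ f x ≤ t / 4} := by
    have := (hf.mono (Icc_subset_Icc_left haS.1.1)).preimage_isClosed_of_isClosed isClosed_Icc
      (isClosed_Iic (a := t / 4))
    simpa [preimage, inter_def] using this
  set S2 : Set ℝ := {x | x ∈ Icc a Q ∧ f x ≤ t / 4} with hS2
  have hne2 : S2.Nonempty := ⟨Q, right_mem_Icc.2 haQ.le, by linarith⟩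
  have hb2 : BddBelow S2 := ⟨a, fun x hx => hx.1.1⟩
  set b := sInf S2 with hb
  have hbS : b ∈ S2 := hcl2.csInf_mem hne2 hb2
  have hab : a < b := by
    refine lt_of_le_of_ne hbS.1.1 fun he => ?_
    have h1 := hbS.2
    rw [← he] at h1
    linarith [haS.2]
  refine ⟨a, b, haS.1.1, hab, hbS.1.2, haS.2, hbS.2, fun x hx => ⟨?_, ?_⟩⟩
  · by_contra hlt2
    push Not at hlt2
    have : b ≤ x := csInf_le hb2 ⟨⟨hx.1.le, hx.2.le.trans hbS.1.2⟩, hlt2.le⟩
    linarith [hx.2]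
  · exact (hlt x hx.1 (hx.2.le.trans hbS.1.2)).le

set_option maxHeartbeats 2000000 in
/-- **Choice of the three rewards at a point of differentiability.** -/
theorem exists_rewards3 {β : (Fin 3 → ℝ) → ℝ} {C Q η : ℝ} (hC : 0 ≤ C) (hQ : 0 < Q) (hη : 0 < η)
    (hL : ∀ x y : Fin 3 → ℝ, (∀ j, 0 ≤ x j) → (∀ j, 0 ≤ y j) → x 0 ≤ Q → y 0 ≤ Q →
      x 1 ≤ 1 → y 1 ≤ 1 → x 2 ≤ 1 → y 2 ≤ 1 → |β x - β y| ≤ C * ∑ j, |x j - y j|)
    (h0 : 0 < β 0) (hend : β ![Q, 0, 0] ≤ 0) :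
    ∃ (q θ : Fin 3 → ℝ) (κ : ℝ), 0 < κ ∧ 0 < q 0 ∧ q 0 < Q ∧ 0 < q 1 ∧ q 1 < 1 ∧ 0 < q 2 ∧
      q 2 ≤ η * q 1 ∧ 0 < β q ∧ q 1 ≤ η * β q ∧ β q ≤ η * q 0 ∧ β q ^ 2 ≤ η * (q 0 * q 1) ∧
      κ ≤ θ 0 ∧
      ∀ ε : ℝ, 0 < ε → ∃ δ : ℝ, 0 < δ ∧ ∀ x : Fin 3 → ℝ, (∀ j, |x j - q j| ≤ δ) →
        |β x - β q + ∑ j, θ j * (x j - q j)| ≤ ε * ∑ j, |x j - q j| := by
  classical
  set b : ℝ := β 0 with hb
  set K : ℝ := C + 1 with hK
  have hK1 : 1 ≤ K := by linarith
  set q0 : ℝ := min (Q / 2) (b / (4 * K)) with hq0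
  have hq0p : 0 < q0 := lt_min (by linarith) (by positivity)
  have hq0Q : q0 < Q := lt_of_le_of_lt (min_le_left _ _) (by linarith)
  have hq0b : K * q0 ≤ b / 4 := by
    calc K * q0 ≤ K * (b / (4 * K)) :=
          mul_le_mul_of_nonneg_left (min_le_right _ _) (by linarith)
      _ = b / 4 := by field_simp
  set c : ℝ := min (min η 1) (1 / K) / 64 with hc
  have hcp : 0 < c := by
    have : 0 < min (min η 1) (1 / K) := lt_min (lt_min hη one_pos) (by positivity)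
    positivity
  have hcη : 64 * c ≤ η := by
    have : min (min η 1) (1 / K) ≤ η := (min_le_left _ _).trans (min_le_left _ _)
    rw [hc]; linarith
  have hc1 : 64 * c ≤ 1 := by
    have : min (min η 1) (1 / K) ≤ 1 := (min_le_left _ _).trans (min_le_right _ _)
    rw [hc]; linarith
  have hcK : 64 * (K * c) ≤ 1 := by
    have h1 : min (min η 1) (1 / K) ≤ 1 / K := min_le_right _ _
    have h2 : K * min (min η 1) (1 / K) ≤ 1 := by
      calc K * min (min η 1) (1 / K) ≤ K * (1 / K) := mul_le_mul_of_nonneg_left h1 (by linarith)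
        _ = 1 := by field_simp
    rw [hc]; linarith
  set t : ℝ := min (min 1 (b / 4)) (min (η * q0 / 2) (η * q0 * c / 2)) with ht
  have htp : 0 < t := lt_min (lt_min one_pos (by positivity)) (lt_min (by positivity) (by positivity))
  have ht1 : t ≤ 1 := (min_le_left _ _).trans (min_le_left _ _)
  have htb : t ≤ b / 4 := (min_le_left _ _).trans (min_le_right _ _)
  have htq : t ≤ η * q0 / 2 := (min_le_right _ _).trans (min_le_left _ _)
  have htc : t ≤ η * q0 * c / 2 := (min_le_right _ _).trans (min_le_right _ _)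
  set p : ℝ := c * t with hp
  have hpp : 0 < p := by positivity
  have hct : 64 * p ≤ t := by rw [hp]; nlinarith
  have hcη' : 64 * p ≤ η * t := by rw [hp]; nlinarith
  have hKp : 64 * (K * p) ≤ t := by rw [hp]; nlinarith
  have hCp : 64 * (C * p) ≤ t := by
    have : C * p ≤ K * p := mul_le_mul_of_nonneg_right (by linarith) hpp.le
    linarith
  set r : ℝ := min (η * p) p with hr
  have hrp : 0 < r := lt_min (by positivity) hpp
  have hr1 : r ≤ η * p := min_le_left _ _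
  have hr2 : r ≤ p := min_le_right _ _
  have hp1 : 2 * p < 1 := by linarith
  -- one variable
  set f : ℝ → ℝ := fun x => β ![x, 0, 0] with hf
  have hfd : ∀ x ∈ Icc 0 Q, ∀ y ∈ Icc 0 Q, |f x - f y| ≤ C * |x - y| := by
    intro x hx y hy
    have h1 := hL ![x, 0, 0] ![y, 0, 0]
      (fun j => by fin_cases j <;> simp [hx.1]) (fun j => by fin_cases j <;> simp [hy.1])
      (by simpa using hx.2) (by simpa using hy.2) (by simp) (by simp) (by simp) (by simp)
    simpa [Fin.sum_univ_three] using h1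
  have hfc : ContinuousOn f (Icc q0 Q) := by
    have : LipschitzOnWith (Real.toNNReal C) f (Icc q0 Q) := by
      apply LipschitzOnWith.of_dist_le_mul
      intro x hx y hy
      rw [Real.dist_eq, Real.dist_eq]
      refine (hfd x ⟨hq0p.le.trans hx.1, hx.2⟩ y ⟨hq0p.le.trans hy.1, hy.2⟩).trans ?_
      exact mul_le_mul_of_nonneg_right (Real.le_coe_toNNReal C) (abs_nonneg _)
    exact this.continuousOn
  have hf0 : t ≤ f q0 := by
    have h1 := hfd 0 ⟨le_rfl, hQ.le⟩ q0 ⟨hq0p.le, hq0Q.le⟩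
    have e0 : f 0 = b := by
      show β ![0, 0, 0] = β 0
      congr 1
      funext j; fin_cases j <;> rfl
    rw [e0] at h1
    have h2 := (abs_le.1 h1).2
    have h3 : C * |0 - q0| ≤ K * q0 := by
      rw [zero_sub, abs_neg, abs_of_pos hq0p]
      exact mul_le_mul_of_nonneg_right (by linarith) hq0p.le
    linarith
  obtain ⟨a, b', ha0, hab, hbQ, hfa, hfb, hmid⟩ := exists_cross hq0Q.le hfc htp hf0 hend
  -- three variables
  set G : (ℝ × ℝ) × ℝ → ℝ := fun w => β ![w.2, w.1.1, w.1.2] with hG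
  have hGd : ∀ x x' y y' z z' : ℝ, x ∈ Icc 0 Q → x' ∈ Icc 0 Q → y ∈ Icc (0:ℝ) 1 →
      y' ∈ Icc (0:ℝ) 1 → z ∈ Icc (0:ℝ) 1 → z' ∈ Icc (0:ℝ) 1 →
      |G ((y, z), x) - G ((y', z'), x')| ≤ C * (|x - x'| + |y - y'| + |z - z'|) := by
    intro x x' y y' z z' hx hx' hy hy' hz hz'
    have h1 := hL ![x, y, z] ![x', y', z']
      (fun j => by fin_cases j <;> simp [hx.1, hy.1, hz.1])
      (fun j => by fin_cases j <;> simp [hx'.1, hy'.1, hz'.1])
      (by simpa using hx.2) (by simpa using hx'.2) (by simpa using hy.2) (by simpa using hy'.2)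
      (by simpa using hz.2) (by simpa using hz'.2)
    simpa [Fin.sum_univ_three, hG] using h1
  have hmemx : ∀ x ∈ Icc a b', x ∈ Icc 0 Q := fun x hx =>
    ⟨hq0p.le.trans (ha0.trans hx.1), hx.2.trans hbQ⟩
  have hmemy : ∀ y ∈ Icc p (2 * p), y ∈ Icc (0:ℝ) 1 := fun y hy => ⟨hpp.le.trans hy.1, hy.2.trans hp1.le⟩
  have hmemz : ∀ z ∈ Icc (r / 2) r, z ∈ Icc (0:ℝ) 1 := fun z hz =>
    ⟨(by positivity : (0:ℝ) ≤ r / 2).trans hz.1, hz.2.trans (by linarith)⟩
  have hGL : LipschitzOnWith (Real.toNNReal (3 * C)) G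
      ((Icc p (2 * p) ×ˢ Icc (r / 2) r) ×ˢ Icc a b') := by
    apply LipschitzOnWith.of_dist_le_mul
    rintro ⟨⟨y, z⟩, x⟩ hw ⟨⟨y', z'⟩, x'⟩ hw'
    simp only [mem_prod] at hw hw'
    obtain ⟨⟨hy, hz⟩, hx⟩ := hw
    obtain ⟨⟨hy', hz'⟩, hx'⟩ := hw'
    rw [Real.dist_eq]
    have h1 := hGd x x' y y' z z' (hmemx x hx) (hmemx x' hx') (hmemy y hy) (hmemy y' hy')
      (hmemz z hz) (hmemz z' hz')
    refine h1.trans ?_
    have hD : dist (((y, z), x) : (ℝ × ℝ) × ℝ) ((y', z'), x') =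
        max (max |y - y'| |z - z'|) |x - x'| := by
      simp only [Prod.dist_eq, Real.dist_eq]
    rw [hD]
    have h2 : |x - x'| ≤ max (max |y - y'| |z - z'|) |x - x'| := le_max_right _ _
    have h3 : |y - y'| ≤ max (max |y - y'| |z - z'|) |x - x'| := (le_max_left _ _).trans (le_max_left _ _)
    have h4 : |z - z'| ≤ max (max |y - y'| |z - z'|) |x - x'| := (le_max_right _ _).trans (le_max_left _ _)
    rw [Real.coe_toNNReal _ (by positivity)]
    calc C * (|x - x'| + |y - y'| + |z - z'|) ≤ C * (3 * max (max |y - y'| |z - z'|) |x - x'|) :=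
          mul_le_mul_of_nonneg_left (by linarith) hC
      _ = 3 * C * max (max |y - y'| |z - z'|) |x - x'| := by ring
  have hnear : ∀ x ∈ Icc 0 Q, ∀ y ∈ Icc p (2 * p), ∀ z ∈ Icc (r / 2) r,
      |G ((y, z), x) - f x| ≤ 3 * t / 64 := by
    intro x hx y hy z hz
    have h1 := hGd x x y 0 z 0 hx hx (hmemy y hy) ⟨le_rfl, zero_le_one⟩ (hmemz z hz)
      ⟨le_rfl, zero_le_one⟩
    have e1 : G (((0:ℝ), (0:ℝ)), x) = f x := rfl
    rw [e1] at h1
    refine h1.trans ?_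
    rw [sub_self, abs_zero, zero_add, sub_zero, sub_zero, abs_of_nonneg (hmemy y hy).1,
      abs_of_nonneg (hmemz z hz).1]
    have h2 : y + z ≤ 3 * p := by linarith [hy.2, hz.2]
    calc C * (y + z) ≤ C * (3 * p) := mul_le_mul_of_nonneg_left h2 hC
      _ ≤ 3 * t / 64 := by linarith
  set κ : ℝ := t / (4 * Q) with hκ
  have hκp : 0 < κ := by positivity
  have hκQ : κ * (b' - a) ≤ t / 4 := by
    have h1 : b' - a ≤ Q := by linarith
    calc κ * (b' - a) ≤ κ * Q := mul_le_mul_of_nonneg_left h1 hκp.le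
      _ = t / 4 := by rw [hκ]; field_simp
  have hdrop : ∀ y ∈ Ioo p (2 * p), ∀ z ∈ Ioo (r / 2) r,
      G ((y, z), b') - G ((y, z), a) < -κ * (b' - a) := by
    intro y hy z hz
    have h1 := hnear b' (hmemx b' ⟨hab.le, le_rfl⟩) y (Ioo_subset_Icc_self hy) z
      (Ioo_subset_Icc_self hz)
    have h2 := hnear a (hmemx a ⟨le_rfl, hab.le⟩) y (Ioo_subset_Icc_self hy) z
      (Ioo_subset_Icc_self hz)
    rw [abs_le] at h1 h2
    linarith [h1.2, h2.1]
  obtain ⟨⟨⟨y, z⟩, x⟩, hmem, hdiff, hder⟩ := exists_deriv_le (by linarith : p < 2 * p)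
    (by linarith : r / 2 < r) hab hGL hdrop
  simp only [mem_prod] at hmem
  obtain ⟨⟨hy, hz⟩, hx⟩ := hmem
  have hxQ : x ∈ Icc 0 Q := hmemx x (Ioo_subset_Icc_self hx)
  have hval := hnear x hxQ y (Ioo_subset_Icc_self hy) z (Ioo_subset_Icc_self hz)
  have hmx := hmid x hx
  rw [abs_le] at hval
  have hg1 : t / 8 ≤ G ((y, z), x) := by linarith [hval.1, hmx.1]
  have hg2 : G ((y, z), x) ≤ 5 * t / 4 := by linarith [hval.2, hmx.2]
  have hx0 : q0 ≤ x := ha0.trans hx.1.le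
  have hy0 : 0 < y := hpp.trans hy.1
  -- the linear map
  set Lc : (Fin 3 → ℝ) →L[ℝ] (ℝ × ℝ) × ℝ :=
    ((ContinuousLinearMap.proj (R := ℝ) (φ := fun _ : Fin 3 => ℝ) 1).prod
      (ContinuousLinearMap.proj (R := ℝ) (φ := fun _ : Fin 3 => ℝ) 2)).prod
      (ContinuousLinearMap.proj (R := ℝ) (φ := fun _ : Fin 3 => ℝ) 0) with hLc
  have hLa : ∀ v : Fin 3 → ℝ, Lc v = ((v 1, v 2), v 0) := fun v => rfl
  have hβG : β = fun v => G (Lc v) := by
    funext v
    show β v = β ![v 0, v 1, v 2]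
    congr 1
    funext j; fin_cases j <;> rfl
  set q : Fin 3 → ℝ := ![x, y, z] with hqd
  have hLq : Lc q = ((y, z), x) := by rw [hLa]; simp [hqd]
  set D := fderiv ℝ G ((y, z), x) with hD
  have hDβ : HasFDerivAt β (D.comp Lc) q := by
    rw [hβG]
    have h1 : HasFDerivAt G D (Lc q) := by rw [hLq]; exact hdiff.hasFDerivAt
    exact h1.comp q Lc.hasFDerivAt
  have hβq : β q = G ((y, z), x) := by rw [hβG, ← hLq]
  refine ⟨q, fun j => -(D.comp Lc) (Pi.single j 1), κ, hκp, ?_, ?_, ?_, ?_, ?_, ?_, ?_, ?_, ?_, ?_,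
    ?_, ?_⟩
  · show 0 < x
    linarith
  · show x < Q
    linarith [hx.2]
  · exact hy0
  · show y < 1
    linarith [hy.2]
  · show 0 < z
    linarith [hz.1]
  · show z ≤ η * y
    have : η * p ≤ η * y := mul_le_mul_of_nonneg_left hy.1.le hη.le
    linarith [hz.2]
  · rw [hβq]; linarith
  · show y ≤ η * β q
    rw [hβq]
    have h1 : η * (t / 8) ≤ η * G ((y, z), x) := mul_le_mul_of_nonneg_left hg1 hη.le
    linarith [hy.2]
  · show β q ≤ η * x
    rw [hβq]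
    have h1 : η * q0 ≤ η * x := mul_le_mul_of_nonneg_left hx0 hη.le
    nlinarith
  · show β q ^ 2 ≤ η * (x * y)
    rw [hβq]
    have h0' : 0 ≤ G ((y, z), x) := by linarith
    have h1 : G ((y, z), x) ^ 2 ≤ (5 * t / 4) ^ 2 := pow_le_pow_left₀ h0' hg2 2
    have h2 : (5 * t / 4) ^ 2 ≤ 2 * (t * t) := by nlinarith [mul_pos htp htp]
    have h3 : t * t ≤ t * (η * q0 * c / 2) := mul_le_mul_of_nonneg_left htc htp.le
    have h4 : 2 * (t * (η * q0 * c / 2)) = η * (q0 * p) := by rw [hp]; ring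
    have h5 : q0 * p ≤ x * y := mul_le_mul hx0 hy.1.le hpp.le (by linarith)
    have h6 : η * (q0 * p) ≤ η * (x * y) := mul_le_mul_of_nonneg_left h5 hη.le
    linarith
  · show κ ≤ -(D.comp Lc) (Pi.single 0 1)
    have e1 : Lc (Pi.single 0 1) = ((0, 0), 1) := by
      rw [hLa]; simp
    rw [ContinuousLinearMap.comp_apply, e1]
    linarith
  · intro ε hε
    have h1 := (hasFDerivAt_iff_isLittleO.1 hDβ)
    rw [Asymptotics.isLittleO_iff] at h1
    have h2 := h1 hε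
    rw [Metric.eventually_nhds_iff] at h2
    obtain ⟨δ, hδ, hδ2⟩ := h2
    refine ⟨δ / 2, by positivity, fun v hv => ?_⟩
    have hdist : dist v q < δ := by
      have h5 : dist v q ≤ δ / 2 := by
        refine (dist_pi_le_iff (by positivity)).2 fun j => ?_
        rw [Real.dist_eq]; exact hv j
      linarith
    have h3 := hδ2 hdist
    have e2 : (D.comp Lc) (v - q) = ∑ j, (v j - q j) * (D.comp Lc) (Pi.single j 1) := by
      have h4 : v - q = ∑ j, (v j - q j) • (Pi.single j (1:ℝ) : Fin 3 → ℝ) := by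
        funext i
        simp [Finset.sum_apply, Pi.single_apply]
      conv_lhs => rw [h4]
      rw [map_sum]
      simp
    rw [Real.norm_eq_abs, e2] at h3
    have e3 : β v - β q + ∑ j, -(D.comp Lc) (Pi.single j 1) * (v j - q j) =
        β v - β q - ∑ j, (v j - q j) * (D.comp Lc) (Pi.single j 1) := by
      have e4 : ∑ j, -(D.comp Lc) (Pi.single j 1) * (v j - q j) =
          -∑ j, (v j - q j) * (D.comp Lc) (Pi.single j 1) := by
        rw [← Finset.sum_neg_distrib]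
        refine Finset.sum_congr rfl fun j _ => ?_
        ring
      rw [e4]; ring
    rw [e3]
    refine h3.trans (mul_le_mul_of_nonneg_left ?_ hε.le)
    refine (pi_norm_le_iff_of_nonneg (Finset.sum_nonneg fun _ _ => abs_nonneg _)).2 fun i => ?_
    rw [Real.norm_eq_abs]
    exact Finset.single_le_sum (f := fun j => |v j - q j|) (fun j _ => abs_nonneg _)
      (Finset.mem_univ i)

/-- the same in the order of `KDef5_879` (`cap5`): thickness `q 0`, wide `q 1`, narrow `q 2`. -/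
theorem exists_rewards5 {β : (Fin 3 → ℝ) → ℝ} {C Q η : ℝ} (hC : 0 ≤ C) (hQ : 0 < Q) (hη : 0 < η)
    (hL : ∀ x y : Fin 3 → ℝ, (∀ j, 0 ≤ x j) → (∀ j, 0 ≤ y j) → x 0 ≤ 1 → y 0 ≤ 1 →
      x 1 ≤ Q → y 1 ≤ Q → x 2 ≤ 1 → y 2 ≤ 1 → |β x - β y| ≤ C * ∑ j, |x j - y j|)
    (h0 : 0 < β 0) (hend : β ![0, Q, 0] ≤ 0) :
    ∃ (q θ : Fin 3 → ℝ) (κ : ℝ), 0 < κ ∧ 0 < q 1 ∧ q 1 < Q ∧ 0 < q 2 ∧ q 2 < 1 ∧ 0 < q 0 ∧
      q 0 < 1 ∧ q 0 ≤ η * q 2 ∧ 0 < β q ∧ q 2 ≤ η * β q ∧ β q ≤ η * q 1 ∧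
      β q ^ 2 ≤ η * (q 1 * q 2) ∧ κ ≤ θ 1 ∧
      ∀ ε : ℝ, 0 < ε → ∃ δ : ℝ, 0 < δ ∧ ∀ x : Fin 3 → ℝ, (∀ j, |x j - q j| ≤ δ) →
        |β x - β q + ∑ j, θ j * (x j - q j)| ≤ ε * ∑ j, |x j - q j| := by
  -- permutation `(wide, narrow, thickness) ↦ (thickness, wide, narrow)`
  set P : (Fin 3 → ℝ) → (Fin 3 → ℝ) := fun x => ![x 2, x 0, x 1] with hP
  set P' : (Fin 3 → ℝ) → (Fin 3 → ℝ) := fun x => ![x 1, x 2, x 0] with hP'
  have hPP' : ∀ x, P (P' x) = x := by
    intro x; funext j; fin_cases j <;> rfl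
  have hη1 : 0 < min η 1 := lt_min hη one_pos
  obtain ⟨q, θ, κ, hκ, h1, h2, h3, h4, h5, h6, h7, h8, h9, h10, h11, h12⟩ :=
    exists_rewards3 (β := fun x => β (P x)) (C := C) (Q := Q) (η := min η 1) hC hQ hη1
      (fun x y hx hy a1 a2 a3 a4 a5 a6 => by
        have h := hL (P x) (P y) (fun j => by fin_cases j <;> simp [hP, hx])
          (fun j => by fin_cases j <;> simp [hP, hy]) (by simpa [hP] using a5)
          (by simpa [hP] using a6) (by simpa [hP] using a1) (by simpa [hP] using a2)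
          (by simpa [hP] using a3) (by simpa [hP] using a4)
        refine h.trans (le_of_eq ?_)
        rw [Fin.sum_univ_three, Fin.sum_univ_three]
        simp only [hP, Matrix.cons_val_zero, Matrix.cons_val_one, Matrix.cons_val]
        ring)
      (by
        have e : P 0 = 0 := by funext j; fin_cases j <;> rfl
        show 0 < β (P 0)
        rw [e]; exact h0)
      (by
        have e : P ![Q, 0, 0] = ![0, Q, 0] := by funext j; fin_cases j <;> rfl
        show β (P ![Q, 0, 0]) ≤ 0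
        rw [e]; exact hend)
  have hg0 : 0 < β (P q) := h7
  refine ⟨P q, P θ, κ, hκ, h1, h2, h3, h4, h5, ?_, ?_, hg0, ?_, ?_, ?_, h11, ?_⟩
  · show q 2 < 1
    have : min η 1 * q 1 ≤ 1 * q 1 := mul_le_mul_of_nonneg_right (min_le_right _ _) h3.le
    linarith
  · show q 2 ≤ η * q 1
    exact h6.trans (mul_le_mul_of_nonneg_right (min_le_left _ _) h3.le)
  · exact h8.trans (mul_le_mul_of_nonneg_right (min_le_left _ _) hg0.le)
  · exact h9.trans (mul_le_mul_of_nonneg_right (min_le_left _ _) h1.le)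
  · exact h10.trans (mul_le_mul_of_nonneg_right (min_le_left _ _) (by positivity))
  · intro ε hε
    obtain ⟨δ, hδ, h⟩ := h12 ε hε
    refine ⟨δ, hδ, fun x hx => ?_⟩
    have hx' : ∀ j, |P' x j - q j| ≤ δ := by
      intro j
      fin_cases j
      · exact hx 1
      · exact hx 2
      · exact hx 0
    have h' := h (P' x) hx'
    simp only [hPP'] at h'
    have e1 : ∑ j, θ j * (P' x j - q j) = ∑ j, P θ j * (x j - P q j) := by
      rw [Fin.sum_univ_three, Fin.sum_univ_three]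
      show θ 0 * (x 1 - q 0) + θ 1 * (x 2 - q 1) + θ 2 * (x 0 - q 2) =
        θ 2 * (x 0 - q 2) + θ 0 * (x 1 - q 0) + θ 1 * (x 2 - q 1)
      ring
    have e2 : ∑ j, |P' x j - q j| = ∑ j, |x j - P q j| := by
      rw [Fin.sum_univ_three, Fin.sum_univ_three]
      show |x 1 - q 0| + |x 2 - q 1| + |x 0 - q 2| = |x 0 - q 2| + |x 1 - q 0| + |x 2 - q 1|
      ring
    rw [e1, e2] at h'
    exact h'

end Crest.Agent.R136.Rw823
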