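import Crest.Agent.R136.Rw3_823

/-!
# R136: selection of the three rewards, version 6 (helper823)

`exists_rewards6` = `exists_rewards5` with `|θ j| ≤ C` and `q 2 * |θ j| ≤ η * β q` (628).
-/

set_option autoImplicit false

namespace Crest.Agent.R136.Rw823

/-- the gradient of a Lipschitz function is bounded -/
theorem grad_le {β : (Fin 3 → ℝ) → ℝ} {C Q : ℝ} {q θ : Fin 3 → ℝ}
    (hL : ∀ x y : Fin 3 → ℝ, (∀ j, 0 ≤ x j) → (∀ j, 0 ≤ y j) → x 0 ≤ 1 → y 0 ≤ 1 →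
      x 1 ≤ Q → y 1 ≤ Q → x 2 ≤ 1 → y 2 ≤ 1 → |β x - β y| ≤ C * ∑ j, |x j - y j|)
    (h1 : 0 < q 1) (h1' : q 1 < Q) (h2 : 0 < q 2) (h2' : q 2 < 1) (h0 : 0 < q 0) (h0' : q 0 < 1)
    (hd : ∀ ε : ℝ, 0 < ε → ∃ δ : ℝ, 0 < δ ∧ ∀ x : Fin 3 → ℝ, (∀ j, |x j - q j| ≤ δ) →
        |β x - β q + ∑ j, θ j * (x j - q j)| ≤ ε * ∑ j, |x j - q j|) (j : Fin 3) :
    |θ j| ≤ C := by
  classical
  refine le_of_forall_pos_le_add fun ε hε => ?_
  obtain ⟨δ, hδ, h⟩ := hd ε hε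
  set s : ℝ := min δ (min (1 - q 0) (min (Q - q 1) (1 - q 2))) with hs
  have hs0 : 0 < s := by
    refine lt_min hδ (lt_min ?_ (lt_min ?_ ?_)) <;> linarith
  have hsδ : s ≤ δ := min_le_left _ _
  have hs1 : s ≤ 1 - q 0 := (min_le_right _ _).trans (min_le_left _ _)
  have hs2 : s ≤ Q - q 1 := ((min_le_right _ _).trans (min_le_right _ _)).trans (min_le_left _ _)
  have hs3 : s ≤ 1 - q 2 :=
    ((min_le_right _ _).trans (min_le_right _ _)).trans (min_le_right _ _)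
  set x : Fin 3 → ℝ := fun i => q i + if i = j then s else 0 with hx
  have hsub : ∀ i, x i - q i = if i = j then s else 0 := by intro i; simp only [hx]; ring
  have hxq : ∀ i, |x i - q i| = if i = j then s else 0 := by
    intro i; rw [hsub]; split_ifs
    · exact abs_of_pos hs0
    · exact abs_zero
  have hsum : ∑ i, |x i - q i| = s := by
    simp only [hxq]; rw [Finset.sum_ite_eq']; simp
  have hsum2 : ∑ i, θ i * (x i - q i) = θ j * s := by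
    simp only [hsub, mul_ite, mul_zero]; rw [Finset.sum_ite_eq']; simp
  have hle : ∀ i, x i ≤ q i + s := by
    intro i; simp only [hx]; split_ifs <;> linarith
  have hge : ∀ i, q i ≤ x i := by
    intro i; simp only [hx]; split_ifs <;> linarith
  have hq0 : ∀ i, 0 ≤ q i := by
    intro i; fin_cases i
    · exact h0.le
    · exact h1.le
    · exact h2.le
  have a1 := h x (fun i => by rw [hxq]; split_ifs <;> linarith)
  have a2 := hL x q (fun i => (hq0 i).trans (hge i)) hq0 (by linarith [hle 0]) h0'.le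
    (by linarith [hle 1]) h1'.le (by linarith [hle 2]) h2'.le
  rw [hsum] at a1 a2
  rw [hsum2] at a1
  have a3 : |θ j| * s ≤ (C + ε) * s := by
    calc |θ j| * s = |θ j * s| := by rw [abs_mul, abs_of_pos hs0]
      _ = |(β x - β q + θ j * s) - (β x - β q)| := by congr 1; ring
      _ ≤ |β x - β q + θ j * s| + |β x - β q| := abs_sub _ _
      _ ≤ ε * s + C * s := add_le_add a1 a2
      _ = _ := by ring
  exact le_of_mul_le_mul_right a3 hs0

/-- **selection of the rewards** (index `0` = thickness, `1` = wide, `2` = narrow) -/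
theorem exists_rewards6 {β : (Fin 3 → ℝ) → ℝ} {C Q η : ℝ} (hC : 0 ≤ C) (hQ : 0 < Q) (hη : 0 < η)
    (hL : ∀ x y : Fin 3 → ℝ, (∀ j, 0 ≤ x j) → (∀ j, 0 ≤ y j) → x 0 ≤ 1 → y 0 ≤ 1 →
      x 1 ≤ Q → y 1 ≤ Q → x 2 ≤ 1 → y 2 ≤ 1 → |β x - β y| ≤ C * ∑ j, |x j - y j|)
    (h0 : 0 < β 0) (hend : β ![0, Q, 0] ≤ 0) :
    ∃ (q θ : Fin 3 → ℝ) (κ : ℝ), 0 < κ ∧ 0 < q 1 ∧ q 1 < Q ∧ 0 < q 2 ∧ q 2 < 1 ∧ 0 < q 0 ∧
      q 0 < 1 ∧ q 0 ≤ η * q 2 ∧ 0 < β q ∧ q 2 ≤ η * β q ∧ β q ≤ η * q 1 ∧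
      β q ^ 2 ≤ η * (q 1 * q 2) ∧ κ ≤ θ 1 ∧ (∀ j, |θ j| ≤ C) ∧
      (∀ j, q 2 * |θ j| ≤ η * β q) ∧
      ∀ ε : ℝ, 0 < ε → ∃ δ : ℝ, 0 < δ ∧ ∀ x : Fin 3 → ℝ, (∀ j, |x j - q j| ≤ δ) →
        |β x - β q + ∑ j, θ j * (x j - q j)| ≤ ε * ∑ j, |x j - q j| := by
  set η' : ℝ := η / (C + 1) with hη'
  have hC1 : 0 < C + 1 := by linarith
  have hp : 0 < η' := by positivity
  have hle : η' ≤ η := div_le_self hη.le (by linarith)
  obtain ⟨q, θ, κ, b1, b2, b3, b4, b5, b6, b7, b8, b9, b10, b11, b12, b13, b14⟩ :=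
    exists_rewards5 (β := β) hC hQ hp hL h0 hend
  have hθ := grad_le hL b2 b3 b4 b5 b6 b7 b14
  refine ⟨q, θ, κ, b1, b2, b3, b4, b5, b6, b7, ?_, b9, ?_, ?_, ?_, b13, hθ, ?_, b14⟩
  · exact b8.trans (mul_le_mul_of_nonneg_right hle b4.le)
  · exact b10.trans (mul_le_mul_of_nonneg_right hle b9.le)
  · exact b11.trans (mul_le_mul_of_nonneg_right hle b2.le)
  · exact b12.trans (mul_le_mul_of_nonneg_right hle (by positivity))
  · intro j
    have h1 : η' * (C + 1) = η := by rw [hη']; field_simp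
    calc q 2 * |θ j| ≤ (η' * β q) * (C + 1) :=
          mul_le_mul b10 ((hθ j).trans (by linarith)) (abs_nonneg _) (by positivity)
      _ = (η' * (C + 1)) * β q := by ring
      _ = η * β q := by rw [h1]

end Crest.Agent.R136.Rw823
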