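import Mathlib
import Crest.Agent.R136.XA1_248

/-!
# R136, block U4 (helper823): rewards with prescribed wide slope, supergradients

* `exists_slope`, `exists_slopeV`  : the maximum of `β q + λ q 1 - (R/s)((q 0 - c0)² + (q 2 - c2)²)` over a box gives a
  supergradient `g` of `β` with `g 1 = -λ` (joint in the three rewards, no differentiability).
* `ubw_mono`, `leaf_of_super` : the hypothesis of (STEP) from a supergradient.
-/

set_option autoImplicit false
set_option linter.unusedVariables false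

open Finset Filter Topology

namespace Crest.Agent.R136.Rw5

open Crest.Agent.R138.Ex926 Crest.Agent.R138.Dp76
open MkA627 (Geo)
open XA248

/-- the box of the rewards -/
def Bx (c0 c2 s t0 T : ℝ) : Set (Fin 3 → ℝ) :=
  Set.Icc ![c0 - s, t0, c2 - s] ![c0 + s, T, c2 + s]

theorem mem_Bx {c0 c2 s t0 T : ℝ} {q : Fin 3 → ℝ} :
    q ∈ Bx c0 c2 s t0 T ↔ |q 0 - c0| ≤ s ∧ (t0 ≤ q 1 ∧ q 1 ≤ T) ∧ |q 2 - c2| ≤ s := by
  unfold Bx
  rw [Set.mem_Icc, Pi.le_def, Pi.le_def]
  constructor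
  · rintro ⟨h1, h2⟩
    have a0 := h1 0
    have a1 := h1 1
    have a2 := h1 2
    have b0 := h2 0
    have b1 := h2 1
    have b2 := h2 2
    simp at a0 a1 a2 b0 b1 b2
    refine ⟨abs_le.2 ⟨by linarith, by linarith⟩, ⟨a1, b1⟩, abs_le.2 ⟨by linarith, by linarith⟩⟩
  · rintro ⟨h1, h2, h3⟩
    rw [abs_le] at h1 h3
    constructor
    · intro k; fin_cases k <;> simp <;> linarith
    · intro k; fin_cases k <;> simp <;> linarith

/-- the maximal point of a coordinate is near the centre -/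
theorem coord_near {R s c x y : ℝ} {f : ℝ → ℝ} (hs : 0 < s) (hR : 0 ≤ R) (hx : |x - c| ≤ s)
    (hmax : ∀ y, |y - c| ≤ s → f y - R / s * (y - c) ^ 2 ≤ f x - R / s * (x - c) ^ 2)
    (hL : ∀ y, |y - c| ≤ s → |f x - f y| ≤ R * |x - y|) : |x - c| ≤ s / 2 ∨ R = 0 := by
  by_cases hR0 : R = 0
  · exact Or.inr hR0
  left
  have hRp : 0 < R := lt_of_le_of_ne hR (Ne.symm hR0)
  by_contra hcon
  push Not at hcon
  -- move by the factor `(1 - θ)`, `θ` small
  have key : ∀ θ : ℝ, 0 < θ → θ ≤ 1 → R / s * (x - c) ^ 2 * (2 - θ) ≤ R * |x - c| := by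
    intro θ h0 h1
    have hy : |c + (1 - θ) * (x - c) - c| ≤ s := by
      have : c + (1 - θ) * (x - c) - c = (1 - θ) * (x - c) := by ring
      rw [this, abs_mul, abs_of_nonneg (by linarith)]
      have := abs_nonneg (x - c)
      nlinarith
    have h2 := hmax _ hy
    have h3 := hL _ hy
    have e1 : x - (c + (1 - θ) * (x - c)) = θ * (x - c) := by ring
    rw [e1, abs_mul, abs_of_pos h0] at h3
    have h4 := (abs_le.1 h3).2
    have e2 : c + (1 - θ) * (x - c) - c = (1 - θ) * (x - c) := by ring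
    rw [e2] at h2
    have h5 : R / s * (x - c) ^ 2 - R / s * ((1 - θ) * (x - c)) ^ 2 ≤ R * (θ * |x - c|) := by
      linarith
    have e3 : R / s * (x - c) ^ 2 - R / s * ((1 - θ) * (x - c)) ^ 2 =
        θ * (R / s * (x - c) ^ 2 * (2 - θ)) := by ring
    rw [e3] at h5
    have h6 : θ * (R / s * (x - c) ^ 2 * (2 - θ)) ≤ θ * (R * |x - c|) := by
      calc _ ≤ R * (θ * |x - c|) := h5
        _ = _ := by ring
    exact le_of_mul_le_mul_left h6 h0
  have hd : s / 2 < |x - c| := hcon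
  have hdp : 0 < |x - c| := by linarith
  -- choose θ with (2 - θ) |x - c| / s > 1
  obtain ⟨θ, h0, h1, h2⟩ : ∃ θ : ℝ, 0 < θ ∧ θ ≤ 1 ∧ s < |x - c| * (2 - θ) := by
    refine ⟨min 1 ((2 * |x - c| - s) / (2 * |x - c|)), lt_min one_pos (by
      apply div_pos <;> linarith), min_le_left _ _, ?_⟩
    have h3 : min 1 ((2 * |x - c| - s) / (2 * |x - c|)) ≤ (2 * |x - c| - s) / (2 * |x - c|) :=
      min_le_right _ _
    have h4 : |x - c| * min 1 ((2 * |x - c| - s) / (2 * |x - c|)) ≤ (2 * |x - c| - s) / 2 := by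
      calc _ ≤ |x - c| * ((2 * |x - c| - s) / (2 * |x - c|)) :=
            mul_le_mul_of_nonneg_left h3 hdp.le
        _ = _ := by field_simp
    linarith
  have h3 := key θ h0 h1
  have e1 : R / s * (x - c) ^ 2 * (2 - θ) = R * |x - c| * (|x - c| * (2 - θ) / s) := by
    rw [← sq_abs]; field_simp
  rw [e1] at h3
  have h4 : 1 < |x - c| * (2 - θ) / s := (one_lt_div hs).2 h2
  have h5 : 0 < R * |x - c| := by positivity
  nlinarith

theorem upd_mem {c0 c2 s t0 T : ℝ} {q : Fin 3 → ℝ} (hq : q ∈ Bx c0 c2 s t0 T) {y : ℝ}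
    (hy : |y - c0| ≤ s) : Function.update q 0 y ∈ Bx c0 c2 s t0 T := by
  rw [mem_Bx] at hq ⊢
  simp only [Function.update_self]
  have e1 : Function.update q 0 y 1 = q 1 := Function.update_of_ne (by decide) _ _
  have e2 : Function.update q 0 y 2 = q 2 := Function.update_of_ne (by decide) _ _
  rw [e1, e2]
  exact ⟨hy, hq.2⟩

theorem upd_mem2 {c0 c2 s t0 T : ℝ} {q : Fin 3 → ℝ} (hq : q ∈ Bx c0 c2 s t0 T) {y : ℝ}
    (hy : |y - c2| ≤ s) : Function.update q 2 y ∈ Bx c0 c2 s t0 T := by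
  rw [mem_Bx] at hq ⊢
  simp only [Function.update_self]
  have e1 : Function.update q 2 y 1 = q 1 := Function.update_of_ne (by decide) _ _
  have e2 : Function.update q 2 y 0 = q 0 := Function.update_of_ne (by decide) _ _
  rw [e1, e2]
  exact ⟨hq.1, hq.2.1, hy⟩

/-- **rewards with prescribed wide slope**, one Lipschitz constant for each reward -/
theorem exists_slopeV {β : (Fin 3 → ℝ) → ℝ} {R : Fin 3 → ℝ} {c0 c2 s t0 T lam t1 : ℝ} (hs : 0 < s)
    (hR : ∀ k, 0 < R k)
    (hL : ∀ q ∈ Bx c0 c2 s t0 T, ∀ q' ∈ Bx c0 c2 s t0 T, |β q - β q'| ≤ ∑ k, R k * |q k - q' k|)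
    (ht0 : t0 ≤ t1) (htT : t1 ≤ T)
    (hleft : ∀ p0 p2, |p0 - c0| ≤ s → |p2 - c2| ≤ s →
      β ![p0, t0, p2] + lam * t0 < β ![c0, t1, c2] + lam * t1)
    (hright : ∀ p0 p2, |p0 - c0| ≤ s → |p2 - c2| ≤ s →
      β ![p0, T, p2] + lam * T < β ![c0, t1, c2] + lam * t1) :
    ∃ q g : Fin 3 → ℝ, |q 0 - c0| ≤ s / 2 ∧ (t0 < q 1 ∧ q 1 < T) ∧ |q 2 - c2| ≤ s / 2 ∧
      g 1 = -lam ∧ |g 0| ≤ R 0 ∧ |g 2| ≤ R 2 ∧
      β ![c0, t1, c2] + lam * t1 ≤ β q + lam * q 1 ∧
      ∀ q' ∈ Bx c0 c2 s t0 T, β q' ≤ β q + ∑ k, g k * (q' k - q k) +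
        (R 0 / s * (q' 0 - q 0) ^ 2 + R 2 / s * (q' 2 - q 2) ^ 2) := by
  have hR0 := hR 0
  have hR1 := hR 1
  have hR2 := hR 2
  set K := Bx c0 c2 s t0 T with hK
  have hKc : IsCompact K := isCompact_Icc
  have href : (![c0, t1, c2] : Fin 3 → ℝ) ∈ K := by
    rw [hK, mem_Bx]
    simp [hs.le, ht0, htT]
  set φ : (Fin 3 → ℝ) → ℝ := fun q => lam * q 1 - R 0 / s * (q 0 - c0) ^ 2 -
    R 2 / s * (q 2 - c2) ^ 2 with hφ
  have hcont : ContinuousOn (fun q => β q + φ q) K := by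
    refine ContinuousOn.add ?_ (Continuous.continuousOn (by rw [hφ]; fun_prop))
    rw [Metric.continuousOn_iff]
    intro q hq ε hε
    refine ⟨ε / (R 0 + R 1 + R 2 + 1), by positivity, fun q' hq' hd => ?_⟩
    rw [Real.dist_eq]
    have h1 := hL q' hq' q hq
    have hd0 : 0 ≤ dist q' q := dist_nonneg
    have h2 : ∑ k, R k * |q' k - q k| ≤ (R 0 + R 1 + R 2) * dist q' q := by
      rw [Fin.sum_univ_three]
      have h3 : ∀ k, R k * |q' k - q k| ≤ R k * dist q' q := fun k => by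
        have := dist_le_pi_dist q' q k
        rw [Real.dist_eq] at this
        exact mul_le_mul_of_nonneg_left this (hR k).le
      have := h3 0
      have := h3 1
      have := h3 2
      linarith
    have h4 : (R 0 + R 1 + R 2) * dist q' q < ε := by
      have h5 : (R 0 + R 1 + R 2 + 1) * dist q' q < ε := by
        rw [lt_div_iff₀ (by positivity)] at hd
        linarith
      nlinarith
    linarith
  obtain ⟨q, hq, hmax⟩ := hKc.exists_isMaxOn ⟨_, href⟩ hcont
  have hm : ∀ q' ∈ K, β q' + φ q' ≤ β q + φ q := fun q' hq' => hmax hq'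
  have hq' := mem_Bx.1 hq
  have href2 := hm _ href
  have eφ : φ ![c0, t1, c2] = lam * t1 := by
    rw [hφ]; simp
  rw [eφ] at href2
  have hφle : φ q ≤ lam * q 1 := by
    rw [hφ]
    have h1 : 0 ≤ R 0 / s * (q 0 - c0) ^ 2 := by positivity
    have h2 : 0 ≤ R 2 / s * (q 2 - c2) ^ 2 := by positivity
    linarith
  have hval : β ![c0, t1, c2] + lam * t1 ≤ β q + lam * q 1 := by linarith
  have hqv : q = ![q 0, q 1, q 2] := by
    funext k; fin_cases k <;> rfl
  -- position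
  have hn0 : |q 0 - c0| ≤ s / 2 := by
    rcases coord_near (R := R 0) (f := fun y => β (Function.update q 0 y)) hs hR0.le hq'.1 (y := 0)
      (fun y hy => by
        have h1 := hm _ (upd_mem hq hy)
        rw [hφ] at h1
        have e1 : Function.update q 0 y 1 = q 1 := Function.update_of_ne (by decide) _ _
        have e2 : Function.update q 0 y 2 = q 2 := Function.update_of_ne (by decide) _ _
        simp only [e1, e2, Function.update_self] at h1
        simp only [Function.update_eq_self]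
        linarith)
      (fun y hy => by
        have h1 := hL q hq _ (upd_mem hq hy)
        have e1 : Function.update q 0 y 1 = q 1 := Function.update_of_ne (by decide) _ _
        have e2 : Function.update q 0 y 2 = q 2 := Function.update_of_ne (by decide) _ _
        rw [Fin.sum_univ_three, e1, e2] at h1
        simp only [Function.update_self, sub_self, abs_zero, add_zero, mul_zero] at h1
        simp only [Function.update_eq_self]
        exact h1) with h | h
    · exact h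
    · linarith
  have hn2 : |q 2 - c2| ≤ s / 2 := by
    rcases coord_near (R := R 2) (f := fun y => β (Function.update q 2 y)) hs hR2.le hq'.2.2 (y := 0)
      (fun y hy => by
        have h1 := hm _ (upd_mem2 hq hy)
        rw [hφ] at h1
        have e1 : Function.update q 2 y 1 = q 1 := Function.update_of_ne (by decide) _ _
        have e2 : Function.update q 2 y 0 = q 0 := Function.update_of_ne (by decide) _ _
        simp only [e1, e2, Function.update_self] at h1
        simp only [Function.update_eq_self]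
        linarith)
      (fun y hy => by
        have h1 := hL q hq _ (upd_mem2 hq hy)
        have e1 : Function.update q 2 y 1 = q 1 := Function.update_of_ne (by decide) _ _
        have e2 : Function.update q 2 y 0 = q 0 := Function.update_of_ne (by decide) _ _
        rw [Fin.sum_univ_three, e1, e2] at h1
        simp only [Function.update_self, sub_self, abs_zero, add_zero, zero_add, mul_zero] at h1
        simp only [Function.update_eq_self]
        exact h1) with h | h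
    · exact h
    · linarith
  have ht : t0 < q 1 ∧ q 1 < T := by
    constructor
    · refine lt_of_le_of_ne hq'.2.1.1 fun h => ?_
      have h1 := hleft (q 0) (q 2) hq'.1 hq'.2.2
      rw [hqv] at hval
      rw [← h] at hval
      simp at hval
      linarith
    · refine lt_of_le_of_ne hq'.2.1.2 fun h => ?_
      have h1 := hright (q 0) (q 2) hq'.1 hq'.2.2
      rw [hqv] at hval
      rw [h] at hval
      simp at hval
      linarith
  refine ⟨q, ![2 * (R 0 / s) * (q 0 - c0), -lam, 2 * (R 2 / s) * (q 2 - c2)], hn0, ht, hn2, rfl,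
    ?_, ?_, hval, ?_⟩
  · show |2 * (R 0 / s) * (q 0 - c0)| ≤ R 0
    rw [abs_mul, abs_of_nonneg (by positivity)]
    calc 2 * (R 0 / s) * |q 0 - c0| ≤ 2 * (R 0 / s) * (s / 2) :=
          mul_le_mul_of_nonneg_left hn0 (by positivity)
      _ = R 0 := by field_simp
  · show |2 * (R 2 / s) * (q 2 - c2)| ≤ R 2
    rw [abs_mul, abs_of_nonneg (by positivity)]
    calc 2 * (R 2 / s) * |q 2 - c2| ≤ 2 * (R 2 / s) * (s / 2) :=
          mul_le_mul_of_nonneg_left hn2 (by positivity)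
      _ = R 2 := by field_simp
  · intro q' hq'
    have h1 := hm q' hq'
    rw [hφ] at h1
    simp only at h1
    rw [Fin.sum_univ_three]
    show β q' ≤ β q + (2 * (R 0 / s) * (q 0 - c0) * (q' 0 - q 0) + -lam * (q' 1 - q 1) +
      2 * (R 2 / s) * (q 2 - c2) * (q' 2 - q 2)) +
      (R 0 / s * (q' 0 - q 0) ^ 2 + R 2 / s * (q' 2 - q 2) ^ 2)
    nlinarith

/-- **rewards with prescribed wide slope** -/
theorem exists_slope {β : (Fin 3 → ℝ) → ℝ} {R c0 c2 s t0 T lam t1 : ℝ} (hs : 0 < s) (hR : 0 < R)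
    (hL : ∀ q ∈ Bx c0 c2 s t0 T, ∀ q' ∈ Bx c0 c2 s t0 T, |β q - β q'| ≤ R * ∑ k, |q k - q' k|)
    (ht0 : t0 ≤ t1) (htT : t1 ≤ T)
    (hleft : ∀ p0 p2, |p0 - c0| ≤ s → |p2 - c2| ≤ s →
      β ![p0, t0, p2] + lam * t0 < β ![c0, t1, c2] + lam * t1)
    (hright : ∀ p0 p2, |p0 - c0| ≤ s → |p2 - c2| ≤ s →
      β ![p0, T, p2] + lam * T < β ![c0, t1, c2] + lam * t1) :
    ∃ q g : Fin 3 → ℝ, |q 0 - c0| ≤ s / 2 ∧ (t0 < q 1 ∧ q 1 < T) ∧ |q 2 - c2| ≤ s / 2 ∧
      g 1 = -lam ∧ |g 0| ≤ R ∧ |g 2| ≤ R ∧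
      β ![c0, t1, c2] + lam * t1 ≤ β q + lam * q 1 ∧
      ∀ q' ∈ Bx c0 c2 s t0 T, β q' ≤ β q + ∑ k, g k * (q' k - q k) +
        R / s * ((q' 0 - q 0) ^ 2 + (q' 2 - q 2) ^ 2) := by
  obtain ⟨q, g, h1, h2, h3, h4, h5, h6, h7, h8⟩ := exists_slopeV (R := fun _ => R) hs
    (fun _ => hR) (fun q hq q' hq' => by
      have := hL q hq q' hq'
      rwa [Finset.mul_sum] at this) ht0 htT hleft hright
  exact ⟨q, g, h1, h2, h3, h4, h5, h6, h7, fun q' hq' => (h8 q' hq').trans (le_of_eq (by ring))⟩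

/-! ### the hypothesis of (STEP) -/

/-- `UBw` is monotone in `β'` -/
theorem ubw_mono {σ κ : Type} [Fintype κ] {G : Geo σ κ} {R : Rel κ} {I : ℕ → Finset (ℕ × ℝ)}
    {lo hi : ℕ → ℕ} {x : κ → ℝ} {β β' : ℝ} (h : UBw G R I lo hi x β) (hb : β ≤ β') :
    UBw G R I lo hi x β' := by
  intro η hη
  obtain ⟨δ, hδ, h1⟩ := h η hη
  refine ⟨δ, hδ, h1.mono fun n hn => ?_⟩
  intro i j k h1 h2 h3 h4 h5 A hA hne hc ho c b w D0 D1 hD0 hD1 hcl hlow hup
  refine (hn i j k h1 h2 h3 h4 h5 A hA hne hc ho c b w D0 D1 hD0 hD1 hcl hlow hup).trans ?_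
  refine mul_le_mul_of_nonneg_left ?_ hD0.le
  refine Real.rpow_le_rpow_of_exponent_le (by norm_num) ?_
  have : (i : ℝ) ≤ j := by exact_mod_cast h2.le
  nlinarith

/-- **the hypothesis of `LeafStep` from a supergradient** -/
theorem leaf_of_super {σ κ : Type} [Fintype κ] {G : Geo σ κ} {R : Rel κ}
    {I : ℕ → Finset (ℕ × ℝ)} {lo hi : ℕ → ℕ} {b : (κ → ℝ) → ℝ} {q g : κ → ℝ} {ρ A : ℝ}
    (hρ : 0 < ρ) (hA : 0 ≤ A)
    (hU : ∀ x : κ → ℝ, (∀ k, |x k| ≤ ρ) → UBw G R I lo hi x (b (q + x)))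
    (hg : ∀ x : κ → ℝ, (∀ k, |x k| ≤ ρ) → b (q + x) ≤ b q + ∑ k, g k * x k + A * ∑ k, x k ^ 2)
    (lam : κ → ℝ) : ∀ ω : ℝ, 0 < ω → ∃ r : ℝ, 0 < r ∧ ∀ r', 0 < r' → r' ≤ r → ∃ β' : ℝ,
      UBw G R I lo hi (fun k => r' * lam k) β' ∧
        |β' - b q - r' * ∑ k, g k * lam k| ≤ ω * r' := by
  intro ω hω
  set S : ℝ := ∑ k, |lam k| with hS
  have hS0 : 0 ≤ S := Finset.sum_nonneg fun _ _ => abs_nonneg _
  set Q : ℝ := ∑ k, lam k ^ 2 with hQ
  have hQ0 : 0 ≤ Q := Finset.sum_nonneg fun _ _ => sq_nonneg _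
  refine ⟨min (ρ / (S + 1)) (ω / (A * Q + 1)), lt_min (by positivity) (by positivity), ?_⟩
  intro r' h0 hr'
  have h1 : r' * (S + 1) ≤ ρ := by
    have := hr'.trans (min_le_left _ _)
    rwa [le_div_iff₀ (by positivity)] at this
  have h2 : r' * (A * Q + 1) ≤ ω := by
    have := hr'.trans (min_le_right _ _)
    rwa [le_div_iff₀ (by positivity)] at this
  have hx : ∀ k, |r' * lam k| ≤ ρ := by
    intro k
    rw [abs_mul, abs_of_pos h0]
    have h3 : |lam k| ≤ S := Finset.single_le_sum (f := fun k => |lam k|)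
      (fun _ _ => abs_nonneg _) (Finset.mem_univ k)
    nlinarith
  refine ⟨b q + r' * ∑ k, g k * lam k + A * (r' ^ 2 * Q), ?_, ?_⟩
  · refine ubw_mono (hU _ hx) ((hg _ hx).trans (le_of_eq ?_))
    have e1 : ∑ k, g k * (r' * lam k) = r' * ∑ k, g k * lam k := by
      rw [Finset.mul_sum]
      exact Finset.sum_congr rfl fun k _ => by ring
    have e2 : ∑ k, (r' * lam k) ^ 2 = r' ^ 2 * Q := by
      rw [hQ, Finset.mul_sum]
      exact Finset.sum_congr rfl fun k _ => by ring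
    rw [e1, e2]
  · have e : b q + r' * ∑ k, g k * lam k + A * (r' ^ 2 * Q) - b q - r' * ∑ k, g k * lam k =
        r' * (r' * (A * Q)) := by ring
    rw [e, abs_of_nonneg (by positivity)]
    have h3 : r' * (A * Q) ≤ ω := by nlinarith
    calc r' * (r' * (A * Q)) ≤ r' * ω := mul_le_mul_of_nonneg_left h3 h0.le
      _ = ω * r' := by ring

end Crest.Agent.R136.Rw5
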