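import Crest.Agent.R136.Vw6_848
import Crest.Agent.R136.PinX_851

/-!
# R136 (helper848): row `deadhi2`, the windows: a seen slot is visible

* `CasOk` : static facts of a case; `win_core` : loss of `c` `≤` loss of the seen slots
* `closs` : `c` costs something in the window; `seen_zero` : invisible slots cost nothing
* **`seen_vis`** : on a rung `s > 2` with dominant slots of weight `w ≥ 2`, not resonant, one of the
  seen slots of weight `w - 1` is visible, given `z` and the flags of weight `≥ w` narrow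
-/

set_option autoImplicit false
set_option linter.unusedSectionVars false
set_option linter.unusedVariables false

open Filter Topology

namespace Crest.Agent.R136.Vw848

open Finset Crest.Agent.R136.NetW191 Crest.Agent.R136.Net191 Crest.Agent.R136.Qg926
open Crest.Agent.R136.EvW938 Crest.Agent.R136.RowW619 Crest.Agent.R136.Lf400
open Crest.Agent.R136.TrI938 Crest.Agent.R136.Bas938
open Crest.Agent.R136.LadW697 Crest.Agent.R136.NatW697 Crest.Agent.R136.PrW464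
open Crest.Agent.R136.Dg219
open Crest.Agent.R136.AwJ774
open Crest.Agent.R136.ThB830 (PtC)
open Crest.Agent.R136.P0830 (ptB_of basG_of)
open Crest.Agent.R136.LadT830 (Top)
open Crest.Agent.R136.Aw413
open Crest.Agent.R138.Ex926 (Base U)
open Crest.Agent.R136.Gf356
open Crest.Agent.R136.RowI938 (n1 nP okV_lin wdat_lin mem_lin sum_lin raw_pairs0 exists_closs wI
  wI_mem Z9)

/-- the flags of weight `≥ w` and the first seen slot narrow -/
def mM (w : ℕ) : Fin 18 → ℕ := fun k => if k ∈ FL w ∨ k = Fin.natAdd 4 (seenA w) then 1 else 0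

theorem okM : (∀ v ∈ ({8, 10, 11, 14} : Finset (Fin 18)), OkV (bW 2 v) 1 (wz1 (mM 2))) ∧
    (∀ v ∈ ({6, 9} : Finset (Fin 18)), OkV (bW 3 v) 1 (wz1 (mM 3))) ∧
    (∀ v ∈ ({4, 5, 7} : Finset (Fin 18)), OkV (bW 4 v) 1 (wz1 (mM 4))) := by decide

/-- **static facts of a case** : weight, dropped slots of weight `w`, own slot, power, seen slot -/
structure CasOk (w : ℕ) (D : Finset (Fin 18)) (v : Fin 14) (α : ℕ) (hd : Fin 14) : Prop where
  gen : Gen w v α hd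
  wd : WDat (bW w (Fin.natAdd 4 v)) n1 1 (SW w D)
  bok : BOk w (Fin.natAdd 4 v)
  bv : NatV (bvW w D (Fin.natAdd 4 v))
  mem : Fin.natAdd 4 v ∈ SW w D
  off : ∀ k ∈ ZW w, alW k ≤ alW (Fin.natAdd 4 v) → bW w (Fin.natAdd 4 v) k = 0
  okM : OkV (bW w (Fin.natAdd 4 v)) 1 (wz1 (mM w))

theorem offS : ∀ w ∈ ({2, 3, 4} : Finset ℕ), ∀ v ∈ ZW w, ∀ k ∈ ZW w, alW k ≤ alW v →
    bW w v k = 0 := by decide

/-- **the cases** -/
theorem cas_ex {Dr : Finset (Fin 18)} (hDr : Dr = {4, 5, 6, 8} ∨ Dr = {4} ∨ Dr = ∅) {w : ℕ}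
    (hw : w ∈ ({2, 3, 4} : Finset ℕ)) {v0 : Fin 18} (h1 : v0 ∈ ZW w) (h2 : v0 ∉ Dr) :
    ∃ v : Fin 14, v0 = Fin.natAdd 4 v ∧ ∃ (α : ℕ) (hd : Fin 14),
      CasOk w (ZW w ∩ Dr) v α hd ∧ Fin.natAdd 4 hd ∉ Dr := by
  have hw' : w = 2 ∨ w = 3 ∨ w = 4 := by simpa using hw
  have i2 : ZW 2 ∩ ({4, 5, 6, 8} : Finset (Fin 18)) = {8} ∧
      ZW 2 ∩ ({4} : Finset (Fin 18)) = ∅ ∧ ZW 2 ∩ (∅ : Finset (Fin 18)) = ∅ := by decide
  have i3 : ZW 3 ∩ ({4, 5, 6, 8} : Finset (Fin 18)) = {6} ∧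
      ZW 3 ∩ ({4} : Finset (Fin 18)) = ∅ ∧ ZW 3 ∩ (∅ : Finset (Fin 18)) = ∅ := by decide
  have i4 : ZW 4 ∩ ({4, 5, 6, 8} : Finset (Fin 18)) = {4, 5} ∧
      ZW 4 ∩ ({4} : Finset (Fin 18)) = {4} ∧ ZW 4 ∩ (∅ : Finset (Fin 18)) = ∅ := by decide
  rcases hw' with rfl | rfl | rfl
  · have hv : v0 = 8 ∨ v0 = 10 ∨ v0 = 11 ∨ v0 = 14 := by simpa [ZW] using h1
    have okm := okM.1
    have key : ∀ Dr' : Finset (Fin 18), (∀ v ∈ ({10, 11, 14} : Finset (Fin 18)),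
        WDat (bW 2 v) n1 1 (SW 2 Dr') ∧ NatV (bvW 2 Dr' v)) → Dr' ⊆ {8} →
        (12 : Fin 18) ∉ Dr → (15 : Fin 18) ∉ Dr → (v0 = 8 → WDat (bW 2 8) n1 1 (SW 2 Dr') ∧
          NatV (bvW 2 Dr' 8) ∧ 8 ∉ Dr') → ∃ v : Fin 14, v0 = Fin.natAdd 4 v ∧
          ∃ (α : ℕ) (hd : Fin 14), CasOk 2 Dr' v α hd ∧ Fin.natAdd 4 hd ∉ Dr := by
      intro Dr' hk hsub h12 h15 h8
      have hn : ∀ x : Fin 18, x ≠ 8 → x ∈ ZW 2 → x ∈ SW 2 Dr' := fun x hx hx2 =>
        Finset.mem_insert_of_mem (Finset.mem_sdiff.2 ⟨hx2, fun hm => hx (Finset.mem_singleton.1 (hsub hm))⟩)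
      rcases hv with rfl | rfl | rfl | rfl
      · obtain ⟨a1, a2, a3⟩ := h8 rfl
        exact ⟨4, rfl, 1, 8, ⟨by decide, a1, bok2 8 (by decide), a2,
          Finset.mem_insert_of_mem (Finset.mem_sdiff.2 ⟨by decide, a3⟩), offS 2 (by decide) 8
          (by decide), okm 8 (by decide)⟩, h12⟩
      · exact ⟨6, rfl, 1, 11, ⟨by decide, (hk 10 (by decide)).1, bok2 10 (by decide),
          (hk 10 (by decide)).2, hn 10 (by decide) (by decide), offS 2 (by decide) 10 (by decide),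
          okm 10 (by decide)⟩, h15⟩
      · exact ⟨7, rfl, 1, 11, ⟨by decide, (hk 11 (by decide)).1, bok2 11 (by decide),
          (hk 11 (by decide)).2, hn 11 (by decide) (by decide), offS 2 (by decide) 11 (by decide),
          okm 11 (by decide)⟩, h15⟩
      · exact ⟨10, rfl, 0, 11, ⟨by decide, (hk 14 (by decide)).1, bok2 14 (by decide),
          (hk 14 (by decide)).2, hn 14 (by decide) (by decide), offS 2 (by decide) 14 (by decide),
          okm 14 (by decide)⟩, h15⟩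
    have wsub : ∀ v ∈ ({10, 11, 14} : Finset (Fin 18)), v ∈ ({8, 10, 11, 14} : Finset (Fin 18)) :=
      by decide
    rcases hDr with rfl | rfl | rfl
    · rw [i2.1]
      exact key _ (fun v hv => ⟨wd2 v hv, bv2 v hv⟩) subset_rfl (by decide) (by decide)
        (fun e => absurd (by rw [e]; decide) h2)
    · rw [i2.2.1]
      exact key _ (fun v hv => ⟨wd2' v (wsub v hv), bv2' v (wsub v hv)⟩) (Finset.empty_subset _)
        (by decide) (by decide) (fun e => ⟨wd2' 8 (by decide), bv2' 8 (by decide), by decide⟩)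
    · rw [i2.2.2]
      exact key _ (fun v hv => ⟨wd2' v (wsub v hv), bv2' v (wsub v hv)⟩) (Finset.empty_subset _)
        (by decide) (by decide) (fun e => ⟨wd2' 8 (by decide), bv2' 8 (by decide), by decide⟩)
  · have hv : v0 = 6 ∨ v0 = 9 := by simpa [ZW] using h1
    have okm := okM.2.1
    have key : ∀ Dr' : Finset (Fin 18), WDat (bW 3 9) n1 1 (SW 3 Dr') → NatV (bvW 3 Dr' 9) →
        9 ∉ Dr' → (14 : Fin 18) ∉ Dr → (v0 = 6 → WDat (bW 3 6) n1 1 (SW 3 Dr') ∧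
          NatV (bvW 3 Dr' 6) ∧ 6 ∉ Dr') → ∃ v : Fin 14, v0 = Fin.natAdd 4 v ∧
          ∃ (α : ℕ) (hd : Fin 14), CasOk 3 Dr' v α hd ∧ Fin.natAdd 4 hd ∉ Dr := by
      intro Dr' k1 k2 k3 h14 h6
      rcases hv with rfl | rfl
      · obtain ⟨a1, a2, a3⟩ := h6 rfl
        exact ⟨2, rfl, 2, 10, ⟨by decide, a1, bok3 6 (by decide), a2,
          Finset.mem_insert_of_mem (Finset.mem_sdiff.2 ⟨by decide, a3⟩), offS 3 (by decide) 6
          (by decide), okm 6 (by decide)⟩, h14⟩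
      · exact ⟨5, rfl, 1, 10, ⟨by decide, k1, bok3 9 (by decide), k2,
          Finset.mem_insert_of_mem (Finset.mem_sdiff.2 ⟨by decide, k3⟩), offS 3 (by decide) 9
          (by decide), okm 9 (by decide)⟩, h14⟩
    rcases hDr with rfl | rfl | rfl
    · rw [i3.1]
      exact key _ (wd3 9 (by decide)) (bv3 9 (by decide)) (by decide) (by decide)
        (fun e => absurd (by rw [e]; decide) h2)
    · rw [i3.2.1]
      exact key _ (wd3' 9 (by decide)) (bv3' 9 (by decide)) (by decide) (by decide)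
        (fun e => ⟨wd3' 6 (by decide), bv3' 6 (by decide), by decide⟩)
    · rw [i3.2.2]
      exact key _ (wd3' 9 (by decide)) (bv3' 9 (by decide)) (by decide) (by decide)
        (fun e => ⟨wd3' 6 (by decide), bv3' 6 (by decide), by decide⟩)
  · have hv : v0 = 4 ∨ v0 = 5 ∨ v0 = 7 := by simpa [ZW] using h1
    have okm := okM.2.2
    have key : ∀ Dr' : Finset (Fin 18), WDat (bW 4 7) n1 1 (SW 4 Dr') → NatV (bvW 4 Dr' 7) →
        7 ∉ Dr' → (9 : Fin 18) ∉ Dr → (v0 = 4 → WDat (bW 4 4) n1 1 (SW 4 Dr') ∧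
          NatV (bvW 4 Dr' 4) ∧ 4 ∉ Dr' ∧ 6 ∉ Dr) → (v0 = 5 → WDat (bW 4 5) n1 1 (SW 4 Dr') ∧
          NatV (bvW 4 Dr' 5) ∧ 5 ∉ Dr' ∧ 6 ∉ Dr) → ∃ v : Fin 14, v0 = Fin.natAdd 4 v ∧
          ∃ (α : ℕ) (hd : Fin 14), CasOk 4 Dr' v α hd ∧ Fin.natAdd 4 hd ∉ Dr := by
      intro Dr' k1 k2 k3 h9 h4 h5
      rcases hv with rfl | rfl | rfl
      · obtain ⟨a1, a2, a3, a4⟩ := h4 rfl
        exact ⟨0, rfl, 1, 2, ⟨by decide, a1, bok4 4 (by decide), a2,
          Finset.mem_insert_of_mem (Finset.mem_sdiff.2 ⟨by decide, a3⟩), offS 4 (by decide) 4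
          (by decide), okm 4 (by decide)⟩, a4⟩
      · obtain ⟨a1, a2, a3, a4⟩ := h5 rfl
        exact ⟨1, rfl, 0, 2, ⟨by decide, a1, bok4 5 (by decide), a2,
          Finset.mem_insert_of_mem (Finset.mem_sdiff.2 ⟨by decide, a3⟩), offS 4 (by decide) 5
          (by decide), okm 5 (by decide)⟩, a4⟩
      · exact ⟨3, rfl, 0, 5, ⟨by decide, k1, bok4 7 (by decide), k2,
          Finset.mem_insert_of_mem (Finset.mem_sdiff.2 ⟨by decide, k3⟩), offS 4 (by decide) 7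
          (by decide), okm 7 (by decide)⟩, h9⟩
    rcases hDr with rfl | rfl | rfl
    · rw [i4.1]
      exact key _ (wd4 7 (by decide)) (bv4 7 (by decide)) (by decide) (by decide)
        (fun e => absurd (by rw [e]; decide) h2) (fun e => absurd (by rw [e]; decide) h2)
    · rw [i4.2.1]
      exact key _ (wd4a 7 (by decide)) (bv4a 7 (by decide)) (by decide) (by decide)
        (fun e => absurd (by rw [e]; decide) h2)
        (fun e => ⟨wd4a 5 (by decide), bv4a 5 (by decide), by decide, by decide⟩)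
    · rw [i4.2.2]
      exact key _ (wd4b 7 (by decide)) (bv4b 7 (by decide)) (by decide) (by decide)
        (fun e => ⟨wd4b 4 (by decide), bv4b 4 (by decide), by decide, by decide⟩)
        (fun e => ⟨wd4b 5 (by decide), bv4b 5 (by decide), by decide, by decide⟩)

theorem zw_wq : ∀ w ∈ ({2, 3, 4} : Finset ℕ), ∀ q : Fin 14, Fin.natAdd 4 q ∈ insert 0 (ZW w) →
    wq q = w := by decide
theorem fl_wq : ∀ w ∈ ({2, 3, 4} : Finset ℕ), ∀ q : Fin 14, wq q < w →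
    Fin.natAdd 4 q ∉ FL w := by decide
theorem zw_fl : ∀ w ∈ ({2, 3, 4} : Finset ℕ), ∀ k ∈ ZW w, k ∈ FL w := by decide
theorem seen_wq : ∀ w ∈ ({2, 3, 4} : Finset ℕ), wq (seenA w) + 1 = w ∧ wq (seenB w) + 1 = w ∧
    1 ≤ w ∧ Fin.natAdd 4 (seenA w) ∉ insert 0 (ZW w) ∧ Fin.natAdd 4 (seenB w) ∉ insert 0 (ZW w) ∧
    mR w (Fin.natAdd 4 (seenA w)) = 1 ∧ mR w (Fin.natAdd 4 (seenB w)) = 1 := by decide
theorem eW_nat : ∀ w ∈ ({2, 3, 4} : Finset ℕ), ∀ k, ∀ l ∈ mlW k, eW w k ≤ (l.map (eW w)).sum := by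
  intro w hw
  rcases Finset.mem_insert.1 hw with rfl | hw
  · exact eW_nat2
  rcases Finset.mem_insert.1 hw with rfl | hw
  · exact eW_nat3
  rw [Finset.mem_singleton.1 hw]
  exact eW_nat4
theorem ew0 : ∀ w ∈ ({2, 3, 4} : Finset ℕ), eW w 0 = 0 ∧ eW w 1 = 1 ∧ (∀ k ∈ ZW w, eW w k = 0) ∧
    (∀ i : Fin 4, mT w (Fin.castAdd 14 i) = 0) ∧ (∀ k, mT w k ≤ 1) ∧ (∀ k, mR w k ≤ 1) ∧
    (∀ k, mT w k ≤ mR w k) ∧ (∀ k ∈ ZW w, mT w k = 1) ∧ (∀ k ∈ ZW w, mR w k = 1) := by decide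

theorem wz1_nP : wz1 nP = nP := by
  funext k; unfold wz1; split_ifs with h
  · subst h; rfl
  · rfl
theorem wz1_n1 : wz1 n1 = n1 := by
  funext k; unfold wz1; split_ifs with h
  · rfl
  · rfl

section pt

variable {B Bo : Base} {I J : ∀ n : ℕ, Finset (ℕ × ℝ)}
  {co : ∀ n : ℕ, ℕ × ℝ → ℕ × ℝ → Fin 18 → ℝ} {κ : ℕ → ℝ} {u : ℕ → Fin 18 → ℝ}
  {f : ∀ n : ℕ, ℕ × ℝ → FW} {C : ℝ}
  {lam : (Fin 18 → ℝ) → ℝ} {A : ℝ × ℝ} {φ : ℕ → (Fin 18 → ℝ) → ℝ}
  {r : ℕ → ℝ} {K : ℝ} {θ q : Fin 3 → ℝ} {V T : Set (Fin 18)} {s : ℝ} {lo : (Fin 18 → ℝ) → ℝ}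

/-- a visible slot of the rung has weight `w` -/
theorem vis_zw (h : PtC B Bo I J co C κ u f K θ q V T s lam lo A φ r)
    {w : ℕ} (hw : w ∈ ({2, 3, 4} : Finset ℕ)) (hs : s = 1 - θ 0 + w * θ 1) {k : Fin 18}
    (hk : k ∈ V ∧ KW θ k = s) : k ∈ ZW w ∧ k ∉ DrW s := by
  obtain ⟨h4, -, h2⟩ := h.vis k hk.1
  have e := hk.2
  rw [KW_flag θ h4, hs] at e
  have h3 : ((wc k : ℝ) + w) * θ 1 = 0 := by linarith
  have h5 : ((wc k : ℝ) + w) = 0 := (mul_eq_zero.1 h3).resolve_right h.th1.ne'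
  have h6 : wc k + (w : ℤ) = 0 := by exact_mod_cast h5
  refine ⟨?_, fun hm => ?_⟩
  · have key : ∀ w ∈ ({2, 3, 4} : Finset ℕ), ∀ k : Fin 18, 4 ≤ k → wc k + (w : ℤ) = 0 →
      k ∈ ZW w := by decide
    exact key w hw k h4 h6
  · have := hm.2
    rw [hk.2] at h2
    linarith

set_option maxHeartbeats 1000000 in
/-- **loss of `c` `≤` loss of the seen slots** -/
theorem win_core (h : PtC B Bo I J co C κ u f K θ q V T s lam lo A φ r)
    {w : ℕ} (hw : w ∈ ({2, 3, 4} : Finset ℕ)) (hs : s = 1 - θ 0 + w * θ 1) (hs2 : 2 < s)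
    (hres : ¬ LadT830.Reso θ s) {D : Finset (Fin 18)} (hD : ∀ k ∈ ZW w, k ∈ D ↔ k ∈ DrW s)
    {v : Fin 14} {α : ℕ} {hd : Fin 14} (hc : CasOk w D v α hd) (hh : Fin.natAdd 4 hd ∉ DrW s)
    (hvV : Fin.natAdd 4 v ∈ V) (hvK : KW θ (Fin.natAdd 4 v) = s) (hvT : Fin.natAdd 4 v ∈ T)
    (hmax : ∀ k ∈ V, KW θ k = s → alW k ≤ alW (Fin.natAdd 4 v)) (N : ℕ) :
    lam (scV 1 (fun k => bW w (Fin.natAdd 4 v) k + N * eW w k) + scV 1 nP) -
      lam (scV 1 (fun k => bW w (Fin.natAdd 4 v) k + N * eW w k) + scV 1 n1) ≤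
    lam (scV 1 (fun k => bW w (Fin.natAdd 4 v) k + N * eW w k) + scV 1 (wz1 (mT w))) -
      lam (scV 1 (fun k => bW w (Fin.natAdd 4 v) k + N * eW w k) + scV 1 (wz1 (mR w))) := by
  have hP := ptB_of h
  have hM := hP.act
  obtain ⟨e0, e1, eZ, T0, T1, R1, TR, TZ, RZ⟩ := ew0 w hw
  obtain ⟨sA, sB, w1, nA, nB, rA, rB⟩ := seen_wq w hw
  have hSub : ∀ k ∈ SW w D, k ∈ insert 0 (ZW w) := fun k hk => by
    rcases Finset.mem_insert.1 hk with h1 | h1
    · rw [h1]; exact Finset.mem_insert_self _ _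
    · exact Finset.mem_insert_of_mem (Finset.mem_sdiff.1 h1).1
  set n0 : Fin 18 → ℕ := fun k => bW w (Fin.natAdd 4 v) k + N * eW w k with hn0
  have hdN : WDat n0 n1 1 (SW w D) := wdat_lin (eW_nat w hw) e0 hc.wd N
  obtain ⟨W, E, g⟩ := hP.win hdN (y := 1) one_pos
    (fun i j e hi => (grS2 hw h.th1 hs hres hD i j e hi).imp id Or.inr)
    (fun k hk => by
      have hk' := (vis_zw h hw hs hk).1
      show bW w (Fin.natAdd 4 v) k + N * eW w k = 0
      rw [hc.off k hk' (hmax k hk.1 hk.2), eZ k hk', mul_zero, add_zero])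
    (fun k hk => by
      left
      obtain ⟨h1, h2⟩ := vis_zw h hw hs hk
      exact Finset.mem_insert_of_mem (Finset.mem_sdiff.2 ⟨h1, fun h3 => h2 ((hD k h1).1 h3)⟩))
  have hvD : Fin.natAdd 4 v ∉ DrW s := (vis_zw h hw hs ⟨hvV, hvK⟩).2
  have topv : ∀ k, W.top k = 1 := by
    intro k; rw [g.etop]; simp [scV, n1]
  have d4 : ∀ k : Fin 18, ¬ 4 ≤ k → k ∉ DrW s := fun k hk hm => hk hm.1
  -- the twist
  have hR : RawL W E (Fin.natAdd 4 v) := g.tw _ hc.mem ⟨hvT, hvV, hvK⟩ (by simp [n1]) (by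
      obtain ⟨-, ⟨o1, o2⟩, -⟩ := offC _ hc.gen
      simp only at o1 o2
      show bW w (Fin.natAdd 4 v) (Fin.natAdd 4 v) + N * eW w (Fin.natAdd 4 v) = 0
      rw [o1, o2, mul_zero, add_zero]) ⟨1, one_pos, by
      rw [hn0, bvW_eq w D N hc.mem]
      exact mem_lin hM hc.bv (eW_nat w hw) N⟩
  have htw := twC g.ww g.ev (t := 1) one_pos (fun k => (topv k).ge) hc.gen g.hk (c := 1) one_pos
    (Eventually.of_forall fun n => hcf_of hc.gen g (d4 0 (by decide)) (d4 1 (by decide))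
      (d4 2 (by decide)) hvD hh n) (by
    intro ε hε
    filter_upwards [raw_pairs0 g.ww g.ev g.mod one_pos one_pos (topv 0).ge hR ε hε,
      ev_const_le W.B' hε 4] with n hn h4 i hi
    obtain ⟨T', hT1, hT2, hT3⟩ := hn i hi
    refine ⟨T', hT1, fun q hq => (hT2 q hq).symm, le_trans ?_ hT3⟩
    refine mul_le_mul_of_nonneg_right ?_ (sq_nonneg _)
    have e : W.B'.d n ^ ε * W.B'.d n ^ (-ε) = 1 := by
      rw [← Real.rpow_add (W.B'.pos n), add_neg_cancel, Real.rpow_zero]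
    have hp := Real.rpow_pos_of_pos (W.B'.pos n) ε
    nlinarith)
  -- legality and values
  have cutn : ∀ n : Fin 18 → ℕ, (∀ k ∈ ZW w, n k = 1) →
      cut W.S (scV 1 n) W.top = scV 1 (if (0 : Fin 18) ∈ W.S then wz1 n else n) := by
    intro n hn
    have hS0 : (0 : Fin 18) ∈ W.S := by rw [g.eS]; exact Finset.mem_insert_self _ _
    rw [if_pos hS0, g.eS]
    funext k
    by_cases hk : k ∈ SW w D
    · rw [cut_of_mem hk, topv k]
      rcases Finset.mem_insert.1 (hSub k hk) with h1 | h1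
      · simp [scV, wz1, h1]
      · have : k ≠ 0 := by
          rintro rfl
          exact absurd (zw_tau w hw 0 h1).1 (by decide)
        simp [scV, wz1, this, hn k h1]
    · rw [cut_of_notMem hk]
      have : k ≠ 0 := by
        rintro rfl
        exact hk (Finset.mem_insert_self _ _)
      simp [scV, wz1, this]
  have hS0 : (0 : Fin 18) ∈ W.S := by rw [g.eS]; exact Finset.mem_insert_self _ _
  simp only [if_pos hS0] at cutn
  have leg : ∀ n : Fin 18 → ℕ, OkV (bW w (Fin.natAdd 4 v)) 1 (wz1 n) → (∀ k, n k ≤ 1) →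
      (∀ k ∈ ZW w, n k = 1) → scV 1 n ∈ W.legW := by
    intro n hn hn1 hS
    constructor
    · rw [cutn n hS, g.eMw, g.eR]
      exact leg_one hM (okV_lin (eW_nat w hw) hn N) zero_le_one
    · intro k _
      rw [topv k]
      have : (n k : ℝ) ≤ 1 := by exact_mod_cast hn1 k
      simp only [scV]
      linarith
  have nuv : ∀ n : Fin 18 → ℕ, (∀ k ∈ ZW w, n k = 1) → W.nu (scV 1 n) =
      lam (scV 1 n0 + scV 1 (wz1 n)) - lam (scV 1 n0 + scV 1 n1) := by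
    intro n hS
    unfold Wnd.nu
    rw [cutn n hS, g.elam, g.etop]
    ring
  have zne1 : ∀ k ∈ ZW w, k ≠ 1 := by
    rintro k hk rfl
    exact absurd (zw_tau w hw 1 hk).1 (by decide)
  have sP : ∀ k ∈ ZW w, nP k = 1 := fun k hk => by simp [nP, zne1 k hk]
  have s1 : ∀ k ∈ ZW w, n1 k = 1 := fun k hk => rfl
  have key := rowC_shift g.ww g.ev g.mod (y := 1) (fun k => (topv k).ge) w1 sA sB
    (by rw [g.eS]; exact fun hm => nA (hSub _ hm)) (by rw [g.eS]; exact fun hm => nB (hSub _ hm))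
    (fun ε _ => Eventually.of_forall fun n i k k' _ _ q' hq' hqw => by
      rw [g.eS] at hq'
      exact absurd (zw_wq w hw q' (hSub _ hq')) hqw)
    htw (scV 1 nP) (scV 1 n1) (scV 1 (mT w)) (scV 1 (mR w))
    (leg nP (by rw [wz1_nP]; exact hc.bok.p) (by decide) sP)
    (leg n1 (by rw [wz1_n1]; exact hc.wd.top) (by decide) s1)
    (leg (mT w) hc.bok.t T1 TZ) (leg (mR w) hc.bok.r R1 RZ)
    (fun k => by
      have : ((mT w k : ℕ) : ℝ) ≤ mR w k := by exact_mod_cast TR k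
      simp only [scV]; linarith)
    (by simp [scV, n1])
    (fun j hj => by
      have : ∀ j : Fin 18, j ≠ 1 → n1 j ≤ nP j := by decide
      have h2 : ((n1 j : ℕ) : ℝ) ≤ nP j := by exact_mod_cast this j hj
      simp only [scV]; linarith)
    (fun k _ hk => by
      have : ∀ j : Fin 18, j ≠ 1 → 1 ≤ nP j := by decide
      have h2 : (1 : ℝ) ≤ nP k := by exact_mod_cast this k hk
      simp only [scV]; linarith)
    (fun i => by simp [scV, T0 i])
    (fun q' _ hq' => by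
      have : mT w (Fin.natAdd 4 q') = 0 := if_neg (fl_wq w hw q' hq')
      simp [scV, this])
    (fun k _ => by
      have : (mT w k : ℝ) ≤ 1 := by exact_mod_cast T1 k
      simp only [scV]; linarith)
    (by simp [scV, rA]) (by simp [scV, rB])
  rw [nuv nP sP, nuv n1 s1, nuv (mT w) TZ, nuv (mR w) RZ, wz1_nP, wz1_n1] at key
  linarith


theorem bw1 : ∀ w ∈ ({2, 3, 4} : Finset ℕ), ∀ v : Fin 18, bW w v 1 = 0 := by decide
theorem bw4 : ∀ w ∈ ({2, 3} : Finset ℕ), ∀ v : Fin 18, bW w v 4 = 2 ∧ eW w 4 = 0 := by decide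

/-- **the slot `c` costs something in the window** -/
theorem closs (h : PtC B Bo I J co C κ u f K θ q V T s lam lo A φ r)
    {w : ℕ} (hw : w ∈ ({2, 3, 4} : Finset ℕ)) (hs2 : 2 < s) (hs3 : s ≠ 3) (hw4 : s = 4 → w ≠ 4)
    {D : Finset (Fin 18)} {v : Fin 14} {α : ℕ} {hd : Fin 14} (hc : CasOk w D v α hd) :
    ∃ N : ℕ, (s ≠ 4 → N = 0) ∧
      lam (scV 1 (fun k => bW w (Fin.natAdd 4 v) k + N * eW w k) + scV 1 n1) <
      lam (scV 1 (fun k => bW w (Fin.natAdd 4 v) k + N * eW w k) + scV 1 nP) := by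
  have hP := ptB_of h
  have hG := basG_of h
  have hM := hP.act
  have mem : ∀ (N : ℕ) (n : Fin 18 → ℕ), OkV (bW w (Fin.natAdd 4 v)) 1 n →
      scV 1 (fun k => bW w (Fin.natAdd 4 v) k + N * eW w k) + scV 1 n ∈
      coneM (mA monW (actW (DrW s))) := fun N n hn =>
    leg_coneN hM (wdat_lin (eW_nat w hw) (ew0 w hw).1 hc.wd N).off zero_le_one
      (leg_one hM (okV_lin (eW_nat w hw) hn N) zero_le_one)
  have b1 : bW w (Fin.natAdd 4 v) 1 = 0 := bw1 w hw _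
  by_cases h4 : s = 4
  · have hw' : w ∈ ({2, 3} : Finset ℕ) := by
      have := hw4 h4
      simp only [Finset.mem_insert, Finset.mem_singleton] at hw ⊢
      omega
    obtain ⟨b4, e4⟩ := bw4 w hw' (Fin.natAdd 4 v)
    have e1 : eW w 1 = 1 := (ew0 w hw).2.1
    obtain ⟨N, hN⟩ := exists_closs hP hG (y := 1) one_pos
    refine ⟨N, fun h => absurd h4 h, ?_⟩
    have hcl : lam (scV 1 (fun k => bW w (Fin.natAdd 4 v) k + N * eW w k) + scV 1 nP) -
        lam (scV 1 (fun k => bW w (Fin.natAdd 4 v) k + N * eW w k) + scV 1 n1) =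
        lam (wI 1 (N * 1)) - lam (wI 1 ((N + 1 : ℕ) * 1)) := by
      refine hP.slot (i := 1) (mem N nP hc.bok.p) (mem N n1 hc.wd.top)
        (wI_mem hM zero_le_one (by positivity)) (wI_mem hM zero_le_one (by positivity))
        (fun j hj _ => ?_) (fun j hj _ => ?_) ?_ ?_ (fun j e hj hD => ?_)
      · have : nP j = n1 j := by
          have : ∀ j : Fin 18, j ≠ 1 → nP j = n1 j := by decide
          exact this j hj
        simp [scV, this]
      · simp [wI, hj]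
      · have : nP 1 = 0 := rfl
        simp only [Pi.add_apply, scV, b1, e1, this, wI, if_true]
        push_cast; ring
      · have : n1 1 = 1 := rfl
        simp only [Pi.add_apply, scV, b1, e1, this, wI, if_true]
        push_cast; ring
      · rw [gC_zero.2 (TW_c s)] at e
        obtain ⟨-, rfl⟩ := grC hs2 hs3 (gC_zero.1 e) hj
        have hZ : (4 : Fin 18) ∈ Z9 := by decide
        have n4 : nP 4 = 1 := rfl
        simp only [Pi.add_apply, scV, b4, e4, n4, wI, if_neg hj, if_pos hZ]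
        push_cast; ring
    linarith
  · refine ⟨0, fun _ => rfl, ?_⟩
    obtain ⟨mm, hm, hsw⟩ := hG.sweep
    have h1 := hsw _ (mem 0 nP hc.bok.p) (by
      have : nP 1 = 0 := rfl
      simp [scV, b1, this]) (fun i hi h0 => absurd (grC hs2 hs3 h0 hi).1 h4) 1 zero_le_one
    have e : scV 1 (fun k => bW w (Fin.natAdd 4 v) k + 0 * eW w k) + scV 1 nP + (1 : ℝ) • e1W =
        scV 1 (fun k => bW w (Fin.natAdd 4 v) k + 0 * eW w k) + scV 1 n1 := by
      funext k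
      simp only [Pi.add_apply, Pi.smul_apply, smul_eq_mul, one_mul]
      by_cases hk : k = 1
      · subst hk
        have : e1W 1 = 1 := by simp [e1W]
        have a1 : nP 1 = 0 := rfl
        have a2 : n1 1 = 1 := rfl
        rw [this]
        simp only [scV, a1, a2]
        push_cast; ring
      · have : e1W k = 0 := by unfold e1W; rw [Pi.single_eq_of_ne hk]
        have a1 : nP k = n1 k := by
          have : ∀ j : Fin 18, j ≠ 1 → nP j = n1 j := by decide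
          exact this k hk
        rw [this]
        simp only [scV, a1, add_zero]
    rw [e] at h1
    linarith

/-- **an invisible slot costs nothing** -/
theorem seen_zero {Dr : Finset (Fin 18)} {a b κ' : Fin 18 → ℝ} {V' Tw : Fin 18 → Prop}
    (h : PtB B Bo I J co κ u f (mA monW (actW (Dr : Set (Fin 18)))) (Dr : Set (Fin 18)) C lam a b A
      φ r κ' V' Tw) {Wf : Finset (Fin 18)} {i : Fin 18} (hU : Pin851.Up2 Dr Wf i)
    (hv : i ∉ Dr → ¬ Pin851.Vis lam Wf i) {c c' : Fin 18 → ℝ}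
    (hc : c ∈ coneM (mA monW (actW (Dr : Set (Fin 18)))))
    (hc' : c' ∈ coneM (mA monW (actW (Dr : Set (Fin 18))))) (h1 : ∀ j, j ≠ i → c j = c' j)
    (h0 : 0 ≤ c i) (hcc : c i ≤ c' i)
    (hg : ∀ j, gC a b j = gC a b i → j ≠ i → i ∉ Dr → j ∉ Dr → c j = 0 ∧ j ∉ Wf) :
    lam c - lam c' ≤ 0 := by
  by_cases hiD : i ∈ Dr
  · rw [h.ind c hc c' hc' fun j hj => h1 j fun e => hj (by rw [e]; exact Finset.mem_coe.2 hiD),
      sub_self]
  by_contra hcon
  push Not at hcon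
  have hv' := hv hiD
  unfold Pin851.Vis at hv'
  push Not at hv'
  have hy' : 0 ≤ c' i := h0.trans hcc
  obtain ⟨x, hx, hlt⟩ := hv' (c' i) (lam c - lam c') hcon hy'
  have hx0 : 0 ≤ x := hy'.trans hx
  have ce := Pin851.cone_eq Dr
  have m0 : ind Wf x ∈ coneM (mA monW (actW (Dr : Set (Fin 18)))) := by
    rw [ce]; exact Pin851.mem_ind hU.1 hx0
  have m1 : ∀ y : ℝ, 0 ≤ y → y ≤ x → Function.update (ind Wf x) i y ∈
      coneM (mA monW (actW (Dr : Set (Fin 18)))) := fun y hy hyx => by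
    rw [ce]; exact Pin851.mem_upd hU.1 hU.2.1 hU.2.2 hy hyx
  have e := h.slot (i := i) hc hc' (m1 (c i) h0 (hcc.trans hx)) (m1 (c' i) hy' hx)
    (fun j hj _ => h1 j hj)
    (fun j hj _ => by rw [Function.update_of_ne hj, Function.update_of_ne hj])
    (by rw [Function.update_self]) (by rw [Function.update_self])
    (fun j hj1 hj2 hj3 => by
      obtain ⟨a1, a2⟩ := hg j hj1 hj2 hiD (fun hm => hj3 (Finset.mem_coe.2 hm))
      rw [Function.update_of_ne hj2, a1, ind_notMem a2])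
  have h2 := h.aew.anti _ m0 _ (m1 (c i) h0 (hcc.trans hx)) (fun k => by
    by_cases hk : k = i
    · subst hk
      rw [Function.update_self, ind_notMem hU.2.2]; exact h0
    · rw [Function.update_of_ne hk])
  linarith

theorem seen_ne' : ∀ w ∈ ({2, 3, 4} : Finset ℕ), ∀ i j : Fin 18, Seen w i → Seen w j →
    alW i = alW j → i = j := by decide

/-- the seen slots are in different groups -/
theorem seen_ne {w : ℕ} (hw : w ∈ ({2, 3, 4} : Finset ℕ)) (hθ : 0 < θ 1)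
    (hs : s = 1 - θ 0 + w * θ 1) (hs2 : 2 < s) (hs3 : s ≠ 3) {i j : Fin 18} (hi : Seen w i)
    (hj : Seen w j) (hiD : i ∉ DrW s) (hjD : j ∉ DrW s)
    (e : gC (TW s) (btW θ) j = gC (TW s) (btW θ) i) : j = i := by
  have hi0 := TW_seen hw hs hs2 hs3 hi hiD
  obtain ⟨ti, i4, -, -, -, -⟩ := seen_tau w hw i hi
  obtain ⟨tj, j4, -, -, -, -⟩ := seen_tau w hw j hj
  obtain ⟨hj0, hp⟩ := par_tau hθ hs hiD hjD hi0 e
  have ti' : ((wc i : ℝ) + w * wn i) = 1 := by exact_mod_cast ti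
  have tj' : ((wc j : ℝ) + w * wn j) = 1 := by exact_mod_cast tj
  rw [ti', tj', mul_one, mul_one, TW_flag i4 hiD, TW_flag j4 hjD] at hp
  have h1 : (alW i : ℝ) = alW j := by linarith
  exact (seen_ne' w hw i j hi hj (by exact_mod_cast h1)).symm

theorem upS : ∀ w ∈ ({2, 3, 4} : Finset ℕ), ∀ i : Fin 18, Seen w i →
    Pin851.Up2 {4, 5, 6, 8} (insert 0 (FL w) \ {4, 5, 6, 8}) i ∧
    Pin851.Up2 {4} (insert 0 (FL w) \ {4}) i ∧ Pin851.Up2 ∅ (insert 0 (FL w) \ ∅) i := by decide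

theorem bwS : ∀ w ∈ ({2, 3, 4} : Finset ℕ), ∀ v ∈ ZW w, ∀ j : Fin 18, j ∉ FL w →
    bW w v j = 0 := by decide
theorem mMS : ∀ w ∈ ({2, 3, 4} : Finset ℕ), ∀ j : Fin 18, j ≠ Fin.natAdd 4 (seenA w) →
    wz1 (mT w) j = wz1 (mM w) j := by decide
theorem mMR : ∀ w ∈ ({2, 3, 4} : Finset ℕ), ∀ j : Fin 18, j ≠ Fin.natAdd 4 (seenB w) →
    wz1 (mM w) j = wz1 (mR w) j := by decide
theorem mTA : ∀ w ∈ ({2, 3, 4} : Finset ℕ), ∀ j : Fin 18, wz1 (mT w) j ≤ wz1 (mM w) j ∧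
    wz1 (mM w) j ≤ wz1 (mR w) j ∧ (j ∉ insert 0 (FL w) → wz1 (mT w) j = 0 ∧
      (j ≠ Fin.natAdd 4 (seenA w) → wz1 (mM w) j = 0)) := by decide

/-- **a seen slot is visible** -/
theorem seen_vis (h : PtC B Bo I J co C κ u f K θ q V T s lam lo A φ r)
    (hS : SlotOkW θ (fun k => k ∈ V) (fun k => k ∈ T)) (hV : ∃ k, k ∈ V ∧ KW θ k = s)
    (hs2 : 2 < s) (hK : KW θ 15 ≠ s) (hres : ¬ LadT830.Reso θ s) {Dr : Finset (Fin 18)}
    (hDr : (Dr : Set (Fin 18)) = DrW s) (hDr' : Dr = {4, 5, 6, 8} ∨ Dr = {4} ∨ Dr = ∅) :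
    ∃ w ∈ ({2, 3, 4} : Finset ℕ), s = 1 - θ 0 + w * θ 1 ∧ s ≠ 3 ∧ (s = 4 → w ≠ 4) ∧
      ∃ i, Seen w i ∧ i ∉ Dr ∧ Pin851.Vis lam (insert 0 (FL w) \ Dr) i := by
  obtain ⟨v0, hvV, hvK, hvT, hmax⟩ := tied_max hS hV
  obtain ⟨⟨v4, v13, v16, v17⟩, -⟩ := hS.vis v0 hvV
  -- the weight
  have hwt : ∃ w ∈ ({2, 3, 4} : Finset ℕ), v0 ∈ ZW w := by
    have key : ∀ v : Fin 18, 4 ≤ v → v ≠ 13 → v ≠ 16 → v ≠ 17 → wc v = -1 ∨
        ∃ w ∈ ({2, 3, 4} : Finset ℕ), v ∈ ZW w := by decide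
    rcases key v0 v4 v13 v16 v17 with h1 | h1
    · exfalso
      apply hK
      rw [KW_flag θ (k := 15) (by decide), ← hvK, KW_flag θ v4, h1]
      have : wc 15 = -1 := by decide
      rw [this]
    · exact h1
  obtain ⟨w, hw, hvZ⟩ := hwt
  have hs : s = 1 - θ 0 + w * θ 1 := by
    have h1 := (zw_tau w hw v0 hvZ).2
    have hn : wn v0 = 1 := by
      have : ∀ k : Fin 18, 4 ≤ k → wn k = 1 := by decide
      exact this v0 v4
    rw [hn] at h1
    have h2 : wc v0 = -(w : ℤ) := by linarith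
    rw [← hvK, KW_flag θ v4, h2]
    push_cast; ring
  have reso : ∀ k ∈ ZW w, s ≠ alW k := fun k hk e => hres ⟨k, (zw_tau w hw k hk).1,
    KW_zw hw hs hk, by
      rw [LadT830.btW_KW θ (zw_tau w hw k hk).1, KW_zw hw hs hk, e, sub_self]⟩
  have hs3 : s ≠ 3 := by
    intro e
    have key : ∀ w ∈ ({2, 3, 4} : Finset ℕ), ∃ k ∈ ZW w, alW k = 3 := by decide
    obtain ⟨k, hk, hk3⟩ := key w hw
    exact reso k hk (by rw [hk3, e]; norm_num)
  have hw4 : s = 4 → w ≠ 4 := by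
    rintro e rfl
    exact reso 4 (by decide) (by
      have : alW 4 = 4 := by decide
      rw [this, e]; norm_num)
  have hθ := h.th1
  refine ⟨w, hw, hs, hs3, hw4, ?_⟩
  by_contra hcon
  push Not at hcon
  have memD : ∀ k, k ∈ Dr ↔ k ∈ DrW s := fun k => by rw [← hDr, Finset.mem_coe]
  have hD : ∀ k ∈ ZW w, k ∈ ZW w ∩ Dr ↔ k ∈ DrW s := fun k hk => by
    rw [Finset.mem_inter, memD]; exact ⟨fun h => h.2, fun h => ⟨hk, h⟩⟩
  have hvD : v0 ∉ Dr := fun hm => (vis_zw h hw hs ⟨hvV, hvK⟩).2 ((memD v0).1 hm)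
  obtain ⟨v, rfl, α, hd, hc, hh⟩ := cas_ex hDr' hw hvZ hvD
  obtain ⟨N, hN, hcl⟩ := closs h hw hs2 hs3 hw4 hc
  have hwin := win_core h hw hs hs2 hres hD hc (fun hm => hh ((memD _).2 hm)) hvV hvK hvT hmax N
  have hP := ptB_of h
  rw [← hDr] at hP
  have hM := hP.act
  set n0 : Fin 18 → ℕ := fun k => bW w (Fin.natAdd 4 v) k + N * eW w k with hn0
  have mem : ∀ n : Fin 18 → ℕ, OkV (bW w (Fin.natAdd 4 v)) 1 n → scV 1 n0 + scV 1 n ∈
      coneM (mA monW (actW (Dr : Set (Fin 18)))) := fun n hn =>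
    leg_coneN hM (wdat_lin (eW_nat w hw) (ew0 w hw).1 hc.wd N).off zero_le_one
      (leg_one hM (okV_lin (eW_nat w hw) hn N) zero_le_one)
  have hup : ∀ i, Seen w i → Pin851.Up2 Dr (insert 0 (FL w) \ Dr) i := by
    intro i hi
    obtain ⟨u1, u2, u3⟩ := upS w hw i hi
    rcases hDr' with rfl | rfl | rfl
    · exact u1
    · exact u2
    · exact u3
  have grp : ∀ i, Seen w i → i ∉ Dr → ∀ j, gC (TW s) (btW θ) j = gC (TW s) (btW θ) i → j ≠ i →
      j ∉ Dr → j ∉ insert 0 (FL w) ∧ n0 j = 0 := by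
    intro i hi hiD j e hj hjD
    obtain ⟨g1, g2, g3⟩ := seen_grp hw hθ hs hs2 hs3 hi (fun hm => hiD ((memD i).2 hm))
      (fun hm => hjD ((memD j).2 hm)) e hj
    refine ⟨g1, ?_⟩
    have hb : bW w (Fin.natAdd 4 v) j = 0 := bwS w hw _ hvZ j fun hm =>
      g1 (Finset.mem_insert_of_mem hm)
    show bW w (Fin.natAdd 4 v) j + N * eW w j = 0
    rw [hb, zero_add]
    by_cases h4 : s = 4
    · have : eW w j = 0 := if_neg (g3 h4 (hw4 h4))
      rw [this, mul_zero]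
    · rw [hN h4, zero_mul]
  have sA : Seen w (Fin.natAdd 4 (seenA w)) := Or.inl rfl
  have sB : Seen w (Fin.natAdd 4 (seenB w)) := Or.inr rfl
  have nn : ∀ (n : Fin 18 → ℕ) (k : Fin 18), (scV 1 n0 + scV 1 n) k = (n0 k : ℝ) + n k := by
    intro n k; simp [scV]
  have zA : lam (scV 1 n0 + scV 1 (wz1 (mT w))) - lam (scV 1 n0 + scV 1 (wz1 (mM w))) ≤ 0 := by
    refine seen_zero hP (i := Fin.natAdd 4 (seenA w)) (hup _ sA) (fun hi => hcon _ sA hi)
      (mem _ hc.bok.t) (mem _ hc.okM) (fun j hj => ?_) ?_ ?_ (fun j e hj hiD hjD => ?_)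
    · rw [nn, nn, mMS w hw j hj]
    · rw [nn]; positivity
    · rw [nn, nn]
      have : ((wz1 (mT w) (Fin.natAdd 4 (seenA w)) : ℕ) : ℝ) ≤ wz1 (mM w) (Fin.natAdd 4 (seenA w)) :=
        by exact_mod_cast (mTA w hw _).1
      linarith
    · obtain ⟨g1, g2⟩ := grp _ sA hiD j e hj hjD
      refine ⟨?_, fun hm => g1 (Finset.mem_sdiff.1 hm).1⟩
      rw [nn, g2, ((mTA w hw j).2.2 g1).1]
      norm_num
  have zB : lam (scV 1 n0 + scV 1 (wz1 (mM w))) - lam (scV 1 n0 + scV 1 (wz1 (mR w))) ≤ 0 := by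
    by_cases hAB : seenA w = seenB w
    · have e : wz1 (mM w) = wz1 (mR w) := by
        funext k
        unfold wz1 mM mR
        rw [← hAB]
        simp only [or_self]
      rw [e, sub_self]
    have hne : Fin.natAdd 4 (seenA w) ≠ Fin.natAdd 4 (seenB w) := fun e => hAB
      (Fin.natAdd_inj _ |>.1 e)
    refine seen_zero hP (i := Fin.natAdd 4 (seenB w)) (hup _ sB) (fun hi => hcon _ sB hi)
      (mem _ hc.okM) (mem _ hc.bok.r) (fun j hj => ?_) ?_ ?_ (fun j e hj hiD hjD => ?_)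
    · rw [nn, nn, mMR w hw j hj]
    · rw [nn]; positivity
    · rw [nn, nn]
      have : ((wz1 (mM w) (Fin.natAdd 4 (seenB w)) : ℕ) : ℝ) ≤ wz1 (mR w) (Fin.natAdd 4 (seenB w)) :=
        by exact_mod_cast (mTA w hw _).2.1
      linarith
    · obtain ⟨g1, g2⟩ := grp _ sB hiD j e hj hjD
      refine ⟨?_, fun hm => g1 (Finset.mem_sdiff.1 hm).1⟩
      have hjA : j ≠ Fin.natAdd 4 (seenA w) := by
        rintro rfl
        exact hj (seen_ne hw hθ hs hs2 hs3 sB sA (fun hm => hiD ((memD _).2 hm))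
          (fun hm => hjD ((memD _).2 hm)) e)
      rw [nn, g2, ((mTA w hw j).2.2 g1).2 hjA]
      norm_num
  linarith

end pt

end Crest.Agent.R136.Vw848
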