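import Crest.Agent.R136.RwX_848
import Crest.Agent.R136.KHt2_938

/-!
# R136 (helper848): **row `deadhi2` of the thin ladder**

`deadhi2 : DeadC fun g θ V s => Top θ (· ∈ V) s ∧ 2 < s ∧ KW θ 15 ≠ s ∧ ¬ Reso θ s`
-/

set_option autoImplicit false
set_option linter.unusedSectionVars false
set_option linter.unusedVariables false

open Filter Topology

namespace Crest.Agent.R136.Vw848

open Finset Crest.Agent.R136.NetW191 Crest.Agent.R136.Net191 Crest.Agent.R136.Qg926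
open Crest.Agent.R136.EvW938 Crest.Agent.R136.RowW619
open Crest.Agent.R136.Bas938
open Crest.Agent.R136.LadW697 Crest.Agent.R136.NatW697 Crest.Agent.R136.PrW464
open Crest.Agent.R136.AwJ774
open Crest.Agent.R136.ThB830 (PtC)
open Crest.Agent.R136.LadT830 (Top)
open Crest.Agent.R136.Aw413
open Crest.Agent.R138.Ex926 (Base U)

/-- the dropped slots -/
theorem dr3' {s : ℝ} (h2 : 2 < s) {Dr : Finset (Fin 18)} (hD : (Dr : Set (Fin 18)) = DrW s) :
    Dr = {4, 5, 6, 8} ∨ Dr = {4} ∨ Dr = ∅ := by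
  have mem : ∀ k, k ∈ Dr ↔ (4 ≤ k ∧ s < alW k) := fun k => by
    rw [← Finset.mem_coe, hD]; rfl
  rcases lt_or_ge s 3 with h3 | h3
  · left
    ext k
    have key : ∀ k : Fin 18, k ∈ ({4, 5, 6, 8} : Finset (Fin 18)) ↔ 4 ≤ k ∧ 3 ≤ alW k := by decide
    rw [key, mem]
    refine and_congr_right fun _ => ⟨fun h => ?_, fun h => ?_⟩
    · have h5 : (2 : ℝ) < alW k := by linarith
      have h6 : (2 : ℤ) < alW k := by exact_mod_cast h5
      omega
    · have : (3 : ℝ) ≤ alW k := by exact_mod_cast h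
      linarith
  rcases lt_or_ge s 4 with h4 | h4
  · right; left
    ext k
    have key : ∀ k : Fin 18, k ∈ ({4} : Finset (Fin 18)) ↔ 4 ≤ k ∧ 4 ≤ alW k := by decide
    rw [key, mem]
    refine and_congr_right fun _ => ⟨fun h => ?_, fun h => ?_⟩
    · have h5 : (3 : ℝ) < alW k := by linarith
      have h6 : (3 : ℤ) < alW k := by exact_mod_cast h5
      omega
    · have : (4 : ℝ) ≤ alW k := by exact_mod_cast h
      linarith
  · right; right
    refine Finset.eq_empty_of_forall_notMem fun k hk => ?_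
    obtain ⟨-, h5⟩ := (mem k).1 hk
    have key : ∀ k : Fin 18, alW k ≤ 4 := by decide
    have : (alW k : ℝ) ≤ 4 := by exact_mod_cast key k
    linarith

section pt

variable {B Bo : Base} {I J : ∀ n : ℕ, Finset (ℕ × ℝ)}
  {co : ∀ n : ℕ, ℕ × ℝ → ℕ × ℝ → Fin 18 → ℝ} {κ : ℕ → ℝ} {u : ℕ → Fin 18 → ℝ}
  {f : ∀ n : ℕ, ℕ × ℝ → FW} {C : ℝ}
  {lam : (Fin 18 → ℝ) → ℝ} {A : ℝ × ℝ} {φ : ℕ → (Fin 18 → ℝ) → ℝ}
  {r : ℕ → ℝ} {K : ℝ} {θ q : Fin 3 → ℝ} {V T : Set (Fin 18)} {s : ℝ} {lo : (Fin 18 → ℝ) → ℝ}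

/-- **full loss** -/
theorem full_hi2 (h : PtC B Bo I J co C κ u f K θ q V T s lam lo A φ r)
    (hS : SlotOkW θ (fun k => k ∈ V) (fun k => k ∈ T)) (hV : ∃ k, k ∈ V ∧ KW θ k = s)
    (hs2 : 2 < s) (hK : KW θ 15 ≠ s) (hres : ¬ LadT830.Reso θ s) : 3 + s ≤ -A.1 := by
  obtain ⟨Dr, hDr⟩ : ∃ Dr : Finset (Fin 18), (Dr : Set (Fin 18)) = DrW s :=
    ⟨(Set.toFinite _).toFinset, Set.Finite.coe_toFinset _⟩
  obtain ⟨w, hw, hs, h3, hw4, i, hi, hiD, hv⟩ := seen_vis h hS hV hs2 hK hres hDr (dr3' hs2 hDr)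
  have hw' : w = 2 ∨ w = 3 ∨ w = 4 := by simpa using hw
  rcases hw' with rfl | rfl | rfl
  · have e : insert 0 (FL 2) = ({0, 4, 5, 6, 7, 8, 9, 10, 11, 14} : Finset (Fin 18)) := by decide
    have hs' : s = 1 - θ 0 + ((2 : ℤ) : ℝ) * θ 1 := by push_cast at hs ⊢; exact hs
    rw [e] at hv
    rcases hi with rfl | rfl
    · exact KHt938.chain12 h hDr.symm hs2 h3 hs' hv
    · exact KHt938.chain15 h hDr.symm hs2 h3 hs' hv
  · have e : insert 0 (FL 3) = ({0, 4, 5, 6, 7, 9} : Finset (Fin 18)) := by decide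
    have hs' : s = 1 - θ 0 + ((3 : ℤ) : ℝ) * θ 1 := by push_cast at hs ⊢; exact hs
    rw [e] at hv
    rcases hi with rfl | rfl
    · exact KHt938.chain14 h hDr.symm hs2 h3 hs' hv
    · exact KHt938.chain14 h hDr.symm hs2 h3 hs' hv
  · have e : insert 0 (FL 4) = ({0, 4, 5, 7} : Finset (Fin 18)) := by decide
    have hs' : s = 1 - θ 0 + ((4 : ℤ) : ℝ) * θ 1 := by push_cast at hs ⊢; exact hs
    have h4 : s ≠ 4 := fun h => hw4 h rfl
    rw [e] at hv
    rcases hi with rfl | rfl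
    · exact KHt938.chain9 h hDr.symm hs2 h3 hs' h4 hv
    · refine KHt938.chain6 h hDr.symm hs2 h3 hs' h4 ?_ hv
      by_contra h5
      push Not at h5
      refine hiD ?_
      rw [← Finset.mem_coe, hDr]
      have h6 : alW (Fin.natAdd 4 (seenB 4)) = 3 := by decide
      refine ⟨by decide, ?_⟩
      rw [h6]
      push_cast
      exact lt_of_le_of_ne h5 h3

end pt

/-- **row `deadhi2`** : `K > 2`, the dominant slots have `c`-weight `≥ 2`, no resonance -/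
theorem deadhi2 : DeadC fun g θ V s =>
    Top θ (fun k => k ∈ V) s ∧ 2 < s ∧ KW θ 15 ≠ s ∧ ¬ LadT830.Reso θ s := by
  refine ThB830.deadC_of (fun g θ V s h => ⟨by linarith [h.2.1], h.1.2⟩) ?_
  intro P ν own K r0 θ g q V T s h hp
  have hg := h.g0
  refine ⟨g / 2, by linarith, fun B Bo I J co C κ u f lam lo A φ r hP => ?_⟩
  obtain ⟨⟨hV, -⟩, hs, hK, hres⟩ := hp
  have h1 := full_hi2 hP h.slots hV hs hK hres
  have h2 := ThB830.full_enough (g := g) (q := q) (C := 0) (s := s) (A := A) (by linarith)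
  have h3 := h.qt
  have h4 : s - 1 ≤ max (-(θ 0)) 0 + 4 * |θ 1| := by
    obtain ⟨k, hk, hkK⟩ := hV
    have hk4 := (hP.vis k hk).1
    rw [← hkK, KW_flag θ hk4]
    have a0 := le_max_left (-(θ 0)) 0
    have key : ∀ k : Fin 18, |wc k| ≤ 4 := by decide
    have a1 : |(wc k : ℝ)| ≤ 4 := by exact_mod_cast key k
    have a2 : -((wc k : ℝ) * θ 1) ≤ |(wc k : ℝ)| * |θ 1| := by
      rw [← abs_mul]; exact neg_le_abs _
    have a3 := mul_le_mul_of_nonneg_right a1 (abs_nonneg (θ 1))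
    linarith
  have h5 := mul_le_mul_of_nonneg_left h4 h.q0
  linarith

end Crest.Agent.R136.Vw848
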