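import Crest.Agent.R136.RowI3_938
import Crest.Agent.R136.Pin4_851
import Crest.Agent.R136.PinF_851
import Crest.Agent.R136.P1c_830
import Crest.Agent.R136.PZ_830
import Crest.Agent.R136.DLw5_619
import Crest.Agent.R136.LadG1_697
import Crest.Agent.R136.RwY_848

/-!
# R136 (helper938): the non-resonant rows of the thin ladder in one structure

* `rowsC_of` : `RowsC` from the two rows `pin3`, `deadhi2`
* `rowsC_pin3` : `RowsC` from the row `pin3` alone
-/

set_option autoImplicit false
set_option linter.unusedVariables false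

namespace Crest.Agent.R136.Rws938

open Crest.Agent.R136.NetW191 Crest.Agent.R136.LadW697 Crest.Agent.R136.LadT830
open Crest.Agent.R136.NatW697 Crest.Agent.R136.LadG697

/-- **all rows without the gauges**, two rows as hypotheses -/
theorem rowsC_of (pin3 : PinC 3 fun θ V => ∀ k ∈ V, KW θ k < 3)
    (deadhi2 : DeadC fun g θ V s =>
      Top θ (fun k => k ∈ V) s ∧ 2 < s ∧ KW θ 15 ≠ s ∧ ¬ Reso θ s) : RowsC where
  pin4 := Pin851.pin4C
  pin3 := pin3
  pin2 := Pin851.pin2
  pin1 := P1c830.pin1
  dead0 := PZ830.dead0C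
  deadlow := DLow619.deadlow
  deadhi1 := RowI938.deadhi1
  deadhi2 := deadhi2
  pin2z := PZ830.pinZ_of_zero (fun k hk => hk) _
  pin1z := PZ830.pinZ_of_zero (fun k hk => hk) _

/-- **all rows without the gauges**, from the row `pin3` alone -/
theorem rowsC_pin3 (pin3 : PinC 3 fun θ V => ∀ k ∈ V, KW θ k < 3) : RowsC :=
  rowsC_of pin3 Vw848.deadhi2

end Crest.Agent.R136.Rws938
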