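import Crest.Agent.R136.CubH_938
import Crest.Agent.R136.CubY_851
import Crest.Agent.R136.Pin3_851
import Crest.Agent.R136.Rws_938

/-!
# R136 (helper938): `Rows35`, `Rows34`, `Spec35`, `Spec34`, the row `pin3`, `RowsC`, no hypotheses
-/

set_option autoImplicit false
set_option linter.unusedVariables false

namespace Crest.Agent.R136.Rws938

open Crest.Agent.R136.NetW191 Crest.Agent.R136.LadW697 Crest.Agent.R136.LadT830
open Crest.Agent.R136.NatW697 Crest.Agent.R136.LadG697 Crest.Agent.R136.Pin851

theorem sevo5 : SEvo5 := fun W E κ u f lam x h _ =>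
  ⟨_, _, Cub938.sevo35 h le_rfl le_rfl⟩

theorem sevo4 : SEvo4 := fun W E κ u f lam x h _ =>
  ⟨_, _, Cub938.sevo34 h le_rfl le_rfl⟩

theorem rows35 : Rows35 := rows35_of sevo5

theorem rows34 : Rows34 := rows34_of sevo4

theorem spec35 : Spec35 := spec35_of rows35

theorem spec34 : Spec34 := spec34_of rows34

/-- **the row `pin3`** -/
theorem pin3 : PinC 3 fun θ V => ∀ k ∈ V, KW θ k < 3 := pin3_of spec35 spec34

/-- **all non-resonant rows of the thin ladder** -/
theorem rowsC : RowsC := rowsC_of pin3 Vw848.deadhi2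

end Crest.Agent.R136.Rws938
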