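import Crest.Agent.R136.LadG2_697

/-!
# R136 (helper480): the gauge step of the W-chart, part 1: finite lemmas

* `chart_coU` : the chart in multiplicative units;
* `coW_gau2` : chart coordinates of labels with different gauges;
* `gauU` : sizes in the units, at legal natural exponents;
* `drop_narrow` : the dropped slots are infinitely narrow.
-/

set_option autoImplicit false
set_option linter.unusedVariables false

open Finset Filter Topology

namespace Crest.Agent.R136.SGa480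

open Crest.Agent.R136.Net191
open Crest.Agent.R136.NetW191
open Crest.Agent.R136.PqG464 (chart_scl)
open Crest.Agent.R136.PrW464
open Crest.Agent.R136.LadW697
open Crest.Agent.R136.LadG697
open Crest.Agent.R136.Zpr779
open Crest.Agent.R136.Qg926
open Crest.Agent.R136.EvW938
open Crest.Agent.R136.GauW619
open Crest.Agent.R136.AwJ774
open Crest.Agent.R136.K2S774
open Crest.Agent.R138.Ex926

/-- **the chart in the units `u`** -/
theorem chart_coU {κ : ℕ → ℝ} (hκ : ∀ n, |κ n| ≤ 1) {u : ℕ → Fin 18 → ℝ} (hu : ∀ n, GrU (u n))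
    (F : ℕ → ℕ × ℝ → FW) (n : ℕ) (I : Finset (ℕ × ℝ)) : Chart I (coU u κ F n) monW 67 := by
  refine chart_scl (chartW I (F n) (hκ n)) (hu n).pos fun k e he => le_of_eq ?_
  obtain ⟨l, hl, rfl⟩ := List.mem_map.1 (List.mem_toFinset.1 he)
  rw [← (hu n).mul k l hl, Finset.prod_list_map_count]
  refine Finset.prod_subset (Finset.subset_univ _) fun s _ hs => ?_
  rw [List.count_eq_zero.2 (fun h => hs (List.mem_toFinset.2 h)), pow_zero]

theorem coW_gau2_frame (κ : ℝ) (e e' : Fin 14 → ℝ) (f f' : FW) (i : Fin 4) :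
    coW κ (gau κ e f) (gau κ e' f') (Fin.castAdd 14 i) = coW κ f f' (Fin.castAdd 14 i) := by
  rw [coW_left, coW_left, gau_g, gau_g]

/-- **labels with different gauges** -/
theorem coW_gau2 (κ : ℝ) (e e' : Fin 14 → ℝ) (f f' : FW) (q : Fin 14) :
    coW κ (gau κ e f) (gau κ e' f') (Fin.natAdd 4 q) =
      coW κ f f' (Fin.natAdd 4 q) + e' q - tr κ (rel κ f.g f'.g) e q := by
  rw [coW_right, coW_right, gau_g, gau_G, gau_G]
  have e1 : f'.G + tr κ (inv κ f'.g) e' - (f.G + tr κ (inv κ f.g) e) =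
      (f'.G - f.G) + tr κ (inv κ f'.g) e' - tr κ (inv κ f.g) e := by
    abel
  have e2 : tr κ f'.g (tr κ (inv κ f.g) e) = tr κ (rel κ f.g f'.g) e := by
    rw [← tr_mul, ← rel_eq]
  rw [e1, tr_sub, tr_add, tr_inv, e2, Pi.sub_apply, Pi.add_apply]

section

variable {B B' : Base} {κ w : ℕ → ℝ} {u : ℕ → Fin 18 → ℝ} {F : ℕ → ℕ × ℝ → FW}
  {e : ℕ → ℕ × ℝ → Fin 14 → ℝ} {Y : ℕ → Fin 18 → ℝ} {n : ℕ} {c : Fin 18 → ℝ} {K : ℝ}
  {x y : ℕ × ℝ}

/-- the frame slots do not see the gauge -/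
theorem coU_fG_frame (i : Fin 4) :
    coU u κ (fG κ e F) n x y (Fin.castAdd 14 i) = coU u κ F n x y (Fin.castAdd 14 i) := by
  unfold coU fG
  rw [coW_gau2_frame]

theorem coU_fG_zero : coU u κ (fG κ e F) n x y 0 = coU u κ F n x y 0 :=
  coU_fG_frame (u := u) (κ := κ) (e := e) (F := F) (n := n) (x := x) (y := y) 0

/-- **one flag slot of the gauged chart** -/
theorem gauU (hκ : |κ n| ≤ 1) (hu : GrU (u n)) (hB : B'.d n = B.d n ^ w n)
    (hL : Legal monW (Y n + w n • c)) (hK : 1 ≤ K)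
    (hf : ∀ i : Fin 4, |coU u κ F n x y (Fin.castAdd 14 i)| ≤
      K * (B.d n ^ Y n (Fin.castAdd 14 i) * B'.d n ^ c (Fin.castAdd 14 i)))
    (hx : ∀ q : Fin 14, u n (Fin.natAdd 4 q) * |e n x q| ≤
      K * (B.d n ^ Y n (Fin.natAdd 4 q) * B'.d n ^ c (Fin.natAdd 4 q))) {q : Fin 14}
    (hy : u n (Fin.natAdd 4 q) * |e n y q| ≤
      K * (B.d n ^ Y n (Fin.natAdd 4 q) * B'.d n ^ c (Fin.natAdd 4 q)))
    (hq : |coU u κ F n x y (Fin.natAdd 4 q)| ≤
      K * (B.d n ^ Y n (Fin.natAdd 4 q) * B'.d n ^ c (Fin.natAdd 4 q))) :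
    |coU u κ (fG κ e F) n x y (Fin.natAdd 4 q)| ≤
      472 * K ^ 7 * (B.d n ^ Y n (Fin.natAdd 4 q) * B'.d n ^ c (Fin.natAdd 4 q)) := by
  set S : Fin 18 → ℝ := fun s => B.d n ^ (Y n + w n • c) s / u n s with hS
  have hd : ∀ s, B.d n ^ (Y n + w n • c) s = B.d n ^ Y n s * B'.d n ^ c s := by
    intro s
    rw [hB, ← Real.rpow_mul (B.pos n).le, ← Real.rpow_add (B.pos n)]
    rfl
  have hSd : SidesW S := sidesW_of_legalG (B.pos n) (B.lt n).le hu hL
  have hup := hu.pos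
  have hK0 : 0 ≤ K := by linarith
  have hS0 : ∀ s, 0 ≤ B.d n ^ Y n s * B'.d n ^ c s := fun s => by
    have := B.pos n
    have := B'.pos n
    positivity
  have conv : ∀ s (a : ℝ), u n s * |a| ≤ K * (B.d n ^ Y n s * B'.d n ^ c s) →
      |a| ≤ K * S s := by
    intro s a h
    rw [hS]
    simp only
    rw [hd s, ← mul_div_assoc, le_div_iff₀ (hup s), mul_comm]
    exact h
  have h1 : ∀ i : Fin 4, |rel (κ n) (F n x).g (F n y).g i| ≤ K * S (Fin.castAdd 14 i) := by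
    intro i
    refine conv _ _ ?_
    have := hf i
    unfold coU at this
    rwa [abs_mul, abs_of_pos (hup _), coW_left] at this
  have h2 : ∀ q : Fin 14, |e n x q| ≤ K * S (Fin.natAdd 4 q) := fun q => conv _ _ (hx q)
  have h3 := tr_size hκ hSd hK h1 h2 q
  have e1 : coU u κ (fG κ e F) n x y (Fin.natAdd 4 q) =
      coU u κ F n x y (Fin.natAdd 4 q) + u n (Fin.natAdd 4 q) * e n y q -
        u n (Fin.natAdd 4 q) * tr (κ n) (rel (κ n) (F n x).g (F n y).g) (e n x) q := by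
    unfold coU fG
    rw [coW_gau2]
    ring
  have h4 : |u n (Fin.natAdd 4 q) * tr (κ n) (rel (κ n) (F n x).g (F n y).g) (e n x) q| ≤
      470 * K ^ 7 * (B.d n ^ Y n (Fin.natAdd 4 q) * B'.d n ^ c (Fin.natAdd 4 q)) := by
    rw [abs_mul, abs_of_pos (hup _)]
    have h5 := mul_le_mul_of_nonneg_left h3 (hup (Fin.natAdd 4 q)).le
    refine h5.trans (le_of_eq ?_)
    rw [hS]
    simp only
    rw [hd]
    have := (hup (Fin.natAdd 4 q)).ne'
    field_simp
  have h5 : |u n (Fin.natAdd 4 q) * e n y q| ≤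
      K * (B.d n ^ Y n (Fin.natAdd 4 q) * B'.d n ^ c (Fin.natAdd 4 q)) := by
    rw [abs_mul, abs_of_pos (hup _)]; exact hy
  have hK7 : K ≤ K ^ 7 := by
    calc K = K ^ 1 := (pow_one K).symm
      _ ≤ K ^ 7 := pow_le_pow_right₀ hK (by norm_num)
  have h6 := mul_le_mul_of_nonneg_right hK7 (hS0 (Fin.natAdd 4 q))
  rw [e1]
  have h7 := abs_sub (coU u κ F n x y (Fin.natAdd 4 q) + u n (Fin.natAdd 4 q) * e n y q)
    (u n (Fin.natAdd 4 q) * tr (κ n) (rel (κ n) (F n x).g (F n y).g) (e n x) q)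
  have h8 := abs_add_le (coU u κ F n x y (Fin.natAdd 4 q)) (u n (Fin.natAdd 4 q) * e n y q)
  linarith

/-- **a whole box of the gauged chart** -/
theorem gauU_box (hκ : |κ n| ≤ 1) (hu : GrU (u n)) (hB : B'.d n = B.d n ^ w n)
    (hL : Legal monW (Y n + w n • c)) (hK : 1 ≤ K)
    (hold : ∀ s, |coU u κ F n x y s| ≤ K * (B.d n ^ Y n s * B'.d n ^ c s))
    (hx : ∀ q : Fin 14, u n (Fin.natAdd 4 q) * |e n x q| ≤
      K * (B.d n ^ Y n (Fin.natAdd 4 q) * B'.d n ^ c (Fin.natAdd 4 q)))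
    (hy : ∀ q : Fin 14, u n (Fin.natAdd 4 q) * |e n y q| ≤
      K * (B.d n ^ Y n (Fin.natAdd 4 q) * B'.d n ^ c (Fin.natAdd 4 q))) (s : Fin 18) :
    |coU u κ (fG κ e F) n x y s| ≤ 472 * K ^ 7 * (B.d n ^ Y n s * B'.d n ^ c s) := by
  have hK7 : K ≤ K ^ 7 := by
    calc K = K ^ 1 := (pow_one K).symm
      _ ≤ K ^ 7 := pow_le_pow_right₀ hK (by norm_num)
  have hS0 : ∀ s, 0 ≤ B.d n ^ Y n s * B'.d n ^ c s := fun s => by
    have := B.pos n
    have := B'.pos n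
    positivity
  refine Fin.addCases (m := 4) (n := 14) (fun i => ?_) (fun q => ?_) s
  · rw [coU_fG_frame]
    refine (hold _).trans (mul_le_mul_of_nonneg_right ?_ (hS0 _))
    have : 0 ≤ K ^ 7 := by positivity
    linarith
  · exact gauU hκ hu hB hL hK (fun i => hold _) hx (hy q) (hold _)

end

/-! ### exponents -/

@[simp] theorem natX_zero (X : ℕ → Fin 18 → ℝ) (n : ℕ) : natX X n 0 = X n 0 := by
  simp [natX, grW, wz, wc, wn]

@[simp] theorem natX_one (X : ℕ → Fin 18 → ℝ) (n : ℕ) : natX X n 1 = X n 1 := by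
  simp [natX, grW, wz, wc, wn]

@[simp] theorem natX_last (X : ℕ → Fin 18 → ℝ) (n : ℕ) : natX X n 17 = X n 17 := by
  simp [natX, grW, wz, wc, wn]

/-- base of the new frame -/
noncomputable def Xn (X : ℕ → Fin 18 → ℝ) (w : ℕ → ℝ) (w1 : ℝ) (n : ℕ) : Fin 18 → ℝ :=
  natX X n + w n • (-(w1 • wtR))

theorem Xn_apply (X : ℕ → Fin 18 → ℝ) (w : ℕ → ℝ) (w1 : ℝ) (n : ℕ) (k : Fin 18) :
    Xn X w w1 n k = natX X n k - w n * (w1 * wtR k) := by
  simp only [Xn, Pi.add_apply, Pi.smul_apply, Pi.neg_apply, smul_eq_mul]; ring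

/-- the new base is natural -/
theorem Xn_grW (X : ℕ → Fin 18 → ℝ) (w : ℕ → ℝ) (w1 : ℝ) (n : ℕ) :
    Xn X w w1 n = grW (X n 0 - w n * w1) (X n 1 - w n * w1) (X n 17 - 9 * (w n * w1)) := by
  funext k
  rw [Xn_apply]
  simp only [natX, grW, wtR]; ring

/-- sides of the new frame -/
theorem side_Xn {B B' : Base} {w : ℕ → ℝ} {n : ℕ} (hB : B'.d n = B.d n ^ w n)
    (X : ℕ → Fin 18 → ℝ) (w1 : ℝ) (p : Fin 18 → ℝ) (k : Fin 18) :
    B.d n ^ Xn X w w1 n k * B'.d n ^ p k =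
      B.d n ^ natX X n k * B'.d n ^ (p k - w1 * wtR k) := by
  rw [Xn_apply, hB, ← Real.rpow_mul (B.pos n).le, ← Real.rpow_mul (B.pos n).le,
    ← Real.rpow_add (B.pos n), ← Real.rpow_add (B.pos n)]
  congr 1
  ring

theorem ex_list17 : ∀ k : Fin 18, 4 ≤ k → k ≠ 17 →
    ∃ l ∈ mlW 17, l.count k = 1 ∧ ∀ s ∈ l, s ≠ k → s < 4 := by decide

/-- **the dropped slots are infinitely narrow** -/
theorem drop_narrow {X : ℕ → Fin 18 → ℝ} {w : ℕ → ℝ} {Dr : Set (Fin 18)}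
    (hb : AwZ146.BasX monW (mA monW (actW Dr)) (mA monW (actW Dr)) X w)
    (hn : ∀ n k, k ∉ Dr → X n k = natX X n k) (hD : ∀ k ∈ Dr, 4 ≤ k ∧ k ≠ 17) {k : Fin 18}
    (hk : k ∈ Dr) (R : ℝ) : ∀ᶠ n in (U : Filter ℕ), natX X n k + R * w n ≤ X n k := by
  obtain ⟨l, hl, h1, h2⟩ := ex_list17 k (hD k hk).1 (hD k hk).2
  have he : (fun s => l.count s) ∈ monW.mon 17 := List.mem_toFinset.2 (List.mem_map.2 ⟨l, hl, rfl⟩)
  have hne : (fun s => l.count s) ∉ (mA monW (actW Dr)).mon 17 := by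
    intro h
    obtain ⟨h3, h4⟩ := mem_mA.1 h
    have h5 : l.count k = 0 := h4.2 k hk
    omega
  filter_upwards [hb.gap 17 _ he hne R] with n h3
  have e1 : ∑ s, ((l.count s : ℕ) : ℝ) * X n s - ∑ s, ((l.count s : ℕ) : ℝ) * natX X n s =
      X n k - natX X n k := by
    rw [← Finset.sum_sub_distrib, Finset.sum_eq_single k]
    · rw [h1]; push_cast; ring
    · intro s _ hs
      by_cases hsl : s ∈ l
      · have h4 := h2 s hsl hs
        have h5 : s ∉ Dr := fun h => absurd (hD s h).1 (not_le.2 h4)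
        rw [hn n s h5]; ring
      · rw [List.count_eq_zero.2 hsl]; push_cast; ring
    · intro h; exact absurd (Finset.mem_univ k) h
  have e2 : ∑ s, ((l.count s : ℕ) : ℝ) * natX X n s = natX X n 17 := by
    rw [← sum_count]
    exact grW_list _ _ _ 17 l hl
  rw [natX_last] at e2
  linarith

end Crest.Agent.R136.SGa480
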