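import Crest.Agent.R136.SGa1_480

/-!
# R136 (helper480): the gauge step of the W-chart, part 2: boxes of the class in the new chart

Over `GauW`: exponents of the class frame, old boxes in natural sides, size of the gauge, new boxes.
-/

set_option autoImplicit false
set_option linter.unusedVariables false
set_option linter.unusedSectionVars false

open Finset Filter Topology

namespace Crest.Agent.R136.SGa480

open Crest.Agent.R136.Net191
open Crest.Agent.R136.NetW191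
open Crest.Agent.R136.PrW464
open Crest.Agent.R136.LadW697
open Crest.Agent.R136.LadG697
open Crest.Agent.R136.Zpr779
open Crest.Agent.R136.Qg926
open Crest.Agent.R136.EvW938
open Crest.Agent.R136.GauW619
open Crest.Agent.R136.AwJ774
open Crest.Agent.R136.K2S774
open Crest.Agent.R138.Ex926

/-! ### exponents of the class frame -/

open Classical in
/-- record box of level `v` -/
noncomputable def cR (θ : Fin 3 → ℝ) (Dr : Set (Fin 18)) (bC : Fin 18 → ℝ) (v : ℝ) (k : Fin 18) : ℝ :=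
  if k ∈ Dr then bC k else v * btW θ k

open Classical in
/-- own box of level `v` -/
noncomputable def cO (θ : Fin 3 → ℝ) (V Dr : Set (Fin 18)) (bC : Fin 18 → ℝ) (K v : ℝ)
    (k : Fin 18) : ℝ :=
  if k = 0 then v else if k ∈ V then v * btW θ k else if k ∈ Dr then bC k else K

open Classical in
/-- own box of level `0`, cut at the height `v` -/
noncomputable def cU (V Dr : Set (Fin 18)) (bC : Fin 18 → ℝ) (K v : ℝ) (k : Fin 18) : ℝ :=
  if k = 0 then v else if k ∈ V then 0 else if k ∈ Dr then bC k else K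

theorem mem_two : ∀ l ∈ mlW 2, ∃ s ∈ l, s ≠ 0 ∧ s < 4 := by decide
theorem mem_three : ∀ l ∈ mlW 3, ∃ s ∈ l, s ≠ 0 ∧ s < 4 := by decide
theorem nil_zero : mlW 0 = [] := by decide
theorem nil_one : mlW 1 = [] := by decide

theorem sum_ge_one {l : List (Fin 18)} {c : Fin 18 → ℝ} (h0 : ∀ s ∈ l, 0 ≤ c s) {s : Fin 18}
    (hs : s ∈ l) : c s ≤ (l.map c).sum := by
  induction l with
  | nil => simp at hs
  | cons a l ih =>
    simp only [List.map_cons, List.sum_cons]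
    have ha := h0 a List.mem_cons_self
    have hl : 0 ≤ (l.map c).sum := by
      refine List.sum_nonneg fun x hx => ?_
      obtain ⟨y, hy, rfl⟩ := List.mem_map.1 hx
      exact h0 y (List.mem_cons_of_mem _ hy)
    rcases List.mem_cons.1 hs with rfl | h
    · linarith
    · linarith [ih (fun s hs => h0 s (List.mem_cons_of_mem _ hs)) h]

theorem sum_le_list {l : List (Fin 18)} {c c' : Fin 18 → ℝ} (h : ∀ s ∈ l, c s ≤ c' s) :
    (l.map c).sum ≤ (l.map c').sum := by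
  induction l with
  | nil => simp
  | cons a l ih =>
    simp only [List.map_cons, List.sum_cons]
    exact add_le_add (h a List.mem_cons_self) (ih fun s hs => h s (List.mem_cons_of_mem _ hs))

theorem btW_list (θ : Fin 3 → ℝ) (v : ℝ) {k : Fin 18} {l : List (Fin 18)} (hl : l ∈ mlW k) :
    (l.map fun s => v * btW θ s).sum = v * btW θ k := by
  have h : (fun s => v * btW θ s) = grW v (-θ 1 * v) ((1 - θ 0) * v) := by
    funext s; simp only [btW, grW]; ring
  rw [h, grW_list _ _ _ k l hl]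
  exact (congrFun h k).symm

theorem cR_mem (θ : Fin 3 → ℝ) (Dr : Set (Fin 18)) (bC : Fin 18 → ℝ) (v : ℝ) :
    cR θ Dr bC v ∈ cn QW (actW Dr) := by
  rw [mem_cnW]
  intro k hk l hl hs
  have e1 : (l.map (cR θ Dr bC v)).sum = (l.map fun s => v * btW θ s).sum := by
    congr 1
    refine List.map_congr_left fun s hsl => ?_
    simp only [cR, if_neg (hs s hsl)]
  rw [e1, btW_list θ v hl]
  simp only [cR, if_neg hk]
  exact le_rfl

section

variable {θ : Fin 3 → ℝ} {V Dr : Set (Fin 18)} {bC : Fin 18 → ℝ} {K v : ℝ}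

/-- common part: every wall of a slot off `{0} ∪ V` has a member off `{0} ∪ V` -/
theorem wall_out (capV : ∀ k, 4 ≤ k → ∀ l ∈ mlW k, (∀ s ∈ l, s = 0 ∨ s ∈ V) → k ∈ V)
    (hV : ∀ k ∈ V, 4 ≤ k) {k : Fin 18} (h0 : k ≠ 0) (hkV : k ∉ V) {l : List (Fin 18)}
    (hl : l ∈ mlW k) : ∃ s ∈ l, s ≠ 0 ∧ s ∉ V := by
  by_cases h4 : 4 ≤ k
  · by_contra hcon
    push Not at hcon
    refine hkV (capV k h4 l hl fun s hs => ?_)
    by_cases h : s = 0
    · exact Or.inl h
    · exact Or.inr (hcon s hs h)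
  · have hk : k = 1 ∨ k = 2 ∨ k = 3 := by omega
    rcases hk with rfl | rfl | rfl
    · rw [nil_one] at hl; simp at hl
    · obtain ⟨s, h1, h2, h3⟩ := mem_two l hl
      exact ⟨s, h1, h2, fun h => absurd (hV s h) (not_le.2 h3)⟩
    · obtain ⟨s, h1, h2, h3⟩ := mem_three l hl
      exact ⟨s, h1, h2, fun h => absurd (hV s h) (not_le.2 h3)⟩

theorem cO_mem (capV : ∀ k, 4 ≤ k → ∀ l ∈ mlW k, (∀ s ∈ l, s = 0 ∨ s ∈ V) → k ∈ V)
    (hV : ∀ k ∈ V, 4 ≤ k ∧ 0 < btW θ k) (h0 : btW θ 0 = 1) (hv : 0 ≤ v)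
    (hK : ∀ k, v * btW θ k ≤ K) (hK0 : 0 ≤ K) : cO θ V Dr bC K v ∈ cn QW (actW Dr) := by
  classical
  rw [mem_cnW]
  intro k hk l hl hs
  have hge : ∀ s ∈ l, v * btW θ s ≤ cO θ V Dr bC K v s := by
    intro s hsl
    simp only [cO]
    split_ifs with a b c
    · rw [a, h0, mul_one]
    · exact le_rfl
    · exact absurd c (hs s hsl)
    · exact hK s
  have hnn : ∀ s ∈ l, 0 ≤ cO θ V Dr bC K v s := by
    intro s hsl
    simp only [cO]
    split_ifs with a b c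
    · exact hv
    · exact mul_nonneg hv (hV s b).2.le
    · exact absurd c (hs s hsl)
    · exact hK0
  by_cases k0 : k = 0
  · subst k0; rw [nil_zero] at hl; simp at hl
  by_cases kV : k ∈ V
  · have e1 : cO θ V Dr bC K v k = v * btW θ k := by simp only [cO, if_neg k0, if_pos kV]
    rw [e1, ← btW_list θ v hl]
    exact sum_le_list hge
  · have e1 : cO θ V Dr bC K v k = K := by simp only [cO, if_neg k0, if_neg kV, if_neg hk]
    obtain ⟨s, s1, s2, s3⟩ := wall_out capV (fun k h => (hV k h).1) k0 kV hl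
    have e2 : cO θ V Dr bC K v s = K := by
      simp only [cO, if_neg s2, if_neg s3, if_neg (hs s s1)]
    rw [e1]
    have := sum_ge_one hnn s1
    rwa [e2] at this

theorem cU_mem (capV : ∀ k, 4 ≤ k → ∀ l ∈ mlW k, (∀ s ∈ l, s = 0 ∨ s ∈ V) → k ∈ V)
    (hV : ∀ k ∈ V, 4 ≤ k) (hv : 0 ≤ v) (hK0 : 0 ≤ K) : cU V Dr bC K v ∈ cn QW (actW Dr) := by
  classical
  rw [mem_cnW]
  intro k hk l hl hs
  have hnn : ∀ s ∈ l, 0 ≤ cU V Dr bC K v s := by
    intro s hsl
    simp only [cU]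
    split_ifs with a b c
    · exact hv
    · exact le_rfl
    · exact absurd c (hs s hsl)
    · exact hK0
  by_cases k0 : k = 0
  · subst k0; rw [nil_zero] at hl; simp at hl
  by_cases kV : k ∈ V
  · have e1 : cU V Dr bC K v k = 0 := by simp only [cU, if_neg k0, if_pos kV]
    rw [e1]
    refine List.sum_nonneg fun x hx => ?_
    obtain ⟨y, hy, rfl⟩ := List.mem_map.1 hx
    exact hnn y hy
  · have e1 : cU V Dr bC K v k = K := by simp only [cU, if_neg k0, if_neg kV, if_neg hk]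
    obtain ⟨s, s1, s2, s3⟩ := wall_out capV hV k0 kV hl
    have e2 : cU V Dr bC K v s = K := by
      simp only [cU, if_neg s2, if_neg s3, if_neg (hs s s1)]
    rw [e1]
    have := sum_ge_one hnn s1
    rwa [e2] at this

end

theorem wtR_ge (k : Fin 18) : 1 ≤ wtR k := by
  fin_cases k <;> simp [wtR, grW, wz, wc, wn] <;> norm_num

theorem wtR_le (k : Fin 18) : wtR k ≤ 9 := by
  fin_cases k <;> simp [wtR, grW, wz, wc, wn] <;> norm_num

/-- record exponents -/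
theorem vbt_bd {θ : Fin 3 → ℝ} {w1 R1 T1 : ℝ} (h : BigW θ w1 R1 T1) {v : ℝ} (h0 : 0 ≤ v)
    (h1 : v ≤ 1) (k : Fin 18) : 1 - w1 * wtR k ≤ v * btW θ k ∧ v * btW θ k ≤ R1 - w1 * wtR k := by
  have a := h.path_ge h0 h1 k
  have b := (h.path_leg h0 h1).2 k
  rw [pathW_eq] at a b
  constructor <;> nlinarith

theorem vbt_abs {θ : Fin 3 → ℝ} {w1 R1 T1 : ℝ} (h : BigW θ w1 R1 T1) {v : ℝ} (h0 : 0 ≤ v)
    (h1 : v ≤ 1) (k : Fin 18) : |v * btW θ k| ≤ R1 := by
  obtain ⟨a, b⟩ := vbt_bd h h0 h1 k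
  have c := h.w0pos
  have d := h.R0
  have t := h.T0
  have e1 := wtR_ge k
  have e2 := wtR_le k
  rw [abs_le]
  constructor <;> nlinarith

section main

variable {θ : Fin 3 → ℝ} {g : ℝ} {q : Fin 3 → ℝ} {V Dr : Set (Fin 18)}
  {P : Set (Fin 18 → ℝ)} {ν own : (Fin 18 → ℝ) → ℝ} {r0 : Fin 18 → ℝ}
  {B B' : Base} {I0 J : ℕ → Finset (ℕ × ℝ)} {κ : ℕ → ℝ} {u : ℕ → Fin 18 → ℝ}
  {F : ℕ → ℕ × ℝ → FW} {X : ℕ → Fin 18 → ℝ} {w Tn To : ℕ → ℝ}
  {lam lo : (Fin 18 → ℝ) → ℝ} {w1 R1 T1 : ℝ} {bC : Fin 18 → ℝ}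
  {Cl E : ℕ → Finset (ℕ × ℝ)} {s₀ : ℕ → ℕ × ℝ} {e : ℕ → ℕ × ℝ → Fin 14 → ℝ}
  {V' Zs : Set (Fin 18)}

variable (H : GauW θ g q V Dr P ν own r0 B B' I0 J κ u F X w Tn To lam lo w1 R1 T1 bC Cl E s₀ e V' Zs)

include H

theorem hB (n : ℕ) : B'.d n = B.d n ^ w n := H.iw.win.base n

theorem sub_I0 : ∀ᶠ n in (U : Filter ℕ), E n ⊆ I0 n := by
  filter_upwards [H.esub, H.cls.csub, H.cls.sub] with n a b c using (a.trans b).trans c

theorem bC_le {k : Fin 18} (hk : k ∉ Dr) : bC k ≤ 0 := by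
  have := H.bhi k hk 0 le_rfl zero_le_one
  rwa [zero_mul] at this

theorem V_not_Dr {k : Fin 18} (hk : k ∈ V) : k ∉ Dr := fun h => (H.dr4 k h).2.2 hk

theorem zero_not_Dr : (0 : Fin 18) ∉ Dr := fun h => absurd (H.dr4 0 h).1 (by decide)

/-- **old boxes in natural sides** -/
theorem old_box {a : Fin 18 → ℝ} (ha : bC + a ∈ cn QW (actW Dr)) {t : Fin 18 → ℝ}
    (ht : ∀ k, k ∉ Dr → t k ≤ bC k + a k) :
    ∀ᶠ n in (U : Filter ℕ), ∀ i ∈ E n, ∀ j ∈ E n,
      zlab B I0 (coU u κ F) monW 67 (fun n => X n + w n • bC) w n a i =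
        zlab B I0 (coU u κ F) monW 67 (fun n => X n + w n • bC) w n a j →
      ∀ k, |coU u κ F n i j k| ≤ cK0 monW 67 * (B.d n ^ natX X n k * B'.d n ^ t k) := by
  have hD : ∀ᶠ n in (U : Filter ℕ), ∀ k, k ∈ Dr →
      natX X n k + (t k - bC k - a k) * w n ≤ X n k := by
    refine eventually_all.2 fun k => ?_
    by_cases hk : k ∈ Dr
    · filter_upwards [drop_narrow H.iw.bas H.iw.nat (fun k h => ⟨(H.dr4 k h).1, (H.dr4 k h).2.1⟩) hk
        (t k - bC k - a k)] with n hn _ using hn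
    · exact Eventually.of_forall fun n h => absurd h hk
  filter_upwards [sub_I0 H, H.cls.legal ‖a‖, hD] with n h1 h2 h3 i hi j hj he k
  have h4 := wbox_of_zlab (co := coU u κ F) (fun n => chart_coU H.κ1 H.u0 F n (I0 n)) (hB H)
    (h2 a ha le_rfl) (h1 hi) (h1 hj) he k
  have hc := cK0_one (M := monW) (C := 67) (by norm_num)
  refine h4.trans (mul_le_mul_of_nonneg_left ?_ (by linarith))
  have e1 : B.d n ^ (X n + w n • bC) k * B'.d n ^ a k = B.d n ^ (X n k + w n * (bC k + a k)) := by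
    rw [hB H n, ← Real.rpow_mul (B.pos n).le, ← Real.rpow_add (B.pos n)]
    congr 1
    simp only [Pi.add_apply, Pi.smul_apply, smul_eq_mul]; ring
  have e2 : B.d n ^ natX X n k * B'.d n ^ t k = B.d n ^ (natX X n k + w n * t k) := by
    rw [hB H n, ← Real.rpow_mul (B.pos n).le, ← Real.rpow_add (B.pos n)]
  rw [e1, e2]
  refine Real.rpow_le_rpow_of_exponent_ge (B.pos n) (B.lt n).le ?_
  have hw := H.iw.win.w0 n
  by_cases hk : k ∈ Dr
  · have := h3 k hk
    nlinarith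
  · rw [H.iw.nat n k hk]
    have := mul_le_mul_of_nonneg_left (ht k hk) hw.le
    linarith

/-- size of the gauge -/
theorem size_t {t : Fin 18 → ℝ}
    (ht : ∀ p : Fin 14, t (Fin.natAdd 4 p) ≤ max 0 (btW θ (Fin.natAdd 4 p))) {ε : ℝ} (hε : 0 < ε) :
    ∀ᶠ n in (U : Filter ℕ), ∀ i ∈ E n, ∀ p : Fin 14,
      u n (Fin.natAdd 4 p) * |e n i p| ≤ B'.d n ^ (-ε) *
        (B.d n ^ natX X n (Fin.natAdd 4 p) * B'.d n ^ t (Fin.natAdd 4 p)) := by
  filter_upwards [H.size ε hε] with n h1 i hi p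
  refine (h1 i hi p).trans ?_
  rw [mul_comm (B'.d n ^ (-ε)), mul_assoc]
  refine mul_le_mul_of_nonneg_left ?_ (Real.rpow_nonneg (B.pos n).le _)
  rw [← Real.rpow_add (B'.pos n)]
  refine Real.rpow_le_rpow_of_exponent_ge (B'.pos n) (B'.lt n).le ?_
  linarith [ht p]

/-- absorbing the constant -/
theorem absorb {ε : ℝ} (hε : 0 < ε) : ∃ δ : ℝ, 0 < δ ∧ δ ≤ ε ∧ ∀ᶠ n in (U : Filter ℕ),
    1 ≤ B'.d n ^ (-δ) ∧ cK0 monW 67 ≤ B'.d n ^ (-δ) ∧
      472 * (B'.d n ^ (-δ)) ^ 7 ≤ B'.d n ^ (-ε) := by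
  refine ⟨ε / 8, by positivity, by linarith, ?_⟩
  have hc := cK0_one (M := monW) (C := 67) (by norm_num)
  filter_upwards [ev_const_le B' one_pos (ε := ε / 8) (by positivity),
    ev_const_le B' (by linarith : 0 < cK0 monW 67) (ε := ε / 8) (by positivity),
    ev_const_le B' (by norm_num : (0 : ℝ) < 472) (ε := ε / 8) (by positivity)] with n h1 h2 h3
  refine ⟨h1, h2, ?_⟩
  have hp := Real.rpow_pos_of_pos (B'.pos n) (-(ε / 8))
  calc 472 * (B'.d n ^ (-(ε / 8))) ^ 7 ≤ B'.d n ^ (-(ε / 8)) * (B'.d n ^ (-(ε / 8))) ^ 7 :=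
        mul_le_mul_of_nonneg_right h3 (pow_nonneg hp.le _)
    _ = (B'.d n ^ (-(ε / 8))) ^ 8 := by ring
    _ = B'.d n ^ (-ε) := by
        rw [← Real.rpow_natCast, ← Real.rpow_mul (B'.pos n).le]
        congr 1; push_cast; ring

/-- **new boxes from old boxes** at natural exponents `t` -/
theorem new_box (hpos : ∀ R : ℝ, ∀ᶠ n in (U : Filter ℕ), ∀ k, R * w n ≤ natX X n k)
    {a : Fin 18 → ℝ} (ha : bC + a ∈ cn QW (actW Dr)) {ζ χ μ : ℝ}
    (ht : ∀ k, k ∉ Dr → grW ζ χ μ k ≤ bC k + a k)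
    (hm : ∀ p : Fin 14, grW ζ χ μ (Fin.natAdd 4 p) ≤ max 0 (btW θ (Fin.natAdd 4 p)))
    {ε : ℝ} (hε : 0 < ε) :
    ∀ᶠ n in (U : Filter ℕ), ∀ i ∈ E n, ∀ j ∈ E n,
      zlab B I0 (coU u κ F) monW 67 (fun n => X n + w n • bC) w n a i =
        zlab B I0 (coU u κ F) monW 67 (fun n => X n + w n • bC) w n a j →
      ∀ k, |coU u κ (fG κ e F) n i j k| ≤
        B'.d n ^ (-ε) * (B.d n ^ natX X n k * B'.d n ^ grW ζ χ μ k) := by
  obtain ⟨δ, hδ, hδε, hev⟩ := absorb H hε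
  have hneg : ∀ᶠ n in (U : Filter ℕ), Legal monW (natX X n + w n • grW ζ χ μ) := by
    filter_upwards [hpos (∑ k, |grW ζ χ μ k|)] with n h1
    refine legal_ofLists.2 ⟨fun k => ?_, fun k l hl => ?_⟩
    · simp only [Pi.add_apply, Pi.smul_apply, smul_eq_mul]
      have hw := H.iw.win.w0 n
      have h2 : |grW ζ χ μ k| ≤ ∑ k, |grW ζ χ μ k| :=
        Finset.single_le_sum (f := fun k => |grW ζ χ μ k|) (fun k _ => abs_nonneg _)
          (Finset.mem_univ k)
      have h3 := h1 k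
      have h4 := neg_abs_le (grW ζ χ μ k)
      nlinarith
    · have e1 : natX X n + w n • grW ζ χ μ =
          grW (X n 0 + w n * ζ) (X n 1 + w n * χ) (X n 17 + w n * μ) := by
        funext s
        simp only [natX, grW, Pi.add_apply, Pi.smul_apply, smul_eq_mul]; ring
      rw [e1, grW_list _ _ _ k l hl]
  filter_upwards [old_box H ha ht, size_t H hm hδ, hev, hneg] with n h1 h2 h3 h4 i hi j hj he k
  have hS0 : ∀ s, 0 ≤ B.d n ^ natX X n s * B'.d n ^ grW ζ χ μ s := fun s =>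
    mul_nonneg (Real.rpow_nonneg (B.pos n).le _) (Real.rpow_nonneg (B'.pos n).le _)
  have h5 := gauU_box (e := e) (H.κ1 n) (H.u0 n) (hB H n) h4 h3.1
    (fun s => (h1 i hi j hj he s).trans (mul_le_mul_of_nonneg_right h3.2.1 (hS0 s)))
    (fun p => h2 i hi p) (fun p => h2 j hj p) k
  exact h5.trans (mul_le_mul_of_nonneg_right h3.2.2 (hS0 k))

end main

end Crest.Agent.R136.SGa480
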