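import Crest.Agent.R136.SGa2_480

/-!
# R136 (helper480): the gauge step of the W-chart, part 3

Own counts, own boxes, D-max, zero slots.
-/

set_option autoImplicit false
set_option linter.unusedVariables false
set_option linter.unusedSectionVars false

open Finset Filter Topology

namespace Crest.Agent.R136.SGa480

open Crest.Agent.R136.Net191
open Crest.Agent.R136.NetW191
open Crest.Agent.R136.PrW464
open Crest.Agent.R136.LadW697
open Crest.Agent.R136.LadG697
open Crest.Agent.R136.Zpr779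
open Crest.Agent.R136.Qg926
open Crest.Agent.R136.EvW938
open Crest.Agent.R136.GauW619
open Crest.Agent.R136.AwJ774
open Crest.Agent.R136.K2S774
open Crest.Agent.R136.ThS830 (Pdn btW_zero)
open Crest.Agent.R138.Ex926

theorem grW_vbt (θ : Fin 3 → ℝ) (v : ℝ) (k : Fin 18) :
    grW v (-θ 1 * v) ((1 - θ 0) * v) k = v * btW θ k := by
  simp only [btW, grW]; ring

theorem grW_neg_wt (w1 : ℝ) (k : Fin 18) : grW (-w1) (-w1) (-(9 * w1)) k = -(w1 * wtR k) := by
  simp only [wtR, grW]; ring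

theorem vbt_max {θ : Fin 3 → ℝ} {v : ℝ} (h0 : 0 ≤ v) (h1 : v ≤ 1) (k : Fin 18) :
    v * btW θ k ≤ max 0 (btW θ k) := by
  rcases le_total 0 (btW θ k) with h | h
  · exact (mul_le_of_le_one_left h h1).trans (le_max_right _ _)
  · exact (mul_nonpos_of_nonneg_of_nonpos h0 h).trans (le_max_left _ _)

section main

variable {θ : Fin 3 → ℝ} {g : ℝ} {q : Fin 3 → ℝ} {V Dr : Set (Fin 18)}
  {P : Set (Fin 18 → ℝ)} {ν own : (Fin 18 → ℝ) → ℝ} {r0 : Fin 18 → ℝ}
  {B B' : Base} {I0 J : ℕ → Finset (ℕ × ℝ)} {κ : ℕ → ℝ} {u : ℕ → Fin 18 → ℝ}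
  {F : ℕ → ℕ × ℝ → FW} {X : ℕ → Fin 18 → ℝ} {w Tn To : ℕ → ℝ}
  {lam lo : (Fin 18 → ℝ) → ℝ} {w1 R1 T1 : ℝ} {bC : Fin 18 → ℝ}
  {Cl E : ℕ → Finset (ℕ × ℝ)} {s₀ : ℕ → ℕ × ℝ} {e : ℕ → ℕ × ℝ → Fin 14 → ℝ}
  {V' Zs : Set (Fin 18)}

variable (H : GauW θ g q V Dr P ν own r0 B B' I0 J κ u F X w Tn To lam lo w1 R1 T1 bC Cl E s₀ e V' Zs)

include H

theorem R1pos : 0 ≤ R1 := by
  have := H.big.w0pos
  have := H.big.wR
  linarith

theorem sub_mem {c : Fin 18 → ℝ} (hc : c ∈ cn QW (actW Dr)) : bC + (c - bC) ∈ cn QW (actW Dr) := by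
  rwa [add_sub_cancel]

theorem cO_memH {v : ℝ} (h0 : 0 ≤ v) (h1 : v ≤ 1) :
    cO θ V Dr bC (20 * R1) v ∈ cn QW (actW Dr) := by
  have hR := R1pos H
  refine cO_mem (fun k _ l hl h => H.capV k ⟨l, hl, h⟩) (fun k hk => ⟨(H.vis k hk).1.1, (H.vis k hk).2⟩)
    (btW_zero θ) h0 (fun k => ?_) (by linarith)
  have := vbt_abs H.big h0 h1 k
  rw [abs_le] at this
  linarith

theorem cU_memH {v : ℝ} (h0 : 0 ≤ v) : cU V Dr bC (20 * R1) v ∈ cn QW (actW Dr) := by
  have hR := R1pos H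
  exact cU_mem (fun k _ l hl h => H.capV k ⟨l, hl, h⟩) (fun k hk => (H.vis k hk).1.1) h0
    (by linarith)

theorem cR_ge {v : ℝ} (h0 : 0 ≤ v) (h1 : v ≤ 1) (k : Fin 18) : bC k ≤ cR θ Dr bC v k := by
  simp only [cR]
  split_ifs with h
  · exact le_rfl
  · exact H.bhi k h v h0 h1

theorem cO_ge {v : ℝ} (h0 : 0 ≤ v) (h1 : v ≤ 1) (k : Fin 18) :
    bC k ≤ cO θ V Dr bC (20 * R1) v k := by
  have hR := R1pos H
  simp only [cO]
  split_ifs with a b c
  · rw [a, H.bz]; exact h0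
  · exact H.bhi k (V_not_Dr H b) v h0 h1
  · exact le_rfl
  · have := bC_le H c
    linarith

theorem cU_ge {v : ℝ} (h0 : 0 ≤ v) (k : Fin 18) : bC k ≤ cU V Dr bC (20 * R1) v k := by
  have hR := R1pos H
  simp only [cU]
  split_ifs with a b c
  · rw [a, H.bz]; exact h0
  · exact bC_le H (V_not_Dr H b)
  · exact le_rfl
  · have := bC_le H c
    linarith

/-- bound of all exponents -/
noncomputable def Rb (R1 : ℝ) (bC : Fin 18 → ℝ) : ℝ := 20 * R1 + 1 + 2 * ‖bC‖

theorem norm_le_Rb {c : Fin 18 → ℝ} (hc : ∀ k, |c k| ≤ 20 * R1 + 1 + ‖bC‖) :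
    ‖c - bC‖ ≤ Rb R1 bC := by
  have hR := R1pos H
  have hb := norm_nonneg bC
  refine (pi_norm_le_iff_of_nonneg (by unfold Rb; linarith)).2 fun k => ?_
  rw [Pi.sub_apply, Real.norm_eq_abs]
  have h1 := abs_sub (c k) (bC k)
  have h2 : |bC k| ≤ ‖bC‖ := by
    have := norm_le_pi_norm bC k
    rwa [Real.norm_eq_abs] at this
  have h3 := hc k
  unfold Rb
  linarith

theorem bC_abs (k : Fin 18) : |bC k| ≤ ‖bC‖ := by
  have := norm_le_pi_norm bC k
  rwa [Real.norm_eq_abs] at this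

theorem cR_bd {v : ℝ} (h0 : 0 ≤ v) (h1 : v ≤ 1) (k : Fin 18) :
    |cR θ Dr bC v k| ≤ 20 * R1 + 1 + ‖bC‖ := by
  have hR := R1pos H
  have hb := norm_nonneg bC
  simp only [cR]
  split_ifs with h
  · have := bC_abs H k; linarith
  · have := vbt_abs H.big h0 h1 k; linarith

theorem cO_bd {v : ℝ} (h0 : 0 ≤ v) (h1 : v ≤ 1) (k : Fin 18) :
    |cO θ V Dr bC (20 * R1) v k| ≤ 20 * R1 + 1 + ‖bC‖ := by
  have hR := R1pos H
  have hb := norm_nonneg bC
  simp only [cO]
  split_ifs with a b c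
  · rw [abs_of_nonneg h0]; linarith
  · have := vbt_abs H.big h0 h1 k; linarith
  · have := bC_abs H k; linarith
  · rw [abs_of_nonneg (by linarith)]; linarith

theorem cU_bd {v : ℝ} (h0 : 0 ≤ v) (h1 : v ≤ 1) (k : Fin 18) :
    |cU V Dr bC (20 * R1) v k| ≤ 20 * R1 + 1 + ‖bC‖ := by
  have hR := R1pos H
  have hb := norm_nonneg bC
  simp only [cU]
  split_ifs with a b c
  · rw [abs_of_nonneg h0]; linarith
  · rw [abs_zero]; linarith
  · have := bC_abs H k; linarith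
  · rw [abs_of_nonneg (by linarith)]; linarith

/-! ### values of the profiles -/

theorem lo_eq {c : Fin 18 → ℝ} (hc : c ∈ cn QW (actW Dr))
    (h : ∀ k ∈ V, c k ≤ btW θ k * c 0) : lo c = -c 0 := by
  obtain ⟨Z, st⟩ := H.st
  have := st.ownr c hc h
  linarith

theorem lo_bC : lo bC = 0 := by
  have := lo_eq H (H.bnat.mem) fun k hk => by
    rw [H.bz, mul_zero]; exact bC_le H (V_not_Dr H hk)
  rw [this, H.bz, neg_zero]

theorem lo_cO {v : ℝ} (h0 : 0 ≤ v) (h1 : v ≤ 1) : lo (cO θ V Dr bC (20 * R1) v) = -v := by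
  have e0 : cO θ V Dr bC (20 * R1) v 0 = v := by simp only [cO, if_true]
  have := lo_eq H (cO_memH H h0 h1) fun k hk => by
    have h0' : k ≠ 0 := by
      rintro rfl
      exact absurd (H.vis 0 hk).1.1 (by decide)
    rw [e0]
    simp only [cO, if_neg h0', if_pos hk]
    linarith
  rw [this, e0]

theorem lo_cU {v : ℝ} (h0 : 0 ≤ v) : lo (cU V Dr bC (20 * R1) v) = -v := by
  have e0 : cU V Dr bC (20 * R1) v 0 = v := by simp only [cU, if_true]
  have := lo_eq H (cU_memH H h0) fun k hk => by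
    have h0' : k ≠ 0 := by
      rintro rfl
      exact absurd (H.vis 0 hk).1.1 (by decide)
    rw [e0]
    simp only [cU, if_neg h0', if_pos hk]
    exact mul_nonneg (H.vis k hk).2.le h0
  rw [this, e0]

theorem lam_cR (v : ℝ) : lam (cR θ Dr bC v) = v * DlW g q (btW θ) := by
  obtain ⟨Z, st⟩ := H.st
  rw [← st.rcd v]
  refine st.ind _ (cR_mem θ Dr bC v) _ ((nat_btW _ θ).smul v).mem (fun k hk => ?_) ⟨v, fun k hk => ?_⟩
  · simp only [cR, if_neg hk, Pi.smul_apply, smul_eq_mul]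
  · have := st.ZD k hk
    simp only [cR, if_neg this]
    exact le_rfl

theorem DW_pathW (v : ℝ) : DW g 0 q w1 (pathW θ w1 v) = 1 + v * DlW g q (btW θ) := by
  have e1 : pathW θ w1 v = w1 • wtR + v • btW θ := by
    funext k
    rw [pathW_eq]
    simp only [Pi.add_apply, Pi.smul_apply, smul_eq_mul]; ring
  have e2 : DW g 0 q w1 (w1 • wtR) = 1 := by
    simp [DW, wtR, grW, wz, wc, wn]
    ring
  rw [e1, DW_add, e2, map_smul, smul_eq_mul]

theorem DW_sub (p : Fin 18 → ℝ) : DW g 0 q w1 p = 1 + DlW g q (p - w1 • wtR) := by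
  have e1 : p = w1 • wtR + (p - w1 • wtR) := by abel
  have e2 : DW g 0 q w1 (w1 • wtR) = 1 := by
    simp [DW, wtR, grW, wz, wc, wn]
    ring
  conv_lhs => rw [e1]
  rw [DW_add, e2]

/-! ### own count -/

/-- **number of incidences of a line in a piece of height** -/
theorem own_count {P₁ : Set (Fin 18 → ℝ)} {T' : ℕ → ℝ} {o₁ : (Fin 18 → ℝ) → ℝ}
    (hown : TProf B' E (zolb B I0 (coU u κ F) monW 67 (fun n => X n + w n • bC) w) P₁ T' o₁)
    {v : ℝ} (h0 : 0 ≤ v) (h1 : v ≤ 1) (hP : cU V Dr bC (20 * R1) v - bC ∈ P₁)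
    {ε : ℝ} (hε : 0 < ε) :
    ∀ᶠ n in (U : Filter ℕ), ∀ F' ⊆ E n, ∀ i ∈ E n, (∀ j ∈ F', j.1 = i.1 ∧
      |coU u κ F n i j 0| ≤ cK0 monW 67 * (B.d n ^ natX X n 0 * B'.d n ^ v)) →
      (F'.card : ℝ) ≤ T' n * B'.d n ^ (-(o₁ (cU V Dr bC (20 * R1) v - bC) + ε)) := by
  classical
  set a := cU V Dr bC (20 * R1) v - bC with ha
  have hmem : bC + a ∈ cn QW (actW Dr) := sub_mem H (cU_memH H h0)
  have hlegp : ∀ᶠ n in (U : Filter ℕ), Legal monW ((X n + w n • bC) + w n • a) :=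
    (H.cls.legal ‖a‖).mono fun n hn => hn a hmem le_rfl
  have hε2 : 0 < ε / 2 := by positivity
  obtain ⟨δ, hδ, hδε, hev⟩ := card_zlab_close (B' := B') (I := I0)
    (fun n => chart_coU H.κ1 H.u0 F n (I0 n)) (hB H) (X := fun n => X n + w n • bC) hlegp hε2
  have hc1 := cK0_one (M := monW) (C := 67) (by norm_num)
  -- base labels
  have hbase := old_box H (a := 0) (by rw [add_zero]; exact H.bnat.mem) (t := fun k => bC k)
    (fun k _ => by simp)
  have hnar : ∀ᶠ n in (U : Filter ℕ), ∀ i ∈ E n, ∀ j ∈ E n, ∀ k, k ∈ Dr →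
      |coU u κ F n i j k| ≤ cK0 monW 67 *
        (B.d n ^ (X n + w n • bC) k * B'.d n ^ (0 : Fin 18 → ℝ) k) := by
    filter_upwards [sub_I0 H, H.esub, H.cls.clab, H.cls.legal 0] with n g1 g2 g3 g4 i hi j hj k _
    exact wbox_of_zlab (co := coU u κ F) (fun n => chart_coU H.κ1 H.u0 F n (I0 n)) (hB H)
      (g4 0 (by show bC + 0 ∈ _; rw [add_zero]; exact H.bnat.mem) (by rw [norm_zero]))
      (g1 hi) (g1 hj) (g3 i (g2 hi) j (g2 hj)) k
  filter_upwards [hev, hown.up (ε / 2) hε2, sub_I0 H, H.ownc (δ / 2) (by positivity), hnar,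
    ev_const_le B' (by linarith : 0 < cK0 monW 67) (ε := δ / 2) (by positivity),
    ev_const_le B' one_pos (ε := δ / 2) (by positivity)] with
    n g1 g2 g3 g4 g5 g6 g7 F' hF' i hi hF
  have hpos : ∀ t : ℝ, 0 < B'.d n ^ t := fun t => Real.rpow_pos_of_pos (B'.pos n) t
  have hT : 0 < T' n := hown.pos n
  have hbx : ∀ j ∈ F', wbox B B' (coU u κ F) (fun n => X n + w n • bC) n a (B'.d n ^ (-δ)) i j := by
    intro j hj k
    have hjE := hF' hj
    have hδ1 : B'.d n ^ (-(δ / 2)) ≤ B'.d n ^ (-δ) :=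
      Real.rpow_le_rpow_of_exponent_ge (B'.pos n) (B'.lt n).le (by linarith)
    have hside : 0 ≤ B.d n ^ (X n + w n • bC) k * B'.d n ^ a k :=
      mul_nonneg (Real.rpow_nonneg (B.pos n).le _) (hpos _).le
    have e1 : B.d n ^ (X n + w n • bC) k * B'.d n ^ a k =
        B.d n ^ X n k * B'.d n ^ (bC k + a k) := by
      rw [hB H n, ← Real.rpow_mul (B.pos n).le, ← Real.rpow_mul (B.pos n).le,
        ← Real.rpow_add (B.pos n), ← Real.rpow_add (B.pos n)]
      congr 1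
      simp only [Pi.add_apply, Pi.smul_apply, smul_eq_mul]; ring
    have e2 : bC k + a k = cU V Dr bC (20 * R1) v k := by
      rw [ha]; simp only [Pi.sub_apply]; ring
    by_cases hk : k ∈ Dr
    · have e3 : a k = (0 : Fin 18 → ℝ) k := by
        have h0k : k ≠ 0 := fun h => absurd (H.dr4 k hk).1 (by rw [h]; decide)
        have hkV : k ∉ V := (H.dr4 k hk).2.2
        have : cU V Dr bC (20 * R1) v k = bC k := by
          simp only [cU, if_neg h0k, if_neg hkV, if_pos hk]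
        rw [Pi.zero_apply]; linarith
      rw [e3]
      refine (g5 i hi j hjE k hk).trans ?_
      exact mul_le_mul_of_nonneg_right (g6.trans hδ1)
        (mul_nonneg (Real.rpow_nonneg (B.pos n).le _) (hpos _).le)
    · rw [e1, e2, H.iw.nat n k hk]
      have hX : 0 ≤ B.d n ^ natX X n k := Real.rpow_nonneg (B.pos n).le _
      by_cases h0k : k = 0
      · subst h0k
        have e4 : cU V Dr bC (20 * R1) v 0 = v := by simp only [cU, if_true]
        rw [e4]
        refine (hF j hj).2.trans ?_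
        exact mul_le_mul_of_nonneg_right (g6.trans hδ1) (mul_nonneg hX (hpos _).le)
      · have e5 : cU V Dr bC (20 * R1) v k = ob0 V (20 * R1) k := by
          by_cases hkV : k ∈ V
          · rw [cU, ob0, if_neg h0k, if_pos hkV, if_pos (Or.inr hkV)]
          · rw [cU, ob0, if_neg h0k, if_neg hkV, if_neg hk, if_neg (fun h => h.elim h0k hkV)]
        rw [e5]
        refine (g4 i hi j hjE (hF j hj).1.symm k).trans ?_
        have e6 : B.d n ^ natX X n k * B'.d n ^ (ob0 V (20 * R1) k - δ / 2) =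
            B'.d n ^ (-(δ / 2)) * (B.d n ^ natX X n k * B'.d n ^ ob0 V (20 * R1) k) := by
          rw [sub_eq_add_neg, Real.rpow_add (B'.pos n)]; ring
        rw [e6]
        exact mul_le_mul_of_nonneg_right hδ1 (mul_nonneg hX (hpos _).le)
  have hlab := g1 i (g3 hi) F' (hF'.trans g3) hbx
  have hcnt := le_count_mul F' (fun _ => (1 : ℝ))
    (zolb B I0 (coU u κ F) monW 67 (fun n => X n + w n • bC) w n a)
    (m := T' n * B'.d n ^ (-(o₁ a + ε / 2))) (fun x hx => by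
      rw [sum_const, nsmul_eq_mul, mul_one]
      refine le_trans ?_ (g2 a hP x (hF' hx))
      exact_mod_cast card_le_card (cls_mono hF' _ _))
  rw [sum_const, nsmul_eq_mul, mul_one] at hcnt
  have hs : F'.image (zolb B I0 (coU u κ F) monW 67 (fun n => X n + w n • bC) w n a) ⊆
      (F'.image (zlab B I0 (coU u κ F) monW 67 (fun n => X n + w n • bC) w n a)).image
        fun y => (i.1, y) := by
    intro y hy
    obtain ⟨x, hx, rfl⟩ := mem_image.1 hy
    refine mem_image.2 ⟨_, mem_image_of_mem _ hx, ?_⟩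
    unfold zolb
    rw [(hF x hx).1]
  have hlab2 : ((F'.image (zolb B I0 (coU u κ F) monW 67 (fun n => X n + w n • bC) w n a)).card : ℝ)
      ≤ B'.d n ^ (-(ε / 2)) := by
    refine le_trans ?_ hlab
    exact_mod_cast (card_le_card hs).trans card_image_le
  calc (F'.card : ℝ) ≤ T' n * B'.d n ^ (-(o₁ a + ε / 2)) * B'.d n ^ (-(ε / 2)) :=
        hcnt.trans (mul_le_mul_of_nonneg_left hlab2 (mul_pos hT (hpos _)).le)
    _ = _ := by rw [mul_assoc, ← Real.rpow_add (B'.pos n)]; congr 2; ring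

end main

end Crest.Agent.R136.SGa480
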