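import Crest.Agent.R136.SGa3_480

/-!
# R136 (helper480): the gauge step of the W-chart, part 4: assembly

`gd_new` : D-max for all gauges in the new chart; **`ob_of`** : `GauW ⊢ Ob`; **`seamGau`**.
-/

set_option autoImplicit false
set_option linter.unusedVariables false
set_option linter.unusedSectionVars false

open Finset Filter Topology

namespace Crest.Agent.R136.SGa480

open Crest.Agent.R136.Net191
open Crest.Agent.R136.NetW191
open Crest.Agent.R136.PrW464
open Crest.Agent.R136.LadW697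
open Crest.Agent.R136.LadG697
open Crest.Agent.R136.Zpr779
open Crest.Agent.R136.Qg926
open Crest.Agent.R136.EvW938
open Crest.Agent.R136.GauW619
open Crest.Agent.R136.AwJ774
open Crest.Agent.R136.K2S774
open Crest.Agent.R136.ThS830 (Pdn btW_zero)
open Crest.Agent.R138.Ex926

/-- D-max set of the new object -/
def PDn (θ : Fin 3 → ℝ) (w1 R1 : ℝ) : Set (Fin 18 → ℝ) :=
  {p | p ∈ Leg monW R1 ∧ (θ 0 = 1 → p 17 ≤ 9 * w1)}

theorem pdn_PDn (θ : Fin 3 → ℝ) (w1 R1 : ℝ) : Pdn θ w1 R1 (PDn θ w1 R1) := by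
  intro v1 _ _
  refine ⟨1, one_pos, fun x hx _ _ _ _ h => ⟨hx, fun h0 => ?_⟩⟩
  rw [h0, sub_self, max_self, add_zero] at h
  exact h

/-- the rescaled exponents are D-max directions -/
theorem sub_QdW {θ : Fin 3 → ℝ} {w1 R1 : ℝ} {x : Fin 18 → ℝ} (hx : x ∈ PDn θ w1 R1) :
    x - w1 • wtR ∈ QdW θ := by
  obtain ⟨⟨h1, _⟩, h2⟩ := hx
  obtain ⟨_, hw⟩ := legal_ofLists.1 h1
  refine ⟨mem_cnW0.2 fun k l hl => ?_, fun h0 => ?_⟩
  · have e1 : (l.map (x - w1 • wtR)).sum = (l.map x).sum - w1 * (l.map wtR).sum := by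
      clear hl
      induction l with
      | nil => simp
      | cons a l ih =>
        simp only [List.map_cons, List.sum_cons, ih, Pi.sub_apply, Pi.smul_apply, smul_eq_mul]
        ring
    have e2 : (l.map wtR).sum = wtR k := grW_list 1 1 9 k l hl
    rw [e1, e2]
    have := hw k l hl
    simp only [Pi.sub_apply, Pi.smul_apply, smul_eq_mul]
    linarith
  · have e3 : wtR 17 = 9 := by simp [wtR, grW, wz, wc, wn]
    have := h2 h0
    simp only [Pi.sub_apply, Pi.smul_apply, smul_eq_mul, e3]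
    linarith

/-- the new frame is legal -/
theorem legal_new {B' : Base} {X : ℕ → Fin 18 → ℝ} {w : ℕ → ℝ} (w0 : ∀ n, 0 < w n)
    (hpos : ∀ R : ℝ, ∀ᶠ n in (U : Filter ℕ), ∀ k, R * w n ≤ natX X n k) (w1 R : ℝ) :
    ∀ᶠ n in (U : Filter ℕ), ∀ c ∈ Leg monW R, Legal monW (Xn X w w1 n + w n • c) := by
  filter_upwards [hpos (∑ k, |w1 * wtR k|)] with n h1 c hc
  obtain ⟨h2, h3⟩ := legal_ofLists.1 hc.1
  refine legal_ofLists.2 ⟨fun k => ?_, fun k l hl => ?_⟩
  · have hw := w0 n
    have h4 : |w1 * wtR k| ≤ ∑ k, |w1 * wtR k| :=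
      Finset.single_le_sum (f := fun k => |w1 * wtR k|) (fun k _ => abs_nonneg _)
        (Finset.mem_univ k)
    have h5 := h1 k
    have h6 := le_abs_self (w1 * wtR k)
    have h7 := h2 k
    simp only [Pi.add_apply, Pi.smul_apply, smul_eq_mul]
    rw [Xn_apply]
    nlinarith [mul_nonneg hw.le h7]
  · have e1 : (l.map (Xn X w w1 n + w n • c)).sum =
        (l.map (Xn X w w1 n)).sum + w n * (l.map c).sum := by
      clear hl
      induction l with
      | nil => simp
      | cons a l ih =>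
        simp only [List.map_cons, List.sum_cons, ih, Pi.add_apply, Pi.smul_apply, smul_eq_mul]
        ring
    rw [e1, Xn_grW, grW_list _ _ _ k l hl]
    simp only [Pi.add_apply, Pi.smul_apply, smul_eq_mul]
    have := mul_le_mul_of_nonneg_left (h3 k l hl) (w0 n).le
    linarith

section main

variable {θ : Fin 3 → ℝ} {g : ℝ} {q : Fin 3 → ℝ} {V Dr : Set (Fin 18)}
  {P : Set (Fin 18 → ℝ)} {ν own : (Fin 18 → ℝ) → ℝ} {r0 : Fin 18 → ℝ}
  {B B' : Base} {I0 J : ℕ → Finset (ℕ × ℝ)} {κ : ℕ → ℝ} {u : ℕ → Fin 18 → ℝ}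
  {F : ℕ → ℕ × ℝ → FW} {X : ℕ → Fin 18 → ℝ} {w Tn To : ℕ → ℝ}
  {lam lo : (Fin 18 → ℝ) → ℝ} {w1 R1 T1 : ℝ} {bC : Fin 18 → ℝ}
  {Cl E : ℕ → Finset (ℕ × ℝ)} {s₀ : ℕ → ℕ × ℝ} {e : ℕ → ℕ × ℝ → Fin 14 → ℝ}
  {V' Zs : Set (Fin 18)}

variable (H : GauW θ g q V Dr P ν own r0 B B' I0 J κ u F X w Tn To lam lo w1 R1 T1 bC Cl E s₀ e V' Zs)

include H

/-- **D-max for all gauges in the new chart** -/
theorem gd_new (hpos : ∀ R : ℝ, ∀ᶠ n in (U : Filter ℕ), ∀ k, R * w n ≤ natX X n k)
    {E' : ℕ → Finset (ℕ × ℝ)} (hE' : ∀ᶠ n in (U : Filter ℕ), E' n ⊆ E n) :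
    GdG B B' E' κ u (fG κ e F) (Xn X w w1) (fun n => Tn n * B'.d n ^ (-lam bC)) (PDn θ w1 R1)
      (DW g 0 q w1) (-lam bC - 1) := by
  classical
  obtain ⟨C, hC, hgd⟩ := H.gd
  refine ⟨C / 2, by positivity, fun x hx K hK ε hε => ?_⟩
  have hd := sub_QdW hx
  filter_upwards [hgd (x - w1 • wtR) hd K hK ε hε, hE', H.esub, H.cls.csub,
    H.size 1 one_pos, hpos 1, ev_const_le B two_pos (ε := C / 2) (by positivity)] with
    n g1 g2 g3 g4 g5 g6 g7 e'' he'' i hi G hG hbx
  have hB' := hB H n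
  have hsz : ∀ j ∈ E n, ∀ k, u n (Fin.natAdd 4 k) * |e n j k| ≤ 1 := by
    intro j hj k
    refine (g5 j hj k).trans ?_
    rw [hB', ← Real.rpow_mul (B.pos n).le, ← Real.rpow_add (B.pos n)]
    refine Real.rpow_le_one (B.pos n).le (B.lt n).le ?_
    have h1 := g6 (Fin.natAdd 4 k)
    have h2 := H.iw.win.w0 n
    have h3 : 0 ≤ max 0 (btW θ (Fin.natAdd 4 k)) := le_max_left _ _
    nlinarith [mul_nonneg h2.le h3]
  set e' : ℕ × ℝ → Fin 14 → ℝ := fun j => if j ∈ E' n then e n j + e'' j else 0 with he'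
  have hcond : ∀ j ∈ J n, (e' j 9 = 0 ∧ e' j 12 = 0 ∧ e' j 13 = 0) ∧
      ∀ k, u n (Fin.natAdd 4 k) * |e' j k| ≤ B.d n ^ (-C) := by
    intro j _
    by_cases hj : j ∈ E' n
    · have e1 : e' j = e n j + e'' j := by rw [he']; simp only [if_pos hj]
      obtain ⟨h1, h2, h3⟩ := H.supp n j
      obtain ⟨⟨h4, h5, h6⟩, h7⟩ := he'' j hj
      rw [e1]
      refine ⟨⟨by rw [Pi.add_apply, h1, h4, add_zero], by rw [Pi.add_apply, h2, h5, add_zero],
        by rw [Pi.add_apply, h3, h6, add_zero]⟩, fun k => ?_⟩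
      have hu := (H.u0 n).pos (Fin.natAdd 4 k)
      have hp : 0 < B.d n := B.pos n
      have c1 : u n (Fin.natAdd 4 k) * |(e n j + e'' j) k| ≤
          u n (Fin.natAdd 4 k) * |e n j k| + u n (Fin.natAdd 4 k) * |e'' j k| := by
        rw [← mul_add]
        exact mul_le_mul_of_nonneg_left (abs_add_le _ _) hu.le
      have c2 : (1 : ℝ) ≤ B.d n ^ (-(C / 2)) :=
        Real.one_le_rpow_of_pos_of_le_one_of_nonpos hp (B.lt n).le (by linarith)
      calc _ ≤ _ := c1
        _ ≤ 1 + B.d n ^ (-(C / 2)) := add_le_add (hsz j (g2 hj) k) (h7 k)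
        _ ≤ B.d n ^ (-(C / 2)) * 2 := by linarith
        _ ≤ B.d n ^ (-(C / 2)) * B.d n ^ (-(C / 2)) :=
            mul_le_mul_of_nonneg_left g7 (Real.rpow_nonneg hp.le _)
        _ = _ := by rw [← Real.rpow_add hp]; congr 1; ring
    · have e1 : e' j = 0 := by rw [he']; simp only [if_neg hj]
      rw [e1]
      refine ⟨⟨rfl, rfl, rfl⟩, fun k => ?_⟩
      rw [Pi.zero_apply, abs_zero, mul_zero]
      exact Real.rpow_nonneg (B.pos n).le _
  have hJ : E' n ⊆ J n := (g2.trans g3).trans g4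
  have h1 := g1 e' hcond i (hJ hi) G (hG.trans hJ) (fun j hj k => by
    have h2 := hbx j hj k
    rw [side_Xn hB'] at h2
    have e1 : e' i = e n i + e'' i := by rw [he']; simp only [if_pos hi]
    have e2 : e' j = e n j + e'' j := by rw [he']; simp only [if_pos (hG hj)]
    rw [e1, e2, ← gau_gau, ← gau_gau]
    exact h2)
  refine h1.trans (le_of_eq ?_)
  rw [mul_assoc, ← Real.rpow_add (B'.pos n), DW_sub H x]
  congr 2
  ring

/-- **the gauge step** -/
theorem ob_of : Ob θ g q V' ∅ Zs := by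
  classical
  have hpos := H.natpos
  obtain ⟨Hc, hHc, hcard⟩ := H.card
  have hR := R1pos H
  have hB' := hB H
  have hc1 := cK0_one (M := monW) (C := 67) (by norm_num)
  set D₁ : Set (Fin 18 → ℝ) := {a | bC + a ∈ cn QW (actW Dr)} with hD₁
  set P₁ : Set (Fin 18 → ℝ) := {a | a ∈ D₁ ∧ 0 ≤ a ∧ ‖a‖ ≤ Rb R1 bC} with hP₁
  set T₁ : ℕ → ℝ := fun n => Tn n * B'.d n ^ (-lam bC) with hT₁
  set o₁ : (Fin 18 → ℝ) → ℝ := fun a => (lo (bC + a) - lo bC) + 1 with ho₁
  set To' : ℕ → ℝ := fun n => To n * B'.d n ^ (-lo bC) * B'.d n ^ (1 : ℝ) with hTo'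
  have memP : ∀ c : Fin 18 → ℝ, c ∈ cn QW (actW Dr) → (∀ k, bC k ≤ c k) →
      (∀ k, |c k| ≤ 20 * R1 + 1 + ‖bC‖) → c - bC ∈ P₁ := by
    intro c h1 h2 h3
    refine ⟨sub_mem H h1, fun k => ?_, norm_le_Rb H h3⟩
    rw [Pi.zero_apply, Pi.sub_apply]
    linarith [h2 k]
  have h0P : (0 : Fin 18 → ℝ) ∈ P₁ := by
    refine ⟨?_, le_rfl, ?_⟩
    · show bC + 0 ∈ cn QW (actW Dr)
      rw [add_zero]; exact H.bnat.mem
    · rw [norm_zero]
      have := norm_nonneg bC
      unfold Rb; linarith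
  have hown : TProf B' E (zolb B I0 (coU u κ F) monW 67 (fun n => X n + w n • bC) w) P₁ To' o₁ :=
    (H.own P₁ (fun a ha => ha.1) (Rb R1 bC) (fun a ha => ha.2.2) (fun a ha => ha.2.1)).shift 1
  have hch : ∀ n, Chart (E n) (coU u κ (fG κ e F) n) monW 67 :=
    fun n => chart_coU H.κ1 H.u0 _ n (E n)
  have hcardE : ∀ᶠ n in (U : Filter ℕ), (Nat.log 2 (E n).card : ℝ) + 1 ≤ Hc n := by
    filter_upwards [hcard, H.esub, H.cls.csub] with n h1 h2 h3
    refine le_trans ?_ h1
    have := Nat.log_mono_right (b := 2) (card_le_card (h2.trans h3))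
    have h3 : ((Nat.log 2 (E n).card : ℕ) : ℝ) ≤ (Nat.log 2 (J n).card : ℕ) := by
      exact_mod_cast this
    linarith
  -- base
  have hbase : ∀ ε : ℝ, 0 < ε → ∀ᶠ n in (U : Filter ℕ), ∀ i ∈ E n, ∀ j ∈ E n,
      wbox B B' (coU u κ (fG κ e F)) (Xn X w w1) n 0 (B'.d n ^ (-ε)) i j := by
    intro ε hε
    have h1 := new_box H hpos (a := 0) (by rw [add_zero]; exact H.bnat.mem) (ζ := -w1) (χ := -w1)
      (μ := -(9 * w1)) (fun k hk => by
        rw [grW_neg_wt, Pi.zero_apply, add_zero]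
        have := H.blo k hk
        linarith) (fun p => by
        rw [grW_neg_wt]
        have h2 : (0 : ℝ) ≤ max 0 (btW θ (Fin.natAdd 4 p)) := le_max_left _ _
        have h3 := mul_nonneg (by linarith [H.big.w0pos] : 0 ≤ w1)
          (by linarith [wtR_ge (Fin.natAdd 4 p)] : 0 ≤ wtR (Fin.natAdd 4 p))
        linarith) hε
    filter_upwards [h1, H.esub, H.cls.clab] with n g1 g2 g3 i hi j hj k
    rw [side_Xn (hB' n)]
    have := g1 i hi j hj (g3 i (g2 hi) j (g2 hj)) k
    rw [grW_neg_wt] at this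
    rw [Pi.zero_apply, zero_sub]
    exact this
  -- record
  have hrecb : ∀ v : ℝ, 0 ≤ v → v ≤ 1 → ∀ c : Fin 18 → ℝ, c ∈ cn QW (actW Dr) →
      (∀ k, k ∉ Dr → v * btW θ k ≤ c k) → ∀ ε : ℝ, 0 < ε →
      ∀ᶠ n in (U : Filter ℕ), ∀ i ∈ E n, ∀ j ∈ E n,
        zlab B I0 (coU u κ F) monW 67 (fun n => X n + w n • bC) w n (c - bC) i =
          zlab B I0 (coU u κ F) monW 67 (fun n => X n + w n • bC) w n (c - bC) j →
        ∀ k, |coU u κ (fG κ e F) n i j k| ≤
          B'.d n ^ (-ε) * (B.d n ^ natX X n k * B'.d n ^ (v * btW θ k)) := by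
    intro v h0 h1 c hc hcv ε hε
    have h2 := new_box H hpos (a := c - bC) (sub_mem H hc) (ζ := v) (χ := -θ 1 * v)
      (μ := (1 - θ 0) * v) (fun k hk => by
        rw [grW_vbt, Pi.sub_apply]
        have := hcv k hk
        linarith) (fun p => by rw [grW_vbt]; exact vbt_max h0 h1 _) hε
    filter_upwards [h2] with n g1 i hi j hj he k
    have := g1 i hi j hj he k
    rwa [grW_vbt] at this
  have hpath : ∀ (n : ℕ) (v : ℝ) (k : Fin 18), B.d n ^ Xn X w w1 n k * B'.d n ^ pathW θ w1 v k =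
      B.d n ^ natX X n k * B'.d n ^ (v * btW θ k) := by
    intro n v k
    rw [side_Xn (hB' n), pathW_eq]
    congr 2
    ring
  obtain ⟨J', ν', own', hJ', hdJ', hext⟩ := exists_extZ (co := coU u κ (fG κ e F)) (M := monW)
    (C := 67) (X := Xn X w w1) (P₁ := P₁) H.cls H.esub H.edens (fun a ha => ha.1)
    (R₁ := Rb R1 bC) (fun a ha => ha.2.2) (fun a ha => ha.2.1) h0P hown hch monW hR
    (legal_new (B' := B') H.iw.win.w0 hpos w1 R1) hHc hcardE hbase (kz := 0) (w0 := w1) (s := 0)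
    le_rfl zero_le_one (PD := PDn θ w1 R1) (D := DW g 0 q w1) (r := pathW θ w1)
    (o := ownW θ w1 R1 fun k => k ∈ V') (Er := fun v => DW g 0 q w1 (pathW θ w1 v))
    (Tw := fun k => k ∈ (∅ : Set (Fin 18))) (c₀ := -lam bC - 1)
    (by
      intro p hp _ ε hε
      obtain ⟨C, hC, hgd⟩ := gd_new H hpos (E' := E) (Eventually.of_forall fun n => Subset.rfl)
      filter_upwards [hgd p hp (cK0 monW 67) hc1 ε hε] with n g1 F' hF' i hi hbx
      refine g1 0 (fun j _ => ⟨⟨rfl, rfl, rfl⟩, fun k => ?_⟩) i hi F' hF' fun j hj k => ?_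
      · rw [Pi.zero_apply, Pi.zero_apply, abs_zero, mul_zero]
        exact Real.rpow_nonneg (B.pos n).le _
      · rw [Pi.zero_apply, Pi.zero_apply, gau_zero, gau_zero]
        exact hbx j hj k)
    (fun v => cR θ Dr bC v - bC)
    (by
      intro v h0 h1
      refine ⟨H.big.path_leg h0 h1, memP _ (cR_mem θ Dr bC v) (cR_ge H h0 h1) (cR_bd H h0 h1),
        le_of_eq ?_, fun ε hε => ?_⟩
      · show -lam bC - 1 + DW g 0 q w1 (pathW θ w1 v) = lam (bC + (cR θ Dr bC v - bC)) - lam bC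
        rw [add_sub_cancel, lam_cR H, DW_pathW H]; ring
      · filter_upwards [hrecb v h0 h1 _ (cR_mem θ Dr bC v)
          (fun k hk => by simp only [cR, if_neg hk]; exact le_rfl) ε hε] with n g1 i hi j hj he k
        rw [hpath n v k]
        exact g1 i hi j hj he k)
    (fun v => cO θ V Dr bC (20 * R1) v - bC)
    (by
      intro v h0 h1
      refine ⟨memP _ (cO_memH H h0 h1) (cO_ge H h0 h1) (cO_bd H h0 h1), le_of_eq ?_,
        fun ε hε => ?_⟩
      · show (1 - (0 : ℝ)) * (1 - v) = (lo (bC + (cO θ V Dr bC (20 * R1) v - bC)) - lo bC) + 1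
        rw [add_sub_cancel, lo_cO H h0 h1, lo_bC H]; ring
      · have hge : ∀ k, k ∉ Dr → v * btW θ k ≤ cO θ V Dr bC (20 * R1) v k := by
          intro k hk
          simp only [cO]
          split_ifs with a b
          · rw [a, btW_zero, mul_one]
          · exact le_rfl
          · have := vbt_abs H.big h0 h1 k
            rw [abs_le] at this
            linarith
        filter_upwards [hrecb v h0 h1 _ (cO_memH H h0 h1) hge ε hε, H.ownc ε hε,
          H.ownz ε hε] with n g1 g2 g3 i hi j hj hl he k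
        have hX : 0 ≤ B.d n ^ natX X n k := Real.rpow_nonneg (B.pos n).le _
        have hexp : ∀ x y : ℝ, y - ε ≤ x → B.d n ^ natX X n k * B'.d n ^ x ≤
            B'.d n ^ (-ε) * (B.d n ^ natX X n k * B'.d n ^ y) := by
          intro x y hxy
          have e1 : B'.d n ^ (-ε) * (B.d n ^ natX X n k * B'.d n ^ y) =
              B.d n ^ natX X n k * B'.d n ^ (y - ε) := by
            rw [sub_eq_add_neg, Real.rpow_add (B'.pos n)]; ring
          rw [e1]
          exact mul_le_mul_of_nonneg_left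
            (Real.rpow_le_rpow_of_exponent_ge (B'.pos n) (B'.lt n).le hxy) hX
        have hww : 0 ≤ w1 * wtR k := mul_nonneg (by linarith [H.big.w0pos])
          (by linarith [wtR_ge k])
        by_cases k0 : k = 0
        · subst k0
          have e1 : ownW θ w1 R1 (fun k => k ∈ V') v 0 = pathW θ w1 v 0 := by
            simp only [ownW, if_true, pathW_eq, btW_zero]
            simp [wtR, grW, wz, wc, wn]
          rw [e1, hpath n v 0]
          exact g1 i hi j hj he 0
        by_cases kV : k ∈ V'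
        · have e1 : ownW θ w1 R1 (fun k => k ∈ V') v k = pathW θ w1 v k := by
            simp only [ownW, if_neg k0, if_pos kV]
          rw [e1, hpath n v k]
          exact g1 i hi j hj he k
        · have e1 : ownW θ w1 R1 (fun k => k ∈ V') v k = R1 := by
            simp only [ownW, if_neg k0, if_neg kV]
          have e5 : B.d n ^ Xn X w w1 n k * B'.d n ^ R1 =
              B.d n ^ natX X n k * B'.d n ^ (R1 - w1 * wtR k) :=
            side_Xn (hB' n) X w1 (fun _ => R1) k
          rw [e1, e5]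
          by_cases h4 : 4 ≤ k
          · exact (g3 i hi j hj hl k h4 kV).trans (hexp _ _ (by linarith))
          · have hk3 : k = 1 ∨ k = 2 ∨ k = 3 := by omega
            have hfr : coU u κ (fG κ e F) n i j k = coU u κ F n i j k := by
              rcases hk3 with rfl | rfl | rfl
              · exact coU_fG_frame 1
              · exact coU_fG_frame 2
              · exact coU_fG_frame 3
            have hkV : k ∉ V := fun h => h4 (H.vis k h).1.1
            have e2 : ob0 V (20 * R1) k = 20 * R1 := by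
              rw [ob0, if_neg (fun h => h.elim k0 hkV)]
            rw [hfr]
            refine (g2 i hi j hj hl k).trans ?_
            rw [e2]
            exact hexp _ _ (by linarith))
    (by
      intro v h0 h1 ε hε
      filter_upwards [own_count H hown h0 h1
        (memP _ (cU_memH H h0) (cU_ge H h0) (cU_bd H h0 h1)) hε] with n g1 F' hF' i hi hF
      refine (g1 F' hF' i hi fun j hj => ⟨(hF j hj).1, ?_⟩).trans (le_of_eq ?_)
      · have h2 := (hF j hj).2
        rw [coU_fG_zero] at h2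
        have e1 : B.d n ^ Xn X w w1 n 0 * B'.d n ^ (w1 + v) =
            B.d n ^ natX X n 0 * B'.d n ^ v := by
          have := side_Xn (hB' n) X w1 (fun _ => w1 + v) 0
          rw [this]
          congr 2
          simp [wtR, grW, wz, wc, wn]
        rwa [e1] at h2
      · have e1 : o₁ (cU V Dr bC (20 * R1) v - bC) = (1 - (0 : ℝ)) * (1 - v) := by
          show (lo (bC + (cU V Dr bC (20 * R1) v - bC)) - lo bC) + 1 = _
          rw [add_sub_cancel, lo_cU H h0, lo_bC H]; ring
        rw [e1])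
    (fun k hk => absurd hk (by simp))
  have hJs : ∀ᶠ n in (U : Filter ℕ), J' n ⊆ E n := hJ'.mono fun n hn => hn.1
  have hJn : ∀ᶠ n in (U : Filter ℕ), (J' n).Nonempty := hJ'.mono fun n hn => hn.2
  refine ⟨w1, R1, T1, B, B', E, J', κ, u, fG κ e F, Xn X w w1, w, T₁, To', PDn θ w1 R1, ν', own',
    -lam bC - 1, ?_, ?_⟩
  · exact
      { th1 := H.th1, q1 := H.q1, q2 := H.q2, q0 := H.q0, qg := H.qg, qθ := H.qθ
        vis := fun k hk => H.vis k (H.sub' hk)
        tied := fun k hk => absurd hk (by simp)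
        u0 := H.u0, κ1 := H.κ1, κ0 := H.iw.kap, big := H.big
        bas :=
          { sub := fun k => subset_rfl
            act := fun k e' he' n => by
              obtain ⟨l, hl, rfl⟩ := List.mem_map.1 (List.mem_toFinset.1 he')
              rw [← sum_count, Xn_grW, grW_list _ _ _ k l hl]
            gap := fun k e' he' hne => absurd he' hne }
        pdn := pdn_PDn θ w1 R1
        ext := hext
        gd := gd_new H hpos hJs
        card := ⟨Hc, hHc, by
          filter_upwards [hcardE, hJs] with n h1 h2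
          refine le_trans ?_ h1
          have := Nat.log_mono_right (b := 2) (card_le_card h2)
          have h3 : ((Nat.log 2 (J' n).card : ℕ) : ℝ) ≤ (Nat.log 2 (E n).card : ℕ) := by
            exact_mod_cast this
          linarith⟩ }
  · -- zero slots
    have hTP : TProf B' J' (zlab B E (coU u κ (fG κ e F)) monW 67 (Xn X w w1) w) (Leg monW R1)
        T₁ ν' := TProf.ofZ hext.win.prof H.cls.T0 (Set.Subset.refl _) fun p hp => Leg_norm hR hp
    have hleg1 : ∀ p ∈ Leg monW R1, ∀ᶠ n in (U : Filter ℕ), Legal monW (Xn X w w1 n + w n • p) :=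
      fun p hp => (legal_new (B' := B') H.iw.win.w0 hpos w1 R1).mono fun n hn => hn p hp
    have hTT : ∀ (Z : ℕ → ℝ), (∀ n, 0 < Z n) → ∀ ε : ℝ, 0 < ε → ∀ᶠ n in (U : Filter ℕ),
        Z n ≤ Z n * B'.d n ^ (-((0 : ℝ) + ε)) := by
      intro Z hZ ε hε
      filter_upwards with n
      refine le_mul_of_one_le_right (hZ n).le ?_
      exact Real.one_le_rpow_of_pos_of_le_one_of_nonpos (B'.pos n) (B'.lt n).le (by linarith)
    have hzb : ∀ a ∈ Leg monW R1, ∀ b ∈ Leg monW R1, (∀ k, k ∉ Zs → a k = b k) → ∀ ε : ℝ, 0 < ε →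
        ∀ᶠ n in (U : Filter ℕ), ∀ i ∈ J' n, ∀ j ∈ J' n,
          zlab B E (coU u κ (fG κ e F)) monW 67 (Xn X w w1) w n a i =
            zlab B E (coU u κ (fG κ e F)) monW 67 (Xn X w w1) w n a j →
          wbox B B' (coU u κ (fG κ e F)) (Xn X w w1) n b (B'.d n ^ (-ε)) i j := by
      intro a ha b hb hab ε hε
      have hz : ∀ᶠ n in (U : Filter ℕ), ∀ k, k ∈ Zs → ∀ i ∈ E n, ∀ j ∈ E n,
          |coU u κ (fG κ e F) n i j k| ≤ B.d n ^ natX X n k * B'.d n ^ (R1 - ε) := by
        refine eventually_all.2 fun k => ?_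
        by_cases hk : k ∈ Zs
        · exact (H.zero k hk ε hε).mono fun n hn _ => hn
        · exact Eventually.of_forall fun n h => absurd h hk
      filter_upwards [hz, ev_const_le B' (by linarith : 0 < cK0 monW 67) hε, hJs, hleg1 a ha] with
        n g1 g2 g3 g4 i hi j hj he k
      by_cases hk : k ∈ Zs
      · refine (g1 k hk i (g3 hi) j (g3 hj)).trans ?_
        rw [side_Xn (hB' n)]
        have e1 : B'.d n ^ (-ε) * (B.d n ^ natX X n k * B'.d n ^ (b k - w1 * wtR k)) =
            B.d n ^ natX X n k * B'.d n ^ (b k - w1 * wtR k - ε) := by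
          rw [sub_eq_add_neg _ ε, Real.rpow_add (B'.pos n)]; ring
        rw [e1]
        have hww : 0 ≤ w1 * wtR k := mul_nonneg (by linarith [H.big.w0pos])
          (by linarith [wtR_ge k])
        exact mul_le_mul_of_nonneg_left (Real.rpow_le_rpow_of_exponent_ge (B'.pos n) (B'.lt n).le
          (by linarith [hb.2 k])) (Real.rpow_nonneg (B.pos n).le _)
      · have h1 := wbox_of_zlab hch hB' g4 (g3 hi) (g3 hj) he k
        rw [← hab k hk]
        exact h1.trans (mul_le_mul_of_nonneg_right g2 (wside_pos B B' (Xn X w w1) n a k).le)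
    have hle : ∀ a ∈ Leg monW R1, ∀ b ∈ Leg monW R1, (∀ k, k ∉ Zs → a k = b k) →
        ν' a ≤ ν' b ∧ own' a ≤ own' b := by
      intro a ha b hb hab
      constructor
      · have := le_net (c := 0) hTP hch hB' hJs hJn hTP ha hb (hleg1 b hb) (hTT T₁ H.cls.T0)
          fun ε hε => hzb a ha b hb hab ε hε
        linarith
      · have := le_net_own (c := 0) hext.oprof hch hB' hJs hJn (line := fun _ x => x.1) hext.oprof
          ha hb (hleg1 b hb) (hTT To' hown.pos)
          (by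
            filter_upwards with n i _ j _ he
            exact (Prod.mk.inj he).1)
          fun ε hε => by
            filter_upwards [hzb a ha b hb hab ε hε] with n h5 i hi j hj he
            exact h5 i hi j hj (Prod.mk.inj he).2
        linarith
    intro a ha b hb hab
    obtain ⟨h1, h2⟩ := hle a ha b hb hab
    obtain ⟨h3, h4⟩ := hle b hb a ha fun k hk => (hab k hk).symm
    exact ⟨le_antisymm h1 h3, le_antisymm h2 h4⟩

end main

/-- **(G) the gauge step** -/
theorem seamGau : SeamGau := by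
  intro θ g q V Dr P ν own r0 B B' I0 J κ u F X w Tn To lam lo w1 R1 T1 bC Cl E s₀ e V' Zs H
  exact ob_of H

end Crest.Agent.R136.SGa480
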