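import Crest.Agent.R136.LadG1_697
import Crest.Agent.R136.Qgn3_887
import Crest.Agent.R136.PinS_851
import Crest.Agent.R136.CtxZ_830

/-!
# R136, thin branch (helper480): STAGES OF `quad` AND `lin`

* `Stage.monoZ` : more never dropped slots
* `rungJ`, `stage_J` : only the slots `J ⊆ JW j` of the rung `j` are dropped
* `DrR θ j` : slots of weight `> j` and slots of weight `j` with positive rate; `ZR θ j`
* **`stage_quad`**, **`stage_lin`** : the stages of the resonances `Res2`, `Res1` of a `ZW`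
-/

set_option autoImplicit false
set_option linter.unusedVariables false

open Finset Filter Topology

namespace Crest.Agent.R136.SZ480

open Crest.Agent.R138.Ex926
open Crest.Agent.R136.Net191
open Crest.Agent.R136.NetW191
open Crest.Agent.R136.PrW464
open Crest.Agent.R136.NatW697
open Crest.Agent.R136.LadW697
open Crest.Agent.R136.LadT830
open Crest.Agent.R136.LadG697
open Crest.Agent.R136.EvW938
open Crest.Agent.R136.AwJ774
open Crest.Agent.R136.K2S774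
open Crest.Agent.R136.K2A146
open Crest.Agent.R136.Qgn887
open Crest.Agent.R136.Dg219 (Walls mw)
open Crest.Agent.R136.Dg262 (X)

/-- **more never dropped slots** -/
theorem monoZ {m : ℕ} {W : Type*} [Fintype W] {Q : Walls (Fin m) W} {P : Set (Fin m → ℝ)}
    {ν own : (Fin m → ℝ) → ℝ} {K : ℝ} {r0 ρ : Fin m → ℝ} {Dl : (Fin m → ℝ) →ₗ[ℝ] ℝ}
    {Qd : Set (Fin m → ℝ)} {Z Z' Tie : Set (Fin m)} {kz : Fin m} {o : Fin m → ℝ} {τ : ℝ}
    {A : W → Prop} {Dr : Set (Fin m)} {lam lo : (Fin m → ℝ) → ℝ}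
    (H : Stage Q P ν own K r0 ρ Dl Qd Z Tie kz o τ A Dr lam lo) (h : Z ⊆ Z')
    (hD : ∀ i ∈ Z', i ∉ Dr) : Stage Q P ν own K r0 ρ Dl Qd Z' Tie kz o τ A Dr lam lo :=
  { jt := H.jt
    prf := H.prf
    noD := H.noD
    ZD := hD
    TD := H.TD
    zD := H.zD
    ind := fun c hc c' hc' e ⟨σ, hσ⟩ => H.ind c hc c' hc' e ⟨σ, fun i hi => hσ i (h hi)⟩
    rcd := H.rcd
    dmx := H.dmx
    ownr := H.ownr
    ownu := H.ownu }

/-- every active wall with a head in `J` contains a slot of `J` (rung `j`) -/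
def HeadOk (j : ℤ) (J : Finset (Fin 18)) : Prop :=
  ∀ k ∈ J, ∀ l ∈ mlW k, (∀ s ∈ l, alW s ≤ j) → ∃ s ∈ l, s ∈ J

instance (j : ℤ) (J : Finset (Fin 18)) : Decidable (HeadOk j J) := by
  unfold HeadOk; infer_instance

/-- **data of a rung which drops only `J ⊆ JW j`** -/
theorem rungJ {θ : Fin 3 → ℝ} {j : ℤ} (hj : 0 < j) {V : Set (Fin 18)}
    (hV : ∀ k ∈ V, 4 ≤ k ∧ (alW k : ℝ) < (j : ℝ)) {b : Fin 18 → ℝ}
    (hb : ∀ k, k ∉ DrW j → b k = btW θ k) {J : Finset (Fin 18)} (hJ : J ⊆ JW j)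
    (hh : HeadOk j J) :
    RungD QW (actW (DrW j)) (DrW j) {k | k = 1 ∨ (k ∈ JW j ∧ k ∉ J)} V 0 (QdW θ) (btW θ) (TW j)
      (saW j) b J := by
  have hj0 : (0 : ℝ) < (j : ℝ) := by exact_mod_cast hj
  have hJW : ∀ k, k ∈ JW j ↔ 4 ≤ k ∧ (alW k : ℝ) = (j : ℝ) := fun k => by
    rw [mem_JW]
    constructor
    · rintro ⟨h3, h4⟩; exact ⟨h3, by rw [h4]⟩
    · rintro ⟨h3, h4⟩; exact ⟨h3, by exact_mod_cast h4⟩
  have R := rungW (θ := θ) hj0 hV hb hJW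
  refine ⟨R.T0, fun i hi => R.TJ i (hJ hi), fun i hi hZ => ?_, R.natT, R.bρ, R.TT, R.qd, ?_, ?_,
    fun i hi => R.JT i (hJ hi), fun h => R.Jz (hJ h)⟩
  · have h1 : i ≠ 1 := fun h => hZ (Or.inl h)
    have h2 : i ∉ JW j := fun h => hZ (Or.inr ⟨h, hi⟩)
    exact R.TZ i h2 h1
  · intro w hw hwJ
    obtain ⟨l, hl, h2, -⟩ := wall_list w
    have h0 : ∀ i, alW i ≤ j ∨ i ∈ DrW j := by
      intro i
      by_cases h : alW i ≤ j
      · exact Or.inl h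
      · right
        refine ⟨?_, by exact_mod_cast not_le.1 h⟩
        by_contra h4
        simp only [alW, if_neg h4] at h
        exact h hj.le
    obtain ⟨s, hs, hsJ⟩ := hh w.1 hwJ l hl fun i hi => by
      rcases h0 i with h | h
      · exact h
      · exact absurd (hw.2 i h) ((co_ne h2 i).2 hi)
    exact ⟨s, hsJ, (co_ne h2 s).2 hs⟩
  · intro i hi hZ
    rcases hZ with h | h
    · have h4 := ((hJW i).1 (hJ hi)).1
      rw [h] at h4
      exact absurd h4 (by decide)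
    · exact h.2 hi

variable {P : Set (Fin 18 → ℝ)} {ν own : (Fin 18 → ℝ) → ℝ} {K : ℝ} {r0 : Fin 18 → ℝ}
  {θ : Fin 3 → ℝ} {g : ℝ} {q : Fin 3 → ℝ} {V T : Set (Fin 18)} {lam lo : (Fin 18 → ℝ) → ℝ}

/-- **one rung which drops only `J ⊆ JW j`** -/
theorem stage_J {j : ℤ} (hj : 0 < j) (hV : ∀ k ∈ V, 4 ≤ k ∧ (alW k : ℝ) < (j : ℝ))
    {J : Finset (Fin 18)} (hJ : J ⊆ JW j) (hh : HeadOk j J)
    (H : StW P ν own K r0 θ g q V j lam lo) {g' : ℝ} (hg : 0 < g')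
    (F : FlW P ν own K r0 θ g q V j (fun lam' => lam' (ind1 J) < 0) g') :
    ∃ lam2 lo2, Stage QW P ν own K r0 (btW θ) (DlW g q) (QdW θ) {k | k = 1 ∨ (k ∈ JW j ∧ k ∉ J)}
      V 0 (btW θ) 1 (actW (DrW j ∪ ↑J)) (DrW j ∪ ↑J) lam2 lo2 := by
  obtain ⟨b, hb, hF⟩ := F
  have hZ : ({1} : Set (Fin 18)) ⊆ {k | k = 1 ∨ (k ∈ JW j ∧ k ∉ J)} := fun k hk =>
    Or.inl (Set.mem_singleton_iff.1 hk)
  have hD : ∀ i ∈ {k : Fin 18 | k = 1 ∨ (k ∈ JW j ∧ k ∉ J)}, i ∉ DrW (j : ℝ) := by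
    rintro i (h | ⟨h, -⟩)
    · rw [h]; exact H.ZD 1 rfl
    · rintro ⟨-, h2⟩
      rw [(mem_JW.1 h).2] at h2
      exact lt_irrefl _ h2
  obtain ⟨lam2, lo2, h3⟩ := rungA (monoZ H hZ hD) (recW θ _ _) (rungJ hj hV hb hJ hh) hg
    (hF lam lo H)
  rw [A2_actW] at h3
  exact ⟨lam2, lo2, h3⟩

/-! ### dropped slots of a resonance -/

/-- slots of weight `j` with positive rate -/
def JR (θ : Fin 3 → ℝ) (j : ℤ) : Set (Fin 18) := {k | k ∈ JW j ∧ 0 < btW θ k}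

/-- **dropped slots of the stage of a resonance of the rung `j`** -/
def DrR (θ : Fin 3 → ℝ) (j : ℤ) : Set (Fin 18) := DrW j ∪ JR θ j

/-- **never dropped slots** -/
def ZR (θ : Fin 3 → ℝ) (j : ℤ) : Set (Fin 18) := {k | k = 1 ∨ (k ∈ JW j ∧ k ∉ DrR θ j)}

theorem ZR_eq {j : ℤ} {J : Finset (Fin 18)} (hJ : ∀ k, k ∈ J ↔ k ∈ JR θ j) :
    ({k | k = 1 ∨ (k ∈ JW j ∧ k ∉ J)} : Set (Fin 18)) = ZR θ j := by
  ext k
  simp only [ZR, Set.mem_ofPred_eq, DrR, Set.mem_union, not_or, hJ]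
  constructor
  · rintro (h | ⟨h1, h2⟩)
    · exact Or.inl h
    · refine Or.inr ⟨h1, ?_, h2⟩
      rintro ⟨-, h3⟩
      rw [(mem_JW.1 h1).2] at h3
      exact lt_irrefl _ h3
  · rintro (h | ⟨h1, -, h2⟩)
    · exact Or.inl h
    · exact Or.inr ⟨h1, h2⟩

theorem DrR_eq {j : ℤ} {J : Finset (Fin 18)} (hJ : ∀ k, k ∈ J ↔ k ∈ JR θ j) :
    DrW (j : ℝ) ∪ ↑J = DrR θ j := by
  unfold DrR
  congr 1
  ext k
  exact hJ k

/-- rates of the slots of one weight -/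
theorem btW_sub {k l : Fin 18} (hz : wz k = wz l) (hn : wn k = wn l) :
    btW θ k = btW θ l + ((wc l - wc k : ℤ) : ℝ) * θ 1 := by
  simp only [btW, grW, hz, hn]
  push_cast
  ring

/-- the stage of the rung `j`, `J = JR θ j` -/
theorem stage_R {j : ℤ} (hj : 0 < j) (hV : ∀ k ∈ V, 4 ≤ k ∧ (alW k : ℝ) < (j : ℝ))
    {J : Finset (Fin 18)} (hJ : ∀ k, k ∈ J ↔ k ∈ JR θ j) (hh : HeadOk j J)
    (H : StW P ν own K r0 θ g q V j lam lo) {g' : ℝ} (hg : 0 < g')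
    (F : FlW P ν own K r0 θ g q V j (fun lam' => lam' (ind1 J) < 0) g') :
    ∃ lam2 lo2, Stage QW P ν own K r0 (btW θ) (DlW g q) (QdW θ) (ZR θ j)
      V 0 (btW θ) 1 (actW (DrR θ j)) (DrR θ j) lam2 lo2 := by
  have := stage_J hj hV (fun k hk => ((hJ k).1 hk).1) hh H hg F
  rwa [ZR_eq hJ, DrR_eq hJ] at this

/-- nothing to drop -/
theorem stage_R0 {j : ℤ} (hJ : ∀ k, k ∉ JR θ j) (H : StW P ν own K r0 θ g q V j lam lo) :
    Stage QW P ν own K r0 (btW θ) (DlW g q) (QdW θ) (ZR θ j)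
      V 0 (btW θ) 1 (actW (DrR θ j)) (DrR θ j) lam lo := by
  have e : DrR θ j = DrW (j : ℝ) := by
    unfold DrR
    rw [Set.eq_empty_of_forall_notMem hJ, Set.union_empty]
  rw [e]
  refine monoZ H (fun k hk => Or.inl (Set.mem_singleton_iff.1 hk)) ?_
  rintro i (h | ⟨-, h⟩)
  · rw [h]; exact H.ZD 1 rfl
  · rwa [e] at h

end Crest.Agent.R136.SZ480
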