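import Crest.Agent.R136.Sa9_214
import Crest.Agent.R136.Crm_705

/-!
# R136 (one-level crude tilt), helper214: Step A for the models of marks (705's (N))

`crudeN` : for every level and every `C1 > 0` there is `C` such that every container function `κ`
which is at most `lam` near all lines of the sequence is at most `d ^ (-C) lam` on the model of the
mark (`KCl`) around the line, off a negligible set, if the mark is not tube-like.
-/

set_option autoImplicit false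
set_option linter.unusedVariables false
set_option linter.unusedSectionVars false

namespace Crest.Agent.R136.Sa214

open Finset Filter Topology

open Crest.Agent.R138.Ex926 Crest.Agent.R138.Dp76
open Crest.Agent.R138.Mk163 (zc zl rho alive own Negl)
open Crest.Agent.R138.MkRef627 (lc kc mem_alive card_class alive_mono)
open Crest.Agent.R138.ArgM163 (ev_const_mul ev_const)
open Crest.Agent.R136.MkA627 Crest.Agent.R136.Dia770
open Crest.Agent.R136.Sh605 Crest.Agent.R136.K4 Crest.Agent.R136.Ndc335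
open Crest.Agent.R136.Tl102 (StP pc)
open Crest.Agent.R136.Sa705 (vS stepA_num' vS_nonneg)
open Crest.Agent.R136.Cig705 (qaf qaf_isQ wcig cig_ShN0 in_cig)
open Crest.Agent.R136.Crp705 (Cl KCl mdW mdQ mdA md_thick md_thin)

section

variable {B : Base} {I : ℕ → Finset (ℕ × ℝ)} {L : ℕ → ℕ → Ln4} {r0 : ℕ → ℝ} {q : Fin 3 → ℝ}
    {G : Geo Plk4 (Fin 3)} {wr cr : Fin 3 → ℕ → ℝ}
    {lev : ℕ → ℚ → ℕ} {A : ℕ → ℝ} {c Λ : ℝ → ℝ} {τ : Fin 3 → ℝ → ℝ} {f : ℕ → ℚ → ℕ → ℤ → ℕ}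
    {b : ℕ → ℚ → ℕ → Plk4} {vm : ℕ → ℚ → ℝ} {w : Fin 3 → ℕ → ℚ → ℝ}

/-- **Step A, sequence form**, for a model `m` of the marks whose thickness is `Kf n ≤ d ^ (-K)` times
the thickness of the mark.  `C` depends on the exponents only. -/
theorem crude_gen2 {q : Fin 3 → ℝ} (hq : 0 < q 1 + q 2) (hq0 : 0 ≤ q 0) : ∃ C : ℝ, 1 ≤ C ∧
    ∀ {B : Base} {I : ℕ → Finset (ℕ × ℝ)} {L : ℕ → ℕ → Ln4} {r0 : ℕ → ℝ}
    {G : Geo Plk4 (Fin 3)} {wr cr : Fin 3 → ℕ → ℝ}
    {lev : ℕ → ℚ → ℕ} {A : ℕ → ℝ} {c Λ : ℝ → ℝ} {τ : Fin 3 → ℝ → ℝ} {f : ℕ → ℚ → ℕ → ℤ → ℕ}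
    {b : ℕ → ℚ → ℕ → Plk4} {vm : ℕ → ℚ → ℝ} {w : Fin 3 → ℕ → ℚ → ℝ},
    MkA B I G lev A c Λ τ f b vm w → GeoS G L r0 q wr cr → (∀ n, 0 < r0 n) →
    ∀ {v : ℚ}, 0 ≤ v → v ≤ 1 →
    (∀ (C : ℝ) (k : Fin 3), ∀ᶠ n in (U : Filter ℕ), wr k n ≤ B.d n ^ C * w k n v ∧
      w k n v ≤ B.d n ^ C * cr k n) →
    ∀ {K : ℝ}, 0 ≤ K → ∀ {Kf : ℕ → ℝ}, (∀ᶠ n in (U : Filter ℕ), 1 ≤ Kf n ∧ Kf n ≤ B.d n ^ (-K)) →
    ∀ (m : ℕ → Plk4 → Plk4) (Gd : ℕ → Plk4 → Prop),
    (∀ᶠ n in (U : Filter ℕ), ∀ J : ℤ, ∀ t ∈ alive (I n) (lev n v) J, ∀ S : Plk4,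
      S = b n v (f n v t J) → Gd n S →
      ShN (m n S).e (m n S).c (m n S).w (m n S).q (m n S).a (zl (lev n v) J) (rho (lev n v)) (r0 n) ∧
      (∀ T : Ln4, InSheet T S.e S.c S.w S.q S.a (zl (lev n v) J) (rho (lev n v)) →
        InSheet T (m n S).e (m n S).c (m n S).w (m n S).q (m n S).a (zl (lev n v) J)
          (rho (lev n v))) ∧
      (m n S).e = S.e ∧ (m n S).w 1 = S.w 1 ∧ (m n S).w 2 = S.w 2 ∧
        (m n S).a = Kf n * S.a) →
    ∀ {κ : ℕ → ℝ → V3 → ℝ}, (∀ n, IsQ (κ n)) → ∀ {lam : ℕ → ℝ}, (∀ n, 0 < lam n) →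
    (∀ᶠ n in (U : Filter ℕ), ∀ J : ℤ, ∀ t ∈ alive (I n) (lev n v) J, ∀ z, zl (lev n v) J ≤ z →
      z ≤ zl (lev n v) J + rho (lev n v) → ∀ s : ℝ, |s| ≤ 8 * (Kf n * w 0 n v) →
        |κ n z ((L n t).pos z + s • (b n v (f n v t J)).e 0)| ≤ lam n) →
    ∀ {ε : ℝ}, 0 < ε →
    Negl B I fun n x =>
      Gd n (b n v (f n v x.1 (zc (lev n v) x.2))) ∧
      B.d n ^ (-((ε + (1 + q 0) * K) * C)) * (m n (b n v (f n v x.1 (zc (lev n v) x.2)))).a ≤
        (m n (b n v (f n v x.1 (zc (lev n v) x.2)))).w 0 ∧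
      ¬ ClA (m n (b n v (f n v x.1 (zc (lev n v) x.2)))) (zl (lev n v) (zc (lev n v) x.2))
        (rho (lev n v)) (L n x.1) (κ n) (B.d n ^ (-((ε + (1 + q 0) * K) * C)) * lam n) := by
  classical
  obtain ⟨C, hC1, hC⟩ := stepA_num' hq
  refine ⟨C, hC1, ?_⟩
  intro B I L r0 G wr cr lev A c Λ τ f b vm w h hG hr0 v hv0 hv1 hR K hK Kf hKf m Gd hm κ hκ lam hlam
    hcap ε hε
  have hmark := mark_ev h hG hv0 hv1
  set δ : ℝ := ε + (1 + q 0) * K with hδ
  have hδ0 : 0 < δ := by rw [hδ]; positivity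
  have hεδ : ε ≤ δ := by
    rw [hδ]
    have : 0 ≤ (1 + q 0) * K := by positivity
    linarith
  obtain ⟨bad, hbadi⟩ : ∃ bad : ℕ → ℕ × ℤ → Prop, ∀ n o, bad n o ↔
      (Gd n (b n v (f n v o.1 o.2)) ∧
      B.d n ^ (-(δ * C)) * (m n (b n v (f n v o.1 o.2))).a ≤ (m n (b n v (f n v o.1 o.2))).w 0 ∧
      ¬ ClA (m n (b n v (f n v o.1 o.2))) (zl (lev n v) o.2)
        (rho (lev n v)) (L n o.1) (κ n) (B.d n ^ (-(δ * C)) * lam n)) :=
    ⟨_, fun _ _ => Iff.rfl⟩
  suffices hs : Negl B I fun n x => bad n (x.1, zc (lev n v) x.2) from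
    hs.mono (Eventually.of_forall fun n x _ hx => (hbadi _ _).2 hx)
  refine negl_class h hv0 hv1 bad hδ0 ?_
  filter_upwards [hmark, hm, hcap, h.near v hv0 hv1 ε hε, h.dmax v hv0 hv1 ε hε,
    ev_const B (C := 2) (by norm_num) hδ0, hR (δ * C) 1, hR (δ * C) 2, hR K 0, h.vpos v hv0 hv1, hKf]
    with n n1 n2 n3 n4 n5 n6 n7 n8 n9 n10 n11 J t0 ht0
  obtain ⟨hKf1, hKf2⟩ := n11
  have hKf0 : 0 < Kf n := by linarith
  have hdp := fun a => dpow_pos B n a
  have hamp : 0 < ampA B A c n v := mul_pos (h.Apos n) (hdp _)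
  set S := b n v (f n v t0 J) with hS
  set Cl := (alive (I n) (lev n v) J).filter fun s => f n v s J = f n v t0 J with hCl
  have hbS : ∀ s ∈ Cl, s ∈ alive (I n) (lev n v) J ∧ b n v (f n v s J) = S := by
    intro s hs
    have := mem_filter.1 hs
    exact ⟨this.1, by rw [hS, this.2]⟩
  have hCl0 : (0:ℝ) ≤ (Cl.card : ℝ) := Nat.cast_nonneg _
  by_cases hgd : Gd n S ∧ B.d n ^ (-(δ * C)) * (m n S).a ≤ (m n S).w 0
  swap
  · have hnn : (0:ℝ) ≤ B.d n ^ δ * (Cl.card : ℝ) := mul_nonneg (hdp δ).le hCl0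
    refine le_trans (le_of_eq ?_) hnn
    rw [Nat.cast_eq_zero, card_eq_zero, filter_eq_empty_iff]
    intro s hs hbad
    have hb := (hbS s hs).2
    rw [hbadi] at hbad
    simp only [hb] at hbad
    exact hgd ⟨hbad.1, hbad.2.1⟩
  obtain ⟨hg1, hg2⟩ := hgd
  obtain ⟨hmem, ⟨hadm, hw1⟩, hval, hwd0, hwd1, hwd2⟩ := n1 J t0 ht0
  rw [← hS] at hmem hadm hw1 hval hwd0 hwd1 hwd2
  obtain ⟨hShM, hInM, heM, hw1M, hw2M, haM⟩ := n2 J t0 ht0 S hS hg1
  set M := m n S with hM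
  have hrp := hr0 n
  have hap : 0 < S.a := by linarith [hadm.r0_le]
  have hw0 : 0 < S.w 0 := by linarith [hadm.a_le0]
  have hw2 : 0 < S.w 2 := by linarith [hadm.w0_le]
  have hw1p : 0 < S.w 1 := by linarith [hadm.w_le]
  have hMa : 0 < M.a := by rw [haM]; exact mul_pos hKf0 hap
  have hρ := rho_pos (lev n v)
  set X : ℝ := B.d n ^ (-δ) with hX
  have hXp : 0 < X := hdp _
  have hXC : X ^ C = B.d n ^ (-(δ * C)) := by
    rw [hX, ← Real.rpow_mul (B.pos n).le]; congr 1; ring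
  have hvM : vS (q 0) (q 1) (q 2) (rho (lev n v)) M.a (M.w 2) (M.w 1) ≤
      B.d n ^ (-((1 + q 0) * K)) * vm n v := by
    rw [hG.val] at hval
    have e3 : vS (q 0) (q 1) (q 2) (rho (lev n v)) M.a (M.w 2) (M.w 1) =
        (Kf n * Kf n ^ q 0) * vm n v := by
      rw [← hval, hw1M, hw2M, haM]
      unfold vS
      have e1 : Kf n * S.a / rho (lev n v) = Kf n * (S.a / rho (lev n v)) := by ring
      rw [e1, Real.mul_rpow hKf0.le (by positivity)]
      ring
    rw [e3]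
    refine mul_le_mul_of_nonneg_right ?_ n10.le
    have e2 : B.d n ^ (-((1 + q 0) * K)) = B.d n ^ (-K) * (B.d n ^ (-K)) ^ q 0 := by
      rw [← Real.rpow_mul (B.pos n).le, ← dpow_add]; congr 1; ring
    rw [e2]
    exact mul_le_mul hKf2 (Real.rpow_le_rpow hKf0.le hKf2 hq0) (Real.rpow_nonneg hKf0.le _)
      (hdp _).le
  have hfin := hC Cl (L n) M.e M.c M.w M.q M.a (zl (lev n v) J) (rho (lev n v)) (r0 n) (q 0)
    (ampA B A c n v) X (lam n) (κ n) hShM hMa hρ (by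
      intro u hu
      obtain ⟨hu1, hu2⟩ := hbS u hu
      have := (n1 J u hu1).1
      rw [hu2] at this
      exact hInM _ this) (hκ n) (hlam n) (by
      intro u hu z hz hz' s hs
      obtain ⟨hu1, hu2⟩ := hbS u hu
      have := n3 J u hu1 z hz hz' s (by rw [← hwd0, ← haM]; exact hs)
      rw [hu2] at this
      rw [heM]
      exact this) n6 (by rw [hXC]; exact hg2) hamp.le (by
      intro c' w' hS' h1 h2 h3 h4
      rw [hXC] at h1 h2
      have hkk : ∀ y z : ℝ, 0 ≤ z → y ≤ B.d n ^ (-(δ * C)) * z → B.d n ^ (δ * C) * y ≤ z := by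
        intro y z hz hy
        have h5 := mul_le_mul_of_nonneg_left hy (hdp (δ * C)).le
        rw [← mul_assoc, ← dpow_add, add_neg_cancel, Real.rpow_zero, one_mul] at h5
        exact h5
      have hw'0 : 0 ≤ w' 0 := hMa.le.trans hS'.a_le0
      have hw'2 : 0 ≤ w' 2 := hw'0.trans hS'.w0_le
      have hw'1 : 0 ≤ w' 1 := hw'2.trans hS'.w_le
      have hd1 : ∀ y : ℝ, 0 ≤ y → B.d n ^ (δ * C) * y ≤ y := by
        intro y hy
        have := dpow_le_one B n (a := δ * C) (by positivity)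
        have := mul_le_mul_of_nonneg_right this hy
        linarith
      have hcr1 : ∀ k : Fin 3, k ≠ 0 → w k n v ≤ B.d n ^ (δ * C) * cr k n → 0 < w k n v →
          w k n v ≤ cr k n := by
        intro k hk h5 h6
        have h7 : 0 < cr k n := by
          by_contra h8
          push Not at h8
          have := mul_nonpos_of_nonneg_of_nonpos (hdp (δ * C)).le h8
          linarith
        exact h5.trans (hd1 _ h7.le)
      have hadmT := hG.adm' n (lev n v) J ⟨J, M.e, c', w', M.q, M.a⟩ hS'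
        (h3.trans (hw1M.le.trans hw1)) (by
          intro k
          fin_cases k
          · refine ⟨?_, ?_⟩
            · show wr 0 n ≤ M.a
              rw [haM, hwd0]
              have h5 := n9.1
              have h6 : B.d n ^ K ≤ 1 := dpow_le_one B n hK
              have h8 : 0 < w 0 n v := by rw [← hwd0]; exact hap
              have h7 : B.d n ^ K * w 0 n v ≤ 1 * w 0 n v := mul_le_mul_of_nonneg_right h6 h8.le
              have h10 : 1 * w 0 n v ≤ Kf n * w 0 n v := mul_le_mul_of_nonneg_right hKf1 h8.le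
              linarith
            · show M.a ≤ cr 0 n
              rw [haM, hwd0]
              have h8 : 0 < w 0 n v := by rw [← hwd0]; exact hap
              have h5 := mul_le_mul_of_nonneg_left n9.2 (hdp (-K)).le
              rw [← mul_assoc, ← dpow_add, neg_add_cancel, Real.rpow_zero, one_mul] at h5
              exact (mul_le_mul_of_nonneg_right hKf2 h8.le).trans h5
          · refine ⟨?_, ?_⟩
            · show wr 1 n ≤ w' 1
              refine n7.1.trans ?_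
              rw [← hwd1, ← hw1M]
              exact hkk _ _ hw'1 h1
            · show w' 1 ≤ cr 1 n
              refine h3.trans ?_
              rw [hw1M, hwd1]
              exact hcr1 1 (by decide) n7.2 (by rw [← hwd1]; exact hw1p)
          · refine ⟨?_, ?_⟩
            · show wr 2 n ≤ w' 2
              refine n8.1.trans ?_
              rw [← hwd2, ← hw2M]
              exact hkk _ _ hw'2 h2
            · show w' 2 ≤ cr 2 n
              refine h4.trans ?_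
              rw [hw2M, hwd2]
              exact hcr1 2 (by decide) n8.2 (by rw [← hwd2]; exact hw2))
      have h5 := n5 J ⟨J, M.e, c', w', M.q, M.a⟩ hadmT
      rw [hG.val] at h5
      have h6 : ((Cl.filter fun u => InSheet (L n u) M.e c' w' M.q M.a (zl (lev n v) J)
          (rho (lev n v))).card : ℝ) ≤ (((alive (I n) (lev n v) J).filter fun t =>
            G.mem n (lev n v) J ⟨J, M.e, c', w', M.q, M.a⟩ t).card : ℝ) := by
        norm_cast
        refine card_le_card fun u hu => ?_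
        have hu' := mem_filter.1 hu
        exact mem_filter.2 ⟨(hbS u hu'.1).1, (hG.mem _ _ _ _ _).2 hu'.2⟩
      refine (h6.trans h5).trans ?_
      have h7 : B.d n ^ (-ε) ≤ X := by
        rw [hX]
        exact dpow_le B n (neg_le_neg hεδ)
      have h8 := vS_nonneg (q0 := q 0) (q1 := q 1) (q2 := q 2) hρ.le hMa.le hw'2 hw'1
      have h9 := mul_le_mul_of_nonneg_right h7 (mul_nonneg hamp.le h8)
      refine le_trans (le_of_eq ?_) h9
      unfold vS
      ring) (by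
      refine (mul_le_mul_of_nonneg_left hvM hamp.le).trans ?_
      have h5 := n4 J t0 ht0
      have h6 := mul_le_mul_of_nonneg_left h5 (hdp (-((1 + q 0) * K))).le
      have e1 : X = B.d n ^ (-((1 + q 0) * K)) * B.d n ^ (-ε) := by
        rw [hX, ← dpow_add]; congr 1; rw [hδ]; ring
      rw [e1]
      calc ampA B A c n v * (B.d n ^ (-((1 + q 0) * K)) * vm n v)
          = B.d n ^ (-((1 + q 0) * K)) * (ampA B A c n v * vm n v) := by ring
        _ ≤ _ := h6
        _ = _ := by ring)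
  obtain ⟨Bad, hBad1, hBad2, hBad3⟩ := hfin
  refine le_trans (b := (Bad.card : ℝ)) ?_ (hBad2.trans (le_of_eq ?_))
  · norm_cast
    refine card_le_card fun s hs => ?_
    have hs' := mem_filter.1 hs
    have hb := (hbS s hs'.1).2
    by_contra hnb
    have hh := (hbadi _ _).1 hs'.2
    simp only [hb] at hh
    refine hh.2.2 ?_
    intro z hz hz' Y g1 g2 g3 g4
    have := hBad3 s hs'.1 hnb z hz hz' Y g1 g2 g3 g4
    rw [hXC] at this
    exact this
  · rw [hX, Real.rpow_neg (B.pos n).le, div_inv_eq_mul, mul_comm]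


/-- **Step A for the models of marks** -/
theorem crudeN (hq : 0 < q 1 + q 2) (hq0 : 0 ≤ q 0) (h : MkA B I G lev A c Λ τ f b vm w)
    (hG : GeoS G L r0 q wr cr) (hr0 : ∀ n, 0 < r0 n) {v : ℚ} (hv0 : 0 ≤ v) (hv1 : v ≤ 1)
    (hR : ∀ (C : ℝ) (k : Fin 3), ∀ᶠ n in (U : Filter ℕ), wr k n ≤ B.d n ^ C * w k n v ∧
      w k n v ≤ B.d n ^ C * cr k n) {C1 : ℝ} (hC1 : 0 < C1) :
    ∃ C : ℝ, C1 ≤ C ∧ ∀ {κ : ℕ → ℝ → V3 → ℝ}, (∀ n, IsQ (κ n)) → ∀ {lam : ℕ → ℝ},
      (∀ n, 0 < lam n) →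
      (∀ᶠ n in (U : Filter ℕ), ∀ x ∈ I n, ∀ z, zl (lev n v) (zc (lev n v) x.2) ≤ z →
        z ≤ zl (lev n v) (zc (lev n v) x.2) + rho (lev n v) → ∀ s : ℝ,
        |s| ≤ 16 * B.d n ^ (-C1) * (b n v (f n v x.1 (zc (lev n v) x.2))).a →
          |κ n z ((L n x.1).pos z + s • (b n v (f n v x.1 (zc (lev n v) x.2))).e 0)| ≤ lam n) →
      Negl B I fun n x =>
        B.d n ^ (-C) * (b n v (f n v x.1 (zc (lev n v) x.2))).a ≤
          (b n v (f n v x.1 (zc (lev n v) x.2))).w 2 ∧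
        ¬ KCl (B.d n ^ (-C1)) (b n v (f n v x.1 (zc (lev n v) x.2))) (L n x.1) (κ n)
          (B.d n ^ (-C) * lam n) (zl (lev n v) (zc (lev n v) x.2)) (rho (lev n v)) := by
  obtain ⟨C0, hC01, hC⟩ := crude_gen2 (q := q) hq hq0
  have hC0 : 0 < C0 := by linarith
  have hK : 0 ≤ 2 * C1 := by linarith
  have hqK : 0 ≤ (1 + q 0) * (2 * C1) := by positivity
  have hmk := mark_ev h hG hv0 hv1
  have hKf : ∀ᶠ n in (U : Filter ℕ), 1 ≤ 2 * B.d n ^ (-C1) ∧
      2 * B.d n ^ (-C1) ≤ B.d n ^ (-(2 * C1)) := by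
    filter_upwards [ev_const B (C := 2) (by norm_num) hC1] with n hn
    have e1 : B.d n ^ (-(2 * C1)) = B.d n ^ (-C1) * B.d n ^ (-C1) := by
      rw [← dpow_add]; congr 1; ring
    rw [e1]
    have := dpow_pos B n (-C1)
    constructor
    · linarith
    · exact mul_le_mul_of_nonneg_right hn this.le
  refine ⟨(1 + (1 + q 0) * (2 * C1)) * C0 + 2 * C1 + C1, ?_, ?_⟩
  · have : 0 ≤ (1 + (1 + q 0) * (2 * C1)) * C0 := by positivity
    linarith
  intro κ hκ lam hlam hcap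
  have hcap' : ∀ᶠ n in (U : Filter ℕ), ∀ J : ℤ, ∀ t ∈ alive (I n) (lev n v) J, ∀ z,
      zl (lev n v) J ≤ z → z ≤ zl (lev n v) J + rho (lev n v) → ∀ s : ℝ,
      |s| ≤ 8 * (2 * B.d n ^ (-C1) * w 0 n v) →
        |κ n z ((L n t).pos z + s • (b n v (f n v t J)).e 0)| ≤ lam n := by
    filter_upwards [hcap, hmk] with n n1 n2 J t ht z hz hz' s hs
    obtain ⟨x, hx, hx1, hx2⟩ := mem_alive.1 ht
    obtain ⟨-, -, -, g0, -, -⟩ := n2 J t ht
    subst hx1
    subst hx2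
    refine n1 x hx z hz hz' s ?_
    rw [g0]
    linarith
  -- the thick marks
  have hthick := hC h hG hr0 hv0 hv1 hR (K := 0) le_rfl (Kf := fun _ => 1)
    (Eventually.of_forall fun n => ⟨le_rfl, by rw [neg_zero, Real.rpow_zero]⟩)
    (fun _ S => S) (fun _ _ => True) (by
    filter_upwards [hmk] with n hn J t ht S hS _
    obtain ⟨h1, ⟨h2, h3⟩, -⟩ := hn J t ht
    rw [← hS] at h2
    exact ⟨h2, fun T hT => hT, rfl, rfl, rfl, (one_mul _).symm⟩) hκ hlam (by
    filter_upwards [hcap', hKf, h.wpos 0 v hv0 hv1] with n hn hk hw J t ht z hz hz' s hs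
    refine hn J t ht z hz hz' s ?_
    refine hs.trans ?_
    have := mul_le_mul_of_nonneg_right hk.1 hw.le
    linarith) (ε := C1 / C0) (by positivity)
  have e1 : (C1 / C0 + (1 + q 0) * 0) * C0 = C1 := by field_simp; ring
  rw [e1] at hthick
  -- the thin marks
  have hthin := hC h hG hr0 hv0 hv1 hR hK hKf
    (fun n S => ⟨S.j, S.e, S.c, ![S.w 2, S.w 1, S.w 2], qaf S.e S.c, 2 * B.d n ^ (-C1) * S.a⟩)
    (fun n S => S.w 0 ≤ 2 * B.d n ^ (-C1) * S.a ∧ 2 * B.d n ^ (-C1) * S.a ≤ S.w 2) (by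
    filter_upwards [hmk, hKf] with n hn hk J t ht S hS hGd
    obtain ⟨h1, ⟨h2, h3⟩, -⟩ := hn J t ht
    rw [← hS] at h2
    have hap : 0 < S.a := by linarith [h2.r0_le, hr0 n]
    have hA : 0 < 2 * B.d n ^ (-C1) * S.a := mul_pos (by linarith [hk.1]) hap
    have hle : S.a ≤ 2 * B.d n ^ (-C1) * S.a := le_mul_of_one_le_left hap.le hk.1
    have hw : wcig S.w (2 * B.d n ^ (-C1) * S.a) = ![S.w 2, S.w 1, S.w 2] := by
      unfold wcig
      rw [max_eq_left hGd.2, max_eq_left (hGd.2.trans h2.w_le)]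
    have hT := (cig_ShN0 h2.ortho S.c (w := S.w) (z0 := zl (lev n v) J) (ρ := rho (lev n v))
      (r0 := r0 n) hA (h2.r0_le.trans hle) h2.w_le).toN
    rw [hw] at hT
    refine ⟨hT, fun T hT => ?_, rfl, rfl, rfl, rfl⟩
    have := in_cig hGd.1 h2.w0_le hT
    rw [hw] at this
    exact this) hκ hlam hcap' (ε := 1) one_pos
  refine (hthick.or hthin).mono ?_
  filter_upwards [hmk, hKf] with n hn hk x hx hbad
  have hal : x.1 ∈ alive (I n) (lev n v) (zc (lev n v) x.2) := mem_alive.2 ⟨x, hx, rfl, rfl⟩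
  obtain ⟨hmem, ⟨hadm, hw1⟩, -, -⟩ := hn _ _ hal
  set i := lev n v with hi
  set J := zc i x.2 with hJ
  set S := b n v (f n v x.1 J) with hS
  have hap : 0 < S.a := by linarith [hadm.r0_le, hr0 n]
  have hlam' := hlam n
  set C2 : ℝ := (1 + (1 + q 0) * (2 * C1)) * C0 with hC2
  have hC20 : 0 ≤ C2 := by positivity
  by_cases hth : B.d n ^ (-C1) * S.a ≤ S.w 0
  · left
    refine ⟨trivial, hth, fun hcl => hbad.2 ?_⟩
    intro z hz hz'
    obtain ⟨e2, e3, e4⟩ := md_thick hth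
    rw [e2, e3, e4]
    intro Y g1 g2 g3 g4
    refine (hcl z hz hz' Y g1 g2 g3 g4).trans ?_
    exact mul_le_mul_of_nonneg_right (dpow_le B n (by linarith)) hlam'.le
  · right
    obtain ⟨e2, e3, e4⟩ := md_thin hth
    push Not at hth
    have hC1p : 0 < B.d n ^ (-C1) * S.a := mul_pos (dpow_pos B n _) hap
    have hsm : B.d n ^ (-C2) * (2 * B.d n ^ (-C1) * S.a) ≤ S.w 2 := by
      refine le_trans ?_ hbad.1
      rw [← mul_assoc]
      refine mul_le_mul_of_nonneg_right ?_ hap.le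
      refine (mul_le_mul_of_nonneg_left hk.2 (dpow_pos B n _).le).trans ?_
      rw [← dpow_add]
      exact dpow_le B n (by linarith)
    have h1 : 1 ≤ B.d n ^ (-C2) := by
      rw [← Real.rpow_zero (B.d n)]
      exact dpow_le B n (by linarith)
    have hA0 : 0 ≤ 2 * B.d n ^ (-C1) * S.a := by linarith
    refine ⟨⟨by linarith, (le_mul_of_one_le_left hA0 h1).trans hsm⟩, hsm, fun hcl => hbad.2 ?_⟩
    intro z hz hz'
    rw [e2, e3, e4]
    intro Y g1 g2 g3 g4
    refine (hcl z hz hz' Y g1 g2 g3 g4).trans ?_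
    exact mul_le_mul_of_nonneg_right (dpow_le B n (by linarith)) hlam'.le

end

end Crest.Agent.R136.Sa214
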