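import Crest.Agent.R136.Sa1_705

/-!
# R136 (one-level crude tilt), helper705: words and labels

`Alg ev D1 D2 I`: an algebra of functions on the square `I × I` whose rows and columns are chain
systems.  The words `D1^a D2^b p` (`a, b ≤ 4`) at one point control `p` on the square; the set of points
where a word is small and one of its derivatives is not is covered by few squares of a grid.
-/

set_option autoImplicit false
set_option linter.unusedVariables false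

namespace Crest.Agent.R136.Sa705

open Set

/-- the side of the square -/
def Ib : Set ℝ := Icc (-(1 / 32)) (1 / 32)

/-- constant of the norm equivalence -/
noncomputable def CN : ℝ := 125 * (Real.exp 250 * (512 * 32000 ^ 4))

theorem one_le_CN : 1 ≤ CN := by
  have h : 1 ≤ Real.exp 250 := Real.one_le_exp (by norm_num)
  unfold CN
  nlinarith

theorem exp_le_of {t s : ℝ} (ht : t ∈ Ib) (hs : s ∈ Ib) : Real.exp (250 * |t - s|) ≤ Real.exp 250 := by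
  apply Real.exp_le_exp.2
  have : |t - s| ≤ 1 := by
    rw [abs_le]; constructor <;> linarith [ht.1, ht.2, hs.1, hs.2]
  linarith

/-- **norm equivalence on a row** -/
theorem Sys.norm {f : ℕ → ℝ → ℝ} (h : Sys f Ib) {M : ℝ} (hM : ∀ t ∈ Ib, |f 0 t| ≤ M) :
    ∀ t ∈ Ib, ∀ k, k ≤ 5 → |f k t| ≤ CN * M := by
  have hz : (0 : ℝ) ∈ Ib := ⟨by norm_num, by norm_num⟩
  have hM0 : 0 ≤ M := (abs_nonneg _).trans (hM 0 hz)
  have hsub : Icc (-(1 / 32) : ℝ) (-(1 / 32) + 1 / 2000) ⊆ Ib :=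
    Icc_subset_Icc le_rfl (by norm_num)
  have h' := h.mono hsub
  set t : ℕ → ℝ := fun i => -(1 / 32) + i / 32000 with ht
  have hti : ∀ i < 16, t i ∈ Icc (-(1 / 32) : ℝ) (-(1 / 32) + 1 / 2000) := by
    intro i hi
    have h1 : (0 : ℝ) ≤ i := Nat.cast_nonneg i
    have h2 : (i : ℝ) ≤ 16 := by exact_mod_cast hi.le
    simp only [ht]
    constructor <;> linarith
  have hx : (-(1 / 32) : ℝ) ∈ Icc (-(1 / 32) : ℝ) (-(1 / 32) + 1 / 2000) :=
    ⟨le_rfl, by norm_num⟩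
  have key := pts (δ := 1 / 32000) (lam := M) h' (by norm_num) (by norm_num) (by norm_num) hti
    (fun i hi => by simp only [ht]; push_cast; linarith) (fun i hi => hM _ (hsub (hti i hi))) hx
  intro s hs
  have h1 := gron (B := 512 * M / (1 / 32000) ^ 4) h (hsub hx) hs key
  have h4 : ∀ k, k ≤ 4 → |f k s| ≤ Real.exp 250 * (512 * M / (1 / 32000) ^ 4) := by
    intro k hk
    refine (h1 k hk).trans ?_
    exact mul_le_mul_of_nonneg_right (exp_le_of hs (hsub hx)) (by positivity)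
  have e : Real.exp 250 * (512 * M / (1 / 32000) ^ 4) * 125 = CN * M := by
    unfold CN; ring
  intro k hk
  have hpos : 0 ≤ Real.exp 250 * (512 * M / (1 / 32000) ^ 4) := by positivity
  rcases Nat.lt_or_ge k 5 with hk4 | hk5
  · have := h4 k (by omega)
    linarith
  · have e5 : k = 4 + 1 := by omega
    rw [e5]
    have := h.next hs h4 (k := 4) le_rfl
    linarith

variable {V : Type} {ev : V → ℝ → ℝ → ℝ} {D1 D2 : V → V}

/-- swap of the coordinates -/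
theorem Alg.swap (A : Alg ev D1 D2 Ib) : Alg (fun p x1 x2 => ev p x2 x1) D2 D1 Ib where
  row := fun p x2 h => A.col p x2 h
  col := fun p x1 h => A.row p x1 h

/-- the first derivatives are bounded -/
theorem Alg.d1 (A : Alg ev D1 D2 Ib) {p : V} {M : ℝ}
    (hM : ∀ x1 ∈ Ib, ∀ x2 ∈ Ib, |ev p x1 x2| ≤ M) :
    ∀ x1 ∈ Ib, ∀ x2 ∈ Ib, |ev (D1 p) x1 x2| ≤ CN * M := fun x1 h1 x2 h2 =>
  (A.row p x2 h2).norm (fun t ht => hM t ht x2 h2) x1 h1 1 (by norm_num)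

theorem Alg.d2 (A : Alg ev D1 D2 Ib) {p : V} {M : ℝ}
    (hM : ∀ x1 ∈ Ib, ∀ x2 ∈ Ib, |ev p x1 x2| ≤ M) :
    ∀ x1 ∈ Ib, ∀ x2 ∈ Ib, |ev (D2 p) x1 x2| ≤ CN * M := fun x1 h1 x2 h2 =>
  (A.col p x1 h1).norm (fun t ht => hM x1 h1 t ht) x2 h2 1 (by norm_num)

/-- iterated derivatives -/
theorem Alg.d1i (A : Alg ev D1 D2 Ib) {p : V} {M : ℝ}
    (hM : ∀ x1 ∈ Ib, ∀ x2 ∈ Ib, |ev p x1 x2| ≤ M) (a : ℕ) :
    ∀ x1 ∈ Ib, ∀ x2 ∈ Ib, |ev (D1^[a] p) x1 x2| ≤ CN ^ a * M := by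
  induction a with
  | zero => simpa using hM
  | succ a ih =>
    rw [Function.iterate_succ_apply', pow_succ, mul_comm (CN ^ a), mul_assoc]
    exact A.d1 ih

theorem Alg.d2i (A : Alg ev D1 D2 Ib) {p : V} {M : ℝ}
    (hM : ∀ x1 ∈ Ib, ∀ x2 ∈ Ib, |ev p x1 x2| ≤ M) (a : ℕ) :
    ∀ x1 ∈ Ib, ∀ x2 ∈ Ib, |ev (D2^[a] p) x1 x2| ≤ CN ^ a * M := by
  induction a with
  | zero => simpa using hM
  | succ a ih =>
    rw [Function.iterate_succ_apply', pow_succ, mul_comm (CN ^ a), mul_assoc]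
    exact A.d2 ih

/-- Lipschitz bound along a row -/
theorem Sys.lip {f : ℕ → ℝ → ℝ} (h : Sys f Ib) {L : ℝ} {k : ℕ} (hk : k ≤ 4)
    (hL : ∀ t ∈ Ib, |f (k + 1) t| ≤ L) {s t : ℝ} (hs : s ∈ Ib) (ht : t ∈ Ib) :
    |f k t - f k s| ≤ 2 * L * |t - s| := by
  choose! θ hθ1 hθ2 hθ3 using h.der
  have := (convex_Icc (-(1 / 32) : ℝ) (1 / 32)).norm_image_sub_le_of_norm_hasDerivWithin_le
    (f := f k) (f' := fun y => f (k + 1) y / θ k y) (C := 2 * L) (fun y hy => hθ3 k hk y hy)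
    (fun y hy => by
      have h2 := hθ1 k hk y hy
      rw [Real.norm_eq_abs, abs_div, abs_of_pos (by linarith : 0 < θ k y),
        div_le_iff₀ (by linarith)]
      have h3 := hL y hy
      have h4 : 0 ≤ L := (abs_nonneg _).trans h3
      nlinarith) hs ht
  rwa [Real.norm_eq_abs, Real.norm_eq_abs] at this

/-- slope bound along a row -/
theorem Sys.slope {f : ℕ → ℝ → ℝ} (h : Sys f Ib) {L η : ℝ}
    (hL : ∀ t ∈ Ib, |f 2 t| ≤ L) (hη : 0 < η) {s t : ℝ} (hs : s ∈ Ib) (ht : t ∈ Ib)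
    (h1 : η ≤ |f 1 s|) (hst : 4 * L * |t - s| ≤ η) : η / 4 * |t - s| ≤ |f 0 t - f 0 s| := by
  rcases eq_or_ne s t with hst' | hst'
  · subst hst'; simp
  wlog hlt : s < t generalizing f s t with H
  · -- reflect
    have hlt' : t < s := lt_of_le_of_ne (not_lt.1 hlt) (Ne.symm hst')
    have h' : Sys (fun k t => (-1) ^ k * f k (-t)) Ib := by
      have := h.neg
      have e : Icc (-(1 / 32 : ℝ)) (-(-(1 / 32))) = Ib := by unfold Ib; norm_num
      rwa [e] at this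
    have hn : ∀ x ∈ Ib, -x ∈ Ib := fun x hx => ⟨by linarith [hx.2], by linarith [hx.1]⟩
    have := H (f := fun k t => (-1) ^ k * f k (-t)) h' (fun x hx => by
      simp only [abs_mul, abs_pow, abs_neg, abs_one, one_pow, one_mul]
      exact hL _ (hn x hx)) (hn s hs) (hn t ht) (by
      simp only [abs_mul, abs_pow, abs_neg, abs_one, one_pow, one_mul, neg_neg]
      exact h1) (by
      have e : -t - -s = -(t - s) := by ring
      rw [e, abs_neg]; exact hst) (fun e => hst' (neg_injective e)) (by linarith)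
    simp only [pow_zero, one_mul, neg_neg] at this
    have e : -t - -s = -(t - s) := by ring
    rwa [e, abs_neg] at this
  · choose! θ hθ1 hθ2 hθ3 using h.der
    have hsub : Icc s t ⊆ Ib := Icc_subset_Icc hs.1 ht.2
    obtain ⟨x, hx, hx'⟩ := exists_hasDerivAt_eq_slope (f 0) (fun x => f 1 x / θ 0 x) hlt
      (fun x hx => ((hθ3 0 (by norm_num) x (hsub hx)).continuousWithinAt).mono hsub)
      (fun x hx => (hθ3 0 (by norm_num) x (hsub (Ioo_subset_Icc_self hx))).hasDerivAt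
        (Icc_mem_nhds (lt_of_le_of_lt hs.1 hx.1) (lt_of_lt_of_le hx.2 ht.2)))
    have hxI : x ∈ Ib := hsub (Ioo_subset_Icc_self hx)
    have hd : 0 < t - s := by linarith
    have h2 := h.lip (k := 1) (by norm_num) hL hs hxI
    have hL0 : 0 ≤ L := (abs_nonneg _).trans (hL s hs)
    have h3 : |x - s| ≤ |t - s| := by
      rw [abs_of_pos (by linarith [hx.1]), abs_of_pos hd]; linarith [hx.2]
    have h4 : 2 * L * |x - s| ≤ η / 2 := by
      have := mul_le_mul_of_nonneg_left h3 (by linarith : 0 ≤ 2 * L)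
      linarith
    have h5 : η / 2 ≤ |f 1 x| := by
      have := abs_sub_abs_le_abs_sub (f 1 s) (f 1 x)
      rw [abs_sub_comm] at h2
      linarith
    have hθ := hθ1 0 (by norm_num) x hxI
    have hθ' := hθ2 0 (by norm_num) x hxI
    have h6 : η / 4 ≤ |f 1 x / θ 0 x| := by
      rw [abs_div, abs_of_pos (by linarith : 0 < θ 0 x), le_div_iff₀ (by linarith)]
      nlinarith
    have h7 : f 0 t - f 0 s = (f 1 x / θ 0 x) * (t - s) := by
      have : f 1 x / θ 0 x = (f 0 t - f 0 s) / (t - s) := hx'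
      rw [this, div_mul_cancel₀ _ hd.ne']
    rw [h7, abs_mul]
    exact mul_le_mul_of_nonneg_right h6 (abs_nonneg _)

/-- **one point controls the square** -/
theorem Alg.ctrl (A : Alg ev D1 D2 Ib) {p : V} {B y1 y2 : ℝ} (h1 : y1 ∈ Ib) (h2 : y2 ∈ Ib)
    (hB : ∀ a ≤ 4, ∀ b ≤ 4, |ev (D1^[a] (D2^[b] p)) y1 y2| ≤ B) :
    ∀ x1 ∈ Ib, ∀ x2 ∈ Ib, |ev p x1 x2| ≤ Real.exp 250 * (Real.exp 250 * B) := by
  intro x1 hx1 x2 hx2
  have hB0 : 0 ≤ B := (abs_nonneg _).trans (hB 0 (by norm_num) 0 (by norm_num))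
  have step1 : ∀ b ≤ 4, |ev (D2^[b] p) x1 y2| ≤ Real.exp 250 * B := by
    intro b hb
    have := gron (A.row (D2^[b] p) y2 h2) h1 hx1 (fun k hk => hB k hk b hb) 0 (by norm_num)
    exact this.trans (mul_le_mul_of_nonneg_right (exp_le_of hx1 h1) hB0)
  have := gron (A.col p x1 hx1) h2 hx2 step1 0 (by norm_num)
  exact this.trans (mul_le_mul_of_nonneg_right (exp_le_of hx2 h2) (by positivity))

/-! ### labels -/

/-- label of a point -/
noncomputable def lb (δ : ℝ) (x1 x2 : ℝ) : ℤ × ℤ := (⌊x1 / δ⌋, ⌊x2 / δ⌋)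

theorem card_Icc_le {x y : ℝ} (h : x ≤ y) : ((Finset.Icc ⌊x⌋ ⌊y⌋).card : ℝ) ≤ y - x + 2 := by
  rw [Int.card_Icc]
  have h1 : ⌊x⌋ ≤ ⌊y⌋ := Int.floor_le_floor h
  have h2 : (((⌊y⌋ + 1 - ⌊x⌋).toNat : ℕ) : ℝ) = ((⌊y⌋ + 1 - ⌊x⌋ : ℤ) : ℝ) := by
    exact_mod_cast congrArg (fun z : ℤ => (z : ℝ)) (Int.toNat_of_nonneg (by omega))
  rw [h2]
  push_cast
  have a1 := Int.floor_le y
  have a2 := Int.lt_floor_add_one x
  linarith

open Classical in
/-- **labels of the points where `g` is small and `D1 g` is not** -/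
theorem Alg.cov1 (A : Alg ev D1 D2 Ib) {g : V} {L η η' δ : ℝ} (hη' : 0 < η') (hηL : η' ≤ L)
    (hδ : 0 < δ) (hδ1 : δ ≤ 1) (hη : η ≤ L * δ)
    (hL2 : ∀ x1 ∈ Ib, ∀ x2 ∈ Ib, |ev (D2 g) x1 x2| ≤ L)
    (hL11 : ∀ x1 ∈ Ib, ∀ x2 ∈ Ib, |ev (D1 (D1 g)) x1 x2| ≤ L) :
    ∃ Λ : Finset (ℤ × ℤ), (Λ.card : ℝ) ≤ 2000 * (L / η') ^ 2 / δ ∧
      ∀ x1 ∈ Ib, ∀ x2 ∈ Ib, |ev g x1 x2| ≤ η → η' ≤ |ev (D1 g) x1 x2| → lb δ x1 x2 ∈ Λ := by
  have hL : 0 < L := hη'.trans_le hηL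
  set r1 := η' / (4 * L) with hr1
  have hr0 : 0 < r1 := by positivity
  have hr1' : r1 ≤ 1 := by rw [hr1, div_le_one (by positivity)]; linarith
  -- range of the labels
  set S : Finset ℤ := Finset.Icc ⌊(-(1 / 32) : ℝ) / δ⌋ ⌊(1 / 32 : ℝ) / δ⌋ with hS
  have hSm : ∀ x ∈ Ib, ⌊x / δ⌋ ∈ S := by
    intro x hx
    rw [hS, Finset.mem_Icc]
    exact ⟨Int.floor_le_floor (div_le_div_of_nonneg_right hx.1 hδ.le),
      Int.floor_le_floor (div_le_div_of_nonneg_right hx.2 hδ.le)⟩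
  set Tb : Finset ℤ := Finset.Icc ⌊(-(1 / 32) : ℝ) / r1⌋ ⌊(1 / 32 : ℝ) / r1⌋ with hTb
  have hTm : ∀ x ∈ Ib, ⌊x / r1⌋ ∈ Tb := by
    intro x hx
    rw [hTb, Finset.mem_Icc]
    exact ⟨Int.floor_le_floor (div_le_div_of_nonneg_right hx.1 hr0.le),
      Int.floor_le_floor (div_le_div_of_nonneg_right hx.2 hr0.le)⟩
  set E : ℝ → ℝ → Prop := fun x1 x2 => x1 ∈ Ib ∧ x2 ∈ Ib ∧ |ev g x1 x2| ≤ η ∧
    η' ≤ |ev (D1 g) x1 x2| with hE
  set Λ : Finset (ℤ × ℤ) := (S ×ˢ S).filter fun l => ∃ x1 x2, E x1 x2 ∧ lb δ x1 x2 = l with hΛ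
  refine ⟨Λ, ?_, fun x1 h1 x2 h2 h3 h4 => ?_⟩
  swap
  · rw [hΛ, Finset.mem_filter, Finset.mem_product]
    exact ⟨⟨hSm x1 h1, hSm x2 h2⟩, x1, x2, ⟨h1, h2, h3, h4⟩, rfl⟩
  -- two points in the same strip and block
  have two : ∀ t x t' x', E t x → E t' x' → |x - x'| ≤ δ → |t - t'| ≤ r1 →
      |t' - t| ≤ 16 * L * δ / η' := by
    rintro t x t' x' ⟨a1, a2, a3, a4⟩ ⟨b1, b2, b3, b4⟩ hx ht
    have hrow := A.row g x a2
    have h1 := hrow.slope (L := L) (η := η') (fun y hy => hL11 y hy x a2) hη' a1 b1 a4 (by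
      rw [abs_sub_comm] at ht
      have := mul_le_mul_of_nonneg_left ht (by positivity : 0 ≤ 4 * L)
      refine this.trans (le_of_eq ?_)
      rw [hr1]; field_simp)
    have h2 := (A.col g t' b1).lip (k := 0) (by norm_num) (fun y hy => hL2 t' b1 y hy) b2 a2
    have h3 : |ev g t' x| ≤ η + 2 * L * δ := by
      have h4 : |ev g t' x - ev g t' x'| ≤ 2 * L * |x - x'| := h2
      have h5 := mul_le_mul_of_nonneg_left hx (by positivity : 0 ≤ 2 * L)
      have h6 := abs_add_le (ev g t' x - ev g t' x') (ev g t' x')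
      rw [sub_add_cancel] at h6
      linarith
    have h4 : |ev g t' x - ev g t x| ≤ 4 * L * δ := by
      refine (abs_sub _ _).trans ?_
      linarith
    have h5 : η' / 4 * |t' - t| ≤ 4 * L * δ := h1.trans h4
    rw [le_div_iff₀ hη']
    linarith
  -- choose points
  have hch : ∀ l : ℤ × ℤ, ∃ P : ℝ × ℝ, l ∈ Λ → E P.1 P.2 ∧ lb δ P.1 P.2 = l := by
    intro l
    by_cases hl : l ∈ Λ
    · obtain ⟨-, x1, x2, h1, h2⟩ := Finset.mem_filter.1 hl
      exact ⟨(x1, x2), fun _ => ⟨h1, h2⟩⟩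
    · exact ⟨(0, 0), fun h => absurd h hl⟩
  choose P hP using hch
  set Φ : ℤ × ℤ → ℤ × ℤ := fun l => (l.2, ⌊(P l).1 / r1⌋) with hΦ
  have hmap : ∀ l ∈ Λ, Φ l ∈ S ×ˢ Tb := by
    intro l hl
    obtain ⟨h1, -⟩ := hP l hl
    rw [Finset.mem_product]
    exact ⟨(Finset.mem_product.1 (Finset.mem_filter.1 hl).1).2, hTm _ h1.1⟩
  have hK : 1 ≤ L / η' := by rw [le_div_iff₀ hη']; linarith
  have hfib : ∀ m ∈ S ×ˢ Tb, (((Λ.filter fun l => Φ l = m).card : ℕ) : ℝ) ≤ 34 * (L / η') := by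
    intro m _
    rcases (Λ.filter fun l => Φ l = m).eq_empty_or_nonempty with he | ⟨l0, hl0⟩
    · rw [he, Finset.card_empty]; push_cast; positivity
    obtain ⟨hl0', hm0⟩ := Finset.mem_filter.1 hl0
    obtain ⟨e0, p0⟩ := hP l0 hl0'
    set c := 16 * L * δ / η' with hc
    have hc0 : 0 ≤ c := by positivity
    have hinj : (Λ.filter fun l => Φ l = m).card ≤
        (Finset.Icc ⌊((P l0).1 - c) / δ⌋ ⌊((P l0).1 + c) / δ⌋).card := by
      refine Finset.card_le_card_of_injOn Prod.fst (fun l hl => ?_) (fun l hl l' hl' h => ?_)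
      · obtain ⟨hl1, hm1⟩ := Finset.mem_filter.1 (Finset.mem_coe.1 hl)
        obtain ⟨e1, p1⟩ := hP l hl1
        have hΦe : Φ l = Φ l0 := hm1.trans hm0.symm
        simp only [hΦ, Prod.mk.injEq] at hΦe
        have q1 : ⌊(P l).2 / δ⌋ = ⌊(P l0).2 / δ⌋ := by
          have r1 := congrArg Prod.snd p1
          have r0 := congrArg Prod.snd p0
          simp only [lb] at r1 r0
          rw [r1, r0]; exact hΦe.1
        have d1 : |(P l).2 - (P l0).2| ≤ δ := by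
          have h2 := Int.abs_sub_lt_one_of_floor_eq_floor q1
          rw [← sub_div, abs_div, abs_of_pos hδ, div_lt_one hδ] at h2
          exact h2.le
        have d2 : |(P l).1 - (P l0).1| ≤ r1 := by
          have h2 := Int.abs_sub_lt_one_of_floor_eq_floor hΦe.2
          rw [← sub_div, abs_div, abs_of_pos hr0, div_lt_one hr0] at h2
          exact h2.le
        have d3 := two _ _ _ _ e0 e1 (by rw [abs_sub_comm]; exact d1)
          (by rw [abs_sub_comm]; exact d2)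
        rw [abs_le] at d3
        have f1 : l.1 = ⌊(P l).1 / δ⌋ := (congrArg Prod.fst p1).symm
        rw [Finset.mem_coe, Finset.mem_Icc, f1]
        exact ⟨Int.floor_le_floor (div_le_div_of_nonneg_right (by linarith [d3.1]) hδ.le),
          Int.floor_le_floor (div_le_div_of_nonneg_right (by linarith [d3.2]) hδ.le)⟩
      · obtain ⟨hl1, hm1⟩ := Finset.mem_filter.1 (Finset.mem_coe.1 hl)
        obtain ⟨hl2, hm2⟩ := Finset.mem_filter.1 (Finset.mem_coe.1 hl')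
        have hΦe : Φ l = Φ l' := hm1.trans hm2.symm
        simp only [hΦ, Prod.mk.injEq] at hΦe
        exact Prod.ext h hΦe.1
    have h1 : (((Λ.filter fun l => Φ l = m).card : ℕ) : ℝ) ≤
        ((P l0).1 + c) / δ - ((P l0).1 - c) / δ + 2 :=
      (by exact_mod_cast hinj : (((Λ.filter fun l => Φ l = m).card : ℕ) : ℝ) ≤
        ((Finset.Icc ⌊((P l0).1 - c) / δ⌋ ⌊((P l0).1 + c) / δ⌋).card : ℝ)).trans
        (card_Icc_le (div_le_div_of_nonneg_right (by linarith) hδ.le))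
    refine h1.trans ?_
    have e : ((P l0).1 + c) / δ - ((P l0).1 - c) / δ = 2 * (c / δ) := by ring
    have e2 : c / δ = 16 * (L / η') := by rw [hc]; field_simp
    rw [e, e2]
    linarith
  have hSc : (S.card : ℝ) ≤ 3 / δ := by
    have := card_Icc_le (x := (-(1 / 32) : ℝ) / δ) (y := (1 / 32 : ℝ) / δ)
      (div_le_div_of_nonneg_right (by norm_num) hδ.le)
    refine this.trans ?_
    have h1 : 1 ≤ 1 / δ := by rw [le_div_iff₀ hδ]; linarith
    have e : (1 / 32 : ℝ) / δ - -(1 / 32) / δ = 1 / 16 * (1 / δ) := by ring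
    have e2 : 3 / δ = 3 * (1 / δ) := by ring
    rw [e, e2]
    linarith
  have hTc : (Tb.card : ℝ) ≤ 12 * (L / η') := by
    have := card_Icc_le (x := (-(1 / 32) : ℝ) / r1) (y := (1 / 32 : ℝ) / r1)
      (div_le_div_of_nonneg_right (by norm_num) hr0.le)
    refine this.trans ?_
    have e : (1 / 32 : ℝ) / r1 - -(1 / 32) / r1 = 1 / 16 * (1 / r1) := by ring
    have e2 : 1 / r1 = 4 * (L / η') := by rw [hr1]; field_simp
    rw [e, e2]
    linarith
  have h1 : Λ.card = ∑ m ∈ S ×ˢ Tb, (Λ.filter fun l => Φ l = m).card :=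
    Finset.card_eq_sum_card_fiberwise fun l hl => hmap l (Finset.mem_coe.1 hl)
  have h2 : (Λ.card : ℝ) ≤ ((S ×ˢ Tb).card : ℝ) * (34 * (L / η')) := by
    rw [h1]
    push_cast
    calc _ ≤ ∑ m ∈ S ×ˢ Tb, 34 * (L / η') := Finset.sum_le_sum hfib
      _ = _ := by rw [Finset.sum_const, nsmul_eq_mul]
  rw [Finset.card_product] at h2
  push_cast at h2
  refine h2.trans ?_
  have hS0 : (0 : ℝ) ≤ S.card := Nat.cast_nonneg _
  have hT0 : (0 : ℝ) ≤ Tb.card := Nat.cast_nonneg _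
  have hK0 : 0 ≤ L / η' := by linarith
  calc (S.card : ℝ) * Tb.card * (34 * (L / η')) ≤ 3 / δ * (12 * (L / η')) * (34 * (L / η')) := by
        gcongr
    _ = 1224 * (L / η') ^ 2 / δ := by ring
    _ ≤ _ := by gcongr; norm_num

/-- labels of the points where `g` is small and `D2 g` is not -/
theorem Alg.cov2 (A : Alg ev D1 D2 Ib) {g : V} {L η η' δ : ℝ} (hη' : 0 < η') (hηL : η' ≤ L)
    (hδ : 0 < δ) (hδ1 : δ ≤ 1) (hη : η ≤ L * δ)
    (hL1 : ∀ x1 ∈ Ib, ∀ x2 ∈ Ib, |ev (D1 g) x1 x2| ≤ L)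
    (hL22 : ∀ x1 ∈ Ib, ∀ x2 ∈ Ib, |ev (D2 (D2 g)) x1 x2| ≤ L) :
    ∃ Λ : Finset (ℤ × ℤ), (Λ.card : ℝ) ≤ 2000 * (L / η') ^ 2 / δ ∧
      ∀ x1 ∈ Ib, ∀ x2 ∈ Ib, |ev g x1 x2| ≤ η → η' ≤ |ev (D2 g) x1 x2| → lb δ x1 x2 ∈ Λ := by
  obtain ⟨Λ, h1, h2⟩ := A.swap.cov1 hη' hηL hδ hδ1 hη (fun x1 a x2 b => hL1 x2 b x1 a)
    (fun x1 a x2 b => hL22 x2 b x1 a)
  refine ⟨Λ.map ⟨Prod.swap, Prod.swap_injective⟩, by rw [Finset.card_map]; exact h1,
    fun x1 a x2 b c d => ?_⟩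
  rw [Finset.mem_map]
  exact ⟨lb δ x2 x1, h2 x2 b x1 a c d, rfl⟩

/-- one point controls the square, chain form -/
theorem Alg.chain (A : Alg ev D1 D2 Ib) {p : V} {M y1 y2 : ℝ} {δ : ℕ → ℝ} (h1 : y1 ∈ Ib)
    (h2 : y2 ∈ Ib) (hM : 0 < M) (hδm : ∀ j < 8, δ j ≤ δ (j + 1))
    (hδ8 : Real.exp 250 * (Real.exp 250 * δ 8) < 1 / 2)
    (hP : ∃ x1 ∈ Ib, ∃ x2 ∈ Ib, M / 2 ≤ |ev p x1 x2|) (h0 : |ev p y1 y2| ≤ δ 0 * M) :
    ∃ a ≤ 4, ∃ b ≤ 4, a + b < 8 ∧ |ev (D1^[a] (D2^[b] p)) y1 y2| ≤ δ (a + b) * M ∧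
      (δ (a + b + 1) * M ≤ |ev (D1 (D1^[a] (D2^[b] p))) y1 y2| ∨
        (a = 0 ∧ δ (b + 1) * M ≤ |ev (D2 (D2^[b] p)) y1 y2|)) := by
  by_contra hcon
  push Not at hcon
  have hcol : ∀ b ≤ 4, |ev (D2^[b] p) y1 y2| ≤ δ b * M := by
    intro b
    induction b with
    | zero => intro _; simpa using h0
    | succ b ih =>
      intro hb
      have h3 := ih (by omega)
      obtain ⟨-, h4⟩ := hcon 0 (by norm_num) b (by omega) (by omega) (by simpa using h3)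
      have h5 := h4 rfl
      rw [Function.iterate_succ_apply']
      exact h5.le
  have hall : ∀ b ≤ 4, ∀ a ≤ 4, |ev (D1^[a] (D2^[b] p)) y1 y2| ≤ δ (a + b) * M := by
    intro b hb a
    induction a with
    | zero => intro _; simpa using hcol b hb
    | succ a ih =>
      intro ha
      have h3 := ih (by omega)
      obtain ⟨h4, -⟩ := hcon a (by omega) b hb (by omega) h3
      rw [Function.iterate_succ_apply']
      have e : a + 1 + b = a + b + 1 := by ring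
      rw [e]
      exact h4.le
  have hmono : ∀ j ≤ 8, δ j ≤ δ 8 := by
    intro j hj
    induction hk : 8 - j generalizing j with
    | zero =>
      have : j = 8 := by omega
      rw [this]
    | succ k ih => exact (hδm j (by omega)).trans (ih (j + 1) (by omega) (by omega))
  have hB : ∀ a ≤ 4, ∀ b ≤ 4, |ev (D1^[a] (D2^[b] p)) y1 y2| ≤ δ 8 * M := fun a ha b hb =>
    (hall b hb a ha).trans (mul_le_mul_of_nonneg_right (hmono _ (by omega)) hM.le)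
  obtain ⟨x1, hx1, x2, hx2, hx⟩ := hP
  have := A.ctrl h1 h2 hB x1 hx1 x2 hx2
  have e : Real.exp 250 * (Real.exp 250 * (δ 8 * M)) =
      Real.exp 250 * (Real.exp 250 * δ 8) * M := by ring
  rw [e] at this
  have h3 := mul_lt_mul_of_pos_right hδ8 hM
  linarith

/-- constant of the number of labels -/
noncomputable def CL : ℝ := 50 * (2000 * (CN ^ 12) ^ 2)

open Classical in
/-- **labels of the points where `p` is small** -/
theorem Alg.labels (A : Alg ev D1 D2 Ib) {p : V} {μ : ℝ} {δ : ℕ → ℝ} (hμ : 0 < μ)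
    (hδ0 : 0 < δ 0) (hδm : ∀ j < 8, δ j ≤ δ (j + 1))
    (hδ8 : Real.exp 250 * (Real.exp 250 * δ 8) < 1 / 2)
    (hP : ∃ x1 ∈ Ib, ∃ x2 ∈ Ib, μ < |ev p x1 x2|) :
    ∃ Λ : ℕ → Finset (ℤ × ℤ), (∀ j < 8, ((Λ j).card : ℝ) ≤ CL / (δ j * δ (j + 1) ^ 2)) ∧
      ∀ x1 ∈ Ib, ∀ x2 ∈ Ib, |ev p x1 x2| ≤ δ 0 * μ → ∃ j < 8, lb (δ j) x1 x2 ∈ Λ j := by
  have hz : (0 : ℝ) ∈ Ib := ⟨by norm_num, by norm_num⟩
  -- the supremum
  obtain ⟨K, hK⟩ : ∃ K, ∀ x1 ∈ Ib, ∀ x2 ∈ Ib, |ev p x1 x2| ≤ K := by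
    set B := ∑ a ∈ Finset.range 5, ∑ b ∈ Finset.range 5, |ev (D1^[a] (D2^[b] p)) 0 0| with hB
    refine ⟨_, A.ctrl (B := B) hz hz fun a ha b hb => ?_⟩
    have h1 : |ev (D1^[a] (D2^[b] p)) 0 0| ≤
        ∑ b ∈ Finset.range 5, |ev (D1^[a] (D2^[b] p)) 0 0| :=
      Finset.single_le_sum (f := fun b => |ev (D1^[a] (D2^[b] p)) 0 0|)
        (fun _ _ => abs_nonneg _) (Finset.mem_range.2 (by omega))
    have h2 : ∑ b ∈ Finset.range 5, |ev (D1^[a] (D2^[b] p)) 0 0| ≤ B :=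
      Finset.single_le_sum (f := fun a => ∑ b ∈ Finset.range 5, |ev (D1^[a] (D2^[b] p)) 0 0|)
        (fun _ _ => Finset.sum_nonneg fun _ _ => abs_nonneg _) (Finset.mem_range.2 (by omega))
    exact h1.trans h2
  set S : Set ℝ := {y | ∃ x1 ∈ Ib, ∃ x2 ∈ Ib, y = |ev p x1 x2|} with hS
  have hSb : BddAbove S := ⟨K, by rintro y ⟨x1, h1, x2, h2, rfl⟩; exact hK x1 h1 x2 h2⟩
  obtain ⟨x1, hx1, x2, hx2, hx⟩ := hP
  have hSne : S.Nonempty := ⟨_, x1, hx1, x2, hx2, rfl⟩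
  set M := sSup S with hM
  have hMμ : μ ≤ M := hx.le.trans (le_csSup hSb ⟨x1, hx1, x2, hx2, rfl⟩)
  have hM0 : 0 < M := hμ.trans_le hMμ
  have hMs : ∀ x1 ∈ Ib, ∀ x2 ∈ Ib, |ev p x1 x2| ≤ M := fun x1 h1 x2 h2 =>
    le_csSup hSb ⟨x1, h1, x2, h2, rfl⟩
  have hMP : ∃ x1 ∈ Ib, ∃ x2 ∈ Ib, M / 2 ≤ |ev p x1 x2| := by
    obtain ⟨y, ⟨x1, h1, x2, h2, rfl⟩, hy⟩ := exists_lt_of_lt_csSup hSne (by linarith : M / 2 < M)
    exact ⟨x1, h1, x2, h2, hy.le⟩
  have hmono : ∀ j ≤ 8, δ j ≤ δ 8 ∧ 0 < δ j := by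
    have h1 : ∀ j ≤ 8, 0 < δ j := by
      intro j
      induction j with
      | zero => intro _; exact hδ0
      | succ j ih => intro hj; exact (ih (by omega)).trans_le (hδm j (by omega))
    intro j hj
    refine ⟨?_, h1 j hj⟩
    induction hk : 8 - j generalizing j with
    | zero =>
      have : j = 8 := by omega
      rw [this]
    | succ k ih => exact (hδm j (by omega)).trans (ih (j + 1) (by omega) (by omega))
  have hδ81 : δ 8 ≤ 1 := by
    have h1 : (1 : ℝ) ≤ Real.exp 250 := Real.one_le_exp (by norm_num)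
    have h2 := (hmono 8 le_rfl).2
    have h3 : δ 8 ≤ Real.exp 250 * δ 8 := le_mul_of_one_le_left h2.le h1
    have h4 : Real.exp 250 * δ 8 ≤ Real.exp 250 * (Real.exp 250 * δ 8) :=
      le_mul_of_one_le_left (by positivity) h1
    linarith
  have hC1 := one_le_CN
  -- words
  have hw : ∀ a ≤ 4, ∀ b ≤ 4, ∀ x1 ∈ Ib, ∀ x2 ∈ Ib,
      |ev (D1^[a] (D2^[b] p)) x1 x2| ≤ CN ^ 8 * M := by
    intro a ha b hb x1 h1 x2 h2
    have := A.d1i (A.d2i hMs b) a x1 h1 x2 h2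
    refine this.trans ?_
    rw [← mul_assoc, ← pow_add]
    exact mul_le_mul_of_nonneg_right (pow_le_pow_right₀ hC1 (by omega)) hM0.le
  set L := CN ^ 12 * M with hL
  have hL9 : CN ^ 10 * M ≤ L :=
    mul_le_mul_of_nonneg_right (pow_le_pow_right₀ hC1 (by norm_num)) hM0.le
  have hML : M ≤ L := le_mul_of_one_le_left hM0.le (one_le_pow₀ hC1)
  -- labels of one word
  have key : ∀ (a : ℕ), a ≤ 4 → ∀ (b : ℕ), b ≤ 4 → ∀ j < 8, ∃ Λ : Finset (ℤ × ℤ),
      (Λ.card : ℝ) ≤ 2 * (2000 * (L / (δ (j + 1) * M)) ^ 2 / δ j) ∧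
      ∀ x1 ∈ Ib, ∀ x2 ∈ Ib, |ev (D1^[a] (D2^[b] p)) x1 x2| ≤ δ j * M →
        (δ (j + 1) * M ≤ |ev (D1 (D1^[a] (D2^[b] p))) x1 x2| ∨
          δ (j + 1) * M ≤ |ev (D2 (D1^[a] (D2^[b] p))) x1 x2|) → lb (δ j) x1 x2 ∈ Λ := by
    intro a ha b hb j hj
    set g := D1^[a] (D2^[b] p) with hg
    have hgM := hw a ha b hb
    have b1 := A.d1 hgM
    have b2 := A.d2 hgM
    have b11 := A.d1 b1
    have b22 := A.d2 b2
    have e1 : CN * (CN ^ 8 * M) ≤ L := by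
      have : CN * (CN ^ 8 * M) = CN ^ 9 * M := by ring
      rw [this]
      exact mul_le_mul_of_nonneg_right (pow_le_pow_right₀ hC1 (by norm_num)) hM0.le
    have e2 : CN * (CN * (CN ^ 8 * M)) ≤ L := by
      have : CN * (CN * (CN ^ 8 * M)) = CN ^ 10 * M := by ring
      rw [this]; exact hL9
    obtain ⟨m1, m2⟩ := hmono j (by omega)
    obtain ⟨m3, m4⟩ := hmono (j + 1) (by omega)
    have h3 : 0 < δ (j + 1) * M := mul_pos m4 hM0
    have h4 : δ (j + 1) * M ≤ L := by nlinarith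
    have h5 : δ j * M ≤ L * δ j := by nlinarith
    obtain ⟨Λ1, c1, d1⟩ := A.cov1 (g := g) (η := δ j * M) h3 h4 m2 (m1.trans hδ81) h5
      (fun x1 h1 x2 h2 => (b2 x1 h1 x2 h2).trans e1) (fun x1 h1 x2 h2 => (b11 x1 h1 x2 h2).trans e2)
    obtain ⟨Λ2, c2, d2⟩ := A.cov2 (g := g) (η := δ j * M) h3 h4 m2 (m1.trans hδ81) h5
      (fun x1 h1 x2 h2 => (b1 x1 h1 x2 h2).trans e1) (fun x1 h1 x2 h2 => (b22 x1 h1 x2 h2).trans e2)
    refine ⟨Λ1 ∪ Λ2, ?_, fun x1 h1 x2 h2 h6 h7 => ?_⟩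
    · have : ((Λ1 ∪ Λ2).card : ℝ) ≤ (Λ1.card : ℝ) + Λ2.card := by
        exact_mod_cast Finset.card_union_le _ _
      linarith
    · rw [Finset.mem_union]
      rcases h7 with h7 | h7
      · exact Or.inl (d1 x1 h1 x2 h2 h6 h7)
      · exact Or.inr (d2 x1 h1 x2 h2 h6 h7)
  choose! Λw hc hd using key
  refine ⟨fun j => (Finset.range 5 ×ˢ Finset.range 5).biUnion fun ab => Λw ab.1 ab.2 j,
    fun j hj => ?_, fun x1 h1 x2 h2 h3 => ?_⟩
  · obtain ⟨m1, m2⟩ := hmono j (by omega)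
    obtain ⟨m3, m4⟩ := hmono (j + 1) (by omega)
    have h1 : (((Finset.range 5 ×ˢ Finset.range 5).biUnion fun ab => Λw ab.1 ab.2 j).card : ℝ) ≤
        ∑ ab ∈ Finset.range 5 ×ˢ Finset.range 5, ((Λw ab.1 ab.2 j).card : ℝ) := by
      exact_mod_cast Finset.card_biUnion_le
    refine h1.trans ?_
    calc _ ≤ ∑ ab ∈ Finset.range 5 ×ˢ Finset.range 5,
          2 * (2000 * (L / (δ (j + 1) * M)) ^ 2 / δ j) := by
          refine Finset.sum_le_sum fun ab hab => ?_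
          rw [Finset.mem_product, Finset.mem_range, Finset.mem_range] at hab
          exact hc ab.1 (by omega) ab.2 (by omega) j hj
      _ = 25 * (2 * (2000 * (L / (δ (j + 1) * M)) ^ 2 / δ j)) := by
          rw [Finset.sum_const, Finset.card_product, Finset.card_range, nsmul_eq_mul]; norm_num
      _ = CL / (δ j * δ (j + 1) ^ 2) := by
          rw [hL, CL]; field_simp; ring
  · obtain ⟨a, ha, b, hb, hab, h4, h5⟩ := A.chain (δ := δ) h1 h2 hM0 hδm hδ8 hMP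
      (h3.trans (mul_le_mul_of_nonneg_left hMμ hδ0.le))
    refine ⟨a + b, hab, ?_⟩
    rw [Finset.mem_biUnion]
    refine ⟨(a, b), ?_, ?_⟩
    · rw [Finset.mem_product, Finset.mem_range, Finset.mem_range]
      exact ⟨by omega, by omega⟩
    · refine hd a ha b hb (a + b) hab x1 h1 x2 h2 h4 ?_
      rcases h5 with h5 | ⟨h6, h5⟩
      · exact Or.inl h5
      · subst h6
        simp only [Function.iterate_zero, id_eq, zero_add] at h5 ⊢
        exact Or.inr h5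

end Crest.Agent.R136.Sa705
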