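import Crest.Agent.R136.Sa2_705

/-!
# R136 (one-level crude tilt), helper705: heights

A function `g ζ x1 x2` whose `ζ`-slices are chain systems and whose horizontal slices lie in an
algebra `Alg`: if `|g| > C μ` somewhere then at nine of the heights `h / 48000`, `h < 25`, the set
`|g| ≤ δ 0 μ` is covered by few squares (scales `δ j`).
-/

set_option autoImplicit false
set_option linter.unusedVariables false

namespace Crest.Agent.R136.Sa705

open Set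

/-- constant of the heights -/
noncomputable def CH : ℝ := Real.exp 250 * (512 * 48000 ^ 4)

/-- the slices of a function on the graph -/
structure Slc (g : ℝ → ℝ → ℝ → ℝ) : Prop where
  Z : ∀ x1 ∈ Ib, ∀ x2 ∈ Ib, ∃ f : ℕ → ℝ → ℝ, (∀ ζ, f 0 ζ = g ζ x1 x2) ∧ Sys f (Icc 0 1)
  A : ∀ ζ ∈ Icc (0 : ℝ) 1, ∃ (V : Type) (ev : V → ℝ → ℝ → ℝ) (D1 D2 : V → V) (p0 : V),
    Alg ev D1 D2 Ib ∧ ∀ x1 x2, ev p0 x1 x2 = g ζ x1 x2

/-- thresholds -/
structure Thr (δ : ℕ → ℝ) : Prop where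
  pos : 0 < δ 0
  mono : ∀ j < 8, δ j ≤ δ (j + 1)
  top : Real.exp 250 * (Real.exp 250 * δ 8) < 1 / 2

theorem Thr.pos' {δ : ℕ → ℝ} (h : Thr δ) : ∀ j ≤ 8, 0 < δ j := by
  intro j
  induction j with
  | zero => intro _; exact h.pos
  | succ j ih => intro hj; exact (ih (by omega)).trans_le (h.mono j (by omega))

theorem Thr.le8 {δ : ℕ → ℝ} (h : Thr δ) : ∀ j ≤ 8, δ j ≤ δ 8 := by
  intro j hj
  induction hk : 8 - j generalizing j with
  | zero =>
    have : j = 8 := by omega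
    rw [this]
  | succ k ih => exact (h.mono j (by omega)).trans (ih (j + 1) (by omega) (by omega))

theorem Thr.le1 {δ : ℕ → ℝ} (h : Thr δ) : ∀ j ≤ 8, δ j ≤ 1 / 2 := by
  intro j hj
  have h1 : (1 : ℝ) ≤ Real.exp 250 := Real.one_le_exp (by norm_num)
  have h2 := h.pos' 8 le_rfl
  have h3 : δ 8 ≤ Real.exp 250 * δ 8 := le_mul_of_one_le_left h2.le h1
  have h4 : Real.exp 250 * δ 8 ≤ Real.exp 250 * (Real.exp 250 * δ 8) :=
    le_mul_of_one_le_left (by positivity) h1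
  linarith [h.le8 j hj, h.top]

open Classical in
/-- **nine heights** -/
theorem Slc.nine {g : ℝ → ℝ → ℝ → ℝ} (S : Slc g) {δ : ℕ → ℝ} (hδ : Thr δ) {μ : ℝ} (hμ : 0 < μ)
    (hbig : ∃ ζ ∈ Icc (0 : ℝ) 1, ∃ x1 ∈ Ib, ∃ x2 ∈ Ib, CH * μ < |g ζ x1 x2|) :
    ∃ Hs : Finset ℕ, (∀ h ∈ Hs, h < 25) ∧ 9 ≤ Hs.card ∧ ∀ h ∈ Hs, ∃ Λ : ℕ → Finset (ℤ × ℤ),
      (∀ j < 8, ((Λ j).card : ℝ) ≤ CL / (δ j * δ (j + 1) ^ 2)) ∧
      ∀ x1 ∈ Ib, ∀ x2 ∈ Ib, |g (h / 48000) x1 x2| ≤ δ 0 * μ → ∃ j < 8, lb (δ j) x1 x2 ∈ Λ j := by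
  have hin : ∀ h : ℕ, h < 25 → (h : ℝ) / 48000 ∈ Icc (0 : ℝ) (1 / 2000) := by
    intro h hh
    have h1 : (0 : ℝ) ≤ h := Nat.cast_nonneg h
    have h2 : (h : ℝ) ≤ 24 := by exact_mod_cast Nat.lt_succ_iff.1 hh
    constructor
    · positivity
    · rw [div_le_iff₀ (by norm_num)]; linarith
  have hsub : Icc (0 : ℝ) (1 / 2000) ⊆ Icc 0 1 := Icc_subset_Icc le_rfl (by norm_num)
  set Hs := (Finset.range 25).filter fun h : ℕ =>
    ∃ x1 ∈ Ib, ∃ x2 ∈ Ib, μ < |g ((h : ℝ) / 48000) x1 x2| with hHs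
  have hlt : ∀ h ∈ Hs, h < 25 := fun h hh => Finset.mem_range.1 (Finset.mem_filter.1 hh).1
  by_cases hc : 9 ≤ Hs.card
  · refine ⟨Hs, hlt, hc, fun h hh => ?_⟩
    obtain ⟨-, x1, h1, x2, h2, h3⟩ := Finset.mem_filter.1 hh
    obtain ⟨V, ev, D1, D2, p0, hA, he⟩ := S.A _ (hsub (hin h (hlt h hh)))
    obtain ⟨Λ, a, b⟩ := hA.labels (p := p0) hμ hδ.pos hδ.mono hδ.top
      ⟨x1, h1, x2, h2, by rw [he]; exact h3⟩
    exact ⟨Λ, a, fun y1 k1 y2 k2 k3 => b y1 k1 y2 k2 (by rw [he]; exact k3)⟩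
  · exfalso
    obtain ⟨ζ, hζ, x1, h1, x2, h2, h3⟩ := hbig
    obtain ⟨f, hf0, hf⟩ := S.Z x1 h1 x2 h2
    set Q := (Finset.range 25).filter fun h : ℕ =>
      ¬ ∃ x1 ∈ Ib, ∃ x2 ∈ Ib, μ < |g ((h : ℝ) / 48000) x1 x2| with hQ
    have hQc : 16 ≤ Q.card := by
      have : Hs.card + Q.card = 25 := by
        rw [hHs, hQ, Finset.card_filter_add_card_filter_not, Finset.card_range]
      omega
    set o := Q.orderEmbOfFin rfl with ho
    set t : ℕ → ℝ := fun i => if hi : i < Q.card then ((o ⟨i, hi⟩ : ℕ) : ℝ) / 48000 else 0 with ht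
    have hoQ : ∀ i, o i ∈ Q := fun i => Finset.orderEmbOfFin_mem Q rfl i
    have ht1 : ∀ i < 16, ∃ h ∈ Q, t i = (h : ℝ) / 48000 := by
      intro i hi
      have hi' : i < Q.card := by omega
      exact ⟨o ⟨i, hi'⟩, hoQ _, by simp only [ht, dif_pos hi']⟩
    have hsep : ∀ i, i + 1 < 16 → t i + 1 / 48000 ≤ t (i + 1) := by
      intro i hi
      have hi' : i < Q.card := by omega
      have hi'' : i + 1 < Q.card := by omega
      have h4 : o ⟨i, hi'⟩ < o ⟨i + 1, hi''⟩ := o.strictMono (by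
        rw [Fin.lt_def]; exact Nat.lt_succ_self i)
      have h5 : ((o ⟨i, hi'⟩ : ℕ) : ℝ) + 1 ≤ ((o ⟨i + 1, hi''⟩ : ℕ) : ℝ) := by exact_mod_cast h4
      simp only [ht, dif_pos hi', dif_pos hi'']
      rw [← add_div, div_le_div_iff_of_pos_right (by norm_num)]
      exact h5
    have h0 : (0 : ℝ) ∈ Icc (0 : ℝ) (1 / 2000) := ⟨le_rfl, by norm_num⟩
    have key := pts (δ := 1 / 48000) (lam := μ) (hf.mono hsub) (by norm_num) (by norm_num)
      (by norm_num) (t := t) (fun i hi => by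
        obtain ⟨h, hh, e⟩ := ht1 i hi
        rw [e]
        exact hin h (Finset.mem_range.1 (Finset.mem_filter.1 hh).1)) hsep (fun i hi => by
        obtain ⟨h, hh, e⟩ := ht1 i hi
        rw [e, hf0]
        by_contra hcon
        exact (Finset.mem_filter.1 hh).2 ⟨x1, h1, x2, h2, not_le.1 hcon⟩) h0
    have h4 := gron hf (hsub h0) hζ key 0 (by norm_num)
    rw [hf0] at h4
    have h5 : Real.exp (250 * |ζ - 0|) ≤ Real.exp 250 := by
      apply Real.exp_le_exp.2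
      rw [sub_zero, abs_of_nonneg hζ.1]
      linarith [hζ.2]
    have h6 : Real.exp (250 * |ζ - 0|) * (512 * μ / (1 / 48000) ^ 4) ≤ CH * μ := by
      have e : CH * μ = Real.exp 250 * (512 * μ / (1 / 48000) ^ 4) := by unfold CH; ring
      rw [e]
      exact mul_le_mul_of_nonneg_right h5 (by positivity)
    linarith

end Crest.Agent.R136.Sa705
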