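import Crest.Agent.R136.Sa3_705
import Crest.Agent.R136.Crd2_705

/-!
# R136 (one-level crude tilt), helper705: counting

`count9`: lines of a sheet whose positions (relative to `T`) at nine heights lie in the label sets are
few: two heights have the same scale, the pair of labels determines a tube.
-/

set_option autoImplicit false
set_option linter.unusedVariables false

namespace Crest.Agent.R136.Sa705

open Finset Crest.Agent.R136.Sh605 Crest.Agent.R136.Tl102 Crest.Agent.R136.Crd705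

/-- size of the tubes -/
def CG : ℝ := 400008

/-- two lines of the sheet with nearby positions at two heights -/
theorem in_tube {e : Fin 3 → V3} {c : Ln4} {w : V3} {q : ℝ → V3 → ℝ} {z0 ρ a : ℝ}
    (S : StP e c w q z0 ρ) (hρ : 0 < ρ) {U U' : Ln4} (hU : InSheet U e c w q a z0 ρ)
    (hU' : InSheet U' e c w q a z0 ρ) {δ s s' : ℝ} (hδ : 0 ≤ δ) (hs : 0 ≤ s) (hs1 : s ≤ 1)
    (hss : 1 / 48000 ≤ |s' - s|) (ha : a ≤ δ * w 0)
    (hx : ∀ k, k ≠ 0 → |rp e w z0 ρ U' U s k| ≤ δ)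
    (hx' : ∀ k, k ≠ 0 → |rp e w z0 ρ U' U s' k| ≤ δ) :
    InSheet U e U' (fun k => CG * δ * w k) q a z0 ρ := by
  intro z hz hz'
  obtain ⟨i1, i2⟩ := hU z hz hz'
  obtain ⟨i1', i2'⟩ := hU' z hz hz'
  set ζ := (z - z0) / ρ with hζd
  have hzz : z0 + ρ * ζ = z := by rw [hζd]; field_simp; ring
  have g1 : 0 ≤ ζ := by rw [hζd]; exact div_nonneg (by linarith) hρ.le
  have g2 : ζ ≤ 1 := by rw [hζd, div_le_one hρ]; linarith
  have hne : s' - s ≠ 0 := by
    intro h; rw [h, abs_zero] at hss; norm_num at hss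
  have hlat : ∀ k, k ≠ 0 → |dt (e k) (U.pos z - U'.pos z)| ≤ 96001 * δ * w k := by
    intro k hk
    have h1 := rp_affine e w z0 ρ U' U s ζ k
    have h2 := rp_affine e w z0 ρ U' U s s' k
    have h3 : |vel e w ρ U' U k| ≤ 96000 * δ := by
      have h4 : vel e w ρ U' U k = (rp e w z0 ρ U' U s' k - rp e w z0 ρ U' U s k) / (s' - s) := by
        rw [h2]; field_simp; ring
      rw [h4, abs_div, div_le_iff₀ (by linarith [abs_pos.2 hne])]
      refine (abs_sub _ _).trans ?_
      have h5 := hx k hk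
      have h6 := hx' k hk
      have h7 : 96000 * δ * (1 / 48000) ≤ 96000 * δ * |s' - s| :=
        mul_le_mul_of_nonneg_left hss (by positivity)
      linarith
    have h4 : |rp e w z0 ρ U' U ζ k| ≤ 96001 * δ := by
      rw [h1]
      refine (abs_add_le _ _).trans ?_
      rw [abs_mul]
      have h5 : |ζ - s| ≤ 1 := by rw [abs_le]; constructor <;> linarith
      have h6 := mul_le_mul h5 h3 (abs_nonneg _) zero_le_one
      linarith [hx k hk]
    have h5 : rp e w z0 ρ U' U ζ k = dt (e k) (U.pos z - U'.pos z) / w k := by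
      simp only [rp, pc, hzz]
    rw [h5, abs_div, abs_of_pos (S.pos k), div_le_iff₀ (S.pos k)] at h4
    exact h4
  have hw0 := S.pos 0
  have hw1 := S.pos 1
  have hw2 := S.pos 2
  refine ⟨fun k => ?_, i2⟩
  by_cases hk : k = 0
  · subst hk
    have h1 := off S hz hz' i1 i1' i2 i2'
    have h2 : w 0 / w 1 * |dt (e 1) (U.pos z - U'.pos z)| ≤ 96001 * δ * w 0 := by
      have := mul_le_mul_of_nonneg_left (hlat 1 (by decide)) (div_pos hw0 hw1).le
      refine this.trans (le_of_eq ?_)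
      field_simp
    have h3 : w 0 / w 2 * |dt (e 2) (U.pos z - U'.pos z)| ≤ 96001 * δ * w 0 := by
      have := mul_le_mul_of_nonneg_left (hlat 2 (by decide)) (div_pos hw0 hw2).le
      refine this.trans (le_of_eq ?_)
      field_simp
    have h4 : 0 ≤ δ * w 0 := mul_nonneg hδ hw0.le
    change _ ≤ CG * δ * w 0
    unfold CG
    linarith
  · have h1 := hlat k hk
    have h2 : 0 ≤ δ * w k := mul_nonneg hδ (S.pos k).le
    change _ ≤ CG * δ * w k
    unfold CG
    linarith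

open Classical in
/-- **counting from nine heights** -/
theorem count9 {ι : Type*} {A : Finset ι} {L : ι → Ln4} {e : Fin 3 → V3} {c : Ln4} {w : V3}
    {q : ℝ → V3 → ℝ} {z0 ρ a : ℝ} (S : StP e c w q z0 ρ) (hρ : 0 < ρ) {T : Ln4}
    (hA : ∀ u ∈ A, InSheet (L u) e c w q a z0 ρ) {δ : ℕ → ℝ} (hδ : Thr δ) (ha : a ≤ δ 0 * w 0)
    {Hs : Finset ℕ} (hlt : ∀ h ∈ Hs, h < 25) (h9 : 9 ≤ Hs.card) {Λ : ℕ → ℕ → Finset (ℤ × ℤ)}
    (hΛc : ∀ h ∈ Hs, ∀ j < 8, ((Λ h j).card : ℝ) ≤ CL / (δ j * δ (j + 1) ^ 2))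
    (hΛ : ∀ u ∈ A, ∀ h ∈ Hs, ∃ j < 8, lb (δ j) (rp e w z0 ρ T (L u) (h / 48000) 1)
      (rp e w z0 ρ T (L u) (h / 48000) 2) ∈ Λ h j)
    {M : ℕ → ℝ} (hM0 : ∀ j < 8, 0 ≤ M j)
    (hM : ∀ j < 8, ∀ u' ∈ A, ((A.filter fun u => InSheet (L u) e (L u')
      (fun k => CG * δ j * w k) q a z0 ρ).card : ℝ) ≤ M j) :
    (A.card : ℝ) ≤ 625 * ∑ j ∈ range 8, (CL / (δ j * δ (j + 1) ^ 2)) ^ 2 * M j := by
  set B : ℕ → ℕ → ℕ → Finset ι := fun h h' j => A.filter fun u =>
    lb (δ j) (rp e w z0 ρ T (L u) (h / 48000) 1) (rp e w z0 ρ T (L u) (h / 48000) 2) ∈ Λ h j ∧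
    lb (δ j) (rp e w z0 ρ T (L u) (h' / 48000) 1) (rp e w z0 ρ T (L u) (h' / 48000) 2) ∈ Λ h' j
    with hB
  -- every line has two heights with the same scale
  have hcov : A ⊆ ((Hs ×ˢ Hs).filter fun p => p.1 ≠ p.2).biUnion fun p =>
      (range 8).biUnion fun j => B p.1 p.2 j := by
    intro u hu
    choose! jj hj hl using hΛ u hu
    obtain ⟨h, hh, h', hh', hne, he⟩ := exists_ne_map_eq_of_card_lt_of_maps_to
      (s := Hs) (t := range 8) (by rw [card_range]; omega) (f := jj)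
      (fun h hh => mem_coe.2 (mem_range.2 (hj h (mem_coe.1 hh))))
    rw [mem_biUnion]
    refine ⟨(h, h'), mem_filter.2 ⟨mem_product.2 ⟨hh, hh'⟩, hne⟩, ?_⟩
    rw [mem_biUnion]
    refine ⟨jj h, mem_range.2 (hj h hh), mem_filter.2 ⟨hu, hl h hh, ?_⟩⟩
    have := hl h' hh'
    rw [← he] at this
    exact this
  -- one pair of heights, one scale
  have key : ∀ h ∈ Hs, ∀ h' ∈ Hs, h ≠ h' → ∀ j < 8, ((B h h' j).card : ℝ) ≤
      (CL / (δ j * δ (j + 1) ^ 2)) ^ 2 * M j := by
    intro h hh h' hh' hne j hj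
    have hδj := hδ.pos' j (by omega)
    have haj : a ≤ δ j * w 0 := by
      refine ha.trans (mul_le_mul_of_nonneg_right ?_ (S.pos 0).le)
      clear hΛc hΛ hM0 hM B hB hcov
      induction j with
      | zero => exact le_rfl
      | succ j ih => exact (ih (by omega) (hδ.pos' j (by omega))).trans (hδ.mono j (by omega))
    set lab : ι → (ℤ × ℤ) × (ℤ × ℤ) := fun u =>
      (lb (δ j) (rp e w z0 ρ T (L u) (h / 48000) 1) (rp e w z0 ρ T (L u) (h / 48000) 2),
        lb (δ j) (rp e w z0 ρ T (L u) (h' / 48000) 1) (rp e w z0 ρ T (L u) (h' / 48000) 2))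
      with hlab
    have hmap : ∀ u ∈ B h h' j, lab u ∈ Λ h j ×ˢ Λ h' j := by
      intro u hu
      obtain ⟨-, h1, h2⟩ := mem_filter.1 hu
      exact mem_product.2 ⟨h1, h2⟩
    have hfib : ∀ l ∈ Λ h j ×ˢ Λ h' j, ((((B h h' j).filter fun u => lab u = l).card : ℕ) : ℝ) ≤
        M j := by
      intro l _
      rcases ((B h h' j).filter fun u => lab u = l).eq_empty_or_nonempty with he | ⟨u', hu'⟩
      · rw [he, card_empty]; push_cast; exact hM0 j hj
      obtain ⟨hu'1, hu'2⟩ := mem_filter.1 hu'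
      have hu'A : u' ∈ A := (mem_filter.1 hu'1).1
      refine le_trans ?_ (hM j hj u' hu'A)
      norm_cast
      refine card_le_card fun u hu => ?_
      obtain ⟨hu1, hu2⟩ := mem_filter.1 hu
      have huA : u ∈ A := (mem_filter.1 hu1).1
      refine mem_filter.2 ⟨huA, ?_⟩
      have hll : lab u = lab u' := hu2.trans hu'2.symm
      simp only [hlab, lb, Prod.mk.injEq] at hll
      obtain ⟨⟨l1, l2⟩, l3, l4⟩ := hll
      have hd : ∀ (s : ℝ) (k : Fin 3), ⌊rp e w z0 ρ T (L u) s k / δ j⌋ =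
          ⌊rp e w z0 ρ T (L u') s k / δ j⌋ → |rp e w z0 ρ (L u') (L u) s k| ≤ δ j := by
        intro s k hf
        have h2 := Int.abs_sub_lt_one_of_floor_eq_floor hf
        rw [← sub_div, abs_div, abs_of_pos hδj, div_lt_one hδj] at h2
        rw [rp_eq e w T] at h2 ⊢
        rw [rp_eq e w T z0 ρ T (L u') s k] at h2
        have e1 : xl e w T z0 ρ (L u) s k - xl e w T z0 ρ T s k -
            (xl e w T z0 ρ (L u') s k - xl e w T z0 ρ T s k) =
            xl e w T z0 ρ (L u) s k - xl e w T z0 ρ (L u') s k := by ring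
        rw [e1] at h2
        exact h2.le
      have hs0 : (0 : ℝ) ≤ (h : ℝ) / 48000 := by positivity
      have hs1 : (h : ℝ) / 48000 ≤ 1 := by
        rw [div_le_one (by norm_num)]
        have : (h : ℝ) ≤ 25 := by exact_mod_cast (hlt h hh).le
        linarith
      have hss : 1 / 48000 ≤ |(h' : ℝ) / 48000 - (h : ℝ) / 48000| := by
        rw [← sub_div, abs_div, abs_of_pos (by norm_num : (0 : ℝ) < 48000)]
        apply div_le_div_of_nonneg_right _ (by norm_num)
        have h1 : (1 : ℤ) ≤ |(h' : ℤ) - h| := by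
          apply Int.one_le_abs
          intro h0
          apply hne
          omega
        exact_mod_cast h1
      exact in_tube S hρ (hA u huA) (hA u' hu'A) hδj.le hs0 hs1 hss haj (fun k hk => by
        fin_cases k
        · exact absurd rfl hk
        · exact hd _ 1 l1
        · exact hd _ 2 l2) (fun k hk => by
        fin_cases k
        · exact absurd rfl hk
        · exact hd _ 1 l3
        · exact hd _ 2 l4)
    have e1 : (B h h' j).card = ∑ l ∈ Λ h j ×ˢ Λ h' j, ((B h h' j).filter fun u => lab u = l).card :=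
      card_eq_sum_card_fiberwise fun u hu => mem_coe.2 (hmap u (mem_coe.1 hu))
    rw [e1]
    push_cast
    have hMj := hM0 j hj
    calc ∑ l ∈ Λ h j ×ˢ Λ h' j, ((((B h h' j).filter fun u => lab u = l).card : ℕ) : ℝ)
        ≤ ∑ l ∈ Λ h j ×ˢ Λ h' j, M j := sum_le_sum hfib
      _ = (((Λ h j).card : ℝ) * ((Λ h' j).card : ℝ)) * M j := by
          rw [sum_const, card_product, nsmul_eq_mul]; push_cast; ring
      _ ≤ (CL / (δ j * δ (j + 1) ^ 2)) ^ 2 * M j := by
          rw [sq]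
          have a1 := hΛc h hh j hj
          have a2 := hΛc h' hh' j hj
          gcongr
          exact (Nat.cast_nonneg _).trans a1
  have h1 : (A.card : ℝ) ≤ ∑ p ∈ (Hs ×ˢ Hs).filter (fun p => p.1 ≠ p.2),
      ∑ j ∈ range 8, ((B p.1 p.2 j).card : ℝ) := by
    have h2 := (card_le_card hcov).trans card_biUnion_le
    have h3 : (A.card : ℝ) ≤ ∑ p ∈ (Hs ×ˢ Hs).filter (fun p => p.1 ≠ p.2),
        ((((range 8).biUnion fun j => B p.1 p.2 j).card : ℕ) : ℝ) := by exact_mod_cast h2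
    refine h3.trans (sum_le_sum fun p _ => ?_)
    exact_mod_cast card_biUnion_le
  refine h1.trans ?_
  have hpos : 0 ≤ ∑ j ∈ range 8, (CL / (δ j * δ (j + 1) ^ 2)) ^ 2 * M j :=
    sum_nonneg fun j hj => mul_nonneg (sq_nonneg _) (hM0 j (mem_range.1 hj))
  have hHs : Hs.card ≤ 25 := by
    have : Hs ⊆ range 25 := fun h hh => mem_range.2 (hlt h hh)
    simpa using card_le_card this
  calc ∑ p ∈ (Hs ×ˢ Hs).filter (fun p => p.1 ≠ p.2), ∑ j ∈ range 8, ((B p.1 p.2 j).card : ℝ)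
      ≤ ∑ p ∈ (Hs ×ˢ Hs).filter (fun p => p.1 ≠ p.2),
          ∑ j ∈ range 8, (CL / (δ j * δ (j + 1) ^ 2)) ^ 2 * M j := by
        refine sum_le_sum fun p hp => sum_le_sum fun j hj => ?_
        obtain ⟨hp1, hp2⟩ := mem_filter.1 hp
        obtain ⟨hp3, hp4⟩ := mem_product.1 hp1
        exact key _ hp3 _ hp4 hp2 j (mem_range.1 hj)
    _ = (((Hs ×ˢ Hs).filter (fun p => p.1 ≠ p.2)).card : ℝ) *
          ∑ j ∈ range 8, (CL / (δ j * δ (j + 1) ^ 2)) ^ 2 * M j := by
        rw [sum_const, nsmul_eq_mul]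
    _ ≤ 625 * ∑ j ∈ range 8, (CL / (δ j * δ (j + 1) ^ 2)) ^ 2 * M j := by
        apply mul_le_mul_of_nonneg_right _ hpos
        have h2 : ((Hs ×ˢ Hs).filter (fun p => p.1 ≠ p.2)).card ≤ 625 := by
          refine (card_filter_le _ _).trans ?_
          rw [card_product]
          exact (Nat.mul_le_mul hHs hHs).trans (by norm_num)
        exact_mod_cast h2

end Crest.Agent.R136.Sa705
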