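import Crest.Agent.R136.Sa4_705
import Crest.Agent.R136.Row2_214

/-!
# R136 (one-level crude tilt), helper705: Step A

`stepA`: lines of a sheet near a line `T` of the sheet whose points (moved by at most `8 a` in the
normal direction) satisfy `|q₂| ≤ lam`; either `|q₂| ≤ C lam / δ 0` on the whole sheet near `T` or
many of the lines lie in one tube `δ j w`.
-/

set_option autoImplicit false
set_option linter.unusedVariables false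

namespace Crest.Agent.R136.Sa705

open Set Crest.Agent.R136.Sh605 Crest.Agent.R136.Tl102 Crest.Agent.R136.Crd705

theorem Thr.small {δ : ℕ → ℝ} (h : Thr δ) : δ 0 ≤ 1 / 1000 := by
  have h1 : (251 : ℝ) ≤ Real.exp 250 := by
    have := Real.add_one_le_exp (250 : ℝ)
    linarith
  have h2 := h.pos' 8 le_rfl
  have h3 : 251 * δ 8 ≤ Real.exp 250 * δ 8 := mul_le_mul_of_nonneg_right h1 h2.le
  have h4 : 251 * (Real.exp 250 * δ 8) ≤ Real.exp 250 * (Real.exp 250 * δ 8) :=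
    mul_le_mul_of_nonneg_right h1 (by positivity)
  have h5 := h.le8 0 (by norm_num)
  have h6 := h.top
  linarith

theorem vec_eta (y : V3) : ![y 0, y 1, y 2] = y := by
  ext i; fin_cases i <;> rfl

/-- values in the coordinates of the sheet -/
theorem exp_at {e : Fin 3 → V3} {w : V3} {q : ℝ → V3 → ℝ} {z0 ρ : ℝ} (he : Ortho e)
    (hw : ∀ k, w k ≠ 0) {T : Ln4} {b0 b1 : V3} {G : QF} (hE : IsExp q e w T z0 ρ b0 b1 G) (t : ℝ)
    (Y : V3) : q (z0 + ρ * t) Y = q (z0 + ρ * t) (T.pos (z0 + ρ * t)) +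
      w 0 * Fq b0 b1 G t (pc e w T (z0 + ρ * t) Y) := by
  have := hE t (pc e w T (z0 + ρ * t) Y)
  rw [cmb_pc he hw] at this
  exact this

/-- the point of a level set over a line of the sheet -/
theorem line_pt {e : Fin 3 → V3} {c : Ln4} {w : V3} {q : ℝ → V3 → ℝ} {z0 ρ a : ℝ}
    (S : StP e c w q z0 ρ) (hρ : 0 < ρ) {T U : Ln4} (hT : InSheet T e c w q a z0 ρ)
    (hU : InSheet U e c w q a z0 ρ) {b0 b1 : V3} {G : QF} (hE : IsExp q e w T z0 ρ b0 b1 G)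
    (N : NrmC b0 b1 G) {t : ℝ} (ht : t ∈ Icc (0 : ℝ) 1)
    (hv1 : |rp e w z0 ρ T U t 1| ≤ 1 / 32) (hv2 : |rp e w z0 ρ T U t 2| ≤ 1 / 32)
    (ha0 : 0 ≤ a) (ha : a ≤ 1 / 1000 * w 0) {s y : ℝ} (hs : |w 0 * s| ≤ 2 * a) (hy : |y| ≤ 1 / 4)
    (hF : Fq b0 b1 G t ![y, rp e w z0 ρ T U t 1, rp e w z0 ρ T U t 2] = s) :
    ∃ τ : ℝ, |τ| ≤ 8 * a ∧ T.pos (z0 + ρ * t) +
      cmb (fr e w) ![y, rp e w z0 ρ T U t 1, rp e w z0 ρ T U t 2] =
        U.pos (z0 + ρ * t) + τ • e 0 := by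
  have hw0 := S.pos 0
  have hwne : ∀ k, w k ≠ 0 := fun k => (S.pos k).ne'
  have z1 : z0 ≤ z0 + ρ * t := by
    have := mul_nonneg hρ.le ht.1
    linarith
  have z2 : z0 + ρ * t ≤ z0 + ρ := by
    have := mul_le_mul_of_nonneg_left ht.2 hρ.le
    linarith
  obtain ⟨i1, i2⟩ := hU _ z1 z2
  obtain ⟨j1, j2⟩ := hT _ z1 z2
  have hLq := exp_at S.ortho hwne hE t (U.pos (z0 + ρ * t))
  have hcp := cmb_pc S.ortho hwne T (z0 + ρ * t) (U.pos (z0 + ρ * t))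
  have h1 := off S z1 z2 i1 j1 i2 j2
  have h2 : ∀ k, dt (e k) (U.pos (z0 + ρ * t) - T.pos (z0 + ρ * t)) =
      w k * rp e w z0 ρ T U t k := by
    intro k
    have : rp e w z0 ρ T U t k = dt (e k) (U.pos (z0 + ρ * t) - T.pos (z0 + ρ * t)) / w k := rfl
    rw [this, mul_div_cancel₀ _ (hwne k)]
  change _ = _ + w 0 * Fq b0 b1 G t (rp e w z0 ρ T U t) at hLq
  change _ + cmb (fr e w) (rp e w z0 ρ T U t) = _ at hcp
  rw [h2, h2, h2, abs_mul, abs_mul, abs_mul, abs_of_pos (S.pos 0), abs_of_pos (S.pos 1),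
    abs_of_pos (S.pos 2)] at h1
  generalize rp e w z0 ρ T U t = v at *
  have h3 : w 0 / w 1 * (w 1 * |v 1|) = w 0 * |v 1| := by
    rw [← mul_assoc, div_mul_cancel₀ _ (hwne 1)]
  have h4 : w 0 / w 2 * (w 2 * |v 2|) = w 0 * |v 2| := by
    rw [← mul_assoc, div_mul_cancel₀ _ (hwne 2)]
  rw [h3, h4] at h1
  have h5 := mul_le_mul_of_nonneg_left hv1 hw0.le
  have h6 := mul_le_mul_of_nonneg_left hv2 hw0.le
  have hv0 : |v 0| ≤ 1 / 2 := by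
    have h7 : w 0 * |v 0| ≤ w 0 * (1 / 2) := by linarith
    exact le_of_mul_le_mul_left h7 hw0
  have hm : |(v 0 + y) / 2| ≤ 1 / 2 := by
    rw [abs_le] at hv0 hy ⊢
    constructor <;> linarith [hv0.1, hv0.2, hy.1, hy.2]
  have hst := (Row214.st_of N ht (abs_le.1 hv1) (abs_le.1 hv2) hm).1
  have e1 : (v 0 - y) * (2 * G.yy * ((v 0 + y) / 2) + G.yu * v 1 + G.yv * v 2 +
      (b0 0 + t * b1 0)) = Fq b0 b1 G t ![v 0, v 1, v 2] - Fq b0 b1 G t ![y, v 1, v 2] := by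
    simp only [Fq, Sh605.dt, bz, QF.ev, Matrix.cons_val]; ring
  rw [vec_eta, hF] at e1
  generalize 2 * G.yy * ((v 0 + y) / 2) + G.yu * v 1 + G.yv * v 2 + (b0 0 + t * b1 0) = D at *
  refine ⟨(y - v 0) * w 0, ?_, ?_⟩
  · have h7 : |w 0 * ((v 0 - y) * D)| ≤ 4 * a := by
      have h8 : w 0 * ((v 0 - y) * D) = q (z0 + ρ * t) (U.pos (z0 + ρ * t)) -
          q (z0 + ρ * t) (T.pos (z0 + ρ * t)) - w 0 * s := by
        rw [e1, hLq]; ring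
      rw [h8]
      refine (abs_sub _ _).trans ?_
      have h9 := abs_sub (q (z0 + ρ * t) (U.pos (z0 + ρ * t)))
        (q (z0 + ρ * t) (T.pos (z0 + ρ * t)))
      linarith
    have h8 : |w 0 * ((v 0 - y) * D)| = |(y - v 0) * w 0| * D := by
      rw [abs_mul, abs_mul, abs_mul, abs_of_pos hw0, abs_of_pos (by linarith : 0 < D),
        abs_sub_comm y]
      ring
    rw [h8] at h7
    have h9 := mul_le_mul_of_nonneg_left hst (abs_nonneg ((y - v 0) * w 0))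
    linarith
  · have h7 := cmb_add_zero e w (T.pos (z0 + ρ * t)) (v 0) (v 1) (v 2) (y - v 0)
    rw [vec_eta, hcp] at h7
    rw [← h7]
    have h8 : v 0 + (y - v 0) = y := by ring
    rw [h8]

open Classical in
/-- **Step A** -/
theorem stepA {ι : Type*} {A : Finset ι} {L : ι → Ln4} {e : Fin 3 → V3} {c : Ln4} {w : V3}
    {q : ℝ → V3 → ℝ} {z0 ρ a : ℝ} (S : StP e c w q z0 ρ) (hρ : 0 < ρ) {T : Ln4}
    (hT : InSheet T e c w q a z0 ρ) (hA : ∀ u ∈ A, InSheet (L u) e c w q a z0 ρ)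
    (hnear : ∀ u ∈ A, ∀ ζ ∈ Icc (0 : ℝ) 1, ∀ k, k ≠ 0 → |rp e w z0 ρ T (L u) ζ k| ≤ 1 / 32)
    {q₂ : ℝ → V3 → ℝ} (hq₂ : IsQ q₂) {lam : ℝ} (hlam : 0 < lam)
    (hcap : ∀ u ∈ A, ∀ z, z0 ≤ z → z ≤ z0 + ρ → ∀ τ : ℝ, |τ| ≤ 8 * a →
      |q₂ z ((L u).pos z + τ • e 0)| ≤ lam)
    {δ : ℕ → ℝ} (hδ : Thr δ) (ha : a ≤ δ 0 * w 0) {M : ℕ → ℝ} (hM0 : ∀ j < 8, 0 ≤ M j)
    (hM : ∀ j < 8, ∀ u' ∈ A, ((A.filter fun u => InSheet (L u) e (L u')
      (fun k => CG * δ j * w k) q a z0 ρ).card : ℝ) ≤ M j)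
    (hbig : 625 * ∑ j ∈ Finset.range 8, (CL / (δ j * δ (j + 1) ^ 2)) ^ 2 * M j < (A.card : ℝ)) :
    ∀ z, z0 ≤ z → z ≤ z0 + ρ → ∀ X : V3, |q z X| ≤ a → |pc e w T z X 0| ≤ 1 / 2 →
      |pc e w T z X 1| ≤ 1 / 32 → |pc e w T z X 2| ≤ 1 / 32 → |q₂ z X| ≤ CH * (lam / δ 0) := by
  intro z hz hz' X hqX hX0 hX1 hX2
  by_contra hcon
  rw [not_le] at hcon
  have hw0 := S.pos 0
  have hwne : ∀ k, w k ≠ 0 := fun k => (S.pos k).ne'
  have hT' : ∀ z, z0 ≤ z → z ≤ z0 + ρ → InK e c w z (T.pos z) := fun z h1 h2 => (hT z h1 h2).1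
  obtain ⟨b0, b1, G, hE⟩ := exists_isExp S.isQ e hw0.ne' T z0 ρ
  have N := hE.nrmC S hρ.le hT'
  have hδ0 := hδ.small
  have hδp := hδ.pos
  have ha0 : 0 ≤ a := (abs_nonneg _).trans hqX
  have ha1 : a ≤ 1 / 1000 * w 0 := ha.trans (mul_le_mul_of_nonneg_right hδ0 hw0.le)
  obtain ⟨ζ, g1, g2, hzz⟩ : ∃ ζ : ℝ, 0 ≤ ζ ∧ ζ ≤ 1 ∧ z0 + ρ * ζ = z := by
    refine ⟨(z - z0) / ρ, div_nonneg (by linarith) hρ.le, ?_, ?_⟩
    · rw [div_le_one hρ]; linarith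
    · rw [mul_div_cancel₀ _ hρ.ne']; ring
  have hsX := exp_at S.ortho hwne hE ζ X
  have hcX := cmb_pc S.ortho hwne T z X
  rw [hzz] at hsX
  generalize pc e w T z X = x at *
  obtain ⟨s, hs⟩ : ∃ s, Fq b0 b1 G ζ x = s := ⟨_, rfl⟩
  rw [hs] at hsX
  have hsa : |w 0 * s| ≤ 2 * a := by
    have h1 : w 0 * s = q z X - q z (T.pos z) := by rw [hsX]; ring
    rw [h1]
    refine (abs_sub _ _).trans ?_
    linarith [(hT z hz hz').2]
  have hs100 : |s| ≤ 1 / 100 := by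
    rw [abs_mul, abs_of_pos hw0] at hsa
    have h1 : w 0 * |s| ≤ w 0 * (1 / 100) := by linarith
    exact le_of_mul_le_mul_left h1 hw0
  obtain ⟨ψ, hψ, hrow⟩ := Row214.core_rows N hs100
  obtain ⟨hZ, hH⟩ := hrow _ (Row214.P4.of_isQ hq₂ T (fr e w) z0 ρ)
  have SL : Slc (fun t x1 x2 =>
    q₂ (z0 + ρ * t) (T.pos (z0 + ρ * t) + cmb (fr e w) ![ψ t x1 x2, x1, x2])) := ⟨hZ, hH⟩
  clear hrow hZ hH
  have hμ : 0 < lam / δ 0 := div_pos hlam hδp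
  -- the point `X`
  have hXI1 : x 1 ∈ Ib := abs_le.1 hX1
  have hXI2 : x 2 ∈ Ib := abs_le.1 hX2
  have hXg : q₂ (z0 + ρ * ζ) (T.pos (z0 + ρ * ζ) +
      cmb (fr e w) ![ψ ζ (x 1) (x 2), x 1, x 2]) = q₂ z X := by
    have h1 := (hψ ζ ⟨g1, g2⟩ (x 1) hXI1 (x 2) hXI2).2.2 (x 0) hX0 (by rw [vec_eta]; exact hs)
    rw [← h1, vec_eta, hzz, hcX]
  obtain ⟨Hs, hlt, h9, hΛ⟩ := SL.nine hδ hμ ⟨ζ, ⟨g1, g2⟩, x 1, hXI1, x 2, hXI2, by
    rw [hXg]; exact hcon⟩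
  choose! Λ hΛc hΛl using hΛ
  refine absurd (count9 (T := T) S hρ hA hδ ha hlt h9 hΛc ?_ hM0 hM) (not_le.2 hbig)
  intro u hu h hh
  have hh1 : (h : ℝ) / 48000 ∈ Icc (0 : ℝ) 1 := by
    constructor
    · positivity
    · rw [div_le_one (by norm_num)]
      have : (h : ℝ) ≤ 25 := by exact_mod_cast (hlt h hh).le
      linarith
  have hv1 := hnear u hu _ hh1 1 (by decide)
  have hv2 := hnear u hu _ hh1 2 (by decide)
  refine hΛl h hh _ (abs_le.1 hv1) _ (abs_le.1 hv2) ?_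
  obtain ⟨k1, k2, -⟩ := hψ _ hh1 _ (abs_le.1 hv1) _ (abs_le.1 hv2)
  obtain ⟨τ, t1, t2⟩ := line_pt S hρ hT (hA u hu) hE N hh1 hv1 hv2 ha0 ha1 hsa k1 k2
  have z1 : z0 ≤ z0 + ρ * ((h : ℝ) / 48000) := by
    have := mul_nonneg hρ.le hh1.1
    linarith
  have z2 : z0 + ρ * ((h : ℝ) / 48000) ≤ z0 + ρ := by
    have := mul_le_mul_of_nonneg_left hh1.2 hρ.le
    linarith
  have h5 : δ 0 * (lam / δ 0) = lam := mul_div_cancel₀ _ hδp.ne'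
  rw [h5, t2]
  exact hcap u hu _ z1 z2 _ t1

end Crest.Agent.R136.Sa705
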