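import Crest.Agent.R136.Sa3_705
import Crest.Agent.R136.Crd1_705
import Crest.Agent.R136.Cap2_102

/-!
# R136 (one-level crude tilt, Step A), helper214: thresholds and typical lines
-/

set_option autoImplicit false
set_option linter.unusedSectionVars false

namespace Crest.Agent.R136.Sa705

open Finset Crest.Agent.R136.Sh605 Crest.Agent.R136.Tl102

/-! ### thresholds -/

/-- the thresholds in reverse order -/
noncomputable def thf (c0 K r X : ℝ) : ℕ → ℝ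
  | 0 => c0
  | n + 1 => (thf c0 K r X n ^ 4 / (2 * K * X ^ 3)) ^ (1 / r)

section thf
variable {c0 K r X : ℝ} (hc : 0 < c0) (hc1 : c0 ≤ 1) (hK : 1 ≤ K) (hr : 0 < r) (hr4 : r ≤ 4)
  (hX : 1 ≤ X)
include hc hc1 hK hr hr4 hX

theorem thf_pos (n : ℕ) : 0 < thf c0 K r X n ∧ thf c0 K r X n ≤ 1 := by
  have hX3 : 1 ≤ X ^ 3 := one_le_pow₀ hX
  induction n with
  | zero => exact ⟨hc, hc1⟩
  | succ n ih =>
    obtain ⟨h1, h2⟩ := ih
    have hd : 1 ≤ 2 * K * X ^ 3 := by nlinarith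
    constructor
    · exact Real.rpow_pos_of_pos (by positivity) _
    · refine Real.rpow_le_one (by positivity) ?_ (by positivity)
      rw [div_le_one (by linarith)]
      exact (pow_le_one₀ h1.le h2).trans hd

theorem thf_rpow (n : ℕ) : thf c0 K r X (n + 1) ^ r = thf c0 K r X n ^ 4 / (2 * K * X ^ 3) := by
  obtain ⟨h1, h2⟩ := thf_pos hc hc1 hK hr hr4 hX n
  have h3 : (0 : ℝ) ≤ thf c0 K r X n ^ 4 / (2 * K * X ^ 3) := by positivity
  rw [thf, ← Real.rpow_mul h3, one_div_mul_cancel hr.ne', Real.rpow_one]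

theorem thf_anti (n : ℕ) : thf c0 K r X (n + 1) ≤ thf c0 K r X n := by
  obtain ⟨h1, h2⟩ := thf_pos hc hc1 hK hr hr4 hX n
  obtain ⟨h3, h4⟩ := thf_pos hc hc1 hK hr hr4 hX (n + 1)
  have hX3 : 1 ≤ X ^ 3 := one_le_pow₀ hX
  have hd : 1 ≤ 2 * K * X ^ 3 := by nlinarith
  have h5 : thf c0 K r X (n + 1) ^ r ≤ thf c0 K r X n ^ r := by
    rw [thf_rpow hc hc1 hK hr hr4 hX]
    calc thf c0 K r X n ^ 4 / (2 * K * X ^ 3) ≤ thf c0 K r X n ^ 4 :=
          div_le_self (by positivity) hd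
      _ = thf c0 K r X n ^ (4 : ℝ) := by
          rw [← Real.rpow_natCast]; norm_num
      _ ≤ thf c0 K r X n ^ r := Real.rpow_le_rpow_of_exponent_ge h1 h2 hr4
  exact (Real.rpow_le_rpow_iff h3.le h1.le hr).1 h5

theorem thf_lower : ∀ n, ∃ C : ℝ, 0 ≤ C ∧ ∀ X : ℝ, 2 ≤ X → X ^ (-C) ≤ thf c0 K r X n := by
  intro n
  induction n with
  | zero =>
    obtain ⟨k, hk⟩ := exists_pow_lt_of_lt_one hc (by norm_num : (1 / 2 : ℝ) < 1)
    refine ⟨k, Nat.cast_nonneg k, fun X hX => ?_⟩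
    rw [Real.rpow_neg (by linarith), Real.rpow_natCast]
    have h1 : (2 : ℝ) ^ k ≤ X ^ k := pow_le_pow_left₀ (by norm_num) hX k
    have h2 : (X ^ k)⁻¹ ≤ ((2 : ℝ) ^ k)⁻¹ := inv_anti₀ (by positivity) h1
    have h3 : ((2 : ℝ) ^ k)⁻¹ = (1 / 2) ^ k := by rw [one_div, inv_pow]
    rw [h3] at h2
    exact h2.trans hk.le
  | succ n ih =>
    obtain ⟨C, hC0, hC⟩ := ih
    obtain ⟨k, hk⟩ := pow_unbounded_of_one_lt (2 * K) (by norm_num : (1 : ℝ) < 2)
    refine ⟨(4 * C + k + 3) / r, by positivity, fun X hX => ?_⟩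
    have hX0 : 0 < X := by linarith
    have h1 := hC X hX
    have h0 : 0 < X ^ (-C) := Real.rpow_pos_of_pos hX0 _
    have h2 : 2 * K ≤ X ^ k := hk.le.trans (pow_le_pow_left₀ (by norm_num) hX k)
    have h3 : X ^ (-(4 * C + k + 3)) ≤ thf c0 K r X n ^ 4 / (2 * K * X ^ 3) := by
      rw [le_div_iff₀ (by positivity)]
      have e1 : (X ^ (-C)) ^ 4 = X ^ (-(4 * C)) := by
        rw [← Real.rpow_natCast, ← Real.rpow_mul hX0.le]
        congr 1; push_cast; ring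
      have e2 : X ^ (-(4 * C + k + 3)) * (X ^ k * X ^ 3) = (X ^ (-C)) ^ 4 := by
        rw [e1, ← Real.rpow_natCast X k, ← Real.rpow_natCast X 3, ← Real.rpow_add hX0,
          ← Real.rpow_add hX0]
        congr 1; push_cast; ring
      have e3 : X ^ (-(4 * C + k + 3)) * (2 * K * X ^ 3) ≤
          X ^ (-(4 * C + k + 3)) * (X ^ k * X ^ 3) := by
        refine mul_le_mul_of_nonneg_left ?_ (Real.rpow_pos_of_pos hX0 _).le
        exact mul_le_mul_of_nonneg_right h2 (by positivity)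
      rw [e2] at e3
      exact e3.trans (pow_le_pow_left₀ h0.le h1 4)
    rw [thf]
    have h4 := Real.rpow_le_rpow (Real.rpow_pos_of_pos hX0 _).le h3
      (by positivity : (0 : ℝ) ≤ 1 / r)
    refine le_trans (le_of_eq ?_) h4
    rw [← Real.rpow_mul hX0.le]
    congr 1
    field_simp

end thf

/-- **thresholds** -/
theorem thr_exists {q : ℝ} (hq : 0 < q) {K g : ℝ} (hK : 1 ≤ K) (hg : 1 ≤ g) :
    ∃ C : ℝ, 1 ≤ C ∧ ∀ X : ℝ, 2 ≤ X → ∃ δ : ℕ → ℝ, Thr δ ∧ (∀ j, 2 * g * δ j ≤ 1) ∧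
      (∀ j < 8, K * X ^ 3 * δ j ^ q < δ (j + 1) ^ 4) ∧ X ^ (-C) ≤ δ 0 := by
  set E := Real.exp 250 with hE
  have hE1 : 1 ≤ E := Real.one_le_exp (by norm_num)
  have hE0 : 0 < E := by linarith
  set c0 := 1 / (4 * g * E ^ 2) with hc0
  have hE2 : 1 ≤ E ^ 2 := one_le_pow₀ hE1
  have hgE : 4 ≤ 4 * g * E ^ 2 := by nlinarith
  have hc : 0 < c0 := by rw [hc0]; positivity
  have hc1 : c0 ≤ 1 := by
    rw [hc0, div_le_one (by linarith)]; linarith
  set r := min q 4 with hr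
  have hr0 : 0 < r := lt_min hq (by norm_num)
  have hr4 : r ≤ 4 := min_le_right _ _
  have hrq : r ≤ q := min_le_left _ _
  obtain ⟨C, hC0, hC⟩ := thf_lower hc hc1 hK hr0 hr4 (le_refl (1 : ℝ)) 8
  refine ⟨C + 1, by linarith, fun X hX => ?_⟩
  have hX1 : 1 ≤ X := by linarith
  have P := thf_pos hc hc1 hK hr0 hr4 hX1
  have An := thf_anti hc hc1 hK hr0 hr4 hX1
  have hanti : ∀ n, thf c0 K r X n ≤ c0 := by
    intro n
    induction n with
    | zero => exact le_rfl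
    | succ n ih => exact (An n).trans ih
  have hs : ∀ j, j < 8 → 8 - j = (8 - (j + 1)) + 1 := by intro j hj; omega
  refine ⟨fun j => thf c0 K r X (8 - j), ⟨(P _).1, fun j hj => ?_, ?_⟩, fun j => ?_,
    fun j hj => ?_, ?_⟩
  · rw [hs j hj]; exact An _
  · change E * (E * thf c0 K r X (8 - 8)) < 1 / 2
    rw [Nat.sub_self]
    change E * (E * c0) < 1 / 2
    have : E * (E * c0) = 1 / (4 * g) := by rw [hc0]; field_simp
    rw [this, div_lt_div_iff₀ (by positivity) (by norm_num)]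
    linarith
  · have h1 := hanti (8 - j)
    have h2 : 2 * g * thf c0 K r X (8 - j) ≤ 2 * g * c0 :=
      mul_le_mul_of_nonneg_left h1 (by positivity)
    refine h2.trans ?_
    rw [hc0]
    have : 2 * g * (1 / (4 * g * E ^ 2)) = 1 / (2 * E ^ 2) := by field_simp; ring
    rw [this, div_le_one (by positivity)]
    linarith
  · change K * X ^ 3 * thf c0 K r X (8 - j) ^ q < thf c0 K r X (8 - (j + 1)) ^ 4
    rw [hs j hj]
    set n := 8 - (j + 1)
    obtain ⟨p1, p2⟩ := P n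
    obtain ⟨p3, p4⟩ := P (n + 1)
    have h1 : thf c0 K r X (n + 1) ^ q ≤ thf c0 K r X (n + 1) ^ r :=
      Real.rpow_le_rpow_of_exponent_ge p3 p4 hrq
    rw [thf_rpow hc hc1 hK hr0 hr4 hX1] at h1
    have hX3 : 0 < K * X ^ 3 := by positivity
    have h2 := mul_le_mul_of_nonneg_left h1 hX3.le
    have h3 : K * X ^ 3 * (thf c0 K r X n ^ 4 / (2 * K * X ^ 3)) = thf c0 K r X n ^ 4 / 2 := by
      field_simp
    rw [h3] at h2
    have h4 : 0 < thf c0 K r X n ^ 4 := by positivity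
    linarith
  · change X ^ (-(C + 1)) ≤ thf c0 K r X (8 - 0)
    refine le_trans ?_ (hC X hX)
    exact Real.rpow_le_rpow_of_exponent_le hX1 (by linarith)

/-! ### typical lines -/

open Classical in
/-- members of small classes -/
theorem typ_card {ι κ : Type*} (A : Finset ι) (lab : ι → κ) (Λ : Finset κ)
    (h : ∀ u ∈ A, lab u ∈ Λ) {X : ℝ} (hX : 0 < X) :
    ((A.filter fun u => (Λ.card : ℝ) * X * ((A.filter fun v => lab v = lab u).card : ℝ) <
      (A.card : ℝ)).card : ℝ) ≤ (A.card : ℝ) / X := by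
  set Bad := A.filter fun u => (Λ.card : ℝ) * X * ((A.filter fun v => lab v = lab u).card : ℝ) <
      (A.card : ℝ) with hBad
  rcases Bad.eq_empty_or_nonempty with hb | hb
  · rw [hb]; simp; positivity
  have hΛ : 0 < (Λ.card : ℝ) := by
    obtain ⟨u, hu⟩ := hb
    have := h u (mem_of_mem_filter u hu)
    exact_mod_cast card_pos.2 ⟨_, this⟩
  have h1 : (Bad.card : ℝ) = ∑ l ∈ Λ, ((Bad.filter fun u => lab u = l).card : ℝ) := by
    rw [card_eq_sum_card_fiberwise (f := lab) (t := Λ)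
      (fun u hu => h u (mem_of_mem_filter u hu))]
    push_cast; rfl
  have h2 : ∀ l ∈ Λ, ((Bad.filter fun u => lab u = l).card : ℝ) ≤
      (A.card : ℝ) / ((Λ.card : ℝ) * X) := by
    intro l _
    rcases (Bad.filter fun u => lab u = l).eq_empty_or_nonempty with h0 | ⟨u, hu⟩
    · rw [h0]; simp; positivity
    · obtain ⟨hu1, hu2⟩ := mem_filter.1 hu
      obtain ⟨-, hu3⟩ := mem_filter.1 hu1
      have h3 : (Bad.filter fun u => lab u = l) ⊆ A.filter fun v => lab v = lab u := by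
        intro v hv
        obtain ⟨hv1, hv2⟩ := mem_filter.1 hv
        exact mem_filter.2 ⟨mem_of_mem_filter v hv1, hv2.trans hu2.symm⟩
      have h4 : ((Bad.filter fun u => lab u = l).card : ℝ) ≤
          ((A.filter fun v => lab v = lab u).card : ℝ) := by exact_mod_cast card_le_card h3
      refine h4.trans ?_
      rw [le_div_iff₀ (by positivity)]
      linarith
  rw [h1]
  refine (sum_le_sum h2).trans (le_of_eq ?_)
  rw [sum_const, nsmul_eq_mul]
  field_simp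

/-- number of labels of the positions -/
def NT : ℝ := 129 ^ 4

open Classical in
/-- **typical lines**: all but `#A / X` lines have a proportion `1 / (NT X)` of lines of `A` nearby -/
theorem typical {ι : Type*} (A : Finset ι) (L : ι → Ln4) {e : Fin 3 → V3} {c : Ln4} {w : V3}
    {q : ℝ → V3 → ℝ} {z0 ρ a : ℝ} (hw : ∀ k, 0 < w k) (hρ : 0 < ρ)
    (hA : ∀ u ∈ A, InSheet (L u) e c w q a z0 ρ) {X : ℝ} (hX : 0 < X) :
    ∃ Bad : Finset ι, Bad ⊆ A ∧ (Bad.card : ℝ) ≤ (A.card : ℝ) / X ∧ ∀ u ∈ A, u ∉ Bad →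
      ∃ A' : Finset ι, A' ⊆ A ∧ u ∈ A' ∧ (A.card : ℝ) ≤ NT * X * (A'.card : ℝ) ∧
        ∀ v ∈ A', ∀ ζ, 0 ≤ ζ → ζ ≤ 1 → ∀ k, k ≠ 0 → |rp e w z0 ρ (L u) (L v) ζ k| ≤ 1 / 32 := by
  set p : ι → ℝ → Fin 3 → ℝ := fun u ζ k => rp e w z0 ρ c (L u) ζ k with hp
  have hpb : ∀ u ∈ A, ∀ ζ, 0 ≤ ζ → ζ ≤ 1 → ∀ k, |p u ζ k| ≤ 1 := by
    intro u hu ζ h0 h1 k
    have := (hA u hu (z0 + ρ * ζ) (by nlinarith) (by nlinarith)).1 k
    change |dt (e k) ((L u).pos (z0 + ρ * ζ) - c.pos (z0 + ρ * ζ)) / w k| ≤ 1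
    rw [abs_div, abs_of_pos (hw k), div_le_one (hw k)]
    exact this
  set lab : ι → (ℤ × ℤ) × (ℤ × ℤ) := fun u =>
    ((⌊64 * p u 0 1⌋, ⌊64 * p u 0 2⌋), (⌊64 * p u 1 1⌋, ⌊64 * p u 1 2⌋)) with hlab
  have hfl : ∀ x : ℝ, |x| ≤ 1 → ⌊64 * x⌋ ∈ Finset.Icc (-64 : ℤ) 64 := by
    intro x hx
    rw [abs_le] at hx
    rw [Finset.mem_Icc]
    constructor
    · rw [Int.le_floor]; push_cast; linarith [hx.1]
    · have : (⌊64 * x⌋ : ℝ) ≤ 64 := (Int.floor_le _).trans (by linarith [hx.2])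
      exact_mod_cast this
  obtain ⟨Λ, hΛc, hmem⟩ : ∃ Λ : Finset ((ℤ × ℤ) × (ℤ × ℤ)), (Λ.card : ℝ) = NT ∧
      ∀ u ∈ A, lab u ∈ Λ := by
    refine ⟨(Finset.Icc (-64 : ℤ) 64 ×ˢ Finset.Icc (-64 : ℤ) 64) ×ˢ
      (Finset.Icc (-64 : ℤ) 64 ×ˢ Finset.Icc (-64 : ℤ) 64), ?_, fun u hu => ?_⟩
    · have h129 : (Finset.Icc (-64 : ℤ) 64).card = 129 := by simp
      rw [card_product, card_product, h129]
      unfold NT
      norm_num
    · simp only [hlab, mem_product]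
      exact ⟨⟨hfl _ (hpb u hu 0 le_rfl zero_le_one 1), hfl _ (hpb u hu 0 le_rfl zero_le_one 2)⟩,
        ⟨hfl _ (hpb u hu 1 zero_le_one le_rfl 1), hfl _ (hpb u hu 1 zero_le_one le_rfl 2)⟩⟩
  refine ⟨_, filter_subset _ A, typ_card A lab Λ hmem hX, fun u hu hnb => ?_⟩
  have hself : u ∈ A.filter fun v => lab v = lab u := by
    rw [mem_filter]; exact ⟨hu, rfl⟩
  refine ⟨A.filter fun v => lab v = lab u, filter_subset _ _, hself, ?_, ?_⟩
  · by_contra hcon
    push Not at hcon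
    refine hnb (mem_filter.2 ⟨hu, lt_of_le_of_lt (le_of_eq ?_) hcon⟩)
    rw [hΛc]
    congr!
  · intro v hv ζ h0 h1 k hk
    obtain ⟨-, hv2⟩ := mem_filter.1 hv
    have hfd : ∀ x y : ℝ, ⌊64 * x⌋ = ⌊64 * y⌋ → |x - y| ≤ 1 / 64 := by
      intro x y h
      have e1 := Int.floor_le (64 * x)
      have e2 := Int.lt_floor_add_one (64 * x)
      have e3 := Int.floor_le (64 * y)
      have e4 := Int.lt_floor_add_one (64 * y)
      rw [h] at e1 e2
      rw [abs_le]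
      constructor <;> linarith
    simp only [hlab, Prod.mk.injEq] at hv2
    obtain ⟨⟨l1, l2⟩, l3, l4⟩ := hv2
    have hdiff : ∀ ζ, rp e w z0 ρ (L u) (L v) ζ k = p v ζ k - p u ζ k := by
      intro ζ
      simp only [hp, rp, pc]
      rw [← sub_div]
      congr 1
      simp only [dt, Pi.sub_apply]; ring
    have d0 : |rp e w z0 ρ (L u) (L v) 0 k| ≤ 1 / 64 := by
      rw [hdiff]
      fin_cases k
      · exact absurd rfl hk
      · exact hfd _ _ l1
      · exact hfd _ _ l2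
    have d1 : |rp e w z0 ρ (L u) (L v) 1 k| ≤ 1 / 64 := by
      rw [hdiff]
      fin_cases k
      · exact absurd rfl hk
      · exact hfd _ _ l3
      · exact hfd _ _ l4
    have a0 := rp_affine e w z0 ρ (L u) (L v) 0 ζ k
    have a1 := rp_affine e w z0 ρ (L u) (L v) 0 1 k
    have a2 : rp e w z0 ρ (L u) (L v) ζ k = (1 - ζ) * rp e w z0 ρ (L u) (L v) 0 k +
        ζ * rp e w z0 ρ (L u) (L v) 1 k := by
      rw [a0, a1]; ring
    rw [a2]
    rw [abs_le] at d0 d1 ⊢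
    constructor <;> nlinarith [d0.1, d0.2, d1.1, d1.2]

end Crest.Agent.R136.Sa705
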