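import Crest.Agent.R136.Sa8_214
import Crest.Agent.R136.Ndj_335
import Crest.Agent.R136.Cig_705

/-!
# R136 (one-level crude tilt, Step A), helper214: the sequence form

* `stepA_num'` : Step A with numbers, only tests with the axes, the function and the thickness of
  the sheet itself;
* `class_fin`, `negl_class` : a property of pairs (line, cell) which fails for a small part of every
  class is negligible;
* `crude_gen` : sequence form of Step A for a model of the marks;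
* `crude_thick`, `crude_thin` : the two cases (the mark itself, its affine model if it is thin).
-/

set_option autoImplicit false
set_option linter.unusedVariables false
set_option linter.unusedSectionVars false

namespace Crest.Agent.R136.Sa705

open Finset Crest.Agent.R136.Sh605 Crest.Agent.R136.Tl102 Crest.Agent.R136.Crd705

open Classical in
/-- **Step A with numbers**, tests with the same axes, function and thickness: if all lines of a near-maximal sheet lie in `{|q₂| ≤ lam}` then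
`|q₂| ≤ X ^ C lam` on the sheet near all but `#A / X` of its lines.  `X` = all deficits. -/
theorem stepA_num' {q1 q2 : ℝ} (hq : 0 < q1 + q2) : ∃ C : ℝ, 1 ≤ C ∧
    ∀ {ι : Type} (A : Finset ι) (L : ι → Ln4) (e : Fin 3 → V3) (c : Ln4) (w : V3)
      (q : ℝ → V3 → ℝ) (a z0 ρ r0 q0 D X lam : ℝ) (q₂ : ℝ → V3 → ℝ),
      ShN e c w q a z0 ρ r0 → 0 < a → 0 < ρ → (∀ u ∈ A, InSheet (L u) e c w q a z0 ρ) →
      IsQ q₂ → 0 < lam →
      (∀ u ∈ A, ∀ z, z0 ≤ z → z ≤ z0 + ρ → ∀ τ : ℝ, |τ| ≤ 8 * a →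
        |q₂ z ((L u).pos z + τ • e 0)| ≤ lam) →
      2 ≤ X → X ^ C * a ≤ w 0 → 0 ≤ D →
      (∀ (c' : Ln4) (w' : V3), ShN e c' w' q a z0 ρ r0 → w 1 ≤ X ^ C * w' 1 →
        w 2 ≤ X ^ C * w' 2 → w' 1 ≤ w 1 → w' 2 ≤ w 2 →
        ((A.filter fun u => InSheet (L u) e c' w' q a z0 ρ).card : ℝ) ≤
          X * (D * vS q0 q1 q2 ρ a (w' 2) (w' 1))) →
      D * vS q0 q1 q2 ρ a (w 2) (w 1) ≤ X * (A.card : ℝ) →
      ∃ Bad : Finset ι, Bad ⊆ A ∧ (Bad.card : ℝ) ≤ (A.card : ℝ) / X ∧ ∀ u ∈ A, u ∉ Bad →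
        ∀ z, z0 ≤ z → z ≤ z0 + ρ → ∀ Y : V3, |q z Y| ≤ a → |pc e w (L u) z Y 0| ≤ 1 / 2 →
          |pc e w (L u) z Y 1| ≤ 1 / 32 → |pc e w (L u) z Y 2| ≤ 1 / 32 →
            |q₂ z Y| ≤ X ^ C * lam := by
  have hCG1 : (1 : ℝ) ≤ CG := by unfold CG; norm_num
  have hCG0 : (0 : ℝ) < CG := by linarith
  set K0 : ℝ := 10000 * CL ^ 2 * CG ^ (2 + (q1 + q2)) * NT with hK0
  set K : ℝ := max K0 1 with hK
  obtain ⟨C0, hC01, hthr⟩ := thr_exists hq (le_max_right K0 1) hCG1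
  obtain ⟨k, hk⟩ := pow_unbounded_of_one_lt CH (by norm_num : (1 : ℝ) < 2)
  refine ⟨C0 + k, by linarith [(Nat.cast_nonneg k : (0 : ℝ) ≤ k)], ?_⟩
  intro ι A L e c w q a z0 ρ r0 q0 D X lam q₂ S ha hρ hA hq₂ hlam hcap hX hXa hD0 hD hbig
  have hX0 : 0 < X := by linarith
  have hX1 : 1 ≤ X := by linarith
  have hw0 : 0 < w 0 := ha.trans_le S.a_le0
  have SP := StP.of_shN S hw0
  have hw := SP.pos
  obtain ⟨δ, hδ, hδg, hδK, hδ0⟩ := hthr X hX
  have hXC : X ^ C0 ≤ X ^ (C0 + k) :=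
    Real.rpow_le_rpow_of_exponent_le hX1 (by linarith [(Nat.cast_nonneg k : (0 : ℝ) ≤ k)])
  have hXp : 0 < X ^ C0 := Real.rpow_pos_of_pos hX0 _
  have hinv : 1 ≤ X ^ C0 * δ 0 := by
    rw [Real.rpow_neg hX0.le] at hδ0
    have := mul_le_mul_of_nonneg_left hδ0 hXp.le
    rwa [mul_inv_cancel₀ hXp.ne'] at this
  have haδ : a ≤ δ 0 * w 0 := by
    have h1 : X ^ C0 * a ≤ w 0 := (mul_le_mul_of_nonneg_right hXC ha.le).trans hXa
    have h2 : X ^ C0 * a * δ 0 ≤ w 0 * δ 0 := mul_le_mul_of_nonneg_right h1 hδ.pos.le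
    have h3 : 1 * a ≤ (X ^ C0 * δ 0) * a := mul_le_mul_of_nonneg_right hinv ha.le
    linarith
  have hmono : ∀ j ≤ 8, δ 0 ≤ δ j := by
    intro j hj
    induction j with
    | zero => exact le_rfl
    | succ j ih => exact (ih (by omega)).trans (hδ.mono j (by omega))
  obtain ⟨Bad, hBadA, hBadc, htyp⟩ := typical A L hw hρ hA hX0
  refine ⟨Bad, hBadA, hBadc, fun u hu hub => ?_⟩
  obtain ⟨A', hA'A, huA', hcard, hnear⟩ := htyp u hu hub
  set V := vS q0 q1 q2 ρ a (w 2) (w 1) with hV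
  have hV0 : 0 ≤ V := vS_nonneg hρ.le ha.le (hw 2).le (hw 1).le
  set M : ℕ → ℝ := fun j => X * (D * ((CG * δ j) ^ (2 + (q1 + q2)) * V)) with hM
  have hpos : 0 < (A'.card : ℝ) := by exact_mod_cast card_pos.2 ⟨u, huA'⟩
  have hNT : (0 : ℝ) < NT := by unfold NT; norm_num
  intro z hz hz' Y h1 h2 h3 h4
  have key := stepA SP hρ (T := L u) (A := A') (L := L) (hA u hu) (fun v hv => hA v (hA'A hv))
    (fun v hv ζ hζ k hk => hnear v hv ζ hζ.1 hζ.2 k hk) hq₂ hlam
    (fun v hv => hcap v (hA'A hv)) hδ haδ (M := M) (fun j hj => by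
      have := hδ.pos' j (by omega)
      simp only [hM]; positivity) (fun j hj v hv => by
      have hδj := hδ.pos' j (by omega)
      have hG : 0 < CG * δ j := by positivity
      have hle : δ j ≤ CG * δ j := le_mul_of_one_le_left hδj.le hCG1
      have hXG : 1 ≤ X ^ (C0 + k) * (CG * δ j) := by
        refine hinv.trans ?_
        exact mul_le_mul hXC ((hmono j (by omega)).trans hle) hδ.pos.le (by positivity)
      have hT := test_ShN S ha.le (hA v (hA'A hv)) hG (by linarith [hδg j])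
        (haδ.trans (mul_le_mul_of_nonneg_right ((hmono j (by omega)).trans hle) hw0.le))
        le_rfl le_rfl (G := CG * δ j) (z1 := z0) (ρ1 := ρ)
      have h5 := hD _ _ hT (by
          have := mul_le_mul_of_nonneg_right hXG (hw 1).le
          linarith) (by
          have := mul_le_mul_of_nonneg_right hXG (hw 2).le
          linarith) (by
          have h6 : CG * δ j ≤ 1 := by linarith [hδg j]
          have := mul_le_mul_of_nonneg_right h6 (hw 1).le
          linarith) (by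
          have h6 : CG * δ j ≤ 1 := by linarith [hδg j]
          have := mul_le_mul_of_nonneg_right h6 (hw 2).le
          linarith)
      have h6 : ((A'.filter fun u => InSheet (L u) e (L v) (fun k => CG * δ j * w k) q a z0
          ρ).card : ℝ) ≤ ((A.filter fun u => InSheet (L u) e (L v) (fun k => CG * δ j * w k) q a z0
          ρ).card : ℝ) := by
        exact_mod_cast card_le_card (filter_subset_filter _ hA'A)
      refine h6.trans (h5.trans (le_of_eq ?_))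
      simp only [hM]
      rw [vS_scale hρ (hw 2).le (hw 1).le hG]) (by
      -- the numbers
      have hterm : ∀ j ∈ Finset.range 8, (CL / (δ j * δ (j + 1) ^ 2)) ^ 2 * M j ≤
          (A'.card : ℝ) / 10000 * (1 : ℝ) := by
        intro j hj
        have hj8 := Finset.mem_range.1 hj
        have hδj := hδ.pos' j (by omega)
        have hδj1 := hδ.pos' (j + 1) (by omega)
        have hK1 := hδK j hj8
        have hDV : D * V ≤ X * (NT * X * (A'.card : ℝ)) :=
          hbig.trans (mul_le_mul_of_nonneg_left hcard hX0.le)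
        have e1 : (CG * δ j) ^ (2 + (q1 + q2)) =
            CG ^ (2 + (q1 + q2)) * (δ j ^ 2 * δ j ^ (q1 + q2)) := by
          rw [Real.mul_rpow hCG0.le hδj.le, Real.rpow_add hδj]
          congr 2
          exact Real.rpow_natCast (δ j) 2
        set P := CG ^ (2 + (q1 + q2)) with hP
        have hP0 : 0 < P := Real.rpow_pos_of_pos hCG0 _
        set y := δ j ^ (q1 + q2) with hy
        have hy0 : 0 < y := Real.rpow_pos_of_pos hδj _
        have e2 : (CL / (δ j * δ (j + 1) ^ 2)) ^ 2 * M j =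
            CL ^ 2 * P * y * X / δ (j + 1) ^ 4 * (D * V) := by
          simp only [hM]
          rw [e1]
          field_simp
        rw [e2]
        have h5 : CL ^ 2 * P * y * X / δ (j + 1) ^ 4 * (D * V) ≤
            CL ^ 2 * P * y * X / δ (j + 1) ^ 4 * (X * (NT * X * (A'.card : ℝ))) :=
          mul_le_mul_of_nonneg_left hDV (by positivity)
        refine h5.trans ?_
        have e3 : CL ^ 2 * P * y * X / δ (j + 1) ^ 4 * (X * (NT * X * (A'.card : ℝ))) =
            (K0 * X ^ 3 * y) / δ (j + 1) ^ 4 * ((A'.card : ℝ) / 10000) := by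
          rw [hK0]
          field_simp
        rw [e3]
        have h6 : (K0 * X ^ 3 * y) / δ (j + 1) ^ 4 ≤ 1 := by
          rw [div_le_one (by positivity)]
          refine le_trans ?_ hK1.le
          have : K0 ≤ K := le_max_left _ _
          gcongr
        have h7 := mul_le_mul_of_nonneg_right h6 (by positivity : 0 ≤ (A'.card : ℝ) / 10000)
        linarith
      have hsum := Finset.sum_le_sum hterm
      rw [Finset.sum_const, Finset.card_range, nsmul_eq_mul] at hsum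
      push_cast at hsum
      linarith)
    z hz hz' Y h1 h2 h3 h4
  refine key.trans ?_
  have hδ00 := hδ.pos
  have h5 : CH * (lam / δ 0) ≤ CH * (lam * X ^ C0) := by
    have hCH : 0 ≤ CH := by unfold CH; positivity
    refine mul_le_mul_of_nonneg_left ?_ hCH
    rw [div_le_iff₀ hδ00]
    have := mul_le_mul_of_nonneg_left hinv hlam.le
    linarith
  refine h5.trans ?_
  have h6 : CH ≤ X ^ k := hk.le.trans (pow_le_pow_left₀ (by norm_num) hX k)
  have h7 : X ^ (C0 + (k : ℝ)) = X ^ C0 * X ^ k := by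
    rw [Real.rpow_add hX0, Real.rpow_natCast]
  rw [h7]
  have h8 : 0 ≤ lam * X ^ C0 := by positivity
  have := mul_le_mul_of_nonneg_right h6 h8
  linarith


end Crest.Agent.R136.Sa705

namespace Crest.Agent.R136.Sa214

open Finset Filter Topology

open Crest.Agent.R138.Ex926 Crest.Agent.R138.Dp76
open Crest.Agent.R138.Mk163 (zc zl rho alive own Negl)
open Crest.Agent.R138.MkRef627 (lc kc mem_alive card_class alive_mono)
open Crest.Agent.R138.ArgM163 (ev_const_mul ev_const)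
open Crest.Agent.R136.MkA627 Crest.Agent.R136.Dia770
open Crest.Agent.R136.Sh605 Crest.Agent.R136.K4 Crest.Agent.R136.Ndc335
open Crest.Agent.R136.Tl102 (StP pc)
open Crest.Agent.R136.Sa705 (vS stepA_num' vS_nonneg)
open Crest.Agent.R136.Cig705 (qaf qaf_isQ wcig cig_ShN0 in_cig)

open Classical in
/-- a property of pairs (line, cell) which fails for a small part of every class -/
theorem class_fin (I : Finset (ℕ × ℝ)) (i : ℕ) (φ : ℕ → ℤ → ℕ) (bad : ℕ × ℤ → Prop) {η : ℝ}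
    (hb : ∀ J : ℤ, ∀ t0 ∈ alive I i J,
      ((((alive I i J).filter fun s => φ s J = φ t0 J).filter fun s => bad (s, J)).card : ℝ) ≤
        η * (((alive I i J).filter fun s => φ s J = φ t0 J).card : ℝ)) :
    (((I.image (lc i)).filter bad).card : ℝ) ≤ η * ((I.image (lc i)).card : ℝ) := by
  set O := I.image (lc i) with hO
  set κ : ℕ × ℤ → ℕ × ℤ := fun o => (φ o.1 o.2, o.2) with hκ
  have h1 : ((O.filter bad).card : ℝ) =
      ∑ y ∈ O.image κ, (((O.filter bad).filter fun o => κ o = y).card : ℝ) := by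
    rw [card_eq_sum_card_fiberwise (f := κ) (t := O.image κ)
      (fun o ho => mem_image_of_mem _ (mem_filter.1 ho).1)]
    push_cast; rfl
  have h2 : (O.card : ℝ) = ∑ y ∈ O.image κ, ((O.filter fun o => κ o = y).card : ℝ) := by
    rw [card_eq_sum_card_image κ O]
    push_cast; rfl
  rw [h1, h2, mul_sum]
  refine sum_le_sum fun y hy => ?_
  obtain ⟨o0, ho0, rfl⟩ := mem_image.1 hy
  obtain ⟨x0, hx0, hx0o⟩ := mem_image.1 ho0
  have hal : o0.1 ∈ alive I i o0.2 := mem_alive.2 ⟨x0, hx0, by rw [← hx0o]; rfl, by rw [← hx0o]; rfl⟩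
  set cls := (alive I i o0.2).filter fun s => φ s o0.2 = φ o0.1 o0.2 with hcls
  have e3 : ((O.filter fun o => κ o = κ o0).card : ℝ) = cls.card := by
    rw [hcls, card_class I i o0.2 (fun s => φ s o0.2) (φ o0.1 o0.2)]
    congr 2
    ext o
    simp only [mem_filter, hκ, Prod.mk.injEq, hO]
    constructor
    · rintro ⟨a1, a2, a3⟩
      exact ⟨a1, a3, by rw [← a3]; exact a2.trans (by rw [a3])⟩
    · rintro ⟨a1, a3, a2⟩
      exact ⟨a1, by rw [a3]; exact a2, a3⟩
  rw [e3]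
  refine le_trans ?_ (hb o0.2 o0.1 hal)
  norm_cast
  refine card_le_card_of_injOn (fun o => o.1) ?_ ?_
  · intro o ho
    have ho' := mem_filter.1 (mem_coe.1 ho)
    have ho'' := mem_filter.1 ho'.1
    have hk2 : o.2 = o0.2 := (Prod.mk.inj ho'.2).2
    have hk1 : φ o.1 o0.2 = φ o0.1 o0.2 := by
      have := (Prod.mk.inj ho'.2).1
      rw [hk2] at this
      exact this
    have hoA : o.1 ∈ alive I i o0.2 := by
      obtain ⟨x, hx, hxo⟩ := mem_image.1 ho''.1
      exact mem_alive.2 ⟨x, hx, by rw [← hxo]; rfl, by rw [← hk2, ← hxo]; rfl⟩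
    have hoo : (o.1, o0.2) = o := by rw [← hk2]
    refine mem_coe.2 (mem_filter.2 ⟨mem_filter.2 ⟨hoA, hk1⟩, ?_⟩)
    show bad (o.1, o0.2)
    rw [hoo]; exact ho''.2
  · intro o ho o' ho' h
    have ho1 := (mem_filter.1 (mem_coe.1 ho)).2
    have ho2 := (mem_filter.1 (mem_coe.1 ho')).2
    have h3 : o.2 = o'.2 := (Prod.mk.inj ho1).2.trans (Prod.mk.inj ho2).2.symm
    exact Prod.ext h h3

section

variable {σ κ : Type} {B : Base} {I : ℕ → Finset (ℕ × ℝ)} {G : Geo σ κ} {lev : ℕ → ℚ → ℕ}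
    {A : ℕ → ℝ} {c Λ : ℝ → ℝ} {τ : κ → ℝ → ℝ} {f : ℕ → ℚ → ℕ → ℤ → ℕ} {b : ℕ → ℚ → ℕ → σ}
    {vm : ℕ → ℚ → ℝ} {w : κ → ℕ → ℚ → ℝ}

open Classical in
/-- ... is negligible -/
theorem negl_class (h : MkA B I G lev A c Λ τ f b vm w) {v : ℚ} (hv0 : 0 ≤ v) (hv1 : v ≤ 1)
    (bad : ℕ → ℕ × ℤ → Prop) {μ : ℝ} (hμ : 0 < μ)
    (hb : ∀ᶠ n in (U : Filter ℕ), ∀ J : ℤ, ∀ t0 ∈ alive (I n) (lev n v) J,
      ((((alive (I n) (lev n v) J).filter fun s => f n v s J = f n v t0 J).filter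
        fun s => bad n (s, J)).card : ℝ) ≤
        B.d n ^ μ * (((alive (I n) (lev n v) J).filter fun s => f n v s J = f n v t0 J).card : ℝ)) :
    Negl B I fun n x => bad n (x.1, zc (lev n v) x.2) := by
  have hμ4 : 0 < μ / 4 := by positivity
  refine ⟨μ / 2, by positivity, ?_⟩
  filter_upwards [hb, fib_bounds h v hv0 hv1 hμ4] with n n1 n2
  have hdp := fun a => dpow_pos B n a
  have hR := class_fin (I n) (lev n v) (f n v) (bad n) n1
  have hB := bad_inc (I n) (lev n v) (bad n) (hdp _) (hdp _).le (hdp μ).le (fun x hx => (n2 x hx).1)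
    (fun x hx => (n2 x hx).2) hR
  refine le_trans (le_of_eq ?_) (hB.trans ?_)
  · rfl
  · have h0 : (0:ℝ) ≤ ((I n).card : ℝ) := Nat.cast_nonneg _
    refine mul_le_mul_of_nonneg_right ?_ h0
    rw [← Real.rpow_sub (B.pos n), ← dpow_add]
    refine le_of_eq ?_
    congr 1
    ring

end

section

variable {B : Base} {I : ℕ → Finset (ℕ × ℝ)} {L : ℕ → ℕ → Ln4} {r0 : ℕ → ℝ} {q : Fin 3 → ℝ}
    {G : Geo Plk4 (Fin 3)} {wr cr : Fin 3 → ℕ → ℝ}
    {lev : ℕ → ℚ → ℕ} {A : ℕ → ℝ} {c Λ : ℝ → ℝ} {τ : Fin 3 → ℝ → ℝ} {f : ℕ → ℚ → ℕ → ℤ → ℕ}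
    {b : ℕ → ℚ → ℕ → Plk4} {vm : ℕ → ℚ → ℝ} {w : Fin 3 → ℕ → ℚ → ℝ}

/-- the conclusion of Step A for the sheet `S` at the line `T` -/
def ClA (S : Plk4) (z0 ρ : ℝ) (T : Ln4) (κ : ℝ → V3 → ℝ) (Λ : ℝ) : Prop :=
  ∀ z, z0 ≤ z → z ≤ z0 + ρ → ∀ Y : V3, |S.q z Y| ≤ S.a → |pc S.e S.w T z Y 0| ≤ 1 / 2 →
    |pc S.e S.w T z Y 1| ≤ 1 / 32 → |pc S.e S.w T z Y 2| ≤ 1 / 32 → |κ z Y| ≤ Λ

/-- the marks of a marked sequence of sheets -/
theorem mark_ev (h : MkA B I G lev A c Λ τ f b vm w) (hG : GeoS G L r0 q wr cr) {v : ℚ}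
    (hv0 : 0 ≤ v) (hv1 : v ≤ 1) : ∀ᶠ n in (U : Filter ℕ), ∀ J : ℤ,
      ∀ t ∈ alive (I n) (lev n v) J,
      InSheet (L n t) (b n v (f n v t J)).e (b n v (f n v t J)).c (b n v (f n v t J)).w
        (b n v (f n v t J)).q (b n v (f n v t J)).a (zl (lev n v) J) (rho (lev n v)) ∧
      (ShN (b n v (f n v t J)).e (b n v (f n v t J)).c (b n v (f n v t J)).w
        (b n v (f n v t J)).q (b n v (f n v t J)).a (zl (lev n v) J) (rho (lev n v)) (r0 n) ∧
        (b n v (f n v t J)).w 1 ≤ rho (lev n v)) ∧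
      G.val n (lev n v) J (b n v (f n v t J)) = vm n v ∧
      ((b n v (f n v t J)).a = w 0 n v ∧ (b n v (f n v t J)).w 1 = w 1 n v ∧
        (b n v (f n v t J)).w 2 = w 2 n v) := by
  filter_upwards [h.mark v hv0 hv1] with n hn J t ht
  obtain ⟨h1, h2, h3, h4⟩ := hn J t ht
  refine ⟨(hG.mem _ _ _ _ _).1 h1, hG.adm _ _ _ _ h2, h3, ?_, ?_, ?_⟩
  · have := h4 0; rw [hG.wid] at this; exact this
  · have := h4 1; rw [hG.wid] at this; exact this
  · have := h4 2; rw [hG.wid] at this; exact this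

/-- **Step A, sequence form**, for a model `m` of the marks whose thickness is `d ^ (-K)` times the
thickness of the mark.  `C` depends on the exponents only. -/
theorem crude_gen {q : Fin 3 → ℝ} (hq : 0 < q 1 + q 2) (hq0 : 0 ≤ q 0) : ∃ C : ℝ, 1 ≤ C ∧
    ∀ {B : Base} {I : ℕ → Finset (ℕ × ℝ)} {L : ℕ → ℕ → Ln4} {r0 : ℕ → ℝ}
    {G : Geo Plk4 (Fin 3)} {wr cr : Fin 3 → ℕ → ℝ}
    {lev : ℕ → ℚ → ℕ} {A : ℕ → ℝ} {c Λ : ℝ → ℝ} {τ : Fin 3 → ℝ → ℝ} {f : ℕ → ℚ → ℕ → ℤ → ℕ}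
    {b : ℕ → ℚ → ℕ → Plk4} {vm : ℕ → ℚ → ℝ} {w : Fin 3 → ℕ → ℚ → ℝ},
    MkA B I G lev A c Λ τ f b vm w → GeoS G L r0 q wr cr → (∀ n, 0 < r0 n) →
    ∀ {v : ℚ}, 0 ≤ v → v ≤ 1 →
    (∀ (C : ℝ) (k : Fin 3), ∀ᶠ n in (U : Filter ℕ), wr k n ≤ B.d n ^ C * w k n v ∧
      w k n v ≤ B.d n ^ C * cr k n) →
    ∀ {K : ℝ}, 0 ≤ K → ∀ (m : ℕ → Plk4 → Plk4) (Gd : ℕ → Plk4 → Prop),
    (∀ᶠ n in (U : Filter ℕ), ∀ J : ℤ, ∀ t ∈ alive (I n) (lev n v) J, ∀ S : Plk4,
      S = b n v (f n v t J) → Gd n S →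
      ShN (m n S).e (m n S).c (m n S).w (m n S).q (m n S).a (zl (lev n v) J) (rho (lev n v)) (r0 n) ∧
      (∀ T : Ln4, InSheet T S.e S.c S.w S.q S.a (zl (lev n v) J) (rho (lev n v)) →
        InSheet T (m n S).e (m n S).c (m n S).w (m n S).q (m n S).a (zl (lev n v) J)
          (rho (lev n v))) ∧
      (m n S).e = S.e ∧ (m n S).w 1 = S.w 1 ∧ (m n S).w 2 = S.w 2 ∧
        (m n S).a = B.d n ^ (-K) * S.a) →
    ∀ {κ : ℕ → ℝ → V3 → ℝ}, (∀ n, IsQ (κ n)) → ∀ {lam : ℕ → ℝ}, (∀ n, 0 < lam n) →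
    (∀ᶠ n in (U : Filter ℕ), ∀ J : ℤ, ∀ t ∈ alive (I n) (lev n v) J, ∀ z, zl (lev n v) J ≤ z →
      z ≤ zl (lev n v) J + rho (lev n v) → ∀ s : ℝ, |s| ≤ 8 * (B.d n ^ (-K) * w 0 n v) →
        |κ n z ((L n t).pos z + s • (b n v (f n v t J)).e 0)| ≤ lam n) →
    ∀ {ε : ℝ}, 0 < ε →
    Negl B I fun n x =>
      Gd n (b n v (f n v x.1 (zc (lev n v) x.2))) ∧
      B.d n ^ (-((ε + (1 + q 0) * K) * C)) * (m n (b n v (f n v x.1 (zc (lev n v) x.2)))).a ≤
        (m n (b n v (f n v x.1 (zc (lev n v) x.2)))).w 0 ∧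
      ¬ ClA (m n (b n v (f n v x.1 (zc (lev n v) x.2)))) (zl (lev n v) (zc (lev n v) x.2))
        (rho (lev n v)) (L n x.1) (κ n) (B.d n ^ (-((ε + (1 + q 0) * K) * C)) * lam n) := by
  classical
  obtain ⟨C, hC1, hC⟩ := stepA_num' hq
  refine ⟨C, hC1, ?_⟩
  intro B I L r0 G wr cr lev A c Λ τ f b vm w h hG hr0 v hv0 hv1 hR K hK m Gd hm κ hκ lam hlam
    hcap ε hε
  have hmark := mark_ev h hG hv0 hv1
  set δ : ℝ := ε + (1 + q 0) * K with hδ
  have hδ0 : 0 < δ := by rw [hδ]; positivity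
  have hεδ : ε ≤ δ := by
    rw [hδ]
    have : 0 ≤ (1 + q 0) * K := by positivity
    linarith
  obtain ⟨bad, hbadi⟩ : ∃ bad : ℕ → ℕ × ℤ → Prop, ∀ n o, bad n o ↔
      (Gd n (b n v (f n v o.1 o.2)) ∧
      B.d n ^ (-(δ * C)) * (m n (b n v (f n v o.1 o.2))).a ≤ (m n (b n v (f n v o.1 o.2))).w 0 ∧
      ¬ ClA (m n (b n v (f n v o.1 o.2))) (zl (lev n v) o.2)
        (rho (lev n v)) (L n o.1) (κ n) (B.d n ^ (-(δ * C)) * lam n)) :=
    ⟨_, fun _ _ => Iff.rfl⟩
  suffices hs : Negl B I fun n x => bad n (x.1, zc (lev n v) x.2) from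
    hs.mono (Eventually.of_forall fun n x _ hx => (hbadi _ _).2 hx)
  refine negl_class h hv0 hv1 bad hδ0 ?_
  filter_upwards [hmark, hm, hcap, h.near v hv0 hv1 ε hε, h.dmax v hv0 hv1 ε hε,
    ev_const B (C := 2) (by norm_num) hδ0, hR (δ * C) 1, hR (δ * C) 2, hR K 0, h.vpos v hv0 hv1]
    with n n1 n2 n3 n4 n5 n6 n7 n8 n9 n10 J t0 ht0
  have hdp := fun a => dpow_pos B n a
  have hamp : 0 < ampA B A c n v := mul_pos (h.Apos n) (hdp _)
  set S := b n v (f n v t0 J) with hS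
  set Cl := (alive (I n) (lev n v) J).filter fun s => f n v s J = f n v t0 J with hCl
  have hbS : ∀ s ∈ Cl, s ∈ alive (I n) (lev n v) J ∧ b n v (f n v s J) = S := by
    intro s hs
    have := mem_filter.1 hs
    exact ⟨this.1, by rw [hS, this.2]⟩
  have hCl0 : (0:ℝ) ≤ (Cl.card : ℝ) := Nat.cast_nonneg _
  by_cases hgd : Gd n S ∧ B.d n ^ (-(δ * C)) * (m n S).a ≤ (m n S).w 0
  swap
  · have hnn : (0:ℝ) ≤ B.d n ^ δ * (Cl.card : ℝ) := mul_nonneg (hdp δ).le hCl0
    refine le_trans (le_of_eq ?_) hnn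
    rw [Nat.cast_eq_zero, card_eq_zero, filter_eq_empty_iff]
    intro s hs hbad
    have hb := (hbS s hs).2
    rw [hbadi] at hbad
    simp only [hb] at hbad
    exact hgd ⟨hbad.1, hbad.2.1⟩
  obtain ⟨hg1, hg2⟩ := hgd
  obtain ⟨hmem, ⟨hadm, hw1⟩, hval, hwd0, hwd1, hwd2⟩ := n1 J t0 ht0
  rw [← hS] at hmem hadm hw1 hval hwd0 hwd1 hwd2
  obtain ⟨hShM, hInM, heM, hw1M, hw2M, haM⟩ := n2 J t0 ht0 S hS hg1
  set M := m n S with hM
  have hrp := hr0 n
  have hap : 0 < S.a := by linarith [hadm.r0_le]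
  have hw0 : 0 < S.w 0 := by linarith [hadm.a_le0]
  have hw2 : 0 < S.w 2 := by linarith [hadm.w0_le]
  have hw1p : 0 < S.w 1 := by linarith [hadm.w_le]
  have hMa : 0 < M.a := by rw [haM]; exact mul_pos (hdp _) hap
  have hρ := rho_pos (lev n v)
  set X : ℝ := B.d n ^ (-δ) with hX
  have hXp : 0 < X := hdp _
  have hXC : X ^ C = B.d n ^ (-(δ * C)) := by
    rw [hX, ← Real.rpow_mul (B.pos n).le]; congr 1; ring
  have hvM : vS (q 0) (q 1) (q 2) (rho (lev n v)) M.a (M.w 2) (M.w 1) =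
      B.d n ^ (-((1 + q 0) * K)) * vm n v := by
    rw [hG.val] at hval
    rw [← hval, hw1M, hw2M, haM]
    unfold vS
    have e1 : B.d n ^ (-K) * S.a / rho (lev n v) = B.d n ^ (-K) * (S.a / rho (lev n v)) := by ring
    rw [e1, Real.mul_rpow (hdp _).le (by positivity), ← Real.rpow_mul (B.pos n).le]
    have e2 : B.d n ^ (-((1 + q 0) * K)) = B.d n ^ (-K) * B.d n ^ (-K * q 0) := by
      rw [← dpow_add]; congr 1; ring
    rw [e2]
    ring
  have hfin := hC Cl (L n) M.e M.c M.w M.q M.a (zl (lev n v) J) (rho (lev n v)) (r0 n) (q 0)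
    (ampA B A c n v) X (lam n) (κ n) hShM hMa hρ (by
      intro u hu
      obtain ⟨hu1, hu2⟩ := hbS u hu
      have := (n1 J u hu1).1
      rw [hu2] at this
      exact hInM _ this) (hκ n) (hlam n) (by
      intro u hu z hz hz' s hs
      obtain ⟨hu1, hu2⟩ := hbS u hu
      have := n3 J u hu1 z hz hz' s (by rw [← hwd0, ← haM]; exact hs)
      rw [hu2] at this
      rw [heM]
      exact this) n6 (by rw [hXC]; exact hg2) hamp.le (by
      intro c' w' hS' h1 h2 h3 h4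
      rw [hXC] at h1 h2
      have hkk : ∀ y z : ℝ, 0 ≤ z → y ≤ B.d n ^ (-(δ * C)) * z → B.d n ^ (δ * C) * y ≤ z := by
        intro y z hz hy
        have h5 := mul_le_mul_of_nonneg_left hy (hdp (δ * C)).le
        rw [← mul_assoc, ← dpow_add, add_neg_cancel, Real.rpow_zero, one_mul] at h5
        exact h5
      have hw'0 : 0 ≤ w' 0 := hMa.le.trans hS'.a_le0
      have hw'2 : 0 ≤ w' 2 := hw'0.trans hS'.w0_le
      have hw'1 : 0 ≤ w' 1 := hw'2.trans hS'.w_le
      have hd1 : ∀ y : ℝ, 0 ≤ y → B.d n ^ (δ * C) * y ≤ y := by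
        intro y hy
        have := dpow_le_one B n (a := δ * C) (by positivity)
        have := mul_le_mul_of_nonneg_right this hy
        linarith
      have hcr1 : ∀ k : Fin 3, k ≠ 0 → w k n v ≤ B.d n ^ (δ * C) * cr k n → 0 < w k n v →
          w k n v ≤ cr k n := by
        intro k hk h5 h6
        have h7 : 0 < cr k n := by
          by_contra h8
          push Not at h8
          have := mul_nonpos_of_nonneg_of_nonpos (hdp (δ * C)).le h8
          linarith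
        exact h5.trans (hd1 _ h7.le)
      have hadmT := hG.adm' n (lev n v) J ⟨J, M.e, c', w', M.q, M.a⟩ hS'
        (h3.trans (hw1M.le.trans hw1)) (by
          intro k
          fin_cases k
          · refine ⟨?_, ?_⟩
            · show wr 0 n ≤ M.a
              rw [haM, hwd0]
              have h5 := n9.1
              have h6 : B.d n ^ K ≤ 1 := dpow_le_one B n hK
              have h7 : 1 ≤ B.d n ^ (-K) := by
                rw [← Real.rpow_zero (B.d n)]
                exact dpow_le B n (by linarith)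
              have h8 : 0 < w 0 n v := by rw [← hwd0]; exact hap
              nlinarith
            · show M.a ≤ cr 0 n
              rw [haM, hwd0]
              have h5 := mul_le_mul_of_nonneg_left n9.2 (hdp (-K)).le
              rw [← mul_assoc, ← dpow_add, neg_add_cancel, Real.rpow_zero, one_mul] at h5
              exact h5
          · refine ⟨?_, ?_⟩
            · show wr 1 n ≤ w' 1
              refine n7.1.trans ?_
              rw [← hwd1, ← hw1M]
              exact hkk _ _ hw'1 h1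
            · show w' 1 ≤ cr 1 n
              refine h3.trans ?_
              rw [hw1M, hwd1]
              exact hcr1 1 (by decide) n7.2 (by rw [← hwd1]; exact hw1p)
          · refine ⟨?_, ?_⟩
            · show wr 2 n ≤ w' 2
              refine n8.1.trans ?_
              rw [← hwd2, ← hw2M]
              exact hkk _ _ hw'2 h2
            · show w' 2 ≤ cr 2 n
              refine h4.trans ?_
              rw [hw2M, hwd2]
              exact hcr1 2 (by decide) n8.2 (by rw [← hwd2]; exact hw2))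
      have h5 := n5 J ⟨J, M.e, c', w', M.q, M.a⟩ hadmT
      rw [hG.val] at h5
      have h6 : ((Cl.filter fun u => InSheet (L n u) M.e c' w' M.q M.a (zl (lev n v) J)
          (rho (lev n v))).card : ℝ) ≤ (((alive (I n) (lev n v) J).filter fun t =>
            G.mem n (lev n v) J ⟨J, M.e, c', w', M.q, M.a⟩ t).card : ℝ) := by
        norm_cast
        refine card_le_card fun u hu => ?_
        have hu' := mem_filter.1 hu
        exact mem_filter.2 ⟨(hbS u hu'.1).1, (hG.mem _ _ _ _ _).2 hu'.2⟩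
      refine (h6.trans h5).trans ?_
      have h7 : B.d n ^ (-ε) ≤ X := by
        rw [hX]
        exact dpow_le B n (neg_le_neg hεδ)
      have h8 := vS_nonneg (q0 := q 0) (q1 := q 1) (q2 := q 2) hρ.le hMa.le hw'2 hw'1
      have h9 := mul_le_mul_of_nonneg_right h7 (mul_nonneg hamp.le h8)
      refine le_trans (le_of_eq ?_) h9
      unfold vS
      ring) (by
      rw [hvM]
      have h5 := n4 J t0 ht0
      have h6 := mul_le_mul_of_nonneg_left h5 (hdp (-((1 + q 0) * K))).le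
      have e1 : X = B.d n ^ (-((1 + q 0) * K)) * B.d n ^ (-ε) := by
        rw [hX, ← dpow_add]; congr 1; rw [hδ]; ring
      rw [e1]
      calc ampA B A c n v * (B.d n ^ (-((1 + q 0) * K)) * vm n v)
          = B.d n ^ (-((1 + q 0) * K)) * (ampA B A c n v * vm n v) := by ring
        _ ≤ _ := h6
        _ = _ := by ring)
  obtain ⟨Bad, hBad1, hBad2, hBad3⟩ := hfin
  refine le_trans (b := (Bad.card : ℝ)) ?_ (hBad2.trans (le_of_eq ?_))
  · norm_cast
    refine card_le_card fun s hs => ?_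
    have hs' := mem_filter.1 hs
    have hb := (hbS s hs'.1).2
    by_contra hnb
    have hh := (hbadi _ _).1 hs'.2
    simp only [hb] at hh
    refine hh.2.2 ?_
    intro z hz hz' Y g1 g2 g3 g4
    have := hBad3 s hs'.1 hnb z hz hz' Y g1 g2 g3 g4
    rw [hXC] at this
    exact this
  · rw [hX, Real.rpow_neg (B.pos n).le, div_inv_eq_mul, mul_comm]

/-- **thick marks**: if all lines are in the container `{|κ| ≤ lam}` then `|κ| ≤ d ^ (-ε) lam` on the
chart of the mark around the line, whenever `d ^ (-ε) a ≤ w 0` -/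
theorem crude_thick (hq : 0 < q 1 + q 2) (hq0 : 0 ≤ q 0) (h : MkA B I G lev A c Λ τ f b vm w)
    (hG : GeoS G L r0 q wr cr) (hr0 : ∀ n, 0 < r0 n) {v : ℚ} (hv0 : 0 ≤ v) (hv1 : v ≤ 1)
    (hR : ∀ (C : ℝ) (k : Fin 3), ∀ᶠ n in (U : Filter ℕ), wr k n ≤ B.d n ^ C * w k n v ∧
      w k n v ≤ B.d n ^ C * cr k n)
    {κ : ℕ → ℝ → V3 → ℝ} (hκ : ∀ n, IsQ (κ n)) {lam : ℕ → ℝ} (hlam : ∀ n, 0 < lam n)
    (hcap : ∀ᶠ n in (U : Filter ℕ), ∀ J : ℤ, ∀ t ∈ alive (I n) (lev n v) J, ∀ z,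
      zl (lev n v) J ≤ z → z ≤ zl (lev n v) J + rho (lev n v) → ∀ s : ℝ, |s| ≤ 8 * w 0 n v →
        |κ n z ((L n t).pos z + s • (b n v (f n v t J)).e 0)| ≤ lam n) {ε : ℝ} (hε : 0 < ε) :
    Negl B I fun n x =>
      B.d n ^ (-ε) * (b n v (f n v x.1 (zc (lev n v) x.2))).a ≤
        (b n v (f n v x.1 (zc (lev n v) x.2))).w 0 ∧
      ¬ ClA (b n v (f n v x.1 (zc (lev n v) x.2))) (zl (lev n v) (zc (lev n v) x.2))
        (rho (lev n v)) (L n x.1) (κ n) (B.d n ^ (-ε) * lam n) := by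
  obtain ⟨C, hC1, hC⟩ := crude_gen (q := q) hq hq0
  have hC0 : 0 < C := by linarith
  have key := hC h hG hr0 hv0 hv1 hR (K := 0) le_rfl (fun _ S => S) (fun _ _ => True) (by
    filter_upwards [mark_ev h hG hv0 hv1] with n hn J t ht S hS _
    obtain ⟨h1, ⟨h2, h3⟩, -⟩ := hn J t ht
    rw [← hS] at h2
    refine ⟨h2, fun T hT => hT, rfl, rfl, rfl, ?_⟩
    rw [neg_zero, Real.rpow_zero, one_mul]) hκ hlam (by
    filter_upwards [hcap] with n hn J t ht z hz hz' s hs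
    refine hn J t ht z hz hz' s ?_
    rw [neg_zero, Real.rpow_zero, one_mul] at hs
    exact hs) (ε := ε / C) (by positivity)
  have e1 : (ε / C + (1 + q 0) * 0) * C = ε := by field_simp; ring
  rw [e1] at key
  refine key.mono (Eventually.of_forall fun n x _ hx => ⟨trivial, hx⟩)

/-- **thin marks** (`w 0 ≤ d ^ (-K) a`), not tube-like: `|κ| ≤ d ^ (-C) lam` on the affine model of
the mark around the line -/
theorem crude_thin (hq : 0 < q 1 + q 2) (hq0 : 0 ≤ q 0) (h : MkA B I G lev A c Λ τ f b vm w)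
    (hG : GeoS G L r0 q wr cr) (hr0 : ∀ n, 0 < r0 n) {v : ℚ} (hv0 : 0 ≤ v) (hv1 : v ≤ 1)
    (hR : ∀ (C : ℝ) (k : Fin 3), ∀ᶠ n in (U : Filter ℕ), wr k n ≤ B.d n ^ C * w k n v ∧
      w k n v ≤ B.d n ^ C * cr k n)
    {κ : ℕ → ℝ → V3 → ℝ} (hκ : ∀ n, IsQ (κ n)) {lam : ℕ → ℝ} (hlam : ∀ n, 0 < lam n)
    {K : ℝ} (hK : 0 ≤ K)
    (hcap : ∀ᶠ n in (U : Filter ℕ), ∀ J : ℤ, ∀ t ∈ alive (I n) (lev n v) J, ∀ z,
      zl (lev n v) J ≤ z → z ≤ zl (lev n v) J + rho (lev n v) → ∀ s : ℝ,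
      |s| ≤ 8 * (B.d n ^ (-K) * w 0 n v) →
        |κ n z ((L n t).pos z + s • (b n v (f n v t J)).e 0)| ≤ lam n) :
    ∃ C : ℝ, K ≤ C ∧ Negl B I fun n x =>
      (b n v (f n v x.1 (zc (lev n v) x.2))).w 0 ≤
        B.d n ^ (-K) * (b n v (f n v x.1 (zc (lev n v) x.2))).a ∧
      B.d n ^ (-C) * (b n v (f n v x.1 (zc (lev n v) x.2))).a ≤
        (b n v (f n v x.1 (zc (lev n v) x.2))).w 2 ∧
      ¬ ∀ z, zl (lev n v) (zc (lev n v) x.2) ≤ z →
        z ≤ zl (lev n v) (zc (lev n v) x.2) + rho (lev n v) → ∀ Y : V3,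
        |dt ((b n v (f n v x.1 (zc (lev n v) x.2))).e 0)
          (Y - (b n v (f n v x.1 (zc (lev n v) x.2))).c.pos z)| ≤
            B.d n ^ (-K) * (b n v (f n v x.1 (zc (lev n v) x.2))).a →
        |dt ((b n v (f n v x.1 (zc (lev n v) x.2))).e 1) (Y - (L n x.1).pos z)| ≤
          (b n v (f n v x.1 (zc (lev n v) x.2))).w 1 / 32 →
        |dt ((b n v (f n v x.1 (zc (lev n v) x.2))).e 2) (Y - (L n x.1).pos z)| ≤
          (b n v (f n v x.1 (zc (lev n v) x.2))).w 2 / 32 →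
        |κ n z Y| ≤ B.d n ^ (-C) * lam n := by
  obtain ⟨C0, hC1, hC⟩ := crude_gen (q := q) hq hq0
  have hC0 : 0 < C0 := by linarith
  have hqK : 0 ≤ (1 + q 0) * K := by positivity
  have key := hC h hG hr0 hv0 hv1 hR hK
    (fun n S => ⟨S.j, S.e, S.c, ![S.w 2, S.w 1, S.w 2], qaf S.e S.c, B.d n ^ (-K) * S.a⟩)
    (fun n S => S.w 0 ≤ B.d n ^ (-K) * S.a ∧ B.d n ^ (-K) * S.a ≤ S.w 2) (by
    filter_upwards [mark_ev h hG hv0 hv1] with n hn J t ht S hS hGd
    obtain ⟨h1, ⟨h2, h3⟩, -⟩ := hn J t ht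
    rw [← hS] at h2
    have hap : 0 < S.a := by linarith [h2.r0_le, hr0 n]
    have hk1 : 1 ≤ B.d n ^ (-K) := by
      rw [← Real.rpow_zero (B.d n)]
      exact dpow_le B n (by linarith)
    have hA : 0 < B.d n ^ (-K) * S.a := by positivity
    have hle : S.a ≤ B.d n ^ (-K) * S.a := le_mul_of_one_le_left hap.le hk1
    have hw : wcig S.w (B.d n ^ (-K) * S.a) = ![S.w 2, S.w 1, S.w 2] := by
      unfold wcig
      rw [max_eq_left hGd.2, max_eq_left (hGd.2.trans h2.w_le)]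
    have hT := (cig_ShN0 h2.ortho S.c (w := S.w) (z0 := zl (lev n v) J) (ρ := rho (lev n v))
      (r0 := r0 n) hA (h2.r0_le.trans hle) h2.w_le).toN
    rw [hw] at hT
    refine ⟨hT, fun T hT => ?_, rfl, rfl, rfl, rfl⟩
    have := in_cig hGd.1 h2.w0_le hT
    rw [hw] at this
    exact this) hκ hlam hcap (ε := 1) one_pos
  refine ⟨(1 + (1 + q 0) * K) * C0 + K, ?_, key.mono ?_⟩
  · nlinarith
  have h1 : 0 < (1 + (1 + q 0) * K) * C0 := by positivity
  filter_upwards [mark_ev h hG hv0 hv1, ev_const B (C := 4) (by norm_num) h1] with n hn n2 x hx hbad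
  have hal : x.1 ∈ alive (I n) (lev n v) (zc (lev n v) x.2) := mem_alive.2 ⟨x, hx, rfl, rfl⟩
  obtain ⟨hmem, ⟨hadm, hw1⟩, -, -⟩ := hn _ _ hal
  set i := lev n v with hi
  set J := zc i x.2 with hJ
  set S := b n v (f n v x.1 J) with hS
  have hap : 0 < S.a := by linarith [hadm.r0_le, hr0 n]
  have hw0 : 0 < S.w 0 := by linarith [hadm.a_le0]
  have hw2 : 0 < S.w 2 := by linarith [hadm.w0_le]
  have hw1p : 0 < S.w 1 := by linarith [hadm.w_le]
  have hlam' := hlam n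
  have hKp : 0 < B.d n ^ (-K) * S.a := mul_pos (dpow_pos B n _) hap
  have e1 : B.d n ^ (-((1 + (1 + q 0) * K) * C0 + K)) =
      B.d n ^ (-((1 + (1 + q 0) * K) * C0)) * B.d n ^ (-K) := by
    rw [← dpow_add]; congr 1; ring
  obtain ⟨b1, b2, b3⟩ := hbad
  rw [e1] at b2 b3
  have b4 : 4 * (B.d n ^ (-K) * S.a) ≤ S.w 2 := by
    refine le_trans ?_ b2
    rw [mul_assoc]
    exact mul_le_mul_of_nonneg_right n2 hKp.le
  refine ⟨⟨b1, by linarith⟩, ?_, ?_⟩
  · show B.d n ^ (-((1 + (1 + q 0) * K) * C0)) * (B.d n ^ (-K) * S.a) ≤ S.w 2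
    rw [← mul_assoc]; exact b2
  · intro hcl
    refine b3 fun z hz hz' Y g0 g1 g2 => ?_
    have g3 := hcl z hz hz' Y (by
      show |qaf S.e S.c z Y| ≤ _
      exact g0) (by
      show |dt (S.e 0) (Y - (L n x.1).pos z) / S.w 2| ≤ 1 / 2
      rw [abs_div, abs_of_pos hw2, div_le_iff₀ hw2]
      have h5 := (hmem z hz hz').1 0
      have h6 : dt (S.e 0) (Y - (L n x.1).pos z) =
          dt (S.e 0) (Y - S.c.pos z) - dt (S.e 0) ((L n x.1).pos z - S.c.pos z) := by
        simp only [dt, Pi.sub_apply]; ring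
      rw [h6]
      have h7 := abs_sub (dt (S.e 0) (Y - S.c.pos z)) (dt (S.e 0) ((L n x.1).pos z - S.c.pos z))
      linarith) (by
      show |dt (S.e 1) (Y - (L n x.1).pos z) / S.w 1| ≤ 1 / 32
      rw [abs_div, abs_of_pos hw1p, div_le_iff₀ hw1p]
      linarith) (by
      show |dt (S.e 2) (Y - (L n x.1).pos z) / S.w 2| ≤ 1 / 32
      rw [abs_div, abs_of_pos hw2, div_le_iff₀ hw2]
      linarith)
    refine g3.trans ?_
    refine mul_le_mul_of_nonneg_right ?_ hlam'.le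
    have hk1 : 1 ≤ B.d n ^ (-K) := by
      rw [← Real.rpow_zero (B.d n)]
      exact dpow_le B n (by linarith)
    exact le_mul_of_one_le_right (dpow_pos B n _).le hk1

end

end Crest.Agent.R136.Sa214
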