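import Mathlib

/-!
# R136 (helper57): sublevel sets of functions with non-degenerate Hessian, finite form

`S` = a finite set of integer vectors `n : Fin 3 → ℕ` (grid points `α n` of the unit box),
`F` = values of the function, `G i` = values of the partial derivatives, `H` = the (nearly constant)
Hessian.  If one `2 × 2` minor of `H` is `≥ m`, then

  `#{n ∈ S : |F n| ≤ β} ≤ C (log) K^4 β / (m^2 α^3)`.

* `card_diam`, `card3`, `card3'` : counting
* `Sb` : the data, (nearly) constant Hessian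
* `Sb.win` : two points with small gradient and nearly the same third coordinate are near
* `Sb.low`, `Sb.level`, `Sb.total`
* `Sc`, `Sc.total` : variable Hessian, points of large gradient or with a large `2 × 2` minor
-/

set_option autoImplicit false

open Finset

namespace Crest.Agent.R136.Sbl57

/-! ### counting -/

/-- a finite set of naturals of diameter `≤ D` -/
theorem card_diam {A : Finset ℕ} {D : ℝ} (hD : 0 ≤ D)
    (h : ∀ a ∈ A, ∀ b ∈ A, |(a : ℝ) - b| ≤ D) : (A.card : ℝ) ≤ D + 1 := by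
  rcases A.eq_empty_or_nonempty with rfl | hne
  · simp; linarith
  · obtain ⟨m, hm, hmin⟩ := A.exists_min_image id hne
    have hsub : A ⊆ Finset.Icc m (m + ⌊D⌋₊) := by
      intro a ha
      have h1 : m ≤ a := hmin a ha
      have h2 := h a ha m hm
      rw [mem_Icc]
      refine ⟨h1, ?_⟩
      have h3 : ((a - m : ℕ) : ℝ) ≤ D := by
        rw [Nat.cast_sub h1]; exact (le_abs_self _).trans h2
      have h4 : a - m ≤ ⌊D⌋₊ := Nat.le_floor h3
      omega
    have h6 := card_le_card hsub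
    rw [Nat.card_Icc] at h6
    have h5 : (A.card : ℝ) ≤ (⌊D⌋₊ : ℝ) + 1 := by
      have : A.card ≤ ⌊D⌋₊ + 1 := by omega
      exact_mod_cast this
    linarith [Nat.floor_le hD]

/-- a finite set of triples: few values of the coordinate `o`, bounded windows in `k`, `l` -/
theorem card3 {A : Finset (Fin 3 → ℕ)} {k l o : Fin 3} (hp : ∀ j, j = k ∨ j = l ∨ j = o)
    {X D1 D2 : ℝ} (hX : ((A.image fun a => a o).card : ℝ) ≤ X) (h1 : 0 ≤ D1) (h2 : 0 ≤ D2)
    (hk : ∀ a ∈ A, ∀ b ∈ A, a o = b o → |(a k : ℝ) - b k| ≤ D1)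
    (hl : ∀ a ∈ A, ∀ b ∈ A, a o = b o → |(a l : ℝ) - b l| ≤ D2) :
    (A.card : ℝ) ≤ X * ((D1 + 1) * (D2 + 1)) := by
  classical
  have hfib : ∀ z ∈ A.image fun a => a o,
      ((A.filter fun a => a o = z).card : ℝ) ≤ (D1 + 1) * (D2 + 1) := by
    intro z _
    set Az := A.filter fun a => a o = z with hAz
    have hinj : (Az.card : ℝ) ≤ ((Az.image fun a => a k) ×ˢ (Az.image fun a => a l)).card := by
      have : Az.card ≤ ((Az.image fun a => a k) ×ˢ (Az.image fun a => a l)).card := by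
        refine card_le_card_of_injOn (fun a => (a k, a l)) (fun a ha => ?_) ?_
        · have ha' : a ∈ Az := ha
          exact mem_coe.2 (mem_product.2 ⟨mem_image_of_mem _ ha', mem_image_of_mem _ ha'⟩)
        · intro a ha b hb hab
          have ha' := (mem_filter.1 (mem_coe.1 ha)).2
          have hb' := (mem_filter.1 (mem_coe.1 hb)).2
          simp only [Prod.mk.injEq] at hab
          funext j
          rcases hp j with rfl | rfl | rfl
          · exact hab.1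
          · exact hab.2
          · rw [ha', hb']
      exact_mod_cast this
    rw [card_product, Nat.cast_mul] at hinj
    refine hinj.trans ?_
    have c1 : ((Az.image fun a => a k).card : ℝ) ≤ D1 + 1 := by
      refine card_diam h1 ?_
      intro u hu v hv
      obtain ⟨a, ha, rfl⟩ := mem_image.1 hu
      obtain ⟨b, hb, rfl⟩ := mem_image.1 hv
      have ha' := mem_filter.1 ha
      have hb' := mem_filter.1 hb
      exact hk a ha'.1 b hb'.1 (by rw [ha'.2, hb'.2])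
    have c2 : ((Az.image fun a => a l).card : ℝ) ≤ D2 + 1 := by
      refine card_diam h2 ?_
      intro u hu v hv
      obtain ⟨a, ha, rfl⟩ := mem_image.1 hu
      obtain ⟨b, hb, rfl⟩ := mem_image.1 hv
      have ha' := mem_filter.1 ha
      have hb' := mem_filter.1 hb
      exact hl a ha'.1 b hb'.1 (by rw [ha'.2, hb'.2])
    exact mul_le_mul c1 c2 (Nat.cast_nonneg _) (by linarith)
  have hsum : (A.card : ℝ) = ∑ z ∈ A.image (fun a => a o), ((A.filter fun a => a o = z).card : ℝ) := by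
    have := card_eq_sum_card_image (fun a : Fin 3 → ℕ => a o) A
    exact_mod_cast this
  rw [hsum]
  refine (sum_le_sum hfib).trans ?_
  rw [sum_const, nsmul_eq_mul]
  exact mul_le_mul_of_nonneg_right hX (by positivity)

/-- a finite set of triples: few values of two coordinates, bounded windows in the third -/
theorem card3' {A : Finset (Fin 3 → ℕ)} {j1 j2 i : Fin 3} (hp : ∀ j, j = j1 ∨ j = j2 ∨ j = i)
    {X Y D : ℝ} (hX : ((A.image fun a => a j1).card : ℝ) ≤ X)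
    (hY : ((A.image fun a => a j2).card : ℝ) ≤ Y) (hX0 : 0 ≤ X) (hD : 0 ≤ D)
    (h : ∀ a ∈ A, ∀ b ∈ A, a j1 = b j1 → a j2 = b j2 → |(a i : ℝ) - b i| ≤ D) :
    (A.card : ℝ) ≤ X * Y * (D + 1) := by
  classical
  set I := (A.image fun a => a j1) ×ˢ (A.image fun a => a j2) with hI
  have hmap : ∀ a ∈ A, ((a j1, a j2) : ℕ × ℕ) ∈ I := fun a ha =>
    mem_product.2 ⟨mem_image_of_mem _ ha, mem_image_of_mem _ ha⟩
  have hsum : (A.card : ℝ) =
      ∑ z ∈ I, ((A.filter fun a => ((a j1, a j2) : ℕ × ℕ) = z).card : ℝ) := by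
    have := card_eq_sum_card_fiberwise (f := fun a : Fin 3 → ℕ => ((a j1, a j2) : ℕ × ℕ))
      (s := A) (t := I) hmap
    exact_mod_cast this
  have hfib : ∀ z ∈ I, ((A.filter fun a => ((a j1, a j2) : ℕ × ℕ) = z).card : ℝ) ≤ D + 1 := by
    intro z _
    set Az := A.filter fun a => ((a j1, a j2) : ℕ × ℕ) = z with hAz
    have hinj : Az.card = (Az.image fun a => a i).card := by
      rw [card_image_of_injOn]
      intro a ha b hb hab
      have ha' := (mem_filter.1 (mem_coe.1 ha)).2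
      have hb' := (mem_filter.1 (mem_coe.1 hb)).2
      rw [← hb', Prod.mk.injEq] at ha'
      funext j
      rcases hp j with rfl | rfl | rfl
      · exact ha'.1
      · exact ha'.2
      · exact hab
    rw [hinj]
    refine card_diam hD ?_
    intro u hu v hv
    obtain ⟨a, ha, rfl⟩ := mem_image.1 hu
    obtain ⟨b, hb, rfl⟩ := mem_image.1 hv
    have ha' := mem_filter.1 ha
    have hb' := mem_filter.1 hb
    have e := ha'.2.trans hb'.2.symm
    rw [Prod.mk.injEq] at e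
    exact h a ha'.1 b hb'.1 e.1 e.2
  rw [hsum]
  refine (sum_le_sum hfib).trans ?_
  rw [sum_const, nsmul_eq_mul, hI, card_product, Nat.cast_mul]
  refine mul_le_mul_of_nonneg_right ?_ (by linarith)
  exact mul_le_mul hX hY (Nat.cast_nonneg _) hX0

/-- number of values of `n j / b` when `n j` runs in a window -/
theorem card_div {A : Finset (Fin 3 → ℕ)} {j : Fin 3} {b : ℕ} (hb : 0 < b) {D : ℝ} (hD : 0 ≤ D)
    (h : ∀ n ∈ A, ∀ n' ∈ A, |(n j : ℝ) - n' j| ≤ D) :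
    ((A.image fun n => n j / b).card : ℝ) ≤ D / b + 2 := by
  have hb' : (0 : ℝ) < b := by exact_mod_cast hb
  have hdiv : ∀ x : ℕ, (x : ℝ) / b - 1 ≤ ((x / b : ℕ) : ℝ) ∧ ((x / b : ℕ) : ℝ) ≤ (x : ℝ) / b := by
    intro x
    constructor
    · have h1 : x < (x / b + 1) * b := Nat.lt_mul_of_div_lt (Nat.lt_succ_self _) hb
      have h2 : (x : ℝ) ≤ ((x / b : ℕ) + 1) * b := by exact_mod_cast h1.le
      rw [sub_le_iff_le_add, div_le_iff₀ hb']
      exact h2
    · exact Nat.cast_div_le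
  have := card_diam (A := A.image fun n => n j / b) (D := D / b + 1) (by positivity) (by
    intro u hu v hv
    obtain ⟨x, hx, rfl⟩ := mem_image.1 hu
    obtain ⟨y, hy, rfl⟩ := mem_image.1 hv
    have h1 := h x hx y hy
    have a1 := hdiv (x j)
    have a2 := hdiv (y j)
    have h2 : |(x j : ℝ) / b - (y j : ℝ) / b| ≤ D / b := by
      rw [← sub_div, abs_div, abs_of_pos hb']
      exact div_le_div_of_nonneg_right h1 hb'.le
    rw [abs_le] at h2 ⊢
    constructor <;> linarith [a1.1, a1.2, a2.1, a2.2, h2.1, h2.2])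
  linarith

/-! ### the data -/

/-- first order data on grid points of the unit box -/
structure Sa (S : Finset (Fin 3 → ℕ)) (α K : ℝ) (F : (Fin 3 → ℕ) → ℝ)
    (G : Fin 3 → (Fin 3 → ℕ) → ℝ) : Prop where
  α0 : 0 < α
  α1 : α ≤ 1
  K1 : 1 ≤ K
  box : ∀ n ∈ S, ∀ j, α * (n j : ℝ) ≤ 1
  gb : ∀ n ∈ S, ∀ i, |G i n| ≤ K
  t1 : ∀ n ∈ S, ∀ n' ∈ S, ∀ i, (∀ j, j ≠ i → n j = n' j) →
    |F n' - F n - α * ((n' i : ℝ) - n i) * G i n| ≤ K * ((α * ((n' i : ℝ) - n i)) ^ 2 + α)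

/-- values of a function with nearly constant Hessian on grid points of the unit box -/
structure Sb (S : Finset (Fin 3 → ℕ)) (α K ε : ℝ) (F : (Fin 3 → ℕ) → ℝ)
    (G : Fin 3 → (Fin 3 → ℕ) → ℝ) (H : Fin 3 → Fin 3 → ℝ) : Prop extends Sa S α K F G where
  ε0 : 0 ≤ ε
  εK : ε ≤ K
  hb : ∀ i j, |H i j| ≤ K
  t2 : ∀ n ∈ S, ∀ n' ∈ S, ∀ i, ∀ r : ℝ, (∀ j, |α * ((n' j : ℝ) - n j)| ≤ r) →
    |G i n' - G i n - ∑ j, H i j * (α * ((n' j : ℝ) - n j))| ≤ ε * r + K * α

/-- `m ≤` a `2 × 2` minor of `H`, rows `i j`, columns `k l` -/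
structure Mn (H : Fin 3 → Fin 3 → ℝ) (m : ℝ) (i j k l o : Fin 3) : Prop where
  m0 : 0 < m
  m1 : m ≤ 1
  perm : ∀ f : Fin 3 → ℝ, ∑ s, f s = f k + f l + f o
  cov : ∀ s, s = k ∨ s = l ∨ s = o
  minor : m ≤ |H i k * H j l - H i l * H j k|

theorem cramer {a b c d x y p q m K M : ℝ} (hm : m ≤ |a * d - b * c|) (ha : |a| ≤ K)
    (hb : |b| ≤ K) (hc : |c| ≤ K) (hd : |d| ≤ K) (h1 : a * x + b * y = p)
    (h2 : c * x + d * y = q) (hp : |p| ≤ M) (hq : |q| ≤ M) :
    m * |x| ≤ 2 * K * M ∧ m * |y| ≤ 2 * K * M := by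
  have hK : 0 ≤ K := (abs_nonneg a).trans ha
  have e1 : (a * d - b * c) * x = p * d - q * b := by rw [← h1, ← h2]; ring
  have e2 : (a * d - b * c) * y = q * a - p * c := by rw [← h1, ← h2]; ring
  constructor
  · calc m * |x| ≤ |a * d - b * c| * |x| := mul_le_mul_of_nonneg_right hm (abs_nonneg _)
      _ = |p * d - q * b| := by rw [← abs_mul, e1]
      _ ≤ |p| * |d| + |q| * |b| := by
          have := abs_sub (p * d) (q * b)
          rw [abs_mul, abs_mul] at this; exact this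
      _ ≤ M * K + M * K := add_le_add
          (mul_le_mul hp hd (abs_nonneg _) ((abs_nonneg _).trans hp))
          (mul_le_mul hq hb (abs_nonneg _) ((abs_nonneg _).trans hq))
      _ = 2 * K * M := by ring
  · calc m * |y| ≤ |a * d - b * c| * |y| := mul_le_mul_of_nonneg_right hm (abs_nonneg _)
      _ = |q * a - p * c| := by rw [← abs_mul, e2]
      _ ≤ |q| * |a| + |p| * |c| := by
          have := abs_sub (q * a) (p * c)
          rw [abs_mul, abs_mul] at this; exact this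
      _ ≤ M * K + M * K := add_le_add
          (mul_le_mul hq ha (abs_nonneg _) ((abs_nonneg _).trans hq))
          (mul_le_mul hp hc (abs_nonneg _) ((abs_nonneg _).trans hp))
      _ = 2 * K * M := by ring

section

variable {S : Finset (Fin 3 → ℕ)} {α K ε : ℝ} {F : (Fin 3 → ℕ) → ℝ}
  {G : Fin 3 → (Fin 3 → ℕ) → ℝ} {H : Fin 3 → Fin 3 → ℝ} {m : ℝ} {i j k l o : Fin 3}

/-- **window of the gradient** -/
theorem Sb.win (h : Sb S α K ε F G H) (hM : Mn H m i j k l o) (hε : 4 * K * ε ≤ m)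
    {n n' : Fin 3 → ℕ} (hn : n ∈ S) (hn' : n' ∈ S) {μ ℓ R : ℝ}
    (g1 : ∀ s, |G s n| ≤ μ) (g2 : ∀ s, |G s n'| ≤ μ) (ho : |α * ((n' o : ℝ) - n o)| ≤ ℓ)
    (hR : 2 * μ + 2 * K * ℓ + K * α ≤ R) :
    |α * ((n' k : ℝ) - n k)| ≤ 4 * K * R / m ∧ |α * ((n' l : ℝ) - n l)| ≤ 4 * K * R / m := by
  have hK := h.K1
  have hm := hM.m0
  have hε0 := h.ε0
  have hεK := h.εK
  set x := α * ((n' k : ℝ) - n k) with hx
  set y := α * ((n' l : ℝ) - n l) with hy
  set w := α * ((n' o : ℝ) - n o) with hw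
  have hℓ : 0 ≤ ℓ := (abs_nonneg _).trans ho
  set V := max |x| |y| with hV
  have hV0 : 0 ≤ V := (abs_nonneg x).trans (le_max_left _ _)
  have hr : ∀ s, |α * ((n' s : ℝ) - n s)| ≤ V + ℓ := by
    intro s
    rcases hM.cov s with rfl | rfl | rfl
    · exact (le_max_left _ _).trans (by linarith)
    · exact (le_max_right _ _).trans (by linarith)
    · exact ho.trans (by linarith)
  have key : ∀ s, |H s k * x + H s l * y| ≤ 2 * μ + K * ℓ + ε * (V + ℓ) + K * α := by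
    intro s
    have t := h.t2 n hn n' hn' s (V + ℓ) hr
    rw [hM.perm fun r => H s r * (α * ((n' r : ℝ) - n r))] at t
    rw [← hx, ← hy, ← hw] at t
    have a1 := g1 s
    have a2 := g2 s
    have a3 : |H s o * w| ≤ K * ℓ := by
      rw [abs_mul]
      exact mul_le_mul (h.hb s o) ho (abs_nonneg _) (by linarith)
    rw [abs_le] at t a1 a2 a3 ⊢
    constructor <;> linarith [t.1, t.2, a1.1, a1.2, a2.1, a2.2, a3.1, a3.2]
  obtain ⟨c1, c2⟩ := cramer hM.minor (h.hb i k) (h.hb i l) (h.hb j k) (h.hb j l)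
    rfl rfl (key i) (key j)
  have c3 : m * V ≤ 2 * K * (2 * μ + K * ℓ + ε * (V + ℓ) + K * α) := by
    rcases max_cases |x| |y| with h1 | h1
    · rw [hV, h1.1]; rw [hV, h1.1] at c1; exact c1
    · rw [hV, h1.1]; rw [hV, h1.1] at c2; exact c2
  have c4 : V ≤ 4 * K * R / m := by
    rw [le_div_iff₀ hm]
    have e1 : 4 * K * ε * V ≤ m * V := mul_le_mul_of_nonneg_right hε hV0
    have e2 : ε * ℓ ≤ K * ℓ := mul_le_mul_of_nonneg_right hεK hℓ
    have e3 : K * (ε * ℓ) ≤ K * (K * ℓ) := mul_le_mul_of_nonneg_left e2 (by linarith)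
    have e4 : K * (2 * μ + 2 * K * ℓ + K * α) ≤ K * R := mul_le_mul_of_nonneg_left hR (by linarith)
    nlinarith
  exact ⟨(le_max_left _ _).trans c4, (le_max_right _ _).trans c4⟩

/-- differences of one coordinate -/
theorem Sa.dif (h : Sa S α K F G) {a b : Fin 3 → ℕ} (ha : a ∈ S) (hb : b ∈ S) (o : Fin 3) :
    |(a o : ℝ) - b o| ≤ 1 / α := by
  have hα := h.α0
  have h1 := h.box a ha o
  have h2 := h.box b hb o
  have h3 : (0 : ℝ) ≤ a o := Nat.cast_nonneg _
  have h4 : (0 : ℝ) ≤ b o := Nat.cast_nonneg _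
  rw [mul_comm, ← le_div_iff₀ hα] at h1 h2
  rw [abs_le]
  constructor <;> linarith

/-- number of values of one coordinate -/
theorem Sa.vals (h : Sa S α K F G) {A : Finset (Fin 3 → ℕ)} (hA : A ⊆ S) (o : Fin 3) :
    ((A.image fun a => a o).card : ℝ) ≤ 1 / α + 1 := by
  have hα := h.α0
  refine card_diam (by positivity) ?_
  intro u hu v hv
  obtain ⟨a, ha, rfl⟩ := mem_image.1 hu
  obtain ⟨b, hb, rfl⟩ := mem_image.1 hv
  exact h.dif (hA ha) (hA hb) o

/-- **points of small gradient** -/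
theorem Sb.low (h : Sb S α K ε F G H) (hM : Mn H m i j k l o) (hε : 4 * K * ε ≤ m)
    {A : Finset (Fin 3 → ℕ)} (hA : A ⊆ S) {μ : ℝ} (hμ : α ≤ μ)
    (hG : ∀ n ∈ A, ∀ s, |G s n| ≤ μ) :
    (A.card : ℝ) ≤ 338 * K ^ 4 * μ ^ 2 / (m ^ 2 * α ^ 3) := by
  have hα0 := h.α0
  have hα := h.α1
  have hK := h.K1
  have hm := hM.m0
  have hm1 := hM.m1
  have hμ0 : 0 < μ := hα0.trans_le hμ
  obtain ⟨D, hD⟩ : ∃ D, D = 12 * K ^ 2 * μ / (m * α) := ⟨_, rfl⟩
  have hD0 : 0 ≤ D := by rw [hD]; positivity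
  have hdiff : ∀ a ∈ A, ∀ b ∈ A, a o = b o → |(a k : ℝ) - b k| ≤ D ∧ |(a l : ℝ) - b l| ≤ D := by
    intro a ha b hb hab
    have := h.win hM hε (hA hb) (hA ha) (μ := μ) (ℓ := 0) (R := 3 * K * μ) (hG b hb) (hG a ha) (by
      rw [hab, sub_self, mul_zero, abs_zero]) (by nlinarith)
    rw [abs_mul, abs_mul, abs_of_pos hα0] at this
    have e : 4 * K * (3 * K * μ) / m = α * D := by rw [hD]; field_simp; ring
    rw [e] at this
    exact ⟨le_of_mul_le_mul_left this.1 hα0, le_of_mul_le_mul_left this.2 hα0⟩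
  have hc := card3 (A := A) hM.cov (X := 1 / α + 1) (h.vals hA o) hD0 hD0
    (fun a ha b hb hab => (hdiff a ha b hb hab).1) (fun a ha b hb hab => (hdiff a ha b hb hab).2)
  refine hc.trans ?_
  have e1 : D + 1 ≤ 13 * K ^ 2 * μ / (m * α) := by
    have : 1 ≤ K ^ 2 * μ / (m * α) := by
      rw [le_div_iff₀ (by positivity)]
      have h1 : m * α ≤ 1 * μ := mul_le_mul hm1 hμ hα0.le zero_le_one
      have h2 : 1 * μ ≤ K ^ 2 * μ := mul_le_mul_of_nonneg_right (by nlinarith) hμ0.le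
      linarith
    rw [hD]
    have e : 13 * K ^ 2 * μ / (m * α) = 12 * K ^ 2 * μ / (m * α) + K ^ 2 * μ / (m * α) := by ring
    linarith
  have e2 : 1 / α + 1 ≤ 2 / α := by
    have : 1 ≤ 1 / α := by rw [le_div_iff₀ hα0]; linarith
    have e : 2 / α = 1 / α + 1 / α := by ring
    linarith
  calc (1 / α + 1) * ((D + 1) * (D + 1)) ≤
      2 / α * ((13 * K ^ 2 * μ / (m * α)) * (13 * K ^ 2 * μ / (m * α))) := by
        refine mul_le_mul e2 (mul_le_mul e1 e1 (by linarith) (by positivity)) (by positivity)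
          (by positivity)
    _ = 338 * K ^ 4 * μ ^ 2 / (m ^ 2 * α ^ 3) := by
        field_simp; ring

/-- **one cell**: a set of diameter `≤ ℓ` on which the `i`-th derivative is `≥ γ` -/
theorem Sa.cell (h : Sa S α K F G) {j1 j2 : Fin 3} (hp : ∀ j, j = j1 ∨ j = j2 ∨ j = i)
    (h1i : j1 ≠ i) (h2i : j2 ≠ i)
    {A : Finset (Fin 3 → ℕ)} (hA : A ⊆ S) {γ ℓ β : ℝ} (hγ : 0 < γ) (hγK : γ ≤ K)
    (hℓ : α ≤ ℓ) (hℓγ : 16 * K * ℓ ≤ γ) (hαβ : α ≤ β)
    (hd : ∀ n ∈ A, ∀ n' ∈ A, ∀ j, |α * ((n' j : ℝ) - n j)| ≤ ℓ)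
    (hG : ∀ n ∈ A, γ ≤ |G i n|) (hF : ∀ n ∈ A, |F n| ≤ β) :
    (A.card : ℝ) ≤ 20 * K * ℓ ^ 2 * β / (γ * α ^ 3) := by
  have hα0 := h.α0
  have hK := h.K1
  have hℓ0 : 0 < ℓ := hα0.trans_le hℓ
  have hβ0 : 0 < β := hα0.trans_le hαβ
  have hv : ∀ j, ((A.image fun a => a j).card : ℝ) ≤ ℓ / α + 1 := by
    intro j
    refine card_diam (by positivity) ?_
    intro u hu v hv
    obtain ⟨a, ha, rfl⟩ := mem_image.1 hu
    obtain ⟨b, hb, rfl⟩ := mem_image.1 hv
    have := hd b hb a ha j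
    rw [abs_mul, abs_of_pos hα0, mul_comm, ← le_div_iff₀ hα0] at this
    exact this
  have hX : ℓ / α + 1 ≤ 2 * ℓ / α := by
    have : 1 ≤ ℓ / α := by rw [le_div_iff₀ hα0]; linarith
    have e : 2 * ℓ / α = ℓ / α + ℓ / α := by ring
    linarith
  have hc := card3' (A := A) (i := i) hp (X := 2 * ℓ / α) (Y := 2 * ℓ / α)
    (D := 4 * K * β / (γ * α)) ((hv j1).trans hX) ((hv j2).trans hX) (by positivity)
    (by positivity) (by
      intro a ha b hb e1 e2
      have t := h.t1 b (hA hb) a (hA ha) i (by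
        intro s hs
        rcases hp s with rfl | rfl | rfl
        · exact e1.symm
        · exact e2.symm
        · exact absurd rfl hs)
      have hxl := hd b hb a ha i
      obtain ⟨x, hx⟩ : ∃ x, x = α * ((a i : ℝ) - b i) := ⟨_, rfl⟩
      rw [← hx] at t hxl
      have g1 := hG b hb
      have f1 := hF a ha
      have f2 := hF b hb
      have k1 : |x| * γ ≤ |x * G i b| := by
        rw [abs_mul]; exact mul_le_mul_of_nonneg_left g1 (abs_nonneg _)
      have k2 : |x * G i b| ≤ 2 * β + K * (x ^ 2 + α) := by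
        rw [abs_le] at t f1 f2 ⊢
        constructor <;> linarith [t.1, t.2, f1.1, f1.2, f2.1, f2.2]
      have k3 : x ^ 2 ≤ ℓ * |x| := by
        rw [← sq_abs, sq]; exact mul_le_mul_of_nonneg_right hxl (abs_nonneg _)
      have k4 : 16 * K * ℓ * |x| ≤ γ * |x| := mul_le_mul_of_nonneg_right hℓγ (abs_nonneg _)
      have k5 : K * x ^ 2 ≤ K * (ℓ * |x|) := mul_le_mul_of_nonneg_left k3 (by linarith)
      have k6 : K * α ≤ K * β := mul_le_mul_of_nonneg_left hαβ (by linarith)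
      have k7 : 2 * β ≤ 2 * (K * β) := by nlinarith
      have k8 : |x| * γ ≤ 4 * (K * β) := by nlinarith [abs_nonneg x]
      rw [hx, abs_mul, abs_of_pos hα0] at k8
      rw [le_div_iff₀ (by positivity)]
      nlinarith [k8])
  refine hc.trans ?_
  have e3 : 4 * K * β / (γ * α) + 1 ≤ 5 * K * β / (γ * α) := by
    have : 1 ≤ K * β / (γ * α) := by
      rw [le_div_iff₀ (by positivity), one_mul]
      exact mul_le_mul hγK hαβ hα0.le (by linarith)
    have e : 5 * K * β / (γ * α) = 4 * K * β / (γ * α) + K * β / (γ * α) := by ring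
    linarith
  calc 2 * ℓ / α * (2 * ℓ / α) * (4 * K * β / (γ * α) + 1) ≤
      2 * ℓ / α * (2 * ℓ / α) * (5 * K * β / (γ * α)) :=
        mul_le_mul_of_nonneg_left e3 (by positivity)
    _ = 20 * K * ℓ ^ 2 * β / (γ * α ^ 3) := by field_simp; ring

/-- the scale of the cells -/
theorem exists_b {α γ K : ℝ} (hα : 0 < α) (hγ : 0 < γ) (hK : 1 ≤ K) (h : 16 * K * α ≤ γ) :
    ∃ b : ℕ, 0 < b ∧ 16 * K * (α * b) ≤ γ ∧ γ ≤ 32 * K * (α * b) := by
  have hc : 0 < 16 * K * α := by positivity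
  have h1 : 1 ≤ γ / (16 * K * α) := by rw [le_div_iff₀ hc]; linarith
  refine ⟨⌊γ / (16 * K * α)⌋₊, Nat.floor_pos.2 h1, ?_, ?_⟩
  · have := Nat.floor_le (show 0 ≤ γ / (16 * K * α) by positivity)
    rw [le_div_iff₀ hc] at this
    linarith
  · have h2 := Nat.lt_floor_add_one (γ / (16 * K * α))
    have h3 : (1 : ℝ) ≤ (⌊γ / (16 * K * α)⌋₊ : ℝ) := by exact_mod_cast Nat.floor_pos.2 h1
    have h4 : γ / (16 * K * α) ≤ 2 * (⌊γ / (16 * K * α)⌋₊ : ℝ) := by linarith
    rw [div_le_iff₀ hc] at h4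
    linarith

/-- points of one `b`-cell are near -/
theorem near_of_div {b : ℕ} (hb : 0 < b) {x y : ℕ} (h : x / b = y / b) {α : ℝ} (hα : 0 < α) :
    |α * ((x : ℝ) - y)| ≤ α * b := by
  rw [abs_mul, abs_of_pos hα]
  refine mul_le_mul_of_nonneg_left ?_ hα.le
  have h1 : x < (x / b + 1) * b := Nat.lt_mul_of_div_lt (Nat.lt_succ_self _) hb
  have h2 : y < (y / b + 1) * b := Nat.lt_mul_of_div_lt (Nat.lt_succ_self _) hb
  have h3 : x / b * b ≤ x := Nat.div_mul_le_self x b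
  have h4 : y / b * b ≤ y := Nat.div_mul_le_self y b
  rw [h] at h1 h3
  have h1' : (x : ℝ) ≤ ((y / b : ℕ) + 1) * b := by exact_mod_cast h1.le
  have h2' : (y : ℝ) ≤ ((y / b : ℕ) + 1) * b := by exact_mod_cast h2.le
  have h3' : ((y / b : ℕ) : ℝ) * b ≤ x := by exact_mod_cast h3
  have h4' : ((y / b : ℕ) : ℝ) * b ≤ y := by exact_mod_cast h4
  rw [abs_le]
  constructor <;> nlinarith

/-- sum over the cells -/
theorem card_cells {A : Finset (Fin 3 → ℕ)} {b : ℕ} {N C : ℝ} (hC : 0 ≤ C)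
    (hN : ((A.image fun n => fun j => n j / b).card : ℝ) ≤ N)
    (h : ∀ c : Fin 3 → ℕ, ((A.filter fun n => (fun j => n j / b) = c).card : ℝ) ≤ C) :
    (A.card : ℝ) ≤ N * C := by
  classical
  have hsum : (A.card : ℝ) = ∑ c ∈ A.image (fun n => fun j => n j / b),
      ((A.filter fun n => (fun j => n j / b) = c).card : ℝ) := by
    have := card_eq_sum_card_image (fun n : Fin 3 → ℕ => fun j => n j / b) A
    exact_mod_cast this
  rw [hsum]
  refine (sum_le_sum fun c _ => h c).trans ?_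
  rw [sum_const, nsmul_eq_mul]
  exact mul_le_mul_of_nonneg_right hN hC

/-- cells are determined by three indices -/
theorem card_cells3 {A : Finset (Fin 3 → ℕ)} {b : ℕ} {k l o : Fin 3}
    (hp : ∀ j, j = k ∨ j = l ∨ j = o) {X D1 D2 : ℝ}
    (hX : ((A.image fun a => a o / b).card : ℝ) ≤ X) (h1 : 0 ≤ D1) (h2 : 0 ≤ D2)
    (hk : ∀ a ∈ A, ∀ c ∈ A, a o / b = c o / b → |((a k / b : ℕ) : ℝ) - (c k / b : ℕ)| ≤ D1)
    (hl : ∀ a ∈ A, ∀ c ∈ A, a o / b = c o / b → |((a l / b : ℕ) : ℝ) - (c l / b : ℕ)| ≤ D2) :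
    ((A.image fun n => fun j => n j / b).card : ℝ) ≤ X * ((D1 + 1) * (D2 + 1)) := by
  classical
  have hX0 : 0 ≤ X := (Nat.cast_nonneg _).trans hX
  refine card3 (A := A.image fun n => fun j => n j / b) hp (X := X) ?_ h1 h2 ?_ ?_
  · rw [image_image]; exact hX
  · intro u hu v hv
    obtain ⟨a, ha, rfl⟩ := mem_image.1 hu
    obtain ⟨c, hc, rfl⟩ := mem_image.1 hv
    exact hk a ha c hc
  · intro u hu v hv
    obtain ⟨a, ha, rfl⟩ := mem_image.1 hu
    obtain ⟨c, hc, rfl⟩ := mem_image.1 hv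
    exact hl a ha c hc

/-- **points of large gradient**, no Hessian -/
theorem Sa.grad (h : Sa S α K F G) {j1 j2 : Fin 3} (hp : ∀ j, j = j1 ∨ j = j2 ∨ j = i)
    (h1i : j1 ≠ i) (h2i : j2 ≠ i)
    {A : Finset (Fin 3 → ℕ)} (hA : A ⊆ S) {γ β : ℝ} (hγ : 16 * K * α ≤ γ) (hγK : γ ≤ K)
    (hαβ : α ≤ β) (hG : ∀ n ∈ A, γ ≤ |G i n|) (hF : ∀ n ∈ A, |F n| ≤ β) :
    (A.card : ℝ) ≤ 90000 * K ^ 2 * β / (γ ^ 2 * α ^ 3) := by
  classical
  have hα0 := h.α0
  have hK := h.K1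
  have hβ0 : 0 < β := hα0.trans_le hαβ
  have hγ0 : 0 < γ := by
    have : 0 < 16 * K * α := by positivity
    linarith
  obtain ⟨b, hb, b1, b2⟩ := exists_b hα0 hγ0 hK hγ
  have hb' : (0 : ℝ) < b := by exact_mod_cast hb
  have hb1 : (1 : ℝ) ≤ b := by exact_mod_cast hb
  obtain ⟨ℓ, hℓ⟩ : ∃ ℓ, ℓ = α * b := ⟨_, rfl⟩
  have hℓα : α ≤ ℓ := by rw [hℓ]; nlinarith
  have hℓ0 : 0 < ℓ := hα0.trans_le hℓα
  rw [← hℓ] at b1 b2
  have hval : ∀ j, ((A.image fun n => n j / b).card : ℝ) ≤ 1 / ℓ + 2 := by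
    intro j
    have := card_div (A := A) (j := j) hb (D := 1 / α) (by positivity)
      (fun n hn n' hn' => h.dif (hA hn) (hA hn') j)
    rw [hℓ]
    have e : 1 / α / b = 1 / (α * b) := by field_simp
    rwa [e] at this
  have hq : 1 / ℓ + 3 ≤ 66 * K / γ := by
    have h1 : 1 / ℓ ≤ 32 * K / γ := by
      rw [div_le_div_iff₀ hℓ0 hγ0]; linarith
    have h2 : 3 ≤ 34 * K / γ := by
      rw [le_div_iff₀ hγ0]; linarith
    have e : 66 * K / γ = 32 * K / γ + 34 * K / γ := by ring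
    linarith
  have hN : ((A.image fun n => fun j => n j / b).card : ℝ) ≤ (66 * K / γ) ^ 3 := by
    have hdif : ∀ j, ∀ a ∈ A, ∀ c ∈ A, |((a j / b : ℕ) : ℝ) - (c j / b : ℕ)| ≤ 1 / ℓ + 1 := by
      intro j a ha c hc
      have h1 := h.dif (hA ha) (hA hc) j
      have hdiv : ∀ x : ℕ, (x : ℝ) / b - 1 ≤ ((x / b : ℕ) : ℝ) ∧
          ((x / b : ℕ) : ℝ) ≤ (x : ℝ) / b := by
        intro x
        constructor
        · have h1 : x < (x / b + 1) * b := Nat.lt_mul_of_div_lt (Nat.lt_succ_self _) hb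
          have h2 : (x : ℝ) ≤ ((x / b : ℕ) + 1) * b := by exact_mod_cast h1.le
          rw [sub_le_iff_le_add, div_le_iff₀ hb']
          exact h2
        · exact Nat.cast_div_le
      have a1 := hdiv (a j)
      have a2 := hdiv (c j)
      have h2 : |(a j : ℝ) / b - (c j : ℝ) / b| ≤ 1 / ℓ := by
        rw [← sub_div, abs_div, abs_of_pos hb', hℓ]
        have e : 1 / (α * b) = 1 / α / b := by field_simp
        rw [e]
        exact div_le_div_of_nonneg_right h1 hb'.le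
      rw [abs_le] at h2 ⊢
      constructor <;> linarith [a1.1, a1.2, a2.1, a2.2, h2.1, h2.2]
    have := card_cells3 (A := A) (b := b) (k := j1) (l := j2) (o := i) hp (X := 66 * K / γ)
      (D1 := 1 / ℓ + 1) (D2 := 1 / ℓ + 1) ((hval i).trans (by linarith)) (by positivity)
      (by positivity) (fun a ha c hc _ => hdif _ a ha c hc) (fun a ha c hc _ => hdif _ a ha c hc)
    refine this.trans ?_
    have e1 : 1 / ℓ + 1 + 1 ≤ 66 * K / γ := by linarith
    calc 66 * K / γ * ((1 / ℓ + 1 + 1) * (1 / ℓ + 1 + 1)) ≤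
        66 * K / γ * ((66 * K / γ) * (66 * K / γ)) :=
          mul_le_mul_of_nonneg_left (mul_le_mul e1 e1 (by positivity) (by positivity))
            (by positivity)
      _ = (66 * K / γ) ^ 3 := by ring
  have hcell : ∀ c : Fin 3 → ℕ, ((A.filter fun n => (fun j => n j / b) = c).card : ℝ) ≤
      20 * K * ℓ ^ 2 * β / (γ * α ^ 3) := by
    intro c
    refine h.cell hp h1i h2i ((filter_subset _ _).trans hA) hγ0 hγK hℓα (by linarith) hαβ ?_ ?_ ?_
    · intro n hn n' hn' j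
      rw [hℓ]
      refine near_of_div hb ?_ hα0
      have e1 := congrFun (mem_filter.1 hn).2 j
      have e2 := congrFun (mem_filter.1 hn').2 j
      exact e2.trans e1.symm
    · intro n hn; exact hG n (mem_filter.1 hn).1
    · intro n hn; exact hF n (mem_filter.1 hn).1
  refine (card_cells (by positivity) hN hcell).trans ?_
  have hl2 : ℓ ^ 2 ≤ (γ / (16 * K)) ^ 2 := by
    have : ℓ ≤ γ / (16 * K) := by rw [le_div_iff₀ (by positivity)]; linarith
    exact pow_le_pow_left₀ hℓ0.le this 2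
  calc (66 * K / γ) ^ 3 * (20 * K * ℓ ^ 2 * β / (γ * α ^ 3)) =
      66 ^ 3 * 20 * K ^ 4 * β / (γ ^ 4 * α ^ 3) * ℓ ^ 2 := by field_simp
    _ ≤ 66 ^ 3 * 20 * K ^ 4 * β / (γ ^ 4 * α ^ 3) * (γ / (16 * K)) ^ 2 :=
        mul_le_mul_of_nonneg_left hl2 (by positivity)
    _ = 66 ^ 3 * 20 / 256 * (K ^ 2 * β / (γ ^ 2 * α ^ 3)) := by field_simp; ring
    _ ≤ 90000 * (K ^ 2 * β / (γ ^ 2 * α ^ 3)) :=
        mul_le_mul_of_nonneg_right (by norm_num) (by positivity)
    _ = 90000 * K ^ 2 * β / (γ ^ 2 * α ^ 3) := by ring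

/-- **points of gradient `~ μ`** -/
theorem Sb.level (h : Sb S α K ε F G H) (hM : Mn H m i j k l o) (hε : 4 * K * ε ≤ m)
    {r j1 j2 : Fin 3} (hp : ∀ j, j = j1 ∨ j = j2 ∨ j = r) (h1i : j1 ≠ r) (h2i : j2 ≠ r)
    {A : Finset (Fin 3 → ℕ)} (hA : A ⊆ S) {μ β : ℝ} (hμ : 32 * K * α ≤ μ) (hμK : μ ≤ 2 * K)
    (hαβ : α ≤ β) (hG : ∀ n ∈ A, μ / 2 ≤ |G r n|) (hG' : ∀ n ∈ A, ∀ s, |G s n| ≤ μ)
    (hF : ∀ n ∈ A, |F n| ≤ β) :
    (A.card : ℝ) ≤ 3 * 10 ^ 6 * K ^ 4 * β / (m ^ 2 * α ^ 3) := by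
  classical
  have hα0 := h.α0
  have hK := h.K1
  have hm := hM.m0
  have hm1 := hM.m1
  have hβ0 : 0 < β := hα0.trans_le hαβ
  have hμ0 : 0 < μ := by
    have : 0 < 32 * K * α := by positivity
    linarith
  obtain ⟨b, hb, b1, b2⟩ := exists_b (γ := μ / 2) hα0 (by linarith) hK (by linarith)
  have hb' : (0 : ℝ) < b := by exact_mod_cast hb
  have hb1 : (1 : ℝ) ≤ b := by exact_mod_cast hb
  obtain ⟨ℓ, hℓ⟩ : ∃ ℓ, ℓ = α * b := ⟨_, rfl⟩
  have hℓα : α ≤ ℓ := by rw [hℓ]; nlinarith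
  have hℓ0 : 0 < ℓ := hα0.trans_le hℓα
  rw [← hℓ] at b1 b2
  have hdiv : ∀ x : ℕ, (x : ℝ) / b - 1 ≤ ((x / b : ℕ) : ℝ) ∧
      ((x / b : ℕ) : ℝ) ≤ (x : ℝ) / b := by
    intro x
    constructor
    · have h1 : x < (x / b + 1) * b := Nat.lt_mul_of_div_lt (Nat.lt_succ_self _) hb
      have h2 : (x : ℝ) ≤ ((x / b : ℕ) + 1) * b := by exact_mod_cast h1.le
      rw [sub_le_iff_le_add, div_le_iff₀ hb']
      exact h2
    · exact Nat.cast_div_le
  have hdif : ∀ (D : ℝ) (x y : ℕ), |α * ((x : ℝ) - y)| ≤ D →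
      |((x / b : ℕ) : ℝ) - (y / b : ℕ)| ≤ D / ℓ + 1 := by
    intro D x y hxy
    have a1 := hdiv x
    have a2 := hdiv y
    have h2 : |(x : ℝ) / b - (y : ℝ) / b| ≤ D / ℓ := by
      rw [← sub_div, abs_div, abs_of_pos hb', hℓ]
      rw [abs_mul, abs_of_pos hα0] at hxy
      rw [div_le_div_iff₀ hb' (by positivity)]
      calc |(x : ℝ) - y| * (α * b) = (α * |(x : ℝ) - y|) * b := by ring
        _ ≤ D * b := mul_le_mul_of_nonneg_right hxy hb'.le
    rw [abs_le] at h2 ⊢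
    constructor <;> linarith [a1.1, a1.2, a2.1, a2.2, h2.1, h2.2]
  have hval : ((A.image fun n => n o / b).card : ℝ) ≤ 1 / ℓ + 2 := by
    have := card_div (A := A) (j := o) hb (D := 1 / α) (by positivity)
      (fun n hn n' hn' => h.dif (hA hn) (hA hn') o)
    rw [hℓ]
    have e : 1 / α / b = 1 / (α * b) := by field_simp
    rwa [e] at this
  have hq : 1 / ℓ + 2 ≤ 68 * K / μ := by
    have h1 : 1 / ℓ ≤ 64 * K / μ := by
      rw [div_le_div_iff₀ hℓ0 hμ0]; linarith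
    have h2 : 2 ≤ 4 * K / μ := by
      rw [le_div_iff₀ hμ0]; linarith
    have e : 68 * K / μ = 64 * K / μ + 4 * K / μ := by ring
    linarith
  have hwin : ∀ a ∈ A, ∀ c ∈ A, a o / b = c o / b →
      |α * ((a k : ℝ) - c k)| ≤ 12 * K * μ / m ∧ |α * ((a l : ℝ) - c l)| ≤ 12 * K * μ / m := by
    intro a ha c hc hac
    have ho : |α * ((a o : ℝ) - c o)| ≤ ℓ := by rw [hℓ]; exact near_of_div hb hac hα0
    have := h.win hM hε (hA hc) (hA ha) (μ := μ) (ℓ := ℓ) (R := 3 * μ) (hG' c hc) (hG' a ha) ho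
      (by nlinarith)
    have e : 4 * K * (3 * μ) / m = 12 * K * μ / m := by ring
    rw [e] at this
    exact this
  obtain ⟨D, hD⟩ : ∃ D, D = 12 * K * μ / m := ⟨_, rfl⟩
  rw [← hD] at hwin
  have hD0 : 0 ≤ D := by rw [hD]; positivity
  have hD1 : D / ℓ + 1 + 1 ≤ 770 * K ^ 2 / m := by
    have h1 : D / ℓ ≤ 768 * K ^ 2 / m := by
      rw [hD, div_div, div_le_div_iff₀ (by positivity) hm]
      have : 12 * K * μ * m ≤ 12 * K * (64 * K * ℓ) * m := by
        refine mul_le_mul_of_nonneg_right ?_ hm.le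
        exact mul_le_mul_of_nonneg_left (by linarith) (by positivity)
      nlinarith
    have h2 : 2 ≤ 2 * K ^ 2 / m := by
      rw [le_div_iff₀ hm]; nlinarith
    have e : 770 * K ^ 2 / m = 768 * K ^ 2 / m + 2 * K ^ 2 / m := by ring
    linarith
  have hN : ((A.image fun n => fun j => n j / b).card : ℝ) ≤
      68 * K / μ * ((770 * K ^ 2 / m) * (770 * K ^ 2 / m)) := by
    have := card_cells3 (A := A) (b := b) (k := k) (l := l) (o := o) hM.cov (X := 68 * K / μ)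
      (D1 := D / ℓ + 1) (D2 := D / ℓ + 1) (hval.trans hq) (by positivity)
      (by positivity) (fun a ha c hc e => hdif D _ _ (hwin a ha c hc e).1)
      (fun a ha c hc e => hdif D _ _ (hwin a ha c hc e).2)
    refine this.trans ?_
    exact mul_le_mul_of_nonneg_left (mul_le_mul hD1 hD1 (by positivity) (by positivity))
      (by positivity)
  have hcell : ∀ c : Fin 3 → ℕ, ((A.filter fun n => (fun j => n j / b) = c).card : ℝ) ≤
      20 * K * ℓ ^ 2 * β / (μ / 2 * α ^ 3) := by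
    intro c
    refine h.toSa.cell hp h1i h2i ((filter_subset _ _).trans hA) (by linarith) (by linarith) hℓα
      (by linarith) hαβ ?_ ?_ ?_
    · intro n hn n' hn' j
      rw [hℓ]
      refine near_of_div hb ?_ hα0
      have e1 := congrFun (mem_filter.1 hn).2 j
      have e2 := congrFun (mem_filter.1 hn').2 j
      exact e2.trans e1.symm
    · intro n hn; exact hG n (mem_filter.1 hn).1
    · intro n hn; exact hF n (mem_filter.1 hn).1
  refine (card_cells (by positivity) hN hcell).trans ?_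
  have hl2 : ℓ ^ 2 ≤ (μ / (32 * K)) ^ 2 := by
    have : ℓ ≤ μ / (32 * K) := by rw [le_div_iff₀ (by positivity)]; linarith
    exact pow_le_pow_left₀ hℓ0.le this 2
  calc 68 * K / μ * ((770 * K ^ 2 / m) * (770 * K ^ 2 / m)) *
        (20 * K * ℓ ^ 2 * β / (μ / 2 * α ^ 3)) =
      68 * 770 ^ 2 * 40 * K ^ 6 * β / (m ^ 2 * μ ^ 2 * α ^ 3) * ℓ ^ 2 := by field_simp; ring
    _ ≤ 68 * 770 ^ 2 * 40 * K ^ 6 * β / (m ^ 2 * μ ^ 2 * α ^ 3) * (μ / (32 * K)) ^ 2 :=
        mul_le_mul_of_nonneg_left hl2 (by positivity)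
    _ = 68 * 770 ^ 2 * 40 / 1024 * (K ^ 4 * β / (m ^ 2 * α ^ 3)) := by field_simp; ring
    _ ≤ 3 * 10 ^ 6 * (K ^ 4 * β / (m ^ 2 * α ^ 3)) :=
        mul_le_mul_of_nonneg_right (by norm_num) (by positivity)
    _ = 3 * 10 ^ 6 * K ^ 4 * β / (m ^ 2 * α ^ 3) := by ring

end

end Crest.Agent.R136.Sbl57
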