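import Crest.Agent.R136.Sbl1_57

/-!
# R136 (helper57): sublevel sets, totals

* `Sb.total` : (nearly) constant Hessian with a large `2 × 2` minor
* `Sc`, `Sc.total0`, `Sc.total` : variable Hessian, points of large gradient or with a large minor
-/

set_option autoImplicit false

open Finset

namespace Crest.Agent.R136.Sbl57

section

variable {S : Finset (Fin 3 → ℕ)} {α K ε : ℝ} {F : (Fin 3 → ℕ) → ℝ}
  {G : Fin 3 → (Fin 3 → ℕ) → ℝ} {m : ℝ}

theorem dir3 : ∀ r j : Fin 3, j = r + 1 ∨ j = r + 2 ∨ j = r := by decide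

theorem dir3' : ∀ r : Fin 3, r + 1 ≠ r ∧ r + 2 ≠ r := by decide

theorem exists_o : ∀ k l : Fin 3, k ≠ l → ∃ o : Fin 3, o ≠ k ∧ o ≠ l ∧
    ∀ s, s = k ∨ s = l ∨ s = o := by decide

theorem perm_of {k l o : Fin 3} (h : k ≠ l) (h1 : o ≠ k) (h2 : o ≠ l) (f : Fin 3 → ℝ) :
    ∑ s, f s = f k + f l + f o := by
  rw [Fin.sum_univ_three]
  fin_cases k <;> fin_cases l <;> fin_cases o <;>
    first
      | exact absurd rfl h
      | exact absurd rfl h1
      | exact absurd rfl h2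
      | (simp only [Fin.zero_eta, Fin.mk_one, Fin.reduceFinMk]; done)
      | (simp only [Fin.zero_eta, Fin.mk_one, Fin.reduceFinMk]; ring)

/-- the trivial bound -/
theorem Sa.triv (h : Sa S α K F G) {A : Finset (Fin 3 → ℕ)} (hA : A ⊆ S) :
    (A.card : ℝ) ≤ 8 / α ^ 3 := by
  have hα := h.α0
  have hα1 := h.α1
  have h0 : (1 : ℝ) ≤ 1 / α := by rw [le_div_iff₀ hα]; linarith
  have hc := card3 (A := A) (dir3 0) (X := 1 / α + 1) (D1 := 1 / α) (D2 := 1 / α)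
    (h.vals hA 0) (by positivity) (by positivity)
    (fun a ha b hb _ => h.dif (hA ha) (hA hb) _) (fun a ha b hb _ => h.dif (hA ha) (hA hb) _)
  refine hc.trans ?_
  have e1 : 1 / α + 1 ≤ 2 * (1 / α) := by linarith
  calc (1 / α + 1) * ((1 / α + 1) * (1 / α + 1)) ≤
      (2 * (1 / α)) * ((2 * (1 / α)) * (2 * (1 / α))) :=
        mul_le_mul e1 (mul_le_mul e1 e1 (by positivity) (by positivity)) (by positivity)
          (by positivity)
    _ = 8 / α ^ 3 := by field_simp; ring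

variable {H : Fin 3 → Fin 3 → ℝ} {i j k l o : Fin 3}

/-- **total, nearly constant Hessian** -/
theorem Sb.total (h : Sb S α K ε F G H) (hM : Mn H m i j k l o) (hε : 4 * K * ε ≤ m)
    {A : Finset (Fin 3 → ℕ)} (hA : A ⊆ S) {β : ℝ} (hαβ : α ≤ β) (hβ : β ≤ 1)
    (hα : 1024 * K ^ 2 * α ≤ 1) {N : ℕ} (hN : 2 * K ≤ 2 ^ N * √β)
    (hF : ∀ n ∈ A, |F n| ≤ β) :
    (A.card : ℝ) ≤ 10 ^ 7 * N * K ^ 4 * β / (m ^ 2 * α ^ 3) := by
  classical
  have hα0 := h.α0
  have hK := h.K1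
  have hm := hM.m0
  have hβ0 : 0 < β := hα0.trans_le hαβ
  obtain ⟨x, hx⟩ : ∃ x, x = √β := ⟨_, rfl⟩
  have hx0 : 0 < x := by rw [hx]; exact Real.sqrt_pos.2 hβ0
  have hxx : x ^ 2 = β := by rw [hx]; exact Real.sq_sqrt hβ0.le
  have hx1 : x ≤ 1 := by
    rw [hx]; exact Real.sqrt_le_one.2 hβ
  rw [← hx] at hN
  have hαx : 32 * K * α ≤ x := by
    have h1 : (32 * K * α) ^ 2 ≤ x ^ 2 := by
      rw [hxx]
      calc (32 * K * α) ^ 2 = 1024 * K ^ 2 * α * α := by ring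
        _ ≤ 1 * α := mul_le_mul_of_nonneg_right hα hα0.le
        _ ≤ β := by linarith
    exact le_of_sq_le_sq h1 hx0.le
  have hN1 : 1 ≤ N := by
    rcases Nat.eq_zero_or_pos N with h0 | h0
    · rw [h0, pow_zero, one_mul] at hN; linarith
    · exact h0
  obtain ⟨X, hX⟩ : ∃ X, X = K ^ 4 * β / (m ^ 2 * α ^ 3) := ⟨_, rfl⟩
  have hX0 : 0 ≤ X := by rw [hX]; positivity
  set A0 := A.filter fun n => ∀ s, |G s n| ≤ x with hA0
  set Ak : ℕ → Fin 3 → Finset (Fin 3 → ℕ) := fun k r =>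
    A.filter fun n => (∀ s, |G s n| ≤ 2 ^ k * x) ∧ 2 ^ k * x / 2 ≤ |G r n| with hAk
  have c0 : (A0.card : ℝ) ≤ 338 * X := by
    have := h.low hM hε ((filter_subset _ _).trans hA) (A := A0) (μ := x)
      (by nlinarith) (fun n hn => (mem_filter.1 hn).2)
    rw [hxx] at this
    refine this.trans (le_of_eq ?_)
    rw [hX]; ring
  have ck : ∀ k ∈ Finset.Icc 1 N, ∀ r : Fin 3, ((Ak k r).card : ℝ) ≤ 3 * 10 ^ 6 * X := by
    intro k hk r
    rcases (Ak k r).eq_empty_or_nonempty with he | ⟨n, hn⟩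
    · rw [he, card_empty, Nat.cast_zero]; positivity
    · have h1 := (mem_filter.1 hn).2
      have h2 := h.gb n (hA (mem_filter.1 hn).1) r
      have h3 : (1 : ℝ) ≤ 2 ^ k := one_le_pow₀ (by norm_num)
      have := h.level hM hε (dir3 r) (dir3' r).1 (dir3' r).2 ((filter_subset _ _).trans hA)
        (A := Ak k r) (μ := 2 ^ k * x) (β := β) (by nlinarith) (by linarith [h1.2]) hαβ
        (fun n hn => (mem_filter.1 hn).2.2) (fun n hn => (mem_filter.1 hn).2.1)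
        (fun n hn => hF n (mem_filter.1 hn).1)
      refine this.trans (le_of_eq ?_)
      rw [hX]; ring
  have hcov : A ⊆ A0 ∪ (Finset.Icc 1 N).biUnion fun k => (univ : Finset (Fin 3)).biUnion (Ak k) := by
    intro n hn
    have hex : ∃ k : ℕ, ∀ s, |G s n| ≤ 2 ^ k * x := by
      refine ⟨N, fun s => ?_⟩
      have := h.gb n (hA hn) s
      linarith
    by_cases h0 : Nat.find hex = 0
    · refine mem_union_left _ (mem_filter.2 ⟨hn, fun s => ?_⟩)
      have := Nat.find_spec hex s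
      rwa [h0, pow_zero, one_mul] at this
    · have h1 : 1 ≤ Nat.find hex := Nat.one_le_iff_ne_zero.2 h0
      have h2 : Nat.find hex ≤ N := Nat.find_min' hex fun s => by
        have := h.gb n (hA hn) s
        linarith
      have h3 := Nat.find_min hex (m := Nat.find hex - 1) (by omega)
      simp only [not_forall, not_le] at h3
      obtain ⟨r, hr⟩ := h3
      refine mem_union_right _ (mem_biUnion.2 ⟨Nat.find hex, mem_Icc.2 ⟨h1, h2⟩,
        mem_biUnion.2 ⟨r, mem_univ _, mem_filter.2 ⟨hn, Nat.find_spec hex, ?_⟩⟩⟩)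
      have e : (2 : ℝ) ^ (Nat.find hex) = 2 * 2 ^ (Nat.find hex - 1) := by
        rw [← pow_succ']; congr 1; omega
      rw [e]
      linarith
  have hcard : A.card ≤ A0.card + ∑ k ∈ Finset.Icc 1 N, ∑ r : Fin 3, (Ak k r).card := by
    refine (card_le_card hcov).trans ((card_union_le _ _).trans (Nat.add_le_add_left ?_ _))
    refine card_biUnion_le.trans (sum_le_sum fun k _ => card_biUnion_le)
  have hcard' : (A.card : ℝ) ≤ A0.card + ∑ k ∈ Finset.Icc 1 N, ∑ r : Fin 3, ((Ak k r).card : ℝ) := by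
    exact_mod_cast hcard
  have hs : ∑ k ∈ Finset.Icc 1 N, ∑ r : Fin 3, ((Ak k r).card : ℝ) ≤ N * (3 * (3 * 10 ^ 6 * X)) := by
    calc ∑ k ∈ Finset.Icc 1 N, ∑ r : Fin 3, ((Ak k r).card : ℝ) ≤
        ∑ k ∈ Finset.Icc 1 N, 3 * (3 * 10 ^ 6 * X) := by
          refine sum_le_sum fun k hk => ?_
          calc ∑ r : Fin 3, ((Ak k r).card : ℝ) ≤ ∑ r : Fin 3, 3 * 10 ^ 6 * X :=
                sum_le_sum fun r _ => ck k hk r
            _ = 3 * (3 * 10 ^ 6 * X) := by simp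
      _ = N * (3 * (3 * 10 ^ 6 * X)) := by
          rw [sum_const, Nat.card_Icc, nsmul_eq_mul]
          congr 2
  have hNr : (1 : ℝ) ≤ N := by exact_mod_cast hN1
  have : (A.card : ℝ) ≤ 10 ^ 7 * N * X := by nlinarith
  refine this.trans (le_of_eq ?_)
  rw [hX]; ring

/-! ### variable Hessian -/

/-- second order data with a variable Hessian -/
structure Sc (S : Finset (Fin 3 → ℕ)) (α K : ℝ) (F : (Fin 3 → ℕ) → ℝ)
    (G : Fin 3 → (Fin 3 → ℕ) → ℝ) (Q : (Fin 3 → ℕ) → Fin 3 → Fin 3 → ℝ) : Prop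
    extends Sa S α K F G where
  hb : ∀ n ∈ S, ∀ i j, |Q n i j| ≤ K
  t2 : ∀ n ∈ S, ∀ n' ∈ S, ∀ i, ∀ r : ℝ, (∀ j, |α * ((n' j : ℝ) - n j)| ≤ r) →
    |G i n' - G i n - ∑ j, Q n i j * (α * ((n' j : ℝ) - n j))| ≤ K * (r ^ 2 + α)
  t3 : ∀ n ∈ S, ∀ n' ∈ S, ∀ r : ℝ, (∀ j, |α * ((n' j : ℝ) - n j)| ≤ r) →
    ∀ i j, |Q n' i j - Q n i j| ≤ K * (r + α)

variable {Q : (Fin 3 → ℕ) → Fin 3 → Fin 3 → ℝ}

/-- freezing the Hessian in a small cube -/
theorem Sc.freeze (h : Sc S α K F G Q) {s : ℝ} (hs : α ≤ s) (hs1 : 7 * s ≤ 1)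
    {T : Finset (Fin 3 → ℕ)} (hT : T ⊆ S)
    (hd : ∀ n ∈ T, ∀ n' ∈ T, ∀ j, |α * ((n' j : ℝ) - n j)| ≤ s) {n0 : Fin 3 → ℕ}
    (hn0 : n0 ∈ T) : Sb T α K (7 * K * s) F G (Q n0) where
  α0 := h.α0
  α1 := h.α1
  K1 := h.K1
  box n hn := h.box n (hT hn)
  gb n hn := h.gb n (hT hn)
  t1 n hn n' hn' := h.t1 n (hT hn) n' (hT hn')
  ε0 := by
    have h1 : 0 < s := h.α0.trans_le hs
    have h2 := h.K1
    positivity
  εK := by nlinarith [h.K1]
  hb := h.hb n0 (hT hn0)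
  t2 := by
    intro n hn n' hn' i r hr
    have hα0 := h.α0
    have hK := h.K1
    have hs0 : 0 < s := hα0.trans_le hs
    set r' := min r s with hr'
    have hr1 : ∀ j, |α * ((n' j : ℝ) - n j)| ≤ r' := fun j => le_min (hr j) (hd n hn n' hn' j)
    have hr0 : 0 ≤ r' := (abs_nonneg _).trans (hr1 0)
    have h1 : r' ≤ r := min_le_left _ _
    have h2 : r' ≤ s := min_le_right _ _
    have t := h.t2 n (hT hn) n' (hT hn') i r' hr1
    have t3 := h.t3 n0 (hT hn0) n (hT hn) s (hd n0 hn0 n hn)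
    have e : G i n' - G i n - ∑ j, Q n0 i j * (α * ((n' j : ℝ) - n j)) =
        (G i n' - G i n - ∑ j, Q n i j * (α * ((n' j : ℝ) - n j))) +
        ∑ j, (Q n i j - Q n0 i j) * (α * ((n' j : ℝ) - n j)) := by
      have : ∑ j, (Q n i j - Q n0 i j) * (α * ((n' j : ℝ) - n j)) =
          ∑ j, Q n i j * (α * ((n' j : ℝ) - n j)) - ∑ j, Q n0 i j * (α * ((n' j : ℝ) - n j)) := by
        rw [← sum_sub_distrib]
        exact sum_congr rfl fun j _ => by ring
      rw [this]; ring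
    rw [e]
    have h3 : |∑ j, (Q n i j - Q n0 i j) * (α * ((n' j : ℝ) - n j))| ≤
        3 * (K * (s + α) * r') := by
      calc |∑ j, (Q n i j - Q n0 i j) * (α * ((n' j : ℝ) - n j))| ≤
          ∑ j, |(Q n i j - Q n0 i j) * (α * ((n' j : ℝ) - n j))| := abs_sum_le_sum_abs _ _
        _ ≤ ∑ _j : Fin 3, K * (s + α) * r' := by
            refine sum_le_sum fun j _ => ?_
            rw [abs_mul]
            exact mul_le_mul (t3 i j) (hr1 j) (abs_nonneg _) (by positivity)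
        _ = 3 * (K * (s + α) * r') := by simp
    refine (abs_add_le _ _).trans ((add_le_add t h3).trans ?_)
    have h4 : K * (s + α) * r' ≤ K * (2 * s) * r := by
      refine mul_le_mul (mul_le_mul_of_nonneg_left (by linarith) (by linarith)) h1 hr0
        (by positivity)
    have h5 : r' ^ 2 ≤ s * r := by
      rw [sq]; exact mul_le_mul h2 h1 hr0 hs0.le
    have h6 : K * r' ^ 2 ≤ K * (s * r) := mul_le_mul_of_nonneg_left h5 (by linarith)
    nlinarith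

/-- **points with a given large minor, variable Hessian** -/
theorem Sc.minor (h : Sc S α K F G Q) {A : Finset (Fin 3 → ℕ)} (hA : A ⊆ S) (hm : 0 < m)
    (hm1 : m ≤ 1) {k l : Fin 3} (hkl : k ≠ l) (i j : Fin 3)
    (hQ : ∀ n ∈ A, m ≤ |Q n i k * Q n j l - Q n i l * Q n j k|) {β : ℝ} (hαβ : α ≤ β)
    (hβ : β ≤ 1) (hα : 1024 * K ^ 2 * α ≤ 1) (hα' : 28 * K ^ 2 * α ≤ m) {N : ℕ}
    (hN : 2 * K ≤ 2 ^ N * √β) (hF : ∀ n ∈ A, |F n| ≤ β) :
    (A.card : ℝ) ≤ 2 * 10 ^ 13 * N * K ^ 10 * β / (m ^ 5 * α ^ 3) := by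
  classical
  have hα0 := h.α0
  have hK := h.K1
  have hβ0 : 0 < β := hα0.trans_le hαβ
  obtain ⟨o, o1, o2, ho⟩ := exists_o k l hkl
  obtain ⟨s0, hs0⟩ : ∃ s0, s0 = m / (28 * K ^ 2) := ⟨_, rfl⟩
  have hs0p : 0 < s0 := by rw [hs0]; positivity
  have hαs0 : α ≤ s0 := by rw [hs0, le_div_iff₀ (by positivity)]; linarith
  have hs01 : s0 ≤ 1 / 28 := by
    rw [hs0]
    refine div_le_div₀ (by norm_num) hm1 (by norm_num) ?_
    nlinarith
  -- the side of the cubes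
  obtain ⟨b, hb⟩ : ∃ b, b = ⌊s0 / α⌋₊ := ⟨_, rfl⟩
  have hb1 : 1 ≤ b := by
    rw [hb]; exact Nat.le_floor (by rw [Nat.cast_one, le_div_iff₀ hα0]; linarith)
  have hbp : 0 < b := hb1
  have hb' : (0 : ℝ) < b := by exact_mod_cast hbp
  have hb2 : α * b ≤ s0 := by
    have : (b : ℝ) ≤ s0 / α := by rw [hb]; exact Nat.floor_le (by positivity)
    rw [le_div_iff₀ hα0] at this
    linarith
  have hb3 : s0 ≤ 2 * (α * b) := by
    have h1 : s0 / α < b + 1 := by rw [hb]; exact Nat.lt_floor_add_one _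
    have h2 : (1 : ℝ) ≤ b := by exact_mod_cast hb1
    rw [div_lt_iff₀ hα0] at h1
    nlinarith
  have hαb : α ≤ α * b := by
    have h2 : (1 : ℝ) ≤ b := by exact_mod_cast hb1
    nlinarith
  obtain ⟨X, hX⟩ : ∃ X, X = 10 ^ 7 * N * K ^ 4 * β / (m ^ 2 * α ^ 3) := ⟨_, rfl⟩
  have hX0 : 0 ≤ X := by rw [hX]; positivity
  -- one cube
  have hcell : ∀ c : Fin 3 → ℕ, ((A.filter fun n => (fun j => n j / b) = c).card : ℝ) ≤ X := by
    intro c
    rcases (A.filter fun n => (fun j => n j / b) = c).eq_empty_or_nonempty with he | ⟨n0, hn0⟩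
    · rw [he, card_empty, Nat.cast_zero]; exact hX0
    · set T := A.filter fun n => (fun j => n j / b) = c with hT
      have hd : ∀ n ∈ T, ∀ n' ∈ T, ∀ j, |α * ((n' j : ℝ) - n j)| ≤ α * b := by
        intro n hn n' hn' j
        have e1 := congrFun (mem_filter.1 hn).2 j
        have e2 := congrFun (mem_filter.1 hn').2 j
        exact near_of_div hbp (e2.trans e1.symm) hα0
      have hz := h.freeze hαb (by linarith) ((filter_subset _ _).trans hA) hd hn0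
      have hM : Mn (Q n0) m i j k l o := ⟨hm, hm1, perm_of hkl o1 o2, ho,
        hQ n0 (mem_filter.1 hn0).1⟩
      have hε : 4 * K * (7 * K * (α * b)) ≤ m := by
        have h1 : α * b ≤ m / (28 * K ^ 2) := by rw [← hs0]; exact hb2
        rw [le_div_iff₀ (by positivity)] at h1
        linarith
      have := hz.total hM hε (Subset.refl T) hαβ hβ hα hN
        (fun n hn => hF n (mem_filter.1 hn).1)
      rw [hX]; exact this
  -- number of cubes
  have hval : ∀ q : Fin 3, ((A.image fun n => n q / b).card : ℝ) ≤ 3 / s0 := by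
    intro q
    have := card_div (A := A) (j := q) hbp (D := 1 / α) (by positivity)
      (fun n hn n' hn' => h.dif (hA hn) (hA hn') q)
    have e : 1 / α / b = 1 / (α * b) := by field_simp
    rw [e] at this
    have h1 : 1 / (α * b) ≤ 2 / s0 := by
      rw [div_le_div_iff₀ (by positivity) hs0p]; linarith
    have h2 : 2 ≤ 1 / s0 := by rw [le_div_iff₀ hs0p]; linarith
    have e3 : 3 / s0 = 2 / s0 + 1 / s0 := by ring
    linarith
  have hval' : ∀ q : Fin 3, ∀ a ∈ A, ∀ c ∈ A, |((a q / b : ℕ) : ℝ) - (c q / b : ℕ)| ≤ 3 / s0 := by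
    intro q a ha c hc
    have hdiv : ∀ x : ℕ, (x : ℝ) / b - 1 ≤ ((x / b : ℕ) : ℝ) ∧
        ((x / b : ℕ) : ℝ) ≤ (x : ℝ) / b := by
      intro x
      constructor
      · have h1 : x < (x / b + 1) * b := Nat.lt_mul_of_div_lt (Nat.lt_succ_self _) hbp
        have h2 : (x : ℝ) ≤ ((x / b : ℕ) + 1) * b := by exact_mod_cast h1.le
        rw [sub_le_iff_le_add, div_le_iff₀ hb']
        exact h2
      · exact Nat.cast_div_le
    have a1 := hdiv (a q)
    have a2 := hdiv (c q)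
    have h2 : |(a q : ℝ) / b - (c q : ℝ) / b| ≤ 1 / (α * b) := by
      rw [← sub_div, abs_div, abs_of_pos hb', ← div_div]
      exact div_le_div_of_nonneg_right (h.dif (hA ha) (hA hc) q) hb'.le
    have h1 : 1 / (α * b) ≤ 2 / s0 := by
      rw [div_le_div_iff₀ (by positivity) hs0p]; linarith
    have h3 : 2 ≤ 1 / s0 := by rw [le_div_iff₀ hs0p]; linarith
    have e3 : 3 / s0 = 2 / s0 + 1 / s0 := by ring
    rw [abs_le] at h2 ⊢
    constructor <;> linarith [a1.1, a1.2, a2.1, a2.2, h2.1, h2.2]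
  have hNc : ((A.image fun n => fun j => n j / b).card : ℝ) ≤ 64 / s0 ^ 3 := by
    have := card_cells3 (A := A) (b := b) (k := 0 + 1) (l := 0 + 2) (o := 0) (dir3 0)
      (X := 3 / s0) (D1 := 3 / s0) (D2 := 3 / s0) (hval 0) (by positivity)
      (by positivity) (fun a ha c hc _ => hval' _ a ha c hc) (fun a ha c hc _ => hval' _ a ha c hc)
    refine this.trans ?_
    have h3 : 1 ≤ 1 / s0 := by rw [le_div_iff₀ hs0p]; linarith
    have e1 : 3 / s0 ≤ 4 / s0 := div_le_div_of_nonneg_right (by norm_num) hs0p.le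
    have e2 : 3 / s0 + 1 ≤ 4 / s0 := by
      have e3 : 4 / s0 = 3 / s0 + 1 / s0 := by ring
      linarith
    calc 3 / s0 * ((3 / s0 + 1) * (3 / s0 + 1)) ≤ 4 / s0 * ((4 / s0) * (4 / s0)) :=
          mul_le_mul e1 (mul_le_mul e2 e2 (by positivity) (by positivity)) (by positivity)
            (by positivity)
      _ = 64 / s0 ^ 3 := by field_simp; ring
  refine (card_cells hX0 hNc hcell).trans ?_
  rw [hX, hs0]
  have e : 64 / (m / (28 * K ^ 2)) ^ 3 * (10 ^ 7 * N * K ^ 4 * β / (m ^ 2 * α ^ 3)) =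
      (64 * 28 ^ 3 * 10 ^ 7) * (N * K ^ 10 * β / (m ^ 5 * α ^ 3)) := by
    field_simp
  rw [e]
  calc (64 * 28 ^ 3 * 10 ^ 7 : ℝ) * (N * K ^ 10 * β / (m ^ 5 * α ^ 3)) ≤
      (2 * 10 ^ 13) * (N * K ^ 10 * β / (m ^ 5 * α ^ 3)) :=
        mul_le_mul_of_nonneg_right (by norm_num) (by positivity)
    _ = 2 * 10 ^ 13 * N * K ^ 10 * β / (m ^ 5 * α ^ 3) := by ring

/-- points with a given large minor, unconditional -/
theorem Sc.minor' (h : Sc S α K F G Q) {A : Finset (Fin 3 → ℕ)} (hA : A ⊆ S) (hm : 0 < m)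
    (hm1 : m ≤ 1) (i k j l : Fin 3)
    (hQ : ∀ n ∈ A, m ≤ |Q n i k * Q n j l - Q n i l * Q n j k|) {β : ℝ} (hαβ : α ≤ β)
    {N : ℕ} (hN1 : 1 ≤ N) (hN : 2 * K ≤ 2 ^ N * √β) (hF : ∀ n ∈ A, |F n| ≤ β) :
    (A.card : ℝ) ≤ 2 * 10 ^ 13 * N * K ^ 10 * β / (m ^ 5 * α ^ 3) := by
  have hα0 := h.α0
  have hK := h.K1
  have hβ0 : 0 < β := hα0.trans_le hαβ
  have hNr : (1 : ℝ) ≤ N := by exact_mod_cast hN1
  have hK10 : (1 : ℝ) ≤ K ^ 8 := one_le_pow₀ hK
  have hK2 : (1 : ℝ) ≤ K ^ 2 := one_le_pow₀ hK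
  have hm4 : m ^ 4 ≤ 1 := pow_le_one₀ hm.le hm1
  rcases A.eq_empty_or_nonempty with he | ⟨n1, hn1⟩
  · rw [he, card_empty, Nat.cast_zero]; positivity
  have hkl : k ≠ l := by
    intro e
    have := hQ n1 hn1
    rw [e, sub_self, abs_zero] at this
    linarith
  have htriv : m ≤ 28 * 1024 * K ^ 2 * β →
      (A.card : ℝ) ≤ 2 * 10 ^ 13 * N * K ^ 10 * β / (m ^ 5 * α ^ 3) := by
    intro hb
    refine (h.toSa.triv hA).trans ?_
    rw [div_le_div_iff₀ (by positivity) (by positivity)]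
    have h1 : m ^ 5 ≤ 28 * 1024 * K ^ 2 * β := by
      calc m ^ 5 = m ^ 4 * m := by ring
        _ ≤ 1 * m := mul_le_mul_of_nonneg_right hm4 hm.le
        _ ≤ _ := by linarith
    have h2 : K ^ 2 * β ≤ N * K ^ 10 * β := by
      refine mul_le_mul_of_nonneg_right ?_ hβ0.le
      calc K ^ 2 = 1 * (1 * K ^ 2) := by ring
        _ ≤ N * (K ^ 8 * K ^ 2) := mul_le_mul hNr
            (mul_le_mul_of_nonneg_right hK10 (by positivity)) (by positivity) (by positivity)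
        _ = N * K ^ 10 := by ring
    have h3 : 8 * m ^ 5 ≤ 2 * 10 ^ 13 * N * K ^ 10 * β := by linarith
    have h4 : 0 ≤ α ^ 3 := by positivity
    nlinarith
  by_cases hβ : β ≤ 1
  swap
  · refine htriv ?_
    nlinarith
  by_cases hα : 1024 * K ^ 2 * α ≤ 1
  swap
  · refine htriv ?_
    have h1 : 1024 * K ^ 2 * α ≤ 1024 * K ^ 2 * β :=
      mul_le_mul_of_nonneg_left hαβ (by positivity)
    linarith
  by_cases hα' : 28 * K ^ 2 * α ≤ m
  swap
  · refine htriv ?_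
    have h1 : 28 * K ^ 2 * α ≤ 28 * K ^ 2 * β :=
      mul_le_mul_of_nonneg_left hαβ (by positivity)
    have h2 : 0 ≤ K ^ 2 * β := by positivity
    linarith
  exact h.minor hA hm hm1 hkl i j hQ hαβ hβ hα hα' hN hF

/-- points with a given large derivative, unconditional -/
theorem Sa.grad' (h : Sa S α K F G) {A : Finset (Fin 3 → ℕ)} (hA : A ⊆ S) (i : Fin 3)
    {β γ : ℝ} (hγ : 0 < γ) (hαβ : α ≤ β) (hG : ∀ n ∈ A, γ ≤ |G i n|)
    (hF : ∀ n ∈ A, |F n| ≤ β) :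
    (A.card : ℝ) ≤ 90000 * K ^ 2 * β / (γ ^ 2 * α ^ 3) := by
  have hα0 := h.α0
  have hK := h.K1
  have hβ0 : 0 < β := hα0.trans_le hαβ
  rcases A.eq_empty_or_nonempty with he | ⟨n1, hn1⟩
  · rw [he, card_empty, Nat.cast_zero]; positivity
  have hγK : γ ≤ K := (hG n1 hn1).trans (h.gb n1 (hA hn1) i)
  by_cases h1 : 16 * K * α ≤ γ
  · exact h.grad (dir3 i) (dir3' i).1 (dir3' i).2 hA h1 hγK hαβ hG hF
  · refine (h.triv hA).trans ?_
    rw [div_le_div_iff₀ (by positivity) (by positivity)]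
    have h2 : γ ^ 2 ≤ 16 * K * β * K := by
      rw [sq]
      refine mul_le_mul ?_ hγK hγ.le (by positivity)
      have : 16 * K * α ≤ 16 * K * β := mul_le_mul_of_nonneg_left hαβ (by positivity)
      linarith
    have h4 : 0 ≤ α ^ 3 := by positivity
    have h5 : 0 ≤ K ^ 2 * β := by positivity
    have h6 : 8 * γ ^ 2 ≤ 90000 * K ^ 2 * β := by nlinarith
    nlinarith

/-- **V3: the volume lemma.**  `α = 1 / H`; points where `|F| ≤ β` and either the gradient is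
`≥ γ` or some `2 × 2` minor of the Hessian is `≥ m`. -/
theorem Sc.total (h : Sc S α K F G Q) {A : Finset (Fin 3 → ℕ)} (hA : A ⊆ S) {β γ m : ℝ}
    (hγ : 0 < γ) (hm : 0 < m) (hm1 : m ≤ 1) (hαβ : α ≤ β) {N : ℕ} (hN1 : 1 ≤ N)
    (hN : 2 * K ≤ 2 ^ N * √β) (hF : ∀ n ∈ A, |F n| ≤ β)
    (hnd : ∀ n ∈ A, (∃ i, γ ≤ |G i n|) ∨
      ∃ i j k l, m ≤ |Q n i j * Q n k l - Q n i l * Q n k j|) :
    (A.card : ℝ) ≤ 10 ^ 16 * N * K ^ 10 * (1 / γ ^ 2 + 1 / m ^ 5) * β / α ^ 3 := by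
  classical
  have hα0 := h.α0
  have hK := h.K1
  have hβ0 : 0 < β := hα0.trans_le hαβ
  have hNr : (1 : ℝ) ≤ N := by exact_mod_cast hN1
  set Ag : Fin 3 → Finset (Fin 3 → ℕ) := fun i => A.filter fun n => γ ≤ |G i n| with hAg
  set Am : (Fin 3 × Fin 3) × (Fin 3 × Fin 3) → Finset (Fin 3 → ℕ) := fun p =>
    A.filter fun n => m ≤ |Q n p.1.1 p.1.2 * Q n p.2.1 p.2.2 - Q n p.1.1 p.2.2 * Q n p.2.1 p.1.2|
    with hAm
  have c1 : ∀ i, ((Ag i).card : ℝ) ≤ 90000 * K ^ 2 * β / (γ ^ 2 * α ^ 3) := fun i =>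
    h.toSa.grad' ((filter_subset _ _).trans hA) i hγ hαβ (fun n hn => (mem_filter.1 hn).2)
      (fun n hn => hF n (mem_filter.1 hn).1)
  have c2 : ∀ p, ((Am p).card : ℝ) ≤ 2 * 10 ^ 13 * N * K ^ 10 * β / (m ^ 5 * α ^ 3) := fun p =>
    h.minor' ((filter_subset _ _).trans hA) hm hm1 p.1.1 p.1.2 p.2.1 p.2.2
      (fun n hn => (mem_filter.1 hn).2) hαβ hN1 hN (fun n hn => hF n (mem_filter.1 hn).1)
  have hcov : A ⊆ (univ : Finset (Fin 3)).biUnion Ag ∪
      (univ : Finset ((Fin 3 × Fin 3) × (Fin 3 × Fin 3))).biUnion Am := by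
    intro n hn
    rcases hnd n hn with ⟨i, hi⟩ | ⟨i, j, k, l, hi⟩
    · exact mem_union_left _ (mem_biUnion.2 ⟨i, mem_univ _, mem_filter.2 ⟨hn, hi⟩⟩)
    · exact mem_union_right _ (mem_biUnion.2 ⟨((i, j), (k, l)), mem_univ _,
        mem_filter.2 ⟨hn, hi⟩⟩)
  have hcard : A.card ≤ ∑ i, (Ag i).card + ∑ p, (Am p).card :=
    (card_le_card hcov).trans ((card_union_le _ _).trans
      (Nat.add_le_add card_biUnion_le card_biUnion_le))
  have hcard' : (A.card : ℝ) ≤ ∑ i, ((Ag i).card : ℝ) + ∑ p, ((Am p).card : ℝ) := by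
    exact_mod_cast hcard
  have s1 : ∑ i, ((Ag i).card : ℝ) ≤ 3 * (90000 * K ^ 2 * β / (γ ^ 2 * α ^ 3)) := by
    refine (sum_le_sum fun i _ => c1 i).trans (le_of_eq ?_)
    rw [sum_const, card_univ, Fintype.card_fin, nsmul_eq_mul]
    norm_num
  have s2 : ∑ p, ((Am p).card : ℝ) ≤
      81 * (2 * 10 ^ 13 * N * K ^ 10 * β / (m ^ 5 * α ^ 3)) := by
    refine (sum_le_sum fun i _ => c2 i).trans (le_of_eq ?_)
    rw [sum_const, card_univ, Fintype.card_prod, Fintype.card_prod, Fintype.card_fin,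
      nsmul_eq_mul]
    norm_num
  obtain ⟨u, hu⟩ : ∃ u, u = β / α ^ 3 := ⟨_, rfl⟩
  have hu0 : 0 ≤ u := by rw [hu]; positivity
  have e1 : 90000 * K ^ 2 * β / (γ ^ 2 * α ^ 3) = 90000 * (K ^ 2 * (1 / γ ^ 2) * u) := by
    rw [hu]; field_simp
  have e2 : 2 * 10 ^ 13 * N * K ^ 10 * β / (m ^ 5 * α ^ 3) =
      2 * 10 ^ 13 * (N * K ^ 10 * (1 / m ^ 5) * u) := by
    rw [hu]; field_simp
  have e3 : 10 ^ 16 * N * K ^ 10 * (1 / γ ^ 2 + 1 / m ^ 5) * β / α ^ 3 =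
      10 ^ 16 * (N * K ^ 10 * (1 / γ ^ 2) * u) + 10 ^ 16 * (N * K ^ 10 * (1 / m ^ 5) * u) := by
    rw [hu]; ring
  have h1 : K ^ 2 * (1 / γ ^ 2) * u ≤ N * K ^ 10 * (1 / γ ^ 2) * u := by
    refine mul_le_mul_of_nonneg_right (mul_le_mul_of_nonneg_right ?_ (by positivity)) hu0
    calc K ^ 2 = 1 * (1 * K ^ 2) := by ring
      _ ≤ N * (K ^ 8 * K ^ 2) := mul_le_mul hNr
          (mul_le_mul_of_nonneg_right (one_le_pow₀ hK) (by positivity)) (by positivity)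
            (by positivity)
      _ = N * K ^ 10 := by ring
  have h2 : 0 ≤ N * K ^ 10 * (1 / γ ^ 2) * u := by positivity
  have h3 : 0 ≤ N * K ^ 10 * (1 / m ^ 5) * u := by positivity
  rw [e1] at s1
  rw [e2] at s2
  rw [e3]
  refine hcard'.trans (add_le_add (s1.trans ?_) (s2.trans ?_))
  · calc 3 * (90000 * (K ^ 2 * (1 / γ ^ 2) * u)) ≤ 3 * (90000 * (N * K ^ 10 * (1 / γ ^ 2) * u)) := by
          linarith
      _ = 270000 * (N * K ^ 10 * (1 / γ ^ 2) * u) := by ring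
      _ ≤ 10 ^ 16 * (N * K ^ 10 * (1 / γ ^ 2) * u) :=
          mul_le_mul_of_nonneg_right (by norm_num) h2
  · calc 81 * (2 * 10 ^ 13 * (N * K ^ 10 * (1 / m ^ 5) * u)) =
        (81 * (2 * 10 ^ 13)) * (N * K ^ 10 * (1 / m ^ 5) * u) := (mul_assoc _ _ _).symm
      _ ≤ 10 ^ 16 * (N * K ^ 10 * (1 / m ^ 5) * u) :=
          mul_le_mul_of_nonneg_right (by norm_num) h3

end

end Crest.Agent.R136.Sbl57
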