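import Mathlib

/-!
# R136 (S0187), U5 without a relation between `g` and `q`: sublevel sets of quadratic polynomials
(helper296)

`sq_slice` : one-dimensional slices of `d₁ (u-a)² + d₂ (v-b)² + c`.
`int_inv`  : `∫ 1 / (|v-p| + δ)` over an interval.
-/

set_option autoImplicit false

namespace Crest.Agent.R136.Sbq296

open MeasureTheory Set

/-- the set `{u : |d (u - a)² + t| ≤ α}` -/
theorem one_slice {d t a α lam : ℝ} (hlam : 0 < lam) (hd : lam ≤ |d|) (hα : 0 < α) :
    volume {u : ℝ | |d * (u - a) ^ 2 + t| ≤ α} ≤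
      ENNReal.ofReal (8 * α / Real.sqrt (lam * max |t| α)) := by
  have hd0 : 0 < |d| := hlam.trans_le hd
  rcases le_or_gt |t| (2 * α) with ht | ht
  · -- small `t`
    have hsub : {u : ℝ | |d * (u - a) ^ 2 + t| ≤ α} ⊆
        Icc (a - Real.sqrt (3 * α / lam)) (a + Real.sqrt (3 * α / lam)) := by
      intro u hu
      have h1 : |d * (u - a) ^ 2| ≤ 3 * α := by
        have : d * (u - a) ^ 2 = (d * (u - a) ^ 2 + t) - t := by ring
        rw [this]
        exact (abs_sub _ _).trans (by have : |d * (u - a) ^ 2 + t| ≤ α := hu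
                                      linarith)
      rw [abs_mul, abs_of_nonneg (sq_nonneg (u - a))] at h1
      have h2 : (u - a) ^ 2 ≤ 3 * α / lam := by
        rw [le_div_iff₀ hlam]
        have := mul_le_mul_of_nonneg_right hd (sq_nonneg (u - a))
        linarith
      have h3 : |u - a| ≤ Real.sqrt (3 * α / lam) := Real.abs_le_sqrt h2
      have := abs_le.1 h3
      exact ⟨by linarith [this.1], by linarith [this.2]⟩
    refine (measure_mono hsub).trans ?_
    rw [Real.volume_Icc]
    refine ENNReal.ofReal_le_ofReal ?_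
    have hmax : max |t| α ≤ 2 * α := max_le ht (by linarith)
    have hmp : 0 < lam * max |t| α := mul_pos hlam (lt_of_lt_of_le hα (le_max_right _ _))
    have h4 : Real.sqrt (3 * α / lam) * Real.sqrt (lam * max |t| α) ≤ 3 * α := by
      rw [← Real.sqrt_mul (by positivity)]
      refine Real.sqrt_le_iff.2 ⟨by positivity, ?_⟩
      have e : 3 * α / lam * (lam * max |t| α) = 3 * α * max |t| α := by field_simp
      rw [e]
      nlinarith
    rw [le_div_iff₀ (Real.sqrt_pos.2 hmp)]
    have : a + Real.sqrt (3 * α / lam) - (a - Real.sqrt (3 * α / lam)) =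
        2 * Real.sqrt (3 * α / lam) := by ring
    rw [this]
    nlinarith
  · -- large `t`
    have ht0 : 0 < |t| := by linarith
    set r1 := Real.sqrt ((|t| - α) / |d|) with hr1
    set r2 := Real.sqrt ((|t| + α) / |d|) with hr2
    have hr1p : 0 ≤ r1 := Real.sqrt_nonneg _
    have hr2p : 0 < r2 := Real.sqrt_pos.2 (by positivity)
    have hsub : {u : ℝ | |d * (u - a) ^ 2 + t| ≤ α} ⊆
        Icc (a + r1) (a + r2) ∪ Icc (a - r2) (a - r1) := by
      intro u hu
      have hu' : |d * (u - a) ^ 2 + t| ≤ α := hu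
      have h1 : |d| * (u - a) ^ 2 ≤ |t| + α := by
        have e : |d| * (u - a) ^ 2 = |d * (u - a) ^ 2| := by
          rw [abs_mul, abs_of_nonneg (sq_nonneg (u - a))]
        rw [e]
        have : d * (u - a) ^ 2 = (d * (u - a) ^ 2 + t) - t := by ring
        rw [this]
        exact (abs_sub _ _).trans (by linarith)
      have h2 : |t| - α ≤ |d| * (u - a) ^ 2 := by
        have e : |d| * (u - a) ^ 2 = |d * (u - a) ^ 2| := by
          rw [abs_mul, abs_of_nonneg (sq_nonneg (u - a))]
        rw [e]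
        have h3 : |t| ≤ |d * (u - a) ^ 2 + t| + |d * (u - a) ^ 2| := by
          have : t = (d * (u - a) ^ 2 + t) - d * (u - a) ^ 2 := by ring
          conv_lhs => rw [this]
          exact abs_sub _ _
        linarith
      have h3 : |u - a| ≤ r2 := by
        refine Real.abs_le_sqrt ?_
        rw [le_div_iff₀ hd0]; linarith
      have h4 : r1 ≤ |u - a| := by
        refine le_trans (b := Real.sqrt ((u - a) ^ 2)) (Real.sqrt_le_sqrt ?_)
          (le_of_eq (Real.sqrt_sq_eq_abs _))
        rw [div_le_iff₀ hd0]; linarith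
      rcases le_total 0 (u - a) with h | h
      · rw [abs_of_nonneg h] at h3 h4
        left; exact ⟨by linarith, by linarith⟩
      · rw [abs_of_nonpos h] at h3 h4
        right; exact ⟨by linarith, by linarith⟩
    refine (measure_mono hsub).trans ((measure_union_le _ _).trans ?_)
    rw [Real.volume_Icc, Real.volume_Icc]
    have e1 : a + r2 - (a + r1) = r2 - r1 := by ring
    have e2 : a - r1 - (a - r2) = r2 - r1 := by ring
    have hle : r1 ≤ r2 := Real.sqrt_le_sqrt (by gcongr; linarith)
    rw [e1, e2, ← ENNReal.ofReal_add (by linarith) (by linarith)]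
    refine ENNReal.ofReal_le_ofReal ?_
    rw [max_eq_left (by linarith : α ≤ |t|)]
    have hs : 0 < Real.sqrt (lam * |t|) := Real.sqrt_pos.2 (by positivity)
    rw [le_div_iff₀ hs]
    have s1 : r1 ^ 2 = (|t| - α) / |d| := Real.sq_sqrt (div_nonneg (by linarith) hd0.le)
    have s2 : r2 ^ 2 = (|t| + α) / |d| := Real.sq_sqrt (by positivity)
    -- `(r2 - r1) * r2 ≤ 2 α / |d|`
    have h5 : (r2 - r1) * r2 ≤ 2 * α / |d| := by
      have : (r2 - r1) * (r2 + r1) = 2 * α / |d| := by
        have : (r2 - r1) * (r2 + r1) = r2 ^ 2 - r1 ^ 2 := by ring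
        rw [this, s1, s2]; ring
      rw [← this]
      exact mul_le_mul_of_nonneg_left (by linarith) (by linarith)
    -- `sqrt (lam |t|) ≤ |d| r2`
    have h6 : Real.sqrt (lam * |t|) ≤ |d| * r2 := by
      rw [← Real.sqrt_sq (by positivity : 0 ≤ |d| * r2)]
      refine Real.sqrt_le_sqrt ?_
      rw [mul_pow, s2]
      have e : |d| ^ 2 * ((|t| + α) / |d|) = |d| * (|t| + α) := by field_simp
      rw [e]
      gcongr
      linarith
    calc (r2 - r1 + (r2 - r1)) * Real.sqrt (lam * |t|) ≤
        (r2 - r1 + (r2 - r1)) * (|d| * r2) := mul_le_mul_of_nonneg_left h6 (by linarith)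
      _ = 2 * |d| * ((r2 - r1) * r2) := by ring
      _ ≤ 2 * |d| * (2 * α / |d|) := by gcongr
      _ = 4 * α := by field_simp; norm_num
      _ ≤ 8 * α := by linarith

/-- slices of `d₁ (u-a)² + d₂ (v-b)² + c` -/
theorem sq_slice {d1 d2 a b c α lam : ℝ} (hlam : 0 < lam) (hd1 : lam ≤ |d1|) (hd2 : lam ≤ |d2|)
    (hα : 0 < α) : ∃ p q : ℝ, ∀ v : ℝ,
    volume {u : ℝ | |d1 * (u - a) ^ 2 + (d2 * (v - b) ^ 2 + c)| ≤ α} ≤
      ENNReal.ofReal (16 * (α / lam) * (1 / (|v - p| + Real.sqrt (α / lam)) +
        1 / (|v - q| + Real.sqrt (α / lam)))) := by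
  set δ := Real.sqrt (α / lam) with hδ
  have hδ0 : 0 < δ := Real.sqrt_pos.2 (by positivity)
  have hδ2 : δ ^ 2 = α / lam := Real.sq_sqrt (by positivity)
  set ρ := Real.sqrt (-c / d2) with hρ
  have hρ0 : 0 ≤ ρ := Real.sqrt_nonneg _
  refine ⟨b + ρ, b - ρ, fun v => ?_⟩
  refine (one_slice hlam hd1 hα).trans (ENNReal.ofReal_le_ofReal ?_)
  set t := d2 * (v - b) ^ 2 + c with ht
  have hd20 : d2 ≠ 0 := by
    intro h; rw [h, abs_zero] at hd2; linarith
  -- `lam (|v-b| - ρ)² ≤ |t|`
  have h1 : lam * (|v - b| - ρ) ^ 2 ≤ |t| := by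
    have e1 : t = d2 * ((v - b) ^ 2 - (-c / d2)) := by rw [ht]; field_simp; ring
    have h2 : (|v - b| - ρ) ^ 2 ≤ |(v - b) ^ 2 - (-c / d2)| := by
      rcases le_total 0 (-c / d2) with hc | hc
      · have hρ2 : ρ ^ 2 = -c / d2 := Real.sq_sqrt hc
        rw [← hρ2, ← sq_abs (v - b)]
        have e2 : |v - b| ^ 2 - ρ ^ 2 = (|v - b| - ρ) * (|v - b| + ρ) := by ring
        rw [e2, abs_mul, abs_of_nonneg (by positivity : 0 ≤ |v - b| + ρ), ← sq_abs (|v - b| - ρ),
          sq]
        refine mul_le_mul_of_nonneg_left ?_ (abs_nonneg _)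
        rw [abs_le]
        constructor <;> linarith [abs_nonneg (v - b)]
      · have : ρ = 0 := Real.sqrt_eq_zero_of_nonpos hc
        rw [this, sub_zero, sq_abs, abs_of_nonneg (by nlinarith [sq_nonneg (v - b)])]
        linarith
    rw [e1, abs_mul]
    exact mul_le_mul hd2 h2 (sq_nonneg _) (abs_nonneg _)
  -- lower bound of the square root
  have h3 : lam * max |(|v - b| - ρ)| δ ≤ Real.sqrt (lam * max |t| α) := by
    refine Real.le_sqrt_of_sq_le ?_
    have e3 : (lam * max |(|v - b| - ρ)| δ) ^ 2 =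
        lam * max (lam * (|v - b| - ρ) ^ 2) α := by
      have e4 : (max |(|v - b| - ρ)| δ) ^ 2 = max ((|v - b| - ρ) ^ 2) (δ ^ 2) := by
        rcases le_total |(|v - b| - ρ)| δ with h | h
        · rw [max_eq_right h, max_eq_right]
          rw [← sq_abs]; gcongr
        · rw [max_eq_left h, max_eq_left, sq_abs]
          rw [← sq_abs (|v - b| - ρ)]; gcongr
      rw [mul_pow, e4, hδ2, sq, mul_assoc, mul_max_of_nonneg _ _ hlam.le]
      congr 2
      field_simp
    rw [e3]
    gcongr
  have hm : 0 < max |(|v - b| - ρ)| δ := lt_max_of_lt_right hδ0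
  have h4 : 8 * α / Real.sqrt (lam * max |t| α) ≤ 8 * α / (lam * max |(|v - b| - ρ)| δ) := by
    gcongr
  refine h4.trans ?_
  -- `|v-b| - ρ` is `± (v - p)`
  have h5 : 1 / max |(|v - b| - ρ)| δ ≤ 2 * (1 / (|v - (b + ρ)| + δ) +
      1 / (|v - (b - ρ)| + δ)) := by
    have key : ∀ x : ℝ, 0 ≤ x → 1 / max x δ ≤ 2 * (1 / (x + δ)) := by
      intro x hx
      rw [mul_one_div, div_le_div_iff₀ (lt_max_of_lt_right hδ0) (by linarith)]
      have := le_max_left x δ
      have := le_max_right x δ
      linarith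
    have n1 : 0 ≤ 1 / (|v - (b + ρ)| + δ) := by positivity
    have n2 : 0 ≤ 1 / (|v - (b - ρ)| + δ) := by positivity
    rcases le_total 0 (v - b) with h | h
    · have e : |v - b| - ρ = v - (b + ρ) := by rw [abs_of_nonneg h]; ring
      rw [e]
      refine (key _ (abs_nonneg _)).trans ?_
      linarith
    · have e : |(|v - b| - ρ)| = |v - (b - ρ)| := by
        rw [abs_of_nonpos h, ← abs_neg (v - (b - ρ))]; congr 1; ring
      rw [e]
      refine (key _ (abs_nonneg _)).trans ?_
      linarith
  have e5 : 8 * α / (lam * max |(|v - b| - ρ)| δ) =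
      8 * (α / lam) * (1 / max |(|v - b| - ρ)| δ) := by field_simp
  rw [e5]
  calc 8 * (α / lam) * (1 / max |(|v - b| - ρ)| δ) ≤ 8 * (α / lam) *
        (2 * (1 / (|v - (b + ρ)| + δ) + 1 / (|v - (b - ρ)| + δ))) := by gcongr
    _ = _ := by ring

/-- `∫ 1 / (|v - p| + δ)` over an interval of length `2 R` -/
theorem int_inv {R p δ : ℝ} (hR : 0 ≤ R) (hδ : 0 < δ) :
    ∫⁻ v in Icc (-R) R, ENNReal.ofReal (1 / (|v - p| + δ)) ≤
      ENNReal.ofReal (2 * Real.log ((2 * R + δ) / δ)) := by
  -- clamp `p`
  set p' := max (-R) (min p R) with hp'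
  have hp1 : -R ≤ p' := le_max_left _ _
  have hp2 : p' ≤ R := max_le (by linarith) (min_le_right _ _)
  have hcl : ∀ v ∈ Icc (-R) R, |v - p'| ≤ |v - p| := by
    intro v hv
    rcases le_total p R with h | h
    · rcases le_total (-R) p with h' | h'
      · rw [hp', min_eq_left h, max_eq_right h']
      · rw [hp', min_eq_left h, max_eq_left h', abs_of_nonneg (by linarith [hv.1]),
          abs_of_nonneg (by linarith [hv.1])]
        linarith
    · rw [hp', min_eq_right h, max_eq_right (by linarith), abs_of_nonpos (by linarith [hv.2]),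
        abs_of_nonpos (by linarith [hv.2])]
      linarith
  have h1 : ∫⁻ v in Icc (-R) R, ENNReal.ofReal (1 / (|v - p| + δ)) ≤
      ∫⁻ v in Icc (-R) R, ENNReal.ofReal (1 / (|v - p'| + δ)) := by
    refine setLIntegral_mono' measurableSet_Icc fun v hv => ENNReal.ofReal_le_ofReal ?_
    have := hcl v hv
    have : 0 ≤ |v - p'| := abs_nonneg _
    gcongr
  refine h1.trans ?_
  have hsub : Icc (-R) R ⊆ Icc (-R) p' ∪ Icc p' R := by
    intro v hv
    rcases le_total v p' with h | h
    · exact Or.inl ⟨hv.1, h⟩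
    · exact Or.inr ⟨h, hv.2⟩
  -- right half
  have hright : ∫⁻ v in Icc p' R, ENNReal.ofReal (1 / (|v - p'| + δ)) ≤
      ENNReal.ofReal (Real.log ((2 * R + δ) / δ)) := by
    have e1 : ∫⁻ v in Icc p' R, ENNReal.ofReal (1 / (|v - p'| + δ)) =
        ∫⁻ v in Icc p' R, ENNReal.ofReal (1 / (v - p' + δ)) := by
      refine setLIntegral_congr_fun measurableSet_Icc fun v hv => ?_
      show ENNReal.ofReal (1 / (|v - p'| + δ)) = ENNReal.ofReal (1 / (v - p' + δ))
      rw [abs_of_nonneg (by linarith [hv.1])]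
    have hcont : ContinuousOn (fun v => 1 / (v - p' + δ)) (Icc p' R) := by
      refine ContinuousOn.div continuousOn_const (by fun_prop) fun v hv => ?_
      have := hv.1
      linarith
    have hint : IntegrableOn (fun v => 1 / (v - p' + δ)) (Icc p' R) :=
      hcont.integrableOn_Icc
    rw [e1, ← ofReal_integral_eq_lintegral_ofReal hint ?_]
    · refine ENNReal.ofReal_le_ofReal ?_
      rw [integral_Icc_eq_integral_Ioc, ← intervalIntegral.integral_of_le hp2]
      have hF : ∀ v ∈ uIcc p' R, HasDerivAt (fun v => Real.log (v - p' + δ)) (1 / (v - p' + δ)) v := by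
        intro v hv
        rw [uIcc_of_le hp2] at hv
        have h0 : v - p' + δ ≠ 0 := by have := hv.1; linarith
        have := ((hasDerivAt_id v).sub_const p').add_const δ
        exact this.log h0
      rw [intervalIntegral.integral_eq_sub_of_hasDerivAt hF
        (ContinuousOn.intervalIntegrable (by rw [uIcc_of_le hp2]; exact hcont))]
      simp only [sub_self, zero_add]
      rw [Real.log_div (by linarith) hδ.ne']
      have : Real.log (R - p' + δ) ≤ Real.log (2 * R + δ) :=
        Real.log_le_log (by linarith) (by linarith)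
      linarith
    · filter_upwards [ae_restrict_mem measurableSet_Icc] with v hv
      have := hv.1
      have : 0 < v - p' + δ := by linarith
      positivity
  have hleft : ∫⁻ v in Icc (-R) p', ENNReal.ofReal (1 / (|v - p'| + δ)) ≤
      ENNReal.ofReal (Real.log ((2 * R + δ) / δ)) := by
    have e1 : ∫⁻ v in Icc (-R) p', ENNReal.ofReal (1 / (|v - p'| + δ)) =
        ∫⁻ v in Icc (-R) p', ENNReal.ofReal (1 / (p' - v + δ)) := by
      refine setLIntegral_congr_fun measurableSet_Icc fun v hv => ?_
      show ENNReal.ofReal (1 / (|v - p'| + δ)) = ENNReal.ofReal (1 / (p' - v + δ))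
      rw [abs_of_nonpos (by linarith [hv.2]), neg_sub]
    have hcont : ContinuousOn (fun v => 1 / (p' - v + δ)) (Icc (-R) p') := by
      refine ContinuousOn.div continuousOn_const (by fun_prop) fun v hv => ?_
      have := hv.2
      linarith
    have hint : IntegrableOn (fun v => 1 / (p' - v + δ)) (Icc (-R) p') :=
      hcont.integrableOn_Icc
    rw [e1, ← ofReal_integral_eq_lintegral_ofReal hint ?_]
    · refine ENNReal.ofReal_le_ofReal ?_
      rw [integral_Icc_eq_integral_Ioc, ← intervalIntegral.integral_of_le hp1]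
      have hF : ∀ v ∈ uIcc (-R) p', HasDerivAt (fun v => -Real.log (p' - v + δ))
          (1 / (p' - v + δ)) v := by
        intro v hv
        rw [uIcc_of_le hp1] at hv
        have h0 : p' - v + δ ≠ 0 := by have := hv.2; linarith
        have h1 := (((hasDerivAt_id v).const_sub p').add_const δ).log h0
        have h2 : HasDerivAt (fun v => -Real.log (p' - v + δ)) (-(-1 / (p' - v + δ))) v := h1.neg
        rwa [neg_div, neg_neg] at h2
      rw [intervalIntegral.integral_eq_sub_of_hasDerivAt hF
        (ContinuousOn.intervalIntegrable (by rw [uIcc_of_le hp1]; exact hcont))]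
      simp only [sub_self, zero_add, sub_neg_eq_add]
      rw [Real.log_div (by linarith) hδ.ne']
      have : Real.log (p' + R + δ) ≤ Real.log (2 * R + δ) :=
        Real.log_le_log (by linarith) (by linarith)
      linarith
    · filter_upwards [ae_restrict_mem measurableSet_Icc] with v hv
      have := hv.2
      have : 0 < p' - v + δ := by linarith
      positivity
  have hlog : 0 ≤ Real.log ((2 * R + δ) / δ) := by
    refine Real.log_nonneg ?_
    rw [le_div_iff₀ hδ]; linarith
  calc ∫⁻ v in Icc (-R) R, ENNReal.ofReal (1 / (|v - p'| + δ))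
      ≤ ∫⁻ v in Icc (-R) p' ∪ Icc p' R, ENNReal.ofReal (1 / (|v - p'| + δ)) :=
        lintegral_mono_set hsub
    _ ≤ (∫⁻ v in Icc (-R) p', ENNReal.ofReal (1 / (|v - p'| + δ))) +
        (∫⁻ v in Icc p' R, ENNReal.ofReal (1 / (|v - p'| + δ))) := lintegral_union_le _ _ _
    _ ≤ ENNReal.ofReal (Real.log ((2 * R + δ) / δ)) +
        ENNReal.ofReal (Real.log ((2 * R + δ) / δ)) := add_le_add hleft hright
    _ = _ := by rw [← ENNReal.ofReal_add hlog hlog]; congr 1; ring

end Crest.Agent.R136.Sbq296
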