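import Mathlib

/-!
# R136, block U4 (helper823): exact selection of several parameters

* `exists_last` : a function whose jumps along increasing sequences go upward has a maximal element
  of its upper level set ("last time" argument), off the upper faces.
* `exists_par`  : three parameters `s` (strong), `u` (logarithmic), `t` (weak).
-/

set_option autoImplicit false
set_option linter.unusedVariables false

open Finset Filter Topology

namespace Crest.Agent.R136.Sel823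

/-- **last point of an upper level set.** -/
theorem exists_last {ι : Type} [Fintype ι] {Z : (ι → ℝ) → ℝ} {lo hi : ι → ℝ} {C : ℝ}
    (hC : 0 ≤ C) (hlh : lo ≤ hi)
    (hZ : ∀ x ∈ Set.Icc lo hi, ∀ y ∈ Set.Icc lo hi, x ≤ y → Z x - C * ∑ i, (y i - x i) ≤ Z y)
    (hf : ∀ x ∈ Set.Icc lo hi, (∃ i, x i = hi i) → Z x < Z lo) :
    ∃ x ∈ Set.Icc lo hi, (∀ i, x i < hi i) ∧ Z lo ≤ Z x ∧
      ∀ y ∈ Set.Icc lo hi, x ≤ y → Z y ≤ Z x := by
  classical
  have hloI : lo ∈ Set.Icc lo hi := ⟨le_rfl, hlh⟩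
  obtain ⟨m, hm1, hm2⟩ := zorn_le_nonempty₀ {x | x ∈ Set.Icc lo hi ∧ Z lo ≤ Z x} (by
    intro c hc hch y hy
    have hbdd : ∀ i, BddAbove ((fun x : ι → ℝ => x i) '' c) := by
      intro i
      refine ⟨hi i, ?_⟩
      rintro _ ⟨x, hx, rfl⟩
      exact (hc hx).1.2 i
    set b : ι → ℝ := fun i => sSup ((fun x : ι → ℝ => x i) '' c) with hb
    have hle : ∀ x ∈ c, x ≤ b := fun x hx i => le_csSup (hbdd i) ⟨x, hx, rfl⟩
    have hbI : b ∈ Set.Icc lo hi := by
      refine ⟨(hc hy).1.1.trans (hle y hy), fun i => ?_⟩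
      refine csSup_le ⟨_, ⟨y, hy, rfl⟩⟩ ?_
      rintro _ ⟨x, hx, rfl⟩
      exact (hc hx).1.2 i
    refine ⟨b, ⟨hbI, ?_⟩, hle⟩
    -- approximation by one element of the chain
    have happ : ∀ ε : ℝ, 0 < ε → ∀ s : Finset ι, ∃ x ∈ c, ∀ i ∈ s, b i - ε < x i := by
      intro ε hε s
      induction s using Finset.induction_on with
      | empty => exact ⟨y, hy, by simp⟩
      | insert j s hj ih =>
        obtain ⟨x, hx, h1⟩ := ih
        have h2 : b j - ε < b j := by linarith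
        obtain ⟨_, ⟨x', hx', rfl⟩, h3⟩ := exists_lt_of_lt_csSup
          (s := (fun x : ι → ℝ => x j) '' c) ⟨_, ⟨y, hy, rfl⟩⟩ h2
        rcases hch.total hx hx' with h4 | h4
        · refine ⟨x', hx', fun i hi => ?_⟩
          rcases mem_insert.1 hi with rfl | hi
          · exact h3
          · exact (h1 i hi).trans_le (h4 i)
        · refine ⟨x, hx, fun i hi => ?_⟩
          rcases mem_insert.1 hi with rfl | hi
          · exact lt_of_lt_of_le h3 (h4 i)
          · exact h1 i hi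
    refine le_of_forall_pos_le_add fun ε hε => ?_
    set N : ℝ := (Fintype.card ι : ℝ) with hN
    have hN0 : 0 ≤ N := Nat.cast_nonneg _
    obtain ⟨x, hx, h1⟩ := happ (ε / (C * N + 1)) (by positivity) univ
    have h2 := hZ x (hc hx).1 b hbI (hle x hx)
    have h3 : ∑ i, (b i - x i) ≤ N * (ε / (C * N + 1)) := by
      have : ∑ i, (b i - x i) ≤ ∑ _i : ι, ε / (C * N + 1) := Finset.sum_le_sum fun i _ => by
        have := h1 i (mem_univ i)
        linarith
      rw [Finset.sum_const, Finset.card_univ, nsmul_eq_mul] at this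
      exact this
    have h4 : C * (N * (ε / (C * N + 1))) ≤ ε := by
      have e : C * (N * (ε / (C * N + 1))) = ε * ((C * N) / (C * N + 1)) := by ring
      rw [e]
      have : (C * N) / (C * N + 1) ≤ 1 := by
        rw [div_le_one (by positivity)]; linarith
      nlinarith
    have h5 := mul_le_mul_of_nonneg_left h3 hC
    have h6 := (hc hx).2
    linarith) lo ⟨hloI, le_rfl⟩
  have hmI : m ∈ Set.Icc lo hi := hm2.prop.1
  have hmZ : Z lo ≤ Z m := hm2.prop.2
  refine ⟨m, hmI, fun i => ?_, hmZ, fun y hy hmy => ?_⟩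
  · refine lt_of_le_of_ne (hmI.2 i) fun h => ?_
    have := hf m hmI ⟨i, h⟩
    linarith
  · by_cases h : Z lo ≤ Z y
    · have h1 := hm2.le_of_ge (y := y) ⟨hy, h⟩ hmy
      have : y = m := le_antisymm h1 hmy
      rw [this]
    · push Not at h
      linarith

theorem log_one_sided {u u' : ℝ} (hu : 0 < u) (h : u ≤ u') :
    Real.log u' - Real.log u ≤ (u' - u) / u := by
  have hu' : 0 < u' := hu.trans_le h
  have h1 := Real.log_le_sub_one_of_pos (div_pos hu' hu)
  rw [Real.log_div hu'.ne' hu.ne'] at h1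
  have e : u' / u - 1 = (u' - u) / u := by field_simp
  linarith

/-- **selection of three parameters.** -/
theorem exists_par {h : ℝ → ℝ → ℝ → ℝ} {s0 S u0 u1 t0 t1 CU b1 κ a K : ℝ}
    (hs : s0 ≤ S) (hs0 : 0 ≤ s0) (hu0 : 0 < u0) (hu : u0 ≤ u1) (ht : t0 ≤ t1) (hb1 : 0 < b1)
    (hκ : 0 < κ) (hκS : κ * S ≤ b1 / 2) (ha : 0 < a) (hK : 0 ≤ K) (hCU : 0 ≤ CU)
    (hmono : ∀ s s' u u' t t', s0 ≤ s → s ≤ s' → s' ≤ S → u0 ≤ u → u ≤ u' → u' ≤ u1 → t0 ≤ t →
      t ≤ t' → t' ≤ t1 → h s u t - 2 * ((s' - s) + (u' - u) + (t' - t)) ≤ h s' u' t')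
    (hbase : b1 ≤ h s0 u0 t0) (hup : ∀ s u t, s0 ≤ s → s ≤ S → u0 ≤ u → u ≤ u1 → t0 ≤ t →
      t ≤ t1 → h s u t ≤ CU - s / 2) (hS : 2 * CU ≤ S)
    (hau : CU ≤ a * (Real.log u1 - Real.log u0)) (hKt : CU ≤ K * (t1 - t0)) :
    ∃ s u t, s0 ≤ s ∧ s < S ∧ u0 ≤ u ∧ u < u1 ∧ t0 ≤ t ∧ t < t1 ∧ b1 / 2 ≤ h s u t ∧
      ∀ δ υ τ, 0 ≤ δ → 0 ≤ υ → 0 ≤ τ → s + δ ≤ S → u + υ ≤ u1 → t + τ ≤ t1 →
        h (s + δ) (u + υ) (t + τ) ≤ h s u t - κ * δ + a / u * υ + K * τ := by
  set Z : (Fin 3 → ℝ) → ℝ := fun x => h (x 0) (x 1) (x 2) + κ * x 0 - a * Real.log (x 1) -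
    K * x 2 with hZdef
  set lo : Fin 3 → ℝ := ![s0, u0, t0] with hlo
  set hi : Fin 3 → ℝ := ![S, u1, t1] with hhi
  have hmem : ∀ x : Fin 3 → ℝ, x ∈ Set.Icc lo hi ↔
      (s0 ≤ x 0 ∧ x 0 ≤ S) ∧ (u0 ≤ x 1 ∧ x 1 ≤ u1) ∧ (t0 ≤ x 2 ∧ x 2 ≤ t1) := by
    intro x
    rw [Set.mem_Icc, Pi.le_def, Pi.le_def]
    constructor
    · rintro ⟨h1, h2⟩
      exact ⟨⟨h1 0, h2 0⟩, ⟨h1 1, h2 1⟩, ⟨h1 2, h2 2⟩⟩
    · rintro ⟨h1, h2, h3⟩
      constructor
      · intro i; fin_cases i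
        · exact h1.1
        · exact h2.1
        · exact h3.1
      · intro i; fin_cases i
        · exact h1.2
        · exact h2.2
        · exact h3.2
  have hZlo : Z lo = h s0 u0 t0 + κ * s0 - a * Real.log u0 - K * t0 := rfl
  obtain ⟨x, hx, hlt, hge, hmax⟩ := exists_last (Z := Z) (lo := lo) (hi := hi)
    (C := 2 + a / u0 + K) (by positivity) (by
      intro i; fin_cases i
      · exact hs
      · exact hu
      · exact ht) (by
      intro x hx y hy hxy
      rw [hmem] at hx hy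
      obtain ⟨⟨x1, x2⟩, ⟨x3, x4⟩, ⟨x5, x6⟩⟩ := hx
      obtain ⟨⟨y1, y2⟩, ⟨y3, y4⟩, ⟨y5, y6⟩⟩ := hy
      have k0 := hxy 0
      have k1 := hxy 1
      have k2 := hxy 2
      have h1 := hmono (x 0) (y 0) (x 1) (y 1) (x 2) (y 2) x1 k0 y2 x3 k1 y4 x5 k2 y6
      have h2 := log_one_sided (hu0.trans_le x3) k1
      have h3 : a * (Real.log (y 1) - Real.log (x 1)) ≤ a / u0 * (y 1 - x 1) := by
        have h4 : (y 1 - x 1) / x 1 ≤ (y 1 - x 1) / u0 :=
          div_le_div_of_nonneg_left (by linarith) hu0 x3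
        calc a * (Real.log (y 1) - Real.log (x 1)) ≤ a * ((y 1 - x 1) / u0) :=
              mul_le_mul_of_nonneg_left (h2.trans h4) ha.le
          _ = _ := by ring
      have h5 : 0 ≤ κ * (y 0 - x 0) := mul_nonneg hκ.le (by linarith)
      rw [Fin.sum_univ_three]
      have a0 : 0 ≤ a / u0 := by positivity
      have e1 : 0 ≤ (a / u0) * (y 0 - x 0) := mul_nonneg a0 (by linarith)
      have e2 : 0 ≤ (a / u0) * (y 2 - x 2) := mul_nonneg a0 (by linarith)
      have e3 : 0 ≤ K * (y 0 - x 0) := mul_nonneg hK (by linarith)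
      have e4 : 0 ≤ K * (y 1 - x 1) := mul_nonneg hK (by linarith)
      simp only [hZdef]
      nlinarith) (by
      rintro x hx ⟨i, hi'⟩
      rw [hmem] at hx
      obtain ⟨⟨x1, x2⟩, ⟨x3, x4⟩, ⟨x5, x6⟩⟩ := hx
      have h1 := hup (x 0) (x 1) (x 2) x1 x2 x3 x4 x5 x6
      have hl1 : Real.log u0 ≤ Real.log (x 1) := Real.log_le_log hu0 x3
      have h2 : a * Real.log u0 ≤ a * Real.log (x 1) := mul_le_mul_of_nonneg_left hl1 ha.le
      have h3 : K * t0 ≤ K * x 2 := mul_le_mul_of_nonneg_left x5 hK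
      have h4 : κ * x 0 ≤ κ * S := mul_le_mul_of_nonneg_left x2 hκ.le
      have h5 : 0 ≤ κ * s0 := mul_nonneg hκ.le hs0
      have h6 : 0 ≤ x 0 := hs0.trans x1
      rw [hZlo]
      simp only [hZdef]
      have hcase : x 0 = S ∨ x 1 = u1 ∨ x 2 = t1 := by
        fin_cases i
        · exact Or.inl hi'
        · exact Or.inr (Or.inl hi')
        · exact Or.inr (Or.inr hi')
      rcases hcase with hc | hc | hc
      · rw [hc] at h1 ⊢
        linarith
      · have h7 : a * Real.log (x 1) = a * Real.log u1 := by rw [hc]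
        have h8 : CU + a * Real.log u0 ≤ a * Real.log u1 := by linarith
        linarith
      · have h7 : K * x 2 = K * t1 := by rw [hc]
        have h8 : CU + K * t0 ≤ K * t1 := by linarith
        linarith)
  rw [hmem] at hx
  obtain ⟨⟨x1, x2⟩, ⟨x3, x4⟩, ⟨x5, x6⟩⟩ := hx
  have l0 : x 0 < S := hlt 0
  have l1 : x 1 < u1 := hlt 1
  have l2 : x 2 < t1 := hlt 2
  refine ⟨x 0, x 1, x 2, x1, l0, x3, l1, x5, l2, ?_, ?_⟩
  · rw [hZlo] at hge
    simp only [hZdef] at hge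
    have hl1 : Real.log u0 ≤ Real.log (x 1) := Real.log_le_log hu0 x3
    have h2 : a * Real.log u0 ≤ a * Real.log (x 1) := mul_le_mul_of_nonneg_left hl1 ha.le
    have h3 : K * t0 ≤ K * x 2 := mul_le_mul_of_nonneg_left x5 hK
    have h4 : κ * x 0 ≤ κ * S := mul_le_mul_of_nonneg_left x2 hκ.le
    have h5 : 0 ≤ κ * s0 := mul_nonneg hκ.le hs0
    linarith
  · intro δ υ τ hδ hυ hτ k0 k1 k2
    have hy := hmax ![x 0 + δ, x 1 + υ, x 2 + τ] (by
      rw [hmem]
      simp only [Matrix.cons_val_zero, Matrix.cons_val_one, Matrix.cons_val]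
      exact ⟨⟨by linarith, k0⟩, ⟨by linarith, k1⟩, ⟨by linarith, k2⟩⟩) (by
      intro i; fin_cases i
      · show x 0 ≤ x 0 + δ; linarith
      · show x 1 ≤ x 1 + υ; linarith
      · show x 2 ≤ x 2 + τ; linarith)
    simp only [hZdef, Matrix.cons_val_zero, Matrix.cons_val_one, Matrix.cons_val] at hy
    have hxp : 0 < x 1 := hu0.trans_le x3
    have h2 := log_one_sided (u := x 1) (u' := x 1 + υ) hxp (by linarith)
    have h3 : a * (Real.log (x 1 + υ) - Real.log (x 1)) ≤ a / x 1 * υ := by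
      calc a * (Real.log (x 1 + υ) - Real.log (x 1)) ≤ a * ((x 1 + υ - x 1) / x 1) :=
            mul_le_mul_of_nonneg_left h2 ha.le
        _ = _ := by ring
    linarith

end Crest.Agent.R136.Sel823
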