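import Crest.Agent.R136.Dini_496
import Crest.Agent.R136.Drop_860

/-!
# R136, block U4, branch (A): selection of the reward (helper76)

Abstract form.  `E` is a real vector space of rewards, `f : E → ℝ` the extremal value of the full
class, `fC C` the extremal value of the class `C`, `fC C ≤ f`.  `N : E` is the penalty, `D : E` the
wide reward, `P q t = B + q • D - t • N`.

* `no_jump` : (helper500 / helper744) a bound `b + A (C + 1) (t - τ)` for `fC C`, linear in `C`,
  together with `(IMP)` excludes a jump of `f` at `τ` from `b < gp` to values `≥ gp`;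
* `exists_window` : a point with value in the open window `(gm, gp)`;
* `closure` : on the window `f = fC c₀` with ONE absolute class `c₀`;
* `select` : a point with value in the window, strict drop in `q`, Lipschitz in `t`, and every
  directional inequality of the class `c₀`.
-/

set_option autoImplicit false

namespace Crest.Agent.R136.Sel76

open Set Filter Topology

/-- `t` is a good point of `h` with rate `K`. -/
def Good (h : ℝ → ℝ) (t K : ℝ) : Prop :=
  ∃ δ : ℝ, 0 < δ ∧ ∀ s, 0 ≤ s → s < δ → h (t + s) ≤ h t + K * s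

/-- good points are dense -/
theorem exists_Good {h : ℝ → ℝ} {a b : ℝ} (hab : a < b) (hm : MonotoneOn h (Icc a b)) :
    ∃ t ∈ Ico a b, ∃ K, 0 ≤ K ∧ Good h t K := by
  have hK : 0 < (h b - h a + 1) / (b - a) :=
    div_pos (by linarith [hm (left_mem_Icc.2 hab.le) (right_mem_Icc.2 hab.le) hab.le])
      (by linarith)
  obtain ⟨t, ht, δ, hδ, _, h1⟩ := Dini496.exists_good (h := h)
    (Φ := fun t => (h b - h a + 1) / (b - a) * t)
    (φ := fun _ => (h b - h a + 1) / (b - a)) hab hm (by fun_prop)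
    (fun t _ => by
      have := ((hasDerivAt_id t).const_mul ((h b - h a + 1) / (b - a))).hasDerivWithinAt
        (s := Ici t)
      simpa using this) (by
      have h2 : (h b - h a + 1) / (b - a) * (b - a) = h b - h a + 1 :=
        div_mul_cancel₀ _ (by linarith : (b - a) ≠ 0)
      have h3 : (h b - h a + 1) / (b - a) * b - (h b - h a + 1) / (b - a) * a
          = (h b - h a + 1) / (b - a) * (b - a) := by ring
      simp only [h3, h2]
      linarith)
  exact ⟨t, ht, _, hK.le, δ, hδ, h1⟩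

/-- **no jump** (500 / 744): `h` monotone, bounded by `V`, `hC C t ≤ b + A (C + 1) (t - τ)`,
`(IMP)`: a good point of rate `K` with `hC (K + 2) t ≤ gp` has `h t ≤ hC (K + 2) t`.  Then
`h` takes values `< gp` arbitrarily close to `τ` on the right. -/
theorem no_jump {h : ℝ → ℝ} {hC : ℝ → ℝ → ℝ} {τ T A V b gp : ℝ} (hτ : τ < T) (hA : 0 ≤ A)
    (hm : MonotoneOn h (Ioc τ T)) (hV : h T ≤ V) (hb : b < gp)
    (hlow : ∀ C, 0 ≤ C → ∀ t ∈ Ioo τ T, hC C t ≤ b + A * (C + 1) * (t - τ))
    (himp : ∀ t ∈ Ioo τ T, ∀ K, 0 ≤ K → Good h t K → hC (K + 2) t < gp → h t ≤ hC (K + 2) t) :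
    ∃ t ∈ Ioo τ T, h t < gp := by
  by_contra hcon
  push Not at hcon
  set a : ℝ := gp - b with ha
  have ha0 : 0 < a := by rw [ha]; linarith
  -- `ε` and `τ1`
  obtain ⟨ε, hε0, hε1⟩ : ∃ ε : ℝ, 0 < ε ∧ A * ε ≤ a / 4 := by
    refine ⟨a / (4 * (A + 1)), by positivity, ?_⟩
    have h1 : A * (a / (4 * (A + 1))) = (a / 4) * (A / (A + 1)) := by
      field_simp
    rw [h1]
    have h2 : A / (A + 1) ≤ 1 := by rw [div_le_one (by linarith)]; linarith
    nlinarith
  obtain ⟨τ1, hτ10, hτ1T, hτ11⟩ : ∃ τ1 : ℝ, 0 < τ1 ∧ τ + τ1 < T ∧ A * (3 * τ1) ≤ a / 4 := by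
    refine ⟨min ((T - τ) / 2) (a / (12 * (A + 1))), lt_min (by linarith) (by positivity), ?_, ?_⟩
    · have := min_le_left ((T - τ) / 2) (a / (12 * (A + 1))); linarith
    · have h1 := min_le_right ((T - τ) / 2) (a / (12 * (A + 1)))
      have h2 : A * (3 * (a / (12 * (A + 1)))) = (a / 4) * (A / (A + 1)) := by
        field_simp; ring
      have h3 : A / (A + 1) ≤ 1 := by rw [div_le_one (by linarith)]; linarith
      nlinarith
  -- `τ0`
  obtain ⟨τ0, hτ00, hτ01, hlog⟩ : ∃ τ0 : ℝ, 0 < τ0 ∧ τ0 < τ1 ∧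
      max (V - gp) 0 < ε * Real.log (τ1 / τ0) := by
    refine ⟨τ1 * Real.exp (-((max (V - gp) 0 + 1) / ε)), by positivity, ?_, ?_⟩
    · have h1 : Real.exp (-((max (V - gp) 0 + 1) / ε)) < 1 := by
        rw [Real.exp_lt_one_iff]
        have : 0 < (max (V - gp) 0 + 1) / ε := by
          have := le_max_right (V - gp) 0
          positivity
        linarith
      nlinarith
    · rw [show τ1 / (τ1 * Real.exp (-((max (V - gp) 0 + 1) / ε)))
          = Real.exp ((max (V - gp) 0 + 1) / ε) by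
        rw [Real.exp_neg]; field_simp, Real.log_exp, mul_div_cancel₀ _ hε0.ne']
      linarith
  have hmI : MonotoneOn h (Icc (τ + τ0) (τ + τ1)) :=
    hm.mono fun x hx => ⟨by linarith [hx.1], by linarith [hx.2]⟩
  obtain ⟨t, ht, δ, hδ, hδ1, hg⟩ := Dini496.exists_good_log (h := h) (t0 := τ) (ε := ε)
    (V := max (V - gp) 0) hτ00 hτ01 hmI (by
      have h1 : h (τ + τ1) ≤ V := (hm ⟨by linarith, by linarith⟩ ⟨hτ, le_rfl⟩
        (by linarith)).trans hV
      have h2 := hcon (τ + τ0) ⟨by linarith, by linarith⟩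
      have := le_max_left (V - gp) 0
      linarith) hlog
  have htI : t ∈ Ioo τ T := ⟨by linarith [ht.1], by linarith [ht.2]⟩
  have htp : 0 < t - τ := by linarith [htI.1]
  have hKp : 0 ≤ ε / (t - τ) := by positivity
  have h1 := hlow (ε / (t - τ) + 2) (by linarith) t htI
  have h2 : A * (ε / (t - τ) + 2 + 1) * (t - τ) = A * ε + A * (3 * (t - τ)) := by
    field_simp; ring
  have h3 : A * (3 * (t - τ)) ≤ A * (3 * τ1) := by
    have : t - τ ≤ τ1 := by linarith [ht.2]
    exact mul_le_mul_of_nonneg_left (by linarith) hA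
  have h4 : hC (ε / (t - τ) + 2) t < gp := by
    rw [h2] at h1
    linarith
  have h5 := himp t htI _ hKp ⟨δ, hδ, hg⟩ h4
  linarith [hcon t htI]

/-- **window point** (the plane argument of 744): `u` monotone in `t`, antitone in `q`, with the cone
inequality `u q t ≤ u (q + s) (t + s) + s`, no jump in `t` from `≤ gm` to `≥ gp`, values `≥ gp` at
`qa`, `≤ gm` at `m`.  Then some value lies strictly between `gm` and `gp`. -/
theorem exists_window {u : ℝ → ℝ → ℝ} {qa m T gm gp : ℝ} (hqm : qa < m) (hT : 0 < T)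
    (hg : gm < gp)
    (mono : ∀ q ∈ Icc qa m, MonotoneOn (u q) (Ioo 0 T))
    (cone : ∀ q t s, 0 ≤ s → qa ≤ q → q + s ≤ m → 0 < t → t + s < T →
      u q t ≤ u (q + s) (t + s) + s)
    (nojump : ∀ q ∈ Icc qa m, ∀ τ, 0 < τ → τ < T → (∀ t ∈ Ioo 0 τ, u q t ≤ gm) →
      (∀ t ∈ Ioo τ T, gp ≤ u q t) → False)
    (ha : ∀ t ∈ Ioo 0 T, gm < u qa t) (hm : ∀ t ∈ Ioo 0 T, u m t ≤ gm) :
    ∃ q ∈ Ico qa m, ∃ t ∈ Ioo 0 T, gm < u q t ∧ u q t < gp := by
  by_contra hcon
  push Not at hcon
  -- every value is `≤ gm` or `≥ gp`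
  have hv : ∀ q ∈ Icc qa m, ∀ t ∈ Ioo 0 T, u q t ≤ gm ∨ gp ≤ u q t := by
    intro q hq t ht
    rcases eq_or_lt_of_le hq.2 with h | h
    · left; rw [h]; exact hm t ht
    · rcases le_or_gt (u q t) gm with h1 | h1
      · exact Or.inl h1
      · exact Or.inr (hcon q ⟨hq.1, h⟩ t ht h1)
  -- at fixed `q` all values are on the same side
  have hside : ∀ q ∈ Icc qa m, ∀ t0 ∈ Ioo 0 T, u q t0 ≤ gm → ∀ t ∈ Ioo 0 T, u q t ≤ gm := by
    intro q hq t0 ht0 h0 t1 ht1
    by_contra h1
    push Not at h1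
    have h1' : gp ≤ u q t1 := (hv q hq t1 ht1).resolve_left (by linarith)
    have h01 : t0 < t1 := by
      by_contra h
      push Not at h
      have := mono q hq ht1 ht0 h
      linarith
    set S : Set ℝ := {t | t ∈ Ioo 0 T ∧ u q t ≤ gm} with hS
    have ht0S : t0 ∈ S := ⟨ht0, h0⟩
    have hSle : ∀ t ∈ S, t ≤ t1 := by
      intro t ht
      by_contra h
      push Not at h
      have := mono q hq ht1 ht.1 h.le
      linarith [ht.2]
    have hbdd : BddAbove S := ⟨t1, hSle⟩
    set τ := sSup S with hτ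
    have hτ0 : t0 ≤ τ := le_csSup hbdd ht0S
    have hτ1 : τ ≤ t1 := csSup_le ⟨t0, ht0S⟩ hSle
    refine nojump q hq τ (by linarith [ht0.1]) (by linarith [ht1.2]) ?_ ?_
    · intro t ht
      obtain ⟨t', ht'S, ht'⟩ := exists_lt_of_lt_csSup ⟨t0, ht0S⟩ ht.2
      exact (mono q hq ⟨ht.1, by linarith [ht.2, ht1.2]⟩ ht'S.1 ht'.le).trans ht'S.2
    · intro t ht
      have htT : t ∈ Ioo 0 T := ⟨by linarith [ht.1, ht0.1], ht.2⟩
      rcases hv q hq t htT with h | h
      · exact absurd (le_csSup hbdd (show t ∈ S from ⟨htT, h⟩)) (not_le.2 ht.1)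
      · exact h
  -- the set of `q` on the lower side
  set t0 : ℝ := T / 2 with ht0
  have ht0I : t0 ∈ Ioo 0 T := ⟨by linarith, by linarith⟩
  set Q : Set ℝ := {q | q ∈ Icc qa m ∧ u q t0 ≤ gm} with hQ
  have hmQ : m ∈ Q := ⟨right_mem_Icc.2 hqm.le, hm t0 ht0I⟩
  have hbddQ : BddBelow Q := ⟨qa, fun q hq => hq.1.1⟩
  set q0 := sInf Q with hq0
  have hq0a : qa ≤ q0 := le_csInf ⟨m, hmQ⟩ fun q hq => hq.1.1
  have hq0m : q0 ≤ m := csInf_le hbddQ hmQ
  -- small `s`
  obtain ⟨s, hs0, hs1, hs2⟩ : ∃ s : ℝ, 0 < s ∧ s < gp - gm ∧ s < T / 2 :=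
    ⟨min (gp - gm) (T / 2) / 2, by
      have : 0 < min (gp - gm) (T / 2) := lt_min (by linarith) (by linarith)
      linarith, by
      have : 0 < min (gp - gm) (T / 2) := lt_min (by linarith) (by linarith)
      have := min_le_left (gp - gm) (T / 2); linarith, by
      have : 0 < min (gp - gm) (T / 2) := lt_min (by linarith) (by linarith)
      have := min_le_right (gp - gm) (T / 2); linarith⟩
  -- a point `q2` on the upper side and `q1` on the lower side with `q1 ≤ q2 + s`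
  obtain ⟨q2, hq2I, hq2u, q1, hq1Q, hq12, hq1s⟩ : ∃ q2 ∈ Icc qa m, gp ≤ u q2 t0 ∧
      ∃ q1 ∈ Q, q2 < q1 ∧ q1 ≤ q2 + s := by
    have hup : ∀ q ∈ Icc qa m, q < q0 → gp ≤ u q t0 := by
      intro q hq hlt
      rcases hv q hq t0 ht0I with h | h
      · exact absurd (csInf_le hbddQ (show q ∈ Q from ⟨hq, h⟩)) (not_le.2 hlt)
      · exact h
    have hqau : gp ≤ u qa t0 := (hv qa (left_mem_Icc.2 hqm.le) t0 ht0I).resolve_left
      (by linarith [ha t0 ht0I])
    rcases eq_or_lt_of_le hq0a with h | h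
    · obtain ⟨q1, hq1, hq1'⟩ := exists_lt_of_csInf_lt ⟨m, hmQ⟩ (show sInf Q < q0 + s by
        rw [← hq0]; linarith)
      refine ⟨qa, left_mem_Icc.2 hqm.le, hqau, q1, hq1, ?_, by linarith⟩
      rcases eq_or_lt_of_le hq1.1.1 with h2 | h2
      · exfalso; have := hq1.2; rw [← h2] at this; linarith
      · exact h2
    · have hd : 0 < min (s / 2) (q0 - qa) := lt_min (by linarith) (by linarith)
      have hd1 := min_le_left (s / 2) (q0 - qa)
      have hd2 := min_le_right (s / 2) (q0 - qa)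
      obtain ⟨q1, hq1, hq1'⟩ := exists_lt_of_csInf_lt ⟨m, hmQ⟩ (show sInf Q < q0 + s / 2 by
        rw [← hq0]; linarith)
      have hq1'' : q0 ≤ q1 := csInf_le hbddQ hq1
      refine ⟨q0 - min (s / 2) (q0 - qa), ⟨by linarith, by linarith⟩,
        hup _ ⟨by linarith, by linarith⟩ (by linarith), q1, hq1, by linarith, by linarith⟩
  -- contradiction
  have hq1m : q1 ≤ m := hq1Q.1.2
  have hss : 0 ≤ q1 - q2 := by linarith
  have h1 := cone q2 t0 (q1 - q2) hss hq2I.1 (by linarith) ht0I.1 (by linarith)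
  have h2 : u (q2 + (q1 - q2)) (t0 + (q1 - q2)) ≤ gm := by
    rw [show q2 + (q1 - q2) = q1 by ring]
    exact hside q1 hq1Q.1 t0 ht0I hq1Q.2 _ ⟨by linarith, by linarith⟩
  linarith

/-- **closure**: `h s = f (P - s N)`, `k s = fC c₀ (P - s N)` : if `h` stays `≤ gp` on `[0, s0]` and
`gm < h 0`, every good point has `h ≤ k`, and `k` is right upper semicontinuous at `0`, then
`h 0 ≤ k 0`. -/
theorem closure {h k : ℝ → ℝ} {s0 gm gp : ℝ} (hs0 : 0 < s0) (hm : MonotoneOn h (Icc 0 s0))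
    (hlow : gm < h 0) (hup : h s0 ≤ gp)
    (himp : ∀ s ∈ Ico 0 s0, ∀ K, 0 ≤ K → Good h s K → gm < h s → h s ≤ gp → h s ≤ k s)
    (hk : ∀ ε, 0 < ε → ∃ δ, 0 < δ ∧ ∀ s, 0 ≤ s → s < δ → k s ≤ k 0 + ε) : h 0 ≤ k 0 := by
  refine le_of_forall_pos_le_add fun ε hε => ?_
  obtain ⟨δ, hδ, hδk⟩ := hk ε hε
  have hb : 0 < min δ s0 := lt_min hδ hs0
  have hb1 := min_le_left δ s0
  have hb2 := min_le_right δ s0
  obtain ⟨t, ht, K, hK, hG⟩ := exists_Good (h := h) hb (hm.mono fun x hx =>
    ⟨hx.1, hx.2.trans hb2⟩)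
  have htI : t ∈ Icc 0 s0 := ⟨ht.1, by linarith [ht.2]⟩
  have h1 : h 0 ≤ h t := hm (left_mem_Icc.2 hs0.le) htI ht.1
  have h2 : h t ≤ h s0 := hm htI (right_mem_Icc.2 hs0.le) htI.2
  have h3 := himp t ⟨ht.1, by linarith [ht.2]⟩ K hK hG (by linarith) (by linarith)
  have h4 := hδk t ht.1 (by linarith [ht.2])
  linarith

section select

variable {E : Type*} [AddCommGroup E] [Module ℝ E]

/-- the reward with wide part `q` and penalty `t` -/
def Pt (B D N : E) (q t : ℝ) : E := B + q • D - t • N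

theorem Pt_sub (B D N : E) (q t s : ℝ) : Pt B D N q t - s • N = Pt B D N q (t + s) := by
  unfold Pt; rw [add_smul]; abel

/-- the data of branch (A): `f` the full value, `fC C` the value of class `C` -/
structure Dat (f : E → ℝ) (fC : ℝ → E → ℝ) (B D N : E) (qa m T A V gm gp c0 : ℝ) : Prop where
  qam : qa < m
  T0 : 0 < T
  A0 : 0 ≤ A
  gmp : gm < gp
  /-- the penalty is nonnegative -/
  mono : ∀ (P : E) (s : ℝ), 0 ≤ s → f P ≤ f (P - s • N)
  /-- bundling -/
  anti : ∀ t, 0 < t → t < T → AntitoneOn (fun q => f (Pt B D N q t)) (Icc qa m)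
  /-- `y₁ ≤ N + l` -/
  cone : ∀ (P : E) (s : ℝ), 0 ≤ s → f P ≤ f (P + s • D - s • N) + s
  bdd : ∀ q ∈ Icc qa m, ∀ t, 0 < t → t < T → f (Pt B D N q t) ≤ V
  le : ∀ C P, fC C P ≤ f P
  /-- POP in `t`, linear in the class constant -/
  pop : ∀ C, 0 ≤ C → ∀ q ∈ Icc qa m, ∀ t t', 0 < t → t ≤ t' → t' < T →
    fC C (Pt B D N q t') ≤ fC C (Pt B D N q t) + A * (C + 1) * (t' - t)
  /-- `(IMP)` -/
  imp : ∀ q ∈ Icc qa m, ∀ t, 0 < t → t < T → ∀ K, 0 ≤ K →
    Good (fun t => f (Pt B D N q t)) t K → gm < f (Pt B D N q t) →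
    fC (K + 2) (Pt B D N q t) < gp → f (Pt B D N q t) ≤ fC (K + 2) (Pt B D N q t)
  /-- enemy -/
  start : ∀ t, 0 < t → t < T → gm < f (Pt B D N qa t)
  /-- not `(B)` -/
  fin : ∀ t, 0 < t → t < T → f (Pt B D N m t) ≤ gm

/-- right limits do not jump out of the window -/
theorem Dat.no_jump_at {f : E → ℝ} {fC : ℝ → E → ℝ} {B D N : E} {qa m T A V gm gp c0 : ℝ}
    (h : Dat f fC B D N qa m T A V gm gp c0) {q τ b : ℝ} (hq : q ∈ Icc qa m) (hτ : 0 < τ)
    (hτT : τ < T) (hb : b < gp)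
    (hlow : ∀ ε, 0 < ε → ∃ t', 0 < t' ∧ t' ≤ τ ∧ τ - t' < ε ∧ f (Pt B D N q t') ≤ b)
    (hgm : ∀ t, τ < t → t < T → gm < f (Pt B D N q t)) :
    ∃ t ∈ Ioo τ T, f (Pt B D N q t) < gp := by
  set T' : ℝ := (τ + T) / 2 with hT'
  have h1 : τ < T' := by rw [hT']; linarith
  have h2 : T' < T := by rw [hT']; linarith
  have hmon : MonotoneOn (fun t => f (Pt B D N q t)) (Ioc τ T') := by
    intro x _ y _ hxy
    have := h.mono (Pt B D N q x) (y - x) (by linarith)
    rwa [Pt_sub, add_sub_cancel] at this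
  obtain ⟨t, ht, htg⟩ := no_jump (h := fun t => f (Pt B D N q t))
    (hC := fun C t => fC C (Pt B D N q t)) (V := V) h1 h.A0 hmon
    (h.bdd q hq T' (by linarith) h2) hb
    (by
      intro C hC t ht
      have ht0 : 0 < t - τ := by linarith [ht.1]
      refine le_of_forall_pos_le_add fun ε hε => ?_
      have hA1 : 0 < A * (C + 1) + 1 := by
        have := mul_nonneg h.A0 (by linarith : (0:ℝ) ≤ C + 1); linarith
      obtain ⟨t', ht'0, ht'τ, ht'ε, hb'⟩ := hlow (ε / (A * (C + 1) + 1)) (by positivity)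
      have h3 := h.pop C hC q hq t' t ht'0 (by linarith [ht.1]) (by linarith [ht.2])
      have h4 := h.le C (Pt B D N q t')
      have h5 : A * (C + 1) * (τ - t') ≤ ε := by
        have h6 : (A * (C + 1) + 1) * (ε / (A * (C + 1) + 1)) = ε := by
          field_simp
        have h7 : A * (C + 1) * (τ - t') ≤ (A * (C + 1) + 1) * (τ - t') := by nlinarith
        have h8 : (A * (C + 1) + 1) * (τ - t') ≤ (A * (C + 1) + 1) * (ε / (A * (C + 1) + 1)) :=
          mul_le_mul_of_nonneg_left ht'ε.le hA1.le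
        linarith
      have h9 : A * (C + 1) * (t - t') = A * (C + 1) * (t - τ) + A * (C + 1) * (τ - t') := by ring
      show fC C (Pt B D N q t) ≤ b + A * (C + 1) * (t - τ) + ε
      linarith)
    (by
      intro t ht K hK hG hlt
      exact h.imp q hq t (by linarith [ht.1]) (by linarith [ht.2]) K hK hG
        (hgm t ht.1 (by linarith [ht.2])) hlt)
  exact ⟨t, ⟨ht.1, by linarith [ht.2]⟩, htg⟩

/-- **a window point** -/
theorem Dat.exists_window {f : E → ℝ} {fC : ℝ → E → ℝ} {B D N : E} {qa m T A V gm gp c0 : ℝ}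
    (h : Dat f fC B D N qa m T A V gm gp c0) :
    ∃ q ∈ Ico qa m, ∃ t, 0 < t ∧ t < T ∧ gm < f (Pt B D N q t) ∧ f (Pt B D N q t) < gp := by
  obtain ⟨q, hq, t, ht, h1, h2⟩ := Sel76.exists_window (u := fun q t => f (Pt B D N q t))
    h.qam h.T0 h.gmp
    (by
      intro q hq x hx y hy hxy
      have := h.mono (Pt B D N q x) (y - x) (by linarith)
      rwa [Pt_sub, add_sub_cancel] at this)
    (by
      intro q t s hs _ _ _ _
      have h1 := h.cone (Pt B D N q t) s hs
      have h2 : Pt B D N q t + s • D - s • N = Pt B D N (q + s) (t + s) := by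
        unfold Pt; rw [add_smul, add_smul]; abel
      rw [h2] at h1
      exact h1)
    (by
      intro q hq τ hτ hτT hlo hhi
      obtain ⟨t, ht, h1⟩ := h.no_jump_at hq hτ hτT h.gmp
        (fun ε hε => by
          have hm : 0 < min ε τ := lt_min hε hτ
          have hm1 := min_le_left ε τ
          have hm2 := min_le_right ε τ
          exact ⟨τ - min ε τ / 2, by linarith, by linarith, by linarith,
            hlo _ ⟨by linarith, by linarith⟩⟩)
        (fun t h1 h2 => lt_of_lt_of_le h.gmp (hhi t ⟨h1, h2⟩))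
      exact absurd (hhi t ht) (not_le.2 h1))
    (fun t ht => h.start t ht.1 ht.2) (fun t ht => h.fin t ht.1 ht.2)
  exact ⟨q, hq, t, ht.1, ht.2, h1, h2⟩

/-- **closure with the absolute class on a half strip**, and in all nearby directions -/
theorem Dat.select {f : E → ℝ} {fC : ℝ → E → ℝ} {B D N : E} {qa m T A V gm gp c0 : ℝ}
    (h : Dat f fC B D N qa m T A V gm gp c0) (hc0 : 0 ≤ c0) (Dom : E → Prop)
    -- the absolute implication on the domain
    (imp0 : ∀ P, Dom P → ∀ K, 0 ≤ K → Good (fun s => f (P - s • N)) 0 K → gm < f P → f P ≤ gp →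
      f P ≤ fC c0 P)
    (dom : ∀ q ∈ Icc qa m, ∀ t, 0 < t → t < T → Dom (Pt B D N q t))
    -- continuity in `q` of the class `c0`
    (cont : ∀ t, 0 < t → t < T → ContinuousOn (fun q => fC c0 (Pt B D N q t)) (Icc qa m)) :
    ∃ q ∈ Ico qa m, ∃ t, 0 < t ∧ t < T ∧ gm < f (Pt B D N q t) ∧ f (Pt B D N q t) < gp ∧
      f (Pt B D N q t) = fC c0 (Pt B D N q t) ∧
      -- strict drop in `q`
      (∃ κ, 0 < κ ∧ ∀ s, 0 ≤ s → q + s ≤ m →
        f (Pt B D N (q + s) t) ≤ f (Pt B D N q t) - κ * s) ∧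
      -- Lipschitz in `t`
      (∃ s1, 0 < s1 ∧ ∀ s, 0 ≤ s → s < s1 →
        f (Pt B D N q (t + s)) ≤ f (Pt B D N q t) + A * (c0 + 1) * s) ∧
      -- every other direction
      (∀ (W : E) (C : ℝ), 0 ≤ C → (∀ (P : E) (δ : ℝ), 0 ≤ δ → f (P + δ • W) ≤
          f (P - (C * δ) • N) + C * δ) →
        (∃ δ1 : ℝ, 0 < δ1 ∧ ∀ δ s : ℝ, 0 ≤ δ → δ < δ1 → 0 ≤ s → s < δ1 →
          Dom (Pt B D N q (t + s) + δ • W)) →
        (∃ δ1 : ℝ, 0 < δ1 ∧ ∃ L : ℝ, ∀ δ s : ℝ, 0 ≤ δ → δ < δ1 → 0 ≤ s → s < δ1 →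
          fC c0 (Pt B D N q (t + s) + δ • W) ≤ fC c0 (Pt B D N q t + δ • W) + L * s) →
        ∃ δ0 : ℝ, 0 < δ0 ∧ ∀ δ : ℝ, 0 ≤ δ → δ < δ0 →
          f (Pt B D N q t + δ • W) ≤ max gm (fC c0 (Pt B D N q t + δ • W))) := by
  obtain ⟨qs, hqs, ts, hts, htsT, hlo, hhi⟩ := h.exists_window
  have hqsI : qs ∈ Icc qa m := ⟨hqs.1, hqs.2.le⟩
  -- right of `ts` the value stays below `gp`
  obtain ⟨t1, ht1, ht1g⟩ : ∃ t1 ∈ Ioo ts T, f (Pt B D N qs t1) < gp := by
    refine h.no_jump_at hqsI hts htsT hhi (fun ε hε => ⟨ts, hts, le_rfl, by simpa using hε, le_rfl⟩)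
      (fun t ht _ => ?_)
    have := h.mono (Pt B D N qs ts) (t - ts) (by linarith)
    rw [Pt_sub, add_sub_cancel] at this
    linarith
  -- closure on the half strip
  have hstrip : ∀ q ∈ Icc qs m, ∀ t, ts ≤ t → t ≤ t1 → f (Pt B D N q t) ≤ f (Pt B D N qs t1) := by
    intro q hq t ht ht'
    have h1 := h.mono (Pt B D N q t) (t1 - t) (by linarith)
    rw [Pt_sub, add_sub_cancel] at h1
    exact h1.trans (h.anti t1 (by linarith) ht1.2 hqsI ⟨by linarith [hqs.1, hq.1], hq.2⟩ hq.1)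
  have hcl : ∀ q ∈ Icc qs m, ∀ t, ts ≤ t → t < t1 → gm < f (Pt B D N q t) →
      f (Pt B D N q t) ≤ fC c0 (Pt B D N q t) := by
    intro q hq t ht ht' hgm
    have hqI : q ∈ Icc qa m := ⟨by linarith [hqs.1, hq.1], hq.2⟩
    have h1 := closure (h := fun s => f (Pt B D N q (t + s)))
      (k := fun s => fC c0 (Pt B D N q (t + s))) (s0 := t1 - t) (gm := gm) (gp := gp)
      (by linarith) (by
        intro x _ y _ hxy
        have := h.mono (Pt B D N q (t + x)) (y - x) (by linarith)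
        rw [Pt_sub] at this
        show f (Pt B D N q (t + x)) ≤ f (Pt B D N q (t + y))
        rwa [show t + x + (y - x) = t + y by ring] at this)
      (by simpa using hgm)
      (by
        show f (Pt B D N q (t + (t1 - t))) ≤ gp
        rw [show t + (t1 - t) = t1 by ring]
        exact (hstrip q hq t1 (by linarith) le_rfl).trans ht1g.le)
      (by
        intro s hs K hK hG h2 h3
        refine imp0 _ (dom q hqI (t + s) (by linarith [hs.1]) (by linarith [hs.2, ht1.2])) K hK ?_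
          h2 h3
        obtain ⟨δ, hδ, h4⟩ := hG
        refine ⟨δ, hδ, fun r hr hrδ => ?_⟩
        have h5 := h4 r hr hrδ
        show f (Pt B D N q (t + s) - (0 + r) • N) ≤ f (Pt B D N q (t + s) - (0:ℝ) • N) + K * r
        rw [Pt_sub, Pt_sub, show t + s + (0 + r) = t + (s + r) by ring, add_zero]
        exact h5)
      (by
        intro ε hε
        have hA : 0 < A * (c0 + 1) + 1 := by
          have := mul_nonneg h.A0 (by linarith : (0:ℝ) ≤ c0 + 1); linarith
        refine ⟨min (ε / (A * (c0 + 1) + 1)) (t1 - t), lt_min (by positivity) (by linarith),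
          fun s hs hsδ => ?_⟩
        have hs1 := hsδ.trans_le (min_le_left _ _)
        have hs2 := hsδ.trans_le (min_le_right _ _)
        have h3 := h.pop c0 hc0 q hqI t (t + s) (by linarith) (by linarith) (by linarith [ht1.2])
        have h6 : (A * (c0 + 1) + 1) * (ε / (A * (c0 + 1) + 1)) = ε := by field_simp
        have h7 : A * (c0 + 1) * s ≤ (A * (c0 + 1) + 1) * s := by nlinarith
        have h8 : (A * (c0 + 1) + 1) * s ≤ (A * (c0 + 1) + 1) * (ε / (A * (c0 + 1) + 1)) :=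
          mul_le_mul_of_nonneg_left hs1.le hA.le
        show fC c0 (Pt B D N q (t + s)) ≤ fC c0 (Pt B D N q (t + 0)) + ε
        rw [add_zero]
        rw [add_sub_cancel_left] at h3
        linarith)
    simpa using h1
  -- the drop point at `ts`
  set φ : ℝ → ℝ := fun q => fC c0 (Pt B D N q ts) with hφ
  have hφs : f (Pt B D N qs ts) ≤ φ qs := hcl qs ⟨le_rfl, hqs.2.le⟩ ts le_rfl ht1.1 hlo
  have hφm : φ m ≤ gm := (h.le c0 _).trans (h.fin ts hts htsT)
  have hmq : 0 < m - qs := by linarith [hqs.2]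
  set κ : ℝ := (φ qs - gm) / (2 * (m - qs)) with hκ
  have hκ0 : 0 < κ := by rw [hκ]; apply div_pos (by linarith) (by linarith)
  have hκe : κ * (m - qs) = (φ qs - gm) / 2 := by rw [hκ]; field_simp
  obtain ⟨q, hq, hdrop, hq1, hq2⟩ := Drop860.drop_point (φ := φ) (a := qs) (b := m) (κ := κ)
    hqs.2 hκ0.le ((cont ts hts htsT).mono fun x hx => ⟨by linarith [hqs.1, hx.1], hx.2⟩)
    (by rw [hκe]; linarith)
  have hqI : q ∈ Icc qa m := ⟨by linarith [hqs.1, hq.1], hq.2.le⟩
  have hqI' : q ∈ Icc qs m := ⟨hq.1, hq.2.le⟩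
  have hgmφ : gm < φ q := by rw [hκe] at hq2; linarith
  have hfq : gm < f (Pt B D N q ts) := lt_of_lt_of_le hgmφ (h.le c0 _)
  have hfeq : f (Pt B D N q ts) = φ q :=
    le_antisymm (hcl q hqI' ts le_rfl ht1.1 hfq) (h.le c0 _)
  refine ⟨q, ⟨by linarith [hqs.1, hq.1], hq.2⟩, ts, hts, htsT, hfq, ?_, hfeq, ⟨κ, hκ0, ?_⟩,
    ⟨t1 - ts, by linarith [ht1.1], ?_⟩, ?_⟩
  · exact (hstrip q hqI' ts le_rfl ht1.1.le).trans_lt ht1g
  · intro s hs hsm
    rcases le_or_gt (f (Pt B D N (q + s) ts)) gm with h3 | h3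
    · refine h3.trans ?_
      rw [hfeq]
      have h4 : κ * s ≤ κ * (m - q) := mul_le_mul_of_nonneg_left (by linarith) hκ0.le
      have h5 : κ * (q - qs) + κ * (m - q) = κ * (m - qs) := by ring
      linarith
    · have h4 := hcl (q + s) ⟨by linarith [hq.1], hsm⟩ ts le_rfl ht1.1 h3
      have h5 := hdrop s hs hsm
      rw [hfeq]
      exact h4.trans h5
  · intro s hs hs1
    have h3 := h.pop c0 hc0 q hqI ts (ts + s) hts (by linarith) (by linarith [ht1.2])
    rw [add_sub_cancel_left] at h3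
    have h4 := h.mono (Pt B D N q ts) s hs
    rw [Pt_sub] at h4
    have h5 := hcl q hqI' (ts + s) (by linarith) (by linarith) (by linarith)
    have h6 := h.le c0 (Pt B D N q ts)
    linarith
  · rintro W C hC hW ⟨δ1, hδ1, hdom⟩ ⟨δ2, hδ2, L, hL⟩
    -- room between the value at `t1` and `gp`
    have hgap : 0 < gp - f (Pt B D N qs t1) := by linarith
    -- choose `δ0`
    obtain ⟨δ0, hδ0, e1, e2, e3, e4⟩ : ∃ δ0 : ℝ, 0 < δ0 ∧ δ0 ≤ δ1 ∧ δ0 ≤ δ2 ∧
        (C + 1) * δ0 ≤ (t1 - ts) / 2 ∧ (C + 1) * δ0 ≤ gp - f (Pt B D N qs t1) := by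
      have hC1 : 0 < C + 1 := by linarith
      have hts1 : 0 < (t1 - ts) / 2 := by linarith [ht1.1]
      refine ⟨min (min δ1 δ2) (min (((t1 - ts) / 2) / (C + 1))
        ((gp - f (Pt B D N qs t1)) / (C + 1))),
        lt_min (lt_min hδ1 hδ2) (lt_min (by positivity) (by positivity)),
        (min_le_left _ _).trans (min_le_left _ _), (min_le_left _ _).trans (min_le_right _ _),
        ?_, ?_⟩
      · have := (min_le_right (min δ1 δ2) (min (((t1 - ts) / 2) / (C + 1))
          ((gp - f (Pt B D N qs t1)) / (C + 1)))).trans (min_le_left _ _)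
        calc _ ≤ (C + 1) * (((t1 - ts) / 2) / (C + 1)) := mul_le_mul_of_nonneg_left this hC1.le
          _ = _ := by field_simp
      · have := (min_le_right (min δ1 δ2) (min (((t1 - ts) / 2) / (C + 1))
          ((gp - f (Pt B D N qs t1)) / (C + 1)))).trans (min_le_right _ _)
        calc _ ≤ (C + 1) * ((gp - f (Pt B D N qs t1)) / (C + 1)) :=
              mul_le_mul_of_nonneg_left this hC1.le
          _ = _ := by field_simp
    refine ⟨δ0, hδ0, fun δ hδ hδ' => ?_⟩
    rcases le_or_gt (f (Pt B D N q ts + δ • W)) gm with h3 | h3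
    · exact h3.trans (le_max_left _ _)
    refine le_trans ?_ (le_max_right _ _)
    have hs0 : 0 < min δ0 ((t1 - ts) / 2) := lt_min hδ0 (by linarith [ht1.1])
    have hs1 := min_le_left δ0 ((t1 - ts) / 2)
    have hs2 := min_le_right δ0 ((t1 - ts) / 2)
    have heq : ∀ s : ℝ, Pt B D N q ts + δ • W - s • N = Pt B D N q (ts + s) + δ • W := by
      intro s; rw [← Pt_sub]; abel
    have h4 := closure (h := fun s => f (Pt B D N q ts + δ • W - s • N))
      (k := fun s => fC c0 (Pt B D N q ts + δ • W - s • N))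
      (s0 := min δ0 ((t1 - ts) / 2)) (gm := gm) (gp := gp) hs0
      (by
        intro x _ y _ hxy
        have h5 := h.mono (Pt B D N q ts + δ • W - x • N) (y - x) (by linarith)
        have h6 : Pt B D N q ts + δ • W - x • N - (y - x) • N
            = Pt B D N q ts + δ • W - y • N := by
          rw [sub_smul]; abel
        rwa [h6] at h5)
      (by simpa using h3)
      (by
        show f (Pt B D N q ts + δ • W - (min δ0 ((t1 - ts) / 2)) • N) ≤ gp
        rw [heq]
        have h5 := hW (Pt B D N q (ts + min δ0 ((t1 - ts) / 2))) δ hδ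
        rw [Pt_sub] at h5
        have hCδ : C * δ ≤ (C + 1) * δ0 := by nlinarith
        have h7 : C * δ ≤ (t1 - ts) / 2 := by linarith
        have h8 := hstrip q hqI' (ts + min δ0 ((t1 - ts) / 2) + C * δ)
          (by have := mul_nonneg hC hδ; linarith) (by linarith)
        linarith)
      (by
        intro s hs K hK hG h5 h6
        have h5' : gm < f (Pt B D N q (ts + s) + δ • W) := by rw [← heq]; exact h5
        have h6' : f (Pt B D N q (ts + s) + δ • W) ≤ gp := by rw [← heq]; exact h6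
        show f (Pt B D N q ts + δ • W - s • N) ≤ fC c0 (Pt B D N q ts + δ • W - s • N)
        rw [heq]
        refine imp0 _ (hdom δ s hδ (by linarith) hs.1 (by linarith [hs.2])) K hK ?_ h5' h6'
        obtain ⟨r0, hr0, h7⟩ := hG
        refine ⟨r0, hr0, fun r hr hr' => ?_⟩
        have h8 := h7 r hr hr'
        show f (Pt B D N q (ts + s) + δ • W - (0 + r) • N)
          ≤ f (Pt B D N q (ts + s) + δ • W - (0:ℝ) • N) + K * r
        have e5 : Pt B D N q (ts + s) + δ • W - (0 + r) • N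
            = Pt B D N q ts + δ • W - (s + r) • N := by
          rw [← heq, zero_add, add_smul]; abel
        have e6 : Pt B D N q (ts + s) + δ • W - (0:ℝ) • N
            = Pt B D N q ts + δ • W - s • N := by
          rw [← heq, zero_smul, sub_zero]
        rw [e5, e6]
        exact h8)
      (by
        intro ε hε
        refine ⟨min (ε / (|L| + 1)) δ0, lt_min (by positivity) hδ0, fun s hs hsδ => ?_⟩
        have hs3 := hsδ.trans_le (min_le_left _ _)
        have hs4 := hsδ.trans_le (min_le_right _ _)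
        show fC c0 (Pt B D N q ts + δ • W - s • N)
          ≤ fC c0 (Pt B D N q ts + δ • W - (0:ℝ) • N) + ε
        rw [heq, zero_smul, sub_zero]
        have h5 := hL δ s hδ (by linarith) hs (by linarith)
        have h6 : L * s ≤ (|L| + 1) * s := by nlinarith [le_abs_self L]
        have h7 : (|L| + 1) * s ≤ (|L| + 1) * (ε / (|L| + 1)) :=
          mul_le_mul_of_nonneg_left hs3.le (by positivity)
        have h8 : (|L| + 1) * (ε / (|L| + 1)) = ε := by field_simp
        linarith)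
    simpa using h4

end select

end Crest.Agent.R136.Sel76
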