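import Mathlib

/-!
# helper683: selection of the ancestors (v1,t1) of a record point (2198, STEP 1-3)

`E` is the set of natural points of type I (`a0 < 1`), `1 - t/θ` the record level of `t`.
* `dens_of_grow` : STEP 1 (horizontal density of `E` to the left of the record);
* `exists_ancestor` : STEP 2, `t`-version (relations of the C-group);
* `levels_cover` : STEP 2, level version (relations along one line).
-/

open MeasureTheory Set Filter Topology
open scoped ENNReal NNReal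

namespace Crest.Agent.R136.Sel683

/-- one dimensional density, seen from the left, with an open window -/
theorem ae_left_dense (S : Set ℝ) :
    ∀ᵐ t : ℝ, t ∈ S →
      ∀ᶠ h in 𝓝[>] (0:ℝ), 0 < volume (S ∩ Ioo (t - 1.9 * h) (t - 1.1 * h)) := by
  have key := IsUnifLocDoublingMeasure.ae_tendsto_measure_inter_div (volume : Measure ℝ) S 6
  have key' := ae_imp_of_ae_restrict key
  filter_upwards [key'] with t ht htS
  have h1 := ht htS (l := 𝓝[>] (0:ℝ)) (fun h => t - 1.5 * h) (fun h => 0.3 * h)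
    (by
      rw [tendsto_nhdsWithin_iff]
      refine ⟨?_, ?_⟩
      · have : Tendsto (fun h : ℝ => 0.3 * h) (𝓝 0) (𝓝 (0.3 * 0)) :=
          (continuous_const.mul continuous_id).tendsto 0
        rw [mul_zero] at this
        exact this.mono_left nhdsWithin_le_nhds
      · filter_upwards [self_mem_nhdsWithin] with h hh
        have hh' : 0 < h := hh
        show 0 < 0.3 * h
        positivity)
    (by
      filter_upwards [self_mem_nhdsWithin] with h hh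
      rw [Metric.mem_closedBall, Real.dist_eq]
      have hh' : 0 < h := hh
      rw [abs_of_nonneg (by linarith)]
      linarith)
  have h2 : ∀ᶠ h in 𝓝[>] (0:ℝ), (0:ℝ≥0∞) <
      volume (S ∩ Metric.closedBall (t - 1.5 * h) (0.3 * h)) /
        volume (Metric.closedBall (t - 1.5 * h) (0.3 * h)) :=
    h1.eventually (lt_mem_nhds (by norm_num))
  filter_upwards [h2, self_mem_nhdsWithin] with h hh hh0
  have hh0' : 0 < h := hh0
  have h3 : volume (S ∩ Metric.closedBall (t - 1.5 * h) (0.3 * h)) ≠ 0 := by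
    intro h0
    rw [h0, ENNReal.zero_div] at hh
    exact lt_irrefl _ hh
  refine lt_of_lt_of_le (pos_iff_ne_zero.mpr h3) (measure_mono ?_)
  refine inter_subset_inter_right _ ?_
  intro s hs
  rw [Metric.mem_closedBall, Real.dist_eq, abs_le] at hs
  constructor <;> linarith [hs.1, hs.2]

/-- points `(v,t)` at which the slice `S_v` is dense at `t` from the left -/
def G (S : Set (ℝ × ℝ)) : Set (ℝ × ℝ) :=
  {p | ∃ n : ℕ, ∀ h : ℚ, (0:ℝ) < h → (h:ℝ) < 1 / ((n:ℝ) + 1) →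
    0 < volume ({r : ℝ | (p.1, r) ∈ S} ∩ Ioo (p.2 - 1.9 * h) (p.2 - 1.1 * h))}

theorem measurableSet_setOf_exists' {α : Type*} [MeasurableSpace α] {p : ℕ → α → Prop}
    (h : ∀ n, MeasurableSet {a | p n a}) : MeasurableSet {a | ∃ n, p n a} := by
  have : {a | ∃ n, p n a} = ⋃ n, {a | p n a} := by
    ext a
    exact mem_iUnion.symm
  rw [this]
  exact MeasurableSet.iUnion h

theorem measurableSet_setOf_forall' {α : Type*} [MeasurableSpace α] {p : ℚ → α → Prop}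
    (h : ∀ n, MeasurableSet {a | p n a}) : MeasurableSet {a | ∀ n, p n a} := by
  have : {a | ∀ n, p n a} = ⋂ n, {a | p n a} := by
    ext a
    exact mem_iInter.symm
  rw [this]
  exact MeasurableSet.iInter h

theorem measurable_G {S : Set (ℝ × ℝ)} (hS : MeasurableSet S) : MeasurableSet (G S) := by
  unfold G
  have h1 : ∀ h : ℝ, MeasurableSet {p : ℝ × ℝ |
      0 < volume ({r : ℝ | (p.1, r) ∈ S} ∩ Ioo (p.2 - 1.9 * h) (p.2 - 1.1 * h))} := by
    intro h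
    have hW : MeasurableSet {z : (ℝ × ℝ) × ℝ | (z.1.1, z.2) ∈ S ∧
        z.1.2 - 1.9 * h < z.2 ∧ z.2 < z.1.2 - 1.1 * h} := by
      refine MeasurableSet.inter ?_ (MeasurableSet.inter ?_ ?_)
      · exact (measurable_fst.fst.prodMk measurable_snd) hS
      · exact measurableSet_lt (measurable_fst.snd.sub_const _) measurable_snd
      · exact measurableSet_lt measurable_snd (measurable_fst.snd.sub_const _)
    have h2 := measurable_measure_prodMk_left (ν := (volume : Measure ℝ)) hW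
    exact measurableSet_lt measurable_const h2
  refine measurableSet_setOf_exists' fun n => ?_
  refine measurableSet_setOf_forall' fun h => ?_
  by_cases hh : (0:ℝ) < h ∧ (h:ℝ) < 1 / ((n:ℝ) + 1)
  · have h2 : {p : ℝ × ℝ | (0:ℝ) < h → (h:ℝ) < 1 / ((n:ℝ) + 1) →
        0 < volume ({r : ℝ | (p.1, r) ∈ S} ∩ Ioo (p.2 - 1.9 * h) (p.2 - 1.1 * h))} =
        {p : ℝ × ℝ | 0 < volume ({r : ℝ | (p.1, r) ∈ S} ∩
          Ioo (p.2 - 1.9 * (h:ℝ)) (p.2 - 1.1 * (h:ℝ)))} := by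
      ext p
      exact ⟨fun H => H hh.1 hh.2, fun H _ _ => H⟩
    rw [h2]
    exact h1 h
  · have : {p : ℝ × ℝ | (0:ℝ) < h → (h:ℝ) < 1 / ((n:ℝ) + 1) →
        0 < volume ({r : ℝ | (p.1, r) ∈ S} ∩ Ioo (p.2 - 1.9 * h) (p.2 - 1.1 * h))} = univ := by
      ext p
      simp only [mem_ofPred_eq, mem_univ, iff_true]
      intro ha hb
      exact absurd ⟨ha, hb⟩ hh
    rw [this]
    exact MeasurableSet.univ

theorem ae_G {S : Set (ℝ × ℝ)} (hS : MeasurableSet S) :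
    ∀ᵐ t : ℝ, ∀ᵐ v : ℝ, (v, t) ∈ S → (v, t) ∈ G S := by
  have hm : MeasurableSet {x : ℝ × ℝ | (x.1, x.2) ∈ S → (x.1, x.2) ∈ G S} := by
    have : {x : ℝ × ℝ | (x.1, x.2) ∈ S → (x.1, x.2) ∈ G S} = Sᶜ ∪ G S := by
      ext x
      simp only [mem_ofPred_eq, mem_union, mem_compl_iff]
      tauto
    rw [this]
    exact hS.compl.union (measurable_G hS)
  rw [← Measure.ae_ae_comm (p := fun v t => (v, t) ∈ S → (v, t) ∈ G S) hm]
  refine Eventually.of_forall fun v => ?_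
  filter_upwards [ae_left_dense {r : ℝ | (v, r) ∈ S}] with t ht htS
  have h1 := ht htS
  rw [eventually_nhdsWithin_iff, Metric.eventually_nhds_iff] at h1
  obtain ⟨δ, hδ, h1⟩ := h1
  obtain ⟨n, hn⟩ := exists_nat_one_div_lt hδ
  refine ⟨n, fun h h0 hlt => ?_⟩
  refine h1 ?_ h0
  rw [Real.dist_eq, sub_zero, abs_of_pos h0]
  exact hlt.trans hn

theorem G_event {S : Set (ℝ × ℝ)} {v t : ℝ} (h : (v, t) ∈ G S) :
    ∀ᶠ h in 𝓝[>] (0:ℝ), ∃ t1, t - 2 * h < t1 ∧ t1 < t - h ∧ (v, t1) ∈ S := by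
  obtain ⟨n, hn⟩ := h
  have h0 : (0:ℝ) < 1 / ((n:ℝ) + 1) := by positivity
  filter_upwards [Ioo_mem_nhdsGT h0] with h hh
  obtain ⟨q, hq1, hq2⟩ := exists_rat_btwn (show 0.95 * h < h by linarith [hh.1])
  have hq0 : (0:ℝ) < q := by
    have := hh.1
    linarith
  have h1 := hn q hq0 (hq2.trans hh.2)
  obtain ⟨r, hr⟩ := nonempty_of_measure_ne_zero (pos_iff_ne_zero.mp h1)
  refine ⟨r, ?_, ?_, hr.1⟩
  · have := hr.2.1
    simp only at this
    have := hh.1
    linarith [hr.2.1]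
  · have := hh.1
    linarith [hr.2.2]

/-- **STEP 2, selection of the ancestor `(v1,t1)`.** -/
theorem exists_ancestor {θ : ℝ} (E : Set (ℝ × ℝ)) (hE : MeasurableSet E)
    (ε : ℕ → ℝ × ℝ → ℝ) (hεm : ∀ k, Measurable (ε k)) (hε : ∀ k, ∀ p ∈ E, 0 < ε k p)
    (H : ∀ᵐ t : ℝ, 0 < t → t < θ → ∀ δ > (0:ℝ),
      0 < volume {v : ℝ | 1 - t / θ - δ < v ∧ v < 1 - t / θ ∧ (v, t) ∈ E}) :
    ∀ᵐ t : ℝ, 0 < t → t < θ → ∀ δ > (0:ℝ), ∃ v1, 1 - t / θ - δ < v1 ∧ v1 < 1 - t / θ ∧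
      (v1, t) ∈ E ∧ ∀ k, ∃ ε0 > (0:ℝ), ∀ᶠ h in 𝓝[>] (0:ℝ), ∃ t1, t - 2 * h < t1 ∧
        t1 < t - h ∧ (v1, t1) ∈ E ∧ ε0 ≤ ε k (v1, t1) := by
  have hS : ∀ k j : ℕ, MeasurableSet (E ∩ {p | 1 / ((j:ℝ) + 1) ≤ ε k p}) := fun k j =>
    hE.inter (measurableSet_le measurable_const (hεm k))
  have h1 : ∀ᵐ t : ℝ, ∀ k j : ℕ, ∀ᵐ v : ℝ, (v, t) ∈ E ∩ {p | 1 / ((j:ℝ) + 1) ≤ ε k p} →
      (v, t) ∈ G (E ∩ {p | 1 / ((j:ℝ) + 1) ≤ ε k p}) := by
    rw [ae_all_iff]
    intro k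
    rw [ae_all_iff]
    intro j
    exact ae_G (hS k j)
  filter_upwards [H, h1] with t ht h2 ht0 htθ δ hδ
  have h3 := ht ht0 htθ δ hδ
  have h4 : ∀ᵐ v : ℝ, ∀ k j : ℕ, (v, t) ∈ E ∩ {p | 1 / ((j:ℝ) + 1) ≤ ε k p} →
      (v, t) ∈ G (E ∩ {p | 1 / ((j:ℝ) + 1) ≤ ε k p}) := by
    rw [ae_all_iff]
    intro k
    rw [ae_all_iff]
    exact h2 k
  have h5 : volume ({v : ℝ | 1 - t / θ - δ < v ∧ v < 1 - t / θ ∧ (v, t) ∈ E} ∩
      {v | ∀ k j : ℕ, (v, t) ∈ E ∩ {p | 1 / ((j:ℝ) + 1) ≤ ε k p} →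
      (v, t) ∈ G (E ∩ {p | 1 / ((j:ℝ) + 1) ≤ ε k p})}) ≠ 0 := by
    rw [measure_inter_conull h4]
    exact h3.ne'
  obtain ⟨v1, hv1, hv2⟩ := nonempty_of_measure_ne_zero h5
  refine ⟨v1, hv1.1, hv1.2.1, hv1.2.2, fun k => ?_⟩
  obtain ⟨j, hj⟩ := exists_nat_one_div_lt (hε k _ hv1.2.2)
  refine ⟨1 / ((j:ℝ) + 1), by positivity, ?_⟩
  filter_upwards [G_event (hv2 k j ⟨hv1.2.2, hj.le⟩)] with h hh
  obtain ⟨t1, a1, a2, a3⟩ := hh
  exact ⟨t1, a1, a2, a3.1, a3.2⟩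

/-- **STEP 2, level version.** Every level, except a null set, lies in the right-window
`(v1, v1 + ε(v1,t'))` of a point of `E`. -/
theorem levels_cover (E : Set (ℝ × ℝ)) (ε : ℝ × ℝ → ℝ) (hε : ∀ p ∈ E, 0 < ε p)
    (U : Set ℝ) (H : ∀ᵐ v : ℝ, v ∈ U → ∃ t, (v, t) ∈ E) :
    ∀ᵐ v : ℝ, v ∈ U → ∃ v1 t, (v1, t) ∈ E ∧ v1 < v ∧ v < v1 + ε (v1, t) := by
  set P : Set ℝ := {v | ∃ t, (v, t) ∈ E} with hP
  set B : Set ℝ := P ∩ {v | ¬ ∃ v1 t, (v1, t) ∈ E ∧ v1 < v ∧ v < v1 + ε (v1, t)} with hB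
  have hc : B.Countable := by
    have : ∀ x ∈ B, ∃ y, x < y ∧ Ioo x y ∩ B = ∅ := by
      intro x hx
      obtain ⟨t, ht⟩ := hx.1
      refine ⟨x + ε (x, t), by linarith [hε _ ht], ?_⟩
      rw [eq_empty_iff_forall_notMem]
      rintro z ⟨hz1, hz2⟩
      exact hz2.2 ⟨x, t, ht, hz1.1, hz1.2⟩
    have h3 : {x ∈ B | 𝓝[B ∩ Ioi x] x = ⊥} = B := by
      ext x
      refine ⟨fun h => h.1, fun h => ⟨h, ?_⟩⟩
      obtain ⟨y, hy, hxy⟩ := this x h
      rw [← empty_mem_iff_bot, mem_nhdsWithin]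
      refine ⟨Iio y, isOpen_Iio, hy, ?_⟩
      rintro z ⟨hz1, hz2, hz3⟩
      have : z ∈ Ioo x y ∩ B := ⟨⟨hz3, hz1⟩, hz2⟩
      rw [hxy] at this
      exact this
    rw [← h3]
    exact countable_setOfPred_isolated_right_within
  have h0 : ∀ᵐ v : ℝ, v ∉ B := by
    rw [ae_iff]
    simpa using hc.measure_zero volume
  filter_upwards [H, h0] with v hv hvB hvU
  by_contra hno
  exact hvB ⟨hv hvU, hno⟩

/-- **STEP 1.** A Lipschitz function with `f v ≤ f b`, derivative `≤ C - g` on `E` and `≤ -g`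
off `E`: `E` has density `≥ g / C` to the left of `b`. -/
theorem dens_of_grow {f : ℝ → ℝ} {a b : ℝ} {K : ℝ≥0} (hab : a ≤ b)
    (hf : LipschitzOnWith K f (Icc a b)) (hle : f a ≤ f b) {E : Set ℝ} (hE : MeasurableSet E)
    {C g : ℝ} (h1 : ∀ᵐ v : ℝ, v ∈ Ioc a b → v ∈ E → deriv f v ≤ C - g)
    (h2 : ∀ᵐ v : ℝ, v ∈ Ioc a b → v ∉ E → deriv f v ≤ -g) :
    g * (b - a) ≤ C * (volume (E ∩ Ioc a b)).toReal := by
  have hL : LipschitzOnWith K f (uIcc a b) := by rwa [uIcc_of_le hab]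
  have h3 := (hL.absolutelyContinuousOnInterval).integral_deriv_eq_sub
  have hint := (hL.absolutelyContinuousOnInterval).intervalIntegrable_deriv
  rw [intervalIntegral.integral_of_le hab] at h3
  rw [intervalIntegrable_iff_integrableOn_Ioc_of_le hab] at hint
  have hind : IntegrableOn (fun v => E.indicator (fun _ => C) v - g) (Ioc a b) := by
    refine Integrable.sub ?_ ?_
    · exact (integrableOn_const (by simp)).indicator hE
    · exact integrableOn_const (by simp)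
  have h4 : ∫ v in Ioc a b, deriv f v ≤ ∫ v in Ioc a b, (E.indicator (fun _ => C) v - g) := by
    refine setIntegral_mono_ae_restrict hint hind ?_
    rw [EventuallyLE, ae_restrict_iff' measurableSet_Ioc]
    filter_upwards [h1, h2] with v hv1 hv2 hv
    by_cases hvE : v ∈ E
    · rw [indicator_of_mem hvE]
      exact hv1 hv hvE
    · rw [indicator_of_notMem hvE]
      have := hv2 hv hvE
      linarith
  have h5 : ∫ v in Ioc a b, (E.indicator (fun _ => C) v - g) =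
      C * (volume (E ∩ Ioc a b)).toReal - g * (b - a) := by
    have hi1 : IntegrableOn (E.indicator fun _ => C) (Ioc a b) volume :=
      (integrableOn_const (by simp)).indicator hE
    have hi2 : IntegrableOn (fun _ : ℝ => g) (Ioc a b) volume := integrableOn_const (by simp)
    rw [integral_sub hi1 hi2]
    rw [integral_indicator hE, Measure.restrict_restrict hE]
    simp [Measure.real, hab, mul_comm]
  rw [h3, h5] at h4
  linarith

end Crest.Agent.R136.Sel683
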