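import Mathlib
import Crest.Agent.R136.KF2_879
import Crest.Agent.R136.Pen3_325
import Crest.Agent.R136.Sel1_823

/-!
# R136, block U4, route G (helper289), part 2: the gap as a function of the reward, the family

* `UBH.mono`, `UBH.inf`, `UBH.shift`;
* `Qr q1 q2 ε1 w0 s u t` : the reward with three parameters (823's 20362) as a `psiG`.
-/

set_option autoImplicit false
set_option linter.unusedVariables false
set_option linter.unusedSectionVars false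

open Finset

namespace Crest.Agent.R136.Sft289

open Crest.Agent.R116.Xa794 (TS)
open Crest.Agent.R116.Xc794
open Crest.Agent.R136.KF879
open Crest.Agent.R136.Pen325
open Crest.Agent.R116.Psi635

section ubh

variable {Ln ι S : Type} [Fintype ι] {K : ℕ} {𝒯 : Set (TS Ln ι S)} {Ψ Ψ' : ℝ → (ι → ℝ) → ℝ}
  {b b' c : ℝ}

theorem D0_pos {D1 D0 e : ℝ} (h1 : 0 < D1) (h : D1 ≤ (2 : ℝ) ^ e * D0) : 0 < D0 := by
  have h2 : 0 < (2 : ℝ) ^ e * D0 := h1.trans_le h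
  exact pos_of_mul_pos_of_pos_left h2 (by positivity)
where
  pos_of_mul_pos_of_pos_left {x y : ℝ} (h : 0 < x * y) (hx : 0 < x) : 0 < y := by
    by_contra hn
    have := mul_nonpos_of_nonneg_of_nonpos hx.le (not_lt.1 hn)
    linarith

theorem ubh_mono (h : UBH K 𝒯 Ψ b) (hb : b ≤ b') : UBH K 𝒯 Ψ b' := by
  intro η hη
  obtain ⟨δ, hδ, M0, h1⟩ := h η hη
  refine ⟨δ, hδ, M0, fun T hT F k hF hM hK hk hl hN hn => ?_⟩
  have h2 := h1 T hT F k hF hM hK hk hl hN hn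
  have hD := D0_pos hF.D1p h2
  refine h2.trans (mul_le_mul_of_nonneg_right ?_ hD.le)
  refine Real.rpow_le_rpow_of_exponent_le (by norm_num) ?_
  exact mul_le_mul_of_nonneg_right (by linarith) (Nat.cast_nonneg _)

theorem ubh_inf (h : ∀ b', b < b' → UBH K 𝒯 Ψ b') : UBH K 𝒯 Ψ b := by
  intro η hη
  obtain ⟨δ, hδ, M0, h1⟩ := h (b + η / 2) (by linarith) (η / 2) (by linarith)
  refine ⟨δ, hδ, M0, fun T hT F k hF hM hK hk hl hN hn => ?_⟩
  have h2 := h1 T hT F k hF hM hK hk hl hN hn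
  rwa [show b + η / 2 + η / 2 = b + η by ring] at h2

/-- a larger reward (up to `c l`) has a smaller gap (up to `c`) -/
theorem ubh_shift (h : UBH K 𝒯 Ψ' b) (hc : ∀ l x, 0 ≤ l → Ψ' l x ≤ Ψ l x + c * l) :
    UBH K 𝒯 Ψ (b + c) := by
  intro η hη
  obtain ⟨δ, hδ, M0, h1⟩ := h η hη
  refine ⟨δ, hδ, M0, fun T hT F k hF hM hK hk hl hN hn => ?_⟩
  have hOk : OkH T Ψ' k { F with D0 := F.D0 * (2 : ℝ) ^ (c * F.M) } := {
    M1 := hF.M1
    h_le := hF.h_le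
    ne := hF.ne
    cell := hF.cell
    D1p := hF.D1p
    nup := hF.nup
    fin := hF.fin
    top := hF.top
    low := hF.low
    own := hF.own
    up := by
      intro J s hs
      have g1 := hF.up J s hs
      refine g1.trans ?_
      have hv := T.volpos F.m s.1
      have hcap : 0 < capP T Ψ (F.m + F.M) F.a F.m s.1 := by
        unfold capP; positivity
      have hD0 : 0 ≤ F.D0 := by
        by_contra hn
        have := mul_neg_of_neg_of_pos (not_le.1 hn) hcap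
        have := g1.trans_lt this
        exact absurd this (not_lt.2 (Nat.cast_nonneg _))
      show F.D0 * capP T Ψ (F.m + F.M) F.a F.m s.1 ≤
        F.D0 * (2 : ℝ) ^ (c * F.M) * capP T Ψ' (F.m + F.M) F.a F.m s.1
      rw [mul_assoc]
      refine mul_le_mul_of_nonneg_left ?_ hD0
      unfold capP
      have e : ((F.m + F.M : ℕ) : ℝ) - (F.m : ℕ) = (F.M : ℝ) := by push_cast; ring
      rw [e]
      have g2 := hc F.M (rel F.m s.1 (F.m + F.M) F.a) (Nat.cast_nonneg _)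
      have g3 : (2 : ℝ) ^ (-(Ψ F.M (rel F.m s.1 (F.m + F.M) F.a))) ≤
          (2 : ℝ) ^ (c * F.M) * (2 : ℝ) ^ (-(Ψ' F.M (rel F.m s.1 (F.m + F.M) F.a))) := by
        rw [← Real.rpow_add (by norm_num)]
        exact Real.rpow_le_rpow_of_exponent_le (by norm_num) (by linarith)
      calc T.vol F.m s.1 * (2 : ℝ) ^ (-(Ψ F.M (rel F.m s.1 (F.m + F.M) F.a))) ≤
          T.vol F.m s.1 * ((2 : ℝ) ^ (c * F.M) *
            (2 : ℝ) ^ (-(Ψ' F.M (rel F.m s.1 (F.m + F.M) F.a)))) :=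
            mul_le_mul_of_nonneg_left g3 hv.le
        _ = _ := by ring }
  have h2 : F.D1 ≤ (2 : ℝ) ^ ((b + η) * F.M) * (F.D0 * (2 : ℝ) ^ (c * F.M)) :=
    h1 T hT _ k hOk hM hK hk hl hN hn
  refine h2.trans (le_of_eq ?_)
  rw [show (b + c + η) * (F.M : ℝ) = (b + η) * F.M + c * F.M by ring,
    Real.rpow_add (by norm_num)]
  ring

end ubh

/-! ### elementary inequalities for `N(l,x) = nr l x - l` -/

theorem nr_eq (l x : ℝ) : nr l x = √(l ^ 2 + x ^ 2) := rfl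

/-- `x - N ≤ l` -/
theorem sub_N_le (l x : ℝ) : x - (nr l x - l) ≤ l := by
  have h1 := le_nr_x l x
  have h2 := le_abs_self x
  linarith

/-- `N ≤ x` for `0 ≤ l`, `0 ≤ x` -/
theorem N_le {l x : ℝ} (hl : 0 ≤ l) : nr l x - l ≤ |x| := by
  have h : nr l x ≤ l + |x| := by
    rw [nr_eq]
    refine Real.sqrt_le_iff.2 ⟨by positivity, ?_⟩
    have := sq_abs x
    nlinarith [mul_nonneg hl (abs_nonneg x)]
  linarith

/-- `N ≤ x - 0.58 l` for `l ≤ x` -/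
theorem N_le_far {l x : ℝ} (hl : 0 ≤ l) (hx : l ≤ x) : nr l x - l ≤ x - 58 / 100 * l := by
  have h : nr l x ≤ x + 42 / 100 * l := by
    rw [nr_eq]
    refine Real.sqrt_le_iff.2 ⟨by linarith [mul_nonneg (by norm_num : (0:ℝ) ≤ 42 / 100) hl], ?_⟩
    nlinarith [mul_le_mul_of_nonneg_left hx hl, mul_nonneg hl hl]
  linarith

/-! ### selection -/

section sel

variable {Ln ι S : Type} [Fintype ι] {K : ℕ} {𝒯 : Set (TS Ln ι S)}

/-- **selection of three parameters for the gap of a family of rewards.** -/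
theorem sel_abs {fam : ℝ → ℝ → ℝ → ℝ → (ι → ℝ) → ℝ} {s0 S u0 u1 t0 t1 CU b1 κ a K' : ℝ}
    (hs : s0 ≤ S) (hs0 : 0 ≤ s0) (hu0 : 0 < u0) (hu : u0 ≤ u1) (ht : t0 ≤ t1) (hb1 : 0 < b1)
    (hκ : 0 < κ) (hκS : κ * S ≤ b1 / 2) (ha : 0 < a) (hK : 0 ≤ K') (hCU : 0 ≤ CU)
    (hmono : ∀ s s' u u' t t', s0 ≤ s → s ≤ s' → s' ≤ S → u0 ≤ u → u ≤ u' → u' ≤ u1 → t0 ≤ t →
      t ≤ t' → t' ≤ t1 → ∀ l x, 0 ≤ l →
        fam s' u' t' l x ≤ fam s u t l x + 2 * ((s' - s) + (u' - u) + (t' - t)) * l)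
    (hbase : ∀ b, b < b1 → ¬ UBH K 𝒯 (fam s0 u0 t0) b)
    (hup : ∀ s u t, s0 ≤ s → s ≤ S → u0 ≤ u → u ≤ u1 → t0 ≤ t → t ≤ t1 →
      UBH K 𝒯 (fam s u t) (CU - s / 2))
    (hS : 2 * CU ≤ S)
    (hau : CU ≤ a * (Real.log u1 - Real.log u0)) (hKt : CU ≤ K' * (t1 - t0)) :
    ∃ s u t g, s0 ≤ s ∧ s < S ∧ u0 ≤ u ∧ u < u1 ∧ t0 ≤ t ∧ t < t1 ∧ b1 / 2 ≤ g ∧
      (∀ b, b < g → ¬ UBH K 𝒯 (fam s u t) b) ∧ UBH K 𝒯 (fam s u t) g ∧
      ∀ δ υ τ, 0 ≤ δ → 0 ≤ υ → 0 ≤ τ → s + δ ≤ S → u + υ ≤ u1 → t + τ ≤ t1 →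
        UBH K 𝒯 (fam (s + δ) (u + υ) (t + τ)) (g - κ * δ + a / u * υ + K' * τ) := by
  set h : ℝ → ℝ → ℝ → ℝ := fun s u t => sInf {b | UBH K 𝒯 (fam s u t) b} with hh
  have hlow : ∀ s u t, s0 ≤ s → s ≤ S → u0 ≤ u → u ≤ u1 → t0 ≤ t → t ≤ t1 →
      ∀ b, UBH K 𝒯 (fam s u t) b → b1 - 2 * ((s - s0) + (u - u0) + (t - t0)) ≤ b := by
    intro s u t h1 h2 h3 h4 h5 h6 b hb
    by_contra hn
    push Not at hn
    exact hbase (b + 2 * ((s - s0) + (u - u0) + (t - t0))) (by linarith)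
      (ubh_shift hb (hmono s0 s u0 u t0 t le_rfl h1 h2 le_rfl h3 h4 le_rfl h5 h6))
  have hne : ∀ s u t, s0 ≤ s → s ≤ S → u0 ≤ u → u ≤ u1 → t0 ≤ t → t ≤ t1 →
      {b | UBH K 𝒯 (fam s u t) b}.Nonempty := fun s u t h1 h2 h3 h4 h5 h6 =>
    ⟨_, hup s u t h1 h2 h3 h4 h5 h6⟩
  have hbd : ∀ s u t, s0 ≤ s → s ≤ S → u0 ≤ u → u ≤ u1 → t0 ≤ t → t ≤ t1 →
      BddBelow {b | UBH K 𝒯 (fam s u t) b} := fun s u t h1 h2 h3 h4 h5 h6 =>
    ⟨_, fun b hb => hlow s u t h1 h2 h3 h4 h5 h6 b hb⟩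
  have hatt : ∀ s u t, s0 ≤ s → s ≤ S → u0 ≤ u → u ≤ u1 → t0 ≤ t → t ≤ t1 →
      UBH K 𝒯 (fam s u t) (h s u t) := by
    intro s u t h1 h2 h3 h4 h5 h6
    refine ubh_inf fun b' hb' => ?_
    obtain ⟨b, hb, hbb⟩ := exists_lt_of_csInf_lt (hne s u t h1 h2 h3 h4 h5 h6) hb'
    exact ubh_mono hb hbb.le
  have hle : ∀ s u t, s0 ≤ s → s ≤ S → u0 ≤ u → u ≤ u1 → t0 ≤ t → t ≤ t1 →
      ∀ b, UBH K 𝒯 (fam s u t) b → h s u t ≤ b := fun s u t h1 h2 h3 h4 h5 h6 b hb =>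
    csInf_le (hbd s u t h1 h2 h3 h4 h5 h6) hb
  obtain ⟨s, u, t, h1, h2, h3, h4, h5, h6, h7, h8⟩ := Sel823.exists_par (h := h) hs hs0 hu0 hu ht
    hb1 hκ hκS ha hK hCU
    (by
      intro s s' u u' t t' h1 h2 h3 h4 h5 h6 h7 h8 h9
      have k1 := hle s u t h1 (by linarith) h4 (by linarith) h7 (by linarith) _
        (ubh_shift (hatt s' u' t' (by linarith) h3 (by linarith) h6 (by linarith) h9)
          (hmono s s' u u' t t' h1 h2 h3 h4 h5 h6 h7 h8 h9))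
      linarith)
    (by
      refine le_csInf (hne s0 u0 t0 le_rfl hs le_rfl hu le_rfl ht) fun b hb => ?_
      have := hlow s0 u0 t0 le_rfl hs le_rfl hu le_rfl ht b hb
      linarith)
    (fun s u t h1 h2 h3 h4 h5 h6 => hle s u t h1 h2 h3 h4 h5 h6 _
      (hup s u t h1 h2 h3 h4 h5 h6)) hS hau hKt
  refine ⟨s, u, t, h s u t, h1, h2, h3, h4, h5, h6, h7, fun b hb hU => ?_,
    hatt s u t h1 h2.le h3 h4.le h5 h6.le, fun δ υ τ k1 k2 k3 k4 k5 k6 => ?_⟩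
  · exact absurd (hle s u t h1 h2.le h3 h4.le h5 h6.le b hU) (not_le.2 hb)
  · exact ubh_mono (hatt _ _ _ (by linarith) k4 (by linarith) k5 (by linarith) k6)
      (h8 δ υ τ k1 k2 k3 k4 k5 k6)

end sel

/-! ### the family -/

/-- linear coefficients -/
noncomputable def Pa (q1 q2 w0 s u : ℝ) : Fin 3 → ℝ := ![w0 * (q2 + u), q1 + s, q2 + u]

/-- penalty weights -/
noncomputable def Na (e w0 s u t : ℝ) : Fin 3 → ℝ := ![w0 * (u + t), (1 + e) * s, u + t]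

/-- direction, linear part -/
noncomputable def Da (w0 cu : ℝ) : Fin 3 → ℝ := ![w0 * (cu / 2), 1 / 2, cu / 2]

/-- direction, penalty part -/
noncomputable def Db (e w0 cu ct : ℝ) : Fin 3 → ℝ :=
  ![w0 * ((cu + ct) / 2), (1 + e) / 2, (cu + ct) / 2]

/-- the family of rewards -/
noncomputable def fam (q1 q2 e w0 s u t : ℝ) : ℝ → (Fin 3 → ℝ) → ℝ :=
  psiG 0 (Pa q1 q2 w0 s u) (Na e w0 s u t)

theorem fam_val (q1 q2 e w0 s u t l : ℝ) (x : Fin 3 → ℝ) :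
    fam q1 q2 e w0 s u t l x = q1 * x 1 + s * (x 1 - (1 + e) * (nr l (x 1) - l)) +
      ((q2 + u) * x 2 - (u + t) * (nr l (x 2) - l)) +
      w0 * ((q2 + u) * x 0 - (u + t) * (nr l (x 0) - l)) := by
  unfold fam psiG
  rw [Fin.sum_univ_three]
  show 0 * l + ((w0 * (q2 + u) * x 0 - w0 * (u + t) * (nr l (x 0) - l)) +
    ((q1 + s) * x 1 - (1 + e) * s * (nr l (x 1) - l)) +
    ((q2 + u) * x 2 - (u + t) * (nr l (x 2) - l))) = _
  ring

theorem dir_val (e w0 cu ct l : ℝ) (x : Fin 3 → ℝ) :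
    2 * psiG 0 (Da w0 cu) (Db e w0 cu ct) l x = (x 1 - (1 + e) * (nr l (x 1) - l)) +
      cu * ((x 2 - (nr l (x 2) - l)) + w0 * (x 0 - (nr l (x 0) - l))) -
      ct * ((nr l (x 2) - l) + w0 * (nr l (x 0) - l)) := by
  unfold psiG
  rw [Fin.sum_univ_three]
  show 2 * (0 * l + ((w0 * (cu / 2) * x 0 - w0 * ((cu + ct) / 2) * (nr l (x 0) - l)) +
    (1 / 2 * x 1 - (1 + e) / 2 * (nr l (x 1) - l)) +
    (cu / 2 * x 2 - (cu + ct) / 2 * (nr l (x 2) - l)))) = _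
  ring

/-- the one-parameter family through `(s,u,t)` -/
theorem fam_dir (q1 q2 e w0 s u t cu ct q0 δ : ℝ) :
    RG 0 0 (fun j => Pa q1 q2 w0 s u j - q0 * Da w0 cu j)
      (fun j => Na e w0 s u t j - q0 * Db e w0 cu ct j) (Da w0 cu) (Db e w0 cu ct) (q0 + δ) =
      fam q1 q2 e w0 (s + δ / 2) (u + cu * (δ / 2)) (t + ct * (δ / 2)) := by
  funext l x
  rw [RG_eq]
  have e1 : (fun j => Pa q1 q2 w0 s u j - q0 * Da w0 cu j + (q0 + δ) * Da w0 cu j) =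
      Pa q1 q2 w0 (s + δ / 2) (u + cu * (δ / 2)) := by
    funext j
    fin_cases j <;> simp [Pa, Da] <;> ring
  have e2 : (fun j => Na e w0 s u t j - q0 * Db e w0 cu ct j + (q0 + δ) * Db e w0 cu ct j) =
      Na e w0 (s + δ / 2) (u + cu * (δ / 2)) (t + ct * (δ / 2)) := by
    funext j
    fin_cases j <;> simp [Na, Db] <;> ring
  rw [e1, e2]
  unfold fam
  congr 1
  ring

/-- monotonicity of the family -/
theorem fam_mono {q1 q2 e w0 s s' u u' t t' l : ℝ} (he : 0 ≤ e) (hw : 0 ≤ w0) (hw1 : w0 ≤ 1)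
    (h1 : s ≤ s') (h2 : u ≤ u') (h3 : t ≤ t') (hl : 0 ≤ l) (x : Fin 3 → ℝ) :
    fam q1 q2 e w0 s' u' t' l x ≤
      fam q1 q2 e w0 s u t l x + 2 * ((s' - s) + (u' - u) + (t' - t)) * l := by
  rw [fam_val, fam_val]
  have N0 : 0 ≤ nr l (x 0) - l := N_nonneg
  have N1 : 0 ≤ nr l (x 1) - l := N_nonneg
  have N2 : 0 ≤ nr l (x 2) - l := N_nonneg
  have a0 := sub_N_le l (x 0)
  have a1 := sub_N_le l (x 1)
  have a2 := sub_N_le l (x 2)
  set n0 := nr l (x 0) - l with hn0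
  set n1 := nr l (x 1) - l with hn1
  set n2 := nr l (x 2) - l with hn2
  have k1 : (s' - s) * (x 1 - (1 + e) * n1) ≤ (s' - s) * l := by
    refine mul_le_mul_of_nonneg_left ?_ (by linarith)
    nlinarith [mul_nonneg he N1]
  have k2 : (u' - u) * (x 2 - n2) ≤ (u' - u) * l := mul_le_mul_of_nonneg_left a2 (by linarith)
  have k3 : (u' - u) * (w0 * (x 0 - n0)) ≤ (u' - u) * l := by
    refine mul_le_mul_of_nonneg_left ?_ (by linarith)
    calc w0 * (x 0 - n0) ≤ w0 * l := mul_le_mul_of_nonneg_left a0 hw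
      _ ≤ 1 * l := mul_le_mul_of_nonneg_right hw1 hl
      _ = l := one_mul l
  have k4 : 0 ≤ (t' - t) * n2 := mul_nonneg (by linarith) N2
  have k5 : 0 ≤ (t' - t) * (w0 * n0) := mul_nonneg (by linarith) (mul_nonneg hw N0)
  have k6 : 0 ≤ (s' - s) * l := mul_nonneg (by linarith) hl
  have k7 : 0 ≤ (t' - t) * l := mul_nonneg (by linarith) hl
  nlinarith

end Crest.Agent.R136.Sft289
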