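import Mathlib
import Crest.Agent.R136.Yc1_953

/-!
# R136 U4, pure penalty: X1-C chain with FULL own counts, part 2 (helper953)

Port of helper794's `R116/Xc4, Xc6`: `up_oneF`, `exists_dmxF` ((UP), D-max at all levels),
`exists_initF` (the initial near-extremal sequence; full own counts give `Λ = 0`).
-/

set_option autoImplicit false
set_option linter.unusedSectionVars false

open Finset Filter Topology

namespace Crest.Agent.R136.Yc953

open Crest.Agent.R138.Ex926 Crest.Agent.R138.Dp76 Crest.Agent.R138.Ps627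
open Crest.Agent.R138.Ps926
open Crest.Agent.R138.NatTw76 (exists_avoid)
open Crest.Agent.R138.Mk163 (zc zl rho alive own Negl)
open Crest.Agent.R138.MkRef627 (lc kc own_one alive_mono mem_alive card_class own_lower exists_num)
open Crest.Agent.R138.MkZoom779 (zc_nested zc_eq exists_rep)
open Crest.Agent.R136.MkA627 (ampA Geo MkA)
open Crest.Agent.R116.Xa794 (TS)
open Crest.Agent.R116.Xa2794 (lc_nested class_fib_ge class_fib_le)
open Crest.Agent.R116.Xa3794
open Crest.Agent.R116.Xc794 Crest.Agent.R116.Xc1794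
open Crest.Agent.R116.Xc3794 Crest.Agent.R116.Xc4794 Crest.Agent.R116.Xc5794
open Crest.Agent.R116.Xc6794 (rep_ok)

variable {Ln ι S : Type} [Fintype ι]

section

variable {B : Base} {I : ℕ → Finset (ℕ × ℝ)} {lev : ℕ → ℚ → ℕ} {T : ℕ → TS Ln ι S}
  {L : ℕ → ℕ → Ln} {A : ℕ → ℝ} {Ψ : ℝ → (ι → ℝ) → ℝ} {atop : ℕ → ι → ℕ} {N : ℕ → ℕ}

open Classical in
theorem up_oneF [Nonempty S] (h : Sq B I lev Zf) (𝒯 : Set (TS Ln ι S)) (hΨ : SupA Ψ) {g : ℝ}
    (hUB : UBF 𝒯 Ψ g) (hT : ∀ n, T n ∈ 𝒯)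
    (hfin : ∀ (n i : ℕ) (J : ℤ) (s : (ι → ℕ) × S), (T n).adm i J s → ∀ j, s.1 j ≤ N n)
    (hNd : ∀ ε : ℝ, 0 < ε → ∀ᶠ n in (U : Filter ℕ), (N n : ℝ) ≤ B.d n ^ (-ε))
    (hA : ∀ n, 0 < A n)
    (h0 : ∀ᶠ n in (U : Filter ℕ), ∀ (J0 : ℤ) (s : (ι → ℕ) × S), (T n).adm (lev n 0) J0 s →
      (((alive (I n) (lev n 0) J0).filter fun t => (T n).mem (lev n 0) J0 s (L n t)).card : ℝ) ≤
        A n * VV T Ψ lev atop n (lev n 0) s.1)
    {v : ℚ} (hv0 : 0 ≤ v) (hv1 : v ≤ 1) {ε : ℝ} (hε : 0 < ε) :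
    ∃ E : ℕ → Finset (ℕ × ℝ), Negl B I (fun n x => x ∈ E n) ∧
      ∀ᶠ n in (U : Filter ℕ), ∀ Q ⊆ I n, (∀ x ∈ Q, x ∉ E n) → ∀ (J : ℤ) (s : (ι → ℕ) × S),
        (T n).adm (lev n v) J s →
          (((alive Q (lev n v) J).filter fun t => (T n).mem (lev n v) J s (L n t)).card : ℝ) ≤
            B.d n ^ (-ε) * ampA B A (fun v => g * v) n v *
              VV T Ψ lev atop n (lev n v) s.1 := by
  rcases hv0.eq_or_lt with rfl | hvpos
  · refine ⟨fun _ => ∅, ⟨1, one_pos, Eventually.of_forall fun n => ?_⟩, ?_⟩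
    · simp only [notMem_empty, filter_false, card_empty, Nat.cast_zero]
      exact mul_nonneg (dpow_pos B n _).le (Nat.cast_nonneg _)
    · filter_upwards [h0] with n hn Q hQ _ J s hs
      refine le_trans (by exact_mod_cast card_le_card (filter_subset_filter _
        (alive_mono hQ _ _))) ((hn J s hs).trans ?_)
      refine mul_le_mul_of_nonneg_right ?_ (VV_pos _ _ _).le
      unfold ampA
      have e1 : -(g * (((0 : ℚ) : ℝ))) = 0 := by
        rw [Rat.cast_zero]; ring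
      simp only [e1, Real.rpow_zero, mul_one]
      have h1 : 1 ≤ B.d n ^ (-ε) := by
        have := dpow_le B n (a := -ε) (b := 0) (by linarith)
        rwa [Real.rpow_zero] at this
      nlinarith [hA n]
  set cc : ℝ → ℝ := fun v => g * v with hcc
  set t : ℕ → ℝ := fun n => B.d n ^ (-ε) * ampA B A cc n v with ht
  have htp : ∀ n, 0 < t n := fun n => mul_pos (dpow_pos B n _) (ampA_pos hA cc n v)
  have hex := fun n => extractC (T n) (VV T Ψ lev atop n (lev n v)) (VV_pos n (lev n v)) (N n)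
    (lev n v) (hfin n (lev n v)) (L n) (I n) (htp n)
  choose A0 hA0 A1 hA1 f b a h1 h2 h3 h4 h5 using hex
  refine ⟨A0, ?_, ?_⟩
  swap
  · exact Eventually.of_forall fun n Q hQ hQA J s hs => h5 n Q hQ hQA J s hs
  -- `A0` is negligible
  have hA0ev : ∀ᶠ n in (U : Filter ℕ), A0 n ⊆ I n := Eventually.of_forall hA0
  by_cases hd : Dense B A0 I
  swap
  · obtain ⟨γ, hγ, h6⟩ := small_of_not_dense hA0ev hd
    refine ⟨γ, hγ, ?_⟩
    filter_upwards [h6] with n hn
    refine le_trans ?_ hn.le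
    refine Nat.cast_le.2 (card_le_card ?_)
    intro x hx
    simp only [mem_filter] at hx
    exact hx.2
  exfalso
  have hd1 : Dense B A1 A0 := by
    refine dense_of_small (Eventually.of_forall hA1) fun η hη => ?_
    filter_upwards [boxN_small hNd (Fintype.card ι) hη] with n hn
    exact (h1 n).trans (mul_le_mul_of_nonneg_right hn (Nat.cast_nonneg _))
  have hd2 : Dense B A1 I := hd1.trans hd
  have hne := hd2.nonempty h.ne
  set Φ : ℕ → ℝ := fun n =>
    (2 : ℝ) ^ (-(Ψ ((lev n 1 : ℝ) - lev n v) (rel (lev n v) (a n) (lev n 1) (atop n)))) with hΦ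
  have hΦp : ∀ n, 0 < Φ n := fun n => Real.rpow_pos_of_pos two_pos _
  obtain ⟨e0, he0, hlow⟩ := low_seqF h 𝒯 Ψ hUB hT hfin hNd (u := 0) (v := v) le_rfl hvpos hv1
    (A := A1) (fun n => (hA1 n).trans (hA0 n)) (Eventually.of_forall h2) (f := f) (b := b) (a := a)
    (Eventually.of_forall h3) (D1 := fun n => t n * Φ n)
    (fun n => mul_pos (htp n) (hΦp n))
    (Eventually.of_forall fun n x hx => by
      refine le_trans (le_of_eq ?_) (h4 n x hx)
      simp only [VV, capP, hΦ]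
      ring) (η := ε) hε
    (D0 := fun n => A n * Φ n) (by
      refine Eventually.of_forall fun n => ?_
      have e1 : B.d n ^ (ε + g * ((v : ℝ) - ((0 : ℚ) : ℝ))) *
          (t n * Φ n) = A n * Φ n := by
        simp only [ht, hcc, ampA]
        rw [Rat.cast_zero]
        have e2 : B.d n ^ (ε + g * ((v : ℝ) - 0)) *
            (B.d n ^ (-ε) * (A n * B.d n ^ (-(g * (v : ℝ)))) * Φ n) =
            A n * Φ n * (B.d n ^ (ε + g * ((v : ℝ) - 0)) * B.d n ^ (-ε) *
              B.d n ^ (-(g * (v : ℝ)))) := by ring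
        rw [e2, ← dpow_add, ← dpow_add]
        have e3 : ε + g * ((v : ℝ) - 0) + -ε + -(g * (v : ℝ)) = 0 := by
          ring
        rw [e3, Real.rpow_zero, mul_one]
      simp only [e1]
      exact le_rfl)
  obtain ⟨n, hn1, hn2, hn3, hn4, hn5⟩ := (hlow.and ((hd2.2 e0 he0).and (h0.and
    ((h.lev_mono 0 v le_rfl hv0 hv1).and (h.lev_mono v 1 hv0 hv1 le_rfl))))).exists
  obtain ⟨c, s, hs1, hs4⟩ := hn1 (A1 n) (Subset.refl _) hn2
  have h6 := hn3 c s hs1
  have h7 : (((alive (A1 n) (lev n 0) c).filter fun t => (T n).mem (lev n 0) c s (L n t)).card : ℝ) ≤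
      (((alive (I n) (lev n 0) c).filter fun t => (T n).mem (lev n 0) c s (L n t)).card : ℝ) := by
    exact_mod_cast card_le_card (filter_subset_filter _
      (alive_mono ((hA1 n).trans (hA0 n)) _ _))
  have h8 := capP_sup (T n) hΨ hn4 hn5 s.1 (a n) (atop n)
  have h9 := mul_le_mul_of_nonneg_left h8 (hA n).le
  have h10 : A n * VV T Ψ lev atop n (lev n 0) s.1 = A n * capP (T n) Ψ (lev n 1) (atop n)
    (lev n 0) s.1 := rfl
  have h11 : A n * Φ n * capP (T n) Ψ (lev n v) (a n) (lev n 0) s.1 =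
      A n * ((2 : ℝ) ^ (-(Ψ ((lev n 1 : ℝ) - lev n v) (rel (lev n v) (a n) (lev n 1) (atop n)))) *
        capP (T n) Ψ (lev n v) (a n) (lev n 0) s.1) := by
    simp only [hΦ]; ring
  linarith

open Classical in
/-- **(UP)**: a dense part has D-max at all levels. -/
theorem exists_dmxF [Nonempty S] (h : Sq B I lev Zf) (𝒯 : Set (TS Ln ι S)) (hΨ : SupA Ψ) {g : ℝ}
    (hUB : UBF 𝒯 Ψ g) (hT : ∀ n, T n ∈ 𝒯)
    (hfin : ∀ (n i : ℕ) (J : ℤ) (s : (ι → ℕ) × S), (T n).adm i J s → ∀ j, s.1 j ≤ N n)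
    (hNd : ∀ ε : ℝ, 0 < ε → ∀ᶠ n in (U : Filter ℕ), (N n : ℝ) ≤ B.d n ^ (-ε))
    (hA : ∀ n, 0 < A n)
    (h0 : ∀ᶠ n in (U : Filter ℕ), ∀ (J0 : ℤ) (s : (ι → ℕ) × S), (T n).adm (lev n 0) J0 s →
      (((alive (I n) (lev n 0) J0).filter fun t => (T n).mem (lev n 0) J0 s (L n t)).card : ℝ) ≤
        A n * VV T Ψ lev atop n (lev n 0) s.1) :
    ∃ J : ℕ → Finset (ℕ × ℝ), (∀ n, J n ⊆ I n) ∧ Dense B J I ∧
      Dmx B J T L lev A (fun v => g * v) (VV T Ψ lev atop) := by
  have hex : ∀ j : ℕ, ∃ E : ℕ → Finset (ℕ × ℝ), Negl B I (fun n x => x ∈ E n) ∧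
      (0 ≤ (Denumerable.ofNat (ℚ × ℕ) j).1 → (Denumerable.ofNat (ℚ × ℕ) j).1 ≤ 1 →
      ∀ᶠ n in (U : Filter ℕ), ∀ Q ⊆ I n, (∀ x ∈ Q, x ∉ E n) → ∀ (J : ℤ) (s : (ι → ℕ) × S),
        (T n).adm (lev n (Denumerable.ofNat (ℚ × ℕ) j).1) J s →
          (((alive Q (lev n (Denumerable.ofNat (ℚ × ℕ) j).1) J).filter fun t =>
            (T n).mem (lev n (Denumerable.ofNat (ℚ × ℕ) j).1) J s (L n t)).card : ℝ) ≤
            B.d n ^ (-(1 / (((Denumerable.ofNat (ℚ × ℕ) j).2 : ℝ) + 1))) *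
              ampA B A (fun v => g * v) n (Denumerable.ofNat (ℚ × ℕ) j).1 *
              VV T Ψ lev atop n (lev n (Denumerable.ofNat (ℚ × ℕ) j).1) s.1) := by
    intro j
    by_cases h1 : 0 ≤ (Denumerable.ofNat (ℚ × ℕ) j).1 ∧ (Denumerable.ofNat (ℚ × ℕ) j).1 ≤ 1
    · obtain ⟨E, hE1, hE2⟩ := up_oneF h 𝒯 hΨ hUB hT hfin hNd hA h0 h1.1 h1.2
        (ε := 1 / (((Denumerable.ofNat (ℚ × ℕ) j).2 : ℝ) + 1)) (by positivity)
      exact ⟨E, hE1, fun _ _ => hE2⟩
    · refine ⟨fun _ => ∅, ⟨1, one_pos, Eventually.of_forall fun n => ?_⟩, fun h2 h3 =>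
        absurd ⟨h2, h3⟩ h1⟩
      simp only [notMem_empty, filter_false, card_empty, Nat.cast_zero]
      exact mul_nonneg (dpow_pos B n _).le (Nat.cast_nonneg _)
  choose E hE1 hE2 using hex
  obtain ⟨J, hJI, hJd, hJ⟩ := exists_avoid (B := B) (I := I) (fun j n x => x ∈ E j n) hE1
  refine ⟨J, hJI, hJd, ?_⟩
  intro v hv0 hv1 ε hε
  obtain ⟨k, hk⟩ := exists_nat_one_div_lt hε
  obtain ⟨j, hj⟩ : ∃ j, Denumerable.ofNat (ℚ × ℕ) j = (v, k) :=
    ⟨@Encodable.encode (ℚ × ℕ) Denumerable.toEncodable (v, k), Denumerable.ofNat_encode _⟩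
  have h1 := hE2 j (by rw [hj]; exact hv0) (by rw [hj]; exact hv1)
  rw [hj] at h1
  filter_upwards [h1, hJ j] with n h2 h3 J0 s hs
  refine (h2 (J n) (hJI n) (fun x hx => h3 x hx) J0 s hs).trans ?_
  refine mul_le_mul_of_nonneg_right ?_ (VV_pos _ _ _).le
  refine mul_le_mul_of_nonneg_right (dpow_le B n ?_) (ampA_pos hA _ n v).le
  have h4 : (((v, k) : ℚ × ℕ).2 : ℝ) = (k : ℝ) := rfl
  linarith

end

set_option maxHeartbeats 1000000 in
open Classical in
/-- **the initial sequence.** -/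
theorem exists_initF {𝒯 : Set (TS Ln ι S)} {Ψ : ℝ → (ι → ℝ) → ℝ} {g : ℝ}
    (hΨ0 : Ψ 0 (fun _ => 0) = 0) (hlow : ∀ b < g, ¬ UBF 𝒯 Ψ b) (hUB : UBF 𝒯 Ψ g) :
    ∃ (B : Base) (I : ℕ → Finset (ℕ × ℝ)) (T : ℕ → TS Ln ι S) (L : ℕ → ℕ → Ln)
      (lev : ℕ → ℚ → ℕ) (A : ℕ → ℝ) (f : ℕ → ℕ → ℤ → ℕ) (b : ℕ → ℕ → (ι → ℕ) × S)
      (atop : ℕ → ι → ℕ) (N : ℕ → ℕ),
      Nonempty S ∧ (∀ n, T n ∈ 𝒯) ∧
      (∀ (n i : ℕ) (J : ℤ) (s : (ι → ℕ) × S), (T n).adm i J s → ∀ j, s.1 j ≤ N n) ∧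
      (∀ ε : ℝ, 0 < ε → ∀ᶠ n in (U : Filter ℕ), (N n : ℝ) ≤ B.d n ^ (-ε)) ∧
      (∀ n, 0 < A n) ∧ Sq B I lev Zf ∧
      (∀ᶠ n in (U : Filter ℕ), ∀ (J0 : ℤ) (s : (ι → ℕ) × S), (T n).adm (lev n 0) J0 s →
        (((alive (I n) (lev n 0) J0).filter fun t => (T n).mem (lev n 0) J0 s (L n t)).card : ℝ) ≤
          A n * VV T Ψ lev atop n (lev n 0) s.1) ∧
      Mrk B I T L lev A (fun v => g * v) (VV T Ψ lev atop) 1 f b atop := by
  -- the configurations
  obtain ⟨δs, hδs, Ms, hMs⟩ := hUB 1 one_pos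
  have hex : ∀ n : ℕ, ∃ T ∈ 𝒯, ∃ F : Cfg Ln ι S, F.Ok T Ψ ∧ n ≤ F.M ∧
      Real.log (F.I.card : ℝ) ≤ (2 : ℝ) ^ (1 / ((n : ℝ) + 1) * F.M) ∧
      (F.N : ℝ) ≤ (2 : ℝ) ^ (1 / ((n : ℝ) + 1) * F.M) ∧ 0 < F.D0 ∧
      (2 : ℝ) ^ ((g - 1 / ((n : ℝ) + 1)) * F.M) * F.D0 ≤ F.D1 ∧
      (2 : ℝ) ^ ((1 - 1 / ((n : ℝ) + 1)) * F.M) ≤ F.nu ∧
      ∀ x ∈ F.I, ∀ y ∈ F.I, x.1 = y.1 → zc (F.m + F.M) x.2 = zc (F.m + F.M) y.2 → x = y := by
    intro n
    have hp : (0 : ℝ) < 1 / ((n : ℝ) + 1) := by positivity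
    have h1 := hlow (g - 1 / ((n : ℝ) + 1)) (by linarith)
    unfold UBF at h1
    push Not at h1
    obtain ⟨η, hη, h2⟩ := h1
    obtain ⟨T, hT, F, hF, hM, hc, hN, hnu, hlt⟩ := h2 (min (1 / ((n : ℝ) + 1)) δs) (lt_min hp hδs)
      (max n Ms)
    obtain ⟨F', hF', e1, e2, e3, e4, e5, e6, e7, e8⟩ := rep_ok hF
    have hMp : (0 : ℝ) ≤ (F.M : ℝ) := Nat.cast_nonneg _
    have hle1 : (2 : ℝ) ^ (min (1 / ((n : ℝ) + 1)) δs * F.M) ≤ (2 : ℝ) ^ (1 / ((n : ℝ) + 1) * F.M) :=
      Real.rpow_le_rpow_of_exponent_le (by norm_num)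
        (mul_le_mul_of_nonneg_right (min_le_left _ _) hMp)
    have hle2 : (2 : ℝ) ^ (min (1 / ((n : ℝ) + 1)) δs * F.M) ≤ (2 : ℝ) ^ (δs * F.M) :=
      Real.rpow_le_rpow_of_exponent_le (by norm_num)
        (mul_le_mul_of_nonneg_right (min_le_right _ _) hMp)
    have hnu1 : (2 : ℝ) ^ ((1 - 1 / ((n : ℝ) + 1)) * F.M) ≤ F.nu := by
      refine le_trans (Real.rpow_le_rpow_of_exponent_le (by norm_num)
        (mul_le_mul_of_nonneg_right ?_ hMp)) hnu
      linarith [min_le_left (1 / ((n : ℝ) + 1)) δs]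
    have hnu2 : (2 : ℝ) ^ ((1 - δs) * F.M) ≤ F.nu := by
      refine le_trans (Real.rpow_le_rpow_of_exponent_le (by norm_num)
        (mul_le_mul_of_nonneg_right ?_ hMp)) hnu
      linarith [min_le_right (1 / ((n : ℝ) + 1)) δs]
    have hD0 : 0 < F.D0 := by
      have h3 := hMs T hT F hF ((le_max_right _ _).trans hM) (hc.trans hle2) (hN.trans hle2) hnu2
      have h4 : 0 < F.D1 := hF.D1p
      by_contra hneg
      push Not at hneg
      have h5 : (2 : ℝ) ^ ((g + 1) * F.M) * F.D0 ≤ 0 :=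
        mul_nonpos_of_nonneg_of_nonpos (by positivity) hneg
      linarith
    refine ⟨T, hT, F', hF', by rw [e2]; exact (le_max_left _ _).trans hM, ?_, ?_, by rw [e4]; exact hD0,
      ?_, by rw [e2, e6]; exact hnu1, by rw [e1, e2]; exact e8⟩
    · rw [e2]
      refine le_trans (Real.log_le_log ?_ ?_) (hc.trans hle1)
      · exact_mod_cast card_pos.2 hF'.ne
      · exact_mod_cast card_le_card e7
    · rw [e2, e3]; exact hN.trans hle1
    · rw [e2, e4, e5]
      refine le_trans ?_ hlt.le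
      refine mul_le_mul_of_nonneg_right ?_ hD0.le
      refine Real.rpow_le_rpow_of_exponent_le (by norm_num) ?_
      nlinarith
  choose T hT F hF hM hc hN hD0 hgap hnul hone using hex
  have hM1 : ∀ n, 1 ≤ (F n).M := fun n => (hF n).M1
  have hlog2 : 0 < Real.log 2 := Real.log_pos (by norm_num)
  -- the base
  set B : Base :=
    { d := fun n => (1 / 2 : ℝ) ^ (F n).M
      pos := fun n => by positivity
      lt := fun n => pow_lt_one₀ (by norm_num) (by norm_num) (by have := hM1 n; omega)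
      lim0 := by
        have h1 : Tendsto (fun n : ℕ => (1 / 2 : ℝ) ^ n) U (𝓝 0) :=
          (tendsto_pow_atTop_nhds_zero_of_lt_one (by norm_num) (by norm_num)).mono_left U_le_atTop
        refine squeeze_zero (fun n => by positivity) (fun n => ?_) h1
        exact pow_le_pow_of_le_one (by norm_num) (by norm_num) (hM n) } with hB
  have hBL : ∀ n, B.L n = (F n).M * Real.log 2 := by
    intro n
    have : B.L n = - Real.log ((1 / 2 : ℝ) ^ (F n).M) := rfl
    rw [this, Real.log_pow, one_div, Real.log_inv]; ring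
  have hMpos : ∀ n, (0 : ℝ) < ((F n).M : ℝ) := fun n => by exact_mod_cast hM1 n
  have hdp : ∀ n (e : ℝ), B.d n ^ (-e) = (2 : ℝ) ^ (e * (F n).M) := by
    intro n e
    apply le_antisymm
    · refine le_two_rpow ?_
      rw [hBL]
      rw [show e * ((F n).M : ℝ) * Real.log 2 / (((F n).M : ℝ) * Real.log 2) = e by
        field_simp [(hMpos n).ne']]
    · refine two_rpow_le ?_
      rw [hBL]
      rw [show e * ((F n).M : ℝ) * Real.log 2 / (((F n).M : ℝ) * Real.log 2) = e by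
        field_simp [(hMpos n).ne']]
  have hMlim : Tendsto (fun n => ((F n).M : ℝ)) U atTop := by
    refine tendsto_atTop_mono (fun n => (by exact_mod_cast hM n : (n : ℝ) ≤ (F n).M)) ?_
    exact tendsto_natCast_atTop_atTop.mono_left U_le_atTop
  -- `1/(n+1)` is eventually small
  have hsm : ∀ ε : ℝ, 0 < ε → ∀ᶠ n : ℕ in (U : Filter ℕ), 1 / ((n : ℝ) + 1) ≤ ε := by
    intro ε hε
    have h1 : Tendsto (fun n : ℕ => 1 / ((n : ℝ) + 1)) U (𝓝 0) :=
      tendsto_one_div_add_atTop_nhds_zero_nat.mono_left U_le_atTop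
    filter_upwards [h1.eventually_lt_const hε] with n hn using hn.le
  set lev : ℕ → ℚ → ℕ := fun n v => (F n).m + ⌊(v : ℝ) * (F n).M⌋₊ with hlev
  have hlev0 : ∀ n, lev n 0 = (F n).m := by
    intro n; simp [hlev]
  have hlev1 : ∀ n, lev n 1 = (F n).m + (F n).M := by
    intro n; simp [hlev]
  have hlm : ∀ u v : ℚ, 0 ≤ u → u ≤ v → v ≤ 1 → ∀ᶠ n in (U : Filter ℕ), lev n u ≤ lev n v := by
    intro u v hu huv hv
    refine Eventually.of_forall fun n => ?_
    refine Nat.add_le_add_left (Nat.floor_mono ?_) _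
    exact mul_le_mul_of_nonneg_right (by exact_mod_cast huv) (hMpos n).le
  have hll : ∀ u v : ℚ, 0 ≤ u → u ≤ v → v ≤ 1 →
      Tendsto (fun n => ((lev n v : ℝ) - lev n u) * Real.log 2 / B.L n) U (𝓝 ((v : ℝ) - u)) := by
    intro u v hu huv hv
    have h0u : (0 : ℝ) ≤ u := by exact_mod_cast hu
    have h0v : (0 : ℝ) ≤ v := by exact_mod_cast hu.trans huv
    have h1 : Tendsto (fun n => 1 / ((F n).M : ℝ)) U (𝓝 0) := by
      have h2 := tendsto_inv_atTop_zero.comp hMlim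
      refine h2.congr fun n => ?_
      simp only [Function.comp, one_div]
    rw [tendsto_iff_dist_tendsto_zero]
    refine squeeze_zero (fun n => dist_nonneg) (fun n => ?_) h1
    have hm := hMpos n
    have e1 : ((lev n v : ℝ) - lev n u) * Real.log 2 / B.L n =
        ((⌊(v : ℝ) * (F n).M⌋₊ : ℝ) - ⌊(u : ℝ) * (F n).M⌋₊) / (F n).M := by
      rw [hBL]
      simp only [hlev]
      push_cast
      field_simp
      ring
    rw [e1, Real.dist_eq]
    have a1 := Nat.floor_le (mul_nonneg h0v hm.le)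
    have a2 := Nat.lt_floor_add_one ((v : ℝ) * (F n).M)
    have a3 := Nat.floor_le (mul_nonneg h0u hm.le)
    have a4 := Nat.lt_floor_add_one ((u : ℝ) * (F n).M)
    have e2 : ((⌊(v : ℝ) * (F n).M⌋₊ : ℝ) - ⌊(u : ℝ) * (F n).M⌋₊) / (F n).M - ((v : ℝ) - u) =
        (((⌊(v : ℝ) * (F n).M⌋₊ : ℝ) - (v : ℝ) * (F n).M) -
          ((⌊(u : ℝ) * (F n).M⌋₊ : ℝ) - (u : ℝ) * (F n).M)) / (F n).M := by
      field_simp
      ring
    rw [e2, abs_div, abs_of_pos hm]
    refine div_le_div_of_nonneg_right ?_ hm.le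
    rw [abs_le]
    constructor <;> linarith
  have hcard : ∀ ε : ℝ, 0 < ε → ∀ᶠ n in (U : Filter ℕ),
      Real.log (((F n).I).card : ℝ) ≤ B.d n ^ (-ε) := by
    intro ε hε
    filter_upwards [hsm ε hε] with n hn
    refine (hc n).trans ?_
    rw [← hdp n (1 / ((n : ℝ) + 1))]
    exact dpow_le B n (by linarith)
  obtain ⟨I2, Λ, hI2, hI2d, hSq, hfe⟩ := exists_profile (B := B) (I1 := fun n => (F n).I)
    (lev := lev) (Eventually.of_forall fun n => (hF n).ne) hcard hlm hll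
    (Eventually.of_forall fun n x hx y hy => by rw [hlev0]; exact (hF n).cell x hx y hy)
    (Eventually.of_forall fun n x hx y hy h1 h2 => by
      rw [hlev1] at h2; exact hone n x hx y hy h1 h2)
    (fun j n => if j = 0 then kc (lev n 1) (F n).f else lc (lev n 0))
  -- full own counts: `Λ 1 = 0`
  have hL1 : Λ 1 ≤ 0 := by
    refine le_of_forall_pos_le_add fun ε hε => ?_
    set e1 : ℝ := ε / 4 with he1
    have he0 : 0 < e1 := by positivity
    obtain ⟨n, h2, h3, h4, h5⟩ := ((hfe 1 e1 he0).and ((hSq.fib 0 le_rfl zero_le_one e1 he0).and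
      ((hsm e1 he0).and hSq.ne))).exists
    obtain ⟨x, hx⟩ := h5
    have hxI := hI2 n hx
    have h2x := h2 x hx
    have h3x := (h3 x hx).2
    simp only [one_ne_zero, if_false] at h2x
    have q1 := (hF n).own x hxI
    have q2 := own_one (I := (F n).I) (i := (F n).m) (j := (F n).m + (F n).M)
      (fun y hy z hz a1 a2 => hone n y hy z hz a1 a2) x
    rw [q2, ← hlev0 n] at q1
    have q3 := (mul_le_mul_of_nonneg_left q1 (dpow_pos B n e1).le).trans (h2x.trans h3x)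
    rw [Rat.cast_zero, hSq.lam0] at q3
    have q4 : (F n).nu ≤ B.d n ^ (-e1) * B.d n ^ (-(1 - (0 : ℝ)) + (Λ 1 - 0) - e1) := by
      have q5 := mul_le_mul_of_nonneg_left q3 (dpow_pos B n (-e1)).le
      rw [← mul_assoc, ← dpow_add, neg_add_cancel, Real.rpow_zero, one_mul] at q5
      exact q5
    rw [← dpow_add] at q4
    have q6 := hnul n
    rw [← hdp n] at q6
    have q7 := q6.trans q4
    have q8 : -e1 + (-(1 - (0 : ℝ)) + (Λ 1 - 0) - e1) ≤ -(1 - 1 / ((n : ℝ) + 1)) := by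
      by_contra hcon
      push Not at hcon
      have := Real.rpow_lt_rpow_of_exponent_gt (B.pos n) (B.lt n) hcon
      linarith
    linarith
  have hL0 : ∀ v : ℝ, 0 ≤ v → v ≤ 1 → Λ v = 0 := by
    intro v h0 h1
    have a1 := (hSq.lam 0 v le_rfl h0 h1).1
    have a2 := (hSq.lam v 1 h0 h1 le_rfl).1
    rw [hSq.lam0] at a1
    linarith
  have hSq' : Sq B I2 lev Zf :=
    { ne := hSq.ne
      card := hSq.card
      lam0 := rfl
      lam := fun u v _ huv _ => by
        simp only [Zf, sub_zero]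
        exact ⟨le_rfl, by linarith⟩
      lev_mono := hSq.lev_mono
      lev_lim := hSq.lev_lim
      cell0 := hSq.cell0
      one := hSq.one
      fib := fun v h0 h1 ε hε => by
        have z1 : Λ 1 - Λ (v : ℝ) = Zf 1 - Zf (v : ℝ) := by
          rw [hL0 1 zero_le_one le_rfl, hL0 v (by exact_mod_cast h0) (by exact_mod_cast h1)]
          simp [Zf]
        have := hSq.fib v h0 h1 ε hε
        rw [z1] at this
        exact this }
  refine ⟨B, I2, T, fun n => (F n).L, lev, fun n => (F n).D0, fun n => (F n).f,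
    fun n => (F n).b, fun n => (F n).a, fun n => (F n).N, ⟨((F 0).b 0).2⟩, hT,
    fun n i J s hs => (hF n).fin i J s hs, ?_, hD0, hSq', ?_, ?_⟩
  · intro ε hε
    filter_upwards [hsm ε hε] with n hn
    refine (hN n).trans ?_
    rw [← hdp n (1 / ((n : ℝ) + 1))]
    exact dpow_le B n (by linarith)
  · refine Eventually.of_forall fun n J0 s hs => ?_
    rw [hlev0] at hs ⊢
    have h1 := (hF n).up J0 s hs
    refine le_trans (by exact_mod_cast card_le_card (filter_subset_filter _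
      (alive_mono (hI2 n) _ _))) (h1.trans (le_of_eq ?_))
    unfold VV
    rw [hlev1]
  · refine { mark := ?_, near := ?_ }
    · refine Eventually.of_forall fun n x hx => ?_
      rw [hlev1]
      exact (hF n).top _ x.1 (mem_alive.2 ⟨x, hI2 n hx, rfl, rfl⟩)
    · intro ε hε
      set e1 : ℝ := ε / 2 with he1
      have he0 : 0 < e1 := by positivity
      filter_upwards [hfe 0 e1 he0, hsm e1 he0] with n h1 h4 x hx
      have hxI := hI2 n hx
      have h1x := h1 x hx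
      simp only [if_true] at h1x
      -- classes
      have hlo1 : ∀ y ∈ (F n).I, (1 : ℝ) ≤ ((((F n).I).filter fun z =>
          lc (lev n 1) z = lc (lev n 1) y).card : ℝ) := by
        intro y hy
        have : 0 < (((F n).I).filter fun z => lc (lev n 1) z = lc (lev n 1) y).card :=
          card_pos.2 ⟨y, mem_filter.2 ⟨hy, rfl⟩⟩
        exact_mod_cast this
      have hhi1 : ∀ y ∈ I2 n, (((I2 n).filter fun z =>
          lc (lev n 1) z = lc (lev n 1) y).card : ℝ) ≤ 1 := by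
        intro y hy
        have : ((I2 n).filter fun z => lc (lev n 1) z = lc (lev n 1) y).card ≤ 1 := by
          rw [card_le_one]
          intro z hz z' hz'
          rw [mem_filter] at hz hz'
          obtain ⟨a1, a2⟩ := Prod.mk.inj (hz.2.trans hz'.2.symm)
          rw [hlev1] at a2
          exact hone n z (hI2 n hz.1) z' (hI2 n hz'.1) a1 a2
        exact_mod_cast this
      have p1 := class_fib_ge (f := (F n).f) hlo1 x
      have p2 := class_fib_le (f := (F n).f) hhi1 x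
      rw [one_mul] at p1 p2
      have p3 : (F n).D1 * (T n).vol (lev n 1) (F n).a ≤
          (((alive (F n).I (lev n 1) (zc (lev n 1) x.2)).filter fun s =>
            (F n).f s (zc (lev n 1) x.2) = (F n).f x.1 (zc (lev n 1) x.2)).card : ℝ) := by
        rw [hlev1]
        exact (hF n).low _ x.1 (mem_alive.2 ⟨x, hxI, rfl, rfl⟩)
      set NC : ℝ := (((alive (I2 n) (lev n 1) (zc (lev n 1) x.2)).filter fun s =>
        (F n).f s (zc (lev n 1) x.2) = (F n).f x.1 (zc (lev n 1) x.2)).card : ℝ) with hNC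
      have p4 : B.d n ^ e1 * ((F n).D1 * (T n).vol (lev n 1) (F n).a) ≤ NC := by
        refine le_trans ?_ (h1x.trans p2)
        exact mul_le_mul_of_nonneg_left (p3.trans p1) (dpow_pos B n _).le
      -- the gap
      have p9 : B.d n ^ (-g) * (F n).D0 ≤ B.d n ^ (-e1) * (F n).D1 := by
        have q1 := hgap n
        rw [← hdp n] at q1
        have q2 := mul_le_mul_of_nonneg_left q1 (dpow_pos B n (-e1)).le
        refine le_trans ?_ q2
        rw [← mul_assoc, ← dpow_add]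
        exact mul_le_mul_of_nonneg_right (dpow_le B n (by linarith)) (hD0 n).le
      -- conclusion
      have hvol := (T n).volpos (lev n 1) (F n).a
      have e6 : ampA B (fun n => (F n).D0) (fun v => g * v) n 1 *
          VV T Ψ lev (fun n => (F n).a) n (lev n 1) (F n).a =
          (B.d n ^ (-g) * (F n).D0) * (T n).vol (lev n 1) (F n).a := by
        unfold ampA VV capP
        have e7 : rel (lev n 1) (F n).a (lev n 1) (F n).a = fun _ => (0 : ℝ) := by
          funext j; simp [rel]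
        rw [e7, sub_self, hΨ0, neg_zero, Real.rpow_zero, mul_one, Rat.cast_one]
        simp only [mul_one]
        ring
      rw [e6]
      have q5 := mul_le_mul_of_nonneg_right p9 hvol.le
      refine q5.trans ?_
      have q6 := mul_le_mul_of_nonneg_left p4 (dpow_pos B n (-(2 * e1))).le
      have q7 : B.d n ^ (-(2 * e1)) * (B.d n ^ e1 * ((F n).D1 * (T n).vol (lev n 1) (F n).a)) =
          B.d n ^ (-e1) * (F n).D1 * (T n).vol (lev n 1) (F n).a := by
        rw [← mul_assoc, ← dpow_add, ← mul_assoc]; congr 3; ring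
      rw [q7] at q6
      refine q6.trans (le_of_eq ?_)
      congr 2
      rw [he1]; ring

end Crest.Agent.R136.Yc953
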