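import Mathlib
import Crest.Agent.R136.Yc2_953

/-!
# R136 U4, pure penalty: X1-C chain with FULL own counts, part 3 (helper953)

Port of helper794's `R116/Xc7, Xc8`: `step_finF`, `step_eqF`, `step_upF`.
-/

set_option autoImplicit false
set_option linter.unusedSectionVars false

open Finset Filter Topology

namespace Crest.Agent.R136.Yc953

open Crest.Agent.R138.Ex926 Crest.Agent.R138.Dp76 Crest.Agent.R138.Ps627
open Crest.Agent.R138.Ps926
open Crest.Agent.R138.Mk163 (zc zl rho alive own Negl)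
open Crest.Agent.R138.MkRef627 (lc kc own_one alive_mono mem_alive card_class own_lower exists_num)
open Crest.Agent.R138.MkZoom779 (zc_nested zc_eq exists_rep)
open Crest.Agent.R136.MkA627 (ampA Geo MkA)
open Crest.Agent.R116.Xa794 (TS)
open Crest.Agent.R116.Xa2794 (lc_nested class_fib_ge class_fib_le)
open Crest.Agent.R116.Xa3794
open Crest.Agent.R116.Xc794 Crest.Agent.R116.Xc1794
open Crest.Agent.R116.Xc3794 Crest.Agent.R116.Xc4794 Crest.Agent.R116.Xc5794
open Crest.Agent.R116.Xc7794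
open Crest.Agent.R116.Xc8794 (exists_rate diag_marks)

variable {Ln ι S : Type} [Fintype ι]

section

variable {𝒯 : Set (TS Ln ι S)} {B : Base} {I : ℕ → Finset (ℕ × ℝ)} {lev : ℕ → ℚ → ℕ}
  {T : ℕ → TS Ln ι S} {L : ℕ → ℕ → Ln} {A : ℕ → ℝ} {g : ℝ}
  {Ψ Ψp : ℝ → (ι → ℝ) → ℝ} {atop : ℕ → ι → ℕ} {N : ℕ → ℕ}

set_option maxHeartbeats 1000000 in
open Classical in
/-- **one step, finite stage.** -/
theorem step_finF [Nonempty S] (h : Cx 𝒯 B I T L lev A Zf g Ψ atop N) (hH : HomA Ψ) (hHp : HomA Ψp)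
    {bb : ℝ} (hUB : UBF 𝒯 Ψp bb) {u v : ℚ} (hu : 0 ≤ u) (huv : u < v) (hv : v ≤ 1)
    {f : ℕ → ℕ → ℤ → ℕ} {b : ℕ → ℕ → (ι → ℕ) × S} {a : ℕ → ι → ℕ}
    (hM : Mrk B I T L lev A (fun v => g * v + 2 * Zf v) (VV T Ψ lev atop) v f b a)
    {η : ℝ} (hη : 0 < η) :
    ∀ᶠ n in (U : Filter ℕ), ∃ A' ⊆ I n, ∃ (f' : ℕ → ℤ → ℕ) (b' : ℕ → (ι → ℕ) × S) (a' : ι → ℕ),
      A'.Nonempty ∧ ((I n).card : ℝ) ≤ B.d n ^ (-η) * (A'.card : ℝ) ∧
      (∀ x ∈ A', ∀ y ∈ I n, lc (lev n u) y = lc (lev n u) x → y ∈ A') ∧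
      (∀ x ∈ A', (T n).mem (lev n u) (zc (lev n u) x.2) (b' (f' x.1 (zc (lev n u) x.2))) (L n x.1) ∧
        (T n).adm (lev n u) (zc (lev n u) x.2) (b' (f' x.1 (zc (lev n u) x.2))) ∧
        (b' (f' x.1 (zc (lev n u) x.2))).1 = a') ∧
      Ψ (len B lev n u) (ys B lev atop n u a') ≤
        Ψ (len B lev n v) (ys B lev atop n v (a n)) +
          Ψp (len B lev n u - len B lev n v)
            (fun j => ys B lev atop n u a' j - ys B lev atop n v (a n) j) +
          (bb - g) * ((v : ℝ) - u) + 2 * η ∧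
      (∀ x ∈ A', B.d n ^ (η + (bb - g) * ((v : ℝ) - u) +
          Ψ (len B lev n v) (ys B lev atop n v (a n)) +
          Ψp (len B lev n u - len B lev n v)
            (fun j => ys B lev atop n u a' j - ys B lev atop n v (a n) j) -
          Ψ (len B lev n u) (ys B lev atop n u a')) *
          (ampA B A (fun v => g * v + 2 * Zf v) n u * VV T Ψ lev atop n (lev n u) a') ≤
        (((alive A' (lev n u) (zc (lev n u) x.2)).filter fun s =>
          f' s (zc (lev n u) x.2) = f' x.1 (zc (lev n u) x.2)).card : ℝ)) := by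
  set cc : ℝ → ℝ := fun v => g * v + 2 * Zf v with hcc
  set D1 : ℕ → ℝ := fun n => B.d n ^ (η / 2) * ampA B A cc n v *
    B.d n ^ (Ψ (len B lev n v) (ys B lev atop n v (a n))) with hD1
  have hD1p : ∀ n, 0 < D1 n := fun n =>
    mul_pos (mul_pos (dpow_pos B n _) (ampA_pos h.Apos cc n v)) (dpow_pos B n _)
  set D0 : ℕ → ℝ := fun n => B.d n ^ (η / 2 + bb * ((v : ℝ) - u) + 2 * (Zf v - Zf u)) * D1 n with hD0
  have hD0p : ∀ n, 0 < D0 n := fun n => mul_pos (dpow_pos B n _) (hD1p n)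
  have hu1 : u ≤ 1 := huv.le.trans hv
  have hv0 : 0 ≤ v := hu.trans huv.le
  obtain ⟨e0, he0, hlow⟩ := low_seqF h.sq 𝒯 Ψp hUB h.hT h.fin h.Nd (u := u) (v := v) hu huv hv
    (A := I) (fun n => Subset.refl _) (Eventually.of_forall fun n x _ y hy _ => hy) (f := f) (b := b)
    (a := a) hM.mark (D1 := D1) hD1p (by
      filter_upwards [hM.near (η / 2) (by positivity), h.sq.lev_mono v 1 hv0 hv le_rfl]
        with n hn hlv x hx
      have h1 := hn x hx
      rw [VV_eq hH n hlv] at h1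
      have h2 := mul_le_mul_of_nonneg_left h1 (dpow_pos B n (η / 2)).le
      rw [← mul_assoc (B.d n ^ (η / 2)) (B.d n ^ (-(η / 2))), ← dpow_add, add_neg_cancel,
        Real.rpow_zero, one_mul] at h2
      refine le_trans (le_of_eq ?_) h2
      simp only [hD1]; ring) (η := η / 2) (by positivity) (D0 := D0)
    (Eventually.of_forall fun n => by
      simp only [hD0, Zf, sub_zero, mul_zero, add_zero]
      exact le_rfl)
  filter_upwards [hlow, boxN_small h.Nd (Fintype.card ι) (show 0 < η / 2 by positivity),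
    dpow_small B (c := η / 2) (by positivity) (ε := 1 / 2) (by norm_num),
    dpow_small B (c := e0) he0 (ε := 1 / 2) (by norm_num), h.sq.ne,
    h.sq.lev_mono u v hu huv.le hv, h.sq.lev_mono v 1 hv0 hv le_rfl,
    h.sq.lev_mono u 1 hu hu1 le_rfl, h.dmx u hu hu1 η hη] with n h1 h2 h3 h4 h5 h6 h7 h8 h9
  have hIc : (0 : ℝ) < ((I n).card : ℝ) := by exact_mod_cast card_pos.2 h5
  obtain ⟨A0, hA0, A1, hA1, f', b', a', e1, e2, e3, e4, e5⟩ := extractC (T n)
    (capP (T n) Ψp (lev n v) (a n) (lev n u)) (fun s => capP_pos _ _ _ _ _ _) (N n) (lev n u)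
    (h.fin n (lev n u)) (L n) (I n) (hD0p n)
  -- the remainder is small
  have hrem : ((I n \ A0).card : ℝ) < B.d n ^ e0 * ((I n).card : ℝ) := by
    by_contra hcon
    push Not at hcon
    obtain ⟨c, s, hs, hlt⟩ := h1 (I n \ A0) sdiff_subset hcon
    have := e5 (I n \ A0) sdiff_subset (fun x hx => (mem_sdiff.1 hx).2) c s hs
    linarith
  have hA0c : ((I n).card : ℝ) ≤ 2 * (A0.card : ℝ) := by
    have h10 : ((I n \ A0).card : ℝ) = (I n).card - A0.card := by
      rw [card_sdiff_of_subset hA0, Nat.cast_sub (card_le_card hA0)]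
    rw [h10] at hrem
    nlinarith
  have h2p : (2 : ℝ) ≤ B.d n ^ (-(η / 2)) := by
    rw [Real.rpow_neg (B.pos n).le, ← one_div, le_div_iff₀ (dpow_pos B n _)]
    linarith
  have hA1c : ((I n).card : ℝ) ≤ B.d n ^ (-η) * (A1.card : ℝ) := by
    have h10 : (A0.card : ℝ) ≤ B.d n ^ (-(η / 2)) * A1.card :=
      e1.trans (mul_le_mul_of_nonneg_right h2 (Nat.cast_nonneg _))
    have h11 : B.d n ^ (-η) = B.d n ^ (-(η / 2)) * B.d n ^ (-(η / 2)) := by
      rw [← dpow_add]; congr 1; ring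
    rw [h11, mul_assoc]
    refine hA0c.trans ?_
    exact mul_le_mul h2p h10 (Nat.cast_nonneg _) (dpow_pos B n _).le
  have hA1ne : A1.Nonempty := by
    rw [← card_pos]
    by_contra hz
    have hz' : A1.card = 0 := by omega
    rw [hz', Nat.cast_zero, mul_zero] at hA1c
    linarith
  -- thresholds in powers of `d`
  set Yv : ℝ := Ψ (len B lev n v) (ys B lev atop n v (a n)) with hYv
  set Yd : ℝ := Ψp (len B lev n u - len B lev n v)
    (fun j => ys B lev atop n u a' j - ys B lev atop n v (a n) j) with hYd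
  set Yu : ℝ := Ψ (len B lev n u) (ys B lev atop n u a') with hYu
  have hvol := (T n).volpos (lev n u) a'
  have hampu := ampA_pos h.Apos cc n u (B := B)
  have key : D0 n * capP (T n) Ψp (lev n v) (a n) (lev n u) a' =
      B.d n ^ (η + (bb - g) * ((v : ℝ) - u) + Yv + Yd) *
        (ampA B A cc n u * (T n).vol (lev n u) a') := by
    unfold capP
    rw [two_neg B n, ← hom_len2 (atop := atop) hHp n h6 (a n) a', ← hYd]
    simp only [hD0, hD1, ampA, hcc]
    have e6 : B.d n ^ (η + (bb - g) * ((v : ℝ) - u) + Yv + Yd) *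
        (A n * B.d n ^ (-(g * (u : ℝ) + 2 * Zf u)) * (T n).vol (lev n u) a') =
        (B.d n ^ (η + (bb - g) * ((v : ℝ) - u) + Yv + Yd) * B.d n ^ (-(g * (u : ℝ) + 2 * Zf u))) *
        (A n * (T n).vol (lev n u) a') := by ring
    have e7 : B.d n ^ (η / 2 + bb * ((v : ℝ) - u) + 2 * (Zf v - Zf u)) *
        (B.d n ^ (η / 2) * (A n * B.d n ^ (-(g * (v : ℝ) + 2 * Zf v))) * B.d n ^ Yv) *
        ((T n).vol (lev n u) a' * B.d n ^ Yd) =
        (B.d n ^ (η / 2 + bb * ((v : ℝ) - u) + 2 * (Zf v - Zf u)) * B.d n ^ (η / 2) *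
          B.d n ^ (-(g * (v : ℝ) + 2 * Zf v)) * B.d n ^ Yv * B.d n ^ Yd) *
          (A n * (T n).vol (lev n u) a') := by ring
    rw [e6, e7, ← dpow_add, ← dpow_add, ← dpow_add, ← dpow_add, ← dpow_add]
    congr 2
    ring
  have hVV : VV T Ψ lev atop n (lev n u) a' = (T n).vol (lev n u) a' * B.d n ^ Yu :=
    VV_eq hH n h8 a'
  refine ⟨A1, hA1.trans hA0, f', b', a', hA1ne, hA1c, e2, e3, ?_, ?_⟩
  · -- the inequality
    obtain ⟨x, hx⟩ := hA1ne
    have h10 := e4 x hx
    rw [key] at h10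
    obtain ⟨m1, m2, m3⟩ := e3 x hx
    have h11 := h9 (zc (lev n u) x.2) (b' (f' x.1 (zc (lev n u) x.2))) m2
    rw [m3, hVV] at h11
    have hsub : ((alive A1 (lev n u) (zc (lev n u) x.2)).filter fun s =>
        f' s (zc (lev n u) x.2) = f' x.1 (zc (lev n u) x.2)) ⊆
        (alive (I n) (lev n u) (zc (lev n u) x.2)).filter fun t =>
          (T n).mem (lev n u) (zc (lev n u) x.2) (b' (f' x.1 (zc (lev n u) x.2))) (L n t) := by
      intro t ht
      rw [mem_filter, mem_alive] at ht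
      obtain ⟨⟨y, hy, hy1, hy2⟩, ht2⟩ := ht
      have hym := (e3 y hy).1
      rw [hy1, hy2, ht2] at hym
      rw [mem_filter, mem_alive]
      exact ⟨⟨y, hA0 (hA1 hy), hy1, hy2⟩, hym⟩
    have h12 : (((alive A1 (lev n u) (zc (lev n u) x.2)).filter fun s =>
        f' s (zc (lev n u) x.2) = f' x.1 (zc (lev n u) x.2)).card : ℝ) ≤
        (((alive (I n) (lev n u) (zc (lev n u) x.2)).filter fun t =>
          (T n).mem (lev n u) (zc (lev n u) x.2) (b' (f' x.1 (zc (lev n u) x.2))) (L n t)).card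
            : ℝ) := by exact_mod_cast card_le_card hsub
    have h13 := h10.trans (h12.trans h11)
    have h14 : B.d n ^ (-η) * ampA B A cc n u * ((T n).vol (lev n u) a' * B.d n ^ Yu) =
        B.d n ^ (-η + Yu) * (ampA B A cc n u * (T n).vol (lev n u) a') := by
      rw [dpow_add]; ring
    rw [h14] at h13
    have hpos : 0 < ampA B A cc n u * (T n).vol (lev n u) a' := mul_pos hampu hvol
    have h15 := le_of_mul_le_mul_right h13 hpos
    have h16 : -η + Yu ≤ η + (bb - g) * ((v : ℝ) - u) + Yv + Yd := by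
      by_contra hcon
      push Not at hcon
      have := Real.rpow_lt_rpow_of_exponent_gt (B.pos n) (B.lt n) hcon
      linarith
    linarith
  · intro x hx
    have h10 := e4 x hx
    rw [key] at h10
    refine le_trans (le_of_eq ?_) h10
    rw [hVV]
    have h17 : B.d n ^ (η + (bb - g) * ((v : ℝ) - u) + Yv + Yd - Yu) *
        (ampA B A cc n u * ((T n).vol (lev n u) a' * B.d n ^ Yu)) =
        (B.d n ^ (η + (bb - g) * ((v : ℝ) - u) + Yv + Yd - Yu) * B.d n ^ Yu) *
        (ampA B A cc n u * (T n).vol (lev n u) a') := by ring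
    rw [h17, ← dpow_add]
    congr 2
    ring

open Classical in
/-- **equality step.** -/
theorem step_eqF [Nonempty S] (h : Cx 𝒯 B I T L lev A Zf g Ψ atop N) (hH : HomA Ψ) (hS : SupA Ψ)
    (hUB : UBF 𝒯 Ψ g) {u v : ℚ} (hu : 0 ≤ u) (huv : u < v) (hv : v ≤ 1)
    {f : ℕ → ℕ → ℤ → ℕ} {b : ℕ → ℕ → (ι → ℕ) × S} {a : ℕ → ι → ℕ}
    (hM : Mrk B I T L lev A (fun v => g * v + 2 * Zf v) (VV T Ψ lev atop) v f b a) :
    ∃ (A' : ℕ → Finset (ℕ × ℝ)) (f' : ℕ → ℕ → ℤ → ℕ) (b' : ℕ → ℕ → (ι → ℕ) × S)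
      (a' : ℕ → ι → ℕ), (∀ n, A' n ⊆ I n) ∧ Dense B A' I ∧
      (∀ᶠ n in (U : Filter ℕ), ∀ x ∈ A' n, ∀ y ∈ I n,
        lc (lev n u) y = lc (lev n u) x → y ∈ A' n) ∧
      Mrk B A' T L lev A (fun v => g * v + 2 * Zf v) (VV T Ψ lev atop) u f' b' a' ∧
      ∀ e : ℝ, 0 < e → ∀ᶠ n in (U : Filter ℕ),
        Ψ (len B lev n u) (ys B lev atop n u (a' n)) ≤
          Ψ (len B lev n v) (ys B lev atop n v (a n)) +
          Ψ (len B lev n u - len B lev n v)
            (fun j => ys B lev atop n u (a' n) j - ys B lev atop n v (a n) j) + e := by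
  refine diag_marks (fun n i s => VV_pos n i s) h.Apos (fun e n a' =>
    Ψ (len B lev n u) (ys B lev atop n u a') ≤
          Ψ (len B lev n v) (ys B lev atop n v (a n)) +
          Ψ (len B lev n u - len B lev n v)
            (fun j => ys B lev atop n u a' j - ys B lev atop n v (a n) j) + e)
    (fun e e' n a he hr => by linarith) ?_
  intro e he
  filter_upwards [step_finF h hH hH hUB hu huv hv hM (η := e / 2) (by positivity),
    h.sq.lev_mono u v hu huv.le hv, h.sq.lev_mono v 1 (hu.trans huv.le) hv le_rfl]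
    with n hn h1 h2
  obtain ⟨A', hA', f', b', a', -, e1, e2, e3, e4, e5⟩ := hn
  refine ⟨A', hA', f', b', a', ?_, e2, e3, by linarith, ?_⟩
  · refine e1.trans (mul_le_mul_of_nonneg_right ?_ (Nat.cast_nonneg _))
    exact dpow_le B n (by linarith)
  · intro x hx
    refine le_trans ?_ (e5 x hx)
    refine mul_le_mul_of_nonneg_right (dpow_le B n ?_)
      (mul_pos (ampA_pos h.Apos _ n u) (VV_pos _ _ _)).le
    have h1' : (0 : ℝ) ≤ (lev n v : ℝ) - lev n u := by
      have : (lev n u : ℝ) ≤ lev n v := by exact_mod_cast h1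
      linarith
    have h2' : (0 : ℝ) ≤ (lev n 1 : ℝ) - lev n v := by
      have : (lev n v : ℝ) ≤ lev n 1 := by exact_mod_cast h2
      linarith
    have h3 : 0 ≤ len B lev n v := mul_nonneg (cn_pos B n).le h2'
    have h4 : 0 ≤ len B lev n u - len B lev n v := by
      have : len B lev n u - len B lev n v = cn B n * ((lev n v : ℝ) - lev n u) := by
        unfold len; ring
      rw [this]
      exact mul_nonneg (cn_pos B n).le h1'
    have h5 := hS _ _ (ys B lev atop n v (a n))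
      (fun j => ys B lev atop n u a' j - ys B lev atop n v (a n) j) h3 h4
    have h6 : len B lev n v + (len B lev n u - len B lev n v) = len B lev n u := by ring
    have h7 : (fun j => ys B lev atop n v (a n) j + (ys B lev atop n u a' j -
        ys B lev atop n v (a n) j)) = ys B lev atop n u a' := by
      funext j; ring
    rw [h6, h7] at h5
    linarith

open Classical in
/-- **UP step.** -/
theorem step_upF [Nonempty S] {P : ℝ → ℝ → (ι → ℝ) → ℝ} {ψ : ℝ → (ι → ℝ) → ℝ} {q0 Qm κ δ0 q : ℝ}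
    (hP : RwdF P ψ q0 Qm) (hch : ChsF 𝒯 P q0 Qm κ δ0 q g)
    (h : Cx 𝒯 B I T L lev A Zf g (P q) atop N) {u : ℚ} (hu : 0 ≤ u) (hu1 : u < 1)
    {f : ℕ → ℕ → ℤ → ℕ} {b : ℕ → ℕ → (ι → ℕ) × S}
    (hM : Mrk B I T L lev A (fun v => g * v + 2 * Zf v) (VV T (P q) lev atop) 1 f b atop) :
    ∃ (A' : ℕ → Finset (ℕ × ℝ)) (f' : ℕ → ℕ → ℤ → ℕ) (b' : ℕ → ℕ → (ι → ℕ) × S)
      (a' : ℕ → ι → ℕ), (∀ n, A' n ⊆ I n) ∧ Dense B A' I ∧
      (∀ᶠ n in (U : Filter ℕ), ∀ x ∈ A' n, ∀ y ∈ I n,
        lc (lev n u) y = lc (lev n u) x → y ∈ A' n) ∧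
      Mrk B A' T L lev A (fun v => g * v + 2 * Zf v) (VV T (P q) lev atop) u f' b' a' ∧
      ∀ e : ℝ, 0 < e → ∀ᶠ n in (U : Filter ℕ),
        κ * (1 - (u : ℝ)) - e ≤ ψ (len B lev n u) (ys B lev atop n u (a' n)) := by
  have hq0 : 0 ≤ q := hP.q0pos.le.trans hch.qlo
  refine diag_marks (fun n i s => VV_pos n i s) h.Apos (fun e n a' =>
    κ * (1 - (u : ℝ)) - e ≤ ψ (len B lev n u) (ys B lev atop n u a'))
    (fun e e' n a he hr => by linarith) ?_
  intro e he
  set δ : ℝ := min δ0 (e / 4) with hδ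
  have hδp : 0 < δ := lt_min hch.δ0pos (by positivity)
  have hδ0 : δ ≤ δ0 := min_le_left _ _
  have hδe : δ ≤ e / 4 := min_le_right _ _
  set η : ℝ := min (e / 4) (e * δ / 2) with hη
  have hηp : 0 < η := lt_min (by positivity) (by positivity)
  have hη1 : η ≤ e / 4 := min_le_left _ _
  have hη2 : η ≤ e * δ / 2 := min_le_right _ _
  have hHq : HomA (P q) := fun c l x hc hl => hP.hom q c l x hq0 hc hl
  have hHp : HomA (P (q + δ)) := fun c l x hc hl => hP.hom (q + δ) c l x (by linarith) hc hl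
  have hlen := (len_lim h.sq hu hu1.le).eventually_lt_const
    (show (1 : ℝ) - u < 2 by
      have : (0 : ℝ) ≤ u := by exact_mod_cast hu
      linarith)
  filter_upwards [step_finF h hHq hHp (hch.drop δ hδp hδ0) hu hu1 le_rfl hM (η := η) hηp,
    h.sq.lev_mono u 1 hu hu1.le le_rfl, hlen] with n hn h1 h2
  obtain ⟨A', hA', f', b', a', -, e1, e2, e3, e4, e5⟩ := hn
  -- simplify the top marks
  have l0 : len B lev n 1 = 0 := by unfold len; ring
  have y0 : ys B lev atop n 1 (atop n) = fun _ => (0 : ℝ) := by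
    funext j; simp [ys, rel]
  have hz : P q (len B lev n 1) (ys B lev atop n 1 (atop n)) = 0 := by
    rw [l0, y0]; exact hP.zero q
  have hd : P (q + δ) (len B lev n u - len B lev n 1)
      (fun j => ys B lev atop n u a' j - ys B lev atop n 1 (atop n) j) =
      P q (len B lev n u) (ys B lev atop n u a') +
        δ * ψ (len B lev n u) (ys B lev atop n u a') := by
    rw [l0, y0, sub_zero]
    have e6 : (fun j => ys B lev atop n u a' j - (0 : ℝ)) = ys B lev atop n u a' := by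
      funext j; ring
    rw [e6, hP.aff (q + δ), hP.aff q]; ring
  have h1' : (0 : ℝ) ≤ (lev n 1 : ℝ) - lev n u := by
    have : (lev n u : ℝ) ≤ lev n 1 := by exact_mod_cast h1
    linarith
  have hl0 : 0 ≤ len B lev n u := mul_nonneg (cn_pos B n).le h1'
  have hψ := hP.le (len B lev n u) (ys B lev atop n u a') hl0
  rw [hz, hd, Rat.cast_one] at e4
  have hκ := hch.κpos
  have hu' : (0 : ℝ) < 1 - u := by
    have : (u : ℝ) < 1 := by exact_mod_cast hu1
    linarith
  refine ⟨A', hA', f', b', a', ?_, e2, e3, ?_, ?_⟩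
  · refine e1.trans (mul_le_mul_of_nonneg_right ?_ (Nat.cast_nonneg _))
    exact dpow_le B n (by linarith)
  · have h6 : δ * (κ * (1 - (u : ℝ)) - e) ≤ δ * ψ (len B lev n u) (ys B lev atop n u a') := by
      nlinarith
    exact le_of_mul_le_mul_left h6 hδp
  · intro x hx
    refine le_trans ?_ (e5 x hx)
    refine mul_le_mul_of_nonneg_right (dpow_le B n ?_)
      (mul_pos (ampA_pos h.Apos _ n u) (VV_pos _ _ _)).le
    rw [hz, hd, Rat.cast_one]
    have h7 : δ * ψ (len B lev n u) (ys B lev atop n u a') ≤ δ * 2 :=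
      mul_le_mul_of_nonneg_left (hψ.trans h2.le) hδp.le
    have h8 : 0 < κ * δ * (1 - (u : ℝ)) := by positivity
    nlinarith

end

end Crest.Agent.R136.Yc953
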