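import Mathlib
import Crest.Agent.R136.Yc3_953

/-!
# R136 U4, pure penalty: X1-C chain with FULL own counts, part 4 (helper953)

Port of helper794's `R116/Xc9, XcF`: `eq_limF`, `first_markF`, `meshF` and
**`xoutF`** : `RwdF P ψ q0 Qm → ChsF 𝒯 P q0 Qm κ δ0 q g → ∃ θ, XOutF 𝒯 (P q) ψ κ g θ`.
-/

set_option autoImplicit false
set_option linter.unusedSectionVars false

open Finset Filter Topology

namespace Crest.Agent.R136.Yc953

open Crest.Agent.R138.Ex926 Crest.Agent.R138.Dp76 Crest.Agent.R138.Ps627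
open Crest.Agent.R138.Ps926
open Crest.Agent.R138.Mk163 (zc zl rho alive own Negl)
open Crest.Agent.R138.MkRef627 (lc kc own_one alive_mono mem_alive card_class own_lower exists_num)
open Crest.Agent.R138.MkZoom779 (zc_nested zc_eq exists_rep)
open Crest.Agent.R136.MkA627 (ampA Geo MkA)
open Crest.Agent.R116.Xa794 (TS)
open Crest.Agent.R116.Xa2794 (lc_nested class_fib_ge class_fib_le)
open Crest.Agent.R116.Xa3794
open Crest.Agent.R116.Xc794 Crest.Agent.R116.Xc1794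
open Crest.Agent.R116.Xc3794 Crest.Agent.R116.Xc4794 Crest.Agent.R116.Xc5794
open Crest.Agent.R116.Xc7794
open Crest.Agent.R116.Xc8794 (exists_rate diag_marks)
open Crest.Agent.R116.Xc9794 (refineF add_mark exists_vlim)

variable {Ln ι S : Type} [Fintype ι]

section

variable {𝒯 : Set (TS Ln ι S)} {B : Base} {I : ℕ → Finset (ℕ × ℝ)} {lev : ℕ → ℚ → ℕ}
  {T : ℕ → TS Ln ι S} {L : ℕ → ℕ → Ln} {A : ℕ → ℝ} {g : ℝ} {c : ℝ → ℝ}
  {V : ℕ → ℕ → (ι → ℕ) → ℝ}
  {Ψ Ψp : ℝ → (ι → ℝ) → ℝ} {atop : ℕ → ι → ℕ} {N : ℕ → ℕ}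

/-- the equality case: linear widths. -/
theorem eq_limF {P : ℝ → ℝ → (ι → ℝ) → ℝ} {ψ : ℝ → (ι → ℝ) → ℝ} {q0 Qm q : ℝ}
    (hP : RwdF P ψ q0 Qm) (hq0 : q0 ≤ q) (hq8 : q ≤ Qm) (h : Sq B I lev Zf) {u v : ℚ} (hu : 0 ≤ u)
    (huv : u < v) (hv : v < 1) {a a' : ℕ → ι → ℕ} {θ : ι → ℝ}
    (hθ : ∀ j, Tendsto (fun n => ys B lev atop n v (a n) j) U (𝓝 (θ j * (1 - (v : ℝ)))))
    (hE : ∀ e : ℝ, 0 < e → ∀ᶠ n in (U : Filter ℕ),
        P q (len B lev n u) (ys B lev atop n u (a' n)) ≤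
          P q (len B lev n v) (ys B lev atop n v (a n)) +
          P q (len B lev n u - len B lev n v)
            (fun j => ys B lev atop n u (a' n) j - ys B lev atop n v (a n) j) + e) (j : ι) :
    Tendsto (fun n => ys B lev atop n u (a' n) j) U (𝓝 (θ j * (1 - (u : ℝ)))) := by
  have huR : (0 : ℝ) ≤ u := by exact_mod_cast hu
  have huvR : (u : ℝ) < v := by exact_mod_cast huv
  have hvR : (v : ℝ) < 1 := by exact_mod_cast hv
  have hlv := len_lim h (hu.trans huv.le) hv.le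
  have hlu := len_lim h hu (huv.le.trans hv.le)
  set l0 : ℝ := min ((1 - (v : ℝ)) / 2) (((v : ℝ) - u) / 2) with hl0
  have hl0p : 0 < l0 := lt_min (by linarith) (by linarith)
  have hl01 : l0 ≤ (1 - (v : ℝ)) / 2 := min_le_left _ _
  have hl02 : l0 ≤ ((v : ℝ) - u) / 2 := min_le_right _ _
  -- bound of the widths at `v`
  obtain ⟨R, hR⟩ : ∃ R : ℝ, ∀ j, |θ j * (1 - (v : ℝ))| < R := by
    refine ⟨∑ j, |θ j * (1 - (v : ℝ))| + 1, fun j => ?_⟩
    have := single_le_sum (f := fun j => |θ j * (1 - (v : ℝ))|) (fun i _ => abs_nonneg _)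
      (mem_univ j)
    linarith
  have hRev : ∀ᶠ n in (U : Filter ℕ), ∀ j, |ys B lev atop n v (a n) j| ≤ R := by
    rw [Filter.eventually_all]
    intro j
    filter_upwards [(hθ j).abs.eventually_lt_const (hR j)] with n hn using hn.le
  -- the difference tends to zero
  have hdiff : Tendsto (fun n => ys B lev atop n u (a' n) j -
      len B lev n u / len B lev n v * ys B lev atop n v (a n) j) U (𝓝 0) := by
    rw [Metric.tendsto_nhds]
    intro ε hε
    obtain ⟨δ, hδ, hδ2⟩ := hP.eqc l0 R (ε / 2) hl0p (by positivity)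
    filter_upwards [hE δ hδ, hRev, hlv.eventually_const_lt (show l0 < 1 - (v : ℝ) by linarith),
      hlv.eventually_lt_const (show 1 - (v : ℝ) < 2 by linarith),
      (hlu.sub hlv).eventually_const_lt (show l0 < (1 - (u : ℝ)) - (1 - (v : ℝ)) by linarith),
      (hlu.sub hlv).eventually_lt_const (show (1 - (u : ℝ)) - (1 - (v : ℝ)) < 2 by linarith)]
      with n h1 h2 h3 h4 h5 h6
    have h7 : (fun j => ys B lev atop n v (a n) j + (ys B lev atop n u (a' n) j -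
        ys B lev atop n v (a n) j)) = ys B lev atop n u (a' n) := by
      funext j; ring
    have h8 : len B lev n v + (len B lev n u - len B lev n v) = len B lev n u := by ring
    have h9 := hδ2 q (len B lev n v) (len B lev n u - len B lev n v) (ys B lev atop n v (a n))
      (fun j => ys B lev atop n u (a' n) j - ys B lev atop n v (a n) j) hq0 hq8 h3.le h4.le h5.le
      h6.le h2 (by rw [h7, h8]; exact h1) j
    rw [h8] at h9
    rw [Real.dist_eq, sub_zero]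
    have h10 : ys B lev atop n v (a n) j + (ys B lev atop n u (a' n) j -
        ys B lev atop n v (a n) j) = ys B lev atop n u (a' n) j := by ring
    rw [h10] at h9
    linarith
  have hmain : Tendsto (fun n => len B lev n u / len B lev n v * ys B lev atop n v (a n) j) U
      (𝓝 ((1 - (u : ℝ)) / (1 - v) * (θ j * (1 - (v : ℝ))))) :=
    (hlu.div hlv (by linarith)).mul (hθ j)
  have := hdiff.add hmain
  have e1 : (0 : ℝ) + (1 - (u : ℝ)) / (1 - v) * (θ j * (1 - (v : ℝ))) = θ j * (1 - (u : ℝ)) := by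
    have : (1 - (v : ℝ)) ≠ 0 := by linarith
    field_simp
    ring
  rw [e1] at this
  refine this.congr fun n => ?_
  ring

/-- the first marked level: linear direction `θ` -/
theorem first_markF [Nonempty S] {P : ℝ → ℝ → (ι → ℝ) → ℝ} {ψ : ℝ → (ι → ℝ) → ℝ} {q0 Qm κ δ0 q : ℝ}
    (hP : RwdF P ψ q0 Qm) (hch : ChsF 𝒯 P q0 Qm κ δ0 q g)
    (h : Cx 𝒯 B I T L lev A Zf g (P q) atop N) {v0 : ℚ} (hv0 : 0 < v0) (hv1 : v0 < 1)
    {f : ℕ → ℕ → ℤ → ℕ} {b : ℕ → ℕ → (ι → ℕ) × S}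
    (hM : Mrk B I T L lev A (fun v => g * v + 2 * Zf v) (VV T (P q) lev atop) 1 f b atop) :
    ∃ (J : ℕ → Finset (ℕ × ℝ)) (f : ℚ → ℕ → ℕ → ℤ → ℕ) (b : ℚ → ℕ → ℕ → (ι → ℕ) × S)
      (a : ℚ → ℕ → ι → ℕ) (θ : ι → ℝ), (∀ n, J n ⊆ I n) ∧ Dense B J I ∧
      Cx 𝒯 B J T L lev A Zf g (P q) atop N ∧ a 1 = atop ∧ κ ≤ ψ 1 θ ∧
      ∀ v ∈ (insert 1 (insert v0 ∅) : Finset ℚ),
        Mrk B J T L lev A (fun v => g * v + 2 * Zf v) (VV T (P q) lev atop) v (f v) (b v) (a v) ∧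
        ∀ j, Tendsto (fun n => ys B lev atop n v (a v n) j) U (𝓝 (θ j * (1 - (v : ℝ)))) := by
  classical
  have hv1R : (v0 : ℝ) < 1 := by exact_mod_cast hv1
  have hv0R : (0 : ℝ) < v0 := by exact_mod_cast hv0
  have hκ := hch.κpos
  have hpos : 0 < κ * (1 - (v0 : ℝ)) := mul_pos hκ (by linarith)
  obtain ⟨A', f', b', a', h1, h2, h3, h4, h5⟩ := step_upF hP hch h hv0.le hv1 hM
  -- boundedness
  obtain ⟨R, hR, hR2⟩ := hP.coe (κ / 2) (by linarith)
  have hlen := len_lim h.sq hv0.le hv1.le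
  have hbd : ∀ᶠ n in (U : Filter ℕ), ∀ j, |ys B lev atop n v0 (a' n) j| ≤ R * 2 := by
    filter_upwards [h5 (κ * (1 - (v0 : ℝ)) / 4) (by positivity),
      hlen.eventually_lt_const (show 1 - (v0 : ℝ) < (1 - (v0 : ℝ)) * (3 / 2) by linarith),
      hlen.eventually_const_lt (show 0 < 1 - (v0 : ℝ) by linarith)] with n e1 e2 e3 j
    have e4 := hR2 (len B lev n v0) (ys B lev atop n v0 (a' n)) e3.le (by nlinarith) j
    refine e4.trans (mul_le_mul_of_nonneg_left ?_ hR.le)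
    linarith
  obtain ⟨x0, hx0⟩ := exists_vlim hbd
  set θ : ι → ℝ := fun j => x0 j / (1 - (v0 : ℝ)) with hθ
  have hlim : Tendsto (fun n => ψ (len B lev n v0) (ys B lev atop n v0 (a' n))) U
      (𝓝 (ψ (1 - (v0 : ℝ)) x0)) :=
    (hP.contψ.tendsto ((1 - (v0 : ℝ), x0) : ℝ × (ι → ℝ))).comp (hlen.prodMk_nhds hx0)
  have hge : κ * (1 - (v0 : ℝ)) ≤ ψ (1 - (v0 : ℝ)) x0 := by
    refine le_of_forall_pos_le_add fun e he => ?_
    have h6 := ge_of_tendsto hlim (h5 e he)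
    linarith
  have hθψ : κ ≤ ψ 1 θ := by
    have h6 := hP.homψ (1 / (1 - (v0 : ℝ))) (1 - (v0 : ℝ)) x0
      (one_div_nonneg.2 (by linarith)) (by linarith)
    have h7 : 1 / (1 - (v0 : ℝ)) * (1 - (v0 : ℝ)) = 1 :=
      one_div_mul_cancel (by linarith)
    have h8 : (fun j => 1 / (1 - (v0 : ℝ)) * x0 j) = θ := by
      funext j
      simp only [hθ]; ring
    rw [h7, h8] at h6
    rw [h6]
    rw [one_div, ← div_eq_inv_mul, le_div_iff₀ (by linarith)]
    exact hge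
  obtain ⟨J, g1, g2, g3, g4⟩ := add_mark h (W := {1}) (f := fun _ => f) (b := fun _ => b)
    (a := fun _ => atop) (by
      intro v hv
      rw [mem_singleton] at hv
      subst hv
      exact ⟨zero_le_one, le_rfl⟩) (by
      intro v hv
      rw [mem_singleton] at hv
      subst hv
      exact hM) hv0.le hv1.le h1 h2 h3 h4
  refine ⟨J, Function.update (fun _ => f) v0 f', Function.update (fun _ => b) v0 b',
    Function.update (fun _ => atop) v0 a', θ, g1, g2, g3, ?_, hθψ, ?_⟩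
  · exact Function.update_of_ne hv1.ne' _ _
  · intro v hv
    refine ⟨g4 v ?_, ?_⟩
    · rw [mem_insert, mem_insert] at hv
      rw [mem_insert, mem_singleton]
      rcases hv with hv | hv | hv
      · exact Or.inr hv
      · exact Or.inl hv
      · exact absurd hv (notMem_empty v)
    · intro j
      rw [mem_insert, mem_insert] at hv
      rcases hv with rfl | rfl | hv
      · rw [Function.update_of_ne hv1.ne']
        have e1 : θ j * (1 - ((1 : ℚ) : ℝ)) = 0 := by rw [Rat.cast_one]; ring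
        rw [e1]
        refine tendsto_const_nhds.congr fun n => ?_
        simp [ys, rel]
      · rw [Function.update_self]
        have e1 : θ j * (1 - (v : ℝ)) = x0 j := by
          simp only [hθ]
          have : (1 - (v : ℝ)) ≠ 0 := by linarith
          field_simp
        rw [e1]
        exact (tendsto_pi_nhds.1 hx0) j
      · exact absurd hv (notMem_empty v)

/-- **the finite mesh.** -/
theorem meshF [Nonempty S] {P : ℝ → ℝ → (ι → ℝ) → ℝ} {ψ : ℝ → (ι → ℝ) → ℝ} {q0 Qm κ δ0 q : ℝ}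
    (hP : RwdF P ψ q0 Qm) (hch : ChsF 𝒯 P q0 Qm κ δ0 q g)
    (h : Cx 𝒯 B I T L lev A Zf g (P q) atop N) {v0 : ℚ} (hv0 : 0 < v0) (hv1 : v0 < 1)
    {f : ℕ → ℕ → ℤ → ℕ} {b : ℕ → ℕ → (ι → ℕ) × S}
    (hM : Mrk B I T L lev A (fun v => g * v + 2 * Zf v) (VV T (P q) lev atop) 1 f b atop)
    (W : Finset ℚ) (hW : ∀ u ∈ W, 0 ≤ u ∧ u < v0) :
    ∃ (J : ℕ → Finset (ℕ × ℝ)) (f : ℚ → ℕ → ℕ → ℤ → ℕ) (b : ℚ → ℕ → ℕ → (ι → ℕ) × S)
      (a : ℚ → ℕ → ι → ℕ) (θ : ι → ℝ), (∀ n, J n ⊆ I n) ∧ Dense B J I ∧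
      Cx 𝒯 B J T L lev A Zf g (P q) atop N ∧ a 1 = atop ∧ κ ≤ ψ 1 θ ∧
      ∀ v ∈ insert 1 (insert v0 W),
        Mrk B J T L lev A (fun v => g * v + 2 * Zf v) (VV T (P q) lev atop) v (f v) (b v) (a v) ∧
        ∀ j, Tendsto (fun n => ys B lev atop n v (a v n) j) U (𝓝 (θ j * (1 - (v : ℝ)))) := by
  classical
  have hq0 : 0 ≤ q := hP.q0pos.le.trans hch.qlo
  have hq8 : q ≤ Qm := by linarith [hch.qhi, hch.δ0pos]
  have hHq : HomA (P q) := fun c l x hc hl => hP.hom q c l x hq0 hc hl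
  have hSq : SupA (P q) := fun l l' x x' hl hl' => hP.sup q l l' x x' hq0 hl hl'
  induction W using Finset.induction_on with
  | empty => exact first_markF hP hch h hv0 hv1 hM
  | @insert u W huW ih =>
    obtain ⟨J, f, b, a, θ, h1, h2, h3, h4, h5, h6⟩ := ih
      (fun w hw => hW w (mem_insert_of_mem hw))
    obtain ⟨hu0, huv⟩ := hW u (mem_insert_self u W)
    have hu1 : u < 1 := huv.trans hv1
    obtain ⟨hM0, hy0⟩ := h6 v0 (mem_insert_of_mem (mem_insert_self _ _))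
    obtain ⟨A', f', b', a', e1, e2, e3, e4, e5⟩ := step_eqF h3 hHq hSq hch.ub hu0 huv hv1.le hM0
    have hy' := fun j => eq_limF hP hch.qlo hq8 h3.sq hu0 huv hv1 hy0 e5 j
    obtain ⟨J', g1, g2, g3, g4⟩ := add_mark h3 (W := insert 1 (insert v0 W)) (by
      intro v hv
      rw [mem_insert, mem_insert] at hv
      rcases hv with rfl | rfl | hv
      · exact ⟨zero_le_one, le_rfl⟩
      · exact ⟨hv0.le, hv1.le⟩
      · have := hW v (mem_insert_of_mem hv)
        exact ⟨this.1, (this.2.trans hv1).le⟩) (fun v hv => (h6 v hv).1) hu0 hu1.le e1 e2 e3 e4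
    refine ⟨J', _, _, _, θ, fun n => (g1 n).trans (h1 n), g2.trans h2, g3, ?_, h5,
      fun v hv => ⟨g4 v ?_, ?_⟩⟩
    · rw [Function.update_of_ne hu1.ne']
      exact h4
    · simp only [mem_insert] at hv ⊢
      tauto
    · intro j
      by_cases hvu : v = u
      · subst hvu
        rw [Function.update_self]
        exact hy' j
      · rw [Function.update_of_ne hvu]
        refine (h6 v ?_).2 j
        simp only [mem_insert] at hv ⊢
        tauto

end

theorem cZ (g : ℝ) : (fun v : ℝ => g * v) = fun v => g * v + 2 * Zf v := by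
  funext v; simp [Zf]

theorem Zf_eq : Zf = fun v => 0 * v := by
  funext v; simp [Zf]

/-- **X1-C with full own counts.** -/
theorem xoutF {𝒯 : Set (TS Ln ι S)} {P : ℝ → ℝ → (ι → ℝ) → ℝ} {ψ : ℝ → (ι → ℝ) → ℝ}
    {q0 Qm κ δ0 q g : ℝ} (hP : RwdF P ψ q0 Qm) (hch : ChsF 𝒯 P q0 Qm κ δ0 q g) :
    ∃ θ : ι → ℝ, XOutF 𝒯 (P q) ψ κ g θ := by
  classical
  have hq0 : 0 ≤ q := hP.q0pos.le.trans hch.qlo
  have hSq : SupA (P q) := fun l l' x x' hl hl' => hP.sup q l l' x x' hq0 hl hl'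
  obtain ⟨B, I, T, L, lev, A, f, b, atop, N, hS, hT, hfin, hNd, hA, hsq, h0, hM⟩ :=
    exists_initF (hP.zero q) hch.low hch.ub
  obtain ⟨J, hJI, hJd, hdm⟩ := exists_dmxF hsq 𝒯 hSq hch.ub hT hfin hNd hA h0
  rw [cZ] at hM hdm
  obtain ⟨J1, h1, h2, h3, h4, h5⟩ := refineF hsq hJd {1} (by
      intro v hv
      rw [mem_singleton] at hv
      subst hv
      exact ⟨zero_le_one, le_rfl⟩) (mem_singleton_self _) (fun _ => I)
    (fun _ _ n => Subset.refl _) (fun _ _ => Eventually.of_forall fun n => hJI n)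
    (fun _ _ => Eventually.of_forall fun n x _ y hy _ => hy) (fun _ => f) (fun _ => b)
    (fun _ => atop) (by
      intro v hv
      rw [mem_singleton] at hv
      subst hv
      exact hM)
  have hCx : Cx 𝒯 B J1 T L lev A Zf g (P q) atop N := ⟨hT, hfin, hNd, hA, h4, hdm.mono h1⟩
  have hM1 := h5 1 (mem_singleton_self _)
  obtain ⟨J2, f2, b2, a2, θ, g1, g2, g3, g4, g5⟩ := Crest.Agent.R116.XcD794.final_diag hCx (κ := κ) (ψ := ψ) hP.contψ (by
      obtain ⟨R, hR, hR2⟩ := hP.coe κ hch.κpos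
      exact ⟨R * 1, fun x hx j => hR2 1 x zero_le_one (by rw [mul_one]; exact hx) j⟩) (by
      intro v0 hv0 hv1 W hW
      obtain ⟨J, f, b, a, θ, e1, e2, e3, e4, e5, e6⟩ := meshF hP hch hCx hv0 hv1 hM1 W hW
      exact ⟨J, f, b, a, θ, e1, e2, e3.sq, e4, e5, e6⟩)
  have hmk := Crest.Agent.R116.XcM708.mk_assemble hA g2 (hCx.dmx.mono g1) f2 b2 a2 θ g3
    (fun v h0 h1 => (g5 v h0 h1).1) (fun v h0 h1 => (g5 v h0 h1).2)
  rw [← cZ, Zf_eq] at hmk
  refine ⟨θ, B, J2, T, L, lev, A, f2, b2, fun n v => VV T (P q) lev atop n (lev n v) (a2 n v),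
    fun j n v => (1 / 2 : ℝ) ^ (a2 n v j), atop, N, a2, hT, hfin, hNd, g4,
    hmk, g3, fun n v j => rfl, fun n v => rfl, ?_⟩
  intro v hv0 hv1
  filter_upwards [(g5 v hv0 hv1).1.mark, g2.ne] with n hn hne
  obtain ⟨x, hx⟩ := hne
  obtain ⟨-, m2, m3⟩ := hn x hx
  exact ⟨_, _, m2, m3⟩

end Crest.Agent.R136.Yc953
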