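import Mathlib
import Crest.Agent.R136.Yc4_953
import Crest.Agent.R136.KF2_879

/-!
# R136 U4, pure penalty: X1-C chain, full own counts with room below the test level, part 1
(helper953)

Over 879's `KF2_879` (`OkH`, `UBH K`): the bottom bound is at the level `F.m`, the single cell and
the own counts are at the level `F.m - h`, `F.M ≤ K h`, `h ≤ F.M`.  Adapted from helper794's
`R116/Xc1, Xc2`.

* `ChsK`;
* `cfg_lowK`, `low_seqK` : LOW for `u < v` with room (`Room`).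
-/

set_option autoImplicit false
set_option linter.unusedSectionVars false

open Finset Filter Topology

namespace Crest.Agent.R136.Yk953

open Crest.Agent.R138.Ex926 Crest.Agent.R138.Dp76 Crest.Agent.R138.Ps627
open Crest.Agent.R138.Ps926 (dpow_small)
open Crest.Agent.R138.Mk163 (zc zl rho alive own)
open Crest.Agent.R138.MkRef627 (lc kc own_one alive_mono mem_alive card_class own_lower)
open Crest.Agent.R138.MkZoom779 (zc_nested)
open Crest.Agent.R136.MkA627 (Geo MkA)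
open Crest.Agent.R116.Xa794 (TS)
open Crest.Agent.R116.Xa2794 (lc_nested class_fib_ge class_fib_le)
open Crest.Agent.R116.Xa3794
open Crest.Agent.R116.Xc794 Crest.Agent.R116.Xc1794
open Crest.Agent.R136.Yc953 (RwdF Zf)
open Crest.Agent.R136.KF879 (OkH UBH)

variable {Ln ι S : Type} [Fintype ι]

/-- **the choice of the parameter**: `q` fixed, `β(q) = g`, drop rate `κ`. -/
structure ChsK (K : ℕ) (𝒯 : Set (TS Ln ι S)) (P : ℝ → ℝ → (ι → ℝ) → ℝ)
    (q0 Qm κ δ0 q g : ℝ) : Prop where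
  κpos : 0 < κ
  δ0pos : 0 < δ0
  qlo : q0 ≤ q
  qhi : q + δ0 ≤ Qm
  low : ∀ b : ℝ, b < g → ¬ UBH K 𝒯 (P q) b
  ub : UBH K 𝒯 (P q) g
  drop : ∀ δ : ℝ, 0 < δ → δ ≤ δ0 → UBH K 𝒯 (P (q + δ)) (g - κ * δ)

/-- room below the level `u` for the window `[u, v]` -/
def Room (K : ℕ) (lev : ℕ → ℚ → ℕ) (u v : ℚ) : Prop :=
  ∃ u₁ : ℚ, 0 ≤ u₁ ∧ u₁ < u ∧ (u : ℝ) - u₁ < (v : ℝ) - u ∧
    ∀ᶠ n in (U : Filter ℕ), lev n v - lev n u ≤ K * (lev n u - lev n u₁)

open Classical in
/-- **the configuration of a window.** -/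
theorem cfg_lowK (T : TS Ln ι S) (Ψ : ℝ → (ι → ℝ) → ℝ) {m₁ m M N : ℕ} (hm : m₁ ≤ m)
    {Kf Kl Kn : ℝ}
    (hfin : ∀ (i : ℕ) (J : ℤ) (s : (ι → ℕ) × S), T.adm i J s → ∀ j, s.1 j ≤ N)
    (hUB : ∀ F : Cfg Ln ι S, OkH T Ψ (m - m₁) F → F.m = m → F.M = M → F.N = N →
      Real.log (F.I.card : ℝ) ≤ Kl → Kn ≤ F.nu → F.D1 ≤ Kf * F.D0)
    (hM1 : 1 ≤ M) {I0 I A J : Finset (ℕ × ℝ)} (hI : I ⊆ I0) (hA : A ⊆ I) (hJ : J ⊆ A)
    (hcl : ∀ x ∈ A, ∀ y ∈ I, lc (m + M) y = lc (m + M) x → y ∈ A)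
    (L : ℕ → Ln) (f : ℕ → ℤ → ℕ) (b : ℕ → (ι → ℕ) × S) (a : ι → ℕ)
    (hmk : ∀ x ∈ A, T.mem (m + M) (zc (m + M) x.2) (b (f x.1 (zc (m + M) x.2))) (L x.1) ∧
        T.adm (m + M) (zc (m + M) x.2) (b (f x.1 (zc (m + M) x.2))) ∧
        (b (f x.1 (zc (m + M) x.2))).1 = a)
    {D1 : ℝ} (hD1 : 0 < D1)
    (hsz : ∀ x ∈ A, D1 * T.vol (m + M) a ≤
        (((alive A (m + M) (zc (m + M) x.2)).filter fun s =>
          f s (zc (m + M) x.2) = f x.1 (zc (m + M) x.2)).card : ℝ))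
    {lu lv hv δ : ℝ} (hlu : 0 < lu) (hlv : 0 < lv) (hhv : 0 < hv) (hδ : 0 < δ)
    (fu : ∀ x ∈ I0, lu ≤ ((I0.filter fun y => lc m₁ y = lc m₁ x).card : ℝ))
    (fv : ∀ x ∈ I, lv ≤ ((I.filter fun y => lc (m + M) y = lc (m + M) x).card : ℝ) ∧
      ((I.filter fun y => lc (m + M) y = lc (m + M) x).card : ℝ) ≤ hv)
    (hJc : 3 * δ * (I0.card : ℝ) < (J.card : ℝ))
    (hlog : Real.log (I0.card : ℝ) ≤ Kl)
    (hKn : Kn ≤ δ * lu / hv) {D0 : ℝ} (hD0 : Kf * D0 < δ * lv / hv * D1) :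
    ∃ (c : ℤ) (s : (ι → ℕ) × S), T.adm m c s ∧
      D0 * capP T Ψ (m + M) a m s.1 < (((alive J m c).filter fun t => T.mem m c s (L t)).card : ℝ) := by
  have hm2 : m₁ ≤ m + M := hm.trans (Nat.le_add_right m M)
  set h : Fin 3 → (ℕ × ℝ) → Option (ℕ × ℤ) := ![fun y => some (lc m₁ y),
    fun y => if y ∈ I then some (lc (m + M) y) else none,
    fun y => if y ∈ A then some (kc (m + M) f y) else none] with hh
  obtain ⟨J1, hJ1, hloss, hfib⟩ := prune_rel (η := fun _ => Option (ℕ × ℤ)) h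
    ((hJ.trans hA).trans hI) hδ.le
  rw [Fintype.card_fin] at hloss
  push_cast at hloss
  have hJ1c : (0 : ℝ) < (J1.card : ℝ) := by linarith
  obtain ⟨x0, hx0⟩ := card_pos.1 (by exact_mod_cast hJ1c : 0 < J1.card)
  have hJ1I : J1 ⊆ I := hJ1.trans (hJ.trans hA)
  have g0 : ∀ x ∈ J1, δ * ((I0.filter fun y => lc m₁ y = lc m₁ x).card : ℝ) ≤
      ((J1.filter fun y => lc m₁ y = lc m₁ x).card : ℝ) := by
    intro x hx
    have := hfib 0 x hx
    simp only [hh, Matrix.cons_val_zero, Option.some.injEq] at this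
    exact this
  have g1 : ∀ x ∈ J1, δ * ((I.filter fun y => lc (m + M) y = lc (m + M) x).card : ℝ) ≤
      ((J1.filter fun y => lc (m + M) y = lc (m + M) x).card : ℝ) := by
    intro x hx
    have hxI := hJ1I hx
    have h1 := hfib 1 x hx
    have h2 : h 1 = fun y => if y ∈ I then some (lc (m + M) y) else none := rfl
    simp only [h2, if_pos hxI] at h1
    have e1 : (I0.filter fun y => (if y ∈ I then some (lc (m + M) y) else none) =
        some (lc (m + M) x)) = I.filter fun y => lc (m + M) y = lc (m + M) x := by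
      ext y
      rw [mem_filter, mem_filter]
      constructor
      · rintro ⟨hy, h3⟩
        by_cases hyA : y ∈ I
        · rw [if_pos hyA] at h3
          exact ⟨hyA, Option.some.inj h3⟩
        · rw [if_neg hyA] at h3
          exact absurd h3 (by simp)
      · rintro ⟨hy, h3⟩
        refine ⟨hI hy, ?_⟩
        rw [if_pos hy, h3]
    have e2 : (J1.filter fun y => (if y ∈ I then some (lc (m + M) y) else none) =
        some (lc (m + M) x)) = J1.filter fun y => lc (m + M) y = lc (m + M) x := by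
      ext y
      rw [mem_filter, mem_filter]
      constructor
      · rintro ⟨hy, h3⟩
        rw [if_pos (hJ1I hy)] at h3
        exact ⟨hy, Option.some.inj h3⟩
      · rintro ⟨hy, h3⟩
        refine ⟨hy, ?_⟩
        rw [if_pos (hJ1I hy), h3]
    rw [e1, e2] at h1
    exact h1
  have g2 : ∀ x ∈ J1, δ * ((A.filter fun y => kc (m + M) f y = kc (m + M) f x).card : ℝ) ≤
      ((J1.filter fun y => kc (m + M) f y = kc (m + M) f x).card : ℝ) := by
    intro x hx
    have hxA := hJ (hJ1 hx)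
    have h1 := hfib 2 x hx
    have h2 : h 2 = fun y => if y ∈ A then some (kc (m + M) f y) else none := rfl
    simp only [h2, if_pos hxA] at h1
    have e1 : (I0.filter fun y => (if y ∈ A then some (kc (m + M) f y) else none) =
        some (kc (m + M) f x)) = A.filter fun y => kc (m + M) f y = kc (m + M) f x := by
      ext y
      rw [mem_filter, mem_filter]
      constructor
      · rintro ⟨hy, h3⟩
        by_cases hyA : y ∈ A
        · rw [if_pos hyA] at h3
          exact ⟨hyA, Option.some.inj h3⟩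
        · rw [if_neg hyA] at h3
          exact absurd h3 (by simp)
      · rintro ⟨hy, h3⟩
        refine ⟨hI (hA hy), ?_⟩
        rw [if_pos hy, h3]
    have e2 : (J1.filter fun y => (if y ∈ A then some (kc (m + M) f y) else none) =
        some (kc (m + M) f x)) = J1.filter fun y => kc (m + M) f y = kc (m + M) f x := by
      ext y
      rw [mem_filter, mem_filter]
      constructor
      · rintro ⟨hy, h3⟩
        rw [if_pos (hJ (hJ1 hy))] at h3
        exact ⟨hy, Option.some.inj h3⟩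
      · rintro ⟨hy, h3⟩
        refine ⟨hy, ?_⟩
        rw [if_pos (hJ (hJ1 hy)), h3]
    rw [e1, e2] at h1
    exact h1
  -- the cell of `x0`
  set c0 : ℤ := zc m₁ x0.2 with hc0
  set I' : Finset (ℕ × ℝ) := J1.filter fun y => zc m₁ y.2 = c0 with hI'
  have hI'J1 : I' ⊆ J1 := filter_subset _ _
  have hx0' : x0 ∈ I' := by rw [hI', mem_filter]; exact ⟨hx0, rfl⟩
  have hcell : ∀ x ∈ I', zc m₁ x.2 = c0 := fun x hx => (mem_filter.1 hx).2
  have hin : ∀ x ∈ I', ∀ y ∈ J1, zc m₁ y.2 = zc m₁ x.2 → y ∈ I' := by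
    intro x hx y hy hxy
    rw [hI', mem_filter]
    exact ⟨hy, hxy.trans (hcell x hx)⟩
  have f0 : ∀ x ∈ I', (I'.filter fun y => lc m₁ y = lc m₁ x) =
      J1.filter fun y => lc m₁ y = lc m₁ x := by
    intro x hx
    ext y
    exact ⟨fun h => mem_filter.2 ⟨hI'J1 (mem_filter.1 h).1, (mem_filter.1 h).2⟩,
      fun h => mem_filter.2 ⟨hin x hx y (mem_filter.1 h).1
        (Prod.mk.inj (mem_filter.1 h).2).2, (mem_filter.1 h).2⟩⟩
  have f1 : ∀ x ∈ I', (I'.filter fun y => lc (m + M) y = lc (m + M) x) =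
      J1.filter fun y => lc (m + M) y = lc (m + M) x := by
    intro x hx
    ext y
    exact ⟨fun h => mem_filter.2 ⟨hI'J1 (mem_filter.1 h).1, (mem_filter.1 h).2⟩,
      fun h => mem_filter.2 ⟨hin x hx y (mem_filter.1 h).1
        (Prod.mk.inj (lc_nested hm2 (mem_filter.1 h).2)).2,
        (mem_filter.1 h).2⟩⟩
  have f2 : ∀ x ∈ I', (I'.filter fun y => kc (m + M) f y = kc (m + M) f x) =
      J1.filter fun y => kc (m + M) f y = kc (m + M) f x := by
    intro x hx
    ext y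
    exact ⟨fun h => mem_filter.2 ⟨hI'J1 (mem_filter.1 h).1, (mem_filter.1 h).2⟩,
      fun h => mem_filter.2 ⟨hin x hx y (mem_filter.1 h).1
        (zc_nested hm2 (Prod.mk.inj (mem_filter.1 h).2).2),
        (mem_filter.1 h).2⟩⟩
  have hI'I : I' ⊆ I := hI'J1.trans hJ1I
  have hI'I0 : I' ⊆ I0 := hI'I.trans hI
  have hI'A : I' ⊆ A := hI'J1.trans (hJ1.trans hJ)
  -- fibres of `I'`
  have up1 : ∀ x ∈ I', ((I'.filter fun y => lc (m + M) y = lc (m + M) x).card : ℝ) ≤ hv := by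
    intro x hx
    refine le_trans ?_ (fv x (hI'I hx)).2
    exact_mod_cast card_le_card (filter_subset_filter _ hI'I)
  have lowA : ∀ x ∈ A, lv ≤ ((A.filter fun y => lc (m + M) y = lc (m + M) x).card : ℝ) := by
    intro x hx
    refine (fv x (hA hx)).1.trans ?_
    have : (I.filter fun y => lc (m + M) y = lc (m + M) x) ⊆
        A.filter fun y => lc (m + M) y = lc (m + M) x := by
      intro y hy
      rw [mem_filter] at hy ⊢
      exact ⟨hcl x hx y hy.1 hy.2, hy.2⟩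
    exact_mod_cast card_le_card this
  -- class sizes of `I'`
  have hclass : ∀ x ∈ I', δ * lv / hv * D1 * T.vol (m + M) a ≤
      (((alive I' (m + M) (zc (m + M) x.2)).filter fun s =>
          f s (zc (m + M) x.2) = f x.1 (zc (m + M) x.2)).card : ℝ) := by
    intro x hx
    have h1 := hsz x (hI'A hx)
    have h2 := class_fib_ge (f := f) lowA x
    have h3 := class_fib_le (f := f) up1 x
    have h4 := g2 x (hI'J1 hx)
    rw [← f2 x hx] at h4
    have h5 : δ * (lv * (D1 * T.vol (m + M) a)) ≤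
        hv * (((alive I' (m + M) (zc (m + M) x.2)).filter fun s =>
          f s (zc (m + M) x.2) = f x.1 (zc (m + M) x.2)).card : ℝ) := by
      refine le_trans ?_ (h4.trans h3)
      refine mul_le_mul_of_nonneg_left ?_ hδ.le
      exact (mul_le_mul_of_nonneg_left h1 hlv.le).trans h2
    have h6 : δ * lv / hv * D1 * T.vol (m + M) a =
        δ * (lv * (D1 * T.vol (m + M) a)) / hv := by ring
    rw [h6, div_le_iff₀ hhv]
    linarith
  -- own counts of `I'`
  have hown : ∀ x ∈ I', δ * lu / hv ≤ ((own I' m₁ (m + M) x).card : ℝ) := by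
    intro x hx
    have h1 := own_lower (i := m₁) (j := m + M) up1 hx
    have h2 := g0 x (hI'J1 hx)
    rw [← f0 x hx] at h2
    have h3 := fu x (hI'I0 hx)
    rw [div_le_iff₀ hhv]
    have h4 := (mul_le_mul_of_nonneg_left h3 hδ.le).trans (h2.trans h1)
    linarith
  by_contra hcon
  push Not at hcon
  set F : Cfg Ln ι S := ⟨m, M, I', L, f, b, a, D0, δ * lv / hv * D1, δ * lu / hv, N⟩ with hF
  have hsub : m - (m - m₁) = m₁ := Nat.sub_sub_self hm
  have hOk : OkH T Ψ (m - m₁) F := by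
    refine
      { M1 := hM1
        h_le := Nat.sub_le _ _
        ne := ⟨x0, hx0'⟩
        cell := fun x hx y hy => by
          change zc (m - (m - m₁)) x.2 = zc (m - (m - m₁)) y.2
          rw [hsub]
          exact (hcell x hx).trans (hcell y hy).symm
        D1p := ?_
        nup := ?_
        fin := hfin
        top := ?_
        low := ?_
        own := fun x hx => by
          change δ * lu / hv ≤ ((own I' (m - (m - m₁)) (m + M) x).card : ℝ)
          rw [hsub]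
          exact hown x hx
        up := ?_ }
    · change 0 < δ * lv / hv * D1
      positivity
    · change 0 < δ * lu / hv
      positivity
    · intro J0 t ht
      obtain ⟨y, hy, hy1, hy2⟩ := mem_alive.1 ht
      have h1 := hmk y (hI'A hy)
      rw [hy1, hy2] at h1
      exact h1
    · intro J0 t ht
      obtain ⟨y, hy, hy1, hy2⟩ := mem_alive.1 ht
      have h1 := hclass y hy
      rw [hy1, hy2] at h1
      exact h1
    · intro J0 s hs
      have h1 := hcon J0 s hs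
      refine le_trans ?_ h1
      exact_mod_cast card_le_card (filter_subset_filter _ (alive_mono (hI'J1.trans hJ1) _ _))
  have hcardI' : Real.log (F.I.card : ℝ) ≤ Kl := by
    refine le_trans (Real.log_le_log ?_ ?_) hlog
    · exact_mod_cast card_pos.2 ⟨x0, hx0'⟩
    · exact_mod_cast card_le_card hI'I0
  have := hUB F hOk rfl rfl rfl hcardI' hKn
  change δ * lv / hv * D1 ≤ Kf * D0 at this
  linarith

section

variable {B : Base} {I : ℕ → Finset (ℕ × ℝ)} {lev : ℕ → ℚ → ℕ}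

set_option maxHeartbeats 1000000 in
open Classical in
/-- **LOW, sequence form, full own counts.** -/
theorem low_seqK {K : ℕ} (h : Sq B I lev Zf) (𝒯 : Set (TS Ln ι S)) (Ψ : ℝ → (ι → ℝ) → ℝ) {bb : ℝ}
    (hUB : UBH K 𝒯 Ψ bb) {T : ℕ → TS Ln ι S} (hT : ∀ n, T n ∈ 𝒯) {L : ℕ → ℕ → Ln} {N : ℕ → ℕ}
    (hfin : ∀ (n i : ℕ) (J : ℤ) (s : (ι → ℕ) × S), (T n).adm i J s → ∀ j, s.1 j ≤ N n)
    (hNd : ∀ ε : ℝ, 0 < ε → ∀ᶠ n in (U : Filter ℕ), (N n : ℝ) ≤ B.d n ^ (-ε))
    {u v : ℚ} (hroom : Room K lev u v) (huv : u < v) (hv : v ≤ 1)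
    {A : ℕ → Finset (ℕ × ℝ)} (hA : ∀ n, A n ⊆ I n)
    (hcl : ∀ᶠ n in (U : Filter ℕ), ∀ x ∈ A n, ∀ y ∈ I n, lc (lev n v) y = lc (lev n v) x → y ∈ A n)
    {f : ℕ → ℕ → ℤ → ℕ} {b : ℕ → ℕ → (ι → ℕ) × S} {a : ℕ → ι → ℕ}
    (hmk : ∀ᶠ n in (U : Filter ℕ), ∀ x ∈ A n,
      (T n).mem (lev n v) (zc (lev n v) x.2) (b n (f n x.1 (zc (lev n v) x.2))) (L n x.1) ∧
        (T n).adm (lev n v) (zc (lev n v) x.2) (b n (f n x.1 (zc (lev n v) x.2))) ∧
        (b n (f n x.1 (zc (lev n v) x.2))).1 = a n)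
    {D1 : ℕ → ℝ} (hD1 : ∀ n, 0 < D1 n)
    (hsz : ∀ᶠ n in (U : Filter ℕ), ∀ x ∈ A n, D1 n * (T n).vol (lev n v) (a n) ≤
        (((alive (A n) (lev n v) (zc (lev n v) x.2)).filter fun s =>
          f n s (zc (lev n v) x.2) = f n x.1 (zc (lev n v) x.2)).card : ℝ))
    {D0 : ℕ → ℝ} {η : ℝ} (hη : 0 < η)
    (hD : ∀ᶠ n in (U : Filter ℕ),
      D0 n ≤ B.d n ^ (η + bb * ((v : ℝ) - u)) * D1 n) :
    ∃ e : ℝ, 0 < e ∧ ∀ᶠ n in (U : Filter ℕ), ∀ J ⊆ A n,
      B.d n ^ e * ((I n).card : ℝ) ≤ (J.card : ℝ) →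
      ∃ (c : ℤ) (s : (ι → ℕ) × S), (T n).adm (lev n u) c s ∧
        D0 n * capP (T n) Ψ (lev n v) (a n) (lev n u) s.1 <
          (((alive J (lev n u) c).filter fun t => (T n).mem (lev n u) c s (L n t)).card : ℝ) := by
  obtain ⟨u₁, hu10, hu1u, hu1w, hKroom⟩ := hroom
  have hu : 0 < u := hu10.trans_lt hu1u
  have huR : (0 : ℝ) < u := by exact_mod_cast hu
  have huvR : (u : ℝ) < v := by exact_mod_cast huv
  have hw0 : (0 : ℝ) < (v : ℝ) - u := by linarith
  have hw1 : (v : ℝ) - u ≤ 1 := by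
    have h1 : (v : ℝ) ≤ 1 := by exact_mod_cast hv
    linarith
  set w : ℝ := (v : ℝ) - u with hw
  obtain ⟨δ0, hδ0, M0, hM0⟩ := hUB (η / 10) (by positivity)
  have hδw : 0 < δ0 * w := mul_pos hδ0 hw0
  -- the level of the big cell
  have hu1b : (u₁ : ℝ) < u := by exact_mod_cast hu1u
  have hu1v : u₁ < v := hu1u.trans huv
  set κ : ℝ := (u : ℝ) - u₁ with hκ
  have hκ0 : 0 < κ := by rw [hκ]; linarith
  -- the density exponent
  set e : ℝ := min (η / 100) (δ0 * w / 100) with he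
  have he0 : 0 < e := lt_min (by positivity) (by positivity)
  have heη : e ≤ η / 100 := min_le_left _ _
  have heδ : e ≤ δ0 * w / 100 := min_le_right _ _
  have hδκ : 0 < δ0 * κ := mul_pos hδ0 hκ0
  refine ⟨e, he0, ?_⟩
  have hlim := h.lev_lim u v hu.le huv.le hv
  have hlimh := h.lev_lim u₁ u hu10 hu1u.le (huv.le.trans hv)
  -- the exponent of `Kf`
  have hlim2 : Tendsto (fun n => ((bb + η / 10) * ((lev n v : ℝ) - lev n u)) * Real.log 2 /
      B.L n) U (𝓝 ((bb + η / 10) * w)) := by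
    refine (hlim.const_mul (bb + η / 10)).congr fun n => ?_
    ring
  have hK : ∀ᶠ n in (U : Filter ℕ), ((bb + η / 10) * ((lev n v : ℝ) - lev n u)) * Real.log 2 /
      B.L n < (bb + η / 10) * w + η / 10 := hlim2.eventually_lt_const (by linarith [hη])
  have hlim3 : Tendsto (fun n => (δ0 * ((lev n v : ℝ) - lev n u)) * Real.log 2 /
      B.L n) U (𝓝 (δ0 * w)) := by
    refine (hlim.const_mul δ0).congr fun n => ?_
    ring
  have hK2 : ∀ᶠ n in (U : Filter ℕ), δ0 * w / 2 < (δ0 * ((lev n v : ℝ) - lev n u)) * Real.log 2 /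
      B.L n := hlim3.eventually_const_lt (by linarith)
  have hlim4 : Tendsto (fun n => ((1 - δ0) * (((lev n v : ℝ) - lev n u) +
      ((lev n u : ℝ) - lev n u₁))) * Real.log 2 / B.L n) U (𝓝 ((1 - δ0) * (w + κ))) := by
    refine ((hlim.add hlimh).const_mul (1 - δ0)).congr fun n => ?_
    ring
  have hK3 : ∀ᶠ n in (U : Filter ℕ), ((1 - δ0) * (((lev n v : ℝ) - lev n u) +
      ((lev n u : ℝ) - lev n u₁))) * Real.log 2 / B.L n < w + κ - 4 * e :=
    hlim4.eventually_lt_const (by nlinarith)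
  -- `h ≤ M`
  have hlim5 : Tendsto (fun n => ((lev n u : ℝ) - lev n u₁) * Real.log 2 / B.L n -
      ((lev n v : ℝ) - lev n u) * Real.log 2 / B.L n) U (𝓝 (κ - w)) :=
    hlimh.sub hlim
  have hK5 : ∀ᶠ n in (U : Filter ℕ), ((lev n u : ℝ) - lev n u₁) * Real.log 2 / B.L n -
      ((lev n v : ℝ) - lev n u) * Real.log 2 / B.L n < 0 :=
    hlim5.eventually_lt_const (by linarith)
  have hcard := h.card (δ0 * w / 2) (by positivity)
  have hNev := hNd (δ0 * w / 2) (by positivity)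
  have hfu := h.fib u₁ hu10 (hu1v.le.trans hv) e he0
  have hfv := h.fib v (hu.le.trans huv.le) hv e he0
  have hsm : ∀ᶠ n in (U : Filter ℕ), B.d n ^ e < 1 / 4 :=
    dpow_small B (c := e) he0 (by norm_num)
  filter_upwards [hcl, hmk, hsz, hD, hK, hK2, hK3, hK5, hcard, hfu, hfv, hsm,
    h.lev_ge hu.le huv hv M0, h.lev_ge hu.le huv hv 1, h.ne, hNev,
    h.lev_mono u₁ u hu10 hu1u.le (huv.le.trans hv), hKroom] with n hcl hmk hsz hD hK hK2 hK3 hK5
    hcard hfu hfv hsm hM0' hM1 hne hNev hlm hKroom J hJ hJc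
  obtain ⟨M, hM⟩ : ∃ M, lev n v = lev n u + M := ⟨lev n v - lev n u, by omega⟩
  have hMR : (lev n v : ℝ) - lev n u = M := by rw [hM]; push_cast; ring
  have hhR : (lev n u : ℝ) - lev n u₁ = ((lev n u - lev n u₁ : ℕ) : ℝ) := by
    rw [Nat.cast_sub hlm]
  have hM0'' : M0 ≤ M := by omega
  have hM1' : 1 ≤ M := by omega
  rw [hMR] at hK hK2
  rw [hMR, hhR] at hK3 hK5
  set hh : ℕ := lev n u - lev n u₁ with hhh
  have hhM : hh ≤ M := by
    have hL := B.L_pos n
    have hlog0 : 0 < Real.log 2 := Real.log_pos (by norm_num)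
    have h1 : ((hh : ℝ) - M) * (Real.log 2 / B.L n) < 0 := by
      have : ((hh : ℝ) - M) * (Real.log 2 / B.L n) =
        (hh : ℝ) * Real.log 2 / B.L n - (M : ℝ) * Real.log 2 / B.L n := by ring
      rw [this]; exact hK5
    have h2 : 0 < Real.log 2 / B.L n := div_pos hlog0 hL
    by_contra hcon
    push Not at hcon
    have h3 : (M : ℝ) < hh := by exact_mod_cast hcon
    have : 0 ≤ ((hh : ℝ) - M) * (Real.log 2 / B.L n) :=
      mul_nonneg (by linarith) h2.le
    linarith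
  have hKM : M ≤ K * hh := by
    have : lev n v - lev n u = M := by omega
    rw [this] at hKroom
    exact hKroom
  rw [hM] at hcl hmk hsz hfv ⊢
  have hIc : (0 : ℝ) < ((I n).card : ℝ) := by exact_mod_cast card_pos.2 hne
  have z1 : ∀ x : ℝ, Zf 1 - Zf x = 0 := fun x => by simp [Zf]
  simp only [z1, add_zero] at hfu hfv
  refine cfg_lowK (T n) Ψ (N := N n) hlm (Kf := (2 : ℝ) ^ ((bb + η / 10) * M))
    (Kl := (2 : ℝ) ^ (δ0 * M)) (Kn := (2 : ℝ) ^ ((1 - δ0) * (M + hh : ℝ))) (hfin n) ?_ hM1'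
    (Subset.refl (I n)) (hA n) hJ hcl
    (L n) (f n) (b n) (a n) hmk (hD1 n) hsz
    (lu := B.d n ^ (-(1 - (u₁ : ℝ)) + e))
    (lv := B.d n ^ (-(1 - (v : ℝ)) + e))
    (hv := B.d n ^ (-(1 - (v : ℝ)) - e))
    (δ := B.d n ^ (2 * e)) (dpow_pos B n _) (dpow_pos B n _) (dpow_pos B n _) (dpow_pos B n _)
    (fun x hx => (hfu x hx).1) hfv ?_ ?_ ?_ ?_
  · intro F hF hFm hFM hFN hFc hFn
    have := hM0 (T n) (hT n) F hh hF (by rw [hFM]; exact hM0'') (by rw [hFM]; exact hKM)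
      (by rw [hFM]; exact hhM) (by rw [hFM]; exact hFc)
      (by rw [hFM, hFN]; exact hNev.trans (le_two_rpow hK2.le)) (by rw [hFM]; exact hFn)
    rw [hFM] at this
    exact this
  · -- density
    have e1 : B.d n ^ (2 * e) = B.d n ^ e * B.d n ^ e := by
      rw [← dpow_add]; congr 1; ring
    have hp := dpow_pos B n e
    refine lt_of_lt_of_le ?_ hJc
    rw [e1]
    have : 3 * (B.d n ^ e * B.d n ^ e) < B.d n ^ e := by nlinarith
    exact mul_lt_mul_of_pos_right this hIc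
  · -- logarithmic size
    refine hcard.trans ?_
    exact le_two_rpow hK2.le
  · -- own counts
    have e2 : B.d n ^ (2 * e) * B.d n ^ (-(1 - (u₁ : ℝ)) + e) / B.d n ^ (-(1 - (v : ℝ)) - e) =
        B.d n ^ (-(w + κ - 4 * e)) := by
      rw [← dpow_add, ← Real.rpow_sub (B.pos n)]
      congr 1
      rw [hw, hκ]; ring
    rw [e2]
    exact two_rpow_le hK3.le
  · -- the numerical inequality
    have hKf : (2 : ℝ) ^ ((bb + η / 10) * M) ≤ B.d n ^ (-((bb + η / 10) * w + η / 10)) :=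
      two_rpow_le hK.le
    have hD1n := hD1 n
    have h1 : (2 : ℝ) ^ ((bb + η / 10) * M) * D0 n ≤
        (2 : ℝ) ^ ((bb + η / 10) * M) * (B.d n ^ (η + bb * w) * D1 n) :=
      mul_le_mul_of_nonneg_left hD (Real.rpow_pos_of_pos two_pos _).le
    have h2 : (2 : ℝ) ^ ((bb + η / 10) * M) * (B.d n ^ (η + bb * w) * D1 n) ≤
        B.d n ^ (-((bb + η / 10) * w + η / 10)) * (B.d n ^ (η + bb * w) * D1 n) :=
      mul_le_mul_of_nonneg_right hKf (mul_pos (dpow_pos B n _) hD1n).le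
    refine lt_of_le_of_lt (h1.trans h2) ?_
    have e2 : B.d n ^ (-((bb + η / 10) * w + η / 10)) * (B.d n ^ (η + bb * w) * D1 n) =
        B.d n ^ (η - η / 10 - η / 10 * w) * D1 n := by
      rw [← mul_assoc, ← dpow_add]
      congr 2; ring
    have e3 : B.d n ^ (2 * e) * B.d n ^ (-(1 - (v : ℝ)) + e) / B.d n ^ (-(1 - (v : ℝ)) - e) *
        D1 n = B.d n ^ (4 * e) * D1 n := by
      rw [← dpow_add, ← Real.rpow_sub (B.pos n)]
      congr 2
      ring
    rw [e2, e3]
    refine mul_lt_mul_of_pos_right ?_ hD1n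
    refine Real.rpow_lt_rpow_of_exponent_gt (B.pos n) (B.lt n) ?_
    nlinarith

/-- room from a strict inequality -/
theorem room_of {K : ℕ} (hK : 2 ≤ K) (h : Sq B I lev Zf) {u v : ℚ} (hu : 0 ≤ u) (huv : u < v)
    (hv : v ≤ 1) (hs : (v : ℝ) < (K + 1) * u) : Room K lev u v := by
  have huvR : (u : ℝ) < v := by exact_mod_cast huv
  have hKR : (2 : ℝ) ≤ K := by exact_mod_cast hK
  have hKp : (0 : ℝ) < K := by linarith
  have huR : (0 : ℝ) ≤ u := by exact_mod_cast hu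
  obtain ⟨u₁, h1, h2⟩ : ∃ u₁ : ℚ, max (0 : ℝ) ((u : ℝ) - ((v : ℝ) - u)) < u₁ ∧
      (u₁ : ℝ) < u - ((v : ℝ) - u) / K := by
    refine exists_rat_btwn (max_lt ?_ ?_)
    · rw [sub_pos, div_lt_iff₀ hKp]
      linarith
    · have : ((v : ℝ) - u) / K < (v : ℝ) - u := by
        rw [div_lt_iff₀ hKp]
        nlinarith
      linarith
  have h3 : (0 : ℝ) < u₁ := (le_max_left _ _).trans_lt h1
  have h4 : (u : ℝ) - ((v : ℝ) - u) < u₁ := (le_max_right _ _).trans_lt h1
  have h5 : (0 : ℝ) < ((v : ℝ) - u) / K := div_pos (by linarith) hKp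
  have hu10 : 0 ≤ u₁ := by
    have : (0 : ℚ) < u₁ := by exact_mod_cast h3
    exact this.le
  have hu1u : u₁ < u := by
    have : (u₁ : ℝ) < u := by linarith
    exact_mod_cast this
  refine ⟨u₁, hu10, hu1u, by linarith, ?_⟩
  have l1 := h.lev_lim u v hu huv.le hv
  have l2 := h.lev_lim u₁ u hu10 hu1u.le (huv.le.trans hv)
  have l3 : Tendsto (fun n => ((lev n v : ℝ) - lev n u) * Real.log 2 / B.L n -
      K * (((lev n u : ℝ) - lev n u₁) * Real.log 2 / B.L n)) U
      (𝓝 (((v : ℝ) - u) - K * ((u : ℝ) - u₁))) := l1.sub (l2.const_mul (K : ℝ))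
  have h6 : ((v : ℝ) - u) - K * ((u : ℝ) - u₁) < 0 := by
    have : ((v : ℝ) - u) / K < (u : ℝ) - u₁ := by linarith
    rw [div_lt_iff₀ hKp] at this
    linarith
  filter_upwards [l3.eventually_lt_const h6, h.lev_mono u₁ u hu10 hu1u.le (huv.le.trans hv),
    h.lev_mono u v hu huv.le hv] with n h7 h8 h9
  have hL := B.L_pos n
  have hlog0 : 0 < Real.log 2 := Real.log_pos (by norm_num)
  have h10 : ((((lev n v : ℝ) - lev n u) - K * ((lev n u : ℝ) - lev n u₁))) *
      (Real.log 2 / B.L n) < 0 := by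
    refine lt_of_eq_of_lt ?_ h7
    ring
  have h11 : ((lev n v : ℝ) - lev n u) - K * ((lev n u : ℝ) - lev n u₁) < 0 := by
    by_contra hcon
    push Not at hcon
    have := mul_nonneg hcon (div_pos hlog0 hL).le
    linarith
  have h12 : ((lev n v - lev n u : ℕ) : ℝ) ≤ ((K * (lev n u - lev n u₁) : ℕ) : ℝ) := by
    rw [Nat.cast_sub h9, Nat.cast_mul, Nat.cast_sub h8]
    linarith
  exact_mod_cast h12

end

end Crest.Agent.R136.Yk953
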