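import Mathlib
import Crest.Agent.R136.Sft1_289
import Crest.Agent.R136.Sft2_289
import Crest.Agent.R136.Lo36_32
import Crest.Agent.R136.AllD4_823
import Crest.Agent.R136.Yk1_953
import Crest.Agent.R136.Dd1_325
import Crest.Agent.R136.DAl_879

/-!
# R136, block U4, route G (helper289), part 3: `soft36`

* `ParL η g q θ` : the parameter inequalities of the core (630's final literal);
* `SlP η g pp nn` : the two-sided slopes of the reward `psiG 0 pp nn`;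
* `marks` : consequences of `κ ≤ ψ 1 θ`;
* `soft36` : the enemy ⊢ a family of rewards with `RwdF`, `ChsK`, and all parameter inequalities.
-/

set_option autoImplicit false
set_option linter.unusedVariables false

open Finset

namespace Crest.Agent.R136.Sft289

open Crest.Agent.R136.KF879 Crest.Agent.R136.Tq879
open Crest.Agent.R136.Pen325
open Crest.Agent.R116.Psi635
open Crest.Agent.R116.Zl139 (LinAt)
open Crest.Agent.R136.Yc953 (RwdF)
open Crest.Agent.R136.Yk953 (ChsK)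
open Crest.Agent.R136.AllD823 (LipR lipR_RG)

/-- **the parameter inequalities of the core** -/
structure ParL (η g : ℝ) (q θ : Fin 3 → ℝ) : Prop where
  q0 : 0 < q 0 ∧ q 0 ≤ η * q 2
  q02 : q 0 ≤ η * q 2 ^ 2
  q2 : 0 < q 2 ∧ q 2 ≤ η * g
  q21 : q 2 ≤ η * q 1
  g0 : 0 < g ∧ 0 < q 1
  θ1 : 0 < θ 1
  θb : q 2 * max (θ 1 - θ 2) 0 + q 0 * (max (-(θ 0)) 0 + |θ 1| + |θ 2|) ≤ η * g
  θ1b : q 2 * θ 1 ≤ η * g ∧ q 2 * max (-(θ 2)) 0 ≤ η * g

/-- **two-sided slopes** of the reward `psiG 0 pp nn` : `pp - nn` (narrower tests), `pp + nn` (wider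
tests) -/
structure SlP (η g : ℝ) (pp nn : Fin 3 → ℝ) : Prop where
  nnp : ∀ j, 0 ≤ nn j ∧ nn j < pp j
  r0 : pp 0 + nn 0 ≤ η * (pp 2 - nn 2)
  r02 : pp 0 + nn 0 ≤ η * (pp 2 - nn 2) ^ 2
  r2 : pp 2 + nn 2 ≤ η * g
  r21 : pp 2 + nn 2 ≤ η * (pp 1 - nn 1)
  a0 : 2 * (pp 0 + nn 0) ≤ pp 2 - nn 2
  a1 : 8 * ((pp 2 + nn 2) + (pp 0 + nn 0)) ≤ pp 1 - nn 1

/-- **the slopes of the marks** -/
theorem marks {e w0 cu ct κ : ℝ} {θ : Fin 3 → ℝ} (he : 0 < e) (he1 : e ≤ 1) (hw : 0 < w0)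
    (hw1 : w0 ≤ 1) (hcu : 0 < cu) (hcu1 : cu ≤ 1 / 4) (hct : 0 < ct) (hcuκ : 4 * cu < κ)
    (h : κ / 4 ≤ psiG 0 (Da w0 cu) (Db e w0 cu ct) 1 θ) :
    0 < θ 1 ∧ θ 1 ≤ 2 / e ∧ cu * max (-(θ 2)) 0 ≤ 2 ∧ cu * (w0 * max (-(θ 0)) 0) ≤ 2 ∧
      |θ 2| ≤ 1 + 2 / ct := by
  have H := dir_val e w0 cu ct 1 θ
  have N0 : 0 ≤ nr 1 (θ 0) - 1 := N_nonneg
  have N1 : 0 ≤ nr 1 (θ 1) - 1 := N_nonneg
  have N2 : 0 ≤ nr 1 (θ 2) - 1 := N_nonneg
  have a0 := sub_N_le 1 (θ 0)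
  have a1 := sub_N_le 1 (θ 1)
  have a2 := sub_N_le 1 (θ 2)
  have b2 := le_nr_x 1 (θ 2)
  set n0 := nr 1 (θ 0) - 1 with hn0
  set n1 := nr 1 (θ 1) - 1 with hn1
  set n2 := nr 1 (θ 2) - 1 with hn2
  have hκ0 : 0 < κ := by linarith
  have k1 : cu * (θ 2 - n2) ≤ cu := by nlinarith
  have k0 : w0 * (θ 0 - n0) ≤ 1 := by nlinarith
  have k2 : cu * (w0 * (θ 0 - n0)) ≤ cu := by nlinarith
  have k3 : 0 ≤ ct * n2 := mul_nonneg hct.le N2
  have k4 : 0 ≤ ct * (w0 * n0) := mul_nonneg hct.le (mul_nonneg hw.le N0)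
  have k5 : 0 ≤ e * n1 := mul_nonneg he.le N1
  have H2 : κ / 2 ≤ (θ 1 - n1 - e * n1) + (cu * (θ 2 - n2) + cu * (w0 * (θ 0 - n0))) -
      (ct * n2 + ct * (w0 * n0)) := by
    have : (θ 1 - (1 + e) * n1) + cu * ((θ 2 - n2) + w0 * (θ 0 - n0)) -
        ct * (n2 + w0 * n0) = (θ 1 - n1 - e * n1) + (cu * (θ 2 - n2) + cu * (w0 * (θ 0 - n0))) -
      (ct * n2 + ct * (w0 * n0)) := by ring
    rw [← this, ← H]
    linarith
  have t1 : 0 < θ 1 - n1 - e * n1 := by linarith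
  have t2 : 0 < θ 1 := by linarith
  refine ⟨t2, ?_, ?_, ?_, ?_⟩
  · rw [le_div_iff₀ he]
    nlinarith
  · have g1 : -2 ≤ cu * θ 2 := by
      have : 0 ≤ cu * n2 := mul_nonneg hcu.le N2
      nlinarith
    rcases le_total (-(θ 2)) 0 with hc | hc
    · rw [max_eq_right hc]; linarith
    · rw [max_eq_left hc]; linarith
  · have g1 : -2 ≤ cu * (w0 * θ 0) := by
      have : 0 ≤ cu * (w0 * n0) := mul_nonneg hcu.le (mul_nonneg hw.le N0)
      nlinarith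
    rcases le_total (-(θ 0)) 0 with hc | hc
    · rw [max_eq_right hc]; linarith
    · rw [max_eq_left hc]; linarith
  · have g1 : ct * n2 ≤ 2 := by linarith
    have g2 : n2 ≤ 2 / ct := by rw [le_div_iff₀ hct]; linarith
    have g3 : nr 1 (θ 2) = n2 + 1 := by rw [hn2]; ring
    rw [g3] at b2
    linarith

/-- slopes of the family -/
theorem slopes {q1 q2 e w0 s u t : ℝ} {S : ℝ} (hq1 : 0 < q1) (hq2 : 0 < q2) (he : 0 ≤ e)
    (hw : 0 < w0) (hs : 0 ≤ s) (hsS : s ≤ S) (heS : e * S ≤ q1 / 2) (ht : 0 ≤ t)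
    (htq : t ≤ q2 / 2) (hqu : q2 ≤ u) :
    (∀ j, 0 ≤ Na e w0 s u t j) ∧
    (q1 / 2 ≤ Pa q1 q2 w0 s u 1 - Na e w0 s u t 1) ∧
    (q2 / 2 ≤ Pa q1 q2 w0 s u 2 - Na e w0 s u t 2) ∧
    (w0 * (q2 / 2) ≤ Pa q1 q2 w0 s u 0 - Na e w0 s u t 0) ∧
    (Pa q1 q2 w0 s u 2 + Na e w0 s u t 2 ≤ 4 * u) ∧
    (Pa q1 q2 w0 s u 0 + Na e w0 s u t 0 ≤ 4 * (w0 * u)) := by
  have hu : 0 < u := by linarith
  have e0 : Pa q1 q2 w0 s u 0 = w0 * (q2 + u) := rfl
  have e1 : Pa q1 q2 w0 s u 1 = q1 + s := rfl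
  have e2 : Pa q1 q2 w0 s u 2 = q2 + u := rfl
  have f0 : Na e w0 s u t 0 = w0 * (u + t) := rfl
  have f1 : Na e w0 s u t 1 = (1 + e) * s := rfl
  have f2 : Na e w0 s u t 2 = u + t := rfl
  have hes : e * s ≤ e * S := mul_le_mul_of_nonneg_left hsS he
  refine ⟨fun j => ?_, ?_, ?_, ?_, ?_, ?_⟩
  · fin_cases j
    · show 0 ≤ w0 * (u + t)
      positivity
    · show 0 ≤ (1 + e) * s
      positivity
    · show 0 ≤ u + t
      positivity
  · rw [e1, f1]; linarith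
  · rw [e2, f2]; linarith
  · rw [e0, f0]; nlinarith
  · rw [e2, f2]; linarith
  · rw [e0, f0]; nlinarith

/-- **the two-sided slopes** of the selected reward -/
theorem slP_fam {η b1 g q1 q2 e w0 s u t S u1 : ℝ} (hη : 0 < η) (hη1 : η ≤ 1 / 32) (hb1 : 0 < b1)
    (hg : b1 / 2 ≤ g) (hq1 : 0 < q1) (hq2 : 0 < q2) (he : 0 ≤ e)
    (hw : 0 < w0) (hs : 0 ≤ s) (hsS : s ≤ S) (heS : e * S ≤ q1 / 2) (ht : 0 ≤ t)
    (htq : t ≤ q2 / 2) (hqu : q2 ≤ u) (huu : u ≤ u1) (c1 : 4 * u1 ≤ η * (b1 / 2))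
    (c2 : 4 * u1 ≤ η * (q1 / 2)) (c5 : 4 * (w0 * u1) ≤ η * (q2 / 2))
    (c6 : 4 * (w0 * u1) ≤ η * (q2 / 2) ^ 2) :
    SlP η g (Pa q1 q2 w0 s u) (Na e w0 s u t) := by
  obtain ⟨h0, h1, h2, h3, h4, h5⟩ := slopes hq1 hq2 he hw hs hsS heS ht htq hqu
  have hwu : w0 * u ≤ w0 * u1 := mul_le_mul_of_nonneg_left huu hw.le
  have k1 : η * (q2 / 2) ≤ η * (Pa q1 q2 w0 s u 2 - Na e w0 s u t 2) :=
    mul_le_mul_of_nonneg_left h2 hη.le
  have k2 : η * (q2 / 2) ^ 2 ≤ η * (Pa q1 q2 w0 s u 2 - Na e w0 s u t 2) ^ 2 :=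
    mul_le_mul_of_nonneg_left (pow_le_pow_left₀ (by linarith) h2 2) hη.le
  have k3 : η * (b1 / 2) ≤ η * g := mul_le_mul_of_nonneg_left hg hη.le
  have k4 : η * (q1 / 2) ≤ η * (Pa q1 q2 w0 s u 1 - Na e w0 s u t 1) :=
    mul_le_mul_of_nonneg_left h1 hη.le
  have hD2 : 0 < Pa q1 q2 w0 s u 2 - Na e w0 s u t 2 := by linarith
  have hD1 : 0 < Pa q1 q2 w0 s u 1 - Na e w0 s u t 1 := by linarith
  have hD0 : 0 < Pa q1 q2 w0 s u 0 - Na e w0 s u t 0 := by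
    have : 0 < w0 * (q2 / 2) := by positivity
    linarith
  have k5 : η * (Pa q1 q2 w0 s u 2 - Na e w0 s u t 2) ≤
      1 / 32 * (Pa q1 q2 w0 s u 2 - Na e w0 s u t 2) := mul_le_mul_of_nonneg_right hη1 hD2.le
  have k6 : η * (Pa q1 q2 w0 s u 1 - Na e w0 s u t 1) ≤
      1 / 32 * (Pa q1 q2 w0 s u 1 - Na e w0 s u t 1) := mul_le_mul_of_nonneg_right hη1 hD1.le
  have hN2 : 0 ≤ Na e w0 s u t 2 := h0 2
  refine ⟨fun j => ⟨h0 j, ?_⟩, by linarith, by linarith, by linarith, by linarith, by linarith,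
    by linarith⟩
  fin_cases j
  · show Na e w0 s u t 0 < Pa q1 q2 w0 s u 0
    linarith
  · show Na e w0 s u t 1 < Pa q1 q2 w0 s u 1
    linarith
  · show Na e w0 s u t 2 < Pa q1 q2 w0 s u 2
    linarith

/-- **the parameter inequalities** of the selected reward -/
theorem parL_of {η b1 g G q1 q2 e w0 s u t S u1 cu ct a κ : ℝ} {pp nn ql θ : Fin 3 → ℝ}
    (hη : 0 < η) (hb1 : 0 < b1)
    (hg : b1 / 2 ≤ g) (hG : g ≤ G) (hq1 : 0 < q1) (hq2 : 0 < q2) (he : 0 < e)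
    (hw : 0 < w0) (hw1 : w0 ≤ 1) (hu : 0 < u) (huu : u ≤ u1)
    (d1 : q1 / 2 ≤ ql 1) (d2 : q2 / 2 ≤ ql 2) (d0 : 0 < ql 0) (d2' : ql 2 ≤ 4 * u)
    (d0' : ql 0 ≤ 4 * (w0 * u))
    (c1 : 4 * u1 ≤ η * (b1 / 2)) (c2 : 4 * u1 ≤ η * (q1 / 2))
    (c3 : 4 * u1 * (2 / e) ≤ η * b1 / 16) (c4 : 8 / cu * u ≤ η * b1 / 16)
    (c5 : 4 * (w0 * u1) ≤ η * (q2 / 2)) (c6 : 4 * (w0 * u1) ≤ η * (q2 / 2) ^ 2)
    (c7 : 4 * (w0 * u1) * (1 + 2 / ct) ≤ η * b1 / 16) (hcu : 0 < cu) (hct : 0 < ct)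
    (m1 : 0 < θ 1) (m2 : θ 1 ≤ 2 / e) (m3 : cu * max (-(θ 2)) 0 ≤ 2)
    (m4 : cu * (w0 * max (-(θ 0)) 0) ≤ 2) (m5 : |θ 2| ≤ 1 + 2 / ct) :
    ParL η G ql θ := by
  have hu1 : 0 < u1 := hu.trans_le huu
  have hwu : w0 * u ≤ w0 * u1 := mul_le_mul_of_nonneg_left huu hw.le
  have hG2 : η * (b1 / 2) ≤ η * G := mul_le_mul_of_nonneg_left (hg.trans hG) hη.le
  have hX : (0 : ℝ) ≤ 2 / e := by positivity
  have hY : (0 : ℝ) ≤ 1 + 2 / ct := by positivity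
  have hql2 : 0 < ql 2 := by linarith
  have k1 : η * (q2 / 2) ≤ η * ql 2 := mul_le_mul_of_nonneg_left d2 hη.le
  have k2 : η * (q2 / 2) ^ 2 ≤ η * ql 2 ^ 2 :=
    mul_le_mul_of_nonneg_left (pow_le_pow_left₀ (by linarith) d2 2) hη.le
  have k4 : η * (q1 / 2) ≤ η * ql 1 := mul_le_mul_of_nonneg_left d1 hη.le
  have hηb : 0 < η * b1 := by positivity
  -- `q₂ θ₁`
  have A1 : ql 2 * θ 1 ≤ η * b1 / 16 := by
    refine le_trans ?_ c3
    exact mul_le_mul (by linarith) m2 m1.le (by linarith)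
  -- `q₂ θ₂⁻`
  have M2 : 0 ≤ max (-(θ 2)) 0 := le_max_right _ _
  have A2 : ql 2 * max (-(θ 2)) 0 ≤ η * b1 / 16 := by
    refine le_trans ?_ c4
    have : max (-(θ 2)) 0 ≤ 2 / cu := by
      rw [le_div_iff₀ hcu]; linarith
    calc ql 2 * max (-(θ 2)) 0 ≤ 4 * u * (2 / cu) := mul_le_mul d2' this M2 (by positivity)
      _ = 8 / cu * u := by ring
  -- `q₀ θ₀⁻`
  have M0 : 0 ≤ max (-(θ 0)) 0 := le_max_right _ _
  have A3 : ql 0 * max (-(θ 0)) 0 ≤ η * b1 / 16 := by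
    refine le_trans ?_ c4
    have : w0 * max (-(θ 0)) 0 ≤ 2 / cu := by
      rw [le_div_iff₀ hcu]; linarith
    calc ql 0 * max (-(θ 0)) 0 ≤ 4 * (w0 * u) * max (-(θ 0)) 0 :=
          mul_le_mul_of_nonneg_right d0' M0
      _ = 4 * u * (w0 * max (-(θ 0)) 0) := by ring
      _ ≤ 4 * u * (2 / cu) := mul_le_mul_of_nonneg_left this (by positivity)
      _ = 8 / cu * u := by ring
  -- `q₀ |θ₁|`
  have A4 : ql 0 * |θ 1| ≤ η * b1 / 16 := by
    refine le_trans ?_ c3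
    rw [abs_of_pos m1]
    have h1 : ql 0 ≤ 4 * u1 := by
      have : w0 * u1 ≤ 1 * u1 := mul_le_mul_of_nonneg_right hw1 hu1.le
      linarith
    exact mul_le_mul h1 m2 m1.le (by linarith)
  -- `q₀ |θ₂|`
  have A5 : ql 0 * |θ 2| ≤ η * b1 / 16 := by
    refine le_trans ?_ c7
    exact mul_le_mul (by linarith) m5 (abs_nonneg _) (by positivity)
  -- `q₂ (θ₁ - θ₂)⁺`
  have A6 : ql 2 * max (θ 1 - θ 2) 0 ≤ η * b1 / 8 := by
    have h1 : max (θ 1 - θ 2) 0 ≤ θ 1 + max (-(θ 2)) 0 := by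
      refine max_le ?_ (by linarith)
      have := le_max_left (-(θ 2)) 0
      linarith
    have h2 := mul_le_mul_of_nonneg_left h1 hql2.le
    rw [mul_add] at h2
    linarith
  refine ⟨⟨d0, by linarith⟩, by linarith, ⟨hql2, by linarith⟩, by linarith,
    ⟨by linarith, by linarith⟩, m1, ?_, ⟨by linarith, by linarith⟩⟩
  have : ql 0 * (max (-(θ 0)) 0 + |θ 1| + |θ 2|) =
      ql 0 * max (-(θ 0)) 0 + ql 0 * |θ 1| + ql 0 * |θ 2| := by ring
  rw [this]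
  linarith

/-- the base point: the reward is small on the box `0 ≤ x j ≤ l` -/
theorem fam_base {q1 q2 e w0 s u t c l : ℝ} {x : Fin 3 → ℝ} (hq1 : 0 ≤ q1) (hq2 : 0 ≤ q2)
    (he : 0 ≤ e) (hw : 0 ≤ w0) (hw1 : w0 ≤ 1) (hs : 0 ≤ s) (hu : 0 ≤ u) (ht : 0 ≤ t)
    (hc : q1 + s + 2 * (q2 + u) ≤ c) (hl : 0 ≤ l) (hx : ∀ j, 0 ≤ x j ∧ x j ≤ l) :
    fam q1 q2 e w0 s u t l x ≤ c * l := by
  rw [fam_val]
  have N0 : 0 ≤ nr l (x 0) - l := N_nonneg
  have N1 : 0 ≤ nr l (x 1) - l := N_nonneg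
  have N2 : 0 ≤ nr l (x 2) - l := N_nonneg
  obtain ⟨a0, b0⟩ := hx 0
  obtain ⟨a1, b1⟩ := hx 1
  obtain ⟨a2, b2⟩ := hx 2
  set n0 := nr l (x 0) - l with hn0
  set n1 := nr l (x 1) - l with hn1
  set n2 := nr l (x 2) - l with hn2
  have k1 : q1 * x 1 ≤ q1 * l := mul_le_mul_of_nonneg_left b1 hq1
  have k2 : s * (x 1 - (1 + e) * n1) ≤ s * l := by
    refine mul_le_mul_of_nonneg_left ?_ hs
    have : 0 ≤ (1 + e) * n1 := by positivity
    linarith
  have k3 : (q2 + u) * x 2 - (u + t) * n2 ≤ (q2 + u) * l := by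
    have h1 : (q2 + u) * x 2 ≤ (q2 + u) * l := mul_le_mul_of_nonneg_left b2 (by linarith)
    have h2 : 0 ≤ (u + t) * n2 := by positivity
    linarith
  have k4 : w0 * ((q2 + u) * x 0 - (u + t) * n0) ≤ (q2 + u) * l := by
    have h1 : (q2 + u) * x 0 ≤ (q2 + u) * l := mul_le_mul_of_nonneg_left b0 (by linarith)
    have h2 : 0 ≤ (u + t) * n0 := by positivity
    have h3 : 0 ≤ (q2 + u) * l := by positivity
    calc w0 * ((q2 + u) * x 0 - (u + t) * n0) ≤ w0 * ((q2 + u) * l) :=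
          mul_le_mul_of_nonneg_left (by linarith) hw
      _ ≤ 1 * ((q2 + u) * l) := mul_le_mul_of_nonneg_right hw1 h3
      _ = _ := one_mul _
  have k5 := mul_le_mul_of_nonneg_right hc hl
  nlinarith

/-- the end bound of the family -/
theorem fam_end {q1 q2 e w0 s u t u1 C1 l : ℝ} {x : Fin 3 → ℝ} (hq1 : 0 ≤ q1) (hq2 : 0 < q2)
    (he : 0 ≤ e) (hw : 0 ≤ w0) (hs : 0 ≤ s) (ht : 0 ≤ t) (htq : t ≤ q2 / 2) (hqu : q2 ≤ u)
    (huu : u ≤ u1) (hC : 0 ≤ C1) (heC : e * C1 ≤ 8 / 100) (hwC : 4 * (w0 * u1) * C1 ≤ 1)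
    (hl : 0 ≤ l) (hx : ∀ j, |x j| ≤ C1 * l) (hx1 : l ≤ x 1) (hx2 : l ≤ x 2) :
    (s / 2 - 1) * l ≤ fam q1 q2 e w0 s u t l x := by
  rw [fam_val]
  have N0 : 0 ≤ nr l (x 0) - l := N_nonneg
  have N1 : 0 ≤ nr l (x 1) - l := N_nonneg
  have M0 := N_le (x := x 0) hl
  have M1 := N_le (x := x 1) hl
  have M2 := N_le (x := x 2) hl
  have F1 := N_le_far hl hx1
  have X1 := hx 1
  have X0 := hx 0
  rw [abs_of_nonneg (hl.trans hx1)] at M1 X1
  rw [abs_of_nonneg (hl.trans hx2)] at M2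
  set n0 := nr l (x 0) - l with hn0
  set n1 := nr l (x 1) - l with hn1
  set n2 := nr l (x 2) - l with hn2
  have hu : 0 < u := by linarith
  have k1 : 0 ≤ q1 * x 1 := mul_nonneg hq1 (hl.trans hx1)
  have k2 : s * (l / 2) ≤ s * (x 1 - (1 + e) * n1) := by
    refine mul_le_mul_of_nonneg_left ?_ hs
    have h1 : e * n1 ≤ 8 / 100 * l := by
      calc e * n1 ≤ e * (C1 * l) := mul_le_mul_of_nonneg_left (M1.trans X1) he
        _ = e * C1 * l := by ring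
        _ ≤ 8 / 100 * l := mul_le_mul_of_nonneg_right heC hl
    nlinarith
  have k3 : 0 ≤ (q2 + u) * x 2 - (u + t) * n2 := by
    have h1 : (u + t) * n2 ≤ (u + t) * x 2 := mul_le_mul_of_nonneg_left M2 (by linarith)
    have h2 : (u + t) * x 2 ≤ (q2 + u) * x 2 :=
      mul_le_mul_of_nonneg_right (by linarith) (hl.trans hx2)
    linarith
  have k4 : -l ≤ w0 * ((q2 + u) * x 0 - (u + t) * n0) := by
    have h1 : -((q2 + u) * (C1 * l)) ≤ (q2 + u) * x 0 := by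
      have := neg_abs_le (x 0)
      have h3 : (q2 + u) * (-(C1 * l)) ≤ (q2 + u) * x 0 :=
        mul_le_mul_of_nonneg_left (by linarith) (by linarith)
      linarith
    have h2 : (u + t) * n0 ≤ (u + t) * (C1 * l) :=
      mul_le_mul_of_nonneg_left (M0.trans X0) (by linarith)
    have h3 : -(4 * u1 * (C1 * l)) ≤ (q2 + u) * x 0 - (u + t) * n0 := by
      have h4 : 0 ≤ C1 * l := mul_nonneg hC hl
      have h5 : (q2 + 2 * u + t) * (C1 * l) ≤ 4 * u1 * (C1 * l) :=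
        mul_le_mul_of_nonneg_right (by linarith) h4
      nlinarith
    have h6 := mul_le_mul_of_nonneg_left h3 hw
    have h7 : w0 * -(4 * u1 * (C1 * l)) = -(4 * (w0 * u1) * C1 * l) := by ring
    have h8 := mul_le_mul_of_nonneg_right hwC hl
    rw [h7] at h6
    linarith
  nlinarith

theorem SlP.ex2 {η g : ℝ} {pp nn : Fin 3 → ℝ} (h : SlP η g pp nn) (hD2 : 0 < pp 2 - nn 2) :
    DAl879.Ex2 η (fun j => pp j - nn j) (fun j => pp j + nn j) where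
  le := fun k => ⟨by have := (h.nnp k).2; linarith, by have := (h.nnp k).1; linarith⟩
  pos := hD2
  e02 := h.a0
  e1 := h.a1
  e00 := h.r02
  e21 := h.r21

set_option maxHeartbeats 1600000 in
/-- **`soft36`, one configuration of constants**: the selected reward, raw form. -/
theorem soft36_raw {η : ℝ} (hη : 0 < η) (hη1 : η ≤ 1 / 32) {K : ℕ} (hE : EnemyH K TT36) :
    ∃ (p n a b pp nn : Fin 3 → ℝ) (q0 Qm κ δ0 g : ℝ),
      RG 0 0 p n a b q0 = psiG 0 pp nn ∧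
      RwdF (RG 0 0 p n a b) (psiG 0 a b) q0 Qm ∧ ChsK K TT36 (RG 0 0 p n a b) q0 Qm κ δ0 q0 g ∧
      0 < g ∧ SlP η g pp nn ∧ 
      ∀ θ, κ ≤ psiG 0 a b 1 θ → ParL η (g + dlG 0 nn θ) (dwG pp nn θ) θ := by
  obtain ⟨b0', hb0', hlow'⟩ := low36 hE fit36
  obtain ⟨C1, hC1, hend⟩ := bdd36s K
  -- the size of the enemy
  obtain ⟨b0, hb0, hb01, hlow⟩ : ∃ b0 : ℝ, 0 < b0 ∧ b0 ≤ 1 ∧
      ∀ (Ψ : ℝ → (Fin 3 → ℝ) → ℝ) (c : ℝ),
      (∀ l x, 0 ≤ l → (∀ j, 0 ≤ x j ∧ x j ≤ l) → Ψ l x ≤ c * l) →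
      ∀ b : ℝ, b < b0 - c → ¬ UBH K TT36 Ψ b :=
    ⟨min b0' 1, lt_min hb0' one_pos, min_le_right _ _, fun Ψ c h b hb =>
      hlow' Ψ c h b (hb.trans_le (by have := min_le_left b0' 1; linarith))⟩
  set CU : ℝ := C1 + 1 with hCU
  set S : ℝ := 2 * CU with hS
  set b1 : ℝ := b0 / 2 with hb1
  set κ : ℝ := b1 / (2 * S) with hκ
  set q1 : ℝ := b0 / 16 with hq1
  have pCU : 1 < CU := by rw [hCU]; linarith
  have pS : 2 < S := by rw [hS]; linarith
  have pb1 : 0 < b1 := by rw [hb1]; positivity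
  have pκ : 0 < κ := by rw [hκ]; positivity
  have hκS : κ * S = b1 / 2 := by rw [hκ]; field_simp
  have hκ1 : κ ≤ 1 := by
    rw [hκ, div_le_one (by positivity)]; linarith
  have pq1 : 0 < q1 := by rw [hq1]; positivity
  obtain ⟨e, he, he1, heS, heC⟩ : ∃ e : ℝ, 0 < e ∧ e ≤ 1 ∧ e * S ≤ q1 / 2 ∧ e * C1 ≤ 8 / 100 := by
    refine ⟨min 1 (min (q1 / 2 / S) (8 / 100 / C1)), by positivity, min_le_left _ _, ?_, ?_⟩
    · rw [← le_div_iff₀ (by positivity)]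
      exact (min_le_right _ _).trans (min_le_left _ _)
    · rw [← le_div_iff₀ (by positivity)]
      exact (min_le_right _ _).trans (min_le_right _ _)
  set a : ℝ := η * b1 * κ / 1024 with ha
  have pa : 0 < a := by rw [ha]; positivity
  obtain ⟨u1, hu1, g1, g2, g3, g4, g5⟩ : ∃ u1 : ℝ, 0 < u1 ∧ 4 * u1 ≤ η * (b1 / 2) ∧
      4 * u1 ≤ η * (q1 / 2) ∧ 4 * u1 * (2 / e) ≤ η * b1 / 16 ∧ u1 ≤ a / 2 ∧ u1 ≤ b0 / 64 := by
    refine ⟨min (min (η * (b1 / 2) / 4) (η * (q1 / 2) / 4))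
      (min (η * b1 / 16 / (4 * (2 / e))) (min (a / 2) (b0 / 64))), by positivity, ?_, ?_, ?_, ?_, ?_⟩
    · have := (min_le_left (min (η * (b1 / 2) / 4) (η * (q1 / 2) / 4))
        (min (η * b1 / 16 / (4 * (2 / e))) (min (a / 2) (b0 / 64)))).trans (min_le_left _ _)
      linarith
    · have := (min_le_left (min (η * (b1 / 2) / 4) (η * (q1 / 2) / 4))
        (min (η * b1 / 16 / (4 * (2 / e))) (min (a / 2) (b0 / 64)))).trans (min_le_right _ _)
      linarith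
    · have h3 := (min_le_right (min (η * (b1 / 2) / 4) (η * (q1 / 2) / 4))
        (min (η * b1 / 16 / (4 * (2 / e))) (min (a / 2) (b0 / 64)))).trans (min_le_left _ _)
      rw [le_div_iff₀ (by positivity)] at h3
      calc _ = _ := by ring
        _ ≤ _ := h3
    · exact (min_le_right _ _).trans ((min_le_right _ _).trans (min_le_left _ _))
    · exact (min_le_right _ _).trans ((min_le_right _ _).trans (min_le_right _ _))
  set u0 : ℝ := u1 * Real.exp (-(CU / a)) with hu0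
  have pu0 : 0 < u0 := by rw [hu0]; positivity
  have hu01 : u0 ≤ u1 := by
    rw [hu0]
    have : Real.exp (-(CU / a)) ≤ 1 := Real.exp_le_one_iff.2 (by
      have : 0 ≤ CU / a := by positivity
      linarith)
    calc u1 * Real.exp (-(CU / a)) ≤ u1 * 1 := mul_le_mul_of_nonneg_left this hu1.le
      _ = u1 := mul_one _
  have hlog : Real.log u1 - Real.log u0 = CU / a := by
    rw [hu0, Real.log_mul hu1.ne' (Real.exp_pos _).ne', Real.log_exp]; ring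
  set t1 : ℝ := u0 / 2 with ht1
  have pt1 : 0 < t1 := by rw [ht1]; positivity
  set K' : ℝ := CU / t1 with hK'
  have pK' : 0 < K' := by rw [hK']; positivity
  have hK't : K' * t1 = CU := by rw [hK']; field_simp
  set ct : ℝ := κ / (4 * K') with hct
  have pct : 0 < ct := by rw [hct]; positivity
  have hctK : K' * ct = κ / 4 := by rw [hct]; field_simp
  have ht11 : t1 ≤ 1 := by
    rw [ht1]; linarith
  have hK'1 : 1 ≤ K' := by
    rw [hK', le_div_iff₀ pt1]; linarith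
  have hct1 : ct ≤ 1 := by
    rw [hct, div_le_one (by positivity)]; linarith
  obtain ⟨w0, hw, hw1, f1, f2, f3, f4⟩ : ∃ w0 : ℝ, 0 < w0 ∧ w0 ≤ 1 ∧
      4 * (w0 * u1) * C1 ≤ 1 ∧ 4 * (w0 * u1) ≤ η * (u0 / 2) ∧ 4 * (w0 * u1) ≤ η * (u0 / 2) ^ 2 ∧
      4 * (w0 * u1) * (1 + 2 / ct) ≤ η * b1 / 16 := by
    have hsm : ∀ c d : ℝ, 0 < c → 0 < d → ∀ w : ℝ, w ≤ d / c → c * w ≤ d := by
      intro c d hc hd w hw
      rw [le_div_iff₀ hc] at hw
      linarith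
    refine ⟨min 1 (min (min (1 / (4 * u1 * C1)) (η * (u0 / 2) / (4 * u1)))
      (min (η * (u0 / 2) ^ 2 / (4 * u1)) (η * b1 / 16 / (4 * u1 * (1 + 2 / ct))))),
      by positivity, min_le_left _ _, ?_, ?_, ?_, ?_⟩
    · have := hsm (4 * u1 * C1) 1 (by positivity) one_pos _
        ((min_le_right (1 : ℝ) (min (min (1 / (4 * u1 * C1)) (η * (u0 / 2) / (4 * u1)))
      (min (η * (u0 / 2) ^ 2 / (4 * u1)) (η * b1 / 16 / (4 * u1 * (1 + 2 / ct)))))).trans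
          ((min_le_left _ _).trans (min_le_left _ _)))
      calc _ = _ := by ring
        _ ≤ _ := this
    · have := hsm (4 * u1) (η * (u0 / 2)) (by positivity) (by positivity) _
        ((min_le_right (1 : ℝ) (min (min (1 / (4 * u1 * C1)) (η * (u0 / 2) / (4 * u1)))
      (min (η * (u0 / 2) ^ 2 / (4 * u1)) (η * b1 / 16 / (4 * u1 * (1 + 2 / ct)))))).trans
          ((min_le_left _ _).trans (min_le_right _ _)))
      calc _ = _ := by ring
        _ ≤ _ := this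
    · have := hsm (4 * u1) (η * (u0 / 2) ^ 2) (by positivity) (by positivity) _
        ((min_le_right (1 : ℝ) (min (min (1 / (4 * u1 * C1)) (η * (u0 / 2) / (4 * u1)))
      (min (η * (u0 / 2) ^ 2 / (4 * u1)) (η * b1 / 16 / (4 * u1 * (1 + 2 / ct)))))).trans
          ((min_le_right _ _).trans (min_le_left _ _)))
      calc _ = _ := by ring
        _ ≤ _ := this
    · have := hsm (4 * u1 * (1 + 2 / ct)) (η * b1 / 16) (by positivity) (by positivity) _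
        ((min_le_right (1 : ℝ) (min (min (1 / (4 * u1 * C1)) (η * (u0 / 2) / (4 * u1)))
      (min (η * (u0 / 2) ^ 2 / (4 * u1)) (η * b1 / 16 / (4 * u1 * (1 + 2 / ct)))))).trans
          ((min_le_right _ _).trans (min_le_right _ _)))
      calc _ = _ := by ring
        _ ≤ _ := this
  set s0 : ℝ := b0 / 16 with hs0
  have ps0 : 0 < s0 := by rw [hs0]; positivity
  -- selection
  obtain ⟨s, u, t, g, hs1, hs2, hu2, hu3, ht2, ht3, hg, hlo, hub, hdrop⟩ :=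
    sel_abs (K := K) (𝒯 := TT36) (fam := fam q1 u0 e w0) (s0 := s0) (u0 := u0) (u1 := u1)
      (t0 := 0) (t1 := t1) (CU := CU) (b1 := b1) (κ := κ) (a := a) (K' := K')
      (show s0 ≤ S by rw [hs0]; linarith) ps0.le pu0 hu01 pt1.le pb1 pκ hκS.le pa pK'.le
      (by linarith)
      (fun s s' u u' t t' _ h2 _ _ h5 _ _ h8 _ l x hl => fam_mono he.le hw.le hw1 h2 h5 h8 hl x)
      (fun b hb => hlow _ (b0 / 2) (fun l x hl hx => fam_base pq1.le pu0.le he.le hw.le hw1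
        ps0.le pu0.le le_rfl (by rw [hq1, hs0]; linarith) hl hx) b (by rw [hb1] at hb; linarith))
      (by
        intro s u t h1 h2 h3 h4 h5 h6
        have := hend (fam q1 u0 e w0 s u t) (s / 2 - 1) (fun l x hl hx hx1 hx2 =>
          fam_end pq1.le pu0 he.le hw.le (ps0.le.trans h1) h5 (by rw [ht1] at h6; exact h6) h3 h4
            hC1.le heC f1 hl hx hx1 hx2)
        have e1 : C1 - (s / 2 - 1) = CU - s / 2 := by rw [hCU]; ring
        rwa [e1] at this)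
      (by rw [hS]) (by rw [hlog]; exact le_of_eq (by field_simp))
      (by rw [sub_zero, hK't])
  have ps : 0 < s := ps0.trans_le hs1
  have pu : 0 < u := pu0.trans_le hu2
  have pg : 0 < g := by linarith
  set cu : ℝ := κ * u / (4 * a) with hcu
  have pcu : 0 < cu := by rw [hcu]; positivity
  have hcua : a / u * cu = κ / 4 := by rw [hcu]; field_simp
  have hcu8 : cu ≤ κ / 8 := by
    rw [hcu, div_le_iff₀ (by positivity)]
    have : κ * u ≤ κ * (a / 2) := mul_le_mul_of_nonneg_left (by linarith) pκ.le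
    linarith
  have hcuu : 8 / cu * u ≤ η * b1 / 16 := by
    have e1 : 8 / cu * u = 32 * a / κ := by rw [hcu]; field_simp; ring
    rw [e1, ha]
    have e2 : 32 * (η * b1 * κ / 1024) / κ = η * b1 / 32 := by field_simp; ring
    rw [e2]
    have : 0 < η * b1 := by positivity
    linarith
  set q0 : ℝ := min s0 u0 with hq0
  have pq0 : 0 < q0 := lt_min ps0 pu0
  set δ0 : ℝ := min (S - s) (min (u1 - u) (t1 - t)) with hδ0
  have pδ0 : 0 < δ0 := lt_min (by linarith) (lt_min (by linarith) (by linarith))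
  have hfam : ∀ δ : ℝ, RG 0 0 (fun j => Pa q1 u0 w0 s u j - q0 * Da w0 cu j)
      (fun j => Na e w0 s u t j - q0 * Db e w0 cu ct j) (Da w0 cu) (Db e w0 cu ct) (q0 + δ) =
      fam q1 u0 e w0 (s + δ / 2) (u + cu * (δ / 2)) (t + ct * (δ / 2)) := fun δ =>
    fam_dir q1 u0 e w0 s u t cu ct q0 δ
  have hfam0 : RG 0 0 (fun j => Pa q1 u0 w0 s u j - q0 * Da w0 cu j)
      (fun j => Na e w0 s u t j - q0 * Db e w0 cu ct j) (Da w0 cu) (Db e w0 cu ct) q0 =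
      fam q1 u0 e w0 s u t := by
    have := hfam 0
    simpa using this
  obtain ⟨z0, z1, z2, z3, z4, z5⟩ := slopes (t := t) pq1 pu0 he.le hw ps.le hs2.le heS ht2
    (by rw [ht1] at ht3; linarith) hu2
  have hsl : SlP η g (Pa q1 u0 w0 s u) (Na e w0 s u t) :=
    slP_fam hη hη1 pb1 hg pq1 pu0 he.le hw ps.le hs2.le heS ht2 (by rw [ht1] at ht3; linarith)
      hu2 hu3.le g1 g2 f2 f3
  refine ⟨_, _, Da w0 cu, Db e w0 cu ct, Pa q1 u0 w0 s u, Na e w0 s u t, q0, q0 + δ0, κ / 4, δ0, g,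
    hfam0, ?_, ?_, pg, hsl, ?_⟩
  · -- `RwdF`
    refine rwdG (fun j => ?_) (fun j => ?_) (fun l x hl => ?_) pq0 _
    · have hq0s : q0 ≤ s0 := min_le_left _ _
      have hq0u : q0 ≤ u0 := min_le_right _ _
      have hcc : cu + ct ≤ 2 := by linarith
      fin_cases j
      · show 0 ≤ w0 * (u + t) - q0 * (w0 * ((cu + ct) / 2))
        have h1 : q0 * ((cu + ct) / 2) ≤ u0 * 1 :=
          mul_le_mul hq0u (by linarith) (by positivity) pu0.le
        have h2 : 0 ≤ w0 * (u + t - q0 * ((cu + ct) / 2)) := mul_nonneg hw.le (by linarith)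
        linarith
      · show 0 ≤ (1 + e) * s - q0 * ((1 + e) / 2)
        have h2 : 0 ≤ (1 + e) * (s - q0 / 2) := mul_nonneg (by linarith) (by linarith)
        linarith
      · show 0 ≤ u + t - q0 * ((cu + ct) / 2)
        have h1 : q0 * ((cu + ct) / 2) ≤ u0 * 1 :=
          mul_le_mul hq0u (by linarith) (by positivity) pu0.le
        linarith
    · fin_cases j
      · show |w0 * (cu / 2)| < w0 * ((cu + ct) / 2)
        rw [abs_of_pos (by positivity)]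
        exact mul_lt_mul_of_pos_left (by linarith) hw
      · show |(1 / 2 : ℝ)| < (1 + e) / 2
        rw [abs_of_pos (by norm_num)]; linarith
      · show |cu / 2| < (cu + ct) / 2
        rw [abs_of_pos (by positivity)]; linarith
    · have h1 := dir_val e w0 cu ct l x
      have N0 : 0 ≤ nr l (x 0) - l := N_nonneg
      have N1 : 0 ≤ nr l (x 1) - l := N_nonneg
      have N2 : 0 ≤ nr l (x 2) - l := N_nonneg
      have a0 := sub_N_le l (x 0)
      have a1 := sub_N_le l (x 1)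
      have a2 := sub_N_le l (x 2)
      set n0 := nr l (x 0) - l with hn0
      set n1 := nr l (x 1) - l with hn1
      set n2 := nr l (x 2) - l with hn2
      have k1 : 0 ≤ e * n1 := mul_nonneg he.le N1
      have k2 : w0 * (x 0 - n0) ≤ l := by
        calc w0 * (x 0 - n0) ≤ w0 * l := mul_le_mul_of_nonneg_left a0 hw.le
          _ ≤ 1 * l := mul_le_mul_of_nonneg_right hw1 hl
          _ = l := one_mul l
      have k3 : cu * ((x 2 - n2) + w0 * (x 0 - n0)) ≤ 1 / 2 * (2 * l) := by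
        calc cu * ((x 2 - n2) + w0 * (x 0 - n0)) ≤ cu * (2 * l) :=
              mul_le_mul_of_nonneg_left (by linarith) pcu.le
          _ ≤ 1 / 2 * (2 * l) := mul_le_mul_of_nonneg_right (by linarith) (by positivity)
      have k4 : 0 ≤ ct * (n2 + w0 * n0) :=
        mul_nonneg pct.le (add_nonneg N2 (mul_nonneg hw.le N0))
      have k5 : x 1 - (1 + e) * n1 = x 1 - n1 - e * n1 := by ring
      rw [k5] at h1
      linarith
  · -- `ChsK`
    refine ⟨by positivity, pδ0, le_rfl, le_rfl, fun b hb => ?_, ?_, fun δ hδ hδδ => ?_⟩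
    · rw [hfam0]; exact hlo b hb
    · rw [hfam0]; exact hub
    · rw [hfam δ]
      have j1 : δ ≤ S - s := hδδ.trans (min_le_left _ _)
      have j2 : δ ≤ u1 - u := hδδ.trans ((min_le_right _ _).trans (min_le_left _ _))
      have j3 : δ ≤ t1 - t := hδδ.trans ((min_le_right _ _).trans (min_le_right _ _))
      have i2 : cu * (δ / 2) ≤ 1 * (δ / 2) :=
        mul_le_mul_of_nonneg_right (by linarith) (by positivity)
      have i3 : ct * (δ / 2) ≤ 1 * (δ / 2) :=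
        mul_le_mul_of_nonneg_right hct1 (by positivity)
      have h1 := hdrop (δ / 2) (cu * (δ / 2)) (ct * (δ / 2)) (by positivity) (by positivity)
        (by positivity) (by linarith) (by linarith) (by linarith)
      have e1 : g - κ * (δ / 2) + a / u * (cu * (δ / 2)) + K' * (ct * (δ / 2)) =
          g - κ / 4 * δ := by
        have e2 : a / u * (cu * (δ / 2)) = (a / u * cu) * (δ / 2) := by ring
        have e3 : K' * (ct * (δ / 2)) = (K' * ct) * (δ / 2) := by ring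
        rw [e2, e3, hcua, hctK]; ring
      rwa [e1] at h1
  · -- the parameters
    intro θ hθ
    obtain ⟨m1, m2, m3, m4, m5⟩ := marks he he1 hw hw1 pcu (by linarith only [hcu8, hκ1]) pct
      (by linarith only [hcu8, pκ]) hθ
    have d0 := dwG_ge (a := Pa q1 u0 w0 s u) (b := Na e w0 s u t) (j := 0) (z0 0) θ
    have d1 := dwG_ge (a := Pa q1 u0 w0 s u) (b := Na e w0 s u t) (j := 1) (z0 1) θ
    have d2 := dwG_ge (a := Pa q1 u0 w0 s u) (b := Na e w0 s u t) (j := 2) (z0 2) θ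
    have d0' := dwG_le (a := Pa q1 u0 w0 s u) (b := Na e w0 s u t) (j := 0) (z0 0) θ
    have d2' := dwG_le (a := Pa q1 u0 w0 s u) (b := Na e w0 s u t) (j := 2) (z0 2) θ
    have dl := dlG_ge (s := 0) (b := Na e w0 s u t) z0 θ
    have hp0 : 0 < w0 * (u0 / 2) := by positivity
    clear_value κ q1 a u0 t1 K' ct s0 cu q0 δ0 CU S b1
    have v1 : q1 / 2 ≤ dwG (Pa q1 u0 w0 s u) (Na e w0 s u t) θ 1 := z1.trans d1
    have v2 : u0 / 2 ≤ dwG (Pa q1 u0 w0 s u) (Na e w0 s u t) θ 2 := z2.trans d2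
    have v0 : 0 < dwG (Pa q1 u0 w0 s u) (Na e w0 s u t) θ 0 := hp0.trans_le (z3.trans d0)
    have v2' : dwG (Pa q1 u0 w0 s u) (Na e w0 s u t) θ 2 ≤ 4 * u := d2'.trans z4
    have v0' : dwG (Pa q1 u0 w0 s u) (Na e w0 s u t) θ 0 ≤ 4 * (w0 * u) := d0'.trans z5
    have vG : g ≤ g + dlG 0 (Na e w0 s u t) θ := le_add_of_nonneg_right dl
    exact parL_of (pp := Pa q1 u0 w0 s u) (nn := Na e w0 s u t) (s := s) (t := t) (S := S) (a := a)
      (κ := κ) hη pb1 hg vG pq1 pu0 he hw hw1 pu hu3.le v1 v2 v0 v2' v0'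
      g1 g2 g3 hcuu f2 f3 f4 pcu pct m1 m2 m3 m4 m5

/-- `ParL` and `SlP` are monotone in `η`. -/
theorem ParL.mono {η η' g : ℝ} {q θ : Fin 3 → ℝ} (h : ParL η g q θ) (hη : η ≤ η') :
    ParL η' g q θ := by
  have hg : 0 < g := h.g0.1
  have hq2 : 0 < q 2 := h.q2.1
  have hq1 : 0 < q 1 := h.g0.2
  have k1 : η * g ≤ η' * g := mul_le_mul_of_nonneg_right hη hg.le
  have k2 : η * q 2 ≤ η' * q 2 := mul_le_mul_of_nonneg_right hη hq2.le
  have k3 : η * q 1 ≤ η' * q 1 := mul_le_mul_of_nonneg_right hη hq1.le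
  have k4 : η * q 2 ^ 2 ≤ η' * q 2 ^ 2 := mul_le_mul_of_nonneg_right hη (by positivity)
  exact ⟨⟨h.q0.1, h.q0.2.trans k2⟩, h.q02.trans k4, ⟨h.q2.1, h.q2.2.trans k1⟩, h.q21.trans k3,
    h.g0, h.θ1, h.θb.trans k1, ⟨h.θ1b.1.trans k1, h.θ1b.2.trans k1⟩⟩

/-- **`soft36`** (G1): the enemy gives a one-parameter family of rewards with `RwdF`, `ChsK`, the
two-sided slopes, and all parameter inequalities of the core for the marks of every output. -/
theorem soft36 {η : ℝ} (hη : 0 < η) {K : ℕ} (hK : 2 ≤ K) (hE : EnemyH K TT36) :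
    ∃ (P : ℝ → ℝ → (Fin 3 → ℝ) → ℝ) (ψ : ℝ → (Fin 3 → ℝ) → ℝ) (q0 Qm κ δ0 q g : ℝ),
      RwdF P ψ q0 Qm ∧ ChsK K TT36 P q0 Qm κ δ0 q g ∧ 0 < g ∧
      (∃ Kl : ℝ, 0 ≤ Kl ∧ LipR (P q) Kl) ∧
      (∃ qm qp : Fin 3 → ℝ, DAl879.Ex2 η qm qp ∧ TwoS (P q) qm qp) ∧
      ∀ θ, κ ≤ ψ 1 θ → ∃ (gl : ℝ) (ql : Fin 3 → ℝ), 0 ≤ gl ∧ LinAt (P q) θ gl ql ∧
        ParL η (g + gl) ql θ := by
  obtain ⟨p, n, a, b, pp, nn, q0, Qm, κ, δ0, g, h1, h2, h3, h4, h5, h6⟩ :=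
    soft36_raw (η := min η (1 / 32)) (lt_min hη (by norm_num)) (min_le_right _ _) hE
  have hη' : min η (1 / 32) ≤ η := min_le_left _ _
  refine ⟨RG 0 0 p n a b, psiG 0 a b, q0, Qm, κ, δ0, q0, g, h2, h3, h4, ?_, ?_, fun θ hθ => ?_⟩
  · exact lipR_RG 0 0 p n a b q0
  · refine ⟨_, _, (h5.ex2 (by have := (h5.nnp 2).2; linarith)).mono hη', ?_⟩
    rw [h1]
    exact twoS_psiG fun j => (h5.nnp j).1
  · refine ⟨dlG 0 nn θ, dwG pp nn θ, dlG_ge (fun j => (h5.nnp j).1) θ, ?_, (h6 θ hθ).mono hη'⟩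
    rw [h1]
    exact linAtG 0 pp nn θ

end Crest.Agent.R136.Sft289
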