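import Crest.Agent.R136.Sh3_605

/-!
# R136 (S0187): projection of a box of the normalised space, with the correction bounds (helper605)

As `exists_cov`, with bounds of the linear form `<n i0, (0, x1 / W1, x2 / W2)>` on the axes of the base
rectangle.
-/

set_option autoImplicit false
set_option linter.unusedVariables false

namespace Crest.Agent.R136.Sh605

open Finset

/-- `Cov` and the bounds of the correction on the base rectangle -/
structure CovC (n : Fin 3 → V3) (s : V3) (W1 W2 : ℝ) (i0 : Fin 3) (α β A B : ℝ) : Prop where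
  cov : Cov n s W1 W2 i0 α β A B
  corA : ∀ S, (∀ i, s i ≤ S) →
    A * |n i0 1 / W1 * α + n i0 2 / W2 * β| ≤ 3 * (s i0 + S * |n i0 0|)
  corB : ∀ S, (∀ i, s i ≤ S) →
    B * |n i0 1 / W1 * -β + n i0 2 / W2 * α| ≤ 6 * (s i0 + S * |n i0 0|)

set_option maxHeartbeats 1000000 in
theorem exists_covC {n : Fin 3 → V3} (hn : Ortho n) {s : V3} (hs : ∀ i, 0 < s i) {W1 W2 : ℝ}
    (hW2 : 0 < W2) (hW : W2 ≤ W1) : ∃ (i0 : Fin 3) (α β A B : ℝ), CovC n s W1 W2 i0 α β A B := by
  have hW1 : 0 < W1 := by linarith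
  set p : Fin 3 → ℝ := fun i => s i * (W1 * n i 1) with hp
  set r : Fin 3 → ℝ := fun i => s i * (W2 * n i 2) with hr
  set M : Fin 3 → ℝ := fun i => Real.sqrt (p i ^ 2 + r i ^ 2) with hM
  have hM0 : ∀ i, 0 ≤ M i := fun i => Real.sqrt_nonneg _
  have hM2 : ∀ i, M i ^ 2 = p i ^ 2 + r i ^ 2 := fun i => Real.sq_sqrt (by positivity)
  obtain ⟨i1, hi1⟩ := Finite.exists_max M
  obtain ⟨i0, hi0⟩ := Finite.exists_max fun i => |n i 0| / s i
  -- positivity of `M i1`
  have hMp : 0 < M i1 := by
    obtain ⟨i, hi⟩ := hn.exists_half 1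
    have h1 : 0 < M i := by
      apply Real.sqrt_pos.2
      have h2 : 0 < p i ^ 2 := by
        have h3 : n i 1 ≠ 0 := by
          intro h; rw [h, abs_zero] at hi; norm_num at hi
        have : p i ≠ 0 := mul_ne_zero (hs i).ne' (mul_ne_zero hW1.ne' h3)
        positivity
      nlinarith [sq_nonneg (r i)]
    exact h1.trans_le (hi1 i)
  have hn0 : n i0 0 ≠ 0 := by
    obtain ⟨i, hi⟩ := hn.exists_half 0
    have h1 : 0 < |n i 0| / s i := div_pos (by linarith) (hs i)
    have h2 := h1.trans_le (hi0 i)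
    intro h
    simp only [h, abs_zero, zero_div, lt_self_iff_false] at h2
  have hn0' : 0 < |n i0 0| := abs_pos.2 hn0
  set α := p i1 / M i1 with hα
  set β := r i1 / M i1 with hβ
  have hunit : α ^ 2 + β ^ 2 = 1 := by
    rw [hα, hβ, div_pow, div_pow, ← add_div, ← hM2, div_self]
    positivity
  have hpM : ∀ i, |p i| ≤ M i := fun i => by
    rw [← Real.sqrt_sq_eq_abs]
    exact Real.sqrt_le_sqrt (by nlinarith [sq_nonneg (r i)])
  have hrM : ∀ i, |r i| ≤ M i := fun i => by
    rw [← Real.sqrt_sq_eq_abs]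
    exact Real.sqrt_le_sqrt (by nlinarith [sq_nonneg (p i)])
  have hαi : ∀ i, |α * p i + β * r i| ≤ M i := fun i => cs2 hunit (hM0 i) (hM2 i).symm
  have hβi : ∀ i, |-β * p i + α * r i| ≤ M i := fun i =>
    cs2 (by rw [neg_pow_two, add_comm]; exact hunit) (hM0 i) (hM2 i).symm
  set B : ℝ := |-β * p 0 + α * r 0| + |-β * p 1 + α * r 1| + |-β * p 2 + α * r 2| with hB
  have hu1 : ∀ u : V3, α * (W1 * u 1) + β * (W2 * u 2) =
      dt (n 0) u / s 0 * (α * p 0 + β * r 0) + dt (n 1) u / s 1 * (α * p 1 + β * r 1) +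
      dt (n 2) u / s 2 * (α * p 2 + β * r 2) := by
    intro u
    have e1 := hn.expand u 1
    have e2 := hn.expand u 2
    have g : ∀ i, dt (n i) u / s i * (α * p i + β * r i) =
        dt (n i) u * (α * (W1 * n i 1) + β * (W2 * n i 2)) := by
      intro i
      have := (hs i).ne'
      simp only [hp, hr]
      field_simp
    rw [g, g, g]
    calc α * (W1 * u 1) + β * (W2 * u 2) = α * (W1 * (dt (n 0) u * n 0 1 + dt (n 1) u * n 1 1 +
          dt (n 2) u * n 2 1)) + β * (W2 * (dt (n 0) u * n 0 2 + dt (n 1) u * n 1 2 +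
          dt (n 2) u * n 2 2)) := by rw [← e1, ← e2]
      _ = _ := by ring
  have hu2 : ∀ u : V3, -β * (W1 * u 1) + α * (W2 * u 2) =
      dt (n 0) u / s 0 * (-β * p 0 + α * r 0) + dt (n 1) u / s 1 * (-β * p 1 + α * r 1) +
      dt (n 2) u / s 2 * (-β * p 2 + α * r 2) := by
    intro u
    have e1 := hn.expand u 1
    have e2 := hn.expand u 2
    have g : ∀ i, dt (n i) u / s i * (-β * p i + α * r i) =
        dt (n i) u * (-β * (W1 * n i 1) + α * (W2 * n i 2)) := by
      intro i
      have := (hs i).ne'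
      simp only [hp, hr]
      field_simp
    rw [g, g, g]
    calc -β * (W1 * u 1) + α * (W2 * u 2) = -β * (W1 * (dt (n 0) u * n 0 1 + dt (n 1) u * n 1 1 +
          dt (n 2) u * n 2 1)) + α * (W2 * (dt (n 0) u * n 0 2 + dt (n 1) u * n 1 2 +
          dt (n 2) u * n 2 2)) := by rw [← e1, ← e2]
      _ = _ := by ring
  have hone : ∀ u : V3, (∀ i, |dt (n i) u| ≤ s i) → ∀ (i : Fin 3) (y : ℝ),
      |dt (n i) u / s i * y| ≤ |y| := by
    intro u hu i y
    rw [abs_mul, abs_div, abs_of_pos (hs i)]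
    have : |dt (n i) u| / s i ≤ 1 := (div_le_one (hs i)).2 (hu i)
    nlinarith [abs_nonneg y]
  have habs3 : ∀ x y z : ℝ, |x + y + z| ≤ |x| + |y| + |z| := fun x y z =>
    (abs_add_le _ _).trans (by gcongr; exact abs_add_le _ _)
  have hBM : B ≤ 3 * M i1 := by
    rw [hB]
    linarith [hβi 0, hβi 1, hβi 2, hi1 0, hi1 1, hi1 2]
  -- determinants
  have hdet : ∀ i, |-β * p i + α * r i| * M i1 =
      s i1 * s i * (W1 * W2) * |n i1 1 * n i 2 - n i1 2 * n i 1| := by
    intro i
    have e1 : (-β * p i + α * r i) * M i1 =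
        (s i1 * s i * (W1 * W2)) * (n i1 1 * n i 2 - n i1 2 * n i 1) := by
      rw [hα, hβ]
      field_simp
      simp only [hp, hr]
      ring
    calc |-β * p i + α * r i| * M i1 = |(-β * p i + α * r i) * M i1| := by
          rw [abs_mul, abs_of_pos hMp]
      _ = _ := by
          rw [e1, abs_mul, abs_of_pos]
          have := hs i1
          have := hs i
          positivity
  have hsp : 0 < s 0 * s 1 * s 2 := mul_pos (mul_pos (hs 0) (hs 1)) (hs 2)
  -- each determinant
  have hdet2 : ∀ i, |-β * p i + α * r i| * M i1 * (s i0 / |n i0 0|) ≤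
      W1 * W2 * (s 0 * s 1 * s 2) := by
    intro i
    rw [hdet i]
    have hmain : ∀ k, i1 ≠ i → i1 ≠ k → i ≠ k → s i1 * s i * s k = s 0 * s 1 * s 2 →
        s i1 * s i * (W1 * W2) * |n i1 1 * n i 2 - n i1 2 * n i 1| * (s i0 / |n i0 0|) ≤
          W1 * W2 * (s 0 * s 1 * s 2) := by
      intro k h1 h2 h3 h4
      rw [minor_abs hn h1 h2 h3]
      have h5 := hi0 k
      have h6 : |n k 0| * (s i0 / |n i0 0|) ≤ s k := by
        rw [div_le_div_iff₀ (hs k) (hs i0)] at h5
        rw [← mul_div_assoc, div_le_iff₀ hn0']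
        linarith
      calc s i1 * s i * (W1 * W2) * |n k 0| * (s i0 / |n i0 0|) =
          s i1 * s i * (W1 * W2) * (|n k 0| * (s i0 / |n i0 0|)) := by ring
        _ ≤ s i1 * s i * (W1 * W2) * s k := by
            have := hs i1
            have := hs i
            gcongr
        _ = W1 * W2 * (s i1 * s i * s k) := by ring
        _ = _ := by rw [h4]
    by_cases hii : i1 = i
    · rw [hii]
      have : n i 1 * n i 2 - n i 2 * n i 1 = 0 := by ring
      rw [this, abs_zero, mul_zero, zero_mul]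
      positivity
    · have : ∃ k, i1 ≠ k ∧ i ≠ k ∧ s i1 * s i * s k = s 0 * s 1 * s 2 := by
        fin_cases i1 <;> fin_cases i <;> simp at hii
        · exact ⟨2, by decide, by decide, rfl⟩
        · exact ⟨1, by decide, by decide, by simp only [Fin.reduceFinMk, Fin.zero_eta]; ring⟩
        · exact ⟨2, by decide, by decide, by simp only [Fin.mk_one, Fin.zero_eta]; ring⟩
        · exact ⟨0, by decide, by decide, by simp only [Fin.mk_one, Fin.reduceFinMk]; ring⟩
        · exact ⟨1, by decide, by decide, by simp only [Fin.reduceFinMk, Fin.zero_eta]; ring⟩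
        · exact ⟨0, by decide, by decide, by simp only [Fin.mk_one, Fin.reduceFinMk]; ring⟩
      obtain ⟨k, hk1, hk2, hk3⟩ := this
      exact hmain k hii hk1 hk2 hk3
  -- lower bound of `B`
  have hlow : M i1 ≤ s i1 * W1 * (|n i1 1 * n 0 2 - n i1 2 * n 0 1| +
      |n i1 1 * n 1 2 - n i1 2 * n 1 1| + |n i1 1 * n 2 2 - n i1 2 * n 2 1|) := by
    have hsum : ∀ j k, i1 ≠ j → i1 ≠ k → j ≠ k →
        n i1 1 ^ 2 + n i1 2 ^ 2 ≤ (|n i1 1 * n j 2 - n i1 2 * n j 1| +
          |n i1 1 * n k 2 - n i1 2 * n k 1|) ^ 2 := by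
      intro j k h1 h2 h3
      rw [minor_abs hn h1 h2 h3, minor_abs hn h2 h1 h3.symm]
      have h4 := hn i1 i1
      have h5 := hn.col 0 0
      simp only [dt, if_true] at h4 h5
      have h6 : n i1 0 * n i1 0 + n j 0 * n j 0 + n k 0 * n k 0 = 1 := by
        clear_value M p r α β B
        fin_cases i1 <;> fin_cases j <;> fin_cases k <;> simp at h1 h2 h3 ⊢ <;> linarith
      nlinarith [sq_abs (n j 0), sq_abs (n k 0), abs_nonneg (n j 0), abs_nonneg (n k 0),
        mul_nonneg (abs_nonneg (n j 0)) (abs_nonneg (n k 0))]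
    set T := |n i1 1 * n 0 2 - n i1 2 * n 0 1| +
      |n i1 1 * n 1 2 - n i1 2 * n 1 1| + |n i1 1 * n 2 2 - n i1 2 * n 2 1| with hT
    have hT0 : 0 ≤ T := by positivity
    have hT2 : n i1 1 ^ 2 + n i1 2 ^ 2 ≤ T ^ 2 := by
      have hz : |n i1 1 * n i1 2 - n i1 2 * n i1 1| = 0 := by rw [abs_eq_zero]; ring
      clear_value M p r α β B
      fin_cases i1
      · refine (hsum 1 2 (by decide) (by decide) (by decide)).trans ?_
        simp only [Fin.zero_eta] at hz hT ⊢
        rw [hT, hz, zero_add]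
      · refine (hsum 0 2 (by decide) (by decide) (by decide)).trans ?_
        simp only [Fin.mk_one] at hz hT ⊢
        rw [hT, hz, add_zero]
      · refine (hsum 0 1 (by decide) (by decide) (by decide)).trans ?_
        simp only [Fin.reduceFinMk] at hz hT ⊢
        rw [hT, hz, add_zero]
    have hM3 : M i1 ^ 2 ≤ (s i1 * W1 * T) ^ 2 := by
      rw [hM2]
      have e1 : p i1 ^ 2 + r i1 ^ 2 = s i1 ^ 2 * (W1 ^ 2 * n i1 1 ^ 2 + W2 ^ 2 * n i1 2 ^ 2) := by
        simp only [hp, hr]; ring
      have e2 : W2 ^ 2 ≤ W1 ^ 2 := by gcongr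
      rw [e1]
      calc s i1 ^ 2 * (W1 ^ 2 * n i1 1 ^ 2 + W2 ^ 2 * n i1 2 ^ 2) ≤
          s i1 ^ 2 * (W1 ^ 2 * n i1 1 ^ 2 + W1 ^ 2 * n i1 2 ^ 2) := by gcongr
        _ = (s i1 * W1) ^ 2 * (n i1 1 ^ 2 + n i1 2 ^ 2) := by ring
        _ ≤ (s i1 * W1) ^ 2 * T ^ 2 := by gcongr
        _ = _ := by ring
    have := hs i1
    exact (abs_le_of_sq_le_sq' hM3 (by positivity)).2
  have hBlow : ∀ σ, (∀ i, σ ≤ s i) → σ * W2 ≤ B := by
    intro σ hσ
    rcases le_or_gt σ 0 with h0 | h0
    · have : 0 ≤ B := by positivity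
      nlinarith
    have e1 : B * M i1 = s i1 * s 0 * (W1 * W2) * |n i1 1 * n 0 2 - n i1 2 * n 0 1| +
        s i1 * s 1 * (W1 * W2) * |n i1 1 * n 1 2 - n i1 2 * n 1 1| +
        s i1 * s 2 * (W1 * W2) * |n i1 1 * n 2 2 - n i1 2 * n 2 1| := by
      rw [← hdet 0, ← hdet 1, ← hdet 2, hB]; ring
    have e2 : σ * W2 * M i1 ≤ B * M i1 := by
      rw [e1]
      have := hs i1
      calc σ * W2 * M i1 ≤ σ * W2 * (s i1 * W1 * (|n i1 1 * n 0 2 - n i1 2 * n 0 1| +
            |n i1 1 * n 1 2 - n i1 2 * n 1 1| + |n i1 1 * n 2 2 - n i1 2 * n 2 1|)) := by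
            gcongr
        _ = s i1 * σ * (W1 * W2) * |n i1 1 * n 0 2 - n i1 2 * n 0 1| +
            s i1 * σ * (W1 * W2) * |n i1 1 * n 1 2 - n i1 2 * n 1 1| +
            s i1 * σ * (W1 * W2) * |n i1 1 * n 2 2 - n i1 2 * n 2 1| := by ring
        _ ≤ _ := by
            gcongr
            · exact hσ 0
            · exact hσ 1
            · exact hσ 2
    exact le_of_mul_le_mul_right e2 hMp
  -- the correction on the edges
  set l : ℝ → ℝ → ℝ := fun x y => n i0 1 / W1 * x + n i0 2 / W2 * y with hl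
  have hlE : ∀ S, (∀ i, s i ≤ S) → ∀ i, |l (p i) (r i)| ≤ s i0 + S * |n i0 0| := by
    intro S hS i
    have e1 : l (p i) (r i) = s i * (n i0 1 * n i 1 + n i0 2 * n i 2) := by
      simp only [hl, hp, hr]
      field_simp
    have e2 := hn i0 i
    simp only [dt] at e2
    have e3 : n i0 1 * n i 1 + n i0 2 * n i 2 = (if i0 = i then 1 else 0) - n i0 0 * n i 0 := by
      linarith
    have h3 := hs i
    have h4 := hn.abs_le_one i 0
    have h5 := hS i
    have h6 : s i * |n i0 0 * n i 0| ≤ S * |n i0 0| := by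
      rw [abs_mul]
      calc s i * (|n i0 0| * |n i 0|) ≤ S * (|n i0 0| * 1) := by
            have := h3.le.trans h5
            gcongr
        _ = _ := by ring
    rw [e1, e3, abs_mul, abs_of_pos h3]
    by_cases hii : i0 = i
    · rw [if_pos hii]
      have h7 : |1 - n i0 0 * n i 0| ≤ 1 + |n i0 0 * n i 0| := by
        refine (abs_sub _ _).trans ?_
        rw [abs_one]
      have h8 : s i * |1 - n i0 0 * n i 0| ≤ s i * (1 + |n i0 0 * n i 0|) :=
        mul_le_mul_of_nonneg_left h7 h3.le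
      have h9 : s i0 = s i := by rw [hii]
      linarith
    · rw [if_neg hii, zero_sub, abs_neg]
      have := hs i0
      linarith
  have hladd : ∀ x y x' y' t : ℝ, l (x - t * x') (y - t * y') = l x y - t * l x' y' := by
    intros; simp only [hl]; ring
  have hcorA : ∀ S, (∀ i, s i ≤ S) → 3 * M i1 * |l α β| ≤ 3 * (s i0 + S * |n i0 0|) := by
    intro S hS
    have e1 : M i1 * l α β = l (p i1) (r i1) := by
      simp only [hl, hα, hβ]
      field_simp
    have e2 : M i1 * |l α β| = |l (p i1) (r i1)| := by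
      rw [← e1, abs_mul, abs_of_pos hMp]
    have := hlE S hS i1
    rw [mul_assoc, e2]
    linarith
  have hcorB : ∀ S, (∀ i, s i ≤ S) → B * |l (-β) α| ≤ 6 * (s i0 + S * |n i0 0|) := by
    intro S hS
    have hα2 : α * M i1 = p i1 := by rw [hα]; field_simp
    have hβ2 : β * M i1 = r i1 := by rw [hβ]; field_simp
    have g : ∀ i, |-β * p i + α * r i| * |l (-β) α| ≤ 2 * (s i0 + S * |n i0 0|) := by
      intro i
      have e1 : (-β * p i + α * r i) * l (-β) α =
          l (p i) (r i) - (α * p i + β * r i) * l α β := by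
        have h1 : (-β * p i + α * r i) * -β = p i - (α * p i + β * r i) * α := by
          linear_combination (p i) * hunit
        have h2 : (-β * p i + α * r i) * α = r i - (α * p i + β * r i) * β := by
          linear_combination (r i) * hunit
        rw [← hladd, ← h1, ← h2]
        simp only [hl]; ring
      rw [← abs_mul, e1]
      refine (abs_sub _ _).trans ?_
      rw [abs_mul]
      have h3 := hlE S hS i
      have h4 : |α * p i + β * r i| * |l α β| ≤ M i1 * |l α β| :=
        mul_le_mul_of_nonneg_right ((hαi i).trans (hi1 i)) (abs_nonneg _)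
      have h5 := hcorA S hS
      linarith
    rw [hB, add_mul, add_mul]
    linarith [g 0, g 1, g 2]
  refine ⟨i0, α, β, 3 * M i1, B, ?_, hcorA, hcorB⟩
  refine
    { unit := hunit
      Bpos := ?_
      BA := hBM
      n0 := hn0
      in1 := ?_
      in2 := ?_
      vol := ?_
      A_le := ?_
      Ab_le := ?_
      B_le := ?_
      le_B := hBlow
      a_le := ?_
      le_a := ?_ }
  · obtain ⟨i, hi⟩ := Finite.exists_min s
    have h1 := hBlow (s i) hi
    have h2 := hs i
    have : 0 < s i * W2 := by positivity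
    linarith
  · intro u hu
    rw [hu1 u]
    refine (habs3 _ _ _).trans ?_
    linarith [hone u hu 0 (α * p 0 + β * r 0), hone u hu 1 (α * p 1 + β * r 1),
      hone u hu 2 (α * p 2 + β * r 2), hαi 0, hαi 1, hαi 2, hi1 0, hi1 1, hi1 2]
  · intro u hu
    rw [hu2 u]
    refine (habs3 _ _ _).trans ?_
    rw [hB]
    linarith [hone u hu 0 (-β * p 0 + α * r 0), hone u hu 1 (-β * p 1 + α * r 1),
      hone u hu 2 (-β * p 2 + α * r 2)]
  · calc 3 * M i1 * B * (s i0 / |n i0 0|) =
        3 * (|-β * p 0 + α * r 0| * M i1 * (s i0 / |n i0 0|) +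
          |-β * p 1 + α * r 1| * M i1 * (s i0 / |n i0 0|) +
          |-β * p 2 + α * r 2| * M i1 * (s i0 / |n i0 0|)) := by rw [hB]; ring
      _ ≤ 3 * (W1 * W2 * (s 0 * s 1 * s 2) + W1 * W2 * (s 0 * s 1 * s 2) +
          W1 * W2 * (s 0 * s 1 * s 2)) := by
          linarith [hdet2 0, hdet2 1, hdet2 2]
      _ = _ := by ring
  · intro S hS
    have h1 : M i1 ≤ s i1 * W1 := by
      have h3 := hs i1
      refine (abs_le_of_sq_le_sq' ?_ (by positivity)).2
      rw [hM2]
      have e1 : p i1 ^ 2 + r i1 ^ 2 = s i1 ^ 2 * (W1 ^ 2 * n i1 1 ^ 2 + W2 ^ 2 * n i1 2 ^ 2) := by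
        simp only [hp, hr]; ring
      have e2 : W2 ^ 2 ≤ W1 ^ 2 := by gcongr
      have h4 := hn i1 i1
      simp only [dt, if_true] at h4
      rw [e1]
      calc s i1 ^ 2 * (W1 ^ 2 * n i1 1 ^ 2 + W2 ^ 2 * n i1 2 ^ 2) ≤
          s i1 ^ 2 * (W1 ^ 2 * n i1 1 ^ 2 + W1 ^ 2 * n i1 2 ^ 2) := by gcongr
        _ = (s i1 * W1) ^ 2 * (n i1 1 ^ 2 + n i1 2 ^ 2) := by ring
        _ ≤ (s i1 * W1) ^ 2 * 1 := by
            gcongr
            nlinarith [mul_self_nonneg (n i1 0)]
        _ = _ := by ring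
    have h2 := hS i1
    calc 3 * M i1 ≤ 3 * (s i1 * W1) := by linarith
      _ ≤ 3 * (S * W1) := by gcongr
      _ = _ := by ring
  · intro S hS
    have h1 : |β| = |r i1| / M i1 := by rw [hβ, abs_div, abs_of_pos hMp]
    have h2 : 3 * M i1 * |β| = 3 * |r i1| := by rw [h1]; field_simp
    rw [h2]
    have h3 : |r i1| ≤ S * W2 := by
      have h4 := hn.abs_le_one i1 2
      have h5 := hs i1
      simp only [hr]
      have hS0 : 0 ≤ S := h5.le.trans (hS i1)
      rw [abs_mul, abs_mul, abs_of_pos h5, abs_of_pos hW2]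
      calc s i1 * (W2 * |n i1 2|) ≤ S * (W2 * 1) := by
            gcongr
            exact hS i1
        _ = _ := by ring
    linarith
  · intro S hS
    have hri : ∀ i, |r i| ≤ S * W2 := by
      intro i
      have h4 := hn.abs_le_one i 2
      have h5 := hs i
      simp only [hr]
      have hS0 : 0 ≤ S := h5.le.trans (hS i)
      rw [abs_mul, abs_mul, abs_of_pos h5, abs_of_pos hW2]
      calc s i * (W2 * |n i 2|) ≤ S * (W2 * 1) := by
            gcongr
            exact hS i
        _ = _ := by ring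
    have hSW : 0 ≤ S * W2 := (abs_nonneg _).trans (hri 0)
    have g : ∀ i, |-β * p i + α * r i| ≤ 2 * (S * W2) := by
      intro i
      have h1 : |-β * p i + α * r i| * M i1 ≤ 2 * (S * W2) * M i1 := by
        have e1 : (-β * p i + α * r i) * M i1 = -(r i1 * p i) + p i1 * r i := by
          rw [hα, hβ]
          field_simp
        calc |-β * p i + α * r i| * M i1 = |(-β * p i + α * r i) * M i1| := by
              rw [abs_mul, abs_of_pos hMp]
          _ = |-(r i1 * p i) + p i1 * r i| := by rw [e1]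
          _ ≤ |r i1| * |p i| + |p i1| * |r i| := by
              refine (abs_add_le _ _).trans (le_of_eq ?_)
              rw [abs_neg, abs_mul (r i1) (p i), abs_mul (p i1) (r i)]
          _ ≤ (S * W2) * M i1 + M i1 * (S * W2) := by
              gcongr
              · exact hri i1
              · exact (hpM i).trans (hi1 i)
              · exact hpM i1
              · exact hri i
          _ = _ := by ring
      exact le_of_mul_le_mul_right h1 hMp
    rw [hB]
    linarith [g 0, g 1, g 2]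
  · intro S hS
    obtain ⟨i, hi⟩ := hn.exists_half 0
    have h1 := hi0 i
    have h2 := hs i
    have h3 := hS i
    rw [div_le_div_iff₀ h2 (hs i0)] at h1
    rw [div_le_iff₀ hn0']
    have h4 := hs i0
    nlinarith
  · rw [le_div_iff₀ hn0']
    have := hn.abs_le_one i0 0
    nlinarith [hs i0]

end Crest.Agent.R136.Sh605
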