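import Crest.Agent.R136.Sh8_605

/-!
# R136 (S0187): bounds of the local expansion, free chart width (helper605)
-/

set_option autoImplicit false
set_option linter.unusedVariables false

namespace Crest.Agent.R136.Sh605

open Finset

/-- **bounds of the coefficients of the local expansion**, chart width `w 0` -/
theorem loc_bounds0 {e : Fin 3 → V3} {c : Ln4} {w : V3} {q : ℝ → V3 → ℝ} {z0 ρ : ℝ}
    (ho : Ortho e) (hw : ∀ i, 0 < w i)
    (st0 : ∀ z, z0 ≤ z → z ≤ z0 + ρ → ∀ (x : V3) (τ : ℝ), 0 ≤ τ → InK e c (dbl3 w) z x →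
      InK e c (dbl3 w) z (x + τ • e 0) →
        τ / 2 ≤ q z (x + τ • e 0) - q z x ∧ q z (x + τ • e 0) - q z x ≤ 2 * τ)
    (st1 : ∀ z, z0 ≤ z → z ≤ z0 + ρ → ∀ (x : V3) (τ : ℝ), 0 ≤ τ → InK e c (dbl3 w) z x →
      InK e c (dbl3 w) z (x + τ • e 1) → |q z (x + τ • e 1) - q z x| ≤ w 0 / w 1 * τ)
    (st2 : ∀ z, z0 ≤ z → z ≤ z0 + ρ → ∀ (x : V3) (τ : ℝ), 0 ≤ τ → InK e c (dbl3 w) z x →
      InK e c (dbl3 w) z (x + τ • e 2) → |q z (x + τ • e 2) - q z x| ≤ w 0 / w 2 * τ)
    (hρ : 0 < ρ) {y : Ln4}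
    (hy : ∀ z, z0 ≤ z → z ≤ z0 + ρ → InK e c w z (y.pos z)) {zm : ℝ} (h0 : z0 ≤ zm)
    (h1 : zm ≤ z0 + ρ) {g h : V3} {H : Fin 3 → Fin 3 → ℝ} (hL : Loc q e y zm g h H) :
    (1 / 2 ≤ g 0 ∧ g 0 ≤ 2) ∧ |g 1| ≤ w 0 / w 1 ∧ |g 2| ≤ w 0 / w 2 ∧
      (∀ i, |h i| * ρ * w i ≤ 2 * w 0) ∧ ∀ i j, |H i j| * w i * w j ≤ w 0 := by
  have hw1 : 0 < w 1 := hw 1
  have hw0 : 0 < w 0 := hw 0
  have hw2 : 0 < w 2 := hw 2
  set P : Fin 3 → ℝ → V3 → ℝ := fun k z b => g k + (z - zm) * h k + 2 * ∑ j, H k j * b j with hP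
  -- difference quotients
  have key : ∀ k z b, (z0 ≤ z ∧ z ≤ z0 + ρ) → (∀ j, |b j| ≤ w j / 2) →
      ∃ x : V3, InK e c (dbl3 w) z x ∧ InK e c (dbl3 w) z (x + w k • e k) ∧
        q z (x + w k • e k) - q z x = w k * P k z b := by
    intro k z b hz hb
    refine ⟨y.pos z + comb e (b + Pi.single k (-(w k / 2))), ?_, ?_, ?_⟩
    · refine mem_dbl3 ho (hy z hz.1 hz.2) fun i => ?_
      have := hb i
      rw [Pi.add_apply]
      refine (abs_add_le _ _).trans ?_
      by_cases hik : i = k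
      · subst hik
        rw [Pi.single_eq_same, abs_neg, abs_of_pos (show 0 < w i / 2 by have := hw i; linarith)]
        linarith
      · rw [Pi.single_eq_of_ne hik, abs_zero]
        have := hw i
        linarith
    · have e1 : y.pos z + comb e (b + Pi.single k (-(w k / 2))) + w k • e k =
          y.pos z + comb e (b + Pi.single k (w k / 2)) := by
        rw [comb_add_single, comb_add_single]
        module
      rw [e1]
      refine mem_dbl3 ho (hy z hz.1 hz.2) fun i => ?_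
      have := hb i
      rw [Pi.add_apply]
      refine (abs_add_le _ _).trans ?_
      by_cases hik : i = k
      · subst hik
        rw [Pi.single_eq_same, abs_of_pos (show 0 < w i / 2 by have := hw i; linarith)]
        linarith
      · rw [Pi.single_eq_of_ne hik, abs_zero]
        have := hw i
        linarith
    · rw [hL.step]
      have e2 : ∀ i, dt (e i) (e k) = if i = k then 1 else 0 := fun i => ho i k
      have e3 : ∀ j, dt (e j) (comb e (b + Pi.single k (-(w k / 2)))) +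
          w k / 2 * dt (e j) (e k) = b j := by
        intro j
        rw [ho.dt_comb, e2, Pi.add_apply]
        by_cases hjk : j = k
        · subst hjk
          rw [Pi.single_eq_same, if_pos rfl]; ring
        · rw [Pi.single_eq_of_ne hjk, if_neg hjk]; ring
      congr 1
      simp only [e3]
      rw [Finset.sum_eq_single k]
      · rw [e2, if_pos rfl, mul_one]
      · intro i _ hik
        rw [e2, if_neg hik, mul_zero]
      · simp
  have P0 : ∀ z b, (z0 ≤ z ∧ z ≤ z0 + ρ) → (∀ j, |b j| ≤ w j / 2) →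
      1 / 2 ≤ P 0 z b ∧ P 0 z b ≤ 2 := by
    intro z b hz hb
    obtain ⟨x, hx1, hx2, hx3⟩ := key 0 z b hz hb
    obtain ⟨k1, k2⟩ := st0 z hz.1 hz.2 x (w 0) hw0.le hx1 hx2
    rw [hx3] at k1 k2
    constructor
    · have : w 0 * (1 / 2) ≤ w 0 * P 0 z b := by linarith
      exact le_of_mul_le_mul_left this hw0
    · have : w 0 * P 0 z b ≤ w 0 * 2 := by linarith
      exact le_of_mul_le_mul_left this hw0
  have P1 : ∀ z b, (z0 ≤ z ∧ z ≤ z0 + ρ) → (∀ j, |b j| ≤ w j / 2) → |P 1 z b| ≤ w 0 / w 1 := by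
    intro z b hz hb
    obtain ⟨x, hx1, hx2, hx3⟩ := key 1 z b hz hb
    have k1 := st1 z hz.1 hz.2 x (w 1) hw1.le hx1 hx2
    rw [hx3, abs_mul, abs_of_pos hw1, mul_comm] at k1
    exact le_of_mul_le_mul_right k1 hw1
  have P2 : ∀ z b, (z0 ≤ z ∧ z ≤ z0 + ρ) → (∀ j, |b j| ≤ w j / 2) → |P 2 z b| ≤ w 0 / w 2 := by
    intro z b hz hb
    obtain ⟨x, hx1, hx2, hx3⟩ := key 2 z b hz hb
    have k1 := st2 z hz.1 hz.2 x (w 2) hw2.le hx1 hx2
    rw [hx3, abs_mul, abs_of_pos hw2, mul_comm] at k1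
    exact le_of_mul_le_mul_right k1 hw2
  have hz0 : ∀ j : Fin 3, |(0 : V3) j| ≤ w j / 2 := fun j => by
    have := hw j
    simp only [Pi.zero_apply, abs_zero]; linarith
  have hPz : ∀ k, P k zm 0 = g k := fun k => by simp [hP]
  have hPh : ∀ k, P k (z0 + ρ) 0 - P k z0 0 = ρ * h k := fun k => by simp [hP]; ring
  have hbj : ∀ j : Fin 3, (∀ i, |(Pi.single j (w j / 2) : V3) i| ≤ w i / 2) ∧
      (∀ i, |(Pi.single j (-(w j / 2)) : V3) i| ≤ w i / 2) := by
    intro j
    constructor <;> intro i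
    · by_cases hij : i = j
      · subst hij
        rw [Pi.single_eq_same, abs_of_pos (by have := hw i; linarith)]
      · rw [Pi.single_eq_of_ne hij, abs_zero]
        have := hw i; linarith
    · by_cases hij : i = j
      · subst hij
        rw [Pi.single_eq_same, abs_neg, abs_of_pos (by have := hw i; linarith)]
      · rw [Pi.single_eq_of_ne hij, abs_zero]
        have := hw i; linarith
  have hPH : ∀ k j, P k zm (Pi.single j (w j / 2)) - P k zm (Pi.single j (-(w j / 2))) =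
      2 * H k j * w j := by
    intro k j
    have e1 : ∀ τ : ℝ, ∑ i, H k i * (Pi.single j τ : V3) i = H k j * τ := by
      intro τ
      rw [Finset.sum_eq_single j]
      · rw [Pi.single_eq_same]
      · intro i _ hij
        rw [Pi.single_eq_of_ne hij, mul_zero]
      · simp
    simp only [hP, e1]
    ring
  have hzm : z0 ≤ zm ∧ zm ≤ z0 + ρ := ⟨h0, h1⟩
  have hza : z0 ≤ z0 ∧ z0 ≤ z0 + ρ := ⟨le_rfl, by linarith⟩
  have hzb : z0 ≤ z0 + ρ ∧ z0 + ρ ≤ z0 + ρ := ⟨by linarith, le_rfl⟩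
  refine ⟨?_, ?_, ?_, ?_, ?_⟩
  · have := P0 zm 0 hzm hz0
    rwa [hPz] at this
  · have := P1 zm 0 hzm hz0
    rwa [hPz] at this
  · have := P2 zm 0 hzm hz0
    rwa [hPz] at this
  · have hb : ∀ k r, |P k (z0 + ρ) 0 - P k z0 0| ≤ r → |h k| * ρ ≤ r := by
      intro k r hr
      rwa [hPh, abs_mul, abs_of_pos hρ, mul_comm] at hr
    intro i
    fin_cases i
    · have a1 := P0 _ 0 hza hz0
      have a2 := P0 _ 0 hzb hz0
      have a3 := hb 0 2 (by rw [abs_le]; constructor <;> linarith)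
      change |h 0| * ρ * w 0 ≤ 2 * w 0
      gcongr
    · have a1 := P1 _ 0 hza hz0
      have a2 := P1 _ 0 hzb hz0
      have a3 := hb 1 (2 * (w 0 / w 1)) ((abs_sub _ _).trans (by linarith))
      change |h 1| * ρ * w 1 ≤ 2 * w 0
      calc |h 1| * ρ * w 1 ≤ 2 * (w 0 / w 1) * w 1 := by gcongr
        _ = 2 * w 0 := by field_simp
    · have a1 := P2 _ 0 hza hz0
      have a2 := P2 _ 0 hzb hz0
      have a3 := hb 2 (2 * (w 0 / w 2)) ((abs_sub _ _).trans (by linarith))
      change |h 2| * ρ * w 2 ≤ 2 * w 0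
      calc |h 2| * ρ * w 2 ≤ 2 * (w 0 / w 2) * w 2 := by gcongr
        _ = 2 * w 0 := by field_simp
  · intro i j
    obtain ⟨b1, b2⟩ := hbj j
    have hj := hw j
    have hb : ∀ r, |P i zm (Pi.single j (w j / 2)) - P i zm (Pi.single j (-(w j / 2)))| ≤ 2 * r →
        |H i j| * w j ≤ r := by
      intro r hr
      rw [hPH, abs_mul, abs_mul, abs_of_pos hj, abs_two] at hr
      linarith
    fin_cases i
    · have a1 := P0 _ _ hzm b1
      have a2 := P0 _ _ hzm b2
      have a3 := hb 1 (by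
        change |P 0 zm (Pi.single j (w j / 2)) - P 0 zm (Pi.single j (-(w j / 2)))| ≤ 2 * 1
        rw [abs_le]; constructor <;> linarith)
      change |H 0 j| * w 0 * w j ≤ w 0
      change |H 0 j| * w j ≤ 1 at a3
      calc |H 0 j| * w 0 * w j = |H 0 j| * w j * w 0 := by ring
        _ ≤ 1 * w 0 := by gcongr
        _ = w 0 := one_mul _
    · have a1 := P1 _ _ hzm b1
      have a2 := P1 _ _ hzm b2
      have a3 := hb (w 0 / w 1) ((abs_sub _ _).trans (by
        change |P 1 zm (Pi.single j (w j / 2))| + |P 1 zm (Pi.single j (-(w j / 2)))| ≤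
          2 * (w 0 / w 1)
        linarith))
      change |H 1 j| * w 1 * w j ≤ w 0
      change |H 1 j| * w j ≤ w 0 / w 1 at a3
      calc |H 1 j| * w 1 * w j = |H 1 j| * w j * w 1 := by ring
        _ ≤ w 0 / w 1 * w 1 := by gcongr
        _ = w 0 := by field_simp
    · have a1 := P2 _ _ hzm b1
      have a2 := P2 _ _ hzm b2
      have a3 := hb (w 0 / w 2) ((abs_sub _ _).trans (by
        change |P 2 zm (Pi.single j (w j / 2))| + |P 2 zm (Pi.single j (-(w j / 2)))| ≤
          2 * (w 0 / w 2)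
        linarith))
      change |H 2 j| * w 2 * w j ≤ w 0
      change |H 2 j| * w j ≤ w 0 / w 2 at a3
      calc |H 2 j| * w 2 * w j = |H 2 j| * w j * w 2 := by ring
        _ ≤ w 0 / w 2 * w 2 := by gcongr
        _ = w 0 := by field_simp

end Crest.Agent.R136.Sh605
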