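import Crest.Agent.R136.Sh11_605
import Crest.Agent.R136.Sh7_321

/-!
# R136 (S0187): test sheets of a sheet of class `ShC` (helper605)
-/

set_option autoImplicit false
set_option linter.unusedVariables false

namespace Crest.Agent.R136.Sh605

open Finset Sh321

theorem IsQ.smul {q : ℝ → V3 → ℝ} (hq : IsQ q) (κ : ℝ) : IsQ fun z x => κ * q z x := by
  obtain ⟨c0, c1, c2, b, d, g, h⟩ := hq
  refine ⟨κ * c0, κ * c1, κ * c2, fun i => κ * b i, fun i => κ * d i, fun i j => κ * g i j,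
    fun z x => ?_⟩
  beta_reduce
  rw [h z x]
  simp only [Fin.sum_univ_three]
  ring

theorem dt_le_one {x y : V3} (hx : dt x x = 1) (hy : dt y y = 1) : |dt x y| ≤ 1 := by
  have h1 : 0 ≤ dt (x - y) (x - y) := by
    unfold dt
    nlinarith [mul_self_nonneg ((x - y) 0), mul_self_nonneg ((x - y) 1),
      mul_self_nonneg ((x - y) 2)]
  have h2 : 0 ≤ dt (x + y) (x + y) := by
    unfold dt
    nlinarith [mul_self_nonneg ((x + y) 0), mul_self_nonneg ((x + y) 1),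
      mul_self_nonneg ((x + y) 2)]
  have e1 : dt (x - y) (x - y) = dt x x + dt y y - 2 * dt x y := by
    simp only [dt, Pi.sub_apply]; ring
  have e2 : dt (x + y) (x + y) = dt x x + dt y y + 2 * dt x y := by
    simp only [dt, Pi.add_apply]; ring
  rw [abs_le]
  constructor <;> linarith

theorem Ortho.self {e : Fin 3 → V3} (h : Ortho e) (i : Fin 3) : dt (e i) (e i) = 1 := by
  simpa using h i i

/-- `∑ V i <e i, v>` in the rotated frame -/
theorem rot_sum {e : Fin 3 → V3} {α β : ℝ} (h : α ^ 2 + β ^ 2 = 1) (V v : V3) :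
    ∑ i, V i * dt (e i) v = V 0 * dt (rot e α β 0) v +
      (α * V 1 + β * V 2) * dt (rot e α β 1) v + (-β * V 1 + α * V 2) * dt (rot e α β 2) v := by
  obtain ⟨h1, h2⟩ := dt_of_rot (e := e) h v
  rw [Fin.sum_univ_three, rot_zero, h1, h2]
  ring

section

variable {e : Fin 3 → V3} {w h : V3} {H : Fin 3 → Fin 3 → ℝ} {ρ0 S : ℝ}

/-- variation of the gradient -/
theorem var_bd (hw : ∀ i, 0 < w i) (hρ0 : 0 < ρ0) (hS : 0 ≤ S)
    (hh : ∀ i, |h i| * ρ0 * w i ≤ 2 * w 0) (hH : ∀ i j, |H i j| * w i * w j ≤ w 0) {U : V3}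
    {K : ℝ} (hU : ∀ i, |U i| ≤ K * S * w i) {δ : ℝ} (hδ : |δ| ≤ S * ρ0) (i : Fin 3) :
    |δ * h i + 2 * ∑ j, H i j * U j| * w i ≤ (2 + 6 * K) * S * w 0 := by
  have hwi := hw i
  have h1 : |δ * h i| * w i ≤ 2 * S * w 0 := by
    rw [abs_mul]
    calc |δ| * |h i| * w i ≤ S * ρ0 * |h i| * w i := by gcongr
      _ = S * (|h i| * ρ0 * w i) := by ring
      _ ≤ S * (2 * w 0) := mul_le_mul_of_nonneg_left (hh i) hS
      _ = _ := by ring
  have h2 : ∀ j, |H i j * U j| * w i ≤ K * S * w 0 := by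
    intro j
    rw [abs_mul]
    have hKS : 0 ≤ K * S := by
      have := (abs_nonneg _).trans (hU j)
      exact nonneg_of_mul_nonneg_left this (hw j)
    calc |H i j| * |U j| * w i ≤ |H i j| * (K * S * w j) * w i := by
          gcongr; exact hU j
      _ = K * S * (|H i j| * w i * w j) := by ring
      _ ≤ K * S * w 0 := by gcongr; exact hH i j
  have h3 : |∑ j, H i j * U j| * w i ≤ 3 * (K * S * w 0) := by
    rw [Fin.sum_univ_three]
    have e1 : |H i 0 * U 0 + H i 1 * U 1 + H i 2 * U 2| ≤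
        |H i 0 * U 0| + |H i 1 * U 1| + |H i 2 * U 2| :=
      (abs_add_le _ _).trans (by gcongr; exact abs_add_le _ _)
    have e2 := mul_le_mul_of_nonneg_right e1 hwi.le
    nlinarith [h2 0, h2 1, h2 2]
  have h4 : |δ * h i + 2 * ∑ j, H i j * U j| ≤ |δ * h i| + 2 * |∑ j, H i j * U j| := by
    refine (abs_add_le _ _).trans ?_
    rw [abs_mul 2, abs_two]
  have h5 := mul_le_mul_of_nonneg_right h4 hwi.le
  nlinarith

/-- second order part -/
theorem sec_bd (hw : ∀ i, 0 < w i) (hρ0 : 0 < ρ0) (hS : 0 ≤ S)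
    (hh : ∀ i, |h i| * ρ0 * w i ≤ 2 * w 0) (hH : ∀ i j, |H i j| * w i * w j ≤ w 0) {U : V3}
    {K : ℝ} (hU : ∀ i, |U i| ≤ K * S * w i) {δ : ℝ} (hδ : |δ| ≤ S * ρ0) (hK : 0 ≤ K) :
    |(∑ i, δ * h i * U i) + ∑ i, ∑ j, H i j * (U i * U j)| ≤
      (6 * K + 9 * K ^ 2) * S ^ 2 * w 0 := by
  have hw2 := hw 0
  have h1 : ∀ i, |δ * h i * U i| ≤ 2 * K * S ^ 2 * w 0 := by
    intro i
    rw [abs_mul, abs_mul]
    calc |δ| * |h i| * |U i| ≤ S * ρ0 * |h i| * (K * S * w i) := by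
          gcongr; exact hU i
      _ = K * S ^ 2 * (|h i| * ρ0 * w i) := by ring
      _ ≤ K * S ^ 2 * (2 * w 0) := mul_le_mul_of_nonneg_left (hh i) (by positivity)
      _ = _ := by ring
  have h2 : ∀ i j, |H i j * (U i * U j)| ≤ K ^ 2 * S ^ 2 * w 0 := by
    intro i j
    rw [abs_mul, abs_mul]
    have := hw i
    have := hw j
    calc |H i j| * (|U i| * |U j|) ≤ |H i j| * ((K * S * w i) * (K * S * w j)) := by
          gcongr
          · exact hU i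
          · exact hU j
      _ = K ^ 2 * S ^ 2 * (|H i j| * w i * w j) := by ring
      _ ≤ K ^ 2 * S ^ 2 * w 0 := by gcongr; exact hH i j
  refine (abs_add_le _ _).trans ?_
  have h3 : |∑ i, δ * h i * U i| ≤ ∑ _i : Fin 3, 2 * K * S ^ 2 * w 0 :=
    (abs_sum_le_sum_abs _ _).trans (sum_le_sum fun i _ => h1 i)
  have h4 : |∑ i, ∑ j, H i j * (U i * U j)| ≤ ∑ _i : Fin 3, ∑ _j : Fin 3, K ^ 2 * S ^ 2 * w 0 :=
    (abs_sum_le_sum_abs _ _).trans (sum_le_sum fun i _ => (abs_sum_le_sum_abs _ _).trans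
      (sum_le_sum fun j _ => h2 i j))
  simp only [sum_const, card_univ, Fintype.card_fin, nsmul_eq_mul, Nat.cast_ofNat] at h3 h4
  linarith

end

/-! ### numerical lemmas -/

theorem unit_abs {α β : ℝ} (h : α ^ 2 + β ^ 2 = 1) : |α| ≤ 1 ∧ |β| ≤ 1 :=
  ⟨abs_le_one_iff_mul_self_le_one.2 (by nlinarith [sq_nonneg β]),
    abs_le_one_iff_mul_self_le_one.2 (by nlinarith [sq_nonneg α])⟩

theorem num_S {S σ : ℝ} (hS0 : 0 < S) (hσS : σ ≤ S) (h : 1000000000 * S ^ 2 ≤ σ) :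
    1000000000 * S ≤ 1 := by
  have : 1000000000 * S * S ≤ 1 * S := by nlinarith
  exact le_of_mul_le_mul_right this hS0

theorem num_corr {a n0 w2 σ S si : ℝ} (ha : 0 < a) (hn0 : 0 < n0) (hσ : 0 < σ) (h2 : σ ≤ si)
    (h1 : si ≤ 2 * S * n0) (hthin : 6 * S * a ≤ σ * w2) : a / n0 ≤ w2 / 3 := by
  rw [div_le_iff₀ hn0]
  have h3 : σ ≤ 2 * S * n0 := h2.trans h1
  have h4 : a * σ ≤ a * (2 * S * n0) := mul_le_mul_of_nonneg_left h3 ha.le
  have h5 : 6 * S * a * n0 ≤ σ * w2 * n0 := mul_le_mul_of_nonneg_right hthin hn0.le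
  have h9 : a * σ ≤ w2 / 3 * n0 * σ := by linarith
  exact le_of_mul_le_mul_right h9 hσ

/-- numerical data of a test box -/
structure Dat (w : V3) (S σ A B V α β G0 Ga Gb G1 G2 m m1 a0 : ℝ) : Prop where
  Sp : 0 < S
  Ss : 1000000000 * S ≤ 1
  Sσ : 1000000000 * S ^ 2 ≤ σ
  p0 : 0 < w 0
  p1 : 0 < w 1
  p2 : 0 < w 2
  w02 : w 0 ≤ w 2
  w21 : w 2 ≤ w 1
  unit : α ^ 2 + β ^ 2 = 1
  Bp : 0 < B
  BA : B ≤ A
  Bσ : σ * w 2 ≤ B
  B6 : B ≤ 6 * S * w 2
  A3 : A ≤ 3 * S * w 1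
  Aβ : A * |β| ≤ 3 * S * w 2
  ap : 0 < a0
  aB : a0 ≤ B / 3
  Vp : 0 < V
  V32 : V ≤ 32 * B
  V240 : V ≤ 240 * S * w 0
  aV : 8 * a0 ≤ V
  VS : 1000000000 * S ^ 2 * w 0 ≤ V
  G0l : 1 / 2 ≤ G0
  G0u : G0 ≤ 2
  Gal : |Ga| ≤ 4 / 3
  Gbl : |Gb| ≤ 4 / 3
  G1e : G1 = α * Ga + β * Gb
  G2e : G2 = -β * Ga + α * Gb
  AG : A * |G1| ≤ 15 * S * w 0
  BG : B * |G2| ≤ 30 * S * w 0
  me : m = Real.sqrt (G0 ^ 2 + G1 ^ 2 + G2 ^ 2)
  m1e : m1 = Real.sqrt (G0 ^ 2 + G1 ^ 2)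

namespace Dat

variable {w : V3} {S σ A B V α β G0 Ga Gb G1 G2 m m1 a0 : ℝ}

theorem Ap (D : Dat w S σ A B V α β G0 Ga Gb G1 G2 m m1 a0) : 0 < A := D.Bp.trans_le D.BA

theorem wpos (D : Dat w S σ A B V α β G0 Ga Gb G1 G2 m m1 a0) (i : Fin 3) : 0 < w i := by
  fin_cases i
  · exact D.p0
  · exact D.p1
  · exact D.p2

theorem Aα (D : Dat w S σ A B V α β G0 Ga Gb G1 G2 m m1 a0) : A * |α| ≤ 3 * S * w 1 := by
  have h1 := (unit_abs D.unit).1
  have h2 := D.Ap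
  calc A * |α| ≤ A * 1 := by gcongr
    _ ≤ 3 * S * w 1 := by rw [mul_one]; exact D.A3

theorem G12 (D : Dat w S σ A B V α β G0 Ga Gb G1 G2 m m1 a0) : G1 ^ 2 + G2 ^ 2 ≤ 32 / 9 := by
  have h1 : G1 ^ 2 + G2 ^ 2 = (α ^ 2 + β ^ 2) * (Ga ^ 2 + Gb ^ 2) := by
    rw [D.G1e, D.G2e]; ring
  rw [h1, D.unit, one_mul]
  have h2 : Ga ^ 2 ≤ (4 / 3) ^ 2 := by rw [← sq_abs]; exact pow_le_pow_left₀ (abs_nonneg _) D.Gal 2
  have h3 : Gb ^ 2 ≤ (4 / 3) ^ 2 := by rw [← sq_abs]; exact pow_le_pow_left₀ (abs_nonneg _) D.Gbl 2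
  linarith

theorem G1a (D : Dat w S σ A B V α β G0 Ga Gb G1 G2 m m1 a0) : |G1| ≤ 2 :=
  abs_le_of_sq_le_sq (by have := D.G12; linarith [sq_nonneg G2]) (by norm_num)

theorem G2a (D : Dat w S σ A B V α β G0 Ga Gb G1 G2 m m1 a0) : |G2| ≤ 2 :=
  abs_le_of_sq_le_sq (by have := D.G12; linarith [sq_nonneg G1]) (by norm_num)

theorem ms (D : Dat w S σ A B V α β G0 Ga Gb G1 G2 m m1 a0) : m ^ 2 = G0 ^ 2 + G1 ^ 2 + G2 ^ 2 := by
  rw [D.me]; exact Real.sq_sqrt (by positivity)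

theorem m1s (D : Dat w S σ A B V α β G0 Ga Gb G1 G2 m m1 a0) : m1 ^ 2 = G0 ^ 2 + G1 ^ 2 := by
  rw [D.m1e]; exact Real.sq_sqrt (by positivity)

theorem G0s (D : Dat w S σ A B V α β G0 Ga Gb G1 G2 m m1 a0) : (1 / 2) ^ 2 ≤ G0 ^ 2 :=
  pow_le_pow_left₀ (by norm_num) D.G0l 2

theorem ml (D : Dat w S σ A B V α β G0 Ga Gb G1 G2 m m1 a0) : 1 / 2 ≤ m := by
  rw [D.me]
  exact Real.le_sqrt_of_sq_le (by linarith [D.G0s, sq_nonneg G1, sq_nonneg G2])

theorem m1l (D : Dat w S σ A B V α β G0 Ga Gb G1 G2 m m1 a0) : 1 / 2 ≤ m1 := by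
  rw [D.m1e]
  exact Real.le_sqrt_of_sq_le (by linarith [D.G0s, sq_nonneg G1])

theorem mu (D : Dat w S σ A B V α β G0 Ga Gb G1 G2 m m1 a0) : m ≤ 3 := by
  rw [D.me]
  refine Real.sqrt_le_iff.2 ⟨by norm_num, ?_⟩
  have h1 : G0 ^ 2 ≤ 2 ^ 2 := pow_le_pow_left₀ (by linarith [D.G0l]) D.G0u 2
  linarith [D.G12]

theorem mp (D : Dat w S σ A B V α β G0 Ga Gb G1 G2 m m1 a0) : 0 < m := by linarith [D.ml]
theorem m1p (D : Dat w S σ A B V α β G0 Ga Gb G1 G2 m m1 a0) : 0 < m1 := by linarith [D.m1l]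
theorem G0p (D : Dat w S σ A B V α β G0 Ga Gb G1 G2 m m1 a0) : 0 < G0 := by linarith [D.G0l]

theorem m2 (D : Dat w S σ A B V α β G0 Ga Gb G1 G2 m m1 a0) : 1 / m ≤ 2 := by
  rw [div_le_iff₀ D.mp]; linarith [D.ml]
theorem m12 (D : Dat w S σ A B V α β G0 Ga Gb G1 G2 m m1 a0) : 1 / m1 ≤ 2 := by
  rw [div_le_iff₀ D.m1p]; linarith [D.m1l]

theorem G0m (D : Dat w S σ A B V α β G0 Ga Gb G1 G2 m m1 a0) : G0 ≤ m := by
  rw [D.me]
  exact Real.le_sqrt_of_sq_le (by linarith [sq_nonneg G1, sq_nonneg G2])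

end Dat

section

variable {e : Fin 3 → V3} {w h : V3} {H : Fin 3 → Fin 3 → ℝ} {ρ0 : ℝ}
  {S σ A B V α β G0 Ga Gb G1 G2 m m1 a0 : ℝ}

/-- `e 0`-components of the adapted frame -/
theorem Dat.e0f (D : Dat w S σ A B V α β G0 Ga Gb G1 G2 m m1 a0) (he : Ortho e) :
    |dt (e 0) (adF (rot e α β) G0 G1 G2 m m1 0)| ≤ 1 ∧
    |dt (e 0) (adF (rot e α β) G0 G1 G2 m m1 1)| ≤ 2 * |G1| ∧
    |dt (e 0) (adF (rot e α β) G0 G1 G2 m m1 2)| ≤ 2 * |G2| := by
  have hEo : Ortho (rot e α β) := rot_ortho he D.unit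
  obtain ⟨k0, k1, k2⟩ := dt_adF (G0 := G0) (G1 := G1) (G2 := G2) (m := m) (m1 := m1) hEo 0
  rw [rot_zero] at k0 k1 k2
  have hmp := D.mp
  have hm1p := D.m1p
  have hG0p := D.G0p
  have hm12 := D.m12
  rw [k0, k1, k2]
  simp only [Matrix.cons_val_zero]
  refine ⟨?_, ?_, ?_⟩
  · rw [abs_mul, abs_div, abs_one, abs_of_pos hmp, abs_of_pos hG0p, one_div_mul_eq_div,
      div_le_one hmp]
    exact D.G0m
  · rw [abs_mul, abs_div, abs_one, abs_of_pos hm1p, abs_neg]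
    gcongr
  · rw [abs_mul, abs_div, abs_one, abs_of_pos (mul_pos hmp hm1p), abs_neg, abs_mul,
      abs_of_pos hG0p]
    have h1 : G0 / m ≤ 1 := (div_le_one hmp).2 D.G0m
    have h2 : 0 ≤ G0 / m := by positivity
    calc 1 / (m * m1) * (G0 * |G2|) = (G0 / m) * (1 / m1) * |G2| := by field_simp
      _ ≤ 1 * 2 * |G2| := by gcongr
      _ = 2 * |G2| := by ring

/-- size of the vectors of the doubled test box -/
theorem Dat.box (D : Dat w S σ A B V α β G0 Ga Gb G1 G2 m m1 a0) (he : Ortho e) {um : V3}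
    (hum : ∀ i, |dt (adF (rot e α β) G0 G1 G2 m m1 i) um| ≤
      dbl3 ![V, 128 * A, 32 * B] i) (j : Fin 3) : |dt (e j) um| ≤ 12000 * S * w j := by
  have u00 : |dt (adF (rot e α β) G0 G1 G2 m m1 0) um| ≤ 2 * V :=
    (hum 0).trans (le_of_eq (by simp [dbl3]))
  have u0 : |dt (adF (rot e α β) G0 G1 G2 m m1 0) um| ≤ 64 * B := by
    have := D.V32
    linarith
  have u1 : |dt (adF (rot e α β) G0 G1 G2 m m1 1) um| ≤ 256 * A :=
    (hum 1).trans (le_of_eq (by simp [dbl3]; ring))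
  have u2 : |dt (adF (rot e α β) G0 G1 G2 m m1 2) um| ≤ 64 * B :=
    (hum 2).trans (le_of_eq (by simp [dbl3]; ring))
  obtain ⟨-, v1, v2⟩ := box_bd he D.unit D.G0p D.mp D.m1p D.ms D.m1s u0 u1 u2
  have hB6 := D.B6
  have hA3 := D.A3
  have hAβ := D.Aβ
  have hAG := D.AG
  have hBG := D.BG
  have hS := D.Sp
  have hw0 := D.p0
  have hw1 := D.p1
  have hw2 := D.p2
  have hA := D.Ap
  have hB := D.Bp
  have hV := D.Vp
  have hSw2 : 0 < S * w 2 := by positivity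
  have hSw1 : 0 < S * w 1 := by positivity
  have hSw0 : 0 < S * w 0 := by positivity
  fin_cases j
  · obtain ⟨g0, g1, g2⟩ := D.e0f he
    have hEo : Ortho (rot e α β) := rot_ortho he D.unit
    have hfo : Ortho (adF (rot e α β) G0 G1 G2 m m1) := adF_ortho hEo D.mp D.m1p D.ms D.m1s
    change |dt (e 0) um| ≤ 12000 * S * w 0
    generalize hf : adF (rot e α β) G0 G1 G2 m m1 = f at *
    have h3 : dt (e 0) um = dt (f 0) um * dt (e 0) (f 0) + dt (f 1) um * dt (e 0) (f 1) +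
        dt (f 2) um * dt (e 0) (f 2) := by
      have h3 := hfo.expand um
      have e1 : dt (e 0) um = e 0 0 * um 0 + e 0 1 * um 1 + e 0 2 * um 2 := rfl
      rw [e1, h3 0, h3 1, h3 2]
      simp only [dt]
      ring
    rw [h3]
    have t0 : |dt (f 0) um * dt (e 0) (f 0)| ≤ 2 * V * 1 := by
      rw [abs_mul]; gcongr
    have t1 : |dt (f 1) um * dt (e 0) (f 1)| ≤ 256 * A * (2 * |G1|) := by
      rw [abs_mul]; gcongr
    have t2 : |dt (f 2) um * dt (e 0) (f 2)| ≤ 64 * B * (2 * |G2|) := by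
      rw [abs_mul]; gcongr
    have t3 := abs_add_le (dt (f 0) um * dt (e 0) (f 0) + dt (f 1) um * dt (e 0) (f 1))
      (dt (f 2) um * dt (e 0) (f 2))
    have t4 := abs_add_le (dt (f 0) um * dt (e 0) (f 0)) (dt (f 1) um * dt (e 0) (f 1))
    have t5 := D.V240
    linarith
  · refine v1.trans ?_
    change 256 * A + 4 * (64 * B) ≤ 12000 * S * w 1
    have h1 : S * w 2 ≤ S * w 1 := mul_le_mul_of_nonneg_left D.w21 hS.le
    linarith
  · refine v2.trans ?_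
    change |β| * (256 * A) + 4 * (64 * B) ≤ 12000 * S * w 2
    linarith

/-- variation of the gradient over the doubled test box, along the adapted frame -/
theorem Dat.grad (D : Dat w S σ A B V α β G0 Ga Gb G1 G2 m m1 a0) (he : Ortho e) (hρ0 : 0 < ρ0)
    (hh : ∀ i, |h i| * ρ0 * w i ≤ 2 * w 0) (hH : ∀ i j, |H i j| * w i * w j ≤ w 0) {um : V3}
    (hum : ∀ i, |dt (adF (rot e α β) G0 G1 G2 m m1 i) um| ≤
      dbl3 ![V, 128 * A, 32 * B] i) {ζ : ℝ} (hζ : |ζ| ≤ S * ρ0) {δ : V3}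
    (hδ : ∀ i, δ i = ζ * h i + 2 * ∑ j, H i j * dt (e j) um) :
    (∀ k, |δ 0 * dt (rot e α β 0) (adF (rot e α β) G0 G1 G2 m m1 k) +
        (α * δ 1 + β * δ 2) * dt (rot e α β 1) (adF (rot e α β) G0 G1 G2 m m1 k) +
        (-β * δ 1 + α * δ 2) * dt (rot e α β 2) (adF (rot e α β) G0 G1 G2 m m1 k)| ≤
        360500 * S) ∧
      (A * |δ 0 * dt (rot e α β 0) (adF (rot e α β) G0 G1 G2 m m1 1) +
        (α * δ 1 + β * δ 2) * dt (rot e α β 1) (adF (rot e α β) G0 G1 G2 m m1 1) +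
        (-β * δ 1 + α * δ 2) * dt (rot e α β 2) (adF (rot e α β) G0 G1 G2 m m1 1)| ≤
        3893400 * S ^ 2 * w 0) ∧
      (B * |δ 0 * dt (rot e α β 0) (adF (rot e α β) G0 G1 G2 m m1 2) +
        (α * δ 1 + β * δ 2) * dt (rot e α β 1) (adF (rot e α β) G0 G1 G2 m m1 2) +
        (-β * δ 1 + α * δ 2) * dt (rot e α β 2) (adF (rot e α β) G0 G1 G2 m m1 2)| ≤
        6056400 * S ^ 2 * w 0) := by
  have hEo : Ortho (rot e α β) := rot_ortho he D.unit
  have hfo : Ortho (adF (rot e α β) G0 G1 G2 m m1) := adF_ortho hEo D.mp D.m1p D.ms D.m1s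
  have hEf : ∀ i k, |dt (rot e α β i) (adF (rot e α β) G0 G1 G2 m m1 k)| ≤ 1 := fun i k =>
    dt_le_one (hEo.self i) (hfo.self k)
  have hU := D.box he hum
  have hS := D.Sp
  have hw0 := D.p0
  have hw1 := D.p1
  have hw2 := D.p2
  have hA := D.Ap
  have hB := D.Bp
  obtain ⟨η, hη⟩ : ∃ η, η = 72100 * S := ⟨_, rfl⟩
  have hδi : ∀ i, |δ i| * w i ≤ η * w 0 := by
    intro i
    have := var_bd D.wpos hρ0 hS.le hh hH (U := fun j => dt (e j) um) (K := 12000) hU hζ i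
    rw [hδ i]
    refine this.trans ?_
    rw [hη]
    have : 0 < S * w 0 := by positivity
    linarith
  have hη0 : 0 ≤ η := by rw [hη]; positivity
  have d0 : |δ 0| ≤ η := le_of_mul_le_mul_right (hδi 0) hw0
  have d2 : |δ 2| ≤ η * (w 0 / w 2) := by
    have := hδi 2
    rw [← mul_div_assoc, le_div_iff₀ hw2]
    exact this
  have d1 : |δ 1| ≤ η * (w 0 / w 1) := by
    have := hδi 1
    rw [← mul_div_assoc, le_div_iff₀ hw1]
    exact this
  have d1' : |δ 1| ≤ η := by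
    refine d1.trans ?_
    have : w 0 / w 1 ≤ 1 := (div_le_one hw1).2 (D.w02.trans D.w21)
    calc η * (w 0 / w 1) ≤ η * 1 := by gcongr
      _ = η := mul_one η
  have d2' : |δ 2| ≤ η := by
    refine d2.trans ?_
    have : w 0 / w 2 ≤ 1 := (div_le_one hw2).2 D.w02
    calc η * (w 0 / w 2) ≤ η * 1 := by gcongr
      _ = η := mul_one η
  obtain ⟨hα1, hβ1⟩ := unit_abs D.unit
  have dd1 : |α * δ 1 + β * δ 2| ≤ 2 * η := by
    refine (abs_add_le _ _).trans ?_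
    rw [abs_mul, abs_mul]
    calc |α| * |δ 1| + |β| * |δ 2| ≤ 1 * η + 1 * η := by gcongr
      _ = 2 * η := by ring
  have dd2 : |-β * δ 1 + α * δ 2| ≤ 2 * η := by
    refine (abs_add_le _ _).trans ?_
    rw [abs_mul, abs_mul, abs_neg]
    calc |β| * |δ 1| + |α| * |δ 2| ≤ 1 * η + 1 * η := by gcongr
      _ = 2 * η := by ring
  refine ⟨fun k => ?_, ?_, ?_⟩
  · have b0 := hEf 0 k
    have b1 := hEf 1 k
    have b2 := hEf 2 k
    calc _ ≤ |δ 0 * dt (rot e α β 0) (adF (rot e α β) G0 G1 G2 m m1 k)| +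
          |(α * δ 1 + β * δ 2) * dt (rot e α β 1) (adF (rot e α β) G0 G1 G2 m m1 k)| +
          |(-β * δ 1 + α * δ 2) * dt (rot e α β 2) (adF (rot e α β) G0 G1 G2 m m1 k)| :=
          (abs_add_le _ _).trans (by gcongr; exact abs_add_le _ _)
      _ ≤ η * 1 + 2 * η * 1 + 2 * η * 1 := by
          rw [abs_mul, abs_mul, abs_mul]
          gcongr
      _ = 360500 * S := by rw [hη]; ring
  · have k1 := fun i => (dt_adF (G0 := G0) (G1 := G1) (G2 := G2) (m := m) (m1 := m1) hEo i).2.1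
    rw [k1 0, k1 1, k1 2]
    have e1 : δ 0 * (1 / m1 * ![-G1, G0, 0] 0) + (α * δ 1 + β * δ 2) * (1 / m1 * ![-G1, G0, 0] 1) +
        (-β * δ 1 + α * δ 2) * (1 / m1 * ![-G1, G0, 0] 2) =
        (1 / m1) * (-(G1 * δ 0) + G0 * (α * δ 1 + β * δ 2)) := by
      simp only [Matrix.cons_val_zero, Matrix.cons_val_one, Matrix.cons_val]
      ring
    rw [e1, abs_mul, abs_div, abs_one, abs_of_pos D.m1p]
    have e3 : |-(G1 * δ 0) + G0 * (α * δ 1 + β * δ 2)| ≤
        |G1| * |δ 0| + 2 * (|α| * |δ 1| + |β| * |δ 2|) := by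
      refine (abs_add_le _ _).trans ?_
      rw [abs_neg, abs_mul, abs_mul, abs_of_pos D.G0p]
      have h1 : |α * δ 1 + β * δ 2| ≤ |α| * |δ 1| + |β| * |δ 2| := by
        refine (abs_add_le _ _).trans ?_
        rw [abs_mul, abs_mul]
      have h2 := D.G0u
      have h3 := D.G0p
      gcongr
    have e4 : A * (|G1| * |δ 0| + 2 * (|α| * |δ 1| + |β| * |δ 2|)) ≤ 27 * η * S * w 0 := by
      have a1 := D.AG
      have a2 := D.Aα
      have a3 := D.Aβ
      calc A * (|G1| * |δ 0| + 2 * (|α| * |δ 1| + |β| * |δ 2|)) =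
          A * |G1| * |δ 0| + 2 * (A * |α| * |δ 1| + A * |β| * |δ 2|) := by ring
        _ ≤ 15 * S * w 0 * η +
            2 * (3 * S * w 1 * (η * (w 0 / w 1)) + 3 * S * w 2 * (η * (w 0 / w 2))) := by
            gcongr
        _ = _ := by field_simp; ring
    have e2 := D.m12
    calc A * (1 / m1 * |-(G1 * δ 0) + G0 * (α * δ 1 + β * δ 2)|) ≤
        A * (2 * (|G1| * |δ 0| + 2 * (|α| * |δ 1| + |β| * |δ 2|))) := by gcongr
      _ = 2 * (A * (|G1| * |δ 0| + 2 * (|α| * |δ 1| + |β| * |δ 2|))) := by ring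
      _ ≤ 2 * (27 * η * S * w 0) := by gcongr
      _ = _ := by rw [hη]; ring
  · obtain ⟨-, -, g2⟩ := D.e0f he
    have b1 := hEf 1 2
    have b2 := hEf 2 2
    rw [rot_zero]
    have hB1 : B * |α * δ 1 + β * δ 2| ≤ 12 * S * η * w 0 := by
      have h1 : |α * δ 1 + β * δ 2| ≤ 1 * (η * (w 0 / w 2)) + 1 * (η * (w 0 / w 2)) := by
        refine (abs_add_le _ _).trans ?_
        rw [abs_mul, abs_mul]
        have h3 : w 0 / w 1 ≤ w 0 / w 2 := by have := D.w21; gcongr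
        have h4 : |δ 1| ≤ η * (w 0 / w 2) := d1.trans (by gcongr)
        gcongr
      calc B * |α * δ 1 + β * δ 2| ≤
          6 * S * w 2 * (1 * (η * (w 0 / w 2)) + 1 * (η * (w 0 / w 2))) := by
            have := D.B6
            gcongr
        _ = _ := by field_simp; ring
    have hB2 : B * |-β * δ 1 + α * δ 2| ≤ 12 * S * η * w 0 := by
      have h1 : |-β * δ 1 + α * δ 2| ≤ 1 * (η * (w 0 / w 2)) + 1 * (η * (w 0 / w 2)) := by
        refine (abs_add_le _ _).trans ?_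
        rw [abs_mul, abs_mul, abs_neg]
        have h3 : w 0 / w 1 ≤ w 0 / w 2 := by have := D.w21; gcongr
        have h4 : |δ 1| ≤ η * (w 0 / w 2) := d1.trans (by gcongr)
        gcongr
      calc B * |-β * δ 1 + α * δ 2| ≤
          6 * S * w 2 * (1 * (η * (w 0 / w 2)) + 1 * (η * (w 0 / w 2))) := by
            have := D.B6
            gcongr
        _ = _ := by field_simp; ring
    have hB0 : B * (|δ 0| * (2 * |G2|)) ≤ 60 * S * η * w 0 := by
      have a1 := D.BG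
      calc B * (|δ 0| * (2 * |G2|)) = 2 * |δ 0| * (B * |G2|) := by ring
        _ ≤ 2 * η * (30 * S * w 0) := by gcongr
        _ = _ := by ring
    have e5 : |δ 0 * dt (e 0) (adF (rot e α β) G0 G1 G2 m m1 2) +
        (α * δ 1 + β * δ 2) * dt (rot e α β 1) (adF (rot e α β) G0 G1 G2 m m1 2) +
        (-β * δ 1 + α * δ 2) * dt (rot e α β 2) (adF (rot e α β) G0 G1 G2 m m1 2)| ≤
        |δ 0| * (2 * |G2|) + |α * δ 1 + β * δ 2| * 1 + |-β * δ 1 + α * δ 2| * 1 := by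
      refine (abs_add_le _ _).trans ?_
      refine add_le_add ((abs_add_le _ _).trans (add_le_add ?_ ?_)) ?_
      · rw [abs_mul]; gcongr
      · rw [abs_mul]; gcongr
      · rw [abs_mul]; gcongr
    refine (mul_le_mul_of_nonneg_left e5 hB.le).trans ?_
    have e6 : B * (|δ 0| * (2 * |G2|) + |α * δ 1 + β * δ 2| * 1 + |-β * δ 1 + α * δ 2| * 1) =
        B * (|δ 0| * (2 * |G2|)) + B * |α * δ 1 + β * δ 2| + B * |-β * δ 1 + α * δ 2| := by ring
    rw [e6]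
    refine (add_le_add (add_le_add hB0 hB1) hB2).trans (le_of_eq ?_)
    rw [hη]; ring

/-- gradient along the adapted frame -/
theorem Dat.gmain (D : Dat w S σ A B V α β G0 Ga Gb G1 G2 m m1 a0) (he : Ortho e) (k : Fin 3)
    (δ : V3) :
    ∑ i, ((![G0, Ga, Gb] : V3) i + δ i) * dt (e i) (adF (rot e α β) G0 G1 G2 m m1 k) =
      ![m, 0, 0] k + (δ 0 * dt (rot e α β 0) (adF (rot e α β) G0 G1 G2 m m1 k) +
        (α * δ 1 + β * δ 2) * dt (rot e α β 1) (adF (rot e α β) G0 G1 G2 m m1 k) +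
        (-β * δ 1 + α * δ 2) * dt (rot e α β 2) (adF (rot e α β) G0 G1 G2 m m1 k)) := by
  have hEo : Ortho (rot e α β) := rot_ortho he D.unit
  have e1 : ∑ i, ((![G0, Ga, Gb] : V3) i + δ i) * dt (e i) (adF (rot e α β) G0 G1 G2 m m1 k) =
      ∑ i, (![G0, Ga, Gb] : V3) i * dt (e i) (adF (rot e α β) G0 G1 G2 m m1 k) +
        ∑ i, δ i * dt (e i) (adF (rot e α β) G0 G1 G2 m m1 k) := by
    rw [← sum_add_distrib]; exact sum_congr rfl fun i _ => by ring
  rw [e1, rot_sum D.unit δ, rot_sum D.unit ![G0, Ga, Gb]]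
  congr 1
  have k0 := fun i => (dt_adF (G0 := G0) (G1 := G1) (G2 := G2) (m := m) (m1 := m1) hEo i).1
  have k1 := fun i => (dt_adF (G0 := G0) (G1 := G1) (G2 := G2) (m := m) (m1 := m1) hEo i).2.1
  have k2 := fun i => (dt_adF (G0 := G0) (G1 := G1) (G2 := G2) (m := m) (m1 := m1) hEo i).2.2
  have c1 : α * (![G0, Ga, Gb] : V3) 1 + β * (![G0, Ga, Gb] : V3) 2 = G1 := D.G1e.symm
  have c2 : -β * (![G0, Ga, Gb] : V3) 1 + α * (![G0, Ga, Gb] : V3) 2 = G2 := D.G2e.symm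
  have c0 : (![G0, Ga, Gb] : V3) 0 = G0 := rfl
  rw [c0, c1, c2]
  have hm := D.mp
  have hm1 := D.m1p
  fin_cases k
  · change G0 * dt (rot e α β 0) (adF (rot e α β) G0 G1 G2 m m1 0) +
      G1 * dt (rot e α β 1) (adF (rot e α β) G0 G1 G2 m m1 0) +
      G2 * dt (rot e α β 2) (adF (rot e α β) G0 G1 G2 m m1 0) = m
    rw [k0, k0, k0]
    simp only [Matrix.cons_val_zero, Matrix.cons_val_one, Matrix.cons_val]
    field_simp
    linarith [D.ms]
  · change G0 * dt (rot e α β 0) (adF (rot e α β) G0 G1 G2 m m1 1) +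
      G1 * dt (rot e α β 1) (adF (rot e α β) G0 G1 G2 m m1 1) +
      G2 * dt (rot e α β 2) (adF (rot e α β) G0 G1 G2 m m1 1) = 0
    rw [k1, k1, k1]
    simp only [Matrix.cons_val_zero, Matrix.cons_val_one, Matrix.cons_val]
    ring
  · change G0 * dt (rot e α β 0) (adF (rot e α β) G0 G1 G2 m m1 2) +
      G1 * dt (rot e α β 1) (adF (rot e α β) G0 G1 G2 m m1 2) +
      G2 * dt (rot e α β 2) (adF (rot e α β) G0 G1 G2 m m1 2) = 0
    rw [k2, k2, k2]
    simp only [Matrix.cons_val_zero, Matrix.cons_val_one, Matrix.cons_val]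
    have : G0 * (1 / (m * m1) * -(G0 * G2)) + G1 * (1 / (m * m1) * -(G1 * G2)) +
        G2 * (1 / (m * m1) * m1 ^ 2) = 1 / (m * m1) * G2 * (m1 ^ 2 - (G0 ^ 2 + G1 ^ 2)) := by ring
    rw [this, D.m1s]
    ring

/-- coordinates of a vector of the test box in the adapted frame -/
theorem Dat.coord (D : Dat w S σ A B V α β G0 Ga Gb G1 G2 m m1 a0) (he : Ortho e) {u : V3}
    {t Q2 : ℝ} (ht : |t| ≤ a0) (hQ2 : |Q2| ≤ B / 3) (hQV : |Q2| ≤ V / 8)
    (htQ : t = (∑ i, (![G0, Ga, Gb] : V3) i * dt (e i) u) + Q2)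
    (hE1 : |dt (rot e α β 1) u| ≤ A) (hE2 : |dt (rot e α β 2) u| ≤ B) (i : Fin 3) :
    |dt (adF (rot e α β) G0 G1 G2 m m1 i) u| ≤ (![V, 128 * A, 32 * B] : V3) i := by
  have hm := D.mp
  have hm1 := D.m1p
  have hA := D.Ap
  have hB := D.Bp
  have hBA := D.BA
  have hG0 := D.G0p
  have hG0u := D.G0u
  have hG1a := D.G1a
  have hG2a := D.G2a
  have c1 : α * (![G0, Ga, Gb] : V3) 1 + β * (![G0, Ga, Gb] : V3) 2 = G1 := D.G1e.symm
  have c2 : -β * (![G0, Ga, Gb] : V3) 1 + α * (![G0, Ga, Gb] : V3) 2 = G2 := D.G2e.symm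
  have c0 : (![G0, Ga, Gb] : V3) 0 = G0 := rfl
  have hsum : G0 * dt (rot e α β 0) u + G1 * dt (rot e α β 1) u + G2 * dt (rot e α β 2) u =
      t - Q2 := by
    rw [htQ, rot_sum D.unit ![G0, Ga, Gb], c0, c1, c2]; ring
  have hX : |dt (adF (rot e α β) G0 G1 G2 m m1 0) u| ≤ 2 * B := by
    rw [adF_zero, hsum, abs_mul, abs_div, abs_one, abs_of_pos hm]
    have h2 : |t - Q2| ≤ 2 / 3 * B := (abs_sub _ _).trans (by linarith [D.aB])
    have h3 := D.m2
    calc 1 / m * |t - Q2| ≤ 2 * (2 / 3 * B) := by gcongr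
      _ ≤ 2 * B := by linarith
  have hXe : m * dt (adF (rot e α β) G0 G1 G2 m m1 0) u =
      G0 * dt (rot e α β 0) u + G1 * dt (rot e α β 1) u + G2 * dt (rot e α β 2) u := by
    rw [adF_zero]; field_simp
  have hE0 : |dt (rot e α β 0) u| ≤ 20 * A := by
    have h1 : G0 * dt (rot e α β 0) u = m * dt (adF (rot e α β) G0 G1 G2 m m1 0) u -
        G1 * dt (rot e α β 1) u - G2 * dt (rot e α β 2) u := by
      rw [hXe]; ring
    have h2 : |G0 * dt (rot e α β 0) u| ≤ 3 * (2 * B) + 2 * A + 2 * B := by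
      rw [h1]
      refine (abs_sub _ _).trans ?_
      have h3 := abs_sub (m * dt (adF (rot e α β) G0 G1 G2 m m1 0) u) (G1 * dt (rot e α β 1) u)
      have h4 : |m * dt (adF (rot e α β) G0 G1 G2 m m1 0) u| ≤ 3 * (2 * B) := by
        rw [abs_mul, abs_of_pos hm]
        have := D.mu
        gcongr
      have h5 : |G1 * dt (rot e α β 1) u| ≤ 2 * A := by
        rw [abs_mul]; gcongr
      have h6 : |G2 * dt (rot e α β 2) u| ≤ 2 * B := by
        rw [abs_mul]; gcongr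
      linarith
    rw [abs_mul, abs_of_pos hG0] at h2
    have h7 : 1 / 2 * |dt (rot e α β 0) u| ≤ G0 * |dt (rot e α β 0) u| :=
      mul_le_mul_of_nonneg_right D.G0l (abs_nonneg _)
    linarith
  have hm12 := D.m12
  fin_cases i
  · change |dt (adF (rot e α β) G0 G1 G2 m m1 0) u| ≤ V
    rw [adF_zero, hsum, abs_mul, abs_div, abs_one, abs_of_pos hm]
    have h2 : |t - Q2| ≤ V / 4 := (abs_sub _ _).trans (by linarith [D.aV])
    have h3 := D.m2
    have h4 := D.Vp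
    calc 1 / m * |t - Q2| ≤ 2 * (V / 4) := by gcongr
      _ ≤ V := by linarith
  · change |dt (adF (rot e α β) G0 G1 G2 m m1 1) u| ≤ 128 * A
    rw [adF_one, abs_mul, abs_div, abs_one, abs_of_pos hm1]
    have h1 : |-G1 * dt (rot e α β 0) u + G0 * dt (rot e α β 1) u| ≤ 2 * (20 * A) + 2 * A := by
      refine (abs_add_le _ _).trans ?_
      rw [abs_mul, abs_mul, abs_neg, abs_of_pos hG0]
      gcongr
    calc 1 / m1 * |-G1 * dt (rot e α β 0) u + G0 * dt (rot e α β 1) u| ≤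
        2 * (2 * (20 * A) + 2 * A) := by gcongr
      _ ≤ 128 * A := by linarith
  · change |dt (adF (rot e α β) G0 G1 G2 m m1 2) u| ≤ 32 * B
    have h1 : dt (adF (rot e α β) G0 G1 G2 m m1 2) u =
        1 / m1 * (-G2 * dt (adF (rot e α β) G0 G1 G2 m m1 0) u + m * dt (rot e α β 2) u) := by
      rw [adF_two, adF_zero]
      have h2 : m ^ 2 = m1 ^ 2 + G2 ^ 2 := by rw [D.ms, D.m1s]
      field_simp
      rw [h2]
      ring
    rw [h1, abs_mul, abs_div, abs_one, abs_of_pos hm1]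
    have hmu := D.mu
    have h3 : |-G2 * dt (adF (rot e α β) G0 G1 G2 m m1 0) u + m * dt (rot e α β 2) u| ≤
        2 * (2 * B) + 3 * B := by
      refine (abs_add_le _ _).trans ?_
      rw [abs_mul, abs_mul, abs_neg, abs_of_pos hm]
      gcongr
    calc 1 / m1 * |-G2 * dt (adF (rot e α β) G0 G1 G2 m m1 0) u + m * dt (rot e α β 2) u| ≤
        2 * (2 * (2 * B) + 3 * B) := by gcongr
      _ ≤ 32 * B := by linarith

/-- **class `ShC` from an expansion with adapted data** -/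
theorem Dat.sheet (D : Dat w S σ A B V α β G0 Ga Gb G1 G2 m m1 a0) (he : Ortho e) (hρ0 : 0 < ρ0)
    (hh : ∀ i, |h i| * ρ0 * w i ≤ 2 * w 0) (hH : ∀ i j, |H i j| * w i * w j ≤ w 0)
    {T : ℝ → V3 → ℝ} (hTq : IsQ T) {y : Ln4} {z1 ρ1 r0 : ℝ} (hLT : Loc T e y z1 ![G0, Ga, Gb] h H)
    (hρ1 : 0 ≤ ρ1) (hρS : ρ1 ≤ S * ρ0) (hr0 : r0 ≤ a0) :
    ShC (adF (rot e α β) G0 G1 G2 m m1) y ![V, 128 * A, 32 * B] (fun z x => (1 / m) * T z x)
      (2 * a0) z1 ρ1 r0 := by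
  have hEo : Ortho (rot e α β) := rot_ortho he D.unit
  have hfo : Ortho (adF (rot e α β) G0 G1 G2 m m1) := adF_ortho hEo D.mp D.m1p D.ms D.m1s
  have hstep : ∀ z, z1 ≤ z → z ≤ z1 + ρ1 → ∀ (k : Fin 3) (x : V3) (τ : ℝ), 0 ≤ τ →
      InK (adF (rot e α β) G0 G1 G2 m m1) y (dbl3 ![V, 128 * A, 32 * B]) z x →
      InK (adF (rot e α β) G0 G1 G2 m m1) y (dbl3 ![V, 128 * A, 32 * B]) z
        (x + τ • adF (rot e α β) G0 G1 G2 m m1 k) →
      ∃ r : ℝ, |r| ≤ 360500 * S ∧ (k = 1 → A * |r| ≤ 3893400 * S ^ 2 * w 0) ∧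
        (k = 2 → B * |r| ≤ 6056400 * S ^ 2 * w 0) ∧
        1 / m * T z (x + τ • adF (rot e α β) G0 G1 G2 m m1 k) - 1 / m * T z x =
          τ * (1 / m * (![m, 0, 0] k + r)) := by
    intro z hz1 hz2 k x τ hτ hx hx'
    obtain ⟨um, hum, heq⟩ : ∃ um : V3, (∀ i, |dt (adF (rot e α β) G0 G1 G2 m m1 i) um| ≤
        dbl3 ![V, 128 * A, 32 * B] i) ∧
        T z (x + τ • adF (rot e α β) G0 G1 G2 m m1 k) - T z x =
          τ * ∑ i, ((![G0, Ga, Gb] : V3) i + ((z - z1) * h i +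
          2 * ∑ j, H i j * dt (e j) um)) * dt (e i) (adF (rot e α β) G0 G1 G2 m m1 k) := by
      refine ⟨x - y.pos z + (τ / 2) • adF (rot e α β) G0 G1 G2 m m1 k, fun i => ?_, ?_⟩
      · have a1 := hx i
        have a2 := hx' i
        have e1 : dt (adF (rot e α β) G0 G1 G2 m m1 i)
            (x - y.pos z + (τ / 2) • adF (rot e α β) G0 G1 G2 m m1 k) =
            (dt (adF (rot e α β) G0 G1 G2 m m1 i) (x - y.pos z) +
              dt (adF (rot e α β) G0 G1 G2 m m1 i)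
                (x + τ • adF (rot e α β) G0 G1 G2 m m1 k - y.pos z)) / 2 := by
          simp only [dt_add, dt_sub, dt_smul]; ring
        rw [e1, abs_div, abs_two, div_le_iff₀ (by norm_num)]
        refine (abs_add_le _ _).trans ?_
        linarith
      · have e1 := hLT.step z (x - y.pos z) (adF (rot e α β) G0 G1 G2 m m1 k) τ
        rw [add_sub_cancel] at e1
        rw [e1]
        congr 1
        refine sum_congr rfl fun i _ => ?_
        simp only [dt_add, dt_smul]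
        ring
    have hζ : |z - z1| ≤ S * ρ0 := by
      rw [abs_of_nonneg (by linarith)]; linarith
    obtain ⟨b1, b2, b3⟩ := D.grad he hρ0 hh hH hum hζ
      (δ := fun i => (z - z1) * h i + 2 * ∑ j, H i j * dt (e j) um) (fun i => rfl)
    have hd := D.gmain he k (fun i => (z - z1) * h i + 2 * ∑ j, H i j * dt (e j) um)
    refine ⟨_, b1 k, ?_, ?_, ?_⟩
    · intro hk
      subst hk
      exact b2
    · intro hk
      subst hk
      exact b3
    · rw [← mul_sub, heq, hd]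
      ring
  have hη1 : 360500 * S ≤ 1 / 50 := by linarith [D.Ss]
  have hmp := D.mp
  have hm2 := D.m2
  have hA := D.Ap
  have hB := D.Bp
  have hV := D.Vp
  refine
    { ortho := hfo
      isQ := hTq.smul _
      r0_le := ?_
      w0_ge := ?_
      w0_le := ?_
      w_le := ?_
      st0 := ?_
      st1 := ?_
      st2 := ?_ }
  · linarith [D.ap]
  · change 2 * a0 ≤ V
    linarith [D.aV, D.ap]
  · change V ≤ 32 * B
    exact D.V32
  · change 32 * B ≤ 128 * A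
    linarith [D.BA]
  · intro z hz1 hz2 x τ hτ hx hx'
    obtain ⟨r, hr, -, -, he⟩ := hstep z hz1 hz2 0 x τ hτ hx hx'
    rw [he]
    have e2 : τ * (1 / m * (![m, 0, 0] 0 + r)) = τ * (1 + 1 / m * r) := by
      simp only [Matrix.cons_val_zero]
      field_simp
    rw [e2]
    have e3 : |1 / m * r| ≤ 1 / 25 := by
      rw [abs_mul, abs_div, abs_one, abs_of_pos hmp]
      calc 1 / m * |r| ≤ 2 * (1 / 50) := by
            gcongr
            exact hr.trans hη1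
        _ = 1 / 25 := by norm_num
    rw [abs_le] at e3
    have e4 : τ * (1 / m * r) ≤ τ * (1 / 25) := mul_le_mul_of_nonneg_left e3.2 hτ
    have e5 : τ * (-(1 / 25)) ≤ τ * (1 / m * r) := mul_le_mul_of_nonneg_left e3.1 hτ
    rw [mul_add, mul_one]
    constructor <;> linarith
  · intro z hz1 hz2 x τ hτ hx hx'
    obtain ⟨r, -, hr, -, he⟩ := hstep z hz1 hz2 1 x τ hτ hx hx'
    rw [he]
    have e2 : τ * (1 / m * (![m, 0, 0] 1 + r)) = τ * (1 / m * r) := by simp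
    rw [e2, abs_mul, abs_mul, abs_of_nonneg hτ, abs_div, abs_one, abs_of_pos hmp]
    change τ * (1 / m * |r|) ≤ V / (128 * A) * τ
    have h3 : 0 ≤ S ^ 2 * w 0 := by have := D.p0; positivity
    have e4 : A * |r| ≤ V / 256 := by
      have h1 := D.VS
      linarith [hr rfl]
    have e5 : |r| ≤ V / 256 / A := by
      rw [le_div_iff₀ hA]; linarith
    calc τ * (1 / m * |r|) ≤ τ * (2 * (V / 256 / A)) := by gcongr
      _ = V / (128 * A) * τ := by field_simp; ring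
  · intro z hz1 hz2 x τ hτ hx hx'
    obtain ⟨r, -, -, hr, he⟩ := hstep z hz1 hz2 2 x τ hτ hx hx'
    rw [he]
    have e2 : τ * (1 / m * (![m, 0, 0] 2 + r)) = τ * (1 / m * r) := by simp
    rw [e2, abs_mul, abs_mul, abs_of_nonneg hτ, abs_div, abs_one, abs_of_pos hmp]
    change τ * (1 / m * |r|) ≤ V / (32 * B) * τ
    have h3 : 0 ≤ S ^ 2 * w 0 := by have := D.p0; positivity
    have e4 : B * |r| ≤ V / 64 := by
      have h1 := D.VS
      linarith [hr rfl]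
    have e5 : |r| ≤ V / 64 / B := by
      rw [le_div_iff₀ hB]; linarith
    calc τ * (1 / m * |r|) ≤ τ * (2 * (V / 64 / B)) := by gcongr
      _ = V / (32 * B) * τ := by field_simp; ring

end

end Crest.Agent.R136.Sh605
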