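import Crest.Agent.R136.Sh12_605
import Crest.Agent.R136.Sh10_605

/-!
# R136 (S0187): `dmax_thin` for the class `ShC` (helper605)
-/

set_option autoImplicit false
set_option linter.unusedVariables false

namespace Crest.Agent.R136.Sh605

open Finset Sh321

theorem frame_bd {n : Fin 3 → V3} (hn : Ortho n) {s : V3} {S : ℝ} (hsS : ∀ i, s i ≤ S) {u : V3}
    (hb : ∀ i, |dt (n i) u| ≤ s i) (j : Fin 3) : |u j| ≤ 3 * S := by
  rw [hn.expand u j]
  have g : ∀ i, |dt (n i) u * n i j| ≤ S := by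
    intro i
    rw [abs_mul]
    have h1 := (hb i).trans (hsS i)
    have h2 := hn.abs_le_one i j
    have h3 : 0 ≤ S := (abs_nonneg _).trans h1
    calc |dt (n i) u| * |n i j| ≤ S * 1 := by gcongr
      _ = S := mul_one S
  refine (abs_add_le _ _).trans ?_
  have := abs_add_le (dt (n 0) u * n 0 j) (dt (n 1) u * n 1 j)
  linarith [g 0, g 1, g 2]

/-- steepness, any sign -/
theorem st0_abs {e : Fin 3 → V3} {P : V3 → Prop} {q : V3 → ℝ}
    (st0 : ∀ (x : V3) (τ : ℝ), 0 ≤ τ → P x → P (x + τ • e 0) →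
      τ / 2 ≤ q (x + τ • e 0) - q x ∧ q (x + τ • e 0) - q x ≤ 2 * τ) {x : V3} {τ : ℝ}
    (hx : P x) (hx' : P (x + τ • e 0)) : |τ| ≤ 2 * |q (x + τ • e 0) - q x| := by
  rcases le_or_gt 0 τ with h | h
  · have := (st0 x τ h hx hx').1
    rw [abs_of_nonneg h]
    linarith [le_abs_self (q (x + τ • e 0) - q x)]
  · have e1 : x + τ • e 0 + (-τ) • e 0 = x := by module
    have := (st0 (x + τ • e 0) (-τ) (by linarith) hx' (by rw [e1]; exact hx)).1
    rw [e1] at this
    rw [abs_of_neg h]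
    linarith [neg_le_abs (q (x + τ • e 0) - q x)]

/-- slope, any sign -/
theorem st_abs {e : Fin 3 → V3} {P : V3 → Prop} {q : V3 → ℝ} {k : Fin 3} {Λ : ℝ}
    (st : ∀ (x : V3) (τ : ℝ), 0 ≤ τ → P x → P (x + τ • e k) → |q (x + τ • e k) - q x| ≤ Λ * τ)
    {x : V3} {τ : ℝ} (hx : P x) (hx' : P (x + τ • e k)) : |q (x + τ • e k) - q x| ≤ Λ * |τ| := by
  rcases le_or_gt 0 τ with h | h
  · have := st x τ h hx hx'
    rwa [abs_of_nonneg h]
  · have e1 : x + τ • e k + (-τ) • e k = x := by module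
    have := st (x + τ • e k) (-τ) (by linarith) hx' (by rw [e1]; exact hx)
    rw [e1, abs_sub_comm] at this
    rwa [abs_of_neg h]

/-- **the `e 0`-component of the difference of two lines of the sheet** -/
theorem shC_diff0 {e : Fin 3 → V3} {c : Ln4} {w : V3} {q : ℝ → V3 → ℝ} {a z0 ρ r0 : ℝ}
    (hS : ShC e c w q a z0 ρ r0) (ha : 0 < a) {z : ℝ} (hz : z0 ≤ z) (hz' : z ≤ z0 + ρ)
    {x y : V3} (hx : InK e c w z x) (hy : InK e c w z y) {δ δ1 δ2 : ℝ}
    (hq : |q z x - q z y| ≤ δ) (h1 : |dt (e 1) (x - y)| ≤ δ1 * w 1)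
    (h2 : |dt (e 2) (x - y)| ≤ δ2 * w 2) : |dt (e 0) (x - y)| ≤ 2 * (δ + (δ1 + δ2) * w 0) := by
  have p0 : 0 < w 0 := ha.trans_le hS.w0_ge
  have p2 : 0 < w 2 := p0.trans_le hS.w0_le
  have p1 : 0 < w 1 := p2.trans_le hS.w_le
  have hw : ∀ i, 0 < w i := by
    intro i; fin_cases i
    · exact p0
    · exact p1
    · exact p2
  have ho := hS.ortho
  have e00 : ∀ i j, dt (e i) (e j) = if i = j then 1 else 0 := ho
  generalize hU0 : dt (e 0) (x - y) = U0 at *
  generalize hU1 : dt (e 1) (x - y) = U1 at *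
  generalize hU2 : dt (e 2) (x - y) = U2 at *
  have hxe : x = y + U1 • e 1 + U2 • e 2 + U0 • e 0 := by
    funext j
    have := ho.expand (x - y) j
    simp only [Pi.sub_apply] at this
    simp only [Pi.add_apply, Pi.smul_apply, smul_eq_mul]
    rw [hU0, hU1, hU2] at this
    linarith
  have mem : ∀ x' : V3, (∀ i, |dt (e i) (x' - c.pos z)| ≤ w i) → InK e c (dbl3 w) z x' := by
    intro x' h i
    refine (h i).trans ?_
    have := hw i
    simp only [dbl3]; linarith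
  have cx : ∀ i, dt (e i) (x - c.pos z) = dt (e i) (y - c.pos z) + dt (e i) (x - y) := by
    intro i; simp only [dt_sub]; ring
  have m0 : InK e c (dbl3 w) z y := mem y hy
  have c1 : ∀ i, dt (e i) (y + U1 • e 1 - c.pos z) =
      dt (e i) (y - c.pos z) + U1 * (if i = 1 then 1 else 0) := by
    intro i
    have : dt (e i) (y + U1 • e 1 - c.pos z) = dt (e i) (y - c.pos z) + U1 * dt (e i) (e 1) := by
      simp only [dt_sub, dt_add, dt_smul]; ring
    rw [this, e00]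
  have c2 : ∀ i, dt (e i) (y + U1 • e 1 + U2 • e 2 - c.pos z) =
      dt (e i) (y - c.pos z) + U1 * (if i = 1 then 1 else 0) + U2 * (if i = 2 then 1 else 0) := by
    intro i
    have : dt (e i) (y + U1 • e 1 + U2 • e 2 - c.pos z) =
        dt (e i) (y - c.pos z) + U1 * dt (e i) (e 1) + U2 * dt (e i) (e 2) := by
      simp only [dt_sub, dt_add, dt_smul]; ring
    rw [this, e00, e00]
  have x1 := hx 1
  have x2 := hx 2
  rw [cx 1, hU1] at x1
  rw [cx 2, hU2] at x2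
  have m1 : InK e c (dbl3 w) z (y + U1 • e 1) := by
    refine mem _ fun i => ?_
    rw [c1 i]
    fin_cases i
    · simpa using hy 0
    · simpa using x1
    · simpa using hy 2
  have m2 : InK e c (dbl3 w) z (y + U1 • e 1 + U2 • e 2) := by
    refine mem _ fun i => ?_
    rw [c2 i]
    fin_cases i
    · simpa using hy 0
    · simpa using x1
    · simpa using x2
  have m3 : InK e c (dbl3 w) z (y + U1 • e 1 + U2 • e 2 + U0 • e 0) := by
    rw [← hxe]; exact mem x hx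
  have s0 := st0_abs (q := q z) (P := InK e c (dbl3 w) z) (hS.st0 z hz hz') m2 m3
  have s1 := st_abs (q := q z) (P := InK e c (dbl3 w) z) (hS.st1 z hz hz') m0 m1
  have s2 := st_abs (q := q z) (P := InK e c (dbl3 w) z) (hS.st2 z hz hz') m1 m2
  rw [← hxe] at s0
  have t1 : w 0 / w 1 * |U1| ≤ δ1 * w 0 := by
    calc w 0 / w 1 * |U1| ≤ w 0 / w 1 * (δ1 * w 1) := by gcongr
      _ = _ := by field_simp
  have t2 : w 0 / w 2 * |U2| ≤ δ2 * w 0 := by
    calc w 0 / w 2 * |U2| ≤ w 0 / w 2 * (δ2 * w 2) := by gcongr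
      _ = _ := by field_simp
  have t3 : |q z x - q z (y + U1 • e 1 + U2 • e 2)| ≤ |q z x - q z y| +
      |q z (y + U1 • e 1) - q z y| + |q z (y + U1 • e 1 + U2 • e 2) - q z (y + U1 • e 1)| := by
    have e1 : q z x - q z (y + U1 • e 1 + U2 • e 2) = (q z x - q z y) -
      (q z (y + U1 • e 1) - q z y) - (q z (y + U1 • e 1 + U2 • e 2) - q z (y + U1 • e 1)) := by
      ring
    rw [e1]
    refine (abs_sub _ _).trans ?_
    gcongr
    exact abs_sub _ _
  linarith

/-- the local expansion of the function of the test sheet -/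
theorem Loc.tq {q : ℝ → V3 → ℝ} {e : Fin 3 → V3} {y : Ln4} {zm : ℝ} {g h : V3}
    {H : Fin 3 → Fin 3 → ℝ} (hL : Loc q e y zm g h H) (w : V3) (a : ℝ) (n : V3) :
    Loc (Sh605.tq e w q a y n) e y zm
      ![g 0, g 1 + a / n 0 * (n 1 / w 1), g 2 + a / n 0 * (n 2 / w 2)] h H := by
  refine ⟨hL.sym, fun z u => ?_⟩
  rw [tq_sub, hL.exp]
  have e1 : y.pos z + u - y.pos z = u := by abel
  rw [e1, Fin.sum_univ_three (fun i => (g i + (z - zm) * h i) * dt (e i) u),
    Fin.sum_univ_three (fun i => ((![g 0, g 1 + a / n 0 * (n 1 / w 1),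
      g 2 + a / n 0 * (n 2 / w 2)] : V3) i + (z - zm) * h i) * dt (e i) u)]
  simp only [Matrix.cons_val_zero, Matrix.cons_val_one, Matrix.cons_val]
  ring

theorem tq_center (e : Fin 3 → V3) (w : V3) (q : ℝ → V3 → ℝ) (a : ℝ) (y : Ln4) (n : V3) (z : ℝ) :
    tq e w q a y n z (y.pos z) = 0 := by
  simp only [tq, sub_self]
  simp [dt]

section

variable {w g h : V3} {S σ A B V α β a : ℝ} {n : Fin 3 → V3} {s : V3} {i0 : Fin 3}

theorem abs3_le {x y z X Y Z : ℝ} (hx : |x| ≤ X) (hy : |y| ≤ Y) (hz : |z| ≤ Z) :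
    |x + y + z| ≤ X + Y + Z :=
  (abs_add_le _ _).trans (add_le_add ((abs_add_le _ _).trans (add_le_add hx hy)) hz)

/-- **the numerical data of the test sheet** -/
theorem mk_dat (ha : 0 < a) (h0 : a ≤ w 0) (h02 : w 0 ≤ w 2) (h21 : w 2 ≤ w 1)
    (hn : Ortho n) (hs : ∀ i, 0 < s i) (hC : CovC n s (w 1) (w 2) i0 α β A B)
    (hsS : ∀ i, s i ≤ S) (hσs : ∀ i, σ ≤ s i) (hσ : 0 < σ) (hSσ : 1000000000 * S ^ 2 ≤ σ)
    (hthin : 6 * S * a ≤ σ * w 2) (g0 : 1 / 2 ≤ g 0) (g0' : g 0 ≤ 2) (g1 : |g 1| ≤ w 0 / w 1)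
    (g2 : |g 2| ≤ w 0 / w 2) {Ga Gb G1 G2 m m1 : ℝ}
    (hGa : Ga = g 1 + a / n i0 0 * (n i0 1 / w 1)) (hGb : Gb = g 2 + a / n i0 0 * (n i0 2 / w 2))
    (hG1 : G1 = α * Ga + β * Gb) (hG2 : G2 = -β * Ga + α * Gb)
    (hm : m = Real.sqrt (g 0 ^ 2 + G1 ^ 2 + G2 ^ 2)) (hm1 : m1 = Real.sqrt (g 0 ^ 2 + G1 ^ 2)) :
    Dat w S σ A B (min (32 * B) (240 * S * w 0)) α β (g 0) Ga Gb G1 G2 m m1
      (a * (s i0 / |n i0 0|)) := by
  have hS0 : 0 < S := (hs 0).trans_le (hsS 0)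
  have p0 : 0 < w 0 := ha.trans_le h0
  have p2 : 0 < w 2 := p0.trans_le h02
  have p1 : 0 < w 1 := p2.trans_le h21
  have hnn : 0 < |n i0 0| := abs_pos.2 hC.cov.n0
  have hsi := hs i0
  have Ss := num_S hS0 ((hσs 0).trans (hsS 0)) hSσ
  have hB := hC.cov.Bpos
  have hBA := hC.cov.BA
  have hBσ := hC.cov.le_B σ hσs
  have hB6 := hC.cov.B_le S hsS
  have hA3 := hC.cov.A_le S hsS
  have hAβ := hC.cov.Ab_le S hsS
  have hA : 0 < A := hB.trans_le hBA
  obtain ⟨hα1, hβ1⟩ := unit_abs hC.cov.unit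
  have h2S : s i0 / |n i0 0| ≤ 2 * S := hC.cov.a_le S hsS
  have ha0 : a * (s i0 / |n i0 0|) ≤ 2 * (S * a) := by
    calc a * (s i0 / |n i0 0|) ≤ a * (2 * S) := by gcongr
      _ = _ := by ring
  have ha0p : 0 < a * (s i0 / |n i0 0|) := by positivity
  have hSa : S * a ≤ S * w 0 := by gcongr
  have hSw : 0 < S * w 0 := by positivity
  have aB : a * (s i0 / |n i0 0|) ≤ B / 3 := by linarith
  have hcorr : a / |n i0 0| ≤ w 2 / 3 :=
    num_corr ha hnn hσ (hσs i0) (by rw [div_le_iff₀ hnn] at h2S; exact h2S) hthin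
  have hcor : ∀ (k : Fin 3) (W : ℝ), w 2 ≤ W → |a / n i0 0 * (n i0 k / W)| ≤ 1 / 3 := by
    intro k W hW
    have hWp : 0 < W := p2.trans_le hW
    rw [abs_mul, abs_div, abs_div, abs_of_pos ha, abs_of_pos hWp]
    have h6 := hn.abs_le_one i0 k
    calc a / |n i0 0| * (|n i0 k| / W) ≤ w 2 / 3 * (1 / w 2) := by gcongr
      _ = 1 / 3 := by field_simp
  have hg1' : |g 1| ≤ 1 := g1.trans ((div_le_one p1).2 (h02.trans h21))
  have hg2' : |g 2| ≤ 1 := g2.trans ((div_le_one p2).2 h02)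
  have ecor : ∀ (X Y : ℝ), a / |n i0 0| * (3 * (s i0 + S * |n i0 0|)) ≤ 9 * (S * w 0) := by
    intro X Y
    have e1 : a / |n i0 0| * (3 * (s i0 + S * |n i0 0|)) =
        3 * (a * (s i0 / |n i0 0|)) + 3 * (S * a) := by field_simp
    rw [e1]; linarith
  refine
    { Sp := hS0
      Ss := Ss
      Sσ := hSσ
      p0 := p0
      p1 := p1
      p2 := p2
      w02 := h02
      w21 := h21
      unit := hC.cov.unit
      Bp := hB
      BA := hBA
      Bσ := hBσ
      B6 := hB6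
      A3 := hA3
      Aβ := hAβ
      ap := ha0p
      aB := aB
      Vp := lt_min (by linarith) (by linarith)
      V32 := min_le_left _ _
      V240 := min_le_right _ _
      aV := le_min (by linarith) (by linarith)
      VS := ?_
      G0l := g0
      G0u := g0'
      Gal := ?_
      Gbl := ?_
      G1e := hG1
      G2e := hG2
      AG := ?_
      BG := ?_
      me := hm
      m1e := hm1 }
  · refine le_min ?_ ?_
    · have h1 : 1000000000 * S ^ 2 * w 0 ≤ σ * w 2 := by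
        calc 1000000000 * S ^ 2 * w 0 ≤ σ * w 0 := by gcongr
          _ ≤ σ * w 2 := by gcongr
      linarith
    · calc 1000000000 * S ^ 2 * w 0 = 1000000000 * S * (S * w 0) := by ring
        _ ≤ 1 * (S * w 0) := by gcongr
        _ ≤ 240 * S * w 0 := by linarith
  · rw [hGa]
    refine (abs_add_le _ _).trans ?_
    have := hcor 1 (w 1) h21
    linarith
  · rw [hGb]
    refine (abs_add_le _ _).trans ?_
    have := hcor 2 (w 2) le_rfl
    linarith
  · have e1 : A * |G1| = |A * α * g 1 + A * β * g 2 +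
        a / n i0 0 * (A * (n i0 1 / w 1 * α + n i0 2 / w 2 * β))| := by
      rw [← abs_of_pos hA, ← abs_mul, abs_of_pos hA, hG1, hGa, hGb]
      congr 1; ring
    rw [e1]
    have t1 : |A * α * g 1| ≤ 3 * (S * w 0) := by
      rw [abs_mul, abs_mul, abs_of_pos hA]
      calc A * |α| * |g 1| ≤ (3 * S * w 1) * 1 * (w 0 / w 1) := by gcongr
        _ = _ := by field_simp
    have t2 : |A * β * g 2| ≤ 3 * (S * w 0) := by
      rw [abs_mul, abs_mul, abs_of_pos hA]
      calc A * |β| * |g 2| ≤ 3 * S * w 2 * (w 0 / w 2) := by gcongr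
        _ = _ := by field_simp
    have t3 : |a / n i0 0 * (A * (n i0 1 / w 1 * α + n i0 2 / w 2 * β))| ≤ 9 * (S * w 0) := by
      rw [abs_mul, abs_div, abs_of_pos ha, abs_mul, abs_of_pos hA]
      refine le_trans ?_ (ecor 0 0)
      have := hC.corA S hsS
      gcongr
    have := abs3_le t1 t2 t3
    linarith
  · have e1 : B * |G2| = |B * -β * g 1 + B * α * g 2 +
        a / n i0 0 * (B * (n i0 1 / w 1 * -β + n i0 2 / w 2 * α))| := by
      rw [← abs_of_pos hB, ← abs_mul, abs_of_pos hB, hG2, hGa, hGb]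
      congr 1; ring
    rw [e1]
    have t1 : |B * -β * g 1| ≤ 6 * (S * w 0) := by
      rw [abs_mul, abs_mul, abs_neg, abs_of_pos hB]
      calc B * |β| * |g 1| ≤ (6 * S * w 2) * 1 * (w 0 / w 1) := by gcongr
        _ ≤ (6 * S * w 2) * 1 * (w 0 / w 2) := by gcongr
        _ = _ := by field_simp
    have t2 : |B * α * g 2| ≤ 6 * (S * w 0) := by
      rw [abs_mul, abs_mul, abs_of_pos hB]
      calc B * |α| * |g 2| ≤ (6 * S * w 2) * 1 * (w 0 / w 2) := by gcongr
        _ = _ := by field_simp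
    have t3 : |a / n i0 0 * (B * (n i0 1 / w 1 * -β + n i0 2 / w 2 * α))| ≤ 18 * (S * w 0) := by
      rw [abs_mul, abs_div, abs_of_pos ha, abs_mul, abs_of_pos hB]
      have h1 := hC.corB S hsS
      have h2 := ecor 0 0
      calc a / |n i0 0| * (B * |n i0 1 / w 1 * -β + n i0 2 / w 2 * α|) ≤
          a / |n i0 0| * (6 * (s i0 + S * |n i0 0|)) := by gcongr
        _ = 2 * (a / |n i0 0| * (3 * (s i0 + S * |n i0 0|))) := by ring
        _ ≤ 2 * (9 * (S * w 0)) := by gcongr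
        _ = _ := by ring
    have := abs3_le t1 t2 t3
    linarith

end

/-- **the test sheet of a box of the normalised space of a sheet of class `ShC`** -/
theorem test_sheetC {e : Fin 3 → V3} {c : Ln4} {w : V3} {q : ℝ → V3 → ℝ}
    {a z0 ρ0 z1 ρ1 r0 r1 : ℝ} (hS : ShC e c w q a z0 ρ0 r1) (ha : 0 < a) (hρ0 : 0 < ρ0)
    (h01 : z0 ≤ z1) (h11 : z1 + ρ1 ≤ z0 + ρ0) (hρ1 : 0 ≤ ρ1) {y : Ln4}
    (hy : ∀ z, z0 ≤ z → z ≤ z0 + ρ0 → InK e c w z (y.pos z))
    {n : Fin 3 → V3} (hn : Ortho n) {s : V3} (hs : ∀ i, 0 < s i) {i0 : Fin 3} {α β A B S σ : ℝ}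
    (hC : CovC n s (w 1) (w 2) i0 α β A B) (hsS : ∀ i, s i ≤ S) (hσs : ∀ i, σ ≤ s i) (hσ : 0 < σ)
    (hSσ : 1000000000 * S ^ 2 ≤ σ) (hρS : ρ1 ≤ S * ρ0) (hr1 : r0 ≤ σ * r1)
    (hthin : 6 * S * a ≤ σ * w 2) :
    ∃ (f : Fin 3 → V3) (V : ℝ) (q' : ℝ → V3 → ℝ), V ≤ 32 * B ∧ (w 0 = w 2 → V = 32 * B) ∧
      ShC f y ![V, 128 * A, 32 * B] q' (2 * (a * (s i0 / |n i0 0|))) z1 ρ1 r0 ∧
      ∀ t : Ln4, (∀ z, z1 ≤ z → z ≤ z1 + ρ1 → InK e c w z (t.pos z)) →
        (∀ z, z1 ≤ z → z ≤ z1 + ρ1 → ∀ i, |dt (n i) (nrm e w q a y t z)| ≤ s i) →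
        InSheet t f y ![V, 128 * A, 32 * B] q' (2 * (a * (s i0 / |n i0 0|))) z1 ρ1 := by
  have hS0 : 0 < S := (hs 0).trans_le (hsS 0)
  have p0 : 0 < w 0 := ha.trans_le hS.w0_ge
  have p2 : 0 < w 2 := p0.trans_le hS.w0_le
  have p1 : 0 < w 1 := p2.trans_le hS.w_le
  have hw : ∀ i, 0 < w i := by
    intro i; fin_cases i
    · exact p0
    · exact p1
    · exact p2
  obtain ⟨g, h, H, hsym, hexp⟩ := expand_q hS.isQ hS.ortho y z1
  have hL : Loc q e y z1 g h H := ⟨hsym, hexp⟩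
  obtain ⟨⟨g0, g0'⟩, g1, g2, hh, hH⟩ := loc_bounds0 hS.ortho hw hS.st0 hS.st1 hS.st2 hρ0 hy h01
    (by linarith) hL
  have D := mk_dat ha hS.w0_ge hS.w0_le hS.w_le hn hs hC hsS hσs hσ hSσ hthin g0 g0' g1 g2
    rfl rfl rfl rfl rfl rfl
  have hLT := hL.tq w a (n i0)
  have hnn : 0 < |n i0 0| := abs_pos.2 hC.cov.n0
  have hsi := hs i0
  have hr0 : r0 ≤ a * (s i0 / |n i0 0|) := by
    calc r0 ≤ σ * r1 := hr1
      _ ≤ σ * a := mul_le_mul_of_nonneg_left hS.r0_le hσ.le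
      _ ≤ s i0 / |n i0 0| * a :=
          mul_le_mul_of_nonneg_right ((hσs i0).trans hC.cov.le_a) ha.le
      _ = _ := by ring
  refine ⟨_, _, _, min_le_left _ _, ?_, D.sheet hS.ortho hρ0 hh hH (tq_isQ hS.isQ _ _ _ _ _) hLT
    hρ1 hρS hr0, ?_⟩
  · intro h02
    refine min_eq_left ?_
    rw [h02]
    have := hC.cov.B_le S hsS
    have : 0 < S * w 2 := by positivity
    linarith
  · intro t ht hb z hz hz'
    have hzz : z0 ≤ z := h01.trans hz
    have hzz' : z ≤ z0 + ρ0 := by linarith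
    have hbu := hb z hz hz'
    have hfr := frame_bd hn hsS hbu
    have hT1 : tq e w q a y (n i0) z (t.pos z) = a / n i0 0 * dt (n i0) (nrm e w q a y t z) :=
      tq_apply e w q ha.ne' y t (n i0) hC.cov.n0 z
    have hT2 : |tq e w q a y (n i0) z (t.pos z)| ≤ a * (s i0 / |n i0 0|) := by
      rw [hT1, abs_mul, abs_div, abs_of_pos ha]
      calc a / |n i0 0| * |dt (n i0) (nrm e w q a y t z)| ≤ a / |n i0 0| * s i0 := by
            have := hbu i0
            gcongr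
        _ = _ := by ring
    have hu1 : dt (e 1) (t.pos z - y.pos z) = w 1 * nrm e w q a y t z 1 := by
      rw [nrm_one]; field_simp
    have hu2 : dt (e 2) (t.pos z - y.pos z) = w 2 * nrm e w q a y t z 2 := by
      rw [nrm_two]; field_simp
    have hu0 : q z (t.pos z) - q z (y.pos z) = a * nrm e w q a y t z 0 := by
      rw [nrm_zero]; field_simp
    have U1 : |dt (e 1) (t.pos z - y.pos z)| ≤ 3 * S * w 1 := by
      rw [hu1, abs_mul, abs_of_pos p1, mul_comm]
      exact mul_le_mul_of_nonneg_right (hfr 1) p1.le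
    have U2 : |dt (e 2) (t.pos z - y.pos z)| ≤ 3 * S * w 2 := by
      rw [hu2, abs_mul, abs_of_pos p2, mul_comm]
      exact mul_le_mul_of_nonneg_right (hfr 2) p2.le
    have Uq : |q z (t.pos z) - q z (y.pos z)| ≤ 3 * S * w 0 := by
      rw [hu0, abs_mul, abs_of_pos ha, mul_comm]
      have h9 := hS.w0_ge
      have := hfr 0
      gcongr
    have U0 : |dt (e 0) (t.pos z - y.pos z)| ≤ 18 * S * w 0 := by
      refine (shC_diff0 hS ha hzz hzz' (ht z hz hz') (hy z hzz hzz') Uq U1 U2).trans (le_of_eq ?_)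
      ring
    have hU : ∀ i, |(fun j => dt (e j) (t.pos z - y.pos z)) i| ≤ 18 * S * w i := by
      intro i
      fin_cases i
      · exact U0
      · refine U1.trans ?_
        show 3 * S * w 1 ≤ 18 * S * w 1
        gcongr; norm_num
      · refine U2.trans ?_
        show 3 * S * w 2 ≤ 18 * S * w 2
        gcongr; norm_num
    have hζ : |z - z1| ≤ S * ρ0 := by
      rw [abs_of_nonneg (by linarith)]; linarith
    have hQ := sec_bd hw hρ0 hS0.le hh hH hU hζ (by norm_num)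
    have hVS := D.VS
    have hSS : 0 ≤ S ^ 2 * w 0 := by positivity
    have hBs : 1000000000 * S ^ 2 * w 0 ≤ B := by
      calc 1000000000 * S ^ 2 * w 0 ≤ σ * w 2 := by
            have := hS.w0_le
            gcongr
        _ ≤ B := D.Bσ
    have hexpT := hLT.exp z (t.pos z - y.pos z)
    rw [tq_center, sub_zero, add_sub_cancel] at hexpT
    have htQ : tq e w q a y (n i0) z (t.pos z) =
        (∑ i, (![g 0, g 1 + a / n i0 0 * (n i0 1 / w 1), g 2 + a / n i0 0 * (n i0 2 / w 2)] : V3) i *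
          dt (e i) (t.pos z - y.pos z)) +
        ((∑ i, (z - z1) * h i * (fun j => dt (e j) (t.pos z - y.pos z)) i) +
          ∑ i, ∑ j, H i j * ((fun j => dt (e j) (t.pos z - y.pos z)) i *
            (fun j => dt (e j) (t.pos z - y.pos z)) j)) := by
      have e1 : ∑ i, ((![g 0, g 1 + a / n i0 0 * (n i0 1 / w 1),
          g 2 + a / n i0 0 * (n i0 2 / w 2)] : V3) i + (z - z1) * h i) *
            dt (e i) (t.pos z - y.pos z) =
          (∑ i, (![g 0, g 1 + a / n i0 0 * (n i0 1 / w 1),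
            g 2 + a / n i0 0 * (n i0 2 / w 2)] : V3) i * dt (e i) (t.pos z - y.pos z)) +
          ∑ i, (z - z1) * h i * dt (e i) (t.pos z - y.pos z) := by
        rw [← sum_add_distrib]
        exact sum_congr rfl fun i _ => by ring
      rw [hexpT, e1, add_assoc]
    have cE1 : |dt (rot e α β 1) (t.pos z - y.pos z)| ≤ A := by
      have := hC.cov.in1 _ hbu
      rwa [← hu1, ← hu2, ← smul_dt, ← smul_dt, ← add_dt] at this
    have cE2 : |dt (rot e α β 2) (t.pos z - y.pos z)| ≤ B := by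
      have := hC.cov.in2 _ hbu
      rwa [← hu1, ← hu2, ← smul_dt, ← smul_dt, ← add_dt] at this
    refine ⟨fun i => ?_, ?_⟩
    · exact D.coord hS.ortho hT2 (by linarith) (by linarith) htQ cE1 cE2 i
    · beta_reduce
      rw [abs_mul, abs_div, abs_one, abs_of_pos D.mp]
      have := D.m2
      gcongr

end Crest.Agent.R136.Sh605
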