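import Crest.Agent.R136.Sh13_605
import Crest.Agent.R136.Sh5_605

/-!
# R136 (S0187): the plank hypothesis of Lemma A_Q for the class `ShC` (helper605)

`dmax_thinG` : boxes of the normalised space of a sheet of class `ShC` (reward of the test sheet),
`dmax_thinC`, `dmax_thinN`; `dmaxQC`, `dmaxQN` : the plank hypothesis of `lemmaQ_exp`.
-/

set_option autoImplicit false
set_option linter.unusedVariables false

namespace Crest.Agent.R136.Sh605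

open Finset Sh321 Crest.Agent.R136.LmQ861

open Classical in
/-- **(dmax), thin case**, class `ShC`; the D-max hypothesis is only used for test sheets which are
cigars if the sheet is one -/
theorem dmax_thinG {ι : Type} (T : Finset ι) (L : ι → Ln4) {e : Fin 3 → V3} {c : Ln4} {w : V3}
    {q : ℝ → V3 → ℝ} {a z0 ρ0 z1 ρ1 r0 r1 D wmax : ℝ} {R : ℝ → ℝ → ℝ → ℝ}
    (hS : ShC e c w q a z0 ρ0 r1) (ha : 0 < a) (hρ0 : 0 < ρ0) (hD : 0 ≤ D)
    (h01 : z0 ≤ z1) (h11 : z1 + ρ1 ≤ z0 + ρ0) (hρ1 : 0 ≤ ρ1)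
    (hR0 : ∀ x y z, 0 ≤ x → 0 ≤ y → 0 ≤ z → 0 ≤ R x y z)
    (hRm : ∀ x y z x' y' z', 0 ≤ x → 0 ≤ y → 0 ≤ z → x ≤ x' → y ≤ y' → z ≤ z' →
      R x y z ≤ R x' y' z')
    (hmax : ∀ (f : Fin 3 → V3) (c' : Ln4) (w' : V3) (q' : ℝ → V3 → ℝ) (a' : ℝ),
      ShC f c' w' q' a' z1 ρ1 r0 → (w 0 = w 2 → w' 0 = w' 2) → w' 1 ≤ wmax →
      ((T.filter fun t => InSheet (L t) f c' w' q' a' z1 ρ1).card : ℝ) ≤
        D * (a' * w' 2 * w' 1 * R a' (w' 2) (w' 1)))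
    (hT : ∀ t ∈ T, ∀ z, z1 ≤ z → z ≤ z1 + ρ1 → InK e c w z ((L t).pos z)) {y : Ln4}
    (hy : ∀ z, z0 ≤ z → z ≤ z0 + ρ0 → InK e c w z (y.pos z))
    {n : Fin 3 → V3} (hn : Ortho n) {s : V3} (hs : ∀ i, 0 < s i) {S σ : ℝ}
    (hsS : ∀ i, s i ≤ S) (hσs : ∀ i, σ ≤ s i) (hσ : 0 < σ)
    (hSσ : 1000000000 * S ^ 2 ≤ σ) (hρS : ρ1 ≤ S * ρ0) (hr1 : r0 ≤ σ * r1)
    (hthin : 6 * S * a ≤ σ * w 2) (hwm : 384 * S * w 1 ≤ wmax) :
    ((T.filter fun t => ∀ z, z1 ≤ z → z ≤ z1 + ρ1 → ∀ i,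
      |dt (n i) (nrm e w q a y (L t) z)| ≤ s i).card : ℝ) ≤
      73728 * D * (s 0 * s 1 * s 2) *
        (a * w 2 * w 1 * R (384 * S * a) (384 * S * w 2) (384 * S * w 1)) := by
  have hS0 : 0 < S := (hs 0).trans_le (hsS 0)
  have hw2 : 0 < w 2 := (ha.trans_le hS.w0_ge).trans_le hS.w0_le
  have hw1 : 0 < w 1 := hw2.trans_le hS.w_le
  obtain ⟨i0, α, β, A, B, hC⟩ := exists_covC hn hs hw2 hS.w_le
  have hB0 := hC.cov.Bpos
  have hA0 : 0 < A := hB0.trans_le hC.cov.BA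
  obtain ⟨f, V, q', hV, hVe, hsh, hmem⟩ := test_sheetC hS ha hρ0 h01 h11 hρ1 hy hn hs hC hsS hσs hσ
    hSσ hρS hr1 hthin
  have hA3 := hC.cov.A_le S hsS
  have hB6 := hC.cov.B_le S hsS
  have hsw1 : 0 < S * w 1 := by positivity
  have hsw2 : 0 < S * w 2 := by positivity
  have h1 := hmax f y ![V, 128 * A, 32 * B] q' (2 * (a * (s i0 / |n i0 0|))) hsh
    (fun h => hVe h) (by
      show 128 * A ≤ wmax
      linarith)
  have h2 : (T.filter fun t => ∀ z, z1 ≤ z → z ≤ z1 + ρ1 → ∀ i,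
      |dt (n i) (nrm e w q a y (L t) z)| ≤ s i) ⊆ T.filter fun t =>
      InSheet (L t) f y ![V, 128 * A, 32 * B] q' (2 * (a * (s i0 / |n i0 0|))) z1 ρ1 := by
    intro t ht
    rw [mem_filter] at ht ⊢
    exact ⟨ht.1, hmem (L t) (hT t ht.1) ht.2⟩
  have h3 : ((T.filter fun t => ∀ z, z1 ≤ z → z ≤ z1 + ρ1 → ∀ i,
      |dt (n i) (nrm e w q a y (L t) z)| ≤ s i).card : ℝ) ≤
      ((T.filter fun t => InSheet (L t) f y ![V, 128 * A, 32 * B] q'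
        (2 * (a * (s i0 / |n i0 0|))) z1 ρ1).card : ℝ) := by exact_mod_cast card_le_card h2
  refine (h3.trans h1).trans ?_
  change D * (2 * (a * (s i0 / |n i0 0|)) * (32 * B) * (128 * A) *
    R (2 * (a * (s i0 / |n i0 0|))) (32 * B) (128 * A)) ≤ _
  have h5 := hs i0
  have h6 : 0 < |n i0 0| := abs_pos.2 hC.cov.n0
  have h4 : R (2 * (a * (s i0 / |n i0 0|))) (32 * B) (128 * A) ≤
      R (384 * S * a) (384 * S * w 2) (384 * S * w 1) := by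
    apply hRm _ _ _ _ _ _ (by positivity) (by positivity) (by positivity)
    · have h7 := hC.cov.a_le S hsS
      calc 2 * (a * (s i0 / |n i0 0|)) ≤ 2 * (a * (2 * S)) := by gcongr
        _ = 4 * (S * a) := by ring
        _ ≤ 384 * (S * a) := by gcongr; norm_num
        _ = _ := by ring
    · linarith
    · linarith
  have h8 : 2 * (a * (s i0 / |n i0 0|)) * (32 * B) * (128 * A) ≤
      73728 * (s 0 * s 1 * s 2) * (a * w 2 * w 1) := by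
    calc 2 * (a * (s i0 / |n i0 0|)) * (32 * B) * (128 * A) =
        8192 * a * (A * B * (s i0 / |n i0 0|)) := by ring
      _ ≤ 8192 * a * (9 * (w 1 * w 2) * (s 0 * s 1 * s 2)) :=
          mul_le_mul_of_nonneg_left hC.cov.vol (by positivity)
      _ = _ := by ring
  have h9 : 0 ≤ R (384 * S * a) (384 * S * w 2) (384 * S * w 1) :=
    hR0 _ _ _ (by positivity) (by positivity) (by positivity)
  have h10 : 0 ≤ 2 * (a * (s i0 / |n i0 0|)) * (32 * B) * (128 * A) := by positivity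
  calc D * (2 * (a * (s i0 / |n i0 0|)) * (32 * B) * (128 * A) *
        R (2 * (a * (s i0 / |n i0 0|))) (32 * B) (128 * A)) ≤
      D * (73728 * (s 0 * s 1 * s 2) * (a * w 2 * w 1) *
        R (384 * S * a) (384 * S * w 2) (384 * S * w 1)) :=
        mul_le_mul_of_nonneg_left ((mul_le_mul_of_nonneg_left h4 h10).trans
          (mul_le_mul_of_nonneg_right h8 h9)) hD
    _ = _ := by ring

open Classical in
/-- **(dmax), thin case, class `ShC`** -/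
theorem dmax_thinC {ι : Type} (T : Finset ι) (L : ι → Ln4) {e : Fin 3 → V3} {c : Ln4} {w : V3}
    {q : ℝ → V3 → ℝ} {a z0 ρ0 z1 ρ1 r0 r1 D wmax : ℝ} {R : ℝ → ℝ → ℝ → ℝ}
    (hS : ShC e c w q a z0 ρ0 r1) (ha : 0 < a) (hρ0 : 0 < ρ0) (hD : 0 ≤ D)
    (h01 : z0 ≤ z1) (h11 : z1 + ρ1 ≤ z0 + ρ0) (hρ1 : 0 ≤ ρ1)
    (hR0 : ∀ x y z, 0 ≤ x → 0 ≤ y → 0 ≤ z → 0 ≤ R x y z)
    (hRm : ∀ x y z x' y' z', 0 ≤ x → 0 ≤ y → 0 ≤ z → x ≤ x' → y ≤ y' → z ≤ z' →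
      R x y z ≤ R x' y' z')
    (hmax : DMaxC T L z1 ρ1 D R r0 wmax)
    (hT : ∀ t ∈ T, ∀ z, z1 ≤ z → z ≤ z1 + ρ1 → InK e c w z ((L t).pos z)) {y : Ln4}
    (hy : ∀ z, z0 ≤ z → z ≤ z0 + ρ0 → InK e c w z (y.pos z))
    {n : Fin 3 → V3} (hn : Ortho n) {s : V3} (hs : ∀ i, 0 < s i) {S σ : ℝ}
    (hsS : ∀ i, s i ≤ S) (hσs : ∀ i, σ ≤ s i) (hσ : 0 < σ)
    (hSσ : 1000000000 * S ^ 2 ≤ σ) (hρS : ρ1 ≤ S * ρ0) (hr1 : r0 ≤ σ * r1)
    (hthin : 6 * S * a ≤ σ * w 2) (hwm : 384 * S * w 1 ≤ wmax) :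
    ((T.filter fun t => ∀ z, z1 ≤ z → z ≤ z1 + ρ1 → ∀ i,
      |dt (n i) (nrm e w q a y (L t) z)| ≤ s i).card : ℝ) ≤
      73728 * D * (s 0 * s 1 * s 2) *
        (a * w 2 * w 1 * R (384 * S * a) (384 * S * w 2) (384 * S * w 1)) :=
  dmax_thinG T L hS ha hρ0 hD h01 h11 hρ1 hR0 hRm
    (fun f c' w' q' a' h _ hw => hmax f c' w' q' a' h hw) hT hy hn hs hsS hσs hσ hSσ hρS hr1
    hthin hwm

open Classical in
/-- **(dmax), thin case, class C\*** -/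
theorem dmax_thinN {ι : Type} (T : Finset ι) (L : ι → Ln4) {e : Fin 3 → V3} {c : Ln4} {w : V3}
    {q : ℝ → V3 → ℝ} {a z0 ρ0 z1 ρ1 r0 r1 D wmax : ℝ} {R : ℝ → ℝ → ℝ → ℝ}
    (hS : ShN e c w q a z0 ρ0 r1) (ha : 0 < a) (hρ0 : 0 < ρ0) (hD : 0 ≤ D)
    (h01 : z0 ≤ z1) (h11 : z1 + ρ1 ≤ z0 + ρ0) (hρ1 : 0 ≤ ρ1)
    (hR0 : ∀ x y z, 0 ≤ x → 0 ≤ y → 0 ≤ z → 0 ≤ R x y z)
    (hRm : ∀ x y z x' y' z', 0 ≤ x → 0 ≤ y → 0 ≤ z → x ≤ x' → y ≤ y' → z ≤ z' →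
      R x y z ≤ R x' y' z')
    (hmax : DMaxN T L z1 ρ1 D R r0 wmax)
    (hT : ∀ t ∈ T, ∀ z, z1 ≤ z → z ≤ z1 + ρ1 → InK e c w z ((L t).pos z)) {y : Ln4}
    (hy : ∀ z, z0 ≤ z → z ≤ z0 + ρ0 → InK e c w z (y.pos z))
    {n : Fin 3 → V3} (hn : Ortho n) {s : V3} (hs : ∀ i, 0 < s i) {S σ : ℝ}
    (hsS : ∀ i, s i ≤ S) (hσs : ∀ i, σ ≤ s i) (hσ : 0 < σ)
    (hSσ : 1000000000 * S ^ 2 ≤ σ) (hρS : ρ1 ≤ S * ρ0) (hr0 : 0 < r0) (hr1' : 0 < r1)
    (hr1 : r0 ≤ σ * r1)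
    (hthin : 6 * S * a ≤ σ * w 2) (hwm : 384 * S * w 1 ≤ wmax) :
    ((T.filter fun t => ∀ z, z1 ≤ z → z ≤ z1 + ρ1 → ∀ i,
      |dt (n i) (nrm e w q a y (L t) z)| ≤ s i).card : ℝ) ≤
      73728 * D * (s 0 * s 1 * s 2) *
        (a * w 2 * w 1 * R (384 * S * a) (384 * S * w 2) (384 * S * w 1)) :=
  dmax_thinG T L (ShN.toC hr1' hS) ha hρ0 hD h01 h11 hρ1 hR0 hRm
    (fun f c' w' q' a' h he hw => hmax f c' w' q' a' h.toN hw)
    hT hy hn hs hsS hσs hσ hSσ hρS hr1 hthin hwm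

open Classical in
/-- **the plank hypothesis of `lemmaQ_exp`, thin case** (`6 H a ≤ w 2`), class `ShC`.
`S'` a sheet over `[z0, z0 + ρ] = [zc - lam, zc + lam]`, `T` lines of `S'` for which D-max holds over
the window `[z1, z1 + ρ1]`, within `2 lam H / R` of the height of the incidence `x`. -/
theorem dmaxQG {ι : Type} (T : Finset ι) (L : ι → Ln4) {e : Fin 3 → V3} {c : Ln4} {w : V3}
    {q : ℝ → V3 → ℝ} {a z0 ρ zc lam z1 ρ1 r0 r1 D wmax : ℝ} {Rw : ℝ → ℝ → ℝ → ℝ}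
    (hS : ShC e c w q a z0 ρ r1) (ha : 0 < a) (hD : 0 ≤ D)
    (hR0 : ∀ x y z, 0 ≤ x → 0 ≤ y → 0 ≤ z → 0 ≤ Rw x y z)
    (hRm : ∀ x y z x' y' z', 0 ≤ x → 0 ≤ y → 0 ≤ z → x ≤ x' → y ≤ y' → z ≤ z' →
      Rw x y z ≤ Rw x' y' z')
    (hz0 : z0 = zc - lam) (hρ : ρ = 2 * lam) (hlam : 0 < lam) (h01 : z0 ≤ z1)
    (h11 : z1 + ρ1 ≤ z0 + ρ) (hρ1 : 0 ≤ ρ1)
    (hmax : ∀ (f : Fin 3 → V3) (c' : Ln4) (w' : V3) (q' : ℝ → V3 → ℝ) (a' : ℝ),
      ShC f c' w' q' a' z1 ρ1 r0 → (w 0 = w 2 → w' 0 = w' 2) → w' 1 ≤ wmax →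
      ((T.filter fun t => InSheet (L t) f c' w' q' a' z1 ρ1).card : ℝ) ≤
        D * (a' * w' 2 * w' 1 * Rw a' (w' 2) (w' 1)))
    (hT : ∀ t ∈ T, InSheet (L t) e c w q a z0 ρ) {x : ι × ℤ}
    (hx : InSheet (L x.1) e c w q a z0 ρ) {R : ℝ} {H : ℕ} (hH : 0 < H) (hR : 0 < R)
    (hHR : 2718000000000 * (H : ℝ) ^ 2 ≤ R)
    (hnear : ∀ z, z1 ≤ z → z ≤ z1 + ρ1 → |z - (zc + lam * ((x.2 : ℝ) / R))| ≤ 2 * lam * H / R)
    (hr1 : R * r0 ≤ 2718 * r1) (hthin : 6 * H * a ≤ w 2)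
    (hwm : 1043712 * (H / R) * w 1 ≤ wmax) {n : V3} (hn : ∑ i, n i ^ 2 = 1) {E : Fin 2 → V3}
    (hE : ∀ a b, ∑ i, E a i * E b i = if a = b then 1 else 0) (hEn : ∀ a, ∑ i, E a i * n i = 0)
    {wd : Fin 2 → ℝ} (hw : ∀ a, 1 / (H : ℝ) ≤ wd a ∧ wd a ≤ 1) :
    ((T.filter fun t => Plk (fun l => gam e c w q a zc lam (L l))
      (fun l => vel e c w q a zc lam (L l)) R H n E wd x (t, x.2)).card : ℝ) ≤
      73728 * 2718 ^ 3 * D / R ^ 3 * (a * w 2 * w 1 * Rw (1043712 * (H / R) * a)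
        (1043712 * (H / R) * w 2) (1043712 * (H / R) * w 1)) * (wd 0 * wd 1) * (H : ℝ) ^ 2 := by
  have hH0 : (0 : ℝ) < H := by exact_mod_cast hH
  have hH1 : (1 : ℝ) ≤ H := by exact_mod_cast hH
  have hw2 : 0 < w 2 := (ha.trans_le hS.w0_ge).trans_le hS.w0_le
  have hw1 : 0 < w 1 := hw2.trans_le hS.w_le
  have hwd : ∀ k, 0 < wd k := fun k => lt_of_lt_of_le (by positivity) (hw k).1
  set σ : ℝ := 2718 / R with hσ
  set S : ℝ := 2718 * H / R with hSd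
  set s : V3 := ![2718 / R, 2718 * wd 0 * H / R, 2718 * wd 1 * H / R] with hs
  have hs0 : ∀ i, 0 < s i := by
    intro i
    have := hwd 0
    have := hwd 1
    fin_cases i
    · change 0 < 2718 / R; positivity
    · change 0 < 2718 * wd 0 * H / R; positivity
    · change 0 < 2718 * wd 1 * H / R; positivity
  have hwdH : ∀ k, 1 ≤ wd k * H := fun k => by
    have := (hw k).1
    rwa [div_le_iff₀ hH0] at this
  have hσs : ∀ i, σ ≤ s i := by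
    intro i
    fin_cases i
    · exact le_rfl
    · change 2718 / R ≤ 2718 * wd 0 * H / R
      have := hwdH 0
      gcongr
      linarith
    · change 2718 / R ≤ 2718 * wd 1 * H / R
      have := hwdH 1
      gcongr
      linarith
  have hsS : ∀ i, s i ≤ S := by
    intro i
    fin_cases i
    · change 2718 / R ≤ 2718 * H / R
      gcongr
      linarith
    · change 2718 * wd 0 * H / R ≤ 2718 * H / R
      have := (hw 0).2
      gcongr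
      nlinarith
    · change 2718 * wd 1 * H / R ≤ 2718 * H / R
      have := (hw 1).2
      gcongr
      nlinarith
  have hρ1' : ρ1 ≤ 4 * lam * H / R := by
    have n1 := hnear z1 le_rfl (by linarith)
    have n2 := hnear (z1 + ρ1) (by linarith) le_rfl
    rw [abs_le] at n1 n2
    have e1 : 4 * lam * H / R = 2 * lam * H / R + 2 * lam * H / R := by ring
    rw [e1]
    linarith [n1.1, n2.2]
  have hmain := dmax_thinG T L hS ha (by rw [hρ]; linarith) hD h01 h11 hρ1 hR0 hRm hmax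
    (fun t ht z hz hz' => (hT t ht z (h01.trans hz) (hz'.trans h11)).1)
    (y := L x.1) (fun z hz hz' => (hx z hz hz').1)
    (frm_ortho hn hE hEn) hs0 hsS hσs (by positivity)
    (by
      rw [hSd, hσ, le_div_iff₀ hR]
      have e1 : 1000000000 * (2718 * H / R) ^ 2 * R =
          2718 * (2718000000000 * (H : ℝ) ^ 2 / R) := by field_simp; ring
      rw [e1]
      have e2 : 2718000000000 * (H : ℝ) ^ 2 / R ≤ 1 := (div_le_one hR).2 hHR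
      linarith)
    (by
      refine hρ1'.trans ?_
      rw [hSd, hρ]
      have e1 : 2718 * H / R * (2 * lam) = 1359 * (4 * lam * H / R) := by ring
      rw [e1]
      have : 0 ≤ 4 * lam * H / R := by positivity
      linarith)
    (by rw [hσ, div_mul_eq_mul_div, le_div_iff₀ hR]; linarith)
    (by
      rw [hSd, hσ]
      calc 6 * (2718 * H / R) * a = 2718 / R * (6 * H * a) := by ring
        _ ≤ 2718 / R * w 2 := by gcongr)
    (by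
      refine le_trans (le_of_eq ?_) hwm
      rw [hSd]; ring)
  have hsub : (T.filter fun t => Plk (fun l => gam e c w q a zc lam (L l))
      (fun l => vel e c w q a zc lam (L l)) R H n E wd x (t, x.2)) ⊆
      T.filter fun t => ∀ z, z1 ≤ z → z ≤ z1 + ρ1 → ∀ i,
        |dt (frm n E i) (nrm e w q a (L x.1) (L t) z)| ≤ s i := by
    intro t ht
    rw [mem_filter] at ht ⊢
    obtain ⟨ht1, hp1, hp2, hp3⟩ := ht
    refine ⟨ht1, fun z hz hz' => ?_⟩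
    set u0 : ℝ := (x.2 : ℝ) / R with hu0
    obtain ⟨u, hu⟩ : ∃ u, z = zc + lam * u := ⟨(z - zc) / lam, by field_simp; ring⟩
    have hnz := hnear z hz hz'
    have hun : |u - u0| ≤ 2 * (H / R) := by
      have e1 : z - (zc + lam * u0) = lam * (u - u0) := by rw [hu]; ring
      rw [e1, abs_mul, abs_of_pos hlam] at hnz
      have e2 : 2 * lam * H / R = lam * (2 * (H / R)) := by ring
      rw [e2] at hnz
      exact le_of_mul_le_mul_left hnz hlam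
    have hO := frm_ortho hn hE hEn
    have hq4 : 4 * |u - u0| ^ 2 ≤ 16 / R := by
      have e1 : |u - u0| ^ 2 ≤ (2 * (H / R)) ^ 2 := by gcongr
      have e2 : (2 * ((H : ℝ) / R)) ^ 2 = 4 * (H ^ 2 / R ^ 2) := by ring
      have e3 : (H : ℝ) ^ 2 / R ^ 2 ≤ 1 / R := by
        rw [div_le_div_iff₀ (by positivity) hR]
        have hHR' : (H : ℝ) ^ 2 ≤ R := by nlinarith [sq_nonneg (H : ℝ)]
        nlinarith
      have e4 : (16 : ℝ) / R = 16 * (1 / R) := by ring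
      rw [e4]
      linarith
    have g0 : |dt n (nrm e w q a (L x.1) (L t) z)| ≤ 2718 / R := by
      rw [hu]
      refine (nrm_near hS.isQ ha hw1 hw2 hz0 hρ hlam.le hx (hT t ht1) (hO.abs_le_one 0 0)
        hp1 hp2).trans ?_
      have e1 : 9 * (100 / (H : ℝ)) * |u - u0| ≤ 9 * (100 / (H : ℝ)) * (2 * (H / R)) := by
        gcongr
      have e2 : 9 * (100 / (H : ℝ)) * (2 * (H / R)) = 1800 / R := by field_simp; norm_num
      have e3 : 9 * (100 / R) = 900 / R := by ring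
      have e4 : (900 : ℝ) / R + 1800 / R + 16 / R ≤ 2718 / R := by
        rw [← add_div, ← add_div]
        gcongr
        norm_num
      linarith
    have g1 : ∀ k, |dt (E k) (nrm e w q a (L x.1) (L t) z)| ≤ 2718 * wd k * H / R := by
      intro k
      have hk1 := (hp3 k).1
      have hk2 := (hp3 k).2
      have hE1 : |E k 0| ≤ 1 := by
        fin_cases k
        · exact hO.abs_le_one 1 0
        · exact hO.abs_le_one 2 0
      rw [hu]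
      refine (nrm_near hS.isQ ha hw1 hw2 hz0 hρ hlam.le hx (hT t ht1) hE1
        hk1 hk2).trans ?_
      have hwk := hwd k
      have e1 : 9 * (100 * wd k) * |u - u0| ≤ 9 * (100 * wd k) * (2 * (H / R)) := by
        gcongr
      have e2 : (16 : ℝ) / R ≤ 16 * wd k * H / R := by
        have := hwdH k
        gcongr
        linarith
      have e4 : 9 * (100 * wd k * H / R) + 9 * (100 * wd k) * (2 * (H / R)) + 16 * wd k * H / R
          ≤ 2718 * wd k * H / R := by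
        have e5 : 0 ≤ wd k * H / R := by positivity
        calc _ = 2716 * (wd k * H / R) := by ring
          _ ≤ 2718 * (wd k * H / R) := by gcongr; norm_num
          _ = _ := by ring
      linarith
    intro i
    fin_cases i
    · exact g0
    · exact g1 0
    · exact g1 1
  have hcard : ((T.filter fun t => Plk (fun l => gam e c w q a zc lam (L l))
      (fun l => vel e c w q a zc lam (L l)) R H n E wd x (t, x.2)).card : ℝ) ≤
      ((T.filter fun t => ∀ z, z1 ≤ z → z ≤ z1 + ρ1 → ∀ i,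
        |dt (frm n E i) (nrm e w q a (L x.1) (L t) z)| ≤ s i).card : ℝ) := by
    exact_mod_cast card_le_card hsub
  refine (hcard.trans hmain).trans (le_of_eq ?_)
  have e1 : s 0 * s 1 * s 2 = 2718 / R * (2718 * wd 0 * H / R) * (2718 * wd 1 * H / R) := rfl
  have e2 : 384 * S = 1043712 * (H / R) := by rw [hSd]; ring
  rw [e1, e2]
  field_simp

open Classical in
/-- **the plank hypothesis of `lemmaQ_exp`, thin case, class `ShC`** -/
theorem dmaxQC {ι : Type} (T : Finset ι) (L : ι → Ln4) {e : Fin 3 → V3} {c : Ln4} {w : V3}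
    {q : ℝ → V3 → ℝ} {a z0 ρ zc lam z1 ρ1 r0 r1 D wmax : ℝ} {Rw : ℝ → ℝ → ℝ → ℝ}
    (hS : ShC e c w q a z0 ρ r1) (ha : 0 < a) (hD : 0 ≤ D)
    (hR0 : ∀ x y z, 0 ≤ x → 0 ≤ y → 0 ≤ z → 0 ≤ Rw x y z)
    (hRm : ∀ x y z x' y' z', 0 ≤ x → 0 ≤ y → 0 ≤ z → x ≤ x' → y ≤ y' → z ≤ z' →
      Rw x y z ≤ Rw x' y' z')
    (hz0 : z0 = zc - lam) (hρ : ρ = 2 * lam) (hlam : 0 < lam) (h01 : z0 ≤ z1)
    (h11 : z1 + ρ1 ≤ z0 + ρ) (hρ1 : 0 ≤ ρ1) (hmax : DMaxC T L z1 ρ1 D Rw r0 wmax)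
    (hT : ∀ t ∈ T, InSheet (L t) e c w q a z0 ρ) {x : ι × ℤ}
    (hx : InSheet (L x.1) e c w q a z0 ρ) {R : ℝ} {H : ℕ} (hH : 0 < H) (hR : 0 < R)
    (hHR : 2718000000000 * (H : ℝ) ^ 2 ≤ R)
    (hnear : ∀ z, z1 ≤ z → z ≤ z1 + ρ1 → |z - (zc + lam * ((x.2 : ℝ) / R))| ≤ 2 * lam * H / R)
    (hr1 : R * r0 ≤ 2718 * r1) (hthin : 6 * H * a ≤ w 2)
    (hwm : 1043712 * (H / R) * w 1 ≤ wmax) {n : V3} (hn : ∑ i, n i ^ 2 = 1) {E : Fin 2 → V3}
    (hE : ∀ a b, ∑ i, E a i * E b i = if a = b then 1 else 0) (hEn : ∀ a, ∑ i, E a i * n i = 0)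
    {wd : Fin 2 → ℝ} (hw : ∀ a, 1 / (H : ℝ) ≤ wd a ∧ wd a ≤ 1) :
    ((T.filter fun t => Plk (fun l => gam e c w q a zc lam (L l))
      (fun l => vel e c w q a zc lam (L l)) R H n E wd x (t, x.2)).card : ℝ) ≤
      73728 * 2718 ^ 3 * D / R ^ 3 * (a * w 2 * w 1 * Rw (1043712 * (H / R) * a)
        (1043712 * (H / R) * w 2) (1043712 * (H / R) * w 1)) * (wd 0 * wd 1) * (H : ℝ) ^ 2 :=
  dmaxQG T L hS ha hD hR0 hRm hz0 hρ hlam h01 h11 hρ1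
    (fun f c' w' q' a' h _ hw => hmax f c' w' q' a' h hw) hT hx hH hR hHR hnear hr1 hthin hwm hn
    hE hEn hw

open Classical in
/-- **the plank hypothesis of `lemmaQ_exp`, thin case, class C\*** -/
theorem dmaxQN {ι : Type} (T : Finset ι) (L : ι → Ln4) {e : Fin 3 → V3} {c : Ln4} {w : V3}
    {q : ℝ → V3 → ℝ} {a z0 ρ zc lam z1 ρ1 r0 r1 D wmax : ℝ} {Rw : ℝ → ℝ → ℝ → ℝ}
    (hS : ShN e c w q a z0 ρ r1) (ha : 0 < a) (hD : 0 ≤ D)
    (hR0 : ∀ x y z, 0 ≤ x → 0 ≤ y → 0 ≤ z → 0 ≤ Rw x y z)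
    (hRm : ∀ x y z x' y' z', 0 ≤ x → 0 ≤ y → 0 ≤ z → x ≤ x' → y ≤ y' → z ≤ z' →
      Rw x y z ≤ Rw x' y' z')
    (hz0 : z0 = zc - lam) (hρ : ρ = 2 * lam) (hlam : 0 < lam) (h01 : z0 ≤ z1)
    (h11 : z1 + ρ1 ≤ z0 + ρ) (hρ1 : 0 ≤ ρ1) (hmax : DMaxN T L z1 ρ1 D Rw r0 wmax)
    (hT : ∀ t ∈ T, InSheet (L t) e c w q a z0 ρ) {x : ι × ℤ}
    (hx : InSheet (L x.1) e c w q a z0 ρ) {R : ℝ} {H : ℕ} (hH : 0 < H) (hR : 0 < R)
    (hHR : 2718000000000 * (H : ℝ) ^ 2 ≤ R)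
    (hnear : ∀ z, z1 ≤ z → z ≤ z1 + ρ1 → |z - (zc + lam * ((x.2 : ℝ) / R))| ≤ 2 * lam * H / R)
    (hr0 : 0 < r0) (hr1 : R * r0 ≤ 2718 * r1) (hthin : 6 * H * a ≤ w 2)
    (hwm : 1043712 * (H / R) * w 1 ≤ wmax) {n : V3} (hn : ∑ i, n i ^ 2 = 1) {E : Fin 2 → V3}
    (hE : ∀ a b, ∑ i, E a i * E b i = if a = b then 1 else 0) (hEn : ∀ a, ∑ i, E a i * n i = 0)
    {wd : Fin 2 → ℝ} (hw : ∀ a, 1 / (H : ℝ) ≤ wd a ∧ wd a ≤ 1) :
    ((T.filter fun t => Plk (fun l => gam e c w q a zc lam (L l))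
      (fun l => vel e c w q a zc lam (L l)) R H n E wd x (t, x.2)).card : ℝ) ≤
      73728 * 2718 ^ 3 * D / R ^ 3 * (a * w 2 * w 1 * Rw (1043712 * (H / R) * a)
        (1043712 * (H / R) * w 2) (1043712 * (H / R) * w 1)) * (wd 0 * wd 1) * (H : ℝ) ^ 2 := by
  have hr1' : 0 < r1 := by
    have : 0 < R * r0 := by positivity
    linarith
  exact dmaxQG T L (ShN.toC hr1' hS) ha hD hR0 hRm hz0 hρ hlam h01 h11 hρ1
    (fun f c' w' q' a' h he hw => hmax f c' w' q' a' h.toN hw)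
    hT hx hH hR hHR hnear hr1 hthin hwm hn hE hEn hw

end Crest.Agent.R136.Sh605
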