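import Crest.Agent.R136.Sh3_605
import Crest.Agent.R136.Sh6_605

/-!
# R136 (S0187): local expansion of a sheet of class C* around a line (helper605)
-/

set_option autoImplicit false
set_option linter.unusedVariables false

namespace Crest.Agent.R136.Sh605

open Finset

/-- restriction to a smaller window -/
theorem ShN.restrict {e : Fin 3 → V3} {c : Ln4} {w : V3} {q : ℝ → V3 → ℝ} {a z0 ρ r0 z1 ρ1 : ℝ}
    (h : ShN e c w q a z0 ρ r0) (h0 : z0 ≤ z1) (h1 : z1 + ρ1 ≤ z0 + ρ) :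
    ShN e c w q a z1 ρ1 r0 :=
  { ortho := h.ortho
    isQ := h.isQ
    a_le0 := h.a_le0
    w0_le := h.w0_le
    w_le := h.w_le
    r0_le := h.r0_le
    st0 := fun z hz hz' => h.st0 z (h0.trans hz) (hz'.trans h1)
    sl1 := fun z hz hz' => h.sl1 z (h0.trans hz) (hz'.trans h1)
    sl2 := fun z hz hz' => h.sl2 z (h0.trans hz) (hz'.trans h1) }

/-- linear combination of a frame -/
def comb (e : Fin 3 → V3) (c : V3) : V3 := c 0 • e 0 + c 1 • e 1 + c 2 • e 2

theorem Ortho.dt_comb {e : Fin 3 → V3} (he : Ortho e) (c : V3) (i : Fin 3) :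
    dt (e i) (comb e c) = c i := by
  have h0 := he i 0
  have h1 := he i 1
  have h2 := he i 2
  simp only [comb, dt_add, dt_smul, h0, h1, h2]
  fin_cases i <;> simp

theorem Ortho.comb_dt {e : Fin 3 → V3} (he : Ortho e) (u : V3) :
    comb e (fun i => dt (e i) u) = u := by
  funext j
  have := he.expand u j
  simp only [comb, Pi.add_apply, Pi.smul_apply, smul_eq_mul]
  exact this.symm

theorem quad_id (b d p v U e0 e1 e2 : V3) (G : Fin 3 → Fin 3 → ℝ) (z zm : ℝ) :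
    (∑ i, (b i + d i * z) * (p i + z * v i + (U 0 * e0 i + U 1 * e1 i + U 2 * e2 i)) +
      ∑ i, ∑ j, G i j * ((p i + z * v i + (U 0 * e0 i + U 1 * e1 i + U 2 * e2 i)) *
        (p j + z * v j + (U 0 * e0 j + U 1 * e1 j + U 2 * e2 j)))) -
    (∑ i, (b i + d i * z) * (p i + z * v i) +
      ∑ i, ∑ j, G i j * ((p i + z * v i) * (p j + z * v j))) =
    (∑ i, (b i + d i * zm + ∑ j, (G i j + G j i) * (p j + zm * v j) +
      (z - zm) * (d i + ∑ j, (G i j + G j i) * v j)) *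
        (U 0 * e0 i + U 1 * e1 i + U 2 * e2 i)) +
    ∑ i, ∑ j, 1 / 2 * (G i j + G j i) * ((U 0 * e0 i + U 1 * e1 i + U 2 * e2 i) *
      (U 0 * e0 j + U 1 * e1 j + U 2 * e2 j)) := by
  generalize hx : (fun i => U 0 * e0 i + U 1 * e1 i + U 2 * e2 i) = X
  have hX : ∀ i, U 0 * e0 i + U 1 * e1 i + U 2 * e2 i = X i := fun i => by rw [← hx]
  simp only [hX, Fin.sum_univ_three]
  ring

theorem quad_id2 (L X0 X1 X2 : V3) (K : Fin 3 → Fin 3 → ℝ) (U : V3) :
    (∑ i, L i * (U 0 * X0 i + U 1 * X1 i + U 2 * X2 i)) +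
      ∑ i, ∑ j, K i j * ((U 0 * X0 i + U 1 * X1 i + U 2 * X2 i) *
        (U 0 * X0 j + U 1 * X1 j + U 2 * X2 j)) =
    ((∑ i, L i * X0 i) * U 0 + (∑ i, L i * X1 i) * U 1 + (∑ i, L i * X2 i) * U 2) +
      ((∑ i, ∑ j, K i j * (X0 i * X0 j)) * (U 0 * U 0) +
       (∑ i, ∑ j, K i j * (X0 i * X1 j)) * (U 0 * U 1) +
       (∑ i, ∑ j, K i j * (X0 i * X2 j)) * (U 0 * U 2) +
       (∑ i, ∑ j, K i j * (X1 i * X0 j)) * (U 1 * U 0) +
       (∑ i, ∑ j, K i j * (X1 i * X1 j)) * (U 1 * U 1) +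
       (∑ i, ∑ j, K i j * (X1 i * X2 j)) * (U 1 * U 2) +
       (∑ i, ∑ j, K i j * (X2 i * X0 j)) * (U 2 * U 0) +
       (∑ i, ∑ j, K i j * (X2 i * X1 j)) * (U 2 * U 1) +
       (∑ i, ∑ j, K i j * (X2 i * X2 j)) * (U 2 * U 2)) := by
  simp only [Fin.sum_univ_three]
  ring

/-- **local expansion** of a quadratic function around a line, in an orthonormal frame -/
theorem expand_q {q : ℝ → V3 → ℝ} (hq : IsQ q) {e : Fin 3 → V3} (he : Ortho e) (y : Ln4)
    (zm : ℝ) : ∃ (g h : V3) (H : Fin 3 → Fin 3 → ℝ), (∀ i j, H i j = H j i) ∧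
      ∀ (z : ℝ) (u : V3), q z (y.pos z + u) - q z (y.pos z) =
        (∑ i, (g i + (z - zm) * h i) * dt (e i) u) +
          ∑ i, ∑ j, H i j * (dt (e i) u * dt (e j) u) := by
  obtain ⟨c0, c1, c2, b, d, G, hG⟩ := hq
  refine ⟨fun k => ∑ i, (b i + d i * zm + ∑ j, (G i j + G j i) * (y.p j + zm * y.v j)) * e k i,
    fun k => ∑ i, (d i + ∑ j, (G i j + G j i) * y.v j) * e k i,
    fun k l => ∑ i, ∑ j, 1 / 2 * (G i j + G j i) * (e k i * e l j), ?_, ?_⟩
  · intro k l
    simp only [Fin.sum_univ_three]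
    ring
  · intro z u
    have h1 : ∀ i, (y.pos z + u) i = y.p i + z * y.v i + (dt (e 0) u * e 0 i +
        dt (e 1) u * e 1 i + dt (e 2) u * e 2 i) := by
      intro i; rw [← he.expand u i]; rfl
    have h2 : ∀ i, y.pos z i = y.p i + z * y.v i := fun i => rfl
    have h3 := quad_id b d y.p y.v (fun i => dt (e i) u) (e 0) (e 1) (e 2) G z zm
    have h4 := quad_id2 (fun i => b i + d i * zm + ∑ j, (G i j + G j i) * (y.p j + zm * y.v j) +
      (z - zm) * (d i + ∑ j, (G i j + G j i) * y.v j)) (e 0) (e 1) (e 2)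
      (fun i j => 1 / 2 * (G i j + G j i)) (fun i => dt (e i) u)
    rw [hG, hG]
    simp only [h1, h2]
    have h5 : ∀ (s1 s2 t1 t2 : ℝ), c0 + c1 * z + c2 * z ^ 2 + s1 + s2 -
        (c0 + c1 * z + c2 * z ^ 2 + t1 + t2) = (s1 + s2) - (t1 + t2) := by
      intros; ring
    rw [h5, h3, h4]
    have h6 : ∀ k, ∑ i, (b i + d i * zm + ∑ j, (G i j + G j i) * (y.p j + zm * y.v j) +
        (z - zm) * (d i + ∑ j, (G i j + G j i) * y.v j)) * e k i =
        (∑ i, (b i + d i * zm + ∑ j, (G i j + G j i) * (y.p j + zm * y.v j)) * e k i) +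
        (z - zm) * ∑ i, (d i + ∑ j, (G i j + G j i) * y.v j) * e k i := by
      intro k
      rw [mul_sum, ← sum_add_distrib]
      exact sum_congr rfl fun i _ => by ring
    rw [h6, h6, h6]
    rw [Fin.sum_univ_three (fun i => ((∑ i_1, (b i_1 + d i_1 * zm + ∑ j, (G i_1 j + G j i_1) *
      (y.p j + zm * y.v j)) * e i i_1) + (z - zm) * ∑ i_1, (d i_1 + ∑ j, (G i_1 j + G j i_1) *
      y.v j) * e i i_1) * dt (e i) u)]
    congr 1
    simp only [Fin.sum_univ_three]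
    ring

/-- local expansion of `q` around the line `y`, base height `zm`, in the frame `e` -/
structure Loc (q : ℝ → V3 → ℝ) (e : Fin 3 → V3) (y : Ln4) (zm : ℝ) (g h : V3)
    (H : Fin 3 → Fin 3 → ℝ) : Prop where
  sym : ∀ i j, H i j = H j i
  exp : ∀ (z : ℝ) (u : V3), q z (y.pos z + u) - q z (y.pos z) =
    (∑ i, (g i + (z - zm) * h i) * dt (e i) u) + ∑ i, ∑ j, H i j * (dt (e i) u * dt (e j) u)

/-- midpoint rule -/
theorem Loc.step {q : ℝ → V3 → ℝ} {e : Fin 3 → V3} {y : Ln4} {zm : ℝ} {g h : V3}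
    {H : Fin 3 → Fin 3 → ℝ} (hL : Loc q e y zm g h H) (z : ℝ) (u f : V3) (τ : ℝ) :
    q z (y.pos z + u + τ • f) - q z (y.pos z + u) = τ * ∑ i, (g i + (z - zm) * h i +
      2 * ∑ j, H i j * (dt (e j) u + τ / 2 * dt (e j) f)) * dt (e i) f := by
  have h1 := hL.exp z (u + τ • f)
  have h2 := hL.exp z u
  rw [← add_assoc] at h1
  have h3 : q z (y.pos z + u + τ • f) - q z (y.pos z + u) =
      (q z (y.pos z + u + τ • f) - q z (y.pos z)) - (q z (y.pos z + u) - q z (y.pos z)) := by ring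
  rw [h3, h1, h2]
  have s01 := hL.sym 0 1
  have s02 := hL.sym 0 2
  have s12 := hL.sym 1 2
  simp only [Fin.sum_univ_three, dt_add, dt_smul]
  rw [s01, s02, s12]
  ring

theorem comb_add_single (e : Fin 3 → V3) (c : V3) (k : Fin 3) (τ : ℝ) :
    comb e (c + Pi.single k τ) = comb e c + τ • e k := by
  funext i
  fin_cases k <;> simp [comb] <;> ring

theorem mem_dbl3 {e : Fin 3 → V3} (he : Ortho e) {c y : Ln4} {w : V3} {z : ℝ}
    (hy : InK e c w z (y.pos z)) {b : V3} (hb : ∀ i, |b i| ≤ w i) :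
    InK e c (dbl3 w) z (y.pos z + comb e b) := by
  intro i
  have h1 : dt (e i) (y.pos z + comb e b - c.pos z) = dt (e i) (y.pos z - c.pos z) + b i := by
    rw [dt_sub, dt_add, he.dt_comb, dt_sub]; ring
  rw [h1]
  refine (abs_add_le _ _).trans ?_
  have := hy i
  have := hb i
  simp only [dbl3]
  linarith

/-- **bounds of the coefficients of the local expansion**, in units of `w 0` -/
theorem ShN.loc_bounds0 {e : Fin 3 → V3} {c : Ln4} {w : V3} {q : ℝ → V3 → ℝ} {a z0 ρ r0 : ℝ}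
    (hS : ShN e c w q a z0 ρ r0) (hw0 : 0 < w 0) (hρ : 0 < ρ) {y : Ln4}
    (hy : ∀ z, z0 ≤ z → z ≤ z0 + ρ → InK e c w z (y.pos z)) {zm : ℝ} (h0 : z0 ≤ zm)
    (h1 : zm ≤ z0 + ρ) {g h : V3} {H : Fin 3 → Fin 3 → ℝ} (hL : Loc q e y zm g h H) :
    (1 / 2 ≤ g 0 ∧ g 0 ≤ 2) ∧ |g 1| ≤ w 0 / w 1 ∧ |g 2| ≤ w 0 / w 2 ∧
      (∀ i, |h i| * ρ * w i ≤ 2 * w 0) ∧ ∀ i j, |H i j| * w i * w j ≤ w 0 := by
  have hw2 : 0 < w 2 := hw0.trans_le hS.w0_le
  have hw1 : 0 < w 1 := hw2.trans_le hS.w_le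
  have hw : ∀ i, 0 < w i := by
    intro i; fin_cases i
    · exact hw0
    · exact hw1
    · exact hw2
  set P : Fin 3 → ℝ → V3 → ℝ := fun k z b => g k + (z - zm) * h k + 2 * ∑ j, H k j * b j with hP
  -- difference quotients
  have key : ∀ k z b, (z0 ≤ z ∧ z ≤ z0 + ρ) → (∀ j, |b j| ≤ w j / 2) →
      ∃ x : V3, InK e c (dbl3 w) z x ∧ InK e c (dbl3 w) z (x + w k • e k) ∧
        q z (x + w k • e k) - q z x = w k * P k z b := by
    intro k z b hz hb
    refine ⟨y.pos z + comb e (b + Pi.single k (-(w k / 2))), ?_, ?_, ?_⟩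
    · refine mem_dbl3 hS.ortho (hy z hz.1 hz.2) fun i => ?_
      have := hb i
      rw [Pi.add_apply]
      refine (abs_add_le _ _).trans ?_
      by_cases hik : i = k
      · subst hik
        rw [Pi.single_eq_same, abs_neg, abs_of_pos (show 0 < w i / 2 by have := hw i; linarith)]
        linarith
      · rw [Pi.single_eq_of_ne hik, abs_zero]
        have := hw i
        linarith
    · have e1 : y.pos z + comb e (b + Pi.single k (-(w k / 2))) + w k • e k =
          y.pos z + comb e (b + Pi.single k (w k / 2)) := by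
        rw [comb_add_single, comb_add_single]
        module
      rw [e1]
      refine mem_dbl3 hS.ortho (hy z hz.1 hz.2) fun i => ?_
      have := hb i
      rw [Pi.add_apply]
      refine (abs_add_le _ _).trans ?_
      by_cases hik : i = k
      · subst hik
        rw [Pi.single_eq_same, abs_of_pos (show 0 < w i / 2 by have := hw i; linarith)]
        linarith
      · rw [Pi.single_eq_of_ne hik, abs_zero]
        have := hw i
        linarith
    · rw [hL.step]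
      have e2 : ∀ i, dt (e i) (e k) = if i = k then 1 else 0 := fun i => hS.ortho i k
      have e3 : ∀ j, dt (e j) (comb e (b + Pi.single k (-(w k / 2)))) +
          w k / 2 * dt (e j) (e k) = b j := by
        intro j
        rw [hS.ortho.dt_comb, e2, Pi.add_apply]
        by_cases hjk : j = k
        · subst hjk
          rw [Pi.single_eq_same, if_pos rfl]; ring
        · rw [Pi.single_eq_of_ne hjk, if_neg hjk]; ring
      congr 1
      simp only [e3]
      rw [Finset.sum_eq_single k]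
      · rw [e2, if_pos rfl, mul_one]
      · intro i _ hik
        rw [e2, if_neg hik, mul_zero]
      · simp
  have P0 : ∀ z b, (z0 ≤ z ∧ z ≤ z0 + ρ) → (∀ j, |b j| ≤ w j / 2) →
      1 / 2 ≤ P 0 z b ∧ P 0 z b ≤ 2 := by
    intro z b hz hb
    obtain ⟨x, hx1, hx2, hx3⟩ := key 0 z b hz hb
    obtain ⟨k1, k2⟩ := hS.st0 z hz.1 hz.2 x (w 0) hw0.le hx1 hx2
    rw [hx3] at k1 k2
    constructor
    · have : w 0 * (1 / 2) ≤ w 0 * P 0 z b := by linarith
      exact le_of_mul_le_mul_left this hw0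
    · have : w 0 * P 0 z b ≤ w 0 * 2 := by linarith
      exact le_of_mul_le_mul_left this hw0
  have P1 : ∀ z b, (z0 ≤ z ∧ z ≤ z0 + ρ) → (∀ j, |b j| ≤ w j / 2) → |P 1 z b| ≤ w 0 / w 1 := by
    intro z b hz hb
    obtain ⟨x, hx1, hx2, hx3⟩ := key 1 z b hz hb
    have k1 := hS.sl1 z hz.1 hz.2 x (w 1) hw1.le hx1 hx2
    rw [hx3, abs_mul, abs_of_pos hw1, mul_comm] at k1
    exact le_of_mul_le_mul_right k1 hw1
  have P2 : ∀ z b, (z0 ≤ z ∧ z ≤ z0 + ρ) → (∀ j, |b j| ≤ w j / 2) → |P 2 z b| ≤ w 0 / w 2 := by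
    intro z b hz hb
    obtain ⟨x, hx1, hx2, hx3⟩ := key 2 z b hz hb
    have k1 := hS.sl2 z hz.1 hz.2 x (w 2) hw2.le hx1 hx2
    rw [hx3, abs_mul, abs_of_pos hw2, mul_comm] at k1
    exact le_of_mul_le_mul_right k1 hw2
  have hz0 : ∀ j : Fin 3, |(0 : V3) j| ≤ w j / 2 := fun j => by
    have := hw j
    simp only [Pi.zero_apply, abs_zero]; linarith
  have hPz : ∀ k, P k zm 0 = g k := fun k => by simp [hP]
  have hPh : ∀ k, P k (z0 + ρ) 0 - P k z0 0 = ρ * h k := fun k => by simp [hP]; ring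
  have hbj : ∀ j : Fin 3, (∀ i, |(Pi.single j (w j / 2) : V3) i| ≤ w i / 2) ∧
      (∀ i, |(Pi.single j (-(w j / 2)) : V3) i| ≤ w i / 2) := by
    intro j
    constructor <;> intro i
    · by_cases hij : i = j
      · subst hij
        rw [Pi.single_eq_same, abs_of_pos (by have := hw i; linarith)]
      · rw [Pi.single_eq_of_ne hij, abs_zero]
        have := hw i; linarith
    · by_cases hij : i = j
      · subst hij
        rw [Pi.single_eq_same, abs_neg, abs_of_pos (by have := hw i; linarith)]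
      · rw [Pi.single_eq_of_ne hij, abs_zero]
        have := hw i; linarith
  have hPH : ∀ k j, P k zm (Pi.single j (w j / 2)) - P k zm (Pi.single j (-(w j / 2))) =
      2 * H k j * w j := by
    intro k j
    have e1 : ∀ τ : ℝ, ∑ i, H k i * (Pi.single j τ : V3) i = H k j * τ := by
      intro τ
      rw [Finset.sum_eq_single j]
      · rw [Pi.single_eq_same]
      · intro i _ hij
        rw [Pi.single_eq_of_ne hij, mul_zero]
      · simp
    simp only [hP, e1]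
    ring
  have hzm : z0 ≤ zm ∧ zm ≤ z0 + ρ := ⟨h0, h1⟩
  have hza : z0 ≤ z0 ∧ z0 ≤ z0 + ρ := ⟨le_rfl, by linarith⟩
  have hzb : z0 ≤ z0 + ρ ∧ z0 + ρ ≤ z0 + ρ := ⟨by linarith, le_rfl⟩
  refine ⟨?_, ?_, ?_, ?_, ?_⟩
  · have := P0 zm 0 hzm hz0
    rwa [hPz] at this
  · have := P1 zm 0 hzm hz0
    rwa [hPz] at this
  · have := P2 zm 0 hzm hz0
    rwa [hPz] at this
  · have hb : ∀ k r, |P k (z0 + ρ) 0 - P k z0 0| ≤ r → |h k| * ρ ≤ r := by
      intro k r hr
      rwa [hPh, abs_mul, abs_of_pos hρ, mul_comm] at hr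
    intro i
    fin_cases i
    · have a1 := P0 _ 0 hza hz0
      have a2 := P0 _ 0 hzb hz0
      have a3 := hb 0 2 (by rw [abs_le]; constructor <;> linarith)
      change |h 0| * ρ * w 0 ≤ 2 * w 0
      gcongr
    · have a1 := P1 _ 0 hza hz0
      have a2 := P1 _ 0 hzb hz0
      have a3 := hb 1 (2 * (w 0 / w 1)) ((abs_sub _ _).trans (by linarith))
      change |h 1| * ρ * w 1 ≤ 2 * w 0
      calc |h 1| * ρ * w 1 ≤ 2 * (w 0 / w 1) * w 1 := by gcongr
        _ = 2 * w 0 := by field_simp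
    · have a1 := P2 _ 0 hza hz0
      have a2 := P2 _ 0 hzb hz0
      have a3 := hb 2 (2 * (w 0 / w 2)) ((abs_sub _ _).trans (by linarith))
      change |h 2| * ρ * w 2 ≤ 2 * w 0
      calc |h 2| * ρ * w 2 ≤ 2 * (w 0 / w 2) * w 2 := by gcongr
        _ = 2 * w 0 := by field_simp
  · intro i j
    obtain ⟨b1, b2⟩ := hbj j
    have hj := hw j
    have hb : ∀ r, |P i zm (Pi.single j (w j / 2)) - P i zm (Pi.single j (-(w j / 2)))| ≤ 2 * r →
        |H i j| * w j ≤ r := by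
      intro r hr
      rw [hPH, abs_mul, abs_mul, abs_of_pos hj, abs_two] at hr
      linarith
    fin_cases i
    · have a1 := P0 _ _ hzm b1
      have a2 := P0 _ _ hzm b2
      have a3 := hb 1 (by
        change |P 0 zm (Pi.single j (w j / 2)) - P 0 zm (Pi.single j (-(w j / 2)))| ≤ 2 * 1
        rw [abs_le]; constructor <;> linarith)
      change |H 0 j| * w 0 * w j ≤ w 0
      change |H 0 j| * w j ≤ 1 at a3
      calc |H 0 j| * w 0 * w j = |H 0 j| * w j * w 0 := by ring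
        _ ≤ 1 * w 0 := by gcongr
        _ = w 0 := one_mul _
    · have a1 := P1 _ _ hzm b1
      have a2 := P1 _ _ hzm b2
      have a3 := hb (w 0 / w 1) ((abs_sub _ _).trans (by
        change |P 1 zm (Pi.single j (w j / 2))| + |P 1 zm (Pi.single j (-(w j / 2)))| ≤
          2 * (w 0 / w 1)
        linarith))
      change |H 1 j| * w 1 * w j ≤ w 0
      change |H 1 j| * w j ≤ w 0 / w 1 at a3
      calc |H 1 j| * w 1 * w j = |H 1 j| * w j * w 1 := by ring
        _ ≤ w 0 / w 1 * w 1 := by gcongr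
        _ = w 0 := by field_simp
    · have a1 := P2 _ _ hzm b1
      have a2 := P2 _ _ hzm b2
      have a3 := hb (w 0 / w 2) ((abs_sub _ _).trans (by
        change |P 2 zm (Pi.single j (w j / 2))| + |P 2 zm (Pi.single j (-(w j / 2)))| ≤
          2 * (w 0 / w 2)
        linarith))
      change |H 2 j| * w 2 * w j ≤ w 0
      change |H 2 j| * w j ≤ w 0 / w 2 at a3
      calc |H 2 j| * w 2 * w j = |H 2 j| * w j * w 2 := by ring
        _ ≤ w 0 / w 2 * w 2 := by gcongr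
        _ = w 0 := by field_simp

/-- the old form of the bounds (in units of `w 2`) -/
theorem ShN.loc_bounds {e : Fin 3 → V3} {c : Ln4} {w : V3} {q : ℝ → V3 → ℝ} {a z0 ρ r0 : ℝ}
    (hS : ShN e c w q a z0 ρ r0) (hw0 : 0 < w 0) (hρ : 0 < ρ) {y : Ln4}
    (hy : ∀ z, z0 ≤ z → z ≤ z0 + ρ → InK e c w z (y.pos z)) {zm : ℝ} (h0 : z0 ≤ zm)
    (h1 : zm ≤ z0 + ρ) {g h : V3} {H : Fin 3 → Fin 3 → ℝ} (hL : Loc q e y zm g h H) :
    (1 / 2 ≤ g 0 ∧ g 0 ≤ 2) ∧ |g 1| ≤ w 2 / w 1 ∧ |g 2| ≤ 1 ∧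
      (∀ i, |h i| * ρ * w i ≤ 2 * w 2) ∧ ∀ i j, |H i j| * w i * w j ≤ w 2 := by
  obtain ⟨k1, k2, k3, k4, k5⟩ := hS.loc_bounds0 hw0 hρ hy h0 h1 hL
  have hw2 : 0 < w 2 := hw0.trans_le hS.w0_le
  have hw1 : 0 < w 1 := hw2.trans_le hS.w_le
  have h02 := hS.w0_le
  refine ⟨k1, k2.trans ?_, k3.trans ?_, fun i => (k4 i).trans ?_, fun i j => (k5 i j).trans h02⟩
  · exact div_le_div_of_nonneg_right h02 hw1.le
  · exact div_le_one_of_le₀ h02 hw2.le
  · linarith

end Crest.Agent.R136.Sh605
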