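import Crest.Agent.R136.Shy_410
import Crest.Agent.R136.Lks_140

/-!
# R136 (S0187), PLAN 2, leaf (B4): the share of a tilted pair (helper410)

The proof is due to many hands: 108 (two clusters), 989, 816, 18, 140 (links), 639 (groups, numbers),
511, 186 (planks), 777, 723, 89, 706 (lower bound of the minors), 410 (reduction, strip, assembly).
-/

set_option autoImplicit false

namespace Crest.Agent.R136.Shv410

/-- **the share, reduced form** -/
theorem shareR : Shd410.ShareR := shareR_of1 Lks140.lnkSh

/-- **the share of a tilted pair** -/
theorem shareL : Pl2.ShareL := shareL_of1 Lks140.lnkSh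

end Crest.Agent.R136.Shv410
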