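import Crest.Agent.R136.Clc_816

/-!
# R136 (S0187), PLAN 2, share of a pair of sheets: one piece, all pieces (helper816)

Lines `T ∈ Z` with position `(p1, p2)` and velocity `(c1, c2)` in the strip; `(x1, x2)` = unit
covector `ξ` of the discrepancy at `T`; `ζ = (-x2, x1)`.
-/

set_option autoImplicit false
set_option linter.unusedVariables false

open Finset

namespace Crest.Agent.R136.Shc816

open Crest.Agent.R136.Clc816

/-- `ξ`-component -/
def lx (x1 x2 a b : ℝ) : ℝ := x1 * a + x2 * b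

/-- `ζ`-component -/
def lz (x1 x2 a b : ℝ) : ℝ := -x2 * a + x1 * b

theorem lz_change {x1 x2 y1 y2 a b : ℝ} (hx : x1 ^ 2 + x2 ^ 2 = 1) :
    lz y1 y2 a b = lx x1 x2 a b * (y1 * x2 - y2 * x1) + lz x1 x2 a b * (y1 * x1 + y2 * x2) := by
  have h1 : lx x1 x2 a b * (y1 * x2 - y2 * x1) + lz x1 x2 a b * (y1 * x1 + y2 * x2) =
      (x1 ^ 2 + x2 ^ 2) * (-y2 * a + y1 * b) := by
    unfold lx lz; ring
  rw [h1, hx, one_mul]; rfl

theorem dot_le {x1 x2 y1 y2 : ℝ} (hx : x1 ^ 2 + x2 ^ 2 = 1) (hy : y1 ^ 2 + y2 ^ 2 = 1) :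
    y1 * x1 + y2 * x2 ≤ 1 := by nlinarith [sq_nonneg (x1 - y1), sq_nonneg (x2 - y2)]

theorem lz_le {y1 y2 a b S : ℝ} (hy : y1 ^ 2 + y2 ^ 2 = 1) (ha : |a| ≤ S) (hb : |b| ≤ S) :
    |lz y1 y2 a b| ≤ 2 * S := by
  have h1 : |y1| ≤ 1 := abs_le.2 ⟨by nlinarith [sq_nonneg y2], by nlinarith [sq_nonneg y2]⟩
  have h2 : |y2| ≤ 1 := abs_le.2 ⟨by nlinarith [sq_nonneg y1], by nlinarith [sq_nonneg y1]⟩
  unfold lz
  calc |-y2 * a + y1 * b| ≤ |-y2 * a| + |y1 * b| := abs_add_le _ _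
    _ = |y2| * |a| + |y1| * |b| := by rw [abs_mul, abs_mul, abs_neg]
    _ ≤ 1 * S + 1 * S := by
        have := abs_nonneg a
        have := abs_nonneg b
        gcongr
    _ = 2 * S := by ring

open Classical in
/-- **the lines of one piece** -/
theorem share_piece {ι : Type*} (Z : Finset ι) (p1 p2 c1 c2 x1 x2 l ts : ι → ℝ)
    {K θ M q Q S : ℝ} {I : ℕ} (hK : 1 ≤ K) (hM : 0 < M) (hq : 0 ≤ q) (hQ : 0 ≤ Q) (hS0 : 0 ≤ S)
    (hθ0 : 0 ≤ θ) (hθ : θ ≤ 1 / 100)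
    (hp : ∀ T ∈ Z, |p1 T| ≤ S ∧ |p2 T| ≤ S)
    (hx : ∀ T ∈ Z, x1 T ^ 2 + x2 T ^ 2 = 1)
    (hxx : ∀ T ∈ Z, ∀ T' ∈ Z, |x1 T * x2 T' - x2 T * x1 T'| ≤ θ ∧
      9 / 10 ≤ x1 T * x1 T' + x2 T * x2 T')
    (hl : ∀ T ∈ Z, (2:ℝ)⁻¹ ^ I ≤ l T / (32 * K) ∧ l T ≤ 1 ∧ 6400 * K ^ 2 * θ ≤ M * l T)
    (hcr : ∀ T ∈ Z, ∀ T' ∈ Z, |lx (x1 T) (x2 T) (p1 T' - p1 T) (p2 T' - p2 T)| ≤
      K / M + |lz (x1 T) (x2 T) (p1 T' - p1 T) (p2 T' - p2 T)|)
    (hb : ∀ T ∈ Z, ∀ T' ∈ Z, 4 * K * |lz (x1 T) (x2 T) (p1 T' - p1 T) (p2 T' - p2 T)| ≤ l T →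
      (|lz (x1 T) (x2 T) (c1 T' - c1 T) (c2 T' - c2 T)| ≤ 4 * K * l T ∨
        |lz (x1 T) (x2 T) (c1 T' - c1 T) (c2 T' - c2 T) - ts T| ≤ 9 * K * l T) ∧
      |lx (x1 T) (x2 T) (p1 T' - p1 T) (p2 T' - p2 T)| ≤ 10 * K / M ∧
      |lx (x1 T) (x2 T) (c1 T' - c1 T) (c2 T' - c2 T)| ≤ 20 * K / M)
    (hpl : ∀ T ∈ Z, ((Z.filter fun T' =>
        |lz (x1 T) (x2 T) (p1 T' - p1 T) (p2 T' - p2 T)| ≤ l T ∧
        |lz (x1 T) (x2 T) (c1 T' - c1 T) (c2 T' - c2 T)| ≤ 50 * K * l T ∧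
        |lx (x1 T) (x2 T) (p1 T' - p1 T) (p2 T' - p2 T)| ≤ 10 * K / M ∧
        |lx (x1 T) (x2 T) (c1 T' - c1 T) (c2 T' - c2 T)| ≤ 20 * K / M).card : ℝ) ≤
      Q * (l T) ^ (1 + q)) :
    (Z.card : ℝ) ≤ (I + 1) * (8 * (2 * S + 1) * (Q * (32 * K) ^ (1 + q))) := by
  rcases Z.eq_empty_or_nonempty with hE | ⟨T0, hT0⟩
  · rw [hE]; simp; positivity
  have hK0 : 0 < K := by linarith
  set y1 := x1 T0 with hy1
  set y2 := x2 T0 with hy2
  have hy : y1 ^ 2 + y2 ^ 2 = 1 := hx T0 hT0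
  -- the small quantity
  have hsm : ∀ T ∈ Z, θ * (K / M) ≤ l T / (6400 * K) := by
    intro T hT
    have h1 := (hl T hT).2.2
    rw [le_div_iff₀ (by positivity)]
    have h2 : θ * (K / M) * (6400 * K) = (6400 * K ^ 2 * θ) / M := by ring
    rw [h2, div_le_iff₀ hM]
    linarith
  have hlpos : ∀ T ∈ Z, 0 < l T := by
    intro T hT
    have h1 := (hl T hT).1
    have h2 : (0:ℝ) < (2:ℝ)⁻¹ ^ I := by positivity
    have h3 := h2.trans_le h1
    by_contra hc
    push Not at hc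
    have : l T / (32 * K) ≤ 0 := div_nonpos_of_nonpos_of_nonneg hc (by positivity)
    linarith
  -- passage from `ζ₀` to `ζ(T)`, positions
  have key1 : ∀ T ∈ Z, ∀ T' ∈ Z,
      |lz y1 y2 (p1 T' - p1 T) (p2 T' - p2 T)| ≤ 2 * (l T / (32 * K)) →
      4 * K * |lz (x1 T) (x2 T) (p1 T' - p1 T) (p2 T' - p2 T)| ≤ l T ∧
      |lz (x1 T) (x2 T) (p1 T' - p1 T) (p2 T' - p2 T)| ≤ l T := by
    intro T hT T' hT' hs
    have hc := lz_change (y1 := y1) (y2 := y2) (a := p1 T' - p1 T) (b := p2 T' - p2 T) (hx T hT)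
    have h1 := hcr T hT T' hT'
    have h2 := hxx T0 hT0 T hT
    rw [← hy1, ← hy2] at h2
    have h5 := dot_le (hx T hT) hy
    set A := lx (x1 T) (x2 T) (p1 T' - p1 T) (p2 T' - p2 T) with hA
    set B := lz (x1 T) (x2 T) (p1 T' - p1 T) (p2 T' - p2 T) with hB
    set σ := y1 * x2 T - y2 * x1 T with hσ
    set κ := y1 * x1 T + y2 * x2 T with hκ
    have h3 : |B| * κ ≤ |lz y1 y2 (p1 T' - p1 T) (p2 T' - p2 T)| + |A| * |σ| := by
      have e : B * κ = lz y1 y2 (p1 T' - p1 T) (p2 T' - p2 T) - A * σ := by rw [hc]; ring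
      have e2 : |B| * κ = |B * κ| := by rw [abs_mul, abs_of_nonneg (by linarith [h2.2] : (0:ℝ) ≤ κ)]
      rw [e2, e]
      refine (abs_sub _ _).trans ?_
      rw [abs_mul]
    have h4 : |A| * |σ| ≤ (K / M + |B|) * θ :=
      mul_le_mul h1 h2.1 (abs_nonneg _) (by positivity)
    have h6 := hsm T hT
    have hl0 := hlpos T hT
    have hB0 := abs_nonneg B
    have hθB : |B| * θ ≤ |B| * (1 / 100) := mul_le_mul_of_nonneg_left hθ hB0
    have hκB : |B| * (9 / 10) ≤ |B| * κ := mul_le_mul_of_nonneg_left h2.2 hB0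
    have h7 : |B| * (89 / 100) ≤ 2 * (l T / (32 * K)) + l T / (6400 * K) := by
      have : (K / M + |B|) * θ = θ * (K / M) + |B| * θ := by ring
      linarith
    have h8 : 2 * (l T / (32 * K)) + l T / (6400 * K) = (401 / 6400) * (l T / K) := by
      field_simp; ring
    rw [h8] at h7
    have h9 : 0 < l T / K := by positivity
    have h10 : |B| ≤ (1 / 10) * (l T / K) := by linarith
    constructor
    · have : 4 * K * |B| ≤ 4 * K * ((1 / 10) * (l T / K)) :=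
        mul_le_mul_of_nonneg_left h10 (by positivity)
      have e : 4 * K * ((1 / 10) * (l T / K)) = (4 / 10) * l T := by field_simp
      rw [e] at this
      linarith
    · have : l T / K ≤ l T := div_le_self hl0.le hK
      linarith
  -- velocities
  have key2 : ∀ T ∈ Z, ∀ T' ∈ Z,
      |lx (x1 T) (x2 T) (c1 T' - c1 T) (c2 T' - c2 T)| ≤ 20 * K / M →
      |lz y1 y2 (c1 T' - c1 T) (c2 T' - c2 T) -
        lz (x1 T) (x2 T) (c1 T' - c1 T) (c2 T' - c2 T) * (y1 * x1 T + y2 * x2 T)| ≤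
        l T / (320 * K) := by
    intro T hT T' hT' hs
    have hc := lz_change (y1 := y1) (y2 := y2) (a := c1 T' - c1 T) (b := c2 T' - c2 T) (hx T hT)
    have h2 := hxx T0 hT0 T hT
    rw [← hy1, ← hy2] at h2
    rw [hc, add_sub_cancel_right, abs_mul]
    have h4 : |lx (x1 T) (x2 T) (c1 T' - c1 T) (c2 T' - c2 T)| * |y1 * x2 T - y2 * x1 T| ≤
        20 * K / M * θ := mul_le_mul hs h2.1 (abs_nonneg _) (by positivity)
    refine h4.trans ?_
    have h6 := hsm T hT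
    have e1 : 20 * K / M * θ = 20 * (θ * (K / M)) := by ring
    have e2 : l T / (320 * K) = 20 * (l T / (6400 * K)) := by field_simp; ring
    rw [e1, e2]
    linarith
  have hmain := cluster_count Z (fun T => lz y1 y2 (p1 T) (p2 T)) (fun T => lz y1 y2 (c1 T) (c2 T))
    (fun T => ts T * (y1 * x1 T + y2 * x2 T)) (fun T => l T / (32 * K)) (K := 320 * K ^ 2)
    (q := q) (Q := Q * (32 * K) ^ (1 + q)) (S := 2 * S) (I := I) (by nlinarith) hq (by positivity)
    (by positivity) (fun T hT => lz_le hy (hp T hT).1 (hp T hT).2)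
    (fun T hT => ⟨(hl T hT).1, by
      have := hlpos T hT
      have h2 := (hl T hT).2.1
      rw [div_le_one (by positivity)]
      linarith⟩)
    (fun T hT T' hT' hs => by
      have e0 : lz y1 y2 (p1 T') (p2 T') - lz y1 y2 (p1 T) (p2 T) =
          lz y1 y2 (p1 T' - p1 T) (p2 T' - p2 T) := by unfold lz; ring
      have e1 : lz y1 y2 (c1 T') (c2 T') - lz y1 y2 (c1 T) (c2 T) =
          lz y1 y2 (c1 T' - c1 T) (c2 T' - c2 T) := by unfold lz; ring
      have hl0 := hlpos T hT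
      have hs' : |lz y1 y2 (p1 T' - p1 T) (p2 T' - p2 T)| ≤ 2 * (l T / (32 * K)) := by
        have : 0 ≤ l T / (32 * K) := by positivity
        have h1 : |lz y1 y2 (p1 T') (p2 T') - lz y1 y2 (p1 T) (p2 T)| ≤ l T / (32 * K) := hs
        rw [e0] at h1
        linarith
      have h1 := hb T hT T' hT' (key1 T hT T' hT' hs').1
      have h2 := key2 T hT T' hT' h1.2.2
      have h3 := hxx T0 hT0 T hT
      rw [← hy1, ← hy2] at h3
      have h5 := dot_le (hx T hT) hy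
      have e2 : 320 * K ^ 2 * (l T / (32 * K)) = 10 * K * l T := by field_simp; norm_num
      have hsm2 : l T / (320 * K) ≤ K * l T := by
        refine (div_le_self hl0.le (by linarith)).trans ?_
        exact le_mul_of_one_le_left hl0.le hK
      show |lz y1 y2 (c1 T') (c2 T') - lz y1 y2 (c1 T) (c2 T)| ≤ 320 * K ^ 2 * (l T / (32 * K)) ∨
        |lz y1 y2 (c1 T') (c2 T') - lz y1 y2 (c1 T) (c2 T) - ts T * (y1 * x1 T + y2 * x2 T)| ≤
          320 * K ^ 2 * (l T / (32 * K))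
      rw [e1, e2]
      set t := lz (x1 T) (x2 T) (c1 T' - c1 T) (c2 T' - c2 T) with ht
      set t0 := lz y1 y2 (c1 T' - c1 T) (c2 T' - c2 T) with ht0
      set κ := y1 * x1 T + y2 * x2 T with hκ
      have hκ0 : 0 ≤ κ := by linarith [h3.2]
      have hKl : 0 ≤ K * l T := by positivity
      rcases h1.1 with h | h
      · left
        have h6 : |t0| ≤ |t0 - t * κ| + |t * κ| := by
          have := abs_add_le (t0 - t * κ) (t * κ)
          simpa using this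
        have h7 : |t * κ| ≤ |t| := by
          rw [abs_mul, abs_of_nonneg hκ0]
          exact mul_le_of_le_one_right (abs_nonneg _) h5
        linarith
      · right
        have h6 : |t0 - ts T * κ| ≤ |t0 - t * κ| + |(t - ts T) * κ| := by
          have := abs_add_le (t0 - t * κ) ((t - ts T) * κ)
          have e : t0 - t * κ + (t - ts T) * κ = t0 - ts T * κ := by ring
          rwa [e] at this
        have h7 : |(t - ts T) * κ| ≤ |t - ts T| := by
          rw [abs_mul, abs_of_nonneg hκ0]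
          exact mul_le_of_le_one_right (abs_nonneg _) h5
        linarith)
    (fun T hT => by
      have hl0 := hlpos T hT
      have e3 : Q * (32 * K) ^ (1 + q) * (l T / (32 * K)) ^ (1 + q) = Q * (l T) ^ (1 + q) := by
        rw [mul_assoc, ← Real.mul_rpow (by positivity) (by positivity)]
        congr 2
        field_simp
      show _ ≤ Q * (32 * K) ^ (1 + q) * (l T / (32 * K)) ^ (1 + q)
      rw [e3]
      refine le_trans ?_ (hpl T hT)
      have hsub : (Z.filter fun T' => |lz y1 y2 (p1 T') (p2 T') - lz y1 y2 (p1 T) (p2 T)| ≤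
            2 * (l T / (32 * K)) ∧
          |lz y1 y2 (c1 T') (c2 T') - lz y1 y2 (c1 T) (c2 T)| ≤
            4 * (320 * K ^ 2) * (l T / (32 * K))) ⊆
          (Z.filter fun T' =>
        |lz (x1 T) (x2 T) (p1 T' - p1 T) (p2 T' - p2 T)| ≤ l T ∧
        |lz (x1 T) (x2 T) (c1 T' - c1 T) (c2 T' - c2 T)| ≤ 50 * K * l T ∧
        |lx (x1 T) (x2 T) (p1 T' - p1 T) (p2 T' - p2 T)| ≤ 10 * K / M ∧
        |lx (x1 T) (x2 T) (c1 T' - c1 T) (c2 T' - c2 T)| ≤ 20 * K / M) := by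
        intro T' hT''
        obtain ⟨hT', hs, hc⟩ := Finset.mem_filter.1 hT''
        have e0 : lz y1 y2 (p1 T') (p2 T') - lz y1 y2 (p1 T) (p2 T) =
            lz y1 y2 (p1 T' - p1 T) (p2 T' - p2 T) := by unfold lz; ring
        have e1 : lz y1 y2 (c1 T') (c2 T') - lz y1 y2 (c1 T) (c2 T) =
            lz y1 y2 (c1 T' - c1 T) (c2 T' - c2 T) := by unfold lz; ring
        rw [e0] at hs
        rw [e1] at hc
        have h0 := key1 T hT T' hT' hs
        have h1 := hb T hT T' hT' h0.1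
        have h2 := key2 T hT T' hT' h1.2.2
        have h3 := hxx T0 hT0 T hT
        rw [← hy1, ← hy2] at h3
        have e2 : 4 * (320 * K ^ 2) * (l T / (32 * K)) = 40 * K * l T := by field_simp; norm_num
        rw [e2] at hc
        have hsm2 : l T / (320 * K) ≤ K * l T := by
          refine (div_le_self hl0.le (by linarith)).trans ?_
          exact le_mul_of_one_le_left hl0.le hK
        refine Finset.mem_filter.2 ⟨hT', h0.2, ?_, h1.2.1, h1.2.2⟩
        set t := lz (x1 T) (x2 T) (c1 T' - c1 T) (c2 T' - c2 T) with ht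
        set t0 := lz y1 y2 (c1 T' - c1 T) (c2 T' - c2 T) with ht0
        set κ := y1 * x1 T + y2 * x2 T with hκ
        have h6 : |t * κ| ≤ |t0 - t * κ| + |t0| := by
          have := abs_sub (t0) (t0 - t * κ)
          have e : t0 - (t0 - t * κ) = t * κ := by ring
          rw [e] at this
          linarith
        have h7 : |t| * (9 / 10) ≤ |t * κ| := by
          rw [abs_mul, abs_of_nonneg (by linarith [h3.2] : (0:ℝ) ≤ κ)]
          exact mul_le_mul_of_nonneg_left h3.2 (abs_nonneg _)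
        have hKl : 0 ≤ K * l T := by positivity
        linarith
      exact_mod_cast Finset.card_le_card hsub)
  have e4 : (I + 1 : ℝ) * (8 * (2 * S + 1) * (Q * (32 * K) ^ (1 + q))) =
      (I + 1) * (8 * (2 * S + 1) * (Q * (32 * K) ^ (1 + q))) := rfl
  exact hmain

/-- sum over the pieces -/
theorem share_all {ι κ : Type*} [DecidableEq κ] (Z : Finset ι) (f : ι → κ) (N : Finset κ)
    (hf : ∀ T ∈ Z, f T ∈ N) {R : ℝ} (hR : ∀ k ∈ N, ((Z.filter fun T => f T = k).card : ℝ) ≤ R) :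
    (Z.card : ℝ) ≤ N.card * R := by
  have h1 : (Z.card : ℝ) = ∑ k ∈ N, ((Z.filter fun T => f T = k).card : ℝ) := by
    have := Finset.card_eq_sum_card_fiberwise (f := f) (s := Z) (t := N)
      (fun T hT => Finset.mem_coe.2 (hf T (Finset.mem_coe.1 hT)))
    exact_mod_cast this
  rw [h1]
  refine (Finset.sum_le_card_nsmul _ _ _ hR).trans ?_
  rw [nsmul_eq_mul]

/-- grid label of a number -/
noncomputable def gl (h x : ℝ) : ℤ := ⌊x / h⌋

theorem gl_close {h x y : ℝ} (hh : 0 < h) (he : gl h x = gl h y) : |x - y| ≤ h := by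
  have h4 : |x / h - y / h| < 1 := Int.abs_sub_lt_one_of_floor_eq_floor he
  have h5 : x / h - y / h = (x - y) / h := by ring
  rw [h5, abs_div, abs_of_pos hh, div_lt_one hh] at h4
  exact h4.le

theorem gl_mem {h x B : ℝ} (hh : 0 < h) (hx : |x| ≤ B) :
    gl h x ∈ Finset.Icc (-(⌈B / h⌉)) ⌈B / h⌉ := by
  have h1 := abs_le.1 hx
  rw [Finset.mem_Icc]
  constructor
  · rw [gl, Int.le_floor]
    push_cast
    have h2 : B / h ≤ (⌈B / h⌉ : ℝ) := Int.le_ceil _
    have h3 : -(B / h) ≤ x / h := by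
      rw [neg_le_iff_add_nonneg, ← add_div]
      exact div_nonneg (by linarith) hh.le
    linarith
  · have h2 : B / h ≤ (⌈B / h⌉ : ℝ) := Int.le_ceil _
    have h3 : x / h ≤ B / h := by gcongr; exact h1.2
    have h4 : ((gl h x : ℤ) : ℝ) ≤ x / h := Int.floor_le _
    exact_mod_cast h4.trans (h3.trans h2)

open Classical in
/-- **all pieces** : four bounded coordinates, cells of side `h` -/
theorem share_grid {ι : Type*} (Z : Finset ι) (a b c d : ι → ℝ) {h B R : ℝ} (hh : 0 < h)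
    (hB : 0 ≤ B) (hR0 : 0 ≤ R) (hZ : ∀ T ∈ Z, |a T| ≤ B ∧ |b T| ≤ B ∧ |c T| ≤ B ∧ |d T| ≤ B)
    (hR : ∀ Y ⊆ Z, (∀ T ∈ Y, ∀ T' ∈ Y, |a T' - a T| ≤ h ∧ |b T' - b T| ≤ h ∧ |c T' - c T| ≤ h ∧
      |d T' - d T| ≤ h) → (Y.card : ℝ) ≤ R) :
    (Z.card : ℝ) ≤ (2 * (B / h) + 3) ^ 4 * R := by
  set J := Finset.Icc (-(⌈B / h⌉)) ⌈B / h⌉ with hJ
  have h1 := share_all Z (fun T => ((gl h (a T), gl h (b T)), (gl h (c T), gl h (d T))))
    ((J ×ˢ J) ×ˢ (J ×ˢ J)) (fun T hT => by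
      obtain ⟨h1, h2, h3, h4⟩ := hZ T hT
      simp only [Finset.mem_product]
      exact ⟨⟨gl_mem hh h1, gl_mem hh h2⟩, ⟨gl_mem hh h3, gl_mem hh h4⟩⟩) (R := R)
    (fun k _ => hR _ (Finset.filter_subset _ _) (fun T hT T' hT' => by
      have e1 := (Finset.mem_filter.1 hT).2
      have e2 := (Finset.mem_filter.1 hT').2
      rw [← e1] at e2
      simp only [Prod.mk.injEq] at e2
      exact ⟨gl_close hh e2.1.1, gl_close hh e2.1.2, gl_close hh e2.2.1, gl_close hh e2.2.2⟩))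
  refine h1.trans (mul_le_mul_of_nonneg_right ?_ hR0)
  have hJc : (J.card : ℝ) ≤ 2 * (B / h) + 3 := by
    have hBh : 0 ≤ B / h := by positivity
    have h0 : 0 ≤ ⌈B / h⌉ := Int.ceil_nonneg hBh
    rw [hJ, Int.card_Icc]
    have h5 : ((⌈B / h⌉ + 1 - -⌈B / h⌉).toNat : ℤ) = ⌈B / h⌉ + 1 - -⌈B / h⌉ :=
      Int.toNat_of_nonneg (by omega)
    have h6 : (((⌈B / h⌉ + 1 - -⌈B / h⌉).toNat : ℕ) : ℝ) = (⌈B / h⌉ : ℝ) + 1 - -(⌈B / h⌉ : ℝ) := by
      exact_mod_cast congrArg (fun x : ℤ => (x : ℝ)) h5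
    rw [h6]
    have := Int.ceil_lt_add_one (B / h)
    linarith
  rw [Finset.card_product, Finset.card_product]
  push_cast
  have hJ0 : (0:ℝ) ≤ J.card := by positivity
  calc (J.card : ℝ) * J.card * (J.card * J.card) = (J.card : ℝ) ^ 4 := by ring
    _ ≤ (2 * (B / h) + 3) ^ 4 := by gcongr

end Crest.Agent.R136.Shc816
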