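import Crest.Agent.R136.Shf1_163
import Crest.Agent.R136.Deep3_770
import Crest.Agent.R138.ArgM1_163

/-!
# R136 (S0187): D-max at the shifted levels (helper163)

* `DeepAt` : the conclusion of `DeepP` for one level `v`, one depth `m`, one part and one `ε`.
* `exists_deep_part` : one dense part on which the D-max holds at the levels `lev n 1 + j`, `j ≤ k`,
  for all alive lines (no exceptional objects).
* `dmax_shift` : on this part (and on every smaller one) D-max at the levels `lev n v + k`.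
* `allD_shift`, `deepAt_shift`, `deep_shift` : `AllD` and `DeepP` at the shifted levels.
-/

set_option autoImplicit false
set_option linter.unusedVariables false
set_option linter.unusedSectionVars false

open Finset Filter Topology

namespace Crest.Agent.R136.Shf163

open Crest.Agent.R138.Ex926 Crest.Agent.R138.Dp76 Crest.Agent.R138.Ps627
open Crest.Agent.R138.Mk163 (zc zl rho alive own Negl)
open Crest.Agent.R138.NatTw76 (exists_avoid)
open Crest.Agent.R138.MkRef627 (lc kc own_one alive_mono mem_alive card_class own_lower hh hh_even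
  hh_odd exists_num)
open Crest.Agent.R136.MkA627
open Crest.Agent.R136.Dia770 (zc_div ico_div extO AllD DeepP mem_extO_le mem_extO_ge card_extO d_exp
  two_exp)

section

variable {σ κ : Type*}

open Classical in
/-- the conclusion of `DeepP` for one level, one depth, one part, one `ε`. -/
def DeepAt (B : Base) (G : Geo σ κ) (lev : ℕ → ℚ → ℕ) (A : ℕ → ℝ) (g : ℝ) (v : ℚ) (m : ℕ → ℕ)
    (J : ℕ → Finset (ℕ × ℝ)) (ε : ℝ) : Prop :=
  ∃ P : ℕ → Finset (ℕ × ℤ), (∀ n, P n ⊆ extO (J n) (lev n 1) (m n)) ∧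
    (∃ γ : ℝ, 0 < γ ∧ ∀ᶠ n in (U : Filter ℕ), ((extO (J n) (lev n 1) (m n)).card : ℝ) ≤
      (P n).card + B.d n ^ γ * (extO (J n) (lev n 1) (m n)).card) ∧
    ∀ᶠ n in (U : Filter ℕ), ∀ (j : ℤ) (s : σ), G.adm n (m n) j s →
      (((P n).filter fun o => o.2 = j ∧ G.mem n (m n) j s o.1).card : ℝ) ≤
        B.d n ^ (-ε) * (A n * B.d n ^ (-(g * v))) *
          2 ^ ((g + ε) * ((m n : ℝ) - lev n v)) * G.val n (m n) j s

theorem deepP_iff {B : Base} {I : ℕ → Finset (ℕ × ℝ)} {G : Geo σ κ} {lev : ℕ → ℚ → ℕ}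
    {A : ℕ → ℝ} {g : ℝ} {r0 : ℕ → ℝ} : DeepP B I G lev A g r0 ↔
    ∀ v : ℚ, 0 ≤ v → v ≤ 1 → ∀ m : ℕ → ℕ, (∀ᶠ n in (U : Filter ℕ), lev n v ≤ m n) →
      (∀ᶠ n in (U : Filter ℕ), r0 n ≤ rho (m n)) →
      ∀ J : ℕ → Finset (ℕ × ℝ), Dense B J I → ∀ ε : ℝ, 0 < ε → DeepAt B G lev A g v m J ε :=
  Iff.rfl

variable {B : Base} {I : ℕ → Finset (ℕ × ℝ)} {G : Geo σ κ} {lev : ℕ → ℚ → ℕ} {A : ℕ → ℝ} {g : ℝ}

/-- constants are swallowed. -/
theorem dpow_const (B : Base) {c : ℝ} (hc : 0 < c) {ε : ℝ} (hε : 0 < ε) :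
    ∀ᶠ n in (U : Filter ℕ), c ≤ B.d n ^ (-ε) := by
  filter_upwards [Crest.Agent.R138.Ps926.dpow_small B hε (ε := 1 / c) (by positivity)] with n hn
  have p := dpow_pos B n ε
  rw [Real.rpow_neg (B.pos n).le, ← one_div, le_div_iff₀ p]
  rw [lt_div_iff₀ hc] at hn
  linarith

open Classical in
/-- **one dense part without exceptional objects** at the levels `lev n 1 + j`, `j ≤ k`. -/
theorem exists_deep_part (Apos : ∀ n, 0 < A n)
    (hval : ∀ n i J s, G.adm n i J s → 0 ≤ G.val n i J s)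
    (one : ∀ᶠ n in (U : Filter ℕ), ∀ x ∈ I n, ∀ y ∈ I n, x.1 = y.1 →
      zc (lev n 1) x.2 = zc (lev n 1) y.2 → x = y) (k : ℕ)
    (hD : ∀ j ≤ k, ∀ ε : ℝ, 0 < ε → DeepAt B G lev A g 1 (fun n => lev n 1 + j) I ε) :
    ∃ J0 : ℕ → Finset (ℕ × ℝ), (∀ n, J0 n ⊆ I n) ∧ Dense B J0 I ∧
      ∀ J : ℕ → Finset (ℕ × ℝ), (∀ n, J n ⊆ J0 n) → ∀ j ≤ k, ∀ ε : ℝ, 0 < ε →
        ∀ᶠ n in (U : Filter ℕ), ∀ (c : ℤ) (s : σ), G.adm n (lev n 1 + j) c s →
          (((alive (J n) (lev n 1 + j) c).filter fun t => G.mem n (lev n 1 + j) c s t).card : ℝ) ≤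
            B.d n ^ (-ε) * (A n * B.d n ^ (-g)) * G.val n (lev n 1 + j) c s := by
  -- the good objects
  have hex : ∀ j N : ℕ, ∃ P : ℕ → Finset (ℕ × ℤ), j ≤ k →
      (∀ n, P n ⊆ extO (I n) (lev n 1) (lev n 1 + j)) ∧
      (∃ γ : ℝ, 0 < γ ∧ ∀ᶠ n in (U : Filter ℕ),
        ((extO (I n) (lev n 1) (lev n 1 + j)).card : ℝ) ≤
          (P n).card + B.d n ^ γ * (extO (I n) (lev n 1) (lev n 1 + j)).card) ∧
      ∀ᶠ n in (U : Filter ℕ), ∀ (c : ℤ) (s : σ), G.adm n (lev n 1 + j) c s →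
        (((P n).filter fun o => o.2 = c ∧ G.mem n (lev n 1 + j) c s o.1).card : ℝ) ≤
          B.d n ^ (-(1 / ((N : ℝ) + 1))) * (A n * B.d n ^ (-(g * ((1 : ℚ) : ℝ)))) *
            2 ^ ((g + 1 / ((N : ℝ) + 1)) * (((lev n 1 + j : ℕ) : ℝ) - lev n 1)) *
              G.val n (lev n 1 + j) c s := by
    intro j N
    by_cases hj : j ≤ k
    · obtain ⟨P, h1, h2, h3⟩ := hD j hj (1 / ((N : ℝ) + 1)) (by positivity)
      exact ⟨P, fun _ => ⟨h1, h2, h3⟩⟩
    · exact ⟨fun _ => ∅, fun h => (hj h).elim⟩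
  choose P hP using hex
  have hneg : ∀ j N : ℕ, Negl B I fun n x =>
      j ≤ k ∧ ((x.1, zc (lev n 1 + j) x.2) : ℕ × ℤ) ∉ P j N n := by
    intro j N
    by_cases hj : j ≤ k
    · obtain ⟨h1, ⟨γ, hγ, h2⟩, -⟩ := hP j N hj
      refine ⟨γ / 2, by positivity, ?_⟩
      filter_upwards [h2, one, Crest.Agent.R138.Ps926.dpow_small B (half_pos hγ)
        (ε := 1 / ((2 ^ j : ℕ) : ℝ)) (by positivity)] with n a1 a2 a3
      set E := extO (I n) (lev n 1) (lev n 1 + j) with hE
      have b1 : ((I n).filter fun x => j ≤ k ∧ ((x.1, zc (lev n 1 + j) x.2) : ℕ × ℤ) ∉ P j N n).card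
          ≤ (E \ P j N n).card := by
        refine card_le_card_of_injOn (fun x => ((x.1, zc (lev n 1 + j) x.2) : ℕ × ℤ)) ?_ ?_
        · intro x hx
          have hx' := mem_filter.1 hx
          rw [coe_sdiff, Set.mem_sdiff, mem_coe, mem_coe]
          refine ⟨?_, hx'.2.2⟩
          rw [hE, mem_extO_ge (Nat.le_add_right _ _)]
          refine ⟨x, hx'.1, ?_⟩
          simp only [lc, Nat.add_sub_cancel_left, zc_add]
        · intro x hx y hy hxy
          have hx' := (mem_filter.1 hx).1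
          have hy' := (mem_filter.1 hy).1
          simp only [Prod.mk.injEq] at hxy
          exact a2 x hx' y hy' hxy.1 (zc_anc hxy.2)
      have b2 : ((E \ P j N n).card : ℝ) ≤ B.d n ^ γ * (E.card : ℝ) := by
        have := card_sdiff_add_card_eq_card (h1 n)
        have h5 : ((E \ P j N n).card : ℝ) + ((P j N n).card : ℝ) = (E.card : ℝ) := by
          exact_mod_cast this
        linarith
      have b3 : (E.card : ℝ) ≤ ((2 ^ j : ℕ) : ℝ) * ((I n).card : ℝ) := by
        rw [hE, card_extO (Nat.le_add_right _ _), Nat.add_sub_cancel_left]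
        push_cast
        exact mul_le_mul_of_nonneg_left (by exact_mod_cast card_image_le) (by positivity)
      have b4 : B.d n ^ γ * ((2 ^ j : ℕ) : ℝ) ≤ B.d n ^ (γ / 2) := by
        have e1 : B.d n ^ γ = B.d n ^ (γ / 2) * B.d n ^ (γ / 2) := by
          rw [← dpow_add]; congr 1; ring
        rw [lt_div_iff₀ (by positivity)] at a3
        rw [e1, mul_assoc]
        calc B.d n ^ (γ / 2) * (B.d n ^ (γ / 2) * ((2 ^ j : ℕ) : ℝ)) ≤ B.d n ^ (γ / 2) * 1 :=
              mul_le_mul_of_nonneg_left a3.le (dpow_pos B n _).le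
          _ = _ := mul_one _
      have b5 : ((((I n).filter fun x => j ≤ k ∧
          ((x.1, zc (lev n 1 + j) x.2) : ℕ × ℤ) ∉ P j N n).card : ℕ) : ℝ) ≤
          ((E \ P j N n).card : ℝ) := by exact_mod_cast b1
      calc _ ≤ ((E \ P j N n).card : ℝ) := by convert b5
        _ ≤ B.d n ^ γ * (E.card : ℝ) := b2
        _ ≤ B.d n ^ γ * (((2 ^ j : ℕ) : ℝ) * ((I n).card : ℝ)) :=
            mul_le_mul_of_nonneg_left b3 (dpow_pos B n _).le
        _ = (B.d n ^ γ * ((2 ^ j : ℕ) : ℝ)) * ((I n).card : ℝ) := by ring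
        _ ≤ _ := mul_le_mul_of_nonneg_right b4 (Nat.cast_nonneg _)
    · exact Crest.Agent.R138.Mk163.Negl.mono Crest.Agent.R138.Mk163.Negl.false
        (Eventually.of_forall fun n x _ hx => hj hx.1)
  obtain ⟨J0, hJ0I, hJ0d, hJ0⟩ := exists_avoid (B := B) (I := I)
    (fun m n x => (Nat.unpair m).1 ≤ k ∧ ((x.1, zc (lev n 1 + (Nat.unpair m).1) x.2) : ℕ × ℤ) ∉
      P (Nat.unpair m).1 (Nat.unpair m).2 n)
    (fun m => hneg (Nat.unpair m).1 (Nat.unpair m).2)
  refine ⟨J0, hJ0I, hJ0d, fun J hJ j hj ε hε => ?_⟩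
  obtain ⟨N, hN⟩ := exists_nat_one_div_lt (half_pos hε)
  have h2 := hJ0 (Nat.pair j N)
  rw [Nat.unpair_pair] at h2
  obtain ⟨-, -, h3⟩ := hP j N hj
  filter_upwards [h2, h3, dpow_const B (c := (2:ℝ) ^ ((g + 1 / ((N : ℝ) + 1)) * (j : ℝ)))
    (by positivity) (half_pos hε)] with n a1 a2 a3 c s hs
  have hcard : ((alive (J n) (lev n 1 + j) c).filter fun t => G.mem n (lev n 1 + j) c s t).card ≤
      ((P j N n).filter fun o => o.2 = c ∧ G.mem n (lev n 1 + j) c s o.1).card := by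
    refine card_le_card_of_injOn (fun t => ((t, c) : ℕ × ℤ)) ?_ ?_
    · intro t ht
      have ht' := mem_filter.1 ht
      obtain ⟨x, hx, hx1, hx2⟩ := mem_alive.1 ht'.1
      rw [mem_coe, mem_filter]
      have h5 := a1 x (hJ n hx)
      have h6 : ((x.1, zc (lev n 1 + j) x.2) : ℕ × ℤ) ∈ P j N n := by
        by_contra hc
        exact h5 ⟨hj, hc⟩
      rw [hx1, hx2] at h6
      exact ⟨h6, rfl, ht'.2⟩
    · intro a _ b _ hab
      exact (Prod.mk.inj hab).1
  have h4 := a2 c s hs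
  have e1 : (((lev n 1 + j : ℕ) : ℝ) - lev n 1) = j := by push_cast; ring
  have e2 : g * ((1 : ℚ) : ℝ) = g := by norm_num
  rw [e1, e2] at h4
  have h5 : (((alive (J n) (lev n 1 + j) c).filter fun t =>
      G.mem n (lev n 1 + j) c s t).card : ℝ) ≤
      (((P j N n).filter fun o => o.2 = c ∧ G.mem n (lev n 1 + j) c s o.1).card : ℝ) := by
    exact_mod_cast hcard
  refine h5.trans (h4.trans ?_)
  refine mul_le_mul_of_nonneg_right ?_ (hval n _ _ _ hs)
  have pA : 0 < A n * B.d n ^ (-g) := mul_pos (Apos n) (dpow_pos B n _)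
  calc B.d n ^ (-(1 / ((N : ℝ) + 1))) * (A n * B.d n ^ (-g)) *
        2 ^ ((g + 1 / ((N : ℝ) + 1)) * (j : ℝ))
      ≤ B.d n ^ (-(ε / 2)) * (A n * B.d n ^ (-g)) * B.d n ^ (-(ε / 2)) := by
        refine mul_le_mul (mul_le_mul_of_nonneg_right ?_ pA.le) a3 (by positivity)
          (mul_nonneg (dpow_pos B n _).le pA.le)
        exact dpow_le B n (by linarith)
    _ = B.d n ^ (-ε) * (A n * B.d n ^ (-g)) := by
        have : B.d n ^ (-ε) = B.d n ^ (-(ε / 2)) * B.d n ^ (-(ε / 2)) := by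
          rw [← dpow_add]; congr 1; ring
        rw [this]; ring

/-- the amplitude of `AllD` at the level `lev n v`. -/
theorem amp_up (g0 : 0 ≤ g) {v : ℚ} {x : ℕ → ℝ}
    (hlim : Tendsto (fun n => x n * Real.log 2 / B.L n) U (𝓝 (v : ℝ))) {ε : ℝ} (hε : 0 < ε) :
    ∀ᶠ n in (U : Filter ℕ), (2:ℝ) ^ (g * x n) ≤ B.d n ^ (-(g * v) - ε) := by
  have h1 := hlim.eventually (Iio_mem_nhds (show (v : ℝ) < v + ε / (g + 1) by
    have : 0 < ε / (g + 1) := by positivity
    linarith))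
  filter_upwards [h1] with n hn
  have hL := B.L_pos n
  have hn' : x n * Real.log 2 / B.L n < (v : ℝ) + ε / (g + 1) := hn
  rw [div_lt_iff₀ hL] at hn'
  rw [two_exp, d_exp]
  refine Real.exp_le_exp.2 ?_
  have h2 : g * x n * Real.log 2 ≤ g * (((v : ℝ) + ε / (g + 1)) * B.L n) := by
    have := mul_le_mul_of_nonneg_left hn'.le g0
    linarith
  have h3 : g * (ε / (g + 1)) ≤ ε := by
    rw [mul_div_assoc', div_le_iff₀ (by positivity)]
    nlinarith
  nlinarith [mul_le_mul_of_nonneg_right h3 hL.le]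

open Classical in
/-- **D-MAX AT THE SHIFTED LEVELS.**  One dense part `J0`; on every part of it D-max holds at the
levels `lev n v + k`, `v ∈ [0,1]`, with the amplitude of the level `v`. -/
theorem dmax_shift (Apos : ∀ n, 0 < A n) (g0 : 0 ≤ g)
    (hval : ∀ n i J s, G.adm n i J s → 0 ≤ G.val n i J s)
    (one : ∀ᶠ n in (U : Filter ℕ), ∀ x ∈ I n, ∀ y ∈ I n, x.1 = y.1 →
      zc (lev n 1) x.2 = zc (lev n 1) y.2 → x = y)
    (lev_mono : ∀ u v : ℚ, 0 ≤ u → u ≤ v → v ≤ 1 → ∀ᶠ n in (U : Filter ℕ), lev n u ≤ lev n v)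
    (lev_lim : ∀ u v : ℚ, 0 ≤ u → u ≤ v → v ≤ 1 →
      Tendsto (fun n => ((lev n v : ℝ) - lev n u) * Real.log 2 / B.L n) U (𝓝 ((v : ℝ) - u)))
    (alld : AllD B I G lev A g) (k : ℕ)
    (hD : ∀ j ≤ k, ∀ ε : ℝ, 0 < ε → DeepAt B G lev A g 1 (fun n => lev n 1 + j) I ε) :
    ∃ J0 : ℕ → Finset (ℕ × ℝ), (∀ n, J0 n ⊆ I n) ∧ Dense B J0 I ∧
      ∀ J : ℕ → Finset (ℕ × ℝ), (∀ n, J n ⊆ J0 n) →
        (∀ v : ℚ, 0 ≤ v → v ≤ 1 → ∀ ε : ℝ, 0 < ε → ∀ᶠ n in (U : Filter ℕ), ∀ (c : ℤ) (s : σ),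
          G.adm n (lev n v + k) c s →
            (((alive (J n) (lev n v + k) c).filter fun t =>
              G.mem n (lev n v + k) c s t).card : ℝ) ≤
              B.d n ^ (-ε) * ampA B A (fun v => g * v) n v * G.val n (lev n v + k) c s) ∧
        AllD B J G (fun n v => lev n v + k) A g := by
  obtain ⟨J0, h0I, h0d, h0⟩ := exists_deep_part Apos hval one k hD
  refine ⟨J0, h0I, h0d, fun J hJ => ⟨?_, ?_⟩⟩
  · intro v hv0 hv1 ε hε
    rcases hv1.lt_or_eq with hv | hv
    · -- `v < 1`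
      have hv' : (v : ℝ) < 1 := by exact_mod_cast hv
      have hlog : 0 < Real.log 2 := Real.log_pos one_lt_two
      have hlev : ∀ᶠ n in (U : Filter ℕ), lev n v + k ≤ lev n 1 := by
        have h1 := lev_lim v 1 hv0 hv1 le_rfl
        have h2 := h1.eventually (Ioi_mem_nhds
          (show (1 - (v : ℝ)) / 2 < ((1 : ℚ) : ℝ) - (v : ℝ) by
            have : ((1 : ℚ) : ℝ) = 1 := by norm_num
            rw [this]; linarith))
        filter_upwards [h2, B.ev_L_ge (2 * (k : ℝ) * Real.log 2 / (1 - v))] with n a1 a2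
        have hL := B.L_pos n
        have a1' : (1 - (v : ℝ)) / 2 < ((lev n 1 : ℝ) - lev n v) * Real.log 2 / B.L n := a1
        rw [lt_div_iff₀ hL] at a1'
        rw [div_le_iff₀ (by linarith)] at a2
        have a3 : (k : ℝ) * Real.log 2 ≤ ((lev n 1 : ℝ) - lev n v) * Real.log 2 := by
          nlinarith
        have a4 : (k : ℝ) ≤ (lev n 1 : ℝ) - lev n v := le_of_mul_le_mul_right a3 hlog
        have a5 : ((lev n v + k : ℕ) : ℝ) ≤ ((lev n 1 : ℕ) : ℝ) := by push_cast; linarith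
        exact_mod_cast a5
      have hl0 := lev_lim 0 v le_rfl hv0 hv1
      have hl1 : Tendsto (fun n => ((lev n v : ℝ) - lev n 0) * Real.log 2 / B.L n) U
          (𝓝 (v : ℝ)) := by
        have e : ((v : ℝ) - ((0 : ℚ) : ℝ)) = v := by norm_num
        rw [e] at hl0; exact hl0
      filter_upwards [hlev, lev_mono 0 v le_rfl hv0 hv1, alld (ε / 3) (by positivity),
        amp_up (B := B) g0 hl1 (ε := ε / 3) (by positivity),
        dpow_const B (c := (2:ℝ) ^ (g * (k : ℝ))) (by positivity) (ε := ε / 3) (by positivity)]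
        with n a1 a2 a3 a4 a5 c s hs
      have h1 := a3 (lev n v + k) (a2.trans (Nat.le_add_right _ _)) a1 c s hs
      have h2 : (((alive (J n) (lev n v + k) c).filter fun t =>
          G.mem n (lev n v + k) c s t).card : ℝ) ≤
          (((alive (I n) (lev n v + k) c).filter fun t => G.mem n (lev n v + k) c s t).card : ℝ) := by
        exact_mod_cast card_le_card (filter_subset_filter _
          (alive_mono ((hJ n).trans (h0I n)) _ _))
      refine h2.trans (h1.trans ?_)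
      refine mul_le_mul_of_nonneg_right ?_ (hval n _ _ _ hs)
      have e1 : (2:ℝ) ^ (g * (((lev n v + k : ℕ) : ℝ) - lev n 0)) =
          2 ^ (g * ((lev n v : ℝ) - lev n 0)) * 2 ^ (g * (k : ℝ)) := by
        rw [← Real.rpow_add (by norm_num)]; congr 1; push_cast; ring
      rw [e1]
      unfold ampA
      have pA := Apos n
      calc B.d n ^ (-(ε / 3)) * (A n * (2 ^ (g * ((lev n v : ℝ) - lev n 0)) * 2 ^ (g * (k : ℝ))))
          ≤ B.d n ^ (-(ε / 3)) * (A n * (B.d n ^ (-(g * v) - ε / 3) * B.d n ^ (-(ε / 3)))) := by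
            refine mul_le_mul_of_nonneg_left (mul_le_mul_of_nonneg_left ?_ pA.le)
              (dpow_pos B n _).le
            exact mul_le_mul a4 a5 (by positivity) (dpow_pos B n _).le
        _ = B.d n ^ (-ε) * (A n * B.d n ^ (-(g * v))) := by
            have e2 : B.d n ^ (-(g * v) - ε / 3) = B.d n ^ (-(g * v)) * B.d n ^ (-(ε / 3)) := by
              rw [← dpow_add]; congr 1
            have e3 : B.d n ^ (-ε) = B.d n ^ (-(ε / 3)) * B.d n ^ (-(ε / 3)) *
                B.d n ^ (-(ε / 3)) := by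
              rw [← dpow_add, ← dpow_add]; congr 1; ring
            rw [e2, e3]; ring
    · -- `v = 1`
      subst hv
      filter_upwards [h0 J hJ k le_rfl ε hε] with n hn c s hs
      refine (hn c s hs).trans (le_of_eq ?_)
      unfold ampA
      have e2 : g * ((1 : ℚ) : ℝ) = g := by norm_num
      simp only [e2]
  · -- `AllD`
    intro ε hε
    have hl0 := lev_lim 0 1 le_rfl zero_le_one le_rfl
    have hlow : ∀ᶠ n in (U : Filter ℕ), B.d n ^ (-g + ε / 3) ≤
        (2:ℝ) ^ (g * ((lev n 1 : ℝ) - lev n 0)) := by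
      have h1 := hl0.eventually (Ioi_mem_nhds
        (show 1 - ε / (3 * (g + 1)) < ((1 : ℚ) : ℝ) - ((0 : ℚ) : ℝ) by
            have e : ((1 : ℚ) : ℝ) - ((0 : ℚ) : ℝ) = 1 := by norm_num
            rw [e]
            have : 0 < ε / (3 * (g + 1)) := by positivity
            linarith))
      filter_upwards [h1] with n hn
      have hL := B.L_pos n
      have hn' : 1 - ε / (3 * (g + 1)) < ((lev n 1 : ℝ) - lev n 0) * Real.log 2 / B.L n := hn
      rw [lt_div_iff₀ hL] at hn'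
      rw [two_exp, d_exp]
      refine Real.exp_le_exp.2 ?_
      have h2 : g * ((1 - ε / (3 * (g + 1))) * B.L n) ≤
          g * (((lev n 1 : ℝ) - lev n 0) * Real.log 2) := mul_le_mul_of_nonneg_left hn'.le g0
      have h3 : g * (ε / (3 * (g + 1))) ≤ ε / 3 := by
        rw [mul_div_assoc', div_le_div_iff₀ (by positivity) (by positivity)]
        nlinarith
      nlinarith [mul_le_mul_of_nonneg_right h3 hL.le]
    have hj : ∀ᶠ n in (U : Filter ℕ), ∀ j ∈ Finset.range (k + 1), ∀ (c : ℤ) (s : σ),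
        G.adm n (lev n 1 + j) c s →
          (((alive (J n) (lev n 1 + j) c).filter fun t => G.mem n (lev n 1 + j) c s t).card : ℝ) ≤
            B.d n ^ (-(ε / 3)) * (A n * B.d n ^ (-g)) * G.val n (lev n 1 + j) c s := by
      rw [Filter.eventually_all_finset]
      intro j hj
      exact h0 J hJ j (by rw [mem_range] at hj; omega) (ε / 3) (by positivity)
    filter_upwards [hj, hlow, alld (ε / 3) (by positivity),
      dpow_const B (c := (2:ℝ) ^ (g * (k : ℝ))) (by positivity) (ε := ε / 3) (by positivity)]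
      with n a1 a2 a3 a4 i hi0 hi1 c s hs
    have hi0' : lev n 0 + k ≤ i := hi0
    have hi1' : i ≤ lev n 1 + k := hi1
    have pA := Apos n
    have e1 : (2:ℝ) ^ (g * ((i : ℝ) - ((lev n 0 + k : ℕ) : ℝ))) * 2 ^ (g * (k : ℝ)) =
        2 ^ (g * ((i : ℝ) - lev n 0)) := by
      rw [← Real.rpow_add (by norm_num)]; congr 1; push_cast; ring
    show (((alive (J n) i c).filter fun t => G.mem n i c s t).card : ℝ) ≤
      B.d n ^ (-ε) * (A n * 2 ^ (g * ((i : ℝ) - ((lev n 0 + k : ℕ) : ℝ)))) * G.val n i c s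
    rcases le_total i (lev n 1) with h1 | h1
    · have h2 := a3 i ((Nat.le_add_right _ _).trans hi0') h1 c s hs
      have h3 : (((alive (J n) i c).filter fun t => G.mem n i c s t).card : ℝ) ≤
          (((alive (I n) i c).filter fun t => G.mem n i c s t).card : ℝ) := by
        exact_mod_cast card_le_card (filter_subset_filter _
          (alive_mono ((hJ n).trans (h0I n)) _ _))
      refine h3.trans (h2.trans (mul_le_mul_of_nonneg_right ?_ (hval n _ _ _ hs)))
      rw [← e1]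
      set X : ℝ := 2 ^ (g * ((i : ℝ) - ((lev n 0 + k : ℕ) : ℝ))) with hX
      have pX : 0 < X := Real.rpow_pos_of_pos (by norm_num) _
      calc B.d n ^ (-(ε / 3)) * (A n * (X * 2 ^ (g * (k : ℝ))))
          ≤ B.d n ^ (-(ε / 3)) * (A n * (X * B.d n ^ (-(ε / 3)))) :=
            mul_le_mul_of_nonneg_left (mul_le_mul_of_nonneg_left
              (mul_le_mul_of_nonneg_left a4 pX.le) pA.le) (dpow_pos B n _).le
        _ = B.d n ^ (-(2 * (ε / 3))) * (A n * X) := by
            have : B.d n ^ (-(2 * (ε / 3))) = B.d n ^ (-(ε / 3)) * B.d n ^ (-(ε / 3)) := by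
              rw [← dpow_add]; congr 1; ring
            rw [this]; ring
        _ ≤ B.d n ^ (-ε) * (A n * X) :=
            mul_le_mul_of_nonneg_right (dpow_le B n (by linarith)) (mul_pos pA pX).le
    · obtain ⟨j, rfl⟩ := Nat.exists_eq_add_of_le h1
      have hjk : j ≤ k := by omega
      have h2 := a1 j (mem_range.2 (by omega)) c s hs
      refine h2.trans (mul_le_mul_of_nonneg_right ?_ (hval n _ _ _ hs))
      have e2 : (2:ℝ) ^ (g * ((lev n 1 : ℝ) - lev n 0)) * 2 ^ (g * (j : ℝ)) =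
          2 ^ (g * (((lev n 1 + j : ℕ) : ℝ) - lev n 0)) := by
        rw [← Real.rpow_add (by norm_num)]; congr 1; push_cast; ring
      have e3 : (1:ℝ) ≤ 2 ^ (g * (j : ℝ)) :=
        Real.one_le_rpow (by norm_num) (by positivity)
      have h4 : B.d n ^ (-g + ε / 3) ≤
          2 ^ (g * (((lev n 1 + j : ℕ) : ℝ) - ((lev n 0 + k : ℕ) : ℝ))) * 2 ^ (g * (k : ℝ)) := by
        rw [e1, ← e2]
        calc B.d n ^ (-g + ε / 3) ≤ 2 ^ (g * ((lev n 1 : ℝ) - lev n 0)) * 1 := by
              rw [mul_one]; exact a2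
          _ ≤ _ := mul_le_mul_of_nonneg_left e3 (by positivity)
      set X : ℝ := 2 ^ (g * (((lev n 1 + j : ℕ) : ℝ) - ((lev n 0 + k : ℕ) : ℝ))) with hX
      have pX : 0 < X := Real.rpow_pos_of_pos (by norm_num) _
      have h5 : B.d n ^ (-g) ≤ B.d n ^ (-(2 * (ε / 3))) * X := by
        have h6 : B.d n ^ (-g + ε / 3) ≤ X * B.d n ^ (-(ε / 3)) :=
          h4.trans (mul_le_mul_of_nonneg_left a4 pX.le)
        have h7 := mul_le_mul_of_nonneg_left h6 (dpow_pos B n (-(ε / 3))).le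
        rw [← dpow_add] at h7
        have e4 : -(ε / 3) + (-g + ε / 3) = -g := by ring
        rw [e4] at h7
        refine h7.trans (le_of_eq ?_)
        have : B.d n ^ (-(2 * (ε / 3))) = B.d n ^ (-(ε / 3)) * B.d n ^ (-(ε / 3)) := by
          rw [← dpow_add]; congr 1; ring
        rw [this]; ring
      calc B.d n ^ (-(ε / 3)) * (A n * B.d n ^ (-g))
          ≤ B.d n ^ (-(ε / 3)) * (A n * (B.d n ^ (-(2 * (ε / 3))) * X)) :=
            mul_le_mul_of_nonneg_left (mul_le_mul_of_nonneg_left h5 pA.le) (dpow_pos B n _).le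
        _ = B.d n ^ (-ε) * (A n * X) := by
            have : B.d n ^ (-ε) = B.d n ^ (-(ε / 3)) * B.d n ^ (-(2 * (ε / 3))) := by
              rw [← dpow_add]; congr 1; ring
            rw [this]; ring

/-- extended objects for the shifted levels are extended objects. -/
theorem extO_shift (K : Finset (ℕ × ℝ)) (l k m : ℕ) : extO K (l + k) m ⊆ extO K l m := by
  intro o ho
  rcases le_total m l with h1 | h1
  · rw [mem_extO_le (h1.trans (Nat.le_add_right _ _))] at ho
    rw [mem_extO_le h1]; exact ho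
  · rw [mem_extO_ge h1]
    rcases le_total m (l + k) with h2 | h2
    · rw [mem_extO_le h2] at ho
      obtain ⟨x, hx, rfl⟩ := ho
      refine ⟨x, hx, ?_⟩
      simp only [lc, Prod.mk.injEq, true_and]
      exact zc_div h1 x.2
    · rw [mem_extO_ge h2] at ho
      obtain ⟨x, hx, hxo⟩ := ho
      refine ⟨x, hx, ?_⟩
      simp only [lc, Prod.mk.injEq] at hxo ⊢
      refine ⟨hxo.1, ?_⟩
      rw [← zc_add l k, hxo.2, Int.ediv_ediv_of_nonneg (by positivity), ← pow_add]
      congr 2; omega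

open Classical in
theorem card_extO_shift (K : Finset (ℕ × ℝ)) (l k m : ℕ) :
    (extO K l m).card ≤ 2 ^ k * (extO K (l + k) m).card := by
  have him : ∀ a b : ℕ, a ≤ b → (K.image (lc a)).card ≤ (K.image (lc b)).card := by
    intro a b hab
    have : K.image (lc a) = (K.image (lc b)).image fun o => (o.1, o.2 / 2 ^ (b - a)) := by
      ext o
      simp only [mem_image, lc]
      constructor
      · rintro ⟨x, hx, rfl⟩
        exact ⟨(x.1, zc b x.2), ⟨x, hx, rfl⟩, by rw [zc_div hab]⟩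
      · rintro ⟨_, ⟨x, hx, rfl⟩, rfl⟩
        exact ⟨x, hx, by rw [zc_div hab]⟩
    rw [this]; exact card_image_le
  rcases le_total m l with h1 | h1
  · have e1 : extO K l m = K.image (lc m) := by unfold extO; rw [if_pos h1]
    have e2 : extO K (l + k) m = K.image (lc m) := by
      unfold extO; rw [if_pos (h1.trans (Nat.le_add_right _ _))]
    rw [e1, e2]
    exact Nat.le_mul_of_pos_left _ (by positivity)
  · rw [card_extO h1]
    rcases le_total m (l + k) with h2 | h2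
    · have e2 : extO K (l + k) m = K.image (lc m) := by unfold extO; rw [if_pos h2]
      rw [e2]
      exact Nat.mul_le_mul (Nat.pow_le_pow_right (by norm_num) (by omega)) (him l m h1)
    · rw [card_extO h2, ← mul_assoc, ← pow_add]
      have e : k + (m - (l + k)) = m - l := by omega
      rw [e]
      exact Nat.mul_le_mul_left _ (him l (l + k) (Nat.le_add_right _ _))

open Classical in
/-- **the deep D-max at the shifted levels**, one depth. -/
theorem deepAt_shift (Apos : ∀ n, 0 < A n) (g0 : 0 ≤ g)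
    (hval : ∀ n i J s, G.adm n i J s → 0 ≤ G.val n i J s) {v : ℚ} {m : ℕ → ℕ}
    {J : ℕ → Finset (ℕ × ℝ)} (k : ℕ)
    (hm : ∀ᶠ n in (U : Filter ℕ), lev n v + k ≤ m n) {ε : ℝ} (hε : 0 < ε)
    (h : DeepAt B G lev A g v m J (ε / 2)) :
    DeepAt B G (fun n v => lev n v + k) A g v m J ε := by
  obtain ⟨P, hP, ⟨γ, hγ, h2⟩, h3⟩ := h
  refine ⟨fun n => P n ∩ extO (J n) (lev n 1 + k) (m n), fun n => inter_subset_right,
    ⟨γ / 2, by positivity, ?_⟩, ?_⟩
  · filter_upwards [h2, Crest.Agent.R138.Ps926.dpow_small B (half_pos hγ)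
      (ε := 1 / ((2 ^ k : ℕ) : ℝ)) (by positivity)] with n a1 a3
    set E := extO (J n) (lev n 1) (m n) with hE
    set E' := extO (J n) (lev n 1 + k) (m n) with hE'
    show (E'.card : ℝ) ≤ ((P n ∩ E').card : ℝ) + B.d n ^ (γ / 2) * (E'.card : ℝ)
    have hEE : E' ⊆ E := extO_shift (J n) (lev n 1) k (m n)
    have c1 : E'.card ≤ (P n ∩ E').card + (E \ P n).card := by
      have : E' ⊆ (P n ∩ E') ∪ (E \ P n) := by
        intro o ho
        by_cases hoP : o ∈ P n
        · exact mem_union_left _ (mem_inter.2 ⟨hoP, ho⟩)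
        · exact mem_union_right _ (mem_sdiff.2 ⟨hEE ho, hoP⟩)
      exact (card_le_card this).trans (card_union_le _ _)
    have c2 : ((E \ P n).card : ℝ) ≤ B.d n ^ γ * (E.card : ℝ) := by
      have := card_sdiff_add_card_eq_card (hP n)
      have h5 : ((E \ P n).card : ℝ) + ((P n).card : ℝ) = (E.card : ℝ) := by exact_mod_cast this
      linarith
    have c3 : (E.card : ℝ) ≤ ((2 ^ k : ℕ) : ℝ) * (E'.card : ℝ) := by
      exact_mod_cast card_extO_shift (J n) (lev n 1) k (m n)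
    have b4 : B.d n ^ γ * ((2 ^ k : ℕ) : ℝ) ≤ B.d n ^ (γ / 2) := by
      have e1 : B.d n ^ γ = B.d n ^ (γ / 2) * B.d n ^ (γ / 2) := by
        rw [← dpow_add]; congr 1; ring
      rw [lt_div_iff₀ (by positivity)] at a3
      rw [e1, mul_assoc]
      calc B.d n ^ (γ / 2) * (B.d n ^ (γ / 2) * ((2 ^ k : ℕ) : ℝ)) ≤ B.d n ^ (γ / 2) * 1 :=
            mul_le_mul_of_nonneg_left a3.le (dpow_pos B n _).le
        _ = _ := mul_one _
    have c4 : ((E \ P n).card : ℝ) ≤ B.d n ^ (γ / 2) * (E'.card : ℝ) :=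
      calc ((E \ P n).card : ℝ) ≤ B.d n ^ γ * (E.card : ℝ) := c2
        _ ≤ B.d n ^ γ * (((2 ^ k : ℕ) : ℝ) * (E'.card : ℝ)) :=
            mul_le_mul_of_nonneg_left c3 (dpow_pos B n _).le
        _ = (B.d n ^ γ * ((2 ^ k : ℕ) : ℝ)) * (E'.card : ℝ) := by ring
        _ ≤ _ := mul_le_mul_of_nonneg_right b4 (Nat.cast_nonneg _)
    have c5 : (E'.card : ℝ) ≤ ((P n ∩ E').card : ℝ) + ((E \ P n).card : ℝ) := by
      exact_mod_cast c1
    linarith
  · filter_upwards [h3, hm, dpow_const B (c := (2:ℝ) ^ ((g + ε / 2) * (k : ℝ))) (by positivity)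
      (half_pos hε)] with n a1 a2 a3 j s hs
    have h4 := a1 j s hs
    have h5 : (((P n ∩ extO (J n) (lev n 1 + k) (m n)).filter fun o =>
        o.2 = j ∧ G.mem n (m n) j s o.1).card : ℝ) ≤
        (((P n).filter fun o => o.2 = j ∧ G.mem n (m n) j s o.1).card : ℝ) := by
      exact_mod_cast card_le_card (filter_subset_filter _ inter_subset_left)
    refine le_trans (le_of_eq ?_) (h5.trans (h4.trans
      (mul_le_mul_of_nonneg_right ?_ (hval n _ _ _ hs))))
    · rfl
    have pA : 0 < A n * B.d n ^ (-(g * v)) := mul_pos (Apos n) (dpow_pos B n _)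
    have hx : (0 : ℝ) ≤ (m n : ℝ) - ((lev n v + k : ℕ) : ℝ) := by
      rw [sub_nonneg]; exact_mod_cast a2
    have e1 : (2:ℝ) ^ ((g + ε / 2) * ((m n : ℝ) - lev n v)) =
        2 ^ ((g + ε / 2) * ((m n : ℝ) - ((lev n v + k : ℕ) : ℝ))) * 2 ^ ((g + ε / 2) * (k : ℝ)) := by
      rw [← Real.rpow_add (by norm_num)]; congr 1; push_cast; ring
    have e2 : (2:ℝ) ^ ((g + ε / 2) * ((m n : ℝ) - ((lev n v + k : ℕ) : ℝ))) ≤
        2 ^ ((g + ε) * ((m n : ℝ) - ((lev n v + k : ℕ) : ℝ))) :=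
      Real.rpow_le_rpow_of_exponent_le (by norm_num)
        (mul_le_mul_of_nonneg_right (by linarith) hx)
    rw [e1]
    calc B.d n ^ (-(ε / 2)) * (A n * B.d n ^ (-(g * v))) *
          (2 ^ ((g + ε / 2) * ((m n : ℝ) - ((lev n v + k : ℕ) : ℝ))) * 2 ^ ((g + ε / 2) * (k : ℝ)))
        ≤ B.d n ^ (-(ε / 2)) * (A n * B.d n ^ (-(g * v))) *
          (2 ^ ((g + ε) * ((m n : ℝ) - ((lev n v + k : ℕ) : ℝ))) * B.d n ^ (-(ε / 2))) := by
          refine mul_le_mul_of_nonneg_left ?_ (mul_nonneg (dpow_pos B n _).le pA.le)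
          exact mul_le_mul e2 a3 (by positivity) (by positivity)
      _ = B.d n ^ (-ε) * (A n * B.d n ^ (-(g * v))) *
          2 ^ ((g + ε) * ((m n : ℝ) - ((lev n v + k : ℕ) : ℝ))) := by
          have : B.d n ^ (-ε) = B.d n ^ (-(ε / 2)) * B.d n ^ (-(ε / 2)) := by
            rw [← dpow_add]; congr 1; ring
          rw [this]; ring

/-- **the deep D-max at the shifted levels.** -/
theorem deep_shift (Apos : ∀ n, 0 < A n) (g0 : 0 ≤ g)
    (hval : ∀ n i J s, G.adm n i J s → 0 ≤ G.val n i J s) {r0 : ℕ → ℝ}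
    (h : DeepP B I G lev A g r0) (k : ℕ) {J : ℕ → Finset (ℕ × ℝ)} (hJ : Dense B J I) :
    DeepP B J G (fun n v => lev n v + k) A g r0 := by
  intro v h0 h1 m hm hr K hK ε hε
  exact deepAt_shift Apos g0 hval k hm hε
    (h v h0 h1 m (hm.mono fun n hn => (Nat.le_add_right _ _).trans hn) hr K (hK.trans hJ) (ε / 2)
      (by positivity))

end

end Crest.Agent.R136.Shf163
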