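import Mathlib

/-!
# R136 (S0187), PLAN 2: energy lemma for the share of two sheets (helper410)

`energy` : a finite family `A`, labels `lab t i` at `H` heights with at most `N` values at each
height; the number of heights at which `t, t'` have the same label is at most `K / ν t t'`, the
number of `t'` which meet `t` in a label and have `ν ≤ 2^-m` is at most `B (2^-m)^(1+q)`: then
`#A ≤ N / H * C_q * K * B`.
-/

set_option autoImplicit false
set_option linter.unusedVariables false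

open Finset

namespace Crest.Agent.R136.Shr410

open Classical in
/-- Cauchy–Schwarz: number of pairs with equal labels -/
theorem pairs_ge {ι κ : Type*} (A : Finset ι) (f : ι → κ) {N : ℝ}
    (hN : ((A.image f).card : ℝ) ≤ N) :
    (A.card : ℝ) ^ 2 ≤ N * (((A ×ˢ A).filter fun p => f p.1 = f p.2).card : ℝ) := by
  have h1 : ∑ y ∈ A.image f, ((A.filter fun t => f t = y).card : ℝ) = A.card := by
    have := card_eq_sum_card_image f A
    rw [this]; push_cast; rfl
  have h2 : ((A ×ˢ A).filter fun p => f p.1 = f p.2).card =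
      ∑ y ∈ A.image f, (A.filter fun t => f t = y).card ^ 2 := by
    have hm : ∀ p ∈ (A ×ˢ A).filter fun p => f p.1 = f p.2, f p.1 ∈ A.image f := by
      intro p hp
      rw [mem_filter, mem_product] at hp
      exact mem_image_of_mem _ hp.1.1
    rw [card_eq_sum_card_fiberwise hm]
    refine sum_congr rfl fun y _ => ?_
    rw [sq, ← card_product]
    congr 1
    ext p
    simp only [mem_filter, mem_product]
    constructor
    · rintro ⟨⟨⟨a, b⟩, c⟩, d⟩
      exact ⟨⟨a, d⟩, ⟨b, c ▸ d⟩⟩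
    · rintro ⟨⟨a, b⟩, ⟨c, d⟩⟩
      exact ⟨⟨⟨a, c⟩, b.trans d.symm⟩, b⟩
  have h3 := sq_sum_le_card_mul_sum_sq (s := A.image f)
    (f := fun y => ((A.filter fun t => f t = y).card : ℝ))
  rw [h1] at h3
  have h4 : (((A ×ˢ A).filter fun p => f p.1 = f p.2).card : ℝ) =
      ∑ y ∈ A.image f, ((A.filter fun t => f t = y).card : ℝ) ^ 2 := by
    rw [h2]; push_cast; rfl
  rw [← h4] at h3
  exact h3.trans (mul_le_mul_of_nonneg_right hN (Nat.cast_nonneg _))

/-- the constant -/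
noncomputable def Ce (q : ℝ) : ℝ := 4 * (1 / (1 - (1 / 2 : ℝ) ^ q)) + 4

open Classical in
/-- the sum over the partners of one line, dyadic decomposition in the velocity `ν` -/
theorem fiber_le {ι : Type*} {R : Finset ι} {c : ι → ℕ} {ν : ι → ℝ} {H : ℕ} {q K B : ℝ}
    (hq : 0 < q) (hK : 1 ≤ K) (hB : 0 ≤ B) (hH : 1 ≤ H) (hcH : ∀ s ∈ R, c s ≤ H)
    (hν1 : ∀ s ∈ R, ν s ≤ 1)
    (hc : ∀ s ∈ R, (c s : ℝ) * ν s ≤ K)
    (hR : ∀ m : ℕ, 2 ^ m ≤ H → ((R.filter fun s => ν s ≤ (1 / 2 : ℝ) ^ m).card : ℝ) ≤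
      B * ((1 / 2 : ℝ) ^ m) ^ (1 + q)) :
    ∑ s ∈ R, (c s : ℝ) ≤ Ce q * K * B := by
  -- the largest dyadic exponent
  set M := Nat.log 2 H with hM
  have hM1 : 2 ^ M ≤ H := Nat.pow_log_le_self 2 (by omega)
  have hM2 : H < 2 ^ (M + 1) := Nat.lt_pow_succ_log_self (by norm_num) H
  -- label of a partner
  have hx : (0:ℝ) < (1 / 2 : ℝ) ^ q := by positivity
  have hx1 : (1 / 2 : ℝ) ^ q < 1 := Real.rpow_lt_one (by norm_num) (by norm_num) hq
  have hpw : ∀ m : ℕ, ((1 / 2 : ℝ) ^ m) ^ (1 + q) = (1 / 2 : ℝ) ^ m * ((1 / 2 : ℝ) ^ q) ^ m := by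
    intro m
    rw [Real.rpow_add (by positivity), Real.rpow_one, ← Real.rpow_natCast ((1 / 2 : ℝ) ^ q) m,
      ← Real.rpow_natCast (1 / 2 : ℝ) m, ← Real.rpow_mul (by norm_num),
      ← Real.rpow_mul (by norm_num), mul_comm (m : ℝ) q]
  -- pointwise bound
  have key : ∀ s ∈ R, (c s : ℝ) ≤ (∑ m ∈ range M, if ν s ≤ (1 / 2 : ℝ) ^ m then
      2 * K * 2 ^ m else 0) + (if ν s ≤ (1 / 2 : ℝ) ^ M then 2 * 2 ^ M else 0) := by
    intro s hs
    have hK0 : 0 ≤ K := by linarith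
    have hnn : ∀ m ∈ range M, (0:ℝ) ≤ if ν s ≤ (1 / 2 : ℝ) ^ m then 2 * K * 2 ^ m else 0 := by
      intro m _
      split_ifs
      · positivity
      · exact le_rfl
    by_cases h : ν s ≤ (1 / 2 : ℝ) ^ M
    · rw [if_pos h]
      have h1 : (c s : ℝ) ≤ 2 * 2 ^ M := by
        have : (c s : ℝ) ≤ (H : ℝ) := by exact_mod_cast hcH s hs
        have h2 : (H : ℝ) ≤ 2 ^ (M + 1) := by exact_mod_cast hM2.le
        rw [pow_succ] at h2
        linarith
      have := sum_nonneg hnn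
      linarith
    · rw [if_neg h, add_zero]
      -- the largest `m` with `ν ≤ 2^-m`
      have hex : ∃ m : ℕ, ¬ ν s ≤ (1 / 2 : ℝ) ^ m := ⟨M, h⟩
      set m1 := Nat.find hex with hm1
      have hm1s : ¬ ν s ≤ (1 / 2 : ℝ) ^ m1 := Nat.find_spec hex
      have hm1M : m1 ≤ M := Nat.find_min' hex h
      have hm0 : m1 ≠ 0 := by
        intro h0
        rw [h0, pow_zero] at hm1s
        exact hm1s (hν1 s hs)
      obtain ⟨m, hm⟩ := Nat.exists_eq_succ_of_ne_zero hm0
      have hmlt : m < m1 := by omega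
      have hms : ν s ≤ (1 / 2 : ℝ) ^ m := by
        by_contra hc'
        exact Nat.find_min hex hmlt hc'
      have hmM : m ∈ range M := mem_range.2 (by omega)
      have hνlo : (1 / 2 : ℝ) ^ (m + 1) < ν s := by
        rw [hm] at hm1s
        exact not_le.1 hm1s
      have h1 : (c s : ℝ) ≤ 2 * K * 2 ^ m := by
        have h2 := hc s hs
        have h3 : (c s : ℝ) * (1 / 2 : ℝ) ^ (m + 1) ≤ K :=
          (mul_le_mul_of_nonneg_left hνlo.le (Nat.cast_nonneg _)).trans h2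
        have h4 : (1 / 2 : ℝ) ^ (m + 1) * (2 * 2 ^ m) = 1 := by
          rw [pow_succ, one_div, inv_pow]; field_simp
        calc (c s : ℝ) = (c s : ℝ) * ((1 / 2 : ℝ) ^ (m + 1) * (2 * 2 ^ m)) := by rw [h4, mul_one]
          _ = (c s : ℝ) * (1 / 2 : ℝ) ^ (m + 1) * (2 * 2 ^ m) := by ring
          _ ≤ K * (2 * 2 ^ m) := mul_le_mul_of_nonneg_right h3 (by positivity)
          _ = _ := by ring
      have h5 := single_le_sum hnn hmM
      rw [if_pos hms] at h5
      exact h1.trans h5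
  -- sum
  have hsw : ∑ s ∈ R, (c s : ℝ) ≤ (∑ m ∈ range M, 2 * K * 2 ^ m *
      ((R.filter fun s => ν s ≤ (1 / 2 : ℝ) ^ m).card : ℝ)) +
      2 * 2 ^ M * ((R.filter fun s => ν s ≤ (1 / 2 : ℝ) ^ M).card : ℝ) := by
    calc ∑ s ∈ R, (c s : ℝ) ≤ ∑ s ∈ R, ((∑ m ∈ range M, if ν s ≤ (1 / 2 : ℝ) ^ m then
        2 * K * 2 ^ m else 0) + (if ν s ≤ (1 / 2 : ℝ) ^ M then 2 * 2 ^ M else 0)) :=
          sum_le_sum key
      _ = _ := by
        rw [sum_add_distrib, sum_comm]
        congr 1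
        · refine sum_congr rfl fun m _ => ?_
          rw [← sum_filter, sum_const, nsmul_eq_mul, mul_comm]
        · rw [← sum_filter, sum_const, nsmul_eq_mul, mul_comm]
  refine hsw.trans ?_
  set x := (1 / 2 : ℝ) ^ q with hxdef
  have h2m : ∀ m : ℕ, (2:ℝ) ^ m * (1 / 2 : ℝ) ^ m = 1 := by
    intro m; rw [← mul_pow]; norm_num
  have t1 : ∑ m ∈ range M, 2 * K * 2 ^ m *
      ((R.filter fun s => ν s ≤ (1 / 2 : ℝ) ^ m).card : ℝ) ≤ 2 * K * B * (1 / (1 - x)) := by
    have hb : ∀ m ∈ range M, 2 * K * 2 ^ m *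
        ((R.filter fun s => ν s ≤ (1 / 2 : ℝ) ^ m).card : ℝ) ≤ 2 * K * B * x ^ m := by
      intro m hm
      have hm' : 2 ^ m ≤ H :=
        (Nat.pow_le_pow_right (by norm_num) (mem_range.1 hm).le).trans hM1
      have h6 := hR m hm'
      rw [hpw] at h6
      calc 2 * K * 2 ^ m * ((R.filter fun s => ν s ≤ (1 / 2 : ℝ) ^ m).card : ℝ) ≤
          2 * K * 2 ^ m * (B * ((1 / 2 : ℝ) ^ m * x ^ m)) :=
            mul_le_mul_of_nonneg_left h6 (by positivity)
        _ = 2 * K * B * x ^ m * (2 ^ m * (1 / 2 : ℝ) ^ m) := by ring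
        _ = _ := by rw [h2m, mul_one]
    refine (sum_le_sum hb).trans ?_
    rw [← mul_sum]
    refine mul_le_mul_of_nonneg_left ?_ (by positivity)
    have h7 : ∑ m ∈ range M, x ^ m ≤ 1 / (1 - x) := by
      have := (summable_geometric_of_lt_one hx.le hx1).sum_le_tsum (range M)
        (fun i _ => pow_nonneg hx.le i)
      rw [tsum_geometric_of_lt_one hx.le hx1] at this
      rwa [one_div]
    exact h7
  have t2 : 2 * 2 ^ M * ((R.filter fun s => ν s ≤ (1 / 2 : ℝ) ^ M).card : ℝ) ≤ 2 * B := by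
    have h6 := hR M hM1
    rw [hpw] at h6
    have hxM : x ^ M ≤ 1 := pow_le_one₀ hx.le hx1.le
    calc 2 * 2 ^ M * ((R.filter fun s => ν s ≤ (1 / 2 : ℝ) ^ M).card : ℝ) ≤
        2 * 2 ^ M * (B * ((1 / 2 : ℝ) ^ M * x ^ M)) :=
          mul_le_mul_of_nonneg_left h6 (by positivity)
      _ = 2 * B * x ^ M * (2 ^ M * (1 / 2 : ℝ) ^ M) := by ring
      _ = 2 * B * x ^ M := by rw [h2m, mul_one]
      _ ≤ 2 * B * 1 := mul_le_mul_of_nonneg_left hxM (by positivity)
      _ = _ := mul_one _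
  have hd : 0 < 1 - x := by linarith
  have hi : 0 < 1 / (1 - x) := by positivity
  unfold Ce
  have hKB : 0 ≤ K * B := by positivity
  have hBK : B ≤ K * B := le_mul_of_one_le_left hB hK
  nlinarith [t1, t2, mul_nonneg hKB hi.le]

open Classical in
/-- **energy lemma** -/
theorem energy {ι κ : Type*} (A : Finset ι) (H : ℕ) (lab : ι → ℕ → κ) (ν : ι → ι → ℝ)
    {N q K B : ℝ} (hq : 0 < q) (hK : 1 ≤ K) (hB : 0 ≤ B) (hH : 1 ≤ H) (hN0 : 0 ≤ N)
    (hN : ∀ i < H, ((A.image fun t => lab t i).card : ℝ) ≤ N)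
    (hν1 : ∀ t ∈ A, ∀ s ∈ A, ν t s ≤ 1)
    (hc : ∀ t ∈ A, ∀ s ∈ A,
      (((range H).filter fun i => lab t i = lab s i).card : ℝ) * ν t s ≤ K)
    (hR : ∀ t ∈ A, ∀ m : ℕ, 2 ^ m ≤ H →
      ((A.filter fun s => (∃ i < H, lab t i = lab s i) ∧ ν t s ≤ (1 / 2 : ℝ) ^ m).card : ℝ) ≤
        B * ((1 / 2 : ℝ) ^ m) ^ (1 + q)) :
    (A.card : ℝ) ≤ N / H * (Ce q * K * B) := by
  rcases A.eq_empty_or_nonempty with h0 | h0
  · subst h0
    have hx1 : (1 / 2 : ℝ) ^ q < 1 := Real.rpow_lt_one (by norm_num) (by norm_num) hq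
    have : 0 < 1 - (1 / 2 : ℝ) ^ q := by linarith
    have hC : 0 ≤ Ce q := by unfold Ce; positivity
    simp only [card_empty, Nat.cast_zero]
    positivity
  have hHr : (0:ℝ) < H := by exact_mod_cast (show 0 < H by omega)
  have hA : (0:ℝ) < A.card := by exact_mod_cast h0.card_pos
  -- upper bound of the energy
  have hup : ∀ t ∈ A, ∑ s ∈ A, (((range H).filter fun i => lab t i = lab s i).card : ℝ) ≤
      Ce q * K * B := by
    intro t ht
    have h1 : ∑ s ∈ A, (((range H).filter fun i => lab t i = lab s i).card : ℝ) =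
        ∑ s ∈ A.filter (fun s => ∃ i < H, lab t i = lab s i),
          (((range H).filter fun i => lab t i = lab s i).card : ℝ) := by
      rw [sum_filter]
      refine sum_congr rfl fun s _ => ?_
      split_ifs with h
      · rfl
      · have : ((range H).filter fun i => lab t i = lab s i) = ∅ := by
          rw [filter_eq_empty_iff]
          intro i hi hl
          exact h ⟨i, mem_range.1 hi, hl⟩
        rw [this]; simp
    rw [h1]
    refine fiber_le hq hK hB hH (fun s _ => ?_) (fun s hs => hν1 t ht s (mem_filter.1 hs).1)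
      (fun s hs => hc t ht s (mem_filter.1 hs).1) (fun m hm => ?_)
    · calc ((range H).filter fun i => lab t i = lab s i).card ≤ (range H).card :=
          card_filter_le _ _
        _ = H := card_range H
    · rw [filter_filter]
      exact hR t ht m hm
  -- lower bound
  have hlo : (H : ℝ) * (A.card : ℝ) ^ 2 ≤
      N * ∑ t ∈ A, ∑ s ∈ A, (((range H).filter fun i => lab t i = lab s i).card : ℝ) := by
    have h2 : ∀ i ∈ range H, (A.card : ℝ) ^ 2 ≤
        N * (((A ×ˢ A).filter fun p => lab p.1 i = lab p.2 i).card : ℝ) := fun i hi =>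
      pairs_ge A (fun t => lab t i) (hN i (mem_range.1 hi))
    have h3 := sum_le_sum h2
    rw [sum_const, card_range, nsmul_eq_mul, ← mul_sum] at h3
    have h4 : ∑ i ∈ range H, (((A ×ˢ A).filter fun p => lab p.1 i = lab p.2 i).card : ℝ) =
        ∑ t ∈ A, ∑ s ∈ A, (((range H).filter fun i => lab t i = lab s i).card : ℝ) := by
      simp only [card_filter]
      push_cast
      calc ∑ i ∈ range H, ∑ p ∈ A ×ˢ A, (if lab p.1 i = lab p.2 i then (1:ℝ) else 0) =
          ∑ i ∈ range H, ∑ t ∈ A, ∑ s ∈ A, (if lab t i = lab s i then (1:ℝ) else 0) := by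
            refine sum_congr rfl fun i _ => ?_
            rw [sum_product]
        _ = ∑ t ∈ A, ∑ i ∈ range H, ∑ s ∈ A, (if lab t i = lab s i then (1:ℝ) else 0) := sum_comm
        _ = ∑ t ∈ A, ∑ s ∈ A, ∑ i ∈ range H, (if lab t i = lab s i then (1:ℝ) else 0) :=
          sum_congr rfl fun t _ => sum_comm
    rwa [h4] at h3
  have h5 : ∑ t ∈ A, ∑ s ∈ A, (((range H).filter fun i => lab t i = lab s i).card : ℝ) ≤
      (A.card : ℝ) * (Ce q * K * B) := by
    have := sum_le_sum hup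
    rwa [sum_const, nsmul_eq_mul] at this
  have h6 : (H : ℝ) * (A.card : ℝ) ^ 2 ≤ N * ((A.card : ℝ) * (Ce q * K * B)) :=
    hlo.trans (mul_le_mul_of_nonneg_left h5 hN0)
  have h7 : (H : ℝ) * (A.card : ℝ) ≤ N * (Ce q * K * B) := by
    have : (A.card : ℝ) * ((H : ℝ) * (A.card : ℝ)) ≤ (A.card : ℝ) * (N * (Ce q * K * B)) := by
      calc (A.card : ℝ) * ((H : ℝ) * (A.card : ℝ)) = (H : ℝ) * (A.card : ℝ) ^ 2 := by ring
        _ ≤ _ := h6
        _ = _ := by ring
    exact le_of_mul_le_mul_left this hA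
  rw [div_mul_eq_mul_div, le_div_iff₀ hHr]
  linarith

end Crest.Agent.R136.Shr410
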