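import Crest.Agent.R136.Lgt1_989

/-!
# R136 (S0187), U4 / POP, leaf P3 `share` (helper639): midpoint maps of a quadric, separated families

In tangent coordinates of a line `L` of the container the image of `L` under the midpoint map
`y = x + om × ∇ q (z, (x + y) / 2)` is `p + ζ v` with `Md`.  This file: the equations of the image
line, the separation of the images, the equation in a fibre, and two counting lemmas on `ℝ`.
-/

set_option autoImplicit false
set_option linter.unusedVariables false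

namespace Crest.Agent.R136.Shr639

open Finset
open Crest.Agent.R136.Sh605 Crest.Agent.R136.Tl102 Crest.Agent.R136.Lgt989

/-- cross product -/
def crs (a b : V3) : V3 :=
  ![a 1 * b 2 - a 2 * b 1, a 2 * b 0 - a 0 * b 2, a 0 * b 1 - a 1 * b 0]

/-- coefficients of the container in tangent coordinates of one of its lines -/
structure Bs (n0 : ℝ) (γ : V3) (G : QF) (g : ℝ) : Prop where
  lo : 1 / 2 ≤ n0
  hi : n0 ≤ 2
  γ_le : ∀ k, |γ k| ≤ 5
  G_le : G.Le 13
  g0 : 0 < g
  g1 : g ≤ 1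
  turn : g ≤ γ 1 ^ 2 + γ 2 ^ 2
  conic : g ≤ |G.uu * γ 2 ^ 2 - G.uv * (γ 1 * γ 2) + G.vv * γ 1 ^ 2|

/-- `p + ζ v` is the image of the line `x = 0` under the midpoint map of `om` -/
structure Md (n0 : ℝ) (γ : V3) (G : QF) (μ : ℝ) (om p v : V3) : Prop where
  om_le : ∀ k, |om k| ≤ μ
  p_le : ∀ k, |p k| ≤ μ
  v_le : ∀ k, |v k| ≤ μ
  hp : ∀ k, p k = crs om (fun i => (![n0, 0, 0] : V3) i + gv G p i / 2) k
  hv : ∀ k, v k = crs om (fun i => γ i + gv G v i / 2) k

theorem crs_le {a b : V3} {s t : ℝ} (ha : ∀ k, |a k| ≤ s) (hb : ∀ k, |b k| ≤ t) (k : Fin 3) :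
    |crs a b k| ≤ 2 * (s * t) := by
  have key : ∀ i j, |a i * b j - a j * b i| ≤ 2 * (s * t) := by
    intro i j
    have h1 := mul_abs_le (ha i) (hb j)
    have h2 := mul_abs_le (ha j) (hb i)
    refine (abs_sub _ _).trans ?_
    linarith
  fin_cases k
  · exact key 1 2
  · exact key 2 0
  · exact key 0 1

theorem crs_sub (a b a' b' : V3) (k : Fin 3) :
    crs a b k - crs a' b' k =
      crs (fun i => a i - a' i) b k + crs a' (fun i => b i - b' i) k := by
  fin_cases k <;> simp only [crs, Matrix.cons_val, Fin.zero_eta, Fin.mk_one, Fin.reduceFinMk] <;> ring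

section

variable {n0 : ℝ} {γ : V3} {G : QF} {g μ : ℝ} {om p v om' p' v' : V3}

theorem Md.e2 (M : Md n0 γ G μ om p v) : dt γ v + G.ev v = 0 := by
  have h0 := M.hv 0
  have h1 := M.hv 1
  have h2 := M.hv 2
  have e : dt (fun i => γ i + gv G v i / 2) v = dt γ v + G.ev v := by
    simp only [dt, gv, QF.ev, Matrix.cons_val]; ring
  rw [← e]
  have e' : dt (fun i => γ i + gv G v i / 2) v =
      dt (fun i => γ i + gv G v i / 2) (crs om (fun i => γ i + gv G v i / 2)) := by
    simp only [dt]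
    rw [← h0, ← h1, ← h2]
  rw [e']
  simp only [dt, crs, Matrix.cons_val]
  ring

theorem Md.e0 (M : Md n0 γ G μ om p v) : n0 * p 0 + G.ev p = 0 := by
  have h0 := M.hp 0
  have h1 := M.hp 1
  have h2 := M.hp 2
  have e : dt (fun i => (![n0, 0, 0] : V3) i + gv G p i / 2) p = n0 * p 0 + G.ev p := by
    simp only [dt, gv, QF.ev, Matrix.cons_val]; ring
  rw [← e]
  have e' : dt (fun i => (![n0, 0, 0] : V3) i + gv G p i / 2) p =
      dt (fun i => (![n0, 0, 0] : V3) i + gv G p i / 2)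
        (crs om (fun i => (![n0, 0, 0] : V3) i + gv G p i / 2)) := by
    simp only [dt]
    rw [← h0, ← h1, ← h2]
  rw [e']
  simp only [dt, crs, Matrix.cons_val]
  ring

theorem Md.e1 (M : Md n0 γ G μ om p v) : n0 * v 0 + dt γ p + G.pol p v = 0 := by
  set a : V3 := fun i => (![n0, 0, 0] : V3) i + gv G p i / 2 with ha
  set b : V3 := fun i => γ i + gv G v i / 2 with hb
  have e : dt a v + dt b p = n0 * v 0 + dt γ p + G.pol p v := by
    simp only [dt, ha, hb, gv, QF.pol, Matrix.cons_val]; ring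
  have ev : dt a v = dt a (crs om b) := by
    simp only [dt]
    rw [← M.hv 0, ← M.hv 1, ← M.hv 2]
  have ep : dt b p = dt b (crs om a) := by
    simp only [dt]
    rw [← M.hp 0, ← M.hp 1, ← M.hp 2]
  rw [← e, ev, ep]
  simp only [dt, crs, Matrix.cons_val]
  ring

/-- coordinate along the arc -/
def Sc (γ v : V3) : ℝ := -(γ 2 * v 1) + γ 1 * v 2

set_option maxHeartbeats 4000000 in
/-- **separation of the images** -/
theorem inj (B : Bs n0 γ G g) (hμ : 10 ^ 9 * μ ≤ g ^ 2) (M : Md n0 γ G μ om p v)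
    (M' : Md n0 γ G μ om' p' v') (k : Fin 3) :
    |om k - om' k| ≤ 2 / g * (|Sc γ v - Sc γ v'| + 50 * (|p 1 - p' 1| + |p 2 - p' 2|)) := by
  have hμ0 : 0 ≤ μ := (abs_nonneg _).trans (M.om_le 0)
  have hg := B.g0
  have hg1 := B.g1
  have hgg : g ^ 2 ≤ g := by nlinarith
  have hμ1 : 10 ^ 9 * μ ≤ 1 := by nlinarith
  set D : V3 := fun i => om i - om' i with hD
  set dp : V3 := fun i => p i - p' i with hdp
  set dv : V3 := fun i => v i - v' i with hdv
  set X : ℝ := max (max |D 0| |D 1|) |D 2| with hX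
  set P : ℝ := max (max |dp 0| |dp 1|) |dp 2| with hP
  set V : ℝ := max (max |dv 0| |dv 1|) |dv 2| with hV
  have hX0 : 0 ≤ X := (abs_nonneg _).trans (le_max_right _ _)
  have hP0 : 0 ≤ P := (abs_nonneg _).trans (le_max_right _ _)
  have hV0 : 0 ≤ V := (abs_nonneg _).trans (le_max_right _ _)
  have DX : ∀ i, |D i| ≤ X := by
    intro i; fin_cases i
    · exact (le_max_left _ _).trans (le_max_left _ _)
    · exact (le_max_right _ _).trans (le_max_left _ _)
    · exact le_max_right _ _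
  have PX : ∀ i, |dp i| ≤ P := by
    intro i; fin_cases i
    · exact (le_max_left _ _).trans (le_max_left _ _)
    · exact (le_max_right _ _).trans (le_max_left _ _)
    · exact le_max_right _ _
  have VX : ∀ i, |dv i| ≤ V := by
    intro i; fin_cases i
    · exact (le_max_left _ _).trans (le_max_left _ _)
    · exact (le_max_right _ _).trans (le_max_left _ _)
    · exact le_max_right _ _
  have gp : ∀ i, |gv G p i| ≤ 52 * μ := gv_le B.G_le M.p_le
  have gw : ∀ i, |gv G v i| ≤ 52 * μ := gv_le B.G_le M.v_le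
  have gdp : ∀ i, |gv G dp i| ≤ 52 * P := gv_le B.G_le PX
  have gdv : ∀ i, |gv G dv i| ≤ 52 * V := gv_le B.G_le VX
  have e1 : ∀ i, dp i = crs D (fun j => (![n0, 0, 0] : V3) j + gv G p j / 2) i +
      crs om' (fun j => gv G dp j / 2) i := by
    intro i
    have h := crs_sub om (fun j => (![n0, 0, 0] : V3) j + gv G p j / 2) om'
      (fun j => (![n0, 0, 0] : V3) j + gv G p' j / 2) i
    rw [← M.hp i, ← M'.hp i] at h
    have h2 : (fun j => (![n0, 0, 0] : V3) j + gv G p j / 2 -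
        ((![n0, 0, 0] : V3) j + gv G p' j / 2)) = fun j => gv G dp j / 2 := by
      funext j; rw [hdp, gv_sub]; ring
    rw [h2] at h
    exact h
  have e2 : ∀ i, dv i = crs D (fun j => γ j + gv G v j / 2) i +
      crs om' (fun j => gv G dv j / 2) i := by
    intro i
    have h := crs_sub om (fun j => γ j + gv G v j / 2) om' (fun j => γ j + gv G v' j / 2) i
    rw [← M.hv i, ← M'.hv i] at h
    have h2 : (fun j => γ j + gv G v j / 2 - (γ j + gv G v' j / 2)) = fun j => gv G dv j / 2 := by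
      funext j; rw [hdv, gv_sub]; ring
    rw [h2] at h
    exact h
  have hn0 : |n0| ≤ 2 := by rw [abs_of_nonneg (by linarith [B.lo])]; exact B.hi
  have ha : ∀ i, |(![n0, 0, 0] : V3) i + gv G p i / 2| ≤ 3 := by
    intro i
    have h1 := gp i
    have h3 : |(![n0, 0, 0] : V3) i| ≤ 2 := by
      fin_cases i
      · exact hn0
      · simp
      · simp
    have h4 : |gv G p i / 2| ≤ 26 * μ := by rw [abs_div, abs_of_pos (by norm_num : (0 : ℝ) < 2)]; linarith
    refine (abs_add_le _ _).trans ?_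
    linarith
  have hb : ∀ i, |γ i + gv G v i / 2| ≤ 6 := by
    intro i
    have h1 := gw i
    have h3 := B.γ_le i
    have h4 : |gv G v i / 2| ≤ 26 * μ := by rw [abs_div, abs_of_pos (by norm_num : (0 : ℝ) < 2)]; linarith
    refine (abs_add_le _ _).trans ?_
    linarith
  have hdp2 : ∀ i, |(fun j => gv G dp j / 2) i| ≤ 26 * P := by
    intro i
    have := gdp i
    show |gv G dp i / 2| ≤ _
    rw [abs_div, abs_of_pos (by norm_num : (0 : ℝ) < 2)]; linarith
  have hdv2 : ∀ i, |(fun j => gv G dv j / 2) i| ≤ 26 * V := by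
    intro i
    have := gdv i
    show |gv G dv i / 2| ≤ _
    rw [abs_div, abs_of_pos (by norm_num : (0 : ℝ) < 2)]; linarith
  have cp : ∀ i, |crs om' (fun j => gv G dp j / 2) i| ≤ 52 * (μ * P) := by
    intro i
    refine (crs_le M'.om_le hdp2 i).trans (le_of_eq ?_); ring
  have cv : ∀ i, |crs om' (fun j => gv G dv j / 2) i| ≤ 52 * (μ * V) := by
    intro i
    refine (crs_le M'.om_le hdv2 i).trans (le_of_eq ?_); ring
  have hPX : P ≤ 7 * X := by
    have h1 : ∀ i, |dp i| ≤ 6 * X + 52 * (μ * P) := by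
      intro i
      rw [e1 i]
      refine (abs_add_le _ _).trans (add_le_add ?_ (cp i))
      refine (crs_le DX ha i).trans (le_of_eq ?_); ring
    have h2 : P ≤ 6 * X + 52 * (μ * P) := max_le (max_le (h1 0) (h1 1)) (h1 2)
    have h3 : 52 * (μ * P) ≤ P / 10 := by nlinarith
    linarith
  have hVX : V ≤ 14 * X := by
    have h1 : ∀ i, |dv i| ≤ 12 * X + 52 * (μ * V) := by
      intro i
      rw [e2 i]
      refine (abs_add_le _ _).trans (add_le_add ?_ (cv i))
      refine (crs_le DX hb i).trans (le_of_eq ?_); ring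
    have h2 : V ≤ 12 * X + 52 * (μ * V) := max_le (max_le (h1 0) (h1 1)) (h1 2)
    have h3 : 52 * (μ * V) ≤ V / 10 := by nlinarith
    linarith
  have hμX : 0 ≤ μ * X := mul_nonneg hμ0 hX0
  have μP : μ * P ≤ 7 * (μ * X) := by
    have := mul_le_mul_of_nonneg_left hPX hμ0; linarith
  have μV : μ * V ≤ 14 * (μ * X) := by
    have := mul_le_mul_of_nonneg_left hVX hμ0; linarith
  have hm : ∀ (s t : Fin 3) , |D s * (gv G p t / 2)| ≤ 26 * (μ * X) := by
    intro s t
    have h4 : |gv G p t / 2| ≤ 26 * μ := by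
      rw [abs_div, abs_of_pos (by norm_num : (0 : ℝ) < 2)]; linarith [gp t]
    refine (mul_abs_le (DX s) h4).trans (le_of_eq ?_); ring
  have hm' : ∀ (s t : Fin 3) , |D s * (gv G v t / 2)| ≤ 26 * (μ * X) := by
    intro s t
    have h4 : |gv G v t / 2| ≤ 26 * μ := by
      rw [abs_div, abs_of_pos (by norm_num : (0 : ℝ) < 2)]; linarith [gw t]
    refine (mul_abs_le (DX s) h4).trans (le_of_eq ?_); ring
  -- components
  have k1 : |dp 1 - n0 * D 2| ≤ 416 * (μ * X) := by
    have h : dp 1 - n0 * D 2 = D 2 * (gv G p 0 / 2) - D 0 * (gv G p 2 / 2) +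
        crs om' (fun j => gv G dp j / 2) 1 := by
      rw [e1 1]
      have : crs D (fun j => (![n0, 0, 0] : V3) j + gv G p j / 2) 1 =
          D 2 * (n0 + gv G p 0 / 2) - D 0 * (0 + gv G p 2 / 2) := rfl
      rw [this]; ring
    rw [h]
    refine (abs_add_le _ _).trans ?_
    have t1 := (abs_sub (D 2 * (gv G p 0 / 2)) (D 0 * (gv G p 2 / 2)))
    have t2 := hm 2 0
    have t3 := hm 0 2
    have t4 := cp 1
    linarith
  have k2 : |dp 2 + n0 * D 1| ≤ 416 * (μ * X) := by
    have h : dp 2 + n0 * D 1 = D 0 * (gv G p 1 / 2) - D 1 * (gv G p 0 / 2) +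
        crs om' (fun j => gv G dp j / 2) 2 := by
      rw [e1 2]
      have : crs D (fun j => (![n0, 0, 0] : V3) j + gv G p j / 2) 2 =
          D 0 * (0 + gv G p 1 / 2) - D 1 * (n0 + gv G p 0 / 2) := rfl
      rw [this]; ring
    rw [h]
    refine (abs_add_le _ _).trans ?_
    have t1 := (abs_sub (D 0 * (gv G p 1 / 2)) (D 1 * (gv G p 0 / 2)))
    have t2 := hm 0 1
    have t3 := hm 1 0
    have t4 := cp 2
    linarith
  have k3 : |dv 1 - (D 2 * γ 0 - D 0 * γ 2)| ≤ 780 * (μ * X) := by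
    have h : dv 1 - (D 2 * γ 0 - D 0 * γ 2) = D 2 * (gv G v 0 / 2) - D 0 * (gv G v 2 / 2) +
        crs om' (fun j => gv G dv j / 2) 1 := by
      rw [e2 1]
      have : crs D (fun j => γ j + gv G v j / 2) 1 =
          D 2 * (γ 0 + gv G v 0 / 2) - D 0 * (γ 2 + gv G v 2 / 2) := rfl
      rw [this]; ring
    rw [h]
    refine (abs_add_le _ _).trans ?_
    have t1 := (abs_sub (D 2 * (gv G v 0 / 2)) (D 0 * (gv G v 2 / 2)))
    have t2 := hm' 2 0
    have t3 := hm' 0 2
    have t4 := cv 1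
    linarith
  have k4 : |dv 2 - (D 0 * γ 1 - D 1 * γ 0)| ≤ 780 * (μ * X) := by
    have h : dv 2 - (D 0 * γ 1 - D 1 * γ 0) = D 0 * (gv G v 1 / 2) - D 1 * (gv G v 0 / 2) +
        crs om' (fun j => gv G dv j / 2) 2 := by
      rw [e2 2]
      have : crs D (fun j => γ j + gv G v j / 2) 2 =
          D 0 * (γ 1 + gv G v 1 / 2) - D 1 * (γ 0 + gv G v 0 / 2) := rfl
      rw [this]; ring
    rw [h]
    refine (abs_add_le _ _).trans ?_
    have t1 := (abs_sub (D 0 * (gv G v 1 / 2)) (D 1 * (gv G v 0 / 2)))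
    have t2 := hm' 0 1
    have t3 := hm' 1 0
    have t4 := cv 2
    linarith
  have hlo := B.lo
  have a2 : |D 2| ≤ 2 * |dp 1| + 832 * (μ * X) := by
    have h1 : n0 * |D 2| ≤ |dp 1| + 416 * (μ * X) := by
      have : |n0 * D 2| = n0 * |D 2| := by rw [abs_mul, abs_of_pos (by linarith)]
      rw [← this]
      have h2 := abs_sub_abs_le_abs_sub (n0 * D 2) (dp 1)
      have h3 : |n0 * D 2 - dp 1| = |dp 1 - n0 * D 2| := abs_sub_comm _ _
      rw [h3] at h2
      linarith
    have h2 : 1 / 2 * |D 2| ≤ n0 * |D 2| := mul_le_mul_of_nonneg_right hlo (abs_nonneg _)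
    linarith
  have a1 : |D 1| ≤ 2 * |dp 2| + 832 * (μ * X) := by
    have h1 : n0 * |D 1| ≤ |dp 2| + 416 * (μ * X) := by
      have : |n0 * D 1| = n0 * |D 1| := by rw [abs_mul, abs_of_pos (by linarith)]
      rw [← this]
      have h2 := abs_sub_abs_le_abs_sub (n0 * D 1) (-dp 2)
      have h3 : n0 * D 1 - -dp 2 = dp 2 + n0 * D 1 := by ring
      rw [h3, abs_neg] at h2
      linarith
    have h2 : 1 / 2 * |D 1| ≤ n0 * |D 1| := mul_le_mul_of_nonneg_right hlo (abs_nonneg _)
    linarith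
  have a0 : g * |D 0| ≤ |Sc γ v - Sc γ v'| + 50 * (|dp 1| + |dp 2|) + 60000 * (μ * X) := by
    have h : D 0 * (γ 1 ^ 2 + γ 2 ^ 2) = (Sc γ v - Sc γ v') + γ 0 * (γ 2 * D 2) +
        γ 0 * (γ 1 * D 1) + γ 2 * (dv 1 - (D 2 * γ 0 - D 0 * γ 2)) -
        γ 1 * (dv 2 - (D 0 * γ 1 - D 1 * γ 0)) := by
      simp only [Sc, hdv]; ring
    have h1 : |D 0 * (γ 1 ^ 2 + γ 2 ^ 2)| = |D 0| * (γ 1 ^ 2 + γ 2 ^ 2) := by
      rw [abs_mul, abs_of_nonneg (by positivity : 0 ≤ γ 1 ^ 2 + γ 2 ^ 2)]
    have h2 : g * |D 0| ≤ |D 0| * (γ 1 ^ 2 + γ 2 ^ 2) := by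
      rw [mul_comm]; exact mul_le_mul_of_nonneg_left B.turn (abs_nonneg _)
    rw [← h1, h] at h2
    have t1 := mul_abs_le (B.γ_le 0) (mul_abs_le (B.γ_le 2) a2)
    have t2 := mul_abs_le (B.γ_le 0) (mul_abs_le (B.γ_le 1) a1)
    have t3 := mul_abs_le (B.γ_le 2) k3
    have t4 := mul_abs_le (B.γ_le 1) k4
    have t5 : |(Sc γ v - Sc γ v') + γ 0 * (γ 2 * D 2) +
        γ 0 * (γ 1 * D 1) + γ 2 * (dv 1 - (D 2 * γ 0 - D 0 * γ 2)) -
        γ 1 * (dv 2 - (D 0 * γ 1 - D 1 * γ 0))| ≤ |Sc γ v - Sc γ v'| + |γ 0 * (γ 2 * D 2)| +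
        |γ 0 * (γ 1 * D 1)| + |γ 2 * (dv 1 - (D 2 * γ 0 - D 0 * γ 2))| +
        |γ 1 * (dv 2 - (D 0 * γ 1 - D 1 * γ 0))| := by
      refine (abs_sub _ _).trans (add_le_add ?_ le_rfl)
      refine (abs_add_le _ _).trans (add_le_add ?_ le_rfl)
      refine (abs_add_le _ _).trans (add_le_add ?_ le_rfl)
      exact abs_add_le _ _
    linarith
  -- conclusion
  set R : ℝ := |Sc γ v - Sc γ v'| + 50 * (|dp 1| + |dp 2|) with hR
  have hR0 : 0 ≤ R := by positivity
  have hRp1 : 50 * |dp 1| ≤ R := by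
    have := abs_nonneg (dp 2); have := abs_nonneg (Sc γ v - Sc γ v'); linarith
  have hRp2 : 50 * |dp 2| ≤ R := by
    have := abs_nonneg (dp 1); have := abs_nonneg (Sc γ v - Sc γ v'); linarith
  have hμg : 10 ^ 9 * μ ≤ g := hμ.trans hgg
  have main : g * X ≤ 2 * R := by
    have h5 : 10 ^ 9 * (μ * X) ≤ g * X := by
      have := mul_le_mul_of_nonneg_right hμg hX0
      linarith
    have c0 : g * |D 0| ≤ R + g * X / 2 := by linarith
    have c1 : g * |D 1| ≤ R + g * X / 2 := by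
      have h1 : g * |D 1| ≤ g * (2 * |dp 2| + 832 * (μ * X)) := mul_le_mul_of_nonneg_left a1 hg.le
      have h2 : g * |dp 2| ≤ |dp 2| := mul_le_of_le_one_left (abs_nonneg _) hg1
      have h3 : g * (μ * X) ≤ μ * X := mul_le_of_le_one_left hμX hg1
      have h4 : g * (2 * |dp 2| + 832 * (μ * X)) = 2 * (g * |dp 2|) + 832 * (g * (μ * X)) := by ring
      rw [h4] at h1
      linarith
    have c2 : g * |D 2| ≤ R + g * X / 2 := by
      have h1 : g * |D 2| ≤ g * (2 * |dp 1| + 832 * (μ * X)) := mul_le_mul_of_nonneg_left a2 hg.le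
      have h2 : g * |dp 1| ≤ |dp 1| := mul_le_of_le_one_left (abs_nonneg _) hg1
      have h3 : g * (μ * X) ≤ μ * X := mul_le_of_le_one_left hμX hg1
      have h4 : g * (2 * |dp 1| + 832 * (μ * X)) = 2 * (g * |dp 1|) + 832 * (g * (μ * X)) := by ring
      rw [h4] at h1
      linarith
    have : g * X ≤ R + g * X / 2 := by
      rcases le_total |D 0| |D 1| with h | h
      · rcases le_total |D 1| |D 2| with h' | h'
        · have : X = |D 2| := by rw [hX, max_eq_right h, max_eq_right h']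
          rw [this] at c2 ⊢; exact c2
        · have : X = |D 1| := by rw [hX, max_eq_right h, max_eq_left h']
          rw [this] at c1 ⊢; exact c1
      · rcases le_total |D 0| |D 2| with h' | h'
        · have : X = |D 2| := by rw [hX, max_eq_left h, max_eq_right h']
          rw [this] at c2 ⊢; exact c2
        · have : X = |D 0| := by rw [hX, max_eq_left h, max_eq_left h']
          rw [this] at c0 ⊢; exact c0
    linarith
  have hk : |om k - om' k| ≤ X := DX k
  refine hk.trans ?_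
  rw [div_mul_eq_mul_div, le_div_iff₀ hg]
  linarith

end

/-! ### counting on the line -/

/-- a separated set of diameter `ℓ` -/
theorem count1 {ι : Type*} (B : Finset ι) (S : ι → ℝ) {s ℓ : ℝ} (hs : 0 < s) (hℓ : 0 ≤ ℓ)
    (hsep : ∀ x ∈ B, ∀ y ∈ B, x ≠ y → s ≤ |S x - S y|)
    (hd : ∀ x ∈ B, ∀ y ∈ B, |S x - S y| ≤ ℓ) : (B.card : ℝ) ≤ ℓ / s + 1 := by
  classical
  rcases B.eq_empty_or_nonempty with rfl | hne
  · simp only [card_empty, Nat.cast_zero]; positivity
  obtain ⟨x0, hx0, hmin⟩ := B.exists_min_image S hne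
  set f : ι → ℕ := fun x => ⌊(S x - S x0) / s⌋₊ with hf
  have hinj : Set.InjOn f B := by
    intro x hx y hy hxy
    by_contra hne'
    have h1 := hsep x hx y hy hne'
    have hx' : 0 ≤ (S x - S x0) / s := div_nonneg (by linarith [hmin x hx]) hs.le
    have hy' : 0 ≤ (S y - S x0) / s := div_nonneg (by linarith [hmin y hy]) hs.le
    have h2 := Nat.floor_le hx'
    have h3 := Nat.lt_floor_add_one ((S x - S x0) / s)
    have h4 := Nat.floor_le hy'
    have h5 := Nat.lt_floor_add_one ((S y - S x0) / s)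
    have h6 : (⌊(S x - S x0) / s⌋₊ : ℝ) = (⌊(S y - S x0) / s⌋₊ : ℝ) := by exact_mod_cast hxy
    have h7 : |(S x - S x0) / s - (S y - S x0) / s| < 1 := by
      rw [abs_lt]; constructor <;> linarith
    have h8 : (S x - S x0) / s - (S y - S x0) / s = (S x - S y) / s := by ring
    rw [h8, abs_div, abs_of_pos hs, div_lt_one hs] at h7
    linarith
  have hmaps : ∀ x ∈ B, f x ∈ Finset.range (⌊ℓ / s⌋₊ + 1) := by
    intro x hx
    rw [Finset.mem_range, Nat.lt_add_one_iff]
    apply Nat.floor_le_floor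
    apply div_le_div_of_nonneg_right _ hs.le
    exact (le_abs_self _).trans (hd x hx x0 hx0)
  have h1 := Finset.card_le_card_of_injOn f hmaps hinj
  rw [Finset.card_range] at h1
  have h2 : (B.card : ℝ) ≤ (⌊ℓ / s⌋₊ : ℝ) + 1 := by exact_mod_cast h1
  refine h2.trans ?_
  have := Nat.floor_le (div_nonneg hℓ hs.le)
  linarith

/-- a separated set, three points of which always contain two at distance `≤ ℓ` -/
theorem count2 {ι : Type*} (B : Finset ι) (S : ι → ℝ) {s ℓ : ℝ} (hs : 0 < s) (hℓ : 0 ≤ ℓ)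
    (hsep : ∀ x ∈ B, ∀ y ∈ B, x ≠ y → s ≤ |S x - S y|)
    (hd : ∀ x ∈ B, ∀ y ∈ B, ∀ z ∈ B, |S x - S y| ≤ ℓ ∨ |S x - S z| ≤ ℓ ∨ |S y - S z| ≤ ℓ) :
    (B.card : ℝ) ≤ 2 * (ℓ / s + 1) := by
  classical
  rcases B.eq_empty_or_nonempty with rfl | hne
  · simp only [card_empty, Nat.cast_zero]; positivity
  obtain ⟨x0, hx0, hmin⟩ := B.exists_min_image S hne
  set B1 := B.filter fun x => S x - S x0 ≤ ℓ with hB1
  set B2 := B.filter fun x => ¬ (S x - S x0 ≤ ℓ) with hB2
  have hsplit : B1.card + B2.card = B.card := Finset.card_filter_add_card_filter_not _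
  have c1 : (B1.card : ℝ) ≤ ℓ / s + 1 := by
    refine count1 B1 S hs hℓ (fun x hx y hy => hsep x (mem_filter.1 hx).1 y (mem_filter.1 hy).1) ?_
    intro x hx y hy
    have hx1 := (mem_filter.1 hx).2
    have hy1 := (mem_filter.1 hy).2
    have hx2 := hmin x (mem_filter.1 hx).1
    have hy2 := hmin y (mem_filter.1 hy).1
    rw [abs_le]; constructor <;> linarith
  have c2 : (B2.card : ℝ) ≤ ℓ / s + 1 := by
    rcases B2.eq_empty_or_nonempty with h | hne2
    · rw [h]; simp only [card_empty, Nat.cast_zero]; positivity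
    obtain ⟨y0, hy0, hmin2⟩ := B2.exists_min_image S hne2
    refine count1 B2 S hs hℓ (fun x hx y hy => hsep x (mem_filter.1 hx).1 y (mem_filter.1 hy).1) ?_
    have key : ∀ x ∈ B2, S x - S y0 ≤ ℓ := by
      intro x hx
      have hx1 := (mem_filter.1 hx)
      have hy1 := (mem_filter.1 hy0)
      have h0 := hmin2 x hx
      rcases hd x0 hx0 y0 hy1.1 x hx1.1 with h | h | h
      · exfalso
        rw [abs_le] at h
        exact hy1.2 (by linarith [h.1])
      · exfalso
        rw [abs_le] at h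
        exact hx1.2 (by linarith [h.1])
      · rw [abs_le] at h; linarith [h.1]
    intro x hx y hy
    have hx1 := key x hx
    have hy1 := key y hy
    have hx2 := hmin2 x hx
    have hy2 := hmin2 y hy
    rw [abs_le]; constructor <;> linarith
  have h3 : (B.card : ℝ) = (B1.card : ℝ) + (B2.card : ℝ) := by exact_mod_cast hsplit.symm
  rw [h3]; linarith

end Crest.Agent.R136.Shr639
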