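import Crest.Agent.R136.Shl_410
import Crest.Agent.R136.Shv1_410

/-!
# R136 (S0187), PLAN 2, leaf (B4) share: bound of the strip coordinates (helper410)
-/

set_option autoImplicit false
set_option linter.unusedVariables false

open Finset

namespace Crest.Agent.R136.Shv410

open Crest.Agent.R136.Sh605 Crest.Agent.R136.Fl808
open Crest.Agent.R136.K4 (Plk4)
open Crest.Agent.R136.Tlt51 (Shp InP)
open Crest.Agent.R136.Pl2
open Crest.Agent.R136.Pl2W102 (Near Ex2 Two1)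
open Crest.Agent.R136.Shd410
open Crest.Agent.R136.Plk511 (stp stc)

variable {K : ℝ} {qm qp : Fin 3 → ℝ} {L : ℕ → Ln4} {Z : Finset ℕ} {S S' : Plk4}
  {f g : Fin 3 → V3} {W M a Y w1 w2 z0 ρ r : ℝ} {j k' : ℕ}

/-- both strip coordinates at one height -/
theorem strip_at (h : ShD K qm qp L Z S S' f g W M a Y w1 w2 z0 ρ r j k') {t0 s : ℕ}
    (ht : t0 ∈ Z) (hs : s ∈ Z) {z : ℝ} (hz : z0 ≤ z) (hz' : z ≤ z0 + ρ) :
    |2 ^ j * dt (S.e 1) ((L s).pos z - (L t0).pos z) / w1| ≤ 10 * W ^ 7 ∧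
      |dt (S.e 2) ((L s).pos z - (L t0).pos z) / w2| ≤ 10 * W ^ 7 := by
  have W2 := h.W2
  have W1 : 1 ≤ W := by linarith
  have W0 : 0 < W := by linarith
  have hY : 0 < Y := h.a0.trans_le h.aY
  have hw2 : 0 < w2 := hY.trans_le h.Yw
  have hw1 : 0 < w1 := hw2.trans_le h.ww
  have hS := h.shS
  have p0 : 0 < S.w 0 := (h.r0.trans_le hS.r0_le).trans_le hS.a_le0
  have p2 : 0 < S.w 2 := p0.trans_le hS.w0_le
  have p1 : 0 < S.w 1 := p2.trans_le hS.w_le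
  have hjp : (0:ℝ) < 2 ^ j := by positivity
  constructor
  · have h1 := strip_e h.dy h.hF h.hG hY h.Yw h.ww W1 p1 p2 h.d1.1 h.d1.2 h.d2.2 h.d2'.2
      hS.ortho (h.inS t0 ht) (h.inS s hs) (h.inS' t0 ht) (h.inS' s hs) hz hz'
    rw [abs_div, abs_of_pos hw1, div_le_iff₀ hw1, abs_mul, abs_of_pos hjp]
    calc _ ≤ 10 * W ^ 6 * S.w 1 := h1
      _ ≤ 10 * W ^ 6 * (W * w1) := mul_le_mul_of_nonneg_left h.d1.2 (by positivity)
      _ = 10 * W ^ 7 * w1 := by ring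
  · have a1 := ((h.inS s hs) z hz hz').1 2
    have a2 := ((h.inS t0 ht) z hz hz').1 2
    have e1 : dt (S.e 2) ((L s).pos z - (L t0).pos z) =
        dt (S.e 2) ((L s).pos z - S.c.pos z) - dt (S.e 2) ((L t0).pos z - S.c.pos z) := by
      simp only [dt, Pi.sub_apply]; ring
    rw [abs_div, abs_of_pos hw2, div_le_iff₀ hw2, e1]
    refine (abs_sub _ _).trans ((add_le_add a1 a2).trans ?_)
    have h7 : W ≤ W ^ 7 := le_self_pow₀ W1 (by norm_num)
    have h8 : W * w2 ≤ W ^ 7 * w2 := mul_le_mul_of_nonneg_right h7 hw2.le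
    have h9 := h.d2.2
    have h10 : 0 ≤ W ^ 7 * w2 := by positivity
    linarith

/-- **bounds of the strip coordinates** -/
theorem rp_rc (h : ShD K qm qp L Z S S' f g W M a Y w1 w2 z0 ρ r j k') {t0 s : ℕ}
    (ht : t0 ∈ Z) (hs : s ∈ Z) :
    (∀ k, |stp S.e (2 ^ j) w1 w2 z0 (L t0) L s k| ≤ 20 * W ^ 7) ∧
      ∀ k, |stc S.e (2 ^ j) w1 w2 ρ (L t0) L s k| ≤ 20 * W ^ 7 := by
  have ρ0 := h.ρ0
  obtain ⟨a1, a2⟩ := strip_at h ht hs le_rfl (by linarith : z0 ≤ z0 + ρ)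
  obtain ⟨b1, b2⟩ := strip_at h ht hs (by linarith : z0 ≤ z0 + ρ) le_rfl
  have W1 : 1 ≤ W := by linarith [h.W2]
  have h7 : 0 ≤ W ^ 7 := by positivity
  have key : ∀ u : V3, dt u (ρ • ((L s).v - (L t0).v)) =
      dt u ((L s).pos (z0 + ρ) - (L t0).pos (z0 + ρ)) - dt u ((L s).pos z0 - (L t0).pos z0) := by
    intro u
    simp only [dt, Ln4.pos, Pi.sub_apply, Pi.smul_apply, smul_eq_mul]
    ring
  constructor
  · intro k
    fin_cases k
    · change |2 ^ j * dt (S.e 1) ((L s).pos z0 - (L t0).pos z0) / w1| ≤ _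
      linarith
    · change |dt (S.e 2) ((L s).pos z0 - (L t0).pos z0) / w2| ≤ _
      linarith
  · intro k
    fin_cases k
    · change |2 ^ j * dt (S.e 1) (ρ • ((L s).v - (L t0).v)) / w1| ≤ _
      rw [key, mul_sub, sub_div]
      exact (abs_sub _ _).trans (by linarith)
    · change |dt (S.e 2) (ρ • ((L s).v - (L t0).v)) / w2| ≤ _
      rw [key, sub_div]
      exact (abs_sub _ _).trans (by linarith)

/-- `20 W ^ 7 ≤ W ^ 12` -/
theorem twenty_le (hW : 2 ≤ W) : 20 * W ^ 7 ≤ W ^ (12:ℝ) := by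
  have e : W ^ (12:ℝ) = W ^ 5 * W ^ 7 := by
    rw [← pow_add]; exact_mod_cast Real.rpow_natCast W 12
  rw [e]
  have h5 : (2:ℝ) ^ 5 ≤ W ^ 5 := pow_le_pow_left₀ (by norm_num) hW 5
  have h6 : (20:ℝ) ≤ W ^ 5 := by linarith
  exact mul_le_mul_of_nonneg_right h6 (by positivity)

end Crest.Agent.R136.Shv410
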