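import Crest.Agent.R136.Shr1_639

/-!
# R136 (S0187), U4 / POP, leaf P3 `share` (helper639): the fibre equation and the count

`share_core` : the number of members of an `h`-separated family of midpoint maps which send a line
`L` into a box with lateral shadow `u1 × u2` is at most `10^15 g^-4 u1 u2 min (u1, √u2) / h^3`;
`share_type` : the form `u1 u2 (u2 / |t|)`, `t` = component of the arc direction across the box.
-/

set_option autoImplicit false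
set_option linter.unusedVariables false

namespace Crest.Agent.R136.Shr639

open Finset
open Crest.Agent.R136.Sh605 Crest.Agent.R136.Tl102 Crest.Agent.R136.Lgt989

/-- direction of the lines of a fibre -/
noncomputable def tau (n0 : ℝ) (G : QF) (p : V3) (n1 n2 : ℝ) : V3 :=
  ![(gv G p 1 * n2 - gv G p 2 * n1) / (n0 + gv G p 0), -n2, n1]

/-- linear coefficient -/
noncomputable def kp (n0 : ℝ) (γ : V3) (G : QF) (p v : V3) (n1 n2 : ℝ) : ℝ :=
  dt (fun i => γ i + gv G v i) (tau n0 G p n1 n2)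

section

variable {n0 : ℝ} {γ : V3} {G : QF} {g μ : ℝ} {om p v om' p' v' : V3} {n1 n2 : ℝ}

theorem n_le (hn : n1 ^ 2 + n2 ^ 2 = 1) : |n1| ≤ 1 ∧ |n2| ≤ 1 := by
  constructor <;> rw [abs_le] <;> constructor <;> nlinarith [sq_nonneg n1, sq_nonneg n2]

theorem tau0 (B : Bs n0 γ G g) (hμ0 : 0 ≤ μ) (hμ1 : 10 ^ 9 * μ ≤ 1) (hp : ∀ k, |p k| ≤ μ)
    (hn : n1 ^ 2 + n2 ^ 2 = 1) :
    1 / 4 ≤ n0 + gv G p 0 ∧ |tau n0 G p n1 n2 0| ≤ 416 * μ ∧ ∀ k, |tau n0 G p n1 n2 k| ≤ 1 := by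
  have gp : ∀ i, |gv G p i| ≤ 52 * μ := gv_le B.G_le hp
  obtain ⟨h1, h2⟩ := n_le hn
  have g0 := gp 0
  rw [abs_le] at g0
  have hpos : 1 / 4 ≤ n0 + gv G p 0 := by linarith [B.lo, g0.1]
  have t0 : |tau n0 G p n1 n2 0| ≤ 416 * μ := by
    change |(gv G p 1 * n2 - gv G p 2 * n1) / (n0 + gv G p 0)| ≤ 416 * μ
    rw [abs_div, abs_of_pos (by linarith : 0 < n0 + gv G p 0), div_le_iff₀ (by linarith)]
    have m1 := mul_abs_le (gp 1) h2
    have m2 := mul_abs_le (gp 2) h1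
    have m3 := abs_sub (gv G p 1 * n2) (gv G p 2 * n1)
    have m4 : 416 * μ * (1 / 4) ≤ 416 * μ * (n0 + gv G p 0) :=
      mul_le_mul_of_nonneg_left hpos (by linarith)
    linarith
  refine ⟨hpos, t0, ?_⟩
  intro k
  fin_cases k
  · exact t0.trans (by linarith)
  · change |-n2| ≤ 1
    rw [abs_neg]; exact h2
  · exact h1

/-- the positions of a fibre are close in all three coordinates -/
theorem dp0 (B : Bs n0 γ G g) (hμ0 : 0 ≤ μ) (hμ1 : 10 ^ 9 * μ ≤ 1) (M : Md n0 γ G μ om p v)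
    (M' : Md n0 γ G μ om' p' v') {η : ℝ} (hη : 0 ≤ η) (h1 : |p' 1 - p 1| ≤ η)
    (h2 : |p' 2 - p 2| ≤ η) : ∀ k, |p' k - p k| ≤ η := by
  set D : V3 := fun i => p' i - p i with hD
  set m : ℝ := max |D 0| η with hm
  have Dm : ∀ k, |D k| ≤ m := by
    intro k; fin_cases k
    · exact le_max_left _ _
    · exact h1.trans (le_max_right _ _)
    · exact h2.trans (le_max_right _ _)
  have D2 : ∀ k, |D k| ≤ 2 * μ := by
    intro k
    refine (abs_sub _ _).trans ?_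
    linarith [M.p_le k, M'.p_le k]
  have e : n0 * D 0 = -(G.pol p D + G.ev D) := by
    have h := M.e0
    have h' := M'.e0
    have : G.ev p' = G.ev p + G.pol p D + G.ev D := by
      simp only [QF.ev, QF.pol, hD]; ring
    have h3 : n0 * D 0 = n0 * p' 0 - n0 * p 0 := by simp only [hD]; ring
    rw [h3]; linarith
  have b1 := Lgt989.pol_le B.G_le M.p_le Dm
  have b2 := Lgt989.ev_le B.G_le D2 Dm
  have h3 : |n0 * D 0| ≤ 312 * (μ * m) := by
    rw [e, abs_neg]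
    refine (abs_add_le _ _).trans ?_
    linarith
  rw [abs_mul, abs_of_pos (by linarith [B.lo] : 0 < n0)] at h3
  have hD0 : |D 0| ≤ η := by
    by_contra hc
    push Not at hc
    have hm' : m = |D 0| := max_eq_left hc.le
    rw [hm'] at h3
    have hpos : 0 < |D 0| := by linarith
    have h4 : 1 / 2 * |D 0| ≤ n0 * |D 0| := mul_le_mul_of_nonneg_right B.lo hpos.le
    have h5 : 10 ^ 9 * μ * |D 0| ≤ 1 * |D 0| := mul_le_mul_of_nonneg_right hμ1 hpos.le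
    nlinarith
  intro k
  fin_cases k
  · exact hD0
  · exact h1
  · exact h2

/-- lateral coordinates of the velocity difference, across the box -/
def xi (v v' : V3) (n1 n2 : ℝ) : ℝ := n1 * (v' 1 - v 1) + n2 * (v' 2 - v 2)

/-- lateral coordinates of the velocity difference, along the box -/
def sg (v v' : V3) (n1 n2 : ℝ) : ℝ := -(n2 * (v' 1 - v 1)) + n1 * (v' 2 - v 2)

set_option maxHeartbeats 1000000 in
/-- **the fibre equation** -/
theorem fib (B : Bs n0 γ G g) (hμ0 : 0 ≤ μ) (hμ1 : 10 ^ 9 * μ ≤ 1) (M : Md n0 γ G μ om p v)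
    (M' : Md n0 γ G μ om' p' v') {η : ℝ} (hη : 0 ≤ η) (h1 : |p' 1 - p 1| ≤ η)
    (h2 : |p' 2 - p 2| ≤ η) (hn : n1 ^ 2 + n2 ^ 2 = 1) :
    |sg v v' n1 n2 * (kp n0 γ G p v n1 n2 + sg v v' n1 n2 * G.ev (tau n0 G p n1 n2))| ≤
      20 * (|xi v v' n1 n2| + 64 * η) := by
  obtain ⟨hpos, t0, tk⟩ := tau0 B hμ0 hμ1 M.p_le hn
  obtain ⟨q1, q2⟩ := n_le hn
  have hdp := dp0 B hμ0 hμ1 M M' hη h1 h2
  have gp : ∀ i, |gv G p i| ≤ 52 * μ := gv_le B.G_le M.p_le
  have gw : ∀ i, |gv G v i| ≤ 52 * μ := gv_le B.G_le M.v_le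
  set σ : ℝ := sg v v' n1 n2 with hσ
  set ξ : ℝ := xi v v' n1 n2 with hξ
  set τ : V3 := tau n0 G p n1 n2 with hτ
  set E : ℝ := |ξ| + 64 * η with hE
  have hE0 : 0 ≤ E := by positivity
  set dv : V3 := fun i => v' i - v i with hdv
  have dv2 : ∀ k, |dv k| ≤ 2 * μ := by
    intro k
    refine (abs_sub _ _).trans ?_
    linarith [M.v_le k, M'.v_le k]
  have σ4 : |σ| ≤ 4 * μ := by
    have m1 := mul_abs_le q2 (dv2 1)
    have m2 := mul_abs_le q1 (dv2 2)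
    have e : σ = -(n2 * dv 1) + n1 * dv 2 := rfl
    rw [e]
    refine (abs_add_le _ _).trans ?_
    rw [abs_neg]; linarith
  have v1 : dv 1 = n1 * ξ - n2 * σ := by
    have e : n1 * ξ - n2 * σ = (n1 ^ 2 + n2 ^ 2) * dv 1 := by
      simp only [hξ, hσ, xi, sg, hdv]; ring
    rw [e, hn, one_mul]
  have v2 : dv 2 = n2 * ξ + n1 * σ := by
    have e : n2 * ξ + n1 * σ = (n1 ^ 2 + n2 ^ 2) * dv 2 := by
      simp only [hξ, hσ, xi, sg, hdv]; ring
    rw [e, hn, one_mul]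
  set ε : V3 := ![dv 0 - σ * τ 0, n1 * ξ, n2 * ξ] with hε
  have hdvε : ∀ k, dv k = σ * τ k + ε k := by
    intro k; fin_cases k
    · change dv 0 = σ * τ 0 + (dv 0 - σ * τ 0); ring
    · change dv 1 = σ * (-n2) + n1 * ξ; rw [v1]; ring
    · change dv 2 = σ * n1 + n2 * ξ; rw [v2]; ring
  -- the middle equation
  have e1 := M.e1
  have e1' := M'.e1
  set dp : V3 := fun i => p' i - p i with hdpd
  have hA : (n0 + gv G p 0) * dv 0 + gv G p 1 * dv 1 + gv G p 2 * dv 2 =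
      -(dt γ dp + G.pol dp v') := by
    have h3 : G.pol p' v' = G.pol p v + dt (gv G p) dv + G.pol dp v' := by
      simp only [QF.pol, dt, gv, Matrix.cons_val, hdpd, hdv]; ring
    have h4 : dt γ p' = dt γ p + dt γ dp := by simp only [dt, hdpd]; ring
    rw [h3, h4] at e1'
    have h5 : dt (gv G p) dv = gv G p 0 * dv 0 + gv G p 1 * dv 1 + gv G p 2 * dv 2 := rfl
    rw [h5] at e1'
    have h6 : n0 * dv 0 = n0 * v' 0 - n0 * v 0 := by simp only [hdv]; ring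
    linarith
  have hτ0 : τ 0 * (n0 + gv G p 0) = gv G p 1 * n2 - gv G p 2 * n1 := by
    change (gv G p 1 * n2 - gv G p 2 * n1) / (n0 + gv G p 0) * (n0 + gv G p 0) = _
    field_simp
  have hε0 : (n0 + gv G p 0) * ε 0 =
      -((gv G p 1 * n1 + gv G p 2 * n2) * ξ) - (dt γ dp + G.pol dp v') := by
    change (n0 + gv G p 0) * (dv 0 - σ * τ 0) = _
    have h3 : (n0 + gv G p 0) * (dv 0 - σ * τ 0) =
        (n0 + gv G p 0) * dv 0 - σ * (τ 0 * (n0 + gv G p 0)) := by ring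
    rw [h3, hτ0]
    have h4 : (n0 + gv G p 0) * dv 0 = -(dt γ dp + G.pol dp v') - gv G p 1 * dv 1 - gv G p 2 * dv 2 := by
      linarith
    rw [h4, v1, v2]; ring
  have ε0 : |ε 0| ≤ E := by
    have m1 : |dt γ dp| ≤ 3 * (5 * η) := dt_le3 B.γ_le hdp
    have m2 : |G.pol dp v'| ≤ 156 * (η * μ) := Lgt989.pol_le B.G_le hdp M'.v_le
    have m3 : |(gv G p 1 * n1 + gv G p 2 * n2) * ξ| ≤ 104 * μ * |ξ| := by
      rw [abs_mul]
      refine mul_le_mul_of_nonneg_right ?_ (abs_nonneg _)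
      have a1 := mul_abs_le (gp 1) q1
      have a2 := mul_abs_le (gp 2) q2
      refine (abs_add_le _ _).trans ?_
      linarith
    have m4 : |(n0 + gv G p 0) * ε 0| ≤ 104 * μ * |ξ| + (15 * η + 156 * (η * μ)) := by
      rw [hε0]
      refine (abs_sub _ _).trans (add_le_add ?_ ?_)
      · rw [abs_neg]; exact m3
      · refine (abs_add_le _ _).trans ?_
        linarith
    rw [abs_mul, abs_of_pos (by linarith : 0 < n0 + gv G p 0)] at m4
    have m5 : 1 / 4 * |ε 0| ≤ (n0 + gv G p 0) * |ε 0| :=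
      mul_le_mul_of_nonneg_right hpos (abs_nonneg _)
    have m6 : 10 ^ 9 * μ * |ξ| ≤ 1 * |ξ| := mul_le_mul_of_nonneg_right hμ1 (abs_nonneg _)
    have m7 : 10 ^ 9 * μ * η ≤ 1 * η := mul_le_mul_of_nonneg_right hμ1 hη
    have m8 := abs_nonneg ξ
    rw [hE]
    linarith
  have εk : ∀ k, |ε k| ≤ E := by
    intro k; fin_cases k
    · exact ε0
    · change |n1 * ξ| ≤ E
      rw [abs_mul]
      have := mul_le_of_le_one_left (abs_nonneg ξ) q1
      rw [hE]; linarith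
    · change |n2 * ξ| ≤ E
      rw [abs_mul]
      have := mul_le_of_le_one_left (abs_nonneg ξ) q2
      rw [hE]; linarith
  have στ : ∀ k, |(fun i => σ * τ i) k| ≤ 4 * μ := by
    intro k
    have := mul_abs_le σ4 (tk k)
    simpa using this
  have ε6 : ∀ k, |ε k| ≤ 6 * μ := by
    intro k
    have e : ε k = dv k - σ * τ k := by rw [hdvε k]; ring
    rw [e]
    refine (abs_sub _ _).trans ?_
    have h3 := dv2 k
    have h4 := στ k
    simp only at h4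
    linarith
  -- the velocity equation
  have e2 := M.e2
  have e2' := M'.e2
  set K : V3 := fun i => γ i + gv G v i with hK
  have hB : dt K dv + G.ev dv = 0 := by
    have h3 : G.ev v' = G.ev v + dt (gv G v) dv + G.ev dv := by
      simp only [QF.ev, dt, gv, Matrix.cons_val, hdv]; ring
    have h4 : dt γ v' = dt γ v + dt γ dv := by simp only [dt, hdv]; ring
    have h5 : dt K dv = dt γ dv + dt (gv G v) dv := by simp only [dt, hK]; ring
    rw [h5]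
    rw [h3, h4] at e2'
    linarith
  have hdvf : dv = fun k => σ * τ k + ε k := funext hdvε
  have hC : σ * (dt K τ + σ * G.ev τ) =
      -(dt K ε + G.pol (fun i => σ * τ i) ε + G.ev ε) := by
    rw [hdvf] at hB
    have h3 : dt K (fun k => σ * τ k + ε k) + G.ev (fun k => σ * τ k + ε k) =
        σ * (dt K τ + σ * G.ev τ) + (dt K ε + G.pol (fun i => σ * τ i) ε + G.ev ε) := by
      simp only [dt, QF.ev, QF.pol]; ring
    rw [h3] at hB
    linarith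
  have hk : kp n0 γ G p v n1 n2 = dt K τ := rfl
  rw [hk, hC, abs_neg]
  have K6 : ∀ i, |K i| ≤ 6 := by
    intro i
    refine (abs_add_le _ _).trans ?_
    linarith [B.γ_le i, gw i]
  have m1 : |dt K ε| ≤ 3 * (6 * E) := dt_le3 K6 εk
  have m2 : |G.pol (fun i => σ * τ i) ε| ≤ 156 * (4 * μ * E) := Lgt989.pol_le B.G_le στ εk
  have m3 : |G.ev ε| ≤ 78 * (6 * μ * E) := Lgt989.ev_le B.G_le ε6 εk
  have m4 : 10 ^ 9 * μ * E ≤ 1 * E := mul_le_mul_of_nonneg_right hμ1 hE0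
  refine (abs_add_le _ _).trans ((add_le_add ((abs_add_le _ _).trans (add_le_add m1 m2)) m3).trans ?_)
  nlinarith

/-- the linear coefficient -/
theorem kp_near (B : Bs n0 γ G g) (hμ0 : 0 ≤ μ) (hμ1 : 10 ^ 9 * μ ≤ 1) (M : Md n0 γ G μ om p v)
    (hn : n1 ^ 2 + n2 ^ 2 = 1) :
    |kp n0 γ G p v n1 n2 - (γ 2 * n1 - γ 1 * n2)| ≤ 2300 * μ := by
  obtain ⟨hpos, t0, tk⟩ := tau0 B hμ0 hμ1 M.p_le hn
  have gw : ∀ i, |gv G v i| ≤ 52 * μ := gv_le B.G_le M.v_le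
  have e : kp n0 γ G p v n1 n2 - (γ 2 * n1 - γ 1 * n2) =
      γ 0 * tau n0 G p n1 n2 0 + dt (gv G v) (tau n0 G p n1 n2) := by
    simp only [kp, dt, tau, Matrix.cons_val]; ring
  rw [e]
  have m1 := mul_abs_le (B.γ_le 0) t0
  have m2 : |dt (gv G v) (tau n0 G p n1 n2)| ≤ 3 * (52 * μ * 1) := dt_le3 gw tk
  refine (abs_add_le _ _).trans ?_
  linarith

theorem sg_le (M : Md n0 γ G μ om p v) (M' : Md n0 γ G μ om' p' v')
    (hn : n1 ^ 2 + n2 ^ 2 = 1) : |sg v v' n1 n2| ≤ 4 * μ := by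
  obtain ⟨q1, q2⟩ := n_le hn
  have dv2 : ∀ k, |v' k - v k| ≤ 2 * μ := by
    intro k
    refine (abs_sub _ _).trans ?_
    linarith [M.v_le k, M'.v_le k]
  have m1 := mul_abs_le q2 (dv2 1)
  have m2 := mul_abs_le q1 (dv2 2)
  unfold sg
  refine (abs_add_le _ _).trans ?_
  rw [abs_neg]; linarith

/-- the arc coordinate -/
theorem Sc_sub (hn : n1 ^ 2 + n2 ^ 2 = 1) : Sc γ v' - Sc γ v =
    -((γ 2 * n1 - γ 1 * n2) * xi v v' n1 n2) + (γ 1 * n1 + γ 2 * n2) * sg v v' n1 n2 := by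
  have e : -((γ 2 * n1 - γ 1 * n2) * xi v v' n1 n2) + (γ 1 * n1 + γ 2 * n2) * sg v v' n1 n2 =
      (n1 ^ 2 + n2 ^ 2) * (Sc γ v' - Sc γ v) := by
    simp only [xi, sg, Sc]; ring
  rw [e, hn, one_mul]

theorem lat_le (B : Bs n0 γ G g) (hn : n1 ^ 2 + n2 ^ 2 = 1) :
    |γ 2 * n1 - γ 1 * n2| ≤ 10 ∧ |γ 1 * n1 + γ 2 * n2| ≤ 10 := by
  obtain ⟨q1, q2⟩ := n_le hn
  constructor
  · refine (abs_sub _ _).trans ?_
    have m1 := mul_abs_le (B.γ_le 2) q1
    have m2 := mul_abs_le (B.γ_le 1) q2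
    linarith
  · refine (abs_add_le _ _).trans ?_
    have m1 := mul_abs_le (B.γ_le 1) q1
    have m2 := mul_abs_le (B.γ_le 2) q2
    linarith

/-- trivial bound of the arc coordinate -/
theorem Sc_le (B : Bs n0 γ G g) (hn : n1 ^ 2 + n2 ^ 2 = 1) :
    |Sc γ v' - Sc γ v| ≤ 10 * |xi v v' n1 n2| + 10 * |sg v v' n1 n2| := by
  obtain ⟨l1, l2⟩ := lat_le B hn
  rw [Sc_sub hn]
  refine (abs_add_le _ _).trans (add_le_add ?_ ?_)
  · rw [abs_neg, abs_mul]; exact mul_le_mul_of_nonneg_right l1 (abs_nonneg _)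
  · rw [abs_mul]; exact mul_le_mul_of_nonneg_right l2 (abs_nonneg _)

/-- **transversal fibres** -/
theorem fibA (B : Bs n0 γ G g) (hμ0 : 0 ≤ μ) (hμ1 : 10 ^ 9 * μ ≤ 1) (M : Md n0 γ G μ om p v)
    (M' : Md n0 γ G μ om' p' v') {η : ℝ} (hη : 0 ≤ η) (h1 : |p' 1 - p 1| ≤ η)
    (h2 : |p' 2 - p 2| ≤ η) (hn : n1 ^ 2 + n2 ^ 2 = 1)
    (hA : 6000 * μ ≤ |γ 2 * n1 - γ 1 * n2|) :
    |γ 2 * n1 - γ 1 * n2| * |Sc γ v' - Sc γ v| ≤ 500 * (|xi v v' n1 n2| + 64 * η) := by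
  obtain ⟨hpos, t0, tk⟩ := tau0 B hμ0 hμ1 M.p_le hn
  obtain ⟨l1, l2⟩ := lat_le B hn
  have hf := fib B hμ0 hμ1 M M' hη h1 h2 hn
  have hk := kp_near B hμ0 hμ1 M hn
  have hs := sg_le M M' hn
  set a : ℝ := γ 2 * n1 - γ 1 * n2 with ha
  set σ : ℝ := sg v v' n1 n2 with hσ
  set E : ℝ := |xi v v' n1 n2| + 64 * η with hE
  have hξE : |xi v v' n1 n2| ≤ E := by rw [hE]; linarith
  have e78 : |G.ev (tau n0 G p n1 n2)| ≤ 78 * (1 * 1) := Lgt989.ev_le B.G_le tk tk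
  have m1 := mul_abs_le hs e78
  have m2 : |a| / 2 ≤ |kp n0 γ G p v n1 n2 + σ * G.ev (tau n0 G p n1 n2)| := by
    have h3 := abs_sub_abs_le_abs_sub a (a - (kp n0 γ G p v n1 n2 + σ * G.ev (tau n0 G p n1 n2)))
    have h4 : a - (a - (kp n0 γ G p v n1 n2 + σ * G.ev (tau n0 G p n1 n2))) =
        kp n0 γ G p v n1 n2 + σ * G.ev (tau n0 G p n1 n2) := by ring
    rw [h4] at h3
    have h5 : |a - (kp n0 γ G p v n1 n2 + σ * G.ev (tau n0 G p n1 n2))| ≤ 2300 * μ + 312 * μ := by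
      have h6 : a - (kp n0 γ G p v n1 n2 + σ * G.ev (tau n0 G p n1 n2)) =
        -(kp n0 γ G p v n1 n2 - a) - σ * G.ev (tau n0 G p n1 n2) := by ring
      rw [h6]
      refine (abs_sub _ _).trans (add_le_add ?_ ?_)
      · rw [abs_neg]; exact hk
      · linarith
    linarith
  rw [abs_mul] at hf
  have m3 : |σ| * (|a| / 2) ≤ 20 * E := (mul_le_mul_of_nonneg_left m2 (abs_nonneg _)).trans hf
  have m4 : |Sc γ v' - Sc γ v| ≤ |a| * |xi v v' n1 n2| + 10 * |σ| := by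
    rw [Sc_sub hn]
    refine (abs_add_le _ _).trans (add_le_add ?_ ?_)
    · rw [abs_neg, abs_mul]
    · rw [abs_mul]; exact mul_le_mul_of_nonneg_right l2 (abs_nonneg _)
  have m5 := mul_le_mul_of_nonneg_left m4 (abs_nonneg a)
  have ha0 := abs_nonneg a
  have m6 : |a| * (|a| * |xi v v' n1 n2|) ≤ 10 * (10 * E) := by
    refine mul_le_mul l1 ?_ (by positivity) (by norm_num)
    exact mul_le_mul l1 hξE (abs_nonneg _) (by norm_num)
  nlinarith

set_option maxHeartbeats 1000000 in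
/-- **tangential fibres**: the second order term -/
theorem fibB (B : Bs n0 γ G g) (hμ : 10 ^ 9 * μ ≤ g ^ 2) (M : Md n0 γ G μ om p v)
    (hn : n1 ^ 2 + n2 ^ 2 = 1) (hA : |γ 2 * n1 - γ 1 * n2| ≤ g / 4000) :
    g / 100 ≤ |G.ev (tau n0 G p n1 n2)| := by
  have hμ0 : 0 ≤ μ := (abs_nonneg _).trans (M.om_le 0)
  have hg := B.g0
  have hg1 := B.g1
  have hgg : g ^ 2 ≤ g := by nlinarith
  have hμ1 : 10 ^ 9 * μ ≤ 1 := by nlinarith
  obtain ⟨hpos, t0, tk⟩ := tau0 B hμ0 hμ1 M.p_le hn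
  obtain ⟨l1, l2⟩ := lat_le B hn
  obtain ⟨q1, q2⟩ := n_le hn
  obtain ⟨g1, g2, g3, g4, g5, g6⟩ := B.G_le
  set a : ℝ := γ 2 * n1 - γ 1 * n2 with ha
  set b : ℝ := γ 1 * n1 + γ 2 * n2 with hb
  set Q : ℝ := G.uu * n2 ^ 2 - G.uv * (n1 * n2) + G.vv * n1 ^ 2 with hQ
  have e1 : γ 1 = b * n1 - a * n2 := by
    have : b * n1 - a * n2 = (n1 ^ 2 + n2 ^ 2) * γ 1 := by rw [ha, hb]; ring
    rw [this, hn, one_mul]
  have e2 : γ 2 = b * n2 + a * n1 := by
    have : b * n2 + a * n1 = (n1 ^ 2 + n2 ^ 2) * γ 2 := by rw [ha, hb]; ring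
    rw [this, hn, one_mul]
  have b50 : b ^ 2 ≤ 50 := by
    have h3 : b ^ 2 + a ^ 2 = (n1 ^ 2 + n2 ^ 2) * (γ 1 ^ 2 + γ 2 ^ 2) := by rw [ha, hb]; ring
    rw [hn, one_mul] at h3
    have h4 := abs_le.1 (B.γ_le 1)
    have h5 := abs_le.1 (B.γ_le 2)
    nlinarith [sq_nonneg a]
  have hcon := B.conic
  have e3 : G.uu * γ 2 ^ 2 - G.uv * (γ 1 * γ 2) + G.vv * γ 1 ^ 2 = b ^ 2 * Q +
      a * (b * (2 * G.uu * (n1 * n2) - G.uv * (n1 ^ 2 - n2 ^ 2) - 2 * G.vv * (n1 * n2))) +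
      a * (a * (G.uu * n1 ^ 2 + G.uv * (n1 * n2) + G.vv * n2 ^ 2)) := by
    conv_lhs => rw [e1, e2]
    rw [hQ]; ring
  have nn : |n1 * n2| ≤ 1 * 1 := mul_abs_le q1 q2
  have n11 : |n1 ^ 2| ≤ 1 := by
    rw [abs_of_nonneg (sq_nonneg _)]; nlinarith [sq_nonneg n2]
  have n22 : |n2 ^ 2| ≤ 1 := by
    rw [abs_of_nonneg (sq_nonneg _)]; nlinarith [sq_nonneg n1]
  have n12 : |n1 ^ 2 - n2 ^ 2| ≤ 1 := by
    rw [abs_le]; constructor <;> nlinarith [sq_nonneg n1, sq_nonneg n2]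
  have t2 : |(2 : ℝ)| ≤ 2 := by norm_num
  have m1 : |2 * G.uu * (n1 * n2) - G.uv * (n1 ^ 2 - n2 ^ 2) - 2 * G.vv * (n1 * n2)| ≤ 65 := by
    refine (abs_sub _ _).trans ?_
    have h3 := mul_abs_le (mul_abs_le t2 g4) nn
    have h4 := mul_abs_le g5 n12
    have h5 := mul_abs_le (mul_abs_le t2 g6) nn
    have h6 := abs_sub (2 * G.uu * (n1 * n2)) (G.uv * (n1 ^ 2 - n2 ^ 2))
    linarith
  have m2 : |G.uu * n1 ^ 2 + G.uv * (n1 * n2) + G.vv * n2 ^ 2| ≤ 39 := by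
    refine (abs_add_le _ _).trans ?_
    have h3 := mul_abs_le g4 n11
    have h4 := mul_abs_le g5 nn
    have h5 := mul_abs_le g6 n22
    have h6 := abs_add_le (G.uu * n1 ^ 2) (G.uv * (n1 * n2))
    linarith
  have m3 := mul_abs_le hA (mul_abs_le l2 m1)
  have m4 := mul_abs_le hA (mul_abs_le hA m2)
  have m5 : g * (8 / 10) ≤ b ^ 2 * |Q| := by
    rw [e3] at hcon
    have h3 := abs_add_le (b ^ 2 * Q + a * (b * (2 * G.uu * (n1 * n2) - G.uv * (n1 ^ 2 - n2 ^ 2) -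
      2 * G.vv * (n1 * n2)))) (a * (a * (G.uu * n1 ^ 2 + G.uv * (n1 * n2) + G.vv * n2 ^ 2)))
    have h4 := abs_add_le (b ^ 2 * Q) (a * (b * (2 * G.uu * (n1 * n2) - G.uv * (n1 ^ 2 - n2 ^ 2) -
      2 * G.vv * (n1 * n2))))
    rw [abs_mul (b ^ 2), abs_of_nonneg (sq_nonneg b)] at h4
    have h5 : g / 4000 * (g / 4000 * 39) ≤ g / 100 := by
      have h6 : g / 4000 * (g / 4000 * 39) = 39 / 16000000 * g ^ 2 := by ring
      rw [h6]; linarith
    linarith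
  have m6 : g / 63 ≤ |Q| := by
    have h3 : b ^ 2 * |Q| ≤ 50 * |Q| := mul_le_mul_of_nonneg_right b50 (abs_nonneg _)
    linarith
  set t := tau n0 G p n1 n2 0 with ht
  have e4 : G.ev (tau n0 G p n1 n2) = Q + (G.yy * (t * t) + t * (-(G.yu * n2) + G.yv * n1)) := by
    have : tau n0 G p n1 n2 = ![t, -n2, n1] := by
      funext k; fin_cases k <;> rfl
    rw [this, hQ]
    simp only [QF.ev, Matrix.cons_val]; ring
  have t1 : |t| ≤ 1 := tk 0
  have m7 : |G.yy * (t * t) + t * (-(G.yu * n2) + G.yv * n1)| ≤ 39 * (416 * μ) := by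
    have h3 := mul_abs_le g1 (mul_abs_le t0 t1)
    have h4 : |-(G.yu * n2) + G.yv * n1| ≤ 26 := by
      refine (abs_add_le _ _).trans ?_
      rw [abs_neg]
      have h5 := mul_abs_le g2 q2
      have h6 := mul_abs_le g3 q1
      linarith
    have h5 := mul_abs_le t0 h4
    refine (abs_add_le _ _).trans ?_
    linarith
  have m8 : |Q| ≤ |G.ev (tau n0 G p n1 n2)| + 39 * (416 * μ) := by
    have h3 : Q = G.ev (tau n0 G p n1 n2) - (G.yy * (t * t) + t * (-(G.yu * n2) + G.yv * n1)) := by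
      rw [e4]; ring
    conv_lhs => rw [h3]
    exact (abs_sub _ _).trans (add_le_add le_rfl m7)
  have m9 : 10 ^ 9 * μ ≤ g := hμ.trans hgg
  linarith

end

end Crest.Agent.R136.Shr639
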