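import Crest.Agent.R136.Shd_410
import Crest.Agent.R136.Shv1_410
import Crest.Agent.R136.Btm_781

/-!
# R136 (S0187), PLAN 2, leaf (B4) share: reduction of `ShareL` to `ShareR` (helper410)
-/

set_option autoImplicit false
set_option linter.unusedVariables false

open Finset

namespace Crest.Agent.R136.Shv410

open Crest.Agent.R136.Sh605 Crest.Agent.R136.Fl808
open Crest.Agent.R136.K4 (Plk4)
open Crest.Agent.R136.Tlt51 (Shp InP)
open Crest.Agent.R136.Phc248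
open Crest.Agent.R136.KapP335 (kapP expP DetP)
open Crest.Agent.R136.Pl2
open Crest.Agent.R136.Pl2W102 (Near Ex2 Two1)
open Crest.Agent.R136.Shd410
open Crest.Agent.R136.Btm781

/-- `1 + y ≤ (2 W) ^ (2 y)` -/
theorem one_add_le {X y : ℝ} (hX : 2 ≤ X) (hy : 0 ≤ y) : 1 + y ≤ X ^ (2 * y) := by
  have h1 : (2:ℝ) ^ (2 * y) ≤ X ^ (2 * y) :=
    Real.rpow_le_rpow (by norm_num) hX (by positivity)
  refine le_trans ?_ h1
  rw [Real.rpow_def_of_pos (by norm_num : (0:ℝ) < 2)]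
  have h2 := Real.add_one_le_exp (Real.log 2 * (2 * y))
  have h3 : (1:ℝ) / 2 ≤ Real.log 2 := by have := Real.log_two_gt_d9; linarith
  have h4 : 1 / 2 * (2 * y) ≤ Real.log 2 * (2 * y) :=
    mul_le_mul_of_nonneg_right h3 (by positivity)
  linarith

/-- change of the widths in `Two1` -/
theorem two1_dims {qm qp : Fin 3 → ℝ} (hm : ∀ k, 0 ≤ qm k) (hmp : ∀ k, qm k ≤ qp k)
    {L : ℕ → Ln4} {P : Finset ℕ} {cu cv : ℕ → ℕ} {Uf Vf : ℕ → Plk4}
    {W M a w1 w2 z0 ρ r w1' w2' C1 : ℝ} (H : Two1 qm qp L P cu cv Uf Vf W M a w1 w2 z0 ρ r)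
    (hC1 : 0 ≤ C1) (h1 : w1 ≤ w1') (h1' : w1' ≤ (2 * W) ^ C1 * w1) (h2 : w2 ≤ w2')
    (h2' : w2' ≤ (2 * W) ^ C1 * w2) {c : ℝ}
    (hc : 1 + 4 * C1 + C1 * (3 + qp 0 + qp 1 + qp 2) ≤ c) :
    Two1 qm qp L P cu cv Uf Vf ((2 * W) ^ c) M a w1' w2' z0 ρ r := by
  have hp : ∀ k, 0 ≤ qp k := fun k => (hm k).trans (hmp k)
  have W1 := H.W1
  have X2 : 2 ≤ 2 * W := by linarith
  have X1 : 1 ≤ 2 * W := by linarith
  have X0 : 0 < 2 * W := by linarith
  set X := 2 * W with hX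
  have s0 : 0 ≤ 3 + qp 0 + qp 1 + qp 2 := by linarith [hp 0, hp 1, hp 2]
  have s1 : 0 ≤ C1 * (3 + qp 0 + qp 1 + qp 2) := mul_nonneg hC1 s0
  have mono : ∀ {x y : ℝ}, x ≤ y → X ^ x ≤ X ^ y := fun h =>
    Real.rpow_le_rpow_of_exponent_le X1 h
  have XC : W * X ^ C1 ≤ X ^ c := by
    calc W * X ^ C1 ≤ X ^ (1:ℝ) * X ^ C1 := by
          rw [Real.rpow_one]
          exact mul_le_mul_of_nonneg_right (by linarith) (by positivity)
      _ = X ^ (1 + C1) := (Real.rpow_add X0 _ _).symm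
      _ ≤ X ^ c := mono (by linarith)
  have WX : W ≤ X ^ c := by
    calc W ≤ X ^ (1:ℝ) := by rw [Real.rpow_one]; linarith
      _ ≤ X ^ c := mono (by linarith)
  have XC1 : 1 ≤ X ^ C1 := Real.one_le_rpow X1 hC1
  have Xc0 : 0 < X ^ c := by positivity
  have w10' : 0 < w1' := H.w10.trans_le h1
  have w20' : 0 < w2' := H.w20.trans_le h2
  have near1 : ∀ {x y y' : ℝ}, 0 < x → 0 < y → y ≤ y' → y' ≤ X ^ C1 * y → Near W y x →
      Near (X ^ c) y' x := by
    intro x y y' hx hy hyy hyy' hn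
    constructor
    · calc y' ≤ X ^ C1 * y := hyy'
        _ ≤ X ^ C1 * (W * x) := mul_le_mul_of_nonneg_left hn.1 (by positivity)
        _ = W * X ^ C1 * x := by ring
        _ ≤ X ^ c * x := mul_le_mul_of_nonneg_right XC hx.le
    · calc x ≤ W * y := hn.2
        _ ≤ W * y' := mul_le_mul_of_nonneg_left hyy (by linarith)
        _ ≤ X ^ c * y' := mul_le_mul_of_nonneg_right WX (by linarith)
  refine ⟨W1.trans WX, H.M0, H.r0, H.ρ0, H.a0, w10', w20', ?_, ?_, H.vel, H.shU, H.shV, H.inU,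
    H.inV, ?_, ?_, ?_, ?_, ?_⟩
  · calc w1' ≤ X ^ C1 * w1 := h1'
      _ ≤ X ^ C1 * (W * ρ) := mul_le_mul_of_nonneg_left H.w1ρ (by positivity)
      _ = W * X ^ C1 * ρ := by ring
      _ ≤ X ^ c * ρ := mul_le_mul_of_nonneg_right XC H.ρ0.le
  · have e1 : w1' / a ≤ X ^ C1 * (w1 / a) := by
      rw [← mul_div_assoc]
      exact div_le_div_of_nonneg_right h1' H.a0.le
    have e2 : Real.log (w1' / a) ≤ Real.log (X ^ C1 * (w1 / a)) :=
      Real.log_le_log (div_pos w10' H.a0) e1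
    have e3 : Real.log (X ^ C1 * (w1 / a)) = C1 * Real.log X + Real.log (w1 / a) := by
      rw [Real.log_mul (by positivity) (div_pos H.w10 H.a0).ne', Real.log_rpow X0]
    have e4 : Real.log X ≤ X := (Real.log_le_sub_one_of_pos X0).trans (by linarith)
    have e5 : C1 * Real.log X ≤ C1 * X := mul_le_mul_of_nonneg_left e4 hC1
    have e6 := H.lg
    have e7 : 1 + 2 * C1 ≤ X ^ (2 * (2 * C1)) := one_add_le X2 (by linarith)
    have e8 : X ^ (1:ℝ) * X ^ (2 * (2 * C1)) ≤ X ^ c := by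
      rw [← Real.rpow_add X0]; exact mono (by linarith)
    rw [Real.rpow_one] at e8
    have e9 : X * (1 + 2 * C1) ≤ X * X ^ (2 * (2 * C1)) := mul_le_mul_of_nonneg_left e7 X0.le
    have e10 : 0 ≤ X * C1 := by positivity
    have e11 : W ≤ X := by linarith
    nlinarith
  · intro t ht
    obtain ⟨p1, -, p2, p3⟩ := shp_pos H.r0 (H.shU t ht)
    obtain ⟨n1, n2, n3⟩ := H.dimU t ht
    exact ⟨near_mono n1 WX H.a0.le p1.le, near1 p3 H.w10 h1 h1' n2, near1 p2 H.w20 h2 h2' n3⟩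
  · intro t ht
    obtain ⟨p1, -, p2, p3⟩ := shp_pos H.r0 (H.shV t ht)
    obtain ⟨n1, n2, n3⟩ := H.dimV t ht
    exact ⟨near_mono n1 WX H.a0.le p1.le, near1 p3 H.w10 h1 h1' n2, near1 p2 H.w20 h2 h2' n3⟩
  · exact fun t ht => (H.fullU t ht).trans (mul_le_mul_of_nonneg_right WX (Nat.cast_nonneg _))
  · exact fun t ht => (H.fullV t ht).trans (mul_le_mul_of_nonneg_right WX (Nat.cast_nonneg _))
  · intro S hS hw
    classical
    obtain ⟨p1, -, p2, p3⟩ := shp_pos H.r0 hS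
    have hφ := phC_nonneg (qm := qm) (qp := qp) H.a0.le w10'.le w20'.le p1.le p3.le p2.le
    have h3 := phC_unit hm hmp (x := S.a) (y := S.w 1) (z := S.w 2) XC1 H.a0 H.w10 H.w20 H.a0
      w10' w20' p1.le p3.le p2.le (le_mul_of_one_le_left H.a0.le XC1) h1' h2'
    have h4 : (X ^ C1) ^ (1 + qp 0) * (X ^ C1) ^ (1 + qp 1) * (X ^ C1) ^ (1 + qp 2) =
        X ^ (C1 * (3 + qp 0 + qp 1 + qp 2)) := by
      rw [← Real.rpow_mul X0.le, ← Real.rpow_mul X0.le, ← Real.rpow_mul X0.le,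
        ← Real.rpow_add X0, ← Real.rpow_add X0]
      congr 1; ring
    rw [h4] at h3
    refine (H.dmax S hS hw).trans ?_
    have WM : 0 ≤ W * M := mul_nonneg (by linarith) H.M0.le
    calc W * M * phC qm qp a w1 w2 S.a (S.w 1) (S.w 2) ≤
        W * M * (X ^ (C1 * (3 + qp 0 + qp 1 + qp 2)) *
          phC qm qp a w1' w2' S.a (S.w 1) (S.w 2)) := mul_le_mul_of_nonneg_left h3 WM
      _ = (W * X ^ (C1 * (3 + qp 0 + qp 1 + qp 2))) * (M *
          phC qm qp a w1' w2' S.a (S.w 1) (S.w 2)) := by ring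
      _ ≤ X ^ c * (M * phC qm qp a w1' w2' S.a (S.w 1) (S.w 2)) := by
          refine mul_le_mul_of_nonneg_right ?_ (mul_nonneg H.M0.le hφ)
          calc W * X ^ (C1 * (3 + qp 0 + qp 1 + qp 2)) ≤
              X ^ (1:ℝ) * X ^ (C1 * (3 + qp 0 + qp 1 + qp 2)) := by
                rw [Real.rpow_one]
                exact mul_le_mul_of_nonneg_right (by linarith) (by positivity)
            _ = X ^ (1 + C1 * (3 + qp 0 + qp 1 + qp 2)) := (Real.rpow_add X0 _ _).symm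
            _ ≤ X ^ c := mono (by linarith)
      _ = _ := by ring

open Classical in
/-- **reduction** -/
theorem shareL_of (h : ShareR) : ShareL := by
  intro η qm qp hx C1 hC1
  obtain ⟨K, C, hK, hC, main⟩ := h η qm qp hx
  have hm : ∀ k, 0 ≤ qm k := fun k => (hx.le k).1
  have hmp : ∀ k, qm k ≤ qp k := fun k => (hx.le k).2
  have hp : ∀ k, 0 ≤ qp k := fun k => (hm k).trans (hmp k)
  have s0 : 0 ≤ 3 + qp 0 + qp 1 + qp 2 := by linarith [hp 0, hp 1, hp 2]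
  have s1 : 0 ≤ C1 * (3 + qp 0 + qp 1 + qp 2) := mul_nonneg hC1 s0
  obtain ⟨c, hc⟩ : ∃ c, c = 1 + 4 * C1 + C1 * (3 + qp 0 + qp 1 + qp 2) := ⟨_, rfl⟩
  have hc1 : 1 ≤ c := by linarith
  have hc0 : 0 ≤ c := by linarith
  refine ⟨c * K + 1, by positivity, fun K0 hK0 => ⟨c * K, c * C, by positivity, by positivity, ?_⟩⟩
  intro L P cu cv Uf Vf W M a w1 w2 z0 ρ r H hr t ht f g Y w1' w2' hty haY hYw hww h1 h1' h2 h2'
    hF hL hG j k' hdy hthr
  have W1 := H.W1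
  have X2 : 2 ≤ 2 * W := by linarith
  have X1 : 1 ≤ 2 * W := by linarith
  have X0 : 0 < 2 * W := by linarith
  have Y0 : 0 < Y := H.a0.trans_le haY
  have H' := two1_dims hm hmp H hC1 h1 h1' h2 h2' hc.ge
  have mono : ∀ {x y : ℝ}, x ≤ y → (2 * W) ^ x ≤ (2 * W) ^ y := fun h =>
    Real.rpow_le_rpow_of_exponent_le X1 h
  have hXc : 2 * W ≤ (2 * W) ^ c := by
    calc 2 * W = (2 * W) ^ (1:ℝ) := (Real.rpow_one _).symm
      _ ≤ _ := mono hc1
  have hWc : W ≤ (2 * W) ^ c := by linarith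
  have hCc : (2 * W) ^ C1 ≤ (2 * W) ^ c := mono (by linarith)
  have pw : ∀ y, ((2 * W) ^ c) ^ y = (2 * W) ^ (c * y) := fun y => (Real.rpow_mul X0.le _ _).symm
  obtain ⟨p1, -, p2, p3⟩ := shp_pos H.r0 (H.shU t ht)
  obtain ⟨q1, -, q2, q3⟩ := shp_pos H.r0 (H.shV t ht)
  set Z := P.filter fun s => cu s = cu t ∧ cv s = cv t with hZ
  have mem : ∀ s ∈ Z, s ∈ P ∧ cu s = cu t ∧ cv s = cv t := fun s hs => mem_filter.1 hs
  have hShD : ShD K qm qp L Z (Uf (cu t)) (Vf (cv t)) f g ((2 * W) ^ c) M a Y w1' w2' z0 ρ r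
      j k' := by
    refine ⟨X2.trans hXc, H.M0, H.r0, H.ρ0, hr, H.a0, haY, hYw, hww, H'.w1ρ, H'.lg,
      ⟨P, cu, cv, Uf, Vf, filter_subset _ _, ⟨t, ht⟩, H'⟩, ?_, H.shU t ht, H.shV t ht, ?_, ?_,
      (H'.dimU t ht).1, (H'.dimU t ht).2.1, (H'.dimU t ht).2.2, (H'.dimV t ht).1,
      (H'.dimV t ht).2.1, (H'.dimV t ht).2.2, ?_, ?_, ?_, ?_, ?_, ?_, ?_, hdy, ?_⟩
    · exact fun s hs => H.vel s (mem s hs).1
    · intro s hs
      obtain ⟨m1, m2, m3⟩ := mem s hs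
      have := H.inU s m1
      rwa [m2] at this
    · intro s hs
      obtain ⟨m1, m2, m3⟩ := mem s hs
      have := H.inV s m1
      rwa [m3] at this
    · intro s hs
      obtain ⟨m1, m2, m3⟩ := mem s hs
      have := (hty s m1 m2 m3).1.big
      refine le_trans ?_ this
      rw [pw]
      exact mul_le_mul_of_nonneg_right (mono (by linarith)) H.a0.le
    · intro s hs
      obtain ⟨m1, m2, m3⟩ := mem s hs
      exact (hty s m1 m2 m3).1.le
    · intro s hs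
      obtain ⟨m1, m2, m3⟩ := mem s hs
      exact (hty s m1 m2 m3).2
    · intro s hs hn
      obtain ⟨m1, m2, m3⟩ := mem s hs
      have hT := (hty s m1 m2 m3).1
      have b1 : W * a ≤ kp (Uf (cu t)) z0 ρ (L s) := by
        refine le_trans (mul_le_mul_of_nonneg_right ?_ H.a0.le) hT.big
        calc W ≤ (2 * W) ^ (1:ℝ) := by rw [Real.rpow_one]; linarith
          _ ≤ (2 * W) ^ K0 := mono (by have := mul_nonneg hc0 hK; linarith)
      have b2 := hT.typ.rot b1 (le_trans (mul_le_mul_of_nonneg_right hWc p2.le) hn)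
      exact le_trans (one_div_le_one_div_of_le (by linarith) hWc) b2
    · exact Btm781.FH.mono hF (by positivity) Y0.le hCc le_rfl p3.le p2.le
    · exact Btm781.FL.mono' hL (by positivity) hCc Y0.le
    · exact Btm781.FH.mono hG (by positivity) Y0.le hCc le_rfl q3.le q2.le
    · rw [pw]; exact hthr
  have := main L Z (Uf (cu t)) (Vf (cv t)) f g _ M a Y w1' w2' z0 ρ r j k' hShD
  rw [pw] at this
  exact this

end Crest.Agent.R136.Shv410
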