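import Crest.Agent.R136.Vat_410
import Crest.Agent.R136.Lkp_140

/-!
# R136 (S0187), PLAN 2, leaf (B4) share: `ShareL` from the links and the M bound (helper410)
-/

set_option autoImplicit false

namespace Crest.Agent.R136.Shv410

/-- **`ShareL`** from 524's links and 723 / 777's lower bound -/
theorem shareL_of2 (hl : Lkp140.LnkSh) (hm : Lkp140.MLow) : Pl2.ShareL :=
  shareL_of (shareR_of (Lkp140.lnkS_of hl hm))

end Crest.Agent.R136.Shv410
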