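import Crest.Agent.R136.Shw_410
import Crest.Agent.R136.Mlz_410

/-!
# R136 (S0187), PLAN 2, leaf (B4) share: `ShareL`, `ShareR` from the links (helper410)
-/

set_option autoImplicit false

namespace Crest.Agent.R136.Shv410

/-- **`ShareR`** from 524's links -/
theorem shareR_of1 (hl : Lkp140.LnkSh) : Shd410.ShareR := shareR_of (Lkp140.lnkS_of hl mLow)

/-- **`ShareL`** from 524's links -/
theorem shareL_of1 (hl : Lkp140.LnkSh) : Pl2.ShareL := shareL_of (shareR_of1 hl)

end Crest.Agent.R136.Shv410
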