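import Crest.Agent.R136.Rb6_741

/-!
# R136: frozen slots (helper741)

`xt p v c` : extension of a vector on the kept slots `{i // p i}` by `v` on the frozen ones.
`Walls.slice` : walls with frozen slots (the frozen slots carry no wall).
**`ae_rec_tan_slice`** : record blow-up with frozen slots: full tangents on all slots, `OutH` for
the surfaces of the slice.
-/

set_option autoImplicit false
set_option linter.unusedSectionVars false
set_option linter.unusedVariables false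

open Set Filter Topology Metric MeasureTheory

namespace Crest.Agent.R136.Sl741

open Dg219 (Tn Walls lf zz)
open Dg262 (Mix Inc SupOn Grp X)
open Rc146 (OutH)
open Rc683 (Srf)
open Crest.Agent.R138

variable {ι : Type*} [Fintype ι] [DecidableEq ι] {W : Type*} [Fintype W]
  {p : ι → Prop} [DecidablePred p]

/-- extension by `v` on the frozen slots -/
def xt (p : ι → Prop) [DecidablePred p] (v : ι → ℝ) (c : {i // p i} → ℝ) : ι → ℝ :=
  fun i => if h : p i then c ⟨i, h⟩ else v i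

/-- restriction to the kept slots -/
def rs (p : ι → Prop) (c : ι → ℝ) : {i // p i} → ℝ := fun i => c i.1

theorem xt_in (v : ι → ℝ) (c : {i // p i} → ℝ) {i : ι} (h : p i) : xt p v c i = c ⟨i, h⟩ :=
  dif_pos h

theorem xt_off (v : ι → ℝ) (c : {i // p i} → ℝ) {i : ι} (h : ¬ p i) : xt p v c i = v i :=
  dif_neg h

theorem xt_val (v : ι → ℝ) (c : {i // p i} → ℝ) (i : {i // p i}) : xt p v c i.1 = c i := by
  rw [xt_in v c i.2]

theorem rs_xt (v : ι → ℝ) (c : {i // p i} → ℝ) : rs p (xt p v c) = c := by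
  funext i; exact xt_val v c i

theorem xt_rs {v c : ι → ℝ} (h : ∀ i, ¬ p i → c i = v i) : xt p v (rs p c) = c := by
  funext i
  by_cases hi : p i
  · rw [xt_in _ _ hi]; rfl
  · rw [xt_off _ _ hi, h i hi]

theorem xt_add (v w : ι → ℝ) (c d : {i // p i} → ℝ) : xt p (v + w) (c + d) = xt p v c + xt p w d := by
  funext i
  by_cases hi : p i
  · rw [Pi.add_apply, xt_in _ _ hi, xt_in _ _ hi, xt_in _ _ hi]; rfl
  · rw [Pi.add_apply, xt_off _ _ hi, xt_off _ _ hi, xt_off _ _ hi]; rfl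

theorem xt_smul (t : ℝ) (c : {i // p i} → ℝ) : xt p 0 (t • c) = t • xt p 0 c := by
  funext i
  by_cases hi : p i
  · rw [Pi.smul_apply, xt_in _ _ hi, xt_in _ _ hi]; rfl
  · rw [Pi.smul_apply, xt_off _ _ hi, xt_off _ _ hi]; simp

theorem xt_add0 (v : ι → ℝ) (c d : {i // p i} → ℝ) : xt p v (c + d) = xt p v c + xt p 0 d := by
  have := xt_add v 0 c d
  rwa [add_zero] at this

theorem xt_sup (v : ι → ℝ) (c d : {i // p i} → ℝ) : xt p v (c ⊔ d) = xt p v c ⊔ xt p v d := by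
  funext i
  by_cases hi : p i
  · rw [Pi.sup_apply, xt_in _ _ hi, xt_in _ _ hi, xt_in _ _ hi]; rfl
  · rw [Pi.sup_apply, xt_off _ _ hi, xt_off _ _ hi, xt_off _ _ hi, sup_idem]

theorem xt_inf (v : ι → ℝ) (c d : {i // p i} → ℝ) : xt p v (c ⊓ d) = xt p v c ⊓ xt p v d := by
  funext i
  by_cases hi : p i
  · rw [Pi.inf_apply, xt_in _ _ hi, xt_in _ _ hi, xt_in _ _ hi]; rfl
  · rw [Pi.inf_apply, xt_off _ _ hi, xt_off _ _ hi, xt_off _ _ hi, inf_idem]

theorem xt_mono (v : ι → ℝ) {c d : {i // p i} → ℝ} (h : c ≤ d) : xt p v c ≤ xt p v d := by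
  intro i
  by_cases hi : p i
  · rw [xt_in _ _ hi, xt_in _ _ hi]; exact h _
  · rw [xt_off _ _ hi, xt_off _ _ hi]

theorem xt_dist (v : ι → ℝ) (c d : {i // p i} → ℝ) : dist (xt p v c) (xt p v d) ≤ dist c d := by
  rw [dist_pi_le_iff dist_nonneg]
  intro i
  by_cases hi : p i
  · rw [xt_in _ _ hi, xt_in _ _ hi]; exact dist_le_pi_dist c d _
  · rw [xt_off _ _ hi, xt_off _ _ hi, dist_self]; exact dist_nonneg

theorem xt_norm (c : {i // p i} → ℝ) : ‖xt p 0 c‖ ≤ ‖c‖ := by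
  rw [pi_norm_le_iff_of_nonneg (norm_nonneg _)]
  intro i
  by_cases hi : p i
  · rw [xt_in _ _ hi]; exact norm_le_pi_norm c _
  · rw [xt_off _ _ hi]; simp

theorem xt_sum (v : ι → ℝ) (c d : {i // p i} → ℝ) :
    ∑ i, (xt p v d i - xt p v c i) = ∑ i, (d i - c i) := by
  rw [← Fintype.sum_subtype_add_sum_subtype p]
  have h1 : ∑ i : {i // ¬ p i}, (xt p v d i.1 - xt p v c i.1) = 0 :=
    Finset.sum_eq_zero fun i _ => by rw [xt_off _ _ i.2, xt_off _ _ i.2, sub_self]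
  rw [h1, add_zero]
  exact Finset.sum_congr rfl fun i _ => by rw [xt_val, xt_val]

/-- walls with frozen slots -/
def slice (Q : Walls ι W) (p : ι → Prop) [DecidablePred p] (v : ι → ℝ) (hp : ∀ w, p (Q.hd w)) :
    Walls {i // p i} W where
  hd := fun w => ⟨Q.hd w, hp w⟩
  co := fun w s => Q.co w s.1
  cst := fun w => Q.cst w + ∑ s : {i // ¬ p i}, (Q.co w s.1 : ℝ) * v s.1
  rk := fun s => Q.rk s.1
  low := fun w s hs => Q.low w s.1 hs

section

variable {Q : Walls ι W} {v : ι → ℝ} {hp : ∀ w, p (Q.hd w)} {lo hi x0 a b : ι → ℝ}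

theorem rhs_xt (w : W) (u : ι → ℝ) (c : {i // p i} → ℝ) :
    Q.rhs w (xt p u c) = (slice Q p v hp).rhs w c +
      ∑ s : {i // ¬ p i}, (Q.co w s.1 : ℝ) * u s.1 := by
  unfold Walls.rhs
  rw [← Fintype.sum_subtype_add_sum_subtype p]
  congr 1
  · exact Finset.sum_congr rfl fun i _ => by rw [xt_val]; rfl
  · exact Finset.sum_congr rfl fun i _ => by rw [xt_off _ _ i.2]

theorem rhs_xt0 (w : W) (c : {i // p i} → ℝ) :
    Q.rhs w (xt p 0 c) = (slice Q p v hp).rhs w c := by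
  rw [rhs_xt (v := v) (hp := hp)]; simp

theorem mem_slice_P (hv : ∀ i, ¬ p i → lo i ≤ v i ∧ v i ≤ hi i) {c : {i // p i} → ℝ} :
    c ∈ (slice Q p v hp).P (rs p lo) (rs p hi) ↔ xt p v c ∈ Q.P lo hi := by
  constructor
  · rintro ⟨h1, h2⟩
    refine ⟨fun k => ?_, fun w => ?_⟩
    · by_cases hk : p k
      · rw [xt_in _ _ hk]; exact h1 ⟨k, hk⟩
      · rw [xt_off _ _ hk]; exact hv k hk
    · have h3 : c ⟨Q.hd w, hp w⟩ ≤ (slice Q p v hp).rhs w c +
        (Q.cst w + ∑ s : {i // ¬ p i}, (Q.co w s.1 : ℝ) * v s.1) := h2 w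
      rw [rhs_xt (v := v) (hp := hp), xt_in _ _ (hp w)]; linarith
  · rintro ⟨h1, h2⟩
    refine ⟨fun k => ?_, fun w => ?_⟩
    · have := h1 k.1
      rw [xt_val] at this; exact this
    · have := h2 w
      rw [rhs_xt (v := v) (hp := hp), xt_in _ _ (hp w)] at this
      change c ⟨Q.hd w, hp w⟩ ≤ (slice Q p v hp).rhs w c +
        (Q.cst w + ∑ s : {i // ¬ p i}, (Q.co w s.1 : ℝ) * v s.1)
      linarith

theorem slice_Act (h0 : ∀ i, ¬ p i → x0 i = v i) (ha : ∀ i, ¬ p i → a i = 0)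
    (hb : ∀ i, ¬ p i → b i = 0) {w : W} :
    (slice Q p v hp).Act (rs p x0) (rs p a) (rs p b) w ↔ Q.Act x0 a b w := by
  have e0 : Q.rhs w x0 = (slice Q p v hp).rhs w (rs p x0) +
      ∑ s : {i // ¬ p i}, (Q.co w s.1 : ℝ) * v s.1 := by
    rw [← rhs_xt (v := v) (hp := hp), xt_rs h0]
  have e1 : Q.rhs w a = (slice Q p v hp).rhs w (rs p a) := by
    have := rhs_xt0 (Q := Q) (v := v) (hp := hp) w (rs p a)
    rw [← this, xt_rs fun i hi => by rw [ha i hi]; rfl]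
  have e2 : Q.rhs w b = (slice Q p v hp).rhs w (rs p b) := by
    have := rhs_xt0 (Q := Q) (v := v) (hp := hp) w (rs p b)
    rw [← this, xt_rs fun i hi => by rw [hb i hi]; rfl]
  unfold Walls.Act
  rw [e0, e1, e2]
  have e3 : (slice Q p v hp).cst w =
    Q.cst w + ∑ s : {i // ¬ p i}, (Q.co w s.1 : ℝ) * v s.1 := rfl
  have e4 : (slice Q p v hp).hd w = ⟨Q.hd w, hp w⟩ := rfl
  rw [e3, e4]
  change (x0 (Q.hd w) = _ ∧ a (Q.hd w) = _ ∧ b (Q.hd w) = _) ↔ _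
  constructor
  · rintro ⟨h1, h2, h3⟩; exact ⟨by linarith, h2, h3⟩
  · rintro ⟨h1, h2, h3⟩; exact ⟨by linarith, h2, h3⟩

theorem mem_slice_L (h0 : ∀ i, ¬ p i → x0 i = v i) (ha : ∀ i, ¬ p i → a i = 0)
    (hb : ∀ i, ¬ p i → b i = 0) {c : {i // p i} → ℝ} :
    c ∈ (slice Q p v hp).L (rs p x0) (rs p a) (rs p b) ↔ xt p 0 c ∈ Q.L x0 a b := by
  constructor
  · intro h w hw
    have := h w ((slice_Act h0 ha hb).2 hw)
    rw [rhs_xt0 (v := v) (hp := hp), xt_in _ _ (hp w)]; exact this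
  · intro h w hw
    have := h w ((slice_Act h0 ha hb).1 hw)
    rw [rhs_xt0 (v := v) (hp := hp), xt_in _ _ (hp w)] at this; exact this

theorem X_slice (h0 : ∀ i, ¬ p i → x0 i = v i) (ha : ∀ i, ¬ p i → a i = 0)
    (hb : ∀ i, ¬ p i → b i = 0) (z : ℝ × ℝ) :
    xt p v (X (rs p x0) (rs p a) (rs p b) z) = X x0 a b z := by
  have : X (rs p x0) (rs p a) (rs p b) z = rs p (X x0 a b z) := rfl
  rw [this, xt_rs]
  intro i hi
  simp only [X, h0 i hi, ha i hi, hb i hi, zero_mul, add_zero]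

theorem mem_slice_O (h0 : ∀ i, ¬ p i → x0 i = v i) (ha : ∀ i, ¬ p i → a i = 0)
    (hb : ∀ i, ¬ p i → b i = 0) {z : ℝ × ℝ} (hz : z ∈ Q.O lo hi x0 a b) :
    z ∈ (slice Q p v hp).O (rs p lo) (rs p hi) (rs p x0) (rs p a) (rs p b) := by
  refine ⟨fun k => hz.1 k.1, fun w => ?_⟩
  rcases hz.2 w with h | h
  · exact Or.inl ((slice_Act h0 ha hb).2 h)
  · right
    rw [← X_slice (v := v) h0 ha hb z, rhs_xt (v := v) (hp := hp), xt_in _ _ (hp w)] at h
    change X (rs p x0) (rs p a) (rs p b) z ⟨Q.hd w, hp w⟩ <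
      (slice Q p v hp).rhs w (X (rs p x0) (rs p a) (rs p b) z) +
        (Q.cst w + ∑ s : {i // ¬ p i}, (Q.co w s.1 : ℝ) * v s.1)
    linarith

end

/-- `OutH` depends on `lam` on the window cone only -/
theorem outH_congr {κ : Type*} [DecidableEq κ] {grp : ι → κ} {S : Finset κ} {LW L : Set (ι → ℝ)}
    {a b : ι → ℝ} {l : ℝ × ℝ} {dh : ι → ℝ} {n : κ → ℝ × ℝ} {lam lam' : (ι → ℝ) → ℝ}
    {φ : κ → (ι → ℝ) → ℝ} {r : κ → ℝ} (H : OutH grp S LW L a b l dh n lam φ r)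
    (he : ∀ c ∈ LW, lam' c = lam c) : OutH grp S LW L a b l dh n lam' φ r where
  split := fun c hc c' hc' h => by rw [he c hc, he c' hc']; exact H.split c hc c' hc' h
  loc := H.loc
  zero := H.zero
  mono := H.mono
  smod := H.smod
  rate := H.rate
  r_nonneg := H.r_nonneg
  r_le := H.r_le

/-- a tangent is unique on the cone -/
theorem tan_unique {V : Type*} [NormedAddCommGroup V] [NormedSpace ℝ V] {P D : Set V}
    {ν lam : V → ℝ} {x : ℕ → V} {h : ℕ → ℝ} (hpos : ∀ l, 0 < h l)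
    (H : Ex926.IsTan P D ν x h lam) {c : V} (hc : c ∈ D) :
    Tendsto (fun l => (ν (x l + h l • c) - ν (x l)) / h l) atTop (𝓝 (lam c)) := by
  rw [Metric.tendsto_nhds]
  intro ε hε
  filter_upwards [H ‖c‖ (ε / 2) (by positivity)] with l hl
  have h1 := (hl c hc le_rfl).2
  rw [Real.dist_eq]
  have h2 := hpos l
  have e : (ν (x l + h l • c) - ν (x l)) / h l - lam c =
      (ν (x l + h l • c) - ν (x l) - h l * lam c) / h l := by field_simp
  rw [e, abs_div, abs_of_pos h2, div_lt_iff₀ h2]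
  nlinarith

/-- **RECORD BLOW-UP with frozen slots** : `¬ p i` = frozen slot (slope 0 along the record line, no
wall with this head); surfaces `sf s` of the slice; `K`-Lipschitz functions `f j` on the legal set,
`f j0` the profile. At almost every record point, along every sequence of scales there are tangents
of all `f j` (on ALL slots) at moving base points of the record line, with `OutH` for all surfaces,
for `lam j0` at vectors which vanish on the frozen slots -/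
theorem ae_rec_tan_slice {Q : Walls ι W} {hp : ∀ w, p (Q.hd w)} {lo hi y0 ρ0 : ι → ℝ}
    (hv : ∀ i, ¬ p i → lo i ≤ y0 i ∧ y0 i ≤ hi i) (hρ : ∀ i, ¬ p i → ρ0 i = 0)
    {T : Type*} [Countable T] {sf : T → Srf {i // p i}}
    (ok : ∀ s, (sf s).Ok (slice Q p y0 hp) (rs p y0) (rs p ρ0))
    {wv : T → ℕ → ℝ × ℝ} (hg : ∀ s, Grp (sf s).a (sf s).b (sf s).g (wv s))
    (hdh : ∀ s i j, (sf s).g i = (sf s).g j → 0 < (sf s).dh i * (sf s).dh j)
    {J : Type*} [Finite J] {f : J → (ι → ℝ) → ℝ} {j0 : J} {K : ℝ} (hK : 0 ≤ K)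
    (hν : ∀ j, ∀ p ∈ Q.P lo hi, ∀ q ∈ Q.P lo hi, |f j p - f j q| ≤ K * dist p q)
    (hm : ∀ p ∈ Q.P lo hi, ∀ q ∈ Q.P lo hi, p ≤ q →
      0 ≤ f j0 p - f j0 q ∧ f j0 p - f j0 q ≤ ∑ i, (q i - p i))
    (hs : SupOn (f j0) (Q.P lo hi)) {U : Set ℝ}
    (hU : ∀ ξ ∈ U, (ξ, (0:ℝ)) ∈ Q.O lo hi y0 ρ0 0) :
    ∀ᵐ ξ : ℝ, ξ ∈ U → ∃ c0 : T → ℝ, (∀ s, 0 < c0 s) ∧
      (∀ s, (sf s).LW (slice Q p y0 hp) (c0 s) ⊆
        (slice Q p y0 hp).L (rs p y0) (rs p ρ0) 0) ∧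
      ∀ h : ℕ → ℝ, (∀ l, 0 < h l) → Tendsto h atTop (𝓝 0) →
      ∃ (x h' : ℕ → ℝ) (lam : J → (ι → ℝ) → ℝ), Tendsto x atTop (𝓝 ξ) ∧ (∀ m, 0 < h' m) ∧
        Tendsto h' atTop (𝓝 0) ∧
        (∀ j, Ex926.IsTan (Q.P lo hi) (Q.L y0 ρ0 0) (f j) (fun m => y0 + x m • ρ0) h'
          (lam j)) ∧
        ∀ s, ∃ (φ : ℕ → ({i // p i} → ℝ) → ℝ) (r : ℕ → ℝ), OutH (sf s).g (sf s).S
          ((sf s).LW (slice Q p y0 hp) (c0 s)) ((sf s).L (slice Q p y0 hp)) (sf s).a (sf s).b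
          (sf s).l (sf s).dh (sf s).n (fun c => lam j0 (xt p 0 c)) φ r := by
  set Q' := slice Q p y0 hp with hQ'
  have h00 : ∀ i, ¬ p i → y0 i = y0 i := fun _ _ => rfl
  have hb0 : ∀ i, ¬ p i → (0 : ι → ℝ) i = 0 := fun _ _ => rfl
  have hr0 : rs p (0 : ι → ℝ) = 0 := rfl
  have hP' : ∀ {c : {i // p i} → ℝ}, c ∈ Q'.P (rs p lo) (rs p hi) ↔ xt p y0 c ∈ Q.P lo hi :=
    mem_slice_P hv
  have hL' : ∀ {c : {i // p i} → ℝ}, c ∈ Q'.L (rs p y0) (rs p ρ0) 0 ↔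
      xt p 0 c ∈ Q.L y0 ρ0 0 := mem_slice_L h00 hρ hb0
  set f' : J → ({i // p i} → ℝ) → ℝ := fun j c => f j (xt p y0 c) with hf'
  have hν' : ∀ j, ∀ c ∈ Q'.P (rs p lo) (rs p hi), ∀ d ∈ Q'.P (rs p lo) (rs p hi),
      |f' j c - f' j d| ≤ K * dist c d := fun j c hc d hd =>
    (hν j _ (hP'.1 hc) _ (hP'.1 hd)).trans (mul_le_mul_of_nonneg_left (xt_dist _ _ _) hK)
  have hm' : ∀ c ∈ Q'.P (rs p lo) (rs p hi), ∀ d ∈ Q'.P (rs p lo) (rs p hi), c ≤ d →
      0 ≤ f' j0 c - f' j0 d ∧ f' j0 c - f' j0 d ≤ ∑ i, (d i - c i) := by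
    intro c hc d hd hcd
    have := hm _ (hP'.1 hc) _ (hP'.1 hd) (xt_mono y0 hcd)
    rw [xt_sum] at this; exact this
  have hs' : SupOn (f' j0) (Q'.P (rs p lo) (rs p hi)) := by
    intro c hc d hd h1 h2
    have := hs _ (hP'.1 hc) _ (hP'.1 hd) (by rw [← xt_inf]; exact hP'.1 h1)
      (by rw [← xt_sup]; exact hP'.1 h2)
    rw [← xt_inf, ← xt_sup] at this; exact this
  have hlipOn : LipschitzOnWith ⟨K, hK⟩ (f' j0) (Q'.P (rs p lo) (rs p hi)) :=
    LipschitzOnWith.of_dist_le_mul fun c hc d hd => by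
      rw [Real.dist_eq]; exact hν' j0 c hc d hd
  obtain ⟨G, hG, heG⟩ := hlipOn.extend_real
  have hlipG : ∀ c d, |G c - G d| ≤ K * dist c d := fun c d => by
    rw [← Real.dist_eq]; exact hG.dist_le_mul c d
  have hsG : SupOn G (Q'.P (rs p lo) (rs p hi)) := by
    intro c hc d hd h1 h2
    rw [← heG hc, ← heG hd, ← heG h1, ← heG h2]; exact hs' c hc d hd h1 h2
  have hU' : ∀ ξ ∈ U, (ξ, (0:ℝ)) ∈ Q'.O (rs p lo) (rs p hi) (rs p y0) (rs p ρ0) 0 :=
    fun ξ hξ => mem_slice_O h00 hρ hb0 (hU ξ hξ)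
  have key := Rc683.ae_rec_tan (Q := Q') (f := f') (j0 := j0) ok hK hν' hm' hs'
    (fun c hc => (heG hc).symm) hlipG hU'
    (fun s => Rb741.ppu (ok s) (hg s) (hdh s) hK hlipG hsG hU')
  filter_upwards [key] with ξ hξ hξU
  obtain ⟨c0, hc0, hc0', H⟩ := hξ hξU
  refine ⟨c0, hc0, hc0', fun h hpos h0 => ?_⟩
  obtain ⟨x, h', lam', hx, hh', hh0, hT, hO⟩ := H h hpos h0
  -- full tangents
  have hM : Dg219.Cone (Q.L y0 ρ0 0) := Walls.cone
  have hcl : IsClosed (Q.L y0 ρ0 0) := Walls.isClosed_L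
  obtain ⟨φ1, hφ1, lam, hlam⟩ := Rc683.exists_tan (J := J) (P := fun _ => Q.P lo hi)
    (D := fun _ => Q.L y0 ρ0 0) (ν := f) (fun _ => hcl) hK
    (fun j p hp q hq => by rw [← dist_eq_norm]; exact hν j p hp q hq)
    (x := fun m => y0 + x m • ρ0) hh' (fun _ C => by
      obtain ⟨ε, hε, H1⟩ := Walls.legal (hU ξ hξU) C
      have e1 : ∀ᶠ m in atTop, dist ((x m, (0:ℝ)) : ℝ × ℝ) (ξ, 0) < ε := by
        filter_upwards [Metric.tendsto_nhds.1 hx ε hε] with m hm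
        rw [Prod.dist_eq, dist_self]
        exact max_lt hm hε
      filter_upwards [e1, hh0.eventually_lt_const hε] with m hm1 hm2 c hc hcC
      have := H1 (x m, 0) hm1 (h' m) (hh' m) hm2 c hc hcC
      rwa [Rc683.line_eq] at this) (fun _ => hM.zero)
  have hφt := hφ1.tendsto_atTop
  refine ⟨fun m => x (φ1 m), fun m => h' (φ1 m), lam, hx.comp hφt, fun m => hh' _,
    hh0.comp hφt, hlam, fun s => ?_⟩
  obtain ⟨φ, r, hφr⟩ := hO s
  refine ⟨φ, r, outH_congr hφr fun c hc => ?_⟩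
  have hcL := hc0' s hc
  -- the two tangents agree
  have t1 := tan_unique (fun m => hh' (φ1 m)) (hlam j0) (hL'.1 hcL)
  have t2 := tan_unique (fun m => hh' (φ1 m)) (Rc683.tan_comp (hT j0) hφt) hcL
  refine tendsto_nhds_unique t1 (t2.congr fun m => ?_)
  have hy : xt p y0 (rs p y0 + x (φ1 m) • rs p ρ0) = y0 + x (φ1 m) • ρ0 := by
    rw [xt_add0, xt_smul, xt_rs (fun _ _ => rfl), xt_rs fun i hi => by rw [hρ i hi]; rfl]
  have hy2 : xt p y0 (rs p y0 + x (φ1 m) • rs p ρ0 + h' (φ1 m) • c) =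
      y0 + x (φ1 m) • ρ0 + h' (φ1 m) • xt p 0 c := by
    rw [xt_add0, xt_smul, hy]
  simp only [hf']
  rw [hy, hy2]

end Crest.Agent.R136.Sl741
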