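import Crest.Agent.R136.Lgt1_989

/-!
# R136 (S0187), g-free tilt (PLAN 2, L6): slaving of the velocities (helper989)

Two lines of one curved sheet in scaled tangent coordinates of the first one; `x(ζ) = p + ζ v` is
the second one.  If the sheet is of type I at the base line (`δ ≤ |γ 2|`), the second line is close
(`μ`) and its position at one height is `≤ r`, then the narrow velocity is slaved to the wide one:
`|v 2| ≤ (4 |v 1| + 2600 r) / δ` (`slave1`).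

For two sheets with base tilt `Λ` : `|v 1| ≤ C r / (δ² Λ)`, `|v 2| ≤ C r / δ` (`slave2`).
-/

set_option autoImplicit false
set_option linter.unusedVariables false

namespace Crest.Agent.R136.Slv989

open Crest.Agent.R136.Sh605 Crest.Agent.R136.Tl102 Crest.Agent.R136.Lgt989

/-- the polynomial along a line, base point moved to the height `s` -/
theorem Fq_line_at (N R : V3) (G : QF) (s t : ℝ) (p v : V3) :
    Fq N R G (s + t) (bz p v (s + t)) =
      (dt (bz N R s) (bz p v s) + G.ev (bz p v s)) +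
        t * (dt (bz N R s) v + dt R (bz p v s) + G.pol (bz p v s) v) +
        t ^ 2 * (dt R v + G.ev v) := by
  simp only [Fq, dt, bz, QF.ev, QF.pol]; ring

variable {N γ : V3} {G : QF} {δ μ ε r s : ℝ} {p v : V3}

/-- **one sheet** -/
theorem slave1 (n0 : 1 / 2 ≤ N 0) (n0' : N 0 ≤ 2) (n1 : N 1 = 0) (n2 : N 2 = 0)
    (m0 : 1 / 2 ≤ N 0 + γ 0) (m0' : N 0 + γ 0 ≤ 2) (hγ : ∀ k, |γ k| ≤ 3 / 2) (hG : G.Le 13)
    (δ0 : 0 < δ) (hδ : δ ≤ |γ 2|) (hp : ∀ k, |p k| ≤ μ) (hv : ∀ k, |v k| ≤ μ)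
    (hμ : 1248 * μ ≤ δ) (hμ1 : 5000 * μ ≤ 1) (s0 : 0 ≤ s) (s1 : s ≤ 1)
    (h1 : |bz p v s 1| ≤ r) (h2 : |bz p v s 2| ≤ r) (hε : ε ≤ r)
    (hF : ∀ ζ, 0 ≤ ζ → ζ ≤ 1 → |Fq N γ G ζ (bz p v ζ)| ≤ ε) :
    |bz p v s 0| ≤ 12 * r ∧ |v 0| ≤ |v 1| + |v 2| + 2700 * r ∧
      |v 2| ≤ (4 * |v 1| + 2600 * r) / δ := by
  have hr : 0 ≤ r := (abs_nonneg _).trans h1
  have hμ0 : 0 ≤ μ := (abs_nonneg _).trans (hp 0)
  set P : V3 := bz p v s with hP
  have hPb : ∀ k, |P k| ≤ 2 * μ := by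
    intro k
    have e1 : P k = p k + s * v k := rfl
    rw [e1]
    refine (abs_add_le _ _).trans ?_
    have : |s * v k| ≤ 1 * μ := by
      rw [abs_mul, abs_of_nonneg s0]
      exact mul_le_mul s1 (hv k) (abs_nonneg _) zero_le_one
    linarith [hp k]
  -- coefficients at `0`
  obtain ⟨c0, c1, c2⟩ := coef_le (c0 := dt (bz N γ 0) (bz p v 0) + G.ev (bz p v 0))
    (c1 := dt (bz N γ 0) v + dt γ (bz p v 0) + G.pol (bz p v 0) v)
    (c2 := dt γ v + G.ev v) (ε := ε) (by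
      intro ζ h0 h1
      rw [← Fq_line_at, zero_add]
      exact hF ζ h0 h1)
  have a0 : |dt (bz N γ s) P + G.ev P| ≤ ε := by
    have := hF s s0 s1
    have e := Fq_line_at N γ G s 0 p v
    rw [add_zero] at e
    rw [e] at this
    simpa using this
  have a1 : |dt (bz N γ s) v + dt γ P + G.pol P v| ≤ 24 * ε := by
    have e : dt (bz N γ s) v + dt γ P + G.pol P v =
        (dt (bz N γ 0) v + dt γ (bz p v 0) + G.pol (bz p v 0) v) +
          (2 * s) * (dt γ v + G.ev v) := by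
      simp only [hP, dt, bz, QF.ev, QF.pol]; ring
    rw [e]
    refine (abs_add_le _ _).trans ?_
    have : |(2 * s) * (dt γ v + G.ev v)| ≤ 2 * (8 * ε) := by
      rw [abs_mul, abs_of_nonneg (by linarith : 0 ≤ 2 * s)]
      exact mul_le_mul (by linarith) c2 (abs_nonneg _) (by norm_num)
    linarith
  have hNs : 1 / 2 ≤ N 0 + s * γ 0 := by nlinarith
  have hNs' : N 0 + s * γ 0 ≤ 2 := by nlinarith
  -- the position
  obtain ⟨t, ht⟩ : ∃ t, t = |P 0| := ⟨_, rfl⟩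
  have evP : |G.ev P| ≤ 156 * μ * (r + t) := by
    have hPm : ∀ k, |P k| ≤ r + t := by
      intro k
      have t0 : 0 ≤ t := by rw [ht]; exact abs_nonneg _
      fin_cases k
      · change |P 0| ≤ _; rw [← ht]; linarith
      · change |P 1| ≤ _; linarith
      · change |P 2| ≤ _; linarith
    have := Lgt989.ev_le hG hPb hPm
    calc |G.ev P| ≤ 78 * (2 * μ * (r + t)) := this
      _ = 156 * μ * (r + t) := by ring
  have hγP : |γ 1 * P 1 + γ 2 * P 2| ≤ 3 * r := by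
    have m1 := mul_abs_le (hγ 1) h1
    have m2 := mul_abs_le (hγ 2) h2
    refine (abs_add_le _ _).trans ?_
    linarith
  have t0 : 0 ≤ t := by rw [ht]; exact abs_nonneg _
  have ht1 : t ≤ 12 * r := by
    have e : (N 0 + s * γ 0) * P 0 = (dt (bz N γ s) P + G.ev P) -
        s * (γ 1 * P 1 + γ 2 * P 2) - G.ev P := by
      simp only [dt, bz, n1, n2]; ring
    have b1 : (1 / 2) * t ≤ |(N 0 + s * γ 0) * P 0| := by
      rw [abs_mul, abs_of_nonneg (by linarith : 0 ≤ N 0 + s * γ 0), ← ht]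
      exact mul_le_mul_of_nonneg_right hNs t0
    have b2 : |s * (γ 1 * P 1 + γ 2 * P 2)| ≤ 3 * r := by
      rw [abs_mul, abs_of_nonneg s0]
      calc s * |γ 1 * P 1 + γ 2 * P 2| ≤ 1 * (3 * r) :=
            mul_le_mul s1 hγP (abs_nonneg _) zero_le_one
        _ = 3 * r := one_mul _
    rw [e] at b1
    have b3 : |(dt (bz N γ s) P + G.ev P) - s * (γ 1 * P 1 + γ 2 * P 2) - G.ev P| ≤
        ε + 3 * r + 156 * μ * (r + t) := by
      refine (abs_sub _ _).trans (add_le_add ((abs_sub _ _).trans (add_le_add a0 b2)) evP)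
    have b4 : 156 * μ * (r + t) ≤ (1 / 32) * (r + t) :=
      mul_le_mul_of_nonneg_right (by linarith) (by linarith)
    linarith
  -- the velocity
  obtain ⟨y, hy⟩ : ∃ y, y = γ 1 * v 1 + γ 2 * v 2 := ⟨_, rfl⟩
  have hP0 : |P 0| ≤ 12 * r := by rw [← ht]; exact ht1
  have hPm : ∀ k, |P k| ≤ 12 * r := by
    intro k
    fin_cases k
    · exact hP0
    · change |P 1| ≤ _; linarith
    · change |P 2| ≤ _; linarith
  have hdP : |dt γ P| ≤ 21 * r := by
    have m0 := mul_abs_le (hγ 0) hP0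
    have e : dt γ P = γ 0 * P 0 + (γ 1 * P 1 + γ 2 * P 2) := by simp only [dt]; ring
    rw [e]
    refine (abs_add_le _ _).trans ?_
    linarith
  have hpol : |G.pol P v| ≤ r := by
    have := Lgt989.pol_le hG hPm hv
    refine this.trans ?_
    have : 1872 * μ * r ≤ 1 * r := mul_le_mul_of_nonneg_right (by linarith) hr
    linarith
  have b1 : |(N 0 + s * γ 0) * v 0 + s * y| ≤ 46 * r := by
    have e : (N 0 + s * γ 0) * v 0 + s * y = (dt (bz N γ s) v + dt γ P + G.pol P v) -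
        dt γ P - G.pol P v := by
      rw [hy]; simp only [dt, bz, n1, n2]; ring
    rw [e]
    refine (abs_sub _ _).trans ((add_le_add ((abs_sub _ _).trans (add_le_add a1 hdP))
      hpol).trans ?_)
    linarith
  obtain ⟨V, hV⟩ : ∃ V, V = |v 0| + |v 1| + |v 2| := ⟨_, rfl⟩
  have hV0 : ∀ k, |v k| ≤ V := by
    intro k
    have := abs_nonneg (v 0); have := abs_nonneg (v 1); have := abs_nonneg (v 2)
    fin_cases k
    · change |v 0| ≤ V; linarith
    · change |v 1| ≤ V; linarith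
    · change |v 2| ≤ V; linarith
  have evv : |G.ev v| ≤ 78 * (μ * V) := Lgt989.ev_le hG hv hV0
  have b2 : |γ 0 * v 0 + y| ≤ 8 * r + 78 * (μ * V) := by
    have e : γ 0 * v 0 + y = (dt γ v + G.ev v) - G.ev v := by
      rw [hy]; simp only [dt]; ring
    rw [e]
    refine (abs_sub _ _).trans (add_le_add (c2.trans ?_) evv)
    linarith
  -- eliminate `v 0`
  have b3 : |y| ≤ 4 * (8 * r + 78 * (μ * V)) + 276 * r := by
    have e : N 0 * y = (N 0 + s * γ 0) * (γ 0 * v 0 + y) -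
        γ 0 * ((N 0 + s * γ 0) * v 0 + s * y) := by ring
    have c3 : (1 / 2) * |y| ≤ |N 0 * y| := by
      rw [abs_mul, abs_of_nonneg (by linarith : 0 ≤ N 0)]
      exact mul_le_mul_of_nonneg_right n0 (abs_nonneg _)
    rw [e] at c3
    have c4 : |(N 0 + s * γ 0) * (γ 0 * v 0 + y)| ≤ 2 * (8 * r + 78 * (μ * V)) := by
      rw [abs_mul, abs_of_nonneg (by linarith : 0 ≤ N 0 + s * γ 0)]
      exact mul_le_mul hNs' b2 (abs_nonneg _) (by norm_num)
    have c5 := mul_abs_le (hγ 0) b1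
    have c6 := (abs_sub ((N 0 + s * γ 0) * (γ 0 * v 0 + y))
      (γ 0 * ((N 0 + s * γ 0) * v 0 + s * y)))
    linarith
  have b4 : |v 0| ≤ 2 * |y| + 92 * r := by
    have e : (N 0 + s * γ 0) * v 0 = ((N 0 + s * γ 0) * v 0 + s * y) - s * y := by ring
    have c3 : (1 / 2) * |v 0| ≤ |(N 0 + s * γ 0) * v 0| := by
      rw [abs_mul, abs_of_nonneg (by linarith : 0 ≤ N 0 + s * γ 0)]
      exact mul_le_mul_of_nonneg_right hNs (abs_nonneg _)
    rw [e] at c3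
    have c4 : |s * y| ≤ |y| := by
      rw [abs_mul, abs_of_nonneg s0]
      calc s * |y| ≤ 1 * |y| := mul_le_mul_of_nonneg_right s1 (abs_nonneg _)
        _ = |y| := one_mul _
    have c6 := abs_sub ((N 0 + s * γ 0) * v 0 + s * y) (s * y)
    linarith
  have v1n := abs_nonneg (v 1)
  have v2n := abs_nonneg (v 2)
  have v0n := abs_nonneg (v 0)
  have yn := abs_nonneg y
  -- `|y| ≤ 624 μ (|v1| + |v2|) + 700 r`
  have b5 : |y| ≤ 624 * (μ * (|v 1| + |v 2|)) + 700 * r := by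
    have c1 : μ * V ≤ μ * (2 * |y| + 92 * r + |v 1| + |v 2|) :=
      mul_le_mul_of_nonneg_left (by rw [hV]; linarith) hμ0
    have c2 : μ * (2 * |y| + 92 * r) ≤ (1 / 5000) * (2 * |y| + 92 * r) :=
      mul_le_mul_of_nonneg_right (by linarith) (by linarith)
    have e : μ * (2 * |y| + 92 * r + |v 1| + |v 2|) = μ * (2 * |y| + 92 * r) +
        μ * (|v 1| + |v 2|) := by ring
    rw [e] at c1
    linarith
  have c7 : 624 * (μ * (|v 1| + |v 2|)) ≤ (1 / 8) * (|v 1| + |v 2|) := by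
    have : μ * (|v 1| + |v 2|) ≤ (1 / 5000) * (|v 1| + |v 2|) :=
      mul_le_mul_of_nonneg_right (by linarith) (by linarith)
    linarith
  refine ⟨hP0, by linarith, ?_⟩
  rw [le_div_iff₀ δ0]
  have c8 : |v 2| * δ ≤ |γ 2 * v 2| := by
    rw [abs_mul, mul_comm]
    exact mul_le_mul_of_nonneg_right hδ (abs_nonneg _)
  have c9 : |γ 2 * v 2| ≤ |y| + 3 / 2 * |v 1| := by
    have e : γ 2 * v 2 = y - γ 1 * v 1 := by rw [hy]; ring
    rw [e]
    refine (abs_sub _ _).trans (add_le_add le_rfl ?_)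
    rw [abs_mul]
    exact mul_le_mul_of_nonneg_right (hγ 1) v1n
  have c10 : 624 * (μ * |v 2|) ≤ (1 / 2) * (|v 2| * δ) := by
    have : 1248 * μ * |v 2| ≤ δ * |v 2| := mul_le_mul_of_nonneg_right hμ v2n
    linarith
  have c11 : 624 * (μ * |v 1|) ≤ (1 / 8) * |v 1| := by
    have : μ * |v 1| ≤ (1 / 5000) * |v 1| := mul_le_mul_of_nonneg_right (by linarith) v1n
    linarith
  have e : 624 * (μ * (|v 1| + |v 2|)) = 624 * (μ * |v 1|) + 624 * (μ * |v 2|) := by ring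
  linarith

/-- **two sheets, base tilt `Λ ≤ |A|`** (abstract coordinates): the velocities and the position of
the second common line are slaved to the strip box of size `r` -/
theorem slave2 {N' γ' : V3} {G' : QF} {p' v' : V3} {K A Λ : ℝ}
    (n0 : 1 / 2 ≤ N 0) (n0' : N 0 ≤ 2) (n1 : N 1 = 0) (n2 : N 2 = 0)
    (m0 : 1 / 2 ≤ N 0 + γ 0) (m0' : N 0 + γ 0 ≤ 2) (hγ : ∀ k, |γ k| ≤ 3 / 2) (hG : G.Le 13)
    (a0 : 1 / 2 ≤ N' 0) (a0' : N' 0 ≤ 2) (a1 : N' 1 = 0) (a2 : N' 2 = 0)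
    (b0 : 1 / 2 ≤ N' 0 + γ' 0) (b0' : N' 0 + γ' 0 ≤ 2) (hγ' : ∀ k, |γ' k| ≤ 3 / 2)
    (hG' : G'.Le 13)
    (δ0 : 0 < δ) (δ1 : δ ≤ 1) (hδ : δ ≤ |γ 2|) (hδ' : δ ≤ |γ' 2|)
    (hp : ∀ k, |p k| ≤ μ) (hv : ∀ k, |v k| ≤ μ) (hp' : ∀ k, |p' k| ≤ μ) (hv' : ∀ k, |v' k| ≤ μ)
    (hμ : 5000 * μ ≤ δ) (s0 : 0 ≤ s) (s1 : s ≤ 1)
    (h1 : |bz p v s 1| ≤ r) (h2 : |bz p v s 2| ≤ r)
    (h1' : |bz p' v' s 1| ≤ r) (h2' : |bz p' v' s 2| ≤ r) (hε : ε ≤ r)
    (hF : ∀ ζ, 0 ≤ ζ → ζ ≤ 1 → |Fq N γ G ζ (bz p v ζ)| ≤ ε)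
    (hF' : ∀ ζ, 0 ≤ ζ → ζ ≤ 1 → |Fq N' γ' G' ζ (bz p' v' ζ)| ≤ ε)
    (K1 : 1 ≤ K) (hΛ : 100 * K / δ ^ 2 ≤ Λ) (hA : Λ ≤ |A|)
    (r1 : |v' 1| ≤ K * (|v 0| + |v 1| + |v 2|))
    (r2 : |v' 2 - A * v 1| ≤ K * (|v 0| + |v 1| + |v 2|))
    (r3 : |bz p' v' s 2 - A * bz p v s 1| ≤ K * (|bz p v s 0| + |bz p v s 1| + |bz p v s 2|)) :
    |bz p v s 0| ≤ 12 * r ∧ |bz p v s 1| ≤ 15 * K * r / Λ ∧ |v 1| ≤ 84200 * K * r / (δ ^ 2 * Λ) ∧
      |v 2| ≤ 6000 * r / δ ∧ |v 0| ≤ 10000 * r / δ := by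
  have hr : 0 ≤ r := (abs_nonneg _).trans h1
  obtain ⟨q1, q2, q3⟩ := slave1 n0 n0' n1 n2 m0 m0' hγ hG δ0 hδ hp hv (by linarith [(abs_nonneg _).trans (hp 0)])
    (by linarith) s0 s1 h1 h2 hε hF
  obtain ⟨-, -, t3⟩ := slave1 a0 a0' a1 a2 b0 b0' hγ' hG' δ0 hδ' hp' hv'
    (by linarith [(abs_nonneg _).trans (hp 0)]) (by linarith) s0 s1 h1' h2' hε hF'
  have hδ2 : 0 < δ ^ 2 := by positivity
  have K0 : 0 < K := by linarith
  have Λ0 : 0 < Λ := lt_of_lt_of_le (by positivity) hΛ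
  have v0n := abs_nonneg (v 0)
  have v1n := abs_nonneg (v 1)
  have v2n := abs_nonneg (v 2)
  obtain ⟨V, hV⟩ : ∃ V, V = |v 0| + |v 1| + |v 2| := ⟨_, rfl⟩
  have hV1 : V ≤ 2 * (|v 1| + |v 2|) + 2700 * r := by rw [hV]; linarith
  rw [← hV] at r1 r2
  have tri : ∀ x y : ℝ, |y| ≤ |x| + |x - y| := by
    intro x y
    have := abs_sub x (x - y)
    have e : x - (x - y) = y := by ring
    rw [e] at this
    exact this
  -- position
  have p1 : |bz p v s 1| ≤ 15 * K * r / Λ := by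
    rw [le_div_iff₀ Λ0]
    have c1 : Λ * |bz p v s 1| ≤ |A * bz p v s 1| := by
      rw [abs_mul]; exact mul_le_mul_of_nonneg_right hA (abs_nonneg _)
    have c2 := tri (bz p' v' s 2) (A * bz p v s 1)
    have c3 : K * (|bz p v s 0| + |bz p v s 1| + |bz p v s 2|) ≤ K * (14 * r) :=
      mul_le_mul_of_nonneg_left (by linarith) K0.le
    have c4 : r ≤ K * r := le_mul_of_one_le_left hr K1
    linarith
  -- velocity
  have d1 : |v 1| + |v 2| ≤ (5 * |v 1| + 2600 * r) / δ := by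
    rw [le_div_iff₀ δ0]
    rw [le_div_iff₀ δ0] at q3
    have c1 : |v 1| * δ ≤ |v 1| * 1 := mul_le_mul_of_nonneg_left δ1 v1n
    linarith
  have c1 : Λ * |v 1| ≤ |A * v 1| := by
    rw [abs_mul]; exact mul_le_mul_of_nonneg_right hA (abs_nonneg _)
  have c2 := tri (v' 2) (A * v 1)
  have c3 : |v' 2| ≤ (4 * (K * V) + 2600 * r) / δ := by
    refine t3.trans ?_
    exact div_le_div_of_nonneg_right (by linarith) δ0.le
  have KV0 : 0 ≤ K * V := mul_nonneg K0.le (by rw [hV]; positivity)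
  have c4 : K * V ≤ K * V / δ := by
    rw [le_div_iff₀ δ0]
    exact mul_le_of_le_one_right KV0 δ1
  have c5 : Λ * |v 1| ≤ (5 * (K * V) + 2600 * r) / δ := by
    have e : (5 * (K * V) + 2600 * r) / δ = (4 * (K * V) + 2600 * r) / δ + K * V / δ := by ring
    rw [e]; linarith
  have c6 : 5 * (K * V) + 2600 * r ≤ K * (10 * (|v 1| + |v 2|) + 16100 * r) := by
    have e1 : K * V ≤ K * (2 * (|v 1| + |v 2|) + 2700 * r) := mul_le_mul_of_nonneg_left hV1 K0.le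
    have e2 : r ≤ K * r := le_mul_of_one_le_left hr K1
    have e3 : K * (2 * (|v 1| + |v 2|) + 2700 * r) = 2 * (K * (|v 1| + |v 2|)) + 2700 * (K * r) := by
      ring
    have e4 : K * (10 * (|v 1| + |v 2|) + 16100 * r) =
      10 * (K * (|v 1| + |v 2|)) + 16100 * (K * r) := by ring
    rw [e3] at e1
    rw [e4]; linarith
  have c7 : 10 * (|v 1| + |v 2|) + 16100 * r ≤ (50 * |v 1| + 42100 * r) / δ := by
    have e1 : 16100 * r ≤ 16100 * r / δ := by
      rw [le_div_iff₀ δ0]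
      exact mul_le_of_le_one_right (by positivity) δ1
    have e2 : (50 * |v 1| + 42100 * r) / δ = 10 * ((5 * |v 1| + 2600 * r) / δ) + 16100 * r / δ := by
      ring
    rw [e2]; linarith
  have c8 : Λ * |v 1| ≤ K * (50 * |v 1| + 42100 * r) / δ ^ 2 := by
    have e1 : K * (10 * (|v 1| + |v 2|) + 16100 * r) ≤ K * ((50 * |v 1| + 42100 * r) / δ) :=
      mul_le_mul_of_nonneg_left c7 K0.le
    have e2 : (5 * (K * V) + 2600 * r) / δ ≤ K * ((50 * |v 1| + 42100 * r) / δ) / δ :=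
      div_le_div_of_nonneg_right (c6.trans e1) δ0.le
    have e3 : K * ((50 * |v 1| + 42100 * r) / δ) / δ = K * (50 * |v 1| + 42100 * r) / δ ^ 2 := by
      field_simp
    rw [e3] at e2
    exact c5.trans e2
  have w1 : |v 1| ≤ 84200 * K * r / (δ ^ 2 * Λ) := by
    rw [le_div_iff₀ (by positivity)]
    rw [le_div_iff₀ hδ2] at c8
    have e1 : 100 * K * |v 1| ≤ Λ * δ ^ 2 * |v 1| := by
      rw [div_le_iff₀ hδ2] at hΛ
      exact mul_le_mul_of_nonneg_right hΛ v1n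
    have e2 : |v 1| * (δ ^ 2 * Λ) = Λ * δ ^ 2 * |v 1| := by ring
    have e3 : Λ * |v 1| * δ ^ 2 = Λ * δ ^ 2 * |v 1| := by ring
    rw [e3] at c8
    rw [e2]
    linarith
  have w1' : |v 1| ≤ 842 * r := by
    refine w1.trans ?_
    rw [div_le_iff₀ (by positivity)]
    rw [div_le_iff₀ hδ2] at hΛ
    have := mul_le_mul_of_nonneg_right hΛ hr
    linarith
  have w2 : |v 2| ≤ 6000 * r / δ := by
    refine q3.trans (div_le_div_of_nonneg_right ?_ δ0.le)
    linarith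
  refine ⟨q1, p1, w1, w2, ?_⟩
  have e1 : r ≤ r / δ := by
    rw [le_div_iff₀ δ0]; exact mul_le_of_le_one_right hr δ1
  have e2 : 10000 * r / δ = 6000 * r / δ + 4000 * (r / δ) := by ring
  rw [e2]
  linarith

end Crest.Agent.R136.Slv989
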