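import Crest.Agent.R136.Slv1_989
import Crest.Agent.R136.Lgt2_989

/-!
# R136 (S0187), g-free tilt (PLAN 2, L6): the strip box (helper989)

`strip_box` : `S, S'` sheets (`ShN`) over one cell, `T, T'` in both, both of type I at `T`, base tilt
`Λ ≤ |<e' 2, e 1>| w 1 / w' 2`; if `T'` is within `r` of `T` at ONE height (in units of both boxes) then
on the whole cell `|<e 1, T' - T>| ≤ C r w₁ / (δ² Λ)` and `|<e 2, T' - T>| ≤ C r w₂ / δ`.
-/

set_option autoImplicit false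
set_option linter.unusedVariables false

namespace Crest.Agent.R136.Slv989

open Crest.Agent.R136.Sh605 Crest.Agent.R136.Tl102 Crest.Agent.R136.Lgt989
open Crest.Agent.R136.Mdr535 (ty)

/-- entries of a frame in another one -/
theorem dt_le_one {e e' : Fin 3 → V3} (he : Ortho e) (he' : Ortho e') (i j : Fin 3) :
    |dt (e i) (e' j)| ≤ 1 := by
  have h1 : dt (e i) (e i) = 1 := by have := he i i; simpa using this
  have h2 : dt (e' j) (e' j) = 1 := by have := he' j j; simpa using this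
  simp only [dt] at h1 h2 ⊢
  rw [abs_le]
  constructor
  · nlinarith [sq_nonneg (e i 0 + e' j 0), sq_nonneg (e i 1 + e' j 1), sq_nonneg (e i 2 + e' j 2)]
  · nlinarith [sq_nonneg (e i 0 - e' j 0), sq_nonneg (e i 1 - e' j 1), sq_nonneg (e i 2 - e' j 2)]

/-- coordinates of a displacement in the other frame -/
theorem crd_rel {e e' : Fin 3 → V3} {w w' : V3} (he : Ortho e) (he' : Ortho e')
    (hw : ∀ i, 0 < w i) (hw' : ∀ i, 0 < w' i) (w02 : w 0 ≤ w 2) (w21 : w 2 ≤ w 1) {W : ℝ}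
    (hW1 : w 1 ≤ W * w' 1) (hW2 : w 2 ≤ W * w' 2) {b0 : V3} (s1 : |b0 1 / b0 0| ≤ 2)
    (s2 : |b0 2 / b0 0| ≤ 2) {κ : ℝ} (hκ : 0 < κ) (hκ1 : κ ≤ 13) (b0' : V3) (κ' : ℝ) (X : V3) :
    |crdS e' w' b0' κ' X 1| ≤ 13 * W *
        (|crdS e w b0 κ X 0| + |crdS e w b0 κ X 1| + |crdS e w b0 κ X 2|) ∧
      |crdS e' w' b0' κ' X 2 - (dt (e' 2) (e 1) * w 1 / w' 2) * crdS e w b0 κ X 1| ≤ 13 * W *
        (|crdS e w b0 κ X 0| + |crdS e w b0 κ X 1| + |crdS e w b0 κ X 2|) := by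
  set x : V3 := crdS e w b0 κ X with hx
  have hX : X = cmb (fr e w) (Phi b0 κ x) := (cmb_crdS he hw b0 hκ X).symm
  obtain ⟨y, hy⟩ : ∃ y, y = κ * x 0 - b0 1 / b0 0 * x 1 - b0 2 / b0 0 * x 2 := ⟨_, rfl⟩
  have hdt : ∀ u : V3, dt u X = w 0 * y * dt u (e 0) + w 1 * x 1 * dt u (e 1) +
      w 2 * x 2 * dt u (e 2) := by
    intro u
    rw [hX, hy]
    simp only [dt, cmb, fr, Phi, unsh, Pi.smul_apply, smul_eq_mul, Matrix.cons_val]; ring
  have x0n := abs_nonneg (x 0)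
  have x1n := abs_nonneg (x 1)
  have x2n := abs_nonneg (x 2)
  have hyb : |y| ≤ 13 * |x 0| + 2 * |x 1| + 2 * |x 2| := by
    rw [hy]
    refine (abs_sub _ _).trans (add_le_add ((abs_sub _ _).trans (add_le_add ?_ ?_)) ?_)
    · rw [abs_mul, abs_of_pos hκ]
      exact mul_le_mul_of_nonneg_right hκ1 x0n
    · rw [abs_mul]; exact mul_le_mul_of_nonneg_right s1 x1n
    · rw [abs_mul]; exact mul_le_mul_of_nonneg_right s2 x2n
  have w0p := hw 0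
  have w1p := hw 1
  have w2p := hw 2
  have w1p' := hw' 1
  have w2p' := hw' 2
  have hW0 : 0 < W := by
    by_contra hc
    push Not at hc
    have : W * w' 2 ≤ 0 := mul_nonpos_of_nonpos_of_nonneg hc w2p'.le
    linarith
  -- each term
  have T0 : ∀ u : V3, |dt u (e 0)| ≤ 1 → |w 0 * y * dt u (e 0)| ≤ w 0 * |y| := by
    intro u hu
    rw [abs_mul, abs_mul, abs_of_pos w0p]
    exact mul_le_of_le_one_right (by positivity) hu
  have T2 : ∀ u : V3, |dt u (e 2)| ≤ 1 → |w 2 * x 2 * dt u (e 2)| ≤ w 2 * |x 2| := by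
    intro u hu
    rw [abs_mul, abs_mul, abs_of_pos w2p]
    exact mul_le_of_le_one_right (by positivity) hu
  have T1 : ∀ u : V3, |dt u (e 1)| ≤ 1 → |w 1 * x 1 * dt u (e 1)| ≤ w 1 * |x 1| := by
    intro u hu
    rw [abs_mul, abs_mul, abs_of_pos w1p]
    exact mul_le_of_le_one_right (by positivity) hu
  constructor
  · change |dt (e' 1) X / w' 1| ≤ _
    rw [abs_div, abs_of_pos w1p', div_le_iff₀ w1p', hdt]
    have a1 := T0 (e' 1) (dt_le_one he' he 1 0)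
    have a2 := T1 (e' 1) (dt_le_one he' he 1 1)
    have a3 := T2 (e' 1) (dt_le_one he' he 1 2)
    have b1 : |w 0 * y * dt (e' 1) (e 0) + w 1 * x 1 * dt (e' 1) (e 1) +
        w 2 * x 2 * dt (e' 1) (e 2)| ≤ w 0 * |y| + w 1 * |x 1| + w 2 * |x 2| :=
      (abs_add_le _ _).trans (add_le_add ((abs_add_le _ _).trans (add_le_add a1 a2)) a3)
    refine b1.trans ?_
    have c1 : w 0 * |y| ≤ w 1 * (13 * |x 0| + 2 * |x 1| + 2 * |x 2|) :=
      mul_le_mul (by linarith) hyb (abs_nonneg _) w1p.le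
    have c2 : w 2 * |x 2| ≤ w 1 * |x 2| := mul_le_mul_of_nonneg_right w21 x2n
    have c3 : w 1 * (13 * (|x 0| + |x 1| + |x 2|)) ≤ W * w' 1 * (13 * (|x 0| + |x 1| + |x 2|)) :=
      mul_le_mul_of_nonneg_right hW1 (by positivity)
    have c4 : 0 ≤ w 1 * |x 1| := by positivity
    have c5 : 0 ≤ w 1 * |x 2| := by positivity
    linarith
  · change |dt (e' 2) X / w' 2 - (dt (e' 2) (e 1) * w 1 / w' 2) * x 1| ≤ _
    have e1 : dt (e' 2) X / w' 2 - (dt (e' 2) (e 1) * w 1 / w' 2) * x 1 =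
        (w 0 * y * dt (e' 2) (e 0) + w 2 * x 2 * dt (e' 2) (e 2)) / w' 2 := by
      rw [hdt]; field_simp; ring
    rw [e1, abs_div, abs_of_pos w2p', div_le_iff₀ w2p']
    have a1 := T0 (e' 2) (dt_le_one he' he 2 0)
    have a3 := T2 (e' 2) (dt_le_one he' he 2 2)
    refine ((abs_add_le _ _).trans (add_le_add a1 a3)).trans ?_
    have c1 : w 0 * |y| ≤ w 2 * (13 * |x 0| + 2 * |x 1| + 2 * |x 2|) :=
      mul_le_mul w02 hyb (abs_nonneg _) w2p.le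
    have c3 : w 2 * (13 * (|x 0| + |x 1| + |x 2|)) ≤ W * w' 2 * (13 * (|x 0| + |x 1| + |x 2|)) :=
      mul_le_mul_of_nonneg_right hW2 (by positivity)
    have c4 : 0 ≤ w 2 * |x 1| := by positivity
    have c5 : 0 ≤ w 2 * |x 2| := by positivity
    linarith

variable {e e' : Fin 3 → V3} {c c' : Ln4} {w w' : V3} {q q' : ℝ → V3 → ℝ} {a a' z0 ρ r0 r0' : ℝ}

/-- the data of one sheet along the base line -/
theorem sheet_data (S : ShN e c w q a z0 ρ r0) (hr : 0 < r0) (hρ : 0 < ρ) {T T' : Ln4}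
    (hT : InSheet T e c w q a z0 ρ) (hT' : InSheet T' e c w q a z0 ρ) {b0 b1 : V3} {G : QF}
    (hE : IsExp q e w T z0 ρ b0 b1 G) (hκ : 0 < kap b0 b1 G) {μ0 : ℝ} (hμ : 4 * μ0 ≤ 1)
    (ha : a ≤ μ0 * (w 0 * kap b0 b1 G))
    (h : ∀ z, z = z0 ∨ z = z0 + ρ →
      |dt (e 1) (T'.pos z - T.pos z)| ≤ μ0 * w 1 ∧ |dt (e 2) (T'.pos z - T.pos z)| ≤ μ0 * w 2) :
    (∀ k, |pp e w b0 (kap b0 b1 G) T z0 T' k| ≤ 20 * μ0) ∧
    (∀ k, |vv e w b0 (kap b0 b1 G) T z0 ρ T' k| ≤ 20 * μ0) ∧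
    ∀ ζ, 0 ≤ ζ → ζ ≤ 1 → |Fq (shB0 b0) (scB1 (kap b0 b1 G) b0 b1) (scG (kap b0 b1 G) b0 G) ζ
      (bz (pp e w b0 (kap b0 b1 G) T z0 T') (vv e w b0 (kap b0 b1 G) T z0 ρ T') ζ)| ≤
        2 * a / (w 0 * kap b0 b1 G) := by
  have hap : 0 < a := by linarith [S.r0_le]
  have hw0 : 0 < w 0 := by linarith [S.a_le0]
  have Q := StP.of_shN S hw0
  have hw := Q.pos
  have hμ0 : 0 ≤ μ0 := by
    by_contra hc
    push Not at hc
    have : μ0 * (w 0 * kap b0 b1 G) < 0 := mul_neg_of_neg_of_pos hc (mul_pos hw0 hκ)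
    linarith
  have P := pair_of S hr hρ hT hT hT' hE hκ hμ ha (by
    intro X hX z hz
    rcases hX with rfl | rfl
    · rw [sub_self]
      have z1 : dt (e 1) (0 : V3) = 0 := by simp [dt]
      have z2 : dt (e 2) (0 : V3) = 0 := by simp [dt]
      rw [z1, z2, abs_zero]
      exact ⟨mul_nonneg hμ0 (hw 1).le, mul_nonneg hμ0 (hw 2).le⟩
    · exact h z hz)
  refine ⟨P.hp', P.hv', fun ζ h0 h1 => ?_⟩
  have h2 := P.val ζ h0 h1
  have e1 : Fq (shB0 b0) (scB1 (kap b0 b1 G) b0 b1) (scG (kap b0 b1 G) b0 G) ζ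
      (bz (pp e w b0 (kap b0 b1 G) T z0 T) (vv e w b0 (kap b0 b1 G) T z0 ρ T) ζ) = 0 := by
    have e2 : bz (pp e w b0 (kap b0 b1 G) T z0 T) (vv e w b0 (kap b0 b1 G) T z0 ρ T) ζ = 0 := by
      rw [bz_pp]
      funext k
      unfold pp
      rw [sub_self]
      fin_cases k <;> simp [crdS, ty, dt]
    rw [e2]
    simp [Fq, dt, QF.ev]
  rw [e1, sub_zero] at h2
  exact h2

/-- **STRIP BOX** -/
theorem strip_box (S : ShN e c w q a z0 ρ r0) (S' : ShN e' c' w' q' a' z0 ρ r0') (hr : 0 < r0)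
    (hr' : 0 < r0') (hρ : 0 < ρ) {T T' : Ln4} (hT : InSheet T e c w q a z0 ρ)
    (hT' : InSheet T' e c w q a z0 ρ) (kT : InSheet T e' c' w' q' a' z0 ρ)
    (kT' : InSheet T' e' c' w' q' a' z0 ρ) {b0 b1 b0' b1' : V3} {G G' : QF}
    (hE : IsExp q e w T z0 ρ b0 b1 G) (hE' : IsExp q' e' w' T z0 ρ b0' b1' G')
    (hκ : 0 < kap b0 b1 G) (hκ' : 0 < kap b0' b1' G') {δ μ0 W Λ r : ℝ} (δ0 : 0 < δ) (δ1 : δ ≤ 1)
    (hδ : δ * kap b0 b1 G ≤ |shB1 b0 b1 2|) (hδ' : δ * kap b0' b1' G' ≤ |shB1 b0' b1' 2|)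
    (hμ : 100000 * μ0 ≤ δ) (W1 : 1 ≤ W) (hW1 : w 1 ≤ W * w' 1) (hW2 : w 2 ≤ W * w' 2)
    (hΛ : 1300 * W / δ ^ 2 ≤ Λ) (hA : Λ * w' 2 ≤ |dt (e' 2) (e 1)| * w 1)
    (ha : a ≤ μ0 * (w 0 * kap b0 b1 G)) (ha' : a' ≤ μ0 * (w' 0 * kap b0' b1' G'))
    (h : ∀ z, z = z0 ∨ z = z0 + ρ →
      |dt (e 1) (T'.pos z - T.pos z)| ≤ μ0 * w 1 ∧ |dt (e 2) (T'.pos z - T.pos z)| ≤ μ0 * w 2)
    (h' : ∀ z, z = z0 ∨ z = z0 + ρ →
      |dt (e' 1) (T'.pos z - T.pos z)| ≤ μ0 * w' 1 ∧ |dt (e' 2) (T'.pos z - T.pos z)| ≤ μ0 * w' 2)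
    (hra : 2 * a ≤ r * (w 0 * kap b0 b1 G)) (hra' : 2 * a' ≤ r * (w' 0 * kap b0' b1' G'))
    {zs : ℝ} (z1 : z0 ≤ zs) (z2 : zs ≤ z0 + ρ)
    (p1 : |dt (e 1) (T'.pos zs - T.pos zs)| ≤ r * w 1)
    (p2 : |dt (e 2) (T'.pos zs - T.pos zs)| ≤ r * w 2)
    (p1' : |dt (e' 1) (T'.pos zs - T.pos zs)| ≤ r * w' 1)
    (p2' : |dt (e' 2) (T'.pos zs - T.pos zs)| ≤ r * w' 2) :
    ∀ z, z0 ≤ z → z ≤ z0 + ρ →
      |dt (e 1) (T'.pos z - T.pos z)| ≤ 1100000 * W * r / (δ ^ 2 * Λ) * w 1 ∧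
      |dt (e 2) (T'.pos z - T.pos z)| ≤ 6001 * r / δ * w 2 ∧
      |ty e w b0 (T'.pos z - T.pos z)| ≤ 10012 * r / δ * (kap b0 b1 G * w 0) := by
  have hap : 0 < a := by linarith [S.r0_le]
  have hw0 : 0 < w 0 := by linarith [S.a_le0]
  have hap' : 0 < a' := by linarith [S'.r0_le]
  have hw0' : 0 < w' 0 := by linarith [S'.a_le0]
  have Q := StP.of_shN S hw0
  have Q' := StP.of_shN S' hw0'
  have hw := Q.pos
  have hw' := Q'.pos
  have N := hE.nrmC Q hρ.le fun z hz hz' => (hT z hz hz').1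
  have N' := hE'.nrmC Q' hρ.le fun z hz hz' => (kT z hz hz').1
  set κ := kap b0 b1 G with hκd
  set κ' := kap b0' b1' G' with hκd'
  have hwκ : 0 < w 0 * κ := mul_pos hw0 hκ
  have hwκ' : 0 < w' 0 * κ' := mul_pos hw0' hκ'
  have hr0 : 0 ≤ r := by
    by_contra hc
    push Not at hc
    have := mul_neg_of_neg_of_pos hc hwκ
    linarith
  have hμ4 : 4 * μ0 ≤ 1 := by linarith
  obtain ⟨A1, A2, A3⟩ := sheet_data S hr hρ hT hT' hE hκ hμ4 ha h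
  obtain ⟨B1, B2, B3⟩ := sheet_data S' hr' hρ kT kT' hE' hκ' hμ4 ha' h'
  obtain ⟨n1, n2, n3, n4, -, -, -, n5, n6⟩ := N.b1_le
  obtain ⟨m1, m2, m3, m4, -, -, -, m5, m6⟩ := N'.b1_le
  obtain ⟨-, c2, -, -, c5, c6, c7, c8, c9, c10⟩ := N.sc_le hκ
  obtain ⟨-, d2, -, -, d5, d6, d7, d8, d9, d10⟩ := N'.sc_le hκ'
  rw [← hκd] at c2 c5 c6 c7 c8 c9 c10 A1 A2 A3
  rw [← hκd'] at d2 d5 d6 d7 d8 d9 d10 B1 B2 B3
  set p := pp e w b0 κ T z0 T' with hp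
  set v := vv e w b0 κ T z0 ρ T' with hv
  set p' := pp e' w' b0' κ' T z0 T' with hp'
  set v' := vv e' w' b0' κ' T z0 ρ T' with hv'
  obtain ⟨s, hs⟩ : ∃ s, s = (zs - z0) / ρ := ⟨_, rfl⟩
  have hs1 : z0 + ρ * s = zs := by rw [hs]; field_simp; ring
  have s0 : 0 ≤ s := by rw [hs]; exact div_nonneg (by linarith) hρ.le
  have s1 : s ≤ 1 := by rw [hs, div_le_one hρ]; linarith
  have bs : bz p v s = crdS e w b0 κ (T'.pos zs - T.pos zs) := by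
    rw [hp, hv, bz_pp, hs1]; rfl
  have bs' : bz p' v' s = crdS e' w' b0' κ' (T'.pos zs - T.pos zs) := by
    rw [hp', hv', bz_pp, hs1]; rfl
  have w1p := hw 1
  have w2p := hw 2
  have w1p' := hw' 1
  have w2p' := hw' 2
  have P1 : |bz p v s 1| ≤ r := by
    rw [bs]
    change |dt (e 1) (T'.pos zs - T.pos zs) / w 1| ≤ r
    rw [abs_div, abs_of_pos w1p, div_le_iff₀ w1p]; exact p1
  have P2 : |bz p v s 2| ≤ r := by
    rw [bs]
    change |dt (e 2) (T'.pos zs - T.pos zs) / w 2| ≤ r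
    rw [abs_div, abs_of_pos w2p, div_le_iff₀ w2p]; exact p2
  have P1' : |bz p' v' s 1| ≤ r := by
    rw [bs']
    change |dt (e' 1) (T'.pos zs - T.pos zs) / w' 1| ≤ r
    rw [abs_div, abs_of_pos w1p', div_le_iff₀ w1p']; exact p1'
  have P2' : |bz p' v' s 2| ≤ r := by
    rw [bs']
    change |dt (e' 2) (T'.pos zs - T.pos zs) / w' 2| ≤ r
    rw [abs_div, abs_of_pos w2p', div_le_iff₀ w2p']; exact p2'
  have w02 := S.w0_le
  have w21 := S.w_le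
  have hκ13 : κ ≤ 13 := Tl102.kap_le N
  set A : ℝ := dt (e' 2) (e 1) * w 1 / w' 2 with hAd
  have hAabs : Λ ≤ |A| := by
    rw [hAd, abs_div, abs_of_pos w2p', abs_mul, abs_of_pos w1p, le_div_iff₀ w2p']
    exact hA
  -- velocity as coordinates of a displacement
  set X : V3 := (T'.pos (z0 + ρ) - T.pos (z0 + ρ)) - (T'.pos z0 - T.pos z0) with hX
  have hvX : v = crdS e w b0 κ X := by
    funext k
    rw [hX, crdS_sub]; rfl
  have hvX' : v' = crdS e' w' b0' κ' X := by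
    funext k
    rw [hX, crdS_sub]; rfl
  obtain ⟨r1, r2⟩ := crd_rel S.ortho S'.ortho hw hw' w02 w21 hW1 hW2 n5 n6 hκ hκ13 b0' κ' X
  obtain ⟨-, r3⟩ := crd_rel S.ortho S'.ortho hw hw' w02 w21 hW1 hW2 n5 n6 hκ hκ13 b0' κ'
    (T'.pos zs - T.pos zs)
  rw [← hvX, ← hvX'] at r1 r2
  rw [← bs, ← bs'] at r3
  have hγ2 : δ ≤ |scB1 κ b0 b1 2| := by
    change δ ≤ |shB1 b0 b1 2 / κ|
    rw [abs_div, abs_of_pos hκ, le_div_iff₀ hκ]; exact hδ
  have hγ2' : δ ≤ |scB1 κ' b0' b1' 2| := by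
    change δ ≤ |shB1 b0' b1' 2 / κ'|
    rw [abs_div, abs_of_pos hκ', le_div_iff₀ hκ']; exact hδ'
  have hε1 : ∀ ζ, 0 ≤ ζ → ζ ≤ 1 → |Fq (shB0 b0) (scB1 κ b0 b1) (scG κ b0 G) ζ (bz p v ζ)| ≤ r :=
    fun ζ h0 h1 => (A3 ζ h0 h1).trans (by rw [div_le_iff₀ hwκ]; exact hra)
  have hε2 : ∀ ζ, 0 ≤ ζ → ζ ≤ 1 →
      |Fq (shB0 b0') (scB1 κ' b0' b1') (scG κ' b0' G') ζ (bz p' v' ζ)| ≤ r :=
    fun ζ h0 h1 => (B3 ζ h0 h1).trans (by rw [div_le_iff₀ hwκ']; exact hra')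
  obtain ⟨k1, k2, k3, k4, k5⟩ := slave2 (N := shB0 b0) (γ := scB1 κ b0 b1) (G := scG κ b0 G)
    (N' := shB0 b0') (γ' := scB1 κ' b0' b1') (G' := scG κ' b0' G') (δ := δ) (μ := 20 * μ0)
    (ε := r) (r := r) (s := s) (p := p) (v := v) (p' := p') (v' := v') (K := 13 * W) (A := A)
    (Λ := Λ) n1 n2 rfl rfl n3 n4 c2
    ⟨c5, by linarith, by linarith, by linarith, by linarith, by linarith⟩ m1 m2 rfl rfl m3 m4 d2
    ⟨d5, by linarith, by linarith, by linarith, by linarith, by linarith⟩ δ0 δ1 hγ2 hγ2' A1 A2 B1 B2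
    (by linarith) s0 s1 P1 P2 P1' P2' le_rfl hε1 hε2 (by linarith) (by
      have e1 : 100 * (13 * W) / δ ^ 2 = 1300 * W / δ ^ 2 := by ring
      rw [e1]; exact hΛ) hAabs r1 r2 r3
  have hδ2 : 0 < δ ^ 2 := by positivity
  have hδ21 : δ ^ 2 ≤ 1 := pow_le_one₀ δ0.le δ1
  have Λ0 : 0 < Λ := lt_of_lt_of_le (by positivity) hΛ
  intro z hz hz'
  obtain ⟨ζ, hζ, hζ0, hζ1⟩ : ∃ ζ, z0 + ρ * ζ = z ∧ 0 ≤ ζ ∧ ζ ≤ 1 := by
    refine ⟨(z - z0) / ρ, by field_simp; ring, div_nonneg (by linarith) hρ.le, ?_⟩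
    rw [div_le_one hρ]; linarith
  have bζ : bz p v ζ = crdS e w b0 κ (T'.pos z - T.pos z) := by
    rw [hp, hv, bz_pp, hζ]; rfl
  have hk : ∀ k, |bz p v ζ k| ≤ |bz p v s k| + |v k| := by
    intro k
    have e1 : bz p v ζ k = bz p v s k + (ζ - s) * v k := by simp only [bz]; ring
    rw [e1]
    refine (abs_add_le _ _).trans (add_le_add le_rfl ?_)
    rw [abs_mul]
    have : |ζ - s| ≤ 1 := by rw [abs_le]; constructor <;> linarith
    exact mul_le_of_le_one_left (abs_nonneg _) this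
  refine ⟨?_, ?_, ?_⟩
  · have e2 : |dt (e 1) (T'.pos z - T.pos z)| = |bz p v ζ 1| * w 1 := by
      rw [bζ]
      change _ = |dt (e 1) (T'.pos z - T.pos z) / w 1| * w 1
      rw [abs_div, abs_of_pos w1p]; field_simp
    rw [e2]
    refine mul_le_mul_of_nonneg_right ((hk 1).trans ((add_le_add k2 k3).trans ?_)) w1p.le
    have e3 : 15 * (13 * W) * r / Λ ≤ 15 * (13 * W) * r / (δ ^ 2 * Λ) := by
      refine div_le_div_of_nonneg_left (by positivity) (by positivity) ?_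
      exact mul_le_of_le_one_left Λ0.le hδ21
    have e4 : 15 * (13 * W) * r / (δ ^ 2 * Λ) + 84200 * (13 * W) * r / (δ ^ 2 * Λ) ≤
        1100000 * W * r / (δ ^ 2 * Λ) := by
      rw [← add_div]
      refine div_le_div_of_nonneg_right ?_ (by positivity)
      have : 0 ≤ W * r := by positivity
      linarith
    linarith
  · have e2 : |dt (e 2) (T'.pos z - T.pos z)| = |bz p v ζ 2| * w 2 := by
      rw [bζ]
      change _ = |dt (e 2) (T'.pos z - T.pos z) / w 2| * w 2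
      rw [abs_div, abs_of_pos w2p]; field_simp
    rw [e2]
    refine mul_le_mul_of_nonneg_right ((hk 2).trans ((add_le_add P2 k4).trans ?_)) w2p.le
    have e3 : r ≤ r / δ := by
      rw [le_div_iff₀ δ0]; exact mul_le_of_le_one_right hr0 δ1
    have e4 : 6001 * r / δ = 6000 * r / δ + r / δ := by ring
    rw [e4]; linarith
  · have e2 : |ty e w b0 (T'.pos z - T.pos z)| = |bz p v ζ 0| * (κ * w 0) := by
      rw [bζ]
      change _ = |ty e w b0 (T'.pos z - T.pos z) / (κ * w 0)| * (κ * w 0)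
      have hk0 : 0 < κ * w 0 := mul_pos hκ hw0
      rw [abs_div, abs_of_pos hk0]; field_simp
    rw [e2]
    refine mul_le_mul_of_nonneg_right ((hk 0).trans ((add_le_add k1 k5).trans ?_))
      (mul_pos hκ hw0).le
    have e3 : r ≤ r / δ := by
      rw [le_div_iff₀ δ0]; exact mul_le_of_le_one_right hr0 δ1
    have e4 : 10012 * r / δ = 10000 * r / δ + 12 * (r / δ) := by ring
    rw [e4]; linarith

end Crest.Agent.R136.Slv989
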