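import Crest.Agent.R136.SmT_163
import Crest.Agent.R136.Mat2_464
import Crest.Agent.R136.Clw6_768

/-!
# R136 (S0187), U6 thin side (helper163): the thin half, final form

`seamStcA` : stage C without hypotheses; `seamThinQ` : the thin half of U6 from the tilt only.
-/

set_option autoImplicit false
set_option linter.unusedVariables false

open Finset Filter Topology

namespace Crest.Agent.R136.SmT163

open Crest.Agent.R136.Top484
open Crest.Agent.R136.Ut262 (SeamThinQ)

/-- **stage C is closed** -/
theorem seamStcA : SeamStcA :=
  seamStcA_of (fun p D K x0 h hk => Stk464.mate_of h hk) fun p D K x0 h hk => Clw768.clw_of h hk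

/-- **THE THIN HALF OF U6** over `J1c`, from the tilt of the curved pairs -/
theorem seamThinQ {η : ℝ} (hη : η ≤ 1) (hT : ∀ (p : Par4) (D : Dat4), J1c η p D → TiltB D) :
    SeamThinQ (fun _ => True) η := seamThinQ_J1c hη seamStcA hT

end Crest.Agent.R136.SmT163
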