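import Crest.Agent.R136.SmT_163
import Crest.Agent.R136.Mat2_464
import Crest.Agent.R136.Clw6_768

/-!
# R136, U6 thin side (helper464): stage C is closed

`seamStcA : SeamStcA`; `seamThinQ` : the thin half of U6 from the tilt only.
-/

set_option autoImplicit false

namespace Crest.Agent.R136.Stk464

open Crest.Agent.R136.Top484 (Par4 Dat4 J1c)

/-- **stage C** -/
theorem seamStcA : SmT163.SeamStcA :=
  SmT163.seamStcA_of (fun _ _ _ _ h hk => mate_of h hk) (fun _ _ _ _ h hk => Clw768.clw_of h hk)

end Crest.Agent.R136.Stk464
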