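import Crest.Agent.R136.CubY_851
import Crest.Agent.R136.CubG_938

/-!
# R136, the specials of the thin pins (helper851, helper938): `Spec35`, `Spec34`, row `pin3`
-/

set_option autoImplicit false
set_option linter.unusedSectionVars false
set_option linter.unusedVariables false

open Filter Topology

namespace Crest.Agent.R136.Pin851

open Finset Crest.Agent.R138.Ex926 Crest.Agent.R136.Net191 Crest.Agent.R136.Gf356
open Crest.Agent.R136.Qg926
open Crest.Agent.R136.NetW191 Crest.Agent.R136.EvW938 Crest.Agent.R136.PrW464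
open Crest.Agent.R136.LadW697 Crest.Agent.R136.LfW619 Crest.Agent.R136.RowW619
open Crest.Agent.R136.NatW697 Crest.Agent.R136.Qd329
open Crest.Agent.R136.Cub191 (SProf SRow SEvo SSlope)
open Crest.Agent.R136.K2S774 (cn ind1)

section

variable {W : Wnd 18 fun _ => ℕ × ℝ} {E : ∀ n : ℕ, Finset (ℕ × ℝ)} {κ : ℕ → ℝ}
  {u : ℕ → Fin 18 → ℝ} {f : ℕ → ℕ × ℝ → FW} {lam : (Fin 18 → ℝ) → ℝ} {x : ℝ}

/-- difference of the heights -/
theorem PWin.zbd (h : PWin W E κ u f {4} lam x) : ∀ᶠ n in (U : Filter ℕ),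
    ∀ k ∈ (W.cfg E n).Z, ∀ k' ∈ (W.cfg E n).Z,
      |(W.cfg E n).z k' - (W.cfg E n).z k| ≤ W.K0 / W.kap 0 := by
  filter_upwards [h.ev] with n ⟨g, hF, he⟩ k hk k' hk'
  rw [he] at hk hk' ⊢
  have q : ∀ k ∈ (W.cfg0 n (E n)).Z, W.zrep n k ∈ W.Cl n := by
    intro k hk
    obtain ⟨y, hy, rfl⟩ := mem_image.1 (show k ∈ (E n).image (W.zc n) from hk)
    exact (W.zrep_spec (hF hy)).1
  have e1 : ∀ k, (W.cfg0 n (E n)).z k = W.crd n (W.s₀ n) (W.zrep n k) 0 := by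
    intro k
    show W.crd n (W.s₀ n) (W.zrep n k) W.kz = _
    rw [h.ww.kz]
  have f1 := h.ww.crd_zero g g.s0 (q k hk) (q k' hk')
  have e2 : (W.cfg0 n (E n)).z k' - (W.cfg0 n (E n)).z k =
      W.crd n (W.zrep n k) (W.zrep n k') 0 := by
    rw [e1, e1]; linarith
  rw [e2]
  exact h.ww.crd_le g (q k hk) (q k' hk') 0

/-- a box of narrow slots, all other slots are bounded -/
theorem PWin.boxN (h : PWin W E κ u f {4} lam x) (V : Finset (Fin 18)) {P : ℝ} (hP : 0 ≤ P) :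
    ∀ ε : ℝ, 0 < ε → ∀ᶠ n in (U : Filter ℕ), ∀ k l l', (l, k) ∈ (W.cfg E n).I →
      (l', k) ∈ (W.cfg E n).I →
      (∀ j ∈ V, j ≠ 0 → |(W.cfg E n).rel k l l' j| ≤ P * W.B'.d n ^ (x - ε)) →
      (W.cfg E n).loose (ind V x) (2 * ε) k l l' := by
  intro ε hε
  have hb : ∀ᶠ n in (U : Filter ℕ), ∀ s : Fin 18, W.K0 / W.kap s ≤ W.B'.d n ^ (-ε) := by
    rw [Filter.eventually_all]
    exact fun s => ev_const_le W.B' hε _
  filter_upwards [h.ev, hb, ev_const_le W.B' hε P] with n ⟨g, hF, he⟩ hb hc k l l' hl hl' hV j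
  have hρ : (W.cfg E n).ρ = W.B'.d n := cfg_ρ W E n
  rw [hρ]
  have hpos : ∀ t : ℝ, 0 < W.B'.d n ^ t := fun t => Real.rpow_pos_of_pos (W.B'.pos n) _
  by_cases h0 : j = 0
  · subst h0
    rw [he]
    have e : (W.cfg0 n (E n)).rel k l l' 0 = 0 := if_pos h.ww.h0
    rw [e, abs_zero]; exact (hpos _).le
  by_cases hj : j ∈ V
  · rw [ind_mem hj]
    refine (hV j hj h0).trans ?_
    refine (mul_le_mul_of_nonneg_right hc (hpos _).le).trans (le_of_eq ?_)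
    rw [← Real.rpow_add (W.B'.pos n)]; congr 1; ring
  · rw [ind_notMem hj]
    rw [he] at hl hl' ⊢
    refine (h.ww.rel_le g hF hl hl' j).trans ((hb j).trans ?_)
    exact Real.rpow_le_rpow_of_exponent_ge (W.B'.pos n) (W.B'.lt n).le (by linarith)

/-- **evolution of `b = 5`** -/
theorem PWin.sevo5 (h : PWin W E κ u f {4} lam x) (hx : 0 < x) : ∃ M C : ℝ,
    SEvo W.B' (W.cfg E) x M C 2 (ind {0, 4} x) (aT W κ u f) (F5 W κ u f) (cT W κ u f)
      (Y5 W κ u f) := by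
  obtain ⟨P, hP, hp⟩ := Cub938.pair_n h
  have hP0 : 0 ≤ P := by linarith
  have fin : ∀ {n : ℕ} {t ε : ℝ}, P ≤ W.B'.d n ^ (-ε) → t ≤ P * W.B'.d n ^ (x - ε) →
      t ≤ W.B'.d n ^ (x - 2 * ε) := by
    intro n t ε hc ht
    refine ht.trans ((mul_le_mul_of_nonneg_right hc
      (Real.rpow_pos_of_pos (W.B'.pos n) _).le).trans (le_of_eq ?_))
    rw [← Real.rpow_add (W.B'.pos n)]; congr 1; ring
  refine ⟨W.K0 / W.kap 0, 2, ⟨fun ε hε => ?_, h.zbd, fun ε hε => ?_⟩⟩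
  · filter_upwards [h.ev, h.boxN {0, 4} hP0 ε hε] with n ⟨g, hF, he⟩ hb k k' l l' h1 h2 h3 h4 h5
    refine hb k' l l' h2 h4 fun j hj hj0 => ?_
    have hρ : (W.cfg E n).ρ = W.B'.d n := cfg_ρ W E n
    have r4 := h5 4
    rw [hρ, ind_mem (by decide)] at r4
    rw [he] at h1 h2 h3 h4 r4 ⊢
    have q := hp n g hF k k' l l' h1 h2 h3 h4 (W.B'.d n ^ (x - ε))
      (Real.rpow_le_rpow_of_exponent_ge (W.B'.pos n) (W.B'.lt n).le (by linarith)) r4 _ rfl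
    have hj4 : j = 4 := by
      rcases mem_insert.1 hj with h6 | h6
      · exact absurd h6 hj0
      · exact mem_singleton.1 h6
    rw [hj4]
    exact q.1.2.2.2
  · filter_upwards [h.ev, ev_const_le W.B' hε P] with n ⟨g, hF, he⟩ hc k k' l l' h1 h2 h3 h4 h5
    have hρ : (W.cfg E n).ρ = W.B'.d n := cfg_ρ W E n
    have r4 := h5 4
    rw [hρ, ind_mem (by decide)] at r4
    rw [he] at h1 h2 h3 h4 r4 ⊢
    have q := hp n g hF k k' l l' h1 h2 h3 h4 (W.B'.d n ^ (x - ε))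
      (Real.rpow_le_rpow_of_exponent_ge (W.B'.pos n) (W.B'.lt n).le (by linarith)) r4 _ rfl
    exact ⟨fin hc q.1.1, fin hc q.1.2.2.1, fin hc q.1.2.1⟩

/-- **evolution of `b = 4`** -/
theorem PWin.sevo4 (h : PWin W E κ u f {4} lam x) (hx : 0 < x) : ∃ M C : ℝ,
    SEvo W.B' (W.cfg E) x M C (1 / 3) (ind {0, 4, 5, 7} x) (aT W κ u f) (F4 W κ u f)
      (cT W κ u f) (Y4 W κ u f) := by
  obtain ⟨P, hP, hp⟩ := Cub938.pair_n h
  have hP0 : 0 ≤ P := by linarith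
  have fin : ∀ {n : ℕ} {t ε : ℝ}, P ≤ W.B'.d n ^ (-ε) → t ≤ P * W.B'.d n ^ (x - ε) →
      t ≤ W.B'.d n ^ (x - 2 * ε) := by
    intro n t ε hc ht
    refine ht.trans ((mul_le_mul_of_nonneg_right hc
      (Real.rpow_pos_of_pos (W.B'.pos n) _).le).trans (le_of_eq ?_))
    rw [← Real.rpow_add (W.B'.pos n)]; congr 1; ring
  refine ⟨W.K0 / W.kap 0, 2, ⟨fun ε hε => ?_, h.zbd, fun ε hε => ?_⟩⟩
  · filter_upwards [h.ev, h.boxN {0, 4, 5, 7} hP0 ε hε] with n ⟨g, hF, he⟩ hb k k' l l' h1 h2 h3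
      h4 h5
    refine hb k' l l' h2 h4 fun j hj hj0 => ?_
    have hρ : (W.cfg E n).ρ = W.B'.d n := cfg_ρ W E n
    have r4 := h5 4
    have r5 := h5 5
    have r7 := h5 7
    rw [hρ, ind_mem (by decide)] at r4 r5 r7
    rw [he] at h1 h2 h3 h4 r4 r5 r7 ⊢
    have q := hp n g hF k k' l l' h1 h2 h3 h4 (W.B'.d n ^ (x - ε))
      (Real.rpow_le_rpow_of_exponent_ge (W.B'.pos n) (W.B'.lt n).le (by linarith)) r4 _ rfl
    have q2 := q.2.1 r5 r7
    have hj4 : j = 4 ∨ j = 5 ∨ j = 7 := by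
      simp only [mem_insert, mem_singleton] at hj
      tauto
    rcases hj4 with h6 | h6 | h6
    · rw [h6]; exact q.1.2.2.2
    · rw [h6]; exact q2.2.1
    · rw [h6]; exact q2.2.2
  · filter_upwards [h.ev, ev_const_le W.B' hε P] with n ⟨g, hF, he⟩ hc k k' l l' h1 h2 h3 h4 h5
    have hρ : (W.cfg E n).ρ = W.B'.d n := cfg_ρ W E n
    have r4 := h5 4
    have r5 := h5 5
    have r7 := h5 7
    rw [hρ, ind_mem (by decide)] at r4 r5 r7
    rw [he] at h1 h2 h3 h4 r4 r5 r7 ⊢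
    have q := hp n g hF k k' l l' h1 h2 h3 h4 (W.B'.d n ^ (x - ε))
      (Real.rpow_le_rpow_of_exponent_ge (W.B'.pos n) (W.B'.lt n).le (by linarith)) r4 _ rfl
    have q2 := q.2.1 r5 r7
    exact ⟨fin hc q.1.1, fin hc q2.1, fin hc q.1.2.1⟩

end

/-- **`Spec35`** -/
theorem spec35 : Spec35 :=
  spec35_of (rows35_of fun _ _ _ _ _ _ _ h hx => h.sevo5 hx)

/-- **`Spec34`** -/
theorem spec34 : Spec34 :=
  spec34_of (rows34_of fun _ _ _ _ _ _ _ h hx => h.sevo4 hx)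

/-- **row `pin3`** -/
theorem pin3 : PinC 3 fun θ V => ∀ k ∈ V, KW θ k < 3 := pin3_of spec35 spec34

end Crest.Agent.R136.Pin851
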