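import Mathlib

/-!
# R136, U6 thin (helper327), part 3: three separated velocities; coefficients of the container

`exists_three` : a set without concentration has three separated points; `vander3` : a quadratic
polynomial which is small at three separated points has small coefficients; `coef_three` : both
together, for the relation `γ + c₃ a + c₄ b = O(η)`, `b = -κ a² + O(η)`.
-/

set_option autoImplicit false
set_option linter.unusedVariables false

open Finset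

namespace Crest.Agent.R136.Tn327

open Classical in
/-- **three separated points** -/
theorem exists_three {ι : Type*} {K : Finset ι} {a : ι → ℝ} {r N : ℝ}
    (h : ∀ S ⊆ K, (∀ s ∈ S, ∀ s' ∈ S, |a s - a s'| ≤ 2 * r) → (S.card : ℝ) ≤ N)
    (hN : 2 * N < K.card) :
    ∃ t₁ ∈ K, ∃ t₂ ∈ K, ∃ t₃ ∈ K, r < |a t₁ - a t₂| ∧ r < |a t₂ - a t₃| ∧ r < |a t₁ - a t₃| := by
  have hn0 : 0 ≤ N := by
    have := h ∅ (empty_subset _) (by intro s hs; simp at hs)
    simpa using this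
  have hne : K.Nonempty := by
    rw [← card_pos]
    have : (0 : ℝ) < K.card := by linarith
    exact_mod_cast this
  obtain ⟨t₁, h1⟩ := hne
  have ball : ∀ t, ((K.filter fun s => |a t - a s| ≤ r).card : ℝ) ≤ N := by
    intro t
    refine h _ (filter_subset _ _) ?_
    intro s hs s' hs'
    rw [mem_filter] at hs hs'
    have := abs_sub_le (a s) (a t) (a s')
    rw [abs_sub_comm (a s) (a t)] at this
    linarith [hs.2, hs'.2]
  -- the second point
  obtain ⟨t₂, h2, h12⟩ : ∃ t₂ ∈ K, r < |a t₁ - a t₂| := by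
    by_contra hc
    push Not at hc
    have e1 : (K.filter fun s => |a t₁ - a s| ≤ r) = K := filter_true_of_mem hc
    have := ball t₁
    rw [e1] at this
    linarith
  obtain ⟨t₃, h3, h13, h23⟩ : ∃ t₃ ∈ K, r < |a t₁ - a t₃| ∧ r < |a t₂ - a t₃| := by
    by_contra hc
    push Not at hc
    have e1 : K ⊆ (K.filter fun s => |a t₁ - a s| ≤ r) ∪ (K.filter fun s => |a t₂ - a s| ≤ r) := by
      intro s hs
      rw [mem_union, mem_filter, mem_filter]
      rcases le_or_gt (|a t₁ - a s|) r with h5 | h5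
      · exact Or.inl ⟨hs, h5⟩
      · exact Or.inr ⟨hs, hc s hs h5⟩
    have e2 : (K.card : ℝ) ≤ ((K.filter fun s => |a t₁ - a s| ≤ r).card : ℝ) +
        ((K.filter fun s => |a t₂ - a s| ≤ r).card : ℝ) := by
      have := (card_le_card e1).trans (card_union_le _ _)
      exact_mod_cast this
    linarith [ball t₁, ball t₂]
  exact ⟨t₁, h1, t₂, h2, t₃, h3, h12, h23, h13⟩

/-- **coefficients from three separated values** -/
theorem vander3 {x0 x1 x2 a₁ a₂ a₃ r η : ℝ} (hr : 0 < r) (hr1 : r ≤ 1)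
    (h12 : r < |a₁ - a₂|) (h23 : r < |a₂ - a₃|) (h13 : r < |a₁ - a₃|)
    (b1 : |a₁| ≤ 1) (b2 : |a₂| ≤ 1)
    (e1 : |x0 + x1 * a₁ + x2 * a₁ ^ 2| ≤ η) (e2 : |x0 + x1 * a₂ + x2 * a₂ ^ 2| ≤ η)
    (e3 : |x0 + x1 * a₃ + x2 * a₃ ^ 2| ≤ η) :
    |x0| ≤ 15 * η / r ^ 2 ∧ |x1| ≤ 10 * η / r ^ 2 ∧ |x2| ≤ 4 * η / r ^ 2 := by
  have hη : 0 ≤ η := (abs_nonneg _).trans e1
  have hr2 : 0 < r ^ 2 := by positivity
  set f₁ := x0 + x1 * a₁ + x2 * a₁ ^ 2 with hf1
  set f₂ := x0 + x1 * a₂ + x2 * a₂ ^ 2 with hf2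
  set f₃ := x0 + x1 * a₃ + x2 * a₃ ^ 2 with hf3
  -- first divided differences
  have d12 : |x1 + x2 * (a₁ + a₂)| ≤ 2 * η / r := by
    have k1 : |x1 + x2 * (a₁ + a₂)| * |a₁ - a₂| ≤ 2 * η := by
      rw [← abs_mul]
      have : (x1 + x2 * (a₁ + a₂)) * (a₁ - a₂) = f₁ - f₂ := by rw [hf1, hf2]; ring
      rw [this]
      exact (abs_sub _ _).trans (by linarith)
    rw [le_div_iff₀ hr]
    exact (mul_le_mul_of_nonneg_left h12.le (abs_nonneg _)).trans k1
  have d23 : |x1 + x2 * (a₂ + a₃)| ≤ 2 * η / r := by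
    have k1 : |x1 + x2 * (a₂ + a₃)| * |a₂ - a₃| ≤ 2 * η := by
      rw [← abs_mul]
      have : (x1 + x2 * (a₂ + a₃)) * (a₂ - a₃) = f₂ - f₃ := by rw [hf2, hf3]; ring
      rw [this]
      exact (abs_sub _ _).trans (by linarith)
    rw [le_div_iff₀ hr]
    exact (mul_le_mul_of_nonneg_left h23.le (abs_nonneg _)).trans k1
  have x2b : |x2| ≤ 4 * η / r ^ 2 := by
    have k1 : |x2| * |a₁ - a₃| ≤ 4 * η / r := by
      rw [← abs_mul]
      have : x2 * (a₁ - a₃) = (x1 + x2 * (a₁ + a₂)) - (x1 + x2 * (a₂ + a₃)) := by ring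
      rw [this]
      refine (abs_sub _ _).trans ((add_le_add d12 d23).trans (le_of_eq ?_))
      ring
    have k2 : |x2| * r ≤ 4 * η / r := (mul_le_mul_of_nonneg_left h13.le (abs_nonneg _)).trans k1
    rw [le_div_iff₀ hr2]
    have k3 := mul_le_mul_of_nonneg_right k2 hr.le
    have e4 : 4 * η / r * r = 4 * η := by field_simp
    rw [e4] at k3
    linarith [k3, show |x2| * r * r = |x2| * r ^ 2 by ring]
  have hrr : 1 / r ≤ 1 / r ^ 2 := by
    rw [div_le_div_iff₀ hr hr2]; nlinarith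
  have hrr1 : 1 ≤ 1 / r ^ 2 := by
    rw [le_div_iff₀ hr2]; nlinarith
  have x1b : |x1| ≤ 10 * η / r ^ 2 := by
    have k1 : x1 = (x1 + x2 * (a₁ + a₂)) - x2 * (a₁ + a₂) := by ring
    have k2 : |x2 * (a₁ + a₂)| ≤ 8 * η / r ^ 2 := by
      rw [abs_mul]
      have k3 : |a₁ + a₂| ≤ 2 := (abs_add_le _ _).trans (by linarith)
      calc |x2| * |a₁ + a₂| ≤ (4 * η / r ^ 2) * 2 :=
            mul_le_mul x2b k3 (abs_nonneg _) (by positivity)
        _ = 8 * η / r ^ 2 := by ring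
    have k4 : 2 * η / r ≤ 2 * η / r ^ 2 := by
      have := mul_le_mul_of_nonneg_left hrr (by linarith : 0 ≤ 2 * η)
      calc 2 * η / r = 2 * η * (1 / r) := by ring
        _ ≤ 2 * η * (1 / r ^ 2) := this
        _ = _ := by ring
    rw [k1]
    refine (abs_sub _ _).trans ((add_le_add (d12.trans k4) k2).trans (le_of_eq ?_))
    ring
  refine ⟨?_, x1b, x2b⟩
  have k1 : x0 = f₁ - x1 * a₁ - x2 * a₁ ^ 2 := by rw [hf1]; ring
  have k2 : |x1 * a₁| ≤ 10 * η / r ^ 2 := by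
    rw [abs_mul]
    calc |x1| * |a₁| ≤ (10 * η / r ^ 2) * 1 := mul_le_mul x1b b1 (abs_nonneg _) (by positivity)
      _ = _ := mul_one _
  have k3 : |x2 * a₁ ^ 2| ≤ 4 * η / r ^ 2 := by
    rw [abs_mul, abs_pow]
    have : |a₁| ^ 2 ≤ 1 := by nlinarith [abs_nonneg a₁]
    calc |x2| * |a₁| ^ 2 ≤ (4 * η / r ^ 2) * 1 :=
          mul_le_mul x2b this (by positivity) (by positivity)
      _ = _ := mul_one _
  have k4 : η ≤ 1 * η / r ^ 2 := by
    have := mul_le_mul_of_nonneg_left hrr1 hη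
    calc η = η * 1 := (mul_one _).symm
      _ ≤ η * (1 / r ^ 2) := this
      _ = _ := by ring
  rw [k1]
  refine (abs_sub _ _).trans ((add_le_add ((abs_sub _ _).trans (add_le_add (e1.trans k4) k2))
    k3).trans (le_of_eq ?_))
  ring

open Classical in
/-- **the coefficients `γ, c₃, c₄`** of the container from the relation along most lines of a class;
`a t, b t` : velocities in container units. -/
theorem coef_three {ι : Type*} {K : Finset ι} {a b : ι → ℝ} {r N γ c3 c4 κ η : ℝ} (hr : 0 < r)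
    (hr1 : r ≤ 1)
    (h : ∀ S ⊆ K, (∀ s ∈ S, ∀ s' ∈ S, |a s - a s'| ≤ 2 * r) → (S.card : ℝ) ≤ N)
    (hN : 2 * N < K.card) (ha : ∀ t ∈ K, |a t| ≤ 1) (hb : ∀ t ∈ K, |b t + κ * a t ^ 2| ≤ η)
    (hc4 : |c4| ≤ 1) (hrel : ∀ t ∈ K, |γ + c3 * a t + c4 * b t| ≤ η) :
    |γ| ≤ 30 * η / r ^ 2 ∧ |c3| ≤ 20 * η / r ^ 2 ∧ |c4| * |κ| ≤ 8 * η / r ^ 2 := by
  obtain ⟨t₁, h1, t₂, h2, t₃, h3, h12, h23, h13⟩ := exists_three h hN
  have key : ∀ t ∈ K, |γ + c3 * a t + (-(c4 * κ)) * a t ^ 2| ≤ 2 * η := by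
    intro t ht
    have k1 : γ + c3 * a t + (-(c4 * κ)) * a t ^ 2 =
        (γ + c3 * a t + c4 * b t) - c4 * (b t + κ * a t ^ 2) := by ring
    rw [k1]
    refine (abs_sub _ _).trans ?_
    have k2 : |c4 * (b t + κ * a t ^ 2)| ≤ 1 * η := by
      rw [abs_mul]
      exact mul_le_mul hc4 (hb t ht) (abs_nonneg _) (by norm_num)
    linarith [hrel t ht]
  have h5 := vander3 hr hr1 h12 h23 h13 (ha t₁ h1) (ha t₂ h2) (key t₁ h1) (key t₂ h2) (key t₃ h3)
  rw [abs_neg, abs_mul] at h5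
  refine ⟨h5.1.trans (le_of_eq (by ring)), h5.2.1.trans (le_of_eq (by ring)),
    h5.2.2.trans (le_of_eq (by ring))⟩

end Crest.Agent.R136.Tn327
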