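import Crest.Agent.R136.Us4_555
import Crest.Agent.R136.ThnD_768

/-!
# R136 (S0187), U6 (helper555), part 5: heights and nets

* `MkA.heights` : every line of the marked sequence has `m` incidences in the same cell of level `v`
  at heights which are `d^δ ρ_v`-separated (full shading);
* `MkA.net` : dense marked part on which a bounded vector-valued function is nearly constant.
-/

set_option autoImplicit false
set_option linter.unusedVariables false
set_option linter.unusedSectionVars false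

open Finset Filter Topology

namespace Crest.Agent.R136.Us555

open Crest.Agent.R138.Ex926 (Base U exists_diag)
open Crest.Agent.R138.Dp76
open Crest.Agent.R138.Mk163 (zc zl rho alive own Negl)
open Crest.Agent.R136.MkA627 Crest.Agent.R136.Sh605 Crest.Agent.R136.K4 Crest.Agent.R136.Top484
open Crest.Agent.R136.Tlt51 (mk4 zx rh)
open Crest.Agent.R136.Tl102 (QF Fq bz)
open Crest.Agent.R136.Thn768 (Tay cr Frm)

/-- `m` elements of a set of integers with gaps at least `2` -/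
theorem exists_sep (s : Finset ℤ) (m : ℕ) (hs : 2 * m ≤ s.card) :
    ∃ c : Fin m → ℤ, (∀ i, c i ∈ s) ∧ ∀ i j, i < j → c i + 2 ≤ c j := by
  obtain ⟨t, hts, htc⟩ := Finset.exists_subset_card_eq hs
  let e := t.orderEmbOfFin htc
  have hi : ∀ i : Fin m, 2 * (i : ℕ) < 2 * m := fun i => by have := i.2; omega
  have hi1 : ∀ i : Fin m, 2 * (i : ℕ) + 1 < 2 * m := fun i => by have := i.2; omega
  refine ⟨fun i => e ⟨2 * i, hi i⟩, fun i => hts (t.orderEmbOfFin_mem htc _), fun i j hij => ?_⟩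
  have h1 : e ⟨2 * i, hi i⟩ < e ⟨2 * i + 1, hi1 i⟩ := e.strictMono (by
    rw [Fin.lt_def]; exact Nat.lt_succ_self _)
  have h2 : e ⟨2 * i + 1, hi1 i⟩ < e ⟨2 * j, hi j⟩ := e.strictMono (by
    have h3 : (i : ℕ) < j := hij
    rw [Fin.lt_def]
    show 2 * (i : ℕ) + 1 < 2 * j
    omega)
  show e ⟨2 * i, hi i⟩ + 2 ≤ e ⟨2 * j, hi j⟩
  omega

/-- points of cells with a gap -/
theorem rho_le_of_zc {j : ℕ} {x y : ℝ} (h : zc j x + 2 ≤ zc j y) : rho j ≤ y - x := by
  unfold zc at h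
  unfold rho
  have h1 := Int.floor_le ((2 : ℝ) ^ j * y)
  have h2 := Int.lt_floor_add_one ((2 : ℝ) ^ j * x)
  have h3 : ((⌊(2 : ℝ) ^ j * x⌋ : ℤ) : ℝ) + 2 ≤ ((⌊(2 : ℝ) ^ j * y⌋ : ℤ) : ℝ) := by exact_mod_cast h
  have h4 : (1 : ℝ) ≤ 2 ^ j * (y - x) := by nlinarith
  rw [div_le_iff₀ (by positivity)]
  linarith

section

variable {σ κ : Type*} {B : Base} {I : ℕ → Finset (ℕ × ℝ)} {G : Geo σ κ} {lev : ℕ → ℚ → ℕ}
    {A : ℕ → ℝ} {c Λ : ℝ → ℝ} {τ : κ → ℝ → ℝ} {f : ℕ → ℚ → ℕ → ℤ → ℕ} {b : ℕ → ℚ → ℕ → σ}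
    {vm : ℕ → ℚ → ℝ} {w : κ → ℕ → ℚ → ℝ}

/-- cells of two levels -/
theorem ev_rho (h : MkA B I G lev A c Λ τ f b vm w) {u v : ℚ} (hu : 0 ≤ u) (huv : u ≤ v)
    (hv : v ≤ 1) {ε : ℝ} (hε : 0 < ε) : ∀ᶠ n in (U : Filter ℕ),
      B.d n ^ ((v : ℝ) - u + ε) * rho (lev n u) ≤ rho (lev n v) := by
  have h1 : ∀ᶠ n in (U : Filter ℕ),
      ((lev n v : ℝ) - lev n u) * Real.log 2 / B.L n < (v : ℝ) - u + ε :=
    (h.lev_lim u v hu huv hv).eventually (Iio_mem_nhds (by linarith))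
  filter_upwards [h1, h.lev_mono u v hu huv hv] with n hn hle
  have hL := B.L_pos n
  rw [div_lt_iff₀ hL] at hn
  have hd := B.pos n
  have e1 : B.d n ^ ((v : ℝ) - u + ε) = Real.exp (-(((v : ℝ) - u + ε) * B.L n)) := by
    rw [Real.rpow_def_of_pos hd]
    unfold Base.L
    congr 1; ring
  have e2 : rho (lev n v) = Real.exp (-(((lev n v : ℝ) - lev n u) * Real.log 2)) *
      rho (lev n u) := by
    unfold rho
    have e3 : Real.exp (-(((lev n v : ℝ) - lev n u) * Real.log 2)) =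
        2 ^ lev n u / 2 ^ lev n v := by
      rw [neg_mul_eq_neg_mul, neg_sub, sub_mul, Real.exp_sub, ← Real.rpow_natCast,
        ← Real.rpow_natCast, Real.rpow_def_of_pos two_pos, Real.rpow_def_of_pos two_pos]
      congr 2 <;> ring
    rw [e3]
    field_simp
  rw [e1, e2]
  refine mul_le_mul_of_nonneg_right (Real.exp_le_exp.2 (by linarith)) ?_
  unfold rho; positivity

open Classical in
/-- **separated heights** of one line in one cell -/
theorem _root_.Crest.Agent.R136.MkA627.MkA.heights {s : ℝ} (h : MkA B I G lev A c (fun v => s * v) τ f b vm w) (hs : s < 1)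
    (v : ℚ) (h0 : 0 ≤ v) (h1 : v < 1) (m : ℕ) {δ : ℝ} (hδ : 0 < δ) :
    ∀ᶠ n in (U : Filter ℕ), ∀ x ∈ I n, ∃ y : Fin m → ℕ × ℝ,
      (∀ i, y i ∈ I n ∧ (y i).1 = x.1 ∧ zc (lev n v) (y i).2 = zc (lev n v) x.2) ∧
      ∀ i j, i ≠ j → B.d n ^ δ * rho (lev n v) ≤ |(y i).2 - (y j).2| := by
  have h1' : (v : ℝ) < 1 := by exact_mod_cast h1
  obtain ⟨v', hv1, hv2⟩ := exists_rat_btwn (show (v : ℝ) < min 1 (v + δ / 2) from
    lt_min h1' (by linarith))
  have hv3 := hv2.trans_le (min_le_left _ _)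
  have hv4 := hv2.trans_le (min_le_right _ _)
  have hvv : v < v' := by exact_mod_cast hv1
  have hv' : v' ≤ 1 := by exact_mod_cast hv3.le
  set t : ℝ := (v' : ℝ) - v with ht
  have htp : 0 < t := by rw [ht]; linarith
  have hst : 0 < (1 - s) * t := mul_pos (by linarith) htp
  have hbig : ∀ᶠ n in (U : Filter ℕ), 2 * (m : ℝ) ≤ B.d n ^ (-((1 - s) * t / 2)) := by
    filter_upwards [Crest.Agent.R138.Ps926.dpow_small B (c := (1 - s) * t / 2) (by positivity)
      (ε := 1 / (2 * (m : ℝ) + 1)) (by positivity)] with n hn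
    have hp := dpow_pos B n ((1 - s) * t / 2)
    rw [Real.rpow_neg (B.pos n).le]
    have h5 : (2 * (m : ℝ) + 1) ≤ (B.d n ^ ((1 - s) * t / 2))⁻¹ := by
      rw [le_inv_comm₀ (by positivity) hp, ← one_div]
      exact hn.le
    linarith
  filter_upwards [h.own v v' h0 hvv.le hv' ((1 - s) * t / 2) (by positivity), hbig,
    ev_rho h h0 hvv.le hv' (ε := δ / 2) (by positivity)] with n a1 a2 a3 x hx
  have b1 := (a1 x hx).1
  have e1 : -((v' : ℝ) - v) + (s * v' - s * v) + (1 - s) * t / 2 = -((1 - s) * t / 2) := by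
    rw [ht]; ring
  rw [e1] at b1
  have b2 : 2 * m ≤ (Crest.Agent.R138.Mk163.own (I n) (lev n v) (lev n v') x).card := by
    exact_mod_cast a2.trans b1
  obtain ⟨k, hk1, hk2⟩ := exists_sep _ m b2
  have hy : ∀ i, ∃ y ∈ I n, y.1 = x.1 ∧ zc (lev n v) y.2 = zc (lev n v) x.2 ∧
      zc (lev n v') y.2 = k i := by
    intro i
    have := hk1 i
    unfold Crest.Agent.R138.Mk163.own at this
    obtain ⟨y, hy, hyk⟩ := mem_image.1 this
    obtain ⟨g1, g2, g3⟩ := mem_filter.1 hy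
    exact ⟨y, g1, g2, g3, hyk⟩
  choose y y1 y2 y3 y4 using hy
  have hle : B.d n ^ δ * rho (lev n v) ≤ rho (lev n v') := by
    refine le_trans (mul_le_mul_of_nonneg_right (dpow_le B n ?_) ?_) a3
    · rw [← ht]; rw [ht]; linarith
    · unfold rho; positivity
  refine ⟨y, fun i => ⟨y1 i, y2 i, y3 i⟩, fun i j hij => hle.trans ?_⟩
  rcases lt_or_gt_of_ne hij with hlt | hlt
  · have h7 := rho_le_of_zc (j := lev n v') (x := (y i).2) (y := (y j).2) (by
      rw [y4, y4]; exact hk2 i j hlt)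
    rw [abs_sub_comm]
    exact h7.trans (le_abs_self _)
  · have h7 := rho_le_of_zc (j := lev n v') (x := (y j).2) (y := (y i).2) (by
      rw [y4, y4]; exact hk2 j i hlt)
    exact h7.trans (le_abs_self _)

/-- **net**: a dense marked part on which bounded functions are nearly constant -/
theorem _root_.Crest.Agent.R136.MkA627.MkA.net (h : MkA B I G lev A c Λ τ f b vm w) (m : ℕ)
    (F : ℕ → ℕ × ℝ → Fin m → ℝ) (hF : ∀ᶠ n in (U : Filter ℕ), ∀ x ∈ I n, ∀ i, |F n x i| ≤ 1)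
    {δ : ℝ} (hδ : 0 < δ) :
    ∃ J : ℕ → Finset (ℕ × ℝ), (∀ n, J n ⊆ I n) ∧ Dense B J I ∧
      MkA B J G lev A c Λ τ f b vm w ∧
      ∀ᶠ n in (U : Filter ℕ), ∀ x ∈ J n, ∀ y ∈ J n, ∀ i, |F n x i - F n y i| ≤ δ := by
  classical
  set T : Finset (Fin m → ℤ) := Fintype.piFinset fun _ => Finset.Icc (⌊-(1 / δ)⌋) (⌊1 / δ⌋) with hT
  have hTne : T.Nonempty := by
    refine ⟨fun _ => 0, ?_⟩
    rw [hT, Fintype.mem_piFinset]
    intro i
    rw [Finset.mem_Icc]
    have hd : 0 < 1 / δ := by positivity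
    exact ⟨(Int.floor_nonpos (by linarith)), Int.floor_nonneg.2 hd.le⟩
  have hTpos : (0 : ℝ) < T.card := by exact_mod_cast card_pos.2 hTne
  let key : ℕ → ℕ × ℝ → Fin m → ℤ := fun n x i => ⌊F n x i / δ⌋
  have hkey : ∀ n, (∀ x ∈ I n, ∀ i, |F n x i| ≤ 1) → ∀ x ∈ I n, key n x ∈ T := by
    intro n hn x hx
    rw [hT, Fintype.mem_piFinset]
    intro i
    have h1 := abs_le.1 (hn x hx i)
    rw [Finset.mem_Icc]
    refine ⟨Int.floor_mono ?_, Int.floor_mono ?_⟩
    · rw [neg_eq_neg_one_mul, mul_one_div]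
      exact div_le_div_of_nonneg_right h1.1 hδ.le
    · exact div_le_div_of_nonneg_right h1.2 hδ.le
  have hex : ∀ n, ∃ k : Fin m → ℤ, (∀ x ∈ I n, ∀ i, |F n x i| ≤ 1) →
      ((I n).card : ℝ) / T.card ≤ (((I n).filter fun x => key n x = k).card : ℝ) := by
    intro n
    by_cases hn : ∀ x ∈ I n, ∀ i, |F n x i| ≤ 1
    · obtain ⟨k, -, hk⟩ := Finset.exists_le_card_fiber_of_nsmul_le_card_of_maps_to
        (s := I n) (t := T) (f := key n) (b := ((I n).card : ℝ) / T.card) (hkey n hn) hTne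
        (by rw [nsmul_eq_mul, mul_div_cancel₀ _ hTpos.ne'])
      exact ⟨k, fun _ => hk⟩
    · exact ⟨fun _ => 0, fun hc => absurd hc hn⟩
  choose k hk using hex
  have hd : Dense B (fun n => (I n).filter fun x => key n x = k n) I := by
    refine ⟨Eventually.of_forall fun n => filter_subset _ _, fun η hη => ?_⟩
    filter_upwards [hF, Crest.Agent.R138.Ps926.dpow_small B hη (ε := 1 / T.card) (by positivity)]
      with n a1 a2
    refine le_trans ?_ (hk n a1)
    rw [div_eq_inv_mul, ← one_div]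
    exact mul_le_mul_of_nonneg_right a2.le (Nat.cast_nonneg _)
  obtain ⟨J, h1, h2, -, h4⟩ := MkA.refine' h hd
  refine ⟨J, fun n => (h1 n).trans (filter_subset _ _), h2.trans hd, h4,
    Eventually.of_forall fun n x hx y hy i => ?_⟩
  have e1 := (mem_filter.1 (h1 n hx)).2
  have e2 := (mem_filter.1 (h1 n hy)).2
  have e3 : ⌊F n x i / δ⌋ = ⌊F n y i / δ⌋ := congrFun (e1.trans e2.symm) i
  have e4 := Int.abs_sub_lt_one_of_floor_eq_floor e3
  rw [← sub_div, abs_div, abs_of_pos hδ, div_lt_one hδ] at e4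
  exact e4.le

end

/-- `J1c` version of the net -/
theorem J1c.net {η : ℝ} {p : Par4} {D : Dat4} (h : J1c η p D) (m : ℕ)
    (F : ℕ → ℕ × ℝ → Fin m → ℝ) (hF : ∀ᶠ n in (U : Filter ℕ), ∀ x ∈ D.I n, ∀ i, |F n x i| ≤ 1)
    {δ : ℝ} (hδ : 0 < δ) :
    ∃ J : ℕ → Finset (ℕ × ℝ), (∀ n, J n ⊆ D.I n) ∧ Dense D.B J D.I ∧
      J1c η p { D with I := J } ∧
      ∀ᶠ n in (U : Filter ℕ), ∀ x ∈ J n, ∀ y ∈ J n, ∀ i, |F n x i - F n y i| ≤ δ := by
  obtain ⟨J, h1, h2, h3, h4⟩ := MkA.net h.mka m F hF hδ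
  exact ⟨J, h1, h2, J1c.sub' h h1 h2 h3, h4⟩

/-- `J1` version of the net -/
theorem J1.net {η : ℝ} {p : Par4} {D : Dat4} (h : J1 η p D) (m : ℕ)
    (F : ℕ → ℕ × ℝ → Fin m → ℝ) (hF : ∀ᶠ n in (U : Filter ℕ), ∀ x ∈ D.I n, ∀ i, |F n x i| ≤ 1)
    {δ : ℝ} (hδ : 0 < δ) :
    ∃ J : ℕ → Finset (ℕ × ℝ), (∀ n, J n ⊆ D.I n) ∧ Dense D.B J D.I ∧
      J1 η p { D with I := J } ∧
      ∀ᶠ n in (U : Filter ℕ), ∀ x ∈ J n, ∀ y ∈ J n, ∀ i, |F n x i - F n y i| ≤ δ := by
  obtain ⟨J, h1, h2, h3, h4⟩ := MkA.net h.mka m F hF hδ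
  exact ⟨J, h1, h2, J1.sub' h h1 h2 h3, h4⟩

/-! ### vectors near the axes of a frame -/

theorem abs_coord_le {f : Fin 3 → V3} (hf : Ortho f) (k i : Fin 3) : |f k i| ≤ 1 := by
  have h := hf k k
  rw [if_pos rfl] at h
  unfold dt at h
  rw [abs_le]
  have h0 := mul_self_nonneg (f k 0)
  have h1 := mul_self_nonneg (f k 1)
  have h2 := mul_self_nonneg (f k 2)
  fin_cases i <;> simp only [Fin.zero_eta, Fin.mk_one, Fin.reduceFinMk] <;>
    constructor <;> nlinarith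

/-- a vector whose direction is near the axis `k0` has small components along the other axes -/
theorem frm_vec {f : Fin 3 → V3} (hf : Ortho f) {g gh : V3} {c : ℝ} (hg : g = c • gh) (k0 : Fin 3)
    (hd : ∀ i, |gh i - f k0 i| ≤ 1 / 50) {k : Fin 3} (hk : k ≠ k0) :
    |dt g (f k)| ≤ |dt g (f k0)| / 10 := by
  have hu : ∀ j : Fin 3, |dt gh (f j) - dt (f k0) (f j)| ≤ 3 / 50 := by
    intro j
    have e : dt gh (f j) - dt (f k0) (f j) = (gh 0 - f k0 0) * f j 0 + (gh 1 - f k0 1) * f j 1 +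
        (gh 2 - f k0 2) * f j 2 := by unfold dt; ring
    rw [e]
    have hm : ∀ i, |(gh i - f k0 i) * f j i| ≤ 1 / 50 := by
      intro i
      rw [abs_mul]
      calc |gh i - f k0 i| * |f j i| ≤ 1 / 50 * 1 :=
            mul_le_mul (hd i) (abs_coord_le hf j i) (abs_nonneg _) (by norm_num)
        _ = 1 / 50 := mul_one _
    have h0 := hm 0
    have h1 := hm 1
    have h2 := hm 2
    calc _ ≤ |(gh 0 - f k0 0) * f j 0 + (gh 1 - f k0 1) * f j 1| + |(gh 2 - f k0 2) * f j 2| :=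
          abs_add_le _ _
      _ ≤ |(gh 0 - f k0 0) * f j 0| + |(gh 1 - f k0 1) * f j 1| + |(gh 2 - f k0 2) * f j 2| := by
          linarith [abs_add_le ((gh 0 - f k0 0) * f j 0) ((gh 1 - f k0 1) * f j 1)]
      _ ≤ 3 / 50 := by linarith
  have e1 : ∀ j, dt g (f j) = c * dt gh (f j) := by
    intro j
    rw [hg]; unfold dt; simp only [Pi.smul_apply, smul_eq_mul]; ring
  have a1 := hu k
  have a2 := hu k0
  rw [hf k0 k, if_neg (Ne.symm hk), sub_zero] at a1
  rw [hf k0 k0, if_pos rfl] at a2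
  have a3 : 1 - 3 / 50 ≤ |dt gh (f k0)| := by
    have := (abs_le.1 a2).1
    exact le_trans (by linarith) (le_abs_self _)
  rw [e1, e1, abs_mul, abs_mul]
  have hc := abs_nonneg c
  have : |c| * |dt gh (f k)| ≤ |c| * (|dt gh (f k0)| / 10) :=
    mul_le_mul_of_nonneg_left (by linarith) hc
  linarith

/-! ### unit vectors, the frame condition of `ThinW` -/

/-- unit vector -/
noncomputable def uv (g : V3) : V3 := fun i => g i / Real.sqrt (dt g g)

theorem dt_self_nonneg (g : V3) : 0 ≤ dt g g := by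
  unfold dt
  have h0 := mul_self_nonneg (g 0)
  have h1 := mul_self_nonneg (g 1)
  have h2 := mul_self_nonneg (g 2)
  linarith

theorem abs_le_sqrt_dt (g : V3) (i : Fin 3) : |g i| ≤ Real.sqrt (dt g g) := by
  refine Real.abs_le_sqrt ?_
  unfold dt
  have h0 := mul_self_nonneg (g 0)
  have h1 := mul_self_nonneg (g 1)
  have h2 := mul_self_nonneg (g 2)
  fin_cases i <;> simp only [Fin.zero_eta, Fin.mk_one, Fin.reduceFinMk] <;> nlinarith

theorem uv_le (g : V3) (i : Fin 3) : |uv g i| ≤ 1 := by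
  unfold uv
  rw [abs_div, abs_of_nonneg (Real.sqrt_nonneg _)]
  exact div_le_one_of_le₀ (abs_le_sqrt_dt g i) (Real.sqrt_nonneg _)

theorem smul_uv (g : V3) : g = Real.sqrt (dt g g) • uv g := by
  ext i
  simp only [uv, Pi.smul_apply, smul_eq_mul]
  rcases eq_or_ne (Real.sqrt (dt g g)) 0 with h | h
  · have h1 := abs_le_sqrt_dt g i
    rw [h] at h1 ⊢
    rw [abs_nonpos_iff.1 h1]; ring
  · field_simp

/-- the Taylor data are unique -/
theorem Tay_unique {q : ℝ → V3 → ℝ} {T : Ln4} {N R N' R' : V3} {H H' : QF}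
    (h : Tay q T N R H) (h' : Tay q T N' R' H') : N = N' ∧ R = R' := by
  have key : ∀ z (X : V3), dt (bz N R z) X + H.ev X = dt (bz N' R' z) X + H'.ev X := by
    intro z X
    have h1 := h z X
    have h2 := h' z X
    unfold Fq at h1 h2
    linarith
  have key2 : ∀ z (X : V3), dt (bz N R z) X = dt (bz N' R' z) X := by
    intro z X
    have h1 := key z X
    have h2 := key z (-X)
    have e1 : H.ev (-X) = H.ev X := by simp only [QF.ev, Pi.neg_apply]; ring
    have e2 : H'.ev (-X) = H'.ev X := by simp only [QF.ev, Pi.neg_apply]; ring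
    have e3 : dt (bz N R z) (-X) = -dt (bz N R z) X := by simp only [dt, Pi.neg_apply]; ring
    have e4 : dt (bz N' R' z) (-X) = -dt (bz N' R' z) X := by simp only [dt, Pi.neg_apply]; ring
    rw [e1, e2, e3, e4] at h2
    linarith
  have key3 : ∀ z (i : Fin 3), bz N R z i = bz N' R' z i := by
    intro z i
    have h1 := key2 z (fun j => if j = i then 1 else 0)
    fin_cases i <;> simpa [dt] using h1
  have hN : N = N' := by
    ext i
    have := key3 0 i
    simpa [bz] using this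
  refine ⟨hN, ?_⟩
  ext i
  have := key3 1 i
  simpa [bz, hN] using this

open Classical in
/-- **the frame condition** on a dense marked part: every orthonormal frame which is near the
directions of ONE incidence is good for all incidences. -/
theorem exists_frm {p : Par4} {D : Dat4} {c Λ : ℝ → ℝ} {τ : Fin 3 → ℝ → ℝ}
    (h : MkA D.B D.I (D.G p) D.lev D.A c Λ τ D.f D.b D.vm D.w) :
    ∃ J : ℕ → Finset (ℕ × ℝ), (∀ n, J n ⊆ D.I n) ∧ Dense D.B J D.I ∧
      MkA D.B J (D.G p) D.lev D.A c Λ τ D.f D.b D.vm D.w ∧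
      ∀ᶠ n in (U : Filter ℕ), ∀ x0 ∈ J n, ∀ f : Fin 3 → V3, Ortho f →
        ∀ N0 R0 H0, Tay (mk4 D n 0 x0).q (D.L n x0.1) N0 R0 H0 →
          (∀ i, |uv (N0 + x0.2 • R0) i - f 0 i| ≤ 1 / 100) →
          (∀ i, |uv (cr N0 R0) i - f 1 i| ≤ 1 / 100) →
        ∀ x ∈ J n, Frm (mk4 D n 0 x) (D.L n x.1) x.2 f := by
  let P : ℕ → ℕ × ℝ → V3 × V3 → Prop := fun n x q =>
    ∃ H, Tay (mk4 D n 0 x).q (D.L n x.1) q.1 q.2 H
  let q : ℕ → ℕ × ℝ → V3 × V3 := fun n x => if hq : ∃ q, P n x q then hq.choose else 0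
  have hq : ∀ n x N R H, Tay (mk4 D n 0 x).q (D.L n x.1) N R H → (q n x).1 = N ∧ (q n x).2 = R := by
    intro n x N R H hT
    have hex : ∃ q, P n x q := ⟨(N, R), H, hT⟩
    have e1 : q n x = hex.choose := dif_pos hex
    obtain ⟨H', hH'⟩ := hex.choose_spec
    rw [e1]
    exact Tay_unique hH' hT
  obtain ⟨J, h1, h2, h3, h4⟩ := MkA.net h 6 (fun n x i =>
    ![uv ((q n x).1 + x.2 • (q n x).2) 0, uv ((q n x).1 + x.2 • (q n x).2) 1,
      uv ((q n x).1 + x.2 • (q n x).2) 2, uv (cr (q n x).1 (q n x).2) 0,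
      uv (cr (q n x).1 (q n x).2) 1, uv (cr (q n x).1 (q n x).2) 2] i)
    (Eventually.of_forall fun n x hx i => by fin_cases i <;> exact uv_le _ _)
    (δ := 1 / 100) (by norm_num)
  refine ⟨J, h1, h2, h3, ?_⟩
  filter_upwards [h4] with n hn x0 hx0 f hf N0 R0 H0 hT0 hf0 hf1 x hx N R H hT
  obtain ⟨g1, g2⟩ := hq n x N R H hT
  obtain ⟨k1, k2⟩ := hq n x0 N0 R0 H0 hT0
  have hc := hn x hx x0 hx0
  have c0 : ∀ i, |uv (N + x.2 • R) i - f 0 i| ≤ 1 / 50 := by
    intro i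
    have a1 : |uv (N + x.2 • R) i - uv (N0 + x0.2 • R0) i| ≤ 1 / 100 := by
      fin_cases i
      · simpa [g1, g2, k1, k2] using hc 0
      · simpa [g1, g2, k1, k2] using hc 1
      · simpa [g1, g2, k1, k2] using hc 2
    have a2 := hf0 i
    have a3 := abs_sub_le (uv (N + x.2 • R) i) (uv (N0 + x0.2 • R0) i) (f 0 i)
    linarith
  have c1 : ∀ i, |uv (cr N R) i - f 1 i| ≤ 1 / 50 := by
    intro i
    have a1 : |uv (cr N R) i - uv (cr N0 R0) i| ≤ 1 / 100 := by
      fin_cases i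
      · simpa [g1, g2, k1, k2] using hc 3
      · simpa [g1, g2, k1, k2] using hc 4
      · simpa [g1, g2, k1, k2] using hc 5
    have a2 := hf1 i
    have a3 := abs_sub_le (uv (cr N R) i) (uv (cr N0 R0) i) (f 1 i)
    linarith
  exact ⟨frm_vec hf (smul_uv _) 0 c0 (by decide), frm_vec hf (smul_uv _) 0 c0 (by decide),
    frm_vec hf (smul_uv _) 1 c1 (by decide), frm_vec hf (smul_uv _) 1 c1 (by decide)⟩

end Crest.Agent.R136.Us555
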