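import Crest.Agent.R136.Thn3_768
import Crest.Agent.R136.Cb_650
import Crest.Agent.R136.TnC_327
import Crest.Agent.R136.Us5_555

/-!
# R136 (S0187), U6 thin side (helper768), part 4: the container

`Deep` : a deep nondegenerate mark through the same line, on which the function of `S` is classified.
**`cont_of`** : three deep marks at separated heights, small rotation, small `w 2 / w 1` ⊢ the sheet is
the model up to a power-small error (`Cont`).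
-/

set_option autoImplicit false
set_option linter.unusedVariables false

namespace Crest.Agent.R136.Thn768

open Crest.Agent.R136.Sh605 Crest.Agent.R136.Tl102 Crest.Agent.R136.K4
open Crest.Agent.R136.KapP335 (DetP kapP)
open Crest.Agent.R136.GeoN778 (Qd Un)
open Crest.Agent.R136.Us555 (uv)

/-! ### frame -/

theorem dt_cr_left (x y : V3) : dt x (cr x y) = 0 := by
  simp only [dt, cr, Matrix.cons_val]; ring

theorem dt_cr_right (x y : V3) : dt y (cr x y) = 0 := by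
  simp only [dt, cr, Matrix.cons_val]; ring

theorem dt_cr_cr (x y : V3) : dt (cr x y) (cr x y) = dt x x * dt y y - dt x y ^ 2 := by
  simp only [dt, cr, Matrix.cons_val]; ring

theorem dt_comm (x y : V3) : dt x y = dt y x := by
  simp only [dt]; ring

theorem dt_smul_right (c : ℝ) (x y : V3) : dt x (c • y) = c * dt x y := by
  simp only [dt, Pi.smul_apply, smul_eq_mul]; ring

theorem dt_smul_left (c : ℝ) (x y : V3) : dt (c • x) y = c * dt x y := by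
  simp only [dt, Pi.smul_apply, smul_eq_mul]; ring

/-- an orthonormal frame from two orthogonal unit vectors -/
theorem ortho_cr {x y : V3} (hx : dt x x = 1) (hy : dt y y = 1) (hxy : dt x y = 0) :
    Ortho ![x, y, cr x y] := by
  have hyx : dt y x = 0 := by rw [dt_comm]; exact hxy
  have hc := dt_cr_cr x y
  rw [hx, hy, hxy] at hc
  intro i j
  fin_cases i <;> fin_cases j
  · simpa using hx
  · simpa using hxy
  · simpa using dt_cr_left x y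
  · simpa using hyx
  · simpa using hy
  · simpa using dt_cr_right x y
  · have := dt_cr_left x y
    rw [dt_comm] at this
    simpa using this
  · have := dt_cr_right x y
    rw [dt_comm] at this
    simpa using this
  · simpa using hc

theorem nm_cr_le (x y : V3) : nm (cr x y) ≤ nm x * nm y := by
  unfold nm
  rw [← Real.sqrt_mul (dt_self_nonneg x)]
  apply Real.sqrt_le_sqrt
  rw [dt_cr_cr]
  nlinarith [sq_nonneg (dt x y)]

theorem nm_add_le (x y : V3) : nm (x + y) ≤ nm x + nm y := by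
  have h1 := (abs_le.1 (abs_dt_le x y)).2
  have e : nm (x + y) ^ 2 = nm x ^ 2 + 2 * dt x y + nm y ^ 2 := by
    rw [nm_sq, nm_sq, nm_sq]
    simp only [dt, Pi.add_apply]; ring
  have h2 := nm_nonneg x
  have h3 := nm_nonneg y
  have h4 : nm (x + y) ^ 2 ≤ (nm x + nm y) ^ 2 := by rw [e]; nlinarith
  exact le_of_sq_le_sq₀ h4 (by positivity)
where
  le_of_sq_le_sq₀ {a b : ℝ} (h : a ^ 2 ≤ b ^ 2) (hb : 0 ≤ b) : a ≤ b :=
    (abs_le_of_sq_le_sq h hb).trans' (le_abs_self a)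

/-- `R · (g × Ω) = - |Ω|²` -/
theorem dt_R_cr (N R : V3) (z : ℝ) :
    dt R (cr (N + z • R) (cr N R)) = -dt (cr N R) (cr N R) := by
  simp only [dt, cr, Matrix.cons_val, Pi.add_apply, Pi.smul_apply, smul_eq_mul]; ring

theorem dt_g_Ω (N R : V3) (z : ℝ) : dt (N + z • R) (cr N R) = 0 := by
  simp only [dt, cr, Matrix.cons_val, Pi.add_apply, Pi.smul_apply, smul_eq_mul]; ring

theorem nm_pos_of_ne {x : V3} {c : ℝ} (hc : 0 < c) (i : Fin 3) (h : c ≤ |x i|) : 0 < nm x :=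
  lt_of_lt_of_le (hc.trans_le h) (abs_apply_le x i)

/-- direction of a perturbed vector -/
theorem uv_near {g r : V3} {η : ℝ} (hg : 1 / 2 ≤ nm g) (hr : nm r ≤ η) (hη : η ≤ 1 / 400)
    (i : Fin 3) : |uv (g + r) i - (1 / nm g) * g i| ≤ 1 / 100 := by
  have hη0 : 0 ≤ η := (nm_nonneg r).trans hr
  have h1 := nm_add_le g r
  have h2 := nm_add_le (g + r) (-r)
  have e1 : g + r + -r = g := by abel
  have e2 : nm (-r) = nm r := by
    have := nm_smul (-1) r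
    rw [abs_neg, abs_one, one_mul, neg_smul, one_smul] at this
    exact this
  rw [e1, e2] at h2
  have hgr : 1 / 4 ≤ nm (g + r) := by linarith
  have hg0 : 0 < nm g := by linarith
  have hgr0 : 0 < nm (g + r) := by linarith
  have e3 : uv (g + r) i = (g i + r i) / nm (g + r) := rfl
  have e4 : uv (g + r) i - (1 / nm g) * g i =
      ((g i + r i) / nm (g + r) * (nm g - nm (g + r)) + r i) / nm g := by
    rw [e3]
    field_simp
    ring
  have k1 : |(g i + r i) / nm (g + r)| ≤ 1 := by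
    rw [abs_div, abs_of_pos hgr0, div_le_one hgr0]
    exact abs_apply_le (g + r) i
  have k2 : |nm g - nm (g + r)| ≤ η := by
    rw [abs_le]; constructor <;> linarith
  have k3 : |r i| ≤ η := (abs_apply_le r i).trans hr
  rw [e4, abs_div, abs_of_pos hg0, div_le_iff₀ hg0]
  have := Arc880.abs_add2 (mul_abs_le k1 k2) k3
  linarith

/-! ### deep marks -/

/-- a deep nondegenerate mark of type (I) through the line `T` at the height `z` -/
structure Deep (S : Plk4) (T : Ln4) (δ ε X η1 Ye : ℝ) (N R : V3) (H : QF) (z : ℝ) : Prop where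
  ex : ∃ (S' : Plk4) (z' ρ' : ℝ) (c0 c1 : V3) (G' : QF), Own S' T z' ρ' δ c0 c1 G' ∧
    Snd S' T z' ρ' c0 c1 G' X S.q N R H ∧ ε ≤ |scB1 (kap c0 c1 G') c0 c1 2| ∧
    z' ≤ z ∧ z ≤ z' + ρ' ∧
    (S'.w 0 * kap c0 c1 G') * S.w 2 ^ 2 ≤ η1 * Ye * S'.w 2 ^ 2 ∧
    (S'.w 0 * kap c0 c1 G') * (S.w 1 * S.w 2) ≤ η1 * Ye * (S'.w 1 * S'.w 2)

section deep

variable {S : Plk4} {T : Ln4} {δ ε X η1 Ye : ℝ} {N R : V3} {H : QF} {z : ℝ}

theorem pol_self (H : QF) (x : V3) : H.pol x x = 2 * H.ev x := by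
  simp only [QF.pol, QF.ev]; ring

/-- smallness of the second order part on tangent vectors, from a deep mark -/
theorem Deep.bd (D : Deep S T δ ε X η1 Ye N R H z) (hw1 : 0 < S.w 1) (hw2 : 0 < S.w 2)
    (hε : 0 < ε) (hε1 : ε ≤ 1) (hX : X ≤ ε / 10 ^ 6) (hX1 : X ≤ 1 / 256) {t : V3} (ht : nm t ≤ 2)
    (hg : dt (N + z • R) t = 0) :
    |H.ev t| * S.w 2 ^ 2 ≤ 10 ^ 13 * (η1 * Ye) ∧
      |H.pol ((1 / nm (cr N R)) • cr N R) t| * (S.w 1 * S.w 2) ≤ 10 ^ 19 / ε * (η1 * Ye) := by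
  obtain ⟨S', z', ρ', c0, c1, G', O, s, hr, z1, z2, k1, k2⟩ := D.ex
  have w1 := O.pos 1
  have w2 := O.pos 2
  have hY := O.Ye0
  have hρ := O.hρ
  set Y := S'.w 0 * kap c0 c1 G' with hYd
  -- lateral size of `t`
  have Lt : Lat S' (2 / S'.w 2) t := by
    have t1 := (abs_dt_unit O.ortho 1 t).trans ht
    have t2 := (abs_dt_unit O.ortho 2 t).trans ht
    constructor
    · refine t1.trans ?_
      rw [div_mul_eq_mul_div, le_div_iff₀ w2]
      have := O.w21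
      linarith
    · rw [div_mul_cancel₀ _ w2.ne']; exact t2
  -- lateral size of `f 1`
  have om := s.om_ge1 O hr hX (by linarith)
  rw [← hYd] at om
  have hP : 0 < ρ' * (S'.w 1 * S'.w 2) := by positivity
  have hΩ : 0 < nm (cr N R) := by
    by_contra hc
    have h0 : nm (cr N R) = 0 := le_antisymm (not_lt.1 hc) (nm_nonneg _)
    rw [h0, zero_mul] at om
    have : 0 < ε / 10 ^ 3 * (Y * S'.w 1) := by positivity
    linarith
  obtain ⟨m, β0', β1', Γ', n, k⟩ := s.data O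
  obtain ⟨σ, hσ, eΩ⟩ := O.Ω_eq k
  rw [← hYd] at eΩ
  have e2 : (ρ' * (S'.w 1 * S'.w 2)) * |dt (S'.e 2) (cr N R)| = Y * (S'.w 2 * |cr β0' β1' 2|) := by
    have h1 := congrArg (fun v => |dt (S'.e 2) v|) eΩ
    beta_reduce at h1
    have hσY : |σ * Y| = Y := by rw [abs_mul, hσ, one_mul, abs_of_pos hY]
    have hPa : |ρ' * (S'.w 1 * S'.w 2)| = ρ' * (S'.w 1 * S'.w 2) := abs_of_pos hP
    rw [dt_smul_right, dt_smul_right, (O.dt_cmb _).2.2, abs_mul (ρ' * (S'.w 1 * S'.w 2)),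
      abs_mul (σ * Y), hσY, hPa, abs_mul (S'.w 2), abs_of_pos w2] at h1
    exact h1
  have e3 := n.Ω_le (by linarith : X ≤ 1) 2
  have Lf : Lat S' (2 * 10 ^ 6 / (ε * S'.w 1)) ((1 / nm (cr N R)) • cr N R) := by
    constructor
    · have h1 : |dt (S'.e 1) ((1 / nm (cr N R)) • cr N R)| ≤ 1 := by
        rw [dt_smul_right, abs_mul, abs_of_pos (by positivity), one_div, inv_mul_le_iff₀ hΩ,
          mul_one]
        exact abs_dt_unit O.ortho 1 _
      refine h1.trans ?_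
      rw [div_mul_eq_mul_div, le_div_iff₀ (by positivity)]
      nlinarith
    · rw [dt_smul_right, abs_mul, abs_of_pos (by positivity), one_div, inv_mul_le_iff₀ hΩ]
      -- |dt e2 Ω| ≤ nm Ω * (2e6 /(ε w1) * w2)
      have h2 : (ρ' * (S'.w 1 * S'.w 2)) * |dt (S'.e 2) (cr N R)| ≤ Y * (S'.w 2 * 1650) := by
        rw [e2]
        exact mul_le_mul_of_nonneg_left (mul_le_mul_of_nonneg_left e3 w2.le) hY.le
      have h3 : Y ≤ nm (cr N R) * (ρ' * (S'.w 1 * S'.w 2)) * (10 ^ 3 / (ε * S'.w 1)) := by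
        have : ε / 10 ^ 3 * (Y * S'.w 1) * (10 ^ 3 / (ε * S'.w 1)) = Y := by field_simp
        calc Y = ε / 10 ^ 3 * (Y * S'.w 1) * (10 ^ 3 / (ε * S'.w 1)) := this.symm
          _ ≤ _ := mul_le_mul_of_nonneg_right om (by positivity)
      have h4 : (ρ' * (S'.w 1 * S'.w 2)) * |dt (S'.e 2) (cr N R)| ≤ (ρ' * (S'.w 1 * S'.w 2)) *
          (nm (cr N R) * (2 * 10 ^ 6 / (ε * S'.w 1) * S'.w 2)) := by
        refine h2.trans ?_
        calc Y * (S'.w 2 * 1650) ≤ nm (cr N R) * (ρ' * (S'.w 1 * S'.w 2)) *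
              (10 ^ 3 / (ε * S'.w 1)) * (S'.w 2 * 1650) :=
              mul_le_mul_of_nonneg_right h3 (by positivity)
          _ = (ρ' * (S'.w 1 * S'.w 2)) * (nm (cr N R) * (1650000 / (ε * S'.w 1) * S'.w 2)) := by
              ring
          _ ≤ _ := by
              apply mul_le_mul_of_nonneg_left _ hP.le
              apply mul_le_mul_of_nonneg_left _ hΩ.le
              apply mul_le_mul_of_nonneg_right _ w2.le
              apply div_le_div_of_nonneg_right _ (by positivity)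
              norm_num
      exact le_of_mul_le_mul_left h4 hP
  have gΩ : dt (N + z • R) ((1 / nm (cr N R)) • cr N R) = 0 := by
    rw [dt_smul_right, dt_g_Ω, mul_zero]
  have p1 := s.pol O hX1 z1 z2 Lt Lt hg hg
  have p2 := s.pol O hX1 z1 z2 Lf Lt gΩ hg
  rw [← hYd] at p1 p2
  constructor
  · rw [pol_self, abs_mul, abs_two] at p1
    have h5 : |H.ev t| ≤ 10 ^ 13 * Y / S'.w 2 ^ 2 := by
      have e5 : 10 ^ 12 * (2 / S'.w 2 * (2 / S'.w 2) * Y) = 2 * (2 * 10 ^ 12 * Y / S'.w 2 ^ 2) := by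
        ring
      rw [e5] at p1
      have h6 : 2 * 10 ^ 12 * Y / S'.w 2 ^ 2 ≤ 10 ^ 13 * Y / S'.w 2 ^ 2 := by
        apply div_le_div_of_nonneg_right _ (by positivity)
        linarith
      linarith
    have h7 : 10 ^ 13 * Y / S'.w 2 ^ 2 * S.w 2 ^ 2 ≤ 10 ^ 13 * (η1 * Ye) := by
      rw [div_mul_eq_mul_div, div_le_iff₀ (by positivity)]
      calc 10 ^ 13 * Y * S.w 2 ^ 2 = 10 ^ 13 * (Y * S.w 2 ^ 2) := by ring
        _ ≤ 10 ^ 13 * (η1 * Ye * S'.w 2 ^ 2) := by linarith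
        _ = _ := by ring
    exact (mul_le_mul_of_nonneg_right h5 (by positivity)).trans h7
  · have h5 : |H.pol ((1 / nm (cr N R)) • cr N R) t| ≤ 10 ^ 19 / ε * (Y / (S'.w 1 * S'.w 2)) := by
      refine p2.trans ?_
      have e5 : 10 ^ 12 * (2 * 10 ^ 6 / (ε * S'.w 1) * (2 / S'.w 2) * Y) =
          4 * 10 ^ 18 / ε * (Y / (S'.w 1 * S'.w 2)) := by field_simp; ring
      rw [e5]
      apply mul_le_mul_of_nonneg_right _ (by positivity)
      apply div_le_div_of_nonneg_right _ hε.le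
      norm_num
    have h7 : Y / (S'.w 1 * S'.w 2) * (S.w 1 * S.w 2) ≤ η1 * Ye := by
      rw [div_mul_eq_mul_div, div_le_iff₀ (by positivity)]
      exact k2
    calc _ ≤ 10 ^ 19 / ε * (Y / (S'.w 1 * S'.w 2)) * (S.w 1 * S.w 2) :=
          mul_le_mul_of_nonneg_right h5 (by positivity)
      _ = 10 ^ 19 / ε * (Y / (S'.w 1 * S'.w 2) * (S.w 1 * S.w 2)) := by ring
      _ ≤ _ := mul_le_mul_of_nonneg_left h7 (by positivity)

end deep

/-! ### numbers -/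

theorem core_num {Ye w1 w2 ρ O' G0 D δ ε : ℝ} (Y0 : 0 < Ye) (h1 : 0 < w1) (h2 : 0 < w2)
    (hρ : 0 < ρ) (hO : 0 < O') (hG : 1 / 2 ≤ G0) (hG4 : G0 ≤ 4) (hD : 0 < D) (hδ : 0 < δ)
    (hδ1 : δ ≤ 1) (hε : 0 < ε) (a1 : ε / 10 ^ 3 * (Ye * w1) ≤ O' * (ρ * (w1 * w2)))
    (a2 : O' * (ρ * (w1 * w2)) ≤ 10 ^ 5 * (Ye * w1))
    (d1 : δ * Ye ^ 3 ≤ D * (ρ * (w1 * w2)) ^ 2) (d2 : D * (ρ * (w1 * w2)) ^ 2 ≤ 10 ^ 10 * Ye ^ 3) :
    w2 / 10 ^ 6 ≤ Ye * G0 ^ 2 / (2 * ρ * O') ∧ Ye * G0 ^ 2 / (2 * ρ * O') ≤ 10 ^ 4 * w2 / ε ∧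
      ε * w1 / 10 ^ 9 ≤ Real.sqrt (Ye * G0 * O' ^ 2 / (3 * D)) ∧
      Real.sqrt (Ye * G0 * O' ^ 2 / (3 * D)) ≤ 10 ^ 6 * w1 / δ := by
  have hG2 : 1 / 4 ≤ G0 ^ 2 := by nlinarith
  have hG16 : G0 ^ 2 ≤ 16 := by nlinarith
  have b1 : ε / 10 ^ 3 * Ye ≤ O' * (ρ * w2) := by
    have : ε / 10 ^ 3 * Ye * w1 ≤ O' * (ρ * w2) * w1 := by linarith
    exact le_of_mul_le_mul_right this h1
  have b2 : O' * (ρ * w2) ≤ 10 ^ 5 * Ye := by
    have : O' * (ρ * w2) * w1 ≤ 10 ^ 5 * Ye * w1 := by linarith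
    exact le_of_mul_le_mul_right this h1
  have hP : 0 < ρ * (w1 * w2) := by positivity
  have e : Ye * G0 * O' ^ 2 / (3 * D) =
      Ye * G0 * (O' * (ρ * (w1 * w2))) ^ 2 / (3 * (D * (ρ * (w1 * w2)) ^ 2)) := by
    field_simp
  have hDP : 0 < D * (ρ * (w1 * w2)) ^ 2 := by positivity
  refine ⟨?_, ?_, ?_, ?_⟩
  · rw [div_le_div_iff₀ (by norm_num) (by positivity)]
    have : w2 * (2 * ρ * O') = 2 * (O' * (ρ * w2)) := by ring
    rw [this]
    nlinarith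
  · rw [div_le_div_iff₀ (by positivity) hε]
    have : 10 ^ 4 * w2 * (2 * ρ * O') = 2 * 10 ^ 4 * (O' * (ρ * w2)) := by ring
    rw [this]
    have h3 : Ye * G0 ^ 2 * ε ≤ Ye * 16 * ε :=
      mul_le_mul_of_nonneg_right (mul_le_mul_of_nonneg_left hG16 Y0.le) hε.le
    nlinarith
  · apply Real.le_sqrt_of_sq_le
    rw [e, le_div_iff₀ (by positivity)]
    have k1 : (ε / 10 ^ 3 * (Ye * w1)) ^ 2 ≤ (O' * (ρ * (w1 * w2))) ^ 2 :=
      pow_le_pow_left₀ (by positivity) a1 2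
    calc (ε * w1 / 10 ^ 9) ^ 2 * (3 * (D * (ρ * (w1 * w2)) ^ 2)) ≤
          (ε * w1 / 10 ^ 9) ^ 2 * (3 * (10 ^ 10 * Ye ^ 3)) := by
          apply mul_le_mul_of_nonneg_left _ (by positivity)
          linarith
      _ = 3 / 10 ^ 2 * (Ye * (ε / 10 ^ 3 * (Ye * w1)) ^ 2) := by ring
      _ ≤ 1 / 2 * (Ye * (ε / 10 ^ 3 * (Ye * w1)) ^ 2) := by
          apply mul_le_mul_of_nonneg_right (by norm_num) (by positivity)
      _ ≤ G0 * (Ye * (ε / 10 ^ 3 * (Ye * w1)) ^ 2) := by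
          apply mul_le_mul_of_nonneg_right hG (by positivity)
      _ = Ye * G0 * (ε / 10 ^ 3 * (Ye * w1)) ^ 2 := by ring
      _ ≤ _ := mul_le_mul_of_nonneg_left k1 (by positivity)
  · apply Real.sqrt_le_iff.2
    refine ⟨by positivity, ?_⟩
    rw [e, div_le_iff₀ (by positivity)]
    have k1 : (O' * (ρ * (w1 * w2))) ^ 2 ≤ (10 ^ 5 * (Ye * w1)) ^ 2 :=
      pow_le_pow_left₀ (by positivity) a2 2
    have k3 : δ ^ 2 ≤ δ := by nlinarith
    calc Ye * G0 * (O' * (ρ * (w1 * w2))) ^ 2 ≤ Ye * 4 * (10 ^ 5 * (Ye * w1)) ^ 2 := by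
          apply mul_le_mul (mul_le_mul_of_nonneg_left hG4 Y0.le) k1 (by positivity) (by positivity)
      _ = 4 / (3 * 10 ^ 2) * ((10 ^ 6 * w1 / δ) ^ 2 * (3 * (δ ^ 2 * Ye ^ 3))) := by
          field_simp
      _ ≤ 1 * ((10 ^ 6 * w1 / δ) ^ 2 * (3 * (δ * Ye ^ 3))) := by
          apply mul_le_mul (by norm_num) _ (by positivity) (by norm_num)
          apply mul_le_mul_of_nonneg_left _ (by positivity)
          apply mul_le_mul_of_nonneg_left _ (by norm_num)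
          exact mul_le_mul_of_nonneg_right k3 (by positivity)
      _ ≤ _ := by
          rw [one_mul]
          apply mul_le_mul_of_nonneg_left _ (by positivity)
          linarith

/-- interpolation at three separated slopes -/
theorem interp {a b c r M : ℝ} {σ : Fin 3 → ℝ} (hr : 0 < r) (hr1 : r ≤ 1)
    (hs : ∀ i j, i ≠ j → r < |σ i - σ j|) (hσ : ∀ i, |σ i| ≤ 1)
    (h : ∀ i, |a - σ i * b + σ i ^ 2 * c| ≤ M) :
    |a| ≤ 15 * M / r ^ 2 ∧ |b| ≤ 15 * M / r ^ 2 ∧ |c| ≤ 15 * M / r ^ 2 := by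
  have e : ∀ i, a - σ i * b + σ i ^ 2 * c = a + (-b) * σ i + c * σ i ^ 2 := fun i => by ring
  simp only [e] at h
  have hM : 0 ≤ M := (abs_nonneg _).trans (h 0)
  obtain ⟨k1, k2, k3⟩ := Tn327.vander3 hr hr1 (hs 0 1 (by decide)) (hs 1 2 (by decide))
    (hs 0 2 (by decide)) (hσ 0) (hσ 1) (h 0) (h 1) (h 2)
  rw [abs_neg] at k2
  have hr2 : 0 < r ^ 2 := by positivity
  have m1 : 10 * M / r ^ 2 ≤ 15 * M / r ^ 2 := div_le_div_of_nonneg_right (by linarith) hr2.le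
  have m2 : 4 * M / r ^ 2 ≤ 15 * M / r ^ 2 := div_le_div_of_nonneg_right (by linarith) hr2.le
  exact ⟨k1, k2.trans m1, k3.trans m2⟩

/-- slopes of the tangent planes at three separated heights -/
theorem slopes {G0 ρ O' r nR η0 ε : ℝ} (G1 : 1 / 2 ≤ G0) (hρ : 0 < ρ) (hO : 0 < O')
    (hOR : O' ≤ G0 * nR) (hR : ρ * nR ≤ η0) (hη0 : η0 ≤ 1 / 10) (hr : |r| ≤ nR) (hε : 0 < ε)
    {x : Fin 3 → ℝ} (hx : ∀ j, |x j| ≤ ρ / 2) (hs : ∀ i j, i ≠ j → ε * ρ ≤ |x i - x j|) :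
    ∃ σ τ : Fin 3 → ℝ, (∀ j, τ j * (G0 + x j * r) = -(x j * (O' / G0))) ∧
      (∀ j, σ j = τ j * (G0 ^ 2 / (2 * ρ * O'))) ∧ (∀ j, |τ j| ≤ 1) ∧ (∀ j, |σ j| ≤ 1) ∧
      ∀ i j, i ≠ j → ε / 10 < |σ i - σ j| := by
  have hG00 : 0 < G0 := by linarith
  have nR0 : 0 ≤ nR := (abs_nonneg r).trans hr
  have hxR : ∀ j, |x j * r| ≤ 1 / 10 := by
    intro j
    have h1 := mul_abs_le (hx j) hr
    have h2 : ρ / 2 * nR = ρ * nR / 2 := by ring
    rw [h2] at h1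
    linarith [mul_nonneg hρ.le nR0]
  have dn : ∀ j, G0 / 2 ≤ G0 + x j * r ∧ G0 + x j * r ≤ 2 * G0 := by
    intro j
    have := abs_le.1 (hxR j)
    constructor <;> linarith [this.1, this.2]
  have dp : ∀ j, 0 < G0 + x j * r := fun j => by linarith [(dn j).1]
  have hOG : O' / G0 ≤ nR := by rw [div_le_iff₀ hG00]; linarith
  have hOG0 : 0 < O' / G0 := by positivity
  have σe : ∀ j, -(x j * (O' / G0)) / (G0 + x j * r) * (G0 ^ 2 / (2 * ρ * O')) =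
      -(x j * G0) / (2 * ρ * (G0 + x j * r)) := by
    intro j
    have := (dp j).ne'
    field_simp
  refine ⟨fun j => -(x j * (O' / G0)) / (G0 + x j * r) * (G0 ^ 2 / (2 * ρ * O')),
    fun j => -(x j * (O' / G0)) / (G0 + x j * r), fun j => div_mul_cancel₀ _ (dp j).ne',
    fun j => rfl, fun j => ?_, fun j => ?_, fun i j hij => ?_⟩
  · rw [abs_div, abs_neg, abs_of_pos (dp j), div_le_one (dp j), abs_mul, abs_of_pos hOG0]
    have h2 : |x j| * (O' / G0) ≤ ρ / 2 * nR := mul_le_mul (hx j) hOG hOG0.le (by linarith)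
    linarith [(dn j).1]
  · beta_reduce
    rw [σe, abs_div, abs_neg,
      abs_of_pos (mul_pos (mul_pos two_pos hρ) (dp j) : 0 < 2 * ρ * (G0 + x j * r)),
      div_le_one (mul_pos (mul_pos two_pos hρ) (dp j)), abs_mul, abs_of_pos hG00]
    have h2 : |x j| * G0 ≤ ρ / 2 * G0 := mul_le_mul_of_nonneg_right (hx j) hG00.le
    have h3 : 2 * ρ * (G0 / 2) ≤ 2 * ρ * (G0 + x j * r) :=
      mul_le_mul_of_nonneg_left (dn j).1 (by linarith)
    nlinarith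
  · beta_reduce
    rw [σe, σe]
    have e1 : -(x i * G0) / (2 * ρ * (G0 + x i * r)) - -(x j * G0) / (2 * ρ * (G0 + x j * r)) =
        -((x i - x j) * G0 ^ 2) / (2 * ρ * ((G0 + x i * r) * (G0 + x j * r))) := by
      have h1 := (dp i).ne'
      have h2 := (dp j).ne'
      have h3 : 2 * ρ * (G0 + x i * r) ≠ 0 := mul_ne_zero (mul_ne_zero two_ne_zero hρ.ne') h1
      have h4 : 2 * ρ * (G0 + x j * r) ≠ 0 := mul_ne_zero (mul_ne_zero two_ne_zero hρ.ne') h2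
      have h5 : 2 * ρ * ((G0 + x i * r) * (G0 + x j * r)) ≠ 0 :=
        mul_ne_zero (mul_ne_zero two_ne_zero hρ.ne') (mul_ne_zero h1 h2)
      rw [div_sub_div _ _ h3 h4, div_eq_div_iff (mul_ne_zero h3 h4) h5]
      ring
    have hp : 0 < 2 * ρ * ((G0 + x i * r) * (G0 + x j * r)) :=
      mul_pos (mul_pos two_pos hρ) (mul_pos (dp i) (dp j))
    rw [e1, abs_div, abs_neg, abs_mul, abs_of_pos (by positivity : 0 < G0 ^ 2), abs_of_pos hp,
      lt_div_iff₀ hp]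
    have h3 : (G0 + x i * r) * (G0 + x j * r) ≤ 2 * G0 * (2 * G0) :=
      mul_le_mul (dn i).2 (dn j).2 (dp j).le (by positivity)
    have h4 := hs i j hij
    have h5 : ε / 10 * (2 * ρ * ((G0 + x i * r) * (G0 + x j * r))) ≤
        ε / 10 * (2 * ρ * (2 * G0 * (2 * G0))) := by
      apply mul_le_mul_of_nonneg_left _ (by positivity)
      exact mul_le_mul_of_nonneg_left h3 (by positivity)
    have h6 : ε * ρ * G0 ^ 2 ≤ |x i - x j| * G0 ^ 2 :=
      mul_le_mul_of_nonneg_right h4 (by positivity)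
    have h7 : 0 < ε * ρ * G0 ^ 2 := by positivity
    have h8 : ε / 10 * (2 * ρ * (2 * G0 * (2 * G0))) = 8 / 10 * (ε * ρ * G0 ^ 2) := by ring
    linarith

theorem eta_num {δ ε η η0 η1 : ℝ} (hδ : 0 < δ) (hδ1 : δ ≤ 1) (hε : 0 < ε) (hε1 : ε ≤ 1)
    (h0 : 0 ≤ η0) (h1 : 0 ≤ η1) (hη : 10 ^ 33 * (η0 + η1) ≤ η * (δ * ε ^ 4)) (hη2 : η ≤ 1) :
    0 ≤ η ∧ 10 ^ 33 * (η0 + η1) ≤ η ∧ 10 ^ 33 * (η0 + η1) ≤ η * ε ^ 2 ∧ η0 ≤ 1 / 1000 := by
  have hε4 : 0 < ε ^ 4 := by positivity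
  have hp : 0 < δ * ε ^ 4 := by positivity
  have hε41 : ε ^ 4 ≤ 1 := pow_le_one₀ hε.le hε1
  have hδε : δ * ε ^ 4 ≤ 1 := mul_le_one₀ hδ1 hε4.le hε41
  have hηp : 0 ≤ η := by
    by_contra hc
    push Not at hc
    have := mul_neg_of_neg_of_pos hc hp
    linarith
  have a1 : η * (δ * ε ^ 4) ≤ η * 1 := mul_le_mul_of_nonneg_left hδε hηp
  have a2 : δ * ε ^ 4 ≤ ε ^ 2 := by
    have h3 : ε ^ 4 ≤ ε ^ 2 := pow_le_pow_of_le_one hε.le hε1 (by norm_num)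
    have h4 : δ * ε ^ 4 ≤ 1 * ε ^ 4 := mul_le_mul_of_nonneg_right hδ1 hε4.le
    linarith
  have a3 : η * (δ * ε ^ 4) ≤ η * ε ^ 2 := mul_le_mul_of_nonneg_left a2 hηp
  refine ⟨hηp, by linarith, by linarith, by linarith⟩

theorem fin_num {δ ε η η0 η1 Ye G0 : ℝ} (hδ : 0 < δ) (hε : 0 < ε) (h0 : 0 ≤ η0)
    (Y0 : 0 < Ye) (G1 : 1 / 2 ≤ G0) (hηp : 0 ≤ η)
    (hη : 10 ^ 33 * (η0 + η1) ≤ η * (δ * ε ^ 4)) :
    15 * (10 ^ 29 / (δ * ε ^ 2) * (η1 * Ye)) / (ε / 10) ^ 2 ≤ η * (Ye * G0) := by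
  have e1 : 15 * (10 ^ 29 / (δ * ε ^ 2) * (η1 * Ye)) / (ε / 10) ^ 2 =
      (1500 * 10 ^ 29 * η1) / (δ * ε ^ 4) * Ye := by
    field_simp; ring
  rw [e1]
  have h1 : 1500 * 10 ^ 29 * η1 ≤ η * (δ * ε ^ 4) * (1 / 2) := by
    have : 10 ^ 33 * η1 ≤ η * (δ * ε ^ 4) := by linarith
    have hh : 0 ≤ η * (δ * ε ^ 4) := by positivity
    linarith
  have h3 : (1500 * 10 ^ 29 * η1) / (δ * ε ^ 4) ≤ η * (1 / 2) := by
    rw [div_le_iff₀ (by positivity)]; linarith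
  have h4 : η * (1 / 2) ≤ η * G0 := mul_le_mul_of_nonneg_left G1 hηp
  calc _ ≤ η * G0 * Ye := mul_le_mul_of_nonneg_right (h3.trans h4) Y0.le
    _ = _ := by ring

theorem yb_num {ρ O' G0 nR η0 η Ye : ℝ} (hρ : 0 < ρ) (hO : 0 < O') (G1 : 1 / 2 ≤ G0)
    (hOR : O' ≤ G0 * nR) (hR : ρ * nR ≤ η0) (Y0 : 0 < Ye) (hηp : 0 ≤ η) (hη : 4 * η0 ≤ η) :
    Ye ≤ η * (Ye * G0 ^ 2 / (2 * ρ * O')) := by
  have hG00 : 0 < G0 := by linarith
  rw [← mul_div_assoc, le_div_iff₀ (by positivity)]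
  have h2 : ρ * O' ≤ G0 * (ρ * nR) := by
    have := mul_le_mul_of_nonneg_left hOR hρ.le; linarith
  have h3 : G0 * (ρ * nR) ≤ G0 * η0 := mul_le_mul_of_nonneg_left hR hG00.le
  have h4 : 2 * η0 ≤ η * G0 := by
    have h5 : η * (1 / 2) ≤ η * G0 := mul_le_mul_of_nonneg_left G1 hηp
    linarith
  have h6 : G0 * (2 * η0) ≤ G0 * (η * G0) := mul_le_mul_of_nonneg_left h4 hG00.le
  have h1 : 2 * ρ * O' ≤ η * G0 ^ 2 := by
    have h7 : η * G0 ^ 2 = G0 * (η * G0) := by ring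
    rw [h7]
    linarith
  calc Ye * (2 * ρ * O') ≤ Ye * (η * G0 ^ 2) := mul_le_mul_of_nonneg_left h1 Y0.le
    _ = _ := by ring

theorem ba_num {WB WA w1 w2 ε η0 η : ℝ} (hε : 0 < ε) (h1 : 0 < w1) (hηp : 0 ≤ η)
    (h : 10 ^ 13 * η0 ≤ η * ε ^ 2) (hw : w2 ≤ η0 * w1) (n2 : WB ≤ 10 ^ 4 * w2 / ε)
    (n3 : ε * w1 / 10 ^ 9 ≤ WA) : WB ≤ η * WA := by
  calc WB ≤ 10 ^ 4 * w2 / ε := n2
    _ ≤ 10 ^ 4 * (η0 * w1) / ε := by
      apply div_le_div_of_nonneg_right _ hε.le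
      linarith
    _ = (10 ^ 13 * η0) / ε ^ 2 * (ε * w1 / 10 ^ 9) := by field_simp
    _ ≤ η * (ε * w1 / 10 ^ 9) := by
      apply mul_le_mul_of_nonneg_right _ (by positivity)
      rw [div_le_iff₀ (by positivity)]; exact h
    _ ≤ η * WA := mul_le_mul_of_nonneg_left n3 hηp

theorem b1_num {E WB w2 ε δ Q : ℝ} (hE : 0 ≤ E) (hWB : 0 < WB) (hε : 0 < ε) (hδ : 0 < δ)
    (hδ1 : δ ≤ 1) (h2 : 0 < w2) (hQ : 0 ≤ Q) (n2 : WB ≤ 10 ^ 4 * w2 / ε)
    (h : E * w2 ^ 2 ≤ 10 ^ 13 * Q) : E * WB ^ 2 ≤ 10 ^ 29 / (δ * ε ^ 2) * Q := by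
  have h1 : WB ^ 2 ≤ (10 ^ 4 * w2 / ε) ^ 2 := pow_le_pow_left₀ hWB.le n2 2
  calc E * WB ^ 2 ≤ E * (10 ^ 4 * w2 / ε) ^ 2 := mul_le_mul_of_nonneg_left h1 hE
    _ = 10 ^ 8 / ε ^ 2 * (E * w2 ^ 2) := by ring
    _ ≤ 10 ^ 8 / ε ^ 2 * (10 ^ 13 * Q) := mul_le_mul_of_nonneg_left h (by positivity)
    _ = 10 ^ 21 / ε ^ 2 * Q := by ring
    _ ≤ _ := by
      apply mul_le_mul_of_nonneg_right _ hQ
      apply div_le_div₀ (by positivity) (by norm_num) (by positivity)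
      have : δ * ε ^ 2 ≤ 1 * ε ^ 2 := mul_le_mul_of_nonneg_right hδ1 (by positivity)
      linarith

theorem b2_num {E WA WB w1 w2 ε δ Q : ℝ} (hE : 0 ≤ E) (hWB : 0 < WB) (hε : 0 < ε) (hδ : 0 < δ)
    (h1 : 0 < w1) (h2 : 0 < w2) (n2 : WB ≤ 10 ^ 4 * w2 / ε) (n4 : WA ≤ 10 ^ 6 * w1 / δ)
    (h : E * (w1 * w2) ≤ 10 ^ 19 / ε * Q) : E * (WA * WB) ≤ 10 ^ 29 / (δ * ε ^ 2) * Q := by
  have h3 : WA * WB ≤ 10 ^ 6 * w1 / δ * (10 ^ 4 * w2 / ε) :=
    mul_le_mul n4 n2 hWB.le (by positivity)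
  calc E * (WA * WB) ≤ E * (10 ^ 6 * w1 / δ * (10 ^ 4 * w2 / ε)) :=
        mul_le_mul_of_nonneg_left h3 hE
    _ = 10 ^ 10 / (δ * ε) * (E * (w1 * w2)) := by field_simp
    _ ≤ 10 ^ 10 / (δ * ε) * (10 ^ 19 / ε * Q) := mul_le_mul_of_nonneg_left h (by positivity)
    _ = _ := by field_simp

/-! ### the container -/

section cont

variable {S : Plk4} {T : Ln4} {z0 ρ δ : ℝ} {b0 b1 : V3} {G : QF} {N R : V3} {H : QF}

/-- gradient on plank vectors -/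
theorem Own.g_line (O : Own S T z0 ρ δ b0 b1 G) (hT : Tay S.q T N R H) (ζ : ℝ) (x : V3) :
    dt (N + (z0 + ρ * ζ) • R) (cmb (fr S.e S.w) x) = S.w 0 * dt (bz b0 b1 ζ) x := by
  have h1 := O.exp ζ x
  have h3 := O.exp ζ (-x)
  have t : ∀ X, S.q (z0 + ρ * ζ) (T.pos (z0 + ρ * ζ) + X) =
      S.q (z0 + ρ * ζ) (T.pos (z0 + ρ * ζ)) + Fq N R H (z0 + ρ * ζ) X := fun X => hT (z0 + ρ * ζ) X
  rw [t] at h1 h3
  have n1 : cmb (fr S.e S.w) (-x) = -cmb (fr S.e S.w) x := by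
    ext i; simp only [cmb, Pi.neg_apply]; ring
  rw [n1] at h3
  simp only [Fq, bz, dt, QF.ev, Pi.neg_apply, Pi.add_apply, Pi.smul_apply, smul_eq_mul] at h1 h3 ⊢
  linarith

theorem Own.g_nm (O : Own S T z0 ρ δ b0 b1 G) (hT : Tay S.q T N R H) {ζ : ℝ} (h0 : 0 ≤ ζ)
    (h1 : ζ ≤ 1) : 1 / 2 ≤ nm (N + (z0 + ρ * ζ) • R) ∧ nm (N + (z0 + ρ * ζ) • R) ≤ 4 := by
  obtain ⟨g1, g2, g3, g4, -⟩ := O.nrm.b1_le
  set g := N + (z0 + ρ * ζ) • R with hg
  have c0 : cmb (fr S.e S.w) ![1, 0, 0] = S.w 0 • S.e 0 := by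
    ext i; simp [cmb, fr]
  have c1 : cmb (fr S.e S.w) ![0, 1, 0] = S.w 1 • S.e 1 := by
    ext i; simp [cmb, fr]
  have c2 : cmb (fr S.e S.w) ![0, 0, 1] = S.w 2 • S.e 2 := by
    ext i; simp [cmb, fr]
  have w0 := O.pos 0
  have l0 := O.g_line hT ζ ![1, 0, 0]
  have l1 := O.g_line hT ζ ![0, 1, 0]
  have l2 := O.g_line hT ζ ![0, 0, 1]
  rw [← hg, c0, dt_smul_right, dt_comm] at l0
  rw [← hg, c1, dt_smul_right, dt_comm] at l1
  rw [← hg, c2, dt_smul_right, dt_comm] at l2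
  have v0 : dt (bz b0 b1 ζ) ![1, 0, 0] = b0 0 + ζ * b1 0 := by simp [dt, bz]
  have v1 : dt (bz b0 b1 ζ) ![0, 1, 0] = b0 1 + ζ * b1 1 := by simp [dt, bz]
  have v2 : dt (bz b0 b1 ζ) ![0, 0, 1] = b0 2 + ζ * b1 2 := by simp [dt, bz]
  rw [v0] at l0
  rw [v1] at l1
  rw [v2] at l2
  have a0 : dt (S.e 0) g = b0 0 + ζ * b1 0 := mul_left_cancel₀ w0.ne' l0
  have cv : ∀ {x y : ℝ}, |x| ≤ 1 → |x + y| ≤ 1 → |x + ζ * y| ≤ 1 := by
    intro x y hx hy
    rw [abs_le] at hx hy ⊢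
    constructor <;> nlinarith
  have k1 := cv O.nrm.b01 O.nrm.b11
  have k2 := cv O.nrm.b02 O.nrm.b12
  have bd : ∀ {i : Fin 3} {y : ℝ}, S.w 0 ≤ S.w i → S.w i * dt (S.e i) g = S.w 0 * y → |y| ≤ 1 →
      |dt (S.e i) g| ≤ 1 := by
    intro i y hi h hy
    have wi := O.pos i
    have h2 := congrArg (fun v => |v|) h
    beta_reduce at h2
    rw [abs_mul, abs_mul, abs_of_pos wi, abs_of_pos w0] at h2
    have h3 : S.w i * |dt (S.e i) g| ≤ S.w i * 1 := by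
      rw [h2]; exact mul_le_mul hi hy (abs_nonneg _) wi.le
    exact le_of_mul_le_mul_left h3 wi
  have a1 := bd (O.w02.trans O.w21) l1 k1
  have a2 := bd O.w02 l2 k2
  have a0l : 1 / 2 ≤ dt (S.e 0) g := by rw [a0]; nlinarith
  have a0u : dt (S.e 0) g ≤ 2 := by rw [a0]; nlinarith
  constructor
  · exact (a0l.trans (le_abs_self _)).trans (abs_dt_unit O.ortho 0 g)
  · have := nm_le_sum O.ortho g
    rw [abs_of_pos (by linarith : 0 < dt (S.e 0) g)] at this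
    linarith

set_option maxHeartbeats 1000000 in
/-- **THE CONTAINER** -/
theorem cont_of (O : Own S T z0 ρ δ b0 b1 G) (hq : IsQ S.q) (hT : Tay S.q T N R H)
    {ε X η0 η1 : ℝ} (hδ1 : δ ≤ 1) (hε : 0 < ε) (hε1 : ε ≤ 1)
    (hr : ε ≤ |scB1 (kap b0 b1 G) b0 b1 2|) (hη0 : 0 ≤ η0) (hR : ρ * nm R ≤ η0)
    (hw : S.w 2 ≤ η0 * S.w 1) (hX : X ≤ ε / 10 ^ 6) (hX1 : X ≤ 1 / 256) {z : Fin 3 → ℝ}
    (hz : ∀ j, z0 ≤ z j ∧ z j ≤ z0 + ρ) (hs : ∀ i j, i ≠ j → ε * ρ ≤ |z i - z j|) (hη1 : 0 ≤ η1)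
    (hd : ∀ j, Deep S T δ ε X η1 (S.w 0 * kap b0 b1 G) N R H (z j)) {η : ℝ}
    (hη : 10 ^ 33 * (η0 + η1) ≤ η * (δ * ε ^ 4)) (hη2 : η ≤ 1) :
    ∃ (f : Fin 3 → V3) (u : Un) (Q : Qd), Cont S T z0 ρ f u Q η ∧
      (ε * S.w 1 / 10 ^ 9 ≤ u.WA ∧ u.WA ≤ 10 ^ 6 * S.w 1 / δ) ∧
      (S.w 2 / 10 ^ 6 ≤ u.WB ∧ u.WB ≤ 10 ^ 4 * S.w 2 / ε) ∧
      (∀ y, z0 ≤ y → y ≤ z0 + ρ → ∀ i, |uv (N + y • R) i - f 0 i| ≤ 1 / 100) ∧
      ∀ i, |uv (cr N R) i - f 1 i| ≤ 1 / 100 := by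
  have hδ := O.δ0
  have hρ := O.hρ
  have w1 := O.pos 1
  have w2 := O.pos 2
  have Y0 := O.Ye0
  set Ye := S.w 0 * kap b0 b1 G with hYe
  have sn := O.snd hT
  obtain ⟨hηp, hη', hηε, h0s⟩ := eta_num hδ hδ1 hε hε1 hη0 hη1 hη hη2
  -- the vectors
  have hzc : z0 + ρ * (1 / 2) = z0 + ρ / 2 := by ring
  obtain ⟨G1, G2⟩ := O.g_nm hT (ζ := 1 / 2) (by norm_num) (by norm_num)
  rw [hzc] at G1 G2
  set g := N + (z0 + ρ / 2) • R with hg
  set G0 := nm g with hG0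
  have a1 := sn.om_ge1 O hr (by positivity) zero_le_one
  have a2 := sn.om_le O zero_le_one
  obtain ⟨d1, d2⟩ := sn.D O (by positivity) hδ1
  rw [← hYe] at a1 a2 d1 d2
  set Om := cr N R with hOm
  set O' := nm Om with hO'
  set D := |D3 N R H| with hD
  have hP : 0 < ρ * (S.w 1 * S.w 2) := by positivity
  have hO0 : 0 < O' := by
    by_contra hc
    have h0 : O' = 0 := le_antisymm (not_lt.1 hc) (nm_nonneg _)
    rw [h0, zero_mul] at a1
    have : 0 < ε / 10 ^ 3 * (Ye * S.w 1) := by positivity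
    linarith
  have hD0 : 0 < D := by
    by_contra hc
    have h0 : D = 0 := le_antisymm (not_lt.1 hc) (abs_nonneg _)
    rw [h0, zero_mul] at d1
    have : 0 < δ * Ye ^ 3 := by positivity
    linarith
  have hG00 : 0 < G0 := by linarith
  obtain ⟨n1, n2, n3, n4⟩ := core_num Y0 w1 w2 hρ hO0 G1 G2 hD0 hδ hδ1 hε a1 a2 d1 d2
  set WB := Ye * G0 ^ 2 / (2 * ρ * O') with hWB
  set WA := Real.sqrt (Ye * G0 * O' ^ 2 / (3 * D)) with hWA
  have hWB0 : 0 < WB := by positivity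
  have hWA0 : 0 < WA := Real.sqrt_pos.2 (by positivity)
  have hWA2 : WA ^ 2 = Ye * G0 * O' ^ 2 / (3 * D) := Real.sq_sqrt (by positivity)
  -- frame
  set f0 : V3 := (1 / G0) • g with hf0
  set f1 : V3 := (1 / O') • Om with hf1
  set f2 : V3 := cr f0 f1 with hf2
  have gg : dt g g = G0 ^ 2 := by rw [hG0, nm_sq]
  have oo : dt Om Om = O' ^ 2 := by rw [hO', nm_sq]
  have gO : dt g Om = 0 := dt_g_Ω N R _
  have u0 : dt f0 f0 = 1 := by
    rw [hf0, dt_smul_left, dt_smul_right, gg]; field_simp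
  have u1 : dt f1 f1 = 1 := by
    rw [hf1, dt_smul_left, dt_smul_right, oo]; field_simp
  have u01 : dt f0 f1 = 0 := by
    rw [hf0, hf1, dt_smul_left, dt_smul_right, gO]; ring
  have hF : Ortho ![f0, f1, f2] := ortho_cr u0 u1 u01
  -- rotation
  have R1 : dt R f1 = 0 := by
    rw [hf1, dt_smul_right]
    have : dt R Om = 0 := dt_cr_right N R
    rw [this, mul_zero]
  have hcr : f2 = (1 / (G0 * O')) • cr g Om := by
    rw [hf2, hf0, hf1, cr_smul]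
    congr 1
    field_simp
  have R2 : dt R f2 = -(O' / G0) := by
    rw [hcr, dt_smul_right, hg, dt_R_cr, ← hOm, oo]
    field_simp
  have R0 : |dt R f0| ≤ nm R := by
    have := abs_dt_unit hF 0 R
    rw [dt_comm]
    exact this
  have hR' : ρ * |dt R f0| ≤ η0 := (mul_le_mul_of_nonneg_left R0 hρ.le).trans hR
  have hOR : O' ≤ G0 * nm R := by
    have h1 := nm_cr_le g R
    rw [hg, cr_add_smul] at h1
    exact h1
  -- heights
  have hx : ∀ j, N + z j • R = g + (z j - (z0 + ρ / 2)) • R := by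
    intro j
    rw [hg, sub_smul]; abel
  set x : Fin 3 → ℝ := fun j => z j - (z0 + ρ / 2) with hxd
  have hxa : ∀ j, |x j| ≤ ρ / 2 := by
    intro j
    rw [abs_le]
    constructor <;> simp only [hxd] <;> linarith [(hz j).1, (hz j).2]
  have gj0 : ∀ j, dt (N + z j • R) f0 = G0 + x j * dt R f0 := by
    intro j
    rw [hx j]
    have : dt (g + (z j - (z0 + ρ / 2)) • R) f0 = dt g f0 + x j * dt R f0 := by
      simp only [dt, Pi.add_apply, Pi.smul_apply, smul_eq_mul, hxd]; ring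
    rw [this, hf0, dt_smul_right, gg]
    field_simp
  have g2 : dt g f2 = 0 := by rw [hcr, dt_smul_right, dt_cr_left, mul_zero]
  have gj2 : ∀ j, dt (N + z j • R) f2 = -(x j * (O' / G0)) := by
    intro j
    rw [hx j]
    have : dt (g + (z j - (z0 + ρ / 2)) • R) f2 = dt g f2 + x j * dt R f2 := by
      simp only [dt, Pi.add_apply, Pi.smul_apply, smul_eq_mul, hxd]; ring
    rw [this, g2, R2]; ring
  have hxs : ∀ i j, i ≠ j → ε * ρ ≤ |x i - x j| := by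
    intro i j hij
    have e2 : x i - x j = z i - z j := by simp only [hxd]; ring
    rw [e2]; exact hs i j hij
  obtain ⟨σ, τ, hτe, hσe, hτ1, hσ1, hσs⟩ := slopes G1 hρ hO0 hOR hR (by linarith) R0 hε hxa hxs
  have στ : ∀ j, σ j * Ye = τ j * WB := by
    intro j
    rw [hσe, hWB]; ring
  -- tangent vectors
  set t : Fin 3 → V3 := fun j => f2 - τ j • f0 with ht
  have nf0 : nm f0 = 1 := by unfold nm; rw [u0, Real.sqrt_one]
  have nf2 : nm f2 = 1 := by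
    have := nm_unit hF 2
    simpa using this
  have htn : ∀ j, nm (t j) ≤ 2 := by
    intro j
    have e1 : t j = f2 + (-(τ j)) • f0 := by simp only [ht]; rw [neg_smul]; abel
    rw [e1]
    refine (nm_add_le _ _).trans ?_
    rw [nm_smul, abs_neg, nf0, nf2]
    linarith [hτ1 j]
  have htg : ∀ j, dt (N + z j • R) (t j) = 0 := by
    intro j
    have e1 : dt (N + z j • R) (t j) = dt (N + z j • R) f2 - τ j * dt (N + z j • R) f0 := by
      simp only [ht, dt, Pi.sub_apply, Pi.smul_apply, smul_eq_mul]; ring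
    rw [e1, gj0, gj2, hτe]; ring
  have B := fun j => (hd j).bd w1 w2 hε hε1 hX hX1 (htn j) (htg j)
  rw [← hOm, ← hO', ← hf1] at B
  -- second order part of `t j`
  have et : ∀ j, H.ev (t j) = H.ev f2 - τ j * H.pol f0 f2 + τ j ^ 2 * H.ev f0 := by
    intro j
    simp only [ht, QF.ev, QF.pol, Pi.sub_apply, Pi.smul_apply, smul_eq_mul]; ring
  have pt : ∀ j, H.pol f1 (t j) = H.pol f1 f2 - τ j * H.pol f0 f1 := by
    intro j
    simp only [ht, QF.pol, Pi.sub_apply, Pi.smul_apply, smul_eq_mul]; ring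
  have hB1 : ∀ j, |H.ev f2 * WB ^ 2 - σ j * (H.pol f0 f2 * (WB * Ye)) +
      σ j ^ 2 * (H.ev f0 * Ye ^ 2)| ≤ 10 ^ 29 / (δ * ε ^ 2) * (η1 * Ye) := by
    intro j
    have e1 : H.ev f2 * WB ^ 2 - σ j * (H.pol f0 f2 * (WB * Ye)) +
        σ j ^ 2 * (H.ev f0 * Ye ^ 2) = H.ev (t j) * WB ^ 2 := by
      rw [et]
      have h1 := στ j
      have : σ j * (H.pol f0 f2 * (WB * Ye)) = (σ j * Ye) * (H.pol f0 f2 * WB) := by ring
      have h3 : σ j ^ 2 * (H.ev f0 * Ye ^ 2) = (σ j * Ye) ^ 2 * H.ev f0 := by ring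
      rw [this, h3, h1]; ring
    rw [e1, abs_mul, abs_of_pos (pow_pos hWB0 2)]
    exact b1_num (abs_nonneg _) hWB0 hε hδ hδ1 w2 (mul_nonneg hη1 Y0.le) n2 (B j).1
  have hB2 : ∀ j, |H.pol f1 f2 * (WA * WB) - σ j * (H.pol f0 f1 * (WA * Ye)) +
      σ j ^ 2 * 0| ≤ 10 ^ 29 / (δ * ε ^ 2) * (η1 * Ye) := by
    intro j
    have e1 : H.pol f1 f2 * (WA * WB) - σ j * (H.pol f0 f1 * (WA * Ye)) + σ j ^ 2 * 0 =
        H.pol f1 (t j) * (WA * WB) := by
      rw [pt]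
      have h1 := στ j
      have : σ j * (H.pol f0 f1 * (WA * Ye)) = (σ j * Ye) * (H.pol f0 f1 * WA) := by ring
      rw [this, h1]; ring
    rw [e1, abs_mul, abs_of_pos (mul_pos hWA0 hWB0)]
    exact b2_num (abs_nonneg _) hWB0 hε hδ w1 w2 n2 n4 (B j).2
  have hε10 : 0 < ε / 10 := by positivity
  have hε101 : ε / 10 ≤ 1 := by linarith
  obtain ⟨c1, c2, c3⟩ := interp hε10 hε101 hσs hσ1 hB1
  obtain ⟨c4, c5, -⟩ := interp hε10 hε101 hσs hσ1 hB2
  have habsG : |G0| = G0 := abs_of_pos hG00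
  have hfin : 15 * (10 ^ 29 / (δ * ε ^ 2) * (η1 * Ye)) / (ε / 10) ^ 2 ≤ η * (Ye * |G0|) := by
    rw [habsG]
    exact fin_num hδ hε hη0 Y0 G1 hηp hη
  -- the container
  have hev1 : H.ev f1 = D3 N R H / O' ^ 2 := by
    rw [hf1, ev_smul]
    unfold D3
    rw [← hOm]
    field_simp
  have hevA : |H.ev f1| * WA ^ 2 = Ye * G0 / 3 := by
    rw [hev1, abs_div, abs_of_pos (by positivity : 0 < O' ^ 2), ← hD, hWA2]
    field_simp
  have hYB : Ye ≤ η * WB := yb_num hρ hO0 G1 hOR hR Y0 hηp (by linarith)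
  have hBA : WB ≤ η * WA := ba_num hε w1 hηp (by linarith) hw n2 n3
  have g0' : dt (N + (z0 + ρ / 2) • R) (![f0, f1, f2] 0) = G0 := by
    change dt g f0 = G0
    rw [hf0, dt_smul_right, gg]; field_simp
  have g1' : dt (N + (z0 + ρ / 2) • R) (![f0, f1, f2] 1) = 0 := by
    change dt g f1 = 0
    rw [hf1, dt_smul_right, gO, mul_zero]
  obtain ⟨Q, hQ⟩ := Cb650.cont_build (S := S) (T := T) (z0 := z0) (ρ := ρ) hq hT hρ hF
    (G := G0) (WY := Ye) (WA := WA) (WB := WB) (η := η) g0' g1' g2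
    (by
      change 2 * ρ * dt R f2 * WB = -(G0 * Ye)
      rw [R2, hWB]; field_simp)
    (by rw [habsG]; constructor <;> linarith) Y0 hη2 hYB hBA
    (by
      change Ye * |G0| ≤ 4 * (|H.ev f1| * WA ^ 2)
      rw [hevA, habsG]
      have : 0 < Ye * G0 := by positivity
      linarith)
    (by
      change 2 * (|H.ev f1| * WA ^ 2) ≤ Ye * |G0|
      rw [hevA, habsG]
      have : 0 < Ye * G0 := by positivity
      linarith)
    (by
      change 2 * ρ * |dt R f1| * WA ≤ η * (Ye * |G0|)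
      rw [R1, abs_zero]
      have : 0 ≤ η * (Ye * |G0|) := by positivity
      linarith)
    (by
      change 2 * ρ * |dt R f0| ≤ η * |G0|
      rw [habsG]
      have h5 : η * (1 / 2) ≤ η * G0 := mul_le_mul_of_nonneg_left G1 hηp
      linarith)
    (by
      change |H.pol f1 f2| * (WA * WB) ≤ η * (Ye * |G0|)
      rw [abs_mul, abs_of_pos (by positivity : 0 < WA * WB)] at c4
      exact c4.trans hfin)
    (by
      change |H.ev f2| * WB ^ 2 ≤ η * (Ye * |G0|)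
      rw [abs_mul, abs_of_pos (by positivity : 0 < WB ^ 2)] at c1
      exact c1.trans hfin)
    (by
      change |H.pol f0 f1| * (WA * Ye) ≤ η * (Ye * |G0|)
      rw [abs_mul, abs_of_pos (by positivity : 0 < WA * Ye)] at c5
      exact c5.trans hfin)
    (by
      change |H.pol f0 f2| * (WB * Ye) ≤ η * (Ye * |G0|)
      rw [abs_mul, abs_of_pos (by positivity : 0 < WB * Ye)] at c2
      exact c2.trans hfin)
    (by
      change |H.ev f0| * Ye ^ 2 ≤ η * (Ye * |G0|)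
      rw [abs_mul, abs_of_pos (by positivity : 0 < Ye ^ 2)] at c3
      exact c3.trans hfin)
  refine ⟨![f0, f1, f2], ⟨Ye, WA, WB, z0 + ρ / 2, 2 * ρ⟩, Q, hQ, ⟨n3, n4⟩, ⟨n1, n2⟩, ?_, ?_⟩
  · intro y hy0 hy1 i
    have e1 : N + y • R = g + (y - (z0 + ρ / 2)) • R := by
      rw [hg, sub_smul]; abel
    have h1 : nm ((y - (z0 + ρ / 2)) • R) ≤ η0 := by
      rw [nm_smul]
      have h2 : |y - (z0 + ρ / 2)| ≤ ρ := by
        rw [abs_le]; constructor <;> linarith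
      exact (mul_le_mul_of_nonneg_right h2 (nm_nonneg R)).trans hR
    have h2 := uv_near G1 h1 (by linarith) i
    rw [e1]
    exact h2
  · intro i
    change |uv Om i - (1 / O') * Om i| ≤ 1 / 100
    have e1 : uv Om i = Om i / O' := rfl
    rw [e1]
    have : Om i / O' - 1 / O' * Om i = 0 := by ring
    rw [this, abs_zero]; norm_num

end cont

end Crest.Agent.R136.Thn768
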