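import Crest.Agent.R136.StN_555
import Crest.Agent.R136.Thn4_768

/-!
# R136 (S0187), U6 thin side, stage M (helper555): helper768's container theorem, three deep marks of
common widths
-/

set_option autoImplicit false
set_option linter.unusedVariables false

namespace Crest.Agent.R136.Us555

open Crest.Agent.R136.Sh605 Crest.Agent.R136.K4
open Crest.Agent.R136.Tl102
open Crest.Agent.R136.KapP335 (kapP DetP)
open Crest.Agent.R136.GeoN778 (Qd Un)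
open Crest.Agent.R136.Thn768

/-- absolute constant -/
def CN : ℝ := 10 ^ 33

theorem CN_pos : (0 : ℝ) < CN := by unfold CN; positivity

section

variable {S : Plk4} {T : Ln4} {z0 ρ δ : ℝ} {b0 b1 : V3} {G : QF} {X : ℝ} {q2 : ℝ → V3 → ℝ}
  {N R : V3} {H : QF}

theorem cont_of5 (O : Own S T z0 ρ δ b0 b1 G) (hq : IsQ S.q) (hT : Tay S.q T N R H) {ε : ℝ}
    (hε : 0 < ε) (hδ1 : δ ≤ 1) (hε1 : ε ≤ 1)
    (he : ε ≤ |scB1 (kap b0 b1 G) b0 b1 2|) {η0 η1 : ℝ} (hη0 : 0 ≤ η0) (hη1 : 0 ≤ η1)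
    (hR : ρ * nm R ≤ η0) (hw : S.w 2 ≤ η0 * S.w 1) {S' : Fin 3 → Plk4} {z0' : Fin 3 → ℝ}
    {ρ' w1' w2' : ℝ}
    {b0' b1' : Fin 3 → V3} {G' : Fin 3 → QF}
    (hw' : ∀ j, (S' j).w 1 = w1' ∧ (S' j).w 2 = w2')
    (O' : ∀ j, Own (S' j) T (z0' j) ρ' δ (b0' j) (b1' j) (G' j))
    (h' : ∀ j, Snd (S' j) T (z0' j) ρ' (b0' j) (b1' j) (G' j) X S.q N R H)
    (hX0 : 0 ≤ X)
    (hX : X ≤ min δ ε / CM) (he' : ∀ j, ε ≤ |scB1 (kap (b0' j) (b1' j) (G' j)) (b0' j) (b1' j) 2|)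
    {z : Fin 3 → ℝ} (hz : ∀ j, z0 ≤ z j ∧ z j ≤ z0 + ρ) (hz' : ∀ j, z0' j ≤ z j ∧ z j ≤ z0' j + ρ')
    (hsep : ∀ i j, i ≠ j → ε * ρ ≤ |z i - z j|)
    (e1 : ∀ j, (S' j).w 0 * kap (b0' j) (b1' j) (G' j) * (S.w 2 / w2') ^ 2 ≤
      η1 * (S.w 0 * kap b0 b1 G))
    (e2 : ∀ j, (S' j).w 0 * kap (b0' j) (b1' j) (G' j) * (S.w 1 * S.w 2 / (w1' * w2')) ≤
      η1 * (S.w 0 * kap b0 b1 G))
    (hη : CN * ((δ * ε) ^ 8)⁻¹ * (η0 + η1) ≤ 1) :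
    ∃ (f : Fin 3 → V3) (u : Un) (Q : Qd), Cont S T z0 ρ f u Q (CN * ((δ * ε) ^ 8)⁻¹ * (η0 + η1)) ∧
      (δ * ε) ^ 4 / CM * S.w 1 ≤ u.WA ∧ u.WA ≤ CM * ((δ * ε) ^ 4)⁻¹ * S.w 1 ∧
      (δ * ε) ^ 4 / CM * S.w 2 ≤ u.WB ∧ u.WB ≤ CM * ((δ * ε) ^ 4)⁻¹ * S.w 2 ∧
      ∀ ζ, z0 ≤ ζ → ζ ≤ z0 + ρ → (∀ i, |uv (N + ζ • R) i - f 0 i| ≤ 1 / 100) ∧
        ∀ i, |uv (cr N R) i - f 1 i| ≤ 1 / 100 := by
  have hδ := O.δ0
  have w1 := O.pos 1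
  have w2 := O.pos 2
  have hw1' : 0 < w1' := by rw [← (hw' 0).1]; exact (O' 0).pos 1
  have hw2' : 0 < w2' := by rw [← (hw' 0).2]; exact (O' 0).pos 2
  have p0 : 0 < δ * ε := mul_pos hδ hε
  have p1 : δ * ε ≤ 1 := mul_le_one₀ hδ1 hε.le hε1
  have hCM : CM = 10 ^ 10 := rfl
  have hCN : CN = 10 ^ 33 := rfl
  have hXm : X ≤ ε / 10 ^ 10 := hX.trans (by
    rw [hCM]
    exact div_le_div_of_nonneg_right (min_le_right _ _) (by positivity))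
  have q8 : (δ * ε) ^ 8 ≤ δ * ε ^ 4 := by
    have a1 : δ ^ 8 ≤ δ := by
      calc δ ^ 8 = δ ^ 7 * δ := by ring
        _ ≤ 1 * δ := mul_le_mul_of_nonneg_right (pow_le_one₀ hδ.le hδ1) hδ.le
        _ = δ := one_mul _
    have a2 : ε ^ 8 ≤ ε ^ 4 := pow_le_pow_of_le_one hε.le hε1 (by norm_num)
    rw [mul_pow]
    exact mul_le_mul a1 a2 (by positivity) hδ.le
  have q4 : (δ * ε) ^ 4 ≤ δ * ε := by
    calc (δ * ε) ^ 4 = (δ * ε) ^ 3 * (δ * ε) := by ring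
      _ ≤ 1 * (δ * ε) := mul_le_mul_of_nonneg_right (pow_le_one₀ p0.le p1) p0.le
      _ = _ := one_mul _
  have q4δ : (δ * ε) ^ 4 ≤ δ := q4.trans (by nlinarith)
  have q4ε : (δ * ε) ^ 4 ≤ ε := q4.trans (by nlinarith)
  obtain ⟨f, u, Q, hC, ⟨hA1, hA2⟩, ⟨hB1, hB2⟩, hf0, hf1⟩ := cont_of O hq hT hδ1 hε hε1 he hη0 hR hw
    (X := X) (hXm.trans (by linarith)) (hXm.trans (by linarith)) hz hsep hη1
    (fun j => ⟨S' j, z0' j, ρ', b0' j, b1' j, G' j, O' j, h' j, he' j, (hz' j).1, (hz' j).2, by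
      have k := e1 j
      rw [(hw' j).2]
      rw [div_pow, mul_div_assoc', div_le_iff₀ (by positivity)] at k
      exact k, by
      have k := e2 j
      rw [(hw' j).1, (hw' j).2]
      rw [mul_div_assoc', div_le_iff₀ (by positivity)] at k
      exact k⟩)
    (η := CN * ((δ * ε) ^ 8)⁻¹ * (η0 + η1)) (by
      have k0 : 0 ≤ η0 + η1 := add_nonneg hη0 hη1
      have k1 : (δ * ε) ^ 8 * ((δ * ε) ^ 8)⁻¹ = 1 := mul_inv_cancel₀ (by positivity)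
      have k2 : 1 ≤ ((δ * ε) ^ 8)⁻¹ * (δ * ε ^ 4) := by
        have := mul_le_mul_of_nonneg_left q8 (inv_pos.2 (pow_pos p0 8)).le
        rw [mul_comm] at k1
        rwa [k1] at this
      rw [hCN]
      calc 10 ^ 33 * (η0 + η1) = 10 ^ 33 * (η0 + η1) * 1 := (mul_one _).symm
        _ ≤ 10 ^ 33 * (η0 + η1) * (((δ * ε) ^ 8)⁻¹ * (δ * ε ^ 4)) :=
            mul_le_mul_of_nonneg_left k2 (by positivity)
        _ = _ := by ring) hη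
  refine ⟨f, u, Q, hC, ?_, ?_, ?_, ?_, fun y h0 h1 => ⟨hf0 y h0 h1, hf1⟩⟩
  · refine le_trans ?_ hA1
    rw [hCM, div_mul_eq_mul_div, div_le_div_iff₀ (by positivity) (by positivity)]
    have := mul_le_mul_of_nonneg_right q4ε w1.le
    nlinarith [mul_pos hε w1]
  · refine hA2.trans ?_
    rw [hCM, div_le_iff₀ hδ]
    have k1 : 1 ≤ ((δ * ε) ^ 4)⁻¹ * δ := by
      have k0 : ((δ * ε) ^ 4)⁻¹ * (δ * ε) ^ 4 = 1 := inv_mul_cancel₀ (by positivity)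
      have := mul_le_mul_of_nonneg_left q4δ (inv_pos.2 (pow_pos p0 4)).le
      rwa [k0] at this
    calc (10 : ℝ) ^ 6 * S.w 1 ≤ 10 ^ 10 * S.w 1 * 1 := by nlinarith
      _ ≤ 10 ^ 10 * S.w 1 * (((δ * ε) ^ 4)⁻¹ * δ) :=
          mul_le_mul_of_nonneg_left k1 (by positivity)
      _ = _ := by ring
  · refine le_trans ?_ hB1
    rw [hCM, div_mul_eq_mul_div, div_le_div_iff₀ (by positivity) (by positivity)]
    have h1 : (δ * ε) ^ 4 ≤ 1 := pow_le_one₀ p0.le p1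
    have := mul_le_mul_of_nonneg_right h1 w2.le
    nlinarith
  · refine hB2.trans ?_
    rw [hCM, div_le_iff₀ hε]
    have k1 : 1 ≤ ((δ * ε) ^ 4)⁻¹ * ε := by
      have k0 : ((δ * ε) ^ 4)⁻¹ * (δ * ε) ^ 4 = 1 := inv_mul_cancel₀ (by positivity)
      have := mul_le_mul_of_nonneg_left q4ε (inv_pos.2 (pow_pos p0 4)).le
      rwa [k0] at this
    calc (10 : ℝ) ^ 4 * S.w 2 ≤ 10 ^ 10 * S.w 2 * 1 := by nlinarith
      _ ≤ 10 ^ 10 * S.w 2 * (((δ * ε) ^ 4)⁻¹ * ε) :=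
          mul_le_mul_of_nonneg_left k1 (by positivity)
      _ = _ := by ring

end

end Crest.Agent.R136.Us555
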