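import Crest.Agent.R136.Us5_555

/-!
# R136 (S0187), U6 thin side (helper555): from macroscopic facts to the window `ThinW`

* `ev_all_of_sel` : selection principle;
* `Mac p D a0 b0` : macroscopic facts at all rational levels of `[a0, b0]`, in the base `D.B`;
* `thinW_of_mac` : `Mac` gives `ThinW` for a small window inside `[a0, b0]`.
-/

set_option autoImplicit false
set_option linter.unusedVariables false
set_option linter.unusedSectionVars false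

open Finset Filter Topology

namespace Crest.Agent.R136.Us555

open Crest.Agent.R138.Ex926 (Base U exists_diag)
open Crest.Agent.R138.Dp76
open Crest.Agent.R138.Mk163 (zc zl rho alive own Negl)
open Crest.Agent.R136.MkA627 Crest.Agent.R136.Sh605 Crest.Agent.R136.K4 Crest.Agent.R136.Top484
open Crest.Agent.R136.Tlt51 (mk4 zx rh Close)
open Crest.Agent.R136.KapP335 (kapP DetP)
open Crest.Agent.R136.GeoN778 (Qd Un)
open Crest.Agent.R136.Tl102 (QF Fq bz)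
open Crest.Agent.R136.Thn768 (Tay cr Frm Cont ThinW)

/-- **selection principle**: what holds along all selections holds for all elements. -/
theorem ev_all_of_sel {α : Type*} [Nonempty α] {F : Filter ℕ} {P : ℕ → α → Prop} {J : ℕ → Set α}
    (h : ∀ x : ℕ → α, (∃ᶠ n in F, x n ∈ J n ∧ ¬ P n (x n)) → False) :
    ∀ᶠ n in F, ∀ x ∈ J n, P n x := by
  classical
  by_contra hc
  rw [not_eventually] at hc
  let x : ℕ → α := fun n => if hn : ∃ x ∈ J n, ¬ P n x then hn.choose else Classical.arbitrary α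
  refine h x (hc.mono fun n hn => ?_)
  push Not at hn
  obtain ⟨y, hy, hy'⟩ := hn
  have hex : ∃ x ∈ J n, ¬ P n x := ⟨y, hy, hy'⟩
  have e : x n = hex.choose := dif_pos hex
  rw [e]
  exact hex.choose_spec

/-- selection principle along the ultrafilter `U` -/
theorem ev_all_of_selU {P : ℕ → ℕ × ℝ → Prop} {J : ℕ → Finset (ℕ × ℝ)}
    (h : ∀ x : ℕ → ℕ × ℝ, (∀ᶠ n in (U : Filter ℕ), x n ∈ J n) →
      ∀ᶠ n in (U : Filter ℕ), P n (x n)) :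
    ∀ᶠ n in (U : Filter ℕ), ∀ x ∈ J n, P n x := by
  refine ev_all_of_sel (J := fun n => (J n : Set (ℕ × ℝ))) fun x hx => ?_
  have h1 : ∀ᶠ n in (U : Filter ℕ), x n ∈ J n ∧ ¬ P n (x n) := Ultrafilter.frequently_iff_eventually.1 hx
  have h2 := h x (h1.mono fun n hn => hn.1)
  obtain ⟨n, g1, g2⟩ := (h1.and h2).exists
  exact g1.2 g2

/-- facts at the level `v` for the container, loss `d^-ε`, smallness `E` -/
def ContAt (D : Dat4) (E : ℝ) (n : ℕ) (v : ℚ) (ε : ℝ) (x : ℕ × ℝ) : Prop :=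
  ∃ (f : Fin 3 → V3) (u : Un) (Q : Qd),
    Cont (mk4 D n v x) (D.L n x.1) (zx D n v x) (rh D n v) f u Q E ∧
    (D.B.d n ^ ε * u.WA ≤ D.w 1 n v ∧ D.w 1 n v ≤ D.B.d n ^ (-ε) * u.WA ∧
      D.B.d n ^ ε * u.WB ≤ D.w 2 n v ∧ D.w 2 n v ≤ D.B.d n ^ (-ε) * u.WB) ∧
    ∃ N R H, Tay (mk4 D n v x).q (D.L n x.1) N R H ∧
      (∀ i, |uv (N + x.2 • R) i - f 0 i| ≤ 1 / 100) ∧ ∀ i, |uv (cr N R) i - f 1 i| ≤ 1 / 100

theorem ContAt.mono {D : Dat4} {E : ℝ} {n : ℕ} {v : ℚ} {ε ε' : ℝ} {x : ℕ × ℝ} (hε : ε ≤ ε')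
    (h : ContAt D E n v ε x) : ContAt D E n v ε' x := by
  obtain ⟨f, u, Q, h1, ⟨h2, h3, h4, h5⟩, h6⟩ := h
  have hB : 0 < u.WB := h1.ok.Y0.trans_le h1.ok.YB
  have hA : 0 < u.WA := hB.trans_le h1.ok.BA
  exact ⟨f, u, Q, h1,
    ⟨(mul_le_mul_of_nonneg_right (dpow_le D.B n hε) hA.le).trans h2,
      h3.trans (mul_le_mul_of_nonneg_right (dpow_le D.B n (by linarith)) hA.le),
      (mul_le_mul_of_nonneg_right (dpow_le D.B n hε) hB.le).trans h4,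
      h5.trans (mul_le_mul_of_nonneg_right (dpow_le D.B n (by linarith)) hB.le)⟩, h6⟩

/-- **macroscopic facts** of the thin branch at all rational levels of `[a0, b0]` -/
structure Mac (p : Par4) (D : Dat4) (a0 b0 : ℚ) : Prop where
  ab : 0 ≤ a0 ∧ a0 < b0 ∧ b0 ≤ 1
  mka : MkA D.B D.I (D.G p) D.lev D.A (fun v => p.g * v) (fun v => 0 * v)
    (fun j v => p.θ j * (1 - v)) D.f D.b D.vm D.w
  vel : ∀ᶠ n in (U : Filter ℕ), ∀ x ∈ D.I n, ∀ i, |(D.L n x.1).v i| ≤ 1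
  θ1 : 0 < p.θ 1
  θ2 : p.θ 2 = 2 * p.θ 1
  nd : ∀ v : ℚ, a0 ≤ v → v ≤ b0 → ∀ ε : ℝ, 0 < ε → ∀ᶠ n in (U : Filter ℕ), ∀ x ∈ D.I n,
    DetP (D.B.d n ^ ε) (mk4 D n v x) (zx D n v x) (rh D n v) (D.L n x.1)
  thin : ∃ c : ℝ, 0 < c ∧ ∀ v : ℚ, a0 ≤ v → v ≤ b0 → ∀ᶠ n in (U : Filter ℕ), ∀ x ∈ D.I n,
    0 ≤ kapP (mk4 D n v x) (zx D n v x) (rh D n v) (D.L n x.1) ∧
    (mk4 D n v x).a ≤ D.B.d n ^ c * kapP (mk4 D n v x) (zx D n v x) (rh D n v) (D.L n x.1)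
  tilt : ∃ C : ℝ, 0 ≤ C ∧ ∀ u v : ℚ, a0 ≤ u → u < v → v ≤ b0 → ∀ ε : ℝ, 0 < ε →
    ∀ᶠ n in (U : Filter ℕ), ∀ x ∈ D.I n,
      Close (D.B.d n ^ (-(C * ((v : ℝ) - u)) - ε) * max (D.w 0 n u) (D.w 0 n v))
        (mk4 D n v x) (mk4 D n u x) (D.L n x.1) (zx D n v x) (rh D n v)
  /-- smallness, canonical units and frame, at every level -/
  cont : ∃ c : ℝ, 0 < c ∧ ∀ v : ℚ, a0 ≤ v → v ≤ b0 → ∀ ε : ℝ, 0 < ε →
    ∀ᶠ n in (U : Filter ℕ), ∀ x ∈ D.I n, ContAt D (D.B.d n ^ c) n v ε x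
  /-- range of the tests -/
  wrs : Rng D.B D.wr D.cr D.w

/-- range at one level, smallness `d ^ (1 / δ)` -/
def RngAt (D : Dat4) (n : ℕ) (v : ℚ) (δ : ℝ) : Prop :=
  0 < δ ∧ ∀ k : Fin 3, D.wr k n ≤ D.B.d n ^ (1 / δ) * D.w k n v ∧
    D.w k n v ≤ D.B.d n ^ (1 / δ) * D.cr k n

/-- from the carried range at the zoomed level to the powers of the new base -/
theorem RngAt.pow {D : Dat4} {n : ℕ} {v : ℚ} {H δ δ' C : ℝ} {B' : Base}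
    (hB : B'.d n = D.B.d n ^ H) (hH : 0 < H) (hH1 : H ≤ 1) (hδ' : δ' ≤ H * δ)
    (hC : δ = 1 / (|C| + 1)) (hw : ∀ k : Fin 3, 0 < D.w k n v) (h : RngAt D n v δ') (k : Fin 3) :
    D.wr k n ≤ B'.d n ^ C * D.w k n v ∧ D.w k n v ≤ B'.d n ^ C * D.cr k n := by
  obtain ⟨h0, h1⟩ := h
  have hC0 : 0 < |C| + 1 := by positivity
  have hle : H * C ≤ 1 / δ' := by
    rw [le_div_iff₀ h0]
    have a1 : H * C ≤ |C| + 1 := by
      have : H * C ≤ H * |C| := mul_le_mul_of_nonneg_left (le_abs_self C) hH.le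
      have : H * |C| ≤ 1 * |C| := mul_le_mul_of_nonneg_right hH1 (abs_nonneg C)
      linarith
    have a2 : δ' ≤ δ := hδ'.trans (by
      have : 0 < δ := by rw [hC]; positivity
      nlinarith)
    have a3 : (|C| + 1) * δ = 1 := by rw [hC]; field_simp
    calc H * C * δ' ≤ (|C| + 1) * δ' := mul_le_mul_of_nonneg_right a1 h0.le
      _ ≤ (|C| + 1) * δ := mul_le_mul_of_nonneg_left a2 hC0.le
      _ = 1 := a3
  have hp : D.B.d n ^ (1 / δ') ≤ B'.d n ^ C := by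
    rw [hB, ← Real.rpow_mul (D.B.pos n).le]
    exact dpow_le D.B n hle
  have hd : 0 < D.B.d n ^ (1 / δ') := Real.rpow_pos_of_pos (D.B.pos n) _
  have hcr : 0 ≤ D.cr k n := by
    by_contra hc
    push Not at hc
    have := (h1 k).2
    have := hw k
    nlinarith [mul_neg_of_pos_of_neg hd hc]
  exact ⟨(h1 k).1.trans (mul_le_mul_of_nonneg_right hp (hw k).le),
    (h1 k).2.trans (mul_le_mul_of_nonneg_right hp hcr)⟩

/-- monotone in the smallness -/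
theorem ContAt.exists_seq {D : Dat4} {E : ℕ → ℝ}
    (h : ∀ ε : ℝ, 0 < ε → ∀ᶠ n in (U : Filter ℕ), ∀ x ∈ D.I n, ContAt D (E n) n 0 ε x) :
    ∃ ε : ℕ → ℝ, Tendsto ε U (𝓝 0) ∧ ∀ᶠ n in (U : Filter ℕ), ∀ x ∈ D.I n,
      ContAt D (E n) n 0 (ε n) x := by
  obtain ⟨k, hk, hk'⟩ := exists_diag (fun k n => ∀ x ∈ D.I n, ContAt D (E n) n 0
    (1 / ((k : ℝ) + 1)) x) fun k => h _ (by positivity)
  exact ⟨fun n => 1 / ((k n : ℝ) + 1), tendsto_one_div_add_atTop_nhds_zero_nat.comp hk, by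
    filter_upwards [hk'] with n hn using hn (k n) le_rfl⟩

/-- **the window of the thin branch** -/
theorem thinW_of_mac {p : Par4} {D : Dat4} {a0 b0 : ℚ} (h : Mac p D a0 b0) :
    ∃ D' : Dat4, ThinW p D' := by
  classical
  obtain ⟨ha0, hab, hb0⟩ := h.ab
  obtain ⟨c1, hc1, hthin⟩ := h.thin
  obtain ⟨C, hC, htilt⟩ := h.tilt
  obtain ⟨c2, hc2, hcont⟩ := h.cont
  have q1 : Car1 a0 b0 (fun _ n v δ => (∀ x ∈ D.I n,
      DetP (D.B.d n ^ δ) (mk4 D n v x) (zx D n v x) (rh D n v) (D.L n x.1)) ∧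
      (∀ x ∈ D.I n, 0 ≤ kapP (mk4 D n v x) (zx D n v x) (rh D n v) (D.L n x.1) ∧
        (mk4 D n v x).a ≤ D.B.d n ^ c1 * kapP (mk4 D n v x) (zx D n v x) (rh D n v) (D.L n x.1)) ∧
      (∀ x ∈ D.I n, ContAt D (D.B.d n ^ c2) n v δ x) ∧ ∃ δ' ≤ δ, RngAt D n v δ') := by
    refine ⟨fun i n v δ δ' hd hq => ⟨fun x hx => (hq.1 x hx).mono (dpow_le D.B n hd), hq.2.1,
      fun x hx => (hq.2.2.1 x hx).mono hd, hq.2.2.2.imp fun e he => ⟨he.1.trans hd, he.2⟩⟩,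
      fun i v g0 g1 δ hδ => ?_⟩
    filter_upwards [h.nd v g0 g1 δ hδ, hthin v g0 g1, hcont v g0 g1 δ hδ,
      h.wrs (1 / δ) 0 v (ha0.trans g0) (g1.trans hb0), h.wrs (1 / δ) 1 v (ha0.trans g0) (g1.trans hb0),
      h.wrs (1 / δ) 2 v (ha0.trans g0) (g1.trans hb0)] with n a1 a2 a3 a4 a5 a6
    refine ⟨a1, a2, a3, δ, le_rfl, hδ, fun k => ?_⟩
    fin_cases k
    exacts [a4, a5, a6]
  have q2 : Car2 a0 b0 (fun _ n u v δ => ∃ δ' ≤ δ, ∀ x ∈ D.I n,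
      Close (D.B.d n ^ (-(C * ((v : ℝ) - u)) - δ') * max (D.w 0 n u) (D.w 0 n v))
        (mk4 D n v x) (mk4 D n u x) (D.L n x.1) (zx D n v x) (rh D n v)) :=
    Car2.up fun i u v g0 g01 g1 δ hδ => htilt u v g0 g01 g1 δ hδ
  obtain ⟨H, mm, B', I', A', hH, hH0, hm, hq, hB, hI, hM, hgain, r1, r2⟩ :=
    h.mka.win ha0 hab hb0 q1 q2
  set D1 : Dat4 := zmD D mm B' I' A' with hD1
  obtain ⟨J, hJ1, hJ2, hJ3, hfrm⟩ := exists_frm (p := p) (D := D1) hM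
  set D2 : Dat4 := { D1 with I := J } with hD2
  have hJI : ∀ n, J n ⊆ D.I n := fun n => (hJ1 n).trans (hI n)
  have hwp : ∀ v : ℚ, 0 ≤ v → v ≤ 1 → ∀ᶠ n in (U : Filter ℕ), 0 < D.w 0 n (mm n v) :=
    fun v h0 h1 => hM.wpos 0 v h0 h1
  have hc0 : ∀ ε : ℝ, 0 < ε → ∀ᶠ n in (U : Filter ℕ), ∀ x ∈ D2.I n,
      ContAt D2 (D.B.d n ^ c2) n 0 ε x := by
    intro ε hε
    filter_upwards [r1.ev 0 0 le_rfl zero_le_one ε hε] with n hn x hx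
    obtain ⟨f, u, Q, k1, k2, k3⟩ := hn.2.2.1 x (hJI n hx)
    have e1 := pow_win1 hB n ε
    have e2 := pow_win1 hB n (-ε)
    rw [mul_neg] at e2
    rw [e1, e2] at k2
    exact ⟨f, u, Q, k1, k2, k3⟩
  obtain ⟨ε, hε0, hε⟩ := ContAt.exists_seq hc0
  have hex : ∀ n, ∃ (x0 : ℕ × ℝ) (f : Fin 3 → V3) (u : Un) (Q : Qd), (J n).Nonempty →
      (∀ x ∈ J n, ContAt D2 (D.B.d n ^ c2) n 0 (ε n) x) → x0 ∈ J n ∧
      Cont (mk4 D2 n 0 x0) (D2.L n x0.1) (zx D2 n 0 x0) (rh D2 n 0) f u Q (D.B.d n ^ c2) ∧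
      (D2.B.d n ^ (ε n) * u.WA ≤ D2.w 1 n 0 ∧ D2.w 1 n 0 ≤ D2.B.d n ^ (-(ε n)) * u.WA ∧
        D2.B.d n ^ (ε n) * u.WB ≤ D2.w 2 n 0 ∧ D2.w 2 n 0 ≤ D2.B.d n ^ (-(ε n)) * u.WB) ∧
      ∃ N R H, Tay (mk4 D2 n 0 x0).q (D2.L n x0.1) N R H ∧
        (∀ i, |uv (N + x0.2 • R) i - f 0 i| ≤ 1 / 100) ∧
          ∀ i, |uv (cr N R) i - f 1 i| ≤ 1 / 100 := by
    intro n
    by_cases hn : (J n).Nonempty ∧ ∀ x ∈ J n, ContAt D2 (D.B.d n ^ c2) n 0 (ε n) x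
    · obtain ⟨⟨x0, hx0⟩, hn2⟩ := hn
      obtain ⟨f, u, Q, k1, k2, k3⟩ := hn2 x0 hx0
      exact ⟨x0, f, u, Q, fun _ _ => ⟨hx0, k1, k2, k3⟩⟩
    · exact ⟨(0, 0), fun _ _ => 0, ⟨1, 1, 1, 0, 1⟩, ⟨0, 0, 0, 0, 0, 0⟩, fun g1 g2 => absurd ⟨g1, g2⟩ hn⟩
  choose x0 f u Q hx0 using hex
  have hmain : ∀ᶠ n in (U : Filter ℕ), x0 n ∈ J n ∧
      Cont (mk4 D2 n 0 (x0 n)) (D2.L n (x0 n).1) (zx D2 n 0 (x0 n)) (rh D2 n 0) (f n) (u n) (Q n)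
        (D.B.d n ^ c2) ∧
      (D2.B.d n ^ (ε n) * (u n).WA ≤ D2.w 1 n 0 ∧ D2.w 1 n 0 ≤ D2.B.d n ^ (-(ε n)) * (u n).WA ∧
        D2.B.d n ^ (ε n) * (u n).WB ≤ D2.w 2 n 0 ∧
          D2.w 2 n 0 ≤ D2.B.d n ^ (-(ε n)) * (u n).WB) ∧
      ∃ N R H, Tay (mk4 D2 n 0 (x0 n)).q (D2.L n (x0 n).1) N R H ∧
        (∀ i, |uv (N + (x0 n).2 • R) i - f n 0 i| ≤ 1 / 100) ∧
          ∀ i, |uv (cr N R) i - f n 1 i| ≤ 1 / 100 := by
    filter_upwards [hJ3.ne, hε] with n g1 g2 using hx0 n g1 g2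
  refine ⟨D2, ⟨hJ3, ?_, h.θ1, h.θ2, ?_, ?_, ⟨C, hC, ?_⟩, ⟨x0, f, u, Q, fun n => D.B.d n ^ c2,
    hmain.mono fun n hn => ⟨hn.1, hn.2.1⟩, hgain c2 hc2, ?_, ?_⟩, ?_⟩⟩
  · filter_upwards [h.vel] with n hn x hx using hn x (hJI n hx)
  · intro v h0 h1 δ hδ
    filter_upwards [r1.ev 0 v h0 h1 δ hδ] with n hn x hx
    have e1 := pow_win1 hB n δ
    have := hn.1 x (hJI n hx)
    rw [e1] at this
    exact this
  · intro v h0 h1 M
    filter_upwards [r1.ev 0 v h0 h1 1 one_pos, hgain c1 hc1 M] with n hn hg x hx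
    obtain ⟨k0, k1⟩ := hn.2.1 x (hJI n hx)
    exact k1.trans (mul_le_mul_of_nonneg_right hg k0)
  · intro v w h0 h01 h1 δ hδ
    filter_upwards [r2.ev 0 v w h0 h01 h1 δ hδ, hwp v h0 (h01.le.trans h1)] with n hn hw x hx
    obtain ⟨δ', hδ', hcl⟩ := hn
    refine Close_mono ?_ (hcl x (hJI n hx))
    refine mul_le_mul_of_nonneg_right ?_ (hw.le.trans (le_max_left _ _))
    show D.B.d n ^ (-(C * ((mm n w : ℝ) - mm n v)) - δ') ≤ B'.d n ^ (-(C * ((w : ℝ) - v)) - δ)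
    rw [← pow_win hB hq C n v w δ]
    exact dpow_le D.B n (by linarith)
  · intro δ hδ
    filter_upwards [hmain, hε0.eventually (gt_mem_nhds hδ)] with n hn hd
    obtain ⟨-, k1, ⟨k2, k3, k4, k5⟩, -⟩ := hn
    have hWB : 0 < (u n).WB := k1.ok.Y0.trans_le k1.ok.YB
    have hWA : 0 < (u n).WA := hWB.trans_le k1.ok.BA
    exact ⟨(mul_le_mul_of_nonneg_right (dpow_le D2.B n hd.le) hWA.le).trans k2,
      k3.trans (mul_le_mul_of_nonneg_right (dpow_le D2.B n (by linarith)) hWA.le),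
      (mul_le_mul_of_nonneg_right (dpow_le D2.B n hd.le) hWB.le).trans k4,
      k5.trans (mul_le_mul_of_nonneg_right (dpow_le D2.B n (by linarith)) hWB.le)⟩
  · filter_upwards [hmain, hfrm] with n hn hf x hx
    obtain ⟨k0, k1, -, N, R, H, k3, k4, k5⟩ := hn
    exact hf (x0 n) k0 (f n) k1.ortho N R H k3 k4 k5 x hx
  · intro C k v h0 h1
    filter_upwards [r1.ev 0 v h0 h1 (1 / (|C| + 1)) (by positivity), hM.wpos 0 v h0 h1,
      hM.wpos 1 v h0 h1, hM.wpos 2 v h0 h1] with n hn w0 w1 w2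
    obtain ⟨-, -, -, δ', hδ', hr⟩ := hn
    exact RngAt.pow (B' := B') (hB n) (hH n).1 (hH n).2 hδ' rfl (fun j => by
      fin_cases j
      exacts [w0, w1, w2]) hr k

end Crest.Agent.R136.Us555
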