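import Crest.Agent.R136.StM1_555

/-!
# R136 (S0187), U6 thin side (helper555): powers

`Pw B X s` : `X n v = d^(s (v - u) ± ε) X n u` for all rational `0 ≤ u ≤ v ≤ 1`.
-/

set_option autoImplicit false
set_option linter.unusedVariables false
set_option linter.unusedSectionVars false

open Finset Filter Topology

namespace Crest.Agent.R136.Us555

open Crest.Agent.R138.Ex926 (Base U exists_diag)
open Crest.Agent.R138.Dp76
open Crest.Agent.R138.Mk163 (zc zl rho alive own Negl)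
open Crest.Agent.R136.MkA627 Crest.Agent.R136.Sh605 Crest.Agent.R136.K4 Crest.Agent.R136.Top484

/-- `X` is a power with exponent `s` -/
structure Pw (B : Base) (X : ℕ → ℚ → ℝ) (s : ℝ) : Prop where
  pos : ∀ v : ℚ, 0 ≤ v → v ≤ 1 → ∀ᶠ n in (U : Filter ℕ), 0 < X n v
  le : ∀ u v : ℚ, 0 ≤ u → u ≤ v → v ≤ 1 → ∀ ε : ℝ, 0 < ε → ∀ᶠ n in (U : Filter ℕ),
    B.d n ^ (s * ((v : ℝ) - u) + ε) * X n u ≤ X n v ∧
      X n v ≤ B.d n ^ (s * ((v : ℝ) - u) - ε) * X n u

section

variable {B : Base} {X Y : ℕ → ℚ → ℝ} {s t : ℝ}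

theorem Pw.mul (hX : Pw B X s) (hY : Pw B Y t) : Pw B (fun n v => X n v * Y n v) (s + t) := by
  refine ⟨fun v h0 h1 => ?_, fun u v h0 huv h1 ε hε => ?_⟩
  · filter_upwards [hX.pos v h0 h1, hY.pos v h0 h1] with n a b using mul_pos a b
  · have e2 : 0 < ε / 2 := by positivity
    filter_upwards [hX.pos u h0 (huv.trans h1), hY.pos u h0 (huv.trans h1),
      hX.le u v h0 huv h1 _ e2, hY.le u v h0 huv h1 _ e2, hX.pos v (h0.trans huv) h1,
      hY.pos v (h0.trans huv) h1] with n p1 p2 k1 k2 p3 p4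
    have c1 : B.d n ^ ((s + t) * ((v : ℝ) - u) + ε) = B.d n ^ (s * ((v : ℝ) - u) + ε / 2) *
        B.d n ^ (t * ((v : ℝ) - u) + ε / 2) := by rw [← dpow_add]; congr 1; ring
    have c2 : B.d n ^ ((s + t) * ((v : ℝ) - u) - ε) = B.d n ^ (s * ((v : ℝ) - u) - ε / 2) *
        B.d n ^ (t * ((v : ℝ) - u) - ε / 2) := by rw [← dpow_add]; congr 1; ring
    rw [c1, c2]
    constructor
    · calc _ = (B.d n ^ (s * ((v : ℝ) - u) + ε / 2) * X n u) *
            (B.d n ^ (t * ((v : ℝ) - u) + ε / 2) * Y n u) := by ring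
        _ ≤ X n v * Y n v := mul_le_mul k1.1 k2.1
            (mul_nonneg (dpow_pos B n _).le p2.le) p3.le
    · calc X n v * Y n v ≤ (B.d n ^ (s * ((v : ℝ) - u) - ε / 2) * X n u) *
            (B.d n ^ (t * ((v : ℝ) - u) - ε / 2) * Y n u) := mul_le_mul k1.2 k2.2 p4.le
              (mul_nonneg (dpow_pos B n _).le p1.le)
        _ = _ := by ring

theorem Pw.of_log (hpos : ∀ v : ℚ, 0 ≤ v → v ≤ 1 → ∀ᶠ n in (U : Filter ℕ), 0 < X n v)
    (h : ∀ u v : ℚ, 0 ≤ u → u ≤ v → v ≤ 1 →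
      Tendsto (fun n => (Real.log (X n u) - Real.log (X n v)) / B.L n) U
        (𝓝 (s * ((v : ℝ) - u)))) : Pw B X s := by
  refine ⟨hpos, fun u v h0 huv h1 ε hε => ?_⟩
  have h2 := h u v h0 huv h1
  filter_upwards [hpos u h0 (huv.trans h1), hpos v (h0.trans huv) h1,
    h2.eventually_const_lt (show s * ((v : ℝ) - u) - ε < s * ((v : ℝ) - u) by linarith),
    h2.eventually_lt_const (show s * ((v : ℝ) - u) < s * ((v : ℝ) - u) + ε by linarith)]
    with n pu pv k1 k2
  have hL := B.L_pos n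
  rw [lt_div_iff₀ hL] at k1
  rw [div_lt_iff₀ hL] at k2
  have hd := B.pos n
  have hld : ∀ a : ℝ, Real.log (B.d n ^ a) = -(a * B.L n) := fun a => by
    rw [Real.log_rpow hd]; unfold Base.L; ring
  constructor
  · rw [← Real.log_le_log_iff (mul_pos (dpow_pos B n _) pu) pv,
      Real.log_mul (dpow_pos B n _).ne' pu.ne', hld]
    linarith
  · rw [← Real.log_le_log_iff pv (mul_pos (dpow_pos B n _) pu),
      Real.log_mul (dpow_pos B n _).ne' pu.ne', hld]
    linarith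

/-- comparison of exponents -/
theorem exp_le_of_le {a b K : ℝ} (h : ∀ᶠ n in (U : Filter ℕ), B.d n ^ a ≤ K * B.d n ^ b) :
    b ≤ a := by
  by_contra hc
  push Not at hc
  have hK : 0 < |K| + 1 := by positivity
  have hs := Crest.Agent.R138.Ps926.dpow_small B (c := b - a) (by linarith)
    (ε := 1 / (|K| + 1)) (by positivity)
  obtain ⟨n, h1, h2⟩ := (h.and hs).exists
  have ha := dpow_pos B n a
  have e : B.d n ^ b = B.d n ^ a * B.d n ^ (b - a) := by rw [← dpow_add]; congr 1; ring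
  rw [e] at h1
  have h3 : K * (B.d n ^ a * B.d n ^ (b - a)) ≤ |K| * (B.d n ^ a * B.d n ^ (b - a)) :=
    mul_le_mul_of_nonneg_right (le_abs_self K) (mul_nonneg ha.le (dpow_pos B n _).le)
  have h4 : |K| * B.d n ^ (b - a) < 1 := by
    have h5 : B.d n ^ (b - a) * (|K| + 1) < 1 := by
      rwa [lt_div_iff₀ hK] at h2
    have := dpow_pos B n (b - a)
    nlinarith
  nlinarith

/-- comparison of exponents with arbitrarily small losses -/
theorem exp_le_of_eps {a b : ℝ}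
    (h : ∀ ε : ℝ, 0 < ε → ∃ K : ℝ, ∀ᶠ n in (U : Filter ℕ), B.d n ^ (a + ε) ≤ K * B.d n ^ b) :
    b ≤ a := by
  by_contra hc
  push Not at hc
  obtain ⟨K, hK⟩ := h ((b - a) / 2) (by linarith)
  have := exp_le_of_le hK
  linarith

/-- constants are smaller than small negative powers -/
theorem const_le (B : Base) (K : ℝ) {ε : ℝ} (hε : 0 < ε) :
    ∀ᶠ n in (U : Filter ℕ), K ≤ B.d n ^ (-ε) := by
  have hK : 0 < |K| + 1 := by positivity
  filter_upwards [Crest.Agent.R138.Ps926.dpow_small B hε (ε := 1 / (|K| + 1)) (by positivity)]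
    with n hn
  have hp := dpow_pos B n ε
  rw [Real.rpow_neg (B.pos n).le]
  have : |K| + 1 ≤ (B.d n ^ ε)⁻¹ := by
    rw [le_inv_comm₀ hK hp, ← one_div]
    exact hn.le
  linarith [le_abs_self K]

theorem small_mul (B : Base) {K : ℝ} {ε : ℝ} (hε : 0 < ε) :
    ∀ᶠ n in (U : Filter ℕ), K * B.d n ^ ε ≤ 1 := by
  filter_upwards [const_le B K hε] with n hn
  have hp := dpow_pos B n ε
  calc K * B.d n ^ ε ≤ B.d n ^ (-ε) * B.d n ^ ε := mul_le_mul_of_nonneg_right hn hp.le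
    _ = 1 := by rw [← dpow_add, neg_add_cancel, Real.rpow_zero]

end

section

variable {σ κ : Type*} {B : Base} {I : ℕ → Finset (ℕ × ℝ)} {G : Geo σ κ} {lev : ℕ → ℚ → ℕ}
    {A : ℕ → ℝ} {g s : ℝ} {θ : κ → ℝ} {f : ℕ → ℚ → ℕ → ℤ → ℕ} {b : ℕ → ℚ → ℕ → σ}
    {vm : ℕ → ℚ → ℝ} {w : κ → ℕ → ℚ → ℝ}

theorem log_rho (i : ℕ) : Real.log (rho i) = -(i * Real.log 2) := by
  unfold rho
  rw [one_div, Real.log_inv, Real.log_pow]

theorem rho_pos' (i : ℕ) : 0 < rho i := by unfold rho; positivity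

theorem pw_rho (h : MkA B I G lev A (fun v => g * v) (fun v => s * v) (fun j v => θ j * (1 - v)) f b
    vm w) : Pw B (fun n v => rho (lev n v)) 1 := by
  refine Pw.of_log (fun v h0 h1 => Eventually.of_forall fun n => rho_pos' _) fun u v h0 huv h1 => ?_
  rw [one_mul]
  refine (h.lev_lim u v h0 huv h1).congr fun n => ?_
  rw [log_rho, log_rho]
  ring

theorem pw_wid (h : MkA B I G lev A (fun v => g * v) (fun v => s * v) (fun j v => θ j * (1 - v)) f b
    vm w) (j : κ) : Pw B (w j) (1 - θ j) := by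
  refine Pw.of_log (fun v h0 h1 => h.wpos j v h0 h1) fun u v h0 huv h1 => ?_
  have a1 := h.tau j u h0 (huv.trans h1)
  have a2 := h.tau j v (h0.trans huv) h1
  have a3 := h.lev_lim u v h0 huv h1
  have a4 := (a3.sub a1).add a2
  have e : (v : ℝ) - u - θ j * (1 - u) + θ j * (1 - v) = (1 - θ j) * ((v : ℝ) - u) := by ring
  rw [e] at a4
  refine a4.congr' ?_
  filter_upwards [h.wpos j u h0 (huv.trans h1), h.wpos j v (h0.trans huv) h1,
    h.wpos j 1 zero_le_one le_rfl] with n pu pv p1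
  have q := fun i => rho_pos' i
  rw [Real.log_div (div_pos (q _) pu).ne' (div_pos (q _) p1).ne',
    Real.log_div (div_pos (q _) pv).ne' (div_pos (q _) p1).ne',
    Real.log_div (q _).ne' pu.ne', Real.log_div (q _).ne' pv.ne', log_rho, log_rho]
  have hL := (B.L_pos n).ne'
  field_simp
  ring

end

end Crest.Agent.R136.Us555
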