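import Crest.Agent.R136.Thn3_768

/-!
# R136 (S0187), U6 thin side, stage M (helper555): helper768's estimates in the form used by `StM`

All constants replaced by one constant `CM = 10^10`.
-/

set_option autoImplicit false
set_option linter.unusedVariables false

namespace Crest.Agent.R136.Us555

open Crest.Agent.R136.Sh605 Crest.Agent.R136.Tl102 Crest.Agent.R136.K4
open Crest.Agent.R136.KapP335 (DetP kapP)
open Crest.Agent.R136.Thn768 (Tay cr Own Snd D3 nm abs_apply_le nm_le_coord nm_nonneg)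

/-- absolute constant -/
def CM : ℝ := 10 ^ 10

theorem CM_pos : (0 : ℝ) < CM := by unfold CM; positivity

section

variable {S : Plk4} {T : Ln4} {z0 ρ δ : ℝ} {b0 b1 : V3} {G : QF} {X : ℝ} {q2 : ℝ → V3 → ℝ}
  {N R : V3} {H : QF}

theorem snd_D (O : Own S T z0 ρ δ b0 b1 G) (h : Snd S T z0 ρ b0 b1 G X q2 N R H)
    (hX : X ≤ δ / CM) (hδ1 : δ ≤ 1) :
    δ / CM * (S.w 0 * kap b0 b1 G) ^ 3 ≤ |D3 N R H| * (ρ * (S.w 1 * S.w 2)) ^ 2 ∧
      |D3 N R H| * (ρ * (S.w 1 * S.w 2)) ^ 2 ≤ CM * (S.w 0 * kap b0 b1 G) ^ 3 := by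
  have hδ := O.δ0
  have hY := pow_pos O.Ye0 3
  unfold CM at *
  obtain ⟨h1, h2⟩ := h.D O (hX.trans (by linarith)) hδ1
  refine ⟨le_trans ?_ h1, h2⟩
  apply mul_le_mul_of_nonneg_right _ hY.le
  linarith

theorem snd_om_le (O : Own S T z0 ρ δ b0 b1 G) (h : Snd S T z0 ρ b0 b1 G X q2 N R H)
    (hX : X ≤ 1) : nm (cr N R) * (ρ * (S.w 1 * S.w 2)) ≤ CM * (S.w 0 * kap b0 b1 G) * S.w 1 := by
  have hY := mul_pos O.Ye0 (O.pos 1)
  have h1 := h.om_le O hX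
  unfold CM
  nlinarith

theorem snd_om_ge2 (O : Own S T z0 ρ δ b0 b1 G) (h : Snd S T z0 ρ b0 b1 G X q2 N R H)
    (hX : X ≤ δ / CM) (hδ1 : δ ≤ 1) :
    δ / CM * (S.w 0 * kap b0 b1 G) * S.w 2 ≤ nm (cr N R) * (ρ * (S.w 1 * S.w 2)) := by
  have hδ := O.δ0
  have hY := mul_pos hδ (mul_pos O.Ye0 (O.pos 2))
  unfold CM at *
  have h1 := h.om_ge2 O (hX.trans (by linarith)) hδ1
  refine le_trans ?_ h1
  have : δ / 10 ^ 10 * (S.w 0 * kap b0 b1 G) * S.w 2 =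
    (δ * ((S.w 0 * kap b0 b1 G) * S.w 2)) / 10 ^ 10 := by ring
  rw [this]
  linarith

theorem snd_om_ge1 (O : Own S T z0 ρ δ b0 b1 G) (h : Snd S T z0 ρ b0 b1 G X q2 N R H) {ε : ℝ}
    (hε : 0 < ε) (hε1 : ε ≤ 1) (he : ε ≤ |scB1 (kap b0 b1 G) b0 b1 2|) (hX : X ≤ ε / CM) :
    ε / CM * (S.w 0 * kap b0 b1 G) * S.w 1 ≤ nm (cr N R) * (ρ * (S.w 1 * S.w 2)) := by
  have hY := mul_pos hε (mul_pos O.Ye0 (O.pos 1))
  unfold CM at *
  have h1 := h.om_ge1 O he (hX.trans (by linarith)) (hX.trans (by linarith))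
  refine le_trans ?_ h1
  have e1 : ε / 10 ^ 10 * (S.w 0 * kap b0 b1 G) * S.w 1 =
    (ε * ((S.w 0 * kap b0 b1 G) * S.w 1)) / 10 ^ 10 := by ring
  have e2 : ε / 10 ^ 3 * ((S.w 0 * kap b0 b1 G) * S.w 1) =
    (ε * ((S.w 0 * kap b0 b1 G) * S.w 1)) / 10 ^ 3 := by ring
  rw [e1, e2]
  linarith

theorem own_turn (O : Own S T z0 ρ δ b0 b1 G) (hT : Tay S.q T N R H) (i : Fin 3) :
    ρ * |R i| ≤ CM := by
  have h1 := O.R_le hT
  have h2 := mul_le_mul_of_nonneg_left (abs_apply_le R i) O.hρ.le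
  unfold CM
  linarith

theorem snd_R_le (O : Own S T z0 ρ δ b0 b1 G) (h : Snd S T z0 ρ b0 b1 G X q2 N R H)
    {N' R' : V3} {H' : QF} (hT : Tay S.q T N' R' H') (hX0 : 0 ≤ X) (hX : X ≤ 1) {t : ℝ}
    (ht : ∀ i, |R i| ≤ t) : ρ * nm R' ≤ CM * (ρ * t + X) := by
  have h1 := Snd.R_le O hT h hX
  have h2 := mul_le_mul_of_nonneg_left (nm_le_coord ht) O.hρ.le
  have ht0 : 0 ≤ t := (abs_nonneg _).trans (ht 0)
  have h3 : 0 ≤ ρ * t := mul_nonneg O.hρ.le ht0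
  unfold CM
  linarith

end

end Crest.Agent.R136.Us555
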