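import Crest.Agent.R136.StM2_555
import Crest.Agent.R136.StN_555
import Crest.Agent.R136.ThnD_768
import Crest.Agent.R136.Us5_555

/-!
# R136 (S0187), U6 thin side (helper555): exponents of the curvature extent

`MPre p D l r` : all marks of the levels `[l, r]` are curved and nondegenerate, marks of coarser
levels are close to the deeper ones in the coefficient form.

* `MPre.ye` : the curvature extent is a power with exponent `(2/3) (3 - θ₁ - θ₂)`;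
* `MPre.ratio` : `w₂ ≤ d^c w₁` at interior levels;
* `MPre.θ2` : `θ₂ = 2 θ₁`.
-/

set_option autoImplicit false
set_option linter.unusedVariables false
set_option linter.unusedSectionVars false

open Finset Filter Topology

namespace Crest.Agent.R136.Us555

open Crest.Agent.R138.Ex926 (Base U exists_diag ev_em)
open Crest.Agent.R138.Dp76
open Crest.Agent.R138.Mk163 (zc zl rho alive own Negl)
open Crest.Agent.R138.MkRef627 (mem_alive)
open Crest.Agent.R136.MkA627 Crest.Agent.R136.Sh605 Crest.Agent.R136.K4 Crest.Agent.R136.Top484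
open Crest.Agent.R136.Tlt51 (mk4 zx rh Close)
open Crest.Agent.R136.KapP335 (kapP DetP kapP_eq)
open Crest.Agent.R136.GeoN778 (Qd Un)
open Crest.Agent.R136.Tl102 (QF Fq bz kap IsExp NrmC scB1)
open Crest.Agent.R136.Thn768 (Tay cr Frm Cont ThinW Own Snd D3 nm exists_tay)

/-- curvature extent of the mark of level `v` -/
noncomputable def Ye (D : Dat4) (n : ℕ) (v : ℚ) (x : ℕ × ℝ) : ℝ :=
  kapP (mk4 D n v x) (zx D n v x) (rh D n v) (D.L n x.1)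

/-- `ρ w₁ w₂` -/
noncomputable def PP (D : Dat4) (n : ℕ) (v : ℚ) : ℝ := rh D n v * (D.w 1 n v * D.w 2 n v)

/-- **curved and nondegenerate at all levels of `[l, r]`** -/
structure MPre (p : Par4) (D : Dat4) (l r : ℚ) : Prop where
  lr : 0 ≤ l ∧ l < r ∧ r ≤ 1
  mka : MkA D.B D.I (D.G p) D.lev D.A (fun v => p.g * v) (fun v => 0 * v)
    (fun j v => p.θ j * (1 - v)) D.f D.b D.vm D.w
  vel : ∀ᶠ n in (U : Filter ℕ), ∀ x ∈ D.I n, ∀ i, |(D.L n x.1).v i| ≤ 1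
  θ1 : 0 < p.θ 1
  own : ∀ v : ℚ, l ≤ v → v ≤ r → ∀ ε : ℝ, 0 < ε → ∀ᶠ n in (U : Filter ℕ), ∀ x ∈ D.I n,
    ∃ b0 b1 G, Own (mk4 D n v x) (D.L n x.1) (zx D n v x) (rh D n v) (D.B.d n ^ ε) b0 b1 G
  thin : ∃ c : ℝ, 0 < c ∧ ∀ v : ℚ, l ≤ v → v ≤ r → ∀ᶠ n in (U : Filter ℕ), ∀ x ∈ D.I n,
    (mk4 D n v x).a ≤ D.B.d n ^ c * Ye D n v x
  tilt : ∃ C : ℝ, 0 ≤ C ∧ ∀ u v : ℚ, l ≤ u → u < v → v ≤ r → ∀ ε : ℝ, 0 < ε →
    ∀ᶠ n in (U : Filter ℕ), ∀ x ∈ D.I n,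
      Close (D.B.d n ^ (-(C * ((v : ℝ) - u)) - ε) * max (D.w 0 n u) (D.w 0 n v))
        (mk4 D n v x) (mk4 D n u x) (D.L n x.1) (zx D n v x) (rh D n v)
  snd : ∃ c : ℝ, 0 < c ∧ ∀ u v : ℚ, l ≤ u → u < v → v ≤ r → ∀ᶠ n in (U : Filter ℕ),
    ∀ x ∈ D.I n, ∀ b0 b1 G N R H,
      IsExp (mk4 D n v x).q (mk4 D n v x).e (mk4 D n v x).w (D.L n x.1) (zx D n v x) (rh D n v)
        b0 b1 G → Tay (mk4 D n u x).q (D.L n x.1) N R H →
      Snd (mk4 D n v x) (D.L n x.1) (zx D n v x) (rh D n v) b0 b1 G (D.B.d n ^ c)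
        (mk4 D n u x).q N R H

section

variable {p : Par4} {D : Dat4} {l r : ℚ}

/-- the marks -/
theorem MPre.mark (h : MPre p D l r) {v : ℚ} (h0 : 0 ≤ v) (h1 : v ≤ 1) :
    ∀ᶠ n in (U : Filter ℕ), (0 < D.w 0 n v ∧ 0 < D.w 1 n v ∧ 0 < D.w 2 n v) ∧ ∀ x ∈ D.I n,
      ShN (mk4 D n v x).e (mk4 D n v x).c (mk4 D n v x).w (mk4 D n v x).q (mk4 D n v x).a
        (zx D n v x) (rh D n v) (D.r0 n) ∧
      (mk4 D n v x).a = D.w 0 n v ∧ (mk4 D n v x).w 1 = D.w 1 n v ∧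
        (mk4 D n v x).w 2 = D.w 2 n v := by
  filter_upwards [h.mka.mark v h0 h1, h.mka.wpos 0 v h0 h1, h.mka.wpos 1 v h0 h1,
    h.mka.wpos 2 v h0 h1] with n a1 a2 a3 a4
  refine ⟨⟨a2, a3, a4⟩, fun x hx => ?_⟩
  obtain ⟨m1, m2, m3, m4⟩ := a1 (zc (D.lev n v) x.2) x.1 (mem_alive.2 ⟨x, hx, rfl, rfl⟩)
  exact ⟨m2.1, m4 0, m4 1, m4 2⟩

theorem MPre.w21 (h : MPre p D l r) {v : ℚ} (h0 : 0 ≤ v) (h1 : v ≤ 1) :
    ∀ᶠ n in (U : Filter ℕ), D.w 2 n v ≤ D.w 1 n v := by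
  filter_upwards [h.mark h0 h1, h.mka.ne] with n a1 a2
  obtain ⟨x, hx⟩ := a2
  obtain ⟨s1, s2, s3, s4⟩ := a1.2 x hx
  rw [← s3, ← s4]
  exact s1.w_le

theorem MPre.pwP (h : MPre p D l r) : Pw D.B (fun n v => PP D n v) (3 - p.θ 1 - p.θ 2) := by
  have h1 := (pw_rho h.mka).mul ((pw_wid h.mka 1).mul (pw_wid h.mka 2))
  have e : 1 + ((1 - p.θ 1) + (1 - p.θ 2)) = 3 - p.θ 1 - p.θ 2 := by ring
  rw [e] at h1
  exact h1

theorem Ye_eq (h : MPre p D l r) {n : ℕ} {v : ℚ} {x : ℕ × ℝ} {δ : ℝ} {b0 b1 : V3} {G : QF}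
    (O : Own (mk4 D n v x) (D.L n x.1) (zx D n v x) (rh D n v) δ b0 b1 G) :
    Ye D n v x = (mk4 D n v x).w 0 * kap b0 b1 G := kapP_eq (O.pos 0).ne' O.exp

/-- **determinant law against the reference mark of level `l`** -/
theorem MPre.refD (h : MPre p D l r) {v : ℚ} (hl : l < v) (hr : v ≤ r) {ε : ℝ} (hε : 0 < ε) :
    ∀ᶠ n in (U : Filter ℕ), 0 < PP D n v ∧ ∀ x ∈ D.I n, 0 < Ye D n v x ∧
      ∀ N R H, Tay (mk4 D n l x).q (D.L n x.1) N R H →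
        D.B.d n ^ ε * Ye D n v x ^ 3 ≤ |D3 N R H| * PP D n v ^ 2 ∧
          |D3 N R H| * PP D n v ^ 2 ≤ D.B.d n ^ (-ε) * Ye D n v x ^ 3 := by
  obtain ⟨c, hc, hs⟩ := h.snd
  have hv0 : 0 ≤ v := h.lr.1.trans hl.le
  have hv1 : v ≤ 1 := hr.trans h.lr.2.2
  set ε' : ℝ := min (ε / 2) (c / 2) with hε'
  have hp : 0 < ε' := lt_min (by positivity) (by positivity)
  have h1 : ε' ≤ ε / 2 := min_le_left _ _
  have h2 : ε' ≤ c / 2 := min_le_right _ _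
  filter_upwards [h.own v hl.le hr ε' hp, hs l v le_rfl hl hr, h.mark hv0 hv1,
    small_mul D.B (K := CM) (ε := c / 2) (by positivity),
    small_mul D.B (K := CM) (ε := ε / 2) (by positivity), const_le D.B CM (ε := ε) hε,
    h.pwP.pos v hv0 hv1] with n a1 a2 a3 a4 a5 a6 a7
  refine ⟨a7, fun x hx => ?_⟩
  obtain ⟨b0, b1, G, O⟩ := a1 x hx
  obtain ⟨s1, s2, s3, s4⟩ := a3.2 x hx
  have hY := Ye_eq h O
  have hYp : 0 < Ye D n v x := by rw [hY]; exact mul_pos (O.pos 0) O.k0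
  have hCM : (0 : ℝ) < CM := CM_pos
  have hδ1 : D.B.d n ^ ε' ≤ 1 := Real.rpow_le_one (D.B.pos n).le (D.B.lt n).le hp.le
  refine ⟨hYp, fun N R H hT => ?_⟩
  have S := a2 x hx b0 b1 G N R H O.exp hT
  have hX : D.B.d n ^ c ≤ D.B.d n ^ ε' / CM := by
    rw [le_div_iff₀ hCM]
    calc D.B.d n ^ c * CM = (CM * D.B.d n ^ (c / 2)) * D.B.d n ^ (c / 2) := by
          rw [mul_assoc, ← dpow_add, add_halves, mul_comm]
      _ ≤ 1 * D.B.d n ^ (c / 2) := mul_le_mul_of_nonneg_right a4 (dpow_pos D.B n _).le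
      _ = D.B.d n ^ (c / 2) := one_mul _
      _ ≤ D.B.d n ^ ε' := dpow_le D.B n h2
  obtain ⟨k1, k2⟩ := snd_D O S hX hδ1
  rw [← hY] at k1 k2
  have eP : rh D n v * ((mk4 D n v x).w 1 * (mk4 D n v x).w 2) = PP D n v := by
    rw [s3, s4]; rfl
  rw [eP] at k1 k2
  have hY3 : 0 < Ye D n v x ^ 3 := by positivity
  refine ⟨le_trans (mul_le_mul_of_nonneg_right ?_ hY3.le) k1,
    k2.trans (mul_le_mul_of_nonneg_right a6 hY3.le)⟩
  rw [le_div_iff₀ hCM]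
  calc D.B.d n ^ ε * CM = (CM * D.B.d n ^ (ε / 2)) * D.B.d n ^ (ε / 2) := by
        rw [mul_assoc, ← dpow_add, add_halves, mul_comm]
    _ ≤ 1 * D.B.d n ^ (ε / 2) := mul_le_mul_of_nonneg_right a5 (dpow_pos D.B n _).le
    _ = D.B.d n ^ (ε / 2) := one_mul _
    _ ≤ D.B.d n ^ ε' := dpow_le D.B n h1

theorem MPre.tay_ref (h : MPre p D l r) : ∀ᶠ n in (U : Filter ℕ), ∀ x ∈ D.I n,
    ∃ N R H, Tay (mk4 D n l x).q (D.L n x.1) N R H := by
  filter_upwards [h.mark h.lr.1 (h.lr.2.1.le.trans h.lr.2.2)] with n hn x hx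
  exact exists_tay (hn.2 x hx).1.isQ _

theorem le_of_cube {x y : ℝ} (hy : 0 ≤ y) (h : x ^ 3 ≤ y ^ 3) : x ≤ y :=
  le_of_pow_le_pow_left₀ (by norm_num) hy h

/-- **the curvature extent is a power** -/
theorem MPre.ye (h : MPre p D l r) {u v : ℚ} (hl : l < u) (huv : u ≤ v) (hr : v ≤ r) {ε : ℝ}
    (hε : 0 < ε) : ∀ᶠ n in (U : Filter ℕ), ∀ x ∈ D.I n,
      D.B.d n ^ (2 / 3 * (3 - p.θ 1 - p.θ 2) * ((v : ℝ) - u) + ε) * Ye D n u x ≤ Ye D n v x ∧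
      Ye D n v x ≤ D.B.d n ^ (2 / 3 * (3 - p.θ 1 - p.θ 2) * ((v : ℝ) - u) - ε) * Ye D n u x := by
  have hu0 : 0 ≤ u := h.lr.1.trans hl.le
  have hv1 : v ≤ 1 := hr.trans h.lr.2.2
  have e2 : 0 < ε / 2 := by positivity
  filter_upwards [h.refD hl (huv.trans hr) e2, h.refD (hl.trans_le huv) hr e2,
    h.pwP.le u v hu0 huv hv1 _ e2, h.tay_ref] with n a1 a2 a3 a4 x hx
  obtain ⟨N, R, H, hT⟩ := a4 x hx
  obtain ⟨p1, q1⟩ := a1
  obtain ⟨p2, q2⟩ := a2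
  obtain ⟨y1, d1⟩ := q1 x hx
  obtain ⟨y2, d2⟩ := q2 x hx
  obtain ⟨l1, r1⟩ := d1 N R H hT
  obtain ⟨l2, r2⟩ := d2 N R H hT
  set σ := 3 - p.θ 1 - p.θ 2
  set t : ℝ := (v : ℝ) - u
  set Δ := |D3 N R H|
  have hΔ : 0 ≤ Δ := abs_nonneg _
  set Yu := Ye D n u x
  set Yv := Ye D n v x
  set Pu := PP D n u
  set Pv := PP D n v
  have hd := fun a : ℝ => dpow_pos D.B n a
  have sq1 : Pv ^ 2 ≤ D.B.d n ^ (2 * σ * t - ε) * Pu ^ 2 := by
    have := pow_le_pow_left₀ p2.le a3.2 2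
    rw [mul_pow, ← Real.rpow_natCast (D.B.d n ^ _), ← Real.rpow_mul (D.B.pos n).le] at this
    refine this.trans (le_of_eq ?_)
    congr 2; push_cast; ring
  have sq2 : D.B.d n ^ (2 * σ * t + ε) * Pu ^ 2 ≤ Pv ^ 2 := by
    have := pow_le_pow_left₀ (mul_nonneg (hd _).le p1.le) a3.1 2
    rw [mul_pow, ← Real.rpow_natCast (D.B.d n ^ _), ← Real.rpow_mul (D.B.pos n).le] at this
    refine le_trans (le_of_eq ?_) this
    congr 2; push_cast; ring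
  have cube : ∀ a : ℝ, D.B.d n ^ (3 * a) = (D.B.d n ^ a) ^ 3 := by
    intro a
    rw [← Real.rpow_natCast (D.B.d n ^ a), ← Real.rpow_mul (D.B.pos n).le]
    congr 1; push_cast; ring
  constructor
  · refine le_of_cube y2.le ?_
    rw [mul_pow, ← cube]
    have k1 : D.B.d n ^ (2 * σ * t + ε) * (D.B.d n ^ (ε / 2) * Yu ^ 3) ≤
        D.B.d n ^ (-(ε / 2)) * Yv ^ 3 := by
      calc _ ≤ D.B.d n ^ (2 * σ * t + ε) * (Δ * Pu ^ 2) :=
            mul_le_mul_of_nonneg_left l1 (hd _).le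
        _ = Δ * (D.B.d n ^ (2 * σ * t + ε) * Pu ^ 2) := by ring
        _ ≤ Δ * Pv ^ 2 := mul_le_mul_of_nonneg_left sq2 hΔ
        _ ≤ _ := r2
    have k2 : D.B.d n ^ (ε / 2) * (D.B.d n ^ (2 * σ * t + ε) * (D.B.d n ^ (ε / 2) * Yu ^ 3)) ≤
        D.B.d n ^ (ε / 2) * (D.B.d n ^ (-(ε / 2)) * Yv ^ 3) :=
      mul_le_mul_of_nonneg_left k1 (hd _).le
    rw [← mul_assoc, ← mul_assoc, ← mul_assoc, ← dpow_add, ← dpow_add, ← dpow_add,
      add_neg_cancel, Real.rpow_zero, one_mul] at k2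
    refine le_trans (mul_le_mul_of_nonneg_right (dpow_le D.B n ?_) (by positivity)) k2
    nlinarith
  · refine le_of_cube (mul_nonneg (hd _).le y1.le) ?_
    rw [mul_pow, ← cube]
    have k1 : D.B.d n ^ (ε / 2) * Yv ^ 3 ≤
        D.B.d n ^ (2 * σ * t - ε) * (D.B.d n ^ (-(ε / 2)) * Yu ^ 3) := by
      calc _ ≤ Δ * Pv ^ 2 := l2
        _ ≤ Δ * (D.B.d n ^ (2 * σ * t - ε) * Pu ^ 2) := mul_le_mul_of_nonneg_left sq1 hΔ
        _ = D.B.d n ^ (2 * σ * t - ε) * (Δ * Pu ^ 2) := by ring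
        _ ≤ _ := mul_le_mul_of_nonneg_left r1 (hd _).le
    have k2 := mul_le_mul_of_nonneg_left k1 (hd (-(ε / 2))).le
    rw [← mul_assoc, ← mul_assoc, ← mul_assoc, ← dpow_add, ← dpow_add, ← dpow_add,
      neg_add_cancel, Real.rpow_zero, one_mul] at k2
    refine k2.trans (mul_le_mul_of_nonneg_right (dpow_le D.B n ?_) (by positivity))
    nlinarith

/-- the rotation form against the reference mark -/
theorem MPre.refO (h : MPre p D l r) {v : ℚ} (hl : l < v) (hr : v ≤ r) {ε : ℝ} (hε : 0 < ε) :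
    ∀ᶠ n in (U : Filter ℕ), ∀ x ∈ D.I n,
      ∀ N R H, Tay (mk4 D n l x).q (D.L n x.1) N R H →
        D.B.d n ^ ε * (Ye D n v x * D.w 2 n v) ≤ nm (cr N R) * PP D n v ∧
          nm (cr N R) * PP D n v ≤ D.B.d n ^ (-ε) * (Ye D n v x * D.w 1 n v) := by
  obtain ⟨c, hc, hs⟩ := h.snd
  have hv0 : 0 ≤ v := h.lr.1.trans hl.le
  have hv1 : v ≤ 1 := hr.trans h.lr.2.2
  set ε' : ℝ := min (ε / 2) (c / 2) with hε'
  have hp : 0 < ε' := lt_min (by positivity) (by positivity)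
  have h1 : ε' ≤ ε / 2 := min_le_left _ _
  have h2 : ε' ≤ c / 2 := min_le_right _ _
  filter_upwards [h.own v hl.le hr ε' hp, hs l v le_rfl hl hr, h.mark hv0 hv1,
    small_mul D.B (K := CM) (ε := c / 2) (by positivity),
    small_mul D.B (K := CM) (ε := ε / 2) (by positivity), const_le D.B CM (ε := ε) hε]
    with n a1 a2 a3 a4 a5 a6 x hx N R H hT
  obtain ⟨b0, b1, G, O⟩ := a1 x hx
  obtain ⟨s1, s2, s3, s4⟩ := a3.2 x hx
  have hY := Ye_eq h O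
  have hYp : 0 < Ye D n v x := by rw [hY]; exact mul_pos (O.pos 0) O.k0
  have hCM : (0 : ℝ) < CM := CM_pos
  have hδ1 : D.B.d n ^ ε' ≤ 1 := Real.rpow_le_one (D.B.pos n).le (D.B.lt n).le hp.le
  have S := a2 x hx b0 b1 G N R H O.exp hT
  have hX : D.B.d n ^ c ≤ D.B.d n ^ ε' / CM := by
    rw [le_div_iff₀ hCM]
    calc D.B.d n ^ c * CM = (CM * D.B.d n ^ (c / 2)) * D.B.d n ^ (c / 2) := by
          rw [mul_assoc, ← dpow_add, add_halves, mul_comm]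
      _ ≤ 1 * D.B.d n ^ (c / 2) := mul_le_mul_of_nonneg_right a4 (dpow_pos D.B n _).le
      _ = D.B.d n ^ (c / 2) := one_mul _
      _ ≤ D.B.d n ^ ε' := dpow_le D.B n h2
  have hX1 : D.B.d n ^ c ≤ 1 := Real.rpow_le_one (D.B.pos n).le (D.B.lt n).le hc.le
  have k1 := snd_om_ge2 O S hX hδ1
  have k2 := snd_om_le O S hX1
  rw [← hY] at k1 k2
  have eP : rh D n v * ((mk4 D n v x).w 1 * (mk4 D n v x).w 2) = PP D n v := by
    rw [s3, s4]; rfl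
  rw [eP] at k1 k2
  rw [s4] at k1
  rw [s3] at k2
  have hw1 := a3.1.2.1
  have hw2 := a3.1.2.2
  constructor
  · refine le_trans ?_ k1
    rw [mul_assoc]
    refine mul_le_mul_of_nonneg_right ?_ (mul_pos hYp hw2).le
    rw [le_div_iff₀ hCM]
    calc D.B.d n ^ ε * CM = (CM * D.B.d n ^ (ε / 2)) * D.B.d n ^ (ε / 2) := by
          rw [mul_assoc, ← dpow_add, add_halves, mul_comm]
      _ ≤ 1 * D.B.d n ^ (ε / 2) := mul_le_mul_of_nonneg_right a5 (dpow_pos D.B n _).le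
      _ = D.B.d n ^ (ε / 2) := one_mul _
      _ ≤ D.B.d n ^ ε' := dpow_le D.B n h1
  · refine k2.trans ?_
    rw [mul_assoc]
    exact mul_le_mul_of_nonneg_right a6 (mul_pos hYp hw1).le

/-- lower bound by the wide width, at the level `v` -/
def LowA (D : Dat4) (l v : ℚ) : Prop := ∀ ε : ℝ, 0 < ε → ∀ᶠ n in (U : Filter ℕ), ∀ x ∈ D.I n,
  ∀ N R H, Tay (mk4 D n l x).q (D.L n x.1) N R H →
    D.B.d n ^ ε * (Ye D n v x * D.w 1 n v) ≤ nm (cr N R) * PP D n v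

theorem pow_cancel {B : Base} {n : ℕ} {a b Y : ℝ} (hY : 0 < Y)
    (h : B.d n ^ a * Y ≤ B.d n ^ b * Y) : B.d n ^ a ≤ B.d n ^ b := le_of_mul_le_mul_right h hY

theorem MPre.slope_ge (h : MPre p D l r) {u v : ℚ} (hl : l < u) (huv : u < v) (hr : v ≤ r)
    (hlow : LowA D l v) : (3 - p.θ 1 - p.θ 2) / 3 ≤ 1 - p.θ 1 := by
  have hu0 : 0 ≤ u := h.lr.1.trans hl.le
  have hv1 : v ≤ 1 := hr.trans h.lr.2.2
  have ht : (0 : ℝ) < (v : ℝ) - u := by
    have : (u : ℝ) < v := by exact_mod_cast huv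
    linarith
  have key : (3 - p.θ 1 - p.θ 2) * ((v : ℝ) - u) ≤
      2 / 3 * (3 - p.θ 1 - p.θ 2) * ((v : ℝ) - u) + (1 - p.θ 1) * ((v : ℝ) - u) := by
    refine exp_le_of_eps (B := D.B) fun ε hε => ⟨1, ?_⟩
    have e5 : 0 < ε / 5 := by positivity
    filter_upwards [hlow _ e5, h.refO hl (huv.le.trans hr) e5, h.ye hl huv.le hr e5,
      (pw_wid h.mka 1).le u v hu0 huv.le hv1 _ e5, h.pwP.le u v hu0 huv.le hv1 _ e5, h.tay_ref,
      h.mka.ne, h.refD hl (huv.le.trans hr) e5, h.refD (hl.trans huv) hr e5,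
      h.mka.wpos 1 u hu0 (huv.le.trans hv1), h.mka.wpos 1 v (hu0.trans huv.le) hv1]
      with n a1 a2 a3 a4 a5 a6 a7 a8 a9 a10 a11
    obtain ⟨x, hx⟩ := a7
    obtain ⟨N, R, H, hT⟩ := a6 x hx
    have b1 := a1 x hx N R H hT
    have b2 := (a2 x hx N R H hT).2
    have b3 := (a3 x hx).1
    have hPu := a8.1
    have hPv := a9.1
    have hYu := (a8.2 x hx).1
    have hYv := (a9.2 x hx).1
    have hd := fun a : ℝ => dpow_pos D.B n a
    set O := nm (cr N R)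
    set σ := 3 - p.θ 1 - p.θ 2
    set t : ℝ := (v : ℝ) - u
    set Y := Ye D n u x * D.w 1 n u * PP D n u with hYdef
    have hY : 0 < Y := by positivity
    have c1 : D.B.d n ^ (ε / 5) * (Ye D n v x * D.w 1 n v) * PP D n u ≤
        D.B.d n ^ (-(ε / 5)) * (Ye D n u x * D.w 1 n u) * PP D n v := by
      calc _ ≤ (O * PP D n v) * PP D n u := mul_le_mul_of_nonneg_right b1 hPu.le
        _ = (O * PP D n u) * PP D n v := by ring
        _ ≤ _ := mul_le_mul_of_nonneg_right b2 hPv.le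
    have c2 : D.B.d n ^ (2 / 3 * σ * t + ε / 5) * Ye D n u x *
        (D.B.d n ^ ((1 - p.θ 1) * t + ε / 5) * D.w 1 n u) ≤ Ye D n v x * D.w 1 n v :=
      mul_le_mul b3 a4.1 (mul_pos (hd _) a10).le hYv.le
    have c3 : D.B.d n ^ (ε / 5) * (D.B.d n ^ (2 / 3 * σ * t + ε / 5) * Ye D n u x *
        (D.B.d n ^ ((1 - p.θ 1) * t + ε / 5) * D.w 1 n u)) * PP D n u ≤
        D.B.d n ^ (-(ε / 5)) * (Ye D n u x * D.w 1 n u) *
          (D.B.d n ^ (σ * t - ε / 5) * PP D n u) := by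
      calc _ ≤ D.B.d n ^ (ε / 5) * (Ye D n v x * D.w 1 n v) * PP D n u :=
            mul_le_mul_of_nonneg_right (mul_le_mul_of_nonneg_left c2 (hd _).le) hPu.le
        _ ≤ _ := c1
        _ ≤ _ := mul_le_mul_of_nonneg_left a5.2 (mul_pos (hd _) (mul_pos hYu a10)).le
    have c4 : D.B.d n ^ (ε / 5 + (2 / 3 * σ * t + ε / 5) + ((1 - p.θ 1) * t + ε / 5)) * Y ≤
        D.B.d n ^ (-(ε / 5) + (σ * t - ε / 5)) * Y := by
      rw [dpow_add D.B n (ε / 5 + (2 / 3 * σ * t + ε / 5)),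
        dpow_add D.B n (ε / 5) (2 / 3 * σ * t + ε / 5), dpow_add D.B n (-(ε / 5)), hYdef]
      calc _ = _ := by ring
        _ ≤ _ := c3
        _ = _ := by ring
    have c5 := pow_cancel hY c4
    rw [one_mul]
    have c6 := mul_le_mul_of_nonneg_left c5 (hd (2 * ε / 5)).le
    rw [← dpow_add, ← dpow_add] at c6
    refine le_trans (dpow_le D.B n (by linarith)) (c6.trans (dpow_le D.B n (by linarith)))
  have e : (3 - p.θ 1 - p.θ 2) / 3 * ((v : ℝ) - u) ≤ (1 - p.θ 1) * ((v : ℝ) - u) := by linarith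
  exact le_of_mul_le_mul_right e ht

theorem MPre.slope_le (h : MPre p D l r) {u v : ℚ} (hl : l < u) (huv : u < v) (hr : v ≤ r)
    (hlow : LowA D l u) : 1 - p.θ 1 ≤ (3 - p.θ 1 - p.θ 2) / 3 := by
  have hu0 : 0 ≤ u := h.lr.1.trans hl.le
  have hv1 : v ≤ 1 := hr.trans h.lr.2.2
  have ht : (0 : ℝ) < (v : ℝ) - u := by
    have : (u : ℝ) < v := by exact_mod_cast huv
    linarith
  have key : 2 / 3 * (3 - p.θ 1 - p.θ 2) * ((v : ℝ) - u) + (1 - p.θ 1) * ((v : ℝ) - u) ≤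
      (3 - p.θ 1 - p.θ 2) * ((v : ℝ) - u) := by
    refine exp_le_of_eps (B := D.B) fun ε hε => ⟨1, ?_⟩
    have e5 : 0 < ε / 5 := by positivity
    filter_upwards [hlow _ e5, h.refO (hl.trans huv) hr e5, h.ye hl huv.le hr e5,
      (pw_wid h.mka 1).le u v hu0 huv.le hv1 _ e5, h.pwP.le u v hu0 huv.le hv1 _ e5, h.tay_ref,
      h.mka.ne, h.refD hl (huv.le.trans hr) e5, h.refD (hl.trans huv) hr e5,
      h.mka.wpos 1 u hu0 (huv.le.trans hv1), h.mka.wpos 1 v (hu0.trans huv.le) hv1]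
      with n a1 a2 a3 a4 a5 a6 a7 a8 a9 a10 a11
    obtain ⟨x, hx⟩ := a7
    obtain ⟨N, R, H, hT⟩ := a6 x hx
    have b1 := a1 x hx N R H hT
    have b2 := (a2 x hx N R H hT).2
    have b3 := (a3 x hx).2
    have hPu := a8.1
    have hPv := a9.1
    have hYu := (a8.2 x hx).1
    have hYv := (a9.2 x hx).1
    have hd := fun a : ℝ => dpow_pos D.B n a
    set O := nm (cr N R)
    set σ := 3 - p.θ 1 - p.θ 2
    set t : ℝ := (v : ℝ) - u
    set Y := Ye D n u x * D.w 1 n u * PP D n u with hYdef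
    have hY : 0 < Y := by positivity
    have c1 : D.B.d n ^ (ε / 5) * (Ye D n u x * D.w 1 n u) * PP D n v ≤
        D.B.d n ^ (-(ε / 5)) * (Ye D n v x * D.w 1 n v) * PP D n u := by
      calc _ ≤ (O * PP D n u) * PP D n v := mul_le_mul_of_nonneg_right b1 hPv.le
        _ = (O * PP D n v) * PP D n u := by ring
        _ ≤ _ := mul_le_mul_of_nonneg_right b2 hPu.le
    have c2 : Ye D n v x * D.w 1 n v ≤ D.B.d n ^ (2 / 3 * σ * t - ε / 5) * Ye D n u x *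
        (D.B.d n ^ ((1 - p.θ 1) * t - ε / 5) * D.w 1 n u) :=
      mul_le_mul b3 a4.2 a11.le (mul_pos (hd _) hYu).le
    have c3 : D.B.d n ^ (ε / 5) * (Ye D n u x * D.w 1 n u) *
        (D.B.d n ^ (σ * t + ε / 5) * PP D n u) ≤
        D.B.d n ^ (-(ε / 5)) * (D.B.d n ^ (2 / 3 * σ * t - ε / 5) * Ye D n u x *
        (D.B.d n ^ ((1 - p.θ 1) * t - ε / 5) * D.w 1 n u)) * PP D n u := by
      calc _ ≤ D.B.d n ^ (ε / 5) * (Ye D n u x * D.w 1 n u) * PP D n v :=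
            mul_le_mul_of_nonneg_left a5.1 (mul_pos (hd _) (mul_pos hYu a10)).le
        _ ≤ _ := c1
        _ ≤ _ := mul_le_mul_of_nonneg_right (mul_le_mul_of_nonneg_left c2 (hd _).le) hPu.le
    have c4 : D.B.d n ^ (ε / 5 + (σ * t + ε / 5)) * Y ≤
        D.B.d n ^ (-(ε / 5) + (2 / 3 * σ * t - ε / 5) + ((1 - p.θ 1) * t - ε / 5)) * Y := by
      rw [dpow_add D.B n (-(ε / 5) + (2 / 3 * σ * t - ε / 5)),
        dpow_add D.B n (-(ε / 5)), dpow_add D.B n (ε / 5) (σ * t + ε / 5), hYdef]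
      calc _ = _ := by ring
        _ ≤ _ := c3
        _ = _ := by ring
    have c5 := pow_cancel hY c4
    rw [one_mul]
    have c6 := mul_le_mul_of_nonneg_left c5 (hd (3 * ε / 5)).le
    rw [← dpow_add, ← dpow_add] at c6
    refine le_trans (dpow_le D.B n (by linarith)) (c6.trans (dpow_le D.B n (by linarith)))
  have e : (1 - p.θ 1) * ((v : ℝ) - u) ≤ (3 - p.θ 1 - p.θ 2) / 3 * ((v : ℝ) - u) := by linarith
  exact le_of_mul_le_mul_right e ht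

/-- **`θ₂ = 2 θ₁`** if the lower bound by the wide width holds at two levels -/
theorem MPre.θ2 (h : MPre p D l r) {u v : ℚ} (hl : l < u) (huv : u < v) (hr : v ≤ r)
    (h1 : LowA D l u) (h2 : LowA D l v) : p.θ 2 = 2 * p.θ 1 := by
  have a := h.slope_ge hl huv hr h2
  have b := h.slope_le hl huv hr h1
  linarith

end

end Crest.Agent.R136.Us555
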