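import Crest.Agent.R136.StM4_555
import Crest.Agent.R136.StC_555

/-!
# R136 (S0187), U6 thin side (helper555): container data at all interior levels

`MPre.cont` : smallness of the non-model coefficients, canonical units and frame, from three heights.
-/

set_option autoImplicit false
set_option linter.unusedVariables false
set_option linter.unusedSectionVars false

open Finset Filter Topology

namespace Crest.Agent.R136.Us555

open Crest.Agent.R138.Ex926 (Base U exists_diag ev_em)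
open Crest.Agent.R138.Dp76
open Crest.Agent.R138.Mk163 (zc zl rho alive own Negl)
open Crest.Agent.R138.MkRef627 (mem_alive)
open Crest.Agent.R136.MkA627 Crest.Agent.R136.Sh605 Crest.Agent.R136.K4 Crest.Agent.R136.Top484
open Crest.Agent.R136.Tlt51 (mk4 zx rh Close)
open Crest.Agent.R136.KapP335 (kapP DetP kapP_eq)
open Crest.Agent.R136.GeoN778 (Qd Un)
open Crest.Agent.R136.Wit321 (Wq Wq.Sm)
open Crest.Agent.R136.Tl102 (QF Fq bz kap IsExp NrmC scB1)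
open Crest.Agent.R136.Thn768 (Tay cr Frm Cont ThinW Own Snd D3 nm exists_tay)

theorem _root_.Crest.Agent.R136.Wit321.Wq.Sm.mono {w : Wq} {η η' : ℝ} (h : w.Sm η) (hη : η ≤ η') :
    w.Sm η' :=
  ⟨h.γ.trans hη, h.ζ.trans hη, h.c1.trans hη, h.c2.trans hη, h.c3.trans hη, h.c4.trans hη,
    h.c5.trans hη⟩

theorem Cont_mono {S : Plk4} {T : Ln4} {z0 ρ : ℝ} {f : Fin 3 → V3} {u : Un} {Q : Qd} {η η' : ℝ}
    (h : Cont S T z0 ρ f u Q η) (hη : η ≤ η') : Cont S T z0 ρ f u Q η' :=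
  { h with
    sm := h.sm.mono hη
    YB := h.YB.trans (mul_le_mul_of_nonneg_right hη (h.ok.Y0.le.trans h.ok.YB))
    BA := h.BA.trans (mul_le_mul_of_nonneg_right hη ((h.ok.Y0.le.trans h.ok.YB).trans h.ok.BA)) }

theorem zl_le' (i : ℕ) (z : ℝ) : zl i (zc i z) ≤ z ∧ z ≤ zl i (zc i z) + rho i := by
  unfold zl zc rho
  have h1 := Int.floor_le ((2 : ℝ) ^ i * z)
  have h2 := (Int.lt_floor_add_one ((2 : ℝ) ^ i * z)).le
  have h3 : (0 : ℝ) < 2 ^ i := by positivity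
  constructor
  · rw [div_le_iff₀ h3]; linarith
  · rw [← add_div, le_div_iff₀ h3]; linarith

section

variable {D : Dat4} {n : ℕ} {v : ℚ} {x y : ℕ × ℝ}

theorem mk4_cell (h1 : y.1 = x.1) (h2 : zc (D.lev n v) y.2 = zc (D.lev n v) x.2) :
    mk4 D n v y = mk4 D n v x := by
  unfold mk4; rw [h1, h2]

theorem zx_cell (h2 : zc (D.lev n v) y.2 = zc (D.lev n v) x.2) : zx D n v y = zx D n v x := by
  unfold zx; rw [h2]

theorem Ye_cell (h1 : y.1 = x.1) (h2 : zc (D.lev n v) y.2 = zc (D.lev n v) x.2) :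
    Ye D n v y = Ye D n v x := by
  unfold Ye; rw [mk4_cell h1 h2, zx_cell h2, h1]

end

section

variable {p : Par4} {D : Dat4} {l r : ℚ}

/-- `d^c ≤ d^e / CM` -/
theorem ev_div (B : Base) {c e : ℝ} (h : e < c) : ∀ᶠ n in (U : Filter ℕ),
    B.d n ^ c ≤ B.d n ^ e / CM := by
  filter_upwards [small_mul B (K := CM) (ε := c - e) (by linarith)] with n hn
  rw [le_div_iff₀ CM_pos]
  calc B.d n ^ c * CM = (CM * B.d n ^ (c - e)) * B.d n ^ e := by
        rw [mul_assoc, ← dpow_add, mul_comm]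
        congr 2; ring
    _ ≤ 1 * B.d n ^ e := mul_le_mul_of_nonneg_right hn (dpow_pos B n _).le
    _ = _ := one_mul _

/-- **turning rate** -/
theorem MPre.turn (h : MPre p D l r) {a : ℚ} (ha : l < a) : ∃ c : ℝ, 0 < c ∧ ∀ v : ℚ,
    a ≤ v → v ≤ r → ∀ᶠ n in (U : Filter ℕ), ∀ x ∈ D.I n, ∀ N R H,
      Tay (mk4 D n v x).q (D.L n x.1) N R H → rh D n v * nm R ≤ D.B.d n ^ c := by
  obtain ⟨c, hc, hs⟩ := h.snd
  obtain ⟨hl0, hlr, hr1⟩ := h.lr
  have ha' : (l : ℝ) < a := by exact_mod_cast ha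
  set c1 : ℝ := min ((a : ℝ) - l) c with hc1
  have hc1p : 0 < c1 := lt_min (by linarith) hc
  refine ⟨c1 / 4, by positivity, fun v hav hvr => ?_⟩
  have hlv : l < v := ha.trans_le hav
  have hav' : (a : ℝ) ≤ v := by exact_mod_cast hav
  have hv0 : 0 ≤ v := hl0.trans hlv.le
  have hv1 : v ≤ 1 := hvr.trans hr1
  filter_upwards [h.own v hlv.le hvr 1 one_pos, h.own l le_rfl hlr.le 1 one_pos,
    hs l v le_rfl hlv hvr, h.tay_ref, (pw_rho h.mka).le l v hl0 hlv.le hv1 (c1 / 4) (by positivity),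
    ev_div D.B (c := c1 / 2) (e := c1 / 4) (by linarith),
    ev_div D.B (c := c1) (e := c1 / 2) (by linarith),
    small_mul D.B (K := CM * (CM + 1)) (ε := c1 / 4) (by positivity)]
    with n a1 a2 a3 a4 a5 a6 a7 a8 x hx N R H hT
  obtain ⟨b0, b1, G, O⟩ := a1 x hx
  obtain ⟨b0', b1', G', O'⟩ := a2 x hx
  obtain ⟨N', R', H', hT'⟩ := a4 x hx
  have S := a3 x hx b0 b1 G N' R' H' O.exp hT'
  have hρl : 0 < rh D n l := O'.hρ
  have hρv : 0 < rh D n v := O.hρ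
  have ht : ∀ i, |R' i| ≤ CM / rh D n l := by
    intro i
    rw [le_div_iff₀ hρl, mul_comm]
    exact own_turn O' hT' i
  have k1 := snd_R_le O S hT (dpow_pos D.B n c).le
    (Real.rpow_le_one (D.B.pos n).le (D.B.lt n).le hc.le) ht
  have k2 : rh D n v ≤ D.B.d n ^ (3 * c1 / 4) * rh D n l := by
    refine a5.2.trans (mul_le_mul_of_nonneg_right (dpow_le D.B n ?_) hρl.le)
    have : c1 ≤ (v : ℝ) - l := (min_le_left _ _).trans (by linarith)
    linarith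
  have k3 : rh D n v * (CM / rh D n l) ≤ CM * D.B.d n ^ (3 * c1 / 4) := by
    rw [mul_div_assoc', div_le_iff₀ hρl]
    calc rh D n v * CM ≤ (D.B.d n ^ (3 * c1 / 4) * rh D n l) * CM :=
          mul_le_mul_of_nonneg_right k2 CM_pos.le
      _ = _ := by ring
  have k4 : D.B.d n ^ c ≤ D.B.d n ^ (3 * c1 / 4) :=
    dpow_le D.B n (by have : c1 ≤ c := min_le_right _ _; linarith)
  have hd := dpow_pos D.B n (c1 / 4)
  have e3 : D.B.d n ^ (3 * c1 / 4) = D.B.d n ^ (c1 / 4) * D.B.d n ^ (c1 / 2) := by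
    rw [← dpow_add]; congr 1; ring
  have e4 : D.B.d n ^ (c1 / 2) ≤ D.B.d n ^ (c1 / 4) := dpow_le D.B n (by linarith)
  calc rh D n v * nm R ≤ CM * (rh D n v * (CM / rh D n l) + D.B.d n ^ c) := k1
    _ ≤ CM * (CM * D.B.d n ^ (3 * c1 / 4) + D.B.d n ^ (3 * c1 / 4)) :=
        mul_le_mul_of_nonneg_left (add_le_add k3 k4) CM_pos.le
    _ = CM * (CM + 1) * D.B.d n ^ (c1 / 4) * D.B.d n ^ (c1 / 2) := by rw [e3]; ring
    _ ≤ 1 * D.B.d n ^ (c1 / 2) :=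
        mul_le_mul_of_nonneg_right a8 (dpow_pos D.B n _).le
    _ ≤ D.B.d n ^ (c1 / 4) := by rw [one_mul]; exact e4

/-- ratio of two widths -/
theorem div_le_pow {B : Base} {X : ℕ → ℚ → ℝ} {s : ℝ} {n : ℕ} {u v : ℚ} {e : ℝ} (hu : 0 < X n u)
    (hv : 0 < X n v) (h : B.d n ^ e * X n u ≤ X n v) : X n u / X n v ≤ B.d n ^ (-e) := by
  rw [div_le_iff₀ hv]
  have := mul_le_mul_of_nonneg_left h (dpow_pos B n (-e)).le
  rw [← mul_assoc, ← dpow_add, neg_add_cancel, Real.rpow_zero, one_mul] at this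
  exact this

/-- **container data at all levels of `[a, b]`** -/
theorem MPre.cont (h : MPre p D l r) (hθ : p.θ 2 = 2 * p.θ 1) {a b s : ℚ} (ha : l < a)
    (hbs : b < s) (hsr : s ≤ r)
    (hsc : ∀ v : ℚ, a ≤ v → v ≤ s → ∀ ε : ℝ, 0 < ε → ∀ᶠ n in (U : Filter ℕ), ∀ x ∈ D.I n,
      ScB D n v ε x) :
    ∃ c : ℝ, 0 < c ∧ ∀ v : ℚ, a ≤ v → v ≤ b → ∀ ε : ℝ, 0 < ε → ∀ᶠ n in (U : Filter ℕ),
      ∀ x ∈ D.I n, ContAt D (D.B.d n ^ c) n v ε x := by
  obtain ⟨cs, hcs, hs⟩ := h.snd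
  obtain ⟨ct, hct, hturn⟩ := h.turn ha
  obtain ⟨cw, hcw, hrat⟩ := h.ratio ha (hbs.trans_le hsr)
  obtain ⟨hl0, hlr, hr1⟩ := h.lr
  have hbs' : (b : ℝ) < s := by exact_mod_cast hbs
  have hθ1 := h.θ1
  set ce : ℝ := p.θ 1 * ((s : ℝ) - b) / 4 with hce
  have hcep : 0 < ce := by rw [hce]; have : 0 < (s : ℝ) - b := by linarith
                           positivity
  set cm : ℝ := min ct cw with hcm
  set c1 : ℝ := min cm ce with hc1
  have hc1p : 0 < c1 := lt_min (lt_min hct hcw) hcep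
  refine ⟨c1 / 2, by positivity, fun v hav hvb ε hε => ?_⟩
  have hlv : l < v := ha.trans_le hav
  have hvs : v < s := hvb.trans_lt hbs
  have hvr : v ≤ r := hvs.le.trans hsr
  have hv0 : 0 ≤ v := hl0.trans hlv.le
  have hs1 : s ≤ 1 := hsr.trans hr1
  have hv1 : v ≤ 1 := hvs.le.trans hs1
  have hvb' : (v : ℝ) ≤ b := by exact_mod_cast hvb
  set ε1 : ℝ := min (ε / 16) (min (c1 / 128) (cs / 4)) with hε1
  have hε1p : 0 < ε1 := lt_min (by positivity) (lt_min (by positivity) (by positivity))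
  have g1 : ε1 ≤ ε / 16 := min_le_left _ _
  have g2 : ε1 ≤ c1 / 128 := (min_le_right _ _).trans (min_le_left _ _)
  have g3 : ε1 ≤ cs / 4 := (min_le_right _ _).trans (min_le_right _ _)
  have e3 : 0 < ce / 3 := by positivity
  filter_upwards [hrat v hav hvb, h.own v hlv.le hvr ε1 hε1p, h.own s (hlv.le.trans hvs.le) hsr ε1 hε1p,
    hs v s hlv.le hvs hsr, hturn v hav hvr, hsc v hav hvs.le ε1 hε1p,
    hsc s (hav.trans hvs.le) le_rfl ε1 hε1p,
    MkA.heights (s := 0) h.mka (by norm_num) v hv0 (hvs.trans_le hs1) 3 hε1p,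
    h.mark hv0 hv1, h.mark (hv0.trans hvs.le) hs1,
    h.ye hlv hvs.le hsr e3, (pw_wid h.mka 1).le v s hv0 hvs.le hs1 _ e3,
    (pw_wid h.mka 2).le v s hv0 hvs.le hs1 _ e3,
    ev_div D.B (c := cs) (e := ε1) (by linarith),
    ev_div D.B (c := 16 * ε1 + c1 / 2) (e := 16 * ε1) (by linarith),
    const_le D.B (2 * CN) (ε := c1 / 8) (by positivity),
    ev_div D.B (c := c1 / 2) (e := 0) (by positivity),
    small_mul D.B (K := CM) (ε := ε / 2) (by positivity)]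
    with n b0 b1 b2 b3 b4 b5 b6 b7 b8 b9 b10 b11 b12 b13 b14 b15 b16 b17 x hx
  have hd := fun e : ℝ => dpow_pos D.B n e
  obtain ⟨β0, β1, G, O⟩ := b1 x hx
  obtain ⟨s1, s2, s3, s4⟩ := b8.2 x hx
  obtain ⟨y, hy, hysep⟩ := b7 x hx
  obtain ⟨N, R, H, hT⟩ := exists_tay s1.isQ (D.L n x.1)
  have hYv : 0 < Ye D n v x := by rw [Ye_eq h O]; exact mul_pos (O.pos 0) O.k0
  -- the three deep marks
  have hO' : ∀ j, ∃ γ0 γ1 Γ, Own (mk4 D n s (y j)) (D.L n x.1) (zx D n s (y j)) (rh D n s)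
      (D.B.d n ^ ε1) γ0 γ1 Γ := by
    intro j
    have := b2 (y j) (hy j).1
    rwa [(hy j).2.1] at this
  choose γ0 γ1 Γ O' using hO'
  have hw' : ∀ j, (mk4 D n s (y j)).w 1 = D.w 1 n s ∧ (mk4 D n s (y j)).w 2 = D.w 2 n s :=
    fun j => ⟨(b9.2 (y j) (hy j).1).2.2.1, (b9.2 (y j) (hy j).1).2.2.2⟩
  have hS' : ∀ j, Snd (mk4 D n s (y j)) (D.L n x.1) (zx D n s (y j)) (rh D n s) (γ0 j) (γ1 j) (Γ j)
      (D.B.d n ^ cs) (mk4 D n v x).q N R H := by
    intro j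
    have k1 := b3 (y j) (hy j).1 (γ0 j) (γ1 j) (Γ j) N R H
    rw [(hy j).2.1, mk4_cell (hy j).2.1 (hy j).2.2] at k1
    exact k1 (O' j).exp hT
  have hYe' : ∀ j, (mk4 D n s (y j)).w 0 * kap (γ0 j) (γ1 j) (Γ j) ≤
      D.B.d n ^ (2 / 3 * (3 - p.θ 1 - p.θ 2) * ((s : ℝ) - v) - ce / 3) *
        ((mk4 D n v x).w 0 * kap β0 β1 G) := by
    intro j
    have k1 := (b10 (y j) (hy j).1).2
    rw [Ye_cell (hy j).2.1 (hy j).2.2, Ye_eq h O] at k1
    have k2 : Ye D n s (y j) = (mk4 D n s (y j)).w 0 * kap (γ0 j) (γ1 j) (Γ j) := by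
      unfold Ye
      rw [(hy j).2.1]
      exact kapP_eq ((O' j).pos 0).ne' (O' j).exp
    rwa [k2] at k1
  have hts : (s : ℝ) - b ≤ (s : ℝ) - v := by linarith
  have hce2 : ce ≤ p.θ 1 * ((s : ℝ) - v) / 4 := by
    rw [hce]
    have := mul_le_mul_of_nonneg_left hts hθ1.le
    linarith
  have hq1 : D.w 1 n v / D.w 1 n s ≤
      D.B.d n ^ (-((1 - p.θ 1) * ((s : ℝ) - v) + ce / 3)) :=
    div_le_pow (s := 0) b8.1.2.1 b9.1.2.1 b11.1
  have hq2 : D.w 2 n v / D.w 2 n s ≤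
      D.B.d n ^ (-((1 - p.θ 2) * ((s : ℝ) - v) + ce / 3)) :=
    div_le_pow (s := 0) b8.1.2.2 b9.1.2.2 b12.1
  have hq1n : 0 ≤ D.w 1 n v / D.w 1 n s := (div_pos b8.1.2.1 b9.1.2.1).le
  have hq2n : 0 ≤ D.w 2 n v / D.w 2 n s := (div_pos b8.1.2.2 b9.1.2.2).le
  have hK0 : 0 < (mk4 D n v x).w 0 * kap β0 β1 G := mul_pos (O.pos 0) O.k0
  -- exponents
  have E1 : ∀ j, (mk4 D n s (y j)).w 0 * kap (γ0 j) (γ1 j) (Γ j) *
      ((mk4 D n v x).w 2 / D.w 2 n s) ^ 2 ≤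
        D.B.d n ^ ce * ((mk4 D n v x).w 0 * kap β0 β1 G) := by
    intro j
    rw [s4]
    have k1 : (D.w 2 n v / D.w 2 n s) ^ 2 ≤
        D.B.d n ^ (2 * -((1 - p.θ 2) * ((s : ℝ) - v) + ce / 3)) := by
      have := pow_le_pow_left₀ hq2n hq2 2
      rw [← Real.rpow_natCast (D.B.d n ^ _), ← Real.rpow_mul (D.B.pos n).le] at this
      refine this.trans (le_of_eq ?_)
      congr 1; push_cast; ring
    calc _ ≤ (D.B.d n ^ (2 / 3 * (3 - p.θ 1 - p.θ 2) * ((s : ℝ) - v) - ce / 3) *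
            ((mk4 D n v x).w 0 * kap β0 β1 G)) *
            D.B.d n ^ (2 * -((1 - p.θ 2) * ((s : ℝ) - v) + ce / 3)) :=
          mul_le_mul (hYe' j) k1 (sq_nonneg _) (mul_pos (hd _) hK0).le
      _ = D.B.d n ^ ((2 / 3 * (3 - p.θ 1 - p.θ 2) * ((s : ℝ) - v) - ce / 3) +
            (2 * -((1 - p.θ 2) * ((s : ℝ) - v) + ce / 3))) *
            ((mk4 D n v x).w 0 * kap β0 β1 G) := by rw [dpow_add]; ring
      _ ≤ _ := by
          refine mul_le_mul_of_nonneg_right (dpow_le D.B n ?_) hK0.le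
          rw [hθ]
          linarith
  have E2 : ∀ j, (mk4 D n s (y j)).w 0 * kap (γ0 j) (γ1 j) (Γ j) *
      ((mk4 D n v x).w 1 * (mk4 D n v x).w 2 / (D.w 1 n s * D.w 2 n s)) ≤
        D.B.d n ^ ce * ((mk4 D n v x).w 0 * kap β0 β1 G) := by
    intro j
    rw [s3, s4, mul_div_mul_comm]
    have k1 : D.w 1 n v / D.w 1 n s * (D.w 2 n v / D.w 2 n s) ≤
        D.B.d n ^ (-((1 - p.θ 1) * ((s : ℝ) - v) + ce / 3)) *
          D.B.d n ^ (-((1 - p.θ 2) * ((s : ℝ) - v) + ce / 3)) :=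
      mul_le_mul hq1 hq2 hq2n (hd _).le
    calc _ ≤ (D.B.d n ^ (2 / 3 * (3 - p.θ 1 - p.θ 2) * ((s : ℝ) - v) - ce / 3) *
            ((mk4 D n v x).w 0 * kap β0 β1 G)) *
            (D.B.d n ^ (-((1 - p.θ 1) * ((s : ℝ) - v) + ce / 3)) *
              D.B.d n ^ (-((1 - p.θ 2) * ((s : ℝ) - v) + ce / 3))) :=
          mul_le_mul (hYe' j) k1 (mul_nonneg hq1n hq2n) (mul_pos (hd _) hK0).le
      _ = D.B.d n ^ ((2 / 3 * (3 - p.θ 1 - p.θ 2) * ((s : ℝ) - v) - ce / 3) +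
            (-((1 - p.θ 1) * ((s : ℝ) - v) + ce / 3) +
              -((1 - p.θ 2) * ((s : ℝ) - v) + ce / 3))) *
            ((mk4 D n v x).w 0 * kap β0 β1 G) := by
          rw [dpow_add, dpow_add D.B n (-((1 - p.θ 1) * ((s : ℝ) - v) + ce / 3))]; ring
      _ ≤ _ := by
          refine mul_le_mul_of_nonneg_right (dpow_le D.B n ?_) hK0.le
          rw [hθ]
          linarith
  -- smallness of the error
  have hpw : (D.B.d n ^ ε1 * D.B.d n ^ ε1) ^ 8 = D.B.d n ^ (16 * ε1) := by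
    rw [← dpow_add, ← Real.rpow_natCast, ← Real.rpow_mul (D.B.pos n).le]
    congr 1; push_cast; ring
  have hpw4 : (D.B.d n ^ ε1 * D.B.d n ^ ε1) ^ 4 = D.B.d n ^ (8 * ε1) := by
    rw [← dpow_add, ← Real.rpow_natCast, ← Real.rpow_mul (D.B.pos n).le]
    congr 1; push_cast; ring
  have hE : CN * ((D.B.d n ^ ε1 * D.B.d n ^ ε1) ^ 8)⁻¹ * (D.B.d n ^ cm + D.B.d n ^ ce) ≤
      D.B.d n ^ (c1 / 2) := by
    rw [hpw, ← Real.rpow_neg (D.B.pos n).le]
    have k1 : D.B.d n ^ cm + D.B.d n ^ ce ≤ 2 * D.B.d n ^ c1 := by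
      have := dpow_le D.B n (show c1 ≤ cm from min_le_left _ _)
      have := dpow_le D.B n (show c1 ≤ ce from min_le_right _ _)
      linarith
    calc _ ≤ CN * D.B.d n ^ (-(16 * ε1)) * (2 * D.B.d n ^ c1) :=
          mul_le_mul_of_nonneg_left k1 (mul_pos CN_pos (hd _)).le
      _ = (2 * CN) * D.B.d n ^ (-(16 * ε1) + c1) := by rw [dpow_add]; ring
      _ ≤ D.B.d n ^ (-(c1 / 8)) * D.B.d n ^ (-(16 * ε1) + c1) :=
          mul_le_mul_of_nonneg_right b15 (hd _).le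
      _ = D.B.d n ^ (-(c1 / 8) + (-(16 * ε1) + c1)) := (dpow_add _ _ _ _).symm
      _ ≤ _ := dpow_le D.B n (by linarith)
  have hδ1 : D.B.d n ^ ε1 ≤ 1 := Real.rpow_le_one (D.B.pos n).le (D.B.lt n).le hε1p.le
  have hX : D.B.d n ^ cs ≤ min (D.B.d n ^ ε1) (D.B.d n ^ ε1) / CM := by
    rw [min_self]; exact b13
  obtain ⟨f, u, Q, hC, hA1, hA2, hB1, hB2, hfr⟩ := cont_of5 O s1.isQ hT (hd ε1)
    hδ1 hδ1 (b5 x hx β0 β1 G O.exp) (hd cm).le (hd ce).le
    ((b4 x hx N R H hT).trans (dpow_le D.B n (min_le_left _ _)))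
    (by
      rw [s3, s4]
      exact b0.trans (mul_le_mul_of_nonneg_right (dpow_le D.B n (min_le_right _ _)) b8.1.2.1.le))
    hw' O' hS' (hd cs).le hX
    (fun j => b6 (y j) (hy j).1 (γ0 j) (γ1 j) (Γ j) (by rw [(hy j).2.1]; exact (O' j).exp))
    (z := fun j => (y j).2)
    (fun j => by
      have := zl_le' (D.lev n v) (y j).2
      rw [(hy j).2.2] at this
      exact this)
    (fun j => zl_le' (D.lev n s) (y j).2) hysep E1 E2
    (hE.trans (Real.rpow_le_one (D.B.pos n).le (D.B.lt n).le (by positivity)))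
  refine ⟨f, u, Q, Cont_mono hC hE, ?_, N, R, H, hT, hfr x.2 (zl_le' _ _).1 (zl_le' _ _).2⟩
  rw [hpw4] at hA1 hA2 hB1 hB2
  rw [s3] at hA1 hA2
  rw [s4] at hB1 hB2
  have up : ∀ W w : ℝ, 0 < w → W ≤ CM * (D.B.d n ^ (8 * ε1))⁻¹ * w → D.B.d n ^ ε * W ≤ w := by
    intro W w hw hW
    rw [← Real.rpow_neg (D.B.pos n).le] at hW
    calc D.B.d n ^ ε * W ≤ D.B.d n ^ ε * (CM * D.B.d n ^ (-(8 * ε1)) * w) :=
          mul_le_mul_of_nonneg_left hW (hd _).le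
      _ = CM * D.B.d n ^ (ε + -(8 * ε1)) * w := by rw [dpow_add]; ring
      _ ≤ CM * D.B.d n ^ (ε / 2) * w :=
          mul_le_mul_of_nonneg_right (mul_le_mul_of_nonneg_left (dpow_le D.B n (by linarith))
            CM_pos.le) hw.le
      _ ≤ 1 * w := mul_le_mul_of_nonneg_right b17 hw.le
      _ = w := one_mul _
  have lo : ∀ W w : ℝ, 0 < W → D.B.d n ^ (8 * ε1) / CM * w ≤ W → w ≤ D.B.d n ^ (-ε) * W := by
    intro W w hW hw
    have k1 : D.B.d n ^ (8 * ε1) * w ≤ CM * W := by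
      have := mul_le_mul_of_nonneg_left hw CM_pos.le
      have e : CM * (D.B.d n ^ (8 * ε1) / CM * w) = D.B.d n ^ (8 * ε1) * w := by
        have := CM_pos.ne'
        field_simp
      rwa [e] at this
    have k2 := mul_le_mul_of_nonneg_left k1 (hd (-(8 * ε1))).le
    rw [← mul_assoc, ← dpow_add, neg_add_cancel, Real.rpow_zero, one_mul] at k2
    calc w ≤ _ := k2
      _ = CM * D.B.d n ^ (ε / 2) * (D.B.d n ^ (-(8 * ε1) - ε / 2) * W) := by
          have : D.B.d n ^ (-(8 * ε1)) = D.B.d n ^ (ε / 2) * D.B.d n ^ (-(8 * ε1) - ε / 2) := by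
            rw [← dpow_add]; congr 1; ring
          rw [this]; ring
      _ ≤ 1 * (D.B.d n ^ (-(8 * ε1) - ε / 2) * W) :=
          mul_le_mul_of_nonneg_right b17 (mul_pos (hd _) hW).le
      _ ≤ _ := by
          rw [one_mul]
          exact mul_le_mul_of_nonneg_right (dpow_le D.B n (by linarith)) hW.le
  have hWB : 0 < u.WB := hC.ok.Y0.trans_le hC.ok.YB
  have hWA : 0 < u.WA := hWB.trans_le hC.ok.BA
  exact ⟨up _ _ b8.1.2.1 hA2, lo _ _ hWA hA1, up _ _ b8.1.2.2 hB2, lo _ _ hWB hB1⟩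

end

end Crest.Agent.R136.Us555
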