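import Crest.Agent.R136.StM5_555

/-!
# R136 (S0187), U6 thin side (helper555): `MPre` gives the window `ThinW`
-/

set_option autoImplicit false
set_option linter.unusedVariables false
set_option linter.unusedSectionVars false

open Finset Filter Topology

namespace Crest.Agent.R136.Us555

open Crest.Agent.R138.Ex926 (Base U exists_diag ev_em)
open Crest.Agent.R138.Dp76
open Crest.Agent.R138.Mk163 (zc zl rho alive own Negl)
open Crest.Agent.R136.MkA627 Crest.Agent.R136.Sh605 Crest.Agent.R136.K4 Crest.Agent.R136.Top484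
open Crest.Agent.R136.Tlt51 (mk4 zx rh Close)
open Crest.Agent.R136.KapP335 (kapP DetP kapP_eq)
open Crest.Agent.R136.Thn768 (Tay cr Frm Cont ThinW Own Snd D3 nm exists_tay)

/-- **macroscopic facts on a dense part** -/
theorem MPre.exists_mac {p : Par4} {D : Dat4} {l r : ℚ} (h : MPre p D l r) (hK : Kil D)
    (hw : Rng D.B D.wr D.cr D.w) :
    ∃ (J : ℕ → Finset (ℕ × ℝ)) (a b : ℚ), (∀ n, J n ⊆ D.I n) ∧ Dense D.B J D.I ∧
      Mac p { D with I := J } a b := by
  obtain ⟨hl0, hlr, hr1⟩ := h.lr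
  set a : ℚ := l + (r - l) / 4 with ha
  set b : ℚ := l + (r - l) / 2 with hb
  set s : ℚ := l + 3 * (r - l) / 4 with hs
  have hla : l < a := by rw [ha]; linarith
  have hab : a < b := by rw [ha, hb]; linarith
  have hbs : b < s := by rw [hb, hs]; linarith
  have hsr : s < r := by rw [hs]; linarith
  obtain ⟨J, hJI, hJd, hJ, hsc⟩ := h.exists_sc hK hla hsr
  have hθ : p.θ 2 = 2 * p.θ 1 :=
    hJ.θ2 hla (hab.trans hbs) hsr.le
      (hJ.lowA hla (hab.le.trans (hbs.le.trans hsr.le)) (hsc a le_rfl (hab.trans hbs).le))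
      (hJ.lowA (hla.trans (hab.trans hbs)) hsr.le (hsc s (hab.trans hbs).le le_rfl))
  obtain ⟨c, hc, hcont⟩ := hJ.cont hθ hla hbs hsr.le hsc
  refine ⟨J, a, b, hJI, hJd, ⟨⟨hl0.trans hla.le, hab, (hbs.le.trans hsr.le).trans hr1⟩, hJ.mka,
    hJ.vel, hJ.θ1, hθ, fun v h1 h2 ε hε => ?_, ?_, ?_, ⟨c, hc, hcont⟩, hw⟩⟩
  · filter_upwards [hJ.own v (hla.le.trans h1) (h2.trans (hbs.le.trans hsr.le)) ε hε]
      with n hn x hx
    obtain ⟨b0, b1, G, O⟩ := hn x hx
    exact O.det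
  · obtain ⟨c', hc', ht⟩ := hJ.thin
    refine ⟨c', hc', fun v h1 h2 => ?_⟩
    filter_upwards [ht v (hla.le.trans h1) (h2.trans (hbs.le.trans hsr.le)),
      hJ.own v (hla.le.trans h1) (h2.trans (hbs.le.trans hsr.le)) 1 one_pos] with n hn ho x hx
    obtain ⟨b0, b1, G, O⟩ := ho x hx
    refine ⟨?_, hn x hx⟩
    have := Ye_eq hJ O
    unfold Ye at this
    rw [this]
    exact (mul_pos (O.pos 0) O.k0).le
  · obtain ⟨C, hC, ht⟩ := hJ.tilt
    exact ⟨C, hC, fun u v h1 h2 h3 ε hε =>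
      ht u v (hla.le.trans h1) h2 (h3.trans (hbs.le.trans hsr.le)) ε hε⟩

/-- **the window of the thin branch** -/
theorem MPre.exists_thinW {p : Par4} {D : Dat4} {l r : ℚ} (h : MPre p D l r) (hK : Kil D)
    (hw : Rng D.B D.wr D.cr D.w) : ∃ D' : Dat4, ThinW p D' := by
  obtain ⟨J, a, b, -, -, hM⟩ := h.exists_mac hK hw
  exact thinW_of_mac hM

end Crest.Agent.R136.Us555
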