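import Crest.Agent.R136.StM3_555
import Crest.Agent.R136.Own_650
import Crest.Agent.R136.Tlt1_51

/-!
# R136 (S0187), U6 thin side (helper555): `MPre` from a marked sequence

`mPre_of` : `MkA` + persistence of the curvature on `[l, r]` + nondegeneracy + closeness of the marks
(`CloseC` half of `Tilt4C`) give `MPre p D l r` if `(C + |1 - θ₀|) (r - l) ≤ c / 8`.
-/

set_option autoImplicit false
set_option linter.unusedVariables false

open Finset Filter Topology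

namespace Crest.Agent.R136.Us555

open Crest.Agent.R138.Ex926 (Base U exists_diag ev_em)
open Crest.Agent.R138.Dp76
open Crest.Agent.R138.Mk163 (zc zl rho alive own Negl)
open Crest.Agent.R138.MkRef627 (mem_alive)
open Crest.Agent.R136.MkA627 Crest.Agent.R136.Sh605 Crest.Agent.R136.K4 Crest.Agent.R136.Top484
open Crest.Agent.R136.Tlt51 (mk4 zx rh Close Shp InP TiltOKC Tilt4C NonDeg)
open Crest.Agent.R136.Deep51 (CloseC)
open Crest.Agent.R136.KapP335 (kapP DetP kapP_eq DetP.mono detP_iff)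
open Crest.Agent.R136.Tl102 (QF Fq bz kap IsExp NrmC scB1 StP)

open Crest.Agent.R136.TL650 (kap_pos_of_det own_of snd_of_close)
open Crest.Agent.R136.Thn768 (Tay cr Own Snd exists_tay)

/-- a subcell lies inside its cell -/
theorem sub_cell' {i j : ℕ} (h : i ≤ j) (z : ℝ) : zl i (zc i z) ≤ zl j (zc j z) ∧
    zl j (zc j z) + rho j ≤ zl i (zc i z) + rho i := by
  obtain ⟨k, rfl⟩ := Nat.exists_eq_add_of_le h
  have p1 : (0 : ℝ) < 2 ^ i := by positivity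
  have p2 : (0 : ℝ) < 2 ^ k := by positivity
  have f1 : (zc i z : ℝ) ≤ 2 ^ i * z := Int.floor_le _
  have f2 : (2 : ℝ) ^ i * z < zc i z + 1 := Int.lt_floor_add_one _
  have a1 : zc i z * 2 ^ k ≤ zc (i + k) z := by
    unfold zc
    rw [Int.le_floor]
    push_cast
    rw [pow_add]
    have := mul_le_mul_of_nonneg_right f1 p2.le
    unfold zc at this
    linarith
  have a2 : zc (i + k) z < (zc i z + 1) * 2 ^ k := by
    have : ((zc (i + k) z : ℤ) : ℝ) < (((zc i z + 1) * 2 ^ k : ℤ) : ℝ) := by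
      have h1 : ((zc (i + k) z : ℤ) : ℝ) ≤ 2 ^ (i + k) * z := Int.floor_le _
      push_cast
      rw [pow_add] at h1
      have := mul_lt_mul_of_pos_right f2 p2
      linarith
    exact_mod_cast this
  have h4 : (zc i z : ℝ) * 2 ^ k ≤ zc (i + k) z := by exact_mod_cast a1
  have h5 : (zc (i + k) z : ℝ) + 1 ≤ (zc i z + 1) * 2 ^ k := by
    have : zc (i + k) z + 1 ≤ (zc i z + 1) * 2 ^ k := by omega
    exact_mod_cast this
  unfold zl rho
  constructor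
  · rw [pow_add, div_le_div_iff₀ p1 (by positivity)]
    nlinarith
  · rw [← add_div, ← add_div, pow_add, div_le_div_iff₀ (by positivity) p1]
    nlinarith

/-- own expansion of a nondegenerate mark, for a given expansion -/
theorem own_exp {S : Plk4} {T : Ln4} {z0 ρ r δ : ℝ} (hS : Shp S z0 ρ r) (hr : 0 < r)
    (hT : InP T S z0 ρ) (hρ : 0 < ρ) (hδ : 0 < δ) (hdet : DetP δ S z0 ρ T) {b0 b1 : V3} {G : QF}
    (hx : IsExp S.q S.e S.w T z0 ρ b0 b1 G) : Own S T z0 ρ δ b0 b1 G := by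
  have hw0 : 0 < S.w 0 := (hr.trans_le hS.r0_le).trans_le hS.a_le0
  have P : StP S.e S.c S.w S.q z0 ρ := StP.of_shN hS hw0
  have N : NrmC b0 b1 G := hx.nrmC P hρ.le (fun z h1 h2 => (hT z h1 h2).1)
  have hd := (detP_iff hw0.ne' hx δ).1 hdet 0 le_rfl zero_le_one
  exact ⟨P.ortho, P.pos, hS.w0_le, hS.w_le, hρ, hx, N, kap_pos_of_det hδ hd, hδ, hdet⟩

section

variable {p : Par4} {D : Dat4}

/-- the marks of the data -/
theorem marks_M (h : MkA D.B D.I (D.G p) D.lev D.A (fun v => p.g * v) (fun v => 0 * v)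
      (fun j v => p.θ j * (1 - v)) D.f D.b D.vm D.w) {v : ℚ} (h0 : 0 ≤ v) (h1 : v ≤ 1) :
    ∀ᶠ n in (U : Filter ℕ), 0 < D.w 0 n v ∧ ∀ x ∈ D.I n,
      Shp (mk4 D n v x) (zx D n v x) (rh D n v) (D.r0 n) ∧
      InP (D.L n x.1) (mk4 D n v x) (zx D n v x) (rh D n v) ∧
      (mk4 D n v x).a = D.w 0 n v := by
  filter_upwards [h.mark v h0 h1, h.wpos 0 v h0 h1] with n a1 a2
  refine ⟨a2, fun x hx => ?_⟩
  obtain ⟨m1, m2, m3, m4⟩ := a1 (zc (D.lev n v) x.2) x.1 (mem_alive.2 ⟨x, hx, rfl, rfl⟩)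
  exact ⟨m2.1, m1, m4 0⟩

/-- **`MPre` from a marked sequence** -/
theorem mPre_of (hM : MkA D.B D.I (D.G p) D.lev D.A (fun v => p.g * v) (fun v => 0 * v)
      (fun j v => p.θ j * (1 - v)) D.f D.b D.vm D.w) (hr0 : ∀ n, 0 < D.r0 n)
    (hvel : ∀ᶠ n in (U : Filter ℕ), ∀ x ∈ D.I n, ∀ i, |(D.L n x.1).v i| ≤ 1)
    (hθ1 : 0 < p.θ 1) {l r : ℚ} (hl : 0 ≤ l) (hlr : l < r) (hr : r ≤ 1) {C c : ℝ}
    (hC : 0 ≤ C) (hc : 0 < c) (hs : (C + |1 - p.θ 0|) * ((r : ℝ) - l) ≤ c / 8)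
    (hP : ∀ v : ℚ, l ≤ v → v ≤ r → ∀ᶠ n in (U : Filter ℕ), ∀ x ∈ D.I n,
      (mk4 D n v x).a ≤ D.B.d n ^ c * kapP (mk4 D n v x) (zx D n v x) (rh D n v) (D.L n x.1))
    (hT : ∀ u v : ℚ, 0 ≤ u → u < v → v ≤ 1 → ∀ ε : ℝ, 0 < ε → ∀ᶠ n in (U : Filter ℕ), ∀ x ∈ D.I n,
      D.B.d n ^ (-(C * ((v : ℝ) - u)) - ε) * max (D.w 0 n u) (D.w 0 n v) ≤
        max (kapP (mk4 D n v x) (zx D n v x) (rh D n v) (D.L n x.1))
          (kapP (mk4 D n u x) (zx D n u x) (rh D n u) (D.L n x.1)) →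
      Close (D.B.d n ^ (-(C * ((v : ℝ) - u)) - ε) * max (D.w 0 n u) (D.w 0 n v))
        (mk4 D n v x) (mk4 D n u x) (D.L n x.1) (zx D n v x) (rh D n v))
    (hD : ∀ v : ℚ, 0 ≤ v → v ≤ 1 → ∀ ε : ℝ, 0 < ε → ∀ᶠ n in (U : Filter ℕ), ∀ x ∈ D.I n,
      D.B.d n ^ (-ε) * (mk4 D n v x).a <
        kapP (mk4 D n v x) (zx D n v x) (rh D n v) (D.L n x.1) →
      DetP (D.B.d n ^ ε) (mk4 D n v x) (zx D n v x) (rh D n v) (D.L n x.1)) : MPre p D l r := by
  -- exponents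
  have hab : ∀ u v : ℚ, l ≤ u → v ≤ r → u < v →
      C * ((v : ℝ) - u) ≤ c / 8 ∧ (1 - p.θ 0) * ((v : ℝ) - u) ≤ c / 8 ∧
        -(c / 8) ≤ (1 - p.θ 0) * ((v : ℝ) - u) := by
    intro u v h0 h1 h2
    have e0 : (l : ℝ) ≤ u := by exact_mod_cast h0
    have e1 : (v : ℝ) ≤ r := by exact_mod_cast h1
    have e2 : (u : ℝ) < v := by exact_mod_cast h2
    have k0 := abs_nonneg (1 - p.θ 0)
    have k1 := le_abs_self (1 - p.θ 0)
    have k2 := neg_abs_le (1 - p.θ 0)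
    have k3 : (v : ℝ) - u ≤ (r : ℝ) - l := by linarith
    have k4 : 0 < (v : ℝ) - u := by linarith
    have k5 : (C + |1 - p.θ 0|) * ((v : ℝ) - u) ≤ c / 8 :=
      (mul_le_mul_of_nonneg_left k3 (by positivity)).trans hs
    have k6 : 0 ≤ C * ((v : ℝ) - u) := by positivity
    have k7 : 0 ≤ |1 - p.θ 0| * ((v : ℝ) - u) := by positivity
    have k8 := mul_le_mul_of_nonneg_right k1 k4.le
    have k9 := mul_le_mul_of_nonneg_right k2 k4.le
    refine ⟨?_, ?_, ?_⟩ <;> linarith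
  -- positivity of the curvature extent and nondegeneracy
  have hYp : ∀ v : ℚ, l ≤ v → v ≤ r → ∀ᶠ n in (U : Filter ℕ), ∀ x ∈ D.I n,
      0 < kapP (mk4 D n v x) (zx D n v x) (rh D n v) (D.L n x.1) := by
    intro v h0 h1
    filter_upwards [marks_M hM (hl.trans h0) (h1.trans hr), hP v h0 h1] with n a1 a2 x hx
    have k1 := a2 x hx
    rw [(a1.2 x hx).2.2] at k1
    have k2 := a1.1.trans_le k1
    exact (mul_pos_iff_of_pos_left (dpow_pos D.B n c)).1 k2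
  have hdet : ∀ v : ℚ, l ≤ v → v ≤ r → ∀ ε : ℝ, 0 < ε → ∀ᶠ n in (U : Filter ℕ), ∀ x ∈ D.I n,
      DetP (D.B.d n ^ ε) (mk4 D n v x) (zx D n v x) (rh D n v) (D.L n x.1) := by
    intro v h0 h1 ε hε
    set ε' : ℝ := min ε (c / 2) with hε'
    have e1 : 0 < ε' := lt_min hε (by positivity)
    have e2 : ε' ≤ ε := min_le_left _ _
    have e3 : ε' ≤ c / 2 := min_le_right _ _
    filter_upwards [hD v (hl.trans h0) (h1.trans hr) ε' e1, hP v h0 h1, hYp v h0 h1]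
      with n a1 a2 a3 x hx
    refine (a1 x hx ?_).mono (dpow_le D.B n e2)
    have k1 := a2 x hx
    have k2 := a3 x hx
    calc D.B.d n ^ (-ε') * (mk4 D n v x).a ≤ D.B.d n ^ (-ε') *
          (D.B.d n ^ c * kapP (mk4 D n v x) (zx D n v x) (rh D n v) (D.L n x.1)) :=
          mul_le_mul_of_nonneg_left k1 (dpow_pos D.B n _).le
      _ = D.B.d n ^ (-ε' + c) * kapP (mk4 D n v x) (zx D n v x) (rh D n v) (D.L n x.1) := by
          rw [← mul_assoc, ← dpow_add]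
      _ < 1 * kapP (mk4 D n v x) (zx D n v x) (rh D n v) (D.L n x.1) := by
          refine mul_lt_mul_of_pos_right ?_ k2
          exact Real.rpow_lt_one (D.B.pos n).le (D.B.lt n) (by linarith)
      _ = _ := one_mul _
  have hown : ∀ v : ℚ, l ≤ v → v ≤ r → ∀ ε : ℝ, 0 < ε → ∀ᶠ n in (U : Filter ℕ), ∀ x ∈ D.I n,
      ∀ b0 b1 G, IsExp (mk4 D n v x).q (mk4 D n v x).e (mk4 D n v x).w (D.L n x.1) (zx D n v x)
        (rh D n v) b0 b1 G →
        Own (mk4 D n v x) (D.L n x.1) (zx D n v x) (rh D n v) (D.B.d n ^ ε) b0 b1 G := by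
    intro v h0 h1 ε hε
    filter_upwards [marks_M hM (hl.trans h0) (h1.trans hr), hdet v h0 h1 ε hε]
      with n a1 a2 x hx b0 b1 G hE
    obtain ⟨s1, s2, s3⟩ := a1.2 x hx
    exact own_exp s1 (hr0 n) s2 (rho_pos' _) (dpow_pos D.B n ε) (a2 x hx) hE
  -- size of the error
  have hsz : ∀ u v : ℚ, l ≤ u → u < v → v ≤ r → ∀ ε : ℝ, 0 < ε → ε ≤ c / 8 →
      ∀ᶠ n in (U : Filter ℕ), ∀ x ∈ D.I n,
        D.B.d n ^ (-(C * ((v : ℝ) - u)) - ε) * max (D.w 0 n u) (D.w 0 n v) ≤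
          D.B.d n ^ (c / 2) * kapP (mk4 D n v x) (zx D n v x) (rh D n v) (D.L n x.1) := by
    intro u v h0 huv h1 ε hε hε2
    have hv0 : 0 ≤ v := hl.trans (h0.trans huv.le)
    have e8 : 0 < c / 8 := by positivity
    filter_upwards [marks_M hM hv0 (h1.trans hr), hP v (h0.trans huv.le) h1,
      (pw_wid hM 0).le u v (hl.trans h0) huv.le (h1.trans hr) _ e8,
      hM.wpos 0 u (hl.trans h0) ((huv.le.trans h1).trans hr)] with n a1 a2 a3 a4 x hx
    have hd := fun a : ℝ => dpow_pos D.B n a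
    obtain ⟨s1, s2, s3⟩ := a1.2 x hx
    have k1 := a2 x hx
    rw [s3] at k1
    obtain ⟨i1, i2, i3⟩ := hab u v h0 h1 huv
    have k2 : D.w 0 n u ≤ D.B.d n ^ (-(c / 4)) * D.w 0 n v := by
      have := mul_le_mul_of_nonneg_left a3.1
        (hd (-((1 - p.θ 0) * ((v : ℝ) - u) + c / 8))).le
      rw [← mul_assoc, ← dpow_add, neg_add_cancel, Real.rpow_zero, one_mul] at this
      exact this.trans (mul_le_mul_of_nonneg_right (dpow_le D.B n (by linarith)) a1.1.le)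
    have k3 : D.w 0 n v ≤ D.B.d n ^ (-(c / 4)) * D.w 0 n v := by
      have : (1 : ℝ) ≤ D.B.d n ^ (-(c / 4)) := by
        have := dpow_le D.B n (a := -(c / 4)) (b := 0) (by linarith)
        rwa [Real.rpow_zero] at this
      nlinarith [a1.1]
    have k4 : max (D.w 0 n u) (D.w 0 n v) ≤ D.B.d n ^ (-(c / 4)) * (D.B.d n ^ c *
        kapP (mk4 D n v x) (zx D n v x) (rh D n v) (D.L n x.1)) :=
      (max_le k2 k3).trans (mul_le_mul_of_nonneg_left k1 (hd _).le)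
    have hK : 0 ≤ kapP (mk4 D n v x) (zx D n v x) (rh D n v) (D.L n x.1) := by
      have := a1.1.trans_le k1
      exact ((mul_pos_iff_of_pos_left (dpow_pos D.B n c)).1 this).le
    calc _ ≤ D.B.d n ^ (-(C * ((v : ℝ) - u)) - ε) * (D.B.d n ^ (-(c / 4)) * (D.B.d n ^ c *
          kapP (mk4 D n v x) (zx D n v x) (rh D n v) (D.L n x.1))) :=
          mul_le_mul_of_nonneg_left k4 (hd _).le
      _ = D.B.d n ^ (-(C * ((v : ℝ) - u)) - ε + -(c / 4) + c) *
          kapP (mk4 D n v x) (zx D n v x) (rh D n v) (D.L n x.1) := by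
          rw [dpow_add, dpow_add]; ring
      _ ≤ _ := mul_le_mul_of_nonneg_right (dpow_le D.B n (by linarith)) hK
  -- closeness
  have hcl : ∀ u v : ℚ, l ≤ u → u < v → v ≤ r → ∀ ε : ℝ, 0 < ε → ε ≤ c / 8 →
      ∀ᶠ n in (U : Filter ℕ), ∀ x ∈ D.I n,
        Close (D.B.d n ^ (-(C * ((v : ℝ) - u)) - ε) * max (D.w 0 n u) (D.w 0 n v))
          (mk4 D n v x) (mk4 D n u x) (D.L n x.1) (zx D n v x) (rh D n v) := by
    intro u v h0 huv h1 ε hε hε2
    filter_upwards [hsz u v h0 huv h1 ε hε hε2, hYp v (h0.trans huv.le) h1,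
      hT u v (hl.trans h0) huv (h1.trans hr) ε hε] with n a1 a2 a3 x hx
    refine a3 x hx ((a1 x hx).trans (le_trans ?_ (le_max_left _ _)))
    have k1 := a2 x hx
    have k2 : D.B.d n ^ (c / 2) ≤ 1 :=
      Real.rpow_le_one (D.B.pos n).le (D.B.lt n).le (by positivity)
    nlinarith
  refine ⟨⟨hl, hlr, hr⟩, hM, hvel, hθ1, fun v h0 h1 ε hε => ?_, ⟨c, hc, hP⟩,
    ⟨C, hC, fun u v h0 huv h1 ε hε => ?_⟩, ⟨c / 8, by positivity, fun u v h0 huv h1 => ?_⟩⟩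
  · filter_upwards [marks_M hM (hl.trans h0) (h1.trans hr), hdet v h0 h1 ε hε]
      with n a1 a2 x hx
    obtain ⟨s1, s2, s3⟩ := a1.2 x hx
    exact own_of s1 (hr0 n) s2 (rho_pos' _) (dpow_pos D.B n ε) (a2 x hx)
  · have e1 : 0 < min ε (c / 8) := lt_min hε (by positivity)
    filter_upwards [hcl u v h0 huv h1 _ e1 (min_le_right _ _),
      hM.wpos 0 u (hl.trans h0) ((huv.le.trans h1).trans hr)] with n a1 a2 x hx
    refine Close_mono ?_ (a1 x hx)
    refine mul_le_mul_of_nonneg_right (dpow_le D.B n ?_) (a2.le.trans (le_max_left _ _))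
    have := min_le_left ε (c / 8)
    linarith
  · have hv0 : 0 ≤ v := hl.trans (h0.trans huv.le)
    have hv1 : v ≤ 1 := h1.trans hr
    have hu0 : 0 ≤ u := hl.trans h0
    have hu1 : u ≤ 1 := huv.le.trans hv1
    filter_upwards [marks_M hM hv0 hv1, marks_M hM hu0 hu1,
      hcl u v h0 huv h1 (c / 8) (by positivity) le_rfl,
      hsz u v h0 huv h1 (c / 8) (by positivity) le_rfl, hYp v (h0.trans huv.le) h1,
      hown v (h0.trans huv.le) h1 (c / 64) (by positivity), hM.lev_mono u v hu0 huv.le hv1,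
      small_mul D.B (K := 10 ^ 20) (ε := 3 * c / 8) (by positivity),
      small_mul D.B (K := 10 ^ 19) (ε := c / 4) (by positivity)]
      with n a1 a2 a3 a4 a5 a6 a7 a8 a9 x hx b0 b1 G N R H hE hT
    have hd := fun a : ℝ => dpow_pos D.B n a
    obtain ⟨s1, s2, s3⟩ := a1.2 x hx
    obtain ⟨t1, t2, t3⟩ := a2.2 x hx
    have O := a6 x hx b0 b1 G hE
    have hY : kapP (mk4 D n v x) (zx D n v x) (rh D n v) (D.L n x.1) =
      (mk4 D n v x).w 0 * kap b0 b1 G := kapP_eq (O.pos 0).ne' hE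
    have hY0 := a5 x hx
    have hcell := sub_cell' a7 x.2
    have p8 : (D.B.d n ^ (c / 64)) ^ 8 = D.B.d n ^ (c / 8) := by
      rw [← Real.rpow_natCast, ← Real.rpow_mul (D.B.pos n).le]
      congr 1; push_cast; ring
    have hw0' : 0 < (mk4 D n u x).w 0 := ((hr0 n).trans_le t1.r0_le).trans_le t1.a_le0
    have k0 := a4 x hx
    rw [hY] at k0 hY0
    have hsm : 10 ^ 20 * (D.B.d n ^ (-(C * ((v : ℝ) - u)) - c / 8) *
        max (D.w 0 n u) (D.w 0 n v)) ≤ (D.B.d n ^ (c / 64)) ^ 8 *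
          ((mk4 D n v x).w 0 * kap b0 b1 G) := by
      rw [p8]
      have e1 : D.B.d n ^ (c / 2) = D.B.d n ^ (3 * c / 8) * D.B.d n ^ (c / 8) := by
        rw [← dpow_add]; congr 1; ring
      calc _ ≤ 10 ^ 20 * (D.B.d n ^ (c / 2) * ((mk4 D n v x).w 0 * kap b0 b1 G)) :=
            mul_le_mul_of_nonneg_left k0 (by norm_num)
        _ = (10 ^ 20 * D.B.d n ^ (3 * c / 8)) *
            (D.B.d n ^ (c / 8) * ((mk4 D n v x).w 0 * kap b0 b1 G)) := by rw [e1]; ring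
        _ ≤ 1 * (D.B.d n ^ (c / 8) * ((mk4 D n v x).w 0 * kap b0 b1 G)) :=
            mul_le_mul_of_nonneg_right a8 (mul_pos (hd _) hY0).le
        _ = _ := one_mul _
    obtain ⟨N', R', H', hS⟩ := snd_of_close O s1 s2 t1 hw0' hcell.1 hcell.2 t2 (a3 x hx) hsm
    obtain ⟨b0', b1', G', hE', m1, m2, hO⟩ := hS.ex
    have hX : 10 ^ 19 * (D.B.d n ^ (-(C * ((v : ℝ) - u)) - c / 8) *
        max (D.w 0 n u) (D.w 0 n v)) / (D.B.d n ^ (c / 64)) ^ 8 /
          ((mk4 D n v x).w 0 * kap b0 b1 G) ≤ D.B.d n ^ (c / 8) := by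
      rw [div_le_iff₀ hY0, div_le_iff₀ (by rw [p8]; exact hd _), p8]
      have e1 : D.B.d n ^ (c / 2) = D.B.d n ^ (c / 4) * D.B.d n ^ (c / 8) * D.B.d n ^ (c / 8) := by
        rw [← dpow_add, ← dpow_add]; congr 1; ring
      calc _ ≤ 10 ^ 19 * (D.B.d n ^ (c / 2) * ((mk4 D n v x).w 0 * kap b0 b1 G)) :=
            mul_le_mul_of_nonneg_left k0 (by norm_num)
        _ = (10 ^ 19 * D.B.d n ^ (c / 4)) * (D.B.d n ^ (c / 8) *
            ((mk4 D n v x).w 0 * kap b0 b1 G) * D.B.d n ^ (c / 8)) := by rw [e1]; ring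
        _ ≤ 1 * (D.B.d n ^ (c / 8) *
            ((mk4 D n v x).w 0 * kap b0 b1 G) * D.B.d n ^ (c / 8)) :=
            mul_le_mul_of_nonneg_right a9 (mul_pos (mul_pos (hd _) hY0) (hd _)).le
        _ = _ := one_mul _
    exact ⟨hT, b0', b1', G', hE', m1, m2, hO.mono hX hX hX⟩

end

end Crest.Agent.R136.Us555
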