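import Crest.Agent.R136.StM6_555
import Crest.Agent.R136.StM7_555
import Crest.Agent.R136.Prs5_262

/-!
# R136 (S0187), U6 thin side (helper555): the window `ThinW` from a marked sequence

* `mka_avoid`, `mka_good` : dense marked parts which avoid negligible sets (`MkA` only);
* **`exists_thinW_core`** : curved marks at one level + tilt of curved pairs + nondegeneracy ⊢ `ThinW`
  (persistence and helper327's lemma as hypotheses);
* **`exists_thinW`** : the same over `J1`, persistence = `Prs262.persistC`.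
-/

set_option autoImplicit false
set_option linter.unusedVariables false

open Finset Filter Topology

namespace Crest.Agent.R136.Us555

open Crest.Agent.R138.Ex926 (Base U exists_diag ev_em)
open Crest.Agent.R138.Dp76
open Crest.Agent.R138.Mk163 (zc zl rho alive own Negl)
open Crest.Agent.R138.NatTw76 (exists_avoid)
open Crest.Agent.R136.MkA627 Crest.Agent.R136.Sh605 Crest.Agent.R136.K4 Crest.Agent.R136.Top484
open Crest.Agent.R136.Tlt51 (mk4 zx rh Close TiltOKC Tilt4C NonDeg)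
open Crest.Agent.R136.KapP335 (kapP DetP DetP.mono)
open Crest.Agent.R136.Thn768 (ThinW)

section

variable {σ κ : Type*} {B : Base} {I : ℕ → Finset (ℕ × ℝ)} {G : Geo σ κ} {lev : ℕ → ℚ → ℕ}
    {A : ℕ → ℝ} {c Λ : ℝ → ℝ} {τ : κ → ℝ → ℝ} {f : ℕ → ℚ → ℕ → ℤ → ℕ} {b : ℕ → ℚ → ℕ → σ}
    {vm : ℕ → ℚ → ℝ} {w : κ → ℕ → ℚ → ℝ}

/-- **a dense marked part avoids countably many negligible sets** -/
theorem mka_avoid {ι : Type*} [Countable ι] (h : MkA B I G lev A c Λ τ f b vm w)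
    (N : ι → ℕ → ℕ × ℝ → Prop) (hN : ∀ k, Negl B I (N k)) :
    ∃ J : ℕ → Finset (ℕ × ℝ), (∀ n, J n ⊆ I n) ∧ Dense B J I ∧
      MkA B J G lev A c Λ τ f b vm w ∧ ∀ k, ∀ᶠ n in (U : Filter ℕ), ∀ x ∈ J n, ¬ N k n x := by
  classical
  rcases isEmpty_or_nonempty ι with hι | hι
  · exact ⟨I, fun n => Finset.Subset.refl _, Dense.refl B I, h, fun k => (hι.false k).elim⟩
  obtain ⟨en, hen⟩ := exists_surjective_nat ι
  obtain ⟨J0, h1, h2, h3⟩ := exists_avoid (B := B) (I := I) (fun k => N (en k)) fun k => hN (en k)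
  obtain ⟨J, h4, h5, -, h6⟩ := MkA.refine' h h2
  refine ⟨J, fun n => (h4 n).trans (h1 n), h5.trans h2, h6, fun k => ?_⟩
  obtain ⟨j, rfl⟩ := hen k
  filter_upwards [h3 j] with n hn x hx using hn x (h4 n hx)

/-- **two-level and one-level statements for all incidences of a dense part** -/
theorem mka_good (h : MkA B I G lev A c Λ τ f b vm w) {T : ℚ → ℚ → ℝ → ℕ → ℕ × ℝ → Prop}
    {S : ℚ → ℝ → ℕ → ℕ × ℝ → Prop}
    (hTm : ∀ u v : ℚ, 0 ≤ u → u < v → v ≤ 1 → ∀ ε ε' : ℝ, 0 < ε → ε ≤ ε' →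
      ∀ᶠ n in (U : Filter ℕ), ∀ x ∈ I n, T u v ε n x → T u v ε' n x)
    (hT : ∀ u v : ℚ, 0 ≤ u → u < v → v ≤ 1 → ∀ ε : ℝ, 0 < ε → Negl B I fun n x => ¬ T u v ε n x)
    (hSm : ∀ v : ℚ, 0 ≤ v → v ≤ 1 → ∀ ε ε' : ℝ, 0 < ε → ε ≤ ε' →
      ∀ᶠ n in (U : Filter ℕ), ∀ x ∈ I n, S v ε n x → S v ε' n x)
    (hS : ∀ v : ℚ, 0 ≤ v → v ≤ 1 → ∀ ε : ℝ, 0 < ε → Negl B I fun n x => ¬ S v ε n x) :
    ∃ J : ℕ → Finset (ℕ × ℝ), (∀ n, J n ⊆ I n) ∧ Dense B J I ∧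
      MkA B J G lev A c Λ τ f b vm w ∧
      (∀ u v : ℚ, 0 ≤ u → u < v → v ≤ 1 → ∀ ε : ℝ, 0 < ε →
        ∀ᶠ n in (U : Filter ℕ), ∀ x ∈ J n, T u v ε n x) ∧
      ∀ v : ℚ, 0 ≤ v → v ≤ 1 → ∀ ε : ℝ, 0 < ε → ∀ᶠ n in (U : Filter ℕ), ∀ x ∈ J n, S v ε n x := by
  obtain ⟨J, h1, h2, h3, h4⟩ := mka_avoid h (ι := (ℚ × ℚ × ℕ) ⊕ (ℚ × ℕ))
    (fun k n x => match k with
      | Sum.inl (u, v, K) => (0 ≤ u ∧ u < v ∧ v ≤ 1) ∧ ¬ T u v (1 / ((K : ℝ) + 1)) n x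
      | Sum.inr (v, K) => (0 ≤ v ∧ v ≤ 1) ∧ ¬ S v (1 / ((K : ℝ) + 1)) n x) (by
    rintro (⟨u, v, K⟩ | ⟨v, K⟩)
    · by_cases hc : 0 ≤ u ∧ u < v ∧ v ≤ 1
      · exact (hT u v hc.1 hc.2.1 hc.2.2 (1 / ((K : ℝ) + 1)) (by positivity)).mono
          (Eventually.of_forall fun n x _ hx => hx.2)
      · exact Negl.false.mono (Eventually.of_forall fun n x _ hx => hc hx.1)
    · by_cases hc : 0 ≤ v ∧ v ≤ 1
      · exact (hS v hc.1 hc.2 (1 / ((K : ℝ) + 1)) (by positivity)).mono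
          (Eventually.of_forall fun n x _ hx => hx.2)
      · exact Negl.false.mono (Eventually.of_forall fun n x _ hx => hc hx.1))
  refine ⟨J, h1, h2, h3, fun u v g0 g01 g1 ε hε => ?_, fun v g0 g1 ε hε => ?_⟩
  · obtain ⟨K, hK⟩ := exists_nat_one_div_lt hε
    filter_upwards [h4 (Sum.inl (u, v, K)), hTm u v g0 g01 g1 (1 / ((K : ℝ) + 1)) ε
      (by positivity) hK.le] with n a1 a2 x hx
    refine a2 x (h1 n hx) ?_
    by_contra hc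
    exact a1 x hx ⟨⟨g0, g01, g1⟩, hc⟩
  · obtain ⟨K, hK⟩ := exists_nat_one_div_lt hε
    filter_upwards [h4 (Sum.inr (v, K)), hSm v g0 g1 (1 / ((K : ℝ) + 1)) ε
      (by positivity) hK.le] with n a1 a2 x hx
    refine a2 x (h1 n hx) ?_
    by_contra hc
    exact a1 x hx ⟨⟨g0, g1⟩, hc⟩

end

/-- tilt of the curved pairs (hypothesis and conclusion of `Tilt4C`, one pair) -/
def TiltC (D : Dat4) (C : ℝ) (u v : ℚ) (ε : ℝ) (n : ℕ) (x : ℕ × ℝ) : Prop :=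
  D.B.d n ^ (-(C * ((v : ℝ) - u)) - ε) * max (D.w 0 n u) (D.w 0 n v) ≤
    max (kapP (mk4 D n v x) (zx D n v x) (rh D n v) (D.L n x.1))
      (kapP (mk4 D n u x) (zx D n u x) (rh D n u) (D.L n x.1)) →
  TiltOKC D (D.B.d n ^ (-(C * ((v : ℝ) - u)) - ε)) u v n x

/-- nondegeneracy of one curved mark -/
def DetC (D : Dat4) (v : ℚ) (ε : ℝ) (n : ℕ) (x : ℕ × ℝ) : Prop :=
  D.B.d n ^ (-ε) * (mk4 D n v x).a < kapP (mk4 D n v x) (zx D n v x) (rh D n v) (D.L n x.1) →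
    DetP (D.B.d n ^ ε) (mk4 D n v x) (zx D n v x) (rh D n v) (D.L n x.1)

section

variable {p : Par4} {D : Dat4}

theorem tiltOKC_mono' {E E' : ℝ} (hE : E ≤ E') {u v : ℚ} {n : ℕ} {x : ℕ × ℝ}
    (hw : ∀ j, 0 ≤ D.w j n u) (h : TiltOKC D E u v n x) : TiltOKC D E' u v n x := by
  have h0 : 0 ≤ max (D.w 0 n u) (D.w 0 n v) := (hw 0).trans (le_max_left _ _)
  have h1 : 0 ≤ max (D.w 2 n u / D.w 1 n u) (D.w 2 n v / D.w 1 n v) :=
    (div_nonneg (hw 2) (hw 1)).trans (le_max_left _ _)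
  have k0 := mul_le_mul_of_nonneg_right hE h0
  have k1 := mul_le_mul_of_nonneg_right hE h1
  exact ⟨fun z a b x hx hq => (h.close z a b x hx hq).trans k0,
    fun z a b x hx hq => (h.close' z a b x hx hq).trans k0,
    fun i hi => ⟨(h.ang i hi).1.trans k1, (h.ang i hi).2.trans k1⟩⟩

theorem tiltC_mono {C : ℝ} {u v : ℚ} {ε ε' : ℝ} (hε : ε ≤ ε') {n : ℕ} {x : ℕ × ℝ}
    (hw : ∀ j, 0 ≤ D.w j n u) (h : TiltC D C u v ε n x) : TiltC D C u v ε' n x := by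
  intro h1
  have h2 : D.B.d n ^ (-(C * ((v : ℝ) - u)) - ε) ≤ D.B.d n ^ (-(C * ((v : ℝ) - u)) - ε') :=
    dpow_le D.B n (by linarith)
  have h0 : 0 ≤ max (D.w 0 n u) (D.w 0 n v) := (hw 0).trans (le_max_left _ _)
  exact tiltOKC_mono' h2 hw (h ((mul_le_mul_of_nonneg_right h2 h0).trans h1))

theorem detC_mono {v : ℚ} {ε ε' : ℝ} (hε : ε ≤ ε') {n : ℕ} {x : ℕ × ℝ}
    (ha : 0 ≤ (mk4 D n v x).a) (h : DetC D v ε n x) : DetC D v ε' n x := by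
  intro h1
  refine (h (lt_of_le_of_lt (mul_le_mul_of_nonneg_right (dpow_le D.B n ?_) ha) h1)).mono
    (dpow_le D.B n hε)
  linarith

/-- **THE WINDOW OF THE THIN BRANCH** from a marked sequence: tilt of the curved pairs,
nondegeneracy, persistence of the curvature, helper327's lemma. -/
theorem exists_thinW_core (hM : MkA D.B D.I (D.G p) D.lev D.A (fun v => p.g * v) (fun v => 0 * v)
      (fun j v => p.θ j * (1 - v)) D.f D.b D.vm D.w) (hr0 : ∀ n, 0 < D.r0 n)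
    (hvel : ∀ᶠ n in (U : Filter ℕ), ∀ x ∈ D.I n, ∀ i, |(D.L n x.1).v i| ≤ 1)
    (hwrs : Rng D.B D.wr D.cr D.w) (hθ1 : 0 < p.θ 1) {C : ℝ} (hC : 0 ≤ C)
    (hT : ∀ u v : ℚ, 0 ≤ u → u < v → v ≤ 1 → ∀ ε : ℝ, 0 < ε →
      Negl D.B D.I fun n x => ¬ TiltC D C u v ε n x)
    (hN : ∀ v : ℚ, 0 ≤ v → v ≤ 1 → ∀ ε : ℝ, 0 < ε → Negl D.B D.I fun n x => ¬ DetC D v ε n x)
    (hPe : ∀ J : ℕ → Finset (ℕ × ℝ), (∀ n, J n ⊆ D.I n) →
      (∀ u v : ℚ, 0 ≤ u → u < v → v ≤ 1 → ∀ ε : ℝ, 0 < ε → ∀ᶠ n in (U : Filter ℕ), ∀ x ∈ J n,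
        TiltC D C u v ε n x) →
      ∃ a0 b0 : ℚ, 0 ≤ a0 ∧ a0 < b0 ∧ b0 ≤ 1 ∧ ∃ c : ℝ, 0 < c ∧
        ∀ v : ℚ, a0 ≤ v → v ≤ b0 → ∀ᶠ n in (U : Filter ℕ), ∀ x ∈ J n,
          (mk4 D n v x).a ≤
            D.B.d n ^ c * kapP (mk4 D n v x) (zx D n v x) (rh D n v) (D.L n x.1))
    (hK : ∀ J : ℕ → Finset (ℕ × ℝ), (∀ n, J n ⊆ D.I n) → Dense D.B J D.I →
      MkA D.B J (D.G p) D.lev D.A (fun v => p.g * v) (fun v => 0 * v)
        (fun j v => p.θ j * (1 - v)) D.f D.b D.vm D.w → Kil { D with I := J }) :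
    ∃ D' : Dat4, ThinW p D' := by
  obtain ⟨J, hJI, hJd, hJM, hJT, hJN⟩ := mka_good hM (T := fun u v ε n x => TiltC D C u v ε n x)
    (S := fun v ε n x => DetC D v ε n x) (by
      intro u v h0 huv h1 ε ε' hε hεε
      filter_upwards [hM.wpos 0 u h0 (huv.le.trans h1), hM.wpos 1 u h0 (huv.le.trans h1),
        hM.wpos 2 u h0 (huv.le.trans h1)] with n a1 a2 a3 x hx h
      refine tiltC_mono hεε ?_ h
      intro j
      fin_cases j
      · exact a1.le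
      · exact a2.le
      · exact a3.le) hT (by
      intro v h0 h1 ε ε' hε hεε
      filter_upwards [marks_M hM h0 h1] with n a1 x hx h
      refine detC_mono hεε ?_ h
      rw [(a1.2 x hx).2.2]
      exact a1.1.le) hN
  obtain ⟨a0, b0, h0, h1, h2, c, hc, hP⟩ := hPe J hJI hJT
  -- a short interval
  set K : ℝ := C + |1 - p.θ 0| with hKd
  have hK0 : 0 ≤ K := by positivity
  obtain ⟨r, hr1, hr2⟩ : ∃ r : ℚ, a0 < r ∧ r < b0 ∧ K * ((r : ℝ) - a0) ≤ c / 8 := by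
    obtain ⟨m, hm⟩ := exists_nat_gt (K * ((b0 : ℝ) - a0) / (c / 8) + 2)
    have e1 : (0 : ℝ) ≤ K * ((b0 : ℝ) - a0) / (c / 8) := by
      have : (a0 : ℝ) < b0 := by exact_mod_cast h1
      have : 0 ≤ (b0 : ℝ) - a0 := by linarith
      positivity
    have hm2 : (2 : ℝ) < m := by linarith
    have hm2' : 2 < m := by exact_mod_cast hm2
    have hm0 : (0 : ℚ) < m := by
      have : 0 < m := by omega
      exact_mod_cast this
    have hm0' : (0 : ℝ) < m := by linarith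
    refine ⟨a0 + (b0 - a0) / m, ?_, ?_, ?_⟩
    · have : 0 < (b0 - a0) / m := div_pos (by linarith) hm0
      linarith
    · have : (b0 - a0) / m < b0 - a0 := by
        rw [div_lt_iff₀ hm0]
        have : (1 : ℚ) < m := by
          have : 1 < m := by omega
          exact_mod_cast this
        nlinarith
      linarith
    · push_cast
      have e2 : (a0 : ℝ) + ((b0 : ℝ) - a0) / m - a0 = ((b0 : ℝ) - a0) / m := by ring
      rw [e2, mul_div_assoc', div_le_iff₀ hm0']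
      have : K * ((b0 : ℝ) - a0) / (c / 8) ≤ m := by linarith
      rw [div_le_iff₀ (by positivity)] at this
      linarith
  obtain ⟨hr2, hr3⟩ := hr2
  have hpre : MPre p { D with I := J } a0 r := by
    refine mPre_of (D := { D with I := J }) hJM hr0 ?_ hθ1 h0 hr1 (hr2.le.trans h2) hC hc hr3
      (fun v k0 k1 => hP v k0 (k1.trans hr2.le)) ?_ ?_
    · filter_upwards [hvel] with n hn x hx using hn x (hJI n hx)
    · intro u v k0 k1 k2 ε hε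
      filter_upwards [hJT u v k0 k1 k2 ε hε] with n hn x hx hk
      exact (hn x hx hk).close
    · intro v k0 k1 ε hε
      filter_upwards [hJN v k0 k1 ε hε] with n hn x hx hk
      exact hn x hx hk
  exact hpre.exists_thinW (hK J hJI hJd hJM) hwrs

/-- **the window from `J1c`** with one curved level -/
theorem exists_thinW {η : ℝ} (h : J1c η p D) {C : ℝ} (hC : 0 ≤ C)
    (hT : ∀ u v : ℚ, 0 ≤ u → u < v → v ≤ 1 → ∀ ε : ℝ, 0 < ε →
      Negl D.B D.I fun n x => ¬ TiltC D C u v ε n x)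
    (hN : ∀ v : ℚ, 0 ≤ v → v ≤ 1 → ∀ ε : ℝ, 0 < ε → Negl D.B D.I fun n x => ¬ DetC D v ε n x)
    (hK : ∀ J : ℕ → Finset (ℕ × ℝ), (∀ n, J n ⊆ D.I n) → Dense D.B J D.I →
      MkA D.B J (D.G p) D.lev D.A (fun v => p.g * v) (fun v => 0 * v)
        (fun j v => p.θ j * (1 - v)) D.f D.b D.vm D.w → Kil { D with I := J })
    {v1 : ℚ} (h0 : 0 ≤ v1) (h1 : v1 ≤ 1) {ε : ℝ} (hε : 0 < ε)
    (hf : ∀ᶠ n in (U : Filter ℕ), ∀ x ∈ D.I n, ¬ FltSM D (D.B.d n ^ (-ε)) n v1 x) :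
    ∃ D' : Dat4, ThinW p D' := by
  refine exists_thinW_core h.mka h.r0pos h.vel h.wrs h.θ1 hC hT hN ?_ hK
  intro J hJI hJT
  obtain ⟨a0, b0, k0, k1, k2, -, -, c, hc, hP⟩ := Prs262.persistC h hJI hC hJT h0 h1 hε
    (by filter_upwards [hf] with n hn x hx using hn x (hJI n hx))
  exact ⟨a0, b0, k0, k1, k2, c, hc, hP⟩

/-- **the window from `J1c`**, hypotheses = conclusions of `Tilt4C` and `NonDeg` for the data `D` -/
theorem exists_thinW_J1c {η : ℝ} (h : J1c η p D)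
    (hT : ∃ C : ℝ, 0 ≤ C ∧ ∀ u v : ℚ, 0 ≤ u → u < v → v ≤ 1 → ∀ ε : ℝ, 0 < ε →
      Negl D.B D.I fun n x =>
        D.B.d n ^ (-(C * ((v : ℝ) - u)) - ε) * max (D.w 0 n u) (D.w 0 n v) ≤
          max (kapP (mk4 D n v x) (zx D n v x) (rh D n v) (D.L n x.1))
            (kapP (mk4 D n u x) (zx D n u x) (rh D n u) (D.L n x.1)) ∧
        ¬ TiltOKC D (D.B.d n ^ (-(C * ((v : ℝ) - u)) - ε)) u v n x)
    (hN : ∀ v : ℚ, 0 ≤ v → v ≤ 1 → ∀ ε : ℝ, 0 < ε → Negl D.B D.I fun n x =>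
      D.B.d n ^ (-ε) * (mk4 D n v x).a < kapP (mk4 D n v x) (zx D n v x) (rh D n v) (D.L n x.1) ∧
        ¬ DetP (D.B.d n ^ ε) (mk4 D n v x) (zx D n v x) (rh D n v) (D.L n x.1))
    (hK : ∀ J : ℕ → Finset (ℕ × ℝ), (∀ n, J n ⊆ D.I n) → Dense D.B J D.I →
      MkA D.B J (D.G p) D.lev D.A (fun v => p.g * v) (fun v => 0 * v)
        (fun j v => p.θ j * (1 - v)) D.f D.b D.vm D.w → Kil { D with I := J })
    {v1 : ℚ} (h0 : 0 ≤ v1) (h1 : v1 ≤ 1) {ε : ℝ} (hε : 0 < ε)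
    (hf : ∀ᶠ n in (U : Filter ℕ), ∀ x ∈ D.I n, ¬ FltSM D (D.B.d n ^ (-ε)) n v1 x) :
    ∃ D' : Dat4, ThinW p D' := by
  obtain ⟨C, hC, hT⟩ := hT
  refine exists_thinW h hC (fun u v k0 k1 k2 e he => ?_) (fun v k0 k1 e he => ?_) hK h0 h1 hε hf
  · refine (hT u v k0 k1 k2 e he).mono (Eventually.of_forall fun n x _ hx => ?_)
    unfold TiltC at hx
    push Not at hx
    exact hx
  · refine (hN v k0 k1 e he).mono (Eventually.of_forall fun n x _ hx => ?_)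
    unfold DetC at hx
    push Not at hx
    exact hx

/-- `J1` form -/
theorem exists_thinW_J1 {η : ℝ} (h : J1 η p D)
    (hT : ∃ C : ℝ, 0 ≤ C ∧ ∀ u v : ℚ, 0 ≤ u → u < v → v ≤ 1 → ∀ ε : ℝ, 0 < ε →
      Negl D.B D.I fun n x =>
        D.B.d n ^ (-(C * ((v : ℝ) - u)) - ε) * max (D.w 0 n u) (D.w 0 n v) ≤
          max (kapP (mk4 D n v x) (zx D n v x) (rh D n v) (D.L n x.1))
            (kapP (mk4 D n u x) (zx D n u x) (rh D n u) (D.L n x.1)) ∧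
        ¬ TiltOKC D (D.B.d n ^ (-(C * ((v : ℝ) - u)) - ε)) u v n x)
    (hN : ∀ v : ℚ, 0 ≤ v → v ≤ 1 → ∀ ε : ℝ, 0 < ε → Negl D.B D.I fun n x =>
      D.B.d n ^ (-ε) * (mk4 D n v x).a < kapP (mk4 D n v x) (zx D n v x) (rh D n v) (D.L n x.1) ∧
        ¬ DetP (D.B.d n ^ ε) (mk4 D n v x) (zx D n v x) (rh D n v) (D.L n x.1))
    (hK : ∀ J : ℕ → Finset (ℕ × ℝ), (∀ n, J n ⊆ D.I n) → Dense D.B J D.I →
      MkA D.B J (D.G p) D.lev D.A (fun v => p.g * v) (fun v => 0 * v)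
        (fun j v => p.θ j * (1 - v)) D.f D.b D.vm D.w → Kil { D with I := J })
    {v1 : ℚ} (h0 : 0 ≤ v1) (h1 : v1 ≤ 1) {ε : ℝ} (hε : 0 < ε)
    (hf : ∀ᶠ n in (U : Filter ℕ), ∀ x ∈ D.I n, ¬ FltSM D (D.B.d n ^ (-ε)) n v1 x) :
    ∃ D' : Dat4, ThinW p D' := exists_thinW_J1c h.toJ1c hT hN hK h0 h1 hε hf

/-- **the window of the thin branch from the seams `Tilt4C` and `NonDeg`** -/
theorem thinW_of_seams (hT : Tilt4C kapP) (hN : NonDeg kapP DetP)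
    (hK : ∃ η : ℝ, 0 < η ∧ ∀ (p : Par4) (D : Dat4), J1 η p D → Kil D) :
    ∃ η1 η2 η3 : ℝ, 0 < η1 ∧ 0 < η2 ∧ 0 < η3 ∧ ∀ (η : ℝ) (p : Par4) (D : Dat4), J1 η p D →
      J1 η1 p D → J1 η2 p D → J1 η3 p D →
      ∀ (v : ℚ) (ε : ℝ), 0 ≤ v → v ≤ 1 → 0 < ε →
        (∀ᶠ n in (U : Filter ℕ), ∀ x ∈ D.I n, ¬ FltSM D (D.B.d n ^ (-ε)) n v x) →
          ∃ D' : Dat4, ThinW p D' := by
  obtain ⟨η1, e1, hT⟩ := hT
  obtain ⟨η2, e2, hN⟩ := hN
  obtain ⟨η3, e3, hK⟩ := hK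
  refine ⟨η1, η2, η3, e1, e2, e3, fun η p D h k1 k2 k3 v ε h0 h1 hε hf => ?_⟩
  refine exists_thinW_J1 h (hT p D k1) (hN p D k2) (fun J hJI hJd hJM => ?_) h0 h1 hε hf
  exact hK p _ (J1.sub' k3 hJI hJd hJM)

end

end Crest.Agent.R136.Us555
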