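import Crest.Agent.R136.Wit5_321
import Crest.Agent.R136.Us3_555
import Crest.Agent.R136.KapP_335

/-!
# R136, U6 thin side, stage C (helper321), part 1: the expansion of a mark in container coordinates

* `mh` : plank coordinates → container coordinates; `exp_hat` : the coefficients of `IsExp` are the
  gradient, its `z`-derivative and the second order form of `hatQ`.
* `det_hat` : `det3` of the fan in container coordinates (exact).
-/

set_option autoImplicit false
set_option linter.unusedVariables false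

namespace Crest.Agent.R136.Stc321

open Crest.Agent.R136.Sh605
open Crest.Agent.R136.NetW191
open Crest.Agent.R136.GeoN778
open Crest.Agent.R136.Wit321
open Crest.Agent.R136.Tl102 (QF Fq bz fan shB0 scB1 scG shG shB1 kap NrmC IsExp fr cmb StP)
open Crest.Agent.R136.Arc880 (det3)

/-! ### polynomials along a line -/

/-- second order form -/
def hes (Q : Qd) (X : V3) : ℝ := ∑ i, ∑ j, Q.g i j * (X i * X j)

/-- derivative of the gradient along the line -/
def gd (Q : Qd) (t : Ln4) : V3 := fun k => Q.d k + ∑ j, (Q.g k j + Q.g j k) * t.v j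

theorem ev_add (Q : Qd) (z : ℝ) (P X : V3) :
    Q.ev z (fun k => P k + X k) = Q.ev z P + dt (Q.gr z P) X + hes Q X := by
  simp only [Qd.ev, Qd.gr, hes, dt, Fin.sum_univ_three]
  ring

theorem gr_along (Q : Qd) (t : Ln4) (z z' : ℝ) (k : Fin 3) :
    Q.gr z' (t.pos z') k = Q.gr z (t.pos z) k + (z' - z) * gd Q t k := by
  simp only [Qd.gr, gd, Ln4.pos, Fin.sum_univ_three]
  ring

/-! ### plank coordinates in container coordinates -/

/-- plank coordinates → container coordinates -/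
noncomputable def mh (f : Fin 3 → V3) (u : Un) (e : Fin 3 → V3) (w x : V3) : V3 :=
  fun k => dt (f k) (cmb (fr e w) x) / u.W k

theorem mh_lin (f : Fin 3 → V3) (u : Un) (e : Fin 3 → V3) (w : V3) (a b : ℝ) (x y : V3) :
    mh f u e w (fun k => a * x k + b * y k) = fun k => a * mh f u e w x k + b * mh f u e w y k := by
  funext k
  simp only [mh, dt, cmb, Tl102.fr, Pi.smul_apply, smul_eq_mul]
  ring

theorem mh_neg (f : Fin 3 → V3) (u : Un) (e : Fin 3 → V3) (w : V3) (x : V3) :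
    mh f u e w (fun k => -x k) = fun k => -mh f u e w x k := by
  funext k
  simp only [mh, dt, cmb, Tl102.fr, Pi.smul_apply, smul_eq_mul]
  ring

theorem xh_add {f : Fin 3 → V3} {c : Ln4} {u : Un} (hu : u.Ok) (e : Fin 3 → V3) (w : V3) (T : Ln4)
    (z : ℝ) (x : V3) : u.xh (phi f c z (T.pos z + cmb (fr e w) x)) =
      fun k => (ul u (rl f c T)).pos (u.zh z) k + mh f u e w x k := by
  rw [ul_pos hu, rl_pos]
  funext k
  simp only [Un.xh, phi, mh, dt, Pi.add_apply, Pi.sub_apply]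
  ring

section exp

variable {f : Fin 3 → V3} {c : Ln4} {u : Un} {Q : Qd} {e : Fin 3 → V3} {w : V3} {T : Ln4}
    {z0 ρ : ℝ} {b0 b1 : V3} {G : QF}

theorem exp_all (hf : Ortho f) (hu : u.Ok) (hE : IsExp Q.ev e w T z0 ρ b0 b1 G) (ζ : ℝ) (x : V3) :
    w 0 * Fq b0 b1 G ζ x =
      dt ((hatQ f c u Q).gr (u.zh (z0 + ρ * ζ)) ((ul u (rl f c T)).pos (u.zh (z0 + ρ * ζ))))
        (mh f u e w x) + hes (hatQ f c u Q) (mh f u e w x) := by
  have h := hE ζ x
  rw [← hatQ_ev hf c hu Q (z0 + ρ * ζ) (T.pos (z0 + ρ * ζ) + cmb (fr e w) x),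
    ← hatQ_line hf c hu Q (z0 + ρ * ζ) T, xh_add hu, ev_add] at h
  linarith

/-- linear and quadratic part -/
theorem exp_split (hf : Ortho f) (hu : u.Ok) (hE : IsExp Q.ev e w T z0 ρ b0 b1 G) (ζ : ℝ)
    (x : V3) : w 0 * dt (bz b0 b1 ζ) x =
      dt ((hatQ f c u Q).gr (u.zh (z0 + ρ * ζ)) ((ul u (rl f c T)).pos (u.zh (z0 + ρ * ζ))))
        (mh f u e w x) ∧ w 0 * G.ev x = hes (hatQ f c u Q) (mh f u e w x) := by
  have h1 := exp_all (c := c) hf hu hE ζ x
  have h2 := exp_all (c := c) hf hu hE ζ (fun k => -x k)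
  rw [mh_neg] at h2
  have e1 : Fq b0 b1 G ζ x = dt (bz b0 b1 ζ) x + G.ev x := rfl
  have e2 : Fq b0 b1 G ζ (fun k => -x k) = -dt (bz b0 b1 ζ) x + G.ev x := by
    simp only [Fq, dt, QF.ev]; ring
  have e3 : ∀ g X : V3, dt g (fun k => -X k) = -dt g X := by
    intro g X; simp only [dt]; ring
  have e4 : ∀ X : V3, hes (hatQ f c u Q) (fun k => -X k) = hes (hatQ f c u Q) X := by
    intro X; simp only [hes, Fin.sum_univ_three]; ring
  rw [e1] at h1
  rw [e2, e3, e4] at h2
  constructor <;> linarith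

theorem zh_add (z0 ρ ζ : ℝ) : u.zh (z0 + ρ * ζ) = u.zh z0 + ρ / u.H * ζ := by
  simp only [Un.zh]; ring

/-- **coefficients of the expansion in container coordinates** -/
theorem exp_hat (hf : Ortho f) (hu : u.Ok) (hE : IsExp Q.ev e w T z0 ρ b0 b1 G) (x : V3) :
    w 0 * dt b0 x =
      dt ((hatQ f c u Q).gr (u.zh z0) ((ul u (rl f c T)).pos (u.zh z0))) (mh f u e w x) ∧
    w 0 * dt b1 x = ρ / u.H * dt (gd (hatQ f c u Q) (ul u (rl f c T))) (mh f u e w x) ∧
    w 0 * G.ev x = hes (hatQ f c u Q) (mh f u e w x) := by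
  have h0 := exp_split (c := c) hf hu hE 0 x
  have h1 := (exp_split (c := c) hf hu hE 1 x).1
  have z00 : z0 + ρ * 0 = z0 := by ring
  rw [z00] at h0
  have e0 : dt (bz b0 b1 0) x = dt b0 x := by simp only [dt, bz]; ring
  have e1 : dt (bz b0 b1 1) x = dt b0 x + dt b1 x := by simp only [dt, bz]; ring
  rw [e0] at h0
  refine ⟨h0.1, ?_, h0.2⟩
  have e2 : dt ((hatQ f c u Q).gr (u.zh (z0 + ρ * 1)) ((ul u (rl f c T)).pos (u.zh (z0 + ρ * 1))))
      (mh f u e w x) = dt ((hatQ f c u Q).gr (u.zh z0) ((ul u (rl f c T)).pos (u.zh z0)))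
        (mh f u e w x) + ρ / u.H * dt (gd (hatQ f c u Q) (ul u (rl f c T))) (mh f u e w x) := by
    have k := fun k => gr_along (hatQ f c u Q) (ul u (rl f c T)) (u.zh z0) (u.zh (z0 + ρ * 1)) k
    have e5 : u.zh (z0 + ρ * 1) - u.zh z0 = ρ / u.H := by rw [zh_add]; ring
    simp only [e5] at k
    simp only [dt, k]
    ring
  rw [e1, e2] at h1
  linarith [h0.1]

end exp

/-! ### the determinant of the fan -/

/-- `det3` of the fan at the lower end of the cell -/
theorem det3_zero {b0 b1 : V3} {G : QF} {κ : ℝ} (h : b0 0 ≠ 0) (hκ : κ ≠ 0) :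
    2 ^ 24 * (κ ^ 3 * det3 (fan (shB0 b0) (scB1 κ b0 b1) (scG κ b0 G) 0)) =
      -((shB1 b0 b1 1) ^ 2 * (shG b0 G).vv - shB1 b0 b1 1 * shB1 b0 b1 2 * (shG b0 G).uv +
        (shB1 b0 b1 2) ^ 2 * (shG b0 G).uu) := by
  have s1 : Tl102.slp (shB0 b0) (scB1 κ b0 b1) 1 0 = 0 := by
    simp [Tl102.slp, shB0]
  have s2 : Tl102.slp (shB0 b0) (scB1 κ b0 b1) 2 0 = 0 := by
    simp [Tl102.slp, shB0]
  have e1 : scB1 κ b0 b1 1 = shB1 b0 b1 1 / κ := rfl
  have e2 : scB1 κ b0 b1 2 = shB1 b0 b1 2 / κ := rfl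
  simp only [det3, fan, s1, s2, Matrix.cons_val, scG, e1, e2]
  field_simp
  ring

/-- cross product -/
def crs (a b : V3) : V3 := ![a 1 * b 2 - a 2 * b 1, a 2 * b 0 - a 0 * b 2, a 0 * b 1 - a 1 * b 0]

/-- the discriminant form of a pencil of tangent vectors -/
theorem hes_crs (Q : Qd) {g g' E1 E2 : V3} (hg : g 0 ≠ 0) (h1 : dt g E1 = 0) (h2 : dt g E2 = 0) :
    hes Q (fun k => dt g' E2 * E1 k - dt g' E1 * E2 k) =
      ((E1 1 * E2 2 - E1 2 * E2 1) / g 0) ^ 2 * hes Q (crs g' g) := by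
  have e1 : E1 0 = -(g 1 * E1 1 + g 2 * E1 2) / g 0 := by
    rw [eq_div_iff hg]; simp only [dt] at h1; linarith
  have e2 : E2 0 = -(g 1 * E2 1 + g 2 * E2 2) / g 0 := by
    rw [eq_div_iff hg]; simp only [dt] at h2; linarith
  have k : ∀ k, dt g' E2 * E1 k - dt g' E1 * E2 k =
      (E1 1 * E2 2 - E1 2 * E2 1) / g 0 * crs g' g k := by
    intro k
    fin_cases k
    · simp only [dt, crs, e1, e2, Matrix.cons_val, Fin.zero_eta, Fin.mk_one, Fin.reduceFinMk]
      field_simp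
      ring
    · simp only [dt, crs, e1, e2, Matrix.cons_val, Fin.zero_eta, Fin.mk_one, Fin.reduceFinMk]
      field_simp
      ring
    · simp only [dt, crs, e1, e2, Matrix.cons_val, Fin.zero_eta, Fin.mk_one, Fin.reduceFinMk]
      field_simp
      ring
  simp only [hes, Fin.sum_univ_three, k]
  ring

end Crest.Agent.R136.Stc321
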