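import Crest.Agent.R136.Stc1_321

/-!
# R136, U6 thin side, stage C (helper321), part 2: the canonical box in container coordinates

* `la_solve` : a vector with small `g·X`, `g'·X`, `H(X)` near the model.
* `Nr` : a polynomial is the model up to `η` along a line; `canon_det` : the curvature extent against
  the area of the plank (from `det3`); `canon_pt` : a point of the sheet in container coordinates.
-/

set_option autoImplicit false
set_option linter.unusedVariables false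

namespace Crest.Agent.R136.Stc321

open Crest.Agent.R136.Sh605
open Crest.Agent.R136.NetW191
open Crest.Agent.R136.GeoN778
open Crest.Agent.R136.Wit321
open Crest.Agent.R136.Tl102 (QF Fq bz fan shB0 scB1 scG shG shB1 kap NrmC IsExp fr cmb StP)
open Crest.Agent.R136.Arc880 (det3)

theorem sq2 (a b : ℝ) : (a + b) ^ 2 ≤ 2 * a ^ 2 + 2 * b ^ 2 := by
  nlinarith [sq_nonneg (a - b)]

/-- last step of `la_solve` -/
theorem la_fin {κ η R Z rh S x h : ℝ} (hκ : 0 < κ) (hη0 : 0 ≤ η) (hrh : 0 < rh) (hZ0 : 0 ≤ Z)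
    (hR : 0 ≤ R) (hS0 : 0 ≤ S) (hsum : S ≤ 8 * (R * Z / rh) + 26 * (R ^ 2 * |x|))
    (h1 : |h + κ * x ^ 2| ≤ η * S ^ 2) (k3 : |h| ≤ Z)
    (t2 : 2704 * (η * R ^ 4) ≤ κ) (t3 : 128 * (η * (R ^ 2 * Z)) ≤ rh ^ 2) :
    x ^ 2 ≤ 4 * Z / κ := by
  have h2 : κ * x ^ 2 ≤ Z + η * S ^ 2 := by
    have := (abs_le.1 h1).2
    have := (abs_le.1 k3).1
    linarith
  have h3 : S ^ 2 ≤ 2 * (8 * (R * Z / rh)) ^ 2 + 2 * (26 * (R ^ 2 * |x|)) ^ 2 :=
    (pow_le_pow_left₀ hS0 hsum 2).trans (sq2 _ _)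
  have h4 : η * (2 * (26 * (R ^ 2 * |x|)) ^ 2) ≤ κ / 2 * x ^ 2 := by
    have e : η * (2 * (26 * (R ^ 2 * |x|)) ^ 2) = 1352 * (η * R ^ 4) * |x| ^ 2 := by ring
    rw [e, sq_abs]
    refine mul_le_mul_of_nonneg_right ?_ (sq_nonneg _)
    linarith
  have h5 : η * (2 * (8 * (R * Z / rh)) ^ 2) ≤ Z := by
    have e : η * (2 * (8 * (R * Z / rh)) ^ 2) = 128 * (η * (R ^ 2 * Z)) * Z / rh ^ 2 := by
      field_simp; ring
    rw [e, div_le_iff₀ (by positivity)]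
    have := mul_le_mul_of_nonneg_right t3 hZ0
    linarith
  rw [le_div_iff₀ hκ]
  have h6 := mul_le_mul_of_nonneg_left h3 hη0
  have h7 : η * (2 * (8 * (R * Z / rh)) ^ 2 + 2 * (26 * (R ^ 2 * |x|)) ^ 2) =
    η * (2 * (8 * (R * Z / rh)) ^ 2) + η * (2 * (26 * (R ^ 2 * |x|)) ^ 2) := by ring
  rw [h7] at h6
  linarith

/-- **solving for a vector near the model**, linear part -/
theorem la_lin {g g' X : V3} {κ v1 R η rh Z Z' : ℝ} (hR : 1 ≤ R) (hη0 : 0 ≤ η)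
    (hκ1 : |κ| ≤ 1) (hv : |v1| ≤ R) (hrh : 0 < rh) (hZ : 0 ≤ Z) (hZZ : Z ≤ Z' / rh)
    (g0 : |g 0 - 1| ≤ η) (g1 : |g 1| ≤ 3 * R) (g2 : |g 2| ≤ 2 * R)
    (g0' : |g' 0| ≤ η) (g1' : |g' 1 + 2 * κ * v1| ≤ η) (g2' : |g' 2 + 1| ≤ η)
    (k1 : |dt g X| ≤ Z) (k2 : rh * |dt g' X| ≤ Z') (t1 : 40 * (R * η) ≤ 1) :
      |X 0| + |X 1| + |X 2| ≤ 8 * (R * Z' / rh) + 26 * (R ^ 2 * |X 1|) ∧
      |X 2 + 2 * κ * v1 * X 1| ≤ Z' / rh + 3 * (η * (|X 0| + |X 1| + |X 2|)) := by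
  set S := |X 0| + |X 1| + |X 2| with hS
  have x0 := abs_nonneg (X 0)
  have x1 := abs_nonneg (X 1)
  have x2 := abs_nonneg (X 2)
  have hS0 : 0 ≤ S := by rw [hS]; positivity
  have hSk : ∀ k, |X k| ≤ S := by
    intro k; fin_cases k
    · show |X 0| ≤ S; linarith
    · show |X 1| ≤ S; linarith
    · show |X 2| ≤ S; linarith
  have hηR : η ≤ η * R := le_mul_of_one_le_right hη0 hR
  have b2 : |dt g' X| ≤ Z' / rh := by
    rw [le_div_iff₀ hrh]; linarith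
  -- rotation
  have e3 : |X 2 + 2 * κ * v1 * X 1| ≤ Z' / rh + 3 * (η * S) := by
    have e : X 2 + 2 * κ * v1 * X 1 = -dt g' X + ((g' 2 + 1) * X 2 + g' 0 * X 0 +
        (g' 1 + 2 * κ * v1) * X 1) := by
      simp only [dt]; ring
    rw [e]
    have c : |(g' 2 + 1) * X 2 + g' 0 * X 0 + (g' 1 + 2 * κ * v1) * X 1| ≤
        η * S + η * S + η * S :=
      a2 (a2 (m2 g2' (hSk 2)) (m2 g0' (hSk 0))) (m2 g1' (hSk 1))
    refine (abs_add_le _ _).trans ?_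
    rw [abs_neg]
    linarith
  -- `X 2`
  have two : |(2 : ℝ)| ≤ 2 := by norm_num
  have hκv : |2 * κ * v1| ≤ 2 * R := by
    refine (m2 (m2 two hκ1) hv).trans (le_of_eq (by ring))
  have e2 : |X 2| ≤ Z' / rh + 3 * (η * S) + 2 * R * |X 1| := by
    have e : X 2 = (X 2 + 2 * κ * v1 * X 1) - 2 * κ * v1 * X 1 := by ring
    rw [e]
    exact s2 e3 (m2 hκv le_rfl)
  -- `X 0`
  have e0 : |X 0| ≤ Z + η * S + 3 * R * |X 1| + 2 * R * |X 2| := by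
    have e : X 0 = dt g X - ((g 0 - 1) * X 0 + g 1 * X 1 + g 2 * X 2) := by
      simp only [dt]; ring
    rw [e]
    have c : |(g 0 - 1) * X 0 + g 1 * X 1 + g 2 * X 2| ≤ η * S + 3 * R * |X 1| + 2 * R * |X 2| :=
      a2 (a2 (m2 g0 (hSk 0)) (m2 g1 le_rfl)) (m2 g2 le_rfl)
    refine (s2 k1 c).trans ?_
    linarith
  have hsum : S ≤ 8 * (R * Z' / rh) + 26 * (R ^ 2 * |X 1|) := by
    -- bounds of the products
    have p1 : R * |X 1| ≤ R ^ 2 * |X 1| := by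
      have : R ≤ R ^ 2 := by nlinarith
      exact mul_le_mul_of_nonneg_right this x1
    have p0 : |X 1| ≤ R * |X 1| := le_mul_of_one_le_left x1 hR
    have p2 : 2 * R * |X 2| ≤ 2 * R * (Z' / rh + 3 * (η * S) + 2 * R * |X 1|) :=
      mul_le_mul_of_nonneg_left e2 (by linarith)
    have p3 : 2 * R * (Z' / rh + 3 * (η * S) + 2 * R * |X 1|) =
        2 * (R * (Z' / rh)) + 6 * (R * η * S) + 4 * (R ^ 2 * |X 1|) := by ring
    have p4 : Z' / rh ≤ R * (Z' / rh) := le_mul_of_one_le_left (hZ.trans hZZ) hR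
    have p5 : η * S ≤ R * η * S := by
      have : η ≤ R * η := by linarith
      exact mul_le_mul_of_nonneg_right this hS0
    have p6 : R * η * S ≤ 1 / 40 * S := by
      refine mul_le_mul_of_nonneg_right ?_ hS0
      linarith
    have p7 : R * (Z' / rh) = R * Z' / rh := by ring
    rw [p7] at p3 p4
    have : S ≤ 4 * (R * Z' / rh) + 10 / 40 * S + 11 * (R ^ 2 * |X 1|) := by
      have : S = |X 0| + |X 1| + |X 2| := hS
      linarith
    linarith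
  exact ⟨hsum, e3⟩

/-! ### near the model along a line -/

/-- `Q` is the model `ν (Y - z B - κ A²)` up to `ν η` along the line `t`, base height `z1` -/
structure Nr (Q : Qd) (t : Ln4) (z1 κ ν R η : ℝ) : Prop where
  g0 : |Q.gr z1 (t.pos z1) 0 - ν| ≤ |ν| * η
  g1 : |Q.gr z1 (t.pos z1) 1| ≤ |ν| * (3 * R)
  g2 : |Q.gr z1 (t.pos z1) 2| ≤ |ν| * (2 * R)
  d0 : |gd Q t 0| ≤ |ν| * η
  d1 : |gd Q t 1 + ν * (2 * κ * t.v 1)| ≤ |ν| * η
  d2 : |gd Q t 2 + ν| ≤ |ν| * η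
  hh : ∀ (X : V3) (B : ℝ), (∀ k, |X k| ≤ B) → |hes Q X + ν * (κ * X 1 ^ 2)| ≤ |ν| * (η * B ^ 2)

theorem Nr.of_cl {Q : Qd} {κ ν δ R z1 : ℝ} {t : Ln4} (h : Cl Q (mul ν (mod κ)) (|ν| * δ))
    (hκ : |κ| ≤ 1) (hR : 1 ≤ R) (hz : |z1| ≤ R) (hp : ∀ k, |t.pos z1 k| ≤ R)
    (hv : ∀ k, |t.v k| ≤ R) (hs : 8 * (R * δ) ≤ 1) : Nr Q t z1 κ ν R (9 * (R * δ)) := by
  have hν := abs_nonneg ν
  have hδν : 0 ≤ |ν| * δ := (abs_nonneg _).trans h.c0
  have k := fun k => h.gr hz hp k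
  have e0 : (mul ν (mod κ)).gr z1 (t.pos z1) 0 = ν := by
    rw [mul_gr, mod_gr]; simp
  have e1 : (mul ν (mod κ)).gr z1 (t.pos z1) 1 = ν * (-2 * κ * t.pos z1 1) := by
    rw [mul_gr, mod_gr]; rfl
  have e2 : (mul ν (mod κ)).gr z1 (t.pos z1) 2 = ν * (-z1) := by
    rw [mul_gr, mod_gr]; rfl
  have k0 := k 0
  have k1 := k 1
  have k2 := k 2
  rw [e0] at k0
  rw [e1] at k1
  rw [e2] at k2
  have hb : |ν| * δ * (1 + 7 * R) ≤ |ν| * (8 * (R * δ)) := by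
    have : |ν| * (8 * (R * δ)) = |ν| * δ * (8 * R) := by ring
    rw [this]
    exact mul_le_mul_of_nonneg_left (by linarith) hδν
  have hb2 : |ν| * (8 * (R * δ)) ≤ |ν| * 1 := mul_le_mul_of_nonneg_left hs hν
  have hb3 : |ν| * (8 * (R * δ)) ≤ |ν| * (9 * (R * δ)) := by
    have : |ν| * (9 * (R * δ)) = |ν| * (8 * (R * δ)) + |ν| * δ * R := by ring
    rw [this]
    nlinarith [mul_nonneg hδν (by linarith : (0:ℝ) ≤ R)]
  have gdle : ∀ k, |gd Q t k - gd (mul ν (mod κ)) t k| ≤ |ν| * (9 * (R * δ)) := by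
    intro k
    have e : gd Q t k - gd (mul ν (mod κ)) t k = (Q.d k - (mul ν (mod κ)).d k) +
        (((Q.g k 0 - (mul ν (mod κ)).g k 0) + (Q.g 0 k - (mul ν (mod κ)).g 0 k)) * t.v 0 +
        ((Q.g k 1 - (mul ν (mod κ)).g k 1) + (Q.g 1 k - (mul ν (mod κ)).g 1 k)) * t.v 1 +
        ((Q.g k 2 - (mul ν (mod κ)).g k 2) + (Q.g 2 k - (mul ν (mod κ)).g 2 k)) * t.v 2) := by
      simp only [gd, Fin.sum_univ_three]; ring
    rw [e]
    refine (a2 (h.d k) (a2 (a2 (m2 (a2 (h.g k 0) (h.g 0 k)) (hv 0))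
      (m2 (a2 (h.g k 1) (h.g 1 k)) (hv 1))) (m2 (a2 (h.g k 2) (h.g 2 k)) (hv 2)))).trans ?_
    have : |ν| * (9 * (R * δ)) = |ν| * δ * (9 * R) := by ring
    rw [this]
    nlinarith
  have D0 : gd (mul ν (mod κ)) t 0 = 0 := by
    simp [gd, Wit321.mul, mod, Fin.sum_univ_three]
  have D1 : gd (mul ν (mod κ)) t 1 = -(ν * (2 * κ * t.v 1)) := by
    simp [gd, Wit321.mul, mod, Fin.sum_univ_three]; ring
  have D2 : gd (mul ν (mod κ)) t 2 = -ν := by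
    simp [gd, Wit321.mul, mod, Fin.sum_univ_three]
  refine ⟨k0.trans (hb.trans hb3), ?_, ?_, ?_, ?_, ?_, ?_⟩
  · have e : Q.gr z1 (t.pos z1) 1 = (Q.gr z1 (t.pos z1) 1 - ν * (-2 * κ * t.pos z1 1)) +
        ν * (-2 * κ * t.pos z1 1) := by ring
    rw [e]
    have c : |-2 * κ * t.pos z1 1| ≤ 2 * R := by
      rw [abs_mul, abs_mul, abs_neg, abs_two]
      have := mul_le_mul hκ (hp 1) (abs_nonneg _) zero_le_one
      linarith
    refine (a2 (k1.trans hb) (m2 (le_refl |ν|) c)).trans ?_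
    have : |ν| * 1 ≤ |ν| * R := mul_le_mul_of_nonneg_left hR hν
    linarith
  · have e : Q.gr z1 (t.pos z1) 2 = (Q.gr z1 (t.pos z1) 2 - ν * (-z1)) + ν * (-z1) := by ring
    rw [e]
    have c : |-z1| ≤ R := by rwa [abs_neg]
    refine (a2 (k2.trans hb) (m2 (le_refl |ν|) c)).trans ?_
    have : |ν| * 1 ≤ |ν| * R := mul_le_mul_of_nonneg_left hR hν
    linarith
  · have := gdle 0
    rwa [D0, sub_zero] at this
  · have := gdle 1
    rwa [D1, sub_neg_eq_add] at this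
  · have := gdle 2
    rwa [D2, sub_neg_eq_add] at this
  · intro X B hX
    have hB : 0 ≤ B := (abs_nonneg _).trans (hX 0)
    have e : hes Q X + ν * (κ * X 1 ^ 2) = ∑ i, ∑ j, (Q.g i j - (mul ν (mod κ)).g i j) *
        (X i * X j) := by
      simp [hes, Wit321.mul, mod, Fin.sum_univ_three]; ring
    rw [e]
    have c : ∀ i j, |(Q.g i j - (mul ν (mod κ)).g i j) * (X i * X j)| ≤ |ν| * δ * (B * B) :=
      fun i j => m2 (h.g i j) (m2 (hX i) (hX j))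
    simp only [Fin.sum_univ_three]
    refine (a2 (a2 (a2 (a2 (c 0 0) (c 0 1)) (c 0 2)) (a2 (a2 (c 1 0) (c 1 1)) (c 1 2)))
      (a2 (a2 (c 2 0) (c 2 1)) (c 2 2))).trans ?_
    have e3 : |ν| * (9 * (R * δ) * B ^ 2) = |ν| * δ * (B * B) * (9 * R) := by ring
    rw [e3]
    have := mul_nonneg hδν (mul_nonneg hB hB)
    nlinarith

theorem dt_unit {e e' : Fin 3 → V3} (he : Ortho e) (he' : Ortho e') (i j : Fin 3) :
    |dt (e i) (e' j)| ≤ 1 := by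
  have h := Us555.dt_expand he (e' j) (e' j)
  have h1 : dt (e' j) (e' j) = 1 := by have := he' j j; simpa using this
  rw [h1] at h
  rw [abs_le_one_iff_mul_self_le_one]
  have s0 := mul_self_nonneg (dt (e 0) (e' j))
  have s1 := mul_self_nonneg (dt (e 1) (e' j))
  have s3 := mul_self_nonneg (dt (e 2) (e' j))
  fin_cases i
  · show dt (e 0) (e' j) * dt (e 0) (e' j) ≤ 1
    linarith
  · show dt (e 1) (e' j) * dt (e 1) (e' j) ≤ 1
    linarith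
  · show dt (e 2) (e' j) * dt (e 2) (e' j) ≤ 1
    linarith

/-! ### the plank -/

/-- tangent vectors of the plank, in plank coordinates -/
noncomputable def tE (b0 : V3) (k : Fin 3) : V3 := ![-(b0 k / b0 0), if k = 1 then 1 else 0,
  if k = 2 then 1 else 0]

theorem dt_tE {b0 : V3} (h : b0 0 ≠ 0) : dt b0 (tE b0 1) = 0 ∧ dt b0 (tE b0 2) = 0 := by
  constructor <;> simp only [dt, tE, Matrix.cons_val] <;> field_simp <;> simp

theorem dt_tE1 {b0 b1 : V3} (h : b0 0 ≠ 0) :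
    dt b1 (tE b0 1) = shB1 b0 b1 1 ∧ dt b1 (tE b0 2) = shB1 b0 b1 2 := by
  constructor <;> simp only [dt, tE, shB1, Matrix.cons_val] <;> field_simp <;> simp <;> ring

theorem G_tE {b0 : V3} {G : QF} (h : b0 0 ≠ 0) (a b : ℝ) :
    G.ev (fun k => a * tE b0 1 k + b * tE b0 2 k) =
      (shG b0 G).uu * a ^ 2 + (shG b0 G).uv * (a * b) + (shG b0 G).vv * b ^ 2 := by
  simp only [QF.ev, tE, shG, Matrix.cons_val]
  field_simp
  simp
  ring

/-- area of the plank in the coordinates `A`, `B` -/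
theorem area_le {f e : Fin 3 → V3} (hf : Ortho f) (he : Ortho e) {u : Un} (hu : u.Ok) {w b0 : V3}
    (hw0 : 0 < w 0) (hw2 : w 0 ≤ w 2) (hw1 : w 2 ≤ w 1) (h1 : |b0 1 / b0 0| ≤ 2)
    (h2 : |b0 2 / b0 0| ≤ 2) :
    |mh f u e w (tE b0 1) 1 * mh f u e w (tE b0 2) 2 -
      mh f u e w (tE b0 1) 2 * mh f u e w (tE b0 2) 1| ≤ 10 * (w 1 * w 2 / (u.WA * u.WB)) := by
  have hA := hu.A0
  have hB := hu.B0
  have r := dt_unit hf he
  set s1 := b0 1 / b0 0 with hs1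
  set s2' := b0 2 / b0 0 with hs2
  have e1 : ∀ i, dt (f i) (cmb (Tl102.fr e w) (tE b0 1)) =
      w 1 * dt (f i) (e 1) - s1 * (w 0 * dt (f i) (e 0)) := by
    intro i
    simp only [dt, cmb, Tl102.fr, tE, Matrix.cons_val, Pi.smul_apply, smul_eq_mul]
    simp
    ring
  have e2 : ∀ i, dt (f i) (cmb (Tl102.fr e w) (tE b0 2)) =
      w 2 * dt (f i) (e 2) - s2' * (w 0 * dt (f i) (e 0)) := by
    intro i
    simp only [dt, cmb, Tl102.fr, tE, Matrix.cons_val, Pi.smul_apply, smul_eq_mul]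
    simp
    ring
  have W1 : u.W 1 = u.WA := rfl
  have W2 : u.W 2 = u.WB := rfl
  have ee : mh f u e w (tE b0 1) 1 * mh f u e w (tE b0 2) 2 -
      mh f u e w (tE b0 1) 2 * mh f u e w (tE b0 2) 1 =
      (w 1 * w 2 * (dt (f 1) (e 1) * dt (f 2) (e 2) - dt (f 2) (e 1) * dt (f 1) (e 2)) -
        s2' * (w 0 * w 1 * (dt (f 1) (e 1) * dt (f 2) (e 0) - dt (f 2) (e 1) * dt (f 1) (e 0))) -
        s1 * (w 0 * w 2 * (dt (f 1) (e 0) * dt (f 2) (e 2) - dt (f 2) (e 0) * dt (f 1) (e 2)))) /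
          (u.WA * u.WB) := by
    simp only [mh, e1, e2, W1, W2]
    field_simp
    ring
  have q1 : |dt (f 1) (e 1) * dt (f 2) (e 2) - dt (f 2) (e 1) * dt (f 1) (e 2)| ≤ 2 := by
    refine (s2 (m2 (r 1 1) (r 2 2)) (m2 (r 2 1) (r 1 2))).trans (by norm_num)
  have q2 : |dt (f 1) (e 1) * dt (f 2) (e 0) - dt (f 2) (e 1) * dt (f 1) (e 0)| ≤ 2 := by
    refine (s2 (m2 (r 1 1) (r 2 0)) (m2 (r 2 1) (r 1 0))).trans (by norm_num)
  have q3 : |dt (f 1) (e 0) * dt (f 2) (e 2) - dt (f 2) (e 0) * dt (f 1) (e 2)| ≤ 2 := by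
    refine (s2 (m2 (r 1 0) (r 2 2)) (m2 (r 2 0) (r 1 2))).trans (by norm_num)
  have w2p : 0 < w 2 := by linarith
  have w1p : 0 < w 1 := by linarith
  have p0 : |w 0 * w 1| ≤ w 1 * w 2 := by
    rw [abs_of_pos (mul_pos hw0 w1p)]; nlinarith
  have p1 : |w 0 * w 2| ≤ w 1 * w 2 := by
    rw [abs_of_pos (mul_pos hw0 w2p)]; nlinarith
  have p2 : |w 1 * w 2| ≤ w 1 * w 2 := by rw [abs_of_pos (mul_pos w1p w2p)]
  rw [ee, abs_div, abs_of_pos (mul_pos hA hB), ← mul_div_assoc]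
  refine div_le_div_of_nonneg_right ?_ (mul_pos hA hB).le
  refine (s2 (s2 (m2 p2 q1) (m2 h2 (m2 p0 q2))) (m2 h1 (m2 p1 q3))).trans ?_
  linarith

/-- size of the discriminant form near the model -/
theorem Nr.crs_le {Q : Qd} {t : Ln4} {z1 κ ν R η : ℝ} (h : Nr Q t z1 κ ν R η) (hκ : |κ| ≤ 1)
    (hR : 1 ≤ R) (hv : |t.v 1| ≤ R) (hη0 : 0 ≤ η) (hs : 400 * (η * R ^ 4) ≤ 1) :
    |hes Q (crs (gd Q t) (Q.gr z1 (t.pos z1)))| ≤ 26 * |ν| ^ 5 := by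
  have hν := abs_nonneg ν
  have hR4 : 1 ≤ R ^ 4 := one_le_pow₀ hR
  have hηR : η ≤ η * R ^ 4 := le_mul_of_one_le_right hη0 hR4
  have hRR4 : R ≤ R ^ 4 := by
    have : R ^ 1 ≤ R ^ 4 := pow_le_pow_right₀ hR (by norm_num)
    rwa [pow_one] at this
  have hηR1 : η * R ≤ η * R ^ 4 := mul_le_mul_of_nonneg_left hRR4 hη0
  set g := Q.gr z1 (t.pos z1) with hg
  set g' := gd Q t with hg'
  have b0 : |g 0| ≤ |ν| * 2 := by
    have e : g 0 = (g 0 - ν) + ν := by ring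
    rw [e]
    refine (a2 h.g0 le_rfl).trans ?_
    nlinarith
  have b1 := h.g1
  have b2 := h.g2
  have d0 : |g' 0| ≤ |ν| * η := h.d0
  have d1 : |g' 1| ≤ |ν| * (3 * R) := by
    have e : g' 1 = (g' 1 + ν * (2 * κ * t.v 1)) - ν * (2 * κ * t.v 1) := by ring
    rw [e]
    have two : |(2 : ℝ)| ≤ 2 := by norm_num
    have c : |2 * κ * t.v 1| ≤ 2 * 1 * R := m2 (m2 two hκ) hv
    refine (s2 h.d1 (m2 (le_refl |ν|) c)).trans ?_
    have : |ν| * η ≤ |ν| * R := mul_le_mul_of_nonneg_left (by linarith) hν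
    linarith
  have d2 : |g' 2| ≤ |ν| * 2 := by
    have e : g' 2 = (g' 2 + ν) - ν := by ring
    rw [e]
    refine (s2 h.d2 le_rfl).trans ?_
    nlinarith
  have hν2 : 0 ≤ |ν| ^ 2 := by positivity
  have c0 : |crs g' g 0| ≤ 12 * R ^ 2 * |ν| ^ 2 := by
    show |g' 1 * g 2 - g' 2 * g 1| ≤ _
    refine (s2 (m2 d1 b2) (m2 d2 b1)).trans ?_
    have e : |ν| * (3 * R) * (|ν| * (2 * R)) + |ν| * 2 * (|ν| * (3 * R)) =
      |ν| ^ 2 * (6 * R ^ 2 + 6 * R) := by ring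
    rw [e]
    have : 6 * R ^ 2 + 6 * R ≤ 12 * R ^ 2 := by nlinarith
    have := mul_le_mul_of_nonneg_left this hν2
    linarith
  have c1 : |crs g' g 1| ≤ 5 * |ν| ^ 2 := by
    show |g' 2 * g 0 - g' 0 * g 2| ≤ _
    refine (s2 (m2 d2 b0) (m2 d0 b2)).trans ?_
    have e : |ν| * 2 * (|ν| * 2) + |ν| * η * (|ν| * (2 * R)) = |ν| ^ 2 * (4 + 2 * (η * R)) := by
      ring
    rw [e]
    have : 4 + 2 * (η * R) ≤ 5 := by linarith
    have := mul_le_mul_of_nonneg_left this hν2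
    linarith
  have c2 : |crs g' g 2| ≤ 12 * R ^ 2 * |ν| ^ 2 := by
    show |g' 0 * g 1 - g' 1 * g 0| ≤ _
    refine (s2 (m2 d0 b1) (m2 d1 b0)).trans ?_
    have e : |ν| * η * (|ν| * (3 * R)) + |ν| * (3 * R) * (|ν| * 2) =
      |ν| ^ 2 * (3 * (η * R) + 6 * R) := by ring
    rw [e]
    have : 3 * (η * R) + 6 * R ≤ 12 * R ^ 2 := by nlinarith
    have := mul_le_mul_of_nonneg_left this hν2
    linarith
  have c1' : |crs g' g 1| ≤ 12 * R ^ 2 * |ν| ^ 2 := by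
    refine c1.trans ?_
    have : 5 ≤ 12 * R ^ 2 := by nlinarith
    exact mul_le_mul_of_nonneg_right this hν2
  have hB : ∀ k, |crs g' g k| ≤ 12 * R ^ 2 * |ν| ^ 2 := by
    intro k; fin_cases k
    · exact c0
    · exact c1'
    · exact c2
  have hh := h.hh (crs g' g) _ hB
  have e : hes Q (crs g' g) = (hes Q (crs g' g) + ν * (κ * crs g' g 1 ^ 2)) -
      ν * (κ * crs g' g 1 ^ 2) := by ring
  rw [e]
  have k1 : |ν * (κ * crs g' g 1 ^ 2)| ≤ |ν| * (1 * (5 * |ν| ^ 2 * (5 * |ν| ^ 2))) := by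
    rw [sq]
    exact m2 le_rfl (m2 hκ (m2 c1 c1))
  refine (s2 hh k1).trans ?_
  have e2 : |ν| * (η * (12 * R ^ 2 * |ν| ^ 2) ^ 2) = |ν| ^ 5 * (144 * (η * R ^ 4)) := by ring
  have e3 : |ν| * (1 * (5 * |ν| ^ 2 * (5 * |ν| ^ 2))) = |ν| ^ 5 * 25 := by ring
  rw [e2, e3]
  have : |ν| ^ 5 * (144 * (η * R ^ 4)) ≤ |ν| ^ 5 * 1 :=
    mul_le_mul_of_nonneg_left (by linarith) (by positivity)
  linarith

end Crest.Agent.R136.Stc321
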