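import Crest.Agent.R136.Stc2_321
import Crest.Agent.R136.Thn2_768
import Crest.Agent.R136.Coi6_102

/-!
# R136, U6 thin side, stage C (helper321), part 3: invariants in container coordinates

* `tay_hat` : 768's `Tay` in container coordinates; `D3_hat`, `Om_hat`.
* `Nr.crs_ge` : lower bounds; `Y_up`, `Y_low` : the curvature extent of a mark in units of the
  container, from 768's `Snd.D`, `Snd.om_le`.
-/

set_option autoImplicit false
set_option linter.unusedVariables false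

namespace Crest.Agent.R136.Stc321

open Crest.Agent.R136.Sh605
open Crest.Agent.R136.NetW191
open Crest.Agent.R136.GeoN778
open Crest.Agent.R136.Wit321
open Crest.Agent.R136.Tl102 (QF Fq bz fan shB0 scB1 scG shG shB1 kap NrmC IsExp fr cmb StP)
open Crest.Agent.R136.Thn768 (Tay cr dtf pull dtm D3 cr_dtf dtm_ortho)

/-- the basis of the container units -/
noncomputable def fW (f : Fin 3 → V3) (u : Un) : Fin 3 → V3 := fun k => u.W k • f k

theorem dt_cmb_fW {f : Fin 3 → V3} (hf : Ortho f) (u : Un) (x : V3) (i : Fin 3) :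
    dt (f i) (cmb (fW f u) x) = u.W i * x i := by
  have := Tl102.dt_cmb_fr hf u.W x i
  exact this

theorem xh_fW {f : Fin 3 → V3} (hf : Ortho f) {c : Ln4} {u : Un} (hu : u.Ok) (T : Ln4)
    (z : ℝ) (x : V3) : u.xh (phi f c z (T.pos z + cmb (fW f u) x)) =
      fun k => (ul u (rl f c T)).pos (u.zh z) k + x k := by
  rw [ul_pos hu, rl_pos]
  funext k
  have h := dt_cmb_fW hf u x k
  have hW := (hu.W0 k).ne'
  have e : dt (f k) (T.pos z + cmb (fW f u) x - c.pos z) =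
      dt (f k) (T.pos z - c.pos z) + dt (f k) (cmb (fW f u) x) := by
    simp only [dt, Pi.add_apply, Pi.sub_apply]; ring
  simp only [Un.xh, phi, e, h]
  field_simp

section tay

variable {f : Fin 3 → V3} {c : Ln4} {u : Un} {Q : Qd} {T : Ln4} {N R' : V3} {H : QF}

/-- **`Tay` in container coordinates** -/
theorem tay_hat (hf : Ortho f) (hu : u.Ok) (hT : Tay Q.ev T N R' H) (z : ℝ) (x : V3) :
    dt (N + z • R') (cmb (fW f u) x) =
      dt ((hatQ f c u Q).gr (u.zh z) ((ul u (rl f c T)).pos (u.zh z))) x ∧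
    H.ev (cmb (fW f u) x) = hes (hatQ f c u Q) x := by
  have key : ∀ x : V3, Fq N R' H z (cmb (fW f u) x) =
      dt ((hatQ f c u Q).gr (u.zh z) ((ul u (rl f c T)).pos (u.zh z))) x +
        hes (hatQ f c u Q) x := by
    intro x
    have h := hT z (cmb (fW f u) x)
    rw [← hatQ_ev hf c hu Q z (T.pos z + cmb (fW f u) x), ← hatQ_line hf c hu Q z T,
      xh_fW hf hu, ev_add] at h
    linarith
  have h1 := key x
  have h2 := key (fun k => -x k)
  have e0 : cmb (fW f u) (fun k => -x k) = fun k => -cmb (fW f u) x k := by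
    funext k; simp only [cmb]; ring
  rw [e0] at h2
  set y := cmb (fW f u) x with hy
  have e1 : Fq N R' H z y = dt (N + z • R') y + H.ev y := by
    simp only [Fq, dt, bz, Pi.add_apply, Pi.smul_apply, smul_eq_mul]
  have e2 : Fq N R' H z (fun k => -y k) = -dt (N + z • R') y + H.ev y := by
    simp only [Fq, dt, bz, QF.ev, Pi.add_apply, Pi.smul_apply, smul_eq_mul]; ring
  have e3 : ∀ g X : V3, dt g (fun k => -X k) = -dt g X := by
    intro g X; simp only [dt]; ring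
  have e4 : ∀ X : V3, hes (hatQ f c u Q) (fun k => -X k) = hes (hatQ f c u Q) X := by
    intro X; simp only [hes, Fin.sum_univ_three]; ring
  rw [e1] at h1
  rw [e2, e3, e4] at h2
  constructor <;> linarith

/-- the rotation -/
theorem tay_gd (hf : Ortho f) (hu : u.Ok) (hT : Tay Q.ev T N R' H) (x : V3) :
    u.H * dt R' (cmb (fW f u) x) = dt (gd (hatQ f c u Q) (ul u (rl f c T))) x := by
  have h0 := (tay_hat (c := c) hf hu hT u.zc x).1
  have h1 := (tay_hat (c := c) hf hu hT (u.zc + u.H) x).1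
  have z0 : u.zh u.zc = 0 := by simp [Un.zh]
  have z1 : u.zh (u.zc + u.H) = 1 := by
    have := hu.H0.ne'
    simp only [Un.zh]; field_simp; ring
  rw [z0] at h0
  rw [z1] at h1
  have k := fun k => gr_along (hatQ f c u Q) (ul u (rl f c T)) 0 1 k
  have e : dt ((hatQ f c u Q).gr 1 ((ul u (rl f c T)).pos 1)) x =
      dt ((hatQ f c u Q).gr 0 ((ul u (rl f c T)).pos 0)) x +
        dt (gd (hatQ f c u Q) (ul u (rl f c T))) x := by
    simp only [dt, k]; ring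
  have e2 : dt (N + (u.zc + u.H) • R') (cmb (fW f u) x) =
      dt (N + u.zc • R') (cmb (fW f u) x) + u.H * dt R' (cmb (fW f u) x) := by
    simp only [dt, Pi.add_apply, Pi.smul_apply, smul_eq_mul]; ring
  rw [e2, h0, e] at h1
  linarith

/-- `N × R` in container coordinates -/
theorem cr_hat (hf : Ortho f) (hu : u.Ok) (hT : Tay Q.ev T N R' H) (z1 : ℝ) :
    cmb (fW f u) (crs (gd (hatQ f c u Q) (ul u (rl f c T)))
      ((hatQ f c u Q).gr z1 ((ul u (rl f c T)).pos z1))) =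
      (-(u.H * dtm (fW f u))) • cr N R' := by
  have hH := hu.H0.ne'
  set t := ul u (rl f c T) with ht
  set Qh := hatQ f c u Q with hQh
  -- the height
  set z := u.zc + u.H * z1 with hz
  have hz1 : u.zh z = z1 := by
    simp only [Un.zh, hz]; field_simp; ring
  have hN : ∀ k, dtf (fW f u) (N + z • R') k = Qh.gr z1 (t.pos z1) k := by
    intro k
    have := (tay_hat (c := c) hf hu hT z (Pi.single k 1)).1
    rw [hz1, ← ht, ← hQh] at this
    fin_cases k <;> simpa [dtf, dt, cmb] using this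
  have hR : ∀ k, u.H * dtf (fW f u) R' k = gd Qh t k := by
    intro k
    have := tay_gd (c := c) hf hu hT (Pi.single k 1)
    rw [← ht, ← hQh] at this
    fin_cases k <;> simpa [dtf, dt, cmb] using this
  have h := cr_dtf (fW f u) (N + z • R') R'
  rw [Thn768.cr_add_smul] at h
  have e : crs (gd Qh t) (Qh.gr z1 (t.pos z1)) =
      fun k => -u.H * cr (dtf (fW f u) (N + z • R')) (dtf (fW f u) R') k := by
    funext k
    fin_cases k <;>
      simp only [crs, cr, ← hR, ← hN, Matrix.cons_val, Fin.zero_eta, Fin.mk_one,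
        Fin.reduceFinMk] <;> ring
  rw [e]
  have e2 : cmb (fW f u) (fun k => -u.H * cr (dtf (fW f u) (N + z • R')) (dtf (fW f u) R') k) =
      (-u.H) • cmb (fW f u) (cr (dtf (fW f u) (N + z • R')) (dtf (fW f u) R')) := by
    funext i; simp only [cmb, Pi.smul_apply, smul_eq_mul]; ring
  rw [e2, h, smul_smul]
  congr 1
  ring

theorem dtm_fW {f : Fin 3 → V3} (hf : Ortho f) (u : Un) :
    dtm (fW f u) ^ 2 = (u.WY * u.WA * u.WB) ^ 2 := by
  have h := dtm_ortho hf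
  have e : dtm (fW f u) = u.WY * u.WA * u.WB * dtm f := by
    have W0 : u.W 0 = u.WY := rfl
    have W1 : u.W 1 = u.WA := rfl
    have W2 : u.W 2 = u.WB := rfl
    simp only [dtm, fW, dt, cr, Pi.smul_apply, smul_eq_mul, Matrix.cons_val, W0, W1, W2]
    ring
  rw [e, mul_pow, h, mul_one]

/-- **`D3` in container coordinates** -/
theorem D3_hat (hf : Ortho f) (hu : u.Ok) (hT : Tay Q.ev T N R' H) (z1 : ℝ) :
    hes (hatQ f c u Q) (crs (gd (hatQ f c u Q) (ul u (rl f c T)))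
      ((hatQ f c u Q).gr z1 ((ul u (rl f c T)).pos z1))) =
      (u.H * (u.WY * u.WA * u.WB)) ^ 2 * D3 N R' H := by
  rw [← (tay_hat (c := c) hf hu hT u.zc _).2, cr_hat hf hu hT z1, Thn768.ev_smul, neg_sq, mul_pow,
    dtm_fW hf u]
  unfold D3
  ring

/-- **`Ω = N × R` in container coordinates** -/
theorem Om_hat (hf : Ortho f) (hu : u.Ok) (hT : Tay Q.ev T N R' H) (z1 : ℝ) :
    |crs (gd (hatQ f c u Q) (ul u (rl f c T)))
      ((hatQ f c u Q).gr z1 ((ul u (rl f c T)).pos z1)) 1| =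
      u.H * (u.WY * u.WB) * |dt (f 1) (cr N R')| := by
  have h := cr_hat (c := c) hf hu hT z1
  have h1 := dt_cmb_fW hf u (crs (gd (hatQ f c u Q) (ul u (rl f c T)))
      ((hatQ f c u Q).gr z1 ((ul u (rl f c T)).pos z1))) 1
  rw [h] at h1
  have e : dt (f 1) ((-(u.H * dtm (fW f u))) • cr N R') =
      -(u.H * dtm (fW f u)) * dt (f 1) (cr N R') := by
    simp only [dt, Pi.smul_apply, smul_eq_mul]; ring
  rw [e] at h1
  have h2 := congrArg abs h1
  have hA := hu.A0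
  have hB := hu.B0
  have hY := hu.Y0
  have hd : |dtm (fW f u)| = u.WY * u.WA * u.WB := by
    have := dtm_fW hf u
    have h3 : 0 ≤ u.WY * u.WA * u.WB := by positivity
    rw [← abs_of_nonneg h3]
    exact (sq_eq_sq_iff_abs_eq_abs _ _).1 this
  have W1 : u.W 1 = u.WA := rfl
  rw [abs_mul, abs_neg, abs_mul, hd, abs_of_pos hu.H0, abs_mul, W1, abs_of_pos hA] at h2
  have h4 : u.WA * |crs (gd (hatQ f c u Q) (ul u (rl f c T)))
      ((hatQ f c u Q).gr z1 ((ul u (rl f c T)).pos z1)) 1| =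
      u.WA * (u.H * (u.WY * u.WB) * |dt (f 1) (cr N R')|) := by
    rw [← h2]; ring
  exact mul_left_cancel₀ hA.ne' h4

end tay

/-! ### lower bounds near the model -/

theorem Nr.crs_ge {Q : Qd} {t : Ln4} {z1 κ ν R η : ℝ} (h : Nr Q t z1 κ ν R η)
    (hκa : |κ| ≤ 1) (hR : 1 ≤ R) (hv : |t.v 1| ≤ R) (hη0 : 0 ≤ η)
    (hs : 1200 * (η * R ^ 4) ≤ |κ|) :
    |ν| ^ 2 / 2 ≤ |crs (gd Q t) (Q.gr z1 (t.pos z1)) 1| ∧
      |ν| ^ 5 * |κ| / 8 ≤ |hes Q (crs (gd Q t) (Q.gr z1 (t.pos z1)))| := by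
  have hν := abs_nonneg ν
  have hR4 : 1 ≤ R ^ 4 := one_le_pow₀ hR
  have hηR : η ≤ η * R ^ 4 := le_mul_of_one_le_right hη0 hR4
  have hRR4 : R ≤ R ^ 4 := by
    have : R ^ 1 ≤ R ^ 4 := pow_le_pow_right₀ hR (by norm_num)
    rwa [pow_one] at this
  have hηR1 : η * R ≤ η * R ^ 4 := mul_le_mul_of_nonneg_left hRR4 hη0
  have hκ0 := abs_nonneg κ
  set g := Q.gr z1 (t.pos z1) with hg
  set g' := gd Q t with hg'
  have b0 : |g 0| ≤ |ν| * 2 := by
    have e : g 0 = (g 0 - ν) + ν := by ring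
    rw [e]
    refine (a2 h.g0 le_rfl).trans ?_
    nlinarith
  have b1 := h.g1
  have b2 := h.g2
  have d0 : |g' 0| ≤ |ν| * η := h.d0
  have d1 : |g' 1| ≤ |ν| * (3 * R) := by
    have e : g' 1 = (g' 1 + ν * (2 * κ * t.v 1)) - ν * (2 * κ * t.v 1) := by ring
    rw [e]
    have two : |(2 : ℝ)| ≤ 2 := by norm_num
    have c : |2 * κ * t.v 1| ≤ 2 * 1 * R := m2 (m2 two hκa) hv
    refine (s2 h.d1 (m2 (le_refl |ν|) c)).trans ?_
    have : |ν| * η ≤ |ν| * R := mul_le_mul_of_nonneg_left (by linarith) hν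
    linarith
  have d2 : |g' 2| ≤ |ν| * 2 := by
    have e : g' 2 = (g' 2 + ν) - ν := by ring
    rw [e]
    refine (s2 h.d2 le_rfl).trans ?_
    nlinarith
  have hν2 : 0 ≤ |ν| ^ 2 := by positivity
  have c0 : |crs g' g 0| ≤ 12 * R ^ 2 * |ν| ^ 2 := by
    show |g' 1 * g 2 - g' 2 * g 1| ≤ _
    refine (s2 (m2 d1 b2) (m2 d2 b1)).trans ?_
    have e : |ν| * (3 * R) * (|ν| * (2 * R)) + |ν| * 2 * (|ν| * (3 * R)) =
      |ν| ^ 2 * (6 * R ^ 2 + 6 * R) := by ring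
    rw [e]
    have : 6 * R ^ 2 + 6 * R ≤ 12 * R ^ 2 := by nlinarith
    have := mul_le_mul_of_nonneg_left this hν2
    linarith
  have c2 : |crs g' g 2| ≤ 12 * R ^ 2 * |ν| ^ 2 := by
    show |g' 0 * g 1 - g' 1 * g 0| ≤ _
    refine (s2 (m2 d0 b1) (m2 d1 b0)).trans ?_
    have e : |ν| * η * (|ν| * (3 * R)) + |ν| * (3 * R) * (|ν| * 2) =
      |ν| ^ 2 * (3 * (η * R) + 6 * R) := by ring
    rw [e]
    have : 3 * (η * R) + 6 * R ≤ 12 * R ^ 2 := by nlinarith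
    have := mul_le_mul_of_nonneg_left this hν2
    linarith
  -- the component `1`
  have e1 : crs g' g 1 = -(ν * ν) + ((g' 2 + ν) * g 0 - ν * (g 0 - ν) - g' 0 * g 2) := by
    show g' 2 * g 0 - g' 0 * g 2 = _
    ring
  have err : |(g' 2 + ν) * g 0 - ν * (g 0 - ν) - g' 0 * g 2| ≤ |ν| ^ 2 / 4 := by
    refine (s2 (s2 (m2 h.d2 b0) (m2 (le_refl |ν|) h.g0)) (m2 d0 b2)).trans ?_
    have e : |ν| * η * (|ν| * 2) + |ν| * (|ν| * η) + |ν| * η * (|ν| * (2 * R)) =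
      |ν| ^ 2 * (3 * η + 2 * (η * R)) := by ring
    rw [e]
    have : 3 * η + 2 * (η * R) ≤ 1 / 4 := by linarith
    have := mul_le_mul_of_nonneg_left this hν2
    linarith
  have hνν : |ν * ν| = |ν| ^ 2 := by rw [abs_mul]; ring
  have lo : |ν| ^ 2 * (3 / 4) ≤ |crs g' g 1| := by
    rw [e1]
    have := abs_sub_abs_le_abs_sub (-(ν * ν)) (-((g' 2 + ν) * g 0 - ν * (g 0 - ν) - g' 0 * g 2))
    rw [sub_neg_eq_add, abs_neg, abs_neg, hνν] at this
    linarith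
  have hi : |crs g' g 1| ≤ |ν| ^ 2 * (5 / 4) := by
    rw [e1]
    refine (abs_add_le _ _).trans ?_
    rw [abs_neg, hνν]
    linarith
  have c1 : |crs g' g 1| ≤ 12 * R ^ 2 * |ν| ^ 2 := by
    refine hi.trans ?_
    have : 5 / 4 ≤ 12 * R ^ 2 := by nlinarith
    have := mul_le_mul_of_nonneg_right this hν2
    linarith
  refine ⟨by linarith, ?_⟩
  have hB : ∀ k, |crs g' g k| ≤ 12 * R ^ 2 * |ν| ^ 2 := by
    intro k; fin_cases k
    · exact c0
    · exact c1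
    · exact c2
  have hh := h.hh (crs g' g) _ hB
  have e2 : |ν| * (η * (12 * R ^ 2 * |ν| ^ 2) ^ 2) = |ν| ^ 5 * (144 * (η * R ^ 4)) := by ring
  rw [e2] at hh
  have k1 : |ν| * (|κ| * (|ν| ^ 2 * (3 / 4)) ^ 2) ≤ |ν * (κ * crs g' g 1 ^ 2)| := by
    rw [abs_mul, abs_mul, abs_pow]
    refine mul_le_mul_of_nonneg_left (mul_le_mul_of_nonneg_left ?_ hκ0) hν
    exact pow_le_pow_left₀ (by positivity) lo 2
  have k2 : |ν| * (|κ| * (|ν| ^ 2 * (3 / 4)) ^ 2) = |ν| ^ 5 * |κ| * (9 / 16) := by ring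
  rw [k2] at k1
  have k3 := abs_sub_abs_le_abs_sub (ν * (κ * crs g' g 1 ^ 2)) (-hes Q (crs g' g))
  rw [sub_neg_eq_add, abs_neg] at k3
  have k4 : |ν * (κ * crs g' g 1 ^ 2) + hes Q (crs g' g)| ≤ |ν| ^ 5 * (144 * (η * R ^ 4)) := by
    rw [add_comm]; exact hh
  have hν5 : 0 ≤ |ν| ^ 5 := by positivity
  have k5 : |ν| ^ 5 * (144 * (η * R ^ 4)) ≤ |ν| ^ 5 * (|κ| * (3 / 16)) :=
    mul_le_mul_of_nonneg_left (by linarith) hν5
  nlinarith [mul_nonneg hν5 hκ0]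

/-- upper bound of the curvature extent `Ye` -/
theorem Y_up {ν H WY WA WB P C δ Ye w1 D Om h cr1 : ℝ} (hν : 0 < |ν|) (hH : 0 < H) (hY : 0 < WY)
    (hA : 0 < WA) (hB : 0 < WB) (hC : 0 ≤ C) (hYe : 0 < Ye) (hw1 : 0 ≤ w1) (hP : 0 ≤ P)
    (e1 : |h| = (H * (WY * WA * WB)) ^ 2 * |D|) (e2 : |cr1| = H * (WY * WB) * |Om|)
    (h1 : |h| ≤ 26 * |ν| ^ 5) (h2 : |ν| ^ 2 / 2 ≤ |cr1|)
    (k1 : δ * Ye ^ 3 ≤ C * (|D| * P ^ 2)) (k2 : |Om| * P ≤ C * (Ye * w1)) :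
    δ * Ye ≤ 104 * C ^ 3 * (|ν| * (w1 / WA) ^ 2) := by
  have a1 : |D| * (H * (WY * WB)) ^ 2 * WA ^ 2 ≤ 26 * |ν| ^ 5 := by
    have : |D| * (H * (WY * WB)) ^ 2 * WA ^ 2 = (H * (WY * WA * WB)) ^ 2 * |D| := by ring
    rw [this, ← e1]; exact h1
  have a3 : |ν| ^ 2 ≤ 2 * (H * (WY * WB) * |Om|) := by rw [← e2]; linarith
  have hOm : 0 ≤ |Om| := abs_nonneg _
  have a4 : |ν| ^ 4 ≤ 4 * (H * (WY * WB)) ^ 2 * |Om| ^ 2 := by
    have := pow_le_pow_left₀ (by positivity) a3 2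
    calc |ν| ^ 4 = (|ν| ^ 2) ^ 2 := by ring
      _ ≤ (2 * (H * (WY * WB) * |Om|)) ^ 2 := this
      _ = _ := by ring
  have a5 : |D| * (H * (WY * WB)) ^ 2 * WA ^ 2 ≤
      (104 * |ν| * |Om| ^ 2) * (H * (WY * WB)) ^ 2 := by
    refine a1.trans ?_
    have : 26 * |ν| ^ 5 = 26 * |ν| * |ν| ^ 4 := by ring
    rw [this]
    calc 26 * |ν| * |ν| ^ 4 ≤ 26 * |ν| * (4 * (H * (WY * WB)) ^ 2 * |Om| ^ 2) :=
          mul_le_mul_of_nonneg_left a4 (by positivity)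
      _ = _ := by ring
  have hpos : 0 < (H * (WY * WB)) ^ 2 := by positivity
  have a6 : |D| * WA ^ 2 ≤ 104 * |ν| * |Om| ^ 2 := by
    have : (|D| * WA ^ 2) * (H * (WY * WB)) ^ 2 ≤ (104 * |ν| * |Om| ^ 2) * (H * (WY * WB)) ^ 2 := by
      calc (|D| * WA ^ 2) * (H * (WY * WB)) ^ 2 = |D| * (H * (WY * WB)) ^ 2 * WA ^ 2 := by ring
        _ ≤ _ := a5
    exact le_of_mul_le_mul_right this hpos
  have a7 : (|Om| * P) ^ 2 ≤ (C * (Ye * w1)) ^ 2 := pow_le_pow_left₀ (by positivity) k2 2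
  have a8 : δ * Ye ^ 3 * WA ^ 2 ≤ 104 * C ^ 3 * |ν| * w1 ^ 2 * Ye ^ 2 := by
    calc δ * Ye ^ 3 * WA ^ 2 ≤ C * (|D| * P ^ 2) * WA ^ 2 :=
          mul_le_mul_of_nonneg_right k1 (by positivity)
      _ = C * P ^ 2 * (|D| * WA ^ 2) := by ring
      _ ≤ C * P ^ 2 * (104 * |ν| * |Om| ^ 2) := mul_le_mul_of_nonneg_left a6 (by positivity)
      _ = 104 * C * |ν| * (|Om| * P) ^ 2 := by ring
      _ ≤ 104 * C * |ν| * (C * (Ye * w1)) ^ 2 := mul_le_mul_of_nonneg_left a7 (by positivity)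
      _ = _ := by ring
  have a9 : δ * Ye * WA ^ 2 ≤ 104 * C ^ 3 * |ν| * w1 ^ 2 := by
    have : (δ * Ye * WA ^ 2) * Ye ^ 2 ≤ (104 * C ^ 3 * |ν| * w1 ^ 2) * Ye ^ 2 := by
      calc (δ * Ye * WA ^ 2) * Ye ^ 2 = δ * Ye ^ 3 * WA ^ 2 := by ring
        _ ≤ _ := a8
    exact le_of_mul_le_mul_right this (by positivity)
  rw [div_pow, ← mul_div_assoc, ← mul_div_assoc, le_div_iff₀ (by positivity)]
  linarith

/-- lower bound of the curvature extent -/
theorem Y_low {ν H WY WA WB ρ w1 w2 C Ye κ D h : ℝ} (hν : 0 < |ν|) (hH : 0 < H) (hY : 0 < WY)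
    (hA : 0 < WA) (hB : 0 < WB) (hC : 0 < C)
    (e1 : |h| = (H * (WY * WA * WB)) ^ 2 * |D|)
    (h1 : |ν| ^ 5 * κ / 8 ≤ |h|) (k1 : |D| * (ρ * (w1 * w2)) ^ 2 ≤ C * Ye ^ 3) :
    κ / (8 * C) * (|ν| / WY) ^ 2 * (ρ / H * (w1 * w2 / (WA * WB))) ^ 2 * |ν| ^ 3 ≤ Ye ^ 3 := by
  have a1 : |ν| ^ 5 * κ / 8 * (ρ * (w1 * w2)) ^ 2 ≤
      (H * (WY * WA * WB)) ^ 2 * (C * Ye ^ 3) := by
    calc |ν| ^ 5 * κ / 8 * (ρ * (w1 * w2)) ^ 2 ≤ |h| * (ρ * (w1 * w2)) ^ 2 :=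
          mul_le_mul_of_nonneg_right h1 (by positivity)
      _ = (H * (WY * WA * WB)) ^ 2 * (|D| * (ρ * (w1 * w2)) ^ 2) := by rw [e1]; ring
      _ ≤ _ := mul_le_mul_of_nonneg_left k1 (by positivity)
  have e : κ / (8 * C) * (|ν| / WY) ^ 2 * (ρ / H * (w1 * w2 / (WA * WB))) ^ 2 * |ν| ^ 3 =
      (|ν| ^ 5 * κ / 8 * (ρ * (w1 * w2)) ^ 2) / (C * (H * (WY * WA * WB)) ^ 2) := by
    field_simp
  rw [e, div_le_iff₀ (by positivity)]
  linarith

end Crest.Agent.R136.Stc321
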