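import Crest.Agent.R136.Stc3_321

/-!
# R136, U6 thin side, stage C (helper321), part 4: the basis adapted to a plank

`Bas` : three vectors `φ` (container coordinates) adapted to a plank, against the gradient `g` and
its derivative `g'` of a polynomial near the model; consequences: sizes, rotation, area, coordinates
of a vector (`Bas.coord`), lateral position (`Bas.lat`), inverse matrix (`Bas.inv`).
-/

set_option autoImplicit false
set_option linter.unusedVariables false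

namespace Crest.Agent.R136.Stc321

open Crest.Agent.R136.Sh605
open Crest.Agent.R136.NetW191
open Crest.Agent.R136.GeoN778
open Crest.Agent.R136.Wit321

/-- sum of the sizes -/
def sm1 (X : V3) : ℝ := |X 0| + |X 1| + |X 2|

theorem sm1_nonneg (X : V3) : 0 ≤ sm1 X := by unfold sm1; positivity

theorem le_sm1 (X : V3) (k : Fin 3) : |X k| ≤ sm1 X := by
  have x0 := abs_nonneg (X 0)
  have x1 := abs_nonneg (X 1)
  have x2 := abs_nonneg (X 2)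
  unfold sm1
  fin_cases k
  · show |X 0| ≤ _; linarith
  · show |X 1| ≤ _; linarith
  · show |X 2| ≤ _; linarith

/-- determinant of three vectors -/
def dt3 (φ : Fin 3 → V3) : ℝ :=
  φ 0 0 * (φ 1 1 * φ 2 2 - φ 1 2 * φ 2 1) - φ 0 1 * (φ 1 0 * φ 2 2 - φ 1 2 * φ 2 0) +
    φ 0 2 * (φ 1 0 * φ 2 1 - φ 1 1 * φ 2 0)

/-- **basis adapted to a plank** -/
structure Bas (g g' : V3) (φ : Fin 3 → V3) (κ v1 R η rh Y X A1 A2 α : ℝ) : Prop where
  κ1 : |κ| ≤ 1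
  v : |v1| ≤ R
  R1 : 1 ≤ R
  η0 : 0 ≤ η
  ηR : 40 * (R * η) ≤ 1
  rh0 : 0 < rh
  rh1 : rh ≤ 1
  Y0 : 0 < Y
  X0 : 0 ≤ X
  X1 : X ≤ 1
  A0 : 0 < A2
  A12 : A2 ≤ A1
  α0 : 0 < α
  g0 : |g 0 - 1| ≤ η
  g1 : |g 1| ≤ 3 * R
  g2 : |g 2| ≤ 2 * R
  g0' : |g' 0| ≤ η
  g1' : |g' 1 + 2 * κ * v1| ≤ η
  g2' : |g' 2 + 1| ≤ η
  a0 : |dt g (φ 0)| ≤ 32 * Y
  ak : |dt g (φ 1)| ≤ X * Y ∧ |dt g (φ 2)| ≤ X * Y
  c0 : |rh * dt g' (φ 0)| ≤ 25 * Y
  ck : |rh * dt g' (φ 1)| ≤ 17 * Y ∧ |rh * dt g' (φ 2)| ≤ 17 * Y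
  lo : ∀ ζ, 0 ≤ ζ → ζ ≤ 1 → Y / 64 ≤ |dt g (φ 0) + ζ * (rh * dt g' (φ 0))|
  p0 : |φ 0 0| ≤ 200 * Y
  p1 : |φ 0 1| ≤ 200 * (Y * η)
  p2 : |φ 0 2| ≤ 200 * (Y * η)
  q1 : |φ 1 1| ≤ 3 * A1
  q2 : |φ 2 1| ≤ 3 * A2
  det : Y * α / 200 ≤ |dt3 φ|

namespace Bas

variable {g g' : V3} {φ : Fin 3 → V3} {κ v1 R η rh Y X A1 A2 α : ℝ}

/-- size of the basis -/
noncomputable def sz (R rh Y A1 : ℝ) : ℝ := 136 * (R * Y / rh) + 78 * (R ^ 2 * A1)

/-- rotation of the basis -/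
noncomputable def rt (R η rh Y A1 : ℝ) : ℝ := 17 * (Y / rh) + 3 * (η * sz R rh Y A1)

theorem Y_rh (h : Bas g g' φ κ v1 R η rh Y X A1 A2 α) : Y ≤ Y / rh := by
  rw [le_div_iff₀ h.rh0]
  have := mul_le_mul_of_nonneg_left h.rh1 h.Y0.le
  linarith

theorem A1p (h : Bas g g' φ κ v1 R η rh Y X A1 A2 α) : 0 < A1 := h.A0.trans_le h.A12

theorem sz0 (h : Bas g g' φ κ v1 R η rh Y X A1 A2 α) : 0 ≤ sz R rh Y A1 := by
  have := h.R1
  have := h.rh0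
  have := h.Y0
  have := h.A1p
  unfold sz
  positivity

theorem rt0 (h : Bas g g' φ κ v1 R η rh Y X A1 A2 α) : 0 ≤ rt R η rh Y A1 := by
  have := h.sz0
  have := h.rh0
  have := h.Y0
  have := h.η0
  unfold rt
  positivity

theorem lin {k : Fin 3} (h : Bas g g' φ κ v1 R η rh Y X A1 A2 α) (h1 : |dt g (φ k)| ≤ X * Y)
    (h2 : |rh * dt g' (φ k)| ≤ 17 * Y) (h3 : |φ k 1| ≤ 3 * A1) :
    sm1 (φ k) ≤ sz R rh Y A1 ∧ |φ k 2 + 2 * κ * v1 * φ k 1| ≤ rt R η rh Y A1 := by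
  have hXY : X * Y ≤ 17 * Y / rh := by
    have e1 : X * Y ≤ Y := mul_le_of_le_one_left h.Y0.le h.X1
    have e2 := h.Y_rh
    have e3 : 17 * Y / rh = 17 * (Y / rh) := by ring
    have := h.Y0
    rw [e3]; linarith
  have hX0 : 0 ≤ X * Y := mul_nonneg h.X0 h.Y0.le
  rw [abs_mul, abs_of_pos h.rh0] at h2
  obtain ⟨s1, s3⟩ := la_lin (Z' := 17 * Y) h.R1 h.η0 h.κ1 h.v h.rh0 hX0 hXY h.g0 h.g1 h.g2 h.g0'
    h.g1' h.g2' h1 h2 h.ηR
  have hR := h.R1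
  have hs : sm1 (φ k) ≤ sz R rh Y A1 := by
    have e : R ^ 2 * |φ k 1| ≤ R ^ 2 * (3 * A1) := mul_le_mul_of_nonneg_left h3 (sq_nonneg R)
    have e2 : 8 * (R * (17 * Y) / rh) = 136 * (R * Y / rh) := by ring
    unfold sm1 sz
    linarith
  refine ⟨hs, s3.trans ?_⟩
  have e3 : 17 * Y / rh = 17 * (Y / rh) := by ring
  unfold rt
  rw [e3]
  have := mul_le_mul_of_nonneg_left hs h.η0
  unfold sm1 at this
  linarith

theorem lin1 (h : Bas g g' φ κ v1 R η rh Y X A1 A2 α) :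
    sm1 (φ 1) ≤ sz R rh Y A1 ∧ |φ 1 2 + 2 * κ * v1 * φ 1 1| ≤ rt R η rh Y A1 :=
  h.lin h.ak.1 h.ck.1 h.q1

theorem lin2 (h : Bas g g' φ κ v1 R η rh Y X A1 A2 α) :
    sm1 (φ 2) ≤ sz R rh Y A1 ∧ |φ 2 2 + 2 * κ * v1 * φ 2 1| ≤ rt R η rh Y A1 :=
  h.lin h.ak.2 h.ck.2 (h.q2.trans (by have := h.A12; linarith))

/-- area -/
theorem area (h : Bas g g' φ κ v1 R η rh Y X A1 A2 α)
    (hs : 10 ^ 6 * (Y * (η * sz R rh Y A1)) ≤ α) :
    α / 30000 ≤ |φ 1 1 * φ 2 2 - φ 1 2 * φ 2 1| := by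
  set ar := φ 1 1 * φ 2 2 - φ 1 2 * φ 2 1 with har
  set M := sz R rh Y A1 with hM
  have hM0 : 0 ≤ M := h.sz0
  have s1 := fun k => (le_sm1 (φ 1) k).trans h.lin1.1
  have s2' := fun k => (le_sm1 (φ 2) k).trans h.lin2.1
  have e : g 0 * dt3 φ = dt g (φ 0) * ar - dt g (φ 1) * (φ 0 1 * φ 2 2 - φ 0 2 * φ 2 1) +
      dt g (φ 2) * (φ 0 1 * φ 1 2 - φ 0 2 * φ 1 1) := by
    simp only [dt3, dt, har]; ring
  have hY := h.Y0
  have b1 : |φ 0 1 * φ 2 2 - φ 0 2 * φ 2 1| ≤ 400 * (Y * η) * M := by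
    refine (s2 (m2 h.p1 (s2' 2)) (m2 h.p2 (s2' 1))).trans (le_of_eq (by ring))
  have b2 : |φ 0 1 * φ 1 2 - φ 0 2 * φ 1 1| ≤ 400 * (Y * η) * M := by
    refine (s2 (m2 h.p1 (s1 2)) (m2 h.p2 (s1 1))).trans (le_of_eq (by ring))
  have b3 : |g 0 * dt3 φ| ≤ 32 * Y * |ar| + 800 * (Y * (Y * η * M)) := by
    rw [e]
    refine (a2 (s2 (m2 h.a0 le_rfl) (m2 h.ak.1 b1)) (m2 h.ak.2 b2)).trans ?_
    have : X * Y * (400 * (Y * η) * M) ≤ 1 * Y * (400 * (Y * η) * M) := by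
      refine mul_le_mul_of_nonneg_right (mul_le_mul_of_nonneg_right h.X1 hY.le) ?_
      have := h.η0
      positivity
    linarith
  have b4 : Y * α / 400 ≤ |g 0 * dt3 φ| := by
    rw [abs_mul]
    have g1 : 1 / 2 ≤ |g 0| := by
      have h1 := (abs_le.1 h.g0).1
      have h2 := h.ηR
      have h3 : η ≤ R * η := le_mul_of_one_le_left h.η0 h.R1
      have : 1 / 2 ≤ g 0 := by linarith
      exact this.trans (le_abs_self _)
    have h0 : 0 ≤ Y * α / 200 := by have := h.α0; positivity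
    calc Y * α / 400 = 1 / 2 * (Y * α / 200) := by ring
      _ ≤ |g 0| * |dt3 φ| := mul_le_mul g1 h.det h0 (abs_nonneg _)
  have b5 : Y * (α / 400) ≤ Y * (32 * |ar| + 800 * (Y * η * M)) := by
    have : Y * α / 400 = Y * (α / 400) := by ring
    rw [← this]
    refine (b4.trans b3).trans (le_of_eq (by ring))
  have b6 := le_of_mul_le_mul_left b5 hY
  have e3 : Y * (η * M) = Y * η * M := by ring
  rw [e3] at hs
  have := h.α0
  linarith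

/-- **coordinates of a vector** -/
theorem coord (h : Bas g g' φ κ v1 R η rh Y X A1 A2 α)
    (hs : 10 ^ 6 * (Y * (η * sz R rh Y A1)) ≤ α)
    (hs2 : 2 ^ 27 * (400 * (Y * η * rt R η rh Y A1) + 3600 * (A1 * R * (Y * η))) ≤ α)
    {τ : V3} {V : V3} (hV : ∀ k, V k = τ 0 * φ 0 k + τ 1 * φ 1 k + τ 2 * φ 2 k) {a b c ζ : ℝ}
    (ha : |V 1| ≤ a) (hb : |V 2 + 2 * κ * v1 * V 1| ≤ b) (ζ0 : 0 ≤ ζ) (ζ1 : ζ ≤ 1)
    (hc : |dt g V + ζ * (rh * dt g' V)| ≤ Y * c) :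
    |τ 1| + |τ 2| ≤ 2 * (30000 / α * (2 * (a * rt R η rh Y A1) + 6 * (A1 * b))) + c ∧
      |τ 0| ≤ 128 * c + 2304 * (30000 / α * (2 * (a * rt R η rh Y A1) + 6 * (A1 * b))) := by
  set D := rt R η rh Y A1 with hD
  have D0 : 0 ≤ D := h.rt0
  have hY := h.Y0
  have hη := h.η0
  have hα := h.α0
  have hA1 := h.A1p
  have hR := h.R1
  have ha0 : 0 ≤ a := (abs_nonneg _).trans ha
  have hb0 : 0 ≤ b := (abs_nonneg _).trans hb
  set ar := φ 1 1 * φ 2 2 - φ 1 2 * φ 2 1 with har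
  have har1 := h.area hs
  rw [← har] at har1
  set t := |τ 1| + |τ 2| with ht
  have t1 := abs_nonneg (τ 1)
  have t2 := abs_nonneg (τ 2)
  have t0 := abs_nonneg (τ 0)
  -- the first coordinate
  have k0 : |τ 0| ≤ 64 * c + 1152 * t := by
    have e : dt g V + ζ * (rh * dt g' V) = τ 0 * (dt g (φ 0) + ζ * (rh * dt g' (φ 0))) +
        (τ 1 * (dt g (φ 1) + ζ * (rh * dt g' (φ 1))) +
          τ 2 * (dt g (φ 2) + ζ * (rh * dt g' (φ 2)))) := by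
      simp only [dt, hV]; ring
    have eζ : |ζ| ≤ 1 := by rw [abs_of_nonneg ζ0]; exact ζ1
    have u1 : |dt g (φ 1) + ζ * (rh * dt g' (φ 1))| ≤ 18 * Y := by
      refine (a2 h.ak.1 (m2 eζ h.ck.1)).trans ?_
      have := mul_le_of_le_one_left hY.le h.X1
      linarith
    have u2 : |dt g (φ 2) + ζ * (rh * dt g' (φ 2))| ≤ 18 * Y := by
      refine (a2 h.ak.2 (m2 eζ h.ck.2)).trans ?_
      have := mul_le_of_le_one_left hY.le h.X1
      linarith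
    have e2 : τ 0 * (dt g (φ 0) + ζ * (rh * dt g' (φ 0))) =
        (dt g V + ζ * (rh * dt g' V)) - (τ 1 * (dt g (φ 1) + ζ * (rh * dt g' (φ 1))) +
          τ 2 * (dt g (φ 2) + ζ * (rh * dt g' (φ 2)))) := by rw [e]; ring
    have e3 : |τ 0 * (dt g (φ 0) + ζ * (rh * dt g' (φ 0)))| ≤ Y * c + (|τ 1| * (18 * Y) +
        |τ 2| * (18 * Y)) := by
      rw [e2]
      exact s2 hc (a2 (m2 le_rfl u1) (m2 le_rfl u2))
    rw [abs_mul] at e3
    have e4 := mul_le_mul_of_nonneg_left (h.lo ζ ζ0 ζ1) t0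
    have e5 : Y * (|τ 0| / 64) ≤ Y * (c + 18 * t) := by
      have : |τ 0| * (Y / 64) = Y * (|τ 0| / 64) := by ring
      rw [← this]
      refine (e4.trans e3).trans (le_of_eq ?_)
      rw [ht]; ring
    have := le_of_mul_le_mul_left e5 hY
    linarith
  -- reduced vector
  set V1 := V 1 - τ 0 * φ 0 1 with hV1
  set V2 := V 2 - τ 0 * φ 0 2 with hV2
  have w1 : |V1| ≤ a + |τ 0| * (200 * (Y * η)) := s2 ha (m2 le_rfl h.p1)
  have two : |(2 : ℝ)| ≤ 2 := by norm_num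
  have w2 : |V2 + 2 * κ * v1 * V1| ≤ b + |τ 0| * (600 * (R * (Y * η))) := by
    have e : V2 + 2 * κ * v1 * V1 = (V 2 + 2 * κ * v1 * V 1) -
        τ 0 * (φ 0 2 + 2 * κ * v1 * φ 0 1) := by rw [hV1, hV2]; ring
    rw [e]
    have q : |φ 0 2 + 2 * κ * v1 * φ 0 1| ≤ 600 * (R * (Y * η)) := by
      refine (a2 h.p2 (m2 (m2 (m2 two h.κ1) h.v) h.p1)).trans ?_
      have : Y * η ≤ R * (Y * η) := le_mul_of_one_le_left (by positivity) hR
      nlinarith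
    exact s2 hb (m2 le_rfl q)
  have x1 : τ 1 * ar = V1 * (φ 2 2 + 2 * κ * v1 * φ 2 1) - (V2 + 2 * κ * v1 * V1) * φ 2 1 := by
    rw [hV1, hV2, har, hV 1, hV 2]; ring
  have x2 : τ 2 * ar = (V2 + 2 * κ * v1 * V1) * φ 1 1 - V1 * (φ 1 2 + 2 * κ * v1 * φ 1 1) := by
    rw [hV1, hV2, har, hV 1, hV 2]; ring
  have hq2 : |φ 2 1| ≤ 3 * A1 := h.q2.trans (by have := h.A12; linarith)
  have y1 := s2 (m2 w1 h.lin2.2) (m2 w2 hq2)
  have y2 := s2 (m2 w2 h.q1) (m2 w1 h.lin1.2)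
  rw [← x1, abs_mul] at y1
  rw [← x2, abs_mul] at y2
  rw [← hD] at y1 y2
  have z1 := mul_le_mul_of_nonneg_left har1 t1
  have z2 := mul_le_mul_of_nonneg_left har1 t2
  have k1 : t * (α / 30000) ≤ (2 * (a * D) + 6 * (A1 * b)) + |τ 0| *
      (400 * (Y * η * D) + 3600 * (A1 * R * (Y * η))) := by
    have e : t * (α / 30000) = |τ 1| * (α / 30000) + |τ 2| * (α / 30000) := by rw [ht]; ring
    rw [e]
    refine (add_le_add (z1.trans y1) (z2.trans y2)).trans (le_of_eq (by ring))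
  set T := 30000 / α * (2 * (a * D) + 6 * (A1 * b)) with hT
  have T0 : 0 ≤ T := by rw [hT]; positivity
  have k2 : t ≤ T + |τ 0| / 4096 := by
    have e1 : t = t * (α / 30000) * (30000 / α) := by field_simp
    have e2 : t * (α / 30000) * (30000 / α) ≤ ((2 * (a * D) + 6 * (A1 * b)) + |τ 0| *
      (400 * (Y * η * D) + 3600 * (A1 * R * (Y * η)))) * (30000 / α) :=
      mul_le_mul_of_nonneg_right k1 (by positivity)
    have e3 : ((2 * (a * D) + 6 * (A1 * b)) + |τ 0| *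
      (400 * (Y * η * D) + 3600 * (A1 * R * (Y * η)))) * (30000 / α) = T + |τ 0| *
        ((400 * (Y * η * D) + 3600 * (A1 * R * (Y * η))) * (30000 / α)) := by rw [hT]; ring
    have e4 : (400 * (Y * η * D) + 3600 * (A1 * R * (Y * η))) * (30000 / α) ≤ 1 / 4096 := by
      rw [mul_div_assoc', div_le_iff₀ hα]
      linarith
    rw [e3] at e2
    have := mul_le_mul_of_nonneg_left e4 t0
    linarith
  have hc0 : 0 ≤ c := by
    have := (abs_nonneg _).trans hc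
    by_contra hn
    push Not at hn
    have := mul_neg_of_pos_of_neg hY hn
    linarith
  have k3 : |τ 0| ≤ 128 * c + 2304 * T := by linarith
  refine ⟨?_, k3⟩
  linarith

/-- **lateral position** -/
theorem lat (h : Bas g g' φ κ v1 R η rh Y X A1 A2 α) {τ : V3} {V : V3}
    (hV : ∀ k, V k = τ 0 * φ 0 k + τ 1 * φ 1 k + τ 2 * φ 2 k) {m0 m1 : ℝ} (h0 : |τ 0| ≤ m0)
    (h1 : |τ 1| ≤ m1) (h2 : |τ 2| ≤ m1) :
    |V 1| ≤ 200 * (m0 * (Y * η)) + 6 * (m1 * A1) ∧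
      |V 2 + 2 * κ * v1 * V 1| ≤ 600 * (m0 * (R * (Y * η))) + 2 * (m1 * rt R η rh Y A1) := by
  have hη := h.η0
  have hY := h.Y0
  have two : |(2 : ℝ)| ≤ 2 := by norm_num
  have m0' : 0 ≤ m0 := (abs_nonneg _).trans h0
  have m1' : 0 ≤ m1 := (abs_nonneg _).trans h1
  constructor
  · rw [hV 1]
    refine (a2 (a2 (m2 h0 h.p1) (m2 h1 h.q1)) (m2 h2 h.q2)).trans ?_
    have := mul_le_mul_of_nonneg_left h.A12 m1'
    linarith
  · have e : V 2 + 2 * κ * v1 * V 1 = τ 0 * (φ 0 2 + 2 * κ * v1 * φ 0 1) +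
        τ 1 * (φ 1 2 + 2 * κ * v1 * φ 1 1) + τ 2 * (φ 2 2 + 2 * κ * v1 * φ 2 1) := by
      rw [hV 1, hV 2]; ring
    have q : |φ 0 2 + 2 * κ * v1 * φ 0 1| ≤ 600 * (R * (Y * η)) := by
      refine (a2 h.p2 (m2 (m2 (m2 two h.κ1) h.v) h.p1)).trans ?_
      have : Y * η ≤ R * (Y * η) := le_mul_of_one_le_left (by positivity) h.R1
      nlinarith
    rw [e]
    refine (a2 (a2 (m2 h0 q) (m2 h1 h.lin1.2)) (m2 h2 h.lin2.2)).trans (le_of_eq (by ring))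

/-- all entries -/
theorem ent (h : Bas g g' φ κ v1 R η rh Y X A1 A2 α) (i k : Fin 3) :
    |φ i k| ≤ 200 * Y + sz R rh Y A1 := by
  have hY := h.Y0
  have hs := h.sz0
  have hη : Y * η ≤ Y := by
    have h3 : η ≤ R * η := le_mul_of_one_le_left h.η0 h.R1
    have := h.ηR
    exact mul_le_of_le_one_right hY.le (by linarith)
  fin_cases i
  · fin_cases k
    · exact h.p0.trans (by linarith)
    · exact h.p1.trans (by linarith)
    · exact h.p2.trans (by linarith)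
  · exact ((le_sm1 _ k).trans h.lin1.1).trans (by linarith)
  · exact ((le_sm1 _ k).trans h.lin2.1).trans (by linarith)

/-- **inverse matrix** -/
theorem inv (h : Bas g g' φ κ v1 R η rh Y X A1 A2 α) {τ : V3} {V : V3}
    (hV : ∀ k, V k = τ 0 * φ 0 k + τ 1 * φ 1 k + τ 2 * φ 2 k) {B : ℝ} (hB : ∀ k, |V k| ≤ B)
    (i : Fin 3) : |τ i| ≤ 1200 * (B * (200 * Y + sz R rh Y A1) ^ 2) / (Y * α) := by
  have hY := h.Y0
  have hα := h.α0
  set E := 200 * Y + sz R rh Y A1 with hE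
  have hent := h.ent
  rw [← hE] at hent
  have hdet := h.det
  have key : |τ i| * |dt3 φ| ≤ 6 * (B * E ^ 2) := by
    rw [← abs_mul]
    have m : ∀ i j k l, |φ i j * φ k l| ≤ E * E := fun i j k l => m2 (hent i j) (hent k l)
    have d : ∀ a b c d e f g h, |φ a b * φ c d - φ e f * φ g h| ≤ 2 * (E * E) := by
      intro a b c d e f g h
      refine (s2 (m a b c d) (m e f g h)).trans (le_of_eq (by ring))
    fin_cases i
    · have e : τ 0 * dt3 φ = V 0 * (φ 1 1 * φ 2 2 - φ 1 2 * φ 2 1) -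
          V 1 * (φ 1 0 * φ 2 2 - φ 1 2 * φ 2 0) + V 2 * (φ 1 0 * φ 2 1 - φ 1 1 * φ 2 0) := by
        simp only [hV, dt3]; ring
      show |τ 0 * dt3 φ| ≤ _
      rw [e]
      refine (a2 (s2 (m2 (hB 0) (d _ _ _ _ _ _ _ _)) (m2 (hB 1) (d _ _ _ _ _ _ _ _)))
        (m2 (hB 2) (d _ _ _ _ _ _ _ _))).trans (le_of_eq (by ring))
    · have e : τ 1 * dt3 φ = -(V 0 * (φ 0 1 * φ 2 2 - φ 0 2 * φ 2 1)) +
          V 1 * (φ 0 0 * φ 2 2 - φ 0 2 * φ 2 0) - V 2 * (φ 0 0 * φ 2 1 - φ 0 1 * φ 2 0) := by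
        simp only [hV, dt3]; ring
      show |τ 1 * dt3 φ| ≤ _
      rw [e]
      have n : |-(V 0 * (φ 0 1 * φ 2 2 - φ 0 2 * φ 2 1))| ≤ B * (2 * (E * E)) := by
        rw [abs_neg]; exact m2 (hB 0) (d _ _ _ _ _ _ _ _)
      refine (s2 (a2 n (m2 (hB 1) (d _ _ _ _ _ _ _ _)))
        (m2 (hB 2) (d _ _ _ _ _ _ _ _))).trans (le_of_eq (by ring))
    · have e : τ 2 * dt3 φ = V 0 * (φ 0 1 * φ 1 2 - φ 0 2 * φ 1 1) -
          V 1 * (φ 0 0 * φ 1 2 - φ 0 2 * φ 1 0) + V 2 * (φ 0 0 * φ 1 1 - φ 0 1 * φ 1 0) := by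
        simp only [hV, dt3]; ring
      show |τ 2 * dt3 φ| ≤ _
      rw [e]
      refine (a2 (s2 (m2 (hB 0) (d _ _ _ _ _ _ _ _)) (m2 (hB 1) (d _ _ _ _ _ _ _ _)))
        (m2 (hB 2) (d _ _ _ _ _ _ _ _))).trans (le_of_eq (by ring))
  have k2 := (mul_le_mul_of_nonneg_left hdet (abs_nonneg (τ i))).trans key
  rw [le_div_iff₀ (by positivity)]
  linarith

end Bas

end Crest.Agent.R136.Stc321
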