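import Crest.Agent.R136.Thn2_768
import Crest.Agent.R136.Coi1_102

/-!
# R136 (S0187), U6 thin side (helper768), part 3: a second function on a nondegenerate sheet

`Own` : expansion of a nondegenerate mark along its line; `Snd` : a second function `q' = m q + ω`
with small `ω` (helper102's `OmB`).  Bounds of `D3`, `Ω`, polar form, rotation.
-/

set_option autoImplicit false
set_option linter.unusedVariables false

namespace Crest.Agent.R136.Thn768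

open Crest.Agent.R136.Sh605 Crest.Agent.R136.Tl102 Crest.Agent.R136.K4
open Crest.Agent.R136.KapP335 (DetP kapP)

/-- Euclidean norm -/
noncomputable def nm (x : V3) : ℝ := Real.sqrt (dt x x)

/-- own expansion of a nondegenerate mark along the line `T` -/
structure Own (S : Plk4) (T : Ln4) (z0 ρ δ : ℝ) (b0 b1 : V3) (G : QF) : Prop where
  ortho : Ortho S.e
  pos : ∀ i, 0 < S.w i
  w02 : S.w 0 ≤ S.w 2
  w21 : S.w 2 ≤ S.w 1
  hρ : 0 < ρ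
  exp : IsExp S.q S.e S.w T z0 ρ b0 b1 G
  nrm : NrmC b0 b1 G
  k0 : 0 < kap b0 b1 G
  δ0 : 0 < δ
  det : DetP δ S z0 ρ T

/-- `q' = m q + ω`, `ω` small on the own basis of `S`; `N, R, H` = Taylor data of `q'` -/
structure Snd (S : Plk4) (T : Ln4) (z0 ρ : ℝ) (b0 b1 : V3) (G : QF) (X : ℝ) (q' : ℝ → V3 → ℝ)
    (N R : V3) (H : QF) : Prop where
  tay : Tay q' T N R H
  ex : ∃ b0' b1' G', IsExp q' S.e S.w T z0 ρ b0' b1' G' ∧ 1 / 16 ≤ |b0' 0 / b0 0| ∧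
    |b0' 0 / b0 0| ≤ 16 ∧ OmB (kap b0 b1 G) X X X b0 b1 G b0' b1' G'

/-! ### vectors -/

theorem dt_self_nonneg (x : V3) : 0 ≤ dt x x := by
  simp only [dt]; nlinarith [sq_nonneg (x 0), sq_nonneg (x 1), sq_nonneg (x 2)]

theorem nm_nonneg (x : V3) : 0 ≤ nm x := Real.sqrt_nonneg _

theorem nm_sq (x : V3) : nm x ^ 2 = dt x x := Real.sq_sqrt (dt_self_nonneg x)

theorem nm_smul (c : ℝ) (x : V3) : nm (c • x) = |c| * nm x := by
  have e : dt (c • x) (c • x) = c ^ 2 * dt x x := by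
    simp only [dt, Pi.smul_apply, smul_eq_mul]; ring
  unfold nm
  rw [e, Real.sqrt_mul (sq_nonneg c), Real.sqrt_sq_eq_abs]

/-- Cauchy–Schwarz -/
theorem abs_dt_le (x y : V3) : |dt x y| ≤ nm x * nm y := by
  apply abs_le_of_sq_le_sq _ (mul_nonneg (nm_nonneg x) (nm_nonneg y))
  rw [mul_pow, nm_sq, nm_sq]
  simp only [dt]
  nlinarith [sq_nonneg (x 0 * y 1 - x 1 * y 0), sq_nonneg (x 0 * y 2 - x 2 * y 0),
    sq_nonneg (x 1 * y 2 - x 2 * y 1)]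

theorem nm_unit {e : Fin 3 → V3} (he : Ortho e) (i : Fin 3) : nm (e i) = 1 := by
  have h : dt (e i) (e i) = 1 := by simpa using he i i
  unfold nm
  rw [h, Real.sqrt_one]

theorem abs_dt_unit {e : Fin 3 → V3} (he : Ortho e) (i : Fin 3) (x : V3) : |dt (e i) x| ≤ nm x := by
  have := abs_dt_le (e i) x
  rwa [nm_unit he, one_mul] at this

/-- the norm in an orthonormal frame -/
theorem dt_frame {e : Fin 3 → V3} (he : Ortho e) (x y : V3) :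
    dt x y = dt (e 0) x * dt (e 0) y + dt (e 1) x * dt (e 1) y + dt (e 2) x * dt (e 2) y := by
  have h : x = cmb e (fun k => dt (e k) x) := by
    have := cmb_pv he (w := fun _ => 1) (by intro k; norm_num) x
    have e1 : fr e (fun _ => (1 : ℝ)) = e := by
      funext k; simp [fr]
    rw [e1] at this
    rw [← this]
    congr 1
    funext k
    rw [this]
    simp [pv]
  have h2 : dt x y = dt (cmb e (fun k => dt (e k) x)) y := by rw [← h]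
  rw [h2]
  simp only [dt, cmb]
  ring

theorem nm_le_sum {e : Fin 3 → V3} (he : Ortho e) (x : V3) :
    nm x ≤ |dt (e 0) x| + |dt (e 1) x| + |dt (e 2) x| := by
  have h := dt_frame he x x
  unfold nm
  rw [h]
  apply Real.sqrt_le_iff.2
  refine ⟨by positivity, ?_⟩
  have e0 := sq_abs (dt (e 0) x)
  have e1 := sq_abs (dt (e 1) x)
  have e2 := sq_abs (dt (e 2) x)
  nlinarith [abs_nonneg (dt (e 0) x), abs_nonneg (dt (e 1) x), abs_nonneg (dt (e 2) x),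
    mul_nonneg (abs_nonneg (dt (e 0) x)) (abs_nonneg (dt (e 1) x)),
    mul_nonneg (abs_nonneg (dt (e 0) x)) (abs_nonneg (dt (e 2) x)),
    mul_nonneg (abs_nonneg (dt (e 1) x)) (abs_nonneg (dt (e 2) x))]

theorem abs_apply_le (x : V3) (i : Fin 3) : |x i| ≤ nm x := by
  apply abs_le_of_sq_le_sq _ (nm_nonneg x)
  rw [nm_sq]
  simp only [dt]
  fin_cases i <;> simp only [Fin.zero_eta, Fin.mk_one, Fin.reduceFinMk] <;>
    nlinarith [sq_nonneg (x 0), sq_nonneg (x 1), sq_nonneg (x 2)]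

theorem nm_le_coord {x : V3} {B : ℝ} (h : ∀ i, |x i| ≤ B) : nm x ≤ 3 * B := by
  have hB : 0 ≤ B := (abs_nonneg _).trans (h 0)
  unfold nm
  apply Real.sqrt_le_iff.2
  refine ⟨by positivity, ?_⟩
  simp only [dt]
  have h0 := sq_le_sq' (abs_le.1 (h 0)).1 (abs_le.1 (h 0)).2
  have h1 := sq_le_sq' (abs_le.1 (h 1)).1 (abs_le.1 (h 1)).2
  have h2 := sq_le_sq' (abs_le.1 (h 2)).1 (abs_le.1 (h 2)).2
  nlinarith

/-! ### forms -/

theorem ev_le {G : QF} {K : ℝ} (h : G.Le K) {x : V3} {M : ℝ} (hx : ∀ k, |x k| ≤ M) :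
    |G.ev x| ≤ 6 * (K * (M * M)) := by
  obtain ⟨h1, h2, h3, h4, h5, h6⟩ := h
  have e : G.ev x = G.yy * (x 0 * x 0) + G.yu * (x 0 * x 1) + G.yv * (x 0 * x 2) +
      G.uu * (x 1 * x 1) + G.uv * (x 1 * x 2) + G.vv * (x 2 * x 2) := by
    simp only [QF.ev]; ring
  rw [e]
  have p := fun i j => mul_abs_le (hx i) (hx j)
  refine (Arc880.abs_add2 (Arc880.abs_add2 (Arc880.abs_add2 (Arc880.abs_add2 (Arc880.abs_add2
    (mul_abs_le h1 (p 0 0)) (mul_abs_le h2 (p 0 1))) (mul_abs_le h3 (p 0 2)))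
    (mul_abs_le h4 (p 1 1))) (mul_abs_le h5 (p 1 2))) (mul_abs_le h6 (p 2 2))).trans
    (le_of_eq (by ring))

theorem pol_le {G : QF} {K : ℝ} (h : G.Le K) {x y : V3} {M M' : ℝ} (hx : ∀ k, |x k| ≤ M)
    (hy : ∀ k, |y k| ≤ M') : |G.pol x y| ≤ 12 * (K * (M * M')) := by
  obtain ⟨h1, h2, h3, h4, h5, h6⟩ := h
  have e : G.pol x y = G.yy * (x 0 * y 0) + G.yy * (x 0 * y 0) + G.yu * (x 0 * y 1) +
      G.yu * (x 1 * y 0) + G.yv * (x 0 * y 2) + G.yv * (x 2 * y 0) + G.uu * (x 1 * y 1) +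
      G.uu * (x 1 * y 1) + G.uv * (x 1 * y 2) + G.uv * (x 2 * y 1) + G.vv * (x 2 * y 2) +
      G.vv * (x 2 * y 2) := by
    simp only [QF.pol]; ring
  rw [e]
  have p := fun i j => mul_abs_le (hx i) (hy j)
  refine (Arc880.abs_add2 (Arc880.abs_add2 (Arc880.abs_add2 (Arc880.abs_add2 (Arc880.abs_add2
    (Arc880.abs_add2 (Arc880.abs_add2 (Arc880.abs_add2 (Arc880.abs_add2 (Arc880.abs_add2
    (Arc880.abs_add2 (mul_abs_le h1 (p 0 0)) (mul_abs_le h1 (p 0 0))) (mul_abs_le h2 (p 0 1)))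
    (mul_abs_le h2 (p 1 0))) (mul_abs_le h3 (p 0 2))) (mul_abs_le h3 (p 2 0)))
    (mul_abs_le h4 (p 1 1))) (mul_abs_le h4 (p 1 1))) (mul_abs_le h5 (p 1 2)))
    (mul_abs_le h5 (p 2 1))) (mul_abs_le h6 (p 2 2))) (mul_abs_le h6 (p 2 2))).trans
    (le_of_eq (by ring))

theorem cr_le {x y : V3} {M M' : ℝ} (hx : ∀ k, |x k| ≤ M) (hy : ∀ k, |y k| ≤ M') (k : Fin 3) :
    |cr x y k| ≤ 2 * (M * M') := by
  have p := fun i j => mul_abs_le (hx i) (hy j)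
  have q : ∀ i j i' j', |x i * y j - x i' * y j'| ≤ 2 * (M * M') := fun i j i' j' => by
    refine (abs_sub _ _).trans ?_
    linarith [p i j, p i' j']
  fin_cases k
  · exact q 1 2 2 1
  · exact q 2 0 0 2
  · exact q 0 1 1 0

theorem ev_add (G : QF) (x y : V3) : G.ev (x + y) = G.ev x + G.ev y + G.pol x y := by
  simp only [QF.ev, QF.pol, Pi.add_apply]; ring

/-! ### numbers: the coefficients of the second function -/

/-- coefficients `β', Γ'` near `m (β, Γ)`, `(β, Γ)` normalised and nondegenerate -/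
structure Num (m X δ : ℝ) (β0 β1 : V3) (Γ : QF) (β0' β1' : V3) (Γ' : QF) : Prop where
  m1 : 1 / 16 ≤ |m|
  m2 : |m| ≤ 16
  X0 : 0 ≤ X
  d0 : ∀ k, |β0' k - m * β0 k| ≤ X
  d1 : ∀ k, |β1' k - m * β1 k| ≤ X
  dG : (QF.comb m Γ' Γ).Le X
  b1 : 1 / 2 ≤ β0 0
  b2 : β0 0 ≤ 2
  b3 : 1 / 2 ≤ β0 0 + β1 0
  b01 : β0 1 = 0
  b02 : β0 2 = 0
  r0 : |β1 0| ≤ 3 / 2
  r1 : |β1 1| ≤ 1
  r2 : |β1 2| ≤ 1
  G : Γ.Le 13
  uu : |Γ.uu| ≤ 1
  uv : |Γ.uv| ≤ 1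
  vv : |Γ.vv| ≤ 1
  det : 2 ^ 24 * δ ≤ |Γ.uu * β1 2 ^ 2 - Γ.uv * (β1 1 * β1 2) + Γ.vv * β1 1 ^ 2|

section num

variable {m X δ : ℝ} {β0 β1 : V3} {Γ : QF} {β0' β1' : V3} {Γ' : QF}

theorem close_le {a b m X M : ℝ} (h : |a - m * b| ≤ X) (hm : |m| ≤ 16) (hb : |b| ≤ M) :
    |a| ≤ 16 * M + X := by
  have e : a = m * b + (a - m * b) := by ring
  rw [e]
  exact Arc880.abs_add2 (mul_abs_le hm hb) h

theorem Num.β0_abs (h : Num m X δ β0 β1 Γ β0' β1' Γ') (k : Fin 3) : |β0 k| ≤ 2 := by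
  fin_cases k
  · change |β0 0| ≤ 2
    exact abs_le.2 ⟨by have := h.b1; linarith, h.b2⟩
  · change |β0 1| ≤ 2; rw [h.b01]; norm_num
  · change |β0 2| ≤ 2; rw [h.b02]; norm_num

theorem Num.β1_abs (h : Num m X δ β0 β1 Γ β0' β1' Γ') (k : Fin 3) : |β1 k| ≤ 3 / 2 := by
  fin_cases k
  · exact h.r0
  · exact h.r1.trans (by norm_num)
  · exact h.r2.trans (by norm_num)

theorem Num.β0'_le (h : Num m X δ β0 β1 Γ β0' β1' Γ') (hX : X ≤ 1) (k : Fin 3) : |β0' k| ≤ 33 := by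
  have := close_le (h.d0 k) h.m2 (h.β0_abs k); linarith

theorem Num.β1'_le (h : Num m X δ β0 β1 Γ β0' β1' Γ') (hX : X ≤ 1) (k : Fin 3) : |β1' k| ≤ 25 := by
  have := close_le (h.d1 k) h.m2 (h.β1_abs k); linarith

theorem Num.Γ'_le (h : Num m X δ β0 β1 Γ β0' β1' Γ') (hX : X ≤ 1) : Γ'.Le 209 := by
  obtain ⟨g1, g2, g3, g4, g5, g6⟩ := h.G
  obtain ⟨k1, k2, k3, k4, k5, k6⟩ := h.dG
  have f : ∀ {a b : ℝ}, |a - m * b| ≤ X → |b| ≤ 13 → |a| ≤ 209 := fun h1 h2 => by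
    have := close_le h1 h.m2 h2; linarith
  exact ⟨f k1 g1, f k2 g2, f k3 g3, f k4 g4, f k5 g5, f k6 g6⟩

theorem Num.Ω_le (h : Num m X δ β0 β1 Γ β0' β1' Γ') (hX : X ≤ 1) (k : Fin 3) :
    |cr β0' β1' k| ≤ 1650 := by
  have := cr_le (h.β0'_le hX) (h.β1'_le hX) k
  linarith

/-- the own vector -/
def ωv (β0 β1 : V3) : V3 := ![0, -(β0 0 * β1 2), β0 0 * β1 1]

theorem Num.ωv_le (h : Num m X δ β0 β1 Γ β0' β1' Γ') (k : Fin 3) : |ωv β0 β1 k| ≤ 2 := by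
  have h1 := mul_abs_le (h.β0_abs 0) h.r1
  have h2 := mul_abs_le (h.β0_abs 0) h.r2
  fin_cases k
  · change |(0 : ℝ)| ≤ 2; norm_num
  · change |-(β0 0 * β1 2)| ≤ 2
    rw [abs_neg]; linarith
  · change |β0 0 * β1 1| ≤ 2; linarith

theorem prod_close {a b a' b' m X A B : ℝ} (ha : |a' - m * a| ≤ X) (hb : |b' - m * b| ≤ X)
    (hb' : |b'| ≤ B) (hA : |m * a| ≤ A) : |a' * b' - m ^ 2 * (a * b)| ≤ X * B + A * X := by
  have e : a' * b' - m ^ 2 * (a * b) = (a' - m * a) * b' + m * a * (b' - m * b) := by ring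
  rw [e]
  exact Arc880.abs_add2 (mul_abs_le ha hb') (mul_abs_le hA hb)

theorem Num.dΩ (h : Num m X δ β0 β1 Γ β0' β1' Γ') (hX : X ≤ 1) (k : Fin 3) :
    |(cr β0' β1' - (m ^ 2) • ωv β0 β1) k| ≤ 82 * X := by
  have hA : |m * β0 0| ≤ 32 := by
    have := mul_abs_le h.m2 (h.β0_abs 0); linarith
  have z1 : |β0' 1| ≤ X := by
    have := h.d0 1; rwa [h.b01, mul_zero, sub_zero] at this
  have z2 : |β0' 2| ≤ X := by
    have := h.d0 2; rwa [h.b02, mul_zero, sub_zero] at this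
  have p1 := prod_close (h.d0 0) (h.d1 1) (h.β1'_le hX 1) hA
  have p2 := prod_close (h.d0 0) (h.d1 2) (h.β1'_le hX 2) hA
  have hX0 := h.X0
  fin_cases k
  · change |β0' 1 * β1' 2 - β0' 2 * β1' 1 - m ^ 2 * 0| ≤ 82 * X
    rw [mul_zero, sub_zero]
    refine (abs_sub _ _).trans ?_
    have q1 := mul_abs_le z1 (h.β1'_le hX 2)
    have q2 := mul_abs_le z2 (h.β1'_le hX 1)
    linarith
  · change |β0' 2 * β1' 0 - β0' 0 * β1' 2 - m ^ 2 * -(β0 0 * β1 2)| ≤ 82 * X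
    have e : β0' 2 * β1' 0 - β0' 0 * β1' 2 - m ^ 2 * -(β0 0 * β1 2) =
        β0' 2 * β1' 0 - (β0' 0 * β1' 2 - m ^ 2 * (β0 0 * β1 2)) := by ring
    rw [e]
    refine (abs_sub _ _).trans ?_
    have q1 := mul_abs_le z2 (h.β1'_le hX 0)
    linarith
  · change |β0' 0 * β1' 1 - β0' 1 * β1' 0 - m ^ 2 * (β0 0 * β1 1)| ≤ 82 * X
    have e : β0' 0 * β1' 1 - β0' 1 * β1' 0 - m ^ 2 * (β0 0 * β1 1) =
        (β0' 0 * β1' 1 - m ^ 2 * (β0 0 * β1 1)) - β0' 1 * β1' 0 := by ring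
    rw [e]
    refine (abs_sub _ _).trans ?_
    have q1 := mul_abs_le z1 (h.β1'_le hX 0)
    linarith

/-- `D3` of the second function -/
theorem Num.dD (h : Num m X δ β0 β1 Γ β0' β1' Γ') (hX : X ≤ 1) :
    |D3 β0' β1' Γ' - m ^ 5 * Γ.ev (ωv β0 β1)| ≤ 2 * 10 ^ 8 * X := by
  set ω := ωv β0 β1 with hω
  set Ω := cr β0' β1' with hΩ
  set Δ := Ω - (m ^ 2) • ω with hΔ
  have hX0 := h.X0
  have e1 : D3 β0' β1' Γ' - m ^ 5 * Γ.ev ω =
      (QF.comb m Γ' Γ).ev Ω + m * (Γ.ev Δ + Γ.pol ((m ^ 2) • ω) Δ) := by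
    have e2 : Ω = (m ^ 2) • ω + Δ := by rw [hΔ]; abel
    have e3 : Γ.ev Ω = Γ.ev ((m ^ 2) • ω) + Γ.ev Δ + Γ.pol ((m ^ 2) • ω) Δ := by
      conv_lhs => rw [e2]
      exact ev_add _ _ _
    have e4 : Γ.ev ((m ^ 2) • ω) = m ^ 4 * Γ.ev ω := by rw [ev_smul]; ring
    have e5 : D3 β0' β1' Γ' = (QF.comb m Γ' Γ).ev Ω + m * Γ.ev Ω := by
      rw [D3, ← hΩ]
      simp only [QF.ev, QF.comb]; ring
    rw [e5, e3, e4]
    ring
  have hωm : ∀ k, |((m ^ 2) • ω) k| ≤ 512 := by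
    intro k
    change |m ^ 2 * ω k| ≤ 512
    have h1 : |m ^ 2| ≤ 256 := by
      rw [abs_pow]
      have := pow_le_pow_left₀ (abs_nonneg m) h.m2 2
      linarith
    have := mul_abs_le h1 (h.ωv_le k)
    linarith
  have k1 := ev_le h.dG (h.Ω_le hX)
  have k2 := ev_le h.G (h.dΩ hX)
  have k3 := pol_le h.G hωm (h.dΩ hX)
  rw [e1]
  refine (Arc880.abs_add2 k1 (mul_abs_le h.m2 (Arc880.abs_add2 k2 k3))).trans ?_
  have h4 : X * X ≤ X := by nlinarith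
  nlinarith

theorem ev_ωv (β0 β1 : V3) (Γ : QF) : Γ.ev (ωv β0 β1) =
    β0 0 ^ 2 * (Γ.uu * β1 2 ^ 2 - Γ.uv * (β1 1 * β1 2) + Γ.vv * β1 1 ^ 2) := by
  simp only [QF.ev, ωv, Matrix.cons_val]; ring

theorem Num.D_ge (h : Num m X δ β0 β1 Γ β0' β1' Γ') (hX : X ≤ 1) (hδ : X ≤ δ / 10 ^ 9) :
    3 * δ ≤ |D3 β0' β1' Γ'| := by
  have h1 := h.dD hX
  have h2 : 4 * δ ≤ |m ^ 5 * Γ.ev (ωv β0 β1)| := by
    rw [ev_ωv, abs_mul, abs_mul, abs_pow, abs_pow]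
    have a1 : (1 / 16 : ℝ) ^ 5 ≤ |m| ^ 5 := pow_le_pow_left₀ (by norm_num) h.m1 5
    have a2 : (1 / 2 : ℝ) ^ 2 ≤ |β0 0| ^ 2 := by
      rw [sq_abs]
      exact pow_le_pow_left₀ (by norm_num) h.b1 2
    have a3 := h.det
    by_cases hd : δ ≤ 0
    · refine le_trans (by linarith : 4 * δ ≤ 0) (by positivity)
    push Not at hd
    calc 4 * δ = (1 / 16 : ℝ) ^ 5 * ((1 / 2) ^ 2 * (2 ^ 24 * δ)) := by ring
      _ ≤ _ := by
        apply mul_le_mul a1 _ (by positivity) (by positivity)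
        exact mul_le_mul a2 a3 (by positivity) (by positivity)
  have h3 : |m ^ 5 * Γ.ev (ωv β0 β1)| ≤ |D3 β0' β1' Γ'| +
      |D3 β0' β1' Γ' - m ^ 5 * Γ.ev (ωv β0 β1)| := by
    have := abs_sub (D3 β0' β1' Γ') (D3 β0' β1' Γ' - m ^ 5 * Γ.ev (ωv β0 β1))
    rwa [sub_sub_cancel] at this
  have hX0 := h.X0
  linarith

theorem Num.D_le (h : Num m X δ β0 β1 Γ β0' β1' Γ') (hX : X ≤ 1) :
    |D3 β0' β1' Γ'| ≤ 10 ^ 10 := by
  refine (ev_le (h.Γ'_le hX) (h.Ω_le hX)).trans (by norm_num)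

/-- one of the two rotations is large -/
theorem Num.rot (h : Num m X δ β0 β1 Γ β0' β1' Γ') : 2 ^ 22 * δ ≤ max |β1 1| |β1 2| := by
  have h1 := h.det
  set M := max |β1 1| |β1 2| with hM
  have m1 : |β1 1| ≤ M := le_max_left _ _
  have m2 : |β1 2| ≤ M := le_max_right _ _
  have hM1 : M ≤ 1 := max_le h.r1 h.r2
  have hM0 : 0 ≤ M := (abs_nonneg _).trans m1
  have e : Γ.uu * β1 2 ^ 2 - Γ.uv * (β1 1 * β1 2) + Γ.vv * β1 1 ^ 2 =
      Γ.uu * (β1 2 * β1 2) + (-Γ.uv) * (β1 1 * β1 2) + Γ.vv * (β1 1 * β1 1) := by ring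
  have k : |Γ.uu * β1 2 ^ 2 - Γ.uv * (β1 1 * β1 2) + Γ.vv * β1 1 ^ 2| ≤ 3 * (M * M) := by
    rw [e]
    have huv : |-Γ.uv| ≤ 1 := by rw [abs_neg]; exact h.uv
    refine (Arc880.abs_add2 (Arc880.abs_add2 (mul_abs_le h.uu (mul_abs_le m2 m2))
      (mul_abs_le huv (mul_abs_le m1 m2))) (mul_abs_le h.vv (mul_abs_le m1 m1))).trans ?_
    linarith
  have : M * M ≤ M := by nlinarith
  have : 2 ^ 24 * δ ≤ 3 * M := by linarith
  by_cases hd : 0 ≤ δ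
  · nlinarith
  · push Not at hd
    linarith

/-- components of `Ω` -/
theorem Num.Ω1_ge (h : Num m X δ β0 β1 Γ β0' β1' Γ') (hX : X ≤ 1) :
    |β1 2| / 512 ≤ |cr β0' β1' 1| + 82 * X := by
  have h1 := h.dΩ hX 1
  have e : (cr β0' β1' - (m ^ 2) • ωv β0 β1) 1 = cr β0' β1' 1 - m ^ 2 * -(β0 0 * β1 2) := rfl
  rw [e] at h1
  have h2 : |β1 2| / 512 ≤ |m ^ 2 * -(β0 0 * β1 2)| := by
    rw [abs_mul, abs_neg, abs_mul, abs_pow]
    have a1 : (1 / 16 : ℝ) ^ 2 ≤ |m| ^ 2 := pow_le_pow_left₀ (by norm_num) h.m1 2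
    have a2 : (1 / 2 : ℝ) ≤ |β0 0| := h.b1.trans (le_abs_self _)
    calc |β1 2| / 512 = (1 / 16 : ℝ) ^ 2 * (1 / 2 * |β1 2|) := by ring
      _ ≤ _ := mul_le_mul a1 (mul_le_mul_of_nonneg_right a2 (abs_nonneg _)) (by positivity)
          (by positivity)
  have h3 := abs_sub (cr β0' β1' 1) (cr β0' β1' 1 - m ^ 2 * -(β0 0 * β1 2))
  rw [sub_sub_cancel] at h3
  linarith

theorem Num.Ω1_le (h : Num m X δ β0 β1 Γ β0' β1' Γ') (hX : X ≤ 1) :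
    |cr β0' β1' 1| ≤ 512 * |β1 2| + 82 * X := by
  have h1 := h.dΩ hX 1
  have e : (cr β0' β1' - (m ^ 2) • ωv β0 β1) 1 = cr β0' β1' 1 - m ^ 2 * -(β0 0 * β1 2) := rfl
  rw [e] at h1
  have h2 : |m ^ 2 * -(β0 0 * β1 2)| ≤ 512 * |β1 2| := by
    rw [abs_mul, abs_neg, abs_mul, abs_pow]
    have a1 : |m| ^ 2 ≤ 16 ^ 2 := pow_le_pow_left₀ (abs_nonneg _) h.m2 2
    calc _ ≤ (16 : ℝ) ^ 2 * (2 * |β1 2|) :=
          mul_le_mul a1 (mul_le_mul_of_nonneg_right (h.β0_abs 0) (abs_nonneg _)) (by positivity)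
            (by positivity)
      _ = _ := by ring
  have e2 : cr β0' β1' 1 = m ^ 2 * -(β0 0 * β1 2) + (cr β0' β1' 1 - m ^ 2 * -(β0 0 * β1 2)) := by
    ring
  rw [e2]
  exact Arc880.abs_add2 h2 h1

theorem Num.Ω2_ge (h : Num m X δ β0 β1 Γ β0' β1' Γ') (hX : X ≤ 1) :
    |β1 1| / 512 ≤ |cr β0' β1' 2| + 82 * X := by
  have h1 := h.dΩ hX 2
  have e : (cr β0' β1' - (m ^ 2) • ωv β0 β1) 2 = cr β0' β1' 2 - m ^ 2 * (β0 0 * β1 1) := rfl
  rw [e] at h1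
  have h2 : |β1 1| / 512 ≤ |m ^ 2 * (β0 0 * β1 1)| := by
    rw [abs_mul, abs_mul, abs_pow]
    have a1 : (1 / 16 : ℝ) ^ 2 ≤ |m| ^ 2 := pow_le_pow_left₀ (by norm_num) h.m1 2
    have a2 : (1 / 2 : ℝ) ≤ |β0 0| := h.b1.trans (le_abs_self _)
    calc |β1 1| / 512 = (1 / 16 : ℝ) ^ 2 * (1 / 2 * |β1 1|) := by ring
      _ ≤ _ := mul_le_mul a1 (mul_le_mul_of_nonneg_right a2 (abs_nonneg _)) (by positivity)
          (by positivity)
  have h3 := abs_sub (cr β0' β1' 2) (cr β0' β1' 2 - m ^ 2 * (β0 0 * β1 1))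
  rw [sub_sub_cancel] at h3
  linarith

/-- steepness of the second function -/
theorem Num.st (h : Num m X δ β0 β1 Γ β0' β1' Γ') (hX : X ≤ 1 / 256) {ζ : ℝ} (h0 : 0 ≤ ζ)
    (h1 : ζ ≤ 1) : 1 / 64 ≤ |(β0' + ζ • β1') 0| := by
  have e : (β0' + ζ • β1') 0 = m * (β0 0 + ζ * β1 0) + ((β0' 0 - m * β0 0) +
      ζ * (β1' 0 - m * β1 0)) := by
    simp only [Pi.add_apply, Pi.smul_apply, smul_eq_mul]; ring
  have g : 1 / 2 ≤ β0 0 + ζ * β1 0 := by nlinarith [h.b1, h.b3]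
  have k1 : 1 / 32 ≤ |m * (β0 0 + ζ * β1 0)| := by
    rw [abs_mul]
    have := mul_le_mul h.m1 (g.trans (le_abs_self _)) (by norm_num) (abs_nonneg _)
    linarith
  have hζ : |ζ| ≤ 1 := by rw [abs_of_nonneg h0]; exact h1
  have k2 : |(β0' 0 - m * β0 0) + ζ * (β1' 0 - m * β1 0)| ≤ 2 * X := by
    have := Arc880.abs_add2 (h.d0 0) (mul_abs_le hζ (h.d1 0)); linarith
  have k3 := abs_sub (m * (β0 0 + ζ * β1 0) + ((β0' 0 - m * β0 0) + ζ * (β1' 0 - m * β1 0)))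
    ((β0' 0 - m * β0 0) + ζ * (β1' 0 - m * β1 0))
  rw [add_sub_cancel_right] at k3
  rw [e]
  linarith

/-- gradient of the second function at the height `ζ` -/
theorem Num.g_le (h : Num m X δ β0 β1 Γ β0' β1' Γ') (hX : X ≤ 1) {ζ : ℝ} (h0 : 0 ≤ ζ)
    (h1 : ζ ≤ 1) (k : Fin 3) : |(β0' + ζ • β1') k| ≤ 58 := by
  have hζ : |ζ| ≤ 1 := by rw [abs_of_nonneg h0]; exact h1
  have := Arc880.abs_add2 (h.β0'_le hX k) (mul_abs_le hζ (h.β1'_le hX k))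
  refine this.trans (by norm_num)

end num

/-! ### geometry -/

section geo

variable {S : Plk4} {T : Ln4} {z0 ρ δ X : ℝ} {b0 b1 : V3} {G : QF} {q' : ℝ → V3 → ℝ} {N R : V3}
  {H : QF}

/-- the determinant of the conic at `ζ = 0` -/
theorem det_fan (b0 b1 : V3) (G : QF) (κ : ℝ) :
    Arc880.det3 (fan (shB0 b0) (scB1 κ b0 b1) (scG κ b0 G) 0) =
      -((scG κ b0 G).uu * scB1 κ b0 b1 2 ^ 2 - (scG κ b0 G).uv * (scB1 κ b0 b1 1 * scB1 κ b0 b1 2) +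
        (scG κ b0 G).vv * scB1 κ b0 b1 1 ^ 2) / 2 ^ 24 := by
  have s1 : slp (shB0 b0) (scB1 κ b0 b1) 1 0 = 0 := by
    simp [slp, shB0]
  have s2 : slp (shB0 b0) (scB1 κ b0 b1) 2 0 = 0 := by
    simp [slp, shB0]
  simp only [Arc880.det3, fan, s1, s2, Matrix.cons_val]
  ring

/-- own coefficients are normalised; a second function near a multiple -/
theorem Own.num (O : Own S T z0 ρ δ b0 b1 G) {b0' b1' : V3} {G' : QF}
    (m1 : 1 / 16 ≤ |b0' 0 / b0 0|) (m2 : |b0' 0 / b0 0| ≤ 16)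
    (hO : OmB (kap b0 b1 G) X X X b0 b1 G b0' b1' G') :
    Num (b0' 0 / b0 0) X δ (shB0 b0) (scB1 (kap b0 b1 G) b0 b1) (scG (kap b0 b1 G) b0 G)
      (gl (kap b0 b1 G) (b0 1 / b0 0) (b0 2 / b0 0) b0')
      (gl (kap b0 b1 G) (b0 1 / b0 0) (b0 2 / b0 0) b1')
      (gM (kap b0 b1 G) (b0 1 / b0 0) (b0 2 / b0 0) G') := by
  obtain ⟨g1, g2, g3, g4, g5, -, -, -, -⟩ := O.nrm.b1_le
  obtain ⟨c1, c2, c3, c4, c5, c6, c7, c8, c9, c10⟩ := O.nrm.sc_le O.k0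
  have hb0 : b0 0 ≠ 0 := by linarith
  set κ := kap b0 b1 G with hκ
  have hκ0 : κ ≠ 0 := O.k0.ne'
  set m := b0' 0 / b0 0 with hm
  have X0 := hO.nonneg.1
  have hm0 : b0' 0 = m * b0 0 := by rw [hm]; field_simp
  refine ⟨m1, m2, X0, ?_, ?_, ?_, g1, g2, g3, rfl, rfl, g5, c3, c4, ?_, c8, c9, c10, ?_⟩
  · intro k
    fin_cases k
    · change |b0' 0 - m * b0 0| ≤ X
      rw [hm0, sub_self, abs_zero]; exact X0
    · change |(b0' 1 - b0 1 / b0 0 * b0' 0) / κ - m * 0| ≤ X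
      have h := hO.h01
      have e : om0 κ b0 b0' 1 = (b0' 1 - b0 1 / b0 0 * b0' 0) / κ - m * 0 := by
        change (b0' 1 - b0' 0 / b0 0 * b0 1 - b0 1 / b0 0 * (b0' 0 - b0' 0 / b0 0 * b0 0)) / κ = _
        field_simp
        ring
      rwa [e] at h
    · change |(b0' 2 - b0 2 / b0 0 * b0' 0) / κ - m * 0| ≤ X
      have h := hO.h02
      have e : om0 κ b0 b0' 2 = (b0' 2 - b0 2 / b0 0 * b0' 0) / κ - m * 0 := by
        change (b0' 2 - b0' 0 / b0 0 * b0 2 - b0 2 / b0 0 * (b0' 0 - b0' 0 / b0 0 * b0 0)) / κ = _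
        field_simp
        ring
      rwa [e] at h
  · intro k
    fin_cases k
    · exact hO.y1
    · have h := hO.h11
      have e : om1 κ b0 b1 b0' b1' 1 = gl κ (b0 1 / b0 0) (b0 2 / b0 0) b1' 1 -
          m * scB1 κ b0 b1 1 := by
        change (b1' 1 - m * b1 1 - b0 1 / b0 0 * (b1' 0 - m * b1 0)) / κ =
          (b1' 1 - b0 1 / b0 0 * b1' 0) / κ - m * ((b1 1 - b0 1 / b0 0 * b1 0) / κ)
        ring
      rwa [e] at h
    · have h := hO.h12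
      have e : om1 κ b0 b1 b0' b1' 2 = gl κ (b0 1 / b0 0) (b0 2 / b0 0) b1' 2 -
          m * scB1 κ b0 b1 2 := by
        change (b1' 2 - m * b1 2 - b0 2 / b0 0 * (b1' 0 - m * b1 0)) / κ =
          (b1' 2 - b0 2 / b0 0 * b1' 0) / κ - m * ((b1 2 - b0 2 / b0 0 * b1 0) / κ)
        ring
      rwa [e] at h
  · have e : QF.comb m (gM κ (b0 1 / b0 0) (b0 2 / b0 0) G') (scG κ b0 G) = omM κ b0 G b0' G' := by
      apply QF.ext' <;> simp only [QF.comb, gM, scG, shG, omM] <;> ring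
    rw [e]
    exact ⟨hO.yy, hO.yu, hO.yv, hO.uu, hO.uv, hO.vv⟩
  · exact ⟨c5, c6.trans (by norm_num), c7.trans (by norm_num), c8.trans (by norm_num),
      c9.trans (by norm_num), c10.trans (by norm_num)⟩
  · have hd := O.det 0 le_rfl zero_le_one
    rw [KapP335.fanP_eq (O.pos 0).ne' O.exp, det_fan, abs_div, abs_neg,
      abs_of_pos (by norm_num : (0 : ℝ) < 2 ^ 24), le_div_iff₀ (by norm_num)] at hd
    linarith

/-- coefficients of the second function on the own basis -/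
theorem Own.hat (O : Own S T z0 ρ δ b0 b1 G) {b0' b1' : V3} {G' : QF}
    (hE : IsExp q' S.e S.w T z0 ρ b0' b1' G') (hT : Tay q' T N R H) :
    Hat (bs S.e S.w b0 (kap b0 b1 G)) (S.w 0 * kap b0 b1 G) z0 ρ N R H
      (gl (kap b0 b1 G) (b0 1 / b0 0) (b0 2 / b0 0) b0')
      (gl (kap b0 b1 G) (b0 1 / b0 0) (b0 2 / b0 0) b1')
      (gM (kap b0 b1 G) (b0 1 / b0 0) (b0 2 / b0 0) G') := by
  obtain ⟨g1, -⟩ := O.nrm.b1_le
  have hb0 : b0 0 ≠ 0 := by linarith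
  have hκ0 : kap b0 b1 G ≠ 0 := O.k0.ne'
  refine Hat.of fun ζ x => ?_
  rw [hat_of_exp hE hT hb0 hκ0]
  have hx : x = ![x 0, x 1, x 2] := by
    ext i; fin_cases i <;> rfl
  have e := Fq_g hκ0 (s₁ := b0 1 / b0 0) (s₂ := b0 2 / b0 0) b0' b1' G' ζ (x 0) (x 1) (x 2)
  rw [← hx] at e
  change S.w 0 * Fq b0' b1' G' ζ ![kap b0 b1 G * x 0 - b0 1 / b0 0 * x 1 - b0 2 / b0 0 * x 2,
    x 1, x 2] = _
  rw [e]
  ring

/-- the own function as second function -/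
theorem Own.snd (O : Own S T z0 ρ δ b0 b1 G) (hT : Tay S.q T N R H) :
    Snd S T z0 ρ b0 b1 G 0 S.q N R H := by
  obtain ⟨g1, -⟩ := O.nrm.b1_le
  have hb0 : b0 0 ≠ 0 := by linarith
  refine ⟨hT, b0, b1, G, O.exp, ?_, ?_, ?_⟩
  · rw [div_self hb0]; norm_num
  · rw [div_self hb0]; norm_num
  · have h0 : ∀ k, (fun k => b0 k - b0 0 / b0 0 * b0 k) k = 0 := by
      intro k; beta_reduce; rw [div_self hb0]; ring
    have h1 : ∀ k, (fun k => b1 k - b0 0 / b0 0 * b1 k) k = 0 := by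
      intro k; beta_reduce; rw [div_self hb0]; ring
    have e0 : om0 (kap b0 b1 G) b0 b0 = 0 := by
      unfold om0
      rw [show (fun k => b0 k - b0 0 / b0 0 * b0 k) = (0 : V3) from funext h0]
      ext k; fin_cases k <;> simp [gl]
    have e1 : om1 (kap b0 b1 G) b0 b1 b0 b1 = 0 := by
      unfold om1
      rw [show (fun k => b1 k - b0 0 / b0 0 * b1 k) = (0 : V3) from funext h1]
      ext k; fin_cases k <;> simp [gl]
    have e2 : omM (kap b0 b1 G) b0 G b0 G = ⟨0, 0, 0, 0, 0, 0⟩ := by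
      unfold omM
      rw [div_self hb0]
      apply QF.ext' <;> simp [gM, QF.comb]
    constructor <;> simp [e0, e1, e2]

/-- data of a second function: numbers and coefficients -/
theorem Snd.data (O : Own S T z0 ρ δ b0 b1 G) (h : Snd S T z0 ρ b0 b1 G X q' N R H) :
    ∃ (m : ℝ) (β0' β1' : V3) (Γ' : QF),
      Num m X δ (shB0 b0) (scB1 (kap b0 b1 G) b0 b1) (scG (kap b0 b1 G) b0 G) β0' β1' Γ' ∧
      Hat (bs S.e S.w b0 (kap b0 b1 G)) (S.w 0 * kap b0 b1 G) z0 ρ N R H β0' β1' Γ' := by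
  obtain ⟨b0', b1', G', hE, m1, m2, hO⟩ := h.ex
  exact ⟨_, _, _, _, O.num m1 m2 hO, O.hat hE h.tay⟩

theorem Own.dtm_abs (O : Own S T z0 ρ δ b0 b1 G) :
    |dtm (bs S.e S.w b0 (kap b0 b1 G))| = (S.w 0 * kap b0 b1 G) * (S.w 1 * S.w 2) := by
  have h1 : |dtm S.e| = 1 := by
    have := dtm_ortho O.ortho
    rw [← sq_abs] at this
    nlinarith [abs_nonneg (dtm S.e)]
  have h2 := O.k0
  have w0 := O.pos 0
  have w1 := O.pos 1
  have w2 := O.pos 2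
  rw [dtm_bs, abs_mul, h1, mul_one, abs_of_pos (by positivity)]
  ring

theorem Own.Ye0 (O : Own S T z0 ρ δ b0 b1 G) : 0 < S.w 0 * kap b0 b1 G := mul_pos (O.pos 0) O.k0

/-- **law of `D3`**: `P² D3 = Ye³ D3'` -/
theorem Own.D_eq (O : Own S T z0 ρ δ b0 b1 G) {β0' β1' : V3} {Γ' : QF}
    (h : Hat (bs S.e S.w b0 (kap b0 b1 G)) (S.w 0 * kap b0 b1 G) z0 ρ N R H β0' β1' Γ') :
    |D3 N R H| * (ρ * (S.w 1 * S.w 2)) ^ 2 = (S.w 0 * kap b0 b1 G) ^ 3 * |D3 β0' β1' Γ'| := by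
  have h1 := h.D
  have h2 := O.Ye0
  have e : |dtm (bs S.e S.w b0 (kap b0 b1 G)) ^ 2 * ρ ^ 2 * D3 N R H| =
      |(S.w 0 * kap b0 b1 G) ^ 5 * D3 β0' β1' Γ'| := by rw [h1]
  rw [abs_mul, abs_mul, abs_pow, abs_pow, O.dtm_abs, abs_of_pos O.hρ, abs_mul, abs_pow,
    abs_of_pos h2] at e
  have h3 : (S.w 0 * kap b0 b1 G) ^ 2 ≠ 0 := by positivity
  apply mul_left_cancel₀ h3
  calc _ = ((S.w 0 * kap b0 b1 G) * (S.w 1 * S.w 2)) ^ 2 * ρ ^ 2 * |D3 N R H| := by ring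
    _ = _ := by rw [e]; ring

/-- **law of `Ω`**: `P |x · Ω| = Ye |x · F Ω'|` -/
theorem Own.Ω_eq (O : Own S T z0 ρ δ b0 b1 G) {β0' β1' : V3} {Γ' : QF}
    (h : Hat (bs S.e S.w b0 (kap b0 b1 G)) (S.w 0 * kap b0 b1 G) z0 ρ N R H β0' β1' Γ') :
    ∃ σ : ℝ, |σ| = 1 ∧ (ρ * (S.w 1 * S.w 2)) • cr N R =
      (σ * (S.w 0 * kap b0 b1 G)) • cmb (bs S.e S.w b0 (kap b0 b1 G)) (cr β0' β1') := by
  have h1 := h.Ω
  have h2 := O.Ye0
  have h3 := O.dtm_abs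
  set c := S.w 0 * kap b0 b1 G with hc
  set d := dtm (bs S.e S.w b0 (kap b0 b1 G)) with hd
  have w1 := O.pos 1
  have w2 := O.pos 2
  have hρ := O.hρ
  have hd0 : d ≠ 0 := by
    intro h0
    rw [h0, abs_zero] at h3
    have : 0 < c * (S.w 1 * S.w 2) := by positivity
    linarith
  refine ⟨d / |d|, by rw [abs_div, abs_abs, div_self (abs_pos.2 hd0).ne'], ?_⟩
  have hs : d / |d| * |d| = d := by
    rw [div_mul_cancel₀ _ (abs_pos.2 hd0).ne']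
  have hs2 : d / |d| * (d / |d|) = 1 := by
    rw [← sq, div_pow, sq_abs, div_self (pow_ne_zero 2 hd0)]
  -- c • (P • Ω) = (σ d ρ) • Ω = σ c² F
  have e1 : c • ((ρ * (S.w 1 * S.w 2)) • cr N R) =
      c • ((d / |d| * c) • cmb (bs S.e S.w b0 (kap b0 b1 G)) (cr β0' β1')) := by
    rw [smul_smul, smul_smul]
    have e2 : c * (ρ * (S.w 1 * S.w 2)) = d / |d| * (d * ρ) := by
      have : c * (ρ * (S.w 1 * S.w 2)) = |d| * ρ := by rw [h3]; ring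
      rw [this]
      have h5 : |d| = d / |d| * d := by
        have : |d| * |d| = d * d := abs_mul_abs_self d
        field_simp
        linarith
      conv_lhs => rw [h5]
      ring
    have e3 : c * (d / |d| * c) = d / |d| * c ^ 2 := by ring
    rw [e2, e3, mul_smul (d / |d|) (d * ρ), mul_smul (d / |d|) (c ^ 2), h1]
  exact (smul_right_inj h2.ne').1 e1

/-- components of a combination of the own basis -/
theorem Own.dt_cmb (O : Own S T z0 ρ δ b0 b1 G) (x : V3) :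
    dt (S.e 0) (cmb (bs S.e S.w b0 (kap b0 b1 G)) x) = S.w 0 * (kap b0 b1 G * x 0 -
        b0 1 / b0 0 * x 1 - b0 2 / b0 0 * x 2) ∧
      dt (S.e 1) (cmb (bs S.e S.w b0 (kap b0 b1 G)) x) = S.w 1 * x 1 ∧
      dt (S.e 2) (cmb (bs S.e S.w b0 (kap b0 b1 G)) x) = S.w 2 * x 2 := by
  have hx : x = ![x 0, x 1, x 2] := by
    ext i; fin_cases i <;> rfl
  have e : cmb (bs S.e S.w b0 (kap b0 b1 G)) x =
      cmb (fr S.e S.w) (unsh b0 (kap b0 b1 G * x 0) (x 1) (x 2)) := by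
    rw [← cmb_bs, ← hx]
  rw [e]
  exact ⟨dt_cmb_fr O.ortho _ _ 0, dt_cmb_fr O.ortho _ _ 1, dt_cmb_fr O.ortho _ _ 2⟩

/-- norm of a combination -/
theorem Own.nm_cmb_le (O : Own S T z0 ρ δ b0 b1 G) {x : V3} {M : ℝ} (hx : ∀ k, |x k| ≤ M) :
    nm (cmb (bs S.e S.w b0 (kap b0 b1 G)) x) ≤ 19 * (M * S.w 1) := by
  obtain ⟨e0, e1, e2⟩ := O.dt_cmb x
  obtain ⟨-, -, -, -, -, -, -, s1, s2⟩ := O.nrm.b1_le
  have hk := kap_le O.nrm
  have hk0 := O.k0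
  have w0 := O.pos 0
  have w1 := O.pos 1
  have w2 := O.pos 2
  have M0 : 0 ≤ M := (abs_nonneg _).trans (hx 0)
  have hk' : |kap b0 b1 G| ≤ 13 := by rw [abs_of_pos hk0]; exact hk
  have t0 : |kap b0 b1 G * x 0 - b0 1 / b0 0 * x 1 - b0 2 / b0 0 * x 2| ≤ 17 * M := by
    refine (abs_sub _ _).trans ?_
    have k1 := abs_sub (kap b0 b1 G * x 0) (b0 1 / b0 0 * x 1)
    have k2 := mul_abs_le hk' (hx 0)
    have k3 := mul_abs_le s1 (hx 1)
    have k4 := mul_abs_le s2 (hx 2)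
    linarith
  refine (nm_le_sum O.ortho _).trans ?_
  rw [e0, e1, e2, abs_mul, abs_mul, abs_mul, abs_of_pos w0, abs_of_pos w1, abs_of_pos w2]
  have a0 : S.w 0 * |kap b0 b1 G * x 0 - b0 1 / b0 0 * x 1 - b0 2 / b0 0 * x 2| ≤
      S.w 1 * (17 * M) := mul_le_mul (O.w02.trans O.w21) t0 (abs_nonneg _) w1.le
  have a1 : S.w 1 * |x 1| ≤ S.w 1 * M := mul_le_mul_of_nonneg_left (hx 1) w1.le
  have a2 : S.w 2 * |x 2| ≤ S.w 1 * M := mul_le_mul O.w21 (hx 2) (abs_nonneg _) w1.le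
  linarith

/-- norm of a combination, thin box -/
theorem Own.nm_cmb_le' (O : Own S T z0 ρ δ b0 b1 G) {x : V3} {M : ℝ} (hx : ∀ k, |x k| ≤ M) :
    nm (cmb (bs S.e S.w b0 (kap b0 b1 G)) x) ≤ |x 1| * S.w 1 + 18 * (M * S.w 2) := by
  obtain ⟨e0, e1, e2⟩ := O.dt_cmb x
  obtain ⟨-, -, -, -, -, -, -, s1, s2⟩ := O.nrm.b1_le
  have hk := kap_le O.nrm
  have hk0 := O.k0
  have w0 := O.pos 0
  have w1 := O.pos 1
  have w2 := O.pos 2
  have M0 : 0 ≤ M := (abs_nonneg _).trans (hx 0)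
  have hk' : |kap b0 b1 G| ≤ 13 := by rw [abs_of_pos hk0]; exact hk
  have t0 : |kap b0 b1 G * x 0 - b0 1 / b0 0 * x 1 - b0 2 / b0 0 * x 2| ≤ 17 * M := by
    refine (abs_sub _ _).trans ?_
    have k1 := abs_sub (kap b0 b1 G * x 0) (b0 1 / b0 0 * x 1)
    have k2 := mul_abs_le hk' (hx 0)
    have k3 := mul_abs_le s1 (hx 1)
    have k4 := mul_abs_le s2 (hx 2)
    linarith
  refine (nm_le_sum O.ortho _).trans ?_
  rw [e0, e1, e2, abs_mul, abs_mul, abs_mul, abs_of_pos w0, abs_of_pos w1, abs_of_pos w2]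
  have a0 : S.w 0 * |kap b0 b1 G * x 0 - b0 1 / b0 0 * x 1 - b0 2 / b0 0 * x 2| ≤
      S.w 2 * (17 * M) := mul_le_mul O.w02 t0 (abs_nonneg _) w2.le
  have a2 : S.w 2 * |x 2| ≤ S.w 2 * M := mul_le_mul_of_nonneg_left (hx 2) w2.le
  linarith

/-- `P |Ω| = Ye |F Ω'|` -/
theorem Own.nmΩ_eq (O : Own S T z0 ρ δ b0 b1 G) {β0' β1' : V3} {Γ' : QF}
    (h : Hat (bs S.e S.w b0 (kap b0 b1 G)) (S.w 0 * kap b0 b1 G) z0 ρ N R H β0' β1' Γ') :
    nm (cr N R) * (ρ * (S.w 1 * S.w 2)) = S.w 0 * kap b0 b1 G *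
      nm (cmb (bs S.e S.w b0 (kap b0 b1 G)) (cr β0' β1')) := by
  obtain ⟨σ, hσ, e⟩ := O.Ω_eq h
  have h1 : nm ((ρ * (S.w 1 * S.w 2)) • cr N R) =
      nm ((σ * (S.w 0 * kap b0 b1 G)) • cmb (bs S.e S.w b0 (kap b0 b1 G)) (cr β0' β1')) := by
    rw [e]
  have w1 := O.pos 1
  have w2 := O.pos 2
  have hρ := O.hρ
  have hP : |ρ * (S.w 1 * S.w 2)| = ρ * (S.w 1 * S.w 2) := abs_of_pos (by positivity)
  have hs : |σ * (S.w 0 * kap b0 b1 G)| = S.w 0 * kap b0 b1 G := by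
    rw [abs_mul, hσ, one_mul, abs_of_pos O.Ye0]
  rw [nm_smul, nm_smul, hP, hs] at h1
  linarith

/-! ### outputs -/

/-- **`D3`** -/
theorem Snd.D (O : Own S T z0 ρ δ b0 b1 G) (h : Snd S T z0 ρ b0 b1 G X q' N R H)
    (hX : X ≤ δ / 10 ^ 9) (hδ1 : δ ≤ 1) :
    δ * (S.w 0 * kap b0 b1 G) ^ 3 ≤ |D3 N R H| * (ρ * (S.w 1 * S.w 2)) ^ 2 ∧
      |D3 N R H| * (ρ * (S.w 1 * S.w 2)) ^ 2 ≤ 10 ^ 10 * (S.w 0 * kap b0 b1 G) ^ 3 := by
  obtain ⟨m, β0', β1', Γ', n, k⟩ := h.data O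
  have hX1 : X ≤ 1 := by linarith
  rw [O.D_eq k]
  have h1 := n.D_ge hX1 hX
  have h2 := n.D_le hX1
  have h3 : 0 ≤ (S.w 0 * kap b0 b1 G) ^ 3 := (pow_pos O.Ye0 3).le
  have h4 := O.δ0
  constructor
  · rw [mul_comm]
    exact mul_le_mul_of_nonneg_left (by linarith) h3
  · rw [mul_comm]
    exact mul_le_mul_of_nonneg_right h2 h3

/-- **`|Ω| P ≤ C Ye w₁`** -/
theorem Snd.om_le (O : Own S T z0 ρ δ b0 b1 G) (h : Snd S T z0 ρ b0 b1 G X q' N R H)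
    (hX : X ≤ 1) : nm (cr N R) * (ρ * (S.w 1 * S.w 2)) ≤
      10 ^ 5 * ((S.w 0 * kap b0 b1 G) * S.w 1) := by
  obtain ⟨m, β0', β1', Γ', n, k⟩ := h.data O
  rw [O.nmΩ_eq k]
  have h1 := O.nm_cmb_le (n.Ω_le hX)
  have h2 := O.pos 1
  calc _ ≤ (S.w 0 * kap b0 b1 G) * (19 * (1650 * S.w 1)) := mul_le_mul_of_nonneg_left h1 O.Ye0.le
    _ ≤ _ := by nlinarith [mul_pos O.Ye0 h2]

theorem Snd.om_ge1 (O : Own S T z0 ρ δ b0 b1 G) (h : Snd S T z0 ρ b0 b1 G X q' N R H)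
    {ε : ℝ} (hr : ε ≤ |scB1 (kap b0 b1 G) b0 b1 2|) (hX : X ≤ ε / 10 ^ 6) (hX1 : X ≤ 1) :
    ε / 10 ^ 3 * ((S.w 0 * kap b0 b1 G) * S.w 1) ≤ nm (cr N R) * (ρ * (S.w 1 * S.w 2)) := by
  obtain ⟨m, β0', β1', Γ', n, k⟩ := h.data O
  rw [O.nmΩ_eq k]
  have h1 := n.Ω1_ge hX1
  have h2 := O.pos 1
  have h3 := abs_dt_unit O.ortho 1 (cmb (bs S.e S.w b0 (kap b0 b1 G)) (cr β0' β1'))
  rw [(O.dt_cmb _).2.1, abs_mul, abs_of_pos h2] at h3
  have hX0 := n.X0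
  have h4 : ε / 10 ^ 3 ≤ |cr β0' β1' 1| := by linarith
  have h5 : ε / 10 ^ 3 * S.w 1 ≤ nm (cmb (bs S.e S.w b0 (kap b0 b1 G)) (cr β0' β1')) := by
    have := mul_le_mul_of_nonneg_right h4 h2.le
    linarith
  have := mul_le_mul_of_nonneg_left h5 O.Ye0.le
  linarith

theorem Snd.om_ge2 (O : Own S T z0 ρ δ b0 b1 G) (h : Snd S T z0 ρ b0 b1 G X q' N R H)
    (hX : X ≤ δ / 10 ^ 9) (hδ1 : δ ≤ 1) :
    δ * ((S.w 0 * kap b0 b1 G) * S.w 2) ≤ nm (cr N R) * (ρ * (S.w 1 * S.w 2)) := by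
  obtain ⟨m, β0', β1', Γ', n, k⟩ := h.data O
  have hX1 : X ≤ 1 := by linarith
  rw [O.nmΩ_eq k]
  have hδ := O.δ0
  have w1 := O.pos 1
  have w2 := O.pos 2
  have h5 : δ * S.w 2 ≤ nm (cmb (bs S.e S.w b0 (kap b0 b1 G)) (cr β0' β1')) := by
    rcases le_max_iff.1 n.rot with hr | hr
    · have h1 := n.Ω2_ge hX1
      have h3 := abs_dt_unit O.ortho 2 (cmb (bs S.e S.w b0 (kap b0 b1 G)) (cr β0' β1'))
      rw [(O.dt_cmb _).2.2, abs_mul, abs_of_pos w2] at h3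
      have h4 : δ ≤ |cr β0' β1' 2| := by linarith
      have := mul_le_mul_of_nonneg_right h4 w2.le
      linarith
    · have h1 := n.Ω1_ge hX1
      have h3 := abs_dt_unit O.ortho 1 (cmb (bs S.e S.w b0 (kap b0 b1 G)) (cr β0' β1'))
      rw [(O.dt_cmb _).2.1, abs_mul, abs_of_pos w1] at h3
      have h4 : δ ≤ |cr β0' β1' 1| := by linarith
      have k1 := mul_le_mul_of_nonneg_right h4 w1.le
      have k2 := mul_le_mul_of_nonneg_left O.w21 hδ.le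
      linarith
  have := mul_le_mul_of_nonneg_left h5 O.Ye0.le
  linarith

theorem Snd.r2_le (O : Own S T z0 ρ δ b0 b1 G) (h : Snd S T z0 ρ b0 b1 G X q' N R H)
    (hX : X ≤ 1) : |scB1 (kap b0 b1 G) b0 b1 2| * ((S.w 0 * kap b0 b1 G) * S.w 1) ≤
      10 ^ 5 * (nm (cr N R) * (ρ * (S.w 1 * S.w 2)) + X * ((S.w 0 * kap b0 b1 G) * S.w 1)) := by
  obtain ⟨m, β0', β1', Γ', n, k⟩ := h.data O
  rw [O.nmΩ_eq k]
  have h1 := n.Ω1_ge hX
  have h2 := O.pos 1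
  have h3 := abs_dt_unit O.ortho 1 (cmb (bs S.e S.w b0 (kap b0 b1 G)) (cr β0' β1'))
  rw [(O.dt_cmb _).2.1, abs_mul, abs_of_pos h2] at h3
  have h4 := mul_le_mul_of_nonneg_right h1 (mul_pos O.Ye0 h2).le
  have h5 := mul_le_mul_of_nonneg_left h3 O.Ye0.le
  have h6 := O.Ye0
  have hX0 := n.X0
  have h7 : 0 ≤ X * ((S.w 0 * kap b0 b1 G) * S.w 1) := by positivity
  have h8 : 0 ≤ (S.w 0 * kap b0 b1 G) *
      nm (cmb (bs S.e S.w b0 (kap b0 b1 G)) (cr β0' β1')) := mul_nonneg h6.le (nm_nonneg _)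
  nlinarith

theorem Snd.r2_ge (O : Own S T z0 ρ δ b0 b1 G) (h : Snd S T z0 ρ b0 b1 G X q' N R H)
    {ε : ℝ} (hε : 0 < ε) (hε1 : ε ≤ 1)
    (hs : ε * ((S.w 0 * kap b0 b1 G) * S.w 1) ≤ nm (cr N R) * (ρ * (S.w 1 * S.w 2)))
    (hX : X ≤ ε / 10 ^ 6) (hw : S.w 2 ≤ ε / 10 ^ 6 * S.w 1) :
    ε / 10 ^ 4 ≤ |scB1 (kap b0 b1 G) b0 b1 2| := by
  obtain ⟨m, β0', β1', Γ', n, k⟩ := h.data O
  have hX1 : X ≤ 1 := by linarith
  rw [O.nmΩ_eq k] at hs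
  have h1 := n.Ω1_le hX1
  have h2 := O.pos 1
  have h3 := O.nm_cmb_le' (n.Ω_le hX1)
  have h4 : ε * S.w 1 ≤ nm (cmb (bs S.e S.w b0 (kap b0 b1 G)) (cr β0' β1')) := by
    have h5 : (S.w 0 * kap b0 b1 G) * (ε * S.w 1) ≤ (S.w 0 * kap b0 b1 G) *
      nm (cmb (bs S.e S.w b0 (kap b0 b1 G)) (cr β0' β1')) := by linarith
    exact le_of_mul_le_mul_left h5 O.Ye0
  have h6 : ε * S.w 1 ≤ (512 * |scB1 (kap b0 b1 G) b0 b1 2| + 82 * X) * S.w 1 +
      18 * (1650 * (ε / 10 ^ 6 * S.w 1)) := by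
    have a1 := mul_le_mul_of_nonneg_right h1 h2.le
    have a2 : 18 * (1650 * S.w 2) ≤ 18 * (1650 * (ε / 10 ^ 6 * S.w 1)) := by linarith
    linarith
  have h7 : ε * S.w 1 ≤ (512 * |scB1 (kap b0 b1 G) b0 b1 2| + 82 * X + 29700 * (ε / 10 ^ 6)) *
      S.w 1 := by linarith
  have h8 := le_of_mul_le_mul_right h7 h2
  linarith

/-! ### polar form and rotation -/

/-- a vector is a combination of the own basis -/
theorem Own.cmb_tv (O : Own S T z0 ρ δ b0 b1 G) (V : V3) :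
    cmb (bs S.e S.w b0 (kap b0 b1 G)) (tv (kap b0 b1 G) b0 S.e S.w V) = V := by
  have hw : ∀ k, S.w k ≠ 0 := fun k => (O.pos k).ne'
  have h := cmb_bs S.e S.w b0 (kap b0 b1 G) (yc b0 (pv S.e S.w V) / kap b0 b1 G)
    (pv S.e S.w V 1) (pv S.e S.w V 2)
  have e1 : tv (kap b0 b1 G) b0 S.e S.w V = ![yc b0 (pv S.e S.w V) / kap b0 b1 G,
    pv S.e S.w V 1, pv S.e S.w V 2] := rfl
  rw [e1, h, mul_div_cancel₀ _ O.k0.ne', unsh_yc, cmb_pv O.ortho hw]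

/-- lateral size of a vector -/
def Lat (S : Plk4) (lam : ℝ) (V : V3) : Prop :=
  |dt (S.e 1) V| ≤ lam * S.w 1 ∧ |dt (S.e 2) V| ≤ lam * S.w 2

/-- coordinates of a vector tangent to the second sheet -/
theorem Snd.coord (O : Own S T z0 ρ δ b0 b1 G) {m : ℝ} {β0' β1' : V3} {Γ' : QF}
    (n : Num m X δ (shB0 b0) (scB1 (kap b0 b1 G) b0 b1) (scG (kap b0 b1 G) b0 G) β0' β1' Γ')
    (k : Hat (bs S.e S.w b0 (kap b0 b1 G)) (S.w 0 * kap b0 b1 G) z0 ρ N R H β0' β1' Γ')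
    (hX : X ≤ 1 / 256) {ζ : ℝ} (h0 : 0 ≤ ζ) (h1 : ζ ≤ 1) {V : V3} {lam : ℝ} (hV : Lat S lam V)
    (hg : dt (N + (z0 + ρ * ζ) • R) V = 0) (i : Fin 3) :
    |tv (kap b0 b1 G) b0 S.e S.w V i| ≤ 10 ^ 4 * lam := by
  set x := tv (kap b0 b1 G) b0 S.e S.w V with hx
  have hV' := O.cmb_tv V
  rw [← hx] at hV'
  have w1 := O.pos 1
  have w2 := O.pos 2
  obtain ⟨-, e1, e2⟩ := O.dt_cmb x
  rw [hV'] at e1 e2
  have x1 : |x 1| ≤ lam := by
    have := hV.1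
    rw [e1, abs_mul, abs_of_pos w1] at this
    exact le_of_mul_le_mul_left (by linarith) w1
  have x2 : |x 2| ≤ lam := by
    have := hV.2
    rw [e2, abs_mul, abs_of_pos w2] at this
    exact le_of_mul_le_mul_left (by linarith) w2
  have hl : 0 ≤ lam := (abs_nonneg _).trans x1
  have e3 := k.dg ζ x
  rw [hV', hg] at e3
  have e4 : dt (β0' + ζ • β1') x = 0 := by
    have := mul_eq_zero.1 e3.symm
    exact this.resolve_left O.Ye0.ne'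
  have hX1 : X ≤ 1 := by linarith
  have st := n.st hX h0 h1
  have g1 := n.g_le hX1 h0 h1 1
  have g2 := n.g_le hX1 h0 h1 2
  have e5 : (β0' + ζ • β1') 0 * x 0 = -((β0' + ζ • β1') 1 * x 1 + (β0' + ζ • β1') 2 * x 2) := by
    have : dt (β0' + ζ • β1') x = (β0' + ζ • β1') 0 * x 0 + (β0' + ζ • β1') 1 * x 1 +
      (β0' + ζ • β1') 2 * x 2 := rfl
    linarith
  have h2 : |(β0' + ζ • β1') 0| * |x 0| ≤ 116 * lam := by
    rw [← abs_mul, e5, abs_neg]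
    have := Arc880.abs_add2 (mul_abs_le g1 x1) (mul_abs_le g2 x2)
    linarith
  have h3 : |x 0| ≤ 10 ^ 4 * lam := by
    have := mul_le_mul_of_nonneg_right st (abs_nonneg (x 0))
    linarith
  fin_cases i
  · exact h3
  · exact x1.trans (by linarith)
  · exact x2.trans (by linarith)

/-- **polar form on tangent vectors** -/
theorem Snd.pol (O : Own S T z0 ρ δ b0 b1 G) (h : Snd S T z0 ρ b0 b1 G X q' N R H)
    (hX : X ≤ 1 / 256) {z : ℝ} (h0 : z0 ≤ z) (h1 : z ≤ z0 + ρ) {V V' : V3} {lam lam' : ℝ}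
    (hV : Lat S lam V) (hV' : Lat S lam' V') (hg : dt (N + z • R) V = 0)
    (hg' : dt (N + z • R) V' = 0) :
    |H.pol V V'| ≤ 10 ^ 12 * (lam * lam' * (S.w 0 * kap b0 b1 G)) := by
  obtain ⟨m, β0', β1', Γ', n, k⟩ := h.data O
  obtain ⟨ζ, k0, k1, rfl⟩ : ∃ ζ, 0 ≤ ζ ∧ ζ ≤ 1 ∧ z = z0 + ρ * ζ := by
    have hρ := O.hρ
    refine ⟨(z - z0) / ρ, div_nonneg (by linarith) hρ.le, ?_, ?_⟩
    · rw [div_le_one hρ]; linarith
    · rw [mul_div_cancel₀ _ hρ.ne']; ring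
  have c1 := Snd.coord O n k hX k0 k1 hV hg
  have c2 := Snd.coord O n k hX k0 k1 hV' hg'
  have hX1 : X ≤ 1 := by linarith
  have e := k.pol (tv (kap b0 b1 G) b0 S.e S.w V) (tv (kap b0 b1 G) b0 S.e S.w V')
  rw [O.cmb_tv, O.cmb_tv] at e
  have hp := pol_le (n.Γ'_le hX1) c1 c2
  rw [e, abs_mul, abs_of_pos O.Ye0]
  have hl : 0 ≤ lam := by
    have := (abs_nonneg _).trans (c1 0); linarith
  have hl' : 0 ≤ lam' := by
    have := (abs_nonneg _).trans (c2 0); linarith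
  have := mul_le_mul_of_nonneg_left hp O.Ye0.le
  have h5 : 0 ≤ lam * lam' * (S.w 0 * kap b0 b1 G) := mul_nonneg (mul_nonneg hl hl') O.Ye0.le
  nlinarith

/-- own rotation -/
theorem Own.R_le (O : Own S T z0 ρ δ b0 b1 G) (hT : Tay S.q T N R H) : ρ * nm R ≤ 8 := by
  have k := O.hat O.exp hT
  obtain ⟨-, -, -, -, g5, g6, g7, s1, s2⟩ := O.nrm.b1_le
  have w0 := O.pos 0
  have hρ := O.hρ
  -- components
  have hh : ∀ x, ρ * dt R (cmb (fr S.e S.w) x) = S.w 0 * dt b1 x := by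
    intro x
    have e1 := O.exp
    have h1 := e1 0 x
    have h2 := e1 1 x
    have h3 := e1 0 (-x)
    have h4 := e1 1 (-x)
    have t : ∀ ζ X, S.q (z0 + ρ * ζ) (T.pos (z0 + ρ * ζ) + X) =
        S.q (z0 + ρ * ζ) (T.pos (z0 + ρ * ζ)) + Fq N R H (z0 + ρ * ζ) X :=
      fun ζ X => hT (z0 + ρ * ζ) X
    rw [t] at h1 h2 h3 h4
    have n1 : cmb (fr S.e S.w) (-x) = -cmb (fr S.e S.w) x := by
      ext i; simp only [cmb, Pi.neg_apply]; ring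
    rw [n1] at h3 h4
    simp only [Fq, bz, dt, QF.ev, Pi.neg_apply] at h1 h2 h3 h4 ⊢
    linarith
  have comp : ∀ (i : Fin 3) (x : V3), cmb (fr S.e S.w) x = S.w i • S.e i → 
      ρ * dt R (S.w i • S.e i) = S.w 0 * dt b1 x := by
    intro i x hx
    rw [← hx]; exact hh x
  have c0 : cmb (fr S.e S.w) ![1, 0, 0] = S.w 0 • S.e 0 := by
    ext i; simp [cmb, fr]
  have c1 : cmb (fr S.e S.w) ![0, 1, 0] = S.w 1 • S.e 1 := by
    ext i; simp [cmb, fr]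
  have c2 : cmb (fr S.e S.w) ![0, 0, 1] = S.w 2 • S.e 2 := by
    ext i; simp [cmb, fr]
  have bd : ∀ (i : Fin 3) (x : V3) (M : ℝ), cmb (fr S.e S.w) x = S.w i • S.e i → S.w 0 ≤ S.w i →
      |dt b1 x| ≤ M → ρ * |dt (S.e i) R| ≤ M := by
    intro i x M hx hw hM
    have e1 := comp i x hx
    have e2 : dt R (S.w i • S.e i) = S.w i * dt (S.e i) R := by
      simp only [dt, Pi.smul_apply, smul_eq_mul]; ring
    rw [e2] at e1
    have wi := O.pos i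
    have M0 : 0 ≤ M := (abs_nonneg _).trans hM
    have e3 : S.w i * (ρ * |dt (S.e i) R|) = S.w 0 * |dt b1 x| := by
      have := congrArg (fun y => |y|) e1
      beta_reduce at this
      rw [abs_mul, abs_mul, abs_mul, abs_of_pos hρ, abs_of_pos wi, abs_of_pos w0] at this
      linarith
    have e4 : S.w i * (ρ * |dt (S.e i) R|) ≤ S.w i * M := by
      rw [e3]
      exact mul_le_mul hw hM (abs_nonneg _) wi.le
    exact le_of_mul_le_mul_left e4 wi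
  have b0' := bd 0 _ (3 / 2) c0 le_rfl (by simpa [dt] using g5)
  have b1' := bd 1 _ 2 c1 (O.w02.trans O.w21) (by simpa [dt] using g6)
  have b2' := bd 2 _ 2 c2 O.w02 (by simpa [dt] using g7)
  have := mul_le_mul_of_nonneg_left (nm_le_sum O.ortho R) hρ.le
  linarith

/-- **turning rate** from a second function -/
theorem Snd.R_le (O : Own S T z0 ρ δ b0 b1 G) {N' R' : V3} {H' : QF} (hT : Tay S.q T N R H)
    (h : Snd S T z0 ρ b0 b1 G X q' N' R' H') (hX : X ≤ 1) :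
    ρ * nm R ≤ 48 * (ρ * nm R') + 10 ^ 4 * X := by
  obtain ⟨m, β0', β1', Γ', n, k'⟩ := h.data O
  obtain ⟨m0, γ0, γ1, Γ0, n0, k0⟩ := (O.snd hT).data O
  have k : Hat (bs S.e S.w b0 (kap b0 b1 G)) (S.w 0 * kap b0 b1 G) z0 ρ N R H (shB0 b0)
      (scB1 (kap b0 b1 G) b0 b1) (scG (kap b0 b1 G) b0 G) := by
    have := O.nrm.b1_le.1
    exact own_hat O.exp hT (by linarith) O.k0.ne'
  have hρ := O.hρ
  have hc := O.Ye0
  have w0 := O.pos 0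
  have hm0 : 0 < |m| := lt_of_lt_of_le (by norm_num) n.m1
  have hX0 := n.X0
  have hk13 := kap_le O.nrm
  obtain ⟨-, -, -, -, -, -, -, s1, s2⟩ := O.nrm.b1_le
  -- the difference
  have hd : ∀ x : V3, ρ * dt (R' - m • R) (cmb (bs S.e S.w b0 (kap b0 b1 G)) x) =
      (S.w 0 * kap b0 b1 G) * dt (β1' - m • scB1 (kap b0 b1 G) b0 b1) x := by
    intro x
    have h1 := k.dR x
    have h2 := k'.dR x
    simp only [dt, Pi.sub_apply, Pi.smul_apply, smul_eq_mul] at h1 h2 ⊢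
    linear_combination h2 - m * h1
  have hdk : ∀ (x : V3) (M : ℝ), (∀ i, |x i| ≤ M) →
      |dt (β1' - m • scB1 (kap b0 b1 G) b0 b1) x| ≤ 3 * (X * M) := by
    intro x M hx
    have a := fun i => mul_abs_le (n.d1 i) (hx i)
    have : dt (β1' - m • scB1 (kap b0 b1 G) b0 b1) x = (β1' 0 - m * scB1 (kap b0 b1 G) b0 b1 0) *
      x 0 + (β1' 1 - m * scB1 (kap b0 b1 G) b0 b1 1) * x 1 +
      (β1' 2 - m * scB1 (kap b0 b1 G) b0 b1 2) * x 2 := rfl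
    rw [this]
    have := Arc880.abs_add2 (Arc880.abs_add2 (a 0) (a 1)) (a 2)
    linarith
  -- unit vectors
  have un : ∀ i, ρ * |dt (R' - m • R) (S.e i)| ≤ 135 * X := by
    intro i
    have wi := O.pos i
    have hwi : S.w 0 ≤ S.w i := by
      fin_cases i
      · exact le_rfl
      · exact O.w02.trans O.w21
      · exact O.w02
    have e1 := hd (tv (kap b0 b1 G) b0 S.e S.w (S.e i))
    rw [O.cmb_tv] at e1
    have hx : ∀ j, |(kap b0 b1 G) * tv (kap b0 b1 G) b0 S.e S.w (S.e i) j| ≤ 45 / S.w i := by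
      intro j
      have p := fun j => pv_self O.ortho S.w i j
      have pj : ∀ j, |pv S.e S.w (S.e i) j| ≤ 1 / S.w i := by
        intro j
        rw [p j]
        split_ifs with h
        · rw [h, abs_of_pos (by positivity)]
        · rw [abs_zero]; positivity
      have hw1 : 0 < 1 / S.w i := by positivity
      fin_cases j
      · change |kap b0 b1 G * (yc b0 (pv S.e S.w (S.e i)) / kap b0 b1 G)| ≤ _
        rw [mul_div_cancel₀ _ O.k0.ne']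
        have : |yc b0 (pv S.e S.w (S.e i))| ≤ 1 / S.w i + 2 * (1 / S.w i) + 2 * (1 / S.w i) :=
          Arc880.abs_add2 (Arc880.abs_add2 (pj 0) (mul_abs_le s1 (pj 1))) (mul_abs_le s2 (pj 2))
        refine this.trans ?_
        rw [show 45 / S.w i = 45 * (1 / S.w i) by ring]
        linarith
      · change |kap b0 b1 G * pv S.e S.w (S.e i) 1| ≤ _
        have := mul_abs_le (by rw [abs_of_pos O.k0]; exact hk13 : |kap b0 b1 G| ≤ 13) (pj 1)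
        rw [show 45 / S.w i = 45 * (1 / S.w i) by ring]
        linarith
      · change |kap b0 b1 G * pv S.e S.w (S.e i) 2| ≤ _
        have := mul_abs_le (by rw [abs_of_pos O.k0]; exact hk13 : |kap b0 b1 G| ≤ 13) (pj 2)
        rw [show 45 / S.w i = 45 * (1 / S.w i) by ring]
        linarith
    have e2 : (S.w 0 * kap b0 b1 G) * dt (β1' - m • scB1 (kap b0 b1 G) b0 b1)
        (tv (kap b0 b1 G) b0 S.e S.w (S.e i)) = S.w 0 *
        dt (β1' - m • scB1 (kap b0 b1 G) b0 b1)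
          (kap b0 b1 G • tv (kap b0 b1 G) b0 S.e S.w (S.e i)) := by
      simp only [dt, Pi.smul_apply, smul_eq_mul]; ring
    have e3 := hdk (kap b0 b1 G • tv (kap b0 b1 G) b0 S.e S.w (S.e i)) (45 / S.w i) hx
    rw [e2] at e1
    have e4 := congrArg (fun y => |y|) e1
    beta_reduce at e4
    rw [abs_mul, abs_mul, abs_of_pos hρ, abs_of_pos w0] at e4
    rw [e4]
    calc _ ≤ S.w 0 * (3 * (X * (45 / S.w i))) := mul_le_mul_of_nonneg_left e3 w0.le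
      _ = 135 * X * (S.w 0 / S.w i) := by ring
      _ ≤ 135 * X * 1 := by
        apply mul_le_mul_of_nonneg_left _ (by positivity)
        rw [div_le_one wi]; exact hwi
      _ = _ := by ring
  -- conclusion
  have e5 : ∀ i, |m| * (ρ * |dt (S.e i) R|) ≤ ρ * nm R' + 135 * X := by
    intro i
    have e6 : dt (R' - m • R) (S.e i) = dt (S.e i) R' - m * dt (S.e i) R := by
      simp only [dt, Pi.sub_apply, Pi.smul_apply, smul_eq_mul]; ring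
    have h1 := un i
    rw [e6] at h1
    have h2 := abs_sub (dt (S.e i) R') (dt (S.e i) R' - m * dt (S.e i) R)
    rw [sub_sub_cancel, abs_mul] at h2
    have h3 := abs_dt_unit O.ortho i R'
    have h4 := mul_le_mul_of_nonneg_left h2 hρ.le
    have h5 := mul_le_mul_of_nonneg_left h3 hρ.le
    linarith
  have e7 : ∀ i, ρ * |dt (S.e i) R| ≤ 16 * (ρ * nm R' + 135 * X) := by
    intro i
    have h1 : 1 / 16 * (ρ * |dt (S.e i) R|) ≤ |m| * (ρ * |dt (S.e i) R|) :=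
      mul_le_mul_of_nonneg_right n.m1 (by positivity)
    linarith [e5 i]
  have := mul_le_mul_of_nonneg_left (nm_le_sum O.ortho R) hρ.le
  linarith [e7 0, e7 1, e7 2]

end geo

end Crest.Agent.R136.Thn768
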