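import Crest.Agent.R136.Stc4_321
import Crest.Agent.R136.Thn3_768

/-!
# R136, U6 thin side, stage C (helper321), part 5: the basis of a plank in container coordinates

`tb`, `φb` : adapted basis; `bas_of` : `Bas` from 768's `Own`, `OmB` and `Nr`.
-/

set_option autoImplicit false
set_option linter.unusedVariables false

namespace Crest.Agent.R136.Stc321

open Crest.Agent.R136.Sh605
open Crest.Agent.R136.K4
open Crest.Agent.R136.NetW191
open Crest.Agent.R136.GeoN778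
open Crest.Agent.R136.Wit321
open Crest.Agent.R136.Top484
open Crest.Agent.R136.Tl102 (QF Fq bz fan shB0 scB1 scG shG shB1 kap NrmC IsExp fr cmb StP OmB om0
  om1 omM tv pv gl)
open Crest.Agent.R136.Thn768 (Own Snd Tay cr dtm)
open Crest.Agent.R136.Arc880 (det3)

/-- adapted basis in plank coordinates -/
noncomputable def tb (κ : ℝ) (b0 : V3) : Fin 3 → V3 := ![![κ, 0, 0], tE b0 1, tE b0 2]

/-- adapted basis in container coordinates -/
noncomputable def φb (f : Fin 3 → V3) (u : Un) (e : Fin 3 → V3) (w : V3) (κ : ℝ) (b0 : V3) :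
    Fin 3 → V3 := fun k => mh f u e w (tb κ b0 k)

/-- slopes of the plank -/
theorem NrmC.base {b0 b1 : V3} {G : QF} (h : NrmC b0 b1 G) :
    1 / 2 ≤ b0 0 ∧ b0 0 ≤ 2 ∧ |b0 1 / b0 0| ≤ 2 ∧ |b0 2 / b0 0| ≤ 2 ∧ 1 / 2 ≤ b0 0 + b1 0 ∧
      b0 0 + b1 0 ≤ 2 ∧ |b1 0| ≤ 3 / 2 := by
  have h0 := h.st 0 le_rfl zero_le_one 0 0 0 (by simp) (by simp) (by simp)
  have h1 := h.st 1 zero_le_one le_rfl 0 0 0 (by simp) (by simp) (by simp)
  simp only [zero_mul, mul_zero, add_zero, one_mul] at h0 h1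
  have p : 0 < b0 0 := by linarith [h0.1]
  refine ⟨h0.1, h0.2, ?_, ?_, h1.1, h1.2, abs_le.2 ⟨by linarith [h0.2, h1.1], by linarith [h0.1, h1.2]⟩⟩
  · rw [abs_div, abs_of_pos p, div_le_iff₀ p]
    have := h.b01; linarith
  · rw [abs_div, abs_of_pos p, div_le_iff₀ p]
    have := h.b02; linarith

section

variable {f e : Fin 3 → V3} {u : Un} {w b0 : V3} {κs : ℝ}

theorem φb_val (k : Fin 3) (j : Fin 3) : φb f u e w κs b0 k j =
    (∑ i, w i * tb κs b0 k i * dt (f j) (e i)) / u.W j := by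
  simp only [φb, mh, dt, cmb, Tl102.fr, Pi.smul_apply, smul_eq_mul, Fin.sum_univ_three]
  ring

theorem φb0 (j : Fin 3) : φb f u e w κs b0 0 j = w 0 * κs * dt (f j) (e 0) / u.W j := by
  rw [φb_val]
  simp [tb, Fin.sum_univ_three]

theorem φb1 (j : Fin 3) : φb f u e w κs b0 1 j =
    (w 1 * dt (f j) (e 1) - b0 1 / b0 0 * (w 0 * dt (f j) (e 0))) / u.W j := by
  rw [φb_val]
  simp [tb, tE, Fin.sum_univ_three]
  ring

theorem φb2 (j : Fin 3) : φb f u e w κs b0 2 j =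
    (w 2 * dt (f j) (e 2) - b0 2 / b0 0 * (w 0 * dt (f j) (e 0))) / u.W j := by
  rw [φb_val]
  simp [tb, tE, Fin.sum_univ_three]
  ring

/-- Gram identity -/
theorem ortho_det {f e : Fin 3 → V3} (hf : Ortho f) (he : Ortho e) :
    (dt (f 0) (e 0) * (dt (f 1) (e 1) * dt (f 2) (e 2) - dt (f 2) (e 1) * dt (f 1) (e 2)) -
      dt (f 1) (e 0) * (dt (f 0) (e 1) * dt (f 2) (e 2) - dt (f 2) (e 1) * dt (f 0) (e 2)) +
      dt (f 2) (e 0) * (dt (f 0) (e 1) * dt (f 1) (e 2) - dt (f 1) (e 1) * dt (f 0) (e 2))) ^ 2 =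
      1 := by
  have h1 := Thn768.dtm_ortho hf
  have h2 := Thn768.dtm_ortho he
  have e1 : (dt (f 0) (e 0) * (dt (f 1) (e 1) * dt (f 2) (e 2) - dt (f 2) (e 1) * dt (f 1) (e 2)) -
      dt (f 1) (e 0) * (dt (f 0) (e 1) * dt (f 2) (e 2) - dt (f 2) (e 1) * dt (f 0) (e 2)) +
      dt (f 2) (e 0) * (dt (f 0) (e 1) * dt (f 1) (e 2) - dt (f 1) (e 1) * dt (f 0) (e 2))) =
      dtm f * dtm e := by
    simp only [dtm, dt, cr, Matrix.cons_val]; ring
  rw [e1, mul_pow, h1, h2, one_mul]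

theorem dt3_φb {f e : Fin 3 → V3} (hf : Ortho f) (he : Ortho e) (hu : u.Ok) (hw0 : 0 < w 0)
    (hw1 : 0 < w 1) (hw2 : 0 < w 2) (hκ : 0 < κs) :
    |dt3 (φb f u e w κs b0)| = w 0 * κs * (w 1 * w 2) / (u.WY * u.WA * u.WB) := by
  have hY := hu.Y0
  have hA := hu.A0
  have hB := hu.B0
  have W0 : u.W 0 = u.WY := rfl
  have W1 : u.W 1 = u.WA := rfl
  have W2 : u.W 2 = u.WB := rfl
  have h := ortho_det hf he
  set d := (dt (f 0) (e 0) * (dt (f 1) (e 1) * dt (f 2) (e 2) - dt (f 2) (e 1) * dt (f 1) (e 2)) -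
      dt (f 1) (e 0) * (dt (f 0) (e 1) * dt (f 2) (e 2) - dt (f 2) (e 1) * dt (f 0) (e 2)) +
      dt (f 2) (e 0) * (dt (f 0) (e 1) * dt (f 1) (e 2) - dt (f 1) (e 1) * dt (f 0) (e 2))) with hd
  have h1 : |d| = 1 := by
    have h2 : (d - 1) * (d + 1) = 0 := by linear_combination h
    rcases mul_eq_zero.1 h2 with h3 | h3
    · rw [sub_eq_zero.1 h3, abs_one]
    · rw [eq_neg_of_add_eq_zero_left h3, abs_neg, abs_one]
  have e1 : dt3 (φb f u e w κs b0) = d * (w 0 * κs * (w 1 * w 2) / (u.WY * u.WA * u.WB)) := by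
    simp only [dt3, φb0, φb1, φb2, W0, W1, W2, hd]
    field_simp
    ring
  rw [e1, abs_mul, h1, one_mul, abs_of_pos (by positivity)]

end

section bas

variable {S : Plk4} {T : Ln4} {z0 ρ δ : ℝ} {b0 b1 : V3} {G : QF} {f : Fin 3 → V3} {c : Ln4} {u : Un}
  {Q2 : Qd} {b0' b1' : V3} {G' : QF} {X κ ν R η : ℝ}

/-- **the basis adapted to a plank, against a polynomial near the model** -/
theorem bas_of (O : Own S T z0 ρ δ b0 b1 G) (hf : Ortho f) (hu : u.Ok)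
    (hE : IsExp Q2.ev S.e S.w T z0 ρ b0' b1' G') (m1 : 1 / 16 ≤ |b0' 0 / b0 0|)
    (m2' : |b0' 0 / b0 0| ≤ 16) (hO : OmB (kap b0 b1 G) X X X b0 b1 G b0' b1' G')
    (hX0 : 0 ≤ X) (hX : X ≤ 1 / 64)
    (hN : Nr (hatQ f c u Q2) (ul u (rl f c T)) (u.zh z0) κ ν R η) (hκ : |κ| ≤ 1) (hR : 1 ≤ R)
    (hv : |(ul u (rl f c T)).v 1| ≤ R) (hη0 : 0 ≤ η) (hηR : 40 * (R * η) ≤ 1) (hρH : ρ ≤ u.H)
    (hν1 : u.WY / 200 ≤ |ν|) (hν2 : |ν| ≤ 200 * u.WY) (hYB : u.WY ≤ η * u.WB) :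
    Bas (fun k => (hatQ f c u Q2).gr (u.zh z0) ((ul u (rl f c T)).pos (u.zh z0)) k / ν)
      (fun k => gd (hatQ f c u Q2) (ul u (rl f c T)) k / ν)
      (φb f u S.e S.w (kap b0 b1 G) b0) κ ((ul u (rl f c T)).v 1) R η (ρ / u.H)
      (S.w 0 * kap b0 b1 G / |ν|) X (S.w 1 / u.WA) (S.w 2 / u.WA)
      (S.w 1 / u.WA * (S.w 2 / u.WB)) := by
  have hY := hu.Y0
  have hA := hu.A0
  have hB := hu.B0
  have hH := hu.H0
  have he := O.ortho
  have hρ := O.hρ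
  have w0 := O.pos 0
  have w1 := O.pos 1
  have w2 := O.pos 2
  have hk := O.k0
  set κs := kap b0 b1 G with hκs
  obtain ⟨n1, n2, n3, n4, n5, n6, n7⟩ := NrmC.base O.nrm
  have hb0 : b0 0 ≠ 0 := by linarith
  have hν : 0 < |ν| := by linarith
  have hνn : ν ≠ 0 := abs_pos.1 hν
  set m := b0' 0 / b0 0 with hm
  have hm0 : b0' 0 = m * b0 0 := by rw [hm, div_mul_cancel₀ _ hb0]
  have r := dt_unit hf he
  -- expansions
  have hx := exp_hat (c := c) hf hu hE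
  set gr := (hatQ f c u Q2).gr (u.zh z0) ((ul u (rl f c T)).pos (u.zh z0)) with hgr
  set gd' := gd (hatQ f c u Q2) (ul u (rl f c T)) with hgd
  set φ := φb f u S.e S.w κs b0 with hφ
  have φe : ∀ k, φ k = mh f u S.e S.w (tb κs b0 k) := fun k => rfl
  have dv : ∀ (a X : V3), dt (fun k => a k / ν) X = dt a X / ν := by
    intro a X; simp only [dt]; ring
  have hYe : 0 < S.w 0 * κs := by positivity
  -- values on the basis
  have t0 : ∀ b : V3, dt b (tb κs b0 0) = κs * b 0 := by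
    intro b; simp only [dt, tb, Matrix.cons_val]; ring
  have t1 : ∀ b : V3, dt b (tb κs b0 1) = b 1 - b0 1 / b0 0 * b 0 := by
    intro b; simp only [dt, tb, tE, Matrix.cons_val]; simp; ring
  have t2 : ∀ b : V3, dt b (tb κs b0 2) = b 2 - b0 2 / b0 0 * b 0 := by
    intro b; simp only [dt, tb, tE, Matrix.cons_val]; simp; ring
  have o01 : b0' 1 - b0 1 / b0 0 * b0' 0 = κs * om0 κs b0 b0' 1 := by
    change _ = κs * ((b0' 1 - b0' 0 / b0 0 * b0 1 - b0 1 / b0 0 * (b0' 0 - b0' 0 / b0 0 * b0 0)) / κs)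
    field_simp; ring
  have o02 : b0' 2 - b0 2 / b0 0 * b0' 0 = κs * om0 κs b0 b0' 2 := by
    change _ = κs * ((b0' 2 - b0' 0 / b0 0 * b0 2 - b0 2 / b0 0 * (b0' 0 - b0' 0 / b0 0 * b0 0)) / κs)
    field_simp; ring
  have o10 : b1' 0 = m * b1 0 + om1 κs b0 b1 b0' b1' 0 := by
    change _ = m * b1 0 + (b1' 0 - b0' 0 / b0 0 * b1 0)
    rw [hm]; ring
  have o11 : b1' 1 - b0 1 / b0 0 * b1' 0 = m * shB1 b0 b1 1 + κs * om1 κs b0 b1 b0' b1' 1 := by
    change _ = m * (b1 1 - b0 1 / b0 0 * b1 0) +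
      κs * ((b1' 1 - b0' 0 / b0 0 * b1 1 - b0 1 / b0 0 * (b1' 0 - b0' 0 / b0 0 * b1 0)) / κs)
    rw [hm]; field_simp; ring
  have o12 : b1' 2 - b0 2 / b0 0 * b1' 0 = m * shB1 b0 b1 2 + κs * om1 κs b0 b1 b0' b1' 2 := by
    change _ = m * (b1 2 - b0 2 / b0 0 * b1 0) +
      κs * ((b1' 2 - b0' 0 / b0 0 * b1 2 - b0 2 / b0 0 * (b1' 0 - b0' 0 / b0 0 * b1 0)) / κs)
    rw [hm]; field_simp; ring
  have sh1 : |shB1 b0 b1 1| ≤ κs := (le_max_left _ _).trans (le_max_left _ _)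
  have sh2 : |shB1 b0 b1 2| ≤ κs := (le_max_right _ _).trans (le_max_left _ _)
  have hκsa : |κs| ≤ κs := (abs_of_pos hk).le
  have c01 : |b0' 1 - b0 1 / b0 0 * b0' 0| ≤ κs * X := by
    rw [o01]; exact m2 hκsa hO.h01
  have c02 : |b0' 2 - b0 2 / b0 0 * b0' 0| ≤ κs * X := by
    rw [o02]; exact m2 hκsa hO.h02
  have c11 : |b1' 1 - b0 1 / b0 0 * b1' 0| ≤ 17 * κs := by
    rw [o11]
    refine (a2 (m2 m2' sh1) (m2 hκsa hO.h11)).trans ?_
    have := mul_le_mul_of_nonneg_left hX hk.le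
    linarith
  have c12 : |b1' 2 - b0 2 / b0 0 * b1' 0| ≤ 17 * κs := by
    rw [o12]
    refine (a2 (m2 m2' sh2) (m2 hκsa hO.h12)).trans ?_
    have := mul_le_mul_of_nonneg_left hX hk.le
    linarith
  have c00 : |b0' 0| ≤ 32 := by
    rw [hm0]
    have : |b0 0| ≤ 2 := by rw [abs_of_pos (by linarith)]; exact n2
    exact (m2 m2' this).trans (by norm_num)
  have c10 : |b1' 0| ≤ 25 := by
    rw [o10]
    refine (a2 (m2 m2' n7) hO.y1).trans ?_
    linarith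
  have nd : ∀ a : ℝ, ∀ {K : ℝ}, |a| ≤ K → |S.w 0 * a / ν| ≤ S.w 0 * K / |ν| := by
    intro a K ha
    rw [abs_div, abs_mul, abs_of_pos w0]
    exact div_le_div_of_nonneg_right (mul_le_mul_of_nonneg_left ha w0.le) hν.le
  have G0 : ∀ k, dt (fun k => gr k / ν) (φ k) = S.w 0 * dt b0' (tb κs b0 k) / ν := by
    intro k
    rw [dv, φe, (hx (tb κs b0 k)).1]
  have G1 : ∀ k, ρ / u.H * dt (fun k => gd' k / ν) (φ k) = S.w 0 * dt b1' (tb κs b0 k) / ν := by
    intro k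
    rw [dv, φe, (hx (tb κs b0 k)).2.1]
    ring
  have Yp : 0 < S.w 0 * κs / |ν| := by positivity
  have f0 : |S.w 0 * κs| = S.w 0 * κs := abs_of_pos hYe
  have Y200 : S.w 0 * κs / u.WY ≤ 200 * (S.w 0 * κs / |ν|) := by
    rw [div_le_iff₀ hY]
    have e : 200 * (S.w 0 * κs / |ν|) * u.WY = S.w 0 * κs * (200 * u.WY) / |ν| := by ring
    rw [e, le_div_iff₀ hν]
    exact mul_le_mul_of_nonneg_left hν2 hYe.le
  have YBl : S.w 0 * κs / u.WB ≤ 200 * (S.w 0 * κs / |ν| * η) := by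
    have e1 : S.w 0 * κs / u.WB ≤ S.w 0 * κs / u.WY * η := by
      rw [div_le_iff₀ hB]
      have e : S.w 0 * κs / u.WY * η * u.WB = S.w 0 * κs * (η * u.WB) / u.WY := by ring
      rw [e, le_div_iff₀ hY]
      exact mul_le_mul_of_nonneg_left hYB hYe.le
    have := mul_le_mul_of_nonneg_right Y200 hη0
    linarith
  have YAl : S.w 0 * κs / u.WA ≤ 200 * (S.w 0 * κs / |ν| * η) :=
    (div_le_div_of_nonneg_left hYe.le hB hu.BA).trans YBl
  have W0 : u.W 0 = u.WY := rfl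
  have W1 : u.W 1 = u.WA := rfl
  have W2 : u.W 2 = u.WB := rfl
  refine
    { κ1 := hκ, v := hv, R1 := hR, η0 := hη0, ηR := hηR, rh0 := by positivity,
      rh1 := (div_le_one hH).2 hρH, Y0 := Yp, X0 := hX0, X1 := by linarith, A0 := by positivity,
      A12 := div_le_div_of_nonneg_right O.w21 hA.le, α0 := by positivity, g0 := ?_, g1 := ?_,
      g2 := ?_, g0' := ?_, g1' := ?_, g2' := ?_, a0 := ?_, ak := ?_, c0 := ?_, ck := ?_, lo := ?_,
      p0 := ?_, p1 := ?_, p2 := ?_, q1 := ?_, q2 := ?_, det := ?_ }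
  · have e : gr 0 / ν - 1 = (gr 0 - ν) / ν := by field_simp
    rw [e, abs_div, div_le_iff₀ hν, mul_comm]
    exact hN.g0
  · rw [abs_div, div_le_iff₀ hν, mul_comm]
    exact hN.g1
  · rw [abs_div, div_le_iff₀ hν, mul_comm]
    exact hN.g2
  · rw [abs_div, div_le_iff₀ hν, mul_comm]
    exact hN.d0
  · have e : gd' 1 / ν + 2 * κ * (ul u (rl f c T)).v 1 =
        (gd' 1 + ν * (2 * κ * (ul u (rl f c T)).v 1)) / ν := by field_simp
    rw [e, abs_div, div_le_iff₀ hν]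
    exact hN.d1.trans (le_of_eq (mul_comm _ _))
  · have e : gd' 2 / ν + 1 = (gd' 2 + ν) / ν := by field_simp
    rw [e, abs_div, div_le_iff₀ hν, mul_comm]
    exact hN.d2
  · rw [G0, t0]
    refine (nd _ (K := κs * 32) (m2 hκsa c00)).trans (le_of_eq (by ring))
  · rw [G0, G0, t1, t2]
    exact ⟨(nd _ c01).trans (le_of_eq (by ring)), (nd _ c02).trans (le_of_eq (by ring))⟩
  · rw [G1, t0]
    refine (nd _ (K := κs * 25) (m2 hκsa c10)).trans (le_of_eq (by ring))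
  · rw [G1, G1, t1, t2]
    exact ⟨(nd _ c11).trans (le_of_eq (by ring)), (nd _ c12).trans (le_of_eq (by ring))⟩
  · intro ζ z0' z1'
    rw [G0, G1, t0, t0]
    have e : S.w 0 * (κs * b0' 0) / ν + ζ * (S.w 0 * (κs * b1' 0) / ν) =
        S.w 0 * κs * (b0' 0 + ζ * b1' 0) / ν := by ring
    rw [e, abs_div, abs_mul, f0]
    have e2 : b0' 0 + ζ * b1' 0 = m * (b0 0 + ζ * b1 0) + ζ * om1 κs b0 b1 b0' b1' 0 := by
      rw [hm0, o10]; ring
    have h1 := (O.nrm.st ζ z0' z1' 0 0 0 (by simp) (by simp) (by simp)).1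
    simp only [mul_zero, add_zero] at h1
    have h2 : 1 / 32 ≤ |m * (b0 0 + ζ * b1 0)| := by
      rw [abs_mul]
      calc (1 : ℝ) / 32 = 1 / 16 * (1 / 2) := by norm_num
        _ ≤ |m| * |b0 0 + ζ * b1 0| :=
          mul_le_mul m1 (h1.trans (le_abs_self _)) (by norm_num) (abs_nonneg _)
    have h3 : |ζ * om1 κs b0 b1 b0' b1' 0| ≤ 1 * X :=
      m2 (by rw [abs_of_nonneg z0']; exact z1') hO.y1
    have h4 : 1 / 64 ≤ |b0' 0 + ζ * b1' 0| := by
      rw [e2]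
      have h5 : m * (b0 0 + ζ * b1 0) = (m * (b0 0 + ζ * b1 0) + ζ * om1 κs b0 b1 b0' b1' 0) -
          ζ * om1 κs b0 b1 b0' b1' 0 := by ring
      have h6 := s2 (le_refl |m * (b0 0 + ζ * b1 0) + ζ * om1 κs b0 b1 b0' b1' 0|) h3
      rw [← h5] at h6
      linarith
    have h7 := mul_le_mul_of_nonneg_left h4 hYe.le
    have e3 : S.w 0 * κs / |ν| / 64 = S.w 0 * κs * (1 / 64) / |ν| := by ring
    rw [e3]
    exact div_le_div_of_nonneg_right h7 hν.le
  · show |φb f u S.e S.w κs b0 0 0| ≤ _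
    rw [φb0, W0, abs_div, abs_mul, f0, abs_of_pos hY]
    refine le_trans ?_ Y200
    refine div_le_div_of_nonneg_right ?_ hY.le
    exact mul_le_of_le_one_right hYe.le (r 0 0)
  · show |φb f u S.e S.w κs b0 0 1| ≤ _
    rw [φb0, W1, abs_div, abs_mul, f0, abs_of_pos hA]
    refine le_trans ?_ YAl
    refine div_le_div_of_nonneg_right ?_ hA.le
    exact mul_le_of_le_one_right hYe.le (r 1 0)
  · show |φb f u S.e S.w κs b0 0 2| ≤ _
    rw [φb0, W2, abs_div, abs_mul, f0, abs_of_pos hB]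
    refine le_trans ?_ YBl
    refine div_le_div_of_nonneg_right ?_ hB.le
    exact mul_le_of_le_one_right hYe.le (r 2 0)
  · show |φb f u S.e S.w κs b0 1 1| ≤ _
    rw [φb1, W1, abs_div, abs_of_pos hA, ← mul_div_assoc]
    refine div_le_div_of_nonneg_right ?_ hA.le
    refine (s2 (m2 (abs_of_pos w1).le (r 1 1)) (m2 n3 (m2 (abs_of_pos w0).le (r 1 0)))).trans ?_
    have := O.w02
    have := O.w21
    linarith
  · show |φb f u S.e S.w κs b0 2 1| ≤ _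
    rw [φb2, W1, abs_div, abs_of_pos hA, ← mul_div_assoc]
    refine div_le_div_of_nonneg_right ?_ hA.le
    refine (s2 (m2 (abs_of_pos w2).le (r 1 2)) (m2 n4 (m2 (abs_of_pos w0).le (r 1 0)))).trans ?_
    have := O.w02
    linarith
  · show _ ≤ |dt3 (φb f u S.e S.w κs b0)|
    rw [dt3_φb hf he hu w0 w1 w2 hk]
    have e1 : S.w 0 * κs / |ν| * (S.w 1 / u.WA * (S.w 2 / u.WB)) / 200 =
        S.w 0 * κs * (S.w 1 * S.w 2) / ((200 * |ν|) * (u.WA * u.WB)) := by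
      field_simp
    have e2 : u.WY * u.WA * u.WB = u.WY * (u.WA * u.WB) := by ring
    rw [e1, e2]
    refine div_le_div_of_nonneg_left (by positivity) (by positivity) ?_
    refine mul_le_mul_of_nonneg_right ?_ (by positivity)
    linarith

end bas

end Crest.Agent.R136.Stc321
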