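import Crest.Agent.R136.Wit3_321

/-!
# R136: all marks are multiples of one container polynomial; coarser legality (helper321)

* `wqd w`, `evQd G` : coefficients; `gr_zero` : a polynomial vanishing on the unit ball has
  gradient zero.
* `gr_close` : a polynomial which is small at the points of the container `w.q = 0` of the unit
  region has a gradient close to a multiple of the gradient of `w.q`, everywhere.
* `coarse_slope` : the coefficients `γ, c3, c4, c5` against the legality of a coarser sheet along a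
  line.
-/

set_option autoImplicit false
set_option linter.unusedVariables false

namespace Crest.Agent.R136.Wit321

open Crest.Agent.R136.Sh605
open Crest.Agent.R136.NetW191
open Crest.Agent.R136.GeoN778

/-- coefficients of `w.q` -/
def wqd (w : Wq) : Qd where
  c0 := 0
  c1 := 0
  c2 := 0
  b := ![1, 0, 0]
  d := ![w.γ, -w.ζ, -1]
  g := ![![w.c5, w.c3, w.c4], ![0, -w.κ, w.c1], ![0, 0, w.c2]]

theorem wqd_ev (w : Wq) (z : ℝ) (x : V3) : (wqd w).ev z x = w.q z x := by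
  simp only [Qd.ev, wqd, Wq.q, Fin.sum_univ_three, Matrix.cons_val]
  ring

/-- coefficients of a flag polynomial -/
def evQd (G : Fin 14 → ℝ) : Qd where
  c0 := G 13
  c1 := G 12
  c2 := G 9
  b := ![0, G 11, G 10]
  d := ![G 4, G 8, G 7]
  g := ![![G 0, G 2, G 1], ![0, G 6, G 5], ![0, 0, G 3]]

theorem evQd_ev (G : Fin 14 → ℝ) (z : ℝ) (x : V3) :
    (evQd G).ev z x = evY G z (x 1) (x 2) (x 0) := by
  simp only [Qd.ev, evQd, evY, Fin.sum_univ_three, Matrix.cons_val]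
  ring

theorem evQd_sz {G : Fin 14 → ℝ} {K : ℝ} (h : ∀ k, |G k| ≤ K) : Sz (evQd G) K := by
  have hK : 0 ≤ K := (abs_nonneg _).trans (h 0)
  refine ⟨h 13, h 12, h 9, ?_, ?_, ?_⟩
  · intro i
    fin_cases i
    · simpa [evQd] using hK
    · exact h 11
    · exact h 10
  · intro i
    fin_cases i
    · exact h 4
    · exact h 8
    · exact h 7
  · intro i j
    fin_cases i <;> fin_cases j
    · exact h 0
    · exact h 2
    · exact h 1
    · simpa [evQd] using hK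
    · exact h 6
    · exact h 5
    · simpa [evQd] using hK
    · simpa [evQd] using hK
    · exact h 3

/-- difference -/
def dif (Q Q' : Qd) : Qd where
  c0 := Q.c0 - Q'.c0
  c1 := Q.c1 - Q'.c1
  c2 := Q.c2 - Q'.c2
  b := fun i => Q.b i - Q'.b i
  d := fun i => Q.d i - Q'.d i
  g := fun i j => Q.g i j - Q'.g i j

theorem dif_ev (Q Q' : Qd) (z : ℝ) (x : V3) : (dif Q Q').ev z x = Q.ev z x - Q'.ev z x := by
  simp only [Qd.ev, dif, Fin.sum_univ_three]; ring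

theorem dif_gr (Q Q' : Qd) (z : ℝ) (x : V3) (k : Fin 3) :
    (dif Q Q').gr z x k = Q.gr z x k - Q'.gr z x k := by
  simp only [Qd.gr, dif, Fin.sum_univ_three]; ring

/-- multiple -/
def mul (c : ℝ) (Q : Qd) : Qd where
  c0 := c * Q.c0
  c1 := c * Q.c1
  c2 := c * Q.c2
  b := fun i => c * Q.b i
  d := fun i => c * Q.d i
  g := fun i j => c * Q.g i j

theorem mul_ev (c : ℝ) (Q : Qd) (z : ℝ) (x : V3) : (mul c Q).ev z x = c * Q.ev z x := by
  simp only [Qd.ev, mul, Fin.sum_univ_three]; ring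

theorem mul_gr (c : ℝ) (Q : Qd) (z : ℝ) (x : V3) (k : Fin 3) :
    (mul c Q).gr z x k = c * Q.gr z x k := by
  simp only [Qd.gr, mul, Fin.sum_univ_three]; ring

/-- a polynomial vanishing near the origin has gradient zero -/
theorem gr_zero {Q : Qd} (h : ∀ z x, |z| ≤ 1 → (∀ k, |x k| ≤ 1) → Q.ev z x = 0) (z : ℝ) (x : V3)
    (k : Fin 3) : Q.gr z x k = 0 := by
  have o : |(1 : ℝ)| ≤ 1 := by norm_num
  have m : |(-1 : ℝ)| ≤ 1 := by norm_num
  have n : |(0 : ℝ)| ≤ 1 := by norm_num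
  have v : ∀ (z a b c : ℝ), |z| ≤ 1 → |a| ≤ 1 → |b| ≤ 1 → |c| ≤ 1 → Q.ev z ![a, b, c] = 0 := by
    intro z a b c hz ha hb hc
    refine h z _ hz fun k => ?_
    fin_cases k
    · exact ha
    · exact hb
    · exact hc
  have e : ∀ (z a b c : ℝ), Q.ev z ![a, b, c] = Q.c0 + Q.c1 * z + Q.c2 * z ^ 2 +
      ((Q.b 0 + Q.d 0 * z) * a + (Q.b 1 + Q.d 1 * z) * b + (Q.b 2 + Q.d 2 * z) * c) +
      (Q.g 0 0 * a ^ 2 + Q.g 1 1 * b ^ 2 + Q.g 2 2 * c ^ 2 + (Q.g 0 1 + Q.g 1 0) * (a * b) +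
        (Q.g 0 2 + Q.g 2 0) * (a * c) + (Q.g 1 2 + Q.g 2 1) * (b * c)) := by
    intro z a b c
    simp only [Qd.ev, Fin.sum_univ_three, Matrix.cons_val]; ring
  have v0 := v 0 0 0 0 n n n n
  have a1 := v 0 1 0 0 n o n n
  have a2 := v 0 (-1) 0 0 n m n n
  have a3 := v 1 1 0 0 o o n n
  have a4 := v 1 (-1) 0 0 o m n n
  have b1 := v 0 0 1 0 n n o n
  have b2 := v 0 0 (-1) 0 n n m n
  have b3 := v 1 0 1 0 o n o n
  have b4 := v 1 0 (-1) 0 o n m n
  have c1 := v 0 0 0 1 n n n o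
  have c2 := v 0 0 0 (-1) n n n m
  have c3 := v 1 0 0 1 o n n o
  have c4 := v 1 0 0 (-1) o n n m
  have ab := v 0 1 1 0 n o o n
  have ac := v 0 1 0 1 n o n o
  have bc := v 0 0 1 1 n n o o
  rw [e] at v0 a1 a2 a3 a4 b1 b2 b3 b4 c1 c2 c3 c4 ab ac bc
  have B0 : Q.b 0 = 0 := by linarith
  have B1 : Q.b 1 = 0 := by linarith
  have B2 : Q.b 2 = 0 := by linarith
  have D0 : Q.d 0 = 0 := by linarith
  have D1 : Q.d 1 = 0 := by linarith
  have D2 : Q.d 2 = 0 := by linarith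
  have G00 : Q.g 0 0 = 0 := by linarith
  have G11 : Q.g 1 1 = 0 := by linarith
  have G22 : Q.g 2 2 = 0 := by linarith
  have G01 : Q.g 0 1 + Q.g 1 0 = 0 := by linarith
  have G02 : Q.g 0 2 + Q.g 2 0 = 0 := by linarith
  have G12 : Q.g 1 2 + Q.g 2 1 = 0 := by linarith
  fin_cases k
  · show Q.gr z x 0 = 0
    simp only [Qd.gr, Fin.sum_univ_three, B0, D0, G00, G01, G02]; ring
  · show Q.gr z x 1 = 0
    have G10 : Q.g 1 0 + Q.g 0 1 = 0 := by linarith
    simp only [Qd.gr, Fin.sum_univ_three, B1, D1, G11, G10, G12]; ring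
  · show Q.gr z x 2 = 0
    have G20 : Q.g 2 0 + Q.g 0 2 = 0 := by linarith
    have G21 : Q.g 2 1 + Q.g 1 2 = 0 := by linarith
    simp only [Qd.gr, Fin.sum_univ_three, B2, D2, G22, G20, G21]; ring

theorem Sz.gr {Q : Qd} {K : ℝ} (h : Sz Q K) {z R : ℝ} {x : V3} (hz : |z| ≤ R)
    (hx : ∀ k, |x k| ≤ R) (k : Fin 3) : |Q.gr z x k| ≤ K * (1 + 7 * R) := by
  have e : Q.gr z x k = Q.b k + Q.d k * z + ((Q.g k 0 + Q.g 0 k) * x 0 +
      (Q.g k 1 + Q.g 1 k) * x 1 + (Q.g k 2 + Q.g 2 k) * x 2) := by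
    simp only [Qd.gr, Fin.sum_univ_three]
  rw [e]
  refine (a2 (a2 (h.b k) (m2 (h.d k) hz)) (a2 (a2 (m2 (a2 (h.g k 0) (h.g 0 k)) (hx 0))
    (m2 (a2 (h.g k 1) (h.g 1 k)) (hx 1))) (m2 (a2 (h.g k 2) (h.g 2 k)) (hx 2)))).trans ?_
  exact le_of_eq (by ring)

/-- **all marks are multiples of one container polynomial** -/
theorem gr_close {w : Wq} {η δ : ℝ} (hw : w.Sm η) (hη : η ≤ 1 / 1000) (hκ : |w.κ| ≤ 1 / 2)
    {Q : Qd} (hc : ∀ z x, |z| ≤ 2 → (∀ k, |x k| ≤ 2) → w.q z x = 0 → |Q.ev z x| ≤ δ) :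
    ∃ ν : ℝ, ∀ (R z : ℝ) (x : V3), |z| ≤ R → (∀ k, |x k| ≤ R) → ∀ k,
      |Q.gr z x k - ν * (wqd w).gr z x k| ≤ 40 * δ * (1 + 7 * R) := by
  have hη0 : 0 ≤ η := (abs_nonneg _).trans hw.γ
  have h1 : η ≤ 1 := by linarith
  set P := w.pj with hP
  have hS : P.Sm (5 * η) := hw.pj h1
  have hS' : P.inv.Sm (10 * η) := by
    have := hS.inv (by linarith)
    have e : 2 * (5 * η) = 10 * η := by ring
    rwa [e] at this
  have hκ' : |w.κ'| ≤ 51 / 100 := by
    have := hw.kap h1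
    have e : w.κ' = w.κ + (w.κ' - w.κ) := by ring
    rw [e]
    refine (abs_add_le _ _).trans ?_
    linarith
  have hδ : 0 ≤ δ := by
    have := hc 0 0 (by norm_num) (fun k => by simp) (by simp [Wq.q])
    exact (abs_nonneg _).trans this
  -- the pull back in model coordinates
  set Q' := pullQ P.inv Q with hQ'
  have hq : ∀ z a b : ℝ, |z| ≤ 1 → |a| ≤ 1 → |b| ≤ 1 → |Q'.ev z (q0 w.κ' z a b)| ≤ 4 * δ := by
    intro z a b hz ha hb
    set x' := q0 w.κ' z a b with hx'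
    have x0 : |x' 0| ≤ 151 / 100 := by
      show |z * b + w.κ' * a ^ 2| ≤ _
      have ha2 : |a ^ 2| ≤ 1 := by rw [sq]; exact (m2 ha ha).trans (by norm_num)
      refine (a2 (m2 hz hb) (m2 hκ' ha2)).trans (by norm_num)
    have hx2 : ∀ k, |x' k| ≤ 151 / 100 := by
      intro k
      fin_cases k
      · exact x0
      · show |a| ≤ _
        linarith
      · show |b| ≤ _
        linarith
    have hx3 : ∀ k, |x' k| ≤ 2 := fun k => (hx2 k).trans (by norm_num)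
    have hs : 4 * (10 * η * 2) ≤ 1 := by linarith
    have hT := Pj.T_half hS' hx3 hs
    have hT0 : P.inv.T x' ≠ 0 := by
      have : 0 < P.inv.T x' := by linarith [hT.1]
      exact this.ne'
    have hz2 : |z| ≤ 2 := by linarith
    have k1 := Pj.ht_near hS' hx3 hz2 (by norm_num) hs
    have k2 := fun k => Pj.pt_near hS' hx3 (by norm_num) hs k
    have e1 : P.ht (P.inv.ht z x') (P.inv.pt x') = z := by
      have := P.inv.inv_ht (z := z) hT0
      rwa [P.inv_inv] at this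
    have e2 : P.pt (P.inv.pt x') = x' := by
      have := P.inv.inv_pt hT0
      rwa [P.inv_inv] at this
    have e3 : P.T (P.inv.pt x') ≠ 0 := by
      have := P.inv.inv_T hT0
      rw [P.inv_inv] at this
      rw [this]
      exact one_div_ne_zero hT0
    have e4 : w.q (P.inv.ht z x') (P.inv.pt x') = 0 := by
      rw [w.witt' e3, e1, e2]
      have : model w.κ' z x' = 0 := ht_q0 w.κ' z a b
      rw [this, mul_zero]
    have b1 : |P.inv.ht z x'| ≤ 2 := by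
      have e : P.inv.ht z x' = z + (P.inv.ht z x' - z) := by ring
      rw [e]
      refine (abs_add_le _ _).trans ?_
      have : 10 * (10 * η * 2 ^ 2) ≤ 1 := by linarith
      linarith
    have b2 : ∀ k, |P.inv.pt x' k| ≤ 2 := by
      intro k
      have e : P.inv.pt x' k = x' k + (P.inv.pt x' k - x' k) := by ring
      rw [e]
      refine (abs_add_le _ _).trans ?_
      have := k2 k
      have := hx2 k
      linarith
    have h2 := hc _ _ b1 b2 e4
    rw [hQ', pullQ_ev _ _ hT0, abs_mul, abs_of_nonneg (sq_nonneg _)]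
    have : P.inv.T x' ^ 2 ≤ 4 := by nlinarith [hT.1, hT.2]
    exact mul_le_mul this h2 (abs_nonneg _) (by norm_num)
  set G := rem w.κ' Q' with hG
  have hG' : ∀ k, |G k| ≤ 24 * δ := by
    intro k
    refine (rem_le (by linarith) hq k).trans (by linarith)
  -- identity near the origin
  have hid : ∀ z x, |z| ≤ 1 → (∀ k, |x k| ≤ 1) →
      (dif Q (dif (mul (Q'.b 0) (wqd w)) (mul (-1) (pullQ P (evQd G))))).ev z x = 0 := by
    intro z x hz hx
    have hT := Pj.T_half hS hx (by linarith)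
    have hT0 : P.T x ≠ 0 := by
      have : 0 < P.T x := by linarith [hT.1]
      exact this.ne'
    rw [dif_ev, dif_ev, mul_ev, mul_ev, wqd_ev, pullQ_ev _ _ hT0, w.witt' hT0, evQd_ev]
    have e1 := ev_pull_inv P Q (z := z) hT0
    have e2 := ev_rem w.κ' Q' (P.ht z x) (P.pt x)
    rw [← hQ'] at e1
    rw [e1] at e2
    have e3 : Q.ev z x = P.T x ^ 2 * (Q.ev z x / P.T x ^ 2) := by field_simp
    rw [e3, e2]
    have e4 : model w.κ' (P.ht z x) (P.pt x) =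
        ht w.κ' (P.ht z x) (P.pt x 1) (P.pt x 2) (P.pt x 0) := rfl
    rw [e4]
    ring
  refine ⟨Q'.b 0, fun R z x hz hx k => ?_⟩
  have h2 := gr_zero hid z x k
  rw [dif_gr, dif_gr, mul_gr, mul_gr] at h2
  have h3 : Q.gr z x k - Q'.b 0 * (wqd w).gr z x k = (pullQ P (evQd G)).gr z x k := by linarith
  rw [h3]
  have hz1 := evQd_sz hG'
  have hcl := pullQ_cl hS (by linarith) hz1
  have hsz := hcl.sz hz1
  have h4 := hsz.gr hz hx k
  refine h4.trans ?_
  have hR : 0 ≤ 1 + 7 * R := by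
    have := (abs_nonneg _).trans hz; linarith
  refine mul_le_mul_of_nonneg_right ?_ hR
  nlinarith

/-- gradient of `w.q` -/
theorem wqd_gr (w : Wq) (z : ℝ) (x : V3) : (wqd w).gr z x = ![
    1 + w.γ * z + w.c3 * x 1 + w.c4 * x 2 + 2 * w.c5 * x 0,
    -(w.ζ * z) + w.c3 * x 0 - 2 * w.κ * x 1 + w.c1 * x 2,
    -z + w.c4 * x 0 + w.c1 * x 1 + 2 * w.c2 * x 2] := by
  funext k
  fin_cases k <;> simp [Qd.gr, wqd, Fin.sum_univ_three] <;> ring

theorem wqd_gr_le {w : Wq} {η : ℝ} (hw : w.Sm η) (hη : η ≤ 1) (hκ : |w.κ| ≤ 1 / 2) {z R : ℝ}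
    {x : V3} (hR : 1 ≤ R) (hz : |z| ≤ R) (hx : ∀ k, |x k| ≤ R) (k : Fin 3) :
    |(wqd w).gr z x k| ≤ 6 * R := by
  have h0 : 0 ≤ η := (abs_nonneg _).trans hw.γ
  have two : |(2 : ℝ)| ≤ 2 := by norm_num
  have one : |(1 : ℝ)| ≤ 1 := by norm_num
  rw [wqd_gr]
  fin_cases k
  · show |1 + w.γ * z + w.c3 * x 1 + w.c4 * x 2 + 2 * w.c5 * x 0| ≤ _
    refine (a2 (a2 (a2 (a2 one (m2 hw.γ hz)) (m2 hw.c3 (hx 1))) (m2 hw.c4 (hx 2)))
      (m2 (m2 two hw.c5) (hx 0))).trans ?_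
    nlinarith
  · show |-(w.ζ * z) + w.c3 * x 0 - 2 * w.κ * x 1 + w.c1 * x 2| ≤ _
    have h1 : |-(w.ζ * z)| ≤ η * R := by rw [abs_neg]; exact m2 hw.ζ hz
    refine (a2 (s2 (a2 h1 (m2 hw.c3 (hx 0))) (m2 (m2 two hκ) (hx 1)))
      (m2 hw.c1 (hx 2))).trans ?_
    nlinarith
  · show |-z + w.c4 * x 0 + w.c1 * x 1 + 2 * w.c2 * x 2| ≤ _
    have h1 : |-z| ≤ R := by rw [abs_neg]; exact hz
    refine (a2 (a2 (a2 h1 (m2 hw.c4 (hx 0))) (m2 hw.c1 (hx 1)))
      (m2 (m2 two hw.c2) (hx 2))).trans ?_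
    nlinarith

theorem num1 {δ L R WY K : ℝ} (hδ : 0 ≤ δ) (hLR : 1 ≤ L * R) (hY : 0 < WY) (hK : 1 ≤ K)
    (hs : 4000 * (δ * (L * R)) ≤ WY / K) : 40 * δ * (1 + 7 * (2 * (L * R))) ≤ WY := by
  have h1 : δ * 1 ≤ δ * (L * R) := mul_le_mul_of_nonneg_left hLR hδ
  have h2 : WY / K ≤ WY := div_le_self hY.le hK
  have h3 : 40 * δ * (1 + 7 * (2 * (L * R))) = 40 * (δ * 1) + 560 * (δ * (L * R)) := by ring
  have h4 : 0 ≤ δ * (L * R) := le_trans (by linarith) h1
  rw [h3]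
  linarith

theorem num2 {δ L R : ℝ} (hδ : 0 ≤ δ) (hR : 1 ≤ R) (hL : 1 ≤ L) :
    40 * δ * (1 + 7 * (2 * R)) ≤ 600 * (δ * (L * R)) := by
  have h1 : R ≤ L * R := le_mul_of_one_le_left (by linarith) hL
  have h2 : δ * R ≤ δ * (L * R) := mul_le_mul_of_nonneg_left h1 hδ
  have h3 : δ * 1 ≤ δ * R := mul_le_mul_of_nonneg_left hR hδ
  have h4 : 40 * δ * (1 + 7 * (2 * R)) = 40 * (δ * 1) + 560 * (δ * R) := by ring
  rw [h4]
  linarith

theorem num3 {N A K WY R E : ℝ} (hN : 0 ≤ N) (hR : 0 ≤ R) (h5 : N * A ≤ K * WY + E) (h6 : E ≤ WY)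
    (hK : 1 ≤ K) (hY : 0 < WY) (hWY : WY ≤ 72 * (K * (N * R))) :
    N * A ≤ N * (145 * (K ^ 2 * R)) := by
  have h1 : WY ≤ K * WY := le_mul_of_one_le_left hY.le hK
  have h2 : 2 * K * WY ≤ 2 * K * (72 * (K * (N * R))) :=
    mul_le_mul_of_nonneg_left hWY (by linarith)
  have h3 : 2 * K * (72 * (K * (N * R))) = N * (144 * (K ^ 2 * R)) := by ring
  have h4 : 0 ≤ N * (K ^ 2 * R) := by positivity
  have h5' : N * (145 * (K ^ 2 * R)) = N * (144 * (K ^ 2 * R)) + N * (K ^ 2 * R) := by ring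
  have h6' : 2 * K * WY = K * WY + K * WY := by ring
  rw [h5']
  linarith

/-- **coarser legality along a line** -/
theorem coarse_slope {w : Wq} {η δ : ℝ} (hw : w.Sm η) (hη : η ≤ 1 / 1000) (hκ : |w.κ| ≤ 1 / 2)
    {Q : Qd} (hc : ∀ z x, |z| ≤ 2 → (∀ k, |x k| ≤ 2) → w.q z x = 0 → |Q.ev z x| ≤ δ)
    {WY WA WB K L R α β : ℝ} (hY : 0 < WY) (hYA : WY ≤ WA) (hYB : WY ≤ WB) (hK : 1 ≤ K)
    (hR : 1 ≤ R) (hL : 1 ≤ L) {t : Ln4} (hp : ∀ k, |t.p k| ≤ R) (hv : ∀ k, |t.v k| ≤ R)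
    (hα : |α| ≤ L) (hβ : |β| ≤ L) (hαβ : L / 4 ≤ β - α)
    (hup : ∀ z, α ≤ z → z ≤ β → |Q.gr z (t.pos z) 0| ≤ K * WY)
    {z1 : ℝ} (hz1 : |z1| ≤ 1)
    (hlow : WY / K ≤ |Q.gr z1 (t.pos z1) 0| + |Q.gr z1 (t.pos z1) 1| * (WY / WA) +
      |Q.gr z1 (t.pos z1) 2| * (WY / WB))
    (hs : 4000 * (δ * (L * R)) ≤ WY / K) :
    |w.γ + w.c3 * t.v 1 + w.c4 * t.v 2 + 2 * w.c5 * t.v 0| ≤ 1200 * K ^ 2 * R / L := by
  obtain ⟨ν, hν⟩ := gr_close hw hη hκ hc
  have hη0 : 0 ≤ η := (abs_nonneg _).trans hw.γ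
  have hδ : 0 ≤ δ := by
    have := hc 0 0 (by norm_num) (fun k => by simp) (by simp [Wq.q])
    exact (abs_nonneg _).trans this
  have hA : 0 < WA := by linarith
  have hB : 0 < WB := by linarith
  have rA : WY / WA ≤ 1 := (div_le_one hA).2 hYA
  have rB : WY / WB ≤ 1 := (div_le_one hB).2 hYB
  have rA0 : 0 ≤ WY / WA := by positivity
  have rB0 : 0 ≤ WY / WB := by positivity
  -- positions on the line
  have pos : ∀ z, |z| ≤ L → ∀ k, |t.pos z k| ≤ 2 * (L * R) := by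
    intro z hz k
    have e : t.pos z k = t.p k + z * t.v k := rfl
    rw [e]
    refine (a2 (hp k) (m2 hz (hv k))).trans ?_
    have q1 : R ≤ L * R := le_mul_of_one_le_left (by linarith) hL
    linarith
  have pos1 : ∀ k, |t.pos z1 k| ≤ 2 * R := by
    intro k
    have e : t.pos z1 k = t.p k + z1 * t.v k := rfl
    rw [e]
    refine (a2 (hp k) (m2 hz1 (hv k))).trans ?_
    linarith
  -- lower bound of `ν`
  have g1 := fun k => hν (2 * R) z1 (t.pos z1) (by linarith) pos1 k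
  have g2 := fun k => wqd_gr_le hw (by linarith) hκ (by linarith : 1 ≤ 2 * R)
    (by linarith : |z1| ≤ 2 * R) pos1 k
  have hER : 40 * δ * (1 + 7 * (2 * R)) ≤ 600 * (δ * (L * R)) := num2 hδ hR hL
  have hk : ∀ k, |Q.gr z1 (t.pos z1) k| ≤ |ν| * (12 * R) + 600 * (δ * (L * R)) := by
    intro k
    have e : Q.gr z1 (t.pos z1) k = ν * (wqd w).gr z1 (t.pos z1) k +
        (Q.gr z1 (t.pos z1) k - ν * (wqd w).gr z1 (t.pos z1) k) := by ring
    rw [e]
    have h3 : |ν * (wqd w).gr z1 (t.pos z1) k| ≤ |ν| * (12 * R) := by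
      rw [abs_mul]
      refine mul_le_mul_of_nonneg_left ((g2 k).trans (le_of_eq (by ring))) (abs_nonneg _)
    exact a2 h3 ((g1 k).trans hER)
  have hn : WY / K ≤ 72 * (|ν| * R) := by
    have n1 := abs_nonneg (Q.gr z1 (t.pos z1) 1)
    have n2 := abs_nonneg (Q.gr z1 (t.pos z1) 2)
    have l1 : |Q.gr z1 (t.pos z1) 1| * (WY / WA) ≤ |Q.gr z1 (t.pos z1) 1| :=
      mul_le_of_le_one_right n1 rA
    have l2 : |Q.gr z1 (t.pos z1) 2| * (WY / WB) ≤ |Q.gr z1 (t.pos z1) 2| :=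
      mul_le_of_le_one_right n2 rB
    have := hk 0
    have := hk 1
    have := hk 2
    linarith
  have hKp : 0 < K := by linarith
  have hLp : 0 < L := by linarith
  have hLR1 : 1 ≤ L * R := one_le_mul_of_one_le_of_one_le hL hR
  have hνp : 0 < |ν| := by
    have : 0 < WY / K := by positivity
    by_contra hcon
    have h0 : |ν| = 0 := le_antisymm (not_lt.1 hcon) (abs_nonneg _)
    rw [h0, zero_mul, mul_zero] at hn
    linarith
  have hWY : WY ≤ 72 * (K * (|ν| * R)) := by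
    rw [div_le_iff₀ hKp] at hn
    linarith
  -- upper bound of `1 + γ z + ..` on the long cell
  set s := w.γ + w.c3 * t.v 1 + w.c4 * t.v 2 + 2 * w.c5 * t.v 0 with hsdef
  set a0 := 1 + w.c3 * t.p 1 + w.c4 * t.p 2 + 2 * w.c5 * t.p 0 with ha0
  have hlin : ∀ z, (wqd w).gr z (t.pos z) 0 = a0 + z * s := by
    intro z
    rw [wqd_gr]
    simp only [Matrix.cons_val, Ln4.pos, hsdef, ha0]
    ring
  have hab : ∀ z, α ≤ z → z ≤ β → |a0 + z * s| ≤ 145 * (K ^ 2 * R) := by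
    intro z h1 h2
    have hzL : |z| ≤ L := abs_le.2 ⟨by linarith [(abs_le.1 hα).1], by linarith [(abs_le.1 hβ).2]⟩
    have hLR : L ≤ 2 * (L * R) := by
      have q1 : L ≤ L * R := le_mul_of_one_le_right hLp.le hR
      linarith
    have h3 := hν (2 * (L * R)) z (t.pos z) (hzL.trans hLR) (pos z hzL) 0
    rw [hlin] at h3
    have h4 := hup z h1 h2
    have e : ν * (a0 + z * s) = Q.gr z (t.pos z) 0 - (Q.gr z (t.pos z) 0 - ν * (a0 + z * s)) := by
      ring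
    have h5 : |ν * (a0 + z * s)| ≤ K * WY + 40 * δ * (1 + 7 * (2 * (L * R))) := by
      rw [e]
      exact s2 h4 h3
    have h6 : 40 * δ * (1 + 7 * (2 * (L * R))) ≤ WY := num1 hδ hLR1 hY hK hs
    rw [abs_mul] at h5
    exact le_of_mul_le_mul_left (num3 hνp.le (by linarith) h5 h6 hK hY hWY) hνp
  have h1 := hab α le_rfl (by linarith)
  have h2 := hab β (by linarith) le_rfl
  have e : (β - α) * s = (a0 + β * s) - (a0 + α * s) := by ring
  have h3 : |(β - α) * s| ≤ 290 * (K ^ 2 * R) := by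
    rw [e]
    exact (s2 h2 h1).trans (le_of_eq (by ring))
  rw [abs_mul, abs_of_pos (by linarith : 0 < β - α)] at h3
  rw [le_div_iff₀ hLp]
  have h4 : L / 4 * |s| ≤ (β - α) * |s| := mul_le_mul_of_nonneg_right hαβ (abs_nonneg _)
  have h5 : 0 ≤ K ^ 2 * R := by positivity
  linarith

end Crest.Agent.R136.Wit321
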