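import Crest.Agent.R136.Stc5_321
import Crest.Agent.R136.Wit5_321

/-!
# R136, U6 thin side, stage C (helper321), part 6: flags and closeness to the model

* `sym` : symmetrised coefficients; `Nr.congr` : `Nr` depends on the values only.
* `nr_good` : bounded flags in normal coordinates ⊢ `Nr` in container coordinates.
-/

set_option autoImplicit false
set_option linter.unusedVariables false

namespace Crest.Agent.R136.Stc321

open Crest.Agent.R136.Sh605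
open Crest.Agent.R136.NetW191
open Crest.Agent.R136.GeoN778
open Crest.Agent.R136.Wit321

/-- symmetrised coefficients -/
noncomputable def sym (Q : Qd) : Qd where
  c0 := Q.c0
  c1 := Q.c1
  c2 := Q.c2
  b := Q.b
  d := Q.d
  g := fun i j => (Q.g i j + Q.g j i) / 2

theorem sym_ev (Q : Qd) (z : ℝ) (x : V3) : (sym Q).ev z x = Q.ev z x := by
  simp only [Qd.ev, sym, Fin.sum_univ_three]; ring

theorem sym_gr (Q : Qd) (z : ℝ) (x : V3) (k : Fin 3) : (sym Q).gr z x k = Q.gr z x k := by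
  simp only [Qd.gr, sym, Fin.sum_univ_three]; ring

theorem sym_gd (Q : Qd) (t : Ln4) (k : Fin 3) : gd (sym Q) t k = gd Q t k := by
  simp only [gd, sym, Fin.sum_univ_three]; ring

theorem sym_hes (Q : Qd) (X : V3) : hes (sym Q) X = hes Q X := by
  simp only [hes, sym, Fin.sum_univ_three]; ring

theorem sym_cl {Q Q' : Qd} {δ : ℝ} (h : Cl Q Q' δ) : Cl (sym Q) (sym Q') δ where
  c0 := h.c0
  c1 := h.c1
  c2 := h.c2
  b := h.b
  d := h.d
  g := fun i j => by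
    have e : (sym Q).g i j - (sym Q').g i j =
        1 / 2 * (Q.g i j - Q'.g i j) + 1 / 2 * (Q.g j i - Q'.g j i) := by simp only [sym]; ring
    rw [e]
    have half : |(1 / 2 : ℝ)| ≤ 1 / 2 := by norm_num
    refine (a2 (m2 half (h.g i j)) (m2 half (h.g j i))).trans (le_of_eq (by ring))

/-- values determine gradient, derivative, second order part -/
theorem gr_of_ev {Q Q' : Qd}
    (h : ∀ z x, |z| ≤ 1 → (∀ k, |x k| ≤ 1) → Q.ev z x = Q'.ev z x) :
    (∀ z x k, Q.gr z x k = Q'.gr z x k) ∧ (∀ t k, gd Q t k = gd Q' t k) ∧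
      (∀ X, hes Q X = hes Q' X) := by
  have h0 : ∀ z x, |z| ≤ 1 → (∀ k, |x k| ≤ 1) → (dif Q Q').ev z x = 0 := by
    intro z x hz hx
    rw [dif_ev, h z x hz hx, sub_self]
  have g := gr_zero h0
  have g1 : ∀ z x k, Q.gr z x k = Q'.gr z x k := by
    intro z x k
    have := g z x k
    rw [dif_gr] at this
    linarith
  have g2 : ∀ t k, gd Q t k = gd Q' t k := by
    intro t k
    have a := gr_along Q t 0 1 k
    have b := gr_along Q' t 0 1 k
    rw [g1, g1 0] at a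
    linarith
  refine ⟨g1, g2, fun X => ?_⟩
  have e : ∀ Q : Qd, hes Q X = (dt (Q.gr 0 X) X - dt (Q.gr 0 0) X) / 2 := by
    intro Q
    simp only [hes, dt, Qd.gr, Fin.sum_univ_three, Pi.zero_apply]; ring
  rw [e, e]
  simp only [dt, g1]

theorem Nr.congr {Q Q' : Qd} {t : Ln4} {z1 κ ν R η : ℝ} (h : Nr Q t z1 κ ν R η)
    (h1 : ∀ z x k, Q.gr z x k = Q'.gr z x k) (h2 : ∀ t k, gd Q t k = gd Q' t k)
    (h3 : ∀ X, hes Q X = hes Q' X) : Nr Q' t z1 κ ν R η := by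
  refine ⟨?_, ?_, ?_, ?_, ?_, ?_, ?_⟩
  · rw [← h1]; exact h.g0
  · rw [← h1]; exact h.g1
  · rw [← h1]; exact h.g2
  · rw [← h2]; exact h.d0
  · rw [← h2]; exact h.d1
  · rw [← h2]; exact h.d2
  · intro X B hX
    rw [← h3]; exact h.hh X B hX

/-- small flags: the polynomial is near the model -/
theorem cl_of_rem {κ δ : ℝ} {Q : Qd} (h : ∀ k, |rem κ Q k| ≤ δ) :
    Cl (sym Q) (Wit321.mul (Q.b 0) (mod κ)) δ := by
  have hδ : 0 ≤ δ := (abs_nonneg _).trans (h 0)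
  have half : |(1 / 2 : ℝ)| ≤ 1 / 2 := by norm_num
  have hf : ∀ {a : ℝ}, |a| ≤ δ → |1 / 2 * a| ≤ δ := fun ha => (m2 half ha).trans (by linarith)
  have r13 : |Q.c0| ≤ δ := h 13
  have r12 : |Q.c1| ≤ δ := h 12
  have r9 : |Q.c2| ≤ δ := h 9
  have r11 : |Q.b 1| ≤ δ := h 11
  have r10 : |Q.b 2| ≤ δ := h 10
  have r4 : |Q.d 0| ≤ δ := h 4
  have r8 : |Q.d 1| ≤ δ := h 8
  refine ⟨?_, ?_, ?_, ?_, ?_, ?_⟩
  · simpa [sym, Wit321.mul, mod] using r13
  · simpa [sym, Wit321.mul, mod] using r12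
  · simpa [sym, Wit321.mul, mod] using r9
  · intro i
    fin_cases i
    · simpa [sym, Wit321.mul, mod] using hδ
    · simpa [sym, Wit321.mul, mod] using r11
    · simpa [sym, Wit321.mul, mod] using r10
  · intro i
    fin_cases i
    · simpa [sym, Wit321.mul, mod] using r4
    · simpa [sym, Wit321.mul, mod] using r8
    · have e : (sym Q).d 2 - (Wit321.mul (Q.b 0) (mod κ)).d 2 = rem κ Q 7 := by
        simp [sym, Wit321.mul, mod, rem]
      show |(sym Q).d 2 - (Wit321.mul (Q.b 0) (mod κ)).d 2| ≤ δ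
      rw [e]; exact h 7
  · intro i j
    fin_cases i <;> fin_cases j
    · have e : (sym Q).g 0 0 - (Wit321.mul (Q.b 0) (mod κ)).g 0 0 = rem κ Q 0 := by
        simp [sym, Wit321.mul, mod, rem]
      show |(sym Q).g 0 0 - (Wit321.mul (Q.b 0) (mod κ)).g 0 0| ≤ δ
      rw [e]; exact h 0
    · have e : (sym Q).g 0 1 - (Wit321.mul (Q.b 0) (mod κ)).g 0 1 = 1 / 2 * rem κ Q 2 := by
        simp [sym, Wit321.mul, mod, rem]; ring
      show |(sym Q).g 0 1 - (Wit321.mul (Q.b 0) (mod κ)).g 0 1| ≤ δ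
      rw [e]; exact hf (h 2)
    · have e : (sym Q).g 0 2 - (Wit321.mul (Q.b 0) (mod κ)).g 0 2 = 1 / 2 * rem κ Q 1 := by
        simp [sym, Wit321.mul, mod, rem]; ring
      show |(sym Q).g 0 2 - (Wit321.mul (Q.b 0) (mod κ)).g 0 2| ≤ δ
      rw [e]; exact hf (h 1)
    · have e : (sym Q).g 1 0 - (Wit321.mul (Q.b 0) (mod κ)).g 1 0 = 1 / 2 * rem κ Q 2 := by
        simp [sym, Wit321.mul, mod, rem]; ring
      show |(sym Q).g 1 0 - (Wit321.mul (Q.b 0) (mod κ)).g 1 0| ≤ δ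
      rw [e]; exact hf (h 2)
    · have e : (sym Q).g 1 1 - (Wit321.mul (Q.b 0) (mod κ)).g 1 1 = rem κ Q 6 := by
        simp [sym, Wit321.mul, mod, rem]; ring
      show |(sym Q).g 1 1 - (Wit321.mul (Q.b 0) (mod κ)).g 1 1| ≤ δ
      rw [e]; exact h 6
    · have e : (sym Q).g 1 2 - (Wit321.mul (Q.b 0) (mod κ)).g 1 2 = 1 / 2 * rem κ Q 5 := by
        simp [sym, Wit321.mul, mod, rem]; ring
      show |(sym Q).g 1 2 - (Wit321.mul (Q.b 0) (mod κ)).g 1 2| ≤ δ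
      rw [e]; exact hf (h 5)
    · have e : (sym Q).g 2 0 - (Wit321.mul (Q.b 0) (mod κ)).g 2 0 = 1 / 2 * rem κ Q 1 := by
        simp [sym, Wit321.mul, mod, rem]; ring
      show |(sym Q).g 2 0 - (Wit321.mul (Q.b 0) (mod κ)).g 2 0| ≤ δ
      rw [e]; exact hf (h 1)
    · have e : (sym Q).g 2 1 - (Wit321.mul (Q.b 0) (mod κ)).g 2 1 = 1 / 2 * rem κ Q 5 := by
        simp [sym, Wit321.mul, mod, rem]; ring
      show |(sym Q).g 2 1 - (Wit321.mul (Q.b 0) (mod κ)).g 2 1| ≤ δ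
      rw [e]; exact hf (h 5)
    · have e : (sym Q).g 2 2 - (Wit321.mul (Q.b 0) (mod κ)).g 2 2 = rem κ Q 3 := by
        simp [sym, Wit321.mul, mod, rem]
      show |(sym Q).g 2 2 - (Wit321.mul (Q.b 0) (mod κ)).g 2 2| ≤ δ
      rw [e]; exact h 3

theorem mod_sz {κ ν : ℝ} (hκ : |κ| ≤ 1) : Sz (Wit321.mul ν (mod κ)) |ν| := by
  have h0 := abs_nonneg ν
  refine ⟨?_, ?_, ?_, ?_, ?_, ?_⟩
  · simp [Wit321.mul, mod]
  · simp [Wit321.mul, mod]
  · simp [Wit321.mul, mod]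
  · intro i; fin_cases i <;> simp [Wit321.mul, mod]
  · intro i; fin_cases i <;> simp [Wit321.mul, mod]
  · intro i j
    fin_cases i <;> fin_cases j <;> simp [Wit321.mul, mod, abs_mul]
    exact mul_le_of_le_one_right h0 hκ

/-- flags and remainders -/
theorem rem_le_of_flg {κ σ Γ : ℝ} {Q : Qd} (hσ : 0 < σ) (hν : Q.b 0 ≠ 0)
    (h : ∀ k, |flg κ σ Q k| ≤ Γ) (k : Fin 14) : |rem κ Q k| ≤ |Q.b 0| * (σ * Γ) := by
  have e : rem κ Q k = -(Q.b 0 * (σ * flg κ σ Q k)) := by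
    simp only [flg]; field_simp
  rw [e, abs_neg]
  exact m2 le_rfl (m2 (abs_of_pos hσ).le (h k))

theorem flg_le_of_rem {κ σ Γ : ℝ} {Q : Qd} (hσ : 0 < σ) (hν : Q.b 0 ≠ 0)
    (h : ∀ k, |rem κ Q k| ≤ |Q.b 0| * (σ * Γ)) (k : Fin 14) : |flg κ σ Q k| ≤ Γ := by
  have hp : 0 < |Q.b 0| * σ := mul_pos (abs_pos.2 hν) hσ
  simp only [flg]
  rw [abs_div, abs_neg, abs_mul, abs_of_pos hσ, div_le_iff₀ hp]
  refine (h k).trans (le_of_eq (by ring))

/-- **bounded flags in normal coordinates: near the model in container coordinates** -/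
theorem nr_good {P : Pj} {η Γ σ κ R z1 : ℝ} (hP : P.Sm η) (hη : 16 * η ≤ 1) {Q : Qd}
    (hσ : 0 < σ) (hκ : |κ| ≤ 1) (hν : (pullQ P.inv Q).b 0 ≠ 0)
    (hf : ∀ k, |flg κ σ (pullQ P.inv Q) k| ≤ Γ) (hΓ : σ * Γ ≤ 1) {t : Ln4} (hR : 1 ≤ R)
    (hz : |z1| ≤ R) (hp : ∀ k, |t.pos z1 k| ≤ R) (hv : ∀ k, |t.v k| ≤ R)
    (hs : 8 * (R * (24 * η + σ * Γ)) ≤ 1) :
    Nr Q t z1 κ ((pullQ P.inv Q).b 0) R (9 * (R * (24 * η + σ * Γ))) := by
  set Q' := pullQ P.inv Q with hQ'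
  have hη0 : 0 ≤ η := hP.nn
  have hΓ0 : 0 ≤ Γ := (abs_nonneg _).trans (hf 0)
  set ν := Q'.b 0 with hνd
  have hrem := rem_le_of_flg hσ hν hf
  rw [← hνd] at hrem
  have h1 := cl_of_rem hrem
  have ms := mod_sz (ν := ν) hκ
  rw [← hνd] at h1
  -- size of `sym Q'`
  have h2 : Sz (sym Q') (|ν| * (σ * Γ) + |ν|) := h1.sz ms
  -- pull back
  have hev : ∀ z x, |z| ≤ 1 → (∀ k, |x k| ≤ 1) → (pullQ P (sym Q')).ev z x = Q.ev z x := by
    intro z x hz hx
    have hT := Pj.T_half hP hx (by linarith)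
    have hT0 : P.T x ≠ 0 := by
      have : 0 < P.T x := by linarith [hT.1]
      exact this.ne'
    rw [pullQ_ev _ _ hT0, sym_ev, hQ', ev_pull_inv P Q hT0]
    field_simp
  have h2' : Sz (sym Q') (2 * |ν|) := by
    have hK : |ν| * (σ * Γ) + |ν| ≤ 2 * |ν| := by
      have := mul_le_of_le_one_right (abs_nonneg ν) hΓ
      linarith
    exact ⟨h2.c0.trans hK, h2.c1.trans hK, h2.c2.trans hK, fun i => (h2.b i).trans hK,
      fun i => (h2.d i).trans hK, fun i j => (h2.g i j).trans hK⟩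
  have h3 := pullQ_cl hP (by linarith) h2'
  have h4 := sym_cl (h3.trans h1)
  have e5 : sym (Wit321.mul ν (mod κ)) = Wit321.mul ν (mod κ) := by
    have : ∀ i j, (Wit321.mul ν (mod κ)).g i j = (Wit321.mul ν (mod κ)).g j i := by
      intro i j
      fin_cases i <;> fin_cases j <;> simp [Wit321.mul, mod]
    have h8 : (fun i j => ((Wit321.mul ν (mod κ)).g i j + (Wit321.mul ν (mod κ)).g j i) / 2) =
        (Wit321.mul ν (mod κ)).g := by
      funext i j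
      have := this j i
      linarith
    unfold sym
    rw [h8]
  rw [e5] at h4
  have e6 : 12 * (η * (2 * |ν|)) + |ν| * (σ * Γ) = |ν| * (24 * η + σ * Γ) := by ring
  rw [e6] at h4
  have h7 := Nr.of_cl h4 hκ hR hz hp hv hs
  obtain ⟨k1, k2, k3⟩ := gr_of_ev hev
  refine h7.congr ?_ ?_ ?_
  · intro z x k; rw [sym_gr, k1]
  · intro t k; rw [sym_gd, k2]
  · intro X; rw [sym_hes, k3]

end Crest.Agent.R136.Stc321
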