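import Crest.Agent.R136.Stc7_321
import Crest.Agent.R136.Own_650
import Crest.Agent.R136.ThnD_768

/-!
# R136, U6 thin side, stage C (helper321), part 8: size of the multiplier and of the curvature extent

`nu_good` : `WY / 8 ≤ |ν| ≤ 8 WY` from `Own` at level `0` and `Frm`; `ye_up`, `ye_low`.
-/

set_option autoImplicit false
set_option linter.unusedVariables false

namespace Crest.Agent.R136.Stc321

open Crest.Agent.R136.Sh605
open Crest.Agent.R136.K4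
open Crest.Agent.R136.NetW191
open Crest.Agent.R136.GeoN778
open Crest.Agent.R136.Wit321
open Crest.Agent.R136.Tl102 (QF Fq bz fan shB0 scB1 scG shG shB1 kap NrmC IsExp fr cmb StP OmB)
open Crest.Agent.R136.Thn768 (Own Snd Tay cr dtm nm D3 Frm exists_tay abs_dt_unit dt_frame)

section

variable {S : Plk4} {T : Ln4} {z0 ρ δ : ℝ} {b0 b1 : V3} {G : QF} {f : Fin 3 → V3} {c : Ln4} {u : Un}
  {Q : Qd} {κ ν R η z1 : ℝ} {N R' : V3} {H : QF}

/-- the gradient along the line in the frame of the plank -/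
theorem grad_plank (O : Own S T z0 ρ δ b0 b1 G) (hT : Tay S.q T N R' H) (ζ : ℝ) (y : V3) :
    dt (N + (z0 + ρ * ζ) • R') (cmb (fr S.e S.w) y) = S.w 0 * dt (bz b0 b1 ζ) y := by
  have key : ∀ y : V3, Fq N R' H (z0 + ρ * ζ) (cmb (fr S.e S.w) y) = S.w 0 * Fq b0 b1 G ζ y := by
    intro y
    have h1 := O.exp ζ y
    have h2 := hT (z0 + ρ * ζ) (cmb (fr S.e S.w) y)
    linarith
  have h1 := key y
  have h2 := key (fun k => -y k)
  have e0 : cmb (fr S.e S.w) (fun k => -y k) = fun k => -cmb (fr S.e S.w) y k := by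
    funext k; simp only [cmb]; ring
  rw [e0] at h2
  have e1 : ∀ x : V3, Fq N R' H (z0 + ρ * ζ) x = dt (N + (z0 + ρ * ζ) • R') x + H.ev x := by
    intro x
    simp only [Fq, dt, bz, Pi.add_apply, Pi.smul_apply, smul_eq_mul]
  have e2 : ∀ x : V3, dt (N + (z0 + ρ * ζ) • R') (fun k => -x k) =
      -dt (N + (z0 + ρ * ζ) • R') x := by
    intro x; simp only [dt]; ring
  have e3 : ∀ x : V3, H.ev (fun k => -x k) = H.ev x := by
    intro x; simp only [QF.ev]; ring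
  have e4 : Fq b0 b1 G ζ (fun k => -y k) = -dt (bz b0 b1 ζ) y + G.ev y := by
    simp only [Fq, dt, QF.ev]; ring
  have e5 : Fq b0 b1 G ζ y = dt (bz b0 b1 ζ) y + G.ev y := rfl
  rw [e1, e5] at h1
  rw [e1, e2, e3, e4] at h2
  linarith

/-- **size of the multiplier** -/
theorem nu_good (O : Own S T z0 ρ δ b0 b1 G) (hf : Ortho f) (hu : u.Ok) (hq : S.q = Q.ev)
    {z : ℝ} (hz0 : z0 ≤ z) (hz1 : z ≤ z0 + ρ) (hF : Frm S T z f)
    (hN : Nr (hatQ f c u Q) (ul u (rl f c T)) (u.zh z) κ ν R η) (hη0 : 0 ≤ η) (hη : η ≤ 1 / 10) :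
    u.WY / 8 ≤ |ν| ∧ |ν| ≤ 8 * u.WY := by
  have hY := hu.Y0
  have hρ := O.hρ
  have w0 := O.pos 0
  have w1 := O.pos 1
  have w2 := O.pos 2
  obtain ⟨N, R', H, hT⟩ := exists_tay (q := S.q) (by rw [hq]; exact Q.isQ) T
  set ζ := (z - z0) / ρ with hζ
  have ez : z0 + ρ * ζ = z := by rw [hζ]; field_simp; ring
  have ζ0 : 0 ≤ ζ := div_nonneg (by linarith) hρ.le
  have ζ1 : ζ ≤ 1 := by rw [hζ, div_le_one hρ]; linarith
  set g := N + z • R' with hg
  have gp : ∀ y : V3, dt g (cmb (fr S.e S.w) y) = S.w 0 * dt (bz b0 b1 ζ) y := by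
    intro y
    have := grad_plank O hT ζ y
    rwa [ez] at this
  -- components in the frame of the plank
  have k0 : dt g (S.e 0) = b0 0 + ζ * b1 0 := by
    have h := gp ![1, 0, 0]
    have e1 : dt g (cmb (fr S.e S.w) ![1, 0, 0]) = S.w 0 * dt g (S.e 0) := by
      simp [dt, cmb, Tl102.fr]; ring
    have e2 : dt (bz b0 b1 ζ) ![1, 0, 0] = b0 0 + ζ * b1 0 := by simp [dt, bz]
    rw [e1, e2] at h
    exact mul_left_cancel₀ w0.ne' h
  have kk : ∀ {w a : ℝ}, 0 < w → S.w 0 ≤ w → w * dt g (S.e 1) = S.w 0 * a → |a| ≤ 1 →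
      |dt g (S.e 1)| ≤ 1 := by
    intro w a hw hww h1 h2
    have : |w * dt g (S.e 1)| ≤ w * 1 := by
      rw [h1, abs_mul, abs_of_pos w0]
      exact mul_le_mul hww h2 (abs_nonneg _) hw.le
    rw [abs_mul, abs_of_pos hw] at this
    exact le_of_mul_le_mul_left this hw
  have kk2 : ∀ {w a : ℝ}, 0 < w → S.w 0 ≤ w → w * dt g (S.e 2) = S.w 0 * a → |a| ≤ 1 →
      |dt g (S.e 2)| ≤ 1 := by
    intro w a hw hww h1 h2
    have : |w * dt g (S.e 2)| ≤ w * 1 := by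
      rw [h1, abs_mul, abs_of_pos w0]
      exact mul_le_mul hww h2 (abs_nonneg _) hw.le
    rw [abs_mul, abs_of_pos hw] at this
    exact le_of_mul_le_mul_left this hw
  have conv : ∀ {a b : ℝ}, |a| ≤ 1 → |a + b| ≤ 1 → |a + ζ * b| ≤ 1 := by
    intro a b h1 h2
    have e : a + ζ * b = (1 - ζ) * a + ζ * (a + b) := by ring
    rw [e]
    have i1 : |1 - ζ| ≤ 1 - ζ := by rw [abs_of_nonneg (by linarith)]
    have i2 : |ζ| ≤ ζ := (abs_of_nonneg ζ0).le
    refine (a2 (m2 i1 h1) (m2 i2 h2)).trans (le_of_eq (by ring))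
  have k1 : |dt g (S.e 1)| ≤ 1 := by
    have h := gp ![0, 1, 0]
    have e1 : dt g (cmb (fr S.e S.w) ![0, 1, 0]) = S.w 1 * dt g (S.e 1) := by
      simp [dt, cmb, Tl102.fr]; ring
    have e2 : dt (bz b0 b1 ζ) ![0, 1, 0] = b0 1 + ζ * b1 1 := by simp [dt, bz]
    rw [e1, e2] at h
    exact kk w1 (O.w02.trans O.w21) h (conv O.nrm.b01 O.nrm.b11)
  have k2 : |dt g (S.e 2)| ≤ 1 := by
    have h := gp ![0, 0, 1]
    have e1 : dt g (cmb (fr S.e S.w) ![0, 0, 1]) = S.w 2 * dt g (S.e 2) := by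
      simp [dt, cmb, Tl102.fr]; ring
    have e2 : dt (bz b0 b1 ζ) ![0, 0, 1] = b0 2 + ζ * b1 2 := by simp [dt, bz]
    rw [e1, e2] at h
    exact kk2 w2 O.w02 h (conv O.nrm.b02 O.nrm.b12)
  have s0 := O.nrm.st ζ ζ0 ζ1 0 0 0 (by simp) (by simp) (by simp)
  simp only [mul_zero, add_zero] at s0
  rw [← k0] at s0
  -- the norm in both frames
  have cm : ∀ i, dt (S.e i) g = dt g (S.e i) := fun i => by simp only [dt]; ring
  have cf : ∀ i, dt (f i) g = dt g (f i) := fun i => by simp only [dt]; ring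
  have n1 := dt_frame O.ortho g g
  have n2 := dt_frame hf g g
  rw [cm, cm, cm] at n1
  rw [cf, cf, cf] at n2
  obtain ⟨f1, f2, -, -⟩ := hF N R' H hT
  rw [← hg] at f1 f2
  set x0 := dt g (f 0) with hx0
  have q1 : dt g (f 1) * dt g (f 1) ≤ x0 * x0 / 100 := by
    have := mul_le_mul f1 f1 (abs_nonneg _) (by positivity)
    rw [← abs_mul, abs_mul_self] at this
    refine this.trans (le_of_eq ?_)
    have e : |x0| / 10 * (|x0| / 10) = |x0| * |x0| / 100 := by ring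
    rw [e, abs_mul_abs_self]
  have q2 : dt g (f 2) * dt g (f 2) ≤ x0 * x0 / 100 := by
    have := mul_le_mul f2 f2 (abs_nonneg _) (by positivity)
    rw [← abs_mul, abs_mul_self] at this
    refine this.trans (le_of_eq ?_)
    have e : |x0| / 10 * (|x0| / 10) = |x0| * |x0| / 100 := by ring
    rw [e, abs_mul_abs_self]
  have r1 : dt g (S.e 1) * dt g (S.e 1) ≤ 1 := by
    have := mul_le_mul k1 k1 (abs_nonneg _) zero_le_one
    rw [← abs_mul, abs_mul_self] at this; linarith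
  have r2 : dt g (S.e 2) * dt g (S.e 2) ≤ 1 := by
    have := mul_le_mul k2 k2 (abs_nonneg _) zero_le_one
    rw [← abs_mul, abs_mul_self] at this; linarith
  have v1 := mul_self_nonneg (dt g (S.e 1))
  have v2 := mul_self_nonneg (dt g (S.e 2))
  have v3 := mul_self_nonneg (dt g (f 1))
  have v4 := mul_self_nonneg (dt g (f 2))
  have v5 := s0.1
  have v6 := s0.2
  have v7 : 1 / 4 ≤ dt g (S.e 0) * dt g (S.e 0) := by nlinarith
  have v8 : dt g (S.e 0) * dt g (S.e 0) ≤ 4 := by nlinarith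
  have lo : 1 / 5 ≤ x0 * x0 := by linarith
  have hi : x0 * x0 ≤ 6 := by linarith
  have hxa : |x0| * |x0| = x0 * x0 := abs_mul_abs_self x0
  have hx0' := abs_nonneg x0
  have lo' : 2 / 5 ≤ |x0| := by
    by_contra hn
    push Not at hn
    have := mul_lt_mul'' hn hn hx0' hx0'
    rw [hxa] at this
    linarith
  have hi' : |x0| ≤ 5 / 2 := by
    by_contra hn
    push Not at hn
    have := mul_lt_mul'' hn hn (by norm_num) (by norm_num)
    rw [hxa] at this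
    linarith
  -- container coordinates
  have hTQ : Tay Q.ev T N R' H := by rw [← hq]; exact hT
  have h1 := (tay_hat (c := c) hf hu hTQ z ![1, 0, 0]).1
  have e1 : dt (N + z • R') (cmb (fW f u) ![1, 0, 0]) = u.WY * x0 := by
    have W0 : u.W 0 = u.WY := rfl
    simp [dt, cmb, fW, hx0, hg, W0]; ring
  have e2 : ∀ a : V3, dt a ![1, 0, 0] = a 0 := by intro a; simp [dt]
  rw [e1, e2] at h1
  have h2 := hN.g0
  rw [← h1] at h2
  have hν := abs_nonneg ν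
  have t1 : |u.WY * x0| ≤ |ν| * (11 / 10) := by
    have e : u.WY * x0 = (u.WY * x0 - ν) + ν := by ring
    rw [e]
    refine (a2 h2 le_rfl).trans ?_
    have := mul_le_mul_of_nonneg_left hη hν
    linarith
  have t2 : |ν| ≤ |u.WY * x0| + |ν| * (1 / 10) := by
    have e : ν = u.WY * x0 - (u.WY * x0 - ν) := by ring
    have := s2 (le_refl |u.WY * x0|) h2
    rw [← e] at this
    have := mul_le_mul_of_nonneg_left hη hν
    linarith
  rw [abs_mul, abs_of_pos hY] at t1 t2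
  have t3 := mul_le_mul_of_nonneg_left lo' hY.le
  have t4 := mul_le_mul_of_nonneg_left hi' hY.le
  constructor <;> linarith

/-- upper bound of the curvature extent -/
theorem ye_up (O : Own S T z0 ρ δ b0 b1 G) {X : ℝ} (hS : Snd S T z0 ρ b0 b1 G X Q.ev N R' H)
    (hδ1 : δ ≤ 1) (hX : X ≤ δ / 10 ^ 9) (hf : Ortho f) (hu : u.Ok)
    (hN : Nr (hatQ f c u Q) (ul u (rl f c T)) z1 κ ν R η) (hκ1 : |κ| ≤ 1) (hκ2 : 1 / 5 ≤ |κ|)
    (hR : 1 ≤ R) (hv : |(ul u (rl f c T)).v 1| ≤ R) (hη0 : 0 ≤ η) (hs : 6000 * (η * R ^ 4) ≤ 1)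
    (hν1 : u.WY / 8 ≤ |ν|) (hν2 : |ν| ≤ 8 * u.WY) :
    δ * (S.w 0 * kap b0 b1 G) ≤ 10 ^ 18 * (u.WY * (S.w 1 / u.WA) ^ 2) := by
  have hY := hu.Y0
  have hA := hu.A0
  have hB := hu.B0
  have hH := hu.H0
  have hρ := O.hρ
  have w1 := O.pos 1
  have w2 := O.pos 2
  have hν : 0 < |ν| := by linarith
  have c1 := hN.crs_le hκ1 hR hv hη0 (by linarith)
  have c2 := hN.crs_ge hκ1 hR hv hη0 (by linarith)
  have e1 := D3_hat (c := c) hf hu hS.tay z1
  have e2 := Om_hat (c := c) hf hu hS.tay z1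
  have k1 := (hS.D O hX hδ1).1
  have k2 := hS.om_le O (by linarith)
  have hYe := O.Ye0
  have om := abs_dt_unit hf 1 (cr N R')
  have := Y_up (P := ρ * (S.w 1 * S.w 2)) (C := 10 ^ 5) (δ := δ)
    (Ye := S.w 0 * kap b0 b1 G) (w1 := S.w 1) (D := D3 N R' H) (Om := dt (f 1) (cr N R')) hν hH hY
    hA hB (by norm_num) hYe w1.le (by positivity)
    (by rw [e1, abs_mul, abs_of_nonneg (sq_nonneg _)]) e2 c1 c2.1
    (by
      refine k1.trans ?_
      have : 0 ≤ |D3 N R' H| * (ρ * (S.w 1 * S.w 2)) ^ 2 := by positivity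
      linarith)
    (by
      refine le_trans ?_ k2
      exact mul_le_mul_of_nonneg_right om (by positivity))
  refine this.trans ?_
  have h3 : 0 ≤ (S.w 1 / u.WA) ^ 2 := sq_nonneg _
  have h4 := mul_le_mul_of_nonneg_right hν2 h3
  have h5 : 0 ≤ u.WY * (S.w 1 / u.WA) ^ 2 := by positivity
  calc 104 * (10 ^ 5 : ℝ) ^ 3 * (|ν| * (S.w 1 / u.WA) ^ 2) ≤
        104 * (10 ^ 5 : ℝ) ^ 3 * (8 * u.WY * (S.w 1 / u.WA) ^ 2) :=
        mul_le_mul_of_nonneg_left h4 (by norm_num)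
    _ ≤ _ := by
        have e : 104 * (10 ^ 5 : ℝ) ^ 3 * (8 * u.WY * (S.w 1 / u.WA) ^ 2) =
          832 * 10 ^ 15 * (u.WY * (S.w 1 / u.WA) ^ 2) := by ring
        rw [e]
        exact mul_le_mul_of_nonneg_right (by norm_num) h5

/-- lower bound of the curvature extent -/
theorem ye_low (O : Own S T z0 ρ δ b0 b1 G) {X : ℝ} (hS : Snd S T z0 ρ b0 b1 G X Q.ev N R' H)
    (hδ1 : δ ≤ 1) (hX : X ≤ δ / 10 ^ 9) (hf : Ortho f) (hu : u.Ok)
    (hN : Nr (hatQ f c u Q) (ul u (rl f c T)) z1 κ ν R η) (hκ1 : |κ| ≤ 1) (hκ2 : 1 / 5 ≤ |κ|)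
    (hR : 1 ≤ R) (hv : |(ul u (rl f c T)).v 1| ≤ R) (hη0 : 0 ≤ η) (hs : 6000 * (η * R ^ 4) ≤ 1)
    (hν1 : u.WY / 8 ≤ |ν|) {b : ℝ} (hb0 : 0 < b)
    (hb : b * (S.w 1 / u.WA) ^ 2 ≤ ρ / u.H * (S.w 2 / u.WB)) :
    b ^ 2 * (u.WY * (S.w 1 / u.WA) ^ 2) ^ 3 ≤ 10 ^ 17 * (S.w 0 * kap b0 b1 G) ^ 3 := by
  have hY := hu.Y0
  have hA := hu.A0
  have hB := hu.B0
  have hH := hu.H0
  have hρ := O.hρ
  have w1 := O.pos 1
  have w2 := O.pos 2
  have hν : 0 < |ν| := by linarith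
  have c2 := hN.crs_ge hκ1 hR hv hη0 (by linarith)
  have e1 := D3_hat (c := c) hf hu hS.tay z1
  have k1 := (hS.D O hX hδ1).2
  have h := Y_low (ρ := ρ) (w1 := S.w 1) (w2 := S.w 2) (C := 10 ^ 10) (κ := |κ|)
    (Ye := S.w 0 * kap b0 b1 G) (D := D3 N R' H) hν hH hY hA hB (by norm_num)
    (by rw [e1, abs_mul, abs_of_nonneg (sq_nonneg _)]) c2.2 k1
  set A := S.w 1 / u.WA with hAd
  set Bd := S.w 2 / u.WB with hBd
  have hA0 : 0 < A := by positivity
  have eAB : S.w 1 * S.w 2 / (u.WA * u.WB) = A * Bd := by rw [hAd, hBd]; field_simp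
  rw [eAB] at h
  have p1 : (1 / 8 : ℝ) ≤ |ν| / u.WY := by rw [le_div_iff₀ hY]; linarith
  have p2 : (1 / 64 : ℝ) ≤ (|ν| / u.WY) ^ 2 := by
    have := pow_le_pow_left₀ (by norm_num) p1 2
    norm_num at this ⊢; exact this
  have p3 : u.WY ^ 3 / 512 ≤ |ν| ^ 3 := by
    have := pow_le_pow_left₀ (by positivity) hν1 3
    refine le_trans (le_of_eq (by ring)) this
  have p4 : b * A ^ 3 ≤ ρ / u.H * (A * Bd) := by
    have := mul_le_mul_of_nonneg_right hb hA0.le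
    refine le_trans (le_of_eq (by ring)) (this.trans (le_of_eq (by ring)))
  have p5 : b ^ 2 * A ^ 6 ≤ (ρ / u.H * (A * Bd)) ^ 2 := by
    have := pow_le_pow_left₀ (by positivity) p4 2
    refine le_trans (le_of_eq (by ring)) this
  have p6 : (1 / 5 / (8 * 10 ^ 10) : ℝ) ≤ |κ| / (8 * 10 ^ 10) :=
    div_le_div_of_nonneg_right hκ2 (by norm_num)
  have p7 : 1 / 5 / (8 * 10 ^ 10) * (1 / 64) * (b ^ 2 * A ^ 6) * (u.WY ^ 3 / 512) ≤
      |κ| / (8 * 10 ^ 10) * (|ν| / u.WY) ^ 2 * (ρ / u.H * (A * Bd)) ^ 2 * |ν| ^ 3 := by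
    refine mul_le_mul (mul_le_mul (mul_le_mul p6 p2 (by norm_num) (by positivity)) p5
      (by positivity) (by positivity)) p3 (by positivity) (by positivity)
  have p8 := p7.trans h
  have hp : 0 ≤ b ^ 2 * (u.WY * A ^ 2) ^ 3 := by positivity
  have e3 : 1 / 5 / (8 * 10 ^ 10) * (1 / 64) * (b ^ 2 * A ^ 6) * (u.WY ^ 3 / 512) =
      1 / 5 / (8 * 10 ^ 10) * (1 / 64) * (1 / 512) * (b ^ 2 * (u.WY * A ^ 2) ^ 3) := by ring
  rw [e3] at p8
  have p9 : (1 : ℝ) / 10 ^ 17 ≤ 1 / 5 / (8 * 10 ^ 10) * (1 / 64) * (1 / 512) := by norm_num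
  have p10 := (mul_le_mul_of_nonneg_right p9 hp).trans p8
  have : b ^ 2 * (u.WY * A ^ 2) ^ 3 = 10 ^ 17 * (1 / 10 ^ 17 * (b ^ 2 * (u.WY * A ^ 2) ^ 3)) := by
    ring
  rw [this]
  exact mul_le_mul_of_nonneg_left p10 (by norm_num)

end

end Crest.Agent.R136.Stc321
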