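import Crest.Agent.R136.Stc8_321
import Crest.Agent.R136.StcD_321

/-!
# R136, U6 thin side, stage C (helper321): the data of the level `v` mark of a good incidence

`LvD D K n v x δ R η`.
-/

set_option autoImplicit false
set_option linter.unusedVariables false

open Finset Filter Topology

namespace Crest.Agent.R136.Stc321

open Crest.Agent.R136.Sh605
open Crest.Agent.R136.K4
open Crest.Agent.R136.NetW191
open Crest.Agent.R136.GeoN778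
open Crest.Agent.R136.Wit321
open Crest.Agent.R136.Top484
open Crest.Agent.R136.Tlt51 (Close mk4 zx rh)
open Crest.Agent.R136.Tl102 (QF kap IsExp OmB)
open Crest.Agent.R136.Thn768 (Own)

/-- **data of the level `v` mark of an incidence, in container coordinates** -/
structure LvD (D : Dat4) (K : ℕ → CtD) (n : ℕ) (v : ℚ) (x : ℕ × ℝ) (δ R η : ℝ) : Prop where
  ex : ∃ (b0 b1 : V3) (G : QF) (b0p b1p : V3) (Gp : QF),
    Own (mk4 D n v x) (D.L n x.1) (zx D n v x) (rh D n v) δ b0 b1 G ∧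
    IsExp (qdOf (mk4 D n 0 x).q).ev (mk4 D n v x).e (mk4 D n v x).w (D.L n x.1) (zx D n v x)
      (rh D n v) b0p b1p Gp ∧
    1 / 16 ≤ |b0p 0 / b0 0| ∧ |b0p 0 / b0 0| ≤ 16 ∧
    OmB (kap b0 b1 G) η η η b0 b1 G b0p b1p Gp ∧
    (K n).u.WY / 8 ≤ |((K n).Q (mk4 D n 0 x).q).b 0| ∧
    |((K n).Q (mk4 D n 0 x).q).b 0| ≤ 8 * (K n).u.WY ∧
    Nr ((K n).Qh (mk4 D n 0 x).q) ((K n).t (D.L n x.1)) ((K n).u.zh (zx D n v x)) (K n).κ
      (((K n).Q (mk4 D n 0 x).q).b 0) R η ∧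
    Bas (fun k => ((K n).Qh (mk4 D n 0 x).q).gr ((K n).u.zh (zx D n v x))
        (((K n).t (D.L n x.1)).pos ((K n).u.zh (zx D n v x))) k / ((K n).Q (mk4 D n 0 x).q).b 0)
      (fun k => gd ((K n).Qh (mk4 D n 0 x).q) ((K n).t (D.L n x.1)) k /
        ((K n).Q (mk4 D n 0 x).q).b 0)
      (φb (K n).f (K n).u (mk4 D n v x).e (mk4 D n v x).w (kap b0 b1 G) b0) (K n).κ
      (((K n).t (D.L n x.1)).v 1) R η (rh D n v / (K n).u.H)
      ((mk4 D n v x).w 0 * kap b0 b1 G / |((K n).Q (mk4 D n 0 x).q).b 0|) η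
      ((mk4 D n v x).w 1 / (K n).u.WA) ((mk4 D n v x).w 2 / (K n).u.WA)
      ((mk4 D n v x).w 1 / (K n).u.WA * ((mk4 D n v x).w 2 / (K n).u.WB)) ∧
    δ * ((mk4 D n v x).w 0 * kap b0 b1 G) ≤
      (K n).u.WY * ((mk4 D n v x).w 1 / (K n).u.WA) ^ 2 ∧
    δ * ((K n).u.WY * ((mk4 D n v x).w 1 / (K n).u.WA) ^ 2) ≤
      (mk4 D n v x).w 0 * kap b0 b1 G ∧
    (∀ k, |((K n).t (D.L n x.1)).p k| ≤ R ∧ |((K n).t (D.L n x.1)).v k| ≤ R) ∧
    |(K n).u.zh (zx D n v x)| ≤ 1 ∧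
    ∃ X : ℝ, 0 ≤ X ∧ X ≤ η ∧ (mk4 D n v x).w 0 * kap b0 b1 G * X ≤ R * D.w 0 n 0 ∧
      OmB (kap b0 b1 G) X X X b0 b1 G b0p b1p Gp

end Crest.Agent.R136.Stc321
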