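import Crest.Agent.R136.Stc9_321

/-!
# R136, U6 thin side, stage C (helper321): `StcA` from the container data and the level lemmas
-/

set_option autoImplicit false
set_option linter.unusedVariables false

open Finset Filter Topology

namespace Crest.Agent.R136.Stc321

open Crest.Agent.R138.Ex926 (Base U)
open Crest.Agent.R138.Mk163 (zc zl rho)
open Crest.Agent.R138.MkRef627 (lc kc)
open Crest.Agent.R136.Sh605
open Crest.Agent.R136.NetW191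
open Crest.Agent.R136.GeoN778
open Crest.Agent.R136.Top484
open Crest.Agent.R136.Tlt51 (mk4 zx rh)
open Crest.Agent.R136.Fw650 (z0N zhN rhN)
open Crest.Agent.R136.Tn327 (CloseW zmN)
open Crest.Agent.R136.FlW464 (frW)
open Crest.Agent.R136.Thn768 (ThinW)
open Crest.Agent.R136.Stk464 (StcK)

/-- **`StcA` from `StcK` and the five level lemmas** -/
theorem stcA_of {p : Par4} {D : Dat4} {K : ℕ → CtD} {x0 : ℕ → ℕ × ℝ} (hk : StcK p D K x0)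
    (mate : ∀ C : ℝ, ∀ v : ℚ, 0 ≤ v → v ≤ 1 → ∃ C' : ℝ, ∀ᶠ n in (U : Filter ℕ), ∀ x ∈ D.I n,
      ∀ y ∈ D.I n, kc (D.lev n v) (D.f n v) y = kc (D.lev n v) (D.f n v) x → Gd D K C n x →
        Gd D K C' n y)
    (Mb : ∀ C : ℝ, ∀ v : ℚ, 0 ≤ v → v ≤ 1 → ∃ C' : ℝ, ∀ᶠ n in (U : Filter ℕ), ∀ x ∈ D.I n,
      Gd D K C n x → ((K n).Q (mk4 D n v x).q).b 0 ≠ 0 ∧
        ∀ k, |MkS D K v n (kc (D.lev n v) (D.f n v) x) k| ≤ D.B.d n ^ (-C'))
    (thick : ∀ C : ℝ, ∀ v : ℚ, 0 ≤ v → v ≤ 1 → ∀ ε : ℝ, 0 < ε → ∀ᶠ n in (U : Filter ℕ),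
      ∀ x ∈ D.I n, Gd D K C n x → ∀ z, z0N D.lev (hzS K) (zsS K) v n (zc (D.lev n v) x.2) ≤ z →
      z ≤ z0N D.lev (hzS K) (zsS K) v n (zc (D.lev n v) x.2) + rhN D.lev (hzS K) n v →
      |ht (K n).κ z ((LS D K n x.1).pos z 1) ((LS D K n x.1).pos z 2) ((LS D K n x.1).pos z 0) -
        (K n).σ * evY (MkS D K v n (kc (D.lev n v) (D.f n v) x)) z ((LS D K n x.1).pos z 1)
          ((LS D K n x.1).pos z 2) ((LS D K n x.1).pos z 0)| ≤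
        (K n).σ * (aS D n v * D.B.d n ^ (-ε)))
    (lat : ∀ C : ℝ, ∀ v : ℚ, 0 ≤ v → v ≤ 1 → ∀ ε : ℝ, 0 < ε → ∀ᶠ n in (U : Filter ℕ),
      ∀ x ∈ D.I n, ∀ y ∈ D.I n, kc (D.lev n v) (D.f n v) y = kc (D.lev n v) (D.f n v) x →
      Gd D K C n x → ∀ z, z0N D.lev (hzS K) (zsS K) v n (zc (D.lev n v) x.2) ≤ z →
      z ≤ z0N D.lev (hzS K) (zsS K) v n (zc (D.lev n v) x.2) + rhN D.lev (hzS K) n v →
      |(LS D K n y.1).pos z 1 - (LS D K n x.1).pos z 1| ≤ wAS D K n v * D.B.d n ^ (-ε) ∧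
      |((LS D K n y.1).pos z 2 - (LS D K n x.1).pos z 2) +
        2 * (K n).κ * (LS D K n x.1).v 1 *
          ((LS D K n y.1).pos z 1 - (LS D K n x.1).pos z 1)| ≤ wBS D K n v * D.B.d n ^ (-ε))
    (clw : ∃ C0 : ℝ, 0 ≤ C0 ∧ ∀ C : ℝ, ∀ u v : ℚ, 0 ≤ u → u < v → v ≤ 1 → ∀ ε : ℝ, 0 < ε →
      ∀ᶠ n in (U : Filter ℕ), ∀ x ∈ D.I n, Gd D K C n x →
      CloseW (K n).κ (frW (LS D K n x.1) (zmN D.lev (hzS K) (zsS K) v n x))
        (rhN D.lev (hzS K) n v * D.B.d n ^ ε) (wAS D K n v * D.B.d n ^ ε)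
        (wAS D K n v ^ 2 / rhN D.lev (hzS K) n v * D.B.d n ^ ε)
        (max (aS D n u) (aS D n v) * D.B.d n ^ (-(C0 * ((v : ℝ) - u)) - ε))
        (MkS D K v n (kc (D.lev n v) (D.f n v) x)) (MkS D K u n (kc (D.lev n u) (D.f n u) x))) :
    StcA p D K x0 :=
  { kp1 := hk.kp1
    σ0 := hk.σ0
    ok := hk.ok
    ortho := hk.ortho
    kp0 := hk.kp0
    sm := hk.sm
    σs := hk.σs
    YB := hk.YB
    BA := hk.BA
    σw := hk.σw
    H := hk.H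
    zcc := hk.zcc
    wid := hk.wid
    frm := hk.frm
    cen := hk.cen
    cenG := hk.cenG
    mate := mate
    Mb := Mb
    thick := thick
    lat := lat
    clw := clw
    bal := hk.bal }

end Crest.Agent.R136.Stc321
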