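import Mathlib

/-!
# R136 (helper163): steering (Blackwell approachability), finite-dimensional part

`steer`: if from every state and for every direction `l` (`Σ l_i² ≤ 1`) one can make a step of shape
`m` with `-η ≤ Σ l_i (m_i - θ_i)` and `|m - θ| ≤ C`, then there is a chain of `N` steps all of whose
partial sums are `k θ` up to `√(k C² + 2 C η k²)`.
-/

set_option autoImplicit false
set_option linter.unusedVariables false

open Finset

namespace Crest.Agent.R136.Ste163

variable {κ : Type*} [Fintype κ]

/-- squared euclidean norm -/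
def nsq (x : κ → ℝ) : ℝ := ∑ i, x i ^ 2

theorem nsq_nonneg (x : κ → ℝ) : 0 ≤ nsq x := Finset.sum_nonneg fun i _ => sq_nonneg _

theorem nsq_zero : nsq (0 : κ → ℝ) = 0 := by simp [nsq]

theorem sq_le_nsq (x : κ → ℝ) (i : κ) : x i ^ 2 ≤ nsq x :=
  Finset.single_le_sum (f := fun i => x i ^ 2) (fun i _ => sq_nonneg _) (Finset.mem_univ i)

theorem nsq_smul (c : ℝ) (x : κ → ℝ) : nsq (fun i => c * x i) = c ^ 2 * nsq x := by
  unfold nsq
  rw [Finset.mul_sum]
  exact Finset.sum_congr rfl fun i _ => by ring

theorem nsq_add (x y : κ → ℝ) : nsq (fun i => x i + y i) = nsq x + 2 * ∑ i, x i * y i + nsq y := by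
  unfold nsq
  rw [Finset.mul_sum, ← Finset.sum_add_distrib, ← Finset.sum_add_distrib]
  exact Finset.sum_congr rfl fun i _ => by ring

theorem nsq_neg (x : κ → ℝ) : nsq (fun i => - x i) = nsq x := by
  unfold nsq
  exact Finset.sum_congr rfl fun i _ => by ring

/-- one step of the steering: the direction which points back -/
theorem steer_step {θ e : κ → ℝ} {C η : ℝ} {P : (κ → ℝ) → Prop}
    (h : ∀ l : κ → ℝ, nsq l ≤ 1 → ∃ m : κ → ℝ, P m ∧ -η ≤ ∑ i, l i * (m i - θ i) ∧
      nsq (fun i => m i - θ i) ≤ C ^ 2) :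
    ∃ m : κ → ℝ, P m ∧ nsq (fun i => m i - θ i) ≤ C ^ 2 ∧
      nsq (fun i => e i + (m i - θ i)) ≤ nsq e + 2 * η * Real.sqrt (nsq e) + C ^ 2 := by
  set s := Real.sqrt (nsq e) with hs
  have hs0 : 0 ≤ s := Real.sqrt_nonneg _
  have hss : s ^ 2 = nsq e := Real.sq_sqrt (nsq_nonneg e)
  rcases hs0.eq_or_lt with h0 | h0
  · obtain ⟨m, hm, h1, h2⟩ := h (fun _ => 0) (by simp [nsq])
    refine ⟨m, hm, h2, ?_⟩
    have he : nsq e = 0 := by rw [← hss, ← h0]; ring
    have hz : ∀ i, e i = 0 := by
      intro i
      have := sq_le_nsq e i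
      rw [he] at this
      have h3 : e i ^ 2 = 0 := le_antisymm this (sq_nonneg _)
      exact pow_eq_zero_iff (two_ne_zero) |>.1 h3
    have e1 : (fun i => e i + (m i - θ i)) = fun i => m i - θ i := by
      funext i; rw [hz i]; ring
    rw [e1, he, ← h0]
    linarith
  · obtain ⟨m, hm, h1, h2⟩ := h (fun i => (-(1 / s)) * e i) (by
      rw [nsq_smul, ← hss]
      have : (-(1 / s)) ^ 2 * s ^ 2 = 1 := by field_simp
      rw [this])
    refine ⟨m, hm, h2, ?_⟩
    rw [nsq_add]
    have e1 : ∑ i, (-(1 / s)) * e i * (m i - θ i) = -(1 / s) * ∑ i, e i * (m i - θ i) := by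
      rw [Finset.mul_sum]; exact Finset.sum_congr rfl fun i _ => by ring
    rw [e1] at h1
    have h3 : ∑ i, e i * (m i - θ i) ≤ η * s := by
      have h4 : 1 / s * ∑ i, e i * (m i - θ i) ≤ η := by linarith
      rw [one_div, inv_mul_le_iff₀ h0] at h4
      linarith
    have h5 : 2 * ∑ i, e i * (m i - θ i) ≤ 2 * η * s := by linarith
    linarith

/-- **steering**: chain of `N` steps with all partial sums close to `k θ`. -/
theorem steer {S : Type*} {θ : κ → ℝ} {C η : ℝ} (hC : 0 ≤ C) (hη : 0 ≤ η) {N : ℕ}
    {R : ℕ → S → (κ → ℝ) → S → Prop} {V : ℕ → S → Prop}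
    (h : ∀ k < N, ∀ s, V k s → ∀ l : κ → ℝ, nsq l ≤ 1 → ∃ (m : κ → ℝ) (s' : S), R k s m s' ∧
      V (k + 1) s' ∧ -η ≤ ∑ i, l i * (m i - θ i) ∧ nsq (fun i => m i - θ i) ≤ C ^ 2)
    {s₀ : S} (h0 : V 0 s₀) :
    ∃ (s : ℕ → S) (m : ℕ → κ → ℝ), s 0 = s₀ ∧ (∀ k ≤ N, V k (s k)) ∧
      (∀ k < N, R k (s k) (m k) (s (k + 1))) ∧
      ∀ k ≤ N, nsq (fun i => ∑ l ∈ range k, (m l i - θ i)) ≤ k * C ^ 2 + 2 * C * η * k ^ 2 := by
  classical
  -- generalised to every `M ≤ N`
  have key : ∀ M ≤ N, ∃ (s : ℕ → S) (m : ℕ → κ → ℝ), s 0 = s₀ ∧ (∀ k ≤ M, V k (s k)) ∧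
      (∀ k < M, R k (s k) (m k) (s (k + 1))) ∧ (∀ k < M, nsq (fun i => m k i - θ i) ≤ C ^ 2) ∧
      ∀ k ≤ M, nsq (fun i => ∑ l ∈ range k, (m l i - θ i)) ≤ k * C ^ 2 + 2 * C * η * k ^ 2 ∧
        nsq (fun i => ∑ l ∈ range k, (m l i - θ i)) ≤ (k * C) ^ 2 := by
    intro M
    induction M with
    | zero =>
      intro _
      refine ⟨fun _ => s₀, fun _ _ => 0, rfl, ?_, ?_, ?_, ?_⟩
      · intro k hk
        rw [Nat.le_zero.1 hk]; exact h0
      · intro k hk; omega
      · intro k hk; omega
      · intro k hk
        rw [Nat.le_zero.1 hk]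
        simp [nsq]
    | succ M ih =>
      intro hM
      obtain ⟨s, m, hs0, hV, hR, hb, hn⟩ := ih (by omega)
      obtain ⟨hn1, hn2⟩ := hn M le_rfl
      set e : κ → ℝ := fun i => ∑ l ∈ range M, (m l i - θ i) with he
      obtain ⟨m', ⟨s', hR', hV'⟩, hb', hn'⟩ := steer_step (θ := θ) (e := e) (C := C) (η := η)
        (P := fun m' => ∃ s', R M (s M) m' s' ∧ V (M + 1) s') (fun l hl => by
          obtain ⟨m', s', h1, h2, h3, h4⟩ := h M (by omega) (s M) (hV M le_rfl) l hl
          exact ⟨m', ⟨s', h1, h2⟩, h3, h4⟩)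
      have hsum : ∀ k ≤ M, ∀ i, ∑ l ∈ range k, (Function.update m M m' l i - θ i) =
          ∑ l ∈ range k, (m l i - θ i) := by
        intro k hk i
        refine Finset.sum_congr rfl fun l hl => ?_
        have : l ≠ M := by have := mem_range.1 hl; omega
        rw [Function.update_of_ne this]
      have hlast : (fun i => ∑ l ∈ range (M + 1), (Function.update m M m' l i - θ i)) =
          fun i => e i + (m' i - θ i) := by
        funext i
        rw [Finset.sum_range_succ, hsum M le_rfl i, Function.update_self]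
      refine ⟨Function.update s (M + 1) s', Function.update m M m', ?_, ?_, ?_, ?_, ?_⟩
      · rw [Function.update_of_ne (by omega)]; exact hs0
      · intro k hk
        rcases Nat.lt_or_ge k (M + 1) with h1 | h1
        · rw [Function.update_of_ne (by omega)]; exact hV k (by omega)
        · have : k = M + 1 := by omega
          subst this
          rw [Function.update_self]; exact hV'
      · intro k hk
        rcases Nat.lt_or_ge k M with h1 | h1
        · rw [Function.update_of_ne (by omega), Function.update_of_ne (by omega),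
            Function.update_of_ne (by omega)]
          exact hR k h1
        · have : k = M := by omega
          subst this
          rw [Function.update_of_ne (by omega), Function.update_self, Function.update_self]
          exact hR'
      · intro k hk
        rcases Nat.lt_or_ge k M with h1 | h1
        · rw [Function.update_of_ne (by omega)]; exact hb k h1
        · have : k = M := by omega
          subst this
          rw [Function.update_self]; exact hb'
      · intro k hk
        rcases Nat.lt_or_ge k (M + 1) with h1 | h1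
        · have e2 : (fun i => ∑ l ∈ range k, (Function.update m M m' l i - θ i)) =
              fun i => ∑ l ∈ range k, (m l i - θ i) := by
            funext i; exact hsum k (by omega) i
          rw [e2]; exact hn k (by omega)
        · have hk' : k = M + 1 := by omega
          subst hk'
          rw [hlast]
          have hsq : Real.sqrt (nsq e) ≤ M * C := by
            rw [← Real.sqrt_sq (show (0 : ℝ) ≤ M * C by positivity)]
            exact Real.sqrt_le_sqrt hn2
          constructor
          · push_cast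
            have h5 : 2 * η * Real.sqrt (nsq e) ≤ 2 * η * (M * C) :=
              mul_le_mul_of_nonneg_left hsq (by positivity)
            have h6 : (0 : ℝ) ≤ C * η * M := by positivity
            have h7 : (0 : ℝ) ≤ C * η := by positivity
            nlinarith
          · rw [nsq_add]
            have h8 : ∑ i, e i * (m' i - θ i) ≤ (M * C) * C := by
              have h9 : (∑ i, e i * (m' i - θ i)) ^ 2 ≤ nsq e * nsq (fun i => m' i - θ i) :=
                Finset.sum_mul_sq_le_sq_mul_sq _ _ _
              have h10 : nsq e * nsq (fun i => m' i - θ i) ≤ (M * C) ^ 2 * C ^ 2 :=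
                mul_le_mul hn2 hb' (nsq_nonneg _) (sq_nonneg _)
              have h11 : (∑ i, e i * (m' i - θ i)) ^ 2 ≤ ((M * C) * C) ^ 2 := by
                rw [mul_pow]; exact h9.trans h10
              exact (abs_le_of_sq_le_sq' h11 (by positivity)).2
            have hC2 : 0 ≤ C ^ 2 := sq_nonneg C
            push_cast
            nlinarith
  obtain ⟨s, m, h1, h2, h3, -, h5⟩ := key N le_rfl
  exact ⟨s, m, h1, h2, h3, fun k hk => (h5 k hk).1⟩

end Crest.Agent.R136.Ste163
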