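import Crest.Agent.R136.StcD_321
import Crest.Agent.R136.Bal_768

/-!
# R136, U6 thin side, stage C (helper650): the assembly, finite part

* `inB_bd` : a flag in a graded ball is bounded;
* `nrm_bd` : a line near the quadric with bounded `A`, `B`, `v 1` is bounded (`Y`, `v 2`, `v 0`);
* `hat_bd` : back to container coordinates;
* `dr_le` : drift of the line;
* `step_k` : two incidences with lines close in the sense of a common mark have bounded natural size.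
-/

set_option autoImplicit false
set_option linter.unusedVariables false

namespace Crest.Agent.R136.Ste650

open Crest.Agent.R136.Sh605
open Crest.Agent.R136.Net191
open Crest.Agent.R136.NetW191
open Crest.Agent.R136.GeoN778
open Crest.Agent.R136.Wit321
open Crest.Agent.R136.FlW464 (frW drW rel_fr tr_size1)
open Crest.Agent.R136.Fw650 (quad_coef evY_bd iv_bd)
open Crest.Agent.R136.Tn327 (CloseW slots_of_close' unW_right)
open Crest.Agent.R136.PrW464 (unW wz wc wn)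
open Crest.Agent.R136.Bal768 (InB)
open Crest.Agent.R136.PqG464 (wtW)

/-- **a flag in a graded ball is bounded** -/
theorem inB_bd {κ : ℝ} (hκ : |κ| ≤ 1) {f0 f : FW} {Γ r : ℝ} (hΓ : 1 ≤ Γ) (hr : 1 ≤ r)
    (hg : ∀ i, |f0.g i| ≤ Γ) (hG : ∀ k, |f0.G k| ≤ Γ) (h : InB κ f0 f r) :
    (∀ i, |f.g i| ≤ 5 * (Γ * r) ^ 3) ∧ ∀ k, |f.G k| ≤ 10 ^ 24 * (Γ * r) ^ 63 := by
  have hh : ∀ i : Fin 4, |rel κ f0.g f.g i| ≤ r ^ wtW (Fin.castAdd 14 i) := by
    intro i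
    have := h (Fin.castAdd 14 i)
    rwa [coW_left] at this
  have h0 : |rel κ f0.g f.g 0| ≤ r ^ 1 := hh 0
  have h1 : |rel κ f0.g f.g 1| ≤ r ^ 1 := hh 1
  have h2 : |rel κ f0.g f.g 2| ≤ r ^ 2 := hh 2
  have h3 : |rel κ f0.g f.g 3| ≤ r ^ 3 := hh 3
  rw [pow_one] at h0 h1
  set l := rel κ f0.g f.g with hl
  have e : mul κ f0.g l = f.g := mul_rel κ f0.g f.g
  have r0 : 0 ≤ r := by linarith
  have G0 : 0 ≤ Γ := by linarith
  have X1 : 1 ≤ Γ * r := one_le_mul_of_one_le_of_one_le hΓ hr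
  have gX : Γ ≤ Γ * r := le_mul_of_one_le_right G0 hr
  have rX : r ≤ Γ * r := le_mul_of_one_le_left r0 hΓ
  set X := Γ * r with hX
  have X0 : 0 ≤ X := by linarith
  have p2 : X ≤ X ^ 2 := by nlinarith
  have p3 : X ^ 2 ≤ X ^ 3 := pow_le_pow_right₀ X1 (by norm_num)
  have r2 : r ^ 2 ≤ X ^ 2 := pow_le_pow_left₀ r0 rX 2
  have r3 : r ^ 3 ≤ X ^ 3 := pow_le_pow_left₀ r0 rX 3
  have b : ∀ i, |f0.g i| ≤ X := fun i => (hg i).trans gX
  have l0 := h0.trans rX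
  have l1 := h1.trans rX
  have l2 := h2.trans r2
  have l3 := h3.trans r3
  have gg : ∀ i, |f.g i| ≤ 5 * X ^ 3 := by
    intro i
    rw [← e]
    fin_cases i
    · show |mul κ f0.g l 0| ≤ _
      rw [mul0]
      have := abs_add_le (f0.g 0) (l 0)
      have := b 0
      linarith
    · show |mul κ f0.g l 1| ≤ _
      rw [mul1]
      have := abs_add_le (f0.g 1) (l 1)
      have := b 1
      linarith
    · show |mul κ f0.g l 2| ≤ _
      rw [mul2]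
      have m : |f0.g 1 * l 0| ≤ X ^ 2 := by
        rw [abs_mul, sq]; exact mul_le_mul (b 1) l0 (abs_nonneg _) X0
      have := abs_add_le (f0.g 2 + l 2) (f0.g 1 * l 0)
      have := abs_add_le (f0.g 2) (l 2)
      have := b 2
      linarith
    · show |mul κ f0.g l 3| ≤ _
      rw [mul3]
      have m1 : |2 * κ * f0.g 1 * l 2| ≤ 2 * X ^ 3 := by
        have e1 : 2 * κ * f0.g 1 * l 2 = 2 * (κ * (f0.g 1 * l 2)) := by ring
        have m : |f0.g 1 * l 2| ≤ X ^ 3 := by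
          rw [abs_mul, pow_succ']; exact mul_le_mul (b 1) l2 (abs_nonneg _) X0
        rw [e1, abs_mul, abs_two, abs_mul]
        have := mul_le_mul hκ m (abs_nonneg _) zero_le_one
        linarith
      have m2 : |κ * f0.g 1 ^ 2 * l 0| ≤ X ^ 3 := by
        have e1 : κ * f0.g 1 ^ 2 * l 0 = κ * (f0.g 1 ^ 2 * l 0) := by ring
        have m : |f0.g 1 ^ 2 * l 0| ≤ X ^ 3 := by
          rw [abs_mul, abs_pow, pow_succ X 2]
          exact mul_le_mul (pow_le_pow_left₀ (abs_nonneg _) (b 1) 2) l0 (abs_nonneg _)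
            (by positivity)
        rw [e1, abs_mul]
        have := mul_le_mul hκ m (abs_nonneg _) zero_le_one
        linarith
      have t1 := abs_sub (f0.g 3 + l 3 - 2 * κ * f0.g 1 * l 2) (κ * f0.g 1 ^ 2 * l 0)
      have t2 := abs_sub (f0.g 3 + l 3) (2 * κ * f0.g 1 * l 2)
      have t3 := abs_add_le (f0.g 3) (l 3)
      have := b 3
      linarith
  refine ⟨gg, ?_⟩
  have K1 : 1 ≤ 5 * X ^ 3 := by
    have := one_le_pow₀ X1 (n := 3)
    linarith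
  have hiv : ∀ i, |iv κ f.g i| ≤ 1000 * X ^ 9 := fun i =>
    (iv_bd hκ K1 gg i).trans (le_of_eq (by ring))
  have hf : ∀ q, |tr κ f.g (f.G - f0.G) q| ≤ 1000 * X ^ 9 := by
    intro q
    have h1 := h (Fin.natAdd 4 q)
    rw [coW_right] at h1
    refine h1.trans ?_
    have w9 : wtW (Fin.natAdd 4 q) ≤ 9 := Bal768.w14_le q
    have a1 : r ^ wtW (Fin.natAdd 4 q) ≤ r ^ 9 := pow_le_pow_right₀ hr w9
    have a2 : r ^ 9 ≤ X ^ 9 := pow_le_pow_left₀ r0 rX 9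
    have a3 : 0 ≤ X ^ 9 := by positivity
    linarith
  have K2 : 1 ≤ 1000 * X ^ 9 := by
    have := one_le_pow₀ X1 (n := 9)
    linarith
  intro k
  have hs := tr_size1 hκ K2 hiv hf k
  rw [iv_tr, Pi.sub_apply] at hs
  have e2 : f.G k = f0.G k + (f.G k - f0.G k) := by ring
  rw [e2]
  refine (abs_add_le _ _).trans ?_
  have e3 : 470 * (1000 * X ^ 9) ^ 7 = 470 * 10 ^ 21 * X ^ 63 := by ring
  rw [e3] at hs
  have e4 : X ≤ X ^ 63 := by
    calc X = X ^ 1 := (pow_one _).symm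
      _ ≤ X ^ 63 := pow_le_pow_right₀ X1 (by norm_num)
  have := (hG k).trans (gX.trans e4)
  have q0 : 0 ≤ X ^ 63 := by positivity
  have q1 : X ^ 63 + 470 * 10 ^ 21 * X ^ 63 ≤ 10 ^ 24 * X ^ 63 := by
    have : X ^ 63 + 470 * 10 ^ 21 * X ^ 63 = (1 + 470 * 10 ^ 21) * X ^ 63 := by ring
    rw [this]
    exact mul_le_mul_of_nonneg_right (by norm_num) q0
  linarith

/-- the height polynomial along a line -/
theorem ht_line (κ : ℝ) (L : Ln4) (z : ℝ) : ht κ z (L.pos z 1) (L.pos z 2) (L.pos z 0) =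
    (L.p 0 - κ * L.p 1 ^ 2) + (L.v 0 - L.p 2 - 2 * κ * L.p 1 * L.v 1) * z +
      (-drW κ L) * z ^ 2 := by
  simp only [ht, drW, Ln4.pos]
  ring

theorem ht_coef {κ m zl : ℝ} {L : Ln4} (hz : |zl| ≤ 1)
    (h : ∀ z, zl ≤ z → z ≤ zl + 1 / 2 → |ht κ z (L.pos z 1) (L.pos z 2) (L.pos z 0)| ≤ m) :
    |drW κ L| ≤ 32 * m ∧ |L.v 0 - L.p 2 - 2 * κ * L.p 1 * L.v 1| ≤ 160 * m ∧
      |L.p 0 - κ * L.p 1 ^ 2| ≤ 196 * m := by
  have := quad_coef (r0 := L.p 0 - κ * L.p 1 ^ 2)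
    (r1 := L.v 0 - L.p 2 - 2 * κ * L.p 1 * L.v 1) (r2 := -drW κ L) (z0 := zl) (ρ := 1 / 2)
    (m := m) (R := 1) (by norm_num) hz le_rfl (by norm_num) (fun z h1 h2 => by
      have := h z h1 h2
      rwa [ht_line] at this)
  obtain ⟨a, b, c⟩ := this
  rw [abs_neg] at a
  refine ⟨a.trans (le_of_eq (by ring)), b.trans (le_of_eq (by ring)), c.trans (le_of_eq (by ring))⟩

/-- bound of the height polynomial of a line in a sheet -/
theorem ht_le {κ σ Γ R A zl : ℝ} {L : Ln4} {M : Fin 14 → ℝ} (hσ : 0 ≤ σ) (hz : |zl| ≤ 1)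
    (hR : 1 ≤ R) (hp : ∀ k, |L.p k| ≤ R) (hv : ∀ k, |L.v k| ≤ R) (hM : ∀ k, |M k| ≤ Γ)
    (h : ∀ z, zl ≤ z → z ≤ zl + 1 / 2 →
      |ht κ z (L.pos z 1) (L.pos z 2) (L.pos z 0) -
        σ * evY M z (L.pos z 1) (L.pos z 2) (L.pos z 0)| ≤ σ * A) (z : ℝ) (h1 : zl ≤ z)
    (h2 : z ≤ zl + 1 / 2) :
    |ht κ z (L.pos z 1) (L.pos z 2) (L.pos z 0)| ≤ σ * (126 * (Γ * R ^ 2) + A) := by
  have hz2 : |z| ≤ 2 := by
    rw [abs_le] at hz ⊢
    constructor <;> linarith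
  have hx : ∀ k, |L.pos z k| ≤ 3 * R := by
    intro k
    show |L.p k + z * L.v k| ≤ _
    refine (abs_add_le _ _).trans ?_
    rw [abs_mul]
    have := mul_le_mul hz2 (hv k) (abs_nonneg _) (by norm_num)
    have := hp k
    linarith
  have he := evY_bd (w := M) (W := Γ) (X := 3 * R) (by linarith) hM (hz2.trans (by linarith))
    (hx 1) (hx 2) (hx 0)
  have hh := h z h1 h2
  have e : ht κ z (L.pos z 1) (L.pos z 2) (L.pos z 0) =
      (ht κ z (L.pos z 1) (L.pos z 2) (L.pos z 0) -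
        σ * evY M z (L.pos z 1) (L.pos z 2) (L.pos z 0)) +
      σ * evY M z (L.pos z 1) (L.pos z 2) (L.pos z 0) := by ring
  rw [e]
  refine (abs_add_le _ _).trans ?_
  rw [abs_mul σ, abs_of_nonneg hσ]
  have := mul_le_mul_of_nonneg_left he hσ
  have e2 : 14 * Γ * (3 * R) ^ 2 = 126 * (Γ * R ^ 2) := by ring
  rw [e2] at this
  linarith

/-- **a line near the quadric with bounded `A`, `B`, `v 1` is bounded** -/
theorem nrm_bd {κ zl z1 Γ : ℝ} {L : Ln4} (hκ : |κ| ≤ 1) (hΓ : 1 ≤ Γ) (hz : |zl| ≤ 1)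
    (hz1 : |z1| ≤ 1) (h : ∀ z, zl ≤ z → z ≤ zl + 1 / 2 →
      |ht κ z (L.pos z 1) (L.pos z 2) (L.pos z 0)| ≤ 1)
    (v1 : |L.v 1| ≤ Γ) (a1 : |L.pos z1 1| ≤ Γ) (b1 : |L.pos z1 2| ≤ Γ) :
    (∀ k, |L.p k| ≤ 400 * Γ ^ 2) ∧ ∀ k, |L.v k| ≤ 400 * Γ ^ 2 := by
  obtain ⟨c2, c1, c0⟩ := ht_coef hz h
  have G2 : Γ ≤ Γ ^ 2 := by nlinarith
  have G0 : 0 ≤ Γ := by linarith
  have one : 1 ≤ Γ ^ 2 := by linarith
  -- slope and position of `A`
  have hp1 : |L.p 1| ≤ 2 * Γ := by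
    have e : L.p 1 = L.pos z1 1 - z1 * L.v 1 := by simp only [Ln4.pos]; ring
    rw [e]
    refine (abs_sub _ _).trans ?_
    rw [abs_mul]
    have := mul_le_mul hz1 v1 (abs_nonneg _) zero_le_one
    linarith
  have kv : |κ * L.v 1 ^ 2| ≤ Γ ^ 2 := by
    rw [abs_mul, abs_pow]
    have := mul_le_mul hκ (pow_le_pow_left₀ (abs_nonneg _) v1 2) (by positivity) zero_le_one
    linarith
  have hv2 : |L.v 2| ≤ 33 * Γ ^ 2 := by
    have e : L.v 2 = drW κ L - κ * L.v 1 ^ 2 := by simp only [drW]; ring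
    rw [e]
    refine (abs_sub _ _).trans ?_
    linarith
  have hp2 : |L.p 2| ≤ 34 * Γ ^ 2 := by
    have e : L.p 2 = L.pos z1 2 - z1 * L.v 2 := by simp only [Ln4.pos]; ring
    rw [e]
    refine (abs_sub _ _).trans ?_
    rw [abs_mul]
    have := mul_le_mul hz1 hv2 (abs_nonneg _) zero_le_one
    linarith
  have kpv : |κ * (L.p 1 * L.v 1)| ≤ 2 * Γ ^ 2 := by
    have m : |L.p 1 * L.v 1| ≤ 2 * Γ ^ 2 := by
      rw [abs_mul]
      calc |L.p 1| * |L.v 1| ≤ 2 * Γ * Γ := mul_le_mul hp1 v1 (abs_nonneg _) (by positivity)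
        _ = _ := by ring
    rw [abs_mul]
    have := mul_le_mul hκ m (abs_nonneg _) zero_le_one
    linarith
  have kpp : |κ * L.p 1 ^ 2| ≤ 4 * Γ ^ 2 := by
    rw [abs_mul, abs_pow]
    have := mul_le_mul hκ (pow_le_pow_left₀ (abs_nonneg _) hp1 2) (by positivity) zero_le_one
    nlinarith
  have hv0 : |L.v 0| ≤ 198 * Γ ^ 2 := by
    have e : L.v 0 = (L.v 0 - L.p 2 - 2 * κ * L.p 1 * L.v 1) + L.p 2 +
        2 * (κ * (L.p 1 * L.v 1)) := by ring
    rw [e]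
    refine (abs_add_le _ _).trans ?_
    have t := abs_add_le (L.v 0 - L.p 2 - 2 * κ * L.p 1 * L.v 1) (L.p 2)
    rw [abs_mul 2, abs_two]
    linarith
  have hp0 : |L.p 0| ≤ 200 * Γ ^ 2 := by
    have e : L.p 0 = (L.p 0 - κ * L.p 1 ^ 2) + κ * L.p 1 ^ 2 := by ring
    rw [e]
    refine (abs_add_le _ _).trans ?_
    linarith
  constructor
  · intro k
    fin_cases k
    · exact hp0.trans (by linarith)
    · exact hp1.trans (by linarith)
    · exact hp2.trans (by linarith)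
  · intro k
    fin_cases k
    · exact hv0.trans (by linarith)
    · exact v1.trans (by linarith)
    · exact hv2.trans (by linarith)

/-- container coordinates against normal coordinates -/
theorem hat_bd {P : Pj} {η R : ℝ} {t : Ln4} (h : P.Sm η) (hR : 1 ≤ R)
    (hη : 40 * (η * R ^ 2) ≤ 1) (hp : ∀ k, |t.p k| ≤ R) (hv : ∀ k, |t.v k| ≤ R) :
    (∀ k, |(P.line t).p k - t.p k| ≤ 1) ∧ ∀ k, |(P.line t).v k - t.v k| ≤ 1 := by
  have hn := h.nn
  have h20 : 20 * (η * R) ≤ 1 := by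
    have : η * R ≤ η * R ^ 2 := mul_le_mul_of_nonneg_left (by nlinarith) hn
    have := mul_nonneg hn (by linarith : (0:ℝ) ≤ R)
    linarith
  exact ⟨fun k => (Pj.line_p h hp hv hR h20 k).trans hη, fun k => (Pj.line_v h hp hv hR h20 k).trans hη⟩

/-- sizes of the slots -/
theorem unW_bd {uz uc D X : ℝ} (hX : 1 ≤ X) (hz : 0 < uz) (hc : 0 < uc) (hz' : 1 / uz ≤ X)
    (hc' : 1 / uc ≤ X) (hD : D ≤ X) (k : Fin 14) : unW uz uc D (Fin.natAdd 4 k) ≤ X ^ 9 := by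
  have X0 : 0 ≤ X := by linarith
  have key : ∀ {u : ℝ}, 0 < u → 1 / u ≤ X → ∀ m : ℤ, -4 ≤ m → m ≤ 0 → u ^ m ≤ X ^ 4 := by
    intro u hu hu' m h1 h2
    obtain ⟨j, hj⟩ := Int.exists_eq_neg_ofNat h2
    have hj4 : j ≤ 4 := by omega
    rw [hj, zpow_neg, zpow_natCast, ← inv_pow, ← one_div]
    exact (pow_le_pow_left₀ (by positivity) hu' j).trans (pow_le_pow_right₀ hX hj4)
  have a1 : -4 ≤ wz (Fin.natAdd 4 k) ∧ wz (Fin.natAdd 4 k) ≤ 0 := by revert k; decide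
  have a2 : -4 ≤ wc (Fin.natAdd 4 k) ∧ wc (Fin.natAdd 4 k) ≤ 0 := by revert k; decide
  unfold unW
  rw [Tn327.wn_right, zpow_one]
  have b1 := key hz hz' _ a1.1 a1.2
  have b2 := key hc hc' _ a2.1 a2.2
  have p1 : 0 < uz ^ wz (Fin.natAdd 4 k) := zpow_pos hz _
  have p2 : 0 < uc ^ wc (Fin.natAdd 4 k) := zpow_pos hc _
  calc uz ^ wz (Fin.natAdd 4 k) * uc ^ wc (Fin.natAdd 4 k) * D
      ≤ uz ^ wz (Fin.natAdd 4 k) * uc ^ wc (Fin.natAdd 4 k) * X :=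
        mul_le_mul_of_nonneg_left hD (by positivity)
    _ ≤ X ^ 4 * X ^ 4 * X := mul_le_mul_of_nonneg_right (mul_le_mul b1 b2 p2.le (by positivity)) X0
    _ = _ := by ring

/-- flags of two incidences of a class of marks -/
theorem step_k {κ : ℝ} (hκ : |κ| ≤ 1) {Lx Ly : Ln4} {zx zy zm zn r α D X : ℝ} (hX : 6 ≤ X)
    (hr : 0 < r) (hα : 0 < α) (hr' : 1 / r ≤ X) (hc' : 1 / (α / r) ≤ X) (hD : D ≤ X)
    {M Gx Gy : Fin 14 → ℝ} (hrel : ∀ i, |rel κ (frW Lx zx) (frW Ly zy) i| ≤ X)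
    (cx : CloseW κ (frW Lx zm) r α (α ^ 2 / r) D M Gx)
    (cy : CloseW κ (frW Ly zn) r α (α ^ 2 / r) D M Gy)
    (hzx : |zx - zm| ≤ X * r) (hzy : |zy - zn| ≤ X * r)
    (hdx : |drW κ Lx * (zx - zm)| ≤ X * (α ^ 2 / r))
    (hdy : |drW κ Ly * (zy - zn)| ≤ X * (α ^ 2 / r)) (k : Fin 14) :
    |tr κ (frW Ly zy) (Gy - Gx) k| ≤ 10 ^ 22 * X ^ 112 := by
  have X1 : 1 ≤ X := by linarith
  have sx : ∀ q, |tr κ (frW Lx zx) (M - Gx) q| ≤ 470 * X ^ 16 := fun q => by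
    refine (slots_of_close' hκ Lx hr hα hX cx hzx hdx q).trans ?_
    have := unW_bd X1 hr (div_pos hα hr) hr' hc' hD q
    calc 470 * X ^ 7 * unW r (α / r) D (Fin.natAdd 4 q) ≤ 470 * X ^ 7 * X ^ 9 :=
          mul_le_mul_of_nonneg_left this (by positivity)
      _ = _ := by ring
  have sy : ∀ q, |tr κ (frW Ly zy) (M - Gy) q| ≤ 470 * X ^ 16 := fun q => by
    refine (slots_of_close' hκ Ly hr hα hX cy hzy hdy q).trans ?_
    have := unW_bd X1 hr (div_pos hα hr) hr' hc' hD q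
    calc 470 * X ^ 7 * unW r (α / r) D (Fin.natAdd 4 q) ≤ 470 * X ^ 7 * X ^ 9 :=
          mul_le_mul_of_nonneg_left this (by positivity)
      _ = _ := by ring
  have e1 : Gy - Gx = (M - Gx) - (M - Gy) := by
    funext q; simp only [Pi.sub_apply]; ring
  have e2 : tr κ (frW Ly zy) (M - Gx) =
      tr κ (rel κ (frW Lx zx) (frW Ly zy)) (tr κ (frW Lx zx) (M - Gx)) := tr_rel κ _ _ _
  rw [e1, tr_sub, Pi.sub_apply, e2]
  have K1 : 1 ≤ 470 * X ^ 16 := by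
    have := one_le_pow₀ X1 (n := 16)
    linarith
  have XK : X ≤ 470 * X ^ 16 := by
    have h1 : X ≤ X ^ 16 := by
      calc X = X ^ 1 := (pow_one _).symm
        _ ≤ X ^ 16 := pow_le_pow_right₀ X1 (by norm_num)
    have : 0 ≤ X ^ 16 := by positivity
    linarith
  have s1 := tr_size1 hκ K1 (fun i => (hrel i).trans XK) sx k
  refine (abs_sub _ _).trans ?_
  have s2 := sy k
  have e3 : 470 * (470 * X ^ 16) ^ 7 = (470 : ℝ) ^ 8 * X ^ 112 := by ring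
  rw [e3] at s1
  have q1 : X ^ 16 ≤ X ^ 112 := pow_le_pow_right₀ X1 (by norm_num)
  have q0 : 0 ≤ X ^ 112 := by positivity
  have q2 : (470 : ℝ) ^ 8 * X ^ 112 + 470 * X ^ 112 ≤ 10 ^ 22 * X ^ 112 := by
    rw [← add_mul]
    exact mul_le_mul_of_nonneg_right (by norm_num) q0
  linarith

end Crest.Agent.R136.Ste650
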